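import Crest.Agent.R096.Ac5_117

/-!
# R096 (row 96), (ARCS), part 10: `Dep` from closed cycles with inside functions (helper117)
-/

set_option autoImplicit false

open Set

namespace Crest.Agent.R096.Ac_117

variable {Q Z L Y : Type*}

/-- closed cycles and inside functions -/
structure Cyc (A : Arr Q Z L) (Y : Type*) where
  cy : Q → Y
  t : Y → Q → Bool → ZMod 2
  cy_nx : ∀ d, cy (A.pce (Arr.nx d)) = cy (A.pce d)
  conn : ∀ X : Set Q, (∀ d, A.pce d ∈ X → A.pce (Arr.nx d) ∈ X) →
    ∀ p p', cy p = cy p' → p ∈ X → p' ∈ X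
  off : ∀ p r, cy r ≠ cy p → t (cy p) r false + t (cy p) r true = 0
  on : ∀ p r, cy r = cy p → t (cy p) r false + t (cy p) r true = 1
  quad : ∀ p z i j, t (cy p) (A.pc z true j) i = t (cy p) (A.pc z false i) j
  lk : ∀ p l i, t (cy p) (A.lp l false) i = t (cy p) (A.lp l true) (xor i (A.tw l))

namespace Cyc

variable {A : Arr Q Z L} (W : Cyc A Y)

open Classical in
lemma colr (p : Q) : A.Colr (fun r => if W.cy r = W.cy p then 1 else 0) (W.t (W.cy p)) where
  jump r := by
    show _ = if W.cy r = W.cy p then (1 : ZMod 2) else 0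
    by_cases h : W.cy r = W.cy p
    · rw [if_pos h]; exact W.on p r h
    · rw [if_neg h]; exact W.off p r h
  quad := W.quad p
  lk := W.lk p

lemma col_eq {p p' : Q} (h : W.cy p = W.cy p') : A.col p = A.col p' := by
  have := W.conn {r | A.col r = A.col p} (fun d hd => by
    show A.col (A.pce (Arr.nx d)) = A.col p
    rw [A.col_nx]; exact hd) p p' h rfl
  exact Eq.symm this

/-- a cycle of the same colour is on one side -/
lemma const {p p' r : Q} (hc : A.col p' = A.col p) (hne : W.cy p' ≠ W.cy p)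
    (h : W.cy r = W.cy p') (i i' : Bool) : W.t (W.cy p) r i = W.t (W.cy p) p' i' := by
  classical
  have hI := W.colr p
  have h0 : ∀ r, W.cy r = W.cy p' → (if W.cy r = W.cy p then (1 : ZMod 2) else 0) = 0 := by
    intro r hr
    rw [if_neg]
    rw [hr]; exact hne
  have key := W.conn {r | W.cy r = W.cy p' ∧ ∀ a b, W.t (W.cy p) r a = W.t (W.cy p) p' b} ?_
    p' r h.symm ⟨rfl, fun a b => hI.side_eq (h0 p' rfl) a b⟩
  · exact key.2 i i'
  · rintro d ⟨hd1, hd2⟩
    have hd3 : W.cy (A.pce (Arr.nx d)) = W.cy p' := (W.cy_nx d).trans hd1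
    refine ⟨hd3, fun a b => ?_⟩
    rw [← hd2 false b]
    rcases d with ⟨z, c, j⟩ | ⟨l, i⟩
    · have hc' : c = A.col p := by
        rw [← hc, ← W.col_eq hd1]
        exact (A.pc_col z c j).symm
      have h1 : (if W.cy (A.pc z (!c) false) = W.cy p then (1 : ZMod 2) else 0) = 0 := by
        rw [if_neg]
        intro h
        have := W.col_eq h
        rw [A.pc_col, ← hc'] at this
        cases c <;> simp at this
      have h2 : W.t (W.cy p) (A.pc z c (!j)) a = W.t (W.cy p) (A.pc z c (!j)) false :=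
        hI.side_eq (h0 _ hd3) a false
      exact h2.trans (hI.cross z c false h1 _ _)
    · have h1 : W.cy (A.lp l i) = W.cy p' := hd1
      have h2 : W.cy (A.lp l (!i)) = W.cy p' := hd3
      have h3 : ∀ k, W.cy (A.lp l k) = W.cy p' := by
        intro k
        cases i <;> cases k <;> first | exact h1 | exact h2
      exact hI.link l (h0 _ (h3 _)) (h0 _ (h3 _)) _ _ _ _

/-- **nesting** -/
lemma nest {p p' : Q} (hc : A.col p = A.col p') (hne : W.cy p ≠ W.cy p')
    (h1 : W.t (W.cy p) p' true = 1) (h0 : W.t (W.cy p') p true = 0)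
    (hend : ∀ r, W.cy r ≠ W.cy p → W.cy r ≠ W.cy p' →
      ∃ e, W.cy e = W.cy r ∧ (W.t (W.cy p') e true = 1 → W.t (W.cy p) e true = 1)) (r : Q) (i : Bool)
    (hr : W.t (W.cy p') r i = 1) : W.t (W.cy p) r i = 1 := by
  classical
  have hA := W.colr p
  have hB := W.colr p'
  have e2 : ∀ a b : ZMod 2, (b = 1 → a = 1) ↔ (a + 1) * b = 0 := by decide
  -- the indicator of the bad event
  have e3 : ∀ r i, (W.t (W.cy p) r i + 1) * W.t (W.cy p') r i =
      (W.t (W.cy p) r (!i) + 1) * W.t (W.cy p') r (!i) := by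
    intro r i
    by_cases g1 : W.cy r = W.cy p
    · have : ∀ k, W.t (W.cy p') r k = 0 := fun k => by
        rw [W.const hc hne g1 k true]; exact h0
      rw [this, this, mul_zero, mul_zero]
    · by_cases g2 : W.cy r = W.cy p'
      · have : ∀ k, W.t (W.cy p) r k = 1 := fun k => by
          rw [W.const hc.symm (Ne.symm hne) g2 k true]; exact h1
        rw [this, this]
        have : (1 : ZMod 2) + 1 = 0 := by decide
        rw [this, zero_mul, zero_mul]
      · rw [hA.side_eq (if_neg g1) i (!i), hB.side_eq (if_neg g2) i (!i)]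
  have e4 : ∀ r i j, (W.t (W.cy p) r i + 1) * W.t (W.cy p') r i =
      (W.t (W.cy p) r j + 1) * W.t (W.cy p') r j := by
    intro r i j
    cases i <;> cases j
    · rfl
    · exact e3 r false
    · exact e3 r true
    · rfl
  have key : ∀ r, (W.t (W.cy p) r true + 1) * W.t (W.cy p') r true = 0 := by
    intro r
    by_cases g1 : W.cy r = W.cy p
    · rw [W.const hc hne g1 true true, h0, mul_zero]
    by_cases g2 : W.cy r = W.cy p'
    · rw [W.const hc.symm (Ne.symm hne) g2 true true, h1]
      have : (1 : ZMod 2) + 1 = 0 := by decide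
      rw [this, zero_mul]
    obtain ⟨e, he, he2⟩ := hend r g1 g2
    refine W.conn {r | (W.t (W.cy p) r true + 1) * W.t (W.cy p') r true = 0} ?_ e r he
      ((e2 _ _).1 he2)
    rintro d hd
    show (W.t (W.cy p) (A.pce (Arr.nx d)) true + 1) * W.t (W.cy p') (A.pce (Arr.nx d)) true = 0
    have hd' : (W.t (W.cy p) (A.pce d) true + 1) * W.t (W.cy p') (A.pce d) true = 0 := hd
    rw [← hd']
    rcases d with ⟨z, c, j⟩ | ⟨l, i⟩
    · show (W.t (W.cy p) (A.pc z c (!j)) true + 1) * W.t (W.cy p') (A.pc z c (!j)) true =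
        (W.t (W.cy p) (A.pc z c j) true + 1) * W.t (W.cy p') (A.pc z c j) true
      rw [hA.quad' z c true (!j), hB.quad' z c true (!j), hA.quad' z c true j, hB.quad' z c true j]
      exact e4 _ _ _
    · show (W.t (W.cy p) (A.lp l (!i)) true + 1) * W.t (W.cy p') (A.lp l (!i)) true =
        (W.t (W.cy p) (A.lp l i) true + 1) * W.t (W.cy p') (A.lp l i) true
      have h5 : ∀ k, (W.t (W.cy p) (A.lp l false) k + 1) * W.t (W.cy p') (A.lp l false) k =
          (W.t (W.cy p) (A.lp l true) (xor k (A.tw l)) + 1) *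
            W.t (W.cy p') (A.lp l true) (xor k (A.tw l)) := by
        intro k
        rw [W.lk p, W.lk p']
      cases i
      · show (W.t (W.cy p) (A.lp l true) true + 1) * W.t (W.cy p') (A.lp l true) true =
          (W.t (W.cy p) (A.lp l false) true + 1) * W.t (W.cy p') (A.lp l false) true
        rw [h5 true]
        exact e4 _ _ _
      · show (W.t (W.cy p) (A.lp l false) true + 1) * W.t (W.cy p') (A.lp l false) true =
          (W.t (W.cy p) (A.lp l true) true + 1) * W.t (W.cy p') (A.lp l true) true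
        rw [h5 true]
        exact e4 _ _ _
  have h6 := key r
  rw [e4 r true i] at h6
  exact (e2 _ _).2 h6 hr

open Classical in
/-- **`Dep` from closed cycles** -/
noncomputable def dep (rk : Y → ℕ) (hinj : ∀ p p', rk (W.cy p) = rk (W.cy p') → W.cy p = W.cy p')
    (hlam : ∀ p p', A.col p = A.col p' → W.cy p ≠ W.cy p' → W.t (W.cy p) p' true = 1 →
      rk (W.cy p) < rk (W.cy p') ∧ W.t (W.cy p') p true = 0 ∧
      ∀ r, W.cy r ≠ W.cy p → W.cy r ≠ W.cy p' →
        ∃ e, W.cy e = W.cy r ∧ (W.t (W.cy p') e true = 1 → W.t (W.cy p) e true = 1)) :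
    Dep A where
  k := fun p => rk (W.cy p)
  I := fun n p i => if h : ∃ p0, rk (W.cy p0) = n then W.t (W.cy h.choose) p i else 0
  k_nx := fun d => by
    show rk _ = rk _
    rw [W.cy_nx]
  conn := fun X hX p p' h hp => W.conn X hX p p' (hinj _ _ h) hp
  inside := fun p => by
    have h1 : (fun p' i => if h : ∃ p0, rk (W.cy p0) = rk (W.cy p) then
        W.t (W.cy h.choose) p' i else 0) = W.t (W.cy p) := by
      funext p' i
      have h : ∃ p0, rk (W.cy p0) = rk (W.cy p) := ⟨p, rfl⟩
      rw [dif_pos h, hinj _ _ h.choose_spec]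
    have h2 : (fun r => if rk (W.cy r) = rk (W.cy p) then (1 : ZMod 2) else 0) =
        fun r => if W.cy r = W.cy p then (1 : ZMod 2) else 0 := by
      funext r
      by_cases h : W.cy r = W.cy p
      · rw [if_pos h, if_pos (by rw [h])]
      · rw [if_neg h, if_neg (fun h' => h (hinj _ _ h'))]
    show A.Colr (fun r => if rk (W.cy r) = rk (W.cy p) then (1 : ZMod 2) else 0) _
    rw [h1, h2]
    exact W.colr p
  lam := fun p p' hc hne h1 => by
    have h2 : ∀ p, (fun p' i => if h : ∃ p0, rk (W.cy p0) = rk (W.cy p) then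
        W.t (W.cy h.choose) p' i else 0) = W.t (W.cy p) := by
      intro p
      funext p' i
      have h : ∃ p0, rk (W.cy p0) = rk (W.cy p) := ⟨p, rfl⟩
      rw [dif_pos h, hinj _ _ h.choose_spec]
    have h1' : W.t (W.cy p) p' true = 1 := by
      rw [← h2 p]; exact h1
    have hne' : W.cy p ≠ W.cy p' := fun h => hne (by
      show rk (W.cy p) = rk (W.cy p')
      rw [h])
    obtain ⟨k1, k2, k3⟩ := hlam p p' hc hne' h1'
    refine ⟨k1, fun r i hr => ?_⟩
    have hr' : W.t (W.cy p') r i = 1 := by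
      rw [← h2 p']; exact hr
    have := W.nest hc hne' h1' k2 k3 r i hr'
    rw [← h2 p] at this
    exact this

lemma dep_k (rk : Y → ℕ) (hinj) (hlam) (p : Q) :
    (W.dep rk hinj hlam).k p = rk (W.cy p) := rfl

lemma dep_I (rk : Y → ℕ) (hinj) (hlam) (p : Q) :
    (W.dep rk hinj hlam).I (rk (W.cy p)) = W.t (W.cy p) := by
  classical
  funext p' i
  have h : ∃ p0, rk (W.cy p0) = rk (W.cy p) := ⟨p, rfl⟩
  show (if h : ∃ p0, rk (W.cy p0) = rk (W.cy p) then W.t (W.cy h.choose) p' i else 0) = _
  rw [dif_pos h, hinj _ _ h.choose_spec]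

end Cyc

end Crest.Agent.R096.Ac_117
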