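import Mathlib

/-!
# R096 (row 96), (ARCS), part 1: two involutions, classes, pairs of fixed points (helper117)

`cls s t d` = the smallest set containing `d` and closed under `s` and `t`.
`pair`: if `s` has no fixed point and `t d = d`, the class of `d` contains exactly one further fixed
point of `t`.
-/

set_option autoImplicit false

open Set

namespace Crest.Agent.R096.Ac_117

section Pair

variable {D : Type*}

/-- the class of `d` under `s`, `t` -/
def cls (s t : D → D) (d : D) : Set D :=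
  {f | ∀ X : Set D, (∀ a ∈ X, s a ∈ X) → (∀ a ∈ X, t a ∈ X) → d ∈ X → f ∈ X}

lemma mem_cls (s t : D → D) (d : D) : d ∈ cls s t d := fun _ _ _ h => h

lemma cls_s {s t : D → D} {d a : D} (h : a ∈ cls s t d) : s a ∈ cls s t d :=
  fun X hs ht hd => hs a (h X hs ht hd)

lemma cls_t {s t : D → D} {d a : D} (h : a ∈ cls s t d) : t a ∈ cls s t d :=
  fun X hs ht hd => ht a (h X hs ht hd)

/-- induction along a class -/
lemma cls_ind {s t : D → D} {d : D} {P : D → Prop} (hd : P d)
    (hs : ∀ a ∈ cls s t d, P a → P (s a)) (ht : ∀ a ∈ cls s t d, P a → P (t a)) :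
    ∀ a ∈ cls s t d, P a := by
  intro a ha
  have := ha {b | b ∈ cls s t d ∧ P b} (fun b hb => ⟨cls_s hb.1, hs b hb.1 hb.2⟩)
    (fun b hb => ⟨cls_t hb.1, ht b hb.1 hb.2⟩) ⟨mem_cls s t d, hd⟩
  exact this.2

lemma cls_symm {s t : D → D} (hs : Function.Involutive s) (ht : Function.Involutive t) {d a : D}
    (h : a ∈ cls s t d) : d ∈ cls s t a := by
  refine cls_ind (P := fun b => d ∈ cls s t b) (mem_cls s t d) ?_ ?_ a h
  · intro b _ hb X h1 h2 h3
    refine hb X h1 h2 ?_
    have := h1 _ h3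
    rwa [hs b] at this
  · intro b _ hb X h1 h2 h3
    refine hb X h1 h2 ?_
    have := h2 _ h3
    rwa [ht b] at this

lemma cls_trans {s t : D → D} {d a b : D} (h : a ∈ cls s t d) (h' : b ∈ cls s t a) :
    b ∈ cls s t d := fun X h1 h2 h3 => h' X h1 h2 (h X h1 h2 h3)

theorem pair [Finite D] {s t : D → D} (hs : Function.Involutive s) (ht : Function.Involutive t)
    (hsf : ∀ d, s d ≠ d) {d : D} (hd : t d = d) :
    ∃ e ∈ cls s t d, t e = e ∧ e ≠ d ∧ ∀ f ∈ cls s t d, t f = f → f = d ∨ f = e := by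
  classical
  let S : Equiv.Perm D := hs.toPerm
  let T : Equiv.Perm D := ht.toPerm
  have hSS : S * S = 1 := by
    ext x; exact hs x
  have hTT : T * T = 1 := by
    ext x; exact ht x
  have hSi : S⁻¹ = S := inv_eq_of_mul_eq_one_left hSS
  have hTi : T⁻¹ = T := inv_eq_of_mul_eq_one_left hTT
  let g : Equiv.Perm D := T * S
  have hgi : g⁻¹ = S * T := by
    show (T * S)⁻¹ = S * T
    rw [mul_inv_rev, hSi, hTi]
  have hS : ∀ n : ℤ, S * g ^ n * S⁻¹ = g ^ (-n) := by
    intro n
    rw [← conj_zpow]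
    have : S * g * S⁻¹ = g⁻¹ := by
      rw [hSi, hgi]
      show S * (T * S) * S = S * T
      rw [mul_assoc, mul_assoc, hSS, mul_one]
    rw [this, inv_zpow']
  have hT : ∀ n : ℤ, T * g ^ n * T⁻¹ = g ^ (-n) := by
    intro n
    rw [← conj_zpow]
    have : T * g * T⁻¹ = g⁻¹ := by
      rw [hTi, hgi]
      show T * (T * S) * T = S * T
      rw [← mul_assoc, hTT, one_mul]
    rw [this, inv_zpow']
  have tpow : ∀ n : ℤ, t ((g ^ n) d) = (g ^ (-n)) d := by
    intro n
    have h1 := congrArg (fun e : Equiv.Perm D => e d) (hT n)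
    have h2 : (T * g ^ n * T⁻¹) d = t ((g ^ n) d) := by
      rw [hTi]
      show t ((g ^ n) (t d)) = _
      rw [hd]
    rw [← h2]
    exact h1
  have sd : s d = (g ^ (-1 : ℤ)) d := by
    rw [zpow_neg_one, hgi]
    show s d = s (t d)
    rw [hd]
  have spow : ∀ n : ℤ, s ((g ^ n) d) = (g ^ (-n - 1)) d := by
    intro n
    have h1 := congrArg (fun e : Equiv.Perm D => e (s d)) (hS n)
    have h2 : (S * g ^ n * S⁻¹) (s d) = s ((g ^ n) d) := by
      rw [hSi]
      show s ((g ^ n) (s (s d))) = _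
      rw [hs d]
    rw [← h2]
    refine h1.trans ?_
    show (g ^ (-n)) (s d) = _
    rw [sd, ← Equiv.Perm.mul_apply, ← zpow_add]
    rfl
  -- the class is the orbit
  have horb : ∀ f ∈ cls s t d, ∃ n : ℤ, f = (g ^ n) d := by
    intro f hf
    refine hf {f | ∃ n : ℤ, f = (g ^ n) d} ?_ ?_ ⟨0, by simp⟩
    · rintro a ⟨n, rfl⟩
      exact ⟨_, spow n⟩
    · rintro a ⟨n, rfl⟩
      exact ⟨_, tpow n⟩
  have hgc : ∀ a ∈ cls s t d, g a ∈ cls s t d := fun a ha => cls_t (cls_s ha)
  have hnat : ∀ n : ℕ, (g ^ n) d ∈ cls s t d := by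
    intro n
    induction n with
    | zero => simpa using mem_cls s t d
    | succ n ih =>
      rw [pow_succ', Equiv.Perm.mul_apply]
      exact hgc _ ih
  let N : ℕ := Function.minimalPeriod (fun x => g • x) d
  have hN : ∀ n : ℤ, (g ^ n) d = d ↔ (N : ℤ) ∣ n := by
    intro n
    exact MulAction.zpow_smul_eq_iff_minimalPeriod_dvd (a := g) (b := d) (n := n)
  have hNpos : 0 < N := by
    apply Function.minimalPeriod_pos_of_mem_periodicPts
    have : IsOfFinOrder g := isOfFinOrder_of_finite g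
    obtain ⟨m, hm, hgm⟩ := isOfFinOrder_iff_pow_eq_one.1 this
    refine ⟨m, hm, ?_⟩
    show (fun x => g • x)^[m] d = d
    rw [smul_iterate]
    show (g ^ m) d = d
    rw [hgm]; rfl
  have heven : Even N := by
    rw [← Nat.not_odd_iff_even]
    rintro ⟨m, hm⟩
    apply hsf ((g ^ (m : ℤ)) d)
    rw [spow]
    have h1 : (g ^ (-(m : ℤ) - 1)) d = (g ^ (m : ℤ)) ((g ^ (-(2 * m + 1 : ℤ))) d) := by
      rw [← Equiv.Perm.mul_apply, ← zpow_add]
      congr 2
      ring
    rw [h1]
    congr 1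
    rw [hN]
    refine ⟨-1, ?_⟩
    rw [hm]; push_cast; ring
  obtain ⟨m, hm⟩ := heven
  have hm0 : 0 < m := by omega
  refine ⟨(g ^ m) d, hnat m, ?_, ?_, ?_⟩
  · have h1 := tpow m
    rw [zpow_natCast] at h1
    rw [h1]
    have h2 : (g ^ (-(m : ℤ))) d = (g ^ m) ((g ^ (-(m + m : ℤ))) d) := by
      rw [← zpow_natCast, ← Equiv.Perm.mul_apply, ← zpow_add]
      congr 2
      ring
    rw [h2]
    congr 1
    rw [hN]
    refine ⟨-1, ?_⟩
    rw [hm]; push_cast; ring
  · intro h
    have h1 := (hN m).1 (by rw [zpow_natCast]; exact h)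
    have h2 := Int.le_of_dvd (by exact_mod_cast hm0) h1
    have h3 : N ≤ m := by exact_mod_cast h2
    omega
  · intro f hf htf
    obtain ⟨n, rfl⟩ := horb f hf
    rw [tpow] at htf
    have h1 : (g ^ (2 * n)) d = d := by
      have h2 : (g ^ n) ((g ^ (-n)) d) = (g ^ n) ((g ^ n) d) := by rw [htf]
      rw [← Equiv.Perm.mul_apply, ← Equiv.Perm.mul_apply, ← zpow_add, ← zpow_add] at h2
      have e1 : n + -n = 0 := by ring
      have e2 : n + n = 2 * n := by ring
      rw [e1, e2, zpow_zero] at h2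
      exact h2.symm
    obtain ⟨r, hr⟩ := (hN _).1 h1
    have hmr : n = m * r := by
      rw [hm] at hr
      push_cast at hr
      have : (2 : ℤ) * n = 2 * (m * r) := by rw [hr]; ring
      exact mul_left_cancel₀ (by norm_num) this
    rcases Int.even_or_odd r with ⟨r', hr'⟩ | ⟨r', hr'⟩
    · left
      rw [hN]
      refine ⟨r', ?_⟩
      rw [hmr, hr', hm]; push_cast; ring
    · right
      have h3 : (g ^ n) d = (g ^ m) ((g ^ (n - m)) d) := by
        rw [← zpow_natCast, ← Equiv.Perm.mul_apply, ← zpow_add]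
        congr 2
        ring
      rw [h3]
      congr 1
      rw [hN]
      refine ⟨r', ?_⟩
      rw [hmr, hr', hm]; push_cast; ring

end Pair

end Crest.Agent.R096.Ac_117
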