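import Crest.Agent.R096.Ac1_117

/-!
# R096 (row 96), (ARCS), part 2: the arrangement on the boundary of a cell, abstractly (helper117)

`Arr Q Z L`: pieces `Q` (sub-chords of both colours), double points `Z`, link points `L` (points of
the state on the mesh edges).  `pc z c j` = the piece of colour `c` at `z` on side `j` of the other
chord.  `Colr u t`: `t p i` = colour on side `i` of the piece `p`, jump `u p` across `p`.
`SIDE`: every closed mod 2 chain has a colouring.
`Dep`: ranks `k` of the closed cycles (smaller = deeper) and inside functions `I`.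
-/

set_option autoImplicit false

open Set

namespace Crest.Agent.R096.Ac_117

/-- ends of pieces: at a double point (`(z, c, j)`) or at a link point (`(l, i)`) -/
abbrev Drt (Z L : Type*) := (Z × Bool × Bool) ⊕ (L × Bool)

/-- pieces, double points and link points on the boundary of a cell -/
structure Arr (Q Z L : Type*) where
  col : Q → Bool
  pc : Z → Bool → Bool → Q
  lp : L → Bool → Q
  tw : L → Bool
  flip : Drt Z L → Drt Z L
  pc_col : ∀ z c j, col (pc z c j) = c
  lp_col : ∀ l, col (lp l false) = col (lp l true)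
  flip_flip : ∀ d, flip (flip d) = d
  flip_ne : ∀ d, flip d ≠ d
  /-- the two ends belong to the same piece -/
  pce_flip : ∀ d, Sum.elim (fun a : Z × Bool × Bool => pc a.1 a.2.1 a.2.2)
    (fun b : L × Bool => lp b.1 b.2) (flip d) =
    Sum.elim (fun a : Z × Bool × Bool => pc a.1 a.2.1 a.2.2) (fun b : L × Bool => lp b.1 b.2) d
  /-- a piece has only two ends -/
  pce_inj : ∀ d e, Sum.elim (fun a : Z × Bool × Bool => pc a.1 a.2.1 a.2.2)
    (fun b : L × Bool => lp b.1 b.2) e =
    Sum.elim (fun a : Z × Bool × Bool => pc a.1 a.2.1 a.2.2) (fun b : L × Bool => lp b.1 b.2) d →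
    e = d ∨ e = flip d

variable {Q Z L : Type*}

namespace Arr

/-- the piece of an end -/
def pce (A : Arr Q Z L) (d : Drt Z L) : Q :=
  Sum.elim (fun a : Z × Bool × Bool => A.pc a.1 a.2.1 a.2.2) (fun b : L × Bool => A.lp b.1 b.2) d

@[simp] lemma pce_inl (A : Arr Q Z L) (z : Z) (c j : Bool) :
    A.pce (Sum.inl (z, c, j)) = A.pc z c j := rfl

@[simp] lemma pce_inr (A : Arr Q Z L) (l : L) (i : Bool) : A.pce (Sum.inr (l, i)) = A.lp l i := rfl

lemma pce_flip' (A : Arr Q Z L) (d : Drt Z L) : A.pce (A.flip d) = A.pce d := A.pce_flip d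

lemma pce_inj' (A : Arr Q Z L) {d e : Drt Z L} (h : A.pce e = A.pce d) : e = d ∨ e = A.flip d :=
  A.pce_inj d e h

/-- the adjacent end on the same curve -/
def nx : Drt Z L → Drt Z L
  | Sum.inl (z, c, j) => Sum.inl (z, c, !j)
  | Sum.inr (l, i) => Sum.inr (l, !i)

lemma nx_nx (d : Drt Z L) : nx (nx d) = d := by
  rcases d with ⟨z, c, j⟩ | ⟨l, i⟩ <;> simp [nx]

lemma nx_ne (d : Drt Z L) : nx d ≠ d := by
  rcases d with ⟨z, c, j⟩ | ⟨l, i⟩ <;> simp [nx]

lemma col_nx (A : Arr Q Z L) (d : Drt Z L) : A.col (A.pce (nx d)) = A.col (A.pce d) := by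
  rcases d with ⟨z, c, j⟩ | ⟨l, i⟩
  · show A.col (A.pc z c (!j)) = A.col (A.pc z c j)
    rw [A.pc_col, A.pc_col]
  · show A.col (A.lp l (!i)) = A.col (A.lp l i)
    cases i
    · exact (A.lp_col l).symm
    · exact A.lp_col l

/-- closed chain -/
structure Cl (A : Arr Q Z L) (u : Q → ZMod 2) : Prop where
  ev : ∀ z, u (A.pc z true false) + u (A.pc z true true) + u (A.pc z false false)
    + u (A.pc z false true) = 0
  lk : ∀ l, u (A.lp l false) = u (A.lp l true)

/-- colouring of the two sides of the pieces with jump `u` -/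
structure Colr (A : Arr Q Z L) (u : Q → ZMod 2) (t : Q → Bool → ZMod 2) : Prop where
  jump : ∀ p, t p false + t p true = u p
  quad : ∀ z i j, t (A.pc z true j) i = t (A.pc z false i) j
  lk : ∀ l i, t (A.lp l false) i = t (A.lp l true) (xor i (A.tw l))

/-- `H¹ = 0` -/
def SIDE (A : Arr Q Z L) : Prop := ∀ u, A.Cl u → ∃ t, A.Colr u t

/-- quadrant rule for an arbitrary colour `c` -/
lemma Colr.quad' {A : Arr Q Z L} {u : Q → ZMod 2} {t : Q → Bool → ZMod 2} (h : A.Colr u t)
    (z : Z) (c i j : Bool) : t (A.pc z c j) i = t (A.pc z (!c) i) j := by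
  cases c
  · exact (h.quad z j i).symm
  · exact h.quad z i j

/-- two sides of a piece with zero jump -/
lemma Colr.side_eq {A : Arr Q Z L} {u : Q → ZMod 2} {t : Q → Bool → ZMod 2} (h : A.Colr u t)
    {p : Q} (hp : u p = 0) (i j : Bool) : t p i = t p j := by
  have h1 := h.jump p
  rw [hp] at h1
  have h2 : t p false = t p true := by
    have : t p false = - t p true := eq_neg_of_add_eq_zero_left h1
    rw [this, ZMod.neg_eq_self_mod_two]
  cases i <;> cases j
  · rfl
  · exact h2
  · exact h2.symm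
  · rfl

lemma Colr.ne {A : Arr Q Z L} {u : Q → ZMod 2} {t : Q → Bool → ZMod 2} (h : A.Colr u t)
    {p : Q} (hp : u p = 1) (i : Bool) : t p (!i) = t p i + 1 := by
  have h1 := h.jump p
  rw [hp] at h1
  cases i
  · show t p true = t p false + 1
    have h2 : t p true = 1 - t p false := by rw [← h1]; ring
    rw [h2]
    generalize t p false = a
    revert a; decide
  · show t p false = t p true + 1
    have h2 : t p false = 1 - t p true := by rw [← h1]; ring
    rw [h2]
    generalize t p true = a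
    revert a; decide

/-- a colouring does not change along a link of two pieces with zero jump -/
lemma Colr.link {A : Arr Q Z L} {u : Q → ZMod 2} {t : Q → Bool → ZMod 2} (h : A.Colr u t) (l : L)
    (h0 : u (A.lp l false) = 0) (h1 : u (A.lp l true) = 0) (i i' j j' : Bool) :
    t (A.lp l i) j = t (A.lp l i') j' := by
  have h2 := h.lk l false
  have e0 : ∀ a b, t (A.lp l false) a = t (A.lp l false) b := fun a b => h.side_eq h0 a b
  have e1 : ∀ a b, t (A.lp l true) a = t (A.lp l true) b := fun a b => h.side_eq h1 a b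
  cases i <;> cases i'
  · exact e0 _ _
  · exact (e0 j false).trans (h2.trans (e1 _ _))
  · exact ((e0 j' false).trans (h2.trans (e1 _ _))).symm
  · exact e1 _ _

/-- at a double point where the crossing chord has zero jump, the colour is the same on both pieces
of a chord (seen from the same side) -/
lemma Colr.cross {A : Arr Q Z L} {u : Q → ZMod 2} {t : Q → Bool → ZMod 2} (h : A.Colr u t) (z : Z)
    (c i : Bool) (h0 : u (A.pc z (!c) i) = 0) (j j' : Bool) :
    t (A.pc z c j) i = t (A.pc z c j') i := by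
  rw [h.quad' z c i j, h.quad' z c i j']
  exact h.side_eq h0 j j'

end Arr

/-- ranks (small = deep) and inside functions -/
structure Dep (A : Arr Q Z L) where
  k : Q → ℕ
  I : ℕ → Q → Bool → ZMod 2
  k_nx : ∀ d, k (A.pce (Arr.nx d)) = k (A.pce d)
  conn : ∀ X : Set Q, (∀ d, A.pce d ∈ X → A.pce (Arr.nx d) ∈ X) →
    ∀ p p', k p = k p' → p ∈ X → p' ∈ X
  inside : ∀ p, A.Colr (fun r => if k r = k p then 1 else 0) (I (k p))
  lam : ∀ p p', A.col p = A.col p' → k p ≠ k p' → I (k p) p' true = 1 →
    k p < k p' ∧ ∀ r i, I (k p') r i = 1 → I (k p) r i = 1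

namespace Dep

variable {A : Arr Q Z L} (E : Dep A)

lemma k_pc (z : Z) (c j j' : Bool) : E.k (A.pc z c j) = E.k (A.pc z c j') := by
  have h := E.k_nx (Sum.inl (z, c, false))
  have h' : E.k (A.pc z c true) = E.k (A.pc z c false) := h
  cases j <;> cases j'
  · rfl
  · exact h'.symm
  · exact h'
  · rfl

lemma k_lp (l : L) (i i' : Bool) : E.k (A.lp l i) = E.k (A.lp l i') := by
  have h := E.k_nx (Sum.inr (l, false))
  have h' : E.k (A.lp l true) = E.k (A.lp l false) := h
  cases i <;> cases i'
  · rfl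
  · exact h'.symm
  · exact h'
  · rfl

/-- a tile has one colour -/
lemma col_eq {p p' : Q} (h : E.k p = E.k p') : A.col p = A.col p' := by
  have := E.conn {r | A.col r = A.col p} (fun d hd => by
    show A.col (A.pce (Arr.nx d)) = A.col p
    rw [A.col_nx]; exact hd) p p' h rfl
  exact Eq.symm this

lemma k_ne {p p' : Q} (h : A.col p ≠ A.col p') : E.k p ≠ E.k p' :=
  fun h' => h (E.col_eq h')

lemma k_ne_pc (z : Z) (c j j' : Bool) : E.k (A.pc z c j) ≠ E.k (A.pc z (!c) j') := by
  apply E.k_ne
  rw [A.pc_col, A.pc_col]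
  cases c <;> simp

/-- the number of the tile of colour `c` at `z` -/
def kz (z : Z) (c : Bool) : ℕ := E.k (A.pc z c false)

lemma k_pc' (z : Z) (c j : Bool) : E.k (A.pc z c j) = E.kz z c := E.k_pc z c j false

lemma kz_ne (z : Z) (c : Bool) : E.kz z c ≠ E.kz z (!c) := E.k_ne_pc z c false false

lemma kz_ne' {z : Z} {c : Bool} {p : Q} (hp : A.col p = !c) : E.k p ≠ E.kz z c := by
  apply E.k_ne
  rw [hp, A.pc_col]
  cases c <;> simp

/-- jump function of a tile -/
def ind (x : ℕ) (r : Q) : ZMod 2 := if E.k r = x then 1 else 0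

lemma inside' {x : ℕ} (hx : ∃ p, E.k p = x) : A.Colr (E.ind x) (E.I x) := by
  obtain ⟨p, rfl⟩ := hx
  exact E.inside p

/-- `I x` is constant along a tile of the colour of `x`, different from `x` -/
lemma I_const {x : ℕ} {p0 p p' : Q} (hx : E.k p0 = x) (hc : A.col p = A.col p0) (hne : E.k p ≠ x)
    (hk : E.k p = E.k p') (i i' : Bool) : E.I x p i = E.I x p' i' := by
  have hI := E.inside' ⟨p0, hx⟩
  have h0 : ∀ r, E.k r = E.k p → E.ind x r = 0 := by
    intro r hr
    unfold ind
    rw [if_neg]
    rw [hr]; exact hne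
  have hcol : ∀ r, E.k r = E.k p → A.col r = A.col p0 := fun r hr => (E.col_eq hr).trans hc
  have key := E.conn {r | E.k r = E.k p ∧ ∀ a b, E.I x r a = E.I x p b} ?_ p p' hk
    ⟨rfl, fun a b => hI.side_eq (h0 p rfl) a b⟩
  · exact (key.2 i' i).symm
  · rintro d ⟨hd1, hd2⟩
    have hd3 : E.k (A.pce (Arr.nx d)) = E.k p := (E.k_nx d).trans hd1
    refine ⟨hd3, fun a b => ?_⟩
    rw [← hd2 false b]
    rcases d with ⟨z, c, j⟩ | ⟨l, i⟩
    · -- crossing: the other colour is not the colour of `x`
      have hc' : c = A.col p0 := by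
        rw [← hcol _ hd1]
        exact (A.pc_col z c j).symm
      have h1 : E.ind x (A.pc z (!c) false) = 0 := by
        unfold ind
        rw [if_neg]
        intro h
        have := E.col_eq (h.trans hx.symm)
        rw [A.pc_col, ← hc'] at this
        cases c <;> simp at this
      have h2 : E.I x (A.pc z c (!j)) a = E.I x (A.pc z c (!j)) false :=
        hI.side_eq (h0 _ hd3) a false
      exact h2.trans (hI.cross z c false h1 _ _)
    · exact hI.link l (h0 _ (by
        have : E.k (A.lp l i) = E.k p := hd1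
        rw [E.k_lp l false i]; exact this)) (h0 _ (by
        have : E.k (A.lp l i) = E.k p := hd1
        rw [E.k_lp l true i]; exact this)) _ _ _ _

/-- at a double point off the tile `x` all four pieces have the same side of `x` -/
lemma I_four {x : ℕ} (hx : ∃ p, E.k p = x) {z : Z} {c : Bool} (h1 : E.kz z c ≠ x)
    (h2 : E.kz z (!c) ≠ x) (j j' i i' : Bool) :
    E.I x (A.pc z c j) i = E.I x (A.pc z (!c) j') i' := by
  have hI := E.inside' hx
  have u1 : ∀ j, E.ind x (A.pc z c j) = 0 := by
    intro j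
    unfold ind
    rw [if_neg]
    rw [E.k_pc']; exact h1
  have u2 : ∀ j, E.ind x (A.pc z (!c) j) = 0 := by
    intro j
    unfold ind
    rw [if_neg]
    rw [E.k_pc']; exact h2
  -- pc z c j at i = pc z (!c) i at j
  calc E.I x (A.pc z c j) i = E.I x (A.pc z c j) j' := hI.side_eq (u1 j) _ _
    _ = E.I x (A.pc z (!c) j') j := hI.quad' z c j' j
    _ = E.I x (A.pc z (!c) j') i' := hI.side_eq (u2 j') _ _

/-- colour of the deeper chord at `z` -/
def dc (z : Z) : Bool := decide (E.kz z true < E.kz z false)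

lemma dc_lt (z : Z) : E.kz z (E.dc z) < E.kz z (!E.dc z) := by
  unfold dc
  by_cases h : E.kz z true < E.kz z false
  · rw [decide_eq_true h]; exact h
  · rw [decide_eq_false h]
    show E.kz z false < E.kz z true
    have := E.kz_ne z true
    have h' : E.kz z true ≠ E.kz z false := this
    omega

lemma dc_eq {z : Z} {c : Bool} (h : E.kz z c < E.kz z (!c)) : E.dc z = c := by
  have := E.dc_lt z
  by_contra hc
  have hc' : E.dc z = !c := by
    cases c <;> cases hd : E.dc z <;> simp_all
  rw [hc', Bool.not_not] at this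
  omega

/-- links of a run: straight on, except at the double points with the tile `x` -/
noncomputable def nxx (x : ℕ) (c : Bool) (d : Drt Z L) : Drt Z L :=
  match d with
  | Sum.inl (z, c', j) => if c' = c ∧ E.kz z (!c) = x then Sum.inl (z, c', j)
      else Sum.inl (z, c', !j)
  | Sum.inr (l, i) => Sum.inr (l, !i)

lemma nxx_fix {x : ℕ} {c : Bool} {z : Z} (h : E.kz z (!c) = x) (j : Bool) :
    E.nxx x c (Sum.inl (z, c, j)) = (Sum.inl (z, c, j) : Drt Z L) := by
  show (if c = c ∧ E.kz z (!c) = x then _ else _) = _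
  rw [if_pos ⟨rfl, h⟩]

lemma nxx_move {x : ℕ} {c : Bool} {z : Z} {c' : Bool} (h : ¬ (c' = c ∧ E.kz z (!c) = x))
    (j : Bool) : E.nxx x c (Sum.inl (z, c', j)) = (Sum.inl (z, c', !j) : Drt Z L) := by
  show (if c' = c ∧ E.kz z (!c) = x then _ else _) = _
  rw [if_neg h]

lemma nxx_inv (x : ℕ) (c : Bool) : Function.Involutive (E.nxx x c : Drt Z L → Drt Z L) := by
  rintro (⟨z, c', j⟩ | ⟨l, i⟩)
  · by_cases h : c' = c ∧ E.kz z (!c) = x
    · obtain ⟨rfl, h⟩ := h
      rw [E.nxx_fix h, E.nxx_fix h]
    · rw [E.nxx_move h, E.nxx_move h, Bool.not_not]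
  · show (Sum.inr (l, !!i) : Drt Z L) = _
    rw [Bool.not_not]

lemma nxx_fixed_iff {x : ℕ} {c : Bool} {d : Drt Z L} (h : E.nxx x c d = d) :
    ∃ z j, d = Sum.inl (z, c, j) ∧ E.kz z (!c) = x := by
  rcases d with ⟨z, c', j⟩ | ⟨l, i⟩
  · by_cases h' : c' = c ∧ E.kz z (!c) = x
    · exact ⟨z, j, by rw [h'.1], h'.2⟩
    · rw [E.nxx_move h'] at h
      simp at h
  · have : (Sum.inr (l, !i) : Drt Z L) = Sum.inr (l, i) := h
    simp at this

lemma nxx_eq_or (x : ℕ) (c : Bool) (d : Drt Z L) : E.nxx x c d = d ∨ E.nxx x c d = Arr.nx d := by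
  rcases d with ⟨z, c', j⟩ | ⟨l, i⟩
  · by_cases h' : c' = c ∧ E.kz z (!c) = x
    · obtain ⟨rfl, h'⟩ := h'
      left; exact E.nxx_fix h' j
    · right
      rw [E.nxx_move h']
      rfl
  · right; rfl

end Dep

end Crest.Agent.R096.Ac_117
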