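import Crest.Agent.R096.Ac2_117

/-!
# R096 (row 96), (ARCS), part 3: the arcs (helper117)

`arc z` = the other end of the run of the deeper curve inside the shallower disc.
-/

set_option autoImplicit false
set_option linter.unusedSectionVars false

open Set

namespace Crest.Agent.R096.Ac_117

variable {Q Z L : Type*} {A : Arr Q Z L}

lemma z2_or (a : ZMod 2) : a = 0 ∨ a = 1 := by
  revert a; decide

lemma z2_add_one {a : ZMod 2} (h : a ≠ 1) : a + 1 = 1 := by
  revert a; decide

namespace Dep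

variable (E : Dep A)

/-- number of the shallower tile at `z` -/
def sx (z : Z) : ℕ := E.kz z (!E.dc z)

/-- number of the deeper tile at `z` -/
def dy (z : Z) : ℕ := E.kz z (E.dc z)

lemma dy_lt (z : Z) : E.dy z < E.sx z := E.dc_lt z

lemma sx_mem (z : Z) : ∃ p, E.k p = E.sx z := ⟨_, rfl⟩

lemma ind_same {z : Z} {c : Bool} {x : ℕ} (h : E.kz z c = x) (j : Bool) :
    E.ind x (A.pc z c j) = 1 := by
  unfold ind
  rw [if_pos]
  rw [E.k_pc']; exact h

lemma ind_ne {p : Q} {x : ℕ} (h : E.k p ≠ x) : E.ind x p = 0 := by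
  unfold ind
  rw [if_neg h]

/-- the sides of the crossing tile `x` along the other chord at `z` -/
lemma I_flip {z : Z} {c : Bool} {x : ℕ} (h : E.kz z (!c) = x) (j i i' : Bool) :
    E.I x (A.pc z c (!j)) i = E.I x (A.pc z c j) i' + 1 := by
  have hI := E.inside' (x := x) ⟨A.pc z (!c) false, h⟩
  have h0 : ∀ j, E.ind x (A.pc z c j) = 0 := fun j => E.ind_ne (by
    rw [E.k_pc']
    rw [← h]
    exact E.kz_ne z c)
  calc E.I x (A.pc z c (!j)) i = E.I x (A.pc z c (!j)) i' := hI.side_eq (h0 _) _ _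
    _ = E.I x (A.pc z (!c) i') (!j) := hI.quad' z c i' (!j)
    _ = E.I x (A.pc z (!c) i') j + 1 := hI.ne (E.ind_same h i') j
    _ = E.I x (A.pc z c j) i' + 1 := by rw [hI.quad' z c i' j]

/-- the side of the inner piece of the deeper chord -/
noncomputable def jin (z : Z) : Bool :=
  open Classical in if E.I (E.sx z) (A.pc z (E.dc z) true) true = 1 then true else false

lemma I_jin (z : Z) (i : Bool) : E.I (E.sx z) (A.pc z (E.dc z) (E.jin z)) i = 1 := by
  have hI := E.inside' (E.sx_mem z)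
  have h0 : ∀ j, E.ind (E.sx z) (A.pc z (E.dc z) j) = 0 := fun j => E.ind_ne (by
    rw [E.k_pc']; exact (E.dy_lt z).ne)
  unfold jin
  split_ifs with h
  · rw [← h]; exact hI.side_eq (h0 _) _ _
  · have h1 := E.I_flip (z := z) (c := E.dc z) (x := E.sx z) rfl true i true
    have h2 : E.I (E.sx z) (A.pc z (E.dc z) false) i =
      E.I (E.sx z) (A.pc z (E.dc z) true) true + 1 := h1
    rw [h2]
    exact z2_add_one h

lemma I_jin' (z : Z) (i : Bool) : E.I (E.sx z) (A.pc z (E.dc z) (!E.jin z)) i = 0 := by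
  rw [E.I_flip (z := z) (c := E.dc z) (x := E.sx z) rfl (E.jin z) i true, E.I_jin]
  decide

/-- inner piece characterised by its side -/
lemma eq_jin {z : Z} {j i : Bool} (h : E.I (E.sx z) (A.pc z (E.dc z) j) i = 1) : j = E.jin z := by
  by_contra hne
  have : j = !E.jin z := by
    cases j <;> cases hj : E.jin z <;> simp_all
  rw [this, E.I_jin'] at h
  exact absurd h (by decide)

/-- the first end of the run -/
noncomputable def rd (z : Z) : Drt Z L := Sum.inl (z, E.dc z, E.jin z)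

/-- the ends of the pieces of the run of the deeper curve at `z` -/
def run (z : Z) : Set (Drt Z L) := cls A.flip (E.nxx (E.sx z) (E.dc z)) (E.rd z)

lemma rd_mem (z : Z) : E.rd z ∈ E.run z := mem_cls _ _ _

lemma run_flip {z : Z} {d : Drt Z L} (h : d ∈ E.run z) : A.flip d ∈ E.run z := cls_s h

lemma run_nxx {z : Z} {d : Drt Z L} (h : d ∈ E.run z) :
    E.nxx (E.sx z) (E.dc z) d ∈ E.run z := cls_t h

lemma run_pce {z : Z} {d e : Drt Z L} (h : d ∈ E.run z) (he : A.pce e = A.pce d) :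
    e ∈ E.run z := by
  rcases A.pce_inj' he with rfl | rfl
  · exact h
  · exact E.run_flip h

/-- pieces of the run: in the deeper tile, inside the shallower one -/
lemma run_prop {z : Z} : ∀ d ∈ E.run z, E.k (A.pce d) = E.dy z ∧
    ∀ i, E.I (E.sx z) (A.pce d) i = 1 := by
  refine cls_ind (P := fun d => E.k (A.pce d) = E.dy z ∧
    ∀ i, E.I (E.sx z) (A.pce d) i = 1) ⟨E.k_pc' z (E.dc z) (E.jin z), E.I_jin z⟩ ?_ ?_
  · rintro d - ⟨h1, h2⟩
    rw [A.pce_flip']
    exact ⟨h1, h2⟩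
  · rintro d - ⟨h1, h2⟩
    have hI := E.inside' (E.sx_mem z)
    have hcol : A.col (A.pce d) = E.dc z := by
      have h3 : E.k (A.pce d) = E.k (A.pc z (E.dc z) false) := h1
      rw [E.col_eq h3, A.pc_col]
    have hne : ∀ p, E.k p = E.dy z → E.ind (E.sx z) p = 0 := fun p hp =>
      E.ind_ne (by rw [hp]; exact (E.dy_lt z).ne)
    rcases d with ⟨u, c', j⟩ | ⟨l, i⟩
    · have hc' : c' = E.dc z := by
        rw [← hcol]; exact (A.pc_col u c' j).symm
      by_cases hf : c' = E.dc z ∧ E.kz u (!E.dc z) = E.sx z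
      · subst hc'
        rw [E.nxx_fix hf.2]
        exact ⟨h1, h2⟩
      · rw [E.nxx_move hf]
        have h4 : E.k (A.pc u c' (!j)) = E.dy z := by
          rw [E.k_pc u c' (!j) j]; exact h1
        refine ⟨h4, fun i => ?_⟩
        show E.I (E.sx z) (A.pc u c' (!j)) i = 1
        have h5 : E.kz u (!c') ≠ E.sx z := by
          intro h; exact hf ⟨hc', by rw [← hc']; exact h⟩
        rw [hI.cross u c' i (E.ind_ne (by rw [E.k_pc']; exact h5)) (!j) j]
        exact h2 i
    · have h4 : ∀ b, E.k (A.lp l b) = E.dy z := fun b => by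
        rw [E.k_lp l b i]; exact h1
      refine ⟨h4 (!i), fun i' => ?_⟩
      show E.I (E.sx z) (A.lp l (!i)) i' = 1
      rw [hI.link l (hne _ (h4 _)) (hne _ (h4 _)) (!i) i i' i']
      exact h2 i'

/-- a fixed end of the run is the first end of the run of some double point -/
lemma run_fixed {z : Z} {d : Drt Z L} (hd : d ∈ E.run z)
    (hf : E.nxx (E.sx z) (E.dc z) d = d) :
    ∃ z', d = E.rd z' ∧ E.dc z' = E.dc z ∧ E.sx z' = E.sx z ∧ E.dy z' = E.dy z := by
  obtain ⟨z', j, rfl, h1⟩ := E.nxx_fixed_iff hf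
  obtain ⟨h2, h3⟩ := E.run_prop _ hd
  have h2' : E.kz z' (E.dc z) = E.dy z := by
    rw [← E.k_pc' z' (E.dc z) j]; exact h2
  have hdc : E.dc z' = E.dc z := E.dc_eq (by rw [h2', h1]; exact E.dy_lt z)
  have hsx : E.sx z' = E.sx z := by
    show E.kz z' (!E.dc z') = _
    rw [hdc]; exact h1
  have hdy : E.dy z' = E.dy z := by
    show E.kz z' (E.dc z') = _
    rw [hdc]; exact h2'
  refine ⟨z', ?_, hdc, hsx, hdy⟩
  have : j = E.jin z' := E.eq_jin (i := true) (by
    rw [hsx, hdc]; exact h3 true)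
  show _ = Sum.inl (z', E.dc z', E.jin z')
  rw [hdc, this]

lemma rd_fixed {z z' : Z} (h1 : E.dc z' = E.dc z) (h2 : E.sx z' = E.sx z) :
    E.nxx (E.sx z) (E.dc z) (E.rd z') = E.rd z' := by
  show E.nxx (E.sx z) (E.dc z) (Sum.inl (z', E.dc z', E.jin z')) = _
  rw [h1]
  rw [E.nxx_fix (by rw [← h2, ← h1]; rfl)]
  show (Sum.inl (z', E.dc z, E.jin z') : Drt Z L) = Sum.inl (z', E.dc z', E.jin z')
  rw [h1]

lemma rd_inj {z z' : Z} (h : E.rd z = E.rd z') : z = z' := by
  have := Sum.inl.inj h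
  exact congrArg Prod.fst this

theorem exists_arc [Finite Z] [Finite L] (z : Z) :
    ∃ z', E.rd z' ∈ E.run z ∧ z' ≠ z ∧ E.dc z' = E.dc z ∧ E.sx z' = E.sx z ∧ E.dy z' = E.dy z ∧
      ∀ f ∈ E.run z, E.nxx (E.sx z) (E.dc z) f = f → f = E.rd z ∨ f = E.rd z' := by
  obtain ⟨e, he, hef, hne, huniq⟩ := pair (D := Drt Z L) (s := A.flip)
    (t := E.nxx (E.sx z) (E.dc z)) A.flip_flip (E.nxx_inv _ _) A.flip_ne
    (d := E.rd z) (E.rd_fixed rfl rfl)
  obtain ⟨z', rfl, h1, h2, h3⟩ := E.run_fixed he hef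
  exact ⟨z', he, fun h => hne (by rw [h]), h1, h2, h3, huniq⟩

section Arc

variable [Finite Z] [Finite L]

/-- the other end of the arc -/
noncomputable def arc (z : Z) : Z := (E.exists_arc z).choose

lemma arc_spec (z : Z) : E.rd (E.arc z) ∈ E.run z ∧ E.arc z ≠ z ∧ E.dc (E.arc z) = E.dc z ∧
    E.sx (E.arc z) = E.sx z ∧ E.dy (E.arc z) = E.dy z ∧
      ∀ f ∈ E.run z, E.nxx (E.sx z) (E.dc z) f = f → f = E.rd z ∨ f = E.rd (E.arc z) :=
  (E.exists_arc z).choose_spec

lemma arc_ne (z : Z) : E.arc z ≠ z := (E.arc_spec z).2.1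

lemma dc_arc (z : Z) : E.dc (E.arc z) = E.dc z := (E.arc_spec z).2.2.1

lemma sx_arc (z : Z) : E.sx (E.arc z) = E.sx z := (E.arc_spec z).2.2.2.1

lemma dy_arc (z : Z) : E.dy (E.arc z) = E.dy z := (E.arc_spec z).2.2.2.2.1

/-- both ends lie on the same tiles -/
lemma kz_arc (z : Z) (c : Bool) : E.kz (E.arc z) c = E.kz z c := by
  by_cases h : c = E.dc z
  · subst h
    have h1 := E.dy_arc z
    unfold dy at h1
    rw [E.dc_arc] at h1
    exact h1
  · have hc : c = !E.dc z := by
      cases c <;> cases hd : E.dc z <;> simp_all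
    subst hc
    have h1 := E.sx_arc z
    unfold sx at h1
    rw [E.dc_arc] at h1
    exact h1

lemma run_arc (z : Z) : E.run (E.arc z) = E.run z := by
  have h1 : E.rd (E.arc z) ∈ E.run z := (E.arc_spec z).1
  have h2 : E.run (E.arc z) = cls A.flip (E.nxx (E.sx z) (E.dc z)) (E.rd (E.arc z)) := by
    unfold run
    rw [E.sx_arc, E.dc_arc]
  rw [h2]
  ext f
  constructor
  · intro hf
    exact cls_trans h1 hf
  · intro hf
    have h3 : E.rd z ∈ cls A.flip (E.nxx (E.sx z) (E.dc z)) (E.rd (E.arc z)) :=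
      cls_symm A.flip_flip (E.nxx_inv _ _) h1
    exact cls_trans h3 hf

lemma arc_arc (z : Z) : E.arc (E.arc z) = z := by
  have h1 := (E.arc_spec (E.arc z)).2.2.2.2.2
  rw [E.run_arc, E.sx_arc, E.dc_arc] at h1
  rcases h1 (E.rd z) (E.rd_mem z) (E.rd_fixed rfl rfl) with h | h
  · exact absurd (E.rd_inj h).symm (E.arc_ne z)
  · exact (E.rd_inj h).symm

/-- a fixed end of colour `dc z` at a double point `u` in the run of `z` -/
lemma mem_run_fixed {z u : Z} {j : Bool} (hu : E.kz u (!E.dc z) = E.sx z)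
    (h : (Sum.inl (u, E.dc z, j) : Drt Z L) ∈ E.run z) :
    (u = z ∧ j = E.jin z) ∨ (u = E.arc z ∧ j = E.jin (E.arc z)) := by
  rcases (E.arc_spec z).2.2.2.2.2 _ h (E.nxx_fix hu j) with h1 | h1
  · left
    have := Sum.inl.inj h1
    simp only [Prod.mk.injEq] at this
    exact ⟨this.1, this.2.2⟩
  · right
    have := Sum.inl.inj h1
    simp only [Prod.mk.injEq] at this
    exact ⟨this.1, this.2.2⟩

/-- indicator of the run of `z` -/
noncomputable def phi (z : Z) (p : Q) : ZMod 2 :=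
  open Classical in if ∃ d ∈ E.run z, A.pce d = p then 1 else 0

lemma phi_one {z : Z} {p : Q} : E.phi z p = 1 ↔ ∃ d ∈ E.run z, A.pce d = p := by
  unfold phi
  split_ifs with h
  · simp [h]
  · simp [h]

lemma phi_pce {z : Z} {d : Drt Z L} : E.phi z (A.pce d) = 1 ↔ d ∈ E.run z := by
  rw [phi_one]
  constructor
  · rintro ⟨e, he, h⟩
    exact E.run_pce he h.symm
  · intro h
    exact ⟨d, h, rfl⟩

lemma z2_ext {a b : ZMod 2} (h : a = 1 ↔ b = 1) : a = b := by
  revert a b; decide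

lemma phi_arc (z : Z) (p : Q) : E.phi (E.arc z) p = E.phi z p := by
  apply z2_ext
  rw [phi_one, phi_one, E.run_arc]

lemma phi_lp (z : Z) (l : L) : E.phi z (A.lp l false) = E.phi z (A.lp l true) := by
  apply z2_ext
  have h1 := E.phi_pce (z := z) (d := Sum.inr (l, false))
  have h2 := E.phi_pce (z := z) (d := Sum.inr (l, true))
  rw [A.pce_inr] at h1 h2
  rw [h1, h2]
  constructor
  · intro h
    exact E.run_nxx h
  · intro h
    exact E.run_nxx h

/-- no jump at the double points which are not on the tile `sx z` -/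
lemma phi_move {z u : Z} (hu : E.kz u (!E.dc z) ≠ E.sx z) (j j' : Bool) :
    E.phi z (A.pc u (E.dc z) j) = E.phi z (A.pc u (E.dc z) j') := by
  have key : ∀ j, (Sum.inl (u, E.dc z, j) : Drt Z L) ∈ E.run z →
      (Sum.inl (u, E.dc z, !j) : Drt Z L) ∈ E.run z := by
    intro j h
    have := E.run_nxx h
    rwa [E.nxx_move (by rintro ⟨-, h'⟩; exact hu h')] at this
  apply z2_ext
  have h1 := E.phi_pce (z := z) (d := Sum.inl (u, E.dc z, j))
  have h2 := E.phi_pce (z := z) (d := Sum.inl (u, E.dc z, j'))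
  rw [A.pce_inl] at h1 h2
  rw [h1, h2]
  by_cases hj : j' = j
  · rw [hj]
  · have hj' : j' = !j := by
      cases j <;> cases j' <;> simp_all
    rw [hj']
    constructor
    · exact key j
    · intro h
      have := key _ h
      rwa [Bool.not_not] at this

/-- values at the double points of the tile `sx z` -/
lemma phi_on {z u : Z} (hu : E.kz u (!E.dc z) = E.sx z) (j : Bool) :
    E.phi z (A.pc u (E.dc z) j) = 1 ↔
      (u = z ∧ j = E.jin z) ∨ (u = E.arc z ∧ j = E.jin (E.arc z)) := by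
  have h1 := E.phi_pce (z := z) (d := Sum.inl (u, E.dc z, j))
  rw [A.pce_inl] at h1
  rw [h1]
  constructor
  · exact E.mem_run_fixed hu
  · rintro (⟨rfl, rfl⟩ | ⟨rfl, rfl⟩)
    · exact E.rd_mem _
    · have := (E.arc_spec z).1
      have h2 : E.rd (E.arc z) = (Sum.inl (E.arc z, E.dc z, E.jin (E.arc z)) : Drt Z L) := by
        show Sum.inl (E.arc z, E.dc (E.arc z), E.jin (E.arc z)) = _
        rw [E.dc_arc]
      rwa [h2] at this

/-- off the other tile of colour `!dc z` the value at both pieces at `u` is 0 -/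
lemma phi_zero {z u : Z} {j : Bool} (h : E.I (E.sx z) (A.pc u (E.dc z) j) true = 0) :
    E.phi z (A.pc u (E.dc z) j) = 0 := by
  by_contra hne
  have h1 : E.phi z (A.pc u (E.dc z) j) = 1 := (z2_or _).resolve_left hne
  obtain ⟨d, hd, hp⟩ := E.phi_one.1 h1
  have := (E.run_prop d hd).2 true
  rw [hp, h] at this
  exact absurd this (by decide)

lemma phi_zero_tile {z : Z} {p : Q} (h : E.k p ≠ E.dy z) : E.phi z p = 0 := by
  by_contra hne
  have h1 : E.phi z p = 1 := (z2_or _).resolve_left hne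
  obtain ⟨d, hd, hp⟩ := E.phi_one.1 h1
  exact h (by rw [← hp]; exact (E.run_prop d hd).1)

end Arc

end Dep

end Crest.Agent.R096.Ac_117
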