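import Crest.Agent.R096.Ac3_117

/-!
# R096 (row 96), (ARCS), part 4: side functions (helper117)

Deep colour: `phi z` (indicator of the run).  Shallow colour: `psi z` (indicator of one of the two
parts of the shallow tile cut at `z`, `arc z`).
-/

set_option autoImplicit false
set_option linter.unusedSectionVars false

open Set

namespace Crest.Agent.R096.Ac_117

variable {Q Z L : Type*} {A : Arr Q Z L}

lemma bool_or_not (a b : Bool) : a = b ∨ a = !b := by
  cases a <;> cases b <;> simp

namespace Dep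

variable (E : Dep A)

section Arc

variable [Finite Z] [Finite L]

/-- no jump of the deep side function away from the two ends -/
lemma phi_same {z u : Z} (h1 : u ≠ z) (h2 : u ≠ E.arc z) (j j' : Bool) :
    E.phi z (A.pc u (E.dc z) j) = E.phi z (A.pc u (E.dc z) j') := by
  by_cases hu : E.kz u (!E.dc z) = E.sx z
  · have h0 : ∀ j, E.phi z (A.pc u (E.dc z) j) = 0 := by
      intro j
      refine (z2_or _).resolve_right fun h => ?_
      rcases (E.phi_on hu j).1 h with h | h
      · exact h1 h.1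
      · exact h2 h.1
    rw [h0, h0]
  · exact E.phi_move hu j j'

/-- jumps of the deep side function -/
lemma phi_jump {z u : Z} (j : Bool) :
    E.phi z (A.pc u (E.dc z) j) ≠ E.phi z (A.pc u (E.dc z) (!j)) ↔ (u = z ∨ u = E.arc z) := by
  constructor
  · intro h
    by_contra hne
    rw [not_or] at hne
    exact h (E.phi_same hne.1 hne.2 _ _)
  · intro h
    have hne : z ≠ E.arc z := (E.arc_ne z).symm
    have hu : E.kz u (!E.dc z) = E.sx z := by
      rcases h with rfl | rfl
      · rfl
      · rw [E.kz_arc]; rfl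
    intro heq
    rcases bool_or_not j (E.jin u) with hj | hj
    · have ha : E.phi z (A.pc u (E.dc z) j) = 1 := by
        rw [E.phi_on hu]
        rcases h with rfl | rfl
        · exact Or.inl ⟨rfl, hj⟩
        · exact Or.inr ⟨rfl, hj⟩
      rw [heq, E.phi_on hu] at ha
      rcases ha with ⟨rfl, hb⟩ | ⟨rfl, hb⟩
      · rw [hj] at hb; simp at hb
      · rw [hj] at hb; simp at hb
    · have hj' : (!j) = E.jin u := by rw [hj]; simp
      have ha : E.phi z (A.pc u (E.dc z) (!j)) = 1 := by
        rw [E.phi_on hu]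
        rcases h with rfl | rfl
        · exact Or.inl ⟨rfl, hj'⟩
        · exact Or.inr ⟨rfl, hj'⟩
      rw [← heq, E.phi_on hu] at ha
      rcases ha with ⟨rfl, hb⟩ | ⟨rfl, hb⟩
      · rw [hb] at hj; simp at hj
      · rw [hb] at hj; simp at hj



lemma arc_ne_of {z u : Z} (h1 : u ≠ z) (h2 : u ≠ E.arc z) : E.arc u ≠ z ∧ E.arc u ≠ E.arc z := by
  constructor
  · intro h
    apply h2
    rw [← h, E.arc_arc]
  · intro h
    apply h1
    rw [← E.arc_arc u, h, E.arc_arc]

/-- deep side function: the same value at both ends of every other arc -/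
theorem phi_other {z u : Z} (h1 : u ≠ z) (h2 : u ≠ E.arc z) (j j' : Bool) :
    E.phi z (A.pc u (E.dc z) j) = E.phi z (A.pc (E.arc u) (E.dc z) j') := by
  obtain ⟨h3, h4⟩ := E.arc_ne_of h1 h2
  by_cases hy : E.kz u (E.dc z) = E.dy z
  swap
  · rw [E.phi_zero_tile (by rw [E.k_pc']; exact hy),
      E.phi_zero_tile (by rw [E.k_pc', E.kz_arc]; exact hy)]
  by_cases hx : E.kz u (!E.dc z) = E.sx z
  · have e0 : ∀ v, E.kz v (!E.dc z) = E.sx z → v ≠ z → v ≠ E.arc z → ∀ j,
        E.phi z (A.pc v (E.dc z) j) = 0 := by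
      intro v hv a1 a2 j
      refine (z2_or _).resolve_right fun h => ?_
      rcases (E.phi_on hv j).1 h with h | h
      · exact a1 h.1
      · exact a2 h.1
    rw [e0 u hx h1 h2, e0 _ (by rw [E.kz_arc]; exact hx) h3 h4]
  -- the crossing tile `x' ≠ x`
  have hyx := E.dy_lt z
  have hx' : ∀ j i, E.I (E.sx z) (A.pc u (!E.dc z) j) i =
      E.I (E.sx z) (A.pc (E.arc u) (!E.dc z) j) i := by
    intro j i
    refine E.I_const (p0 := A.pc z (!E.dc z) false) rfl ?_ ?_ ?_ _ _
    · rw [A.pc_col, A.pc_col]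
    · rw [E.k_pc']; exact hx
    · rw [E.k_pc', E.k_pc', E.kz_arc]
  have hy' : E.kz u (E.dc z) ≠ E.sx z := by rw [hy]; exact hyx.ne
  -- if the crossing tile is outside `x`, both values are zero
  have hzero : E.I (E.sx z) (A.pc u (!E.dc z) true) true ≠ 1 →
      E.phi z (A.pc u (E.dc z) j) = E.phi z (A.pc (E.arc u) (E.dc z) j') := by
    intro hne
    have h0 : E.I (E.sx z) (A.pc u (!E.dc z) true) true = 0 := (z2_or _).resolve_right hne
    rw [E.phi_zero, E.phi_zero]
    · rw [E.I_four (E.sx_mem z) (by rw [E.kz_arc]; exact hy') (by rw [E.kz_arc]; exact hx)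
        j' true true true, ← hx']
      exact h0
    · rw [E.I_four (E.sx_mem z) hy' hx j true true true]
      exact h0
  by_cases hI : E.I (E.sx z) (A.pc u (!E.dc z) true) true = 1
  swap
  · exact hzero hI
  -- the crossing tile is inside `x`
  obtain ⟨h5, h6⟩ := E.lam (A.pc z (!E.dc z) false) (A.pc u (!E.dc z) true)
    (by rw [A.pc_col, A.pc_col]) (by rw [E.k_pc' u]; exact fun h => hx h.symm) hI
  have h5' : E.sx z < E.kz u (!E.dc z) := by
    rw [E.k_pc' u] at h5; exact h5
  have hdc : E.dc u = E.dc z := E.dc_eq (by rw [hy]; omega)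
  have hsx : E.sx u = E.kz u (!E.dc z) := by unfold sx; rw [hdc]
  have h6' : ∀ r i, E.I (E.sx u) r i = 1 → E.I (E.sx z) r i = 1 := by
    intro r i h
    apply h6
    rw [E.k_pc', ← hsx]
    exact h
  -- `phi z` does not change along the run of `u`
  have key : ∀ d ∈ E.run u, E.phi z (A.pce d) = E.phi z (A.pce (E.rd u)) := by
    refine cls_ind (P := fun d => E.phi z (A.pce d) = E.phi z (A.pce (E.rd u))) rfl ?_ ?_
    · intro d _ hd
      rw [A.pce_flip', hd]
    · intro d hdr hd
      rcases d with ⟨v, c', j⟩ | ⟨l, i⟩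
      · have hc' : c' = E.dc z := by
          have a1 := (E.run_prop _ hdr).1
          have a2 : E.k (A.pc v c' j) = E.k (A.pc u (E.dc u) false) := a1
          have a3 := E.col_eq a2
          rw [A.pc_col, A.pc_col, hdc] at a3
          exact a3
        subst hc'
        by_cases hf : E.kz v (!E.dc z) = E.sx u
        · rw [hdc, E.nxx_fix hf]; exact hd
        · rw [hdc, E.nxx_move (by rintro ⟨-, h⟩; exact hf h), ← hd]
          by_cases hv : E.kz v (!E.dc z) = E.sx z
          · exfalso
            -- both pieces at `v` are inside `x'`, hence inside `x`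
            have hmv : (Sum.inl (v, E.dc z, !j) : Drt Z L) ∈ E.run u := by
              have := E.run_nxx hdr
              rwa [hdc, E.nxx_move (by rintro ⟨-, h⟩; exact hf h)] at this
            have a1 := h6' _ _ ((E.run_prop _ hdr).2 true)
            have a2 := h6' _ _ ((E.run_prop _ hmv).2 true)
            have a3 : E.I (E.sx z) (A.pc v (E.dc z) (!j)) true =
              E.I (E.sx z) (A.pc v (E.dc z) j) true + 1 := E.I_flip hv j true true
            have a1' : E.I (E.sx z) (A.pc v (E.dc z) j) true = 1 := a1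
            have a2' : E.I (E.sx z) (A.pc v (E.dc z) (!j)) true = 1 := a2
            rw [a2', a1'] at a3
            exact absurd a3 (by decide)
          · exact E.phi_move hv _ _
      · rw [← hd]
        show E.phi z (A.lp l (!i)) = E.phi z (A.lp l i)
        cases i
        · exact (E.phi_lp z l).symm
        · exact E.phi_lp z l
  have a1 := key _ (E.arc_spec u).1
  have a2 : E.phi z (A.pc (E.arc u) (E.dc z) (E.jin (E.arc u))) =
      E.phi z (A.pc u (E.dc z) (E.jin u)) := by
    have b1 : A.pce (E.rd (E.arc u)) = A.pc (E.arc u) (E.dc z) (E.jin (E.arc u)) := by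
      show A.pc (E.arc u) (E.dc (E.arc u)) _ = _
      rw [E.dc_arc, hdc]
    have b2 : A.pce (E.rd u) = A.pc u (E.dc z) (E.jin u) := by
      show A.pc u (E.dc u) _ = _
      rw [hdc]
    rw [← b1, ← b2]
    exact a1
  rw [E.phi_same h1 h2 j (E.jin u), E.phi_same h3 h4 j' (E.jin (E.arc u)), a2]

/-! ### the shallow colour -/

/-- links of the shallow colour, cut at `z` and `arc z` -/
noncomputable def cutx (z : Z) (d : Drt Z L) : Drt Z L :=
  open Classical in
  match d with
  | Sum.inl (u, c', j) => if c' = (!E.dc z) ∧ (u = z ∨ u = E.arc z) then Sum.inl (u, c', j)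
      else Sum.inl (u, c', !j)
  | Sum.inr (l, i) => Sum.inr (l, !i)

lemma cutx_fix {z u : Z} (h : u = z ∨ u = E.arc z) (j : Bool) :
    E.cutx z (Sum.inl (u, !E.dc z, j)) = (Sum.inl (u, !E.dc z, j) : Drt Z L) := by
  unfold cutx
  exact if_pos ⟨rfl, h⟩

lemma cutx_move {z u : Z} {c' : Bool} (h : ¬ (c' = (!E.dc z) ∧ (u = z ∨ u = E.arc z)))
    (j : Bool) : E.cutx z (Sum.inl (u, c', j)) = (Sum.inl (u, c', !j) : Drt Z L) := by
  unfold cutx
  exact if_neg h

lemma cutx_inv (z : Z) : Function.Involutive (E.cutx z : Drt Z L → Drt Z L) := by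
  rintro (⟨u, c', j⟩ | ⟨l, i⟩)
  · by_cases h : c' = (!E.dc z) ∧ (u = z ∨ u = E.arc z)
    · obtain ⟨rfl, h⟩ := h
      rw [E.cutx_fix h, E.cutx_fix h]
    · rw [E.cutx_move h, E.cutx_move h, Bool.not_not]
  · show (Sum.inr (l, !!i) : Drt Z L) = _
    rw [Bool.not_not]

lemma cutx_fixed {z : Z} {d : Drt Z L} (h : E.cutx z d = d) :
    ∃ u j, d = Sum.inl (u, !E.dc z, j) ∧ (u = z ∨ u = E.arc z) := by
  rcases d with ⟨u, c', j⟩ | ⟨l, i⟩
  · by_cases h' : c' = (!E.dc z) ∧ (u = z ∨ u = E.arc z)
    · exact ⟨u, j, by rw [h'.1], h'.2⟩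
    · rw [E.cutx_move h'] at h
      simp at h
  · have : (Sum.inr (l, !i) : Drt Z L) = Sum.inr (l, i) := h
    simp at this

/-- the part of the shallow tile -/
def prt (z : Z) : Set (Drt Z L) := cls A.flip (E.cutx z) (Sum.inl (z, !E.dc z, true))

lemma prt_tile {z : Z} : ∀ d ∈ E.prt z, E.k (A.pce d) = E.sx z := by
  refine cls_ind (P := fun d => E.k (A.pce d) = E.sx z) ?_ ?_ ?_
  · exact E.k_pc' z (!E.dc z) true
  · intro d _ h
    rw [A.pce_flip', h]
  · intro d _ h
    rcases d with ⟨u, c', j⟩ | ⟨l, i⟩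
    · by_cases h' : c' = (!E.dc z) ∧ (u = z ∨ u = E.arc z)
      · obtain ⟨rfl, h'⟩ := h'
        rw [E.cutx_fix h']
        exact h
      · rw [E.cutx_move h']
        rw [← h]
        exact E.k_pc u c' _ _
    · rw [← h]
      exact E.k_lp l _ _

lemma prt_pce {z : Z} {d e : Drt Z L} (h : d ∈ E.prt z) (he : A.pce e = A.pce d) :
    e ∈ E.prt z := by
  rcases A.pce_inj' he with rfl | rfl
  · exact h
  · exact cls_s h

theorem exists_prt (z : Z) : ∃ j₀ : Bool,
    (Sum.inl (E.arc z, !E.dc z, j₀) : Drt Z L) ∈ E.prt z ∧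
      ∀ f ∈ E.prt z, E.cutx z f = f →
        f = Sum.inl (z, !E.dc z, true) ∨ f = Sum.inl (E.arc z, !E.dc z, j₀) := by
  obtain ⟨e, he, hef, hne, huniq⟩ := pair (D := Drt Z L) (s := A.flip)
    (t := E.cutx z) A.flip_flip (E.cutx_inv z) A.flip_ne
    (d := Sum.inl (z, !E.dc z, true)) (E.cutx_fix (Or.inl rfl) true)
  obtain ⟨u, j, rfl, hu⟩ := E.cutx_fixed hef
  rcases hu with rfl | rfl
  swap
  · exact ⟨j, he, huniq⟩
  · exfalso
    have hj : j = false := by
      cases j
      · rfl
      · exact absurd rfl hne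
    subst hj
    -- the class is closed under all links
    have hcl : ∀ d ∈ E.prt u, Arr.nx d ∈ E.prt u := by
      intro d hd
      by_cases hf : E.cutx u d = d
      · rcases huniq d hd hf with rfl | rfl
        · exact he
        · exact mem_cls _ _ _
      · have h1 : E.cutx u d ∈ E.prt u := cls_t hd
        have h2 : E.cutx u d = Arr.nx d := by
          rcases d with ⟨v, c', j⟩ | ⟨l, i⟩
          · by_cases h' : c' = (!E.dc u) ∧ (v = u ∨ v = E.arc u)
            · obtain ⟨rfl, h'⟩ := h'
              exact absurd (E.cutx_fix h' j) hf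
            · exact E.cutx_move h' j
          · rfl
        rwa [h2] at h1
    have h3 := E.conn {p | ∃ d ∈ E.prt u, A.pce d = p} (by
      rintro d ⟨e', he', hp⟩
      have : d ∈ E.prt u := E.prt_pce he' hp.symm
      exact ⟨_, hcl d this, rfl⟩) (A.pc u (!E.dc u) true) (A.pc (E.arc u) (!E.dc u) true)
      (by rw [E.k_pc', E.k_pc', E.kz_arc]) ⟨_, mem_cls _ _ _, rfl⟩
    obtain ⟨e', he', hp⟩ := h3
    have h4 : (Sum.inl (E.arc u, !E.dc u, true) : Drt Z L) ∈ E.prt u :=
      E.prt_pce he' (e := Sum.inl (E.arc u, !E.dc u, true)) hp.symm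
    have hne' : E.arc u ≠ u := E.arc_ne u
    rcases huniq _ h4 (E.cutx_fix (Or.inr rfl) true) with h | h
    · have := Sum.inl.inj h
      exact hne' (congrArg Prod.fst this)
    · have := Sum.inl.inj h
      exact hne' (congrArg Prod.fst this)

/-- indicator of the part -/
noncomputable def psi (z : Z) (p : Q) : ZMod 2 :=
  open Classical in if ∃ d ∈ E.prt z, A.pce d = p then 1 else 0

lemma psi_one {z : Z} {p : Q} : E.psi z p = 1 ↔ ∃ d ∈ E.prt z, A.pce d = p := by
  unfold psi
  split_ifs with h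
  · simp [h]
  · simp [h]

lemma psi_pce {z : Z} {d : Drt Z L} : E.psi z (A.pce d) = 1 ↔ d ∈ E.prt z := by
  rw [psi_one]
  constructor
  · rintro ⟨e, he, h⟩
    exact E.prt_pce he h.symm
  · intro h
    exact ⟨d, h, rfl⟩

lemma psi_zero_tile {z : Z} {p : Q} (h : E.k p ≠ E.sx z) : E.psi z p = 0 := by
  by_contra hne
  have h1 : E.psi z p = 1 := (z2_or _).resolve_left hne
  obtain ⟨d, hd, hp⟩ := E.psi_one.1 h1
  exact h (by rw [← hp]; exact E.prt_tile d hd)

lemma psi_cutx {z : Z} (d : Drt Z L) : E.psi z (A.pce (E.cutx z d)) = E.psi z (A.pce d) := by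
  apply z2_ext
  rw [psi_pce, psi_pce]
  constructor
  · intro h
    have := cls_t (t := E.cutx z) h
    rwa [E.cutx_inv z d] at this
  · intro h
    exact cls_t h

lemma psi_lp (z : Z) (l : L) (i i' : Bool) : E.psi z (A.lp l i) = E.psi z (A.lp l i') := by
  have h : E.psi z (A.lp l true) = E.psi z (A.lp l false) := E.psi_cutx (Sum.inr (l, false))
  cases i <;> cases i'
  · rfl
  · exact h.symm
  · exact h
  · rfl

/-- no jump away from the two ends -/
lemma psi_same {z u : Z} (h1 : u ≠ z) (h2 : u ≠ E.arc z) (c' j j' : Bool) :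
    E.psi z (A.pc u c' j) = E.psi z (A.pc u c' j') := by
  have key : ∀ j, E.psi z (A.pc u c' (!j)) = E.psi z (A.pc u c' j) := by
    intro j
    have := E.psi_cutx (z := z) (Sum.inl (u, c', j))
    rw [E.cutx_move (by rintro ⟨-, h | h⟩ <;> contradiction)] at this
    exact this
  rcases bool_or_not j j' with rfl | rfl
  · rfl
  · exact key _

/-- jumps of the shallow side function -/
lemma psi_jump {z u : Z} (j : Bool) :
    E.psi z (A.pc u (!E.dc z) j) ≠ E.psi z (A.pc u (!E.dc z) (!j)) ↔ (u = z ∨ u = E.arc z) := by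
  constructor
  · intro h
    by_contra hne
    rw [not_or] at hne
    exact h (E.psi_same hne.1 hne.2 _ _ _)
  · obtain ⟨j₀, hj₀, huniq⟩ := E.exists_prt z
    have main : ∀ (v : Z) (i : Bool), (v = z ∨ v = E.arc z) →
        (Sum.inl (v, !E.dc z, i) : Drt Z L) ∈ E.prt z →
        (Sum.inl (v, !E.dc z, !i) : Drt Z L) ∉ E.prt z := by
      intro v i hv h1 h2
      have hne : E.arc z ≠ z := E.arc_ne z
      rcases huniq _ h1 (E.cutx_fix hv i) with a1 | a1 <;>
      rcases huniq _ h2 (E.cutx_fix hv (!i)) with a2 | a2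
      · have b1 := Sum.inl.inj a1
        have b2 := Sum.inl.inj a2
        simp only [Prod.mk.injEq] at b1 b2
        rw [b1.2.2] at b2; simp at b2
      · have b1 := congrArg Prod.fst (Sum.inl.inj a1)
        have b2 := congrArg Prod.fst (Sum.inl.inj a2)
        exact hne (b2.symm.trans b1)
      · have b1 := congrArg Prod.fst (Sum.inl.inj a1)
        have b2 := congrArg Prod.fst (Sum.inl.inj a2)
        exact hne (b1.symm.trans b2)
      · have b1 := Sum.inl.inj a1
        have b2 := Sum.inl.inj a2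
        simp only [Prod.mk.injEq] at b1 b2
        have c1 := b1.2.2
        have c2 := b2.2.2
        rw [c1] at c2; simp at c2
    have hex : ∀ v : Z, (v = z ∨ v = E.arc z) → ∃ i,
        (Sum.inl (v, !E.dc z, i) : Drt Z L) ∈ E.prt z := by
      rintro v (rfl | rfl)
      · exact ⟨true, mem_cls _ _ _⟩
      · exact ⟨j₀, hj₀⟩
    intro hu heq
    obtain ⟨i, hi⟩ := hex u hu
    have h1 : E.psi z (A.pc u (!E.dc z) i) = 1 := E.psi_pce.2 hi
    have h2 : E.psi z (A.pc u (!E.dc z) (!i)) ≠ 1 := fun h => main u i hu hi (E.psi_pce.1 h)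
    rcases bool_or_not j i with rfl | rfl
    · exact h2 (by rw [← heq]; exact h1)
    · rw [Bool.not_not] at heq
      exact h2 (by rw [heq]; exact h1)

end Arc

end Dep

end Crest.Agent.R096.Ac_117
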