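import Crest.Agent.R096.Ac4_117

/-!
# R096 (row 96), (ARCS), part 5: the arcs of a cell (helper117)

`psi_other`: the shallow side function has the same value at both ends of every other arc
(uses `SIDE`).  **`exists_arcs`**: all clauses of `St_147.St.Arcs` at one cell.
-/

set_option autoImplicit false
set_option linter.unusedSectionVars false

open Set

namespace Crest.Agent.R096.Ac_117

variable {Q Z L : Type*} {A : Arr Q Z L}

namespace Dep

variable (E : Dep A)

section Arc

variable [Finite Z] [Finite L]

/-- the closed curve: part of the shallow tile and the run of the deep tile -/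
noncomputable def wz (z : Z) (p : Q) : ZMod 2 := E.psi z p + E.phi z p

lemma tile_of_col_deep {z : Z} {p : Q} (h : A.col p = E.dc z) : E.k p ≠ E.sx z := by
  intro h'
  have := E.col_eq (p' := A.pc z (!E.dc z) false) h'
  rw [h, A.pc_col] at this
  cases hd : E.dc z <;> simp [hd] at this

lemma tile_of_col_shallow {z : Z} {p : Q} (h : A.col p = !E.dc z) : E.k p ≠ E.dy z := by
  intro h'
  have := E.col_eq (p' := A.pc z (E.dc z) false) h'
  rw [h, A.pc_col] at this
  cases hd : E.dc z <;> simp [hd] at this

lemma wz_deep {z : Z} {p : Q} (h : A.col p = E.dc z) : E.wz z p = E.phi z p := by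
  unfold wz
  rw [E.psi_zero_tile (E.tile_of_col_deep h), zero_add]

lemma wz_shallow {z : Z} {p : Q} (h : A.col p = !E.dc z) : E.wz z p = E.psi z p := by
  unfold wz
  rw [E.phi_zero_tile (E.tile_of_col_shallow h), add_zero]

lemma sum_iff_ne {a b : ZMod 2} (h : a ≠ b) : a + b = 1 := by
  revert a b; decide

lemma sum_eq {a b : ZMod 2} (h : a = b) : a + b = 0 := by
  revert a b; decide

lemma wz_cl (z : Z) : A.Cl (E.wz z) where
  ev := by
    intro u
    -- sums over the two colours
    have hd : E.wz z (A.pc u (E.dc z) false) + E.wz z (A.pc u (E.dc z) true) =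
        E.phi z (A.pc u (E.dc z) false) + E.phi z (A.pc u (E.dc z) (!false)) := by
      rw [E.wz_deep (A.pc_col _ _ _), E.wz_deep (A.pc_col _ _ _)]
      rfl
    have hs : E.wz z (A.pc u (!E.dc z) false) + E.wz z (A.pc u (!E.dc z) true) =
        E.psi z (A.pc u (!E.dc z) false) + E.psi z (A.pc u (!E.dc z) (!false)) := by
      rw [E.wz_shallow (A.pc_col _ _ _), E.wz_shallow (A.pc_col _ _ _)]
      rfl
    have htot : (E.wz z (A.pc u (E.dc z) false) + E.wz z (A.pc u (E.dc z) true)) +
        (E.wz z (A.pc u (!E.dc z) false) + E.wz z (A.pc u (!E.dc z) true)) = 0 := by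
      rw [hd, hs]
      by_cases hu : u = z ∨ u = E.arc z
      · rw [sum_iff_ne ((E.phi_jump false).2 hu), sum_iff_ne ((E.psi_jump false).2 hu)]
        decide
      · have h1 : ¬ (E.phi z (A.pc u (E.dc z) false) ≠ E.phi z (A.pc u (E.dc z) (!false))) :=
          fun h => hu ((E.phi_jump false).1 h)
        have h2 : ¬ (E.psi z (A.pc u (!E.dc z) false) ≠ E.psi z (A.pc u (!E.dc z) (!false))) :=
          fun h => hu ((E.psi_jump false).1 h)
        rw [not_not] at h1 h2
        rw [sum_eq h1, sum_eq h2]
        decide
    rw [← htot]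
    cases E.dc z
    · show _ = (E.wz z (A.pc u false false) + E.wz z (A.pc u false true)) +
        (E.wz z (A.pc u true false) + E.wz z (A.pc u true true))
      ring
    · show _ = (E.wz z (A.pc u true false) + E.wz z (A.pc u true true)) +
        (E.wz z (A.pc u false false) + E.wz z (A.pc u false true))
      ring
  lk := by
    intro l
    unfold wz
    rw [E.psi_lp z l false true, E.phi_lp]

/-- outer side of the pieces of the tile `x` -/
lemma I_side {x : ℕ} {p : Q} (h : E.k p = x) (i : Bool) : E.I x p (!i) = E.I x p i + 1 := by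
  subst h
  exact (E.inside p).ne (by rw [if_pos rfl]) i

/-- the colouring is constant on the outer side of the shallow tile -/
lemma outer_const {z : Z} {t : Q → Bool → ZMod 2} (ht : A.Colr (E.wz z) t) {p p' : Q}
    (hp : E.k p = E.sx z) (hp' : E.k p' = E.sx z) {o o' : Bool} (ho : E.I (E.sx z) p o = 0)
    (ho' : E.I (E.sx z) p' o' = 0) : t p o = t p' o' := by
  have hI := E.inside' (E.sx_mem z)
  -- uniqueness of the outer side
  have huniq : ∀ r, E.k r = E.sx z → ∀ a b, E.I (E.sx z) r a = 0 → E.I (E.sx z) r b = 0 →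
      a = b := by
    intro r hr a b ha hb
    rcases bool_or_not b a with h | h
    · exact h.symm
    · exfalso
      rw [h, E.I_side hr, ha] at hb
      exact absurd hb (by decide)
  have key := E.conn {r | E.k r = E.sx z ∧ ∀ a, E.I (E.sx z) r a = 0 → t r a = t p o} ?_ p p'
    (hp.trans hp'.symm) ⟨hp, fun a ha => by rw [huniq p hp a o ha ho]⟩
  · exact (key.2 o' ho').symm
  · rintro d ⟨hd1, hd2⟩
    have hd3 : E.k (A.pce (Arr.nx d)) = E.sx z := (E.k_nx d).trans hd1
    refine ⟨hd3, fun a ha => ?_⟩
    rcases d with ⟨v, c', j⟩ | ⟨l, i⟩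
    · have hc' : c' = !E.dc z := by
        have a2 : E.k (A.pc v c' j) = E.k (A.pc z (!E.dc z) false) := hd1
        have a3 := E.col_eq a2
        rwa [A.pc_col, A.pc_col] at a3
      subst hc'
      have ha' : E.I (E.sx z) (A.pc v (!E.dc z) (!j)) a = 0 := ha
      have hnn : (!!E.dc z) = E.dc z := Bool.not_not _
      -- the outer piece of the deep colour
      have h1 : ∀ b, E.I (E.sx z) (A.pc v (E.dc z) a) b = 0 := by
        intro b
        have e1 : E.I (E.sx z) (A.pc v (!E.dc z) (!j)) a =
            E.I (E.sx z) (A.pc v (E.dc z) a) (!j) := by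
          rw [hI.quad' v (!E.dc z) a (!j), hnn]
        rw [e1] at ha'
        rw [← ha']
        exact hI.side_eq (E.ind_ne (E.tile_of_col_deep (A.pc_col _ _ _))) _ _
      have h2 : E.I (E.sx z) (A.pc v (!E.dc z) j) a = 0 := by
        rw [hI.quad' v (!E.dc z) a j, hnn]
        exact h1 j
      have h3 : E.wz z (A.pc v (!(!E.dc z)) a) = 0 := by
        rw [hnn, E.wz_deep (A.pc_col _ _ _)]
        exact E.phi_zero (h1 true)
      rw [← hd2 a h2]
      exact ht.cross v (!E.dc z) a h3 (!j) j
    · -- a link point
      have hk : ∀ b, E.k (A.lp l b) = E.sx z := fun b => by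
        rw [E.k_lp l b i]; exact hd1
      have ha' : E.I (E.sx z) (A.lp l (!i)) a = 0 := ha
      show t (A.lp l (!i)) a = t p o
      cases i
      · -- nx = (l, true)
        have e1 : E.I (E.sx z) (A.lp l false) (xor a (A.tw l)) = E.I (E.sx z) (A.lp l true) a := by
          rw [hI.lk l (xor a (A.tw l))]
          congr 1
          cases a <;> cases A.tw l <;> rfl
        have e2 : t (A.lp l false) (xor a (A.tw l)) = t (A.lp l true) a := by
          rw [ht.lk l (xor a (A.tw l))]
          congr 1
          cases a <;> cases A.tw l <;> rfl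
        have e3 : E.I (E.sx z) (A.lp l false) (xor a (A.tw l)) = 0 := by
          rw [e1]; exact ha'
        have e4 := hd2 _ e3
        show t (A.lp l true) a = t p o
        rw [← e2]
        exact e4
      · have e1 : E.I (E.sx z) (A.lp l true) (xor a (A.tw l)) = E.I (E.sx z) (A.lp l false) a :=
          (hI.lk l a).symm
        have e2 : t (A.lp l true) (xor a (A.tw l)) = t (A.lp l false) a := (ht.lk l a).symm
        have e3 : E.I (E.sx z) (A.lp l true) (xor a (A.tw l)) = 0 := by
          rw [e1]; exact ha'
        have e4 := hd2 _ e3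
        show t (A.lp l false) a = t p o
        rw [← e2]
        exact e4

/-- runs of different arcs on the same pair of tiles are disjoint -/
lemma run_disj {z u : Z} (h1 : u ≠ z) (h2 : u ≠ E.arc z) (hd : E.dc u = E.dc z)
    (hs : E.sx u = E.sx z) : ∀ d ∈ E.run u, d ∉ E.run z := by
  intro d hdu hdz
  have h3 : E.rd u ∈ E.run z := by
    have h4 : E.rd u ∈ cls A.flip (E.nxx (E.sx z) (E.dc z)) d := by
      have h5 : d ∈ cls A.flip (E.nxx (E.sx z) (E.dc z)) (E.rd u) := by
        have : d ∈ cls A.flip (E.nxx (E.sx u) (E.dc u)) (E.rd u) := hdu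
        rwa [hs, hd] at this
      exact cls_symm A.flip_flip (E.nxx_inv _ _) h5
    exact cls_trans hdz h4
  rcases (E.arc_spec z).2.2.2.2.2 _ h3 (E.rd_fixed hd hs) with h | h
  · exact h1 (E.rd_inj h)
  · exact h2 (E.rd_inj h)

/-- shallow side function: the same value at both ends of every other arc -/
theorem psi_other (hS : A.SIDE) {z u : Z} (h1 : u ≠ z) (h2 : u ≠ E.arc z) (j j' : Bool) :
    E.psi z (A.pc u (!E.dc z) j) = E.psi z (A.pc (E.arc u) (!E.dc z) j') := by
  obtain ⟨h3, h4⟩ := E.arc_ne_of h1 h2
  by_cases hx : E.kz u (!E.dc z) = E.sx z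
  swap
  · rw [E.psi_zero_tile (by rw [E.k_pc']; exact hx),
      E.psi_zero_tile (by rw [E.k_pc', E.kz_arc]; exact hx)]
  have hyx := E.dy_lt z
  have hne0 : E.kz u (E.dc z) ≠ E.kz u (!E.dc z) := E.kz_ne u (E.dc z)
  by_cases hlt : E.sx z < E.kz u (E.dc z)
  · -- the other tile at `u` is shallower than `x`
    have hdc : E.dc u = !E.dc z := E.dc_eq (by rw [Bool.not_not, hx]; exact hlt)
    have hsx : E.sx u = E.kz u (E.dc z) := by unfold sx; rw [hdc, Bool.not_not]
    have key : ∀ d ∈ E.run u, E.psi z (A.pce d) = E.psi z (A.pce (E.rd u)) := by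
      refine cls_ind (P := fun d => E.psi z (A.pce d) = E.psi z (A.pce (E.rd u))) rfl ?_ ?_
      · intro d _ hd
        rw [A.pce_flip', hd]
      · intro d hdr hd
        rcases d with ⟨v, c', j⟩ | ⟨l, i⟩
        · have hc' : c' = !E.dc z := by
            have a1 := (E.run_prop _ hdr).1
            have a2 : E.k (A.pc v c' j) = E.k (A.pc u (E.dc u) false) := a1
            have a3 := E.col_eq a2
            rw [A.pc_col, A.pc_col, hdc] at a3
            exact a3
          subst hc'
          rw [hdc]
          by_cases hf : E.kz v (!(!E.dc z)) = E.sx u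
          · rw [E.nxx_fix hf]; exact hd
          · rw [E.nxx_move (by rintro ⟨-, h⟩; exact hf h), ← hd]
            rw [Bool.not_not] at hf
            by_cases hv : v = z ∨ v = E.arc z
            · exfalso
              have hkv : E.kz v (E.dc z) = E.dy z := by
                rcases hv with rfl | rfl
                · rfl
                · rw [E.kz_arc]; rfl
              have hkv' : E.kz v (!E.dc z) = E.sx z := by
                rcases hv with rfl | rfl
                · rfl
                · rw [E.kz_arc]; rfl
              have a1 : E.I (E.sx u) (A.pc v (!E.dc z) j) true = 1 := (E.run_prop _ hdr).2 true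
              have a2 : E.I (E.sx u) (A.pc v (E.dc z) true) true = 1 := by
                rw [E.I_four (E.sx_mem u) (c := E.dc z) hf (by rw [hkv', hsx]; omega)
                  true j true true]
                exact a1
              have a3 : A.col (A.pc u (!E.dc u) false) = A.col (A.pc v (E.dc z) true) := by
                rw [A.pc_col, A.pc_col, hdc, Bool.not_not]
              have a4 := E.lam _ _ a3 (by
                rw [E.k_pc' v, hkv]
                show E.sx u ≠ _
                rw [hsx]; omega) a2
              have a5 : E.sx u < E.kz v (E.dc z) := by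
                have := a4.1
                rwa [E.k_pc' v] at this
              rw [hkv, hsx] at a5
              omega
            · have := E.psi_cutx (z := z) (Sum.inl (v, !E.dc z, j))
              rw [E.cutx_move (by rintro ⟨-, h⟩; exact hv h)] at this
              exact this
        · rw [← hd]
          exact E.psi_lp z l _ _
    have a1 := key _ (E.arc_spec u).1
    have a2 : E.psi z (A.pc (E.arc u) (!E.dc z) (E.jin (E.arc u))) =
        E.psi z (A.pc u (!E.dc z) (E.jin u)) := by
      have b1 : A.pce (E.rd (E.arc u)) = A.pc (E.arc u) (!E.dc z) (E.jin (E.arc u)) := by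
        show A.pc (E.arc u) (E.dc (E.arc u)) _ = _
        rw [E.dc_arc, hdc]
      have b2 : A.pce (E.rd u) = A.pc u (!E.dc z) (E.jin u) := by
        show A.pc u (E.dc u) _ = _
        rw [hdc]
      rw [← b1, ← b2]
      exact a1
    rw [E.psi_same h1 h2 _ j (E.jin u), E.psi_same h3 h4 _ j' (E.jin (E.arc u)), a2]
  · -- the other tile is deeper than `x`: the colouring of `wz`
    have hlt' : E.kz u (E.dc z) < E.sx z := by omega
    have hdc : E.dc u = E.dc z := E.dc_eq (by rw [hx]; exact hlt')
    have hsx : E.sx u = E.sx z := by unfold sx; rw [hdc]; exact hx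
    obtain ⟨t, ht⟩ := hS _ (E.wz_cl z)
    have hI := E.inside' (E.sx_mem z)
    have hnn : (!!E.dc z) = E.dc z := Bool.not_not _
    -- `t` is constant along the run of `u`
    have hw : ∀ d ∈ E.run u, E.wz z (A.pce d) = 0 := by
      intro d hd
      have hcol : A.col (A.pce d) = E.dc z := by
        have a1 : E.k (A.pce d) = E.k (A.pc u (E.dc u) false) := (E.run_prop _ hd).1
        rw [E.col_eq a1, A.pc_col, hdc]
      rw [E.wz_deep hcol]
      refine (z2_or _).resolve_right fun h => ?_
      exact E.run_disj h1 h2 hdc hsx d hd (E.phi_pce.1 h)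
    have key : ∀ d ∈ E.run u, ∀ i, t (A.pce d) i = t (A.pce (E.rd u)) true := by
      refine cls_ind (P := fun d => ∀ i, t (A.pce d) i = t (A.pce (E.rd u)) true)
        (fun i => ht.side_eq (hw _ (E.rd_mem u)) _ _) ?_ ?_
      · intro d _ hd i
        rw [A.pce_flip', hd]
      · intro d hdr hd i
        rcases d with ⟨v, c', j⟩ | ⟨l, i'⟩
        · have hc' : c' = E.dc z := by
            have a1 := (E.run_prop _ hdr).1
            have a2 : E.k (A.pc v c' j) = E.k (A.pc u (E.dc u) false) := a1
            have a3 := E.col_eq a2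
            rw [A.pc_col, A.pc_col, hdc] at a3
            exact a3
          subst hc'
          by_cases hf : E.kz v (!E.dc z) = E.sx u
          · rw [hdc, E.nxx_fix hf]; exact hd i
          · have hmv : (Sum.inl (v, E.dc z, !j) : Drt Z L) ∈ E.run u := by
              have := E.run_nxx hdr
              rwa [hdc, E.nxx_move (by rintro ⟨-, h⟩; exact hf h)] at this
            rw [hdc, E.nxx_move (by rintro ⟨-, h⟩; exact hf h), ← hd i]
            have hw0 : E.wz z (A.pc v (!E.dc z) i) = 0 := by
              rw [E.wz_shallow (A.pc_col _ _ _)]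
              apply E.psi_zero_tile
              rw [E.k_pc', ← hsx]
              exact hf
            exact ht.cross v (E.dc z) i hw0 (!j) j
        · have hmv : (Sum.inr (l, !i') : Drt Z L) ∈ E.run u := E.run_nxx hdr
          rw [← hd i]
          have w1 := hw _ hdr
          have w2 := hw _ hmv
          have w3 : ∀ b, E.wz z (A.lp l b) = 0 := by
            intro b
            rcases bool_or_not b i' with rfl | rfl
            · exact w1
            · exact w2
          exact ht.link l (w3 _) (w3 _) (!i') i' i i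
    -- value at the inner piece
    have inner : ∀ v : Z, E.dc v = E.dc z → E.sx v = E.sx z → ∀ j,
        t (A.pc v (E.dc z) (E.jin v)) j =
          t (A.pc v (!E.dc z) j) (!E.jin v) + E.psi z (A.pc v (!E.dc z) j) ∧
        E.I (E.sx z) (A.pc v (!E.dc z) j) (!E.jin v) = 0 := by
      intro v hv1 hv2 j
      constructor
      · rw [ht.quad' v (E.dc z) (E.jin v) |> fun h => ht.quad' v (E.dc z) j (E.jin v) ]
        have e1 := ht.jump (A.pc v (!E.dc z) j)
        rw [E.wz_shallow (A.pc_col _ _ _)] at e1
        rw [← e1]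
        cases E.jin v
        · show t (A.pc v (!E.dc z) j) false = t (A.pc v (!E.dc z) j) true + _
          generalize t (A.pc v (!E.dc z) j) false = a
          generalize t (A.pc v (!E.dc z) j) true = b
          revert a b; decide
        · show t (A.pc v (!E.dc z) j) true = t (A.pc v (!E.dc z) j) false + _
          generalize t (A.pc v (!E.dc z) j) false = a
          generalize t (A.pc v (!E.dc z) j) true = b
          revert a b; decide
      · have e1 := E.I_jin' v j
        rw [hv1, hv2] at e1
        rw [hI.quad' v (!E.dc z) (!E.jin v) j, hnn]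
        exact e1
    have hdc' : E.dc (E.arc u) = E.dc z := by rw [E.dc_arc, hdc]
    have hsx' : E.sx (E.arc u) = E.sx z := by rw [E.sx_arc, hsx]
    obtain ⟨i1, i2⟩ := inner u hdc hsx j
    obtain ⟨i3, i4⟩ := inner (E.arc u) hdc' hsx' j'
    have hO := E.outer_const ht (p := A.pc u (!E.dc z) j) (p' := A.pc (E.arc u) (!E.dc z) j')
      (by rw [E.k_pc']; exact hx) (by rw [E.k_pc', E.kz_arc]; exact hx) i2 i4
    have b1 : A.pce (E.rd (E.arc u)) = A.pc (E.arc u) (E.dc z) (E.jin (E.arc u)) := by
      show A.pc (E.arc u) (E.dc (E.arc u)) _ = _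
      rw [hdc']
    have b2 : A.pce (E.rd u) = A.pc u (E.dc z) (E.jin u) := by
      show A.pc u (E.dc u) _ = _
      rw [hdc]
    have k1 := key _ (E.arc_spec u).1 j'
    have k2 := key _ (E.rd_mem u) j
    rw [b1] at k1
    rw [b2] at k2
    rw [i3] at k1
    rw [i1] at k2
    have k3 : t (A.pc u (!E.dc z) j) (!E.jin u) + E.psi z (A.pc u (!E.dc z) j) =
        t (A.pc (E.arc u) (!E.dc z) j') (!E.jin (E.arc u)) +
          E.psi z (A.pc (E.arc u) (!E.dc z) j') := by
      rw [k2, k1, b2]
    rw [hO] at k3
    exact add_left_cancel k3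

/-- **(ARCS) at one cell** -/
theorem exists_arcs (hS : A.SIDE) :
    (∀ z, E.arc z ≠ z) ∧ (∀ z, E.arc (E.arc z) = z) ∧
    (∀ z c, E.k (A.pc (E.arc z) c false) = E.k (A.pc z c false)) ∧
    (∀ z c, ∃ φ : Q → ZMod 2,
      (∀ l, φ (A.lp l false) = φ (A.lp l true)) ∧
      (∀ u j, φ (A.pc u c j) ≠ φ (A.pc u c (!j)) ↔ (u = z ∨ u = E.arc z)) ∧
      (∀ u, u ≠ z → u ≠ E.arc z → ∀ j j', φ (A.pc u c j) = φ (A.pc (E.arc u) c j'))) := by
  refine ⟨E.arc_ne, E.arc_arc, fun z c => E.kz_arc z c, fun z c => ?_⟩
  rcases bool_or_not c (E.dc z) with rfl | rfl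
  · exact ⟨E.phi z, E.phi_lp z, fun u j => E.phi_jump j, fun u h1 h2 j j' => E.phi_other h1 h2 j j'⟩
  · exact ⟨E.psi z, fun l => E.psi_lp z l _ _, fun u j => E.psi_jump j,
      fun u h1 h2 j j' => E.psi_other hS h1 h2 j j'⟩

end Arc

end Dep

end Crest.Agent.R096.Ac_117
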