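import Crest.Agent.R096.Wk3_689
import Crest.Agent.R096.Ac5_117

/-!
# R096 (row 96), (ARCS), part 6: the arrangement of a state on the boundary of a cell (helper117)

* `SphM M q` : the boundary of the cell `q` is a sphere (tile free form; owner of the proof: 662).
* `arr` : the structure `Arr` of the sub-chords on `∂q`.
-/

set_option autoImplicit false
set_option linter.unusedSectionVars false

open Set

namespace Crest.Agent.R096.Ac_117

open St_147 Wk_689

variable {ι Φ W I : Type} {M : MeshC ι Φ W} {col : I → Bool}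

open Classical in
/-- number mod 2 of the points of `y` on `F` below the position `t` -/
noncomputable def cntP (M : MeshC ι Φ W) (y : Finset W) (F : Φ) (t : ℝ) : ZMod 2 :=
  ((y.filter (fun v => v ∈ M.On F ∧ M.pos F v < t)).card : ZMod 2)

open Classical in
/-- **the boundary of `q` is a sphere**.  `opp w = true`: the positions on the two faces of `q` at
`w` increase in opposite directions along the mesh edge of `w`. -/
structure SphM (M : MeshC ι Φ W) (q : ι) where
  opp : W → Bool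
  sph : ∀ y : Finset W, (∀ F, q ∈ M.side F → Even (y.filter (fun v => v ∈ M.On F)).card) →
    ∃ κ : Φ → ZMod 2, ∀ (F F' : Φ) (w : W), q ∈ M.side F → q ∈ M.side F' → F ≠ F' →
      w ∈ M.On F → w ∈ M.On F' →
      κ F + cntP M y F (M.pos F w) =
        κ F' + cntP M y F' (M.pos F' w) + (if w ∈ y ∧ opp w = true then 1 else 0)

/-! ### ends of the pieces on the boundary of a cell -/

section Cell

variable (s : St M col) (q : ι)

/-- the double points on the boundary of `q` -/
abbrev Zq : Type := {z : s.Dbl // q ∈ M.side z.F}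

/-- the points of the state on the boundary of `q` -/
abbrev Lq : Type := {w : W // w ∈ s.P ∧ ∃ F, q ∈ M.side F ∧ w ∈ M.On F}

/-- the sub-chords on the boundary of `q` -/
abbrev Qq : Type := {p : Σ x : Bool, s.Sub x // q ∈ M.side (chd p.2).1}

instance : Finite (Zq s q) := inferInstance

instance : Finite (Lq s q) :=
  Finite.of_injective (β := {a // a ∈ s.P}) (fun w : Lq s q => ⟨w.1, w.2.1⟩)
    (fun a b h => Subtype.ext (by simpa using h))

variable {s q}

lemma exists_faces (w : Lq s q) : ∃ F F', F ≠ F' ∧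
    ∀ G, (q ∈ M.side G ∧ w.1 ∈ M.On G) ↔ (G = F ∨ G = F') := by
  obtain ⟨F0, h1, h2⟩ := w.2.2
  rcases M.deg q w.1 with h | h
  · exfalso
    have hfin : {F | q ∈ M.side F ∧ w.1 ∈ M.On F}.Finite :=
      (M.fin w.1).subset (fun F hF => hF.2)
    rw [Set.ncard_eq_zero hfin] at h
    have : F0 ∈ (∅ : Set Φ) := h ▸ (⟨h1, h2⟩ : F0 ∈ {F | q ∈ M.side F ∧ w.1 ∈ M.On F})
    exact this
  · rw [Set.ncard_eq_two] at h
    obtain ⟨F, F', hne, h⟩ := h
    refine ⟨F, F', hne, fun G => ?_⟩
    have : G ∈ {F | q ∈ M.side F ∧ w.1 ∈ M.On F} ↔ G ∈ ({F, F'} : Set Φ) := by rw [h]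
    simpa using this

/-- the two faces of `q` at `w` -/
noncomputable def fa (w : Lq s q) : Bool → Φ
  | false => (exists_faces w).choose
  | true => (exists_faces w).choose_spec.choose

lemma fa_ne (w : Lq s q) : fa w false ≠ fa w true := (exists_faces w).choose_spec.choose_spec.1

lemma fa_iff (w : Lq s q) (G : Φ) : (q ∈ M.side G ∧ w.1 ∈ M.On G) ↔ (G = fa w false ∨ G = fa w true) :=
  (exists_faces w).choose_spec.choose_spec.2 G

lemma fa_side (w : Lq s q) (i : Bool) : q ∈ M.side (fa w i) ∧ w.1 ∈ M.On (fa w i) := by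
  rw [fa_iff]
  cases i
  · exact Or.inl rfl
  · exact Or.inr rfl

lemma fa_at (w : Lq s q) (i : Bool) : s.At (fa w i) w.1 := ⟨w.2.1, (fa_side w i).2⟩

lemma fa_inj (w : Lq s q) {i j : Bool} (h : fa w i = fa w j) : i = j := by
  have h1 := fa_ne w
  cases i <;> cases j
  · rfl
  · exact absurd h h1
  · exact absurd h.symm h1
  · rfl

lemma exists_fa (w : Lq s q) {F : Φ} (h1 : q ∈ M.side F) (h2 : w.1 ∈ M.On F) : ∃ i, F = fa w i := by
  rcases (fa_iff w F).1 ⟨h1, h2⟩ with h | h
  · exact ⟨false, h⟩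
  · exact ⟨true, h⟩

open Classical in
/-- the lower end of the chord of colour `c` at `z` lies between the ends of the other chord -/
noncomputable def lowIn (z : s.Dbl) (c : Bool) : Bool :=
  decide (M.Btw z.F (z.e (!c)) (s.mu z.F (z.e (!c))) (z.e c))

/-- the dart of colour `c` at `z` on side `j` of the other chord (`true` = between its ends) -/
noncomputable def dj (z : s.Dbl) (c j : Bool) : Dart s := dz z c (!(xor j (lowIn z c)))

lemma dj_inj {z z' : s.Dbl} {c c' j j' : Bool} (h : dj z c j = dj z' c' j') :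
    z = z' ∧ c = c' ∧ j = j' := by
  obtain ⟨rfl, rfl, h3⟩ := dz_inj h
  refine ⟨rfl, rfl, ?_⟩
  cases j <;> cases j' <;> cases hl : lowIn z c <;> simp_all

lemma dj_node (z : s.Dbl) (c j : Bool) : node (dj z c j) = some z := node_dz _ _ _

lemma dj_fc (z : s.Dbl) (c j : Bool) : fc (dj z c j) = z.F := fc_dz _ _ _

lemma dj_x (z : s.Dbl) (c j : Bool) : (dj z c j).x = c := dz_x _ _ _

lemma eq_dj {d : Dart s} {z : s.Dbl} (h : node d = some z) : ∃ j, d = dj z d.x j := by
  refine ⟨!(xor d.b (lowIn z d.x)), ?_⟩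
  rw [eq_dz h]
  unfold dj
  simp only [dz_x, dz_b]
  congr 1
  cases d.b <;> cases lowIn z d.x <;> rfl

/-- the ends as darts -/
noncomputable def toD : Drt (Zq s q) (Lq s q) → Dart s
  | Sum.inl (z, c, j) => dj z.1 c j
  | Sum.inr (w, i) => ed (fa_at w i)

lemma toD_side (d : Drt (Zq s q) (Lq s q)) : q ∈ M.side (fc (toD d)) := by
  rcases d with ⟨z, c, j⟩ | ⟨w, i⟩
  · show q ∈ M.side (fc (dj z.1 c j))
    rw [dj_fc]; exact z.2
  · show q ∈ M.side (fc (ed (fa_at w i)))
    rw [fc_ed]; exact (fa_side w i).1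

lemma toD_inj {d e : Drt (Zq s q) (Lq s q)} (h : toD d = toD e) : d = e := by
  rcases d with ⟨z, c, j⟩ | ⟨w, i⟩ <;> rcases e with ⟨z', c', j'⟩ | ⟨w', i'⟩
  · obtain ⟨h1, rfl, rfl⟩ := dj_inj h
    have : z = z' := Subtype.ext h1
    rw [this]
  · exfalso
    have h1 := congrArg node h
    have h2 : node (dj z.1 c j) = node (ed (fa_at w' i')) := h1
    rw [dj_node, node_ed] at h2
    exact absurd h2 (by simp)
  · exfalso
    have h1 := congrArg node h
    have h2 : node (ed (fa_at w i)) = node (dj z'.1 c' j') := h1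
    rw [dj_node, node_ed] at h2
    exact absurd h2 (by simp)
  · have h0 : (ed (fa_at w i)) = (ed (fa_at w' i')) := h
    have h1 : w = w' := Subtype.ext (by
      rw [← pt_ed (fa_at w i), ← pt_ed (fa_at w' i'), h0])
    subst h1
    have h2 : i = i' := fa_inj w (by
      rw [← fc_ed (fa_at w i), ← fc_ed (fa_at w i'), h0])
    rw [h2]

lemma exists_toD {d : Dart s} (h : q ∈ M.side (fc d)) : ∃ e : Drt (Zq s q) (Lq s q), toD e = d := by
  rcases hn : node d with _ | z
  · have hat := pt_at d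
    let w : Lq s q := ⟨pt d, hat.1, fc d, h, hat.2⟩
    obtain ⟨i, hi⟩ := exists_fa w h hat.2
    refine ⟨Sum.inr (w, i), ?_⟩
    exact (eq_ed hn hi rfl (fa_at w i)).symm
  · have hz : q ∈ M.side z.F := by
      rw [← fc_dz z d.x d.b, ← eq_dz hn]; exact h
    obtain ⟨j, hj⟩ := eq_dj hn
    exact ⟨Sum.inl (⟨z, hz⟩, d.x, j), hj.symm⟩

/-- the end of a dart -/
noncomputable def ofD (d : Dart s) (h : q ∈ M.side (fc d)) : Drt (Zq s q) (Lq s q) :=
  (exists_toD h).choose

lemma toD_ofD (d : Dart s) (h : q ∈ M.side (fc d)) : toD (ofD d h) = d := (exists_toD h).choose_spec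

lemma ofD_toD (e : Drt (Zq s q) (Lq s q)) (h : q ∈ M.side (fc (toD e))) : ofD (toD e) h = e :=
  toD_inj (toD_ofD _ _)

/-- the piece of a dart -/
def pD (d : Dart s) (h : q ∈ M.side (fc d)) : Qq s q := ⟨⟨d.x, d.p⟩, h⟩

lemma pD_eq {d d' : Dart s} {h : q ∈ M.side (fc d)} {h' : q ∈ M.side (fc d')}
    (he : pD d h = pD d' h') : d' = d ∨ d' = flip d := by
  obtain ⟨x, p, b⟩ := d
  obtain ⟨x', p', b'⟩ := d'
  have h1 := congrArg Subtype.val he
  have h2 : (⟨x, p⟩ : Σ x : Bool, s.Sub x) = ⟨x', p'⟩ := h1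
  cases h2
  cases b <;> cases b'
  · exact Or.inl rfl
  · exact Or.inr rfl
  · exact Or.inr rfl
  · exact Or.inl rfl

lemma pD_congr {d d' : Dart s} {h : q ∈ M.side (fc d)} {h' : q ∈ M.side (fc d')}
    (he : d = d') : pD d h = pD d' h' := by
  subst he; rfl

/-- the other end of the same piece -/
noncomputable def flD (d : Drt (Zq s q) (Lq s q)) : Drt (Zq s q) (Lq s q) :=
  ofD (Wk_689.flip (toD d)) ((fc_flip (toD d)).symm ▸ toD_side d)

lemma toD_flD (d : Drt (Zq s q) (Lq s q)) : toD (flD d) = Wk_689.flip (toD d) := toD_ofD _ _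

lemma flD_flD (d : Drt (Zq s q) (Lq s q)) : flD (flD d) = d := by
  apply toD_inj
  rw [toD_flD, toD_flD, Wk_689.flip_flip]

lemma flD_ne (d : Drt (Zq s q) (Lq s q)) : flD d ≠ d := by
  intro h
  have h1 := congrArg toD h
  rw [toD_flD] at h1
  exact Wk_689.flip_ne _ h1

/-- the piece of an end -/
noncomputable def pcQ (d : Drt (Zq s q) (Lq s q)) : Qq s q := pD (toD d) (toD_side d)

lemma pcQ_flD (d : Drt (Zq s q) (Lq s q)) : pcQ (flD d) = pcQ d := by
  apply Subtype.ext
  show (⟨(toD (flD d)).x, (toD (flD d)).p⟩ : Σ x : Bool, s.Sub x) = ⟨(toD d).x, (toD d).p⟩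
  rw [toD_flD]
  rfl

lemma pcQ_eq {d e : Drt (Zq s q) (Lq s q)} (h : pcQ e = pcQ d) : e = d ∨ e = flD d := by
  rcases pD_eq h.symm with h2 | h2
  · exact Or.inl (toD_inj h2)
  · right
    apply toD_inj
    rw [h2, toD_flD]

open Classical in
/-- `w` is the upper end of its chord on the face `i` -/
noncomputable def upb (w : Lq s q) (i : Bool) : Bool :=
  decide (M.pos (fa w i) (s.mu (fa w i) w.1) < M.pos (fa w i) w.1)

lemma elim_pcQ (d : Drt (Zq s q) (Lq s q)) :
    Sum.elim (fun a : Zq s q × Bool × Bool => pcQ (Sum.inl (a.1, a.2.1, a.2.2)))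
      (fun b : Lq s q × Bool => pcQ (Sum.inr (b.1, b.2))) d = pcQ d := by
  rcases d with ⟨z, c, j⟩ | ⟨w, i⟩ <;> rfl

/-- **the arrangement of the state on the boundary of `q`** -/
noncomputable def arr (S : SphM M q) (s : St M col) : Arr (Qq s q) (Zq s q) (Lq s q) where
  col p := p.1.1
  pc z c j := pcQ (Sum.inl (z, c, j))
  lp w i := pcQ (Sum.inr (w, i))
  tw w := xor (S.opp w.1) (xor (upb w false) (upb w true))
  flip := flD
  pc_col z c j := dj_x z.1 c j
  lp_col w := by
    show (ed (fa_at w false)).x = (ed (fa_at w true)).x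
    rw [x_ed, x_ed]
  flip_flip := flD_flD
  flip_ne := flD_ne
  pce_flip d := by
    rw [elim_pcQ, elim_pcQ, pcQ_flD]
  pce_inj d e h := by
    rw [elim_pcQ, elim_pcQ] at h
    exact pcQ_eq h

lemma arr_pce (S : SphM M q) (d : Drt (Zq s q) (Lq s q)) : (arr S s).pce d = pcQ d :=
  elim_pcQ d

end Cell

end Crest.Agent.R096.Ac_117
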