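import Crest.Agent.R096.Ac6_117

/-!
# R096 (row 96), (ARCS), part 7: `SIDE` on the boundary of a cell (helper117)

`FaceSide s` (owner of the proof: 689) and `SphM M q` imply `SIDE (arr S s)`.
-/

set_option autoImplicit false
set_option linter.unusedSectionVars false

open Set

namespace Crest.Agent.R096.Ac_117

open St_147 Wk_689

variable {ι Φ W I : Type} {M : MeshC ι Φ W} {col : I → Bool}

/-- the value of a function on the sub-chords at a dart -/
def vD {s : St M col} (u : (x : Bool) → s.Sub x → ZMod 2) (d : Dart s) : ZMod 2 := u d.x d.p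

open Classical in
/-- sum of the values at the ends of the chords of `F` below the position `t` -/
noncomputable def sumB {s : St M col} (u : (x : Bool) → s.Sub x → ZMod 2) (F : Φ) (t : ℝ) : ZMod 2 :=
  ∑ v ∈ s.P, if h : s.At F v then (if M.pos F v < t then vD u (ed h) else 0) else 0

/-- **side functions of a face** (689) -/
def FaceSide (s : St M col) : Prop :=
  ∀ (F : Φ) (u : (x : Bool) → s.Sub x → ZMod 2),
    (∀ z : s.Dbl, z.F = F → u true (bel z true) + u true (abv z true) +
      u false (bel z false) + u false (abv z false) = 0) →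
    ∃ t : (x : Bool) → s.Sub x → Bool → ZMod 2,
      (∀ x p, (chd p).1 = F → t x p false + t x p true = u x p) ∧
      (∀ z : s.Dbl, z.F = F → ∀ i j, t (dj z true j).x (dj z true j).p i =
        t (dj z false i).x (dj z false i).p j) ∧
      (∀ w (h : s.At F w), t (ed h).x (ed h).p (ed h).b = sumB u F (M.pos F w))

variable {s : St M col}

instance finite_at : Finite {a : Φ × W // s.At a.1 a.2} := by
  have h1 : Set.Finite {a : Φ × W | s.At a.1 a.2} := by
    have : {a : Φ × W | s.At a.1 a.2} ⊆ ⋃ w ∈ s.P, (fun F => (F, w)) '' {F | w ∈ M.On F} := by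
      rintro ⟨F, w⟩ ⟨hw, hF⟩
      rw [Set.mem_iUnion₂]
      exact ⟨w, hw, F, hF, rfl⟩
    exact (s.P.finite_toSet.biUnion (fun w _ => (M.fin w).image _)).subset this
  exact h1.to_subtype

/-- all darts: at the double points and at the ends of the chords -/
noncomputable def allD (s : St M col) : (s.Dbl × Bool × Bool) ⊕ {a : Φ × W // s.At a.1 a.2} → Dart s
  | Sum.inl (z, c, j) => dz z c j
  | Sum.inr a => ed a.2

lemma allD_bij : Function.Bijective (allD s) := by
  constructor
  · rintro (⟨z, c, j⟩ | a) (⟨z', c', j'⟩ | a') h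
    · obtain ⟨rfl, rfl, rfl⟩ := dz_inj (show dz z c j = dz z' c' j' from h)
      rfl
    · exfalso
      have h2 : node (dz z c j) = node (ed a'.2) := congrArg node h
      rw [node_dz, node_ed] at h2
      exact absurd h2 (by simp)
    · exfalso
      have h2 : node (ed a.2) = node (dz z' c' j') := congrArg node h
      rw [node_dz, node_ed] at h2
      exact absurd h2 (by simp)
    · have h0 : ed a.2 = ed a'.2 := h
      have : a = a' := by
        apply Subtype.ext
        apply Prod.ext
        · rw [← fc_ed a.2, ← fc_ed a'.2, h0]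
        · rw [← pt_ed a.2, ← pt_ed a'.2, h0]
      rw [this]
  · intro d
    rcases hn : node d with _ | z
    · exact ⟨Sum.inr ⟨(fc d, pt d), pt_at d⟩, (eq_ed hn rfl rfl (pt_at d)).symm⟩
    · exact ⟨Sum.inl (z, d.x, d.b), (eq_dz hn).symm⟩

/-- handshake: the values at the ends of the chords of a face have an even sum -/
lemma handshake {F : Φ} {u : (x : Bool) → s.Sub x → ZMod 2}
    (hu : ∀ z : s.Dbl, z.F = F → u true (bel z true) + u true (abv z true) +
      u false (bel z false) + u false (abv z false) = 0) :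
    (open Classical in ∑ v ∈ s.P, (if h : s.At F v then vD u (ed h) else 0)) = 0 := by
  classical
  have : Fintype s.Dbl := Fintype.ofFinite _
  have : Fintype {a : Φ × W // s.At a.1 a.2} := Fintype.ofFinite _
  let e := Equiv.ofBijective (allD s) allD_bij
  have : Fintype (Dart s) := Fintype.ofEquiv _ e
  -- the sum over all darts of the face
  let f : Dart s → ZMod 2 := fun d => if fc d = F then vD u d else 0
  have h0 : ∑ d, f d = 0 := by
    refine Finset.sum_involution (fun d _ => Wk_689.flip d) ?_ ?_ ?_ ?_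
    · intro d _
      have : f (Wk_689.flip d) = f d := rfl
      rw [this]
      generalize f d = a
      revert a; decide
    · intro d _ _
      exact Wk_689.flip_ne d
    · intro d _; exact Finset.mem_univ _
    · intro d _; exact Wk_689.flip_flip d
  have h1 : ∑ d, f d = ∑ a, f (allD s a) := (Equiv.sum_comp e f).symm
  rw [h1, Fintype.sum_sum_type] at h0
  have h2 : ∑ a : s.Dbl × Bool × Bool, f (allD s (Sum.inl a)) = 0 := by
    rw [Fintype.sum_prod_type]
    apply Finset.sum_eq_zero
    intro z _
    rw [Fintype.sum_prod_type]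
    simp only [Fintype.sum_bool]
    show f (dz z true true) + f (dz z true false) + (f (dz z false true) + f (dz z false false)) = 0
    by_cases hz : z.F = F
    · have e1 : ∀ x b, f (dz z x b) = vD u (dz z x b) := fun x b => by
        show (if fc (dz z x b) = F then _ else _) = _
        rw [if_pos (by rw [fc_dz]; exact hz)]
      rw [e1, e1, e1, e1, ← add_assoc]
      exact hu z hz
    · have e1 : ∀ x b, f (dz z x b) = 0 := fun x b => by
        show (if fc (dz z x b) = F then _ else _) = _
        rw [if_neg (by rw [fc_dz]; exact hz)]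
      rw [e1, e1, e1, e1]; decide
  rw [h2, zero_add] at h0
  refine Eq.trans ?_ h0
  -- compare the two sums
  have h3 : ∑ a : {a : Φ × W // s.At a.1 a.2}, f (allD s (Sum.inr a)) =
      ∑ a : {a : Φ × W // s.At a.1 a.2}, if a.1.1 = F then vD u (ed a.2) else 0 := by
    apply Finset.sum_congr rfl
    intro a _
    show (if fc (ed a.2) = F then vD u (ed a.2) else 0) = _
    rw [fc_ed]
  rw [h3, ← Finset.sum_filter]
  have h4 : ∑ v ∈ s.P, (if h : s.At F v then vD u (ed h) else 0) =
      ∑ v ∈ s.P.filter (fun v => s.At F v), (if h : s.At F v then vD u (ed h) else 0) := by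
    rw [Finset.sum_filter]
    apply Finset.sum_congr rfl
    intro v _
    by_cases h : s.At F v
    · rw [if_pos h]
    · rw [dif_neg h, if_neg h]
  rw [h4]
  refine Finset.sum_bij' (i := fun v hv => (⟨(F, v), (Finset.mem_filter.1 hv).2⟩ :
    {a : Φ × W // s.At a.1 a.2})) (j := fun a _ => a.1.2) ?_ ?_ ?_ ?_ ?_
  · intro v hv
    exact Finset.mem_filter.2 ⟨Finset.mem_univ _, rfl⟩
  · intro a ha
    have h5 := (Finset.mem_filter.1 ha).2
    have h6 := a.2
    rw [h5] at h6
    exact Finset.mem_filter.2 ⟨h6.1, h6⟩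
  · intro v _; rfl
  · intro a ha
    have h5 := (Finset.mem_filter.1 ha).2
    apply Subtype.ext
    exact Prod.ext h5.symm rfl
  · intro v hv
    rw [dif_pos (Finset.mem_filter.1 hv).2]

open Classical in
lemma dart_b (d : Dart s) :
    d.b = decide (M.pos (fc d) (s.mu (fc d) (pt d)) < M.pos (fc d) (pt d)) := by
  obtain ⟨x, p, b⟩ := d
  have h1 := chd_low p
  cases b
  · symm
    rw [decide_eq_false_iff_not]
    exact not_lt.2 h1.le
  · symm
    rw [decide_eq_true_eq]
    show M.pos (chd p).1 (s.mu (chd p).1 (s.mu (chd p).1 (chd p).2)) <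
      M.pos (chd p).1 (s.mu (chd p).1 (chd p).2)
    rw [s.mu_mu (chd_at p).1 (chd_at p).2]
    exact h1

open Classical in
lemma ed_b {F : Φ} {w : W} (h : s.At F w) :
    (ed h).b = decide (M.pos F (s.mu F w) < M.pos F w) := by
  rw [dart_b, fc_ed, pt_ed]

section Cell

variable {q : ι}

open Classical in
/-- extension by 0 of a function on the sub-chords of `∂q` -/
noncomputable def ext0 (u : Qq s q → ZMod 2) (x : Bool) (p : s.Sub x) : ZMod 2 :=
  if h : q ∈ M.side (chd p).1 then u ⟨⟨x, p⟩, h⟩ else 0

lemma vD_ext0 (u : Qq s q → ZMod 2) (d : Drt (Zq s q) (Lq s q)) :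
    vD (ext0 u) (toD d) = u (pcQ d) := by
  exact dif_pos (toD_side d)

lemma z2_four {a b c d : ZMod 2} (h : a + b + c + d = 0) (a' b' c' d' : ZMod 2)
    (h1 : (a' = a ∧ b' = b) ∨ (a' = b ∧ b' = a)) (h2 : (c' = c ∧ d' = d) ∨ (c' = d ∧ d' = c)) :
    a' + b' + c' + d' = 0 := by
  rcases h1 with ⟨rfl, rfl⟩ | ⟨rfl, rfl⟩ <;> rcases h2 with ⟨rfl, rfl⟩ | ⟨rfl, rfl⟩ <;>
    rw [← h] <;> ring

lemma dj_pair (z : s.Dbl) (c : Bool) (f : Dart s → ZMod 2) :
    (f (dz z c true) = f (dj z c false) ∧ f (dz z c false) = f (dj z c true)) ∨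
    (f (dz z c true) = f (dj z c true) ∧ f (dz z c false) = f (dj z c false)) := by
  unfold dj
  cases lowIn z c
  · left; exact ⟨rfl, rfl⟩
  · right; exact ⟨rfl, rfl⟩

/-- **`SIDE` on the boundary of a cell** -/
theorem side_arr (hF : FaceSide s) (S : SphM M q) : (arr S s).SIDE := by
  classical
  intro u hu
  -- even at the double points
  have hev : ∀ F, q ∈ M.side F → ∀ z : s.Dbl, z.F = F →
      ext0 u true (bel z true) + ext0 u true (abv z true) +
        ext0 u false (bel z false) + ext0 u false (abv z false) = 0 := by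
    rintro F hq z rfl
    have h1 := hu.ev ⟨z, hq⟩
    have e1 : ∀ c j, u ((arr S s).pc ⟨z, hq⟩ c j) = vD (ext0 u) (dj z c j) := fun c j =>
      (vD_ext0 u (Sum.inl (⟨z, hq⟩, c, j))).symm
    rw [e1, e1, e1, e1] at h1
    refine z2_four h1 _ _ _ _ ?_ ?_
    · exact (dj_pair z true (vD (ext0 u)))
    · exact (dj_pair z false (vD (ext0 u)))
  -- side functions of the faces
  have hex : ∀ F, ∃ t : (x : Bool) → s.Sub x → Bool → ZMod 2, q ∈ M.side F →
      (∀ x p, (chd p).1 = F → t x p false + t x p true = ext0 u x p) ∧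
      (∀ z : s.Dbl, z.F = F → ∀ i j, t (dj z true j).x (dj z true j).p i =
        t (dj z false i).x (dj z false i).p j) ∧
      (∀ w (h : s.At F w), t (ed h).x (ed h).p (ed h).b = sumB (ext0 u) F (M.pos F w)) := by
    intro F
    by_cases hq : q ∈ M.side F
    · obtain ⟨t, ht⟩ := hF F (ext0 u) (hev F hq)
      exact ⟨t, fun _ => ht⟩
    · exact ⟨fun _ _ _ => 0, fun h => absurd h hq⟩
  choose t ht using hex
  -- the points where the chain crosses the mesh edges
  let uw : W → ZMod 2 := fun w =>
    if h : w ∈ s.P ∧ ∃ F, q ∈ M.side F ∧ w ∈ M.On F then u ((arr S s).lp ⟨w, h⟩ false) else 0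
  have huw : ∀ (w : Lq s q) (i : Bool), u ((arr S s).lp w i) = uw w.1 := by
    intro w i
    have h1 : uw w.1 = u ((arr S s).lp w false) := by
      show (if h : w.1 ∈ s.P ∧ ∃ F, q ∈ M.side F ∧ w.1 ∈ M.On F then
        u ((arr S s).lp ⟨w.1, h⟩ false) else 0) = _
      rw [dif_pos w.2]
    rw [h1]
    cases i
    · rfl
    · exact (hu.lk w).symm
  have hed : ∀ (F : Φ) (w : W) (h : s.At F w), q ∈ M.side F → vD (ext0 u) (ed h) = uw w := by
    intro F w h hq
    let l : Lq s q := ⟨w, h.1, F, hq, h.2⟩
    obtain ⟨i, hi⟩ := exists_fa l hq h.2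
    have h1 := huw l i
    have h2 : u ((arr S s).lp l i) = vD (ext0 u) (ed (fa_at l i)) :=
      (vD_ext0 u (Sum.inr (l, i))).symm
    have h3 : vD (ext0 u) (ed (fa_at l i)) = vD (ext0 u) (ed h) := by
      congr 1
      apply ed_unique (node_ed _) (node_ed _)
      · rw [fc_ed, fc_ed]; exact hi.symm
      · rw [pt_ed, pt_ed]
    rw [← h3, ← h2, h1]
  let y : Finset W := s.P.filter (fun w => uw w = 1)
  have hsumB : ∀ F, q ∈ M.side F → ∀ r, sumB (ext0 u) F r = cntP M y F r := by
    intro F hq r
    unfold sumB cntP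
    rw [Finset.filter_filter, Finset.card_filter, Nat.cast_sum]
    apply Finset.sum_congr rfl
    intro v hv
    by_cases h : s.At F v
    · rw [dif_pos h, hed F v h hq]
      by_cases h2 : M.pos F v < r
      · rw [if_pos h2]
        rcases z2_or (uw v) with h3 | h3
        · rw [h3, if_neg (by rintro ⟨h4, -⟩; exact absurd h4 (by decide))]
          rfl
        · rw [h3, if_pos ⟨rfl, h.2, h2⟩]
          rfl
      · rw [if_neg h2, if_neg (by rintro ⟨-, -, h4⟩; exact h2 h4)]
        rfl
    · rw [dif_neg h, if_neg (by rintro ⟨-, h4, -⟩; exact h ⟨hv, h4⟩)]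
      rfl
  have heven : ∀ F, q ∈ M.side F → Even (y.filter (fun v => v ∈ M.On F)).card := by
    intro F hq
    have h1 := handshake (hev F hq)
    have h2 : ((y.filter (fun v => v ∈ M.On F)).card : ZMod 2) = 0 := by
      rw [← h1, Finset.filter_filter, Finset.card_filter, Nat.cast_sum]
      apply Finset.sum_congr rfl
      intro v hv
      by_cases h : s.At F v
      · rw [dif_pos h, hed F v h hq]
        rcases z2_or (uw v) with h3 | h3
        · rw [h3, if_neg (by rintro ⟨h4, -⟩; exact absurd h4 (by decide))]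
          rfl
        · rw [h3, if_pos ⟨rfl, h.2⟩]
          rfl
      · rw [dif_neg h, if_neg (by rintro ⟨-, h4⟩; exact h ⟨hv, h4⟩)]
        rfl
    rwa [ZMod.natCast_eq_zero_iff_even] at h2
  obtain ⟨κ, hκ⟩ := S.sph y heven
  refine ⟨fun p i => κ (chd p.1.2).1 + t (chd p.1.2).1 p.1.1 p.1.2 i, ?_, ?_, ?_⟩
  · intro p
    have h1 := (ht _ p.2).1 p.1.1 p.1.2 rfl
    have h2 : ext0 u p.1.1 p.1.2 = u p := dif_pos p.2
    show κ _ + t _ _ _ false + (κ _ + t _ _ _ true) = u p
    rw [← h2, ← h1]
    generalize κ (chd p.1.2).1 = k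
    generalize t (chd p.1.2).1 p.1.1 p.1.2 false = a
    generalize t (chd p.1.2).1 p.1.1 p.1.2 true = b
    revert k a b; decide
  · intro z i j
    have h1 := (ht _ z.2).2.1 z.1 rfl i j
    have e1 : ∀ c j, (chd (dj z.1 c j).p).1 = z.1.F := fun c j => dj_fc z.1 c j
    show κ (chd (dj z.1 true j).p).1 + t (chd (dj z.1 true j).p).1 (dj z.1 true j).x
        (dj z.1 true j).p i = κ (chd (dj z.1 false i).p).1 + t (chd (dj z.1 false i).p).1
        (dj z.1 false i).x (dj z.1 false i).p j
    rw [e1, e1, h1]
  · intro w i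
    -- sides at a link point
    have hup : ∀ b, (ed (fa_at w b)).b = upb w b := fun b => ed_b (fa_at w b)
    have hval : ∀ b i, κ (fa w b) + t (fa w b) (ed (fa_at w b)).x (ed (fa_at w b)).p i =
        κ (fa w b) + cntP M y (fa w b) (M.pos (fa w b) w.1) +
          (if xor i (upb w b) = true then uw w.1 else 0) := by
      intro b i
      have hq := (fa_side w b).1
      have h1 := (ht _ hq).2.2 w.1 (fa_at w b)
      have h2 := (ht _ hq).1 (ed (fa_at w b)).x (ed (fa_at w b)).p (fc_ed (fa_at w b))
      have h3 : ext0 u (ed (fa_at w b)).x (ed (fa_at w b)).p = uw w.1 := hed _ _ (fa_at w b) hq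
      rw [h3] at h2
      rw [hsumB _ hq, hup b] at h1
      rw [add_assoc, ← h1]
      congr 1
      rcases hub : upb w b
      · rw [hub] at h1
        cases i
        · simp
        · simp only [Bool.xor_false]
          rw [if_pos trivial, ← h2]
          generalize t (fa w b) (ed (fa_at w b)).x (ed (fa_at w b)).p false = a
          generalize t (fa w b) (ed (fa_at w b)).x (ed (fa_at w b)).p true = c
          revert a c; decide
      · rw [hub] at h1
        cases i
        · simp only [Bool.false_xor]
          rw [if_pos trivial, ← h2]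
          generalize t (fa w b) (ed (fa_at w b)).x (ed (fa_at w b)).p false = a
          generalize t (fa w b) (ed (fa_at w b)).x (ed (fa_at w b)).p true = c
          revert a c; decide
        · simp
    have e1 : ∀ b, (chd (ed (fa_at w b)).p).1 = fa w b := fun b => fc_ed (fa_at w b)
    have goal1 : ∀ b i, κ (chd (ed (fa_at w b)).p).1 + t (chd (ed (fa_at w b)).p).1
        (ed (fa_at w b)).x (ed (fa_at w b)).p i = κ (fa w b) +
          cntP M y (fa w b) (M.pos (fa w b) w.1) +
          (if xor i (upb w b) = true then uw w.1 else 0) := by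
      intro b i
      rw [e1 b]
      exact hval b i
    show κ (chd (ed (fa_at w false)).p).1 + t (chd (ed (fa_at w false)).p).1
        (ed (fa_at w false)).x (ed (fa_at w false)).p i =
      κ (chd (ed (fa_at w true)).p).1 + t (chd (ed (fa_at w true)).p).1
        (ed (fa_at w true)).x (ed (fa_at w true)).p
          (xor i (xor (S.opp w.1) (xor (upb w false) (upb w true))))
    rw [goal1, goal1]
    have hk := hκ (fa w false) (fa w true) w.1 (fa_side w false).1 (fa_side w true).1 (fa_ne w)
      (fa_side w false).2 (fa_side w true).2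
    rw [hk]
    have hy : w.1 ∈ y ↔ uw w.1 = 1 := by
      show w.1 ∈ s.P.filter (fun w => uw w = 1) ↔ _
      rw [Finset.mem_filter]
      exact ⟨fun h => h.2, fun h => ⟨w.2.1, h⟩⟩
    clear_value uw
    rcases z2_or (uw w.1) with h3 | h3
    · have hny : ¬ (w.1 ∈ y ∧ S.opp w.1 = true) := by
        rw [hy, h3]; rintro ⟨h4, -⟩; exact absurd h4 (by decide)
      rw [if_neg hny, h3]; simp
    · have hyy : w.1 ∈ y := hy.2 h3
      rw [h3]
      cases i <;> cases S.opp w.1 <;> cases upb w false <;> cases upb w true <;> simp [hyy] <;>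
        (generalize κ (fa w true) + cntP M y (fa w true) (M.pos (fa w true) w.1) = a; revert a;
          decide)

end Cell

end Crest.Agent.R096.Ac_117
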