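import Crest.Agent.R096.Ac7_117

/-!
# R096 (row 96), (ARCS), part 8: `St_147.St.Arcs` from ranks and inside functions (helper117)
-/

set_option autoImplicit false
set_option linter.unusedSectionVars false

open Set

namespace Crest.Agent.R096.Ac_117

open St_147 Wk_689

variable {ι Φ W I : Type} {M : MeshC ι Φ W} {col : I → Bool} {s : St M col}

section Cell

variable {q : ι}

lemma dz_of_dj (z : s.Dbl) (x b : Bool) : ∃ j, dz z x b = dj z x j := by
  obtain ⟨j, hj⟩ := eq_dj (node_dz z x b)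
  rw [dz_x] at hj
  exact ⟨j, hj⟩

/-- the pieces above and below `z` are the two pieces `pc z x _` -/
lemma bel_abv (z : s.Dbl) (x : Bool) : ∃ j, dz z x true = dj z x j ∧ dz z x false = dj z x (!j) := by
  refine ⟨lowIn z x, ?_, ?_⟩
  · unfold dj; simp
  · unfold dj; cases lowIn z x <;> rfl

/-- the piece of an end point -/
lemma end_ed {x : Bool} {p : s.Sub x} {F : Φ} {w : W} (h : p.End F w) :
    ∃ hat : s.At F w, (⟨(ed hat).x, (ed hat).p⟩ : Σ x : Bool, s.Sub x) = ⟨x, p⟩ := by
  obtain ⟨hat, h⟩ := h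
  refine ⟨hat, ?_⟩
  rcases h with ⟨hlt, a, rfl, ha⟩ | ⟨hlt, h⟩
  · have h1 : (⟨x, Sum.inl a, false⟩ : Dart s) = ed hat := by
      refine eq_ed rfl ?_ ?_ hat
      · show a.1.1 = F
        rw [ha]
      · show a.1.2 = w
        rw [ha]
    rw [← h1]
  · have htop : IsTop p ∧ chd p = (F, s.mu F w) := by
      cases p with
      | inl a =>
        obtain ⟨h1, h2⟩ := h
        refine ⟨?_, h1⟩
        intro z hz
        have h3 := below_chd hz
        have h4 : a.1 = (z.F, z.e x) := h3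
        rw [h1] at h4
        simp only [Prod.mk.injEq] at h4
        exact h2 z h4.1.symm h4.2.symm
      | inr y =>
        obtain ⟨h1, h2, h3⟩ := h
        refine ⟨?_, Prod.ext h1 h2⟩
        intro z hz
        have h4 := hz.1
        have h5 := hz.2.1
        exact h3 z (h4.trans h1) (h5.trans h2) hz.2.2.1
    have h1 : (⟨x, p, true⟩ : Dart s) = ed hat := by
      refine eq_ed (d := ⟨x, p, true⟩) (show node _ = none from nxt_none.2 htop.1) ?_ ?_ hat
      · show (chd p).1 = F
        rw [htop.2]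
      · show s.mu (chd p).1 (chd p).2 = w
        rw [htop.2]
        exact s.mu_mu hat.1 hat.2
    rw [← h1]

lemma end_of_none {d : Dart s} (h : node d = none) : d.p.End (fc d) (pt d) := by
  refine ⟨pt_at d, ?_⟩
  obtain ⟨x, p, b⟩ := d
  cases b
  · left
    cases p with
    | inl a => exact ⟨a.2.2.1, a, rfl, rfl⟩
    | inr z => exact absurd h (by simp [node, prv])
  · right
    have htop : IsTop p := nxt_none.1 h
    have hlow := chd_low p
    have hmm : s.mu (chd p).1 (s.mu (chd p).1 (chd p).2) = (chd p).2 :=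
      s.mu_mu (chd_at p).1 (chd_at p).2
    refine ⟨?_, ?_⟩
    · show M.pos (chd p).1 (s.mu (chd p).1 (s.mu (chd p).1 (chd p).2)) <
        M.pos (chd p).1 (s.mu (chd p).1 (chd p).2)
      rw [hmm]; exact hlow
    · have h1 := top_iff.1 htop
      cases p with
      | inl a =>
        constructor
        · show a.1 = (a.1.1, s.mu a.1.1 (s.mu a.1.1 a.1.2))
          have : s.mu a.1.1 (s.mu a.1.1 a.1.2) = a.1.2 := hmm
          rw [this]
        · intro u hu he
          have he' : u.e x = a.1.2 := by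
            have : s.mu a.1.1 (s.mu a.1.1 a.1.2) = a.1.2 := hmm
            exact he.trans this
          have hc : chd (Sum.inr u : s.Sub x) = chd (Sum.inl a : s.Sub x) := Prod.ext hu he'
          have h2 := h1 (Sum.inr u) hc
          have h3 : start (Sum.inl a : s.Sub x) < start (Sum.inr u : s.Sub x) := by
            have h4 := (key_mem u x).1
            show M.pos a.1.1 a.1.2 < u.key x
            have e1 : u.F = a.1.1 := hu
            rw [← e1, ← he']
            exact h4
          exact absurd h2 (not_le.2 h3)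
      | inr z =>
        refine ⟨rfl, hmm.symm, ?_⟩
        intro u hu he
        have he' : u.e x = z.e x := he.trans hmm
        have hc : chd (Sum.inr u : s.Sub x) = chd (Sum.inr z : s.Sub x) := Prod.ext hu he'
        exact not_lt.2 (h1 (Sum.inr u) hc)

variable {S : SphM M q}

/-- continuity at the points of `P` -/
lemma link_end {φ : Qq s q → ZMod 2}
    (h : ∀ l, φ ((arr S s).lp l false) = φ ((arr S s).lp l true)) {x : Bool} {F F' : Φ} {w : W}
    {p p' : s.Sub x} (hF : q ∈ M.side F) (hF' : q ∈ M.side F') (hp : p.End F w)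
    (hp' : p'.End F' w) (hq : q ∈ M.side (chd p).1) (hq' : q ∈ M.side (chd p').1) :
    φ ⟨⟨x, p⟩, hq⟩ = φ ⟨⟨x, p'⟩, hq'⟩ := by
  obtain ⟨hat, h1⟩ := end_ed hp
  obtain ⟨hat', h1'⟩ := end_ed hp'
  let l : Lq s q := ⟨w, hat.1, F, hF, hat.2⟩
  obtain ⟨i, hi⟩ := exists_fa l hF hat.2
  obtain ⟨i', hi'⟩ := exists_fa l hF' hat'.2
  have f1 : ed hat = ed (fa_at l i) := ed_unique (node_ed _) (node_ed _)
    (by rw [fc_ed, fc_ed]; exact hi) (by rw [pt_ed, pt_ed])
  have f2 : ed hat' = ed (fa_at l i') := ed_unique (node_ed _) (node_ed _)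
    (by rw [fc_ed, fc_ed]; exact hi') (by rw [pt_ed, pt_ed])
  have e1 : (⟨⟨x, p⟩, hq⟩ : Qq s q) = (arr S s).lp l i := by
    apply Subtype.ext
    show (⟨x, p⟩ : Σ x : Bool, s.Sub x) = ⟨(ed (fa_at l i)).x, (ed (fa_at l i)).p⟩
    rw [← f1]
    exact h1.symm
  have e2 : (⟨⟨x, p'⟩, hq'⟩ : Qq s q) = (arr S s).lp l i' := by
    apply Subtype.ext
    show (⟨x, p'⟩ : Σ x : Bool, s.Sub x) = ⟨(ed (fa_at l i')).x, (ed (fa_at l i')).p⟩
    rw [← f2]
    exact h1'.symm
  rw [e1, e2]
  cases i <;> cases i'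
  · rfl
  · exact h l
  · exact (h l).symm
  · rfl

end Cell

/-- **the arcs of the active cells** -/
theorem arcs_of_dep (Act : Set ι) (hF : FaceSide s) (S : ∀ q ∈ Act, SphM M q)
    (E : ∀ q, ∀ hq : q ∈ Act, Dep (arr (S q hq) s)) :
    ∃ A : s.Arcs Act, ∀ (q : ι) (hq : q ∈ Act) (z : s.Dbl) (hz : q ∈ M.side z.F),
      A.arc q z = ((E q hq).arc ⟨z, hz⟩).1 := by
  classical
  let arc : ι → s.Dbl → s.Dbl := fun q z =>
    if h : ∃ (hq : q ∈ Act), q ∈ M.side z.F then ((E q h.choose).arc ⟨z, h.choose_spec⟩).1 else z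
  have harc : ∀ (q : ι) (hq : q ∈ Act) (z : s.Dbl) (hz : q ∈ M.side z.F),
      arc q z = ((E q hq).arc ⟨z, hz⟩).1 := by
    intro q hq z hz
    show (if h : ∃ (hq : q ∈ Act), q ∈ M.side z.F then
      ((E q h.choose).arc ⟨z, h.choose_spec⟩).1 else z) = _
    rw [dif_pos ⟨hq, hz⟩]
  have hext : ∀ (q : ι) (hq : q ∈ Act) (x : Bool) (φ : Qq s q → ZMod 2) (p : s.Sub x)
      (hp : q ∈ M.side (chd p).1), (if h : q ∈ M.side (chd p).1 then φ ⟨⟨x, p⟩, h⟩ else 0) =
        φ ⟨⟨x, p⟩, hp⟩ := by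
    intro q hq x φ p hp
    exact dif_pos hp
  refine ⟨⟨arc, ?_, ?_, ?_, ?_, ?_⟩, harc⟩
  · intro q z hq hz
    rw [harc q hq z hz]
    exact ((E q hq).arc ⟨z, hz⟩).2
  · intro q z hq hz
    rw [harc q hq z hz]
    intro h
    exact (E q hq).arc_ne ⟨z, hz⟩ (Subtype.ext h)
  · intro q z hq hz
    rw [harc q hq z hz, harc q hq _ ((E q hq).arc ⟨z, hz⟩).2]
    have h := (E q hq).arc_arc ⟨z, hz⟩
    exact congrArg Subtype.val h
  · intro q z x hq hz
    obtain ⟨-, -, -, h4⟩ := (E q hq).exists_arcs (side_arr hF (S q hq))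
    obtain ⟨φ, hl, hj, ho⟩ := h4 ⟨z, hz⟩ x
    refine ⟨fun p => if h : q ∈ M.side (chd p).1 then φ ⟨⟨x, p⟩, h⟩ else 0, ?_, ?_, ?_⟩
    · intro F F' w p p' h1 h2 h3 h4
      obtain ⟨hat, e1⟩ := end_ed h3
      obtain ⟨hat', e1'⟩ := end_ed h4
      have hq1 : q ∈ M.side (chd p).1 := by
        have : (chd (ed hat).p).1 = F := fc_ed hat
        cases e1
        rw [this]; exact h1
      have hq2 : q ∈ M.side (chd p').1 := by
        have : (chd (ed hat').p).1 = F' := fc_ed hat'
        cases e1'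
        rw [this]; exact h2
      show (if h : q ∈ M.side (chd p).1 then _ else _) = (if h : q ∈ M.side (chd p').1 then _ else _)
      rw [hext q hq x φ p hq1, hext q hq x φ p' hq2]
      exact link_end hl h1 h2 h3 h4 _ _
    · intro u p p' hu hb ha
      obtain ⟨j, h5, h6⟩ := bel_abv u x
      have hp : p = bel u x := below_iff.1 hb
      have hp' : p' = abv u x := ha
      subst hp
      subst hp'
      have hq1 : q ∈ M.side (chd (bel u x)).1 := by
        have : (chd (bel u x)).1 = u.F := fc_dz u x true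
        rw [this]; exact hu
      have hq2 : q ∈ M.side (chd (abv u x)).1 := hu
      show (if h : q ∈ M.side (chd (bel u x)).1 then _ else _) ≠
        (if h : q ∈ M.side (chd (abv u x)).1 then _ else _) ↔ _
      rw [hext q hq x φ _ hq1, hext q hq x φ _ hq2]
      have e1 : (⟨⟨x, bel u x⟩, hq1⟩ : Qq s q) = (arr (S q hq) s).pc ⟨u, hu⟩ x j := by
        apply Subtype.ext
        show (⟨x, bel u x⟩ : Σ x : Bool, s.Sub x) = ⟨(dj u x j).x, (dj u x j).p⟩
        rw [← h5]
        rfl
      have e2 : (⟨⟨x, abv u x⟩, hq2⟩ : Qq s q) = (arr (S q hq) s).pc ⟨u, hu⟩ x (!j) := by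
        apply Subtype.ext
        show (⟨x, abv u x⟩ : Σ x : Bool, s.Sub x) = ⟨(dj u x (!j)).x, (dj u x (!j)).p⟩
        rw [← h6]
        rfl
      rw [e1, e2, hj ⟨u, hu⟩ j, harc q hq z hz]
      constructor
      · rintro (h | h)
        · exact Or.inl (congrArg Subtype.val h)
        · exact Or.inr (congrArg Subtype.val h)
      · rintro (h | h)
        · exact Or.inl (Subtype.ext h)
        · exact Or.inr (Subtype.ext h)
    · intro u hu h1 h2
      rw [harc q hq z hz] at h2
      have h3 : (⟨u, hu⟩ : Zq s q) ≠ ⟨z, hz⟩ := fun h => h1 (congrArg Subtype.val h)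
      have h4 : (⟨u, hu⟩ : Zq s q) ≠ (E q hq).arc ⟨z, hz⟩ := fun h => h2 (congrArg Subtype.val h)
      have ha := harc q hq u hu
      obtain ⟨j, -, h6⟩ := bel_abv u x
      obtain ⟨j', -, h6'⟩ := bel_abv (arc q u) x
      have hq2 : q ∈ M.side (arc q u).F := by
        rw [ha]; exact ((E q hq).arc ⟨u, hu⟩).2
      show (if h : q ∈ M.side (chd (abv u x)).1 then φ ⟨⟨x, abv u x⟩, h⟩ else 0) =
        (if h : q ∈ M.side (chd (abv (arc q u) x)).1 then φ ⟨⟨x, abv (arc q u) x⟩, h⟩ else 0)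
      rw [hext q hq x φ (abv u x) hu, hext q hq x φ (abv (arc q u) x) hq2]
      have e1 : (⟨⟨x, abv u x⟩, hu⟩ : Qq s q) = (arr (S q hq) s).pc ⟨u, hu⟩ x (!j) := by
        apply Subtype.ext
        show (⟨x, abv u x⟩ : Σ x : Bool, s.Sub x) = ⟨(dj u x (!j)).x, (dj u x (!j)).p⟩
        rw [← h6]
        rfl
      have e2 : (⟨⟨x, abv (arc q u) x⟩, hq2⟩ : Qq s q) =
          (arr (S q hq) s).pc ((E q hq).arc ⟨u, hu⟩) x (!j') := by
        apply Subtype.ext
        show (⟨x, abv (arc q u) x⟩ : Σ x : Bool, s.Sub x) =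
          ⟨(dj ((E q hq).arc ⟨u, hu⟩).1 x (!j')).x, (dj ((E q hq).arc ⟨u, hu⟩).1 x (!j')).p⟩
        rw [← ha, ← h6']
        rfl
      rw [e1, e2]
      exact ho ⟨u, hu⟩ h3 h4 _ _
  · intro q z x hq hz φ h1 h2
    -- pieces of colour `x` with the value of `φ` at `z`
    have hk := (E q hq).kz_arc ⟨z, hz⟩ x
    let φ' : (Σ y : Bool, s.Sub y) → ZMod 2 := fun a => if h : a.1 = x then φ (h ▸ a.2) else 0
    have hφ' : ∀ p : s.Sub x, φ' ⟨x, p⟩ = φ p := fun p => dif_pos rfl
    -- no jump at the double points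
    have hjmp : ∀ (u : s.Dbl), q ∈ M.side u.F → φ (bel u x) = φ (abv u x) := fun u hu =>
      h2 u _ _ hu (bel_spec u x) rfl
    have hdj : ∀ (u : s.Dbl), q ∈ M.side u.F → ∀ j j', φ' ⟨(dj u x j).x, (dj u x j).p⟩ =
        φ' ⟨(dj u x j').x, (dj u x j').p⟩ := by
      intro u hu
      have h3 : ∀ b b', φ' ⟨(dz u x b).x, (dz u x b).p⟩ = φ' ⟨(dz u x b').x, (dz u x b').p⟩ := by
        intro b b'
        have e1 : φ' ⟨(dz u x true).x, (dz u x true).p⟩ = φ (bel u x) := hφ' _
        have e2 : φ' ⟨(dz u x false).x, (dz u x false).p⟩ = φ (abv u x) := hφ' _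
        cases b <;> cases b'
        · rfl
        · rw [e1, e2, hjmp u hu]
        · rw [e1, e2, hjmp u hu]
        · rfl
      intro j j'
      exact h3 _ _
    have hval : ∀ u (hu : q ∈ M.side u.F) j, φ' ((arr (S q hq) s).pc ⟨u, hu⟩ x j).1 =
        φ (Sum.inr u) := by
      intro u hu j
      obtain ⟨j', -, h6⟩ := bel_abv u x
      have e1 : φ' ((arr (S q hq) s).pc ⟨u, hu⟩ x j).1 = φ' ⟨(dj u x (!j')).x, (dj u x (!j')).p⟩ :=
        hdj u hu _ _
      rw [e1, ← h6]
      exact hφ' _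
    have key := (E q hq).conn {p | p.1.1 = x ∧ φ' p.1 = φ (Sum.inr z)} ?_
      ((arr (S q hq) s).pc ⟨z, hz⟩ x false) ((arr (S q hq) s).pc ((E q hq).arc ⟨z, hz⟩) x false)
      hk.symm ⟨(arr (S q hq) s).pc_col _ _ _, hval z hz false⟩
    · have h3 := key.2
      rw [harc q hq z hz]
      rw [← h3]
      exact hval _ _ _
    · rintro d ⟨hd1, hd2⟩
      refine ⟨?_, ?_⟩
      · rw [← hd1]
        exact (arr (S q hq) s).col_nx d
      · rw [← hd2]
        rcases d with ⟨u, c, j⟩ | ⟨l, i⟩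
        · have hc : c = x := ((arr (S q hq) s).pc_col u c j).symm.trans hd1
          subst hc
          exact hdj u.1 u.2 _ _
        · have hcol : ∀ b, (ed (fa_at l b)).x = x := by
            intro b
            have e0 : ((arr (S q hq) s).pce (Sum.inr (l, i))).1.1 = (ed (fa_at l i)).x := rfl
            have e1 : (ed (fa_at l i)).x = x := e0.symm.trans hd1
            rw [← e1, x_ed, x_ed]
          have main : ∀ b b', φ' ⟨(ed (fa_at l b)).x, (ed (fa_at l b)).p⟩ =
              φ' ⟨(ed (fa_at l b')).x, (ed (fa_at l b')).p⟩ := by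
            intro b b'
            have g1 := end_of_none (node_ed (fa_at l b))
            have g2 := end_of_none (node_ed (fa_at l b'))
            rw [fc_ed, pt_ed] at g1 g2
            have c1 := hcol b
            have c2 := hcol b'
            generalize ed (fa_at l b) = d1 at *
            generalize ed (fa_at l b') = d2 at *
            obtain ⟨x1, p1, b1⟩ := d1
            obtain ⟨x2, p2, b2⟩ := d2
            simp only at c1 c2 g1 g2
            subst c1
            subst c2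
            refine (hφ' p1).trans (Eq.trans ?_ (hφ' p2).symm)
            exact h1 _ _ _ _ _ (fa_side l b).1 (fa_side l b').1 g1 g2
          exact main _ _

end Crest.Agent.R096.Ac_117
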