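import Crest.Agent.R096.Wk8_689

/-!
# R096 / P3, P4 / FACE (9): side functions at the boundary of the face; FACE-SIDE
-/

set_option autoImplicit false

namespace Crest.Agent.R096.Wk_689
open St_147 Fx_689

variable {ι Φ W I : Type} {M : MeshC ι Φ W} {col : I → Bool} {s : St M col}
variable {u : (c : Bool) → s.Sub c → ZMod 2}

/-- the outer side of the first piece -/
lemma sd_ini {F : Φ} (a : Ch s F) : sd u (ini a) false = gF u F (M.pos F a.1) := by
  rw [← pc_lo a, sd_pc a le_rfl]
  unfold gF Dg.G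
  congr 1
  funext y
  have e0 : rk s F (M.pos F a.1) = (dg s F).lo a := rfl
  rw [e0]
  have hl := (dg s F).lt a
  by_cases hy : y = a
  · subst hy
    rw [if_pos rfl]
    have h0 : ¬ ((dg s F).lo y < (dg s F).lo y ∧ (dg s F).lo y ≤ (dg s F).hi y) := by omega
    rw [if_neg h0]
    rfl
  · rw [if_neg hy]
    have h1 : (dg s F).lo y ≠ (dg s F).lo a := fun h => hy ((dg s F).lo_inj _ _ h)
    have h2 := (dg s F).ne a y
    have h3 := (dg s F).lt y
    have h4 : (dg s F).ep y a ((dg s F).lo a) = (dg s F).inn y ((dg s F).lo a) := by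
      unfold Dg.ep
      by_cases hX : (dg s F).X a y
      · have := ((dg s F).e_mem hX).1
        rw [if_neg (by rintro ⟨-, h⟩; omega)]
      · rw [if_neg (by tauto)]
    rw [h4]
    unfold Dg.inn
    split_ifs <;> first | rfl | (exfalso; omega)

/-- the inner side of the last piece -/
lemma sd_fin {F : Φ} (a : Ch s F) :
    sd u (pc a ((dg s F).hi a - 1)) true = gF u F (M.pos F (s.mu F a.1)) := by
  have hl := (dg s F).lt a
  rw [sd_pc a (by omega)]
  unfold gF Dg.G
  congr 1
  funext y
  have e0 : rk s F (M.pos F (s.mu F a.1)) = (dg s F).hi a := rfl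
  rw [e0]
  by_cases hy : y = a
  · subst hy
    rw [if_pos rfl]
    have h0 : (dg s F).lo y < (dg s F).hi y ∧ (dg s F).hi y ≤ (dg s F).hi y := ⟨hl, le_rfl⟩
    rw [if_pos h0]
    rfl
  · rw [if_neg hy]
    have h1 : (dg s F).hi y ≠ (dg s F).hi a := fun h => hy ((dg s F).hi_inj _ _ h)
    have h1' : (dg s F).lo y ≠ (dg s F).lo a := fun h => hy ((dg s F).lo_inj _ _ h)
    have h2 := (dg s F).ne y a
    have h2' := (dg s F).ne a y
    have h3 := (dg s F).lt y
    by_cases hX : (dg s F).X a y
    · have := ((dg s F).e_mem hX).2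
      have h4 : (dg s F).ep y a ((dg s F).hi a - 1) = (dg s F).inn y ((dg s F).hi a) := by
        unfold Dg.ep
        rw [if_pos ⟨hX, by omega⟩]
      rw [h4]
      unfold Dg.inn
      split_ifs <;> first | rfl | (exfalso; omega)
    · have h4 : (dg s F).ep y a ((dg s F).hi a - 1) = (dg s F).inn y ((dg s F).lo a) := by
        unfold Dg.ep
        rw [if_neg (by tauto)]
      rw [h4]
      unfold Dg.X at hX
      unfold Dg.inn
      split_ifs <;> first | rfl | (exfalso; omega)

/-- (iii) lower end: outer side = just below, inner side = just above -/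
theorem sd_end_low {F : Φ} {w : W} {c : Bool} {p : s.Sub c} (h : p.End F w)
    (hl : M.pos F w < M.pos F (s.mu F w)) : sd u p false = gF u F (M.pos F w) := by
  obtain ⟨hat, h1 | h1⟩ := h
  · obtain ⟨-, a, hp, ha⟩ := h1
    subst hp
    obtain ⟨⟨F', w'⟩, a1, a2, a3⟩ := a
    simp only [Prod.mk.injEq] at ha
    obtain ⟨rfl, rfl⟩ := ha
    subst a3
    exact sd_ini (u := u) (⟨w', a1, a2⟩ : Ch s F')
  · exact absurd hl (not_lt.2 h1.1.le)

/-- (iii) upper end: inner side = just below -/
theorem sd_end_up {F : Φ} {w : W} {c : Bool} {p : s.Sub c} (h : p.End F w)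
    (hl : M.pos F (s.mu F w) < M.pos F w) : sd u p true = gF u F (M.pos F w) := by
  obtain ⟨b, hb, hbl⟩ := exists_dart_of_end h
  have hat := h.1
  have hb' : b = true := by
    cases b
    · exact absurd (hbl.1 rfl) (not_lt.2 hl.le)
    · rfl
  subst hb'
  have hn : IsTop p := nxt_none.1 (show node (⟨c, p, true⟩ : Dart s) = none by
    rw [hb]; exact node_ed _)
  have hF : (chd p).1 = F := (congrArg fc hb).trans (fc_ed _)
  have hw : s.mu (chd p).1 (chd p).2 = w := (congrArg pt hb).trans (pt_ed _)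
  subst hF
  have hc := chd_col p
  have key : ∀ {F : Φ} (a : Ch s F) {c : Bool} (_ : col (s.lab a.1) = c) (p : s.Sub c)
      (_ : chd p = (F, a.1)) (_ : IsTop p), sd u p true = gF u F (M.pos F (s.mu F a.1)) := by
    intro F a c hc p hp ht
    subst hc
    have : p = pc a ((dg s F).hi a - 1) :=
      top_unique ht (pc_hi a) (hp.trans (pc_chd a _).symm)
    rw [this]
    exact sd_fin a
  have := key (pch p) hc p rfl hn
  rw [this]
  show gF u _ (M.pos _ (s.mu _ (chd p).2)) = _
  rw [hw]

theorem sd_end_low' {F : Φ} {w : W} {c : Bool} {p : s.Sub c} (hu : EvD u F) (h : p.End F w)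
    (hl : M.pos F w < M.pos F (s.mu F w)) : sd u p true = gF u F (M.pos F w) + u c p := by
  have hF : (chd p).1 = F := by
    obtain ⟨b, hb, -⟩ := exists_dart_of_end h
    exact (congrArg fc hb).trans (fc_ed _)
  subst hF
  rw [← sd_end_low h hl, ← sd_add p hu, ← add_assoc, Dg.add_self', zero_add]

theorem sd_end_up' {F : Φ} {w : W} {c : Bool} {p : s.Sub c} (hu : EvD u F) (h : p.End F w)
    (hl : M.pos F (s.mu F w) < M.pos F w) : sd u p false = gF u F (M.pos F w) + u c p := by
  have hF : (chd p).1 = F := by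
    obtain ⟨b, hb, -⟩ := exists_dart_of_end h
    exact (congrArg fc hb).trans (fc_ed _)
  subst hF
  rw [← sd_end_up h hl, ← sd_add p hu, add_comm (sd u p false), ← add_assoc, Dg.add_self',
    zero_add]

open Classical in
/-- the value of `u` on the end piece of `w` on `F` (0 if `w` is not a point of the state) -/
noncomputable def ue (u : (c : Bool) → s.Sub c → ZMod 2) (F : Φ) (w : W) : ZMod 2 :=
  if h : s.At F w then u (ed h).x (ed h).p else 0

lemma ue_ed {F : Φ} {w : W} (h : s.At F w) : ue u F w = u (ed h).x (ed h).p := by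
  unfold ue
  rw [dif_pos h]

lemma ue_end {F : Φ} {w : W} {c : Bool} {p : s.Sub c} (h : p.End F w) : ue u F w = u c p := by
  obtain ⟨b, hb, -⟩ := exists_dart_of_end h
  rw [ue_ed h.1, ← hb]

lemma val_ue {F : Φ} (t : Ch s F × Bool) : (dg s F).val (uu u F) t = ue u F (ptt t) := by
  rw [ue_ed (ptt_at t)]
  obtain ⟨a, b⟩ := t
  cases b
  · have h1 : (⟨col (s.lab a.1), ini a, false⟩ : Dart s) = ed (ptt_at (a, false)) :=
      eq_ed rfl rfl rfl _
    rw [← h1]
    show uu u F a ((dg s F).lo a) = _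
    unfold uu
    rw [pc_lo]
  · have hf : fc (⟨col (s.lab a.1), pc a ((dg s F).hi a - 1), true⟩ : Dart s) = F := by
      show (chd (pc a ((dg s F).hi a - 1))).1 = F
      rw [pc_chd]
    have hp : pt (⟨col (s.lab a.1), pc a ((dg s F).hi a - 1), true⟩ : Dart s) = ptt (a, true) := by
      show s.mu (chd (pc a ((dg s F).hi a - 1))).1 (chd (pc a ((dg s F).hi a - 1))).2 = _
      rw [pc_chd]
      rfl
    have hn : node (⟨col (s.lab a.1), pc a ((dg s F).hi a - 1), true⟩ : Dart s) = none := by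
      show nxt (pc a ((dg s F).hi a - 1)) = none
      exact nxt_none.2 (pc_hi a)
    have h1 : (⟨col (s.lab a.1), pc a ((dg s F).hi a - 1), true⟩ : Dart s)
        = ed (ptt_at (a, true)) := eq_ed hn hf hp _
    rw [← h1]
    rfl

lemma rk_lt_pos {F : Φ} {w : W} (h : s.At F w) (r : ℝ) :
    rk s F (M.pos F w) < rk s F r ↔ M.pos F w < r := by
  constructor
  · intro h1
    by_contra h2
    exact absurd h1 (not_lt.2 (rk_mono s F (not_lt.1 h2)))
  · intro h1
    exact rk_lt s h le_rfl h1

open Classical in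
/-- (iv) **the boundary colour counts the end pieces below** -/
theorem gF_eq {F : Φ} (hu : EvD u F) (r : ℝ) :
    gF u F r = ∑ w ∈ s.P.filter (fun w => w ∈ M.On F ∧ M.pos F w < r), ue u F w := by
  unfold gF
  rw [(dg s F).G_eq hu.rc, ← Finset.sum_filter]
  apply Finset.sum_bij (fun t _ => ptt t)
  · intro t ht
    rw [Finset.mem_filter] at ht ⊢
    have hat := ptt_at t
    rw [pos_ptt] at ht
    exact ⟨hat.1, hat.2, (rk_lt_pos hat r).1 ht.2⟩
  · intro t _ t' _ h
    exact ptt_inj h
  · intro w hw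
    rw [Finset.mem_filter] at hw
    obtain ⟨t, ht⟩ := exists_ptt (F := F) (w := w) ⟨hw.1, hw.2.1⟩
    refine ⟨t, ?_, ht⟩
    rw [Finset.mem_filter, pos_ptt, ht]
    exact ⟨Finset.mem_univ _, (rk_lt_pos ⟨hw.1, hw.2.1⟩ r).2 hw.2.2⟩
  · intro t _
    exact val_ue t

/-- the colour is `0` before the first point of the face -/
theorem gF_bot {F : Φ} (hu : EvD u F) {r : ℝ} (h : ∀ w, s.At F w → r ≤ M.pos F w) :
    gF u F r = 0 := by
  classical
  rw [gF_eq hu]
  apply Finset.sum_eq_zero
  intro w hw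
  rw [Finset.mem_filter] at hw
  exact absurd hw.2.2 (not_lt.2 (h w ⟨hw.1, hw.2.1⟩))

/-- the colour is `0` after the last point of the face -/
theorem gF_top {F : Φ} {r : ℝ} (h : ∀ w, s.At F w → M.pos F w < r) :
    gF u F r = 0 := by
  unfold gF Dg.G Dg.S
  have h0 : ∀ y : Ch s F, ¬ ((dg s F).lo y < rk s F r ∧ rk s F r ≤ (dg s F).hi y) := by
    rintro y ⟨-, h2⟩
    have hat := At.mu s y.2.1
    exact absurd ((rk_lt_pos hat r).2 (h _ hat)) (not_lt.2 h2)
  simp [h0]

/-- the colour changes by `ue` at a point of the state -/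
theorem gF_step {F : Φ} (hu : EvD u F) {w : W} (hw : s.At F w) {r : ℝ}
    (h1 : M.pos F w < r) (h2 : ∀ w', s.At F w' → M.pos F w < M.pos F w' → r ≤ M.pos F w') :
    gF u F r = gF u F (M.pos F w) + ue u F w := by
  classical
  rw [gF_eq hu, gF_eq hu]
  have : s.P.filter (fun x => x ∈ M.On F ∧ M.pos F x < r)
      = insert w (s.P.filter (fun x => x ∈ M.On F ∧ M.pos F x < M.pos F w)) := by
    ext x
    simp only [Finset.mem_filter, Finset.mem_insert]
    constructor
    · rintro ⟨a, b, c⟩
      rcases lt_trichotomy (M.pos F x) (M.pos F w) with h | h | h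
      · right; exact ⟨a, b, h⟩
      · left; exact M.pos_inj F b hw.2 h
      · exact absurd c (not_lt.2 (h2 x ⟨a, b⟩ h))
    · rintro (rfl | ⟨a, b, c⟩)
      · exact ⟨hw.1, hw.2, h1⟩
      · exact ⟨a, b, c.trans h1⟩
  rw [this, Finset.sum_insert (by simp), add_comm]

/-- the colour is constant between points of the state -/
theorem gF_const {F : Φ} {r r' : ℝ} (hr : r ≤ r')
    (h : ∀ w, s.At F w → ¬ (r ≤ M.pos F w ∧ M.pos F w < r')) : gF u F r = gF u F r' := by
  classical
  have : rk s F r = rk s F r' := by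
    unfold rk
    congr 1
    ext x
    simp only [Finset.mem_filter]
    constructor
    · rintro ⟨a, b, c⟩
      exact ⟨a, b, lt_of_lt_of_le c hr⟩
    · rintro ⟨a, b, c⟩
      refine ⟨a, b, ?_⟩
      by_contra hcon
      exact h x ⟨a, b⟩ ⟨not_lt.1 hcon, c⟩
  unfold gF
  rw [this]

/-- **FACE-SIDE** (117 #8543 (A1)), bundled -/
theorem face_side (u : (c : Bool) → s.Sub c → ZMod 2) (F : Φ) (hu : EvD u F) :
    (∀ (c : Bool) (p : s.Sub c), (chd p).1 = F → sd u p false + sd u p true = u c p) ∧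
    (∀ z : s.Dbl, z.F = F → ∀ i j, sd u (qd z true j) i = sd u (qd z false i) j) ∧
    (∀ (c : Bool) (p : s.Sub c) (w : W), p.End F w →
      (M.pos F w < M.pos F (s.mu F w) → sd u p false = gF u F (M.pos F w) ∧
        sd u p true = gF u F (M.pos F w) + u c p) ∧
      (M.pos F (s.mu F w) < M.pos F w → sd u p true = gF u F (M.pos F w) ∧
        sd u p false = gF u F (M.pos F w) + u c p)) :=
  ⟨fun _ p hp => sd_add p (hp ▸ hu), fun z _ i j => sd_quad z i j,
    fun _ _ _ h => ⟨fun hl => ⟨sd_end_low h hl, sd_end_low' hu h hl⟩,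
      fun hl => ⟨sd_end_up h hl, sd_end_up' hu h hl⟩⟩⟩

end Crest.Agent.R096.Wk_689
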