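import Crest.Agent.R096.Ac8_117
import Crest.Agent.R096.Wk9_689

/-!
# R096 (row 96), (ARCS), part 9: `FaceSide` from 689's `face_side` (helper117)
-/

set_option autoImplicit false

namespace Crest.Agent.R096.Ac_117

open St_147 Wk_689 Fx_689

variable {ι Φ W I : Type} {M : MeshC ι Φ W} {col : I → Bool} {s : St M col}

lemma lowIn_abvIn (z : s.Dbl) (c : Bool) : lowIn z c = !abvIn z c := by
  classical
  have hX := cz_X z c
  have a1 : (dg s z.F).lo (cz z c) = rk s z.F (M.pos z.F (z.e c)) := rfl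
  have a2 : (dg s z.F).lo (cz z (!c)) = rk s z.F (M.pos z.F (z.e (!c))) := rfl
  have a3 : (dg s z.F).hi (cz z (!c)) = rk s z.F (M.pos z.F (s.mu z.F (z.e (!c)))) := rfl
  unfold lowIn abvIn
  rcases hX with ⟨h1, h2, h3⟩ | ⟨h1, h2, h3⟩
  · rw [a1, a2, rk_lt_iff s (z.at_ _)] at h1
    rw [decide_eq_true h1, decide_eq_false]
    · rfl
    · rintro (h | h)
      · exact lt_asymm h1 h.1
      · exact absurd (h.1.trans h.2) (not_lt.2 (z.low _).le)
  · rw [a1, a2, rk_lt_iff s (z.at_ _)] at h1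
    rw [a1, a3, rk_lt_iff s (z.at_ _)] at h2
    rw [decide_eq_false (not_lt.2 h1.le), decide_eq_true]
    · rfl
    · exact Or.inl ⟨h1, h2⟩

lemma dj_qd (z : s.Dbl) (c j : Bool) : dj z c j = ⟨c, qd z c j, (dj z c j).b⟩ := by
  unfold dj qd
  rw [lowIn_abvIn]
  cases hj : j <;> cases ha : abvIn z c <;> rfl

/-- **FACE-SIDE** (689) -/
theorem faceSide (s : St M col) : FaceSide s := by
  classical
  intro F u hu
  have hE : EvD u F := by
    intro z hz
    rw [← hu z hz]; ring
  obtain ⟨h1, h2, h3⟩ := face_side u F hE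
  refine ⟨fun x p i => sd u p i, h1, ?_, ?_⟩
  · intro z hz i j
    rw [dj_qd z true j, dj_qd z false i]
    exact h2 z hz i j
  · intro w h
    have hs : gF u F (M.pos F w) = sumB u F (M.pos F w) := by
      rw [gF_eq hE]
      unfold sumB
      rw [Finset.sum_filter]
      apply Finset.sum_congr rfl
      intro v hv
      by_cases hat : s.At F v
      · rw [dif_pos hat]
        by_cases hlt : M.pos F v < M.pos F w
        · rw [if_pos ⟨hat.2, hlt⟩, if_pos hlt, ue_ed hat]
          rfl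
        · rw [if_neg (fun h' => hlt h'.2), if_neg hlt]
      · rw [dif_neg hat, if_neg (fun h' => hat ⟨hv, h'.1⟩)]
    have hend : (ed h).p.End F w := Wk_689.end_ed h
    obtain ⟨g1, g2⟩ := h3 _ _ _ hend
    rw [ed_b h, ← hs]
    by_cases hlt : M.pos F (s.mu F w) < M.pos F w
    · rw [decide_eq_true hlt]
      exact (g2 hlt).1
    · rw [decide_eq_false hlt]
      refine (g1 ?_).1
      have hne : M.pos F w ≠ M.pos F (s.mu F w) :=
        pos_ne s h (At.mu s h) (fun h' => s.mu_ne h.1 h.2 h'.symm)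
      exact lt_of_le_of_ne (not_lt.1 hlt) hne

end Crest.Agent.R096.Ac_117
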