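import Crest.Agent.R096.Ea0_961

/-!
# Row 96 (S0127), helper481.  [E12] ACC0 (348 #11167): the accounting of `EA0 p`

The machine gives energies with respect to the *translated* cores `((Q c).tr (v c)).Kc`, `v c ∈ Tw`;
`EA0` wants them with respect to `Kor F A lam c`.  `K' \ Kor ⊆ N \ Kor`, `Kor \ K' ⊆ N' \ K'`.
-/

set_option autoImplicit false
set_option linter.style.longLine false
set_option linter.unusedSectionVars false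

open MeasureTheory Set Filter Topology Metric
open scoped ENNReal NNReal

namespace Crest.Agent.R096.Acc0_481

open Crest.Agent.R096.Bsp_628 Crest.Agent.R096.Msh_715 Crest.Agent.R096.Mal_874
open Crest.Agent.R096.Msh_810 (ps)
open Crest.Agent.R096.SkC1_961 (E3)
open Crest.Agent.R096.EaX_766 (cbx lin Kor)
open Crest.Agent.R096.Ea0_961

noncomputable section

/-! ### the sets -/

section Sets

variable (Q : CB E3 3) {k0 : ℕ} (hk : Q.kc ≤ k0) {v : E3}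

theorem mem_Kc {y : E3} : y ∈ Q.Kc ↔ ∀ l, (Q.S.lo l : ℝ) ≤ ps Q.a' Q.kc (Q.ψ y) l ∧
    ps Q.a' Q.kc (Q.ψ y) l ≤ Q.S.hi l := Iff.rfl

theorem Kc_sub_N : Q.Kc ⊆ Q.N := by
  intro y hy
  rw [mem_Kc] at hy
  rw [CB.mem_N]
  intro l
  have h := hy l
  have hw := Q.w_real
  have ht : (0:ℝ) < Q.S.t := by exact_mod_cast Q.S.t0
  constructor <;> linarith [h.1, h.2]

theorem ps_sub (y : E3) (l : Fin 3) :
    ps Q.a' Q.kc (Q.ψ (y - v)) l = ps Q.a' Q.kc (Q.ψ y) l - 2 ^ Q.kc * Q.ψ v l := by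
  unfold ps
  rw [map_sub]
  simp only [Pi.sub_apply]
  ring

include hk in
/-- the translation is at most a tenth of a cell -/
theorem tw_small (hv : v ∈ Tw Q k0) (l : Fin 3) :
    0 ≤ 2 ^ Q.kc * Q.ψ v l ∧ 2 ^ Q.kc * Q.ψ v l ≤ 1 / 10 := by
  obtain ⟨h1, h2⟩ := hv l
  have h3 : (0:ℝ) < 2 ^ Q.kc := by positivity
  have h4 : (2:ℝ) ^ Q.kc ≤ 2 ^ k0 := pow_le_pow_right₀ (by norm_num) hk
  refine ⟨by positivity, ?_⟩
  calc 2 ^ Q.kc * Q.ψ v l ≤ 2 ^ Q.kc * (1 / (10 * 2 ^ k0)) := mul_le_mul_of_nonneg_left h2 h3.le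
    _ = (1 / 10) * (2 ^ Q.kc / 2 ^ k0) := by field_simp
    _ ≤ (1 / 10) * 1 := by
        refine mul_le_mul_of_nonneg_left ?_ (by norm_num)
        rw [div_le_one (by positivity)]
        exact h4
    _ = 1 / 10 := by ring

include hk in
/-- the translated core is in the block -/
theorem Kc_tr_sub (hv : v ∈ Tw Q k0) : (Q.tr v).Kc ⊆ Q.N := by
  intro y hy
  rw [CB.mem_Kc_tr, mem_Kc] at hy
  rw [CB.mem_N]
  intro l
  have h := hy l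
  rw [ps_sub] at h
  have h2 := tw_small Q hk hv l
  have hw := Q.w_real
  have ht : (0:ℝ) < Q.S.t := by exact_mod_cast Q.S.t0
  constructor <;> linarith [h.1, h.2, h2.1, h2.2]

include hk in
/-- the core is in the translated block -/
theorem Kc_sub_tr (hv : v ∈ Tw Q k0) : Q.Kc ⊆ (Q.tr v).N := by
  intro y hy
  rw [mem_Kc] at hy
  rw [CB.mem_N_tr, CB.mem_N]
  intro l
  have h := hy l
  rw [ps_sub]
  have h2 := tw_small Q hk hv l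
  have hw := Q.w_real
  have ht : (0:ℝ) < Q.S.t := by exact_mod_cast Q.S.t0
  constructor <;> linarith [h.1, h.2, h2.1, h2.2]

theorem isClosed_Kc : IsClosed Q.Kc := by
  have h := ((Q.T Q.kc le_rfl).cpt (Q.cix Q.kc le_rfl)).isClosed
  rwa [Q.P_core] at h

theorem volume_Kc_ne : volume Q.Kc ≠ ∞ :=
  ((measure_mono (Kc_sub_N Q)).trans_lt Q.isCompact_N.measure_lt_top).ne

theorem Kc_tr_eq (v : E3) : (Q.tr v).Kc = (fun y => y + -v) ⁻¹' Q.Kc := by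
  ext y
  rw [CB.mem_Kc_tr, mem_preimage, sub_eq_add_neg]

theorem volume_Kc_tr (v : E3) : volume (Q.tr v).Kc = volume Q.Kc := by
  rw [Kc_tr_eq, measure_preimage_add_right]

include hk in
/-- **the two slivers have the same volume, at most the volume of the collar** -/
theorem volume_sliver (hv : v ∈ Tw Q k0) :
    volume ((Q.tr v).Kc \ Q.Kc) ≤ volume (Q.N \ Q.Kc) ∧
      volume (Q.Kc \ (Q.tr v).Kc) ≤ volume (Q.N \ Q.Kc) := by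
  have h1 : volume ((Q.tr v).Kc \ Q.Kc) ≤ volume (Q.N \ Q.Kc) :=
    measure_mono (sdiff_subset_sdiff_left (Kc_tr_sub Q hk hv))
  refine ⟨h1, le_trans (le_of_eq ?_) h1⟩
  have hm : MeasurableSet Q.Kc := (isClosed_Kc Q).measurableSet
  have hm' : MeasurableSet (Q.tr v).Kc := (isClosed_Kc (Q.tr v)).measurableSet
  have e1 := measure_sdiff_add_inter (μ := volume) (s := Q.Kc) hm'
  have e2 := measure_sdiff_add_inter (μ := volume) (s := (Q.tr v).Kc) hm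
  rw [inter_comm, volume_Kc_tr, ← e1] at e2
  have hfin : volume (Q.Kc ∩ (Q.tr v).Kc) ≠ ∞ :=
    ((measure_mono inter_subset_left).trans_lt (volume_Kc_ne Q).lt_top).ne
  exact ((ENNReal.add_left_inj hfin).1 e2).symm

end Sets

/-! ### the triangle inequality -/

section Tri

variable {G : Type*} [NormedAddCommGroup G] {p : ℝ} (hp : 1 ≤ p) (h : E3 → G) (L : G) (S : Set E3)
include hp

theorem int_add_le :
    ∫⁻ x in S, ‖h x‖ₑ ^ p ≤ 2 ^ (p - 1) * ((∫⁻ x in S, ‖h x - L‖ₑ ^ p) + ‖L‖ₑ ^ p * volume S) := by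
  calc ∫⁻ x in S, ‖h x‖ₑ ^ p
      ≤ ∫⁻ x in S, 2 ^ (p - 1) * (‖h x - L‖ₑ ^ p + ‖L‖ₑ ^ p) := by
        refine lintegral_mono fun x => ?_
        have h1 : ‖h x‖ₑ ≤ ‖h x - L‖ₑ + ‖L‖ₑ := by
          have := enorm_add_le (h x - L) L
          rwa [sub_add_cancel] at this
        exact (ENNReal.rpow_le_rpow h1 (by linarith)).trans
          (ENNReal.rpow_add_le_mul_rpow_add_rpow _ _ hp)
    _ = 2 ^ (p - 1) * ∫⁻ x in S, (‖h x - L‖ₑ ^ p + ‖L‖ₑ ^ p) :=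
        lintegral_const_mul' _ _ (ENNReal.rpow_ne_top_of_nonneg (by linarith) (by norm_num))
    _ = _ := by
        rw [lintegral_add_right _ measurable_const, setLIntegral_const]

theorem int_sub_le :
    ∫⁻ x in S, ‖h x - L‖ₑ ^ p ≤ 2 ^ (p - 1) * ((∫⁻ x in S, ‖h x‖ₑ ^ p) + ‖L‖ₑ ^ p * volume S) := by
  calc ∫⁻ x in S, ‖h x - L‖ₑ ^ p
      ≤ ∫⁻ x in S, 2 ^ (p - 1) * (‖h x‖ₑ ^ p + ‖L‖ₑ ^ p) := by
        refine lintegral_mono fun x => ?_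
        exact (ENNReal.rpow_le_rpow (enorm_sub_le (a := h x) (b := L)) (by linarith)).trans
          (ENNReal.rpow_add_le_mul_rpow_add_rpow _ _ hp)
    _ = 2 ^ (p - 1) * ∫⁻ x in S, (‖h x‖ₑ ^ p + ‖L‖ₑ ^ p) :=
        lintegral_const_mul' _ _ (ENNReal.rpow_ne_top_of_nonneg (by linarith) (by norm_num))
    _ = _ := by
        rw [lintegral_add_right _ measurable_const, setLIntegral_const]

end Tri

/-- the exact derivative -/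
theorem enorm_exact {p c0 lam : ℝ} (hp : 1 ≤ p) (hc0 : 0 < c0) (hlam : c0 ≤ lam)
    (B : E3 →L[ℝ] E3) : ‖lam⁻¹ • B‖ₑ ^ p ≤ ENNReal.ofReal c0⁻¹ ^ p * ‖B‖ₑ ^ p := by
  rw [enorm_smul, ENNReal.mul_rpow_of_nonneg _ _ (by linarith : (0:ℝ) ≤ p)]
  refine mul_le_mul' (ENNReal.rpow_le_rpow ?_ (by linarith)) le_rfl
  rw [Real.enorm_eq_ofReal (by have := hc0.trans_le hlam; positivity)]
  refine ENNReal.ofReal_le_ofReal ?_
  exact inv_anti₀ hc0 hlam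

/-- `Res.core` / `Fin1.core` in the form of `ACC0` (b) -/
theorem core_b {p c0 lam E : ℝ} (hp : 1 ≤ p) (hc0 : 0 < c0) (hlam : c0 ≤ lam) (hE : 0 ≤ E)
    {h : E3 → E3 →L[ℝ] E3} {B : E3 →L[ℝ] E3} {S : Set E3}
    (H : ∫⁻ x in S, ‖h x - (1 / lam) • B‖ₑ ^ p ≤ ENNReal.ofReal (E * (‖B‖ / lam) ^ p) * volume S) :
    ∫⁻ x in S, ‖h x - lam⁻¹ • B‖ₑ ^ p ≤
      ENNReal.ofReal (E * c0⁻¹ ^ p) * (‖B‖ₑ ^ p * volume S) := by
  rw [one_div] at H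
  refine H.trans ?_
  rw [← mul_assoc]
  refine mul_le_mul' ?_ le_rfl
  have hp0 : (0:ℝ) ≤ p := by linarith
  have hl : 0 < lam := hc0.trans_le hlam
  have h1 : ‖B‖ₑ ^ p = ENNReal.ofReal (‖B‖ ^ p) := by
    rw [← ofReal_norm, ENNReal.ofReal_rpow_of_nonneg (norm_nonneg _) hp0]
  rw [h1, ← ENNReal.ofReal_mul (by positivity)]
  refine ENNReal.ofReal_le_ofReal ?_
  rw [div_eq_mul_inv, Real.mul_rpow (norm_nonneg _) (by positivity), mul_assoc]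
  refine mul_le_mul_of_nonneg_left ?_ hE
  rw [mul_comm]
  refine mul_le_mul_of_nonneg_right ?_ (by positivity)
  exact Real.rpow_le_rpow (by positivity) (inv_anti₀ hc0 hlam) hp0

/-! ### the constants -/

theorem two_rpow_ne (p : ℝ) (hp : 1 ≤ p) : (2:ℝ≥0∞) ^ (p - 1) ≠ ∞ :=
  ENNReal.rpow_ne_top_of_nonneg (by linarith) (by norm_num)

/-- `C`, from `C1`, `c0`, `p` -/
theorem exists_C {p : ℝ} (hp : 1 ≤ p) (c0 : ℝ) (C1 : ℝ≥0) : ∃ C : ℝ≥0, 0 < C ∧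
    (C1:ℝ≥0∞) + 2 ^ (p - 1) * (C1 + ENNReal.ofReal c0⁻¹ ^ p) ≤ C := by
  have h : (C1:ℝ≥0∞) + 2 ^ (p - 1) * (C1 + ENNReal.ofReal c0⁻¹ ^ p) ≠ ∞ :=
    ENNReal.add_ne_top.2 ⟨ENNReal.coe_ne_top, ENNReal.mul_ne_top (two_rpow_ne p hp)
      (ENNReal.add_ne_top.2 ⟨ENNReal.coe_ne_top,
        ENNReal.rpow_ne_top_of_nonneg (by linarith) ENNReal.ofReal_ne_top⟩)⟩
  refine ⟨((C1:ℝ≥0∞) + 2 ^ (p - 1) * (C1 + ENNReal.ofReal c0⁻¹ ^ p)).toNNReal + 1, by positivity, ?_⟩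
  rw [ENNReal.coe_add, ENNReal.coe_toNNReal h]
  exact le_self_add

/-- `CA`, from `CA1`, `p` -/
theorem exists_CA {p : ℝ} (hp : 1 ≤ p) (CA1 : ℝ≥0) : ∃ CA : ℝ≥0, 0 < CA ∧
    (CA1:ℝ≥0∞) + 2 ^ (p - 1) * CA1 ≤ CA := by
  have h : (CA1:ℝ≥0∞) + 2 ^ (p - 1) * CA1 ≠ ∞ :=
    ENNReal.add_ne_top.2 ⟨ENNReal.coe_ne_top, ENNReal.mul_ne_top (two_rpow_ne p hp) ENNReal.coe_ne_top⟩
  refine ⟨((CA1:ℝ≥0∞) + 2 ^ (p - 1) * CA1).toNNReal + 1, by positivity, ?_⟩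
  rw [ENNReal.coe_add, ENNReal.coe_toNNReal h]
  exact le_self_add

/-- `e1`, from `e`, `p` -/
theorem exists_e1 {p e : ℝ} (hp : 1 ≤ p) (he : 0 < e) : ∃ e1 : ℝ, 0 < e1 ∧ e1 ≤ e ∧
    ENNReal.ofReal e1 + 2 ^ (p - 1) * ENNReal.ofReal e1 ≤ ENNReal.ofReal e := by
  have h2 : (0:ℝ) < 2 ^ (p - 1) := by positivity
  have h1 : 0 < e / (1 + 2 ^ (p - 1)) := by positivity
  refine ⟨e / (1 + 2 ^ (p - 1)), h1, ?_, ?_⟩
  · rw [div_le_iff₀ (by positivity)]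
    nlinarith
  · have h3 : (2:ℝ≥0∞) ^ (p - 1) = ENNReal.ofReal (2 ^ (p - 1)) := by
      rw [← ENNReal.ofReal_rpow_of_pos (by norm_num), ENNReal.ofReal_ofNat]
    rw [h3, ← ENNReal.ofReal_mul h2.le, ← ENNReal.ofReal_add h1.le (by positivity)]
    refine ENNReal.ofReal_le_ofReal (le_of_eq ?_)
    field_simp

/-! ### ACC0 -/

section Acc

variable {p c0 : ℝ} {C1 CA1 e1 C CA e e' : ℝ≥0∞} {Om : Set E3} {h D : E3 → E3 →L[ℝ] E3}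
  {F : Set (Bx (Fin 3))} {X : Set F} {A : F → E3 ≃ᵃ[ℝ] E3} {lam : F → ℝ} {Q : F → CB E3 3}
  {k0 : F → ℕ} {v : F → E3} {er : F → ℝ≥0∞}

/-- one core: the sliver of the translated core outside the core -/
theorem sliver_out (hp : 1 ≤ p) (hc0 : 0 < c0) {c : F} (hk : (Q c).kc ≤ k0 c)
    (hlam : c0 ≤ lam c) (hK : Kor F A lam c = (Q c).Kc) (hv : v c ∈ Tw (Q c) (k0 c))
    (hb : ∫⁻ x in ((Q c).tr (v c)).Kc, ‖h x - (lam c)⁻¹ • lin (A c)‖ₑ ^ p ≤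
      e1 * (‖lin (A c)‖ₑ ^ p * volume ((Q c).tr (v c)).Kc)) :
    ∫⁻ x in ((Q c).tr (v c)).Kc \ Kor F A lam c, ‖h x‖ₑ ^ p ≤
      2 ^ (p - 1) * ENNReal.ofReal c0⁻¹ ^ p *
        ((1 + ‖lin (A c)‖ₑ ^ p) * volume ((Q c).N \ Kor F A lam c)) +
      2 ^ (p - 1) * e1 * (‖lin (A c)‖ₑ ^ p * volume (Kor F A lam c)) := by
  rw [hK]
  refine (int_add_le hp h ((lam c)⁻¹ • lin (A c)) _).trans ?_
  have h1 : ∫⁻ x in ((Q c).tr (v c)).Kc \ (Q c).Kc, ‖h x - (lam c)⁻¹ • lin (A c)‖ₑ ^ p ≤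
      e1 * (‖lin (A c)‖ₑ ^ p * volume (Q c).Kc) := by
    refine (lintegral_mono_set sdiff_subset).trans (hb.trans (le_of_eq ?_))
    rw [volume_Kc_tr]
  have h2 : ‖(lam c)⁻¹ • lin (A c)‖ₑ ^ p * volume (((Q c).tr (v c)).Kc \ (Q c).Kc) ≤
      ENNReal.ofReal c0⁻¹ ^ p * ((1 + ‖lin (A c)‖ₑ ^ p) * volume ((Q c).N \ (Q c).Kc)) := by
    rw [← mul_assoc]
    refine mul_le_mul' ((enorm_exact hp hc0 hlam _).trans ?_) (volume_sliver _ hk hv).1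
    exact mul_le_mul' le_rfl le_add_self
  calc 2 ^ (p - 1) * ((∫⁻ x in ((Q c).tr (v c)).Kc \ (Q c).Kc, ‖h x - (lam c)⁻¹ • lin (A c)‖ₑ ^ p) +
        ‖(lam c)⁻¹ • lin (A c)‖ₑ ^ p * volume (((Q c).tr (v c)).Kc \ (Q c).Kc))
      ≤ 2 ^ (p - 1) * (e1 * (‖lin (A c)‖ₑ ^ p * volume (Q c).Kc) +
        ENNReal.ofReal c0⁻¹ ^ p * ((1 + ‖lin (A c)‖ₑ ^ p) * volume ((Q c).N \ (Q c).Kc))) :=
        mul_le_mul' le_rfl (add_le_add h1 h2)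
    _ = _ := by ring

/-- **[E12] core clause** -/
theorem acc0_core (hp : 1 ≤ p) (hc0 : 0 < c0) {c : F} (hk : (Q c).kc ≤ k0 c)
    (hlam : c0 ≤ lam c) (hK : Kor F A lam c = (Q c).Kc) (hv : v c ∈ Tw (Q c) (k0 c))
    (hC : C1 + 2 ^ (p - 1) * (C1 + ENNReal.ofReal c0⁻¹ ^ p) ≤ C)
    (hCA : CA1 + 2 ^ (p - 1) * CA1 ≤ CA) (he : e1 + 2 ^ (p - 1) * e1 ≤ e)
    (hb : ∫⁻ x in ((Q c).tr (v c)).Kc, ‖h x - (lam c)⁻¹ • lin (A c)‖ₑ ^ p ≤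
      e1 * (‖lin (A c)‖ₑ ^ p * volume ((Q c).tr (v c)).Kc))
    (hc : ∫⁻ x in ((Q c).tr (v c)).N \ ((Q c).tr (v c)).Kc, ‖h x‖ₑ ^ p ≤
      C1 * ((1 + ‖lin (A c)‖ₑ ^ p) * volume ((Q c).N \ Kor F A lam c)) + C1 * er c +
      CA1 * (∫⁻ x in Ly (Q c) (k0 c), (1 + ‖D x‖ₑ ^ p)) +
      e1 * (‖lin (A c)‖ₑ ^ p * volume (Kor F A lam c))) :
    ∫⁻ x in Kor F A lam c, ‖h x - (lam c)⁻¹ • lin (A c)‖ₑ ^ p ≤
      e * (‖lin (A c)‖ₑ ^ p * volume (Kor F A lam c)) +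
      C * ((1 + ‖lin (A c)‖ₑ ^ p) * volume ((Q c).N \ Kor F A lam c)) + C * er c +
      CA * (∫⁻ x in Ly (Q c) (k0 c), (1 + ‖D x‖ₑ ^ p)) := by
  have hcov : Kor F A lam c ⊆ ((Q c).tr (v c)).Kc ∪ ((Q c).Kc \ ((Q c).tr (v c)).Kc) := by
    rw [hK]
    intro x hx
    by_cases hx' : x ∈ ((Q c).tr (v c)).Kc
    · exact Or.inl hx'
    · exact Or.inr ⟨hx, hx'⟩
  have h1 : ∫⁻ x in (Q c).Kc \ ((Q c).tr (v c)).Kc, ‖h x - (lam c)⁻¹ • lin (A c)‖ₑ ^ p ≤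
      2 ^ (p - 1) * ((C1 * ((1 + ‖lin (A c)‖ₑ ^ p) * volume ((Q c).N \ Kor F A lam c)) + C1 * er c +
        CA1 * (∫⁻ x in Ly (Q c) (k0 c), (1 + ‖D x‖ₑ ^ p)) +
        e1 * (‖lin (A c)‖ₑ ^ p * volume (Kor F A lam c))) +
        ENNReal.ofReal c0⁻¹ ^ p *
          ((1 + ‖lin (A c)‖ₑ ^ p) * volume ((Q c).N \ Kor F A lam c))) := by
    refine (int_sub_le hp h ((lam c)⁻¹ • lin (A c)) _).trans ?_
    refine mul_le_mul' le_rfl (add_le_add ?_ ?_)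
    · exact (lintegral_mono_set (sdiff_subset_sdiff_left (Kc_sub_tr _ hk hv))).trans hc
    · rw [← mul_assoc, hK]
      refine mul_le_mul' ((enorm_exact hp hc0 hlam _).trans ?_) (volume_sliver _ hk hv).2
      exact mul_le_mul' le_rfl le_add_self
  have h0 : ∫⁻ x in ((Q c).tr (v c)).Kc, ‖h x - (lam c)⁻¹ • lin (A c)‖ₑ ^ p ≤
      e1 * (‖lin (A c)‖ₑ ^ p * volume (Kor F A lam c)) := by
    refine hb.trans (le_of_eq ?_)
    rw [volume_Kc_tr, hK]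
  set V := (1 + ‖lin (A c)‖ₑ ^ p) * volume ((Q c).N \ Kor F A lam c) with hV
  set W := ‖lin (A c)‖ₑ ^ p * volume (Kor F A lam c) with hW
  set Y := ∫⁻ x in Ly (Q c) (k0 c), (1 + ‖D x‖ₑ ^ p) with hY
  calc ∫⁻ x in Kor F A lam c, ‖h x - (lam c)⁻¹ • lin (A c)‖ₑ ^ p
      ≤ (∫⁻ x in ((Q c).tr (v c)).Kc, ‖h x - (lam c)⁻¹ • lin (A c)‖ₑ ^ p) +
        ∫⁻ x in (Q c).Kc \ ((Q c).tr (v c)).Kc, ‖h x - (lam c)⁻¹ • lin (A c)‖ₑ ^ p :=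
        (lintegral_mono_set hcov).trans (lintegral_union_le _ _ _)
    _ ≤ e1 * W + 2 ^ (p - 1) * ((C1 * V + C1 * er c + CA1 * Y + e1 * W) +
          ENNReal.ofReal c0⁻¹ ^ p * V) := add_le_add h0 h1
    _ = (e1 + 2 ^ (p - 1) * e1) * W + 2 ^ (p - 1) * (C1 + ENNReal.ofReal c0⁻¹ ^ p) * V +
          2 ^ (p - 1) * C1 * er c + 2 ^ (p - 1) * CA1 * Y := by ring
    _ ≤ e * W + C * V + C * er c + CA * Y := by
        refine add_le_add (add_le_add (add_le_add (mul_le_mul' he le_rfl) ?_) ?_) ?_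
        · exact mul_le_mul' (le_add_self.trans hC) le_rfl
        · exact mul_le_mul' ((mul_le_mul' le_rfl le_self_add).trans (le_add_self.trans hC)) le_rfl
        · exact mul_le_mul' (le_add_self.trans hCA) le_rfl

/-- **[E12] energy off the cores** -/
theorem acc0_out (hF : F.Countable) (hp : 1 ≤ p) (hc0 : 0 < c0)
    (hk : ∀ c ∈ X, (Q c).kc ≤ k0 c) (hlam : ∀ c ∈ X, c0 ≤ lam c)
    (hK : ∀ c ∈ X, Kor F A lam c = (Q c).Kc) (hv : ∀ c ∈ X, v c ∈ Tw (Q c) (k0 c))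
    (hC : C1 + 2 ^ (p - 1) * (C1 + ENNReal.ofReal c0⁻¹ ^ p) ≤ C)
    (hCA : CA1 ≤ CA) (he : e1 + 2 ^ (p - 1) * e1 ≤ e)
    (hb : ∀ c ∈ X, ∫⁻ x in ((Q c).tr (v c)).Kc, ‖h x - (lam c)⁻¹ • lin (A c)‖ₑ ^ p ≤
      e1 * (‖lin (A c)‖ₑ ^ p * volume ((Q c).tr (v c)).Kc))
    (ha : ∫⁻ x in Om \ ⋃ c ∈ X, ((Q c).tr (v c)).Kc, ‖h x‖ₑ ^ p ≤
      C1 * (∫⁻ x in Om \ ⋃ c ∈ X, (Q c).N, (1 + ‖D x‖ₑ ^ p)) +
      C1 * (∑' c : X, (1 + ‖lin (A c)‖ₑ ^ p) * volume ((Q c).N \ Kor F A lam c)) +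
      CA1 * (∑' c : X, ∫⁻ x in Ly (Q c) (k0 c), (1 + ‖D x‖ₑ ^ p)) +
      C1 * (∑' c : X, er c) +
      e1 * (∑' c : X, (1 + ‖lin (A c)‖ₑ ^ p) * volume (Kor F A lam c)) + e') :
    ∫⁻ x in Om \ ⋃ c ∈ X, Kor F A lam c, ‖h x‖ₑ ^ p ≤
      C * (∫⁻ x in Om \ ⋃ c ∈ X, (Q c).N, (1 + ‖D x‖ₑ ^ p)) +
      C * (∑' c : X, (1 + ‖lin (A c)‖ₑ ^ p) * volume ((Q c).N \ Kor F A lam c)) +
      CA * (∑' c : X, ∫⁻ x in Ly (Q c) (k0 c), (1 + ‖D x‖ₑ ^ p)) +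
      C * (∑' c : X, er c) +
      e * (∑' c : X, (1 + ‖lin (A c)‖ₑ ^ p) * volume (Kor F A lam c)) + e' := by
  have : Countable F := hF.to_subtype
  have hcov : Om \ ⋃ c ∈ X, Kor F A lam c ⊆ (Om \ ⋃ c ∈ X, ((Q c).tr (v c)).Kc) ∪
      ⋃ c : X, ((Q c).tr (v c)).Kc \ Kor F A lam c := by
    rintro x ⟨hx, hx'⟩
    by_cases h1 : x ∈ ⋃ c ∈ X, ((Q c).tr (v c)).Kc
    · obtain ⟨c, hc, hxc⟩ := mem_iUnion₂.1 h1
      refine Or.inr (mem_iUnion.2 ⟨⟨c, hc⟩, hxc, fun h2 => hx' (mem_iUnion₂.2 ⟨c, hc, h2⟩)⟩)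
    · exact Or.inl ⟨hx, h1⟩
  have h2 : ∑' c : X, (∫⁻ x in ((Q c).tr (v c)).Kc \ Kor F A lam c, ‖h x‖ₑ ^ p) ≤
      2 ^ (p - 1) * ENNReal.ofReal c0⁻¹ ^ p *
        (∑' c : X, (1 + ‖lin (A c)‖ₑ ^ p) * volume ((Q c).N \ Kor F A lam c)) +
      2 ^ (p - 1) * e1 * (∑' c : X, (1 + ‖lin (A c)‖ₑ ^ p) * volume (Kor F A lam c)) := by
    rw [← ENNReal.tsum_mul_left, ← ENNReal.tsum_mul_left, ← ENNReal.tsum_add]
    refine ENNReal.tsum_le_tsum fun c => ?_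
    refine (sliver_out hp hc0 (hk c c.2) (hlam c c.2) (hK c c.2) (hv c c.2) (hb c c.2)).trans ?_
    refine add_le_add le_rfl (mul_le_mul' le_rfl (mul_le_mul' le_add_self le_rfl))
  set I := ∫⁻ x in Om \ ⋃ c ∈ X, (Q c).N, (1 + ‖D x‖ₑ ^ p) with hI
  set V := ∑' c : X, (1 + ‖lin (A c)‖ₑ ^ p) * volume ((Q c).N \ Kor F A lam c) with hV
  set W := ∑' c : X, (1 + ‖lin (A c)‖ₑ ^ p) * volume (Kor F A lam c) with hW
  set Y := ∑' c : X, ∫⁻ x in Ly (Q c) (k0 c), (1 + ‖D x‖ₑ ^ p) with hY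
  set R := ∑' c : X, er c with hR
  calc ∫⁻ x in Om \ ⋃ c ∈ X, Kor F A lam c, ‖h x‖ₑ ^ p
      ≤ (∫⁻ x in Om \ ⋃ c ∈ X, ((Q c).tr (v c)).Kc, ‖h x‖ₑ ^ p) +
        ∫⁻ x in ⋃ c : X, ((Q c).tr (v c)).Kc \ Kor F A lam c, ‖h x‖ₑ ^ p :=
        (lintegral_mono_set hcov).trans (lintegral_union_le _ _ _)
    _ ≤ (C1 * I + C1 * V + CA1 * Y + C1 * R + e1 * W + e') +
        (2 ^ (p - 1) * ENNReal.ofReal c0⁻¹ ^ p * V + 2 ^ (p - 1) * e1 * W) :=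
        add_le_add ha ((lintegral_iUnion_le _ _).trans h2)
    _ = C1 * I + (C1 + 2 ^ (p - 1) * ENNReal.ofReal c0⁻¹ ^ p) * V + CA1 * Y + C1 * R +
        (e1 + 2 ^ (p - 1) * e1) * W + e' := by ring
    _ ≤ C * I + C * V + CA * Y + C * R + e * W + e' := by
        have hC1 : C1 ≤ C := le_self_add.trans hC
        refine add_le_add (add_le_add (add_le_add (add_le_add (add_le_add ?_ ?_) ?_) ?_) ?_) le_rfl
        · exact mul_le_mul' hC1 le_rfl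
        · refine mul_le_mul' (le_trans ?_ hC) le_rfl
          exact add_le_add le_rfl (mul_le_mul' le_rfl le_add_self)
        · exact mul_le_mul' hCA le_rfl
        · exact mul_le_mul' hC1 le_rfl
        · exact mul_le_mul' he le_rfl

end Acc

end

end Crest.Agent.R096.Acc0_481
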