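import Crest.Agent.R096.Exa3_365

/-!
Row 96 (S0127), helper365.  **EA-ACC**, part 1: the accounting at one exact core: mass of the affine
map, volume of the shifted core, the derivative over the original core.
-/

set_option autoImplicit false
set_option linter.style.longLine false
set_option linter.unusedSectionVars false

open MeasureTheory Set Filter Topology Metric
open scoped ENNReal NNReal

namespace Crest.Agent.R096.Acc_365

open Crest.AnalysisR.VecCalc3 Crest.AnalysisR.Sobolev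
open Crest.Agent.R096.SkC1_961 (E3 Hom3)
open Crest.Agent.R096.Er_594 (SH3)
open Crest.Agent.R096.Bsp_628 Crest.Agent.R096.Brk5_582
open Crest.Agent.R096.Bxs_627 (ctr)
open Crest.Agent.R096.EaX_766 (lin cbx ExIn Kor)
open Crest.Agent.R096.Exa_365

noncomputable section

variable {p : ℝ} {Om La : Set E3} {f : E3 → E3} {D : E3 → E3 →L[ℝ] E3} {A : E3 ≃ᵃ[ℝ] E3}

/-- the core of one brick -/
def K1 (A : E3 ≃ᵃ[ℝ] E3) (Q : Bx (Fin 3)) (lam : ℝ) : Set E3 := A ⁻¹' cbx Q lam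

/-- the shifted core -/
def K2 (A : E3 ≃ᵃ[ℝ] E3) (Q : Bx (Fin 3)) (lam : ℝ) (v : E3) : Set E3 := {x | x - v ∈ K1 A Q lam}

theorem measurableSet_cbx (Q : Bx (Fin 3)) (lam : ℝ) : MeasurableSet (cbx Q lam) :=
  (isClosed_cbx Q lam).measurableSet

theorem measurableSet_K1 (A : E3 ≃ᵃ[ℝ] E3) (Q : Bx (Fin 3)) (lam : ℝ) :
    MeasurableSet (K1 A Q lam) :=
  ((isClosed_cbx Q lam).preimage (continuous_aff A)).measurableSet

theorem measurableSet_K2 (A : E3 ≃ᵃ[ℝ] E3) (Q : Bx (Fin 3)) (lam : ℝ) (v : E3) :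
    MeasurableSet (K2 A Q lam v) := by
  have h : Continuous fun x : E3 => x - v := by fun_prop
  exact h.measurable (measurableSet_K1 A Q lam)

theorem volume_preimage_aff (A : E3 ≃ᵃ[ℝ] E3) (s : Set E3) :
    volume (A ⁻¹' s) = ENNReal.ofReal |(lin A).det|⁻¹ * volume s := by
  have h1 : A ⁻¹' s = lin A ⁻¹' ((fun y => y + A 0) ⁻¹' s) := by
    ext x
    simp only [mem_preimage]
    have h2 := aff_add A 0 x
    rw [zero_add] at h2
    rw [h2, add_comm]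
  rw [h1]
  have h2 := Measure.addHaar_preimage_continuousLinearMap (volume : Measure E3) (f := lin A)
    (det_lin_ne A) ((fun y => y + A 0) ⁻¹' s)
  rw [h2, measure_preimage_add_right]
  congr 1
  rw [abs_inv]

theorem volume_cbx {Q : Bx (Fin 3)} (hQ : Q.Pos) {lam : ℝ} (hl : 0 ≤ lam) :
    volume (cbx Q lam) = ENNReal.ofReal (∏ k, (lam * Q.side k)) := by
  have h1 : cbx Q lam = Icc (fun k => ctr Q k - lam * Q.side k / 2) (fun k => ctr Q k + lam * Q.side k / 2) := by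
    ext y
    simp only [cbx, mem_Icc, Pi.le_def, abs_le]
    constructor
    · intro h
      exact ⟨fun k => by linarith [(h k).1], fun k => by linarith [(h k).2]⟩
    · intro h k
      exact ⟨by linarith [h.1 k], by linarith [h.2 k]⟩
  rw [h1, Real.volume_Icc_pi, ENNReal.ofReal_prod_of_nonneg]
  · refine Finset.prod_congr rfl fun k _ => ?_
    congr 1
    ring
  · intro k _
    exact mul_nonneg hl (Bx.side_pos hQ k).le

theorem volume_K1 {Q : Bx (Fin 3)} (hQ : Q.Pos) {lam : ℝ} (hl : 0 ≤ lam) :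
    volume (K1 A Q lam) = ENNReal.ofReal (|(lin A).det|⁻¹ * ∏ k, (lam * Q.side k)) := by
  unfold K1
  rw [volume_preimage_aff, volume_cbx hQ hl, ENNReal.ofReal_mul (by positivity)]

theorem volume_K1_ne_top {Q : Bx (Fin 3)} (hQ : Q.Pos) {lam : ℝ} (hl : 0 ≤ lam) :
    volume (K1 A Q lam) ≠ ∞ := by rw [volume_K1 hQ hl]; exact ENNReal.ofReal_ne_top

theorem volume_K2 {Q : Bx (Fin 3)} {lam : ℝ} (v : E3) :
    volume (K2 A Q lam v) = volume (K1 A Q lam) := by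
  have h1 : K2 A Q lam v = (fun x => x + (-v)) ⁻¹' (K1 A Q lam) := by
    ext x
    simp only [K2, mem_preimage, ← sub_eq_add_neg]
    rfl
  rw [h1, measure_preimage_add_right]

/-- aspect ratio: `(lam sz)^3 / |det A| ≤ κ0^3 vol K` -/
theorem cube_le_vol {Q : Bx (Fin 3)} (hQ : Q.Pos) {lam κ0 : ℝ} (hl : 0 ≤ lam)
    (hκ : ∀ k, Q.sz ≤ κ0 * Q.side k) (hsz : 0 ≤ Q.sz) :
    ENNReal.ofReal (|(lin A).det|⁻¹ * (lam * Q.sz) ^ 3) ≤ ENNReal.ofReal (κ0 ^ 3) * volume (K1 A Q lam) := by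
  rw [volume_K1 hQ hl]
  have h0 : 0 ≤ κ0 := by
    by_contra h
    push Not at h
    have h1 := hκ 0
    have h2 := Bx.side_pos hQ 0
    have h3 : κ0 * Q.side 0 < 0 := mul_neg_of_neg_of_pos h h2
    linarith
  rw [← ENNReal.ofReal_mul (by positivity)]
  apply ENNReal.ofReal_le_ofReal
  have hd : 0 ≤ |(lin A).det|⁻¹ := by positivity
  have h1 : (lam * Q.sz) ^ 3 ≤ κ0 ^ 3 * ∏ k, (lam * Q.side k) := by
    rw [Fin.prod_univ_three]
    have s0 : 0 ≤ lam * Q.sz := mul_nonneg hl hsz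
    have t : ∀ k, lam * Q.sz ≤ κ0 * (lam * Q.side k) := fun k => by
      have := mul_le_mul_of_nonneg_left (hκ k) hl
      linarith
    calc (lam * Q.sz) ^ 3 = (lam * Q.sz) * (lam * Q.sz) * (lam * Q.sz) := by ring
      _ ≤ (κ0 * (lam * Q.side 0)) * (κ0 * (lam * Q.side 1)) * (κ0 * (lam * Q.side 2)) := by
          have u0 := s0.trans (t 0)
          have u1 := s0.trans (t 1)
          exact mul_le_mul (mul_le_mul (t 0) (t 1) s0 u0) (t 2) s0 (mul_nonneg u0 u1)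
      _ = _ := by ring
  calc |(lin A).det|⁻¹ * (lam * Q.sz) ^ 3 ≤ |(lin A).det|⁻¹ * (κ0 ^ 3 * ∏ k, (lam * Q.side k)) := by
        gcongr
    _ = _ := by ring

/-- **(1) MASS**: the affine energy on `S` is controlled by the energy of `f` on `S`. -/
theorem exin_mass (hp : 1 ≤ p) (h : SH3 p Om La f D) {o : E3} {u κ1 κ2 κ0 : ℝ} (hκ1 : 0 ≤ κ1)
    {Q : Bx (Fin 3)} (hQ : Q.Pos) {lam : ℝ} (hl : 0 ≤ lam) (hκ : ∀ k, Q.sz ≤ κ0 * Q.side k)
    (hsz : 0 ≤ Q.sz) (hE : ExIn p Om f D o u κ1 κ2 Q A lam) {S : Set E3} (hS : MeasurableSet S)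
    (hSV : S ⊆ A ⁻¹' cbx Q ((1 + 2 * κ2) * lam)) :
    ‖lin A‖ₑ ^ p * volume S ≤ (2:ℝ≥0∞) ^ (p - 1) * ((∫⁻ x in S, ‖D x‖ₑ ^ p) +
      ENNReal.ofReal (κ1 * κ0 ^ 3) * (‖lin A‖ₑ ^ p * volume (K1 A Q lam))) := by
  have hp0 : 0 ≤ p := zero_le_one.trans hp
  have hSO : S ⊆ Om := fun y hy => (hE.cor y (Or.inr (hSV hy))).1
  have hmD : AEMeasurable (fun x => ‖D x‖ₑ ^ p) (volume.restrict S) :=
    ((h.aesm.mono_measure (Measure.restrict_mono hSO le_rfl)).enorm).pow_const p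
  have hpt : ∀ x, ‖lin A‖ₑ ^ p ≤ (2:ℝ≥0∞) ^ (p - 1) * (‖D x‖ₑ ^ p + ‖lin A‖ₑ ^ p * Gd A D x ^ p) := by
    intro x
    have h1 : ‖lin A‖ₑ ≤ ‖D x‖ₑ + Gd A D x * ‖lin A‖ₑ := by
      have h2 : ‖D x - lin A‖ₑ ≤ Gd A D x * ‖lin A‖ₑ := by
        have h3 : D x - lin A = ((D x).comp (lin A.symm) - ContinuousLinearMap.id ℝ E3).comp (lin A) := by
          ext v : 1
          simp only [ContinuousLinearMap.comp_apply, sub_apply, ContinuousLinearMap.id_apply,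
            lin_symm_apply]
        rw [h3]
        exact ContinuousLinearMap.opENorm_comp_le _ _
      calc ‖lin A‖ₑ = ‖D x - (D x - lin A)‖ₑ := by congr 1; abel
        _ ≤ ‖D x‖ₑ + ‖D x - lin A‖ₑ := enorm_sub_le
        _ ≤ _ := by gcongr
    calc ‖lin A‖ₑ ^ p ≤ (‖D x‖ₑ + Gd A D x * ‖lin A‖ₑ) ^ p := ENNReal.rpow_le_rpow h1 hp0
      _ ≤ (2:ℝ≥0∞) ^ (p - 1) * (‖D x‖ₑ ^ p + (Gd A D x * ‖lin A‖ₑ) ^ p) :=
          ENNReal.rpow_add_le_mul_rpow_add_rpow _ _ hp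
      _ = _ := by rw [ENNReal.mul_rpow_of_nonneg _ _ hp0, mul_comm (Gd A D x ^ p)]
  have h2p : (2:ℝ≥0∞) ^ (p - 1) ≠ ∞ := ENNReal.rpow_ne_top_of_nonneg (by linarith) (by norm_num)
  have hAp : ‖lin A‖ₑ ^ p ≠ ∞ := ENNReal.rpow_ne_top_of_nonneg hp0 enorm_ne_top
  have hd : 0 < |(lin A).det| := abs_pos.2 (det_lin_ne A)
  have hlp : ∫⁻ x in S, Gd A D x ^ p ≤ ENNReal.ofReal (κ1 * κ0 ^ 3) * volume (K1 A Q lam) := by
    have h1 := hE.lp
    have h2 : ENNReal.ofReal |(lin A).det|⁻¹ * ENNReal.ofReal |(lin A).det| = 1 := by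
      rw [← ENNReal.ofReal_mul (by positivity), inv_mul_cancel₀ hd.ne', ENNReal.ofReal_one]
    calc ∫⁻ x in S, Gd A D x ^ p ≤ ∫⁻ x in A ⁻¹' cbx Q ((1 + 2 * κ2) * lam), Gd A D x ^ p :=
          lintegral_mono_set hSV
      _ = ENNReal.ofReal |(lin A).det|⁻¹ * (ENNReal.ofReal |(lin A).det| *
            ∫⁻ x in A ⁻¹' cbx Q ((1 + 2 * κ2) * lam), Gd A D x ^ p) := by
          rw [← mul_assoc, h2, one_mul]
      _ ≤ ENNReal.ofReal |(lin A).det|⁻¹ * ENNReal.ofReal (κ1 * (lam * Q.sz) ^ 3) := by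
          gcongr; exact h1
      _ = ENNReal.ofReal κ1 * ENNReal.ofReal (|(lin A).det|⁻¹ * (lam * Q.sz) ^ 3) := by
          rw [ENNReal.ofReal_mul hκ1, ENNReal.ofReal_mul (by positivity : (0:ℝ) ≤ |(lin A).det|⁻¹)]
          ring
      _ ≤ ENNReal.ofReal κ1 * (ENNReal.ofReal (κ0 ^ 3) * volume (K1 A Q lam)) := by
          gcongr; exact cube_le_vol hQ hl hκ hsz
      _ = _ := by rw [ENNReal.ofReal_mul hκ1, mul_assoc]
  calc ‖lin A‖ₑ ^ p * volume S = ∫⁻ _x in S, ‖lin A‖ₑ ^ p := by rw [setLIntegral_const]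
    _ ≤ ∫⁻ x in S, (2:ℝ≥0∞) ^ (p - 1) * (‖D x‖ₑ ^ p + ‖lin A‖ₑ ^ p * Gd A D x ^ p) :=
        lintegral_mono fun x => hpt x
    _ = (2:ℝ≥0∞) ^ (p - 1) * ((∫⁻ x in S, ‖D x‖ₑ ^ p) + ‖lin A‖ₑ ^ p * ∫⁻ x in S, Gd A D x ^ p) := by
        rw [lintegral_const_mul' _ _ h2p, lintegral_add_left' hmD, lintegral_const_mul' _ _ hAp]
    _ ≤ (2:ℝ≥0∞) ^ (p - 1) * ((∫⁻ x in S, ‖D x‖ₑ ^ p) +
          ‖lin A‖ₑ ^ p * (ENNReal.ofReal (κ1 * κ0 ^ 3) * volume (K1 A Q lam))) := by gcongr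
    _ = _ := by ring

end

end Crest.Agent.R096.Acc_365
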