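import Crest.Agent.R096.Acc1_365

/-!
Row 96 (S0127), helper365.  **EA-ACC**, part 2: volume of the symmetric difference of the core and the
shifted core; the derivative over the original core; the energy of the coarse zone.
-/

set_option autoImplicit false
set_option linter.style.longLine false
set_option linter.unusedSectionVars false
set_option linter.unusedVariables false

open MeasureTheory Set Filter Topology Metric
open scoped ENNReal NNReal

namespace Crest.Agent.R096.Acc_365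

open Crest.AnalysisR.VecCalc3 Crest.AnalysisR.Sobolev
open Crest.Agent.R096.SkC1_961 (E3 Hom3)
open Crest.Agent.R096.Er_594 (SH3)
open Crest.Agent.R096.Bsp_628 Crest.Agent.R096.Brk5_582
open Crest.Agent.R096.Bxs_627 (ctr)
open Crest.Agent.R096.EaX_766 (lin cbx ExIn Kor)
open Crest.Agent.R096.Exa_365

noncomputable section

variable {p : ℝ} {Om La : Set E3} {f : E3 → E3} {D : E3 → E3 →L[ℝ] E3} {A : E3 ≃ᵃ[ℝ] E3}

theorem slab_vol {lo hi a b : E3} {s : Fin 3 → ℝ} {r : ℝ} (hr : 0 ≤ r) (hs : ∀ l, 0 < s l) (k : Fin 3)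
    (hk : b k - a k = r) (hl : ∀ l, l ≠ k → b l - a l = s l) :
    volume (Icc a b) = ENNReal.ofReal (r / s k) * ENNReal.ofReal (∏ l, s l) := by
  rw [Real.volume_Icc_pi]
  have h1 : ∏ l, ENNReal.ofReal (b l - a l) =
      ENNReal.ofReal r * ∏ l ∈ Finset.univ.erase k, ENNReal.ofReal (s l) := by
    rw [← Finset.mul_prod_erase Finset.univ _ (Finset.mem_univ k), hk]
    congr 1
    refine Finset.prod_congr rfl fun l hl' => ?_
    rw [hl l (Finset.ne_of_mem_erase hl')]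
  have h2 : ENNReal.ofReal (∏ l, s l) =
      ENNReal.ofReal (s k) * ∏ l ∈ Finset.univ.erase k, ENNReal.ofReal (s l) := by
    rw [ENNReal.ofReal_prod_of_nonneg fun l _ => (hs l).le,
      ← Finset.mul_prod_erase Finset.univ _ (Finset.mem_univ k)]
  rw [h1, h2, ← mul_assoc, ← ENNReal.ofReal_mul (div_nonneg hr (hs k).le), div_mul_cancel₀ _ (hs k).ne']

/-- one sided difference of a box and a shifted box -/
theorem vol_box_diff {Q : Bx (Fin 3)} (hQ : Q.Pos) {lam : ℝ} (hl : 0 < lam) {κ0 τ : ℝ}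
    (hκ0 : 0 ≤ κ0) (hκ : ∀ k, Q.sz ≤ κ0 * Q.side k) (hτ : 0 ≤ τ) {w : E3}
    (hw : ∀ k, |w k| ≤ τ * (lam * Q.sz)) :
    volume {y | y ∈ cbx Q lam ∧ y - w ∉ cbx Q lam} ≤
      ENNReal.ofReal (3 * κ0 * τ) * ENNReal.ofReal (∏ k, (lam * Q.side k)) := by
  classical
  set s : Fin 3 → ℝ := fun k => lam * Q.side k with hs
  have hs0 : ∀ l, 0 < s l := fun l => mul_pos hl (Bx.side_pos hQ l)
  set lo : E3 := fun k => ctr Q k - s k / 2 with hlo
  set hi : E3 := fun k => ctr Q k + s k / 2 with hhi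
  set bx : Fin 3 → Set E3 := fun k => if 0 ≤ w k then Icc lo (Function.update hi k (lo k + |w k|))
    else Icc (Function.update lo k (hi k - |w k|)) hi with hbx
  have hsub : {y | y ∈ cbx Q lam ∧ y - w ∉ cbx Q lam} ⊆ ⋃ k, bx k := by
    rintro y ⟨h1, h2⟩
    have h1' : ∀ k, |y k - ctr Q k| ≤ s k / 2 := h1
    have h2' : ∃ k, s k / 2 < |(y - w) k - ctr Q k| := by
      by_contra hcon
      push Not at hcon
      exact h2 hcon
    obtain ⟨k, hk⟩ := h2'
    refine mem_iUnion.2 ⟨k, ?_⟩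
    simp only [hbx]
    simp only [Pi.sub_apply] at hk
    have h3 := abs_le.1 (h1' k)
    split_ifs with hw0
    · rw [abs_of_nonneg hw0]
      refine ⟨fun l => ?_, fun l => ?_⟩
      · have := (abs_le.1 (h1' l)).1
        simp only [hlo]; linarith
      · by_cases hlk : l = k
        · subst hlk
          rw [Function.update_self]
          simp only [hlo]
          rcases lt_abs.1 hk with h4 | h4
          · linarith
          · linarith
        · rw [Function.update_of_ne hlk]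
          have := (abs_le.1 (h1' l)).2
          simp only [hhi]; linarith
    · push Not at hw0
      rw [abs_of_neg hw0]
      refine ⟨fun l => ?_, fun l => ?_⟩
      · by_cases hlk : l = k
        · subst hlk
          rw [Function.update_self]
          simp only [hhi]
          rcases lt_abs.1 hk with h4 | h4
          · linarith
          · linarith
        · rw [Function.update_of_ne hlk]
          have := (abs_le.1 (h1' l)).1
          simp only [hlo]; linarith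
      · have := (abs_le.1 (h1' l)).2
        simp only [hhi]; linarith
  have hvol : ∀ k, volume (bx k) ≤ ENNReal.ofReal (κ0 * τ) * ENNReal.ofReal (∏ k, s k) := by
    intro k
    have h4 : volume (bx k) = ENNReal.ofReal (|w k| / s k) * ENNReal.ofReal (∏ l, s l) := by
      simp only [hbx]
      split_ifs with hw0
      · refine slab_vol (lo := lo) (hi := hi) (abs_nonneg _) hs0 k ?_ fun l hlk => ?_
        · rw [Function.update_self]; ring
        · rw [Function.update_of_ne hlk]; simp only [hhi, hlo]; ring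
      · refine slab_vol (lo := lo) (hi := hi) (abs_nonneg _) hs0 k ?_ fun l hlk => ?_
        · rw [Function.update_self]; ring
        · rw [Function.update_of_ne hlk]; simp only [hhi, hlo]; ring
    rw [h4]
    gcongr
    rw [div_le_iff₀ (hs0 k)]
    calc |w k| ≤ τ * (lam * Q.sz) := hw k
      _ ≤ τ * (lam * (κ0 * Q.side k)) := by gcongr; exact hκ k
      _ = κ0 * τ * s k := by simp only [hs]; ring
  calc volume {y | y ∈ cbx Q lam ∧ y - w ∉ cbx Q lam} ≤ volume (⋃ k, bx k) := measure_mono hsub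
    _ ≤ ∑ k, volume (bx k) := measure_iUnion_fintype_le _ _
    _ ≤ ∑ _k : Fin 3, ENNReal.ofReal (κ0 * τ) * ENNReal.ofReal (∏ k, s k) :=
        Finset.sum_le_sum fun k _ => hvol k
    _ = ENNReal.ofReal (3 * κ0 * τ) * ENNReal.ofReal (∏ k, s k) := by
        rw [Finset.sum_const, Finset.card_univ, Fintype.card_fin, nsmul_eq_mul, ← mul_assoc]
        congr 1
        rw [show (3:ℝ) * κ0 * τ = 3 * (κ0 * τ) by ring,
          ENNReal.ofReal_mul (p := (3:ℝ)) (q := κ0 * τ) (by norm_num)]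
        norm_num

/-- **(2) volume of the difference of the core and the shifted core** -/
theorem vol_shift {Q : Bx (Fin 3)} (hQ : Q.Pos) {lam : ℝ} (hl : 0 < lam) {κ0 τ : ℝ}
    (hκ0 : 0 ≤ κ0) (hκ : ∀ k, Q.sz ≤ κ0 * Q.side k) (hτ : 0 ≤ τ) {v : E3}
    (hv : ∀ k, |lin A v k| ≤ τ * (lam * Q.sz)) :
    volume (K1 A Q lam \ K2 A Q lam v) ≤ ENNReal.ofReal (3 * κ0 * τ) * volume (K1 A Q lam) ∧
    volume (K2 A Q lam v \ K1 A Q lam) ≤ ENNReal.ofReal (3 * κ0 * τ) * volume (K1 A Q lam) := by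
  have key : ∀ v : E3, (∀ k, |lin A v k| ≤ τ * (lam * Q.sz)) →
      volume (K1 A Q lam \ K2 A Q lam v) ≤ ENNReal.ofReal (3 * κ0 * τ) * volume (K1 A Q lam) := by
    intro v hv
    have h1 : K1 A Q lam \ K2 A Q lam v = A ⁻¹' {y | y ∈ cbx Q lam ∧ y - lin A v ∉ cbx Q lam} := by
      ext x
      have h2 : A (x - v) = A x - lin A v := by
        rw [sub_eq_add_neg x v, aff_add A x (-v), map_neg, ← sub_eq_add_neg]
      constructor
      · rintro ⟨h3, h4⟩
        refine ⟨h3, fun h5 => h4 ?_⟩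
        change A (x - v) ∈ cbx Q lam
        rw [h2]; exact h5
      · rintro ⟨h3, h4⟩
        refine ⟨h3, fun h5 => h4 ?_⟩
        have h6 : A (x - v) ∈ cbx Q lam := h5
        rwa [h2] at h6
    rw [h1, volume_preimage_aff, volume_K1 hQ hl.le,
      ENNReal.ofReal_mul (p := |(lin A).det|⁻¹) (q := ∏ k, (lam * Q.side k)) (by positivity)]
    calc ENNReal.ofReal |(lin A).det|⁻¹ * volume {y | y ∈ cbx Q lam ∧ y - lin A v ∉ cbx Q lam}
        ≤ ENNReal.ofReal |(lin A).det|⁻¹ * (ENNReal.ofReal (3 * κ0 * τ) *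
          ENNReal.ofReal (∏ k, (lam * Q.side k))) := by
          gcongr; exact vol_box_diff hQ hl hκ0 hκ hτ hv
      _ = _ := by ring
  refine ⟨key v hv, ?_⟩
  have h1 : volume (K2 A Q lam v \ K1 A Q lam) = volume (K1 A Q lam \ K2 A Q lam (-v)) := by
    have h2 : K2 A Q lam v \ K1 A Q lam = (fun x => x + (-v)) ⁻¹' (K1 A Q lam \ K2 A Q lam (-v)) := by
      ext x
      simp only [K2, mem_diff, mem_preimage, Set.mem_ofPred_eq, ← sub_eq_add_neg, sub_neg_eq_add,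
        sub_add_cancel]
    rw [h2, measure_preimage_add_right]
  rw [h1]
  refine key (-v) fun k => ?_
  rw [map_neg, Pi.neg_apply, abs_neg]
  exact hv k

section one

variable {Q : Bx (Fin 3)} {lam κ0 τ C1 e1 : ℝ} {v : E3} {W : Set E3} {h : E3 → E3 →L[ℝ] E3}

/-- **(3) the derivative over the original core** -/
theorem core_shift (hp : 1 ≤ p) (hQ : Q.Pos) (hl : 0 < lam) (hκ0 : 0 ≤ κ0)
    (hκ : ∀ k, Q.sz ≤ κ0 * Q.side k) (hτ : 0 ≤ τ) (hv : ∀ k, |lin A v k| ≤ τ * (lam * Q.sz))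
    (hC1 : 0 ≤ C1) (he1 : 0 ≤ e1) (hWm : MeasurableSet W) (hW1 : K1 A Q lam ⊆ W)
    (hcore : ∫⁻ x in K2 A Q lam v, ‖h x - lam⁻¹ • lin A‖ₑ ^ p ≤
      ENNReal.ofReal e1 * (‖lin A‖ₑ ^ p * volume (K2 A Q lam v)))
    (hin : ∀ᵐ x ∂(volume.restrict (W \ K2 A Q lam v)), ‖h x‖ₑ ≤ ENNReal.ofReal C1 * ‖lin A‖ₑ) :
    ∫⁻ x in K1 A Q lam, ‖h x - lam⁻¹ • lin A‖ₑ ^ p ≤
      ENNReal.ofReal (e1 + (C1 + 1 / lam) ^ p * (3 * κ0 * τ)) * (‖lin A‖ₑ ^ p * volume (K1 A Q lam)) := by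
  have hp0 : 0 ≤ p := zero_le_one.trans hp
  have hK1 := measurableSet_K1 A Q lam
  have hK2 := measurableSet_K2 A Q lam v
  have h1 : ∫⁻ x in K1 A Q lam \ K2 A Q lam v, ‖h x - lam⁻¹ • lin A‖ₑ ^ p ≤
      ENNReal.ofReal ((C1 + 1 / lam) ^ p * (3 * κ0 * τ)) * (‖lin A‖ₑ ^ p * volume (K1 A Q lam)) := by
    have h2 : ∀ᵐ x ∂(volume.restrict (K1 A Q lam \ K2 A Q lam v)),
        ‖h x - lam⁻¹ • lin A‖ₑ ^ p ≤ ENNReal.ofReal ((C1 + 1 / lam) ^ p) * ‖lin A‖ₑ ^ p := by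
      have h3 := ae_restrict_of_ae_restrict_of_subset (diff_subset_diff_left hW1) hin
      filter_upwards [h3] with x hx
      have hll : ‖lam⁻¹ • lin A‖ₑ = ENNReal.ofReal (1 / lam) * ‖lin A‖ₑ := by
        rw [enorm_smul, one_div, ← Real.enorm_of_nonneg (inv_nonneg.2 hl.le)]
      have h4 : ‖h x - lam⁻¹ • lin A‖ₑ ≤ ENNReal.ofReal (C1 + 1 / lam) * ‖lin A‖ₑ := by
        refine enorm_sub_le.trans ?_
        rw [hll, ENNReal.ofReal_add hC1 (by positivity), add_mul]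
        gcongr
      calc ‖h x - lam⁻¹ • lin A‖ₑ ^ p ≤ (ENNReal.ofReal (C1 + 1 / lam) * ‖lin A‖ₑ) ^ p :=
            ENNReal.rpow_le_rpow h4 hp0
        _ = _ := by
            rw [ENNReal.mul_rpow_of_nonneg _ _ hp0, ENNReal.ofReal_rpow_of_nonneg (by positivity) hp0]
    calc ∫⁻ x in K1 A Q lam \ K2 A Q lam v, ‖h x - lam⁻¹ • lin A‖ₑ ^ p
        ≤ ∫⁻ _x in K1 A Q lam \ K2 A Q lam v, ENNReal.ofReal ((C1 + 1 / lam) ^ p) * ‖lin A‖ₑ ^ p :=
          lintegral_mono_ae h2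
      _ = ENNReal.ofReal ((C1 + 1 / lam) ^ p) * ‖lin A‖ₑ ^ p * volume (K1 A Q lam \ K2 A Q lam v) := by
          rw [setLIntegral_const]
      _ ≤ ENNReal.ofReal ((C1 + 1 / lam) ^ p) * ‖lin A‖ₑ ^ p *
          (ENNReal.ofReal (3 * κ0 * τ) * volume (K1 A Q lam)) := by
          gcongr; exact (vol_shift hQ hl hκ0 hκ hτ hv).1
      _ = _ := by
          rw [ENNReal.ofReal_mul (p := (C1 + 1 / lam) ^ p) (q := 3 * κ0 * τ) (by positivity)]
          ring
  calc ∫⁻ x in K1 A Q lam, ‖h x - lam⁻¹ • lin A‖ₑ ^ p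
      ≤ ∫⁻ x in K2 A Q lam v ∪ (K1 A Q lam \ K2 A Q lam v), ‖h x - lam⁻¹ • lin A‖ₑ ^ p := by
        refine lintegral_mono_set fun x hx => ?_
        by_cases hx2 : x ∈ K2 A Q lam v
        · exact Or.inl hx2
        · exact Or.inr ⟨hx, hx2⟩
    _ ≤ (∫⁻ x in K2 A Q lam v, ‖h x - lam⁻¹ • lin A‖ₑ ^ p) +
          ∫⁻ x in K1 A Q lam \ K2 A Q lam v, ‖h x - lam⁻¹ • lin A‖ₑ ^ p := lintegral_union_le _ _ _
    _ ≤ ENNReal.ofReal e1 * (‖lin A‖ₑ ^ p * volume (K1 A Q lam)) +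
          ENNReal.ofReal ((C1 + 1 / lam) ^ p * (3 * κ0 * τ)) * (‖lin A‖ₑ ^ p * volume (K1 A Q lam)) := by
        gcongr
        rw [volume_K2] at hcore
        exact hcore
    _ = _ := by rw [ENNReal.ofReal_add he1 (by positivity), add_mul]

/-- **(4a) the energy of the coarse zone outside the original core** -/
theorem zone_energy (hp : 1 ≤ p) (hQ : Q.Pos) (hl : 0 < lam) (hκ0 : 0 ≤ κ0)
    (hκ : ∀ k, Q.sz ≤ κ0 * Q.side k) (hτ : 0 ≤ τ) (hv : ∀ k, |lin A v k| ≤ τ * (lam * Q.sz))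
    (hC1 : 0 ≤ C1) (he1 : 0 ≤ e1) (hWm : MeasurableSet W)
    (hcore : ∫⁻ x in K2 A Q lam v, ‖h x - lam⁻¹ • lin A‖ₑ ^ p ≤
      ENNReal.ofReal e1 * (‖lin A‖ₑ ^ p * volume (K2 A Q lam v)))
    (hin : ∀ᵐ x ∂(volume.restrict (W \ K2 A Q lam v)), ‖h x‖ₑ ≤ ENNReal.ofReal C1 * ‖lin A‖ₑ) :
    ∫⁻ x in W \ K1 A Q lam, ‖h x‖ₑ ^ p ≤
      ENNReal.ofReal (C1 ^ p) * (‖lin A‖ₑ ^ p * volume (W \ K1 A Q lam)) +
      ENNReal.ofReal (2 ^ (p - 1) * (e1 + (1 / lam) ^ p * (3 * κ0 * τ))) *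
        (‖lin A‖ₑ ^ p * volume (K1 A Q lam)) := by
  have hp0 : 0 ≤ p := zero_le_one.trans hp
  have hK1 := measurableSet_K1 A Q lam
  have hK2 := measurableSet_K2 A Q lam v
  have h2p : (2:ℝ≥0∞) ^ (p - 1) ≠ ∞ := ENNReal.rpow_ne_top_of_nonneg (by linarith) (by norm_num)
  have hll : ‖lam⁻¹ • lin A‖ₑ = ENNReal.ofReal (1 / lam) * ‖lin A‖ₑ := by
    rw [enorm_smul, one_div, ← Real.enorm_of_nonneg (inv_nonneg.2 hl.le)]
  have ha : ∫⁻ x in W \ (K1 A Q lam ∪ K2 A Q lam v), ‖h x‖ₑ ^ p ≤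
      ENNReal.ofReal (C1 ^ p) * (‖lin A‖ₑ ^ p * volume (W \ K1 A Q lam)) := by
    have hss : W \ (K1 A Q lam ∪ K2 A Q lam v) ⊆ W \ K2 A Q lam v :=
      fun x hx => ⟨hx.1, fun h => hx.2 (Or.inr h)⟩
    have h3 := ae_restrict_of_ae_restrict_of_subset hss hin
    calc ∫⁻ x in W \ (K1 A Q lam ∪ K2 A Q lam v), ‖h x‖ₑ ^ p
        ≤ ∫⁻ _x in W \ (K1 A Q lam ∪ K2 A Q lam v), ENNReal.ofReal (C1 ^ p) * ‖lin A‖ₑ ^ p := by
          apply lintegral_mono_ae
          filter_upwards [h3] with x hx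
          calc ‖h x‖ₑ ^ p ≤ (ENNReal.ofReal C1 * ‖lin A‖ₑ) ^ p := ENNReal.rpow_le_rpow hx hp0
            _ = _ := by rw [ENNReal.mul_rpow_of_nonneg _ _ hp0, ENNReal.ofReal_rpow_of_nonneg hC1 hp0]
      _ = ENNReal.ofReal (C1 ^ p) * ‖lin A‖ₑ ^ p * volume (W \ (K1 A Q lam ∪ K2 A Q lam v)) := by
          rw [setLIntegral_const]
      _ ≤ ENNReal.ofReal (C1 ^ p) * ‖lin A‖ₑ ^ p * volume (W \ K1 A Q lam) := by
          gcongr
          exact subset_union_left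
      _ = _ := by ring
  have hb : ∫⁻ x in K2 A Q lam v \ K1 A Q lam, ‖h x‖ₑ ^ p ≤
      ENNReal.ofReal (2 ^ (p - 1) * (e1 + (1 / lam) ^ p * (3 * κ0 * τ))) *
        (‖lin A‖ₑ ^ p * volume (K1 A Q lam)) := by
    calc ∫⁻ x in K2 A Q lam v \ K1 A Q lam, ‖h x‖ₑ ^ p
        ≤ ∫⁻ x in K2 A Q lam v \ K1 A Q lam, (2:ℝ≥0∞) ^ (p - 1) *
            (‖h x - lam⁻¹ • lin A‖ₑ ^ p + ENNReal.ofReal ((1 / lam) ^ p) * ‖lin A‖ₑ ^ p) := by
          refine lintegral_mono fun x => ?_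
          have h4 : ‖h x‖ₑ ≤ ‖h x - lam⁻¹ • lin A‖ₑ + ENNReal.ofReal (1 / lam) * ‖lin A‖ₑ := by
            rw [← hll]
            have h5 := enorm_add_le (h x - lam⁻¹ • lin A) (lam⁻¹ • lin A)
            rwa [sub_add_cancel] at h5
          calc ‖h x‖ₑ ^ p ≤ (‖h x - lam⁻¹ • lin A‖ₑ + ENNReal.ofReal (1 / lam) * ‖lin A‖ₑ) ^ p :=
                ENNReal.rpow_le_rpow h4 hp0
            _ ≤ (2:ℝ≥0∞) ^ (p - 1) * (‖h x - lam⁻¹ • lin A‖ₑ ^ p +
                (ENNReal.ofReal (1 / lam) * ‖lin A‖ₑ) ^ p) := ENNReal.rpow_add_le_mul_rpow_add_rpow _ _ hp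
            _ = _ := by
                rw [ENNReal.mul_rpow_of_nonneg _ _ hp0, ENNReal.ofReal_rpow_of_nonneg (by positivity) hp0]
      _ = (2:ℝ≥0∞) ^ (p - 1) * ((∫⁻ x in K2 A Q lam v \ K1 A Q lam, ‖h x - lam⁻¹ • lin A‖ₑ ^ p) +
            ENNReal.ofReal ((1 / lam) ^ p) * ‖lin A‖ₑ ^ p * volume (K2 A Q lam v \ K1 A Q lam)) := by
          rw [lintegral_const_mul' _ _ h2p, lintegral_add_right _ measurable_const, setLIntegral_const]
      _ ≤ (2:ℝ≥0∞) ^ (p - 1) * (ENNReal.ofReal e1 * (‖lin A‖ₑ ^ p * volume (K1 A Q lam)) +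
            ENNReal.ofReal ((1 / lam) ^ p) * ‖lin A‖ₑ ^ p *
              (ENNReal.ofReal (3 * κ0 * τ) * volume (K1 A Q lam))) := by
          gcongr
          · rw [volume_K2] at hcore
            exact (lintegral_mono_set diff_subset).trans hcore
          · exact (vol_shift hQ hl hκ0 hκ hτ hv).2
      _ = _ := by
          have h2' : (2:ℝ≥0∞) ^ (p - 1) = ENNReal.ofReal (2 ^ (p - 1)) := by
            rw [← ENNReal.ofReal_rpow_of_nonneg (by norm_num) (by linarith)]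
            norm_num
          rw [ENNReal.ofReal_mul (p := 2 ^ (p - 1)) (q := e1 + (1 / lam) ^ p * (3 * κ0 * τ)) (by positivity),
            ENNReal.ofReal_add he1 (by positivity),
            ENNReal.ofReal_mul (p := (1 / lam) ^ p) (q := 3 * κ0 * τ) (by positivity), h2']
          ring
  calc ∫⁻ x in W \ K1 A Q lam, ‖h x‖ₑ ^ p
      ≤ ∫⁻ x in (W \ (K1 A Q lam ∪ K2 A Q lam v)) ∪ (K2 A Q lam v \ K1 A Q lam), ‖h x‖ₑ ^ p := by
        refine lintegral_mono_set fun x hx => ?_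
        by_cases hx2 : x ∈ K2 A Q lam v
        · exact Or.inr ⟨hx2, hx.2⟩
        · exact Or.inl ⟨hx.1, fun h => h.elim hx.2 hx2⟩
    _ ≤ _ := lintegral_union_le _ _ _
    _ ≤ _ := add_le_add ha hb

end one

end

end Crest.Agent.R096.Acc_365
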