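import Crest.Agent.R096.Acc2_365

/-!
Row 96 (S0127), helper365.  **EA-ACC**, part 3: the two integral inequalities of `EaX_766.EA` from the
energy of the coarse part, the core inequality (713's `core_ea`) and the a.e. bound in the zones.
-/

set_option autoImplicit false
set_option linter.style.longLine false
set_option linter.unusedSectionVars false
set_option linter.unusedVariables false

open MeasureTheory Set Filter Topology Metric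
open scoped ENNReal NNReal

namespace Crest.Agent.R096.Acc_365

open Crest.AnalysisR.VecCalc3 Crest.AnalysisR.Sobolev
open Crest.Agent.R096.SkC1_961 (E3 Hom3)
open Crest.Agent.R096.Er_594 (SH3)
open Crest.Agent.R096.Bsp_628 Crest.Agent.R096.Brk5_582
open Crest.Agent.R096.Bxs_627 (ctr)
open Crest.Agent.R096.EaX_766 (lin cbx ExIn Kor)
open Crest.Agent.R096.Exa_365

noncomputable section

variable {p : ℝ} {Om La : Set E3} {f : E3 → E3} {D : E3 → E3 →L[ℝ] E3}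

/-- the constants of `ea_acc` -/
def Cacc (p C1 : ℝ) : ℝ := C1 ^ p * 2 ^ (p - 1)

def Eacc (p C1 κ0 κ1 c0 τ e1 : ℝ) : ℝ :=
  C1 ^ p * 2 ^ (p - 1) * (κ1 * κ0 ^ 3) + 2 ^ (p - 1) * (e1 + (1 / c0) ^ p * (3 * κ0 * τ))

/-- the data of the accounting -/
structure AccD (p : ℝ) (Om : Set E3) (f : E3 → E3) (D : E3 → E3 →L[ℝ] E3) (o : E3)
    (u κ0 κ1 κ2 c0 τ C1 e1 : ℝ) (F : Set (Bx (Fin 3))) (X : Set F) (A : F → E3 ≃ᵃ[ℝ] E3)
    (lam : F → ℝ) (v : F → E3) (W : F → Set E3) (g : E3 → E3 →L[ℝ] E3) : Prop where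
  cnt : F.Countable
  pos : ∀ c ∈ X, c.1.Pos
  asp : ∀ c ∈ X, ∀ k, c.1.sz ≤ κ0 * c.1.side k
  hc0 : 0 < c0
  hκ0 : 0 ≤ κ0
  hκ1 : 0 ≤ κ1
  hτ : 0 ≤ τ
  hC1 : 0 ≤ C1
  he1 : 0 ≤ e1
  hlam : ∀ c ∈ X, c0 ≤ lam c
  ex : ∀ c ∈ X, ExIn p Om f D o u κ1 κ2 c.1 (A c) (lam c)
  shift : ∀ c ∈ X, ∀ k, |lin (A c) (v c) k| ≤ τ * (lam c * c.1.sz)
  Wm : ∀ c ∈ X, MeasurableSet (W c)
  Wdis : X.PairwiseDisjoint W
  W1 : ∀ c ∈ X, K1 (A c) c.1 (lam c) ⊆ W c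
  W2 : ∀ c ∈ X, W c ⊆ A c ⁻¹' cbx c.1 ((1 + 2 * κ2) * lam c)
  core : ∀ c ∈ X, ∫⁻ x in K2 (A c) c.1 (lam c) (v c), ‖g x - (lam c)⁻¹ • lin (A c)‖ₑ ^ p ≤
    ENNReal.ofReal e1 * (‖lin (A c)‖ₑ ^ p * volume (K2 (A c) c.1 (lam c) (v c)))
  inn : ∀ c ∈ X, ∀ᵐ x ∂(volume.restrict (W c \ K2 (A c) c.1 (lam c) (v c))),
    ‖g x‖ₑ ≤ ENNReal.ofReal C1 * ‖lin (A c)‖ₑ

variable {o : E3} {u κ0 κ1 κ2 c0 τ C1 e1 : ℝ} {F : Set (Bx (Fin 3))} {X : Set F}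
  {A : F → E3 ≃ᵃ[ℝ] E3} {lam : F → ℝ} {v : F → E3} {W : F → Set E3} {g : E3 → E3 →L[ℝ] E3}

/-- the core inequality of `EA` -/
theorem AccD.core1 (hp : 1 ≤ p) (H : AccD p Om f D o u κ0 κ1 κ2 c0 τ C1 e1 F X A lam v W g)
    {c : F} (hc : c ∈ X) :
    ∫⁻ x in Kor F A lam c, ‖g x - (lam c)⁻¹ • lin (A c)‖ₑ ^ p ≤
      ENNReal.ofReal (e1 + (C1 + 1 / c0) ^ p * (3 * κ0 * τ)) *
        (‖lin (A c)‖ₑ ^ p * volume (Kor F A lam c)) := by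
  have hl : 0 < lam c := H.hc0.trans_le (H.hlam c hc)
  have h1 := core_shift hp (H.pos c hc) hl H.hκ0 (H.asp c hc) H.hτ (H.shift c hc) H.hC1 H.he1
    (H.Wm c hc) (H.W1 c hc) (H.core c hc) (H.inn c hc)
  refine h1.trans ?_
  change _ ≤ ENNReal.ofReal (e1 + (C1 + 1 / c0) ^ p * (3 * κ0 * τ)) *
    (‖lin (A c)‖ₑ ^ p * volume (K1 (A c) c.1 (lam c)))
  have h2 : 1 / lam c ≤ 1 / c0 := one_div_le_one_div_of_le H.hc0 (H.hlam c hc)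
  have h3 : (C1 + 1 / lam c) ^ p ≤ (C1 + 1 / c0) ^ p := by
    refine Real.rpow_le_rpow ?_ (by linarith) (zero_le_one.trans hp)
    have := H.hC1
    have : 0 < 1 / lam c := by positivity
    linarith
  have h4 : 0 ≤ 3 * κ0 * τ := mul_nonneg (mul_nonneg (by norm_num) H.hκ0) H.hτ
  gcongr

/-- the energy in one zone -/
theorem AccD.zone (hp : 1 ≤ p) (h : SH3 p Om La f D)
    (H : AccD p Om f D o u κ0 κ1 κ2 c0 τ C1 e1 F X A lam v W g) {c : F} (hc : c ∈ X) :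
    ∫⁻ x in W c \ Kor F A lam c, ‖g x‖ₑ ^ p ≤
      ENNReal.ofReal (Cacc p C1) * (∫⁻ x in W c \ Kor F A lam c, ‖D x‖ₑ ^ p) +
      ENNReal.ofReal (Eacc p C1 κ0 κ1 c0 τ e1) * (‖lin (A c)‖ₑ ^ p * volume (Kor F A lam c)) := by
  have hp0 : 0 ≤ p := zero_le_one.trans hp
  have hl : 0 < lam c := H.hc0.trans_le (H.hlam c hc)
  have h4 : 0 ≤ 3 * κ0 * τ := mul_nonneg (mul_nonneg (by norm_num) H.hκ0) H.hτ
  have hC1p : 0 ≤ C1 ^ p := Real.rpow_nonneg H.hC1 _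
  have hκκ : 0 ≤ κ1 * κ0 ^ 3 := mul_nonneg H.hκ1 (pow_nonneg H.hκ0 3)
  have hc0p : 0 ≤ (1 / c0) ^ p := Real.rpow_nonneg (by have := H.hc0; positivity) _
  have hm : MeasurableSet (W c \ K1 (A c) c.1 (lam c)) :=
    (H.Wm c hc).diff (measurableSet_K1 _ _ _)
  have h1 := zone_energy hp (H.pos c hc) hl H.hκ0 (H.asp c hc) H.hτ (H.shift c hc) H.hC1 H.he1
    (H.Wm c hc) (H.core c hc) (H.inn c hc)
  have h2 := exin_mass hp h H.hκ1 (H.pos c hc) hl.le (H.asp c hc) (Bx.sz_pos (H.pos c hc)).le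
    (H.ex c hc) hm (diff_subset.trans (H.W2 c hc))
  have h3 : (1 / lam c) ^ p ≤ (1 / c0) ^ p := by
    refine Real.rpow_le_rpow (by positivity) (one_div_le_one_div_of_le H.hc0 (H.hlam c hc)) hp0
  have h2' : (2:ℝ≥0∞) ^ (p - 1) = ENNReal.ofReal (2 ^ (p - 1)) := by
    rw [← ENNReal.ofReal_rpow_of_nonneg (by norm_num) (by linarith)]
    norm_num
  rw [h2'] at h2
  change ∫⁻ x in W c \ K1 (A c) c.1 (lam c), ‖g x‖ₑ ^ p ≤
      ENNReal.ofReal (Cacc p C1) * (∫⁻ x in W c \ K1 (A c) c.1 (lam c), ‖D x‖ₑ ^ p) +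
      ENNReal.ofReal (Eacc p C1 κ0 κ1 c0 τ e1) *
        (‖lin (A c)‖ₑ ^ p * volume (K1 (A c) c.1 (lam c)))
  have h5 : ENNReal.ofReal (2 ^ (p - 1) * (e1 + (1 / lam c) ^ p * (3 * κ0 * τ))) ≤
      ENNReal.ofReal (2 ^ (p - 1) * (e1 + (1 / c0) ^ p * (3 * κ0 * τ))) := by
    gcongr
  calc ∫⁻ x in W c \ K1 (A c) c.1 (lam c), ‖g x‖ₑ ^ p
      ≤ ENNReal.ofReal (C1 ^ p) * (‖lin (A c)‖ₑ ^ p * volume (W c \ K1 (A c) c.1 (lam c))) +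
        ENNReal.ofReal (2 ^ (p - 1) * (e1 + (1 / lam c) ^ p * (3 * κ0 * τ))) *
        (‖lin (A c)‖ₑ ^ p * volume (K1 (A c) c.1 (lam c))) := h1
    _ ≤ ENNReal.ofReal (C1 ^ p) * (ENNReal.ofReal (2 ^ (p - 1)) *
          ((∫⁻ x in W c \ K1 (A c) c.1 (lam c), ‖D x‖ₑ ^ p) +
            ENNReal.ofReal (κ1 * κ0 ^ 3) * (‖lin (A c)‖ₑ ^ p * volume (K1 (A c) c.1 (lam c))))) +
        ENNReal.ofReal (2 ^ (p - 1) * (e1 + (1 / c0) ^ p * (3 * κ0 * τ))) *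
        (‖lin (A c)‖ₑ ^ p * volume (K1 (A c) c.1 (lam c))) := by gcongr
    _ = _ := by
        unfold Cacc Eacc
        have h6 : 0 ≤ 2 ^ (p - 1) * (e1 + (1 / c0) ^ p * (3 * κ0 * τ)) := by
          have := H.he1
          positivity
        rw [ENNReal.ofReal_add (by positivity) h6,
          ENNReal.ofReal_mul (p := C1 ^ p * 2 ^ (p - 1)) (q := κ1 * κ0 ^ 3) (by positivity),
          ENNReal.ofReal_mul (p := C1 ^ p) (q := 2 ^ (p - 1)) hC1p]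
        ring

/-- **(4) the accounting** -/
theorem ea_acc (hp : 1 ≤ p) (h : SH3 p Om La f D)
    (H : AccD p Om f D o u κ0 κ1 κ2 c0 τ C1 e1 F X A lam v W g) {C2 e2 : ℝ≥0∞}
    (hout : ∫⁻ x in Om \ ⋃ c ∈ X, W c, ‖g x‖ₑ ^ p ≤
      C2 * (∫⁻ x in Om \ ⋃ c ∈ X, Kor F A lam c, (1 + ‖D x‖ₑ ^ p)) + e2) :
    ∫⁻ x in Om \ ⋃ c ∈ X, Kor F A lam c, ‖g x‖ₑ ^ p ≤
      (C2 + ENNReal.ofReal (Cacc p C1)) *
        (∫⁻ x in Om \ ⋃ c ∈ X, Kor F A lam c, (1 + ‖D x‖ₑ ^ p)) +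
      ENNReal.ofReal (Eacc p C1 κ0 κ1 c0 τ e1) *
        (∑' c : X, (1 + ‖lin (A c)‖ₑ ^ p) * volume (Kor F A lam c)) + e2 := by
  classical
  have : Countable F := H.cnt.to_subtype
  have hKK : ∀ c : F, Kor F A lam c = K1 (A c) c.1 (lam c) := fun c => rfl
  set J := ∫⁻ x in Om \ ⋃ c ∈ X, Kor F A lam c, (1 + ‖D x‖ₑ ^ p) with hJ
  set Z : X → Set E3 := fun c => W c \ Kor F A lam c with hZ
  have hsub : Om \ ⋃ c ∈ X, Kor F A lam c ⊆ (Om \ ⋃ c ∈ X, W c) ∪ ⋃ c : X, Z c := by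
    rintro x ⟨hx1, hx2⟩
    by_cases hx3 : x ∈ ⋃ c ∈ X, W c
    · simp only [mem_iUnion] at hx3
      obtain ⟨c, hc, hxc⟩ := hx3
      refine Or.inr (mem_iUnion.2 ⟨⟨c, hc⟩, hxc, fun h => hx2 ?_⟩)
      exact mem_iUnion₂.2 ⟨c, hc, h⟩
    · exact Or.inl ⟨hx1, hx3⟩
  have hZd : Pairwise (Function.onFun Disjoint Z) := by
    intro c c' hcc
    have := H.Wdis c.2 c'.2 (fun h => hcc (Subtype.ext h))
    exact this.mono diff_subset diff_subset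
  have hZm : ∀ c : X, MeasurableSet (Z c) := fun c => (H.Wm c c.2).diff (measurableSet_K1 _ _ _)
  have hZO : (⋃ c : X, Z c) ⊆ Om \ ⋃ c ∈ X, Kor F A lam c := by
    intro x hx
    obtain ⟨c, hc1, hc2⟩ := mem_iUnion.1 hx
    refine ⟨((H.ex c c.2).cor x (Or.inr (H.W2 c c.2 hc1))).1, fun h => ?_⟩
    obtain ⟨c', hc', hx'⟩ := mem_iUnion₂.1 h
    by_cases hcc : (c : F) = c'
    · subst hcc; exact hc2 hx'
    · exact disjoint_left.1 (H.Wdis c.2 hc' hcc) hc1 (H.W1 c' hc' hx')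
  have hD : ∑' c : X, ∫⁻ x in Z c, ‖D x‖ₑ ^ p ≤ J := by
    rw [← lintegral_iUnion hZm hZd]
    refine (lintegral_mono_set hZO).trans (lintegral_mono fun x => ?_)
    exact le_add_self
  calc ∫⁻ x in Om \ ⋃ c ∈ X, Kor F A lam c, ‖g x‖ₑ ^ p
      ≤ ∫⁻ x in (Om \ ⋃ c ∈ X, W c) ∪ ⋃ c : X, Z c, ‖g x‖ₑ ^ p := lintegral_mono_set hsub
    _ ≤ (∫⁻ x in Om \ ⋃ c ∈ X, W c, ‖g x‖ₑ ^ p) + ∫⁻ x in ⋃ c : X, Z c, ‖g x‖ₑ ^ p :=
        lintegral_union_le _ _ _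
    _ ≤ (C2 * J + e2) + ∑' c : X, ∫⁻ x in Z c, ‖g x‖ₑ ^ p :=
        add_le_add hout (lintegral_iUnion_le _ _)
    _ ≤ (C2 * J + e2) + ∑' c : X, (ENNReal.ofReal (Cacc p C1) * (∫⁻ x in Z c, ‖D x‖ₑ ^ p) +
          ENNReal.ofReal (Eacc p C1 κ0 κ1 c0 τ e1) *
            ((1 + ‖lin (A c)‖ₑ ^ p) * volume (Kor F A lam c))) := by
        gcongr with c
        refine (H.zone hp h c.2).trans ?_
        gcongr
        exact le_add_self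
    _ = (C2 * J + e2) + (ENNReal.ofReal (Cacc p C1) * (∑' c : X, ∫⁻ x in Z c, ‖D x‖ₑ ^ p) +
          ENNReal.ofReal (Eacc p C1 κ0 κ1 c0 τ e1) *
            ∑' c : X, (1 + ‖lin (A c)‖ₑ ^ p) * volume (Kor F A lam c)) := by
        rw [ENNReal.tsum_add, ENNReal.tsum_mul_left, ENNReal.tsum_mul_left]
    _ ≤ (C2 * J + e2) + (ENNReal.ofReal (Cacc p C1) * J +
          ENNReal.ofReal (Eacc p C1 κ0 κ1 c0 τ e1) *
            ∑' c : X, (1 + ‖lin (A c)‖ₑ ^ p) * volume (Kor F A lam c)) := by gcongr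
    _ = _ := by ring

/-- **choice of the small constants**: given `C1` (depending on the shapes only) and `e`, positive
`e1, τ, κ1` with both constants at most `e`. -/
theorem acc_choice (p : ℝ) {C1 κ0 c0 e : ℝ} (hC1 : 0 ≤ C1) (hκ0 : 0 ≤ κ0) (hc0 : 0 < c0) (he : 0 < e) :
    ∃ e1 τ κ1 : ℝ, 0 < e1 ∧ 0 < τ ∧ 0 < κ1 ∧ ∀ κ1', 0 ≤ κ1' → κ1' ≤ κ1 → ∀ τ', 0 ≤ τ' → τ' ≤ τ →
      Eacc p C1 κ0 κ1' c0 τ' e1 ≤ e ∧ e1 + (C1 + 1 / c0) ^ p * (3 * κ0 * τ') ≤ e := by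
  set P : ℝ := 2 ^ (p - 1) with hP
  have hPp : 0 < P := Real.rpow_pos_of_pos (by norm_num) _
  set B : ℝ := C1 ^ p * P * κ0 ^ 3 with hB
  have hB0 : 0 ≤ B := by
    have : 0 ≤ C1 ^ p := Real.rpow_nonneg hC1 _
    positivity
  set G : ℝ := P * (1 / c0) ^ p * (3 * κ0) + (C1 + 1 / c0) ^ p * (3 * κ0) with hG
  have hc1 : 0 ≤ (1 / c0) ^ p := Real.rpow_nonneg (by positivity) _
  have hc2 : 0 ≤ (C1 + 1 / c0) ^ p := Real.rpow_nonneg (by positivity) _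
  have hG1 : 0 ≤ P * (1 / c0) ^ p * (3 * κ0) := by positivity
  have hG2 : 0 ≤ (C1 + 1 / c0) ^ p * (3 * κ0) := by positivity
  have hG0 : 0 ≤ G := by positivity
  refine ⟨e / (3 * (P + 1)), e / (3 * (G + 1)), e / (3 * (B + 1)), by positivity, by positivity,
    by positivity, ?_⟩
  intro κ1' hk0 hk τ' ht0 ht
  have e1 : P * (e / (3 * (P + 1))) ≤ e / 3 := by
    rw [mul_div_assoc', div_le_div_iff₀ (by positivity) (by norm_num)]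
    nlinarith
  have e1' : e / (3 * (P + 1)) ≤ e / 3 := by
    apply div_le_div_of_nonneg_left he.le (by norm_num)
    linarith
  have e2 : G * τ' ≤ e / 3 := by
    calc G * τ' ≤ G * (e / (3 * (G + 1))) := by gcongr
      _ ≤ e / 3 := by
        rw [mul_div_assoc', div_le_div_iff₀ (by positivity) (by norm_num)]
        nlinarith
  have e3 : B * κ1' ≤ e / 3 := by
    calc B * κ1' ≤ B * (e / (3 * (B + 1))) := by gcongr
      _ ≤ e / 3 := by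
        rw [mul_div_assoc', div_le_div_iff₀ (by positivity) (by norm_num)]
        nlinarith
  have g1 : P * (1 / c0) ^ p * (3 * κ0) * τ' ≤ G * τ' := by
    gcongr; rw [hG]; linarith
  have g2 : (C1 + 1 / c0) ^ p * (3 * κ0) * τ' ≤ G * τ' := by
    gcongr; rw [hG]; linarith
  constructor
  · unfold Eacc
    rw [← hP]
    calc C1 ^ p * P * (κ1' * κ0 ^ 3) + P * (e / (3 * (P + 1)) + (1 / c0) ^ p * (3 * κ0 * τ'))
        = B * κ1' + P * (e / (3 * (P + 1))) + P * (1 / c0) ^ p * (3 * κ0) * τ' := by rw [hB]; ring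
      _ ≤ e / 3 + e / 3 + e / 3 := by linarith
      _ = e := by ring
  · calc e / (3 * (P + 1)) + (C1 + 1 / c0) ^ p * (3 * κ0 * τ')
        = e / (3 * (P + 1)) + (C1 + 1 / c0) ^ p * (3 * κ0) * τ' := by ring
      _ ≤ e / 3 + e / 3 := by linarith
      _ ≤ e := by linarith

end

end Crest.Agent.R096.Acc_365
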