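import Crest.Agent.R096.Acc3_365

/-!
Row 96 (S0127), helper365.  **EA-ACC**, part 4, "GROW": the exact core hypothesis `ExIn` for a slightly
larger ratio; the shifted larger core contains the core.
-/

set_option autoImplicit false
set_option linter.style.longLine false
set_option linter.unusedSectionVars false
set_option linter.unusedVariables false

open MeasureTheory Set Filter Topology Metric
open scoped ENNReal NNReal

namespace Crest.Agent.R096.Acc_365

open Crest.AnalysisR.VecCalc3 Crest.AnalysisR.Sobolev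
open Crest.Agent.R096.SkC1_961 (E3 Hom3)
open Crest.Agent.R096.Er_594 (SH3)
open Crest.Agent.R096.Bsp_628 Crest.Agent.R096.Brk5_582
open Crest.Agent.R096.Bxs_627 (ctr)
open Crest.Agent.R096.EaX_766 (lin cbx ExIn Kor)
open Crest.Agent.R096.Exa_365

noncomputable section

variable {p : ℝ} {Om La : Set E3} {f : E3 → E3} {D : E3 → E3 →L[ℝ] E3} {A : E3 ≃ᵃ[ℝ] E3}

theorem cbx_eq_Icc (Q : Bx (Fin 3)) (lam : ℝ) : cbx Q lam =
    Icc (fun k => ctr Q k - lam * Q.side k / 2) (fun k => ctr Q k + lam * Q.side k / 2) := by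
  ext y
  simp only [cbx, mem_Icc, Pi.le_def, abs_le]
  constructor
  · intro h
    exact ⟨fun k => by linarith [(h k).1], fun k => by linarith [(h k).2]⟩
  · intro h k
    exact ⟨by linarith [h.1 k], by linarith [h.2 k]⟩

theorem cbx_mono {Q : Bx (Fin 3)} (hQ : Q.Pos) {a b : ℝ} (h : a ≤ b) : cbx Q a ⊆ cbx Q b := by
  intro y hy k
  have := Bx.side_pos hQ k
  have h2 : a * Q.side k ≤ b * Q.side k := mul_le_mul_of_nonneg_right h this.le
  have h3 := hy k
  linarith

theorem isCompact_preimage (Q : Bx (Fin 3)) (r : ℝ) (A : E3 ≃ᵃ[ℝ] E3) : IsCompact (A ⁻¹' cbx Q r) := by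
  have h1 : A ⁻¹' cbx Q r = A.symm '' cbx Q r := by
    ext x
    constructor
    · intro hx
      exact ⟨A x, hx, A.symm_apply_apply x⟩
    · rintro ⟨y, hy, rfl⟩
      change A (A.symm y) ∈ cbx Q r
      rwa [A.apply_symm_apply]
  rw [h1, cbx_eq_Icc]
  exact isCompact_Icc.image (continuous_aff A.symm)

/-- a homeomorphism close to `A` over a box covers a smaller box -/
theorem cover_box (hLa : IsOpen La) (hf : Hom3 f Om La) {Q : Bx (Fin 3)} (hQ : Q.Pos) {r s η : ℝ}
    (hη : 0 ≤ η) (hs : 0 < s) (hηs : ∀ k, η ≤ s * Q.side k / 2)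
    (hrs : ∀ k, s * Q.side k / 2 + η < r * Q.side k / 2)
    (hc : ∀ x, A x ∈ cbx Q r → x ∈ Om ∧ ‖f x - A x‖ ≤ η) {x : E3} (hx : x ∈ Om) (hfx : f x ∈ cbx Q s) :
    A x ∈ cbx Q r := by
  obtain ⟨fi, hf1, hf2, hf3, hf4, hf5, hf6⟩ := hf
  set V : Set E3 := A ⁻¹' cbx Q r with hV
  set U : Set E3 := A ⁻¹' {y | ∀ k, |y k - ctr Q k| < r * Q.side k / 2} with hU
  have hUV : U ⊆ V := fun y hy k => (hy k).le
  have hVO : V ⊆ Om := fun y hy => (hc y hy).1
  have hUo : IsOpen U := by
    refine IsOpen.preimage (continuous_aff A) ?_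
    have h1 : {y : E3 | ∀ k, |y k - ctr Q k| < r * Q.side k / 2} =
        ⋂ k : Fin 3, {y : E3 | |y k - ctr Q k| < r * Q.side k / 2} := by
      ext y; simp
    rw [h1]
    refine isOpen_iInter_of_finite fun k => ?_
    exact isOpen_lt (by fun_prop) continuous_const
  have hfU : IsOpen (f '' U) := by
    have h1 : f '' U = La ∩ fi ⁻¹' U := by
      ext y
      constructor
      · rintro ⟨z, hz, rfl⟩
        refine ⟨hf1 (hVO (hUV hz)), ?_⟩
        rw [mem_preimage, hf3 z (hVO (hUV hz))]; exact hz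
      · rintro ⟨h1, h2⟩
        exact ⟨fi y, h2, hf4 y h1⟩
    rw [h1]
    exact hf6.isOpen_inter_preimage hLa hUo
  have hfV : IsClosed (f '' V) :=
    ((isCompact_preimage Q r A).image_of_continuousOn (hf5.mono hVO)).isClosed
  have hconn : IsPreconnected (cbx Q s) := by
    rw [cbx_eq_Icc]
    exact (convex_Icc _ _).isPreconnected
  have hnear : ∀ z ∈ V, ∀ k, |f z k - A z k| ≤ η := fun z hz k =>
    (norm_le_pi_norm (f z - A z) k).trans (hc z hz).2
  have hcov : cbx Q s ⊆ f '' U := by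
    refine IsPreconnected.subset_left_of_subset_union hfU hfV.isOpen_compl ?_ ?_ ?_ hconn
    · exact disjoint_compl_right.mono_left (image_mono hUV)
    · intro y hy
      by_cases hyV : y ∈ f '' V
      · obtain ⟨z, hz, rfl⟩ := hyV
        refine Or.inl ⟨z, fun k => ?_, rfl⟩
        have h1 := hnear z hz k
        have h2 := hy k
        have h3 := hrs k
        calc |A z k - ctr Q k| = |(f z k - ctr Q k) - (f z k - A z k)| := by congr 1; ring
          _ ≤ |f z k - ctr Q k| + |f z k - A z k| := abs_sub _ _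
          _ < r * Q.side k / 2 := by linarith
      · exact Or.inr hyV
    · have h0 : A (A.symm (ctr Q)) = ctr Q := A.apply_symm_apply _
      have hU0 : A.symm (ctr Q) ∈ U := by
        intro k
        rw [h0, sub_self, abs_zero]
        have := hηs k
        have := hrs k
        have := Bx.side_pos hQ k
        have : 0 < s * Q.side k := mul_pos hs this
        linarith
      refine ⟨f (A.symm (ctr Q)), fun k => ?_, ⟨_, hU0, rfl⟩⟩
      have h1 := hnear _ (hUV hU0) k
      rw [h0] at h1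
      exact h1.trans (hηs k)
  obtain ⟨z, hz, hzx⟩ := hcov hfx
  have h1 : z = x := by
    rw [← hf3 z (hVO (hUV hz)), hzx, hf3 x hx]
  rw [← h1]
  exact hUV hz

/-- **(1) GROW**: the exact core hypothesis for the larger ratio `(1 + θ) lam`. -/
theorem exIn_grow (hLa : IsOpen La) (hf : Hom3 f Om La) {o : E3} {u κ0 κ1 κ2 κ2' θ : ℝ}
    {Q : Bx (Fin 3)} {lam : ℝ} (hQ : Q.Pos) (hl : 0 < lam) (hκ0 : 0 ≤ κ0)
    (hκ : ∀ k, Q.sz ≤ κ0 * Q.side k) (hκ1 : 0 ≤ κ1) (hE : ExIn p Om f D o u κ1 κ2 Q A lam)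
    (hθ : 0 ≤ θ) (h1 : θ + 2 * (κ1 * κ0) < 2 * κ2) (h2 : κ1 * κ0 ≤ 1 / 2)
    (h3 : (1 + 2 * κ2') * (1 + θ) ≤ 1 + 2 * κ2) :
    ExIn p Om f D o u κ1 κ2' Q A ((1 + θ) * lam) := by
  have hsz := Bx.sz_pos hQ
  have hll : lam ≤ (1 + θ) * lam := by nlinarith
  have hsub : cbx Q ((1 + 2 * κ2') * ((1 + θ) * lam)) ⊆ cbx Q ((1 + 2 * κ2) * lam) := by
    refine cbx_mono hQ ?_
    rw [← mul_assoc]
    exact mul_le_mul_of_nonneg_right h3 hl.le
  have hmono : κ1 * (lam * Q.sz) ≤ κ1 * ((1 + θ) * lam * Q.sz) := by gcongr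
  refine ⟨hE.rat, ?_, ?_⟩
  · rintro x (⟨hx, hfx⟩ | hx)
    · have h4 : A x ∈ cbx Q ((1 + 2 * κ2) * lam) := by
        refine cover_box hLa hf hQ (r := (1 + 2 * κ2) * lam) (s := (1 + θ) * lam)
          (η := κ1 * (lam * Q.sz)) (by positivity) (by positivity) ?_ ?_
          (fun z hz => hE.cor z (Or.inr hz)) hx hfx
        · intro k
          have hk := Bx.side_pos hQ k
          calc κ1 * (lam * Q.sz) ≤ κ1 * (lam * (κ0 * Q.side k)) := by gcongr; exact hκ k
            _ = (κ1 * κ0) * (lam * Q.side k) := by ring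
            _ ≤ (1 / 2) * (lam * Q.side k) := by gcongr
            _ ≤ (1 + θ) * lam * Q.side k / 2 := by
                have : 0 ≤ θ * (lam * Q.side k) := by positivity
                nlinarith
        · intro k
          have hk := Bx.side_pos hQ k
          have h5 : κ1 * (lam * Q.sz) ≤ (κ1 * κ0) * (lam * Q.side k) := by
            calc κ1 * (lam * Q.sz) ≤ κ1 * (lam * (κ0 * Q.side k)) := by gcongr; exact hκ k
              _ = _ := by ring
          have h6 : 0 < lam * Q.side k := by positivity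
          nlinarith
      have h5 := hE.cor x (Or.inr h4)
      exact ⟨h5.1, h5.2.trans hmono⟩
    · have h5 := hE.cor x (Or.inr (hsub hx))
      exact ⟨h5.1, h5.2.trans hmono⟩
  · refine le_trans ?_ (hE.lp.trans ?_)
    · gcongr
    · apply ENNReal.ofReal_le_ofReal
      gcongr

/-- the shifted larger core contains the core -/
theorem K1_subset_K2 {Q : Bx (Fin 3)} {lam θ : ℝ} {v : E3}
    (hv : ∀ k, |lin A v k| ≤ θ * (lam * Q.side k) / 2) :
    K1 A Q lam ⊆ K2 A Q ((1 + θ) * lam) v := by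
  intro x hx k
  have h2 : A (x - v) = A x - lin A v := by
    rw [sub_eq_add_neg x v, aff_add A x (-v), map_neg, ← sub_eq_add_neg]
  rw [h2]
  have h3 := hx k
  have h4 := hv k
  calc |(A x - lin A v) k - ctr Q k| = |(A x k - ctr Q k) - lin A v k| := by
        congr 1; simp only [Pi.sub_apply]; ring
    _ ≤ |A x k - ctr Q k| + |lin A v k| := abs_sub _ _
    _ ≤ lam * Q.side k / 2 + θ * (lam * Q.side k) / 2 := add_le_add h3 h4
    _ = (1 + θ) * lam * Q.side k / 2 := by ring

theorem volume_K2_grow {Q : Bx (Fin 3)} (hQ : Q.Pos) {lam θ : ℝ} (hl : 0 ≤ lam) (hθ : 0 ≤ θ) (v : E3) :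
    volume (K2 A Q ((1 + θ) * lam) v) = ENNReal.ofReal ((1 + θ) ^ 3) * volume (K1 A Q lam) := by
  rw [volume_K2, volume_K1 hQ (by positivity), volume_K1 hQ hl, ← ENNReal.ofReal_mul (by positivity)]
  congr 1
  simp only [Fin.prod_univ_three]
  ring

theorem volume_grow_diff {Q : Bx (Fin 3)} (hQ : Q.Pos) {lam θ : ℝ} (hl : 0 ≤ lam) (hθ : 0 ≤ θ)
    (hθ1 : θ ≤ 1) {v : E3} (hv : ∀ k, |lin A v k| ≤ θ * (lam * Q.side k) / 2) :
    volume (K2 A Q ((1 + θ) * lam) v \ K1 A Q lam) ≤ ENNReal.ofReal (7 * θ) * volume (K1 A Q lam) := by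
  have hfin := volume_K1_ne_top (A := A) hQ hl
  rw [measure_diff (K1_subset_K2 hv) (measurableSet_K1 A Q lam).nullMeasurableSet hfin,
    volume_K2_grow hQ hl hθ v, tsub_le_iff_right]
  calc ENNReal.ofReal ((1 + θ) ^ 3) * volume (K1 A Q lam)
      ≤ ENNReal.ofReal (7 * θ + 1) * volume (K1 A Q lam) := by
        gcongr
        nlinarith [mul_nonneg hθ hθ, mul_nonneg (mul_nonneg hθ hθ) hθ,
          mul_le_mul_of_nonneg_left hθ1 hθ, mul_le_mul_of_nonneg_left hθ1 (mul_nonneg hθ hθ)]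
    _ = _ := by rw [ENNReal.ofReal_add (by positivity) zero_le_one, add_mul, ENNReal.ofReal_one, one_mul]

end

end Crest.Agent.R096.Acc_365
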