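import Crest.Agent.R096.Acc4_365

/-!
Row 96 (S0127), helper365.  **EA-ACC**, part 5, "GROW": the core and energy clauses of `EaX_766.EA` from
the energies off the shifted larger cores and the core inequality there; the sum of the inner layers.
-/

set_option autoImplicit false
set_option linter.style.longLine false
set_option linter.unusedSectionVars false
set_option linter.unusedVariables false

open MeasureTheory Set Filter Topology Metric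
open scoped ENNReal NNReal

namespace Crest.Agent.R096.Acc_365

open Crest.AnalysisR.VecCalc3 Crest.AnalysisR.Sobolev
open Crest.Agent.R096.SkC1_961 (E3 Hom3)
open Crest.Agent.R096.Er_594 (SH3)
open Crest.Agent.R096.Bsp_628 Crest.Agent.R096.Brk5_582
open Crest.Agent.R096.Bxs_627 (ctr)
open Crest.Agent.R096.EaX_766 (lin cbx ExIn Kor)
open Crest.Agent.R096.Exa_365

noncomputable section

variable {p : ℝ} {Om La : Set E3} {f : E3 → E3} {D : E3 → E3 →L[ℝ] E3} {A : E3 ≃ᵃ[ℝ] E3}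

theorem two_rpow {p : ℝ} (hp : 1 ≤ p) : (2:ℝ≥0∞) ^ (p - 1) = ENNReal.ofReal (2 ^ (p - 1)) := by
  rw [← ENNReal.ofReal_rpow_of_nonneg (by norm_num) (by linarith)]
  norm_num

/-- the energy of `h - b` on `S` from the energy of `h - a` -/
theorem energy_shift (hp : 1 ≤ p) {h : E3 → E3 →L[ℝ] E3} {a b : E3 →L[ℝ] E3} {S T : Set E3}
    (hST : S ⊆ T) : ∫⁻ x in S, ‖h x - b‖ₑ ^ p ≤
      ENNReal.ofReal (2 ^ (p - 1)) * ((∫⁻ x in T, ‖h x - a‖ₑ ^ p) + ‖a - b‖ₑ ^ p * volume S) := by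
  have hp0 : 0 ≤ p := zero_le_one.trans hp
  have h2p : (2:ℝ≥0∞) ^ (p - 1) ≠ ∞ := ENNReal.rpow_ne_top_of_nonneg (by linarith) (by norm_num)
  rw [← two_rpow hp]
  calc ∫⁻ x in S, ‖h x - b‖ₑ ^ p
      ≤ ∫⁻ x in S, (2:ℝ≥0∞) ^ (p - 1) * (‖h x - a‖ₑ ^ p + ‖a - b‖ₑ ^ p) := by
        refine lintegral_mono fun x => ?_
        have h4 : ‖h x - b‖ₑ ≤ ‖h x - a‖ₑ + ‖a - b‖ₑ := by
          have h5 := enorm_add_le (h x - a) (a - b)
          rwa [sub_add_sub_cancel] at h5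
        exact (ENNReal.rpow_le_rpow h4 hp0).trans (ENNReal.rpow_add_le_mul_rpow_add_rpow _ _ hp)
    _ = (2:ℝ≥0∞) ^ (p - 1) * ((∫⁻ x in S, ‖h x - a‖ₑ ^ p) + ‖a - b‖ₑ ^ p * volume S) := by
        rw [lintegral_const_mul' _ _ h2p, lintegral_add_right _ measurable_const, setLIntegral_const]
    _ ≤ _ := by
        gcongr

section one

variable {Q : Bx (Fin 3)} {lam θ e1 : ℝ} {v : E3} {h : E3 → E3 →L[ℝ] E3}

/-- **(2) core clause on the core from the core clause on the shifted larger core** -/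
theorem core_grow (hp : 1 ≤ p) (hQ : Q.Pos) (hl : 0 < lam) (hθ : 0 ≤ θ) (hθ1 : θ ≤ 1)
    (hv : ∀ k, |lin A v k| ≤ θ * (lam * Q.side k) / 2) (he1 : 0 ≤ e1)
    (hcore : ∫⁻ x in K2 A Q ((1 + θ) * lam) v, ‖h x - ((1 + θ) * lam)⁻¹ • lin A‖ₑ ^ p ≤
      ENNReal.ofReal e1 * (‖lin A‖ₑ ^ p * volume (K2 A Q ((1 + θ) * lam) v))) :
    ∫⁻ x in K1 A Q lam, ‖h x - lam⁻¹ • lin A‖ₑ ^ p ≤
      ENNReal.ofReal (2 ^ (p - 1) * (8 * e1 + (θ / lam) ^ p)) * (‖lin A‖ₑ ^ p * volume (K1 A Q lam)) := by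
  have hp0 : 0 ≤ p := zero_le_one.trans hp
  have h1 := energy_shift hp (h := h) (a := ((1 + θ) * lam)⁻¹ • lin A) (b := lam⁻¹ • lin A)
    (K1_subset_K2 hv)
  have h2 : ‖((1 + θ) * lam)⁻¹ • lin A - lam⁻¹ • lin A‖ₑ ^ p ≤
      ENNReal.ofReal ((θ / lam) ^ p) * ‖lin A‖ₑ ^ p := by
    have h3 : ‖((1 + θ) * lam)⁻¹ • lin A - lam⁻¹ • lin A‖ₑ ≤ ENNReal.ofReal (θ / lam) * ‖lin A‖ₑ := by
      rw [show ((1 + θ) * lam)⁻¹ • lin A - lam⁻¹ • lin A = (((1 + θ) * lam)⁻¹ - lam⁻¹) • lin A from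
        (sub_smul _ _ _).symm, enorm_smul]
      gcongr
      rw [Real.enorm_eq_ofReal_abs]
      apply ENNReal.ofReal_le_ofReal
      have h4 : ((1 + θ) * lam)⁻¹ - lam⁻¹ = -(θ / ((1 + θ) * lam)) := by
        field_simp
        ring
      rw [h4, abs_neg, abs_of_nonneg (by positivity)]
      apply div_le_div_of_nonneg_left hθ hl
      nlinarith
    calc _ ≤ (ENNReal.ofReal (θ / lam) * ‖lin A‖ₑ) ^ p := ENNReal.rpow_le_rpow h3 hp0
      _ = _ := by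
        rw [ENNReal.mul_rpow_of_nonneg _ _ hp0, ENNReal.ofReal_rpow_of_nonneg (by positivity) hp0]
  calc ∫⁻ x in K1 A Q lam, ‖h x - lam⁻¹ • lin A‖ₑ ^ p
      ≤ ENNReal.ofReal (2 ^ (p - 1)) * ((∫⁻ x in K2 A Q ((1 + θ) * lam) v,
          ‖h x - ((1 + θ) * lam)⁻¹ • lin A‖ₑ ^ p) +
          ‖((1 + θ) * lam)⁻¹ • lin A - lam⁻¹ • lin A‖ₑ ^ p * volume (K1 A Q lam)) := h1
    _ ≤ ENNReal.ofReal (2 ^ (p - 1)) * (ENNReal.ofReal e1 * (‖lin A‖ₑ ^ p *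
          (ENNReal.ofReal 8 * volume (K1 A Q lam))) +
          ENNReal.ofReal ((θ / lam) ^ p) * ‖lin A‖ₑ ^ p * volume (K1 A Q lam)) := by
        gcongr
        refine hcore.trans ?_
        rw [volume_K2_grow hQ hl.le hθ v]
        gcongr
        nlinarith [mul_nonneg hθ hθ, mul_nonneg (mul_nonneg hθ hθ) hθ,
          mul_le_mul_of_nonneg_left hθ1 hθ, mul_le_mul_of_nonneg_left hθ1 (mul_nonneg hθ hθ)]
    _ = _ := by
        have hq : 0 ≤ (θ / lam) ^ p := Real.rpow_nonneg (by positivity) _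
        rw [ENNReal.ofReal_mul (p := 2 ^ (p - 1)) (q := 8 * e1 + (θ / lam) ^ p) (by positivity),
          ENNReal.ofReal_add (p := 8 * e1) (q := (θ / lam) ^ p) (by positivity) hq,
          ENNReal.ofReal_mul (p := 8) (q := e1) (by norm_num)]
        ring

/-- the energy of the shifted larger core outside the core -/
theorem zone_grow (hp : 1 ≤ p) (hQ : Q.Pos) (hl : 0 < lam) (hθ : 0 ≤ θ) (hθ1 : θ ≤ 1)
    (hv : ∀ k, |lin A v k| ≤ θ * (lam * Q.side k) / 2) (he1 : 0 ≤ e1)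
    (hcore : ∫⁻ x in K2 A Q ((1 + θ) * lam) v, ‖h x - ((1 + θ) * lam)⁻¹ • lin A‖ₑ ^ p ≤
      ENNReal.ofReal e1 * (‖lin A‖ₑ ^ p * volume (K2 A Q ((1 + θ) * lam) v))) :
    ∫⁻ x in K2 A Q ((1 + θ) * lam) v \ K1 A Q lam, ‖h x‖ₑ ^ p ≤
      ENNReal.ofReal (2 ^ (p - 1) * (8 * e1 + (1 / lam) ^ p * (7 * θ))) *
        (‖lin A‖ₑ ^ p * volume (K1 A Q lam)) := by
  have hp0 : 0 ≤ p := zero_le_one.trans hp
  have h1 := energy_shift hp (h := h) (a := ((1 + θ) * lam)⁻¹ • lin A) (b := 0)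
    (S := K2 A Q ((1 + θ) * lam) v \ K1 A Q lam) (T := K2 A Q ((1 + θ) * lam) v) diff_subset
  simp only [sub_zero] at h1
  have h2 : ‖((1 + θ) * lam)⁻¹ • lin A‖ₑ ^ p ≤ ENNReal.ofReal ((1 / lam) ^ p) * ‖lin A‖ₑ ^ p := by
    have h3 : ‖((1 + θ) * lam)⁻¹ • lin A‖ₑ ≤ ENNReal.ofReal (1 / lam) * ‖lin A‖ₑ := by
      rw [enorm_smul]
      gcongr
      rw [Real.enorm_eq_ofReal_abs]
      apply ENNReal.ofReal_le_ofReal
      rw [abs_of_nonneg (by positivity), one_div]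
      apply inv_anti₀ hl
      nlinarith
    calc _ ≤ (ENNReal.ofReal (1 / lam) * ‖lin A‖ₑ) ^ p := ENNReal.rpow_le_rpow h3 hp0
      _ = _ := by
        rw [ENNReal.mul_rpow_of_nonneg _ _ hp0, ENNReal.ofReal_rpow_of_nonneg (by positivity) hp0]
  calc ∫⁻ x in K2 A Q ((1 + θ) * lam) v \ K1 A Q lam, ‖h x‖ₑ ^ p
      ≤ ENNReal.ofReal (2 ^ (p - 1)) * ((∫⁻ x in K2 A Q ((1 + θ) * lam) v,
          ‖h x - ((1 + θ) * lam)⁻¹ • lin A‖ₑ ^ p) +
          ‖((1 + θ) * lam)⁻¹ • lin A‖ₑ ^ p * volume (K2 A Q ((1 + θ) * lam) v \ K1 A Q lam)) := h1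
    _ ≤ ENNReal.ofReal (2 ^ (p - 1)) * (ENNReal.ofReal e1 * (‖lin A‖ₑ ^ p *
          (ENNReal.ofReal 8 * volume (K1 A Q lam))) +
          ENNReal.ofReal ((1 / lam) ^ p) * ‖lin A‖ₑ ^ p *
            (ENNReal.ofReal (7 * θ) * volume (K1 A Q lam))) := by
        gcongr
        · refine hcore.trans ?_
          rw [volume_K2_grow hQ hl.le hθ v]
          gcongr
          nlinarith [mul_nonneg hθ hθ, mul_nonneg (mul_nonneg hθ hθ) hθ,
            mul_le_mul_of_nonneg_left hθ1 hθ, mul_le_mul_of_nonneg_left hθ1 (mul_nonneg hθ hθ)]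
        · exact volume_grow_diff hQ hl.le hθ hθ1 hv
    _ = _ := by
        have hq : 0 ≤ (1 / lam) ^ p := Real.rpow_nonneg (by positivity) _
        rw [ENNReal.ofReal_mul (p := 2 ^ (p - 1)) (q := 8 * e1 + (1 / lam) ^ p * (7 * θ)) (by positivity),
          ENNReal.ofReal_add (p := 8 * e1) (q := (1 / lam) ^ p * (7 * θ)) (by positivity) (by positivity),
          ENNReal.ofReal_mul (p := 8) (q := e1) (by norm_num),
          ENNReal.ofReal_mul (p := (1 / lam) ^ p) (q := 7 * θ) hq]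
        ring

end one

/-- the data of the accounting with larger shifted cores -/
structure GrowD (p c0 θ e1 : ℝ) (F : Set (Bx (Fin 3))) (X : Set F) (A : F → E3 ≃ᵃ[ℝ] E3)
    (lam : F → ℝ) (v : F → E3) (g : E3 → E3 →L[ℝ] E3) : Prop where
  cnt : F.Countable
  pos : ∀ c ∈ X, c.1.Pos
  hc0 : 0 < c0
  hθ : 0 ≤ θ
  hθ1 : θ ≤ 1
  he1 : 0 ≤ e1
  hlam : ∀ c ∈ X, c0 ≤ lam c
  shift : ∀ c ∈ X, ∀ k, |lin (A c) (v c) k| ≤ θ * (lam c * c.1.side k) / 2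
  core : ∀ c ∈ X, ∫⁻ x in K2 (A c) c.1 ((1 + θ) * lam c) (v c),
      ‖g x - ((1 + θ) * lam c)⁻¹ • lin (A c)‖ₑ ^ p ≤
    ENNReal.ofReal e1 * (‖lin (A c)‖ₑ ^ p * volume (K2 (A c) c.1 ((1 + θ) * lam c) (v c)))

/-- the constants of `GROW` -/
def Ecore (p c0 θ e1 : ℝ) : ℝ := 2 ^ (p - 1) * (8 * e1 + (θ / c0) ^ p)

def Ezone (p c0 θ e1 : ℝ) : ℝ := 2 ^ (p - 1) * (8 * e1 + (1 / c0) ^ p * (7 * θ))

variable {c0 θ e1 : ℝ} {F : Set (Bx (Fin 3))} {X : Set F}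
  {A : F → E3 ≃ᵃ[ℝ] E3} {lam : F → ℝ} {v : F → E3} {g : E3 → E3 →L[ℝ] E3}

theorem GrowD.core1 (hp : 1 ≤ p) (H : GrowD p c0 θ e1 F X A lam v g) {c : F} (hc : c ∈ X) :
    ∫⁻ x in Kor F A lam c, ‖g x - (lam c)⁻¹ • lin (A c)‖ₑ ^ p ≤
      ENNReal.ofReal (Ecore p c0 θ e1) * (‖lin (A c)‖ₑ ^ p * volume (Kor F A lam c)) := by
  have hl : 0 < lam c := H.hc0.trans_le (H.hlam c hc)
  refine (core_grow hp (H.pos c hc) hl H.hθ H.hθ1 (H.shift c hc) H.he1 (H.core c hc)).trans ?_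
  change _ ≤ ENNReal.ofReal (Ecore p c0 θ e1) * (‖lin (A c)‖ₑ ^ p * volume (K1 (A c) c.1 (lam c)))
  have h2 : (θ / lam c) ^ p ≤ (θ / c0) ^ p :=
    Real.rpow_le_rpow (div_nonneg H.hθ hl.le)
      (div_le_div_of_nonneg_left H.hθ H.hc0 (H.hlam c hc)) (zero_le_one.trans hp)
  unfold Ecore
  gcongr

theorem GrowD.zone1 (hp : 1 ≤ p) (H : GrowD p c0 θ e1 F X A lam v g) {c : F} (hc : c ∈ X) :
    ∫⁻ x in K2 (A c) c.1 ((1 + θ) * lam c) (v c) \ Kor F A lam c, ‖g x‖ₑ ^ p ≤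
      ENNReal.ofReal (Ezone p c0 θ e1) * (‖lin (A c)‖ₑ ^ p * volume (Kor F A lam c)) := by
  have hl : 0 < lam c := H.hc0.trans_le (H.hlam c hc)
  refine (zone_grow hp (H.pos c hc) hl H.hθ H.hθ1 (H.shift c hc) H.he1 (H.core c hc)).trans ?_
  change _ ≤ ENNReal.ofReal (Ezone p c0 θ e1) * (‖lin (A c)‖ₑ ^ p * volume (K1 (A c) c.1 (lam c)))
  have h2 : (1 / lam c) ^ p ≤ (1 / c0) ^ p :=
    Real.rpow_le_rpow (by positivity) (one_div_le_one_div_of_le H.hc0 (H.hlam c hc))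
      (zero_le_one.trans hp)
  have hθ := H.hθ
  unfold Ezone
  gcongr

/-- **(3) the accounting with larger shifted cores** -/
theorem GrowD.acc (hp : 1 ≤ p) (H : GrowD p c0 θ e1 F X A lam v g) {C2 e2 J : ℝ≥0∞} {E2 : ℝ}
    (hE2 : 0 ≤ E2)
    (hout : ∫⁻ x in Om \ ⋃ c ∈ X, K2 (A c) c.1 ((1 + θ) * lam c) (v c), ‖g x‖ₑ ^ p ≤
      C2 * J + ENNReal.ofReal E2 * (∑' c : X, (1 + ‖lin (A c)‖ₑ ^ p) * volume (Kor F A lam c)) + e2) :
    ∫⁻ x in Om \ ⋃ c ∈ X, Kor F A lam c, ‖g x‖ₑ ^ p ≤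
      C2 * J + ENNReal.ofReal (E2 + Ezone p c0 θ e1) *
        (∑' c : X, (1 + ‖lin (A c)‖ₑ ^ p) * volume (Kor F A lam c)) + e2 := by
  classical
  have : Countable F := H.cnt.to_subtype
  set Z : X → Set E3 := fun c => K2 (A c) c.1.1 ((1 + θ) * lam c) (v c) \ Kor F A lam c with hZ
  have hEz : 0 ≤ Ezone p c0 θ e1 := by
    have h1 := H.hθ
    have h2 := H.he1
    have h3 := H.hc0
    have h4 : 0 ≤ (1 / c0) ^ p := Real.rpow_nonneg (by positivity) _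
    unfold Ezone
    positivity
  have hsub : Om \ ⋃ c ∈ X, Kor F A lam c ⊆
      (Om \ ⋃ c ∈ X, K2 (A c) c.1 ((1 + θ) * lam c) (v c)) ∪ ⋃ c : X, Z c := by
    rintro x ⟨hx1, hx2⟩
    by_cases hx3 : x ∈ ⋃ c ∈ X, K2 (A c) c.1 ((1 + θ) * lam c) (v c)
    · simp only [mem_iUnion] at hx3
      obtain ⟨c, hc, hxc⟩ := hx3
      refine Or.inr (mem_iUnion.2 ⟨⟨c, hc⟩, hxc, fun h => hx2 ?_⟩)
      exact mem_iUnion₂.2 ⟨c, hc, h⟩
    · exact Or.inl ⟨hx1, hx3⟩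
  calc ∫⁻ x in Om \ ⋃ c ∈ X, Kor F A lam c, ‖g x‖ₑ ^ p
      ≤ ∫⁻ x in (Om \ ⋃ c ∈ X, K2 (A c) c.1 ((1 + θ) * lam c) (v c)) ∪ ⋃ c : X, Z c, ‖g x‖ₑ ^ p :=
        lintegral_mono_set hsub
    _ ≤ (∫⁻ x in Om \ ⋃ c ∈ X, K2 (A c) c.1 ((1 + θ) * lam c) (v c), ‖g x‖ₑ ^ p) +
          ∫⁻ x in ⋃ c : X, Z c, ‖g x‖ₑ ^ p := lintegral_union_le _ _ _
    _ ≤ (C2 * J + ENNReal.ofReal E2 *
          (∑' c : X, (1 + ‖lin (A c)‖ₑ ^ p) * volume (Kor F A lam c)) + e2) +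
          ∑' c : X, ∫⁻ x in Z c, ‖g x‖ₑ ^ p := add_le_add hout (lintegral_iUnion_le _ _)
    _ ≤ (C2 * J + ENNReal.ofReal E2 *
          (∑' c : X, (1 + ‖lin (A c)‖ₑ ^ p) * volume (Kor F A lam c)) + e2) +
          ∑' c : X, ENNReal.ofReal (Ezone p c0 θ e1) *
            ((1 + ‖lin (A c)‖ₑ ^ p) * volume (Kor F A lam c)) := by
        gcongr with c
        refine (H.zone1 hp c.2).trans ?_
        gcongr
        exact le_add_self
    _ = _ := by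
        rw [ENNReal.tsum_mul_left, ENNReal.ofReal_add hE2 hEz]
        ring

/-- the `L^p` norm of the defect over a part of the collar -/
theorem gd_lp {o : E3} {u κ1 κ2 κ0 : ℝ} (hκ1 : 0 ≤ κ1)
    {A : E3 ≃ᵃ[ℝ] E3} {Q : Bx (Fin 3)} (hQ : Q.Pos) {lam : ℝ} (hl : 0 ≤ lam)
    (hκ : ∀ k, Q.sz ≤ κ0 * Q.side k) (hE : ExIn p Om f D o u κ1 κ2 Q A lam) {S : Set E3}
    (hSV : S ⊆ A ⁻¹' cbx Q ((1 + 2 * κ2) * lam)) :
    ∫⁻ x in S, Gd A D x ^ p ≤ ENNReal.ofReal (κ1 * κ0 ^ 3) * volume (K1 A Q lam) := by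
  have hd : 0 < |(lin A).det| := abs_pos.2 (det_lin_ne A)
  have h1 := hE.lp
  have h2 : ENNReal.ofReal |(lin A).det|⁻¹ * ENNReal.ofReal |(lin A).det| = 1 := by
    rw [← ENNReal.ofReal_mul (by positivity), inv_mul_cancel₀ hd.ne', ENNReal.ofReal_one]
  calc ∫⁻ x in S, Gd A D x ^ p ≤ ∫⁻ x in A ⁻¹' cbx Q ((1 + 2 * κ2) * lam), Gd A D x ^ p :=
        lintegral_mono_set hSV
    _ = ENNReal.ofReal |(lin A).det|⁻¹ * (ENNReal.ofReal |(lin A).det| *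
          ∫⁻ x in A ⁻¹' cbx Q ((1 + 2 * κ2) * lam), Gd A D x ^ p) := by
        rw [← mul_assoc, h2, one_mul]
    _ ≤ ENNReal.ofReal |(lin A).det|⁻¹ * ENNReal.ofReal (κ1 * (lam * Q.sz) ^ 3) := by
        gcongr; exact h1
    _ = ENNReal.ofReal κ1 * ENNReal.ofReal (|(lin A).det|⁻¹ * (lam * Q.sz) ^ 3) := by
        rw [ENNReal.ofReal_mul hκ1, ENNReal.ofReal_mul (by positivity : (0:ℝ) ≤ |(lin A).det|⁻¹)]
        ring
    _ ≤ ENNReal.ofReal κ1 * (ENNReal.ofReal (κ0 ^ 3) * volume (K1 A Q lam)) := by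
        gcongr; exact cube_le_vol hQ hl hκ (Bx.sz_pos hQ).le
    _ = _ := by rw [ENNReal.ofReal_mul hκ1, mul_assoc]

/-- **(4) the inner layers**, one brick: the mean energies of the inner tiles, as given by `act_avg`
with `c_j = ‖lin A v_j‖` and `H = ‖D o (lin A)⁻¹‖`. -/
theorem inner_one (hp : 1 ≤ p) (h : SH3 p Om La f D) {o : E3} {u κ1 κ2 κ0 : ℝ} (hκ1 : 0 ≤ κ1)
    {A : E3 ≃ᵃ[ℝ] E3} {Q : Bx (Fin 3)} (hQ : Q.Pos) {lam : ℝ} (hl : 0 ≤ lam)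
    (hκ : ∀ k, Q.sz ≤ κ0 * Q.side k) (hE : ExIn p Om f D o u κ1 κ2 Q A lam) {S : Set E3}
    (hS : MeasurableSet S) (hSV : S ⊆ A ⁻¹' cbx Q ((1 + 2 * κ2) * lam)) :
    ‖lin A‖ₑ ^ p * (∫⁻ x in S, ‖(D x).comp (lin A.symm)‖ₑ ^ p) ≤
      ENNReal.ofReal (4 ^ p) * ((∫⁻ x in S, ‖D x‖ₑ ^ p) +
      ENNReal.ofReal (κ1 * κ0 ^ 3) * (‖lin A‖ₑ ^ p * volume (K1 A Q lam))) := by
  have hp0 : 0 ≤ p := zero_le_one.trans hp
  have h2p : (2:ℝ≥0∞) ^ (p - 1) ≠ ∞ := ENNReal.rpow_ne_top_of_nonneg (by linarith) (by norm_num)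
  have hm := exin_mass hp h hκ1 hQ hl hκ (Bx.sz_pos hQ).le hE hS hSV
  have hg := gd_lp (p := p) (Om := Om) (f := f) (D := D) hκ1 hQ hl hκ hE hSV
  set J := ∫⁻ x in S, ‖D x‖ₑ ^ p with hJ
  set T := ‖lin A‖ₑ ^ p * volume (K1 A Q lam) with hT
  set k := ENNReal.ofReal (κ1 * κ0 ^ 3) with hk
  set P := (2:ℝ≥0∞) ^ (p - 1) with hP
  have hP1 : 1 ≤ P := by
    rw [hP]
    calc (1:ℝ≥0∞) = 1 ^ (p - 1) := (ENNReal.one_rpow _).symm
      _ ≤ 2 ^ (p - 1) := ENNReal.rpow_le_rpow (by norm_num) (by linarith)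
  have hPP : P * P + P ≤ ENNReal.ofReal (4 ^ p) := by
    have h3 : P * P + P ≤ 2 * (P * P) := by
      rw [two_mul]
      gcongr
      exact le_mul_of_one_le_left' hP1
    refine h3.trans ?_
    rw [hP, two_rpow hp]
    have h4 : (2:ℝ≥0∞) = ENNReal.ofReal 2 := by norm_num
    rw [h4, ← ENNReal.ofReal_mul (by positivity), ← ENNReal.ofReal_mul (by norm_num)]
    apply ENNReal.ofReal_le_ofReal
    have h5 : (4:ℝ) ^ p = 2 ^ p * 2 ^ p := by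
      rw [← Real.mul_rpow (by norm_num) (by norm_num)]; norm_num
    have h6 : (2:ℝ) ^ p = 2 * 2 ^ (p - 1) := by
      rw [Real.rpow_sub_one (by norm_num)]
      field_simp
    rw [h5, h6]
    have h7 : (0:ℝ) < 2 ^ (p - 1) := by positivity
    nlinarith [mul_pos h7 h7]
  have hb : ∫⁻ x in S, ‖(D x).comp (lin A.symm)‖ₑ ^ p ≤ P * (volume S + ∫⁻ x in S, Gd A D x ^ p) := by
    calc ∫⁻ x in S, ‖(D x).comp (lin A.symm)‖ₑ ^ p
        ≤ ∫⁻ x in S, P * (1 + Gd A D x ^ p) := by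
          refine lintegral_mono fun x => ?_
          have h3 : ‖(D x).comp (lin A.symm)‖ₑ ≤ 1 + Gd A D x := by
            have h5 := enorm_add_le (ContinuousLinearMap.id ℝ E3)
              ((D x).comp (lin A.symm) - ContinuousLinearMap.id ℝ E3)
            have h6 : ContinuousLinearMap.id ℝ E3 +
                ((D x).comp (lin A.symm) - ContinuousLinearMap.id ℝ E3) =
                (D x).comp (lin A.symm) := by abel
            rw [h6] at h5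
            refine h5.trans (add_le_add ?_ le_rfl)
            rw [← ofReal_norm_eq_enorm, ← ENNReal.ofReal_one]
            exact ENNReal.ofReal_le_ofReal ContinuousLinearMap.norm_id_le
          calc ‖(D x).comp (lin A.symm)‖ₑ ^ p ≤ (1 + Gd A D x) ^ p := ENNReal.rpow_le_rpow h3 hp0
            _ ≤ P * ((1:ℝ≥0∞) ^ p + Gd A D x ^ p) := ENNReal.rpow_add_le_mul_rpow_add_rpow _ _ hp
            _ = _ := by rw [ENNReal.one_rpow]
      _ = P * (volume S + ∫⁻ x in S, Gd A D x ^ p) := by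
          rw [lintegral_const_mul' _ _ h2p, lintegral_add_left measurable_const, setLIntegral_const,
            one_mul]
  calc ‖lin A‖ₑ ^ p * (∫⁻ x in S, ‖(D x).comp (lin A.symm)‖ₑ ^ p)
      ≤ ‖lin A‖ₑ ^ p * (P * (volume S + k * volume (K1 A Q lam))) := by
        gcongr
        refine hb.trans ?_
        gcongr
    _ = P * (‖lin A‖ₑ ^ p * volume S) + P * (k * T) := by rw [hT]; ring
    _ ≤ P * (P * (J + k * T)) + P * (J + k * T) := by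
        gcongr
        exact le_add_self
    _ = (P * P + P) * (J + k * T) := by ring
    _ ≤ ENNReal.ofReal (4 ^ p) * (J + k * T) := by gcongr

/-- **(4) the inner layers**, all bricks -/
theorem inner_sum (hp : 1 ≤ p) (h : SH3 p Om La f D) {o : E3} {u κ1 κ2 κ0 : ℝ} (hκ1 : 0 ≤ κ1)
    (hFc : F.Countable) (hpos : ∀ c ∈ X, c.1.Pos) (hl : ∀ c ∈ X, 0 ≤ lam c)
    (hκ : ∀ c ∈ X, ∀ k, c.1.sz ≤ κ0 * c.1.side k)
    (hE : ∀ c ∈ X, ExIn p Om f D o u κ1 κ2 c.1 (A c) (lam c)) {S : F → Set E3}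
    (hS : ∀ c ∈ X, MeasurableSet (S c)) (hSV : ∀ c ∈ X, S c ⊆ A c ⁻¹' cbx c.1 ((1 + 2 * κ2) * lam c))
    (hSd : X.PairwiseDisjoint S) (hSK : ∀ c ∈ X, ∀ c' ∈ X, Disjoint (S c) (Kor F A lam c'))
    {Fn : F → ℝ≥0∞} {K3 : ℝ≥0∞}
    (hF : ∀ c ∈ X, Fn c ≤ K3 * (‖lin (A c)‖ₑ ^ p * ∫⁻ x in S c, ‖(D x).comp (lin (A c).symm)‖ₑ ^ p)) :
    ∑' c : X, Fn c ≤ K3 * ENNReal.ofReal (4 ^ p) *
      ((∫⁻ x in Om \ ⋃ c ∈ X, Kor F A lam c, (1 + ‖D x‖ₑ ^ p)) +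
      ENNReal.ofReal (κ1 * κ0 ^ 3) * ∑' c : X, (1 + ‖lin (A c)‖ₑ ^ p) * volume (Kor F A lam c)) := by
  classical
  have : Countable F := hFc.to_subtype
  have hsub : (⋃ c : X, S c) ⊆ Om \ ⋃ c ∈ X, Kor F A lam c := by
    intro x hx
    obtain ⟨c, hc⟩ := mem_iUnion.1 hx
    refine ⟨((hE c c.2).cor x (Or.inr (hSV c c.2 hc))).1, fun h => ?_⟩
    obtain ⟨c', hc', hx'⟩ := mem_iUnion₂.1 h
    exact disjoint_left.1 (hSK c c.2 c' hc') hc hx'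
  have hd : Pairwise (Function.onFun Disjoint fun c : X => S c) := fun c c' hcc =>
    hSd c.2 c'.2 fun h => hcc (Subtype.ext h)
  calc ∑' c : X, Fn c
      ≤ ∑' c : X, K3 * (ENNReal.ofReal (4 ^ p) * ((∫⁻ x in S c, ‖D x‖ₑ ^ p) +
          ENNReal.ofReal (κ1 * κ0 ^ 3) * ((1 + ‖lin (A c)‖ₑ ^ p) * volume (Kor F A lam c)))) := by
        refine ENNReal.tsum_le_tsum fun c => (hF c c.2).trans ?_
        refine mul_le_mul' le_rfl ((inner_one hp h hκ1 (hpos c c.2) (hl c c.2) (hκ c c.2) (hE c c.2)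
          (hS c c.2) (hSV c c.2)).trans ?_)
        refine mul_le_mul' le_rfl (add_le_add le_rfl (mul_le_mul' le_rfl ?_))
        exact mul_le_mul' le_add_self le_rfl
    _ = K3 * ENNReal.ofReal (4 ^ p) * ((∑' c : X, ∫⁻ x in S c, ‖D x‖ₑ ^ p) +
          ENNReal.ofReal (κ1 * κ0 ^ 3) *
            ∑' c : X, (1 + ‖lin (A c)‖ₑ ^ p) * volume (Kor F A lam c)) := by
        rw [ENNReal.tsum_mul_left, ENNReal.tsum_mul_left, ENNReal.tsum_add, ENNReal.tsum_mul_left,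
          mul_assoc]
    _ ≤ _ := by
        refine mul_le_mul' le_rfl (add_le_add ?_ le_rfl)
        rw [← lintegral_iUnion (fun c : X => hS c c.2) hd]
        exact (lintegral_mono_set hsub).trans (lintegral_mono fun x => le_add_self)

/-- **(5) choice of `e1` and `θ`** -/
theorem grow_choice (p : ℝ) (hp : 1 ≤ p) {c0 e : ℝ} (hc0 : 0 < c0) (he : 0 < e) :
    ∃ e1 θ0 : ℝ, 0 < e1 ∧ 0 < θ0 ∧ θ0 ≤ 1 ∧ ∀ θ, 0 ≤ θ → θ ≤ θ0 →
      Ecore p c0 θ e1 ≤ e ∧ Ezone p c0 θ e1 ≤ e := by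
  set P : ℝ := 2 ^ (p - 1) with hP
  have hPp : 0 < P := Real.rpow_pos_of_pos (by norm_num) _
  have hc1 : 0 < (1 / c0) ^ p := Real.rpow_pos_of_pos (by positivity) _
  have ht : Tendsto (fun θ : ℝ => P * (1 / c0) ^ p * 7 * θ + P * (θ / c0) ^ p) (𝓝 0) (𝓝 0) := by
    have h1 : Tendsto (fun θ : ℝ => P * (1 / c0) ^ p * 7 * θ) (𝓝 0) (𝓝 0) := by
      have : Continuous fun θ : ℝ => P * (1 / c0) ^ p * 7 * θ := by fun_prop
      have := this.tendsto 0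
      simpa using this
    have h2 : Tendsto (fun θ : ℝ => P * (θ / c0) ^ p) (𝓝 0) (𝓝 0) := by
      have h3 : Continuous fun θ : ℝ => P * (θ / c0) ^ p := by
        have : Continuous fun θ : ℝ => θ / c0 := by fun_prop
        exact continuous_const.mul (this.rpow_const fun _ => Or.inr (by linarith))
      have := h3.tendsto 0
      simpa [Real.zero_rpow (by linarith : p ≠ 0)] using this
    simpa using h1.add h2
  have he2 : 0 < e / 2 := by positivity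
  obtain ⟨r, hr, h1⟩ := Metric.tendsto_nhds_nhds.1 ht (e / 2) he2
  refine ⟨e / (16 * P), min 1 (r / 2), by positivity, by positivity, min_le_left _ _, ?_⟩
  intro θ h0 h2
  have h3 := h1 (x := θ) (by
    rw [Real.dist_eq, sub_zero, abs_of_nonneg h0]
    have := h2.trans (min_le_right _ _)
    linarith)
  rw [Real.dist_eq, sub_zero] at h3
  have h4 : 0 ≤ P * (1 / c0) ^ p * 7 * θ := by positivity
  have h5 : 0 ≤ P * (θ / c0) ^ p := by positivity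
  have h6 := (abs_lt.1 h3).2
  have h7 : P * (8 * (e / (16 * P))) = e / 2 := by field_simp; ring
  constructor
  · unfold Ecore
    rw [← hP, mul_add, h7]
    linarith
  · unfold Ezone
    rw [← hP, mul_add, h7]
    have : P * ((1 / c0) ^ p * (7 * θ)) = P * (1 / c0) ^ p * 7 * θ := by ring
    linarith

end

end Crest.Agent.R096.Acc_365
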