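import Crest.Agent.R096.Ub4_113

/-!
# Row 96, 2SK for tiles (helper812), part 1: the Minkowski gauge of an affine image of a tile
-/

set_option autoImplicit false
set_option linter.unusedSectionVars false

open Set Metric

namespace Crest.Agent.R096.Sk3_812

open Crest.Agent.R096.Msh_715
open Crest.Agent.R096.Ce_537
open Crest.Agent.R096.Sk2_855
open Crest.Agent.R096.Ub_113

section gauge

variable {E : Type*} [NormedAddCommGroup E] [NormedSpace ℝ E] [FiniteDimensional ℝ E]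

/-- a gauge with centre `C` -/
structure UG (u : E → ℝ) (C : E) : Prop where
  cont : Continuous u
  pl : PLOn u univ
  lip : ∃ L > 0, ∀ y y', |u y - u y'| ≤ L * ‖y - y'‖
  hom : ∀ s, 0 ≤ s → ∀ y, u (C + s • (y - C)) = s * u y
  cpt : ∀ t, IsCompact {y | u y ≤ t}
  ball : ∀ t, 0 < t → IsBall (Module.finrank ℝ E) {y | u y ≤ t} {y | u y = t}
  cvx : ConvexOn ℝ univ u

/-- a maximum of affine functions is Lipschitz -/
theorem gau_lip (G : Finset ((E →L[ℝ] ℝ) × ℝ)) (hG : G.Nonempty) :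
    ∃ L > 0, ∀ y y', |gau G hG y - gau G hG y'| ≤ L * ‖y - y'‖ := by
  refine ⟨∑ h ∈ G, ‖h.1‖ + 1, by positivity, ?_⟩
  have key : ∀ y y', gau G hG y - gau G hG y' ≤ (∑ h ∈ G, ‖h.1‖ + 1) * ‖y - y'‖ := by
    intro y y'
    obtain ⟨h, hh, e⟩ := exists_gau G hG y
    have h1 := le_gau G hG (y := y') hh
    have h2 : h.1 y - h.1 y' ≤ ‖h.1‖ * ‖y - y'‖ := by
      rw [← map_sub]
      exact (le_abs_self _).trans (h.1.le_opNorm _)
    have h3 : ‖h.1‖ ≤ ∑ h ∈ G, ‖h.1‖ :=
      Finset.single_le_sum (f := fun h : (E →L[ℝ] ℝ) × ℝ => ‖h.1‖) (fun _ _ => norm_nonneg _) hh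
    have h4 : ‖h.1‖ * ‖y - y'‖ ≤ (∑ h ∈ G, ‖h.1‖ + 1) * ‖y - y'‖ :=
      mul_le_mul_of_nonneg_right (by linarith) (norm_nonneg _)
    linarith
  intro y y'
  rw [abs_le]
  constructor
  · have := key y' y
    rw [norm_sub_rev] at this
    linarith
  · exact key y y'

/-- the functionals of the gauge of `A '' P H` about `A c` -/
noncomputable def GH (H : Finset ((E →L[ℝ] ℝ) × ℝ)) (c : E) (A : E ≃ᵃ[ℝ] E) :
    Finset ((E →L[ℝ] ℝ) × ℝ) := by
  classical
  exact H.image fun h => ((h.2 - h.1 c)⁻¹ • (h.1 ∘L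
    LinearMap.toContinuousLinearMap (A.symm.linear : E →ₗ[ℝ] E)),
    (h.2 - h.1 c)⁻¹ * (h.1 c - h.1 (A.symm 0)))

theorem GH_ne {H : Finset ((E →L[ℝ] ℝ) × ℝ)} (hne : H.Nonempty) (c : E) (A : E ≃ᵃ[ℝ] E) :
    (GH H c A).Nonempty := by
  classical
  unfold GH
  exact hne.image _

/-- the gauge of `A '' P H` about `A c` -/
noncomputable def ug (H : Finset ((E →L[ℝ] ℝ) × ℝ)) (hne : H.Nonempty) (c : E) (A : E ≃ᵃ[ℝ] E)
    (y : E) : ℝ := gau (GH H c A) (GH_ne hne c A) y

variable {H : Finset ((E →L[ℝ] ℝ) × ℝ)} (hne : H.Nonempty) {c : E} (hc : c ∈ I H)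
  (A : E ≃ᵃ[ℝ] E)

theorem symm_apply_eq (y : E) : A.symm y = A.symm.linear y + A.symm 0 := by
  have := A.symm.map_vadd 0 y
  simp only [vadd_eq_add, add_zero] at this
  exact this

theorem GH_val (h : (E →L[ℝ] ℝ) × ℝ) (y : E) :
    ((h.2 - h.1 c)⁻¹ • (h.1 ∘L LinearMap.toContinuousLinearMap (A.symm.linear : E →ₗ[ℝ] E))) y -
      (h.2 - h.1 c)⁻¹ * (h.1 c - h.1 (A.symm 0)) = (h.2 - h.1 c)⁻¹ * (h.1 (A.symm y) - h.1 c) := by
  rw [symm_apply_eq A y, map_add]
  simp only [ContinuousLinearMap.smul_apply, ContinuousLinearMap.comp_apply, smul_eq_mul,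
    LinearMap.coe_toContinuousLinearMap', LinearEquiv.coe_coe]
  ring

include hc in
theorem ug_le_iff {y : E} {t : ℝ} :
    ug H hne c A y ≤ t ↔ ∀ h ∈ H, h.1 (A.symm y) - h.1 c ≤ t * (h.2 - h.1 c) := by
  classical
  unfold ug
  rw [gau_le_iff]
  unfold GH
  simp only [Finset.mem_image, forall_exists_index, and_imp, forall_apply_eq_imp_iff₂]
  refine forall₂_congr fun h hh => ?_
  have hd : 0 < h.2 - h.1 c := sub_pos.2 (hc h hh)
  rw [GH_val A h y, inv_mul_le_iff₀ hd, mul_comm t]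

include hc in
theorem ug_lt_iff {y : E} {t : ℝ} :
    ug H hne c A y < t ↔ ∀ h ∈ H, h.1 (A.symm y) - h.1 c < t * (h.2 - h.1 c) := by
  classical
  unfold ug
  rw [gau_lt_iff]
  unfold GH
  simp only [Finset.mem_image, forall_exists_index, and_imp, forall_apply_eq_imp_iff₂]
  refine forall₂_congr fun h hh => ?_
  have hd : 0 < h.2 - h.1 c := sub_pos.2 (hc h hh)
  rw [GH_val A h y, inv_mul_lt_iff₀ hd, mul_comm t]

include hc in
/-- the tile is `{u ≤ 1}` -/
theorem ug_le_one_iff {y : E} : ug H hne c A y ≤ 1 ↔ A.symm y ∈ P H := by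
  rw [ug_le_iff hne hc]
  refine forall₂_congr fun h _ => ?_
  constructor <;> intro h1 <;> linarith

include hc in
theorem ug_center : ug H hne c A (A c) = 0 := by
  refine le_antisymm ?_ ?_
  · rw [ug_le_iff hne hc]
    intro h _
    rw [A.symm_apply_apply]
    linarith
  · by_contra hn
    rw [not_le, ug_lt_iff hne hc] at hn
    obtain ⟨h, hh⟩ := hne
    have := hn h hh
    rw [A.symm_apply_apply] at this
    linarith

theorem symm_hom (s : ℝ) (y : E) :
    A.symm (A c + s • (y - A c)) = c + s • (A.symm y - c) := by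
  apply A.injective
  rw [A.apply_symm_apply]
  have h1 : A (c + s • (A.symm y - c)) = A c + s • (y - A c) := by
    have h2 := A.toAffineMap.map_vadd c (s • (A.symm y - c))
    have h3 := A.toAffineMap.linearMap_vsub (A.symm y) c
    simp only [AffineEquiv.coe_toAffineMap, AffineEquiv.linear_toAffineMap, vadd_eq_add,
      vsub_eq_sub, LinearEquiv.coe_coe, map_smul, AffineEquiv.apply_symm_apply] at h2 h3
    rw [add_comm c, h2, h3, add_comm]
  exact h1.symm

include hc in
theorem ug_hom {s : ℝ} (hs : 0 ≤ s) (y : E) :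
    ug H hne c A (A c + s • (y - A c)) = s * ug H hne c A y := by
  rcases hs.eq_or_lt with rfl | hs
  · rw [zero_smul, add_zero, zero_mul, ug_center hne hc]
  · have key : ∀ t : ℝ, ug H hne c A (A c + s • (y - A c)) ≤ t ↔ s * ug H hne c A y ≤ t := by
      intro t
      rw [← le_div_iff₀' hs, ug_le_iff hne hc, ug_le_iff hne hc]
      refine forall₂_congr fun h _ => ?_
      rw [symm_hom, map_add, map_smul, map_sub, smul_eq_mul, add_sub_cancel_left,
        div_mul_eq_mul_div, le_div_iff₀' hs]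
    exact le_antisymm ((key _).2 le_rfl) ((key _).1 le_rfl)

include hc in
theorem ug_level {t : ℝ} (ht : 0 < t) :
    {y | ug H hne c A y ≤ t} = (fun z => A c + t • (A z - A c)) '' P H := by
  ext y
  simp only [mem_ofPred_eq, mem_image]
  constructor
  · intro h
    refine ⟨A.symm (A c + t⁻¹ • (y - A c)), ?_, ?_⟩
    · rw [← ug_le_one_iff hne hc A, ug_hom hne hc A (inv_nonneg.2 ht.le), inv_mul_le_iff₀ ht,
        mul_one]
      exact h
    · rw [A.apply_symm_apply, add_sub_cancel_left, smul_smul, mul_inv_cancel₀ ht.ne', one_smul]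
      abel
  · rintro ⟨z, hz, rfl⟩
    rw [ug_hom hne hc A ht.le]
    have : ug H hne c A (A z) ≤ 1 := by
      rw [ug_le_one_iff hne hc A, A.symm_apply_apply]; exact hz
    nlinarith

include hc in
theorem ug_cpt (hK : IsCompact (P H)) (t : ℝ) : IsCompact {y | ug H hne c A y ≤ t} := by
  have h1 : ∀ t : ℝ, 0 < t → IsCompact {y | ug H hne c A y ≤ t} := by
    intro t ht
    rw [ug_level hne hc A ht]
    refine hK.image ?_
    have : Continuous A := A.toAffineMap.continuous_of_finiteDimensional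
    fun_prop
  refine (h1 (max t 1) (by positivity)).of_isClosed_subset ?_ fun y (hy : ug H hne c A y ≤ t) =>
    le_trans hy (le_max_left _ _)
  exact isClosed_le (continuous_gau _ _) continuous_const

include hc in
/-- the gauge of an affine image of a tile -/
theorem ug_spec (hK : IsCompact (P H)) : UG (ug H hne c A) (A c) where
  cont := continuous_gau _ _
  pl := plOn_gau _ _ _
  lip := gau_lip _ _
  hom := fun _ hs y => ug_hom hne hc A hs y
  cpt := fun t => ug_cpt hne hc A hK t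
  ball := fun _ ht => isBall_gau _ _ (ug_cpt hne hc A hK _) ⟨A c, by
    have := ug_center hne hc A
    unfold ug at this
    rw [this]
    exact ht⟩
  cvx := convex_gau _ _

/-- the gauge of the image, read in the domain -/
theorem ug_comp (x : E) : ug H hne c A (A x) = ug H hne c (AffineEquiv.refl ℝ E) x := by
  classical
  unfold ug gau GH
  refine le_antisymm ?_ ?_
  · refine Finset.sup'_le _ _ fun g hg => ?_
    obtain ⟨h, hh, rfl⟩ := Finset.mem_image.1 hg
    refine le_trans (le_of_eq ?_) (Finset.le_sup' _ (Finset.mem_image_of_mem _ hh))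
    have h1 := GH_val (c := c) A h (A x)
    have h2 := GH_val (c := c) (AffineEquiv.refl ℝ E) h x
    simp only at h1 h2 ⊢
    rw [h1, h2, A.symm_apply_apply]
    rfl
  · refine Finset.sup'_le _ _ fun g hg => ?_
    obtain ⟨h, hh, rfl⟩ := Finset.mem_image.1 hg
    refine le_trans (le_of_eq ?_) (Finset.le_sup' _ (Finset.mem_image_of_mem _ hh))
    have h1 := GH_val (c := c) A h (A x)
    have h2 := GH_val (c := c) (AffineEquiv.refl ℝ E) h x
    simp only at h1 h2 ⊢
    rw [h1, h2, A.symm_apply_apply]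
    rfl

end gauge

/-! ### the marks -/

section marks

variable {E : Type*} [NormedAddCommGroup E] [NormedSpace ℝ E] [FiniteDimensional ℝ E]
  {u : E → ℝ} {C : E}

/-- radial motion to the level `t` -/
noncomputable def Ph (u : E → ℝ) (C : E) (y : E) (t : ℝ) : E := C + (t / u y) • (y - C)

theorem Ph_self {y : E} (h : u y ≠ 0) : Ph u C y (u y) = y := by
  unfold Ph
  rw [div_self h, one_smul]
  abel

theorem UG.u_Ph (U : UG u C) {y : E} {t : ℝ} (hy : 0 < u y) (ht : 0 ≤ t) : u (Ph u C y t) = t := by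
  unfold Ph
  rw [U.hom _ (by positivity), div_mul_cancel₀ _ hy.ne']

/-- the mark -/
noncomputable def Mk (u : E → ℝ) (C y0 : E) (ω a b : ℝ) : Set E :=
  (fun p : E × ℝ => Ph u C p.1 p.2) '' (closedBall y0 ω ×ˢ Icc a b)

theorem UG.contOn_Ph (U : UG u C) : ContinuousOn (fun p : E × ℝ => Ph u C p.1 p.2)
    {p | u p.1 ≠ 0} := by
  have h := U.cont
  unfold Ph
  refine continuousOn_const.add (ContinuousOn.smul (ContinuousOn.div ?_ ?_ fun p hp => hp) ?_)
  · fun_prop
  · fun_prop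
  · fun_prop

theorem UG.isCompact_Mk (U : UG u C) {y0 : E} {ω a b : ℝ}
    (h0 : ∀ y ∈ closedBall y0 ω, 0 < u y) : IsCompact (Mk u C y0 ω a b) :=
  ((isCompact_closedBall y0 ω).prod isCompact_Icc).image_of_continuousOn
    (U.contOn_Ph.mono fun p hp => (h0 p.1 hp.1).ne')

/-- the mark contains the part of the ball in the shell -/
theorem mem_Mk {y0 y : E} {ω a b : ℝ} (hy : y ∈ closedBall y0 ω)
    (h0 : ∀ y ∈ closedBall y0 ω, 0 < u y) (ha : a ≤ u y) (hb : u y ≤ b) : y ∈ Mk u C y0 ω a b :=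
  ⟨(y, u y), ⟨hy, ha, hb⟩, Ph_self (h0 y hy).ne'⟩

/-- the levels of the mark -/
theorem UG.Mk_level (U : UG u C) {y0 : E} {ω a b t : ℝ} (ha0 : 0 ≤ a)
    (h0 : ∀ y ∈ closedBall y0 ω, 0 < u y) (ht : t ∈ Icc a b) (hω : 0 ≤ ω) :
    IsPreconnected (Mk u C y0 ω a b ∩ {y | u y = t}) ∧
      (Mk u C y0 ω a b ∩ {y | u y = t}).Nonempty := by
  have e : Mk u C y0 ω a b ∩ {y | u y = t} = (fun y => Ph u C y t) '' closedBall y0 ω := by
    ext z
    constructor
    · rintro ⟨⟨⟨y, t'⟩, ⟨hy, ht'⟩, rfl⟩, hz⟩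
      refine ⟨y, hy, ?_⟩
      have h1 : u (Ph u C y t') = t' := U.u_Ph (h0 y hy) (ha0.trans ht'.1)
      have h2 : u (Ph u C y t') = t := hz
      rw [h1] at h2
      simp only
      rw [h2]
    · rintro ⟨y, hy, rfl⟩
      exact ⟨⟨(y, t), ⟨hy, ht⟩, rfl⟩, U.u_Ph (h0 y hy) (ha0.trans ht.1)⟩
  rw [e]
  constructor
  · refine (convex_closedBall y0 ω).isPreconnected.image _ ?_
    have h1 : ContinuousOn (fun y : E => ((y, t) : E × ℝ)) (closedBall y0 ω) := by fun_prop
    exact U.contOn_Ph.comp h1 fun y hy => (h0 y hy).ne'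
  · exact ⟨_, mem_image_of_mem _ (mem_closedBall_self hω)⟩

/-- small marks -/
theorem UG.exists_Mk (U : UG u C) {y0 : E} (h : 0 < u y0) {ε : ℝ} (hε : 0 < ε) :
    ∃ ω > 0, ∃ w > 0, (∀ y ∈ closedBall y0 ω, 0 < u y) ∧
      ∀ a b, u y0 - w ≤ a → b ≤ u y0 + w → Mk u C y0 ω a b ⊆ closedBall y0 ε := by
  have h1 : ContinuousAt (fun p : E × ℝ => Ph u C p.1 p.2) (y0, u y0) := by
    refine U.contOn_Ph.continuousAt ?_
    have h2 : IsOpen {p : E × ℝ | u p.1 ≠ 0} :=
      isOpen_ne_fun (U.cont.comp continuous_fst) continuous_const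
    exact h2.mem_nhds h.ne'
  have h2 : (fun p : E × ℝ => Ph u C p.1 p.2) ⁻¹' closedBall y0 ε ∈ nhds (y0, u y0) := by
    refine h1 ?_
    simp only
    rw [Ph_self h.ne']
    exact closedBall_mem_nhds _ hε
  obtain ⟨δ, hδ, h3⟩ := Metric.mem_nhds_iff.1 h2
  obtain ⟨δ', hδ', h4⟩ := Metric.mem_nhds_iff.1 (U.cont.isOpen_preimage _ isOpen_Ioi |>.mem_nhds
    (show y0 ∈ u ⁻¹' Ioi 0 from h))
  refine ⟨min δ δ' / 2, by positivity, δ / 2, by positivity, fun y hy => ?_, ?_⟩
  · refine h4 ?_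
    rw [mem_ball]
    have h5 := min_le_right δ δ'
    have h6 := mem_closedBall.1 hy
    have h7 : 0 < min δ δ' := by positivity
    linarith
  · rintro a b ha hb _ ⟨⟨y, t⟩, ⟨hy, ht⟩, rfl⟩
    refine h3 ?_
    rw [mem_ball, Prod.dist_eq, max_lt_iff]
    have h5 := min_le_left δ δ'
    have h6 := mem_closedBall.1 hy
    constructor
    · simp only
      have h7 : 0 < min δ δ' := by positivity
      linarith
    · simp only
      rw [Real.dist_eq, abs_lt]
      constructor <;> linarith [ht.1, ht.2]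

end marks

end Crest.Agent.R096.Sk3_812
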