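import Crest.Agent.R096.Gsm4_432
import Crest.Agent.R096.Gau1_812

/-!
# Row 96, GAPSIM (helper432), part 5: the gap in terms of the gauge `ug` of helper812
-/

set_option autoImplicit false
set_option linter.unusedSectionVars false

open Set Metric Topology Filter

namespace Crest.Agent.R096.Gsm_432

open Crest.Agent.R096.Msh_715 Crest.Agent.R096.Msh_715.Tiling Crest.Agent.R096.Tgr_335
open Crest.Agent.R096.Sk2_855 Crest.Agent.R096.Sk3_812

variable {F : Type*} [NormedAddCommGroup F] [NormedSpace ℝ F] [FiniteDimensional ℝ F]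
variable {E : Type*} [NormedAddCommGroup E] [NormedSpace ℝ E] [FiniteDimensional ℝ E]

theorem ug_le_iff_hom {H : Finset ((E →L[ℝ] ℝ) × ℝ)} (hne : H.Nonempty) {c : E} (hc : c ∈ I H)
    (A : E ≃ᵃ[ℝ] E) {t : ℝ} (ht : 0 < t) (x : E) : ug H hne c A (A x) ≤ t ↔ x ∈ hom c t (P H) := by
  rw [ug_comp]
  have h := ug_level hne hc (AffineEquiv.refl ℝ E) ht
  have h1 : ug H hne c (AffineEquiv.refl ℝ E) x ≤ t ↔
      x ∈ {y | ug H hne c (AffineEquiv.refl ℝ E) y ≤ t} := Iff.rfl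
  rw [h1, h]
  rfl

variable {Om : Set E} {ι : Type*} {T : Tiling Om ι} {i : ι} {B : E ≃ᵃ[ℝ] F} {c : E}
  {β ρ D : ℝ} {nc : ℕ}

/-- **a closed cell which misses the tile is far from it, in the gauge** -/
theorem GapT.gap_ug (h : GapT T i B c β ρ D nc) (hβ : 0 ≤ β) (hne : (T.H i).Nonempty)
    (A : E ≃ᵃ[ℝ] E) {x : E} (hx : x ∈ Om) (hd : Disjoint (T.cc x) (P (T.H i))) :
    1 + 4 * β < ug (T.H i) hne c A (A x) := by
  rw [← not_le, ug_le_iff_hom hne h.mem A (by linarith)]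
  exact h.gap x hx hd

/-- **the gap for the 1-skeleton, in the gauge** -/
theorem GapT.gap1_ug (h : GapT T i B c β ρ D nc) (hβ : 0 ≤ β) (hne : (T.H i).Nonempty)
    (A : E ≃ᵃ[ℝ] E) {x : E} (hx : x ∈ sk1 T) (h1 : x ∉ P (T.H i)) (h2 : ¬ Crs T i x) :
    1 + 4 * β < ug (T.H i) hne c A (A x) :=
  h.gap_ug hβ hne A hx.1 (disjoint_of_sk1 hx h1 h2)

/-- the vertices of the crossing edges off the tile -/
theorem GapT.outv_ug (h : GapT T i B c β ρ D nc) (hβ : 0 ≤ β) (hne : (T.H i).Nonempty)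
    (A : E ≃ᵃ[ℝ] E) {x w : E} (hx : Crs T i x) (hw : w ∈ T.cc x) (h0 : T.dim w = 0)
    (hoff : w ∉ P (T.H i)) : 1 + 4 * β < ug (T.H i) hne c A (A w) := by
  refine h.gap_ug hβ hne A (T.cc_sub_Om hx.om hw) ?_
  rw [T.cc_eq_singleton (T.dim_eq_zero_iff.1 h0), disjoint_singleton_left]
  exact hoff

/-- near the tile, in the gauge, there are only the tiles which touch it -/
theorem GapT.sub_ug (h : GapT T i B c β ρ D nc) (hβ : 0 ≤ β) (hne : (T.H i).Nonempty)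
    (A : E ≃ᵃ[ℝ] E) {x : E} (hx : ug (T.H i) hne c A (A x) ≤ 1 + 4 * β) :
    x ∈ interior (Ust T i) :=
  h.sub ((ug_le_iff_hom hne h.mem A (by linarith) x).1 hx)

/-- the body `{ug ≤ t}` in the target -/
theorem GapT.body (h : GapT T i B c β ρ D nc) (hne : (T.H i).Nonempty)
    (A : E ≃ᵃ[ℝ] E) {t : ℝ} (ht : 0 < t) :
    {y | ug (T.H i) hne c A y ≤ t} = A '' hom c t (P (T.H i)) := by
  ext y
  obtain ⟨x, rfl⟩ := A.surjective y
  rw [A.injective.mem_set_image, ← ug_le_iff_hom hne h.mem A ht]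
  rfl

/-- the functionals of the gauge of `A '' tile` are bounded by `‖B.linear (A.symm.linear y)‖ / ρ` -/
theorem GapT.lin_GH (h : GapT T i B c β ρ D nc) (hρ : 0 < ρ) (A : E ≃ᵃ[ℝ] E)
    {g : (E →L[ℝ] ℝ) × ℝ} (hg : g ∈ GH (T.H i) c A) (y : E) :
    ρ * |g.1 y| ≤ ‖B.linear (A.symm.linear y)‖ := by
  classical
  unfold GH at hg
  obtain ⟨g0, hg0, rfl⟩ := Finset.mem_image.1 hg
  have hgc : 0 < g0.2 - g0.1 c := sub_pos.2 (h.mem g0 hg0)
  have h1 := h.lin hρ hg0 (A.symm.linear y)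
  simp only [_root_.smul_apply, ContinuousLinearMap.comp_apply, smul_eq_mul,
    LinearMap.coe_toContinuousLinearMap', LinearEquiv.coe_coe]
  rw [abs_mul, abs_of_pos (inv_pos.2 hgc)]
  have h2 : ρ * ((g0.2 - g0.1 c)⁻¹ * |g0.1 (A.symm.linear y)|) =
      (g0.2 - g0.1 c)⁻¹ * (ρ * |g0.1 (A.symm.linear y)|) := by ring
  rw [h2, inv_mul_le_iff₀ hgc]
  exact h1

end Crest.Agent.R096.Gsm_432
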