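import Crest.Agent.R096.Ce1_537

/-!
# R096 (row 96), P8-CELLEXT, part 2: cell by cell assembly (helper537)

`Cplx Ω I dim K`: locally finite decomposition of `Ω` into standard PL balls `K i`.
`cellExt`: two such decompositions with the same poset of cells give a homeomorphism
`Ω → Λ`, `K i ↦ K' i`, PL on every cell and locally PL; relative to a prescribed subcomplex.
-/

set_option autoImplicit false
set_option linter.unusedSectionVars false

open Set Metric

namespace Crest.Agent.R096.Ce_537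

variable {E F : Type*} [NormedAddCommGroup E] [NormedSpace ℝ E]
  [NormedAddCommGroup F] [NormedSpace ℝ F]

/-- explicit extension over balls -/
noncomputable def ext {k : ℕ} {K dK : Set E} {L dL : Set F} (a : PLEquiv (cube k) K)
    (b : PLEquiv (cube k) L) (ha : a.f '' sph k = dK) (hb : b.f '' sph k = dL)
    (e : PLEquiv dK dL) : PLEquiv K L :=
  let m : PLEquiv (sph k) (sph k) :=
    { f := fun v => b.g (e.f (a.f v))
      g := fun v => a.g (e.g (b.f v))
      pf := by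
        subst ha hb
        exact (((a.restrImage sph_subset_cube).trans e).trans
          (b.restrImage sph_subset_cube).symm).pf
      pg := by
        subst ha hb
        exact (((a.restrImage sph_subset_cube).trans e).trans
          (b.restrImage sph_subset_cube).symm).pg
      mf := by
        subst ha hb
        exact (((a.restrImage sph_subset_cube).trans e).trans
          (b.restrImage sph_subset_cube).symm).mf
      mg := by
        subst ha hb
        exact (((a.restrImage sph_subset_cube).trans e).trans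
          (b.restrImage sph_subset_cube).symm).mg
      li := by
        subst ha hb
        exact (((a.restrImage sph_subset_cube).trans e).trans
          (b.restrImage sph_subset_cube).symm).li
      ri := by
        subst ha hb
        exact (((a.restrImage sph_subset_cube).trans e).trans
          (b.restrImage sph_subset_cube).symm).ri }
  (a.symm.trans (coneEquiv m)).trans b

lemma ext_f {k : ℕ} {K dK : Set E} {L dL : Set F} (a : PLEquiv (cube k) K)
    (b : PLEquiv (cube k) L) (ha : a.f '' sph k = dK) (hb : b.f '' sph k = dL)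
    (e : PLEquiv dK dL) (x : E) :
    (ext a b ha hb e).f x = b.f (cone (fun v => b.g (e.f (a.f v))) (a.g x)) := rfl

lemma ext_g {k : ℕ} {K dK : Set E} {L dL : Set F} (a : PLEquiv (cube k) K)
    (b : PLEquiv (cube k) L) (ha : a.f '' sph k = dK) (hb : b.f '' sph k = dL)
    (e : PLEquiv dK dL) (y : F) :
    (ext a b ha hb e).g y = a.f (cone (fun v => a.g (e.g (b.f v))) (b.g y)) := rfl

lemma ext_f_bd {k : ℕ} {K dK : Set E} {L dL : Set F} (a : PLEquiv (cube k) K)
    (b : PLEquiv (cube k) L) (ha : a.f '' sph k = dK) (hb : b.f '' sph k = dL)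
    (e : PLEquiv dK dL) {x : E} (hx : x ∈ dK) : (ext a b ha hb e).f x = e.f x := by
  rw [ext_f]
  have hx' := hx
  rw [← ha] at hx'
  obtain ⟨v, hv, rfl⟩ := hx'
  rw [a.li v (sph_subset_cube hv), cone_sph _ hv]
  have h1 : e.f (a.f v) ∈ b.f '' sph k := hb.ge (e.mf hx)
  obtain ⟨y, hy, hye⟩ := h1
  rw [← hye, b.li y (sph_subset_cube hy)]

lemma ext_g_bd {k : ℕ} {K dK : Set E} {L dL : Set F} (a : PLEquiv (cube k) K)
    (b : PLEquiv (cube k) L) (ha : a.f '' sph k = dK) (hb : b.f '' sph k = dL)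
    (e : PLEquiv dK dL) {y : F} (hy : y ∈ dL) : (ext a b ha hb e).g y = e.g y := by
  rw [ext_g]
  have hy' := hy
  rw [← hb] at hy'
  obtain ⟨v, hv, rfl⟩ := hy'
  rw [b.li v (sph_subset_cube hv), cone_sph _ hv]
  have h1 : e.g (b.f v) ∈ a.f '' sph k := ha.ge (e.mg hy)
  obtain ⟨y, hy, hye⟩ := h1
  rw [← hye, a.li y (sph_subset_cube hy)]

/-- `x` is in the open cell `i` -/
def Opn {E : Type*} {I : Type*} [PartialOrder I] (K : I → Set E) (i : I) (x : E) : Prop :=
  x ∈ K i ∧ ∀ j < i, x ∉ K j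

/-- **Locally finite decomposition of `Ω` into standard PL balls.** -/
structure Cplx (Ω : Set E) (I : Type*) [PartialOrder I] (dim : I → ℕ) (K : I → Set E) :
    Prop where
  isBall : ∀ i, IsBall (dim i) (K i) (⋃ j ∈ {j | j < i}, K j)
  mono : ∀ i j, j < i → dim j < dim i
  disj : ∀ i j x, Opn K i x → Opn K j x → i = j
  sub : ∀ i, K i ⊆ Ω
  cover : ∀ x ∈ Ω, ∃ i, x ∈ K i
  lf : ∀ x ∈ Ω, ∃ r > 0, {i | (K i ∩ ball x r).Nonempty}.Finite

/-- locally PL on `Ω` -/
def LocPL (h : E → F) (Ω : Set E) : Prop := ∀ x ∈ Ω, ∃ r > 0, PLOn h (ball x r)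

section Basic

variable {Ω : Set E} {I : Type*} [PartialOrder I] {dim : I → ℕ} {K : I → Set E}

lemma Cplx.exists_opn (C : Cplx Ω I dim K) {x : E} : ∀ {i : I}, x ∈ K i →
    ∃ m ≤ i, Opn K m x := by
  intro i
  induction hd : dim i using Nat.strong_induction_on generalizing i with
  | _ d ih =>
    intro hx
    by_cases h : ∀ j < i, x ∉ K j
    · exact ⟨i, le_refl _, hx, h⟩
    · push Not at h
      obtain ⟨j, hj, hxj⟩ := h
      obtain ⟨m, hm, hmx⟩ := ih (dim j) (hd ▸ C.mono i j hj) rfl hxj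
      exact ⟨m, hm.trans hj.le, hmx⟩

lemma Cplx.opn_le (C : Cplx Ω I dim K) {x : E} {m i : I} (hm : Opn K m x) (hx : x ∈ K i) :
    m ≤ i := by
  obtain ⟨l, hl, hlx⟩ := C.exists_opn hx
  rw [C.disj m l x hm hlx]
  exact hl

lemma Cplx.isClosed (C : Cplx Ω I dim K) (i : I) : IsClosed (K i) := (C.isBall i).isClosed

lemma Cplx.isCompact (C : Cplx Ω I dim K) (i : I) : IsCompact (K i) := (C.isBall i).isCompact

lemma Cplx.subset (C : Cplx Ω I dim K) {i j : I} (h : j ≤ i) : K j ⊆ K i := by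
  rcases h.eq_or_lt with rfl | h
  · exact Subset.rfl
  · intro x hx
    exact (C.isBall i).subset (mem_biUnion (show j ∈ {j | j < i} from h) hx)

lemma Cplx.mem_inter (C : Cplx Ω I dim K) {i j : I} {x : E} (hi : x ∈ K i) (hj : x ∈ K j) :
    ∃ m, m ≤ i ∧ m ≤ j ∧ x ∈ K m := by
  obtain ⟨m, hm, hmx⟩ := C.exists_opn hi
  exact ⟨m, hm, C.opn_le hmx hj, hmx.1⟩

lemma Cplx.finite_meet (C : Cplx Ω I dim K) {T : Set E} (hT : IsCompact T) (hs : T ⊆ Ω) :
    {i | (K i ∩ T).Nonempty}.Finite := by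
  have h : ∀ x ∈ T, ∃ U ∈ nhdsWithin x T, {i | (K i ∩ U).Nonempty}.Finite := by
    intro x hx
    obtain ⟨r, hr, hf⟩ := C.lf x (hs hx)
    exact ⟨ball x r, mem_nhdsWithin_of_mem_nhds (ball_mem_nhds x hr), hf⟩
  choose! U hU hUf using h
  obtain ⟨t, ht, htc⟩ := hT.elim_nhdsWithin_subcover U hU
  refine (t.finite_toSet.biUnion (fun x hx => hUf x (ht x hx))).subset ?_
  rintro i ⟨y, hyK, hyT⟩
  obtain ⟨x, hx, hyU⟩ := mem_iUnion₂.1 (htc hyT)
  exact mem_biUnion (Finset.mem_coe.2 hx) ⟨y, hyK, hyU⟩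

lemma Cplx.finite_below (C : Cplx Ω I dim K) (i : I) : {j | j < i}.Finite := by
  refine (C.finite_meet (C.isCompact i) (C.sub i)).subset ?_
  intro j hj
  obtain ⟨x, hx⟩ := (C.isBall j).nonempty
  exact ⟨x, hx, C.subset (le_of_lt hj) hx⟩

end Basic

section Rec

variable {I : Type*} [PartialOrder I] (dim : I → ℕ)

open Classical in
/-- the recursion -/
noncomputable def Hf (K : I → Set E) (K' : I → Set F)
    (a : ∀ i, PLEquiv (cube (dim i)) (K i)) (b : ∀ i, PLEquiv (cube (dim i)) (K' i))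
    (J : Set I) (h0 : E → F) : I → E → F :=
  WellFounded.fix (C := fun _ => E → F) (measure dim).wf (fun i rec x =>
    if i ∈ J then h0 x else
      (b i).f (cone (fun v => (b i).g
        (if h : ∃ j, Opn K j ((a i).f v) ∧ dim j < dim i then
          rec h.choose h.choose_spec.2 ((a i).f v) else 0)) ((a i).g x)))

open Classical in
/-- value by the open cell, below `i` -/
noncomputable def Bd (K : I → Set E) (H : I → E → F) (i : I) (y : E) : F :=
  if h : ∃ j, Opn K j y ∧ dim j < dim i then H h.choose y else 0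

open Classical in
lemma Hf_eq (K : I → Set E) (K' : I → Set F)
    (a : ∀ i, PLEquiv (cube (dim i)) (K i)) (b : ∀ i, PLEquiv (cube (dim i)) (K' i))
    (J : Set I) (h0 : E → F) (i : I) (x : E) :
    Hf dim K K' a b J h0 i x = if i ∈ J then h0 x else
      (b i).f (cone (fun v => (b i).g
        (Bd dim K (Hf dim K K' a b J h0) i ((a i).f v))) ((a i).g x)) := by
  unfold Hf
  rw [WellFounded.fix_eq]
  rfl

variable {dim}

lemma Bd_eq {Ω : Set E} {K : I → Set E} (C : Cplx Ω I dim K) (H : I → E → F) {i j : I}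
    (hj : j < i) {y : E} (hy : y ∈ K j) (hH : ∀ m ≤ j, y ∈ K m → H j y = H m y) :
    Bd dim K H i y = H j y := by
  classical
  obtain ⟨m, hm, hmy⟩ := C.exists_opn hy
  have h : ∃ j, Opn K j y ∧ dim j < dim i :=
    ⟨m, hmy, C.mono i m (hm.trans_lt hj)⟩
  unfold Bd
  rw [dif_pos h, C.disj _ _ y h.choose_spec.1 hmy, hH m hm hmy.1]

end Rec

section Main

variable {Ω : Set E} {Λ : Set F} {I : Type*} [PartialOrder I] {dim : I → ℕ}
  {K : I → Set E} {K' : I → Set F}

/-- the statement of the induction -/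
structure Good (K : I → Set E) (K' : I → Set F) (H : I → E → F) (H' : I → F → E) (i : I) :
    Prop where
  pf : PLOn (H i) (K i)
  pg : PLOn (H' i) (K' i)
  mf : MapsTo (H i) (K i) (K' i)
  mg : MapsTo (H' i) (K' i) (K i)
  li : ∀ x ∈ K i, H' i (H i x) = x
  ri : ∀ y ∈ K' i, H i (H' i y) = y
  cf : ∀ j ≤ i, ∀ x ∈ K j, H i x = H j x
  cg : ∀ j ≤ i, ∀ y ∈ K' j, H' i y = H' j y

/-- the equivalence of the boundaries -/
noncomputable def bdEquiv (C : Cplx Ω I dim K) (C' : Cplx Λ I dim K') {H : I → E → F}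
    {H' : I → F → E} {i : I} (hG : ∀ j < i, Good K K' H H' j) :
    PLEquiv (⋃ j ∈ {j | j < i}, K j) (⋃ j ∈ {j | j < i}, K' j) := by
  have e1 : ∀ j < i, ∀ y ∈ K j, Bd dim K H i y = H j y := fun j hj y hy =>
    Bd_eq C H hj hy (fun m hm hmy => (hG j hj).cf m hm y hmy)
  have e2 : ∀ j < i, ∀ y ∈ K' j, Bd dim K' H' i y = H' j y := fun j hj y hy =>
    Bd_eq C' H' hj hy (fun m hm hmy => (hG j hj).cg m hm y hmy)
  refine ⟨Bd dim K H i, Bd dim K' H' i, ?_, ?_, ?_, ?_, ?_, ?_⟩
  · exact plOn_biUnion _ (C.finite_below i)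
      (fun j hj => ((hG j hj).pf).congr (fun y hy => e1 j hj y hy)) (fun j _ => C.isClosed j)
  · exact plOn_biUnion _ (C.finite_below i)
      (fun j hj => ((hG j hj).pg).congr (fun y hy => e2 j hj y hy)) (fun j _ => C'.isClosed j)
  · intro x hx
    obtain ⟨j, hj, hxj⟩ := mem_iUnion₂.1 hx
    rw [e1 j hj x hxj]
    exact mem_biUnion hj ((hG j hj).mf hxj)
  · intro x hx
    obtain ⟨j, hj, hxj⟩ := mem_iUnion₂.1 hx
    rw [e2 j hj x hxj]
    exact mem_biUnion hj ((hG j hj).mg hxj)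
  · intro x hx
    obtain ⟨j, hj, hxj⟩ := mem_iUnion₂.1 hx
    rw [e1 j hj x hxj, e2 j hj _ ((hG j hj).mf hxj)]
    exact (hG j hj).li x hxj
  · intro x hx
    obtain ⟨j, hj, hxj⟩ := mem_iUnion₂.1 hx
    rw [e2 j hj x hxj, e1 j hj _ ((hG j hj).mg hxj)]
    exact (hG j hj).ri x hxj

theorem good_all (C : Cplx Ω I dim K) (C' : Cplx Λ I dim K')
    (a : ∀ i, PLEquiv (cube (dim i)) (K i)) (b : ∀ i, PLEquiv (cube (dim i)) (K' i))
    (ha : ∀ i, (a i).f '' sph (dim i) = ⋃ j ∈ {j | j < i}, K j)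
    (hb : ∀ i, (b i).f '' sph (dim i) = ⋃ j ∈ {j | j < i}, K' j)
    (J : Set I) (hJ : ∀ i ∈ J, ∀ j < i, j ∈ J) (h0 : E → F) (g0 : F → E)
    (pf : ∀ i ∈ J, PLOn h0 (K i)) (pg : ∀ i ∈ J, PLOn g0 (K' i))
    (mf : ∀ i ∈ J, MapsTo h0 (K i) (K' i)) (mg : ∀ i ∈ J, MapsTo g0 (K' i) (K i))
    (li : ∀ i ∈ J, ∀ x ∈ K i, g0 (h0 x) = x) (ri : ∀ i ∈ J, ∀ y ∈ K' i, h0 (g0 y) = y)
    (i : I) : Good K K' (Hf dim K K' a b J h0) (Hf dim K' K b a J g0) i := by
  classical
  induction hd : dim i using Nat.strong_induction_on generalizing i with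
  | _ d ih =>
    have hG : ∀ j < i, Good K K' (Hf dim K K' a b J h0) (Hf dim K' K b a J g0) j :=
      fun j hj => ih (dim j) (hd ▸ C.mono i j hj) j rfl
    by_cases hi : i ∈ J
    · have e1 : ∀ j ∈ J, ∀ x, Hf dim K K' a b J h0 j x = h0 x := fun j hj x => by
        rw [Hf_eq, if_pos hj]
      have e2 : ∀ j ∈ J, ∀ x, Hf dim K' K b a J g0 j x = g0 x := fun j hj x => by
        rw [Hf_eq, if_pos hj]
      have hle : ∀ j ≤ i, j ∈ J := fun j hj => by
        rcases hj.eq_or_lt with rfl | h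
        · exact hi
        · exact hJ i hi j h
      refine ⟨(pf i hi).congr (fun x _ => e1 i hi x), (pg i hi).congr (fun x _ => e2 i hi x),
        fun x hx => ?_, fun x hx => ?_, fun x hx => ?_, fun x hx => ?_,
        fun j hj x _ => ?_, fun j hj x _ => ?_⟩
      · rw [e1 i hi]; exact mf i hi hx
      · rw [e2 i hi]; exact mg i hi hx
      · rw [e1 i hi, e2 i hi]; exact li i hi x hx
      · rw [e1 i hi, e2 i hi]; exact ri i hi x hx
      · rw [e1 i hi, e1 j (hle j hj)]
      · rw [e2 i hi, e2 j (hle j hj)]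
    · set β := bdEquiv C C' hG with hβ
      set γ := ext (a i) (b i) (ha i) (hb i) β with hγ
      have e1 : ∀ x, Hf dim K K' a b J h0 i x = γ.f x := fun x => by
        rw [Hf_eq, if_neg hi]; rfl
      have e2 : ∀ x, Hf dim K' K b a J g0 i x = γ.g x := fun x => by
        rw [Hf_eq, if_neg hi]; rfl
      refine ⟨γ.pf.congr (fun x _ => e1 x), γ.pg.congr (fun x _ => e2 x),
        fun x hx => ?_, fun x hx => ?_, fun x hx => ?_, fun x hx => ?_,
        fun j hj x hx => ?_, fun j hj x hx => ?_⟩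
      · rw [e1]; exact γ.mf hx
      · rw [e2]; exact γ.mg hx
      · rw [e1, e2]; exact γ.li x hx
      · rw [e1, e2]; exact γ.ri x hx
      · rcases hj.eq_or_lt with rfl | h
        · rfl
        · rw [e1, hγ, ext_f_bd _ _ _ _ _ (mem_biUnion (show j ∈ {j | j < i} from h) hx)]
          exact Bd_eq C _ h hx (fun m hm hmy => (hG j h).cf m hm x hmy)
      · rcases hj.eq_or_lt with rfl | h
        · rfl
        · rw [e2, hγ, ext_g_bd _ _ _ _ _ (mem_biUnion (show j ∈ {j | j < i} from h) hx)]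
          exact Bd_eq C' _ h hx (fun m hm hmy => (hG j h).cg m hm x hmy)

open Classical in
/-- the global map: value by the open cell -/
noncomputable def glob (K : I → Set E) (H : I → E → F) (x : E) : F :=
  if h : ∃ j, Opn K j x then H h.choose x else 0

lemma glob_eq (C : Cplx Ω I dim K) (H : I → E → F) {i : I} {x : E} (hx : x ∈ K i)
    (hH : ∀ j ≤ i, x ∈ K j → H i x = H j x) : glob K H x = H i x := by
  classical
  obtain ⟨m, hm, hmx⟩ := C.exists_opn hx
  have h : ∃ j, Opn K j x := ⟨m, hmx⟩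
  unfold glob
  rw [dif_pos h, C.disj _ _ x h.choose_spec hmx, hH m hm hmx.1]

lemma Cplx.ball_cover (C : Cplx Ω I dim K) (hΩ : IsOpen Ω) {x : E} (hx : x ∈ Ω) :
    ∃ r > 0, ball x r ⊆ Ω ∧ {i | (K i ∩ ball x r).Nonempty}.Finite ∧
      ball x r ⊆ ⋃ i ∈ {i | (K i ∩ ball x r).Nonempty}, K i := by
  obtain ⟨r1, h1, hf⟩ := C.lf x hx
  obtain ⟨r2, h2, hs⟩ := Metric.isOpen_iff.1 hΩ x hx
  refine ⟨min r1 r2, lt_min h1 h2, (ball_subset_ball (min_le_right _ _)).trans hs, ?_, ?_⟩
  · refine hf.subset ?_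
    rintro i ⟨y, hy1, hy2⟩
    exact ⟨y, hy1, ball_subset_ball (min_le_left _ _) hy2⟩
  · intro y hy
    obtain ⟨i, hi⟩ := C.cover y (hs (ball_subset_ball (min_le_right _ _) hy))
    exact mem_biUnion (show i ∈ {i | (K i ∩ ball x (min r1 r2)).Nonempty} from ⟨y, hi, hy⟩) hi

/-- **CELL BY CELL ASSEMBLY (relative form).** -/
theorem cellExt_rel (C : Cplx Ω I dim K) (C' : Cplx Λ I dim K') (hΩ : IsOpen Ω)
    (hΛ : IsOpen Λ) (J : Set I) (hJ : ∀ i ∈ J, ∀ j < i, j ∈ J) (h0 : E → F) (g0 : F → E)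
    (pf : ∀ i ∈ J, PLOn h0 (K i)) (pg : ∀ i ∈ J, PLOn g0 (K' i))
    (mf : ∀ i ∈ J, MapsTo h0 (K i) (K' i)) (mg : ∀ i ∈ J, MapsTo g0 (K' i) (K i))
    (li : ∀ i ∈ J, ∀ x ∈ K i, g0 (h0 x) = x) (ri : ∀ i ∈ J, ∀ y ∈ K' i, h0 (g0 y) = y) :
    ∃ h : OpenPartialHomeomorph E F, h.source = Ω ∧ h.target = Λ ∧
      (∀ i, h '' K i = K' i) ∧ (∀ i, h.symm '' K' i = K i) ∧
      (∀ i, PLOn h (K i)) ∧ (∀ i, PLOn h.symm (K' i)) ∧
      (∀ i x, x ∈ Ω → (Opn K i x ↔ Opn K' i (h x))) ∧
      LocPL h Ω ∧ LocPL h.symm Λ ∧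
      (∀ i ∈ J, EqOn h h0 (K i)) ∧ (∀ i ∈ J, EqOn h.symm g0 (K' i)) := by
  classical
  have hb1 := C.isBall
  have hb2 := C'.isBall
  choose a ha using hb1
  choose b hb using hb2
  set H := Hf dim K K' a b J h0 with hH
  set H' := Hf dim K' K b a J g0 with hH'
  have hG : ∀ i, Good K K' H H' i :=
    good_all C C' a b ha hb J hJ h0 g0 pf pg mf mg li ri
  set h := glob K H with hh
  set g := glob K' H' with hg
  have eh : ∀ i, ∀ x ∈ K i, h x = H i x := fun i x hx =>
    glob_eq C H hx (fun j hj hxj => (hG i).cf j hj x hxj)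
  have eg : ∀ i, ∀ y ∈ K' i, g y = H' i y := fun i y hy =>
    glob_eq C' H' hy (fun j hj hyj => (hG i).cg j hj y hyj)
  have mh : ∀ i, MapsTo h (K i) (K' i) := fun i x hx => by
    rw [eh i x hx]; exact (hG i).mf hx
  have mg' : ∀ i, MapsTo g (K' i) (K i) := fun i y hy => by
    rw [eg i y hy]; exact (hG i).mg hy
  have lh : ∀ i, ∀ x ∈ K i, g (h x) = x := fun i x hx => by
    rw [eg i _ (mh i hx), eh i x hx]; exact (hG i).li x hx
  have rh : ∀ i, ∀ y ∈ K' i, h (g y) = y := fun i y hy => by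
    rw [eh i _ (mg' i hy), eg i y hy]; exact (hG i).ri y hy
  have ph : ∀ i, PLOn h (K i) := fun i => (hG i).pf.congr (eh i)
  have pg2 : ∀ i, PLOn g (K' i) := fun i => (hG i).pg.congr (eg i)
  have Lh : LocPL h Ω := by
    intro x hx
    obtain ⟨r, hr, -, hfin, hcov⟩ := C.ball_cover hΩ hx
    exact ⟨r, hr, (plOn_biUnion _ hfin (fun i _ => ph i) (fun i _ => C.isClosed i)).mono hcov⟩
  have Lg : LocPL g Λ := by
    intro x hx
    obtain ⟨r, hr, -, hfin, hcov⟩ := C'.ball_cover hΛ hx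
    exact ⟨r, hr, (plOn_biUnion _ hfin (fun i _ => pg2 i) (fun i _ => C'.isClosed i)).mono hcov⟩
  have ch : ContinuousOn h Ω := by
    intro x hx
    obtain ⟨r, hr, hp⟩ := Lh x hx
    exact (hp.1.continuousAt (ball_mem_nhds x hr)).continuousWithinAt
  have cg : ContinuousOn g Λ := by
    intro x hx
    obtain ⟨r, hr, hp⟩ := Lg x hx
    exact (hp.1.continuousAt (ball_mem_nhds x hr)).continuousWithinAt
  refine ⟨{ toFun := h
            invFun := g
            source := Ω
            target := Λ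
            map_source' := ?_
            map_target' := ?_
            left_inv' := ?_
            right_inv' := ?_
            open_source := hΩ
            open_target := hΛ
            continuousOn_toFun := ch
            continuousOn_invFun := cg }, rfl, rfl, ?_, ?_, ph, pg2, ?_, Lh, Lg, ?_, ?_⟩
  · intro x hx
    obtain ⟨i, hi⟩ := C.cover x hx
    exact C'.sub i (mh i hi)
  · intro x hx
    obtain ⟨i, hi⟩ := C'.cover x hx
    exact C.sub i (mg' i hi)
  · intro x hx
    obtain ⟨i, hi⟩ := C.cover x hx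
    exact lh i x hi
  · intro x hx
    obtain ⟨i, hi⟩ := C'.cover x hx
    exact rh i x hi
  · intro i
    ext y
    constructor
    · rintro ⟨x, hx, rfl⟩; exact mh i hx
    · intro hy; exact ⟨g y, mg' i hy, rh i y hy⟩
  · intro i
    ext y
    constructor
    · rintro ⟨x, hx, rfl⟩; exact mg' i hx
    · intro hy; exact ⟨h y, mh i hy, lh i y hy⟩
  · intro i x hx
    obtain ⟨l, hl⟩ := C.cover x hx
    show Opn K i x ↔ Opn K' i (h x)
    constructor
    · rintro ⟨h1, h2⟩
      refine ⟨mh i h1, fun j hj hxj => h2 j hj ?_⟩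
      rw [← lh i x h1]; exact mg' j hxj
    · rintro ⟨h1, h2⟩
      refine ⟨?_, fun j hj hxj => h2 j hj (mh j hxj)⟩
      rw [← lh l x hl]; exact mg' i h1
  · intro i hi x hx
    show h x = h0 x
    rw [eh i x hx, hH, Hf_eq, if_pos hi]
  · intro i hi y hy
    show g y = g0 y
    rw [eg i y hy, hH', Hf_eq, if_pos hi]

/-- **CELL BY CELL ASSEMBLY.** Two locally finite decompositions into PL balls with the same
poset of cells: there is a locally PL homeomorphism `Ω → Λ` with `h '' K i = K' i`. -/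
theorem cellExt (C : Cplx Ω I dim K) (C' : Cplx Λ I dim K') (hΩ : IsOpen Ω)
    (hΛ : IsOpen Λ) :
    ∃ h : OpenPartialHomeomorph E F, h.source = Ω ∧ h.target = Λ ∧
      (∀ i, h '' K i = K' i) ∧ (∀ i, h.symm '' K' i = K i) ∧
      (∀ i, PLOn h (K i)) ∧ (∀ i, PLOn h.symm (K' i)) ∧
      (∀ i x, x ∈ Ω → (Opn K i x ↔ Opn K' i (h x))) ∧
      LocPL h Ω ∧ LocPL h.symm Λ := by
  obtain ⟨h, h1, h2, h3, h4, h5, h6, h7, h8, h9, -⟩ := cellExt_rel C C' hΩ hΛ ∅
    (by simp) 0 0 (by simp) (by simp) (by simp) (by simp) (by simp) (by simp)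
  exact ⟨h, h1, h2, h3, h4, h5, h6, h7, h8, h9⟩

end Main

end Crest.Agent.R096.Ce_537
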