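import Mathlib

/-!
# Piecewise linear maps (helper296, row 96, P2-Y)

`PLMap f` : `f` is continuous and there is a finite set `G` of affine maps such that at every
point `f` agrees with a member of `G`.
-/

namespace Crest.Agent.R096.Pl

open Set

variable {V W U : Type*}
  [NormedAddCommGroup V] [NormedSpace ℝ V]
  [NormedAddCommGroup W] [NormedSpace ℝ W]
  [NormedAddCommGroup U] [NormedSpace ℝ U]

/-- piecewise linear maps: continuous with finitely many affine selections -/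
def PLMap (f : V → W) : Prop :=
  Continuous f ∧ ∃ G : Set (V →ᵃ[ℝ] W), G.Finite ∧ ∀ x, ∃ g ∈ G, f x = g x

theorem PLMap.continuous {f : V → W} (h : PLMap f) : Continuous f := h.1

theorem PLMap.of_affine [FiniteDimensional ℝ V] (g : V →ᵃ[ℝ] W) : PLMap g :=
  ⟨g.continuous_of_finiteDimensional, {g}, finite_singleton g, fun _ => ⟨g, rfl, rfl⟩⟩

theorem PLMap.of_affine' (g : V →ᵃ[ℝ] W) (hg : Continuous g) : PLMap g :=
  ⟨hg, {g}, finite_singleton g, fun _ => ⟨g, rfl, rfl⟩⟩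

theorem PLMap.id : PLMap (fun x : V => x) :=
  ⟨continuous_id, {AffineMap.id ℝ V}, finite_singleton _, fun _ => ⟨_, rfl, rfl⟩⟩

theorem PLMap.const (c : W) : PLMap (fun _ : V => c) :=
  ⟨continuous_const, {AffineMap.const ℝ V c}, finite_singleton _, fun _ => ⟨_, rfl, rfl⟩⟩

theorem PLMap.comp {f : W → U} {g : V → W} (hf : PLMap f) (hg : PLMap g) :
    PLMap (fun x => f (g x)) := by
  obtain ⟨hfc, F, hF, hf⟩ := hf
  obtain ⟨hgc, G, hG, hg⟩ := hg
  refine ⟨hfc.comp hgc, image2 (fun a b => a.comp b) F G, hF.image2 _ hG, fun x => ?_⟩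
  obtain ⟨b, hb, hb'⟩ := hg x
  obtain ⟨a, ha, ha'⟩ := hf (g x)
  refine ⟨a.comp b, mem_image2_of_mem ha hb, ?_⟩
  beta_reduce; rw [ha', hb']; rfl

theorem PLMap.prodMk {f : V → W} {g : V → U} (hf : PLMap f) (hg : PLMap g) :
    PLMap (fun x => (f x, g x)) := by
  obtain ⟨hfc, F, hF, hf⟩ := hf
  obtain ⟨hgc, G, hG, hg⟩ := hg
  refine ⟨hfc.prodMk hgc, image2 (fun a b => a.prod b) F G, hF.image2 _ hG, fun x => ?_⟩
  obtain ⟨b, hb, hb'⟩ := hg x
  obtain ⟨a, ha, ha'⟩ := hf x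
  refine ⟨a.prod b, mem_image2_of_mem ha hb, ?_⟩
  beta_reduce; rw [ha', hb']; rfl

theorem PLMap.fst {f : V → W × U} (hf : PLMap f) : PLMap (fun x => (f x).1) := by
  obtain ⟨hfc, F, hF, hf⟩ := hf
  refine ⟨continuous_fst.comp hfc, (fun a => (AffineMap.fst).comp a) '' F, hF.image _,
    fun x => ?_⟩
  obtain ⟨a, ha, ha'⟩ := hf x
  refine ⟨_, mem_image_of_mem _ ha, ?_⟩
  beta_reduce; rw [ha']; rfl

theorem PLMap.snd {f : V → W × U} (hf : PLMap f) : PLMap (fun x => (f x).2) := by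
  obtain ⟨hfc, F, hF, hf⟩ := hf
  refine ⟨continuous_snd.comp hfc, (fun a => (AffineMap.snd).comp a) '' F, hF.image _,
    fun x => ?_⟩
  obtain ⟨a, ha, ha'⟩ := hf x
  refine ⟨_, mem_image_of_mem _ ha, ?_⟩
  beta_reduce; rw [ha']; rfl

theorem PLMap.add {f g : V → W} (hf : PLMap f) (hg : PLMap g) : PLMap (fun x => f x + g x) := by
  obtain ⟨hfc, F, hF, hf⟩ := hf
  obtain ⟨hgc, G, hG, hg⟩ := hg
  refine ⟨hfc.add hgc, image2 (fun a b => a + b) F G, hF.image2 _ hG, fun x => ?_⟩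
  obtain ⟨b, hb, hb'⟩ := hg x
  obtain ⟨a, ha, ha'⟩ := hf x
  refine ⟨a + b, mem_image2_of_mem ha hb, ?_⟩
  beta_reduce; rw [ha', hb']; rfl

theorem PLMap.sub {f g : V → W} (hf : PLMap f) (hg : PLMap g) : PLMap (fun x => f x - g x) := by
  obtain ⟨hfc, F, hF, hf⟩ := hf
  obtain ⟨hgc, G, hG, hg⟩ := hg
  refine ⟨hfc.sub hgc, image2 (fun a b => a - b) F G, hF.image2 _ hG, fun x => ?_⟩
  obtain ⟨b, hb, hb'⟩ := hg x
  obtain ⟨a, ha, ha'⟩ := hf x
  refine ⟨a - b, mem_image2_of_mem ha hb, ?_⟩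
  beta_reduce; rw [ha', hb']; rfl

theorem PLMap.neg {f : V → W} (hf : PLMap f) : PLMap (fun x => - f x) := by
  simpa using (PLMap.const (V := V) (0 : W)).sub hf

theorem PLMap.const_smul {f : V → W} (c : ℝ) (hf : PLMap f) : PLMap (fun x => c • f x) := by
  obtain ⟨hfc, F, hF, hf⟩ := hf
  refine ⟨hfc.const_smul c, (fun a => c • a) '' F, hF.image _, fun x => ?_⟩
  obtain ⟨a, ha, ha'⟩ := hf x
  refine ⟨_, mem_image_of_mem _ ha, ?_⟩
  beta_reduce; rw [ha']; rfl

theorem PLMap.const_mul {f : V → ℝ} (c : ℝ) (hf : PLMap f) : PLMap (fun x => c * f x) :=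
  hf.const_smul c

theorem PLMap.smul_const {f : V → ℝ} (hf : PLMap f) (w : W) : PLMap (fun x => f x • w) := by
  obtain ⟨hfc, F, hF, hf⟩ := hf
  refine ⟨hfc.smul continuous_const,
    (fun a => ((LinearMap.toSpanSingleton ℝ W w).toAffineMap).comp a) '' F, hF.image _,
    fun x => ?_⟩
  obtain ⟨a, ha, ha'⟩ := hf x
  refine ⟨_, mem_image_of_mem _ ha, ?_⟩
  beta_reduce; rw [ha']; simp

theorem PLMap.mul_const {f : V → ℝ} (hf : PLMap f) (c : ℝ) : PLMap (fun x => f x * c) :=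
  hf.smul_const c

theorem PLMap.div_const {f : V → ℝ} (hf : PLMap f) (c : ℝ) : PLMap (fun x => f x / c) := by
  simpa [div_eq_mul_inv] using hf.mul_const c⁻¹

theorem PLMap.add_const {f : V → W} (hf : PLMap f) (c : W) : PLMap (fun x => f x + c) :=
  hf.add (PLMap.const c)

theorem PLMap.sub_const {f : V → W} (hf : PLMap f) (c : W) : PLMap (fun x => f x - c) :=
  hf.sub (PLMap.const c)

/-- a continuous map which at every point agrees with one of finitely many PL maps is PL -/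
theorem PLMap.of_finite {f : V → W} (hc : Continuous f) {F : Set (V → W)} (hF : F.Finite)
    (hPL : ∀ g ∈ F, PLMap g) (h : ∀ x, ∃ g ∈ F, f x = g x) : PLMap f := by
  classical
  choose! G hG using fun g (hg : g ∈ F) => (hPL g hg).2
  refine ⟨hc, ⋃ g ∈ F, G g, hF.biUnion (fun g hg => (hG g hg).1), fun x => ?_⟩
  obtain ⟨g, hg, hx⟩ := h x
  obtain ⟨a, ha, ha'⟩ := (hG g hg).2 x
  exact ⟨a, mem_biUnion hg ha, by rw [hx, ha']⟩

theorem PLMap.of_two {f g₁ g₂ : V → W} (hc : Continuous f) (h1 : PLMap g₁) (h2 : PLMap g₂)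
    (h : ∀ x, f x = g₁ x ∨ f x = g₂ x) : PLMap f := by
  refine PLMap.of_finite hc (F := {g₁, g₂}) (by simp) ?_ fun x => ?_
  · rintro g (rfl | rfl)
    · exact h1
    · exact h2
  · rcases h x with h | h
    · exact ⟨g₁, by simp, h⟩
    · exact ⟨g₂, by simp, h⟩

theorem PLMap.max {f g : V → ℝ} (hf : PLMap f) (hg : PLMap g) : PLMap (fun x => max (f x) (g x)) := by
  refine PLMap.of_two (hf.continuous.max hg.continuous) hf hg fun x => ?_
  rcases le_total (f x) (g x) with h | h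
  · right; exact max_eq_right h
  · left; exact max_eq_left h

theorem PLMap.min {f g : V → ℝ} (hf : PLMap f) (hg : PLMap g) : PLMap (fun x => min (f x) (g x)) := by
  refine PLMap.of_two (hf.continuous.min hg.continuous) hf hg fun x => ?_
  rcases le_total (f x) (g x) with h | h
  · left; exact min_eq_left h
  · right; exact min_eq_right h

theorem PLMap.abs {f : V → ℝ} (hf : PLMap f) : PLMap (fun x => |f x|) := by
  exact hf.max hf.neg

theorem PLMap.finset_sup' {ι : Type*} {s : Finset ι} (hs : s.Nonempty) {f : ι → V → ℝ}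
    (hf : ∀ i ∈ s, PLMap (f i)) : PLMap (fun x => s.sup' hs (fun i => f i x)) := by
  classical
  refine PLMap.of_finite (Continuous.finset_sup'_apply hs fun i hi => (hf i hi).continuous)
    (F := f '' s) (s.finite_toSet.image f) ?_ fun x => ?_
  · rintro g ⟨i, hi, rfl⟩
    exact hf i hi
  · obtain ⟨i, hi, h⟩ := s.exists_mem_eq_sup' hs (fun i => f i x)
    exact ⟨f i, mem_image_of_mem f hi, h⟩

theorem PLMap.finset_inf' {ι : Type*} {s : Finset ι} (hs : s.Nonempty) {f : ι → V → ℝ}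
    (hf : ∀ i ∈ s, PLMap (f i)) : PLMap (fun x => s.inf' hs (fun i => f i x)) := by
  classical
  refine PLMap.of_finite (Continuous.finset_inf'_apply hs fun i hi => (hf i hi).continuous)
    (F := f '' s) (s.finite_toSet.image f) ?_ fun x => ?_
  · rintro g ⟨i, hi, rfl⟩
    exact hf i hi
  · obtain ⟨i, hi, h⟩ := s.exists_mem_eq_inf' hs (fun i => f i x)
    exact ⟨f i, mem_image_of_mem f hi, h⟩

theorem PLMap.finset_sum {ι : Type*} (s : Finset ι) {f : ι → V → W}
    (hf : ∀ i ∈ s, PLMap (f i)) : PLMap (fun x => ∑ i ∈ s, f i x) := by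
  classical
  induction s using Finset.induction_on with
  | empty => simpa using PLMap.const (V := V) (0 : W)
  | insert a s ha ih =>
    simp only [Finset.sum_insert ha]
    exact (hf a (by simp)).add (ih fun i hi => hf i (by simp [hi]))

/-- gluing two PL maps along `{u ≤ v}` / `{v ≤ u}` -/
theorem PLMap.ite_le {f g : V → W} {u v : V → ℝ} (hf : PLMap f) (hg : PLMap g)
    (hu : Continuous u) (hv : Continuous v) (h : ∀ x, u x = v x → f x = g x) :
    PLMap (fun x => open Classical in if u x ≤ v x then f x else g x) := by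
  classical
  refine PLMap.of_two ?_ hf hg fun x => ?_
  · exact Continuous.if_le hf.continuous hg.continuous hu hv h
  · by_cases hx : u x ≤ v x
    · left; simp [hx]
    · right; simp [hx]

/-- PL homeomorphisms of `V` onto `W` -/
def PLH (h : V ≃ₜ W) : Prop := PLMap h ∧ PLMap h.symm

theorem PLH.refl : PLH (Homeomorph.refl V) := ⟨PLMap.id, PLMap.id⟩

theorem PLH.symm {h : V ≃ₜ W} (hh : PLH h) : PLH h.symm := ⟨hh.2, hh.1⟩

theorem PLH.trans {h : V ≃ₜ W} {k : W ≃ₜ U} (hh : PLH h) (hk : PLH k) : PLH (h.trans k) :=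
  ⟨hk.1.comp hh.1, hh.2.comp hk.2⟩

/-- build a homeo from two mutually inverse PL maps -/
def mkH (f : V → W) (g : W → V) (hf : PLMap f) (hg : PLMap g)
    (h1 : ∀ x, g (f x) = x) (h2 : ∀ y, f (g y) = y) : V ≃ₜ W where
  toFun := f
  invFun := g
  left_inv := h1
  right_inv := h2
  continuous_toFun := hf.continuous
  continuous_invFun := hg.continuous

@[simp] theorem mkH_apply (f : V → W) (g : W → V) (hf : PLMap f) (hg : PLMap g)
    (h1 : ∀ x, g (f x) = x) (h2 : ∀ y, f (g y) = y) (x : V) : mkH f g hf hg h1 h2 x = f x := rfl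

@[simp] theorem mkH_symm_apply (f : V → W) (g : W → V) (hf : PLMap f) (hg : PLMap g)
    (h1 : ∀ x, g (f x) = x) (h2 : ∀ y, f (g y) = y) (x : W) :
    (mkH f g hf hg h1 h2).symm x = g x := rfl

theorem PLH_mkH (f : V → W) (g : W → V) (hf : PLMap f) (hg : PLMap g)
    (h1 : ∀ x, g (f x) = x) (h2 : ∀ y, f (g y) = y) : PLH (mkH f g hf hg h1 h2) :=
  ⟨hf, hg⟩

theorem PLMap.norm_of_polyhedral {W : Type*} [NormedAddCommGroup W] [NormedSpace ℝ W]
    (hN : PLMap (fun w : W => ‖w‖)) {f : V → W} (hf : PLMap f) : PLMap (fun x => ‖f x‖) :=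
  hN.comp hf

end Crest.Agent.R096.Pl
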