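import Crest.Agent.R096.Msh3_715
import Crest.Agent.R096.PlDefs_296
import Crest.Agent.R096.Ce2_537

/-!
# Row 96 (S0127), p < 2: lemma 2SK (helper855), part a: boxes, the surgery interface, iteration

`Box T La` : a parallelepiped `{‖L y‖ ≤ b}` of the target with an interval of levels `(a, b)`, its
crossing edges and its marks.  `Surg T La` : the surgery theorem for one box (leaf SURG).
`iterate` : many boxes, one after the other.
-/

set_option autoImplicit false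
set_option linter.unusedSectionVars false

open Set Metric

namespace Crest.Agent.R096.Sk2_855

open Crest.Agent.R096.Msh_715 (Tiling)
open Crest.Agent.R096.Pl (PLH PLMap)
open Crest.Agent.R096.Ce_537 (LocPL PLOn)

variable {E : Type*} [NormedAddCommGroup E] [NormedSpace ℝ E] {Om La : Set E} {ι : Type*}

/-- the 1-skeleton of a tiling -/
def sk1 (T : Tiling Om ι) : Set E := {x | x ∈ Om ∧ T.dim x ≤ 1}

/-- a box of the target with its crossing edges and its marks -/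
structure Box (T : Tiling Om ι) (La : Set E) where
  L : E ≃ᵃ[ℝ] (Fin 3 → ℝ)
  a : ℝ
  b : ℝ
  a_pos : 0 < a
  ab : a < b
  sub : ∀ y, ‖L y‖ ≤ b → y ∈ La
  K : Type
  fin : Finite K
  e : K → E
  eOm : ∀ k, e k ∈ Om
  edim : ∀ k, T.dim (e k) = 1
  einj : ∀ k k', e k' ∈ T.oc (e k) → k' = k
  M : K → Set E
  Mc : ∀ k, IsCompact (M k)
  Mdisj : ∀ k k', k ≠ k' → Disjoint (M k) (M k')
  Mlev : ∀ k, ∀ t ∈ Icc a b, Convex ℝ (M k ∩ {y | ‖L y‖ = t}) ∧ (M k ∩ {y | ‖L y‖ = t}).Nonempty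
  two : ∀ x ∈ Om, T.dim x = 2 → (∃ k, e k ∈ T.cc x) →
    ∃ k k', k ≠ k' ∧ e k ∈ T.cc x ∧ e k' ∈ T.cc x ∧ ∀ k'', e k'' ∈ T.cc x → k'' = k ∨ k'' = k'
  conn : ∀ k k', Relation.ReflTransGen
    (fun k k' => ∃ x ∈ Om, T.dim x = 2 ∧ e k ∈ T.cc x ∧ e k' ∈ T.cc x) k k'

namespace Box

variable {T : Tiling Om ι} (B : Box T La)

/-- the shell of the level interval -/
def shell : Set E := {y | B.a ≤ ‖B.L y‖ ∧ ‖B.L y‖ ≤ B.b}

/-- the full box -/
def Y : Set E := {y | ‖B.L y‖ ≤ B.b}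

theorem shell_sub_Y : B.shell ⊆ B.Y := fun _ h => h.2

/-- a face which contains no crossing edge -/
def NC (x : E) : Prop := ∀ k, B.e k ∉ T.cc x

/-- the hypotheses on the homeomorphism -/
structure Ok (h : E → E) : Prop where
  edges : ∀ x ∈ sk1 T, h x ∈ B.shell → ∃ k, x ∈ T.oc (B.e k) ∧ h x ∈ B.M k
  ends : ∀ k, ∃ v ∈ T.cc (B.e k), ∃ w ∈ T.cc (B.e k), T.dim v = 0 ∧ T.dim w = 0 ∧
      ‖B.L (h v)‖ < B.a ∧ B.b < ‖B.L (h w)‖
  faces : ∀ x ∈ Om, T.dim x = 2 → B.NC x → ∀ k, Disjoint (h '' T.cc x) (B.M k)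

end Box

/-- `h` is a locally PL homeomorphism of `Om` onto `La` with inverse `hi`. -/
structure HP (Om La : Set E) (h hi : E → E) : Prop where
  mt : MapsTo h Om La
  mti : MapsTo hi La Om
  li : ∀ x ∈ Om, hi (h x) = x
  ri : ∀ y ∈ La, h (hi y) = y
  pl : LocPL h Om
  pli : LocPL hi La

/-- a PL homeomorphism of the space, supported in a compact part of `Om` off the 1-skeleton -/
structure Mv (T : Tiling Om ι) (ψ : E ≃ₜ E) : Prop where
  plh : PLH ψ
  supp : ∃ K : Set E, IsCompact K ∧ K ⊆ Om ∧ Disjoint K (sk1 T) ∧ ∀ x, x ∉ K → ψ x = x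

/-- **SURG** (one box): what the surgery leaf gives. -/
def Surg (T : Tiling Om ι) (La : Set E) : Prop :=
  ∀ (B : Box T La) (h hi : E → E), HP Om La h hi → B.Ok h →
    ∃ ψ : E ≃ₜ E, Mv T ψ ∧
      (∀ x ∈ Om, T.dim x = 2 → h '' (ψ '' T.cc x) ⊆ h '' T.cc x ∪ B.shell) ∧
      (∀ x ∈ Om, T.dim x = 2 → Disjoint (h '' T.cc x) B.shell → ψ '' T.cc x = T.cc x) ∧
      (∃ t ∈ Ioo B.a B.b, ∀ x ∈ Om, T.dim x = 2 → B.NC x → ∀ z ∈ T.cc x, ‖B.L (h (ψ z))‖ ≠ t)

/-! ### moves -/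

namespace Mv

variable {T : Tiling Om ι} {ψ φ : E ≃ₜ E}

theorem refl : Mv T (Homeomorph.refl E) :=
  ⟨PLH.refl, ∅, isCompact_empty, empty_subset _, empty_disjoint _, fun _ _ => rfl⟩

theorem eq_on_sk1 (h : Mv T ψ) {x : E} (hx : x ∈ sk1 T) : ψ x = x := by
  obtain ⟨K, -, -, hd, hK⟩ := h.supp
  exact hK x fun hxK => (disjoint_left.1 hd) hxK hx

theorem mapsTo (h : Mv T ψ) : MapsTo ψ Om Om := by
  obtain ⟨K, -, hO, -, hK⟩ := h.supp
  intro x hx
  by_contra hn
  have h1 : ψ x ∉ K := fun hk => hn (hO hk)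
  have h2 := ψ.injective (hK _ h1)
  exact hn (by rw [h2]; exact hx)

theorem symm (h : Mv T ψ) : Mv T ψ.symm := by
  obtain ⟨K, hc, hO, hd, hK⟩ := h.supp
  refine ⟨h.plh.symm, K, hc, hO, hd, fun x hx => ?_⟩
  rw [Homeomorph.symm_apply_eq, hK x hx]

theorem trans (h : Mv T ψ) (h' : Mv T φ) : Mv T (ψ.trans φ) := by
  obtain ⟨K, hc, hO, hd, hK⟩ := h.supp
  obtain ⟨K', hc', hO', hd', hK'⟩ := h'.supp
  refine ⟨h.plh.trans h'.plh, K ∪ K', hc.union hc', union_subset hO hO',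
    disjoint_union_left.2 ⟨hd, hd'⟩, fun x hx => ?_⟩
  rw [mem_union, not_or] at hx
  show φ (ψ x) = x
  rw [hK x hx.1, hK' x hx.2]

end Mv

theorem PLMap_locPL {F : Type*} [NormedAddCommGroup F] [NormedSpace ℝ F] {f : E → F}
    (hf : PLMap f) (U : Set E) : LocPL f U := by
  intro x _
  obtain ⟨hc, G, hG, h⟩ := hf
  refine ⟨1, one_pos, hc.continuousOn, hG.toFinset, fun y _ => ?_⟩
  obtain ⟨g, hg, e⟩ := h y
  exact ⟨g, hG.mem_toFinset.2 hg, e⟩

theorem PLMap.plOn {F : Type*} [NormedAddCommGroup F] [NormedSpace ℝ F] {f : E → F}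
    (hf : PLMap f) (U : Set E) : PLOn f U := by
  obtain ⟨hc, G, hG, h⟩ := hf
  refine ⟨hc.continuousOn, hG.toFinset, fun y _ => ?_⟩
  obtain ⟨g, hg, e⟩ := h y
  exact ⟨g, hG.mem_toFinset.2 hg, e⟩

theorem locPL_comp_PLMap {h : E → E} {g : E → E} (hg : PLMap g) {U V : Set E}
    (hm : MapsTo g U V) (hh : LocPL h V) : LocPL (fun x => h (g x)) U := by
  intro x hx
  obtain ⟨r, hr, hp⟩ := hh (g x) (hm hx)
  obtain ⟨r', hr', hb⟩ := Metric.continuous_iff.1 hg.continuous x r hr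
  exact ⟨r', hr', hp.comp (PLMap.plOn hg _) fun y hy => hb y hy⟩

theorem PLMap_comp_locPL {h : E → E} {g : E → E} (hg : PLMap g) {U : Set E}
    (hh : LocPL h U) : LocPL (fun x => g (h x)) U := by
  intro x hx
  obtain ⟨r, hr, hp⟩ := hh x hx
  exact ⟨r, hr, (PLMap.plOn hg univ).comp hp fun y _ => mem_univ _⟩

theorem HP.comp {T : Tiling Om ι} {h hi : E → E} (H : HP Om La h hi) {ψ : E ≃ₜ E} (hψ : Mv T ψ) :
    HP Om La (fun x => h (ψ x)) (fun y => ψ.symm (hi y)) where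
  mt := fun x hx => H.mt (hψ.mapsTo hx)
  mti := fun y hy => hψ.symm.mapsTo (H.mti hy)
  li := fun x hx => by rw [H.li _ (hψ.mapsTo hx), Homeomorph.symm_apply_apply]
  ri := fun y hy => by rw [Homeomorph.apply_symm_apply, H.ri _ hy]
  pl := locPL_comp_PLMap hψ.plh.1 hψ.mapsTo H.pl
  pli := PLMap_comp_locPL hψ.plh.2 H.pli

theorem HP.contOn {h hi : E → E} (H : HP Om La h hi) : ContinuousOn h Om := by
  intro x hx
  obtain ⟨r, hr, hp⟩ := H.pl x hx
  exact (hp.1.continuousAt (ball_mem_nhds x hr)).continuousWithinAt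

/-! ### growth -/

/-- add the box if it meets the set -/
def grow (S Y : Set E) : Set E := S ∪ {y | y ∈ Y ∧ (S ∩ Y).Nonempty}

/-- add the boxes of the list one after the other -/
def reach (S : Set E) : List (Set E) → Set E
  | [] => S
  | Y :: l => reach (grow S Y) l

theorem grow_mono {S S' : Set E} (h : S ⊆ S') (Y : Set E) : grow S Y ⊆ grow S' Y := by
  rintro y (hy | ⟨hy, z, hz⟩)
  · exact Or.inl (h hy)
  · exact Or.inr ⟨hy, z, h hz.1, hz.2⟩

theorem sub_grow (S Y : Set E) : S ⊆ grow S Y := subset_union_left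

theorem reach_mono {S S' : Set E} (h : S ⊆ S') (l : List (Set E)) : reach S l ⊆ reach S' l := by
  induction l generalizing S S' with
  | nil => exact h
  | cons Y l ih => exact ih (grow_mono h Y)

theorem sub_reach (S : Set E) (l : List (Set E)) : S ⊆ reach S l := by
  induction l generalizing S with
  | nil => exact Subset.rfl
  | cons Y l ih => exact (sub_grow S Y).trans (ih _)

theorem reach_append (S : Set E) (l l' : List (Set E)) :
    reach S (l ++ l') = reach (reach S l) l' := by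
  induction l generalizing S with
  | nil => rfl
  | cons Y l ih => exact ih _

/-! ### iteration -/

variable [FiniteDimensional ℝ E]

theorem in_of_ne {T : Tiling Om ι} (B : Box T La) {h hi : E → E} (H : HP Om La h hi)
    {x : E} (hx : x ∈ Om) {t : ℝ} (ht : t ∈ Ioo B.a B.b)
    (hne : ∀ z ∈ T.cc x, ‖B.L (h z)‖ ≠ t)
    (hb : ∀ z ∈ T.cc x, z ∈ sk1 T → ‖B.L (h z)‖ < B.a) : h '' T.cc x ⊆ B.Y := by
  obtain ⟨v, hv, hv0⟩ := T.exists_vertex hx
  have hvO : v ∈ Om := T.cc_sub_Om hx hv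
  have hcont : ContinuousOn (fun z => ‖B.L (h z)‖) (T.cc x) :=
    (B.L.toAffineMap.continuous_of_finiteDimensional.comp_continuousOn
      (H.contOn.mono (T.cc_sub_Om hx))).norm
  have hpre : IsPreconnected (T.cc x) := (T.convex_cc x).isPreconnected
  rintro _ ⟨z, hz, rfl⟩
  by_contra hn
  have hz' : B.b < ‖B.L (h z)‖ := not_le.1 hn
  have h1 := hb v hv ⟨hvO, by rw [hv0]; exact zero_le_one⟩
  obtain ⟨w, hw, e⟩ := hpre.intermediate_value hv hz hcont
    (show t ∈ Icc (‖B.L (h v)‖) (‖B.L (h z)‖) from ⟨(h1.trans ht.1).le, (ht.2.trans hz').le⟩)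
  exact hne w hw e

/-- many boxes, one after the other -/
theorem iterate {T : Tiling Om ι} (hS : Surg T La) : ∀ (l : List (Box T La)),
    l.Pairwise (fun B B' => ∀ k, Disjoint B.shell (B'.M k)) →
    ∀ h hi : E → E, HP Om La h hi → (∀ B ∈ l, B.Ok h) →
    ∃ Ψ : E ≃ₜ E, Mv T Ψ ∧
      (∀ x ∈ Om, T.dim x = 2 →
        h '' (Ψ '' T.cc x) ⊆ reach (h '' T.cc x) (l.map fun B => B.Y)) ∧
      (∀ l1 B l2, l = l1 ++ B :: l2 → ∀ x ∈ Om, T.dim x = 2 → B.NC x →
        (∀ z ∈ T.cc x, z ∈ sk1 T → ‖B.L (h z)‖ < B.a) →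
        h '' (Ψ '' T.cc x) ⊆ reach B.Y (l2.map fun B => B.Y)) := by
  intro l
  induction l with
  | nil =>
    intro _ h hi _ _
    refine ⟨Homeomorph.refl E, Mv.refl, fun x _ _ => ?_, ?_⟩
    · have : (Homeomorph.refl E) '' T.cc x = T.cc x := by
        ext z; simp
      rw [this]
      exact Subset.rfl
    · intro l1 B l2 h0
      exact absurd h0.symm (by simp)
  | cons B l ih =>
    intro hp h hi H hOk
    obtain ⟨ψ, hψ, h1, h2, t, ht, h3⟩ := hS B h hi H (hOk B List.mem_cons_self)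
    set h' : E → E := fun x => h (ψ x) with hh'
    have H' : HP Om La h' (fun y => ψ.symm (hi y)) := H.comp hψ
    have esk : ∀ z ∈ sk1 T, h' z = h z := fun z hz => by
      show h (ψ z) = h z
      rw [hψ.eq_on_sk1 hz]
    have eim : ∀ s : Set E, h' '' s = h '' (ψ '' s) := fun s => (image_image h ψ s).symm
    rw [List.pairwise_cons] at hp
    have hOk' : ∀ B' ∈ l, B'.Ok h' := by
      intro B' hB'
      have hO := hOk B' (List.mem_cons_of_mem _ hB')
      refine ⟨fun x hx hs => ?_, fun k => ?_, fun x hx hd hn k => ?_⟩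
      · rw [esk x hx] at hs ⊢
        exact hO.edges x hx hs
      · obtain ⟨v, hv, w, hw, dv, dw, lv, lw⟩ := hO.ends k
        have hk := B'.eOm k
        refine ⟨v, hv, w, hw, dv, dw, ?_, ?_⟩
        · rw [esk v ⟨T.cc_sub_Om hk hv, by rw [dv]; exact zero_le_one⟩]; exact lv
        · rw [esk w ⟨T.cc_sub_Om hk hw, by rw [dw]; exact zero_le_one⟩]; exact lw
      · rw [eim]
        exact Disjoint.mono_left (h1 x hx hd)
          (disjoint_union_left.2 ⟨hO.faces x hx hd hn k, hp.1 B' hB' k⟩)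
    obtain ⟨Ψ, hΨ, g1, g2⟩ := ih hp.2 h' _ H' hOk'
    have eim2 : ∀ s : Set E, h '' ((Ψ.trans ψ) '' s) = h' '' (Ψ '' s) := fun s => by
      rw [eim]
      have e : (⇑(Ψ.trans ψ)) '' s = ψ '' (Ψ '' s) := by rw [image_image]; rfl
      rw [e]
    have step : ∀ x ∈ Om, T.dim x = 2 → h' '' T.cc x ⊆ grow (h '' T.cc x) B.Y := by
      intro x hx hd
      rw [eim]
      by_cases hm : Disjoint (h '' T.cc x) B.shell
      · rw [h2 x hx hd hm]
        exact sub_grow _ _
      · rintro y hy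
        rcases h1 x hx hd hy with hy | hy
        · exact Or.inl hy
        · rw [not_disjoint_iff] at hm
          obtain ⟨z, hz, hz'⟩ := hm
          exact Or.inr ⟨hy.2, z, hz, hz'.2⟩
    refine ⟨Ψ.trans ψ, hΨ.trans hψ, fun x hx hd => ?_, ?_⟩
    · rw [eim2]
      exact (g1 x hx hd).trans (reach_mono (step x hx hd) _)
    · intro l1 B' l2 hl x hx hd hn hb
      rw [eim2]
      cases l1 with
      | nil =>
        rw [List.nil_append, List.cons.injEq] at hl
        obtain ⟨rfl, rfl⟩ := hl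
        refine (g1 x hx hd).trans (reach_mono ?_ _)
        exact in_of_ne B H' hx ht (h3 x hx hd hn) fun z hz hz1 => by
          rw [esk z hz1]; exact hb z hz hz1
      | cons B'' l1 =>
        rw [List.cons_append, List.cons.injEq] at hl
        exact g2 l1 B' l2 hl.2 x hx hd hn fun z hz hz1 => by
          rw [esk z hz1]; exact hb z hz hz1

end Crest.Agent.R096.Sk2_855
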