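/-
helper622, row 96: transport of a 715-tiling by a continuous linear equivalence `e : E ≃L[ℝ] F`
(`R3` and `Fin 3 → ℝ`), with points, cells, dimensions, 1-skeleton and moves.
-/
import Crest.Agent.R096.Sk2a_855

set_option autoImplicit false
set_option linter.unusedSectionVars false

open Set Metric Filter Topology

namespace Crest.Agent.R096.Ttr_622

open Crest.Agent.R096.Msh_715
open Crest.Agent.R096.Sk2_855 (sk1 Mv)

variable {E F : Type*} [NormedAddCommGroup E] [NormedSpace ℝ E] [NormedAddCommGroup F]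
  [NormedSpace ℝ F] (e : E ≃L[ℝ] F)

/-- transport of inequalities -/
noncomputable def trH (H : Finset ((E →L[ℝ] ℝ) × ℝ)) : Finset ((F →L[ℝ] ℝ) × ℝ) :=
  open Classical in H.image fun h => (h.1.comp (e.symm : F →L[ℝ] E), h.2)

theorem forall_trH {H : Finset ((E →L[ℝ] ℝ) × ℝ)} {Q : (F →L[ℝ] ℝ) × ℝ → Prop} :
    (∀ g ∈ trH e H, Q g) ↔ ∀ h ∈ H, Q (h.1.comp (e.symm : F →L[ℝ] E), h.2) := by
  classical
  unfold trH
  constructor
  · exact fun h g hg => h _ (Finset.mem_image_of_mem _ hg)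
  · intro h g hg
    obtain ⟨h', hh', rfl⟩ := Finset.mem_image.1 hg
    exact h h' hh'

theorem mem_P_trH {H : Finset ((E →L[ℝ] ℝ) × ℝ)} {y : F} : y ∈ P (trH e H) ↔ e.symm y ∈ P H := by
  show (∀ g ∈ trH e H, g.1 y ≤ g.2) ↔ _
  rw [forall_trH]
  rfl

theorem mem_I_trH {H : Finset ((E →L[ℝ] ℝ) × ℝ)} {y : F} : y ∈ I (trH e H) ↔ e.symm y ∈ I H := by
  show (∀ g ∈ trH e H, g.1 y < g.2) ↔ _
  rw [forall_trH]
  rfl

theorem P_trH (H : Finset ((E →L[ℝ] ℝ) × ℝ)) : P (trH e H) = e '' P H := by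
  ext y
  rw [mem_P_trH]
  constructor
  · exact fun h => ⟨_, h, e.apply_symm_apply y⟩
  · rintro ⟨x, hx, rfl⟩
    rwa [e.symm_apply_apply]

theorem I_trH (H : Finset ((E →L[ℝ] ℝ) × ℝ)) : I (trH e H) = e '' I H := by
  ext y
  rw [mem_I_trH]
  constructor
  · exact fun h => ⟨_, h, e.apply_symm_apply y⟩
  · rintro ⟨x, hx, rfl⟩
    rwa [e.symm_apply_apply]

variable {Om : Set E} {ι : Type*} (T : Tiling Om ι)

/-- the transported tiling -/
noncomputable def tr : Tiling (e.symm ⁻¹' Om) ι where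
  H i := trH e (T.H i)
  cpt i := by
    rw [P_trH]
    exact (T.cpt i).image e.continuous
  ne i := by
    rw [I_trH]
    exact (T.ne i).image e
  sub i := fun y hy => T.sub i ((mem_P_trH e).1 hy)
  cov y hy := by
    obtain ⟨i, hi⟩ := T.cov _ hy
    exact ⟨i, (mem_P_trH e).2 hi⟩
  dis i j hij := by
    rw [Set.disjoint_left]
    intro y h1 h2
    exact Set.disjoint_left.1 (T.dis i j hij) ((mem_I_trH e).1 h1) ((mem_I_trH e).1 h2)
  lf y hy := by
    obtain ⟨r, hr, hf⟩ := T.lf _ hy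
    have h1 : e.symm ⁻¹' ball (e.symm y) r ∈ 𝓝 y :=
      e.symm.continuous.continuousAt (ball_mem_nhds _ hr)
    obtain ⟨r', hr', hs⟩ := Metric.mem_nhds_iff.1 h1
    refine ⟨r', hr', hf.subset ?_⟩
    rintro i ⟨z, hz1, hz2⟩
    exact ⟨e.symm z, (mem_P_trH e).1 hz1, hs hz2⟩
  op := T.op.preimage e.symm.continuous

theorem mem_P_tr {i : ι} {y : F} : y ∈ P ((tr e T).H i) ↔ e.symm y ∈ P (T.H i) := mem_P_trH e

theorem mem_I_tr {i : ι} {y : F} : y ∈ I ((tr e T).H i) ↔ e.symm y ∈ I (T.H i) := mem_I_trH e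

theorem P_tr (i : ι) : P ((tr e T).H i) = e '' P (T.H i) := P_trH e _

theorem I_tr (i : ι) : I ((tr e T).H i) = e '' I (T.H i) := I_trH e _

theorem at_tr (y : F) : (tr e T).at_ y = T.at_ (e.symm y) := by
  ext i
  exact mem_P_trH e

theorem mem_cc_tr {x y : F} : y ∈ (tr e T).cc x ↔ e.symm y ∈ T.cc (e.symm x) := by
  show (∀ i ∈ (tr e T).at_ x, ∀ h ∈ trH e (T.H i), h.1 y ≤ h.2 ∧ (h.1 x = h.2 → h.1 y = h.2)) ↔ _
  rw [at_tr]
  refine forall₂_congr fun i _ => ?_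
  rw [forall_trH]
  rfl

theorem mem_oc_tr {x y : F} : y ∈ (tr e T).oc x ↔ e.symm y ∈ T.oc (e.symm x) := by
  show (∀ i ∈ (tr e T).at_ x, ∀ h ∈ trH e (T.H i), h.1 y ≤ h.2 ∧ (h.1 y = h.2 ↔ h.1 x = h.2)) ↔ _
  rw [at_tr]
  refine forall₂_congr fun i _ => ?_
  rw [forall_trH]
  rfl

theorem cc_tr (x : E) : (tr e T).cc (e x) = e '' T.cc x := by
  ext y
  rw [mem_cc_tr, e.symm_apply_apply]
  constructor
  · exact fun h => ⟨_, h, e.apply_symm_apply y⟩
  · rintro ⟨z, hz, rfl⟩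
    rwa [e.symm_apply_apply]

theorem oc_tr (x : E) : (tr e T).oc (e x) = e '' T.oc x := by
  ext y
  rw [mem_oc_tr, e.symm_apply_apply]
  constructor
  · exact fun h => ⟨_, h, e.apply_symm_apply y⟩
  · rintro ⟨z, hz, rfl⟩
    rwa [e.symm_apply_apply]

theorem mem_V_tr {x v : F} : v ∈ (tr e T).V x ↔ e.symm v ∈ T.V (e.symm x) := by
  rw [Tiling.mem_V, Tiling.mem_V, at_tr]
  refine forall₂_congr fun i _ => ?_
  show (∀ h ∈ trH e (T.H i), h.1 x = h.2 → h.1 v = 0) ↔ _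
  rw [forall_trH]
  rfl

theorem dim_tr (x : F) : (tr e T).dim x = T.dim (e.symm x) := by
  unfold Tiling.dim
  have h1 : (tr e T).V x = (T.V (e.symm x)).map (e.toLinearEquiv : E →ₗ[ℝ] F) := by
    ext v
    rw [mem_V_tr]
    constructor
    · exact fun h => ⟨_, h, e.apply_symm_apply v⟩
    · rintro ⟨z, hz, rfl⟩
      have : e.symm (e.toLinearEquiv z) = z := e.symm_apply_apply z
      show e.symm (e.toLinearEquiv z) ∈ _
      rw [this]
      exact hz
  rw [h1]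
  exact LinearEquiv.finrank_map_eq e.toLinearEquiv _

theorem dim_tr' (x : E) : (tr e T).dim (e x) = T.dim x := by
  rw [dim_tr, e.symm_apply_apply]

theorem mem_sk1_tr {x : F} : x ∈ sk1 (tr e T) ↔ e.symm x ∈ sk1 T := by
  show x ∈ e.symm ⁻¹' Om ∧ (tr e T).dim x ≤ 1 ↔ _
  rw [dim_tr]
  rfl

theorem sk1_tr : sk1 (tr e T) = e '' sk1 T := by
  ext y
  rw [mem_sk1_tr]
  constructor
  · exact fun h => ⟨_, h, e.apply_symm_apply y⟩
  · rintro ⟨z, hz, rfl⟩
    rwa [e.symm_apply_apply]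

end Crest.Agent.R096.Ttr_622
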