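import Crest.Agent.R096.Ca8_855
import Crest.Agent.R096.Ttr1_622
import Crest.Agent.R096.Gsm5_432

/-!
# Row 96 (S0127), p ≤ 2: composite A (helper855), part 11: transport of `TileG` and `Rig`
-/

set_option autoImplicit false
set_option linter.unusedSectionVars false

open Set Metric MeasureTheory Filter
open scoped ENNReal Topology

namespace Crest.Agent.R096.Ca_855

open Crest.Agent.R096.Msh_715
open Crest.Agent.R096.Sk2_855 (sk1)
open Crest.Agent.R096.Sk3_812 (ug KT Crs crs_congr exists_KT)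
open Crest.Agent.R096.Ttr_622
open Crest.Agent.R096.Gsm_432 (hom ug_le_iff_hom)
open Crest.Agent.R096.Mf_113 (Rig)

section

variable {E F : Type} [NormedAddCommGroup E] [NormedSpace ℝ E] [FiniteDimensional ℝ E]
  [NormedAddCommGroup F] [NormedSpace ℝ F] [FiniteDimensional ℝ F]
  {Om : Set E} {ι : Type*} {T : Tiling Om ι} {i : ι}

/-- less neighbours -/
theorem TileG.nc' {hne : (T.H i).Nonempty} {c : E} {β ρ t : ℝ} {nc nc' : ℕ}
    (h : TileG T i hne c β ρ t nc) (hK : Nat.card (KT T i) ≤ nc')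
    (hN : {j | (P (T.H j) ∩ P (T.H i)).Nonempty}.ncard ≤ nc') : TileG T i hne c β ρ t nc' :=
  ⟨h.cI, h.ball, h.gap, h.star, hK, hN, h.diam⟩

theorem TileG.diam' {hne : (T.H i).Nonempty} {c : E} {β ρ ρ' t t' : ℝ} {nc : ℕ}
    (h : TileG T i hne c β ρ t nc) (hρ : ρ' ≤ ρ)
    (ht : ∀ y ∈ P (T.H i), ∀ y' ∈ P (T.H i), ‖y - y'‖ ≤ t') : TileG T i hne c β ρ' t' nc :=
  ⟨h.cI, (closedBall_subset_closedBall hρ).trans h.ball, h.gap, h.star, h.cardK, h.cardN, ht⟩

variable (e : E ≃L[ℝ] F)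

theorem hom_tr {c : E} {t : ℝ} {y : F} :
    y ∈ hom (e c) t (P ((tr e T).H i)) ↔ e.symm y ∈ hom c t (P (T.H i)) := by
  constructor
  · rintro ⟨z, hz, rfl⟩
    refine ⟨e.symm z, (mem_P_tr e T).1 hz, ?_⟩
    simp
  · rintro ⟨z, hz, hzy⟩
    refine ⟨e z, (mem_P_tr e T).2 (by simpa using hz), ?_⟩
    simp only at hzy ⊢
    rw [← map_sub, ← map_smul, ← map_add, hzy, ContinuousLinearEquiv.apply_symm_apply]

theorem ug_tr {hne : (T.H i).Nonempty} {hne' : ((tr e T).H i).Nonempty} {c : E}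
    (hc : c ∈ I (T.H i)) {t : ℝ} (ht : 0 < t) (y : F) :
    ug ((tr e T).H i) hne' (e c) (AffineEquiv.refl ℝ F) y ≤ t ↔
      ug (T.H i) hne c (AffineEquiv.refl ℝ E) (e.symm y) ≤ t := by
  have hc' : e c ∈ I ((tr e T).H i) := (mem_I_tr e T).2 (by simpa using hc)
  have h1 := ug_le_iff_hom hne' hc' (AffineEquiv.refl ℝ F) ht y
  have h2 := ug_le_iff_hom hne hc (AffineEquiv.refl ℝ E) ht (e.symm y)
  rw [AffineEquiv.refl_apply] at h1 h2
  rw [h1, h2]
  exact hom_tr e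

theorem crs_tr {y : F} : Crs (tr e T) i y ↔ Crs T i (e.symm y) := by
  unfold Crs
  rw [dim_tr, mem_P_tr]
  refine and_congr Iff.rfl (and_congr Iff.rfl (and_congr Iff.rfl ?_))
  constructor
  · rintro ⟨z, hz, hz'⟩
    exact ⟨e.symm z, (mem_cc_tr e T).1 hz, (mem_P_tr e T).1 hz'⟩
  · rintro ⟨z, hz, hz'⟩
    exact ⟨e z, (mem_cc_tr e T).2 (by simpa using hz), (mem_P_tr e T).2 (by simpa using hz')⟩

theorem card_KT_tr : Nat.card (KT (tr e T) i) ≤ Nat.card (KT T i) := by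
  have h1 : ∀ k : KT (tr e T) i, ∃ k' : KT T i, e.symm k.e ∈ T.oc k'.e := fun k =>
    exists_KT ((crs_tr e).1 k.crs)
  choose g hg using h1
  refine Nat.card_le_card_of_injective g fun k k' hkk => ?_
  have h2 := hg k
  have h3 := hg k'
  rw [← hkk] at h3
  refine (Sk3_812.KT.inj (k := k') (k' := k) ?_)
  rw [mem_oc_tr]
  have h4 := T.oc_eq_of_mem (g k).eOm h3
  rw [h4]
  exact h2

/-- **transport of `TileG`** -/
theorem TileG.tr {hne : (T.H i).Nonempty} {c : E} {β ρ t : ℝ} {nc : ℕ}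
    (h : TileG T i hne c β ρ t nc) (hβ : 0 ≤ β) {ρ' t' : ℝ}
    (h1 : ∀ v : F, ‖v‖ ≤ ρ' → ‖e.symm v‖ ≤ ρ) (h2 : ∀ v : E, ‖v‖ ≤ t → ‖e v‖ ≤ t')
    (hne' : ((Ttr_622.tr e T).H i).Nonempty) :
    TileG (Ttr_622.tr e T) i hne' (e c) β ρ' t' nc where
  cI := (mem_I_tr e T).2 (by simpa using h.cI)
  ball := by
    intro y hy
    refine (mem_P_tr e T).2 (h.ball ?_)
    rw [mem_closedBall, dist_eq_norm] at hy ⊢
    have := h1 _ hy
    rwa [map_sub, ContinuousLinearEquiv.symm_apply_apply] at this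
  gap := by
    intro y hy hyP hyC
    by_contra hcon
    rw [not_le] at hcon
    obtain ⟨t1, ht1, ht1'⟩ := exists_between (max_lt hcon (by linarith : (0:ℝ) < 1 + 4 * β))
    have ht0 : 0 < t1 := lt_of_le_of_lt (le_max_right _ _) ht1
    have h3 := (ug_tr e (hne := hne) (hne' := hne') h.cI ht0 y).1
      ((le_max_left _ _).trans ht1.le)
    have h4 := h.gap (e.symm y) ((mem_sk1_tr e T).1 hy) (fun hh => hyP ((mem_P_tr e T).2 hh))
      (fun hh => hyC ((crs_tr e).2 hh))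
    linarith
  star := by
    intro y hy
    have h3 := (ug_tr e (hne := hne) (hne' := hne') h.cI (by linarith : (0:ℝ) < 1 + 4 * β) y).1 hy
    obtain ⟨m, ⟨z, hz, hz'⟩, hm⟩ := h.star _ h3
    exact ⟨m, ⟨e z, (mem_P_tr e T).2 (by simpa using hz), (mem_P_tr e T).2 (by simpa using hz')⟩,
      (mem_P_tr e T).2 hm⟩
  cardK := (card_KT_tr e).trans h.cardK
  cardN := by
    have : {j | (P ((Ttr_622.tr e T).H j) ∩ P ((Ttr_622.tr e T).H i)).Nonempty} =
        {j | (P (T.H j) ∩ P (T.H i)).Nonempty} := by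
      ext j
      constructor
      · rintro ⟨z, hz, hz'⟩
        exact ⟨e.symm z, (mem_P_tr e T).1 hz, (mem_P_tr e T).1 hz'⟩
      · rintro ⟨z, hz, hz'⟩
        exact ⟨e z, (mem_P_tr e T).2 (by simpa using hz), (mem_P_tr e T).2 (by simpa using hz')⟩
    rw [this]
    exact h.cardN
  diam := by
    intro y hy y' hy'
    have h3 := h.diam _ ((mem_P_tr e T).1 hy) _ ((mem_P_tr e T).1 hy')
    rw [← map_sub] at h3
    have h4 := h2 _ h3
    rwa [ContinuousLinearEquiv.apply_symm_apply] at h4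

/-- **transport of rigidity** -/
theorem rig_tr {Om0 : Set E} {ι0 : Type*} {ι : F → Type*} {T0 : Tiling Om0 ι0}
    {T : ∀ a : F, Tiling Om (ι a)} {Tr W : Set F}
    (h : ∀ a ∈ Tr, ∀ p ∈ W, e.symm p ∈ Om ∧ e.symm p - e.symm a ∈ Om0 ∧
      (fun j => P ((T a).H j)) '' (T a).at_ (e.symm p) =
        (fun i => (e.symm a + ·) '' P (T0.H i)) '' T0.at_ (e.symm p - e.symm a)) :
    Rig (Ttr_622.tr e T0) (fun a => Ttr_622.tr e (T a)) Tr W := by
  intro a ha p hp
  obtain ⟨h1, h2, h3⟩ := h a ha p hp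
  refine ⟨h1, by simpa using h2, ?_⟩
  have e1 : (fun j => P ((Ttr_622.tr e (T a)).H j)) '' (Ttr_622.tr e (T a)).at_ p =
      (fun S : Set E => e '' S) '' ((fun j => P ((T a).H j)) '' (T a).at_ (e.symm p)) := by
    rw [at_tr, image_image]
    exact image_congr fun j _ => P_tr e _ _
  have e2 : (fun i => (a + ·) '' P ((Ttr_622.tr e T0).H i)) '' (Ttr_622.tr e T0).at_ (p - a) =
      (fun S : Set E => e '' S) '' ((fun i => (e.symm a + ·) '' P (T0.H i)) ''
        T0.at_ (e.symm p - e.symm a)) := by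
    rw [at_tr, image_image, map_sub]
    refine image_congr fun i _ => ?_
    rw [P_tr, image_image, image_image]
    refine image_congr fun y _ => ?_
    simp
  rw [e1, e2, h3]

end

end Crest.Agent.R096.Ca_855
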