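import Crest.Agent.R096.Ca13_855
import Crest.Agent.R096.Ca11_855

/-!
# Row 96 (S0127), p ≤ 2: composite A (helper855), part 14: rigidity, rational data, tiles
-/

set_option autoImplicit false
set_option linter.unusedSectionVars false

open Set Metric MeasureTheory Filter
open scoped ENNReal Topology

namespace Crest.Agent.R096.Ca_855

open Crest.AnalysisR.VecCalc3 Crest.AnalysisR.Sobolev
open Crest.Agent.R096.Msh_715
open Crest.Agent.R096.Mal_874 (MD CB RD RP reOm Rt Cn outD Rg tile_k_eq)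
open Crest.Agent.R096.Msh_810 (Dat K)
open Crest.Agent.R096.Gno_324 (capD K_cap)
open Crest.Agent.R096.Msb_432 (meshS rigidS_const Scl)
open Crest.Agent.R96.En10_199 (P3)
open Crest.Agent.R096.Mf_113 (Rig)
open Crest.Agent.R096.Pin_753 (BlkP)

namespace MIn

variable {Om W : Set R3} {ρ₀ : R3 → ℝ} {J : Type} {Qb : J → CB R3 3} {k0 : ℕ} {σ : ℝ}
  [Finite J]

/-- **the outer scale is `k0` near `W`** (radius `σ / 4`) -/
theorem K_eq (h : MIn Om W ρ₀ Qb k0 σ) {x : R3} (hx : x ∈ W) {y : Fin 3 → ℝ}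
    (hy : dist (P3.symm x) y < σ / 4) (g : Fin 3 → ℝ) :
    K (outD h.M.D0 (fun _ => k0) h.M.W g) y = k0 := by
  have h3 := h.h48'
  refine K_cap (D0 := h.D1) (hc := h.hc) (fun z hz => ?_) fun j => Or.inl rfl
  have h1 := dist_triangle (P3.symm x) y z
  have h2 := h.near hx (h1.trans (add_le_add hy.le hz))
  show 6 / 2 ^ k0 ≤ ρ₀ (P3 z) * (1 / 2)
  have e6 : (6:ℝ) / 2 ^ k0 = 6 * (1 / 2 ^ k0) := by ring
  rw [← one_div] at h2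
  rw [e6]
  have h4 : (0:ℝ) < 1 / 2 ^ k0 := by positivity
  nlinarith

theorem K_ev (h : MIn Om W ρ₀ Qb k0 σ) {x x' : R3} (hx : x ∈ W) (hx' : dist x x' < σ / 4)
    (g : Fin 3 → ℝ) :
    ∀ᶠ y in 𝓝 (P3.symm x'), K (outD h.M.D0 (fun _ => k0) h.M.W g) y = k0 := by
  have h1 := (dist_P3s_le x x').trans_lt hx'
  filter_upwards [ball_mem_nhds (P3.symm x') (sub_pos.2 h1)] with y hy
  refine h.K_eq hx ?_ g
  rw [mem_ball, dist_comm] at hy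
  have := dist_triangle (P3.symm x) (P3.symm x') y
  linarith

theorem mem_Om_of (h : MIn Om W ρ₀ Qb k0 σ) {x x' : R3} (hx : x ∈ W) (hx' : dist x x' < σ / 4) :
    x' ∈ Om := by
  have h1 := h.lip x x'
  have h2 := h.hW x hx
  have h3 := h.σ0
  rw [dist_eq_norm] at hx'
  rw [← h.pos]
  linarith

theorem W_sub (h : MIn Om W ρ₀ Qb k0 σ) : W ⊆ Om := fun x hx =>
  h.mem_Om_of hx (by rw [dist_self]; have := h.σ0; positivity)

/-- **rigidity** -/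
theorem rg (h : MIn Om W ρ₀ Qb k0 σ) {p : R3} (hp : p ∈ W) (a : R3) :
    Rg h.T0 (h.Ts a) (h.cl a) (p - h.cl a) := by
  have hσ := h.σ0
  have hd : dist p (p - h.cl a) < σ / 4 := by
    rw [dist_eq_norm, sub_sub_cancel]
    have := h.norm_cl a
    linarith
  have hd0 : dist p p < σ / 4 := by rw [dist_self]; positivity
  have hD : ∀ x, x ∈ Om → h.M.φ x ∈ h.M.D0.Om := by
    intro x hx
    have : x ∈ h.M.φ ⁻¹' h.M.D0.Om := by rw [h.dom]; exact hx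
    exact this
  refine rigidS_const h.M h.sc 0 h.adm0 (h.adm a) (κ := k0) (fun j => by rw [zero_add]) ?_ ?_ ?_ ?_
  · exact hD _ (h.mem_Om_of hp hd)
  · rw [sub_add_cancel]
    exact hD _ (h.mem_Om_of hp hd0)
  · exact h.K_ev hp hd 0
  · rw [sub_add_cancel]
    exact h.K_ev hp hd0 _

/-- **the family is rigid near `W`** -/
theorem rig (h : MIn Om W ρ₀ Qb k0 σ) {Tr : Set R3} (hTr : ∀ a ∈ Tr, ‖a‖ ≤ σ / 8) :
    Rig h.T0 h.T Tr W := by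
  intro a ha p hp
  have hσ := h.σ0
  have e := h.cl_eq (hTr a ha)
  have key : ∀ b, h.cl a = b → p ∈ Om ∧ p - b ∈ Om ∧
      (fun j => P ((h.T a).H j)) '' (h.T a).at_ p =
        (fun i => (b + ·) '' P (h.T0.H i)) '' h.T0.at_ (p - b) := by
    rintro b rfl
    refine ⟨h.W_sub hp, h.mem_Om_of hp ?_, ?_⟩
    · rw [dist_eq_norm, sub_sub_cancel]
      have := h.norm_cl a
      linarith
    · have h1 := (h.rg hp a).sets
      rw [sub_add_cancel] at h1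
      exact h1
  have h2 := key a e
  refine ⟨h2.1, ?_, h2.2.2⟩
  have : p - a ∈ h.M.φ ⁻¹' h.M.D0.Om := by rw [h.dom]; exact h2.2.1
  exact this

/-! ### the rational data -/

/-- the part of `BlkP` which is used for the shapes -/
structure BQ (κ : ℝ) (Bs Nn : ℕ) (Q : CB R3 3) (k0 : ℕ) : Prop where
  cnd : ∀ v, κ / 4 * ‖v‖ ≤ ‖Q.ψ v‖ ∧ ‖Q.ψ v‖ ≤ 4 * κ⁻¹ * ‖v‖
  net : ∃ (d : ℕ) (B : Fin 3 → Fin 3 → ℤ), 0 < d ∧ d ≤ Nn ∧ (∀ i j, |B i j| ≤ Nn) ∧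
    Rt P3.symm Q.ψ B d ∧ ∀ m, ∃ c : ℤ, 2 ^ k0 * (d : ℝ) * Q.a' m = c
  hB : ∀ i, ∀ p ∈ Q.S.GG i, ∀ l, |p.1 l| ≤ Bs
  hR : ∀ i, i ≠ Q.S.core → ∀ v ∈ Crest.Agent.R096.Mal_874.ZP (Q.S.GG i),
    ∀ w ∈ Crest.Agent.R096.Mal_874.ZP (Q.S.GG i), ∀ l, |w l - v l| ≤ Bs

theorem bq_of_blkP {κ s τ hh c1 θ0 θ1 : ℝ} {Bs Nn : ℕ} {z : R3} {Q : CB R3 3}
    (hb : BlkP κ s τ hh c1 θ0 θ1 Bs Nn z Q k0) : BQ κ Bs Nn Q k0 :=
  ⟨hb.cnd, hb.net, hb.hB, hb.hR⟩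

variable {κ : ℝ} {Bs Nn : ℕ}

theorem BQ.ψ2 {Q : CB R3 3} (hb : BQ κ Bs Nn Q k0) (hκ : 0 < κ) (v : R3) :
    ‖v‖ ≤ 4 * κ⁻¹ * ‖Q.ψ v‖ := by
  have h1 := (hb.cnd v).1
  have h2 : 4 * κ⁻¹ * (κ / 4 * ‖v‖) = ‖v‖ := by field_simp
  rw [← h2]
  exact mul_le_mul_of_nonneg_left h1 (by positivity)

/-- the rational data of the blocks -/
noncomputable def X (h : MIn Om W ρ₀ Qb k0 σ) (hκ : 0 < κ) (hκ1 : κ ≤ 1)
    (hb : ∀ j, BQ κ Bs Nn (Qb j) k0) : RD h.M where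
  A j := (hb j).net.choose_spec.choose
  d j := (hb j).net.choose
  dpos j := (hb j).net.choose_spec.choose_spec.1
  rat j := (hb j).net.choose_spec.choose_spec.2.2.2.1
  c _ := 4 * κ⁻¹
  c1 _ := by
    have : 1 ≤ κ⁻¹ := (one_le_inv₀ hκ).2 hκ1
    linarith
  cn j x y := by
    show dist (P3.symm x) (P3.symm y) ≤ 4 * κ⁻¹ * dist ((Qb j).ψ x) ((Qb j).ψ y)
    rw [dist_eq_norm, dist_eq_norm, ← map_sub, ← map_sub]
    exact (norm_P3_symm_le _).trans ((hb j).ψ2 hκ _)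
  B _ := max 1 Bs
  B1 _ := le_max_left _ _
  hB j i p hp l := by
    refine ((hb j).hB i p hp l).trans ?_
    push_cast
    exact le_max_right _ _
  R _ := max 1 (Bs:ℝ)
  R1 _ := le_max_left _ _
  hR j i hi u hu v hv l := ((hb j).hR i hi u hu v hv l).trans (le_max_right _ _)

/-- the positions are rational -/
noncomputable def rp (h : MIn Om W ρ₀ Qb k0 σ) (hκ : 0 < κ) (hκ1 : κ ≤ 1)
    (hb : ∀ j, BQ κ Bs Nn (Qb j) k0) (a : R3) :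
    RP (h.X hκ hκ1 hb) (0 + h.M.φ (h.cl a)) (fun _ => h.cl a) (fun _ => k0) where
  κ _ := k0
  hκ _ := le_rfl
  h0 j := (hb j).net.choose_spec.choose_spec.2.2.2.2
  hv j l := ⟨0, by rw [zero_add, sub_self, mul_zero, Int.cast_zero]⟩

/-- the finite net of rational frames -/
def Ps (Nn : ℕ) : Set ((Fin 3 → Fin 3 → ℤ) × ℕ) :=
  {p | p.2 ≤ Nn ∧ ∀ i j, |p.1 i j| ≤ Nn}

theorem Ps_finite (Nn : ℕ) : (Ps Nn).Finite := by
  have h1 : (Set.Icc (fun _ _ => -(Nn:ℤ)) (fun _ _ => (Nn:ℤ)) :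
      Set (Fin 3 → Fin 3 → ℤ)).Finite := Set.finite_Icc _ _
  refine (h1.prod (Set.finite_Iic Nn)).subset ?_
  rintro ⟨A, d⟩ ⟨hd, hA⟩
  refine ⟨⟨fun i j => (abs_le.1 (hA i j)).1, fun i j => (abs_le.1 (hA i j)).2⟩, hd⟩

theorem X_Ps (h : MIn Om W ρ₀ Qb k0 σ) (hκ : 0 < κ) (hκ1 : κ ≤ 1)
    (hb : ∀ j, BQ κ Bs Nn (Qb j) k0) (j : J) :
    ((h.X hκ hκ1 hb).A j, (h.X hκ hκ1 hb).d j) ∈ Ps Nn :=
  ⟨(hb j).net.choose_spec.choose_spec.2.1, (hb j).net.choose_spec.choose_spec.2.2.1⟩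

theorem fb (h : MIn Om W ρ₀ Qb k0 σ) (hκ : 0 < κ) (hκ1 : κ ≤ 1)
    (hb : ∀ j, BQ κ Bs Nn (Qb j) k0) : Crest.Agent.R096.Nbr_896.Fb (4 * κ⁻¹) h.M where
  φ1 v := by
    have h1 : 1 ≤ κ⁻¹ := (one_le_inv₀ hκ).2 hκ1
    have h2 := norm_P3_symm_le v
    have h3 := norm_nonneg v
    show ‖P3.symm v‖ ≤ 4 * κ⁻¹ * ‖v‖
    nlinarith
  φ2 v := by
    have h1 : 1 ≤ κ⁻¹ := (one_le_inv₀ hκ).2 hκ1
    have h2 := dist_le_P3s v 0
    rw [map_zero, dist_zero_right, dist_zero_right] at h2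
    have h3 := norm_nonneg (P3.symm v)
    show ‖v‖ ≤ 4 * κ⁻¹ * ‖P3.symm v‖
    nlinarith
  ψ1 j v := ((hb j).cnd v).2
  ψ2 j v := (hb j).ψ2 hκ v

end MIn

end Crest.Agent.R096.Ca_855
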