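import Crest.Agent.R096.Cut2_874
import Crest.Agent.R096.Sk2a_855

/-!
# Row 96 (S0127), p ≤ 2 (helper565): refinements of tilings and their 1-skeleta (leaf of 753 #11008)

`Ref T' T`: every closed cell of `T'` lies in the closed cell of `T` with the same base point
(`ref_cut`: the cut tiling refines).  Then `sk1 T ⊆ sk1 T'`, every closed cell of `T` is a finite
union of closed cells of `T'`, and every edge of `T` is partitioned into edges of `T'`
(`Ref.exists_partition`), with the formulas for integrals along the edge.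
-/

set_option autoImplicit false
set_option linter.unusedSectionVars false

open Set Metric MeasureTheory Module Filter Topology
open scoped ENNReal

namespace Crest.Agent.R096.Skc_565

open Msh_715 Cut_874
open Sk2_855 (sk1)

/-! ### sorted partitions of the unit interval -/

/-- consecutive points of a finite set containing `0` and `1` -/
theorem exists_sorted (S : Set ℝ) (hS : S.Finite) (h0 : (0 : ℝ) ∈ S) (h1 : (1 : ℝ) ∈ S)
    (hI : S ⊆ Icc 0 1) : ∃ (n : ℕ) (t : ℕ → ℝ), 0 < n ∧ t 0 = 0 ∧ t n = 1 ∧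
      (∀ i < n, t i < t (i + 1)) ∧ (∀ i, i ≤ n → t i ∈ S) ∧
      (∀ i < n, ∀ s ∈ S, s ≤ t i ∨ t (i + 1) ≤ s) ∧ ∀ s ∈ S, ∃ i, i ≤ n ∧ t i = s := by
  classical
  obtain ⟨F, rfl⟩ := hS.exists_finset_coe
  have hF0 : (0 : ℝ) ∈ F := h0
  have hF1 : (1 : ℝ) ∈ F := h1
  have hcard : 1 < F.card := Finset.one_lt_card.2 ⟨0, hF0, 1, hF1, zero_ne_one⟩
  obtain ⟨n, hn⟩ : ∃ n, F.card = n + 1 := ⟨F.card - 1, by omega⟩
  have hn0 : 0 < n := by omega
  set o : Fin (n + 1) ↪o ℝ := F.orderEmbOfFin hn with ho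
  have hmem : ∀ i, o i ∈ F := fun i => F.orderEmbOfFin_mem hn i
  have hsurj : ∀ s ∈ F, ∃ i, o i = s := by
    intro s hs
    have : s ∈ Set.range o := by
      rw [ho, Finset.range_orderEmbOfFin]; exact hs
    exact this
  refine ⟨n, fun i => if h : i < n + 1 then o ⟨i, h⟩ else 0, hn0, ?_, ?_, ?_, ?_, ?_, ?_⟩
  · obtain ⟨i, hi⟩ := hsurj 0 hF0
    have h2 : o ⟨0, by omega⟩ ≤ o i := o.monotone (Fin.mk_le_of_le_val (Nat.zero_le _))
    have h3 := (hI (hmem ⟨0, by omega⟩)).1
    simp only [show 0 < n + 1 by omega, dite_true]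
    linarith [h2.trans hi.le]
  · obtain ⟨i, hi⟩ := hsurj 1 hF1
    have h2 : o i ≤ o ⟨n, by omega⟩ := o.monotone (by
      rw [Fin.le_def]; exact Nat.lt_succ_iff.1 i.2)
    have h3 := (hI (hmem ⟨n, by omega⟩)).2
    simp only [show n < n + 1 by omega, dite_true]
    linarith [hi.symm.le.trans h2]
  · intro i hi
    simp only [show i < n + 1 by omega, show i + 1 < n + 1 by omega, dite_true]
    exact o.strictMono (by rw [Fin.lt_def]; exact Nat.lt_succ_self i)
  · intro i hi
    simp only [show i < n + 1 by omega, dite_true]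
    exact hmem _
  · intro i hi s hs
    obtain ⟨j, rfl⟩ := hsurj s hs
    simp only [show i < n + 1 by omega, show i + 1 < n + 1 by omega, dite_true]
    rcases Nat.lt_or_ge i j.1 with h | h
    · right
      exact o.monotone (by rw [Fin.le_def]; exact h)
    · left
      exact o.monotone (by rw [Fin.le_def]; exact h)
  · intro s hs
    obtain ⟨j, rfl⟩ := hsurj s hs
    refine ⟨j.1, Nat.lt_succ_iff.1 j.2, ?_⟩
    simp only [j.2, dite_true]

/-! ### refinements -/

section

variable {E : Type*} [NormedAddCommGroup E] [NormedSpace ℝ E] {Om : Set E} {ι ι' ι'' : Type*}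

/-- `T'` refines `T` -/
def Ref (T' : Tiling Om ι') (T : Tiling Om ι) : Prop := ∀ x ∈ Om, T'.cc x ⊆ T.cc x

theorem ref_cut {T : Tiling Om ι} {A : ι → Finset ((E →L[ℝ] ℝ) × ℝ)}
    {hA : ∀ i, ∀ a ∈ A i, a.1 ≠ 0} : Ref (cut T A hA) T := fun x _ => cc_cut_sub x

theorem Ref.refl (T : Tiling Om ι) : Ref T T := fun _ _ => Subset.rfl

variable {T' : Tiling Om ι'} {T : Tiling Om ι} {T'' : Tiling Om ι''}

theorem Ref.trans (h' : Ref T'' T') (h : Ref T' T) : Ref T'' T := fun x hx =>
  (h' x hx).trans (h x hx)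

theorem Ref.V_le (h : Ref T' T) {x : E} (hx : x ∈ Om) : T'.V x ≤ T.V x := by
  intro v hv
  obtain ⟨r, hr, h1⟩ := T'.exists_ball_oc hx
  have hpos : 0 < ‖v‖ + 1 := by positivity
  set s : ℝ := r / (2 * (‖v‖ + 1)) with hs
  have hs0 : 0 < s := by positivity
  have h2 : ‖s • v‖ < r := by
    rw [norm_smul, Real.norm_of_nonneg hs0.le]
    have h3 : s * ‖v‖ ≤ s * (‖v‖ + 1) := mul_le_mul_of_nonneg_left (by linarith) hs0.le
    have h4 : s * (‖v‖ + 1) = r / 2 := by rw [hs]; field_simp
    linarith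
  have h3 : x + s • v ∈ T.cc x := h x hx (T'.oc_sub_cc x (h1 _ ((T'.V x).smul_mem s hv) h2))
  have h4 := T.sub_mem_V h3
  rw [add_sub_cancel_left] at h4
  have h5 := (T.V x).smul_mem s⁻¹ h4
  rwa [smul_smul, inv_mul_cancel₀ hs0.ne', one_smul] at h5

theorem Ref.dim_le [FiniteDimensional ℝ E] (h : Ref T' T) {x : E} (hx : x ∈ Om) :
    T'.dim x ≤ T.dim x := Submodule.finrank_mono (h.V_le hx)

/-- **the 1-skeleton of a refinement is larger** -/
theorem Ref.sk1_sub [FiniteDimensional ℝ E] (h : Ref T' T) : sk1 T ⊆ sk1 T' := fun _ hx =>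
  ⟨hx.1, (h.dim_le hx.1).trans hx.2⟩

theorem sk1_cut [FiniteDimensional ℝ E] {A : ι → Finset ((E →L[ℝ] ℝ) × ℝ)}
    {hA : ∀ i, ∀ a ∈ A i, a.1 ≠ 0} : sk1 T ⊆ sk1 (cut T A hA) := ref_cut.sk1_sub

theorem Ref.cc_sub (h : Ref T' T) {x y : E} (hx : x ∈ Om) (hy : y ∈ T.cc x) :
    T'.cc y ⊆ T.cc x := (h y (T.cc_sub_Om hx hy)).trans (T.cc_sub_of_mem hy)

/-- **a closed cell of `T` is the union of the closed cells of `T'` which it contains** -/
theorem Ref.cc_eq (h : Ref T' T) {x : E} (hx : x ∈ Om) : T.cc x = ⋃ y ∈ T.cc x, T'.cc y := by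
  apply Subset.antisymm
  · intro y hy
    exact mem_iUnion₂.2 ⟨y, hy, T'.self_mem_cc y⟩
  · exact iUnion₂_subset fun y hy => h.cc_sub hx hy

/-- the same for a tile -/
theorem Ref.cc_sub_tile (h : Ref T' T) {i : ι} {y : E} (hy : y ∈ P (T.H i)) :
    T'.cc y ⊆ P (T.H i) := (h y (T.sub i hy)).trans (T.cc_sub_tile hy)

theorem Ref.isSub_tile (h : Ref T' T) (i : ι) : IsSub T' (P (T.H i)) := fun _ hy => h.cc_sub_tile hy

theorem Ref.isSub (h : Ref T' T) {x : E} (hx : x ∈ Om) : IsSub T' (T.cc x) := fun _ hy =>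
  h.cc_sub hx hy

/-- every tile of `T'` lies in a tile of `T` -/
theorem Ref.tile_sub (h : Ref T' T) (j : ι') : ∃ i, P (T'.H j) ⊆ P (T.H i) := by
  obtain ⟨z, hz⟩ := T'.ne j
  have hzO : z ∈ Om := T'.sub j (I_sub_P _ hz)
  obtain ⟨i, hi⟩ := T.cov z hzO
  refine ⟨i, ?_⟩
  rw [← T'.cc_eq_tile hz]
  exact h.cc_sub_tile hi

/-- only finitely many -/
theorem Ref.finite_sub [FiniteDimensional ℝ E] {x : E} (hx : x ∈ Om) :
    {c : Set E | ∃ y ∈ T.cc x, c = T'.cc y}.Finite := by
  refine (T'.finite_cells (T.isCompact_cc hx) (T.cc_sub_Om hx)).subset ?_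
  rintro c ⟨y, hy, rfl⟩
  exact ⟨⟨y, T.cc_sub_Om hx hy, rfl⟩, y, T'.self_mem_cc y, hy⟩

/-- the ends of an edge -/
theorem edge_ends [FiniteDimensional ℝ E] {x : E} (hx : x ∈ Om) (hd : T.dim x = 1) {a v : E}
    (hcc : T.cc x = segment ℝ a (a + v)) : v ≠ 0 ∧ T.dim a = 0 ∧ T.dim (a + v) = 0 ∧
      T.oc x = openSegment ℝ a (a + v) := by
  obtain ⟨p, q, hpq, h1, h2, h3, h4, h5, h6⟩ := T.edge_eq hx hd
  have hv : v ≠ 0 := by
    rintro rfl
    rw [add_zero, segment_same] at hcc
    rw [hcc] at h5 h6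
    rw [mem_singleton_iff] at h5 h6
    exact hpq (h5.trans h6.symm)
  -- both ends are not in the open segment
  have hO : x ∈ openSegment ℝ p q := h2 ▸ T.self_mem_oc x
  have hseg : segment ℝ p q = segment ℝ a (a + v) := by rw [← h1, hcc]
  have key : (p = a ∧ q = a + v) ∨ (p = a + v ∧ q = a) := by
    have hp : p ∈ segment ℝ a (a + v) := hseg ▸ left_mem_segment _ _ _
    have hq : q ∈ segment ℝ a (a + v) := hseg ▸ right_mem_segment _ _ _
    have ha : a ∈ segment ℝ p q := hseg ▸ left_mem_segment _ _ _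
    have hb : a + v ∈ segment ℝ p q := hseg ▸ right_mem_segment _ _ _
    rw [segment_eq_image'] at hp hq ha hb
    obtain ⟨s, ⟨hs0, hs1⟩, hs⟩ := hp
    obtain ⟨t, ⟨ht0, ht1⟩, ht⟩ := hq
    obtain ⟨c, ⟨hc0, hc1⟩, hc⟩ := ha
    obtain ⟨d, ⟨hd0, hd1⟩, hd'⟩ := hb
    simp only [add_sub_cancel_left] at hs ht
    have e1 : (s + c * (t - s)) • v = 0 := by
      rw [← hs, ← ht] at hc
      have : (a + s • v + c • (a + t • v - (a + s • v))) - a = (s + c * (t - s)) • v := by
        rw [add_smul, mul_smul, sub_smul]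
        simp only [smul_sub, smul_add]
        abel
      rw [← this]; simp only [hc, sub_self]
    have e2 : (s + d * (t - s) - 1) • v = 0 := by
      rw [← hs, ← ht] at hd'
      have : (a + s • v + d • (a + t • v - (a + s • v))) - (a + v) = (s + d * (t - s) - 1) • v := by
        rw [sub_smul, add_smul, mul_smul, sub_smul, one_smul]
        simp only [smul_sub, smul_add]
        abel
      rw [← this]; simp only [hd', sub_self]
    have e1' : s + c * (t - s) = 0 := (smul_eq_zero.1 e1).resolve_right hv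
    have e2' : s + d * (t - s) - 1 = 0 := (smul_eq_zero.1 e2).resolve_right hv
    have hts : s ≠ t := by
      rintro rfl
      exact hpq (hs.symm.trans ht)
    rcases lt_or_gt_of_ne hts with hlt | hlt
    · left
      have hs' : s = 0 := by nlinarith
      have ht' : t = 1 := by nlinarith
      subst hs' ht'
      simp only [zero_smul, add_zero, one_smul] at hs ht
      exact ⟨hs.symm, ht.symm⟩
    · right
      have hs' : s = 1 := by nlinarith
      have ht' : t = 0 := by nlinarith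
      subst hs' ht'
      simp only [zero_smul, add_zero, one_smul] at hs ht
      exact ⟨hs.symm, ht.symm⟩
  rcases key with ⟨rfl, rfl⟩ | ⟨rfl, rfl⟩
  · exact ⟨hv, h3, h4, h2⟩
  · exact ⟨hv, h4, h3, by rw [h2, openSegment_symm]⟩

/-- **partition of an edge of `T` into edges of the refinement `T'`** -/
theorem Ref.exists_partition [FiniteDimensional ℝ E] (h : Ref T' T) {x : E} (hx : x ∈ Om)
    (hd : T.dim x = 1) {a v : E} (hcc : T.cc x = segment ℝ a (a + v)) :
    ∃ (n : ℕ) (t : ℕ → ℝ), 0 < n ∧ t 0 = 0 ∧ t n = 1 ∧ (∀ i < n, t i < t (i + 1)) ∧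
      (∀ i, i ≤ n → 0 ≤ t i ∧ t i ≤ 1 ∧ T'.dim (a + t i • v) = 0) ∧
      (∀ i < n, ∃ y ∈ Om, T'.dim y = 1 ∧
        T'.cc y = segment ℝ (a + t i • v) (a + t (i + 1) • v)) ∧
      ∀ y ∈ T.cc x, T'.dim y = 1 →
        ∃ i < n, T'.cc y = segment ℝ (a + t i • v) (a + t (i + 1) • v) := by
  obtain ⟨hv, hda, hdb, -⟩ := edge_ends hx hd hcc
  have hmem : ∀ s : ℝ, 0 ≤ s → s ≤ 1 → a + s • v ∈ T.cc x := by
    intro s h0 h1
    rw [hcc, segment_eq_image']
    exact ⟨s, ⟨h0, h1⟩, by simp⟩
  have hinj : Function.Injective fun s : ℝ => a + s • v := by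
    intro s t hst
    have : (s - t) • v = 0 := by
      rw [sub_smul, sub_eq_zero]; exact add_left_cancel hst
    exact sub_eq_zero.1 ((smul_eq_zero.1 this).resolve_right hv)
  set S : Set ℝ := {s | 0 ≤ s ∧ s ≤ 1 ∧ T'.dim (a + s • v) = 0} with hS
  have hfin : S.Finite := by
    have h1 : ((fun s : ℝ => ({a + s • v} : Set E)) '' S).Finite := by
      refine (Ref.finite_sub (T' := T') (T := T) hx).subset ?_
      rintro _ ⟨s, ⟨h0, h1, h2⟩, rfl⟩
      exact ⟨a + s • v, hmem s h0 h1, (T'.cc_eq_singleton (T'.dim_eq_zero_iff.1 h2)).symm⟩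
    refine Set.Finite.of_finite_image h1 ?_
    intro s _ t _ hst
    exact hinj (singleton_injective hst)
  have h0S : (0 : ℝ) ∈ S := by
    refine ⟨le_rfl, zero_le_one, ?_⟩
    have hO : a ∈ Om := T.cc_sub_Om hx (by simpa using hmem 0 le_rfl zero_le_one)
    have := h.dim_le hO
    rw [zero_smul, add_zero]; omega
  have h1S : (1 : ℝ) ∈ S := by
    refine ⟨zero_le_one, le_rfl, ?_⟩
    have hO : a + v ∈ Om := T.cc_sub_Om hx (by simpa using hmem 1 zero_le_one le_rfl)
    have := h.dim_le hO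
    rw [one_smul]; omega
  obtain ⟨n, t, hn, ht0, ht1, hlt, htS, hcons, hall⟩ :=
    exists_sorted S hfin h0S h1S fun s hs => ⟨hs.1, hs.2.1⟩
  -- the key: a cell of `T'` through an interior point of the `i`-th interval
  have key : ∀ i < n, ∀ s, t i < s → s < t (i + 1) →
      T'.cc (a + s • v) = segment ℝ (a + t i • v) (a + t (i + 1) • v) ∧
        T'.dim (a + s • v) = 1 := by
    intro i hi s hs1 hs2
    have hti := htS i hi.le
    have hti' := htS (i + 1) hi
    have hs0 : 0 ≤ s := hti.1.trans hs1.le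
    have hs1' : s ≤ 1 := hs2.le.trans hti'.2.1
    have hyO : a + s • v ∈ Om := T.cc_sub_Om hx (hmem s hs0 hs1')
    have hdle : T'.dim (a + s • v) ≤ 1 := by
      refine (h.dim_le hyO).trans ?_
      rw [← hd]; exact T.dim_le (hmem s hs0 hs1')
    have hdne : T'.dim (a + s • v) ≠ 0 := by
      intro h0
      rcases hcons i hi s ⟨hs0, hs1', h0⟩ with h3 | h3 <;> linarith
    have hd1 : T'.dim (a + s • v) = 1 := by omega
    refine ⟨?_, hd1⟩
    obtain ⟨p, q, hpq, h1, h2, h3, h4, h5, h6⟩ := T'.edge_eq hyO hd1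
    have hsub : T'.cc (a + s • v) ⊆ T.cc x := h.cc_sub hx (hmem s hs0 hs1')
    have hp := hsub h5
    have hq := hsub h6
    rw [hcc, segment_eq_image'] at hp hq
    obtain ⟨c, ⟨hc0, hc1⟩, hc⟩ := hp
    obtain ⟨d, ⟨hd0, hd1'⟩, hd'⟩ := hq
    simp only [add_sub_cancel_left] at hc hd'
    have hcS : c ∈ S := ⟨hc0, hc1, by rw [hc]; exact h3⟩
    have hdS : d ∈ S := ⟨hd0, hd1', by rw [hd']; exact h4⟩
    have hyo : a + s • v ∈ openSegment ℝ p q := h2 ▸ T'.self_mem_oc _
    -- points between `c` and `d` have dimension one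
    have hbet : ∀ r : ℝ, 0 < r → r < 1 → c + r * (d - c) ∉ S := by
      intro r hr0 hr1 hrS
      have h7 : a + (c + r * (d - c)) • v ∈ openSegment ℝ p q := by
        rw [openSegment_eq_image']
        refine ⟨r, ⟨hr0, hr1⟩, ?_⟩
        rw [← hc, ← hd']
        simp only [add_smul, mul_smul, sub_smul, smul_add, smul_sub]
        abel
      rw [← h2] at h7
      have h8 := T'.dim_eq_of_mem_oc hyO h7
      have := hrS.2.2
      omega
    obtain ⟨r, ⟨hr0, hr1⟩, hr⟩ : ∃ r : ℝ, (0 < r ∧ r < 1) ∧ s = c + r * (d - c) := by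
      rw [openSegment_eq_image'] at hyo
      obtain ⟨r, ⟨hr0, hr1⟩, hr⟩ := hyo
      refine ⟨r, ⟨hr0, hr1⟩, hinj ?_⟩
      rw [← hc, ← hd'] at hr
      show a + s • v = a + (c + r * (d - c)) • v
      rw [← hr]
      simp only [add_smul, mul_smul, sub_smul, smul_add, smul_sub]
      abel
    have hcd : c ≠ d := by
      rintro rfl
      exact hpq (hc.symm.trans hd')
    -- a point of `S` in the open interval between `c` and `d` is impossible
    have hno : ∀ z ∈ S, ¬ (min c d < z ∧ z < max c d) := by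
      rintro z hz ⟨hz1, hz2⟩
      have hne : d - c ≠ 0 := sub_ne_zero.2 hcd.symm
      refine hbet ((z - c) / (d - c)) ?_ ?_ ?_
      · rcases lt_or_gt_of_ne hcd with hlt' | hlt'
        · rw [min_eq_left hlt'.le] at hz1
          exact div_pos (by linarith) (by linarith)
        · rw [max_eq_left hlt'.le] at hz2
          exact div_pos_of_neg_of_neg (by linarith) (by linarith)
      · rcases lt_or_gt_of_ne hcd with hlt' | hlt'
        · rw [max_eq_right hlt'.le] at hz2
          rw [div_lt_one (by linarith)]; linarith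
        · rw [min_eq_right hlt'.le] at hz1
          rw [div_lt_one_of_neg (by linarith)]; linarith
      · have : c + (z - c) / (d - c) * (d - c) = z := by
          rw [div_mul_cancel₀ _ hne]; ring
        rw [this]; exact hz
    have hsm : min c d < s ∧ s < max c d := by
      rcases lt_or_gt_of_ne hcd with hlt' | hlt'
      · rw [min_eq_left hlt'.le, max_eq_right hlt'.le, hr]
        constructor <;> nlinarith
      · rw [min_eq_right hlt'.le, max_eq_left hlt'.le, hr]
        constructor <;> nlinarith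
    have hmn : min c d ∈ S := by
      rcases min_choice c d with h' | h' <;> rw [h'] <;> assumption
    have hmx : max c d ∈ S := by
      rcases max_choice c d with h' | h' <;> rw [h'] <;> assumption
    have e1 : min c d = t i := by
      rcases hcons i hi _ hmn with h' | h'
      · refine le_antisymm h' (not_lt.1 fun hcon => hno _ hti ⟨hcon, ?_⟩)
        linarith [hsm.2]
      · linarith [hsm.1]
    have e2 : max c d = t (i + 1) := by
      rcases hcons i hi _ hmx with h' | h'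
      · linarith [hsm.2]
      · refine le_antisymm (not_lt.1 fun hcon => hno _ hti' ⟨?_, hcon⟩) h'
        linarith [hsm.1]
    rw [h1, ← hc, ← hd', ← e1, ← e2]
    rcases lt_or_gt_of_ne hcd with hlt' | hlt'
    · rw [min_eq_left hlt'.le, max_eq_right hlt'.le]
    · rw [min_eq_right hlt'.le, max_eq_left hlt'.le, segment_symm]
  refine ⟨n, t, hn, ht0, ht1, hlt, htS, ?_, ?_⟩
  · intro i hi
    have h1 := key i hi ((t i + t (i + 1)) / 2) (by linarith [hlt i hi]) (by linarith [hlt i hi])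
    have hti := htS i hi.le
    have hti' := htS (i + 1) hi
    exact ⟨_, T.cc_sub_Om hx (hmem _ (by linarith [hti.1, hti'.1]) (by linarith [hti.2.1, hti'.2.1])),
      h1.2, h1.1⟩
  · intro y hy hd1
    rw [hcc, segment_eq_image'] at hy
    obtain ⟨s, ⟨hs0, hs1⟩, hs⟩ := hy
    simp only [add_sub_cancel_left] at hs
    subst hs
    -- find the interval
    have hsS : s ∉ S := fun hs => by have := hs.2.2; omega
    have hex : ∃ i, i ≤ n ∧ s < t i := by
      refine ⟨n, le_rfl, ?_⟩
      rw [ht1]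
      refine lt_of_le_of_ne hs1 ?_
      rintro rfl
      exact hsS h1S
    classical
    have hfind := Nat.find_spec hex
    set j := Nat.find hex with hj
    have hj0 : j ≠ 0 := by
      intro h0
      rw [h0, ht0] at hfind
      linarith [hfind.2]
    obtain ⟨i, hi⟩ := Nat.exists_eq_succ_of_ne_zero hj0
    have hin : i < n := by have := hfind.1; omega
    have hle : t i ≤ s := by
      by_contra hcon
      have := Nat.find_min hex (m := i) (by omega)
      exact this ⟨by omega, not_le.1 hcon⟩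
    have hlt' : t i < s := by
      refine lt_of_le_of_ne hle ?_
      rintro rfl
      exact hsS (htS i hin.le)
    refine ⟨i, hin, (key i hin s hlt' ?_).1⟩
    have := hfind.2
    rw [hi] at this
    exact this

end

/-! ### integrals along a partitioned edge -/

section

variable {E : Type*} [NormedAddCommGroup E] [NormedSpace ℝ E]

/-- one piece -/
theorem lint_piece (F : E → ℝ≥0∞) (a v : E) {s t : ℝ} (hst : s < t) :
    ∫⁻ τ in Ioc s t, F (a + τ • v) =
      ENNReal.ofReal (t - s) * ∫⁻ σ in Ioc (0 : ℝ) 1, F ((a + s • v) + σ • ((t - s) • v)) := by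
  have hpos : 0 < t - s := by linarith
  have hmp : Ioc s t = (fun σ : ℝ => (t - s) * σ + s) '' Ioc 0 1 := by
    rw [image_affine_Ioc (a := t - s) (b := s) hpos]
    simp
  rw [hmp, lintegral_image_eq_lintegral_abs_deriv_mul (f := fun σ : ℝ => (t - s) * σ + s)
    (f' := fun _ => t - s) measurableSet_Ioc]
  · rw [lintegral_const_mul' _ _ (by finiteness), abs_of_pos hpos]
    congr 2
    funext σ
    congr 1
    rw [smul_smul, add_smul]
    rw [mul_comm]
    abel
  · intro σ _
    have := ((hasDerivAt_id σ).const_mul (t - s)).add_const s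
    simpa using this.hasDerivWithinAt
  · intro σ _ σ' _ h
    have : (t - s) * σ = (t - s) * σ' := by linarith
    exact mul_left_cancel₀ hpos.ne' this

/-- **the integral along an edge is the sum over the pieces** -/
theorem lint_partition {n : ℕ} {t : ℕ → ℝ} (ht0 : t 0 = 0) (ht1 : t n = 1)
    (hlt : ∀ i < n, t i < t (i + 1)) (F : E → ℝ≥0∞) (a v : E) :
    ∫⁻ τ in Ioc (0 : ℝ) 1, F (a + τ • v) = ∑ i ∈ Finset.range n, ENNReal.ofReal (t (i + 1) - t i) *
      ∫⁻ σ in Ioc (0 : ℝ) 1, F ((a + t i • v) + σ • ((t (i + 1) - t i) • v)) := by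
  have key : ∀ m, m ≤ n → 0 ≤ t m ∧ ∫⁻ τ in Ioc (0 : ℝ) (t m), F (a + τ • v) =
      ∑ i ∈ Finset.range m, ENNReal.ofReal (t (i + 1) - t i) *
        ∫⁻ σ in Ioc (0 : ℝ) 1, F ((a + t i • v) + σ • ((t (i + 1) - t i) • v)) := by
    intro m
    induction m with
    | zero => intro _; rw [ht0]; simp
    | succ m ih =>
      intro hm
      obtain ⟨h1, h2⟩ := ih (by omega)
      have h3 := hlt m (by omega)
      refine ⟨h1.trans h3.le, ?_⟩
      rw [Finset.sum_range_succ, ← h2, ← lint_piece F a v h3, ← Ioc_union_Ioc_eq_Ioc h1 h3.le,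
        lintegral_union measurableSet_Ioc]
      rw [Set.disjoint_left]
      intro x hx hx'
      exact absurd hx.2 (not_le.2 hx'.1)
  have := (key n le_rfl).2
  rwa [ht1] at this

/-- homogeneous integrands of degree one (`N y v = ‖D y v - L v‖ₑ`): no weights -/
theorem lint_partition_dir {n : ℕ} {t : ℕ → ℝ} (ht0 : t 0 = 0) (ht1 : t n = 1)
    (hlt : ∀ i < n, t i < t (i + 1)) (N : E → E → ℝ≥0∞)
    (hN : ∀ (y v : E) (c : ℝ), 0 < c → N y (c • v) = ENNReal.ofReal c * N y v) (a v : E) :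
    ∫⁻ τ in Icc (0 : ℝ) 1, N (a + τ • v) v = ∑ i ∈ Finset.range n,
      ∫⁻ σ in Icc (0 : ℝ) 1, N ((a + t i • v) + σ • ((t (i + 1) - t i) • v))
        ((t (i + 1) - t i) • v) := by
  rw [setLIntegral_congr Ioc_ae_eq_Icc.symm, lint_partition ht0 ht1 hlt (fun y => N y v) a v]
  refine Finset.sum_congr rfl fun i hi => ?_
  have h1 := hlt i (Finset.mem_range.1 hi)
  rw [← lintegral_const_mul' _ _ (by finiteness), setLIntegral_congr Ioc_ae_eq_Icc]
  refine lintegral_congr fun σ => ?_
  rw [hN _ _ _ (by linarith)]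

/-- homogeneous integrands of degree one, power `p` -/
theorem lint_partition_pow {n : ℕ} {t : ℕ → ℝ} (ht0 : t 0 = 0) (ht1 : t n = 1)
    (hlt : ∀ i < n, t i < t (i + 1)) (N : E → E → ℝ≥0∞)
    (hN : ∀ (y v : E) (c : ℝ), 0 < c → N y (c • v) = ENNReal.ofReal c * N y v) {p : ℝ}
    (hp : 0 ≤ p) (a v : E) :
    ∫⁻ τ in Icc (0 : ℝ) 1, N (a + τ • v) v ^ p = ∑ i ∈ Finset.range n,
      ENNReal.ofReal ((t (i + 1) - t i) ^ (1 - p)) *
      ∫⁻ σ in Icc (0 : ℝ) 1, N ((a + t i • v) + σ • ((t (i + 1) - t i) • v))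
        ((t (i + 1) - t i) • v) ^ p := by
  rw [setLIntegral_congr Ioc_ae_eq_Icc.symm, lint_partition ht0 ht1 hlt (fun y => N y v ^ p) a v]
  refine Finset.sum_congr rfl fun i hi => ?_
  have h1 := hlt i (Finset.mem_range.1 hi)
  have hpos : 0 < t (i + 1) - t i := by linarith
  rw [← lintegral_const_mul' _ _ (by finiteness), ← lintegral_const_mul' _ _ (by finiteness),
    setLIntegral_congr Ioc_ae_eq_Icc]
  refine lintegral_congr fun σ => ?_
  rw [hN _ _ _ hpos, ENNReal.mul_rpow_of_nonneg _ _ hp, ← mul_assoc,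
    ENNReal.ofReal_rpow_of_pos hpos, ← ENNReal.ofReal_mul (by positivity),
    ← Real.rpow_add hpos, sub_add_cancel, Real.rpow_one]

/-- the integrand of (2a) -/
theorem hom_sub {G : Type*} [NormedAddCommGroup G] [NormedSpace ℝ G] (D : E → E →L[ℝ] G)
    (L : E →L[ℝ] G) (y v : E) (c : ℝ) (hc : 0 < c) :
    ‖D y (c • v) - L (c • v)‖ₑ = ENNReal.ofReal c * ‖D y v - L v‖ₑ := by
  rw [map_smul, map_smul, ← smul_sub, enorm_smul, Real.enorm_eq_ofReal hc.le]

/-- the integrand of (2b) -/
theorem hom_dir {G : Type*} [NormedAddCommGroup G] [NormedSpace ℝ G] (D : E → E →L[ℝ] G)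
    (y v : E) (c : ℝ) (hc : 0 < c) : ‖D y (c • v)‖ₑ = ENNReal.ofReal c * ‖D y v‖ₑ := by
  rw [map_smul, enorm_smul, Real.enorm_eq_ofReal hc.le]

end

end Crest.Agent.R096.Skc_565
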