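import Crest.Agent.R096.Msb6_432
import Crest.Agent.R096.Skc1_565

/-!
# Row 96: the aligned mesh with subdivided cores, part 7: (ED), the chains of 1-cells of `meshS` in
the 1-cells of the block tiling

`exists_partition_on` is helper565's `Ref.exists_partition` (Skc1_565) for a refinement which is only
known at the points of the edge, for tilings of different sets.
-/

set_option autoImplicit false
set_option linter.unusedSectionVars false

open Set Metric MeasureTheory Module Filter Topology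

namespace Crest.Agent.R096.Msb_432

open Msh_715 Cut_874 Msh_810 Mal_874
open Skc_565 (edge_ends exists_sorted)

section part

variable {E : Type*} [NormedAddCommGroup E] [NormedSpace ℝ E] {Om Om' : Set E} {ι ι' : Type*}
variable {T' : Tiling Om' ι'} {T : Tiling Om ι}

/-- **partition of an edge of `T` into edges of `T'`** -/
theorem exists_partition_on [FiniteDimensional ℝ E] {x : E} (hx : x ∈ Om)
    (h : ∀ y ∈ T.cc x, y ∈ Om' ∧ T'.cc y ⊆ T.cc y) (hd : T.dim x = 1) {a v : E} (hcc : T.cc x = segment ℝ a (a + v)) :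
    ∃ (n : ℕ) (t : ℕ → ℝ), 0 < n ∧ t 0 = 0 ∧ t n = 1 ∧ (∀ i < n, t i < t (i + 1)) ∧
      (∀ i, i ≤ n → 0 ≤ t i ∧ t i ≤ 1 ∧ T'.dim (a + t i • v) = 0) ∧
      (∀ i < n, ∃ y ∈ Om', T'.dim y = 1 ∧
        T'.cc y = segment ℝ (a + t i • v) (a + t (i + 1) • v)) ∧
      ∀ y ∈ T.cc x, T'.dim y = 1 →
        ∃ i < n, T'.cc y = segment ℝ (a + t i • v) (a + t (i + 1) • v) := by
  obtain ⟨hv, hda, hdb, -⟩ := edge_ends hx hd hcc
  have hmem : ∀ s : ℝ, 0 ≤ s → s ≤ 1 → a + s • v ∈ T.cc x := by
    intro s h0 h1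
    rw [hcc, segment_eq_image']
    exact ⟨s, ⟨h0, h1⟩, by simp⟩
  have hinj : Function.Injective fun s : ℝ => a + s • v := by
    intro s t hst
    have : (s - t) • v = 0 := by
      rw [sub_smul, sub_eq_zero]; exact add_left_cancel hst
    exact sub_eq_zero.1 ((smul_eq_zero.1 this).resolve_right hv)
  set S : Set ℝ := {s | 0 ≤ s ∧ s ≤ 1 ∧ T'.dim (a + s • v) = 0} with hS
  have hfin : S.Finite := by
    have h1 : ((fun s : ℝ => ({a + s • v} : Set E)) '' S).Finite := by
      refine (T'.finite_cells (T.isCompact_cc hx) (fun y hy => (h y hy).1)).subset ?_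
      rintro _ ⟨s, ⟨h0, h1, h2⟩, rfl⟩
      have h3 := T'.cc_eq_singleton (T'.dim_eq_zero_iff.1 h2)
      exact ⟨⟨a + s • v, (h _ (hmem s h0 h1)).1, h3.symm⟩, a + s • v, rfl, hmem s h0 h1⟩
    refine Set.Finite.of_finite_image h1 ?_
    intro s _ t _ hst
    exact hinj (singleton_injective hst)
  have h0S : (0 : ℝ) ∈ S := by
    refine ⟨le_rfl, zero_le_one, ?_⟩
    have hO := h a (by simpa using hmem 0 le_rfl zero_le_one)
    have := dim_le_of_cc_sub hO.1 hO.2
    rw [zero_smul, add_zero]; omega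
  have h1S : (1 : ℝ) ∈ S := by
    refine ⟨zero_le_one, le_rfl, ?_⟩
    have hO := h (a + v) (by simpa using hmem 1 zero_le_one le_rfl)
    have := dim_le_of_cc_sub hO.1 hO.2
    rw [one_smul]; omega
  obtain ⟨n, t, hn, ht0, ht1, hlt, htS, hcons, hall⟩ :=
    exists_sorted S hfin h0S h1S fun s hs => ⟨hs.1, hs.2.1⟩
  -- the key: a cell of `T'` through an interior point of the `i`-th interval
  have key : ∀ i < n, ∀ s, t i < s → s < t (i + 1) →
      T'.cc (a + s • v) = segment ℝ (a + t i • v) (a + t (i + 1) • v) ∧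
        T'.dim (a + s • v) = 1 := by
    intro i hi s hs1 hs2
    have hti := htS i hi.le
    have hti' := htS (i + 1) hi
    have hs0 : 0 ≤ s := hti.1.trans hs1.le
    have hs1' : s ≤ 1 := hs2.le.trans hti'.2.1
    have hyh := h _ (hmem s hs0 hs1')
    have hyO : a + s • v ∈ Om' := hyh.1
    have hdle : T'.dim (a + s • v) ≤ 1 := by
      refine (dim_le_of_cc_sub hyO hyh.2).trans ?_
      rw [← hd]; exact T.dim_le (hmem s hs0 hs1')
    have hdne : T'.dim (a + s • v) ≠ 0 := by
      intro h0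
      rcases hcons i hi s ⟨hs0, hs1', h0⟩ with h3 | h3 <;> linarith
    have hd1 : T'.dim (a + s • v) = 1 := by omega
    refine ⟨?_, hd1⟩
    obtain ⟨p, q, hpq, h1, h2, h3, h4, h5, h6⟩ := T'.edge_eq hyO hd1
    have hsub : T'.cc (a + s • v) ⊆ T.cc x :=
      hyh.2.trans (T.cc_sub_of_mem (hmem s hs0 hs1'))
    have hp := hsub h5
    have hq := hsub h6
    rw [hcc, segment_eq_image'] at hp hq
    obtain ⟨c, ⟨hc0, hc1⟩, hc⟩ := hp
    obtain ⟨d, ⟨hd0, hd1'⟩, hd'⟩ := hq
    simp only [add_sub_cancel_left] at hc hd'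
    have hcS : c ∈ S := ⟨hc0, hc1, by rw [hc]; exact h3⟩
    have hdS : d ∈ S := ⟨hd0, hd1', by rw [hd']; exact h4⟩
    have hyo : a + s • v ∈ openSegment ℝ p q := h2 ▸ T'.self_mem_oc _
    -- points between `c` and `d` have dimension one
    have hbet : ∀ r : ℝ, 0 < r → r < 1 → c + r * (d - c) ∉ S := by
      intro r hr0 hr1 hrS
      have h7 : a + (c + r * (d - c)) • v ∈ openSegment ℝ p q := by
        rw [openSegment_eq_image']
        refine ⟨r, ⟨hr0, hr1⟩, ?_⟩
        rw [← hc, ← hd']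
        simp only [add_smul, mul_smul, sub_smul, smul_add, smul_sub]
        abel
      rw [← h2] at h7
      have h8 := T'.dim_eq_of_mem_oc hyO h7
      have := hrS.2.2
      omega
    obtain ⟨r, ⟨hr0, hr1⟩, hr⟩ : ∃ r : ℝ, (0 < r ∧ r < 1) ∧ s = c + r * (d - c) := by
      rw [openSegment_eq_image'] at hyo
      obtain ⟨r, ⟨hr0, hr1⟩, hr⟩ := hyo
      refine ⟨r, ⟨hr0, hr1⟩, hinj ?_⟩
      rw [← hc, ← hd'] at hr
      show a + s • v = a + (c + r * (d - c)) • v
      rw [← hr]
      simp only [add_smul, mul_smul, sub_smul, smul_add, smul_sub]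
      abel
    have hcd : c ≠ d := by
      rintro rfl
      exact hpq (hc.symm.trans hd')
    -- a point of `S` in the open interval between `c` and `d` is impossible
    have hno : ∀ z ∈ S, ¬ (min c d < z ∧ z < max c d) := by
      rintro z hz ⟨hz1, hz2⟩
      have hne : d - c ≠ 0 := sub_ne_zero.2 hcd.symm
      refine hbet ((z - c) / (d - c)) ?_ ?_ ?_
      · rcases lt_or_gt_of_ne hcd with hlt' | hlt'
        · rw [min_eq_left hlt'.le] at hz1
          exact div_pos (by linarith) (by linarith)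
        · rw [max_eq_left hlt'.le] at hz2
          exact div_pos_of_neg_of_neg (by linarith) (by linarith)
      · rcases lt_or_gt_of_ne hcd with hlt' | hlt'
        · rw [max_eq_right hlt'.le] at hz2
          rw [div_lt_one (by linarith)]; linarith
        · rw [min_eq_right hlt'.le] at hz1
          rw [div_lt_one_of_neg (by linarith)]; linarith
      · have : c + (z - c) / (d - c) * (d - c) = z := by
          rw [div_mul_cancel₀ _ hne]; ring
        rw [this]; exact hz
    have hsm : min c d < s ∧ s < max c d := by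
      rcases lt_or_gt_of_ne hcd with hlt' | hlt'
      · rw [min_eq_left hlt'.le, max_eq_right hlt'.le, hr]
        constructor <;> nlinarith
      · rw [min_eq_right hlt'.le, max_eq_left hlt'.le, hr]
        constructor <;> nlinarith
    have hmn : min c d ∈ S := by
      rcases min_choice c d with h' | h' <;> rw [h'] <;> assumption
    have hmx : max c d ∈ S := by
      rcases max_choice c d with h' | h' <;> rw [h'] <;> assumption
    have e1 : min c d = t i := by
      rcases hcons i hi _ hmn with h' | h'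
      · refine le_antisymm h' (not_lt.1 fun hcon => hno _ hti ⟨hcon, ?_⟩)
        linarith [hsm.2]
      · linarith [hsm.1]
    have e2 : max c d = t (i + 1) := by
      rcases hcons i hi _ hmx with h' | h'
      · linarith [hsm.2]
      · refine le_antisymm (not_lt.1 fun hcon => hno _ hti' ⟨?_, hcon⟩) h'
        linarith [hsm.1]
    rw [h1, ← hc, ← hd', ← e1, ← e2]
    rcases lt_or_gt_of_ne hcd with hlt' | hlt'
    · rw [min_eq_left hlt'.le, max_eq_right hlt'.le]
    · rw [min_eq_right hlt'.le, max_eq_left hlt'.le, segment_symm]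
  refine ⟨n, t, hn, ht0, ht1, hlt, htS, ?_, ?_⟩
  · intro i hi
    have h1 := key i hi ((t i + t (i + 1)) / 2) (by linarith [hlt i hi]) (by linarith [hlt i hi])
    have hti := htS i hi.le
    have hti' := htS (i + 1) hi
    exact ⟨_, (h _ (hmem _ (by linarith [hti.1, hti'.1]) (by linarith [hti.2.1, hti'.2.1]))).1,
      h1.2, h1.1⟩
  · intro y hy hd1
    rw [hcc, segment_eq_image'] at hy
    obtain ⟨s, ⟨hs0, hs1⟩, hs⟩ := hy
    simp only [add_sub_cancel_left] at hs
    subst hs
    -- find the interval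
    have hsS : s ∉ S := fun hs => by have := hs.2.2; omega
    have hex : ∃ i, i ≤ n ∧ s < t i := by
      refine ⟨n, le_rfl, ?_⟩
      rw [ht1]
      refine lt_of_le_of_ne hs1 ?_
      rintro rfl
      exact hsS h1S
    classical
    have hfind := Nat.find_spec hex
    set j := Nat.find hex with hj
    have hj0 : j ≠ 0 := by
      intro h0
      rw [h0, ht0] at hfind
      linarith [hfind.2]
    obtain ⟨i, hi⟩ := Nat.exists_eq_succ_of_ne_zero hj0
    have hin : i < n := by have := hfind.1; omega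
    have hle : t i ≤ s := by
      by_contra hcon
      have := Nat.find_min hex (m := i) (by omega)
      exact this ⟨by omega, not_le.1 hcon⟩
    have hlt' : t i < s := by
      refine lt_of_le_of_ne hle ?_
      rintro rfl
      exact hsS (htS i hin.le)
    refine ⟨i, hin, (key i hin s hlt' ?_).1⟩
    have := hfind.2
    rw [hi] at this
    exact this

end part

/-! ### segments -/

section seg

variable {E : Type*} [NormedAddCommGroup E] [NormedSpace ℝ E]

theorem seg_eq {a b c d : E} (h : segment ℝ a b = segment ℝ c d) :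
    (a = c ∧ b = d) ∨ (a = d ∧ b = c) := by
  have hc : c ∈ segment ℝ a b := h ▸ left_mem_segment _ _ _
  have hd : d ∈ segment ℝ a b := h ▸ right_mem_segment _ _ _
  have ha : a ∈ segment ℝ c d := h ▸ left_mem_segment _ _ _
  have hb : b ∈ segment ℝ c d := h ▸ right_mem_segment _ _ _
  have h1 := dist_add_dist_of_mem_segment ha
  have h2 := dist_add_dist_of_mem_segment hb
  have h3 := dist_add_dist_of_mem_segment hc
  have h4 := dist_add_dist_of_mem_segment hd
  rw [segment_eq_image'] at hc hd ha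
  obtain ⟨s, ⟨hs0, hs1⟩, hs⟩ := hc
  obtain ⟨t, ⟨ht0, ht1⟩, ht⟩ := hd
  obtain ⟨r, ⟨hr0, hr1⟩, hr⟩ := ha
  by_cases hab : a = b
  · subst hab
    simp only [sub_self, smul_zero, add_zero] at hs ht
    left
    exact ⟨hs, ht⟩
  have hne : b - a ≠ 0 := sub_ne_zero.2 (fun e => hab e.symm)
  have e1 : (s + r * (t - s)) • (b - a) = 0 := by
    have : (s + r * (t - s)) • (b - a) = (c + r • (d - c)) - a := by
      rw [← hs, ← ht, add_smul, mul_smul, sub_smul]
      simp only [smul_sub, smul_add]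
      abel
    have h5 : c + r • (d - c) = a := hr
    rw [this, h5, sub_self]
  have e1' : s + r * (t - s) = 0 := (smul_eq_zero.1 e1).resolve_right hne
  have hst : s = 0 ∨ t = 0 := by
    by_contra hcon
    push Not at hcon
    have h6 : 0 < s := lt_of_le_of_ne hs0 (Ne.symm hcon.1)
    have h7 : 0 < t := lt_of_le_of_ne ht0 (Ne.symm hcon.2)
    have h8 : s * (1 - r) + r * t = 0 := by linarith [e1']
    have h9 : 0 ≤ s * (1 - r) := mul_nonneg hs0 (by linarith)
    have h10 : 0 ≤ r * t := mul_nonneg hr0 ht0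
    have h11 : s * (1 - r) = 0 := by linarith
    have h12 : r * t = 0 := by linarith
    rcases mul_eq_zero.1 h11 with h | h
    · exact hcon.1 h
    · rcases mul_eq_zero.1 h12 with h' | h'
      · linarith
      · exact hcon.2 h'
  obtain ⟨r', ⟨hr0', hr1'⟩, hr'⟩ : ∃ r' ∈ Icc (0 : ℝ) 1, c + r' • (d - c) = b := by
    have := hb
    rw [segment_eq_image'] at this
    exact this
  have e2 : (s + r' * (t - s) - 1) • (b - a) = 0 := by
    have : (s + r' * (t - s) - 1) • (b - a) = (c + r' • (d - c)) - b := by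
      rw [← hs, ← ht, sub_smul, add_smul, mul_smul, sub_smul, one_smul]
      simp only [smul_sub, smul_add]
      abel
    rw [this, hr', sub_self]
  have e2' : s + r' * (t - s) - 1 = 0 := (smul_eq_zero.1 e2).resolve_right hne
  rcases hst with h0 | h0
  · left
    subst h0
    have ht' : t = 1 := by nlinarith
    subst ht'
    simp only [zero_smul, add_zero, one_smul, add_sub_cancel] at hs ht
    exact ⟨hs, ht⟩
  · right
    subst h0
    have hs' : s = 1 := by nlinarith
    subst hs'
    simp only [zero_smul, add_zero, one_smul, add_sub_cancel] at hs ht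
    exact ⟨ht, hs⟩

end seg

/-! ### (ED) -/

section ed

variable {n : ℕ} {E : Type*} [NormedAddCommGroup E] [NormedSpace ℝ E] [FiniteDimensional ℝ E]
variable [NeZero n] {J : Type*} (M : MD E n J) {k : J → ℕ} (hk : M.Sc k) (a : Fin n → ℝ)
  {v : J → E} (hv : M.Adm v) {j : J}

/-- the closed cells of the translated block tiling -/
theorem tr_cc (x : E) : ((M.Bk v j).T (k j) (hk.kc j)).cc (x + v j) =
    (fun y => y + v j) '' ((M.Q j).T (k j) (hk.kc j)).cc x := by
  have h := (M.Q j).rg_tr (v j) (k j) (hk.kc j) x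
  ext y
  constructor
  · intro hy
    refine ⟨y - v j, h.cc.1 ?_, sub_add_cancel _ _⟩
    rw [sub_add_cancel]
    exact hy
  · rintro ⟨z, hz, rfl⟩
    exact h.cc.2 hz

theorem seg_tr (e1 e2 w : E) : (fun y => y + w) '' segment ℝ e1 e2 =
    segment ℝ (e1 + w) (e1 + w + (e2 - e1)) := by
  have h1 : e1 + w + (e2 - e1) = e2 + w := by abel
  rw [h1, segment_eq_image', segment_eq_image', image_image]
  refine image_congr fun t _ => ?_
  simp only [add_sub_add_right_eq_sub]
  abel

/-- **(ED)**: a 1-cell of the block tiling (an element of `Ea0_961.Ed`), translated with the block,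
is a chain of 1-cells of `meshS` -/
theorem ed_chain {x : E} (hd : ((M.Q j).T (k j) (hk.kc j)).dim x = 1) {e1 e2 : E}
    (hcc : ((M.Q j).T (k j) (hk.kc j)).cc x = segment ℝ e1 e2)
    (hN : segment ℝ e1 e2 ⊆ (M.Q j).N) :
    ∃ (m : ℕ) (t : ℕ → ℝ), 0 < m ∧ t 0 = 0 ∧ t m = 1 ∧ (∀ i < m, t i < t (i + 1)) ∧
      (∀ i, i ≤ m → 0 ≤ t i ∧ t i ≤ 1 ∧
        (meshS M hk a hv).dim (e1 + v j + t i • (e2 - e1)) = 0) ∧
      (∀ i < m, ∃ y ∈ M.φ ⁻¹' M.D0.Om, (meshS M hk a hv).dim y = 1 ∧
        (meshS M hk a hv).cc y = segment ℝ (e1 + v j + t i • (e2 - e1))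
          (e1 + v j + t (i + 1) • (e2 - e1))) ∧
      ∀ y ∈ ((M.Q j).T (k j) (hk.kc j)).cc x, (meshS M hk a hv).dim (y + v j) = 1 →
        ∃ i < m, (meshS M hk a hv).cc (y + v j) = segment ℝ (e1 + v j + t i • (e2 - e1))
          (e1 + v j + t (i + 1) • (e2 - e1)) := by
  have hx : x + v j ∈ (M.Bk v j).ψ ⁻¹' ((M.Bk v j).D (k j) (hk.kc j)).Om := mem_TsB_Om _ _ _ _
  have hcc' : ((M.Bk v j).T (k j) (hk.kc j)).cc (x + v j) =
      segment ℝ (e1 + v j) (e1 + v j + (e2 - e1)) := by
    rw [tr_cc M hk, hcc, seg_tr]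
  have hdd : ((M.Bk v j).T (k j) (hk.kc j)).dim (x + v j) = 1 := by
    rw [← hd]
    exact ((M.Q j).rg_tr (v j) (k j) (hk.kc j) x).dim
  have hin : ∀ y ∈ ((M.Bk v j).T (k j) (hk.kc j)).cc (x + v j), y ∈ (M.Bk v j).N := by
    intro y hy
    rw [tr_cc M hk, hcc] at hy
    obtain ⟨z, hz, rfl⟩ := hy
    show z + v j ∈ ((M.Q j).tr (v j)).N
    rw [CB.mem_N_tr, add_sub_cancel_right]
    exact hN hz
  obtain ⟨m, t, h1, h2, h3, h4, h5, h6, h7⟩ :=
    exists_partition_on (T' := meshS M hk a hv) (T := (M.Bk v j).T (k j) (hk.kc j)) hx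
      (fun y hy => ⟨N_sub_Om M hk a hv (hin y hy), meshS_cc_T M hk a hv (hin y hy)⟩) hdd hcc'
  refine ⟨m, t, h1, h2, h3, h4, h5, h6, ?_⟩
  intro y hy hdy
  exact h7 (y + v j) (by rw [tr_cc M hk]; exact mem_image_of_mem _ hy) hdy

/-- the direction of a piece -/
theorem piece_sub (e w : E) (s t : ℝ) : (w + t • e) - (w + s • e) = (t - s) • e := by
  rw [sub_smul]
  abel

/-- a point of `meshS` of dimension one lies in at most one 1-cell of the block tiling -/
theorem ed_unique {x x' y : E} (hd : ((M.Q j).T (k j) (hk.kc j)).dim x = 1)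
    (hd' : ((M.Q j).T (k j) (hk.kc j)).dim x' = 1) (hyN : y ∈ (M.Q j).N)
    (hy1 : (meshS M hk a hv).dim (y + v j) = 1)
    (hy : y ∈ ((M.Q j).T (k j) (hk.kc j)).cc x) (hy' : y ∈ ((M.Q j).T (k j) (hk.kc j)).cc x') :
    ((M.Q j).T (k j) (hk.kc j)).cc x = ((M.Q j).T (k j) (hk.kc j)).cc x' := by
  have h1 := meshS_dim_Q M hk a hv hyN
  have key : ∀ z, ((M.Q j).T (k j) (hk.kc j)).dim z = 1 →
      y ∈ ((M.Q j).T (k j) (hk.kc j)).cc z →
      ((M.Q j).T (k j) (hk.kc j)).cc y = ((M.Q j).T (k j) (hk.kc j)).cc z := by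
    intro z hz hyz
    have h2 : y ∈ ((M.Q j).T (k j) (hk.kc j)).oc z := by
      by_contra hcon
      have := ((M.Q j).T (k j) (hk.kc j)).dim_lt hyz hcon
      omega
    exact ((M.Q j).T (k j) (hk.kc j)).cc_eq_of_mem_oc (mem_TsB_Om _ _ _ _) h2
  rw [← key x hd hy, ← key x' hd' hy']

/-- **every 1-cell of `meshS` is in at most one element of `Ed` up to orientation** -/
theorem ed_unique' {x x' y e1 e2 e1' e2' : E} (hd : ((M.Q j).T (k j) (hk.kc j)).dim x = 1)
    (hd' : ((M.Q j).T (k j) (hk.kc j)).dim x' = 1)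
    (hcc : ((M.Q j).T (k j) (hk.kc j)).cc x = segment ℝ e1 e2)
    (hcc' : ((M.Q j).T (k j) (hk.kc j)).cc x' = segment ℝ e1' e2')
    (hN : segment ℝ e1 e2 ⊆ (M.Q j).N) (hy1 : (meshS M hk a hv).dim (y + v j) = 1)
    (hy : y ∈ segment ℝ e1 e2) (hy' : y ∈ segment ℝ e1' e2') :
    (e1 = e1' ∧ e2 = e2') ∨ (e1 = e2' ∧ e2 = e1') := by
  refine seg_eq ?_
  rw [← hcc, ← hcc']
  exact ed_unique M hk a hv hd hd' (hN hy) hy1 (hcc ▸ hy) (hcc' ▸ hy')

end ed

end Crest.Agent.R096.Msb_432
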