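import Crest.Agent.R096.Mal17_874

/-!
# Row 96, library (MESH-AL), part 18: rigidity of the block tilings and of the aligned mesh
-/

set_option autoImplicit false

open Set Filter Topology Metric

namespace Crest.Agent.R096.Mal_874

open Msh_715 Cut_874 Msh_810

variable {n : ℕ} {E : Type*} [NormedAddCommGroup E] [NormedSpace ℝ E]

/-! ### translated blocks -/

theorem mem_pc_add {a c x : Fin n → ℝ} {κ : ℕ} {Z : Set (Fin n → ℤ)} :
    x + c ∈ pc (a + c) κ Z ↔ x ∈ pc a κ Z := by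
  rw [mem_pc, mem_pc]
  exact exists_congr fun z => and_congr Iff.rfl mem_Cu_add

theorem mem_blk_add {ψ : E ≃L[ℝ] (Fin n → ℝ)} {a' : Fin n → ℝ} {κ : ℕ} {Z : Set (Fin n → ℤ)}
    {b y : E} : y + b ∈ blk ψ (a' + ψ b) κ Z ↔ y ∈ blk ψ a' κ Z := by
  unfold blk
  rw [mem_preimage, mem_preimage, map_add]
  exact mem_pc_add

theorem mem_frontier_blk_add {ψ : E ≃L[ℝ] (Fin n → ℝ)} {a' : Fin n → ℝ} {κ : ℕ}
    {Z : Set (Fin n → ℤ)} {b y : E} :
    y + b ∈ frontier (blk ψ (a' + ψ b) κ Z) ↔ y ∈ frontier (blk ψ a' κ Z) := by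
  have h : (Homeomorph.addRight b) ⁻¹' blk ψ (a' + ψ b) κ Z = blk ψ a' κ Z := by
    ext z
    exact mem_blk_add
  have h2 := (Homeomorph.addRight b).preimage_frontier (blk ψ (a' + ψ b) κ Z)
  rw [h] at h2
  rw [← h2]
  rfl

theorem mem_frontier_pc_add {a c x : Fin n → ℝ} {κ : ℕ} {Z : Set (Fin n → ℤ)} :
    x + c ∈ frontier (pc (a + c) κ Z) ↔ x ∈ frontier (pc a κ Z) := by
  have h : (Homeomorph.addRight c) ⁻¹' pc (a + c) κ Z = pc a κ Z := by
    ext z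
    exact mem_pc_add
  have h2 := (Homeomorph.addRight c).preimage_frontier (pc (a + c) κ Z)
  rw [h] at h2
  rw [← h2]
  rfl

theorem P_sub_iff {b : E} {G G' : Finset ((E →L[ℝ] ℝ) × ℝ)} (h : G' = trS b G) {N N' : Set E}
    (hN : ∀ y, y + b ∈ N' ↔ y ∈ N) : P G' ⊆ N' ↔ P G ⊆ N := by
  subst h
  constructor
  · intro hs y hy
    exact (hN y).1 (hs (mem_P_trS.2 hy))
  · intro hs y hy
    have e : y = (y - b) + b := by abel
    rw [e, hN]
    refine hs ((mem_P_trS (b := b)).1 ?_)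
    rwa [← e]

/-! ### the cutting planes -/

section

variable {Om Om' : Set E} {ι ι' J : Type*} {T : Tiling Om ι} {T' : Tiling Om' ι'} {b : E}

theorem plS_tr {ψ : E ≃L[ℝ] (Fin n → ℝ)} {a' : Fin n → ℝ} {κ : ℕ} {i : ι} {i' : ι'}
    (hi : T'.H i' = trS b (T.H i)) :
    plS T' ψ (a' + ψ b) κ i' = trh b '' plS T ψ a' κ i := by
  have key : ∀ (m : Fin n) (t : ℤ), ((co ψ m, (a' + ψ b) m + t / 2 ^ κ) : (E →L[ℝ] ℝ) × ℝ) =
      trh b (co ψ m, a' m + t / 2 ^ κ) := by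
    intro m t
    unfold trh
    ext1
    · rfl
    · show a' m + ψ b m + _ = a' m + _ + ψ b m
      ring
  ext h
  constructor
  · rintro ⟨m, t, rfl, y, hy, e⟩
    refine ⟨_, ⟨m, t, rfl, y - b, ?_, ?_⟩, (key m t).symm⟩
    · rw [hi] at hy
      refine (mem_P_trS (b := b)).1 ?_
      rwa [sub_add_cancel]
    · rw [map_sub]
      have e' : ψ y m = a' m + ψ b m + t / 2 ^ κ := e
      show ψ y m - ψ b m = _
      rw [e']
      ring
  · rintro ⟨_, ⟨m, t, rfl, y, hy, e⟩, rfl⟩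
    refine ⟨m, t, key m t, y + b, ?_, ?_⟩
    · rw [hi]
      exact mem_P_trS.2 hy
    · rw [map_add]
      show ψ y m + ψ b m = a' m + ψ b m + _
      rw [e]
      ring

theorem AS_tr {ψ : J → E ≃L[ℝ] (Fin n → ℝ)} {a' a'' : J → Fin n → ℝ} {κ : J → ℕ}
    {Z : J → Set (Fin n → ℤ)} (ha : ∀ j, a'' j = a' j + ψ j b) {i : ι} {i' : ι'}
    (hi : T'.H i' = trS b (T.H i)) : AS T' ψ a'' κ Z i' = trh b '' AS T ψ a' κ Z i := by
  ext h
  constructor
  · rintro ⟨j, ⟨y, hy, hyf⟩, hj⟩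
    rw [ha j] at hyf hj
    rw [plS_tr hi] at hj
    obtain ⟨g, hg, rfl⟩ := hj
    refine ⟨g, ⟨j, ⟨y - b, ?_, ?_⟩, hg⟩, rfl⟩
    · rw [hi] at hy
      refine (mem_P_trS (b := b)).1 ?_
      rwa [sub_add_cancel]
    · refine (mem_frontier_blk_add (b := b)).1 ?_
      rwa [sub_add_cancel]
  · rintro ⟨g, ⟨j, ⟨y, hy, hyf⟩, hj⟩, rfl⟩
    refine ⟨j, ⟨y + b, ?_, ?_⟩, ?_⟩
    · rw [hi]
      exact mem_P_trS.2 hy
    · rw [ha j]
      exact mem_frontier_blk_add.2 hyf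
    · rw [ha j, plS_tr hi]
      exact mem_image_of_mem _ hj

theorem AF_tr {ψ : J → E ≃L[ℝ] (Fin n → ℝ)} {a' a'' : J → Fin n → ℝ} {κ : J → ℕ}
    {Z : J → Set (Fin n → ℤ)} (ha : ∀ j, a'' j = a' j + ψ j b) {i : ι} {i' : ι'}
    (hi : T'.H i' = trS b (T.H i)) : AF T' ψ a'' κ Z i' = trS b (AF T ψ a' κ Z i) := by
  classical
  have h1 := AS_tr (κ := κ) (Z := Z) ha hi
  by_cases hf : (AS T ψ a' κ Z i).Finite
  · have hf' : (AS T' ψ a'' κ Z i').Finite := by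
      rw [h1]
      exact hf.image _
    unfold AF
    rw [dif_pos hf, dif_pos hf']
    ext h
    unfold trS
    rw [Set.Finite.mem_toFinset, Finset.mem_image, h1]
    constructor
    · rintro ⟨g, hg, rfl⟩
      exact ⟨g, (Set.Finite.mem_toFinset hf).2 hg, rfl⟩
    · rintro ⟨g, hg, rfl⟩
      exact ⟨g, (Set.Finite.mem_toFinset hf).1 hg, rfl⟩
  · have hf' : ¬ (AS T' ψ a'' κ Z i').Finite := by
      rw [h1]
      intro h
      exact hf (Set.Finite.of_finite_image h (trh_inj b).injOn)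
    unfold AF
    rw [dif_neg hf, dif_neg hf']
    unfold trS
    rw [Finset.image_empty]

end

/-! ### the block tilings -/

theorem iH_tr (ψ : E ≃L[ℝ] (Fin n → ℝ)) (a' : Fin n → ℝ) (b : E) (k : ℕ)
    (S : Finset ((Fin n → ℤ) × ℤ)) : iH ψ (a' + ψ b) k S = trS b (iH ψ a' k S) := by
  classical
  unfold iH trS
  rw [Finset.image_image]
  congr 1
  funext q
  show iq ψ (a' + ψ b) k q = trh b (iq ψ a' k q)
  unfold iq trh
  ext1
  · rfl
  · show dt (rv q.1) (a' + ψ b) + _ = dt (rv q.1) a' + _ + (∑ m, (q.1 m : ℝ) • co ψ m) b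
    rw [sum_apply]
    have e : dt (rv q.1) (a' + ψ b) = dt (rv q.1) a' + dt (rv q.1) (ψ b) := by
      unfold dt
      rw [← Finset.sum_add_distrib]
      exact Finset.sum_congr rfl fun m _ => by rw [Pi.add_apply]; ring
    rw [e]
    have e2 : ∑ m, ((q.1 m : ℝ) • co ψ m) b = dt (rv q.1) (ψ b) := rfl
    rw [e2]
    ring

namespace CB

theorem tr_add (Q : CB E n) (v b : E) : Q.tr (v + b) = (Q.tr v).tr b := by
  unfold tr
  congr 1
  show Q.a' + Q.ψ (v + b) = Q.a' + Q.ψ v + Q.ψ b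
  rw [map_add, add_assoc]

theorem mem_W_tr (Q : CB E n) (b : E) {x : Fin n → ℝ} : x + Q.ψ b ∈ (Q.tr b).W ↔ x ∈ Q.W :=
  mem_frontier_pc_add

theorem infDist_W_tr (Q : CB E n) (b : E) (x : Fin n → ℝ) :
    infDist (x + Q.ψ b) (Q.tr b).W = infDist x Q.W := by
  have h : (Q.tr b).W = (fun y => y + Q.ψ b) '' Q.W := by
    ext y
    constructor
    · intro hy
      refine ⟨y - Q.ψ b, (Q.mem_W_tr b).1 (by rwa [sub_add_cancel]), sub_add_cancel _ _⟩
    · rintro ⟨z, hz, rfl⟩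
      exact (Q.mem_W_tr b).2 hz
  rw [h]
  exact infDist_image (isometry_add_right (Q.ψ b))

theorem trD (Q : CB E n) (b : E) (k : ℕ) (hk : Q.kc ≤ k) :
    TrD (Q.D k hk) ((Q.tr b).D k hk) (Q.ψ b) where
  ρ x := by
    show max (6 / 2 ^ k) (min (6 / 2 ^ Q.kc) (infDist (x + Q.ψ b) (Q.tr b).W)) =
      max (6 / 2 ^ k) (min (6 / 2 ^ Q.kc) (infDist x Q.W))
    rw [infDist_W_tr]
  C := rfl
  a := rfl

theorem rg_tr (Q : CB E n) (b : E) (k : ℕ) (hk : Q.kc ≤ k) (p : E) :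
    Rg (Q.T k hk) ((Q.tr b).T k hk) b p := by
  have h0 : Rg (Q.T0 k hk) ((Q.tr b).T0 k hk) b p := (Q.trD b k hk).rg p
  have hbp : ∀ y, y + b ∈ (Q.tr b).S.bp (Q.tr b).ψ (Q.tr b).a' (Q.tr b).kc ↔
      y ∈ Q.S.bp Q.ψ Q.a' Q.kc := by
    intro y
    rw [PS.mem_bp, PS.mem_bp, ps_tr, add_sub_cancel_right]
    rfl
  refine Rg.patch h0 ?_ ?_ ?_
  · intro i _ i' e
    exact P_sub_iff e hbp
  · intro i _
    exact ⟨i, iH_tr _ _ _ _ _⟩
  · intro i _
    exact ⟨i, iH_tr _ _ _ _ _⟩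

/-- **the block tiling moves rigidly with the block** -/
theorem rg (Q : CB E n) (v b : E) (k : ℕ) (hk : Q.kc ≤ k) (p : E) :
    Rg ((Q.tr v).T k hk) ((Q.tr (v + b)).T k hk) b p := by
  have h := (Q.tr v).rg_tr b k hk p
  have key : ∀ Q' : CB E n, Q' = (Q.tr v).tr b → ∀ hk' : Q'.kc ≤ k,
      Rg ((Q.tr v).T k hk) (Q'.T k hk') b p := by
    rintro _ rfl hk'
    exact h
  exact key _ (Q.tr_add v b) hk

end CB

/-! ### the aligned mesh -/

namespace MD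

set_option linter.unusedSectionVars false

variable {J : Type*} (M : MD E n J) [NeZero n] {k : J → ℕ} (hk : M.Sc k) (a : Fin n → ℝ)
  {v v' : J → E} (hv : M.Adm v) (hv' : M.Adm v') {b p : E}

theorem Bk_add (hvv : ∀ j, v' j = v j + b) (j : J) :
    (M.Bk v' j).a' = (M.Bk v j).a' + (M.Q j).ψ b := by
  show (M.Q j).a' + (M.Q j).ψ (v' j) = (M.Q j).a' + (M.Q j).ψ (v j) + (M.Q j).ψ b
  rw [hvv j, map_add, add_assoc]

theorem N_add (hvv : ∀ j, v' j = v j + b) (j : J) (y : E) :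
    y + b ∈ (M.Bk v' j).N ↔ y ∈ (M.Bk v j).N := by
  rw [CB.mem_N_tr, CB.mem_N_tr, hvv j]
  have : y + b - (v j + b) = y - v j := by abel
  rw [this]

theorem S_rg (hvv : ∀ j, v' j = v j + b) (j : J) (p : E) :
    Rg (M.S hk (v := v) j) (M.S hk (v := v') j) b p := by
  have h := (M.Q j).rg (v j) b (k j) (hk.kc j) p
  have key : ∀ w, w = v j + b → Rg (((M.Q j).tr (v j)).T (k j) (hk.kc j))
      (((M.Q j).tr w).T (k j) (hk.kc j)) b p := by
    rintro _ rfl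
    exact h
  exact key _ (hvv j)

/-- the blocks part of the aligned mesh -/
theorem rg_of_T1 (hvv : ∀ j, v' j = v j + b)
    (h1 : Rg (M.ad hk a hv).T1 (M.ad hk (a + M.φ b) hv').T1 b p) :
    Rg (M.mesh hk a hv) (M.mesh hk (a + M.φ b) hv') b p := by
  have hN : ∀ y, y + b ∈ ⋃ j, (M.ad hk (a + M.φ b) hv').N j ↔ y ∈ ⋃ j, (M.ad hk a hv).N j := by
    intro y
    rw [Set.mem_iUnion, Set.mem_iUnion]
    exact exists_congr fun j => M.N_add hvv j y
  refine Rg.patch (T := (M.ad hk a hv).T1) (T' := (M.ad hk (a + M.φ b) hv').T1)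
    (R := blk_repl _ _ (M.ad hk a hv).isUn (M.inn hk a hv).un (M.ad hk a hv).isCompact_N
      (M.inn hk a hv).sub (M.ad hk a hv).dis (M.ad hk a hv).lf)
    (R' := blk_repl _ _ (M.ad hk (a + M.φ b) hv').isUn (M.inn hk (a + M.φ b) hv').un
      (M.ad hk (a + M.φ b) hv').isCompact_N (M.inn hk (a + M.φ b) hv').sub
      (M.ad hk (a + M.φ b) hv').dis (M.ad hk (a + M.φ b) hv').lf) h1 ?_ ?_ ?_
  · intro i _ i' e
    exact P_sub_iff e hN
  · rintro ⟨j, i⟩ hi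
    obtain ⟨i', -, e⟩ := (M.S_rg hk hvv j p).1 i.1 hi
    refine ⟨⟨j, ⟨i', ?_⟩⟩, e⟩
    exact (P_sub_iff e (fun y => M.N_add hvv j y)).2 i.2
  · rintro ⟨j, i'⟩ hi
    obtain ⟨i, -, e⟩ := (M.S_rg hk hvv j p).2 i'.1 hi
    refine ⟨⟨j, ⟨i, ?_⟩⟩, e⟩
    exact (P_sub_iff e (fun y => M.N_add hvv j y)).1 i'.2

/-- **rigidity of the aligned mesh**: if the outer Whitney cubes through `p` move rigidly, so does
the whole mesh -/
theorem rigid (hvv : ∀ j, v' j = v j + b)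
    (h0 : Rg (M.ad hk a hv).T0 (M.ad hk (a + M.φ b) hv').T0 b p) :
    Rg (M.mesh hk a hv) (M.mesh hk (a + M.φ b) hv') b p := by
  refine M.rg_of_T1 hk a hv hv' hvv (Rg.cut (hA := AF_ne) (hA' := AF_ne) h0 ?_)
  intro i _ i' e
  exact AF_tr (ψ := fun j => (M.Q j).ψ) (fun j => M.Bk_add hvv j) e

/-- **rigidity where the outer scale is constant** (bulk, zones of the walls) -/
theorem rigid_const (hvv : ∀ j, v' j = v j + b) {κ : ℕ} (hp : M.φ p ∈ M.D0.Om)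
    (hp' : M.φ (p + b) ∈ M.D0.Om) (h : ∀ᶠ y in 𝓝 (M.φ p), K (outD M.D0 k M.W a) y = κ)
    (h' : ∀ᶠ y in 𝓝 (M.φ (p + b)), K (outD M.D0 k M.W (a + M.φ b)) y = κ) :
    Rg (M.mesh hk a hv) (M.mesh hk (a + M.φ b) hv') b p := by
  refine M.rigid hk a hv hv' hvv (rg_const rfl (κ := κ) ?_ ?_ h h')
  · show M.φ p ∈ (outD M.D0 k M.W a).Om
    rw [M.outD_Om_eq a]
    exact hp
  · show M.φ (p + b) ∈ (outD M.D0 k M.W (a + M.φ b)).Om
    rw [M.outD_Om_eq (a + M.φ b)]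
    exact hp'

/-- the tiles through an interior point of a block -/
theorem at_in {j : J} (hp : p ∈ interior (M.Bk v j).N)
    {t : M.OIx hk a hv ⊕ Σ j, M.IIx hk a hv j} :
    t ∈ (M.mesh hk a hv).at_ p ↔ ∃ i : M.IIx hk a hv j, t = Sum.inr ⟨j, i⟩ ∧
      p ∈ P ((M.S hk (v := v) j).H i.1) := by
  constructor
  · intro ht
    rcases t with q | ⟨l, i⟩
    · exact absurd hp (AD.outer_interior (M := M.ad hk a hv) q.2 j (x := p) ht)
    · have hl : l = j := by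
        by_contra hne
        exact Set.disjoint_left.1 ((M.ad hk a hv).dis l j hne) (i.2 ht) (interior_subset hp)
      subst hl
      exact ⟨i, rfl, ht⟩
  · rintro ⟨i, rfl, hi⟩
    exact hi

/-- **rigidity inside a block**: no condition on the outer mesh, the outer grids need not move
together -/
theorem rigid_in {k : J → ℕ} (hk : M.Sc k) (a a2 : Fin n → ℝ) (hv : M.Adm v) (hv' : M.Adm v')
    {j : J} (hj : v' j = v j + b) (hp : p ∈ interior (M.Bk v j).N) :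
    Rg (M.mesh hk a hv) (M.mesh hk a2 hv') b p := by
  have hS : Rg (M.S hk (v := v) j) (M.S hk (v := v') j) b p := by
    have h := (M.Q j).rg (v j) b (k j) (hk.kc j) p
    have key : ∀ w, w = v j + b → Rg (((M.Q j).tr (v j)).T (k j) (hk.kc j))
        (((M.Q j).tr w).T (k j) (hk.kc j)) b p := by
      rintro _ rfl
      exact h
    exact key _ hj
  have hN : ∀ y, y + b ∈ (M.Bk v' j).N ↔ y ∈ (M.Bk v j).N := by
    intro y
    rw [CB.mem_N_tr, CB.mem_N_tr, hj]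
    have : y + b - (v j + b) = y - v j := by abel
    rw [this]
  have hp' : p + b ∈ interior (M.Bk v' j).N := by
    have h : (Homeomorph.addRight b) ⁻¹' (M.Bk v' j).N = (M.Bk v j).N := by
      ext z
      exact hN z
    have h2 := (Homeomorph.addRight b).preimage_interior (M.Bk v' j).N
    rw [h] at h2
    rw [← h2] at hp
    exact hp
  constructor
  · intro t ht
    obtain ⟨i, rfl, hi⟩ := (M.at_in hk a hv hp).1 ht
    obtain ⟨i', hi', e⟩ := hS.1 i.1 hi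
    refine ⟨Sum.inr ⟨j, ⟨i', (P_sub_iff e hN).2 i.2⟩⟩, hi', e⟩
  · intro t ht
    obtain ⟨i', rfl, hi'⟩ := (M.at_in hk a2 hv' hp').1 ht
    obtain ⟨i, hi, e⟩ := hS.2 i'.1 hi'
    exact ⟨Sum.inr ⟨j, ⟨i, (P_sub_iff e hN).1 i'.2⟩⟩, hi, e⟩

end MD

end Crest.Agent.R096.Mal_874
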