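import Crest.Agent.R096.Pin1_753
import Crest.Agent.R096.Mal18_874

/-!
# Row 96 (S0127), p ≤ 2 (helper565), leaf [TTR] of 753 #11141: translations of a core block

For `Q : CB E n` and a vector `b`: the tiling, the core, the block, its wall, the edges and the layer of
`Q.tr b` are the `b`-translates of those of `Q`; the data `InP` of a block pass to a slightly shifted
block (`InP.shift`), with the smaller box of translations of `Ea0_961`.
-/

set_option autoImplicit false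
set_option linter.unusedSectionVars false
set_option linter.style.longLine false

open MeasureTheory Set Filter Topology Metric
open scoped ENNReal NNReal Pointwise

namespace Crest.Agent.R096.Ttr_565

open Crest.AnalysisR.VecCalc3 Crest.AnalysisR.Sobolev
open Crest.Agent.R096.Msh_715 Crest.Agent.R096.Mal_874

/-! ### any space -/

section Gen

variable {n : ℕ} {E : Type*} [NormedAddCommGroup E] [NormedSpace ℝ E] (Q : CB E n) (b : E)
  (k : ℕ) (hk : Q.kc ≤ k)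

theorem dim_tr (x : E) : ((Q.tr b).T k hk).dim (x + b) = (Q.T k hk).dim x := (Q.rg_tr b k hk x).dim

theorem dim_tr' (x : E) : ((Q.tr b).T k hk).dim x = (Q.T k hk).dim (x - b) := by
  have := dim_tr Q b k hk (x - b)
  rwa [sub_add_cancel] at this

theorem mem_cc_tr {x y : E} :
    y + b ∈ ((Q.tr b).T k hk).cc (x + b) ↔ y ∈ (Q.T k hk).cc x := (Q.rg_tr b k hk x).cc

theorem mem_cc_tr' {x y : E} :
    y ∈ ((Q.tr b).T k hk).cc x ↔ y - b ∈ (Q.T k hk).cc (x - b) := by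
  have := mem_cc_tr Q b k hk (x := x - b) (y := y - b)
  rwa [sub_add_cancel, sub_add_cancel] at this

theorem cc_tr (x : E) :
    ((Q.tr b).T k hk).cc (x + b) = (fun y => y + b) '' (Q.T k hk).cc x := by
  ext y
  constructor
  · intro hy
    refine ⟨y - b, ?_, sub_add_cancel _ _⟩
    rw [← mem_cc_tr Q b k hk, sub_add_cancel]
    exact hy
  · rintro ⟨z, hz, rfl⟩
    exact (mem_cc_tr Q b k hk).2 hz

theorem cc_tr' (x : E) :
    ((Q.tr b).T k hk).cc x = (fun y => y + b) '' (Q.T k hk).cc (x - b) := by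
  have := cc_tr Q b k hk (x - b)
  rwa [sub_add_cancel] at this

theorem N_tr_image : (Q.tr b).N = (fun y => y + b) '' Q.N := by
  ext y
  rw [Q.mem_N_tr b]
  exact ⟨fun h => ⟨_, h, sub_add_cancel _ _⟩, by rintro ⟨z, hz, rfl⟩; rwa [add_sub_cancel_right]⟩

theorem Kc_tr_image : (Q.tr b).Kc = (fun y => y + b) '' Q.Kc := by
  ext y
  rw [Q.mem_Kc_tr b]
  exact ⟨fun h => ⟨_, h, sub_add_cancel _ _⟩, by rintro ⟨z, hz, rfl⟩; rwa [add_sub_cancel_right]⟩

theorem frontier_tr_image : frontier (Q.tr b).N = (fun y => y + b) '' frontier Q.N := by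
  ext y
  rw [Q.frontier_N_tr b]
  exact ⟨fun h => ⟨_, h, sub_add_cancel _ _⟩, by rintro ⟨z, hz, rfl⟩; rwa [add_sub_cancel_right]⟩

/-- segments -/
theorem seg_tr {S : Set E} (x y : E) :
    (fun z => z + b) '' S = segment ℝ x y ↔ S = segment ℝ (x - b) (y - b) := by
  have e : (fun z => z + b) '' segment ℝ (x - b) (y - b) = segment ℝ x y := by
    have := segment_translate_image ℝ b (x - b) (y - b)
    rw [add_sub_cancel, add_sub_cancel] at this
    rw [← this]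
    exact image_congr fun z _ => add_comm _ _
  constructor
  · intro h
    rw [← e] at h
    exact (add_left_injective b).image_injective h
  · rintro rfl
    exact e

theorem seg_sub_tr {S S' : Set E} (hS : S' = (fun z => z + b) '' S) (x y : E) :
    segment ℝ x y ⊆ S' ↔ segment ℝ (x - b) (y - b) ⊆ S := by
  have e : (fun z => z + b) '' segment ℝ (x - b) (y - b) = segment ℝ x y := (seg_tr b x y).2 rfl
  rw [hS, ← e]
  exact image_subset_image_iff (add_left_injective b)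

end Gen

/-! ### the sets of `Pin_753` -/

section Pin

open Crest.Agent.R096.Pin_753

variable (Q : CB R3 3) (b : R3) (k0 : ℕ) (hk : Q.kc ≤ k0)

theorem Tw_tr : Tw (Q.tr b) k0 = Tw Q k0 := rfl

theorem mem_Ed_tr {e : R3 × R3} :
    e ∈ Ed (Q.tr b) k0 hk ↔ (e.1 - b, e.2 - b) ∈ Ed Q k0 hk := by
  constructor
  · rintro ⟨x, h1, h2, h3⟩
    refine ⟨x - b, ?_, ?_, ?_⟩
    · rw [← dim_tr' Q b k0 hk]; exact h1
    · rw [cc_tr' Q b k0 hk] at h2
      exact (seg_tr b _ _).1 h2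
    · exact (seg_sub_tr b (N_tr_image Q b) _ _).1 h3
  · rintro ⟨x, h1, h2, h3⟩
    refine ⟨x + b, ?_, ?_, ?_⟩
    · rw [dim_tr Q b k0 hk]; exact h1
    · rw [cc_tr Q b k0 hk]
      exact (seg_tr b _ _).2 h2
    · exact (seg_sub_tr b (N_tr_image Q b) _ _).2 h3

/-- the edges of the translated block -/
def EdEquiv : Ed Q k0 hk ≃ Ed (Q.tr b) k0 hk where
  toFun e := ⟨(e.1.1 + b, e.1.2 + b), by
    rw [mem_Ed_tr]
    simp⟩
  invFun e := ⟨(e.1.1 - b, e.1.2 - b), (mem_Ed_tr Q b k0 hk).1 e.2⟩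
  left_inv e := by
    refine Subtype.ext (Prod.ext ?_ ?_)
    · exact add_sub_cancel_right _ _
    · exact add_sub_cancel_right _ _
  right_inv e := by
    refine Subtype.ext (Prod.ext ?_ ?_)
    · exact sub_add_cancel _ _
    · exact sub_add_cancel _ _

theorem mem_Ly_tr {y : R3} : y ∈ Ly (Q.tr b) k0 ↔ y - b ∈ Ly Q k0 := by
  constructor
  · rintro ⟨z, hz, h⟩
    refine ⟨z - b, (Q.frontier_N_tr b).1 hz, ?_⟩
    have : Q.ψ (y - b) - Q.ψ (z - b) = Q.ψ y - Q.ψ z := by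
      rw [map_sub, map_sub]; abel
    rw [this]; exact h
  · rintro ⟨z, hz, h⟩
    refine ⟨z + b, (Q.frontier_N_tr b).2 (by rwa [add_sub_cancel_right]), ?_⟩
    have : Q.ψ (y - b) - Q.ψ z = Q.ψ y - Q.ψ (z + b) := by
      rw [map_sub, map_add]; abel
    rw [this] at h
    exact h

theorem Ly_tr : Ly (Q.tr b) k0 = (fun y => y + b) '' Ly Q k0 := by
  ext y
  rw [mem_Ly_tr]
  exact ⟨fun h => ⟨_, h, sub_add_cancel _ _⟩, by rintro ⟨z, hz, rfl⟩; rwa [add_sub_cancel_right]⟩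

theorem volume_shell_tr : volume ((Q.tr b).N \ (Q.tr b).Kc) = volume (Q.N \ Q.Kc) := by
  have e : (Q.tr b).N \ (Q.tr b).Kc = (fun y => y + (-b)) ⁻¹' (Q.N \ Q.Kc) := by
    ext y
    rw [Set.mem_sdiff, Q.mem_N_tr b, Q.mem_Kc_tr b, mem_preimage, Set.mem_sdiff, sub_eq_add_neg]
  rw [e, measure_preimage_add_right]

theorem lint_Ly_tr (g : R3 → ℝ≥0∞) :
    ∫⁻ x in Ly (Q.tr b) k0, g x = ∫⁻ x in Ly Q k0, g (x + b) := by
  have e : (fun y => y + b) ⁻¹' Ly (Q.tr b) k0 = Ly Q k0 := by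
    ext y
    rw [mem_preimage, mem_Ly_tr, add_sub_cancel_right]
  rw [← e]
  exact ((measurePreserving_add_right volume b).setLIntegral_comp_preimage_emb
    (MeasurableEquiv.addRight b).measurableEmbedding g _).symm

/-! ### the shift of the data -/

/-- the box of translations of `Ea0_961.Tw`, in `R3` -/
def T4 (Q : CB R3 3) (k0 : ℕ) : Set R3 := {w | ∀ l, 0 ≤ Q.ψ w l ∧ Q.ψ w l ≤ 1 / (10 * 2 ^ k0)}

/-- `InP` with the smaller tubes and the smaller box of translations -/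
structure InP4 (p : ℝ) (f : R3 → R3) (D : R3 → R3 →L[ℝ] R3) (C1 κw s : ℝ) (b : R3) (L : R3 →L[ℝ] R3)
    (z : R3) (er : ℝ≥0∞) (Q : CB R3 3) (k0 : ℕ) (hk : Q.kc ≤ k0) : Prop where
  gam : ∀ x ∈ Q.Kc, (Q.T k0 hk).dim x = 1 → ∀ y ∈ (Q.T k0 hk).cc x, ∀ w : R3,
    ‖Q.ψ w‖ ≤ 1 / (10 * 2 ^ k0) → ‖f (y + w) - Bk b L z (y + w)‖ ≤ κw * s
  tra : ∃ G : Set R3, volume (T4 Q k0 \ G) ≤ ENNReal.ofReal (1 / 4) * volume (T4 Q k0) ∧
    ∀ w ∈ G, w ∈ T4 Q k0 →
      (∀ e ∈ Ed Q k0 hk, segment ℝ e.1 e.2 ⊆ Q.Kc →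
        ∫⁻ τ in Icc (0:ℝ) 1, ‖D (e.1 + w + τ • (e.2 - e.1)) (e.2 - e.1) - L (e.2 - e.1)‖ₑ ≤
          ENNReal.ofReal (κw * ‖e.2 - e.1‖)) ∧
      ENNReal.ofReal (‖L‖ ^ p / |L.det|) *
        (∑' e : Ed Q k0 hk, ENNReal.ofReal (‖L (e.1.2 - e.1.1)‖ ^ (3 - p)) *
          (∫⁻ τ in Icc (0:ℝ) 1, ‖D (e.1.1 + w + τ • (e.1.2 - e.1.1)) (e.1.2 - e.1.1)‖ₑ ^ p)) ≤
        ENNReal.ofReal (C1 * ‖L‖ ^ p) * volume (Q.N \ Q.Kc) + er

theorem volume_Tw_eq : volume (Tw Q k0) = 64 * volume (T4 Q k0) := by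
  have hpos : (0 : ℝ) < 2 ^ k0 := by positivity
  set r : ℝ := 1 / (5 * 2 ^ k0) with hr
  have hr0 : 0 < r := by positivity
  set c : R3 := Q.ψ.symm fun _ => r / 4 with hc
  have hψc : ∀ l, Q.ψ c l = r / 4 := fun l => by rw [hc, Q.ψ.apply_symm_apply]
  have e : T4 Q k0 = (fun y => y + (-c)) ⁻¹' ((1 / 4 : ℝ) • Tw Q k0) := by
    ext w
    rw [mem_preimage, mem_smul_set_iff_inv_smul_mem₀ (by norm_num)]
    show (∀ l, 0 ≤ Q.ψ w l ∧ Q.ψ w l ≤ 1 / (10 * 2 ^ k0)) ↔ ‖Q.ψ ((1 / 4 : ℝ)⁻¹ • (w + -c))‖ ≤ r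
    rw [pi_norm_le_iff_of_nonneg hr0.le]
    have h2 : (1 : ℝ) / (10 * 2 ^ k0) = r / 2 := by rw [hr]; field_simp; norm_num
    refine forall_congr' fun l => ?_
    have h1 : Q.ψ ((1 / 4 : ℝ)⁻¹ • (w + -c)) l = 4 * (Q.ψ w l - r / 4) := by
      rw [map_smul, map_add, map_neg]
      simp only [Pi.smul_apply, Pi.add_apply, Pi.neg_apply, smul_eq_mul, hψc]
      norm_num
      ring
    rw [h1, h2, Real.norm_eq_abs, abs_le]
    constructor
    · rintro ⟨h3, h4⟩; constructor <;> linarith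
    · rintro ⟨h3, h4⟩; constructor <;> linarith
  rw [e, measure_preimage_add_right, Measure.addHaar_smul, finrank_euclideanSpace_fin, ← mul_assoc]
  have : (64 : ℝ≥0∞) * ENNReal.ofReal |(1 / 4 : ℝ) ^ 3| = 1 := by
    rw [show (64 : ℝ≥0∞) = ENNReal.ofReal 64 by simp, ← ENNReal.ofReal_mul (by norm_num)]
    norm_num
  rw [this, one_mul]

/-- **`InP` passes to a slightly shifted block** -/
theorem InP.shift {p : ℝ} {f : R3 → R3} {D : R3 → R3 →L[ℝ] R3} {C1 κw s : ℝ} {b0 : R3}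
    {L : R3 →L[ℝ] R3} {z : R3} {er : ℝ≥0∞} {Q : CB R3 3} {k0 : ℕ} {hk : Q.kc ≤ k0}
    (h : InP p f D C1 κw s b0 L z er Q k0 hk) {d : R3} (hd : ‖Q.ψ d‖ ≤ 1 / (20 * 2 ^ k0)) :
    InP4 p f D C1 κw s b0 L z er (Q.tr d) k0 hk := by
  have hpos : (0 : ℝ) < 2 ^ k0 := by positivity
  have hnum : (1 : ℝ) / (10 * 2 ^ k0) + 1 / (20 * 2 ^ k0) ≤ 1 / (5 * 2 ^ k0) := by
    have e1 : (1 : ℝ) / (10 * 2 ^ k0) = 1 / 10 * (1 / 2 ^ k0) := by field_simp
    have e2 : (1 : ℝ) / (20 * 2 ^ k0) = 1 / 20 * (1 / 2 ^ k0) := by field_simp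
    have e3 : (1 : ℝ) / (5 * 2 ^ k0) = 1 / 5 * (1 / 2 ^ k0) := by field_simp
    have e4 : (0 : ℝ) < 1 / 2 ^ k0 := by positivity
    rw [e1, e2, e3]; linarith
  have hTw : ∀ w : R3, ‖Q.ψ w‖ ≤ 1 / (10 * 2 ^ k0) → w + d ∈ Tw Q k0 := by
    intro w hw
    show ‖Q.ψ (w + d)‖ ≤ _
    rw [map_add]
    exact (norm_add_le _ _).trans ((add_le_add hw hd).trans hnum)
  have hT4 : ∀ w ∈ T4 Q k0, ‖Q.ψ w‖ ≤ 1 / (10 * 2 ^ k0) := by
    intro w hw
    rw [pi_norm_le_iff_of_nonneg (by positivity)]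
    intro l
    rw [Real.norm_eq_abs, abs_le]
    have := hw l
    constructor <;> linarith [this.1, this.2]
  obtain ⟨G, hG, hG'⟩ := h.tra
  refine ⟨?_, {w | w + d ∈ G}, ?_, ?_⟩
  · intro x hx hdim y hy w hw
    rw [Q.mem_Kc_tr d] at hx
    rw [dim_tr' Q d k0 hk] at hdim
    rw [mem_cc_tr' Q d k0 hk] at hy
    have := h.gam (x - d) hx hdim (y - d) hy (w + d) (hTw w hw)
    have e : y - d + (w + d) = y + w := by abel
    rwa [e] at this
  · have e1 : T4 (Q.tr d) k0 \ {w | w + d ∈ G} = (fun w => w + d) ⁻¹' ((fun w => w + d) '' T4 Q k0 \ G) := by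
      ext w
      constructor
      · rintro ⟨h1, h2⟩
        exact ⟨⟨w, h1, rfl⟩, h2⟩
      · rintro ⟨⟨w', h1, h1'⟩, h2⟩
        exact ⟨(add_left_injective d h1') ▸ h1, h2⟩
    have e2 : (fun w => w + d) '' T4 Q k0 \ G ⊆ Tw Q k0 \ G := by
      rintro _ ⟨⟨w, hw, rfl⟩, hn⟩
      exact ⟨hTw w (hT4 w hw), hn⟩
    rw [e1, measure_preimage_add_right]
    calc volume ((fun w => w + d) '' T4 Q k0 \ G) ≤ volume (Tw Q k0 \ G) := measure_mono e2
      _ ≤ ENNReal.ofReal (1 / 256) * volume (Tw Q k0) := hG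
      _ = ENNReal.ofReal (1 / 256) * (64 * volume (T4 Q k0)) := by rw [volume_Tw_eq]
      _ = ENNReal.ofReal (1 / 4) * volume (T4 (Q.tr d) k0) := by
        have h64 : (64 : ℝ≥0∞) = ENNReal.ofReal 64 := by simp
        rw [h64, ← mul_assoc, ← ENNReal.ofReal_mul (by norm_num)]
        norm_num
        rfl
  · intro w hw hw4
    obtain ⟨g1, g2⟩ := hG' (w + d) hw (hTw w (hT4 w hw4))
    refine ⟨?_, ?_⟩
    · intro e he hek
      have h1 := (mem_Ed_tr Q d k0 hk).1 he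
      have h2 := (seg_sub_tr d (Kc_tr_image Q d) e.1 e.2).1 hek
      have h3 := g1 _ h1 h2
      simp only [sub_sub_sub_cancel_right] at h3
      refine le_trans (le_of_eq ?_) h3
      refine lintegral_congr fun τ => ?_
      have e1 : e.1 - d + (w + d) = e.1 + w := by abel
      rw [e1]
    · rw [volume_shell_tr]
      refine le_trans (le_of_eq ?_) g2
      congr 1
      rw [← (EdEquiv Q d k0 hk).tsum_eq]
      refine tsum_congr fun e => ?_
      show ENNReal.ofReal (‖L (e.1.2 + d - (e.1.1 + d))‖ ^ (3 - p)) *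
          (∫⁻ τ in Icc (0:ℝ) 1, ‖D (e.1.1 + d + w + τ • (e.1.2 + d - (e.1.1 + d)))
            (e.1.2 + d - (e.1.1 + d))‖ₑ ^ p) = _
      simp only [add_sub_add_right_eq_sub]
      have e1 : e.1.1 + d + w = e.1.1 + (w + d) := by abel
      rw [e1]

end Pin

end Crest.Agent.R096.Ttr_565
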