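import Crest.Agent.R096.Ca15_855
import Crest.Agent.R096.Msb7_432
import Crest.Agent.R096.Ttr1_565

/-!
# Row 96 (S0127), p ≤ 2: composite A (helper855), part 16: the edges of the blocks in the mesh `h.T a`
-/

set_option autoImplicit false
set_option linter.unusedSectionVars false

open Set Metric MeasureTheory Filter
open scoped ENNReal Topology

namespace Crest.Agent.R096.Ca_855

open Crest.AnalysisR.VecCalc3 Crest.AnalysisR.Sobolev
open Crest.Agent.R096.Msh_715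
open Crest.Agent.R096.Mal_874 (MD CB RD RP reOm Rt Cn outD Rg tile_k_eq)
open Crest.Agent.R096.Msb_432 (meshS rigidS_const Scl CIx)
open Crest.Agent.R096.Pin_753 (BlkP Ed)
open Crest.Agent.R096.Ttr_565 (mem_Ed_tr)

theorem reOm_cc {E : Type} [NormedAddCommGroup E] [NormedSpace ℝ E]
    {Om Om' : Set E} (h : Om = Om') {ι : Type} (T : Tiling Om ι) (x : E) :
    (reOm T h).cc x = T.cc x ∧ (reOm T h).oc x = T.oc x ∧ (reOm T h).V x = T.V x := by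
  subst h
  exact ⟨rfl, rfl, rfl⟩

theorem reOm_dim {E : Type} [NormedAddCommGroup E] [NormedSpace ℝ E] [FiniteDimensional ℝ E]
    {Om Om' : Set E} (h : Om = Om') {ι : Type} (T : Tiling Om ι) (x : E) :
    (reOm T h).dim x = T.dim x := by
  subst h
  rfl

namespace MIn

variable {Om W : Set R3} {ρ₀ : R3 → ℝ} {J : Type} {Qb : J → CB R3 3} {k0 : ℕ} {σ : ℝ}
  [Finite J]

theorem T_cc (h : MIn Om W ρ₀ Qb k0 σ) (a x : R3) : (h.T a).cc x = (h.Ts a).cc x :=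
  (reOm_cc h.dom (h.Ts a) x).1

theorem T_oc (h : MIn Om W ρ₀ Qb k0 σ) (a x : R3) : (h.T a).oc x = (h.Ts a).oc x :=
  (reOm_cc h.dom (h.Ts a) x).2.1

theorem T_V (h : MIn Om W ρ₀ Qb k0 σ) (a x : R3) : (h.T a).V x = (h.Ts a).V x :=
  (reOm_cc h.dom (h.Ts a) x).2.2

theorem T_dim (h : MIn Om W ρ₀ Qb k0 σ) (a x : R3) : (h.T a).dim x = (h.Ts a).dim x :=
  reOm_dim h.dom (h.Ts a) x

theorem mem_dom (h : MIn Om W ρ₀ Qb k0 σ) {y : R3} : y ∈ h.M.φ ⁻¹' h.M.D0.Om ↔ y ∈ Om := by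
  rw [h.dom]

/-- **(ED) for `h.T a`**: an element of `Ed` of the block at the position `a` is a chain of edges -/
theorem ed_chain (h : MIn Om W ρ₀ Qb k0 σ) {a : R3} (ha : ‖a‖ ≤ σ / 8) (j : J) {e : R3 × R3}
    (he : e ∈ Ed ((Qb j).tr a) k0 (h.hk j)) :
    ∃ (m : ℕ) (t : ℕ → ℝ), 0 < m ∧ t 0 = 0 ∧ t m = 1 ∧ (∀ i < m, t i < t (i + 1)) ∧
      (∀ i, i ≤ m → 0 ≤ t i ∧ t i ≤ 1 ∧ (h.T a).dim (e.1 + t i • (e.2 - e.1)) = 0) ∧
      (∀ i < m, ∃ y ∈ Om, (h.T a).dim y = 1 ∧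
        (h.T a).cc y = segment ℝ (e.1 + t i • (e.2 - e.1)) (e.1 + t (i + 1) • (e.2 - e.1))) ∧
      ∀ y ∈ segment ℝ e.1 e.2, (h.T a).dim y = 1 →
        ∃ i < m, (h.T a).cc y =
          segment ℝ (e.1 + t i • (e.2 - e.1)) (e.1 + t (i + 1) • (e.2 - e.1)) := by
  rw [mem_Ed_tr] at he
  obtain ⟨x, hx1, hx2, hx3⟩ := he
  obtain ⟨m, t, h1, h2, h3, h4, h5, h6, h7⟩ :=
    Crest.Agent.R096.Msb_432.ed_chain h.M h.sc (0 + h.M.φ (h.cl a)) (h.adm a) (j := j) hx1 hx2 hx3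
  have e0 := h.cl_eq ha
  have e1 : e.1 - a + h.cl a = e.1 := by rw [e0, sub_add_cancel]
  have e2 : e.2 - a - (e.1 - a) = e.2 - e.1 := by abel
  simp only [e1, e2] at h5 h6 h7
  refine ⟨m, t, h1, h2, h3, h4, fun i hi => ?_, fun i hi => ?_, fun y hy hy1 => ?_⟩
  · obtain ⟨h8, h9, h10⟩ := h5 i hi
    exact ⟨h8, h9, (h.T_dim a _).trans h10⟩
  · obtain ⟨y, h8, h9, h10⟩ := h6 i hi
    exact ⟨y, h.mem_dom.1 h8, (h.T_dim a _).trans h9, (h.T_cc a _).trans h10⟩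
  · have h8 : y - a ∈ ((h.M.Q j).T k0 (h.hk j)).cc x := by
      have h9 : y - a ∈ segment ℝ (e.1 - a) (e.2 - a) := by
        rw [segment_eq_image'] at hy ⊢
        obtain ⟨τ, hτ, rfl⟩ := hy
        refine ⟨τ, hτ, ?_⟩
        simp only
        rw [sub_sub_sub_cancel_right]
        abel
      rw [← hx2] at h9
      exact h9
    have h9 : y - a + h.cl a = y := by rw [e0, sub_add_cancel]
    obtain ⟨i, hi, h10⟩ := h7 (y - a) h8 (by rw [h9]; exact (h.T_dim a y).symm.trans hy1)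
    rw [h9] at h10
    exact ⟨i, hi, (h.T_cc a _).trans h10⟩

/-- **multiplicity**: a point of dimension one lies in at most one element of `Ed` up to
orientation -/
theorem ed_unique (h : MIn Om W ρ₀ Qb k0 σ) {a : R3} (ha : ‖a‖ ≤ σ / 8) (j : J) {e e' : R3 × R3}
    (he : e ∈ Ed ((Qb j).tr a) k0 (h.hk j)) (he' : e' ∈ Ed ((Qb j).tr a) k0 (h.hk j)) {y : R3}
    (hy1 : (h.T a).dim y = 1) (hy : y ∈ segment ℝ e.1 e.2) (hy' : y ∈ segment ℝ e'.1 e'.2) :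
    e' = e ∨ e' = (e.2, e.1) := by
  rw [mem_Ed_tr] at he he'
  obtain ⟨x, hx1, hx2, hx3⟩ := he
  obtain ⟨x', hx1', hx2', hx3'⟩ := he'
  have e0 := h.cl_eq ha
  have h9 : y - a + h.cl a = y := by rw [e0, sub_add_cancel]
  have hs : ∀ e : R3 × R3, y ∈ segment ℝ e.1 e.2 → y - a ∈ segment ℝ (e.1 - a) (e.2 - a) := by
    intro e hy
    rw [segment_eq_image'] at hy ⊢
    obtain ⟨τ, hτ, rfl⟩ := hy
    refine ⟨τ, hτ, ?_⟩
    simp only
    rw [sub_sub_sub_cancel_right]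
    abel
  rcases Crest.Agent.R096.Msb_432.ed_unique' h.M h.sc (0 + h.M.φ (h.cl a)) (h.adm a) (j := j)
    (y := y - a) hx1 hx1' hx2 hx2' hx3 (by
      show (h.Ts a).dim (y - a + h.cl a) = 1
      rw [h9]; exact (h.T_dim a y).symm.trans hy1) (hs e hy) (hs e' hy') with ⟨h1, h2⟩ | ⟨h1, h2⟩
  · left
    exact Prod.ext (sub_left_inj.1 h1).symm (sub_left_inj.1 h2).symm
  · right
    exact Prod.ext (sub_left_inj.1 h2).symm (sub_left_inj.1 h1).symm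

end MIn

end Crest.Agent.R096.Ca_855
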