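import Crest.Agent.R096.Msh1_715

/-!
# Row 96, library (U5) MESH, layer (M1), part 2: local finiteness of the cells, vertices,
# edges, cells of codimension one.
-/

set_option autoImplicit false

open Set Filter Topology Metric

namespace Crest.Agent.R096.Msh_715

variable {E : Type*} [NormedAddCommGroup E] [NormedSpace ℝ E]

namespace Tiling

variable {Om : Set E} {ι : Type*} (T : Tiling Om ι)

/-- finitely many tiles meet a compact subset of `Om` -/
theorem finite_tiles {K : Set E} (hK : IsCompact K) (hKO : K ⊆ Om) :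
    {i | (P (T.H i) ∩ K).Nonempty}.Finite := by
  choose! r hr hf using T.lf
  obtain ⟨t, ht, hc⟩ := hK.elim_nhds_subcover (fun x => ball x (r x))
    (fun x hx => ball_mem_nhds x (hr x (hKO hx)))
  refine (t.finite_toSet.biUnion (fun x hx => hf x (hKO (ht x hx)))).subset ?_
  rintro i ⟨y, hy1, hy2⟩
  have := hc hy2
  simp only [Set.mem_iUnion] at this
  obtain ⟨x, hx, hxy⟩ := this
  simp only [Set.mem_iUnion]
  exact ⟨x, hx, y, hy1, hxy⟩

/-- the combinatorial code of the cell of a point -/
def code (x : E) : Set (ι × ((E →L[ℝ] ℝ) × ℝ)) × Set ι :=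
  ({p | p.1 ∈ T.at_ x ∧ p.2 ∈ T.H p.1 ∧ p.2.1 x = p.2.2}, T.at_ x)

/-- the cell of a code -/
def cellOf (c : Set (ι × ((E →L[ℝ] ℝ) × ℝ)) × Set ι) : Set E :=
  {y | ∀ i ∈ c.2, ∀ h ∈ T.H i, h.1 y ≤ h.2 ∧ ((i, h) ∈ c.1 → h.1 y = h.2)}

theorem cellOf_code (x : E) : T.cellOf (T.code x) = T.cc x := by
  ext y
  simp only [cellOf, code, cc, Set.mem_ofPred_eq]
  constructor
  · intro hy i hi h hh
    exact ⟨(hy i hi h hh).1, fun e => (hy i hi h hh).2 ⟨hi, hh, e⟩⟩
  · intro hy i hi h hh
    exact ⟨(hy i hi h hh).1, fun e => (hy i hi h hh).2 e.2.2⟩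

/-- finitely many closed cells meet a compact subset of `Om` -/
theorem finite_cells {K : Set E} (hK : IsCompact K) (hKO : K ⊆ Om) :
    {c : Set E | (∃ x ∈ Om, c = T.cc x) ∧ (c ∩ K).Nonempty}.Finite := by
  have hN := T.finite_tiles hK hKO
  set N := {i | (P (T.H i) ∩ K).Nonempty} with hNdef
  have hS : (⋃ i ∈ N, (fun h => ((i, h) : ι × ((E →L[ℝ] ℝ) × ℝ))) '' (T.H i : Set _)).Finite :=
    hN.biUnion fun i _ => (T.H i).finite_toSet.image _
  set S := ⋃ i ∈ N, (fun h => ((i, h) : ι × ((E →L[ℝ] ℝ) × ℝ))) '' (T.H i : Set _) with hSdef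
  have hcodes : ((𝒫 S) ×ˢ (𝒫 N)).Finite := (hS.finite_subsets).prod (hN.finite_subsets)
  refine (hcodes.image T.cellOf).subset ?_
  rintro c ⟨⟨x, hx, rfl⟩, y, hy1, hy2⟩
  have hat : T.at_ x ⊆ N := fun i hi => ⟨y, T.at_sub_of_mem_cc hy1 hi, hy2⟩
  refine ⟨T.code x, ⟨?_, hat⟩, T.cellOf_code x⟩
  rintro ⟨i, h⟩ ⟨h1, h2, -⟩
  simp only [hSdef, Set.mem_iUnion]
  exact ⟨i, hat h1, h, h2, rfl⟩

/-- the cells are locally finite -/
theorem lf_cells [ProperSpace E] {x : E} (hx : x ∈ Om) :
    ∃ r > 0, {c : Set E | (∃ z ∈ Om, c = T.cc z) ∧ (c ∩ ball x r).Nonempty}.Finite := by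
  obtain ⟨r, hr, hO, -⟩ := T.exists_ball hx
  refine ⟨r / 2, by positivity, ?_⟩
  have hsub : closedBall x (r / 2) ⊆ Om :=
    (closedBall_subset_ball (by linarith)).trans hO
  refine (T.finite_cells (isCompact_closedBall x (r / 2)) hsub).subset ?_
  rintro c ⟨h1, y, hy1, hy2⟩
  exact ⟨h1, y, hy1, ball_subset_closedBall hy2⟩

/-- finitely many cells in a given closed cell -/
theorem finite_below {x : E} (hx : x ∈ Om) : {c : Set E | (∃ z ∈ Om, c = T.cc z) ∧ c ⊆ T.cc x}.Finite := by
  refine (T.finite_cells (T.isCompact_cc hx) (T.cc_sub_Om hx)).subset ?_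
  rintro c ⟨⟨z, hz, rfl⟩, hc⟩
  exact ⟨⟨z, hz, rfl⟩, z, T.self_mem_cc z, hc (T.self_mem_cc z)⟩

/-! ### vertices -/

theorem cc_eq_singleton {x : E} (h : T.V x = ⊥) : T.cc x = {x} := by
  ext y
  rw [Set.mem_singleton_iff]
  constructor
  · intro hy
    have := T.sub_mem_V hy
    rw [h, Submodule.mem_bot, sub_eq_zero] at this
    exact this
  · rintro rfl
    exact T.self_mem_cc y

theorem oc_eq_singleton {x : E} (h : T.V x = ⊥) : T.oc x = {x} := by
  refine Set.Subset.antisymm ?_ (Set.singleton_subset_iff.2 (T.self_mem_oc x))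
  rw [← T.cc_eq_singleton h]
  exact T.oc_sub_cc x

theorem dim_eq_zero_iff [FiniteDimensional ℝ E] {x : E} : T.dim x = 0 ↔ T.V x = ⊥ :=
  Submodule.finrank_eq_zero

/-- from a point of an open cell one reaches the relative boundary in every direction -/
theorem exists_exit {x v : E} (hx : x ∈ Om) (hv : v ∈ T.V x) (hv0 : v ≠ 0) :
    ∃ t : ℝ, 0 < t ∧ x + t • v ∈ T.cc x ∧ x + t • v ∉ T.oc x ∧
      ∀ s : ℝ, 0 ≤ s → s < t → x + s • v ∈ T.oc x := by
  obtain ⟨r, hr, hb⟩ := T.exists_ball_oc hx
  have hvn : 0 < ‖v‖ := norm_pos_iff.2 hv0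
  let A : Set ℝ := {t | 0 ≤ t ∧ x + t • v ∈ T.cc x}
  have hcont : Continuous fun t : ℝ => x + t • v := by fun_prop
  have hAc : IsClosed A := by
    have : A = Set.Ici 0 ∩ (fun t : ℝ => x + t • v) ⁻¹' (T.cc x) := rfl
    rw [this]
    exact isClosed_Ici.inter ((T.isClosed_cc x).preimage hcont)
  obtain ⟨B, hB⟩ := (T.isCompact_cc hx).isBounded.exists_norm_le
  have hAb : BddAbove A := by
    refine ⟨(B + ‖x‖) / ‖v‖, ?_⟩
    rintro t ⟨ht0, ht⟩
    rw [le_div_iff₀ hvn]
    have h1 := hB _ ht
    have h2 : ‖t • v‖ ≤ ‖x + t • v‖ + ‖x‖ := by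
      have : t • v = (x + t • v) - x := by abel
      rw [this]
      calc ‖x + t • v - x‖ ≤ ‖x + t • v‖ + ‖x‖ := norm_sub_le _ _
        _ ≤ _ := by
          have : x + (x + t • v - x) = x + t • v := by abel
          rw [this]
    rw [norm_smul, Real.norm_eq_abs, abs_of_nonneg ht0] at h2
    linarith
  have hA0 : (0 : ℝ) ∈ A := ⟨le_refl _, by rw [zero_smul, add_zero]; exact T.self_mem_cc x⟩
  have hmax : sSup A ∈ A := hAc.csSup_mem ⟨0, hA0⟩ hAb
  set t := sSup A with ht
  have hsmall : r / (2 * ‖v‖) ∈ A := by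
    refine ⟨by positivity, ?_⟩
    apply T.oc_sub_cc
    apply hb _ ((T.V x).smul_mem _ hv)
    rw [norm_smul, Real.norm_eq_abs, abs_of_pos (by positivity)]
    field_simp
    linarith
  have htpos : 0 < t := lt_of_lt_of_le (by positivity) (le_csSup hAb hsmall)
  refine ⟨t, htpos, hmax.2, ?_, ?_⟩
  · intro hoc
    have hO : x + t • v ∈ Om := T.cc_sub_Om hx hmax.2
    obtain ⟨r', hr', hb'⟩ := T.exists_ball_oc hO
    have hV := T.V_eq_of_mem_oc hx hoc
    have h3 : x + t • v + (r' / (2 * ‖v‖)) • v ∈ T.oc (x + t • v) := by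
      apply hb' _ (by rw [hV]; exact (T.V x).smul_mem _ hv)
      rw [norm_smul, Real.norm_eq_abs, abs_of_pos (by positivity)]
      field_simp
      linarith
    rw [T.oc_eq_of_mem hx hoc] at h3
    have h4 : t + r' / (2 * ‖v‖) ∈ A := by
      refine ⟨by positivity, ?_⟩
      rw [add_smul, ← add_assoc]
      exact T.oc_sub_cc x h3
    have h5 := le_csSup hAb h4
    have : 0 < r' / (2 * ‖v‖) := by positivity
    linarith
  · intro s hs0 hst
    have h6 := T.move_mem_oc hmax.2 (s := 1 - s / t) (by
      have : s / t < 1 := by rw [div_lt_one htpos]; exact hst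
      linarith) (by
      have : 0 ≤ s / t := by positivity
      linarith)
    have e : x + t • v + (1 - s / t) • (x - (x + t • v)) = x + s • v := by
      have : x - (x + t • v) = -(t • v) := by abel
      rw [this, smul_neg, smul_smul, ← sub_eq_add_neg, add_sub_assoc, ← sub_smul]
      congr 2
      field_simp
      ring
    rw [e] at h6
    exact h6

/-- every closed cell contains a vertex -/
theorem exists_vertex [FiniteDimensional ℝ E] {x : E} (hx : x ∈ Om) :
    ∃ p ∈ T.cc x, T.dim p = 0 := by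
  induction hd : T.dim x using Nat.strong_induction_on generalizing x with
  | _ d ih =>
    rcases Nat.eq_zero_or_pos d with h0 | h0
    · exact ⟨x, T.self_mem_cc x, hd.trans h0⟩
    · have hne : T.V x ≠ ⊥ := by
        intro h
        have := T.dim_eq_zero_iff.2 h
        omega
      obtain ⟨v, hv, hv0⟩ := Submodule.exists_mem_ne_zero_of_ne_bot hne
      obtain ⟨t, -, h1, h2, -⟩ := T.exists_exit hx hv hv0
      have hlt := T.dim_lt h1 h2
      obtain ⟨p, hp, hp0⟩ := ih _ (hd ▸ hlt) (T.cc_sub_Om hx h1) rfl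
      exact ⟨p, T.cc_sub_of_mem h1 hp, hp0⟩

/-! ### edges -/

/-- a cell of dimension one is a segment between two vertices -/
theorem edge_eq [FiniteDimensional ℝ E] {x : E} (hx : x ∈ Om) (hd : T.dim x = 1) :
    ∃ a b : E, a ≠ b ∧ T.cc x = segment ℝ a b ∧ T.oc x = openSegment ℝ a b ∧
      T.dim a = 0 ∧ T.dim b = 0 ∧ a ∈ T.cc x ∧ b ∈ T.cc x := by
  have hne : T.V x ≠ ⊥ := by
    intro h
    have := T.dim_eq_zero_iff.2 h
    omega
  obtain ⟨v, hv, hv0⟩ := Submodule.exists_mem_ne_zero_of_ne_bot hne
  obtain ⟨t, ht, h1, h2, h3⟩ := T.exists_exit hx hv hv0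
  obtain ⟨s, hs, h4, h5, h6⟩ := T.exists_exit hx ((T.V x).neg_mem hv) (neg_ne_zero.2 hv0)
  have hline : ∀ w ∈ T.V x, ∃ c : ℝ, w = c • v := by
    intro w hw
    have h1 : Module.finrank ℝ (T.V x) = 1 := hd
    have := (finrank_eq_one_iff_of_nonzero' (⟨v, hv⟩ : T.V x)
      (by simpa using hv0)).1 h1 ⟨w, hw⟩
    obtain ⟨c, hc⟩ := this
    refine ⟨c, ?_⟩
    have := congrArg Subtype.val hc
    simpa using this.symm
  have hcc : ∀ c : ℝ, x + c • v ∈ T.cc x ↔ -s ≤ c ∧ c ≤ t := by
    intro c
    constructor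
    · intro hc
      constructor
      · by_contra hlt
        push Not at hlt
        apply h5
        -- `x - s v` lies strictly between `x` and `x + c v`
        have hc0 : c < 0 := by linarith
        have := T.move_mem_oc hc (s := 1 - s / (-c)) (by
          have : s / (-c) < 1 := by rw [div_lt_one (by linarith)]; linarith
          linarith) (by
          have : 0 ≤ s / (-c) := div_nonneg hs.le (by linarith)
          linarith)
        have e : x + c • v + (1 - s / (-c)) • (x - (x + c • v)) = x + s • (-v) := by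
          have e1 : x - (x + c • v) = -(c • v) := by abel
          rw [e1, smul_neg, smul_smul, ← sub_eq_add_neg, add_sub_assoc, ← sub_smul, smul_neg,
            ← neg_smul]
          congr 2
          have : c ≠ 0 := hc0.ne
          field_simp
          ring
        rw [e] at this
        exact this
      · by_contra hlt
        push Not at hlt
        apply h2
        have hc0 : 0 < c := by linarith
        have := T.move_mem_oc hc (s := 1 - t / c) (by
          have : t / c < 1 := by rw [div_lt_one hc0]; exact hlt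
          linarith) (by
          have : 0 ≤ t / c := by positivity
          linarith)
        have e : x + c • v + (1 - t / c) • (x - (x + c • v)) = x + t • v := by
          have e1 : x - (x + c • v) = -(c • v) := by abel
          rw [e1, smul_neg, smul_smul, ← sub_eq_add_neg, add_sub_assoc, ← sub_smul]
          congr 2
          field_simp
          ring
        rw [e] at this
        exact this
    · rintro ⟨hc1, hc2⟩
      rcases le_or_gt 0 c with hc | hc
      · rcases eq_or_lt_of_le hc2 with e | e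
        · rw [e]; exact h1
        · exact T.oc_sub_cc x (h3 c hc e)
      · rcases eq_or_lt_of_le hc1 with e | e
        · have : x + c • v = x + s • (-v) := by rw [← e, smul_neg, neg_smul]
          rw [this]; exact h4
        · have := T.oc_sub_cc x (h6 (-c) (by linarith) (by linarith))
          rwa [smul_neg, neg_smul, neg_neg] at this
  have hoc : ∀ c : ℝ, x + c • v ∈ T.oc x ↔ -s < c ∧ c < t := by
    intro c
    constructor
    · intro hc
      have h7 := (hcc c).1 (T.oc_sub_cc x hc)
      refine ⟨lt_of_le_of_ne h7.1 ?_, lt_of_le_of_ne h7.2 ?_⟩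
      · rintro rfl
        apply h5
        rwa [neg_smul, ← smul_neg] at hc
      · rintro rfl
        exact h2 hc
    · rintro ⟨hc1, hc2⟩
      rcases le_or_gt 0 c with hc | hc
      · exact h3 c hc hc2
      · have := h6 (-c) (by linarith) (by linarith)
        rwa [smul_neg, neg_smul, neg_neg] at this
  have hmem : ∀ y ∈ T.cc x, ∃ c : ℝ, y = x + c • v := by
    intro y hy
    obtain ⟨c, hc⟩ := hline _ (T.sub_mem_V hy)
    exact ⟨c, by rw [← hc]; abel⟩
  have hab : x + s • (-v) ≠ x + t • v := by
    intro e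
    have e1 : (t + s) • v = 0 := by
      have := congrArg (fun z => z - x) e
      simp only [add_sub_cancel_left, smul_neg] at this
      rw [add_smul, ← this]; abel
    rcases smul_eq_zero.1 e1 with h | h
    · linarith
    · exact hv0 h
  refine ⟨x + s • (-v), x + t • v, hab, ?_, ?_, ?_, ?_, h4, h1⟩
  · ext y
    constructor
    · intro hy
      obtain ⟨c, rfl⟩ := hmem y hy
      obtain ⟨hc1, hc2⟩ := (hcc c).1 hy
      refine ⟨(t - c) / (t + s), (c + s) / (t + s), div_nonneg (by linarith) (by linarith),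
        div_nonneg (by linarith) (by linarith), by field_simp; ring, ?_⟩
      rw [smul_add, smul_add, smul_smul, smul_smul, smul_neg, ← neg_smul]
      have e : ((t - c) / (t + s)) • x + (-((t - c) / (t + s) * s)) • v +
          (((c + s) / (t + s)) • x + ((c + s) / (t + s) * t) • v) =
          ((t - c) / (t + s) + (c + s) / (t + s)) • x +
          (-((t - c) / (t + s) * s) + (c + s) / (t + s) * t) • v := by
        rw [add_smul, add_smul]; abel
      rw [e]
      have e1 : (t - c) / (t + s) + (c + s) / (t + s) = 1 := by field_simp; ring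
      have e2 : -((t - c) / (t + s) * s) + (c + s) / (t + s) * t = c := by field_simp; ring
      rw [e1, e2, one_smul]
    · intro hy
      exact (T.convex_cc x).segment_subset h4 h1 hy
  · ext y
    constructor
    · intro hy
      obtain ⟨c, rfl⟩ := hmem y (T.oc_sub_cc x hy)
      obtain ⟨hc1, hc2⟩ := (hoc c).1 hy
      refine ⟨(t - c) / (t + s), (c + s) / (t + s), div_pos (by linarith) (by linarith),
        div_pos (by linarith) (by linarith), by field_simp; ring, ?_⟩
      rw [smul_add, smul_add, smul_smul, smul_smul, smul_neg, ← neg_smul]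
      have e : ((t - c) / (t + s)) • x + (-((t - c) / (t + s) * s)) • v +
          (((c + s) / (t + s)) • x + ((c + s) / (t + s) * t) • v) =
          ((t - c) / (t + s) + (c + s) / (t + s)) • x +
          (-((t - c) / (t + s) * s) + (c + s) / (t + s) * t) • v := by
        rw [add_smul, add_smul]; abel
      rw [e]
      have e1 : (t - c) / (t + s) + (c + s) / (t + s) = 1 := by field_simp; ring
      have e2 : -((t - c) / (t + s) * s) + (c + s) / (t + s) * t = c := by field_simp; ring
      rw [e1, e2, one_smul]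
    · rintro ⟨a, b, ha, hb, hab1, rfl⟩
      have e : a • (x + s • (-v)) + b • (x + t • v) = x + (b * t - a * s) • v := by
        have hb' : b = 1 - a := by linarith
        subst hb'
        simp only [smul_add, smul_neg, smul_smul, sub_smul, one_smul]
        abel
      rw [e, hoc]
      constructor
      · nlinarith
      · nlinarith
  · have := T.dim_lt h4 h5; omega
  · have := T.dim_lt h1 h2; omega

/-! ### cells of codimension one -/

/-- a cell of codimension one lies in exactly two tiles, and is their intersection -/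
theorem two_tiles [FiniteDimensional ℝ E] {x : E} (hx : x ∈ Om)
    (hd : T.dim x + 1 = Module.finrank ℝ E) :
    ∃ i j, i ≠ j ∧ T.at_ x = {i, j} ∧ T.cc x = P (T.H i) ∩ P (T.H j) := by
  -- an active functional
  obtain ⟨i0, hi0, h0, hh0, e0, hne0⟩ : ∃ i ∈ T.at_ x, ∃ h ∈ T.H i, h.1 x = h.2 ∧ h.1 ≠ 0 := by
    by_contra hcon
    push Not at hcon
    have : T.V x = ⊤ := by
      rw [eq_top_iff]
      intro v _ i hi h hh e
      rw [hcon i hi h hh e]; rfl
    have h1 : T.dim x = Module.finrank ℝ E := by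
      unfold dim; rw [this]; exact finrank_top ℝ E
    omega
  set l : E →L[ℝ] ℝ := h0.1 with hl
  have hVle : T.V x ≤ LinearMap.ker (l : E →ₗ[ℝ] ℝ) := fun v hv => hv i0 hi0 h0 hh0 e0
  have hlne : (l : E →ₗ[ℝ] ℝ) ≠ 0 := by
    intro h; apply hne0; ext v; exact congrArg (fun f : E →ₗ[ℝ] ℝ => f v) h
  obtain ⟨u, hu⟩ : ∃ u : E, l u = 1 := by
    obtain ⟨w, hw⟩ : ∃ w, l w ≠ 0 := by
      by_contra hcon
      push Not at hcon
      exact hne0 (by ext v; exact hcon v)
    exact ⟨(l w)⁻¹ • w, by rw [map_smul, smul_eq_mul, inv_mul_cancel₀ hw]⟩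
  have hker : Module.finrank ℝ (LinearMap.ker (l : E →ₗ[ℝ] ℝ)) + 1 = Module.finrank ℝ E := by
    have h1 := LinearMap.finrank_range_add_finrank_ker (l : E →ₗ[ℝ] ℝ)
    have h2 : LinearMap.range (l : E →ₗ[ℝ] ℝ) = ⊤ := by
      rw [LinearMap.range_eq_top]
      intro c
      exact ⟨c • u, by simp [hu]⟩
    rw [h2, finrank_top, Module.finrank_self] at h1
    omega
  have hVeq : T.V x = LinearMap.ker (l : E →ₗ[ℝ] ℝ) := by
    apply Submodule.eq_of_le_of_finrank_eq hVle
    have : Module.finrank ℝ (T.V x) = T.dim x := rfl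
    omega
  -- every active functional is a multiple of `l`
  have hmul : ∀ i ∈ T.at_ x, ∀ h ∈ T.H i, h.1 x = h.2 → ∀ v, h.1 v = h.1 u * l v := by
    intro i hi h hh e v
    have : v - l v • u ∈ T.V x := by
      rw [hVeq, LinearMap.mem_ker]
      simp [hu]
    have := this i hi h hh e
    rw [map_sub, map_smul, smul_eq_mul, sub_eq_zero] at this
    rw [this]; ring
  have hnz : ∀ i ∈ T.at_ x, ∀ h ∈ T.H i, h.1 x = h.2 → h.1 u ≠ 0 := by
    intro i hi h hh e h0
    obtain ⟨z, hz⟩ := T.ne i
    have h1 := hz h hh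
    have h2 := hmul i hi h hh e (z - x)
    rw [h0, zero_mul, map_sub, e] at h2
    linarith
  have hactive : ∀ i ∈ T.at_ x, ∃ h ∈ T.H i, h.1 x = h.2 := by
    intro i hi
    by_contra hcon
    push Not at hcon
    have : T.V x = ⊤ := (T.V_eq_top_iff hx).2
      ⟨i, fun h hh => lt_of_le_of_ne (hi h hh) (hcon h hh)⟩
    have h1 : T.dim x = Module.finrank ℝ E := by
      unfold dim; rw [this]; exact finrank_top ℝ E
    omega
  -- the sign of a tile
  have hsign : ∀ i ∈ T.at_ x, (∀ h ∈ T.H i, h.1 x = h.2 → 0 < h.1 u) ∨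
      (∀ h ∈ T.H i, h.1 x = h.2 → h.1 u < 0) := by
    intro i hi
    obtain ⟨z, hz⟩ := T.ne i
    have key : ∀ h ∈ T.H i, h.1 x = h.2 → h.1 u * l (z - x) < 0 := by
      intro h hh e
      rw [← hmul i hi h hh e, map_sub, e]
      linarith [hz h hh]
    rcases lt_trichotomy (l (z - x)) 0 with hs | hs | hs
    · left
      intro h hh e
      by_contra hcon
      push Not at hcon
      nlinarith [key h hh e]
    · exfalso
      obtain ⟨h, hh, e⟩ := hactive i hi
      have := key h hh e
      rw [hs, mul_zero] at this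
      exact lt_irrefl _ this
    · right
      intro h hh e
      by_contra hcon
      push Not at hcon
      nlinarith [key h hh e]
  obtain ⟨r, hr, hO, hb⟩ := T.exists_ball hx
  -- existence of a tile on each side
  have hside : ∀ w : E, ∃ s : ℝ, 0 < s ∧ ∃ i ∈ T.at_ x, x + s • w ∈ P (T.H i) := by
    intro w
    have hc : Tendsto (fun s : ℝ => x + s • w) (𝓝 0) (𝓝 (x + (0 : ℝ) • w)) := by
      apply Continuous.tendsto
      fun_prop
    rw [zero_smul, add_zero] at hc
    have h1 : ∀ᶠ s in 𝓝[>] (0 : ℝ), x + s • w ∈ ball x r :=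
      (hc.eventually (ball_mem_nhds x hr)).filter_mono nhdsWithin_le_nhds
    obtain ⟨s, hs, hs'⟩ := (h1.and self_mem_nhdsWithin).exists
    obtain ⟨i, hi⟩ := T.cov _ (hO hs)
    exact ⟨s, hs', i, hb _ hs hi, hi⟩
  obtain ⟨s1, hs1, i, hi, hxi⟩ := hside (-u)
  obtain ⟨s2, hs2, j, hj, hxj⟩ := hside u
  have hipos : ∀ h ∈ T.H i, h.1 x = h.2 → 0 < h.1 u := by
    rcases hsign i hi with h | h
    · exact h
    · exfalso
      obtain ⟨g, hg, e⟩ := hactive i hi
      have h1 := hxi g hg
      have h2 := h g hg e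
      rw [map_add, map_smul, map_neg, e, smul_eq_mul] at h1
      nlinarith
  have hjneg : ∀ h ∈ T.H j, h.1 x = h.2 → h.1 u < 0 := by
    rcases hsign j hj with h | h
    · exfalso
      obtain ⟨g, hg, e⟩ := hactive j hj
      have h1 := hxj g hg
      have h2 := h g hg e
      rw [map_add, map_smul, e, smul_eq_mul] at h1
      nlinarith
    · exact h
  -- small moves into the interior
  have hint : ∀ k ∈ T.at_ x, ∀ w : E, (∀ h ∈ T.H k, h.1 x = h.2 → h.1 w < 0) →
      ∀ᶠ s in 𝓝[>] (0 : ℝ), x + s • w ∈ I (T.H k) := by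
    intro k hk w hw
    have : ∀ h ∈ T.H k, ∀ᶠ s in 𝓝[>] (0 : ℝ), h.1 (x + s • w) < h.2 := by
      intro h hh
      rcases eq_or_lt_of_le (hk h hh) with e | e
      · filter_upwards [self_mem_nhdsWithin] with s hs
        have := hw h hh e
        simp only [map_add, map_smul, smul_eq_mul]
        have hs' : (0 : ℝ) < s := hs
        nlinarith
      · have hc : Tendsto (fun s : ℝ => h.1 (x + s • w)) (𝓝 0) (𝓝 (h.1 (x + (0 : ℝ) • w))) := by
          apply Continuous.tendsto
          fun_prop
        rw [zero_smul, add_zero] at hc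
        exact (hc.eventually (gt_mem_nhds e)).filter_mono nhdsWithin_le_nhds
    exact (Finset.eventually_all (l := 𝓝[>] (0 : ℝ)) (T.H k)
      (p := fun h s => h.1 (x + s • w) < h.2)).2 this
  have huniq : ∀ k ∈ T.at_ x, ∀ m ∈ T.at_ x, ∀ w : E, (∀ h ∈ T.H k, h.1 x = h.2 → h.1 w < 0) →
      (∀ h ∈ T.H m, h.1 x = h.2 → h.1 w < 0) → k = m := by
    intro k hk m hm w h1 h2
    by_contra hne
    obtain ⟨s, hs1, hs2⟩ := ((hint k hk w h1).and (hint m hm w h2)).exists
    exact (Set.disjoint_left.1 (T.dis k m hne)) hs1 hs2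
  have hij : i ≠ j := by
    rintro rfl
    obtain ⟨g, hg, e⟩ := hactive i hi
    have h1 := hipos g hg e
    have h2 := hjneg g hg e
    linarith
  refine ⟨i, j, hij, ?_, ?_⟩
  · ext k
    simp only [Set.mem_insert_iff, Set.mem_singleton_iff]
    constructor
    · intro hk
      rcases hsign k hk with h | h
      · left
        exact huniq k hk i hi (-u) (fun g hg e => by rw [map_neg]; linarith [h g hg e])
          (fun g hg e => by rw [map_neg]; linarith [hipos g hg e])
      · right
        exact huniq k hk j hj u (fun g hg e => h g hg e) (fun g hg e => hjneg g hg e)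
    · rintro (rfl | rfl)
      · exact hi
      · exact hj
  · refine Set.Subset.antisymm (fun y hy => ⟨T.cc_sub_tile hi hy, T.cc_sub_tile hj hy⟩) ?_
    rintro y ⟨hyi, hyj⟩
    have hly : l (y - x) = 0 := by
      obtain ⟨g, hg, e⟩ := hactive i hi
      obtain ⟨g', hg', e'⟩ := hactive j hj
      have h1 := hmul i hi g hg e (y - x)
      have h2 := hmul j hj g' hg' e' (y - x)
      have h3 := hipos g hg e
      have h4 := hjneg g' hg' e'
      have h5 := hyi g hg
      have h6 := hyj g' hg'
      rw [map_sub, e] at h1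
      rw [map_sub, e'] at h2
      have h7 : g.1 u * l (y - x) ≤ 0 := by rw [← h1]; linarith
      have h8 : g'.1 u * l (y - x) ≤ 0 := by rw [← h2]; linarith
      apply le_antisymm
      · by_contra hcon
        push Not at hcon
        nlinarith
      · by_contra hcon
        push Not at hcon
        nlinarith
    intro k hk h hh
    have hk' : k = i ∨ k = j := by
      rcases hsign k hk with h' | h'
      · left
        exact huniq k hk i hi (-u) (fun g hg e => by rw [map_neg]; linarith [h' g hg e])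
          (fun g hg e => by rw [map_neg]; linarith [hipos g hg e])
      · right
        exact huniq k hk j hj u (fun g hg e => h' g hg e) (fun g hg e => hjneg g hg e)
    refine ⟨?_, fun e => ?_⟩
    · rcases hk' with rfl | rfl
      · exact hyi h hh
      · exact hyj h hh
    · have := hmul k hk h hh e (y - x)
      rw [hly, mul_zero, map_sub, e, sub_eq_zero] at this
      exact this

end Tiling

end Crest.Agent.R096.Msh_715
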