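import Mathlib

/-!
# Row 96, library (U5) MESH, layer (M1): a locally finite tiling of an open set by convex polytopes
# generates a cell complex.

No general position, hanging nodes allowed.  Everything is expressed by the finite
H-representations of the tiles.
-/

set_option autoImplicit false

open Set Filter Topology Metric

namespace Crest.Agent.R096.Msh_715

variable {E : Type*} [NormedAddCommGroup E] [NormedSpace ℝ E]

/-- the closed polyhedron of a finite system of inequalities -/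
def P (H : Finset ((E →L[ℝ] ℝ) × ℝ)) : Set E := {x | ∀ h ∈ H, h.1 x ≤ h.2}

/-- the open polyhedron of a finite system of inequalities -/
def I (H : Finset ((E →L[ℝ] ℝ) × ℝ)) : Set E := {x | ∀ h ∈ H, h.1 x < h.2}

theorem I_sub_P (H : Finset ((E →L[ℝ] ℝ) × ℝ)) : I H ⊆ P H := fun _ hx h hh => (hx h hh).le

theorem isOpen_I (H : Finset ((E →L[ℝ] ℝ) × ℝ)) : IsOpen (I H) := by
  have : I H = ⋂ h ∈ H, {x : E | h.1 x < h.2} := by ext x; simp [I]
  rw [this]
  exact isOpen_biInter_finset fun h _ => isOpen_lt h.1.continuous continuous_const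

theorem isClosed_P (H : Finset ((E →L[ℝ] ℝ) × ℝ)) : IsClosed (P H) := by
  have : P H = ⋂ h ∈ H, {x : E | h.1 x ≤ h.2} := by ext x; simp [P]
  rw [this]
  exact isClosed_biInter fun h _ => isClosed_le h.1.continuous continuous_const

theorem convex_P (H : Finset ((E →L[ℝ] ℝ) × ℝ)) : Convex ℝ (P H) := by
  have : P H = ⋂ h ∈ H, {x : E | h.1 x ≤ h.2} := by ext x; simp [P]
  rw [this]
  exact convex_iInter₂ fun h _ => convex_halfSpace_le h.1.isLinear _

theorem convex_I (H : Finset ((E →L[ℝ] ℝ) × ℝ)) : Convex ℝ (I H) := by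
  have : I H = ⋂ h ∈ H, {x : E | h.1 x < h.2} := by ext x; simp [I]
  rw [this]
  exact convex_iInter₂ fun h _ => convex_halfSpace_lt h.1.isLinear _

/-- moving from a point of `P H` towards a point of `I H` one is in `I H` at once -/
theorem mem_I_of_move {H : Finset ((E →L[ℝ] ℝ) × ℝ)} {x z : E} (hx : x ∈ P H) (hz : z ∈ I H)
    {s : ℝ} (h0 : 0 < s) (h1 : s ≤ 1) : x + s • (z - x) ∈ I H := by
  intro h hh
  have a := hx h hh
  have b := hz h hh
  have : h.1 (x + s • (z - x)) = (1 - s) * h.1 x + s * h.1 z := by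
    simp only [map_add, map_smul, map_sub, smul_eq_mul]; ring
  rw [this]
  nlinarith

/-- moving a little in a direction which does not violate the active constraints -/
theorem mem_P_small {H : Finset ((E →L[ℝ] ℝ) × ℝ)} {y v : E} (hy : y ∈ P H)
    (hv : ∀ h ∈ H, h.1 y = h.2 → h.1 v ≤ 0) : ∀ᶠ s in 𝓝[>] (0 : ℝ), y + s • v ∈ P H := by
  have : ∀ h ∈ H, ∀ᶠ s in 𝓝[>] (0 : ℝ), h.1 (y + s • v) ≤ h.2 := by
    intro h hh
    rcases eq_or_lt_of_le (hy h hh) with e | e
    · filter_upwards [self_mem_nhdsWithin] with s hs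
      have := hv h hh e
      simp only [map_add, map_smul, smul_eq_mul]
      have hs' : (0 : ℝ) < s := hs
      nlinarith
    · have hc : Tendsto (fun s : ℝ => h.1 (y + s • v)) (𝓝 0) (𝓝 (h.1 (y + (0 : ℝ) • v))) := by
        apply Continuous.tendsto
        fun_prop
      rw [zero_smul, add_zero] at hc
      have := hc.eventually (gt_mem_nhds e)
      exact (this.filter_mono nhdsWithin_le_nhds).mono fun s hs => hs.le
  have := (Finset.eventually_all (l := 𝓝[>] (0 : ℝ)) H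
    (p := fun h s => h.1 (y + s • v) ≤ h.2)).2 this
  exact this

theorem mem_I_small {H : Finset ((E →L[ℝ] ℝ) × ℝ)} {y : E} (v : E) (hy : y ∈ I H) :
    ∀ᶠ s in 𝓝[>] (0 : ℝ), y + s • v ∈ I H := by
  have hc : Tendsto (fun s : ℝ => y + s • v) (𝓝 0) (𝓝 (y + (0 : ℝ) • v)) := by
    apply Continuous.tendsto
    fun_prop
  rw [zero_smul, add_zero] at hc
  exact (hc.eventually ((isOpen_I H).mem_nhds hy)).filter_mono nhdsWithin_le_nhds

/-- a polyhedron cannot meet the open polyhedron of a tile with disjoint interior -/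
theorem disjoint_P_I {H H' : Finset ((E →L[ℝ] ℝ) × ℝ)} (hne : (I H).Nonempty)
    (hd : Disjoint (I H) (I H')) : Disjoint (P H) (I H') := by
  rw [Set.disjoint_left]
  intro w hw hw'
  obtain ⟨z, hz⟩ := hne
  have h1 := mem_I_small (z - w) hw'
  have h2 : ∀ᶠ s in 𝓝[>] (0 : ℝ), w + s • (z - w) ∈ I H := by
    have : ∀ᶠ s in 𝓝[>] (0 : ℝ), s < 1 :=
      (gt_mem_nhds (zero_lt_one' ℝ)).filter_mono nhdsWithin_le_nhds
    filter_upwards [this, self_mem_nhdsWithin] with s hs hs0
    exact mem_I_of_move hw hz hs0 hs.le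
  obtain ⟨s, hs1, hs2⟩ := (h1.and h2).exists
  exact (Set.disjoint_left.1 hd) hs2 hs1

/-- a locally finite tiling of the open set `Om` by convex polytopes -/
structure Tiling (Om : Set E) (ι : Type*) where
  H : ι → Finset ((E →L[ℝ] ℝ) × ℝ)
  cpt : ∀ i, IsCompact (P (H i))
  ne : ∀ i, (I (H i)).Nonempty
  sub : ∀ i, P (H i) ⊆ Om
  cov : ∀ x ∈ Om, ∃ i, x ∈ P (H i)
  dis : ∀ i j, i ≠ j → Disjoint (I (H i)) (I (H j))
  lf : ∀ x ∈ Om, ∃ r > 0, {i | (P (H i) ∩ ball x r).Nonempty}.Finite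
  op : IsOpen Om

namespace Tiling

variable {Om : Set E} {ι : Type*} (T : Tiling Om ι)

/-- the tiles through a point -/
def at_ (x : E) : Set ι := {i | x ∈ P (T.H i)}

theorem mem_at {x : E} {i : ι} : i ∈ T.at_ x ↔ x ∈ P (T.H i) := Iff.rfl

theorem at_nonempty {x : E} (hx : x ∈ Om) : (T.at_ x).Nonempty := T.cov x hx

theorem mem_Om {x : E} {i : ι} (h : i ∈ T.at_ x) : x ∈ Om := T.sub i h

theorem at_finite {x : E} (hx : x ∈ Om) : (T.at_ x).Finite := by
  obtain ⟨r, hr, hf⟩ := T.lf x hx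
  exact hf.subset fun i hi => ⟨x, hi, mem_ball_self hr⟩

/-- near `x` only the tiles through `x` are present, and they cover -/
theorem exists_ball {x : E} (hx : x ∈ Om) : ∃ r > 0, ball x r ⊆ Om ∧
    ∀ y ∈ ball x r, T.at_ y ⊆ T.at_ x := by
  obtain ⟨r, hr, hf⟩ := T.lf x hx
  obtain ⟨r', hr', hO⟩ := Metric.isOpen_iff.1 T.op x hx
  have hopen : IsOpen (⋂ i ∈ ({i | (P (T.H i) ∩ ball x r).Nonempty} \ T.at_ x), (P (T.H i))ᶜ) :=
    (hf.subset Set.sdiff_subset).isOpen_biInter fun i _ => (isClosed_P _).isOpen_compl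
  have hmem : x ∈ (⋂ i ∈ ({i | (P (T.H i) ∩ ball x r).Nonempty} \ T.at_ x), (P (T.H i))ᶜ) := by
    simp only [Set.mem_iInter]
    intro i hi
    exact hi.2
  obtain ⟨r'', hr'', hs⟩ := Metric.isOpen_iff.1 hopen x hmem
  refine ⟨min (min r r') r'', by positivity, ?_, ?_⟩
  · exact (ball_subset_ball ((min_le_left _ _).trans (min_le_right _ _))).trans hO
  · intro y hy i hi
    by_contra hni
    have h1 : y ∈ ball x r := ball_subset_ball ((min_le_left _ _).trans (min_le_left _ _)) hy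
    have h2 : y ∈ ball x r'' := ball_subset_ball (min_le_right _ _) hy
    have h3 := hs h2
    simp only [Set.mem_iInter] at h3
    exact h3 i ⟨⟨y, hi, h1⟩, hni⟩ hi

/-- the open cell of a point -/
def oc (x : E) : Set E :=
  {y | ∀ i ∈ T.at_ x, ∀ h ∈ T.H i, h.1 y ≤ h.2 ∧ (h.1 y = h.2 ↔ h.1 x = h.2)}

/-- the closed cell of a point -/
def cc (x : E) : Set E :=
  {y | ∀ i ∈ T.at_ x, ∀ h ∈ T.H i, h.1 y ≤ h.2 ∧ (h.1 x = h.2 → h.1 y = h.2)}

theorem self_mem_oc (x : E) : x ∈ T.oc x := fun _ hi h hh => ⟨hi h hh, Iff.rfl⟩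

theorem oc_sub_cc (x : E) : T.oc x ⊆ T.cc x := fun _ hy i hi h hh =>
  ⟨(hy i hi h hh).1, (hy i hi h hh).2.2⟩

theorem self_mem_cc (x : E) : x ∈ T.cc x := T.oc_sub_cc x (T.self_mem_oc x)

theorem at_sub_of_mem_cc {x y : E} (hy : y ∈ T.cc x) : T.at_ x ⊆ T.at_ y :=
  fun i hi h hh => (hy i hi h hh).1

theorem cc_sub_tile {x : E} {i : ι} (hi : i ∈ T.at_ x) : T.cc x ⊆ P (T.H i) :=
  fun _ hy h hh => (hy i hi h hh).1

theorem cc_sub_Om {x : E} (hx : x ∈ Om) : T.cc x ⊆ Om := by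
  obtain ⟨i, hi⟩ := T.at_nonempty hx
  exact (T.cc_sub_tile hi).trans (T.sub i)

theorem isClosed_cc (x : E) : IsClosed (T.cc x) := by
  have : T.cc x = ⋂ i ∈ T.at_ x, ⋂ h ∈ T.H i,
      ({y | h.1 y ≤ h.2} ∩ {y | h.1 x = h.2 → h.1 y = h.2}) := by
    ext y; simp [cc]
  rw [this]
  refine isClosed_biInter fun i _ => isClosed_biInter fun h _ => ?_
  refine (isClosed_le h.1.continuous continuous_const).inter ?_
  by_cases e : h.1 x = h.2
  · simp only [e, forall_const]
    exact isClosed_eq h.1.continuous continuous_const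
  · simp [e]

theorem isCompact_cc {x : E} (hx : x ∈ Om) : IsCompact (T.cc x) := by
  obtain ⟨i, hi⟩ := T.at_nonempty hx
  exact (T.cpt i).of_isClosed_subset (T.isClosed_cc x) (T.cc_sub_tile hi)

theorem convex_cc (x : E) : Convex ℝ (T.cc x) := by
  have : T.cc x = ⋂ i ∈ T.at_ x, ⋂ h ∈ T.H i,
      ({y | h.1 y ≤ h.2} ∩ {y | h.1 x = h.2 → h.1 y = h.2}) := by
    ext y; simp [cc]
  rw [this]
  refine convex_iInter₂ fun i _ => convex_iInter₂ fun h _ => ?_
  refine (convex_halfSpace_le h.1.isLinear _).inter ?_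
  by_cases e : h.1 x = h.2
  · simp only [e, forall_const]
    exact convex_hyperplane h.1.isLinear _
  · simp [e, convex_univ]

/-- **the main lemma**: the tiles through a point do not change along an open cell -/
theorem at_eq_of_mem_oc {x y : E} (hx : x ∈ Om) (hy : y ∈ T.oc x) : T.at_ y = T.at_ x := by
  refine Set.Subset.antisymm ?_ (T.at_sub_of_mem_cc (T.oc_sub_cc x hy))
  intro k hk
  by_contra hkx
  obtain ⟨z, hz⟩ := T.ne k
  obtain ⟨r, hr, hO, hb⟩ := T.exists_ball hx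
  -- a small step from `x` in direction `z - y` stays in one tile through `x`
  have hc : Tendsto (fun s : ℝ => x + s • (z - y)) (𝓝 0) (𝓝 (x + (0 : ℝ) • (z - y))) := by
    apply Continuous.tendsto
    fun_prop
  rw [zero_smul, add_zero] at hc
  have h1 : ∀ᶠ s in 𝓝[>] (0 : ℝ), x + s • (z - y) ∈ ball x r :=
    (hc.eventually (ball_mem_nhds x hr)).filter_mono nhdsWithin_le_nhds
  obtain ⟨s1, hs1, hs1'⟩ := (h1.and self_mem_nhdsWithin).exists
  have hs1' : (0 : ℝ) < s1 := hs1'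
  obtain ⟨i, hi⟩ := T.cov _ (hO hs1)
  have hix : i ∈ T.at_ x := hb _ hs1 hi
  have hact : ∀ h ∈ T.H i, h.1 y = h.2 → h.1 (z - y) ≤ 0 := by
    intro h hh e
    have e' : h.1 x = h.2 := (hy i hix h hh).2.1 e
    have := hi h hh
    simp only [map_add, map_smul, smul_eq_mul] at this
    rw [e'] at this
    nlinarith
  have hyi : y ∈ P (T.H i) := T.at_sub_of_mem_cc (T.oc_sub_cc x hy) hix
  have h2 := mem_P_small hyi hact
  have h3 : ∀ᶠ s in 𝓝[>] (0 : ℝ), y + s • (z - y) ∈ I (T.H k) := by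
    have : ∀ᶠ s in 𝓝[>] (0 : ℝ), s < 1 :=
      (gt_mem_nhds (zero_lt_one' ℝ)).filter_mono nhdsWithin_le_nhds
    filter_upwards [this, self_mem_nhdsWithin] with s hs hs0
    exact mem_I_of_move hk hz hs0 hs.le
  obtain ⟨s, hs, hs'⟩ := (h2.and h3).exists
  have hik : i ≠ k := by rintro rfl; exact hkx hix
  exact (Set.disjoint_left.1 (disjoint_P_I (T.ne i) (T.dis i k hik))) hs hs'

theorem oc_eq_of_mem {x y : E} (hx : x ∈ Om) (hy : y ∈ T.oc x) : T.oc y = T.oc x := by
  have e := T.at_eq_of_mem_oc hx hy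
  ext w
  simp only [oc, e, Set.mem_ofPred_eq]
  constructor
  · intro hw i hi h hh
    exact ⟨(hw i hi h hh).1, (hw i hi h hh).2.trans (hy i hi h hh).2⟩
  · intro hw i hi h hh
    exact ⟨(hw i hi h hh).1, (hw i hi h hh).2.trans (hy i hi h hh).2.symm⟩

theorem cc_eq_of_mem_oc {x y : E} (hx : x ∈ Om) (hy : y ∈ T.oc x) : T.cc y = T.cc x := by
  have e := T.at_eq_of_mem_oc hx hy
  ext w
  simp only [cc, e, Set.mem_ofPred_eq]
  constructor
  · intro hw i hi h hh
    exact ⟨(hw i hi h hh).1, fun e1 => (hw i hi h hh).2 ((hy i hi h hh).2.2 e1)⟩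
  · intro hw i hi h hh
    exact ⟨(hw i hi h hh).1, fun e1 => (hw i hi h hh).2 ((hy i hi h hh).2.1 e1)⟩

/-- the open cells form a partition -/
theorem oc_disjoint_or_eq {x y : E} (hx : x ∈ Om) (hy : y ∈ Om) :
    Disjoint (T.oc x) (T.oc y) ∨ T.oc x = T.oc y := by
  by_cases h : Disjoint (T.oc x) (T.oc y)
  · exact Or.inl h
  · rw [Set.not_disjoint_iff] at h
    obtain ⟨w, h1, h2⟩ := h
    exact Or.inr ((T.oc_eq_of_mem hx h1).symm.trans (T.oc_eq_of_mem hy h2))

/-- faces of faces -/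
theorem cc_sub_of_mem {x y : E} (hy : y ∈ T.cc x) : T.cc y ⊆ T.cc x := by
  intro w hw i hi h hh
  have hi' := T.at_sub_of_mem_cc hy hi
  exact ⟨(hw i hi' h hh).1, fun e => (hw i hi' h hh).2 ((hy i hi h hh).2 e)⟩

/-- two points with mutually contained cells are in the same open cell -/
theorem mem_oc_of_mem_cc {x y : E} (h1 : y ∈ T.cc x) (h2 : x ∈ T.cc y) : y ∈ T.oc x := by
  intro i hi h hh
  exact ⟨(h1 i hi h hh).1, fun e => (h2 i (T.at_sub_of_mem_cc h1 hi) h hh).2 e,
    (h1 i hi h hh).2⟩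

theorem cc_eq_iff {x y : E} (hx : x ∈ Om) : T.cc y = T.cc x ↔ y ∈ T.oc x := by
  constructor
  · intro e
    exact T.mem_oc_of_mem_cc (e ▸ T.self_mem_cc y) (e.symm ▸ T.self_mem_cc x)
  · exact T.cc_eq_of_mem_oc hx

/-- the closed cell is the union of the open cell and of the smaller closed cells -/
theorem cc_eq (x : E) : T.cc x = T.oc x ∪ ⋃ y ∈ T.cc x \ T.oc x, T.cc y := by
  ext w
  constructor
  · intro hw
    by_cases h : w ∈ T.oc x
    · exact Or.inl h
    · refine Or.inr ?_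
      simp only [Set.mem_iUnion]
      exact ⟨w, ⟨hw, h⟩, T.self_mem_cc w⟩
  · rintro (hw | hw)
    · exact T.oc_sub_cc x hw
    · simp only [Set.mem_iUnion] at hw
      obtain ⟨y, hy, hw⟩ := hw
      exact T.cc_sub_of_mem hy.1 hw

theorem disjoint_oc_cc {x y : E} (hx : x ∈ Om) (hy : y ∈ T.cc x) (hn : y ∉ T.oc x) :
    Disjoint (T.oc x) (T.cc y) := by
  rw [Set.disjoint_left]
  intro w hw hwy
  apply hn
  apply T.mem_oc_of_mem_cc hy
  have h1 := T.cc_sub_of_mem hwy
  rw [T.cc_eq_of_mem_oc hx hw] at h1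
  exact h1 (T.self_mem_cc x)

/-- intersections of closed cells are unions of closed cells -/
theorem cc_inter (x y : E) : T.cc x ∩ T.cc y = ⋃ w ∈ T.cc x ∩ T.cc y, T.cc w := by
  ext w
  constructor
  · intro hw
    simp only [Set.mem_iUnion]
    exact ⟨w, hw, T.self_mem_cc w⟩
  · intro hw
    simp only [Set.mem_iUnion] at hw
    obtain ⟨v, hv, hw⟩ := hw
    exact ⟨T.cc_sub_of_mem hv.1 hw, T.cc_sub_of_mem hv.2 hw⟩

/-- the tiles are unions of closed cells -/
theorem tile_eq (i : ι) : P (T.H i) = ⋃ w ∈ P (T.H i), T.cc w := by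
  ext w
  constructor
  · intro hw
    simp only [Set.mem_iUnion]
    exact ⟨w, hw, T.self_mem_cc w⟩
  · intro hw
    simp only [Set.mem_iUnion] at hw
    obtain ⟨v, hv, hw⟩ := hw
    exact T.cc_sub_tile hv hw

/-! ### the direction space and the dimension of a cell -/

/-- the directions of the cell of `x` -/
def V (x : E) : Submodule ℝ E where
  carrier := {v | ∀ i ∈ T.at_ x, ∀ h ∈ T.H i, h.1 x = h.2 → h.1 v = 0}
  zero_mem' := by intro i _ h _ _; exact map_zero _
  add_mem' := by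
    intro a b ha hb i hi h hh e
    rw [map_add, ha i hi h hh e, hb i hi h hh e, add_zero]
  smul_mem' := by
    intro c a ha i hi h hh e
    rw [map_smul, ha i hi h hh e, smul_zero]

theorem mem_V {x v : E} : v ∈ T.V x ↔ ∀ i ∈ T.at_ x, ∀ h ∈ T.H i, h.1 x = h.2 → h.1 v = 0 :=
  Iff.rfl

theorem sub_mem_V {x y : E} (hy : y ∈ T.cc x) : y - x ∈ T.V x := by
  intro i hi h hh e
  rw [map_sub, (hy i hi h hh).2 e, e, sub_self]

theorem sub_mem_V' {x y z : E} (hy : y ∈ T.cc x) (hz : z ∈ T.cc x) : y - z ∈ T.V x := by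
  intro i hi h hh e
  rw [map_sub, (hy i hi h hh).2 e, (hz i hi h hh).2 e, sub_self]

theorem V_eq_of_mem_oc {x y : E} (hx : x ∈ Om) (hy : y ∈ T.oc x) : T.V y = T.V x := by
  have e := T.at_eq_of_mem_oc hx hy
  ext w
  simp only [mem_V, e]
  constructor
  · intro hw i hi h hh e1
    exact hw i hi h hh ((hy i hi h hh).2.2 e1)
  · intro hw i hi h hh e1
    exact hw i hi h hh ((hy i hi h hh).2.1 e1)

theorem V_mono {x y : E} (hy : y ∈ T.cc x) : T.V y ≤ T.V x := by
  intro v hv i hi h hh e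
  exact hv i (T.at_sub_of_mem_cc hy hi) h hh ((hy i hi h hh).2 e)

theorem V_lt {x y : E} (hy : y ∈ T.cc x) (hn : y ∉ T.oc x) : T.V y < T.V x := by
  refine lt_of_le_of_ne (T.V_mono hy) ?_
  intro e
  apply hn
  have h1 : x - y ∈ T.V y := by
    rw [e]; exact T.sub_mem_V' (T.self_mem_cc x) hy
  intro i hi h hh
  refine ⟨(hy i hi h hh).1, fun e1 => ?_, (hy i hi h hh).2⟩
  have := h1 i (T.at_sub_of_mem_cc hy hi) h hh e1
  rw [map_sub, e1] at this
  linarith

/-- the dimension of the cell of `x` -/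
noncomputable def dim (x : E) : ℕ := Module.finrank ℝ (T.V x)

theorem dim_lt [FiniteDimensional ℝ E] {x y : E} (hy : y ∈ T.cc x) (hn : y ∉ T.oc x) :
    T.dim y < T.dim x := Submodule.finrank_lt_finrank_of_lt (T.V_lt hy hn)

theorem dim_le [FiniteDimensional ℝ E] {x y : E} (hy : y ∈ T.cc x) : T.dim y ≤ T.dim x :=
  Submodule.finrank_mono (T.V_mono hy)

theorem dim_eq_of_mem_oc {x y : E} (hx : x ∈ Om) (hy : y ∈ T.oc x) : T.dim y = T.dim x := by
  unfold dim; rw [T.V_eq_of_mem_oc hx hy]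

theorem dim_le_finrank [FiniteDimensional ℝ E] (x : E) : T.dim x ≤ Module.finrank ℝ E :=
  Submodule.finrank_le _

/-- the open cell is relatively open in `x + V x` -/
theorem exists_ball_oc {x : E} (hx : x ∈ Om) : ∃ r > 0, ∀ v ∈ T.V x, ‖v‖ < r → x + v ∈ T.oc x := by
  have hfin := T.at_finite hx
  have : ∀ᶠ y in 𝓝 x, ∀ i ∈ T.at_ x, ∀ h ∈ T.H i, h.1 x < h.2 → h.1 y < h.2 := by
    rw [Filter.eventually_all_finite hfin]
    intro i _
    rw [Finset.eventually_all]
    intro h _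
    by_cases e : h.1 x < h.2
    · simp only [e, forall_const]
      exact (h.1.continuous.tendsto x).eventually (gt_mem_nhds e)
    · simp [e]
  obtain ⟨r, hr, hb⟩ := Metric.eventually_nhds_iff.1 this
  refine ⟨r, hr, fun v hv hvr => ?_⟩
  have hd : dist (x + v) x < r := by rw [dist_eq_norm]; simpa using hvr
  have := hb hd
  intro i hi h hh
  rcases eq_or_lt_of_le (hi h hh) with e | e
  · have : h.1 (x + v) = h.2 := by rw [map_add, hv i hi h hh e, add_zero, e]
    exact ⟨this.le, by simp [this, e]⟩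
  · have := this i hi h hh e
    exact ⟨this.le, fun e1 => absurd e1 this.ne, fun e1 => absurd e1 e.ne⟩

/-- from any point of the closed cell one moves into the open cell -/
theorem move_mem_oc {x y : E} (hy : y ∈ T.cc x) {s : ℝ} (h0 : 0 < s) (h1 : s ≤ 1) :
    y + s • (x - y) ∈ T.oc x := by
  intro i hi h hh
  have a := hy i hi h hh
  have b := hi h hh
  have e : h.1 (y + s • (x - y)) = (1 - s) * h.1 y + s * h.1 x := by
    simp only [map_add, map_smul, map_sub, smul_eq_mul]; ring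
  rw [e]
  refine ⟨by nlinarith [a.1], fun e1 => ?_, fun e1 => ?_⟩
  · by_contra hne
    have hlt : h.1 x < h.2 := lt_of_le_of_ne b hne
    nlinarith [a.1]
  · rw [a.2 e1, e1]; ring

theorem closure_oc (x : E) : closure (T.oc x) = T.cc x := by
  refine Set.Subset.antisymm ((T.isClosed_cc x).closure_subset_iff.2 (T.oc_sub_cc x)) ?_
  intro y hy
  have hc : Tendsto (fun s : ℝ => y + s • (x - y)) (𝓝[>] 0) (𝓝 y) := by
    have : Tendsto (fun s : ℝ => y + s • (x - y)) (𝓝 0) (𝓝 (y + (0 : ℝ) • (x - y))) := by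
      apply Continuous.tendsto
      fun_prop
    rw [zero_smul, add_zero] at this
    exact this.mono_left nhdsWithin_le_nhds
  refine mem_closure_of_tendsto hc ?_
  have : ∀ᶠ s in 𝓝[>] (0 : ℝ), s < 1 :=
    (gt_mem_nhds (zero_lt_one' ℝ)).filter_mono nhdsWithin_le_nhds
  filter_upwards [this, self_mem_nhdsWithin] with s hs hs0
  exact T.move_mem_oc hy hs0 hs.le

theorem convex_oc (x : E) : Convex ℝ (T.oc x) := by
  intro y hy z hz a b ha hb hab i hi h hh
  have hy' := hy i hi h hh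
  have hz' := hz i hi h hh
  have e : h.1 (a • y + b • z) = a * h.1 y + b * h.1 z := by
    simp only [map_add, map_smul, smul_eq_mul]
  rw [e]
  have hb' : b = 1 - a := by linarith
  subst hb'
  have h3 : a * h.1 y + (1 - a) * h.1 z ≤ h.2 := by nlinarith [hy'.1, hz'.1]
  refine ⟨h3, fun e1 => ?_, fun e1 => ?_⟩
  · by_contra hne
    have hy2 : h.1 y < h.2 := lt_of_le_of_ne hy'.1 fun e2 => hne (hy'.2.1 e2)
    have hz2 : h.1 z < h.2 := lt_of_le_of_ne hz'.1 fun e2 => hne (hz'.2.1 e2)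
    rcases eq_or_lt_of_le ha with e0 | e0
    · rw [← e0] at e1; linarith
    · nlinarith
  · rw [hy'.2.2 e1, hz'.2.2 e1]; ring

/-! ### tiles are the top-dimensional cells -/

theorem at_eq_singleton {i : ι} {x : E} (hx : x ∈ I (T.H i)) : T.at_ x = {i} := by
  ext k
  rw [Set.mem_singleton_iff]
  constructor
  · intro hk
    by_contra hne
    exact (Set.disjoint_left.1 (disjoint_P_I (T.ne k) (T.dis k i hne))) hk hx
  · rintro rfl
    exact I_sub_P _ hx

theorem cc_eq_tile {i : ι} {x : E} (hx : x ∈ I (T.H i)) : T.cc x = P (T.H i) := by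
  ext w
  simp only [cc, T.at_eq_singleton hx, Set.mem_singleton_iff, forall_eq]
  constructor
  · intro hw h hh
    exact (hw h hh).1
  · intro hw h hh
    exact ⟨hw h hh, fun e => absurd e (hx h hh).ne⟩

theorem oc_eq_tile {i : ι} {x : E} (hx : x ∈ I (T.H i)) : T.oc x = I (T.H i) := by
  ext w
  simp only [oc, T.at_eq_singleton hx, Set.mem_singleton_iff, forall_eq]
  constructor
  · intro hw h hh
    exact lt_of_le_of_ne (hw h hh).1 fun e => (hx h hh).ne ((hw h hh).2.1 e)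
  · intro hw h hh
    exact ⟨(hw h hh).le, fun e => absurd e (hw h hh).ne, fun e => absurd e (hx h hh).ne⟩

theorem V_eq_top_iff {x : E} (hx : x ∈ Om) : T.V x = ⊤ ↔ ∃ i, x ∈ I (T.H i) := by
  constructor
  · intro hV
    obtain ⟨i, hi⟩ := T.at_nonempty hx
    refine ⟨i, fun h hh => lt_of_le_of_ne (hi h hh) fun e => ?_⟩
    obtain ⟨z, hz⟩ := T.ne i
    have hv : z - x ∈ T.V x := by rw [hV]; trivial
    have := hv i hi h hh e
    rw [map_sub, e] at this
    have := hz h hh
    linarith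
  · rintro ⟨i, hi⟩
    rw [eq_top_iff]
    intro v _ k hk h hh e
    rw [T.at_eq_singleton hi, Set.mem_singleton_iff] at hk
    subst hk
    exact absurd e (hi h hh).ne

end Tiling

end Crest.Agent.R096.Msh_715
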