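import Crest.Agent.R096.Msh4_810
import Crest.Agent.R096.Msh1_715

/-!
# The Whitney mesh as a `Tiling` of 715, in any linear frame

`φ : E ≃L[ℝ] (Fin n → ℝ)` = coordinates of the frame; tiles = preimages of the Whitney cubes.
`T.cc x = φ ⁻¹' (closed mesh cell of φ x)`, `T.oc x = φ ⁻¹' (open mesh cell)`.
-/

set_option autoImplicit false
open MeasureTheory Set
open scoped ENNReal Classical

namespace Crest.Agent.R096.Msh_810

open Crest.Agent.R096.Msh_715 (P I Tiling)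

variable {n : ℕ} {E : Type*} [NormedAddCommGroup E] [NormedSpace ℝ E]

/-- coordinate functional. -/
noncomputable def cf (φ : E ≃L[ℝ] (Fin n → ℝ)) (i : Fin n) : E →L[ℝ] ℝ :=
  (ContinuousLinearMap.proj (R := ℝ) (φ := fun _ : Fin n => ℝ) i).comp
    (φ : E →L[ℝ] (Fin n → ℝ))

@[simp] lemma cf_apply (φ : E ≃L[ℝ] (Fin n → ℝ)) (i : Fin n) (x : E) : cf φ i x = φ x i := rfl

/-- the inequality number `(i, b)` of the cube. -/
noncomputable def hc (φ : E ≃L[ℝ] (Fin n → ℝ)) (a : Fin n → ℝ) (k : ℕ) (z : Fin n → ℤ)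
    (p : Fin n × Bool) : (E →L[ℝ] ℝ) × ℝ :=
  if p.2 then (cf φ p.1, a p.1 + (z p.1 + 1) / 2 ^ k)
  else (- cf φ p.1, -(a p.1 + z p.1 / 2 ^ k))

/-- the `2n` inequalities of a dyadic cube. -/
noncomputable def Hc (φ : E ≃L[ℝ] (Fin n → ℝ)) (a : Fin n → ℝ) (k : ℕ) (z : Fin n → ℤ) :
    Finset ((E →L[ℝ] ℝ) × ℝ) := Finset.univ.image (hc φ a k z)

lemma hc_true_le {φ : E ≃L[ℝ] (Fin n → ℝ)} {a : Fin n → ℝ} {k : ℕ} {z : Fin n → ℤ} {i : Fin n}
    {x : E} : ((hc φ a k z (i, true)).1 x ≤ (hc φ a k z (i, true)).2 ↔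
      ps a k (φ x) i ≤ z i + 1) ∧ ((hc φ a k z (i, true)).1 x < (hc φ a k z (i, true)).2 ↔
      ps a k (φ x) i < z i + 1) ∧ ((hc φ a k z (i, true)).1 x = (hc φ a k z (i, true)).2 ↔
      ps a k (φ x) i = z i + 1) := by
  have hp : (0 : ℝ) < 2 ^ k := by positivity
  have e : (hc φ a k z (i, true)).1 x = φ x i := rfl
  have e' : (hc φ a k z (i, true)).2 = a i + (z i + 1) / 2 ^ k := rfl
  rw [e, e']
  unfold ps
  refine ⟨?_, ?_, ?_⟩
  · rw [← sub_le_iff_le_add', le_div_iff₀' hp]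
  · rw [← sub_lt_iff_lt_add', lt_div_iff₀' hp]
  · rw [← sub_eq_iff_eq_add', eq_div_iff hp.ne', mul_comm]

lemma hc_false_le {φ : E ≃L[ℝ] (Fin n → ℝ)} {a : Fin n → ℝ} {k : ℕ} {z : Fin n → ℤ} {i : Fin n}
    {x : E} : ((hc φ a k z (i, false)).1 x ≤ (hc φ a k z (i, false)).2 ↔
      (z i : ℝ) ≤ ps a k (φ x) i) ∧ ((hc φ a k z (i, false)).1 x < (hc φ a k z (i, false)).2 ↔
      (z i : ℝ) < ps a k (φ x) i) ∧ ((hc φ a k z (i, false)).1 x = (hc φ a k z (i, false)).2 ↔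
      ps a k (φ x) i = z i) := by
  have hp : (0 : ℝ) < 2 ^ k := by positivity
  have e : (hc φ a k z (i, false)).1 x = - φ x i := rfl
  have e' : (hc φ a k z (i, false)).2 = -(a i + z i / 2 ^ k) := rfl
  rw [e, e']
  unfold ps
  refine ⟨?_, ?_, ?_⟩
  · rw [neg_le_neg_iff, ← le_sub_iff_add_le', div_le_iff₀' hp]
  · rw [neg_lt_neg_iff, ← lt_sub_iff_add_lt', div_lt_iff₀' hp]
  · rw [neg_inj, ← sub_eq_iff_eq_add', eq_div_iff hp.ne', mul_comm]

lemma forall_Hc {φ : E ≃L[ℝ] (Fin n → ℝ)} {a : Fin n → ℝ} {k : ℕ} {z : Fin n → ℤ}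
    {Q : (E →L[ℝ] ℝ) × ℝ → Prop} : (∀ h ∈ Hc φ a k z, Q h) ↔
      ∀ i, Q (hc φ a k z (i, true)) ∧ Q (hc φ a k z (i, false)) := by
  constructor
  · intro h i
    exact ⟨h _ (Finset.mem_image_of_mem _ (Finset.mem_univ _)),
      h _ (Finset.mem_image_of_mem _ (Finset.mem_univ _))⟩
  · intro h q hq
    obtain ⟨⟨i, b⟩, -, rfl⟩ := Finset.mem_image.1 hq
    cases b
    · exact (h i).2
    · exact (h i).1

lemma P_Hc (φ : E ≃L[ℝ] (Fin n → ℝ)) (a : Fin n → ℝ) (k : ℕ) (z : Fin n → ℤ) :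
    P (Hc φ a k z) = φ ⁻¹' (Cu a k z) := by
  ext x
  rw [mem_preimage, mem_Cu]
  change (∀ h ∈ Hc φ a k z, h.1 x ≤ h.2) ↔ _
  rw [forall_Hc]
  refine forall_congr' fun i => ?_
  rw [hc_true_le.1, hc_false_le.1, and_comm]

lemma I_Hc (φ : E ≃L[ℝ] (Fin n → ℝ)) (a : Fin n → ℝ) (k : ℕ) (z : Fin n → ℤ) :
    I (Hc φ a k z) = φ ⁻¹' (Do a ⟨k, z, Finset.univ⟩) := by
  ext x
  rw [mem_preimage]
  change (∀ h ∈ Hc φ a k z, h.1 x < h.2) ↔ _
  rw [forall_Hc]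
  simp only [Do, mem_ofPred_eq, Finset.mem_univ, forall_true_left, not_true_eq_false,
    IsEmpty.forall_iff, and_true]
  refine forall_congr' fun i => ?_
  rw [hc_true_le.2.1, hc_false_le.2.1, and_comm]

variable (φ : E ≃L[ℝ] (Fin n → ℝ)) (D : Dat n)

/-- the tiles: mesh cells of full dimension. -/
abbrev Top (D : Dat n) : Type := {τ : Cel D // τ.1.J = Finset.univ}

lemma Top.c_eq {D : Dat n} (τ : Top D) : τ.1.c = Cu D.a τ.1.1.k τ.1.1.z := by
  obtain ⟨⟨⟨k, z, J⟩, hτ⟩, hJ⟩ := τ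
  simp only at hJ
  subst hJ
  rfl

lemma Top.o_eq {D : Dat n} (τ : Top D) : τ.1.o = Do D.a ⟨τ.1.1.k, τ.1.1.z, Finset.univ⟩ := by
  obtain ⟨⟨⟨k, z, J⟩, hτ⟩, hJ⟩ := τ
  simp only at hJ
  subst hJ
  rfl

/-- the Whitney tiling in the frame `φ`. -/
noncomputable def tiling : Tiling (φ ⁻¹' D.Om) (Top D) where
  H τ := Hc φ D.a τ.1.1.k τ.1.1.z
  cpt τ := by
    rw [P_Hc, ← Top.c_eq]
    exact φ.toHomeomorph.isCompact_preimage.2 τ.1.isCompact_c
  ne τ := by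
    rw [I_Hc, ← Top.o_eq]
    obtain ⟨x, hx⟩ := τ.1.o_nonempty
    exact ⟨φ.symm x, by simpa using hx⟩
  sub τ := by
    rw [P_Hc, ← Top.c_eq]
    exact preimage_mono τ.1.c_subset_Om
  cov x hx := by
    obtain ⟨τ, h1, -, h3⟩ := Cel.exists_top (Cel.of (φ x) hx)
    refine ⟨⟨τ, h1⟩, ?_⟩
    rw [P_Hc, ← Top.c_eq ⟨τ, h1⟩]
    exact h3 (Cel.o_subset_c _ (Cel.mem_of _ hx))
  dis τ τ' h := by
    rw [I_Hc, I_Hc, ← Top.o_eq, ← Top.o_eq]
    refine Disjoint.preimage _ (Cel.pairwise_disjoint fun h' => h (Subtype.ext h'))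
  lf x hx := by
    obtain ⟨r, hr, hfin⟩ := Cel.locallyFinite (φ x) hx
    have hc : φ ⁻¹' (Metric.ball (φ x) r) ∈ nhds x :=
      φ.continuous.continuousAt.preimage_mem_nhds (Metric.ball_mem_nhds _ hr)
    obtain ⟨s, hs, hsub⟩ := Metric.mem_nhds_iff.1 hc
    refine ⟨s, hs, (hfin.preimage Subtype.val_injective.injOn).subset ?_⟩
    rintro τ ⟨y, hy, hy'⟩
    rw [P_Hc, ← Top.c_eq] at hy
    exact ⟨φ y, hy, hsub hy'⟩
  op := (isOpen_lt continuous_const D.continuous_ρ).preimage φ.continuous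

variable {φ D}

lemma mem_at {x : E} {τ : Top D} : τ ∈ (tiling φ D).at_ x ↔ φ x ∈ τ.1.c := by
  change x ∈ P (Hc φ D.a τ.1.1.k τ.1.1.z) ↔ _
  rw [P_Hc, ← Top.c_eq, mem_preimage]

/-- the closed cells of the tiling are the closed mesh cells. -/
theorem cc_eq {x : E} (hx : φ x ∈ D.Om) :
    (tiling φ D).cc x = φ ⁻¹' (Cel.of (φ x) hx).c := by
  ext y
  rw [mem_preimage]
  constructor
  · intro hy
    obtain ⟨τ, h1, h2, h3⟩ := Cel.exists_top (Cel.of (φ x) hx)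
    have hxτ : φ x ∈ τ.c := h3 (Cel.o_subset_c _ (Cel.mem_of _ hx))
    have h4 := hy ⟨τ, h1⟩ (mem_at.2 hxτ)
    have h5 : ∀ i, _ := forall_Hc.1 h4
    have hk : τ.1.k = K D (φ x) := h2
    have hxτ' := (Top.c_eq ⟨τ, h1⟩).subset hxτ
    rw [mem_Cu] at hxτ'
    intro i
    obtain ⟨⟨h6, h7⟩, h8, h9⟩ := h5 i
    rw [hc_true_le.1] at h6
    rw [hc_true_le.2.2, hc_true_le.2.2] at h7
    rw [hc_false_le.1] at h8
    rw [hc_false_le.2.2, hc_false_le.2.2] at h9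
    obtain ⟨h10, h11⟩ := hxτ' i
    simp only [hk] at h6 h7 h8 h9 h10 h11
    change (i ∈ (cellOf D.a (K D (φ x)) (φ x)).J →
      ((⌊ps D.a (K D (φ x)) (φ x) i⌋ : ℤ) : ℝ) ≤ ps D.a (K D (φ x)) (φ y) i ∧
      ps D.a (K D (φ x)) (φ y) i ≤ ((⌊ps D.a (K D (φ x)) (φ x) i⌋ : ℤ) : ℝ) + 1) ∧
      (i ∉ (cellOf D.a (K D (φ x)) (φ x)).J →
        ps D.a (K D (φ x)) (φ y) i = ((⌊ps D.a (K D (φ x)) (φ x) i⌋ : ℤ) : ℝ))
    rw [mem_J_cellOf]
    rcases eq_or_lt_of_le h10 with h | h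
    · -- lower face
      have e := h9 h.symm
      rw [← h, Int.floor_intCast]
      exact ⟨fun hh => absurd rfl hh, fun _ => e⟩
    · rcases eq_or_lt_of_le h11 with h' | h'
      · have e := h7 h'
        have e2 : (τ.1.z i : ℝ) + 1 = ((τ.1.z i + 1 : ℤ) : ℝ) := by push_cast; rfl
        rw [h', e2, Int.floor_intCast]
        exact ⟨fun hh => absurd rfl hh, fun _ => by rw [e, e2]⟩
      · have hf : ⌊ps D.a (K D (φ x)) (φ x) i⌋ = τ.1.z i := Int.floor_eq_iff.2 ⟨h.le, h'⟩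
        rw [hf]
        exact ⟨fun _ => ⟨h8, h6⟩, fun hh => absurd h.ne' hh⟩
  · intro hy τ hτ
    rw [mem_at] at hτ
    have hle : Cel.of (φ x) hx ≤ τ.1 := Cel.of_le hτ
    have hyτ : φ y ∈ τ.1.c := hle hy
    have hyτ' := (Top.c_eq τ).subset hyτ
    rw [mem_Cu] at hyτ'
    have hxτ' := (Top.c_eq τ).subset hτ
    rw [mem_Cu] at hxτ'
    refine forall_Hc.2 fun i => ?_
    have hkK : τ.1.1.k ≤ K D (φ x) := τ.1.2.le_K hτ
    refine ⟨⟨?_, ?_⟩, ⟨?_, ?_⟩⟩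
    · exact hc_true_le.1.2 (hyτ' i).2
    · intro h
      rw [hc_true_le.2.2] at h ⊢
      let ψ : Idx n := ⟨τ.1.1.k, fun j => if j = i then τ.1.1.z i + 1 else τ.1.1.z j,
        Finset.univ.erase i⟩
      have hψ : φ x ∈ Dc D.a ψ := by
        intro j
        refine ⟨fun hj => ?_, fun hj => ?_⟩
        · have hji : j ≠ i := Finset.ne_of_mem_erase hj
          simp only [ψ, if_neg hji]
          exact hxτ' j
        · have hji : j = i := by simpa [ψ] using hj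
          subst hji
          simp only [ψ, if_true]
          push_cast
          exact h
      have h3 := Dc_cell_subset hψ hkK hy
      have h4 := (h3 i).2 (by simp [ψ])
      simp only [ψ, if_true] at h4
      push_cast at h4
      exact h4
    · exact hc_false_le.1.2 (hyτ' i).1
    · intro h
      rw [hc_false_le.2.2] at h ⊢
      let ψ : Idx n := ⟨τ.1.1.k, τ.1.1.z, Finset.univ.erase i⟩
      have hψ : φ x ∈ Dc D.a ψ := by
        intro j
        refine ⟨fun hj => hxτ' j, fun hj => ?_⟩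
        have hji : j = i := by simpa [ψ] using hj
        subst hji
        exact h
      have h3 := Dc_cell_subset hψ hkK hy
      exact (h3 i).2 (by simp [ψ])

/-- the open cells of the tiling are the open mesh cells. -/
theorem oc_eq {x : E} (hx : φ x ∈ D.Om) :
    (tiling φ D).oc x = φ ⁻¹' (Cel.of (φ x) hx).o := by
  ext y
  rw [mem_preimage]
  constructor
  · intro hy
    have hyc := (tiling φ D).oc_sub_cc x hy
    have hy0 : φ y ∈ D.Om := (tiling φ D).cc_sub_Om (x := x) hx hyc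
    have h1 := ((tiling φ D).cc_eq_iff (x := x) (y := y) hx).2 hy
    rw [cc_eq hx, cc_eq hy0] at h1
    have h2 : (Cel.of (φ y) hy0).c = (Cel.of (φ x) hx).c :=
      φ.surjective.preimage_injective h1
    have h3 := Cel.c_injective h2
    rw [← h3]
    exact Cel.mem_of _ _
  · intro hy
    have hy0 : φ y ∈ D.Om := (Cel.of (φ x) hx).c_subset_Om (Cel.o_subset_c _ hy)
    rw [← (tiling φ D).cc_eq_iff (x := x) (y := y) hx, cc_eq hx, cc_eq hy0,
      Cel.eq_of hy hy0]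

end Crest.Agent.R096.Msh_810
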