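/-
helper731, row 96, leaf U7 BASIC, part 1: the Banach indicatrix of a continuous function on a
segment.  `ν` is any measure dominating the increments of `g` (`ν (Ioc x y) ≥ |g y - g x|`), e.g.
`ν = |g'| dt`.
-/
import Mathlib

set_option autoImplicit false
set_option linter.unusedSectionVars false

open MeasureTheory Set Filter
open scoped ENNReal Topology

namespace Crest.Agent.R096.Bas_731

noncomputable section

/-- number of points of `s` where `g = y` -/
def cnt (g : ℝ → ℝ) (s : Set ℝ) (y : ℝ) : ℝ≥0∞ := ((s ∩ g ⁻¹' {y}).encard : ℝ≥0∞)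

theorem cnt_mono {g : ℝ → ℝ} {s t : Set ℝ} (h : s ⊆ t) (y : ℝ) : cnt g s y ≤ cnt g t y := by
  unfold cnt
  have : (s ∩ g ⁻¹' {y}).encard ≤ (t ∩ g ⁻¹' {y}).encard :=
    encard_le_encard (inter_subset_inter_left _ h)
  exact_mod_cast this

theorem cnt_lt_top {g : ℝ → ℝ} {s : Set ℝ} {y : ℝ} :
    cnt g s y < ∞ ↔ (s ∩ g ⁻¹' {y}).Finite := by
  unfold cnt
  rw [ENat.toENNReal_lt_top, encard_lt_top_iff]

/-- `g` increases by at most `ν` on the parts of `[a,b]` -/
def Dom (g : ℝ → ℝ) (ν : Measure ℝ) (a b : ℝ) : Prop :=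
  ∀ x y, a ≤ x → x ≤ y → y ≤ b → ENNReal.ofReal |g y - g x| ≤ ν (Ioc x y)

/-- the `j`-th piece of level `k` of `(a,b]` -/
def pt (a b : ℝ) (k j : ℕ) : ℝ := a + j * ((b - a) / 2 ^ k)

def pc (a b : ℝ) (k j : ℕ) : Set ℝ := Ioc (pt a b k j) (pt a b k (j + 1))

theorem pt_zero (a b : ℝ) (k : ℕ) : pt a b k 0 = a := by simp [pt]

theorem pt_top (a b : ℝ) (k : ℕ) : pt a b k (2 ^ k) = b := by
  unfold pt
  push_cast
  field_simp
  ring

theorem pt_mono {a b : ℝ} (hab : a ≤ b) (k : ℕ) : Monotone (pt a b k) := by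
  intro i j hij
  unfold pt
  have h1 : (0 : ℝ) ≤ (b - a) / 2 ^ k := div_nonneg (sub_nonneg.2 hab) (by positivity)
  have h2 : (i : ℝ) ≤ j := by exact_mod_cast hij
  nlinarith [mul_le_mul_of_nonneg_right h2 h1]

theorem pt_le {a b : ℝ} (hab : a ≤ b) {k j : ℕ} (hj : j ≤ 2 ^ k) : pt a b k j ≤ b :=
  (pt_mono hab k hj).trans (pt_top a b k).le

theorem le_pt {a b : ℝ} (hab : a ≤ b) (k j : ℕ) : a ≤ pt a b k j :=
  (pt_zero a b k).ge.trans (pt_mono hab k (Nat.zero_le j))

theorem pc_disj {a b : ℝ} (hab : a ≤ b) (k : ℕ) {i j : ℕ} (hij : i ≠ j) :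
    Disjoint (pc a b k i) (pc a b k j) := by
  rw [Set.disjoint_left]
  intro x hx hx'
  rcases lt_or_gt_of_ne hij with h | h
  · have := pt_mono hab k (Nat.succ_le_of_lt h)
    exact absurd (lt_of_lt_of_le hx'.1 hx.2) (not_lt.2 this)
  · have := pt_mono hab k (Nat.succ_le_of_lt h)
    exact absurd (lt_of_lt_of_le hx.1 hx'.2) (not_lt.2 this)

theorem exists_pc {a b : ℝ} (k : ℕ) {x : ℝ} (hx : x ∈ Ioc a b) :
    ∃ j < 2 ^ k, x ∈ pc a b k j := by
  classical
  have hP : ∃ n, x ≤ pt a b k n := ⟨2 ^ k, by rw [pt_top]; exact hx.2⟩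
  set n := Nat.find hP with hn
  have h1 : x ≤ pt a b k n := Nat.find_spec hP
  have hn0 : n ≠ 0 := by
    intro h0
    rw [h0, pt_zero] at h1
    exact absurd hx.1 (not_lt.2 h1)
  obtain ⟨m, hm⟩ := Nat.exists_eq_succ_of_ne_zero hn0
  have h2 : ¬ x ≤ pt a b k m := Nat.find_min hP (by omega)
  have h3 : n ≤ 2 ^ k := Nat.find_min' hP (by rw [pt_top]; exact hx.2)
  refine ⟨m, by omega, not_le.1 h2, ?_⟩
  rw [hm] at h1
  exact h1

theorem pc_sub {a b : ℝ} (hab : a ≤ b) {k j : ℕ} (hj : j < 2 ^ k) : pc a b k j ⊆ Ioc a b := by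
  intro x hx
  exact ⟨lt_of_le_of_lt (le_pt hab k j) hx.1, hx.2.trans (pt_le hab (Nat.succ_le_of_lt hj))⟩

/-- the approximate indicatrix -/
def Nk (g : ℝ → ℝ) (a b : ℝ) (k : ℕ) (y : ℝ) : ℝ≥0∞ :=
  ∑ j ∈ Finset.range (2 ^ k), (g '' pc a b k j).indicator 1 y

theorem measurableSet_image {g : ℝ → ℝ} {a b : ℝ} (hg : ContinuousOn g (Icc a b))
    (hab : a ≤ b) {k j : ℕ} (hj : j < 2 ^ k) : MeasurableSet (g '' pc a b k j) := by
  have h1 : ContinuousOn g (pc a b k j) :=
    hg.mono ((pc_sub hab hj).trans Ioc_subset_Icc_self)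
  have h2 : IsPreconnected (g '' pc a b k j) := isPreconnected_Ioc.image g h1
  exact h2.ordConnected.measurableSet

theorem measurable_Nk {g : ℝ → ℝ} {a b : ℝ} (hg : ContinuousOn g (Icc a b)) (hab : a ≤ b)
    (k : ℕ) : Measurable (Nk g a b k) := by
  unfold Nk
  apply Finset.measurable_sum
  intro j hj
  exact measurable_one.indicator (measurableSet_image hg hab (Finset.mem_range.1 hj))

theorem volume_image_le {g : ℝ → ℝ} {ν : Measure ℝ} {a b : ℝ} (h : Dom g ν a b) (hab : a ≤ b)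
    {k j : ℕ} (hj : j < 2 ^ k) : volume (g '' pc a b k j) ≤ ν (pc a b k j) := by
  refine (Real.volume_le_diam _).trans ?_
  apply Metric.ediam_le
  rintro _ ⟨x, hx, rfl⟩ _ ⟨y, hy, rfl⟩
  have key : ∀ x y, x ∈ pc a b k j → y ∈ pc a b k j → x ≤ y → edist (g x) (g y) ≤ ν (pc a b k j) := by
    intro x y hx hy hxy
    rw [edist_comm, edist_dist, Real.dist_eq]
    refine (h x y ?_ hxy ?_).trans (measure_mono ?_)
    · exact ((pc_sub hab hj) hx).1.le
    · exact ((pc_sub hab hj) hy).2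
    · exact Ioc_subset_Ioc hx.1.le hy.2
  rcases le_total x y with hxy | hxy
  · exact key x y hx hy hxy
  · rw [edist_comm]; exact key y x hy hx hxy

theorem lintegral_Nk_le {g : ℝ → ℝ} {ν : Measure ℝ} {a b : ℝ} (hg : ContinuousOn g (Icc a b))
    (h : Dom g ν a b) (hab : a ≤ b) (k : ℕ) : ∫⁻ y, Nk g a b k y ≤ ν (Ioc a b) := by
  unfold Nk
  rw [lintegral_finsetSum]
  · calc ∑ j ∈ Finset.range (2 ^ k), ∫⁻ y, (g '' pc a b k j).indicator 1 y
        ≤ ∑ j ∈ Finset.range (2 ^ k), ν (pc a b k j) := by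
          apply Finset.sum_le_sum
          intro j hj
          rw [lintegral_indicator_one (measurableSet_image hg hab (Finset.mem_range.1 hj))]
          exact volume_image_le h hab (Finset.mem_range.1 hj)
      _ = ν (⋃ j ∈ Finset.range (2 ^ k), pc a b k j) := by
          rw [measure_biUnion_finset]
          · intro i _ j _ hij
            exact pc_disj hab k hij
          · intro j _
            exact measurableSet_Ioc
      _ ≤ ν (Ioc a b) := by
          apply measure_mono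
          apply iUnion₂_subset
          intro j hj
          exact pc_sub hab (Finset.mem_range.1 hj)
  · intro j hj
    exact measurable_one.indicator (measurableSet_image hg hab (Finset.mem_range.1 hj))

open Classical in
theorem Nk_eq (g : ℝ → ℝ) (a b : ℝ) (k : ℕ) (y : ℝ) :
    Nk g a b k y = (((Finset.range (2 ^ k)).filter fun j => y ∈ g '' pc a b k j).card : ℝ≥0∞) := by
  unfold Nk
  rw [Finset.card_filter]
  push_cast
  apply Finset.sum_congr rfl
  intro j _
  by_cases hy : y ∈ g '' pc a b k j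
  · rw [indicator_of_mem hy, if_pos hy]; rfl
  · rw [indicator_of_notMem hy, if_neg hy]

theorem Nk_le_cnt {g : ℝ → ℝ} {a b : ℝ} (hab : a ≤ b) (k : ℕ) (y : ℝ) :
    Nk g a b k y ≤ cnt g (Ioc a b) y := by
  classical
  rw [Nk_eq]
  set J := (Finset.range (2 ^ k)).filter fun j => y ∈ g '' pc a b k j with hJ
  have hch : ∀ j ∈ J, ∃ x, x ∈ pc a b k j ∧ g x = y := by
    intro j hj
    obtain ⟨x, hx, hxy⟩ := (Finset.mem_filter.1 hj).2
    exact ⟨x, hx, hxy⟩
  choose! p hp hgp using hch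
  have hinj : Set.InjOn p (J : Set ℕ) := by
    intro i hi j hj hij
    by_contra hne
    have := Set.disjoint_left.1 (pc_disj hab k hne) (hp i hi)
    rw [hij] at this
    exact this (hp j hj)
  have h1 : ((J.image p : Finset ℝ) : Set ℝ) ⊆ Ioc a b ∩ g ⁻¹' {y} := by
    intro x hx
    rw [Finset.coe_image] at hx
    obtain ⟨j, hj, rfl⟩ := hx
    exact ⟨pc_sub hab (Finset.mem_range.1 (Finset.mem_filter.1 hj).1) (hp j hj), hgp j hj⟩
  have h2 : (J.image p).card = J.card := Finset.card_image_of_injOn hinj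
  have h3 : ((J.image p : Finset ℝ) : Set ℝ).encard ≤ (Ioc a b ∩ g ⁻¹' {y}).encard :=
    encard_le_encard h1
  rw [encard_coe_eq_coe_finsetCard, h2] at h3
  unfold cnt
  have h4 := ENat.toENNReal_mono h3
  simpa using h4

theorem card_le_Nk {g : ℝ → ℝ} {a b : ℝ} (y : ℝ) (F : Finset ℝ)
    (hF : (F : Set ℝ) ⊆ Ioc a b ∩ g ⁻¹' {y}) :
    ∀ᶠ k in atTop, (F.card : ℝ≥0∞) ≤ Nk g a b k y := by
  classical
  -- separation of the points of `F`
  obtain ⟨δ, hδ, hsep⟩ : ∃ δ > 0, ∀ x ∈ F, ∀ x' ∈ F, x < x' → δ ≤ x' - x := by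
    by_cases hne : ((F ×ˢ F).filter fun p => p.1 < p.2).Nonempty
    · obtain ⟨p, hp, hmin⟩ := Finset.exists_min_image _ (fun p : ℝ × ℝ => p.2 - p.1) hne
      refine ⟨p.2 - p.1, sub_pos.2 (Finset.mem_filter.1 hp).2, ?_⟩
      intro x hx x' hx' hlt
      exact hmin (x, x') (Finset.mem_filter.2 ⟨Finset.mem_product.2 ⟨hx, hx'⟩, hlt⟩)
    · refine ⟨1, one_pos, ?_⟩
      intro x hx x' hx' hlt
      exact absurd ⟨(x, x'), Finset.mem_filter.2 ⟨Finset.mem_product.2 ⟨hx, hx'⟩, hlt⟩⟩ hne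
  have hlim : Tendsto (fun k : ℕ => (b - a) / 2 ^ k) atTop (𝓝 0) :=
    tendsto_const_nhds.div_atTop (tendsto_pow_atTop_atTop_of_one_lt (by norm_num))
  filter_upwards [hlim.eventually (gt_mem_nhds hδ)] with k hk
  rw [Nk_eq]
  have hch : ∀ x ∈ F, ∃ j < 2 ^ k, x ∈ pc a b k j := fun x hx =>
    exists_pc k (hF hx).1
  choose! q hq hxq using hch
  have hmaps : ∀ x ∈ F, q x ∈ (Finset.range (2 ^ k)).filter fun j => y ∈ g '' pc a b k j := by
    intro x hx
    exact Finset.mem_filter.2 ⟨Finset.mem_range.2 (hq x hx), ⟨x, hxq x hx, (hF hx).2⟩⟩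
  have hinj : Set.InjOn q (F : Set ℝ) := by
    have key : ∀ x ∈ F, ∀ x' ∈ F, x < x' → q x ≠ q x' := by
      intro x hx x' hx' hlt he
      have h1 := (hxq x hx).1
      have h2 := (hxq x' hx').2
      rw [← he] at h2
      have h3 : pt a b k (q x + 1) - pt a b k (q x) = (b - a) / 2 ^ k := by
        unfold pt; push_cast; ring
      have h4 := hsep x hx x' hx' hlt
      linarith
    intro x hx x' hx' he
    rcases lt_trichotomy x x' with h | h | h
    · exact absurd he (key x hx x' hx' h)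
    · exact h
    · exact absurd he.symm (key x' hx' x hx h)
  have := Finset.card_le_card_of_injOn q hmaps hinj
  exact_mod_cast this

theorem cnt_le_liminf {g : ℝ → ℝ} {a b : ℝ} (y : ℝ) :
    cnt g (Ioc a b) y ≤ liminf (fun k => Nk g a b k y) atTop := by
  have key : ∀ n : ℕ, (n : ℕ∞) ≤ (Ioc a b ∩ g ⁻¹' {y}).encard →
      (n : ℝ≥0∞) ≤ liminf (fun k => Nk g a b k y) atTop := by
    intro n hn
    obtain ⟨t, ht, htn⟩ := exists_subset_encard_eq hn
    have hfin : t.Finite := finite_of_encard_eq_coe htn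
    obtain ⟨F, rfl⟩ := hfin.exists_finset_coe
    rw [encard_coe_eq_coe_finsetCard] at htn
    have htn' : F.card = n := by exact_mod_cast htn
    rw [← htn']
    exact le_liminf_of_le (by isBoundedDefault) (card_le_Nk y F ht)
  unfold cnt
  rcases eq_or_ne (Ioc a b ∩ g ⁻¹' {y}).encard ⊤ with h | h
  · rw [h]
    have : ∀ n : ℕ, (n : ℝ≥0∞) ≤ liminf (fun k => Nk g a b k y) atTop := fun n =>
      key n (by rw [h]; exact le_top)
    rw [ENNReal.eq_top_of_forall_nnreal_le (x := liminf (fun k => Nk g a b k y) atTop)]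
    · exact le_top
    · intro r
      obtain ⟨n, hn⟩ := exists_nat_ge r
      refine le_trans ?_ (this n)
      exact_mod_cast hn
  · obtain ⟨n, hn⟩ := ENat.ne_top_iff_exists.1 h
    rw [← hn]
    simpa using key n hn.le

theorem tendsto_Nk {g : ℝ → ℝ} {a b : ℝ} (hab : a ≤ b) (y : ℝ) :
    Tendsto (fun k => Nk g a b k y) atTop (𝓝 (cnt g (Ioc a b) y)) := by
  apply tendsto_of_le_liminf_of_limsup_le (cnt_le_liminf y)
  apply limsup_le_of_le (by isBoundedDefault)
  exact Eventually.of_forall fun k => Nk_le_cnt hab k y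

theorem measurable_cnt {g : ℝ → ℝ} {a b : ℝ} (hg : ContinuousOn g (Icc a b)) (hab : a ≤ b) :
    Measurable (cnt g (Ioc a b)) :=
  measurable_of_tendsto_metrizable (fun k => measurable_Nk hg hab k)
    (tendsto_pi_nhds.2 fun y => tendsto_Nk hab y)

/-- **Banach indicatrix** on `(a,b]`. -/
theorem lintegral_cnt_le {g : ℝ → ℝ} {ν : Measure ℝ} {a b : ℝ} (hg : ContinuousOn g (Icc a b))
    (h : Dom g ν a b) : ∫⁻ y, cnt g (Ioc a b) y ≤ ν (Ioc a b) := by
  rcases le_or_gt a b with hab | hab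
  · calc ∫⁻ y, cnt g (Ioc a b) y ≤ ∫⁻ y, liminf (fun k => Nk g a b k y) atTop :=
        lintegral_mono fun y => cnt_le_liminf y
      _ ≤ liminf (fun k => ∫⁻ y, Nk g a b k y) atTop :=
        lintegral_liminf_le fun k => measurable_Nk hg hab k
      _ ≤ ν (Ioc a b) := by
        apply liminf_le_of_le (by isBoundedDefault)
        intro c hc
        obtain ⟨k, hk⟩ := hc.exists
        exact hk.trans (lintegral_Nk_le hg h hab k)
  · simp [cnt, Ioc_eq_empty (not_lt.2 hab.le)]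

theorem cnt_Icc_le (g : ℝ → ℝ) (a b y : ℝ) :
    cnt g (Icc a b) y ≤ cnt g (Ioc a b) y + ({g a} : Set ℝ).indicator 1 y := by
  classical
  unfold cnt
  by_cases hy : y = g a
  · subst hy
    rw [indicator_of_mem (mem_singleton _)]
    have h1 : Icc a b ∩ g ⁻¹' {g a} ⊆ insert a (Ioc a b ∩ g ⁻¹' {g a}) := by
      rintro x ⟨⟨h1, h2⟩, h3⟩
      rcases h1.lt_or_eq with h | h
      · exact Or.inr ⟨⟨h, h2⟩, h3⟩
      · exact Or.inl h.symm
    have h2 : (Icc a b ∩ g ⁻¹' {g a}).encard ≤ (Ioc a b ∩ g ⁻¹' {g a}).encard + 1 :=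
      (encard_le_encard h1).trans (encard_insert_le _ _)
    have h3 := ENat.toENNReal_mono h2
    simpa using h3
  · rw [indicator_of_notMem (by simpa using hy), add_zero]
    have h1 : Icc a b ∩ g ⁻¹' {y} ⊆ Ioc a b ∩ g ⁻¹' {y} := by
      rintro x ⟨⟨h1, h2⟩, h3⟩
      refine ⟨⟨lt_of_le_of_ne h1 ?_, h2⟩, h3⟩
      rintro rfl
      exact hy h3.symm
    exact ENat.toENNReal_mono (encard_le_encard h1)

/-- **Banach indicatrix** on `[a,b]`. -/
theorem lintegral_cnt_Icc_le {g : ℝ → ℝ} {ν : Measure ℝ} {a b : ℝ}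
    (hg : ContinuousOn g (Icc a b)) (h : Dom g ν a b) :
    ∫⁻ y, cnt g (Icc a b) y ≤ ν (Ioc a b) := by
  refine le_trans ?_ (lintegral_cnt_le hg h)
  calc ∫⁻ y, cnt g (Icc a b) y ≤ ∫⁻ y, (cnt g (Ioc a b) y + ({g a} : Set ℝ).indicator 1 y) :=
        lintegral_mono fun y => cnt_Icc_le g a b y
    _ = ∫⁻ y, cnt g (Ioc a b) y := by
        rw [lintegral_add_right _ (measurable_one.indicator (measurableSet_singleton _)),
          lintegral_indicator_one (measurableSet_singleton _)]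
        simp

/-- almost every level is taken finitely often -/
theorem ae_finite {g : ℝ → ℝ} {ν : Measure ℝ} {a b : ℝ} (hg : ContinuousOn g (Icc a b))
    (h : Dom g ν a b) (hν : ν (Ioc a b) ≠ ∞) : ∀ᵐ y : ℝ, (Icc a b ∩ g ⁻¹' {y}).Finite := by
  rcases le_or_gt a b with hab | hab
  · have h1 : ∫⁻ y, liminf (fun k => Nk g a b k y) atTop ≠ ∞ := by
      refine ne_top_of_le_ne_top hν ?_
      refine (lintegral_liminf_le fun k => measurable_Nk hg hab k).trans ?_
      apply liminf_le_of_le (by isBoundedDefault)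
      intro c hc
      obtain ⟨k, hk⟩ := hc.exists
      exact hk.trans (lintegral_Nk_le hg h hab k)
    have h2 : Measurable fun y => liminf (fun k => Nk g a b k y) atTop :=
      Measurable.liminf fun k => measurable_Nk hg hab k
    filter_upwards [ae_lt_top h2 h1] with y hy
    rw [← cnt_lt_top]
    refine lt_of_le_of_lt (cnt_Icc_le g a b y) (ENNReal.add_lt_top.2 ⟨?_, ?_⟩)
    · exact lt_of_le_of_lt (cnt_le_liminf y) hy
    · by_cases hyg : y = g a
      · rw [indicator_of_mem (by simpa using hyg)]; exact ENNReal.one_lt_top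
      · rw [indicator_of_notMem (by simpa using hyg)]; exact ENNReal.zero_lt_top
  · filter_upwards with y
    rw [Icc_eq_empty (not_le.2 hab)]
    simp

end

end Crest.Agent.R096.Bas_731
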