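/-
helper922, row 96, [OE] of 324 #10731: the 1-cells of the graded cubes (tiling `φ D` of 810) inside a
tile of scale `k` are segments of the grids of scale `k` or `k + 1`; universal number of candidates.
-/
import Mathlib
import Crest.Agent.R096.Msh6_810
import Crest.Agent.R096.Msh2_715
import Crest.Agent.R96.Sg1_199

set_option autoImplicit false
set_option linter.unusedSectionVars false

open Set

namespace Crest.Agent.R096.Eog_922

open Crest.Agent.R096.Msh_715 Crest.Agent.R096.Msh_810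
open Crest.Agent.R96.Sg1_199 (sgm)

noncomputable section

variable {E : Type*} [NormedAddCommGroup E] [NormedSpace ℝ E] {n : ℕ}
  {φ : E ≃L[ℝ] (Fin n → ℝ)} {D : Dat n}

/-- directions of the cells of the graded cubes -/
theorem mem_V_tiling {x : E} (hx : φ x ∈ D.Om) {v : E} :
    v ∈ (tiling φ D).V x ↔ ∀ l, l ∉ (Cel.of (φ x) hx).1.J → φ v l = 0 := by
  set σ := (Cel.of (φ x) hx).1 with hσ
  have hxo : φ x ∈ Do D.a σ := Cel.mem_of _ hx
  have hpos : ∀ s : ℝ, ∀ l, ps D.a σ.k (φ (x + s • v)) l = ps D.a σ.k (φ x) l + 2 ^ σ.k * (s * φ v l) := by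
    intro s l
    unfold ps
    rw [map_add, map_smul, Pi.add_apply, Pi.smul_apply, smul_eq_mul]
    ring
  constructor
  · intro hv l hl
    obtain ⟨r, hr, hb⟩ := (tiling φ D).exists_ball_oc (x := x) hx
    -- a small multiple
    set s : ℝ := r / (2 * (‖v‖ + 1)) with hs
    have hv0 := norm_nonneg v
    have hs0 : 0 < s := by positivity
    have hsm : ‖s • v‖ < r := by
      rw [norm_smul, Real.norm_eq_abs, abs_of_pos hs0, hs, div_mul_eq_mul_div, div_lt_iff₀ (by positivity)]
      nlinarith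
    have h1 := hb (s • v) ((tiling φ D).V x |>.smul_mem s hv) hsm
    rw [oc_eq hx] at h1
    have h2 := (h1 l).2 hl
    have h3 := (hxo l).2 hl
    rw [hpos] at h2
    have h4 : (2 : ℝ) ^ σ.k * (s * φ v l) = 0 := by
      have : ps D.a (Cel.of (φ x) hx).1.k (φ x) l = ((Cel.of (φ x) hx).1.z l : ℝ) := h3
      linarith
    have h5 : (2 : ℝ) ^ σ.k ≠ 0 := by positivity
    have h6 := (mul_eq_zero.1 h4).resolve_left h5
    exact (mul_eq_zero.1 h6).resolve_left hs0.ne'
  · intro hv
    -- a small multiple stays in the open cell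
    have h1 : ∃ s : ℝ, 0 < s ∧ φ (x + s • v) ∈ Do D.a σ := by
      have hev : ∀ l : Fin n, ∀ᶠ s in nhdsWithin (0 : ℝ) (Ioi 0),
          ((l ∈ σ.J → (σ.z l : ℝ) < ps D.a σ.k (φ (x + s • v)) l ∧
            ps D.a σ.k (φ (x + s • v)) l < σ.z l + 1) ∧
            (l ∉ σ.J → ps D.a σ.k (φ (x + s • v)) l = σ.z l)) := by
        intro l
        by_cases hl : l ∈ σ.J
        · have h2 := (hxo l).1 hl
          have hc : Filter.Tendsto (fun s : ℝ => ps D.a σ.k (φ (x + s • v)) l) (nhds 0)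
              (nhds (ps D.a σ.k (φ x) l)) := by
            have : (fun s : ℝ => ps D.a σ.k (φ (x + s • v)) l) =
                fun s => ps D.a σ.k (φ x) l + 2 ^ σ.k * (s * φ v l) := funext fun s => hpos s l
            rw [this]
            have h3 : Continuous fun s : ℝ => ps D.a σ.k (φ x) l + 2 ^ σ.k * (s * φ v l) := by
              fun_prop
            have h4 := h3.tendsto 0
            simpa using h4
          filter_upwards [(hc.eventually (lt_mem_nhds h2.1)).filter_mono nhdsWithin_le_nhds,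
            (hc.eventually (gt_mem_nhds h2.2)).filter_mono nhdsWithin_le_nhds] with s h3 h4
          exact ⟨fun _ => ⟨h3, h4⟩, fun h => absurd hl h⟩
        · filter_upwards with s
          refine ⟨fun h => absurd h hl, fun _ => ?_⟩
          rw [hpos, hv l hl, (hxo l).2 hl]
          ring
      obtain ⟨s, hs, hs0⟩ := ((Filter.eventually_all.2 hev).and self_mem_nhdsWithin).exists
      exact ⟨s, hs0, hs⟩
    obtain ⟨s, hs0, hs⟩ := h1
    have h2 : x + s • v ∈ (tiling φ D).cc x := by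
      rw [cc_eq hx]
      exact Do_subset_Dc _ _ hs
    have h3 := (tiling φ D).sub_mem_V h2
    rw [add_sub_cancel_left] at h3
    have h4 := (tiling φ D).V x |>.smul_mem s⁻¹ h3
    rwa [inv_smul_smul₀ hs0.ne'] at h4

theorem eq_singleton_of_dim [FiniteDimensional ℝ E] {x : E} (hx : φ x ∈ D.Om)
    (hd : (tiling φ D).dim x = 1) : ∃ l, (Cel.of (φ x) hx).1.J = {l} := by
  classical
  set T := tiling φ D
  have hne : T.V x ≠ ⊥ := by
    intro h
    have := T.dim_eq_zero_iff.2 h
    omega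
  obtain ⟨v, hv, hv0⟩ := Submodule.exists_mem_ne_zero_of_ne_bot hne
  have hline : ∀ w ∈ T.V x, ∃ c : ℝ, w = c • v := by
    intro w hw
    have h1 : Module.finrank ℝ (T.V x) = 1 := hd
    obtain ⟨c, hc⟩ := (finrank_eq_one_iff_of_nonzero' (⟨v, hv⟩ : T.V x)
      (by simpa using hv0)).1 h1 ⟨w, hw⟩
    refine ⟨c, ?_⟩
    have := congrArg Subtype.val hc
    simpa using this.symm
  -- a direction in `J`
  have hex : ∃ l, φ v l ≠ 0 := by
    by_contra hcon
    push Not at hcon
    apply hv0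
    apply φ.injective
    rw [map_zero]
    exact funext hcon
  obtain ⟨l, hl⟩ := hex
  have hlJ : l ∈ (Cel.of (φ x) hx).1.J := by
    by_contra hcon
    exact hl ((mem_V_tiling hx).1 hv l hcon)
  refine ⟨l, ?_⟩
  ext m
  rw [Finset.mem_singleton]
  constructor
  · intro hm
    by_contra hne'
    have hmem : ∀ j ∈ (Cel.of (φ x) hx).1.J, φ.symm (Pi.single j (1 : ℝ)) ∈ T.V x := by
      intro j hj
      rw [mem_V_tiling hx]
      intro i hi
      rw [φ.apply_symm_apply]
      have : i ≠ j := fun h => hi (h ▸ hj)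
      rw [Pi.single_eq_of_ne this]
    obtain ⟨c, hc⟩ := hline _ (hmem l hlJ)
    obtain ⟨c', hc'⟩ := hline _ (hmem m hm)
    have e1 := congrFun (congrArg φ hc) l
    have e2 := congrFun (congrArg φ hc') l
    have e3 := congrFun (congrArg φ hc') m
    have e4 := congrFun (congrArg φ hc) m
    rw [φ.apply_symm_apply, map_smul, Pi.smul_apply, smul_eq_mul] at e1 e2 e3 e4
    rw [Pi.single_eq_same] at e1 e3
    rw [Pi.single_eq_of_ne (Ne.symm hne')] at e2
    have hc0 : c' = 0 := (mul_eq_zero.1 e2.symm).resolve_right hl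
    rw [hc0, zero_mul] at e3
    exact one_ne_zero e3
  · rintro rfl
    exact hlJ

/-- the base points of the candidates -/
def gx (φ : E ≃L[ℝ] (Fin n → ℝ)) (j : ℕ × (Fin n → ℤ) × Fin n) : E := φ.symm (vx 0 j.1 j.2.1)
/-- the directions of the candidates -/
def gv (φ : E ≃L[ℝ] (Fin n → ℝ)) (j : ℕ × (Fin n → ℤ) × Fin n) : E :=
  φ.symm (Pi.single j.2.2 (1 / 2 ^ j.1 : ℝ))

/-- a closed dyadic cell of dimension one is a segment -/
theorem Dc_edge (a : Fin n → ℝ) (k : ℕ) (z : Fin n → ℤ) (l : Fin n) :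
    φ ⁻¹' (Dc a ⟨k, z, {l}⟩) = sgm (gx φ (k, z, l) + φ.symm a) (gv φ (k, z, l)) := by
  classical
  have hp : (0 : ℝ) < 2 ^ k := by positivity
  have hφ : ∀ τ : ℝ, φ (gx φ (k, z, l) + φ.symm a + τ • gv φ (k, z, l)) =
      fun i => a i + z i / 2 ^ k + τ * (Pi.single l (1 / 2 ^ k : ℝ) : Fin n → ℝ) i := by
    intro τ
    unfold gx gv
    rw [map_add, map_add, map_smul, φ.apply_symm_apply, φ.apply_symm_apply, φ.apply_symm_apply]
    funext i
    simp only [Pi.add_apply, Pi.smul_apply, smul_eq_mul, vx, Pi.zero_apply]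
    ring
  have hps : ∀ τ : ℝ, ∀ i, ps a k (φ (gx φ (k, z, l) + φ.symm a + τ • gv φ (k, z, l))) i =
      z i + τ * (Pi.single l (1 : ℝ) : Fin n → ℝ) i := by
    intro τ i
    rw [hφ]
    unfold ps
    by_cases hi : i = l
    · subst hi
      simp only [Pi.single_eq_same]
      field_simp
      ring
    · simp only [Pi.single_eq_of_ne hi]
      field_simp
      ring
  ext y
  constructor
  · intro hy
    have hy' : φ y ∈ Dc a ⟨k, z, {l}⟩ := hy
    have h1 := (hy' l).1 (Finset.mem_singleton_self l)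
    simp only at h1
    refine ⟨ps a k (φ y) l - z l, ⟨by linarith [h1.1], by linarith [h1.2]⟩, ?_⟩
    apply φ.injective
    funext i
    have h3 : ps a k (φ (gx φ (k, z, l) + φ.symm a + (ps a k (φ y) l - z l) • gv φ (k, z, l))) i =
        ps a k (φ y) i := by
      rw [hps]
      by_cases hi : i = l
      · subst hi
        simp
      · rw [Pi.single_eq_of_ne hi, mul_zero, add_zero]
        exact ((hy' i).2 (by simpa using hi)).symm
    unfold ps at h3
    have h4 := mul_left_cancel₀ hp.ne' h3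
    exact sub_left_injective h4
  · rintro ⟨τ, ⟨h0, h1⟩, rfl⟩
    intro i
    simp only
    refine ⟨fun hi => ?_, fun hi => ?_⟩
    · rw [Finset.mem_singleton] at hi
      subst hi
      rw [hps, Pi.single_eq_same]
      constructor <;> linarith
    · rw [Finset.mem_singleton] at hi
      rw [hps, Pi.single_eq_of_ne hi]
      ring

/-- **the candidates**: the edges of the cube of scale `k` and position `z` -/
def edF (k : ℕ) (z : Fin n → ℤ) : Finset (ℕ × (Fin n → ℤ) × Fin n) :=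
  ({k} ×ˢ (Finset.Icc z (z + 1) ×ˢ Finset.univ)) ∪
    ({k + 1} ×ˢ (Finset.Icc (2 • z) (2 • z + 2) ×ˢ Finset.univ))

theorem card_edF (k : ℕ) (z : Fin n → ℤ) : (edF k z).card ≤ 2 ^ n * n + 3 ^ n * n := by
  unfold edF
  refine (Finset.card_union_le _ _).trans ?_
  rw [Finset.card_product, Finset.card_product, Finset.card_product, Finset.card_product]
  simp only [Finset.card_singleton, one_mul, Finset.card_univ, Fintype.card_fin]
  have h1 : (Finset.Icc z (z + 1)).card = 2 ^ n := by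
    rw [Pi.card_Icc]
    have : ∀ i : Fin n, (Finset.Icc (z i) ((z + 1) i)).card = 2 := by
      intro i
      rw [Int.card_Icc, Pi.add_apply, Pi.one_apply]
      omega
    rw [Finset.prod_congr rfl fun i _ => this i]
    simp
  have h2 : (Finset.Icc (2 • z) (2 • z + 2)).card = 3 ^ n := by
    rw [Pi.card_Icc]
    have : ∀ i : Fin n, (Finset.Icc ((2 • z) i) ((2 • z + 2 : Fin n → ℤ) i)).card = 3 := by
      intro i
      rw [Int.card_Icc, Pi.add_apply]
      have : (2 : Fin n → ℤ) i = 2 := rfl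
      rw [this]
      omega
    rw [Finset.prod_congr rfl fun i _ => this i]
    simp
  rw [h1, h2]

/-- **[OE]: the 1-cells of the graded cubes inside a tile** -/
theorem edge_tiling [FiniteDimensional ℝ E] (τ : Top D) {x : E} (hx : x ∈ P ((tiling φ D).H τ))
    (hd : (tiling φ D).dim x = 1) :
    ∃ j ∈ edF τ.1.1.k τ.1.1.z, (tiling φ D).cc x = sgm (gx φ j + φ.symm D.a) (gv φ j) ∧
      sgm (gx φ j + φ.symm D.a) (gv φ j) ⊆ P ((tiling φ D).H τ) := by
  classical
  set T := tiling φ D with hT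
  have hxO : φ x ∈ D.Om := T.sub τ hx
  obtain ⟨l, hl⟩ := eq_singleton_of_dim hxO hd
  set σ := (Cel.of (φ x) hxO).1 with hσ
  have hcc : T.cc x = sgm (gx φ (σ.k, σ.z, l) + φ.symm D.a) (gv φ (σ.k, σ.z, l)) := by
    rw [hT, cc_eq hxO, ← Dc_edge]
    show φ ⁻¹' (Dc D.a σ) = _
    congr 2
    ext1
    · rfl
    · rfl
    · exact hl
  have hsub : T.cc x ⊆ P (T.H τ) := fun y hy => T.at_sub_of_mem_cc hy hx
  refine ⟨(σ.k, σ.z, l), ?_, hcc, hcc ▸ hsub⟩
  -- the scale
  have hxτ : φ x ∈ τ.1.c := mem_at.1 hx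
  have hk1 : τ.1.1.k ≤ σ.k := τ.1.2.le_K hxτ
  have hk2 : σ.k ≤ τ.1.1.k + 1 := τ.1.2.K_le hxτ
  -- the lower end
  have hp : (0 : ℝ) < 2 ^ σ.k := by positivity
  have hlow : gx φ (σ.k, σ.z, l) + φ.symm D.a ∈ P (T.H τ) := by
    apply hsub
    rw [hcc]
    exact ⟨0, ⟨le_rfl, zero_le_one⟩, by simp⟩
  have hlow' : ∀ i, (τ.1.1.z i : ℝ) ≤ 2 ^ τ.1.1.k * (σ.z i / 2 ^ σ.k) ∧
      2 ^ τ.1.1.k * ((σ.z i : ℝ) / 2 ^ σ.k) ≤ τ.1.1.z i + 1 := by
    intro i
    have h1 : φ (gx φ (σ.k, σ.z, l) + φ.symm D.a) ∈ Cu D.a τ.1.1.k τ.1.1.z := by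
      have h2 : gx φ (σ.k, σ.z, l) + φ.symm D.a ∈ P (Hc φ D.a τ.1.1.k τ.1.1.z) := hlow
      rw [P_Hc] at h2
      exact h2
    rw [mem_Cu] at h1
    have h3 := h1 i
    unfold gx at h3
    rw [map_add, φ.apply_symm_apply, φ.apply_symm_apply] at h3
    unfold ps vx at h3
    simp only [Pi.add_apply, Pi.zero_apply] at h3
    have e : (2 : ℝ) ^ τ.1.1.k * (0 + (σ.z i : ℝ) / 2 ^ σ.k + D.a i - D.a i) =
        2 ^ τ.1.1.k * (σ.z i / 2 ^ σ.k) := by ring
    rw [e] at h3
    exact h3
  rw [edF, Finset.mem_union]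
  rcases Nat.eq_or_lt_of_le hk1 with h | h
  · left
    rw [Finset.mem_product, Finset.mem_product, Finset.mem_singleton, Finset.mem_Icc]
    refine ⟨h.symm, ⟨fun i => ?_, fun i => ?_⟩, Finset.mem_univ _⟩
    · have h1 := (hlow' i).1
      rw [h, mul_div_cancel₀ _ hp.ne'] at h1
      exact_mod_cast h1
    · have h1 := (hlow' i).2
      rw [h, mul_div_cancel₀ _ hp.ne'] at h1
      show σ.z i ≤ τ.1.1.z i + 1
      exact_mod_cast h1
  · right
    have h' : σ.k = τ.1.1.k + 1 := by omega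
    rw [Finset.mem_product, Finset.mem_product, Finset.mem_singleton, Finset.mem_Icc]
    have e : ∀ i, (2 : ℝ) ^ τ.1.1.k * ((σ.z i : ℝ) / 2 ^ σ.k) = σ.z i / 2 := by
      intro i
      rw [h', pow_succ]
      field_simp
    refine ⟨h', ⟨fun i => ?_, fun i => ?_⟩, Finset.mem_univ _⟩
    · have h1 := (hlow' i).1
      rw [e] at h1
      have h2 : (2 * τ.1.1.z i : ℝ) ≤ σ.z i := by linarith
      show (2 • τ.1.1.z) i ≤ σ.z i
      rw [Pi.smul_apply, nsmul_eq_mul]
      exact_mod_cast h2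
    · have h1 := (hlow' i).2
      rw [e] at h1
      have h2 : (σ.z i : ℝ) ≤ 2 * τ.1.1.z i + 2 := by linarith
      show σ.z i ≤ (2 • τ.1.1.z) i + 2
      rw [Pi.smul_apply, nsmul_eq_mul]
      exact_mod_cast h2

end

end Crest.Agent.R096.Eog_922
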