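/-
helper222, row 96, LEVSEL part 4: the closed 1-cells of a tiling as a locally finite family of
segments, and NNB: crossing points on the 1-skeleton of a tile are counted by the edges of the tile.
-/
import Mathlib
import Crest.Agent.R096.Msh2_715
import Crest.Agent.R96.Sg1_199

set_option autoImplicit false
set_option linter.unusedSectionVars false

open MeasureTheory Set Filter
open scoped Topology ENNReal

namespace Crest.Agent.R096.Ls_222

open Crest.Agent.R096.Msh_715 Crest.Agent.R96.Sg1_199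

noncomputable section

variable {E : Type*} [NormedAddCommGroup E] [NormedSpace ℝ E] [FiniteDimensional ℝ E]
  {Om : Set E} {ι : Type*} (T : Tiling Om ι)

/-- the closed 1-cells of `T` -/
def Edg : Type _ := {e : Set E // ∃ x ∈ Om, T.dim x = 1 ∧ e = T.cc x}

variable {T}

theorem edg_param (e : Edg T) : ∃ a v : E, v ≠ 0 ∧ sgm a v = e.1 ∧ T.dim a = 0 ∧ T.dim (a + v) = 0 := by
  obtain ⟨e, x, hx, hd, rfl⟩ := e
  obtain ⟨a, b, hab, h1, -, h2, h3, -, -⟩ := T.edge_eq hx hd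
  refine ⟨a, b - a, sub_ne_zero.2 (Ne.symm hab), ?_, h2, ?_⟩
  · rw [sgm_eq_segment, add_sub_cancel]; exact h1.symm
  · rw [add_sub_cancel]; exact h3

/-- one end of the edge -/
def ea (e : Edg T) : E := (edg_param e).choose
/-- the direction of the edge -/
def ev (e : Edg T) : E := (edg_param e).choose_spec.choose

theorem ev_ne (e : Edg T) : ev e ≠ 0 := (edg_param e).choose_spec.choose_spec.1
theorem sgm_edg (e : Edg T) : sgm (ea e) (ev e) = e.1 :=
  (edg_param e).choose_spec.choose_spec.2.1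
theorem dim_ea (e : Edg T) : T.dim (ea e) = 0 := (edg_param e).choose_spec.choose_spec.2.2.1
theorem dim_eb (e : Edg T) : T.dim (ea e + ev e) = 0 :=
  (edg_param e).choose_spec.choose_spec.2.2.2

theorem edg_sub_Om (e : Edg T) : e.1 ⊆ Om := by
  obtain ⟨e, x, hx, hd, rfl⟩ := e
  exact T.cc_sub_Om hx

theorem sgm_sub_Om (e : Edg T) : sgm (ea e) (ev e) ⊆ Om := by
  rw [sgm_edg]; exact edg_sub_Om e

theorem isCompact_edg (e : Edg T) : IsCompact e.1 := by
  rw [← sgm_edg]; exact isCompact_sgm _ _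

/-- only finitely many edges meet a compact set -/
theorem finite_edg (T : Tiling Om ι) {K : Set E} (hK : IsCompact K) (hKO : K ⊆ Om) :
    {e : Edg T | (e.1 ∩ K).Nonempty}.Finite := by
  refine Finite.of_finite_image (f := fun e : Edg T => e.1) ?_ (fun a _ b _ h => Subtype.ext h)
  refine (T.finite_cells hK hKO).subset ?_
  rintro _ ⟨⟨e, x, hx, hd, rfl⟩, he, rfl⟩
  exact ⟨⟨x, hx, rfl⟩, he⟩

theorem finite_edg_sgm (T : Tiling Om ι) {K : Set E} (hK : IsCompact K) (hKO : K ⊆ Om) :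
    {e : Edg T | (sgm (ea e) (ev e) ∩ K).Nonempty}.Finite := by
  simp only [sgm_edg]
  exact finite_edg T hK hKO

/-- there are countably many cells -/
theorem countable_cells (T : Tiling Om ι) : {c : Set E | ∃ x ∈ Om, c = T.cc x}.Countable := by
  have h : ∀ x : E, ∃ r : ℝ, x ∈ Om → 0 < r ∧
      {c : Set E | (∃ z ∈ Om, c = T.cc z) ∧ (c ∩ Metric.ball x r).Nonempty}.Finite := by
    intro x
    by_cases hx : x ∈ Om
    · obtain ⟨r, hr, hf⟩ := T.lf_cells hx
      exact ⟨r, fun _ => ⟨hr, hf⟩⟩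
    · exact ⟨0, fun h => absurd h hx⟩
  choose r hr using h
  obtain ⟨t, ht, htc, hcov⟩ := TopologicalSpace.countable_cover_nhdsWithin
    (s := Om) (f := fun x => Metric.ball x (r x))
    (fun x hx => mem_nhdsWithin_of_mem_nhds (Metric.ball_mem_nhds x (hr x hx).1))
  refine (htc.biUnion fun x hx => ((hr x (ht hx)).2).countable).mono ?_
  rintro c ⟨z, hz, rfl⟩
  obtain ⟨x, hx, hzx⟩ := mem_iUnion₂.1 (hcov hz)
  exact mem_iUnion₂.2 ⟨x, hx, ⟨z, hz, rfl⟩, z, T.self_mem_cc z, hzx⟩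

instance countable_edg (T : Tiling Om ι) : Countable (Edg T) := by
  have h := countable_cells T
  have h1 : Countable {c : Set E | ∃ x ∈ Om, c = T.cc x} := h.to_subtype
  refine Function.Injective.countable
    (f := fun e : Edg T => (⟨e.1, by
      obtain ⟨e, x, hx, hd, rfl⟩ := e
      exact ⟨x, hx, rfl⟩⟩ : {c : Set E | ∃ x ∈ Om, c = T.cc x})) ?_
  intro a b hab
  exact Subtype.ext (congrArg (fun z => z.1) hab)

/-- the vertices -/
def Vt (T : Tiling Om ι) : Set E := {x | x ∈ Om ∧ T.dim x = 0}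

theorem countable_Vt (T : Tiling Om ι) : (Vt T).Countable := by
  have h := countable_cells T
  refine MapsTo.countable_of_injOn (t := {c : Set E | ∃ x ∈ Om, c = T.cc x})
    (f := fun x => T.cc x) (fun x hx => ⟨x, hx.1, rfl⟩) ?_ h
  intro x hx y hy hxy
  have h1 := T.cc_eq_singleton (T.dim_eq_zero_iff.1 hx.2)
  have h2 := T.cc_eq_singleton (T.dim_eq_zero_iff.1 hy.2)
  simp only [h1, h2] at hxy
  exact singleton_injective hxy

/-! ### edges of a tile -/

theorem finite_eIn (T : Tiling Om ι) (i : ι) : {e : Edg T | e.1 ⊆ P (T.H i)}.Finite := by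
  refine (finite_edg T (T.cpt i) (T.sub i)).subset ?_
  intro e he
  obtain ⟨e', x, hx, hd, rfl⟩ := e
  exact ⟨x, T.self_mem_cc x, he (T.self_mem_cc x)⟩

/-- the edges of the tile `i` -/
def eIn (T : Tiling Om ι) (i : ι) : Finset (Edg T) := (finite_eIn T i).toFinset

theorem mem_eIn {T : Tiling Om ι} {i : ι} {e : Edg T} : e ∈ eIn T i ↔ e.1 ⊆ P (T.H i) := by
  simp [eIn]

/-- an edge lies in finitely many tiles -/
theorem finite_tiles_edg (e : Edg T) : {i | e ∈ eIn T i}.Finite := by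
  obtain ⟨e', x, hx, hd, he⟩ := e
  refine (T.at_finite hx).subset ?_
  intro i hi
  have h1 := mem_eIn.1 hi
  apply h1
  show x ∈ e'
  rw [he]
  exact T.self_mem_cc x

/-- the edge of a point of dimension 1 -/
theorem exists_edge {y : E} (hy : y ∈ Om) (hd : T.dim y = 1) {i : ι} (hi : y ∈ P (T.H i)) :
    ∃ e ∈ eIn T i, y ∈ sgm (ea e) (ev e) := by
  let e : Edg T := ⟨T.cc y, y, hy, hd, rfl⟩
  have he : sgm (ea e) (ev e) = T.cc y := sgm_edg e
  exact ⟨e, mem_eIn.2 (T.cc_sub_tile hi), he ▸ T.self_mem_cc y⟩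

/-- crossing points on the 1-skeleton of a tile -/
theorem encard_le {u : E → ℝ} {t : ℝ} (hv : ∀ x ∈ Om, T.dim x = 0 → u x ≠ t) (i : ι) :
    (({y | y ∈ P (T.H i) ∧ T.dim y ≤ 1 ∧ u y = t}.encard : ℕ∞) : ℝ≥0∞) ≤
      ∑ e ∈ eIn T i, cr u (ea e) (ev e) t := by
  classical
  have h1 : {y | y ∈ P (T.H i) ∧ T.dim y ≤ 1 ∧ u y = t} ⊆
      ⋃ e ∈ eIn T i, (sgm (ea e) (ev e) ∩ u ⁻¹' {t}) := by
    rintro y ⟨hy, hd, hut⟩
    have hyO := T.sub i hy
    have hd1 : T.dim y = 1 := by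
      have : T.dim y ≠ 0 := fun h0 => hv y hyO h0 hut
      omega
    obtain ⟨e, he, hye⟩ := exists_edge hyO hd1 hy
    exact mem_iUnion₂.2 ⟨e, he, hye, hut⟩
  have h2 : ∀ S : Finset (Edg T),
      (((⋃ e ∈ S, (sgm (ea e) (ev e) ∩ u ⁻¹' {t})).encard : ℕ∞) : ℝ≥0∞) ≤
      ∑ e ∈ S, cr u (ea e) (ev e) t := by
    intro S
    induction S using Finset.induction_on with
    | empty => simp
    | insert a S ha ih =>
      rw [Finset.set_biUnion_insert, Finset.sum_insert ha]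
      refine (ENat.toENNReal_le.2 (encard_union_le _ _)).trans ?_
      rw [ENat.toENNReal_add]
      exact add_le_add le_rfl ih
  exact (ENat.toENNReal_le.2 (encard_le_encard h1)).trans (h2 (eIn T i))

/-- the weighted number of crossings of an edge -/
def EN {𝒞 : Type*} (u : 𝒞 → E → ℝ) (κ : 𝒞 → ℕ) (L : 𝒞 → Finset ℝ) (e : Edg T) : ℝ≥0∞ :=
  ∑' c, ENNReal.ofReal ((2 : ℝ)⁻¹ ^ κ c) * ∑ t ∈ L c, cr (u c) (ea e) (ev e) t

/-- **NNB** -/
theorem nn_le {𝒞 : Type*} {u : 𝒞 → E → ℝ} {κ : 𝒞 → ℕ} {L : 𝒞 → Finset ℝ}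
    (hv : ∀ c, ∀ t ∈ L c, ∀ x ∈ Om, T.dim x = 0 → u c x ≠ t) (i : ι) :
    ∑' c, ENNReal.ofReal ((2 : ℝ)⁻¹ ^ κ c) *
      ∑ t ∈ L c, (({y | y ∈ P (T.H i) ∧ T.dim y ≤ 1 ∧ u c y = t}.encard : ℕ∞) : ℝ≥0∞) ≤
    ∑ e ∈ eIn T i, EN u κ L e := by
  unfold EN
  rw [← Summable.tsum_finsetSum (fun _ _ => ENNReal.summable)]
  refine ENNReal.tsum_le_tsum fun c => ?_
  rw [← Finset.mul_sum, Finset.sum_comm]
  gcongr with t ht
  exact encard_le (hv c t ht) i

end

end Crest.Agent.R096.Ls_222
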