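import Mathlib

/-!
Row 96 (S0127), helper696.  Structure of locally piecewise linear maps in the selection language:
`LocPL h Ω` = near every point of `Ω` the map `h` is continuous and takes its values among finitely
many affine maps.  (S1): the conic form `h (x + v) = h x + H v` near every point.
-/

set_option autoImplicit false
set_option linter.unusedSectionVars false
set_option linter.style.longLine false

namespace Crest.Agent.R096.Str_696

open Set Filter Topology Metric

variable {E F : Type*} [NormedAddCommGroup E] [NormedSpace ℝ E]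
  [NormedAddCommGroup F] [NormedSpace ℝ F]

/-- `h` is locally a continuous selection of finitely many affine maps on `Ω`. -/
def LocPL (h : E → F) (Ω : Set E) : Prop :=
  ∀ x ∈ Ω, ∃ r : ℝ, 0 < r ∧ ∃ S : Finset (E →ᵃ[ℝ] F), ContinuousOn h (ball x r) ∧
    ∀ y ∈ ball x r, ∃ g ∈ S, h y = g y

/-- `H` is a continuous positively homogeneous selection of the finite set `S` of linear maps. -/
structure Conic (H : E → F) (S : Finset (E →L[ℝ] F)) : Prop where
  cont : Continuous H
  homog : ∀ (t : ℝ) (v : E), 0 ≤ t → H (t • v) = t • H v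
  sel : ∀ v, ∃ A ∈ S, H v = A v

lemma Conic.zero {H : E → F} {S : Finset (E →L[ℝ] F)} (hH : Conic H S) : H 0 = 0 := by
  have := hH.homog 0 0 le_rfl
  simpa using this

/-- a continuous map with values in a finite set is constant on a preconnected set. -/
lemma const_of_finite {X Y : Type*} [TopologicalSpace X] [TopologicalSpace Y] [T1Space Y]
    {s : Set X} (hs : IsPreconnected s) {f : X → Y} (hf : ContinuousOn f s) {T : Set Y}
    (hT : T.Finite) (hm : MapsTo f s T) {x y : X} (hx : x ∈ s) (hy : y ∈ s) : f x = f y := by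
  exact hs.constant_of_mapsTo hT.isDiscrete hf hm hx hy

/-- along a ray a continuous selection of finitely many linear functions is one linear function. -/
lemma ray_const {φ : ℝ → F} {W : Set F} (hW : W.Finite) {T : ℝ} (hφ : ContinuousOn φ (Ioc 0 T))
    (hsel : ∀ t ∈ Ioc (0 : ℝ) T, ∃ w ∈ W, φ t = t • w) {s t : ℝ} (hs : s ∈ Ioc 0 T)
    (ht : t ∈ Ioc 0 T) : t • φ s = s • φ t := by
  have hc : ContinuousOn (fun t : ℝ => t⁻¹ • φ t) (Ioc 0 T) :=
    (continuousOn_id.inv₀ (fun t ht => ne_of_gt ht.1)).smul hφ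
  have hm : MapsTo (fun t : ℝ => t⁻¹ • φ t) (Ioc 0 T) W := by
    intro t ht
    obtain ⟨w, hw, hw'⟩ := hsel t ht
    have h0 : t ≠ 0 := ne_of_gt ht.1
    simp only [hw', smul_smul, inv_mul_cancel₀ h0, one_smul]
    exact hw
  have := const_of_finite isPreconnected_Ioc hc hW hm hs ht
  have hs0 : s ≠ 0 := ne_of_gt hs.1
  have ht0 : t ≠ 0 := ne_of_gt ht.1
  have h2 : (t * s) • (s⁻¹ • φ s) = (t * s) • (t⁻¹ • φ t) := by
    simpa using congrArg (fun z => (t * s) • z) this
  rw [smul_smul, smul_smul] at h2
  have e1 : t * s * s⁻¹ = t := by field_simp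
  have e2 : t * s * t⁻¹ = s := by field_simp
  rwa [e1, e2] at h2

/-- a finite selection of continuous linear maps is bounded by a constant times the norm. -/
lemma sel_bound {H : E → F} (S : Finset (E →L[ℝ] F)) (hsel : ∀ v, ∃ A ∈ S, H v = A v) :
    ∃ M : ℝ, 0 ≤ M ∧ (∀ A ∈ S, ‖A‖ ≤ M) ∧ ∀ v, ‖H v‖ ≤ M * ‖v‖ := by
  classical
  refine ⟨∑ A ∈ S, ‖A‖, Finset.sum_nonneg (fun _ _ => norm_nonneg _), ?_, ?_⟩
  · intro A hA
    exact Finset.single_le_sum (f := fun A : E →L[ℝ] F => ‖A‖) (fun _ _ => norm_nonneg _) hA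
  · intro v
    obtain ⟨A, hA, hv⟩ := hsel v
    rw [hv]
    refine (A.le_opNorm v).trans (mul_le_mul_of_nonneg_right ?_ (norm_nonneg _))
    exact Finset.single_le_sum (f := fun A : E →L[ℝ] F => ‖A‖) (fun _ _ => norm_nonneg _) hA

/-- **Conic extension.**  A map which near `x` is `h x +` (a selection of linear maps of `v`) is
`h x + H v` with `H` conic on the whole space. -/
lemma conic_of_local {h : E → F} {x : E} {r : ℝ} (hr : 0 < r) {S : Finset (E →L[ℝ] F)}
    (hc : ContinuousOn h (ball x r))
    (hsel : ∀ v : E, ‖v‖ < r → ∃ A ∈ S, h (x + v) = h x + A v) :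
    ∃ H : E → F, Conic H S ∧ ∀ v : E, ‖v‖ < r → h (x + v) = h x + H v := by
  classical
  set ρ : ℝ := r / 2 with hρ
  have hρ0 : 0 < ρ := by positivity
  have hρr : ρ < r := by rw [hρ]; linarith
  set H : E → F := fun v => (‖v‖ / ρ) • (h (x + (ρ / ‖v‖) • v) - h x) with hH
  have hnorm : ∀ v : E, v ≠ 0 → ‖(ρ / ‖v‖) • v‖ = ρ := by
    intro v hv
    have : ‖v‖ ≠ 0 := by simpa using hv
    rw [norm_smul, Real.norm_eq_abs, abs_of_nonneg (by positivity)]
    field_simp
  have hsel' : ∀ v : E, ∃ A ∈ S, H v = A v := by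
    intro v
    by_cases hv : v = 0
    · subst hv
      obtain ⟨A, hA, -⟩ := hsel 0 (by simpa using hr)
      exact ⟨A, hA, by simp [hH]⟩
    · obtain ⟨A, hA, hA'⟩ := hsel ((ρ / ‖v‖) • v) (by rw [hnorm v hv]; exact hρr)
      refine ⟨A, hA, ?_⟩
      have h0 : ‖v‖ ≠ 0 := by simpa using hv
      simp only [hH, hA', add_sub_cancel_left, map_smul, smul_smul]
      have : ‖v‖ / ρ * (ρ / ‖v‖) = 1 := by field_simp
      rw [this, one_smul]
  obtain ⟨M, hM0, -, hM⟩ := sel_bound S hsel'
  refine ⟨H, ⟨?_, ?_, hsel'⟩, ?_⟩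
  · rw [continuous_iff_continuousAt]
    intro v
    by_cases hv : v = 0
    · subst hv
      have hH0 : H 0 = 0 := by simp [hH]
      rw [ContinuousAt, hH0]
      refine squeeze_zero_norm' (a := fun v => M * ‖v‖) (Eventually.of_forall hM) ?_
      have : Tendsto (fun v : E => M * ‖v‖) (𝓝 0) (𝓝 (M * ‖(0 : E)‖)) :=
        (continuous_const.mul continuous_norm).continuousAt
      simpa using this
    · have h0 : ‖v‖ ≠ 0 := by simpa using hv
      have hn : ContinuousAt (fun v : E => ‖v‖) v := continuous_norm.continuousAt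
      have hin : ContinuousAt (fun v : E => x + (ρ / ‖v‖) • v) v :=
        continuousAt_const.add ((continuousAt_const.div hn h0).smul continuousAt_id)
      have hmem : x + (ρ / ‖v‖) • v ∈ ball x r := by
        rw [mem_ball_iff_norm, add_sub_cancel_left, hnorm v hv]
        exact hρr
      have hh : ContinuousAt h (x + (ρ / ‖v‖) • v) := hc.continuousAt (isOpen_ball.mem_nhds hmem)
      have hcomp : ContinuousAt (fun v : E => h (x + (ρ / ‖v‖) • v)) v :=
        ContinuousAt.comp (f := fun v : E => x + (ρ / ‖v‖) • v) (g := h) hh hin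
      exact (hn.div_const ρ).smul (hcomp.sub continuousAt_const)
  · intro t v ht
    rcases ht.eq_or_lt with rfl | ht
    · simp [hH]
    · by_cases hv : v = 0
      · subst hv; simp [hH]
      · have h0 : ‖v‖ ≠ 0 := by simpa using hv
        simp only [hH]
        have e1 : ‖t • v‖ = t * ‖v‖ := by
          rw [norm_smul, Real.norm_eq_abs, abs_of_pos ht]
        have e2 : (ρ / ‖t • v‖) • t • v = (ρ / ‖v‖) • v := by
          rw [e1, smul_smul]
          congr 1
          field_simp
        rw [e2, e1, smul_smul]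
        congr 1
        ring
  · intro v hv
    by_cases hv0 : v = 0
    · subst hv0; simp [hH]
    · have h0 : 0 < ‖v‖ := by simpa using hv0
      set u : E := (1 / ‖v‖) • v with hu
      have hu1 : ‖u‖ = 1 := by
        rw [hu, norm_smul, Real.norm_eq_abs, abs_of_pos (by positivity)]
        field_simp
      set T : ℝ := max ‖v‖ ρ with hT
      have hTr : T < r := max_lt hv hρr
      have hnt : ∀ t ∈ Ioc (0 : ℝ) T, ‖t • u‖ < r := by
        intro t ht
        rw [norm_smul, hu1, mul_one, Real.norm_eq_abs, abs_of_pos ht.1]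
        exact lt_of_le_of_lt ht.2 hTr
      have key := ray_const (φ := fun t => h (x + t • u) - h x) (W := (fun A : E →L[ℝ] F => A u) '' S)
        (S.finite_toSet.image _) (T := T) ?_ ?_ (s := ‖v‖) (t := ρ) ⟨h0, le_max_left _ _⟩
        ⟨hρ0, le_max_right _ _⟩
      · have ev : ‖v‖ • u = v := by
          rw [hu, smul_smul]
          have : ‖v‖ * (1 / ‖v‖) = 1 := by field_simp
          rw [this, one_smul]
        have eρ : ρ • u = (ρ / ‖v‖) • v := by
          rw [hu, smul_smul]
          congr 1
          ring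
        rw [ev, eρ] at key
        have : h (x + v) - h x = H v := by
          have h3 : (ρ⁻¹) • (ρ • (h (x + v) - h x)) =
              ρ⁻¹ • (‖v‖ • (h (x + (ρ / ‖v‖) • v) - h x)) := by rw [key]
          rw [smul_smul, smul_smul, inv_mul_cancel₀ hρ0.ne', one_smul] at h3
          rw [h3]
          simp only [hH]
          congr 1
          ring
        rw [← this]
        abel
      · have hin : ContinuousOn (fun t : ℝ => x + t • u) (Ioc 0 T) :=
          (continuous_const.add (continuous_id.smul continuous_const)).continuousOn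
        refine ContinuousOn.sub (hc.comp hin ?_) continuousOn_const
        intro t ht
        rw [mem_ball_iff_norm, add_sub_cancel_left]
        exact hnt t ht
      · intro t ht
        obtain ⟨A, hA, hA'⟩ := hsel (t • u) (hnt t ht)
        refine ⟨A u, ⟨A, hA, rfl⟩, ?_⟩
        simp only [hA', add_sub_cancel_left, map_smul]

/-- **(S1) Conic form.**  -/
theorem LocPL.conic [FiniteDimensional ℝ E] {h : E → F} {Ω : Set E} (hh : LocPL h Ω) {x : E}
    (hx : x ∈ Ω) : ∃ (r : ℝ) (S : Finset (E →L[ℝ] F)) (H : E → F), 0 < r ∧ Conic H S ∧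
      ∀ v : E, ‖v‖ < r → h (x + v) = h x + H v := by
  classical
  obtain ⟨r, hr, S, hc, hsel⟩ := hh x hx
  -- only the affine maps through `h x` are active near `x`
  have hev : ∀ g ∈ S, g x ≠ h x → ∀ᶠ y in 𝓝 x, g y ≠ h y := by
    intro g _ hg
    have hgc : ContinuousAt g x := g.continuous_of_finiteDimensional.continuousAt
    have hhc : ContinuousAt h x := hc.continuousAt (isOpen_ball.mem_nhds (mem_ball_self hr))
    exact (hgc.ne_iff_eventually_ne hhc).1 hg
  have hall : ∀ᶠ y in 𝓝 x, ∀ g ∈ S, g x ≠ h x → g y ≠ h y := by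
    rw [Filter.eventually_all_finset]
    intro g hg
    by_cases h' : g x = h x
    · exact Eventually.of_forall fun y h'' => absurd h' h''
    · filter_upwards [hev g hg h'] with y hy _ using hy
  obtain ⟨r₁, hr₁, hball⟩ := Metric.eventually_nhds_iff_ball.1 hall
  set r₂ := min r r₁ with hr₂
  have hr₂0 : 0 < r₂ := lt_min hr hr₁
  obtain ⟨H, hH, hH'⟩ := conic_of_local (h := h) (x := x) hr₂0
    (S := S.image fun g : E →ᵃ[ℝ] F => LinearMap.toContinuousLinearMap g.linear)
    (hc.mono (ball_subset_ball (min_le_left _ _))) (by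
      intro v hv
      have hv1 : x + v ∈ ball x r := by
        rw [mem_ball_iff_norm, add_sub_cancel_left]; exact lt_of_lt_of_le hv (min_le_left _ _)
      have hv2 : x + v ∈ ball x r₁ := by
        rw [mem_ball_iff_norm, add_sub_cancel_left]; exact lt_of_lt_of_le hv (min_le_right _ _)
      obtain ⟨g, hg, hgv⟩ := hsel _ hv1
      have hgx : g x = h x := by
        by_contra hne
        exact hball _ hv2 g hg hne hgv.symm
      refine ⟨_, Finset.mem_image_of_mem _ hg, ?_⟩
      rw [hgv, ← hgx]
      have : g (x + v) = g x + g.linear v := by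
        have h1 := g.map_vadd x v
        simp only [vadd_eq_add] at h1
        rw [add_comm x v, h1, add_comm]
      rw [this]
      rfl)
  exact ⟨r₂, _, H, hr₂0, hH, hH'⟩

end Crest.Agent.R096.Str_696
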