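import Crest.Agent.R096.Brk5_582
import Crest.Agent.R096.Msh2_715
import Crest.Agent.R096.Str1_696
import Crest.Agent.R96.Push4_899

/-!
Row 96 (S0127), helper961.  **The literal interface between the topological half (bottom) and the
analytic half (top) of the row**: the `p`-free Prop `MachBF`.  Definitions only.

Everything lives in `E3 = Fin 3 → ℝ` (transport to `R3` by `P3`).
-/

set_option autoImplicit false
set_option linter.style.longLine false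
set_option linter.unusedSectionVars false

open MeasureTheory Set Filter Topology Metric
open scoped ENNReal

namespace Crest.Agent.R096.SkC1_961

open Crest.Agent.R096.Bsp_628 Crest.Agent.R096.Brk1_582 Crest.Agent.R096.Brk3_582
open Crest.Agent.R096.Brk5_582
open Crest.Agent.R096.Msh_715
open Crest.Agent.R96.Push_899

noncomputable section

abbrev E3 : Type := Fin 3 → ℝ

/-- homeomorphism of `Om` onto `La` (the frozen definition, on `E3`) -/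
def Hom3 (f : E3 → E3) (Om La : Set E3) : Prop :=
  ∃ fi : E3 → E3, MapsTo f Om La ∧ MapsTo fi La Om ∧ (∀ x ∈ Om, fi (f x) = x) ∧
    (∀ y ∈ La, f (fi y) = y) ∧ ContinuousOn f Om ∧ ContinuousOn fi La

/-- admissible pushes of the brick `Q` with hole `B`: one or two stages. -/
def IsPush (c0 : ℝ) (Q B : Box (Fin 3)) (pu : E3 → E3) : Prop :=
  (∃ (P : Finset (Fin 3)) (κ ρ : ℝ), Shape P c0 κ ρ Q B ∧ pu = psh Q B) ∨
  (∃ (P : Finset (Fin 3)) (κ ρ : ℝ) (C : Box (Fin 3)), Shape P c0 κ ρ Q C ∧ Inner C B ∧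
    pu = psi Q C B)

/-- brick foam with holes and pushes -/
structure FoamD (δ κ0 R c0 : ℝ) (La : Set E3) where
  F : Set (Bx (Fin 3))
  bf : BoxFoam La F δ κ0
  cmp : Cmp F R
  B : F → Box (Fin 3)
  pu : F → E3 → E3
  push : ∀ c : F, IsPush c0 ⟨c.1.lo, c.1.hi, fun i => (bf.pos c.1 c.2 i).le⟩ (B c) (pu c)

namespace FoamD

variable {δ κ0 R c0 : ℝ} {La : Set E3} (Φ : FoamD δ κ0 R c0 La)

/-- the push `La \ holes → walls` -/
def Psi (y : E3) : E3 := by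
  classical
  exact if h : ∃ c : Φ.F, y ∈ c.1.set then Φ.pu h.choose y else y

/-- the level function of the brick `c` at the point `y` of the target: `s_c (Psi y)` -/
def lev (c : Φ.F) (y : E3) : ℝ := sc (Pc Φ.F) (bc (F := Φ.F)) (Φ.Psi y) c

end FoamD

section Shapes

variable {Om : Set E3} {ι : Type}

/-- the configuration of a tile: all closed cells contained in it -/
def Cfg (T : Tiling Om ι) (i : ι) : Set (Set E3) := {K | ∃ x ∈ P (T.H i), K = T.cc x}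

/-- the tile `i` has, in the affine coordinates `B`, one of the shapes of the list `𝒮` -/
def Sim (𝒮 : Set (Set (Set E3))) (T : Tiling Om ι) (i : ι) (B : E3 ≃ᵃ[ℝ] E3) : Prop :=
  (fun K => B '' K) '' Cfg T i ∈ 𝒮

end Shapes

section Core

variable {δ κ0 R c0 : ℝ} {La Om : Set E3} {ι : Type}

/-- **exact core** of the brick `c` (format of 124 #9412): the tile `i` is `A⁻¹ (box)`, `box` is
homothetic to the brick (ratio `lam`), `f` is `C⁰`-close to the affine map `A` on a neighbourhood of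
relative size `κ2`, the exact map is `th = (homothety box → brick) ∘ A`. -/
structure Exact (Φ : FoamD δ κ0 R c0 La) (T : Tiling Om ι) (f : E3 → E3) (κ1 κ2 : ℝ) (c : Φ.F)
    (i : ι) (A : E3 ≃ᵃ[ℝ] E3) (lam : ℝ) (z : E3) : Prop where
  lam0 : 0 < lam
  lam1 : lam < 1
  box_in : ∀ k, c.1.lo k < z k + lam * c.1.lo k ∧ z k + lam * c.1.hi k < c.1.hi k
  hole : ∀ k, z k + lam * c.1.lo k + κ2 * (lam * c.1.side k) ≤ (Φ.B c).lo k ∧
    (Φ.B c).hi k ≤ z k + lam * c.1.hi k - κ2 * (lam * c.1.side k)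
  ray : ∀ y : E3, (∀ k, z k + lam * c.1.lo k ≤ y k ∧ y k ≤ z k + lam * c.1.hi k) →
    (∃ k, y k = z k + lam * c.1.lo k ∨ y k = z k + lam * c.1.hi k) →
    Φ.pu c y = fun k => (y k - z k) / lam
  tile : P (T.H i) = A ⁻¹' {y | ∀ k, z k + lam * c.1.lo k ≤ y k ∧ y k ≤ z k + lam * c.1.hi k}
  nbd : ∀ x : E3, (∀ k, z k + lam * c.1.lo k - κ2 * (lam * c.1.side k) ≤ A x k ∧
      A x k ≤ z k + lam * c.1.hi k + κ2 * (lam * c.1.side k)) →
    x ∈ Om ∧ ‖f x - A x‖ ≤ κ1 * (lam * c.1.sz)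
  miss : ∀ x ∈ Om, x ∉ P (T.H i) → f x ∉ (Φ.B c).S

/-- the exact map of a core -/
def th (A : E3 ≃ᵃ[ℝ] E3) (lam : ℝ) (z x : E3) : E3 := fun k => (A x k - z k) / lam

/-- **tiny core** (only for `p < 3`): the hole is one point, its preimage is in the interior of the
tile `i`, and `f` maps the tile into the open brick. -/
structure Tiny (Φ : FoamD δ κ0 R c0 La) (T : Tiling Om ι) (f : E3 → E3) (c : Φ.F) (i : ι) : Prop where
  pt : (Φ.B c).lo = (Φ.B c).hi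
  mem : ∃ x ∈ I (T.H i), f x = (Φ.B c).lo
  sub : ∀ x ∈ P (T.H i), ∀ k, c.1.lo k < f x k ∧ f x k < c.1.hi k

/-- all cores: an injection `ct` of the bricks into the tiles, exact on `X`, tiny off `X`. -/
structure Cores (Φ : FoamD δ κ0 R c0 La) (T : Tiling Om ι) (f : E3 → E3) (κ1 κ2 : ℝ) (X : Set Φ.F)
    (ct : Φ.F → ι) (A : Φ.F → E3 ≃ᵃ[ℝ] E3) (lam : Φ.F → ℝ) (z : Φ.F → E3) : Prop where
  inj : Function.Injective ct
  exact_ : ∀ c ∈ X, Exact Φ T f κ1 κ2 c (ct c) (A c) (lam c) (z c)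
  tiny : ∀ c ∉ X, Tiny Φ T f c (ct c)

/-- **fineness**: on every other tile the pushed map oscillates little (relative to the bricks) -/
def Fine (Φ : FoamD δ κ0 R c0 La) (T : Tiling Om ι) (f : E3 → E3) (ε : ℝ) (ct : Φ.F → ι) : Prop :=
  ∀ i, i ∉ range ct → ∀ x ∈ P (T.H i), ∀ y ∈ P (T.H i), ∀ c : Φ.F, Φ.Psi (f x) ∈ c.1.set →
    ‖Φ.Psi (f y) - Φ.Psi (f x)‖ ≤ ε * c.1.sz

end Core

section Levels

variable {δ κ0 R c0 : ℝ} {La Om : Set E3} {ι : Type}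

/-- **levels**: finite sets `L c ⊆ (0,1)`, weights `2^(-κ c)`, number of levels ~ size / weight,
almost uniform positions, regular with respect to the mesh, off the exceptional null sets `Z c`. -/
structure Levels (Φ : FoamD δ κ0 R c0 La) (T : Tiling Om ι) (f : E3 → E3) (κ1 : ℝ)
    (Z : Φ.F → Set ℝ) (κ : Φ.F → ℕ) (L : Φ.F → Finset ℝ) : Prop where
  lf : ∀ m : ℕ, {c | κ c ≤ m}.Finite
  sub : ∀ c, ∀ t ∈ L c, t ∈ Ioo (0 : ℝ) 1
  many : ∀ c, c.1.sz ≤ 8 * ((L c).card * (2 : ℝ)⁻¹ ^ κ c)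
  few : ∀ c, (L c).card * (2 : ℝ)⁻¹ ^ κ c ≤ 8 * c.1.sz
  large : ∀ c, 1 ≤ κ1 * (L c).card
  pos : ∀ c, ∀ t ∈ L c, |(((L c).filter (· < t)).card : ℝ) / (L c).card - t| ≤ κ1
  off : ∀ c, ∀ t ∈ L c, t ∉ Z c
  vert : ∀ c, ∀ t ∈ L c, ∀ x ∈ Om, T.dim x = 0 → Φ.lev c (f x) ≠ t
  fin : ∀ c, ∀ t ∈ L c, ∀ x ∈ Om, T.dim x = 1 → {y ∈ T.cc x | Φ.lev c (f y) = t}.Finite
  sep : ∀ c c', c ≠ c' → ∀ t ∈ L c, ∀ t' ∈ L c', ∀ x ∈ Om, T.dim x = 1 →
    ¬ (Φ.lev c (f x) = t ∧ Φ.lev c' (f x) = t')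

/-- **exact words** on the boundary of the exact cores (124 #9412 (3)): every used level crosses
every edge of the core exactly as the exact map does; the levels of the exact map are affine on
every closed 2-cell of the core. -/
structure Words (Φ : FoamD δ κ0 R c0 La) (T : Tiling Om ι) (f : E3 → E3) (X : Set Φ.F) (ct : Φ.F → ι)
    (A : Φ.F → E3 ≃ᵃ[ℝ] E3) (lam : Φ.F → ℝ) (z : Φ.F → E3) (L : Φ.F → Finset ℝ) : Prop where
  aff : ∀ c ∈ X, ∀ x ∈ P (T.H (ct c)), T.dim x = 2 → ∀ c' : Φ.F, ∃ u : E3 →ᵃ[ℝ] ℝ,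
    ∀ y ∈ T.cc x, sc (Pc Φ.F) (bc (F := Φ.F)) (th (A c) (lam c) (z c) y) c' = u y
  word : ∀ c ∈ X, ∀ x ∈ P (T.H (ct c)), T.dim x = 1 → ∀ c' : Φ.F, ∀ t ∈ L c',
    ∀ a b : E3, T.cc x = segment ℝ a b →
    let s := fun y => sc (Pc Φ.F) (bc (F := Φ.F)) (th (A c) (lam c) (z c) y) c'
    s a ≠ t ∧ s b ≠ t ∧
    ((s a < t ∧ t < s b) ∨ (s b < t ∧ t < s a) → ∃! y, y ∈ T.cc x ∧ Φ.lev c' (f y) = t) ∧
    (¬ ((s a < t ∧ t < s b) ∨ (s b < t ∧ t < s a)) → ∀ y ∈ T.cc x, Φ.lev c' (f y) ≠ t)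

/-- weighted number of crossing points on the edges of the tile `i` -/
def NN (Φ : FoamD δ κ0 R c0 La) (T : Tiling Om ι) (f : E3 → E3) (κ : Φ.F → ℕ)
    (L : Φ.F → Finset ℝ) (i : ι) : ℝ≥0∞ :=
  ∑' c : Φ.F, ENNReal.ofReal ((2 : ℝ)⁻¹ ^ κ c) *
    ∑ t ∈ L c, (({y ∈ P (T.H i) | T.dim y ≤ 1 ∧ Φ.lev c (f y) = t}.encard : ℕ∞) : ℝ≥0∞)

end Levels

/-- **output** of the machine -/
structure Out {δ κ0 R c0 : ℝ} {La Om : Set E3} {ι : Type} (C e : ℝ) (𝒮 : Set (Set (Set E3)))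
    (Φ : FoamD δ κ0 R c0 La) (T : Tiling Om ι) (f : E3 → E3) (X : Set Φ.F) (ct : Φ.F → ι)
    (A : Φ.F → E3 ≃ᵃ[ℝ] E3) (lam : Φ.F → ℝ) (κ : Φ.F → ℕ) (L : Φ.F → Finset ℝ) (tol : ι → ℝ)
    (g : E3 → E3) : Prop where
  homeo : Hom3 g Om La
  pl : Str_696.LocPL g Om
  near : ∀ x ∈ Om, ∀ c : Φ.F, f x ∈ c.1.set → ‖g x - f x‖ ≤ C * c.1.sz
  /-- ordinary tiles (`tol i > 0` is the tolerance of EXPLODE) -/
  lip : ∀ i, i ∉ range ct → ∀ B : E3 ≃ᵃ[ℝ] E3, Sim 𝒮 T i B → ∀ N : ℝ, 0 ≤ N →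
    NN Φ T f κ L i ≤ ENNReal.ofReal N → ∀ x ∈ I (T.H i), ∀ᶠ y in 𝓝 x,
      ‖g y - g x‖ ≤ C * N * ‖B y - B x‖ + tol i * ‖y - x‖
  /-- exact cores: affine up to a set of small relative volume, Lipschitz in the coordinates `A` -/
  core : ∀ c ∈ X, (∀ x ∈ I (T.H (ct c)), ∀ᶠ y in 𝓝 x,
      ‖g y - g x‖ ≤ C * (1 / lam c * ‖A c y - A c x‖)) ∧
    ∃ W : Set E3, volume (W ∩ P (T.H (ct c))) ≤ ENNReal.ofReal e * volume (P (T.H (ct c))) ∧
      ∀ x ∈ I (T.H (ct c)), x ∉ W → ∀ᶠ y in 𝓝 x,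
        g y - g x = (1 / lam c) • (A c y - A c x)

/-- **MACHINE, bounded factor + exact cores** (`p`-free, to be proved by the bottom half). -/
def MachBF : Prop :=
  ∀ δ κ0 R c0 κ2 : ℝ, 0 < δ → 1 ≤ κ0 → 1 ≤ R → 0 < c0 → 0 < κ2 →
  ∀ 𝒮 : Set (Set (Set E3)), 𝒮.Finite →
  ∃ C : ℝ, 0 < C ∧ ∀ e : ℝ, 0 < e → ∃ κ1 : ℝ, 0 < κ1 ∧
  ∀ (Om La : Set E3) (f : E3 → E3), IsOpen Om → Bornology.IsBounded Om → IsConnected Om →
    IsOpen La → Bornology.IsBounded La → IsConnected La → Hom3 f Om La →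
  ∀ (Φ : FoamD δ κ0 R c0 La) (ι : Type) (T : Tiling Om ι) (X : Set Φ.F) (ct : Φ.F → ι)
    (A : Φ.F → E3 ≃ᵃ[ℝ] E3) (lam : Φ.F → ℝ) (z : Φ.F → E3),
    Cores Φ T f κ1 κ2 X ct A lam z → Fine Φ T f κ1 ct →
  ∃ Z : Φ.F → Set ℝ, (∀ c, volume (Z c) = 0) ∧
  ∀ (κ : Φ.F → ℕ) (L : Φ.F → Finset ℝ), Levels Φ T f κ1 Z κ L → Words Φ T f X ct A lam z L →
  ∀ tol : ι → ℝ, (∀ i, 0 < tol i) →
  ∃ g : E3 → E3, Out C e 𝒮 Φ T f X ct A lam κ L tol g

end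

end Crest.Agent.R096.SkC1_961
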