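import Crest.Agent.R096.Mal4_874
import Crest.Agent.R096.SkC1_961

/-!
# Row 96, library (MESH-AL), part 5: configurations of tiles, good form of the inequalities
-/

set_option autoImplicit false

open Set Filter Topology Metric

namespace Crest.Agent.R096.Mal_874

open Msh_715 Cut_874 Msh_810

variable {n : ℕ} {E : Type*} [NormedAddCommGroup E] [NormedSpace ℝ E]
variable {Om : Set E} {ι : Type*}

/-- translation by an integer vector -/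
noncomputable def trz (z : Fin n → ℤ) : (Fin n → ℝ) ≃ᵃ[ℝ] (Fin n → ℝ) :=
  AffineEquiv.constVAdd ℝ (Fin n → ℝ) (fun m => -(z m : ℝ))

theorem trz_apply (z : Fin n → ℤ) (u : Fin n → ℝ) : trz z u = fun m => u m - z m := by
  funext m
  show (-(z m : ℝ)) + u m = u m - z m
  ring

/-- a bound for the thresholds -/
noncomputable def bnd (𝒩 : Finset (Fin n → ℝ)) (d : ℕ) (R : ℝ) : ℝ :=
  (|R| + 1) * d * ∑ ν ∈ 𝒩, n1 ν

theorem le_bnd {𝒩 : Finset (Fin n → ℝ)} {d : ℕ} {R : ℝ} : ∀ ν ∈ 𝒩, (R + 1) * n1 ν * d ≤ bnd 𝒩 d R := by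
  intro ν hν
  unfold bnd
  have h1 : n1 ν ≤ ∑ ν ∈ 𝒩, n1 ν := Finset.single_le_sum (fun ν _ => n1_nonneg ν) hν
  have h2 : R ≤ |R| := le_abs_self R
  have h3 := n1_nonneg ν
  have h4 : (0 : ℝ) ≤ d := Nat.cast_nonneg d
  calc (R + 1) * n1 ν * d ≤ (|R| + 1) * n1 ν * d := by gcongr
    _ ≤ (|R| + 1) * (∑ ν ∈ 𝒩, n1 ν) * d := by gcongr
    _ = (|R| + 1) * d * ∑ ν ∈ 𝒩, n1 ν := by ring

/-- translated shapes -/
def shpT (𝒩 : Finset (Fin n → ℝ)) (d : ℕ) (R : ℝ) : Set (Set (Fin n → ℝ)) :=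
  {S' | ∃ S ∈ shapes 𝒩 d (bnd 𝒩 d R), ∃ v : Fin n → ℤ, (∀ m, |(v m : ℝ)| ≤ |R| + 1) ∧
    S' = {u : Fin n → ℝ | (fun m => u m - (v m : ℝ)) ∈ S}}

/-- the list of configurations -/
def simL (𝒩 : Finset (Fin n → ℝ)) (d : ℕ) (R : ℝ) : Set (Set (Set (Fin n → ℝ))) :=
  {K | K ⊆ shpT 𝒩 d R}

theorem shpT_finite (𝒩 : Finset (Fin n → ℝ)) (d : ℕ) (R : ℝ) : (shpT 𝒩 d R).Finite := by
  have h1 : {v : Fin n → ℤ | ∀ m, |(v m : ℝ)| ≤ |R| + 1}.Finite := by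
    have h2 : (Set.pi univ fun _ : Fin n => {t : ℤ | |(t : ℝ)| ≤ |R| + 1}).Finite := by
      refine Set.Finite.pi fun _ => ?_
      refine (Set.finite_Icc (-⌈|R| + 1⌉) ⌈|R| + 1⌉).subset ?_
      intro t ht
      have h0 : |(t : ℝ)| ≤ |R| + 1 := ht
      have h2 := abs_le.1 h0
      have h3 : (t : ℝ) ≤ (⌈|R| + 1⌉ : ℤ) := h2.2.trans (Int.le_ceil _)
      have h4 : (-(⌈|R| + 1⌉ : ℤ) : ℝ) ≤ t := by
        have := Int.le_ceil (|R| + 1)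
        linarith
      exact ⟨by exact_mod_cast h4, by exact_mod_cast h3⟩
    refine h2.subset ?_
    intro v hv m _
    exact hv m
  refine ((shapes_finite 𝒩 d (bnd 𝒩 d R)).image2
    (fun (S : Set (Fin n → ℝ)) (v : Fin n → ℤ) =>
      {u : Fin n → ℝ | (fun m => u m - (v m : ℝ)) ∈ S}) h1).subset ?_
  rintro S' ⟨S, hS, v, hv, rfl⟩
  exact ⟨S, hS, v, hv, rfl⟩

/-- **the list of configurations is finite** -/
theorem simL_finite (𝒩 : Finset (Fin n → ℝ)) (d : ℕ) (R : ℝ) : (simL 𝒩 d R).Finite :=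
  (shpT_finite 𝒩 d R).finite_subsets

/-- the cells contained in the tile `i` -/
def cfg (T : Tiling Om ι) (i : ι) : Set (Set E) := {K | ∃ x ∈ P (T.H i), K = T.cc x}

/-- **a tile whose neighbours have inequalities in good form has a configuration of the list** -/
theorem sim_tile {T : Tiling Om ι} {χ : E ≃ᵃ[ℝ] (Fin n → ℝ)} {s : ℝ} (hs : 0 < s)
    {𝒩 : Finset (Fin n → ℝ)} {d : ℕ} (hd : 0 < d) (h𝒩 : ∀ ν ∈ 𝒩, ∀ m, ∃ c : ℤ, ν m = c / d)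
    {R : ℝ} {i : ι}
    (hgood : ∀ l, (P (T.H l) ∩ P (T.H i)).Nonempty → ∀ h ∈ T.H l, ∃ ν, ∃ t : ℤ, GF χ s 𝒩 d h ν t)
    (hR : ∀ x ∈ P (T.H i), ∀ y ∈ P (T.H i), ∀ m, |χ y m - χ x m| ≤ R) :
    ∃ z : Fin n → ℤ, (fun K => (χ.trans (trz z)) '' K) '' cfg T i ∈ simL 𝒩 d R := by
  obtain ⟨x0, hx0⟩ := T.ne i
  have hx0' := I_sub_P _ hx0
  refine ⟨fun m => ⌊χ x0 m⌋, ?_⟩
  rintro _ ⟨_, ⟨x, hx, rfl⟩, rfl⟩
  obtain ⟨S, hS, e⟩ := cc_shape' (x := x) hs hd h𝒩 (R := R) (le_bnd (R := R))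
    (fun l hl h hh => hgood l ⟨x, hl, hx⟩ h hh) (i₀ := i) hx (hR x hx)
  refine ⟨S, hS, fun m => ⌊χ x m⌋ - ⌊χ x0 m⌋, ?_, ?_⟩
  · intro m
    have h1 := Int.floor_le (χ x m)
    have h2 := Int.lt_floor_add_one (χ x m)
    have h3 := Int.floor_le (χ x0 m)
    have h4 := Int.lt_floor_add_one (χ x0 m)
    have h5 := abs_le.1 (hR x0 hx0' x hx m)
    have h6 := le_abs_self R
    push_cast
    rw [abs_le]
    constructor <;> linarith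
  · ext u
    simp only [Set.mem_image, Set.mem_ofPred_eq]
    constructor
    · rintro ⟨y, hy, rfl⟩
      rw [e] at hy
      have h1 : (fun m => (χ.trans (trz fun m => ⌊χ x0 m⌋)) y m - ((⌊χ x m⌋ - ⌊χ x0 m⌋ : ℤ) : ℝ)) =
          fun m => χ y m - (⌊χ x m⌋ : ℝ) := by
        funext m
        rw [AffineEquiv.trans_apply, trz_apply]
        push_cast
        ring
      rw [h1]
      exact hy
    · intro hu
      refine ⟨(χ.trans (trz fun m => ⌊χ x0 m⌋)).symm u, ?_, by simp⟩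
      rw [e]
      simp only [Set.mem_ofPred_eq]
      have h1 : (fun m => χ ((χ.trans (trz fun m => ⌊χ x0 m⌋)).symm u) m - (⌊χ x m⌋ : ℝ)) =
          fun m => u m - ((⌊χ x m⌋ - ⌊χ x0 m⌋ : ℤ) : ℝ) := by
        funext m
        have h2 : (χ.trans (trz fun m => ⌊χ x0 m⌋)) ((χ.trans (trz fun m => ⌊χ x0 m⌋)).symm u) m
            = u m := by simp
        rw [AffineEquiv.trans_apply, trz_apply] at h2
        push_cast
        linarith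
      rw [h1]
      exact hu

/-- the same in the format of `SkC1_961` -/
theorem sim_tile3 {Om : Set (Fin 3 → ℝ)} {ι : Type} {T : Tiling Om ι}
    {χ : (Fin 3 → ℝ) ≃ᵃ[ℝ] (Fin 3 → ℝ)} {s : ℝ} (hs : 0 < s)
    {𝒩 : Finset (Fin 3 → ℝ)} {d : ℕ} (hd : 0 < d) (h𝒩 : ∀ ν ∈ 𝒩, ∀ m, ∃ c : ℤ, ν m = c / d)
    {R : ℝ} {i : ι}
    (hgood : ∀ l, (P (T.H l) ∩ P (T.H i)).Nonempty → ∀ h ∈ T.H l, ∃ ν, ∃ t : ℤ, GF χ s 𝒩 d h ν t)
    (hR : ∀ x ∈ P (T.H i), ∀ y ∈ P (T.H i), ∀ m, |χ y m - χ x m| ≤ R) :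
    ∃ z : Fin 3 → ℤ, SkC1_961.Sim (simL 𝒩 d R) T i (χ.trans (trz z)) :=
  sim_tile hs hd h𝒩 hgood hR

/-! ### frames -/

/-- the frame `(ψ, a')` is compatible with the coordinates `χ` (scale factor `2 ^ k`) -/
def Fr (χ : E → Fin n → ℝ) (k : ℕ) (𝒩 : Finset (Fin n → ℝ)) (d : ℕ)
    (ψ : E ≃L[ℝ] (Fin n → ℝ)) (a' : Fin n → ℝ) : Prop :=
  ∀ m, ∃ ν ∈ 𝒩, (fun l => -ν l) ∈ 𝒩 ∧ ∃ c : ℤ, ∀ y, 2 ^ k * (ψ y m - a' m) = dt ν (χ y) + c / d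

theorem dt_neg (ν u : Fin n → ℝ) : dt (fun l => -ν l) u = - dt ν u := by
  unfold dt
  rw [← Finset.sum_neg_distrib]
  exact Finset.sum_congr rfl fun m _ => by ring

/-- the walls of the grid of scale `k' ≤ k` of a compatible frame are in good form -/
theorem gf_wall {χ : E → Fin n → ℝ} {k : ℕ} {𝒩 : Finset (Fin n → ℝ)} {d : ℕ} (hd : 0 < d)
    {ψ : E ≃L[ℝ] (Fin n → ℝ)} {a' : Fin n → ℝ} (F : Fr χ k 𝒩 d ψ a') {k' : ℕ} (hk : k' ≤ k)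
    (m : Fin n) (t : ℤ) :
    (∃ ν, ∃ t' : ℤ, GF χ (2 ^ k) 𝒩 d ((co ψ m, a' m + t / 2 ^ k') : (E →L[ℝ] ℝ) × ℝ) ν t') ∧
      ∃ ν, ∃ t' : ℤ, GF χ (2 ^ k) 𝒩 d (opp ((co ψ m, a' m + t / 2 ^ k') : (E →L[ℝ] ℝ) × ℝ)) ν t' := by
  obtain ⟨ν, h1, h2, c, h3⟩ := F m
  have hd' : (d : ℝ) ≠ 0 := by exact_mod_cast hd.ne'
  have hpow : (2 : ℝ) ^ k = 2 ^ (k - k') * 2 ^ k' := by rw [← pow_add, Nat.sub_add_cancel hk]
  have hk0 : (2 : ℝ) ^ k' ≠ 0 := by positivity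
  have key : ∀ y, 2 ^ k * (ψ y m - (a' m + t / 2 ^ k')) =
      dt ν (χ y) - ((d * 2 ^ (k - k') * t - c : ℤ) : ℝ) / d := by
    intro y
    have h4 := h3 y
    have e1 : (2 : ℝ) ^ k * (t / 2 ^ k') = 2 ^ (k - k') * t := by
      rw [hpow]; field_simp
    have e2 : ((d * 2 ^ (k - k') * t - c : ℤ) : ℝ) / d = 2 ^ (k - k') * t - c / d := by
      push_cast
      field_simp
    rw [e2]
    have e3 : (2 : ℝ) ^ k * (ψ y m - (a' m + t / 2 ^ k')) =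
        2 ^ k * (ψ y m - a' m) - 2 ^ k * (t / 2 ^ k') := by ring
    rw [e3, e1, h4]
    ring
  refine ⟨⟨ν, _, h1, key⟩, ⟨_, -(d * 2 ^ (k - k') * t - c), h2, ?_⟩⟩
  intro y
  have h4 := key y
  show 2 ^ k * (-(ψ y m) - -(a' m + t / 2 ^ k')) = _
  rw [dt_neg]
  push_cast at h4 ⊢
  have e : (2 : ℝ) ^ k * (-(ψ y m) - -(a' m + t / 2 ^ k')) =
      -(2 ^ k * (ψ y m - (a' m + t / 2 ^ k'))) := by ring
  rw [e, h4]
  ring

/-- the inequalities of the cubes of scale `k' ≤ k` of a compatible frame are in good form -/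
theorem gf_cube {χ : E → Fin n → ℝ} {k : ℕ} {𝒩 : Finset (Fin n → ℝ)} {d : ℕ} (hd : 0 < d)
    {ψ : E ≃L[ℝ] (Fin n → ℝ)} {a' : Fin n → ℝ} (F : Fr χ k 𝒩 d ψ a') {k' : ℕ} (hk : k' ≤ k)
    (z : Fin n → ℤ) : ∀ h ∈ Hc ψ a' k' z, ∃ ν, ∃ t' : ℤ, GF χ (2 ^ k) 𝒩 d h ν t' := by
  rw [forall_Hc]
  intro m
  constructor
  · obtain ⟨ν, t', h⟩ := (gf_wall hd F hk m (z m + 1)).1
    refine ⟨ν, t', ?_⟩
    have e : hc ψ a' k' z (m, true) = (co ψ m, a' m + ((z m + 1 : ℤ) : ℝ) / 2 ^ k') := by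
      show (cf ψ m, a' m + (z m + 1) / 2 ^ k') = _
      push_cast
      rfl
    rw [e]
    exact h
  · obtain ⟨ν, t', h⟩ := (gf_wall hd F hk m (z m)).2
    exact ⟨ν, t', h⟩

end Crest.Agent.R096.Mal_874
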