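/-
helper922, row 96, MF instance, outer cubes: covering form of the edges (`tedge` of Pm1_199) by the
segments of the half grid, potential tiles, dimension of a cell from the set, number and diameter of the
cells of a tile from the list of shapes ([NC] of 324 #10731).
-/
import Mathlib
import Crest.Agent.R096.Eog1_922
import Crest.Agent.R096.Mal5_874
import Crest.Agent.R096.Ls4_222

set_option autoImplicit false
set_option linter.unusedSectionVars false

open Set

namespace Crest.Agent.R096.Eog_922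

open Crest.Agent.R096.Msh_715 Crest.Agent.R096.Msh_810
open Crest.Agent.R096.Mal_874 (cfg shpT simL shpT_finite)
open Crest.Agent.R096.Ls_222 (Edg ea ev eIn mem_eIn sgm_edg)
open Crest.Agent.R96.Sg1_199 (sgm)

noncomputable section

variable {E : Type*} [NormedAddCommGroup E] [NormedSpace ℝ E] {n : ℕ}
  {Om Om' : Set E} {ι ι' : Type*}

/-! ### the directions of a cell are determined by the closed cell -/

theorem V_eq_span (T : Tiling Om ι) {x : E} (hx : x ∈ Om) :
    T.V x = Submodule.span ℝ {v : E | ∃ y ∈ T.cc x, ∃ z ∈ T.cc x, v = y - z} := by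
  apply le_antisymm
  · intro v hv
    obtain ⟨r, hr, hb⟩ := T.exists_ball_oc hx
    have hv0 := norm_nonneg v
    set s : ℝ := r / (2 * (‖v‖ + 1)) with hs
    have hs0 : 0 < s := by positivity
    have hsm : ‖s • v‖ < r := by
      rw [norm_smul, Real.norm_eq_abs, abs_of_pos hs0, hs, div_mul_eq_mul_div,
        div_lt_iff₀ (by positivity)]
      nlinarith
    have h1 := T.oc_sub_cc x (hb (s • v) ((T.V x).smul_mem s hv) hsm)
    have h2 : s • v ∈ Submodule.span ℝ {v : E | ∃ y ∈ T.cc x, ∃ z ∈ T.cc x, v = y - z} :=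
      Submodule.subset_span ⟨x + s • v, h1, x, T.self_mem_cc x, by rw [add_sub_cancel_left]⟩
    have h3 := Submodule.smul_mem _ s⁻¹ h2
    rwa [inv_smul_smul₀ hs0.ne'] at h3
  · rw [Submodule.span_le]
    rintro _ ⟨y, hy, z, hz, rfl⟩
    exact T.sub_mem_V' hy hz

theorem dim_eq_of_cc_eq (T : Tiling Om ι) (T' : Tiling Om' ι') {x y : E} (hx : x ∈ Om)
    (hy : y ∈ Om') (h : T.cc x = T'.cc y) : T.dim x = T'.dim y := by
  unfold Tiling.dim
  rw [V_eq_span T hx, V_eq_span T' hy, h]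

/-! ### the half grid -/

/-- the segments of the grid of scale `k + 1` in the cube `(k, z)` -/
def edH (k : ℕ) (z : Fin n → ℤ) : Finset (ℕ × (Fin n → ℤ) × Fin n) :=
  ({k + 1} ×ˢ (Finset.Icc (2 • z) (2 • z + 2) ×ˢ Finset.univ)).filter
    fun j => j.2.1 j.2.2 ≤ 2 * z j.2.2 + 1

theorem mem_edH {k : ℕ} {z : Fin n → ℤ} {j : ℕ × (Fin n → ℤ) × Fin n} :
    j ∈ edH k z ↔ j.1 = k + 1 ∧ (∀ i, 2 * z i ≤ j.2.1 i ∧ j.2.1 i ≤ 2 * z i + 2) ∧
      j.2.1 j.2.2 ≤ 2 * z j.2.2 + 1 := by
  unfold edH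
  rw [Finset.mem_filter, Finset.mem_product, Finset.mem_product, Finset.mem_singleton,
    Finset.mem_Icc]
  have e1 : 2 • z ≤ j.2.1 ↔ ∀ i, 2 * z i ≤ j.2.1 i := by
    refine forall_congr' fun i => ?_
    rw [Pi.smul_apply, nsmul_eq_mul]
    rfl
  have e2 : j.2.1 ≤ 2 • z + 2 ↔ ∀ i, j.2.1 i ≤ 2 * z i + 2 := by
    refine forall_congr' fun i => ?_
    have : (2 • z + 2 : Fin n → ℤ) i = 2 * z i + 2 := by
      rw [Pi.add_apply, Pi.smul_apply, nsmul_eq_mul]
      rfl
    rw [this]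
  rw [e1, e2]
  constructor
  · rintro ⟨⟨h1, ⟨h2, h3⟩, -⟩, h4⟩
    exact ⟨h1, fun i => ⟨h2 i, h3 i⟩, h4⟩
  · rintro ⟨h1, h2, h4⟩
    exact ⟨⟨h1, ⟨fun i => (h2 i).1, fun i => (h2 i).2⟩, Finset.mem_univ _⟩, h4⟩

theorem card_edH (k : ℕ) (z : Fin n → ℤ) : (edH k z).card ≤ 3 ^ n * n := by
  unfold edH
  refine (Finset.card_filter_le _ _).trans ?_
  rw [Finset.card_product, Finset.card_product]
  simp only [Finset.card_singleton, one_mul, Finset.card_univ, Fintype.card_fin]
  have h2 : (Finset.Icc (2 • z) (2 • z + 2)).card = 3 ^ n := by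
    rw [Pi.card_Icc]
    have : ∀ i : Fin n, (Finset.Icc ((2 • z) i) ((2 • z + 2 : Fin n → ℤ) i)).card = 3 := by
      intro i
      rw [Int.card_Icc, Pi.add_apply]
      have : (2 : Fin n → ℤ) i = 2 := rfl
      rw [this]
      omega
    rw [Finset.prod_congr rfl fun i _ => this i]
    simp
  rw [h2]

variable {φ : E ≃L[ℝ] (Fin n → ℝ)}

theorem gv_ne (j : ℕ × (Fin n → ℤ) × Fin n) : gv φ j ≠ 0 := by
  intro h
  have h1 := congrFun (congrArg φ h) j.2.2
  unfold gv at h1
  rw [φ.apply_symm_apply, Pi.single_eq_same, map_zero, Pi.zero_apply] at h1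
  have h2 : (0 : ℝ) < 1 / 2 ^ j.1 := by positivity
  exact h2.ne' h1

theorem sgm_edH {k : ℕ} {z : Fin n → ℤ} {j : ℕ × (Fin n → ℤ) × Fin n} (hj : j ∈ edH k z)
    (a : Fin n → ℝ) : sgm (gx φ j + φ.symm a) (gv φ j) ⊆ φ ⁻¹' (Cu a k z) := by
  obtain ⟨hk, hz, hl⟩ := mem_edH.1 hj
  obtain ⟨k', z', l⟩ := j
  simp only at hk hz hl
  subst hk
  rw [← Dc_edge]
  intro y hy
  rw [mem_preimage, mem_Cu]
  intro i
  have h1 := hy i
  simp only at h1
  have e : ps a (k + 1) (φ y) i = 2 * ps a k (φ y) i := by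
    unfold ps
    rw [pow_succ]
    ring
  rw [e] at h1
  have h2 : (2 * z i : ℝ) ≤ z' i := by exact_mod_cast (hz i).1
  have h3 : (z' i : ℝ) ≤ 2 * z i + 2 := by exact_mod_cast (hz i).2
  by_cases hi : i = l
  · subst hi
    have h4 := h1.1 (Finset.mem_singleton_self _)
    have h5 : (z' i : ℝ) ≤ 2 * z i + 1 := by exact_mod_cast hl
    constructor <;> linarith [h4.1, h4.2]
  · have h4 := h1.2 (by simpa using hi)
    constructor <;> linarith

/-- the point form of `sub` of `MF`: unshifted -/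
theorem sgm_edH0 {k : ℕ} {z : Fin n → ℤ} {j : ℕ × (Fin n → ℤ) × Fin n} (hj : j ∈ edH k z) :
    sgm (gx φ j) (gv φ j) ⊆ φ ⁻¹' (Cu 0 k z) := by
  have h := sgm_edH (φ := φ) hj 0
  rwa [map_zero, add_zero] at h

/-- **covering**: a point of the cube `(k, z)` all whose coordinates except one are on the half grid lies
on a segment of `edH k z` -/
theorem cover_cube {a : Fin n → ℝ} {k : ℕ} {z : Fin n → ℤ} {y : E} (hy : φ y ∈ Cu a k z) (l : Fin n)
    (hint : ∀ i, i ≠ l → ∃ m : ℤ, ps a (k + 1) (φ y) i = m) :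
    ∃ j ∈ edH k z, y ∈ sgm (gx φ j + φ.symm a) (gv φ j) := by
  classical
  have e : ∀ i, ps a (k + 1) (φ y) i = 2 * ps a k (φ y) i := by
    intro i
    unfold ps
    rw [pow_succ]
    ring
  rw [mem_Cu] at hy
  choose! m hm using hint
  let t : ℤ := if ps a (k + 1) (φ y) l < 2 * z l + 1 then 2 * z l else 2 * z l + 1
  let z' : Fin n → ℤ := fun i => if i = l then t else m i
  have hzl : z' l = t := if_pos rfl
  have hzi : ∀ i, i ≠ l → z' i = m i := fun i hi => if_neg hi
  have ht : t = 2 * z l ∨ t = 2 * z l + 1 := by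
    by_cases h : ps a (k + 1) (φ y) l < 2 * z l + 1
    · left; exact if_pos h
    · right; exact if_neg h
  refine ⟨(k + 1, z', l), mem_edH.2 ⟨rfl, fun i => ?_, ?_⟩, ?_⟩
  · by_cases hi : i = l
    · subst hi
      simp only
      rw [hzl]
      rcases ht with h | h <;> rw [h] <;> constructor <;> omega
    · simp only
      rw [hzi i hi]
      have h1 := hy i
      have h2 := e i
      rw [hm i hi] at h2
      constructor
      · have : (2 * z i : ℝ) ≤ m i := by linarith
        exact_mod_cast this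
      · have : (m i : ℝ) ≤ 2 * z i + 2 := by linarith
        exact_mod_cast this
  · simp only
    rw [hzl]
    rcases ht with h | h <;> rw [h] <;> omega
  · rw [← Dc_edge]
    intro i
    simp only
    constructor
    · intro hi
      rw [Finset.mem_singleton] at hi
      subst hi
      rw [hzl]
      have h1 := hy i
      have h2 := e i
      by_cases h : ps a (k + 1) (φ y) i < 2 * z i + 1
      · have h3 : t = 2 * z i := if_pos h
        rw [h3]
        push_cast
        constructor <;> linarith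
      · have h3 : t = 2 * z i + 1 := if_neg h
        rw [h3]
        push Not at h
        push_cast
        constructor <;> linarith
    · intro hi
      rw [Finset.mem_singleton] at hi
      rw [hzi i hi]
      exact hm i hi

variable {D : Dat n}

/-- **the 1-cells of the graded cubes inside a tile are covered by the half grid of the tile** -/
theorem edge_cover [FiniteDimensional ℝ E] (τ : Top D) {x : E} (hx : x ∈ P ((tiling φ D).H τ))
    (hd : (tiling φ D).dim x = 1) :
    (tiling φ D).cc x ⊆ ⋃ j ∈ edH τ.1.1.k τ.1.1.z, sgm (gx φ j + φ.symm D.a) (gv φ j) := by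
  classical
  set T := tiling φ D with hT
  have hxO : φ x ∈ D.Om := T.sub τ hx
  obtain ⟨l, hl⟩ := eq_singleton_of_dim hxO hd
  set σ := (Cel.of (φ x) hxO).1 with hσ
  have hxτ : φ x ∈ τ.1.c := mem_at.1 hx
  have hk1 : τ.1.1.k ≤ σ.k := τ.1.2.le_K hxτ
  have hk2 : σ.k ≤ τ.1.1.k + 1 := τ.1.2.K_le hxτ
  intro y hy
  have hyP : φ y ∈ Cu D.a τ.1.1.k τ.1.1.z := by
    have h2 : y ∈ P (Hc φ D.a τ.1.1.k τ.1.1.z) := T.at_sub_of_mem_cc hy hx
    rw [P_Hc] at h2
    exact h2
  have hyc : φ y ∈ Dc D.a σ := by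
    have h2 := hy
    rw [hT, cc_eq hxO] at h2
    exact h2
  obtain ⟨j, hj, hyj⟩ := cover_cube (φ := φ) hyP l (fun i hi => by
    have h3 := (hyc i).2 (by rw [hl, Finset.mem_singleton]; exact hi)
    refine ⟨2 ^ (τ.1.1.k + 1 - σ.k) * σ.z i, ?_⟩
    push_cast
    rw [← h3]
    unfold ps
    have hpow : (2 : ℝ) ^ (τ.1.1.k + 1) = 2 ^ (τ.1.1.k + 1 - σ.k) * 2 ^ σ.k := by
      rw [← pow_add, Nat.sub_add_cancel hk2]
    rw [hpow]
    ring)
  exact mem_iUnion₂.2 ⟨j, hj, hyj⟩

/-- **`tedge` of `MF` for the outer class**: a tile whose cells are cells of a tile `(k, z)` of the graded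
cubes -/
theorem tedge_of_cfg [FiniteDimensional ℝ E] (T : Tiling Om ι) (i : ι) (τ : Top D)
    (h : cfg T i ⊆ cfg (tiling φ D) τ) (e : Edg T) (he : e ∈ eIn T i) :
    sgm (ea e) (ev e) ⊆ ⋃ j ∈ edH τ.1.1.k τ.1.1.z, sgm (gx φ j + φ.symm D.a) (gv φ j) := by
  have h1 := mem_eIn.1 he
  rw [sgm_edg]
  obtain ⟨e', x, hx, hd, rfl⟩ := e
  have hxi : x ∈ P (T.H i) := h1 (T.self_mem_cc x)
  obtain ⟨y, hy, hxy⟩ := h ⟨x, hxi, rfl⟩
  have hyO : y ∈ φ ⁻¹' D.Om := (tiling φ D).sub τ hy
  show T.cc x ⊆ _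
  rw [hxy]
  exact edge_cover τ hy (by rw [← dim_eq_of_cc_eq T (tiling φ D) hx hyO hxy, hd])

/-- the tile `(k, z)` as a shifted potential tile -/
theorem tile_shift (a : Fin n → ℝ) (k : ℕ) (z : Fin n → ℤ) :
    P (Hc φ a k z) = (fun y => y + φ.symm a) '' (φ ⁻¹' (Cu 0 k z)) := by
  rw [P_Hc]
  ext y
  rw [mem_preimage, mem_Cu]
  constructor
  · intro h
    refine ⟨y - φ.symm a, ?_, by simp⟩
    rw [mem_preimage, mem_Cu]
    intro i
    have h1 := h i
    have e : ps 0 k (φ (y - φ.symm a)) i = ps a k (φ y) i := by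
      unfold ps
      rw [map_sub, φ.apply_symm_apply]
      simp
    rw [e]
    exact h1
  · rintro ⟨x, hx, rfl⟩ i
    rw [mem_preimage, mem_Cu] at hx
    have h1 := hx i
    have e : ps a k (φ (x + φ.symm a)) i = ps 0 k (φ x) i := by
      unfold ps
      rw [map_add, φ.apply_symm_apply]
      simp
    simp only
    rw [e]
    exact h1

/-! ### [NC] number and diameter of the cells of a tile -/

/-- **number of the 1-cells of a tile** whose configuration is in the list -/
theorem card_eIn_le [FiniteDimensional ℝ E] (T : Tiling Om ι) (i : ι) (B : E ≃ᵃ[ℝ] (Fin n → ℝ))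
    {𝒩 : Finset (Fin n → ℝ)} {d : ℕ} {R : ℝ} (h : (fun K => B '' K) '' cfg T i ∈ simL 𝒩 d R) :
    (eIn T i).card ≤ (shpT 𝒩 d R).ncard := by
  classical
  rw [← Set.ncard_coe_finset]
  refine Set.ncard_le_ncard_of_injOn (fun e : Edg T => B '' e.1) ?_ ?_ (shpT_finite 𝒩 d R)
  · intro e he
    have h1 := mem_eIn.1 (Finset.mem_coe.1 he)
    obtain ⟨e', x, hx, hd, rfl⟩ := e
    exact h ⟨T.cc x, ⟨x, h1 (T.self_mem_cc x), rfl⟩, rfl⟩
  · intro e _ e' _ hee
    exact Subtype.ext (B.injective.image_injective hee)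

/-- the diameters of the bounded members of a list -/
theorem exists_diam (𝒩 : Finset (Fin n → ℝ)) (d : ℕ) (R : ℝ) :
    ∃ C : ℝ, 0 < C ∧ ∀ S ∈ shpT 𝒩 d R, Bornology.IsBounded S → ∀ x ∈ S, ∀ y ∈ S, dist x y ≤ C := by
  obtain ⟨C, hC⟩ := ((shpT_finite 𝒩 d R).image Metric.diam).bddAbove
  refine ⟨max C 1, by positivity, fun S hS hb x hx y hy => ?_⟩
  exact (Metric.dist_le_diam_of_mem hb hx hy).trans ((hC ⟨S, hS, rfl⟩).trans (le_max_left _ _))

/-- the volumes of the fat members of a list -/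
theorem exists_vol (𝒩 : Finset (Fin n → ℝ)) (d : ℕ) (R : ℝ) :
    ∃ c : ENNReal, 0 < c ∧ c ≤ 1 ∧ ∀ S ∈ shpT 𝒩 d R, (interior S).Nonempty →
      c ≤ MeasureTheory.volume S := by
  classical
  have hf := shpT_finite 𝒩 d R
  have key : ∀ F : Finset (Set (Fin n → ℝ)), ∃ c : ENNReal, 0 < c ∧ c ≤ 1 ∧
      ∀ S ∈ F, (interior S).Nonempty → c ≤ MeasureTheory.volume S := by
    intro F
    induction F using Finset.induction_on with
    | empty => exact ⟨1, one_pos, le_rfl, fun S hS => absurd hS (Finset.notMem_empty _)⟩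
    | insert S F _ ih =>
      obtain ⟨c, h0, h1, h2⟩ := ih
      by_cases hS : (interior S).Nonempty
      · have hpos : 0 < MeasureTheory.volume S :=
          (isOpen_interior.measure_pos _ hS).trans_le (MeasureTheory.measure_mono interior_subset)
        refine ⟨min c (MeasureTheory.volume S), lt_min h0 hpos, (min_le_left _ _).trans h1, ?_⟩
        intro S' hS' hne
        rcases Finset.mem_insert.1 hS' with rfl | h
        · exact min_le_right _ _
        · exact (min_le_left _ _).trans (h2 S' h hne)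
      · refine ⟨c, h0, h1, fun S' hS' hne => ?_⟩
        rcases Finset.mem_insert.1 hS' with rfl | h
        · exact absurd hne hS
        · exact h2 S' h hne
  obtain ⟨c, h0, h1, h2⟩ := key hf.toFinset
  exact ⟨c, h0, h1, fun S hS => h2 S (hf.mem_toFinset.2 hS)⟩

/-- **diameters and volumes of the cells of a tile** whose configuration is in the list, universal
constants -/
theorem exists_cell_bounds (𝒩 : Finset (Fin n → ℝ)) (d : ℕ) (R : ℝ) :
    ∃ (C : ℝ) (c : ENNReal), 0 < C ∧ 0 < c ∧ c ≤ 1 ∧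
      ∀ {E : Type} [NormedAddCommGroup E] [NormedSpace ℝ E] [FiniteDimensional ℝ E]
        {Om : Set E} {ι : Type} (T : Tiling Om ι) (i : ι) (B : E ≃ᵃ[ℝ] (Fin n → ℝ)),
        (fun K => B '' K) '' cfg T i ∈ simL 𝒩 d R →
        (∀ x ∈ P (T.H i), ∀ y ∈ P (T.H i), dist (B x) (B y) ≤ C) ∧
          c ≤ MeasureTheory.volume (B '' P (T.H i)) := by
  obtain ⟨C, hC, hC1⟩ := exists_diam 𝒩 d R
  obtain ⟨c, hc, hc1, hc2⟩ := exists_vol 𝒩 d R
  refine ⟨C, c, hC, hc, hc1, ?_⟩
  intro E _ _ _ Om ι T i B h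
  obtain ⟨x0, hx0⟩ := T.ne i
  have hP : B '' P (T.H i) ∈ shpT 𝒩 d R :=
    h ⟨P (T.H i), ⟨x0, I_sub_P _ hx0, (T.cc_eq_tile hx0).symm⟩, rfl⟩
  have hBc : Continuous B := B.toAffineMap.continuous_of_finiteDimensional
  have hBc' : Continuous B.symm := B.symm.toAffineMap.continuous_of_finiteDimensional
  have hcpt : IsCompact (B '' P (T.H i)) := (T.cpt i).image hBc
  constructor
  · intro x hx y hy
    exact hC1 _ hP hcpt.isBounded _ (mem_image_of_mem _ hx) _ (mem_image_of_mem _ hy)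
  · refine hc2 _ hP ?_
    have hop : IsOpen (B '' I (T.H i)) := by
      have e : B '' I (T.H i) = B.symm ⁻¹' I (T.H i) := by
        ext u
        constructor
        · rintro ⟨y, hy, rfl⟩
          show B.symm (B y) ∈ I (T.H i)
          rwa [B.symm_apply_apply]
        · intro hu
          exact ⟨B.symm u, hu, B.apply_symm_apply u⟩
      rw [e]
      exact (isOpen_I _).preimage hBc'
    exact ⟨B x0, interior_maximal (image_mono (I_sub_P (T.H i))) hop (mem_image_of_mem B hx0)⟩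

end

end Crest.Agent.R096.Eog_922
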