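import Crest.Agent.R096.Mal14_874

/-!
# Row 96, library (MESH-AL), part 15: shapes and sizes of the tiles of the aligned mesh
-/

set_option autoImplicit false

open Set Filter Topology Metric

namespace Crest.Agent.R096.Mal_874

open Msh_715 Cut_874 Msh_810

variable {n : ℕ} {E : Type*} [NormedAddCommGroup E] [NormedSpace ℝ E]

/-- comparison of two frames -/
def Cn (φ ψ : E ≃L[ℝ] (Fin n → ℝ)) (c : ℝ) : Prop :=
  ∀ x y : E, dist (φ x) (φ y) ≤ c * dist (ψ x) (ψ y)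

theorem exists_cn (φ ψ : E ≃L[ℝ] (Fin n → ℝ)) : ∃ c : ℝ, 1 ≤ c ∧ Cn φ ψ c := by
  set L : (Fin n → ℝ) →L[ℝ] (Fin n → ℝ) := (φ : E →L[ℝ] (Fin n → ℝ)).comp
    (ψ.symm : (Fin n → ℝ) →L[ℝ] E) with hL
  refine ⟨max 1 ‖L‖, le_max_left _ _, fun x y => ?_⟩
  have e : φ x - φ y = L (ψ x - ψ y) := by
    rw [hL]
    simp
  rw [dist_eq_norm, dist_eq_norm, e]
  refine (L.le_opNorm _).trans ?_
  exact mul_le_mul_of_nonneg_right (le_max_right _ _) (norm_nonneg _)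

theorem dist_cube {a : Fin n → ℝ} {k : ℕ} {z : Fin n → ℤ} {x y : Fin n → ℝ} (hx : x ∈ Cu a k z)
    (hy : y ∈ Cu a k z) : dist x y ≤ 1 / 2 ^ k := by
  have hp : (0 : ℝ) < 2 ^ k := by positivity
  rw [le_div_iff₀' hp]
  exact dist_le_of_mem_Cu hx hy

theorem chi_dist {φ : E ≃L[ℝ] (Fin n → ℝ)} {a : Fin n → ℝ} {k : ℕ} {x y : E} {c : ℝ}
    (h : dist (φ y) (φ x) ≤ c / 2 ^ k) (m : Fin n) : |chi φ a k y m - chi φ a k x m| ≤ c := by
  have hp : (0 : ℝ) < 2 ^ k := by positivity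
  have h2 : dist (φ y m) (φ x m) ≤ dist (φ y) (φ x) := dist_le_pi_dist _ _ m
  rw [Real.dist_eq] at h2
  rw [chi_apply, chi_apply, ← mul_sub, abs_mul, abs_of_pos hp]
  have e : φ y m - a m - (φ x m - a m) = φ y m - φ x m := by ring
  rw [e]
  rw [le_div_iff₀' hp] at h
  nlinarith

/-- rational data of the blocks: the list of shapes at the wall of the block `j` is
`simL (NR (A j) (d j)) (d j) (c j)` -/
structure RD {J : Type*} (M : MD E n J) where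
  A : J → Fin n → Fin n → ℤ
  d : J → ℕ
  dpos : ∀ j, 0 < d j
  rat : ∀ j, Rt M.φ (M.Q j).ψ (A j) (d j)
  c : J → ℝ
  c1 : ∀ j, 1 ≤ c j
  cn : ∀ j, Cn M.φ (M.Q j).ψ (c j)
  B : J → ℕ
  B1 : ∀ j, 1 ≤ B j
  hB : ∀ j i, ∀ p ∈ (M.Q j).S.GG i, ∀ l, |p.1 l| ≤ B j
  R : J → ℝ
  R1 : ∀ j, 1 ≤ R j
  hR : ∀ j i, i ≠ (M.Q j).S.core → ∀ u ∈ ZP ((M.Q j).S.GG i), ∀ v ∈ ZP ((M.Q j).S.GG i), ∀ l,
    |v l - u l| ≤ R j

/-- the positions are rational relative to the outer grid -/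
structure RP {J : Type*} {M : MD E n J} (X : RD M) (a : Fin n → ℝ) (v : J → E) (k : J → ℕ) where
  κ : J → ℕ
  hκ : ∀ j, κ j ≤ k j
  h0 : ∀ j m, ∃ c : ℤ, 2 ^ κ j * (X.d j : ℝ) * (M.Q j).a' m = c
  hv : ∀ j l, ∃ z : ℤ, 2 ^ κ j * (M.φ (v j) l - a l) = z

namespace MD

variable {J : Type*} (M : MD E n J) [NeZero n] {k : J → ℕ} (hk : M.Sc k) (a : Fin n → ℝ)
  {v : J → E} (hv : M.Adm v)

/-! ### names of the tiles -/

/-- the outer pieces -/
abbrev OIx : Type _ := {p // p ∉ {p | P ((M.ad hk a hv).T1.H p) ⊆ ⋃ j, (M.ad hk a hv).N j}}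

/-- the inner tiles of the block `j` -/
abbrev IIx (j : J) : Type _ := {i // P ((M.S hk (v := v) j).H i) ⊆ (M.ad hk a hv).N j}

theorem N_eq (j : J) : (M.ad hk a hv).N j = (M.Bk v j).N := rfl

/-- the core of the block `j` -/
noncomputable def core (j : J) : M.IIx hk a hv j :=
  ⟨(M.Bk v j).cix (k j) (hk.kc j), ((M.Bk v j).P_inr_sub (k j) (hk.kc j) _).trans
    (M.Bk v j).bp_sub_N⟩

/-- **the core of the block `j` is one tile** -/
theorem P_core (j : J) :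
    P ((M.mesh hk a hv).H (Sum.inr ⟨j, M.core hk a hv j⟩)) = (M.Bk v j).Kc :=
  (M.Bk v j).P_core (k j) (hk.kc j)

/-! ### sizes -/

/-- an outer piece lies in a cube of size at most `ρ / C` at each of its points -/
theorem outer_size (p : M.OIx hk a hv) {x y : E} (hx : x ∈ P ((M.mesh hk a hv).H (Sum.inl p)))
    (hy : y ∈ P ((M.mesh hk a hv).H (Sum.inl p))) :
    dist (M.φ x) (M.φ y) ≤ M.D0.ρ (M.φ x) / M.D0.C := by
  have hC := M.hC
  have hC0 : 0 < M.D0.C := by linarith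
  have hx' : x ∈ P ((M.ad hk a hv).T0.H p.1.par) := cut_tile_sub (hA := AF_ne) p.1 hx
  have hy' : y ∈ P ((M.ad hk a hv).T0.H p.1.par) := cut_tile_sub (hA := AF_ne) p.1 hy
  have hx2 := (AD.tile_T0 _).1 hx'
  have hy2 := (AD.tile_T0 _).1 hy'
  have h1 : dist (M.φ x) (M.φ y) ≤ 1 / 2 ^ p.1.par.1.1.k := dist_cube hx2 hy2
  have h2 : (M.φ x) ∈ p.1.par.1.c := by
    have := mem_at.1 (show p.1.par ∈ (tiling M.φ (outD M.D0 k M.W a)).at_ x from hx')
    exact this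
  have h3 := p.1.par.1.2.lower h2
  have h4 := outD_le_ρ0 (D0 := M.D0) (k := k) (W := M.W) (a := a) (M.φ x)
  have hp : (0 : ℝ) < 2 ^ p.1.par.1.1.k := by positivity
  refine h1.trans ?_
  rw [div_le_div_iff₀ hp hC0, one_mul, mul_comm]
  change M.D0.C ≤ _ at h3
  exact h3.trans (mul_le_mul_of_nonneg_left h4 hp.le)

/-- an inner cube has size at most `2^-kc` -/
theorem inner_size {j : J} {i : M.IIx hk a hv j} {τ} (hi : i.1 = Sum.inl τ) {x y : E}
    (hx : x ∈ P ((M.mesh hk a hv).H (Sum.inr ⟨j, i⟩)))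
    (hy : y ∈ P ((M.mesh hk a hv).H (Sum.inr ⟨j, i⟩))) :
    dist ((M.Q j).ψ x) ((M.Q j).ψ y) ≤ 1 / 2 ^ (M.Q j).kc := by
  have hx' : x ∈ P ((M.S hk (v := v) j).H i.1) := hx
  have hy' : y ∈ P ((M.S hk (v := v) j).H i.1) := hy
  rw [hi] at hx' hy'
  have h1 := dist_cube (((M.Bk v j).tile_T0 (k j) (hk.kc j)).1 hx')
    (((M.Bk v j).tile_T0 (k j) (hk.kc j)).1 hy')
  refine le_trans h1 ?_
  exact one_div_le_one_div_of_le (by positivity)
    (pow_le_pow_right₀ (by norm_num) ((M.Bk v j).kc_le (k j) (hk.kc j)))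

/-! ### shapes -/

variable (X : RD M)

/-- **shapes, outer tiles** -/
theorem outer_shape (RPx : RP X a v k) (p : M.OIx hk a hv) :
    (P ((M.mesh hk a hv).H (Sum.inl p)) = P ((M.ad hk a hv).T0.H p.1.par) ∧
      (∀ j, Disjoint (P ((M.mesh hk a hv).H (Sum.inl p))) (frontier (M.Bk v j).N)) ∧
      ∃ z : Fin n → ℤ, (fun K => ((chi M.φ a (p.1.par.1.1.k + 1)).trans (trz z)) '' K) ''
        cfg (M.mesh hk a hv) (Sum.inl p) ∈ simL (N0 n) 1 2) ∨
    ∃ j, p.1.par.1.1.k = k j ∧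
      (∃ y ∈ frontier (M.Bk v j).N, ∀ x ∈ P ((M.mesh hk a hv).H (Sum.inl p)),
        dist (M.φ x) (M.φ y) ≤ 2 / 2 ^ k j) ∧
      ∃ z : Fin n → ℤ, (fun K => ((chi M.φ a (k j)).trans (trz z)) '' K) ''
        cfg (M.mesh hk a hv) (Sum.inl p) ∈ simL (NR (X.A j) (X.d j)) (X.d j) (X.c j) := by
  rcases AD.outer_dich' (M.inn hk a hv) p with ⟨h1, h2, h3⟩ | ⟨j, h1, h2, y, h3, h4⟩
  · left
    refine ⟨h1, fun j => ?_, ?_⟩
    · have : P ((M.mesh hk a hv).H (Sum.inl p)) = P ((M.ad hk a hv).T0.H p.1.par) := h1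
      rw [this]
      exact h3 j
    · rw [cfg_mesh, h2]
      exact AD.outer_univ (M := M.ad hk a hv) p.1.par
  · right
    refine ⟨j, h1, ⟨y, h3, fun x hx => h4 x (cut_tile_sub (hA := AF_ne) p.1 hx)⟩, ?_⟩
    rw [cfg_mesh]
    have hF : Fr (chi M.φ a (k j)) (k j) (NR (X.A j) (X.d j)) (X.d j) (M.Q j).ψ (M.Bk v j).a' :=
      fr_rat (X.dpos j) (X.rat j) (RPx.hκ j) (RPx.h0 j) (RPx.hv j)
    refine AD.outer_layer (M.inn hk a hv) p h1 h2 (X.dpos j) (NR_rat (X.A j) (X.dpos j))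
      (fr_self M.φ a (k j) (N0_sub_NR _ _) _) hF (hk.kc j) ?_ ?_
    · intro i _ hi
      have hself : (P ((M.S hk (v := v) j).H i) ∩ P ((M.S hk (v := v) j).H i)).Nonempty :=
        ⟨hi.some, hi.some_mem.1, hi.some_mem.1⟩
      obtain ⟨τ, rfl, hτ⟩ := (M.Bk v j).wall_tile (k j) (hk.kc j) hi hself
      exact gf_cube (X.dpos j) hF hτ.le _
    · intro z x y hx hy m
      refine (chi_dist (c := 1) ?_ m).trans (X.c1 j)
      exact dist_cube hy hx

/-- **shapes, inner tiles** -/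
theorem inner_shape (RPx : RP X a v k) {j : J} (i : M.IIx hk a hv j)
    (hi : i ≠ M.core hk a hv j) :
    (∃ τ, i.1 = Sum.inl τ ∧ Disjoint (P ((M.mesh hk a hv).H (Sum.inr ⟨j, i⟩))) (frontier (M.Bk v j).N) ∧
      ∃ z : Fin n → ℤ, (fun K => ((chi (M.Q j).ψ (M.Bk v j).a' (τ.1.1.1.k + 1)).trans (trz z)) '' K) ''
        cfg (M.mesh hk a hv) (Sum.inr ⟨j, i⟩) ∈ simL (N0 n) 1 2) ∨
    ((∀ x ∈ P ((M.mesh hk a hv).H (Sum.inr ⟨j, i⟩)), (M.Bk v j).near 1 x) ∧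
      (∀ x ∈ P ((M.mesh hk a hv).H (Sum.inr ⟨j, i⟩)), ∀ y ∈ P ((M.mesh hk a hv).H (Sum.inr ⟨j, i⟩)),
        ∀ l, |ps (M.Bk v j).a' (M.Q j).kc ((M.Q j).ψ x) l -
          ps (M.Bk v j).a' (M.Q j).kc ((M.Q j).ψ y) l| ≤ X.R j) ∧
      ∃ z : Fin n → ℤ, (fun K => ((chi (M.Q j).ψ (M.Bk v j).a' (M.Q j).kc).trans (trz z)) '' K) ''
        cfg (M.mesh hk a hv) (Sum.inr ⟨j, i⟩) ∈ simL (NB n (X.B j)) 1 (X.R j)) ∨
    ((∃ τ, i.1 = Sum.inl τ ∧ τ.1.1.1.k = k j) ∧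
      (P ((M.mesh hk a hv).H (Sum.inr ⟨j, i⟩)) ∩ frontier (M.Bk v j).N).Nonempty ∧
      ∃ z : Fin n → ℤ, (fun K => ((chi M.φ a (k j)).trans (trz z)) '' K) ''
        cfg (M.mesh hk a hv) (Sum.inr ⟨j, i⟩) ∈ simL (NR (X.A j) (X.d j)) (X.d j) (X.c j)) := by
  have hPi : P ((M.mesh hk a hv).H (Sum.inr ⟨j, i⟩)) = P ((M.S hk (v := v) j).H i.1) := rfl
  rw [hPi, cfg_mesh]
  by_cases hw : (P ((M.S hk (v := v) j).H i.1) ∩ frontier (M.Bk v j).N).Nonempty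
  · right; right
    have hF : Fr (chi M.φ a (k j)) (k j) (NR (X.A j) (X.d j)) (X.d j) (M.Q j).ψ (M.Bk v j).a' :=
      fr_rat (X.dpos j) (X.rat j) (RPx.hκ j) (RPx.h0 j) (RPx.hv j)
    have hself : (P ((M.S hk (v := v) j).H i.1) ∩ P ((M.S hk (v := v) j).H i.1)).Nonempty :=
      ⟨hw.some, hw.some_mem.1, hw.some_mem.1⟩
    obtain ⟨τ, hiτ, hτ⟩ := (M.Bk v j).wall_tile (k j) (hk.kc j) hw hself
    refine ⟨⟨τ, hiτ, hτ⟩, hw, ?_⟩
    refine AD.inner_layer (M.inn hk a hv) i (X.dpos j) (NR_rat (X.A j) (X.dpos j))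
      (fr_self M.φ a (k j) (N0_sub_NR _ _) _) hF (hk.kc j) ?_ ?_
    · intro l hl
      obtain ⟨σ, rfl, hσ⟩ := (M.Bk v j).wall_tile (k j) (hk.kc j) hw hl
      exact gf_cube (X.dpos j) hF hσ.le _
    · intro x hx y hy m
      refine chi_dist ?_ m
      change x ∈ P ((M.S hk (v := v) j).H i.1) at hx
      change y ∈ P ((M.S hk (v := v) j).H i.1) at hy
      rw [hiτ] at hx hy
      have h1 := dist_cube (((M.Bk v j).tile_T0 (k j) (hk.kc j)).1 hy)
        (((M.Bk v j).tile_T0 (k j) (hk.kc j)).1 hx)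
      rw [hτ] at h1
      refine (X.cn j y x).trans ?_
      have h2 := X.c1 j
      calc X.c j * dist ((M.Q j).ψ y) ((M.Q j).ψ x) ≤ X.c j * (1 / 2 ^ k j) :=
            mul_le_mul_of_nonneg_left h1 (by linarith)
        _ = X.c j / 2 ^ k j := by ring
  · have hcfg : cfg ((M.ad hk a hv).mesh (M.inn hk a hv)) (Sum.inr ⟨j, i⟩) =
        cfg (M.S hk (v := v) j) i.1 := by
      rcases AD.inner_dich (M.inn hk a hv) j i with h | h
      · exact h
      · exact absurd h hw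
    rw [hcfg]
    by_cases hb : (P ((M.S hk (v := v) j).H i.1) ∩
        (M.Bk v j).S.bp (M.Bk v j).ψ (M.Bk v j).a' (M.Bk v j).kc).Nonempty
    · right; left
      have hcore : i.1 ≠ (M.Bk v j).cix (k j) (hk.kc j) := fun h => hi (Subtype.ext h)
      refine ⟨?_, ?_, (M.Bk v j).near_sim (k j) (hk.kc j) (X.B1 j) (X.hB j) (X.R1 j) (X.hR j) hb
        hcore⟩
      · intro x hx
        rcases hi1 : i.1 with τ | s
        · rw [hi1] at hx hb
          obtain ⟨y, hy1, hy2⟩ := hb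
          have := (M.Bk v j).near_tile (k j) (hk.kc j) hy1 hx ((M.Bk v j).near_of_bp hy2)
          rwa [zero_add] at this
        · rw [hi1] at hx
          have := (M.Bk v j).near_of_bp ((M.Bk v j).P_inr_sub (k j) (hk.kc j) s hx)
          intro l
          have h := this l
          constructor <;> linarith [h.1, h.2]
      · intro x hx y hy l
        rcases hi1 : i.1 with τ | s
        · rw [hi1] at hx hy
          exact ((M.Bk v j).tile_size (k j) (hk.kc j) hx hy l).trans (X.R1 j)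
        · rw [hi1] at hx hy
          change x ∈ P (((M.Bk v j).T (k j) (hk.kc j)).H (Sum.inr s)) at hx
          change y ∈ P (((M.Bk v j).T (k j) (hk.kc j)).H (Sum.inr s)) at hy
          rw [CB.T_inr, mem_P_iH] at hx hy
          refine X.hR j s ?_ _ hy _ hx l
          rintro rfl
          exact hcore hi1
    · left
      rcases hi1 : i.1 with τ | s
      · refine ⟨τ, rfl, ?_, ?_⟩
        · rw [Set.disjoint_iff_inter_eq_empty, ← Set.not_nonempty_iff_eq_empty]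
          rw [hi1] at hw
          exact hw
        · rw [hi1] at hb
          have h1 : Disjoint (P (((M.Bk v j).T0 (k j) (hk.kc j)).H τ.1))
              ((M.Bk v j).S.bp (M.Bk v j).ψ (M.Bk v j).a' (M.Bk v j).kc) := by
            rw [Set.disjoint_iff_inter_eq_empty, ← Set.not_nonempty_iff_eq_empty]
            exact hb
          have h2 := (M.Bk v j).cfg_far (k j) (hk.kc j) h1
          change ∃ z : Fin n → ℤ, (fun K => ((chi (M.Q j).ψ (M.Bk v j).a' (τ.1.1.1.k + 1)).trans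
            (trz z)) '' K) '' cfg ((M.Bk v j).T (k j) (hk.kc j)) (Sum.inl τ) ∈ simL (N0 n) 1 2
          rw [h2]
          exact sim_univ (M.Bk v j).ψ ((M.Bk v j).D (k j) (hk.kc j)) τ.1
      · exfalso
        apply hb
        rw [hi1]
        obtain ⟨y, hy⟩ := (M.S hk (v := v) j).ne (Sum.inr s)
        exact ⟨y, I_sub_P _ hy, (M.Bk v j).P_inr_sub (k j) (hk.kc j) s (I_sub_P _ hy)⟩

end MD

end Crest.Agent.R096.Mal_874
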