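/-
helper922, row 96, MF instance: potential tiles and covering edges (`tile`, `tedge` of Pm1_199) for the
regular outer cubes and the regular inner cubes of 874's aligned mesh `MD.mesh`.
-/
import Mathlib
import Crest.Agent.R096.Eog2_922
import Crest.Agent.R096.Mal15_874

set_option autoImplicit false
set_option linter.unusedSectionVars false

open Set Metric

namespace Crest.Agent.R096.Eog_922

open Crest.Agent.R096.Msh_715 Crest.Agent.R096.Msh_810 Crest.Agent.R096.Mal_874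
open Crest.Agent.R096.Cut_874
open Crest.Agent.R096.Ls_222 (Edg ea ev eIn mem_eIn sgm_edg)
open Crest.Agent.R96.Sg1_199 (sgm)

noncomputable section

variable {E : Type*} [NormedAddCommGroup E] [NormedSpace ℝ E] {n : ℕ}
  {J : Type*} (M : MD E n J) [NeZero n] {k : J → ℕ} (hk : M.Sc k) (a : Fin n → ℝ)
  {v : J → E} (hv : M.Adm v)

/-- **regular outer cubes**: `tile` and `tedge` with total shift `φ.symm a` -/
theorem outer_reg [FiniteDimensional ℝ E] (p : M.OIx hk a hv) :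
    ((∀ j, Disjoint (P ((M.mesh hk a hv).H (Sum.inl p))) (frontier (M.Bk v j).N)) ∧
      P ((M.mesh hk a hv).H (Sum.inl p)) =
        (fun y => y + M.φ.symm a) '' (M.φ ⁻¹' (Cu 0 p.1.par.1.1.k p.1.par.1.1.z)) ∧
      ∀ e ∈ eIn (M.mesh hk a hv) (Sum.inl p), sgm (ea e) (ev e) ⊆
        ⋃ j ∈ edH p.1.par.1.1.k p.1.par.1.1.z, sgm (gx M.φ j + M.φ.symm a) (gv M.φ j)) ∨
    ∃ j, p.1.par.1.1.k = k j ∧ ∃ y ∈ frontier (M.Bk v j).N,
      ∀ x ∈ P ((M.mesh hk a hv).H (Sum.inl p)), dist (M.φ x) (M.φ y) ≤ 2 / 2 ^ k j := by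
  rcases AD.outer_dich' (M.inn hk a hv) p with ⟨h1, h2, h3⟩ | ⟨j, h1, -, y, h3, h4⟩
  · left
    have hP : P ((M.mesh hk a hv).H (Sum.inl p)) = P ((M.ad hk a hv).T0.H p.1.par) := h1
    refine ⟨fun j => by rw [hP]; exact h3 j, ?_, ?_⟩
    · rw [hP]
      exact tile_shift a _ _
    · intro e he
      exact tedge_of_cfg (φ := M.φ) (D := (M.ad hk a hv).D) (M.mesh hk a hv) (Sum.inl p) p.1.par
        (h2.le) e he
  · right
    exact ⟨j, h1, y, h3, fun x hx => h4 x (cut_tile_sub (hA := AF_ne) p.1 hx)⟩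

/-- the shift of a translated block -/
theorem symm_shift (Q : CB E n) (v : E) : Q.ψ.symm (Q.a' + Q.ψ v) = Q.ψ.symm Q.a' + v := by
  rw [map_add, Q.ψ.symm_apply_apply]

/-- **regular inner cubes**: `tile` and `tedge` with total shift `v j`; potential tile
`P (Hc ψ a' k z)`, potential edges `gx ψ j + ψ.symm a'` -/
theorem inner_reg [FiniteDimensional ℝ E] {j : J} (i : M.IIx hk a hv j) {τ} (hi : i.1 = Sum.inl τ)
    (hw : Disjoint (P ((M.mesh hk a hv).H (Sum.inr ⟨j, i⟩))) (frontier (M.Bk v j).N))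
    (hb : Disjoint (P ((M.mesh hk a hv).H (Sum.inr ⟨j, i⟩)))
      ((M.Bk v j).S.bp (M.Bk v j).ψ (M.Bk v j).a' (M.Bk v j).kc)) :
    P ((M.mesh hk a hv).H (Sum.inr ⟨j, i⟩)) =
        (fun y => y + v j) '' (P (Hc (M.Q j).ψ (M.Q j).a' τ.1.1.1.k τ.1.1.1.z)) ∧
      ∀ e ∈ eIn (M.mesh hk a hv) (Sum.inr ⟨j, i⟩), sgm (ea e) (ev e) ⊆
        ⋃ l ∈ edH τ.1.1.1.k τ.1.1.1.z,
          sgm (gx (M.Q j).ψ l + (M.Q j).ψ.symm (M.Q j).a' + v j) (gv (M.Q j).ψ l) := by
  have hPi : P ((M.mesh hk a hv).H (Sum.inr ⟨j, i⟩)) = P ((M.S hk (v := v) j).H i.1) := rfl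
  have hP0 : P ((M.S hk (v := v) j).H i.1) = P (((M.Bk v j).T0 (k j) (hk.kc j)).H τ.1) := by
    rw [hi]
    rfl
  constructor
  · rw [hPi, hP0]
    have e1 : P (((M.Bk v j).T0 (k j) (hk.kc j)).H τ.1) =
        P (Hc (M.Q j).ψ ((M.Q j).a' + (M.Q j).ψ (v j)) τ.1.1.1.k τ.1.1.1.z) := rfl
    rw [e1, tile_shift, tile_shift (M.Q j).a', ← image_comp]
    rw [symm_shift]
    congr 1
    funext y
    show y + _ = y + _ + _
    rw [add_assoc]
  · intro e he
    have hcfg : cfg (M.mesh hk a hv) (Sum.inr ⟨j, i⟩) ⊆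
        cfg (tiling (M.Bk v j).ψ ((M.Bk v j).D (k j) (hk.kc j))) τ.1 := by
      have h1 : cfg ((M.ad hk a hv).mesh (M.inn hk a hv)) (Sum.inr ⟨j, i⟩) =
          cfg (M.S hk (v := v) j) i.1 := by
        rcases AD.inner_dich (M.inn hk a hv) j i with h | h
        · exact h
        · exact absurd h (by
            rw [Set.not_nonempty_iff_eq_empty]
            exact hw.inter_eq)
      have h2 : cfg (M.mesh hk a hv) (Sum.inr ⟨j, i⟩) = cfg (M.S hk (v := v) j) i.1 := h1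
      rw [h2, hi]
      have h3 : Disjoint (P (((M.Bk v j).T0 (k j) (hk.kc j)).H τ.1))
          ((M.Bk v j).S.bp (M.Bk v j).ψ (M.Bk v j).a' (M.Bk v j).kc) := by
        rw [← hP0]
        exact hb
      exact ((M.Bk v j).cfg_far (k j) (hk.kc j) h3).le
    have h4 := tedge_of_cfg (φ := (M.Bk v j).ψ) (D := (M.Bk v j).D (k j) (hk.kc j))
      (M.mesh hk a hv) (Sum.inr ⟨j, i⟩) τ.1 hcfg e he
    refine h4.trans ?_
    refine iUnion₂_mono fun l _ => ?_
    have e1 : ((M.Bk v j).D (k j) (hk.kc j)).a = (M.Q j).a' + (M.Q j).ψ (v j) := rfl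
    have e2 : (M.Bk v j).ψ = (M.Q j).ψ := rfl
    rw [e1, e2, symm_shift, ← add_assoc]

end

end Crest.Agent.R096.Eog_922
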