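import Crest.Agent.R096.Ca2_855

/-!
# Row 96 (S0127), p < 2: composite A (helper855), part 3: mesh families and coarse selection
-/

set_option autoImplicit false
set_option linter.unusedSectionVars false

open Set Metric MeasureTheory Filter
open scoped ENNReal Topology

namespace Crest.Agent.R096.Ca_855

open Crest.AnalysisR.VecCalc3 Crest.AnalysisR.Sobolev
open Crest.Agent.R096.Msh_715 (Tiling P I)
open Crest.Agent.R096.Sk2_855 (sk1 HP Mv)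
open Crest.Agent.R096.Sk3_812 (GoodT HF ug KT Crs)
open Crest.Agent.R96.Intr_538 (cel par cel_mono isCompact_cel GC)
open Crest.Agent.R96.Lu_538 (Gmat)
open Crest.Agent.R96.Coarse_538

/-- a mesh family: `T a` is the mesh at the position `a`; near `W` its 1-skeleton is the translate by
`a` of a fixed countable family of segments -/
structure MF (Om W : Set R3) (t n : ℝ) where
  κi : Type
  cnt : Countable κi
  x : κi → R3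
  v : κi → R3
  Tr : Set R3
  meas : MeasurableSet Tr
  vol : ENNReal.ofReal (t ^ 3) ≤ volume Tr
  fin : volume Tr ≠ ∞
  vle : ∀ e, ‖v e‖ ≤ t
  dens : Dens Tr (ENNReal.ofReal n) x v
  ι : R3 → Type
  T : ∀ a, Tiling Om (ι a)
  sg : ∀ a ∈ Tr, ∀ y ∈ sk1 (T a), y ∈ W → ∃ e, seg x v a e ⊆ sk1 (T a) ∧ y ∈ seg x v a e

/-- the shape of a tile and of its neighbours (432's `GapT` in absolute units) -/
structure TileG {E : Type} [NormedAddCommGroup E] [NormedSpace ℝ E] [FiniteDimensional ℝ E]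
    {Om : Set E} {ι : Type*} (T : Tiling Om ι) (i : ι)
    (hne : (T.H i).Nonempty) (c : E) (β ρ t : ℝ) (nc : ℕ) : Prop where
  cI : c ∈ I (T.H i)
  ball : closedBall c ρ ⊆ P (T.H i)
  gap : ∀ y ∈ sk1 T, y ∉ P (T.H i) → ¬ Crs T i y →
    1 + 4 * β ≤ ug (T.H i) hne c (AffineEquiv.refl ℝ E) y
  star : ∀ y, ug (T.H i) hne c (AffineEquiv.refl ℝ E) y ≤ 1 + 4 * β →
    ∃ m, (P (T.H m) ∩ P (T.H i)).Nonempty ∧ y ∈ P (T.H m)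
  cardK : Nat.card (KT T i) ≤ nc
  cardN : {j | (P (T.H j) ∩ P (T.H i)).Nonempty}.ncard ≤ nc
  diam : ∀ y ∈ P (T.H i), ∀ y' ∈ P (T.H i), ‖y - y'‖ ≤ t

/-- **coarse selection for a mesh family** (538's `coarse_G`, with absolute continuity) -/
theorem coarse_mesh {p : ℝ} (hp : 1 ≤ p) {Ω Λ : Set R3} (hΩ : IsOpen Ω)
    (hΩb : Bornology.IsBounded Ω) (hΛ : IsOpen Λ) (hΛf : volume Λ ≠ ∞) {f : R3 → R3}
    {G : Fin 3 → R3 → R3} (hinj : InjOn f Ω)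
    (hf : ContinuousOn f Ω) (hfΛ : MapsTo f Ω Λ)
    (hG : ∀ j, HasWeakGradOn Ω (fun x => f x j) (G j))
    (hGp : ∀ j, MemLp (G j) (ENNReal.ofReal p) (volume.restrict Ω)) {ε : ℝ} (hε : 0 < ε) :
    ∃ κ : ℝ, 0 < κ ∧ κ ≤ 1 ∧ ∃ K ⊆ Ω, IsCompact K ∧ ∃ K' ⊆ Λ, IsCompact K' ∧
      ∀ N n τ σ₀ η θ δ e₁ : ℝ, 0 < N → 0 < n → 0 < σ₀ → σ₀ < τ → 2 * τ ≤ 1 → 1 ≤ σ₀ * N →
        0 < η → 0 < θ → 0 < δ → 0 < e₁ →
        ∃ s₀ : ℝ, 0 < s₀ ∧ ∀ s : ℝ, 0 < s → s < s₀ → ∀ a₀ : R3,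
        ∃ (Q₀ : Finset (Fin 3 → ℤ)) (b : (Fin 3 → ℤ) → R3) (L : (Fin 3 → ℤ) → R3 →L[ℝ] R3)
          (S : (Fin 3 → ℤ) → Set R3),
          (∀ k ∈ Q₀, GC Ω volume f (Gmat G) Cb κ e₁ s (vt (2 * s) a₀ k) (b k) (L k) (S k)) ∧
          (∀ k ∈ Q₀, cel Cb (vt (2 * s) a₀ k) s ⊆ K) ∧ (∀ k ∈ Q₀, par Cb (L k) (b k) s ⊆ K') ∧
          (∀ k ∈ Q₀, ∀ l ∈ Q₀, k ≠ l →
            Disjoint (par Cb (L k) (b k) ((1 - τ) * s)) (par Cb (L l) (b l) s)) ∧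
          ∑ k ∈ Q₀, ∫⁻ x in cel Cb (vt (2 * s) a₀ k) s, ‖Gmat G x - L k‖ₑ ^ p ≤
            ENNReal.ofReal e₁ ∧
          volume ((Ω ∩ {x | (Gmat G x).det ≠ 0}) \ ⋃ k ∈ Q₀, cel Cb (vt (2 * s) a₀ k) s) ≤
            ENNReal.ofReal ε ∧
          ∀ (W : Set R3) (M : MF Ω W (s / N) n),
            ∃ B : Set R3, volume B ≤ ENNReal.ofReal θ * volume M.Tr ∧
              ∀ a ∈ M.Tr, a ∉ B → (∀ e, ACV Ω f (Gmat G) (M.v e) (a + M.x e)) ∧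
                ∃ Q ⊆ Q₀, ((Q₀ \ Q).card : ℝ) * (2 * s) ^ 3 ≤ δ ∧
                ∀ k ∈ Q, PerfG M.x M.v p Ω f (Gmat G) κ τ σ₀ η (s / N) s a (vt (2 * s) a₀ k)
                  (b k) (L k) := by
  obtain ⟨κ, hκ, hκ1, K, hK, hKc, K', hK', hK'c, H⟩ :=
    coarse_G hp hΩ hΩb hΛ hΛf hinj hf hfΛ hG hGp hε
  refine ⟨κ, hκ, hκ1, K, hK, hKc, K', hK', hK'c, ?_⟩
  intro N n τ σ₀ η θ δ e₁ hN hn hσ₀ hσ₀τ hτ1 hσN hη hθ hδ he₁
  obtain ⟨s₀, hs₀, H1⟩ := H N n τ σ₀ η θ δ e₁ hN hn hσ₀ hσ₀τ hτ1 hσN hη hθ hδ he₁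
  refine ⟨s₀, hs₀, fun s hs hss a₀ => ?_⟩
  obtain ⟨Q₀, b, L, S, h1, h2, h3, h4, h5, h6, H2⟩ := H1 s hs hss a₀
  refine ⟨Q₀, b, L, S, h1, h2, h3, h4, h5, h6, fun W M => ?_⟩
  have := M.cnt
  obtain ⟨B, hB, hB'⟩ := H2 M.κi M.x M.v M.Tr M.meas M.vol M.vle M.dens
  have hnull : volume {a : R3 | ¬ ∀ e, ACV Ω f (Gmat G) (M.v e) (a + M.x e)} = 0 :=
    acv_countable hΩ hG hf M.x M.v
  refine ⟨B ∪ {a : R3 | ¬ ∀ e, ACV Ω f (Gmat G) (M.v e) (a + M.x e)}, ?_, fun a ha haB => ?_⟩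
  · refine (measure_union_le _ _).trans ?_
    rw [hnull, add_zero]
    exact hB
  · rw [mem_union, not_or] at haB
    refine ⟨not_not.1 haB.2, hB' a ha haB.1⟩

end Crest.Agent.R096.Ca_855
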