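import Crest.Agent.R096.Tgr3_335

/-!
# Row 96, 2SK for arbitrary tilings (helper335), part 4: the edges which leave a tile
The index type `KT T i` of the 1-cells with exactly one end in the tile `i`; `two`, `conn`.
-/

set_option autoImplicit false
set_option linter.unusedSectionVars false

open Set Metric Topology Filter

namespace Crest.Agent.R096.Tgr_335

open Crest.Agent.R096.Msh_715 Crest.Agent.R096.Msh_715.Tiling Crest.Agent.R096.Coh_184
open Crest.Agent.R096.Lab_184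

variable {E : Type*} [NormedAddCommGroup E] [NormedSpace ℝ E] [FiniteDimensional ℝ E]
variable {Om : Set E} {ι : Type*}

/-- the 1-cells which leave the tile `i` -/
def KT (T : Tiling Om ι) (i : ι) : Type _ := {c : T.Cell // Crs T i c.pt}

variable {T : Tiling Om ι} {i : ι}

/-- the chosen interior point of the edge -/
noncomputable def KT.e (k : KT T i) : E := k.1.pt

theorem KT.crs (k : KT T i) : Crs T i k.e := k.2

theorem KT.ext {k k' : KT T i} (h : T.cc k.e = T.cc k'.e) : k = k' :=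
  Subtype.ext (Cell.ext (by rw [Cell.set_eq, Cell.set_eq]; exact h))

theorem KT.exists_of {e : E} (h : Crs T i e) : ∃ k : KT T i, T.cc k.e = T.cc e := by
  have h1 : T.cc (T.cl h.om).pt = T.cc e := by rw [← Cell.set_eq, T.cl_set]
  exact ⟨⟨T.cl h.om, h.congr (Cell.pt_mem _) h1⟩, h1⟩

theorem KT.einj (k k' : KT T i) (h : k'.e ∈ T.oc k.e) : k' = k :=
  KT.ext (T.cc_eq_of_mem_oc k.crs.om h)

theorem KT.einj' (k k' : KT T i) (h : k'.e ∈ T.cc k.e) : k' = k :=
  KT.ext (cc_eq_of_dim_one k.crs.om k'.crs.dim k.crs.dim h)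

instance : Finite (KT T i) := by
  have hf := T.finite_cells (T.cpt i) (T.sub i)
  have : Finite {c : Set E | (∃ x ∈ Om, c = T.cc x) ∧ (c ∩ P (T.H i)).Nonempty} := hf.to_subtype
  refine Finite.of_injective (β := {c : Set E | (∃ x ∈ Om, c = T.cc x) ∧ (c ∩ P (T.H i)).Nonempty})
    (fun k => ⟨T.cc k.e, ⟨k.e, k.crs.om, rfl⟩, k.crs.meet⟩) ?_
  intro k k' h
  exact KT.ext (Subtype.ext_iff.1 h)

/-- **`two`**: a 2-cell contains no crossing edge or exactly two of them -/
theorem two {x : E} (hx : x ∈ Om) (hd : T.dim x = 2) (hex : ∃ k : KT T i, k.e ∈ T.cc x) :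
    ∃ k k' : KT T i, k ≠ k' ∧ k.e ∈ T.cc x ∧ k'.e ∈ T.cc x ∧
      ∀ k'' : KT T i, k''.e ∈ T.cc x → k'' = k ∨ k'' = k' := by
  obtain ⟨k, hk⟩ := hex
  obtain ⟨e, e', h, h', hne, he, he', hall⟩ := two_tile hx hd ⟨k.e, hk, k.crs⟩
  obtain ⟨a, ha⟩ := KT.exists_of h
  obtain ⟨b, hb⟩ := KT.exists_of h'
  refine ⟨a, b, fun hab => hne ?_, ?_, ?_, fun k'' hk'' => ?_⟩
  · rw [← ha, ← hb, hab]
  · exact T.cc_sub_of_mem he (by rw [← ha]; exact T.self_mem_cc _)
  · exact T.cc_sub_of_mem he' (by rw [← hb]; exact T.self_mem_cc _)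
  · rcases hall k''.e k''.crs hk'' with h1 | h1
    · exact Or.inl (KT.ext (by rw [h1, ha]))
    · exact Or.inr (KT.ext (by rw [h1, hb]))

/-- two crossing edges in one 2-cell -/
def Adj (k k' : KT T i) : Prop := ∃ x ∈ Om, T.dim x = 2 ∧ k.e ∈ T.cc x ∧ k'.e ∈ T.cc x

/-- **`conn`**: any two crossing edges are joined through 2-cells -/
theorem conn (h3 : Module.finrank ℝ E = 3) {D : Set E} (hD : IsCompact D) (hDc : Convex ℝ D)
    (hDO : D ⊆ Om)
    (hst : ∀ q, (P (T.H q) ∩ P (T.H i)).Nonempty → P (T.H q) ⊆ interior D) (k0 k1 : KT T i) :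
    Relation.ReflTransGen (fun k k' : KT T i => Adj k k') k0 k1 := by
  classical
  by_contra hcon
  let 𝒜 : Set (KT T i) := {k | Relation.ReflTransGen (fun k k' : KT T i => Adj k k') k0 k}
  have hfin : (KT.e '' 𝒜).Finite := (toFinite 𝒜).image _
  let Q : Finset E := hfin.toFinset
  have hQmem : ∀ w, w ∈ Q ↔ ∃ k ∈ 𝒜, k.e = w := fun w => by
    rw [Set.Finite.mem_toFinset]; rfl
  have hQc : ∀ w ∈ Q, Crs T i w := by
    intro w hw
    obtain ⟨k, -, rfl⟩ := (hQmem w).1 hw
    exact k.crs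
  have heinj : ∀ k k' : KT T i, k.e = k'.e → k = k' := fun k k' h => KT.ext (by rw [h])
  have hev : EvPat T Q := by
    refine ⟨fun w hw => ⟨(hQc w hw).om, (hQc w hw).dim⟩, fun x hx hd => ?_⟩
    by_cases hne : ((Q : Set E) ∩ T.cc x).Nonempty
    · obtain ⟨w, hw, hwx⟩ := hne
      obtain ⟨k, hk, rfl⟩ := (hQmem w).1 hw
      obtain ⟨a, b, hab, ha, hb, hall⟩ := two hx hd ⟨k, hwx⟩
      have hA : ∀ c : KT T i, c.e ∈ T.cc x → c ∈ 𝒜 := fun c hc =>
        Relation.ReflTransGen.tail hk ⟨x, hx, hd, hwx, hc⟩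
      have he : (Q : Set E) ∩ T.cc x = {a.e, b.e} := by
        ext w
        simp only [mem_inter_iff, Finset.mem_coe, mem_insert_iff, mem_singleton_iff]
        constructor
        · rintro ⟨hw, hwx'⟩
          obtain ⟨c, hc, rfl⟩ := (hQmem w).1 hw
          rcases hall c hwx' with rfl | rfl
          · exact Or.inl rfl
          · exact Or.inr rfl
        · rintro (rfl | rfl)
          · exact ⟨(hQmem _).2 ⟨a, hA a ha, rfl⟩, ha⟩
          · exact ⟨(hQmem _).2 ⟨b, hA b hb, rfl⟩, hb⟩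
      rw [he, ncard_pair (fun h => hab (heinj a b h))]
      exact even_two
    · rw [Set.not_nonempty_iff_eq_empty.1 hne, ncard_empty]
      exact Even.zero
  have hcell : ∀ w, Crs T i w → T.cc w ⊆ interior D := by
    intro w hw
    obtain ⟨q, hq⟩ := T.cov w hw.om
    have h1 := T.cc_sub_tile (x := w) (i := q) hq
    obtain ⟨y, hy, hyK⟩ := hw.meet
    exact h1.trans (hst q ⟨y, h1 hy, hyK⟩)
  have hint : (interior D).Nonempty := by
    obtain ⟨z, hz⟩ := T.ne i
    have hz' : z ∈ P (T.H i) := fun h hh => (hz h hh).le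
    exact ⟨z, hst i ⟨z, hz', hz'⟩ hz'⟩
  have htr : TrivF (ZMod 2) D := by
    have := trivF_convex (A := ZMod 2) hD hDc (g := (id : E → E)) continuousOn_id
      (injOn_id _)
    rwa [image_id] at this
  obtain ⟨lam, -, -, h4⟩ := labels (T := T) h3 hev hD hDO
    (Lab_184.isPreconnected_frontier h3 hD hDc hint) htr (fun w hw q hwq => by
      obtain ⟨y, hy, hyK⟩ := (hQc w hw).meet
      exact hst q ⟨y, T.cc_sub_tile (x := w) (i := q) hwq hy, hyK⟩)
  -- inside
  have hin : ∀ v ∈ P (T.H i), ∀ w ∈ P (T.H i), T.dim v = 0 → T.dim w = 0 → lam v = lam w := by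
    intro v hv w hw hv0 hw0
    exact T.const_of_preconnected ((convex_P (T.H i)).isPreconnected) (T.sub i)
      (fun y hy => cc_sub_P T hy) (fun g hg hgd a b hab => by
        have h5 := h4 g (T.sub i hg) hgd a b hab
        rw [ncard_zero_of_in hQc hg, Nat.cast_zero, add_eq_zero_iff_eq] at h5
        exact h5) v hv w hw hv0 hw0
  -- outside
  obtain ⟨z, hz⟩ := T.ne i
  have hz' : z ∈ interior (P (T.H i)) :=
    mem_interior.2 ⟨I (T.H i), fun y hy h hh => (hy h hh).le, isOpen_I _, hz⟩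
  have hPD : P (T.H i) ⊆ interior D :=
    hst i ⟨z, interior_subset hz', interior_subset hz'⟩
  have hpc : IsPreconnected (interior D \ P (T.H i)) :=
    compl_preconnected h3 isOpen_interior hDc.interior.isPreconnected (convex_P _) (T.cpt i)
      hPD hz'
  have hDO' : interior D ⊆ Om := interior_subset.trans hDO
  have hout : ∀ v ∈ interior D, ∀ w ∈ interior D, T.dim v = 0 → T.dim w = 0 →
      v ∉ P (T.H i) → w ∉ P (T.H i) → lam v = lam w := by
    intro v hv w hw hv0 hw0 hvn hwn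
    refine const_of_cells_off T hpc (sdiff_subset.trans hDO') (fun x hx => hx.2)
      (fun x hx => const_cell_off T (hDO' hx.1) (fun g hg hgd a b hab ha hb => ?_))
      v ⟨hv, hvn⟩ w ⟨hw, hwn⟩ v (T.self_mem_cc v) w (T.self_mem_cc w) hv0 hw0 hvn hwn
    have hgO := T.cc_sub_Om (hDO' hx.1) hg
    have h5 := h4 g hgO hgd a b hab
    rw [ncard_zero_of_out hQc hgO hgd hab ha hb, Nat.cast_zero, add_eq_zero_iff_eq] at h5
    exact h5
  obtain ⟨a, b, e1, ha, hb, haK, hbK⟩ := k0.crs.ends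
  obtain ⟨c, d, e2, hc, hdd, hcK, hdK⟩ := k1.crs.ends
  have hbD : b ∈ interior D := hcell _ k0.crs (by rw [e1]; exact right_mem_segment ℝ _ _)
  have hdD : d ∈ interior D := hcell _ k1.crs (by rw [e2]; exact right_mem_segment ℝ _ _)
  have r1 := h4 k0.e k0.crs.om k0.crs.dim a b e1
  have r2 := h4 k1.e k1.crs.om k1.crs.dim c d e2
  have c1 : (Q : Set E) ∩ T.cc k0.e = {k0.e} := by
    ext w
    simp only [mem_inter_iff, Finset.mem_coe, mem_singleton_iff]
    constructor
    · rintro ⟨hw, hw'⟩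
      obtain ⟨k, hk, rfl⟩ := (hQmem w).1 hw
      rw [KT.einj' k0 k hw']
    · rintro rfl
      exact ⟨(hQmem _).2 ⟨k0, Relation.ReflTransGen.refl, rfl⟩, T.self_mem_cc _⟩
  have c2 : (Q : Set E) ∩ T.cc k1.e = ∅ := by
    rw [eq_empty_iff_forall_notMem]
    rintro w ⟨hw, hw'⟩
    obtain ⟨k, hk, rfl⟩ := (hQmem w).1 hw
    rw [KT.einj' k1 k hw'] at hk
    exact hcon hk
  rw [c1, ncard_singleton, Nat.cast_one] at r1
  rw [c2, ncard_empty, Nat.cast_zero] at r2
  rw [hin a haK c hcK ha hc, hout b hbD d hdD hb hdd hbK hdK, r2] at r1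
  exact zero_ne_one r1

end Crest.Agent.R096.Tgr_335
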