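import Crest.Agent.R096.Gau2_812
import Crest.Agent.R096.Tgr4_335

/-!
# Row 96, 2SK for tiles (helper812), part 3: `Tg` from 335's `two` / `conn`
-/

set_option autoImplicit false
set_option linter.unusedSectionVars false

open Set Metric

namespace Crest.Agent.R096.Sk3_812

open Crest.Agent.R096.Msh_715

variable {E : Type} [NormedAddCommGroup E] [NormedSpace ℝ E] [FiniteDimensional ℝ E]
  {Om La : Set E} {ι : Type*} {T : Tiling Om ι} {i : ι}

theorem crs_iff {x : E} : Crs T i x ↔ Tgr_335.Crs T i x :=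
  ⟨fun h => ⟨h.1, h.2.1, h.2.2.1, h.2.2.2⟩, fun h => ⟨h.om, h.dim, h.off, h.meet⟩⟩

/-- the same edge in 335's type -/
def toG (k : KT T i) : Tgr_335.KT T i := ⟨k.1, crs_iff.1 k.2⟩

/-- the same edge in our type -/
def ofG (k : Tgr_335.KT T i) : KT T i := ⟨k.1, crs_iff.2 k.2⟩

theorem ofG_toG (k : KT T i) : ofG (toG k) = k := rfl

theorem toG_ofG (k : Tgr_335.KT T i) : toG (ofG k) = k := rfl

/-- **the combinatorics of the crossing edges of a tile deep in a convex set** -/
theorem tg (h3 : Module.finrank ℝ E = 3) {D : Set E} (hD : IsCompact D) (hDc : Convex ℝ D)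
    (hDO : D ⊆ Om) (hst : ∀ q, (P (T.H q) ∩ P (T.H i)).Nonempty → P (T.H q) ⊆ interior D) :
    Tg T i where
  two := by
    rintro x hx hd ⟨k, hk⟩
    obtain ⟨a, b, hab, ha, hb, h⟩ := Tgr_335.two hx hd ⟨toG k, hk⟩
    refine ⟨ofG a, ofG b, fun e => hab ?_, ha, hb, fun k'' h'' => ?_⟩
    · have := congrArg toG e
      rwa [toG_ofG, toG_ofG] at this
    · rcases h (toG k'') h'' with e | e
      · left
        have := congrArg ofG e
        rwa [ofG_toG] at this
      · right
        have := congrArg ofG e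
        rwa [ofG_toG] at this
  conn := by
    intro k k'
    have h := Tgr_335.conn h3 hD hDc hDO hst (toG k) (toG k')
    have key : ∀ a : Tgr_335.KT T i, Relation.ReflTransGen
        (fun k k' : Tgr_335.KT T i => Tgr_335.Adj k k') (toG k) a →
        Relation.ReflTransGen (fun k k' : KT T i => ∃ x ∈ Om, T.dim x = 2 ∧ k.1.pt ∈ T.cc x ∧
          k'.1.pt ∈ T.cc x) k (ofG a) := by
      intro a ha
      induction ha with
      | refl => exact Relation.ReflTransGen.refl
      | tail _ h2 ih => exact ih.tail h2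
    exact key _ h

end Crest.Agent.R096.Sk3_812
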