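import Crest.Agent.R096.Mal15_874

/-!
# Row 96, library (MESH-AL), part 16: good tiles (all neighbours have inequalities in good form)
-/

set_option autoImplicit false

open Set Filter Topology Metric

namespace Crest.Agent.R096.Mal_874

open Msh_715 Cut_874 Msh_810

variable {n : ℕ} {E : Type*} [NormedAddCommGroup E] [NormedSpace ℝ E]

/-- **good tile**: in the coordinates `χ` (scale `2 ^ k`) all inequalities of all tiles which meet the
tile `t` are `ν · χ ≤ c / d` with `ν ∈ 𝒩`, `c : ℤ`, and the tile has size at most `R` -/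
structure Good {Om : Set E} {ι : Type*} (T : Tiling Om ι) (t : ι) (χ : E ≃ᵃ[ℝ] (Fin n → ℝ)) (k : ℕ)
    (𝒩 : Finset (Fin n → ℝ)) (d : ℕ) (R : ℝ) : Prop where
  gf : ∀ l, (P (T.H l) ∩ P (T.H t)).Nonempty → ∀ h ∈ T.H l, ∃ ν, ∃ c : ℤ, GF χ (2 ^ k) 𝒩 d h ν c
  sz : ∀ x ∈ P (T.H t), ∀ y ∈ P (T.H t), ∀ m, |χ y m - χ x m| ≤ R

theorem Good.sim {Om : Set E} {ι : Type*} {T : Tiling Om ι} {t : ι} {χ : E ≃ᵃ[ℝ] (Fin n → ℝ)}
    {k : ℕ} {𝒩 : Finset (Fin n → ℝ)} {d : ℕ} {R : ℝ} (h : Good T t χ k 𝒩 d R) (hd : 0 < d)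
    (h𝒩 : ∀ ν ∈ 𝒩, ∀ m, ∃ c : ℤ, ν m = c / d) :
    ∃ z : Fin n → ℤ, (fun K => (χ.trans (trz z)) '' K) '' cfg T t ∈ simL 𝒩 d R :=
  sim_tile (s := 2 ^ k) (by positivity) hd h𝒩 h.gf h.sz

/-- the closed cells of a good tile -/
theorem Good.cc {Om : Set E} {ι : Type*} {T : Tiling Om ι} {t : ι} {χ : E ≃ᵃ[ℝ] (Fin n → ℝ)}
    {k : ℕ} {𝒩 : Finset (Fin n → ℝ)} {d : ℕ} {R : ℝ} (h : Good T t χ k 𝒩 d R) (hd : 0 < d)
    (h𝒩 : ∀ ν ∈ 𝒩, ∀ m, ∃ c : ℤ, ν m = c / d) {x : E} (hx : x ∈ P (T.H t)) :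
    ∃ S ∈ shapes 𝒩 d (bnd 𝒩 d R), T.cc x = {y | (fun m => χ y m - (⌊χ x m⌋ : ℝ)) ∈ S} :=
  cc_shape' (x := x) (s := 2 ^ k) (by positivity) hd h𝒩 (R := R) (le_bnd (R := R))
    (fun l hl h' hh => h.gf l ⟨x, hl, hx⟩ h' hh) (i₀ := t) hx (h.sz x hx)

namespace MD

variable {J : Type*} (M : MD E n J) [NeZero n] {k : J → ℕ} (hk : M.Sc k) (a : Fin n → ℝ)
  {v : J → E} (hv : M.Adm v)

theorem mesh_inl (p : M.OIx hk a hv) :
    (M.mesh hk a hv).H (Sum.inl p) = (M.ad hk a hv).T1.H p.1 := rfl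

theorem mesh_inr {j : J} (i : M.IIx hk a hv j) :
    (M.mesh hk a hv).H (Sum.inr ⟨j, i⟩) = (M.S hk (v := v) j).H i.1 := rfl

/-- an outer piece touches a block only in its wall -/
theorem outer_touch (p : M.OIx hk a hv) {j : J} {x : E}
    (hx : x ∈ P ((M.mesh hk a hv).H (Sum.inl p))) (hxN : x ∈ (M.Bk v j).N) :
    x ∈ frontier (M.Bk v j).N :=
  AD.frontier_of (M := M.ad hk a hv) p.2 hx hxN

/-- **good tiles, outer** -/
theorem outer_good (X : RD M) (RPx : RP X a v k) (p : M.OIx hk a hv) :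
    (P ((M.mesh hk a hv).H (Sum.inl p)) = P ((M.ad hk a hv).T0.H p.1.par) ∧
      (∀ j, Disjoint (P ((M.mesh hk a hv).H (Sum.inl p))) (M.Bk v j).N) ∧
      Good (M.mesh hk a hv) (Sum.inl p) (chi M.φ a (p.1.par.1.1.k + 1)) (p.1.par.1.1.k + 1)
        (N0 n) 1 2) ∨
    ∃ j, p.1.par.1.1.k = k j ∧
      (∃ y ∈ frontier (M.Bk v j).N, ∀ x ∈ P ((M.mesh hk a hv).H (Sum.inl p)),
        dist (M.φ x) (M.φ y) ≤ 2 / 2 ^ k j) ∧
      Good (M.mesh hk a hv) (Sum.inl p) (chi M.φ a (k j)) (k j) (NR (X.A j) (X.d j)) (X.d j)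
        (X.c j) := by
  by_cases h : ∀ τ : Top (M.ad hk a hv).D,
      (P ((M.ad hk a hv).T0.H τ) ∩ P ((M.ad hk a hv).T0.H p.1.par)).Nonempty →
      ∀ j, Disjoint (P ((M.ad hk a hv).T0.H τ)) (frontier (M.Bk v j).N)
  · left
    have hself : (P ((M.ad hk a hv).T0.H p.1.par) ∩ P ((M.ad hk a hv).T0.H p.1.par)).Nonempty := by
      obtain ⟨x, hx⟩ := (M.ad hk a hv).T0.ne p.1.par
      exact ⟨x, I_sub_P _ hx, I_sub_P _ hx⟩
    have h0 := h p.1.par hself
    have hsub : P ((M.mesh hk a hv).H (Sum.inl p)) ⊆ P ((M.ad hk a hv).T0.H p.1.par) :=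
      cut_tile_sub (hA := AF_ne) p.1
    have hA : AF (M.ad hk a hv).T0 (M.ad hk a hv).ψ (M.ad hk a hv).a' (M.ad hk a hv).κ
        (M.ad hk a hv).Z p.1.par = ∅ := AF_empty h0
    have hP : P ((M.mesh hk a hv).H (Sum.inl p)) = P ((M.ad hk a hv).T0.H p.1.par) := by
      refine Set.Subset.antisymm hsub ?_
      intro x hx
      refine mem_P_cutH.2 ⟨hx, ?_, ?_⟩
      · intro b hb
        have h1 : b ∈ AF (M.ad hk a hv).T0 (M.ad hk a hv).ψ (M.ad hk a hv).a' (M.ad hk a hv).κ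
          (M.ad hk a hv).Z p.1.par := p.1.2.1 hb
        rw [hA] at h1
        exact absurd h1 (Finset.notMem_empty _)
      · intro b hb
        have h1 : b ∈ AF (M.ad hk a hv).T0 (M.ad hk a hv).ψ (M.ad hk a hv).a' (M.ad hk a hv).κ
          (M.ad hk a hv).Z p.1.par := hb
        rw [hA] at h1
        exact absurd h1 (Finset.notMem_empty _)
    have hdis : ∀ j, Disjoint (P ((M.mesh hk a hv).H (Sum.inl p))) (M.Bk v j).N := by
      intro j
      rw [Set.disjoint_left]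
      intro x hx hxN
      exact Set.disjoint_left.1 (h0 j) (hsub hx) (M.outer_touch hk a hv p hx hxN)
    refine ⟨hP, hdis, ⟨?_, ?_⟩⟩
    · rintro (q | ⟨j, i⟩) ⟨x, hx1, hx2⟩
      · intro h' hh'
        have hq : (P ((M.ad hk a hv).T0.H q.1.par) ∩ P ((M.ad hk a hv).T0.H p.1.par)).Nonempty :=
          ⟨x, cut_tile_sub (hA := AF_ne) q.1 hx1, hsub hx2⟩
        have hAq : AF (M.ad hk a hv).T0 (M.ad hk a hv).ψ (M.ad hk a hv).a' (M.ad hk a hv).κ
            (M.ad hk a hv).Z q.1.par = ∅ := AF_empty (h q.1.par hq)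
        have hkq : q.1.par.1.1.k ≤ p.1.par.1.1.k + 1 := by
          have h1 : q.1.par ∈ (tiling M.φ (outD M.D0 k M.W a)).at_ x :=
            cut_tile_sub (hA := AF_ne) q.1 hx1
          have h2 : p.1.par ∈ (tiling M.φ (outD M.D0 k M.W a)).at_ x := hsub hx2
          exact (tile_k_le h1).trans (K_le_succ (mem_at.1 h2))
        rcases mem_cutH.1 hh' with h1 | h1 | ⟨b, h1, -, rfl⟩
        · exact gf_cube one_pos (fr_self M.φ a _ subset_rfl 1) hkq _ _ h1
        · have h2 : h' ∈ AF (M.ad hk a hv).T0 (M.ad hk a hv).ψ (M.ad hk a hv).a'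
            (M.ad hk a hv).κ (M.ad hk a hv).Z q.1.par := q.1.2.1 h1
          rw [hAq] at h2
          exact absurd h2 (Finset.notMem_empty _)
        · have h2 : b ∈ AF (M.ad hk a hv).T0 (M.ad hk a hv).ψ (M.ad hk a hv).a'
            (M.ad hk a hv).κ (M.ad hk a hv).Z q.1.par := h1
          rw [hAq] at h2
          exact absurd h2 (Finset.notMem_empty _)
      · have hxN : x ∈ (M.Bk v j).N := i.2 hx1
        exact absurd hxN (Set.disjoint_left.1 (hdis j) hx2)
    · intro x hx y hy m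
      have hx' := (AD.tile_T0 (M := M.ad hk a hv) _).1 (hsub hx)
      have hy' := (AD.tile_T0 (M := M.ad hk a hv) _).1 (hsub hy)
      refine (size_tile (k := p.1.par.1.1.k + 1) hx' hy' m).trans ?_
      rw [pow_succ, mul_comm, mul_div_assoc, div_self (by positivity), mul_one]
  · right
    push Not at h
    obtain ⟨τ, ⟨x, hx1, hx2⟩, j, hj⟩ := h
    obtain ⟨y, hy1, hy2⟩ := Set.not_disjoint_iff.1 hj
    have hp : (0 : ℝ) < 1 / 2 ^ k j := by positivity
    have hp' : (0 : ℝ) < 2 ^ k j := by positivity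
    have e2 : (2 : ℝ) / 2 ^ k j = 2 * (1 / 2 ^ k j) := by ring
    have e3 : (3 : ℝ) / 2 ^ k j = 3 * (1 / 2 ^ k j) := by ring
    have e5 : (5 : ℝ) / 2 ^ k j = 5 * (1 / 2 ^ k j) := by ring
    have hy0 : infDist (M.φ y) (M.W j) = 0 := infDist_zero_of_mem (wall_mem hv j hy2)
    have hkτ : τ.1.1.k = k j :=
      AD.zone_k (M := M.ad hk a hv) (j := j) (by
        show infDist (M.φ y) (M.W j) < 5 / 2 ^ k j
        rw [hy0, e5]; linarith) hy1
    have h3 := AD.zone_dist (M := M.ad hk a hv) (j := j) hkτ hy1 hx1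
    change infDist (M.φ x) (M.W j) ≤ infDist (M.φ y) (M.W j) + 1 / 2 ^ k j at h3
    have hkp : p.1.par.1.1.k = k j := AD.zone_k (M := M.ad hk a hv) (j := j) (x := x) (by
      show infDist (M.φ x) (M.W j) < 5 / 2 ^ k j
      rw [hy0] at h3; rw [e5]; linarith) hx2
    have hW : ∀ z ∈ P ((M.ad hk a hv).T0.H p.1.par), infDist (M.φ z) (M.W j) ≤ 2 / 2 ^ k j := by
      intro z hz
      have h4 := AD.zone_dist (M := M.ad hk a hv) (j := j) hkp hx2 hz
      change infDist (M.φ z) (M.W j) ≤ infDist (M.φ x) (M.W j) + 1 / 2 ^ k j at h4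
      rw [hy0] at h3
      rw [e2]
      linarith
    have hsub : P ((M.mesh hk a hv).H (Sum.inl p)) ⊆ P ((M.ad hk a hv).T0.H p.1.par) :=
      cut_tile_sub (hA := AF_ne) p.1
    refine ⟨j, hkp, ⟨y, hy2, fun z hz => ?_⟩, ?_⟩
    · have h5 := dist_le_of_mem_Cu ((AD.tile_T0 τ).1 hx1) ((AD.tile_T0 τ).1 hy1)
      have h6 := dist_le_of_mem_Cu ((AD.tile_T0 _).1 (hsub hz)) ((AD.tile_T0 _).1 hx2)
      rw [hkτ] at h5
      rw [hkp] at h6
      change 2 ^ k j * dist (M.φ x) (M.φ y) ≤ 1 at h5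
      change 2 ^ k j * dist (M.φ z) (M.φ x) ≤ 1 at h6
      have h7 : dist (M.φ x) (M.φ y) ≤ 1 / 2 ^ k j := by
        rw [le_div_iff₀' hp']; exact h5
      have h8 : dist (M.φ z) (M.φ x) ≤ 1 / 2 ^ k j := by
        rw [le_div_iff₀' hp']; exact h6
      rw [e2]
      exact (dist_triangle _ _ _).trans (by linarith)
    · have hF : Fr (chi M.φ a (k j)) (k j) (NR (X.A j) (X.d j)) (X.d j) (M.Q j).ψ (M.Bk v j).a' :=
        fr_rat (X.dpos j) (X.rat j) (RPx.hκ j) (RPx.h0 j) (RPx.hv j)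
      refine ⟨?_, ?_⟩
      · rintro (q | ⟨l, i⟩) ⟨z, hz1, hz2⟩
        · have hz1' : z ∈ P ((M.ad hk a hv).T0.H q.1.par) := cut_tile_sub (hA := AF_ne) q.1 hz1
          have h4 := hW z (hsub hz2)
          have hkq : q.1.par.1.1.k = k j :=
            AD.zone_k (M := M.ad hk a hv) (j := j) (by
              show infDist (M.φ z) (M.W j) < 5 / 2 ^ k j
              rw [e2] at h4; rw [e5]; linarith) hz1'
          refine gf_outer (φ := M.φ) (D := (M.ad hk a hv).D) (X.dpos j)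
            (fr_self M.φ a (k j) (N0_sub_NR _ _) _) (p := q.1) ?_ hkq.le
          intro l hl
          have hlj : l = j := AD.zone_wall (M := M.ad hk a hv) hz1' (by
            show infDist (M.φ z) (M.W j) ≤ 3 / 2 ^ k j
            rw [e2] at h4; rw [e3]; linarith) hl
          subst hlj
          exact ⟨hF, hk.kc l⟩
        · have hzN : z ∈ (M.Bk v l).N := i.2 hz1
          have hzf := M.outer_touch hk a hv p hz2 hzN
          have h4 := hW z (hsub hz2)
          have hlj : l = j := AD.zone_wall (M := M.ad hk a hv) (hsub hz2) (by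
            show infDist (M.φ z) (M.W j) ≤ 3 / 2 ^ k j
            rw [e2] at h4; rw [e3]; linarith) ⟨z, hsub hz2, hzf⟩
          subst hlj
          have hi : (P ((M.S hk (v := v) l).H i.1) ∩ frontier (M.Bk v l).N).Nonempty :=
            ⟨z, hz1, hzf⟩
          obtain ⟨σ, hσ1, hσ⟩ := (M.Bk v l).wall_tile (k l) (hk.kc l) hi
            ⟨hi.some, hi.some_mem.1, hi.some_mem.1⟩
          rw [mesh_inr, hσ1]
          exact gf_cube (X.dpos l) hF hσ.le _
      · intro z hz w hw m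
        have hz' := (AD.tile_T0 (M := M.ad hk a hv) _).1 (hsub hz)
        have hw' := (AD.tile_T0 (M := M.ad hk a hv) _).1 (hsub hw)
        rw [hkp] at hz' hw'
        refine (chi_dist (c := 1) ?_ m).trans (X.c1 j)
        exact dist_cube hw' hz'

/-- **good tiles, inner** -/
theorem inner_good (X : RD M) (RPx : RP X a v k) {j : J} (i : M.IIx hk a hv j)
    (hi : i ≠ M.core hk a hv j) :
    (∃ τ, i.1 = Sum.inl τ ∧
      Disjoint (P ((M.mesh hk a hv).H (Sum.inr ⟨j, i⟩))) (frontier (M.Bk v j).N) ∧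
      Disjoint (P ((M.mesh hk a hv).H (Sum.inr ⟨j, i⟩)))
        ((M.Bk v j).S.bp (M.Bk v j).ψ (M.Bk v j).a' (M.Bk v j).kc) ∧
      Good (M.mesh hk a hv) (Sum.inr ⟨j, i⟩) (chi (M.Q j).ψ (M.Bk v j).a' (τ.1.1.1.k + 1))
        (τ.1.1.1.k + 1) (N0 n) 1 2) ∨
    ((∀ x ∈ P ((M.mesh hk a hv).H (Sum.inr ⟨j, i⟩)), (M.Bk v j).near 1 x) ∧
      Good (M.mesh hk a hv) (Sum.inr ⟨j, i⟩) (chi (M.Q j).ψ (M.Bk v j).a' (M.Q j).kc)
        (M.Q j).kc (NB n (X.B j)) 1 (X.R j)) ∨
    ((∃ τ, i.1 = Sum.inl τ ∧ τ.1.1.1.k = k j) ∧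
      (P ((M.mesh hk a hv).H (Sum.inr ⟨j, i⟩)) ∩ frontier (M.Bk v j).N).Nonempty ∧
      Good (M.mesh hk a hv) (Sum.inr ⟨j, i⟩) (chi M.φ a (k j)) (k j) (NR (X.A j) (X.d j)) (X.d j)
        (X.c j)) := by
  have hp : (0 : ℝ) < 1 / 2 ^ k j := by positivity
  have e3 : (3 : ℝ) / 2 ^ k j = 3 * (1 / 2 ^ k j) := by ring
  have e5 : (5 : ℝ) / 2 ^ k j = 5 * (1 / 2 ^ k j) := by ring
  -- inner tiles which meet `i`
  have hin : ∀ l (m : M.IIx hk a hv l), (P ((M.mesh hk a hv).H (Sum.inr ⟨l, m⟩)) ∩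
      P ((M.mesh hk a hv).H (Sum.inr ⟨j, i⟩))).Nonempty → l = j := by
    rintro l m ⟨y, hy1, hy2⟩
    by_contra hne
    exact Set.disjoint_left.1 ((M.ad hk a hv).dis l j hne) (m.2 hy1) (i.2 hy2)
  by_cases hw : (P ((M.S hk (v := v) j).H i.1) ∩ frontier (M.Bk v j).N).Nonempty
  · right; right
    have hF : Fr (chi M.φ a (k j)) (k j) (NR (X.A j) (X.d j)) (X.d j) (M.Q j).ψ (M.Bk v j).a' :=
      fr_rat (X.dpos j) (X.rat j) (RPx.hκ j) (RPx.h0 j) (RPx.hv j)
    have hself : (P ((M.S hk (v := v) j).H i.1) ∩ P ((M.S hk (v := v) j).H i.1)).Nonempty :=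
      ⟨hw.some, hw.some_mem.1, hw.some_mem.1⟩
    obtain ⟨τ, hiτ, hτ⟩ := (M.Bk v j).wall_tile (k j) (hk.kc j) hw hself
    refine ⟨⟨τ, hiτ, hτ⟩, hw, ⟨?_, ?_⟩⟩
    · rintro (q | ⟨l, m⟩) hl
      · obtain ⟨y, hy1, hy2⟩ := hl
        have hyf := M.outer_touch hk a hv q hy1 (i.2 hy2)
        have hy1' : y ∈ P ((M.ad hk a hv).T0.H q.1.par) := cut_tile_sub (hA := AF_ne) q.1 hy1
        have h0 : infDist (M.φ y) (M.W j) = 0 := infDist_zero_of_mem (wall_mem hv j hyf)
        have hkq : q.1.par.1.1.k = k j :=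
          AD.zone_k (M := M.ad hk a hv) (j := j) (by
            show infDist (M.φ y) (M.W j) < 5 / 2 ^ k j
            rw [h0, e5]; linarith) hy1'
        refine gf_outer (φ := M.φ) (D := (M.ad hk a hv).D) (X.dpos j)
          (fr_self M.φ a (k j) (N0_sub_NR _ _) _) (p := q.1) ?_ hkq.le
        intro l hl
        have hlj : l = j := AD.zone_wall (M := M.ad hk a hv) hy1' (by
          show infDist (M.φ y) (M.W j) ≤ 3 / 2 ^ k j
          rw [h0, e3]; linarith) hl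
        subst hlj
        exact ⟨hF, hk.kc l⟩
      · obtain rfl : l = j := hin l m hl
        obtain ⟨σ, hσ1, hσ⟩ := (M.Bk v l).wall_tile (k l) (hk.kc l) hw hl
        rw [mesh_inr, hσ1]
        exact gf_cube (X.dpos l) hF hσ.le _
    · intro x hx y hy m
      refine chi_dist ?_ m
      rw [mesh_inr, hiτ] at hx hy
      have h1 := dist_cube (((M.Bk v j).tile_T0 (k j) (hk.kc j)).1 hy)
        (((M.Bk v j).tile_T0 (k j) (hk.kc j)).1 hx)
      rw [hτ] at h1
      refine (X.cn j y x).trans ?_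
      have h2 := X.c1 j
      calc X.c j * dist ((M.Q j).ψ y) ((M.Q j).ψ x) ≤ X.c j * (1 / 2 ^ k j) :=
            mul_le_mul_of_nonneg_left h1 (by linarith)
        _ = X.c j / 2 ^ k j := by ring
  · -- no outer piece meets the tile
    have hout : ∀ q : M.OIx hk a hv, ¬ (P ((M.mesh hk a hv).H (Sum.inl q)) ∩
        P ((M.mesh hk a hv).H (Sum.inr ⟨j, i⟩))).Nonempty := by
      rintro q ⟨y, hy1, hy2⟩
      exact hw ⟨y, hy2, M.outer_touch hk a hv q hy1 (i.2 hy2)⟩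
    by_cases hb : (P ((M.S hk (v := v) j).H i.1) ∩
        (M.Bk v j).S.bp (M.Bk v j).ψ (M.Bk v j).a' (M.Bk v j).kc).Nonempty
    · right; left
      have hcore : i.1 ≠ (M.Bk v j).cix (k j) (hk.kc j) := fun h => hi (Subtype.ext h)
      refine ⟨?_, ?_, ?_⟩
      · intro x hx
        rw [mesh_inr] at hx
        rcases hi1 : i.1 with τ | s
        · rw [hi1] at hx hb
          obtain ⟨y, hy1, hy2⟩ := hb
          have := (M.Bk v j).near_tile (k j) (hk.kc j) hy1 hx ((M.Bk v j).near_of_bp hy2)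
          rwa [zero_add] at this
        · rw [hi1] at hx
          have := (M.Bk v j).near_of_bp ((M.Bk v j).P_inr_sub (k j) (hk.kc j) s hx)
          intro l
          have h := this l
          constructor <;> linarith [h.1, h.2]
      · rintro (q | ⟨l, m⟩) hl
        · exact absurd hl (hout q)
        · obtain rfl : l = j := hin l m hl
          exact (M.Bk v l).near_good (k l) (hk.kc l) (X.B1 l) (X.hB l) hb hl
      · intro x hx y hy l
        rw [chi_eq_ps, chi_eq_ps]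
        rw [mesh_inr] at hx hy
        rcases hi1 : i.1 with τ | s
        · rw [hi1] at hx hy
          exact ((M.Bk v j).tile_size (k j) (hk.kc j) hy hx l).trans (X.R1 j)
        · rw [hi1] at hx hy
          change x ∈ P (((M.Bk v j).T (k j) (hk.kc j)).H (Sum.inr s)) at hx
          change y ∈ P (((M.Bk v j).T (k j) (hk.kc j)).H (Sum.inr s)) at hy
          rw [CB.T_inr, mem_P_iH] at hx hy
          refine X.hR j s ?_ _ hx _ hy l
          rintro rfl
          exact hcore hi1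
    · left
      rcases hi1 : i.1 with τ | s
      · have hb' : Disjoint (P ((M.mesh hk a hv).H (Sum.inr ⟨j, i⟩)))
            ((M.Bk v j).S.bp (M.Bk v j).ψ (M.Bk v j).a' (M.Bk v j).kc) := by
          rw [Set.disjoint_iff_inter_eq_empty, ← Set.not_nonempty_iff_eq_empty, mesh_inr]
          exact hb
        refine ⟨τ, rfl, ?_, hb', ⟨?_, ?_⟩⟩
        · rw [Set.disjoint_iff_inter_eq_empty, ← Set.not_nonempty_iff_eq_empty, mesh_inr]
          exact hw
        · rintro (q | ⟨l, m⟩) hl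
          · exact absurd hl (hout q)
          · obtain rfl : l = j := hin l m hl
            obtain ⟨y, hy1, hy2⟩ := hl
            rw [mesh_inr] at hy1
            rcases hm1 : m.1 with σ | s
            · rw [mesh_inr, hm1]
              rw [hm1] at hy1
              rw [mesh_inr, hi1] at hy2
              have hkσ : σ.1.1.1.k ≤ τ.1.1.1.k + 1 :=
                (tile_k_le (φ := (M.Bk v l).ψ) (D := (M.Bk v l).D (k l) (hk.kc l)) hy1).trans
                  (K_le_succ (mem_at.1 (show τ.1 ∈ (tiling (M.Bk v l).ψ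
                    ((M.Bk v l).D (k l) (hk.kc l))).at_ y from hy2)))
              exact gf_cube one_pos (fr_self (M.Q l).ψ (M.Bk v l).a' _ subset_rfl 1) hkσ _
            · rw [hm1] at hy1
              exact absurd ((M.Bk v l).P_inr_sub (k l) (hk.kc l) s hy1)
                (Set.disjoint_left.1 hb' hy2)
        · intro x hx y hy m
          rw [mesh_inr, hi1] at hx hy
          have hx' := ((M.Bk v j).tile_T0 (k j) (hk.kc j)).1 hx
          have hy' := ((M.Bk v j).tile_T0 (k j) (hk.kc j)).1 hy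
          refine (size_tile (k := τ.1.1.1.k + 1) hx' hy' m).trans ?_
          rw [pow_succ, mul_comm, mul_div_assoc, div_self (by positivity), mul_one]
      · exfalso
        apply hb
        rw [hi1]
        obtain ⟨y, hy⟩ := (M.S hk (v := v) j).ne (Sum.inr s)
        exact ⟨y, I_sub_P _ hy, (M.Bk v j).P_inr_sub (k j) (hk.kc j) s (I_sub_P _ hy)⟩

end MD

end Crest.Agent.R096.Mal_874
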