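import Crest.Agent.R096.Gsm4_432
import Crest.Agent.R096.Mal16_874

/-!
# Row 96, GAPSIM (helper432), part 6: the tiles of the aligned mesh `MD.mesh` (helper874) have a uniform
gap
-/

set_option autoImplicit false
set_option linter.unusedSectionVars false

open Set Metric Topology Filter

namespace Crest.Agent.R096.Gsm_432

open Crest.Agent.R096.Msh_715 Crest.Agent.R096.Mal_874 Crest.Agent.R096.Cut_874
open Crest.Agent.R096.Msh_810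

universe u v w

variable {n : ℕ}

theorem good_mono {E : Type u} [NormedAddCommGroup E] [NormedSpace ℝ E] {Om : Set E} {ι : Type v}
    {T : Tiling Om ι} {t : ι} {χ : E ≃ᵃ[ℝ] (Fin n → ℝ)} {k : ℕ} {𝒩 𝒩' : Finset (Fin n → ℝ)} {d : ℕ}
    {R R' : ℝ} (h : Good T t χ k 𝒩 d R) (h1 : 𝒩 ⊆ 𝒩') (h2 : R ≤ R') : Good T t χ k 𝒩' d R' := by
  refine ⟨fun l hl g hg => ?_, fun x hx y hy m => (h.sz x hx y hy m).trans h2⟩
  obtain ⟨ν, c, hν, e⟩ := h.gf l hl g hg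
  exact ⟨ν, c, h1 hν, e⟩

/-- **every good tile has a gap, with uniform constants** -/
theorem gap_good (E : Type u) [NormedAddCommGroup E] [NormedSpace ℝ E] [FiniteDimensional ℝ E]
    (𝒩 : Finset (Fin n → ℝ)) {d : ℕ} (hd : 0 < d)
    (h𝒩 : ∀ ν ∈ 𝒩, ∀ m, ∃ c : ℤ, ν m = c / d) (R : ℝ) :
    ∃ β > 0, ∃ ρ > 0, ∃ D, ∃ nc : ℕ, ∀ {Om : Set E} {ι : Type v} (T : Tiling Om ι) (t : ι)
      (χ : E ≃ᵃ[ℝ] (Fin n → ℝ)) (k : ℕ), Good T t χ k 𝒩 d R → ∃ c, GapT T t χ c β ρ D nc := by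
  obtain ⟨β, hβ, ρ, hρ, D, nc, h⟩ := gap_tile.{u, v} E 𝒩 hd h𝒩 R
  exact ⟨β, hβ, ρ, hρ, D, nc, fun T i χ k hg => h T i χ (2 ^ k) (by positivity) hg.gf hg.sz⟩

theorem NB_mono {B B' : ℕ} (h : B ≤ B') : NB n B ⊆ NB n B' := by
  classical
  unfold NB
  refine Finset.image_subset_image (Fintype.piFinset_subset _ _ fun _ => ?_)
  have h' : (B : ℤ) ≤ B' := by exact_mod_cast h
  exact Finset.Icc_subset_Icc (by linarith) h'

/-- **uniform constants for a finite list of lists** -/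
theorem gap_goods (E : Type u) [NormedAddCommGroup E] [NormedSpace ℝ E] [FiniteDimensional ℝ E]
    {Ls : Set (Finset (Fin n → ℝ) × ℕ)} (hLs : Ls.Finite) (hpos : ∀ p ∈ Ls, 0 < p.2)
    (hrat : ∀ p ∈ Ls, ∀ ν ∈ p.1, ∀ m, ∃ c : ℤ, ν m = c / p.2) (R : ℝ) :
    ∃ β > 0, ∃ ρ > 0, ∃ D, ∃ nc : ℕ, ∀ {Om : Set E} {ι : Type v} (T : Tiling Om ι) (t : ι)
      (χ : E ≃ᵃ[ℝ] (Fin n → ℝ)) (k : ℕ), ∀ p ∈ Ls, Good T t χ k p.1 p.2 R →
      ∃ c, GapT T t χ c β ρ D nc := by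
  have key : ∀ p : Finset (Fin n → ℝ) × ℕ, ∃ β > 0, ∃ ρ > 0, ∃ D, ∃ nc : ℕ, p ∈ Ls →
      ∀ {Om : Set E} {ι : Type v} (T : Tiling Om ι) (t : ι)
      (χ : E ≃ᵃ[ℝ] (Fin n → ℝ)) (k : ℕ), Good T t χ k p.1 p.2 R →
      ∃ c, GapT T t χ c β ρ D nc := by
    intro p
    by_cases hp : p ∈ Ls
    · obtain ⟨β, hβ, ρ, hρ, D, nc, h⟩ := gap_good.{u, v} E p.1 (hpos p hp) (hrat p hp) R
      exact ⟨β, hβ, ρ, hρ, D, nc, fun _ => h⟩
    · exact ⟨1, one_pos, 1, one_pos, 0, 0, fun h => absurd h hp⟩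
  choose β hβ ρ hρ D nc h using key
  obtain ⟨β0, hβ0, h1⟩ := exists_lb hLs hβ
  obtain ⟨ρ0, hρ0, h2⟩ := exists_lb hLs hρ
  obtain ⟨D0, h3⟩ := (hLs.image D).bddAbove
  obtain ⟨n0, h4⟩ := (hLs.image nc).bddAbove
  refine ⟨β0, hβ0, ρ0, hρ0, D0, n0, fun T i χ k p hp hg => ?_⟩
  obtain ⟨c, hc⟩ := h p hp T i χ k hg
  exact ⟨c, hc.mono hβ0.le (h1 _ hp) (h2 _ hp) (h3 (mem_image_of_mem _ hp))
    (h4 (mem_image_of_mem _ hp))⟩

/-- **the aligned mesh: every tile except the cores has a gap**, in the coordinates of its scale;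
the constants depend only on a finite list of rational data and on bounds -/
theorem gap_mesh (E : Type u) [NormedAddCommGroup E] [NormedSpace ℝ E] [FiniteDimensional ℝ E]
    [NeZero n] {Ps : Set ((Fin n → Fin n → ℤ) × ℕ)} (hPs : Ps.Finite) (c0 R0 : ℝ) {B0 : ℕ} :
    ∃ β > 0, ∃ ρ > 0, ∃ D, ∃ nc : ℕ, ∀ {J : Type w} (M : MD E n J) {k : J → ℕ} (hk : M.Sc k)
      (a : Fin n → ℝ) {v : J → E} (hv : M.Adm v) (X : RD M), RP X a v k →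
      (∀ j, (X.A j, X.d j) ∈ Ps) → (∀ j, X.c j ≤ c0) → (∀ j, X.B j ≤ B0) → (∀ j, X.R j ≤ R0) →
      (∀ p : M.OIx hk a hv,
        (∃ c, GapT (M.mesh hk a hv) (Sum.inl p) (chi M.φ a (p.1.par.1.1.k + 1)) c β ρ D nc) ∨
        ∃ j, p.1.par.1.1.k = k j ∧
          ∃ c, GapT (M.mesh hk a hv) (Sum.inl p) (chi M.φ a (k j)) c β ρ D nc) ∧
      ∀ j (i : M.IIx hk a hv j), i ≠ M.core hk a hv j →
        (∃ τ, i.1 = Sum.inl τ ∧ ∃ c, GapT (M.mesh hk a hv) (Sum.inr ⟨j, i⟩)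
          (chi (M.Q j).ψ (M.Bk v j).a' (τ.1.1.1.k + 1)) c β ρ D nc) ∨
        ((∀ x ∈ P ((M.mesh hk a hv).H (Sum.inr ⟨j, i⟩)), (M.Bk v j).near 1 x) ∧
          ∃ c, GapT (M.mesh hk a hv) (Sum.inr ⟨j, i⟩)
            (chi (M.Q j).ψ (M.Bk v j).a' (M.Q j).kc) c β ρ D nc) ∨
        ((∃ τ, i.1 = Sum.inl τ ∧ τ.1.1.1.k = k j) ∧
          ∃ c, GapT (M.mesh hk a hv) (Sum.inr ⟨j, i⟩) (chi M.φ a (k j)) c β ρ D nc) := by
  classical
  set Ls : Set (Finset (Fin n → ℝ) × ℕ) := {(N0 n, 1)} ∪ {(NB n B0, 1)} ∪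
    (fun p : (Fin n → Fin n → ℤ) × ℕ => (NR p.1 p.2, p.2)) '' {p ∈ Ps | 0 < p.2} with hLs
  have hfin : Ls.Finite := ((finite_singleton _).union (finite_singleton _)).union
    ((hPs.subset (sep_subset _ _)).image _)
  have hpos : ∀ p ∈ Ls, 0 < p.2 := by
    rintro p ((rfl | rfl) | ⟨q, hq, rfl⟩)
    · exact one_pos
    · exact one_pos
    · exact hq.2
  have hrat : ∀ p ∈ Ls, ∀ ν ∈ p.1, ∀ m, ∃ c : ℤ, ν m = c / p.2 := by
    rintro p ((rfl | rfl) | ⟨q, hq, rfl⟩)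
    · exact N0_rat one_pos
    · exact NB_rat B0 one_pos
    · exact NR_rat q.1 hq.2
  obtain ⟨β, hβ, ρ, hρ, D, nc, h⟩ := gap_goods E hfin hpos hrat (max 2 (max R0 c0))
  refine ⟨β, hβ, ρ, hρ, D, nc, fun {J} M {k} hk a {v} hv X RPx hA hc hB hR => ⟨fun p => ?_,
    fun j i hi => ?_⟩⟩
  · rcases M.outer_good hk a hv X RPx p with ⟨-, -, hg⟩ | ⟨j, hj, -, hg⟩
    · exact Or.inl (h _ _ _ _ (N0 n, 1) (Or.inl (Or.inl rfl))
        (good_mono hg subset_rfl (le_max_left _ _)))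
    · exact Or.inr ⟨j, hj, h _ _ _ _ (NR (X.A j) (X.d j), X.d j)
        (Or.inr ⟨_, ⟨hA j, X.dpos j⟩, rfl⟩)
        (good_mono hg subset_rfl ((hc j).trans ((le_max_right _ _).trans (le_max_right _ _))))⟩
  · rcases M.inner_good hk a hv X RPx i hi with ⟨τ, hτ, -, -, hg⟩ | ⟨hn, hg⟩ | ⟨hτ, -, hg⟩
    · exact Or.inl ⟨τ, hτ, h _ _ _ _ (N0 n, 1) (Or.inl (Or.inl rfl))
        (good_mono hg subset_rfl (le_max_left _ _))⟩
    · exact Or.inr (Or.inl ⟨hn, h _ _ _ _ (NB n B0, 1) (Or.inl (Or.inr rfl))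
        (good_mono hg (NB_mono (hB j)) ((hR j).trans ((le_max_left _ _).trans (le_max_right _ _))))⟩)
    · exact Or.inr (Or.inr ⟨hτ, h _ _ _ _ (NR (X.A j) (X.d j), X.d j)
        (Or.inr ⟨_, ⟨hA j, X.dpos j⟩, rfl⟩)
        (good_mono hg subset_rfl ((hc j).trans ((le_max_right _ _).trans (le_max_right _ _))))⟩)

end Crest.Agent.R096.Gsm_432
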