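import Crest.Agent.R096.Gsm5_432
import Crest.Agent.R096.Gsm6_432
import Crest.Agent.R096.Gau3_812
import Crest.Agent.R096.Ca3_855

/-!
# Row 96, GAPSIM (helper432), part 7: `TileG` (helper855) for every tile of the aligned mesh (helper874)
-/

set_option autoImplicit false
set_option linter.unusedSectionVars false

open Set Metric Topology Filter

namespace Crest.Agent.R096.Gsm_432

open Crest.Agent.R096.Msh_715 Crest.Agent.R096.Mal_874 Crest.Agent.R096.Cut_874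
open Crest.Agent.R096.Msh_810 Crest.Agent.R096.Sk2_855 Crest.Agent.R096.Sk3_812
open Crest.Agent.R096.Ca_855 (TileG)

universe w

section tile

variable {F : Type*} [NormedAddCommGroup F] [NormedSpace ℝ F] [FiniteDimensional ℝ F]
variable {E : Type} [NormedAddCommGroup E] [NormedSpace ℝ E] [FiniteDimensional ℝ E]
variable {Om : Set E} {ι : Type*} {T : Tiling Om ι} {i : ι} {B : E ≃ᵃ[ℝ] F} {c : E}
  {β ρ D : ℝ} {nc : ℕ}

theorem aff_sub (B : E ≃ᵃ[ℝ] F) (x y : E) : B x - B y = B.linear (x - y) := by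
  have h := B.toAffineMap.linearMap_vsub x y
  simp only [AffineEquiv.coe_toAffineMap, vsub_eq_sub, AffineEquiv.linear_toAffineMap,
    LinearEquiv.coe_coe] at h
  exact h.symm

/-- **the gap in absolute units** -/
theorem GapT.tileG (h : GapT T i B c β ρ D nc) (hβ : 0 ≤ β) (hne : (T.H i).Nonempty) {L r t : ℝ}
    (hL0 : 0 ≤ L) (hL : ∀ v, ‖B.linear v‖ ≤ L * ‖v‖) (hr : L * r ≤ ρ)
    (hd : ∀ y ∈ P (T.H i), ∀ y' ∈ P (T.H i), ‖y - y'‖ ≤ t) : TileG T i hne c β r t nc where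
  cI := h.mem
  ball := by
    intro y hy
    have h1 : B y ∈ closedBall (B c) ρ := by
      rw [mem_closedBall, dist_eq_norm, aff_sub]
      rw [mem_closedBall, dist_eq_norm] at hy
      exact (hL _).trans ((mul_le_mul_of_nonneg_left hy hL0).trans hr)
    exact (B.injective.mem_set_image).1 (h.ball h1)
  gap := fun y hy h1 h2 => (h.gap1_ug hβ hne (AffineEquiv.refl ℝ E) hy h1
    (fun hc => h2 (crs_iff.2 hc))).le
  star := fun y hy => by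
    obtain ⟨m, hm, hy'⟩ := mem_iUnion₂.1 (interior_subset (h.sub_ug hβ hne
      (AffineEquiv.refl ℝ E) (x := y) hy))
    exact ⟨m, hm, hy'⟩
  cardK := by
    refine le_trans ?_ h.edges
    exact Nat.card_le_card_of_injective toG (fun a b hab => Subtype.ext
      (congrArg (fun k : Tgr_335.KT T i => k.1) hab))
  cardN := h.nbr
  diam := hd

theorem GapT.diam (h : GapT T i B c β ρ D nc) {L : ℝ} (hL0 : 0 ≤ L)
    (hL : ∀ v, ‖v‖ ≤ L * ‖B.linear v‖) : ∀ y ∈ P (T.H i), ∀ y' ∈ P (T.H i),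
      ‖y - y'‖ ≤ L * (2 * D) := by
  intro y hy y' hy'
  have h1 := h.bdd (mem_image_of_mem _ hy)
  have h2 := h.bdd (mem_image_of_mem _ hy')
  rw [mem_closedBall] at h1 h2
  have h3 : dist (B y) (B y') ≤ 2 * D := by
    have := dist_triangle_right (B y) (B y') (B c)
    linarith
  rw [dist_eq_norm, aff_sub] at h3
  exact (hL _).trans (mul_le_mul_of_nonneg_left h3 hL0)

theorem GapT.D_nonneg (h : GapT T i B c β ρ D nc) : 0 ≤ D := by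
  have h1 := h.bdd (mem_image_of_mem _ (I_sub_P _ h.mem))
  rw [mem_closedBall, dist_self] at h1
  exact h1

end tile

/-! ### the shape of a tile at a scale -/

variable {n : ℕ} {E : Type} [NormedAddCommGroup E] [NormedSpace ℝ E] [FiniteDimensional ℝ E]

/-- the tile `i` has the shape constants `β ρ D nc` at the scale `2 ^ (-κ)` -/
def TG {Om : Set E} {ι : Type*} (T : Tiling Om ι) (i : ι) (β ρ D : ℝ) (nc κ : ℕ) : Prop :=
  (∀ y ∈ P (T.H i), ∀ y' ∈ P (T.H i), ‖y - y'‖ ≤ D / 2 ^ κ) ∧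
  ∃ c, ∀ (hne : (T.H i).Nonempty) (K : ℕ) (t : ℝ), κ ≤ K → D / 2 ^ κ ≤ t →
    TileG T i hne c β (ρ / 2 ^ K) t nc

theorem chi_linear (φ : E ≃L[ℝ] (Fin n → ℝ)) (a : Fin n → ℝ) (k : ℕ) (v : E) :
    ‖(chi φ a k).linear v‖ = 2 ^ k * ‖φ v‖ := by
  have h1 := aff_sub (chi φ a k) v 0
  rw [sub_zero] at h1
  have h2 : chi φ a k v - chi φ a k 0 = (2 : ℝ) ^ k • φ v := by
    funext m
    rw [Pi.sub_apply, chi_apply, chi_apply, map_zero, Pi.smul_apply, smul_eq_mul, Pi.zero_apply]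
    ring
  rw [← h1, h2, norm_smul, Real.norm_of_nonneg (by positivity)]

theorem TG.of {Om : Set E} {ι : Type*} {T : Tiling Om ι} {i : ι} {φ : E ≃L[ℝ] (Fin n → ℝ)}
    {a : Fin n → ℝ} {κ : ℕ} {c : E} {β ρ D : ℝ} {nc : ℕ}
    (h : GapT T i (chi φ a κ) c β ρ D nc) (hβ : 0 ≤ β) (hρ : 0 < ρ) {L1 L2 : ℝ} (hL1 : 0 < L1)
    (hL2 : 0 ≤ L2) (h1 : ∀ v, ‖φ v‖ ≤ L1 * ‖v‖) (h2 : ∀ v, ‖v‖ ≤ L2 * ‖φ v‖) :
    TG T i β (ρ / L1) (L2 * (2 * D)) nc κ := by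
  have hp : (0 : ℝ) < 2 ^ κ := by positivity
  have hd : ∀ y ∈ P (T.H i), ∀ y' ∈ P (T.H i), ‖y - y'‖ ≤ L2 * (2 * D) / 2 ^ κ := by
    intro y hy y' hy'
    have h3 := h.diam (L := L2 / 2 ^ κ) (by positivity) (fun v => ?_) y hy y' hy'
    · rwa [div_mul_eq_mul_div] at h3
    · rw [chi_linear, div_mul_eq_mul_div, mul_left_comm, mul_div_assoc, mul_comm,
        div_mul_cancel₀ _ hp.ne']
      exact h2 v
  refine ⟨hd, c, fun hne K t hK ht => ?_⟩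
  have hpK : (0 : ℝ) < 2 ^ K := by positivity
  have hle : (2 : ℝ) ^ κ ≤ 2 ^ K := pow_le_pow_right₀ (by norm_num) hK
  refine h.tileG hβ hne (L := 2 ^ κ * L1) (by positivity) (fun v => ?_) ?_
    (fun y hy y' hy' => (hd y hy y' hy').trans ht)
  · rw [chi_linear, mul_assoc]
    exact mul_le_mul_of_nonneg_left (h1 v) hp.le
  · have e : (2 : ℝ) ^ κ * L1 * (ρ / L1 / 2 ^ K) = ρ * (2 ^ κ / 2 ^ K) := by
      field_simp
    rw [e]
    have h3 : (2 : ℝ) ^ κ / 2 ^ K ≤ 1 := (div_le_one hpK).2 hle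
    nlinarith

/-- the norm of a rational frame -/
theorem norm_rat {φ ψ : E ≃L[ℝ] (Fin n → ℝ)} {A : Fin n → Fin n → ℤ} {d : ℕ} (hd : 0 < d)
    (hA : Rt φ ψ A d) (v : E) : ‖ψ v‖ ≤ (∑ m, ∑ l, |(A m l : ℝ)|) * ‖φ v‖ := by
  have hd' : (1 : ℝ) ≤ d := by exact_mod_cast hd
  have h0 : 0 ≤ (∑ m, ∑ l, |(A m l : ℝ)|) * ‖φ v‖ := by positivity
  rw [pi_norm_le_iff_of_nonneg h0]
  intro m
  have h1 := hA v m
  have h2 : |(d : ℝ) * ψ v m| ≤ (∑ l, |(A m l : ℝ)|) * ‖φ v‖ := by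
    rw [h1, Finset.sum_mul]
    refine (Finset.abs_sum_le_sum_abs _ _).trans (Finset.sum_le_sum fun l _ => ?_)
    rw [abs_mul]
    have := norm_le_pi_norm (φ v) l
    rw [Real.norm_eq_abs] at this
    exact mul_le_mul_of_nonneg_left this (abs_nonneg _)
  rw [abs_mul, abs_of_nonneg (by linarith)] at h2
  have h3 : ∑ l, |(A m l : ℝ)| ≤ ∑ m, ∑ l, |(A m l : ℝ)| :=
    Finset.single_le_sum (f := fun m => ∑ l, |(A m l : ℝ)|)
      (fun m _ => Finset.sum_nonneg fun l _ => abs_nonneg _) (Finset.mem_univ m)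
  have h4 := mul_le_mul_of_nonneg_right h3 (norm_nonneg (φ v))
  have h5 := abs_nonneg (ψ v m)
  rw [Real.norm_eq_abs]
  nlinarith

/-- **`TileG` for every tile of the aligned mesh except the cores** -/
theorem tileG_mesh (E : Type) [NormedAddCommGroup E] [NormedSpace ℝ E] [FiniteDimensional ℝ E]
    [NeZero n] {Ps : Set ((Fin n → Fin n → ℤ) × ℕ)} (hPs : Ps.Finite) (c0 R0 Lo : ℝ) {B0 : ℕ} :
    ∃ β > 0, ∃ ρ > 0, ∃ D, ∃ nc : ℕ, ∀ {J : Type w} (M : MD E n J) {k : J → ℕ} (hk : M.Sc k)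
      (a : Fin n → ℝ) {v : J → E} (hv : M.Adm v) (X : RD M), RP X a v k →
      (∀ j, (X.A j, X.d j) ∈ Ps) → (∀ j, X.c j ≤ c0) → (∀ j, X.B j ≤ B0) → (∀ j, X.R j ≤ R0) →
      (∀ v, ‖M.φ v‖ ≤ Lo * ‖v‖) → (∀ v, ‖v‖ ≤ Lo * ‖M.φ v‖) →
      (∀ p : M.OIx hk a hv, ∃ κ, (κ = p.1.par.1.1.k + 1 ∨ ∃ j, κ = k j ∧ p.1.par.1.1.k = k j) ∧
        TG (M.mesh hk a hv) (Sum.inl p) β ρ D nc κ) ∧
      ∀ j (i : M.IIx hk a hv j), i ≠ M.core hk a hv j →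
        ∃ κ, (M.Q j).kc ≤ κ ∧ κ ≤ k j + 1 ∧
          TG (M.mesh hk a hv) (Sum.inr ⟨j, i⟩) β ρ D nc κ := by
  obtain ⟨β, hβ, ρ, hρ, D, nc, h⟩ := gap_mesh (B0 := B0) E hPs c0 R0
  obtain ⟨a0, ha0⟩ := (hPs.image fun p : (Fin n → Fin n → ℤ) × ℕ =>
    ∑ m, ∑ l, |(p.1 m l : ℝ)|).bddAbove
  set L1 : ℝ := (|a0| + 1) * (|Lo| + 1) with hL1d
  set L2 : ℝ := (|Lo| + 1) * (|c0| + 1) with hL2d
  have hL1 : 0 < L1 := by positivity
  have hL2 : 0 ≤ L2 := by positivity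
  refine ⟨β, hβ, ρ / L1, by positivity, L2 * (2 * D), nc,
    fun {J} M {k} hk a {v} hv X RPx hA hc hB hR hLo hLo' => ?_⟩
  obtain ⟨ho, hi⟩ := h M hk a hv X RPx hA hc hB hR
  have hLL : Lo ≤ |Lo| + 1 := (le_abs_self Lo).trans (by linarith)
  have hφ1 : ∀ v, ‖M.φ v‖ ≤ L1 * ‖v‖ := by
    intro v
    have h1 := hLo v
    have h2 : Lo * ‖v‖ ≤ (|Lo| + 1) * ‖v‖ := mul_le_mul_of_nonneg_right hLL (norm_nonneg _)
    have h3 : 0 ≤ |a0| * ((|Lo| + 1) * ‖v‖) := by positivity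
    rw [hL1d]
    nlinarith
  have hφ2 : ∀ v, ‖v‖ ≤ L2 * ‖M.φ v‖ := by
    intro v
    have h1 := hLo' v
    have h2 : Lo * ‖M.φ v‖ ≤ (|Lo| + 1) * ‖M.φ v‖ :=
      mul_le_mul_of_nonneg_right hLL (norm_nonneg _)
    have h3 : 0 ≤ |c0| * ((|Lo| + 1) * ‖M.φ v‖) := by positivity
    rw [hL2d]
    nlinarith
  have hψ1 : ∀ j v, ‖(M.Q j).ψ v‖ ≤ L1 * ‖v‖ := by
    intro j v
    have h1 := norm_rat (X.dpos j) (X.rat j) v
    have h2 : ∑ m, ∑ l, |(X.A j m l : ℝ)| ≤ |a0| + 1 :=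
      (ha0 (mem_image_of_mem _ (hA j))).trans ((le_abs_self a0).trans (by linarith))
    have h3 : ‖M.φ v‖ ≤ (|Lo| + 1) * ‖v‖ :=
      (hLo v).trans (mul_le_mul_of_nonneg_right hLL (norm_nonneg _))
    calc ‖(M.Q j).ψ v‖ ≤ (∑ m, ∑ l, |(X.A j m l : ℝ)|) * ‖M.φ v‖ := h1
      _ ≤ (|a0| + 1) * ((|Lo| + 1) * ‖v‖) :=
        mul_le_mul h2 h3 (norm_nonneg _) (by positivity)
      _ = L1 * ‖v‖ := by rw [hL1d]; ring
  have hψ2 : ∀ j v, ‖v‖ ≤ L2 * ‖(M.Q j).ψ v‖ := by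
    intro j v
    have h1 := X.cn j v 0
    rw [map_zero, map_zero, dist_zero_right, dist_zero_right] at h1
    have h2 : X.c j ≤ |c0| + 1 := (hc j).trans ((le_abs_self c0).trans (by linarith))
    have h3 : ‖M.φ v‖ ≤ (|c0| + 1) * ‖(M.Q j).ψ v‖ :=
      h1.trans (mul_le_mul_of_nonneg_right h2 (norm_nonneg _))
    calc ‖v‖ ≤ Lo * ‖M.φ v‖ := hLo' v
      _ ≤ (|Lo| + 1) * ‖M.φ v‖ := mul_le_mul_of_nonneg_right hLL (norm_nonneg _)
      _ ≤ (|Lo| + 1) * ((|c0| + 1) * ‖(M.Q j).ψ v‖) :=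
        mul_le_mul_of_nonneg_left h3 (by positivity)
      _ = L2 * ‖(M.Q j).ψ v‖ := by rw [hL2d]; ring
  refine ⟨fun p => ?_, fun j i hij => ?_⟩
  · rcases ho p with ⟨c, hg⟩ | ⟨j, hj, c, hg⟩
    · exact ⟨_, Or.inl rfl, TG.of hg hβ.le hρ hL1 hL2 hφ1 hφ2⟩
    · exact ⟨_, Or.inr ⟨j, rfl, hj⟩, TG.of hg hβ.le hρ hL1 hL2 hφ1 hφ2⟩
  · rcases hi j i hij with ⟨τ, hτ, c, hg⟩ | ⟨-, c, hg⟩ | ⟨-, c, hg⟩
    · refine ⟨_, ?_, ?_, TG.of hg hβ.le hρ hL1 hL2 (hψ1 j) (hψ2 j)⟩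
      · have := (M.Bk v j).kc_le (k j) (hk.kc j) (τ := τ.1)
        exact this.trans (Nat.le_succ _)
      · exact Nat.succ_le_succ ((M.Bk v j).le_k (k j) (hk.kc j) (τ := τ.1))
    · exact ⟨_, le_rfl, (hk.kc j).trans (Nat.le_succ _),
        TG.of hg hβ.le hρ hL1 hL2 (hψ1 j) (hψ2 j)⟩
    · exact ⟨_, hk.kc j, Nat.le_succ _, TG.of hg hβ.le hρ hL1 hL2 hφ1 hφ2⟩

end Crest.Agent.R096.Gsm_432
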