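import Crest.Agent.R096.Msb2_432
import Crest.Agent.R096.Gsm7_432

/-!
# Row 96, p ≤ 2 (helper432), CORE-SUB, part 3: every tile of the mesh with subdivided cores is good
-/

set_option autoImplicit false
set_option linter.unusedSectionVars false

open Set Metric Topology Filter

namespace Crest.Agent.R096.Msb_432

open Crest.Agent.R096.Msh_715 Crest.Agent.R096.Msh_715.Tiling Crest.Agent.R096.Mal_874
open Crest.Agent.R096.Gsm_432 Crest.Agent.R096.Msh_810 Crest.Agent.R096.Cut_874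

variable {n : ℕ} {E : Type*} [NormedAddCommGroup E] [NormedSpace ℝ E]
variable [NeZero n] {J : Type*} (M : MD E n J) {k : J → ℕ} (hk : M.Sc k) (a : Fin n → ℝ)
  {v : J → E} (hv : M.Adm v)

/-- the old tiles -/
theorem good_old {t : M.OIx hk a hv ⊕ Σ j, M.IIx hk a hv j} (ht : t ∉ cores M hk a hv)
    {χ : E ≃ᵃ[ℝ] (Fin n → ℝ)} {κ : ℕ} {𝒩 : Finset (Fin n → ℝ)} {d : ℕ} {R : ℝ}
    (h : Good (M.mesh hk a hv) t χ κ 𝒩 d R)
    (hc : ∀ c : CIx M, (P (cubH M v c) ∩ P ((M.mesh hk a hv).H t)).Nonempty →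
      ∀ g ∈ cubH M v c, ∃ ν, ∃ m : ℤ, GF χ (2 ^ κ) 𝒩 d g ν m) :
    Good (meshS M hk a hv) (Sum.inl ⟨t, ht⟩) χ κ 𝒩 d R := by
  refine ⟨?_, h.sz⟩
  rintro (l | c) hl
  · exact h.gf l.1 hl
  · exact hc c hl

/-- an outer tile touches no core -/
theorem outer_off (p : M.OIx hk a hv) (c : CIx M) :
    ¬ (P (cubH M v c) ∩ P ((M.mesh hk a hv).H (Sum.inl p))).Nonempty := by
  rintro ⟨x, hx1, hx2⟩
  have h1 := cubH_sub c hx1
  exact bp_wall (M.Bk v c.1) (Kc_sub_bp _ h1)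
    (M.outer_touch hk a hv p hx2 (Kc_sub_N _ h1))

theorem inner_same {j : J} {i : M.IIx hk a hv j} {c : CIx M}
    (h : (P (cubH M v c) ∩ P ((M.mesh hk a hv).H (Sum.inr ⟨j, i⟩))).Nonempty) : c.1 = j := by
  obtain ⟨x, hx1, hx2⟩ := h
  by_contra hne
  exact Set.disjoint_left.1 (N_disj hk a hv hne) (Kc_sub_N _ (cubH_sub c hx1)) (i.2 hx2)

theorem inl_not_core (p : M.OIx hk a hv) : Sum.inl p ∉ cores M hk a hv := by
  rintro ⟨j, hj⟩
  exact absurd hj (by simp)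

theorem inr_not_core {j : J} {i : M.IIx hk a hv j} (hi : i ≠ M.core hk a hv j) :
    Sum.inr ⟨j, i⟩ ∉ cores M hk a hv := by
  rintro ⟨l, hl⟩
  have h1 : (⟨j, i⟩ : Σ j, M.IIx hk a hv j) = ⟨l, M.core hk a hv l⟩ := Sum.inr.inj hl
  obtain rfl : j = l := congrArg Sigma.fst h1
  exact hi (eq_of_heq (Sigma.mk.inj h1).2)

/-- **outer tiles** -/
theorem outer_goodS (X : RD M) (RPx : RP X a v k) (p : M.OIx hk a hv) :
    Good (meshS M hk a hv) (Sum.inl ⟨Sum.inl p, inl_not_core M hk a hv p⟩)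
      (chi M.φ a (p.1.par.1.1.k + 1)) (p.1.par.1.1.k + 1) (N0 n) 1 2 ∨
    ∃ j, p.1.par.1.1.k = k j ∧
      Good (meshS M hk a hv) (Sum.inl ⟨Sum.inl p, inl_not_core M hk a hv p⟩)
        (chi M.φ a (k j)) (k j) (NR (X.A j) (X.d j)) (X.d j) (X.c j) := by
  rcases M.outer_good hk a hv X RPx p with ⟨-, -, hg⟩ | ⟨j, hj, -, hg⟩
  · exact Or.inl (good_old M hk a hv _ hg fun c hc => absurd hc (outer_off M hk a hv p c))
  · exact Or.inr ⟨j, hj, good_old M hk a hv _ hg fun c hc =>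
      absurd hc (outer_off M hk a hv p c)⟩

/-- **inner tiles** -/
theorem inner_goodS (X : RD M) (RPx : RP X a v k) {j : J} (i : M.IIx hk a hv j)
    (hi : i ≠ M.core hk a hv j) :
    (∃ τ, i.1 = Sum.inl τ ∧
      Good (meshS M hk a hv) (Sum.inl ⟨Sum.inr ⟨j, i⟩, inr_not_core M hk a hv hi⟩)
        (chi (M.Q j).ψ (M.Bk v j).a' (τ.1.1.1.k + 1)) (τ.1.1.1.k + 1) (N0 n) 1 2) ∨
    Good (meshS M hk a hv) (Sum.inl ⟨Sum.inr ⟨j, i⟩, inr_not_core M hk a hv hi⟩)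
      (chi (M.Q j).ψ (M.Bk v j).a' (M.Q j).kc) (M.Q j).kc (NB n (X.B j)) 1 (X.R j) ∨
    ((∃ τ, i.1 = Sum.inl τ ∧ τ.1.1.1.k = k j) ∧
      Good (meshS M hk a hv) (Sum.inl ⟨Sum.inr ⟨j, i⟩, inr_not_core M hk a hv hi⟩)
        (chi M.φ a (k j)) (k j) (NR (X.A j) (X.d j)) (X.d j) (X.c j)) := by
  rcases M.inner_good hk a hv X RPx i hi with ⟨τ, hτ, -, hd, hg⟩ | ⟨-, hg⟩ | ⟨⟨τ, hτ, hτk⟩, hw, hg⟩
  · refine Or.inl ⟨τ, hτ, good_old M hk a hv _ hg fun c hc => ?_⟩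
    exfalso
    obtain rfl := inner_same M hk a hv hc
    obtain ⟨x, hx1, hx2⟩ := hc
    exact Set.disjoint_left.1 hd hx2 (Kc_sub_bp _ (cubH_sub c hx1))
  · refine Or.inr (Or.inl (good_old M hk a hv _ hg fun c hc => ?_))
    obtain rfl := inner_same M hk a hv hc
    exact gf_cube one_pos (fr_self _ _ _ (N0_sub_NB (X.B1 _)) 1) le_rfl _
  · refine Or.inr (Or.inr ⟨⟨τ, hτ, hτk⟩, good_old M hk a hv _ hg fun c hc => ?_⟩)
    exfalso
    obtain rfl := inner_same M hk a hv hc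
    obtain ⟨x, hx1, hx2⟩ := hc
    obtain ⟨y, hy1, hy2⟩ := hw
    have hx3 := bp_dist (M.Bk v c.1) (Kc_sub_bp _ (cubH_sub c hx1))
    rw [MD.mesh_inr, hτ] at hx2 hy1
    have h1 := dist_cube (((M.Bk v c.1).tile_T0 (k c.1) (hk.kc c.1)).1 hx2)
      (((M.Bk v c.1).tile_T0 (k c.1) (hk.kc c.1)).1 hy1)
    rw [hτk] at h1
    rw [(M.Bk v c.1).frontier_N] at hy2
    have h2 : infDist ((M.Bk v c.1).ψ x) (M.Bk v c.1).W ≤
        infDist ((M.Bk v c.1).ψ y) (M.Bk v c.1).W + dist ((M.Bk v c.1).ψ x) ((M.Bk v c.1).ψ y) :=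
      infDist_le_infDist_add_dist
    rw [infDist_zero_of_mem (show (M.Bk v c.1).ψ y ∈ (M.Bk v c.1).W from hy2), zero_add] at h2
    have h3 : (1 : ℝ) / 2 ^ k c.1 ≤ 1 / 2 ^ (M.Bk v c.1).kc :=
      one_div_le_one_div_of_le (by positivity)
        (pow_le_pow_right₀ (by norm_num) (hk.kc c.1))
    have h4 : (0 : ℝ) < 1 / 2 ^ (M.Bk v c.1).kc := by positivity
    have h5 : (7 : ℝ) / 2 ^ (M.Bk v c.1).kc = 7 * (1 / 2 ^ (M.Bk v c.1).kc) := by ring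
    rw [h5] at hx3
    linarith

/-- **the unit cubes of the cores** -/
theorem cube_goodS (X : RD M) (c : CIx M) :
    Good (meshS M hk a hv) (Sum.inr c) (chi (M.Q c.1).ψ (M.Bk v c.1).a' (M.Q c.1).kc)
      (M.Q c.1).kc (NB n (X.B c.1)) 1 1 := by
  constructor
  · rintro (⟨t, ht⟩ | c') hl
    · rcases t with p | ⟨l, m⟩
      · exact absurd (show (P (cubH M v c) ∩ P ((M.mesh hk a hv).H (Sum.inl p))).Nonempty by
          rw [inter_comm]; exact hl) (outer_off M hk a hv p c)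
      · have hl' : (P (cubH M v c) ∩ P ((M.mesh hk a hv).H (Sum.inr ⟨l, m⟩))).Nonempty := by
          rw [inter_comm]; exact hl
        obtain rfl := inner_same M hk a hv hl'
        obtain ⟨x, hx1, hx2⟩ := hl'
        have hxK := cubH_sub c hx1
        have hP := Set.ext_iff.1 ((M.Bk v c.1).P_core (k c.1) (hk.kc c.1)) x
        have hxP := hP.2 hxK
        exact (M.Bk v c.1).near_good (k c.1) (hk.kc c.1) (X.B1 c.1) (X.hB c.1)
          (t := (M.Bk v c.1).cix (k c.1) (hk.kc c.1)) ⟨x, hxP, Kc_sub_bp _ hxK⟩ (s := m.1)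
          ⟨x, hx2, hxP⟩
    · have hcc : c'.1 = c.1 := by
        obtain ⟨x, hx1, hx2⟩ := hl
        by_contra hne
        exact Set.disjoint_left.1 (N_disj hk a hv hne) (Kc_sub_N _ (cubH_sub c' hx1))
          (Kc_sub_N _ (cubH_sub c hx2))
      obtain ⟨j, z⟩ := c
      obtain ⟨j', z'⟩ := c'
      obtain rfl : j' = j := hcc
      exact gf_cube one_pos (fr_self _ _ _ (N0_sub_NB (X.B1 _)) 1) le_rfl _
  · intro x hx y hy m
    have hx' := (mem_cuH (M.Bk v c.1)).1 hx m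
    have hy' := (mem_cuH (M.Bk v c.1)).1 hy m
    have h1 : ∀ w : E, chi (M.Q c.1).ψ (M.Bk v c.1).a' (M.Q c.1).kc w m =
        ps (M.Bk v c.1).a' (M.Bk v c.1).kc ((M.Bk v c.1).ψ w) m := fun w =>
      congrFun (chi_eq_ps (M.Q c.1).ψ (M.Bk v c.1).a' (M.Q c.1).kc w) m
    rw [h1, h1, abs_le]
    constructor <;> linarith [hx'.1, hx'.2, hy'.1, hy'.2]

end Crest.Agent.R096.Msb_432
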