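import Mathlib

/-!
# Row 96, (U6) CLOSE, part 1 (helper441): the nerve lemma

`A` connected, covered by finitely many closed sets `Q i`; `W i` connected sets such that
`W i ∩ W j` is nonempty as soon as `A ∩ Q i ∩ Q j` is: then the union of the `W i`, `i` running
over the indices with `A ∩ Q i` nonempty, is connected.
[`A` = fibre arc from a pin to a core, `Q i` = the cells of the mesh, `W i` = their 1-skeleta.]
-/

set_option autoImplicit false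

open Set Relation

namespace Crest.Agent.R096.Clo_441

/-- **Nerve lemma.** -/
theorem nerve {X Z ι : Type*} [TopologicalSpace X] [TopologicalSpace Z] {A : Set X}
    (hA : IsPreconnected A) {I : Set ι} (hI : I.Finite) {Q : ι → Set X}
    (hQ : ∀ i ∈ I, IsClosed (Q i)) (hAQ : A ⊆ ⋃ i ∈ I, Q i) (hne : ∀ i ∈ I, (A ∩ Q i).Nonempty)
    {W : ι → Set Z} (hW : ∀ i ∈ I, IsPreconnected (W i))
    (hWW : ∀ i ∈ I, ∀ j ∈ I, (A ∩ (Q i ∩ Q j)).Nonempty → (W i ∩ W j).Nonempty) :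
    IsPreconnected (⋃ i ∈ I, W i) := by
  classical
  refine IsPreconnected.biUnion_of_reflTransGen hW ?_
  intro i0 hi0 j0 hj0
  by_contra hcon
  set R : ι → ι → Prop := fun i j => (W i ∩ W j).Nonempty ∧ i ∈ I with hR
  set J : Set ι := {j | j ∈ I ∧ ReflTransGen R i0 j} with hJ
  have hJI : J ⊆ I := fun j hj => hj.1
  have hJf : J.Finite := hI.subset hJI
  have hKf : (I \ J).Finite := hI.subset sdiff_subset
  have hc1 : IsClosed (⋃ i ∈ J, Q i) := hJf.isClosed_biUnion fun i hi => hQ i (hJI hi)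
  have hc2 : IsClosed (⋃ i ∈ I \ J, Q i) := hKf.isClosed_biUnion fun i hi => hQ i hi.1
  have hcov : A ⊆ (⋃ i ∈ J, Q i) ∪ (⋃ i ∈ I \ J, Q i) := by
    intro x hx
    obtain ⟨i, hi, hxi⟩ := mem_iUnion₂.1 (hAQ hx)
    by_cases h : i ∈ J
    · exact Or.inl (mem_biUnion h hxi)
    · exact Or.inr (mem_biUnion ⟨hi, h⟩ hxi)
  have hi0J : i0 ∈ J := ⟨hi0, ReflTransGen.refl⟩
  have hj0J : j0 ∈ I \ J := ⟨hj0, fun h => hcon h.2⟩
  have hn1 : (A ∩ ⋃ i ∈ J, Q i).Nonempty := by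
    obtain ⟨x, hx, hxi⟩ := hne i0 hi0
    exact ⟨x, hx, mem_biUnion hi0J hxi⟩
  have hn2 : (A ∩ ⋃ i ∈ I \ J, Q i).Nonempty := by
    obtain ⟨x, hx, hxi⟩ := hne j0 hj0
    exact ⟨x, hx, mem_biUnion hj0J hxi⟩
  obtain ⟨x, hxA, hx1, hx2⟩ := isPreconnected_closed_iff.1 hA _ _ hc1 hc2 hcov hn1 hn2
  obtain ⟨i, hi, hxi⟩ := mem_iUnion₂.1 hx1
  obtain ⟨j, hj, hxj⟩ := mem_iUnion₂.1 hx2
  refine hj.2 ⟨hj.1, hi.2.tail ?_⟩
  exact ⟨hWW i hi.1 j hj.1 ⟨x, hxA, hxi, hxj⟩, hi.1⟩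

/-- Nerve lemma, the indices that do not meet `A` are dropped. -/
theorem nerve' {X Z ι : Type*} [TopologicalSpace X] [TopologicalSpace Z] {A : Set X}
    (hA : IsPreconnected A) {Q : ι → Set X} (hI : {i | (Q i ∩ A).Nonempty}.Finite)
    (hQ : ∀ i, IsClosed (Q i)) (hAQ : A ⊆ ⋃ i, Q i)
    {W : ι → Set Z} (hW : ∀ i, (Q i ∩ A).Nonempty → IsPreconnected (W i))
    (hWW : ∀ i j, (A ∩ (Q i ∩ Q j)).Nonempty → (W i ∩ W j).Nonempty) :
    IsPreconnected (⋃ i ∈ {i | (Q i ∩ A).Nonempty}, W i) := by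
  refine nerve hA hI (fun i _ => hQ i) ?_ ?_ (fun i hi => hW i hi) (fun i _ j _ h => hWW i j h)
  · intro x hx
    obtain ⟨i, hi⟩ := mem_iUnion.1 (hAQ hx)
    exact mem_biUnion (show i ∈ {i | (Q i ∩ A).Nonempty} from ⟨x, hi, hx⟩) hi
  · intro i hi
    rw [inter_comm]; exact hi

end Crest.Agent.R096.Clo_441
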