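import Crest.Agent.R096.Ce2_537
import Crest.Agent.R096.Clo1_441

/-!
# Row 96, (U6) CLOSE, part 2 (helper441): 1-skeleta and ropes in a cell complex

For a `Cplx` of 537: the 1-skeleton of every cell is connected; the union of the 1-skeleta of the
cells (of a subcomplex `J`) that meet a connected compact set `A` is connected (`rope`).
-/

set_option autoImplicit false
set_option linter.unusedSectionVars false

open Set Metric Relation
open Crest.Agent.R096.Ce_537

namespace Crest.Agent.R096.Clo_441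

variable {E : Type*} [NormedAddCommGroup E] [NormedSpace ℝ E]
variable {Ω : Set E} {I : Type*} [PartialOrder I] {dim : I → ℕ} {K : I → Set E}

/-- the 1-skeleton of the cell `i` -/
def sk1 (dim : I → ℕ) (K : I → Set E) (i : I) : Set E := ⋃ j ∈ {j | j ≤ i ∧ dim j ≤ 1}, K j

lemma sk1_mono {i j : I} (h : j ≤ i) : sk1 dim K j ⊆ sk1 dim K i := by
  intro x hx
  obtain ⟨m, hm, hxm⟩ := mem_iUnion₂.1 hx
  exact mem_biUnion (show m ∈ {j | j ≤ i ∧ dim j ≤ 1} from ⟨hm.1.trans h, hm.2⟩) hxm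

lemma subset_sk1 {i j : I} (h : j ≤ i) (hj : dim j ≤ 1) : K j ⊆ sk1 dim K i := fun _ hx =>
  mem_biUnion (show j ∈ {j | j ≤ i ∧ dim j ≤ 1} from ⟨h, hj⟩) hx

lemma sk1_subset (C : Cplx Ω I dim K) (i : I) : sk1 dim K i ⊆ K i := by
  intro x hx
  obtain ⟨m, hm, hxm⟩ := mem_iUnion₂.1 hx
  exact C.subset hm.1 hxm

lemma sph_nonempty {k : ℕ} (hk : 1 ≤ k) : (sph k).Nonempty := by
  have : Nonempty (Fin k) := ⟨⟨0, hk⟩⟩
  have : Nontrivial (Fin k → ℝ) := Function.nontrivial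
  exact NormedSpace.sphere_nonempty.2 zero_le_one

/-- every cell has a vertex -/
lemma exists_vertex (C : Cplx Ω I dim K) : ∀ i : I, ∃ v ≤ i, dim v = 0 := by
  intro i
  induction hd : dim i using Nat.strong_induction_on generalizing i with
  | _ d ih =>
    rcases Nat.eq_zero_or_pos d with h0 | h0
    · exact ⟨i, le_refl _, hd.trans h0⟩
    · obtain ⟨e, he⟩ := C.isBall i
      obtain ⟨x, hx⟩ := sph_nonempty (k := dim i) (by omega)
      have : e.f x ∈ ⋃ j ∈ {j | j < i}, K j := by rw [← he]; exact mem_image_of_mem _ hx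
      obtain ⟨j, hj, -⟩ := mem_iUnion₂.1 this
      obtain ⟨v, hv, hv0⟩ := ih (dim j) (hd ▸ C.mono i j hj) j rfl
      exact ⟨v, hv.trans (le_of_lt hj), hv0⟩

lemma cube_zero_eq (x y : Fin 0 → ℝ) : x = y := Subsingleton.elim _ _

lemma isPreconnected_cell (C : Cplx Ω I dim K) (i : I) : IsPreconnected (K i) := by
  obtain ⟨e, -⟩ := C.isBall i
  rw [← e.image_eq]
  exact ((convex_closedBall (0 : Fin (dim i) → ℝ) 1).isPreconnected).image _ e.pf.1

lemma isPreconnected_bdry (C : Cplx Ω I dim K) (i : I) (h : 2 ≤ dim i) :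
    IsPreconnected (⋃ j ∈ {j | j < i}, K j) := by
  obtain ⟨e, he⟩ := C.isBall i
  rw [← he]
  refine IsPreconnected.image ?_ _ (e.pf.1.mono sph_subset_cube)
  refine isPreconnected_sphere ?_ _ _
  rw [rank_fun']
  simp only [Fintype.card_fin]
  exact_mod_cast h

/-- two cells that meet have a common vertex -/
lemma exists_common_vertex (C : Cplx Ω I dim K) {i j : I} {x : E} (hi : x ∈ K i) (hj : x ∈ K j) :
    ∃ v, v ≤ i ∧ v ≤ j ∧ dim v = 0 ∧ (K v).Nonempty := by
  obtain ⟨m, hmi, hmj, -⟩ := C.mem_inter hi hj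
  obtain ⟨v, hv, hv0⟩ := exists_vertex C m
  exact ⟨v, hv.trans hmi, hv.trans hmj, hv0, (C.isBall v).nonempty⟩

lemma sk1_inter_nonempty (C : Cplx Ω I dim K) {i j : I} {x : E} (hi : x ∈ K i) (hj : x ∈ K j) :
    (sk1 dim K i ∩ sk1 dim K j).Nonempty := by
  obtain ⟨v, hvi, hvj, hv0, z, hz⟩ := exists_common_vertex C hi hj
  exact ⟨z, subset_sk1 hvi (by omega) hz, subset_sk1 hvj (by omega) hz⟩

/-- **The 1-skeleton of every cell is connected.** -/
theorem isPreconnected_sk1 (C : Cplx Ω I dim K) : ∀ i : I, IsPreconnected (sk1 dim K i) := by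
  intro i
  induction hd : dim i using Nat.strong_induction_on generalizing i with
  | _ d ih =>
    by_cases h1 : dim i ≤ 1
    · have : sk1 dim K i = K i := by
        refine Subset.antisymm (sk1_subset C i) (subset_sk1 (le_refl _) h1)
      rw [this]
      exact isPreconnected_cell C i
    · have h2 : 2 ≤ dim i := by omega
      have heq : sk1 dim K i = ⋃ j ∈ {j | j < i}, sk1 dim K j := by
        refine Subset.antisymm ?_ ?_
        · intro x hx
          obtain ⟨m, hm, hxm⟩ := mem_iUnion₂.1 hx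
          have hlt : m < i := by
            refine lt_of_le_of_ne hm.1 ?_
            rintro rfl
            exact absurd hm.2 h1
          exact mem_biUnion (show m ∈ {j | j < i} from hlt) (subset_sk1 (le_refl _) hm.2 hxm)
        · intro x hx
          obtain ⟨m, hm, hxm⟩ := mem_iUnion₂.1 hx
          exact sk1_mono (le_of_lt hm) hxm
      rw [heq]
      refine nerve (isPreconnected_bdry C i h2) (C.finite_below i) (fun j _ => C.isClosed j)
        Subset.rfl ?_ ?_ ?_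
      · intro j hj
        obtain ⟨x, hx⟩ := (C.isBall j).nonempty
        exact ⟨x, mem_biUnion (show j ∈ {j | j < i} from hj) hx, hx⟩
      · intro j hj
        exact ih (dim j) (hd ▸ C.mono i j hj) j rfl
      · rintro j _ l _ ⟨x, -, hxj, hxl⟩
        exact sk1_inter_nonempty C hxj hxl

/-- the rope of `A` in the subcomplex `J` -/
def ropeSet (dim : I → ℕ) (K : I → Set E) (J : Set I) (A : Set E) : Set E :=
  ⋃ i ∈ {i | i ∈ J ∧ (K i ∩ A).Nonempty}, sk1 dim K i

lemma mem_ropeSet {J : Set I} {A : Set E} {i v : I} (hi : i ∈ J) (hA : (K i ∩ A).Nonempty)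
    (hv : v ≤ i) (hv0 : dim v ≤ 1) {z : E} (hz : z ∈ K v) : z ∈ ropeSet dim K J A :=
  mem_biUnion (show i ∈ {i | i ∈ J ∧ (K i ∩ A).Nonempty} from ⟨hi, hA⟩) (subset_sk1 hv hv0 hz)

/-- **The rope is connected.** -/
theorem isPreconnected_ropeSet (C : Cplx Ω I dim K) {J : Set I} {A : Set E}
    (hA : IsCompact A) (hAc : IsPreconnected A) (hAJ : A ⊆ ⋃ i ∈ J, K i) :
    IsPreconnected (ropeSet dim K J A) := by
  have hAΩ : A ⊆ Ω := by
    intro x hx
    obtain ⟨i, -, hi⟩ := mem_iUnion₂.1 (hAJ hx)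
    exact C.sub i hi
  refine nerve hAc ((C.finite_meet hA hAΩ).subset fun i hi => hi.2) (fun i _ => C.isClosed i)
    ?_ ?_ (fun i _ => isPreconnected_sk1 C i) ?_
  · intro x hx
    obtain ⟨i, hi, hxi⟩ := mem_iUnion₂.1 (hAJ hx)
    exact mem_biUnion (show i ∈ {i | i ∈ J ∧ (K i ∩ A).Nonempty} from ⟨hi, x, hxi, hx⟩) hxi
  · rintro i ⟨-, x, hx, hxA⟩
    exact ⟨x, hxA, hx⟩
  · rintro i _ j _ ⟨x, -, hxi, hxj⟩
    exact sk1_inter_nonempty C hxi hxj

/-- every point of the rope lies in a cell of dimension `≤ 1` of `J`, which is a face of a cell of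
`J` that meets `A` -/
lemma exists_of_mem_ropeSet {J : Set I} (hJ : ∀ i ∈ J, ∀ j ≤ i, j ∈ J) {A : Set E} {z : E}
    (hz : z ∈ ropeSet dim K J A) :
    ∃ i ∈ J, (K i ∩ A).Nonempty ∧ ∃ j ∈ J, j ≤ i ∧ dim j ≤ 1 ∧ z ∈ K j := by
  obtain ⟨i, hi, hz⟩ := mem_iUnion₂.1 hz
  obtain ⟨j, hj, hzj⟩ := mem_iUnion₂.1 hz
  exact ⟨i, hi.1, hi.2, j, hJ i hi.1 j hj.1, hj.1, hj.2, hzj⟩

/-- **(C3), topological sides.**  Pins: `σ c` = the cell functions of the foam composed with `F`,
constant `= y c` on the fibre arc `A`, oscillation `< b` on the cells meeting `A`; used levels keep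
distance `b` from `y`; the final sheets `Sh q` meet the 1-skeleton only at points where SOME used
level is attained.  If the sides of the final sheets are right at ONE vertex (of a cell meeting `A`,
e.g. at the core end), they are right at EVERY vertex of every cell meeting `A`. -/
theorem pin (C : Cplx Ω I dim K) {J : Set I} (hJ : ∀ i ∈ J, ∀ j ≤ i, j ∈ J) {A : Set E}
    (hA : IsCompact A) (hAc : IsPreconnected A) (hAJ : A ⊆ ⋃ i ∈ J, K i)
    {κ : Type*} {σ : κ → E → ℝ} {y : κ → ℝ} {b : ℝ}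
    (hosc : ∀ i ∈ J, (K i ∩ A).Nonempty → ∀ z ∈ K i, ∀ c, |σ c z - y c| < b)
    {Lv : Set (κ × ℝ)} (hLv : ∀ q ∈ Lv, b ≤ |q.2 - y q.1|)
    {Sh In Out : κ × ℝ → Set E}
    (hSh : ∀ q ∈ Lv, ∀ z ∈ Sh q, ∀ i ∈ J, dim i ≤ 1 → z ∈ K i → ∃ q' ∈ Lv, σ q'.1 z = q'.2)
    (hIn : ∀ q ∈ Lv, IsOpen (In q)) (hOut : ∀ q ∈ Lv, IsOpen (Out q))
    (hdis : ∀ q ∈ Lv, Disjoint (In q) (Out q)) (hcov : ∀ q ∈ Lv, (Sh q)ᶜ ⊆ In q ∪ Out q)
    {i0 v0 : I} (hi0 : i0 ∈ J) (hi0A : (K i0 ∩ A).Nonempty) (hv0 : v0 ≤ i0) (hd0 : dim v0 = 0)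
    {z0 : E} (hz0 : z0 ∈ K v0) (hlab : ∀ q ∈ Lv, (z0 ∈ In q ↔ σ q.1 z0 < q.2))
    {i v : I} (hi : i ∈ J) (hiA : (K i ∩ A).Nonempty) (hv : v ≤ i) (hd : dim v = 0)
    {z : E} (hz : z ∈ K v) {q : κ × ℝ} (hq : q ∈ Lv) : z ∈ In q ↔ y q.1 < q.2 := by
  have hpre := isPreconnected_ropeSet C hA hAc hAJ
  have hmiss : ropeSet dim K J A ⊆ (Sh q)ᶜ := by
    intro w hw hwS
    obtain ⟨m, hm, hmA, j, hj, hjm, hj1, hwj⟩ := exists_of_mem_ropeSet hJ hw
    obtain ⟨q', hq', hσ⟩ := hSh q hq w hwS j hj hj1 hwj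
    have h1 := hosc m hm hmA w (C.subset hjm hwj) q'.1
    have h2 := hLv q' hq'
    rw [hσ] at h1
    exact absurd h1 (not_lt.2 h2)
  have hz' : z ∈ ropeSet dim K J A := mem_ropeSet hi hiA hv (by omega) hz
  have hz0' : z0 ∈ ropeSet dim K J A := mem_ropeSet hi0 hi0A hv0 (by omega) hz0
  have hside : (z ∈ In q ↔ z0 ∈ In q) := by
    have h := hpre.subset_or_subset (hIn q hq) (hOut q hq) (hdis q hq)
      (hmiss.trans (hcov q hq))
    rcases h with h | h
    · exact ⟨fun _ => h hz0', fun _ => h hz'⟩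
    · constructor
      · intro hzi; exact absurd hzi (fun hzi => (hdis q hq).le_bot ⟨hzi, h hz'⟩)
      · intro hzi; exact absurd hzi (fun hzi => (hdis q hq).le_bot ⟨hzi, h hz0'⟩)
  rw [hside, hlab q hq]
  have h1 := hosc i0 hi0 hi0A z0 (C.subset hv0 hz0) q.1
  have h2 := hLv q hq
  rw [abs_lt] at h1
  rcases le_abs.1 h2 with h3 | h3
  · constructor
    · intro _; linarith [h1.1]
    · intro _; linarith [h1.2]
  · constructor
    · intro _; linarith [h1.1]
    · intro _; linarith [h1.2]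

end Crest.Agent.R096.Clo_441
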