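import Crest.Agent.R096.Coh4_184

/-! Row 96, P1-COH (helper184), part 5: abstract sheet patterns: points, chords on mesh faces,
tiles = closed chord cycles on the boundaries of the cells. -/

set_option autoImplicit false

open Finset

namespace Crest.Agent.R096.Coh_184

theorem sum_two {α M : Type*} [Fintype α] [AddCommMonoid M] (φ : α → M) {v w : α} (hne : v ≠ w)
    (h : ∀ u, u ≠ v → u ≠ w → φ u = 0) : ∑ u, φ u = φ v + φ w := by
  classical
  rw [← Finset.sum_subset (Finset.subset_univ ({v, w} : Finset α))]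
  · rw [Finset.sum_pair hne]
  · intro x _ hx
    rw [Finset.mem_insert, Finset.mem_singleton] at hx
    push Not at hx
    exact h x hx.1 hx.2

/-- abstract sheet pattern: cells `ι`, points `V`, chords `E`. -/
structure Pat (ι V E : Type*) where
  /-- the two cells of a chord -/
  cells : E → Sym2 ι
  /-- the two end points -/
  ends : E → Sym2 V
  cells_nd : ∀ e, ¬ (cells e).IsDiag
  ends_nd : ∀ e, ¬ (ends e).IsDiag
  deg : ∀ q v, {e | q ∈ cells e ∧ v ∈ ends e}.ncard = 0 ∨ {e | q ∈ cells e ∧ v ∈ ends e}.ncard = 2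

variable {ι V E : Type*}

namespace Pat

variable (A : Pat ι V E)

/-- flags: a chord with one of its two cells -/
def Flag := {x : ι × E // x.1 ∈ A.cells x.2}

variable {A} in
/-- the cell of a flag -/
def Flag.cell (x : A.Flag) : ι := x.1.1

variable {A} in
/-- the chord of a flag -/
def Flag.ch (x : A.Flag) : E := x.1.2

variable {A} in
theorem Flag.mem (x : A.Flag) : x.cell ∈ A.cells x.ch := x.2

variable {A} in
theorem Flag.ext' {x y : A.Flag} (h1 : x.cell = y.cell) (h2 : x.ch = y.ch) : x = y :=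
  Subtype.ext (Prod.ext h1 h2)

/-- same cell and a common end -/
def r (x y : A.Flag) : Prop := x.cell = y.cell ∧ ∃ v, v ∈ A.ends x.ch ∧ v ∈ A.ends y.ch

/-- tiles = closed chord cycles on the boundary of one cell -/
def Tile := Quot A.r

/-- tile of a flag -/
def tile (x : A.Flag) : A.Tile := Quot.mk _ x

/-- cell of a tile -/
def cell : A.Tile → ι := Quot.lift Flag.cell fun _ _ h => h.1

theorem cell_tile (x : A.Flag) : A.cell (A.tile x) = x.cell := rfl

theorem tile_surj (f : A.Tile) : ∃ x, A.tile x = f := Quot.exists_rep f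

/-- chord `e` is on the tile `f` -/
def On (f : A.Tile) (e : E) : Prop := ∃ x : A.Flag, x.ch = e ∧ A.tile x = f

theorem On.cell_mem {A : Pat ι V E} {f : A.Tile} {e : E} (h : A.On f e) : A.cell f ∈ A.cells e := by
  obtain ⟨x, rfl, rfl⟩ := h
  exact x.mem

theorem on_tile (x : A.Flag) : A.On (A.tile x) x.ch := ⟨x, rfl, rfl⟩

/-- for each chord and each of its cells there is exactly one tile -/
theorem On.eq {A : Pat ι V E} {f g : A.Tile} {e : E} (h1 : A.On f e) (h2 : A.On g e)
    (h : A.cell f = A.cell g) : f = g := by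
  obtain ⟨x, hx, rfl⟩ := h1
  obtain ⟨y, hy, rfl⟩ := h2
  rw [Flag.ext' h (hx.trans hy.symm)]

theorem exists_tile {q : ι} {e : E} (h : q ∈ A.cells e) : ∃ f, A.On f e ∧ A.cell f = q :=
  ⟨A.tile ⟨(q, e), h⟩, ⟨⟨(q, e), h⟩, rfl, rfl⟩, rfl⟩

theorem on_of_adj {A : Pat ι V E} {f : A.Tile} {e e' : E} (h : A.On f e)
    (hq : A.cell f ∈ A.cells e') {v : V} (hv : v ∈ A.ends e) (hv' : v ∈ A.ends e') :
    A.On f e' := by
  obtain ⟨x, rfl, rfl⟩ := h
  refine ⟨⟨(x.cell, e'), hq⟩, rfl, ?_⟩
  exact (Quot.sound (r := A.r) (show A.r x ⟨(x.cell, e'), hq⟩ from ⟨rfl, v, hv, hv'⟩)).symm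

/-- induction: a property of the chords of `q` which is invariant under adjacency is constant on
the tile -/
theorem On.induction {A : Pat ι V E} {f : A.Tile} {Q : E → Prop}
    (hQ : ∀ e e' v, A.cell f ∈ A.cells e → A.cell f ∈ A.cells e' → v ∈ A.ends e →
      v ∈ A.ends e' → (Q e ↔ Q e')) {e e' : E} (he : A.On f e) (he' : A.On f e') :
    Q e ↔ Q e' := by
  classical
  obtain ⟨x, rfl, hx⟩ := he
  obtain ⟨y, rfl, hy⟩ := he'
  let φ : A.Tile → Prop := Quot.lift (fun z => z.cell = A.cell f ∧ Q z.ch) (by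
    intro z w hzw
    obtain ⟨h1, v, h2, h3⟩ := hzw
    apply propext
    constructor
    · rintro ⟨h4, h5⟩
      refine ⟨h1 ▸ h4, (hQ z.ch w.ch v ?_ ?_ h2 h3).1 h5⟩
      · rw [← h4]; exact z.mem
      · rw [← h4, h1]; exact w.mem
    · rintro ⟨h4, h5⟩
      refine ⟨h1.symm ▸ h4, (hQ z.ch w.ch v ?_ ?_ h2 h3).2 h5⟩
      · rw [← h4, ← h1]; exact z.mem
      · rw [← h4]; exact w.mem)
  have h1 : φ (A.tile x) = φ (A.tile y) := by rw [hx, hy]
  have h2 : x.cell = A.cell f := by rw [← hx]; rfl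
  have h3 : y.cell = A.cell f := by rw [← hy]; rfl
  have h4 : (x.cell = A.cell f ∧ Q x.ch) = (y.cell = A.cell f ∧ Q y.ch) := h1
  constructor
  · intro h; exact (h4.mp ⟨h2, h⟩).2
  · intro h; exact (h4.mpr ⟨h3, h⟩).2

/-- incidence tile - chord -/
noncomputable def a (f : A.Tile) (e : E) : ZMod 2 := by
  classical exact if A.On f e then 1 else 0

/-- incidence chord - point -/
noncomputable def b (e : E) (v : V) : ZMod 2 := by
  classical exact if v ∈ A.ends e then 1 else 0

theorem a_of_on {A : Pat ι V E} {f : A.Tile} {e : E} (h : A.On f e) : A.a f e = 1 := by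
  classical exact if_pos h

theorem a_of_not {A : Pat ι V E} {f : A.Tile} {e : E} (h : ¬ A.On f e) : A.a f e = 0 := by
  classical exact if_neg h

theorem b_of_mem {A : Pat ι V E} {e : E} {v : V} (h : v ∈ A.ends e) : A.b e v = 1 := by
  classical exact if_pos h

theorem b_of_not {A : Pat ι V E} {e : E} {v : V} (h : v ∉ A.ends e) : A.b e v = 0 := by
  classical exact if_neg h

theorem a_ne_zero {f : A.Tile} {e : E} : A.a f e ≠ 0 ↔ A.On f e := by
  by_cases h : A.On f e
  · simp [a_of_on h, h]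
  · simp [a_of_not h, h]

theorem b_ne_zero {e : E} {v : V} : A.b e v ≠ 0 ↔ v ∈ A.ends e := by
  by_cases h : v ∈ A.ends e
  · simp [b_of_mem h, h]
  · simp [b_of_not h, h]

/-- the coboundary of a function on the points -/
theorem sum_b_mul [Fintype V] (e : E) {v w : V} (h : A.ends e = s(v, w)) (ψ : V → ZMod 2) :
    ∑ u, A.b e u * ψ u = ψ v + ψ w := by
  classical
  have hne : v ≠ w := by
    intro h'
    apply A.ends_nd e
    rw [h, h']; exact Sym2.mk_isDiag_iff.2 rfl
  rw [sum_two _ hne]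
  · rw [b_of_mem (by rw [h]; exact Sym2.mem_mk_left _ _), one_mul,
      b_of_mem (by rw [h]; exact Sym2.mem_mk_right _ _), one_mul]
  · intro u huv huw
    rw [b_of_not, zero_mul]
    rw [h, Sym2.mem_iff]; push Not; exact ⟨huv, huw⟩

theorem sum_b [Fintype V] (e : E) : ∑ u, A.b e u = 0 := by
  obtain ⟨v, w, h⟩ : ∃ v w, A.ends e = s(v, w) := by
    induction h : A.ends e using Sym2.ind with
    | _ v w => exact ⟨v, w, rfl⟩
  have := A.sum_b_mul e h (fun _ => 1)
  simp only [mul_one] at this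
  rw [this]; decide

/-- the two chords of the cell `q` at the point `v` -/
theorem exists_pair [Finite E] {q : ι} {v : V} {e : E} (hq : q ∈ A.cells e) (hv : v ∈ A.ends e) :
    ∃ e', e' ≠ e ∧ {x | q ∈ A.cells x ∧ v ∈ A.ends x} = {e, e'} := by
  have hne : {x | q ∈ A.cells x ∧ v ∈ A.ends x}.ncard ≠ 0 :=
    Set.ncard_ne_zero_of_mem (a := e) ⟨hq, hv⟩ (Set.toFinite _)
  rcases A.deg q v with h | h
  · exact (hne h).elim
  · obtain ⟨x, y, hxy, hs⟩ := Set.ncard_eq_two.1 h
    have he : e ∈ ({x, y} : Set E) := by rw [← hs]; exact ⟨hq, hv⟩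
    rcases he with rfl | he
    · exact ⟨y, hxy.symm, hs⟩
    · rw [Set.mem_singleton_iff] at he
      subst he
      exact ⟨x, hxy, by rw [hs, Set.pair_comm]⟩

variable [Fintype E]

/-- `∂∂ = 0` -/
theorem sum_ab (f : A.Tile) (v : V) : ∑ e, A.a f e * A.b e v = 0 := by
  classical
  by_cases hex : ∃ e, A.On f e ∧ v ∈ A.ends e
  · obtain ⟨e, he, hv⟩ := hex
    obtain ⟨e', hne, hs⟩ := A.exists_pair he.cell_mem hv
    have he' : A.cell f ∈ A.cells e' ∧ v ∈ A.ends e' := by
      have : e' ∈ ({e, e'} : Set E) := Or.inr rfl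
      rw [← hs] at this; exact this
    have hon' : A.On f e' := on_of_adj he he'.1 hv he'.2
    rw [sum_two _ hne.symm]
    · rw [a_of_on he, b_of_mem hv, a_of_on hon', b_of_mem he'.2]; decide
    · intro x hxe hxe'
      by_cases hx1 : A.On f x
      · by_cases hx2 : v ∈ A.ends x
        · exfalso
          have : x ∈ ({e, e'} : Set E) := by rw [← hs]; exact ⟨hx1.cell_mem, hx2⟩
          rcases this with h | h
          · exact hxe h
          · exact hxe' h
        · rw [b_of_not hx2, mul_zero]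
      · rw [a_of_not hx1, zero_mul]
  · push Not at hex
    refine Finset.sum_eq_zero fun e _ => ?_
    by_cases he : A.On f e
    · rw [b_of_not (hex e he), mul_zero]
    · rw [a_of_not he, zero_mul]

noncomputable instance : Finite A.Flag := by
  classical
  have : Finite {x : ι × E // x.1 ∈ A.cells x.2} := by
    have h1 : {x : ι × E | x.1 ∈ A.cells x.2} ⊆ ⋃ e : E, (fun q => (q, e)) '' {q | q ∈ A.cells e} := by
      rintro ⟨q, e⟩ h
      exact Set.mem_iUnion.2 ⟨e, q, h, rfl⟩
    refine Set.Finite.subset (Set.finite_iUnion fun e => Set.Finite.image _ ?_) h1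
    induction h : A.cells e using Sym2.ind with
    | _ v w =>
      refine Set.Finite.subset (Set.toFinite {v, w}) fun x hx => ?_
      exact Sym2.mem_iff.1 hx
  exact this

noncomputable instance : Finite A.Tile := Quot.finite _

noncomputable instance : Fintype A.Tile := Fintype.ofFinite _

omit [Fintype E] in
/-- every chord is on exactly two tiles -/
theorem exists_two (e : E) : ∃ f g : A.Tile, f ≠ g ∧ A.cells e = s(A.cell f, A.cell g) ∧
    ∀ h, A.On h e ↔ h = f ∨ h = g := by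
  obtain ⟨q, q', hq⟩ : ∃ v w, A.cells e = s(v, w) := by
    induction h : A.cells e using Sym2.ind with
    | _ v w => exact ⟨v, w, rfl⟩
  have hne : q ≠ q' := by
    intro h'
    apply A.cells_nd e
    rw [hq, h']; exact Sym2.mk_isDiag_iff.2 rfl
  obtain ⟨f, hf, hfq⟩ := A.exists_tile (q := q) (e := e) (by rw [hq]; exact Sym2.mem_mk_left _ _)
  obtain ⟨g, hg, hgq⟩ := A.exists_tile (q := q') (e := e) (by rw [hq]; exact Sym2.mem_mk_right _ _)
  refine ⟨f, g, ?_, by rw [hfq, hgq, hq], fun h => ⟨fun hh => ?_, ?_⟩⟩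
  · rintro rfl; exact hne (hfq.symm.trans hgq)
  · have h1 := hh.cell_mem
    rw [hq, Sym2.mem_iff] at h1
    rcases h1 with h1 | h1
    · left; exact hh.eq hf (h1.trans hfq.symm)
    · right; exact hh.eq hg (h1.trans hgq.symm)
  · rintro (rfl | rfl)
    · exact hf
    · exact hg

theorem sum_a_mul (e : E) {f g : A.Tile} (hne : f ≠ g) (hfg : ∀ h, A.On h e ↔ h = f ∨ h = g)
    (w : A.Tile → ZMod 2) : ∑ h, w h * A.a h e = w f + w g := by
  classical
  rw [sum_two _ hne]
  · rw [a_of_on ((hfg f).2 (Or.inl rfl)), mul_one, a_of_on ((hfg g).2 (Or.inr rfl)), mul_one]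
  · intro u huv huw
    rw [a_of_not, mul_zero]
    rw [hfg]; push Not; exact ⟨huv, huw⟩

theorem sum_a (e : E) : ∑ f, A.a f e = 0 := by
  obtain ⟨f, g, hne, _, hfg⟩ := A.exists_two e
  have := A.sum_a_mul e hne hfg fun _ => 1
  simp only [one_mul] at this
  rw [this]; decide

/-- a cycle supported in one cell is constant on each tile of the cell -/
theorem cycle_eq_of_on {q : ι} {z : E → ZMod 2} (hzq : ∀ e, q ∉ A.cells e → z e = 0)
    (hz : ∀ v, ∑ e, z e * A.b e v = 0) {f : A.Tile} (hf : A.cell f = q) {e e' : E}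
    (he : A.On f e) (he' : A.On f e') : z e = z e' := by
  classical
  have key : z e = 1 ↔ z e' = 1 := by
    refine On.induction (Q := fun e => z e = 1) ?_ he he'
    intro e1 e2 v h1 h2 h3 h4
    rw [hf] at h1 h2
    by_cases h12 : e1 = e2
    · rw [h12]
    obtain ⟨e3, hne, hs⟩ := A.exists_pair h1 h3
    have h5 : e2 ∈ ({e1, e3} : Set E) := by rw [← hs]; exact ⟨h2, h4⟩
    have h6 : e2 = e3 := by
      rcases h5 with h | h
      · exact (h12 h.symm).elim
      · exact h
    subst h6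
    have h7 : ∑ e, z e * A.b e v = z e1 + z e2 := by
      rw [sum_two _ h12, b_of_mem h3, b_of_mem h4, mul_one, mul_one]
      intro x hxe hxe'
      by_cases hx1 : q ∈ A.cells x
      · by_cases hx2 : v ∈ A.ends x
        · exfalso
          have : x ∈ ({e1, e2} : Set E) := by rw [← hs]; exact ⟨hx1, hx2⟩
          rcases this with h | h
          · exact hxe h
          · exact hxe' h
        · rw [b_of_not hx2, mul_zero]
      · rw [hzq x hx1, zero_mul]
    rw [hz v] at h7
    have h8 : z e1 = z e2 := by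
      have := h7.symm
      rwa [CharTwo.add_eq_zero] at this
    rw [h8]
  have two : ∀ x : ZMod 2, x = 0 ∨ x = 1 := by decide
  rcases two (z e) with h | h
  · rcases two (z e') with h' | h'
    · rw [h, h']
    · have := key.2 h'; rw [h] at this; exact absurd this (by decide)
  · rw [h, key.1 h]

/-- a cycle supported in one cell is a sum of tiles of that cell -/
theorem cell_cycle {q : ι} {z : E → ZMod 2} (hzq : ∀ e, q ∉ A.cells e → z e = 0)
    (hz : ∀ v, ∑ e, z e * A.b e v = 0) :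
    ∃ w : A.Tile → ZMod 2, (∀ f, A.cell f ≠ q → w f = 0) ∧ ∀ e, z e = ∑ f, w f * A.a f e := by
  classical
  have hex : ∀ f : A.Tile, ∃ e, A.On f e := fun f => by
    obtain ⟨x, hx⟩ := A.tile_surj f
    exact ⟨x.ch, x, rfl, hx⟩
  choose c hc using hex
  refine ⟨fun f => if A.cell f = q then z (c f) else 0, fun f hf => if_neg hf, fun e => ?_⟩
  obtain ⟨f, g, hne, hfg, hon⟩ := A.exists_two e
  rw [A.sum_a_mul e hne hon]
  have hcells : A.cell f ≠ A.cell g := fun h => hne (((hon f).2 (Or.inl rfl)).eq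
    ((hon g).2 (Or.inr rfl)) h)
  by_cases hf : A.cell f = q
  · have hg : A.cell g ≠ q := fun h => hcells (hf.trans h.symm)
    rw [if_pos hf, if_neg hg, add_zero]
    exact A.cycle_eq_of_on hzq hz hf ((hon f).2 (Or.inl rfl)) (hc f)
  · by_cases hg : A.cell g = q
    · rw [if_neg hf, if_pos hg, zero_add]
      exact A.cycle_eq_of_on hzq hz hg ((hon g).2 (Or.inr rfl)) (hc g)
    · rw [if_neg hf, if_neg hg, add_zero]
      apply hzq
      rw [hfg, Sym2.mem_iff]
      rintro (h | h)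
      · exact hf h.symm
      · exact hg h.symm

variable [Fintype V]

/-- `κ` is exact on the chords of every single cell -/
def LocEx (κ : E → ZMod 2) : Prop :=
  ∀ q, ∃ ψ : V → ZMod 2, ∀ e, q ∈ A.cells e → κ e = ∑ v, A.b e v * ψ v

theorem kills_of_exact {f : A.Tile} {κ : E → ZMod 2} {ψ : V → ZMod 2}
    (h : ∀ e, A.On f e → κ e = ∑ v, A.b e v * ψ v) : ∑ e, A.a f e * κ e = 0 := by
  have h1 : ∑ e, A.a f e * κ e = ∑ e, A.a f e * ∑ v, A.b e v * ψ v := by
    refine Finset.sum_congr rfl fun e _ => ?_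
    by_cases he : A.On f e
    · rw [h e he]
    · rw [a_of_not he, zero_mul, zero_mul]
  rw [h1, sum_mul_cob]
  exact Finset.sum_eq_zero fun v _ => by rw [A.sum_ab, zero_mul]

theorem exact_in_cell {q : ι} {κ : E → ZMod 2}
    (h : ∀ f, A.cell f = q → ∑ e, A.a f e * κ e = 0) :
    ∃ ψ : V → ZMod 2, ∀ e, q ∈ A.cells e → κ e = ∑ v, A.b e v * ψ v := by
  refine exact_of_kills A.b (fun e => q ∈ A.cells e) κ fun z hz1 hz2 => ?_
  obtain ⟨w, hw0, hw⟩ := A.cell_cycle hz1 hz2
  have h1 : ∑ e, z e * κ e = ∑ f, w f * ∑ e, A.a f e * κ e := by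
    simp only [hw, Finset.sum_mul, Finset.mul_sum]
    rw [Finset.sum_comm]
    exact Finset.sum_congr rfl fun v _ => Finset.sum_congr rfl fun e _ => by ring
  rw [h1]
  refine Finset.sum_eq_zero fun f _ => ?_
  by_cases hf : A.cell f = q
  · rw [h f hf, mul_zero]
  · rw [hw0 f hf, zero_mul]

theorem locEx_iff (κ : E → ZMod 2) : A.LocEx κ ↔ ∀ f, ∑ e, A.a f e * κ e = 0 := by
  constructor
  · intro h f
    obtain ⟨ψ, hψ⟩ := h (A.cell f)
    exact A.kills_of_exact fun e he => hψ e he.cell_mem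
  · intro h q
    exact A.exact_in_cell fun f _ => h f

/-- every chord cochain which is exact in every cell is exact -/
def H1 : Prop := ∀ κ : E → ZMod 2, A.LocEx κ → ∃ ψ : V → ZMod 2, ∀ e, κ e = ∑ v, A.b e v * ψ v

variable {A}

theorem H1.cocycle (h : A.H1) {κ : E → ZMod 2} (hκ : ∀ f, ∑ e, A.a f e * κ e = 0) :
    ∃ ψ : V → ZMod 2, ∀ e, κ e = ∑ v, A.b e v * ψ v := h κ ((A.locEx_iff κ).2 hκ)

/-- every even set of chords bounds a set of tiles -/
theorem H1.sep (h : A.H1) {z : E → ZMod 2} (hz : ∀ v, ∑ e, z e * A.b e v = 0) :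
    ∃ w : A.Tile → ZMod 2, ∀ e, z e = ∑ f, w f * A.a f e := by
  obtain ⟨w, _, hw⟩ := homology_of_cohomology A.a A.b (fun _ => True) (fun _ => True)
    (fun κ hκ => by
      obtain ⟨ψ, hψ⟩ := h.cocycle fun f => hκ f trivial
      exact ⟨ψ, fun e _ => hψ e⟩) z (fun e he => (he trivial).elim) hz
  exact ⟨w, hw⟩

/-- the chord lies in the set of points `U` -/
def EIn (A : Pat ι V E) (U : Set V) (e : E) : Prop := ∀ v ∈ A.ends e, v ∈ U

/-- the tile lies in the set of points `U` -/
def TIn (A : Pat ι V E) (U : Set V) (f : A.Tile) : Prop := ∀ e, A.On f e → A.EIn U e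

/-- `U` is a union of components -/
def Closed (A : Pat ι V E) (U : Set V) : Prop :=
  ∀ e, ∀ v ∈ A.ends e, ∀ w ∈ A.ends e, v ∈ U → w ∈ U

omit [Fintype E] [Fintype V] in
theorem Closed.tIn_iff {U : Set V} (hU : A.Closed U) {f : A.Tile} {e : E} (he : A.On f e) :
    A.TIn U f ↔ A.EIn U e := by
  constructor
  · intro h; exact h e he
  · intro h e' he'
    refine (On.induction (Q := fun e => A.EIn U e) ?_ he he').1 h
    intro e1 e2 v _ _ h3 h4
    constructor
    · intro h5 w hw
      exact hU e2 v h4 w hw (h5 v h3)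
    · intro h5 w hw
      exact hU e1 v h3 w hw (h5 v h4)

/-- `H1` for a union of components -/
theorem H1.rel (h : A.H1) {U : Set V} (hU : A.Closed U) {κ : E → ZMod 2}
    (hκ : ∀ f, A.TIn U f → ∑ e, A.a f e * κ e = 0) :
    ∃ ψ : V → ZMod 2, ∀ e, A.EIn U e → κ e = ∑ v, A.b e v * ψ v := by
  classical
  obtain ⟨ψ, hψ⟩ := h.cocycle (κ := fun e => if A.EIn U e then κ e else 0) (by
    intro f
    by_cases hf : A.TIn U f
    · rw [← hκ f hf]
      refine Finset.sum_congr rfl fun e _ => ?_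
      by_cases he : A.On f e
      · rw [if_pos (hf e he)]
      · rw [a_of_not he, zero_mul, zero_mul]
    · refine Finset.sum_eq_zero fun e _ => ?_
      by_cases he : A.On f e
      · rw [if_neg (fun h => hf ((hU.tIn_iff he).2 h)), mul_zero]
      · rw [a_of_not he, zero_mul])
  refine ⟨ψ, fun e he => ?_⟩
  rw [← hψ e, if_pos he]

/-- `Sep` for a union of components -/
theorem H1.sep_rel (h : A.H1) {U : Set V} (hU : A.Closed U) {z : E → ZMod 2}
    (hzU : ∀ e, ¬ A.EIn U e → z e = 0) (hz : ∀ v, ∑ e, z e * A.b e v = 0) :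
    ∃ w : A.Tile → ZMod 2, (∀ f, ¬ A.TIn U f → w f = 0) ∧ ∀ e, z e = ∑ f, w f * A.a f e :=
  homology_of_cohomology A.a A.b (A.TIn U) (A.EIn U) (fun _ hκ => h.rel hU hκ) z hzU hz

variable (A) in
/-- the cells at `v` are connected through the chords at `v` -/
def Linked (v : V) : Prop :=
  ∀ X : Set ι, ∀ q ∈ X, (∃ e, q ∈ A.cells e ∧ v ∈ A.ends e) →
    (∀ e, v ∈ A.ends e → ∀ q ∈ A.cells e, ∀ q' ∈ A.cells e, q ∈ X → q' ∈ X) →
    ∀ q', (∃ e, q' ∈ A.cells e ∧ v ∈ A.ends e) → q' ∈ X

omit [Fintype E] [Fintype V] in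
/-- LINK: a set of tiles without boundary edge at `v` contains all or none of the tiles at `v` -/
theorem Linked.link {v : V} (hv : A.Linked v) {X : Set A.Tile}
    (hX : ∀ e, v ∈ A.ends e → ∀ f g, A.On f e → A.On g e → f ∈ X → g ∈ X)
    {f g : A.Tile} {e e' : E} (hf : A.On f e) (he : v ∈ A.ends e) (hg : A.On g e')
    (he' : v ∈ A.ends e') (hfX : f ∈ X) : g ∈ X := by
  have key := hv {q | ∃ f ∈ X, A.cell f = q ∧ ∃ e, A.On f e ∧ v ∈ A.ends e} (A.cell f)
    ⟨f, hfX, rfl, e, hf, he⟩ ⟨e, hf.cell_mem, he⟩ (by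
      rintro e1 hve1 q hq q' hq' ⟨f1, hf1, rfl, e2, hfe2, hve2⟩
      have h1 : A.On f1 e1 := on_of_adj hfe2 hq hve2 hve1
      obtain ⟨g1, hg1, hg1q⟩ := A.exists_tile hq'
      exact ⟨g1, hX e1 hve1 f1 g1 h1 hg1 hf1, hg1q, e1, hg1, hve1⟩)
    (A.cell g) ⟨e', hg.cell_mem, he'⟩
  obtain ⟨f1, hf1, hc, e1, hfe1, hve1⟩ := key
  have h1 : A.On f1 e' := on_of_adj hfe1 (by rw [hc]; exact hg.cell_mem) hve1 he'
  rw [← h1.eq hg hc]
  exact hf1

end Pat

end Crest.Agent.R096.Coh_184
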