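import Crest.Agent.R096.Coh3_184
import Crest.Agent.R096.Coh5_184

/-! Row 96, P1-COH (helper184), part 6: the sheet pattern of a level set and its `H1`. -/

set_option autoImplicit false

open Set Topology Filter

namespace Crest.Agent.R096.Coh_184

variable {X : Type*} [TopologicalSpace X] {ι : Type*}

/-- every locally constant cocycle on a finite closed cover of `S` is trivial -/
def TrivF (A : Type*) [AddCommGroup A] (S : Set X) : Prop := ∀ n : ℕ, TrivAll (Fin n) A S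

theorem TrivF.all {A : Type*} [AddCommGroup A] {S : Set X} (h : TrivF A S) (κ : Type*)
    [Finite κ] : TrivAll κ A S := by
  intro C d hcoc
  obtain ⟨n, ⟨e⟩⟩ := Finite.exists_equiv_fin κ
  obtain ⟨χ, h1, h2⟩ := h n (fun i => C (e.symm i)) (fun i j => d (e.symm i) (e.symm j))
    ⟨fun i => hcoc.closed _, fun x hx => by
      obtain ⟨i, hi⟩ := mem_iUnion.1 (hcoc.cov hx)
      exact mem_iUnion.2 ⟨e i, by simpa using hi⟩, fun i j => hcoc.lc _ _,
      fun i j k x hi hj hk hx => hcoc.coc _ _ _ x hi hj hk hx⟩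
  refine ⟨fun i => χ (e i), fun i => ?_, fun i j x hi hj hx => ?_⟩
  · have := h1 (e i)
    simpa using this
  · have := h2 (e i) (e j) x (by simpa using hi) (by simpa using hj) hx
    simpa using this

theorem trivF_sphere {A : Type*} [AddCommGroup A] {S : Set X} (e : Sph ≃ₜ S) : TrivF A S :=
  fun _ => TrivAll.of_homeo_sphere e

/-- injective continuous images of the 2-sphere -/
theorem trivF_sphere_image {A : Type*} [AddCommGroup A] [T2Space X]
    {g : EuclideanSpace ℝ (Fin 3) → X} (hg : ContinuousOn g Sph) (hinj : InjOn g Sph) :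
    TrivF A (g '' Sph) :=
  fun _ => TrivAll.of_image_compact trivAll_sphere (isCompact_sphere _ _) Metric.isClosed_sphere
    hg hinj

/-- injective continuous images of compact convex sets -/
theorem trivF_convex_image {A : Type*} [AddCommGroup A] [T2Space X] {n : ℕ}
    {K : Set (Fin n → ℝ)} (hK : IsCompact K) (hKc : Convex ℝ K) {g : (Fin n → ℝ) → X}
    (hg : ContinuousOn g K) (hinj : InjOn g K) : TrivF A (g '' K) :=
  fun _ => TrivAll.of_image_compact (trivAll_convex hK hKc) hK hK.isClosed hg hinj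

/-- transport by a homeomorphism of subtypes -/
theorem TrivF.of_homeo {A : Type*} [AddCommGroup A] {Z : Type*} [TopologicalSpace Z] {K : Set Z}
    {S : Set X} (hK : TrivF A K) (hKc : IsClosed K) (e : K ≃ₜ S) : TrivF A S :=
  fun n => (hK n).of_subtype hKc e e.symm e.continuous e.symm.continuous e.apply_symm_apply

theorem TrivF.of_image {A : Type*} [AddCommGroup A] {Z : Type*} [TopologicalSpace Z] [T2Space X]
    {K : Set Z} (hK : TrivF A K) (hKc : IsCompact K) (hKcl : IsClosed K) {g : Z → X}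
    (hg : ContinuousOn g K) (hinj : InjOn g K) : TrivF A (g '' K) :=
  fun n => (hK n).of_image_compact hKc hKcl hg hinj

section chord

variable {S S' : Set X} {c : ι → Set X} {P P' : Finset X} {q q' : ι} {p p' : X}

theorem Chord.mono (h : Chord S c P q q' p p') (hS : S ⊆ S') (hP : P ⊆ P') :
    Chord S' c P' q q' p p' :=
  ⟨h.ne, hP h.left, hP h.right, ⟨hS h.mem.1, h.mem.2⟩,
    connectedComponentIn_mono _ (inter_subset_inter_left _ hS) h.conn⟩

/-- a chord whose component lies in the smaller set -/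
theorem Chord.restrict (h : Chord S c P q q' p p')
    (hsub : connectedComponentIn (S ∩ (c q ∩ c q')) p ⊆ S') (hP : ∀ x ∈ P, x ∈ S' → x ∈ P') :
    Chord S' c P' q q' p p' := by
  have hp : p ∈ connectedComponentIn (S ∩ (c q ∩ c q')) p := mem_connectedComponentIn h.mem
  have hpS' : p ∈ S' := hsub hp
  refine ⟨h.ne, hP p h.left hpS', hP p' h.right (hsub h.conn), ⟨hpS', h.mem.2⟩, ?_⟩
  have h1 : connectedComponentIn (S ∩ (c q ∩ c q')) p ⊆ S' ∩ (c q ∩ c q') :=
    fun x hx => ⟨hsub hx, (connectedComponentIn_subset _ _ hx).2⟩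
  exact isPreconnected_connectedComponentIn.subset_connectedComponentIn hp h1 h.conn

end chord

/-- the main theorem for a possibly infinite cover, finitely many cells of which meet `S` -/
theorem coh' [T2Space X] {A : Type*} [AddCommGroup A] {S : Set X} (hS : IsCompact S)
    (htriv : TrivF A S) {c : ι → Set X} (hc : ∀ q, IsClosed (c q)) (hcov : S ⊆ ⋃ q, c q)
    (hfin : {q | (S ∩ c q).Nonempty}.Finite) {P : Finset X} (hP : ↑P ⊆ S)
    (htrip : ∀ q q' q'', q ≠ q' → q' ≠ q'' → q ≠ q'' → S ∩ (c q ∩ c q' ∩ c q'') ⊆ P)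
    {κ : ι → ι → X → X → A} (hκ : ∀ q q' p p', κ q' q p p' = κ q q' p p')
    {ψ : ι → X → A} (hψ : ∀ q q' p p', Chord S c P q q' p p' → ψ q p - ψ q p' = κ q q' p p') :
    ∃ Ψ : X → A, ∀ q q' p p', Chord S c P q q' p p' → Ψ p - Ψ p' = κ q q' p p' := by
  have : Finite {q // (S ∩ c q).Nonempty} := hfin
  obtain ⟨Ψ, hΨ⟩ := coh (ι := {q // (S ∩ c q).Nonempty}) (A := A) (S := S) hS (htriv.all _)
    (c := fun q => c q.1) (fun q => hc q.1) (by
      intro x hx
      obtain ⟨q, hq⟩ := mem_iUnion.1 (hcov hx)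
      exact mem_iUnion.2 ⟨⟨q, x, hx, hq⟩, hq⟩) (P := P) hP
    (fun q q' q'' h1 h2 h3 => htrip q.1 q'.1 q''.1 (fun h => h1 (Subtype.ext h))
      (fun h => h2 (Subtype.ext h)) (fun h => h3 (Subtype.ext h)))
    (κ := fun q q' p p' => κ q.1 q'.1 p p') (fun q q' p p' => hκ _ _ _ _)
    (ψ := fun q => ψ q.1) (fun q q' p p' h => hψ q.1 q'.1 p p'
      ⟨fun h' => h.ne (Subtype.ext h'), h.left, h.right, h.mem, h.conn⟩)
  refine ⟨Ψ, fun q q' p p' h => ?_⟩
  exact hΨ ⟨q, p, h.mem.1, h.mem.2.1⟩ ⟨q', p, h.mem.1, h.mem.2.2⟩ p p'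
    ⟨fun h' => h.ne (congrArg Subtype.val h'), h.left, h.right, h.mem, h.conn⟩

/-- hypotheses on a level set `S` and the mesh `c` -/
structure SheetHyp (S : Set X) (c : ι → Set X) (P : Finset X) : Prop where
  cpt : IsCompact S
  closed : ∀ q, IsClosed (c q)
  cov : S ⊆ ⋃ q, c q
  fin : {q | (S ∩ c q).Nonempty}.Finite
  sub : ↑P ⊆ S
  trip : ∀ q q' q'', q ≠ q' → q' ≠ q'' → q ≠ q'' → S ∩ (c q ∩ c q' ∩ c q'') ⊆ P
  deg : ∀ p ∈ P, ∀ q, p ∈ c q → {x : ι × X | x.2 ≠ p ∧ Chord S c P q x.1 p x.2}.ncard = 2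
  link : ∀ p ∈ P, ∀ A : Set ι, ∀ q ∈ A, p ∈ c q →
    (∀ q ∈ A, ∀ q' p', p' ≠ p → Chord S c P q q' p p' → q' ∈ A) → ∀ q', p ∈ c q' → q' ∈ A

/-- being a chord of the sheet -/
def IsChord (S : Set X) (c : ι → Set X) (P : Finset X) (x : Sym2 ι × Sym2 {p // p ∈ P}) : Prop :=
  ∃ (q q' : ι) (p p' : {p // p ∈ P}), p ≠ p' ∧ Chord S c P q q' p p' ∧ x = (s(q, q'), s(p, p'))

/-- the chords of the sheet -/
def ChordT (S : Set X) (c : ι → Set X) (P : Finset X) : Type _ :=
  {x : Sym2 ι × Sym2 {p // p ∈ P} // IsChord S c P x}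

variable {S : Set X} {c : ι → Set X} {P : Finset X}

theorem isChord_iff {q q' : ι} {p p' : {p // p ∈ P}} :
    IsChord S c P (s(q, q'), s(p, p')) ↔ p ≠ p' ∧ Chord S c P q q' p p' := by
  constructor
  · rintro ⟨r, r', u, u', hne, hch, heq⟩
    have h1 : s(q, q') = s(r, r') := congrArg Prod.fst heq
    have h2 : s(p, p') = s(u, u') := congrArg Prod.snd heq
    rw [Sym2.eq_iff] at h1 h2
    have h3 : Chord S c P q q' u u' := by
      rcases h1 with ⟨rfl, rfl⟩ | ⟨rfl, rfl⟩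
      · exact hch
      · exact hch.swap
    rcases h2 with ⟨rfl, rfl⟩ | ⟨rfl, rfl⟩
    · exact ⟨hne, h3⟩
    · exact ⟨hne.symm, h3.symm⟩
  · rintro ⟨h1, h2⟩
    exact ⟨q, q', p, p', h1, h2, rfl⟩

/-- the chord of a pair -/
def Chord.toT {q q' : ι} {p p' : X} (h : Chord S c P q q' p p') (hne : p ≠ p') :
    ChordT S c P :=
  ⟨(s(q, q'), s(⟨p, h.left⟩, ⟨p', h.right⟩)),
    isChord_iff.2 ⟨fun h' => hne (congrArg Subtype.val h'), h⟩⟩

theorem finite_chordT (hfin : {q | (S ∩ c q).Nonempty}.Finite) : Finite (ChordT S c P) := by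
  have : Finite {q // (S ∩ c q).Nonempty} := hfin
  let F : {q // (S ∩ c q).Nonempty} × {q // (S ∩ c q).Nonempty} × {p // p ∈ P} × {p // p ∈ P} →
    Sym2 ι × Sym2 {p // p ∈ P} := fun t => (s(t.1.1, t.2.1.1), s(t.2.2.1, t.2.2.2))
  have h1 : {x | IsChord S c P x} ⊆ range F := by
    rintro x ⟨q, q', p, p', hne, hch, rfl⟩
    exact ⟨(⟨q, p, hch.mem.1, hch.mem.2.1⟩, ⟨q', p, hch.mem.1, hch.mem.2.2⟩, p, p'), rfl⟩
  exact (Set.finite_range F).subset h1

theorem chordT_rep (e : ChordT S c P) : ∃ (q q' : ι) (p p' : {p // p ∈ P}), p ≠ p' ∧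
    Chord S c P q q' p p' ∧ e.1 = (s(q, q'), s(p, p')) := e.2

/-- representation of a chord starting from a cell and an end point -/
theorem chordT_rep' {e : ChordT S c P} {q : ι} {p : {p // p ∈ P}} (hq : q ∈ e.1.1)
    (hp : p ∈ e.1.2) : ∃ (q' : ι) (p' : {p // p ∈ P}), p' ≠ p ∧
    Chord S c P q q' p p' ∧ e.1 = (s(q, q'), s(p, p')) := by
  obtain ⟨r, r', u, u', hne, hch, he⟩ := chordT_rep e
  rw [he] at hq hp
  have hq' : q = r ∨ q = r' := Sym2.mem_iff.1 hq
  have hp' : p = u ∨ p = u' := Sym2.mem_iff.1 hp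
  rcases hq' with rfl | rfl
  · rcases hp' with rfl | rfl
    · exact ⟨r', u', hne.symm, hch, he⟩
    · exact ⟨r', u, hne, hch.symm, by rw [he, Sym2.eq_swap (a := u)]⟩
  · rcases hp' with rfl | rfl
    · exact ⟨r, u', hne.symm, hch.swap, by rw [he, Sym2.eq_swap (a := r)]⟩
    · exact ⟨r, u, hne, hch.swap.symm, by rw [he, Sym2.eq_swap (a := r), Sym2.eq_swap (a := u)]⟩

theorem Chord.mem_right {q q' : ι} {p p' : X} (h : Chord S c P q q' p p') :
    p' ∈ S ∩ (c q ∩ c q') := connectedComponentIn_subset _ _ h.conn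

namespace SheetHyp

variable (h : SheetHyp S c P)

/-- the sheet pattern of a level set -/
def pat (h : SheetHyp S c P) : Pat ι {p // p ∈ P} (ChordT S c P) where
  cells := fun e => e.1.1
  ends := fun e => e.1.2
  cells_nd := by
    intro e
    obtain ⟨q, q', p, p', _, hch, he⟩ := chordT_rep e
    rw [he]
    exact fun h => hch.ne (Sym2.mk_isDiag_iff.1 h)
  ends_nd := by
    intro e
    obtain ⟨q, q', p, p', hne, hch, he⟩ := chordT_rep e
    rw [he]
    exact fun h => hne (Sym2.mk_isDiag_iff.1 h)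
  deg := by
    intro q p
    by_cases hq : (p : X) ∈ c q
    · right
      rw [← h.deg p.1 p.2 q hq]
      symm
      refine Set.ncard_congr (fun x hx => hx.2.toT (Ne.symm hx.1)) ?_ ?_ ?_
      · rintro ⟨q', p'⟩ ⟨hne, hch⟩
        exact ⟨Sym2.mem_mk_left _ _, Sym2.mem_mk_left _ _⟩
      · rintro ⟨q', p'⟩ ⟨q'', p''⟩ ⟨hne, hch⟩ ⟨hne', hch'⟩ heq
        have h1 := congrArg Subtype.val heq
        have h2 : s(q, q') = s(q, q'') := congrArg Prod.fst h1
        have h3 : s((⟨p.1, hch.left⟩ : {p // p ∈ P}), ⟨p', hch.right⟩) =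
          s(⟨p.1, hch'.left⟩, ⟨p'', hch'.right⟩) := congrArg Prod.snd h1
        have h4 := Sym2.congr_right.1 h2
        have h5 := congrArg Subtype.val (Sym2.congr_right.1 h3)
        exact Prod.ext h4 h5
      · rintro e ⟨hqe, hpe⟩
        obtain ⟨q', p', hne, hch, he⟩ := chordT_rep' hqe hpe
        refine ⟨(q', p'.1), ⟨fun h => hne (Subtype.ext h), hch⟩, ?_⟩
        exact Subtype.ext he.symm
    · left
      rw [Set.ncard_eq_zero (Set.Finite.subset Set.finite_empty ?_)]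
      · rw [Set.eq_empty_iff_forall_notMem]
        rintro e ⟨hqe, hpe⟩
        obtain ⟨q', p', hne, hch, he⟩ := chordT_rep' hqe hpe
        exact hq hch.mem.2.1
      · rintro e ⟨hqe, hpe⟩
        obtain ⟨q', p', hne, hch, he⟩ := chordT_rep' hqe hpe
        exact (hq hch.mem.2.1).elim

/-- the component of the chord `e` lies in `S'` -/
def _root_.Crest.Agent.R096.Coh_184.EInS (S' : Set X) (e : ChordT S c P) : Prop :=
  ∃ (q q' : ι) (p p' : {p // p ∈ P}), p ≠ p' ∧ Chord S c P q q' p p' ∧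
    e.1 = (s(q, q'), s(p, p')) ∧ connectedComponentIn (S ∩ (c q ∩ c q')) p ⊆ S'

theorem _root_.Crest.Agent.R096.Coh_184.eInS_self (e : ChordT S c P) : EInS S e := by
  obtain ⟨q, q', p, p', hne, hch, he⟩ := chordT_rep e
  exact ⟨q, q', p, p', hne, hch, he, fun x hx => (connectedComponentIn_subset _ _ hx).1⟩

/-- localized exactness: `S' ⊆ S` compact with trivial cocycles, `κ` exact in every cell meeting
`S'`; then `κ` is exact on the chords inside `S'`. -/
theorem coh_loc [T2Space X] (h : SheetHyp S c P) {S' : Set X} (hS' : IsCompact S')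
    (hsub : S' ⊆ S) (ht : TrivF (ZMod 2) S') {κ : ChordT S c P → ZMod 2}
    (hκ : ∀ q, (S' ∩ c q).Nonempty → ∃ ψ : {p // p ∈ P} → ZMod 2,
      ∀ e, q ∈ h.pat.cells e → κ e = ∑ v, h.pat.b e v * ψ v) :
    ∃ Ψ : {p // p ∈ P} → ZMod 2, ∀ e, EInS S' e → κ e = ∑ v, h.pat.b e v * Ψ v := by
  classical
  let κ' : ι → ι → X → X → ZMod 2 := fun q q' p p' =>
    if hh : Chord S c P q q' p p' ∧ p ≠ p' then κ (hh.1.toT hh.2) else 0
  have hκ'sym : ∀ q q' p p', κ' q' q p p' = κ' q q' p p' := by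
    intro q q' p p'
    by_cases hh : Chord S c P q q' p p' ∧ p ≠ p'
    · have hh' : Chord S c P q' q p p' ∧ p ≠ p' := ⟨hh.1.swap, hh.2⟩
      have e1 : κ' q q' p p' = κ (hh.1.toT hh.2) := dif_pos hh
      have e2 : κ' q' q p p' = κ (hh'.1.toT hh'.2) := dif_pos hh'
      rw [e1, e2]
      congr 1
      apply Subtype.ext
      show (s(q', q), _) = (s(q, q'), _)
      rw [Sym2.eq_swap]
    · have hh' : ¬ (Chord S c P q' q p p' ∧ p ≠ p') := fun h' => hh ⟨h'.1.swap, h'.2⟩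
      have e1 : κ' q q' p p' = 0 := dif_neg hh
      have e2 : κ' q' q p p' = 0 := dif_neg hh'
      rw [e1, e2]
  choose! ψ hψ using hκ
  let ψ' : ι → X → ZMod 2 := fun q x => if hx : x ∈ P then ψ q ⟨x, hx⟩ else 0
  have hP' : ↑(P.filter (fun x => x ∈ S')) ⊆ S' := by
    intro x hx
    exact (Finset.mem_filter.1 (Finset.mem_coe.1 hx)).2
  obtain ⟨Ψ, hΨ⟩ := coh' (A := ZMod 2) hS' ht h.closed (hsub.trans h.cov)
    (h.fin.subset fun q hq => hq.mono (inter_subset_inter_left _ hsub))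
    (P := P.filter (fun x => x ∈ S')) hP'
    (fun q q' q'' h1 h2 h3 x hx => by
      rw [Finset.mem_coe, Finset.mem_filter]
      exact ⟨h.trip q q' q'' h1 h2 h3 ⟨hsub hx.1, hx.2⟩, hx.1⟩)
    hκ'sym (ψ := ψ') (fun q q' p p' hch => by
      have hch' : Chord S c P q q' p p' := hch.mono hsub (Finset.filter_subset _ _)
      by_cases hpp : p = p'
      · subst hpp
        have e1 : κ' q q' p p = 0 := dif_neg fun h' => h'.2 rfl
        rw [e1, sub_self]
      · have e1 : κ' q q' p p' = κ (hch'.toT hpp) := dif_pos ⟨hch', hpp⟩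
        rw [e1, hψ q ⟨p, hch.mem.1, hch.mem.2.1⟩ (hch'.toT hpp) (Sym2.mem_mk_left _ _)]
        rw [h.pat.sum_b_mul (hch'.toT hpp) (v := ⟨p, hch'.left⟩) (w := ⟨p', hch'.right⟩) rfl]
        have e2 : ψ' q p = ψ q ⟨p, hch'.left⟩ := dif_pos hch'.left
        have e3 : ψ' q p' = ψ q ⟨p', hch'.right⟩ := dif_pos hch'.right
        rw [e2, e3, CharTwo.sub_eq_add])
  refine ⟨fun v => Ψ v.1, ?_⟩
  rintro e ⟨q, q', p, p', hne, hch, he, hcs⟩
  rw [h.pat.sum_b_mul e (v := p) (w := p') (congrArg Prod.snd he)]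
  have hne' : (p : X) ≠ p' := fun h => hne (Subtype.ext h)
  have h1 := hΨ q q' p p' (hch.restrict hcs fun x hx hx' => Finset.mem_filter.2 ⟨hx, hx'⟩)
  have e1 : κ' q q' p p' = κ (hch.toT hne') := dif_pos ⟨hch, hne'⟩
  rw [e1, CharTwo.sub_eq_add] at h1
  rw [h1]
  congr 1
  exact Subtype.ext he

/-- H1 OF THE LEVEL SHEET: every chord cochain which is exact in every cell is exact -/
theorem H1 [T2Space X] (h : SheetHyp S c P) (ht : TrivF (ZMod 2) S) : h.pat.H1 := by
  intro κ hκ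
  obtain ⟨Ψ, hΨ⟩ := h.coh_loc h.cpt Subset.rfl ht (fun q _ => hκ q)
  exact ⟨Ψ, fun e => hΨ e (eInS_self e)⟩

theorem finite_chord (h : SheetHyp S c P) : Finite (ChordT S c P) := finite_chordT h.fin

/-- every even set of chords inside `S'` bounds a set of tiles in the cells meeting `S'` -/
theorem loc_bounds [T2Space X] (h : SheetHyp S c P) [Fintype (ChordT S c P)] {S' : Set X}
    (hS' : IsCompact S') (hsub : S' ⊆ S) (ht : TrivF (ZMod 2) S') {z : ChordT S c P → ZMod 2}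
    (hzS : ∀ e, ¬ EInS S' e → z e = 0) (hz : ∀ v, ∑ e, z e * h.pat.b e v = 0) :
    ∃ w : h.pat.Tile → ZMod 2, (∀ f, ¬ (S' ∩ c (h.pat.cell f)).Nonempty → w f = 0) ∧
      ∀ e, z e = ∑ f, w f * h.pat.a f e := by
  refine homology_of_cohomology h.pat.a h.pat.b (fun f => (S' ∩ c (h.pat.cell f)).Nonempty)
    (fun e => EInS S' e) (fun κ hκ => ?_) z hzS hz
  refine h.coh_loc hS' hsub ht fun q hq => ?_
  exact h.pat.exact_in_cell fun f hf => hκ f (by rw [hf]; exact hq)

/-- every even set of chords bounds a set of tiles -/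
theorem sep [T2Space X] (h : SheetHyp S c P) [Fintype (ChordT S c P)]
    (ht : TrivF (ZMod 2) S) {z : ChordT S c P → ZMod 2}
    (hz : ∀ v, ∑ e, z e * h.pat.b e v = 0) :
    ∃ w : h.pat.Tile → ZMod 2, ∀ e, z e = ∑ f, w f * h.pat.a f e := (h.H1 ht).sep hz

theorem linked (h : SheetHyp S c P) (v : {p // p ∈ P}) : h.pat.Linked v := by
  intro A q hq hqe hA q' hq'e
  obtain ⟨e, hqe, hve⟩ := hqe
  obtain ⟨e', hqe', hve'⟩ := hq'e
  obtain ⟨q1, p1, _, hch, _⟩ := chordT_rep' hqe hve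
  obtain ⟨q2, p2, _, hch2, _⟩ := chordT_rep' hqe' hve'
  refine h.link v.1 v.2 A q hq hch.mem.2.1 ?_ q' hch2.mem.2.1
  intro r hr r' p' hne hch3
  exact hA (hch3.toT (Ne.symm hne)) (Sym2.mem_mk_left _ _) r (Sym2.mem_mk_left _ _) r'
    (Sym2.mem_mk_right _ _) hr

end SheetHyp

end Crest.Agent.R096.Coh_184
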