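import Crest.Agent.R096.Msh3_715
import Crest.Agent.R096.Clo2_441
import Crest.Agent.R096.Coh6_184

/-!
# R096 (row 96), CONN-T: connectedness of the 1-skeleton of a union of cells of a tiling (helper715)
-/

set_option autoImplicit false

open Set Metric Filter Topology Module
open scoped Classical

namespace Crest.Agent.R096.Msh_715

open Coh_184

variable {E : Type*} [NormedAddCommGroup E] [NormedSpace ℝ E]

namespace Tiling

variable {Om : Set E} {ι : Type*} (T : Tiling Om ι)

/-- a point lies in the closed cells of all nearby points -/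
theorem eventually_mem_cc {x : E} (hx : x ∈ Om) : ∀ᶠ y in 𝓝 x, y ∈ Om ∧ x ∈ T.cc y := by
  obtain ⟨r, hr, hO, hb⟩ := T.exists_ball hx
  have h2 : ∀ᶠ y in 𝓝 x, ∀ i ∈ T.at_ x, ∀ h ∈ T.H i, h.1 x < h.2 → h.1 y < h.2 := by
    rw [Filter.eventually_all_finite (T.at_finite hx)]
    intro i _
    rw [Finset.eventually_all]
    intro h _
    by_cases e : h.1 x < h.2
    · filter_upwards [(h.1.continuous.tendsto x).eventually (gt_mem_nhds e)] with y hy _
      exact hy
    · exact Eventually.of_forall fun y h3 => absurd h3 e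
  filter_upwards [ball_mem_nhds x hr, h2] with y h3 h4
  refine ⟨hO h3, fun i hi h hh => ?_⟩
  have hi' := hb y h3 hi
  refine ⟨hi' h hh, fun e => ?_⟩
  by_contra hne
  exact (h4 i hi' h hh (lt_of_le_of_ne (hi' h hh) hne)).ne e

/-- `φ` takes equal values at the two ends of every 1-cell inside `C` -/
def EdgeConst {A : Type*} (φ : E → A) (C : Set E) : Prop :=
  ∀ e ∈ C, T.dim e = 1 → ∀ a b : E, T.cc e = segment ℝ a b → φ a = φ b

theorem EdgeConst.mono {A : Type*} {φ : E → A} {C D : Set E} (h : T.EdgeConst φ C) (hD : D ⊆ C) :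
    T.EdgeConst φ D := fun e he => h e (hD he)

variable [FiniteDimensional ℝ E]

/-- the 0-cells of a 1-cell are the ends of the segment -/
theorem vertex_of_edge {e a b v : E} (he : e ∈ Om) (h1 : T.dim e = 1)
    (hab : T.cc e = segment ℝ a b) (hv : v ∈ T.cc e) (hv0 : T.dim v = 0) : v = a ∨ v = b := by
  obtain ⟨a', b', hne, e1, e2, -, -, -, -⟩ := T.edge_eq he h1
  -- the open cell is the segment without two points; use the extreme points
  have hvn : v ∉ T.oc e := fun h => by
    have := T.dim_eq_of_mem_oc he h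
    omega
  have h3 : v ∈ segment ℝ a' b' := e1 ▸ hv
  have h4 : v ∉ openSegment ℝ a' b' := e2 ▸ hvn
  have hext : ∀ {c : E}, (c = a' ∨ c = b') → c = a ∨ c = b := by
    intro c hc
    -- `c` is an extreme point of the segment
    have hcs : c ∈ segment ℝ a b := by
      rw [← hab, e1]
      rcases hc with rfl | rfl
      · exact left_mem_segment ℝ _ _
      · exact right_mem_segment ℝ _ _
    by_contra hcon
    push Not at hcon
    have hco : c ∈ openSegment ℝ a b := by
      obtain ⟨s, t, hs, ht, hst, rfl⟩ := hcs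
      rcases hs.eq_or_lt with h | h
      · exfalso; apply hcon.2
        have : t = 1 := by linarith
        rw [← h, this]; simp
      rcases ht.eq_or_lt with h' | h'
      · exfalso; apply hcon.1
        have : s = 1 := by linarith
        rw [← h', this]; simp
      exact ⟨s, t, h, h', hst, rfl⟩
    have ha' : a ∈ segment ℝ a' b' := by rw [← e1, hab]; exact left_mem_segment ℝ _ _
    have hb' : b ∈ segment ℝ a' b' := by rw [← e1, hab]; exact right_mem_segment ℝ _ _
    have hinj : ∀ s t : ℝ, a' + s • (b' - a') = a' + t • (b' - a') → s = t := by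
      intro s t h
      have h5 := add_left_cancel h
      have h6 : (s - t) • (b' - a') = 0 := by rw [sub_smul, h5, sub_self]
      rcases smul_eq_zero.1 h6 with h7 | h7
      · linarith
      · exact absurd (sub_eq_zero.1 h7).symm hne
    rw [segment_eq_image'] at ha' hb'
    obtain ⟨s, hs, rfl⟩ := ha'
    obtain ⟨t, ht, rfl⟩ := hb'
    obtain ⟨p, q, hp, hq, hpq, h5⟩ := hco
    have h6 : c = a' + (p * s + q * t) • (b' - a') := by
      rw [← h5]
      have hq' : q = 1 - p := by linarith
      subst hq'
      module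
    have hst : s ≠ t := by
      rintro rfl
      apply hcon.1
      rw [h6]
      have : p * s + q * s = s := by rw [← add_mul, hpq, one_mul]
      rw [this]
    rcases hc with rfl | rfl
    · have h7 : (p * s + q * t) = 0 := by
        apply hinj
        rw [zero_smul, add_zero]
        exact h6.symm
      have h8 : 0 ≤ p * s := mul_nonneg hp.le hs.1
      have h9 : 0 ≤ q * t := mul_nonneg hq.le ht.1
      have h10 : p * s = 0 := by linarith
      have h11 : q * t = 0 := by linarith
      have h12 : s = 0 := by rcases mul_eq_zero.1 h10 with h | h; exact absurd h hp.ne'; exact h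
      have h13 : t = 0 := by rcases mul_eq_zero.1 h11 with h | h; exact absurd h hq.ne'; exact h
      exact hst (h12.trans h13.symm)
    · have h7 : (p * s + q * t) = 1 := by
        apply hinj
        rw [one_smul, ← h6]
        abel
      have h8 : p * s ≤ p := by nlinarith [hs.2]
      have h9 : q * t ≤ q := by nlinarith [ht.2]
      have h10 : p * s = p := by linarith
      have h11 : q * t = q := by linarith
      have h12 : s = 1 := by
        have : p * (s - 1) = 0 := by linarith
        rcases mul_eq_zero.1 this with h | h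
        · exact absurd h hp.ne'
        · linarith
      have h13 : t = 1 := by
        have : q * (t - 1) = 0 := by linarith
        rcases mul_eq_zero.1 this with h | h
        · exact absurd h hq.ne'
        · linarith
      exact hst (h12.trans h13.symm)
  apply hext
  obtain ⟨s, t, hs, ht, hst, rfl⟩ := h3
  rcases hs.eq_or_lt with h | h
  · right
    have : t = 1 := by linarith
    rw [← h, this]; simp
  rcases ht.eq_or_lt with h' | h'
  · left
    have : s = 1 := by linarith
    rw [← h', this]; simp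
  exact absurd ⟨s, t, h, h', hst, rfl⟩ h4

/-- the relative boundary of a cell of dimension at least two is connected -/
theorem isPreconnected_bdry {x : E} (hx : x ∈ Om) (hd : 2 ≤ T.dim x) :
    IsPreconnected (T.cc x \ T.oc x) := by
  have h1 := Clo_441.isPreconnected_bdry T.cplx (T.cl hx) (by rw [T.dim_cl hx]; exact hd)
  rw [← Cell.bdry, T.opn_cl hx, T.cl_set hx] at h1
  exact h1

/-- the key step: if all vertices of the cells of a connected set agree cell by cell, they agree -/
theorem const_of_cells {A : Type*} {φ : E → A} {C : Set E} (hC : IsPreconnected C)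
    (hCO : C ⊆ Om)
    (hcell : ∀ x ∈ C, ∀ v ∈ T.cc x, ∀ w ∈ T.cc x, T.dim v = 0 → T.dim w = 0 → φ v = φ w) :
    ∀ x ∈ C, ∀ y ∈ C, ∀ v ∈ T.cc x, ∀ w ∈ T.cc y, T.dim v = 0 → T.dim w = 0 → φ v = φ w := by
  have hvert : ∀ x ∈ C, ∃ v ∈ T.cc x, T.dim v = 0 := fun x hx => T.exists_vertex (hCO hx)
  choose! g hg hg0 using hvert
  have hlc : LC (fun x => φ (g x)) C := by
    intro x hx
    have h1 : ∀ᶠ y in 𝓝[C] x, y ∈ Om ∧ x ∈ T.cc y :=
      (T.eventually_mem_cc (hCO hx)).filter_mono nhdsWithin_le_nhds
    filter_upwards [h1, self_mem_nhdsWithin] with y hy hyC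
    exact hcell y hyC _ (hg y hyC) _ (T.cc_sub_of_mem hy.2 (hg x hx)) (hg0 y hyC) (hg0 x hx)
  intro x hx y hy v hv w hw hv0 hw0
  have h1 := hcell x hx v hv (g x) (hg x hx) hv0 (hg0 x hx)
  have h2 := hcell y hy w hw (g y) (hg y hy) hw0 (hg0 y hy)
  rw [h1, h2]
  exact hlc.eq_of_preconnected hC hx hy

/-- **the 1-skeleton of a cell is connected** -/
theorem const_cell {A : Type*} {φ : E → A} {x : E} (hx : x ∈ Om)
    (hφ : T.EdgeConst φ (T.cc x)) :
    ∀ v ∈ T.cc x, ∀ w ∈ T.cc x, T.dim v = 0 → T.dim w = 0 → φ v = φ w := by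
  induction hd : T.dim x using Nat.strong_induction_on generalizing x with
  | _ d ih =>
    intro v hv w hw hv0 hw0
    rcases Nat.lt_or_ge d 2 with h2 | h2
    · rcases Nat.eq_zero_or_pos d with h0 | h0
      · have h1 := T.cc_eq_singleton (T.dim_eq_zero_iff.1 (hd.trans h0))
        rw [h1, mem_singleton_iff] at hv hw
        rw [hv, hw]
      · have h1 : T.dim x = 1 := by omega
        obtain ⟨a, b, -, e1, -, -, -, -, -⟩ := T.edge_eq hx h1
        have hab := hφ x (T.self_mem_cc x) h1 a b e1
        rcases T.vertex_of_edge hx h1 e1 hv hv0 with rfl | rfl <;>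
          rcases T.vertex_of_edge hx h1 e1 hw hw0 with rfl | rfl
        · rfl
        · exact hab
        · exact hab.symm
        · rfl
    · have hb := T.isPreconnected_bdry hx (by rw [hd]; exact h2)
      have hbO : T.cc x \ T.oc x ⊆ Om := fun y hy => T.cc_sub_Om hx hy.1
      have hmem : ∀ {v : E}, v ∈ T.cc x → T.dim v = 0 → v ∈ T.cc x \ T.oc x := by
        intro v hv hv0
        refine ⟨hv, fun h => ?_⟩
        have := T.dim_eq_of_mem_oc hx h
        omega
      refine T.const_of_cells hb hbO (fun y hy => ?_) v (hmem hv hv0) w (hmem hw hw0) v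
        (T.self_mem_cc v) w (T.self_mem_cc w) hv0 hw0
      exact ih (T.dim y) (hd ▸ T.dim_lt hy.1 hy.2) (hbO hy)
        (hφ.mono T (T.cc_sub_of_mem hy.1)) rfl

/-- **CONN-T, function form**: in a connected union of cells the 1-skeleton is connected -/
theorem const_of_preconnected {A : Type*} {φ : E → A} {C : Set E} (hC : IsPreconnected C)
    (hCO : C ⊆ Om) (hcc : ∀ x ∈ C, T.cc x ⊆ C) (hφ : T.EdgeConst φ C) :
    ∀ v ∈ C, ∀ w ∈ C, T.dim v = 0 → T.dim w = 0 → φ v = φ w := by
  intro v hv w hw hv0 hw0
  exact T.const_of_cells hC hCO (fun x hx => T.const_cell (hCO hx) (hφ.mono T (hcc x hx)))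
    v hv w hw v (T.self_mem_cc v) w (T.self_mem_cc w) hv0 hw0

/-- version with an auxiliary connected set `D`, the union of the cells which meet it -/
theorem const_of_meet {A : Type*} {φ : E → A} {D : Set E} (hD : IsPreconnected D)
    (hDO : D ⊆ Om) (hφ : ∀ x ∈ D, T.EdgeConst φ (T.cc x)) :
    ∀ x ∈ D, ∀ y ∈ D, ∀ v ∈ T.cc x, ∀ w ∈ T.cc y, T.dim v = 0 → T.dim w = 0 → φ v = φ w :=
  T.const_of_cells hD hDO fun x hx => T.const_cell (hDO hx) (hφ x hx)

/-- two 0-cells are the ends of a 1-cell inside `C` -/
def Adj (C : Set E) (a b : E) : Prop :=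
  ∃ e ∈ C, T.dim e = 1 ∧ T.cc e = segment ℝ a b

theorem Adj.symm {C : Set E} {a b : E} (h : T.Adj C a b) : T.Adj C b a := by
  obtain ⟨e, he, h1, h2⟩ := h
  exact ⟨e, he, h1, by rw [h2, segment_symm]⟩

/-- **CONN-T**: any two 0-cells of a connected union of cells are joined by 1-cells in it -/
theorem reflTransGen_adj {C : Set E} (hC : IsPreconnected C) (hCO : C ⊆ Om)
    (hcc : ∀ x ∈ C, T.cc x ⊆ C) {v w : E} (hv : v ∈ C) (hw : w ∈ C) (hv0 : T.dim v = 0)
    (hw0 : T.dim w = 0) : Relation.ReflTransGen (T.Adj C) v w := by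
  have h1 := T.const_of_preconnected (φ := fun z => Relation.ReflTransGen (T.Adj C) v z) hC hCO hcc
    (fun e he h1 a b hab => by
      have hadj : T.Adj C a b := ⟨e, he, h1, hab⟩
      exact propext ⟨fun h => h.tail hadj, fun h => h.tail (hadj.symm T)⟩) v hv w hw hv0 hw0
  exact h1 ▸ Relation.ReflTransGen.refl

theorem exists_vertex_mem {C : Set E} (hne : C.Nonempty) (hCO : C ⊆ Om)
    (hcc : ∀ x ∈ C, T.cc x ⊆ C) : ∃ v ∈ C, T.dim v = 0 := by
  obtain ⟨x, hx⟩ := hne
  obtain ⟨v, hv, hv0⟩ := T.exists_vertex (hCO hx)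
  exact ⟨v, hcc x hx hv, hv0⟩

end Tiling

end Crest.Agent.R096.Msh_715
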