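import Crest.Agent.R096.Sk2a_855

/-!
# Row 96 (S0127), p < 2: lemma 2SK (helper855), part b: colours

Boxes of equal colour are disjoint; processing one colour class enlarges the image of a face at
most by the boxes which it meets, so the total growth is controlled by the number of colours.
-/

set_option autoImplicit false
set_option linter.unusedSectionVars false

open Set Metric

namespace Crest.Agent.R096.Sk2_855

open Crest.Agent.R096.Msh_715 (Tiling)

section Reach

variable {E : Type*} [NormedAddCommGroup E] [NormedSpace ℝ E]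

theorem reach_class : ∀ (l : List (Set E)), l.Pairwise Disjoint → ∀ S : Set E,
    reach S l ⊆ S ∪ {y | ∃ Y ∈ l, (S ∩ Y).Nonempty ∧ y ∈ Y} := by
  intro l
  induction l with
  | nil => intro _ S; exact subset_union_left
  | cons Y l ih =>
    intro hp S y hy
    rw [List.pairwise_cons] at hp
    rcases ih hp.2 (grow S Y) hy with hy | ⟨Y', hY', ⟨z, hz, hzY'⟩, hyY'⟩
    · rcases hy with hy | ⟨hy, hm⟩
      · exact Or.inl hy
      · exact Or.inr ⟨Y, List.mem_cons_self, hm, hy⟩
    · refine Or.inr ⟨Y', List.mem_cons_of_mem _ hY', ?_, hyY'⟩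
      rcases hz with hz | ⟨hz, -⟩
      · exact ⟨z, hz, hzY'⟩
      · exact absurd hzY' (disjoint_left.1 (hp.1 Y' hY') hz)

/-- a chain of sets which absorbs one class at every step -/
theorem reach_chain (Z : ℕ → Set E) (hZ : ∀ i, Z i ⊆ Z (i + 1)) :
    ∀ (ls : List (List (Set E))), (∀ l ∈ ls, l.Pairwise Disjoint) → ∀ i : ℕ,
    (∀ l ∈ ls, ∀ Y ∈ l, ∀ i' < i + ls.length, (Z i' ∩ Y).Nonempty → Y ⊆ Z (i' + 1)) →
    ∀ S ⊆ Z i, reach S ls.flatten ⊆ Z (i + ls.length) := by
  intro ls
  induction ls with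
  | nil => intro _ i _ S hS; simpa [reach] using hS
  | cons l ls ih =>
    intro hp i hY S hS
    rw [List.flatten_cons, reach_append]
    have h1 : reach S l ⊆ Z (i + 1) := by
      intro y hy
      rcases reach_class l (hp l List.mem_cons_self) S hy with hy | ⟨Y, hYl, ⟨z, hz, hzY⟩, hyY⟩
      · exact hZ i (hS hy)
      · exact hY l List.mem_cons_self Y hYl i (by simp) ⟨z, hS hz, hzY⟩ hyY
    have h2 := ih (fun l' hl' => hp l' (List.mem_cons_of_mem _ hl')) (i + 1)
      (fun l' hl' Y hYl i' hi' => hY l' (List.mem_cons_of_mem _ hl') Y hYl i'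
        (by simp only [List.length_cons]; omega)) (reach S l) h1
    refine h2.trans (le_of_eq ?_)
    rw [List.length_cons]
    congr 1
    omega

/-- a suffix of a flattened list is flattened -/
theorem flatten_suffix {α : Type*} : ∀ (ls : List (List α)) (l1 : List α) (B : α) (l2 : List α),
    ls.flatten = l1 ++ B :: l2 → ∃ ls' : List (List α), l2 = ls'.flatten ∧
      ls'.length ≤ ls.length ∧ ∀ l' ∈ ls', ∃ l ∈ ls, l'.Sublist l := by
  intro ls
  induction ls with
  | nil => intro l1 B l2 h; exact absurd h.symm (by simp)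
  | cons l ls ih =>
    intro l1 B l2 h
    rw [List.flatten_cons, List.append_eq_append_iff] at h
    rcases h with ⟨m, h1, h2⟩ | ⟨m, h1, h2⟩
    · obtain ⟨ls', e, hl, hs⟩ := ih m B l2 h2
      exact ⟨ls', e, hl.trans (by simp), fun l' hl' => by
        obtain ⟨l0, h0, h0'⟩ := hs l' hl'
        exact ⟨l0, List.mem_cons_of_mem _ h0, h0'⟩⟩
    · cases m with
      | nil =>
        rw [List.nil_append] at h2
        rw [List.append_nil] at h1
        obtain ⟨ls', e, hl, hs⟩ := ih [] B l2 h2.symm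
        exact ⟨ls', e, hl.trans (by simp), fun l' hl' => by
          obtain ⟨l0, h0, h0'⟩ := hs l' hl'
          exact ⟨l0, List.mem_cons_of_mem _ h0, h0'⟩⟩
      | cons B' m =>
        rw [List.cons_append, List.cons.injEq] at h2
        obtain ⟨rfl, rfl⟩ := h2
        refine ⟨m :: ls, rfl, by simp, fun l' hl' => ?_⟩
        rcases List.mem_cons.1 hl' with rfl | hl'
        · refine ⟨l, List.mem_cons_self, ?_⟩
          rw [h1]
          exact (List.sublist_cons_self _ _).trans (List.sublist_append_right _ _)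
        · exact ⟨l', List.mem_cons_of_mem _ hl', List.Sublist.refl _⟩

end Reach

variable {E : Type*} [NormedAddCommGroup E] [NormedSpace ℝ E] {Om La : Set E} {ι : Type*}
  [FiniteDimensional ℝ E]

/-- **many boxes, with colours** -/
theorem iterate_col {T : Tiling Om ι} (hS : Surg T La) {J : Type*} [Finite J]
    (B : J → Box T La) {n : ℕ} (col : J → Fin n)
    (hcol : ∀ j j', j ≠ j' → col j = col j' → Disjoint (B j).Y (B j').Y)
    (hM : ∀ j j', j ≠ j' → ∀ k, Disjoint (B j).shell ((B j').M k))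
    {h hi : E → E} (H : HP Om La h hi) (hOk : ∀ j, (B j).Ok h) :
    ∃ Ψ : E ≃ₜ E, Mv T Ψ ∧ ∀ Z : ℕ → Set E, (∀ i, Z i ⊆ Z (i + 1)) →
      (∀ i < n, ∀ j, (Z i ∩ (B j).Y).Nonempty → (B j).Y ⊆ Z (i + 1)) →
      (∀ x ∈ Om, T.dim x = 2 → h '' T.cc x ⊆ Z 0 → h '' (Ψ '' T.cc x) ⊆ Z n) ∧
      (∀ j, (B j).Y ⊆ Z 0 → ∀ x ∈ Om, T.dim x = 2 → (B j).NC x →
        (∀ z ∈ T.cc x, z ∈ sk1 T → ‖(B j).L (h z)‖ < (B j).a) →
        h '' (Ψ '' T.cc x) ⊆ Z n) := by
  classical
  cases nonempty_fintype J
  -- the classes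
  let cls : List (List J) := (List.finRange n).map fun c =>
    (Finset.univ.filter fun j => col j = c).toList
  have hlen : cls.length = n := by simp [cls]
  have hmem : ∀ j, j ∈ cls.flatten := by
    intro j
    rw [List.mem_flatten]
    exact ⟨_, List.mem_map.2 ⟨col j, List.mem_finRange _, rfl⟩, by simp⟩
  have hnd : cls.flatten.Nodup := by
    rw [List.nodup_flatten]
    refine ⟨fun l hl => ?_, ?_⟩
    · obtain ⟨c, -, rfl⟩ := List.mem_map.1 hl
      exact Finset.nodup_toList _
    · refine List.Pairwise.map _ ?_ (List.nodup_finRange n)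
      intro c c' hcc j hj hj'
      simp only [Finset.mem_toList, Finset.mem_filter, Finset.mem_univ, true_and] at hj hj'
      exact hcc (hj.symm.trans hj')
  have hcls : ∀ l ∈ cls, l.Pairwise (fun j j' => Disjoint (B j).Y (B j').Y) := by
    intro l hl
    obtain ⟨c, -, rfl⟩ := List.mem_map.1 hl
    have h1 : (Finset.univ.filter fun j => col j = c).toList.Pairwise (fun j j' => j ≠ j') :=
      Finset.nodup_toList _
    refine h1.imp_of_mem ?_
    intro j j' hj hj' hne
    simp only [Finset.mem_toList, Finset.mem_filter, Finset.mem_univ, true_and] at hj hj'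
    exact hcol j j' hne (hj.trans hj'.symm)
  obtain ⟨Ψ, hΨ, g1, g2⟩ := iterate hS (cls.flatten.map B)
    (by
      rw [List.pairwise_map]
      have h1 : cls.flatten.Pairwise (fun j j' => j ≠ j') := hnd
      exact h1.imp fun hne k => hM _ _ hne k)
    h hi H (by
      intro b hb
      obtain ⟨j, -, rfl⟩ := List.mem_map.1 hb
      exact hOk j)
  have key : ∀ (ls : List (List J)), (∀ l' ∈ ls, ∃ l ∈ cls, l'.Sublist l) → ls.length ≤ n →
      ∀ Z : ℕ → Set E, (∀ i, Z i ⊆ Z (i + 1)) →
      (∀ i < n, ∀ j, (Z i ∩ (B j).Y).Nonempty → (B j).Y ⊆ Z (i + 1)) →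
      ∀ S ⊆ Z 0, reach S ((ls.flatten.map B).map fun B => B.Y) ⊆ Z n := by
    intro ls hls hn Z hZ hZY S hS
    have e : ((ls.flatten.map B).map fun B => B.Y) =
        (ls.map fun l => l.map fun j => (B j).Y).flatten := by
      rw [List.map_map, List.map_flatten]
      rfl
    rw [e]
    have h1 := reach_chain Z hZ (ls.map fun l => l.map fun j => (B j).Y)
      (by
        intro l hl
        obtain ⟨l', hl', rfl⟩ := List.mem_map.1 hl
        obtain ⟨l0, h0, h0'⟩ := hls l' hl'
        rw [List.pairwise_map]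
        exact (hcls l0 h0).sublist h0') 0
      (by
        intro l hl Y hY i hi hm
        obtain ⟨l', hl', rfl⟩ := List.mem_map.1 hl
        obtain ⟨j, -, rfl⟩ := List.mem_map.1 hY
        rw [List.length_map, Nat.zero_add] at hi
        exact hZY i (lt_of_lt_of_le hi hn) j hm) S hS
    refine h1.trans ?_
    rw [List.length_map, Nat.zero_add]
    exact monotone_nat_of_le_succ hZ hn
  refine ⟨Ψ, hΨ, fun Z hZ hZY => ⟨fun x hx hd h0 => ?_, fun j hj x hx hd hn hb => ?_⟩⟩
  · exact (g1 x hx hd).trans (key cls (fun l hl => ⟨l, hl, List.Sublist.refl _⟩) hlen.le Z hZ hZY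
      _ h0)
  · obtain ⟨m1, m2, e⟩ := List.append_of_mem (hmem j)
    obtain ⟨ls', e', hl', hs'⟩ := flatten_suffix cls m1 j m2 e
    have h2 := g2 (m1.map B) (B j) (m2.map B) (by rw [e]; simp) x hx hd hn hb
    refine h2.trans ?_
    rw [e']
    exact key ls' hs' (hl'.trans hlen.le) Z hZ hZY _ hj

end Crest.Agent.R096.Sk2_855
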