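import Crest.Agent.R096.Ub1_113
import Crest.Agent.R096.Sk2b_855

/-!
# Row 96 (S0127), p ≤ 2: lemma 2SK for an arbitrary convex tiling (helper270), part a

`One T La f F Y` : what is needed from ONE tile `F` with its convex body `Y` (abstract interface
with the file of 812).  `ucol` : many boxes with colours.  `family` : a finite family of tiles.
-/

set_option autoImplicit false
set_option linter.unusedSectionVars false

open Set Metric

namespace Crest.Agent.R096.Sk3_270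

open Crest.Agent.R096.Msh_715 (Tiling)
open Crest.Agent.R096.Sk2_855 (sk1 HP Mv grow reach grow_mono sub_grow reach_mono sub_reach
  reach_append reach_class reach_chain flatten_suffix)
open Crest.Agent.R096.Ub_113 (UBox USurg)

variable {E : Type*} [NormedAddCommGroup E] [NormedSpace ℝ E] {Om La : Set E} {ι : Type*}

/-- **one tile**: a level function `u` of the target, infinitely many good levels; for every good
level `s` a box with level interval inside `[s - ζ, s + ζ]` and marks in the `ζ`-balls round the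
points `f x`, `x` in the 1-skeleton, `u (f x) = s`; the box is `Ok` for every map near `f`; the
2-cells inside `F` are not crossing. -/
structure One (T : Tiling Om ι) (La : Set E) (f : E → E) (F Y : Set E) where
  u : E → ℝ
  cont : Continuous u
  G : Set ℝ
  inf : G.Infinite
  fin : ∀ s ∈ G, {x | x ∈ sk1 T ∧ u (f x) = s}.Finite
  box : ∀ s ∈ G, ∀ ζ > 0, ∃ (B : UBox T La) (η : ℝ), 0 < η ∧ B.u = u ∧ s - ζ ≤ B.a ∧ B.b ≤ s + ζ ∧
    B.Y ⊆ Y ∧ (∀ k, ∃ x ∈ sk1 T, u (f x) = s ∧ B.M k ⊆ closedBall (f x) ζ) ∧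
    ∀ h : E → E, (∀ x ∈ Om, ‖h x - f x‖ ≤ η) → B.Ok h ∧
      ∀ x ∈ Om, T.dim x = 2 → T.cc x ⊆ F → B.NC x ∧ ∀ z ∈ T.cc x, z ∈ sk1 T → u (h z) < B.a

/-- choice of the levels (855's `select`) -/
theorem select {J : Type*} [Finite J] (G : J → Set ℝ) (hG : ∀ j, (G j).Infinite)
    (R : J → J → ℝ → ℝ → Prop) (hsymm : ∀ j j' s s', R j j' s s' → R j' j s' s)
    (hfin : ∀ j j', j ≠ j' → ∀ s ∈ G j, {s' | R j j' s s'}.Finite) :
    ∃ s : J → ℝ, (∀ j, s j ∈ G j) ∧ ∀ j j', j ≠ j' → ¬ R j j' (s j) (s j') := by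
  classical
  cases nonempty_fintype J
  have key : ∀ S : Finset J, ∃ s : J → ℝ, (∀ j ∈ S, s j ∈ G j) ∧
      ∀ j ∈ S, ∀ j' ∈ S, j ≠ j' → ¬ R j j' (s j) (s j') := by
    intro S
    induction S using Finset.induction_on with
    | empty => exact ⟨fun _ => 0, by simp, by simp⟩
    | insert a S ha ih =>
      obtain ⟨s, h1, h2⟩ := ih
      have hfinU : (⋃ j ∈ S, {s' | R j a (s j) s'}).Finite :=
        S.finite_toSet.biUnion fun j hj =>
          hfin j a (by rintro rfl; exact ha hj) (s j) (h1 j hj)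
      obtain ⟨t, ht, ht'⟩ := ((hG a).sdiff hfinU).nonempty
      have hta : ∀ j ∈ S, ¬ R j a (s j) t := fun j hj h =>
        ht' (mem_iUnion₂.2 ⟨j, hj, h⟩)
      have hne : ∀ j ∈ S, j ≠ a := by rintro j hj rfl; exact ha hj
      refine ⟨Function.update s a t, fun j hj => ?_, fun j hj j' hj' hjj => ?_⟩
      · rcases Finset.mem_insert.1 hj with rfl | hj
        · rw [Function.update_self]; exact ht
        · rw [Function.update_of_ne (hne j hj)]; exact h1 j hj
      · rcases Finset.mem_insert.1 hj with e | hj1 <;>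
          rcases Finset.mem_insert.1 hj' with e' | hj1'
        · exact absurd (e.trans e'.symm) hjj
        · rw [e, Function.update_self, Function.update_of_ne (hne j' hj1')]
          exact fun h => hta j' hj1' (hsymm _ _ _ _ h)
        · rw [e', Function.update_self, Function.update_of_ne (hne j hj1)]
          exact hta j hj1
        · rw [Function.update_of_ne (hne j hj1), Function.update_of_ne (hne j' hj1')]
          exact h2 j hj1 j' hj1' hjj
  obtain ⟨s, h1, h2⟩ := key Finset.univ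
  exact ⟨s, fun j => h1 j (Finset.mem_univ _), fun j j' => h2 j (Finset.mem_univ _) j'
    (Finset.mem_univ _)⟩

/-- a common positive lower bound -/
theorem exists_min {J : Type*} [Finite J] (v : J → ℝ) (hv : ∀ j, 0 < v j) :
    ∃ η > 0, ∀ j, η ≤ v j := by
  cases nonempty_fintype J
  rcases isEmpty_or_nonempty J with h0 | h0
  · exact ⟨1, one_pos, fun p => (h0.false p).elim⟩
  · refine ⟨Finset.univ.inf' Finset.univ_nonempty v, ?_, fun p =>
      Finset.inf'_le _ (Finset.mem_univ p)⟩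
    rw [gt_iff_lt, Finset.lt_inf'_iff]
    exact fun p _ => hv p

/-- finitely many points off a level stay off the level with a margin -/
theorem exists_margin {u : E → ℝ} (hu : Continuous u) {s : ℝ} {S : Set E} (hS : S.Finite)
    (h : ∀ y ∈ S, u y ≠ s) :
    ∃ ζ > 0, ∀ y ∈ S, ∀ z ∈ closedBall y ζ, ζ < |u z - s| := by
  have h1 : ∀ y : S, ∃ ζ > 0, ∀ z ∈ closedBall (y : E) ζ, ζ < |u z - s| := by
    rintro ⟨y, hy⟩
    have h0 : 0 < |u y - s| := abs_pos.2 (sub_ne_zero.2 (h y hy))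
    have hc : Continuous fun z => |u z - s| := (hu.sub continuous_const).abs
    have ho : IsOpen {z | |u y - s| / 2 < |u z - s|} := isOpen_lt continuous_const hc
    obtain ⟨r, hr, hb⟩ := Metric.isOpen_iff.1 ho y (by
      show |u y - s| / 2 < |u y - s|
      linarith)
    refine ⟨min (r / 2) (|u y - s| / 2), lt_min (by positivity) (by positivity), fun z hz => ?_⟩
    have h2 : z ∈ ball y r := by
      rw [mem_ball]
      exact lt_of_le_of_lt ((mem_closedBall.1 hz).trans (min_le_left _ _)) (by linarith)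
    exact lt_of_le_of_lt (min_le_right _ _) (hb h2)
  choose v hv hv' using h1
  have := hS.to_subtype
  obtain ⟨ζ, h2, h3⟩ := exists_min v hv
  refine ⟨ζ, h2, fun y hy z hz => ?_⟩
  exact lt_of_le_of_lt (h3 ⟨y, hy⟩) (hv' ⟨y, hy⟩ z (closedBall_subset_closedBall (h3 ⟨y, hy⟩) hz))

variable [FiniteDimensional ℝ E]

/-- **many boxes, with colours** (855's `iterate_col` for `UBox`) -/
theorem ucol {T : Tiling Om ι} (hS : USurg T La) {J : Type*} [Finite J]
    (B : J → UBox T La) {n : ℕ} (col : J → Fin n)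
    (hcol : ∀ j j', j ≠ j' → col j = col j' → Disjoint (B j).Y (B j').Y)
    (hM : ∀ j j', j ≠ j' → ∀ k, Disjoint (B j).shell ((B j').M k))
    {h hi : E → E} (H : HP Om La h hi) (hOk : ∀ j, (B j).Ok h) :
    ∃ Ψ : E ≃ₜ E, Mv T Ψ ∧ ∀ Z : ℕ → Set E, (∀ i, Z i ⊆ Z (i + 1)) →
      (∀ i < n, ∀ j, (Z i ∩ (B j).Y).Nonempty → (B j).Y ⊆ Z (i + 1)) →
      (∀ x ∈ Om, T.dim x = 2 → h '' T.cc x ⊆ Z 0 → h '' (Ψ '' T.cc x) ⊆ Z n) ∧
      (∀ j, (B j).Y ⊆ Z 0 → ∀ x ∈ Om, T.dim x = 2 → (B j).NC x →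
        (∀ z ∈ T.cc x, z ∈ sk1 T → (B j).u (h z) < (B j).a) →
        h '' (Ψ '' T.cc x) ⊆ Z n) := by
  classical
  cases nonempty_fintype J
  -- the classes
  let cls : List (List J) := (List.finRange n).map fun c =>
    (Finset.univ.filter fun j => col j = c).toList
  have hlen : cls.length = n := by simp [cls]
  have hmem : ∀ j, j ∈ cls.flatten := by
    intro j
    rw [List.mem_flatten]
    exact ⟨_, List.mem_map.2 ⟨col j, List.mem_finRange _, rfl⟩, by simp⟩
  have hnd : cls.flatten.Nodup := by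
    rw [List.nodup_flatten]
    refine ⟨fun l hl => ?_, ?_⟩
    · obtain ⟨c, -, rfl⟩ := List.mem_map.1 hl
      exact Finset.nodup_toList _
    · refine List.Pairwise.map _ ?_ (List.nodup_finRange n)
      intro c c' hcc j hj hj'
      simp only [Finset.mem_toList, Finset.mem_filter, Finset.mem_univ, true_and] at hj hj'
      exact hcc (hj.symm.trans hj')
  have hcls : ∀ l ∈ cls, l.Pairwise (fun j j' => Disjoint (B j).Y (B j').Y) := by
    intro l hl
    obtain ⟨c, -, rfl⟩ := List.mem_map.1 hl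
    have h1 : (Finset.univ.filter fun j => col j = c).toList.Pairwise (fun j j' => j ≠ j') :=
      Finset.nodup_toList _
    refine h1.imp_of_mem ?_
    intro j j' hj hj' hne
    simp only [Finset.mem_toList, Finset.mem_filter, Finset.mem_univ, true_and] at hj hj'
    exact hcol j j' hne (hj.trans hj'.symm)
  obtain ⟨Ψ, hΨ, g1, g2⟩ := Crest.Agent.R096.Ub_113.iterate hS (cls.flatten.map B)
    (by
      rw [List.pairwise_map]
      have h1 : cls.flatten.Pairwise (fun j j' => j ≠ j') := hnd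
      exact h1.imp fun hne k => hM _ _ hne k)
    h hi H (by
      intro b hb
      obtain ⟨j, -, rfl⟩ := List.mem_map.1 hb
      exact hOk j)
  have key : ∀ (ls : List (List J)), (∀ l' ∈ ls, ∃ l ∈ cls, l'.Sublist l) → ls.length ≤ n →
      ∀ Z : ℕ → Set E, (∀ i, Z i ⊆ Z (i + 1)) →
      (∀ i < n, ∀ j, (Z i ∩ (B j).Y).Nonempty → (B j).Y ⊆ Z (i + 1)) →
      ∀ S ⊆ Z 0, reach S ((ls.flatten.map B).map fun B => B.Y) ⊆ Z n := by
    intro ls hls hn Z hZ hZY S hS
    have e : ((ls.flatten.map B).map fun B => B.Y) =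
        (ls.map fun l => l.map fun j => (B j).Y).flatten := by
      rw [List.map_map, List.map_flatten]
      rfl
    rw [e]
    have h1 := reach_chain Z hZ (ls.map fun l => l.map fun j => (B j).Y)
      (by
        intro l hl
        obtain ⟨l', hl', rfl⟩ := List.mem_map.1 hl
        obtain ⟨l0, h0, h0'⟩ := hls l' hl'
        rw [List.pairwise_map]
        exact (hcls l0 h0).sublist h0') 0
      (by
        intro l hl Y hY i hi hm
        obtain ⟨l', hl', rfl⟩ := List.mem_map.1 hl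
        obtain ⟨j, -, rfl⟩ := List.mem_map.1 hY
        rw [List.length_map, Nat.zero_add] at hi
        exact hZY i (lt_of_lt_of_le hi hn) j hm) S hS
    refine h1.trans ?_
    rw [List.length_map, Nat.zero_add]
    exact monotone_nat_of_le_succ hZ hn
  refine ⟨Ψ, hΨ, fun Z hZ hZY => ⟨fun x hx hd h0 => ?_, fun j hj x hx hd hn hb => ?_⟩⟩
  · exact (g1 x hx hd).trans (key cls (fun l hl => ⟨l, hl, List.Sublist.refl _⟩) hlen.le Z hZ hZY
      _ h0)
  · obtain ⟨m1, m2, e⟩ := List.append_of_mem (hmem j)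
    obtain ⟨ls', e', hl', hs'⟩ := flatten_suffix cls m1 j m2 e
    have h2 := g2 (m1.map B) (B j) (m2.map B) (by rw [e]; simp) x hx hd hn hb
    refine h2.trans ?_
    rw [e']
    exact key ls' hs' (hl'.trans hlen.le) Z hZ hZY _ hj

/-- **the boxes of a finite family of tiles** -/
theorem exists_boxes {T : Tiling Om ι} {f : E → E} {J : Type*} [Finite J] {F Y : J → Set E}
    (O : ∀ j, One T La f (F j) (Y j)) :
    ∃ (B : J → UBox T La) (η : ℝ), 0 < η ∧ (∀ j, (B j).Y ⊆ Y j) ∧ (∀ j, (B j).u = (O j).u) ∧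
      (∀ j j', j ≠ j' → ∀ k, Disjoint (B j).shell ((B j').M k)) ∧
      ∀ h : E → E, (∀ x ∈ Om, ‖h x - f x‖ ≤ η) → ∀ j, (B j).Ok h ∧
        ∀ x ∈ Om, T.dim x = 2 → T.cc x ⊆ F j →
          (B j).NC x ∧ ∀ z ∈ T.cc x, z ∈ sk1 T → (B j).u (h z) < (B j).a := by
  classical
  -- levels
  obtain ⟨s, hs, hR⟩ := select (fun j => (O j).G) (fun j => (O j).inf)
    (fun j j' s s' => ∃ x ∈ sk1 T, (O j).u (f x) = s ∧ (O j').u (f x) = s')
    (fun j j' s s' ⟨x, hx, h1, h2⟩ => ⟨x, hx, h2, h1⟩)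
    (by
      intro j j' _ s hs
      refine (((O j).fin s hs).image fun x => (O j').u (f x)).subset ?_
      rintro s' ⟨x, hx, e1, e2⟩
      exact ⟨x, ⟨hx, e1⟩, e2⟩)
  -- a common margin
  have hζ : ∀ p : J × J, ∃ ζ > 0, p.1 ≠ p.2 →
      ∀ x ∈ sk1 T, (O p.2).u (f x) = s p.2 → ∀ z ∈ closedBall (f x) ζ, ζ < |(O p.1).u z - s p.1| := by
    rintro ⟨j, j'⟩
    by_cases hne : j = j'
    · exact ⟨1, one_pos, fun h => absurd hne h⟩
    · obtain ⟨ζ, h1, h2⟩ := exists_margin (O j).cont (s := s j)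
        (((O j').fin (s j') (hs j')).image f) (by
          rintro _ ⟨x, ⟨hx, e⟩, rfl⟩ e'
          exact hR j j' hne ⟨x, hx, e', e⟩)
      exact ⟨ζ, h1, fun _ x hx e z hz => h2 _ ⟨x, ⟨hx, e⟩, rfl⟩ z hz⟩
  choose ζ hζ0 hζ' using hζ
  obtain ⟨ζ0, hz0, hz1⟩ := exists_min ζ hζ0
  -- the boxes
  choose B η hη hu ha hb hY hM hOk using fun j => (O j).box (s j) (hs j) ζ0 hz0
  obtain ⟨η0, h0, h1⟩ := exists_min η hη
  refine ⟨B, η0, h0, hY, hu, fun j j' hne k => ?_, fun h hh j => ?_⟩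
  · rw [Set.disjoint_left]
    rintro y ⟨h2, h3⟩ h4
    obtain ⟨x, hx, e, hsub⟩ := hM j' k
    have h5 := hζ' (j, j') hne x hx e y
      (closedBall_subset_closedBall (hz1 (j, j')) (hsub h4))
    have h6 : |(O j).u y - s j| ≤ ζ0 := by
      rw [hu j] at h2 h3
      rw [abs_le]
      exact ⟨by linarith [ha j], by linarith [hb j]⟩
    exact absurd (h5.trans_le (h6.trans (hz1 (j, j')))) (lt_irrefl _)
  · obtain ⟨h2, h3⟩ := hOk j h fun x hx => (hh x hx).trans (h1 j)
    refine ⟨h2, fun x hx hd hF => ?_⟩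
    obtain ⟨h4, h5⟩ := h3 x hx hd hF
    exact ⟨h4, fun z hz hz1 => by rw [hu j]; exact h5 z hz hz1⟩

/-- **a finite family of tiles with colours** -/
theorem family {T : Tiling Om ι} (hS : USurg T La) {f : E → E} {J : Type*} [Finite J]
    {F Y : J → Set E} (O : ∀ j, One T La f (F j) (Y j)) {n : ℕ} (col : J → Fin n)
    (hcol : ∀ j j', j ≠ j' → col j = col j' → Disjoint (Y j) (Y j')) :
    ∃ η > 0, ∀ h hi : E → E, HP Om La h hi → (∀ x ∈ Om, ‖h x - f x‖ ≤ η) →
      ∃ Ψ : E ≃ₜ E, Mv T Ψ ∧ ∀ Z : ℕ → Set E, (∀ m, Z m ⊆ Z (m + 1)) →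
        (∀ m < n, ∀ j, (Z m ∩ Y j).Nonempty → Y j ⊆ Z (m + 1)) →
        (∀ x ∈ Om, T.dim x = 2 → h '' T.cc x ⊆ Z 0 → h '' (Ψ '' T.cc x) ⊆ Z n) ∧
        (∀ j, Y j ⊆ Z 0 → ∀ x ∈ Om, T.dim x = 2 → T.cc x ⊆ F j →
          h '' (Ψ '' T.cc x) ⊆ Z n) := by
  obtain ⟨B, η, hη, hY, -, hM, hOk⟩ := exists_boxes O
  refine ⟨η, hη, fun h hi H hh => ?_⟩
  obtain ⟨Ψ, hΨ, g⟩ := ucol hS B col
    (fun j j' hne e => (hcol j j' hne e).mono (hY j) (hY j')) hM H fun j => (hOk h hh j).1
  refine ⟨Ψ, hΨ, fun Z hZ hZY => ?_⟩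
  obtain ⟨g1, g2⟩ := g Z hZ fun m hm j hne =>
    (hY j).trans (hZY m hm j (hne.mono (inter_subset_inter_right _ (hY j))))
  refine ⟨g1, fun j hj x hx hd hF => ?_⟩
  obtain ⟨h4, h5⟩ := (hOk h hh j).2 x hx hd hF
  exact g2 j ((hY j).trans hj) x hx hd h4 h5

end Crest.Agent.R096.Sk3_270
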