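import Crest.Agent.R096.Gau1_812
import Crest.Agent.R096.Sk3a_270

/-!
# Row 96, 2SK for tiles (helper812), part 2: a good tile is a `One` (270)

* `Crs T i x` : the cell of `x` is an edge which meets the tile `i` and is not contained in it;
* `Tg T i` : combinatorics of the crossing edges (335);
* `GoodT` : a good tile; `GoodT.one` : the term of `Sk3_270.One`.
-/

set_option autoImplicit false
set_option linter.unusedSectionVars false

open Set Metric

namespace Crest.Agent.R096.Sk3_812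

open Crest.Agent.R096.Msh_715
open Crest.Agent.R096.Ce_537
open Crest.Agent.R096.Sk2_855
open Crest.Agent.R096.Ub_113
open Crest.Agent.R096.Sk3_270 (One exists_min)

/-- the cell of `x` is an edge which meets the tile `i` and is not contained in it -/
def Crs {E : Type*} [NormedAddCommGroup E] [NormedSpace ℝ E] {Om : Set E} {ι : Type*}
    (T : Tiling Om ι) (i : ι) (x : E) : Prop :=
  x ∈ Om ∧ T.dim x = 1 ∧ x ∉ P (T.H i) ∧ (T.cc x ∩ P (T.H i)).Nonempty

/-- the crossing edges of the tile `i` -/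
def KT {E : Type} [NormedAddCommGroup E] [NormedSpace ℝ E] {Om : Set E} {ι : Type*}
    (T : Tiling Om ι) (i : ι) : Type := {c : T.Cell // Crs T i c.pt}

/-- combinatorics of the crossing edges of a tile -/
structure Tg {E : Type} [NormedAddCommGroup E] [NormedSpace ℝ E] {Om : Set E} {ι : Type*}
    (T : Tiling Om ι) (i : ι) : Prop where
  two : ∀ x ∈ Om, T.dim x = 2 → (∃ k : KT T i, k.1.pt ∈ T.cc x) →
    ∃ k k' : KT T i, k ≠ k' ∧ k.1.pt ∈ T.cc x ∧ k'.1.pt ∈ T.cc x ∧
      ∀ k'' : KT T i, k''.1.pt ∈ T.cc x → k'' = k ∨ k'' = k'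
  conn : ∀ k k' : KT T i, Relation.ReflTransGen
    (fun k k' : KT T i => ∃ x ∈ Om, T.dim x = 2 ∧ k.1.pt ∈ T.cc x ∧ k'.1.pt ∈ T.cc x) k k'

variable {E : Type} [NormedAddCommGroup E] [NormedSpace ℝ E] [FiniteDimensional ℝ E]
  {Om La : Set E} {ι : Type*} {T : Tiling Om ι} {i : ι}

/-! ### crossing edges -/

theorem crs_congr {x y : E} (hx : Crs T i x) (hy : y ∈ T.oc x) : Crs T i y := by
  obtain ⟨h1, h2, h3, h4⟩ := hx
  have hyO : y ∈ Om := T.cc_sub_Om h1 (T.oc_sub_cc _ hy)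
  refine ⟨hyO, by rw [T.dim_eq_of_mem_oc h1 hy, h2], fun h => h3 ?_, ?_⟩
  · have := T.at_eq_of_mem_oc h1 hy
    have h5 : i ∈ T.at_ x := by rw [← this]; exact h
    exact h5
  · rw [T.cc_eq_of_mem_oc h1 hy]; exact h4

/-- the point of the edge -/
noncomputable def KT.e (k : KT T i) : E := k.1.pt

theorem KT.crs (k : KT T i) : Crs T i k.e := k.2

theorem KT.eOm (k : KT T i) : k.e ∈ Om := k.2.1

theorem KT.edim (k : KT T i) : T.dim k.e = 1 := k.2.2.1

theorem KT.inj {k k' : KT T i} (h : k'.e ∈ T.oc k.e) : k' = k := by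
  apply Subtype.ext
  apply Tiling.Cell.ext
  rw [Tiling.Cell.set_eq, Tiling.Cell.set_eq]
  exact T.cc_eq_of_mem_oc k.eOm h

/-- the edge of a crossing point -/
theorem exists_KT {x : E} (hx : Crs T i x) : ∃ k : KT T i, x ∈ T.oc k.e := by
  have h1 : (T.cl hx.1).pt ∈ T.oc x := T.pt_cl hx.1
  refine ⟨⟨T.cl hx.1, crs_congr hx h1⟩, ?_⟩
  show x ∈ T.oc (T.cl hx.1).pt
  rw [T.oc_eq_of_mem hx.1 h1]
  exact T.self_mem_oc x

instance : Finite (KT T i) := by
  have h1 := T.finite_cells (T.cpt i) (T.sub i)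
  have := h1.to_subtype
  refine Finite.of_injective (fun k : KT T i => (⟨k.1.set, ⟨k.1.pt, k.eOm, k.1.set_eq⟩, by
    rw [k.1.set_eq]; exact k.crs.2.2.2⟩ :
      {c : Set E | (∃ x ∈ Om, c = T.cc x) ∧ (c ∩ P (T.H i)).Nonempty})) ?_
  intro k k' h
  apply Subtype.ext
  apply Tiling.Cell.ext
  have h' := congrArg (fun p : {c : Set E | (∃ x ∈ Om, c = T.cc x) ∧
    (c ∩ P (T.H i)).Nonempty} => p.1) h
  exact h'

/-- the ends of a crossing edge -/
theorem crs_ends {x : E} (hx : Crs T i x) : ∃ v ∈ T.cc x, ∃ w ∈ T.cc x, T.dim v = 0 ∧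
    T.dim w = 0 ∧ v ∈ P (T.H i) ∧ w ∉ P (T.H i) := by
  obtain ⟨hO, hd, hn, z, hz, hzi⟩ := hx
  obtain ⟨p, q, hpq, e1, e2, dp, dq, hp, hq⟩ := T.edge_eq hO hd
  have hz' := hz
  rw [e1, ← insert_endpoints_openSegment] at hz'
  · have key : p ∈ P (T.H i) ∨ q ∈ P (T.H i) := by
      rcases hz' with rfl | rfl | hz'
      · exact Or.inl hzi
      · exact Or.inr hzi
      · exfalso
        rw [← e2] at hz'
        have := T.at_eq_of_mem_oc hO hz'
        exact hn (show i ∈ T.at_ x by rw [← this]; exact hzi)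
    have key2 : ¬ (p ∈ P (T.H i) ∧ q ∈ P (T.H i)) := by
      rintro ⟨h1, h2⟩
      refine hn ((convex_P _).segment_subset h1 h2 ?_)
      rw [← e1]
      exact T.self_mem_cc x
    rcases key with h1 | h1
    · exact ⟨p, hp, q, hq, dp, dq, h1, fun h2 => key2 ⟨h1, h2⟩⟩
    · exact ⟨q, hq, p, hp, dq, dp, h1, fun h2 => key2 ⟨h2, h1⟩⟩

theorem cc_sub_sk1 {x : E} (hO : x ∈ Om) (hd : T.dim x = 1) : T.cc x ⊆ sk1 T := fun z hz =>
  ⟨T.cc_sub_Om hO hz, by rw [← hd]; exact T.dim_le hz⟩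

theorem mem_oc_of_crs {x z : E} (hd : T.dim x = 1) (hz : z ∈ T.cc x)
    (hc : T.dim z = 1) : z ∈ T.oc x := by
  by_contra hn
  have := T.dim_lt hz hn
  omega

/-! ### good tiles -/

/-- a good tile -/
structure GoodT (T : Tiling Om ι) (La : Set E) (f : E → E) (i : ι) (u : E → ℝ) (C : E)
    (a b : ℝ) : Prop where
  ug : UG u C
  a0 : 0 < a
  sub : ∀ y, u y ≤ b → y ∈ La
  loc : ∀ x ∈ sk1 T, a ≤ u (f x) → u (f x) ≤ b → Crs T i x
  inn : ∀ x ∈ sk1 T, x ∈ P (T.H i) → u (f x) < a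
  outv : ∀ x, Crs T i x → ∀ w ∈ T.cc x, T.dim w = 0 → w ∉ P (T.H i) → b < u (f w)
  tg : Tg T i
  once : {t | t ∈ Ioo a b ∧ ∀ x, Crs T i x → ∀ z ∈ T.cc x, ∀ z' ∈ T.cc x,
    u (f z) = t → u (f z') = t → z = z'}.Infinite

/-- the map is a homeomorphism (only what is used) -/
structure HF (Om La : Set E) (f fi : E → E) : Prop where
  cont : ContinuousOn f Om
  conti : ContinuousOn fi La
  mti : MapsTo fi La Om
  li : ∀ x ∈ Om, fi (f x) = x

variable {f fi : E → E} {u : E → ℝ} {C : E} {a b : ℝ}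

/-- a good level -/
def GLv (T : Tiling Om ι) (f : E → E) (i : ι) (u : E → ℝ) (a b : ℝ) : Set ℝ :=
  {t | t ∈ Ioo a b ∧ ∀ x, Crs T i x → ∀ z ∈ T.cc x, ∀ z' ∈ T.cc x,
    u (f z) = t → u (f z') = t → z = z'}

/-- the crossing point of an edge -/
theorem GoodT.exists_x (Q : GoodT T La f i u C a b) (F : HF Om La f fi) {s : ℝ}
    (hs : s ∈ Ioo a b) (k : KT T i) : ∃ x ∈ T.oc k.e, u (f x) = s := by
  obtain ⟨v, hv, w, hw, dv, dw, hvi, hwi⟩ := crs_ends k.crs
  have hcont : ContinuousOn (fun z => u (f z)) (T.cc k.e) :=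
    Q.ug.cont.comp_continuousOn (F.cont.mono (T.cc_sub_Om k.eOm))
  have hpre : IsPreconnected (T.cc k.e) := (T.convex_cc _).isPreconnected
  have hsk := cc_sub_sk1 k.eOm k.edim
  have h1 := Q.inn v (hsk hv) hvi
  have h2 := Q.outv _ k.crs w hw dw hwi
  obtain ⟨x, hx, e⟩ := hpre.intermediate_value hv hw hcont
    (show s ∈ Icc (u (f v)) (u (f w)) from ⟨(h1.trans hs.1).le, (hs.2.trans h2).le⟩)
  refine ⟨x, ?_, e⟩
  simp only at e
  have h3 := Q.loc x (hsk hx) (by rw [e]; exact hs.1.le) (by rw [e]; exact hs.2.le)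
  exact mem_oc_of_crs k.edim hx h3.2.1

/-- (C3) the marks are different -/
theorem c3 (F : HF Om La f fi) {x : KT T i → E} (hx : ∀ k, x k ∈ T.oc k.e) :
    ∃ ω > 0, ∀ k k', k ≠ k' → ω < ‖f (x k) - f (x k')‖ := by
  obtain ⟨ω, h1, h2⟩ := exists_min (J := {p : KT T i × KT T i // p.1 ≠ p.2})
    (fun p => ‖f (x p.1.1) - f (x p.1.2)‖ / 2) (by
      rintro ⟨⟨k, k'⟩, hne⟩
      have h0 : 0 < ‖f (x k) - f (x k')‖ := by
        rw [norm_pos_iff, sub_ne_zero]
        intro e
        have e2 := congrArg fi e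
        rw [F.li _ (T.cc_sub_Om k.eOm (T.oc_sub_cc _ (hx k))),
          F.li _ (T.cc_sub_Om k'.eOm (T.oc_sub_cc _ (hx k')))] at e2
        have h3 := hx k
        rw [e2] at h3
        have h4 := T.oc_eq_of_mem k.eOm h3
        have h5 := T.oc_eq_of_mem k'.eOm (hx k')
        have h6 : k'.e ∈ T.oc k.e := by
          rw [← h4, h5]; exact T.self_mem_oc _
        exact hne (KT.inj h6).symm
      positivity)
  refine ⟨ω, h1, fun k k' hne => ?_⟩
  have h3 := h2 ⟨(k, k'), hne⟩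
  simp only at h3
  linarith

/-- (C2) the 2-cells without crossing edges stay away from the marks -/
theorem GoodT.c2 (Q : GoodT T La f i u C a b) (F : HF Om La f fi) {s : ℝ}
    (hs : s ∈ Ioo a b) {x : KT T i → E} (hx : ∀ k, x k ∈ T.oc k.e) (hxs : ∀ k, u (f (x k)) = s) :
    ∃ ω > 0, ∀ k : KT T i, ∀ y ∈ Om, (∀ k' : KT T i, k'.e ∉ T.cc y) →
      ∀ z ∈ T.cc y, ω < ‖f z - f (x k)‖ := by
  have key : ∀ k : KT T i, ∃ ω > 0, ∀ y ∈ Om, (∀ k' : KT T i, k'.e ∉ T.cc y) →
      ∀ z ∈ T.cc y, ω < ‖f z - f (x k)‖ := by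
    intro k
    have hxk : x k ∈ Om := T.cc_sub_Om k.eOm (T.oc_sub_cc _ (hx k))
    -- a compact neighbourhood of the mark
    have hopen : IsOpen {y | u y < b} := isOpen_lt Q.ug.cont continuous_const
    obtain ⟨r, hr, hrb⟩ := Metric.isOpen_iff.1 hopen (f (x k)) (by
      show u (f (x k)) < b
      rw [hxs]; exact hs.2)
    have hCL : closedBall (f (x k)) (r / 2) ⊆ La := fun y hy =>
      Q.sub y (hrb (closedBall_subset_ball (by linarith) hy)).le
    have hK : IsCompact (fi '' closedBall (f (x k)) (r / 2)) :=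
      (isCompact_closedBall _ _).image_of_continuousOn (F.conti.mono hCL)
    have hKO : fi '' closedBall (f (x k)) (r / 2) ⊆ Om := by
      rintro _ ⟨y, hy, rfl⟩
      exact F.mti (hCL hy)
    have hfin := T.finite_cells hK hKO
    have := hfin.to_subtype
    -- each such cell has a positive distance
    have hcell : ∀ d : {d : Set E | (∃ x ∈ Om, d = T.cc x) ∧
        (d ∩ fi '' closedBall (f (x k)) (r / 2)).Nonempty},
        ∃ ω > 0, x k ∉ d.1 → ∀ z ∈ d.1, ω < ‖f z - f (x k)‖ := by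
      rintro ⟨d, ⟨y, hy, rfl⟩, -⟩
      by_cases hxd : x k ∈ T.cc y
      · exact ⟨1, one_pos, fun h => absurd hxd h⟩
      · have hcont : ContinuousOn (fun z => ‖f z - f (x k)‖) (T.cc y) :=
          ((F.cont.mono (T.cc_sub_Om hy)).sub continuousOn_const).norm
        obtain ⟨z0, hz0, hmin⟩ := (T.isCompact_cc hy).exists_isMinOn ⟨y, T.self_mem_cc y⟩ hcont
        have h0 : 0 < ‖f z0 - f (x k)‖ := by
          rw [norm_pos_iff, sub_ne_zero]
          intro e
          have e2 := congrArg fi e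
          rw [F.li z0 (T.cc_sub_Om hy hz0), F.li _ hxk] at e2
          rw [e2] at hz0
          exact hxd hz0
        refine ⟨‖f z0 - f (x k)‖ / 2, by positivity, fun _ z hz => ?_⟩
        have h1 : ‖f z0 - f (x k)‖ ≤ ‖f z - f (x k)‖ := hmin hz
        linarith
    choose w hw hw' using hcell
    obtain ⟨ω, h1, h2⟩ := exists_min w hw
    refine ⟨min ω (r / 4), by positivity, fun y hy hn z hz => ?_⟩
    by_contra hle
    rw [not_lt] at hle
    have hzO : z ∈ Om := T.cc_sub_Om hy hz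
    have hfz : f z ∈ closedBall (f (x k)) (r / 2) := by
      rw [mem_closedBall, dist_eq_norm]
      exact hle.trans ((min_le_right _ _).trans (by linarith))
    have hmem : T.cc y ∈ {d : Set E | (∃ x ∈ Om, d = T.cc x) ∧
        (d ∩ fi '' closedBall (f (x k)) (r / 2)).Nonempty} :=
      ⟨⟨y, hy, rfl⟩, z, hz, f z, hfz, F.li z hzO⟩
    have hxk' : x k ∉ T.cc y := by
      intro h
      have h1 := T.cc_sub_of_mem h
      rw [T.cc_eq_of_mem_oc k.eOm (hx k)] at h1
      exact hn k (h1 (T.self_mem_cc _))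
    have h3 := hw' ⟨_, hmem⟩ hxk' z hz
    have h4 := h2 ⟨_, hmem⟩
    have h5 := min_le_left ω (r / 4)
    linarith
  choose ω hω hω' using key
  obtain ⟨ω0, h1, h2⟩ := exists_min ω hω
  exact ⟨ω0, h1, fun k y hy hn z hz => lt_of_le_of_lt (h2 k) (hω' k y hy hn z hz)⟩

/-- (C1) near the level only near the mark -/
theorem GoodT.c1 (Q : GoodT T La f i u C a b) (F : HF Om La f fi) {s : ℝ}
    (hs : s ∈ GLv T f i u a b) {x : KT T i → E} (hx : ∀ k, x k ∈ T.oc k.e)
    (hxs : ∀ k, u (f (x k)) = s) {ω : KT T i → ℝ} (hω : ∀ k, 0 < ω k) :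
    ∃ w > 0, ∀ k : KT T i, ∀ z ∈ T.cc k.e, |u (f z) - s| ≤ w → ‖f z - f (x k)‖ ≤ ω k := by
  have key : ∀ k : KT T i, ∃ w > 0, ∀ z ∈ T.cc k.e, |u (f z) - s| ≤ w →
      ‖f z - f (x k)‖ ≤ ω k := by
    intro k
    have hcf : ContinuousOn f (T.cc k.e) := F.cont.mono (T.cc_sub_Om k.eOm)
    have hc3 : ContinuousOn (fun z => ‖f z - f (x k)‖) (T.cc k.e) :=
      (hcf.sub continuousOn_const).norm
    have hc4 : ContinuousOn (fun z => |u (f z) - s|) (T.cc k.e) :=
      ((Q.ug.cont.comp_continuousOn hcf).sub continuousOn_const).abs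
    set S : Set E := T.cc k.e ∩ (fun z => ‖f z - f (x k)‖) ⁻¹' Ici (ω k) with hS
    have hSc : IsCompact S := (T.isCompact_cc k.eOm).of_isClosed_subset
      (hc3.preimage_isClosed_of_isClosed (T.isClosed_cc _) isClosed_Ici) inter_subset_left
    rcases S.eq_empty_or_nonempty with h0 | h0
    · refine ⟨1, one_pos, fun z hz _ => ?_⟩
      by_contra hn
      have : z ∈ S := ⟨hz, (not_le.1 hn).le⟩
      rw [h0] at this
      exact this
    · obtain ⟨z0, hz0, hmin⟩ := hSc.exists_isMinOn h0 (hc4.mono inter_subset_left)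
      have hv0 : 0 < |u (f z0) - s| := by
        rcases (abs_nonneg (u (f z0) - s)).lt_or_eq with h | h
        · exact h
        · exfalso
          have h1 : u (f z0) = s := by
            have := abs_eq_zero.1 h.symm
            linarith
          have h2 := hs.2 _ k.crs z0 hz0.1 (x k) (T.oc_sub_cc _ (hx k)) h1 (hxs k)
          have h3 : ω k ≤ ‖f z0 - f (x k)‖ := hz0.2
          rw [h2, sub_self, norm_zero] at h3
          linarith [hω k]
      refine ⟨|u (f z0) - s| / 2, by positivity, fun z hz hle => ?_⟩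
      by_contra hn
      have h1 : |u (f z0) - s| ≤ |u (f z) - s| := hmin (show z ∈ S from ⟨hz, (not_le.1 hn).le⟩)
      linarith
  choose w hw hw' using key
  obtain ⟨w0, h1, h2⟩ := exists_min w hw
  exact ⟨w0, h1, fun k z hz hle => hw' k z hz (hle.trans (h2 k))⟩

/-- the levels have finitely many points on the 1-skeleton -/
theorem GoodT.fin (Q : GoodT T La f i u C a b) {s : ℝ} (hs : s ∈ GLv T f i u a b) :
    {x | x ∈ sk1 T ∧ u (f x) = s}.Finite := by
  have h0 : ∀ x : {x | x ∈ sk1 T ∧ u (f x) = s}, ∃ k : KT T i, x.1 ∈ T.oc k.e := by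
    rintro ⟨x, hx, e⟩
    exact exists_KT (Q.loc x hx (by rw [e]; exact hs.1.1.le) (by rw [e]; exact hs.1.2.le))
  choose g hg using h0
  rw [← finite_coe_iff]
  refine Finite.of_injective g fun x y h => ?_
  have h1 := hg x
  have h2 := hg y
  rw [← h] at h2
  exact Subtype.ext (hs.2 _ (g x).crs _ (T.oc_sub_cc _ h1) _ (T.oc_sub_cc _ h2) x.2.2 y.2.2)

/-- **the box of a good level** -/
theorem GoodT.box (h3 : Module.finrank ℝ E = 3) (Q : GoodT T La f i u C a b) (F : HF Om La f fi)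
    {s : ℝ} (hs : s ∈ GLv T f i u a b) {ζ : ℝ} (hζ : 0 < ζ) :
    ∃ (B : UBox T La) (η : ℝ), 0 < η ∧ B.u = u ∧ s - ζ ≤ B.a ∧ B.b ≤ s + ζ ∧
    B.Y ⊆ {y | u y ≤ b} ∧ (∀ k, ∃ x ∈ sk1 T, u (f x) = s ∧ B.M k ⊆ closedBall (f x) ζ) ∧
    ∀ h : E → E, (∀ x ∈ Om, ‖h x - f x‖ ≤ η) → B.Ok h ∧
      ∀ x ∈ Om, T.dim x = 2 → T.cc x ⊆ P (T.H i) →
        B.NC x ∧ ∀ z ∈ T.cc x, z ∈ sk1 T → u (h z) < B.a := by
  have hsI : s ∈ Ioo a b := hs.1
  have hs0 : 0 < s := Q.a0.trans hsI.1
  choose x hx hxs using fun k : KT T i => Q.exists_x F hsI k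
  obtain ⟨ω3, ω3p, hω3⟩ := c3 F hx
  obtain ⟨ω2, ω2p, hω2⟩ := Q.c2 F hsI hx hxs
  obtain ⟨L, hL, hlip⟩ := Q.ug.lip
  -- the size of the marks
  set ε := min ζ (min (ω2 / 2) (ω3 / 2)) with hε
  have εp : 0 < ε := by positivity
  have ε1 : ε ≤ ζ := min_le_left _ _
  have ε2 : ε ≤ ω2 / 2 := (min_le_right _ _).trans (min_le_left _ _)
  have ε3 : ε ≤ ω3 / 2 := (min_le_right _ _).trans (min_le_right _ _)
  choose ω hω w1 hw1 hpos hsmall using fun k : KT T i =>
    Q.ug.exists_Mk (y0 := f (x k)) (by rw [hxs]; exact hs0) εp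
  obtain ⟨w2, w2p, hw2⟩ := exists_min w1 hw1
  obtain ⟨ω0, ω0p, hω0⟩ := exists_min ω hω
  obtain ⟨w3, w3p, hw3⟩ := Q.c1 F hs hx hxs (ω := fun k => ω k / 2) fun k => by
    have := hω k
    positivity
  set w := min (min w2 (w3 / 2)) (min ζ (min ((s - a) / 4) ((b - s) / 4))) with hw
  have hsa : 0 < s - a := sub_pos.2 hsI.1
  have hsb : 0 < b - s := sub_pos.2 hsI.2
  have wp : 0 < w := by positivity
  have wa : w ≤ w2 := (min_le_left _ _).trans (min_le_left _ _)
  have wb : w ≤ w3 / 2 := (min_le_left _ _).trans (min_le_right _ _)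
  have wc : w ≤ ζ := (min_le_right _ _).trans (min_le_left _ _)
  have wd : w ≤ (s - a) / 4 := (min_le_right _ _).trans ((min_le_right _ _).trans (min_le_left _ _))
  have we : w ≤ (b - s) / 4 := (min_le_right _ _).trans ((min_le_right _ _).trans (min_le_right _ _))
  set η := min (w / L) (min (ω0 / 2) ε) with hη
  have ηp : 0 < η := by positivity
  have ηa : L * η ≤ w := by
    have : η ≤ w / L := min_le_left _ _
    calc L * η ≤ L * (w / L) := mul_le_mul_of_nonneg_left this hL.le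
      _ = w := mul_div_cancel₀ _ hL.ne'
  have ηb : η ≤ ω0 / 2 := (min_le_right _ _).trans (min_le_left _ _)
  have ηc : η ≤ ε := (min_le_right _ _).trans (min_le_right _ _)
  have hMs : ∀ k, Mk u C (f (x k)) (ω k) (s - w) (s + w) ⊆ closedBall (f (x k)) ε := by
    intro k
    refine hsmall k _ _ ?_ ?_
    · rw [hxs]; linarith [hw2 k]
    · rw [hxs]; linarith [hw2 k]
  have hsw : 0 ≤ s - w := by
    have := Q.a0
    linarith
  let B : UBox T La :=
    { u := u
      cont := Q.ug.cont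
      pl := Q.ug.pl
      a := s - w
      b := s + w
      ab := by linarith
      cpt := Q.ug.cpt _
      ball := fun t ht => by
        have h1 := Q.ug.ball t (lt_of_le_of_lt hsw ht.1)
        rwa [h3] at h1
      sub := fun y hy => Q.sub y (hy.trans (by linarith))
      K := KT T i
      fin := inferInstance
      e := fun k => k.1.pt
      eOm := fun k => k.eOm
      edim := fun k => k.edim
      einj := fun k k' h => KT.inj h
      M := fun k => Mk u C (f (x k)) (ω k) (s - w) (s + w)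
      Mc := fun k => Q.ug.isCompact_Mk (hpos k)
      Mdisj := fun k k' hne => by
        rw [Set.disjoint_left]
        intro z hz hz'
        have h1 := hω3 k k' hne
        have h4 := hMs k hz
        have h5 := hMs k' hz'
        rw [mem_closedBall, dist_eq_norm] at h4 h5
        have h2 : ‖f (x k) - f (x k')‖ ≤ ε + ε := by
          have e : f (x k) - f (x k') = (z - f (x k')) - (z - f (x k)) := by abel
          rw [e]
          exact (norm_sub_le _ _).trans (add_le_add h5 h4)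
        linarith
      Mlev := fun k t ht => Q.ug.Mk_level hsw (hpos k) ht (hω k).le
      two := Q.tg.two
      conn := Q.tg.conn }
  refine ⟨B, η, ηp, rfl, ?_, ?_, ?_, ?_, ?_⟩
  · show s - ζ ≤ s - w
    linarith
  · show s + w ≤ s + ζ
    linarith
  · intro y (hy : u y ≤ s + w)
    show u y ≤ b
    linarith
  · intro k
    exact ⟨x k, cc_sub_sk1 k.eOm k.edim (T.oc_sub_cc _ (hx k)), hxs k,
      (hMs k).trans (closedBall_subset_closedBall ε1)⟩
  · intro h hh
    have hcmp : ∀ z ∈ Om, |u (h z) - u (f z)| ≤ w := fun z hz =>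
      (hlip _ _).trans ((mul_le_mul_of_nonneg_left (hh z hz) hL.le).trans ηa)
    refine ⟨⟨fun z hz hsh => ?_, fun k => ?_, fun z hz _ hn k => ?_⟩, fun z hz hd hF => ⟨?_, ?_⟩⟩
    · -- edges
      have h1 : s - w ≤ u (h z) := hsh.1
      have h2 : u (h z) ≤ s + w := hsh.2
      have h4 := abs_le.1 (hcmp z hz.1)
      have h5 : |u (f z) - s| ≤ w3 := by
        rw [abs_le]
        constructor <;> linarith [h4.1, h4.2]
      have h6 := Q.loc z hz (by linarith [h4.2]) (by linarith [h4.1])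
      obtain ⟨k, hk⟩ := exists_KT h6
      refine ⟨k, hk, ?_⟩
      have h7 := hw3 k z (T.oc_sub_cc _ hk) h5
      refine mem_Mk ?_ (hpos k) h1 h2
      rw [mem_closedBall, dist_eq_norm]
      have e1 : h z - f (x k) = (h z - f z) + (f z - f (x k)) := by abel
      rw [e1]
      refine (norm_add_le _ _).trans ?_
      linarith [hh z hz.1, hω0 k]
    · -- ends
      obtain ⟨v, hv, v', hv', dv, dv', hvi, hvi'⟩ := crs_ends k.crs
      refine ⟨v, hv, v', hv', dv, dv', ?_, ?_⟩
      · have h1 := Q.inn v (cc_sub_sk1 k.eOm k.edim hv) hvi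
        have h4 := abs_le.1 (hcmp v (T.cc_sub_Om k.eOm hv))
        show u (h v) < s - w
        linarith [h4.2]
      · have h1 := Q.outv _ k.crs v' hv' dv' hvi'
        have h4 := abs_le.1 (hcmp v' (T.cc_sub_Om k.eOm hv'))
        show s + w < u (h v')
        linarith [h4.1]
    · -- faces
      rw [Set.disjoint_left]
      rintro _ ⟨y, hy, rfl⟩ hyM
      have h1 := hω2 k z hz hn y hy
      have h2 := hMs k hyM
      rw [mem_closedBall, dist_eq_norm] at h2
      have h4 := hh y (T.cc_sub_Om hz hy)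
      have h5 : ‖f y - f (x k)‖ ≤ ‖h y - f (x k)‖ + ‖h y - f y‖ := by
        have e1 : f y - f (x k) = (h y - f (x k)) - (h y - f y) := by abel
        rw [e1]
        exact norm_sub_le _ _
      linarith
    · intro k hk
      exact k.crs.2.2.1 (hF hk)
    · intro y hy hy1
      have h1 := Q.inn y hy1 (hF hy)
      have h4 := abs_le.1 (hcmp y (T.cc_sub_Om hz hy))
      show u (h y) < s - w
      linarith [h4.2]

/-- **a good tile is a `One`** -/
noncomputable def GoodT.one (h3 : Module.finrank ℝ E = 3) (Q : GoodT T La f i u C a b)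
    (F : HF Om La f fi) : One T La f (P (T.H i)) {y | u y ≤ b} where
  u := u
  cont := Q.ug.cont
  G := GLv T f i u a b
  inf := Q.once
  fin := fun _ hs => Q.fin hs
  box := fun _ hs _ hζ => Q.box h3 F hs hζ

end Crest.Agent.R096.Sk3_812
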