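import Crest.Agent.R096.Tgr2_335

/-!
# Row 96, 2SK for arbitrary tilings (helper335), part 3: the edges which leave a tile
`two_tile`, `conn_tile`.
-/

set_option autoImplicit false
set_option linter.unusedSectionVars false

open Set Metric Topology Filter

namespace Crest.Agent.R096.Tgr_335

open Crest.Agent.R096.Msh_715 Crest.Agent.R096.Coh_184 Crest.Agent.R096.Lab_184

variable {E : Type*} [NormedAddCommGroup E] [NormedSpace ℝ E] [FiniteDimensional ℝ E]
variable {Om : Set E} {ι : Type*} (T : Tiling Om ι)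

/-- `e` is a point of an open 1-cell which leaves the tile `i` -/
structure Crs (i : ι) (e : E) : Prop where
  om : e ∈ Om
  dim : T.dim e = 1
  off : e ∉ P (T.H i)
  meet : (T.cc e ∩ P (T.H i)).Nonempty

variable {T} {i : ι}

/-- the end points of a crossing edge -/
theorem Crs.ends {e : E} (h : Crs T i e) : ∃ a b, T.cc e = segment ℝ a b ∧ T.dim a = 0 ∧
    T.dim b = 0 ∧ a ∈ P (T.H i) ∧ b ∉ P (T.H i) := by
  obtain ⟨a, b, -, e1, e2, ha, hb, hac, hbc⟩ := T.edge_eq h.om h.dim
  have hnot : ¬ (a ∈ P (T.H i) ∧ b ∈ P (T.H i)) := by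
    rintro ⟨h1, h2⟩
    have h3 := (convex_P (T.H i)).segment_subset h1 h2
    rw [← e1] at h3
    exact h.off (h3 (T.self_mem_cc e))
  have hor : a ∈ P (T.H i) ∨ b ∈ P (T.H i) := by
    obtain ⟨p, hp, hpK⟩ := h.meet
    by_cases hpo : p ∈ T.oc e
    · have h1 := T.cc_sub_tile (x := p) (i := i) hpK
      rw [T.cc_eq_of_mem_oc h.om hpo] at h1
      exact absurd (h1 (T.self_mem_cc e)) h.off
    · have hp2 : p = a ∨ p = b := by
        rw [e1, ← insert_endpoints_openSegment] at hp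
        rw [e2] at hpo
        rcases hp with hp | hp | hp
        · exact Or.inl hp
        · exact Or.inr hp
        · exact absurd hp hpo
      rcases hp2 with rfl | rfl
      · exact Or.inl hpK
      · exact Or.inr hpK
  rcases hor with h1 | h1
  · exact ⟨a, b, e1, ha, hb, h1, fun h2 => hnot ⟨h1, h2⟩⟩
  · exact ⟨b, a, by rw [e1, segment_symm], hb, ha, h1, fun h2 => hnot ⟨h2, h1⟩⟩

/-- an edge with one end in the tile and one end outside is crossing -/
theorem crs_of_ends {e a b : E} (he : e ∈ Om) (hd : T.dim e = 1) (hab : T.cc e = segment ℝ a b)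
    (ha : a ∈ P (T.H i)) (hb : b ∉ P (T.H i)) : Crs T i e := by
  refine ⟨he, hd, fun h => ?_, a, ?_, ha⟩
  · have h1 := T.cc_sub_tile (x := e) (i := i) h
    rw [hab] at h1
    exact hb (h1 (right_mem_segment ℝ a b))
  · rw [hab]; exact left_mem_segment ℝ a b

/-- two 1-cells one of which contains a point of the other open one are equal -/
theorem cc_eq_of_dim_one {e g : E} (hg : g ∈ Om) (hde : T.dim e = 1) (hdg : T.dim g = 1)
    (h : e ∈ T.cc g) : T.cc e = T.cc g := by
  by_cases ho : e ∈ T.oc g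
  · exact T.cc_eq_of_mem_oc hg ho
  · have := T.dim_lt h ho
    omega

theorem Crs.congr {e g : E} (h : Crs T i e) (hg : g ∈ Om) (hc : T.cc g = T.cc e) : Crs T i g := by
  have ho : g ∈ T.oc e := (T.cc_eq_iff h.om).1 hc
  refine ⟨hg, by rw [T.dim_eq_of_mem_oc h.om ho, h.dim], fun hK => ?_, by rw [hc]; exact h.meet⟩
  have h1 := T.cc_sub_tile (x := g) (i := i) hK
  rw [hc] at h1
  exact h.off (h1 (T.self_mem_cc e))

theorem add_eq_zero_iff_eq (a b : ZMod 2) : a + b = 0 ↔ a = b := by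
  revert a b; decide

/-- labels of a finite set of crossing points are constant inside and outside -/
theorem ncard_zero_of_in {Q : Finset E} (hQ : ∀ w ∈ Q, Crs T i w) {g : E}
    (hg : g ∈ P (T.H i)) : ((Q : Set E) ∩ T.cc g).ncard = 0 := by
  have : (Q : Set E) ∩ T.cc g = ∅ := by
    rw [eq_empty_iff_forall_notMem]
    rintro w ⟨hw, hwg⟩
    exact (hQ w hw).off (T.cc_sub_tile (x := g) (i := i) hg hwg)
  rw [this, ncard_empty]

theorem ncard_zero_of_out {Q : Finset E} (hQ : ∀ w ∈ Q, Crs T i w) {g a b : E} (hgO : g ∈ Om)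
    (hd : T.dim g = 1) (hab : T.cc g = segment ℝ a b) (ha : a ∉ P (T.H i)) (hb : b ∉ P (T.H i)) :
    ((Q : Set E) ∩ T.cc g).ncard = 0 := by
  have : (Q : Set E) ∩ T.cc g = ∅ := by
    rw [eq_empty_iff_forall_notMem]
    rintro w ⟨hw, hwg⟩
    have h1 := cc_eq_of_dim_one hgO (hQ w hw).dim hd hwg
    obtain ⟨a', b', e1, ha', -, haK, -⟩ := (hQ w hw).ends
    have h2 : a' ∈ T.cc g := by rw [← h1, e1]; exact left_mem_segment ℝ _ _
    rcases T.vertex_of_edge hgO hd hab h2 ha' with rfl | rfl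
    · exact ha haK
    · exact hb haK
  rw [this, ncard_empty]

/-- at most two crossing edges in a 2-cell -/
theorem at_most_two {x : E} (hx : x ∈ Om) (hd : T.dim x = 2) {e e' e'' : E} (h : Crs T i e)
    (h' : Crs T i e') (h'' : Crs T i e'') (he : e ∈ T.cc x) (he' : e' ∈ T.cc x)
    (he'' : e'' ∈ T.cc x) (h1 : T.cc e ≠ T.cc e') (h2 : T.cc e'' ≠ T.cc e)
    (h3 : T.cc e'' ≠ T.cc e') : False := by
  classical
  let Q : Finset E := {e, e'}
  have hQc : ∀ w ∈ Q, Crs T i w := by
    intro w hw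
    simp only [Q, Finset.mem_insert, Finset.mem_singleton] at hw
    rcases hw with rfl | rfl
    · exact h
    · exact h'
  have hne : e ≠ e' := fun hh => h1 (by rw [hh])
  have hQx : (Q : Set E) ∩ T.cc x = {e, e'} := by
    ext w
    simp only [Q, Finset.coe_insert, Finset.coe_singleton, mem_inter_iff, mem_insert_iff,
      mem_singleton_iff]
    constructor
    · exact fun hw => hw.1
    · rintro (rfl | rfl)
      · exact ⟨Or.inl rfl, he⟩
      · exact ⟨Or.inr rfl, he'⟩
  obtain ⟨lam, hlam⟩ := exists_ex_cell2 (T := T) (Q := Q) (fun w hw => (hQc w hw).dim) hx hd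
    (by rw [hQx, ncard_pair hne]; exact even_two)
  have hin := const_in (T := T) (i := i) (x := x) (φ := lam) (fun g hg hgd a b hab => by
    have h4 := hlam g (T.sub i hg.2) hgd (T.cc_sub_of_mem hg.1) a b hab
    rw [ncard_zero_of_in hQc hg.2, Nat.cast_zero, add_eq_zero_iff_eq] at h4
    exact h4)
  have hout := const_cell_off T (i := i) (x := x) (φ := lam) hx (fun g hg hgd a b hab ha hb => by
    have hgO := T.cc_sub_Om hx hg
    have h4 := hlam g hgO hgd (T.cc_sub_of_mem hg) a b hab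
    rw [ncard_zero_of_out hQc hgO hgd hab ha hb, Nat.cast_zero, add_eq_zero_iff_eq] at h4
    exact h4)
  obtain ⟨a, b, e1, ha, hb, haK, hbK⟩ := h.ends
  obtain ⟨c, d, e2, hc, hdd, hcK, hdK⟩ := h''.ends
  have hax : a ∈ T.cc x := T.cc_sub_of_mem he (by rw [e1]; exact left_mem_segment ℝ _ _)
  have hbx : b ∈ T.cc x := T.cc_sub_of_mem he (by rw [e1]; exact right_mem_segment ℝ _ _)
  have hcx : c ∈ T.cc x := T.cc_sub_of_mem he'' (by rw [e2]; exact left_mem_segment ℝ _ _)
  have hdx : d ∈ T.cc x := T.cc_sub_of_mem he'' (by rw [e2]; exact right_mem_segment ℝ _ _)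
  have k1 := hin a hax c hcx ha hc haK hcK
  have k2 := hout b hbx d hdx hb hdd hbK hdK
  have k3 := hlam e h.om h.dim (T.cc_sub_of_mem he) a b e1
  have k4 := hlam e'' h''.om h''.dim (T.cc_sub_of_mem he'') c d e2
  have c1 : (Q : Set E) ∩ T.cc e = {e} := by
    ext w
    simp only [Q, Finset.coe_insert, Finset.coe_singleton, mem_inter_iff, mem_insert_iff,
      mem_singleton_iff]
    constructor
    · rintro ⟨rfl | rfl, hw⟩
      · rfl
      · exact absurd (cc_eq_of_dim_one h.om h'.dim h.dim hw).symm h1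
    · rintro rfl
      exact ⟨Or.inl rfl, T.self_mem_cc _⟩
  have c2 : (Q : Set E) ∩ T.cc e'' = ∅ := by
    rw [eq_empty_iff_forall_notMem]
    rintro w ⟨hw, hw'⟩
    simp only [Q, Finset.coe_insert, Finset.coe_singleton, mem_insert_iff, mem_singleton_iff] at hw
    rcases hw with rfl | rfl
    · exact h2 (cc_eq_of_dim_one h''.om h.dim h''.dim hw').symm
    · exact h3 (cc_eq_of_dim_one h''.om h'.dim h''.dim hw').symm
  rw [c1, ncard_singleton, Nat.cast_one] at k3
  rw [c2, ncard_empty, Nat.cast_zero] at k4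
  rw [k1, k2, k4] at k3
  exact zero_ne_one k3

/-- a 2-cell with a crossing edge has another one -/
theorem another {x : E} (hx : x ∈ Om) (hd : T.dim x = 2) {e : E} (h : Crs T i e)
    (he : e ∈ T.cc x) : ∃ e' ∈ T.cc x, Crs T i e' ∧ T.cc e' ≠ T.cc e := by
  by_contra hcon
  push Not at hcon
  have heo : e ∉ T.oc x := fun ho => by
    have := T.dim_eq_of_mem_oc hx ho
    rw [h.dim, hd] at this
    omega
  have hpc : IsPreconnected ((T.cc x \ T.oc x) \ T.oc e) := by
    refine bdry_diff T (T.convex_oc e) hx hd.ge ?_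
    rw [disjoint_left]
    intro w hw hw'
    have h1 := T.dim_eq_of_mem_oc h.om hw
    have h2 := T.dim_eq_of_mem_oc hx hw'
    rw [h.dim] at h1
    rw [hd] at h2
    omega
  have hcl : ∀ y ∈ (T.cc x \ T.oc x) \ T.oc e, T.cc y ⊆ (T.cc x \ T.oc x) \ T.oc e := by
    rintro y ⟨⟨hy1, hy2⟩, hy3⟩ w hw
    have hyO : y ∈ Om := T.cc_sub_Om hx hy1
    have hlt := T.dim_lt hy1 hy2
    have hwle := T.dim_le hw
    refine ⟨⟨T.cc_sub_of_mem hy1 hw, fun ho => ?_⟩, fun ho => ?_⟩
    · have := T.dim_eq_of_mem_oc hx ho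
      omega
    · have h1 := T.dim_eq_of_mem_oc h.om ho
      have h2 : T.cc e ⊆ T.cc y := by
        rw [← T.cc_eq_of_mem_oc h.om ho]; exact T.cc_sub_of_mem hw
      have h3 : T.dim y = 1 := by
        rw [h.dim] at h1
        omega
      have h4 := cc_eq_of_dim_one hyO h.dim h3 (h2 (T.self_mem_cc e))
      exact hy3 ((T.cc_eq_iff h.om).1 h4.symm)
  obtain ⟨a, b, e1, ha, hb, haK, hbK⟩ := h.ends
  have hax : a ∈ T.cc e := by rw [e1]; exact left_mem_segment ℝ _ _
  have hbx : b ∈ T.cc e := by rw [e1]; exact right_mem_segment ℝ _ _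
  have hmem : ∀ v ∈ T.cc e, T.dim v = 0 → v ∈ (T.cc x \ T.oc x) \ T.oc e := by
    intro v hv hv0
    refine ⟨⟨T.cc_sub_of_mem he hv, fun ho => ?_⟩, fun ho => ?_⟩
    · have := T.dim_eq_of_mem_oc hx ho
      omega
    · have := T.dim_eq_of_mem_oc h.om ho
      rw [h.dim] at this
      omega
  have hconst := T.const_of_preconnected (φ := fun v => v ∈ P (T.H i)) hpc
    (fun y hy => T.cc_sub_Om hx hy.1.1) hcl (fun g hg hgd c d hcd => by
      have hgO : g ∈ Om := T.cc_sub_Om hx hg.1.1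
      have hne : T.cc g ≠ T.cc e := fun hh => hg.2 ((T.cc_eq_iff h.om).1 hh)
      refine propext ⟨fun h1 => ?_, fun h1 => ?_⟩
      · by_contra h2
        exact hne (hcon g hg.1.1 (crs_of_ends hgO hgd hcd h1 h2))
      · by_contra h2
        exact hne (hcon g hg.1.1 (crs_of_ends hgO hgd (by rw [hcd, segment_symm]) h1 h2)))
    a (hmem a hax ha) b (hmem b hbx hb) ha hb
  have hconst' : (a ∈ P (T.H i)) = (b ∈ P (T.H i)) := hconst
  rw [hconst'] at haK
  exact hbK haK

/-- **`two`** -/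
theorem two_tile {x : E} (hx : x ∈ Om) (hd : T.dim x = 2) (hex : ∃ e ∈ T.cc x, Crs T i e) :
    ∃ e e', Crs T i e ∧ Crs T i e' ∧ T.cc e ≠ T.cc e' ∧ e ∈ T.cc x ∧ e' ∈ T.cc x ∧
      ∀ e'', Crs T i e'' → e'' ∈ T.cc x → T.cc e'' = T.cc e ∨ T.cc e'' = T.cc e' := by
  obtain ⟨e, he, h⟩ := hex
  obtain ⟨e', he', h', hne⟩ := another hx hd h he
  refine ⟨e, e', h, h', hne.symm, he, he', fun e'' h'' he'' => ?_⟩
  by_contra hcon
  push Not at hcon
  exact at_most_two hx hd h h' h'' he he' he'' hne.symm hcon.1 hcon.2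

end Crest.Agent.R096.Tgr_335
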