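import Crest.Agent.R096.Srg4_465
import Crest.Agent.R096.Gg4_113

/-!
# R096 (row 96), 2SK-SURG, part 5: the surgery for one box (helper465)

* `LevStmt T`: regular levels of PL functions on the 2-cells (leaf LEV).
* `surg : LevStmt T → DMove E → Sk2_855.Surg T La`.
-/

set_option autoImplicit false
set_option linter.unusedSectionVars false

open Set Metric Topology Filter Module

namespace Crest.Agent.R096.Srg_465

open Ce_537 Pl Cb_609 Msh_715
open Sk2_855 (HP sk1 Box Mv Surg)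

/-- **LEV** : all but finitely many levels of a PL function on a 2-cell are regular -/
def LevStmt {E : Type*} [NormedAddCommGroup E] [NormedSpace ℝ E] {Om : Set E} {ι : Type*}
    (T : Tiling Om ι) : Prop :=
  ∀ x ∈ Om, T.dim x = 2 → ∀ φ : E → ℝ, PLOn φ (T.cc x) →
    ∃ bad : Set ℝ, bad.Finite ∧ ∀ J : Set ℝ, IsPreconnected J → Disjoint J bad →
      Lev (T.cc x) (T.cc x ∩ sk1 T) φ J ∧
        ∃ M : ℕ, ∀ t ∈ J, {Γ | Circ (T.cc x) (T.cc x ∩ sk1 T) φ t Γ}.ncard ≤ M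

/-- the cube `{‖L y‖ ≤ t}` -/
theorem isBall_cubeL {E : Type*} [NormedAddCommGroup E] [NormedSpace ℝ E] [FiniteDimensional ℝ E]
    (L : E ≃ᵃ[ℝ] (Fin 3 → ℝ)) {t : ℝ} (ht : 0 < t) :
    IsBall 3 {y | ‖L y‖ ≤ t} {y | ‖L y‖ = t} := by
  have hn : ∀ v : Fin 3 → ℝ, ‖t • v‖ = t * ‖v‖ := fun v => by
    rw [norm_smul, Real.norm_eq_abs, abs_of_pos ht]
  let e1 : (Fin 3 → ℝ) →ᵃ[ℝ] E := L.symm.toAffineMap.comp
    ((LinearMap.lsmul ℝ (Fin 3 → ℝ) t).toAffineMap)
  let e2 : E →ᵃ[ℝ] (Fin 3 → ℝ) := ((LinearMap.lsmul ℝ (Fin 3 → ℝ) t⁻¹).toAffineMap).comp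
    L.toAffineMap
  have h1 : ∀ v, e1 v = L.symm (t • v) := fun v => rfl
  have h2 : ∀ y, e2 y = t⁻¹ • L y := fun y => rfl
  refine ⟨{ f := fun v => e1 v
            g := fun y => e2 y
            pf := plOn_affine e1 _
            pg := plOn_affine e2 _
            mf := ?_
            mg := ?_
            li := ?_
            ri := ?_ }, ?_⟩
  · intro v hv
    show ‖L (e1 v)‖ ≤ t
    rw [h1, L.apply_symm_apply, hn]
    have hv' : ‖v‖ ≤ 1 := by simpa [cube] using hv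
    nlinarith
  · intro y hy
    have hy' : ‖L y‖ ≤ t := hy
    have : ‖e2 y‖ ≤ 1 := by
      rw [h2, norm_smul, norm_inv, Real.norm_eq_abs, abs_of_pos ht, inv_mul_le_iff₀ ht, mul_one]
      exact hy'
    simpa [cube] using this
  · intro v _
    show e2 (e1 v) = v
    rw [h1, h2, L.apply_symm_apply, smul_smul, inv_mul_cancel₀ ht.ne', one_smul]
  · intro y _
    show e1 (e2 y) = y
    rw [h1, h2, smul_smul, mul_inv_cancel₀ ht.ne', one_smul, L.symm_apply_apply]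
  · ext y
    constructor
    · rintro ⟨v, hv, rfl⟩
      show ‖L (e1 v)‖ = t
      rw [h1, L.apply_symm_apply, hn]
      have hv' : ‖v‖ = 1 := by simpa [sph] using hv
      rw [hv', mul_one]
    · intro hy
      have hy' : ‖L y‖ = t := hy
      refine ⟨e2 y, ?_, ?_⟩
      · have : ‖e2 y‖ = 1 := by
          rw [h2, norm_smul, norm_inv, Real.norm_eq_abs, abs_of_pos ht, hy',
            inv_mul_cancel₀ ht.ne']
        simpa [sph] using this
      · show e1 (e2 y) = y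
        rw [h1, h2, smul_smul, mul_inv_cancel₀ ht.ne', one_smul, L.symm_apply_apply]

section Surg

variable {E : Type} [NormedAddCommGroup E] [NormedSpace ℝ E] [FiniteDimensional ℝ E]
variable {Om La : Set E} {ι : Type} {T : Tiling Om ι}

theorem continuous_box (L : E ≃ᵃ[ℝ] (Fin 3 → ℝ)) : Continuous fun y => ‖L y‖ :=
  (L.toAffineMap.continuous_of_finiteDimensional).norm

theorem isCompact_box (L : E ≃ᵃ[ℝ] (Fin 3 → ℝ)) (b : ℝ) : IsCompact {y | ‖L y‖ ≤ b} := by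
  have h1 : {y | ‖L y‖ ≤ b} = L.symm '' closedBall 0 b := by
    ext y
    constructor
    · intro hy
      exact ⟨L y, by simpa using hy, L.symm_apply_apply y⟩
    · rintro ⟨v, hv, rfl⟩
      show ‖L (L.symm v)‖ ≤ b
      rw [L.apply_symm_apply]
      simpa using hv
  rw [h1]
  exact (isCompact_closedBall _ _).image L.symm.toAffineMap.continuous_of_finiteDimensional

/-- finitely many faces have a point with level in `[0, b]` -/
theorem finite_faces (B : Box T La) {h hi : E → E} (H : HP Om La h hi) :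
    {k : Face T | ∃ x ∈ k.set, ‖B.L (h x)‖ ≤ B.b}.Finite := by
  have hK : IsCompact (hi '' {y | ‖B.L y‖ ≤ B.b}) :=
    (isCompact_box B.L B.b).image_of_continuousOn ((HP.inv H).contOn.mono B.sub)
  have hKO : hi '' {y | ‖B.L y‖ ≤ B.b} ⊆ Om := by
    rintro _ ⟨y, hy, rfl⟩
    exact H.mti (B.sub y hy)
  have h1 := T.finite_cells hK hKO
  have hinj : InjOn (fun k : Face T => k.set) {k : Face T | ∃ x ∈ k.set, ‖B.L (h x)‖ ≤ B.b} :=
    fun k _ k' _ e => Face.ext e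
  refine Set.Finite.of_finite_image (h1.subset ?_) hinj
  rintro _ ⟨k, ⟨x, hx, hxb⟩, rfl⟩
  obtain ⟨p, hp, hd, e⟩ := k.exists_pt
  have hxO : x ∈ Om := by rw [e] at hx; exact T.cc_sub_Om hp hx
  exact ⟨⟨p, hp, e⟩, x, hx, h x, hxb, H.li x hxO⟩

/-- **SURG**, for one box -/
theorem surg (h3 : finrank ℝ E = 3) (hDM : DMove E) (hLev : LevStmt T) : Surg T La := by
  classical
  intro B h hi H hOk
  have M := mesh (T := T) h3 hDM
  set u : E → ℝ := fun y => ‖B.L y‖ with hu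
  have huc : Continuous u := continuous_box B.L
  let J : Finset (Face T) := (finite_faces B H).toFinset
  have hJ : ∀ k, k ∈ J ↔ ∃ x ∈ k.set, ‖B.L (h x)‖ ≤ B.b := by
    intro k; simp [J]
  -- the regular levels
  have hlev : ∀ k : Face T, ∃ bad : Set ℝ, bad.Finite ∧ ∀ I : Set ℝ, IsPreconnected I →
      Disjoint I bad →
      Lev k.set (k.set ∩ sk1 T) (fun x => u (h x)) I ∧
        ∃ n : ℕ, ∀ t ∈ I, {Γ | Circ k.set (k.set ∩ sk1 T) (fun x => u (h x)) t Γ}.ncard ≤ n := by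
    intro k
    obtain ⟨x, hx, hd, e⟩ := k.exists_pt
    rw [e]
    refine hLev x hx hd _ ?_
    have h1 : PLOn h (T.cc x) := LocPL.plOn H.pl (T.isCompact_cc hx) (T.cc_sub_Om hx)
    have h2 : PLOn u univ := by
      have h4 : PLOn (fun v : Fin 3 → ℝ => ‖v‖) univ := Sk2_855.PLMap.plOn (plMap_norm 3) univ
      exact h4.comp (plOn_affine B.L.toAffineMap univ) fun _ _ => mem_univ _
    exact h2.comp h1 fun _ _ => mem_univ _
  choose bad hbad hn' using hlev
  have hBf : (⋃ k ∈ (J : Set (Face T)), bad k).Finite :=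
    J.finite_toSet.biUnion fun k _ => hbad k
  obtain ⟨a', b', ha', hab', hb', hdis⟩ : ∃ a' b', B.a ≤ a' ∧ a' < b' ∧ b' ≤ B.b ∧
      Disjoint (Ioo a' b') (⋃ k ∈ (J : Set (Face T)), bad k) := by
    have hop : IsOpen (Ioo B.a B.b ∩ (⋃ k ∈ (J : Set (Face T)), bad k)ᶜ) :=
      isOpen_Ioo.inter hBf.isClosed.isOpen_compl
    have hne : (Ioo B.a B.b ∩ (⋃ k ∈ (J : Set (Face T)), bad k)ᶜ).Nonempty := by
      have h1 : (Ioo B.a B.b).Infinite := Ioo_infinite B.ab
      obtain ⟨t, ht, ht'⟩ := (h1.sdiff hBf).nonempty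
      exact ⟨t, ht, ht'⟩
    obtain ⟨t, ht⟩ := hne
    obtain ⟨l, m, hlm, hsub⟩ := (mem_nhds_iff_exists_Ioo_subset).1 (hop.mem_nhds ht)
    have hlm' : l < m := hlm.1.trans hlm.2
    have h1 : Icc l m ⊆ Icc B.a B.b := by
      rw [← closure_Ioo hlm'.ne, ← closure_Ioo B.ab.ne]
      exact closure_mono fun s hs => (hsub hs).1
    have h2 := h1 (left_mem_Icc.2 hlm'.le)
    have h4 := h1 (right_mem_Icc.2 hlm'.le)
    refine ⟨l, m, h2.1, hlm', h4.2, ?_⟩
    rw [disjoint_left]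
    exact fun s hs => (hsub hs).2
  have hn2 : ∀ k : Face T, ∃ n : ℕ, k ∈ J →
      Lev k.set (k.set ∩ sk1 T) (fun x => u (h x)) (Ioo a' b') ∧
        ∀ t ∈ Ioo a' b', {Γ | Circ k.set (k.set ∩ sk1 T) (fun x => u (h x)) t Γ}.ncard ≤ n := by
    intro k
    by_cases hk : k ∈ J
    · obtain ⟨h1, n, h2⟩ := hn' k (Ioo a' b') isPreconnected_Ioo (hdis.mono_right
        (subset_biUnion_of_mem (u := bad) (show k ∈ (J : Set (Face T)) from hk)))
      exact ⟨n, fun _ => ⟨h1, h2⟩⟩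
    · exact ⟨0, fun hk' => absurd hk' hk⟩
  choose n hn using hn2
  have hpos : 0 < a' := lt_of_lt_of_le B.a_pos ha'
  have hI : Ioo a' b' ⊆ Icc B.a B.b := fun t ht => ⟨ha'.trans ht.1.le, ht.2.le.trans hb'⟩
  have L : Lvls La u (fun t => {y | ‖B.L y‖ ≤ t}) (fun t => {y | ‖B.L y‖ = t}) (Ioo a' b') :=
    { cont := huc.continuousOn
      ball := fun t ht => isBall_cubeL B.L (hpos.trans ht.1)
      sub := fun t ht y hy => B.sub y (by
        have : ‖B.L y‖ = t := hy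
        rw [this]; exact (hI ht).2)
      eq := fun t ht y _ => Iff.rfl }
  let 𝒜 : ℝ → Set E → Prop := fun t D => Disjoint D (Gg4_113.X B h t)
  have hA : ∀ t D D', 𝒜 t D → D' ⊆ D → 𝒜 t D' := fun t D D' h1 h2 => h1.mono_left h2
  have s : St Om La (sk1 T) (fun k : Face T => k.set) J u 𝒜 (Ioo a' b') h hi :=
    { hp := H
      lev := fun k hk => (hn k hk).1
      off := fun k hk x hx hxI => hk ((hJ k).2 ⟨x, hx, (hI hxI).2⟩)
      rim := by
        rintro k hk t ht x hx hxt ⟨p, hp1, hp2⟩ D hD hxD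
        obtain ⟨q, hq, hd, e⟩ := k.exists_pt
        change x ∈ k.set at hx
        change u (h x) = t at hxt
        have hLS : Ls k.set (fun x => u (h x)) t = Gg4_113.LS B h t q := by
          rw [e]; rfl
        rw [hLS] at hp1
        have hpL := connectedComponentIn_subset _ _ hp1
        have hsub := Gg4_113.comp_sub_X (B := B) (h := h) hq hd hpL hp2.2.2
        rw [← connectedComponentIn_eq hp1] at hsub
        have hxL : x ∈ Gg4_113.LS B h t q := ⟨by rw [← e]; exact hx, hxt⟩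
        exact disjoint_left.1 hD hxD (hsub ⟨x, mem_connectedComponentIn hxL, rfl⟩) }
  have hsum : ∀ t ∈ Ioo a' b', (∑ k ∈ J, {Γ | Circ k.set (k.set ∩ sk1 T)
      (fun x => u (h x)) t Γ}.ncard) ≤ ∑ k ∈ J, n k := by
    intro t ht
    exact Finset.sum_le_sum fun k hk => (hn k hk).2 t ht
  obtain ⟨ψ, hψ, c1, c2, a'', b'', ha'', hab'', hb'', e1, s1, g1⟩ :=
    surgery M hA _ a' b' hab' L h hi s hsum
  have hI2 : Ioo a'' b'' ⊆ Ioo a' b' := Ioo_subset_Ioo ha'' hb''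
  have hMv : Mv T ψ := ⟨hψ.plh, hψ.supp⟩
  refine ⟨ψ, hMv, ?_, ?_, ?_⟩
  · rintro x hx hd _ ⟨_, ⟨z, hz, rfl⟩, rfl⟩
    rcases c1 (mkFace hx hd) z hz with h1 | ⟨t, ht, D, Γ, -, hS, hzD⟩
    · left
      rw [h1.self_of_nhds]
      exact ⟨z, hz, rfl⟩
    · right
      have h2 : ‖B.L (h (ψ z))‖ = t := hS.sub hzD
      show B.a ≤ ‖B.L (h (ψ z))‖ ∧ ‖B.L (h (ψ z))‖ ≤ B.b
      rw [h2]
      exact hI ht
  · intro x hx hd hdj
    have h1 := c2 (mkFace hx hd) (fun z hz hzI => disjoint_left.1 hdj ⟨z, hz, rfl⟩ (by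
      show B.a ≤ ‖B.L (h z)‖ ∧ ‖B.L (h z)‖ ≤ B.b
      exact hI hzI))
    have h2 : ∀ z ∈ T.cc x, ψ z = z := fun z hz => (h1 z hz).self_of_nhds
    ext z
    constructor
    · rintro ⟨w, hw, rfl⟩; rw [h2 w hw]; exact hw
    · intro hz; exact ⟨z, hz, h2 z hz⟩
  · obtain ⟨t, ht⟩ := nonempty_Ioo.2 hab''
    have htI := hI (hI2 ht)
    refine ⟨t, ⟨lt_of_le_of_lt (ha'.trans ha'') ht.1, lt_of_lt_of_le ht.2 (hb''.trans hb')⟩, ?_⟩
    intro x hx hd hNC z hz hzt
    set k : Face T := mkFace hx hd with hk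
    have hks : k.set = T.cc x := rfl
    have hkJ : k ∈ J := by
      by_contra hkJ
      refine s1.off k hkJ z hz ?_
      show ‖B.L (h (ψ z))‖ ∈ Ioo a'' b''
      rw [hzt]; exact ht
    have hid : ∀ w ∈ T.cc x, ‖B.L (h (ψ w))‖ = t → ψ w = w := fun w hw hwt =>
      (e1 k w hw (by
        show ‖B.L (h (ψ w))‖ ∈ Ioo a'' b''
        rw [hwt]; exact ht)).self_of_nhds
    rcases (s1.lev k hkJ).comp t ht z hz hzt with h1 | h1
    · obtain ⟨p, hp1, hp2⟩ := h1
      have hpL := connectedComponentIn_subset _ _ hp1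
      have hpc : p ∈ T.cc x := hpL.1
      have hpt : ‖B.L (h (ψ p))‖ = t := hpL.2
      have h4 := hid p hpc hpt
      rw [h4] at hpt
      exact Gg4_113.nc_rim hOk hx hNC hpc hp2.2.2 ⟨by rw [hpt]; exact htI.1, by
        rw [hpt]; exact htI.2⟩
    · set Γ := connectedComponentIn (Ls k.set (fun x => u (h (ψ x))) t) z with hΓ
      have hΓL : Γ ⊆ Ls k.set (fun x => u (h (ψ x))) t := connectedComponentIn_subset _ _
      obtain ⟨-, Fc, hB, hsub, -⟩ := id h1
      have hFO : Fc ⊆ Om := hsub.trans fun w hw => M.sub k hw.1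
      have hc : Nonempty (PLEquiv (S1 ℝ) ((fun x => h (ψ x)) '' Γ)) :=
        circle_of_disc (HP.ball_image s1.hp hB hFO)
      have hcZ : (fun x => h (ψ x)) '' Γ ⊆ {y | ‖B.L y‖ = t} := by
        rintro _ ⟨w, hw, rfl⟩
        exact (hΓL hw).2
      obtain ⟨A, A', h5, h6⟩ := sphere_sides (L.ball t (hI2 ht)) hc hcZ
      have hSA : Side {y | ‖B.L y‖ ≤ t} {y | ‖B.L y‖ = t} A ((fun x => h (ψ x)) '' Γ) :=
        ⟨A', h5, h6⟩
      have hSA' : Side {y | ‖B.L y‖ ≤ t} {y | ‖B.L y‖ = t} A' ((fun x => h (ψ x)) '' Γ) :=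
        ⟨A, h5.symm, by rw [union_comm]; exact h6⟩
      have hXc : Disjoint (Gg4_113.X B h t) ((fun x => h (ψ x)) '' Γ) := by
        refine Disjoint.mono_right ?_ (Gg4_113.nc_disj hOk (HP.injOn H) htI hx hd hNC).symm
        rintro _ ⟨w, hw, rfl⟩
        have hw1 := hΓL hw
        show h (ψ w) ∈ h '' T.cc x
        rw [hid w hw1.1 hw1.2]
        exact ⟨w, hw1.1, rfl⟩
      have hXp := Gg4_113.X_preconn hOk H.contOn htI
      have hXs := Gg4_113.X_sub B h t
      rcases split_of_union hSA.isBall.isClosed hSA'.isBall.isClosed h6 h5.inter hXp hXs hXc with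
        h7 | h7
      · exact g1 t ht k hkJ Γ h1 A' hSA' h7.2.symm
      · exact g1 t ht k hkJ Γ h1 A hSA h7.2.symm

end Surg

end Crest.Agent.R096.Srg_465
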