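import Crest.Agent.R096.Ub3_113
import Crest.Agent.R096.Srg6_465
import Crest.Agent.R096.Sk2b_855

/-!
# Row 96, 2SK for a general gauge, part 4: colours, convex gauges, `Box → UBox`, the final `USurg`
-/

set_option autoImplicit false
set_option linter.unusedSectionVars false

open Set Metric

namespace Crest.Agent.R096.Ub_113

open Crest.Agent.R096.Msh_715
open Crest.Agent.R096.Pl (PLH PLMap)
open Crest.Agent.R096.Ce_537
open Crest.Agent.R096.Sk2_855

variable {E : Type*} [NormedAddCommGroup E] [NormedSpace ℝ E] {Om La : Set E} {ι : Type*}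
  [FiniteDimensional ℝ E]

/-- **many boxes, with colours** -/
theorem uiterate_col {T : Tiling Om ι} (hS : USurg T La) {J : Type*} [Finite J]
    (B : J → UBox T La) {n : ℕ} (col : J → Fin n)
    (hcol : ∀ j j', j ≠ j' → col j = col j' → Disjoint (B j).Y (B j').Y)
    (hM : ∀ j j', j ≠ j' → ∀ k, Disjoint (B j).shell ((B j').M k))
    {h hi : E → E} (H : HP Om La h hi) (hOk : ∀ j, (B j).Ok h) :
    ∃ Ψ : E ≃ₜ E, Mv T Ψ ∧ ∀ Z : ℕ → Set E, (∀ i, Z i ⊆ Z (i + 1)) →
      (∀ i < n, ∀ j, (Z i ∩ (B j).Y).Nonempty → (B j).Y ⊆ Z (i + 1)) →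
      (∀ x ∈ Om, T.dim x = 2 → h '' T.cc x ⊆ Z 0 → h '' (Ψ '' T.cc x) ⊆ Z n) ∧
      (∀ j, (B j).Y ⊆ Z 0 → ∀ x ∈ Om, T.dim x = 2 → (B j).NC x →
        (∀ z ∈ T.cc x, z ∈ sk1 T → (B j).u (h z) < (B j).a) →
        h '' (Ψ '' T.cc x) ⊆ Z n) := by
  classical
  cases nonempty_fintype J
  -- the classes
  let cls : List (List J) := (List.finRange n).map fun c =>
    (Finset.univ.filter fun j => col j = c).toList
  have hlen : cls.length = n := by simp [cls]
  have hmem : ∀ j, j ∈ cls.flatten := by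
    intro j
    rw [List.mem_flatten]
    exact ⟨_, List.mem_map.2 ⟨col j, List.mem_finRange _, rfl⟩, by simp⟩
  have hnd : cls.flatten.Nodup := by
    rw [List.nodup_flatten]
    refine ⟨fun l hl => ?_, ?_⟩
    · obtain ⟨c, -, rfl⟩ := List.mem_map.1 hl
      exact Finset.nodup_toList _
    · refine List.Pairwise.map _ ?_ (List.nodup_finRange n)
      intro c c' hcc j hj hj'
      simp only [Finset.mem_toList, Finset.mem_filter, Finset.mem_univ, true_and] at hj hj'
      exact hcc (hj.symm.trans hj')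
  have hcls : ∀ l ∈ cls, l.Pairwise (fun j j' => Disjoint (B j).Y (B j').Y) := by
    intro l hl
    obtain ⟨c, -, rfl⟩ := List.mem_map.1 hl
    have h1 : (Finset.univ.filter fun j => col j = c).toList.Pairwise (fun j j' => j ≠ j') :=
      Finset.nodup_toList _
    refine h1.imp_of_mem ?_
    intro j j' hj hj' hne
    simp only [Finset.mem_toList, Finset.mem_filter, Finset.mem_univ, true_and] at hj hj'
    exact hcol j j' hne (hj.trans hj'.symm)
  obtain ⟨Ψ, hΨ, g1, g2⟩ := Ub_113.iterate hS (cls.flatten.map B)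
    (by
      rw [List.pairwise_map]
      have h1 : cls.flatten.Pairwise (fun j j' => j ≠ j') := hnd
      exact h1.imp fun hne k => hM _ _ hne k)
    h hi H (by
      intro b hb
      obtain ⟨j, -, rfl⟩ := List.mem_map.1 hb
      exact hOk j)
  have key : ∀ (ls : List (List J)), (∀ l' ∈ ls, ∃ l ∈ cls, l'.Sublist l) → ls.length ≤ n →
      ∀ Z : ℕ → Set E, (∀ i, Z i ⊆ Z (i + 1)) →
      (∀ i < n, ∀ j, (Z i ∩ (B j).Y).Nonempty → (B j).Y ⊆ Z (i + 1)) →
      ∀ S ⊆ Z 0, reach S ((ls.flatten.map B).map fun B => B.Y) ⊆ Z n := by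
    intro ls hls hn Z hZ hZY S hS
    have e : ((ls.flatten.map B).map fun B => B.Y) =
        (ls.map fun l => l.map fun j => (B j).Y).flatten := by
      rw [List.map_map, List.map_flatten]
      rfl
    rw [e]
    have h1 := reach_chain Z hZ (ls.map fun l => l.map fun j => (B j).Y)
      (by
        intro l hl
        obtain ⟨l', hl', rfl⟩ := List.mem_map.1 hl
        obtain ⟨l0, h0, h0'⟩ := hls l' hl'
        rw [List.pairwise_map]
        exact (hcls l0 h0).sublist h0') 0
      (by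
        intro l hl Y hY i hi hm
        obtain ⟨l', hl', rfl⟩ := List.mem_map.1 hl
        obtain ⟨j, -, rfl⟩ := List.mem_map.1 hY
        rw [List.length_map, Nat.zero_add] at hi
        exact hZY i (lt_of_lt_of_le hi hn) j hm) S hS
    refine h1.trans ?_
    rw [List.length_map, Nat.zero_add]
    exact monotone_nat_of_le_succ hZ hn
  refine ⟨Ψ, hΨ, fun Z hZ hZY => ⟨fun x hx hd h0 => ?_, fun j hj x hx hd hn hb => ?_⟩⟩
  · exact (g1 x hx hd).trans (key cls (fun l hl => ⟨l, hl, List.Sublist.refl _⟩) hlen.le Z hZ hZY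
      _ h0)
  · obtain ⟨m1, m2, e⟩ := List.append_of_mem (hmem j)
    obtain ⟨ls', e', hl', hs'⟩ := flatten_suffix cls m1 j m2 e
    have h2 := g2 (m1.map B) (B j) (m2.map B) (by rw [e]; simp) x hx hd hn hb
    refine h2.trans ?_
    rw [e']
    exact key ls' hs' (hl'.trans hlen.le) Z hZ hZY _ hj



/-! ### the gauge of a convex polytope -/

section gauge

variable (G : Finset ((E →L[ℝ] ℝ) × ℝ)) (hG : G.Nonempty)

/-- the maximum of finitely many affine functions -/
noncomputable def gau (y : E) : ℝ := G.sup' hG fun h => h.1 y - h.2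

theorem gau_le_iff {y : E} {t : ℝ} : gau G hG y ≤ t ↔ ∀ h ∈ G, h.1 y - h.2 ≤ t :=
  Finset.sup'_le_iff _ _

theorem gau_lt_iff {y : E} {t : ℝ} : gau G hG y < t ↔ ∀ h ∈ G, h.1 y - h.2 < t :=
  Finset.sup'_lt_iff _

theorem le_gau {y : E} {h : (E →L[ℝ] ℝ) × ℝ} (hh : h ∈ G) : h.1 y - h.2 ≤ gau G hG y :=
  Finset.le_sup' (fun h : (E →L[ℝ] ℝ) × ℝ => h.1 y - h.2) hh

theorem exists_gau (y : E) : ∃ h ∈ G, gau G hG y = h.1 y - h.2 :=
  Finset.exists_mem_eq_sup' hG _

theorem continuous_gau : Continuous (gau G hG) := by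
  have : gau G hG = G.sup' hG (fun h y => h.1 y - h.2) := by
    ext y
    simp [gau, Finset.sup'_apply]
  rw [this]
  exact Continuous.finset_sup' hG fun h _ => h.1.continuous.sub continuous_const

theorem convex_gau : ConvexOn ℝ univ (gau G hG) := by
  refine ⟨convex_univ, fun x _ y _ a b ha hb hab => ?_⟩
  rw [gau_le_iff]
  intro h hh
  have h1 := le_gau G hG (y := x) hh
  have h2 := le_gau G hG (y := y) hh
  simp only [map_add, map_smul, smul_eq_mul]
  have e : h.2 = a * h.2 + b * h.2 := by rw [← add_mul, hab, one_mul]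
  nlinarith [mul_le_mul_of_nonneg_left h1 ha, mul_le_mul_of_nonneg_left h2 hb]

theorem plOn_gau (s : Set E) : PLOn (gau G hG) s := by
  classical
  refine ⟨(continuous_gau G hG).continuousOn,
    G.image fun h => (h.1 : E →ₗ[ℝ] ℝ).toAffineMap - AffineMap.const ℝ E h.2, fun y _ => ?_⟩
  obtain ⟨h, hh, e⟩ := exists_gau G hG y
  exact ⟨_, Finset.mem_image_of_mem _ hh, e⟩

/-- the sublevel sets of the gauge are polytopes -/
theorem gau_P [DecidableEq ((E →L[ℝ] ℝ) × ℝ)] (t : ℝ) :
    {y | gau G hG y ≤ t} = P (G.image fun h => (h.1, h.2 + t)) := by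
  ext y
  simp only [P, mem_ofPred_eq, gau_le_iff, Finset.mem_image, forall_exists_index, and_imp,
    forall_apply_eq_imp_iff₂]
  constructor
  · intro h g hg; linarith [h g hg]
  · intro h g hg; linarith [h g hg]

theorem gau_I [DecidableEq ((E →L[ℝ] ℝ) × ℝ)] (t : ℝ) :
    {y | gau G hG y < t} = I (G.image fun h => (h.1, h.2 + t)) := by
  ext y
  simp only [I, mem_ofPred_eq, gau_lt_iff, Finset.mem_image, forall_exists_index, and_imp,
    forall_apply_eq_imp_iff₂]
  constructor
  · intro h g hg; linarith [h g hg]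
  · intro h g hg; linarith [h g hg]

/-- a compact sublevel set with a point below is a PL ball -/
theorem isBall_gau {t : ℝ} (hc : IsCompact {y | gau G hG y ≤ t}) (hne : ∃ y, gau G hG y < t) :
    IsBall (Module.finrank ℝ E) {y | gau G hG y ≤ t} {y | gau G hG y = t} := by
  classical
  have h1 := gau_P G hG t
  have h2 := gau_I G hG t
  rw [h1] at hc
  have h3 := isBall_P_top _ hc (by rw [← h2]; exact hne)
  rw [← h1, ← h2] at h3
  have e : {y | gau G hG y ≤ t} \ {y | gau G hG y < t} = {y | gau G hG y = t} := by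
    ext y
    simp only [mem_sdiff, mem_ofPred_eq, not_lt]
    exact ⟨fun h => le_antisymm h.1 h.2, fun h => ⟨h.le, h.ge⟩⟩
  rwa [e] at h3

end gauge

end Crest.Agent.R096.Ub_113

namespace Crest.Agent.R096.Ub3_113

open Msh_715 Srg_465 Ub_113 Ce_537 Sk2_855 Cb_609 Pl

/-- **USURG**, the only input is the disc move -/
theorem usurg_final {E : Type} [NormedAddCommGroup E] [NormedSpace ℝ E] [FiniteDimensional ℝ E]
    (h3 : Module.finrank ℝ E = 3) (hDM : DMove E) {Om La : Set E} {ι : Type} (T : Tiling Om ι) :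
    USurg T La := usurg h3 hDM (levStmt T)

/-- a cubical box is a general box -/
noncomputable def toU {E : Type} [NormedAddCommGroup E] [NormedSpace ℝ E] [FiniteDimensional ℝ E]
    {Om La : Set E} {ι : Type} {T : Tiling Om ι} (B : Box T La) : UBox T La where
  u := fun y => ‖B.L y‖
  cont := continuous_box B.L
  pl := by
    have h4 : PLOn (fun v : Fin 3 → ℝ => ‖v‖) univ := Sk2_855.PLMap.plOn (plMap_norm 3) univ
    exact h4.comp (plOn_affine B.L.toAffineMap univ) fun _ _ => mem_univ _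
  a := B.a
  b := B.b
  ab := B.ab
  cpt := Srg_465.isCompact_box B.L B.b
  ball := fun t ht => isBall_cubeL B.L (B.a_pos.trans ht.1)
  sub := B.sub
  K := B.K
  fin := B.fin
  e := B.e
  eOm := B.eOm
  edim := B.edim
  einj := B.einj
  M := B.M
  Mc := B.Mc
  Mdisj := B.Mdisj
  Mlev := fun k t ht => ⟨(B.Mlev k t ht).1.isPreconnected, (B.Mlev k t ht).2⟩
  two := B.two
  conn := B.conn

end Crest.Agent.R096.Ub3_113
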