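/-
helper922, row 96, (AC) of 753 #11736: the 1-cells and the 2-cells of the family of meshes `h.T a` (855)
are translates of countably many segments / flat pieces.
-/
import Crest.Agent.R096.Ca16_855
import Crest.Agent.R096.Ca14_855
import Crest.Agent.R096.Eog3_922
import Crest.Agent.R096.Msb3_432
import Crest.Agent.R96.Gdt4_538

set_option autoImplicit false
set_option linter.unusedSectionVars false

open Set Metric Filter
open scoped Topology

namespace Crest.Agent.R096.Acl_922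

open Crest.AnalysisR.VecCalc3 Crest.AnalysisR.Sobolev
open Crest.Agent.R096.Msh_715
open Crest.Agent.R096.Mal_874 (MD CB RD RP reOm Rt Cn outD Rg cfg patch_off)
open Crest.Agent.R096.Msh_810
open Crest.Agent.R096.Msb_432 (meshS rigidS_const cores outer_off)
open Crest.Agent.R96.En10_199 (P3)
open Crest.Agent.R096.Mf_113 (Rig cell_of_rigid)
open Crest.Agent.R096.Ca_855 Crest.Agent.R096.Ca_855.MIn
open Crest.Agent.R096.Eog_922
open Crest.Agent.R096.Cut_874 Crest.Agent.R096.Mal_874.AD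

noncomputable section

variable {Om W : Set R3} {ρ₀ : R3 → ℝ} {J : Type} {Qb : J → CB R3 3} {k0 : ℕ} {σ : ℝ}
  [Finite J]

/-- rigidity near `W` (855's `MIn.rg` with the two distances) -/
theorem rg' (h : MIn Om W ρ₀ Qb k0 σ) {p x : R3} (hx : x ∈ W) (a : R3) (h1 : dist x p < σ / 4)
    (h2 : dist x (p - h.cl a) < σ / 4) : Rg h.T0 (h.Ts a) (h.cl a) (p - h.cl a) := by
  have hD : ∀ x, x ∈ Om → h.M.φ x ∈ h.M.D0.Om := by
    intro x hx
    have : x ∈ h.M.φ ⁻¹' h.M.D0.Om := by rw [h.dom]; exact hx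
    exact this
  refine rigidS_const h.M h.sc 0 h.adm0 (h.adm a) (κ := k0) (fun j => by rw [zero_add]) ?_ ?_ ?_ ?_
  · exact hD _ (h.mem_Om_of hx h2)
  · rw [sub_add_cancel]
    exact hD _ (h.mem_Om_of hx h1)
  · exact h.K_ev hx h2 0
  · rw [sub_add_cancel]
    exact h.K_ev hx h1 _

/-- the cells near `W` are translates of cells of the model -/
theorem cell_near (h : MIn Om W ρ₀ Qb k0 σ) {a : R3} (ha : ‖a‖ ≤ σ / 8) {p x : R3} (hx : x ∈ W)
    (h1 : dist x p < σ / 4) (h2 : dist x (p - a) < σ / 4) :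
    ∃ c : h.T0.Cell, (h.T a).cc p = (a + ·) '' c.set := by
  have e := h.cl_eq ha
  have hp : p ∈ Om := h.mem_Om_of hx h1
  have key : ∀ b, h.cl a = b → dist x (p - b) < σ / 4 →
      p - b ∈ h.M.φ ⁻¹' h.M.D0.Om ∧ (fun j => P ((h.T a).H j)) '' (h.T a).at_ p =
        (fun i => (b + ·) '' P (h.T0.H i)) '' h.T0.at_ (p - b) := by
    rintro b rfl hb
    refine ⟨by rw [h.dom]; exact h.mem_Om_of hx hb, ?_⟩
    have h1 := (rg' h hx a h1 hb).sets
    rw [sub_add_cancel] at h1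
    exact h1
  obtain ⟨hp', h4⟩ := key a e h2
  obtain ⟨y0, hy0, h5, -, -⟩ := cell_of_rigid (T := h.T0) (T' := h.T a) hp hp' h4 hp
    ((h.T a).self_mem_cc p)
  exact ⟨h.T0.cl hy0, h5⟩

/-- a closed dyadic cell moves with the shift -/
theorem Dc_shift (φ : R3 ≃L[ℝ] (Fin 3 → ℝ)) (a : R3) (s : Idx 3) :
    φ ⁻¹' (Dc (φ a) s) = (a + ·) '' (φ ⁻¹' (Dc 0 s)) := by
  have e : ∀ y : R3, ∀ i, ps (φ a) s.k (φ (a + y)) i = ps 0 s.k (φ y) i := by
    intro y i
    unfold ps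
    rw [map_add, Pi.add_apply, Pi.zero_apply]
    ring
  have e' : ∀ y : R3, φ (a + y) ∈ Dc (φ a) s ↔ φ y ∈ Dc 0 s := by
    intro y
    constructor
    · intro hy i
      have := hy i
      rwa [e] at this
    · intro hy i
      have := hy i
      rwa [← e] at this
  ext y
  constructor
  · intro hy
    refine ⟨y - a, ?_, by simp⟩
    rw [mem_preimage, ← e']
    rw [add_sub_cancel]
    exact hy
  · rintro ⟨z, hz, rfl⟩
    exact (e' z).2 hz

/-- **the cells far away are dyadic** -/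
theorem cell_outer (h : MIn Om W ρ₀ Qb k0 σ) {a : R3} (ha : ‖a‖ ≤ σ / 8) {y : R3} (hy : y ∈ Om) :
    (∃ s : Idx 3, (h.T a).cc y = (a + ·) '' (P3.symm ⁻¹' (Dc 0 s))) ∨
      ∃ c : h.T0.Cell, (h.T a).cc y = (a + ·) '' c.set := by
  have e := h.cl_eq ha
  have hσ := h.σ0
  have h48 := h.h48'
  have hyO : y ∈ h.M.φ ⁻¹' h.M.D0.Om := by rw [h.dom]; exact hy
  -- near a block
  have near : ∀ j, ∀ z ∈ (h.M.Bk (fun _ => h.cl a) j).N, dist z y ≤ 4 * (1 / 2 ^ k0) →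
      ∃ c : h.T0.Cell, (h.T a).cc y = (a + ·) '' c.set := by
    intro j z hz hzy
    have hz' : z - a ∈ (Qb j).N := by
      have h1 : z ∈ ((Qb j).tr (h.cl a)).N := hz
      rw [CB.mem_N_tr, e] at h1
      exact h1
    have h0 : (0:ℝ) < 1 / 2 ^ k0 := by positivity
    refine cell_near h ha (h.hN j hz') ?_ ?_
    · have h1 := dist_triangle (z - a) z y
      have h2 : dist (z - a) z = ‖a‖ := by rw [dist_eq_norm, sub_sub_cancel_left, norm_neg]
      linarith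
    · rw [dist_sub_right]
      linarith
  obtain ⟨t, ht⟩ := (h.M.mesh h.sc (0 + h.M.φ (h.cl a)) (h.adm a)).cov y hyO
  rcases t with p | ⟨j, i⟩
  · rcases Crest.Agent.R096.Mal_874.AD.outer_dich' (h.M.inn h.sc (0 + h.M.φ (h.cl a)) (h.adm a)) p with
      ⟨-, h2, -⟩ | ⟨j, -, -, z, h3, h4⟩
    · left
      have h5 : (h.M.mesh h.sc (0 + h.M.φ (h.cl a)) (h.adm a)).cc y ∈
          cfg (h.M.mesh h.sc (0 + h.M.φ (h.cl a)) (h.adm a)) (Sum.inl p) := ⟨y, ht, rfl⟩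
      rw [show cfg (h.M.mesh h.sc (0 + h.M.φ (h.cl a)) (h.adm a)) (Sum.inl p) =
        cfg (h.M.ad h.sc (0 + h.M.φ (h.cl a)) (h.adm a)).T0 p.1.par from h2] at h5
      obtain ⟨y', hy', h6⟩ := h5
      have hyD : h.M.φ y' ∈ (h.M.ad h.sc (0 + h.M.φ (h.cl a)) (h.adm a)).D.Om :=
        (h.M.ad h.sc (0 + h.M.φ (h.cl a)) (h.adm a)).T0.sub p.1.par hy'
      -- the subdivided tiling agrees with the mesh at `y`
      have h7 : (h.T a).cc y = (h.M.mesh h.sc (0 + h.M.φ (h.cl a)) (h.adm a)).cc y := by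
        rw [h.T_cc a y]
        have h9 : ∀ i ∈ (h.M.mesh h.sc (0 + h.M.φ (h.cl a)) (h.adm a)).at_ y,
            i ∉ cores h.M h.sc (0 + h.M.φ (h.cl a)) (h.adm a) := by
          rintro i hi ⟨j, rfl⟩
          have h8 : y ∈ (h.M.Bk (fun _ => h.cl a) j).Kc := by
            rw [← h.M.P_core h.sc (0 + h.M.φ (h.cl a)) (h.adm a) j]
            exact hi
          exact Crest.Agent.R096.Msb_432.bp_wall _ (Crest.Agent.R096.Msb_432.Kc_sub_bp _ h8)
            (h.M.outer_touch h.sc (0 + h.M.φ (h.cl a)) (h.adm a) p ht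
              (Crest.Agent.R096.Msb_432.Kc_sub_N _ h8))
        exact (patch_off (R := Crest.Agent.R096.Msb_432.cubH_repl h.sc (0 + h.M.φ (h.cl a))
          (h.adm a)) h9).1
      refine ⟨(Cel.of (h.M.φ y') hyD).1, ?_⟩
      rw [h7, h6, ← Dc_shift]
      rw [show (h.M.ad h.sc (0 + h.M.φ (h.cl a)) (h.adm a)).T0.cc y' =
        h.M.φ ⁻¹' (Cel.of (h.M.φ y') hyD).c from cc_eq hyD]
      have hs : ∀ s : Idx 3, P3.symm ⁻¹' (Dc (0 + P3.symm (h.cl a)) s) =
          P3.symm ⁻¹' (Dc (P3.symm a) s) := by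
        intro s
        rw [e, zero_add]
      exact hs _
    · right
      refine near j z ?_ ?_
      · exact (h.M.Bk (fun _ => h.cl a) j).isCompact_N.isClosed.frontier_subset h3
      · have h5 := h4 y (cut_tile_sub (hA := Crest.Agent.R096.Mal_874.AF_ne) p.1 ht)
        have h6 := dist_le_P3s y z
        have h7 : dist (P3.symm y) (P3.symm z) ≤ 2 / 2 ^ k0 := h5
        have e2 : (2:ℝ) / 2 ^ k0 = 2 * (1 / 2 ^ k0) := by ring
        rw [e2] at h7
        rw [dist_comm]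
        linarith
  · right
    refine near j y (i.2 ht) ?_
    rw [dist_self]
    positivity

instance : Countable (Idx 3) := by
  have h : Function.Injective (fun s : Idx 3 => (s.k, s.z, s.J)) := by
    rintro ⟨k, z, J⟩ ⟨k', z', J'⟩ h
    simp only [Prod.mk.injEq] at h
    obtain ⟨rfl, rfl, rfl⟩ := h
    rfl
  exact h.countable

/-- the index type of the model cells -/
abbrev IxA (h : MIn Om W ρ₀ Qb k0 σ) : Type := Idx 3 ⊕ h.T0.Cell

instance (h : MIn Om W ρ₀ Qb k0 σ) : Countable (IxA h) := by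
  have := Crest.Agent.R096.Mf_113.countable_cells h.T0
  infer_instance

/-- the model cells -/
def SA (h : MIn Om W ρ₀ Qb k0 σ) : IxA h → Set R3 :=
  Sum.elim (fun s => P3.symm ⁻¹' (Dc 0 s)) (fun c => c.set)

/-- **every cell of every mesh is the translate of a model cell** -/
theorem cell_all (h : MIn Om W ρ₀ Qb k0 σ) {a : R3} (ha : ‖a‖ ≤ σ / 8) {y : R3} (hy : y ∈ Om) :
    ∃ i, (h.T a).cc y = (a + ·) '' SA h i := by
  rcases cell_outer h ha hy with ⟨s, hs⟩ | ⟨c, hc⟩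
  · exact ⟨Sum.inl s, hs⟩
  · exact ⟨Sum.inr c, hc⟩

/-- **(AC) of 753 #11736**, with all properties of the flat pieces -/
theorem allcells' (h : MIn Om W ρ₀ Qb k0 σ) :
    ∃ (κe κf : Type) (_ : Countable κe) (_ : Countable κf) (x v : κe → R3) (e : κf → Fin 2 → R3)
      (xx : κf → R3) (Qf : κf → Set (ℝ × ℝ)), (∀ i, v i ≠ 0) ∧
      (∀ φ, LinearIndependent ℝ (e φ)) ∧ (∀ φ, inner ℝ (e φ 0) (e φ 1) = 0) ∧
      (∀ φ, IsCompact (Qf φ)) ∧ (∀ φ, Convex ℝ (Qf φ)) ∧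
      (∀ φ, Qf φ ⊆ Icc (0 : ℝ) 1 ×ˢ Icc (0 : ℝ) 1) ∧
      ∀ a, ‖a‖ ≤ σ / 8 →
        (∀ y ∈ Om, (h.T a).dim y = 1 → ∃ i, (h.T a).cc y = Crest.Agent.R96.Coarse_538.seg x v a i) ∧
        ∀ y ∈ Om, (h.T a).dim y = 2 → ∃ φ, (h.T a).cc y =
          Crest.Agent.R096.Fce_793.pt (e φ) (a + xx φ) '' Qf φ := by
  classical
  let κe : Type := {i : IxA h // ∃ p : R3 × R3, p.2 ≠ 0 ∧ SA h i = segment ℝ p.1 (p.1 + p.2)}
  let κf : Type := {i : IxA h // ∃ q : (Fin 2 → R3) × R3 × Set (ℝ × ℝ),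
    LinearIndependent ℝ q.1 ∧ inner ℝ (q.1 0) (q.1 1) = 0 ∧ IsCompact q.2.2 ∧ Convex ℝ q.2.2 ∧
      q.2.2 ⊆ Icc (0 : ℝ) 1 ×ˢ Icc (0 : ℝ) 1 ∧
      SA h i = Crest.Agent.R096.Fce_793.pt q.1 q.2.1 '' q.2.2}
  have hce : Countable κe := inferInstance
  have hcf : Countable κf := inferInstance
  have hback : ∀ (a : R3) (S T : Set R3), T = (a + ·) '' S → S = (-a + ·) '' T := by
    rintro a S _ rfl
    rw [image_image]
    simp
  refine ⟨κe, κf, hce, hcf, fun i => i.2.choose.1, fun i => i.2.choose.2, fun φ => φ.2.choose.1,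
    fun φ => φ.2.choose.2.1, fun φ => φ.2.choose.2.2, fun i => i.2.choose_spec.1,
    fun φ => φ.2.choose_spec.1, fun φ => φ.2.choose_spec.2.1, fun φ => φ.2.choose_spec.2.2.1,
    fun φ => φ.2.choose_spec.2.2.2.1, fun φ => φ.2.choose_spec.2.2.2.2.1, ?_⟩
  intro a ha
  constructor
  · intro y hy hd
    obtain ⟨i, hi⟩ := cell_all h ha hy
    obtain ⟨p, q, hpq, e1, -⟩ := (h.T a).edge_eq hy hd
    have hS : SA h i = segment ℝ (-a + p) (-a + p + (q - p)) := by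
      rw [hback a _ _ hi, e1, segment_translate_image]
      congr 1
      abel
    let j : κe := ⟨i, (-a + p, q - p), sub_ne_zero.2 hpq.symm, hS⟩
    refine ⟨j, ?_⟩
    rw [hi, Crest.Agent.R96.Gdt_538.seg_eq_segment]
    have h2 := j.2.choose_spec.2
    refine (congrArg (fun S => (a + ·) '' S) h2).trans ?_
    show (a + ·) '' (segment ℝ _ _) = _
    rw [segment_translate_image, add_assoc]
  · intro y hy hd
    obtain ⟨i, hi⟩ := cell_all h ha hy
    obtain ⟨e, x, Q, h1, -, h3, -, h4, h5, h6, h7⟩ := Mf2a_931.cc_form (h.T a) hy hd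
    have hpt : ∀ (b : R3) (e : Fin 2 → R3) (x : R3) (Q : Set (ℝ × ℝ)),
        (b + ·) '' (Crest.Agent.R096.Fce_793.pt e x '' Q) =
          Crest.Agent.R096.Fce_793.pt e (b + x) '' Q := by
      intro b e x Q
      rw [image_image]
      refine image_congr fun w _ => ?_
      simp only [Crest.Agent.R096.Fce_793.pt]
      abel
    have hS : SA h i = Crest.Agent.R096.Fce_793.pt e (-a + x) '' Q := by
      rw [hback a _ _ hi, h7]
      exact hpt _ _ _ _
    let j : κf := ⟨i, (e, -a + x, Q), h1, h3, h4, h5, h6, hS⟩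
    refine ⟨j, ?_⟩
    rw [hi]
    have h2 := j.2.choose_spec.2.2.2.2.2
    refine (congrArg (fun S => (a + ·) '' S) h2).trans ?_
    exact hpt _ _ _ _

/-- **(AC) of 753 #11736, literal** -/
theorem allcells (h : MIn Om W ρ₀ Qb k0 σ) :
    ∃ (κe κf : Type) (_ : Countable κe) (_ : Countable κf) (x v : κe → R3) (e : κf → Fin 2 → R3)
      (xx : κf → R3) (Qf : κf → Set (ℝ × ℝ)), (∀ i, v i ≠ 0) ∧
      (∀ φ, 0 < Crest.Agent.R096.Fce_793.cc (e φ)) ∧ (∀ φ, IsCompact (Qf φ)) ∧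
      ∀ a, ‖a‖ ≤ σ / 8 →
        (∀ y ∈ Om, (h.T a).dim y = 1 → ∃ i, (h.T a).cc y = Crest.Agent.R96.Coarse_538.seg x v a i) ∧
        ∀ y ∈ Om, (h.T a).dim y = 2 → ∃ φ, (h.T a).cc y =
          Crest.Agent.R096.Fce_793.pt (e φ) (a + xx φ) '' Qf φ := by
  obtain ⟨κe, κf, h1, h2, x, v, e, xx, Qf, h3, h4, -, h5, -, -, h6⟩ := allcells' h
  refine ⟨κe, κf, h1, h2, x, v, e, xx, Qf, h3, fun φ => ?_, h5, h6⟩
  have h7 : 0 < ‖e φ 0‖ := norm_pos_iff.2 ((h4 φ).ne_zero 0)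
  have h8 : 0 ≤ ‖e φ 1‖ := norm_nonneg _
  unfold Crest.Agent.R096.Fce_793.cc
  linarith

end

end Crest.Agent.R096.Acl_922
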