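import Crest.Agent.R096.Pas4_753

/-!
Row 96 (S0127), helper753.  Assembly of `PreIN p`, part 6: `AllC` from families with linearly independent
frames (Gram-Schmidt).
-/

set_option autoImplicit false
set_option linter.style.longLine false
set_option linter.unusedSectionVars false

open MeasureTheory Set Filter Topology Metric
open scoped ENNReal NNReal

namespace Crest.Agent.R096.Pas_753

open Crest.AnalysisR.VecCalc3 Crest.AnalysisR.Sobolev
open Crest.Agent.R096.Mal_874 (CB)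
open Crest.Agent.R096.Fce_793 (pt cc)
open Crest.Agent.R096.Ca_855
open Crest.Agent.R96.Coarse_538 (seg)

noncomputable section

theorem norm_unit {v : R3} (h : v ≠ 0) : ‖(‖v‖⁻¹ • v : R3)‖ = 1 := by
  rw [norm_smul, norm_inv, norm_norm]
  exact inv_mul_cancel₀ (norm_ne_zero_iff.2 h)

/-- Gram-Schmidt for the frame of a face: the same plane pieces with an orthonormal frame -/
theorem exists_gs (e : Fin 2 → R3) (he : LinearIndependent ℝ e) :
    ∃ (e' : Fin 2 → R3) (A : ℝ × ℝ → ℝ × ℝ), Continuous A ∧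
      (‖e' 0‖ = 1 ∧ ‖e' 1‖ = 1 ∧ inner ℝ (e' 0) (e' 1) = 0) ∧
      ∀ x w, pt e x w = pt e' x (A w) := by
  have h0 : e 0 ≠ 0 := he.ne_zero 0
  set u : R3 := ‖e 0‖⁻¹ • e 0 with hu
  have hun : ‖u‖ = 1 := norm_unit h0
  set r : R3 := e 1 - inner ℝ u (e 1) • u with hr
  have hr0 : r ≠ 0 := by
    intro h
    rw [hr, sub_eq_zero, hu, smul_smul] at h
    have h1 := (LinearIndependent.pair_iff.1 (show LinearIndependent ℝ ![e 0, e 1] by
      have : ![e 0, e 1] = e := by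
        funext i
        fin_cases i <;> rfl
      rw [this]
      exact he)) (inner ℝ (‖e 0‖⁻¹ • e 0) (e 1) * ‖e 0‖⁻¹) (-1) (by rw [← h]; simp)
    exact absurd h1.2 (by norm_num)
  have hur : inner ℝ u r = 0 := by
    rw [hr, inner_sub_right, inner_smul_right, real_inner_self_eq_norm_sq, hun]
    ring
  refine ⟨![u, ‖r‖⁻¹ • r], fun w => (w.1 * ‖e 0‖ + w.2 * inner ℝ u (e 1), w.2 * ‖r‖),
    by fun_prop, ⟨hun, norm_unit hr0, ?_⟩, fun x w => ?_⟩
  · show inner ℝ u (‖r‖⁻¹ • r) = 0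
    rw [inner_smul_right, hur, mul_zero]
  · show x + (w.1 • e 0 + w.2 • e 1) = x + ((w.1 * ‖e 0‖ + w.2 * inner ℝ u (e 1)) • u +
      (w.2 * ‖r‖) • (‖r‖⁻¹ • r))
    have e1 : ‖e 0‖ • u = e 0 := by
      rw [hu, smul_smul, mul_inv_cancel₀ (norm_ne_zero_iff.2 h0), one_smul]
    have e2 : (w.2 * ‖r‖) • (‖r‖⁻¹ • r) = w.2 • r := by
      rw [smul_smul, mul_assoc, mul_inv_cancel₀ (norm_ne_zero_iff.2 hr0), mul_one]
    rw [e2, add_smul, mul_smul, e1, hr, smul_sub, mul_smul]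
    abel

/-- **`AllC` from families with linearly independent frames** -/
theorem allC_of_li {Om W : Set R3} {ρ₀ : R3 → ℝ} {J : Type} {Qb : J → CB R3 3} {k0 : ℕ} {σ : ℝ}
    [Finite J] (h : MIn Om W ρ₀ Qb k0 σ) {κe κf : Type} [Countable κe] [Countable κf]
    {x v : κe → R3} {e : κf → Fin 2 → R3} {xx : κf → R3} {Qf : κf → Set (ℝ × ℝ)}
    (v0 : ∀ i, v i ≠ 0) (li : ∀ φ, LinearIndependent ℝ (e φ)) (cpt : ∀ φ, IsCompact (Qf φ))
    (edge : ∀ a, ‖a‖ ≤ σ / 8 → ∀ y ∈ Om, (h.T a).dim y = 1 → ∃ i, (h.T a).cc y = seg x v a i)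
    (face : ∀ a, ‖a‖ ≤ σ / 8 → ∀ y ∈ Om, (h.T a).dim y = 2 →
      ∃ φ, (h.T a).cc y = pt (e φ) (a + xx φ) '' Qf φ) :
    ∃ (e' : κf → Fin 2 → R3) (Qf' : κf → Set (ℝ × ℝ)), AllC h x v e' xx Qf' := by
  choose e' A hA he' hpt using fun φ => exists_gs (e φ) (li φ)
  refine ⟨e', fun φ => A φ '' Qf φ, inferInstance, inferInstance, v0, fun φ => ?_, he',
    fun φ => (cpt φ).image (hA φ), edge, fun a ha y hy hd => ?_⟩
  · show 0 < ‖e' φ 0‖ + ‖e' φ 1‖
    rw [(he' φ).1, (he' φ).2.1]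
    norm_num
  · obtain ⟨φ, h1⟩ := face a ha y hy hd
    refine ⟨φ, h1.trans ?_⟩
    rw [image_image]
    exact image_congr fun w _ => hpt φ _ w

end

end Crest.Agent.R096.Pas_753
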