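/-
helper922, row 96, (AC) of 753 #11736: the hypothesis `hAC` of 753's `preIN_frame`.
-/
import Crest.Agent.R096.Acl1_922
import Crest.Agent.R096.Pas6_753

set_option autoImplicit false

namespace Crest.Agent.R096.Acl_922

open Crest.AnalysisR.VecCalc3 Crest.AnalysisR.Sobolev
open Crest.Agent.R096.Mal_874 (CB)
open Crest.Agent.R096.Ca_855 Crest.Agent.R096.Pas_753

/-- **`hAC` of `Pas_753.preIN_frame`** -/
theorem hAC {Om W : Set R3} {ρ₀ : R3 → ℝ} {J : Type} {Qb : J → CB R3 3} {k0 : ℕ} {σ : ℝ}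
    [Finite J] (h : MIn Om W ρ₀ Qb k0 σ) : ∃ (κe κf : Type) (x v : κe → R3) (e : κf → Fin 2 → R3)
      (xx : κf → R3) (Qf : κf → Set (ℝ × ℝ)), AllC h x v e xx Qf := by
  obtain ⟨κe, κf, hce, hcf, x, v, e, xx, Qf, h3, h4, -, h5, -, -, h6⟩ := allcells' h
  obtain ⟨e', Qf', hA⟩ := allC_of_li h h3 h4 h5 (fun a ha => (h6 a ha).1) fun a ha => (h6 a ha).2
  exact ⟨κe, κf, x, v, e', xx, Qf', hA⟩

end Crest.Agent.R096.Acl_922
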