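import Crest.Agent.R096.Msh3_810

/-!
# The Whitney mesh with a random shift: skeleton energies of every dimension
-/

set_option autoImplicit false
open MeasureTheory Set
open scoped ENNReal

namespace Crest.Agent.R096.Msh_810

variable {n : ℕ}

/-- the vertex `a + 2^-k z`. -/
noncomputable def vx (a : Fin n → ℝ) (k : ℕ) (z : Fin n → ℤ) : Fin n → ℝ :=
  fun i => a i + z i / 2 ^ k

lemma vx_eq (a : Fin n → ℝ) (k : ℕ) (z : Fin n → ℤ) : vx a k z = a + vx 0 k z := by
  funext i; simp [vx]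

lemma ps_vx (a : Fin n → ℝ) (k : ℕ) (z : Fin n → ℤ) (t : Fin n → ℝ) (i : Fin n) :
    ps a k (vx a k z + t) i = z i + 2 ^ k * t i := by
  have h2 : (2 : ℝ) ^ k ≠ 0 := by positivity
  unfold ps vx
  simp only [Pi.add_apply]
  field_simp
  ring

/-- one-dimensional factors of the cell measure. -/
noncomputable def sm1 (k : ℕ) (J : Finset (Fin n)) (i : Fin n) : Measure ℝ :=
  if i ∈ J then volume.restrict (Icc (0 : ℝ) (1 / 2 ^ k)) else Measure.dirac 0

instance (k : ℕ) (J : Finset (Fin n)) (i : Fin n) : IsFiniteMeasure (sm1 k J i) := by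
  unfold sm1
  split_ifs
  · infer_instance
  · infer_instance

/-- `|J|`-dimensional Lebesgue measure on the cell `[0,2^-k]^J × {0}`. -/
noncomputable def sm (k : ℕ) (J : Finset (Fin n)) : Measure (Fin n → ℝ) :=
  Measure.pi (sm1 k J)

instance (k : ℕ) (J : Finset (Fin n)) : IsFiniteMeasure (sm k J) := by
  unfold sm; infer_instance

lemma sm1_univ (k : ℕ) (J : Finset (Fin n)) (i : Fin n) :
    sm1 k J i univ = if i ∈ J then ((2 : ℝ≥0∞) ^ k)⁻¹ else 1 := by
  unfold sm1
  split_ifs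
  · have h2 : (0 : ℝ) < 2 ^ k := by positivity
    rw [Measure.restrict_apply_univ, Real.volume_Icc, sub_zero, one_div,
      ENNReal.ofReal_inv_of_pos h2, ENNReal.ofReal_pow (by norm_num)]
    norm_num
  · simp

lemma sm_univ (k : ℕ) (J : Finset (Fin n)) :
    sm k J univ = (((2 : ℝ≥0∞) ^ k)⁻¹) ^ J.card := by
  unfold sm
  rw [Measure.pi_univ]
  simp only [sm1_univ]
  rw [Finset.prod_ite]
  simp

lemma ae_sm (k : ℕ) (J : Finset (Fin n)) :
    ∀ᵐ t ∂sm k J, ∀ i, (i ∈ J → 0 ≤ t i ∧ t i ≤ 1 / 2 ^ k) ∧ (i ∉ J → t i = 0) := by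
  rw [ae_all_iff]
  intro i
  have h : ∀ᵐ s ∂sm1 k J i, (i ∈ J → 0 ≤ s ∧ s ≤ 1 / 2 ^ k) ∧ (i ∉ J → s = 0) := by
    unfold sm1
    split_ifs with hi
    · filter_upwards [ae_restrict_mem measurableSet_Icc] with s hs
      exact ⟨fun _ => hs, fun h => absurd hi h⟩
    · rw [ae_dirac_eq]
      simp [hi]
  exact (Measure.tendsto_eval_ae_ae (μ := sm1 k J) (i := i)).eventually h

lemma ae_mem_Dc (a : Fin n → ℝ) (σ : Idx n) : ∀ᵐ t ∂sm σ.k σ.J, vx a σ.k σ.z + t ∈ Dc a σ := by
  filter_upwards [ae_sm σ.k σ.J] with t ht i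
  rw [ps_vx]
  obtain ⟨h1, h2⟩ := ht i
  have hp : (0 : ℝ) < 2 ^ σ.k := by positivity
  refine ⟨fun hi => ?_, fun hi => ?_⟩
  · obtain ⟨h3, h4⟩ := h1 hi
    have h5 : (2 : ℝ) ^ σ.k * t i ≤ 1 := by
      rw [le_div_iff₀' hp] at h4; exact h4
    have h6 : 0 ≤ (2 : ℝ) ^ σ.k * t i := mul_nonneg hp.le h3
    constructor <;> linarith
  · rw [h2 hi]; simp

/-- integral of `F` over the cell with index `σ` and shift `a`. -/
noncomputable def ic (F : (Fin n → ℝ) → ℝ≥0∞) (a : Fin n → ℝ) (σ : Idx n) : ℝ≥0∞ :=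
  ∫⁻ t, F (vx a σ.k σ.z + t) ∂sm σ.k σ.J

/-- the box of shifts. -/
def box (n : ℕ) : Set (Fin n → ℝ) := Set.pi univ fun _ => Ico (0 : ℝ) 1

lemma measurableSet_box : MeasurableSet (box n) := MeasurableSet.univ_pi fun _ => measurableSet_Ico

lemma volume_box : volume (box n) = 1 := by
  unfold box
  rw [volume_pi_pi]
  simp

/-- the number of translates of the box by `2^-k ℤ^n` that contain a point. -/
lemma count (k : ℕ) (x : Fin n → ℝ) :
    ∑' z : Fin n → ℤ, (box n).indicator (fun _ => (1 : ℝ≥0∞)) (x - vx 0 k z) =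
      ((2 : ℝ≥0∞) ^ k) ^ n := by
  classical
  set S : Finset (Fin n → ℤ) :=
    Fintype.piFinset fun i => Finset.Ioc (⌊2 ^ k * x i⌋ - 2 ^ k) ⌊2 ^ k * x i⌋ with hS
  have hp : (0 : ℝ) < 2 ^ k := by positivity
  have hmem : ∀ z : Fin n → ℤ, x - vx 0 k z ∈ box n ↔ z ∈ S := by
    intro z
    simp only [box, mem_univ_pi, hS, Fintype.mem_piFinset, Finset.mem_Ioc, mem_Ico, Pi.sub_apply,
      vx, Pi.zero_apply, zero_add]
    refine forall_congr' fun i => ?_
    have e1 : (0 ≤ x i - z i / 2 ^ k) ↔ (z i ≤ ⌊2 ^ k * x i⌋) := by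
      rw [Int.le_floor, sub_nonneg, div_le_iff₀' hp]
    have e2 : (x i - z i / 2 ^ k < 1) ↔ (⌊2 ^ k * x i⌋ - 2 ^ k < z i) := by
      rw [sub_lt_iff_lt_add, sub_lt_iff_lt_add, Int.floor_lt]
      push_cast
      rw [← sub_lt_iff_lt_add', lt_div_iff₀ hp, sub_mul]
      constructor <;> intro h <;> linarith
    rw [e1, e2, and_comm]
  have h1 : ∀ z : Fin n → ℤ, (box n).indicator (fun _ => (1 : ℝ≥0∞)) (x - vx 0 k z) =
      if z ∈ S then 1 else 0 := by
    intro z
    rw [indicator_apply]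
    simp only [hmem z]
  simp only [h1]
  rw [tsum_eq_sum (s := S)]
  · rw [Finset.sum_ite_mem, Finset.inter_self, Finset.sum_const, nsmul_eq_mul, mul_one, hS,
      Fintype.card_piFinset]
    simp only [Int.card_Ioc, sub_sub_cancel]
    have e3 : ((2 : ℤ) ^ k).toNat = 2 ^ k := by
      have : ((2 : ℤ) ^ k) = ((2 ^ k : ℕ) : ℤ) := by push_cast; rfl
      rw [this, Int.toNat_natCast]
    rw [e3]
    simp
  · intro z hz
    simp [hz]

/-- **shift formula**. -/
theorem shift_formula {f : (Fin n → ℝ) → ℝ≥0∞} (hf : Measurable f) (k : ℕ) :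
    ∫⁻ a in box n, ∑' z : Fin n → ℤ, f (vx a k z) = ((2 : ℝ≥0∞) ^ k) ^ n * ∫⁻ x, f x := by
  have hm : ∀ z : Fin n → ℤ, Measurable fun a : Fin n → ℝ => f (vx a k z) := by
    intro z
    have : (fun a : Fin n → ℝ => f (vx a k z)) = fun a => f (a + vx 0 k z) := by
      funext a; rw [← vx_eq]
    rw [this]
    exact hf.comp (measurable_id.add_const _)
  rw [lintegral_tsum fun z => (hm z).aemeasurable]
  have h1 : ∀ z : Fin n → ℤ, ∫⁻ a in box n, f (vx a k z) =
      ∫⁻ x, (box n).indicator (fun _ => (1 : ℝ≥0∞)) (x - vx 0 k z) * f x := by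
    intro z
    rw [← lintegral_indicator measurableSet_box]
    have h2 := lintegral_add_right_eq_self (μ := (volume : Measure (Fin n → ℝ)))
      (fun x => (box n).indicator (fun _ => (1 : ℝ≥0∞)) (x - vx 0 k z) * f x) (vx 0 k z)
    rw [← h2]
    refine lintegral_congr fun a => ?_
    rw [add_sub_cancel_right, ← vx_eq]
    by_cases ha : a ∈ box n
    · rw [indicator_of_mem ha, indicator_of_mem ha, one_mul]
    · rw [indicator_of_notMem ha, indicator_of_notMem ha, zero_mul]
  simp only [h1]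
  rw [← lintegral_tsum]
  · simp only [ENNReal.tsum_mul_right, count]
    rw [lintegral_const_mul _ hf]
  · intro z
    refine Measurable.aemeasurable (Measurable.mul ?_ hf)
    exact (measurable_const.indicator measurableSet_box).comp (measurable_id.sub_const _)

/-- a.e. conditions hold at all vertices of all dyadic grids for a.e. shift. -/
theorem ae_vertices {P : (Fin n → ℝ) → Prop} (hP : ∀ᵐ x, P x) :
    ∀ᵐ a : Fin n → ℝ, ∀ (k : ℕ) (z : Fin n → ℤ), P (vx a k z) := by
  rw [ae_all_iff]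
  intro k
  rw [ae_all_iff]
  intro z
  have h : (fun a : Fin n → ℝ => vx a k z) = fun a => a + vx 0 k z := by
    funext a; exact vx_eq a k z
  have hq : Measure.QuasiMeasurePreserving (fun a : Fin n → ℝ => a + vx 0 k z) volume volume :=
    (measurePreserving_add_right volume (vx 0 k z)).quasiMeasurePreserving
  have := hq.ae hP
  filter_upwards [this] with a ha
  rw [vx_eq]
  exact ha

/-- the data with another shift. -/
def Dat.sh (D : Dat n) (a : Fin n → ℝ) : Dat n := { D with a := a }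

@[simp] lemma Dat.sh_ρ (D : Dat n) (a : Fin n → ℝ) : (D.sh a).ρ = D.ρ := rfl
@[simp] lemma Dat.sh_C (D : Dat n) (a : Fin n → ℝ) : (D.sh a).C = D.C := rfl
@[simp] lemma Dat.sh_a (D : Dat n) (a : Fin n → ℝ) : (D.sh a).a = a := rfl
@[simp] lemma Dat.sh_Om (D : Dat n) (a : Fin n → ℝ) : (D.sh a).Om = D.Om := rfl

variable (D : Dat n)

lemma Dat.continuous_ρ : Continuous D.ρ := by
  have : LipschitzWith 1 D.ρ := by
    refine LipschitzWith.of_dist_le_mul fun x y => ?_
    rw [NNReal.coe_one, one_mul, Real.dist_eq, abs_le]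
    have h1 := D.lip x y
    have h2 := D.lip y x
    rw [dist_comm y x] at h2
    constructor <;> linarith
  exact this.continuous

/-- the region of scale `k`. -/
def Dat.reg (k : ℕ) : Set (Fin n → ℝ) :=
  {x | D.C ≤ 2 ^ k * D.ρ x ∧ 2 ^ k * D.ρ x < 2 * D.C + 2}

lemma Dat.measurableSet_reg (k : ℕ) : MeasurableSet (D.reg k) := by
  have hc : Measurable fun x => (2 : ℝ) ^ k * D.ρ x := D.continuous_ρ.measurable.const_mul _
  exact (measurableSet_le measurable_const hc).inter (measurableSet_lt hc measurable_const)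

/-- energy functional of a shift (an upper bound for the energy of the mesh cells of
direction `J`). -/
noncomputable def En (F : (Fin n → ℝ) → ℝ≥0∞) (J : Finset (Fin n)) (w : ℕ → ℝ≥0∞)
    (a : Fin n → ℝ) : ℝ≥0∞ :=
  ∑' k, w k * ∑' z : Fin n → ℤ, ∫⁻ t, (D.reg k).indicator F (vx a k z + t) ∂sm k J

/-- the average energy. -/
noncomputable def Av (F : (Fin n → ℝ) → ℝ≥0∞) (J : Finset (Fin n)) (w : ℕ → ℝ≥0∞) : ℝ≥0∞ :=
  ∑' k, w k * (((2 : ℝ≥0∞) ^ k) ^ n * (((2 : ℝ≥0∞) ^ k)⁻¹) ^ J.card) * ∫⁻ x in D.reg k, F x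

variable {D}

lemma measurable_inner {f : (Fin n → ℝ) → ℝ≥0∞} (hf : Measurable f) (k : ℕ)
    (J : Finset (Fin n)) : Measurable fun x : Fin n → ℝ => ∫⁻ t, f (x + t) ∂sm k J := by
  refine Measurable.lintegral_prod_right' (ν := sm k J)
    (f := fun p : (Fin n → ℝ) × (Fin n → ℝ) => f (p.1 + p.2)) ?_
  exact hf.comp (measurable_fst.add measurable_snd)

lemma measurable_vx (k : ℕ) (z : Fin n → ℤ) : Measurable fun a : Fin n → ℝ => vx a k z := by
  have h : (fun a : Fin n → ℝ => vx a k z) = fun a => a + vx 0 k z := by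
    funext a; exact vx_eq a k z
  rw [h]
  exact measurable_id.add_const _

lemma measurable_En {F : (Fin n → ℝ) → ℝ≥0∞} (hF : Measurable F) (J : Finset (Fin n))
    (w : ℕ → ℝ≥0∞) : Measurable (En D F J w) := by
  unfold En
  refine Measurable.tsum fun k => Measurable.const_mul (Measurable.tsum fun z => ?_) _
  exact (measurable_inner (hF.indicator (D.measurableSet_reg k)) k J).comp (measurable_vx k z)

/-- **(M7)** the average over the shifts. -/
theorem lintegral_En {F : (Fin n → ℝ) → ℝ≥0∞} (hF : Measurable F) (J : Finset (Fin n))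
    (w : ℕ → ℝ≥0∞) : ∫⁻ a in box n, En D F J w a = Av D F J w := by
  have hm : ∀ k, Measurable ((D.reg k).indicator F) := fun k =>
    hF.indicator (D.measurableSet_reg k)
  unfold En Av
  rw [lintegral_tsum fun k => ?_]
  · refine tsum_congr fun k => ?_
    rw [lintegral_const_mul, shift_formula (f := fun x => ∫⁻ t, (D.reg k).indicator F (x + t) ∂sm k J)
      (measurable_inner (hm k) k J) k]
    · rw [lintegral_lintegral_swap]
      · have h1 : ∀ t : Fin n → ℝ, ∫⁻ x, (D.reg k).indicator F (x + t) =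
            ∫⁻ x in D.reg k, F x := by
          intro t
          rw [lintegral_add_right_eq_self (μ := (volume : Measure (Fin n → ℝ)))
            (fun x => (D.reg k).indicator F x) t, lintegral_indicator (D.measurableSet_reg k)]
        simp only [h1]
        rw [lintegral_const, sm_univ]
        ring
      · exact ((hm k).comp (measurable_fst.add measurable_snd)).aemeasurable
    · exact Measurable.tsum fun z => (measurable_inner (hm k) k J).comp (measurable_vx k z)
  · exact (Measurable.const_mul (Measurable.tsum fun z =>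
      (measurable_inner (hm k) k J).comp (measurable_vx k z)) _).aemeasurable

/-- the energy of the mesh cells of direction `J` is bounded by `En`. -/
theorem tsum_cells_le (F : (Fin n → ℝ) → ℝ≥0∞) (J : Finset (Fin n)) (w : ℕ → ℝ≥0∞)
    (a : Fin n → ℝ) :
    ∑' σ : {σ : Cel (D.sh a) // σ.1.J = J}, w σ.1.1.k * ic F a σ.1.1 ≤ En D F J w a := by
  have hinj : Function.Injective
      (fun σ : {σ : Cel (D.sh a) // σ.1.J = J} => ((σ.1.1.k, σ.1.1.z) : ℕ × (Fin n → ℤ))) := by
    intro σ τ h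
    simp only [Prod.mk.injEq] at h
    exact Subtype.ext (Subtype.ext (Idx.ext h.1 h.2 (σ.2.trans τ.2.symm)))
  have h1 : En D F J w a = ∑' p : ℕ × (Fin n → ℤ),
      w p.1 * ∫⁻ t, (D.reg p.1).indicator F (vx a p.1 p.2 + t) ∂sm p.1 J := by
    unfold En
    rw [ENNReal.tsum_prod']
    refine tsum_congr fun k => ?_
    exact ENNReal.tsum_mul_left.symm
  rw [h1]
  refine le_trans ?_ (ENNReal.tsum_comp_le_tsum_of_injective hinj _)
  refine ENNReal.tsum_le_tsum fun σ => ?_
  obtain ⟨σ, hσ⟩ := σ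
  refine mul_le_mul_right ?_ _
  unfold ic
  change ∫⁻ t, F (vx a σ.1.k σ.1.z + t) ∂sm σ.1.k σ.1.J ≤
    ∫⁻ t, (D.reg σ.1.k).indicator F (vx a σ.1.k σ.1.z + t) ∂sm σ.1.k J
  rw [hσ]
  refine lintegral_mono_ae ?_
  have h2 := ae_mem_Dc a σ.1
  rw [hσ] at h2
  filter_upwards [h2] with t ht
  have h3 : vx a σ.1.k σ.1.z + t ∈ D.reg σ.1.k := σ.size (y := vx a σ.1.k σ.1.z + t) ht
  rw [indicator_of_mem h3]

/-- **Chebyshev** for countably many energies. -/
theorem volume_bad_le {ι : Type*} [Countable ι] (F : ι → (Fin n → ℝ) → ℝ≥0∞)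
    (hF : ∀ i, Measurable (F i)) (J : ι → Finset (Fin n)) (w : ι → ℕ → ℝ≥0∞) (c : ι → ℝ≥0∞)
    (hc : ∀ i, c i ≠ 0) :
    volume {a ∈ box n | ∃ i, c i * Av D (F i) (J i) (w i) < En D (F i) (J i) (w i) a} ≤
      ∑' i, (c i)⁻¹ := by
  have hsub : {a ∈ box n | ∃ i, c i * Av D (F i) (J i) (w i) < En D (F i) (J i) (w i) a} ⊆
      ⋃ i, {a ∈ box n | c i * Av D (F i) (J i) (w i) < En D (F i) (J i) (w i) a} := by
    rintro a ⟨ha, i, hi⟩
    exact mem_iUnion.2 ⟨i, ha, hi⟩
  refine (measure_mono hsub).trans ((measure_iUnion_le _).trans (ENNReal.tsum_le_tsum fun i => ?_))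
  have hE := measurable_En (D := D) (hF i) (J i) (w i)
  have hI := lintegral_En (D := D) (hF i) (J i) (w i)
  set T := Av D (F i) (J i) (w i) with hT
  have hset : {a ∈ box n | c i * T < En D (F i) (J i) (w i) a} =
      {a | c i * T < En D (F i) (J i) (w i) a} ∩ box n := by
    ext a; simp only [mem_ofPred_eq, mem_inter_iff, and_comm]
  rw [hset, ← Measure.restrict_apply (measurableSet_lt measurable_const hE)]
  rcases eq_or_ne T 0 with h0 | h0
  · rw [h0] at hI
    rw [lintegral_eq_zero_iff hE] at hI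
    have : (volume.restrict (box n)) {a | c i * T < En D (F i) (J i) (w i) a} = 0 := by
      rw [h0, mul_zero]
      have h3 : ∀ᵐ a ∂volume.restrict (box n), ¬ (0 < En D (F i) (J i) (w i) a) := by
        filter_upwards [hI] with a ha
        rw [ha]
        simp
      have h4 := ae_iff.1 h3
      simp only [not_not] at h4
      exact h4
    rw [this]
    exact zero_le
  rcases eq_or_ne T ∞ with h1 | h1
  · rw [h1, ENNReal.mul_top (hc i)]
    simp
  · rcases eq_or_ne (c i) ∞ with h2 | h2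
    · rw [h2, ENNReal.top_mul h0]
      simp
    · have h3 := mul_meas_ge_le_lintegral (μ := volume.restrict (box n)) hE (c i * T)
      rw [hI] at h3
      have h4 : (volume.restrict (box n)) {a | c i * T < En D (F i) (J i) (w i) a} ≤
          (volume.restrict (box n)) {a | c i * T ≤ En D (F i) (J i) (w i) a} :=
        measure_mono fun a ha => by
          simp only [mem_ofPred_eq] at ha ⊢
          exact ha.le
      refine h4.trans ?_
      rw [mul_assoc, mul_comm, mul_assoc] at h3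
      have h5 : (volume.restrict (box n)) {a | c i * T ≤ En D (F i) (J i) (w i) a} * c i ≤ 1 := by
        have h6 : T * ((volume.restrict (box n)) {a | c i * T ≤ En D (F i) (J i) (w i) a} * c i)
            ≤ T * 1 := by rw [mul_one]; exact h3
        exact (ENNReal.mul_le_mul_iff_right h0 h1).1 h6
      rw [← one_div]
      exact ENNReal.le_div_iff_mul_le (Or.inl (hc i)) (Or.inl h2) |>.2 h5

end Crest.Agent.R096.Msh_810
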