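import Crest.Agent.R096.Tms1_582
import Crest.Agent.R096.Msh2_715
import Crest.Agent.R96.Sg2_199

/-!
# Row 96, NO0-PRE, [ACLT] (helper608), part 1

A tiling all of whose inequalities are the translates by `a` of inequalities of one countable set
`𝓛`: its vertices are `p + a`, `p` in the countable set `Vt 𝓛` of the vertices of the arrangement
`𝓛`; hence its closed 1-cells are segments `sgm (p + a) (q - p)` with `p, q ∈ Vt 𝓛` (one countable
list which does not depend on `a`). Almost every translate avoids the hyperplanes at given points,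
and almost every translate is good (`ACLat`) on all closed 1-cells.
-/

set_option autoImplicit false
set_option linter.unusedSectionVars false

open MeasureTheory Set Filter Topology Metric Module
open scoped ENNReal

namespace Crest.Agent.R096.Aclt_608

open Crest.Agent.R096.Msh_715 Crest.Agent.R096.Tms_582
open Crest.Agent.R96.Acl_392 Crest.Agent.R96.Sg1_199 Crest.Agent.R96.Sg2_199

noncomputable section

section geom

variable {E : Type*} [NormedAddCommGroup E] [NormedSpace ℝ E]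

/-- all inequalities of the family of systems `𝓗` -/
def Ineq (𝓗 : Set (Finset ((E →L[ℝ] ℝ) × ℝ))) : Set ((E →L[ℝ] ℝ) × ℝ) := ⋃ H ∈ 𝓗, (H : Set _)

theorem countable_Ineq {𝓗 : Set (Finset ((E →L[ℝ] ℝ) × ℝ))} (h : 𝓗.Countable) :
    (Ineq 𝓗).Countable := h.biUnion fun H _ => H.countable_toSet

/-- the vertices of the arrangement `𝓛` -/
def Vt (𝓛 : Set ((E →L[ℝ] ℝ) × ℝ)) : Set E :=
  {p | ∃ S ⊆ 𝓛, S.Finite ∧ (∀ h ∈ S, h.1 p = h.2) ∧ ∀ w : E, (∀ h ∈ S, h.1 w = 0) → w = 0}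

theorem countable_Vt {𝓛 : Set ((E →L[ℝ] ℝ) × ℝ)} (h : 𝓛.Countable) : (Vt 𝓛).Countable := by
  have h1 : {S : Set ((E →L[ℝ] ℝ) × ℝ) | S.Finite ∧ S ⊆ 𝓛}.Countable :=
    Set.countable_ofPred_finite_subset h
  have h2 : Vt 𝓛 ⊆ ⋃ S ∈ {S : Set ((E →L[ℝ] ℝ) × ℝ) | S.Finite ∧ S ⊆ 𝓛},
      {p : E | (∀ h ∈ S, h.1 p = h.2) ∧ ∀ w : E, (∀ h ∈ S, h.1 w = 0) → w = 0} := by
    rintro p ⟨S, hS, hf, h3, h4⟩
    exact mem_biUnion (show S ∈ {S : Set ((E →L[ℝ] ℝ) × ℝ) | S.Finite ∧ S ⊆ 𝓛} from ⟨hf, hS⟩)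
      ⟨h3, h4⟩
  refine (h1.biUnion fun S _ => ?_).mono h2
  refine Set.Subsingleton.countable fun p hp q hq => ?_
  have h5 := hp.2 (p - q) fun k hk => by rw [map_sub, hp.1 k hk, hq.1 k hk, sub_self]
  exact sub_eq_zero.1 h5

theorem trh_injective (a : E) : Function.Injective (trh a) := by
  rintro ⟨f, s⟩ ⟨g, t⟩ h
  simp only [trh, Prod.mk.injEq] at h
  obtain ⟨rfl, h2⟩ := h
  exact Prod.ext rfl (by simpa using h2)

/-- all inequalities of the tiles are translates by `a` of members of `𝓛` -/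
def Sh (𝓛 : Set ((E →L[ℝ] ℝ) × ℝ)) (a : E) {Om : Set E} {ι : Type*} (T : Tiling Om ι)
    (J : Set ι) : Prop := ∀ i ∈ J, ∀ k ∈ T.H i, ∃ h ∈ 𝓛, k = trh a h

theorem Sh.mono {𝓛 : Set ((E →L[ℝ] ℝ) × ℝ)} {a : E} {Om : Set E} {ι : Type*} {T : Tiling Om ι}
    {J J' : Set ι} (h : Sh 𝓛 a T J') (hJ : J ⊆ J') : Sh 𝓛 a T J := fun i hi => h i (hJ hi)

theorem Sh.of_trH {𝓗 : Set (Finset ((E →L[ℝ] ℝ) × ℝ))} {a : E} {Om : Set E} {ι : Type*}
    {T : Tiling Om ι} {J : Set ι} (h : ∀ i ∈ J, ∃ H ∈ 𝓗, T.H i = trH a H) :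
    Sh (Ineq 𝓗) a T J := by
  classical
  intro i hi k hk
  obtain ⟨H, hH, he⟩ := h i hi
  rw [he] at hk
  obtain ⟨h, hh, rfl⟩ := Finset.mem_image.1 hk
  exact ⟨h, mem_biUnion hH hh, rfl⟩

variable {Om : Set E} {ι : Type*} {T : Tiling Om ι} {𝓛 : Set ((E →L[ℝ] ℝ) × ℝ)} {a : E}

/-- **vertices of a translated tiling are translated vertices of the arrangement** -/
theorem vertex {p : E} (hT : Sh 𝓛 a T (T.at_ p)) (hp : p ∈ Om) (hV : T.V p = ⊥) :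
    p - a ∈ Vt 𝓛 := by
  set A : Set ((E →L[ℝ] ℝ) × ℝ) := {k | ∃ i ∈ T.at_ p, k ∈ T.H i ∧ k.1 p = k.2} with hA
  have hAf : A.Finite := by
    have h1 : A ⊆ ⋃ i ∈ T.at_ p, (T.H i : Set ((E →L[ℝ] ℝ) × ℝ)) := by
      rintro k ⟨i, hi, hk, -⟩
      exact mem_biUnion hi hk
    exact ((T.at_finite hp).biUnion fun i _ => (T.H i).finite_toSet).subset h1
  refine ⟨{h | h ∈ 𝓛 ∧ trh a h ∈ A}, fun h hh => hh.1, ?_, ?_, ?_⟩
  · exact (hAf.preimage (trh_injective a).injOn).subset fun h hh => hh.2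
  · rintro h ⟨-, i, -, -, hk⟩
    exact trh_eq.1 hk
  · intro w hw
    have h1 : w ∈ T.V p := by
      intro i hi k hk hke
      obtain ⟨h, hh, rfl⟩ := hT i hi k hk
      exact hw h ⟨hh, i, hi, hk, hke⟩
    rw [hV, Submodule.mem_bot] at h1
    exact h1

/-- **closed 1-cells of a translated tiling are translates of segments from one countable list** -/
theorem edge [FiniteDimensional ℝ E] {y : E} (hT : Sh 𝓛 a T {i | (P (T.H i) ∩ T.cc y).Nonempty})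
    (hy : y ∈ Om) (hd : T.dim y = 1) :
    ∃ p ∈ Vt 𝓛, ∃ q ∈ Vt 𝓛, p ≠ q ∧ T.cc y = sgm (p + a) (q - p) := by
  obtain ⟨b, c, hbc, hcc, -, hb, hc, hb', hc'⟩ := T.edge_eq hy hd
  have hv : ∀ p ∈ T.cc y, T.dim p = 0 → p - a ∈ Vt 𝓛 := by
    intro p hp hp0
    refine vertex (T := T) (hT.mono fun i hi => ⟨p, hi, hp⟩) (T.cc_sub_Om hy hp) ?_
    exact T.dim_eq_zero_iff.1 hp0
  refine ⟨b - a, hv b hb' hb, c - a, hv c hc' hc, fun h => hbc (sub_left_injective h), ?_⟩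
  rw [hcc, sgm_eq_segment]
  congr 1 <;> abel

/-- the list of edges -/
def Ls (𝓛 : Set ((E →L[ℝ] ℝ) × ℝ)) : Type _ := {pq : E × E // pq.1 ∈ Vt 𝓛 ∧ pq.2 ∈ Vt 𝓛}

theorem countable_Ls (h : 𝓛.Countable) : Countable (Ls 𝓛) := by
  have h1 : (Vt 𝓛 ×ˢ Vt 𝓛).Countable := (countable_Vt h).prod (countable_Vt h)
  exact (h1.mono fun pq hpq => hpq : {pq : E × E | pq.1 ∈ Vt 𝓛 ∧ pq.2 ∈ Vt 𝓛}.Countable).to_subtype

/-- initial point and direction of an edge of the list -/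
def Ls.x (j : Ls 𝓛) : E := j.1.1
def Ls.v (j : Ls 𝓛) : E := j.1.2 - j.1.1

theorem edge_ls [FiniteDimensional ℝ E] {y : E}
    (hT : Sh 𝓛 a T {i | (P (T.H i) ∩ T.cc y).Nonempty})
    (hy : y ∈ Om) (hd : T.dim y = 1) : ∃ j : Ls 𝓛, j.v ≠ 0 ∧ T.cc y = sgm (j.x + a) j.v := by
  obtain ⟨p, hp, q, hq, hpq, h⟩ := edge hT hy hd
  exact ⟨⟨(p, q), hp, hq⟩, sub_ne_zero.2 hpq.symm, h⟩

/-- the point `x₀` lies on no hyperplane -/
def Av (𝓛 : Set ((E →L[ℝ] ℝ) × ℝ)) (a x₀ : E) : Prop := ∀ h ∈ 𝓛, h.1 ≠ 0 → h.1 (x₀ - a) ≠ h.2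

/-- a point on no hyperplane lies in the open tiles -/
theorem Av.mem_I {x₀ : E} (h : Av 𝓛 a x₀) (hT : Sh 𝓛 a T (T.at_ x₀)) {i : ι}
    (hi : x₀ ∈ P (T.H i)) : x₀ ∈ I (T.H i) := by
  intro k hk
  refine lt_of_le_of_ne (hi k hk) fun he => ?_
  obtain ⟨h', hh', rfl⟩ := hT i hi k hk
  by_cases h0 : h'.1 = 0
  · obtain ⟨z, hz⟩ := T.ne i
    have h1 := hz _ hk
    rw [trh_eq] at he
    rw [trh_lt] at h1
    rw [h0] at he h1
    simp only [zero_apply] at he h1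
    exact absurd he h1.ne
  · exact h h' hh' h0 (trh_eq.1 he)

theorem Av.exists_I {x₀ : E} (h : Av 𝓛 a x₀) (hT : Sh 𝓛 a T (T.at_ x₀)) (hx : x₀ ∈ Om) :
    ∃ i, x₀ ∈ I (T.H i) := by
  obtain ⟨i, hi⟩ := T.cov x₀ hx
  exact ⟨i, h.mem_I hT hi⟩

theorem Av.dim {x₀ : E} (h : Av 𝓛 a x₀) (hT : Sh 𝓛 a T (T.at_ x₀)) :
    T.dim x₀ = finrank ℝ E := by
  have h1 : T.V x₀ = ⊤ := by
    rw [eq_top_iff]
    intro v _ i hi k hk he
    exact absurd he (h.mem_I hT hi k hk).ne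
  unfold Tiling.dim
  rw [h1, finrank_top]

end geom

section ae

variable {E : Type*} [NormedAddCommGroup E] [NormedSpace ℝ E] [FiniteDimensional ℝ E]
  [MeasurableSpace E] [BorelSpace E] {μ : Measure E} [μ.IsAddHaarMeasure]

theorem null_hyper (f : E →L[ℝ] ℝ) (hf : f ≠ 0) (t : ℝ) : μ {a : E | f a = t} = 0 := by
  rcases ({a : E | f a = t} : Set E).eq_empty_or_nonempty with h | ⟨a₀, ha₀⟩
  · rw [h, measure_empty]
  · have h1 : {a : E | f a = t} = (fun a => -a₀ + a) ⁻¹' (LinearMap.ker (f : E →ₗ[ℝ] ℝ) : Set E) := by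
      ext a
      simp only [mem_ofPred_eq, mem_preimage, SetLike.mem_coe, LinearMap.mem_ker]
      have : (f : E →ₗ[ℝ] ℝ) (-a₀ + a) = - f a₀ + f a := by
        simp
      rw [this]
      have h2 : f a₀ = t := ha₀
      rw [h2]
      constructor
      · intro h; linarith
      · intro h; linarith
    rw [h1, measure_preimage_add]
    refine Measure.addHaar_submodule μ _ fun h => hf ?_
    ext w
    have : w ∈ LinearMap.ker (f : E →ₗ[ℝ] ℝ) := by rw [h]; trivial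
    simpa using this

/-- almost every translate avoids the hyperplanes at countably many points -/
theorem ae_av {𝓛 : Set ((E →L[ℝ] ℝ) × ℝ)} (h𝓛 : 𝓛.Countable) {κ : Type*} [Countable κ] (x₀ : κ → E) :
    ∀ᵐ a ∂μ, ∀ c, Av 𝓛 a (x₀ c) := by
  rw [ae_all_iff]
  intro c
  have h1 : ∀ᵐ a ∂μ, ∀ h ∈ 𝓛, h.1 ≠ 0 → h.1 (x₀ c - a) ≠ h.2 := by
    refine (ae_ball_iff h𝓛).2 fun h _ => ?_
    by_cases h0 : h.1 = 0
    · exact Eventually.of_forall fun a h1 => absurd h0 h1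
    · have h2 := null_hyper (μ := μ) h.1 h0 (h.1 (x₀ c) - h.2)
      have h3 : ∀ᵐ a ∂μ, ¬ (h.1 a = h.1 (x₀ c) - h.2) := by
        rw [ae_iff]
        simpa using h2
      filter_upwards [h3] with a ha _ he
      rw [map_sub] at he
      exact ha (by linarith)
  exact h1

/-- **[ACLT]**: for almost every `a`, every closed 1-cell of EVERY tiling whose inequalities are
translates by `a` of members of the countable set `𝓛` is one of the segments `j.x + a, j.v` of one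
countable list, and all functions `u c` are absolutely continuous on it -/
theorem aclt {𝓛 : Set ((E →L[ℝ] ℝ) × ℝ)} (h𝓛 : 𝓛.Countable) {Om' : Set E} (hO : IsOpen Om')
    {𝒞 : Type*} [Countable 𝒞] {u : 𝒞 → E → ℝ} (hu : ∀ c, ContinuousOn (u c) Om')
    {g : 𝒞 → E → E → ℝ} (hg : ∀ c v, WD Om' μ (u c) (g c v) v) :
    ∀ᵐ a ∂μ, ∀ j : Ls 𝓛, ∀ c, ACLat Om' (u c) (g c j.v) j.v (j.x + a) := by
  have := countable_Ls h𝓛
  have h1 := ae_shift (μ := μ) hO (fun j : Ls 𝓛 => j.x) (fun j : Ls 𝓛 => j.v) (u := u)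
    (g := fun c j => g c j.v) hu fun c j => hg c j.v
  filter_upwards [h1] with a ha j c using ha c j

/-- the cell form of `aclt` -/
theorem aclt_cell {𝓛 : Set ((E →L[ℝ] ℝ) × ℝ)} (h𝓛 : 𝓛.Countable) {Om' : Set E} (hO : IsOpen Om')
    {𝒞 : Type*} [Countable 𝒞] {u : 𝒞 → E → ℝ} (hu : ∀ c, ContinuousOn (u c) Om')
    {g : 𝒞 → E → E → ℝ} (hg : ∀ c v, WD Om' μ (u c) (g c v) v) :
    ∀ᵐ a ∂μ, ∀ (Om : Set E) (ι : Type) (T : Tiling Om ι), ∀ y ∈ Om, T.dim y = 1 →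
      Sh 𝓛 a T {i | (P (T.H i) ∩ T.cc y).Nonempty} → ∃ j : Ls 𝓛, j.v ≠ 0 ∧
        T.cc y = sgm (j.x + a) j.v ∧ ∀ c, ACLat Om' (u c) (g c j.v) j.v (j.x + a) := by
  filter_upwards [aclt h𝓛 hO hu hg] with a ha Om ι T y hy hd hT
  obtain ⟨j, hj, hc⟩ := edge_ls hT hy hd
  exact ⟨j, hj, hc, ha j⟩

end ae

end

end Crest.Agent.R096.Aclt_608
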