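import Crest.Agent.R096.Core1_124

/-!
Row 96, U3 (CORE3): from an edge on which `f` is close to an affine map to the level
structure of a nearly affine function `S ∘ f`; selection of the position of the core
graph; no intruders.
-/

namespace Crest.Agent.R096.Core_124

open MeasureTheory Set Filter Topology Metric

noncomputable section

section seg

variable {F : Type*} [NormedAddCommGroup F] [NormedSpace ℝ F]

/-- a curve `c` on `[0,1]`, close to the affine curve `y0 + t u`, with integrable defect of its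
increments -/
structure NearSeg (c : ℝ → F) (g : ℝ → ℝ) (y0 u : F) (ε : ℝ) : Prop where
  cont : ContinuousOn c (Icc 0 1)
  int : IntervalIntegrable g volume 0 1
  nonneg : ∀ t ∈ Icc (0:ℝ) 1, 0 ≤ g t
  inc : ∀ s ∈ Icc (0:ℝ) 1, ∀ t ∈ Icc (0:ℝ) 1, s ≤ t → ‖c t - c s - (t - s) • u‖ ≤ ∫ τ in s..t, g τ
  close : ∀ t ∈ Icc (0:ℝ) 1, ‖c t - (y0 + t • u)‖ ≤ ε

/-- `S` is `L`-Lipschitz on `N` and affine with slope `β` up to `κ` in the direction `u` on `N`,
`N` contains the `ε`-neighbourhood of the segment `[y0, y0 + u]` -/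
structure NearAff (S : F → ℝ) (y0 u : F) (ε L κ β : ℝ) (N : Set F) : Prop where
  L0 : 0 ≤ L
  κ0 : 0 ≤ κ
  ε0 : 0 ≤ ε
  sub : ∀ t ∈ Icc (0:ℝ) 1, closedBall (y0 + t • u) ε ⊆ N
  lip : ∀ y ∈ N, ∀ y' ∈ N, |S y - S y'| ≤ L * ‖y - y'‖
  aff : ∀ y ∈ N, ∀ τ ∈ Icc (0:ℝ) 1, y + τ • u ∈ N → |S (y + τ • u) - S y - β * τ| ≤ κ * τ

variable {c : ℝ → F} {g : ℝ → ℝ} {y0 u : F} {ε L κ β : ℝ} {S : F → ℝ} {N : Set F}

theorem NearAff.neg (h : NearAff S y0 u ε L κ β N) : NearAff (fun y => - S y) y0 u ε L κ (-β) N where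
  L0 := h.L0
  κ0 := h.κ0
  ε0 := h.ε0
  sub := h.sub
  lip := fun y hy y' hy' => by
    have := h.lip y hy y' hy'
    rwa [show -S y - -S y' = -(S y - S y') by ring, abs_neg]
  aff := fun y hy τ hτ hN => by
    have := h.aff y hy τ hτ hN
    rwa [show -S (y + τ • u) - -S y - -β * τ = -(S (y + τ • u) - S y - β * τ) by ring, abs_neg]

/-- the level function on the edge -/
theorem NearSeg.near (hc : NearSeg c g y0 u ε) (hS : NearAff S y0 u ε L κ β N) :
    Near (fun t => S (c t)) (fun τ => L * g τ + κ) (S y0) β (L * ε + κ) := by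
  have hmem : ∀ t ∈ Icc (0:ℝ) 1, c t ∈ N := fun t ht =>
    hS.sub t ht (by rw [mem_closedBall, dist_eq_norm]; exact hc.close t ht)
  have hmem' : ∀ s ∈ Icc (0:ℝ) 1, ∀ t ∈ Icc (0:ℝ) 1, c s + (t - s) • u ∈ N := fun s hs t ht => by
    refine hS.sub t ht ?_
    rw [mem_closedBall, dist_eq_norm]
    have : c s + (t - s) • u - (y0 + t • u) = c s - (y0 + s • u) := by
      rw [sub_smul]; abel
    rw [this]; exact hc.close s hs
  have hline : ∀ t ∈ Icc (0:ℝ) 1, y0 + t • u ∈ N := fun t ht =>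
    hS.sub t ht (mem_closedBall_self hS.ε0)
  refine ⟨?_, ?_, ?_, ?_, ?_⟩
  · have hl : ContinuousOn S N := by
      have : LipschitzOnWith (Real.toNNReal L) S N := by
        refine LipschitzOnWith.of_dist_le_mul (fun y hy y' hy' => ?_)
        rw [Real.dist_eq, dist_eq_norm, Real.coe_toNNReal L hS.L0]
        exact hS.lip y hy y' hy'
      exact this.continuousOn
    exact hl.comp hc.cont hmem
  · exact (hc.int.const_mul L).add intervalIntegrable_const
  · intro t ht
    have := mul_nonneg hS.L0 (hc.nonneg t ht)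
    have := hS.κ0
    linarith
  · intro s hs t ht hst
    have hτ : t - s ∈ Icc (0:ℝ) 1 := ⟨by linarith, by linarith [hs.1, ht.2]⟩
    have e1 := hS.lip (c t) (hmem t ht) (c s + (t - s) • u) (hmem' s hs t ht)
    have e2 := hS.aff (c s) (hmem s hs) (t - s) hτ (hmem' s hs t ht)
    have e3 : ‖c t - (c s + (t - s) • u)‖ ≤ ∫ τ in s..t, g τ := by
      have := hc.inc s hs t ht hst
      rwa [← sub_sub]
    have hgi : IntervalIntegrable g volume s t := by
      refine hc.int.mono_set ?_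
      rw [uIcc_of_le (zero_le_one' ℝ)]
      exact uIcc_subset_Icc hs ht
    have e4 : ∫ τ in s..t, (L * g τ + κ) = L * (∫ τ in s..t, g τ) + κ * (t - s) := by
      rw [intervalIntegral.integral_add (hgi.const_mul L) intervalIntegrable_const,
        intervalIntegral.integral_const_mul, intervalIntegral.integral_const, smul_eq_mul]
      ring
    rw [e4]
    calc |S (c t) - S (c s) - β * (t - s)|
        = |(S (c t) - S (c s + (t - s) • u)) + (S (c s + (t - s) • u) - S (c s) - β * (t - s))| := by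
          congr 1; ring
      _ ≤ |S (c t) - S (c s + (t - s) • u)| + |S (c s + (t - s) • u) - S (c s) - β * (t - s)| :=
          abs_add_le _ _
      _ ≤ L * (∫ τ in s..t, g τ) + κ * (t - s) :=
          add_le_add (e1.trans (mul_le_mul_of_nonneg_left e3 hS.L0)) e2
  · intro t ht
    have e1 := hS.lip (c t) (hmem t ht) (y0 + t • u) (hline t ht)
    have h0 : y0 ∈ N := by simpa using hline 0 (left_mem_Icc.2 zero_le_one)
    have e2 := hS.aff y0 h0 t ht (hline t ht)
    have e3 := mul_le_mul_of_nonneg_left (hc.close t ht) hS.L0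
    have e4 : κ * t ≤ κ := by
      calc κ * t ≤ κ * 1 := mul_le_mul_of_nonneg_left ht.2 hS.κ0
        _ = κ := mul_one κ
    calc |S (c t) - (S y0 + β * t)|
        = |(S (c t) - S (y0 + t • u)) + (S (y0 + t • u) - S y0 - β * t)| := by congr 1; ring
      _ ≤ |S (c t) - S (y0 + t • u)| + |S (y0 + t • u) - S y0 - β * t| := abs_add_le _ _
      _ ≤ L * ε + κ := add_le_add (e1.trans e3) (e2.trans e4)

/-- the exact crossing pattern of an affine function of any slope -/
def ExactZ (v : ℝ → ℝ) (a b y : ℝ) : Prop :=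
  (0 ≤ b → Exact v a b y) ∧ (b ≤ 0 → Exact (fun t => - v t) (-a) (-b) (-y))

/-- **bad levels on one edge** for a nearly affine function `S` of any slope -/
theorem NearSeg.bad_levels (hc : NearSeg c g y0 u ε) (hS : NearAff S y0 u ε L κ β N) :
    ∃ Bad : Set ℝ, MeasurableSet Bad ∧
      volume Bad ≤ ENNReal.ofReal (4 * (L * ∫ τ in (0:ℝ)..1, g τ) + 8 * L * ε + 12 * κ) ∧
      ∀ y ∉ Bad, ExactZ (fun t => S (c t)) (S y0) β y := by
  have hG0 : 0 ≤ ∫ τ in (0:ℝ)..1, g τ := intervalIntegral.integral_nonneg zero_le_one hc.nonneg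
  have e4 : ∫ τ in (0:ℝ)..1, (L * g τ + κ) = L * (∫ τ in (0:ℝ)..1, g τ) + κ := by
    rw [intervalIntegral.integral_add (hc.int.const_mul L) intervalIntegrable_const,
      intervalIntegral.integral_const_mul, intervalIntegral.integral_const, smul_eq_mul]
    ring
  have pos : ∀ {β' : ℝ} {S' : F → ℝ}, NearAff S' y0 u ε L κ β' N → 0 ≤ β' →
      ∃ Bad : Set ℝ, MeasurableSet Bad ∧
      volume Bad ≤ ENNReal.ofReal (2 * (L * ∫ τ in (0:ℝ)..1, g τ) + 4 * L * ε + 6 * κ) ∧
      ∀ y ∉ Bad, Exact (fun t => S' (c t)) (S' y0) β' y := by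
    intro β' S' hS' hβ
    obtain ⟨Bad, h1, h2, h3⟩ := (hc.near hS').bad_levels hβ
    refine ⟨Bad, h1, h2.trans (ENNReal.ofReal_le_ofReal ?_), h3⟩
    rw [e4]
    nlinarith [hS.κ0]
  have hLG := mul_nonneg hS.L0 hG0
  have hLe := mul_nonneg hS.L0 hS.ε0
  have hκ := hS.κ0
  classical
  have P1 : ∃ Bad : Set ℝ, MeasurableSet Bad ∧
      volume Bad ≤ ENNReal.ofReal (2 * (L * ∫ τ in (0:ℝ)..1, g τ) + 4 * L * ε + 6 * κ) ∧
      ∀ y ∉ Bad, 0 ≤ β → Exact (fun t => S (c t)) (S y0) β y := by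
    by_cases hβ : 0 ≤ β
    · obtain ⟨Bad, h1, h2, h3⟩ := pos hS hβ
      exact ⟨Bad, h1, h2, fun y hy _ => h3 y hy⟩
    · exact ⟨∅, MeasurableSet.empty, by simp, fun y _ h => absurd h hβ⟩
  have P2 : ∃ Bad : Set ℝ, MeasurableSet Bad ∧
      volume Bad ≤ ENNReal.ofReal (2 * (L * ∫ τ in (0:ℝ)..1, g τ) + 4 * L * ε + 6 * κ) ∧
      ∀ y ∉ Bad, β ≤ 0 → Exact (fun t => - S (c t)) (- S y0) (-β) (-y) := by
    by_cases hβ : β ≤ 0
    · obtain ⟨Bad, h1, h2, h3⟩ := pos hS.neg (by linarith : (0:ℝ) ≤ -β)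
      refine ⟨Neg.neg ⁻¹' Bad, measurable_neg h1, ?_, fun y hy _ => h3 (-y) hy⟩
      have : volume (Neg.neg ⁻¹' Bad) = volume Bad := Measure.measure_preimage_neg volume Bad
      rw [this]; exact h2
    · exact ⟨∅, MeasurableSet.empty, by simp, fun y _ h => absurd h hβ⟩
  obtain ⟨B1, a1, a2, a3⟩ := P1
  obtain ⟨B2, b1, b2, b3⟩ := P2
  refine ⟨B1 ∪ B2, a1.union b1, ?_, fun y hy => ⟨a3 y (fun h => hy (Or.inl h)), b3 y (fun h => hy (Or.inr h))⟩⟩
  refine (measure_union_le _ _).trans ((add_le_add a2 b2).trans ?_)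
  have nn : 0 ≤ 2 * (L * ∫ τ in (0:ℝ)..1, g τ) + 4 * L * ε + 6 * κ := by
    have : 4 * L * ε = 4 * (L * ε) := by ring
    rw [this]; linarith
  rw [← ENNReal.ofReal_add nn nn]
  exact ENNReal.ofReal_le_ofReal (by linarith)

end seg

section select

variable {E : Type*} [NormedAddCommGroup E] [NormedSpace ℝ E] [MeasurableSpace E] [BorelSpace E]
  [SecondCountableTopology E]

theorem qmp_seg (μ : Measure E) [SFinite μ] [μ.IsAddRightInvariant] (p w : E) (B : Set E) (I : Set ℝ) :
    Measure.QuasiMeasurePreserving (fun q : E × ℝ => q.1 + (p + q.2 • w))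
      ((μ.restrict B).prod (volume.restrict I)) μ := by
  have hm : Measurable (fun q : E × ℝ => q.1 + (p + q.2 • w)) := by fun_prop
  refine ⟨hm, ?_⟩
  refine Measure.AbsolutelyContinuous.mk (fun s hs h0 => ?_)
  rw [Measure.map_apply hm hs, Measure.prod_apply_symm (hm hs)]
  have : ∀ t : ℝ, (μ.restrict B) ((fun x => (x, t)) ⁻¹' ((fun q : E × ℝ => q.1 + (p + q.2 • w)) ⁻¹' s)) = 0 := by
    intro t
    refine le_antisymm ((Measure.restrict_apply_le _ _).trans ?_) bot_le
    have e : ((fun x => (x, t)) ⁻¹' ((fun q : E × ℝ => q.1 + (p + q.2 • w)) ⁻¹' s))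
        = (fun x : E => x + (p + t • w)) ⁻¹' s := rfl
    rw [e, measure_preimage_add_right, h0]
  simp [this]

/-- **selection of positions**: average over translates of the line integrals -/
theorem seg_avg (μ : Measure E) [SFinite μ] [μ.IsAddRightInvariant] {B B' : Set E} {p w : E}
    (hsub : ∀ x ∈ B, ∀ t ∈ Icc (0:ℝ) 1, x + (p + t • w) ∈ B')
    {h : E → ENNReal} (hh : AEMeasurable h μ) (hB : MeasurableSet B) (hB' : MeasurableSet B') :
    ∫⁻ x in B, (∫⁻ t in Icc (0:ℝ) 1, h (x + (p + t • w))) ∂μ ≤ ∫⁻ x in B', h x ∂μ := by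
  have hae : AEMeasurable (fun q : E × ℝ => h (q.1 + (p + q.2 • w)))
      ((μ.restrict B).prod (volume.restrict (Icc (0:ℝ) 1))) :=
    hh.comp_quasiMeasurePreserving (qmp_seg μ p w B (Icc 0 1))
  rw [lintegral_lintegral_swap (f := fun x t => h (x + (p + t • w))) hae]
  calc ∫⁻ t in Icc (0:ℝ) 1, (∫⁻ x in B, h (x + (p + t • w)) ∂μ)
      ≤ ∫⁻ t in Icc (0:ℝ) 1, (∫⁻ x in B', h x ∂μ) := by
        refine setLIntegral_mono' measurableSet_Icc (fun t ht => ?_)
        have hmp : MeasurePreserving (fun x : E => x + (p + t • w)) μ μ :=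
          measurePreserving_add_right μ _
        have e : ∫⁻ x in B', h x ∂μ
            = ∫⁻ x in (fun x : E => x + (p + t • w)) ⁻¹' B', h (x + (p + t • w)) ∂μ := by
          rw [← hmp.setLIntegral_comp_preimage_emb (MeasurableEquiv.addRight _).measurableEmbedding]
        rw [e]
        exact lintegral_mono_set (fun x hx => hsub x hx t ht)
    _ = ∫⁻ x in B', h x ∂μ := by simp

theorem seg_cheb (μ : Measure E) [SFinite μ] [μ.IsAddRightInvariant] {B B' : Set E} {p w : E}
    (hsub : ∀ x ∈ B, ∀ t ∈ Icc (0:ℝ) 1, x + (p + t • w) ∈ B')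
    {h : E → ENNReal} (hh : AEMeasurable h μ) (hB : MeasurableSet B) (hB' : MeasurableSet B') (c : ENNReal) :
    c * μ {x ∈ B | c ≤ ∫⁻ t in Icc (0:ℝ) 1, h (x + (p + t • w))} ≤ ∫⁻ x in B', h x ∂μ := by
  have hae : AEMeasurable (fun q : E × ℝ => h (q.1 + (p + q.2 • w)))
      ((μ.restrict B).prod (volume.restrict (Icc (0:ℝ) 1))) :=
    hh.comp_quasiMeasurePreserving (qmp_seg μ p w B (Icc 0 1))
  have h1 : AEMeasurable (fun x => ∫⁻ t in Icc (0:ℝ) 1, h (x + (p + t • w))) (μ.restrict B) :=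
    hae.lintegral_prod_right'
  have h2 := mul_meas_ge_le_lintegral₀ h1 c
  refine le_trans ?_ (h2.trans (seg_avg μ hsub hh hB hB'))
  refine mul_le_mul_right ?_ c
  rw [Measure.restrict_apply₀' hB.nullMeasurableSet]
  exact measure_mono (fun x hx => ⟨hx.2, hx.1⟩)

end select

section intruders

variable {E F : Type*} [TopologicalSpace E] [TopologicalSpace F]

/-- **no intruders**: `f` continuous and open on an open set containing the compact `K`, `P` connected,
disjoint from `f '' frontier`, meeting `f '' interior` ==> `P` is covered by `f '' interior K`. -/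
theorem covers {f : E → F} {K : Set E} [T2Space F] (hK : IsCompact K) (hf : ContinuousOn f K)
    (hopen : IsOpen (f '' interior K)) {P : Set F} (hP : IsPreconnected P)
    (hdis : ∀ x ∈ K, x ∉ interior K → f x ∉ P) (hne : (P ∩ f '' interior K).Nonempty) :
    P ⊆ f '' interior K := by
  have hcl : IsClosed (f '' K) := (hK.image_of_continuousOn hf).isClosed
  refine hP.subset_of_closure_inter_subset hopen hne ?_
  intro y hy
  have h1 : y ∈ f '' K := by
    have : closure (f '' interior K) ⊆ f '' K :=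
      closure_minimal (image_mono interior_subset) hcl
    exact this hy.1
  obtain ⟨x, hx, rfl⟩ := h1
  by_cases hxi : x ∈ interior K
  · exact mem_image_of_mem f hxi
  · exact absurd hy.2 (hdis x hx hxi)

theorem no_intruders {f : E → F} {Om K : Set E} [T2Space F] (hinj : InjOn f Om) (hKO : K ⊆ Om)
    (hK : IsCompact K) (hf : ContinuousOn f K)
    (hopen : IsOpen (f '' interior K)) {P : Set F} (hP : IsPreconnected P)
    (hdis : ∀ x ∈ K, x ∉ interior K → f x ∉ P) (hne : (P ∩ f '' interior K).Nonempty) :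
    ∀ x ∈ Om, f x ∈ P → x ∈ interior K := by
  intro x hx hxP
  obtain ⟨z, hz, hzx⟩ := covers hK hf hopen hP hdis hne hxP
  have := hinj (hKO (interior_subset hz)) hx hzx
  rwa [← this]

end intruders

end

end Crest.Agent.R096.Core_124
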