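import Crest.Agent.R096.EaX1_766
import Crest.Agent.R096.Core2_124
import Crest.Agent.R96.Sg5_199

/-!
Row 96 (S0127), helper365.  **EXIN-AVG**, part 1: for most translates `w`, the derivative of a Sobolev
homeomorphism is `L^p`-close to the affine map `A` on every segment of a finite family, in the
coordinates `A` (no condition number of `A`).
-/

set_option autoImplicit false
set_option linter.style.longLine false
set_option linter.unusedSectionVars false

open MeasureTheory Set Filter Topology Metric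
open scoped ENNReal NNReal

namespace Crest.Agent.R096.Exa_365

open Crest.AnalysisR.VecCalc3 Crest.AnalysisR.Sobolev
open Crest.Agent.R096.SkC1_961 (E3 Hom3)
open Crest.Agent.R096.Er_594 (SH3)
open Crest.Agent.R096.EaX_766 (lin cbx ExIn)
open Crest.Agent.R96.Acl_392 Crest.Agent.R96.Sob4_199 Crest.Agent.R96.Sg1_199
open Crest.Agent.R96.Sg2_199 Crest.Agent.R96.Sg5_199 Crest.Agent.R96.En10_199
open Crest.Agent.R096.Core_124 (NearSeg)

noncomputable section

/-- relative defect of the derivative in the coordinates `A` -/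
def Gd (A : E3 ≃ᵃ[ℝ] E3) (D : E3 → E3 →L[ℝ] E3) (x : E3) : ℝ≥0∞ :=
  ‖(D x).comp (lin A.symm) - ContinuousLinearMap.id ℝ E3‖ₑ

/-- the translate `w` is good for all segments `x j, v j` -/
structure GoodW {J : Type*} (p : ℝ) (Om : Set E3) (f : E3 → E3) (D : E3 → E3 →L[ℝ] E3)
    (A : E3 ≃ᵃ[ℝ] E3) (x v : J → E3) (η : ℝ≥0∞) (w : E3) : Prop where
  ac : ∀ (i : Fin 3) j, ACLat Om (fun y => f y i) (fun y => D y (v j) i) (v j) (x j + w)
  ms : ∀ j, AEStronglyMeasurable (fun τ : ℝ => D (x j + w + τ • v j)) (volume.restrict (Icc (0:ℝ) 1))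
  sm : ∀ j, li (fun y => Gd A D y ^ p) (x j + w) (v j) ≤ η

variable {p : ℝ} {Om La : Set E3} {f : E3 → E3} {D : E3 → E3 →L[ℝ] E3} {A : E3 ≃ᵃ[ℝ] E3}

/-- the coordinates of `f` have the weak derivative `D v` in every direction `v` -/
theorem wd_coord (h : SH3 p Om La f D) (v : E3) (i : Fin 3) :
    Crest.Agent.R96.Acl_392.WD Om volume (fun y => f y i) (fun y => D y v i) v := by
  have h1 : ∀ l : Fin 3, Crest.Agent.R96.Acl_392.WD Om volume (fun y => f y i)
      (fun y => D y (Pi.single l 1) i) (Pi.single l (1:ℝ)) := by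
    intro l
    have h2 := h.vwd l i
    simpa only [P3_apply] using h2
  have h2 := wd_dir h1 v
  have h3 : gdir (fun l y => D y (Pi.single l 1) i) v = fun y => D y v i := by
    funext y
    unfold gdir
    have h4 : v = ∑ l, v l • (Pi.single l (1:ℝ) : E3) := by
      funext m
      simp [Finset.sum_apply, Pi.single_apply]
    conv_rhs => rw [h4, map_sum]
    rw [Finset.sum_apply]
    refine Finset.sum_congr rfl fun l _ => ?_
    rw [map_smul, Pi.smul_apply, smul_eq_mul]
  rwa [h3] at h2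

theorem ae_ac (hO : IsOpen Om) (h : SH3 p Om La f D) {J : Type*} [Countable J] (x v : J → E3) :
    ∀ᵐ w : E3, ∀ (i : Fin 3) j, ACLat Om (fun y => f y i) (fun y => D y (v j) i) (v j) (x j + w) := by
  obtain ⟨fi, -, -, -, -, hc, -⟩ := h.homeo
  have hcc : ∀ i : Fin 3, ContinuousOn (fun y => f y i) Om := fun i =>
    (continuous_apply i).comp_continuousOn hc
  exact ae_shift (μ := volume) hO x v (u := fun (i : Fin 3) y => f y i)
    (g := fun i j y => D y (v j) i) hcc fun i j => wd_coord h (v j) i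

/-- null sets are missed by a.e. translate of a segment -/
theorem ae_miss {N : Set E3} (hN : volume N = 0) (hNm : MeasurableSet N) (x v : E3) :
    ∀ᵐ w : E3, ∀ᵐ τ ∂(volume.restrict (Icc (0:ℝ) 1)), x + w + τ • v ∉ N := by
  have hG : Measurable (N.indicator (fun _ => (1:ℝ≥0∞))) := measurable_one.indicator hNm
  have h1 := tonelli_one (μ := (volume : Measure E3)) (B := univ) MeasurableSet.univ hG (x := x) (v := v)
  have h2 : ∫⁻ z : E3, N.indicator (fun _ => (1:ℝ≥0∞)) z * dn univ x v z = 0 := by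
    rw [lintegral_eq_zero_iff']
    · have h3 : ∀ᵐ z : E3, z ∉ N := measure_eq_zero_iff_ae_notMem.1 hN
      filter_upwards [h3] with z hz
      simp [hz]
    · refine AEMeasurable.mul hG.aemeasurable ?_
      unfold dn
      have hc : Continuous fun q : E3 × ℝ => q.1 - (x + q.2 • v) := by fun_prop
      have hS : MeasurableSet {q : E3 × ℝ | q.2 ∈ Icc (0:ℝ) 1 ∧ q.1 - (x + q.2 • v) ∈ (univ : Set E3)} :=
        (measurable_snd measurableSet_Icc).inter (hc.measurable MeasurableSet.univ)
      exact (measurable_measure_prodMk_left hS).aemeasurable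
  rw [h2, Measure.restrict_univ] at h1
  have h4 := (lintegral_eq_zero_iff (measurable_li hG x v)).1 h1
  filter_upwards [h4] with w hw
  have hc : Continuous fun τ : ℝ => x + w + τ • v := by fun_prop
  have h5 : ∫⁻ τ in Icc (0:ℝ) 1, N.indicator (fun _ => (1:ℝ≥0∞)) (x + w + τ • v) = 0 := hw
  have h6 := (lintegral_eq_zero_iff (hG.comp hc.measurable)).1 h5
  filter_upwards [h6] with τ hτ hn
  simp [hn] at hτ

/-- **MOST TRANSLATES ARE GOOD** -/
theorem exin_avg (hO : IsOpen Om) (h : SH3 p Om La f D) {J : Type*} [Fintype J]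
    (x v : J → E3) {W V : Set E3} (hW : MeasurableSet W) (hV : MeasurableSet V) (hVO : V ⊆ Om)
    (hsub : ∀ w ∈ W, ∀ j, sgm (x j + w) (v j) ⊆ V) {η θ : ℝ≥0∞} (hη : η ≠ 0) (hη' : η ≠ ∞)
    (hsm : (Fintype.card J : ℝ≥0∞) * ∫⁻ z in V, Gd A D z ^ p ≤ θ * η * volume W) :
    volume {w | w ∈ W ∧ ¬ GoodW p Om f D A x v η w} ≤ θ * volume W := by
  classical
  set Dm : E3 → E3 →L[ℝ] E3 := h.aesm.mk D with hDm
  have hDmm : StronglyMeasurable Dm := h.aesm.stronglyMeasurable_mk
  have hDe : D =ᵐ[volume.restrict Om] Dm := h.aesm.ae_eq_mk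
  -- the null set
  have hN0 : volume {z | z ∈ Om ∧ D z ≠ Dm z} = 0 := by
    have h1 := (ae_restrict_iff' hO.measurableSet).1 hDe
    rw [ae_iff] at h1
    convert h1 using 2
    ext z
    simp only [mem_setOf_eq]
    tauto
  set N : Set E3 := toMeasurable volume {z | z ∈ Om ∧ D z ≠ Dm z} with hNdef
  have hN : volume N = 0 := by rw [hNdef, measure_toMeasurable]; exact hN0
  have hNm : MeasurableSet N := measurableSet_toMeasurable _ _
  have hNs : ∀ z ∈ Om, z ∉ N → D z = Dm z := by
    intro z hz hzN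
    by_contra hne
    exact hzN (subset_toMeasurable _ _ ⟨hz, hne⟩)
  set G' : E3 → ℝ≥0∞ := fun z => Gd A Dm z ^ p with hG'
  have hGm : Measurable G' := by
    have h1 : Measurable fun z => ‖(Dm z).comp (lin A.symm) - ContinuousLinearMap.id ℝ E3‖ₑ := by
      have h2 : StronglyMeasurable fun z => (Dm z).comp (lin A.symm) - ContinuousLinearMap.id ℝ E3 := by
        have h3 : Continuous fun L : E3 →L[ℝ] E3 => L.comp (lin A.symm) - ContinuousLinearMap.id ℝ E3 := by
          fun_prop
        exact h3.comp_stronglyMeasurable hDmm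
      exact h2.enorm
    exact h1.pow_const p
  have hmiss : ∀ᵐ w : E3, ∀ j, ∀ᵐ τ ∂(volume.restrict (Icc (0:ℝ) 1)), x j + w + τ • v j ∉ N :=
    ae_all_iff.2 fun j => ae_miss hN hNm (x j) (v j)
  -- the bad set
  have hbad : {w | w ∈ W ∧ ¬ GoodW p Om f D A x v η w} ⊆
      {w | w ∈ W ∧ η ≤ ∑' j, 1 * li G' (x j + w) (v j)} ∪
      ({w | ¬ ∀ (i : Fin 3) j, ACLat Om (fun y => f y i) (fun y => D y (v j) i) (v j) (x j + w)} ∪
      {w | ¬ ∀ j, ∀ᵐ τ ∂(volume.restrict (Icc (0:ℝ) 1)), x j + w + τ • v j ∉ N}) := by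
    rintro w ⟨hw, hg⟩
    by_contra hcon
    simp only [mem_union, mem_setOf_eq, not_or, not_and, not_not, not_le] at hcon
    obtain ⟨h1, h2, h3⟩ := hcon
    have h1 := h1 hw
    apply hg
    have hin : ∀ j, ∀ τ ∈ Icc (0:ℝ) 1, x j + w + τ • v j ∈ Om := fun j τ hτ =>
      hVO (hsub w hw j ⟨τ, hτ, rfl⟩)
    have heq : ∀ j, ∀ᵐ τ ∂(volume.restrict (Icc (0:ℝ) 1)),
        D (x j + w + τ • v j) = Dm (x j + w + τ • v j) := by
      intro j
      filter_upwards [h3 j, ae_restrict_mem measurableSet_Icc] with τ hτ hτ'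
      exact hNs _ (hin j τ hτ') hτ
    refine ⟨h2, fun j => ?_, fun j => ?_⟩
    · have hc : Continuous fun τ : ℝ => x j + w + τ • v j := by fun_prop
      refine ((hDmm.comp_measurable hc.measurable).aestronglyMeasurable).congr ?_
      filter_upwards [heq j] with τ hτ
      exact hτ.symm
    · have h4 : li (fun y => Gd A D y ^ p) (x j + w) (v j) = li G' (x j + w) (v j) := by
        unfold li
        apply lintegral_congr_ae
        filter_upwards [heq j] with τ hτ
        simp only [hG', Gd, hτ]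
      rw [h4]
      have h5 : 1 * li G' (x j + w) (v j) ≤ ∑' j, 1 * li G' (x j + w) (v j) :=
        ENNReal.le_tsum (f := fun j => 1 * li G' (x j + w) (v j)) j
      rw [one_mul] at h5
      exact h5.trans h1.le
  have hn1 : volume {w : E3 | ¬ ∀ (i : Fin 3) j, ACLat Om (fun y => f y i) (fun y => D y (v j) i) (v j) (x j + w)} = 0 :=
    ae_iff.1 (ae_ac hO h x v)
  have hn2 : volume {w : E3 | ¬ ∀ j, ∀ᵐ τ ∂(volume.restrict (Icc (0:ℝ) 1)), x j + w + τ • v j ∉ N} = 0 :=
    ae_iff.1 hmiss
  -- the mean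
  have hmean : ∫⁻ w in W, ∑' j, 1 * li G' (x j + w) (v j) ≤
      (Fintype.card J : ℝ≥0∞) * ∫⁻ z in V, G' z := by
    refine tonelli_le (μ := (volume : Measure E3)) hW (G := fun _ => G') (fun _ => hGm) (fun _ => 1) x v
      (H := G') (c := fun _ => 1) (Eventually.of_forall fun z j => by rw [one_mul]) hV ?_
      (ENNReal.natCast_ne_top _) ?_
    · intro j z hz _
      apply dn_eq_zero
      intro y hy hB
      apply hz
      obtain ⟨τ, hτ, rfl⟩ := hy
      refine hsub _ hB j ⟨τ, hτ, ?_⟩
      simp only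
      abel
    · intro z _
      rw [tsum_fintype]
      calc ∑ j : J, 1 * (1 * dn W (x j) (v j) z) ≤ ∑ _j : J, 1 := by
            refine Finset.sum_le_sum fun j _ => ?_
            rw [one_mul, one_mul]
            exact dn_le_one _ _ _ _
        _ = (Fintype.card J : ℝ≥0∞) := by simp
  have hGV : ∫⁻ z in V, G' z = ∫⁻ z in V, Gd A D z ^ p := by
    apply setLIntegral_congr_fun_ae hV
    have h1 : ∀ᵐ z : E3, z ∉ N := measure_eq_zero_iff_ae_notMem.1 hN
    filter_upwards [h1] with z hz hzV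
    simp only [hG', Gd, hNs z (hVO hzV) hz]
  have hlm : Measurable fun w : E3 => ∑' j, 1 * li G' (x j + w) (v j) :=
    Measurable.ennreal_tsum fun j => (measurable_li hGm (x j) (v j)).const_mul _
  have hmk : η * volume {w | w ∈ W ∧ η ≤ ∑' j, 1 * li G' (x j + w) (v j)} ≤ θ * η * volume W := by
    have h1 := mul_meas_ge_le_lintegral (μ := volume.restrict W) hlm η
    have h2 : (volume.restrict W) {w | η ≤ ∑' j, 1 * li G' (x j + w) (v j)} =
        volume {w | w ∈ W ∧ η ≤ ∑' j, 1 * li G' (x j + w) (v j)} := by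
      rw [Measure.restrict_apply (measurableSet_le measurable_const hlm)]
      congr 1
      ext w
      simp only [mem_inter_iff, mem_setOf_eq]
      tauto
    rw [h2] at h1
    refine h1.trans (hmean.trans ?_)
    rw [hGV]
    exact hsm
  have hfin : volume {w | w ∈ W ∧ η ≤ ∑' j, 1 * li G' (x j + w) (v j)} ≤ θ * volume W := by
    have h1 : η * volume {w | w ∈ W ∧ η ≤ ∑' j, 1 * li G' (x j + w) (v j)} ≤ η * (θ * volume W) := by
      refine hmk.trans (le_of_eq ?_)
      ring
    exact (ENNReal.mul_le_mul_iff_right hη hη').1 h1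
  calc volume {w | w ∈ W ∧ ¬ GoodW p Om f D A x v η w}
      ≤ volume {w | w ∈ W ∧ η ≤ ∑' j, 1 * li G' (x j + w) (v j)} + (0 + 0) := by
        refine (measure_mono hbad).trans ((measure_union_le _ _).trans ?_)
        gcongr
        refine (measure_union_le _ _).trans ?_
        rw [hn1, hn2]
    _ ≤ θ * volume W := by rw [add_zero, add_zero]; exact hfin

end

end Crest.Agent.R096.Exa_365
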