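/-
helper222, row 96, LEVSEL part 1: simultaneous choice of the offsets of the levels of countably many
bricks.  The threshold `m0` does not depend on the null sets, so the choice can be made one brick
after the other and the levels of different bricks never meet on an edge (`sep`).
-/
import Mathlib
import Crest.Agent.R96.Sg1_199

set_option autoImplicit false

open MeasureTheory Set Filter
open scoped Topology ENNReal

namespace Crest.Agent.R096.Ls_222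

open Crest.Agent.R096.Bas_731 Crest.Agent.R96.En2_199 Crest.Agent.R96.Sg1_199

noncomputable section

/-- recursion along an enumeration -/
theorem exists_rec {𝒞 α : Type*} (enc : 𝒞 → ℕ)
    (G : ∀ c : 𝒞, (∀ c', enc c' < enc c → α) → α → Prop)
    (h : ∀ c prev, ∃ a, G c prev a) : ∃ o : 𝒞 → α, ∀ c, G c (fun c' _ => o c') (o c) := by
  classical
  choose F hF using h
  let wf : WellFounded (fun a b : 𝒞 => enc a < enc b) := (measure enc).wf
  refine ⟨wf.fix (fun c ih => F c ih), fun c => ?_⟩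
  have h1 := wf.fix_eq (fun c ih => F c ih) c
  rw [h1]
  exact hF c _

/-- good offsets; the threshold does not depend on the null set -/
theorem good_offset {ι : Type*} [Fintype ι] {N : ι → ℝ → ℝ≥0∞} {I : ι → ℝ}
    (hN : ∀ i, AEMeasurable (N i) (volume.restrict (Icc (0:ℝ) 1)))
    (hI0 : ∀ i, 0 ≤ I i) (hI : ∀ i, ∫⁻ y in Icc (0:ℝ) 1, N i y ≤ ENNReal.ofReal (I i))
    {ε : ℝ} (hε : 0 < ε) :
    ∃ m0 : ℕ, ∀ m ≥ m0, 0 < m → ∀ Z : Set ℝ, volume Z = 0 →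
      ∃ c ∈ Ioo (0:ℝ) 1, (∀ k < m, (c + k) / m ∉ Z) ∧
        ∀ i, ∑ k ∈ Finset.range m, N i ((c + k) / m) ≤ ENNReal.ofReal (m * (I i + ε)) := by
  obtain ⟨m0, hm0⟩ := exists_levels hN hI0 hI (Z := ∅) (by simp) (ε := min ε (1/2)) (by positivity)
  refine ⟨m0, fun m hm hmp Z hZ => ?_⟩
  have h1 := hm0 m hm hmp
  by_contra hcon
  have hav : volume {c : ℝ | ¬ ∀ k < m, (c + k) / m ∉ Z} = 0 := ae_avoid hZ (m := m)
  have h2 : Icc (0:ℝ) 1 ⊆ (Icc (0:ℝ) 1 \ {c | c ∈ Ioo (0:ℝ) 1 ∧ (∀ k < m, (c + k) / m ∉ (∅ : Set ℝ)) ∧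
        ∀ i, ∑ k ∈ Finset.range m, N i ((c + k) / m) ≤
          ENNReal.ofReal (m * (I i + min ε (1/2)))}) ∪ {c : ℝ | ¬ ∀ k < m, (c + k) / m ∉ Z} := by
    intro c hc
    by_cases h3 : ∀ k < m, (c + k) / m ∉ Z
    · left
      refine ⟨hc, ?_⟩
      rintro ⟨h4, -, h5⟩
      refine hcon ⟨c, h4, h3, fun i => (h5 i).trans ?_⟩
      apply ENNReal.ofReal_le_ofReal
      gcongr
      exact min_le_left _ _
    · exact Or.inr h3
  have h3 := (measure_mono h2).trans (measure_union_le (μ := volume) _ _)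
  rw [hav, add_zero, Real.volume_Icc] at h3
  have h4 : ENNReal.ofReal (min ε (1/2)) ≤ ENNReal.ofReal (1/2) :=
    ENNReal.ofReal_le_ofReal (min_le_right _ _)
  have h5 := (h3.trans h1).trans h4
  rw [ENNReal.ofReal_le_ofReal_iff (by norm_num)] at h5
  norm_num at h5

variable {E : Type*} [NormedAddCommGroup E] [NormedSpace ℝ E]

/-- 199's `segs_one` with the null set chosen after the number of levels -/
theorem segs_one' {κ κ' : Type*} [Fintype κ] [Fintype κ'] (x v : κ → E) (hv : ∀ j, v j ≠ 0)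
    {u : E → ℝ} {g : κ → E → ℝ≥0∞} (hu : ∀ j, ContinuousOn u (sgm (x j) (v j)))
    (hug : ∀ j, UGs u (g j) (x j) (v j)) (hfin : ∀ j, li (g j) (x j) (v j) ≠ ∞)
    {X : κ' → ℝ → ℝ≥0∞} (hX : ∀ j, AEMeasurable (X j) (volume.restrict (Icc (0:ℝ) 1)))
    {J : κ' → ℝ} (hJ0 : ∀ j, 0 ≤ J j) (hJ : ∀ j, ∫⁻ y in Icc (0:ℝ) 1, X j y ≤ ENNReal.ofReal (J j))
    {ε : ℝ} (hε : 0 < ε) :
    ∃ m0 : ℕ, ∀ m ≥ m0, 0 < m → ∀ Z : Set ℝ, volume Z = 0 →
      ∃ c ∈ Ioo (0:ℝ) 1, (∀ k < m, (c + k) / m ∉ Z) ∧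
      (∀ j, (m:ℝ≥0∞)⁻¹ * ∑ k ∈ Finset.range m, cr u (x j) (v j) ((c + k) / m) ≤
        li (g j) (x j) (v j) + ENNReal.ofReal ε) ∧
      ∀ j, (m:ℝ≥0∞)⁻¹ * ∑ k ∈ Finset.range m, X j ((c + k) / m) ≤
        ENNReal.ofReal (J j) + ENNReal.ofReal ε := by
  have hf := fun j => cr_facts (hv j) (hu j) (hug j)
  have hN : ∀ j : κ ⊕ κ', AEMeasurable (Sum.elim (fun j => cr u (x j) (v j)) X j)
      (volume.restrict (Icc (0:ℝ) 1)) := by
    rintro (j | j)
    · exact (hf j).1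
    · exact hX j
  have hI0 : ∀ j : κ ⊕ κ', 0 ≤ Sum.elim (fun j => (li (g j) (x j) (v j)).toReal) J j := by
    rintro (j | j)
    · exact ENNReal.toReal_nonneg
    · exact hJ0 j
  have hI : ∀ j : κ ⊕ κ', ∫⁻ y in Icc (0:ℝ) 1, Sum.elim (fun j => cr u (x j) (v j)) X j y ≤
      ENNReal.ofReal (Sum.elim (fun j => (li (g j) (x j) (v j)).toReal) J j) := by
    rintro (j | j)
    · simp only [Sum.elim_inl]
      rw [ENNReal.ofReal_toReal (hfin j)]
      exact (hf j).2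
    · exact hJ j
  obtain ⟨m0, hm0⟩ := good_offset hN hI0 hI hε
  refine ⟨m0, fun m hm hmp Z hZ => ?_⟩
  obtain ⟨c, hc, h1, h2⟩ := hm0 m hm hmp Z hZ
  have hm1 : (m:ℝ≥0∞) ≠ 0 := by positivity
  have hm2 : (m:ℝ≥0∞) ≠ ∞ := ENNReal.natCast_ne_top m
  have key : ∀ (x : ℝ≥0∞) (r : ℝ), 0 ≤ r → x ≤ ENNReal.ofReal (m * (r + ε)) →
      (m:ℝ≥0∞)⁻¹ * x ≤ ENNReal.ofReal r + ENNReal.ofReal ε := by
    intro x r hr hx
    calc (m:ℝ≥0∞)⁻¹ * x ≤ (m:ℝ≥0∞)⁻¹ * ENNReal.ofReal (m * (r + ε)) := by gcongr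
      _ = (m:ℝ≥0∞)⁻¹ * (m * (ENNReal.ofReal r + ENNReal.ofReal ε)) := by
          rw [ENNReal.ofReal_mul (by positivity), ENNReal.ofReal_natCast,
            ENNReal.ofReal_add hr hε.le]
      _ = ENNReal.ofReal r + ENNReal.ofReal ε := by
          rw [← mul_assoc, ENNReal.inv_mul_cancel hm1 hm2, one_mul]
  refine ⟨c, hc, h1, fun j => ?_, fun j => ?_⟩
  · have := key _ _ ENNReal.toReal_nonneg (h2 (Sum.inl j))
    rwa [ENNReal.ofReal_toReal (hfin j)] at this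
  · exact key _ _ (hJ0 j) (h2 (Sum.inr j))

theorem level_mem {o : ℝ} (ho : o ∈ Ioo (0:ℝ) 1) {m k : ℕ} (hk : k < m) :
    (o + k) / m ∈ Ioo (0:ℝ) 1 := by
  have hmR : (0:ℝ) < m := by exact_mod_cast lt_of_le_of_lt (Nat.zero_le k) hk
  have h5 : ((k:ℝ) + 1) ≤ m := by exact_mod_cast hk
  constructor
  · have := ho.1; positivity
  · rw [div_lt_one hmR]; linarith [ho.2]

theorem cr_zero {u : E → ℝ} {x v : E} {t : ℝ} (h : ∀ y ∈ sgm x v, u y ≠ t) : cr u x v t = 0 := by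
  unfold cr
  have h6 : sgm x v ∩ u ⁻¹' {t} = ∅ := by
    rw [eq_empty_iff_forall_notMem]
    rintro y ⟨hx1, hx2⟩
    exact h y hx1 hx2
  rw [h6]; simp

theorem finite_of_cr {u : E → ℝ} {x v : E} {t : ℝ} (h : cr u x v t ≠ ∞) :
    (sgm x v ∩ u ⁻¹' {t}).Finite := by
  unfold cr at h
  rw [← encard_ne_top_iff]
  intro h1
  rw [h1] at h
  simp at h

/-- **offsets of the levels of countably many bricks** -/
theorem exists_offsets {ι 𝒞 : Type*} [Countable 𝒞] (x v : ι → E) (hv : ∀ j, v j ≠ 0)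
    {u : 𝒞 → E → ℝ} {g : 𝒞 → ι → E → ℝ≥0∞} (Fc : 𝒞 → Finset ι)
    (hF2 : ∀ c, ∀ j ∉ Fc c, ∀ y ∈ sgm (x j) (v j), u c y ∉ Ioo (0:ℝ) 1)
    (hu : ∀ c, ∀ j ∈ Fc c, ContinuousOn (u c) (sgm (x j) (v j)))
    (hug : ∀ c, ∀ j ∈ Fc c, UGs (u c) (g c j) (x j) (v j))
    (hfin : ∀ c, ∀ j ∈ Fc c, li (g c j) (x j) (v j) ≠ ∞)
    {V : Set E} (hV : V.Countable)
    {κ : 𝒞 → Type*} [∀ c, Fintype (κ c)] {X : ∀ c, κ c → ℝ → ℝ≥0∞}
    (hX : ∀ c j, AEMeasurable (X c j) (volume.restrict (Icc (0:ℝ) 1)))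
    {J : ∀ c, κ c → ℝ} (hJ0 : ∀ c j, 0 ≤ J c j)
    (hJ : ∀ c j, ∫⁻ y in Icc (0:ℝ) 1, X c j y ≤ ENNReal.ofReal (J c j))
    {e : 𝒞 → ι → ℝ} (he : ∀ c j, 0 < e c j)
    {e' : 𝒞 → ℝ} (he' : ∀ c, 0 < e' c) :
    ∃ m0 : 𝒞 → ℕ, ∀ m : 𝒞 → ℕ, (∀ c, m0 c ≤ m c) → (∀ c, 0 < m c) →
      ∀ Z : 𝒞 → Set ℝ, (∀ c, volume (Z c) = 0) → ∃ o : 𝒞 → ℝ,
      (∀ c, o c ∈ Ioo (0:ℝ) 1) ∧ (∀ c, ∀ k < m c, (o c + k) / m c ∉ Z c) ∧
      (∀ c, ∀ k < m c, ∀ p ∈ V, u c p ≠ (o c + k) / m c) ∧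
      (∀ c, ∀ k < m c, ∀ j, (sgm (x j) (v j) ∩ u c ⁻¹' {(o c + k) / m c}).Finite) ∧
      (∀ c c', c ≠ c' → ∀ k < m c, ∀ k' < m c', ∀ j, ∀ y ∈ sgm (x j) (v j),
        ¬ (u c y = (o c + k) / m c ∧ u c' y = (o c' + k') / m c')) ∧
      (∀ c j, (m c:ℝ≥0∞)⁻¹ * ∑ k ∈ Finset.range (m c),
        cr (u c) (x j) (v j) ((o c + k) / m c) ≤
          li (g c j) (x j) (v j) + ENNReal.ofReal (e c j)) ∧
      ∀ c j, (m c:ℝ≥0∞)⁻¹ * ∑ k ∈ Finset.range (m c), X c j ((o c + k) / m c) ≤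
        ENNReal.ofReal (J c j) + ENNReal.ofReal (e' c) := by
  classical
  -- the error for `c`
  have hε : ∀ c, ∃ ε : ℝ, 0 < ε ∧ ε ≤ e' c ∧ ∀ j ∈ Fc c, ε ≤ e c j := by
    intro c
    rcases (Fc c).eq_empty_or_nonempty with h | h
    · exact ⟨e' c, he' c, le_rfl, fun σ hσ => by rw [h] at hσ; simp at hσ⟩
    · refine ⟨min (e' c) ((Fc c).inf' h (fun σ => e c σ)), lt_min (he' c) ?_, min_le_left _ _,
        fun σ hσ => (min_le_right _ _).trans (Finset.inf'_le _ hσ)⟩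
      rw [Finset.lt_inf'_iff]
      intro σ _
      exact he c σ
  choose ε hε0 hε2 hε1 using hε
  choose m0 hm0 using fun c => segs_one' (κ := {j // j ∈ Fc c}) (fun j => x j.1) (fun j => v j.1)
    (fun j => hv j.1) (g := fun j => g c j.1) (fun j => hu c j.1 j.2) (fun j => hug c j.1 j.2)
    (fun j => hfin c j.1 j.2) (hX c) (hJ0 c) (hJ c) (hε0 c)
  refine ⟨m0, fun m hm hmp Z hZ => ?_⟩
  obtain ⟨enc, henc⟩ := Countable.exists_injective_nat 𝒞
  -- the exceptional set at step `c`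
  let W : ∀ c : 𝒞, (∀ c', enc c' < enc c → ℝ) → Set ℝ := fun c prev =>
    ⋃ (c' : 𝒞) (h : enc c' < enc c) (k' : ℕ) (j ∈ Fc c),
      {t | (sgm (x j) (v j) ∩ u c' ⁻¹' {(prev c' h + k') / m c'}).Finite ∧
        t ∈ u c '' (sgm (x j) (v j) ∩ u c' ⁻¹' {(prev c' h + k') / m c'})}
  have hW : ∀ c prev, (W c prev).Countable := by
    intro c prev
    refine countable_iUnion fun c' => countable_iUnion fun h => countable_iUnion fun k' =>
      (Fc c).countable_toSet.biUnion fun j _ => ?_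
    by_cases hf : (sgm (x j) (v j) ∩ u c' ⁻¹' {(prev c' h + k') / m c'}).Finite
    · exact (hf.image (u c)).countable.mono fun t ht => ht.2
    · have : {t | (sgm (x j) (v j) ∩ u c' ⁻¹' {(prev c' h + k') / m c'}).Finite ∧
        t ∈ u c '' (sgm (x j) (v j) ∩ u c' ⁻¹' {(prev c' h + k') / m c'})} = ∅ := by
        rw [eq_empty_iff_forall_notMem]
        exact fun t ht => hf ht.1
      rw [this]
      exact countable_empty
  have hZ' : ∀ c prev, volume (Z c ∪ (u c '' V ∪ W c prev)) = 0 := fun c prev =>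
    measure_union_null (hZ c) (measure_union_null ((hV.image _).measure_zero _)
      ((hW c prev).measure_zero _))
  obtain ⟨o, ho⟩ := exists_rec enc (fun c prev o => o ∈ Ioo (0:ℝ) 1 ∧
      (∀ k < m c, (o + k) / m c ∉ Z c ∪ (u c '' V ∪ W c prev)) ∧
      (∀ j : {j // j ∈ Fc c}, (m c:ℝ≥0∞)⁻¹ * ∑ k ∈ Finset.range (m c),
        cr (u c) (x j) (v j) ((o + k) / m c) ≤
          li (g c j) (x j) (v j) + ENNReal.ofReal (ε c)) ∧
      ∀ j, (m c:ℝ≥0∞)⁻¹ * ∑ k ∈ Finset.range (m c), X c j ((o + k) / m c) ≤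
        ENNReal.ofReal (J c j) + ENNReal.ofReal (ε c)) (fun c prev => by
      obtain ⟨o, h1, h2, h3, h4⟩ := hm0 c (m c) (hm c) (hmp c) _ (hZ' c prev)
      exact ⟨o, h1, h2, h3, h4⟩)
  have ho0 := fun c => (ho c).1
  have hlev := fun c k (hk : k < m c) => level_mem (ho0 c) hk
  have hen : ∀ c j, (m c:ℝ≥0∞)⁻¹ * ∑ k ∈ Finset.range (m c),
        cr (u c) (x j) (v j) ((o c + k) / m c) ≤
          li (g c j) (x j) (v j) + ENNReal.ofReal (e c j) := by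
    intro c j
    by_cases hjc : j ∈ Fc c
    · refine ((ho c).2.2.1 ⟨j, hjc⟩).trans ?_
      gcongr
      exact hε1 c j hjc
    · have h3 : ∑ k ∈ Finset.range (m c), cr (u c) (x j) (v j) ((o c + k) / m c) = 0 := by
        apply Finset.sum_eq_zero
        intro k hk
        apply cr_zero
        intro y hy hyt
        apply hF2 c j hjc y hy
        rw [hyt]
        exact hlev c k (Finset.mem_range.1 hk)
      rw [h3, mul_zero]
      exact zero_le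
  have hfn : ∀ c, ∀ k < m c, ∀ j, (sgm (x j) (v j) ∩ u c ⁻¹' {(o c + k) / m c}).Finite := by
    intro c k hk j
    by_cases hjc : j ∈ Fc c
    · apply finite_of_cr
      have h1 := (ho c).2.2.1 ⟨j, hjc⟩
      have h2 : li (g c j) (x j) (v j) + ENNReal.ofReal (ε c) ≠ ∞ := by
        simp [hfin c j hjc]
      have h3 : ∑ k ∈ Finset.range (m c), cr (u c) (x j) (v j) ((o c + k) / m c) ≠ ∞ := by
        intro h4
        rw [h4] at h1
        apply h2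
        rw [eq_top_iff]
        refine le_trans ?_ h1
        rw [ENNReal.mul_top]
        simp
      have h4 := Finset.single_le_sum (f := fun k : ℕ => cr (u c) (x j) (v j) ((o c + k) / m c))
        (fun _ _ => zero_le) (Finset.mem_range.2 hk)
      exact ne_top_of_le_ne_top h3 h4
    · have h5 : sgm (x j) (v j) ∩ u c ⁻¹' {(o c + k) / m c} = ∅ := by
        rw [eq_empty_iff_forall_notMem]
        rintro y ⟨hy, hyt⟩
        apply hF2 c j hjc y hy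
        rw [mem_preimage, mem_singleton_iff] at hyt
        rw [hyt]
        exact hlev c k hk
      rw [h5]
      exact finite_empty
  have hsep : ∀ c c', enc c' < enc c → ∀ k < m c, ∀ k' < m c', ∀ j, ∀ y ∈ sgm (x j) (v j),
        ¬ (u c y = (o c + k) / m c ∧ u c' y = (o c' + k') / m c') := by
    rintro c c' hcc k hk k' hk' j y hy ⟨h1, h2⟩
    have hjc : j ∈ Fc c := by
      by_contra hjc
      apply hF2 c j hjc y hy
      rw [h1]
      exact hlev c k hk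
    apply (ho c).2.1 k hk
    right; right
    simp only [W, mem_iUnion]
    refine ⟨c', hcc, k', j, hjc, hfn c' k' hk' j, y, ⟨hy, h2⟩, h1⟩
  refine ⟨o, ho0, fun c k hk h => (ho c).2.1 k hk (Or.inl h), fun c k hk p hp h => ?_, hfn, ?_,
    hen, fun c j => ((ho c).2.2.2 j).trans ?_⟩
  · exact (ho c).2.1 k hk (Or.inr (Or.inl ⟨p, hp, h⟩))
  · intro c c' hcc k hk k' hk' j y hy
    rcases lt_or_gt_of_ne (fun h => hcc (henc h)) with h | h
    · exact fun h' => hsep c' c h k' hk' k hk j y hy ⟨h'.2, h'.1⟩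
    · exact hsep c c' h k hk k' hk' j y hy
  · gcongr
    exact hε2 c

end

end Crest.Agent.R096.Ls_222
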