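/-
helper222, row 96, LEVSEL part 2: arithmetic progressions with a few deleted terms.
-/
import Mathlib

set_option autoImplicit false

open Set Filter

namespace Crest.Agent.R096.Ls_222

noncomputable section

/-- the progression `(o + k) / m`, `k < m` -/
def ap (m : ℕ) (o : ℝ) : Finset ℝ := (Finset.range m).image fun k : ℕ => (o + k) / m

theorem mem_ap {m : ℕ} {o t : ℝ} : t ∈ ap m o ↔ ∃ k < m, (o + k) / m = t := by
  simp [ap]

theorem ap_inj {m : ℕ} (hm : 0 < m) (o : ℝ) : Function.Injective fun k : ℕ => (o + k) / (m:ℝ) := by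
  intro a b h
  have hmR : (m:ℝ) ≠ 0 := by positivity
  have h1 : (o + a) = (o + b) := by
    have := congrArg (fun z => z * (m:ℝ)) h
    simpa [div_mul_cancel₀ _ hmR] using this
  have h2 : (a:ℝ) = b := by linarith
  exact_mod_cast h2

theorem card_ap {m : ℕ} (hm : 0 < m) (o : ℝ) : (ap m o).card = m := by
  unfold ap
  rw [Finset.card_image_of_injective _ (ap_inj hm o), Finset.card_range]

theorem sum_ap {M : Type*} [AddCommMonoid M] {m : ℕ} (hm : 0 < m) (o : ℝ) (F : ℝ → M) :
    ∑ t ∈ ap m o, F t = ∑ k ∈ Finset.range m, F ((o + k) / m) := by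
  unfold ap
  rw [Finset.sum_image (fun a _ b _ h => ap_inj hm o h)]

/-- at most `(v - u) m + 1` terms in the open interval `(u, v)` -/
theorem card_ap_Ioo {m : ℕ} (hm : 0 < m) {o u v : ℝ} (huv : u ≤ v) :
    (((ap m o).filter fun t => u < t ∧ t < v).card : ℝ) ≤ (v - u) * m + 1 := by
  have hmR : (0:ℝ) < m := by exact_mod_cast hm
  set S : Finset ℕ := (Finset.range m).filter fun k => u < (o + k) / m ∧ (o + k) / m < v with hS
  have hcard : ((ap m o).filter fun t => u < t ∧ t < v).card = S.card := by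
    rw [show ((ap m o).filter fun t => u < t ∧ t < v) = S.image (fun k : ℕ => (o + k) / (m:ℝ)) from by
      unfold ap
      rw [Finset.filter_image]]
    exact Finset.card_image_of_injective _ (ap_inj hm o)
  rw [hcard]
  rcases S.eq_empty_or_nonempty with h | h
  · rw [h]
    simp only [Finset.card_empty, Nat.cast_zero]
    have : 0 ≤ (v - u) * m := mul_nonneg (by linarith) hmR.le
    linarith
  · have h1 : S ⊆ Finset.Icc (S.min' h) (S.max' h) := fun k hk =>
      Finset.mem_Icc.2 ⟨S.min'_le k hk, S.le_max' k hk⟩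
    have h2 := Finset.card_le_card h1
    rw [Nat.card_Icc] at h2
    have h3 : S.min' h ≤ S.max' h := S.min'_le _ (S.max'_mem h)
    have h4 : (S.card : ℝ) ≤ (S.max' h : ℝ) - S.min' h + 1 := by
      have : S.card + S.min' h ≤ S.max' h + 1 := by omega
      have h5 : ((S.card + S.min' h : ℕ) : ℝ) ≤ ((S.max' h + 1 : ℕ) : ℝ) := by exact_mod_cast this
      push_cast at h5
      linarith
    have h5 := (Finset.mem_filter.1 (S.max'_mem h)).2.2
    have h6 := (Finset.mem_filter.1 (S.min'_mem h)).2.1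
    rw [div_lt_iff₀ hmR] at h5
    rw [lt_div_iff₀ hmR] at h6
    nlinarith

/-- number of terms below a term -/
theorem card_ap_lt {m : ℕ} (hm : 0 < m) {o : ℝ} {k0 : ℕ} (hk0 : k0 < m) :
    ((ap m o).filter fun s => s < (o + k0) / m).card = k0 := by
  have hmR : (0:ℝ) < m := by exact_mod_cast hm
  have h1 : ((ap m o).filter fun s => s < (o + k0) / m) =
      (Finset.range k0).image (fun k : ℕ => (o + k) / (m:ℝ)) := by
    ext t
    simp only [Finset.mem_filter, mem_ap, Finset.mem_image, Finset.mem_range]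
    constructor
    · rintro ⟨⟨k, hk, rfl⟩, h⟩
      refine ⟨k, ?_, rfl⟩
      rw [div_lt_div_iff_of_pos_right hmR] at h
      have : (k:ℝ) < k0 := by linarith
      exact_mod_cast this
    · rintro ⟨k, hk, rfl⟩
      refine ⟨⟨k, hk.trans hk0, rfl⟩, ?_⟩
      rw [div_lt_div_iff_of_pos_right hmR]
      have : (k:ℝ) < k0 := by exact_mod_cast hk
      linarith
  rw [h1, Finset.card_image_of_injective _ (ap_inj hm o), Finset.card_range]

section Sub

variable {m : ℕ} {o b : ℝ} {L : Finset ℝ}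

/-- upper density of a progression with at most `b m` deleted terms -/
theorem dens_of_sub (hm : 0 < m) (hL : L ⊆ ap m o) (hb : (1 - b) * m ≤ L.card) {κ1 : ℝ}
    (h0 : 0 < κ1) (h1 : κ1 ≤ 1) (hbκ : b ≤ κ1 / 4) {u v : ℝ} (huv : u ≤ v) :
    ((L.filter fun t => u < t ∧ t < v).card : ℝ) ≤ (1 + κ1) * (v - u) * L.card + 1 := by
  have h2 : ((L.filter fun t => u < t ∧ t < v).card : ℝ) ≤
      (((ap m o).filter fun t => u < t ∧ t < v).card : ℝ) := by
    exact_mod_cast Finset.card_le_card (Finset.filter_subset_filter _ hL)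
  have h3 := card_ap_Ioo hm (o := o) huv
  have hmR : (0:ℝ) < m := by exact_mod_cast hm
  have h4 : (m:ℝ) ≤ (1 + κ1) * L.card := by
    have h5 : (1 - κ1 / 4) * m ≤ L.card :=
      (mul_le_mul_of_nonneg_right (by linarith) hmR.le).trans hb
    have h6 := mul_le_mul_of_nonneg_left h5 (by linarith : (0:ℝ) ≤ 1 + κ1)
    have h7 : (1:ℝ) ≤ (1 + κ1) * (1 - κ1 / 4) := by nlinarith
    have h8 := mul_le_mul_of_nonneg_right h7 hmR.le
    nlinarith
  have h5 : (v - u) * m ≤ (v - u) * ((1 + κ1) * L.card) :=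
    mul_le_mul_of_nonneg_left h4 (by linarith)
  nlinarith

/-- position of the terms -/
theorem pos_of_sub (hm : 0 < m) (ho : o ∈ Ioo (0:ℝ) 1) (hL : L ⊆ ap m o)
    (hb0 : 0 ≤ b) (hb : (1 - b) * m ≤ L.card) {κ1 : ℝ}
    (h1 : κ1 ≤ 1) (hbκ : b ≤ κ1 / 4) (hmκ : 2 ≤ κ1 * m) {t : ℝ} (ht : t ∈ L) :
    |((L.filter (· < t)).card : ℝ) / L.card - t| ≤ κ1 := by
  have hmR : (0:ℝ) < m := by exact_mod_cast hm
  obtain ⟨k0, hk0, hkt⟩ := mem_ap.1 (hL ht)
  have hLm : (L.card : ℝ) ≤ m := by
    have := Finset.card_le_card hL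
    rw [card_ap hm] at this
    exact_mod_cast this
  have hn : (0:ℝ) < L.card := by
    have : 0 < L.card := Finset.card_pos.2 ⟨t, ht⟩
    exact_mod_cast this
  set a : ℝ := ((L.filter (· < t)).card : ℝ) with ha
  have ha1 : a ≤ k0 := by
    have h2 := Finset.card_le_card (Finset.filter_subset_filter (fun s => s < t) hL)
    have h3 := card_ap_lt (o := o) hm hk0
    rw [hkt] at h3
    rw [h3] at h2
    rw [ha]
    exact Nat.cast_le.2 h2
  have ha2 : (k0:ℝ) - b * m ≤ a := by
    have h2 : ((ap m o).filter fun s => s < t).card ≤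
        (L.filter (· < t)).card + (ap m o \ L).card := by
      refine le_trans (Finset.card_le_card (t := L.filter (· < t) ∪ (ap m o \ L)) ?_)
        (Finset.card_union_le _ _)
      intro s hs
      obtain ⟨hs1, hs2⟩ := Finset.mem_filter.1 hs
      by_cases h : s ∈ L
      · exact Finset.mem_union_left _ (Finset.mem_filter.2 ⟨h, hs2⟩)
      · exact Finset.mem_union_right _ (Finset.mem_sdiff.2 ⟨hs1, h⟩)
    have h3 := card_ap_lt (o := o) hm hk0
    rw [hkt] at h3
    rw [h3] at h2
    have h4 : (ap m o \ L).card = m - L.card := by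
      rw [Finset.card_sdiff_of_subset hL, card_ap hm]
    have h5 : L.card ≤ m := by exact_mod_cast hLm
    have h6 : k0 + L.card ≤ (L.filter (· < t)).card + m := by omega
    have h7 : ((k0 + L.card : ℕ):ℝ) ≤ (((L.filter (· < t)).card + m : ℕ) : ℝ) := by
      exact_mod_cast h6
    push_cast at h7
    linarith
  have hk0m : (k0:ℝ) + 1 ≤ m := by exact_mod_cast hk0
  have ha0 : 0 ≤ a := by positivity
  have ht1 : t * m = o + k0 := by rw [← hkt]; field_simp
  have ho0 := ho.1
  have ho1 := ho.2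
  rw [abs_le]
  constructor
  · -- lower bound
    have h2 : t - κ1 ≤ a / L.card := by
      rw [le_div_iff₀ hn]
      by_cases h3 : 0 ≤ t - κ1
      · have h4 : (t - κ1) * L.card ≤ (t - κ1) * m := mul_le_mul_of_nonneg_left hLm h3
        have h5 : (t - κ1) * m ≤ k0 - b * m := by
          have : κ1 * m ≥ 1 + b * m := by nlinarith
          nlinarith
        linarith
      · have h4 : (t - κ1) * L.card ≤ 0 := mul_nonpos_of_nonpos_of_nonneg (by linarith) hn.le
        linarith
    linarith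
  · -- upper bound
    have h2 : a / L.card ≤ t + κ1 := by
      rw [div_le_iff₀ hn]
      have h3 : (t + κ1) * ((1 - b) * m) ≤ (t + κ1) * L.card := by
        have ht0 : 0 ≤ t := by
          have : 0 ≤ t * m := by rw [ht1]; positivity
          exact nonneg_of_mul_nonneg_left this hmR
        have hκ0 : 0 ≤ κ1 := by nlinarith
        exact mul_le_mul_of_nonneg_left hb (by linarith)
      have h4 : (k0:ℝ) ≤ (t + κ1) * ((1 - b) * m) := by
        have e1 : (t + κ1) * ((1 - b) * m) = (1 - b) * (o + k0) + κ1 * (1 - b) * m := by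
          rw [← ht1]; ring
        rw [e1]
        have hκ0 : 0 ≤ κ1 := by nlinarith
        have e2 : b * k0 ≤ b * m := mul_le_mul_of_nonneg_left (by linarith) hb0
        have e3 : b ≤ 1 / 4 := by linarith
        have e4 : b * m ≤ κ1 / 4 * m := mul_le_mul_of_nonneg_right hbκ hmR.le
        have e5 : κ1 * (1 - b) * m ≥ κ1 * (3 / 4) * m := by
          have : κ1 * m * (1 - b) ≥ κ1 * m * (3 / 4) :=
            mul_le_mul_of_nonneg_left (by linarith) (by positivity)
          nlinarith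
        have e6 : 0 ≤ (1 - b) * o := mul_nonneg (by linarith) ho0.le
        nlinarith
      linarith
    linarith

end Sub

/-- dyadic weights -/
theorem exists_weight {m : ℕ} {s : ℝ} (hs : 0 < s) {n : ℕ} (hm : s * 2 ^ (n + 1) ≤ m) :
    ∃ κ : ℕ, n ≤ κ ∧ s ≤ m * (2:ℝ)⁻¹ ^ κ ∧ m * (2:ℝ)⁻¹ ^ κ < 2 * s := by
  have h2 : (1:ℝ) ≤ m / s := by
    rw [le_div_iff₀ hs]
    have : (1:ℝ) ≤ 2 ^ (n + 1) := one_le_pow₀ (by norm_num)
    nlinarith
  obtain ⟨κ, h3, h4⟩ := exists_nat_pow_near h2 (by norm_num : (1:ℝ) < 2)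
  refine ⟨κ, ?_, ?_, ?_⟩
  · by_contra hlt
    have h5 : κ + 1 ≤ n + 1 := by omega
    have h6 : (2:ℝ) ^ (κ + 1) ≤ 2 ^ (n + 1) := pow_le_pow_right₀ (by norm_num) h5
    have h7 : (2:ℝ) ^ (n + 1) ≤ m / s := by
      rw [le_div_iff₀ hs]; linarith
    linarith
  · rw [le_div_iff₀ hs] at h3
    rw [inv_pow, ← div_eq_mul_inv, le_div_iff₀ (by positivity)]
    linarith
  · rw [div_lt_iff₀ hs, pow_succ] at h4
    rw [inv_pow, ← div_eq_mul_inv, div_lt_iff₀ (by positivity)]
    linarith

end

end Crest.Agent.R096.Ls_222
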