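/-
helper222, row 96, LEVSEL part 3: the levels of all bricks, with deleted bad sets, dyadic weights
and the energy clause.
-/
import Mathlib
import Crest.Agent.R096.Ls1_222
import Crest.Agent.R096.Ls2_222

set_option autoImplicit false

open MeasureTheory Set Filter
open scoped Topology ENNReal

namespace Crest.Agent.R096.Ls_222

open Crest.Agent.R096.Bas_731 Crest.Agent.R96.En2_199 Crest.Agent.R96.Sg1_199

noncomputable section

variable {E : Type*} [NormedAddCommGroup E] [NormedSpace ℝ E]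

/-- the chosen levels `L c` of the functions `u c` with respect to the segments `x j + [0,1] v j` and
the vertices `V`: a progression of `m c` terms with at most `κ1/4 * m c` deleted terms. -/
structure Lv {ι 𝒞 : Type*} (x v : ι → E) (u : 𝒞 → E → ℝ) (V : Set E) (κ1 : ℝ) (sz : 𝒞 → ℝ)
    (Z Bad : 𝒞 → Set ℝ) (m κ : 𝒞 → ℕ) (L : 𝒞 → Finset ℝ) : Prop where
  lf : ∀ n : ℕ, {c | κ c ≤ n}.Finite
  sub : ∀ c, ∀ t ∈ L c, t ∈ Ioo (0 : ℝ) 1
  wt1 : ∀ c, sz c ≤ m c * (2 : ℝ)⁻¹ ^ κ c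
  wt2 : ∀ c, m c * (2 : ℝ)⁻¹ ^ κ c < 2 * sz c
  card1 : ∀ c, (1 - κ1 / 4) * m c ≤ (L c).card
  card2 : ∀ c, ((L c).card : ℝ) ≤ m c
  card3 : ∀ c, Bad c = ∅ → (L c).card = m c
  mlarge : ∀ c, 2 ≤ κ1 * m c
  large : ∀ c, 1 ≤ κ1 * (L c).card
  pos : ∀ c, ∀ t ∈ L c, |(((L c).filter (· < t)).card : ℝ) / (L c).card - t| ≤ κ1
  dens : ∀ c u v, u ≤ v → (((L c).filter fun t => u < t ∧ t < v).card : ℝ) ≤
    (1 + κ1) * (v - u) * (L c).card + 1
  prog : ∀ c, ∃ o ∈ Ioo (0 : ℝ) 1, L c ⊆ ap (m c) o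
  gap : ∀ c, ∀ t ∈ L c, ∀ t' ∈ L c, t < t' → 1 ≤ m c * (t' - t)
  off : ∀ c, ∀ t ∈ L c, t ∉ Z c
  bad : ∀ c, ∀ t ∈ L c, t ∉ Bad c
  vert : ∀ c, ∀ t ∈ L c, ∀ p ∈ V, u c p ≠ t
  fin : ∀ c, ∀ t ∈ L c, ∀ j, (sgm (x j) (v j) ∩ u c ⁻¹' {t}).Finite
  sep : ∀ c c', c ≠ c' → ∀ t ∈ L c, ∀ t' ∈ L c', ∀ j, ∀ y ∈ sgm (x j) (v j),
    ¬ (u c y = t ∧ u c' y = t')

/-- exact weights: number of terms a power of two, size a power of two -/
theorem wt_exact {m κ : ℕ} {s : ℝ} {a : ℕ} {b : ℤ} (hm : m = 2 ^ a) (hs : s = (2 : ℝ) ^ b)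
    (h1 : s ≤ m * (2 : ℝ)⁻¹ ^ κ) (h2 : m * (2 : ℝ)⁻¹ ^ κ < 2 * s) : m * (2 : ℝ)⁻¹ ^ κ = s := by
  have h3 : (m : ℝ) * (2 : ℝ)⁻¹ ^ κ = (2 : ℝ) ^ ((a : ℤ) - κ) := by
    rw [hm, zpow_sub₀ (by norm_num)]
    push_cast
    rw [inv_pow, zpow_natCast, zpow_natCast, div_eq_mul_inv]
  rw [h3, hs] at h1 h2
  rw [h3, hs]
  have h4 : (2 : ℝ) * (2 : ℝ) ^ b = (2 : ℝ) ^ (b + 1) := by
    rw [zpow_add₀ (by norm_num), zpow_one, mul_comm]
  rw [h4] at h2
  have h5 := (zpow_le_zpow_iff_right₀ (by norm_num : (1:ℝ) < 2)).1 h1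
  have h6 := (zpow_lt_zpow_iff_right₀ (by norm_num : (1:ℝ) < 2)).1 h2
  congr 1
  omega

/-- **LEVSEL**, abstract form. -/
theorem exists_Lv {ι 𝒞 : Type*} [Countable 𝒞] (x v : ι → E) (hv : ∀ j, v j ≠ 0)
    {u : 𝒞 → E → ℝ} {g : 𝒞 → ι → E → ℝ≥0∞} (Fc : 𝒞 → Finset ι)
    (hF2 : ∀ c, ∀ j ∉ Fc c, ∀ y ∈ sgm (x j) (v j), u c y ∉ Ioo (0:ℝ) 1)
    (hu : ∀ c, ∀ j ∈ Fc c, ContinuousOn (u c) (sgm (x j) (v j)))
    (hug : ∀ c, ∀ j ∈ Fc c, UGs (u c) (g c j) (x j) (v j))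
    (hfin : ∀ c, ∀ j ∈ Fc c, li (g c j) (x j) (v j) ≠ ∞)
    {V : Set E} (hV : V.Countable)
    {κ' : 𝒞 → Type*} [∀ c, Fintype (κ' c)] {X : ∀ c, κ' c → ℝ → ℝ≥0∞}
    (hX : ∀ c j, AEMeasurable (X c j) (volume.restrict (Icc (0:ℝ) 1)))
    {J : ∀ c, κ' c → ℝ} (hJ0 : ∀ c j, 0 ≤ J c j)
    (hJ : ∀ c j, ∫⁻ y in Icc (0:ℝ) 1, X c j y ≤ ENNReal.ofReal (J c j))
    {e : 𝒞 → ι → ℝ} (he : ∀ c j, 0 < e c j) {e' : 𝒞 → ℝ} (he' : ∀ c, 0 < e' c)
    {κ1 : ℝ} (hκ0 : 0 < κ1) (hκ1 : κ1 ≤ 1) {sz : 𝒞 → ℝ} (hsz : ∀ c, 0 < sz c)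
    {Z Bad : 𝒞 → Set ℝ} (hZ : ∀ c, volume (Z c) = 0) (hBm : ∀ c, MeasurableSet (Bad c))
    (hB : ∀ c, volume (Bad c ∩ Icc 0 1) ≤ ENNReal.ofReal (κ1 / 8))
    (M0 : 𝒞 → ℕ) (pick : 𝒞 → ℕ → ℕ) (hpick : ∀ c n, n ≤ pick c n) :
    ∃ (m κ : 𝒞 → ℕ) (L : 𝒞 → Finset ℝ), Lv x v u V κ1 sz Z Bad m κ L ∧
      (∀ c, ∃ n, m c = pick c n) ∧ (∀ c, M0 c ≤ (L c).card) ∧
      (∀ c j, ENNReal.ofReal ((2 : ℝ)⁻¹ ^ κ c) * ∑ t ∈ L c, cr (u c) (x j) (v j) t ≤
        ENNReal.ofReal (m c * (2 : ℝ)⁻¹ ^ κ c) *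
          (li (g c j) (x j) (v j) + ENNReal.ofReal (e c j))) ∧
      ∀ c i, ENNReal.ofReal ((2 : ℝ)⁻¹ ^ κ c) * ∑ t ∈ L c, X c i t ≤
        ENNReal.ofReal (m c * (2 : ℝ)⁻¹ ^ κ c) *
          (ENNReal.ofReal (J c i) + ENNReal.ofReal (e' c)) := by
  classical
  obtain ⟨enc, henc⟩ := Countable.exists_injective_nat 𝒞
  -- the extended family of weights
  let X' : ∀ c, Unit ⊕ κ' c → ℝ → ℝ≥0∞ := fun c => Sum.elim (fun _ => (Bad c).indicator 1) (X c)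
  let J' : ∀ c, Unit ⊕ κ' c → ℝ := fun c => Sum.elim (fun _ => κ1 / 8) (J c)
  have hX' : ∀ c j, AEMeasurable (X' c j) (volume.restrict (Icc (0:ℝ) 1)) := by
    rintro c (j | j)
    · exact (measurable_const.indicator (hBm c)).aemeasurable
    · exact hX c j
  have hJ0' : ∀ c j, 0 ≤ J' c j := by
    rintro c (j | j)
    · show 0 ≤ κ1 / 8
      positivity
    · exact hJ0 c j
  have hJ' : ∀ c j, ∫⁻ y in Icc (0:ℝ) 1, X' c j y ≤ ENNReal.ofReal (J' c j) := by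
    rintro c (j | j)
    · show ∫⁻ y in Icc (0:ℝ) 1, (Bad c).indicator 1 y ≤ ENNReal.ofReal (κ1 / 8)
      rw [lintegral_indicator_one (hBm c), Measure.restrict_apply (hBm c)]
      exact hB c
    · exact hJ c j
  have he'' : ∀ c, 0 < min (e' c) (κ1 / 8) := fun c => lt_min (he' c) (by positivity)
  obtain ⟨m0, hm0⟩ := exists_offsets x v hv Fc hF2 hu hug hfin hV hX' hJ0' hJ' he he''
  -- the numbers of terms
  let n0 : 𝒞 → ℕ := fun c => m0 c + ⌈sz c * 2 ^ (enc c + 1)⌉₊ + ⌈2 / κ1⌉₊ + 2 * M0 c + 1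
  let m : 𝒞 → ℕ := fun c => pick c (n0 c)
  have hmn : ∀ c, n0 c ≤ m c := fun c => hpick c _
  have hm1 : ∀ c, m0 c ≤ m c := fun c => le_trans (by simp only [n0]; omega) (hmn c)
  have hm2 : ∀ c, 0 < m c := fun c => lt_of_lt_of_le (by simp only [n0]; omega) (hmn c)
  have hm3 : ∀ c, sz c * 2 ^ (enc c + 1) ≤ m c := by
    intro c
    refine (Nat.le_ceil _).trans ?_
    have : ⌈sz c * 2 ^ (enc c + 1)⌉₊ ≤ m c := le_trans (by simp only [n0]; omega) (hmn c)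
    exact_mod_cast this
  have hm4 : ∀ c, 2 ≤ κ1 * m c := by
    intro c
    have h1 : ⌈2 / κ1⌉₊ ≤ m c := le_trans (by simp only [n0]; omega) (hmn c)
    have h2 : 2 / κ1 ≤ m c := (Nat.le_ceil _).trans (by exact_mod_cast h1)
    rw [div_le_iff₀ hκ0] at h2
    linarith
  have hm5 : ∀ c, 2 * M0 c ≤ m c := fun c => le_trans (by simp only [n0]; omega) (hmn c)
  have hmR : ∀ c, (0:ℝ) < m c := fun c => by exact_mod_cast hm2 c
  choose κ hκ using fun c => exists_weight (hsz c) (hm3 c)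
  obtain ⟨o, ho, hoZ, hoV, hofin, hosep, hoen, hoX⟩ := hm0 m hm1 hm2 Z hZ
  let L : 𝒞 → Finset ℝ := fun c => (ap (m c) (o c)).filter fun t => t ∉ Bad c
  have hL : ∀ c, L c ⊆ ap (m c) (o c) := fun c => Finset.filter_subset _ _
  have hLk : ∀ c, ∀ t ∈ L c, ∃ k < m c, (o c + k) / m c = t := fun c t ht => mem_ap.1 (hL c ht)
  have hcard2 : ∀ c, ((L c).card : ℝ) ≤ m c := by
    intro c
    have := Finset.card_le_card (hL c)
    rw [card_ap (hm2 c)] at this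
    exact_mod_cast this
  have hcard1 : ∀ c, (1 - κ1 / 4) * m c ≤ (L c).card := by
    intro c
    have h1 := hoX c (Sum.inl ())
    have h2 : ∑ k ∈ Finset.range (m c), X' c (Sum.inl ()) ((o c + k) / m c) =
        (((ap (m c) (o c)).filter fun t => t ∈ Bad c).card : ℝ≥0∞) := by
      rw [← sum_ap (hm2 c) (o c) (X' c (Sum.inl ()))]
      rw [Finset.card_filter]
      push_cast
      refine Finset.sum_congr rfl fun t _ => ?_
      show (Bad c).indicator 1 t = _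
      by_cases h : t ∈ Bad c <;> simp [h]
    rw [h2] at h1
    have h3 : ENNReal.ofReal (J' c (Sum.inl ())) + ENNReal.ofReal (min (e' c) (κ1 / 8)) ≤
        ENNReal.ofReal (κ1 / 4) := by
      show ENNReal.ofReal (κ1 / 8) + ENNReal.ofReal (min (e' c) (κ1 / 8)) ≤ _
      rw [← ENNReal.ofReal_add (by positivity) (he'' c).le]
      apply ENNReal.ofReal_le_ofReal
      have := min_le_right (e' c) (κ1 / 8)
      linarith
    have h4 := h1.trans h3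
    have h5 : (((ap (m c) (o c)).filter fun t => t ∈ Bad c).card : ℝ) ≤ κ1 / 4 * m c := by
      have h6 : ((((ap (m c) (o c)).filter fun t => t ∈ Bad c).card : ℝ≥0∞)) ≤
          (m c : ℝ≥0∞) * ENNReal.ofReal (κ1 / 4) := by
        calc ((((ap (m c) (o c)).filter fun t => t ∈ Bad c).card : ℝ≥0∞))
            = (m c : ℝ≥0∞) * ((m c : ℝ≥0∞)⁻¹ *
              (((ap (m c) (o c)).filter fun t => t ∈ Bad c).card : ℝ≥0∞)) := by
              rw [← mul_assoc, ENNReal.mul_inv_cancel (by have := hm2 c; positivity)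
                (ENNReal.natCast_ne_top _), one_mul]
          _ ≤ _ := by gcongr
      have h7 : ENNReal.ofReal (((ap (m c) (o c)).filter fun t => t ∈ Bad c).card : ℝ) ≤
          ENNReal.ofReal (κ1 / 4 * m c) := by
        rw [ENNReal.ofReal_natCast, mul_comm, ENNReal.ofReal_mul (hmR c).le,
          ENNReal.ofReal_natCast]
        exact h6
      exact (ENNReal.ofReal_le_ofReal_iff (by have := hmR c; positivity)).1 h7
    have h6 : (L c).card + ((ap (m c) (o c)).filter fun t => t ∈ Bad c).card = m c := by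
      have := Finset.card_filter_add_card_filter_not (s := ap (m c) (o c)) (fun t => t ∈ Bad c)
      rw [card_ap (hm2 c)] at this
      show ((ap (m c) (o c)).filter fun t => t ∉ Bad c).card + _ = _
      omega
    have h7 : (((L c).card : ℝ)) + (((ap (m c) (o c)).filter fun t => t ∈ Bad c).card : ℝ) = m c := by
      exact_mod_cast h6
    linarith
  have hlarge : ∀ c, 1 ≤ κ1 * (L c).card := by
    intro c
    have h1 := mul_le_mul_of_nonneg_left (hcard1 c) hκ0.le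
    have h2 := hm4 c
    have h3 : κ1 * ((1 - κ1 / 4) * m c) = (1 - κ1 / 4) * (κ1 * m c) := by ring
    rw [h3] at h1
    nlinarith
  -- weighted sums
  have hsum : ∀ c, ∀ F : ℝ → ℝ≥0∞, ∀ R : ℝ≥0∞,
      (m c : ℝ≥0∞)⁻¹ * ∑ k ∈ Finset.range (m c), F ((o c + k) / m c) ≤ R →
      ENNReal.ofReal ((2 : ℝ)⁻¹ ^ κ c) * ∑ t ∈ L c, F t ≤
        ENNReal.ofReal (m c * (2 : ℝ)⁻¹ ^ κ c) * R := by
    intro c F R h
    have h1 : ∑ t ∈ L c, F t ≤ (m c : ℝ≥0∞) * R := by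
      calc ∑ t ∈ L c, F t ≤ ∑ t ∈ ap (m c) (o c), F t :=
            Finset.sum_le_sum_of_subset (hL c)
        _ = ∑ k ∈ Finset.range (m c), F ((o c + k) / m c) := sum_ap (hm2 c) _ _
        _ = (m c : ℝ≥0∞) * ((m c : ℝ≥0∞)⁻¹ *
            ∑ k ∈ Finset.range (m c), F ((o c + k) / m c)) := by
            rw [← mul_assoc, ENNReal.mul_inv_cancel (by have := hm2 c; positivity)
                (ENNReal.natCast_ne_top _), one_mul]
        _ ≤ _ := by gcongr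
    calc ENNReal.ofReal ((2 : ℝ)⁻¹ ^ κ c) * ∑ t ∈ L c, F t
        ≤ ENNReal.ofReal ((2 : ℝ)⁻¹ ^ κ c) * ((m c : ℝ≥0∞) * R) := by gcongr
      _ = ENNReal.ofReal (m c * (2 : ℝ)⁻¹ ^ κ c) * R := by
          rw [ENNReal.ofReal_mul (hmR c).le, ENNReal.ofReal_natCast]
          ring
  have hcard3 : ∀ c, Bad c = ∅ → (L c).card = m c := by
    intro c hb
    have h1 : L c = ap (m c) (o c) := Finset.filter_true_of_mem fun t _ => by rw [hb]; exact id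
    rw [h1, card_ap (hm2 c)]
  refine ⟨m, κ, L, ⟨?_, ?_, fun c => (hκ c).2.1, fun c => (hκ c).2.2, hcard1, hcard2, hcard3, hm4, hlarge,
    ?_, ?_, fun c => ⟨o c, ho c, hL c⟩, ?_, ?_, ?_, ?_, ?_, ?_⟩, fun c => ⟨_, rfl⟩, ?_, fun c j => hsum c _ _ (hoen c j),
    fun c i => ?_⟩
  · intro n
    refine Finite.subset ((finite_Iic n).preimage henc.injOn) fun c hc => ?_
    exact (hκ c).1.trans hc
  · intro c t ht
    obtain ⟨k, hk, rfl⟩ := hLk c t ht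
    exact level_mem (ho c) hk
  · intro c t ht
    exact pos_of_sub (hm2 c) (ho c) (hL c) (by positivity) (hcard1 c) hκ1 le_rfl (hm4 c) ht
  · intro c a b hab
    exact dens_of_sub (hm2 c) (hL c) (hcard1 c) hκ0 hκ1 le_rfl hab
  · intro c t ht t' ht' htt
    obtain ⟨k, hk, rfl⟩ := hLk c t ht
    obtain ⟨k', hk', rfl⟩ := hLk c t' ht'
    have h1 := hmR c
    rw [div_lt_div_iff_of_pos_right h1] at htt
    have h2 : (k : ℝ) < k' := by linarith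
    have h3 : (k : ℝ) + 1 ≤ k' := by exact_mod_cast (by exact_mod_cast h2 : k < k')
    have h4 : (m c : ℝ) * ((o c + k') / m c - (o c + k) / m c) = k' - k := by
      field_simp; ring
    rw [h4]; linarith
  · intro c t ht
    obtain ⟨k, hk, rfl⟩ := hLk c t ht
    exact hoZ c k hk
  · intro c t ht
    exact (Finset.mem_filter.1 ht).2
  · intro c t ht p hp
    obtain ⟨k, hk, rfl⟩ := hLk c t ht
    exact hoV c k hk p hp
  · intro c t ht j
    obtain ⟨k, hk, rfl⟩ := hLk c t ht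
    exact hofin c k hk j
  · intro c c' hcc t ht t' ht' j y hy
    obtain ⟨k, hk, rfl⟩ := hLk c t ht
    obtain ⟨k', hk', rfl⟩ := hLk c' t' ht'
    exact hosep c c' hcc k hk k' hk' j y hy
  · intro c
    have h1 := hcard1 c
    have h2 : (2 * M0 c : ℝ) ≤ m c := by exact_mod_cast hm5 c
    have h3 : ((M0 c : ℝ)) ≤ (L c).card := by nlinarith [hmR c]
    exact_mod_cast h3
  · refine hsum c _ _ ((hoX c (Sum.inr i)).trans ?_)
    show ENNReal.ofReal (J c i) + _ ≤ _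
    gcongr
    exact min_le_left _ _

end

end Crest.Agent.R096.Ls_222
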