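import Crest.Agent.R096.Vb8_965

/-! Row 96, P1-TRIV (helper965), part 9: the arcs of the quads, the strips, transport to `Om` -/

set_option autoImplicit false
set_option linter.unusedSectionVars false
set_option linter.style.haveILetI false

open Set Topology Filter

namespace Crest.Agent.R096.Vb_965

open Crest.Agent.R096.Coh_184 Crest.Agent.R096.Brk1_582 Crest.Agent.R096.Brk2_582
open Crest.Agent.R096.Bsp_628 Crest.Agent.R096.Brk3_582
open Crest.Agent.R96.Push_899 Crest.Agent.R096.SkC1_961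

section arc

variable {E : Type*} [NormedAddCommGroup E] [NormedSpace ℝ E] [CompleteSpace E] {I : Type*}
variable {La : Set E} {P : I → Set E} {b : Set I → E} {N : ℕ}

/-- the arc of the quad with zero cells `Z` and active cells `a, a'` on the level sphere `(a, t)` -/
def arcQ (La : Set E) (P : I → Set E) (b : Set I → E) (Z : Set I) (a a' : I) (t β₁ β₂ : ℝ) : Set E :=
  {q ∈ La | (∀ z ∈ Z, q ∈ P z) ∧ sc P b q a = t ∧ sc P b q a' ∈ Icc β₁ β₂}

variable (F : Foam La P b N) {Z : Set I} {a a' : I} {t β₁ β₂ : ℝ}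

include F

theorem isClosed_arcQ (hZ : Z.Nonempty) : IsCompact (arcQ La P b Z a a' t β₁ β₂) := by
  have hK := F.isCompact_fc hZ
  have hKL := F.fc_sub_La hZ
  have h1 : arcQ La P b Z a a' t β₁ β₂ = fc P Z ∩
      (fun q => (sc P b q a, sc P b q a')) ⁻¹' ({t} ×ˢ Icc β₁ β₂) := by
    ext q
    constructor
    · rintro ⟨-, h2, h3, h4⟩
      exact ⟨mem_fc.2 h2, h3, h4⟩
    · rintro ⟨h2, h3, h4⟩
      exact ⟨hKL h2, mem_fc.1 h2, h3, h4⟩
  rw [h1]
  have hc : ContinuousOn (fun q => (sc P b q a, sc P b q a')) (fc P Z) :=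
    ((continuousOn_sc_apply F a).mono hKL).prodMk ((continuousOn_sc_apply F a').mono hKL)
  exact hK.of_isClosed_subset (hc.preimage_isClosed_of_isClosed hK.isClosed
    (isClosed_singleton.prod isClosed_Icc)) inter_subset_left

/-- on the arc all other coordinates are `1` -/
theorem sc_arcQ (hfin : (insert a (insert a' Z)).ncard = N) (ht1 : t < 1) (hβ1 : β₂ < 1)
    {q : E} (hq : q ∈ arcQ La P b Z a a' t β₁ β₂) {c : I} (hca : c ≠ a) (hca' : c ≠ a')
    (hcZ : c ∉ Z) : sc P b q c = 1 := by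
  obtain ⟨hqL, h2, h3, h4⟩ := hq
  by_contra hne
  have hlt : sc P b q c < 1 := lt_of_le_of_ne (F.sc_le_one hqL c) hne
  have hsub : insert c (insert a (insert a' Z)) ⊆ {c | sc P b q c < 1} := by
    intro d hd
    show sc P b q d < 1
    rcases hd with rfl | rfl | rfl | hd
    · exact hlt
    · rw [h3]; exact ht1
    · exact lt_of_le_of_lt h4.2 hβ1
    · rw [(F.sc_eq_zero hqL).2 (h2 d hd)]; exact one_pos
  have h5 := ncard_le_ncard hsub (F.sc_lt_one_finite hqL)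
  have h6 := F.sc_lt_one_ncard hqL
  have hfin' : (insert a (insert a' Z)).Finite :=
    (F.sc_lt_one_finite hqL).subset ((subset_insert _ _).trans hsub)
  rw [ncard_insert_of_notMem (by
    rintro (h | h | h)
    · exact hca h
    · exact hca' h
    · exact hcZ h) hfin', hfin] at h5
  omega

theorem arcQ_spec {A : Type*} [AddCommGroup A] (hZ : Z.Nonempty)
    (hN : (insert a (insert a' Z)).ncard = N) (hne : (fc P (insert a (insert a' Z))).Nonempty)
    (haa : a ≠ a') (ha : a ∉ Z) (ha' : a' ∉ Z) (ht0 : 0 ≤ t) (ht1 : t < 1) (hβ0 : 0 ≤ β₁)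
    (hβ1 : β₂ < 1) : IsPreconnected (arcQ La P b Z a a' t β₁ β₂) ∧
      TrivF A (arcQ La P b Z a a' t β₁ β₂) := by
  classical
  refine arc_of_injOn (μ := fun q => sc P b q a') (a := β₁) (b := β₂) (isClosed_arcQ F hZ)
    ((continuousOn_sc_apply F a').mono fun q hq => hq.1) ?_ ?_
  · intro q hq q' hq' h
    refine F.sc_inj hq.1 hq'.1 ?_
    funext c
    by_cases h1 : c = a
    · rw [h1, hq.2.2.1, hq'.2.2.1]
    by_cases h2 : c = a'
    · rw [h2]; exact h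
    by_cases h3 : c ∈ Z
    · rw [(F.sc_eq_zero hq.1).2 (hq.2.1 c h3), (F.sc_eq_zero hq'.1).2 (hq'.2.1 c h3)]
    · rw [sc_arcQ F hN ht1 hβ1 hq h1 h2 h3, sc_arcQ F hN ht1 hβ1 hq' h1 h2 h3]
  · ext β
    constructor
    · rintro ⟨q, hq, rfl⟩; exact hq.2.2.2
    · intro hβ
      let u : I → ℝ := fun c => if c = a then t else if c = a' then β else if c ∈ Z then 0 else 1
      have hlt : {c | u c < 1} ⊆ insert a (insert a' Z) := by
        intro c hc
        have hc' : u c < 1 := hc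
        by_contra hno
        have h1 : c ≠ a := fun h => hno (Or.inl h)
        have h2 : c ≠ a' := fun h => hno (Or.inr (Or.inl h))
        have h3 : c ∉ Z := fun h => hno (Or.inr (Or.inr h))
        simp only [u, if_neg h1, if_neg h2, if_neg h3] at hc'
        exact lt_irrefl _ hc'
      have huZ : ∀ z ∈ Z, u z = 0 := by
        intro z hz
        have h1 : z ≠ a := fun h => ha (h ▸ hz)
        have h2 : z ≠ a' := fun h => ha' (h ▸ hz)
        simp only [u, if_neg h1, if_neg h2, if_pos hz]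
      have huK : u ∈ K P := by
        refine ⟨fun c => ?_, ?_, ?_⟩
        · have hb1 : β ≤ 1 := hβ.2.trans hβ1.le
          have hb0 : 0 ≤ β := hβ0.trans hβ.1
          simp only [u]
          split_ifs
          · exact ⟨ht0, ht1.le⟩
          · exact ⟨hb0, hb1⟩
          · exact ⟨le_rfl, zero_le_one⟩
          · exact ⟨zero_le_one, le_rfl⟩
        · obtain ⟨z, hz⟩ := hZ
          exact ⟨z, huZ z hz⟩
        · exact hne.mono (fc_anti hlt)
      have hL := F.T_mem_La huK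
      have hsc := F.sc_T huK
      refine ⟨T b u, ⟨hL, ?_, ?_, ?_⟩, ?_⟩
      · intro z hz
        rw [← F.sc_eq_zero hL, hsc]
        exact huZ z hz
      · rw [hsc]; simp [u]
      · rw [hsc]; simp only [u, if_neg haa.symm, if_true]; exact hβ
      · show sc P b (T b u) a' = β
        rw [hsc]; simp [u, haa.symm]

theorem b_not_mem_arcQ (hcell : ∀ d, (P d).Nonempty) (ht0 : 0 < t) (ht1 : t < 1) (d : I) :
    b {d} ∉ arcQ La P b Z a a' t β₁ β₂ := by
  classical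
  intro h
  have h1 := F.sc_b (singleton_nonempty d) (A := {d}) (by simpa [fc] using hcell d) a
  rw [h.2.2.1] at h1
  split_ifs at h1
  · exact ht0.ne' h1
  · exact ht1.ne h1

variable {Ψ : E → E} {μ : E → ℝ} {ε : ℝ} (hp : Push La P Ψ μ) (hε : 0 < ε) (hε1 : ε ≤ 1)
include hp hε hε1

/-- **the strips of a quad have trivial torsors** -/
theorem trivF_strip {A : Type*} [AddCommGroup A] (hcell : ∀ d, (P d).Nonempty) (hZ : Z.Nonempty)
    (hN : (insert a (insert a' Z)).ncard = N) (hne : (fc P (insert a (insert a' Z))).Nonempty)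
    (haa : a ≠ a') (ha : a ∉ Z) (ha' : a' ∉ Z) (ht0 : 0 < t) (ht1 : t < 1) (hβ0 : 0 ≤ β₁)
    (hβ1 : β₂ < 1) : TrivF A {y ∈ La | RR P b Ψ μ ε y ∈ arcQ La P b Z a a' t β₁ β₂} :=
  trivF_RR F hp hε hε1 (isClosed_arcQ F hZ) (fun _ h => h.1) (b_not_mem_arcQ F hcell ht0 ht1)
    (arcQ_spec F hZ hN hne haa ha ha' ht0.le ht1 hβ0 hβ1).2

/-- description of the strip: `ε ≤ μ`, the coordinates of `Ψ y` -/
theorem mem_strip {y : E} (hcard : 2 ≤ Z.ncard) :
    (y ∈ La ∧ RR P b Ψ μ ε y ∈ arcQ La P b Z a a' t β₁ β₂) ↔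
      (y ∈ La ∧ ε ≤ μ y ∧ Ψ y ∈ arcQ La P b Z a a' t β₁ β₂) := by
  constructor
  · rintro ⟨hy, h⟩
    obtain ⟨z, hz, z', hz', hzz⟩ := (one_lt_ncard (finite_of_ncard_ne_zero (show Z.ncard ≠ 0 by omega))).1
      (show 1 < Z.ncard by omega)
    have h1 := h.2.1 z hz
    have h2 := h.2.1 z' hz'
    have h3 : y ∈ {y ∈ La | RR P b Ψ μ ε y = RR P b Ψ μ ε y} := ⟨hy, rfl⟩
    have h4 := (Set.ext_iff.1 (fibreR_wall F hp hε hε1 hzz.symm h1 h2) y).1 ⟨hy, rfl⟩
    obtain ⟨e, -, he, h5, h6⟩ := mem_iUnion₂.1 h4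
    exact ⟨hy, h6, by rw [h5]; exact h⟩
  · rintro ⟨hy, h1, h2⟩
    exact ⟨hy, by rw [RR_eq_Psi F hp hε hε1 hy h1]; exact h2⟩

end arc

/-! ### transport by a homeomorphism -/

section hom

variable {f : E3 → E3} {Om La : Set E3}

theorem Hom3.preimage_eq (hf : Hom3 f Om La) {D : Set E3} (hDL : D ⊆ La) :
    ∃ g : E3 → E3, ContinuousOn g D ∧ InjOn g D ∧ {x ∈ Om | f x ∈ D} = g '' D := by
  obtain ⟨g, a1, a2, a3, a4, a5, a6⟩ := hf
  refine ⟨g, a6.mono hDL, fun y hy z hz h => ?_, ?_⟩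
  · rw [← a4 y (hDL hy), ← a4 z (hDL hz), h]
  · ext x
    constructor
    · rintro ⟨hx, hxD⟩; exact ⟨f x, hxD, a3 x hx⟩
    · rintro ⟨y, hy, rfl⟩
      refine ⟨a2 (hDL hy), ?_⟩
      rw [a4 y (hDL hy)]; exact hy

theorem trivF_hom {A : Type*} [AddCommGroup A] (hf : Hom3 f Om La) {D : Set E3}
    (hD : IsCompact D) (hDL : D ⊆ La) (hT : TrivF A D) : TrivF A {x ∈ Om | f x ∈ D} := by
  obtain ⟨g, h1, h2, h3⟩ := Hom3.preimage_eq hf hDL
  rw [h3]
  exact hT.of_image hD hD.isClosed h1 h2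

theorem isCompact_hom (hf : Hom3 f Om La) {D : Set E3} (hD : IsCompact D) (hDL : D ⊆ La) :
    IsCompact {x ∈ Om | f x ∈ D} := by
  obtain ⟨g, h1, h2, h3⟩ := Hom3.preimage_eq hf hDL
  rw [h3]; exact hD.image_of_continuousOn h1

theorem isPreconnected_hom (hf : Hom3 f Om La) {D : Set E3} (hD : IsPreconnected D)
    (hDL : D ⊆ La) : IsPreconnected {x ∈ Om | f x ∈ D} := by
  obtain ⟨g, h1, h2, h3⟩ := Hom3.preimage_eq hf hDL
  rw [h3]; exact hD.image g h1

end hom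

/-! ### everything for `FoamD` -/

variable {δ κ0 R c0 : ℝ} {La : Set E3} (Φ : FoamD δ κ0 R c0 La)

/-- the map `RR` of 961's foam -/
noncomputable def RD (ε : ℝ) : E3 → E3 := RR (Pc Φ.F) (bc (F := Φ.F)) Φ.Psi (muD Φ) ε

/-- the function of the family `c` -/
noncomputable def vD (ε : ℝ) (c : Φ.F) (y : E3) : ℝ := sc (Pc Φ.F) (bc (F := Φ.F)) (RD Φ ε y) c

theorem cell_nonempty (d : Φ.F) : (Pc Φ.F d).Nonempty :=
  ⟨d.1.lo, Bx.mem_set.2 fun i => ⟨le_rfl, (Φ.bf.pos d.1 d.2 i).le⟩⟩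

variable {ε : ℝ} (hLa : IsOpen La) (hε : 0 < ε) (hε1 : ε ≤ 1)
include hLa hε hε1

theorem continuousOn_RD : ContinuousOn (RD Φ ε) La :=
  continuousOn_RR (Brk3_582.foam Φ.bf hLa) (pushD Φ hLa) hε hε1

theorem RD_mem {y : E3} (hy : y ∈ La) : RD Φ ε y ∈ La :=
  RR_mem_La (Brk3_582.foam Φ.bf hLa) (pushD Φ hLa) hε hε1 hy

theorem continuousOn_vD (c : Φ.F) : ContinuousOn (vD Φ ε c) La :=
  (continuousOn_sc_apply (Brk3_582.foam Φ.bf hLa) c).comp (continuousOn_RD Φ hLa hε hε1)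
    fun _ hy => RD_mem Φ hLa hε hε1 hy

/-- off `{μ < ε}` the function is 961's level function -/
theorem vD_eq_lev {y : E3} (hy : y ∈ La) (h : ε ≤ muD Φ y) (c : Φ.F) : vD Φ ε c y = Φ.lev c y := by
  unfold vD RD
  rw [RR_eq_Psi (Brk3_582.foam Φ.bf hLa) (pushD Φ hLa) hε hε1 hy h]
  rfl

/-- **the exact sheets in `Om`** -/
theorem trivF_sheetD {A : Type*} [AddCommGroup A] {f : E3 → E3} {Om : Set E3}
    (hf : Hom3 f Om La) (c : Φ.F) {t : ℝ} (ht0 : 0 < t) (ht1 : t < 1) :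
    TrivF A {x ∈ Om | vD Φ ε c (f x) = t} ∧ IsCompact {x ∈ Om | vD Φ ε c (f x) = t} ∧
      IsPreconnected {x ∈ Om | vD Φ ε c (f x) = t} := by
  have F := Brk3_582.foam Φ.bf hLa
  have hp := pushD Φ hLa
  have h3 : Module.finrank ℝ E3 = 3 := by simp [E3]
  have e1 := sheet_eq F hp hε hε1 (a := c) ht0
  have hL := isCompact_Lset F c ht0.le ht1
  have hb := b_not_mem_Lset F hp hε hε1 (a := c) ht0 ht1 (cell_nonempty Φ)
  have hsub : Lset La (Pc Φ.F) (bc (F := Φ.F)) c t ⊆ La := fun _ h => h.1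
  have g1 := trivF_sheet (A := A) F hp hε hε1 h3 (cell_nonempty Φ) (a := c) ht0 ht1
  have g2 := isCompact_RR F hp hε hε1 hL hsub
  have g3 := isPreconnected_RR F hp hε hε1 hL hsub hb
    (isPreconnected_Lset F h3 (cell_nonempty Φ c) ht0.le ht1)
  rw [e1] at g1 g2 g3
  obtain ⟨g, a1, a2, a3, a4, -⟩ := id hf
  have e2 : {x ∈ Om | vD Φ ε c (f x) = t} =
      {x ∈ Om | f x ∈ {y ∈ La | sc (Pc Φ.F) (bc (F := Φ.F)) (RR (Pc Φ.F) (bc (F := Φ.F)) Φ.Psi
        (muD Φ) ε y) c = t}} := by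
    ext x
    exact ⟨fun h => ⟨h.1, a1 h.1, h.2⟩, fun h => ⟨h.1, h.2.2⟩⟩
  rw [e2]
  exact ⟨trivF_hom hf g2 (fun _ h => h.1) g1, isCompact_hom hf g2 fun _ h => h.1,
    isPreconnected_hom hf g3 fun _ h => h.1⟩

/-- **the strips in `Om`** (zero cells `z₁ z₂`, active cells `a a'`) -/
theorem trivF_stripD {A : Type*} [AddCommGroup A] {f : E3 → E3} {Om : Set E3}
    (hf : Hom3 f Om La) {Z : Set Φ.F} (hZ : Z.ncard = 2) {a a' : Φ.F} (haa : a ≠ a') (ha : a ∉ Z)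
    (ha' : a' ∉ Z) (hne : (fc (Pc Φ.F) (insert a (insert a' Z))).Nonempty)
    {t β₁ β₂ : ℝ} (ht0 : 0 < t) (ht1 : t < 1) (hβ0 : 0 ≤ β₁) (hβ1 : β₂ < 1) :
    TrivF A {x ∈ Om | f x ∈ {y ∈ La | ε ≤ muD Φ y ∧
      Φ.Psi y ∈ arcQ La (Pc Φ.F) (bc (F := Φ.F)) Z a a' t β₁ β₂}} ∧
    IsCompact {x ∈ Om | f x ∈ {y ∈ La | ε ≤ muD Φ y ∧
      Φ.Psi y ∈ arcQ La (Pc Φ.F) (bc (F := Φ.F)) Z a a' t β₁ β₂}} := by
  have F := Brk3_582.foam Φ.bf hLa
  have hp := pushD Φ hLa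
  have hZf : Z.Finite := finite_of_ncard_ne_zero (by omega)
  have hZn : Z.Nonempty := nonempty_of_ncard_ne_zero (by omega)
  have hN : (insert a (insert a' Z)).ncard = Fintype.card (Fin 3) + 1 := by
    rw [ncard_insert_of_notMem _ (hZf.insert a'), ncard_insert_of_notMem ha' hZf, hZ]
    · simp
    · rintro (h | h)
      · exact haa h
      · exact ha h
  have e1 : {y ∈ La | ε ≤ muD Φ y ∧
      Φ.Psi y ∈ arcQ La (Pc Φ.F) (bc (F := Φ.F)) Z a a' t β₁ β₂} =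
      {y ∈ La | RR (Pc Φ.F) (bc (F := Φ.F)) Φ.Psi (muD Φ) ε y ∈
        arcQ La (Pc Φ.F) (bc (F := Φ.F)) Z a a' t β₁ β₂} := by
    ext y
    exact (mem_strip F hp hε hε1 (by omega)).symm
  rw [e1]
  have g1 := trivF_strip (A := A) F hp hε hε1 (cell_nonempty Φ) hZn hN hne haa ha ha' ht0 ht1
    hβ0 hβ1
  have g2 := isCompact_RR F hp hε hε1 (isClosed_arcQ F hZn (a := a) (a' := a') (t := t) (β₁ := β₁)
    (β₂ := β₂)) (fun _ h => h.1)
  exact ⟨trivF_hom hf g2 (fun _ h => h.1) g1, isCompact_hom hf g2 fun _ h => h.1⟩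

end Crest.Agent.R096.Vb_965
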