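/-
helper222, row 96, LEVSEL part 5: adapter to the interface `SkC1_961` (FoamD, Levels, NN).
-/
import Mathlib
import Crest.Agent.R096.SkC1_961
import Crest.Agent.R096.Vb9_965
import Crest.Agent.R096.Ls3_222
import Crest.Agent.R096.Ls4_222

set_option autoImplicit false
set_option linter.unusedSectionVars false

open MeasureTheory Set Filter
open scoped Topology ENNReal

namespace Crest.Agent.R096.Ls_222

open Crest.Agent.R096.Bas_731 Crest.Agent.R96.En2_199 Crest.Agent.R96.Sg1_199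
open Crest.Agent.R096.Msh_715 Crest.Agent.R096.SkC1_961
open Crest.Agent.R096.Bsp_628 Crest.Agent.R096.Brk1_582 Crest.Agent.R096.Brk3_582

noncomputable section

/-! ### general: sums over the functions -/

section gen

variable {E : Type*} [NormedAddCommGroup E] [NormedSpace ℝ E]

/-- lower integrals are superadditive -/
theorem tsum_mul_li_le {𝒞 : Type*} (w : 𝒞 → ℝ≥0∞) (g : 𝒞 → E → ℝ≥0∞) (x v : E) :
    ∑' c, w c * li (g c) x v ≤ li (fun y => ∑' c, w c * g c y) x v := by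
  unfold li
  rw [ENNReal.tsum_eq_iSup_sum]
  refine iSup_le fun S => ?_
  have h : ∀ S : Finset 𝒞, ∑ c ∈ S, w c * ∫⁻ τ in Icc (0:ℝ) 1, g c (x + τ • v) ≤
      ∫⁻ τ in Icc (0:ℝ) 1, ∑ c ∈ S, w c * g c (x + τ • v) := by
    classical
    intro S
    induction S using Finset.induction_on with
    | empty => simp
    | insert a S ha ih =>
      rw [Finset.sum_insert ha]
      simp only [Finset.sum_insert ha]
      refine (add_le_add (lintegral_const_mul_le _ _) ih).trans ?_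
      exact le_lintegral_add _ _
  refine (h S).trans (lintegral_mono fun τ => ?_)
  exact ENNReal.sum_le_tsum S

end gen

/-! ### `FoamD` -/

section foam

variable {δ κ0 R c0 : ℝ} {La Om : Set E3} {ι : Type} (Φ : FoamD δ κ0 R c0 La) (T : Tiling Om ι)
  (f : E3 → E3)

theorem countable_F : Countable Φ.F := Φ.bf.countable.to_subtype

theorem szF_pos (c : Φ.F) : 0 < c.1.sz := Bx.sz_pos (Φ.bf.pos c.1 c.2)

/-- the level functions on the source -/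
def us (c : Φ.F) (x : E3) : ℝ := Φ.lev c (f x)

variable {Φ T f}

/-- **`NN` is counted on the edges of the tile** -/
theorem NN_le {κ : Φ.F → ℕ} {L : Φ.F → Finset ℝ}
    (hv : ∀ c, ∀ t ∈ L c, ∀ x ∈ Om, T.dim x = 0 → Φ.lev c (f x) ≠ t) (i : ι) :
    NN Φ T f κ L i ≤ ∑ e ∈ eIn T i, EN (us Φ f) κ L e :=
  nn_le (u := us Φ f) hv i

variable (Φ T f) in
/-- our levels are levels of `SkC1` -/
theorem levels_of_Lv {κ1 : ℝ} (hκ1 : κ1 ≤ 1) {Z Bad : Φ.F → Set ℝ} {m κ : Φ.F → ℕ}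
    {L : Φ.F → Finset ℝ}
    (h : Lv (ea (T := T)) (ev (T := T)) (us Φ f) (Vt T) κ1 (fun c => c.1.sz) Z Bad m κ L) :
    Levels Φ T f κ1 Z κ L where
  lf := h.lf
  sub := h.sub
  many := by
    intro c
    have h1 := h.wt1 c
    have h2 := h.card1 c
    have h3 : (0:ℝ) < (2:ℝ)⁻¹ ^ κ c := by positivity
    have h4 : (0:ℝ) ≤ m c := Nat.cast_nonneg _
    have h5 : (1 / 2 : ℝ) * m c ≤ (L c).card := le_trans (by nlinarith) h2
    have h6 := mul_le_mul_of_nonneg_right h5 h3.le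
    have h7 : (0:ℝ) ≤ (L c).card * (2:ℝ)⁻¹ ^ κ c := by positivity
    nlinarith
  few := by
    intro c
    have h1 := (h.wt2 c).le
    have h2 := h.card2 c
    have h3 : (0:ℝ) < (2:ℝ)⁻¹ ^ κ c := by positivity
    have h6 := mul_le_mul_of_nonneg_right h2 h3.le
    have h7 := szF_pos Φ c
    linarith
  large := h.large
  pos := h.pos
  off := h.off
  vert := fun c t ht x hx hd => h.vert c t ht x ⟨hx, hd⟩
  fin := by
    intro c t ht x hx hd
    let e : Edg T := ⟨T.cc x, x, hx, hd, rfl⟩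
    have he : sgm (ea e) (ev e) = T.cc x := sgm_edg e
    have h1 := h.fin c t ht e
    rw [he] at h1
    exact h1
  sep := by
    intro c c' hcc t ht t' ht' x hx hd
    let e : Edg T := ⟨T.cc x, x, hx, hd, rfl⟩
    have he : sgm (ea e) (ev e) = T.cc x := sgm_edg e
    exact h.sep c c' hcc t ht t' ht' e x (he ▸ T.self_mem_cc x)

end foam

/-! ### continuity and local finiteness of the level functions -/

section cont

variable {δ κ0 R c0 : ℝ} {La Om : Set E3} {ι : Type} {Φ : FoamD δ κ0 R c0 La} {T : Tiling Om ι}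
  {f : E3 → E3}

theorem mu_pos (hLa : IsOpen La) {y : E3} (hy : y ∈ La) (h : ∀ c, y ∉ (Φ.B c).S) :
    0 < Vb_965.muD Φ y := by
  obtain ⟨c, hc⟩ := (Brk3_582.foam Φ.bf hLa).cov y hy
  exact (Vb_965.muD_pos Φ hLa hc).2 (h c)

theorem Psi_mem_brick (hLa : IsOpen La) {y : E3} {c : Φ.F} (hc : y ∈ c.1.set)
    (h : y ∉ (Φ.B c).S) : Φ.Psi y ∈ c.1.set :=
  ((Vb_965.pushD Φ hLa).mem c y hc ((Vb_965.muD_pos Φ hLa hc).2 h)).1

theorem Psi_mem_La (hLa : IsOpen La) {y : E3} (hy : y ∈ La) (h : ∀ c, y ∉ (Φ.B c).S) :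
    Φ.Psi y ∈ La := by
  obtain ⟨c, hc⟩ := (Brk3_582.foam Φ.bf hLa).cov y hy
  exact (Brk3_582.foam Φ.bf hLa).sub c (Psi_mem_brick hLa hc (h c))

/-- the level functions are continuous off the holes -/
theorem continuousOn_lev (hLa : IsOpen La) (c : Φ.F) :
    ContinuousOn (Φ.lev c) {y | y ∈ La ∧ ∀ c, y ∉ (Φ.B c).S} := by
  have h1 := (Vb_965.pushD Φ hLa).cont
  have h2 := Brk2_582.continuousOn_sc_apply (Brk3_582.foam Φ.bf hLa) c
  exact h2.comp (h1.mono fun y hy => ⟨hy.1, mu_pos hLa hy.1 hy.2⟩)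
    fun y hy => Psi_mem_La hLa hy.1 hy.2

theorem continuousOn_us (hLa : IsOpen La) (hf : Hom3 f Om La) {S : Set E3} (hS : S ⊆ Om)
    (h : ∀ x ∈ S, ∀ c, f x ∉ (Φ.B c).S) (c : Φ.F) : ContinuousOn (us Φ f c) S := by
  obtain ⟨fi, h1, -, -, -, h5, -⟩ := hf
  exact (continuousOn_lev hLa c).comp (h5.mono hS) fun x hx => ⟨h1 (hS hx), h x hx⟩

/-- the level function `lev c` has values below `1` only on finitely many bricks -/
theorem exists_compact_lev (hLa : IsOpen La) (c : Φ.F) :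
    ∃ K, IsCompact K ∧ K ⊆ La ∧ ∀ y ∈ La, (∀ c', y ∉ (Φ.B c').S) → Φ.lev c y < 1 → y ∈ K := by
  have F := Brk3_582.foam Φ.bf hLa
  have hfin : {d : Φ.F | (Pc Φ.F d ∩ Pc Φ.F c).Nonempty}.Finite := F.finite_meet (F.cpt c) (F.sub c)
  refine ⟨⋃ d ∈ {d : Φ.F | (Pc Φ.F d ∩ Pc Φ.F c).Nonempty}, Pc Φ.F d,
    hfin.isCompact_biUnion fun d _ => F.cpt d, iUnion₂_subset fun d _ => F.sub d, ?_⟩
  intro y hy hh hlt
  obtain ⟨d, hd⟩ := F.cov y hy
  refine mem_iUnion₂.2 ⟨d, ?_, hd⟩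
  have h1 := Psi_mem_brick hLa hd (hh d)
  have h2 := Psi_mem_La hLa hy hh
  have h3 : sc (Pc Φ.F) (bc (F := Φ.F)) (Φ.Psi y) d = 0 := (F.sc_eq_zero h2).2 h1
  obtain ⟨q, hq⟩ := F.sc_lt_one_fc h2
  rw [mem_fc] at hq
  refine ⟨q, hq d ?_, hq c hlt⟩
  show sc (Pc Φ.F) (bc (F := Φ.F)) (Φ.Psi y) d < 1
  rw [h3]; exact one_pos

theorem exists_compact_us (hLa : IsOpen La) (hf : Hom3 f Om La) (c : Φ.F) :
    ∃ K, IsCompact K ∧ K ⊆ Om ∧
      ∀ x ∈ Om, (∀ c', f x ∉ (Φ.B c').S) → us Φ f c x < 1 → x ∈ K := by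
  obtain ⟨K, h1, h2, h3⟩ := exists_compact_lev (Φ := Φ) hLa c
  refine ⟨_, Vb_965.isCompact_hom hf h1 h2, fun x hx => hx.1, ?_⟩
  intro x hx hh hlt
  obtain ⟨fi, g1, -⟩ := hf
  exact ⟨hx, h3 (f x) (g1 hx) hh hlt⟩

end cont

/-! ### LEVSEL -/

section levsel

variable {δ κ0 R c0 : ℝ} {La Om : Set E3} {ι : Type} {Φ : FoamD δ κ0 R c0 La} {T : Tiling Om ι}
  {f : E3 → E3}

/-- **LEVSEL** in the language of `SkC1` -/
theorem levsel (hLa : IsOpen La) (hf : Hom3 f Om La) (T : Tiling Om ι)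
    (hh : ∀ e : Edg T, ∀ y ∈ sgm (ea e) (ev e), ∀ c, f y ∉ (Φ.B c).S)
    {g : Φ.F → Edg T → E3 → ℝ≥0∞}
    (hug : ∀ c e, UGs (us Φ f c) (g c e) (ea e) (ev e))
    (hfin : ∀ c e, li (g c e) (ea e) (ev e) ≠ ∞)
    {κ' : Φ.F → Type*} [∀ c, Fintype (κ' c)] {X : ∀ c, κ' c → ℝ → ℝ≥0∞}
    (hX : ∀ c j, AEMeasurable (X c j) (volume.restrict (Icc (0:ℝ) 1)))
    {J : ∀ c, κ' c → ℝ} (hJ0 : ∀ c j, 0 ≤ J c j)
    (hJ : ∀ c j, ∫⁻ y in Icc (0:ℝ) 1, X c j y ≤ ENNReal.ofReal (J c j))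
    {e' : Φ.F → ℝ} (he' : ∀ c, 0 < e' c)
    {err : Edg T → ℝ≥0∞} (herr : ∀ e, err e ≠ 0)
    {κ1 : ℝ} (hκ0 : 0 < κ1) (hκ1 : κ1 ≤ 1)
    {Z Bad : Φ.F → Set ℝ} (hZ : ∀ c, volume (Z c) = 0) (hBm : ∀ c, MeasurableSet (Bad c))
    (hB : ∀ c, volume (Bad c ∩ Icc 0 1) ≤ ENNReal.ofReal (κ1 / 8)) (m0 : Φ.F → ℕ) :
    ∃ (m κ : Φ.F → ℕ) (L : Φ.F → Finset ℝ),
      Lv (ea (T := T)) (ev (T := T)) (us Φ f) (Vt T) κ1 (fun c => c.1.sz) Z Bad m κ L ∧
      Levels Φ T f κ1 Z κ L ∧ (∀ c, m0 c ≤ (L c).card) ∧ (∀ c, ∀ t ∈ L c, t ∉ Bad c) ∧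
      (∀ e, EN (us Φ f) κ L e ≤
        li (fun y => ∑' c : Φ.F, ENNReal.ofReal (2 * c.1.sz) * g c e y) (ea e) (ev e) + err e) ∧
      (∀ i, NN Φ T f κ L i ≤ ∑ e ∈ eIn T i,
        (li (fun y => ∑' c : Φ.F, ENNReal.ofReal (2 * c.1.sz) * g c e y) (ea e) (ev e) + err e)) ∧
      ∀ c j, ENNReal.ofReal ((2 : ℝ)⁻¹ ^ κ c) * ∑ t ∈ L c, X c j t ≤
        ENNReal.ofReal (2 * c.1.sz) * (ENNReal.ofReal (J c j) + ENNReal.ofReal (e' c)) := by
  classical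
  have : Countable Φ.F := countable_F Φ
  obtain ⟨e0, he0, hes⟩ := exists_errs (𝒞 := Φ.F) (ι := Edg T)
    (w := fun c => ENNReal.ofReal (2 * c.1.sz)) (fun c => ENNReal.ofReal_ne_top) herr
  choose K hK hKO hKc using fun c => exists_compact_us (Φ := Φ) hLa hf c
  let Fc : Φ.F → Finset (Edg T) := fun c => (finite_edg_sgm T (hK c) (hKO c)).toFinset
  obtain ⟨m, κ, L, hLv, -, hM, hE, hXX⟩ := exists_Lv (ea (T := T)) (ev (T := T)) (fun e => ev_ne e)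
    (u := us Φ f) (g := g) Fc
    (by
      intro c e he y hy hyv
      apply he
      simp only [Fc, Finite.mem_toFinset]
      exact ⟨y, hy, hKc c y (sgm_sub_Om e hy) (hh e y hy) hyv.2⟩)
    (fun c e _ => continuousOn_us hLa hf (sgm_sub_Om e) (hh e) c)
    (fun c e _ => hug c e) (fun c e _ => hfin c e) (countable_Vt T) hX hJ0 hJ he0 he' hκ0 hκ1
    (sz := fun c => c.1.sz) (szF_pos Φ) hZ hBm hB m0 (fun _ n => n) (fun _ _ => le_rfl)
  have hen : ∀ e, EN (us Φ f) κ L e ≤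
      li (fun y => ∑' c : Φ.F, ENNReal.ofReal (2 * c.1.sz) * g c e y) (ea e) (ev e) + err e := by
    intro e
    unfold EN
    calc ∑' c, ENNReal.ofReal ((2 : ℝ)⁻¹ ^ κ c) * ∑ t ∈ L c, cr (us Φ f c) (ea e) (ev e) t
        ≤ ∑' c : Φ.F, (ENNReal.ofReal (2 * c.1.sz) * li (g c e) (ea e) (ev e) +
            ENNReal.ofReal (2 * c.1.sz) * ENNReal.ofReal (e0 c e)) := by
          refine ENNReal.tsum_le_tsum fun c => ?_
          rw [← mul_add]
          exact (hE c e).trans (mul_le_mul' (ENNReal.ofReal_le_ofReal (hLv.wt2 c).le) le_rfl)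
      _ = ∑' c : Φ.F, ENNReal.ofReal (2 * c.1.sz) * li (g c e) (ea e) (ev e) +
            ∑' c : Φ.F, ENNReal.ofReal (2 * c.1.sz) * ENNReal.ofReal (e0 c e) := ENNReal.tsum_add
      _ ≤ _ := add_le_add (tsum_mul_li_le _ _ _ _) (hes e)
  have hLe := levels_of_Lv Φ T f hκ1 hLv
  exact ⟨m, κ, L, hLv, hLe, hM, hLv.bad, hen,
    fun i => (NN_le hLe.vert i).trans (Finset.sum_le_sum fun e _ => hen e),
    fun c j => (hXX c j).trans (mul_le_mul' (ENNReal.ofReal_le_ofReal (hLv.wt2 c).le) le_rfl)⟩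

end levsel

end

end Crest.Agent.R096.Ls_222
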