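/-
helper222, row 96, LEVSEL part 6: upper gradients of the level functions from an upper gradient of
`Psi ∘ f`: only the part where the level function is `< 1` counts.
-/
import Mathlib
import Crest.Agent.R096.Ls5_222

set_option autoImplicit false
set_option linter.unusedSectionVars false

open MeasureTheory Set Filter
open scoped Topology ENNReal

namespace Crest.Agent.R096.Ls_222

open Crest.Agent.R096.Bas_731 Crest.Agent.R96.En2_199 Crest.Agent.R96.Sg1_199 Crest.Agent.R96.Acl_392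
open Crest.Agent.R096.Msh_715 Crest.Agent.R096.SkC1_961
open Crest.Agent.R096.Bsp_628 Crest.Agent.R096.Brk1_582 Crest.Agent.R096.Brk3_582
open Crest.Agent.R096.Brk5_582

noncomputable section

/-! ### one variable -/

section oneD

variable {V : Type*} [NormedAddCommGroup V] {h : ℝ → ℝ} {γ : ℝ → V} {G : ℝ → ℝ≥0∞} {K a b : ℝ}

theorem lint_split (G : ℝ → ℝ≥0∞) {a b c : ℝ} (h1 : a ≤ b) (h2 : b ≤ c) :
    ∫⁻ τ in Ioc a c, G τ = (∫⁻ τ in Ioc a b, G τ) + ∫⁻ τ in Ioc b c, G τ := by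
  rw [← lintegral_union measurableSet_Ioc (Set.Ioc_disjoint_Ioc_of_le le_rfl), Ioc_union_Ioc_eq_Ioc h1 h2]

/-- local Lipschitz estimate along a path ⟹ upper gradient -/
theorem loc_glob (hK : 0 ≤ K) (hab : a ≤ b)
    (hγ : ∀ s t, a ≤ s → s ≤ t → t ≤ b → ‖γ t - γ s‖ₑ ≤ ∫⁻ τ in Ioc s t, G τ)
    (hloc : ∀ τ ∈ Icc a b, ∃ ε > 0, ∀ s ∈ Icc a b, ∀ t ∈ Icc a b, |s - τ| < ε → |t - τ| < ε →
      |h t - h s| ≤ K * ‖γ t - γ s‖) :
    ENNReal.ofReal |h b - h a| ≤ ENNReal.ofReal K * ∫⁻ τ in Ioc a b, G τ := by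
  choose! ε hε hεl using hloc
  obtain ⟨t, ht0, htm, ⟨m, htn⟩, hc⟩ := exists_monotone_Icc_subset_open_cover_Icc hab
    (c := fun τ : Icc a b => {s : Icc a b | |(s : ℝ) - τ| < ε τ})
    (fun τ => isOpen_lt (by fun_prop) continuous_const)
    (fun τ _ => mem_iUnion.2 ⟨τ, by
      show |(τ : ℝ) - τ| < ε τ
      rw [sub_self, abs_zero]; exact hε τ τ.2⟩)
  have key : ∀ n, ENNReal.ofReal |h (t n) - h a| ≤
      ENNReal.ofReal K * ∫⁻ τ in Ioc a (t n : ℝ), G τ := by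
    intro n
    induction n with
    | zero =>
      rw [ht0, sub_self, abs_zero, ENNReal.ofReal_zero]
      exact zero_le
    | succ n ih =>
      obtain ⟨i, hi⟩ := hc n
      have hle : t n ≤ t (n + 1) := htm (Nat.le_succ n)
      have hle' : (t n : ℝ) ≤ t (n + 1) := hle
      have h1 := hi (left_mem_Icc.2 hle)
      have h2 := hi (right_mem_Icc.2 hle)
      have h3 := hεl i i.2 (t n) (t n).2 (t (n + 1)) (t (n + 1)).2 h1 h2
      have h4 := hγ (t n) (t (n + 1)) (t n).2.1 hle' (t (n + 1)).2.2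
      rw [lint_split G (t n).2.1 hle', mul_add]
      calc ENNReal.ofReal |h (t (n + 1)) - h a|
          ≤ ENNReal.ofReal (|h (t n) - h a| + |h (t (n + 1)) - h (t n)|) := by
            apply ENNReal.ofReal_le_ofReal
            have := abs_add_le (h (t n) - h a) (h (t (n + 1)) - h (t n))
            rwa [show h (t n) - h a + (h (t (n + 1)) - h (t n)) = h (t (n + 1)) - h a by ring] at this
        _ = ENNReal.ofReal |h (t n) - h a| + ENNReal.ofReal |h (t (n + 1)) - h (t n)| :=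
            ENNReal.ofReal_add (abs_nonneg _) (abs_nonneg _)
        _ ≤ _ := by
            refine add_le_add ih ?_
            calc ENNReal.ofReal |h (t (n + 1)) - h (t n)|
                ≤ ENNReal.ofReal (K * ‖γ (t (n + 1)) - γ (t n)‖) := ENNReal.ofReal_le_ofReal h3
              _ = ENNReal.ofReal K * ‖γ (t (n + 1)) - γ (t n)‖ₑ := by
                  rw [ENNReal.ofReal_mul hK, ofReal_norm]
              _ ≤ _ := by gcongr
  have := key m
  rwa [htn m le_rfl] at this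

/-- only the part where `h < 1` counts -/
theorem loc_glob_lt (hK : 0 ≤ K) (hab : a ≤ b)
    (hγ : ∀ s t, a ≤ s → s ≤ t → t ≤ b → ‖γ t - γ s‖ₑ ≤ ∫⁻ τ in Ioc s t, G τ)
    (hh : ContinuousOn h (Icc a b)) (h1 : ∀ τ ∈ Icc a b, h τ ≤ 1)
    (hloc : ∀ τ ∈ Icc a b, h τ < 1 → ∃ ε > 0, ∀ s ∈ Icc a b, ∀ t ∈ Icc a b, |s - τ| < ε →
      |t - τ| < ε → |h t - h s| ≤ K * ‖γ t - γ s‖) :
    ENNReal.ofReal |h b - h a| ≤
      ENNReal.ofReal K * ∫⁻ τ in Ioc a b, {τ | h τ < 1}.indicator G τ := by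
  classical
  -- intervals without points of `{h = 1}`
  have sub : ∀ s t, a ≤ s → s ≤ t → t ≤ b → (∀ τ ∈ Icc s t, h τ < 1) →
      ENNReal.ofReal |h t - h s| ≤
        ENNReal.ofReal K * ∫⁻ τ in Ioc s t, {τ | h τ < 1}.indicator G τ := by
    intro s t hs hst ht hlt
    have e1 : ∫⁻ τ in Ioc s t, {τ | h τ < 1}.indicator G τ = ∫⁻ τ in Ioc s t, G τ := by
      refine setLIntegral_congr_fun measurableSet_Ioc fun τ hτ => ?_
      exact indicator_of_mem (show τ ∈ {τ | h τ < 1} from hlt τ (Ioc_subset_Icc_self hτ)) G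
    rw [e1]
    refine loc_glob hK hst (fun s' t' h1' h2' h3' => hγ s' t' (hs.trans h1') h2' (h3'.trans ht)) ?_
    intro τ hτ
    obtain ⟨ε, hε, hl⟩ := hloc τ ⟨hs.trans hτ.1, hτ.2.trans ht⟩ (hlt τ hτ)
    exact ⟨ε, hε, fun s' hs' t' ht' => hl s' ⟨hs.trans hs'.1, hs'.2.trans ht⟩ t'
      ⟨hs.trans ht'.1, ht'.2.trans ht⟩⟩
  set S : Set ℝ := {τ ∈ Icc a b | h τ = 1} with hS
  have hSc : IsCompact S := by
    have : S = Icc a b ∩ h ⁻¹' {1} := by ext; simp [hS]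
    rw [this]
    exact isCompact_Icc.of_isClosed_subset (hh.preimage_isClosed_of_isClosed isClosed_Icc
      isClosed_singleton) inter_subset_left
  rcases S.eq_empty_or_nonempty with hSe | hSn
  · refine sub a b le_rfl hab le_rfl fun τ hτ => lt_of_le_of_ne (h1 τ hτ) fun h2 => ?_
    have : τ ∈ S := ⟨hτ, h2⟩
    rw [hSe] at this; exact this
  · obtain ⟨⟨har, hrb⟩, hr1⟩ : sInf S ∈ S := hSc.sInf_mem hSn
    obtain ⟨⟨har', hrb'⟩, hr1'⟩ : sSup S ∈ S := hSc.sSup_mem hSn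
    have hrr : sInf S ≤ sSup S := csInf_le_csSup hSn hSc.bddBelow hSc.bddAbove
    set r := sInf S
    set r' := sSup S
    have hltr : ∀ τ, a ≤ τ → τ < r → h τ < 1 := by
      intro τ h2 h3
      refine lt_of_le_of_ne (h1 τ ⟨h2, h3.le.trans hrb⟩) fun h4 => ?_
      exact absurd (csInf_le hSc.bddBelow (show τ ∈ S from ⟨⟨h2, h3.le.trans hrb⟩, h4⟩)) (not_le.2 h3)
    have hltr' : ∀ τ, r' < τ → τ ≤ b → h τ < 1 := by
      intro τ h2 h3
      refine lt_of_le_of_ne (h1 τ ⟨har'.trans h2.le, h3⟩) fun h4 => ?_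
      exact absurd (le_csSup hSc.bddAbove (show τ ∈ S from ⟨⟨har'.trans h2.le, h3⟩, h4⟩)) (not_le.2 h2)
    have A : ENNReal.ofReal |h r - h a| ≤
        ENNReal.ofReal K * ∫⁻ τ in Ioc a r, {τ | h τ < 1}.indicator G τ := by
      rcases har.eq_or_lt with h2 | h2
      · rw [← h2, sub_self, abs_zero, ENNReal.ofReal_zero]; exact zero_le
      · have hne : (𝓝[Ico a r] r).NeBot := by
          rw [← mem_closure_iff_nhdsWithin_neBot, closure_Ico h2.ne]
          exact right_mem_Icc.2 h2.le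
        have hc : Tendsto (fun s => ENNReal.ofReal |h s - h a|) (𝓝[Ico a r] r)
            (𝓝 (ENNReal.ofReal |h r - h a|)) := by
          have h3 : ContinuousWithinAt h (Ico a r) r :=
            (hh r ⟨har, hrb⟩).mono fun s hs => ⟨hs.1, hs.2.le.trans hrb⟩
          exact (ENNReal.continuous_ofReal.tendsto _).comp ((h3.sub_const _).abs)
        refine le_of_tendsto hc ?_
        filter_upwards [self_mem_nhdsWithin] with s hs
        refine (sub a s le_rfl hs.1 (hs.2.le.trans hrb) fun τ hτ => hltr τ hτ.1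
          (hτ.2.trans_lt hs.2)).trans ?_
        gcongr
        exact hs.2.le
    have B : ENNReal.ofReal |h b - h r'| ≤
        ENNReal.ofReal K * ∫⁻ τ in Ioc r' b, {τ | h τ < 1}.indicator G τ := by
      rcases hrb'.eq_or_lt with h2 | h2
      · rw [h2, sub_self, abs_zero, ENNReal.ofReal_zero]; exact zero_le
      · have hne : (𝓝[Ioc r' b] r').NeBot := by
          rw [← mem_closure_iff_nhdsWithin_neBot, closure_Ioc h2.ne]
          exact left_mem_Icc.2 h2.le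
        have hc : Tendsto (fun s => ENNReal.ofReal |h b - h s|) (𝓝[Ioc r' b] r')
            (𝓝 (ENNReal.ofReal |h b - h r'|)) := by
          have h3 : ContinuousWithinAt h (Ioc r' b) r' :=
            (hh r' ⟨har', hrb'⟩).mono fun s hs => ⟨har'.trans hs.1.le, hs.2⟩
          exact (ENNReal.continuous_ofReal.tendsto _).comp ((continuousWithinAt_const.sub h3).abs)
        refine le_of_tendsto hc ?_
        filter_upwards [self_mem_nhdsWithin] with s hs
        refine (sub s b (har'.trans hs.1.le) hs.2 le_rfl fun τ hτ => hltr' τ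
          (hs.1.trans_le hτ.1) hτ.2).trans ?_
        gcongr
        exact hs.1.le
    have C : ENNReal.ofReal |h b - h a| ≤ ENNReal.ofReal |h r - h a| + ENNReal.ofReal |h b - h r'| := by
      rw [← ENNReal.ofReal_add (abs_nonneg _) (abs_nonneg _)]
      apply ENNReal.ofReal_le_ofReal
      have h2 := abs_add_le (h r - h a) (h b - h r')
      have h3 : h r - h a + (h b - h r') = h b - h a := by rw [hr1, hr1']; ring
      rwa [h3] at h2
    refine C.trans ((add_le_add A B).trans ?_)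
    rw [← mul_add]
    gcongr
    rw [lint_split _ har (hrr.trans hrb'), lint_split _ hrr hrb']
    gcongr
    exact le_add_self

end oneD

/-! ### the foam coordinates -/

section sc

variable {κ : Type*} [Fintype κ] [Nonempty κ] {La : Set (κ → ℝ)} {F : Set (Bx κ)} {δ κ0 : ℝ}

/-- near a point where it is `< 1` the coordinate `c` is `Cs R / size of c`-Lipschitz -/
theorem lip_lt_one (BF : BoxFoam La F δ κ0) (hLa : IsOpen La) (hδ : 0 < δ) {R : ℝ} (hR : 0 < R)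
    (hcmp : Cmp F R) {y : κ → ℝ} (hy : y ∈ La) {c : F} (hc : sc (Pc F) (bc (F := F)) y c < 1) :
    ∃ r > 0, Metric.ball y r ⊆ La ∧ ∀ x ∈ Metric.ball y r, ∀ x' ∈ Metric.ball y r,
      |sc (Pc F) (bc (F := F)) x c - sc (Pc F) (bc (F := F)) x' c| ≤
        Cs (Fintype.card κ) δ R * R / c.1.sz * ‖x - x'‖ := by
  have FF := foam BF hLa
  obtain ⟨r, hr, hfin⟩ := FF.lf y hy
  obtain ⟨r', hr', hball⟩ := Metric.isOpen_iff.1 hLa y hy
  -- the finitely many cells which meet the ball but do not contain `y`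
  have hfar : ∃ r2 > 0, ∀ d : F, (Pc F d ∩ Metric.ball y r2).Nonempty → y ∈ Pc F d := by
    set S := {d : F | (Pc F d ∩ Metric.ball y r).Nonempty ∧ y ∉ Pc F d} with hS
    have hSf : S.Finite := hfin.subset fun d hd => hd.1
    have hcl : IsClosed (⋃ d ∈ S, Pc F d) := hSf.isClosed_biUnion fun d _ => (FF.cpt d).isClosed
    have hyn : y ∉ ⋃ d ∈ S, Pc F d := by
      intro h
      obtain ⟨d, hd, hyd⟩ := mem_iUnion₂.1 h
      exact hd.2 hyd
    obtain ⟨r3, hr3, hb3⟩ := Metric.isOpen_iff.1 hcl.isOpen_compl y hyn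
    refine ⟨min r r3, lt_min hr hr3, fun d hd => ?_⟩
    by_contra hyd
    obtain ⟨q, hq, hqb⟩ := hd
    have hd' : d ∈ S := ⟨⟨q, hq, Metric.ball_subset_ball (min_le_left _ _) hqb⟩, hyd⟩
    exact hb3 (Metric.ball_subset_ball (min_le_right _ _) hqb) (mem_iUnion₂.2 ⟨d, hd', hq⟩)
  obtain ⟨r2, hr2, hb2⟩ := hfar
  have hsz : 0 < c.1.sz := Bx.sz_pos (BF.pos _ c.2)
  have hsub : Metric.ball y (min r' r2) ⊆ La :=
    (Metric.ball_subset_ball (min_le_left _ _)).trans hball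
  refine ⟨min r' r2, lt_min hr' hr2, hsub, ?_⟩
  have hcv : Metric.ball y (min r' r2) ⊆ ⋃ d ∈ {d : F | y ∈ Pc F d}, Pc F d := by
    intro p hp
    obtain ⟨d, hd⟩ := FF.cov p (hsub hp)
    exact mem_iUnion₂.2 ⟨d, hb2 d ⟨p, hd, Metric.ball_subset_ball (min_le_right _ _) hp⟩, hd⟩
  intro x hx x' hx'
  have h := lip_convex BF hLa hδ hR hcmp (convex_ball y (min r' r2)) (FF.finite_act hy) hcv
    (σ := c.1.sz / R) (by positivity) ?_ c x hx x' hx'
  · refine h.trans (le_of_eq ?_)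
    rw [div_div_eq_mul_div]
  · intro d hd
    obtain ⟨q, hq⟩ := FF.sc_lt_one_fc hy
    have h1 : sc (Pc F) (bc (F := F)) y d = 0 := (FF.sc_eq_zero hy).2 hd
    have h2 : q ∈ Pc F d := mem_fc.1 hq d (by
      show sc (Pc F) (bc (F := F)) y d < 1
      rw [h1]; exact one_pos)
    have h3 : q ∈ Pc F c := mem_fc.1 hq c hc
    rw [div_le_iff₀ hR, mul_comm]
    exact hcmp c d ⟨q, h3, h2⟩

end sc

/-! ### the level functions -/

section lev

variable {δ κ0 R c0 : ℝ} {La Om : Set E3} {ι : Type} {Φ : FoamD δ κ0 R c0 La} {T : Tiling Om ι}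
  {f : E3 → E3}

/-- upper gradient along a segment, vector valued -/
def UGv (F : E3 → E3) (G : E3 → ℝ≥0∞) (x v : E3) : Prop := ∀ s t : ℝ, 0 ≤ s → s ≤ t → t ≤ 1 →
  ‖F (x + t • v) - F (x + s • v)‖ₑ ≤ ∫⁻ τ in Ioc s t, G (x + τ • v)

/-- the constant of the level functions -/
def Cl (δ R : ℝ) : ℝ := Cs 3 δ R * R

theorem Cl_nonneg (hδ : 0 < δ) (hR : 0 < R) : 0 ≤ Cl δ R := mul_nonneg (Cs_nonneg hδ hR) hR.le

/-- **upper gradient of the level function `c`** -/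
theorem ugs_us (hLa : IsOpen La) (hδ : 0 < δ) (hR : 0 < R) (hf : Hom3 f Om La) {x v : E3}
    (hs : sgm x v ⊆ Om) (hh : ∀ y ∈ sgm x v, ∀ c, f y ∉ (Φ.B c).S) {G : E3 → ℝ≥0∞}
    (hG : UGv (fun y => Φ.Psi (f y)) G x v) (c : Φ.F) :
    UGs (us Φ f c) (fun y => ENNReal.ofReal (Cl δ R / c.1.sz) *
      {y | us Φ f c y < 1}.indicator G y) x v := by
  have FF := Brk3_582.foam Φ.bf hLa
  have hsz := szF_pos Φ c
  have hCl : 0 ≤ Cl δ R / c.1.sz := div_nonneg (Cl_nonneg hδ hR) hsz.le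
  obtain ⟨fi, hm, -, -, -, hfc, -⟩ := id hf
  have hLam : ∀ τ ∈ Icc (0:ℝ) 1, Φ.Psi (f (x + τ • v)) ∈ La := by
    intro τ hτ
    have hy : x + τ • v ∈ sgm x v := ⟨τ, hτ, rfl⟩
    exact Psi_mem_La hLa (hm (hs hy)) (hh _ hy)
  have hPc : ContinuousOn (fun y => Φ.Psi (f y)) (sgm x v) := by
    refine ((Vb_965.pushD Φ hLa).cont).comp (hfc.mono hs) fun y hy => ?_
    exact ⟨hm (hs hy), mu_pos hLa (hm (hs hy)) (hh y hy)⟩
  have hpath : ContinuousOn (fun τ : ℝ => Φ.Psi (f (x + τ • v))) (Icc 0 1) :=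
    hPc.comp (Continuous.continuousOn (by fun_prop)) fun τ hτ => ⟨τ, hτ, rfl⟩
  have husc : ContinuousOn (fun τ : ℝ => us Φ f c (x + τ • v)) (Icc 0 1) :=
    (continuousOn_us hLa hf hs hh c).comp (Continuous.continuousOn (by fun_prop))
      fun τ hτ => ⟨τ, hτ, rfl⟩
  intro s t hs0 hst ht1
  have hsubI : Icc s t ⊆ Icc (0:ℝ) 1 := Icc_subset_Icc hs0 ht1
  have key := loc_glob_lt (h := fun τ : ℝ => us Φ f c (x + τ • v))
    (γ := fun τ : ℝ => Φ.Psi (f (x + τ • v))) (G := fun τ => G (x + τ • v)) (K := Cl δ R / c.1.sz)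
    hCl hst (fun s' t' h1 h2 h3 => hG s' t' (hs0.trans h1) h2 (h3.trans ht1)) (husc.mono hsubI)
    (fun τ hτ => FF.sc_le_one (hLam τ (hsubI hτ)) c) ?_
  · refine key.trans (le_of_eq ?_)
    rw [← lintegral_const_mul' _ _ ENNReal.ofReal_ne_top]
    refine lintegral_congr fun τ => ?_
    show _ = ENNReal.ofReal (Cl δ R / c.1.sz) * {y | us Φ f c y < 1}.indicator G (x + τ • v)
    by_cases hlt : us Φ f c (x + τ • v) < 1
    · rw [indicator_of_mem (show τ ∈ {τ | us Φ f c (x + τ • v) < 1} from hlt),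
        indicator_of_mem (show x + τ • v ∈ {y | us Φ f c y < 1} from hlt)]
    · rw [indicator_of_notMem (show τ ∉ {τ | us Φ f c (x + τ • v) < 1} from hlt),
        indicator_of_notMem (show x + τ • v ∉ {y | us Φ f c y < 1} from hlt)]
  · intro τ hτ hlt
    obtain ⟨r, hr, hrL, hlip⟩ := lip_lt_one Φ.bf hLa hδ hR Φ.cmp (hLam τ (hsubI hτ))
      (show sc (Pc Φ.F) (bc (F := Φ.F)) (Φ.Psi (f (x + τ • v))) c < 1 from hlt)
    obtain ⟨ε, hε, hb⟩ := Metric.continuousWithinAt_iff.1 (hpath τ (hsubI hτ)) r hr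
    refine ⟨ε, hε, fun s' hs' t' ht' h1 h2 => ?_⟩
    have e1 := hb (hsubI hs') (by rw [Real.dist_eq]; exact h1)
    have e2 := hb (hsubI ht') (by rw [Real.dist_eq]; exact h2)
    have h3 := hlip _ e2 _ e1
    simp only [Fintype.card_fin] at h3
    exact h3

theorem li_mono {G H : E3 → ℝ≥0∞} {x v : E3} (h : ∀ y ∈ sgm x v, G y ≤ H y) : li G x v ≤ li H x v :=
  setLIntegral_mono' measurableSet_Icc fun τ hτ => h _ ⟨τ, hτ, rfl⟩

theorem li_const_mul {G : E3 → ℝ≥0∞} {x v : E3} {K : ℝ≥0∞} (hK : K ≠ ∞) :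
    li (fun y => K * G y) x v = K * li G x v := lintegral_const_mul' _ _ hK

theorem enorm_pi_le {w : E3} {B : ℝ≥0∞} (h : ∀ k, ‖w k‖ₑ ≤ B) : ‖w‖ₑ ≤ B := by
  rcases eq_or_ne B ∞ with rfl | hB
  · exact le_top
  rw [← ENNReal.ofReal_toReal hB, ← ofReal_norm]
  apply ENNReal.ofReal_le_ofReal
  refine (pi_norm_le_iff_of_nonneg ENNReal.toReal_nonneg).2 fun k => ?_
  have h1 := h k
  rw [← ENNReal.ofReal_toReal hB, ← ofReal_norm] at h1
  exact (ENNReal.ofReal_le_ofReal_iff ENNReal.toReal_nonneg).1 h1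

/-- upper gradient from absolute continuity of the components on the segment -/
theorem ugv_of_acl {Ω : Set E3} {F D : E3 → E3} {x v : E3} (hsub : sgm x v ⊆ Ω)
    (h : ∀ k, ACLat Ω (fun y => F y k) (fun y => D y k) v x) : UGv F (fun y => ‖D y‖ₑ) x v := by
  intro s t hs hst ht
  refine enorm_pi_le fun k => ?_
  have h1 := ugs_of_acl hsub (h k) s t hs hst ht
  have h2 : ‖(F (x + t • v) - F (x + s • v)) k‖ₑ =
      ENNReal.ofReal |F (x + t • v) k - F (x + s • v) k| := by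
    rw [← Real.norm_eq_abs, ofReal_norm]; rfl
  rw [h2]
  refine h1.trans (lintegral_mono fun τ => ?_)
  show ‖D (x + τ • v) k‖ₑ ≤ ‖D (x + τ • v)‖ₑ
  rw [← ofReal_norm, ← ofReal_norm]
  exact ENNReal.ofReal_le_ofReal (norm_le_pi_norm _ k)

theorem li_ne_top_of_aclv {Ω : Set E3} {F D : E3 → E3} {x v : E3} (hsub : sgm x v ⊆ Ω)
    (h : ∀ k, ACLat Ω (fun y => F y k) (fun y => D y k) v x) : li (fun y => ‖D y‖ₑ) x v ≠ ∞ := by
  have h1 : li (fun y => ‖D y‖ₑ) x v ≤ li (fun y => ∑ k, ‖D y k‖ₑ) x v := by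
    refine li_mono fun y _ => enorm_pi_le fun k => ?_
    exact Finset.single_le_sum (f := fun k => ‖D y k‖ₑ) (fun _ _ => zero_le) (Finset.mem_univ k)
  refine ne_top_of_le_ne_top ?_ h1
  have h2 : ∀ S : Finset (Fin 3), li (fun y => ∑ k ∈ S, ‖D y k‖ₑ) x v ≠ ∞ := by
    intro S
    induction S using Finset.induction_on with
    | empty => simp [li]
    | insert a S ha ih =>
      simp only [Finset.sum_insert ha]
      have hm : AEMeasurable (fun τ : ℝ => ‖D (x + τ • v) a‖ₑ) (volume.restrict (Icc (0:ℝ) 1)) := by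
        have hseg : x ∈ segIn Ω v 0 1 := fun τ hτ => hsub ⟨τ, hτ, rfl⟩
        exact (h a 0 1 zero_le_one hseg).1.aestronglyMeasurable.aemeasurable.enorm
      unfold li
      rw [lintegral_add_left' hm]
      exact ENNReal.add_ne_top.2 ⟨li_ne_top_of_acl hsub (h a), ih⟩
  exact h2 Finset.univ

/-- the weighted sum of the upper gradients of all level functions -/
theorem sum_grad_le (hLa : IsOpen La) (hδ : 0 < δ) (hR : 0 < R) (hf : Hom3 f Om La) {y : E3}
    (hy : y ∈ Om) (hh : ∀ c, f y ∉ (Φ.B c).S) (G : E3 → ℝ≥0∞) :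
    ∑' c : Φ.F, ENNReal.ofReal (2 * c.1.sz) * (ENNReal.ofReal (Cl δ R / c.1.sz) *
      {y | us Φ f c y < 1}.indicator G y) ≤ ENNReal.ofReal (8 * Cl δ R) * G y := by
  classical
  have FF := Brk3_582.foam Φ.bf hLa
  obtain ⟨fi, hm, -⟩ := id hf
  have hz := Psi_mem_La hLa (hm hy) hh
  have hfin := FF.sc_lt_one_finite hz
  have hcard := FF.sc_lt_one_ncard hz
  have hCl := Cl_nonneg hδ hR
  have h1 : ∀ c : Φ.F, ENNReal.ofReal (2 * c.1.sz) * (ENNReal.ofReal (Cl δ R / c.1.sz) *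
      {y | us Φ f c y < 1}.indicator G y) =
      if c ∈ hfin.toFinset then ENNReal.ofReal (2 * Cl δ R) * G y else 0 := by
    intro c
    have hsz := szF_pos Φ c
    rw [← mul_assoc, ← ENNReal.ofReal_mul (by positivity)]
    have h2 : 2 * c.1.sz * (Cl δ R / c.1.sz) = 2 * Cl δ R := by field_simp
    rw [h2]
    by_cases hlt : us Φ f c y < 1
    · rw [indicator_of_mem (show y ∈ {y | us Φ f c y < 1} from hlt), if_pos (by
        rw [Finite.mem_toFinset]; exact hlt)]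
    · rw [indicator_of_notMem (show y ∉ {y | us Φ f c y < 1} from hlt), mul_zero, if_neg (by
        rw [Finite.mem_toFinset]; exact hlt)]
  simp_rw [h1]
  rw [tsum_eq_sum (s := hfin.toFinset) (fun c hc => if_neg hc), Finset.sum_ite_mem,
    Finset.inter_self, Finset.sum_const, nsmul_eq_mul]
  have h3 : hfin.toFinset.card ≤ 4 := by
    rw [← ncard_eq_toFinset_card _ hfin]
    simpa using hcard
  calc (hfin.toFinset.card : ℝ≥0∞) * (ENNReal.ofReal (2 * Cl δ R) * G y)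
      ≤ (4 : ℝ≥0∞) * (ENNReal.ofReal (2 * Cl δ R) * G y) := by
        gcongr
        exact_mod_cast h3
    _ = ENNReal.ofReal (8 * Cl δ R) * G y := by
        rw [← mul_assoc, show (4:ℝ≥0∞) = ENNReal.ofReal 4 by simp, ← ENNReal.ofReal_mul (by norm_num)]
        congr 2; ring

/-- **LEVSEL from an upper gradient of `Psi ∘ f`** -/
theorem levsel_G (hLa : IsOpen La) (hδ : 0 < δ) (hR : 0 < R) (hf : Hom3 f Om La) (T : Tiling Om ι)
    (hh : ∀ e : Edg T, ∀ y ∈ sgm (ea e) (ev e), ∀ c, f y ∉ (Φ.B c).S)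
    {G : Edg T → E3 → ℝ≥0∞}
    (hG : ∀ e, UGv (fun y => Φ.Psi (f y)) (G e) (ea e) (ev e))
    (hGf : ∀ e, li (G e) (ea e) (ev e) ≠ ∞)
    {κ' : Φ.F → Type*} [∀ c, Fintype (κ' c)] {X : ∀ c, κ' c → ℝ → ℝ≥0∞}
    (hX : ∀ c j, AEMeasurable (X c j) (volume.restrict (Icc (0:ℝ) 1)))
    {J : ∀ c, κ' c → ℝ} (hJ0 : ∀ c j, 0 ≤ J c j)
    (hJ : ∀ c j, ∫⁻ y in Icc (0:ℝ) 1, X c j y ≤ ENNReal.ofReal (J c j))
    {e' : Φ.F → ℝ} (he' : ∀ c, 0 < e' c)
    {err : Edg T → ℝ≥0∞} (herr : ∀ e, err e ≠ 0)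
    {κ1 : ℝ} (hκ0 : 0 < κ1) (hκ1 : κ1 ≤ 1)
    {Z Bad : Φ.F → Set ℝ} (hZ : ∀ c, volume (Z c) = 0) (hBm : ∀ c, MeasurableSet (Bad c))
    (hB : ∀ c, volume (Bad c ∩ Icc 0 1) ≤ ENNReal.ofReal (κ1 / 8)) (m0 : Φ.F → ℕ) :
    ∃ (m κ : Φ.F → ℕ) (L : Φ.F → Finset ℝ),
      Lv (ea (T := T)) (ev (T := T)) (us Φ f) (Vt T) κ1 (fun c => c.1.sz) Z Bad m κ L ∧
      Levels Φ T f κ1 Z κ L ∧ (∀ c, m0 c ≤ (L c).card) ∧ (∀ c, ∀ t ∈ L c, t ∉ Bad c) ∧
      (∀ e, EN (us Φ f) κ L e ≤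
        ENNReal.ofReal (8 * Cl δ R) * li (G e) (ea e) (ev e) + err e) ∧
      (∀ i, NN Φ T f κ L i ≤ ∑ e ∈ eIn T i,
        (ENNReal.ofReal (8 * Cl δ R) * li (G e) (ea e) (ev e) + err e)) ∧
      ∀ c j, ENNReal.ofReal ((2 : ℝ)⁻¹ ^ κ c) * ∑ t ∈ L c, X c j t ≤
        ENNReal.ofReal (2 * c.1.sz) * (ENNReal.ofReal (J c j) + ENNReal.ofReal (e' c)) := by
  have hfin : ∀ (c : Φ.F) e, li (fun y => ENNReal.ofReal (Cl δ R / c.1.sz) *
      {y | us Φ f c y < 1}.indicator (G e) y) (ea e) (ev e) ≠ ∞ := by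
    intro c e
    rw [li_const_mul ENNReal.ofReal_ne_top]
    refine ENNReal.mul_ne_top ENNReal.ofReal_ne_top (ne_top_of_le_ne_top (hGf e) ?_)
    exact li_mono fun y _ => indicator_le_self _ _ _
  obtain ⟨m, κ, L, h1, h2, h3, h4, h5, -, h7⟩ := levsel hLa hf T hh
    (g := fun c e y => ENNReal.ofReal (Cl δ R / c.1.sz) * {y | us Φ f c y < 1}.indicator (G e) y)
    (fun c e => ugs_us hLa hδ hR hf (sgm_sub_Om e) (hh e) (hG e) c) hfin hX hJ0 hJ he' herr hκ0 hκ1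
    hZ hBm hB m0
  have h8 : ∀ e, EN (us Φ f) κ L e ≤
      ENNReal.ofReal (8 * Cl δ R) * li (G e) (ea e) (ev e) + err e := by
    intro e
    refine (h5 e).trans (add_le_add ?_ le_rfl)
    rw [← li_const_mul ENNReal.ofReal_ne_top]
    exact li_mono fun y hy => sum_grad_le hLa hδ hR hf (sgm_sub_Om e hy) (hh e y hy) (G e)
  exact ⟨m, κ, L, h1, h2, h3, h4, h8,
    fun i => (NN_le h2.vert i).trans (Finset.sum_le_sum fun e _ => h8 e), h7⟩

end lev

end

end Crest.Agent.R096.Ls_222
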