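import Mathlib
import Crest.Prelude.Def_VecCalc3
import Crest.Prelude.Def_SobolevMap
import Crest.Agent.R096.Str1_696

/-!
Row 96 (S0127), helper962.  SKEL96: the language and the literal Props of the skeleton
`NO p → BF p → PLA p` (two pass reduction of 147 #7597).
-/

set_option autoImplicit false
set_option linter.unusedSectionVars false
set_option linter.style.longLine false

open MeasureTheory Set Filter Topology Metric
open scoped ENNReal Gradient NNReal
open Crest.AnalysisR.VecCalc3 Crest.AnalysisR.Sobolev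
open Crest.Agent.R096.Str_696 (LocPL)

namespace Crest.Agent.R096.Sk_962

noncomputable section

/-- a Sobolev homeomorphism `f : Om → La` with weak gradients `G`. -/
structure SH (p : ℝ) (Om La : Set R3) (f : R3 → R3) (G : Fin 3 → R3 → R3) : Prop where
  homeo : IsHomeomorphOn f Om La
  mem : MemLp f (ENNReal.ofReal p) (volume.restrict Om)
  wg : ∀ j : Fin 3, HasWeakGradOn Om (fun x => f x j) (G j)
  memG : ∀ j : Fin 3, MemLp (G j) (ENNReal.ofReal p) (volume.restrict Om)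

/-- the gradient of the `j`-th component (junk `0` where it is not differentiable) -/
def Gr (g : R3 → R3) (j : Fin 3) (x : R3) : R3 := ∇ (fun y => g y j) x

/-- the open unit cube `(-1,1)³` -/
def Q0 : Set R3 := {x | ∀ i, |x i| < 1}

/-- the closed unit cube `[-1,1]³` -/
def Qc0 : Set R3 := {x | ∀ i, |x i| ≤ 1}

/-- the closed cube with centre `x`, half side `r`, frame `V`. -/
def Kc (V : R3 ≃ₗᵢ[ℝ] R3) (x : R3) (r : ℝ) : Set R3 := {y | ∃ u ∈ Qc0, y = x + r • V u}

/-- the open cube with centre `x`, half side `r`, frame `V`. -/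
def Ko (V : R3 ≃ₗᵢ[ℝ] R3) (x : R3) (r : ℝ) : Set R3 := {y | ∃ u ∈ Q0, y = x + r • V u}

/-- the rows of the diagonal matrix `diag s` -/
def dg (s : Fin 3 → ℝ) (j : Fin 3) : R3 := EuclideanSpace.single j (s j)

/-- a finite disjoint union of closed cubes, in arbitrary frames -/
def CubeUnion (K : Set R3) : Prop :=
  ∃ (n : ℕ) (V : Fin n → (R3 ≃ₗᵢ[ℝ] R3)) (x : Fin n → R3) (r : Fin n → ℝ),
    (∀ i, 0 < r i) ∧ (Pairwise fun i j => Disjoint (Kc (V i) (x i) (r i)) (Kc (V j) (x j) (r j))) ∧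
    K = ⋃ i, Kc (V i) (x i) (r i)

/-- **(NO)**: near an orthogonal frame.  A Sobolev homeomorphism of a neighbourhood of the closed
unit cube which is `W^{1,p}`-close to the diagonal matrix `diag s`, `s ≥ 0`, can be replaced in the
open cube by a locally PL homeomorphism onto the same image, `W^{1,p}`-close to `diag s`,
and as `C⁰`-close as we like, even at the boundary. -/
def NO (p : ℝ) : Prop :=
  ∀ s : Fin 3 → ℝ, (∀ i, 0 ≤ s i) → ∀ e : ℝ, 0 < e → ∃ d : ℝ, 0 < d ∧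
    ∀ (U W : Set R3) (f : R3 → R3) (G : Fin 3 → R3 → R3), IsOpen U → IsOpen W → Qc0 ⊆ U →
      SH p U W f G →
      ∫⁻ x in Q0, ∑ j : Fin 3, ‖G j x - dg s j‖ₑ ^ p ≤ ENNReal.ofReal d →
      ∀ η : R3 → ℝ, ContinuousOn η Q0 → (∀ x ∈ Q0, 0 < η x) →
      ∃ g : R3 → R3, IsHomeomorphOn g Q0 (f '' Q0) ∧ LocPL g Q0 ∧
        (∀ x ∈ Q0, ‖g x - f x‖ ≤ η x) ∧
        ∫⁻ x in Q0, ∑ j : Fin 3, ‖Gr g j x - dg s j‖ₑ ^ p ≤ ENNReal.ofReal e

/-- **(BF)**: bounded factor.  A Sobolev homeomorphism `f : Om → La`, already PL near a finite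
disjoint union `K` of closed cubes, can be replaced by a locally PL homeomorphism onto the same
set `La`, equal to `f` on `K`, `C⁰`-close, with energy off `K` bounded by a constant `C` (depending
only on `p`) times the energy (plus the volume) off `K`, plus `e`. -/
def BF (p : ℝ) : Prop :=
  ∃ C : ℝ≥0, ∀ (Om La : Set R3) (f : R3 → R3) (G : Fin 3 → R3 → R3),
    IsOpen Om → Bornology.IsBounded Om → IsConnected Om →
    IsOpen La → Bornology.IsBounded La → IsConnected La → SH p Om La f G →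
    ∀ K : Set R3, CubeUnion K → K ⊆ Om → (∃ U : Set R3, IsOpen U ∧ K ⊆ U ∧ LocPL f U) →
    ∀ η : R3 → ℝ, ContinuousOn η Om → (∀ x ∈ Om, 0 < η x) →
    ∀ e : ℝ≥0∞, 0 < e →
    ∃ g : R3 → R3, IsHomeomorphOn g Om La ∧ LocPL g Om ∧ EqOn g f K ∧
      (∀ x ∈ Om, ‖g x - f x‖ ≤ η x) ∧
      ∫⁻ x in Om \ K, ∑ j : Fin 3, ‖Gr g j x‖ₑ ^ p ≤
        C * (∫⁻ x in Om \ K, (1 + ∑ j : Fin 3, ‖G j x‖ₑ ^ p)) + e

/-- **(PLA)**: approximation by locally PL homeomorphisms onto the same target. -/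
def PLA (p : ℝ) : Prop :=
  ∀ (Om La : Set R3) (f : R3 → R3) (G : Fin 3 → R3 → R3),
    IsOpen Om → Bornology.IsBounded Om → IsConnected Om →
    IsOpen La → Bornology.IsBounded La → IsConnected La → SH p Om La f G →
    ∀ ε : ℝ≥0∞, 0 < ε →
    ∃ h : R3 → R3, IsHomeomorphOn h Om La ∧ LocPL h Om ∧
      ∫⁻ x in Om, (‖h x - f x‖ₑ ^ p + ∑ j : Fin 3, ‖Gr h j x - G j x‖ₑ ^ p) < ε

/-- **(P5)**: smoothing of locally PL homeomorphisms, `W^{1,p}`-close, onto the same target. -/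
def P5 (p : ℝ) : Prop :=
  ∀ (Om La : Set R3) (h : R3 → R3),
    IsOpen Om → Bornology.IsBounded Om → IsConnected Om →
    IsOpen La → Bornology.IsBounded La → IsConnected La →
    IsHomeomorphOn h Om La → LocPL h Om →
    ∀ ε : ℝ≥0∞, 0 < ε →
    ∃ g : R3 → R3, IsSmoothDiffeoOn g Om La ∧
      ∫⁻ x in Om, (‖g x - h x‖ₑ ^ p + ∑ j : Fin 3, ‖Gr g j x - Gr h j x‖ₑ ^ p) < ε

end

end Crest.Agent.R096.Sk_962
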