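import Mathlib
import Crest.Agent.R096.Msh6_810
import Crest.Agent.R096.Msh2_715
import Crest.Agent.R096.Sk0_962
import Crest.Agent.R96.Sg1_199
import Crest.Agent.R96.Acl3_392

/-!
Row 96 (S0127), helper976.  SPHERE, node (M) of helper4 #10026: for a Sobolev homeomorphism
`f` on `Om` and a compact `K ⊆ Om` there is a tiling of `Om` by polytopes whose tiles at `K` are
small (together with their images) and such that for every Lipschitz `L` and every edge of the
tiling almost every level of `L ∘ f` has finitely many points on the edge.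
-/

set_option autoImplicit false
set_option linter.unusedSectionVars false
set_option linter.style.longLine false

open MeasureTheory Set Filter Topology Metric
open scoped ENNReal NNReal
open Crest.AnalysisR.VecCalc3 Crest.AnalysisR.Sobolev

namespace Crest.Agent.R096.Sphm_976

open Crest.Agent.R096.Msh_715 Crest.Agent.R096.Msh_810
open Crest.Agent.R96.Sg1_199 Crest.Agent.R96.Acl_392

noncomputable section

/-! ### levels of a function with an integrable upper gradient on a segment -/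

section Levels

variable {E : Type*} [NormedAddCommGroup E] [NormedSpace ℝ E]

theorem ae_level_finite {u : E → ℝ} {g : E → ℝ≥0∞} {x v : E} (hv : v ≠ 0)
    (hu : ContinuousOn u (sgm x v)) (hug : UGs u g x v) (hfin : li g x v ≠ ∞) :
    ∀ᵐ t : ℝ, (sgm x v ∩ u ⁻¹' {t}).Finite := by
  have h1 : ∀ n : ℤ, ∀ᵐ t : ℝ, t - n ∈ Icc (0:ℝ) 1 → (sgm x v ∩ u ⁻¹' {t}).Finite := by
    intro n
    have hu' : ContinuousOn (fun y => u y - n) (sgm x v) := hu.sub continuousOn_const
    have hug' : UGs (fun y => u y - n) g x v := by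
      intro s t hs hst ht
      have := hug s t hs hst ht
      simpa using this
    obtain ⟨h2, h3⟩ := cr_facts hv hu' hug'
    have h4 : ∀ᵐ y ∂(volume.restrict (Icc (0:ℝ) 1)), cr (fun y => u y - n) x v y < ∞ :=
      ae_lt_top' h2 (h3.trans_lt (lt_top_iff_ne_top.2 hfin)).ne
    rw [ae_restrict_iff' measurableSet_Icc] at h4
    have h5 := (measurePreserving_sub_right volume (n:ℝ)).quasiMeasurePreserving.ae h4
    filter_upwards [h5] with t ht htI
    have h6 := ht htI
    have h7 : sgm x v ∩ u ⁻¹' {t} = sgm x v ∩ (fun y => u y - n) ⁻¹' {t - n} := by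
      ext z
      simp
    rw [h7]
    unfold cr at h6
    rwa [ENat.toENNReal_lt_top, encard_lt_top_iff] at h6
  filter_upwards [ae_all_iff.2 h1] with t ht
  refine ht ⌊t⌋ ⟨?_, ?_⟩
  · linarith [Int.floor_le t]
  · linarith [Int.lt_floor_add_one t]

end Levels

/-! ### a Lipschitz function of a Sobolev map on a segment -/

theorem norm_le_sum_abs (w : R3) : ‖w‖ ≤ ∑ j, |w j| := by
  rw [EuclideanSpace.norm_eq]
  apply Real.sqrt_le_iff.2
  constructor
  · positivity
  · simp only [Fin.sum_univ_three, Real.norm_eq_abs]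
    nlinarith [mul_nonneg (abs_nonneg (w 0)) (abs_nonneg (w 1)),
      mul_nonneg (abs_nonneg (w 0)) (abs_nonneg (w 2)),
      mul_nonneg (abs_nonneg (w 1)) (abs_nonneg (w 2))]

theorem ugs_lip {Om : Set R3} {f : R3 → R3} {L : R3 → ℝ} {c : ℝ≥0} (hL : LipschitzWith c L)
    {G : Fin 3 → R3 → R3} {x v : R3} (hsub : sgm x v ⊆ Om)
    (h : ∀ j : Fin 3, ACLat Om (fun x => f x j) (fun y => inner ℝ (G j y) v) v x) :
    UGs (fun y => L (f y)) (fun y => ∑ j : Fin 3, (c:ℝ≥0∞) * ‖inner ℝ (G j y) v‖ₑ) x v ∧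
      li (fun y => ∑ j : Fin 3, (c:ℝ≥0∞) * ‖inner ℝ (G j y) v‖ₑ) x v ≠ ∞ := by
  have hseg : x ∈ segIn Om v 0 1 := by
    intro τ hτ
    exact hsub ⟨τ, hτ, rfl⟩
  have hI : ∀ j : Fin 3, IntegrableOn (fun τ : ℝ => inner ℝ (G j (x + τ • v)) v) (Icc 0 1) :=
    fun j => (h j 0 1 zero_le_one hseg).1
  have hm : ∀ (j : Fin 3) (s t : ℝ), 0 ≤ s → t ≤ 1 →
      AEMeasurable (fun τ : ℝ => (c:ℝ≥0∞) * ‖(inner ℝ (G j (x + τ • v)) v : ℝ)‖ₑ)
        (volume.restrict (Ioc s t)) := by
    intro j s t hs ht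
    have h1 : Ioc s t ⊆ Icc (0:ℝ) 1 := fun τ hτ => ⟨hs.trans hτ.1.le, hτ.2.trans ht⟩
    have h2 := ((hI j).mono_set h1).aestronglyMeasurable.enorm
    exact h2.const_mul _
  constructor
  · intro s t hs hst ht
    have h1 : |L (f (x + t • v)) - L (f (x + s • v))| ≤
        ∑ j : Fin 3, (c:ℝ) * |f (x + t • v) j - f (x + s • v) j| := by
      have h2 := hL.dist_le_mul (f (x + t • v)) (f (x + s • v))
      rw [Real.dist_eq, dist_eq_norm] at h2
      refine h2.trans ?_
      rw [← Finset.mul_sum]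
      refine mul_le_mul_of_nonneg_left ?_ c.2
      have := norm_le_sum_abs (f (x + t • v) - f (x + s • v))
      simpa using this
    calc ENNReal.ofReal |L (f (x + t • v)) - L (f (x + s • v))|
        ≤ ENNReal.ofReal (∑ j : Fin 3, (c:ℝ) * |f (x + t • v) j - f (x + s • v) j|) :=
          ENNReal.ofReal_le_ofReal h1
      _ = ∑ j : Fin 3, (c:ℝ≥0∞) * ENNReal.ofReal |f (x + t • v) j - f (x + s • v) j| := by
          rw [ENNReal.ofReal_sum_of_nonneg
            (fun j _ => mul_nonneg (NNReal.coe_nonneg c) (abs_nonneg _))]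
          refine Finset.sum_congr rfl fun j _ => ?_
          rw [ENNReal.ofReal_mul (NNReal.coe_nonneg c), ENNReal.ofReal_coe_nnreal]
      _ ≤ ∑ j : Fin 3, (c:ℝ≥0∞) * ∫⁻ τ in Ioc s t, ‖(inner ℝ (G j (x + τ • v)) v : ℝ)‖ₑ := by
          refine Finset.sum_le_sum fun j _ => ?_
          gcongr
          exact ugs_of_acl hsub (h j) s t hs hst ht
      _ = ∑ j : Fin 3, ∫⁻ τ in Ioc s t, (c:ℝ≥0∞) * ‖(inner ℝ (G j (x + τ • v)) v : ℝ)‖ₑ := by
          refine Finset.sum_congr rfl fun j _ => ?_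
          rw [lintegral_const_mul' _ _ ENNReal.coe_ne_top]
      _ = ∫⁻ τ in Ioc s t, ∑ j : Fin 3, (c:ℝ≥0∞) * ‖(inner ℝ (G j (x + τ • v)) v : ℝ)‖ₑ := by
          rw [lintegral_finsetSum' _ fun j _ => hm j s t hs ht]
  · have h1 : li (fun y => ∑ j : Fin 3, (c:ℝ≥0∞) * ‖(inner ℝ (G j y) v : ℝ)‖ₑ) x v =
        ∑ j : Fin 3, (c:ℝ≥0∞) * li (fun y => ‖(inner ℝ (G j y) v : ℝ)‖ₑ) x v := by
      unfold li
      rw [lintegral_finsetSum']
      · refine Finset.sum_congr rfl fun j _ => ?_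
        rw [lintegral_const_mul' _ _ ENNReal.coe_ne_top]
      · intro j _
        exact ((hI j).aestronglyMeasurable.enorm).const_mul _
    rw [h1]
    exact ENNReal.sum_ne_top.2 fun j _ => ENNReal.mul_ne_top ENNReal.coe_ne_top
      (li_ne_top_of_acl hsub (h j))

theorem ae_level_lip {Om : Set R3} {f : R3 → R3} (hf : ContinuousOn f Om) {L : R3 → ℝ} {c : ℝ≥0}
    (hL : LipschitzWith c L) {G : Fin 3 → R3 → R3} {x v : R3} (hv : v ≠ 0) (hsub : sgm x v ⊆ Om)
    (h : ∀ j : Fin 3, ACLat Om (fun x => f x j) (fun y => inner ℝ (G j y) v) v x) :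
    ∀ᵐ t : ℝ, {y | y ∈ sgm x v ∧ L (f y) = t}.Finite := by
  obtain ⟨h1, h2⟩ := ugs_lip hL hsub h
  exact ae_level_finite (u := fun y => L (f y)) hv
    (hL.continuous.comp_continuousOn (hf.mono hsub)) h1 h2

/-! ### the tiling of 810 and its edges -/

section Mesh

variable {n : ℕ} {E : Type*} [NormedAddCommGroup E] [NormedSpace ℝ E]

/-- a cell in coordinate directions `J` has dimension at least `#J`. -/
theorem card_le_dim [FiniteDimensional ℝ E] (φ : E ≃L[ℝ] (Fin n → ℝ)) (D : Dat n) {x : E}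
    (hx : φ x ∈ D.Om) : (Cel.of (φ x) hx).1.J.card ≤ (tiling φ D).dim x := by
  classical
  set σ := (Cel.of (φ x) hx).1 with hσ
  have hcc : (tiling φ D).cc x = φ ⁻¹' (Dc D.a σ) := Msh_810.cc_eq hx
  have hxc : φ x ∈ Dc D.a σ := mem_Dc_cell (D := D) (φ x)
  have hp : (0:ℝ) < 2 ^ σ.k := by positivity
  have key : ∀ i ∈ σ.J, φ.symm (Pi.single i 1) ∈ (tiling φ D).V x := by
    intro i hi
    have hmem : ∀ r : ℝ, 0 ≤ r → r ≤ 1 →
        Function.update (φ x) i (D.a i + (σ.z i + r) / 2 ^ σ.k) ∈ Dc D.a σ := by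
      intro r h0 h1 j
      by_cases hj : j = i
      · subst hj
        have e : ps D.a σ.k (Function.update (φ x) j (D.a j + (σ.z j + r) / 2 ^ σ.k)) j =
            σ.z j + r := by
          unfold ps
          rw [Function.update_self]
          field_simp
          ring
        rw [e]
        exact ⟨fun _ => ⟨by linarith, by linarith⟩, fun hh => absurd hi hh⟩
      · have e : ps D.a σ.k (Function.update (φ x) i (D.a i + (σ.z i + r) / 2 ^ σ.k)) j =
            ps D.a σ.k (φ x) j := by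
          unfold ps
          rw [Function.update_of_ne hj]
        rw [e]
        exact hxc j
    have h1 : φ.symm (Function.update (φ x) i (D.a i + (σ.z i + 1) / 2 ^ σ.k)) ∈
        (tiling φ D).cc x := by
      rw [hcc, mem_preimage, φ.apply_symm_apply]
      exact hmem 1 zero_le_one le_rfl
    have h2 : φ.symm (Function.update (φ x) i (D.a i + (σ.z i + 0) / 2 ^ σ.k)) ∈
        (tiling φ D).cc x := by
      rw [hcc, mem_preimage, φ.apply_symm_apply]
      exact hmem 0 le_rfl zero_le_one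
    have h3 := (tiling φ D).sub_mem_V' h1 h2
    have h4 : φ.symm (Pi.single i 1) = (2:ℝ) ^ σ.k •
        (φ.symm (Function.update (φ x) i (D.a i + (σ.z i + 1) / 2 ^ σ.k)) -
        φ.symm (Function.update (φ x) i (D.a i + (σ.z i + 0) / 2 ^ σ.k))) := by
      rw [← map_sub, ← map_smul]
      congr 1
      funext j
      by_cases hj : j = i
      · subst hj
        simp only [Pi.single_eq_same, Pi.smul_apply, Pi.sub_apply, Function.update_self,
          smul_eq_mul]
        field_simp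
        ring
      · simp [Pi.single_eq_of_ne hj, Function.update_of_ne hj]
    rw [h4]
    exact Submodule.smul_mem _ _ h3
  have hli : LinearIndependent ℝ (fun i : σ.J =>
      (⟨φ.symm (Pi.single i.1 1), key i.1 i.2⟩ : (tiling φ D).V x)) := by
    rw [← LinearMap.linearIndependent_iff ((tiling φ D).V x).subtype
      (Submodule.ker_subtype _)]
    have h1 : LinearIndependent ℝ (fun i : Fin n => φ.symm (Pi.single i (1:ℝ))) := by
      have h2 := (Pi.basisFun ℝ (Fin n)).linearIndependent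
      have h3 := h2.map' φ.symm.toLinearEquiv.toLinearMap
        (LinearMap.ker_eq_bot.2 φ.symm.injective)
      have e : (fun i : Fin n => φ.symm (Pi.single i (1:ℝ))) =
          φ.symm.toLinearEquiv.toLinearMap ∘ (Pi.basisFun ℝ (Fin n)) := by
        funext i
        simp
      rw [e]
      exact h3
    exact h1.comp (fun i : σ.J => i.1) Subtype.val_injective
  have := hli.fintype_card_le_finrank
  simpa [Tiling.dim] using this

/-- the tiling of 810 on an open set given up to equality. -/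
theorem exists_tiling [FiniteDimensional ℝ E] (φ : E ≃L[ℝ] (Fin n → ℝ)) (D : Dat n) {Om : Set E}
    (h : φ ⁻¹' D.Om = Om) :
    ∃ T : Tiling Om (Top D), (∀ q, P (T.H q) = φ ⁻¹' q.1.c) ∧
      ∀ x ∈ Om, ∃ σ : Cel D, T.cc x = φ ⁻¹' σ.c ∧ σ.1.J.card ≤ T.dim x := by
  subst h
  refine ⟨tiling φ D, fun q => ?_, fun x hx => ⟨Cel.of (φ x) hx, Msh_810.cc_eq hx,
    card_le_dim φ D hx⟩⟩
  change P (Hc φ D.a q.1.1.k q.1.1.z) = _
  rw [P_Hc, ← Top.c_eq]

/-- cells with at most one direction: a point or a segment. -/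
theorem cell_small (φ : E ≃L[ℝ] (Fin n → ℝ)) (a' : E) (σ : Idx n) (hσ : σ.J.card ≤ 1) :
    (φ ⁻¹' Dc (φ a') σ).Subsingleton ∨ ∃ i : Fin n, φ ⁻¹' Dc (φ a') σ =
      sgm (a' + φ.symm (vx 0 σ.k σ.z)) (φ.symm (Pi.single i ((2:ℝ) ^ σ.k)⁻¹)) := by
  have hp : (0:ℝ) < 2 ^ σ.k := by positivity
  have hval : ∀ (y : Fin n → ℝ) (j : Fin n), ps (φ a') σ.k y j = σ.z j →
      y j = φ a' j + σ.z j / 2 ^ σ.k := by
    intro y j h
    unfold ps at h
    rw [← h]
    field_simp
    ring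
  rcases Nat.le_one_iff_eq_zero_or_eq_one.1 hσ with h0 | h1
  · left
    have hJ := Finset.card_eq_zero.1 h0
    intro x hx y hy
    apply φ.injective
    funext j
    have hj : j ∉ σ.J := by rw [hJ]; simp
    rw [hval _ j ((hx j).2 hj), hval _ j ((hy j).2 hj)]
  · right
    obtain ⟨i, hJ⟩ := Finset.card_eq_one.1 h1
    refine ⟨i, ?_⟩
    have hφ : ∀ τ : ℝ, φ (a' + φ.symm (vx 0 σ.k σ.z) + τ • φ.symm (Pi.single i ((2:ℝ) ^ σ.k)⁻¹)) =
        vx (φ a') σ.k σ.z + Pi.single i (τ * ((2:ℝ) ^ σ.k)⁻¹) := by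
      intro τ
      rw [map_add, map_add, map_smul, φ.apply_symm_apply, φ.apply_symm_apply, vx_eq (φ a'),
        ← Pi.single_smul, smul_eq_mul]
    have hps : ∀ (τ : ℝ) (j : Fin n),
        ps (φ a') σ.k (vx (φ a') σ.k σ.z + Pi.single i (τ * ((2:ℝ) ^ σ.k)⁻¹)) j =
          if j = i then σ.z j + τ else σ.z j := by
      intro τ j
      rw [ps_vx]
      by_cases hj : j = i
      · subst hj
        rw [Pi.single_eq_same, if_pos rfl]
        field_simp
      · rw [Pi.single_eq_of_ne hj, if_neg hj]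
        ring
    ext y
    constructor
    · intro hy
      have hyi := (hy i).1 (by rw [hJ]; simp)
      refine ⟨ps (φ a') σ.k (φ y) i - σ.z i, ⟨by linarith [hyi.1], by linarith [hyi.2]⟩, ?_⟩
      apply φ.injective
      change φ (a' + φ.symm (vx 0 σ.k σ.z) +
        (ps (φ a') σ.k (φ y) i - σ.z i) • φ.symm (Pi.single i ((2:ℝ) ^ σ.k)⁻¹)) = φ y
      rw [hφ]
      funext j
      by_cases hj : j = i
      · subst hj
        simp only [Pi.add_apply, Pi.single_eq_same, vx, ps]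
        field_simp
        ring
      · have hjJ : j ∉ σ.J := by rw [hJ]; simpa using hj
        rw [hval _ j ((hy j).2 hjJ)]
        simp [Pi.single_eq_of_ne hj, vx]
    · rintro ⟨τ, hτ, rfl⟩
      intro j
      change (j ∈ σ.J → (σ.z j : ℝ) ≤ ps (φ a') σ.k (φ (a' + φ.symm (vx 0 σ.k σ.z) +
        τ • φ.symm (Pi.single i ((2:ℝ) ^ σ.k)⁻¹))) j ∧ ps (φ a') σ.k (φ (a' + φ.symm (vx 0 σ.k σ.z) +
        τ • φ.symm (Pi.single i ((2:ℝ) ^ σ.k)⁻¹))) j ≤ σ.z j + 1) ∧
        (j ∉ σ.J → ps (φ a') σ.k (φ (a' + φ.symm (vx 0 σ.k σ.z) +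
        τ • φ.symm (Pi.single i ((2:ℝ) ^ σ.k)⁻¹))) j = σ.z j)
      rw [hφ, hps, hJ, Finset.mem_singleton]
      by_cases hj : j = i
      · rw [if_pos hj]
        exact ⟨fun _ => ⟨by linarith [hτ.1], by linarith [hτ.2]⟩, fun h => absurd hj h⟩
      · rw [if_neg hj]
        exact ⟨fun h => absurd h hj, fun _ => rfl⟩

end Mesh

/-! ### the mesh for `SPHERE` -/

/-- **(M)** of helper4 #10026. -/
theorem exists_mesh1 {p : ℝ} (_hp : 1 ≤ p) {Om La : Set R3} {f : R3 → R3} {G : Fin 3 → R3 → R3}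
    (hO : IsOpen Om) (H : Sk_962.SH p Om La f G) {K : Set R3} (hK : IsCompact K) (hKO : K ⊆ Om)
    {ε : ℝ} (hε : 0 < ε) :
    ∃ (ι : Type) (T : Tiling Om ι),
      (∀ q, (Msh_715.P (T.H q) ∩ K).Nonempty → ∀ x ∈ Msh_715.P (T.H q), ∀ y ∈ Msh_715.P (T.H q),
        ‖x - y‖ ≤ ε ∧ ‖f x - f y‖ ≤ ε) ∧
      ∀ (L : R3 → ℝ) (c : ℝ≥0), LipschitzWith c L → ∀ x ∈ Om, T.dim x = 1 →
        ∀ᵐ t : ℝ, {y | y ∈ T.cc x ∧ L (f y) = t}.Finite := by
  classical
  have hf : ContinuousOn f Om := by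
    obtain ⟨_, _, _, _, _, h, _⟩ := H.homeo
    exact h
  -- the frame
  set φ : R3 ≃L[ℝ] (Fin 3 → ℝ) := EuclideanSpace.equiv (Fin 3) ℝ with hφ
  -- uniform continuity near `K`
  obtain ⟨r0, hr0, hr0O⟩ := hK.exists_cthickening_subset_open hO hKO
  have hK' : IsCompact (cthickening r0 K) := hK.cthickening
  have huc := hK'.uniformContinuousOn_of_continuous (hf.mono hr0O)
  obtain ⟨η, hη, huc⟩ := Metric.uniformContinuousOn_iff.1 huc ε hε
  -- the size
  set M : ℝ := ‖(φ.symm : (Fin 3 → ℝ) →L[ℝ] R3)‖ + 1 with hM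
  have hM0 : 0 < M := by positivity
  have hMle : ∀ x y : R3, ‖x - y‖ ≤ M * dist (φ x) (φ y) := by
    intro x y
    have h1 := (φ.symm : (Fin 3 → ℝ) →L[ℝ] R3).le_opNorm (φ x - φ y)
    have h2 : (φ.symm : (Fin 3 → ℝ) →L[ℝ] R3) (φ x - φ y) = x - y := by
      rw [map_sub]
      simp
    rw [h2, ← dist_eq_norm (φ x)] at h1
    refine h1.trans ?_
    gcongr
    rw [hM]
    linarith
  set m : ℝ := min r0 (min (η / 2) ε) with hm
  have hm0 : 0 < m := by positivity
  obtain ⟨ρ, hlip, hnn, hle1, hpos, hδ, -⟩ := exists_size (Ω := φ '' Om)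
    ((φ.toHomeomorph.isOpen_image).2 hO) (fun _ => m / M) (fun _ _ => by positivity)
    continuousOn_const
  -- the directions and the base points
  let cI : (Fin 3 → ℤ) × ℕ × Fin 3 → R3 := fun q => φ.symm (vx 0 q.2.1 q.1)
  let eI : (Fin 3 → ℤ) × ℕ × Fin 3 → R3 := fun q =>
    φ.symm (Pi.single q.2.2 ((2:ℝ) ^ q.2.1)⁻¹)
  have hae : ∀ᵐ a' : R3, ∀ (j : Fin 3) (q : (Fin 3 → ℤ) × ℕ × Fin 3),
      ACLat Om (fun x => f x j) (fun x => inner ℝ (G j x) (eI q)) (eI q) (a' + cI q) := by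
    rw [ae_all_iff]
    intro j
    refine acl_grad_countable hO (H.wg j) ?_ cI eI
    exact (EuclideanSpace.proj (𝕜 := ℝ) j).continuous.comp_continuousOn hf
  obtain ⟨a', ha'⟩ := hae.exists
  let D : Dat 3 := ⟨ρ, 2, φ a', hlip, hnn, hle1, one_lt_two⟩
  have hOm : φ ⁻¹' D.Om = Om := by
    ext x
    change 0 < ρ (φ x) ↔ x ∈ Om
    rw [hpos]
    exact φ.injective.mem_set_image
  obtain ⟨T, hT1, hT2⟩ := exists_tiling φ D hOm
  refine ⟨Top D, T, ?_, ?_⟩
  · rintro q ⟨y0, hy0, hy0K⟩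
    have hsmall : ∀ x ∈ P (T.H q), ∀ y ∈ P (T.H q), ‖x - y‖ ≤ m := by
      intro x hx y hy
      have hxO : x ∈ Om := T.sub q hx
      rw [hT1] at hx hy
      have h1 : 2 * dist (φ x) (φ y) ≤ ρ (φ x) := q.1.dist_le' hx hy
      have h2 : ρ (φ x) ≤ m / M := hδ _ (mem_image_of_mem _ hxO)
      have h3 : M * (m / M) = m := by field_simp
      have h4 : dist (φ x) (φ y) ≤ m / M := by
        linarith [dist_nonneg (x := φ x) (y := φ y)]
      calc ‖x - y‖ ≤ M * dist (φ x) (φ y) := hMle x y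
        _ ≤ M * (m / M) := by gcongr
        _ = m := h3
    have hthick : ∀ x ∈ P (T.H q), x ∈ cthickening r0 K := by
      intro x hx
      apply mem_cthickening_of_dist_le x y0 r0 K hy0K
      rw [dist_eq_norm]
      exact (hsmall x hx y0 hy0).trans (min_le_left _ _)
    intro x hx y hy
    have h1 := hsmall x hx y hy
    refine ⟨h1.trans ((min_le_right _ _).trans (min_le_right _ _)), ?_⟩
    rw [← dist_eq_norm]
    refine (huc x (hthick x hx) y (hthick y hy) ?_).le
    rw [dist_eq_norm]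
    have h2 : m ≤ η / 2 := (min_le_right _ _).trans (min_le_left _ _)
    linarith
  · intro L c hL x hx hd
    obtain ⟨σ, hcc, hcard⟩ := hT2 x hx
    rw [hd] at hcard
    have hcc' : T.cc x = φ ⁻¹' Dc (φ a') σ.1 := hcc
    rcases cell_small φ a' σ.1 hcard with h1 | ⟨i, h1⟩
    · rw [← hcc'] at h1
      refine Eventually.of_forall fun t => (h1.anti fun y hy => hy.1).finite
    · rw [← hcc'] at h1
      have hv : φ.symm (Pi.single i ((2:ℝ) ^ σ.1.k)⁻¹) ≠ 0 := by
        intro h0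
        have h2 := congrArg φ h0
        rw [φ.apply_symm_apply, map_zero] at h2
        have h3 := congrFun h2 i
        rw [Pi.single_eq_same, Pi.zero_apply] at h3
        have h4 : (0:ℝ) < ((2:ℝ) ^ σ.1.k)⁻¹ := by positivity
        exact h4.ne' h3
      have hsub : sgm (a' + φ.symm (vx 0 σ.1.k σ.1.z)) (φ.symm (Pi.single i ((2:ℝ) ^ σ.1.k)⁻¹)) ⊆
          Om := by
        rw [← h1]
        exact T.cc_sub_Om hx
      have h2 := ae_level_lip hf hL hv hsub (G := G) fun j => ha' j (σ.1.z, σ.1.k, i)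
      rw [h1]
      exact h2

end

end Crest.Agent.R096.Sphm_976
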