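import Crest.Agent.R096.Aclt1_608
import Crest.Agent.R096.Ls6_222
import Crest.Agent.R096.Sphm1_976
import Crest.Agent.R096.Exa1_365

/-!
# Row 96, NO0-PRE, [ACLT] (helper608), part 2

The Sobolev form: for almost every `a` a Sobolev homeomorphism `f` is absolutely continuous on all
closed 1-cells of all tilings whose inequalities are translates by `a` of members of a countable set
(`aclt_sh3`), and it is regular on them (`Tms_582.RegV`, `ae_regV`).
-/

set_option autoImplicit false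
set_option linter.unusedSectionVars false

open MeasureTheory Set Filter Topology Metric Module
open scoped ENNReal NNReal

namespace Crest.Agent.R096.Aclt_608

open Crest.Agent.R096.Msh_715 Crest.Agent.R096.Tms_582
open Crest.Agent.R096.SkC1_961 (E3 Hom3)
open Crest.Agent.R096.Er_594 (SH3)
open Crest.Agent.R096.Mbf_337 (KJ)
open Crest.Agent.R96.Acl_392 Crest.Agent.R96.Sg1_199 Crest.Agent.R96.Sg2_199
open Crest.Agent.R096.Ls_222 (UGv ugv_of_acl li_ne_top_of_aclv)

noncomputable section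

variable {p : ℝ} {Om' La : Set E3} {f : E3 → E3} {D : E3 → E3 →L[ℝ] E3}
  {𝓛 : Set ((E3 →L[ℝ] ℝ) × ℝ)}

/-- a Lipschitz function of `f` has finite levels on a segment on which `f` is absolutely
continuous -/
theorem finite_level {x v : E3} (hv : v ≠ 0) (hsub : sgm x v ⊆ Om') (hf : ContinuousOn f Om')
    (h : ∀ k : Fin 3, ACLat Om' (fun y => f y k) (fun y => D y v k) v x) {ℓ : E3 → ℝ} {K : ℝ≥0}
    (hℓ : LipschitzWith K ℓ) : ∀ᵐ t : ℝ, {y ∈ sgm x v | ℓ (f y) = t}.Finite := by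
  have h1 : UGv f (fun y => ‖D y v‖ₑ) x v := ugv_of_acl hsub h
  have h2 : li (fun y => ‖D y v‖ₑ) x v ≠ ∞ := li_ne_top_of_aclv hsub h
  have h3 : UGs (fun y => ℓ (f y)) (fun y => (K : ℝ≥0∞) * ‖D y v‖ₑ) x v := by
    intro s t hs hst ht
    have h4 := h1 s t hs hst ht
    rw [lintegral_const_mul' _ _ ENNReal.coe_ne_top]
    refine le_trans ?_ (mul_le_mul_right h4 _)
    rw [← Real.norm_eq_abs, ofReal_norm, ← edist_eq_enorm_sub, ← edist_eq_enorm_sub]
    exact hℓ _ _
  have h4 : li (fun y => (K : ℝ≥0∞) * ‖D y v‖ₑ) x v ≠ ∞ := by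
    have : li (fun y => (K : ℝ≥0∞) * ‖D y v‖ₑ) x v = K * li (fun y => ‖D y v‖ₑ) x v :=
      lintegral_const_mul' _ _ ENNReal.coe_ne_top
    rw [this]
    exact ENNReal.mul_ne_top ENNReal.coe_ne_top h2
  have h5 := Sphm_976.ae_level_finite (u := fun y => ℓ (f y)) hv
    (hℓ.continuous.comp_continuousOn (hf.mono hsub)) h3 h4
  filter_upwards [h5] with t ht
  exact ht

theorem SH3.cont (h : SH3 p Om' La f D) : ContinuousOn f Om' := by
  obtain ⟨fi, -, -, -, -, hc, -⟩ := h.homeo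
  exact hc

/-- **[ACLT] for a Sobolev homeomorphism** -/
theorem aclt_sh3 (h𝓛 : 𝓛.Countable) (hO : IsOpen Om') (h : SH3 p Om' La f D) :
    ∀ᵐ a : E3, ∀ j : Ls 𝓛, ∀ k : Fin 3,
      ACLat Om' (fun y => f y k) (fun y => D y j.v k) j.v (j.x + a) :=
  aclt (μ := volume) h𝓛 hO (u := fun (k : Fin 3) y => f y k) (g := fun k v y => D y v k)
    (fun k => (continuous_apply k).comp_continuousOn (SH3.cont h)) fun k v => Exa_365.wd_coord h v k

/-- **regularity on the closed 1-cells for almost every translate**: `V` any set of tiles; only the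
tiles which meet the tiles of `V` have to be translates -/
theorem ae_regV (h𝓛 : 𝓛.Countable) (hO : IsOpen Om') (h : SH3 p Om' La f D) :
    ∀ᵐ a : E3, ∀ (Om : Set E3) (ι : Type) (T : Tiling Om ι) (V : Set ι), Om ⊆ Om' →
      Sh 𝓛 a T {i | ∃ j ∈ V, (P (T.H i) ∩ P (T.H j)).Nonempty} → RegV T f V := by
  filter_upwards [aclt_sh3 h𝓛 hO h] with a ha Om ι T V hOm hT
  intro x hx hd ℓ ⟨K, hℓ⟩
  obtain ⟨i, hiV, hxi⟩ := mem_iUnion₂.1 hx
  have hxO : x ∈ Om := T.sub i hxi
  obtain ⟨j, hj, hc⟩ := edge_ls (a := a) (hT.mono fun l hl => by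
    obtain ⟨y, hy, hyc⟩ := hl
    exact ⟨i, hiV, y, hy, T.cc_sub_tile hxi hyc⟩) hxO hd
  rw [hc]
  exact finite_level hj (hc ▸ (T.cc_sub_Om hxO).trans hOm) (SH3.cont h) (ha j) hℓ

end

end Crest.Agent.R096.Aclt_608
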