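import Crest.Agent.R096.Tws3_662

/-!
# Local two-sidedness of PL surfaces, part 4 (helper662, row 96, `twoSided_of_sphere`)

`twoSidedAt_of_isBall`: points of a set of 3-space with a PL disc neighbourhood;
`twoSided_of_sphere`: every PL 2-sphere of 3-space is two-sided at every point.
-/

set_option autoImplicit false

namespace Crest.Agent.R096.Tws_662

open Set Metric Function Topology Filter
open Crest.Agent.R096.Pl Crest.Agent.R096.Ax_914 Crest.Agent.R096.Ce_537

theorem PLMap.plOn {V W : Type*} [NormedAddCommGroup V] [NormedSpace ℝ V]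
    [NormedAddCommGroup W] [NormedSpace ℝ W] {f : V → W} (hf : PLMap f) (K : Set V) :
    PLOn f K := by
  obtain ⟨hc, G, hG, h⟩ := hf
  exact ⟨hc.continuousOn, hG.toFinset, fun x _ => by simpa using h x⟩

section

variable {E : Type*} [NormedAddCommGroup E] [NormedSpace ℝ E] [FiniteDimensional ℝ E]

/-- transport of a chart by a PL equivalence -/
theorem twoSidedAt_of_plEquiv {W : Type*} [NormedAddCommGroup W] [NormedSpace ℝ W]
    (h3 : Module.finrank ℝ E = 3) {S D : Set E} {M : Set W} (φ : PLEquiv M D) (hDS : D ⊆ S)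
    {p : W} (hp : p ∈ M) (hn : D ∈ 𝓝[S] (φ.f p)) {κ : ℝ × ℝ → W} {r : ℝ} (hr : 0 < r)
    (hκ : PLOn κ (closedBall 0 r)) (hi : InjOn κ (closedBall 0 r)) (h0 : κ 0 = p)
    (hm : MapsTo κ (closedBall 0 r) M) (hκn : κ '' closedBall 0 r ∈ 𝓝[M] p) :
    TwoSidedAt S (φ.f p) := by
  refine twoSidedAt_of_chart h3 (F := fun y => φ.f (κ y)) hr (φ.pf.comp hκ hm)
    (φ.injOn.comp hi hm) (by rw [h0]) (fun y hy => hDS (φ.mf (hm hy))) ?_
  have hx : φ.f p ∈ D := φ.mf hp
  have e1 : 𝓝[S] (φ.f p) = 𝓝[D] (φ.f p) := by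
    apply le_antisymm
    · exact nhdsWithin_le_iff.2 hn
    · exact nhdsWithin_mono _ hDS
  rw [e1]
  have h1 : Tendsto φ.g (𝓝[D] (φ.f p)) (𝓝[M] p) := by
    have h2 : ContinuousWithinAt φ.g D (φ.f p) := φ.pg.1 _ hx
    have h3 := h2.tendsto_nhdsWithin φ.mg
    rwa [φ.li p hp] at h3
  filter_upwards [h1 hκn, self_mem_nhdsWithin] with s hs hsD
  obtain ⟨y, hy, e⟩ := hs
  refine ⟨y, hy, ?_⟩
  show φ.f (κ y) = s
  rw [e, φ.ri s hsD]

/-- **a point of `S` with a PL disc neighbourhood in `S`** -/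
theorem twoSidedAt_of_isBall (h3 : Module.finrank ℝ E = 3) {S D Γ : Set E} {x : E}
    (hD : IsBall 2 D Γ) (hDS : D ⊆ S) (hx : x ∈ D) (hxΓ : x ∉ Γ) (hn : D ∈ 𝓝[S] x) :
    TwoSidedAt S x := by
  obtain ⟨e, he⟩ := hD
  have hp : e.g x ∈ cube 2 := e.mg hx
  have hfx : e.f (e.g x) = x := e.ri x hx
  have hlt : ‖e.g x‖ < 1 := by
    have h1 : ‖e.g x‖ ≤ 1 := by simpa using hp
    refine lt_of_le_of_ne h1 fun h => hxΓ ?_
    rw [← he]
    exact ⟨e.g x, by simpa using h, hfx⟩
  -- the linear chart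
  let q : (ℝ × ℝ) →ₗ[ℝ] (Fin 2 → ℝ) :=
    { toFun := fun y => ![y.1, y.2]
      map_add' := fun y z => by ext i; fin_cases i <;> simp
      map_smul' := fun c y => by ext i; fin_cases i <;> simp }
  have hq : ∀ y, q y = ![y.1, y.2] := fun y => rfl
  have hqn : ∀ y, ‖q y‖ = ‖y‖ := by
    intro y
    rw [hq, Prod.norm_def]
    apply le_antisymm
    · refine (pi_norm_le_iff_of_nonneg (by positivity)).2 fun i => ?_
      fin_cases i
      · exact le_max_left _ _
      · exact le_max_right _ _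
    · exact max_le (norm_le_pi_norm (![y.1, y.2]) 0) (norm_le_pi_norm (![y.1, y.2]) 1)
  have hqs : ∀ w : Fin 2 → ℝ, q (w 0, w 1) = w := fun w => by
    rw [hq]; ext i; fin_cases i <;> rfl
  have hqc : Continuous q := q.continuous_of_finiteDimensional
  have hr : 0 < 1 - ‖e.g x‖ := by linarith
  rw [← hfx]
  rw [← hfx] at hn
  refine twoSidedAt_of_plEquiv h3 e hDS hp hn (κ := fun y => q y + e.g x) hr
    (PLMap.plOn ((PLMap.of_affine q.toAffineMap).add_const _) _) ?_ ?_ ?_ ?_
  · intro y _ y' _ h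
    have h1 : q y = q y' := add_right_cancel h
    have h2 : ‖q (y - y')‖ = 0 := by rw [map_sub, h1, sub_self, norm_zero]
    rw [hqn, norm_eq_zero, sub_eq_zero] at h2
    exact h2
  · show q 0 + e.g x = e.g x
    rw [map_zero, zero_add]
  · intro y hy
    have hy' : ‖y‖ ≤ 1 - ‖e.g x‖ := by simpa using hy
    show q y + e.g x ∈ closedBall 0 1
    rw [mem_closedBall_zero_iff]
    calc ‖q y + e.g x‖ ≤ ‖q y‖ + ‖e.g x‖ := norm_add_le _ _
      _ ≤ 1 := by rw [hqn]; linarith
  · refine mem_nhdsWithin_of_mem_nhds ?_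
    refine Filter.mem_of_superset (closedBall_mem_nhds (e.g x) hr) ?_
    intro w hw
    refine ⟨((w - e.g x) 0, (w - e.g x) 1), ?_, ?_⟩
    · rw [mem_closedBall_zero_iff, ← hqn, hqs, ← dist_eq_norm]
      exact hw
    · show q _ + e.g x = w
      rw [hqs]; simp

/-! ### the boundary of the cube -/

/-- a linear parametrisation of the coordinate plane `w i₀ = 0` -/
theorem exists_coordPlane (i₀ : Fin 3) : ∃ (q : (ℝ × ℝ) →ₗ[ℝ] (Fin 3 → ℝ))
    (ρ : (Fin 3 → ℝ) →ₗ[ℝ] (ℝ × ℝ)), (∀ y, ρ (q y) = y) ∧ (∀ y, q y i₀ = 0) ∧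
      ∀ w, w i₀ = 0 → q (ρ w) = w := by
  have hs : ∀ y z : ℝ × ℝ, (y + z).1 = y.1 + z.1 ∧ (y + z).2 = y.2 + z.2 := fun y z => ⟨rfl, rfl⟩
  fin_cases i₀
  · refine ⟨⟨⟨fun y => ![0, y.1, y.2], fun y z => ?_⟩, fun c y => ?_⟩,
      ⟨⟨fun w => (w 1, w 2), fun y z => rfl⟩, fun c y => rfl⟩, fun y => rfl, fun y => rfl,
      fun w hw => ?_⟩
    · ext i; fin_cases i <;> simp
    · ext i; fin_cases i <;> simp
    · ext i; fin_cases i
      · exact hw.symm
      · rfl
      · rfl
  · refine ⟨⟨⟨fun y => ![y.1, 0, y.2], fun y z => ?_⟩, fun c y => ?_⟩,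
      ⟨⟨fun w => (w 0, w 2), fun y z => rfl⟩, fun c y => rfl⟩, fun y => rfl, fun y => rfl,
      fun w hw => ?_⟩
    · ext i; fin_cases i <;> simp
    · ext i; fin_cases i <;> simp
    · ext i; fin_cases i
      · rfl
      · exact hw.symm
      · rfl
  · refine ⟨⟨⟨fun y => ![y.1, y.2, 0], fun y z => ?_⟩, fun c y => ?_⟩,
      ⟨⟨fun w => (w 0, w 1), fun y z => rfl⟩, fun c y => rfl⟩, fun y => rfl, fun y => rfl,
      fun w hw => ?_⟩
    · ext i; fin_cases i <;> simp
    · ext i; fin_cases i <;> simp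
    · ext i; fin_cases i
      · rfl
      · rfl
      · exact hw.symm

/-- the boundary of the cube has a PL chart at every point -/
theorem exists_chart_sph {p : Fin 3 → ℝ} (hp : p ∈ sph 3) :
    ∃ (κ : ℝ × ℝ → (Fin 3 → ℝ)) (r : ℝ), 0 < r ∧ PLMap κ ∧ Injective κ ∧ κ 0 = p ∧
      MapsTo κ (closedBall 0 r) (sph 3) ∧ κ '' closedBall 0 r ∈ 𝓝[sph 3] p := by
  classical
  have hpn : ‖p‖ = 1 := by simpa using hp
  let I : Finset (Fin 3) := Finset.univ.filter fun i => |p i| = 1
  have hIm : ∀ i, i ∈ I ↔ |p i| = 1 := fun i => by simp [I]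
  have hp0 : p ≠ 0 := by rintro rfl; simp at hpn
  obtain ⟨i₀, hi₀⟩ : ∃ i, |p i| = 1 := by
    obtain ⟨i, hi⟩ := exists_coord hp0
    exact ⟨i, by rw [← hi, hpn]⟩
  have hI : I.Nonempty := ⟨i₀, (hIm _).2 hi₀⟩
  have hsq : ∀ i ∈ I, p i * p i = 1 := fun i hi => by
    have := (hIm i).1 hi
    rw [← abs_mul_abs_self, this, one_mul]
  have hple : ∀ i, |p i| ≤ 1 := fun i => by
    rw [← hpn, ← Real.norm_eq_abs]; exact norm_le_pi_norm p i
  let n : Fin 3 → ℝ := fun i => if i ∈ I then p i else 0
  have hnI : ∀ i ∈ I, n i = p i := fun i hi => if_pos hi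
  have hnI' : ∀ i, i ∉ I → n i = 0 := fun i hi => if_neg hi
  let m : (Fin 3 → ℝ) → ℝ := fun w => I.sup' hI fun i => p i * w i
  have hcoord : ∀ i, PLMap fun w : Fin 3 → ℝ => w i := fun i =>
    PLMap.of_affine (LinearMap.proj (R := ℝ) (φ := fun _ : Fin 3 => ℝ) i).toAffineMap
  have hmPL : PLMap m := by
    have := PLMap.finset_sup' hI (f := fun (i : Fin 3) (w : Fin 3 → ℝ) => p i * w i)
      fun i _ => (hcoord i).const_mul (p i)
    simpa [m] using this
  obtain ⟨q, ρ, hρq, hq0, hqρ⟩ := exists_coordPlane i₀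
  have hqPL : PLMap fun y => q y := PLMap.of_affine q.toAffineMap
  let κ₀ : ℝ × ℝ → (Fin 3 → ℝ) := fun y => q y - m (q y) • n
  have hκ₀ : PLMap κ₀ := hqPL.sub ((hmPL.comp hqPL).smul_const n)
  have hi₀I : i₀ ∈ I := (hIm _).2 hi₀
  have hκ₀i : Injective κ₀ := by
    intro y y' h
    have h1 := congrFun h i₀
    simp only [κ₀, Pi.sub_apply, Pi.smul_apply, smul_eq_mul, hq0, hnI i₀ hi₀I] at h1
    have hne : p i₀ ≠ 0 := fun h => by
      have := hsq i₀ hi₀I; rw [h] at this; norm_num at this
    have h2 : m (q y) = m (q y') := by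
      have : m (q y) * p i₀ = m (q y') * p i₀ := by linarith
      exact mul_right_cancel₀ hne this
    have h3 : q y = q y' := by
      have : κ₀ y = κ₀ y' := h
      simp only [κ₀, h2] at this
      exact sub_left_injective this
    rw [← hρq y, h3, hρq]
  have hm0 : m 0 = 0 := by
    apply le_antisymm
    · exact Finset.sup'_le _ _ fun i _ => by simp
    · simp [m]
  have hκ₀0 : κ₀ 0 = 0 := by
    show q 0 - m (q 0) • n = 0
    rw [map_zero, hm0, zero_smul, sub_zero]
  have hmc : Continuous m := hmPL.continuous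
  -- the chart near the origin
  have hnear : ∀ᶠ y in 𝓝 (0 : ℝ × ℝ), p + κ₀ y ∈ sph 3 := by
    have ev1 : ∀ᶠ y in 𝓝 (0 : ℝ × ℝ), ∀ i, |κ₀ y i| < 1 ∧ (|p i| < 1 → |κ₀ y i| < 1 - |p i|) := by
      rw [Filter.eventually_all]
      intro i
      have hc : Tendsto (fun y => |κ₀ y i|) (𝓝 0) (𝓝 |κ₀ 0 i|) :=
        ((continuous_abs.comp ((continuous_apply i).comp hκ₀.continuous))).tendsto 0
      rw [hκ₀0, Pi.zero_apply, abs_zero] at hc
      have e1 := hc.eventually (gt_mem_nhds (show (0 : ℝ) < 1 by norm_num))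
      by_cases h : |p i| < 1
      · filter_upwards [e1, hc.eventually (gt_mem_nhds (show (0 : ℝ) < 1 - |p i| by linarith))]
          with y h1 h2 using ⟨h1, fun _ => h2⟩
      · filter_upwards [e1] with y h1 using ⟨h1, fun h' => absurd h' h⟩
    filter_upwards [ev1] with y hy
    have hpart : ∀ i ∈ I, p i * κ₀ y i = p i * q y i - m (q y) := by
      intro i hi
      simp only [κ₀, Pi.sub_apply, Pi.smul_apply, smul_eq_mul, hnI i hi]
      have := hsq i hi
      linear_combination (-(m (q y))) * this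
    have hle : ∀ i ∈ I, p i * κ₀ y i ≤ 0 := by
      intro i hi
      rw [hpart i hi]
      have := Finset.le_sup' (fun i => p i * q y i) hi
      have h2 : p i * q y i ≤ m (q y) := this
      linarith
    have habs : ∀ i ∈ I, |p i + κ₀ y i| = |1 + p i * κ₀ y i| := by
      intro i hi
      have h1 : |p i| = 1 := (hIm i).1 hi
      have h2 : 1 + p i * κ₀ y i = p i * (p i + κ₀ y i) := by
        have := hsq i hi
        linear_combination -this
      rw [h2, abs_mul, h1, one_mul]
    obtain ⟨j, hj, hjm⟩ := Finset.exists_mem_eq_sup' hI fun i => p i * q y i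
    have hj0 : p j * κ₀ y j = 0 := by
      rw [hpart j hj]
      have : m (q y) = p j * q y j := hjm
      rw [this, sub_self]
    rw [sph, mem_sphere_zero_iff_norm]
    apply le_antisymm
    · refine (pi_norm_le_iff_of_nonneg zero_le_one).2 fun i => ?_
      rw [Real.norm_eq_abs, Pi.add_apply]
      by_cases hi : i ∈ I
      · rw [habs i hi, abs_le]
        have h1 := hle i hi
        have h2 : |p i * κ₀ y i| < 1 := by
          rw [abs_mul, (hIm i).1 hi, one_mul]; exact (hy i).1
        have h3 := abs_lt.1 h2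
        constructor <;> linarith [h3.1]
      · have h1 : |p i| < 1 := lt_of_le_of_ne (hple i) fun h => hi ((hIm i).2 h)
        have h2 := (hy i).2 h1
        exact (abs_add_le _ _).trans (by linarith)
    · have h1 : |p j + κ₀ y j| = 1 := by rw [habs j hj, hj0]; simp
      rw [← h1, ← Real.norm_eq_abs]
      exact norm_le_pi_norm (p + κ₀ y) j
  obtain ⟨δ, hδ, hball⟩ := Metric.eventually_nhds_iff.1 hnear
  have hr : 0 < δ / 2 := by linarith
  refine ⟨fun y => p + κ₀ y, δ / 2, hr, ?_, fun y y' h => hκ₀i (add_left_cancel h), ?_, ?_, ?_⟩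
  · have := hκ₀.add_const p
    simpa [add_comm] using this
  · show p + κ₀ 0 = p
    rw [hκ₀0, add_zero]
  · intro y hy
    refine hball ?_
    have : ‖y‖ ≤ δ / 2 := by simpa using hy
    rw [dist_zero_right]; linarith
  · -- the inverse
    let inv : (Fin 3 → ℝ) → ℝ × ℝ := fun z =>
      ρ ((z - p) - (p i₀ * (z - p) i₀) • n)
    have hinvc : Continuous inv := by
      refine ρ.continuous_of_finiteDimensional.comp ?_
      fun_prop
    have hinv0 : inv p = 0 := by simp [inv]
    have ev1 : ∀ᶠ z in 𝓝[sph 3] p, inv z ∈ closedBall (0 : ℝ × ℝ) (δ / 2) := by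
      refine (hinvc.tendsto p).mono_left nhdsWithin_le_nhds |>.eventually ?_
      rw [hinv0]
      exact closedBall_mem_nhds _ hr
    have ev2 : ∀ᶠ z in 𝓝[sph 3] p, ∀ i, |z i - p i| < 1 ∧ (|p i| < 1 → |z i| < 1) := by
      refine Filter.Eventually.filter_mono nhdsWithin_le_nhds ?_
      rw [Filter.eventually_all]
      intro i
      have hc : Tendsto (fun z : Fin 3 → ℝ => |z i - p i|) (𝓝 p) (𝓝 |p i - p i|) :=
        (by fun_prop : Continuous fun z : Fin 3 → ℝ => |z i - p i|).tendsto p
      have hc' : Tendsto (fun z : Fin 3 → ℝ => |z i|) (𝓝 p) (𝓝 |p i|) :=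
        (by fun_prop : Continuous fun z : Fin 3 → ℝ => |z i|).tendsto p
      rw [sub_self, abs_zero] at hc
      have e1 := hc.eventually (gt_mem_nhds (show (0 : ℝ) < 1 by norm_num))
      by_cases h : |p i| < 1
      · filter_upwards [e1, hc'.eventually (gt_mem_nhds h)] with z h1 h2 using ⟨h1, fun _ => h2⟩
      · filter_upwards [e1] with z h1 using ⟨h1, fun h' => absurd h' h⟩
    filter_upwards [ev1, ev2, self_mem_nhdsWithin] with z h1 h2 h3
    refine ⟨inv z, h1, ?_⟩
    have hzn : ‖z‖ = 1 := by simpa using h3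
    have hz0 : z ≠ 0 := by rintro rfl; simp at hzn
    have hzle : ∀ i, |z i| ≤ 1 := fun i => by
      rw [← hzn, ← Real.norm_eq_abs]; exact norm_le_pi_norm z i
    -- `m (z - p) = 0`
    have hmz : m (z - p) = 0 := by
      apply le_antisymm
      · refine Finset.sup'_le _ _ fun i hi => ?_
        have e1 := hsq i hi
        have e2 : p i * z i ≤ 1 := by
          have e3 : |p i * z i| ≤ 1 := by
            rw [abs_mul, (hIm i).1 hi, one_mul]; exact hzle i
          exact (abs_le.1 e3).2
        simp only [Pi.sub_apply, mul_sub]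
        linarith
      · obtain ⟨j, hj⟩ := exists_coord hz0
        rw [hzn] at hj
        have hjI : j ∈ I := by
          rw [hIm]
          by_contra hne
          have := (h2 j).2 (lt_of_le_of_ne (hple j) hne)
          linarith
        have e0 : z j = p j := by
          have e1 := (h2 j).1
          have e2 : |p j| = 1 := (hIm j).1 hjI
          have hj' : |z j| = 1 := hj.symm
          rcases eq_or_eq_neg_of_abs_eq hj' with h | h <;>
            rcases eq_or_eq_neg_of_abs_eq e2 with h' | h' <;> rw [h, h'] at e1 ⊢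
          · norm_num at e1
          · norm_num at e1
        have := Finset.le_sup' (fun i => p i * (z - p) i) hjI
        simp only [Pi.sub_apply, e0, sub_self, mul_zero] at this
        exact this
    have hq : q (inv z) = (z - p) - (p i₀ * (z - p) i₀) • n := by
      refine hqρ _ ?_
      simp only [Pi.sub_apply, Pi.smul_apply, smul_eq_mul, hnI i₀ hi₀I]
      have := hsq i₀ hi₀I
      linear_combination (-(z i₀ - p i₀)) * this
    have hmq : m (q (inv z)) = -(p i₀ * (z - p) i₀) := by
      have e1 : m (q (inv z)) = m (z - p) - p i₀ * (z - p) i₀ := by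
        rw [hq]
        have e2 : ∀ c : ℝ, m ((z - p) - c • n) = m (z - p) - c := by
          intro c
          apply le_antisymm
          · refine Finset.sup'_le _ _ fun i hi => ?_
            have e3 := Finset.le_sup' (fun i => p i * (z - p) i) hi
            have e4 : p i * (z - p) i ≤ m (z - p) := e3
            simp only [Pi.sub_apply, Pi.smul_apply, smul_eq_mul, hnI i hi] at e4 ⊢
            have e5 := hsq i hi
            have e6 : p i * (z i - p i - c * p i) = p i * (z i - p i) - c := by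
              linear_combination (-c) * e5
            linarith
          · rw [sub_le_iff_le_add]
            refine Finset.sup'_le _ _ fun i hi => ?_
            have e3 := Finset.le_sup' (fun i => p i * ((z - p) - c • n) i) hi
            have e4 : p i * ((z - p) - c • n) i ≤ m ((z - p) - c • n) := e3
            simp only [Pi.sub_apply, Pi.smul_apply, smul_eq_mul, hnI i hi] at e4 ⊢
            have e5 := hsq i hi
            have e6 : p i * (z i - p i - c * p i) = p i * (z i - p i) - c := by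
              linear_combination (-c) * e5
            linarith
        exact e2 _
      rw [e1, hmz, zero_sub]
    show p + (q (inv z) - m (q (inv z)) • n) = z
    rw [hmq, hq, neg_smul]
    abel

/-- **a PL 2-sphere of 3-space is two-sided at every point** (241 #9295 (3)) -/
theorem twoSided_of_sphere (h3 : Module.finrank ℝ E = 3) {S : Set E} (φ : PLEquiv (sph 3) S) :
    ∀ x ∈ S, TwoSidedAt S x := by
  intro x hx
  obtain ⟨κ, r, hr, hκ, hi, h0, hm, hn⟩ := exists_chart_sph (φ.mg hx)
  rw [← φ.ri x hx]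
  exact twoSidedAt_of_plEquiv h3 φ Subset.rfl (φ.mg hx) self_mem_nhdsWithin hr
    (PLMap.plOn hκ _) hi.injOn h0 hm hn

end

end Crest.Agent.R096.Tws_662
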