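import Crest.Agent.R096.Mrg6_715
import Crest.Agent.R096.Tws4_662

/-!
# R096 (row 96): PL balls are cores (helper715)

`CoreH.of_ball` : a PL ball of a tiling whose frontier is a subcomplex satisfies `CoreH`.
-/

set_option autoImplicit false

open Set Metric Filter Topology Module
open scoped Classical

namespace Crest.Agent.R096.Msh_715

open St_147 Agl5_543 Coh_184 Ce_537

section Punct2

/-- embeddings of compact sets keep `PC` -/
theorem PC.of_embedding {X Y : Type*} [TopologicalSpace X] [TopologicalSpace Y] [T2Space Y]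
    {S : Set X} (h : PC S) (hS : IsCompact S) {g : X → Y} (hg : ContinuousOn g S)
    (hinj : InjOn g S) : PC (g '' S) := by
  rintro _ ⟨x, hx, rfl⟩ U hU
  obtain ⟨U', hU', hU2⟩ := mem_nhdsWithin_iff_exists_mem_nhds_inter.1 (hg x hx hU)
  obtain ⟨V', hV', R, hR, h1, h2⟩ := h x hx U' hU'
  obtain ⟨V2, hV2, hV2o, hxV⟩ := _root_.mem_nhds_iff.1 hV'
  have hC : IsCompact (S \ V2) := hS.diff hV2o
  have hC2 : IsClosed (g '' (S \ V2)) := (hC.image_of_continuousOn (hg.mono sdiff_subset)).isClosed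
  have hnot : g x ∉ g '' (S \ V2) := by
    rintro ⟨s, hs, he⟩
    exact hs.2 (by rw [hinj hs.1 hx he]; exact hxV)
  refine ⟨(g '' (S \ V2))ᶜ, hC2.isOpen_compl.mem_nhds hnot, g '' R,
    hR.image g (hg.mono fun r hr => (h2 hr).2.1), ?_, ?_⟩
  · rintro _ ⟨hy, ⟨s, hs, rfl⟩, hne⟩
    refine ⟨s, h1 ⟨?_, hs, fun e => hne (by rw [mem_singleton_iff.1 e]; rfl)⟩, rfl⟩
    apply hV2
    by_contra hn
    exact hy ⟨s, ⟨hs, hn⟩, rfl⟩
  · rintro _ ⟨r, hr, rfl⟩
    obtain ⟨h3, h4, h5⟩ := h2 hr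
    exact ⟨hU2 ⟨h3, h4⟩, ⟨r, h4, rfl⟩, fun e => h5 (hinj h4 hx (mem_singleton_iff.1 e))⟩

/-- the Euclidean sphere onto the sphere of the cube -/
theorem exists_sph3 : ∃ g : EuclideanSpace ℝ (Fin 3) → (Fin 3 → ℝ),
    ContinuousOn g (sphere 0 1) ∧ InjOn g (sphere 0 1) ∧ g '' (sphere 0 1) = sph 3 := by
  let g : EuclideanSpace ℝ (Fin 3) → (Fin 3 → ℝ) := fun y => ‖WithLp.ofLp y‖⁻¹ • WithLp.ofLp y
  have hne : ∀ y ∈ (sphere 0 1 : Set (EuclideanSpace ℝ (Fin 3))), ‖WithLp.ofLp y‖ ≠ 0 := by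
    intro y hy h0
    have h1 : WithLp.ofLp y = 0 := norm_eq_zero.1 h0
    have h2 : y = 0 := by
      ext i
      exact congrFun h1 i
    rw [h2] at hy
    simp at hy
  have hcont : ContinuousOn g (sphere 0 1) := by
    have hc : Continuous fun y : EuclideanSpace ℝ (Fin 3) => (WithLp.ofLp y : Fin 3 → ℝ) :=
      PiLp.continuous_ofLp 2 _
    exact ((hc.norm).continuousOn.inv₀ hne).smul hc.continuousOn
  have hinj : InjOn g (sphere 0 1) := by
    intro y hy z hz hyz
    have hy1 := hne y hy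
    have hz1 := hne z hz
    have h1 : y = (‖WithLp.ofLp y‖ * ‖WithLp.ofLp z‖⁻¹) • z := by
      ext i
      have h2 := congrFun hyz i
      simp only [g, Pi.smul_apply, smul_eq_mul] at h2
      show y i = (‖WithLp.ofLp y‖ * ‖WithLp.ofLp z‖⁻¹) * z i
      rw [mul_assoc, ← h2, ← mul_assoc, mul_inv_cancel₀ hy1, one_mul]
    have h3 : ‖y‖ = 1 := by simpa using hy
    have h4 : ‖z‖ = 1 := by simpa using hz
    have h5 : ‖y‖ = (‖WithLp.ofLp y‖ * ‖WithLp.ofLp z‖⁻¹) * ‖z‖ := by
      conv_lhs => rw [h1]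
      rw [norm_smul, Real.norm_eq_abs, abs_of_nonneg (by positivity)]
    rw [h3, h4, mul_one] at h5
    rw [h1, ← h5, one_smul]
  refine ⟨g, hcont, hinj, ?_⟩
  ext w
  constructor
  · rintro ⟨y, hy, rfl⟩
    rw [sph, mem_sphere_zero_iff_norm]
    show ‖‖WithLp.ofLp y‖⁻¹ • WithLp.ofLp y‖ = 1
    rw [norm_smul, norm_inv, norm_norm]
    exact inv_mul_cancel₀ (hne y hy)
  · intro hw
    have hw1 : ‖w‖ = 1 := by simpa using hw
    have hw0 : w ≠ 0 := by
      rintro rfl
      rw [norm_zero] at hw1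
      exact one_ne_zero hw1.symm
    set z : EuclideanSpace ℝ (Fin 3) := WithLp.toLp 2 w with hz
    have hz0 : ‖z‖ ≠ 0 := by
      intro h0
      apply hw0
      have h1 : z = 0 := norm_eq_zero.1 h0
      have h2 : WithLp.ofLp z = w := rfl
      rw [← h2, h1]
      rfl
    refine ⟨‖z‖⁻¹ • z, ?_, ?_⟩
    · rw [mem_sphere_zero_iff_norm, norm_smul, norm_inv, norm_norm]
      exact inv_mul_cancel₀ hz0
    · show ‖WithLp.ofLp (‖z‖⁻¹ • z)‖⁻¹ • WithLp.ofLp (‖z‖⁻¹ • z) = w
      have h1 : WithLp.ofLp (‖z‖⁻¹ • z) = ‖z‖⁻¹ • w := rfl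
      rw [h1, norm_smul, norm_inv, norm_norm, hw1, mul_one, inv_inv, smul_smul,
        mul_inv_cancel₀ hz0, one_smul]

theorem isPreconnected_sphere3 :
    IsPreconnected (sphere (0 : EuclideanSpace ℝ (Fin 3)) 1) := by
  refine isPreconnected_sphere ?_ _ _
  rw [← Module.finrank_eq_rank, finrank_euclideanSpace, Fintype.card_fin]
  norm_num

theorem nontrivial_sphere3 : (sphere (0 : EuclideanSpace ℝ (Fin 3)) 1).Nontrivial := by
  have hn : ‖EuclideanSpace.single (0 : Fin 3) (1 : ℝ)‖ = 1 := by simp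
  refine ⟨EuclideanSpace.single (0 : Fin 3) (1 : ℝ), by rw [mem_sphere_zero_iff_norm]; exact hn,
    -EuclideanSpace.single (0 : Fin 3) (1 : ℝ), by rw [mem_sphere_zero_iff_norm, norm_neg]; exact hn,
    fun h => ?_⟩
  have h0 := congrArg (fun v : EuclideanSpace ℝ (Fin 3) => v 0) h
  simp at h0
  norm_num at h0

end Punct2

section Two

variable {E : Type*} [NormedAddCommGroup E] [NormedSpace ℝ E]

omit [NormedSpace ℝ E] in
/-- closed sets with two-sided frontier are cores -/
theorem Core.of_twoSided {K : Set E} (hcl : IsClosed K) (hreg : frontier K ⊆ closure (interior K))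
    (h2 : ∀ x ∈ frontier K, Ax_914.TwoSidedAt (frontier K) x) : Core K := by
  have key : ∀ x ∈ frontier K, ∀ U ∈ 𝓝 x, ∃ O P N : Set E, IsOpen O ∧ x ∈ O ∧ O ⊆ U ∧
      IsPreconnected P ∧ IsPreconnected N ∧ O ∩ interior K = P ∧ O \ K = N := by
    intro x hx U hU
    obtain ⟨ε, hε, hb⟩ := Metric.mem_nhds_iff.1 hU
    obtain ⟨O, P, N, hO, hPo, hNo, hxO, hOb, hP, hN, hPN, he, hxP, hxN⟩ := h2 x hx ε hε
    have hdich : ∀ Q : Set E, IsPreconnected Q → Q ⊆ O \ frontier K → Q ⊆ interior K ∨ Q ⊆ Kᶜ := by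
      intro Q hQ hQO
      refine hQ.subset_or_subset isOpen_interior hcl.isOpen_compl ?_ ?_
      · rw [Set.disjoint_left]; intro y hy hyK; exact hyK (interior_subset hy)
      · intro y hy
        by_cases hyK : y ∈ K
        · left
          by_contra hyi
          exact (hQO hy).2 (by rw [hcl.frontier_eq]; exact ⟨hyK, hyi⟩)
        · exact Or.inr hyK
    have hPs : P ⊆ O \ frontier K := by rw [he]; exact subset_union_left
    have hNs : N ⊆ O \ frontier K := by rw [he]; exact subset_union_right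
    have hin : ∃ y ∈ O, y ∈ interior K := by
      obtain ⟨y, hy1, hy2⟩ := mem_closure_iff.1 (hreg hx) O hO hxO
      exact ⟨y, hy1, hy2⟩
    have hout : ∃ y ∈ O, y ∉ K := by
      have h1 : x ∈ closure Kᶜ := by
        rw [frontier_eq_closure_inter_closure] at hx; exact hx.2
      obtain ⟨y, hy1, hy2⟩ := mem_closure_iff.1 h1 O hO hxO
      exact ⟨y, hy1, hy2⟩
    have hfr : ∀ y, y ∈ interior K → y ∉ frontier K := fun y h h' => h'.2 h
    have hfr2 : ∀ y, y ∉ K → y ∉ frontier K := fun y h h' => h (hcl.frontier_subset h')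
    have two : ∀ P N : Set E, O \ frontier K = P ∪ N → P ⊆ interior K → N ⊆ Kᶜ →
        O ∩ interior K = P ∧ O \ K = N := by
      intro P N hPN hP hN
      constructor
      · apply Subset.antisymm
        · rintro y ⟨hy, hyi⟩
          have : y ∈ P ∪ N := by rw [← hPN]; exact ⟨hy, hfr y hyi⟩
          rcases this with h | h
          · exact h
          · exact absurd (interior_subset hyi) (hN h)
        · intro y hy
          have : y ∈ O \ frontier K := by rw [hPN]; exact Or.inl hy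
          exact ⟨this.1, hP hy⟩
      · apply Subset.antisymm
        · rintro y ⟨hy, hyK⟩
          have : y ∈ P ∪ N := by rw [← hPN]; exact ⟨hy, hfr2 y hyK⟩
          rcases this with h | h
          · exact absurd (interior_subset (hP h)) hyK
          · exact h
        · intro y hy
          have : y ∈ O \ frontier K := by rw [hPN]; exact Or.inr hy
          exact ⟨this.1, hN hy⟩
    have hOU : O ⊆ U := hOb.trans hb
    rcases hdich P hP hPs with h1 | h1 <;> rcases hdich N hN hNs with h3 | h3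
    · exfalso
      obtain ⟨y, hy, hyK⟩ := hout
      have : y ∈ P ∪ N := by rw [← he]; exact ⟨hy, hfr2 y hyK⟩
      rcases this with h | h
      · exact hyK (interior_subset (h1 h))
      · exact hyK (interior_subset (h3 h))
    · obtain ⟨e1, e2⟩ := two P N he h1 h3
      exact ⟨O, P, N, hO, hxO, hOU, hP, hN, e1, e2⟩
    · obtain ⟨e1, e2⟩ := two N P (he.trans (union_comm _ _)) h3 h1
      exact ⟨O, N, P, hO, hxO, hOU, hN, hP, e1, e2⟩
    · exfalso
      obtain ⟨y, hy, hyi⟩ := hin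
      have : y ∈ P ∪ N := by rw [← he]; exact ⟨hy, hfr y hyi⟩
      rcases this with h | h
      · exact h1 h (interior_subset hyi)
      · exact h3 h (interior_subset hyi)
  refine ⟨hcl, hreg, ?_, ?_⟩
  · intro x hx U hU
    obtain ⟨O, P, N, hO, hxO, hOU, hP, hN, e1, e2⟩ := key x hx U hU
    exact ⟨O, hO.mem_nhds hxO, P, hP, e1.subset, fun y hy => by
      rw [← e1] at hy; exact ⟨hOU hy.1, hy.2⟩⟩
  · intro x hx U hU
    obtain ⟨O, P, N, hO, hxO, hOU, hP, hN, e1, e2⟩ := key x hx U hU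
    exact ⟨O, hO.mem_nhds hxO, N, hN, e2.subset, fun y hy => by
      rw [← e2] at hy; exact ⟨hOU hy.1, hy.2⟩⟩

end Two

section Ball

variable {E : Type} [NormedAddCommGroup E] [NormedSpace ℝ E] [FiniteDimensional ℝ E]
variable {Om : Set E} {ι : Type} {T : Tiling Om ι}

omit [FiniteDimensional ℝ E] in
/-- **the frontier of a union of tiles is a subcomplex** -/
theorem Tiling.frontier_tiles (T : Tiling Om ι) {K : Set E} {J : Set ι}
    (hK : K = ⋃ q ∈ J, P (T.H q)) (hcl : IsClosed K) :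
    ∀ x ∈ frontier K, T.cc x ⊆ frontier K := by
  intro x hx z hz
  have hxK : x ∈ K := hcl.frontier_subset hx
  rw [hK] at hxK
  obtain ⟨q, hqJ, hq⟩ := mem_iUnion₂.1 hxK
  have hxO : x ∈ Om := T.sub q hq
  obtain ⟨r, hr, hO, hb⟩ := T.exists_ball hxO
  have h1 : x ∈ closure Kᶜ := by
    rw [frontier_eq_closure_inter_closure] at hx; exact hx.2
  obtain ⟨y, hy1, hy2⟩ := Metric.mem_closure_iff.1 h1 r hr
  have hyb : y ∈ ball x r := by rw [mem_ball, dist_comm]; exact hy2
  obtain ⟨q', hq'⟩ := T.cov y (hO hyb)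
  have hq'x : q' ∈ T.at_ x := hb y hyb hq'
  have hq'J : q' ∉ J := fun h => hy1 (by rw [hK]; exact mem_biUnion h hq')
  have hzq : z ∈ P (T.H q) := T.cc_sub_tile hq hz
  have hzq' : z ∈ P (T.H q') := T.cc_sub_tile hq'x hz
  have hIK : I (T.H q') ⊆ Kᶜ := by
    intro w hw hwK
    rw [hK] at hwK
    obtain ⟨k, hk, hwk⟩ := mem_iUnion₂.1 hwK
    have hne : k ≠ q' := fun h => hq'J (h ▸ hk)
    exact Set.disjoint_left.1 (disjoint_P_I (T.ne k) (T.dis k q' hne)) hwk hw
  rw [frontier_eq_closure_inter_closure]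
  refine ⟨subset_closure (by rw [hK]; exact mem_biUnion hqJ hzq), ?_⟩
  exact closure_mono hIK (P_sub_closure_I (T.ne q') hzq')

/-- **PL balls with subcomplex frontier are cores** -/
theorem CoreH.of_ball (h3 : finrank ℝ E = 3) {K : Set E} (hb : IsBall 3 K (frontier K))
    (hO : K ⊆ Om) (hcc : ∀ x ∈ frontier K, T.cc x ⊆ frontier K) : CoreH T K := by
  have hKc : IsCompact K := hb.isCompact
  obtain ⟨e, he⟩ := hb
  have hcont : ContinuousOn e.f (cube 3) := e.pf.1
  have hinj : InjOn e.f (cube 3) := e.injOn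
  have hreg : frontier K ⊆ closure (interior K) := by
    rw [← he]
    rintro _ ⟨x, hx, rfl⟩
    have hx3 : x ∈ cube 3 := sph_subset_cube hx
    -- `x` is a limit of inner points
    have hxn : ‖x‖ = 1 := by simpa [sph] using hx
    have ht : Tendsto (fun t : ℝ => t • x) (𝓝[<] 1) (𝓝[cube 3] x) := by
      rw [tendsto_nhdsWithin_iff]
      constructor
      · have : Tendsto (fun t : ℝ => t • x) (𝓝 1) (𝓝 ((1 : ℝ) • x)) := by
          apply Continuous.tendsto; fun_prop
        rw [one_smul] at this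
        exact this.mono_left nhdsWithin_le_nhds
      · have h0 : ∀ᶠ t in 𝓝[<] (1 : ℝ), 0 < t :=
          eventually_nhdsWithin_of_eventually_nhds (Ioi_mem_nhds one_pos)
        filter_upwards [h0, self_mem_nhdsWithin] with t ht ht1
        have ht1' : t < 1 := ht1
        rw [cube, mem_closedBall_zero_iff, norm_smul, hxn, mul_one, Real.norm_eq_abs, abs_of_pos ht]
        exact ht1'.le
    have ht2 : Tendsto (fun t : ℝ => e.f (t • x)) (𝓝[<] 1) (𝓝 (e.f x)) :=
      (hcont x hx3).tendsto.comp ht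
    refine mem_closure_of_tendsto ht2 ?_
    have h0 : ∀ᶠ t in 𝓝[<] (1 : ℝ), 0 < t :=
      eventually_nhdsWithin_of_eventually_nhds (Ioi_mem_nhds one_pos)
    filter_upwards [h0, self_mem_nhdsWithin] with t ht ht1
    have ht1' : t < 1 := ht1
    have hn : ‖t • x‖ = t := by rw [norm_smul, hxn, mul_one, Real.norm_eq_abs, abs_of_pos ht]
    have htc : t • x ∈ cube 3 := by rw [cube, mem_closedBall_zero_iff, hn]; exact ht1'.le
    have hnf : e.f (t • x) ∉ frontier K := by
      rw [← he]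
      rintro ⟨s, hs, hse⟩
      have := hinj (sph_subset_cube hs) htc hse
      rw [sph, this, mem_sphere_zero_iff_norm, hn] at hs
      exact ht1'.ne hs
    by_contra hni
    exact hnf (by
      rw [hKc.isClosed.frontier_eq]
      exact ⟨e.mf htc, hni⟩)
  obtain ⟨g, hg, hgi, hgs⟩ := exists_sph3
  have hgf : ContinuousOn (fun y => e.f (g y)) (sphere 0 1) :=
    hcont.comp hg fun y hy => sph_subset_cube (by rw [← hgs]; exact ⟨y, hy, rfl⟩)
  have hgi2 : InjOn (fun y => e.f (g y)) (sphere 0 1) := fun y hy z hz h =>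
    hgi hy hz (hinj (sph_subset_cube (by rw [← hgs]; exact ⟨y, hy, rfl⟩))
      (sph_subset_cube (by rw [← hgs]; exact ⟨z, hz, rfl⟩)) h)
  have hfr : frontier K = (fun y => e.f (g y)) '' sphere 0 1 := by
    rw [← he, ← hgs, image_image]
  have hsph : PLEquiv (sph 3) (frontier K) := he ▸ e.restrImage sph_subset_cube
  refine ⟨Core.of_twoSided hKc.isClosed hreg (Tws_662.twoSided_of_sphere h3 hsph), hO, hKc, hcc,
    ?_, ?_, ?_, ?_⟩
  · rw [hfr]
    exact pc_sphere.of_embedding (isCompact_sphere _ _) hgf hgi2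
  · rw [hfr]
    exact isPreconnected_sphere3.image _ hgf
  · rw [hfr]
    exact nontrivial_sphere3.image_of_injOn hgi2
  · rw [hfr]
    exact trivF_sphere_image hgf hgi2

/-- **a union of tiles which is a PL ball is a core** -/
theorem CoreH.of_tiles (h3 : finrank ℝ E = 3) {K : Set E} {J : Set ι}
    (hK : K = ⋃ q ∈ J, P (T.H q)) (hb : IsBall 3 K (frontier K)) : CoreH T K :=
  CoreH.of_ball h3 hb (by rw [hK]; exact iUnion₂_subset fun q _ => T.sub q)
    (T.frontier_tiles hK hb.isCompact.isClosed)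

end Ball

end Crest.Agent.R096.Msh_715
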