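import Crest.Agent.R096.Cut1_715
import Crest.Agent.R096.Mrg7_715

/-!
# R096 (row 96), TINY-MESH (helper715), part 2: the cores of the cut mesh
-/

set_option autoImplicit false
set_option linter.unusedSectionVars false

open Set Metric Filter Topology Module
open scoped Classical

namespace Crest.Agent.R096.Msh_715

open Ce_537

variable {E : Type} [NormedAddCommGroup E] [NormedSpace ℝ E] [FiniteDimensional ℝ E]
variable {Om : Set E} {ι κ : Type} {T : Tiling Om ι} {W : κ → Set ι}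
variable {ε : ι → ℝ} {D : ι → Finset ((E →L[ℝ] ℝ) × ℝ)} {φ : κ → E → ℝ} {a b : κ → ℝ}

namespace Cut

variable (C : Cut T W ε D φ a b)

omit [FiniteDimensional ℝ E] in
theorem t_mem (c : κ) : C.t c ∈ Ioo (a c) (b c) :=
  ⟨(C.haa c).trans_lt (C.hat c), (C.htb c).trans_le (C.hbb c)⟩

/-- the core is a PL ball -/
theorem isBall_K (c : κ) (hφ : Continuous (φ c))
    (hsub : {x | φ c x < b c} ⊆ ⋃ i ∈ W c, P (T.H i))
    (hb : ∀ t ∈ Ioo (a c) (b c), IsBall 3 {x | φ c x ≤ t} {x | φ c x = t}) :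
    IsBall 3 (C.K c) (frontier (C.K c)) := by
  rw [C.frontier_K c hφ hsub]
  exact hb _ (C.t_mem c)

/-- **the core satisfies all the hypotheses of a core** -/
theorem coreH (h3 : finrank ℝ E = 3) (c : κ) (hφ : Continuous (φ c))
    (hsub : {x | φ c x < b c} ⊆ ⋃ i ∈ W c, P (T.H i))
    (hb : ∀ t ∈ Ioo (a c) (b c), IsBall 3 {x | φ c x ≤ t} {x | φ c x = t}) :
    CoreH C.T' (C.K c) :=
  CoreH.of_tiles h3 (C.K_eq c hsub) (C.isBall_K c hφ hsub hb)

theorem K_sub (c : κ) (hsub : {x | φ c x < b c} ⊆ ⋃ i ∈ W c, P (T.H i)) :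
    C.K c ⊆ ⋃ i ∈ W c, P (T.H i) := fun x hx =>
  hsub (show φ c x < b c from (show φ c x ≤ C.t c from hx).trans_lt (C.t_mem c).2)

/-- vertices of the core -/
theorem vert_K (c : κ) (hsub : {x | φ c x < b c} ⊆ ⋃ i ∈ W c, P (T.H i)) {v : E}
    (hv : v ∈ C.K c) (hv0 : C.T'.dim v = 0) : φ c v ≤ C.a' c ∨ φ c v = C.t c := by
  obtain ⟨i, hi, hvi⟩ := mem_iUnion₂.1 (C.K_sub c hsub hv)
  rcases C.vert c i hi v hvi hv0 with h | h | h
  · exact Or.inl h
  · exact Or.inr h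
  · exact absurd ((show φ c v ≤ C.t c from hv).trans_lt (C.htb c)) (not_lt.2 h)

/-- a tile meeting the interior of the core is a tile of the core -/
theorem mem_In_of_lt (c : κ) (hsub : {x | φ c x < b c} ⊆ ⋃ i ∈ W c, P (T.H i))
    (hφ : Continuous (φ c)) {p : C.J} {x : E} (hx : x ∈ P (C.T'.H p)) (hlt : φ c x < C.t c) :
    p ∈ C.In c := by
  -- the tile is over `W c`
  have hO : IsOpen {y | φ c y < C.t c} := isOpen_lt hφ continuous_const
  obtain ⟨y, hy1, hy2⟩ := mem_closure_iff.1 (P_sub_closure_I (C.T'.ne p) hx) _ hO hlt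
  have hyb : φ c y < b c := lt_trans hy1 (C.t_mem c).2
  obtain ⟨i, hi, hyi⟩ := mem_iUnion₂.1 (hsub hyb)
  have hpi : C.π p = i := by
    by_contra hne
    exact Set.disjoint_left.1 (disjoint_P_I (T.ne i) (T.dis i _ (Ne.symm hne))) hyi (C.subI p hy2)
  have hpW : C.π p ∈ W c := by rw [hpi]; exact hi
  refine ⟨hpW, ?_⟩
  rcases C.side c p hpW with h | h
  · exact h
  · exact absurd (h y (I_sub_P _ hy2)) (not_le.2 hy1)

/-- the tiles off the core stay off its interior -/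
theorem notMem_In_iff (c : κ) (hsub : {x | φ c x < b c} ⊆ ⋃ i ∈ W c, P (T.H i))
    (hφ : Continuous (φ c)) {p : C.J} : p ∉ C.In c ↔ ∀ x ∈ P (C.T'.H p), C.t c ≤ φ c x := by
  constructor
  · intro h x hx
    by_contra hlt
    exact h (C.mem_In_of_lt c hsub hφ hx (not_le.1 hlt))
  · intro h hp
    -- `φ c = t` on an open set, impossible
    obtain ⟨z, hz⟩ := C.T'.ne p
    have hzP := I_sub_P _ hz
    have h1 : ∀ y ∈ P (C.T'.H p), φ c y = C.t c := fun y hy => le_antisymm (hp.2 hy) (h y hy)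
    have hzt := h1 z hzP
    obtain ⟨i, hi, hzi⟩ : ∃ i, i ∈ W c ∧ z ∈ P (T.H i) := ⟨_, hp.1, C.sub p hzP⟩
    have hcl := C.lower c i hi z hzi hzt
    obtain ⟨y, hy1, hy2⟩ := mem_closure_iff.1 hcl _ (isOpen_I _) hz
    exact absurd (h1 y (I_sub_P _ hy1)) hy2.2.ne

/-- **transversality**: a closed cell of the core which meets the frontier and is not inside it meets
it in exactly one closed cell, of dimension one less -/
theorem tr_K (c : κ) (hφ : Continuous (φ c))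
    (hsub : {x | φ c x < b c} ⊆ ⋃ i ∈ W c, P (T.H i)) {x y : E} (hx : x ∈ C.K c)
    (hxf : x ∉ frontier (C.K c)) (hy : y ∈ C.T'.cc x) (hyf : y ∈ frontier (C.K c)) :
    ∃ z ∈ C.T'.cc x, z ∈ frontier (C.K c) ∧ C.T'.dim z + 1 = C.T'.dim x ∧
      C.T'.cc x ∩ frontier (C.K c) = C.T'.cc z := by
  have hF := C.frontier_K c hφ hsub
  have hK := C.K_eq c hsub
  have hfr := C.T'.frontier_tiles hK (C.isClosed_K c hφ)
  rw [hF] at hxf hyf hfr ⊢
  obtain ⟨i, hi, hxi⟩ := mem_iUnion₂.1 (C.K_sub c hsub hx)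
  obtain ⟨z, h1, h2, h3, h4⟩ := C.tr c i hi x hxi hxf y hy hyf
  refine ⟨z, h1, h2, h3, Subset.antisymm (fun w hw => h4 w hw.1 hw.2) fun w hw => ?_⟩
  exact ⟨C.T'.cc_sub_of_mem h1 hw, hfr z h2 hw⟩

/-- over a point of the frontier there is one inner cell of the next dimension; it is in every inner
cell at this point -/
theorem st_K (c : κ) (hφ : Continuous (φ c))
    (hsub : {x | φ c x < b c} ⊆ ⋃ i ∈ W c, P (T.H i)) {z : E} (hz : z ∈ frontier (C.K c)) :
    ∃ x ∈ C.K c, x ∉ frontier (C.K c) ∧ z ∈ C.T'.cc x ∧ C.T'.dim x = C.T'.dim z + 1 ∧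
      ∀ y ∈ C.K c, y ∉ frontier (C.K c) → z ∈ C.T'.cc y → x ∈ C.T'.cc y := by
  rw [C.frontier_K c hφ hsub] at hz ⊢
  have hz' : φ c z = C.t c := hz
  obtain ⟨i, hi, hzi⟩ := mem_iUnion₂.1 (C.K_sub c hsub (show z ∈ C.K c from hz'.le))
  obtain ⟨x, -, h1, h2, h3, h4⟩ := C.st c i hi z hzi hz'
  refine ⟨x, le_of_lt h1, fun h => h1.ne h, h2, h3, fun y hy hyf hzy => h4 y ?_ hzy⟩
  exact lt_of_le_of_ne hy fun h => hyf h

/-- different cores are disjoint -/
theorem disjoint_K (hWD : ∀ c c', c ≠ c' → Disjoint (⋃ i ∈ W c, P (T.H i)) (⋃ i ∈ W c', P (T.H i)))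
    (hsub : ∀ c, {x | φ c x < b c} ⊆ ⋃ i ∈ W c, P (T.H i)) (c c' : κ) (h : c ≠ c') :
    Disjoint (C.K c) (C.K c') :=
  (hWD c c' h).mono (C.K_sub c (hsub c)) (C.K_sub c' (hsub c'))

end Cut

end Crest.Agent.R096.Msh_715
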