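import Crest.Agent.R096.Tms1_582
import Crest.Agent.R096.Cut2_715

/-!
# R096 (row 96), TMESH-T2 (helper715), part 1: the standard lattice as a tiling, translated meshes

`lat k` : the tiling of the space by the cubes `Cu 0 k z`.
`Same T T' w x` : near `x` the tiling `T` is the tiling `T'` translated by `w`.
-/

set_option autoImplicit false
set_option linter.unusedSectionVars false

open Set Metric Filter Topology Module
open scoped Classical

namespace Crest.Agent.R096.Tlo_715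

open Crest.Agent.R096.Msh_715 Crest.Agent.R096.Msh_810 Crest.Agent.R096.Tms_582
open Crest.Agent.R096.SkC1_961 (E3)

/-- the cubes of the lattice of scale `k` -/
noncomputable def lat (k : ℕ) : Tiling (univ : Set E3) (Fin 3 → ℤ) where
  H z := Hc idE 0 k z
  cpt z := by
    rw [P_Hc]
    exact isCompact_Dc _ _
  ne z := by
    rw [I_Hc]
    obtain ⟨x, hx⟩ := Dc_nonempty (0 : E3) ⟨k, z, Finset.univ⟩
    exact ⟨x, hx⟩
  sub z := subset_univ _
  cov x _ := ⟨fun i => ⌊ps 0 k x i⌋, by rw [P_Hc]; exact mem_Cu_floor 0 k x⟩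
  dis z z' h := by
    rw [I_Hc, I_Hc, Set.disjoint_left]
    intro x hx hx'
    have h1 := mem_Do_iff.1 (show x ∈ Do (0 : E3) ⟨k, z, Finset.univ⟩ from hx)
    have h2 := mem_Do_iff.1 (show x ∈ Do (0 : E3) ⟨k, z', Finset.univ⟩ from hx')
    have h3 : (⟨k, z, Finset.univ⟩ : Idx 3) = ⟨k, z', Finset.univ⟩ := h1.symm.trans h2
    exact h (by injection h3)
  lf x _ := by
    refine ⟨1, one_pos, ?_⟩
    have hfin : (Set.pi univ fun i : Fin 3 =>
        Icc ⌊(2 : ℝ) ^ k * (x i - 1) - 1⌋ ⌈(2 : ℝ) ^ k * (x i + 1)⌉).Finite :=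
      Set.Finite.pi fun i => Set.finite_Icc _ _
    refine hfin.subset ?_
    rintro z ⟨y, hy, hyx⟩ i -
    rw [P_Hc] at hy
    have h1 := (mem_Cu.1 (show y ∈ Cu (0 : E3) k z from hy)) i
    have h2 : dist (y i) (x i) < 1 := (dist_le_pi_dist y x i).trans_lt hyx
    rw [Real.dist_eq, abs_lt] at h2
    have hp : (0 : ℝ) < 2 ^ k := by positivity
    unfold ps at h1
    simp only [Pi.zero_apply, sub_zero] at h1
    constructor
    · have h3 : (2 : ℝ) ^ k * (x i - 1) - 1 ≤ (z i : ℝ) := by nlinarith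
      exact_mod_cast (Int.floor_le _).trans h3
    · have h3 : (z i : ℝ) ≤ (2 : ℝ) ^ k * (x i + 1) := by nlinarith
      exact_mod_cast h3.trans (Int.le_ceil _)
  op := isOpen_univ

theorem lat_H (k : ℕ) (z : Fin 3 → ℤ) : (lat k).H z = Hc idE 0 k z := rfl

theorem P_lat (k : ℕ) (z : Fin 3 → ℤ) : P ((lat k).H z) = Cu (0 : E3) k z := by
  rw [lat_H, P_Hc]; rfl

theorem trH_Hc (w : E3) (k : ℕ) (z : Fin 3 → ℤ) : trH w (Hc idE 0 k z) = Hc idE w k z := by
  unfold trH Hc
  rw [Finset.image_image]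
  refine Finset.image_congr ?_
  rintro ⟨i, b⟩ -
  cases b
  · refine Prod.ext rfl ?_
    show -((0 : E3) i + (z i : ℝ) / 2 ^ k) + (-(cf idE i)) w = -(w i + z i / 2 ^ k)
    have : (-(cf idE i)) w = - w i := rfl
    rw [this]
    simp only [Pi.zero_apply]
    ring
  · refine Prod.ext rfl ?_
    show ((0 : E3) i + ((z i : ℝ) + 1) / 2 ^ k) + (cf idE i) w = w i + (z i + 1) / 2 ^ k
    have : (cf idE i) w = w i := rfl
    rw [this]
    simp only [Pi.zero_apply]
    ring

section same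

variable {E : Type*} [NormedAddCommGroup E] [NormedSpace ℝ E]
variable {Om Om' : Set E} {ι ι' : Type*} {T : Tiling Om ι} {T' : Tiling Om' ι'} {w x : E}

/-- near `x` the tiling `T` is the tiling `T'` translated by `w` -/
def Same (T : Tiling Om ι) (T' : Tiling Om' ι') (w x : E) : Prop :=
  (∀ i ∈ T.at_ x, ∃ p ∈ T'.at_ (x - w), T.H i = trH w (T'.H p)) ∧
    ∀ p ∈ T'.at_ (x - w), ∃ i ∈ T.at_ x, T.H i = trH w (T'.H p)

theorem Same.mem_cc (h : Same T T' w x) {y : E} : y ∈ T.cc x ↔ y - w ∈ T'.cc (x - w) := by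
  constructor
  · intro hy p hp k hk
    obtain ⟨i, hi, he⟩ := h.2 p hp
    have h1 := hy i hi (trh w k) (by rw [he]; exact Finset.mem_image_of_mem _ hk)
    rw [trh_le, trh_eq, trh_eq] at h1
    exact h1
  · intro hy i hi k hk
    obtain ⟨p, hp, he⟩ := h.1 i hi
    rw [he] at hk
    obtain ⟨k, hk', rfl⟩ := Finset.mem_image.1 hk
    have h1 := hy p hp k hk'
    rw [trh_le, trh_eq, trh_eq]
    exact h1

theorem Same.mem_oc (h : Same T T' w x) {y : E} : y ∈ T.oc x ↔ y - w ∈ T'.oc (x - w) := by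
  constructor
  · intro hy p hp k hk
    obtain ⟨i, hi, he⟩ := h.2 p hp
    have h1 := hy i hi (trh w k) (by rw [he]; exact Finset.mem_image_of_mem _ hk)
    rw [trh_le, trh_eq, trh_eq] at h1
    exact h1
  · intro hy i hi k hk
    obtain ⟨p, hp, he⟩ := h.1 i hi
    rw [he] at hk
    obtain ⟨k, hk', rfl⟩ := Finset.mem_image.1 hk
    have h1 := hy p hp k hk'
    rw [trh_le, trh_eq, trh_eq]
    exact h1

theorem Same.V_eq (h : Same T T' w x) : T.V x = T'.V (x - w) := by
  ext v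
  constructor
  · intro hv p hp k hk hke
    obtain ⟨i, hi, he⟩ := h.2 p hp
    exact hv i hi (trh w k) (by rw [he]; exact Finset.mem_image_of_mem _ hk) (trh_eq.2 hke)
  · intro hv i hi k hk hke
    obtain ⟨p, hp, he⟩ := h.1 i hi
    rw [he] at hk
    obtain ⟨k, hk', rfl⟩ := Finset.mem_image.1 hk
    exact hv p hp k hk' (trh_eq.1 hke)

theorem Same.dim_eq (h : Same T T' w x) : T.dim x = T'.dim (x - w) := by
  unfold Tiling.dim
  rw [h.V_eq]

end same

/-- **the zones are translated lattices with the new tiles** -/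
theorem same_of_zone {k : ℕ} {Zc : Finset (Fin 3 → ℤ)} {κ : Type}
    {H : κ → Finset ((E3 →L[ℝ] ℝ) × ℝ)} {ι' : Type*} {T' : Tiling (univ : Set E3) ι'} {π : ι' → (Fin 3 → ℤ)}
    (hR : LatRepl k Zc H)
    (h1 : ∀ j, ∃ p, T'.H p = H j) (h2 : ∀ p, π p ∈ Zc → ∃ j, H j = T'.H p)
    (h3 : ∀ p, π p ∉ Zc → T'.H p = (lat k).H (π p))
    (h4 : ∀ z, z ∉ Zc → ∃ p, π p = z)
    {Om : Set E3} {ι : Type} {T : Tiling Om ι} {x₀ : E3} {R : ℝ} {w : E3} {e : κ → ι}
    (hZ : InZone T x₀ R k w Zc H e) (hOm : ball x₀ R ⊆ Om) {x : E3} (hx : x ∈ ball x₀ R) :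
    Same T T' w x := by
  constructor
  · intro i hi
    by_cases hie : i ∈ range e
    · obtain ⟨j, rfl⟩ := hie
      obtain ⟨p, hp⟩ := h1 j
      refine ⟨p, ?_, by rw [hZ.loc, hp]⟩
      have h5 : x ∈ P (T.H (e j)) := hi
      rw [hZ.loc, mem_P_trH, ← hp] at h5
      exact h5
    · obtain ⟨z, hz, he⟩ := hZ.lat i ⟨x, hi, ball_subset_closedBall hx⟩ hie
      obtain ⟨p, hp⟩ := h4 z hz
      have h5 := h3 p (by rw [hp]; exact hz)
      rw [hp, lat_H] at h5
      have h6 : T.H i = trH w (T'.H p) := by rw [he, h5, trH_Hc]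
      refine ⟨p, ?_, h6⟩
      have h7 : x ∈ P (T.H i) := hi
      rw [h6, mem_P_trH] at h7
      exact h7
  · intro p hp
    by_cases hpz : π p ∈ Zc
    · obtain ⟨j, hj⟩ := h2 p hpz
      refine ⟨e j, ?_, by rw [hZ.loc, hj]⟩
      show x ∈ P (T.H (e j))
      rw [hZ.loc, mem_P_trH, hj]
      exact hp
    · -- a point of the open cube near `x`
      have h5 : T'.H p = Hc idE 0 k (π p) := h3 p hpz
      have hxP : x ∈ P (trH w (T'.H p)) := mem_P_trH.2 hp
      have hne : (I (trH w (T'.H p))).Nonempty := by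
        obtain ⟨u, hu⟩ := T'.ne p
        exact ⟨u + w, mem_I_trH.2 (by simpa using hu)⟩
      obtain ⟨y, hy1, hy2⟩ := mem_closure_iff.1 (P_sub_closure_I hne hxP) _ isOpen_ball hx
      obtain ⟨i, hi⟩ := T.cov y (hOm hy1)
      have hyw : y - w ∈ I (T'.H p) := mem_I_trH.1 hy2
      have hie : i ∉ range e := by
        rintro ⟨j, rfl⟩
        rw [hZ.loc, mem_P_trH] at hi
        have h6 : y - w ∈ ⋃ z ∈ Zc, Cu (0 : E3) k z := by
          rw [← hR.eq]; exact mem_iUnion.2 ⟨j, hi⟩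
        obtain ⟨z, hz, hyz⟩ := mem_iUnion₂.1 h6
        have hne' : z ≠ π p := fun h => hpz (h ▸ hz)
        have h7 : y - w ∈ P ((lat k).H z) := by rw [P_lat]; exact hyz
        have h8 : y - w ∈ I ((lat k).H (π p)) := by rw [lat_H, ← h5]; exact hyw
        exact Set.disjoint_left.1 (disjoint_P_I ((lat k).ne z) ((lat k).dis _ _ hne')) h7 h8
      obtain ⟨z, hz, he⟩ := hZ.lat i ⟨y, hi, ball_subset_closedBall hy1⟩ hie
      have hzp : z = π p := by
        by_contra hne'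
        rw [he, ← trH_Hc, mem_P_trH] at hi
        have h8 : y - w ∈ I ((lat k).H (π p)) := by rw [lat_H, ← h5]; exact hyw
        exact Set.disjoint_left.1 (disjoint_P_I ((lat k).ne z) ((lat k).dis _ _ hne')) hi h8
      have h6 : T.H i = trH w (T'.H p) := by rw [he, h5, trH_Hc, hzp]
      refine ⟨i, ?_, h6⟩
      show x ∈ P (T.H i)
      rw [h6]; exact hxP

end Crest.Agent.R096.Tlo_715
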