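import Crest.Agent.R096.Aclt1_608
import Crest.Agent.R096.Tlo1_715

/-!
# Row 96, NO0-PRE, [ACLT] (helper608), part 3

The countable family of inequalities of a mesh with zones: the cubes of all dyadic lattices and the
systems `H c j` of the zones, translated by the lattice vectors of scale `k c`.
-/

set_option autoImplicit false
set_option linter.unusedSectionVars false

open MeasureTheory Set Filter Topology Metric Module
open scoped ENNReal NNReal

namespace Crest.Agent.R096.Aclt_608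

open Crest.Agent.R096.Msh_715 Crest.Agent.R096.Tms_582 Crest.Agent.R096.Msh_810
open Crest.Agent.R096.SkC1_961 (E3 Hom3)

noncomputable section

section

variable {E : Type*} [NormedAddCommGroup E] [NormedSpace ℝ E]

theorem trh_trh (a b : E) (h : (E →L[ℝ] ℝ) × ℝ) : trh a (trh b h) = trh (b + a) h := by
  unfold trh
  rw [map_add]
  exact Prod.ext rfl (by simp only; ring)

theorem trH_trH (a b : E) (H : Finset ((E →L[ℝ] ℝ) × ℝ)) : trH a (trH b H) = trH (b + a) H := by
  classical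
  unfold trH
  rw [Finset.image_image]
  exact Finset.image_congr fun h _ => trh_trh a b h

/-- a translate by `w` is a translate by `a` of a translate by `w - a` -/
theorem trH_eq (a w : E) (H : Finset ((E →L[ℝ] ℝ) × ℝ)) : trH w H = trH a (trH (w - a) H) := by
  rw [trH_trH, sub_add_cancel]

end

/-- the lattice vectors of scale `k` -/
def zl (k : ℕ) : Set E3 := range fun (z : Fin 3 → ℤ) (i : Fin 3) => (z i : ℝ) / 2 ^ k

theorem countable_zl (k : ℕ) : (zl k).Countable := countable_range _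

/-- the systems of a mesh with zones -/
def Fz {κc : Type*} (k : κc → ℕ) {κ : κc → Type*} (H : ∀ c, κ c → Finset ((E3 →L[ℝ] ℝ) × ℝ)) :
    Set (Finset ((E3 →L[ℝ] ℝ) × ℝ)) :=
  (range fun p : ℕ × (Fin 3 → ℤ) => Hc idE 0 p.1 p.2) ∪
    ⋃ c, ⋃ w ∈ zl (k c), (range fun z : Fin 3 → ℤ => trH w (Hc idE 0 (k c) z)) ∪
      range fun j : κ c => trH w (H c j)

theorem countable_Fz {κc : Type*} [Countable κc] (k : κc → ℕ) {κ : κc → Type*}
    [∀ c, Countable (κ c)] (H : ∀ c, κ c → Finset ((E3 →L[ℝ] ℝ) × ℝ)) : (Fz k H).Countable :=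
  (countable_range _).union (countable_iUnion fun c => (countable_zl (k c)).biUnion fun _ _ =>
    (countable_range _).union (countable_range _))

/-- **the inequalities of a mesh with zones**: every tile of `J` is a cube of a dyadic lattice with
origin `a`, or (in the zone `c`, origin `w c` with `w c - a` a lattice vector of scale `k c`) a cube of
scale `k c` with origin `w c`, or one of the new tiles `H c j` translated by `w c` -/
theorem Sh.of_zones {κc : Type*} {k : κc → ℕ} {κ : κc → Type*}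
    {H : ∀ c, κ c → Finset ((E3 →L[ℝ] ℝ) × ℝ)} {a : E3} {w : κc → E3} {Om : Set E3} {ι : Type*}
    {T : Tiling Om ι} {J : Set ι}
    (hT : ∀ i ∈ J, (∃ (l : ℕ) (z : Fin 3 → ℤ), T.H i = Hc idE a l z) ∨
      ∃ c, w c - a ∈ zl (k c) ∧ ((∃ z : Fin 3 → ℤ, T.H i = Hc idE (w c) (k c) z) ∨
        ∃ j, T.H i = trH (w c) (H c j))) : Sh (Ineq (Fz k H)) a T J := by
  refine Sh.of_trH fun i hi => ?_
  rcases hT i hi with ⟨l, z, h⟩ | ⟨c, hw, ⟨z, h⟩ | ⟨j, h⟩⟩
  · exact ⟨Hc idE 0 l z, Or.inl ⟨(l, z), rfl⟩, by rw [h, Tlo_715.trH_Hc]⟩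
  · refine ⟨trH (w c - a) (Hc idE 0 (k c) z), Or.inr (mem_iUnion.2 ⟨c, mem_biUnion hw
      (Or.inl ⟨z, rfl⟩)⟩), ?_⟩
    rw [← trH_eq, Tlo_715.trH_Hc, h]
  · refine ⟨trH (w c - a) (H c j), Or.inr (mem_iUnion.2 ⟨c, mem_biUnion hw
      (Or.inr ⟨j, rfl⟩)⟩), ?_⟩
    rw [← trH_eq, h]

/-- the origin of the zone: reduce `a` modulo the lattice of scale `k` -/
theorem exists_origin (a : E3) (k : ℕ) :
    ∃ w : E3, w - a ∈ zl k ∧ ∀ i, 0 ≤ w i ∧ w i ≤ (2 : ℝ)⁻¹ ^ k := by
  have hp : (0 : ℝ) < 2 ^ k := by positivity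
  refine ⟨fun i => a i - (⌊a i * 2 ^ k⌋ : ℝ) / 2 ^ k, ⟨fun i => -⌊a i * 2 ^ k⌋, ?_⟩, fun i => ?_⟩
  · funext i
    simp only [Pi.sub_apply, Int.cast_neg]
    ring
  · have h1 := Int.floor_le (a i * 2 ^ k)
    have h2 := Int.lt_floor_add_one (a i * 2 ^ k)
    have h3 : a i - (⌊a i * 2 ^ k⌋ : ℝ) / 2 ^ k = (a i * 2 ^ k - ⌊a i * 2 ^ k⌋) / 2 ^ k := by
      field_simp
    simp only [h3, inv_pow]
    constructor
    · exact div_nonneg (by linarith) hp.le
    · rw [div_le_iff₀ hp, inv_mul_cancel₀ hp.ne']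
      linarith

end

end Crest.Agent.R096.Aclt_608
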