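import Crest.Agent.R096.Er2_594

/-!
Row 96 (S0127), helper594.  **(R3) of 663 #9825**, part 3: Sobolev homeomorphisms and energies on `E3`;
the `E3` versions `BF3`, `NO3` of `BFs`, `NO0`.
-/

set_option autoImplicit false
set_option linter.unusedSectionVars false
set_option linter.style.longLine false

open MeasureTheory Set Filter Topology Metric
open scoped ENNReal Gradient NNReal
open Crest.AnalysisR.VecCalc3 Crest.AnalysisR.Sobolev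
open Crest.Agent.R096.Str_696 (LocPL)
open Crest.Agent.R096.Sk_962 (SH Gr Q0 Qc0 dg)
open Crest.Agent.R96.Lu_538 (Gmat Gmat_apply gmatL gmatL_apply aesm_Gmat)
open Crest.Agent.R96.En10_199 (P3 P3_mp P3_apply Di vwd_of_grad wd_comp_equiv P3_symm_single)
open Crest.Agent.R096.SkC1_961 (E3 Hom3)
open Crest.Agent.R96.Sob4_199 (VWD)
open Crest.Agent.R096.Sk4_663 (Zd BFs NO0 lintegral_of_memLp memLp_of_lintegral)

namespace Crest.Agent.R096.Er_594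

noncomputable section

/-! ### energies -/

/-- rows to operator norm, integrated -/
theorem lint_rows_le {R : Set R3} {p : ℝ} (hp : 0 ≤ p) (H : Fin 3 → R3 → R3)
    (L : E3 → E3 →L[ℝ] E3)
    (h : ∀ᵐ x ∂(volume.restrict (P3 ⁻¹' R)), ∀ j, H j (P3 x) = row (L x) j) :
    ∫⁻ y in R, ∑ j, ‖H j y‖ₑ ^ p ≤ 3 * ∫⁻ x in P3 ⁻¹' R, ‖L x‖ₑ ^ p := by
  rw [lint_P3, ← lintegral_const_mul' _ _ (by norm_num)]
  apply lintegral_mono_ae
  filter_upwards [h] with x hx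
  simp only [hx]
  exact sum_row_le (L x) hp

/-- operator norm to rows, integrated -/
theorem lint_le_rows {R : Set R3} {p : ℝ} (hp : 0 ≤ p) (H : Fin 3 → R3 → R3)
    (L : E3 → E3 →L[ℝ] E3)
    (h : ∀ᵐ x ∂(volume.restrict (P3 ⁻¹' R)), ∀ j, H j (P3 x) = row (L x) j) :
    ∫⁻ x in P3 ⁻¹' R, ‖L x‖ₑ ^ p ≤ 2 ^ p * ∫⁻ y in R, ∑ j, ‖H j y‖ₑ ^ p := by
  have h2 : (2:ℝ≥0∞) ^ p ≠ ∞ := ENNReal.rpow_ne_top_of_nonneg hp (by norm_num)
  rw [lint_P3, ← lintegral_const_mul' _ _ h2]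
  apply lintegral_mono_ae
  filter_upwards [h] with x hx
  simp only [hx]
  exact le_sum_row (L x) hp

/-- a.e. formula for the gradients of `r3 g` -/
theorem ae_Gr {g : E3 → E3} {Om R : Set R3} (hO : IsOpen Om) (hg : LocPL g (P3 ⁻¹' Om))
    (hR : R ⊆ Om) :
    ∀ᵐ x ∂(volume.restrict (P3 ⁻¹' R)), ∀ j, Gr (r3 g) j (P3 x) = row (fderiv ℝ g x) j := by
  have h1 : ∀ᵐ x ∂(volume.restrict (P3 ⁻¹' R)), x ∈ P3 ⁻¹' Om := by
    have h2 : ∀ᵐ y ∂(volume.restrict R), y ∈ Om :=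
      ae_restrict_of_ae_restrict_of_subset hR (ae_restrict_mem hO.measurableSet)
    exact ae_P3.1 h2
  filter_upwards [h1, ae_restrict_of_ae (ae_diff_locPL (μ := volume) hg)] with x hx hx' j
  have := hx' hx
  have h3 := Gr_r3 (g := g) (y := P3 x) (by rwa [P3.symm_apply_apply]) j
  rwa [P3.symm_apply_apply] at h3

/-- **energies of differences** -/
theorem energy_sub_le {g : E3 → E3} {Om R : Set R3} (hO : IsOpen Om)
    (hg : LocPL g (P3 ⁻¹' Om)) (hR : R ⊆ Om) {p : ℝ} (hp : 0 ≤ p) (G : Fin 3 → R3 → R3) :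
    ∫⁻ y in R, ∑ j, ‖Gr (r3 g) j y - G j y‖ₑ ^ p ≤
      3 * ∫⁻ x in P3 ⁻¹' R, ‖fderiv ℝ g x - D3 G x‖ₑ ^ p := by
  apply lint_rows_le hp (fun j y => Gr (r3 g) j y - G j y)
  filter_upwards [ae_Gr hO hg hR] with x hx j
  rw [hx j, row_sub, row_D3]

theorem le_energy_sub {g : E3 → E3} {Om R : Set R3} (hO : IsOpen Om)
    (hg : LocPL g (P3 ⁻¹' Om)) (hR : R ⊆ Om) {p : ℝ} (hp : 0 ≤ p) (G : Fin 3 → R3 → R3) :
    ∫⁻ x in P3 ⁻¹' R, ‖fderiv ℝ g x - D3 G x‖ₑ ^ p ≤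
      2 ^ p * ∫⁻ y in R, ∑ j, ‖Gr (r3 g) j y - G j y‖ₑ ^ p := by
  apply lint_le_rows hp (fun j y => Gr (r3 g) j y - G j y)
  filter_upwards [ae_Gr hO hg hR] with x hx j
  rw [hx j, row_sub, row_D3]

theorem energy_g_le {g : E3 → E3} {Om R : Set R3} (hO : IsOpen Om)
    (hg : LocPL g (P3 ⁻¹' Om)) (hR : R ⊆ Om) {p : ℝ} (hp : 0 ≤ p) :
    ∫⁻ y in R, ∑ j, ‖Gr (r3 g) j y‖ₑ ^ p ≤ 3 * ∫⁻ x in P3 ⁻¹' R, ‖fderiv ℝ g x‖ₑ ^ p := by
  apply lint_rows_le hp (Gr (r3 g))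
  filter_upwards [ae_Gr hO hg hR] with x hx j
  rw [hx j]

theorem energy_D3_le (G : Fin 3 → R3 → R3) (R : Set R3) {p : ℝ} (hp : 0 ≤ p) :
    ∫⁻ x in P3 ⁻¹' R, ‖D3 G x‖ₑ ^ p ≤ 2 ^ p * ∫⁻ y in R, ∑ j, ‖G j y‖ₑ ^ p :=
  lint_le_rows hp G (D3 G) (Eventually.of_forall fun x j => (row_D3 G x j).symm)

theorem le_energy_D3 (G : Fin 3 → R3 → R3) (R : Set R3) {p : ℝ} (hp : 0 ≤ p) :
    ∫⁻ y in R, ∑ j, ‖G j y‖ₑ ^ p ≤ 3 * ∫⁻ x in P3 ⁻¹' R, ‖D3 G x‖ₑ ^ p :=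
  lint_rows_le hp G (D3 G) (Eventually.of_forall fun x j => (row_D3 G x j).symm)

theorem energy_D3_sub_le (G H : Fin 3 → R3 → R3) (R : Set R3) {p : ℝ} (hp : 0 ≤ p) :
    ∫⁻ x in P3 ⁻¹' R, ‖D3 G x - D3 H x‖ₑ ^ p ≤ 2 ^ p * ∫⁻ y in R, ∑ j, ‖G j y - H j y‖ₑ ^ p :=
  lint_le_rows hp (fun j y => G j y - H j y) (fun x => D3 G x - D3 H x)
    (Eventually.of_forall fun x j => by rw [row_sub, row_D3, row_D3])

theorem le_energy_D3_sub (G H : Fin 3 → R3 → R3) (R : Set R3) {p : ℝ} (hp : 0 ≤ p) :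
    ∫⁻ y in R, ∑ j, ‖G j y - H j y‖ₑ ^ p ≤ 3 * ∫⁻ x in P3 ⁻¹' R, ‖D3 G x - D3 H x‖ₑ ^ p :=
  lint_rows_le hp (fun j y => G j y - H j y) (fun x => D3 G x - D3 H x)
    (Eventually.of_forall fun x j => by rw [row_sub, row_D3, row_D3])

/-- `L^p` distances of the maps -/
theorem lint_r3_sub_le (g : E3 → E3) (f : R3 → R3) (R : Set R3) {p : ℝ} (hp : 0 ≤ p) :
    ∫⁻ y in R, ‖r3 g y - f y‖ₑ ^ p ≤ 2 ^ p * ∫⁻ x in P3 ⁻¹' R, ‖g x - e3 f x‖ₑ ^ p := by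
  have h2 : (2:ℝ≥0∞) ^ p ≠ ∞ := ENNReal.rpow_ne_top_of_nonneg hp (by norm_num)
  rw [lint_P3, ← lintegral_const_mul' _ _ h2]
  apply lintegral_mono
  intro x
  change ‖r3 g (P3 x) - f (P3 x)‖ₑ ^ p ≤ 2 ^ p * ‖g x - e3 f x‖ₑ ^ p
  rw [← ENNReal.mul_rpow_of_nonneg _ _ hp]
  apply ENNReal.rpow_le_rpow _ hp
  have h3 := norm_r3_sub_le g f (P3 x)
  rw [P3.symm_apply_apply] at h3
  rw [← ofReal_norm, ← ofReal_norm]
  refine (ENNReal.ofReal_le_ofReal h3).trans (le_of_eq ?_)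
  rw [ENNReal.ofReal_mul (by norm_num)]
  norm_num

/-! ### Sobolev homeomorphisms -/

/-- Sobolev homeomorphism of `E3`, with weak derivative `D` -/
structure SH3 (p : ℝ) (Om La : Set E3) (f : E3 → E3) (D : E3 → E3 →L[ℝ] E3) : Prop where
  homeo : Hom3 f Om La
  vwd : ∀ i, VWD Om volume (fun x => P3 (f x)) (fun x => P3 (D x (Pi.single i 1))) (Pi.single i 1)
  aesm : AEStronglyMeasurable D (volume.restrict Om)
  energy : ∫⁻ x in Om, ‖D x‖ₑ ^ p ≠ ∞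
  lp : ∫⁻ x in Om, ‖f x‖ₑ ^ p ≠ ∞

/-- **transport of the weak derivatives** (no integrability needed) -/
theorem vwd_e3 {Om : Set R3} (hO : IsOpen Om) {f : R3 → R3} {G : Fin 3 → R3 → R3}
    (hG : ∀ j, HasWeakGradOn Om (fun x => f x j) (G j)) (i : Fin 3) :
    VWD (P3 ⁻¹' Om) volume (fun x => P3 (e3 f x)) (fun x => P3 (D3 G x (Pi.single i 1)))
      (Pi.single i 1) := by
  intro k
  have h1 := wd_comp_equiv (vwd_of_grad hO hG i k) P3 P3_mp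
  rw [P3_symm_single] at h1
  have e1 : (fun x : E3 => (P3 (e3 f x)) k) = fun x => f (P3 x) k := by funext x; rw [P3_e3]
  have e2 : (fun x : E3 => P3 (D3 G x (Pi.single i 1)) k) = fun x => Di G i (P3 x) k := by
    funext x; rw [D3_single]
  change Crest.Agent.R96.Acl_392.WD (P3 ⁻¹' Om) volume (fun x => (P3 (e3 f x)) k)
    (fun x => P3 (D3 G x (Pi.single i 1)) k) (Pi.single i 1)
  rw [e1, e2]
  exact h1

theorem aesm_D3 {Om : Set R3} {G : Fin 3 → R3 → R3}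
    (h : ∀ j, AEStronglyMeasurable (G j) (volume.restrict Om)) :
    AEStronglyMeasurable (D3 G) (volume.restrict (P3 ⁻¹' Om)) := by
  have h1 : AEStronglyMeasurable (fun x => Gmat G (P3 x)) (volume.restrict (P3 ⁻¹' Om)) :=
    aesm_P3 (aesm_Gmat h)
  have h2 : Continuous fun M : R3 →L[ℝ] R3 =>
      (P3.symm : R3 →L[ℝ] E3).comp (M.comp (P3 : E3 →L[ℝ] R3)) := by fun_prop
  exact h2.comp_aestronglyMeasurable h1

/-- **Sobolev homeomorphisms: `R3` to `E3`** -/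
theorem sh3_of {p : ℝ} (hp : 1 ≤ p) {Om La : Set R3} (hO : IsOpen Om) {f : R3 → R3}
    {G : Fin 3 → R3 → R3} (h : SH p Om La f G) :
    SH3 p (P3 ⁻¹' Om) (P3 ⁻¹' La) (e3 f) (D3 G) := by
  have hp0 : 0 ≤ p := by linarith
  have h2 : (2:ℝ≥0∞) ^ p ≠ ∞ := ENNReal.rpow_ne_top_of_nonneg hp0 (by norm_num)
  refine ⟨hom3_of h.homeo, vwd_e3 hO h.wg, aesm_D3 fun j => (h.memG j).1, ?_, ?_⟩
  · refine ne_top_of_le_ne_top ?_ (energy_D3_le G Om hp0)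
    refine ENNReal.mul_ne_top h2 ?_
    rw [lintegral_finsetSum' _ fun j _ => ((h.memG j).1.aemeasurable.enorm).pow_const _]
    exact ENNReal.sum_ne_top.2 fun k _ => lintegral_of_memLp hp (h.memG k)
  · refine ne_top_of_le_ne_top (lintegral_of_memLp hp h.mem) ?_
    rw [lint_P3]
    apply lintegral_mono
    intro x
    apply ENNReal.rpow_le_rpow _ hp0
    rw [← ofReal_norm, ← ofReal_norm]
    apply ENNReal.ofReal_le_ofReal
    exact norm_P3_symm_le _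

/-! ### the `E3` forms of `BFs` and `NO0` -/

/-- `BFs` on `E3` -/
def BF3 (p : ℝ) : Prop :=
  ∃ C : ℝ≥0, ∀ (Om La : Set E3) (f : E3 → E3) (D : E3 → E3 →L[ℝ] E3),
    IsOpen Om → Bornology.IsBounded Om → IsConnected Om →
    IsOpen La → Bornology.IsBounded La → IsConnected La → SH3 p Om La f D →
    ∀ η : E3 → ℝ, ContinuousOn η Om → (∀ x ∈ Om, 0 < η x) →
    ∀ e : ℝ≥0∞, 0 < e →
    ∃ g : E3 → E3, Hom3 g Om La ∧ LocPL g Om ∧ (∀ x ∈ Om, ‖g x - f x‖ ≤ η x) ∧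
      ∫⁻ x in Om, ‖fderiv ℝ g x - D x‖ₑ ^ p ≤
        C * (∫⁻ x in Om ∩ {x | (D x).det = 0}, (1 + ‖D x‖ₑ ^ p)) + e

/-- **`BF3 p → BFs p`** -/
theorem bfs_of {p : ℝ} (hp : 1 ≤ p) (H : BF3 p) : BFs p := by
  have hp0 : 0 ≤ p := by linarith
  obtain ⟨C, hC⟩ := H
  refine ⟨3 * C * 2 ^ p, ?_⟩
  intro Om La f G hO hOb hOc hL hLb hLc hf η hη hη0 e he
  obtain ⟨g, g1, g2, g3, g4⟩ := hC (P3 ⁻¹' Om) (P3 ⁻¹' La) (e3 f) (D3 G) (isOpen_pre hO)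
    (isBounded_pre hOb) (isConnected_pre hOc) (isOpen_pre hL) (isBounded_pre hLb)
    (isConnected_pre hLc) (sh3_of hp hO hf) (fun x => η (P3 x) / 2)
    ((hη.comp P3.continuous.continuousOn fun x hx => hx).div_const 2)
    (fun x hx => half_pos (hη0 _ hx)) (e / 3) (ENNReal.div_pos he.ne' (by norm_num))
  refine ⟨r3 g, homeo_of g1, locPL_r3 g2, ?_, ?_⟩
  · intro y hy
    have h1 := norm_r3_sub_le g f y
    have h2 := g3 (P3.symm y) (by change P3 (P3.symm y) ∈ Om; rwa [P3.apply_symm_apply])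
    rw [P3.apply_symm_apply] at h2
    linarith
  · refine (energy_sub_le hO g2 subset_rfl hp0 G).trans ?_
    have h1 : {x | (D3 G x).det = 0} = P3 ⁻¹' Zd G := (pre_Zd G).symm
    rw [h1, ← preimage_inter] at g4
    have h2 : ∫⁻ x in P3 ⁻¹' (Om ∩ Zd G), (1 + ‖D3 G x‖ₑ ^ p) ≤
        2 ^ p * ∫⁻ y in Om ∩ Zd G, (1 + ∑ j, ‖G j y‖ₑ ^ p) := by
      have h3 : (2:ℝ≥0∞) ^ p ≠ ∞ := ENNReal.rpow_ne_top_of_nonneg hp0 (by norm_num)
      rw [lint_P3, ← lintegral_const_mul' _ _ h3]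
      apply lintegral_mono
      intro x
      change 1 + ‖D3 G x‖ₑ ^ p ≤ 2 ^ p * (1 + ∑ j, ‖G j (P3 x)‖ₑ ^ p)
      rw [mul_add]
      have h4 := le_sum_row (D3 G x) hp0
      simp only [row_D3] at h4
      gcongr
      rw [mul_one]
      exact ENNReal.one_le_rpow (by norm_num) (by linarith)
    calc 3 * ∫⁻ x in P3 ⁻¹' Om, ‖fderiv ℝ g x - D3 G x‖ₑ ^ p
        ≤ 3 * (C * (2 ^ p * ∫⁻ y in Om ∩ Zd G, (1 + ∑ j, ‖G j y‖ₑ ^ p)) + e / 3) := by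
          gcongr
          exact g4.trans (by gcongr)
      _ = ((3 * C * 2 ^ p : ℝ≥0) : ℝ≥0∞) * (∫⁻ y in Om ∩ Zd G, (1 + ∑ j, ‖G j y‖ₑ ^ p)) + e := by
          rw [mul_add, ENNReal.mul_div_cancel (by norm_num) (by norm_num)]
          push_cast
          rw [ENNReal.coe_rpow_of_nonneg _ hp0]
          push_cast
          ring

/-- the diagonal matrix, on `E3` -/
def dg3 (s : Fin 3 → ℝ) : E3 →L[ℝ] E3 := ofRows (dg s)

theorem dg3_apply (s : Fin 3 → ℝ) (v : E3) (j : Fin 3) : dg3 s v j = s j * v j := by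
  change inner ℝ (dg s j) (P3 v) = _
  unfold dg
  rw [EuclideanSpace.inner_single_left]
  simp

theorem D3_const (a : Fin 3 → R3) (x : E3) : D3 (fun j _ => a j) x = ofRows a := rfl

/-- the open unit cube in `E3` -/
def Qo : Set E3 := {x | ∀ i, |x i| < 1}
/-- the closed unit cube in `E3` -/
def Qc : Set E3 := {x | ∀ i, |x i| ≤ 1}

theorem pre_Q0 : P3 ⁻¹' Q0 = Qo := rfl
theorem pre_Qc0 : P3 ⁻¹' Qc0 = Qc := rfl

/-- `NO0` on `E3` -/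
def NO3 (p : ℝ) : Prop :=
  ∀ s : Fin 3 → ℝ, (∀ i, 0 ≤ s i) → s 2 = 0 → ∀ e : ℝ, 0 < e → ∃ d : ℝ, 0 < d ∧
    ∀ (U W : Set E3) (f : E3 → E3) (D : E3 → E3 →L[ℝ] E3),
      IsOpen U → Bornology.IsBounded U → IsConnected U →
      IsOpen W → Bornology.IsBounded W → IsConnected W → Qc ⊆ U →
      SH3 p U W f D →
      ∫⁻ x in Qo, ‖D x - dg3 s‖ₑ ^ p ≤ ENNReal.ofReal d →
      volume (Qo \ {x | (D x).det = 0}) ≤ ENNReal.ofReal d →
      ∃ g : E3 → E3, Hom3 g Qo (f '' Qo) ∧ LocPL g Qo ∧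
        (∀ z ∈ frontier Qo, Tendsto (fun x => g x - f x) (𝓝[Qo] z) (𝓝 0)) ∧
        ∫⁻ x in Qo, ‖fderiv ℝ g x - dg3 s‖ₑ ^ p ≤ ENNReal.ofReal e

end

end Crest.Agent.R096.Er_594
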