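import Crest.Agent.R096.Log2_582

/-!
# Row 96, DICT: the graded log foam near a compact set
-/

set_option autoImplicit false
set_option linter.unusedSectionVars false
set_option linter.style.haveILetI false
open Set Filter Topology

namespace Crest.Agent.R096.Log3_582

open Crest.Agent.R096.Brk1_582 Crest.Agent.R096.Brk2_582 Crest.Agent.R096.Brk3_582
open Crest.Agent.R096.Brk4_582 Crest.Agent.R096.Brk5_582 Crest.Agent.R096.Brk7_582
open Crest.Agent.R096.Bsp_628 Crest.Agent.R096.Log1_582 Crest.Agent.R096.Log2_582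

variable {q : ℕ} {a : Fin 3 → ℝ} {h : ℝ}

theorem isLog_side (hq : 1 ≤ q) (hh : 0 < h) {B : Bx (Fin 3)} (hB : IsLog q a h B) (i : Fin 3) :
    h ≤ B.side i ∧ B.side i ≤ 2 * q * h := by
  obtain ⟨k, j, m, rfl⟩ := hB
  have h1 := logB_side q hq k j m i
  rw [logA, aff_side]
  constructor
  · nlinarith [h1.1]
  · nlinarith [h1.2]

theorem isLog_pos (hq : 1 ≤ q) (hh : 0 < h) {B : Bx (Fin 3)} (hB : IsLog q a h B) : B.Pos := by
  intro i
  have := (isLog_side hq hh hB i).1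
  unfold Bx.side at this
  linarith

/-- the size of a log -/
theorem isLog_sz (hq : 1 ≤ q) (hh : 0 < h) {B : Bx (Fin 3)} (hB : IsLog q a h B) :
    B.sz = 2 * q * h := by
  refine le_antisymm ((isLog_side hq hh hB _).2) ?_
  obtain ⟨k, j, m, rfl⟩ := hB
  by_cases hk : Even k
  · refine le_trans (le_of_eq ?_) (Bx.side_le_sz _ 0)
    rw [logA, aff_side, logB_even hk]
    simp only [Bx.side, Matrix.cons_val_zero]
    ring
  · refine le_trans (le_of_eq ?_) (Bx.side_le_sz _ 1)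
    rw [logA, aff_side, logB_odd hk]
    simp only [Bx.side, Matrix.cons_val_one, Matrix.cons_val_zero]
    ring

theorem logsA_cover (hq : 1 ≤ q) (hh : 0 < h) (x : Fin 3 → ℝ) :
    ∃ B, IsLog q a h B ∧ x ∈ B.set := by
  obtain ⟨k, j, m, h1⟩ := logs_cover q hq (dmap (fun i => -(a i / h)) (fun _ => h⁻¹) x)
  refine ⟨_, ⟨k, j, m, rfl⟩, ?_⟩
  rw [logA, aff_set (fun _ => hh)]
  exact ⟨_, h1, dmap_inv' (L := fun _ => h) (fun _ => hh) x⟩

/-- distance of two points of a log -/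
theorem isLog_norm (hq : 1 ≤ q) (hh : 0 < h) {B : Bx (Fin 3)} (hB : IsLog q a h B)
    {x y : Fin 3 → ℝ} (hx : x ∈ B.set) (hy : y ∈ B.set) : ‖x - y‖ ≤ 2 * q * h := by
  rw [← isLog_sz hq hh hB]
  exact norm_sub_le_sz (isLog_pos hq hh hB) hx hy

/-- the points within `r` of `K₀` -/
def Nr (K₀ : Set (Fin 3 → ℝ)) (r : ℝ) : Set (Fin 3 → ℝ) := {y | ∃ y₀ ∈ K₀, ‖y - y₀‖ ≤ r}

theorem Nr_mono {K₀ : Set (Fin 3 → ℝ)} {r r' : ℝ} (h : r ≤ r') : Nr K₀ r ⊆ Nr K₀ r' := by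
  rintro y ⟨y₀, h0, h1⟩
  exact ⟨y₀, h0, h1.trans h⟩

theorem Nr_add {K₀ : Set (Fin 3 → ℝ)} {r r' : ℝ} {y z : Fin 3 → ℝ} (hy : y ∈ Nr K₀ r)
    (h : ‖z - y‖ ≤ r') : z ∈ Nr K₀ (r + r') := by
  obtain ⟨y₀, h0, h1⟩ := hy
  refine ⟨y₀, h0, ?_⟩
  calc ‖z - y₀‖ = ‖(z - y) + (y - y₀)‖ := by congr 1; abel
    _ ≤ r' + r := (norm_add_le _ _).trans (add_le_add h h1)
    _ = r + r' := add_comm _ _

/-- every log which meets the `M h`-neighbourhood of `K₀` is a cell -/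
def LogsNear (F : Set (Bx (Fin 3))) (q : ℕ) (a : Fin 3 → ℝ) (h : ℝ) (K₀ : Set (Fin 3 → ℝ))
    (r : ℝ) : Prop :=
  ∀ B, IsLog q a h B → (B.set ∩ Nr K₀ r).Nonempty → B ∈ F

theorem LogsNear.mono {F : Set (Bx (Fin 3))} {K₀ : Set (Fin 3 → ℝ)} {r r' : ℝ}
    (H : LogsNear F q a h K₀ r') (hr : r ≤ r') : LogsNear F q a h K₀ r :=
  fun B hB ⟨y, hy, hy'⟩ => H B hB ⟨y, hy, Nr_mono hr hy'⟩

/-- **the cells near `K₀` are logs** -/
theorem isLog_of_near {F : Set (Bx (Fin 3))} {La : Set (Fin 3 → ℝ)} {δ κ0 : ℝ}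
    (BF : BoxFoam La F δ κ0) (hq : 1 ≤ q) (hh : 0 < h) {K₀ : Set (Fin 3 → ℝ)} {r : ℝ}
    (H : LogsNear F q a h K₀ r) {c : F} {y : Fin 3 → ℝ} (hyc : y ∈ Pc F c) {r' : ℝ} (hr' : r' < r)
    (hy : y ∈ Nr K₀ r') : IsLog q a h c.1 := by
  have hpos := BF.pos _ c.2
  -- an interior point close to `y`
  set m : Fin 3 → ℝ := fun k => (c.1.lo k + c.1.hi k) / 2 with hm
  set t : ℝ := min (1 / 2) ((r - r') / (‖m - y‖ + 1)) with ht
  have hn : 0 < ‖m - y‖ + 1 := by positivity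
  have ht0 : 0 < t := lt_min (by norm_num) (div_pos (by linarith) hn)
  have ht1 : t ≤ 1 / 2 := min_le_left _ _
  set z : Fin 3 → ℝ := y + t • (m - y) with hz
  have hyk := Bx.mem_set.1 hyc
  have hint : ∀ k, c.1.lo k < z k ∧ z k < c.1.hi k := by
    intro k
    have h1 := hyk k
    have h2 := hpos k
    simp only [hz, hm, Pi.add_apply, Pi.smul_apply, Pi.sub_apply, smul_eq_mul]
    constructor <;> nlinarith
  have hzc : z ∈ c.1.set := Bx.mem_set.2 fun k => ⟨(hint k).1.le, (hint k).2.le⟩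
  have hzr : z ∈ Nr K₀ r := by
    have h1 := Nr_add hy (z := z) (r' := r - r') ?_
    · rwa [add_sub_cancel] at h1
    · simp only [hz, add_sub_cancel_left, norm_smul, Real.norm_of_nonneg ht0.le]
      have h2 : t ≤ (r - r') / (‖m - y‖ + 1) := min_le_right _ _
      rw [le_div_iff₀ hn] at h2
      nlinarith [norm_nonneg (m - y)]
  obtain ⟨B, hB, hzB⟩ := logsA_cover (a := a) hq hh z
  have hBF : B ∈ F := H B hB ⟨z, hzB, hzr⟩
  by_contra hcon
  have hne : c ≠ (⟨B, hBF⟩ : F) := by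
    rintro rfl
    exact hcon hB
  -- two different cells meet in a degenerate direction
  have hA : ({c, ⟨B, hBF⟩} : Set F).Finite := (finite_singleton _).insert _
  have hx : z ∈ fc (Pc F) ({c, ⟨B, hBF⟩} : Set F) := by
    rw [mem_fc]
    rintro d (rfl | rfl)
    · exact hzc
    · exact hzB
  have h1 := deg_count BF hA ⟨c, mem_insert _ _⟩ ⟨z, hx⟩
  rw [ncard_pair hne] at h1
  have h2 : {k | loA ({c, ⟨B, hBF⟩} : Set F) k = hiA ({c, ⟨B, hBF⟩} : Set F) k}.Nonempty := by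
    rw [← ncard_pos (toFinite _)]
    omega
  obtain ⟨k, hk⟩ := h2
  have hk' : loA ({c, ⟨B, hBF⟩} : Set F) k = hiA ({c, ⟨B, hBF⟩} : Set F) k := hk
  have h3 := (mem_fc_iff hA ⟨c, mem_insert _ _⟩).1 hx k
  have hzk : z k = loA ({c, ⟨B, hBF⟩} : Set F) k := le_antisymm (h3.2.trans hk'.ge) h3.1
  obtain ⟨d, hd, h4⟩ := (exists_loA hA ⟨c, mem_insert _ _⟩ k).1
  obtain ⟨d', hd', h5⟩ := (exists_hiA hA ⟨c, mem_insert _ _⟩ k).1
  have hi := hint k
  -- `lo` is attained by `B`, `hi` by `B`: then `B` has an empty side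
  have e1 : d = (⟨B, hBF⟩ : F) := by
    rcases hd with h6 | h6
    · exfalso
      rw [h6] at h4
      rw [hzk, h4] at hi
      exact lt_irrefl _ hi.1
    · exact h6
  have e2 : d' = (⟨B, hBF⟩ : F) := by
    rcases hd' with h6 | h6
    · exfalso
      rw [h6] at h5
      rw [hzk, hk', h5] at hi
      exact lt_irrefl _ hi.2
    · exact h6
  rw [e1] at h4
  rw [e2] at h5
  have h6 := isLog_pos hq hh hB k
  have h7 : B.lo k = B.hi k := by
    change (⟨B, hBF⟩ : F).1.lo k = (⟨B, hBF⟩ : F).1.hi k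
    rw [h4, h5, hk']
  exact absurd h6 (by rw [h7]; exact lt_irrefl _)

/-- the logs of one slab cover it -/
theorem slab_cover (hq : 1 ≤ q) (hh : 0 < h) {k : ℤ} {y : Fin 3 → ℝ}
    (h1 : a 2 + h * k ≤ y 2) (h2 : y 2 ≤ a 2 + h * (k + 1)) :
    ∃ j m, y ∈ (logA a h q k j m).set := by
  set x : Fin 3 → ℝ := dmap (fun i => -(a i / h)) (fun _ => h⁻¹) y with hx
  have hxy : dmap a (fun _ => h) x = y := dmap_inv' (L := fun _ => h) (fun _ => hh) y
  have hx2 : (k : ℝ) ≤ x 2 ∧ x 2 ≤ k + 1 := by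
    have h3 : y 2 = a 2 + h * x 2 := by rw [← hxy]; rfl
    rw [h3] at h1 h2
    exact ⟨le_of_mul_le_mul_left (by linarith) hh, le_of_mul_le_mul_left (by linarith) hh⟩
  obtain ⟨k', j, m, h3⟩ := logs_cover q hq (Function.update x 2 ((k : ℝ) + 1 / 2))
  have h4 := Bx.mem_set.1 h3 2
  rw [logB_lo2, logB_hi2, Function.update_self] at h4
  have hk : k' = k := by
    have h5 : (k' : ℝ) < k + 1 := by linarith [h4.1]
    have h6 : (k : ℝ) < k' + 1 := by linarith [h4.2]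
    have h7 : k' < k + 1 := by exact_mod_cast h5
    have h8 : k < k' + 1 := by exact_mod_cast h6
    omega
  subst hk
  refine ⟨j, m, ?_⟩
  rw [logA, aff_set (fun _ => hh)]
  refine ⟨x, Bx.mem_set.2 fun i => ?_, hxy⟩
  by_cases hi : i = 2
  · subst hi
    rw [logB_lo2, logB_hi2]
    exact hx2
  · have := Bx.mem_set.1 h3 i
    rwa [Function.update_of_ne hi] at this

section near

variable {F : Set (Bx (Fin 3))} {La : Set (Fin 3 → ℝ)} {δ κ0 : ℝ} {K₀ : Set (Fin 3 → ℝ)} {r r' : ℝ}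

/-- the slabs at the wall `z` -/
theorem exists_slabs (z : ℤ) : ∃ e o : ℤ, Even e ∧ ¬ Even o ∧ (o = e + 1 ∨ e = o + 1) ∧
    max e o = z := by
  by_cases hz : Even z
  · refine ⟨z, z - 1, hz, ?_, Or.inr (by ring), max_eq_left (by omega)⟩
    intro h1
    obtain ⟨u, hu⟩ := hz
    obtain ⟨v, hv⟩ := h1
    omega
  · refine ⟨z - 1, z, ?_, hz, Or.inl (by ring), max_eq_right (by omega)⟩
    have := Int.not_even_iff_odd.1 hz
    obtain ⟨u, hu⟩ := this
    exact ⟨u, by omega⟩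

theorem slab_bounds (hh : 0 < h) {e o z : ℤ} (heo : o = e + 1 ∨ e = o + 1) (hz : max e o = z)
    {x : ℝ} (hx : x = a 2 + h * z) :
    (a 2 + h * e ≤ x ∧ x ≤ a 2 + h * (e + 1)) ∧ (a 2 + h * o ≤ x ∧ x ≤ a 2 + h * (o + 1)) := by
  rw [adj_z hh heo, hz]
  exact hx

/-- **every point of a horizontal plane near `K₀` lies in a horizontal face between two logs** -/
theorem hor_near (BF : BoxFoam La F δ κ0) (hq : 1 ≤ q) (hh : 0 < h)
    (H : LogsNear F q a h K₀ r) (hr : r' + h < r) {y : Fin 3 → ℝ} (hy : y ∈ Nr K₀ r') {z : ℤ}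
    (hyz : y 2 = a 2 + h * z) : ∃ C O : F, Hor F q a h C O ∧ y ∈ Pc F C ∩ Pc F O := by
  obtain ⟨e, o, he, ho, heo, hz⟩ := exists_slabs z
  obtain ⟨b1, b2⟩ := slab_bounds hh heo hz hyz
  obtain ⟨j, m, h1⟩ := slab_cover hq hh b1.1 b1.2
  obtain ⟨i, m', h2⟩ := slab_cover hq hh b2.1 b2.2
  have hyr : y ∈ Nr K₀ r := Nr_mono (by linarith) hy
  have hC : logA a h q e j m ∈ F := H _ ⟨_, _, _, rfl⟩ ⟨y, h1, hyr⟩
  have hO : logA a h q o i m' ∈ F := H _ ⟨_, _, _, rfl⟩ ⟨y, h2, hyr⟩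
  refine ⟨⟨_, hC⟩, ⟨_, hO⟩, ⟨⟨_, _, _, he, rfl⟩, ⟨_, _, _, ho, rfl⟩, ?_⟩, h1, h2⟩
  rintro c ⟨p, hpc, hp1, hp2⟩
  have hpy : ‖p - y‖ ≤ h := by
    refine (pi_norm_le_iff_of_nonneg hh.le).2 fun k => ?_
    rw [Pi.sub_apply, Real.norm_eq_abs, abs_le]
    by_cases hk : k = 0
    · subst hk
      have s1 := logA_side_odd (a := a) (h := h) (q := q) (j := i) (m := m') ho 0 (by decide)
      have s2 := Bx.mem_set.1 hp2 0
      have s3 := Bx.mem_set.1 h2 0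
      unfold Bx.side at s1
      change _ ≤ p 0 ∧ p 0 ≤ _ at s2
      constructor <;> linarith [s2.1, s2.2, s3.1, s3.2]
    · have s1 := logA_side_even (a := a) (h := h) (q := q) (j := j) (m := m) he k hk
      have s2 := Bx.mem_set.1 hp1 k
      have s3 := Bx.mem_set.1 h1 k
      unfold Bx.side at s1
      constructor <;> linarith [s2.1, s2.2, s3.1, s3.2]
  exact isLog_of_near BF hq hh H hpc hr (Nr_add hy hpy)

theorem goodSq_of {i j : ℤ} (hi : ¬ (q : ℤ) ∣ i) (hj : ¬ (q : ℤ) ∣ j) : GoodSq q i j := by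
  intro τ _
  constructor
  · intro h1
    apply hi
    have h2 : (q : ℤ) ∣ i - q * (j + τ) := (Dvd.intro_left 2 rfl).trans h1
    have h3 : (q : ℤ) ∣ q * (j + τ) := Dvd.intro _ rfl
    have := dvd_add h2 h3
    rwa [sub_add_cancel] at this
  · intro h1
    apply hj
    have h2 : (q : ℤ) ∣ j - q * (i + τ) := (Dvd.intro_left 2 rfl).trans h1
    have h3 : (q : ℤ) ∣ q * (i + τ) := Dvd.intro _ rfl
    have := dvd_add h2 h3
    rwa [sub_add_cancel] at this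

end near

/-! ### existence -/

/-- **the graded foam which consists of the crossing logs near `K₀`** -/
theorem exists_log_foam (hq : 1 ≤ q) {La : Set (Fin 3 → ℝ)} (hLo : IsOpen La)
    (hb : Bornology.IsBounded La) {rho : (Fin 3 → ℝ) → ℝ} {L : NNReal}
    (hL : LipschitzWith L rho) (hLa : ∀ x, 0 < rho x ↔ x ∈ La) {K₀ : Set (Fin 3 → ℝ)}
    (hK : IsCompact K₀) (hKL : K₀ ⊆ La) {M : ℝ} (hM : 0 ≤ M) :
    ∃ h₀ > 0, ∀ h, 0 < h → h < h₀ → Nr K₀ (M * h) ⊆ La ∧ ∀ a : Fin 3 → ℝ,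
    ∃ F : Set (Bx (Fin 3)),
      BoxFoam La F (min (dl (Fin 3) (max 3 (2 * q))) (1 / (4 * q))) (max 3 (2 * q)) ∧
      (∀ C ∈ F, ∀ x ∈ C.set, C.sz ≤ rho x) ∧
      Cmp F (3 * (1 + L)) ∧
      (∀ C ∈ F, C.sz ≤ 2 * q * h) ∧
      (∀ C ∈ F, IsLog q a h C ∨ ∀ x ∈ C.set, rho x ≤ 3 * (1 + L) * C.sz) ∧
      LogsNear F q a h K₀ (M * h) := by
  have hq' : (1 : ℝ) ≤ q := by exact_mod_cast hq
  obtain ⟨r1, hr1, hr1L⟩ := hK.exists_cthickening_subset_open hLo hKL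
  have hKc : IsCompact (Metric.cthickening r1 K₀) := hK.cthickening
  obtain ⟨ρ0, hρ0, hρ⟩ : ∃ ρ0 > 0, ∀ x ∈ Metric.cthickening r1 K₀, ρ0 ≤ rho x := by
    rcases (Metric.cthickening r1 K₀).eq_empty_or_nonempty with h0 | h0
    · exact ⟨1, one_pos, fun x hx => absurd hx (by rw [h0]; exact notMem_empty x)⟩
    · obtain ⟨x0, hx0, hmin⟩ := hKc.exists_isMinOn h0 hL.continuous.continuousOn
      exact ⟨rho x0, (hLa x0).2 (hr1L hx0), fun x hx => hmin hx⟩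
  have hNr : ∀ s ≤ r1, Nr K₀ s ⊆ Metric.cthickening r1 K₀ := by
    rintro s hs y ⟨y₀, h0, h1⟩
    exact Metric.mem_cthickening_of_dist_le y y₀ r1 K₀ h0 (by rw [dist_eq_norm]; linarith)
  refine ⟨min (r1 / (M + 2 * q)) (ρ0 / (2 * q)), lt_min (by positivity) (by positivity), ?_⟩
  intro h hh hlt
  have hlt1 : (M + 2 * q) * h < r1 := by
    have := hlt.trans_le (min_le_left _ _)
    rw [lt_div_iff₀ (by positivity)] at this
    linarith
  have hlt2 : 2 * q * h < ρ0 := by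
    have := hlt.trans_le (min_le_right _ _)
    rw [lt_div_iff₀ (by positivity)] at this
    linarith
  have hqh : 0 < 2 * q * h := by positivity
  refine ⟨(hNr (M * h) (by nlinarith)).trans hr1L, fun a => ?_⟩
  obtain ⟨F, BF, f1, f2, f3, f4⟩ := exists_foam_logs hq a hh hb hL hLa
  have f2' : ∀ C ∈ F, IsLog q a h C ∨ ∀ x ∈ C.set, rho x ≤ 3 * (1 + L) * C.sz := f2
  have f4' : ∀ C ∈ F, C.sz ≤ 2 * q * h := by
    intro C hC
    obtain ⟨k, j, m, hle⟩ := f4 C hC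
    refine (Bx.Le.sz_le hle).trans (le_of_eq ?_)
    exact isLog_sz hq hh ⟨k, j, m, rfl⟩
  refine ⟨F, BF, f1, ?_, f4', f2', ?_⟩
  · -- comparability
    rintro c c' ⟨x, hx, hx'⟩
    have hL1 : (1 : ℝ) ≤ 3 * (1 + L) := by
      have := L.2
      have h0 : (0 : ℝ) ≤ L := L.coe_nonneg
      linarith
    have hs' : 0 < c'.1.sz := Bx.sz_pos (BF.pos _ c'.2)
    rcases f2' _ c'.2 with h1 | h1
    · have h2 := f4' _ c.2
      rw [← isLog_sz hq hh h1] at h2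
      nlinarith
    · exact (f1 _ c.2 x hx).trans (h1 x hx')
  · rintro B hB ⟨y, hyB, hyr⟩
    obtain ⟨k, j, m, rfl⟩ := hB
    refine f3 k j m fun x hx => ?_
    have hsz := isLog_sz hq hh (B := logA a h q k j m) ⟨k, j, m, rfl⟩
    have h1 := isLog_norm hq hh (B := logA a h q k j m) ⟨k, j, m, rfl⟩ hx hyB
    have h2 : x ∈ Nr K₀ (M * h + 2 * q * h) := Nr_add hyr h1
    have h3 := hρ x (hNr _ (by nlinarith) h2)
    rw [hsz]
    linarith

end Crest.Agent.R096.Log3_582
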