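import Crest.Agent.R096.Bsp8_628
import Crest.Agent.R096.Log3_582

/-!
# Row 96, FOAM-EX (helper628), part 9: dyadic versions of the existence theorems

`exists_foam_logs_dy`, `exists_log_foam_dy` (582's form), `exists_foam_bounded_dy`; **`Dy.star`**: one
brick and all bricks touching it are boxes with bounded integer corners in one grid.
-/

set_option autoImplicit false
set_option linter.unusedSectionVars false

open Set

namespace Crest.Agent.R096.Bsp_628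

open Crest.Agent.R096.Brk1_582 Crest.Agent.R096.Brk3_582 Crest.Agent.R096.Brk5_582
open Crest.Agent.R096.Log1_582 Crest.Agent.R096.Log2_582 Crest.Agent.R096.Log3_582

theorem logA_dy {q : ℕ} (hq : 1 ≤ q) {a : Fin 3 → ℝ} {h : ℝ} (hh : 0 < h) {M : ℝ}
    (hM : 4 * (q : ℝ) ≤ M) (k j m : ℤ) : Dy a h M (logA a h q k j m) := by
  have hq' : (1 : ℝ) ≤ q := by exact_mod_cast hq
  have h2 : h * (2 : ℝ) ^ (-(1 : ℤ)) = h / 2 := by rw [zpow_neg, zpow_one]; ring
  refine ⟨1, ?_, fun i => ?_⟩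
  · rw [h2]
    have h1 := (logB_side q hq k j m (ax (logA a h q k j m))).2
    have h3 : (logA a h q k j m).sz ≤ h * (2 * q) := by
      change (logA a h q k j m).side _ ≤ _
      rw [logA, aff_side]
      exact mul_le_mul_of_nonneg_left h1 hh.le
    nlinarith
  · rw [h2]
    have key : ∃ s t : ℤ, (logB q k j m).lo i = s / 2 ∧ (logB q k j m).hi i = t / 2 := by
      unfold logB
      split_ifs with hk
      · fin_cases i
        · exact ⟨1 + 2 * (q * (j + 2 * m)), 1 + 2 * (q * (j + 2 * m + 2)), by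
            constructor <;> (simp; ring)⟩
        · exact ⟨2 * j, 2 * (j + 1), by constructor <;> simp⟩
        · exact ⟨2 * k, 2 * (k + 1), by constructor <;> simp⟩
      · fin_cases i
        · exact ⟨2 * j, 2 * (j + 1), by constructor <;> simp⟩
        · exact ⟨1 + 2 * (q * (j + 2 * m)), 1 + 2 * (q * (j + 2 * m + 2)), by
            constructor <;> (simp; ring)⟩
        · exact ⟨2 * k, 2 * (k + 1), by constructor <;> simp⟩
    obtain ⟨s, t, hs, ht⟩ := key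
    refine ⟨s, t, ?_, ?_⟩
    · change a i + h * (logB q k j m).lo i = _
      rw [hs]; ring
    · change a i + h * (logB q k j m).hi i = _
      rw [ht]; ring

/-- **graded foam which contains the crossing logs** (scale `h`, length `2 q h`, offset `a`) -/
theorem exists_foam_logs_dy {q : ℕ} (hq : 1 ≤ q) (a : Fin 3 → ℝ) {h : ℝ} (hh : 0 < h)
    {M : ℝ} (hM1 : 4 / dl (Fin 3) (max 3 (2 * q)) ≤ M) (hM2 : 4 * (q : ℝ) ≤ M)
    {La : Set (Fin 3 → ℝ)} (hb : Bornology.IsBounded La) {rho : (Fin 3 → ℝ) → ℝ} {L : NNReal}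
    (hL : LipschitzWith L rho) (hLa : ∀ x, 0 < rho x ↔ x ∈ La) :
    ∃ F : Set (Bx (Fin 3)),
      BoxFoam La F (min (dl (Fin 3) (max 3 (2 * q)) / 2) (1 / (4 * q))) (max 3 (2 * q)) ∧
      (∀ C ∈ F, ∀ x ∈ C.set, C.sz ≤ rho x) ∧
      (∀ C ∈ F, (∃ k j m, C = logA a h q k j m) ∨ ∀ x ∈ C.set, rho x ≤ 3 * (1 + L) * C.sz) ∧
      (∀ k j m, (∀ x ∈ (logA a h q k j m).set, (logA a h q k j m).sz ≤ rho x) →
        logA a h q k j m ∈ F) ∧
      (∀ C ∈ F, ∃ k j m, C.Le (logA a h q k j m)) ∧ ∀ C ∈ F, Dy a h M C := by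
  classical
  have hq' : (1 : ℝ) ≤ q := by exact_mod_cast hq
  have hL0 : ∀ i : Fin 3, 0 < (fun _ : Fin 3 => h) i := fun _ => hh
  -- bounds in the normalised coordinates
  obtain ⟨R0, hR0⟩ := hb.subset_closedBall (0 : Fin 3 → ℝ)
  obtain ⟨R, hR⟩ : ∃ R : ℝ, ∀ x ∈ La, ∀ i,
      |dmap (fun i => -(a i / h)) (fun _ => h⁻¹) x i| ≤ R := by
    refine ⟨‖a‖ / h + |R0| / h, fun x hx i => ?_⟩
    have h1 := hR0 hx
    rw [Metric.mem_closedBall, dist_zero_right] at h1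
    have h2 : |x i| ≤ |R0| := by
      have := norm_le_pi_norm x i
      rw [Real.norm_eq_abs] at this
      exact this.trans (h1.trans (le_abs_self _))
    have h3 : |a i| ≤ ‖a‖ := by
      have := norm_le_pi_norm a i
      rwa [Real.norm_eq_abs] at this
    simp only [dmap]
    calc |-(a i / h) + h⁻¹ * x i| ≤ |-(a i / h)| + |h⁻¹ * x i| := abs_add_le _ _
      _ = |a i| / h + |x i| / h := by
          rw [abs_neg, abs_div, abs_mul, abs_inv, abs_of_pos hh]; ring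
      _ ≤ ‖a‖ / h + |R0| / h := by gcongr
  set N : ℤ := ⌈|R|⌉ + 3 with hN
  have hNR : |R| + 3 ≤ (N : ℝ) := by
    rw [hN]; push_cast; linarith [Int.le_ceil |R|]
  set P0 : Finset (Bx (Fin 3)) := (Finset.Icc (-N) N ×ˢ Finset.Icc (-N) N ×ˢ Finset.Icc (-N) N).image
    (fun t => logA a h q t.1 t.2.1 t.2.2) with hP0
  -- logs which meet `La` are in `P0`
  have hin : ∀ k j m x, x ∈ La → x ∈ (logA a h q k j m).set → logA a h q k j m ∈ P0 := by
    intro k j m x hx hxC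
    have h1 : dmap (fun i => -(a i / h)) (fun _ => h⁻¹) x ∈ (logB q k j m).set := by
      rw [← mem_aff (a := a) (L := fun _ => h) hL0]
      have := dmap_inv' (a := a) (L := fun _ => h) hL0 x
      rw [this]
      exact hxC
    obtain ⟨h2, h3, h4⟩ := logB_index hq h1 (hR x hx)
    have h5 := le_abs_self R
    have hk : |k| ≤ N := by
      have : |(k : ℝ)| ≤ (N : ℝ) := by linarith
      exact_mod_cast this
    have hj : |j| ≤ N := by
      have : |(j : ℝ)| ≤ (N : ℝ) := by linarith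
      exact_mod_cast this
    have hm : |m| ≤ N := by
      have : |(m : ℝ)| ≤ (N : ℝ) := by linarith
      exact_mod_cast this
    rw [hP0, Finset.mem_image]
    refine ⟨(k, j, m), ?_, rfl⟩
    rw [Finset.mem_product, Finset.mem_product, Finset.mem_Icc, Finset.mem_Icc, Finset.mem_Icc]
    exact ⟨abs_le.1 hk, abs_le.1 hj, abs_le.1 hm⟩
  have hmemP : ∀ B ∈ P0, ∃ k j m, B = logA a h q k j m := by
    intro B hB
    rw [hP0, Finset.mem_image] at hB
    obtain ⟨t, -, rfl⟩ := hB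
    exact ⟨_, _, _, rfl⟩
  have hside : ∀ k j m i, h ≤ (logA a h q k j m).side i ∧ (logA a h q k j m).side i ≤ 2 * q * h := by
    intro k j m i
    have h1 := logB_side q hq k j m i
    rw [logA, aff_side]
    constructor
    · nlinarith [h1.1]
    · nlinarith [h1.2]
  have hposA : ∀ k j m, (logA a h q k j m).Pos := fun k j m =>
    aff_pos hL0 (logB_pos q hq k j m)
  have hinv : INV (1 / (4 * (q : ℝ))) (↑P0 : Set (Bx (Fin 3))) := by
    have h1 : INVa (h * (1 / 2)) (Bx.aff a (fun _ => h) '' Logs q) :=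
      (logs_inv q hq).aff (by norm_num) hh (fun _ => le_rfl)
    have h2 : INVa (h * (1 / 2)) (↑P0 : Set (Bx (Fin 3))) := by
      refine h1.mono fun B hB => ?_
      obtain ⟨k, j, m, rfl⟩ := hmemP B (by exact_mod_cast hB)
      exact ⟨logB q k j m, ⟨k, j, m, rfl⟩, rfl⟩
    have h3 := h2.toINV (S := 2 * q * h) (by positivity) (by positivity) (fun B hB => by
      obtain ⟨k, j, m, rfl⟩ := hmemP B (by exact_mod_cast hB)
      exact (hside k j m _).2)
    have h4 : h * (1 / 2) / (2 * q * h) = 1 / (4 * (q : ℝ)) := by field_simp; ring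
    rw [h4] at h3
    exact h3
  have hcov : ∀ x ∈ La, ∃ B ∈ P0, x ∈ B.set := by
    intro x hx
    obtain ⟨k, j, m, hy⟩ := logs_cover q hq (dmap (fun i => -(a i / h)) (fun _ => h⁻¹) x)
    have h1 : x ∈ (logA a h q k j m).set := by
      rw [← mem_aff (a := a) (L := fun _ => h) hL0] at hy
      have := dmap_inv' (a := a) (L := fun _ => h) hL0 x
      rw [this] at hy
      exact hy
    exact ⟨_, hin k j m x hx h1, h1⟩
  obtain ⟨F, f1, f2, f3, f4, f5, f6⟩ := exists_foam_dy (κ0 := max 3 (2 * (q : ℝ))) (le_max_left _ _)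
    (o := a) hh hM1
    (P0 := P0) (δ0 := 1 / (4 * (q : ℝ))) (by positivity)
    (fun B hB => by
      obtain ⟨k, j, m, rfl⟩ := hmemP B hB
      exact hposA k j m)
    (fun B hB C hC i => by
      obtain ⟨k, j, m, rfl⟩ := hmemP B hB
      obtain ⟨k', j', m', rfl⟩ := hmemP C hC
      have h1 := (hside k j m (ax (logA a h q k j m))).2
      have h2 := (hside k' j' m' i).1
      have h3 : (2 * (q : ℝ)) ≤ max 3 (2 * (q : ℝ)) := le_max_right _ _
      calc (logA a h q k j m).sz ≤ 2 * q * h := h1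
        _ ≤ max 3 (2 * (q : ℝ)) * h := mul_le_mul_of_nonneg_right h3 hh.le
        _ ≤ max 3 (2 * (q : ℝ)) * (logA a h q k' j' m').side i :=
            mul_le_mul_of_nonneg_left h2 (by positivity))
    hinv hL hLa hcov (fun B hB => by
      obtain ⟨k, j, m, rfl⟩ := hmemP B hB
      exact logA_dy hq hh hM2 k j m)
  refine ⟨F, f1, f2, ?_, ?_, ?_, f6⟩
  · intro C hC
    rcases f3 C hC with h1 | h1
    · exact Or.inl (hmemP C h1)
    · exact Or.inr h1
  · intro k j m hD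
    refine f4 _ ?_ hD
    have h1 : (logA a h q k j m).lo ∈ (logA a h q k j m).set :=
      Bx.mem_set.2 fun i => ⟨le_rfl, (hposA k j m i).le⟩
    have h2 := hD _ h1
    exact hin k j m _ ((hLa _).1 ((Bx.sz_pos (hposA k j m)).trans_le h2)) h1
  · intro C hC
    obtain ⟨B, hB, hCB⟩ := f5 C hC
    obtain ⟨k, j, m, rfl⟩ := hmemP B hB
    exact ⟨k, j, m, hCB⟩

/-- **the graded dyadic foam which consists of the crossing logs near `K₀`** -/
theorem exists_log_foam_dy {q : ℕ} (hq : 1 ≤ q) {La : Set (Fin 3 → ℝ)} (hLo : IsOpen La)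
    (hb : Bornology.IsBounded La) {rho : (Fin 3 → ℝ) → ℝ} {L : NNReal}
    (hL : LipschitzWith L rho) (hLa : ∀ x, 0 < rho x ↔ x ∈ La) {K₀ : Set (Fin 3 → ℝ)}
    (hK : IsCompact K₀) (hKL : K₀ ⊆ La) {M : ℝ} (hM : 0 ≤ M)
    {M' : ℝ} (hM1 : 4 / dl (Fin 3) (max 3 (2 * q)) ≤ M') (hM2 : 4 * (q : ℝ) ≤ M') :
    ∃ h₀ > 0, ∀ h, 0 < h → h < h₀ → Nr K₀ (M * h) ⊆ La ∧ ∀ a : Fin 3 → ℝ,
    ∃ F : Set (Bx (Fin 3)),
      BoxFoam La F (min (dl (Fin 3) (max 3 (2 * q)) / 2) (1 / (4 * q))) (max 3 (2 * q)) ∧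
      (∀ C ∈ F, ∀ x ∈ C.set, C.sz ≤ rho x) ∧
      Cmp F (3 * (1 + L)) ∧
      (∀ C ∈ F, C.sz ≤ 2 * q * h) ∧
      (∀ C ∈ F, IsLog q a h C ∨ ∀ x ∈ C.set, rho x ≤ 3 * (1 + L) * C.sz) ∧
      LogsNear F q a h K₀ (M * h) ∧
      (∀ C ∈ F, Dy a h M' C) := by
  have hq' : (1 : ℝ) ≤ q := by exact_mod_cast hq
  obtain ⟨r1, hr1, hr1L⟩ := hK.exists_cthickening_subset_open hLo hKL
  have hKc : IsCompact (Metric.cthickening r1 K₀) := hK.cthickening
  obtain ⟨ρ0, hρ0, hρ⟩ : ∃ ρ0 > 0, ∀ x ∈ Metric.cthickening r1 K₀, ρ0 ≤ rho x := by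
    rcases (Metric.cthickening r1 K₀).eq_empty_or_nonempty with h0 | h0
    · exact ⟨1, one_pos, fun x hx => absurd hx (by rw [h0]; exact notMem_empty x)⟩
    · obtain ⟨x0, hx0, hmin⟩ := hKc.exists_isMinOn h0 hL.continuous.continuousOn
      exact ⟨rho x0, (hLa x0).2 (hr1L hx0), fun x hx => hmin hx⟩
  have hNr : ∀ s ≤ r1, Nr K₀ s ⊆ Metric.cthickening r1 K₀ := by
    rintro s hs y ⟨y₀, h0, h1⟩
    exact Metric.mem_cthickening_of_dist_le y y₀ r1 K₀ h0 (by rw [dist_eq_norm]; linarith)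
  refine ⟨min (r1 / (M + 2 * q)) (ρ0 / (2 * q)), lt_min (by positivity) (by positivity), ?_⟩
  intro h hh hlt
  have hlt1 : (M + 2 * q) * h < r1 := by
    have := hlt.trans_le (min_le_left _ _)
    rw [lt_div_iff₀ (by positivity)] at this
    linarith
  have hlt2 : 2 * q * h < ρ0 := by
    have := hlt.trans_le (min_le_right _ _)
    rw [lt_div_iff₀ (by positivity)] at this
    linarith
  have hqh : 0 < 2 * q * h := by positivity
  refine ⟨(hNr (M * h) (by nlinarith)).trans hr1L, fun a => ?_⟩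
  obtain ⟨F, BF, f1, f2, f3, f4, f5⟩ := exists_foam_logs_dy hq a hh hM1 hM2 hb hL hLa
  have f2' : ∀ C ∈ F, IsLog q a h C ∨ ∀ x ∈ C.set, rho x ≤ 3 * (1 + L) * C.sz := f2
  have f4' : ∀ C ∈ F, C.sz ≤ 2 * q * h := by
    intro C hC
    obtain ⟨k, j, m, hle⟩ := f4 C hC
    refine (Bx.Le.sz_le hle).trans (le_of_eq ?_)
    exact isLog_sz hq hh ⟨k, j, m, rfl⟩
  refine ⟨F, BF, f1, ?_, f4', f2', ?_, f5⟩
  · -- comparability
    rintro c c' ⟨x, hx, hx'⟩
    have hL1 : (1 : ℝ) ≤ 3 * (1 + L) := by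
      have := L.2
      have h0 : (0 : ℝ) ≤ L := L.coe_nonneg
      linarith
    have hs' : 0 < c'.1.sz := Bx.sz_pos (BF.pos _ c'.2)
    rcases f2' _ c'.2 with h1 | h1
    · have h2 := f4' _ c.2
      rw [← isLog_sz hq hh h1] at h2
      nlinarith
    · exact (f1 _ c.2 x hx).trans (h1 x hx')
  · rintro B hB ⟨y, hyB, hyr⟩
    obtain ⟨k, j, m, rfl⟩ := hB
    refine f3 k j m fun x hx => ?_
    have hsz := isLog_sz hq hh (B := logA a h q k j m) ⟨k, j, m, rfl⟩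
    have h1 := isLog_norm hq hh (B := logA a h q k j m) ⟨k, j, m, rfl⟩ hx hyB
    have h2 : x ∈ Nr K₀ (M * h + 2 * q * h) := Nr_add hyr h1
    have h3 := hρ x (hNr _ (by nlinarith) h2)
    rw [hsz]
    linarith


/-- **dyadic FOAM-EX for a bounded open set** (no start pattern); `o`, `u` arbitrary -/
theorem exists_foam_bounded_dy {κ : Type*} [Fintype κ] [Nonempty κ] [DecidableEq κ]
    (o : κ → ℝ) {u M : ℝ} (hu : 0 < u) (hM : 4 / dl κ 3 ≤ M) (hM2 : 2 ≤ M)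
    {La : Set (κ → ℝ)} {rho : (κ → ℝ) → ℝ} {L : NNReal}
    (hL : LipschitzWith L rho) (hLa : ∀ x, 0 < rho x ↔ x ∈ La) (hb : Bornology.IsBounded La) :
    ∃ F : Set (Bx κ), BoxFoam La F (min (dl κ 3 / 2) (1 / 3)) 3 ∧
      (∀ C ∈ F, ∀ x ∈ C.set, C.sz ≤ rho x) ∧
      (∀ C ∈ F, ∀ x ∈ C.set, min (rho x) u ≤ 3 * (1 + L) * C.sz) ∧
      (∀ C ∈ F, Dy o u M C) := by
  classical
  obtain ⟨R, hR⟩ := hb.subset_closedBall (0 : κ → ℝ)
  obtain ⟨n, hn⟩ := pow_unbounded_of_one_lt ((max R 0 + ‖o‖) / u) (show (1 : ℝ) < 2 by norm_num)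
  set S : ℝ := u * 2 ^ n with hS
  have hS0 : 0 < S := by positivity
  have hS1 : u ≤ S := by
    have : (1 : ℝ) ≤ 2 ^ n := one_le_pow₀ (by norm_num)
    nlinarith
  have hSR : max R 0 + ‖o‖ ≤ S := by
    rw [div_lt_iff₀ hu] at hn
    rw [hS]; linarith
  have hSk : u * (2 : ℝ) ^ (-(-(n : ℤ))) = S := by rw [neg_neg, zpow_natCast]
  let Q : Bx κ := ⟨fun i => o i - S, fun i => o i + S⟩
  have hQ : Q.Pos := fun i => by simp only [Q]; linarith
  have hside : ∀ i, Q.side i = 2 * S := fun i => by simp only [Q, Bx.side]; ring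
  have hsz : Q.sz = 2 * S := hside _
  have hsq : ∀ i, Q.sz ≤ 3 * Q.side i := by
    intro i; rw [hsz, hside]; linarith
  have hdy : Dy o u M Q := by
    refine ⟨-(n : ℤ), ?_, fun i => ⟨-1, 1, ?_, ?_⟩⟩
    · rw [hSk, hsz]; nlinarith
    · rw [hSk]; simp only [Q]; push_cast; ring
    · rw [hSk]; simp only [Q]; push_cast; ring
  obtain ⟨F, h1, h2, h3, h4, h5, h6⟩ := exists_foam_dy (κ0 := 3) le_rfl (o := o) hu hM
    (P0 := {Q}) (δ0 := 1 / 3)
    (by norm_num) (by simpa using hQ) (by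
      intro B hB C hC i
      rw [Finset.mem_singleton] at hB hC
      subst hB; subst hC
      exact hsq i) (inv_single hQ (by norm_num) hsq) hL hLa (by
      intro x hx
      refine ⟨Q, Finset.mem_singleton_self _, Bx.mem_set.2 fun i => ?_⟩
      have h6 := hR hx
      rw [Metric.mem_closedBall, dist_zero_right] at h6
      have h7 := norm_le_pi_norm x i
      have h7' := norm_le_pi_norm o i
      rw [Real.norm_eq_abs] at h7 h7'
      have h8 : |x i| ≤ max R 0 := h7.trans (h6.trans (le_max_left _ _))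
      have h9 := abs_le.1 h8
      have h10 := abs_le.1 h7'
      simp only [Q]
      constructor <;> linarith [h9.1, h9.2, h10.1, h10.2]) (by simpa using hdy)
  refine ⟨F, h1, h2, fun C hC x hx => ?_, h6⟩
  rcases h3 C hC with h6 | h6
  · rw [Finset.mem_singleton] at h6
    subst h6
    rw [hsz]
    have h7 : (0 : ℝ) ≤ L := L.2
    refine (min_le_right _ _).trans ?_
    nlinarith
  · exact (min_le_left _ _).trans (h6 x hx)

/-- the finest admissible level -/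
theorem exists_max_level {A s : ℝ} (hA : 0 < A) (hs : 0 < s) {k0 : ℤ}
    (h0 : s ≤ A * (2 : ℝ) ^ (-k0)) : ∃ k : ℤ, k0 ≤ k ∧ s ≤ A * (2 : ℝ) ^ (-k) ∧
      ∀ k' : ℤ, s ≤ A * (2 : ℝ) ^ (-k') → k' ≤ k := by
  classical
  have hex : ∃ n : ℕ, A * (2 : ℝ) ^ (-(k0 + n)) < s := by
    obtain ⟨n, hn⟩ := exists_pow_lt_of_lt_one (show 0 < s / (A * (2 : ℝ) ^ (-k0)) by
      positivity) (show (1 / 2 : ℝ) < 1 by norm_num)
    refine ⟨n, ?_⟩
    rw [lt_div_iff₀ (by positivity)] at hn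
    have h2 : (2 : ℝ) ^ (-(k0 + n)) = (1 / 2) ^ n * (2 : ℝ) ^ (-k0) := by
      rw [neg_add, zpow_add₀ (by norm_num), mul_comm, zpow_neg _ (n : ℤ), zpow_natCast, one_div,
        inv_pow]
    rw [h2]
    calc A * ((1 / 2) ^ n * (2 : ℝ) ^ (-k0)) = (1 / 2) ^ n * (A * (2 : ℝ) ^ (-k0)) := by ring
      _ < s := hn
  have hn0 : Nat.find hex ≠ 0 := by
    intro h2
    have h3 := Nat.find_spec hex
    rw [h2] at h3
    simp only [Nat.cast_zero, add_zero] at h3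
    linarith
  obtain ⟨n, hn⟩ := Nat.exists_eq_succ_of_ne_zero hn0
  have h2 := Nat.find_spec hex
  rw [hn] at h2
  have h3 := Nat.find_min hex (m := n) (by omega)
  push Not at h3
  refine ⟨k0 + n, by omega, h3, fun k' hk' => ?_⟩
  by_contra hlt
  push Not at hlt
  have h4 : (2 : ℝ) ^ (-k') ≤ (2 : ℝ) ^ (-(k0 + ((n.succ : ℕ) : ℤ))) :=
    zpow_le_zpow_right₀ (by norm_num) (by push_cast; omega)
  have h5 : A * (2 : ℝ) ^ (-k') ≤ A * (2 : ℝ) ^ (-(k0 + ((n.succ : ℕ) : ℤ))) :=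
    mul_le_mul_of_nonneg_left h4 hA.le
  linarith

/-- **one grid for a brick and its neighbours**: bounded integer corners -/
theorem Dy.star {κ : Type*} [Fintype κ] [Nonempty κ] {La : Set (κ → ℝ)} {F : Set (Bx κ)}
    {δ κ0 : ℝ} (BF : BoxFoam La F δ κ0) {R : ℝ} (hR : 1 ≤ R) (hcmp : Cmp F R) {o : κ → ℝ}
    {u M : ℝ} (hu : 0 < u) (hM : 0 < M) (hdy : ∀ C ∈ F, Dy o u M C) (c : F) :
    ∃ (k : ℤ) (z : κ → ℤ), c.1.sz ≤ R * M * (u * (2 : ℝ) ^ (-k)) ∧
      (∀ i, c.1.lo i = o i + z i * (u * (2 : ℝ) ^ (-k))) ∧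
      ∀ c' : F, (Pc F c ∩ Pc F c').Nonempty → ∀ i, ∃ m n : ℤ,
        |(m : ℝ)| ≤ 2 * R ^ 2 * M ∧ |(n : ℝ)| ≤ 2 * R ^ 2 * M ∧
        c'.1.lo i = o i + ((z i : ℝ) + m) * (u * (2 : ℝ) ^ (-k)) ∧
        c'.1.hi i = o i + ((z i : ℝ) + n) * (u * (2 : ℝ) ^ (-k)) := by
  classical
  have hs : 0 < c.1.sz := Bx.sz_pos (BF.pos _ c.2)
  have hgen : ∀ c' : F, (Pc F c ∩ Pc F c').Nonempty → ∃ k' : ℤ,
      c.1.sz ≤ R * M * u * (2 : ℝ) ^ (-k') ∧ ∀ i, ∃ m n : ℤ,
        c'.1.lo i = o i + m * (u * (2 : ℝ) ^ (-k')) ∧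
        c'.1.hi i = o i + n * (u * (2 : ℝ) ^ (-k')) := by
    intro c' hc'
    obtain ⟨k', h1, h2⟩ := hdy _ c'.2
    refine ⟨k', ?_, h2⟩
    have h3 := hcmp c c' hc'
    have h4 : R * c'.1.sz ≤ R * (M * (u * (2 : ℝ) ^ (-k'))) :=
      mul_le_mul_of_nonneg_left h1 (by linarith)
    calc c.1.sz ≤ R * c'.1.sz := h3
      _ ≤ R * (M * (u * (2 : ℝ) ^ (-k'))) := h4
      _ = R * M * u * (2 : ℝ) ^ (-k') := by ring
  have hcc : (Pc F c ∩ Pc F c).Nonempty :=
    ⟨c.1.lo, Bx.mem_set.2 fun i => ⟨le_rfl, (BF.pos _ c.2 i).le⟩,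
      Bx.mem_set.2 fun i => ⟨le_rfl, (BF.pos _ c.2 i).le⟩⟩
  obtain ⟨k0, h0, h0'⟩ := hgen c hcc
  obtain ⟨k, hk0, hk1, hk2⟩ := exists_max_level (by positivity : 0 < R * M * u) hs h0
  set w : ℝ := u * (2 : ℝ) ^ (-k) with hw
  have hw0 : 0 < w := by positivity
  have hall : ∀ c' : F, (Pc F c ∩ Pc F c').Nonempty → ∀ i, ∃ m n : ℤ,
      c'.1.lo i = o i + m * w ∧ c'.1.hi i = o i + n * w := by
    intro c' hc' i
    obtain ⟨k', h1, h2⟩ := hgen c' hc'
    obtain ⟨m, n, e1, e2⟩ := h2 i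
    obtain ⟨m', hm'⟩ := grid_mono (u := u) (hk2 k' h1) m
    obtain ⟨n', hn'⟩ := grid_mono (u := u) (hk2 k' h1) n
    exact ⟨m', n', by rw [e1, hm'], by rw [e2, hn']⟩
  have hz : ∀ i, ∃ z : ℤ, c.1.lo i = o i + z * w := fun i => by
    obtain ⟨m, n, e1, -⟩ := hall c hcc i
    exact ⟨m, e1⟩
  choose z hz using hz
  have hcs : c.1.sz ≤ R * M * w := by rw [hw]; linarith
  refine ⟨k, z, hcs, hz, fun c' hc' i => ?_⟩
  obtain ⟨m, n, e1, e2⟩ := hall c' hc' i
  have hcmp' : c'.1.sz ≤ R * c.1.sz := by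
    refine hcmp c' c ?_
    rwa [inter_comm]
  have hR2 : R * M * w ≤ R ^ 2 * M * w := by
    have : R * M * w * 1 ≤ R * M * w * R := mul_le_mul_of_nonneg_left hR (by positivity)
    calc R * M * w = R * M * w * 1 := by ring
      _ ≤ R * M * w * R := this
      _ = R ^ 2 * M * w := by ring
  have hc's : c'.1.sz ≤ R ^ 2 * M * w := by
    have : R * c.1.sz ≤ R * (R * M * w) := mul_le_mul_of_nonneg_left hcs (by linarith)
    calc c'.1.sz ≤ R * (R * M * w) := hcmp'.trans this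
      _ = R ^ 2 * M * w := by ring
  obtain ⟨x, hx, hx'⟩ := hc'
  have a1 := Bx.mem_set.1 hx i
  have a2 := Bx.mem_set.1 hx' i
  have s1 : c.1.hi i - c.1.lo i ≤ c.1.sz := c.1.side_le_sz i
  have s2 : c'.1.hi i - c'.1.lo i ≤ c'.1.sz := c'.1.side_le_sz i
  have hzi := hz i
  refine ⟨m - z i, n - z i, ?_, ?_, ?_, ?_⟩
  · have h5 : ((m - z i : ℤ) : ℝ) * w = c'.1.lo i - c.1.lo i := by
      rw [e1, hzi]; push_cast; ring
    have h6 : |((m - z i : ℤ) : ℝ)| * w ≤ 2 * R ^ 2 * M * w := by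
      rw [← abs_of_pos hw0, ← abs_mul, abs_of_pos hw0, h5, abs_le]
      constructor <;> linarith [a1.1, a1.2, a2.1, a2.2]
    exact le_of_mul_le_mul_right h6 hw0
  · have h5 : ((n - z i : ℤ) : ℝ) * w = c'.1.hi i - c.1.lo i := by
      rw [e2, hzi]; push_cast; ring
    have h6 : |((n - z i : ℤ) : ℝ)| * w ≤ 2 * R ^ 2 * M * w := by
      rw [← abs_of_pos hw0, ← abs_mul, abs_of_pos hw0, h5, abs_le]
      constructor <;> linarith [a1.1, a1.2, a2.1, a2.2]
    exact le_of_mul_le_mul_right h6 hw0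
  · rw [e1]; push_cast; ring
  · rw [e2]; push_cast; ring

end Crest.Agent.R096.Bsp_628
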