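import Crest.Agent.R096.Bsp5_628

/-!
# Row 96, U1 / FOAM-EX (helper628), part 6: diagonal maps, the start pattern of crossing logs

`Bx.aff a L Q` = image of the box under `x ↦ a + L x` (diagonal, `0 < L i`).
`exists_foam_logs`: a graded foam which contains all the crossing logs (scale `h`, length `2q h`,
offset `a`) that are small enough for `rho`.
-/

set_option autoImplicit false
set_option linter.unusedSectionVars false

open Set

namespace Crest.Agent.R096.Bsp_628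

section Aff

variable {κ : Type*}

/-- the diagonal affine map -/
def dmap (a L : κ → ℝ) (x : κ → ℝ) : κ → ℝ := fun i => a i + L i * x i

/-- image of a box under a diagonal affine map -/
def Bx.aff (a L : κ → ℝ) (Q : Bx κ) : Bx κ := ⟨dmap a L Q.lo, dmap a L Q.hi⟩

/-- the inverse diagonal map -/
theorem dmap_inv {a L : κ → ℝ} (hL : ∀ i, 0 < L i) (x : κ → ℝ) :
    dmap (fun i => -(a i / L i)) (fun i => (L i)⁻¹) (dmap a L x) = x := by
  funext i
  have := (hL i).ne'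
  simp only [dmap]
  field_simp
  ring

theorem dmap_inv' {a L : κ → ℝ} (hL : ∀ i, 0 < L i) (x : κ → ℝ) :
    dmap a L (dmap (fun i => -(a i / L i)) (fun i => (L i)⁻¹) x) = x := by
  funext i
  have := (hL i).ne'
  simp only [dmap]
  field_simp
  ring

theorem Bx.ext' {Q P : Bx κ} (h1 : Q.lo = P.lo) (h2 : Q.hi = P.hi) : Q = P := by
  cases Q; cases P; simp_all

theorem aff_inj {a L : κ → ℝ} (hL : ∀ i, 0 < L i) : Function.Injective (Bx.aff a L) := by
  intro Q P h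
  have h1 := congrArg Bx.lo h
  have h2 := congrArg Bx.hi h
  simp only [Bx.aff] at h1 h2
  refine Bx.ext' ?_ ?_
  · rw [← dmap_inv (a := a) hL Q.lo, h1, dmap_inv hL]
  · rw [← dmap_inv (a := a) hL Q.hi, h2, dmap_inv hL]

theorem aff_side (a L : κ → ℝ) (Q : Bx κ) (i : κ) : (Q.aff a L).side i = L i * Q.side i := by
  simp only [Bx.side, Bx.aff, dmap]; ring

theorem aff_pos {a L : κ → ℝ} (hL : ∀ i, 0 < L i) {Q : Bx κ} (hQ : Q.Pos) : (Q.aff a L).Pos := by
  intro i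
  have := mul_lt_mul_of_pos_left (hQ i) (hL i)
  simp only [Bx.aff, dmap]
  linarith

theorem mem_aff {a L : κ → ℝ} (hL : ∀ i, 0 < L i) {Q : Bx κ} {x : κ → ℝ} :
    dmap a L x ∈ (Q.aff a L).set ↔ x ∈ Q.set := by
  rw [Bx.mem_set, Bx.mem_set]
  refine forall_congr' fun i => ?_
  simp only [Bx.aff, dmap]
  constructor
  · intro h
    exact ⟨le_of_mul_le_mul_left (by linarith [h.1]) (hL i),
      le_of_mul_le_mul_left (by linarith [h.2]) (hL i)⟩
  · intro h
    exact ⟨by linarith [mul_le_mul_of_nonneg_left h.1 (hL i).le],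
      by linarith [mul_le_mul_of_nonneg_left h.2 (hL i).le]⟩

theorem aff_set {a L : κ → ℝ} (hL : ∀ i, 0 < L i) (Q : Bx κ) :
    (Q.aff a L).set = dmap a L '' Q.set := by
  ext y
  constructor
  · intro hy
    refine ⟨dmap (fun i => -(a i / L i)) (fun i => (L i)⁻¹) y, ?_, dmap_inv' hL y⟩
    rw [← mem_aff (a := a) hL, dmap_inv' hL]
    exact hy
  · rintro ⟨x, hx, rfl⟩
    exact (mem_aff hL).2 hx

/-- finite families of images come from finite families -/
theorem exists_preim [DecidableEq (Bx κ)] {a L : κ → ℝ} {P : Set (Bx κ)}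
    {A : Finset (Bx κ)} (hA : (↑A : Set (Bx κ)) ⊆ Bx.aff a L '' P) :
    ∃ A0 : Finset (Bx κ), (↑A0 : Set (Bx κ)) ⊆ P ∧ A = A0.image (Bx.aff a L) := by
  have h1 : ∀ X ∈ A, ∃ Y ∈ P, Y.aff a L = X := fun X hX => hA (by exact_mod_cast hX)
  choose f hf1 hf2 using h1
  refine ⟨A.attach.image (fun X => f X.1 X.2), ?_, ?_⟩
  · intro Y hY
    rw [Finset.coe_image] at hY
    obtain ⟨X, -, rfl⟩ := hY
    exact hf1 X.1 X.2
  · ext X
    rw [Finset.mem_image]
    constructor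
    · intro hX
      exact ⟨f X hX, Finset.mem_image.2 ⟨⟨X, hX⟩, Finset.mem_attach _ _, rfl⟩, hf2 X hX⟩
    · rintro ⟨Y, hY, rfl⟩
      obtain ⟨X, -, rfl⟩ := Finset.mem_image.1 hY
      rw [hf2]
      exact X.2

theorem meet_image [DecidableEq (Bx κ)] {a L : κ → ℝ} (hL : ∀ i, 0 < L i) {A0 : Finset (Bx κ)}
    (h : Meet (A0.image (Bx.aff a L))) : Meet A0 := by
  intro B hB C hC k
  have h1 := h _ (Finset.mem_image_of_mem _ hB) _ (Finset.mem_image_of_mem _ hC) k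
  simp only [Bx.aff, dmap] at h1
  exact le_of_mul_le_mul_left (by linarith) (hL k)

theorem deg_image [DecidableEq (Bx κ)] {a L : κ → ℝ} (hL : ∀ i, 0 < L i) {A0 : Finset (Bx κ)}
    (k : κ) : Deg (A0.image (Bx.aff a L)) k ↔ Deg A0 k := by
  constructor
  · rintro ⟨X, hX, Y, hY, hXY⟩
    obtain ⟨X0, hX0, rfl⟩ := Finset.mem_image.1 hX
    obtain ⟨Y0, hY0, rfl⟩ := Finset.mem_image.1 hY
    refine ⟨X0, hX0, Y0, hY0, ?_⟩
    simp only [Bx.aff, dmap] at hXY
    exact mul_left_cancel₀ (hL k).ne' (by linarith)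
  · rintro ⟨X, hX, Y, hY, hXY⟩
    exact ⟨_, Finset.mem_image_of_mem _ hX, _, Finset.mem_image_of_mem _ hY, by
      simp only [Bx.aff, dmap, hXY]⟩

theorem INVa.aff [Fintype κ] {η h : ℝ} {P : Set (Bx κ)} (hP : INVa η P) (hη : 0 ≤ η)
    {a L : κ → ℝ} (hh : 0 < h) (hL : ∀ i, h ≤ L i) : INVa (h * η) (Bx.aff a L '' P) := by
  classical
  have hL0 : ∀ i, 0 < L i := fun i => hh.trans_le (hL i)
  intro A hA hne hm
  obtain ⟨A0, hA0, rfl⟩ := exists_preim hA
  obtain ⟨h1, h2⟩ := hP A0 hA0 (Finset.image_nonempty.1 hne) (meet_image hL0 hm)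
  refine ⟨?_, ?_⟩
  · rw [Finset.card_image_of_injective _ (aff_inj hL0), ← h1]
    congr 2
    ext k
    exact deg_image hL0 k
  · intro k hk B hB C hC
    obtain ⟨B0, hB0, rfl⟩ := Finset.mem_image.1 hB
    obtain ⟨C0, hC0, rfl⟩ := Finset.mem_image.1 hC
    have h3 := h2 k (fun hd => hk ((deg_image hL0 k).2 hd)) B0 hB0 C0 hC0
    simp only [Bx.aff, dmap]
    have h4 := mul_le_mul_of_nonneg_left h3 (hL0 k).le
    have h5 := mul_le_mul_of_nonneg_right (hL k) hη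
    nlinarith

theorem INV.aff [Fintype κ] [Nonempty κ] {δ l Λ : ℝ} {P : Set (Bx κ)} (hP : INV δ P) (hδ : 0 ≤ δ)
    (hpos : ∀ B ∈ P, B.Pos) {a L : κ → ℝ} (hl : 0 < l) (hL : ∀ i, l ≤ L i) (hL' : ∀ i, L i ≤ Λ) :
    INV (δ * (l / Λ)) (Bx.aff a L '' P) := by
  classical
  have hL0 : ∀ i, 0 < L i := fun i => hl.trans_le (hL i)
  have hΛ : 0 < Λ := (hL0 (Classical.arbitrary κ)).trans_le (hL' _)
  intro A hA hne hm
  obtain ⟨A0, hA0, rfl⟩ := exists_preim hA
  obtain ⟨h1, h2⟩ := hP A0 hA0 (Finset.image_nonempty.1 hne) (meet_image hL0 hm)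
  refine ⟨?_, ?_⟩
  · rw [Finset.card_image_of_injective _ (aff_inj hL0), ← h1]
    congr 2
    ext k
    exact deg_image hL0 k
  · intro k hk
    obtain ⟨D, hD, h3⟩ := h2 k (fun hd => hk ((deg_image hL0 k).2 hd))
    refine ⟨D.aff a L, Finset.mem_image_of_mem _ hD, fun B hB C hC => ?_⟩
    obtain ⟨B0, hB0, rfl⟩ := Finset.mem_image.1 hB
    obtain ⟨C0, hC0, rfl⟩ := Finset.mem_image.1 hC
    have h4 := mul_le_mul_of_nonneg_left (h3 B0 hB0 C0 hC0) (hL0 k).le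
    have hDs : 0 < D.sz := Bx.sz_pos (hpos D (hA0 (by exact_mod_cast hD)))
    have h5 : (D.aff a L).sz ≤ Λ * D.sz := by
      have h6 : (D.aff a L).sz = L (ax (D.aff a L)) * D.side (ax (D.aff a L)) := by
        rw [← aff_side a L]; rfl
      rw [h6]
      exact mul_le_mul (hL' _) (D.side_le_sz _)
        (Bx.side_pos (hpos D (hA0 (by exact_mod_cast hD))) _).le hΛ.le
    have h6 : δ * (l / Λ) * (D.aff a L).sz ≤ l * (δ * D.sz) := by
      calc δ * (l / Λ) * (D.aff a L).sz ≤ δ * (l / Λ) * (Λ * D.sz) :=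
            mul_le_mul_of_nonneg_left h5 (by positivity)
        _ = l * (δ * D.sz) := by field_simp
    have h7 : l * (δ * D.sz) ≤ L k * (δ * D.sz) :=
      mul_le_mul_of_nonneg_right (hL k) (by positivity)
    simp only [Bx.aff, dmap]
    simp only [Bx.aff] at h6
    nlinarith

/-- the diagonal image of a box foam -/
theorem BoxFoam.aff [Fintype κ] [Nonempty κ] [DecidableEq κ] {La : Set (κ → ℝ)} {F : Set (Bx κ)}
    {δ κ0 : ℝ} (h : BoxFoam La F δ κ0) (hδ : 0 ≤ δ) (hκ0 : 0 ≤ κ0) {a L : κ → ℝ} {l Λ : ℝ}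
    (hl : 0 < l) (hL : ∀ i, l ≤ L i) (hL' : ∀ i, L i ≤ Λ) :
    BoxFoam (dmap a L '' La) (Bx.aff a L '' F) (δ * (l / Λ)) (κ0 * (Λ / l)) := by
  classical
  have hL0 : ∀ i, 0 < L i := fun i => hl.trans_le (hL i)
  have hΛ : 0 < Λ := (hL0 (Classical.arbitrary κ)).trans_le (hL' _)
  refine ⟨h.countable.image _, ?_, ?_, ?_, ?_, h.inv.aff hδ h.pos hl hL hL', ?_⟩
  · rintro C ⟨C0, hC0, rfl⟩
    exact aff_pos hL0 (h.pos C0 hC0)
  · rintro C ⟨C0, hC0, rfl⟩
    rw [aff_set hL0]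
    exact Set.image_mono (h.sub C0 hC0)
  · rintro _ ⟨x, hx, rfl⟩
    obtain ⟨C, hC, hxC⟩ := h.cov x hx
    exact ⟨C.aff a L, ⟨C, hC, rfl⟩, (mem_aff hL0).2 hxC⟩
  · rintro _ ⟨x, hx, rfl⟩
    obtain ⟨r, hr, hfin⟩ := h.lf x hx
    refine ⟨l * r, by positivity, (hfin.image (Bx.aff a L)).subset ?_⟩
    rintro _ ⟨⟨C, hC, rfl⟩, y, hy, hyb⟩
    refine ⟨C, ⟨hC, dmap (fun i => -(a i / L i)) (fun i => (L i)⁻¹) y, ?_, ?_⟩, rfl⟩
    · rw [← mem_aff (a := a) hL0, dmap_inv' hL0]; exact hy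
    · rw [Metric.mem_ball, dist_pi_lt_iff hr]
      intro i
      have h1 : dist (y i) (dmap a L x i) < l * r :=
        (dist_le_pi_dist _ _ i).trans_lt (Metric.mem_ball.1 hyb)
      rw [Real.dist_eq] at h1 ⊢
      have h2 : dmap (fun i => -(a i / L i)) (fun i => (L i)⁻¹) y i - x i =
          (L i)⁻¹ * (y i - dmap a L x i) := by
        have := (hL0 i).ne'
        simp only [dmap]; field_simp; ring
      rw [h2, abs_mul, abs_of_pos (inv_pos.2 (hL0 i)), inv_mul_lt_iff₀ (hL0 i)]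
      have h3 : l * r ≤ L i * r := mul_le_mul_of_nonneg_right (hL i) hr.le
      linarith
  · rintro _ ⟨C, hC, rfl⟩ i
    have hCp := h.pos C hC
    rw [aff_side]
    have h5 : (C.aff a L).sz ≤ Λ * C.sz := by
      have h6 : (C.aff a L).sz = L (ax (C.aff a L)) * C.side (ax (C.aff a L)) := by
        rw [← aff_side a L]; rfl
      rw [h6]
      exact mul_le_mul (hL' _) (C.side_le_sz _) (Bx.side_pos hCp _).le hΛ.le
    have h7 : Λ * C.sz ≤ Λ * (κ0 * C.side i) := mul_le_mul_of_nonneg_left (h.asp C hC i) hΛ.le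
    have h8 : κ0 * (Λ / l) * (l * C.side i) ≤ κ0 * (Λ / l) * (L i * C.side i) :=
      mul_le_mul_of_nonneg_left
        (mul_le_mul_of_nonneg_right (hL i) (Bx.side_pos hCp i).le) (by positivity)
    have h9 : κ0 * (Λ / l) * (l * C.side i) = Λ * (κ0 * C.side i) := by field_simp
    linarith

end Aff

/-! ### the start pattern -/

/-- the crossing log in the scale `h` with offset `a` -/
noncomputable def logA (a : Fin 3 → ℝ) (h : ℝ) (q : ℕ) (k j m : ℤ) : Bx (Fin 3) :=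
  (logB q k j m).aff a (fun _ => h)

theorem logB_index {q : ℕ} (hq : 1 ≤ q) {k j m : ℤ} {y : Fin 3 → ℝ} {R : ℝ}
    (hy : y ∈ (logB q k j m).set) (hR : ∀ i, |y i| ≤ R) :
    |(k : ℝ)| ≤ R + 1 ∧ |(j : ℝ)| ≤ R + 1 ∧ |(m : ℝ)| ≤ R + 3 := by
  have hq' : (1 : ℝ) ≤ q := by exact_mod_cast hq
  have hR0 : 0 ≤ R := (abs_nonneg _).trans (hR 0)
  have key : ∀ u v : ℝ, |u| ≤ R → |v| ≤ R → (j : ℝ) ≤ v → v ≤ j + 1 →
      1 / 2 + q * ((j : ℝ) + 2 * m) ≤ u → u ≤ 1 / 2 + q * ((j : ℝ) + 2 * m + 2) →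
      |(j : ℝ)| ≤ R + 1 ∧ |(m : ℝ)| ≤ R + 3 := by
    intro u v hu hv h1 h2 h3 h4
    rw [abs_le] at hu hv ⊢
    have hj : -(R + 1) ≤ (j : ℝ) ∧ (j : ℝ) ≤ R + 1 := ⟨by linarith, by linarith⟩
    refine ⟨hj, ?_⟩
    rw [abs_le]
    constructor
    · by_contra hcon
      push Not at hcon
      have h5 : (j : ℝ) + 2 * m + 2 < -(R + 3) := by linarith
      have h6 : (q : ℝ) * ((j : ℝ) + 2 * m + 2) ≤ 1 * ((j : ℝ) + 2 * m + 2) := by
        have h7 : (j : ℝ) + 2 * m + 2 ≤ 0 := by linarith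
        nlinarith
      linarith [hu.1]
    · by_contra hcon
      push Not at hcon
      have h5 : R + 3 < (j : ℝ) + 2 * m := by linarith
      have h6 : 1 * ((j : ℝ) + 2 * m) ≤ (q : ℝ) * ((j : ℝ) + 2 * m) := by
        have h7 : 0 ≤ (j : ℝ) + 2 * m := by linarith
        nlinarith
      linarith [hu.2]
  rw [Bx.mem_set] at hy
  have hk : |(k : ℝ)| ≤ R + 1 := by
    have h1 := hy 2
    rw [logB_lo2, logB_hi2] at h1
    have h2 := abs_le.1 (hR 2)
    rw [abs_le]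
    constructor <;> linarith [h1.1, h1.2, h2.1, h2.2]
  refine ⟨hk, ?_⟩
  by_cases hev : Even k
  · have h0 := hy 0
    have h1 := hy 1
    rw [logB_even hev] at h0 h1
    simp only [Matrix.cons_val_zero, Matrix.cons_val_one] at h0 h1
    exact key (y 0) (y 1) (hR 0) (hR 1) h1.1 h1.2 h0.1 h0.2
  · have h0 := hy 0
    have h1 := hy 1
    rw [logB_odd hev] at h0 h1
    simp only [Matrix.cons_val_zero, Matrix.cons_val_one] at h0 h1
    exact key (y 1) (y 0) (hR 1) (hR 0) h0.1 h0.2 h1.1 h1.2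

/-- **graded foam which contains the crossing logs** (scale `h`, length `2 q h`, offset `a`) -/
theorem exists_foam_logs {q : ℕ} (hq : 1 ≤ q) (a : Fin 3 → ℝ) {h : ℝ} (hh : 0 < h)
    {La : Set (Fin 3 → ℝ)} (hb : Bornology.IsBounded La) {rho : (Fin 3 → ℝ) → ℝ} {L : NNReal}
    (hL : LipschitzWith L rho) (hLa : ∀ x, 0 < rho x ↔ x ∈ La) :
    ∃ F : Set (Bx (Fin 3)),
      BoxFoam La F (min (dl (Fin 3) (max 3 (2 * q))) (1 / (4 * q))) (max 3 (2 * q)) ∧
      (∀ C ∈ F, ∀ x ∈ C.set, C.sz ≤ rho x) ∧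
      (∀ C ∈ F, (∃ k j m, C = logA a h q k j m) ∨ ∀ x ∈ C.set, rho x ≤ 3 * (1 + L) * C.sz) ∧
      (∀ k j m, (∀ x ∈ (logA a h q k j m).set, (logA a h q k j m).sz ≤ rho x) →
        logA a h q k j m ∈ F) ∧
      (∀ C ∈ F, ∃ k j m, C.Le (logA a h q k j m)) := by
  classical
  have hq' : (1 : ℝ) ≤ q := by exact_mod_cast hq
  have hL0 : ∀ i : Fin 3, 0 < (fun _ : Fin 3 => h) i := fun _ => hh
  -- bounds in the normalised coordinates
  obtain ⟨R0, hR0⟩ := hb.subset_closedBall (0 : Fin 3 → ℝ)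
  obtain ⟨R, hR⟩ : ∃ R : ℝ, ∀ x ∈ La, ∀ i,
      |dmap (fun i => -(a i / h)) (fun _ => h⁻¹) x i| ≤ R := by
    refine ⟨‖a‖ / h + |R0| / h, fun x hx i => ?_⟩
    have h1 := hR0 hx
    rw [Metric.mem_closedBall, dist_zero_right] at h1
    have h2 : |x i| ≤ |R0| := by
      have := norm_le_pi_norm x i
      rw [Real.norm_eq_abs] at this
      exact this.trans (h1.trans (le_abs_self _))
    have h3 : |a i| ≤ ‖a‖ := by
      have := norm_le_pi_norm a i
      rwa [Real.norm_eq_abs] at this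
    simp only [dmap]
    calc |-(a i / h) + h⁻¹ * x i| ≤ |-(a i / h)| + |h⁻¹ * x i| := abs_add_le _ _
      _ = |a i| / h + |x i| / h := by
          rw [abs_neg, abs_div, abs_mul, abs_inv, abs_of_pos hh]; ring
      _ ≤ ‖a‖ / h + |R0| / h := by gcongr
  set N : ℤ := ⌈|R|⌉ + 3 with hN
  have hNR : |R| + 3 ≤ (N : ℝ) := by
    rw [hN]; push_cast; linarith [Int.le_ceil |R|]
  set P0 : Finset (Bx (Fin 3)) := (Finset.Icc (-N) N ×ˢ Finset.Icc (-N) N ×ˢ Finset.Icc (-N) N).image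
    (fun t => logA a h q t.1 t.2.1 t.2.2) with hP0
  -- logs which meet `La` are in `P0`
  have hin : ∀ k j m x, x ∈ La → x ∈ (logA a h q k j m).set → logA a h q k j m ∈ P0 := by
    intro k j m x hx hxC
    have h1 : dmap (fun i => -(a i / h)) (fun _ => h⁻¹) x ∈ (logB q k j m).set := by
      rw [← mem_aff (a := a) (L := fun _ => h) hL0]
      have := dmap_inv' (a := a) (L := fun _ => h) hL0 x
      rw [this]
      exact hxC
    obtain ⟨h2, h3, h4⟩ := logB_index hq h1 (hR x hx)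
    have h5 := le_abs_self R
    have hk : |k| ≤ N := by
      have : |(k : ℝ)| ≤ (N : ℝ) := by linarith
      exact_mod_cast this
    have hj : |j| ≤ N := by
      have : |(j : ℝ)| ≤ (N : ℝ) := by linarith
      exact_mod_cast this
    have hm : |m| ≤ N := by
      have : |(m : ℝ)| ≤ (N : ℝ) := by linarith
      exact_mod_cast this
    rw [hP0, Finset.mem_image]
    refine ⟨(k, j, m), ?_, rfl⟩
    rw [Finset.mem_product, Finset.mem_product, Finset.mem_Icc, Finset.mem_Icc, Finset.mem_Icc]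
    exact ⟨abs_le.1 hk, abs_le.1 hj, abs_le.1 hm⟩
  have hmemP : ∀ B ∈ P0, ∃ k j m, B = logA a h q k j m := by
    intro B hB
    rw [hP0, Finset.mem_image] at hB
    obtain ⟨t, -, rfl⟩ := hB
    exact ⟨_, _, _, rfl⟩
  have hside : ∀ k j m i, h ≤ (logA a h q k j m).side i ∧ (logA a h q k j m).side i ≤ 2 * q * h := by
    intro k j m i
    have h1 := logB_side q hq k j m i
    rw [logA, aff_side]
    constructor
    · nlinarith [h1.1]
    · nlinarith [h1.2]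
  have hposA : ∀ k j m, (logA a h q k j m).Pos := fun k j m =>
    aff_pos hL0 (logB_pos q hq k j m)
  have hinv : INV (1 / (4 * (q : ℝ))) (↑P0 : Set (Bx (Fin 3))) := by
    have h1 : INVa (h * (1 / 2)) (Bx.aff a (fun _ => h) '' Logs q) :=
      (logs_inv q hq).aff (by norm_num) hh (fun _ => le_rfl)
    have h2 : INVa (h * (1 / 2)) (↑P0 : Set (Bx (Fin 3))) := by
      refine h1.mono fun B hB => ?_
      obtain ⟨k, j, m, rfl⟩ := hmemP B (by exact_mod_cast hB)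
      exact ⟨logB q k j m, ⟨k, j, m, rfl⟩, rfl⟩
    have h3 := h2.toINV (S := 2 * q * h) (by positivity) (by positivity) (fun B hB => by
      obtain ⟨k, j, m, rfl⟩ := hmemP B (by exact_mod_cast hB)
      exact (hside k j m _).2)
    have h4 : h * (1 / 2) / (2 * q * h) = 1 / (4 * (q : ℝ)) := by field_simp; ring
    rw [h4] at h3
    exact h3
  have hcov : ∀ x ∈ La, ∃ B ∈ P0, x ∈ B.set := by
    intro x hx
    obtain ⟨k, j, m, hy⟩ := logs_cover q hq (dmap (fun i => -(a i / h)) (fun _ => h⁻¹) x)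
    have h1 : x ∈ (logA a h q k j m).set := by
      rw [← mem_aff (a := a) (L := fun _ => h) hL0] at hy
      have := dmap_inv' (a := a) (L := fun _ => h) hL0 x
      rw [this] at hy
      exact hy
    exact ⟨_, hin k j m x hx h1, h1⟩
  obtain ⟨F, f1, f2, f3, f4, f5⟩ := exists_foam (κ0 := max 3 (2 * (q : ℝ))) (le_max_left _ _)
    (P0 := P0) (δ0 := 1 / (4 * (q : ℝ))) (by positivity)
    (fun B hB => by
      obtain ⟨k, j, m, rfl⟩ := hmemP B hB
      exact hposA k j m)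
    (fun B hB C hC i => by
      obtain ⟨k, j, m, rfl⟩ := hmemP B hB
      obtain ⟨k', j', m', rfl⟩ := hmemP C hC
      have h1 := (hside k j m (ax (logA a h q k j m))).2
      have h2 := (hside k' j' m' i).1
      have h3 : (2 * (q : ℝ)) ≤ max 3 (2 * (q : ℝ)) := le_max_right _ _
      calc (logA a h q k j m).sz ≤ 2 * q * h := h1
        _ ≤ max 3 (2 * (q : ℝ)) * h := mul_le_mul_of_nonneg_right h3 hh.le
        _ ≤ max 3 (2 * (q : ℝ)) * (logA a h q k' j' m').side i :=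
            mul_le_mul_of_nonneg_left h2 (by positivity))
    hinv hL hLa hcov
  refine ⟨F, f1, f2, ?_, ?_, ?_⟩
  · intro C hC
    rcases f3 C hC with h1 | h1
    · exact Or.inl (hmemP C h1)
    · exact Or.inr h1
  · intro k j m hD
    refine f4 _ ?_ hD
    have h1 : (logA a h q k j m).lo ∈ (logA a h q k j m).set :=
      Bx.mem_set.2 fun i => ⟨le_rfl, (hposA k j m i).le⟩
    have h2 := hD _ h1
    exact hin k j m _ ((hLa _).1 ((Bx.sz_pos (hposA k j m)).trans_le h2)) h1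
  · intro C hC
    obtain ⟨B, hB, hCB⟩ := f5 C hC
    obtain ⟨k, j, m, rfl⟩ := hmemP B hB
    exact ⟨k, j, m, hCB⟩

/-! ### horizontal faces -/

/-- the unit interval `[i, i+1]` of the row `j` is inside one log, unless `2q ∣ i - q j` -/
theorem uncut {q : ℕ} (hq : 1 ≤ q) (i j : ℤ) (h : ¬ (2 * (q : ℤ)) ∣ i - q * j) :
    ∃ m : ℤ, q * (j + 2 * m) + 1 ≤ i ∧ i + 1 ≤ q * (j + 2 * m + 2) := by
  have hq0 : (0 : ℤ) < 2 * q := by omega
  set r : ℤ := (i - q * j) % (2 * q) with hr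
  set m : ℤ := (i - q * j) / (2 * q) with hm
  have h1 : i - q * j = 2 * q * m + r := by
    rw [hr, hm]; exact (Int.mul_ediv_add_emod _ _).symm
  have h2 : 0 ≤ r := Int.emod_nonneg _ hq0.ne'
  have h3 : r < 2 * q := Int.emod_lt_of_pos _ hq0
  have h4 : r ≠ 0 := by
    intro h0
    exact h (Int.dvd_of_emod_eq_zero h0)
  have h5 : 1 ≤ r := by omega
  refine ⟨m, ?_, ?_⟩
  · nlinarith
  · nlinarith

/-- **the horizontal faces are unit squares**: `e` an even slab (x-logs), `o` an odd slab (y-logs) -/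
theorem face_square {q : ℕ} {e o i j m m' : ℤ} (he : Even e) (ho : ¬ Even o)
    (heo : o = e + 1 ∨ e = o + 1)
    (h1 : q * (j + 2 * m) + 1 ≤ i) (h2 : i + 1 ≤ q * (j + 2 * m + 2))
    (h3 : q * (i + 2 * m') + 1 ≤ j) (h4 : j + 1 ≤ q * (i + 2 * m' + 2)) :
    (logB q e j m).set ∩ (logB q o i m').set =
      Icc ![(i : ℝ), (j : ℝ), ((max e o : ℤ) : ℝ)] ![(i : ℝ) + 1, (j : ℝ) + 1, ((max e o : ℤ) : ℝ)] := by
  have g1 : (q : ℝ) * (j + 2 * m) + 1 ≤ i := by exact_mod_cast h1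
  have g2 : (i : ℝ) + 1 ≤ q * (j + 2 * m + 2) := by exact_mod_cast h2
  have g3 : (q : ℝ) * (i + 2 * m') + 1 ≤ j := by exact_mod_cast h3
  have g4 : (j : ℝ) + 1 ≤ q * (i + 2 * m' + 2) := by exact_mod_cast h4
  ext x
  rw [Set.mem_inter_iff, Bx.mem_set, Bx.mem_set, logB_even he, logB_odd ho, Set.mem_Icc,
    Pi.le_def, Pi.le_def]
  simp only [Fin.forall_fin_succ, Fin.succ_zero_eq_one, Fin.succ_one_eq_two, Matrix.cons_val_zero,
    Matrix.cons_val_one, Matrix.cons_val, IsEmpty.forall_iff, and_true]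
  rcases heo with rfl | rfl
  · have hmax : max e (e + 1) = e + 1 := by omega
    rw [hmax]
    push_cast
    constructor
    · rintro ⟨⟨⟨a1, a2⟩, ⟨a3, a4⟩, a5, a6⟩, ⟨b1, b2⟩, ⟨b3, b4⟩, b5, b6⟩
      exact ⟨⟨b1, a3, b5⟩, b2, a4, a6⟩
    · rintro ⟨⟨a1, a2, a3⟩, b1, b2, b3⟩
      refine ⟨⟨⟨by linarith, by linarith⟩, ⟨a2, b2⟩, by linarith, b3⟩,
        ⟨a1, b1⟩, ⟨by linarith, by linarith⟩, a3, by linarith⟩
  · have hmax : max (o + 1) o = o + 1 := by omega
    rw [hmax]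
    push_cast
    constructor
    · rintro ⟨⟨⟨a1, a2⟩, ⟨a3, a4⟩, a5, a6⟩, ⟨b1, b2⟩, ⟨b3, b4⟩, b5, b6⟩
      exact ⟨⟨b1, a3, a5⟩, b2, a4, b6⟩
    · rintro ⟨⟨a1, a2, a3⟩, b1, b2, b3⟩
      refine ⟨⟨⟨by linarith, by linarith⟩, ⟨a2, b2⟩, a3, by linarith⟩,
        ⟨a1, b1⟩, ⟨by linarith, by linarith⟩, by linarith, b3⟩

end Crest.Agent.R096.Bsp_628
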