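import Crest.Agent.R096.Dic5_582
import Crest.Agent.R096.Bsp9_628
import Crest.Agent.R96.Push17_899

/-!
# Row 96, NO0-FRONT: 899's push + log foam + dictionary in one theorem
-/

set_option autoImplicit false
set_option linter.unusedSectionVars false
set_option linter.unusedVariables false
open Set Filter Topology MeasureTheory
open scoped NNReal ENNReal

noncomputable section

namespace Crest.Agent.R096.Dic6_582

open Crest.Agent.R096.Brk1_582 Crest.Agent.R096.Brk2_582 Crest.Agent.R096.Brk3_582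
open Crest.Agent.R096.Brk4_582 Crest.Agent.R096.Brk5_582
open Crest.Agent.R096.Bsp_628 Crest.Agent.R096.Log1_582 Crest.Agent.R096.Log2_582
open Crest.Agent.R096.Log3_582 Crest.Agent.R096.Dic2_582
open Crest.Agent.R096.Dic3_582 Crest.Agent.R096.Dic4_582
open Crest.Agent.R96.Push_899 (EE co SE IE Box coreBF Mid Psi Pun Wall Foam0 FoamC Uni IsStretch
  Lands Hole foamBF foamHole toBox brk foam0_brk brk_asp countable_brk mem_SE_brk co_injective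
  mem_co_image continuous_co uni_logA pushNO_lt' pushNO_ge')
open Crest.Agent.R96.Acl_392 Crest.Agent.R96.Sob1_199 Crest.Agent.R96.Sob2_199
  Crest.Agent.R96.Sob3_199 Crest.Agent.R96.Sob4_199 Crest.Agent.R96.Sob5_199

/-- the separation constant of the log foam -/
def dF (q : ℕ) : ℝ := min (dl (Fin 3) (max 3 (2 * q)) / 2) (1 / (4 * q))
/-- the shape constant of the log foam -/
def kF (q : ℕ) : ℝ := max 3 (2 * q)

theorem dF_pos {q : ℕ} (hq : 1 ≤ q) : 0 < dF q := by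
  have hq' : (1 : ℝ) ≤ q := by exact_mod_cast hq
  exact lt_min (half_pos (dl_pos _)) (by positivity)

theorem one_le_kF (q : ℕ) : 1 ≤ kF q := le_trans (by norm_num) (le_max_left _ _)

/-- **the graded log foam of `Λ`**, `K₀` = region where all cells are logs -/
structure Fr (q : ℕ) (Λ K₀ : Set (EE (Fin 3))) (M s : ℝ) (a : Fin 3 → ℝ)
    (F : Set (Bx (Fin 3))) : Prop where
  q1 : 1 ≤ q
  s0 : 0 < s
  foam : BoxFoam (co '' Λ) F (dF q) (kF q)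
  rho : ∀ C ∈ F, ∀ x ∈ C.set, 32 * C.sz ≤ Metric.infDist x (co '' Λ)ᶜ
  cmp : Cmp F 6
  size : ∀ C ∈ F, C.sz ≤ 2 * q * s
  logs : LogsNear F q a s (co '' K₀) (M * s)
  dy : ∀ C ∈ F, Dy a s (max (4 / dl (Fin 3) (max 3 (2 * q))) (4 * q)) C

/-- translates of the horizontal walls by multiples of `s / 2` do not matter -/
theorem uni_translate {a : Fin 3 → ℝ} {s : ℝ} {α β : ℕ} {Q : Box (Fin 3)}
    (U : Uni 2 (fun i => a i + s * (![(α : ℝ), β, 0] : Fin 3 → ℝ) i) s Q) : Uni 2 a s Q := by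
  obtain ⟨⟨n, hn⟩, h2, h3, h4⟩ := U
  refine ⟨⟨n, ?_⟩, h2, fun i hi => ?_, fun i hi => ?_⟩
  · simpa using hn
  · obtain ⟨m, hm⟩ := h3 i hi
    fin_cases i
    · exact ⟨2 * α + m, by simp at hm ⊢; rw [hm]; ring⟩
    · exact ⟨2 * β + m, by simp at hm ⊢; rw [hm]; ring⟩
    · exact absurd rfl hi
  · obtain ⟨m, hm⟩ := h4 i hi
    fin_cases i
    · exact ⟨2 * α + m, by simp at hm ⊢; rw [hm]; ring⟩
    · exact ⟨2 * β + m, by simp at hm ⊢; rw [hm]; ring⟩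
    · exact absurd rfl hi

theorem mem_Nr_of {K₀ : Set (EE (Fin 3))} {y y₀ : EE (Fin 3)} (h₀ : y₀ ∈ K₀) {r : ℝ}
    (hr : ‖y - y₀‖ ≤ r) : co y ∈ Nr (co '' K₀) r :=
  ⟨co y₀, ⟨y₀, h₀, rfl⟩, (norm_ofLp_sub_le y y₀).trans hr⟩

/-- the weak derivative does not see the cells -/
theorem foamC_sub {Λ : Set (EE (Fin 3))} {I : Type*} {Q C B : I → Box (Fin 3)}
    {P : Finset (Fin 3)} {c₀ : ℝ} {κ ρ : I → ℝ} (hC : FoamC Λ Q C B P c₀ κ ρ) {y : EE (Fin 3)}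
    (hy : y ∈ Pun Λ B) : Psi Q C B y ∈ Λ := by
  obtain ⟨c, hc⟩ := mem_iUnion.1 (hC.Psi_wall hy)
  exact hC.cells.sub c hc.1

namespace Fr

variable {q : ℕ} {Λ K₀ : Set (EE (Fin 3))} {M s : ℝ} {a : Fin 3 → ℝ} {F : Set (Bx (Fin 3))}

theorem isLog (h : Fr q Λ K₀ M s a F) (hM : 1 < M) {c : F} {y : EE (Fin 3)}
    (hy : y ∈ SE (brk h.foam c)) {y₀ : EE (Fin 3)} (h₀ : y₀ ∈ K₀) (hd : ‖y - y₀‖ ≤ s) :
    IsLog q a s c.1 := by
  have h1 : co y ∈ Pc F c := (mem_SE_brk h.foam).1 hy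
  exact isLog_of_near h.foam h.q1 h.s0 h.logs h1 (r' := s) (by nlinarith [h.s0])
    (mem_Nr_of h₀ hd)

theorem uni_of_log (h : Fr q Λ K₀ M s a F) {c : F} (hc : IsLog q a s c.1) :
    Uni 2 a s (brk h.foam c) := by
  obtain ⟨k, j, m, he⟩ := hc
  have h1 : brk h.foam c = toBox (logA a s q k j m) (he ▸ h.foam.pos c.1 c.2) := by
    unfold brk
    congr 1
  rw [h1]
  exact uni_logA

end Fr

variable {E : Type*} [NormedAddCommGroup E] [NormedSpace ℝ E] [FiniteDimensional ℝ E]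
  [MeasurableSpace E] [BorelSpace E] {μ : Measure E} [μ.IsAddHaarMeasure]

section dict

variable {q : ℕ} {Λ K₀ : Set (EE (Fin 3))} {M s : ℝ} {a : Fin 3 → ℝ} {F : Set (Bx (Fin 3))}
  {I : Type*}

/-- the pushed map; `z` = centres of the cores, `B` = holes -/
def FF (Q B : I → Box (Fin 3)) (z : I → Fin 3 → ℝ) (S : EE (Fin 3) ≃ₜ EE (Fin 3))
    (φ : E → EE (Fin 3)) (x : E) : EE (Fin 3) :=
  Psi Q (fun c => coreBF (Q c) (z c)) B (S (φ x))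

/-- its domain -/
def OO (Ω : Set E) (Λ : Set (EE (Fin 3))) (B : I → Box (Fin 3)) (S : EE (Fin 3) ≃ₜ EE (Fin 3))
    (φ : E → EE (Fin 3)) : Set E := Ω ∩ (fun x => S (φ x)) ⁻¹' (Pun Λ B)

theorem stretch_mem {S : EE (Fin 3) ≃ₜ EE (Fin 3)} (hS : IsStretch 2 Λ s S) {y : EE (Fin 3)} :
    S y ∈ Λ ↔ y ∈ Λ := by
  constructor
  · intro h
    rw [← hS.image] at h
    obtain ⟨y', hy', he⟩ := h
    rwa [← S.injective he]
  · intro h
    rw [← hS.image]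
    exact ⟨y, h, rfl⟩

variable {Q B : I → Box (Fin 3)} {z : I → Fin 3 → ℝ} {S : EE (Fin 3) ≃ₜ EE (Fin 3)}
  {φ : E → EE (Fin 3)} {Ω : Set E} {c₀ : ℝ} {κ ρ : I → ℝ}

theorem isOpen_OO (hC : FoamC Λ Q (fun c => coreBF (Q c) (z c)) B ∅ c₀ κ ρ) (hΛ : IsOpen Λ)
    (hΩ : IsOpen Ω) (hφ : ContinuousOn φ Ω) : IsOpen (OO Ω Λ B S φ) :=
  (S.continuous.comp_continuousOn hφ).isOpen_inter_preimage hΩ (hC.isOpen_pun hΛ)

theorem continuousOn_FF (hC : FoamC Λ Q (fun c => coreBF (Q c) (z c)) B ∅ c₀ κ ρ)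
    (hΛ : IsOpen Λ) (hφ : ContinuousOn φ Ω) :
    ContinuousOn (FF Q B z S φ) (OO Ω Λ B S φ) :=
  (hC.continuousOn_Psi hΛ).comp
    ((S.continuous.comp_continuousOn hφ).mono inter_subset_left) fun x hx => hx.2

theorem mapsTo_FF (hC : FoamC Λ Q (fun c => coreBF (Q c) (z c)) B ∅ c₀ κ ρ) :
    MapsTo (FF Q B z S φ) (OO Ω Λ B S φ) Λ := fun x hx => foamC_sub hC hx.2

/-- where the pushed map lands off the bad set -/
theorem lands_at (h : Fr q Λ K₀ M s a F) (hM : 1 < M) (hm : MapsTo φ Ω Λ)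
    (hS : IsStretch 2 Λ s S) {X : Set E} (hXK : ∀ x ∈ Ω \ X, φ x ∈ K₀) {B : F → Box (Fin 3)}
    {z : F → Fin 3 → ℝ}
    (hland : ∀ x ∈ Ω \ X, ∀ c, S (φ x) ∈ SE (brk h.foam c) →
      Lands 2 s (brk h.foam c) (φ x) (FF (brk h.foam) B z S φ x)) {x : E} (hx : x ∈ Ω \ X) :
    (∃ c, IsLog q a s c.1 ∧ S (φ x) ∈ SE (brk h.foam c) ∧
      Lands 2 s (brk h.foam c) (φ x) (FF (brk h.foam) B z S φ x)) ∧
    co (FF (brk h.foam) B z S φ x) ∈ Nr (co '' K₀) (s / 2) ∧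
    (∃ n : ℤ, FF (brk h.foam) B z S φ x 2 = a 2 + s * n) ∧
    ∀ i, |FF (brk h.foam) B z S φ x i - φ x i| ≤ s / 2 := by
  have h1 : S (φ x) ∈ Λ := (stretch_mem hS).2 (hm hx.1)
  obtain ⟨c, hc⟩ := (foam0_brk h.foam).cells.cover _ h1
  have hl := h.isLog hM hc (hXK x hx) (hS.near _)
  have hL := hland x hx c hc
  refine ⟨⟨c, hl, hc, hL⟩, ⟨co (φ x), ⟨_, hXK x hx, rfl⟩, ?_⟩, ?_, hL.near⟩
  · refine (pi_norm_le_iff_of_nonneg (by linarith [h.s0])).2 fun i => ?_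
    exact hL.near i
  · obtain ⟨⟨n, hn⟩, h2, -, -⟩ := h.uni_of_log hl
    rcases hL.wall with hw | hw
    · exact ⟨n, by rw [hw, hn]; ring⟩
    · exact ⟨n + 1, by rw [hw, h2, hn]; push_cast; ring⟩

/-- **dictionary for the pushed map** -/
theorem dict_FF (h : Fr q Λ K₀ M s a F) (hM : 3 ≤ M) (hΛ : IsOpen Λ) (hΩ : IsOpen Ω)
    (hφ : ContinuousOn φ Ω) (hm : MapsTo φ Ω Λ)
    (hS : IsStretch 2 Λ s S) {X : Set E} (hXK : ∀ x ∈ Ω \ X, φ x ∈ K₀) {B : F → Box (Fin 3)}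
    {z : F → Fin 3 → ℝ} {κ ρ : F → ℝ}
    (hC : FoamC Λ (brk h.foam) (fun c => coreBF (brk h.foam c) (z c)) B ∅ c₀ κ ρ)
    (hland : ∀ x ∈ Ω \ X, ∀ c, S (φ x) ∈ SE (brk h.foam c) →
      Lands 2 s (brk h.foam c) (φ x) (FF (brk h.foam) B z S φ x))
    {u : E} {D : E → EE (Fin 3)}
    (hD : VWD (OO Ω Λ B S φ) μ (FF (brk h.foam) B z S φ) D u) {g : F → E → ℝ}
    (hg : ∀ c, WD (OO Ω Λ B S φ) μ (fun x => s3 F c (FF (brk h.foam) B z S φ x)) (g c) u)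
    {w : F → ℝ≥0∞} (hw : ∀ c : F, IsLog q a s c.1 → w c = ENNReal.ofReal (s / 2))
    (hw' : ∀ c : F, w c ≤ ENNReal.ofReal c.1.sz) (v : EE (Fin 3)) {p : ℝ} (hp : 1 ≤ p) :
    ∫⁻ x in OO Ω Λ B S φ, (∑' c, w c * ‖g c x‖ₑ - (‖v 0‖ₑ + ‖v 1‖ₑ)) ^ p ∂μ ≤
      (2 ^ p + 64 ^ p * 2 ^ (p - 1) + ENNReal.ofReal (3 * (Cs 3 (dF q) 6 * 6)) ^ p * 2 ^ (p - 1)) *
        ∫⁻ x in OO Ω Λ B S φ, ‖D x - v‖ₑ ^ p ∂μ +
      (64 ^ p * 2 ^ (p - 1) * (‖v‖ₑ ^ p * (μ.restrict Ω) (Strip q a s φ)) +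
        ENNReal.ofReal (3 * (Cs 3 (dF q) 6 * 6)) ^ p * 2 ^ (p - 1) *
          (‖v‖ₑ ^ p * μ (Ω ∩ X))) := by
  have hs := h.s0
  have hOO : IsOpen (OO Ω Λ B S φ) := isOpen_OO hC hΛ hΩ hφ
  have hco : IsOpen (co '' Λ) := by
    have : co '' Λ = (WithLp.toLp 2 : (Fin 3 → ℝ) → EE (Fin 3)) ⁻¹' Λ := by
      ext y
      constructor
      · rintro ⟨x, hx, rfl⟩; exact hx
      · intro hy; exact ⟨_, hy, rfl⟩
    rw [this]
    exact hΛ.preimage (PiLp.continuous_toLp 2 _)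
  have key := dict_energy (μ := μ) h.foam hco (dF_pos h.q1) (by norm_num : (0 : ℝ) < 6) h.cmp
    h.q1 hs h.logs (r' := s / 2) (by nlinarith) hOO hD (continuousOn_FF hC hΛ hφ)
    (fun x hx => mem_co_image.2 (mapsTo_FF hC hx)) hg hw hw' v (X := X) (φ := φ)
    (fun x hx hxX => (lands_at h (by linarith) hm hS hXK hland ⟨hx.1, hxX⟩).2.1)
    (fun x hx hxX => (lands_at h (by linarith) hm hS hXK hland ⟨hx.1, hxX⟩).2.2.1)
    (fun x hx hxX => by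
      have h1 := (lands_at h (by linarith) hm hS hXK hland ⟨hx.1, hxX⟩).2.2.2
      exact ⟨(h1 0).trans (by linarith), (h1 1).trans (by linarith)⟩) hp
  refine key.trans (add_le_add le_rfl (add_le_add ?_ ?_))
  · refine mul_le_mul' le_rfl (mul_le_mul' le_rfl ?_)
    calc μ (OO Ω Λ B S φ ∩ Strip q a s φ) ≤ μ (Strip q a s φ ∩ Ω) :=
          measure_mono fun x hx => ⟨hx.2, hx.1.1⟩
      _ ≤ _ := Measure.le_restrict_apply _ _
  · gcongr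
    exact fun x hx => hx.1

end dict

/-! ### constants -/

theorem exists_mul_le (C : ℝ≥0∞) {ε : ℝ≥0∞} (hC : C ≠ ⊤) (hε : 0 < ε) :
    ∃ d, 0 < d ∧ C * d ≤ ε := by
  refine ⟨ε / (C + 1), ENNReal.div_pos hε.ne' (by finiteness), ?_⟩
  calc C * (ε / (C + 1)) ≤ (C + 1) * (ε / (C + 1)) := by gcongr; exact le_self_add
    _ ≤ ε := ENNReal.mul_div_le

theorem exists_div_le (C : ℝ≥0∞) {ε : ℝ≥0∞} (hC : C ≠ ⊤) (hε : 0 < ε) :
    ∃ q : ℕ, 1 ≤ q ∧ C / q ≤ ε := by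
  have h1 : C / ε ≠ ⊤ := (ENNReal.div_lt_top hC hε.ne').ne
  obtain ⟨n, hn⟩ := ENNReal.exists_nat_gt h1
  refine ⟨n + 1, by omega, ?_⟩
  have h2 : C / ε ≤ ((n + 1 : ℕ) : ℝ≥0∞) := hn.le.trans (by push_cast; exact le_self_add)
  have h0 : ((n + 1 : ℕ) : ℝ≥0∞) ≠ 0 := by exact_mod_cast Nat.succ_ne_zero n
  by_cases hεt : ε = ⊤
  · rw [hεt]; exact le_top
  rw [ENNReal.div_le_iff h0 (ENNReal.natCast_ne_top _)]
  rwa [ENNReal.div_le_iff hε.ne' hεt, mul_comm] at h2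

/-- the three constants -/
def C0 (p : ℝ) : ℝ≥0∞ := 64 ^ p * 2 ^ (p - 1)
def C1 (q : ℕ) (p : ℝ) : ℝ≥0∞ := ENNReal.ofReal (3 * (Cs 3 (dF q) 6 * 6)) ^ p * 2 ^ (p - 1)

theorem C0_ne_top {p : ℝ} (hp : 1 ≤ p) : C0 p ≠ ⊤ :=
  ENNReal.mul_ne_top (ENNReal.rpow_ne_top_of_nonneg (by linarith) (by norm_num))
    (ENNReal.rpow_ne_top_of_nonneg (by linarith) (by norm_num))

theorem C1_ne_top {p : ℝ} (hp : 1 ≤ p) (q : ℕ) : C1 q p ≠ ⊤ :=
  ENNReal.mul_ne_top (ENNReal.rpow_ne_top_of_nonneg (by linarith) ENNReal.ofReal_ne_top)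
    (ENNReal.rpow_ne_top_of_nonneg (by linarith) (by norm_num))

/-- the choice of `q` and `d` -/
theorem exists_consts {p : ℝ} (hp : 1 ≤ p) (V : ℝ≥0∞) (hV : V ≠ ⊤) {ε : ℝ≥0∞} (hε : 0 < ε) :
    ∃ q : ℕ, 1 ≤ q ∧ ∃ d : ℝ≥0∞, 0 < d ∧ d ≤ ε ∧ 6 / (q : ℝ≥0∞) ≤ ε ∧
      (2 ^ p + C0 p + C1 q p) * d + (C0 p * (V * (6 / (q : ℝ≥0∞))) + C1 q p * (V * d)) ≤ ε := by
  have hε3 : 0 < ε / 3 := ENNReal.div_pos hε.ne' (by norm_num)
  have hc0 := C0_ne_top hp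
  obtain ⟨q, hq, hq1⟩ := exists_div_le (6 * (1 + C0 p * V)) (by finiteness) hε3
  have hc1 := C1_ne_top hp q
  have h2p : (2 : ℝ≥0∞) ^ p ≠ ⊤ := ENNReal.rpow_ne_top_of_nonneg (by linarith) (by norm_num)
  obtain ⟨d, hd, hd1⟩ := exists_mul_le (1 + (2 ^ p + C0 p + C1 q p) + C1 q p * V)
    (by finiteness) hε3
  have e3 : ε / 3 ≤ ε := ENNReal.div_le_of_le_mul' (by
    calc ε = 1 * ε := (one_mul _).symm
      _ ≤ 3 * ε := by gcongr; norm_num)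
  refine ⟨q, hq, d, hd, ?_, ?_, ?_⟩
  · calc d = 1 * d := (one_mul d).symm
      _ ≤ (1 + (2 ^ p + C0 p + C1 q p) + C1 q p * V) * d := by
          gcongr
          rw [add_assoc]
          exact le_self_add
      _ ≤ ε := hd1.trans e3
  · calc 6 / (q : ℝ≥0∞) = 6 * 1 / q := by rw [mul_one]
      _ ≤ 6 * (1 + C0 p * V) / q := by gcongr; exact le_self_add
      _ ≤ ε := hq1.trans e3
  · have h1 : (2 ^ p + C0 p + C1 q p) * d ≤ ε / 3 := by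
      refine le_trans (mul_le_mul' ?_ le_rfl) hd1
      calc 2 ^ p + C0 p + C1 q p ≤ 1 + (2 ^ p + C0 p + C1 q p) := le_add_self
        _ ≤ _ := le_self_add
    have h2 : C0 p * (V * (6 / (q : ℝ≥0∞))) ≤ ε / 3 := by
      refine le_trans ?_ hq1
      calc C0 p * (V * (6 / (q : ℝ≥0∞))) = 6 * (C0 p * V) / q := by
            simp only [div_eq_mul_inv]; ring
        _ ≤ 6 * (1 + C0 p * V) / q := by gcongr; exact le_add_self
    have h3 : C1 q p * (V * d) ≤ ε / 3 := by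
      refine le_trans ?_ hd1
      rw [← mul_assoc]
      gcongr
      exact le_add_self
    calc _ ≤ ε / 3 + (ε / 3 + ε / 3) := add_le_add h1 (add_le_add h2 h3)
      _ = ε := by rw [← add_assoc]; exact ENNReal.add_thirds ε

/-- the graded log foam exists -/
theorem exists_Fr {q : ℕ} (hq : 1 ≤ q) {Λ K₀ : Set (EE (Fin 3))} (hΛ : IsOpen Λ)
    (hb : Bornology.IsBounded Λ) (hK : IsCompact K₀) (hKΛ : K₀ ⊆ Λ) {M : ℝ} (hM : 0 ≤ M) :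
    ∃ s₀ > 0, ∀ s, 0 < s → s < s₀ → ∀ a : Fin 3 → ℝ, ∃ F, Fr q Λ K₀ M s a F := by
  have hco : IsOpen (co '' Λ) := by
    have : co '' Λ = (WithLp.toLp 2 : (Fin 3 → ℝ) → EE (Fin 3)) ⁻¹' Λ := by
      ext y
      constructor
      · rintro ⟨x, hx, rfl⟩; exact hx
      · intro hy; exact ⟨_, hy, rfl⟩
    rw [this]
    exact hΛ.preimage (PiLp.continuous_toLp 2 _)
  have hbd : Bornology.IsBounded (co '' Λ) := by
    have h1 : LipschitzWith 1 (co : EE (Fin 3) → Fin 3 → ℝ) := by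
      refine LipschitzWith.of_dist_le_mul fun x y => ?_
      rw [dist_eq_norm, dist_eq_norm, NNReal.coe_one, one_mul]
      exact norm_ofLp_sub_le x y
    exact h1.isBounded_image hb
  have hne : (co '' Λ)ᶜ.Nonempty := by
    rw [nonempty_compl]
    intro h
    rw [h] at hbd
    exact NormedSpace.unbounded_univ ℝ (Fin 3 → ℝ) hbd
  have hcl : IsClosed (co '' Λ)ᶜ := hco.isClosed_compl
  obtain ⟨s₀, hs₀, H⟩ := exists_log_foam_dy hq hco hbd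
    (rho := fun y => Metric.infDist y (co '' Λ)ᶜ / 32) (L := 1)
    (by
      refine LipschitzWith.of_dist_le_mul fun x y => ?_
      have h1 := (Metric.lipschitz_infDist_pt (co '' Λ)ᶜ).dist_le_mul x y
      rw [Real.dist_eq] at h1 ⊢
      rw [← sub_div, abs_div, abs_of_pos (by norm_num : (0 : ℝ) < 32)]
      refine (div_le_self (abs_nonneg _) (by norm_num)).trans h1)
    (fun x => by
      rw [div_pos_iff_of_pos_right (by norm_num : (0 : ℝ) < 32), ← hcl.notMem_iff_infDist_pos hne]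
      simp) (hK.image continuous_co) (image_mono hKΛ) hM (le_max_left _ _) (le_max_right _ _)
  refine ⟨s₀, hs₀, fun s hs hss a => ?_⟩
  obtain ⟨F, BF, h1, h2, h3, h4, h5, h6⟩ := (H s hs hss).2 a
  refine ⟨F, hq, hs, BF, fun C hC x hx => by linarith [h1 C hC x hx], ?_, h3, h5, h6⟩
  have : (3 * (1 + ((1 : ℝ≥0) : ℝ))) = 6 := by norm_num
  rwa [this] at h2

/-- **FRONT OF NO0, `p < 3`**: 899's stretch and push, 628's / my log foam, dictionary. -/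
theorem front_lt {p : ℝ} (hp : 1 ≤ p) (hp3 : p < 3) {J : Type*} [Fintype J]
    (v : J → EE (Fin 3)) (hv : ∀ l, v l 2 = 0) {ε : ℝ≥0∞} (hε : 0 < ε) :
    ∃ q : ℕ, 1 ≤ q ∧ ∃ m : ℕ, 0 < m ∧ ∃ δ : ℝ≥0∞, 0 < δ ∧
      ∀ (Ω : Set E) (Λ : Set (EE (Fin 3))) (φ : E → EE (Fin 3)) (e : J → E)
        (D : J → E → EE (Fin 3)),
        IsOpen Ω → Ω.Nonempty → μ Ω ≠ ⊤ → IsOpen Λ → Bornology.IsBounded Λ →
        ContinuousOn φ Ω → MapsTo φ Ω Λ → (∀ l, VWD Ω μ φ (D l) (e l)) →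
        ∫⁻ x in Ω, ∑ l, ‖D l x - v l‖ₑ ^ p ∂μ ≤ δ * μ Ω →
      ∃ K₀ : Set (EE (Fin 3)), IsCompact K₀ ∧ K₀ ⊆ Λ ∧ ∀ M : ℝ, 3 ≤ M → ∃ s₀ > 0,
      ∀ s, 0 < s → s < s₀ → ∀ b : Fin 3 → ℝ, ∃ a : Fin 3 → ℝ,
        (∀ i, ∃ j : ℕ, a i = b i + j * (s / (2 * m))) ∧
      ∃ S : EE (Fin 3) ≃ₜ EE (Fin 3), IsStretch 2 Λ s S ∧
      ∃ X ⊆ Ω, MeasurableSet X ∧ μ X ≤ ε * μ Ω ∧ (∀ x ∈ Ω \ X, φ x ∈ K₀) ∧
      (μ.restrict Ω) (Strip q a s φ) ≤ ε * μ Ω ∧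
      ∃ (F : Set (Bx (Fin 3))) (h : Fr q Λ K₀ M s a F),
      ∀ N : Set (Fin 3 → ℝ), volume N = 0 →
      ∃ z : F → Fin 3 → ℝ, (∀ c, z c ∈ Mid (brk h.foam c)) ∧ (∀ c, z c ∉ N) ∧
        (∀ x ∈ Ω \ X, ∀ c, S (φ x) ∈ SE (brk h.foam c) → Lands 2 s (brk h.foam c) (φ x)
          (FF (brk h.foam) (fun c => Box.pt (z c)) z S φ x)) ∧
        ∀ (D' : J → E → EE (Fin 3)),
          (∀ l, VWD (OO Ω Λ (fun c => Box.pt (z c)) S φ) μ
            (FF (brk h.foam) (fun c => Box.pt (z c)) z S φ) (D' l) (e l)) →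
          ∫⁻ x in OO Ω Λ (fun c => Box.pt (z c)) S φ, ∑ l, ‖D' l x - v l‖ₑ ^ p ∂μ ≤ ε * μ Ω ∧
          ∀ (l : J) (w : F → ℝ≥0∞), (∀ c : F, IsLog q a s c.1 → w c = ENNReal.ofReal (s / 2)) →
            (∀ c : F, w c ≤ ENNReal.ofReal c.1.sz) → ∀ g : F → E → ℝ,
            (∀ c, WD (OO Ω Λ (fun c => Box.pt (z c)) S φ) μ
              (fun x => s3 F c (FF (brk h.foam) (fun c => Box.pt (z c)) z S φ x)) (g c) (e l)) →
            ∫⁻ x in OO Ω Λ (fun c => Box.pt (z c)) S φ,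
              (∑' c, w c * ‖g c x‖ₑ - (‖v l 0‖ₑ + ‖v l 1‖ₑ)) ^ p ∂μ ≤ ε * μ Ω := by
  have hV : (∑ l, ‖v l‖ₑ ^ p) ≠ ⊤ := by
    refine ENNReal.sum_ne_top.2 fun l _ => ENNReal.rpow_ne_top_of_nonneg (by linarith) (by simp)
  obtain ⟨q, hq, d, hd, hdε, hqε, hcon⟩ := exists_consts hp _ hV hε
  obtain ⟨m, hm, δ, hδ, H⟩ := pushNO_lt' (μ := μ) (E := E) 2 (one_le_kF q) (by linarith)
    (by rw [Fintype.card_fin]; exact_mod_cast hp3) v hv hd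
  refine ⟨q, hq, m, hm, δ, hδ, ?_⟩
  intro Ω Λ φ e D hΩ hΩne hΩf hΛ hΛb hφ hmaps hD hG
  obtain ⟨K₀, hK, hKΛ, s₁, hs₁, H1⟩ := H Ω Λ φ e D hΩ hΩne hΩf hΛ hφ hmaps hD hG
  refine ⟨K₀, hK, hKΛ, fun M hM => ?_⟩
  obtain ⟨s₂, hs₂, H2⟩ := exists_Fr hq hΛ hΛb hK hKΛ (M := M) (by linarith)
  refine ⟨min s₁ s₂, lt_min hs₁ hs₂, fun s hs hss b => ?_⟩
  obtain ⟨a, ha, S, hS, X, hXΩ, hXm, hX, hXK, H3⟩ := H1 s hs (hss.trans_le (min_le_left _ _)) b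
  have hφm : ∀ i, AEMeasurable (fun x => φ x i) (μ.restrict Ω) := fun i =>
    (((EuclideanSpace.proj i).continuous.comp_continuousOn hφ).aestronglyMeasurable
      hΩ.measurableSet).aemeasurable
  obtain ⟨α, β, hα, hβ, hstrip⟩ := exists_translate (μ := μ) (Ω := Ω) (φ := φ) hq hs hφm a
  obtain ⟨F, hF⟩ := H2 s hs (hss.trans_le (min_le_right _ _))
    (fun i => a i + s * (![(α : ℝ), β, 0] : Fin 3 → ℝ) i)
  have hstrip' : (μ.restrict Ω) (Strip q (fun i => a i + s * (![(α : ℝ), β, 0] : Fin 3 → ℝ) i) s φ)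
      ≤ 6 / q * μ Ω := by
    refine hstrip.trans (le_of_eq ?_)
    simp only [div_eq_mul_inv]; ring
  refine ⟨fun i => a i + s * (![(α : ℝ), β, 0] : Fin 3 → ℝ) i, ?_, S, hS, X, hXΩ, hXm,
    hX.trans (by gcongr), hXK, hstrip'.trans (by gcongr), F, hF, ?_⟩
  · intro i
    obtain ⟨j, hj, he⟩ := ha i
    have hm0 : (m : ℝ) ≠ 0 := by exact_mod_cast hm.ne'
    fin_cases i
    · refine ⟨j + 2 * m * α, ?_⟩
      simp at he ⊢
      rw [he]; field_simp; ring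
    · refine ⟨j + 2 * m * β, ?_⟩
      simp at he ⊢
      rw [he]; field_simp; ring
    · refine ⟨2 * j, ?_⟩
      simp at he ⊢
      rw [he]; field_simp
  intro N hN
  have : Countable F := countable_brk hF.foam
  obtain ⟨H4, H5⟩ := H3 F (brk hF.foam) (foam0_brk hF.foam) (fun c i j => brk_asp hF.foam c i j)
    (fun c hc => by
      obtain ⟨y, hy, y₀, hy₀, hyy⟩ := hc
      exact uni_translate (hF.uni_of_log (hF.isLog (by linarith) hy hy₀ hyy)))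
  obtain ⟨z, hz, hzN, H6⟩ := H5 N hN
  have hland := H4 z hz
  refine ⟨z, hz, hzN, hland, fun D' hD' => ?_⟩
  have hE := H6 D' hD'
  refine ⟨hE.trans (by gcongr), fun l w hw hw' g hg => ?_⟩
  have hC := foamBF (one_le_kF q) (foam0_brk hF.foam) (fun c i j => brk_asp hF.foam c i j) hz
  have key := dict_FF (μ := μ) hF hM hΛ hΩ hφ hmaps hS hXK hC hland (hD' l) hg hw hw' (v l) hp
  refine key.trans ?_
  have e1 : ∫⁻ x in OO Ω Λ (fun c => Box.pt (z c)) S φ, ‖D' l x - v l‖ₑ ^ p ∂μ ≤ d * μ Ω := by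
    refine le_trans (lintegral_mono fun x => ?_) hE
    exact Finset.single_le_sum (f := fun l => ‖D' l x - v l‖ₑ ^ p) (fun _ _ => zero_le)
      (Finset.mem_univ l)
  have e2 : ‖v l‖ₑ ^ p ≤ ∑ l, ‖v l‖ₑ ^ p :=
    Finset.single_le_sum (f := fun l => ‖v l‖ₑ ^ p) (fun _ _ => zero_le) (Finset.mem_univ l)
  have e3 : μ (Ω ∩ X) ≤ d * μ Ω := (measure_mono inter_subset_right).trans hX
  calc _ ≤ (2 ^ p + C0 p + C1 q p) * (d * μ Ω) +
        (C0 p * ((∑ l, ‖v l‖ₑ ^ p) * (6 / q * μ Ω)) + C1 q p * ((∑ l, ‖v l‖ₑ ^ p) * (d * μ Ω))) :=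
        add_le_add (mul_le_mul' le_rfl e1) (add_le_add
          (mul_le_mul' le_rfl (mul_le_mul' e2 hstrip')) (mul_le_mul' le_rfl (mul_le_mul' e2 e3)))
    _ = ((2 ^ p + C0 p + C1 q p) * d + (C0 p * ((∑ l, ‖v l‖ₑ ^ p) * (6 / q)) +
        C1 q p * ((∑ l, ‖v l‖ₑ ^ p) * d))) * μ Ω := by ring
    _ ≤ ε * μ Ω := by gcongr

end Crest.Agent.R096.Dic6_582
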