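import Crest.Agent.R096.Er3_594
import Crest.Agent.R096.Dic6_582
import Crest.Agent.R96.Push20_899

/-!
Row 96 (S0127), helper798, task 2529 (NO0-PRE [P-A] of helper582): a Sobolev homeomorphism followed by
a bi-Lipschitz stretch of the target is a Sobolev homeomorphism (`SH3`).
-/

set_option autoImplicit false
set_option linter.unusedSectionVars false
set_option linter.unusedVariables false
set_option linter.style.longLine false
open Set Filter Topology MeasureTheory
open scoped NNReal ENNReal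

noncomputable section

namespace Crest.Agent.R096.Shl_798

open Crest.Agent.R96.Push_899 (EE co IsStretch LaE continuous_co)
open Crest.Agent.R96.Acl_392 Crest.Agent.R96.Sob2_199 Crest.Agent.R96.Sob4_199
  Crest.Agent.R96.Sob5_199
open Crest.Agent.R096.SkC1_961 (E3 Hom3)
open Crest.Agent.R096.Er_594 (SH3)
open Crest.Agent.R96.En10_199 (P3)

/-- a Sobolev homeomorphism followed by a homeomorphism of the target is a homeomorphism -/
theorem hom3_comp {Om La : Set E3} {f : E3 → E3} (h : Hom3 f Om La) {S : EE (Fin 3) ≃ₜ EE (Fin 3)}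
    (hS : ∀ y, S y ∈ LaE La ↔ y ∈ LaE La) : Hom3 (fun x => co (S (P3 (f x)))) Om La := by
  obtain ⟨fi, hf1, hf2, hf3, hf4, hf5, hf6⟩ := h
  have hφc : ContinuousOn (fun x => P3 (f x)) Om := P3.continuous.comp_continuousOn hf5
  have hi : ∀ y ∈ La, co (S.symm (P3 y)) ∈ La := by
    intro y hy
    have : S (S.symm (P3 y)) ∈ LaE La := by rw [S.apply_symm_apply]; exact hy
    exact (hS _).1 this
  refine ⟨fun y => fi (co (S.symm (P3 y))), ?_, ?_, ?_, ?_, ?_, ?_⟩
  · intro x hx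
    have h1 : (P3 (f x) : EE (Fin 3)) ∈ LaE La := hf1 hx
    exact (hS _).2 h1
  · intro y hy
    exact hf2 (hi y hy)
  · intro x hx
    have e : co (S.symm (P3 (co (S (P3 (f x)))))) = f x := by
      have e1 : P3 (co (S (P3 (f x)))) = S (P3 (f x)) := rfl
      rw [e1, S.symm_apply_apply]
      rfl
    change fi (co (S.symm (P3 (co (S (P3 (f x))))))) = x
    rw [e]
    exact hf3 x hx
  · intro y hy
    change co (S (P3 (f (fi (co (S.symm (P3 y))))))) = y
    rw [hf4 _ (hi y hy)]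
    have e1 : P3 (co (S.symm (P3 y))) = S.symm (P3 y) := rfl
    rw [e1, S.apply_symm_apply]
    rfl
  · exact continuous_co.comp_continuousOn (S.continuous.comp_continuousOn hφc)
  · refine hf6.comp ?_ hi
    exact (continuous_co.comp (S.symm.continuous.comp P3.continuous)).continuousOn

/-- the linear map with prescribed images of the coordinate vectors -/
def mkL (w : Fin 3 → EE (Fin 3)) : E3 →L[ℝ] E3 :=
  ∑ i, (ContinuousLinearMap.proj (R := ℝ) (φ := fun _ : Fin 3 => ℝ) i).smulRight (P3.symm (w i))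

theorem mkL_single (w : Fin 3 → EE (Fin 3)) (i : Fin 3) :
    P3 (mkL w (Pi.single i 1)) = w i := by
  have h1 : mkL w (Pi.single i 1) = P3.symm (w i) := by
    simp only [mkL, _root_.sum_apply, ContinuousLinearMap.smulRight_apply,
      ContinuousLinearMap.proj_apply]
    rw [Finset.sum_eq_single i]
    · simp
    · intro j _ hj
      simp [hj]
    · intro hi
      exact absurd (Finset.mem_univ i) hi
  rw [h1, P3.apply_symm_apply]

theorem norm_mkL_le (w : Fin 3 → EE (Fin 3)) : ‖mkL w‖ ≤ ∑ i, ‖w i‖ := by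
  refine ContinuousLinearMap.opNorm_le_bound _ (Finset.sum_nonneg fun i _ => norm_nonneg _) ?_
  intro v
  simp only [mkL, _root_.sum_apply, ContinuousLinearMap.smulRight_apply,
      ContinuousLinearMap.proj_apply]
  refine (norm_sum_le _ _).trans ?_
  rw [Finset.sum_mul]
  refine Finset.sum_le_sum fun i _ => ?_
  rw [norm_smul, mul_comm]
  have h1 : ‖P3.symm (w i)‖ ≤ ‖w i‖ := by
    refine (pi_norm_le_iff_of_nonneg (norm_nonneg _)).2 fun j => ?_
    exact PiLp.norm_apply_le (w i) j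
  exact mul_le_mul h1 (norm_le_pi_norm v i) (norm_nonneg _) (norm_nonneg _)

theorem continuous_mkL : Continuous mkL := by
  unfold mkL
  refine continuous_finsetSum _ fun i _ => ?_
  have h1 : Continuous fun w : Fin 3 → EE (Fin 3) => P3.symm (w i) :=
    P3.symm.continuous.comp (continuous_apply i)
  exact (ContinuousLinearMap.smulRightL ℝ E3 E3
    (ContinuousLinearMap.proj (R := ℝ) (φ := fun _ : Fin 3 => ℝ) i)).continuous.comp h1

/-- **[P-A] of helper582**: post-composition of a Sobolev homeomorphism with a Lipschitz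
homeomorphism of the target -/
theorem sh3_comp_lip {p : ℝ} (hp : 1 ≤ p) {Om La : Set E3} (hOm : IsOpen Om)
    (hOmf : volume Om ≠ ⊤) {f : E3 → E3} {D : E3 → E3 →L[ℝ] E3} (h : SH3 p Om La f D)
    {S : EE (Fin 3) ≃ₜ EE (Fin 3)} {K : ℝ≥0} (hK : LipschitzWith K S)
    (hS : ∀ y, S y ∈ LaE La ↔ y ∈ LaE La) :
    ∃ D1 : E3 → E3 →L[ℝ] E3, SH3 p Om La (fun x => co (S (P3 (f x)))) D1 ∧
      ∀ᵐ x, x ∈ Om → ∀ i, ‖P3 (D1 x (Pi.single i 1))‖ ≤ K * ‖P3 (D x (Pi.single i 1))‖ := by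
  have hp0 : 0 ≤ p := by linarith
  have hfc : ContinuousOn f Om := by
    obtain ⟨fi, hf1, hf2, hf3, hf4, hf5, hf6⟩ := h.homeo
    exact hf5
  have hφc : ContinuousOn (fun x => P3 (f x)) Om := P3.continuous.comp_continuousOn hfc
  have hex : ∀ i : Fin 3, ∃ D' : E3 → EE (Fin 3),
      VWD Om volume (fun x => S (P3 (f x))) D' (Pi.single i 1) ∧
        ∀ᵐ x, x ∈ Om → ‖D' x‖ ≤ K * ‖P3 (D x (Pi.single i 1))‖ := fun i =>
    comp_lip hOm (h.vwd i) hφc (S := univ) (fun x _ => mem_univ _) (hK.lipschitzOnWith (s := univ))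
  choose D' hD' hb using hex
  have hsing : ∀ (x : E3) (i : Fin 3), P3 (mkL (fun i => D' i x) (Pi.single i 1)) = D' i x :=
    fun x i => mkL_single _ i
  have hbd : ∀ᵐ x, x ∈ Om → ∀ i, ‖D' i x‖ ≤ K * ‖P3 (D x (Pi.single i 1))‖ := by
    have := ae_all_iff.2 hb
    filter_upwards [this] with x hx hxO i using hx i hxO
  refine ⟨fun x => mkL (fun i => D' i x), ⟨hom3_comp h.homeo hS, ?_, ?_, ?_, ?_⟩, ?_⟩
  · intro i
    have e : (fun x => P3 (mkL (fun i => D' i x) (Pi.single i 1))) = D' i := by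
      funext x; exact hsing x i
    rw [e]
    exact hD' i
  · have h1 : AEMeasurable (fun x => fun i => D' i x) (volume.restrict Om) :=
      aemeasurable_pi_iff.2 fun i => (hD' i).aemeas
    exact continuous_mkL.comp_aestronglyMeasurable h1.aestronglyMeasurable
  · -- energy
    set c : ℝ := 3 * (K * ‖(P3 : E3 →L[ℝ] EE (Fin 3))‖) with hc
    have hc0 : 0 ≤ c := by positivity
    have hle : ∀ᵐ x, x ∈ Om → ‖mkL (fun i => D' i x)‖ₑ ≤ ENNReal.ofReal c * ‖D x‖ₑ := by
      filter_upwards [hbd] with x hx hxO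
      have h1 : ‖mkL (fun i => D' i x)‖ ≤ c * ‖D x‖ := by
        refine (norm_mkL_le _).trans ?_
        have h2 : ∀ i ∈ (Finset.univ : Finset (Fin 3)), ‖D' i x‖ ≤
            K * ‖(P3 : E3 →L[ℝ] EE (Fin 3))‖ * ‖D x‖ := by
          intro i _
          refine (hx hxO i).trans ?_
          have h3 : ‖P3 (D x (Pi.single i 1))‖ ≤
              ‖(P3 : E3 →L[ℝ] EE (Fin 3))‖ * ‖D x (Pi.single i 1)‖ :=
            (P3 : E3 →L[ℝ] EE (Fin 3)).le_opNorm _
          have h4 : ‖D x (Pi.single i 1)‖ ≤ ‖D x‖ := by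
            have := (D x).le_opNorm (Pi.single i (1:ℝ))
            rwa [Pi.norm_single, norm_one, mul_one] at this
          calc (K : ℝ) * ‖P3 (D x (Pi.single i 1))‖ ≤
              K * (‖(P3 : E3 →L[ℝ] EE (Fin 3))‖ * ‖D x‖) := by
                refine mul_le_mul_of_nonneg_left (h3.trans ?_) K.2
                exact mul_le_mul_of_nonneg_left h4 (norm_nonneg _)
            _ = _ := by ring
        refine (Finset.sum_le_sum h2).trans (le_of_eq ?_)
        rw [Finset.sum_const, Finset.card_univ, Fintype.card_fin, nsmul_eq_mul, hc]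
        push_cast
        ring
      rw [← ofReal_norm, ← ofReal_norm, ← ENNReal.ofReal_mul hc0]
      exact ENNReal.ofReal_le_ofReal h1
    have hfin : ENNReal.ofReal c ^ p * ∫⁻ x in Om, ‖D x‖ₑ ^ p ≠ ⊤ :=
      ENNReal.mul_ne_top (ENNReal.rpow_ne_top_of_nonneg hp0 ENNReal.ofReal_ne_top) h.energy
    refine ne_top_of_le_ne_top hfin ?_
    rw [← lintegral_const_mul' _ _ (ENNReal.rpow_ne_top_of_nonneg hp0 ENNReal.ofReal_ne_top)]
    apply lintegral_mono_ae
    rw [ae_restrict_iff' hOm.measurableSet]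
    filter_upwards [hle] with x hx hxO
    rw [← ENNReal.mul_rpow_of_nonneg _ _ hp0]
    exact ENNReal.rpow_le_rpow (hx hxO) hp0
  · -- integrability
    set c : ℝ := K * ‖(P3 : E3 →L[ℝ] EE (Fin 3))‖ with hc
    have hc0 : 0 ≤ c := by positivity
    have hle : ∀ x, ‖co (S (P3 (f x)))‖ₑ ≤ ENNReal.ofReal c * ‖f x‖ₑ + ENNReal.ofReal ‖S 0‖ := by
      intro x
      have h1 : ‖co (S (P3 (f x)))‖ ≤ c * ‖f x‖ + ‖S 0‖ := by
        have h2 : ‖co (S (P3 (f x)))‖ ≤ ‖S (P3 (f x))‖ := by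
          refine (pi_norm_le_iff_of_nonneg (norm_nonneg _)).2 fun j => ?_
          exact PiLp.norm_apply_le (S (P3 (f x))) j
        have h3 := hK.dist_le_mul (P3 (f x)) 0
        rw [dist_eq_norm, dist_zero_right] at h3
        have h4 : ‖P3 (f x)‖ ≤ ‖(P3 : E3 →L[ℝ] EE (Fin 3))‖ * ‖f x‖ :=
          (P3 : E3 →L[ℝ] EE (Fin 3)).le_opNorm _
        have h5 : ‖S (P3 (f x))‖ ≤ ‖S (P3 (f x)) - S 0‖ + ‖S 0‖ := by
          have := norm_add_le (S (P3 (f x)) - S 0) (S 0)
          rwa [sub_add_cancel] at this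
        have h6 : (K : ℝ) * ‖P3 (f x)‖ ≤ c * ‖f x‖ := by
          rw [hc, mul_assoc]
          exact mul_le_mul_of_nonneg_left h4 K.2
        linarith
      rw [← ofReal_norm, ← ofReal_norm, ← ENNReal.ofReal_mul hc0,
        ← ENNReal.ofReal_add (by positivity) (norm_nonneg _)]
      exact ENNReal.ofReal_le_ofReal h1
    have h2p : (2:ℝ≥0∞) ^ (p - 1) ≠ ⊤ := ENNReal.rpow_ne_top_of_nonneg (by linarith) (by norm_num)
    have hcp : ENNReal.ofReal c ^ p ≠ ⊤ := ENNReal.rpow_ne_top_of_nonneg hp0 ENNReal.ofReal_ne_top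
    have h0p : ENNReal.ofReal ‖S 0‖ ^ p ≠ ⊤ :=
      ENNReal.rpow_ne_top_of_nonneg hp0 ENNReal.ofReal_ne_top
    have hfin : (2:ℝ≥0∞) ^ (p - 1) * ((ENNReal.ofReal c ^ p * ∫⁻ x in Om, ‖f x‖ₑ ^ p) +
        ENNReal.ofReal ‖S 0‖ ^ p * volume Om) ≠ ⊤ :=
      ENNReal.mul_ne_top h2p (ENNReal.add_ne_top.2 ⟨ENNReal.mul_ne_top hcp h.lp,
        ENNReal.mul_ne_top h0p hOmf⟩)
    refine ne_top_of_le_ne_top hfin ?_
    have hconst : ENNReal.ofReal ‖S 0‖ ^ p * volume Om =
        ∫⁻ x in Om, ENNReal.ofReal ‖S 0‖ ^ p := by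
      rw [setLIntegral_const]
    rw [← lintegral_const_mul' _ _ hcp, hconst, ← lintegral_add_right _ measurable_const,
      ← lintegral_const_mul' _ _ h2p]
    apply lintegral_mono
    intro x
    change ‖co (S (P3 (f x)))‖ₑ ^ p ≤ 2 ^ (p - 1) * (ENNReal.ofReal c ^ p * ‖f x‖ₑ ^ p +
      ENNReal.ofReal ‖S 0‖ ^ p)
    rw [← ENNReal.mul_rpow_of_nonneg _ _ hp0]
    exact (ENNReal.rpow_le_rpow (hle x) hp0).trans
      (ENNReal.rpow_add_le_mul_rpow_add_rpow _ _ hp)
  · filter_upwards [hbd] with x hx hxO i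
    rw [hsing x i]
    exact hx hxO i

/-- **[P-A] of helper582, for the stretches of the front** -/
theorem sh3_comp_stretch {p : ℝ} (hp : 1 ≤ p) {Om La : Set E3} (hOm : IsOpen Om)
    (hOmf : volume Om ≠ ⊤) {f : E3 → E3} {D : E3 → E3 →L[ℝ] E3} (h : SH3 p Om La f D)
    {S : EE (Fin 3) ≃ₜ EE (Fin 3)} {s : ℝ} (hS : IsStretch 2 (LaE La) s S) :
    ∃ D1 : E3 → E3 →L[ℝ] E3, SH3 p Om La (fun x => co (S (P3 (f x)))) D1 := by
  obtain ⟨K, hK⟩ := hS.lip
  obtain ⟨D1, h1, -⟩ := sh3_comp_lip hp hOm hOmf h hK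
    (fun y => Crest.Agent.R096.Dic6_582.stretch_mem hS)
  exact ⟨D1, h1⟩

end Crest.Agent.R096.Shl_798
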