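import Crest.Agent.R096.Dic7_582
import Crest.Agent.R96.Push20_899
import Crest.Agent.R096.Er3_594
import Crest.Agent.R096.Shl1_798

/-!
# Row 96, NO0-PRE (helper582), part 1: the front in the language of the machine (`E3`, `FoamD`)
-/

set_option autoImplicit false
set_option linter.unusedSectionVars false
set_option linter.unusedVariables false
open Set Filter Topology MeasureTheory
open scoped NNReal ENNReal

noncomputable section

namespace Crest.Agent.R096.Npr_582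

open Crest.Agent.R096.Brk1_582 Crest.Agent.R096.Brk2_582 Crest.Agent.R096.Brk3_582
open Crest.Agent.R096.Brk4_582 Crest.Agent.R096.Brk5_582
open Crest.Agent.R096.Bsp_628 Crest.Agent.R096.Log1_582 Crest.Agent.R096.Log2_582
open Crest.Agent.R096.Log3_582 Crest.Agent.R096.Dic1_582 Crest.Agent.R096.Dic2_582
open Crest.Agent.R096.Dic3_582 Crest.Agent.R096.Dic4_582 Crest.Agent.R096.Dic6_582
open Crest.Agent.R096.Dic7_582
open Crest.Agent.R96.Push_899 (EE co SE IE Box coreBF Mid Psi Pun Wall Foam0 FoamC Uni IsStretch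
  Lands Hole foamBF foamHole toBox brk foam0_brk brk_asp countable_brk mem_SE_brk co_injective
  mem_co_image continuous_co uni_logA LaE co_image_LaE isOpen_LaE mkFoamD mkFoamD_Psi brk')
open Crest.Agent.R96.Acl_392 Crest.Agent.R96.Sob1_199 Crest.Agent.R96.Sob2_199
  Crest.Agent.R96.Sob3_199 Crest.Agent.R96.Sob4_199 Crest.Agent.R96.Sob5_199
open Crest.Agent.R096.SkC1_961 (E3 Hom3 FoamD IsPush)
open Crest.Agent.R096.Er_594 (SH3)
open Crest.Agent.R96.En10_199 (P3)

/-- `P3` and `co` are inverse to each other -/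
theorem co_P3 (y : E3) : co (P3 y) = y := rfl
theorem P3_co (y : EE (Fin 3)) : P3 (co y) = y := rfl

section foam

variable {q : ℕ} {La : Set E3} {K₀ : Set (EE (Fin 3))} {M s : ℝ} {a : Fin 3 → ℝ}
  {F : Set (Bx (Fin 3))}

theorem bfOf (h : Fr q (LaE La) K₀ M s a F) : BoxFoam La F (dF q) (kF q) := by
  have h1 := h.foam
  rwa [co_image_LaE] at h1

/-- the admissibility constant of the pushes -/
def cN (q : ℕ) : ℝ := 1 / (8 * kF q)

theorem foamC_of (h : Fr q (LaE La) K₀ M s a F) {z : F → Fin 3 → ℝ}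
    (hz : ∀ c, z c ∈ Mid (brk h.foam c)) :
    FoamC (LaE La) (brk' (bfOf h)) (fun c => coreBF (brk h.foam c) (z c)) (fun c => Box.pt (z c)) ∅
      (cN q) (fun _ => 0) (fun c => Crest.Agent.R96.Push_899.side (brk h.foam c)) :=
  foamBF (one_le_kF q) (foam0_brk h.foam) (fun c i j => brk_asp h.foam c i j) hz

/-- **the foam of the machine**: bricks of the log foam, the holes are points -/
def mkΦ (h : Fr q (LaE La) K₀ M s a F) {z : F → Fin 3 → ℝ}
    (hz : ∀ c, z c ∈ Mid (brk h.foam c)) : FoamD (dF q) (kF q) 6 (cN q) La :=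
  mkFoamD (bfOf h) h.cmp (foamC_of h hz)

theorem mkΦ_F (h : Fr q (LaE La) K₀ M s a F) {z : F → Fin 3 → ℝ}
    (hz : ∀ c, z c ∈ Mid (brk h.foam c)) : (mkΦ h hz).F = F := rfl

theorem mkΦ_B (h : Fr q (LaE La) K₀ M s a F) {z : F → Fin 3 → ℝ}
    (hz : ∀ c, z c ∈ Mid (brk h.foam c)) (c : F) : (mkΦ h hz).B c = Box.pt (z c) := rfl

theorem mkΦ_Psi (h : Fr q (LaE La) K₀ M s a F) {z : F → Fin 3 → ℝ}
    (hz : ∀ c, z c ∈ Mid (brk h.foam c)) {y : EE (Fin 3)} (hy : y ∈ LaE La) :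
    (mkΦ h hz).Psi (co y) =
      co (Psi (brk h.foam) (fun c => coreBF (brk h.foam c) (z c)) (fun c => Box.pt (z c)) y) :=
  mkFoamD_Psi (bfOf h) h.cmp (foamC_of h hz) hy

theorem mkΦ_lev (h : Fr q (LaE La) K₀ M s a F) {z : F → Fin 3 → ℝ}
    (hz : ∀ c, z c ∈ Mid (brk h.foam c)) {y : EE (Fin 3)} (hy : y ∈ LaE La) (c : F) :
    (mkΦ h hz).lev c (co y) =
      s3 F c (Psi (brk h.foam) (fun c => coreBF (brk h.foam c) (z c)) (fun c => Box.pt (z c)) y) := by
  unfold FoamD.lev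
  rw [mkΦ_Psi h hz hy]
  rfl

end foam

/-- the point `y` of the target lies in a closed good unit square of a horizontal wall -/
def QW (F : Set (Bx (Fin 3))) (q : ℕ) (a : Fin 3 → ℝ) (h : ℝ) (y : E3) : Prop :=
  ∃ e o i j : ℤ, GSq F q a h e o i j ∧ y ∈ sqr a h e o i j

/-- the domain without the preimages of the holes -/
def Op {δ κ0 R c0 : ℝ} {La : Set E3} (Φ : FoamD δ κ0 R c0 La) (Om : Set E3) (f1 : E3 → E3) :
    Set E3 := {x | x ∈ Om ∧ ∀ c : Φ.F, f1 x ∉ (Φ.B c).S}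

/-- **output of the front**, `p < 3`: foam `Φ` (log foam of brick size `h`), holes = points `z c`,
`f1` = `f` followed by the stretch, bad set `X`, `HH` = mapped into the horizontal log walls,
`g c l` = weak derivatives of the level functions in the coordinate direction `l`. -/
structure Front (p : ℝ) (q : ℕ) (s : Fin 3 → ℝ) (ε ε' : ℝ≥0∞) (Om La : Set E3) (f : E3 → E3)
    (M h : ℝ) (a : Fin 3 → ℝ) (Φ : FoamD (dF q) (kF q) 6 (cN q) La) (z : Φ.F → E3) (f1 : E3 → E3)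
    (X HH : Set E3) (g : Φ.F → Fin 3 → E3 → ℝ) : Prop where
  q1 : 1 ≤ q
  h0 : 0 < h
  fr : ∃ K₀ : Set (EE (Fin 3)), IsCompact K₀ ∧ K₀ ⊆ LaE La ∧ Fr q (LaE La) K₀ M h a Φ.F ∧
    ∀ x ∈ Om \ X, P3 (f x) ∈ K₀
  st : ∃ S : EE (Fin 3) ≃ₜ EE (Fin 3), IsStretch 2 (LaE La) h S ∧ ∀ x, f1 x = co (S (P3 (f x)))
  sh : ∃ D1 : E3 → E3 →L[ℝ] E3, SH3 p Om La f1 D1
  rho : ∀ c : Φ.F, ∀ y ∈ c.1.set, 32 * c.1.sz ≤ Metric.infDist y Laᶜ
  size : ∀ c : Φ.F, c.1.sz ≤ 2 * q * h
  homeo : Hom3 f1 Om La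
  near : ∀ x, ‖f1 x - f x‖ ≤ h
  pt : ∀ c, Φ.B c = Box.pt (z c)
  pu : ∀ c, Φ.pu c = Crest.Agent.R96.Push_899.psi (toBox c.1 (Φ.bf.pos c.1 c.2))
    (coreBF (toBox c.1 (Φ.bf.pos c.1 c.2)) (z c)) (Box.pt (z c))
  mid : ∀ c, z c ∈ Mid (toBox c.1 (Φ.bf.pos c.1 c.2))
  op : IsOpen (Op Φ Om f1)
  XO : X ⊆ Om
  Xm : MeasurableSet X
  Xv : volume X ≤ ε' * volume Om
  HHo : IsOpen HH
  HHs : HH ⊆ Op Φ Om f1
  HHX : Om \ X ⊆ HH
  HHw : ∀ x ∈ HH, HW Φ.F q a h (Φ.Psi (f1 x))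
  Qv : volume {x | x ∈ Om ∧ ¬ (x ∈ HH ∧ QW Φ.F q a h (Φ.Psi (f1 x)))} ≤ (ε + ε') * volume Om
  gm : ∀ c l, Measurable (g c l)
  wd : ∀ c l, WD (Op Φ Om f1) volume (fun x => Φ.lev c (f1 x)) (g c l) (Pi.single l 1)
  eW : ∀ (l : Fin 3) (w : Φ.F → ℝ≥0∞), (∀ c : Φ.F, IsLog q a h c.1 → w c = ENNReal.ofReal (h / 2)) →
    (∀ c : Φ.F, w c ≤ ENNReal.ofReal c.1.sz) →
    ∫⁻ x in Op Φ Om f1, (∑' c, w c * ‖g c l x‖ₑ - ENNReal.ofReal (s l)) ^ p ≤ ε * volume Om
  eX : ∀ (l : Fin 3) (w : Φ.F → ℝ≥0∞), (∀ c : Φ.F, IsLog q a h c.1 → w c = ENNReal.ofReal (h / 2)) →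
    (∀ c : Φ.F, w c ≤ ENNReal.ofReal c.1.sz) →
    ∫⁻ x in Op Φ Om f1 ∩ X, (∑' c, w c * ‖g c l x‖ₑ) ^ p ≤ ε' * volume Om

/-- a measurable representative of a weak derivative -/
theorem exists_measurable_wd {Ω : Set E3} (hΩ : IsOpen Ω) {v g : E3 → ℝ} {e : E3}
    (h : WD Ω volume v g e) : ∃ g' : E3 → ℝ, Measurable g' ∧ WD Ω volume v g' e := by
  have hg : AEStronglyMeasurable g (volume.restrict Ω) := aemeas_of_loc h.lg
  refine ⟨hg.mk g, hg.stronglyMeasurable_mk.measurable, ?_⟩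
  refine wd_congr hΩ h (Eventually.of_forall fun _ _ => rfl) ?_
  have h1 := hg.ae_eq_mk
  exact (ae_restrict_iff' hΩ.measurableSet).1 h1

/-- **FRONT OF NO0 IN THE LANGUAGE OF THE MACHINE, `p < 3`** -/
theorem exists_front {p : ℝ} (hp : 1 ≤ p) (hp3 : p < 3) (s : Fin 3 → ℝ) (hs : ∀ i, 0 ≤ s i)
    (hs2 : s 2 = 0) {ε : ℝ≥0∞} (hε : 0 < ε) :
    ∃ q : ℕ, 1 ≤ q ∧ ∀ ε' : ℝ≥0∞, 0 < ε' → ∃ δ : ℝ≥0∞, 0 < δ ∧
      ∀ (Om La : Set E3) (f : E3 → E3) (D : E3 → E3 →L[ℝ] E3),
        IsOpen Om → Om.Nonempty → volume Om ≠ ⊤ → IsOpen La → Bornology.IsBounded La →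
        SH3 p Om La f D →
        ∫⁻ x in Om, ∑ l, ‖P3 (D x (Pi.single l 1)) - EuclideanSpace.single l (s l)‖ₑ ^ p ≤
          δ * volume Om →
      ∀ M : ℝ, 3 ≤ M → ∃ h₀ > 0, ∀ h, 0 < h → h < h₀ →
        ∃ (a : Fin 3 → ℝ) (Φ : FoamD (dF q) (kF q) 6 (cN q) La) (z : Φ.F → E3) (f1 : E3 → E3)
          (X HH : Set E3) (g : Φ.F → Fin 3 → E3 → ℝ),
          Front p q s ε ε' Om La f M h a Φ z f1 X HH g := by
  obtain ⟨q, hq, H⟩ := front2_lt (E := E3) (μ := (volume : Measure E3)) hp hp3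
    (fun l : Fin 3 => (EuclideanSpace.single l (s l) : EE (Fin 3))) (fun l => by
      fin_cases l
      · simp
      · simp
      · simp [hs2]) hε
  refine ⟨q, hq, fun ε' hε' => ?_⟩
  obtain ⟨m, hm, δ, hδ, H⟩ := H ε' hε'
  refine ⟨δ, hδ, fun Om La f D hOm hOmne hOmf hLa hLab hSH hE M hM => ?_⟩
  obtain ⟨fi, hf1, hf2, hf3, hf4, hf5, hf6⟩ := hSH.homeo
  have hLE : IsOpen (LaE La) := isOpen_LaE hLa
  have hLEb : Bornology.IsBounded (LaE La) := by
    have h1 : LaE La = (P3 : E3 → EE (Fin 3)) '' La := by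
      ext y
      constructor
      · intro hy; exact ⟨co y, hy, rfl⟩
      · rintro ⟨x, hx, rfl⟩; exact hx
    rw [h1]
    exact (P3 : E3 →L[ℝ] EE (Fin 3)).lipschitz.isBounded_image hLab
  set φ : E3 → EE (Fin 3) := fun x => P3 (f x) with hφ
  have hφc : ContinuousOn φ Om := P3.continuous.comp_continuousOn hf5
  have hφm : MapsTo φ Om (LaE La) := fun x hx => hf1 hx
  obtain ⟨K₀, hK, hKΛ, H⟩ := H Om (LaE La) φ (fun l => Pi.single l 1)
    (fun l x => P3 (D x (Pi.single l 1))) hOm hOmne hOmf hLE hLEb hφc hφm hSH.vwd hE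
  obtain ⟨h₀, hh₀, H⟩ := H M hM
  refine ⟨h₀, hh₀, fun h hh hhh => ?_⟩
  obtain ⟨a, ha, S, hS, X, hXO, hXm, hXv, hXK, hstrip, F, hF, H⟩ := H h hh hhh 0
  obtain ⟨z, hz, -, hland, ⟨HH, hHHo, hHHs, hHHX, hHHw⟩, H⟩ := H ∅ (by simp)
  have hC := foamBF (one_le_kF q) (foam0_brk hF.foam) (fun c i j => brk_asp hF.foam c i j) hz
  have hOO : IsOpen (OO Om (LaE La) (fun c => Box.pt (z c)) S φ) := isOpen_OO hC hLE hOm hφc
  set f1 : E3 → E3 := fun x => co (S (φ x)) with hf1d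
  have hSm : ∀ x ∈ Om, S (φ x) ∈ LaE La := fun x hx => (stretch_mem hS).2 (hφm hx)
  have hOp : Op (mkΦ hF hz) Om f1 = OO Om (LaE La) (fun c => Box.pt (z c)) S φ := by
    ext x
    constructor
    · rintro ⟨h1, h2⟩
      refine ⟨h1, hSm x h1, ?_⟩
      rw [mem_iUnion]
      rintro ⟨c, hc⟩
      exact h2 c hc
    · rintro ⟨h1, h2, h3⟩
      refine ⟨h1, fun c hc => h3 ?_⟩
      rw [mem_iUnion]
      exact ⟨c, hc⟩
  have hPsi : ∀ x ∈ Om, (mkΦ hF hz).Psi (f1 x) =
      co (FF (brk hF.foam) (fun c => Box.pt (z c)) z S φ x) := fun x hx =>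
    mkΦ_Psi hF hz (hSm x hx)
  have hlev : ∀ x ∈ Om, ∀ c : F, (mkΦ hF hz).lev c (f1 x) =
      s3 F c (FF (brk hF.foam) (fun c => Box.pt (z c)) z S φ x) := fun x hx c =>
    mkΦ_lev hF hz (hSm x hx) c
  -- weak derivatives
  have hex : ∀ l : Fin 3, ∃ D', VWD (OO Om (LaE La) (fun c => Box.pt (z c)) S φ) volume
      (FF (brk hF.foam) (fun c => Box.pt (z c)) z S φ) D' (Pi.single l 1) := fun l =>
    exists_vwd_FF hF hLE hOm hφc hS hC (hSH.vwd l)
  choose D' hD' using hex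
  have hexg : ∀ l : Fin 3, ∃ g : F → E3 → ℝ, ∀ c,
      WD (OO Om (LaE La) (fun c => Box.pt (z c)) S φ) volume
        (fun x => s3 F c (FF (brk hF.foam) (fun c => Box.pt (z c)) z S φ x)) (g c)
          (Pi.single l 1) := fun l => exists_wd_s3 hF hLE hOm hφc hC (hD' l)
  choose g0 hg0 using hexg
  have hexm : ∀ (c : F) (l : Fin 3), ∃ g' : E3 → ℝ, Measurable g' ∧
      WD (OO Om (LaE La) (fun c => Box.pt (z c)) S φ) volume
        (fun x => s3 F c (FF (brk hF.foam) (fun c => Box.pt (z c)) z S φ x)) g'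
          (Pi.single l 1) := fun c l => exists_measurable_wd hOO (hg0 l c)
  choose g hgm hg using hexm
  obtain ⟨-, H⟩ := H D' hD'
  have hsl : ∀ l : Fin 3, ‖(EuclideanSpace.single l (s l) : EE (Fin 3)) 0‖ₑ +
      ‖(EuclideanSpace.single l (s l) : EE (Fin 3)) 1‖ₑ = ENNReal.ofReal (s l) := by
    intro l
    fin_cases l
    · simp [← ofReal_norm, abs_of_nonneg (hs 0)]
    · simp [← ofReal_norm, abs_of_nonneg (hs 1)]
    · simp [hs2]
  refine ⟨a, mkΦ hF hz, z, f1, X, HH, g, ?_⟩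
  exact
    { q1 := hq
      h0 := hh
      fr := ⟨K₀, hK, hKΛ, hF, fun x hx => hXK x hx⟩
      st := ⟨S, hS, fun x => rfl⟩
      sh := Crest.Agent.R096.Shl_798.sh3_comp_stretch hp hOm hOmf hSH hS
      rho := by
        intro c y hy
        have := hF.rho c.1 c.2 y hy
        rwa [co_image_LaE] at this
      size := fun c => hF.size c.1 c.2
      homeo := by
        refine ⟨fun y => fi (co (S.symm (P3 y))), ?_, ?_, ?_, ?_, ?_, ?_⟩
        · intro x hx; exact hSm x hx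
        · intro y hy
          refine hf2 ?_
          have : S (S.symm (P3 y)) ∈ LaE La := by rw [S.apply_symm_apply]; exact hy
          exact (stretch_mem hS).1 this
        · intro x hx
          show fi (co (S.symm (P3 (co (S (φ x)))))) = x
          rw [P3_co, S.symm_apply_apply]
          exact hf3 x hx
        · intro y hy
          show co (S (P3 (f (fi (co (S.symm (P3 y))))))) = y
          have h1 : co (S.symm (P3 y)) ∈ La := by
            have : S (S.symm (P3 y)) ∈ LaE La := by rw [S.apply_symm_apply]; exact hy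
            exact (stretch_mem hS).1 this
          rw [hf4 _ h1, P3_co, S.apply_symm_apply]
          rfl
        · exact continuous_co.comp_continuousOn (S.continuous.comp_continuousOn hφc)
        · refine hf6.comp ?_ ?_
          · exact (continuous_co.comp (S.symm.continuous.comp P3.continuous)).continuousOn
          · intro y hy
            have : S (S.symm (P3 y)) ∈ LaE La := by rw [S.apply_symm_apply]; exact hy
            exact (stretch_mem hS).1 this
      near := by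
        intro x
        refine (pi_norm_le_iff_of_nonneg hh.le).2 fun i => ?_
        exact (PiLp.norm_apply_le (S (φ x) - φ x) i).trans (hS.near _)
      pt := fun c => rfl
      pu := fun c => rfl
      mid := fun c => hz c
      op := by rw [hOp]; exact hOO
      XO := hXO
      Xm := hXm
      Xv := hXv
      HHo := hHHo
      HHs := by rw [hOp]; exact hHHs
      HHX := hHHX
      HHw := by
        intro x hx
        rw [hPsi x (hHHs hx).1]
        exact hHHw x hx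
      Qv := by
        have h1 : {x | x ∈ Om ∧ ¬ (x ∈ HH ∧ QW (mkΦ hF hz).F q a h ((mkΦ hF hz).Psi (f1 x)))} ⊆
            (Strip q a h φ ∩ Om) ∪ X := by
          rintro x ⟨hx, hn⟩
          by_cases hX : x ∈ X
          · exact Or.inr hX
          by_cases hst : x ∈ Strip q a h φ
          · exact Or.inl ⟨hst, hx⟩
          exfalso
          apply hn
          refine ⟨hHHX ⟨hx, hX⟩, ?_⟩
          rw [hPsi x hx]
          obtain ⟨-, l2, ⟨n, l3⟩, l4⟩ := lands_at hF (by linarith) hφm hS hXK hland ⟨hx, hX⟩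
          have hY : ¬ NearMul q ⌊(φ x 0 - a 0) / h⌋ ∧ ¬ NearMul q ⌊(φ x 1 - a 1) / h⌋ :=
            not_or.1 hst
          have e1 : ∀ s t b : ℝ, |s - t| ≤ h / 2 → |⌊(s - b) / h⌋ - ⌊(t - b) / h⌋| ≤ 1 := by
            intro s t b hst
            apply abs_floor_sub_le
            have : (s - b) / h - (t - b) / h = (s - t) / h := by ring
            rw [this, abs_div, abs_of_pos hh, div_le_one hh]
            linarith
          exact gsq_near hq hh hF.logs (r' := h / 2) (by nlinarith) l2 l3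
            (not_dvd_of hY.1 (e1 _ _ _ (l4 0))) (not_dvd_of hY.2 (e1 _ _ _ (l4 1)))
        calc volume {x | x ∈ Om ∧ ¬ (x ∈ HH ∧ QW (mkΦ hF hz).F q a h ((mkΦ hF hz).Psi (f1 x)))} ≤
            volume ((Strip q a h φ ∩ Om) ∪ X) := measure_mono h1
          _ ≤ volume (Strip q a h φ ∩ Om) + volume X := measure_union_le _ _
          _ ≤ (volume.restrict Om) (Strip q a h φ) + ε' * volume Om :=
            add_le_add (Measure.le_restrict_apply _ _) hXv
          _ ≤ ε * volume Om + ε' * volume Om := add_le_add hstrip le_rfl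
          _ = (ε + ε') * volume Om := by ring
      gm := hgm
      wd := by
        intro c l
        rw [hOp]
        refine wd_congr hOO (hg c l) (Eventually.of_forall fun x hx => ?_)
          (Eventually.of_forall fun _ _ => rfl)
        exact (hlev x hx.1 c).symm
      eW := by
        intro l w hw hw'
        rw [hOp]
        have := (H l w hw hw' (fun c => g c l) (fun c => hg c l)).1
        rw [hsl l] at this
        exact this
      eX := by
        intro l w hw hw'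
        rw [hOp]
        exact (H l w hw hw' (fun c => g c l) (fun c => hg c l)).2 }

end Crest.Agent.R096.Npr_582
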