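import Crest.Agent.R096.Aclt1_608
import Crest.Agent.R096.Ls5_222
import Crest.Agent.R96.Sg5_199
import Crest.Agent.R096.Npr1_582

/-!
# Row 96, NO0-PRE, [ACLT] (helper608), part 4

The parametrised edges `(ea e, ev e)` of 222: every edge of a translated tiling is a member of the
countable list (`edg_ls`), and almost every translate is good on all edges, with the upper gradients
in the form which `Ls5` / `Ls8` consume (`ae_edg`, `ae_front`).
-/

set_option autoImplicit false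
set_option linter.unusedSectionVars false

open MeasureTheory Set Filter Topology Metric Module
open scoped ENNReal NNReal

namespace Crest.Agent.R096.Aclt_608

open Crest.Agent.R096.Msh_715 Crest.Agent.R096.Tms_582
open Crest.Agent.R096.SkC1_961 (E3 Hom3 FoamD)
open Crest.Agent.R96.Acl_392 Crest.Agent.R96.Sg1_199 Crest.Agent.R96.Sg2_199
open Crest.Agent.R96.Sg5_199 (gdir wd_dir)
open Crest.Agent.R096.Ls_222

noncomputable section

section geom

variable {E : Type*} [NormedAddCommGroup E] [NormedSpace ℝ E] [FiniteDimensional ℝ E]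
  {Om : Set E} {ι : Type*} {T : Tiling Om ι} {𝓛 : Set ((E →L[ℝ] ℝ) × ℝ)} {a : E}

/-- **the parametrised edge `(ea e, ev e)` is in the list** -/
theorem edg_ls (e : Edg T) (hT : Sh 𝓛 a T {i | (P (T.H i) ∩ e.1).Nonempty}) :
    ∃ j : Ls 𝓛, j.x + a = ea e ∧ j.v = ev e := by
  have hm : ∀ p ∈ e.1, T.dim p = 0 → p - a ∈ Vt 𝓛 := by
    intro p hp hp0
    exact vertex (T := T) (hT.mono fun i hi => ⟨p, hi, hp⟩) (edg_sub_Om e hp)
      (T.dim_eq_zero_iff.1 hp0)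
  have h1 : ea e ∈ e.1 := by
    have h := sgm_edg e
    rw [← h]
    exact ⟨0, ⟨le_rfl, zero_le_one⟩, by simp⟩
  have h2 : ea e + ev e ∈ e.1 := by
    have h := sgm_edg e
    rw [← h]
    exact ⟨1, ⟨zero_le_one, le_rfl⟩, by simp⟩
  refine ⟨⟨(ea e - a, ea e + ev e - a), hm _ h1 (dim_ea e), hm _ h2 (dim_eb e)⟩, ?_, ?_⟩
  · show ea e - a + a = ea e
    abel
  · show ea e + ev e - a - (ea e - a) = ev e
    abel

end geom

section ae

variable {n : ℕ} [NeZero n] {𝓛 : Set (((Fin n → ℝ) →L[ℝ] ℝ) × ℝ)} {Om' : Set (Fin n → ℝ)}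

/-- **almost every translate is good on all edges of all translated tilings** -/
theorem ae_edg (h𝓛 : 𝓛.Countable) (hO : IsOpen Om') {𝒞 : Type*} [Countable 𝒞]
    {u : 𝒞 → (Fin n → ℝ) → ℝ} (hu : ∀ c, ContinuousOn (u c) Om')
    {g : 𝒞 → Fin n → (Fin n → ℝ) → ℝ} (hg : ∀ c l, WD Om' volume (u c) (g c l) (Pi.single l (1:ℝ))) :
    ∀ᵐ a : Fin n → ℝ, ∀ (Om : Set (Fin n → ℝ)) (ι : Type) (T : Tiling Om ι) (e : Edg T),
      Sh 𝓛 a T {i | (P (T.H i) ∩ e.1).Nonempty} →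
      (∀ c, ACLat Om' (u c) (gdir (g c) (ev e)) (ev e) (ea e)) ∧
      (e.1 ⊆ Om' → ∀ c, UGs (u c) (fun y => ‖gdir (g c) (ev e) y‖ₑ) (ea e) (ev e) ∧
        li (fun y => ‖gdir (g c) (ev e) y‖ₑ) (ea e) (ev e) ≠ ∞) := by
  filter_upwards [aclt (μ := volume) h𝓛 hO hu (g := fun c v => gdir (g c) v)
    fun c v => wd_dir (hg c) v] with a ha Om ι T e hT
  obtain ⟨j, hx, hv⟩ := edg_ls e hT
  have h1 : ∀ c, ACLat Om' (u c) (gdir (g c) (ev e)) (ev e) (ea e) := by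
    intro c
    have := ha j c
    rw [hx, hv] at this
    exact this
  refine ⟨h1, fun hs c => ?_⟩
  have hs' : sgm (ea e) (ev e) ⊆ Om' := by rw [sgm_edg]; exact hs
  exact ⟨ugs_of_acl hs' (h1 c), li_ne_top_of_acl hs' (h1 c)⟩

end ae

open Crest.Agent.R096.Brk1_582 Crest.Agent.R096.Dic6_582
open Crest.Agent.R096.Npr_582

/-- **the level functions of the front on the edges of translated tilings** (552 / 582) -/
theorem ae_front {p : ℝ} {q : ℕ} {s : Fin 3 → ℝ} {ε ε' : ℝ≥0∞} {Om La : Set E3} {f : E3 → E3}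
    {M h : ℝ} {a₀ : Fin 3 → ℝ} {Φ : FoamD (dF q) (kF q) 6 (cN q) La} {z : Φ.F → E3} {f1 : E3 → E3}
    {X HH : Set E3} {g : Φ.F → Fin 3 → E3 → ℝ} (hF : Front p q s ε ε' Om La f M h a₀ Φ z f1 X HH g)
    (hLa : IsOpen La)
    {𝓛 : Set ((E3 →L[ℝ] ℝ) × ℝ)} (h𝓛 : 𝓛.Countable) :
    ∀ᵐ a : E3, ∀ (Om' : Set E3) (ι : Type) (T : Tiling Om' ι) (e : Edg T),
      Sh 𝓛 a T {i | (P (T.H i) ∩ e.1).Nonempty} → e.1 ⊆ Op Φ Om f1 → ∀ c,
      UGs (us Φ f1 c) (fun y => ‖gdir (g c) (ev e) y‖ₑ) (ea e) (ev e) ∧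
        li (fun y => ‖gdir (g c) (ev e) y‖ₑ) (ea e) (ev e) ≠ ∞ := by
  have : Countable Φ.F := countable_F Φ
  have hc : ∀ c, ContinuousOn (us Φ f1 c) (Op Φ Om f1) := fun c =>
    continuousOn_us hLa hF.homeo (fun x hx => hx.1) (fun x hx c => hx.2 c) c
  filter_upwards [ae_edg h𝓛 hF.op hc (g := g) hF.wd] with a ha Om' ι T e hT he
  exact (ha Om' ι T e hT).2 he

end

end Crest.Agent.R096.Aclt_608
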