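import Crest.Agent.R096.Sel2_766
import Crest.Agent.R096.Sk0_962

/-!
Row 96 (S0127), helper733 (leaf AC_RANK3 of 766 #9843).  Absolute continuity of the energy on the
points of rank 3 under a Sobolev homeomorphism (`p > 2`): sets of small volume in the target carry
small energy of the points with `det ≠ 0`; the energy outside a compact set of the target is small.
-/

set_option autoImplicit false
set_option linter.unusedSectionVars false
set_option linter.style.longLine false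
set_option linter.unusedVariables false

namespace Crest.Agent.R096.Acr_733

open MeasureTheory Set Filter Topology Metric
open scoped ENNReal NNReal RealInnerProductSpace
open Crest.AnalysisR.VecCalc3 Crest.AnalysisR.Sobolev
open Crest.Agent.R096.Osc_802 Crest.Agent.R096.LusN_766 Crest.Agent.R096.VolC_766
open Crest.Agent.R096.VolC2_766 Crest.Agent.R96.Lu_538
open Crest.Agent.R096.Sk_962

/-- energy density `1 + |G|^p`. -/
noncomputable def ed (p : ℝ) (G : Fin 3 → R3 → R3) (x : R3) : ℝ≥0∞ := 1 + ∑ j, ‖G j x‖ₑ ^ p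

theorem lintegral_ed_lt_top {Ω : Set R3} (hΩ : volume Ω ≠ ⊤) {G : Fin 3 → R3 → R3} {p : ℝ}
    (hp : 0 < p) (hG : ∀ j, MemLp (G j) (ENNReal.ofReal p) (volume.restrict Ω)) :
    ∫⁻ x in Ω, ed p G x < ⊤ := by
  unfold ed
  have hm : ∀ j, AEMeasurable (fun x => ‖G j x‖ₑ ^ p) (volume.restrict Ω) := fun j =>
    ((hG j).1.enorm).pow_const p
  rw [lintegral_add_left' aemeasurable_const, lintegral_finsetSum' _ fun j _ => hm j]
  refine ENNReal.add_lt_top.2 ⟨?_, ENNReal.sum_lt_top.2 fun j _ => ?_⟩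
  · rw [lintegral_const, one_mul, Measure.restrict_apply_univ]
    exact hΩ.lt_top
  · have h1 := lintegral_rpow_enorm_lt_top_of_eLpNorm_lt_top
      (by simpa using hp) ENNReal.ofReal_ne_top (hG j).2
    rwa [ENNReal.toReal_ofReal hp.le] at h1

theorem aemeasurable_ed {Ω : Set R3} {G : Fin 3 → R3 → R3} {p : ℝ}
    (hG : ∀ j, MemLp (G j) (ENNReal.ofReal p) (volume.restrict Ω)) :
    AEMeasurable (ed p G) (volume.restrict Ω) := by
  have hm : ∀ j, AEMeasurable (fun x => ‖G j x‖ₑ ^ p) (volume.restrict Ω) := fun j =>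
    ((hG j).1.enorm).pow_const p
  exact aemeasurable_const.add (Finset.aemeasurable_fun_sum _ fun j _ => hm j)

theorem measurableSet_inter_preimage {Ω : Set R3} (hΩ : IsOpen Ω) {f : R3 → R3}
    (hf : ContinuousOn f Ω) {A : Set R3} (hA : MeasurableSet A) : MeasurableSet (Ω ∩ f ⁻¹' A) := by
  have h1 : Ω ∩ f ⁻¹' A = Subtype.val '' ((Ω.domRestrict f) ⁻¹' A) := by
    ext x
    simp only [mem_inter_iff, mem_preimage, mem_image, Subtype.exists, exists_and_right,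
      exists_eq_right]
    constructor
    · rintro ⟨h1, h2⟩; exact ⟨h1, h2⟩
    · rintro ⟨h1, h2⟩; exact ⟨h1, h2⟩
  rw [h1]
  exact hΩ.measurableSet.subtype_image ((continuousOn_iff_continuous_domRestrict.1 hf).measurable hA)

theorem aemeasurable_of_continuousOn {Ω : Set R3} (hΩ : IsOpen Ω) {f : R3 → R3}
    (hf : ContinuousOn f Ω) : AEMeasurable f (volume.restrict Ω) :=
  hf.aemeasurable hΩ.measurableSet

/-- null sets of the target: the points of rank 3 over them are null. -/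
theorem rank3_null {Ω Λ : Set R3} (hΩ : IsOpen Ω) (hΛ : IsOpen Λ) {f : R3 → R3}
    (hf : IsHomeomorphOn f Ω Λ) {G : Fin 3 → R3 → R3}
    (hG : ∀ j, HasWeakGradOn Ω (fun x => f x j) (G j)) {p : ℝ} (hp : 2 < p)
    (hGp : ∀ j, MemLp (G j) (ENNReal.ofReal p) (volume.restrict Ω)) {A : Set R3}
    (hA : volume A = 0) : volume (Ω ∩ f ⁻¹' A ∩ {x | (Gmat G x).det ≠ 0}) = 0 := by
  have hf' := hf
  obtain ⟨g, hfm, hgm, hgf, hfg, hfc, hgc⟩ := hf'
  have h1 := homeo_ae_diff hΩ hΛ hf hG hp hGp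
  set N : Set R3 := toMeasurable volume {x | ¬ (x ∈ Ω → (∀ j, LebPt p (Ω.indicator (G j)) x) ∧
      HasFDerivAt f (rowMap fun j => G j x) x)} with hN
  have hN0 : volume N = 0 := by rw [hN, measure_toMeasurable]; exact h1
  set A' := toMeasurable volume A with hA'
  have hA0 : volume A' = 0 := by rw [hA', measure_toMeasurable]; exact hA
  set S : Set R3 := (Ω ∩ f ⁻¹' A') \ N with hS
  have hSm : MeasurableSet S :=
    (measurableSet_inter_preimage hΩ hfc (measurableSet_toMeasurable _ _)).diff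
      (measurableSet_toMeasurable _ _)
  have hd : ∀ x ∈ S, HasFDerivWithinAt f (Gmat G x) S x := by
    intro x hx
    have h2 : x ∈ Ω → (∀ j, LebPt p (Ω.indicator (G j)) x) ∧
      HasFDerivAt f (rowMap fun j => G j x) x := by
      by_contra hcon
      exact hx.2 (subset_toMeasurable _ _ hcon)
    have h3 := (h2 hx.1.1).2
    rw [rowMap_eq_Gmat] at h3
    exact h3.hasFDerivWithinAt
  have hinj : InjOn f S := by
    intro x hx y hy hxy
    rw [← hgf x hx.1.1, ← hgf y hy.1.1, hxy]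
  have h4 := lintegral_abs_det_fderiv_eq_addHaar_image volume hSm hd hinj
  have h5 : volume (f '' S) = 0 := by
    refine measure_mono_null ?_ hA0
    rintro _ ⟨x, hx, rfl⟩
    exact hx.1.2
  rw [h5] at h4
  have h6 := aemeasurable_ofReal_abs_det_fderivWithin volume hSm hd
  rw [lintegral_eq_zero_iff' h6] at h4
  have h7 : ∀ᵐ x, x ∈ S → (Gmat G x).det = 0 := by
    rw [← ae_restrict_iff' hSm]
    filter_upwards [h4] with x hx
    have h8 : ENNReal.ofReal |(Gmat G x).det| = 0 := hx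
    rw [ENNReal.ofReal_eq_zero] at h8
    exact abs_eq_zero.1 (le_antisymm h8 (abs_nonneg _))
  refine measure_mono_null (t := N ∪ {x | ¬ (x ∈ S → (Gmat G x).det = 0)}) ?_
    (measure_union_null hN0 h7)
  rintro x ⟨⟨hx1, hx2⟩, hx3⟩
  by_cases hxN : x ∈ N
  · exact Or.inl hxN
  · refine Or.inr fun hc => hx3 (hc ⟨⟨hx1, subset_toMeasurable _ _ hx2⟩, hxN⟩)

/-- **AC_RANK3 (a).** -/
theorem ac_rank3 {Ω Λ : Set R3} (hΩ : IsOpen Ω) (hΛ : IsOpen Λ) (hΩb : volume Ω ≠ ⊤) {f : R3 → R3}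
    (hf : IsHomeomorphOn f Ω Λ) {G : Fin 3 → R3 → R3}
    (hG : ∀ j, HasWeakGradOn Ω (fun x => f x j) (G j)) {p : ℝ} (hp : 2 < p)
    (hGp : ∀ j, MemLp (G j) (ENNReal.ofReal p) (volume.restrict Ω)) {ε : ℝ≥0∞} (hε : 0 < ε) :
    ∃ τ : ℝ≥0∞, 0 < τ ∧ ∀ A : Set R3, volume A < τ →
      ∫⁻ x in Ω ∩ f ⁻¹' A ∩ {x | (Gmat G x).det ≠ 0}, (1 + ∑ j, ‖G j x‖ₑ ^ p) < ε := by
  have hf' := hf
  obtain ⟨g, hfm, hgm, hgf, hfg, hfc, hgc⟩ := hf'
  have h1 := homeo_ae_diff hΩ hΛ hf hG hp hGp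
  -- a measurable version of the rank 3 points
  set Z : Set R3 := {x | (fderiv ℝ f x).det ≠ 0} with hZ
  have hZm : MeasurableSet Z := by
    have h2 : Measurable fun x => (fderiv ℝ f x).det :=
      (ContinuousLinearMap.continuous_det).measurable.comp (measurable_fderiv ℝ f)
    exact (h2 (measurableSet_singleton 0)).compl
  have hZG : ∀ B : Set R3, (Ω ∩ B ∩ {x | (Gmat G x).det ≠ 0} : Set R3) =ᵐ[volume]
      (Ω ∩ B ∩ Z : Set R3) := by
    intro B
    filter_upwards [h1] with x hx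
    have : (x ∈ Ω ∩ B ∩ {x | (Gmat G x).det ≠ 0}) = (x ∈ Ω ∩ B ∩ Z) := by
      refine propext ⟨fun h => ⟨h.1, ?_⟩, fun h => ⟨h.1, ?_⟩⟩
      · have h3 := (hx h.1.1).2
        rw [rowMap_eq_Gmat] at h3
        have h4 := h.2
        rw [hZ]
        change (fderiv ℝ f x).det ≠ 0
        rw [h3.fderiv]
        exact h4
      · have h3 := (hx h.1.1).2
        rw [rowMap_eq_Gmat] at h3
        have h4 : (fderiv ℝ f x).det ≠ 0 := h.2
        rw [h3.fderiv] at h4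
        exact h4
    exact this
  set m0 : Measure R3 := (volume.restrict (Ω ∩ Z)).withDensity (ed p G) with hm0
  have hΩZ : MeasurableSet (Ω ∩ Z) := hΩ.measurableSet.inter hZm
  have hfin : IsFiniteMeasure m0 := by
    refine ⟨?_⟩
    rw [hm0, withDensity_apply _ MeasurableSet.univ, Measure.restrict_univ]
    refine lt_of_le_of_lt ?_ (lintegral_ed_lt_top hΩb (by linarith) hGp)
    exact lintegral_mono_set inter_subset_left
  have hfm0 : AEMeasurable f m0 := by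
    refine ((aemeasurable_of_continuousOn hΩ hfc).mono_measure
      (Measure.restrict_mono inter_subset_left le_rfl)).mono_ac
      (withDensity_absolutelyContinuous _ _)
  have hfinm : IsFiniteMeasure (m0.map f) := Measure.isFiniteMeasure_map _ _
  have hac : m0.map f ≪ volume := by
    refine Measure.AbsolutelyContinuous.mk fun A hA hA0 => ?_
    rw [Measure.map_apply_of_aemeasurable hfm0 hA]
    refine (withDensity_absolutelyContinuous _ _ : m0 ≪ volume.restrict (Ω ∩ Z)) ?_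
    rw [Measure.restrict_apply' hΩZ]
    have h2 := rank3_null hΩ hΛ hf hG hp hGp hA0
    rw [measure_congr (hZG (f ⁻¹' A))] at h2
    refine measure_mono_null ?_ h2
    rintro x ⟨h3, h4, h5⟩
    exact ⟨⟨h4, h3⟩, h5⟩
  obtain ⟨τ, hτ, h3⟩ := small_of_ac hac hε.ne'
  refine ⟨τ, hτ, fun A hA => ?_⟩
  refine lt_of_le_of_lt ?_ (h3 A hA)
  calc ∫⁻ x in Ω ∩ f ⁻¹' A ∩ {x | (Gmat G x).det ≠ 0}, (1 + ∑ j, ‖G j x‖ₑ ^ p)
      = ∫⁻ x in Ω ∩ f ⁻¹' A ∩ Z, ed p G x := by
        rw [Measure.restrict_congr_set (hZG _)]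
        rfl
    _ = ∫⁻ x in f ⁻¹' A, ed p G x ∂(volume.restrict (Ω ∩ Z)) := by
        rw [Measure.restrict_restrict' hΩZ]
        congr 2
        ext x
        simp only [mem_inter_iff]
        tauto
    _ ≤ m0 (f ⁻¹' A) := withDensity_apply_le _ _
    _ ≤ m0.map f A := Measure.le_map_apply hfm0 A

/-- **AC_RANK3 (b)**: small energy outside a compact set of the target. -/
theorem energy_compact {Ω Λ : Set R3} (hΩ : IsOpen Ω) (hΛ : IsOpen Λ) (hΩb : volume Ω ≠ ⊤)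
    {f : R3 → R3} (hf : IsHomeomorphOn f Ω Λ) {G : Fin 3 → R3 → R3} {p : ℝ} (hp : 0 < p)
    (hGp : ∀ j, MemLp (G j) (ENNReal.ofReal p) (volume.restrict Ω)) {ε : ℝ≥0∞} (hε : 0 < ε) :
    ∃ K : Set R3, K ⊆ Λ ∧ IsCompact K ∧
      ∫⁻ x in Ω \ f ⁻¹' K, (1 + ∑ j, ‖G j x‖ₑ ^ p) < ε := by
  have hf' := hf
  obtain ⟨g, hfm, hgm, hgf, hfg, hfc, hgc⟩ := hf'
  set m0 : Measure R3 := (volume.restrict Ω).withDensity (ed p G) with hm0
  have hfin : IsFiniteMeasure m0 := by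
    refine ⟨?_⟩
    rw [hm0, withDensity_apply _ MeasurableSet.univ, Measure.restrict_univ]
    exact lintegral_ed_lt_top hΩb hp hGp
  have hfm0 : AEMeasurable f m0 :=
    (aemeasurable_of_continuousOn hΩ hfc).mono_ac (withDensity_absolutelyContinuous _ _)
  have hfinm : IsFiniteMeasure (m0.map f) := Measure.isFiniteMeasure_map _ _
  obtain ⟨K, hKΛ, hK, h1⟩ := hΛ.measurableSet.exists_isCompact_sdiff_lt (μ := m0.map f)
    (measure_ne_top _ _) hε.ne'
  refine ⟨K, hKΛ, hK, lt_of_le_of_lt ?_ h1⟩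
  calc ∫⁻ x in Ω \ f ⁻¹' K, (1 + ∑ j, ‖G j x‖ₑ ^ p)
      = ∫⁻ x in f ⁻¹' (Λ \ K), ed p G x ∂(volume.restrict Ω) := by
        rw [Measure.restrict_restrict' hΩ.measurableSet]
        have : Ω \ f ⁻¹' K = f ⁻¹' (Λ \ K) ∩ Ω := by
          ext x
          constructor
          · rintro ⟨h1, h2⟩; exact ⟨⟨hfm h1, h2⟩, h1⟩
          · rintro ⟨⟨h1, h2⟩, h3⟩; exact ⟨h3, h2⟩
        rw [this]
        rfl
    _ ≤ m0 (f ⁻¹' (Λ \ K)) := withDensity_apply_le _ _
    _ ≤ m0.map f (Λ \ K) := Measure.le_map_apply hfm0 _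

/-- **AC_RANK3** for `SH`. -/
theorem SH.ac_rank3 {Ω Λ : Set R3} (hΩ : IsOpen Ω) (hΛ : IsOpen Λ)
    (hΩb : Bornology.IsBounded Ω) {f : R3 → R3} {G : Fin 3 → R3 → R3} {p : ℝ}
    (h : SH p Ω Λ f G) (hp : 2 < p) {ε : ℝ≥0∞} (hε : 0 < ε) :
    ∃ τ : ℝ≥0∞, 0 < τ ∧ ∀ A : Set R3, volume A < τ →
      ∫⁻ x in Ω ∩ f ⁻¹' A ∩ {x | (Gmat G x).det ≠ 0}, (1 + ∑ j, ‖G j x‖ₑ ^ p) < ε :=
  Acr_733.ac_rank3 hΩ hΛ hΩb.measure_lt_top.ne h.homeo h.wg hp h.memG hε

theorem SH.energy_compact {Ω Λ : Set R3} (hΩ : IsOpen Ω) (hΛ : IsOpen Λ)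
    (hΩb : Bornology.IsBounded Ω) {f : R3 → R3} {G : Fin 3 → R3 → R3} {p : ℝ}
    (h : SH p Ω Λ f G) (hp : 0 < p) {ε : ℝ≥0∞} (hε : 0 < ε) :
    ∃ K : Set R3, K ⊆ Λ ∧ IsCompact K ∧
      ∫⁻ x in Ω \ f ⁻¹' K, (1 + ∑ j, ‖G j x‖ₑ ^ p) < ε :=
  Acr_733.energy_compact hΩ hΛ hΩb.measure_lt_top.ne h.homeo hp h.memG hε

end Crest.Agent.R096.Acr_733
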