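import Crest.Agent.R096.Sk4g_663
import Crest.Agent.R096.SkC1_961
import Crest.Agent.R96.En12_199

/-!
Row 96 (S0127), helper594.  **(R3) of 663 #9825: transport `R3 = EuclideanSpace ℝ (Fin 3)` ↔
`E3 = Fin 3 → ℝ`.**  Part 1: sets, homeomorphisms, locally PL maps, norms.
-/

set_option autoImplicit false
set_option linter.unusedSectionVars false
set_option linter.style.longLine false

open MeasureTheory Set Filter Topology Metric
open scoped ENNReal Gradient NNReal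
open Crest.AnalysisR.VecCalc3 Crest.AnalysisR.Sobolev
open Crest.Agent.R096.Str_696 (LocPL)
open Crest.Agent.R096.Sk_962 (SH Gr)
open Crest.Agent.R96.Lu_538 (Gmat Gmat_apply gmatL gmatL_apply aesm_Gmat)
open Crest.Agent.R096.DetN_663 (Gmat_Gr)
open Crest.Agent.R96.En10_199 (P3 P3_mp P3_apply)
open Crest.Agent.R096.SkC1_961 (E3 Hom3)

namespace Crest.Agent.R096.Er_594

noncomputable section

/-! ### maps -/

/-- a map of `R3`, in coordinates -/
def e3 (f : R3 → R3) (x : E3) : E3 := P3.symm (f (P3 x))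

/-- a map of `E3`, on `R3` -/
def r3 (g : E3 → E3) (y : R3) : R3 := P3 (g (P3.symm y))

theorem P3_e3 (f : R3 → R3) (x : E3) : P3 (e3 f x) = f (P3 x) := by simp [e3]

theorem r3_e3 (f : R3 → R3) : r3 (e3 f) = f := by funext y; simp [r3, e3]

theorem e3_r3 (g : E3 → E3) : e3 (r3 g) = g := by funext x; simp [r3, e3]

theorem r3_P3 (g : E3 → E3) (x : E3) : r3 g (P3 x) = P3 (g x) := by simp [r3]

theorem P3_symm_apply (y : R3) (i : Fin 3) : P3.symm y i = y i := rfl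

theorem e3_apply (f : R3 → R3) (x : E3) (i : Fin 3) : e3 f x i = f (P3 x) i := rfl

theorem r3_apply (g : E3 → E3) (y : R3) (i : Fin 3) : r3 g y i = g (P3.symm y) i := rfl

/-! ### sets -/

theorem isOpen_pre {Om : Set R3} (h : IsOpen Om) : IsOpen (P3 ⁻¹' Om) := h.preimage P3.continuous

theorem pre_symm (Om : Set R3) : P3.symm ⁻¹' (P3 ⁻¹' Om) = Om := by
  ext y; simp

theorem symm_pre (Om : Set E3) : P3 ⁻¹' (P3.symm ⁻¹' Om) = Om := by
  ext y; simp

theorem image_eq (Om : Set R3) : P3.symm '' Om = P3 ⁻¹' Om := by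
  ext x
  constructor
  · rintro ⟨y, hy, rfl⟩
    simpa using hy
  · intro hx
    exact ⟨P3 x, hx, by simp⟩

theorem isBounded_pre {Om : Set R3} (h : Bornology.IsBounded Om) :
    Bornology.IsBounded (P3 ⁻¹' Om) := by
  rw [← image_eq]
  exact (P3.symm : R3 →L[ℝ] E3).lipschitz.isBounded_image h

theorem isConnected_pre {Om : Set R3} (h : IsConnected Om) : IsConnected (P3 ⁻¹' Om) := by
  rw [← image_eq]
  exact h.image _ P3.symm.continuous.continuousOn

theorem isCompact_pre {K : Set R3} (h : IsCompact K) : IsCompact (P3 ⁻¹' K) := by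
  rw [← image_eq]
  exact h.image P3.symm.continuous

/-! ### homeomorphisms -/

theorem hom3_of {f : R3 → R3} {Om La : Set R3} (h : IsHomeomorphOn f Om La) :
    Hom3 (e3 f) (P3 ⁻¹' Om) (P3 ⁻¹' La) := by
  obtain ⟨fi, h1, h2, h3, h4, h5, h6⟩ := h
  refine ⟨e3 fi, ?_, ?_, ?_, ?_, ?_, ?_⟩
  · intro x hx
    change P3 (e3 f x) ∈ La
    rw [P3_e3]; exact h1 hx
  · intro x hx
    change P3 (e3 fi x) ∈ Om
    rw [P3_e3]; exact h2 hx
  · intro x hx
    apply P3.injective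
    rw [P3_e3, P3_e3, h3 _ hx]
  · intro x hx
    apply P3.injective
    rw [P3_e3, P3_e3, h4 _ hx]
  · exact P3.symm.continuous.comp_continuousOn (h5.comp P3.continuous.continuousOn fun x hx => hx)
  · exact P3.symm.continuous.comp_continuousOn (h6.comp P3.continuous.continuousOn fun x hx => hx)

theorem homeo_of' {g : E3 → E3} {Om La : Set E3} (h : Hom3 g Om La) :
    IsHomeomorphOn (r3 g) (P3.symm ⁻¹' Om) (P3.symm ⁻¹' La) := by
  obtain ⟨gi, h1, h2, h3, h4, h5, h6⟩ := h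
  refine ⟨r3 gi, ?_, ?_, ?_, ?_, ?_, ?_⟩
  · intro y hy
    change P3.symm (P3 (g (P3.symm y))) ∈ La
    rw [P3.symm_apply_apply]; exact h1 hy
  · intro y hy
    change P3.symm (P3 (gi (P3.symm y))) ∈ Om
    rw [P3.symm_apply_apply]; exact h2 hy
  · intro y hy
    change P3 (gi (P3.symm (P3 (g (P3.symm y))))) = y
    rw [P3.symm_apply_apply, h3 _ hy, P3.apply_symm_apply]
  · intro y hy
    change P3 (g (P3.symm (P3 (gi (P3.symm y))))) = y
    rw [P3.symm_apply_apply, h4 _ hy, P3.apply_symm_apply]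
  · exact P3.continuous.comp_continuousOn (h5.comp P3.symm.continuous.continuousOn fun x hx => hx)
  · exact P3.continuous.comp_continuousOn (h6.comp P3.symm.continuous.continuousOn fun x hx => hx)

theorem homeo_of {g : E3 → E3} {Om La : Set R3} (h : Hom3 g (P3 ⁻¹' Om) (P3 ⁻¹' La)) :
    IsHomeomorphOn (r3 g) Om La := by
  have := homeo_of' h
  rwa [pre_symm, pre_symm] at this

theorem hom3_cont {f : E3 → E3} {Om La : Set E3} (h : Hom3 f Om La) : ContinuousOn f Om := by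
  obtain ⟨_, -, -, -, -, h5, -⟩ := h
  exact h5

theorem hom3_image {f : E3 → E3} {Om La : Set E3} (h : Hom3 f Om La) : f '' Om = La := by
  obtain ⟨fi, h1, h2, h3, h4, h5, h6⟩ := h
  apply Subset.antisymm
  · rintro _ ⟨x, hx, rfl⟩; exact h1 hx
  · intro y hy; exact ⟨fi y, h2 hy, h4 y hy⟩

theorem hom3_inj {f : E3 → E3} {Om La : Set E3} (h : Hom3 f Om La) : InjOn f Om := by
  obtain ⟨fi, h1, h2, h3, h4, h5, h6⟩ := h
  intro x hx y hy hxy
  rw [← h3 x hx, ← h3 y hy, hxy]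

/-! ### norms -/

theorem norm_P3_symm_le (y : R3) : ‖P3.symm y‖ ≤ ‖y‖ := by
  rw [pi_norm_le_iff_of_nonneg (norm_nonneg _)]
  intro i
  exact PiLp.norm_apply_le (p := 2) y i

theorem norm_P3_le (x : E3) : ‖P3 x‖ ≤ 2 * ‖x‖ := by
  rw [EuclideanSpace.norm_eq]
  apply Real.sqrt_le_iff.2
  refine ⟨by positivity, ?_⟩
  have h : ∀ i, ‖P3 x i‖ ^ 2 ≤ ‖x‖ ^ 2 := fun i => by
    have h1 : ‖x i‖ ≤ ‖x‖ := norm_le_pi_norm x i
    have h2 : 0 ≤ ‖x i‖ := norm_nonneg _
    rw [P3_apply]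
    exact pow_le_pow_left₀ h2 h1 2
  calc ∑ i, ‖P3 x i‖ ^ 2 ≤ ∑ _i : Fin 3, ‖x‖ ^ 2 := Finset.sum_le_sum fun i _ => h i
    _ = 3 * ‖x‖ ^ 2 := by simp
    _ ≤ (2 * ‖x‖) ^ 2 := by nlinarith [sq_nonneg ‖x‖]

theorem norm_le_P3 (x : E3) : ‖x‖ ≤ ‖P3 x‖ := by
  have := norm_P3_symm_le (P3 x)
  rwa [P3.symm_apply_apply] at this

theorem norm_le_P3_symm (y : R3) : ‖y‖ ≤ 2 * ‖P3.symm y‖ := by
  have := norm_P3_le (P3.symm y)
  rwa [P3.apply_symm_apply] at this

/-- `C⁰` closeness, from `E3` to `R3` -/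
theorem norm_r3_sub_le (g : E3 → E3) (f : R3 → R3) (y : R3) :
    ‖r3 g y - f y‖ ≤ 2 * ‖g (P3.symm y) - e3 f (P3.symm y)‖ := by
  have h1 : r3 g y - f y = P3 (g (P3.symm y) - e3 f (P3.symm y)) := by
    rw [map_sub, P3_e3, P3.apply_symm_apply]; rfl
  rw [h1]
  exact norm_P3_le _

theorem norm_sub_e3_le (g : E3 → E3) (f : R3 → R3) (y : R3) :
    ‖g (P3.symm y) - e3 f (P3.symm y)‖ ≤ ‖r3 g y - f y‖ := by
  have h1 : r3 g y - f y = P3 (g (P3.symm y) - e3 f (P3.symm y)) := by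
    rw [map_sub, P3_e3, P3.apply_symm_apply]; rfl
  rw [h1]
  exact norm_le_P3 _

/-! ### locally PL maps -/

section PL

variable {E F E' F' : Type*} [NormedAddCommGroup E] [NormedSpace ℝ E]
  [NormedAddCommGroup F] [NormedSpace ℝ F] [NormedAddCommGroup E'] [NormedSpace ℝ E']
  [NormedAddCommGroup F'] [NormedSpace ℝ F']

/-- locally PL maps are invariant under linear isomorphisms of the source and linear maps of the
target -/
theorem locPL_conj {h : E → F} {Ω : Set E} (H : LocPL h Ω) (A : E' ≃L[ℝ] E) (B : F →L[ℝ] F') :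
    LocPL (fun y => B (h (A y))) (A ⁻¹' Ω) := by
  classical
  intro y hy
  obtain ⟨ρ, hρ, S, hc, hS⟩ := H _ hy
  obtain ⟨r, hr, hr'⟩ := Metric.continuousAt_iff.1 (A.continuous.continuousAt (x := y)) ρ hρ
  have hmaps : MapsTo A (ball y r) (ball (A y) ρ) := fun z hz => hr' hz
  let α : E' →ᵃ[ℝ] E := ((A : E' →L[ℝ] E) : E' →ₗ[ℝ] E).toAffineMap
  let β : F →ᵃ[ℝ] F' := (B : F →ₗ[ℝ] F').toAffineMap
  refine ⟨r, hr, S.image (fun g => β.comp (g.comp α)), ?_, ?_⟩
  · exact B.continuous.comp_continuousOn (hc.comp A.continuous.continuousOn hmaps)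
  · intro z hz
    obtain ⟨g, hg, hgz⟩ := hS _ (hmaps hz)
    refine ⟨β.comp (g.comp α), Finset.mem_image_of_mem _ hg, ?_⟩
    simp only [hgz]
    rfl

end PL

theorem locPL_r3' {g : E3 → E3} {Om : Set E3} (h : LocPL g Om) :
    LocPL (r3 g) (P3.symm ⁻¹' Om) := locPL_conj h P3.symm (P3 : E3 →L[ℝ] R3)

theorem locPL_r3 {g : E3 → E3} {Om : Set R3} (h : LocPL g (P3 ⁻¹' Om)) : LocPL (r3 g) Om := by
  have := locPL_r3' h
  rwa [pre_symm] at this

theorem locPL_e3 {f : R3 → R3} {Om : Set R3} (h : LocPL f Om) : LocPL (e3 f) (P3 ⁻¹' Om) :=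
  locPL_conj h P3 (P3.symm : R3 →L[ℝ] E3)

/-! ### integrals -/

theorem lint_P3 (R : Set R3) (F : R3 → ℝ≥0∞) :
    ∫⁻ y in R, F y = ∫⁻ x in P3 ⁻¹' R, F (P3 x) := by
  have hem : MeasurableEmbedding P3 := P3.toHomeomorph.measurableEmbedding
  exact (P3_mp.setLIntegral_comp_preimage_emb hem F R).symm

theorem vol_P3 (R : Set R3) : volume (P3 ⁻¹' R) = volume R :=
  P3_mp.measure_preimage_emb P3.toHomeomorph.measurableEmbedding R

theorem ae_P3 {R : Set R3} {q : R3 → Prop} :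
    (∀ᵐ y ∂(volume.restrict R), q y) ↔ ∀ᵐ x ∂(volume.restrict (P3 ⁻¹' R)), q (P3 x) := by
  have hem : MeasurableEmbedding P3 := P3.toHomeomorph.measurableEmbedding
  have h1 : Measure.map P3 (volume.restrict (P3 ⁻¹' R)) = volume.restrict R := by
    rw [← hem.restrict_map, P3_mp.map_eq]
  rw [← h1, hem.ae_map_iff]

theorem aesm_P3 {F : Type*} [TopologicalSpace F] {u : R3 → F} {R : Set R3}
    (h : AEStronglyMeasurable u (volume.restrict R)) :
    AEStronglyMeasurable (fun x => u (P3 x)) (volume.restrict (P3 ⁻¹' R)) := by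
  have hem : MeasurableEmbedding P3 := P3.toHomeomorph.measurableEmbedding
  have h1 : Measure.map P3 (volume.restrict (P3 ⁻¹' R)) = volume.restrict R := by
    rw [← hem.restrict_map, P3_mp.map_eq]
  rw [← h1] at h
  exact h.comp_measurable hem.measurable

end

end Crest.Agent.R096.Er_594
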