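import Crest.Agent.R096.Mbf_337
import Crest.Agent.R096.Er1_594

/-!
# Row 96, helper161: the hypothesis `Star Φ` of `Mbf_337.MachBF`

The closed star of every brick of a small foam lies in the interior of a convex compact subset of
the target (a sup ball).
-/

set_option autoImplicit false
set_option linter.unusedSectionVars false

open Set Filter Topology Metric

namespace Crest.Agent.R096.Sta_161

open Crest.Agent.R096.Bsp_628 Crest.Agent.R096.Brk3_582 Crest.Agent.R096.Brk5_582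
open Crest.Agent.R096.SkC1_961 (E3 FoamD)
open Crest.Agent.R96.En10_199 (P3)

noncomputable section

/-- `Star` for a set of boxes -/
def StarF {κ : Type*} [Fintype κ] [Nonempty κ] (La : Set (κ → ℝ)) (F : Set (Bx κ)) : Prop :=
  ∀ c : F, ∃ D : Set (κ → ℝ), IsCompact D ∧ Convex ℝ D ∧ D ⊆ La ∧
    ∀ c' : F, (Pc F c' ∩ Pc F c).Nonempty → Pc F c' ⊆ interior D

section gen

variable {κ : Type*} [Fintype κ] [Nonempty κ] {La : Set (κ → ℝ)} {F : Set (Bx κ)} {R : ℝ}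

/-- **the basic form**: one sup ball round one point of the brick -/
theorem starF_of_ball (hpos : ∀ C ∈ F, C.Pos) (cmp : Cmp F R)
    (h : ∀ C ∈ F, ∃ x ∈ C.set, ∃ r : ℝ, (1 + R) * C.sz < r ∧ closedBall x r ⊆ La) :
    StarF La F := by
  classical
  intro c
  obtain ⟨x, hx, r, hr, hrL⟩ := h c.1 c.2
  refine ⟨closedBall x r, isCompact_closedBall x r, convex_closedBall x r, hrL, ?_⟩
  rintro c' ⟨z, hz', hz⟩ y hy
  have h1 : dist y z ≤ c'.1.sz := dist_le_sz hy hz' (hpos _ c'.2)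
  have h2 : dist z x ≤ c.1.sz := dist_le_sz hz hx (hpos _ c.2)
  have h3 : c'.1.sz ≤ R * c.1.sz := cmp c' c ⟨z, hz', hz⟩
  have h4 : y ∈ ball x r := by
    rw [mem_ball]
    calc dist y x ≤ dist y z + dist z x := dist_triangle _ _ _
      _ ≤ R * c.1.sz + c.1.sz := by linarith
      _ = (1 + R) * c.1.sz := by ring
      _ < r := hr
  exact (interior_maximal ball_subset_closedBall isOpen_ball) h4

/-- the brick is small compared with the distance to the complement -/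
theorem starF_of_infDist (hpos : ∀ C ∈ F, C.Pos) (cmp : Cmp F R)
    (h : ∀ C ∈ F, ∃ x ∈ C.set, (1 + R) * C.sz < infDist x Laᶜ) : StarF La F := by
  refine starF_of_ball hpos cmp fun C hC => ?_
  obtain ⟨x, hx, hlt⟩ := h C hC
  obtain ⟨r, h1, h2⟩ := exists_between hlt
  refine ⟨x, hx, r, h1, ?_⟩
  intro y hy
  by_contra hn
  have h3 : infDist x Laᶜ ≤ dist x y := infDist_le_dist_of_mem hn
  rw [mem_closedBall, dist_comm] at hy
  linarith

/-- the form with a size function -/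
theorem starF_of_rho (hpos : ∀ C ∈ F, C.Pos) (hsub : ∀ C ∈ F, C.set ⊆ La) (cmp : Cmp F R)
    (hR : 0 ≤ R) {rho : (κ → ℝ) → ℝ} (h1 : ∀ C ∈ F, ∀ x ∈ C.set, C.sz ≤ rho x)
    (h2 : ∀ x ∈ La, (1 + R) * rho x < infDist x Laᶜ) : StarF La F := by
  refine starF_of_infDist hpos cmp fun C hC => ?_
  have hx : C.lo ∈ C.set := ⟨le_rfl, fun i => (hpos C hC i).le⟩
  refine ⟨C.lo, hx, lt_of_le_of_lt ?_ (h2 _ (hsub C hC hx))⟩
  exact mul_le_mul_of_nonneg_left (h1 C hC _ hx) (by linarith)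

end gen

section rho

variable {X : Type*} [PseudoMetricSpace X] {La : Set X} {R : ℝ}

/-- **the size function**: any Lipschitz function cut off by the distance to the complement -/
theorem exists_rho (hLo : IsOpen La) (hne : Laᶜ.Nonempty) (hR : 0 ≤ R) {rho0 : X → ℝ} {L : NNReal}
    (hL : LipschitzWith L rho0) (hL2 : (1 / 2 : NNReal) ≤ L) (h0 : ∀ x ∈ La, 0 < rho0 x) :
    ∃ rho : X → ℝ, LipschitzWith L rho ∧ (∀ x, 0 < rho x ↔ x ∈ La) ∧ (∀ x, rho x ≤ rho0 x) ∧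
      (∀ x, rho x = min (rho0 x) (infDist x Laᶜ / (2 * (1 + R)))) ∧
      ∀ x ∈ La, (1 + R) * rho x < infDist x Laᶜ := by
  have hR1 : (0 : ℝ) < 1 + R := by linarith
  have hcl : IsClosed Laᶜ := hLo.isClosed_compl
  have hpos : ∀ x, 0 < infDist x Laᶜ ↔ x ∈ La := by
    intro x
    rw [← hcl.notMem_iff_infDist_pos hne, notMem_compl_iff]
  refine ⟨fun x => min (rho0 x) (infDist x Laᶜ / (2 * (1 + R))), ?_, ?_, fun x => min_le_left _ _,
    fun x => rfl, ?_⟩
  · have h1 : LipschitzWith L fun x => infDist x Laᶜ / (2 * (1 + R)) := by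
      apply LipschitzWith.of_le_add_mul
      intro x y
      have h2 : infDist x Laᶜ ≤ infDist y Laᶜ + dist x y := infDist_le_infDist_add_dist
      have h3 : (1 / 2 : ℝ) ≤ L := by exact_mod_cast hL2
      have h4 : infDist x Laᶜ / (2 * (1 + R)) ≤ (infDist y Laᶜ + dist x y) / (2 * (1 + R)) := by
        gcongr
      have h5 : dist x y / (2 * (1 + R)) ≤ L * dist x y := by
        rw [div_le_iff₀ (by positivity)]
        have h6 := @dist_nonneg _ _ x y
        have h7 : 1 ≤ L * (2 * (1 + R)) := by nlinarith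
        nlinarith
      rw [add_div] at h4
      linarith
    exact (hL.min h1).weaken (by simp)
  · intro x
    rw [lt_min_iff]
    constructor
    · rintro ⟨-, h1⟩
      rw [← hpos]
      have h2 : (0 : ℝ) < 2 * (1 + R) := by positivity
      exact (div_pos_iff_of_pos_right h2).1 h1
    · intro hx
      exact ⟨h0 x hx, div_pos ((hpos x).2 hx) (by positivity)⟩
  · intro x hx
    have h1 := (hpos x).2 hx
    have h2 : min (rho0 x) (infDist x Laᶜ / (2 * (1 + R))) ≤ infDist x Laᶜ / (2 * (1 + R)) :=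
      min_le_right _ _
    calc (1 + R) * min (rho0 x) (infDist x Laᶜ / (2 * (1 + R)))
        ≤ (1 + R) * (infDist x Laᶜ / (2 * (1 + R))) := mul_le_mul_of_nonneg_left h2 hR1.le
      _ = infDist x Laᶜ / 2 := by field_simp
      _ < infDist x Laᶜ := by linarith

end rho

/-- `StarF` is literally `Mbf_337.Star` -/
theorem star_of_starF {δ κ0 R c0 : ℝ} {La : Set E3} {Φ : FoamD δ κ0 R c0 La}
    (h : StarF La Φ.F) : Mbf_337.Star Φ := h

/-- **`Star Φ` from small bricks** (any of the three forms) -/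
theorem star_of_ball {δ κ0 R c0 : ℝ} {La : Set E3} (Φ : FoamD δ κ0 R c0 La)
    (h : ∀ C ∈ Φ.F, ∃ x ∈ C.set, ∃ r : ℝ, (1 + R) * C.sz < r ∧ closedBall x r ⊆ La) :
    Mbf_337.Star Φ := starF_of_ball Φ.bf.pos Φ.cmp h

theorem star_of_infDist {δ κ0 R c0 : ℝ} {La : Set E3} (Φ : FoamD δ κ0 R c0 La)
    (h : ∀ C ∈ Φ.F, ∃ x ∈ C.set, (1 + R) * C.sz < infDist x Laᶜ) :
    Mbf_337.Star Φ := starF_of_infDist Φ.bf.pos Φ.cmp h

theorem star_of_rho {δ κ0 R c0 : ℝ} {La : Set E3} (Φ : FoamD δ κ0 R c0 La) (hR : 0 ≤ R)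
    {rho : E3 → ℝ} (h1 : ∀ C ∈ Φ.F, ∀ x ∈ C.set, C.sz ≤ rho x)
    (h2 : ∀ x ∈ La, (1 + R) * rho x < infDist x Laᶜ) : Mbf_337.Star Φ :=
  starF_of_rho Φ.bf.pos Φ.bf.sub Φ.cmp hR h1 h2

/-- **in the language of `R3`** (`La = P3 ⁻¹' Λ`): the bricks are small compared with the distance
of one of their points to the complement of `Λ` -/
theorem star_of_R3 {δ κ0 R c0 : ℝ} {Λ : Set (EuclideanSpace ℝ (Fin 3))}
    (Φ : FoamD δ κ0 R c0 (P3 ⁻¹' Λ))
    (h : ∀ C ∈ Φ.F, ∃ x ∈ C.set, 2 * ((1 + R) * C.sz) < infDist (P3 x) Λᶜ) :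
    Mbf_337.Star Φ := by
  refine star_of_ball Φ fun C hC => ?_
  obtain ⟨x, hx, hlt⟩ := h C hC
  obtain ⟨r, h1, h2⟩ := exists_between hlt
  refine ⟨x, hx, r / 2, by linarith, ?_⟩
  intro y hy
  rw [mem_preimage]
  by_contra hn
  have h3 : infDist (P3 x) Λᶜ ≤ dist (P3 x) (P3 y) := infDist_le_dist_of_mem hn
  rw [mem_closedBall, dist_eq_norm] at hy
  rw [dist_eq_norm, ← map_sub, ← norm_neg, ← map_neg, neg_sub] at h3
  have h4 := Er_594.norm_P3_le (y - x)
  linarith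

/-- the displacement bound which gives `Star` in `prep3` (766): `C.sz ≤ dspS R Λ (P3 z)` on `C` -/
def dspS (R : ℝ) (Λ : Set (EuclideanSpace ℝ (Fin 3))) (y : EuclideanSpace ℝ (Fin 3)) : ℝ :=
  infDist y Λᶜ / (4 * (1 + R))

theorem dspS_cont (R : ℝ) (Λ : Set (EuclideanSpace ℝ (Fin 3))) : Continuous (dspS R Λ) :=
  (continuous_infDist_pt _).div_const _

theorem dspS_pos {R : ℝ} (hR : 0 ≤ R) {Λ : Set (EuclideanSpace ℝ (Fin 3))} (hΛ : IsOpen Λ)
    (hne : Λᶜ.Nonempty) {y : EuclideanSpace ℝ (Fin 3)} (hy : y ∈ Λ) : 0 < dspS R Λ y :=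
  div_pos ((hΛ.isClosed_compl.notMem_iff_infDist_pos hne).1 (by simpa using hy)) (by positivity)

theorem starF_of_dsp {F : Set (Bx (Fin 3))} {R : ℝ} (hR : 0 ≤ R)
    {Λ : Set (EuclideanSpace ℝ (Fin 3))} (hΛ : IsOpen Λ) (hne : Λᶜ.Nonempty)
    (hpos : ∀ C ∈ F, C.Pos) (hsub : ∀ C ∈ F, C.set ⊆ P3 ⁻¹' Λ) (cmp : Cmp F R)
    (h : ∀ C ∈ F, ∀ z ∈ C.set, C.sz ≤ dspS R Λ (P3 z)) : StarF (P3 ⁻¹' Λ) F := by
  refine starF_of_ball hpos cmp fun C hC => ?_
  have hx : C.lo ∈ C.set := ⟨le_rfl, fun i => (hpos C hC i).le⟩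
  have h1 := h C hC _ hx
  have hR1 : (0 : ℝ) < 1 + R := by linarith
  have h0 : 0 < infDist (P3 C.lo) Λᶜ :=
    (hΛ.isClosed_compl.notMem_iff_infDist_pos hne).1 (by simpa using hsub C hC hx)
  refine ⟨C.lo, hx, infDist (P3 C.lo) Λᶜ / 3, ?_, ?_⟩
  · unfold dspS at h1
    have h2 : (1 + R) * C.sz ≤ (1 + R) * (infDist (P3 C.lo) Λᶜ / (4 * (1 + R))) :=
      mul_le_mul_of_nonneg_left h1 hR1.le
    have h3 : (1 + R) * (infDist (P3 C.lo) Λᶜ / (4 * (1 + R))) = infDist (P3 C.lo) Λᶜ / 4 := by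
      field_simp
    linarith
  · intro y hy
    rw [mem_preimage]
    by_contra hn
    have h3 : infDist (P3 C.lo) Λᶜ ≤ dist (P3 C.lo) (P3 y) := infDist_le_dist_of_mem hn
    rw [mem_closedBall, dist_eq_norm] at hy
    rw [dist_eq_norm, ← map_sub, ← norm_neg, ← map_neg, neg_sub] at h3
    have h4 := Er_594.norm_P3_le (y - C.lo)
    linarith

end

end Crest.Agent.R096.Sta_161
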