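import Crest.Agent.R096.Pmc3_112

/-!
# Row 96 (S0127), helper112.  PREMACH, part 4: the theorem `premach`
-/

set_option autoImplicit false
set_option linter.style.longLine false

open MeasureTheory Set Filter Metric
open scoped Topology ENNReal

namespace Crest.Agent.R096.Pmc_112

open Crest.Agent.R096.Msh_715
open Crest.Agent.R096.SkC1_961 (E3 Cfg FoamD Hom3 NN)
open Crest.Agent.R096.Ls_222
open Crest.Agent.R096.Der_764 (OmH)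
open Crest.Agent.R096.Mbf_337
open Crest.Agent.R96.Pm_199
open Crest.Agent.R96.Sob4_199 (VWD)
open Crest.Agent.R96.En10_199 (P3)
open Crest.Agent.R96.Sg1_199 (li sgm)
open Crest.Agent.R96.EaCore_348 (bt EE Choice)

noncomputable section

variable {δ κ0 R c0 : ℝ} {La Om : Set E3} {Φ : FoamD δ κ0 R c0 La} {f : E3 → E3} {J : Type}

/-- the size of the derivative in the direction `v` -/
def Gd' (D' : E3 → E3 →L[ℝ] E3) (v y : E3) : ℝ≥0∞ := ‖D' y v‖ₑ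

/-- **what the mesh `md a w` must satisfy** when the shifts of the blocks are good: exact and tiny
cores, fineness, and the words of the exact cores off few levels. -/
structure Mok (Φ : FoamD δ κ0 R c0 La) (f : E3 → E3) (κp μ κ1 κ2 : ℝ) (X : Set Φ.F)
    (D : Dec Om Φ.F) : Prop where
  cores : Cores Φ D.T f κ1 κ2 X D.J0 D.J D.V D.ct D.A D.lam D.z D.θ D.φ
  fine : Fine Φ D.T f κ1 D.J0
  words : ∃ Bad : Φ.F → Set ℝ, (∀ c, MeasurableSet (Bad c)) ∧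
    (∀ c, volume (Bad c ∩ Icc 0 1) ≤ ENNReal.ofReal (κp / 32)) ∧
    ∀ L : Φ.F → Finset ℝ, (∀ c, ∀ t ∈ L c, μ ≤ t ∧ t ≤ 1 - μ) →
      (∀ c, ∀ t ∈ L c, t ∉ Bad c) → Words Φ D.T f X D.ct D.A D.lam D.z D.M L

/-- **the output of PREMACH for one mesh** -/
structure PreOut (Φ : FoamD δ κ0 R c0 La) (f : E3 → E3) (κp μ κ1 κ2 κ3 : ℝ) (X : Set Φ.F)
    (D : Dec Om Φ.F) (l : Edg D.T → ℝ≥0∞) : Prop where
  cores : Cores Φ D.T f κ1 κ2 X D.J0 D.J D.V D.ct D.A D.lam D.z D.θ D.φ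
  fine : Fine Φ D.T f κ1 D.J0
  fin : ∀ e, l e ≠ ∞
  choice : Choice Φ D.T f κp μ κ3 X D.V D.ct D.A D.lam D.z D.M l

/-- one mesh -/
theorem preOut_of (hLa : IsOpen La) (hδ : 0 < δ) (hR : 0 < R) (hf : Hom3 f Om La)
    {D' : E3 → E3 →L[ℝ] E3} {κp μ κ1 κ2 κ3 : ℝ} (hκp : 0 < κp) (hκp1 : κp ≤ 1)
    (hμ : μ ≤ κp / 64) (hκ3 : 8 ≤ κ3) (hκ2 : 0 ≤ κ2) (hκ : κ1 * κ0 < κ2) {X : Set Φ.F}
    {D : Dec Om Φ.F} (hM : Mok Φ f κp μ κ1 κ2 X D)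
    (hQ : ∀ e : Edg D.T, Qs Φ f Om D' (ea e) (ev e)) :
    PreOut Φ f κp μ κ1 κ2 κ3 X D
      (fun e => ENNReal.ofReal (8 * Cl δ R) * le (Gd' D') e) := by
  have hh := hh_of_cores hκ2 hκ hM.cores (dim_of_cores hf hM.cores)
  have hs : ∀ e : Edg D.T, sgm (ea e) (ev e) ⊆ OmH Φ f Om := fun e y hy =>
    ⟨sgm_sub_Om e hy, hh e y hy⟩
  have hG : ∀ e : Edg D.T, UGv (fun y => Φ.Psi (f y)) (fun y => ‖D' y (ev e)‖ₑ) (ea e) (ev e) :=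
    fun e => (hQ e (hs e)).1
  have hGf : ∀ e : Edg D.T, li (fun y => ‖D' y (ev e)‖ₑ) (ea e) (ev e) ≠ ∞ :=
    fun e => (hQ e (hs e)).2
  obtain ⟨Bad, hB1, hB2, hB3⟩ := hM.words
  refine ⟨hM.cores, hM.fine, fun e => ENNReal.mul_ne_top ENNReal.ofReal_ne_top (hGf e), ?_⟩
  intro err herr Z m0 hZ
  obtain ⟨κ, L, h1, h2, h3⟩ := sel_std hLa hδ hR hf D.T hh hG hGf hκp hκp1 hμ hκ3 hB1 hB2 hB3
    err herr Z hZ m0
  exact ⟨κ, L, h1, h2, fun i _ => h3 i⟩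

/-- **PREMACH**: for most shifts `a` there are shifts `w` of the blocks such that the mesh `md a w`
has everything the machine needs, with small energies in all classes. -/
theorem premach (hO : IsOpen Om) (hLa : IsOpen La) (hδ : 0 < δ) (hR : 0 < R) (hf : Hom3 f Om La)
    (M : MF Om Φ.F J) {D' : E3 → E3 →L[ℝ] E3} (hDm : ∀ v, Measurable fun y => D' y v)
    (hD : ∀ l, VWD (OmH Φ f Om) volume (fun x => P3 (Φ.Psi (f x)))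
      (fun x => P3 (D' x (Pi.single l 1))) (Pi.single l (1:ℝ)))
    {κp μ κ1 κ2 κ3 : ℝ} (hκp : 0 < κp) (hκp1 : κp ≤ 1)
    (hμ : μ ≤ κp / 64) (hκ3 : 8 ≤ κ3) (hκ2 : 0 ≤ κ2) (hκ : κ1 * κ0 < κ2) {X : Set Φ.F}
    {p : ℝ} (hp : 0 ≤ p) {Gd : J → Set E3} (hGd : ∀ j, Gd j ⊆ M.Bx j) {θ₁ θ₂ : ℝ≥0∞}
    (hZ : volume (⋃ j, {a | a ∈ M.A ∧ ∀ w ∈ M.W j, a + w ∉ Gd j}) ≤ θ₁ * volume M.A)
    {m lam : M.κ → ℝ≥0∞} (hm0 : ∀ k, m k ≠ 0)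
    (hm : ∀ k, M.bl k = none → ∫⁻ a in M.A, M.EnC (Gd' D') p k a ≤ m k * volume M.A)
    (hl0 : ∀ k, lam k ≠ 0) (hl1 : ∀ k, lam k ≠ ∞) (hl : ∑' k, (lam k)⁻¹ ≤ θ₂)
    {P' : E3 → Prop} (hP : ∀ᵐ a : E3, a ∈ M.A → P' a)
    (hM : ∀ᵐ a : E3, a ∈ M.A → ∀ w (h : M.Ok a w), (∀ j, a + w j ∈ Gd j) →
      Mok Φ f κp μ κ1 κ2 X (M.md a w h)) :
    ∃ A' ⊆ M.A, MeasurableSet A' ∧ volume (M.A \ A') ≤ (θ₁ + θ₂) * volume M.A ∧
      ∀ a ∈ A', P' a ∧ ∃ (w : J → E3) (h : M.Ok a w), (∀ j, a + w j ∈ Gd j) ∧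
        PreOut Φ f κp μ κ1 κ2 κ3 X (M.md a w h)
          (fun e => ENNReal.ofReal (8 * Cl δ R) * le (Gd' D') e) ∧
        (∀ k, M.bl k = none → M.EnT (Gd' D') p a w h k ≤ lam k * m k) ∧
        ∀ k j, M.bl k = some j → M.EnT (Gd' D') p a w h k ≤ M.EnC (Gd' D') p k (a + w j) := by
  have hGh : ∀ (t : ℝ) v y, Gd' D' (t • v) y = ‖t‖ₑ * Gd' D' v y := by
    intro t v y
    unfold Gd'
    rw [map_smul, enorm_smul]
  have hGm : ∀ v, Measurable (Gd' D' v) := fun v => (hDm v).enorm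
  obtain ⟨A', h1, h2, h3, h4⟩ := M.sel (Q := Qs Φ f Om D') (ae_Qs hO hLa hf hD)
    (fun x v h => Qs_rev h) hGh hGm hp hGd hZ hm0 hm hl0 hl1 hl
    (P' := fun a => P' a ∧ ∀ w (h : M.Ok a w), (∀ j, a + w j ∈ Gd j) →
      Mok Φ f κp μ κ1 κ2 X (M.md a w h))
    (by filter_upwards [hP, hM] with a ha1 ha2 ha
        exact ⟨ha1 ha, ha2 ha⟩)
  refine ⟨A', h1, h2, h3, fun a ha => ?_⟩
  obtain ⟨⟨h5, h6⟩, w, h, h7, h8, h9, h10⟩ := h4 a ha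
  exact ⟨h5, w, h, h7, preOut_of hLa hδ hR hf hκp hκp1 hμ hκ3 hκ2 hκ (h6 w h h7) h8, h9, h10⟩

end

end Crest.Agent.R096.Pmc_112
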