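import Crest.Agent.R096.SkC1_961

/-!
Row 96 (S0127), helper748: **EA-A MACRO** (348 #10593).  Small closed balls `(x c, r c)`, `c ∈ Y`, around
points with image in the open brick `c`: the image of the ball is in the open brick, the balls are in
prescribed neighbourhoods, pairwise disjoint and locally finite in `Om`.
-/

set_option autoImplicit false
set_option linter.style.longLine false
set_option linter.unusedVariables false
set_option linter.unusedSectionVars false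

open Set Filter Topology Metric

namespace Crest.Agent.R096.Eaa_748

open Crest.Agent.R096.Bsp_628 Crest.Agent.R096.Brk1_582
open Crest.Agent.R096.SkC1_961 (E3 Hom3)

variable {δ κ0 : ℝ} {La Om : Set E3} {F : Set (Bx (Fin 3))} {f : E3 → E3}

/-- the open brick is open -/
theorem isOpen_brick (c : Bx (Fin 3)) : IsOpen {y : E3 | ∀ k, c.lo k < y k ∧ y k < c.hi k} := by
  simp only [Set.ofPred_forall, Set.ofPred_and]
  exact isOpen_iInter_of_finite fun k =>
    (isOpen_lt continuous_const (continuous_apply k)).inter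
      (isOpen_lt (continuous_apply k) continuous_const)

/-- different open bricks are disjoint -/
theorem brick_disj (bf : BoxFoam La F δ κ0) {c c' : F} (hne : c ≠ c') {y : E3}
    (h : ∀ k, c.1.lo k < y k ∧ y k < c.1.hi k) : ¬ ∀ k, c'.1.lo k < y k ∧ y k < c'.1.hi k := by
  intro h'
  obtain ⟨k, hk⟩ := bf.inv.disj c.2 c'.2 (bf.pos _ c.2) (bf.pos _ c'.2)
    (fun h => hne (Subtype.ext h))
  have h1 := h k
  have h2 := h' k
  rcases hk with hk | hk <;> linarith [h1.1, h1.2, h2.1, h2.2]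

theorem exists_macro (hO : IsOpen Om) (hLa : IsOpen La) (hf : Hom3 f Om La)
    (bf : BoxFoam La F δ κ0) (Y : Set F) {x : F → E3}
    (hx : ∀ c ∈ Y, x c ∈ Om ∧ ∀ k, c.1.lo k < f (x c) k ∧ f (x c) k < c.1.hi k)
    {W : F → Set E3} (hW : ∀ c ∈ Y, W c ∈ 𝓝 (x c)) {η : F → ℝ} (hη : ∀ c, 0 < η c) :
    ∃ r : F → ℝ,
      (∀ c ∈ Y, 0 < r c ∧ r c ≤ η c ∧ closedBall (x c) (r c) ⊆ Om ∩ W c ∧
        ∀ y ∈ closedBall (x c) (r c), ∀ k, c.1.lo k < f y k ∧ f y k < c.1.hi k) ∧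
      (∀ c ∈ Y, ∀ c' ∈ Y, c ≠ c' →
        Disjoint (closedBall (x c) (r c)) (closedBall (x c') (r c'))) ∧
      ∀ y ∈ Om, ∃ U ∈ 𝓝 y, {c | c ∈ Y ∧ (closedBall (x c) (r c) ∩ U).Nonempty}.Finite := by
  classical
  obtain ⟨fi, hfm, hfim, hl, hri, hfc, hfic⟩ := hf
  have key : ∀ c : F, ∃ r : ℝ, c ∈ Y → 0 < r ∧ r ≤ η c ∧ closedBall (x c) r ⊆ Om ∩ W c ∧
      ∀ y ∈ closedBall (x c) r, ∀ k, c.1.lo k < f y k ∧ f y k < c.1.hi k := by
    intro c
    by_cases hc : c ∈ Y
    swap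
    · exact ⟨0, fun h => absurd h hc⟩
    have hOm : Om ∈ 𝓝 (x c) := hO.mem_nhds (hx c hc).1
    have hpre : f ⁻¹' {y : E3 | ∀ k, c.1.lo k < y k ∧ y k < c.1.hi k} ∈ 𝓝 (x c) :=
      (hfc.continuousAt hOm).preimage_mem_nhds ((isOpen_brick c.1).mem_nhds (hx c hc).2)
    obtain ⟨ρ, hρ, hsub⟩ := Metric.nhds_basis_closedBall.mem_iff.1
      (inter_mem (inter_mem hOm (hW c hc)) hpre)
    refine ⟨min ρ (η c), fun _ => ⟨lt_min hρ (hη c), min_le_right _ _, ?_, ?_⟩⟩
    · intro y hy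
      exact (hsub (closedBall_subset_closedBall (min_le_left _ _) hy)).1
    · intro y hy
      exact (hsub (closedBall_subset_closedBall (min_le_left _ _) hy)).2
  choose r hr using key
  refine ⟨r, hr, fun c hc c' hc' hne => ?_, fun y hy => ?_⟩
  · rw [Set.disjoint_left]
    intro y hy hy'
    exact brick_disj bf hne ((hr c hc).2.2.2 y hy) ((hr c' hc').2.2.2 y hy')
  · obtain ⟨ρ, hρ, hfin⟩ := bf.lf (f y) (hfm hy)
    have hpre : f ⁻¹' (ball (f y) ρ) ∈ 𝓝 y :=
      (hfc.continuousAt (hO.mem_nhds hy)).preimage_mem_nhds (ball_mem_nhds _ hρ)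
    refine ⟨_, hpre, Set.Finite.of_finite_image (f := Subtype.val) (hfin.subset ?_)
      Subtype.val_injective.injOn⟩
    rintro _ ⟨c, ⟨hc, z, hz, hzU⟩, rfl⟩
    refine ⟨c.2, f z, ?_, hzU⟩
    rw [Bx.mem_set]
    intro k
    have h := (hr c hc).2.2.2 z hz k
    exact ⟨h.1.le, h.2.le⟩

end Crest.Agent.R096.Eaa_748
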