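import Crest.Agent.R096.Acc5_365
import Crest.Agent.R96.Eac3_348
import Crest.Agent.R96.EaP3_899
import Crest.Agent.R096.Sta1_161

/-!
Row 96 (S0127), helper365.  **EAU1**: `EaX_766.EA p` from the machine `MachBF` and ONE decorated mesh
(`PreX p` = the output of PREMACH for a selected mesh, with its total energy).
-/

set_option autoImplicit false
set_option linter.style.longLine false
set_option linter.unusedSectionVars false
set_option linter.unusedVariables false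

open MeasureTheory Set Filter Topology Metric
open scoped ENNReal NNReal

namespace Crest.Agent.R096.Eau_365

open Crest.AnalysisR.VecCalc3 Crest.AnalysisR.Sobolev
open Crest.Agent.R096.SkC1_961 (E3 Hom3 FoamD)
open Crest.Agent.R096.Er_594 (SH3)
open Crest.Agent.R096.Bsp_628 Crest.Agent.R096.Brk5_582
open Crest.Agent.R096.Bxs_627 (ctr)
open Crest.Agent.R096.EaX_766 (lin cbx ExIn Kor RatA)
open Crest.Agent.R096.Acc_365
open Crest.Agent.R096.Msh_715 (Tiling P)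
open Crest.Agent.R096.Ls_222 (Edg)
open Crest.Agent.R96.EaCore_348 (EE Ord Macro ea_one Kea)
open Crest.Agent.R96.EaPost_348 (Geo)
open Crest.Agent.R96.Pm_199 (Dec)
open Crest.Agent.R096.Pmc_112 (PreOut)
open Crest.Agent.R96.EaP_899 (XD fX cm)
open Crest.Agent.R096.Mbf_337 (MachBF Star)

noncomputable section

/-- the right-hand sides of the energy clause of `EA` -/
def Jx (p : ℝ) (Om : Set E3) (D : E3 → E3 →L[ℝ] E3) (F : Set (Bx (Fin 3))) (X : Set F)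
    (A : F → E3 ≃ᵃ[ℝ] E3) (lam : F → ℝ) : ℝ≥0∞ :=
  ∫⁻ x in Om \ ⋃ c ∈ X, Kor F A lam c, (1 + ‖D x‖ₑ ^ p)

def Tx (p : ℝ) (F : Set (Bx (Fin 3))) (X : Set F) (A : F → E3 ≃ᵃ[ℝ] E3) (lam : F → ℝ) : ℝ≥0∞ :=
  ∑' c : X, (1 + ‖lin (A c)‖ₑ ^ p) * volume (Kor F A lam c)

/-- **the output of PREMACH**: one decorated mesh for the ratios `(1 + θ) lam c`, with the weights `l`
of its edges, the core tiles being translates by `v c` of the boxes, and the total energy. -/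
def PreMesh {δ κ0 R c0 : ℝ} {La : Set E3} {F : Set (Bx (Fin 3))} (bf : BoxFoam La F δ κ0)
    (cmp : Cmp F R) (p : ℝ) (C : Set (Set E3) → ℝ) (κp κ1 κ2 θ : ℝ) (Om : Set E3) (f : E3 → E3)
    (D : E3 → E3 →L[ℝ] E3) (X : Set F) (A : F → E3 ≃ᵃ[ℝ] E3) (lam : F → ℝ) (C1 : ℝ≥0∞) (E : ℝ)
    (ε : ℝ≥0∞) : Prop :=
  ∃ (z : F → E3) (H : XD bf c0 X (fun c => (1 + θ) * lam c) z) (Dd : Dec Om F)
    (l : Edg Dd.T → ℝ≥0∞) (v : F → E3) (κ : Type) (x₀ : κ → E3) (R0 R1 : κ → ℝ) (b : κ → F)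
    (κe : ℝ), κe ≤ κ1 ∧
    PreOut (fX bf cmp H) f κp (κp / 64) κe κ2 8 X Dd l ∧
    Geo Dd.T (Dd.ct '' X) {i | ∃ c, c ∉ X ∧ i ∈ Dd.V c} x₀ R0 R1 1 ∧
    Macro (fX bf cmp H) f x₀ R1 b ∧ (p < 3 ∨ IsEmpty κ) ∧
    (∀ c ∈ X, P (Dd.T.H (Dd.ct c)) = K2 (A c) c.1 ((1 + θ) * lam c) (v c) ∧
      Dd.lam c = (1 + θ) * lam c ∧ lin (Dd.A c) = lin (A c) ∧
      ∀ k, |lin (A c) (v c) k| ≤ θ * (lam c * c.1.side k) / 2) ∧
    EE C Dd.T Dd.fr (Ord (Φ := fX bf cmp H) Dd.V) l p ≤ C1 * Jx p Om D F X A lam + ENNReal.ofReal E * Tx p F X A lam + ε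

/-- **PREMACH for EA p** (bounded factor with exact cores): hypotheses of `EaX_766.EA p`; constants in
the order `C` (of the machine), `C1`, then `κp, κ1', E, lam2, θ`, then `κ1`. -/
def PreX (p : ℝ) : Prop :=
  ∀ δ κ0 R c0 κ2 M : ℝ, 0 < δ → 1 ≤ κ0 → 1 ≤ R → 0 < c0 → c0 * κ0 ≤ 1 → 0 < κ2 → κ2 ≤ 1 / 4 → 0 < M →
  ∀ C : Set (Set E3) → ℝ, (∀ 𝒦, 0 < C 𝒦) →
  ∃ C1 : ℝ≥0, ∀ κp κ1' E lam2 : ℝ, 0 < κp → κp ≤ 1 → 0 < κ1' → κ1' * κ0 < κ2 / 2 → 0 < E → lam2 < 1 →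
  ∀ θ : ℚ, 0 < (θ : ℝ) → (θ : ℝ) ≤ κ2 / 4 → ∃ κ1 : ℝ, 0 < κ1 ∧
  ∀ (Om La : Set E3) (f : E3 → E3) (D : E3 → E3 →L[ℝ] E3), IsOpen Om → Bornology.IsBounded Om →
    IsConnected Om → IsOpen La → Bornology.IsBounded La → IsConnected La → SH3 p Om La f D →
  ∀ (o : E3) (u : ℝ), 0 < u →
  ∀ (F : Set (Bx (Fin 3))) (bf : BoxFoam La F δ κ0) (cmp : Cmp F R), (∀ Q ∈ F, Dy o u M Q) →
    (∀ c : F, ∃ S : Set E3, IsCompact S ∧ Convex ℝ S ∧ S ⊆ La ∧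
      ∀ c' : F, (c'.1.set ∩ c.1.set).Nonempty → c'.1.set ⊆ interior S) →
  ∀ (X : Set F), (p < 3 ∨ X = univ) →
  ∀ (A : F → E3 ≃ᵃ[ℝ] E3) (lam : F → ℝ),
    (∀ c ∈ X, c0 ≤ lam c ∧ (1 + θ) * lam c ≤ lam2 ∧ ∃ q : ℚ, lam c = q) →
    (∀ c ∈ X, ExIn p Om f D o u κ1 κ2 c.1 (A c) (lam c)) →
  ∀ ε : ℝ≥0∞, ε ≠ 0 →
    PreMesh (c0 := c0) bf cmp p C κp κ1' (κ2 / 2) θ Om f D X A lam C1 E ε

/-- choice of the machine's `e` -/
theorem exists_em (p : ℝ) (hp : 1 ≤ p) {C0 c0 e1 : ℝ} (hC0 : 0 < C0) (hc0 : 0 < c0) (he1 : 0 < e1) :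
    ∃ em : ℝ, 0 < em ∧ (em ^ p + (C0 + 1) ^ p * em) / c0 ^ p ≤ e1 := by
  have h1 : Tendsto (fun t : ℝ => (t ^ p + (C0 + 1) ^ p * t) / c0 ^ p) (𝓝 0) (𝓝 0) := by
    have h2 : Continuous fun t : ℝ => (t ^ p + (C0 + 1) ^ p * t) / c0 ^ p := by
      have : Continuous fun t : ℝ => t ^ p := continuous_id.rpow_const fun _ => Or.inr (by linarith)
      exact (this.add (continuous_const.mul continuous_id)).div_const _
    have := h2.tendsto 0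
    simpa [Real.zero_rpow (by linarith : p ≠ 0)] using this
  obtain ⟨r, hr, h⟩ := Metric.tendsto_nhds_nhds.1 h1 e1 he1
  refine ⟨r / 2, by positivity, ?_⟩
  have h3 := h (x := r / 2) (by rw [Real.dist_eq, sub_zero, abs_of_pos (by positivity)]; linarith)
  rw [Real.dist_eq, sub_zero] at h3
  exact (lt_of_abs_lt h3).le

theorem kea_ne_top (p κv : ℝ) (hp : 1 ≤ p) : Kea p κv * 2 ^ (p - 1) ≠ ∞ := by
  refine ENNReal.mul_ne_top ?_ (ENNReal.rpow_ne_top_of_nonneg (by linarith) (by simp))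
  unfold Kea
  exact ENNReal.add_ne_top.2 ⟨ENNReal.ofReal_ne_top, ENNReal.one_ne_top⟩

theorem arith1 {KK C1 : ℝ≥0} {J T ε e' x : ℝ≥0∞} {E : ℝ}
    (h : x ≤ C1 * J + ENNReal.ofReal E * T + ε) (h2 : KK * ε + ε ≤ e') :
    (KK : ℝ≥0∞) * x + ε ≤ (KK * C1 : ℝ≥0∞) * J + ENNReal.ofReal (KK * E) * T + e' := by
  calc (KK : ℝ≥0∞) * x + ε ≤ (KK : ℝ≥0∞) * (C1 * J + ENNReal.ofReal E * T + ε) + ε := by gcongr
    _ = (KK * C1 : ℝ≥0∞) * J + ENNReal.ofReal (KK * E) * T + (KK * ε + ε) := by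
        rw [ENNReal.ofReal_mul (NNReal.coe_nonneg _), ENNReal.ofReal_coe_nnreal]
        ring
    _ ≤ _ := by gcongr

theorem arith2 {KK C1 BB : ℝ≥0} {J T e' : ℝ≥0∞} {a e : ℝ} (h : a ≤ e) :
    (KK * C1 : ℝ≥0∞) * J + ENNReal.ofReal a * T + e' ≤
      ((KK * C1 + BB : ℝ≥0) : ℝ≥0∞) * J + ENNReal.ofReal e * T + e' := by
  have h12 : ((KK * C1 + BB : ℝ≥0) : ℝ≥0∞) = (KK * C1 : ℝ≥0∞) + (BB : ℝ≥0∞) := by
    push_cast
    rfl
  rw [h12]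
  exact add_le_add (add_le_add (mul_le_mul' le_self_add le_rfl)
    (mul_le_mul' (ENNReal.ofReal_le_ofReal h) le_rfl)) le_rfl

theorem arith3 {KK e : ℝ} (hk : 0 ≤ KK) (he : 0 < e) : KK * (e / (2 * (KK + 1))) ≤ e / 2 := by
  rw [mul_div_assoc', div_le_div_iff₀ (by positivity) (by norm_num)]
  nlinarith

theorem arith4 {KK : ℝ≥0} {e' : ℝ≥0∞} (he' : 0 < e') :
    ∃ ε : ℝ≥0∞, ε ≠ 0 ∧ KK * ε + ε ≤ e' := by
  have hKK1 : ((KK : ℝ≥0∞) + 1) ≠ ∞ := ENNReal.add_ne_top.2 ⟨ENNReal.coe_ne_top, ENNReal.one_ne_top⟩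
  refine ⟨min 1 (e' / (KK + 1)), (lt_min one_pos (ENNReal.div_pos he'.ne' hKK1)).ne', ?_⟩
  calc (KK : ℝ≥0∞) * min 1 (e' / (KK + 1)) + min 1 (e' / (KK + 1))
      = (KK + 1) * min 1 (e' / (KK + 1)) := by rw [add_mul, one_mul]
    _ ≤ (KK + 1) * (e' / (KK + 1)) := by gcongr; exact min_le_right _ _
    _ ≤ e' := ENNReal.mul_div_le

/-- **EAU1** -/
theorem ea_of_pre {p : ℝ} (hp : 1 ≤ p) (HM : MachBF) (HP : PreX p) : EaX_766.EA p := by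
  classical
  intro δ κ0 R c0 κ2 M hδ hκ0 hR hc0 hcκ hκ2 hκ2' hM
  have hp0 : 0 < p := by linarith
  have hcm : 0 < cm κ0 c0 := Crest.Agent.R96.EaP_899.cm_pos hκ0 hc0
  obtain ⟨C0, C, hC0, hC, HM⟩ := ea_one HM hδ hκ0 hR hcm (κ2 := κ2 / 2) (by positivity)
    (κ3 := 8) le_rfl
  obtain ⟨C1, HP⟩ := HP δ κ0 R c0 κ2 M hδ hκ0 hR hc0 hcκ hκ2 hκ2' hM C hC
  set KK : ℝ≥0 := (Kea p 1 * 2 ^ (p - 1)).toNNReal with hKK
  have hKKe : ((KK : ℝ≥0) : ℝ≥0∞) = Kea p 1 * 2 ^ (p - 1) :=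
    ENNReal.coe_toNNReal (kea_ne_top p 1 hp)
  set BB : ℝ≥0 := ((C0 + 1) * R).toNNReal with hBB
  have hBpos : 0 < (C0 + 1) * R := by positivity
  have hBe : (BB : ℝ) = (C0 + 1) * R := Real.coe_toNNReal _ hBpos.le
  refine ⟨KK * C1 + BB, add_pos_of_nonneg_of_pos (by positivity) (Real.toNNReal_pos.2 hBpos), ?_⟩
  intro e he lam1 hlam1
  -- the constants
  obtain ⟨e1, θ0, he1, hθ0, hθ01, hgr⟩ := grow_choice p hp hc0 (e := e / 2) (by positivity)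
  obtain ⟨em, hem, hem1⟩ := exists_em p hp hC0 hc0 he1
  obtain ⟨κp, κ1', hκp, hκp1, hκ1', hκ12, HM⟩ := HM em hem
  set lam2 : ℝ := (1 + lam1) / 2 with hlam2
  obtain ⟨θ, hθ1, hθ2⟩ := exists_rat_btwn
    (show (0:ℝ) < min θ0 (min (κ2 / 4) ((1 - lam1) / 2)) from
      lt_min hθ0 (lt_min (by positivity) (by linarith)))
  have hθa : (θ : ℝ) ≤ θ0 := hθ2.le.trans (min_le_left _ _)
  have hθb : (θ : ℝ) ≤ κ2 / 4 := hθ2.le.trans ((min_le_right _ _).trans (min_le_left _ _))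
  have hθc : (θ : ℝ) ≤ (1 - lam1) / 2 := hθ2.le.trans ((min_le_right _ _).trans (min_le_right _ _))
  have hθ0' : (0:ℝ) < θ := by simpa using hθ1
  set E : ℝ := e / (2 * (KK + 1)) with hE
  have hE0 : 0 < E := by positivity
  obtain ⟨κ1, hκ1, HP⟩ := HP κp κ1' E lam2 hκp hκp1 hκ1' hκ12 hE0 (by rw [hlam2]; linarith) θ hθ0' hθb
  refine ⟨κ1, hκ1, ?_⟩
  intro Om La f D hO hOb hOc hLa hLb hLc hSH o u hu F bf cmp hDy hst X hX A lam hlam hEx e' he'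
  have hlam' : ∀ c ∈ X, c0 ≤ lam c ∧ (1 + θ) * lam c ≤ lam2 ∧ ∃ q : ℚ, lam c = q := by
    intro c hc
    obtain ⟨h1, h2, h3⟩ := hlam c hc
    refine ⟨h1, ?_, h3⟩
    have h4 : 0 < lam c := hc0.trans_le h1
    have h5 : lam c ≤ 1 := h2.trans hlam1.le
    have h6 : θ * lam c ≤ (1 - lam1) / 2 * 1 := mul_le_mul hθc h5 h4.le (by linarith)
    rw [hlam2]
    linarith
  -- the small number
  obtain ⟨ε, hε0, hεe⟩ := arith4 (KK := KK) he'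
  obtain ⟨z, H, Dd, l, v, κ, x₀, R0, R1, b, κe, hκe, h1, h2, h3, h4, h5, h6⟩ :=
    HP Om La f D hO hOb hOc hLa hLb hLc hSH o u hu F bf cmp hDy hst X hX A lam hlam' hEx ε hε0
  have hstar : Star (fX bf cmp H) := Crest.Agent.R096.Sta_161.star_of_starF hst
  obtain ⟨ρ', g, hg, hgn⟩ := HM Om La f hO hOb hOc hLa hLb hLc hSH.homeo (fX bf cmp H) hstar X Dd l
    κe hκe h1 κ x₀ R0 R1 b 1 one_pos h2 h3 p hp h4 ε hε0 (fun _ => 1) (fun _ => one_ne_zero)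
  -- the accounting
  have hG : GrowD p c0 θ e1 F X A lam v (fun x => fderiv ℝ g x) :=
    { cnt := bf.countable
      pos := fun c _ => bf.pos c.1 c.2
      hc0 := hc0
      hθ := hθ0'.le
      hθ1 := hθa.trans hθ01
      he1 := he1.le
      hlam := fun c hc => (hlam c hc).1
      shift := fun c hc => (h5 c hc).2.2.2
      core := fun c hc => by
        obtain ⟨g1, g2, g3, g4⟩ := h5 c hc
        have g5 := hg.core c hc
        have g6 : Crest.Agent.R096.Ea_713.lin (Dd.A c) = lin (A c) := g3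
        rw [g1, g2, g6, one_div] at g5
        refine g5.trans ?_
        rw [← mul_assoc]
        gcongr
        have hl : 0 < lam c := hc0.trans_le (hlam c hc).1
        have hl' : c0 ≤ (1 + θ) * lam c := by nlinarith [(hlam c hc).1]
        rw [← ofReal_norm_eq_enorm, ENNReal.ofReal_rpow_of_nonneg (norm_nonneg _) hp0.le,
          ← ENNReal.ofReal_mul he1.le]
        apply ENNReal.ofReal_le_ofReal
        have hq : 0 ≤ em ^ p + (C0 + 1) ^ p * em := by positivity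
        calc (em ^ p + (C0 + 1) ^ p * em) * (‖lin (A c)‖ / ((1 + θ) * lam c)) ^ p
            ≤ (em ^ p + (C0 + 1) ^ p * em) * (‖lin (A c)‖ / c0) ^ p := by gcongr
          _ = (em ^ p + (C0 + 1) ^ p * em) / c0 ^ p * ‖lin (A c)‖ ^ p := by
              rw [Real.div_rpow (norm_nonneg _) hc0.le]
              ring
          _ ≤ e1 * ‖lin (A c)‖ ^ p := by gcongr }
  obtain ⟨hEc, hEz⟩ := hgr θ hθ0'.le hθa
  refine ⟨g, hg.hom, hg.pl, ?_, ?_, ?_⟩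
  · intro x hx c hc
    refine (hgn x hx c hc).trans ?_
    have hs : 0 ≤ c.1.sz := (Bx.sz_pos (bf.pos c.1 c.2)).le
    have h7 : (C0 + 1) * R ≤ ((KK * C1 + BB : ℝ≥0) : ℝ) := by
      rw [NNReal.coe_add, hBe]
      have : 0 ≤ ((KK * C1 : ℝ≥0) : ℝ) := NNReal.coe_nonneg _
      linarith
    exact mul_le_mul_of_nonneg_right h7 hs
  · have hun : (⋃ i ∈ Dd.ct '' X, P (Dd.T.H i)) =
        ⋃ c ∈ X, K2 (A c) c.1 ((1 + θ) * lam c) (v c) := by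
      ext x
      simp only [mem_iUnion, mem_image, exists_prop]
      constructor
      · rintro ⟨i, ⟨c, hc, rfl⟩, hx⟩
        exact ⟨c, hc, by rw [← (h5 c hc).1]; exact hx⟩
      · rintro ⟨c, hc, hx⟩
        exact ⟨_, ⟨c, hc, rfl⟩, by rw [(h5 c hc).1]; exact hx⟩
    have h8 := hg.energy
    have hun' : (Om \ ⋃ i ∈ Dd.ct '' X, P (Dd.T.H i)) =
        Om \ ⋃ c ∈ X, K2 (A c) c.1 ((1 + θ) * lam c) (v c) := by rw [hun]
    have h8' := (show ∫⁻ x in Om \ ⋃ i ∈ Dd.ct '' X, P (Dd.T.H i), ‖fderiv ℝ g x‖ₑ ^ p ≤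
      Kea p 1 * 2 ^ (p - 1) * EE C Dd.T Dd.fr (Ord (Φ := fX bf cmp H) Dd.V) l p + ε from h8)
    rw [hun'] at h8'
    have h9 : ∫⁻ x in Om \ ⋃ c ∈ X, K2 (A c) c.1 ((1 + θ) * lam c) (v c), ‖fderiv ℝ g x‖ₑ ^ p ≤
        (KK * C1 : ℝ≥0∞) * Jx p Om D F X A lam +
          ENNReal.ofReal (KK * E) * Tx p F X A lam + e' := by
      refine h8'.trans ?_
      rw [← hKKe]
      exact arith1 h6 hεe
    have h10 := hG.acc hp (Om := Om) (J := Jx p Om D F X A lam) (E2 := KK * E) (by positivity) h9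
    refine h10.trans (arith2 ?_)
    have := arith3 (KK := (KK : ℝ)) (NNReal.coe_nonneg _) he
    linarith
  · intro c hc
    refine (hG.core1 hp hc).trans ?_
    gcongr
    linarith

end

end Crest.Agent.R096.Eau_365
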