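import Crest.Agent.R096.Pgn8_112
import Crest.Agent.R096.Eau1_365

/-!
# Row 96 (S0127), helper112.  Adapter: `GenOut` (EaX data, pre-translated blocks) ⟹ 365's `PreMesh`
-/

set_option autoImplicit false
set_option linter.style.longLine false

open MeasureTheory Set Filter Metric
open scoped Topology ENNReal NNReal

namespace Crest.Agent.R096.Adx_112

open Crest.Agent.R096.Msh_715 Crest.Agent.R096.Mal_874
open Crest.Agent.R096.SkC1_961 (E3 FoamD Hom3)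
open Crest.Agent.R096.Bsp_628 Crest.Agent.R096.Brk5_582
open Crest.Agent.R096.EaX_766 (lin cbx Kor)
open Crest.Agent.R096.Acc_365
open Crest.Agent.R096.Fns_360 (trA trA_apply trA_linear)
open Crest.Agent.R096.Eau_365 (PreMesh Jx Tx)
open Crest.Agent.R096.Mfa_880 (NmB)
open Crest.Agent.R096.Pmc_112 (Kl lP)
open Crest.Agent.R096.Pgn_112
open Crest.Agent.R96.EaCore_348 (EE Ord Macro)
open Crest.Agent.R96.EaP_899 (XD fX cm)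

noncomputable section

theorem lin_trA (A : E3 ≃ᵃ[ℝ] E3) (v : E3) : lin (trA A v) = lin A := by
  apply ContinuousLinearMap.ext
  intro x
  show (trA A v).linear x = A.linear x
  rw [trA_linear]

/-- **`GenOut` ⟹ `PreMesh`** (EaX): `M.Q c = (Q0 c).tr (w0 c)`, core of `Q0 c` = box of ratio
`(1 + θ) lam c`, affine maps of `GenOut` on `X` = `trA (A c) (w0 c)`. -/
theorem preMesh_of_gen {δ κ0 R c0 : ℝ} {La Om : Set E3} {F : Set (Bx (Fin 3))}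
    {bf : BoxFoam La F δ κ0} {cmp : Cmp F R} {p : ℝ} {C : Set (Set E3) → ℝ}
    {κp κe κ1 κ2 θ : ℝ} (hκe : κe ≤ κ1) {f : E3 → E3} {D D' : E3 → E3 →L[ℝ] E3} {X : Set F}
    {A A2 : F → E3 ≃ᵃ[ℝ] E3} {lam : F → ℝ} {z zq : F → E3}
    {H : XD bf c0 X (fun c => (1 + θ) * lam c) z} {Mc : F → ℕ} {M : MD E3 3 X}
    {Bx' Gd : X → Set E3} {B : X → ℝ≥0∞} {Zd : ZD F X} {Cs : ℝ} {ε : ℝ≥0∞} {εb : X → ℝ≥0∞}
    (hG : GenOut (fX bf cmp H) Om f D' p κp κe κ2 X A2 (fun c => (1 + θ) * lam c) zq Mc M Bx' Gd B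
      Zd C Cs ε εb)
    {Q0 : X → CB E3 3} {w0 : X → E3} (hQ : ∀ c, M.Q c = (Q0 c).tr (w0 c))
    (hK : ∀ c : X, (Q0 c).Kc = A c ⁻¹' cbx c.1.1 ((1 + θ) * lam c))
    (hA2 : ∀ c : X, A2 c = trA (A c) (w0 c))
    (hsm : ∀ c : X, ∀ s ∈ Gd c, ∀ k,
      |lin (A c) (w0 c + s) k| ≤ θ * (lam c * c.1.1.side k) / 2)
    (hZ : ∀ c : {c // c ∉ X}, ∀ y ∈ closedBall (Zd.x c) (7 / 8 * Zd.R c), ∀ j,
      c.1.1.lo j < f y j ∧ f y j < c.1.1.hi j) (hp3 : p < 3 ∨ X = univ)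
    {C1 : ℝ≥0∞} {E : ℝ}
    (hE : (ENNReal.ofReal Cs * Kl δ R) ^ p * (COu p * ∫⁻ x in Om \ NmB M Bx', ‖D' x‖ₑ ^ p) +
      ∑' j, B j ≤ C1 * Jx p Om D F X A lam + ENNReal.ofReal E * Tx p F X A lam) :
    PreMesh (c0 := c0) bf cmp p C κp κ1 κ2 θ Om f D X A lam C1 E ε := by
  classical
  obtain ⟨v, Dd, h1, h2, h3, h4, h5, -⟩ := hG
  refine ⟨z, H, Dd, lP δ R D', fun c => if h : c ∈ X then w0 ⟨c, h⟩ + v ⟨c, h⟩ else 0,
    {c // c ∉ X}, Zd.x, fun c => 5 / 8 * Zd.R c, fun c => 7 / 8 * Zd.R c, fun c => c.1, κe, hκe,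
    h2, h3, fun c y hy j => hZ c y hy j, ?_, ?_, ?_⟩
  · rcases hp3 with h | h
    · exact Or.inl h
    · have hh : ∀ x, x ∈ X := fun x => by rw [h]; exact mem_univ _
      exact Or.inr ⟨fun c => c.2 (hh c.1)⟩
  · intro c hc
    obtain ⟨g1, g2, -, g3, -⟩ := h4 ⟨c, hc⟩
    have ev : (if h : c ∈ X then w0 ⟨c, h⟩ + v ⟨c, h⟩ else 0 : E3) = w0 ⟨c, hc⟩ + v ⟨c, hc⟩ :=
      dif_pos hc
    simp only [ev]
    refine ⟨?_, g2, ?_, hsm ⟨c, hc⟩ _ (h1 ⟨c, hc⟩)⟩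
    · have e1 : P (Dd.T.H (Dd.ct c)) = ((M.Q ⟨c, hc⟩).tr (v ⟨c, hc⟩)).Kc := g1
      rw [e1]
      ext x
      rw [CB.mem_Kc_tr, hQ, CB.mem_Kc_tr, hK,
        show x - v ⟨c, hc⟩ - w0 ⟨c, hc⟩ = x - (w0 ⟨c, hc⟩ + v ⟨c, hc⟩) by abel]
      exact Iff.rfl
    · have e2 : Dd.A c = trA (A2 c) (v ⟨c, hc⟩) := g3
      rw [e2, lin_trA, hA2 ⟨c, hc⟩, lin_trA]
  · exact h5.trans (add_le_add hE le_rfl)

end

end Crest.Agent.R096.Adx_112
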