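import Crest.Agent.R096.Cpo1_642

/-!
# R096 (row 96), leaf (b) of 337 #10755, part 2: the labelled meshes outside all open cores (helper642)

`lmOp`, `lmKp` : `(lmO ..).sub p`, `(lmK ..).sub p` over the same `MeshC` (`M' = mK`, `φ = id`); `top3Op`,
`top3Kp` : `Top3`.
-/

set_option autoImplicit false
set_option linter.unusedSectionVars false

open Set Metric Filter Topology Module

namespace Crest.Agent.R096.Cpo_642

open Crest.Agent.R096.Ce_537 Crest.Agent.R096.Msh_715 Crest.Agent.R096.Lm_117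
open Crest.Agent.R096.St_147 Crest.Agent.R096.Ac_117
open Crest.Agent.R096.Agl5_543

variable {E : Type} [NormedAddCommGroup E] [NormedSpace ℝ E] [FiniteDimensional ℝ E]
variable {Om : Set E} {ι : Type} {κ : Type} {T : Tiling Om ι} {KK : κ → Set E}
variable {α : Type*} (tl : α → ι)

variable [Nonempty T.Cell]

/-- cells of dimension `≤ 2` are not single tile cores -/
theorem notTile_of_dim (h3 : finrank ℝ E = 3) {c : T.Cell} (h : c.dim < 3) : notTile T tl c := by
  intro a ha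
  have h1 : c = tcell T (tl a) := Tiling.Cell.ext (ha.trans (tcell_set _).symm)
  rw [h1, tcell_dim h3] at h
  exact lt_irrefl _ h

variable (h3 : finrank ℝ E = 3) (hH : ∀ c, CoreH T (KK c))
  (hdis : ∀ c c', c ≠ c' → Disjoint (KK c) (KK c')) (hne : ∃ c, OutK T KK c)

theorem pO_cf (F : {F : C2 T // ¬ (((meshC T h3).side F).map (piK T KK)).IsDiag}) :
    notTile T tl ((lmO h3 hH hdis hne).cf F).1 := by
  refine notTile_of_dim tl h3 ?_
  have h1 : ((lmO h3 hH hdis hne).cf F).1.dim = 2 := (lmO h3 hH hdis hne).cf_dim F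
  omega

theorem pK_cf (F : {F : C2 T // ¬ (((meshC T h3).side F).map (piK T KK)).IsDiag}) :
    pK T KK tl ((lmK h3 hH hdis hne).cf F) := pO_cf tl h3 hH hdis hne F

/-- **`(lmO ..).sub p`** -/
noncomputable def lmOp (hp0 : ∃ c : {c : T.Cell // OutK T KK c}, notTile T tl c.1) :
    LM (mK h3 hH hdis) {c : {c : T.Cell // OutK T KK c} // notTile T tl c.1}
      (fun c => c.1.1.dim) :=
  (lmO h3 hH hdis hne).sub (fun c => notTile T tl c.1) (notTileO_down tl) hp0 (mK h3 hH hdis) id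
    Function.injective_id (fun _ => rfl) (fun _ => rfl) (pO_cf tl h3 hH hdis hne)
    (fun F _ => ⟨F, rfl⟩)

theorem top3Op (hp0 : ∃ c : {c : T.Cell // OutK T KK c}, notTile T tl c.1) :
    Top3 (lmOp tl h3 hH hdis hne hp0) :=
  (top3O h3 hH hdis hne).sub _ _ _ _ _ _ _ _ _ _ fun _ _ _ q _ => ⟨q, fun _ => Iff.rfl⟩

/-- **`(lmK ..).sub p`** -/
noncomputable def lmKp (hp0 : ∃ c, pK T KK tl c) :
    LM (mK h3 hH hdis) {c : QK (belK T KK) // pK T KK tl c}
      (fun c => dimK (belK T KK) (fun c => c.1.dim) c.1) :=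
  (lmK h3 hH hdis hne).sub (pK T KK tl) (pK_down tl) hp0 (mK h3 hH hdis) id
    Function.injective_id (fun _ => rfl) (fun _ => rfl) (pK_cf tl h3 hH hdis hne)
    (fun F _ => ⟨F, rfl⟩)

theorem top3Kp (hp0 : ∃ c, pK T KK tl c) : Top3 (lmKp tl h3 hH hdis hne hp0) :=
  (top3K h3 hH hdis hne).sub _ _ _ _ _ _ _ _ _ _ fun _ _ _ q _ => ⟨q, fun _ => Iff.rfl⟩

end Crest.Agent.R096.Cpo_642
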