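import Crest.Agent.R096.Bd18_416

/-!
# R096 (row 96), P4-MESH, part 12: exact structures on the given part, equidistant weighted edges,
the all-cone mesh (helper416)
-/

set_option autoImplicit false

open Set Metric Filter Topology

namespace Crest.Agent.R096.Bd_416

open Crest.Agent.R096.Ce_537

open scoped Classical

set_option linter.unusedSectionVars false

variable {Q : Type} [PartialOrder Q] {dim : Q → ℕ} {J Fam : Type}
variable {E : Type*} [NormedAddCommGroup E] [NormedSpace ℝ E]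
variable {C : Cmb Q dim J Fam} {K : Q → Set E} {D : Set Q} {g : Gd E J}
  {P : ∀ q, C.I q → Set E} {c : ∀ q, C.I q → E → ℝ} {b : ℝ} {Ω : Set E}

/-! ### exact structures: at most one piece of every sheet in every cell -/

section simple

lemma filter_one {q : Q} (h1 : ∀ x x' : C.I q, C.col q x = C.col q x' → x = x') {x : C.I q} :
    (Finset.univ.filter fun x' : C.I q => C.col q x' = C.col q x) = {x} := by
  ext x'
  simp only [Finset.mem_filter, Finset.mem_univ, true_and, Finset.mem_singleton]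
  exact ⟨fun h => h1 x' x h, fun h => by rw [h]⟩

/-- **`Inv` from an exact `Gd`** -/
theorem Inv.of_simple (hD : ∀ q ∈ D, ∀ p < q, p ∈ D) (is : ∀ q ∈ D, g.Is (K q))
    (sub : ∀ {p q : Q}, p < q → q ∈ D → K p ⊆ K q)
    (G01 : ∀ q ∈ D, ∀ j, ∀ z ∈ K q, g.G j z ∈ Icc (0:ℝ) 1)
    (one : ∀ q ∈ D, ∀ x x' : C.I q, C.col q x = C.col q x' → x = x')
    (non : ∀ q ∈ D, ∀ j, (∀ x, C.col q x ≠ j) → ∀ z ∈ K q,
      g.G j z = lab0 (C.Lab j q) ∧ z ∉ g.B j)
    (fam : ∀ q ∈ D, ∀ j j', j ≠ j' → C.fam j = C.fam j' → ∀ z ∈ K q, z ∈ g.B j → z ∉ g.B j')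
    (sd : ∀ q ∈ D, ∀ x x', x ≠ x' → C.fam (C.col q x) = C.fam (C.col q x') → ∀ z ∈ K q,
      z ∈ g.B (C.col q x) →
      g.G (C.col q x') z = 1/2 - sg (C.Lab (C.col q x') q) * sg (C.side q x x') / 2) :
    Inv C K D g (fun q x => K q ∩ g.B (C.col q x))
      (fun q x z => sg (C.Lab (C.col q x) q) * (g.G (C.col q x) z - 1/2)) := by
  have absc : ∀ (q : Q) (x : C.I q) (z : E),
      |sg (C.Lab (C.col q x) q) * (g.G (C.col q x) z - 1/2)| = |g.G (C.col q x) z - 1/2| := by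
    intro q x z; rw [abs_mul, abs_sg, one_mul]
  have nocol : ∀ q ∈ D, ∀ j, ∀ z ∈ K q, z ∈ g.B j → ∃ x, C.col q x = j := by
    intro q hq j z hz hB
    by_contra hc
    push Not at hc
    exact (non q hq j hc z hz).2 hB
  refine ⟨is, fun q hq j z hz => ?_, fun q hq x => (is q hq).cB _, fun q hq x => inter_subset_left,
    fun q hq x => inter_subset_right, fun q hq j z hz hB => ?_, fun q hq x => ?_,
    fun q hq x z hz => ?_, fun q hq x z hz hc => ?_, fun q hq x x' hne hf => ?_,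
    fun q hq x x' hne hf z hz => ?_, fun {p q} h hq x z hz => ?_, fun {p q} h hq x z hz => ?_⟩
  · by_cases hex : ∃ x, C.col q x = j
    · obtain ⟨x, rfl⟩ := hex
      rw [filter_one (one q hq), Finset.prod_singleton]
      have := sg_sq (C.Lab (C.col q x) q)
      linear_combination (-(g.G (C.col q x) z - 1/2)) * this
    · push Not at hex
      rw [(non q hq j hex z hz).1, lab0_eq, Finset.prod_eq_one, mul_one]
      intro x hx
      exact absurd (Finset.mem_filter.1 hx).2 (hex x)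
  · obtain ⟨x, hx⟩ := nocol q hq j z hz hB
    exact ⟨x, hx, hz, by rw [hx]; exact hB⟩
  · exact pl_mul _ (pl_sub_const ((is q hq).pG _) _)
  · have h1 := G01 q hq (C.col q x) z hz
    rcases sg_or (C.Lab (C.col q x) q) with h | h <;> rw [h] <;> constructor <;>
      linarith [h1.1, h1.2]
  · refine ⟨hz, (is q hq).nB _ z hz fun hi => ?_⟩
    rw [absc] at hc
    obtain ⟨n, hn⟩ := mem_Zs.1 hi
    rw [hn] at hc
    obtain ⟨h1, h2⟩ := abs_lt.1 hc
    have h3 : (0:ℝ) < n := by linarith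
    have h4 : (n:ℝ) < 1 := by linarith
    have h5 : (0:ℤ) < n := by exact_mod_cast h3
    have h6 : n < 1 := by exact_mod_cast h4
    omega
  · refine Set.disjoint_left.2 fun z hz hz' => ?_
    refine fam q hq _ _ (fun h => hne (one q hq x x' h)) hf z hz.1 hz.2 hz'.2
  · rw [sd q hq x x' hne hf z hz.1 hz.2]
    have := sg_sq (C.Lab (C.col q x') q)
    linear_combination (sg (C.side q x x')) * this
  · constructor
    · rintro ⟨-, hB⟩
      obtain ⟨y, hy⟩ := nocol p (hD q hq p h) _ z hz hB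
      exact ⟨y, one q hq _ _ (by rw [C.col_up, hy]), hz, by rw [hy]; exact hB⟩
    · rintro ⟨y, rfl, -, hB⟩
      exact ⟨sub h hq hz, by rw [C.col_up]; exact hB⟩
  · have hp := hD q hq p h
    have hlab := C.lab_eq h (C.col q x)
    rw [filter_one (one q hq), Finset.sum_singleton] at hlab
    have e1 : sg (C.Lab (C.col q x) p) = sg (C.Lab (C.col q x) q) * sg (C.s h x) := by
      rw [hlab, sg_add]
    have s1 := sg_sq (C.s h x)
    by_cases hex : ∃ y, C.up h y = x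
    · obtain ⟨y, hy⟩ := hex
      have hcol : C.col p y = C.col q x := by rw [← hy, C.col_up]
      have hf : (Finset.univ.filter fun y' : C.I p => C.up h y' = x) = {y} := by
        ext y'
        simp only [Finset.mem_filter, Finset.mem_univ, true_and, Finset.mem_singleton]
        refine ⟨fun h' => one p hp _ _ ?_, fun h' => by rw [h', hy]⟩
        rw [hcol, ← h', C.col_up]
      rw [hf, Finset.prod_singleton, hcol, e1]
      linear_combination (2 * sg (C.Lab (C.col q x) q) * (g.G (C.col q x) z - 1/2)) * s1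
    · push Not at hex
      have hn : ∀ y, C.col p y ≠ C.col q x := fun y hy =>
        hex y (one q hq _ _ (by rw [C.col_up, hy]))
      rw [(non p hp _ hn z hz).1, lab0_eq, e1, Finset.prod_eq_one]
      · have s2 := sg_sq (C.Lab (C.col q x) q)
        linear_combination (sg (C.s h x)) * s2
      · intro y hy
        exact absurd (Finset.mem_filter.1 hy).2 (hex y)

/-- the empty part -/
theorem Inv.empty : Inv C K ∅ g P c :=
  ⟨fun _ h => h.elim, fun _ h => h.elim, fun _ h => h.elim, fun _ h => h.elim, fun _ h => h.elim,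
    fun _ h => h.elim, fun _ h => h.elim, fun _ h => h.elim, fun _ h => h.elim, fun _ h => h.elim,
    fun _ h => h.elim, fun _ h => h.elim, fun _ h => h.elim⟩

end simple

/-! ### equidistant weighted edges -/

section edge

/-- positions on `[-1,1]` in a given order, widths proportional to the weights -/
theorem exists_ed {ι : Type*} [Fintype ι] (k : ι → ℕ) (hk : Function.Injective k) (w : ι → ℝ)
    (hw : ∀ i, 0 < w i) {u : ℝ} (hu : 0 < u) (hs : u * ∑ i, w i ≤ 1/2) {ε : ℝ} (he : 0 < ε)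
    (he1 : ε < 1) : ∃ p : ι → ℝ, Ed (fun i => 4 * (1 - ε) * u * w i) p ∧
      ∀ i j, k j < k i → p j < p i := by
  obtain ⟨ρ, h1, h2, h3, h4⟩ := Cw_298.exists_wdepth k hk w hw hu hs
  have hpos : ∀ i, 0 < u * w i := fun i => mul_pos hu (hw i)
  refine ⟨fun i => 4 * ρ i - 3, ⟨fun i => ?_, fun i => ?_, fun i => ?_, fun i j hij => ?_⟩,
    fun i j h => ?_⟩
  · have := hpos i
    have h5 : 0 < 1 - ε := by linarith
    show 0 < 4 * (1 - ε) * u * w i
    have : 4 * (1 - ε) * u * w i = 4 * (1 - ε) * (u * w i) := by ring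
    rw [this]; positivity
  · show -1 < 4 * ρ i - 3 - 4 * (1 - ε) * u * w i / 2
    have := h1 i; have h5 := hpos i
    nlinarith [mul_pos he h5]
  · show 4 * ρ i - 3 + 4 * (1 - ε) * u * w i / 2 < 1
    have := h2 i; have h5 := hpos i
    nlinarith [mul_pos he h5]
  · show (4 * (1 - ε) * u * w i + 4 * (1 - ε) * u * w j) / 2 < |4 * ρ i - 3 - (4 * ρ j - 3)|
    have h5 := h4 i j hij
    have h6 := hpos i
    have h7 := hpos j
    have e : 4 * ρ i - 3 - (4 * ρ j - 3) = 4 * (ρ i - ρ j) := by ring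
    rw [e, abs_mul, abs_of_pos (by norm_num : (0:ℝ) < 4)]
    nlinarith [mul_pos he h6, mul_pos he h7]
  · have := h3 i j h
    have h6 := hpos i
    have h7 := hpos j
    show 4 * ρ j - 3 < 4 * ρ i - 3
    linarith

/-- **new edges with weights** -/
theorem exists_newCell_edge (H : Inv C K D g P c) (X : Cplx Ω Q dim K) {τ : Q}
    (hτ : ∀ σ < τ, σ ∈ D) (hd : dim τ = 1) (h0 : 0 < b) (h2 : b < 1/2)
    (e : PLEquiv (cube 1) (K τ)) (he : e.f '' sph 1 = bdS K τ)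
    (hbase : e.f (fun _ => -1) ∈ K (C.o τ)) (k : C.I τ → ℕ) (hk : Function.Injective k)
    (ord : ∀ x x', x ≠ x' → C.fam (C.col τ x) = C.fam (C.col τ x') →
      (k x' < k x → C.side τ x x' = 1) ∧ (k x < k x' → C.side τ x x' = 0))
    (w : C.I τ → ℝ) (hw : ∀ i, 0 < w i) {u : ℝ} (hu : 0 < u) (hs : u * ∑ i, w i ≤ 1/2) {ε : ℝ}
    (he0 : 0 < ε) (he1 : ε < 1) :
    ∃ (p : C.I τ → ℝ) (hE : Ed (fun i => 4 * (1 - ε) * u * w i) p),
      (∀ i j, k j < k i → p j < p i) ∧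
      NewCell C K g c b τ ((edgeLam hE).pull e.symm (X.isClosed τ)) := by
  obtain ⟨p, hE, hp⟩ := exists_ed k hk w hw hu hs he0 he1
  refine ⟨p, hE, hp, newCell_edge H X hτ hd h0 h2 e he hbase hE fun x x' hne hf => ?_⟩
  have hkk : ∀ x x', p x' < p x → k x' < k x := by
    intro x x' h
    rcases lt_trichotomy (k x') (k x) with h1 | h1 | h1
    · exact h1
    · rw [hk h1] at h; exact absurd h (lt_irrefl _)
    · exact absurd (hp x' x h1) (not_lt.2 h.le)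
  exact ⟨fun h => (ord x x' hne hf).1 (hkk x x' h), fun h => (ord x x' hne hf).2 (hkk x' x h)⟩

/-- flipping a chart of an edge does not change its constants -/
theorem exists_flip (X : Cplx Ω Q dim K) {τ : Q} (hd : dim τ = 1) (e : PLEquiv (cube 1) (K τ))
    (he : e.f '' sph 1 = bdS K τ) {Y : Type*} [PseudoMetricSpace Y] {Fr : Set (E → Y)} {Lg : (E → Y) → ℝ}
    (hg : ∀ B ∈ Fr, ∀ z ∈ K τ, MB B id (Lg B) e.g (K τ) z) :
    ∃ e' : PLEquiv (cube 1) (K τ), e'.f '' sph 1 = bdS K τ ∧ e'.f (fun _ => -1) ∈ K (C.o τ) ∧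
      ∀ B ∈ Fr, ∀ z ∈ K τ, MB B id (Lg B) e'.g (K τ) z := by
  obtain ⟨z, hz⟩ := (X.isBall (C.o τ)).nonempty
  have hzS : z ∈ bdS K τ := mem_biUnion (show C.o τ ∈ {j | j < τ} from C.o_lt τ hd.ge) hz
  rw [← he] at hzS
  obtain ⟨v, hv, rfl⟩ := hzS
  rcases (abs_eq zero_le_one).1 (mem_sph1.1 hv) with h | h
  · refine ⟨negE.trans e, ?_, ?_, fun B hB z hz => ?_⟩
    · rw [← he]
      apply Set.Subset.antisymm
      · rintro _ ⟨u, hu, rfl⟩
        refine ⟨-u, mem_sph1.2 ?_, rfl⟩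
        show |-(u 0)| = 1
        rw [abs_neg]; exact mem_sph1.1 hu
      · rintro _ ⟨u, hu, rfl⟩
        refine ⟨-u, mem_sph1.2 ?_, ?_⟩
        · show |-(u 0)| = 1
          rw [abs_neg]; exact mem_sph1.1 hu
        · show e.f (- -u) = e.f u
          rw [neg_neg]
    · show e.f (-(fun _ => -1)) ∈ _
      have hv' : (-(fun _ => -1) : Fin 1 → ℝ) = v := by
        funext k; rw [Subsingleton.elim k 0, h]; simp
      rw [hv']; exact hz
    · filter_upwards [hg B hB z hz] with y hy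
      show dist (-(e.g y)) (-(e.g z)) ≤ _
      rw [dist_neg_neg]; exact hy
  · refine ⟨e, he, ?_, hg⟩
    have hv' : (fun _ => -1 : Fin 1 → ℝ) = v := by
      funext k; rw [Subsingleton.elim k 0, h]
    rw [hv']; exact hz

end edge

/-! ### the all-cone mesh -/

section cone

variable {R : Set Q} {g0 : Gd E J} {P0 : ∀ q, C.I q → Set E} {c0 : ∀ q, C.I q → E → ℝ}
  {Y : Type*} [PseudoMetricSpace Y]

/-- **THE ALL-CONE MESH**: edges with equidistant weighted bands in the order `k`, all other cells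
outside the given part `R` filled by the cone rule with weights.  `Rl c τ x x'`: the relations which
force `ρ x' < ρ x` (`Rl = Ins` with `exists_rank`, or a larger one). -/
theorem mesh_cone (X : Cplx Ω Q dim K) (hR : ∀ q ∈ R, ∀ p < q, p ∈ R)
    (H0 : Inv C K R g0 P0 c0) {b : ℕ → ℝ} (hb0 : ∀ n, 0 < b n) (hb2 : ∀ n, b n < 1/2)
    {wt : J → ℝ} (hw : ∀ j, 0 < wt j) {Λ : ℕ → Q → (E → Y) → ℝ} (Fr : Q → Set (E → Y))
    (hΛ0 : ∀ n q, ∀ B ∈ Fr q, 0 ≤ Λ n q B)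
    (hΛs : ∀ n q, ∀ B ∈ Fr q, Λ n q B / (2 * b n) ≤ Λ (n + 1) q B)
    (hFr : ∀ {σ τ : Q}, σ < τ → Fr τ ⊆ Fr σ)
    (hΛR : ∀ q ∈ R, ∀ B ∈ Fr q, ∀ x, ∀ z ∈ K q,
      LB B (Λ 0 q B / wt (C.col q x)) (c0 q x) (K q) z)
    {ε : ℝ} (he0 : 0 < ε) (he1 : ε < 1)
    (u : Q → ℝ) (hu : ∀ τ, 0 < u τ) (hus : ∀ τ ∉ R, u τ * ∑ x, wt (C.col τ x) ≤ 1/2)
    (Lf Lg : Q → (E → Y) → ℝ) (hLf : ∀ τ, ∀ B ∈ Fr τ, 0 ≤ Lf τ B)
    (e : ∀ τ, 1 ≤ dim τ → PLEquiv (cube (dim τ)) (K τ))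
    (he : ∀ τ ∉ R, ∀ hd : 1 ≤ dim τ, (e τ hd).f '' sph (dim τ) = bdS K τ)
    (hef : ∀ τ ∉ R, ∀ hd : 1 ≤ dim τ, ∀ B ∈ Fr τ, ∀ ω ∈ sph (dim τ),
      MB id B (Lf τ B) (e τ hd).f (sph (dim τ)) ω)
    (heg : ∀ τ ∉ R, ∀ hd : 1 ≤ dim τ, ∀ B ∈ Fr τ, ∀ z ∈ K τ,
      MB B id (Lg τ B) (e τ hd).g (K τ) z)
    (k : ∀ τ, C.I τ → ℕ) (hk : ∀ τ ∉ R, dim τ = 1 → Function.Injective (k τ))
    (ord : ∀ τ ∉ R, dim τ = 1 → ∀ x x', x ≠ x' → C.fam (C.col τ x) = C.fam (C.col τ x') →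
      (k τ x' < k τ x → C.side τ x x' = 1) ∧ (k τ x < k τ x' → C.side τ x x' = 0))
    (hΛ1 : ∀ τ ∉ R, dim τ = 1 → ∀ B ∈ Fr τ, Lg τ B / (4 * (1 - ε) * u τ) ≤ Λ 2 τ B)
    (Bb : Q → (E → Y) → ℝ)
    (hBb : ∀ τ ∉ R, 2 ≤ dim τ → ∀ B ∈ Fr τ, ∀ σ < τ, Λ (dim τ) σ B ≤ Bb τ B)
    (hΛ2 : ∀ τ ∉ R, 2 ≤ dim τ → ∀ B ∈ Fr τ,
      7 * max (Bb τ B * Lf τ B) (1 / u τ) / (2 * b (dim τ)) * Lg τ B ≤ Λ (dim τ + 1) τ B)
    (Rl : (∀ q, C.I q → E → ℝ) → ∀ τ, C.I τ → C.I τ → Prop)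
    (hRl : ∀ D g P c (_ : Inv C K D g P c) τ, 2 ≤ dim τ → (∀ σ < τ, σ ∈ D) →
      ∃ kk : C.I τ → ℕ, Function.Injective kk ∧ ∀ x x', Rl c τ x x' → kk x' < kk x)
    (hRI : ∀ c τ x x', Ins C K c τ x x' → Rl c τ x x')
    (Spec : ∀ q, Lam (K q) (C.I q) → Prop)
    (hS0 : ∀ τ ∉ R, dim τ = 0 → ∀ M, Spec τ M)
    (hS1 : ∀ τ ∉ R, dim τ = 1 → ∀ (e : PLEquiv (cube 1) (K τ)), e.f '' sph 1 = bdS K τ →
      e.f (fun _ => -1) ∈ K (C.o τ) → ∀ (p : C.I τ → ℝ)
      (hE : Ed (fun i => 4 * (1 - ε) * u τ * wt (C.col τ i)) p),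
      (∀ i j, k τ j < k τ i → p j < p i) → Spec τ ((edgeLam hE).pull e.symm (X.isClosed τ)))
    (hS2 : ∀ D g P c (H : Inv C K D g P c), ∀ τ, (hd : 2 ≤ dim τ) →
      (∀ q ∈ D, Trk C K R g0 P0 c0 b Spec Fr wt Λ (dim τ) q g (P q) (c q)) →
      ∀ hR : τ ∉ R, ∀ (hτ : ∀ σ < τ, σ ∈ D) (κ : ℝ) (ρ : C.I τ → ℝ)
      (Dp : Dep (bdLam H X τ hτ) κ (b (dim τ)) (fun x => u τ * wt (C.col τ x)) ρ),
      (∀ x x', Rl c τ x x' → ρ x' < ρ x) →
      Spec τ (Dp.fillBall (e τ (by omega)) (he τ hR (by omega))))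
    (n : ℕ) : ∃ g P c, Inv C K (R ∪ {q | dim q < n}) g P c ∧
      ∀ q ∈ R ∪ {q | dim q < n}, Trk C K R g0 P0 c0 b Spec Fr wt Λ n q g (P q) (c q) := by
  refine mesh_spec X hR H0 hb0 hb2 hw hΛs hΛR (fun n D g P c H hT τ hd hτR hτ => ?_) n
  subst hd
  rcases Nat.lt_or_ge (dim τ) 1 with h1 | h1
  · have h0 : dim τ = 0 := by omega
    have := C.vert τ h0
    exact ⟨emptyLam (K τ) (C.I τ), newCell_empty _, hS0 τ hτR h0 _,
      fun _ _ x => isEmptyElim x⟩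
  rcases Nat.lt_or_ge (dim τ) 2 with h2 | h2
  · have hd : dim τ = 1 := by omega
    have key : ∃ e1 : PLEquiv (cube 1) (K τ), e1.f '' sph 1 = bdS K τ ∧
        ∀ B ∈ Fr τ, ∀ z ∈ K τ, MB B id (Lg τ B) e1.g (K τ) z := by
      have hgen : ∀ m, dim τ = m → 1 ≤ m → ∃ e1 : PLEquiv (cube m) (K τ),
          e1.f '' sph m = bdS K τ ∧ ∀ B ∈ Fr τ, ∀ z ∈ K τ, MB B id (Lg τ B) e1.g (K τ) z := by
        rintro m rfl hm
        exact ⟨e τ hm, he τ hτR hm, heg τ hτR hm⟩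
      exact hgen 1 hd le_rfl
    obtain ⟨e1, he1', hg1⟩ := key
    obtain ⟨e2, he2, hb, hg2⟩ := exists_flip (C := C) X hd e1 he1' hg1
    obtain ⟨p, hE, hp, hN⟩ := exists_newCell_edge H X hτ hd (hb0 _) (hb2 _) e2 he2 hb (k τ)
      (hk τ hτR hd) (ord τ hτR hd) (fun x => wt (C.col τ x)) (fun x => hw _) (hu τ)
      (hus τ hτR) he0 he1
    refine ⟨_, hN, hS1 τ hτR hd e2 he2 hb p hE hp, fun B hB x z hz => ?_⟩
    refine (edge_LB hE e2 (X.isClosed τ) x (hg2 B hB) hz).mono ?_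
    have h3 := hΛ1 τ hτR hd B hB
    rw [hd]
    have h4 := hw (C.col τ x)
    have h5 := hu τ
    have h6 : 0 < 1 - ε := by linarith
    show Lg τ B / (4 * (1 - ε) * u τ * wt (C.col τ x)) ≤ Λ 2 τ B / wt (C.col τ x)
    rw [← div_div]
    exact div_le_div_of_nonneg_right h3 h4.le
  · have hC := Cst.mk' (hb0 (dim τ)) (hb2 (dim τ))
    obtain ⟨kk, hkk, hkI⟩ := hRl D g P c H τ h2 hτ
    obtain ⟨ρ, Dp, hρ⟩ := Cw_298.exists_dep (bdLam H X τ hτ) hC kk hkk
      (fun x => wt (C.col τ x)) (fun x => hw _) (hu τ) (hus τ hτR)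
    have hρ' : ∀ x x', Rl c τ x x' → ρ x' < ρ x := by
      intro x x' h
      have h4 := hρ x x' (hkI x x' h)
      have h5 := mul_pos (hu τ) (hw (C.col τ x))
      have h6 := mul_pos (hu τ) (hw (C.col τ x'))
      linarith
    refine ⟨Dp.fillBall (e τ h1) (he τ hτR h1), newCell_cone H X hτ h2 _ _ Dp
      fun x x' hne hf h3 h4 h5 => hρ' x x' (hRI _ _ _ _ ⟨hne, hf, h3, h4, h5⟩),
      hS2 D g P c H τ h2 hT hτR hτ _ ρ Dp hρ', fun B hB x z hz => ?_⟩
    have hwx := hw (C.col τ x)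
    have hB0 : 0 ≤ Bb τ B := by
      have := hBb τ hτR h2 B hB (C.o τ) (C.o_lt τ h1)
      exact (hΛ0 _ _ B (hFr (C.o_lt τ h1) hB)).trans this
    have hL : ∀ ω ∈ bdS K τ,
        LB B (Bb τ B / wt (C.col τ x)) ((bdLam H X τ hτ).c x) (bdS K τ) ω := by
      intro ω hω
      refine H.LB_cbd X hτ x (div_nonneg hB0 hwx.le) fun σ h y hy hz => ?_
      refine ((hT σ (hτ σ h)).ll B (hFr h hB) y ω hz).mono ?_
      have e1 : C.col σ y = C.col τ x := by rw [← hy, C.col_up]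
      rw [e1]
      exact div_le_div_of_nonneg_right (hBb τ hτR h2 B hB σ h) hwx.le
    refine (Dp.fillBall_LB (e τ h1) (he τ hτR h1) x (div_nonneg hB0 hwx.le) (hLf τ B hB) hL
      (hef τ hτR h1 B hB) (heg τ hτR h1 B hB) hz).mono ?_
    have h3 := hΛ2 τ hτR h2 B hB
    refine le_trans (le_of_eq ?_) (div_le_div_of_nonneg_right h3 hwx.le)
    have e2 : max (Bb τ B / wt (C.col τ x) * Lf τ B) (1 / (u τ * wt (C.col τ x)))
        = max (Bb τ B * Lf τ B) (1 / u τ) / wt (C.col τ x) := by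
      rw [← max_div_div_right hwx.le, div_mul_eq_mul_div, div_div]
    show 7 * max (Bb τ B / wt (C.col τ x) * Lf τ B) (1 / (u τ * wt (C.col τ x))) /
      (2 * b (dim τ)) * Lg τ B = _
    rw [e2]; ring

end cone

end Crest.Agent.R096.Bd_416
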