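import Crest.Agent.R096.SkB1_662
import Crest.Agent.R96.Nu1_199

/-!
# R096 (row 96), STATE HALF, cut 1, part b (helper662): what the placement reads from `StO`

`StO.cmb` (labels `0` on the brick, `1` far away), `ord`, `mm_eq`, `ex` (K4 from `K4In`), `cmbG`,
`cmb_ord`, `wd_le` (weighted numbers of pieces of 1-cells ≤ numbers of levels).
-/

set_option autoImplicit false
set_option linter.style.longLine false
set_option linter.unusedSectionVars false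

open Set Relation
open scoped ENNReal

namespace Crest.Agent.R096.SkB_662

open Crest.Agent.R096.St_147 Crest.Agent.R096.Seq_213 Crest.Agent.R096.Seq_213.GSt
  Crest.Agent.R096.Bd_416 Crest.Agent.R096.Mg_441 Crest.Agent.R096.Lm_117
  Crest.Agent.R096.Grd_714 Crest.Agent.R096.Cp_298 Crest.Agent.R096.Gl_422
  Crest.Agent.R096.On_441
open Crest.Agent.R096.Arc_778 (CmbG)
open Crest.Agent.R96.Nu1_199 (Wd)

variable {ι Φ W Q J C K : Type} {M : MeshC ι Φ W} [PartialOrder Q] {dim : Q → ℕ}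

section
variable {L : LM M Q dim} {O : Ori M} {τ : Q → ZMod 2} {Rel : W → W → Prop} {V : Set W}
  {Qd : Quads ι C K} {κ : C → ℕ} {fam : J → C} {s₀ : GSt M fam} {far₀ : J → Set W}
  {G : C → Set W} {Z : C → Set Q} {lam₀ : J → Q → ZMod 2} {v₀ v₁ : C → Q}
  {hfin : ∀ a, {j | fam j = a}.Finite} {kap : C → ℕ} {s : GSt M (fam' fam (Rk κ kap))}
  {far : Nm' fam (Rk κ kap) → Set W} {β : W → W} {lam : Nm' fam (Rk κ kap) → Q → ZMod 2}

/-- **the discrete input of the placement** -/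
noncomputable def StO.cmb
    (h : StO L O τ Rel V Qd κ s₀ far₀ Z lam₀ v₀ v₁ hfin kap s far β lam) :
    Cmb Q dim (Nm' fam (Rk κ kap)) C :=
  Lm_117.cmb h.lfs (Lf lam) (xlf h.lab.lab)

theorem StO.cmb_fam (h : StO L O τ Rel V Qd κ s₀ far₀ Z lam₀ v₀ v₁ hfin kap s far β lam) :
    h.cmb.fam = fam' fam (Rk κ kap) := rfl

/-- the sheets of a family are finitely many -/
theorem StO.fin1 (_h : StO L O τ Rel V Qd κ s₀ far₀ Z lam₀ v₀ v₁ hfin kap s far β lam) :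
    ∀ a, {y : Nm' fam (Rk κ kap) | fam' fam (Rk κ kap) y = a}.Finite :=
  fin_copies (Rk κ kap) hfin

/-- **order of the sheets** -/
theorem StO.ord (h : StO L O τ Rel V Qd κ s₀ far₀ Z lam₀ v₀ v₁ hfin kap s far β lam) :
    Ord h.cmb (fun y => -((Rk κ kap (fam y.1) * Gl_422.rk L s₀ lam₀ hfin y.1 + y.2 : ℕ) : ℝ)) := by
  have h1 := ordF h.lab h.lfs h.fin1
  have h2 : (fun j => -(Gl_422.rk L s lam h.fin1 j : ℝ)) =
      fun y : Nm' fam (Rk κ kap) =>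
        -((Rk κ kap (fam y.1) * Gl_422.rk L s₀ lam₀ hfin y.1 + y.2 : ℕ) : ℝ) := by
    funext y
    rw [← h.rk y]
  rw [← h2]
  exact h1

theorem Rk_pos (κ kap : C → ℕ) (c : C) : 0 < Rk κ kap c := Nat.pos_of_ne_zero (by
  unfold Rk
  exact pow_ne_zero _ (by norm_num))

/-- **the number of the sheets of a family of the final state** -/
theorem mm_eq (R : C → ℕ) (hfin : ∀ a, {j | fam j = a}.Finite) (a : C) :
    mm (fin_copies R hfin) a = R a * mm hfin a := by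
  classical
  have h1 : sh (fin_copies R hfin) a =
      (sh hfin a).sigma (fun j => (Finset.univ : Finset (Fin (R (fam j))))) := by
    ext y
    rw [mem_sh, Finset.mem_sigma, mem_sh]
    exact ⟨fun h => ⟨h, Finset.mem_univ _⟩, fun h => h.1⟩
  unfold mm
  rw [h1, Finset.card_sigma, Finset.sum_congr rfl (fun j hj => by
    rw [Finset.card_univ, Fintype.card_fin, (mem_sh hfin).1 hj] :
      ∀ j ∈ sh hfin a, (Finset.univ : Finset (Fin (R (fam j)))).card = R a),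
    Finset.sum_const, smul_eq_mul, mul_comm]

theorem StO.mm_eq (h : StO L O τ Rel V Qd κ s₀ far₀ Z lam₀ v₀ v₁ hfin kap s far β lam) (a : C) :
    mm h.fin1 a = Rk κ kap a * mm hfin a := SkB_662.mm_eq _ _ _

theorem StO.mm_pos (h : StO L O τ Rel V Qd κ s₀ far₀ Z lam₀ v₀ v₁ hfin kap s far β lam) {a : C}
    (ha : ∃ j, fam j = a) : 0 < mm h.fin1 a := by
  rw [h.mm_eq]
  refine Nat.mul_pos (Rk_pos κ kap a) ?_
  obtain ⟨j, hj⟩ := ha
  exact Finset.card_pos.2 ⟨j, (mem_sh hfin).2 hj⟩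

/-- the input `CmbG` of 778 -/
theorem StO.cmbG (h : StO L O τ Rel V Qd κ s₀ far₀ Z lam₀ v₀ v₁ hfin kap s far β lam)
    (X : Top3 L) {R : Set Q} {k : ∀ q, h.cmb.I q → ℕ}
    (hk : ∀ q ∉ R, dim q = 1 → Function.Injective (k q)) : CmbG h.cmb R k :=
  cmbG_lm X h.lfs (Lf lam) (xlf h.lab.lab) hk

/-- **sides on an edge = order**: the hypothesis `ord` of `mesh_cone` -/
theorem StO.cmb_ord (h : StO L O τ Rel V Qd κ s₀ far₀ Z lam₀ v₀ v₁ hfin kap s far β lam)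
    (c : Q) (hc : dim c = 1) (x x' : h.cmb.I c) (hne : x ≠ x') :
    (ek h.lfs c x' < ek h.lfs c x → h.cmb.side c x x' = 1) ∧
      (ek h.lfs c x < ek h.lfs c x' → h.cmb.side c x x' = 0) :=
  Lm_117.cmb_ord h.lfs (Lf lam) (xlf h.lab.lab) c hc x x' hne

/-! ### (K4) -/

/-- the frozen 1-cells of the family `a` without initial points of `a` -/
def Fre (L : LM M Q dim) (Qd : Quads ι C K) (s₀ : GSt M fam) (a : C) : Set Q :=
  {e | FrE L Qd a e ∧ ∀ w ∈ s₀.P, fam (s₀.lab w) = a → w ∉ L.toSk.On1 e}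

variable {E' : Type*} [NormedAddCommGroup E'] [NormedSpace ℝ E'] {Pf : C → Set E'}

/-- **input of (K4)** for the cells in `D`: a point `y q` of 582's complex for every cell -/
structure K4In (L : LM M Q dim) (Qd : Quads ι C K) (s₀ : GSt M fam) (Z : C → Set Q) (v₀ : C → Q)
    (Pf : C → Set E') (D : Set Q) (y : Q → C → ℝ) : Prop where
  mem : ∀ q ∈ D, y q ∈ K2 Pf
  pt : ∀ q ∈ D, ∀ w ∈ s₀.P, w ∈ L.toSk.In q →
    0 < y q (fam (s₀.lab w)) ∧ y q (fam (s₀.lab w)) < 1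
  act : ∀ q ∈ D, ∀ k a, Qd.In k a → ∀ w ∈ s₀.P, w ∈ L.toSk.In q → Int M (Qd.Act k) w →
    0 < y q a ∧ y q a < 1
  zero : ∀ q ∈ D, ∀ j, y q (fam j) = 0 → ∃ v ≤ q, dim v = 0 ∧
    ReflTransGen (Ed L (Fre L Qd s₀ (fam j))) (v₀ (fam j)) v
  one : ∀ q ∈ D, ∀ j, y q (fam j) = 1 → ∃ v ≤ q, dim v = 0 ∧ ∃ v' ∈ Z (fam j),
    ReflTransGen (Ed L (Fre L Qd s₀ (fam j))) v' v

/-- no final points of the family on the frozen 1-cells without initial points -/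
theorem StO.empty (h : StO L O τ Rel V Qd κ s₀ far₀ Z lam₀ v₀ v₁ hfin kap s far β lam)
    (hi : StI L O τ Rel V Qd κ s₀ far₀ G Z lam₀ v₀ v₁) (j : Nm' fam (Rk κ kap)) :
    ∀ e ∈ Fre L Qd s₀ (fam j.1), dim e = 1 → ∀ u ∈ gp s j, u ∉ L.toSk.On1 e := by
  rintro e ⟨h1, h2⟩ - u hu
  refine Gl_422.empty_final h.cps hi.rel (fun w hw => hi.V1 (hi.PV hw)) (fun _ => rfl) hi.inv h.inv
    (j := j) h1 (fun w hw => ?_) u hu
  obtain ⟨a1, a2⟩ := mem_gp.1 hw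
  exact h2 w a1 (by rw [a2])

/-- **(K4)** -/
theorem StO.ex (h : StO L O τ Rel V Qd κ s₀ far₀ Z lam₀ v₀ v₁ hfin kap s far β lam)
    (hi : StI L O τ Rel V Qd κ s₀ far₀ G Z lam₀ v₀ v₁) {D : Set Q} {y : Q → C → ℝ}
    (hK : K4In L Qd s₀ Z v₀ Pf D y) {q : Q} (hq : q ∈ D) : Ex h.cmb Pf q (y q) := by
  refine ex_out h.lab h.lfs (hK.mem q hq) ?_ ?_ ?_
  · intro w hw hwq
    have hb := h.cps.mem hw
    have hb1 : β w ∈ L.W1 := hi.V1 (hi.PV hb)
    have hbe := (hi.rel w _ (h.cps.rel hw) hb1).2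
    have hbq : β w ∈ L.toSk.In q := ⟨hb1, by rw [← hbe]; exact hwq.2⟩
    rcases h.cps.nm (fun _ => rfl) hi.inv h.inv hw with ⟨-, h2⟩ | ⟨k, h1, h2, -⟩
    · have h4 := hK.pt q hq _ hb hbq
      rw [h2] at h4
      exact h4
    · refine hK.act q hq k _ h2 _ hb hbq ⟨?_, ?_⟩
      · obtain ⟨F, hF⟩ := h1.1
        exact ⟨F, (h.cps.on F hw).1 hF⟩
      · intro F hF
        exact h1.2 F ((h.cps.on F hw).2 hF)
  · intro j hj
    obtain ⟨v, h1, h2, h4⟩ := hK.zero q hq j.1 hj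
    exact ⟨v, h1, h2, Or.inl (h.lab.lam_one (h.empty hi j) h4)⟩
  · intro j hj
    obtain ⟨v, h1, h2, v', h4, h5⟩ := hK.one q hq j.1 hj
    exact ⟨v, h1, h2, Or.inl (h.lab.lam_zero (h.empty hi j) h4 h5)⟩

/-! ### weighted numbers -/

/-- **the weighted numbers of the pieces of finitely many 1-cells are at most the weighted number of
the levels** (`NN` of the tile): `B` = the points of the 1-cells of the tile -/
theorem StO.wd_le (h : StO L O τ Rel V Qd κ s₀ far₀ Z lam₀ v₀ v₁ hfin kap s far β lam)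
    (hrel : ∀ x w, Rel x w → (x ∈ L.W1 ∨ w ∈ L.W1) → x ∈ L.W1 ∧ w ∈ L.W1 ∧ L.ed x = L.ed w)
    {lv : C → W → ℝ} {t : J → ℝ} (hinj : ∀ j j', fam j = fam j' → t j = t j' → j = j')
    {Lv : C → Finset ℝ} (hL : ∀ j, t j ∈ Lv (fam j)) {B : Set W}
    (hlev : ∀ x ∈ s₀.P, x ∈ B → lv (fam (s₀.lab x)) x = t (s₀.lab x)) (S : Finset Q)
    (hS : ∀ e ∈ S, dim e = 1) (hB : ∀ e ∈ S, L.toSk.On1 e ⊆ B) :
    ENNReal.ofReal (∑ e ∈ S, Wd h.cmb (fun j => (2 : ℝ)⁻¹ ^ kap (fam' fam (Rk κ kap) j)) e) ≤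
      ∑' c, ENNReal.ofReal ((2 : ℝ)⁻¹ ^ κ c) *
        ∑ r ∈ Lv c, (({y ∈ B | lv c y = r}.encard : ℕ∞) : ℝ≥0∞) := by
  classical
  have hfi : ∀ e : Q, Finite (Pc L s e) := fun e => h.lfs.pc e
  let I : Q → Type := fun e => Pc L s e
  let _ : ∀ e : Q, Fintype (I e) := fun e => h.cmb.fin e
  have key := sum_wt_le (s₀ := s₀) (s := s) (κ := κ) (kap := kap) h.wt hinj hL hlev S
    (fun e => L.toSk.On1 e) (fun a _ b _ hab => by
      rw [disjoint_left]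
      rintro w ⟨-, h1⟩ ⟨-, h2⟩
      exact hab (h1.symm.trans h2)) (fun e _ x y hxy => by
      constructor
      · rintro ⟨h1, h2⟩
        obtain ⟨-, a2, a3⟩ := hrel x y hxy (Or.inl h1)
        exact ⟨a2, by rw [← a3]; exact h2⟩
      · rintro ⟨h1, h2⟩
        obtain ⟨a1, -, a3⟩ := hrel x y hxy (Or.inr h1)
        exact ⟨a1, by rw [a3]; exact h2⟩) hB I (fun e x => rep h.lfs x)
    (fun e he x x' hx => rep_inj h.lfs e hx)
    (fun e he x => by
      obtain ⟨h1, h2⟩ := rep_on h.lfs (hS e he) x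
      exact ⟨(pts_in (rep_mem h.lfs x)).1, h1, h2⟩)
    (fun e he w hw hwe => by
      refine ⟨(Quot.mk _ ⟨w, hw, hwe.1, hwe.2.le⟩ : Pc L s e), ?_⟩
      exact pts_edge (hS e he) (Quot.mk _ ⟨w, hw, hwe.1, hwe.2.le⟩ : Pc L s e)
        (rep_mem h.lfs _) (mem_pts.2 ⟨⟨hw, hwe.1, hwe.2.le⟩, rfl⟩))
  refine le_trans (le_of_eq ?_) key
  congr 1
  refine Finset.sum_congr rfl fun e he => ?_
  unfold Wd
  refine Finset.sum_congr rfl fun x _ => ?_
  show (2 : ℝ)⁻¹ ^ kap (fam' fam (Rk κ kap) (pcol L s e x)) = _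
  rw [pcol_pts (rep_mem h.lfs x)]

end

end Crest.Agent.R096.SkB_662
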