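import Crest.Agent.R096.Gl11_422
import Crest.Agent.R096.SkB1b_662

/-!
# R096 (row 96), helper422: `StI.sub` (leaf (a) of 337 #10755): the input of the state half over a
subcomplex which contains all cells of dimension `≤ 2` (the mesh of the states stays the same).
-/

set_option autoImplicit false
set_option linter.unusedSectionVars false

open Set Relation

namespace Crest.Agent.R096.Gl_422

open Crest.Agent.R096.St_147 Crest.Agent.R096.Seq_213 Crest.Agent.R096.Seq_213.GSt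
  Crest.Agent.R096.Lm_117 Crest.Agent.R096.Ac_117 Crest.Agent.R096.Cp_298
  Crest.Agent.R096.SkB_662

variable {ι Φ W Q : Type} [PartialOrder Q] {dim : Q → ℕ} {M : MeshC ι Φ W}
variable {L : LM M Q dim} {p : Q → Prop}

/-- the subcomplex of the cells with `p` (same mesh, all 2-cells are kept) -/
noncomputable def sb (L : LM M Q dim) (p : Q → Prop) (hp : ∀ c d, c ≤ d → p d → p c)
    (hne : ∃ c, p c) (h2 : ∀ c, dim c ≤ 2 → p c) : LM M {c : Q // p c} (fun c => dim c.1) :=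
  L.sub p hp hne M id Function.injective_id (fun _ => rfl) (fun _ => rfl)
    (fun F => h2 _ (L.cf_dim F).le) (fun F _ => ⟨F, rfl⟩)

open Classical in
/-- a cell as a cell of the subcomplex -/
noncomputable def sv (p : Q → Prop) (hne : ∃ c, p c) (v : Q) : {c : Q // p c} :=
  if h : p v then ⟨v, h⟩ else ⟨hne.choose, hne.choose_spec⟩

theorem sv_eq {hne : ∃ c, p c} {v : Q} (h : p v) : sv p hne v = ⟨v, h⟩ := by
  unfold sv; rw [dif_pos h]

variable {hp : ∀ c d, c ≤ d → p d → p c} {hne : ∃ c, p c} {h2 : ∀ c, dim c ≤ 2 → p c}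

theorem sb_W1 {w : W} : w ∈ (sb L p hp hne h2).W1 ↔ w ∈ L.W1 := by
  constructor
  · exact fun h => h.1
  · exact fun h => ⟨h, h2 _ (by rw [L.ed_dim w h]; norm_num)⟩

theorem sb_ed {w : W} (h : w ∈ L.W1) : ((sb L p hp hne h2).ed w).1 = L.ed w :=
  subEd_eq (h2 _ (by rw [L.ed_dim w h]; norm_num))

theorem sb_en {e : {c : Q // p c}} (he : dim e.1 = 1) (b : Bool) :
    ((sb L p hp hne h2).en e b).1 = L.en e.1 b :=
  subEn_eq (L := L.toSk) (hp := hp) (e := e) he b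

theorem sb_On1 (e : {c : Q // p c}) : (sb L p hp hne h2).toSk.On1 e = L.toSk.On1 e.1 :=
  sub_On1 (L := L.toSk) (p := p) (hp := hp) (hne := hne) e

/-- a path of 1-cells is a path of 1-cells of the subcomplex -/
theorem path_sb {Z : Set Q} {v v' : Q} (h : ReflTransGen (Ed L Z) v v') (hv : p v) :
    ∃ hv' : p v', ReflTransGen (Ed (sb L p hp hne h2) {e | e.1 ∈ Z}) ⟨v, hv⟩ ⟨v', hv'⟩ := by
  induction h with
  | refl => exact ⟨hv, .refl⟩
  | @tail a b _ hs ih =>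
    obtain ⟨ha, ih⟩ := ih
    obtain ⟨e, h1, h4, c, rfl, rfl⟩ := hs
    have hpe : p e := h2 _ (by omega)
    have hpb : p (L.en e (!c)) := hp _ _ (L.en_lt e h4 _).le hpe
    refine ⟨hpb, ih.tail ⟨⟨e, hpe⟩, h1, h4, c, ?_, ?_⟩⟩
    · exact Subtype.ext (sb_en (L := L) (hp := hp) (hne := hne) (h2 := h2) (e := ⟨e, hpe⟩) h4 c).symm
    · exact Subtype.ext
        (sb_en (L := L) (hp := hp) (hne := hne) (h2 := h2) (e := ⟨e, hpe⟩) h4 (!c)).symm

/-- a path of 1-cells of the subcomplex is a path of 1-cells -/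
theorem path_of_sb {Z : Set {c : Q // p c}} {v v' : {c : Q // p c}}
    (h : ReflTransGen (Ed (sb L p hp hne h2) Z) v v') :
    ReflTransGen (Ed L (Subtype.val '' Z)) v.1 v'.1 := by
  induction h with
  | refl => exact .refl
  | @tail a b _ hs ih =>
    obtain ⟨e, h1, h4, c, rfl, rfl⟩ := hs
    have h4' : dim e.1 = 1 := h4
    exact ih.tail ⟨e.1, ⟨e, h1, rfl⟩, h4, c, sb_en h4' c, sb_en h4' (!c)⟩

theorem glab_sb {Y : Finset W} {lam : Q → ZMod 2} (h : GLab L Y lam) :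
    GLab (sb L p hp hne h2) Y (fun v => lam v.1) := by
  intro e he
  have he' : dim e.1 = 1 := he
  show lam ((sb L p hp hne h2).en e false).1 + lam ((sb L p hp hne h2).en e true).1 =
    nW Y ((sb L p hp hne h2).toSk.On1 e)
  rw [sb_en he', sb_en he', sb_On1]
  exact h e.1 he

variable {J C K : Type} {fam : J → C} {Qd : Quads ι C K} {s₀ : GSt M fam} {G : C → Set W}
  {Z : C → Set Q} {lam₀ : J → Q → ZMod 2} {v₀ v₁ : C → Q}

theorem frE_sb {c : C} {e : {c : Q // p c}} :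
    FrE (sb L p hp hne h2) Qd c e ↔ FrE L Qd c e.1 := Iff.rfl

/-- the deep vertex is a vertex -/
theorem LabIn.v₀_dim (h : LabIn L Qd s₀ G Z lam₀ v₀ v₁) (j : J) :
    dim (v₀ (fam j)) = 0 ∧ dim (v₁ (fam j)) = 0 := by
  have hne' : v₀ (fam j) ≠ v₁ (fam j) := by
    intro h'
    have h1 := h.one j
    rw [h', h.zero j] at h1
    exact absurd h1 (by decide)
  constructor
  · rcases ReflTransGen.cases_head (h.rope j) with h' | ⟨v, ⟨e, -, h4, b, e1, -⟩, -⟩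
    · exact absurd h' hne'
    · rw [e1]; exact L.en_dim e h4 b
  · rcases ReflTransGen.cases_tail (h.rope j) with h' | ⟨v, -, ⟨e, -, h4, b, -, e1⟩⟩
    · exact absurd h'.symm hne'
    · rw [e1]; exact L.en_dim e h4 _

/-- **label data over the subcomplex** -/
theorem LabIn.sb (hW : ∀ w ∈ s₀.P, w ∈ L.W1) (h : LabIn L Qd s₀ G Z lam₀ v₀ v₁) :
    LabIn (Gl_422.sb L p hp hne h2) Qd s₀ (fun c => {w | w ∈ G c ∧ w ∈ L.W1})
      (fun c => {v | v.1 ∈ Z c}) (fun j v => lam₀ j v.1) (fun c => sv p hne (v₀ c))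
      (fun c => sv p hne (v₁ c)) := by
  have hpv : ∀ v : Q, dim v = 0 → p v := fun v hv => h2 v (by omega)
  refine ⟨?_, ?_, ?_, ?_, ?_, ?_, ?_, ?_, ?_⟩
  · intro j Y hY hYG hYe
    obtain ⟨lam, a1, a2⟩ := h.has j Y (fun w hw => sb_W1.1 (hY w hw)) (fun w hw => (hYG w hw).1) hYe
    exact ⟨fun v => lam v.1, glab_sb a1, fun v hv => a2 v.1 hv⟩
  · rintro j w ⟨hw, hw1⟩ x hx he
    have hx1 := sb_W1.1 hx
    refine ⟨h.sat j w hw x hx1 ?_, hx1⟩
    have h4 := congrArg Subtype.val he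
    rwa [sb_ed hx1, sb_ed hw1] at h4
  · exact fun w hw => ⟨h.supp w hw, hW w hw⟩
  · intro j k hk w hw hi
    have hw1 := sb_W1.1 hw
    exact ⟨h.act j k hk w hw1 hi, hw1⟩
  · exact fun j => glab_sb (h.lab j)
  · intro j
    show lam₀ j (sv p hne (v₀ (fam j))).1 = 1
    rw [sv_eq (hpv _ (h.v₀_dim j).1)]
    exact h.one j
  · intro j
    show lam₀ j (sv p hne (v₁ (fam j))).1 = 0
    rw [sv_eq (hpv _ (h.v₀_dim j).2)]
    exact h.zero j
  · intro j
    show (sv p hne (v₁ (fam j))).1 ∈ Z (fam j)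
    rw [sv_eq (hpv _ (h.v₀_dim j).2)]
    exact h.far j
  · intro j
    obtain ⟨hv', h5⟩ := path_sb (hp := hp) (hne := hne) (h2 := h2) (h.rope j)
      (hpv _ (h.v₀_dim j).1)
    rw [sv_eq (hpv _ (h.v₀_dim j).1), sv_eq hv']
    exact h5

variable {O : Ori M} {τ : Q → ZMod 2} {Rel : W → W → Prop} {V : Set W} {κ : C → ℕ}
  {far₀ : J → Set W}

/-- **(a) of 337: the input of the state half over the subcomplex** -/
theorem stI_sub (hp : ∀ c d, c ≤ d → p d → p c) (hne : ∃ c, p c) (h2 : ∀ c, dim c ≤ 2 → p c)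
    (h : StI L O τ Rel V Qd κ s₀ far₀ G Z lam₀ v₀ v₁) :
    StI (sb L p hp hne h2) O (fun c => τ c.1) Rel V Qd κ s₀ far₀
      (fun c => {w | w ∈ G c ∧ w ∈ L.W1}) (fun c => {v | v.1 ∈ Z c}) (fun j v => lam₀ j v.1)
      (fun c => sv p hne (v₀ c)) (fun c => sv p hne (v₁ c)) where
  top := h.top.sub p hp hne M id Function.injective_id (fun _ => rfl) (fun _ => rfl)
    (fun F => h2 _ (L.cf_dim F).le) (fun F _ => ⟨F, rfl⟩) (fun _ _ _ q _ => ⟨q, fun _ => Iff.rfl⟩)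
  dir := Gm_298.dir_sub h.dir p hp hne M id Function.injective_id (fun _ => rfl) (fun _ => rfl)
    (fun F => h2 _ (L.cf_dim F).le) (fun F _ => ⟨F, rfl⟩) (fun _ _ => rfl)
  par := h.par
  refl := h.refl
  trans := h.trans
  memV := h.memV
  rel := by
    intro x w hxw hw
    obtain ⟨h1, h4⟩ := h.rel x w hxw (sb_W1.1 hw)
    exact ⟨sb_W1.2 h1, Subtype.ext (by rw [sb_ed h1, sb_ed (sb_W1.1 hw), h4])⟩
  V1 := fun w hw => sb_W1.2 (h.V1 hw)
  VF := h.VF
  loc := by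
    intro c
    obtain ⟨S, hS⟩ := h.loc c.1
    refine ⟨S, fun w hw hwc => hS w hw ?_⟩
    have hwc' : ((sb L p hp hne h2).ed w).1 ≤ c.1 := hwc
    rwa [sb_ed (h.V1 hw)] at hwc'
  lf := h.lf
  inv := h.inv
  PV := h.PV
  fin := h.fin
  finJ := h.finJ
  lab := h.lab.sb (fun w hw => h.V1 (h.PV hw))

theorem fre_sb {a : C} {e : {c : Q // p c}} :
    e ∈ Fre (sb L p hp hne h2) Qd s₀ a ↔ e.1 ∈ Fre L Qd s₀ a := by
  constructor
  · rintro ⟨h1, h4⟩
    refine ⟨h1, fun w hw ha hwe => h4 w hw ha ?_⟩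
    rw [sb_On1]; exact hwe
  · rintro ⟨h1, h4⟩
    refine ⟨h1, fun w hw ha hwe => h4 w hw ha ?_⟩
    rw [sb_On1] at hwe; exact hwe

theorem path_fre {a : C} {v v' : Q} (h : ReflTransGen (Ed L (Fre L Qd s₀ a)) v v') (hv : p v) :
    ∃ hv' : p v', ReflTransGen (Ed (sb L p hp hne h2) (Fre (sb L p hp hne h2) Qd s₀ a))
      ⟨v, hv⟩ ⟨v', hv'⟩ := by
  obtain ⟨hv', h5⟩ := path_sb (hp := hp) (hne := hne) (h2 := h2) h hv
  exact ⟨hv', path_mono (fun e he => fre_sb.2 he) h5⟩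

variable {E' : Type*} [NormedAddCommGroup E'] [NormedSpace ℝ E'] {Pf : C → Set E'}

/-- **(K4) over the subcomplex** -/
theorem k4In_sub (hp : ∀ c d, c ≤ d → p d → p c) (hne : ∃ c, p c) (h2 : ∀ c, dim c ≤ 2 → p c)
    (hW : ∀ w ∈ s₀.P, w ∈ L.W1) (hv0 : ∀ j, dim (v₀ (fam j)) = 0)
    (hZ : ∀ j, ∀ v ∈ Z (fam j), dim v = 0) {D : Set Q} {y : Q → C → ℝ}
    (h : K4In L Qd s₀ Z v₀ Pf D y) :
    K4In (sb L p hp hne h2) Qd s₀ (fun c => {v | v.1 ∈ Z c}) (fun c => sv p hne (v₀ c)) Pf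
      {q | q.1 ∈ D} (fun q => y q.1) := by
  have hpv : ∀ v : Q, dim v = 0 → p v := fun v hv => h2 v (by omega)
  have hin : ∀ (q : {c : Q // p c}) (w : W), w ∈ s₀.P → w ∈ (sb L p hp hne h2).toSk.In q →
      w ∈ L.toSk.In q.1 := by
    rintro q w hw ⟨h1, h4⟩
    have h1' := hW w hw
    refine ⟨h1', ?_⟩
    have h4' : ((sb L p hp hne h2).ed w).1 ≤ q.1 := h4
    rwa [sb_ed h1'] at h4'
  refine ⟨?_, ?_, ?_, ?_, ?_⟩
  · exact fun q hq => h.mem q.1 hq
  · exact fun q hq w hw hwq => h.pt q.1 hq w hw (hin q w hw hwq)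
  · exact fun q hq k a hk w hw hwq hi => h.act q.1 hq k a hk w hw (hin q w hw hwq) hi
  · intro q hq j hj
    obtain ⟨v, a1, a2, a3⟩ := h.zero q.1 hq j hj
    obtain ⟨hv', h5⟩ := path_fre (hp := hp) (hne := hne) (h2 := h2) a3 (hpv _ (hv0 j))
    refine ⟨⟨v, hv'⟩, a1, a2, ?_⟩
    show ReflTransGen _ (sv p hne (v₀ (fam j))) _
    rw [sv_eq (hpv _ (hv0 j))]
    exact h5
  · intro q hq j hj
    obtain ⟨v, a1, a2, v', a4, a3⟩ := h.one q.1 hq j hj
    obtain ⟨hv', h5⟩ := path_fre (hp := hp) (hne := hne) (h2 := h2) a3 (hpv _ (hZ j v' a4))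
    exact ⟨⟨v, hv'⟩, a1, a2, ⟨v', _⟩, a4, h5⟩

end Crest.Agent.R096.Gl_422
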