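import Crest.Agent.R096.Gl11_422

/-!
# R096 (row 96), part 4 (helper298): the state half over a subcomplex of the cells (337 #10755 (3)(a))

`LM.cut` : the labelled mesh over the cells with `p` (the mesh, the faces and the points are the
same; `p` contains all cells of dimension at most two).
`stI_cut` : `StI` over `L` gives `StI` over `L.cut p`.
`lmR` : `lmK` without the giants and without the 3-cells of a set `R` of tiles.
-/

set_option autoImplicit false
set_option linter.unusedSectionVars false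

open Set Relation Module

namespace Crest.Agent.R096.Gm_298

open Crest.Agent.R096.St_147 Crest.Agent.R096.Seq_213 Crest.Agent.R096.Seq_213.GSt
  Crest.Agent.R096.Lm_117 Crest.Agent.R096.Ac_117
  Crest.Agent.R096.Cp_298 Crest.Agent.R096.Msh_715 Crest.Agent.R096.Agl5_543
  Crest.Agent.R096.Ori_543 Crest.Agent.R096.Coh_184 Crest.Agent.R096.Gl_422
  Crest.Agent.R096.SkB_662

section gen

variable {ι Φ W Q J C K : Type} {M : MeshC ι Φ W} [PartialOrder Q] {dim : Q → ℕ}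

/-- **the labelled mesh over the cells with `p`** (same mesh) -/
noncomputable def cut (L : LM M Q dim) (p : Q → Prop) (hp : ∀ c d, c ≤ d → p d → p c)
    (hne : ∃ c, p c) (hp2 : ∀ c, dim c ≤ 2 → p c) : LM M {c : Q // p c} (fun c => dim c.1) :=
  L.sub p hp hne M id Function.injective_id (fun _ => rfl) (fun _ => rfl)
    (fun F => hp2 _ (L.cf_dim F).le) (fun F _ => ⟨F, rfl⟩)

open Classical in
/-- a cell as a cell of the subcomplex -/
noncomputable def rs {p : Q → Prop} (hne : ∃ c, p c) (x : Q) : {c : Q // p c} :=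
  if h : p x then ⟨x, h⟩ else ⟨hne.choose, hne.choose_spec⟩

theorem rs_eq {p : Q → Prop} {hne : ∃ c, p c} {x : Q} (h : p x) : (rs hne x).1 = x := by
  unfold rs; rw [dif_pos h]

variable {L : LM M Q dim} {p : Q → Prop} {hp : ∀ c d, c ≤ d → p d → p c}
  {hne : ∃ c, p c} {hp2 : ∀ c, dim c ≤ 2 → p c}

theorem cut_en {e : {c : Q // p c}} (h : dim e.1 = 1) (b : Bool) :
    ((cut L p hp hne hp2).en e b).1 = L.en e.1 b := subEn_eq (hp := hp) h b

theorem cut_ed {w : W} (h : w ∈ (cut L p hp hne hp2).W1) :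
    ((cut L p hp hne hp2).ed w).1 = L.ed w := subEd_eq h.2

/-- every candidate point of `L` is one of the subcomplex -/
theorem cut_W1 {w : W} : w ∈ (cut L p hp hne hp2).W1 ↔ w ∈ L.W1 :=
  ⟨fun h => h.1, fun h => ⟨h, hp2 _ (by rw [L.ed_dim w h]; norm_num)⟩⟩

theorem cut_On1 (e : {c : Q // p c}) : (cut L p hp hne hp2).On1 e = L.On1 e.1 :=
  sub_On1 (L := L.toSk) (hp := hp) (hne := hne) e

/-- labels -/
theorem glab_cut {Y : Finset W} {lam : Q → ZMod 2} (h : GLab L Y lam) :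
    GLab (cut L p hp hne hp2) Y (fun c => lam c.1) := by
  intro e he
  have he' : dim e.1 = 1 := he
  show lam ((cut L p hp hne hp2).en e false).1 + lam ((cut L p hp hne hp2).en e true).1 = _
  rw [cut_en he', cut_en he', cut_On1]
  exact h e.1 he

theorem hasLab_cut {G : Set W} {Z : Set Q} (h : HasLab L G Z) :
    HasLab (cut L p hp hne hp2) G {v | v.1 ∈ Z} := by
  intro Y h1 h2 h3
  obtain ⟨lam, h4, h5⟩ := h Y (fun w hw => (h1 w hw).1) h2 h3
  exact ⟨_, glab_cut h4, fun v hv => h5 v.1 hv⟩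

theorem frE_cut {Qd : Quads ι C K} {c : C} {e : {c : Q // p c}} :
    FrE (cut L p hp hne hp2) Qd c e ↔ FrE L Qd c e.1 := Iff.rfl

/-- 1-cells -/
theorem ed_cut {Z : Set Q} {v v' : Q} (h : Ed L Z v v') :
    Ed (cut L p hp hne hp2) {e | e.1 ∈ Z} (rs hne v) (rs hne v') := by
  obtain ⟨e, h1, h2, b, rfl, rfl⟩ := h
  have hpe : p e := hp2 _ (by omega)
  have hpv : ∀ b, p (L.en e b) := fun b => hp2 _ (by rw [L.en_dim e h2 b]; norm_num)
  refine ⟨⟨e, hpe⟩, h1, h2, b, ?_, ?_⟩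
  · apply Subtype.ext
    rw [rs_eq (hpv b), cut_en (e := ⟨e, hpe⟩) h2]
  · apply Subtype.ext
    rw [rs_eq (hpv (!b)), cut_en (e := ⟨e, hpe⟩) h2]

theorem path_cut {Z : Set Q} {v v' : Q} (h : ReflTransGen (Ed L Z) v v') :
    ReflTransGen (Ed (cut L p hp hne hp2) {e | e.1 ∈ Z}) (rs hne v) (rs hne v') :=
  h.lift _ fun _ _ h => ed_cut h

variable {Qd : Quads ι C K} {fam : J → C} {s₀ : GSt M fam} {G : C → Set W} {Z : C → Set Q}
  {lam₀ : J → Q → ZMod 2} {v₀ v₁ : C → Q}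

/-- the ends of a rope are vertices -/
theorem rope_vtx {Z' : Set Q} {v v' : Q} (h : ReflTransGen (Ed L Z') v v') (hne' : v ≠ v') :
    dim v = 0 ∧ dim v' = 0 := by
  constructor
  · rcases ReflTransGen.cases_head h with h | ⟨u, ⟨e, -, h2, b, rfl, -⟩, -⟩
    · exact absurd h hne'
    · exact L.en_dim e h2 b
  · rcases ReflTransGen.cases_tail h with h | ⟨u, -, ⟨e, -, h2, b, -, rfl⟩⟩
    · exact absurd h.symm hne'
    · exact L.en_dim e h2 _

/-- **label data over the subcomplex** -/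
theorem labIn_cut (h : LabIn L Qd s₀ G Z lam₀ v₀ v₁) (hP : ∀ w ∈ s₀.P, w ∈ L.W1) :
    LabIn (cut L p hp hne hp2) Qd s₀ (fun c => G c ∩ L.W1) (fun c => {v | v.1 ∈ Z c})
      (fun j v => lam₀ j v.1) (fun c => rs hne (v₀ c)) (fun c => rs hne (v₁ c)) := by
  have hv : ∀ j, p (v₀ (fam j)) ∧ p (v₁ (fam j)) := by
    intro j
    have hne' : v₀ (fam j) ≠ v₁ (fam j) := by
      intro h'
      have h1 := h.one j
      rw [h', h.zero j] at h1
      exact absurd h1 (by decide)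
    obtain ⟨h1, h2⟩ := rope_vtx (h.rope j) hne'
    exact ⟨hp2 _ (by omega), hp2 _ (by omega)⟩
  refine ⟨?_, ?_, ?_, ?_, ?_, ?_, ?_, ?_, ?_⟩
  · intro j Y h1 h2 h3
    exact hasLab_cut (h.has j) Y h1 (fun w hw => (h2 w hw).1) h3
  · rintro j w ⟨hw, hw1⟩ x hx he
    refine ⟨h.sat j w hw x hx.1 ?_, hx.1⟩
    rw [← cut_ed hx, ← cut_ed (cut_W1.2 hw1), he]
  · intro w hw
    exact ⟨h.supp w hw, hP w hw⟩
  · intro j k hk w hw hi
    exact ⟨h.act j k hk w hw.1 hi, hw.1⟩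
  · intro j
    exact glab_cut (h.lab j)
  · intro j
    show lam₀ j (rs hne (v₀ (fam j))).1 = 1
    rw [rs_eq (hv j).1]; exact h.one j
  · intro j
    show lam₀ j (rs hne (v₁ (fam j))).1 = 0
    rw [rs_eq (hv j).2]; exact h.zero j
  · intro j
    show (rs hne (v₁ (fam j))).1 ∈ Z (fam j)
    rw [rs_eq (hv j).2]; exact h.far j
  · intro j
    exact path_cut (h.rope j)

variable {O : Ori M} {τ : Q → ZMod 2} {Rel : W → W → Prop} {V : Set W} {κ : C → ℕ}
  {far₀ : J → Set W}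

/-- directions -/
theorem dir_cut (D : Dir L O τ) : Dir (cut L p hp hne hp2) O (fun c => τ c.1) :=
  dir_sub D _ _ _ _ _ _ _ _ _ _ (fun _ _ => rfl)

/-- 2-cells and 3-cells -/
theorem top_cut (X : Top3 L) : Top3 (cut L p hp hne hp2) :=
  X.sub _ _ _ _ _ _ _ _ _ _ (fun _ _ _ q _ => ⟨q, fun _ => Iff.rfl⟩)

/-- **THE STATE HALF OVER A SUBCOMPLEX** -/
theorem stI_cut (h : StI L O τ Rel V Qd κ s₀ far₀ G Z lam₀ v₀ v₁) :
    StI (cut L p hp hne hp2) O (fun c => τ c.1) Rel V Qd κ s₀ far₀ (fun c => G c ∩ L.W1)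
      (fun c => {v | v.1 ∈ Z c}) (fun j v => lam₀ j v.1) (fun c => rs hne (v₀ c))
      (fun c => rs hne (v₁ c)) where
  top := top_cut h.top
  dir := dir_cut h.dir
  par := h.par
  refl := h.refl
  trans := h.trans
  memV := h.memV
  rel := by
    intro x w hxw hw
    obtain ⟨h1, h2⟩ := h.rel x w hxw hw.1
    have hx : x ∈ (cut L p hp hne hp2).W1 := cut_W1.2 h1
    exact ⟨hx, Subtype.ext (by rw [cut_ed hx, cut_ed hw, h2])⟩
  V1 := fun w hw => cut_W1.2 (h.V1 hw)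
  VF := h.VF
  loc := by
    intro c
    obtain ⟨S, hS⟩ := h.loc c.1
    refine ⟨S, fun w hw hwc => hS w hw ?_⟩
    have h1 : ((cut L p hp hne hp2).ed w).1 ≤ c.1 := hwc
    rwa [cut_ed (cut_W1.2 (h.V1 hw))] at h1
  lf := h.lf
  inv := h.inv
  PV := h.PV
  fin := h.fin
  finJ := h.finJ
  lab := labIn_cut h.lab fun w hw => h.V1 (h.PV hw)

end gen

/-! ### the cells outside the cores (giants and single tiles) -/

section tiling

variable {E : Type} [NormedAddCommGroup E] [NormedSpace ℝ E] [FiniteDimensional ℝ E]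
variable {Om : Set E} {ι : Type} {T : Tiling Om ι} {κ : Type} {Kc : κ → Set E}

/-- not a giant and not the 3-cell of a tile of `R` -/
def NR (T : Tiling Om ι) (Kc : κ → Set E) (R : Set ι) : QK (belK T Kc) → Prop
  | Sum.inl c => ∀ i ∈ R, c.1 ≠ tcell T i
  | Sum.inr _ => False

theorem nr_c {R : Set ι} {c : {c : T.Cell // OutK T Kc c}} :
    NR T Kc R (QK.c _ c) ↔ ∀ i ∈ R, c.1 ≠ tcell T i := Iff.rfl

theorem nr_down (h3 : finrank ℝ E = 3) (R : Set ι) (c d : QK (belK T Kc)) (h : c ≤ d)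
    (hd : NR T Kc R d) : NR T Kc R c := by
  rcases d with d | k
  · obtain ⟨c', rfl, hc'⟩ := QK.le_c h
    intro i hi hc
    refine hd i hi ?_
    have h1 : c'.1 ≤ d.1 := hc'
    rw [hc] at h1
    rcases h1.lt_or_eq with h2 | h2
    · exfalso
      have h4 := Cm_117.dim_lt_cell h2
      rw [tcell_dim h3] at h4
      have h5 : d.1.dim ≤ finrank ℝ E := T.dim_le_finrank d.1.pt
      omega
    · exact h2.symm
  · exact hd.elim

theorem nr_two (h3 : finrank ℝ E = 3) (R : Set ι) (c : QK (belK T Kc))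
    (h : dimK (belK T Kc) (fun c => c.1.dim) c ≤ 2) : NR T Kc R c := by
  rcases c with c | k
  · intro i _ hc
    have h1 : c.1.dim ≤ 2 := h
    rw [hc, tcell_dim h3] at h1
    omega
  · exact absurd (show (3 : ℕ) ≤ 2 from h) (by norm_num)

variable [Nonempty T.Cell]

theorem nr_ne (h3 : finrank ℝ E = 3) (hne : ∃ c, OutK T Kc c) (R : Set ι) :
    ∃ c, NR T Kc R c := by
  obtain ⟨c, hc⟩ := hne
  obtain ⟨v, h1, h2⟩ := (skT T).base c
  refine ⟨QK.c _ ⟨v, outK_down v c h1 hc⟩, nr_two h3 R _ ?_⟩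
  show v.dim ≤ 2
  have h4 : v.dim = 0 := h2
  omega

/-- **the labelled mesh of the cells outside all cores**: `lmK` without the giants and without the
3-cells of the tiles of `R` -/
noncomputable def lmR (h3 : finrank ℝ E = 3) (hH : ∀ c, CoreH T (Kc c))
    (hdis : ∀ c c', c ≠ c' → Disjoint (Kc c) (Kc c')) (hne : ∃ c, OutK T Kc c) (R : Set ι) :
    LM (mK h3 hH hdis) {c : QK (belK T Kc) // NR T Kc R c}
      (fun c => dimK (belK T Kc) (fun c => c.1.dim) c.1) :=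
  cut (lmK h3 hH hdis hne) (NR T Kc R) (nr_down h3 R) (nr_ne h3 hne R) (nr_two h3 R)

variable {h3 : finrank ℝ E = 3} {hH : ∀ c, CoreH T (Kc c)}
  {hdis : ∀ c c', c ≠ c' → Disjoint (Kc c) (Kc c')} {hne : ∃ c, OutK T Kc c} {R : Set ι}

/-- every cell of `lmR` is a cell of the tiling outside the giants -/
theorem nr_cases (x : {c : QK (belK T Kc) // NR T Kc R c}) :
    ∃ c : {c : T.Cell // OutK T Kc c}, x.1 = QK.c _ c ∧ ∀ i ∈ R, c.1 ≠ tcell T i := by
  obtain ⟨x, hx⟩ := x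
  rcases x with c | k
  · exact ⟨c, rfl, hx⟩
  · exact hx.elim

variable {J C K : Type} {fam : J → C} {Qd : Quads (ι ⊕ κ) C K} {s₀ : GSt (mK h3 hH hdis) fam}

/-- **the input of the state half over the cells outside all cores** -/
theorem stI_R {κ₀ : C → ℕ} {far₀ : J → Set E} {G : C → Set E} {Z : C → Set (QK (belK T Kc))}
    {lam₀ : J → QK (belK T Kc) → ZMod 2} {v₀ v₁ : C → QK (belK T Kc)}
    (hκ : ∀ m, {c | κ₀ c ≤ m}.Finite) (hI : s₀.Inv Qd far₀)
    (hon : ∀ w ∈ s₀.P, w ∈ (lmK h3 hH hdis hne).W1)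
    (hfin : ∀ F, (s₀.P ∩ (mK h3 hH hdis).On F).Finite)
    (hJ : ∀ a, {j | fam j = a}.Finite) (h : LabIn (lmK h3 hH hdis hne) Qd s₀ G Z lam₀ v₀ v₁) :
    StI (lmR h3 hH hdis hne R) (oriK h3 hH hdis) (fun c => tauK T Kc c.1) (RelM T)
      (lmK h3 hH hdis hne).W1 Qd κ₀ s₀ far₀ (fun c => G c ∩ (lmK h3 hH hdis hne).W1)
      (fun c => {v | v.1 ∈ Z c}) (fun j v => lam₀ j v.1)
      (fun c => rs (nr_ne h3 hne R) (v₀ c)) (fun c => rs (nr_ne h3 hne R) (v₁ c)) :=
  stI_cut (stI_K hκ hI hon hfin hJ h)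

end tiling

end Crest.Agent.R096.Gm_298
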