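import Crest.Agent.R096.Dl4_609

/-!
# R096 (row 96), CORE BALLS, part 2 (helper609)

`core_pair`: in the exact core `coreF C κ c θ` of a maximal cell `c`, the fibre `{st = b q}`
(`q < c`) is a ball of dimension `cod C q`; its two sides `sl y c = θ` (on the boundary of the
core) and `sl y q = 0` (on the larger cells) are balls with common boundary.
`core_pair_K`: the same in `K ≃ coreF C κ c θ`, in 537's notation `cG`, `ctop`.
-/

set_option autoImplicit false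
set_option linter.unusedSectionVars false
set_option linter.unusedVariables false
set_option linter.deprecated false

open Set Metric Module Filter Topology
open scoped Classical

namespace Crest.Agent.R096.Dl_609

open Ce_537 Xp_537 Cb_609

variable {E : Type*} [NormedAddCommGroup E] [NormedSpace ℝ E]
variable {Q : Type*} [PartialOrder Q] {Λ : Set E} (C : CC Λ Q)

section Core

variable [FiniteDimensional ℝ E] {q c : Q} {κ θ : ℝ}

/-- the affine map from the cone over `[q, c)` onto the fibre in the core -/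
noncomputable def aff (κ θ : ℝ) (q c : Q) : E →ᵃ[ℝ] E :=
  (κ * (1 - θ)) • AffineMap.id ℝ E + AffineMap.const ℝ E ((1 - κ) • C.b q + (κ * θ) • C.b c)

lemma aff_apply (x : E) : aff C κ θ q c x =
    (κ * (1 - θ)) • x + ((1 - κ) • C.b q + (κ * θ) • C.b c) := rfl

lemma aff_inj (hκ : 0 < κ) (hθ : θ < 1) : Function.Injective (aff C κ θ q c) := by
  intro x y h
  rw [aff_apply, aff_apply] at h
  have h1 := add_right_cancel h
  exact smul_right_injective _ (mul_pos hκ (by linarith) : (0:ℝ) < κ * (1 - θ)).ne' h1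

lemma aff_bs (l : Q →₀ ℝ) :
    aff C κ θ q c (bs C.b l) = pk C κ ((1 - θ) • l + Finsupp.single c θ) (C.b q) := by
  rw [aff_apply, pk, bs_top']
  module

/-- **description of the image** -/
lemma mem_aff_KK (hκ : 0 < κ ∧ κ < 1) (h0 : 0 ≤ θ) (h1 : θ < 1) (hqc : q < c) {p : Q → Prop}
    (hp : ∀ ρ, p ρ → q ≤ ρ ∧ ρ ≤ c) (y : E) :
    y ∈ aff C κ θ q c '' KK C p ↔ (y ∈ coreF C κ c θ ∧ st C κ y = C.b q) ∧
      (∀ ρ ∈ (sl C κ y).support, ρ ≠ c → p ρ) ∧ (sl C κ y c ≠ θ → p c) := by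
  have h1' : 0 < 1 - θ := by linarith
  constructor
  · rintro ⟨_, ⟨l, hl, hs, rfl⟩, rfl⟩
    rw [aff_bs]
    set m := (1 - θ) • l + Finsupp.single c θ with hm
    have hle : ∀ ρ ∈ l.support, ρ ≤ c := fun ρ hρ => (hp ρ (hs ρ hρ)).2
    have hwt : Wt m := wt_top hl hle h0 h1.le
    have hmc : m c = (1 - θ) * l c + θ := by simp [hm]
    have hmne : ∀ ρ, ρ ≠ c → m ρ = (1 - θ) * l ρ := fun ρ h => by
      simp [hm, Finsupp.single_eq_of_ne h]
    have hms : ∀ ρ ∈ m.support, ρ ≠ c → p ρ := by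
      intro ρ hρ hne
      refine hs ρ ?_
      rw [Finsupp.mem_support_iff]
      intro h2
      apply Finsupp.mem_support_iff.1 hρ
      rw [hmne ρ hne, h2, mul_zero]
    have hmq : ∀ ρ ∈ m.support, q ≤ ρ ∧ ρ ≤ c := by
      intro ρ hρ
      by_cases h : ρ = c
      · subst h; exact ⟨hqc.le, le_rfl⟩
      · exact hp ρ (hms ρ hρ h)
    have hst : State C m (C.b q) := ⟨hwt.nn, hwt.sum, hwt.chain, fun ρ hρ =>
      C.mono_le (hmq ρ hρ).1 (C.bmem q)⟩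
    rw [sl_pk C hκ hst, st_pk C hκ hst]
    refine ⟨⟨⟨pk_mem C hκ hst fun ρ hρ => (hmq ρ hρ).2, ?_⟩, rfl⟩, hms, fun hne => ?_⟩
    · rw [sl_pk C hκ hst, hmc]
      have := mul_nonneg h1'.le (hl.nn c)
      linarith
    · refine hs c ?_
      rw [Finsupp.mem_support_iff]
      intro h2
      apply hne
      rw [hmc, h2, mul_zero, zero_add]
  · rintro ⟨⟨⟨hy, hθ⟩, hst⟩, hs, hc⟩
    obtain ⟨k1, k2, k3⟩ := st_spec C hκ hy
    set m := sl C κ y with hm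
    rw [hst] at k1 k2
    clear_value m
    -- divide
    set l : Q →₀ ℝ := (1 - θ)⁻¹ • (m - Finsupp.single c θ) with hl
    have hlc : l c = (1 - θ)⁻¹ * (m c - θ) := by simp [hl]
    have hlne : ∀ ρ, ρ ≠ c → l ρ = (1 - θ)⁻¹ * m ρ := fun ρ h => by
      simp [hl, Finsupp.single_eq_of_ne h]
    have hsub : ∀ ρ ∈ l.support, ρ ∈ m.support ∧ p ρ := by
      intro ρ hρ
      by_cases h : ρ = c
      · subst h
        have h2 : m ρ - θ ≠ 0 := by
          intro h2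
          apply Finsupp.mem_support_iff.1 hρ
          rw [hlc, h2, mul_zero]
        have h3 : m ρ ≠ θ := fun e => h2 (by rw [e, sub_self])
        refine ⟨Finsupp.mem_support_iff.2 fun e => ?_, hc h3⟩
        rw [e] at hθ
        exact h3 (by rw [e]; linarith)
      · have h2 : m ρ ≠ 0 := by
          intro h2
          apply Finsupp.mem_support_iff.1 hρ
          rw [hlne ρ h, h2, mul_zero]
        exact ⟨Finsupp.mem_support_iff.2 h2, hs ρ (Finsupp.mem_support_iff.2 h2) h⟩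
    have hlw : Wt l := by
      refine ⟨fun ρ => ?_, ?_, fun ρ hρ σ hσ => k1.chain ρ (hsub ρ hρ).1 σ (hsub σ hσ).1⟩
      · by_cases h : ρ = c
        · subst h; rw [hlc]
          exact mul_nonneg (inv_nonneg.2 h1'.le) (by linarith)
        · rw [hlne ρ h]
          exact mul_nonneg (inv_nonneg.2 h1'.le) (k1.nn ρ)
      · rw [← tot_eq, hl, map_smul, map_sub, tot_single, tot_wt k1.wt, smul_eq_mul,
          inv_mul_cancel₀ h1'.ne']
    refine ⟨bs C.b l, ⟨l, hlw, fun ρ hρ => (hsub ρ hρ).2, rfl⟩, ?_⟩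
    rw [aff_bs]
    have h5 : (1 - θ) • l + Finsupp.single c θ = m := by
      rw [hl, smul_smul, mul_inv_cancel₀ h1'.ne', one_smul, sub_add_cancel]
    rw [h5, k2]

/-- the support of a state over `b q` in the cell `c` -/
lemma supp_fibre (hκ : 0 < κ ∧ κ < 1) {y : E} (hy : y ∈ C.cell c) (hst : st C κ y = C.b q) :
    ∀ ρ ∈ (sl C κ y).support, q ≤ ρ ∧ ρ ≤ c := by
  obtain ⟨k1, k2, k3⟩ := st_spec C hκ hy
  rw [hst] at k1
  exact fun ρ hρ => ⟨C.le_of_b (k1.mem ρ hρ), k3 ρ hρ⟩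

/-- **the core pair** -/
theorem core_pair (hΛ : IsOpen Λ) (hκ : 0 < κ ∧ κ < 1) (h0 : 0 ≤ θ) (h1 : θ < 1) (hqc : q < c)
    (hc : ∀ ρ, c ≤ ρ → ρ = c) {k : ℕ} (hk : Ar_241.cod C q = k + 1) :
    BallPair k {y | y ∈ coreF C κ c θ ∧ st C κ y = C.b q}
      {y | (y ∈ coreF C κ c θ ∧ st C κ y = C.b q) ∧ sl C κ y c = θ}
      {y | (y ∈ coreF C κ c θ ∧ st C κ y = C.b q) ∧ sl C κ y q = 0}
      {y | (y ∈ coreF C κ c θ ∧ st C κ y = C.b q) ∧ sl C κ y c = θ ∧ sl C κ y q = 0} := by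
  have h2 := (cone_pair C hΛ hqc hc hk).image_injOn (plOn_affine (aff C κ θ q c) _)
    (aff_inj C hκ.1 h1).injOn
  have hA : ∀ S : Set E, (fun x => aff C κ θ q c x) '' S = aff C κ θ q c '' S := fun S => rfl
  rw [hA, hA, hA, hA] at h2
  have e1 : aff C κ θ q c '' KK C (fun ρ => q ≤ ρ ∧ ρ ≤ c) =
      {y | y ∈ coreF C κ c θ ∧ st C κ y = C.b q} := by
    ext y
    rw [mem_aff_KK C hκ h0 h1 hqc (fun ρ h => h)]
    constructor
    · exact fun h => h.1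
    · exact fun h => ⟨h, fun ρ hρ _ => supp_fibre C hκ h.1.1 h.2 ρ hρ, fun _ => ⟨hqc.le, le_rfl⟩⟩
  have e2 : aff C κ θ q c '' KK C (fun ρ => q ≤ ρ ∧ ρ < c) =
      {y | (y ∈ coreF C κ c θ ∧ st C κ y = C.b q) ∧ sl C κ y c = θ} := by
    ext y
    rw [mem_aff_KK C hκ h0 h1 hqc (fun ρ h => ⟨h.1, h.2.le⟩)]
    constructor
    · rintro ⟨h3, h4, h5⟩
      refine ⟨h3, ?_⟩
      by_contra hne
      exact lt_irrefl _ (h5 hne).2
    · rintro ⟨h3, h4⟩
      refine ⟨h3, fun ρ hρ hne => ?_, fun hne => absurd h4 hne⟩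
      obtain ⟨h5, h6⟩ := supp_fibre C hκ h3.1.1 h3.2 ρ hρ
      exact ⟨h5, lt_of_le_of_ne h6 hne⟩
  have e3 : aff C κ θ q c '' KK C (fun ρ => q < ρ ∧ ρ ≤ c) =
      {y | (y ∈ coreF C κ c θ ∧ st C κ y = C.b q) ∧ sl C κ y q = 0} := by
    ext y
    rw [mem_aff_KK C hκ h0 h1 hqc (fun ρ h => ⟨h.1.le, h.2⟩)]
    constructor
    · rintro ⟨h3, h4, h5⟩
      refine ⟨h3, ?_⟩
      by_contra hne
      exact lt_irrefl _ (h4 q (Finsupp.mem_support_iff.2 hne) hqc.ne).1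
    · rintro ⟨h3, h4⟩
      refine ⟨h3, fun ρ hρ hne => ?_, fun hne => ⟨hqc, le_rfl⟩⟩
      obtain ⟨h5, h6⟩ := supp_fibre C hκ h3.1.1 h3.2 ρ hρ
      refine ⟨lt_of_le_of_ne h5 ?_, h6⟩
      rintro rfl
      exact Finsupp.mem_support_iff.1 hρ h4
  have e4 : aff C κ θ q c '' KK C (fun ρ => q < ρ ∧ ρ < c) =
      {y | (y ∈ coreF C κ c θ ∧ st C κ y = C.b q) ∧ sl C κ y c = θ ∧ sl C κ y q = 0} := by
    ext y
    rw [mem_aff_KK C hκ h0 h1 hqc (fun ρ h => ⟨h.1.le, h.2.le⟩)]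
    constructor
    · rintro ⟨h3, h4, h5⟩
      refine ⟨h3, ?_, ?_⟩
      · by_contra hne
        exact lt_irrefl _ (h5 hne).2
      · by_contra hne
        exact lt_irrefl _ (h4 q (Finsupp.mem_support_iff.2 hne) hqc.ne).1
    · rintro ⟨h3, h4, h4'⟩
      refine ⟨h3, fun ρ hρ hne => ?_, fun hne => absurd h4 hne⟩
      obtain ⟨h5, h6⟩ := supp_fibre C hκ h3.1.1 h3.2 ρ hρ
      refine ⟨lt_of_le_of_ne h5 ?_, lt_of_le_of_ne h6 hne⟩
      rintro rfl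
      exact Finsupp.mem_support_iff.1 hρ h4'
  rw [e1, e2, e3, e4] at h2
  exact h2

variable {E' : Type*} [NormedAddCommGroup E'] [NormedSpace ℝ E'] {K : Set E'}

/-- `ctop ≠ q` on the fibre over `b q` -/
lemma ctop_ne_iff (hκ : 0 < κ ∧ κ < 1) {y : E} (hy : y ∈ C.cell c) (hst : st C κ y = C.b q) :
    mn c (sl C κ y) ≠ q ↔ sl C κ y q = 0 := by
  obtain ⟨k1, k2, k3⟩ := st_spec C hκ hy
  have hs := supp_fibre C hκ hy hst
  constructor
  · intro hne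
    by_contra h
    exact hne (mn_eq c k1.wt (Finsupp.mem_support_iff.2 h) fun ρ hρ => (hs ρ hρ).1)
  · intro h e
    have := (mn_spec c k1.wt).1
    rw [e] at this
    exact Finsupp.mem_support_iff.1 this h

/-- **the core pair in `K ≃ coreF C κ c θ`** -/
theorem core_pair_K (hΛ : IsOpen Λ) (hκ : 0 < κ ∧ κ < 1) (h0 : 0 ≤ θ) (h1 : θ < 1) (hqc : q < c)
    (hc : ∀ ρ, c ≤ ρ → ρ = c) {k : ℕ} (hk : Ar_241.cod C q = k + 1)
    (Th : PLEquiv K (coreF C κ c θ)) :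
    BallPair k {x | x ∈ K ∧ cG C κ Th.f x = C.b q}
      {x | (x ∈ K ∧ cG C κ Th.f x = C.b q) ∧ sl C κ (Th.f x) c = θ}
      {x | (x ∈ K ∧ cG C κ Th.f x = C.b q) ∧ ctop C κ c Th.f x ≠ q}
      {x | (x ∈ K ∧ cG C κ Th.f x = C.b q) ∧ sl C κ (Th.f x) c = θ ∧ ctop C κ c Th.f x ≠ q} := by
  have h2 := core_pair C hΛ hκ h0 h1 hqc hc hk
  have key : ∀ P : E → Prop, Th.g '' {y | (y ∈ coreF C κ c θ ∧ st C κ y = C.b q) ∧ P y} =
      {x | (x ∈ K ∧ cG C κ Th.f x = C.b q) ∧ P (Th.f x)} := by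
    intro P
    ext x
    constructor
    · rintro ⟨y, ⟨⟨hy, hst⟩, hP⟩, rfl⟩
      refine ⟨⟨Th.mg hy, ?_⟩, ?_⟩
      · show st C κ (Th.f (Th.g y)) = _
        rw [Th.ri y hy]; exact hst
      · rw [Th.ri y hy]; exact hP
    · rintro ⟨⟨hx, hG⟩, hP⟩
      exact ⟨Th.f x, ⟨⟨Th.mf hx, hG⟩, hP⟩, Th.li x hx⟩
  have key0 : Th.g '' {y | y ∈ coreF C κ c θ ∧ st C κ y = C.b q} =
      {x | x ∈ K ∧ cG C κ Th.f x = C.b q} := by
    have := key fun _ => True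
    simpa using this
  have h3 := h2.map (Th.symm.restrImage (A' := {y | y ∈ coreF C κ c θ ∧ st C κ y = C.b q})
    fun y hy => hy.1)
  have hf : ∀ S : Set E, (Th.symm.restrImage (A' := {y | y ∈ coreF C κ c θ ∧ st C κ y = C.b q})
    fun y hy => hy.1).f '' S = Th.g '' S := fun S => rfl
  have hf' : Th.symm.f '' {y | y ∈ coreF C κ c θ ∧ st C κ y = C.b q} =
    Th.g '' {y | y ∈ coreF C κ c θ ∧ st C κ y = C.b q} := rfl
  rw [hf, hf, hf, hf', key0, key, key, key] at h3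
  have e1 : {x | (x ∈ K ∧ cG C κ Th.f x = C.b q) ∧ sl C κ (Th.f x) q = 0} =
      {x | (x ∈ K ∧ cG C κ Th.f x = C.b q) ∧ ctop C κ c Th.f x ≠ q} := by
    ext x
    constructor
    · rintro ⟨⟨hx, hG⟩, h4⟩
      exact ⟨⟨hx, hG⟩, (ctop_ne_iff C hκ (Th.mf hx).1 hG).2 h4⟩
    · rintro ⟨⟨hx, hG⟩, h4⟩
      exact ⟨⟨hx, hG⟩, (ctop_ne_iff C hκ (Th.mf hx).1 hG).1 h4⟩
  have e2 : {x | (x ∈ K ∧ cG C κ Th.f x = C.b q) ∧ sl C κ (Th.f x) c = θ ∧
      sl C κ (Th.f x) q = 0} =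
      {x | (x ∈ K ∧ cG C κ Th.f x = C.b q) ∧ sl C κ (Th.f x) c = θ ∧
        ctop C κ c Th.f x ≠ q} := by
    ext x
    constructor
    · rintro ⟨⟨hx, hG⟩, h5, h4⟩
      exact ⟨⟨hx, hG⟩, h5, (ctop_ne_iff C hκ (Th.mf hx).1 hG).2 h4⟩
    · rintro ⟨⟨hx, hG⟩, h5, h4⟩
      exact ⟨⟨hx, hG⟩, h5, (ctop_ne_iff C hκ (Th.mf hx).1 hG).1 h4⟩
  rw [e1, e2] at h3
  exact h3

end Core

end Crest.Agent.R096.Dl_609
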