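import Crest.Agent.R096.Ar8_241
import Crest.Agent.R096.Dl5_609

/-!
# R096 (row 96), ARR part 9 (helper241): exact cores

`Exact X κ θ Kc X0`: on the core `Kc c` of the top cell `c` the transport structure is the exact one
(537's `cG, ctop, ctr` through `Th c : Kc c ≃ coreF`), `X0 ∩ Kc c = {sl c = θ}`, and the pieces of the
top cells are contained in the cores.
`Exact.cores`, `Exact.coreData` (609's `core_pair_K`), `Exact.i0`, `Exact.i1'` and the final
`Exact.balls` / `Exact.trn`: the only inputs left are compact fibres, `P2`, the truncated arcs of the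
squares and the sheets of the edges.
-/

set_option autoImplicit false
set_option linter.unusedSectionVars false
set_option linter.unusedVariables false

open Set Metric Topology Module
open scoped Classical

namespace Crest.Agent.R096.Ar_241

open Crest.Agent.R096.Xp_537
open Crest.Agent.R096.Ce_537 (PLOn PLEquiv cube sph IsBall)
open Crest.Agent.R096.Glu_422 (Pieces exch mem_exch)
open Crest.Agent.R096.Ar_241.Tr0 (P2)

variable {E : Type*} [NormedAddCommGroup E] [NormedSpace ℝ E] [FiniteDimensional ℝ E]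
  {Q : Type*} [PartialOrder Q] {Λ : Set E}
  {E' : Type*} [NormedAddCommGroup E'] [NormedSpace ℝ E']
  {Ω : Set E'} {C : CC Λ Q} {G : E' → E}

/-- the top cells -/
abbrev TopC (Q : Type*) [PartialOrder Q] := {c : Q // ∀ r, c ≤ r → r = c}

/-- a cell of positive codimension is not maximal -/
lemma exists_gt (C : CC Λ Q) (hΛ : IsOpen Λ) {q : Q} (hq : 0 < cod C q) : ∃ r, q < r := by
  by_contra hcon
  push Not at hcon
  have he : IsEmpty (Up q) := ⟨fun r => hcon r.1 r.2⟩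
  have : Fintype (Up q) := Fintype.ofIsEmpty
  have htop : dirW C q = ⊤ := by
    rw [eq_top_iff]
    intro w _
    obtain ⟨u, hu, l, -, hw⟩ := exists_rep C hΛ (q := q) w
    rw [hw]
    simpa using hu
  unfold cod at hq
  rw [htop, finrank_top] at hq
  omega

lemma max_of_cod (C : CC Λ Q) (hΛ : IsOpen Λ) {q : Q} (hq : cod C q = 0) :
    ∀ r, q ≤ r → r = q := by
  intro r hr
  by_contra hne
  have := cod_lt C hΛ (lt_of_le_of_ne hr (Ne.symm hne))
  omega

lemma cod_of_max (C : CC Λ Q) (hΛ : IsOpen Λ) {q : Q} (hq : ∀ r, q ≤ r → r = q) :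
    cod C q = 0 := by
  by_contra hne
  obtain ⟨r, hr⟩ := exists_gt C hΛ (Nat.pos_of_ne_zero hne)
  exact hr.ne' (hq r hr.le)

/-- some top cell above every cell -/
lemma exists_topC (C : CC Λ Q) (hΛ : IsOpen Λ) (q : Q) : ∃ c : TopC Q, q ≤ c.1 := by
  induction h : cod C q using Nat.strong_induction_on generalizing q with
  | _ n ih =>
    rcases Nat.eq_zero_or_pos n with h0 | h0
    · exact ⟨⟨q, max_of_cod C hΛ (by omega)⟩, le_rfl⟩
    · obtain ⟨r, hr⟩ := exists_gt C hΛ (q := q) (by omega)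
      obtain ⟨c, hc⟩ := ih (cod C r) (by have := cod_lt C hΛ hr; omega) r rfl
      exact ⟨c, hr.le.trans hc⟩

/-- **the exact cores** -/
structure Exact (X : Tr0 Ω C G) (κ θ : TopC Q → ℝ) (Kc : TopC Q → Set E') (X0 : Set E') where
  κpos : ∀ c, 0 < κ c ∧ κ c < 1
  θ0 : ∀ c, 0 ≤ θ c
  θ1 : ∀ c, θ c < 1
  Th : ∀ c, PLEquiv (Kc c) (coreF C (κ c) c.1 (θ c))
  sub : ∀ c, Kc c ⊆ Ω
  G_eq : ∀ c, ∀ x ∈ Kc c, G x = cG C (κ c) (Th c).f x
  top_eq : ∀ c, ∀ x ∈ Kc c, X.top x = ctop C (κ c) c.1 (Th c).f x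
  tr_eq : ∀ c, ∀ x ∈ Kc c, ∀ t ∈ C.cell (X.top x),
    X.tr x t = ctr C (κ c) (Th c).f (Th c).g x t
  X0_iff : ∀ c, ∀ x ∈ Kc c, x ∈ X0 ↔ sl C (κ c) ((Th c).f x) c.1 = θ c
  disj : ∀ c c', c ≠ c' → Disjoint (Kc c) (Kc c')
  maxtop : ∀ x ∈ Ω, (∀ r, X.top x ≤ r → r = X.top x) → ∃ c, x ∈ Kc c

lemma isCompact_coreF (C : CC Λ Q) {κ θ : ℝ} (hκ : 0 < κ ∧ κ < 1) (c : Q) :
    IsCompact (coreF C κ c θ) := by
  have h1 : ContinuousOn (fun y => sl C κ y c) (C.cell c) := (plOn_sl C hκ c c).1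
  have h2 : IsClosed (C.cell c ∩ (fun y => sl C κ y c) ⁻¹' Ici θ) :=
    h1.preimage_isClosed_of_isClosed (C.cpt c).isClosed isClosed_Ici
  exact (C.cpt c).of_isClosed_subset h2 (fun y hy => hy.1)

namespace Exact

variable {X : Tr0 Ω C G} {κ θ : TopC Q → ℝ} {Kc : TopC Q → Set E'} {X0 : Set E'}
  (h : Exact X κ θ Kc X0)
include h

lemma isCompact (c : TopC Q) : IsCompact (Kc c) := by
  have h1 : Kc c = (h.Th c).g '' (coreF C (κ c) c.1 (θ c)) := by
    ext x
    constructor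
    · intro hx
      exact ⟨_, (h.Th c).mf hx, (h.Th c).li x hx⟩
    · rintro ⟨y, hy, rfl⟩
      exact (h.Th c).mg hy
  rw [h1]
  exact (isCompact_coreF C (h.κpos c) c.1).image_of_continuousOn (h.Th c).pg.1

lemma top_le {c : TopC Q} {x : E'} (hx : x ∈ Kc c) : X.top x ≤ c.1 := by
  rw [h.top_eq c x hx]
  obtain ⟨k1, k2, k3⟩ := st_spec C (h.κpos c) ((h.Th c).mf hx).1
  exact k3 _ (mn_spec c.1 k1.wt).1

lemma sat {c : TopC Q} {x : E'} (hx : x ∈ Kc c) {t : E} (ht : t ∈ C.cell (X.top x)) :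
    X.tr x t ∈ Kc c := by
  rw [h.tr_eq c x hx t ht]
  rw [h.top_eq c x hx] at ht
  exact (h.Th c).mg (coreF_move (h.κpos c) ((h.Th c).mf hx) ht)

theorem cores (X0closed : IsClosed X0) (cov : Ω ⊆ X0 ∪ ⋃ c, Kc c)
    (bd : ∀ c, ∀ x ∈ Kc c, x ∈ X0 → ∀ ε > (0:ℝ), ∃ z ∈ ball x ε, z ∉ Kc c) : Cores X Kc X0 where
  closed := fun c => (h.isCompact c).isClosed
  X0closed := X0closed
  cov := cov
  disj := h.disj
  lf := fun x hx => by
    obtain ⟨r, hr, hf⟩ := X.lf x hx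
    refine ⟨r, hr, ?_⟩
    have h1 : ({q | ({x | x ∈ Ω ∧ q ≤ X.top x ∧ G x ∈ C.cell q} ∩ ball x r).Nonempty}).Finite := hf
    have h2 : (⋃ q ∈ {q | ({x | x ∈ Ω ∧ q ≤ X.top x ∧ G x ∈ C.cell q} ∩ ball x r).Nonempty},
        {c : TopC Q | q ≤ c.1}).Finite := by
      refine h1.biUnion fun q _ => ?_
      have := finite_up C q
      have h3 : ({r : Q | q < r}).Finite := this
      have h4 : ({r : Q | q ≤ r}).Finite := (h3.insert q).subset fun r hr => by
        rcases eq_or_lt_of_le (show q ≤ r from hr) with e | e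
        · exact Or.inl e.symm
        · exact Or.inr e
      exact Set.Finite.preimage (Subtype.val_injective.injOn) h4
    refine h2.subset ?_
    rintro c ⟨z, hz, hzb⟩
    refine mem_biUnion (x := X.top z) ?_ (h.top_le hz)
    exact ⟨z, ⟨h.sub c hz, le_rfl, X.G_mem z (h.sub c hz)⟩, hzb⟩
  bd := bd
  sat := fun c x hx _ t ht => h.sat hx ht

lemma F_inter (q : Q) (c : TopC Q) :
    X.F q ∩ Kc c = {x | x ∈ Kc c ∧ cG C (κ c) (h.Th c).f x = C.b q} := by
  ext x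
  constructor
  · rintro ⟨h1, h2⟩
    exact ⟨h2, by rw [← h.G_eq c x h2]; exact h1.2⟩
  · rintro ⟨h1, h2⟩
    exact ⟨⟨h.sub c h1, by rw [h.G_eq c x h1]; exact h2⟩, h1⟩

/-- the fibre of a cell meets only the cores of the top cells above it -/
lemma le_of_meets {q : Q} {c : TopC Q} (hne : (X.F q ∩ Kc c).Nonempty) : q ≤ c.1 := by
  obtain ⟨x, hx, hc⟩ := hne
  have h1 : q ≤ X.top x := C.le_of_b (by rw [← hx.2]; exact X.G_mem x hx.1)
  exact h1.trans (h.top_le hc)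

theorem coreData (hΛ : IsOpen Λ) {q : Q} {k : ℕ} (hq : cod C q = k + 1) :
    CoreData X Kc X0 k q := by
  have hfin : ({c : TopC Q | q < c.1}).Finite := by
    have := finite_up C q
    have h3 : ({r : Q | q < r}).Finite := this
    exact Set.Finite.preimage (Subtype.val_injective.injOn) h3
  have hlt : ∀ c : TopC Q, q ≤ c.1 → q < c.1 := by
    intro c hc
    refine lt_of_le_of_ne hc ?_
    rintro rfl
    have := cod_of_max C hΛ c.2
    omega
  refine ⟨hfin.toFinset,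
    fun c => {x | (x ∈ Kc c ∧ cG C (κ c) (h.Th c).f x = C.b q) ∧
      ctop C (κ c) c.1 (h.Th c).f x ≠ q},
    fun c => {x | (x ∈ Kc c ∧ cG C (κ c) (h.Th c).f x = C.b q) ∧
      sl C (κ c) ((h.Th c).f x) c.1 = θ c ∧ ctop C (κ c) c.1 (h.Th c).f x ≠ q}, ?_, ?_, ?_, ?_, ?_⟩
  · obtain ⟨c, hc⟩ := exists_topC C hΛ q
    exact ⟨c, hfin.mem_toFinset.2 (hlt c hc)⟩
  · intro c hc
    exact hfin.mem_toFinset.2 (hlt c (h.le_of_meets hc))
  · intro c hc
    have hqc : q < c.1 := hfin.mem_toFinset.1 hc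
    have h1 := Dl_609.core_pair_K C hΛ (h.κpos c) (h.θ0 c) (h.θ1 c) hqc c.2 hq (h.Th c)
    have e2 : X.F q ∩ Kc c ∩ X0 = {x | (x ∈ Kc c ∧ cG C (κ c) (h.Th c).f x = C.b q) ∧
        sl C (κ c) ((h.Th c).f x) c.1 = θ c} := by
      rw [h.F_inter q c]
      ext x
      constructor
      · rintro ⟨h1, h2⟩
        exact ⟨h1, (h.X0_iff c x h1.1).1 h2⟩
      · rintro ⟨h1, h2⟩
        exact ⟨h1, (h.X0_iff c x h1.1).2 h2⟩
    rw [← h.F_inter q c, ← e2] at h1
    exact h1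
  · intro c hc
    ext x
    constructor
    · rintro ⟨⟨hF, hK⟩, hS⟩
      refine ⟨⟨hK, by rw [← h.G_eq c x hK]; exact hF.2⟩, ?_⟩
      rw [← h.top_eq c x hK]
      exact hS.2.2
    · rintro ⟨⟨hK, hG⟩, ht⟩
      have hG' : G x = C.b q := by rw [h.G_eq c x hK]; exact hG
      refine ⟨⟨⟨h.sub c hK, hG'⟩, hK⟩, h.sub c hK, hG', ?_⟩
      rw [h.top_eq c x hK]
      exact ht
  · intro c hc c' hc' hne
    exact (h.disj c c' hne).mono inter_subset_right inter_subset_right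

/-- top cells -/
theorem i0 (hΛ : IsOpen Λ) {q : Q} (hq : cod C q = 0) : ∃ x, X.F q = {x} := by
  have hmax := max_of_cod C hΛ hq
  have hc0 : (⟨q, hmax⟩ : TopC Q).1 = q := rfl
  set c : TopC Q := ⟨q, hmax⟩ with hc
  have hst : State C (Finsupp.single q (1:ℝ)) (C.b q) := by
    refine ⟨fun ρ => ?_, ?_, ?_, ?_⟩
    · rw [Finsupp.single_apply]; split_ifs <;> norm_num
    · rw [Finsupp.support_single_ne_zero _ one_ne_zero]; simp
    · rw [Finsupp.support_single_ne_zero _ one_ne_zero]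
      intro ρ hρ σ hσ
      rw [Finset.mem_singleton] at hρ hσ
      left; rw [hρ, hσ]
    · rw [Finsupp.support_single_ne_zero _ one_ne_zero]
      intro ρ hρ
      rw [Finset.mem_singleton] at hρ
      rw [hρ]; exact C.bmem q
  set y0 : E := pk C (κ c) (Finsupp.single q (1:ℝ)) (C.b q) with hy0
  have hsl0 : sl C (κ c) y0 = Finsupp.single q (1:ℝ) := sl_pk C (h.κpos c) hst
  have hst0 : st C (κ c) y0 = C.b q := st_pk C (h.κpos c) hst
  have hy0c : y0 ∈ coreF C (κ c) c.1 (θ c) := by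
    refine ⟨pk_mem C (h.κpos c) hst ?_, ?_⟩
    · rw [Finsupp.support_single_ne_zero _ one_ne_zero]
      intro ρ hρ
      rw [Finset.mem_singleton] at hρ
      rw [hρ]
    · rw [hsl0, hc0, Finsupp.single_eq_same]
      exact (h.θ1 c).le
  refine ⟨(h.Th c).g y0, ?_⟩
  ext x
  constructor
  · intro hx
    have h1 : q ≤ X.top x := C.le_of_b (by rw [← hx.2]; exact X.G_mem x hx.1)
    have h2 : X.top x = q := hmax _ h1
    obtain ⟨c', hc'⟩ := h.maxtop x hx.1 (by rw [h2]; exact hmax)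
    have h3 : q ≤ c'.1 := by rw [← h2]; exact h.top_le hc'
    have h4 : c' = c := Subtype.ext (hmax _ h3)
    rw [h4] at hc'
    have hy := (h.Th c).mf hc'
    obtain ⟨k1, k2, k3⟩ := st_spec C (h.κpos c) hy.1
    have h5 : st C (κ c) ((h.Th c).f x) = C.b q := by
      have := h.G_eq c x hc'
      rw [hx.2] at this
      exact this.symm
    have h6 : sl C (κ c) ((h.Th c).f x) = Finsupp.single q (1:ℝ) := by
      have h7 : ∀ ρ ∈ (sl C (κ c) ((h.Th c).f x)).support, ρ = q := by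
        intro ρ hρ
        exact hmax ρ (Dl_609.supp_fibre C (h.κpos c) hy.1 h5 ρ hρ).1
      ext ρ
      by_cases hρ : ρ = q
      · subst hρ
        rw [Finsupp.single_eq_same]
        have h8 := k1.sum
        have h9 : (sl C (κ c) ((h.Th c).f x)).support ⊆ {ρ} := fun σ hσ =>
          Finset.mem_singleton.2 (h7 σ hσ)
        have h10 := Finset.sum_subset h9 (f := fun σ => sl C (κ c) ((h.Th c).f x) σ)
          (fun σ _ hσ => Finsupp.notMem_support_iff.1 hσ)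
        rw [Finset.sum_singleton] at h10
        rw [← h10]; exact h8
      · rw [Finsupp.single_eq_of_ne hρ]
        by_contra hne
        exact hρ (h7 ρ (Finsupp.mem_support_iff.2 hne))
    have h7 : (h.Th c).f x = y0 := by
      rw [← k2, h6, h5]
    rw [mem_singleton_iff, ← h7, (h.Th c).li x hc']
  · intro hx
    rw [mem_singleton_iff] at hx
    have hxK : x ∈ Kc c := by rw [hx]; exact (h.Th c).mg hy0c
    refine ⟨h.sub c hxK, ?_⟩
    rw [h.G_eq c x hxK]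
    show st C (κ c) ((h.Th c).f x) = _
    rw [hx, (h.Th c).ri y0 hy0c, hst0]

/-- squares: the boundary of the fibre lies in the cores -/
theorem i1' (hΛ : IsOpen Λ) {q : Q} (hq : cod C q = 1) : X.S q ⊆ ⋃ c, Kc c := by
  intro x hx
  have h1 : q ≤ X.top x := C.le_of_b (by rw [← hx.2.1]; exact X.G_mem x hx.1)
  have h2 : q < X.top x := lt_of_le_of_ne h1 (Ne.symm hx.2.2)
  have h3 : cod C (X.top x) = 0 := by
    have := cod_lt C hΛ h2
    omega
  obtain ⟨c, hc⟩ := h.maxtop x hx.1 (max_of_cod C hΛ h3)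
  exact mem_iUnion.2 ⟨c, hc⟩

/-- **ARR with exact cores**: all fibres are balls -/
theorem balls (hΛ : IsOpen Λ) (hΩ : IsOpen Ω) (hE : finrank ℝ E = 3) (hP : P2 E' 3)
    (hc : ∀ q, IsCompact (X.F q)) (X0closed : IsClosed X0) (cov : Ω ⊆ X0 ∪ ⋃ c, Kc c)
    (bd : ∀ c, ∀ x ∈ Kc c, x ∈ X0 → ∀ ε > (0:ℝ), ∃ z ∈ ball x ε, z ∉ Kc c)
    (arcs : ∀ q, cod C q = 1 → IsBall 1 (X.F q ∩ X0) (X.F q ∩ X0 ∩ ⋃ c, Kc c))
    (sheets : ∀ q, cod C q = 2 → SheetData X Kc X0 q) :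
    ∀ q, IsBall (cod C q) (X.F q) (X.S q) :=
  X.balls3 hΛ hΩ hE hP hc (h.cores X0closed cov bd) (fun q hq => h.i0 hΛ hq)
    (fun q hq => h.coreData hΛ hq) (fun q hq => h.i1' hΛ hq) arcs
    (fun q hq => h.coreData hΛ hq) sheets

/-- **the transport structure of 537 with exact cores** -/
noncomputable def trn (hΛ : IsOpen Λ) (hΩ : IsOpen Ω) (hE : finrank ℝ E = 3) (hP : P2 E' 3)
    (hdim : ∀ q, C.dim q ≤ 3)
    (hc : ∀ q, IsCompact (X.F q)) (X0closed : IsClosed X0) (cov : Ω ⊆ X0 ∪ ⋃ c, Kc c)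
    (bd : ∀ c, ∀ x ∈ Kc c, x ∈ X0 → ∀ ε > (0:ℝ), ∃ z ∈ ball x ε, z ∉ Kc c)
    (arcs : ∀ q, cod C q = 1 → IsBall 1 (X.F q ∩ X0) (X.F q ∩ X0 ∩ ⋃ c, Kc c))
    (sheets : ∀ q, cod C q = 2 → SheetData X Kc X0 q) : Trn Ω C G :=
  X.trn 3 (cod C) hdim (h.balls hΛ hΩ hE hP hc X0closed cov bd arcs sheets)

end Exact

end Crest.Agent.R096.Ar_241
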