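import Crest.Agent.R096.Bd9_416
import Crest.Agent.R096.Ce2_537

/-!
# R096 (row 96), P4-MESH, part 3: the invariants of the recursion over the mesh and the structure on
the boundary of a new cell (helper416)
-/

set_option autoImplicit false

open Set Metric

namespace Crest.Agent.R096.Bd_416

open Crest.Agent.R096.Ce_537

open scoped Classical

variable {Q : Type} [PartialOrder Q] {dim : Q → ℕ} {J Fam : Type}
variable {E : Type*} [NormedAddCommGroup E] [NormedSpace ℝ E]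

/-- the union of the smaller cells -/
abbrev bdS (K : Q → Set E) (τ : Q) : Set E := ⋃ j ∈ {j | j < τ}, K j

/-- **invariants of the band structure on the cells of `D`** (colours = sheets) -/
structure Inv (C : Cmb Q dim J Fam) (K : Q → Set E) (D : Set Q) (g : Gd E J)
    (P : ∀ q, C.I q → Set E) (c : ∀ q, C.I q → E → ℝ) : Prop where
  is : ∀ q ∈ D, g.Is (K q)
  PF : ∀ q ∈ D, ∀ j, ∀ z ∈ K q,
    g.G j z = 1/2 - sg (C.Lab j q) / 2 * ∏ x : C.I q with C.col q x = j, (-2 * c q x z)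
  cl : ∀ q ∈ D, ∀ x, IsClosed (P q x)
  PK : ∀ q ∈ D, ∀ x, P q x ⊆ K q
  PB : ∀ q ∈ D, ∀ x, P q x ⊆ g.B (C.col q x)
  cov : ∀ q ∈ D, ∀ j, ∀ z ∈ K q, z ∈ g.B j → ∃ x, C.col q x = j ∧ z ∈ P q x
  pc : ∀ q ∈ D, ∀ x, PLOn (c q x) (K q)
  cm : ∀ q ∈ D, ∀ x, ∀ z ∈ K q, c q x z ∈ I2
  cn : ∀ q ∈ D, ∀ x, ∀ z ∈ K q, |c q x z| < 1/2 → z ∈ P q x
  fd : ∀ q ∈ D, ∀ x x', x ≠ x' → C.fam (C.col q x) = C.fam (C.col q x') →
    Disjoint (P q x) (P q x')
  sd : ∀ q ∈ D, ∀ x x', x ≠ x' → C.fam (C.col q x) = C.fam (C.col q x') →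
    ∀ z ∈ P q x, -2 * c q x' z = sg (C.side q x x')
  r1 : ∀ {p q} (h : p < q), q ∈ D → ∀ x, ∀ z ∈ K p,
    (z ∈ P q x ↔ ∃ y, C.up h y = x ∧ z ∈ P p y)
  r2 : ∀ {p q} (h : p < q), q ∈ D → ∀ x, ∀ z ∈ K p,
    -2 * c q x z = sg (C.s h x) * ∏ y : C.I p with C.up h y = x, (-2 * c p y z)

lemma abs_of_half {t : ℝ} (h : t = -1/2 ∨ t = 1/2) : |-2 * t| = 1 := by
  rcases h with rfl | rfl <;> norm_num

lemma abs_two_le {t : ℝ} (h : t ∈ I2) : |-2 * t| ≤ 1 := by
  rw [abs_le]; constructor <;> linarith [h.1, h.2]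

/-- a piece and the pieces of the same sheet -/
lemma prod_split {C : Cmb Q dim J Fam} {q : Q} (x : C.I q) (f : C.I q → ℝ) :
    ∏ x' : C.I q with C.col q x' = C.col q x, f x'
      = f x * ∏ x' : C.I q with (C.col q x' = C.col q x ∧ x' ≠ x), f x' := by
  have hmem : x ∈ (Finset.univ.filter fun x' : C.I q => C.col q x' = C.col q x) := by simp
  rw [← Finset.mul_prod_erase _ _ hmem]
  congr 1
  refine Finset.prod_congr ?_ fun _ _ => rfl
  ext x'
  simp only [Finset.mem_erase, Finset.mem_filter, Finset.mem_univ, true_and]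
  tauto

/-- the same for the pieces contained in one piece -/
lemma prod_split_up {C : Cmb Q dim J Fam} {p q : Q} (h : p < q) (y : C.I p) (f : C.I p → ℝ) :
    ∏ y' : C.I p with C.up h y' = C.up h y, f y'
      = f y * ∏ y' : C.I p with (C.up h y' = C.up h y ∧ y' ≠ y), f y' := by
  have hmem : y ∈ (Finset.univ.filter fun y' : C.I p => C.up h y' = C.up h y) := by simp
  rw [← Finset.mul_prod_erase _ _ hmem]
  congr 1
  refine Finset.prod_congr ?_ fun _ _ => rfl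
  ext x'
  simp only [Finset.mem_erase, Finset.mem_filter, Finset.mem_univ, true_and]
  tauto

namespace Inv

variable {C : Cmb Q dim J Fam} {K : Q → Set E} {D : Set Q} {g : Gd E J}
  {P : ∀ q, C.I q → Set E} {c : ∀ q, C.I q → E → ℝ} (H : Inv C K D g P c)
include H

lemma G_mem {q : Q} (hq : q ∈ D) (j : J) {z : E} (hz : z ∈ K q) : g.G j z ∈ Icc (0:ℝ) 1 := by
  rw [H.PF q hq j z hz]
  have h1 : |∏ x : C.I q with C.col q x = j, (-2 * c q x z)| ≤ 1 :=
    abs_prod_le fun x _ => abs_two_le (H.cm q hq x z hz)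
  obtain ⟨h2, h3⟩ := abs_le.1 h1
  rcases sg_or (C.Lab j q) with h | h <;> rw [h] <;> constructor <;> linarith

lemma lev0 {q : Q} (hq : q ∈ D) (j : J) {z : E} (hz : z ∈ K q) (hB : z ∈ g.B j) :
    g.lev j z = 0 := by
  have hI := H.is q hq
  have h1 := hI.tG j z hz hB 0 zero_mem_I2
  have h2 := H.G_mem hq j (hI.tZ j z hz hB 0 zero_mem_I2)
  rw [h1] at h2
  obtain ⟨n, hn⟩ := mem_Zs.1 (hI.li j z hz hB)
  rw [hn] at h2 ⊢
  have h3 : (-1 : ℝ) < n := by linarith [h2.1]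
  have h4 : (n : ℝ) < 1 := by linarith [h2.2]
  have h5 : (-1 : ℤ) < n := by exact_mod_cast h3
  have h6 : n < 1 := by exact_mod_cast h4
  have : n = 0 := by omega
  rw [this]; simp

lemma half {q : Q} (hq : q ∈ D) {x : C.I q} {z : E} (hz : z ∈ K q) (h : z ∉ P q x) :
    c q x z = -1/2 ∨ c q x z = 1/2 :=
  half_of_I2 (H.cm q hq x z hz) (fun hc => h (H.cn q hq x z hz hc))

lemma cP {q : Q} (hq : q ∈ D) {x : C.I q} {z : E} (hz : z ∈ P q x) :
    c q x z = sg (C.eps q x) * (g.G (C.col q x) z - 1/2) := by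
  have hK := H.PK q hq x hz
  rw [H.PF q hq _ z hK, prod_split]
  have h1 : ∏ x' : C.I q with (C.col q x' = C.col q x ∧ x' ≠ x), (-2 * c q x' z)
      = sg (∑ x' : C.I q with (C.col q x' = C.col q x ∧ x' ≠ x), C.side q x x') := by
    rw [sg_sum]
    refine Finset.prod_congr rfl fun x' hx' => ?_
    rw [Finset.mem_filter] at hx'
    exact H.sd q hq x x' (Ne.symm hx'.2.2) (by rw [hx'.2.1]) z hz
  rw [h1]
  unfold Cmb.eps
  rw [sg_add]
  set a := sg (C.Lab (C.col q x) q) with ha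
  set d := sg (∑ x' : C.I q with (C.col q x' = C.col q x ∧ x' ≠ x), C.side q x x') with hd
  have e1 : a * a = 1 := sg_sq _
  have e2 : d * d = 1 := sg_sq _
  have : a * d * (1/2 - a / 2 * (-2 * c q x z * d) - 1/2) = (a * a) * (d * d) * c q x z := by ring
  rw [this, e1, e2]; ring

/-- at most one band of a sheet at a point -/
lemma oneOff_col {q : Q} (hq : q ∈ D) (j : J) {z : E} (hz : z ∈ K q) :
    OneOff (Finset.univ.filter fun x : C.I q => C.col q x = j) (fun x => -2 * c q x z) := by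
  intro x hx x' hx' hne
  rw [Finset.mem_filter] at hx hx'
  by_cases h1 : z ∈ P q x
  · right
    refine abs_of_half (H.half hq hz fun h2 => ?_)
    exact Set.disjoint_left.1 (H.fd q hq x x' hne (by rw [hx.2, hx'.2])) h1 h2
  · left; exact abs_of_half (H.half hq hz h1)

lemma oneOff_up {p q : Q} (h : p < q) (hp : p ∈ D) (x : C.I q) {z : E} (hz : z ∈ K p) :
    OneOff (Finset.univ.filter fun y : C.I p => C.up h y = x) (fun y => -2 * c p y z) := by
  refine (H.oneOff_col hp (C.col q x) hz).mono ?_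
  intro y hy
  rw [Finset.mem_filter] at hy ⊢
  exact ⟨Finset.mem_univ _, by rw [← hy.2, C.col_up]⟩

end Inv

/-! ### the boundary of a new cell -/

section bd

variable {C : Cmb Q dim J Fam} {K : Q → Set E} {D : Set Q} {g : Gd E J}
  {P : ∀ q, C.I q → Set E} {c : ∀ q, C.I q → E → ℝ}

/-- the value prescribed on `K σ`, `σ < τ` -/
noncomputable def Fv (C : Cmb Q dim J Fam) (c : ∀ q, C.I q → E → ℝ) {σ τ : Q} (h : σ < τ)
    (x : C.I τ) (z : E) : ℝ :=
  sg (C.s h x) * ∏ y : C.I σ with C.up h y = x, (-2 * c σ y z)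

lemma fib {p r q : Q} (h : p < r) (h' : r < q) (x : C.I q) (f : C.I p → ℝ) :
    ∏ y : C.I r with C.up h' y = x, ∏ y' : C.I p with C.up h y' = y, f y'
      = ∏ y' : C.I p with C.up (h.trans h') y' = x, f y' := by
  rw [← Finset.prod_fiberwise_of_maps_to
    (s := Finset.univ.filter fun y' : C.I p => C.up (h.trans h') y' = x)
    (t := Finset.univ.filter fun y : C.I r => C.up h' y = x) (g := C.up h)]
  · refine Finset.prod_congr rfl fun y hy => ?_
    rw [Finset.mem_filter] at hy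
    refine Finset.prod_congr ?_ fun _ _ => rfl
    ext y'
    simp only [Finset.mem_filter, Finset.mem_univ, true_and]
    constructor
    · rintro rfl
      exact ⟨by rw [C.up_up h h']; exact hy.2, rfl⟩
    · exact fun h => h.2
  · intro y' hy'
    rw [Finset.mem_filter] at hy' ⊢
    exact ⟨Finset.mem_univ _, by rw [← C.up_up h h']; exact hy'.2⟩

lemma Fv_down (H : Inv C K D g P c) {υ σ τ : Q} (h' : υ < σ) (h : σ < τ) (hσ : σ ∈ D)
    (x : C.I τ) {z : E} (hz : z ∈ K υ) : Fv C c h x z = Fv C c (h'.trans h) x z := by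
  unfold Fv
  have h1 : ∏ y : C.I σ with C.up h y = x, (-2 * c σ y z)
      = ∏ y : C.I σ with C.up h y = x, (sg (C.s h' y) *
        ∏ y' : C.I υ with C.up h' y' = y, (-2 * c υ y' z)) :=
    Finset.prod_congr rfl fun y _ => H.r2 h' hσ y z hz
  rw [h1, Finset.prod_mul_distrib, ← sg_sum, fib h' h x (fun y' => -2 * c υ y' z), ← mul_assoc,
    ← sg_add, ← C.coc h' h x]

variable {Ω : Set E}

lemma Fv_eq (H : Inv C K D g P c) (X : Cplx Ω Q dim K) {σ σ' τ : Q} (h : σ < τ) (h' : σ' < τ)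
    (hτ : ∀ σ < τ, σ ∈ D) (x : C.I τ) {z : E} (hz : z ∈ K σ) (hz' : z ∈ K σ') :
    Fv C c h x z = Fv C c h' x z := by
  obtain ⟨m, hm, hmo⟩ := X.exists_opn hz
  have hm' := X.opn_le hmo hz'
  have key : ∀ {σ : Q} (h : σ < τ) (hm : m ≤ σ), Fv C c h x z = Fv C c (hm.trans_lt h) x z := by
    intro σ h hm
    rcases hm.eq_or_lt with rfl | hlt
    · rfl
    · exact Fv_down H hlt h (hτ _ h) x hmo.1
  rw [key h hm, key h' hm']

/-- the band functions on the boundary of `τ` -/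
noncomputable def cbd (C : Cmb Q dim J Fam) (K : Q → Set E) (c : ∀ q, C.I q → E → ℝ) (τ : Q)
    (x : C.I τ) (z : E) : ℝ :=
  if h : ∃ σ, ∃ _ : σ < τ, z ∈ K σ then - Fv C c h.choose_spec.choose x z / 2 else 0

lemma cbd_eq (H : Inv C K D g P c) (X : Cplx Ω Q dim K) {σ τ : Q} (h : σ < τ)
    (hτ : ∀ σ < τ, σ ∈ D) (x : C.I τ) {z : E} (hz : z ∈ K σ) :
    -2 * cbd C K c τ x z = sg (C.s h x) * ∏ y : C.I σ with C.up h y = x, (-2 * c σ y z) := by
  have hex : ∃ σ, ∃ _ : σ < τ, z ∈ K σ := ⟨σ, h, hz⟩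
  unfold cbd
  rw [dif_pos hex, Fv_eq H X hex.choose_spec.choose h hτ x hex.choose_spec.choose_spec hz]
  unfold Fv; ring

/-- the pieces on the boundary of `τ` -/
def Pbd (C : Cmb Q dim J Fam) (P : ∀ q, C.I q → Set E) (τ : Q) (x : C.I τ) : Set E :=
  {z | ∃ σ, ∃ h : σ < τ, ∃ y : C.I σ, C.up h y = x ∧ z ∈ P σ y}

lemma mem_Pbd (H : Inv C K D g P c) (X : Cplx Ω Q dim K) {σ τ : Q} (h : σ < τ)
    (hτ : ∀ σ < τ, σ ∈ D) (x : C.I τ) {z : E} (hz : z ∈ K σ) :
    z ∈ Pbd C P τ x ↔ ∃ y : C.I σ, C.up h y = x ∧ z ∈ P σ y := by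
  constructor
  · rintro ⟨σ', h', y', hy', hzy'⟩
    have hz' := H.PK σ' (hτ _ h') y' hzy'
    obtain ⟨m, hm, hmo⟩ := X.exists_opn hz
    have hm' := X.opn_le hmo hz'
    -- go down to m
    obtain ⟨w, hw, hzw⟩ : ∃ w : C.I m, C.up (hm'.trans_lt h') w = x ∧ z ∈ P m w := by
      rcases hm'.eq_or_lt with rfl | hlt
      · exact ⟨y', hy', hzy'⟩
      · obtain ⟨w, hw, hzw⟩ := (H.r1 hlt (hτ _ h') y' z hmo.1).1 hzy'
        exact ⟨w, by rw [C.up_up hlt h', hw, hy'], hzw⟩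
    rcases hm.eq_or_lt with rfl | hlt
    · exact ⟨w, hw, hzw⟩
    · refine ⟨C.up hlt w, ?_, ?_⟩
      · rw [← C.up_up hlt h]; exact hw
      · exact (H.r1 hlt (hτ _ h) _ z hmo.1).2 ⟨w, rfl, hzw⟩
  · rintro ⟨y, hy, hzy⟩
    exact ⟨σ, h, y, hy, hzy⟩

lemma exists_of_mem_bdS {τ : Q} {z : E} (hz : z ∈ bdS K τ) : ∃ σ, ∃ _ : σ < τ, z ∈ K σ := by
  simpa [bdS] using hz

lemma bd_sides (H : Inv C K D g P c) (X : Cplx Ω Q dim K) {τ : Q} (hτ : ∀ σ < τ, σ ∈ D)
    {x x' : C.I τ} (hne : x ≠ x') (hf : C.fam (C.col τ x) = C.fam (C.col τ x')) {z : E}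
    (hz : z ∈ Pbd C P τ x) : -2 * cbd C K c τ x' z = sg (C.side τ x x') := by
  obtain ⟨σ, h, y, rfl, hzy⟩ := hz
  have hzK := H.PK σ (hτ _ h) y hzy
  have hcol := C.col_up h y
  rw [cbd_eq H X h hτ x' hzK, C.side_up h y x' (Ne.symm hne) (by rw [← hcol]; exact hf), sg_add,
    sg_sum]
  congr 1
  refine Finset.prod_congr rfl fun y' hy' => ?_
  rw [Finset.mem_filter] at hy'
  refine H.sd σ (hτ _ h) y y' ?_ ?_ z hzy
  · rintro rfl; exact hne hy'.2
  · have := C.col_up h y'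
    rw [hy'.2] at this
    rw [← hcol, ← this]; exact hf

lemma bd_disj (H : Inv C K D g P c) (X : Cplx Ω Q dim K) {τ : Q} (hτ : ∀ σ < τ, σ ∈ D)
    {x x' : C.I τ} (hne : x ≠ x') (hf : C.fam (C.col τ x) = C.fam (C.col τ x')) :
    Disjoint (Pbd C P τ x) (Pbd C P τ x') := by
  refine Set.disjoint_left.2 fun z hz hz' => ?_
  obtain ⟨σ, h, y, hy, hzy⟩ := hz
  have hzK := H.PK σ (hτ _ h) y hzy
  obtain ⟨y', hy', hzy'⟩ := (mem_Pbd H X h hτ x' hzK).1 hz'
  have hyy : y ≠ y' := by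
    rintro rfl; exact hne (hy.symm.trans hy')
  refine Set.disjoint_left.1 (H.fd σ (hτ _ h) y y' hyy ?_) hzy hzy'
  have h1 := C.col_up h y
  have h2 := C.col_up h y'
  rw [hy] at h1
  rw [hy'] at h2
  rw [← h1, ← h2]; exact hf

/-- **the pieces on the boundary of a new cell** -/
noncomputable def bdPcs (H : Inv C K D g P c) (X : Cplx Ω Q dim K) (τ : Q)
    (hτ : ∀ σ < τ, σ ∈ D) : Pcs g (bdS K τ) (C.I τ) where
  col := C.col τ
  ε x := sg (C.eps τ x)
  P := Pbd C P τ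
  c := cbd C K c τ
  hε x := sg_or _
  Pc x := by
    have : Pbd C P τ x = ⋃ σ ∈ {σ | σ < τ}, ⋃ y : C.I σ, {z | (∃ h : σ < τ, C.up h y = x) ∧
        z ∈ P σ y} := by
      ext z
      simp only [Pbd, mem_ofPred_eq, mem_iUnion, exists_prop]
      constructor
      · rintro ⟨σ, h, y, hy, hz⟩; exact ⟨σ, h, y, ⟨h, hy⟩, hz⟩
      · rintro ⟨σ, _, y, ⟨h, hy⟩, hz⟩; exact ⟨σ, h, y, hy, hz⟩
    rw [this]
    refine (X.finite_below τ).isClosed_biUnion fun σ hσ => ?_
    refine isClosed_iUnion_of_finite fun y => ?_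
    by_cases h : ∃ h : σ < τ, C.up h y = x
    · have : {z | (∃ h : σ < τ, C.up h y = x) ∧ z ∈ P σ y} = P σ y := by
        ext z; exact ⟨fun h' => h'.2, fun h' => ⟨h, h'⟩⟩
      rw [this]; exact H.cl σ (hτ _ hσ) y
    · have : {z | (∃ h : σ < τ, C.up h y = x) ∧ z ∈ P σ y} = ∅ := by
        ext z; exact ⟨fun h' => h h'.1, fun h' => h'.elim⟩
      rw [this]; exact isClosed_empty
  PS x z hz := by
    obtain ⟨σ, h, y, hy, hzy⟩ := hz
    exact mem_biUnion (show σ ∈ {j | j < τ} from h) (H.PK σ (hτ _ h) y hzy)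
  PB x z hz := by
    obtain ⟨σ, h, y, rfl, hzy⟩ := hz
    rw [C.col_up]; exact H.PB σ (hτ _ h) y hzy
  cov j z hz hB := by
    obtain ⟨σ, h, hzK⟩ := exists_of_mem_bdS hz
    obtain ⟨y, hy, hzy⟩ := H.cov σ (hτ _ h) j z hzK hB
    exact ⟨C.up h y, by rw [C.col_up, hy], σ, h, y, rfl, hzy⟩
  dis x x' hne hcol := bd_disj H X hτ hne (by rw [hcol])
  pc x := by
    refine plOn_biUnion _ (X.finite_below τ) (fun σ hσ => ?_) (fun σ _ => X.isClosed σ)
    have h1 : PLOn (fun z => (-1/2) * (sg (C.s hσ x) *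
        ∏ y : C.I σ with C.up hσ y = x, (-2 * c σ y z))) (K σ) := by
      refine pl_mul _ (pl_mul _ (pl_prod (fun y _ => pl_mul _ (H.pc σ (hτ _ hσ) y)) ?_))
      exact fun z hz => H.oneOff_up hσ (hτ _ hσ) x hz
    refine h1.congr fun z hz => ?_
    have := cbd_eq H X hσ hτ x hz
    show cbd C K c τ x z = (-1/2) * _
    rw [← this]; ring
  cm x z hz := by
    obtain ⟨σ, h, hzK⟩ := exists_of_mem_bdS hz
    have h1 := cbd_eq H X h hτ x hzK
    have h2 : |∏ y : C.I σ with C.up h y = x, (-2 * c σ y z)| ≤ 1 :=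
      abs_prod_le fun y _ => abs_two_le (H.cm σ (hτ _ h) y z hzK)
    obtain ⟨h3, h4⟩ := abs_le.1 h2
    rcases sg_or (C.s h x) with h5 | h5 <;> rw [h5] at h1 <;> constructor <;> linarith
  cP x z hz := by
    obtain ⟨σ, h, y, rfl, hzy⟩ := hz
    have hσ := hτ _ h
    have hzK := H.PK σ hσ y hzy
    have h1 := cbd_eq H X h hτ (C.up h y) hzK
    rw [prod_split_up h y] at h1
    have h2 : ∏ y' : C.I σ with (C.up h y' = C.up h y ∧ y' ≠ y), (-2 * c σ y' z)
        = sg (∑ y' : C.I σ with (C.up h y' = C.up h y ∧ y' ≠ y), C.side σ y y') := by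
      rw [sg_sum]
      refine Finset.prod_congr rfl fun y' hy' => ?_
      rw [Finset.mem_filter] at hy'
      refine H.sd σ hσ y y' (Ne.symm hy'.2.2) ?_ z hzy
      rw [← C.col_up h y, ← C.col_up h y', hy'.2.1]
    rw [h2] at h1
    have hB := H.PB σ hσ y hzy
    rw [C.col_up, H.lev0 hσ _ hzK hB, C.eps_up h y, sg_add, sg_add]
    have h3 := H.cP hσ hzy
    rw [h3] at h1
    set a := sg (C.eps σ y)
    set d := sg (C.s h (C.up h y))
    set e := sg (∑ y' : C.I σ with (C.up h y' = C.up h y ∧ y' ≠ y), C.side σ y y')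
    have : cbd C K c τ (C.up h y) z = d * (a * (g.G (C.col σ y) z - 1/2) * e) := by linarith
    rw [this]; ring
  cn x z hz hc := by
    obtain ⟨σ, h, hzK⟩ := exists_of_mem_bdS hz
    have hσ := hτ _ h
    by_contra hn
    have h1 := cbd_eq H X h hτ x hzK
    have h2 : |∏ y : C.I σ with C.up h y = x, (-2 * c σ y z)| = 1 := by
      refine abs_prod_eq fun y hy => ?_
      rw [Finset.mem_filter] at hy
      refine abs_of_half (H.half hσ hzK fun hy' => hn ?_)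
      exact ⟨σ, h, y, hy.2, hy'⟩
    have h3 : |-2 * cbd C K c τ x z| = 1 := by
      rw [h1, abs_mul, h2, mul_one]
      rcases sg_or (C.s h x) with h5 | h5 <;> rw [h5] <;> norm_num
    rw [abs_mul] at h3
    norm_num at h3
    linarith

end bd

end Crest.Agent.R096.Bd_416
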