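import Crest.Agent.R096.Mg1_441
import Crest.Agent.R096.Bd10_416

/-!
# R096 (row 96), MERGE (helper441), part 2: labels of a piece with respect to the other sheets

`lbl C q x j'` : the label of the piece `x` of the cell `q` with respect to the sheet `j'` of the same
family (1 = `x` lies inside `j'`).
* `lbl_up`, `lbl_const` : constant along connected sheets;
* `G_lbl` : `G j' z = val (lbl q x j')` on the band of `x`;
* `lev_num` : `lev` of the merged structure on the band of the sheet `j` is the number `num j` of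
  the sheets of the family with smaller level; `band_iff` : the band of `j` inside the merged
  structure.
-/

set_option autoImplicit false
set_option linter.unusedSectionVars false

open Set Relation

namespace Crest.Agent.R096.Mg_441

open Crest.Agent.R096.Ce_537
open Crest.Agent.R096.Bd_416

variable {Q : Type} [PartialOrder Q] {dim : Q → ℕ} {J Fam : Type}

section comb

variable (C : Cmb Q dim J Fam)

open scoped Classical in
/-- the label of a piece with respect to a sheet -/
noncomputable def lbl (q : Q) (x : C.I q) (j' : J) : ZMod 2 :=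
  C.Lab j' q + ∑ x' : C.I q with C.col q x' = j', C.side q x x'

open scoped Classical in
/-- the label of a piece is the label of the piece of the bigger cell -/
theorem lbl_up {p q : Q} (h : p < q) (y : C.I p) {j' : J} (hne : j' ≠ C.col p y)
    (hf : C.fam (C.col p y) = C.fam j') : lbl C q (C.up h y) j' = lbl C p y j' := by
  unfold lbl
  have e1 : ∑ x' : C.I q with C.col q x' = j', C.side q (C.up h y) x'
      = ∑ x' : C.I q with C.col q x' = j', C.s h x' +
        ∑ x' : C.I q with C.col q x' = j', ∑ y' : C.I p with C.up h y' = x', C.side p y y' := by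
    rw [← Finset.sum_add_distrib]
    refine Finset.sum_congr rfl fun x' hx' => ?_
    rw [Finset.mem_filter] at hx'
    refine C.side_up h y x' ?_ ?_
    · rintro rfl
      rw [C.col_up h y] at hx'
      exact hne hx'.2.symm
    · rw [hx'.2]; exact hf
  have e2 : ∑ x' : C.I q with C.col q x' = j', ∑ y' : C.I p with C.up h y' = x', C.side p y y'
      = ∑ y' : C.I p with C.col p y' = j', C.side p y y' := by
    have f2 : (Finset.univ.filter fun y' : C.I p => C.col p y' = j')
        = (Finset.univ.filter fun x' : C.I q => C.col q x' = j').biUnion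
          (fun x' => Finset.univ.filter fun y' : C.I p => C.up h y' = x') := by
      ext y'
      simp only [Finset.mem_filter, Finset.mem_univ, true_and, Finset.mem_biUnion]
      constructor
      · intro h1
        exact ⟨C.up h y', by rw [C.col_up h y', h1], rfl⟩
      · rintro ⟨x', h1, rfl⟩
        rw [← C.col_up h y', h1]
    rw [f2, Finset.sum_biUnion]
    intro x1 _ x2 _ hne'
    simp only [Function.onFun]
    rw [Finset.disjoint_left]
    intro y' h1 h2
    rw [Finset.mem_filter] at h1 h2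
    exact hne' (h1.2.symm.trans h2.2)
  rw [e1, e2, C.lab_eq h j']
  ring

/-- a piece and the piece of a bigger cell which contains it -/
inductive Stp : (Σ q, C.I q) → (Σ q, C.I q) → Prop
  | mk {p q : Q} (h : p < q) (y : C.I p) : Stp ⟨p, y⟩ ⟨q, C.up h y⟩

lemma col_const {X Y : Σ q, C.I q} (h : EqvGen (Stp C) X Y) : C.col X.1 X.2 = C.col Y.1 Y.2 := by
  induction h with
  | rel _ _ h => obtain ⟨h, y⟩ := h; exact (C.col_up h y).symm
  | refl _ => rfl
  | symm _ _ _ ih => exact ih.symm
  | trans _ _ _ _ _ ih ih' => exact ih.trans ih'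

theorem lbl_const {X Y : Σ q, C.I q} (h : EqvGen (Stp C) X Y) {j' : J}
    (hne : j' ≠ C.col X.1 X.2) (hf : C.fam (C.col X.1 X.2) = C.fam j') :
    lbl C X.1 X.2 j' = lbl C Y.1 Y.2 j' := by
  induction h with
  | rel _ _ h => obtain ⟨h, y⟩ := h; exact (lbl_up C h y hne hf).symm
  | refl _ => rfl
  | symm _ _ h ih =>
    have e := col_const C h
    rw [← e] at hne hf
    exact (ih hne hf).symm
  | trans _ _ _ h _ ih ih' =>
    have e := col_const C h
    rw [ih hne hf]
    rw [e] at hne hf
    exact ih' hne hf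

/-- the pieces of the sheet `j` are connected -/
def ConnC (j : J) : Prop :=
  ∀ X Y : Σ q, C.I q, C.col X.1 X.2 = j → C.col Y.1 Y.2 = j → EqvGen (Stp C) X Y

end comb

/-! ### the values -/

/-- the value of a label -/
noncomputable def val (a : ZMod 2) : ℝ := if a = 0 then 0 else 1

@[simp] lemma val_zero : val 0 = 0 := by simp [val]

@[simp] lemma val_one : val 1 = 1 := by
  have : (1 : ZMod 2) ≠ 0 := by decide
  simp [val, this]

lemma val_eq (a : ZMod 2) : val a = 1/2 - sg a / 2 := by
  rcases z2 a with rfl | rfl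
  · simp
  · simp; norm_num

lemma val_or (a : ZMod 2) : val a = 0 ∨ val a = 1 := by
  rcases z2 a with rfl | rfl <;> simp

open scoped Classical in
lemma sum_val {ι : Type*} (t : Finset ι) (f : ι → ZMod 2) :
    ∑ i ∈ t, val (f i) = ((t.filter fun i => f i = 1).card : ℝ) := by
  rw [Finset.card_filter, Nat.cast_sum]
  refine Finset.sum_congr rfl fun i _ => ?_
  rcases z2 (f i) with h | h
  · rw [h]
    have : (0 : ZMod 2) ≠ 1 := by decide
    simp [this]
  · rw [h]; simp

section inv

variable {E : Type*} [NormedAddCommGroup E] [NormedSpace ℝ E]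
variable {C : Cmb Q dim J Fam} {K : Q → Set E} {D : Set Q} {g : Gd E J}
  {P : ∀ q, C.I q → Set E} {c : ∀ q, C.I q → E → ℝ}

/-- the bands of a family are disjoint in every cell -/
lemma inv_DB (H : Inv C K D g P c) {q : Q} (hq : q ∈ D) : DB C.fam g (K q) := by
  intro j j' hne hf z hz hB hB'
  obtain ⟨x, rfl, hx⟩ := H.cov q hq j z hz hB
  obtain ⟨x', rfl, hx'⟩ := H.cov q hq j' z hz hB'
  have hxx : x ≠ x' := by rintro rfl; exact hne rfl
  exact Set.disjoint_left.1 (H.fd q hq x x' hxx hf) hx hx'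

/-- **the families form a band structure on every cell** -/
theorem inv_merge_is (H : Inv C K D g P c) (hfin : ∀ a, {j | C.fam j = a}.Finite) {q : Q}
    (hq : q ∈ D) : (merge hfin g).Is (K q) :=
  merge_is hfin (H.is q hq) (inv_DB H hq) fun j _ hz hB => H.lev0 hq j hz hB

/-- **the other sheets of the family on the band of a piece** -/
theorem G_lbl (H : Inv C K D g P c) {q : Q} (hq : q ∈ D) {x : C.I q} {z : E} (hz : z ∈ P q x)
    {j' : J} (hne : j' ≠ C.col q x) (hf : C.fam (C.col q x) = C.fam j') :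
    g.G j' z = val (lbl C q x j') := by
  classical
  rw [H.PF q hq j' z (H.PK q hq x hz), val_eq]
  unfold lbl
  rw [sg_add, sg_sum]
  have e : ∏ x' : C.I q with C.col q x' = j', (-2 * c q x' z)
      = ∏ x' : C.I q with C.col q x' = j', sg (C.side q x x') := by
    refine Finset.prod_congr rfl fun x' hx' => ?_
    rw [Finset.mem_filter] at hx'
    refine H.sd q hq x x' ?_ (by rw [hx'.2]; exact hf) z hz
    rintro rfl
    exact hne hx'.2.symm
  rw [e]
  ring

open scoped Classical in
lemma lev_lbl (H : Inv C K D g P c) (hfin : ∀ a, {j | C.fam j = a}.Finite) {q : Q}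
    (hq : q ∈ D) {x : C.I q} {z : E} (hz : z ∈ P q x) :
    (merge hfin g).lev (C.fam (C.col q x)) z
      = (((sh hfin (C.fam (C.col q x))).erase (C.col q x)).filter
        fun j' => lbl C q x j' = 1).card := by
  rw [merge_lev hfin (inv_DB H hq) (H.PK q hq x hz) (H.PB q hq x hz), ← sum_val]
  refine Finset.sum_congr rfl fun j' hj' => ?_
  rw [Finset.mem_erase, mem_sh] at hj'
  exact G_lbl H hq hz hj'.1 hj'.2.symm

/-- a family without pieces in the cell -/
theorem G_inact (H : Inv C K D g P c) {q : Q} (hq : q ∈ D) {j : J}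
    (hj : ∀ x : C.I q, C.col q x ≠ j) {z : E} (hz : z ∈ K q) : g.G j z = val (C.Lab j q) := by
  classical
  rw [H.PF q hq j z hz, val_eq, Finset.filter_false_of_mem (fun x _ => hj x)]
  simp

theorem merge_inact (H : Inv C K D g P c) (hfin : ∀ a, {j | C.fam j = a}.Finite) {q : Q}
    (hq : q ∈ D) {a : Fam} (ha : ∀ x : C.I q, C.fam (C.col q x) ≠ a) {z : E} (hz : z ∈ K q) :
    (merge hfin g).G a z = ∑ j ∈ sh hfin a, val (C.Lab j q) := by
  rw [merge_G]
  refine Finset.sum_congr rfl fun j hj => ?_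
  rw [mem_sh] at hj
  refine G_inact H hq (fun x hx => ha x ?_) hz
  rw [hx, hj]

lemma merge_G_nonneg (H : Inv C K D g P c) (hfin : ∀ a, {j | C.fam j = a}.Finite) {q : Q}
    (hq : q ∈ D) (a : Fam) {z : E} (hz : z ∈ K q) : 0 ≤ (merge hfin g).G a z := by
  rw [merge_G]
  exact Finset.sum_nonneg fun j _ => (H.G_mem hq j hz).1

lemma merge_G_le (H : Inv C K D g P c) (hfin : ∀ a, {j | C.fam j = a}.Finite) {q : Q}
    (hq : q ∈ D) (a : Fam) {z : E} (hz : z ∈ K q) :
    (merge hfin g).G a z ≤ (sh hfin a).card := by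
  rw [merge_G]
  calc ∑ j ∈ sh hfin a, g.G j z ≤ ∑ _j ∈ sh hfin a, (1 : ℝ) :=
        Finset.sum_le_sum fun j _ => (H.G_mem hq j hz).2
    _ = (sh hfin a).card := by simp

/-! ### the number of a sheet -/

open scoped Classical in
/-- the number of the sheets of the family with smaller level -/
noncomputable def num (hfin : ∀ a, {j | C.fam j = a}.Finite) (ℓ : J → ℝ) (j : J) : ℕ :=
  ((sh hfin (C.fam j)).filter fun j' => ℓ j' < ℓ j).card

lemma num_lt (hfin : ∀ a, {j | C.fam j = a}.Finite) (ℓ : J → ℝ) (j : J) :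
    num hfin ℓ j < (sh hfin (C.fam j)).card := by
  classical
  unfold num
  refine Finset.card_lt_card ?_
  rw [Finset.ssubset_iff_of_subset (Finset.filter_subset _ _)]
  exact ⟨j, (mem_sh hfin).2 rfl, fun h => lt_irrefl _ (Finset.mem_filter.1 h).2⟩

lemma num_lt_num (hfin : ∀ a, {j | C.fam j = a}.Finite) {ℓ : J → ℝ} {j j' : J}
    (hf : C.fam j = C.fam j') (h : ℓ j < ℓ j') : num hfin ℓ j < num hfin ℓ j' := by
  classical
  unfold num
  rw [← hf]
  refine Finset.card_lt_card ?_
  rw [Finset.ssubset_iff_of_subset]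
  · exact ⟨j, Finset.mem_filter.2 ⟨(mem_sh hfin).2 rfl, h⟩,
      fun h' => lt_irrefl _ (Finset.mem_filter.1 h').2⟩
  · intro i hi
    rw [Finset.mem_filter] at hi ⊢
    exact ⟨hi.1, hi.2.trans h⟩

lemma num_inj (hfin : ∀ a, {j | C.fam j = a}.Finite) {ℓ : J → ℝ}
    (hℓ : ∀ j j', j ≠ j' → C.fam j = C.fam j' → ℓ j ≠ ℓ j') {j j' : J}
    (hf : C.fam j = C.fam j') (h : num hfin ℓ j = num hfin ℓ j') : j = j' := by
  by_contra hne
  rcases lt_or_gt_of_ne (hℓ j j' hne hf) with h1 | h1
  · exact absurd h (num_lt_num hfin hf h1).ne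
  · exact absurd h (num_lt_num hfin hf.symm h1).ne'

/-- **order of the sheets**: some piece of `j` has the label `1` with respect to `j'` iff the level
of `j'` is smaller -/
def Ord (C : Cmb Q dim J Fam) (ℓ : J → ℝ) : Prop :=
  ∀ j j', j ≠ j' → C.fam j = C.fam j' → ∀ X : Σ q, C.I q, C.col X.1 X.2 = j →
    (lbl C X.1 X.2 j' = 1 ↔ ℓ j' < ℓ j)

/-- one piece of every connected sheet suffices -/
theorem ord_of (C : Cmb Q dim J Fam) {ℓ : J → ℝ} (hconn : ∀ j, ConnC C j)
    (h : ∀ j j', j ≠ j' → C.fam j = C.fam j' →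
      ∃ X : Σ q, C.I q, C.col X.1 X.2 = j ∧ (lbl C X.1 X.2 j' = 1 ↔ ℓ j' < ℓ j)) : Ord C ℓ := by
  intro j j' hne hf X hX
  obtain ⟨Y, hY, e⟩ := h j j' hne hf
  rw [← e, lbl_const C (hconn j X Y hX hY) (by rw [hX]; exact Ne.symm hne) (by rw [hX]; exact hf)]

/-- **the level of the family on the band of the sheet `j` is the number of `j`** -/
theorem lev_num (H : Inv C K D g P c) (hfin : ∀ a, {j | C.fam j = a}.Finite) {ℓ : J → ℝ}
    (hO : Ord C ℓ) {q : Q} (hq : q ∈ D) {j : J} {z : E} (hz : z ∈ K q) (hB : z ∈ g.B j) :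
    (merge hfin g).lev (C.fam j) z = num hfin ℓ j := by
  classical
  obtain ⟨x, rfl, hx⟩ := H.cov q hq j z hz hB
  rw [lev_lbl H hfin hq hx]
  unfold num
  congr 2
  ext j'
  rw [Finset.mem_filter, Finset.mem_filter, Finset.mem_erase, mem_sh]
  constructor
  · rintro ⟨⟨h1, h2⟩, h3⟩
    exact ⟨h2, (hO _ j' (Ne.symm h1) h2.symm ⟨q, x⟩ rfl).1 h3⟩
  · rintro ⟨h2, h3⟩
    have h1 : j' ≠ C.col q x := by
      rintro rfl; exact lt_irrefl _ h3
    exact ⟨⟨h1, h2⟩, (hO _ j' (Ne.symm h1) h2.symm ⟨q, x⟩ rfl).2 h3⟩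

/-- **the band of the sheet `j` in the merged structure** -/
theorem band_iff (H : Inv C K D g P c) (hfin : ∀ a, {j | C.fam j = a}.Finite) {ℓ : J → ℝ}
    (hO : Ord C ℓ) (hℓ : ∀ j j', j ≠ j' → C.fam j = C.fam j' → ℓ j ≠ ℓ j') {q : Q}
    (hq : q ∈ D) {j : J} {z : E} (hz : z ∈ K q) :
    z ∈ g.B j ↔ z ∈ (merge hfin g).B (C.fam j) ∧
      (merge hfin g).lev (C.fam j) z = num hfin ℓ j := by
  constructor
  · intro hB
    exact ⟨mem_merge_B' hfin hB, lev_num H hfin hO hq hz hB⟩
  · rintro ⟨⟨i, hi, hB⟩, hl⟩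
    have h1 := lev_num H hfin hO hq hz hB
    rw [hi, hl] at h1
    have h2 : num hfin ℓ j = num hfin ℓ i := by exact_mod_cast h1
    rw [num_inj hfin hℓ hi.symm h2]
    exact hB

/-- on the band of `j` : `G_a = num j + G_j` -/
theorem merge_G_num (H : Inv C K D g P c) (hfin : ∀ a, {j | C.fam j = a}.Finite) {ℓ : J → ℝ}
    (hO : Ord C ℓ) {q : Q} (hq : q ∈ D) {j : J} {z : E} (hz : z ∈ K q) (hB : z ∈ g.B j) :
    (merge hfin g).G (C.fam j) z = num hfin ℓ j + g.G j z := by
  have e1 := merge_sub hfin (inv_DB H hq) hz hB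
  rw [lev_num H hfin hO hq hz hB] at e1
  linarith

end inv

end Crest.Agent.R096.Mg_441
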