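import Crest.Agent.R096.Grd2_714

/-!
# R096 (row 96), GRID, part 3 (helper714): the grid cells of the 2-skeleton of a foam

`m c` = number of levels of the colour `c`.  Level units: `g : I → ℝ`, `0 ≤ g c ≤ m c`,
`lv m g = (g c / m c)_c`.
-/

set_option autoImplicit false
set_option linter.unusedSectionVars false

open Set

namespace Crest.Agent.R096.Grd_714

open Crest.Agent.R096.Brk1_582 Crest.Agent.R096.Brk2_582 Crest.Agent.R096.Brk6_582

variable {E : Type*} [NormedAddCommGroup E] [NormedSpace ℝ E] {I : Type*}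

/-- a grid cell of the 2-skeleton: levels `lo ≤ hi ≤ lo + 1` of all colours -/
@[ext] structure Gx (P : I → Set E) (m : I → ℕ) where
  lo : I → ℕ
  hi : I → ℕ
  le : ∀ c, lo c ≤ hi c
  le1 : ∀ c, hi c ≤ lo c + 1
  him : ∀ c, hi c ≤ m c
  two : ∃ c c', c ≠ c' ∧ hi c = 0 ∧ hi c' = 0
  face : (fc P {c | lo c < m c}).Nonempty

variable {P : I → Set E} {m : I → ℕ}

instance : PartialOrder (Gx P m) where
  le q q' := ∀ c, q'.lo c ≤ q.lo c ∧ q.hi c ≤ q'.hi c
  le_refl q c := ⟨le_rfl, le_rfl⟩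
  le_trans q q' q'' h h' c := ⟨(h' c).1.trans (h c).1, (h c).2.trans (h' c).2⟩
  le_antisymm q q' h h' := by
    ext c
    · exact le_antisymm (h' c).1 (h c).1
    · exact le_antisymm (h c).2 (h' c).2

theorem Gx.le_def {q q' : Gx P m} : q ≤ q' ↔ ∀ c, q'.lo c ≤ q.lo c ∧ q.hi c ≤ q'.hi c := Iff.rfl

/-- the cells of the complex: the foam cells and the grid cells -/
inductive Cel (P : I → Set E) (m : I → ℕ) where
  | top (c : I) : Cel P m
  | gr (q : Gx P m) : Cel P m

/-- the order of the cells -/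
def Cel.le' : Cel P m → Cel P m → Prop
  | .gr q, .gr q' => q ≤ q'
  | .gr q, .top c => q.hi c = 0
  | .top c, .top c' => c = c'
  | .top _, .gr _ => False

instance : PartialOrder (Cel P m) where
  le := Cel.le'
  le_refl q := by
    cases q with
    | top c => exact rfl
    | gr q => exact le_refl q
  le_trans q q' q'' h h' := by
    cases q with
    | top c =>
      cases q' with
      | top c' =>
        have e : c = c' := h
        subst e; exact h'
      | gr q' => exact absurd h not_false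
    | gr q =>
      cases q' with
      | top c' =>
        cases q'' with
        | top c'' =>
          have e : c' = c'' := h'
          subst e; exact h
        | gr q'' => exact absurd h' not_false
      | gr q' =>
        cases q'' with
        | top c'' =>
          have h1 : q ≤ q' := h
          have h2 : q'.hi c'' = 0 := h'
          have h3 : q.hi c'' ≤ q'.hi c'' := (h1 c'').2
          show q.hi c'' = 0
          omega
        | gr q'' =>
          have h1 : q ≤ q' := h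
          have h2 : q' ≤ q'' := h'
          exact le_trans h1 h2
  le_antisymm q q' h h' := by
    cases q with
    | top c =>
      cases q' with
      | top c' => exact congrArg _ h
      | gr q' => exact absurd h not_false
    | gr q =>
      cases q' with
      | top c' => exact absurd h' not_false
      | gr q' =>
        have h1 : q ≤ q' := h
        have h2 : q' ≤ q := h'
        exact congrArg _ (le_antisymm h1 h2)

@[simp] theorem Cel.gr_le_gr {q q' : Gx P m} : (Cel.gr q : Cel P m) ≤ .gr q' ↔ q ≤ q' := Iff.rfl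
@[simp] theorem Cel.gr_le_top {q : Gx P m} {c : I} : (Cel.gr q : Cel P m) ≤ .top c ↔ q.hi c = 0 :=
  Iff.rfl
@[simp] theorem Cel.top_le_top {c c' : I} : (Cel.top c : Cel P m) ≤ .top c' ↔ c = c' := Iff.rfl
@[simp] theorem Cel.top_le_gr {q : Gx P m} {c : I} : ¬ ((Cel.top c : Cel P m) ≤ .gr q) := not_false

theorem Cel.gr_lt_gr {q q' : Gx P m} : (Cel.gr q : Cel P m) < .gr q' ↔ q < q' := by
  rw [lt_iff_le_not_ge, lt_iff_le_not_ge]; rfl

theorem Cel.gr_lt_top {q : Gx P m} {c : I} : (Cel.gr q : Cel P m) < .top c ↔ q.hi c = 0 := by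
  rw [lt_iff_le_not_ge, Cel.gr_le_top]
  exact ⟨fun h => h.1, fun h => ⟨h, Cel.top_le_gr⟩⟩

theorem Cel.not_top_lt {q : Cel P m} {c : I} : ¬ (Cel.top c < q) := by
  intro h
  cases q with
  | top c' =>
    have := h.le
    rw [Cel.top_le_top] at this
    subst this; exact lt_irrefl _ h
  | gr q => exact Cel.top_le_gr h.le

/-- the free coordinates -/
def Gx.free (q : Gx P m) : Set I := {c | q.lo c < q.hi c}

/-- the box of a grid cell (level units) -/
def Gx.bx (q : Gx P m) : Set (I → ℝ) := {g | ∀ c, (q.lo c : ℝ) ≤ g c ∧ g c ≤ (q.hi c : ℝ)}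

/-- level units to foam coordinates -/
noncomputable def lv (m : I → ℕ) (g : I → ℝ) : I → ℝ := fun c => g c / m c

theorem lv_inj (hm : ∀ c, 0 < m c) {g g' : I → ℝ} (h : lv m g = lv m g') : g = g' := by
  funext c
  have h1 := congrFun h c
  have h2 : (0 : ℝ) < m c := by exact_mod_cast hm c
  simp only [lv] at h1
  exact (div_left_inj' h2.ne').1 h1

/-- the 2-skeleton in level units -/
def G2 (P : I → Set E) (m : I → ℕ) : Set (I → ℝ) := {g | lv m g ∈ K2 P}

theorem lv_eq_zero (hm : ∀ c, 0 < m c) {g : I → ℝ} {c : I} : lv m g c = 0 ↔ g c = 0 := by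
  have h2 : (0 : ℝ) < m c := by exact_mod_cast hm c
  simp only [lv, div_eq_zero_iff, h2.ne', or_false]

theorem lv_lt_one (hm : ∀ c, 0 < m c) {g : I → ℝ} {c : I} : lv m g c < 1 ↔ g c < m c := by
  have h2 : (0 : ℝ) < m c := by exact_mod_cast hm c
  simp only [lv]
  rw [div_lt_one h2]

theorem lv_le_one (hm : ∀ c, 0 < m c) {g : I → ℝ} {c : I} : lv m g c ≤ 1 ↔ g c ≤ m c := by
  have h2 : (0 : ℝ) < m c := by exact_mod_cast hm c
  simp only [lv]
  rw [div_le_one h2]

theorem lv_nonneg (hm : ∀ c, 0 < m c) {g : I → ℝ} {c : I} : 0 ≤ lv m g c ↔ 0 ≤ g c := by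
  have h2 : (0 : ℝ) < m c := by exact_mod_cast hm c
  simp only [lv]
  constructor
  · intro h
    by_contra h3
    push Not at h3
    exact absurd h (not_le.2 (div_neg_of_neg_of_pos h3 h2))
  · intro h; exact div_nonneg h h2.le

theorem G2_nonneg (hm : ∀ c, 0 < m c) {g : I → ℝ} (hg : g ∈ G2 P m) (c : I) : 0 ≤ g c :=
  (lv_nonneg hm).1 (hg.1.1 c).1

theorem G2_le (hm : ∀ c, 0 < m c) {g : I → ℝ} (hg : g ∈ G2 P m) (c : I) : g c ≤ m c :=
  (lv_le_one hm).1 (hg.1.1 c).2

theorem Gx.bx_sub (hm : ∀ c, 0 < m c) (q : Gx P m) : q.bx ⊆ G2 P m := by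
  intro g hg
  obtain ⟨c, c', hne, h0, h0'⟩ := q.two
  have z : ∀ c, q.hi c = 0 → g c = 0 := by
    intro c hc
    have h1 := hg c
    rw [hc] at h1
    have h2 : (0 : ℝ) ≤ q.lo c := Nat.cast_nonneg _
    have h3 : g c ≤ 0 := by simpa using h1.2
    linarith [h1.1]
  refine ⟨⟨fun c => ⟨(lv_nonneg hm).2 ((Nat.cast_nonneg _).trans (hg c).1), (lv_le_one hm).2 ?_⟩,
    ⟨c, (lv_eq_zero hm).2 (z c h0)⟩, ?_⟩, c, c', hne, (lv_eq_zero hm).2 (z c h0),
    (lv_eq_zero hm).2 (z c' h0')⟩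
  · exact (hg c).2.trans (by exact_mod_cast q.him c)
  · refine q.face.mono (fc_anti fun c hc => ?_)
    have h1 : g c < m c := (lv_lt_one hm).1 hc
    have h2 := (hg c).1
    show q.lo c < m c
    exact_mod_cast h2.trans_lt h1

/-- the smallest grid cell of a point -/
noncomputable def flb (hm : ∀ c, 0 < m c) (g : I → ℝ) (hg : g ∈ G2 P m) : Gx P m where
  lo := fun c => ⌊g c⌋₊
  hi := fun c => ⌈g c⌉₊
  le := fun c => Nat.floor_le_ceil _
  le1 := fun c => Nat.ceil_le_floor_add_one _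
  him := fun c => Nat.ceil_le.2 (G2_le hm hg c)
  two := by
    obtain ⟨_, c, c', hne, h0, h0'⟩ := hg
    refine ⟨c, c', hne, ?_, ?_⟩
    · rw [(lv_eq_zero hm).1 h0, Nat.ceil_zero]
    · rw [(lv_eq_zero hm).1 h0', Nat.ceil_zero]
  face := by
    have : {c | ⌊g c⌋₊ < m c} = {c | lv m g c < 1} := by
      ext c
      simp only [mem_ofPred_eq, lv_lt_one hm]
      exact Nat.floor_lt (G2_nonneg hm hg c)
    rw [this]; exact hg.1.2.2

theorem mem_flb (hm : ∀ c, 0 < m c) {g : I → ℝ} (hg : g ∈ G2 P m) : g ∈ (flb hm g hg).bx :=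
  fun c => ⟨Nat.floor_le (G2_nonneg hm hg c), Nat.le_ceil _⟩

theorem flb_le (hm : ∀ c, 0 < m c) {g : I → ℝ} (hg : g ∈ G2 P m) {q : Gx P m} (hq : g ∈ q.bx) :
    flb hm g hg ≤ q := fun c => ⟨Nat.le_floor (hq c).1, Nat.ceil_le.2 (hq c).2⟩

theorem bx_mono {q q' : Gx P m} (h : q ≤ q') : q.bx ⊆ q'.bx := fun g hg c =>
  ⟨le_trans (by exact_mod_cast (h c).1) (hg c).1, le_trans (hg c).2 (by exact_mod_cast (h c).2)⟩

theorem Gx.hi_eq {q : Gx P m} {c : I} (h : c ∈ q.free) : q.hi c = q.lo c + 1 :=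
  le_antisymm (q.le1 c) h

theorem Gx.lo_eq {q : Gx P m} {c : I} (h : c ∉ q.free) : q.lo c = q.hi c :=
  le_antisymm (q.le c) (not_lt.1 h)

theorem Gx.eq_of_mem {q : Gx P m} {c : I} (h : c ∉ q.free) {g : I → ℝ} (hg : g ∈ q.bx) :
    g c = q.hi c := by
  have h1 := hg c
  rw [Gx.lo_eq h] at h1
  exact le_antisymm h1.2 h1.1

/-- a point of the open box -/
theorem flb_eq (hm : ∀ c, 0 < m c) {g : I → ℝ} (hg : g ∈ G2 P m) {q : Gx P m} (hq : g ∈ q.bx)
    (ho : ∀ c ∈ q.free, (q.lo c : ℝ) < g c ∧ g c < q.hi c) : flb hm g hg = q := by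
  refine le_antisymm (flb_le hm hg hq) fun c => ?_
  by_cases hc : c ∈ q.free
  · have h1 := ho c hc
    have h2 := Gx.hi_eq hc
    constructor
    · show ⌊g c⌋₊ ≤ q.lo c
      have : g c < (q.lo c : ℝ) + 1 := by rw [h2] at h1; exact_mod_cast h1.2
      have h3 := (Nat.floor_lt (G2_nonneg hm hg c)).2 (show g c < ((q.lo c + 1 : ℕ) : ℝ) by
        push_cast; exact this)
      omega
    · show q.hi c ≤ ⌈g c⌉₊
      rw [h2]
      exact Nat.succ_le_of_lt (Nat.lt_ceil.2 h1.1)
  · have h1 := Gx.eq_of_mem hc hq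
    constructor
    · show ⌊g c⌋₊ ≤ q.lo c
      rw [h1, Nat.floor_natCast, Gx.lo_eq hc]
    · show q.hi c ≤ ⌈g c⌉₊
      rw [h1, Nat.ceil_natCast]

theorem mem_open_of_flb (hm : ∀ c, 0 < m c) {g : I → ℝ} (hg : g ∈ G2 P m) {c : I}
    (hc : c ∈ (flb hm g hg).free) : (((flb hm g hg).lo c : ℕ) : ℝ) < g c ∧
      g c < ((flb hm g hg).hi c : ℕ) := by
  have h1 : ⌊g c⌋₊ < ⌈g c⌉₊ := hc
  have h2 := mem_flb hm hg c
  refine ⟨lt_of_le_of_ne h2.1 fun h => ?_, lt_of_le_of_ne h2.2 fun h => ?_⟩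
  · have h3 : g c = (⌊g c⌋₊ : ℝ) := h.symm
    rw [h3, Nat.floor_natCast, Nat.ceil_natCast] at h1
    exact lt_irrefl _ h1
  · have h3 : g c = (⌈g c⌉₊ : ℝ) := h
    rw [h3, Nat.floor_natCast, Nat.ceil_natCast] at h1
    exact lt_irrefl _ h1

theorem Gx.free_lt {q q' : Gx P m} (h : q < q') : q.free ⊂ q'.free := by
  have hle := h.le
  refine ⟨fun c hc => ?_, fun hsub => ?_⟩
  · have h1 := hle c
    have h2 : q.lo c < q.hi c := hc
    show q'.lo c < q'.hi c
    omega
  · apply h.not_ge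
    intro c
    have h1 := hle c
    by_cases hc : c ∈ q'.free
    · have h2 : q.lo c < q.hi c := hsub hc
      have h3 := q'.le1 c
      constructor <;> omega
    · have h2 := Gx.lo_eq hc
      have h3 := q.le c
      constructor <;> omega

end Crest.Agent.R096.Grd_714
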