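import Crest.Agent.R096.Mg2_441
import Crest.Agent.R096.Grd3_714

/-!
# R096 (row 96), MERGE (helper441), part 4: the grid cell of a point

`loN z a ≤ G_a z ≤ hiN z a`: the interval `[lev, lev + 1]` on the band, the point `G_a z` outside.
`Ex C P q y` (K4): the families which are exact (`0` or `1`) at `y ∈ K2 P` have no pieces in the mesh
cell `q` and exact labels at its base vertex.
`exists_box` : then `(loN z, hiN z)` is a grid cell of 714 for every `z ∈ K q`;
`box_tr` : the transports do not change it.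
-/

set_option autoImplicit false
set_option linter.unusedSectionVars false

open Set Relation

namespace Crest.Agent.R096.Mg_441

open Crest.Agent.R096.Ce_537
open Crest.Agent.R096.Bd_416
open Crest.Agent.R096.Grd_714
open Crest.Agent.R096.Brk1_582 (fc fc_anti)

variable {Q : Type} [PartialOrder Q] {dim : Q → ℕ} {J Fam : Type}
variable {E : Type*} [NormedAddCommGroup E] [NormedSpace ℝ E]
variable {C : Cmb Q dim J Fam} {K : Q → Set E} {D : Set Q} {g : Gd E J}
  {P : ∀ q, C.I q → Set E} {c : ∀ q, C.I q → E → ℝ}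

/-- the number of sheets of a family -/
noncomputable def mm {fam : J → Fam} (hfin : ∀ a, {j | fam j = a}.Finite) (a : Fam) : ℕ :=
  (sh hfin a).card

lemma sum01 {ι : Type*} (t : Finset ι) (f : ι → ℝ) (h : ∀ i ∈ t, f i = 0 ∨ f i = 1) :
    ∃ n : ℕ, ∑ i ∈ t, f i = n ∧ n ≤ t.card := by
  classical
  refine ⟨(t.filter fun i => f i = 1).card, ?_, Finset.card_filter_le _ _⟩
  rw [Finset.card_filter, Nat.cast_sum]
  refine Finset.sum_congr rfl fun i hi => ?_
  rcases h i hi with h | h <;> rw [h] <;> simp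

lemma zs01 {t : ℝ} (h : t ∈ Zs) (h1 : t ∈ Icc (0:ℝ) 1) : t = 0 ∨ t = 1 := by
  obtain ⟨n, rfl⟩ := mem_Zs.1 h
  have h2 : (0 : ℤ) ≤ n := by exact_mod_cast h1.1
  have h3 : n ≤ 1 := by exact_mod_cast h1.2
  have : n = 0 ∨ n = 1 := by omega
  rcases this with rfl | rfl
  · left; simp
  · right; simp

/-- on the band the level is a natural number -/
theorem lev_nat (H : Inv C K D g P c) (hfin : ∀ a, {j | C.fam j = a}.Finite) {q : Q}
    (hq : q ∈ D) {a : Fam} {z : E} (hz : z ∈ K q) (hB : z ∈ (merge hfin g).B a) :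
    ∃ n : ℕ, (merge hfin g).lev a z = n ∧ n + 1 ≤ mm hfin a := by
  classical
  obtain ⟨j, rfl, hj⟩ := hB
  obtain ⟨x, rfl, hx⟩ := H.cov q hq j z hz hj
  refine ⟨_, lev_lbl H hfin hq hx, ?_⟩
  have h1 := Finset.card_filter_le ((sh hfin (C.fam (C.col q x))).erase (C.col q x))
    (fun j' => lbl C q x j' = 1)
  have h2 : (C.col q x) ∈ sh hfin (C.fam (C.col q x)) := (mem_sh hfin).2 rfl
  have h3 := Finset.card_erase_add_one h2
  unfold mm
  omega

/-- outside the bands the value is a natural number -/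
theorem G_nat (H : Inv C K D g P c) (hfin : ∀ a, {j | C.fam j = a}.Finite) {q : Q}
    (hq : q ∈ D) {a : Fam} {z : E} (hz : z ∈ K q) (hB : z ∉ (merge hfin g).B a) :
    ∃ n : ℕ, (merge hfin g).G a z = n ∧ n ≤ mm hfin a := by
  refine sum01 _ _ fun j hj => zs01 ?_ (H.G_mem hq j hz)
  by_contra hc
  exact hB ⟨j, (mem_sh hfin).1 hj, (H.is q hq).nB j z hz hc⟩

open Classical in
/-- the lower level of the point -/
noncomputable def loN {fam : J → Fam} (hfin : ∀ a, {j | fam j = a}.Finite) (g : Gd E J) (z : E)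
    (a : Fam) : ℕ :=
  if z ∈ (merge hfin g).B a then ⌊(merge hfin g).lev a z⌋₊ else ⌊(merge hfin g).G a z⌋₊

open Classical in
/-- the upper level of the point -/
noncomputable def hiN {fam : J → Fam} (hfin : ∀ a, {j | fam j = a}.Finite) (g : Gd E J) (z : E)
    (a : Fam) : ℕ :=
  if z ∈ (merge hfin g).B a then ⌊(merge hfin g).lev a z⌋₊ + 1 else ⌊(merge hfin g).G a z⌋₊

section facts

variable (H : Inv C K D g P c) (hfin : ∀ a, {j | C.fam j = a}.Finite) {q : Q} (hq : q ∈ D)
  {z : E} (hz : z ∈ K q)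
include H hq hz

/-- the data of the point on a band -/
theorem box_band {a : Fam} (hB : z ∈ (merge hfin g).B a) :
    (merge hfin g).lev a z = loN hfin g z a ∧ hiN hfin g z a = loN hfin g z a + 1 ∧
      hiN hfin g z a ≤ mm hfin a := by
  obtain ⟨n, h1, h2⟩ := lev_nat H hfin hq hz hB
  have e1 : loN hfin g z a = n := by
    unfold loN; rw [if_pos hB, h1, Nat.floor_natCast]
  have e2 : hiN hfin g z a = n + 1 := by
    unfold hiN; rw [if_pos hB, h1, Nat.floor_natCast]
  rw [e1, e2]
  exact ⟨h1, rfl, h2⟩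

/-- the data of the point off the band -/
theorem box_off {a : Fam} (hB : z ∉ (merge hfin g).B a) :
    (merge hfin g).G a z = loN hfin g z a ∧ hiN hfin g z a = loN hfin g z a ∧
      hiN hfin g z a ≤ mm hfin a := by
  obtain ⟨n, h1, h2⟩ := G_nat H hfin hq hz hB
  have e1 : loN hfin g z a = n := by
    unfold loN; rw [if_neg hB, h1, Nat.floor_natCast]
  have e2 : hiN hfin g z a = n := by
    unfold hiN; rw [if_neg hB, h1, Nat.floor_natCast]
  rw [e1, e2]
  exact ⟨h1, rfl, h2⟩

theorem lo_le_hi (a : Fam) : loN hfin g z a ≤ hiN hfin g z a := by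
  by_cases hB : z ∈ (merge hfin g).B a
  · rw [(box_band H hfin hq hz hB).2.1]; omega
  · rw [(box_off H hfin hq hz hB).2.1]

theorem hi_le_lo (a : Fam) : hiN hfin g z a ≤ loN hfin g z a + 1 := by
  by_cases hB : z ∈ (merge hfin g).B a
  · rw [(box_band H hfin hq hz hB).2.1]
  · rw [(box_off H hfin hq hz hB).2.1]; omega

theorem hi_le_mm (a : Fam) : hiN hfin g z a ≤ mm hfin a := by
  by_cases hB : z ∈ (merge hfin g).B a
  · exact (box_band H hfin hq hz hB).2.2
  · exact (box_off H hfin hq hz hB).2.2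

/-- **the values lie in the box** -/
theorem G_mem_box (a : Fam) : (loN hfin g z a : ℝ) ≤ (merge hfin g).G a z ∧
    (merge hfin g).G a z ≤ (hiN hfin g z a : ℝ) := by
  by_cases hB : z ∈ (merge hfin g).B a
  · obtain ⟨h1, h2, -⟩ := box_band H hfin hq hz hB
    have h3 := (inv_merge_is H hfin hq).ab a z hz hB
    rw [h1] at h3
    rw [h2]; push_cast
    constructor <;> linarith [h3.1, h3.2]
  · obtain ⟨h1, h2, -⟩ := box_off H hfin hq hz hB
    rw [h2, h1]
    exact ⟨le_rfl, le_rfl⟩

/-- a point is in the band of `a` iff the interval of `a` is not a point -/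
theorem band_iff_lt (a : Fam) : z ∈ (merge hfin g).B a ↔ loN hfin g z a < hiN hfin g z a := by
  constructor
  · intro hB
    rw [(box_band H hfin hq hz hB).2.1]; omega
  · intro hlt
    by_contra hB
    rw [(box_off H hfin hq hz hB).2.1] at hlt
    exact lt_irrefl _ hlt

/-- no pieces of a family in the cell: no band -/
theorem notMem_band {a : Fam} (ha : ∀ x : C.I q, C.fam (C.col q x) ≠ a) :
    z ∉ (merge hfin g).B a := by
  rintro ⟨j, hj, hB⟩
  obtain ⟨x, rfl, -⟩ := H.cov q hq j z hz hB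
  exact ha x hj

/-- **inactive family, outside** -/
theorem box_zero {a : Fam} (ha : ∀ x : C.I q, C.fam (C.col q x) ≠ a)
    (h0 : ∀ j, C.fam j = a → C.Lab j q = 0) :
    loN hfin g z a = 0 ∧ hiN hfin g z a = 0 := by
  have hB := notMem_band H hfin hq hz ha
  obtain ⟨h1, h2, -⟩ := box_off H hfin hq hz hB
  rw [merge_inact H hfin hq ha hz] at h1
  have h3 : ∑ j ∈ sh hfin a, val (C.Lab j q) = 0 :=
    Finset.sum_eq_zero fun j hj => by rw [h0 j ((mem_sh hfin).1 hj), val_zero]
  rw [h3] at h1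
  have h4 : loN hfin g z a = 0 := by exact_mod_cast h1.symm
  exact ⟨h4, h2.trans h4⟩

/-- **inactive family, inside** -/
theorem box_one {a : Fam} (ha : ∀ x : C.I q, C.fam (C.col q x) ≠ a)
    (h1 : ∀ j, C.fam j = a → C.Lab j q = 1) :
    loN hfin g z a = mm hfin a ∧ hiN hfin g z a = mm hfin a := by
  have hB := notMem_band H hfin hq hz ha
  obtain ⟨h2, h3, -⟩ := box_off H hfin hq hz hB
  rw [merge_inact H hfin hq ha hz] at h2
  have h4 : ∑ j ∈ sh hfin a, val (C.Lab j q) = ∑ _j ∈ sh hfin a, (1 : ℝ) :=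
    Finset.sum_congr rfl fun j hj => by rw [h1 j ((mem_sh hfin).1 hj), val_one]
  rw [h4] at h2
  have h5 : loN hfin g z a = mm hfin a := by
    have : ((sh hfin a).card : ℝ) = (loN hfin g z a : ℝ) := by rw [← h2]; simp
    unfold mm
    exact_mod_cast this.symm
  exact ⟨h5, h3.trans h5⟩

end facts

variable {E' : Type*} [NormedAddCommGroup E'] [NormedSpace ℝ E'] {Pf : Fam → Set E'}

/-- **(K4) for the cell `q`**: the families which are exact at `y` have no pieces in `q` and the
exact label at the base vertex of `q` -/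
structure Ex (C : Cmb Q dim J Fam) (Pf : Fam → Set E') (q : Q) (y : Fam → ℝ) : Prop where
  mem : y ∈ K2 Pf
  zero : ∀ a, y a = 0 → (∀ x : C.I q, C.fam (C.col q x) ≠ a) ∧ ∀ j, C.fam j = a → C.Lab j q = 0
  one : ∀ a, y a = 1 → (∀ x : C.I q, C.fam (C.col q x) ≠ a) ∧ ∀ j, C.fam j = a → C.Lab j q = 1

/-- **the grid cell of a point** -/
theorem exists_box (H : Inv C K D g P c) (hfin : ∀ a, {j | C.fam j = a}.Finite) {q : Q}
    (hq : q ∈ D) {z : E} (hz : z ∈ K q) {y : Fam → ℝ} (hy : Ex C Pf q y) :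
    ∃ b : Gx Pf (mm hfin), b.lo = loN hfin g z ∧ b.hi = hiN hfin g z ∧
      (fun a => (merge hfin g).G a z) ∈ b.bx := by
  obtain ⟨a, a', hne, ha, ha'⟩ := hy.mem.2
  refine ⟨⟨loN hfin g z, hiN hfin g z, lo_le_hi H hfin hq hz, hi_le_lo H hfin hq hz,
    hi_le_mm H hfin hq hz, ⟨a, a', hne, ?_, ?_⟩, ?_⟩, rfl, rfl, fun a => G_mem_box H hfin hq hz a⟩
  · exact (box_zero H hfin hq hz (hy.zero a ha).1 (hy.zero a ha).2).2
  · exact (box_zero H hfin hq hz (hy.zero a' ha').1 (hy.zero a' ha').2).2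
  · obtain ⟨hyb, -, hne'⟩ := hy.mem.1
    refine hne'.mono (fc_anti ?_)
    intro b hb
    by_contra hcon
    have h2 : ¬ y b < 1 := hcon
    have h3 : y b = 1 := le_antisymm (hyb b).2 (not_lt.1 h2)
    have h4 := (box_one H hfin hq hz (hy.one b h3).1 (hy.one b h3).2).1
    have h5 : loN hfin g z b < mm hfin b := hb
    omega

/-- **transports do not change the grid cell** -/
theorem box_tr (H : Inv C K D g P c) (hfin : ∀ a, {j | C.fam j = a}.Finite) {q : Q}
    (hq : q ∈ D) {z : E} (hz : z ∈ K q) {a : Fam} (hB : z ∈ (merge hfin g).B a) {s : ℝ}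
    (hs : s ∈ I2) (b : Fam) :
    loN hfin g ((merge hfin g).tr a (z, s)) b = loN hfin g z b ∧
      hiN hfin g ((merge hfin g).tr a (z, s)) b = hiN hfin g z b := by
  have hI := inv_merge_is H hfin hq
  have hz' := hI.tZ a z hz hB s hs
  have hB' := hI.tB a z hz hB s hs
  by_cases hab : a = b
  · subst hab
    have e := hI.tl a z hz hB s hs
    unfold loN hiN
    rw [if_pos hB, if_pos hB, if_pos hB', if_pos hB', e]
    exact ⟨rfl, rfl⟩
  · by_cases hb : z ∈ (merge hfin g).B b
    · have h1 := hI.oB a b hab z hz hB hb s hs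
      have e := hI.ol a b hab z hz hB hb s hs
      unfold loN hiN
      rw [if_pos hb, if_pos hb, if_pos h1, if_pos h1, e]
      exact ⟨rfl, rfl⟩
    · have h1 := hI.notMem_tr hz hB hb hs
      have e := hI.oG a b hab z hz hB s hs
      unfold loN hiN
      rw [if_neg hb, if_neg hb, if_neg h1, if_neg h1, e]
      exact ⟨rfl, rfl⟩

end Crest.Agent.R096.Mg_441
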