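import Crest.Agent.R096.Bd3_416

/-!
# R096 (row 96), P4-BAND, part 4: the colour level, the form that glues (helper416)

`Gd E κ`: global data `G, B, lev, tr` for every colour.  `g.Is Z`: the band structure on `Z`.
`Pcs g S I`: the pieces of the bands on `S`; `Pcs.lam`: the LAM-structure of the pieces.
-/

set_option autoImplicit false

open Set Metric

namespace Crest.Agent.R096.Bd_416

open Crest.Agent.R096.Ce_537

/-! ### connectedness -/

section pre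

variable {X Y : Type*} [TopologicalSpace X] [TopologicalSpace Y] {T : Set X}

/-- closed alternative on a preconnected set -/
lemma pre_mem (hT : IsPreconnected T) {f : X → Y} (hf : ContinuousOn f T) {U V : Set Y}
    (hU : IsClosed U) (hV : IsClosed V) (hd : Disjoint U V)
    (hc : ∀ x ∈ T, f x ∈ U ∨ f x ∈ V) {x0 : X} (h0 : x0 ∈ T) (h : f x0 ∈ U) :
    ∀ x ∈ T, f x ∈ U := by
  intro x hx
  rcases hc x hx with h1 | h1
  · exact h1
  · exfalso
    have him := hT.image f hf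
    obtain ⟨y, -, hy1, hy2⟩ := isPreconnected_closed_iff.1 him U V hU hV
      (by rintro _ ⟨z, hz, rfl⟩; exact hc z hz) ⟨f x0, ⟨x0, h0, rfl⟩, h⟩ ⟨f x, ⟨x, hx, rfl⟩, h1⟩
    exact Set.disjoint_left.1 hd hy1 hy2

lemma pre_const (hT : IsPreconnected T) {f : X → ℝ} (hf : ContinuousOn f T)
    (hv : ∀ x ∈ T, f x = -1/2 ∨ f x = 1/2) {x y : X} (hx : x ∈ T) (hy : y ∈ T) : f x = f y := by
  have hd : Disjoint ({(-1/2 : ℝ)} : Set ℝ) {(1/2 : ℝ)} := by
    rw [Set.disjoint_singleton]; norm_num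
  rcases hv y hy with h | h
  · rw [h]
    exact pre_mem hT hf isClosed_singleton isClosed_singleton hd hv hy h x hx
  · rw [h]
    exact pre_mem hT hf isClosed_singleton isClosed_singleton hd.symm
      (fun z hz => (hv z hz).symm) hy h x hx

/-- the integers as a subgroup of `ℝ` -/
def Zs : AddSubgroup ℝ := (Int.castAddHom ℝ).range

lemma mem_Zs {r : ℝ} : r ∈ Zs ↔ ∃ n : ℤ, r = n := by
  constructor
  · rintro ⟨n, rfl⟩; exact ⟨n, rfl⟩
  · rintro ⟨n, rfl⟩; exact ⟨n, rfl⟩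

lemma int_mem_Zs (n : ℤ) : (n : ℝ) ∈ Zs := ⟨n, rfl⟩

lemma isClosed_Zs : IsClosed (Zs : Set ℝ) := by
  have : (Zs : Set ℝ) = Set.range ((↑) : ℤ → ℝ) := by
    ext r; simp only [SetLike.mem_coe, mem_Zs, mem_range, eq_comm]
  rw [this]
  exact Int.isClosedEmbedding_coe_real.isClosed_range

lemma pre_int (hT : IsPreconnected T) {f : X → ℝ} (hf : ContinuousOn f T)
    (hv : ∀ x ∈ T, f x ∈ Zs) {x y : X} (hx : x ∈ T) (hy : y ∈ T) : f x = f y := by
  obtain ⟨n, hn⟩ := mem_Zs.1 (hv y hy)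
  have h1 : ∀ x ∈ T, f x ∈ Iic (n : ℝ) := by
    refine pre_mem hT hf isClosed_Iic (isClosed_Ici (a := (n : ℝ) + 1)) ?_ ?_ hy hn.le
    · refine Set.disjoint_left.2 fun t ht ht' => ?_
      have : t ≤ n := ht
      have : (n : ℝ) + 1 ≤ t := ht'
      linarith
    · intro z hz
      obtain ⟨m, hm⟩ := mem_Zs.1 (hv z hz)
      rw [hm]
      rcases le_or_gt m n with h | h
      · left; rw [mem_Iic]; exact_mod_cast h
      · right; rw [mem_Ici]; exact_mod_cast h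
  have h2 : ∀ x ∈ T, f x ∈ Ici (n : ℝ) := by
    refine pre_mem hT hf isClosed_Ici (isClosed_Iic (a := (n : ℝ) - 1)) ?_ ?_ hy hn.ge
    · refine Set.disjoint_left.2 fun t ht ht' => ?_
      have : n ≤ t := ht
      have : t ≤ (n : ℝ) - 1 := ht'
      linarith
    · intro z hz
      obtain ⟨m, hm⟩ := mem_Zs.1 (hv z hz)
      rw [hm]
      rcases le_or_gt n m with h | h
      · left; rw [mem_Ici]; exact_mod_cast h
      · right
        have : m ≤ n - 1 := by omega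
        rw [mem_Iic]
        exact_mod_cast this
  rw [hn]
  exact le_antisymm (h1 x hx) (h2 x hx)

lemma isPreconnected_I2 : IsPreconnected I2 := isPreconnected_Icc

lemma sgn_mul_mem {e s : ℝ} (he : e = 1 ∨ e = -1) (hs : s ∈ I2) : e * s ∈ I2 := by
  rcases he with rfl | rfl
  · simpa using hs
  · constructor <;> linarith [hs.1, hs.2]

lemma sgn_sgn {e : ℝ} (he : e = 1 ∨ e = -1) (s : ℝ) : e * (e * s) = s := by
  rcases he with rfl | rfl <;> ring

lemma sgn_int {e : ℝ} (he : e = 1 ∨ e = -1) : e ∈ Zs := by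
  rcases he with rfl | rfl
  · exact ⟨1, by simp⟩
  · exact ⟨-1, by simp⟩

lemma sgn_half {e : ℝ} (he : e = 1 ∨ e = -1) : e / 2 - 1/2 ∈ Zs := by
  rcases he with rfl | rfl
  · exact ⟨0, by simp⟩
  · exact ⟨-1, by norm_num⟩

lemma half_of_I2 {t : ℝ} (h : t ∈ I2) (h' : ¬ |t| < 1/2) : t = -1/2 ∨ t = 1/2 := by
  rcases le_total 0 t with h1 | h1
  · right; rw [abs_of_nonneg h1] at h'; exact le_antisymm h.2 (not_lt.1 h')
  · left; rw [abs_of_nonpos h1] at h'; have := not_lt.1 h'; linarith [h.1]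

lemma cl_neg (t : ℝ) : cl (-t) = - cl t := by
  rcases le_total t (-1/2) with h | h
  · rw [cl_of_le h, cl_of_ge (by linarith)]; ring
  · rcases le_total t (1/2) with h' | h'
    · rw [cl_of_mem ⟨h, h'⟩, cl_of_mem ⟨by linarith, by linarith⟩]
    · rw [cl_of_ge h', cl_of_le (by linarith)]; ring

lemma cl_sgn {e : ℝ} (he : e = 1 ∨ e = -1) (t : ℝ) : cl (e * t) = e * cl t := by
  rcases he with rfl | rfl
  · simp
  · rw [neg_one_mul, neg_one_mul, cl_neg]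

end pre

/-! ### colour level -/

/-- global data -/
structure Gd (E : Type*) (κ : Type*) where
  /-- the level function of a colour; the plateaus are the integers -/
  G : κ → E → ℝ
  /-- the thick sheets -/
  B : κ → Set E
  /-- `G = lev + 1/2 + s`, `s ∈ [-1/2,1/2]` on the band -/
  lev : κ → E → ℝ
  /-- the transport along the transversals of the band -/
  tr : κ → E × ℝ → E

variable {E : Type*} [NormedAddCommGroup E] [NormedSpace ℝ E] {κ : Type*}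

/-- `g` is a band structure on `Z` -/
structure Gd.Is (g : Gd E κ) (Z : Set E) : Prop where
  pG : ∀ a, PLOn (g.G a) Z
  cB : ∀ a, IsClosed (Z ∩ g.B a)
  nB : ∀ a, ∀ z ∈ Z, g.G a z ∉ Zs → z ∈ g.B a
  li : ∀ a, ∀ z ∈ Z, z ∈ g.B a → g.lev a z ∈ Zs
  ab : ∀ a, ∀ z ∈ Z, z ∈ g.B a → g.G a z - g.lev a z - 1/2 ∈ I2
  pt : ∀ a, PLOn (g.tr a) ((Z ∩ g.B a) ×ˢ I2)
  tZ : ∀ a, ∀ z ∈ Z, z ∈ g.B a → ∀ s ∈ I2, g.tr a (z, s) ∈ Z
  tB : ∀ a, ∀ z ∈ Z, z ∈ g.B a → ∀ s ∈ I2, g.tr a (z, s) ∈ g.B a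
  tl : ∀ a, ∀ z ∈ Z, z ∈ g.B a → ∀ s ∈ I2, g.lev a (g.tr a (z, s)) = g.lev a z
  tG : ∀ a, ∀ z ∈ Z, z ∈ g.B a → ∀ s ∈ I2, g.G a (g.tr a (z, s)) = g.lev a z + 1/2 + s
  ts : ∀ a, ∀ z ∈ Z, z ∈ g.B a → g.tr a (z, g.G a z - g.lev a z - 1/2) = z
  tt : ∀ a, ∀ z ∈ Z, z ∈ g.B a → ∀ s ∈ I2, ∀ s' ∈ I2,
    g.tr a (g.tr a (z, s), s') = g.tr a (z, s')
  oG : ∀ a b, a ≠ b → ∀ z ∈ Z, z ∈ g.B a → ∀ s ∈ I2, g.G b (g.tr a (z, s)) = g.G b z
  oB : ∀ a b, a ≠ b → ∀ z ∈ Z, z ∈ g.B a → z ∈ g.B b → ∀ s ∈ I2, g.tr a (z, s) ∈ g.B b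
  ol : ∀ a b, a ≠ b → ∀ z ∈ Z, z ∈ g.B a → z ∈ g.B b → ∀ s ∈ I2,
    g.lev b (g.tr a (z, s)) = g.lev b z
  oc : ∀ a b, a ≠ b → ∀ z ∈ Z, z ∈ g.B a → z ∈ g.B b → ∀ s ∈ I2, ∀ t ∈ I2,
    g.tr a (g.tr b (z, t), s) = g.tr b (g.tr a (z, s), t)

namespace Gd.Is

variable {g : Gd E κ} {Z Z' : Set E}

lemma contTr (h : g.Is Z) {a : κ} {z : E} (hz : z ∈ Z) (hB : z ∈ g.B a) :
    ContinuousOn (fun s : ℝ => g.tr a (z, s)) I2 :=
  (h.pt a).1.comp (by fun_prop) (fun s hs => ⟨⟨hz, hB⟩, hs⟩)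

lemma notMem_tr (h : g.Is Z) {a b : κ} {z : E} (hz : z ∈ Z) (hB : z ∈ g.B a)
    (hb : z ∉ g.B b) {s : ℝ} (hs : s ∈ I2) : g.tr a (z, s) ∉ g.B b := by
  by_cases hab : a = b
  · subst hab; exact absurd hB hb
  intro hm
  have h1 := h.oB a b hab _ (h.tZ a z hz hB s hs) (h.tB a z hz hB s hs) hm _ (h.ab a z hz hB)
  rw [h.tt a z hz hB s hs _ (h.ab a z hz hB), h.ts a z hz hB] at h1
  exact hb h1

/-- `lev` is PL on the band -/
lemma plev (h : g.Is Z) (a : κ) : PLOn (g.lev a) (Z ∩ g.B a) := by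
  have h0 : (0:ℝ) ∈ I2 := by constructor <;> norm_num
  have h1 : PLOn (fun z => g.G a (g.tr a (z, 0)) - 1/2) (Z ∩ g.B a) :=
    pl_sub_const ((h.pG a).comp ((h.pt a).comp (pl_pair (plOn_id _) (plOn_const (0:ℝ) _))
      (fun z hz => ⟨hz, h0⟩)) (fun z hz => h.tZ a z hz.1 hz.2 0 h0)) _
  refine h1.congr fun z hz => ?_
  show g.lev a z = g.G a (g.tr a (z, 0)) - 1/2
  rw [h.tG a z hz.1 hz.2 0 h0]; ring

/-- gluing -/
lemma union (h : g.Is Z) (h' : g.Is Z') (c : IsClosed Z) (c' : IsClosed Z') :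
    g.Is (Z ∪ Z') where
  pG a := (h.pG a).union (h'.pG a) c c'
  cB a := by rw [union_inter_distrib_right]; exact (h.cB a).union (h'.cB a)
  nB a z hz := hz.elim (h.nB a z) (h'.nB a z)
  li a z hz := hz.elim (h.li a z) (h'.li a z)
  ab a z hz := hz.elim (h.ab a z) (h'.ab a z)
  pt a := by
    rw [union_inter_distrib_right, union_prod]
    exact (h.pt a).union (h'.pt a) ((h.cB a).prod isClosed_Icc) ((h'.cB a).prod isClosed_Icc)
  tZ a z hz hB s hs := hz.elim (fun hz => Or.inl (h.tZ a z hz hB s hs))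
    (fun hz => Or.inr (h'.tZ a z hz hB s hs))
  tB a z hz := hz.elim (h.tB a z) (h'.tB a z)
  tl a z hz := hz.elim (h.tl a z) (h'.tl a z)
  tG a z hz := hz.elim (h.tG a z) (h'.tG a z)
  ts a z hz := hz.elim (h.ts a z) (h'.ts a z)
  tt a z hz := hz.elim (h.tt a z) (h'.tt a z)
  oG a b hab z hz := hz.elim (h.oG a b hab z) (h'.oG a b hab z)
  oB a b hab z hz := hz.elim (h.oB a b hab z) (h'.oB a b hab z)
  ol a b hab z hz := hz.elim (h.ol a b hab z) (h'.ol a b hab z)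
  oc a b hab z hz := hz.elim (h.oc a b hab z) (h'.oc a b hab z)

lemma empty (g : Gd E κ) : g.Is (∅ : Set E) where
  pG a := plOn_empty _
  cB a := by rw [empty_inter]; exact isClosed_empty
  nB a z hz := hz.elim
  li a z hz := hz.elim
  ab a z hz := hz.elim
  pt a := by rw [empty_inter, empty_prod]; exact plOn_empty _
  tZ a z hz := hz.elim
  tB a z hz := hz.elim
  tl a z hz := hz.elim
  tG a z hz := hz.elim
  ts a z hz := hz.elim
  tt a z hz := hz.elim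
  oG a b hab z hz := hz.elim
  oB a b hab z hz := hz.elim
  ol a b hab z hz := hz.elim
  oc a b hab z hz := hz.elim

lemma biUnion {I : Type*} {K : I → Set E} {s : Set I} (hs : s.Finite)
    (h : ∀ i ∈ s, g.Is (K i)) (c : ∀ i ∈ s, IsClosed (K i)) : g.Is (⋃ i ∈ s, K i) := by
  induction s, hs using Set.Finite.induction_on with
  | empty => simpa using empty g
  | @insert a s ha hs ih =>
    rw [biUnion_insert]
    refine union (h a (mem_insert _ _)) (ih (fun i hi => h i (mem_insert_of_mem _ hi))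
      (fun i hi => c i (mem_insert_of_mem _ hi))) (c a (mem_insert _ _)) ?_
    exact hs.isClosed_biUnion (fun i hi => c i (mem_insert_of_mem _ hi))

/-- restriction to an invariant closed subset -/
lemma restrict (h : g.Is Z) (hZ : Z' ⊆ Z) (c : IsClosed Z')
    (hi : ∀ a, ∀ z ∈ Z', z ∈ g.B a → ∀ s ∈ I2, g.tr a (z, s) ∈ Z') : g.Is Z' where
  pG a := (h.pG a).mono hZ
  cB a := by
    have : Z' ∩ g.B a = Z' ∩ (Z ∩ g.B a) := by
      rw [← inter_assoc, inter_eq_left.2 hZ]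
    rw [this]; exact c.inter (h.cB a)
  nB a z hz := h.nB a z (hZ hz)
  li a z hz := h.li a z (hZ hz)
  ab a z hz := h.ab a z (hZ hz)
  pt a := (h.pt a).mono (prod_mono (inter_subset_inter_left _ hZ) le_rfl)
  tZ a z hz hB s hs := hi a z hz hB s hs
  tB a z hz := h.tB a z (hZ hz)
  tl a z hz := h.tl a z (hZ hz)
  tG a z hz := h.tG a z (hZ hz)
  ts a z hz := h.ts a z (hZ hz)
  tt a z hz := h.tt a z (hZ hz)
  oG a b hab z hz := h.oG a b hab z (hZ hz)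
  oB a b hab z hz := h.oB a b hab z (hZ hz)
  ol a b hab z hz := h.ol a b hab z (hZ hz)
  oc a b hab z hz := h.oc a b hab z (hZ hz)

end Gd.Is

/-- agreement of the data on `Z` -/
structure Gd.Eqs (g g' : Gd E κ) (Z : Set E) : Prop where
  G : ∀ a, ∀ z ∈ Z, g'.G a z = g.G a z
  B : ∀ a, ∀ z ∈ Z, z ∈ g'.B a ↔ z ∈ g.B a
  lev : ∀ a, ∀ z ∈ Z, z ∈ g.B a → g'.lev a z = g.lev a z
  tr : ∀ a, ∀ z ∈ Z, z ∈ g.B a → ∀ s ∈ I2, g'.tr a (z, s) = g.tr a (z, s)

lemma Gd.Is.congr {g g' : Gd E κ} {Z : Set E} (h : g.Is Z) (e : g.Eqs g' Z) : g'.Is Z := by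
  have hB : ∀ a, Z ∩ g'.B a = Z ∩ g.B a := by
    intro a; ext z
    exact ⟨fun hz => ⟨hz.1, (e.B a z hz.1).1 hz.2⟩, fun hz => ⟨hz.1, (e.B a z hz.1).2 hz.2⟩⟩
  have tB' : ∀ a, ∀ z ∈ Z, z ∈ g.B a → ∀ s ∈ I2, g'.tr a (z, s) ∈ Z ∧ g.tr a (z, s) ∈ Z ∧
      g.tr a (z, s) ∈ g.B a := by
    intro a z hz hza s hs
    rw [e.tr a z hz hza s hs]
    exact ⟨h.tZ a z hz hza s hs, h.tZ a z hz hza s hs, h.tB a z hz hza s hs⟩
  refine ⟨fun a => (h.pG a).congr (fun z hz => e.G a z hz), fun a => by rw [hB]; exact h.cB a,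
    fun a z hz hn => ?_, fun a z hz hb => ?_, fun a z hz hb => ?_, fun a => ?_,
    fun a z hz hb s hs => ?_, fun a z hz hb s hs => ?_, fun a z hz hb s hs => ?_,
    fun a z hz hb s hs => ?_, fun a z hz hb => ?_, fun a z hz hb s hs s' hs' => ?_,
    fun a b hab z hz hb s hs => ?_, fun a b hab z hz ha hb s hs => ?_,
    fun a b hab z hz ha hb s hs => ?_, fun a b hab z hz ha hb s hs t ht => ?_⟩
  · rw [e.G a z hz] at hn; exact (e.B a z hz).2 (h.nB a z hz hn)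
  · have hb' := (e.B a z hz).1 hb
    rw [e.lev a z hz hb']; exact h.li a z hz hb'
  · have hb' := (e.B a z hz).1 hb
    rw [e.lev a z hz hb', e.G a z hz]; exact h.ab a z hz hb'
  · rw [hB]
    refine (h.pt a).congr ?_
    rintro ⟨z, s⟩ ⟨hz, hs⟩
    exact e.tr a z hz.1 hz.2 s hs
  · have hb' := (e.B a z hz).1 hb
    exact (tB' a z hz hb' s hs).1
  · have hb' := (e.B a z hz).1 hb
    rw [e.tr a z hz hb' s hs]
    exact (e.B a _ (tB' a z hz hb' s hs).2.1).2 (tB' a z hz hb' s hs).2.2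
  · have hb' := (e.B a z hz).1 hb
    have h1 := tB' a z hz hb' s hs
    rw [e.tr a z hz hb' s hs, e.lev a _ h1.2.1 h1.2.2, e.lev a z hz hb']
    exact h.tl a z hz hb' s hs
  · have hb' := (e.B a z hz).1 hb
    have h1 := tB' a z hz hb' s hs
    rw [e.tr a z hz hb' s hs, e.G a _ h1.2.1, e.lev a z hz hb']
    exact h.tG a z hz hb' s hs
  · have hb' := (e.B a z hz).1 hb
    rw [e.G a z hz, e.lev a z hz hb', e.tr a z hz hb' _ (h.ab a z hz hb')]
    exact h.ts a z hz hb'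
  · have hb' := (e.B a z hz).1 hb
    have h1 := tB' a z hz hb' s hs
    rw [e.tr a z hz hb' s hs, e.tr a _ h1.2.1 h1.2.2 s' hs', e.tr a z hz hb' s' hs']
    exact h.tt a z hz hb' s hs s' hs'
  · have hb' := (e.B a z hz).1 hb
    have h1 := tB' a z hz hb' s hs
    rw [e.tr a z hz hb' s hs, e.G b _ h1.2.1, e.G b z hz]
    exact h.oG a b hab z hz hb' s hs
  · have ha' := (e.B a z hz).1 ha
    have hb' := (e.B b z hz).1 hb
    have h1 := tB' a z hz ha' s hs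
    rw [e.tr a z hz ha' s hs]
    exact (e.B b _ h1.2.1).2 (h.oB a b hab z hz ha' hb' s hs)
  · have ha' := (e.B a z hz).1 ha
    have hb' := (e.B b z hz).1 hb
    have h1 := tB' a z hz ha' s hs
    rw [e.tr a z hz ha' s hs, e.lev b _ h1.2.1 (h.oB a b hab z hz ha' hb' s hs),
      e.lev b z hz hb']
    exact h.ol a b hab z hz ha' hb' s hs
  · have ha' := (e.B a z hz).1 ha
    have hb' := (e.B b z hz).1 hb
    have h1 := tB' a z hz ha' s hs
    have h2 := tB' b z hz hb' t ht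
    have h3 := h.oB a b hab z hz ha' hb' s hs
    have h4 := h.oB b a (Ne.symm hab) z hz hb' ha' t ht
    rw [e.tr a z hz ha' s hs, e.tr b z hz hb' t ht, e.tr a _ h2.2.1 h4 s hs,
      e.tr b _ h1.2.1 h3 t ht]
    exact h.oc a b hab z hz ha' hb' s hs t ht

/-! ### the pieces of the bands on a set -/

/-- pieces: a finite partition of the bands of `g` on `S` in closed sets, with band functions -/
structure Pcs (g : Gd E κ) (S : Set E) (I : Type*) where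
  col : I → κ
  ε : I → ℝ
  P : I → Set E
  c : I → E → ℝ
  hε : ∀ x, ε x = 1 ∨ ε x = -1
  Pc : ∀ x, IsClosed (P x)
  PS : ∀ x, P x ⊆ S
  PB : ∀ x, P x ⊆ g.B (col x)
  cov : ∀ a, ∀ z ∈ S, z ∈ g.B a → ∃ x, col x = a ∧ z ∈ P x
  dis : ∀ x y, x ≠ y → col x = col y → Disjoint (P x) (P y)
  pc : ∀ x, PLOn (c x) S
  cm : ∀ x, ∀ z ∈ S, c x z ∈ I2
  cP : ∀ x, ∀ z ∈ P x, c x z = ε x * (g.G (col x) z - g.lev (col x) z - 1/2)
  cn : ∀ x, ∀ z ∈ S, |c x z| < 1/2 → z ∈ P x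

namespace Pcs

variable {g : Gd E κ} {S : Set E} {I : Type*} (p : Pcs g S I)

lemma half {x : I} {z : E} (hz : z ∈ S) (h : z ∉ p.P x) : p.c x z = -1/2 ∨ p.c x z = 1/2 :=
  half_of_I2 (p.cm x z hz) (fun hc => h (p.cn x z hz hc))

/-- the transports preserve the pieces -/
lemma tr_memP [Finite I] (h : g.Is S) {a : κ} {z : E} (hz : z ∈ S) (hB : z ∈ g.B a) {y : I}
    (hy : z ∈ p.P y) {s : ℝ} (hs : s ∈ I2) : g.tr a (z, s) ∈ p.P y := by
  have hc := h.contTr hz hB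
  have hb : ∀ s ∈ I2, g.tr a (z, s) ∈ g.B (p.col y) := by
    intro s hs
    by_cases hab : a = p.col y
    · rw [← hab]; exact h.tB a z hz hB s hs
    · exact h.oB a _ hab z hz hB (p.PB y hy) s hs
  have hV : IsClosed (⋃ x ∈ {x | x ≠ y ∧ p.col x = p.col y}, p.P x) :=
    (Set.toFinite _).isClosed_biUnion (fun x _ => p.Pc x)
  have hd : Disjoint (p.P y) (⋃ x ∈ {x | x ≠ y ∧ p.col x = p.col y}, p.P x) := by
    rw [Set.disjoint_iUnion₂_right]
    intro x hx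
    exact p.dis y x (Ne.symm hx.1) hx.2.symm
  refine pre_mem isPreconnected_I2 hc (p.Pc y) hV hd ?_ (h.ab a z hz hB) ?_ s hs
  · intro s hs
    obtain ⟨x, hx, hxP⟩ := p.cov _ _ (h.tZ a z hz hB s hs) (hb s hs)
    by_cases hxy : x = y
    · left; rw [← hxy]; exact hxP
    · right
      exact mem_biUnion (show x ∈ {x | x ≠ y ∧ p.col x = p.col y} from ⟨hxy, hx⟩) hxP
  · show g.tr a (z, _) ∈ p.P y
    rw [h.ts a z hz hB]; exact hy

lemma tr_notMemP [Finite I] (h : g.Is S) {a : κ} {z : E} (hz : z ∈ S) (hB : z ∈ g.B a) {y : I}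
    (hy : z ∉ p.P y) {s : ℝ} (hs : s ∈ I2) : g.tr a (z, s) ∉ p.P y := by
  intro hm
  have h1 := p.tr_memP h (h.tZ a z hz hB s hs) (h.tB a z hz hB s hs) hm (h.ab a z hz hB)
  rw [h.tt a z hz hB s hs _ (h.ab a z hz hB), h.ts a z hz hB] at h1
  exact hy h1

lemma tr_c_of_notMem [Finite I] (h : g.Is S) {a : κ} {z : E} (hz : z ∈ S) (hB : z ∈ g.B a)
    {y : I} (hy : z ∉ p.P y) {s : ℝ} (hs : s ∈ I2) : p.c y (g.tr a (z, s)) = p.c y z := by
  have hc : ContinuousOn (fun s => p.c y (g.tr a (z, s))) I2 :=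
    (p.pc y).1.comp (h.contTr hz hB) (fun s hs => h.tZ a z hz hB s hs)
  have h1 := pre_const isPreconnected_I2 hc (fun s hs => p.half (h.tZ a z hz hB s hs)
    (p.tr_notMemP h hz hB hy hs)) hs (h.ab a z hz hB)
  have h2 : g.tr a (z, g.G a z - g.lev a z - 1/2) = z := h.ts a z hz hB
  simp only [h2] at h1
  exact h1

lemma tr_c [Finite I] (h : g.Is S) {a : κ} {z : E} (hz : z ∈ S) (hB : z ∈ g.B a)
    {y : I} (hy : z ∈ p.P y → a ≠ p.col y) {s : ℝ} (hs : s ∈ I2) :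
    p.c y (g.tr a (z, s)) = p.c y z := by
  by_cases hm : z ∈ p.P y
  · have hne := hy hm
    rw [p.cP y z hm, p.cP y _ (p.tr_memP h hz hB hm hs), h.oG a _ hne z hz hB s hs,
      h.ol a _ hne z hz hB (p.PB y hm) s hs]
  · exact p.tr_c_of_notMem h hz hB hm hs

lemma col_ne {x y : I} (hxy : x ≠ y) {z : E} (hx : z ∈ p.P x) (hy : z ∈ p.P y) :
    p.col x ≠ p.col y := fun he => Set.disjoint_left.1 (p.dis x y hxy he) hx hy

/-- THE LAM-STRUCTURE OF THE PIECES -/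
def lam [Finite I] (h : g.Is S) : Lam S I where
  c := p.c
  B := p.P
  tr x q := g.tr (p.col x) (q.1, p.ε x * q.2)
  pc := p.pc
  cm := p.cm
  Bc := p.Pc
  BZ := p.PS
  Bm := p.cn
  pt x := by
    refine (h.pt (p.col x)).comp (pl_pair (pl_fst (plOn_id _))
      (pl_mul (p.ε x) (pl_snd (plOn_id _)))) ?_
    intro q hq
    exact ⟨⟨p.PS x hq.1, p.PB x hq.1⟩, sgn_mul_mem (p.hε x) hq.2⟩
  trB x z hz s hs := p.tr_memP h (p.PS x hz) (p.PB x hz) hz (sgn_mul_mem (p.hε x) hs)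
  ctr x z hz s hs := by
    have hs' := sgn_mul_mem (p.hε x) hs
    have h1 := p.tr_memP h (p.PS x hz) (p.PB x hz) hz hs'
    show p.c x (g.tr (p.col x) (z, p.ε x * s)) = s
    rw [p.cP x _ h1, h.tl _ z (p.PS x hz) (p.PB x hz) _ hs',
      h.tG _ z (p.PS x hz) (p.PB x hz) _ hs']
    have : g.lev (p.col x) z + 1 / 2 + p.ε x * s - g.lev (p.col x) z - 1 / 2 = p.ε x * s := by
      ring
    rw [this, sgn_sgn (p.hε x)]
  tr_self x z hz := by
    show g.tr (p.col x) (z, p.ε x * p.c x z) = z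
    rw [p.cP x z hz, sgn_sgn (p.hε x)]
    exact h.ts _ z (p.PS x hz) (p.PB x hz)
  tr_tr x z hz s hs s' hs' := h.tt _ z (p.PS x hz) (p.PB x hz) _ (sgn_mul_mem (p.hε x) hs) _
    (sgn_mul_mem (p.hε x) hs')
  co x y hxy z hz s hs := p.tr_c h (p.PS x hz) (p.PB x hz) (fun hy => p.col_ne hxy hz hy)
    (sgn_mul_mem (p.hε x) hs)
  Bo x y _ z hz hy s hs := p.tr_memP h (p.PS x hz) (p.PB x hz) hy (sgn_mul_mem (p.hε x) hs)
  comm x y hxy z hz hy s hs t ht := h.oc _ _ (p.col_ne hxy hz hy) z (p.PS x hz) (p.PB x hz)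
    (p.PB y hy) _ (sgn_mul_mem (p.hε x) hs) _ (sgn_mul_mem (p.hε y) ht)

end Pcs

end Crest.Agent.R096.Bd_416
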