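import Crest.Agent.R096.Xq2_537
import Crest.Agent.R096.Grd3_714
import Crest.Agent.R096.Bd4_416

/-!
# R096 (row 96), EXPLODE, part q3 (helper537)

From a band structure (`Gd.Is`, helper416) whose levels lie in the level complex `G2 P m` of the
grid (helper714) to the local transport structure `TrnOn`.
-/

set_option autoImplicit false
set_option linter.unusedSectionVars false
set_option linter.unusedVariables false
set_option linter.deprecated false

open Set
open scoped NNReal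

namespace Crest.Agent.R096.Xp_537

open Crest.Agent.R096.Ce_537 (PLOn PLEquiv cube sph IsBall LocPL)
open Crest.Agent.R096.Bd_416
open Crest.Agent.R096.Grd_714

section TLs

variable {E' : Type*} [NormedAddCommGroup E'] [NormedSpace ℝ E'] {I : Type*}

/-- successive transports -/
def TL (g : Gd E' I) (s : I → ℝ) : List I → E' → E'
  | [], x => x
  | a :: L, x => TL g s L (g.tr a (x, s a))

variable {g : Gd E' I} {Z : Set E'} {s s' : I → ℝ}

@[simp] lemma TL_nil (x : E') : TL g s [] x = x := rfl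
@[simp] lemma TL_cons (a : I) (L : List I) (x : E') :
    TL g s (a :: L) x = TL g s L (g.tr a (x, s a)) := rfl

lemma TL_append (L L' : List I) (x : E') : TL g s (L ++ L') x = TL g s L' (TL g s L x) := by
  induction L generalizing x with
  | nil => rfl
  | cons a L ih => exact ih _

lemma TL_congr {L : List I} (h : ∀ a ∈ L, s a = s' a) (x : E') : TL g s L x = TL g s' L x := by
  induction L generalizing x with
  | nil => rfl
  | cons a L ih =>
    rw [TL_cons, TL_cons, h a (by simp), ih (fun b hb => h b (by simp [hb]))]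

/-- a band at a transported point -/
lemma tr_mem_B (h : g.Is Z) {a b : I} {x : E'} (hx : x ∈ Z) (ha : x ∈ g.B a) {u : ℝ}
    (hu : u ∈ I2) : g.tr a (x, u) ∈ g.B b ↔ x ∈ g.B b := by
  constructor
  · intro hb
    by_contra hn
    exact h.notMem_tr hx ha hn hu hb
  · intro hb
    by_cases hab : a = b
    · subst hab; exact h.tB a x hx ha u hu
    · exact h.oB a b hab x hx ha hb u hu

lemma tr_lev (h : g.Is Z) {a b : I} {x : E'} (hx : x ∈ Z) (ha : x ∈ g.B a) {u : ℝ}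
    (hu : u ∈ I2) (hb : x ∈ g.B b) : g.lev b (g.tr a (x, u)) = g.lev b x := by
  by_cases hab : a = b
  · subst hab; exact h.tl a x hx ha u hu
  · exact h.ol a b hab x hx ha hb u hu

/-- the properties of successive transports -/
lemma TL_spec (h : g.Is Z) : ∀ {L : List I}, L.Nodup → ∀ {x : E'}, x ∈ Z →
    (∀ a ∈ L, x ∈ g.B a ∧ s a ∈ I2) →
    TL g s L x ∈ Z ∧ (∀ b, TL g s L x ∈ g.B b ↔ x ∈ g.B b) ∧
      (∀ b, x ∈ g.B b → g.lev b (TL g s L x) = g.lev b x) ∧
      (∀ b, b ∉ L → g.G b (TL g s L x) = g.G b x) ∧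
      (∀ b ∈ L, g.G b (TL g s L x) = g.lev b x + 1 / 2 + s b) := by
  intro L
  induction L with
  | nil =>
    intro _ x hx _
    exact ⟨hx, fun b => Iff.rfl, fun b _ => rfl, fun b _ => rfl, fun b hb => by simp at hb⟩
  | cons a L ih =>
    intro hnd x hx hL
    obtain ⟨hax, hsa⟩ := hL a (by simp)
    have hnd' := List.nodup_cons.1 hnd
    have hy : g.tr a (x, s a) ∈ Z := h.tZ a x hx hax _ hsa
    have hyB : ∀ b, g.tr a (x, s a) ∈ g.B b ↔ x ∈ g.B b := fun b => tr_mem_B h hx hax hsa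
    obtain ⟨i1, i2, i3, i4, i5⟩ := ih hnd'.2 hy (fun b hb => by
      obtain ⟨j1, j2⟩ := hL b (by simp [hb])
      exact ⟨(hyB b).2 j1, j2⟩)
    rw [TL_cons]
    refine ⟨i1, fun b => (i2 b).trans (hyB b), fun b hb => ?_, fun b hb => ?_, fun b hb => ?_⟩
    · rw [i3 b ((hyB b).2 hb), tr_lev h hx hax hsa hb]
    · have hba : a ≠ b := fun e => hb (by simp [e])
      have hbL : b ∉ L := fun e => hb (by simp [e])
      rw [i4 b hbL, h.oG a b hba x hx hax _ hsa]
    · rcases List.mem_cons.1 hb with rfl | hb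
      · rw [i4 b hnd'.1, h.tG b x hx hax _ hsa]
      · have h1 : x ∈ g.B b := (hL b (by simp [hb])).1
        rw [i5 b hb, tr_lev h hx hax hsa h1]

/-- one transport commutes with successive transports -/
lemma TL_comm (h : g.Is Z) {a : I} {u : ℝ} (hu : u ∈ I2) : ∀ {L : List I}, L.Nodup → a ∉ L →
    ∀ {x : E'}, x ∈ Z → x ∈ g.B a → (∀ a ∈ L, x ∈ g.B a ∧ s a ∈ I2) →
    g.tr a (TL g s L x, u) = TL g s L (g.tr a (x, u)) := by
  intro L
  induction L with
  | nil => intro _ _ x _ _ _; rfl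
  | cons b L ih =>
    intro hnd haL x hx hxa hL
    obtain ⟨hbx, hsb⟩ := hL b (by simp)
    have hnd' := List.nodup_cons.1 hnd
    have hab : a ≠ b := fun e => haL (by simp [e])
    rw [TL_cons, TL_cons, ih hnd'.2 (fun e => haL (by simp [e])) (h.tZ b x hx hbx _ hsb)
      ((tr_mem_B h hx hbx hsb).2 hxa) (fun c hc => by
        obtain ⟨j1, j2⟩ := hL c (by simp [hc])
        exact ⟨(tr_mem_B h hx hbx hsb).2 j1, j2⟩)]
    rw [h.oc a b hab x hx hxa hbx u hu _ hsb]

/-- order does not matter -/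
lemma TL_perm (h : g.Is Z) {L L' : List I} (hp : L.Perm L') : L.Nodup → ∀ {x : E'}, x ∈ Z →
    (∀ a ∈ L, x ∈ g.B a ∧ s a ∈ I2) → TL g s L x = TL g s L' x := by
  induction hp with
  | nil => intro _ x _ _; rfl
  | cons a hp ih =>
    intro hnd x hx hL
    obtain ⟨hax, hsa⟩ := hL a (by simp)
    rw [TL_cons, TL_cons]
    exact ih (List.nodup_cons.1 hnd).2 (h.tZ a x hx hax _ hsa) (fun b hb => by
      obtain ⟨j1, j2⟩ := hL b (by simp [hb])
      exact ⟨(tr_mem_B h hx hax hsa).2 j1, j2⟩)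
  | swap a b l =>
    intro hnd x hx hL
    obtain ⟨hbx, hsb⟩ := hL b (by simp)
    obtain ⟨hax, hsa⟩ := hL a (by simp)
    have hab : a ≠ b := by
      intro e
      have := (List.nodup_cons.1 hnd).1
      exact this (by simp [e])
    simp only [TL_cons]
    rw [h.oc a b hab x hx hax hbx _ hsa _ hsb]
  | trans h1 h2 ih1 ih2 =>
    intro hnd x hx hL
    rw [ih1 hnd hx hL]
    exact ih2 (h1.nodup_iff.1 hnd) hx (fun a ha => hL a (h1.mem_iff.2 ha))

/-- trivial transports -/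
lemma TL_triv (h : g.Is Z) : ∀ {L : List I} {x : E'}, x ∈ Z →
    (∀ a ∈ L, x ∈ g.B a ∧ s a = g.G a x - g.lev a x - 1 / 2) → TL g s L x = x := by
  intro L
  induction L with
  | nil => intro x _ _; rfl
  | cons a L ih =>
    intro x hx hL
    obtain ⟨hax, hsa⟩ := hL a (by simp)
    rw [TL_cons, hsa, h.ts a x hx hax]
    exact ih hx (fun b hb => hL b (by simp [hb]))

/-- transport of a transport -/
lemma TL_TL (h : g.Is Z) : ∀ {L : List I}, L.Nodup → ∀ {x : E'}, x ∈ Z →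
    (∀ a ∈ L, x ∈ g.B a ∧ s a ∈ I2 ∧ s' a ∈ I2) →
    TL g s' L (TL g s L x) = TL g s' L x := by
  intro L
  induction L with
  | nil => intro _ x _ _; rfl
  | cons a L ih =>
    intro hnd x hx hL
    obtain ⟨hax, hsa, hsa'⟩ := hL a (by simp)
    have hnd' := List.nodup_cons.1 hnd
    have hB : ∀ u ∈ I2, ∀ b ∈ L, g.tr a (x, u) ∈ g.B b ∧ s b ∈ I2 ∧ s' b ∈ I2 :=
      fun u hu b hb => by
        obtain ⟨j1, j2, j3⟩ := hL b (by simp [hb])
        exact ⟨(tr_mem_B h hx hax hu).2 j1, j2, j3⟩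
    rw [TL_cons, TL_cons, TL_cons]
    have h1 : g.tr a (TL g s L (g.tr a (x, s a)), s' a) =
        TL g s L (g.tr a (g.tr a (x, s a), s' a)) :=
      TL_comm h hsa' hnd'.2 hnd'.1 (h.tZ a x hx hax _ hsa) (h.tB a x hx hax _ hsa)
        (fun b hb => ⟨(hB _ hsa b hb).1, (hB _ hsa b hb).2.1⟩)
    rw [h1, h.tt a x hx hax _ hsa _ hsa']
    exact ih hnd'.2 (h.tZ a x hx hax _ hsa') (hB _ hsa')

/-- successive transports are PL -/
lemma plOn_TL {V : Type*} [NormedAddCommGroup V] [NormedSpace ℝ V] (h : g.Is Z) {K : Set V}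
    {σ : I → V → ℝ} : ∀ {L : List I}, L.Nodup → ∀ {u : V → E'}, PLOn u K → MapsTo u K Z →
    (∀ a ∈ L, (∀ v ∈ K, u v ∈ g.B a ∧ σ a v ∈ I2) ∧ PLOn (σ a) K) →
    PLOn (fun v => TL g (fun a => σ a v) L (u v)) K := by
  intro L
  induction L with
  | nil => intro _ u hu _ _; exact hu
  | cons a L ih =>
    intro hnd u hu hm hL
    obtain ⟨h1, h2⟩ := hL a (by simp)
    have hnd' := List.nodup_cons.1 hnd
    refine ih hnd'.2 (u := fun v => g.tr a (u v, σ a v)) ?_ ?_ ?_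
    · exact (h.pt a).comp (pl_pair hu h2) (fun v hv => ⟨⟨hm hv, (h1 v hv).1⟩, (h1 v hv).2⟩)
    · intro v hv
      exact h.tZ a _ (hm hv) (h1 v hv).1 _ (h1 v hv).2
    · intro b hb
      obtain ⟨h3, h4⟩ := hL b (by simp [hb])
      exact ⟨fun v hv => ⟨(tr_mem_B h (hm hv) (h1 v hv).1 (h1 v hv).2).2 (h3 v hv).1,
        (h3 v hv).2⟩, h4⟩

end TLs

section Grid

variable {E E' : Type*} [NormedAddCommGroup E] [NormedSpace ℝ E]
  [NormedAddCommGroup E'] [NormedSpace ℝ E']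
variable {I : Type*} {P : I → Set E} {m : I → ℕ} {Λ : Set E}

/-- what is used of the grid complex of helper714: `T` = level vectors to points, `co` = inverse. -/
structure GridOK (C : CC Λ (Cel P m)) (T : (I → ℝ) → E) (co : E → I → ℝ) : Prop where
  co_mem : ∀ q : Gx P m, ∀ t ∈ C.cell (.gr q), co t ∈ q.bx ∧ T (co t) = t
  T_mem : ∀ q : Gx P m, ∀ v ∈ q.bx, T v ∈ C.cell (.gr q) ∧ co (T v) = v
  co_b : ∀ q : Gx P m, ∀ a, co (C.b (.gr q)) a = ((q.lo a : ℝ) + q.hi a) / 2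
  plco : ∀ q : Gx P m, ∀ a, PLOn (fun t => co t a) (C.cell (.gr q))
  plT : ∀ q : Gx P m, ∃ (F : Finset I) (τ : (F → ℝ) → E),
    PLOn τ {w | ∀ i : F, (q.lo i : ℝ) ≤ w i ∧ w i ≤ q.hi i} ∧
    ∀ v ∈ q.bx, T v = τ (fun i : F => v i)

/-- compositions with `T` are PL -/
lemma GridOK.comp {C : CC Λ (Cel P m)} {T : (I → ℝ) → E} {co : E → I → ℝ} (X : GridOK C T co)
    {V : Type*} [NormedAddCommGroup V] [NormedSpace ℝ V] (q : Gx P m) {h : V → I → ℝ} {K : Set V}
    (hh : ∀ a, PLOn (fun x => h x a) K) (hm : ∀ x ∈ K, h x ∈ q.bx) :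
    PLOn (fun x => T (h x)) K := by
  obtain ⟨F, τ, h1, h2⟩ := X.plT q
  have h3 : PLOn (fun x (i : F) => h x i) K := pl_pi (fun i => hh i)
  refine (h1.comp h3 (fun x hx => fun i => hm x hx i)).congr (fun x hx => ?_)
  exact h2 _ (hm x hx)

open Classical in
/-- middle levels -/
noncomputable def gmid (g : Gd E' I) (x : E') : I → ℝ := fun a =>
  if x ∈ g.B a then g.lev a x + 1 / 2 else g.G a x

open Classical in
/-- the top cell -/
noncomputable def gtop (hm : ∀ c, 0 < m c) (q0 : Cel P m) (g : Gd E' I) (x : E') : Cel P m :=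
  if h : gmid g x ∈ G2 P m then .gr (flb hm (gmid g x) h) else q0

open Classical in
/-- the list of a finite set -/
noncomputable def ls (A : Set I) : List I := if h : A.Finite then h.toFinset.toList else []

lemma mem_ls {A : Set I} (h : A.Finite) {a : I} : a ∈ ls A ↔ a ∈ A := by
  unfold ls; rw [dif_pos h]; simp

lemma nodup_ls (A : Set I) : (ls A).Nodup := by
  unfold ls
  split_ifs
  · exact Finset.nodup_toList _
  · exact List.nodup_nil

/-- the transport -/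
noncomputable def gtr (co : E → I → ℝ) (g : Gd E' I) (x : E') (t : E) : E' :=
  TL g (fun a => co t a - g.lev a x - 1 / 2) (ls {a | x ∈ g.B a}) x

/-- the map -/
def gG (T : (I → ℝ) → E) (g : Gd E' I) (x : E') : E := T (fun a => g.G a x)

variable {g : Gd E' I} {Z : Set E'} {hm : ∀ c, 0 < m c} {q0 : Cel P m}

lemma Zs_nat {y : ℝ} (h : y ∈ Zs) (h0 : 0 ≤ y + 1 / 2) : ∃ n : ℕ, y = n := by
  obtain ⟨k, hk⟩ := h
  have h1 : (-1 : ℝ) < k := by
    have : (k : ℝ) = y := hk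
    linarith
  have h2 : (-1 : ℤ) < k := by exact_mod_cast h1
  obtain ⟨n, hn⟩ := Int.eq_ofNat_of_zero_le (show 0 ≤ k by omega)
  exact ⟨n, by rw [← hk, hn]; simp⟩

lemma gmid_mem (h : g.Is Z) (hfin : ∀ x ∈ Z, {a | x ∈ g.B a}.Finite)
    (hK : ∀ x ∈ Z, (fun a => g.G a x) ∈ G2 P m) {x : E'} (hx : x ∈ Z) :
    gmid g x ∈ G2 P m := by
  have h0 : (0 : ℝ) ∈ I2 := by constructor <;> norm_num
  obtain ⟨i1, i2, i3, i4, i5⟩ := TL_spec (s := fun _ => 0) h (nodup_ls {a | x ∈ g.B a}) hx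
    (fun a ha => ⟨(mem_ls (hfin x hx)).1 ha, h0⟩)
  have h1 := hK _ i1
  have h2 : (fun a => g.G a (TL g (fun _ => 0) (ls {a | x ∈ g.B a}) x)) = gmid g x := by
    funext a
    unfold gmid
    by_cases ha : x ∈ g.B a
    · rw [i5 a ((mem_ls (hfin x hx)).2 ha), if_pos ha, add_zero]
    · rw [i4 a (fun hb => ha ((mem_ls (hfin x hx)).1 hb)), if_neg ha]
  rwa [h2] at h1

/-- **description of the top cell** -/
lemma gtop_spec (h : g.Is Z) (hfin : ∀ x ∈ Z, {a | x ∈ g.B a}.Finite)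
    (hK : ∀ x ∈ Z, (fun a => g.G a x) ∈ G2 P m) {x : E'} (hx : x ∈ Z) :
    ∃ q : Gx P m, gtop hm q0 g x = .gr q ∧ q.free = {a | x ∈ g.B a} ∧
      (∀ a, x ∈ g.B a → (q.lo a : ℝ) = g.lev a x) ∧
      (∀ a, x ∉ g.B a → (q.lo a : ℝ) = g.G a x ∧ (q.hi a : ℝ) = g.G a x) := by
  have h1 := gmid_mem (P := P) (m := m) h hfin hK hx
  refine ⟨flb hm (gmid g x) h1, by unfold gtop; rw [dif_pos h1], ?_⟩
  have key1 : ∀ a, x ∈ g.B a → ∃ n : ℕ, g.lev a x = n ∧ (flb hm (gmid g x) h1).lo a = n ∧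
      (flb hm (gmid g x) h1).hi a = n + 1 := by
    intro a ha
    have h2 := G2_nonneg hm h1 a
    have h3 : gmid g x a = g.lev a x + 1 / 2 := if_pos ha
    rw [h3] at h2
    obtain ⟨n, hn⟩ := Zs_nat (h.li a x hx ha) h2
    refine ⟨n, hn, ?_, ?_⟩
    · show ⌊gmid g x a⌋₊ = n
      rw [h3, hn, Nat.floor_eq_iff (by positivity)]
      constructor <;> linarith
    · show ⌈gmid g x a⌉₊ = n + 1
      rw [h3, hn, Nat.ceil_eq_iff (by omega)]
      constructor
      · simp only [Nat.add_sub_cancel]; linarith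
      · push_cast; linarith
  have key2 : ∀ a, x ∉ g.B a → ∃ n : ℕ, g.G a x = n ∧ (flb hm (gmid g x) h1).lo a = n ∧
      (flb hm (gmid g x) h1).hi a = n := by
    intro a ha
    have h2 := G2_nonneg hm h1 a
    have h3 : gmid g x a = g.G a x := if_neg ha
    rw [h3] at h2
    have h4 : g.G a x ∈ Zs := by
      by_contra hn
      exact ha (h.nB a x hx hn)
    obtain ⟨n, hn⟩ := Zs_nat h4 (by linarith)
    refine ⟨n, hn, ?_, ?_⟩
    · show ⌊gmid g x a⌋₊ = n
      rw [h3, hn, Nat.floor_natCast]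
    · show ⌈gmid g x a⌉₊ = n
      rw [h3, hn, Nat.ceil_natCast]
  refine ⟨?_, fun a ha => ?_, fun a ha => ?_⟩
  · ext a
    show (flb hm (gmid g x) h1).lo a < (flb hm (gmid g x) h1).hi a ↔ x ∈ g.B a
    by_cases ha : x ∈ g.B a
    · obtain ⟨n, -, e1, e2⟩ := key1 a ha
      rw [e1, e2]; simp [ha]
    · obtain ⟨n, -, e1, e2⟩ := key2 a ha
      rw [e1, e2]; simp [ha]
  · obtain ⟨n, e0, e1, e2⟩ := key1 a ha
    rw [e0, e1]
  · obtain ⟨n, e0, e1, e2⟩ := key2 a ha
    rw [e0, e1, e2]; exact ⟨rfl, rfl⟩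

lemma lvl_mem (h : g.Is Z) {x : E'} (hx : x ∈ Z) {q : Gx P m}
    (hf : q.free = {a | x ∈ g.B a}) (h1 : ∀ a, x ∈ g.B a → (q.lo a : ℝ) = g.lev a x)
    (h2 : ∀ a, x ∉ g.B a → (q.lo a : ℝ) = g.G a x ∧ (q.hi a : ℝ) = g.G a x) :
    (fun a => g.G a x) ∈ q.bx := by
  intro a
  by_cases ha : x ∈ g.B a
  · have h3 := h.ab a x hx ha
    have h4 : q.hi a = q.lo a + 1 := Gx.hi_eq (by rw [hf]; exact ha)
    rw [h4]
    push_cast
    rw [h1 a ha]
    have h5 := h3.1
    have h6 := h3.2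
    constructor <;> linarith
  · obtain ⟨h3, h4⟩ := h2 a ha
    rw [h3, h4]
    exact ⟨le_rfl, le_rfl⟩

/-- parameters of the transport -/
lemma par_mem {x : E'} {q : Gx P m} (hf : q.free = {a | x ∈ g.B a})
    (h1 : ∀ a, x ∈ g.B a → (q.lo a : ℝ) = g.lev a x) {v : I → ℝ} (hv : v ∈ q.bx) {a : I}
    (ha : x ∈ g.B a) : v a - g.lev a x - 1 / 2 ∈ I2 := by
  have h3 := hv a
  have h4 : q.hi a = q.lo a + 1 := Gx.hi_eq (by rw [hf]; exact ha)
  rw [h4] at h3
  push_cast at h3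
  rw [h1 a ha] at h3
  constructor <;> linarith [h3.1, h3.2]

/-- **the transport in a smaller cell only moves the free coordinates** -/
lemma TL_free (h : g.Is Z) {x : E'} (hx : x ∈ Z) (hfinx : {a | x ∈ g.B a}.Finite) {q q' : Gx P m}
    (hf : q.free = {a | x ∈ g.B a}) (h1 : ∀ a, x ∈ g.B a → (q.lo a : ℝ) = g.lev a x)
    (hq : q' ≤ q) (hl : (fun a => g.G a x) ∈ q'.bx) {v : I → ℝ} (hv : v ∈ q'.bx) :
    TL g (fun a => v a - g.lev a x - 1 / 2) (ls {a | x ∈ g.B a}) x =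
      TL g (fun a => v a - q'.lo a - 1 / 2) (ls q'.free) x := by
  classical
  have hsub : q'.free ⊆ {a | x ∈ g.B a} := by
    rw [← hf]
    intro a ha
    have := hq a
    show q.lo a < q.hi a
    have h3 : q'.lo a < q'.hi a := ha
    omega
  have hfin' : q'.free.Finite := hfinx.subset hsub
  set s : I → ℝ := fun a => v a - g.lev a x - 1 / 2 with hs
  have hvq : v ∈ q.bx := bx_mono hq hv
  have hI : ∀ a ∈ ls {a | x ∈ g.B a}, x ∈ g.B a ∧ s a ∈ I2 := fun a ha =>
    ⟨(mem_ls hfinx).1 ha, par_mem hf h1 hvq ((mem_ls hfinx).1 ha)⟩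
  set rest : List I := (ls {a | x ∈ g.B a}).filter (fun a => decide (a ∉ q'.free)) with hrest
  have hmr : ∀ a, a ∈ rest ↔ x ∈ g.B a ∧ a ∉ q'.free := fun a => by
    rw [hrest, List.mem_filter, mem_ls hfinx]; simp
  have hnr : rest.Nodup := (nodup_ls _).filter _
  have hperm : (ls {a | x ∈ g.B a}).Perm (ls q'.free ++ rest) := by
    rw [List.perm_ext_iff_of_nodup (nodup_ls _)]
    · intro a
      rw [List.mem_append, mem_ls hfinx, mem_ls hfin', hmr]
      constructor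
      · intro ha
        by_cases h3 : a ∈ q'.free
        · exact Or.inl h3
        · exact Or.inr ⟨ha, h3⟩
      · rintro (h3 | h3)
        · exact hsub h3
        · exact h3.1
    · rw [List.nodup_append]
      refine ⟨nodup_ls _, hnr, fun a ha b hb => ?_⟩
      rintro rfl
      exact ((hmr a).1 hb).2 ((mem_ls hfin').1 ha)
  rw [TL_perm h hperm (nodup_ls _) hx hI, TL_append]
  have hI' : ∀ a ∈ ls q'.free, x ∈ g.B a ∧ s a ∈ I2 := fun a ha =>
    hI a ((mem_ls hfinx).2 (hsub ((mem_ls hfin').1 ha)))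
  obtain ⟨i1, i2, i3, i4, i5⟩ := TL_spec (s := s) h (nodup_ls q'.free) hx hI'
  rw [TL_triv h i1 (fun a ha => ?_)]
  · refine TL_congr (fun a ha => ?_) x
    have ha' : a ∈ q'.free := (mem_ls hfin').1 ha
    have haB : x ∈ g.B a := hsub ha'
    have h3 : q'.lo a = q.lo a := by
      have h4 := hq a
      have h5 : q'.lo a < q'.hi a := ha'
      have h6 := q.le1 a
      omega
    rw [hs]
    simp only
    rw [h3, h1 a haB]
  · obtain ⟨j1, j2⟩ := (hmr a).1 ha
    have hnot : a ∉ ls q'.free := fun h3 => j2 ((mem_ls hfin').1 h3)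
    refine ⟨(i2 a).2 j1, ?_⟩
    rw [i4 a hnot, i3 a j1]
    have e1 : v a = g.G a x := by
      rw [Gx.eq_of_mem j2 hv]
      exact (Gx.eq_of_mem j2 hl).symm
    rw [hs]
    simp only
    rw [e1]

/-- **from a band structure to the local transport structure** -/
theorem mesh_trnOn {C : CC Λ (Cel P m)} {T : (I → ℝ) → E} {co : E → I → ℝ}
    (X : GridOK C T co) (hm : ∀ c, 0 < m c) (q0 : Cel P m) (h : g.Is Z)
    (hfin : ∀ x ∈ Z, {a | x ∈ g.B a}.Finite)
    (hK : ∀ x ∈ Z, (fun a => g.G a x) ∈ G2 P m) :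
    TrnOn Z C (gG T g) (gtop hm q0 g) (gtr co g) := by
  -- basic facts at a point
  have base : ∀ x ∈ Z, ∃ q : Gx P m, gtop hm q0 g x = .gr q ∧ q.free = {a | x ∈ g.B a} ∧
      (∀ a, x ∈ g.B a → (q.lo a : ℝ) = g.lev a x) ∧
      (∀ a, x ∉ g.B a → (q.lo a : ℝ) = g.G a x ∧ (q.hi a : ℝ) = g.G a x) ∧
      (fun a => g.G a x) ∈ q.bx := fun x hx => by
    obtain ⟨q, h1, h2, h3, h4⟩ := gtop_spec (hm := hm) (q0 := q0) h hfin hK hx
    exact ⟨q, h1, h2, h3, h4, lvl_mem h hx h2 h3 h4⟩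
  have hGmem : ∀ x ∈ Z, gG T g x ∈ C.cell (gtop hm q0 g x) := fun x hx => by
    obtain ⟨q, h1, h2, h3, h4, h5⟩ := base x hx
    rw [h1]
    exact (X.T_mem q _ h5).1
  have hco : ∀ x ∈ Z, co (gG T g x) = fun a => g.G a x := fun x hx => by
    obtain ⟨q, h1, h2, h3, h4, h5⟩ := base x hx
    exact (X.T_mem q _ h5).2
  -- the transported point
  have htr : ∀ x ∈ Z, ∀ t ∈ C.cell (gtop hm q0 g x), gtr co g x t ∈ Z ∧
      (∀ b, gtr co g x t ∈ g.B b ↔ x ∈ g.B b) ∧
      (∀ b, x ∈ g.B b → g.lev b (gtr co g x t) = g.lev b x) ∧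
      (∀ b, g.G b (gtr co g x t) = co t b) ∧ T (co t) = t := by
    intro x hx t ht
    obtain ⟨q, h1, h2, h3, h4, h5⟩ := base x hx
    rw [h1] at ht
    obtain ⟨k1, k2⟩ := X.co_mem q t ht
    have hI : ∀ a ∈ ls {a | x ∈ g.B a}, x ∈ g.B a ∧ co t a - g.lev a x - 1 / 2 ∈ I2 :=
      fun a ha => ⟨(mem_ls (hfin x hx)).1 ha, par_mem h2 h3 k1 ((mem_ls (hfin x hx)).1 ha)⟩
    obtain ⟨i1, i2, i3, i4, i5⟩ := TL_spec (s := fun a => co t a - g.lev a x - 1 / 2) h
      (nodup_ls {a | x ∈ g.B a}) hx hI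
    refine ⟨i1, i2, i3, fun b => ?_, k2⟩
    by_cases hb : x ∈ g.B b
    · show g.G b (TL g _ _ x) = co t b
      rw [i5 b ((mem_ls (hfin x hx)).2 hb)]
      ring
    · show g.G b (TL g _ _ x) = co t b
      rw [i4 b (fun hb' => hb ((mem_ls (hfin x hx)).1 hb'))]
      obtain ⟨j1, j2⟩ := h4 b hb
      have j3 := k1 b
      rw [j1, j2] at j3
      exact le_antisymm j3.1 j3.2
  have hmid : ∀ x ∈ Z, ∀ t ∈ C.cell (gtop hm q0 g x), gmid g (gtr co g x t) = gmid g x := by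
    intro x hx t ht
    obtain ⟨i1, i2, i3, i4, -⟩ := htr x hx t ht
    obtain ⟨q, h1, h2, h3, h4, h5⟩ := base x hx
    funext b
    unfold gmid
    by_cases hb : x ∈ g.B b
    · rw [if_pos ((i2 b).2 hb), if_pos hb, i3 b hb]
    · rw [if_neg (fun h' => hb ((i2 b).1 h')), if_neg hb, i4 b]
      obtain ⟨j1, j2⟩ := h4 b hb
      rw [h1] at ht
      have j3 := (X.co_mem q t ht).1 b
      rw [j1, j2] at j3
      exact le_antisymm j3.2 j3.1
  have htop : ∀ x ∈ Z, ∀ t ∈ C.cell (gtop hm q0 g x),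
      gtop hm q0 g (gtr co g x t) = gtop hm q0 g x := fun x hx t ht => by
    unfold gtop
    rw [hmid x hx t ht]
  -- reduction of the transport to the free coordinates
  have hred : ∀ q' : Gx P m, ∀ x ∈ Z, (Cel.gr q' : Cel P m) ≤ gtop hm q0 g x →
      gG T g x ∈ C.cell (.gr q') → ∀ t ∈ C.cell (.gr q'),
      gtr co g x t = TL g (fun a => co t a - q'.lo a - 1 / 2) (ls q'.free) x ∧
      (∀ a ∈ ls q'.free, x ∈ g.B a ∧ co t a - q'.lo a - 1 / 2 ∈ I2) := by
    intro q' x hx hle hGx t ht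
    obtain ⟨q, h1, h2, h3, h4, h5⟩ := base x hx
    rw [h1, Cel.gr_le_gr] at hle
    obtain ⟨k1, k2⟩ := X.co_mem q' t ht
    have hl : (fun a => g.G a x) ∈ q'.bx := by
      rw [← hco x hx]; exact (X.co_mem q' _ hGx).1
    have hsub : q'.free ⊆ {a | x ∈ g.B a} := by
      rw [← h2]
      intro a ha
      have := hle a
      show q.lo a < q.hi a
      have h3 : q'.lo a < q'.hi a := ha
      omega
    refine ⟨TL_free h hx (hfin x hx) h2 h3 hle hl k1, fun a ha => ?_⟩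
    have ha' : a ∈ q'.free := (mem_ls ((hfin x hx).subset hsub)).1 ha
    refine ⟨hsub ha', ?_⟩
    have h6 := k1 a
    have h7 : q'.hi a = q'.lo a + 1 := Gx.hi_eq ha'
    rw [h7] at h6
    push_cast at h6
    constructor <;> linarith [h6.1, h6.2]
  -- no mesh point over a foam cell
  have hno : ∀ c : I, ∀ x ∈ Z, ¬ ((Cel.top c : Cel P m) ≤ gtop hm q0 g x) := by
    intro c x hx hle
    obtain ⟨q, h1, -⟩ := base x hx
    rw [h1] at hle
    exact Cel.top_le_gr hle
  refine ⟨hGmem, fun x hx t ht => (htr x hx t ht).1, fun x hx t ht => ?_,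
    fun x hx t ht => (htop x hx t ht).ge, fun x hx => ?_, fun x hx t ht s hs => ?_,
    fun q => ?_, fun q => ?_, fun q => ?_⟩
  · obtain ⟨-, -, -, i4, i5⟩ := htr x hx t ht
    show T (fun a => g.G a (gtr co g x t)) = t
    have : (fun a => g.G a (gtr co g x t)) = co t := funext i4
    rw [this, i5]
  · refine TL_triv h hx (fun a ha => ⟨(mem_ls (hfin x hx)).1 ha, ?_⟩)
    rw [hco x hx]
  · obtain ⟨i1, i2, i3, i4, i5⟩ := htr x hx t ht
    obtain ⟨q, h1, h2, h3, h4, h5⟩ := base x hx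
    rw [h1] at ht hs
    have k1 := (X.co_mem q t ht).1
    have k1' := (X.co_mem q s hs).1
    have hset : {a | gtr co g x t ∈ g.B a} = {a | x ∈ g.B a} := by
      ext a; exact i2 a
    have e1 : gtr co g (gtr co g x t) s =
        TL g (fun a => co s a - g.lev a x - 1 / 2) (ls {a | x ∈ g.B a}) (gtr co g x t) := by
      conv_lhs => unfold gtr
      rw [show {a | TL g (fun a => co t a - g.lev a x - 1 / 2) (ls {a | x ∈ g.B a}) x ∈ g.B a} =
        {a | x ∈ g.B a} from hset]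
      refine TL_congr (fun a ha => ?_) _
      have : x ∈ g.B a := (mem_ls (hfin x hx)).1 ha
      have h6 := i3 a this
      unfold gtr at h6
      rw [h6]
    rw [e1]
    unfold gtr
    exact TL_TL h (nodup_ls _) hx (fun a ha => ⟨(mem_ls (hfin x hx)).1 ha,
      par_mem h2 h3 k1 ((mem_ls (hfin x hx)).1 ha), par_mem h2 h3 k1' ((mem_ls (hfin x hx)).1 ha)⟩)
  · -- plG
    cases q with
    | top c =>
      have : {x | x ∈ Z ∧ (Cel.top c : Cel P m) ≤ gtop hm q0 g x ∧ gG T g x ∈ C.cell (.top c)} = ∅ :=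
        eq_empty_of_forall_notMem (fun x hx => hno c x hx.1 hx.2.1)
      rw [this]
      exact ⟨continuousOn_empty _, ∅, by simp⟩
    | gr q' =>
      refine X.comp q' (h := fun x a => g.G a x) (fun a => (h.pG a).mono (fun x hx => hx.1)) (fun x hx => ?_)
      rw [← hco x hx.1]
      exact (X.co_mem q' _ hx.2.2).1
  · -- plc
    cases q with
    | top c =>
      have : {x | x ∈ Z ∧ (Cel.top c : Cel P m) ≤ gtop hm q0 g x ∧ gG T g x ∈ C.cell (.top c)} = ∅ :=
        eq_empty_of_forall_notMem (fun x hx => hno c x hx.1 hx.2.1)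
      rw [this]
      exact ⟨continuousOn_empty _, ∅, by simp⟩
    | gr q' =>
      have hb : C.b (.gr q') ∈ C.cell (.gr q') := C.bmem _
      refine (plOn_TL h (σ := fun a _ => co (C.b (.gr q')) a - q'.lo a - 1 / 2)
        (nodup_ls q'.free) (u := fun x => x)
        (K := {x | x ∈ Z ∧ (Cel.gr q' : Cel P m) ≤ gtop hm q0 g x ∧
          gG T g x ∈ C.cell (.gr q')}) (Ce_537.plOn_id _) (fun x hx => hx.1)
        (fun a ha => ⟨fun x hx => ?_, Ce_537.plOn_const _ _⟩)).congr (fun x hx => ?_)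
      · exact (hred q' x hx.1 hx.2.1 hx.2.2 _ hb).2 a ha
      · exact (hred q' x hx.1 hx.2.1 hx.2.2 _ hb).1
  · -- pltr
    cases q with
    | top c =>
      have : ({x | x ∈ Z ∧ gG T g x = C.b (.top c)} ×ˢ C.cell (.top c) : Set (E' × E)) = ∅ := by
        refine eq_empty_of_forall_notMem (fun p hp => ?_)
        have h1 := hGmem p.1 hp.1.1
        rw [show gG T g p.1 = _ from hp.1.2] at h1
        exact hno c p.1 hp.1.1 (C.le_of_b h1)
      rw [this]
      exact ⟨continuousOn_empty _, ∅, by simp⟩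
    | gr q' =>
      have hle : ∀ p ∈ ({x | x ∈ Z ∧ gG T g x = C.b (.gr q')} ×ˢ C.cell (.gr q') : Set (E' × E)),
          (Cel.gr q' : Cel P m) ≤ gtop hm q0 g p.1 ∧ gG T g p.1 ∈ C.cell (.gr q') := by
        intro p hp
        have h1 := hGmem p.1 hp.1.1
        have h2 : gG T g p.1 = C.b (.gr q') := hp.1.2
        rw [h2] at h1
        exact ⟨C.le_of_b h1, by rw [h2]; exact C.bmem _⟩
      refine (plOn_TL h (σ := fun a (p : E' × E) => co p.2 a - q'.lo a - 1 / 2)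
        (nodup_ls q'.free) (u := fun p : E' × E => p.1)
        (K := {x | x ∈ Z ∧ gG T g x = C.b (.gr q')} ×ˢ C.cell (.gr q'))
        (pl_fst (Ce_537.plOn_id _)) (fun p hp => hp.1.1)
        (fun a ha => ⟨fun p hp => ?_, ?_⟩)).congr (fun p hp => ?_)
      · exact (hred q' p.1 hp.1.1 (hle p hp).1 (hle p hp).2 _ hp.2).2 a ha
      · have h1 : PLOn (fun p : E' × E => co p.2 a)
            ({x | x ∈ Z ∧ gG T g x = C.b (.gr q')} ×ˢ C.cell (.gr q')) :=
          (X.plco q' a).comp (pl_snd (Ce_537.plOn_id _)) (fun p hp => hp.2)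
        exact pl_sub_const (pl_sub_const h1 _) _
      · exact (hred q' p.1 hp.1.1 (hle p hp).1 (hle p hp).2 _ hp.2).1

end Grid

end Crest.Agent.R096.Xp_537
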