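import Crest.Agent.R096.Shp4_334
import Crest.Agent.R096.Mg2_441
import Crest.Agent.R096.Mg4_441
import Crest.Agent.R096.Xq3_537
import Crest.Agent.R096.Ar9_241

/-!
# R096 (row 96), ARR-SH (helper334), part 5: the sheets of 241's transport structure

* `exists_num` : `num` is onto `0, .., mm a - 1`;
* `half_merge` : `G_a = num j + 1/2` iff `G_j = 1/2` (`a = fam j`);
* `free_of_cod` : a grid cell of codimension 2 has exactly one free family;
* `sheetData` : helper241's `SheetData` for all edges of the grid, from `sheet_sphere`.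
-/

set_option autoImplicit false
set_option linter.unusedSectionVars false

open Set Metric Topology Module

namespace Crest.Agent.R096.Shp_334

open Crest.Agent.R096.Ce_537 Crest.Agent.R096.Bd_416 Crest.Agent.R096.Mg_441
  Crest.Agent.R096.Xp_537 Crest.Agent.R096.Grd_714

section num

variable {Q : Type} [PartialOrder Q] {dim : Q → ℕ} {J Fam : Type} {C : Cmb Q dim J Fam}

/-- every number below `mm a` is the number of a sheet of the family `a` -/
theorem exists_num (hfin : ∀ a, {j | C.fam j = a}.Finite) {ℓ : J → ℝ}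
    (hℓ : ∀ j j', j ≠ j' → C.fam j = C.fam j' → ℓ j ≠ ℓ j') (a : Fam) {k : ℕ}
    (hk : k < Mg_441.mm hfin a) : ∃ j, C.fam j = a ∧ num hfin ℓ j = k := by
  classical
  have h1 : (sh hfin a).image (num hfin ℓ) = Finset.range (Mg_441.mm hfin a) := by
    refine Finset.eq_of_subset_of_card_le ?_ ?_
    · intro n hn
      obtain ⟨j, hj, rfl⟩ := Finset.mem_image.1 hn
      rw [mem_sh] at hj
      rw [Finset.mem_range, ← hj]
      exact num_lt hfin ℓ j
    · rw [Finset.card_range, Finset.card_image_of_injOn]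
      · exact le_rfl
      · intro j hj j' hj' h
        rw [Finset.mem_coe, mem_sh] at hj hj'
        exact num_inj hfin hℓ (hj.trans hj'.symm) h
  have h2 : k ∈ (sh hfin a).image (num hfin ℓ) := by rw [h1]; exact Finset.mem_range.2 hk
  obtain ⟨j, hj, e⟩ := Finset.mem_image.1 h2
  exact ⟨j, (mem_sh hfin).1 hj, e⟩

variable {E : Type*} [NormedAddCommGroup E] [NormedSpace ℝ E]
variable {K : Q → Set E} {D : Set Q} {g : Gd E J}
  {P : ∀ q, C.I q → Set E} {c : ∀ q, C.I q → E → ℝ}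

lemma half_notMem_Zs (n : ℕ) : (n : ℝ) + 1/2 ∉ Zs := by
  intro h
  obtain ⟨k, hk⟩ := mem_Zs.1 h
  have h1 : ((2 * k - 2 * n : ℤ) : ℝ) = ((1 : ℤ) : ℝ) := by
    push_cast; linarith
  have h2 : 2 * k - 2 * n = 1 := by exact_mod_cast h1
  omega

/-- **the level `num j + 1/2` of the family is the level `1/2` of the sheet `j`** -/
theorem half_merge (H : Inv C K D g P c) (hfin : ∀ a, {j | C.fam j = a}.Finite) {ℓ : J → ℝ}
    (hO : Ord C ℓ) (hℓ : ∀ j j', j ≠ j' → C.fam j = C.fam j' → ℓ j ≠ ℓ j') {q : Q}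
    (hq : q ∈ D) {j : J} {z : E} (hz : z ∈ K q) :
    (merge hfin g).G (C.fam j) z = num hfin ℓ j + 1/2 ↔ g.G j z = 1/2 := by
  constructor
  · intro h
    have h1 : z ∈ (merge hfin g).B (C.fam j) := by
      refine (inv_merge_is H hfin hq).nB _ z hz ?_
      rw [h]; exact half_notMem_Zs _
    obtain ⟨j', hj', hB⟩ := h1
    have h2 := merge_G_num H hfin hO hq hz hB
    rw [hj', h] at h2
    have h3 := H.G_mem hq j' hz
    have h4 : num hfin ℓ j' = num hfin ℓ j := by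
      have e1 : (num hfin ℓ j' : ℝ) < num hfin ℓ j + 1 := by linarith [h3.1]
      have e2 : (num hfin ℓ j : ℝ) < num hfin ℓ j' + 1 := by linarith [h3.2]
      have e3 : num hfin ℓ j' < num hfin ℓ j + 1 := by exact_mod_cast e1
      have e4 : num hfin ℓ j < num hfin ℓ j' + 1 := by exact_mod_cast e2
      omega
    have h5 : j' = j := num_inj hfin hℓ hj' h4
    subst h5
    linarith
  · intro h
    have h1 : z ∈ g.B j := by
      refine (H.is q hq).nB j z hz ?_
      rw [h]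
      have := half_notMem_Zs 0
      simpa using this
    rw [merge_G_num H hfin hO hq hz h1, h]

end num

/-! ### grid cells of codimension 2 -/

section cod

open Crest.Agent.R096.Ar_241 (dirW cod)

variable {E E' : Type*} [NormedAddCommGroup E] [NormedSpace ℝ E] [FiniteDimensional ℝ E]
  [NormedAddCommGroup E'] [NormedSpace ℝ E'] {Λ : Set E}
  {I : Type*} {Pf : I → Set E} {m : I → ℕ} {C : CC Λ (Cel Pf m)} {T : (I → ℝ) → E}
  {co : E → I → ℝ}

/-- the face at the lower level of the families in `A` -/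
def lowF (q : Gx Pf m) (A : Set I) [DecidablePred (· ∈ A)] : Gx Pf m where
  lo := q.lo
  hi := fun a => if a ∈ A then q.lo a else q.hi a
  le := fun a => by split_ifs; exacts [le_rfl, q.le a]
  le1 := fun a => by split_ifs; exacts [Nat.le_succ _, q.le1 a]
  him := fun a => by split_ifs; exacts [(q.le a).trans (q.him a), q.him a]
  two := by
    obtain ⟨a, a', hne, h, h'⟩ := q.two
    refine ⟨a, a', hne, ?_, ?_⟩
    · split_ifs; exacts [Nat.eq_zero_of_le_zero (h ▸ q.le a), h]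
    · split_ifs; exacts [Nat.eq_zero_of_le_zero (h' ▸ q.le a'), h']
  face := q.face

lemma lowF_le (q : Gx Pf m) (A : Set I) [DecidablePred (· ∈ A)] : lowF q A ≤ q := by
  intro a
  refine ⟨le_rfl, ?_⟩
  show (if a ∈ A then q.lo a else q.hi a) ≤ q.hi a
  split_ifs
  exacts [q.le a, le_rfl]

lemma lowF_free (q : Gx Pf m) (A : Set I) [DecidablePred (· ∈ A)] :
    (lowF q A).free = q.free \ A := by
  ext a
  show q.lo a < (if a ∈ A then q.lo a else q.hi a) ↔ q.lo a < q.hi a ∧ a ∉ A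
  split_ifs with h
  · simp [h]
  · simp [h]

lemma lowF_lt {q : Gx Pf m} {A : Set I} [DecidablePred (· ∈ A)] {a : I} (ha : a ∈ A)
    (hq : a ∈ q.free) : lowF q A < q := by
  refine lt_of_le_of_ne (lowF_le q A) fun h => ?_
  have h1 : a ∈ (lowF q A).free := by rw [h]; exact hq
  rw [lowF_free] at h1
  exact h1.2 ha

include T co in
/-- a grid cell without free families is a point -/
lemma cod_free_empty (OK : GridOK C T co) {q : Gx Pf m} (hq : q.free = ∅) :
    cod C (.gr q) = finrank ℝ E := by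
  have h1 : ∀ t ∈ C.cell (.gr q), t = C.b (.gr q) := by
    intro t ht
    obtain ⟨k1, k2⟩ := OK.co_mem q t ht
    obtain ⟨k3, k4⟩ := OK.co_mem q _ (C.bmem (.gr q))
    have h2 : co t = co (C.b (.gr q)) := by
      funext a
      have ha : a ∉ q.free := by rw [hq]; exact notMem_empty a
      rw [Gx.eq_of_mem ha k1, Gx.eq_of_mem ha k3]
    rw [← k2, h2, k4]
  have h2 : dirW C (.gr q) = ⊥ := by
    unfold dirW
    rw [Submodule.span_eq_bot]
    rintro _ ⟨t, ht, rfl⟩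
    show t - C.b (.gr q) = 0
    rw [h1 t ht, sub_self]
  unfold cod
  rw [h2, finrank_bot, Nat.sub_zero]

/-- **a grid cell of codimension 2 in dimension 3 has exactly one free family** -/
theorem free_of_cod (hΛ : IsOpen Λ) (h3 : finrank ℝ E = 3) (OK : GridOK C T co)
    {q : Cel Pf m} (hq : cod C q = 2) : ∃ q' : Gx Pf m, q = .gr q' ∧ ∃ a, q'.free = {a} := by
  classical
  cases q with
  | top c =>
    exfalso
    have := Ar_241.cod_of_max C hΛ (q := (.top c : Cel Pf m)) (fun r hr => by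
      by_contra hne
      exact Cel.not_top_lt (lt_of_le_of_ne hr (Ne.symm hne)))
    omega
  | gr q =>
    refine ⟨q, rfl, ?_⟩
    have hne : q.free.Nonempty := by
      rw [nonempty_iff_ne_empty]
      intro h
      have := cod_free_empty OK h
      omega
    obtain ⟨a, ha⟩ := hne
    refine ⟨a, ?_⟩
    by_contra hcon
    have h1 : ∃ b ∈ q.free, b ≠ a := by
      by_contra h
      push Not at h
      exact hcon (Subset.antisymm (fun b hb => h b hb) (singleton_subset_iff.2 ha))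
    obtain ⟨b, hb, hba⟩ := h1
    -- the chain `all free low < all but b low < q`
    have e1 : lowF q {x | x ≠ b} < q := lowF_lt (a := a) (Ne.symm hba) ha
    have e2 : lowF (lowF q {x | x ≠ b}) univ < lowF q {x | x ≠ b} := by
      refine lowF_lt (a := b) (mem_univ b) ?_
      rw [lowF_free]
      exact ⟨hb, fun h => h rfl⟩
    have c1 := Ar_241.cod_lt C hΛ (Cel.gr_lt_gr.2 e1)
    have c2 := Ar_241.cod_lt C hΛ (Cel.gr_lt_gr.2 e2)
    have c3 : cod C (.gr (lowF (lowF q {x | x ≠ b}) univ)) = finrank ℝ E := by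
      refine cod_free_empty OK ?_
      rw [lowF_free]
      simp
    have c4 : cod C (.gr (lowF (lowF q {x | x ≠ b}) univ)) ≤ 3 := by rw [c3, h3]
    omega

end cod

/-! ### the sheets of the transport structure -/

section main

open Crest.Agent.R096.Ar_241 (dirW cod Tr0 SheetData CoreData Exact TopC)

variable {Q : Type} [PartialOrder Q] {dim : Q → ℕ} {J Fam : Type} {Cc : Cmb Q dim J Fam}
variable {E' : Type*} [NormedAddCommGroup E'] [NormedSpace ℝ E'] [FiniteDimensional ℝ E']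
variable {K : Q → Set E'} {g : Gd E' J} {P : ∀ q, Cc.I q → Set E'} {c : ∀ q, Cc.I q → E' → ℝ}
  {Ω : Set E'}
variable {E : Type*} [NormedAddCommGroup E] [NormedSpace ℝ E] [FiniteDimensional ℝ E]
  {Λ : Set E} {hfin : ∀ a, {j | Cc.fam j = a}.Finite} {Pf : Fam → Set E}
  {C : CC Λ (Cel Pf (Mg_441.mm hfin))} {T : (Fam → ℝ) → E} {co : E → Fam → ℝ} {G : E' → E}

/-- on the mesh part `X0` the transport structure is the one of the merged mesh -/
structure OnMesh (X : Tr0 Ω C G) (K : Q → Set E') (g : Gd E' J) (T : (Fam → ℝ) → E)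
    (X0 : Set E') : Prop where
  cov : ∀ z ∈ Ω, z ∈ X0 → ∃ p, z ∈ K p ∧ K p ⊆ X0
  G_eq : ∀ z ∈ Ω, z ∈ X0 → G z = gG T (merge hfin g) z
  top_eq : ∀ z ∈ Ω, z ∈ X0 → ∃ r : Gx Pf (Mg_441.mm hfin), X.top z = .gr r ∧
    r.free = {a | z ∈ (merge hfin g).B a} ∧ (fun a => (merge hfin g).G a z) ∈ r.bx

/-- `OnMesh` from 537's `mesh_trnOn` data -/
theorem OnMesh.of_gtop {X : Tr0 Ω C G} {X0 : Set E'} {hm : ∀ c, 0 < Mg_441.mm hfin c}
    {q0 : Cel Pf (Mg_441.mm hfin)} (cov : ∀ z ∈ Ω, z ∈ X0 → ∃ p, z ∈ K p ∧ K p ⊆ X0)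
    (his : ∀ p, K p ⊆ X0 → (merge hfin g).Is (K p))
    (hfB : ∀ z ∈ Ω, z ∈ X0 → {a | z ∈ (merge hfin g).B a}.Finite)
    (hKΩ : ∀ p, K p ⊆ Ω)
    (hG2 : ∀ z ∈ Ω, z ∈ X0 → (fun a => (merge hfin g).G a z) ∈ G2 Pf (Mg_441.mm hfin))
    (G_eq : ∀ z ∈ Ω, z ∈ X0 → G z = gG T (merge hfin g) z)
    (top_eq : ∀ z ∈ Ω, z ∈ X0 → X.top z = gtop hm q0 (merge hfin g) z) :
    OnMesh X K g T X0 where
  cov := cov
  G_eq := G_eq
  top_eq := by
    intro z hz hz0
    obtain ⟨p, hp, hpX⟩ := cov z hz hz0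
    obtain ⟨r, h1, h2, h3, h4⟩ := gtop_spec (hm := hm) (q0 := q0) (his p hpX)
      (fun x hx => hfB x (hKΩ p hx) (hpX hx)) (fun x hx => hG2 x (hKΩ p hx) (hpX hx)) hp
    exact ⟨r, (top_eq z hz hz0).trans h1, h2, lvl_mem (his p hpX) hp h2 h3 h4⟩

variable {X : Tr0 Ω C G} {X0 : Set E'} {ι : Type*} {Kc : ι → Set E'}

lemma OnMesh.co_eq (hM : OnMesh X K g T X0) (OK : GridOK C T co) {z : E'}
    (hz : z ∈ Ω) (hz0 : z ∈ X0) : co (G z) = fun a => (merge hfin g).G a z := by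
  obtain ⟨r, -, -, h⟩ := hM.top_eq z hz hz0
  rw [hM.G_eq z hz hz0]
  exact (OK.T_mem r _ h).2

/-- **the sheet of an edge of the grid** -/
theorem sheetData (hE : Gp_702.ExistStmt) (hN : Gp_702.NormStmt) (hE3 : finrank ℝ E = 3)
    (hE3' : finrank ℝ E' = 3) (hΛ : IsOpen Λ) (hΩ : IsOpen Ω) (H : Inv Cc K univ g P c)
    (Xc : Cplx Ω Q dim K) (hB : ∀ j, Bls Cc K c j) (htop : Top3 Q dim)
    [hPf : ∀ j, Finite (Pce Cc j 3)] (h1 : ∀ j, SH1 Cc j) (hc : ∀ j, SConn Cc j)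
    {ℓ : J → ℝ} (hO : Ord Cc ℓ) (hℓ : ∀ j j', j ≠ j' → Cc.fam j = Cc.fam j' → ℓ j ≠ ℓ j')
    (OK : GridOK C T co) (hM : OnMesh X K g T X0)
    (cov : Ω ⊆ X0 ∪ ⋃ i, Kc i) {q : Cel Pf (Mg_441.mm hfin)} (hq : cod C q = 2)
    (hD : CoreData X Kc X0 1 q) : SheetData X Kc X0 q := by
  classical
  obtain ⟨q', rfl, a, ha⟩ := free_of_cod hΛ hE3 OK hq
  have haf : a ∈ q'.free := by rw [ha]; rfl
  have hhi : q'.hi a = q'.lo a + 1 := Gx.hi_eq haf
  have hlt : q'.lo a < Mg_441.mm hfin a := by have := q'.him a; omega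
  obtain ⟨j, hja, hjn⟩ := exists_num hfin hℓ a hlt
  have hb : ∀ b, co (C.b (.gr q')) b = if b = a then (q'.lo a : ℝ) + 1/2 else q'.hi b := by
    intro b
    rw [OK.co_b]
    split_ifs with h
    · subst h; rw [hhi]; push_cast; ring
    · have hbf : b ∉ q'.free := by rw [ha]; exact h
      rw [Gx.lo_eq hbf]; ring
  have hba : co (C.b (.gr q')) a = (q'.lo a : ℝ) + 1/2 := by rw [hb, if_pos rfl]
  -- membership in the sheet
  have key : ∀ z ∈ Ω, z ∈ X0 → (co (G z) a = co (C.b (.gr q')) a ↔ g.G j z = 1/2) := by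
    intro z hz hz0
    obtain ⟨p, hp, -⟩ := hM.cov z hz hz0
    rw [hM.co_eq OK hz hz0, hba, ← hjn, ← hja]
    exact half_merge H hfin hO hℓ (mem_univ p) hp
  refine ⟨{z | z ∈ Ω ∧ g.G j z = 1/2}, ?_, fun z hz => hz.1, ?_, ?_, ?_⟩
  · exact sheet_sphere hE hN hE3' hΩ H Xc (hB j) htop (h1 j) (hc j)
  · rintro z ⟨⟨hz, hzG⟩, hz0⟩
    refine ⟨hz, (key z hz hz0).1 ?_⟩
    rw [hzG]
  · rintro z ⟨hz, hz2⟩ hzc hzG
    have hz0 : z ∈ X0 := by
      rcases cov hz with h | h
      · exact h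
      · obtain ⟨i, hi⟩ := mem_iUnion.1 h
        exact absurd hi (hzc i)
    obtain ⟨k1, k2⟩ := OK.co_mem q' _ hzG
    obtain ⟨k3, k4⟩ := OK.co_mem q' _ (C.bmem (.gr q'))
    have h2 : co (G z) = co (C.b (.gr q')) := by
      funext b
      by_cases hbb : b = a
      · subst hbb; exact (key z hz hz0).2 hz2
      · have hbf : b ∉ q'.free := by rw [ha]; exact hbb
        rw [Gx.eq_of_mem hbf k1, Gx.eq_of_mem hbf k3]
    rw [← k2, h2, k4]
  · -- a point of the boundary of the fibre on `X0`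
    obtain ⟨s, R, Qc, ⟨i, hi⟩, -, hPi⟩ := hD
    have hp := hPi.pair i hi
    obtain ⟨x, hx⟩ : (Qc i).Nonempty := by
      obtain ⟨e, he⟩ := hp.ball₁
      rw [← he]
      exact ⟨_, mem_image_of_mem _ (show (fun _ => (1:ℝ)) ∈ sph 1 by
        rw [sph, mem_sphere, dist_zero_right, Pi.norm_def]; simp)⟩
    have hxD : x ∈ X.F (.gr q') ∩ Kc i ∩ X0 ∩ R i := by
      have := hp.inter
      rw [this]; exact hx
    have hxS : x ∈ X.S (.gr q') := by
      have := hPi.inter i hi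
      have h2 : x ∈ X.F (.gr q') ∩ Kc i ∩ X.S (.gr q') := by rw [this]; exact hxD.2
      exact h2.2
    have hxΩ : x ∈ Ω := hxS.1
    have hx0 : x ∈ X0 := hxD.1.2
    obtain ⟨r, hr, hrf, hrb⟩ := hM.top_eq x hxΩ hx0
    have hle : q' ≤ r := by
      have h2 := X.F_top hxD.1.1.1
      rw [hr] at h2
      exact Cel.gr_le_gr.1 h2
    have hlt : q' < r := lt_of_le_of_ne hle fun h => hxS.2.2 (by rw [hr, h])
    obtain ⟨hsub, hns⟩ := Gx.free_lt hlt
    obtain ⟨b, hb1, hb2⟩ := not_subset.1 hns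
    have hbB : x ∈ (merge hfin g).B b := by rw [hrf] at hb1; exact hb1
    have hbane : b ≠ a := by rw [ha] at hb2; exact hb2
    obtain ⟨p, hxp, hpX⟩ := hM.cov x hxΩ hx0
    have hI := inv_merge_is H hfin (mem_univ p)
    -- move in the direction `b`
    obtain ⟨t, ht, htne⟩ : ∃ t ∈ I2, (merge hfin g).lev b x + 1/2 + t ≠ (merge hfin g).G b x := by
      by_cases h0 : (merge hfin g).lev b x + 1/2 + 0 = (merge hfin g).G b x
      · exact ⟨1/2, by constructor <;> norm_num, by rw [← h0]; norm_num⟩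
      · exact ⟨0, by constructor <;> norm_num, h0⟩
    have hz'K := hI.tZ b x hxp hbB t ht
    have hz'Ω : (merge hfin g).tr b (x, t) ∈ Ω := Xc.sub p hz'K
    have hz'0 : (merge hfin g).tr b (x, t) ∈ X0 := hpX hz'K
    have hGa : co (G x) a = co (C.b (.gr q')) a := by rw [hxS.2.1]
    refine ⟨(merge hfin g).tr b (x, t), ⟨hz'Ω, ?_⟩, ?_⟩
    · rw [← key _ hz'Ω hz'0, ← hGa, hM.co_eq OK hz'Ω hz'0, hM.co_eq OK hxΩ hx0]
      exact hI.oG b a hbane x hxp hbB t ht
    · rintro ⟨-, hcon⟩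
      apply htne
      have h4 : co (G ((merge hfin g).tr b (x, t))) b = co (G x) b := by
        rw [hcon, hxS.2.1]
      rw [hM.co_eq OK hz'Ω hz'0, hM.co_eq OK hxΩ hx0] at h4
      exact (hI.tG b x hxp hbB t ht).symm.trans h4

/-- **the sheets of 241's `Exact.balls` / `Exact.trn`** -/
theorem exact_sheets (hE : Gp_702.ExistStmt) (hN : Gp_702.NormStmt) (hE3 : finrank ℝ E = 3)
    (hE3' : finrank ℝ E' = 3) (hΛ : IsOpen Λ) (hΩ : IsOpen Ω) (H : Inv Cc K univ g P c)
    (Xc : Cplx Ω Q dim K) (hB : ∀ j, Bls Cc K c j) (htop : Top3 Q dim)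
    [hPf : ∀ j, Finite (Pce Cc j 3)] (h1 : ∀ j, SH1 Cc j) (hc : ∀ j, SConn Cc j)
    {ℓ : J → ℝ} (hO : Ord Cc ℓ) (hℓ : ∀ j j', j ≠ j' → Cc.fam j = Cc.fam j' → ℓ j ≠ ℓ j')
    (OK : GridOK C T co) (hM : OnMesh X K g T X0)
    {κ θ : TopC (Cel Pf (Mg_441.mm hfin)) → ℝ} {Kt : TopC (Cel Pf (Mg_441.mm hfin)) → Set E'}
    (cov : Ω ⊆ X0 ∪ ⋃ i, Kt i) (hX : Exact X κ θ Kt X0) :
    ∀ q, cod C q = 2 → SheetData X Kt X0 q := fun _ hq =>
  sheetData hE hN hE3 hE3' hΛ hΩ H Xc hB htop h1 hc hO hℓ OK hM cov hq (hX.coreData hΛ hq)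

end main

end Crest.Agent.R096.Shp_334
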