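import Crest.Agent.R096.Fin1_147
import Crest.Agent.R096.Shp5_334

/-!
# R096 (row 96), bottom assembly, part 2 (helper147): MACH-INST, FIN-TRN

`Giants`: the charts of the giant cells, equal to the mesh structure on their boundaries.
`Giants.mach` : `Mach` of helper537.  `Giants.trn` : the transport structure `Trn` (all fibres balls)
from arcs and sheets.
-/

set_option autoImplicit false
set_option linter.unusedSectionVars false
set_option linter.style.longLine false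

open Set Filter Topology Metric Module

namespace Crest.Agent.R096.Fin_147

open Crest.Agent.R096.Ce_537 (PLOn PLEquiv cube sph IsBall Cplx)
open Crest.Agent.R096.Bd_416 Crest.Agent.R096.Grd_714 Crest.Agent.R096.Mg_441
open Crest.Agent.R096.Xp_537
open Crest.Agent.R096.Ar_241 (Tr0 TopC Exact cod SheetData)
open Crest.Agent.R096.Ar_241.Tr0 (P2)
open Crest.Agent.R096.Shp_334 (OnMesh)

variable {Q : Type} [PartialOrder Q] {dim : Q → ℕ} {J Fam : Type}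
variable {E' : Type*} [NormedAddCommGroup E'] [NormedSpace ℝ E']
variable {E : Type*} [NormedAddCommGroup E] [NormedSpace ℝ E] {Pf : Fam → Set E}

/-- **the charts of the giant cells** (one for every top cell of the grid): `Th c` maps `Kt c` to the
whole cell; on the boundary the structure read off `Th c` is the structure of the mesh. -/
structure Giants {Cc : Cmb Q dim J Fam} (hfin : ∀ a, {j | Cc.fam j = a}.Finite)
    (hm : ∀ a, 0 < mm hfin a) (q0 : Cel Pf (mm hfin)) (Ω X0 : Set E') (g : Gd E' J) {Λ : Set E}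
    (C : CC Λ (Cel Pf (mm hfin))) (T : (Fam → ℝ) → E) (co : E → Fam → ℝ)
    (κ : TopC (Cel Pf (mm hfin)) → ℝ) (Kt : TopC (Cel Pf (mm hfin)) → Set E')
    (Th : ∀ c, PLEquiv (Kt c) (coreF C (κ c) c.1 0)) : Prop where
  κpos : ∀ c, 0 < κ c ∧ κ c < 1
  sub : ∀ c, Kt c ⊆ Ω
  cov : Ω ⊆ X0 ∪ ⋃ c, Kt c
  disj : ∀ c c', c ≠ c' → Disjoint (Kt c) (Kt c')
  lf : ∀ x ∈ Ω, ∃ U ∈ 𝓝 x, {c | (Kt c ∩ U).Nonempty}.Finite
  bd : ∀ c, ∀ x ∈ Kt c, x ∈ X0 ↔ sl C (κ c) ((Th c).f x) c.1 = 0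
  agG : ∀ c, ∀ x ∈ Kt c, x ∈ X0 → gG T (merge hfin g) x = cG C (κ c) (Th c).f x
  agT : ∀ c, ∀ x ∈ Kt c, x ∈ X0 →
    gtop hm q0 (merge hfin g) x = ctop C (κ c) c.1 (Th c).f x
  agt : ∀ c, ∀ x ∈ Kt c, x ∈ X0 → ∀ t ∈ C.cell (gtop hm q0 (merge hfin g) x),
    gtr co (merge hfin g) x t = ctr C (κ c) (Th c).f (Th c).g x t

variable [FiniteDimensional ℝ E]
variable {Cc : Cmb Q dim J Fam} {K : Q → Set E'} {g : Gd E' J}
  {P : ∀ q, Cc.I q → Set E'} {c : ∀ q, Cc.I q → E' → ℝ}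
variable {hfin : ∀ a, {j | Cc.fam j = a}.Finite} {hm : ∀ a, 0 < mm hfin a}
  {q0 : Cel Pf (mm hfin)} {Ω X0 : Set E'} {Λ : Set E} {C : CC Λ (Cel Pf (mm hfin))}
  {T : (Fam → ℝ) → E} {co : E → Fam → ℝ} {κ : TopC (Cel Pf (mm hfin)) → ℝ}
  {Kt : TopC (Cel Pf (mm hfin)) → Set E'} {Th : ∀ c, PLEquiv (Kt c) (coreF C (κ c) c.1 0)}

/-- **MACH-INST** -/
theorem Giants.mach (h : Giants hfin hm q0 Ω X0 g C T co κ Kt Th) (hX0 : IsClosed X0)
    (Xc : Cplx (Ω ∩ X0) Q dim K) (H : Inv Cc K univ g P c) (OK : GridOK C T co)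
    (ex : ∀ q, ∃ y, Ex Cc Pf q y)
    (prop : ∀ r, ∃ A ⊆ Ω, IsCompact A ∧
      ∀ q, ∀ x ∈ K q, gG T (merge hfin g) x ∈ C.cell r → x ∈ A) :
    Mach Ω C K (fun _ => gG T (merge hfin g)) (fun _ => gtop hm q0 (merge hfin g))
      (fun _ => gtr co (merge hfin g)) κ (fun _ => 0) Kt Th where
  κpos := h.κpos
  θ0 := fun _ => le_rfl
  θ1 := fun _ => zero_lt_one
  closed := fun q => Xc.isClosed q
  subZ := fun q x hx => (Xc.sub q hx).1
  subK := h.sub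
  cov := fun x hx => by
    rcases h.cov hx with h1 | h1
    · obtain ⟨q, hq⟩ := Xc.cover x ⟨hx, h1⟩
      exact Or.inl ⟨q, hq⟩
    · exact Or.inr (mem_iUnion.1 h1)
  on := fun q => by
    obtain ⟨y, hy⟩ := ex q
    exact on_cell H hfin OK hm q0 (mem_univ q) hy
  cont := fun q => by
    obtain ⟨y, hy⟩ := ex q
    exact (plOn_gG H hfin OK (fun q => Xc.isClosed q) (mem_univ q) hy).1
  agG := fun _ _ _ _ _ => rfl
  agT := fun _ _ _ _ _ => rfl
  agt := fun _ _ _ _ _ _ _ => rfl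
  bgG := fun q c x hx hxc => h.agG c x hxc (Xc.sub q hx).2
  bgT := fun q c x hx hxc => h.agT c x hxc (Xc.sub q hx).2
  bgt := fun q c x hx hxc t ht => h.agt c x hxc (Xc.sub q hx).2 t ht
  disj := h.disj
  bdry := fun c x hx => by
    rw [← h.bd c x hx]
    constructor
    · rintro ⟨q, hq⟩
      exact (Xc.sub q hq).2
    · intro h1
      exact Xc.cover x ⟨h.sub c hx, h1⟩
  ntop := fun q x hx => by
    obtain ⟨y, hy⟩ := ex q
    obtain ⟨b, hb, -⟩ := gtop_spec (hm := hm) (q0 := q0) (inv_merge_is H hfin (mem_univ q))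
      (fun _ hx => finite_B H hfin (mem_univ q) hx)
      (fun _ hx => Nr_527.merge_mem_G2 H hfin hm (mem_univ q) hx hy) hx
    obtain ⟨a, ha⟩ := At_241.gr_lt b
    exact ⟨.top a, by rw [hb]; exact ha⟩
  lfZ := fun x hx => by
    by_cases h0 : x ∈ X0
    · obtain ⟨r, hr, hf⟩ := Xc.lf x ⟨hx, h0⟩
      exact ⟨ball x r, ball_mem_nhds x hr, hf⟩
    · refine ⟨X0ᶜ, hX0.isOpen_compl.mem_nhds h0, ?_⟩
      have : {q | (K q ∩ X0ᶜ).Nonempty} = ∅ := by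
        ext q
        simp only [mem_ofPred_eq, mem_empty_iff_false, iff_false]
        rintro ⟨z, hz, hz'⟩
        exact hz' (Xc.sub q hz).2
      rw [this]; exact Set.finite_empty
  lfK := h.lf
  prop := prop

/-! ### the transport structure -/

section trn

variable [FiniteDimensional ℝ E']

/-- the mesh part -/
def XM (Ω : Set E') (K : Q → Set E') : Set E' := Ωᶜ ∪ ⋃ q, K q

/-- **the global structure from the mesh and the giants** -/
theorem Giants.exact (h : Giants hfin hm q0 Ω X0 g C T co κ Kt Th) [Nonempty Q]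
    (hX0 : IsClosed X0)
    (Xc : Cplx (Ω ∩ X0) Q dim K) (H : Inv Cc K univ g P c) (OK : GridOK C T co)
    (ex : ∀ q, ∃ y, Ex Cc Pf q y)
    (prop : ∀ r, ∃ A ⊆ Ω, IsCompact A ∧
      ∀ q, ∀ x ∈ K q, gG T (merge hfin g) x ∈ C.cell r → x ∈ A) :
    ∃ (G : E' → E) (X : Tr0 Ω C G), Nonempty (Exact X κ (fun _ => 0) Kt (XM Ω K)) ∧
      OnMesh X K g T (XM Ω K) ∧ (∀ q, IsCompact (X.F q)) ∧ ContinuousOn G Ω ∧
      (∀ q, ∀ x ∈ K q, G x = gG T (merge hfin g) x) ∧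
      (∀ q, ∀ x ∈ K q, X.top x = gtop hm q0 (merge hfin g) x) ∧
      (∀ q, ∀ x ∈ K q, ∀ t ∈ C.cell (X.top x), X.tr x t = gtr co (merge hfin g) x t) ∧
      (∀ c, ∀ x ∈ Kt c, G x = cG C (κ c) (Th c).f x) ∧
      (∀ c, ∀ x ∈ Kt c, X.top x = ctop C (κ c) c.1 (Th c).f x) ∧
      (∀ c, ∀ x ∈ Kt c, ∀ t ∈ C.cell (X.top x),
        X.tr x t = ctr C (κ c) (Th c).f (Th c).g x t) := by
  have M := h.mach hX0 Xc H OK ex prop
  have hmem : ∀ z ∈ Ω, z ∈ XM Ω K → ∃ q, z ∈ K q := by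
    rintro z hz (h1 | h1)
    · exact absurd hz h1
    · exact mem_iUnion.1 h1
  have eG : ∀ q, ∀ x ∈ K q, gluG (Mach.ZZ K Kt) (Mach.GG C (fun _ => gG T (merge hfin g)) κ
      (fun _ => 0) Th) x = gG T (merge hfin g) x := fun q x hx => M.pcs.G_eq (i := Sum.inl q) hx
  have eT : ∀ q, ∀ x ∈ K q, M.pcs.tr0.top x = gtop hm q0 (merge hfin g) x :=
    fun q x hx => M.pcs.top_eq (i := Sum.inl q) hx
  refine ⟨_, M.pcs.tr0, ⟨M.exact⟩, ?_, fun q => M.pcs.isCompact_F q, M.pcs.contOn, eG, eT, ?_,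
    fun c x hx => M.pcs.G_eq (i := Sum.inr c) hx, fun c x hx => M.pcs.top_eq (i := Sum.inr c) hx,
    ?_⟩
  · refine OnMesh.of_gtop (hm := hm) (q0 := q0) (fun z hz hz0 => ?_) (fun p _ =>
      inv_merge_is H hfin (mem_univ p)) (fun z hz hz0 => ?_) (fun p x hx => (Xc.sub p hx).1)
      (fun z hz hz0 => ?_) (fun z hz hz0 => ?_) (fun z hz hz0 => ?_)
    · obtain ⟨q, hq⟩ := hmem z hz hz0
      exact ⟨q, hq, fun x hx => Or.inr (mem_iUnion.2 ⟨q, hx⟩)⟩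
    · obtain ⟨q, hq⟩ := hmem z hz hz0
      exact finite_B H hfin (mem_univ q) hq
    · obtain ⟨q, hq⟩ := hmem z hz hz0
      obtain ⟨y, hy⟩ := ex q
      exact Nr_527.merge_mem_G2 H hfin hm (mem_univ q) hq hy
    · obtain ⟨q, hq⟩ := hmem z hz hz0
      exact eG q z hq
    · obtain ⟨q, hq⟩ := hmem z hz hz0
      exact eT q z hq
  · intro q x hx t ht
    refine M.pcs.tr_eq (i := Sum.inl q) hx ?_
    have h1 := eT q x hx
    rw [h1] at ht
    exact ht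
  · intro c x hx t ht
    refine M.pcs.tr_eq (i := Sum.inr c) hx ?_
    have h1 : M.pcs.tr0.top x = ctop C (κ c) c.1 (Th c).f x :=
      M.pcs.top_eq (i := Sum.inr c) hx
    rw [h1] at ht
    exact ht

/-- **FIN-TRN** : all fibres are balls, from arcs and sheets -/
theorem Giants.trn (h : Giants hfin hm q0 Ω X0 g C T co κ Kt Th) [Nonempty Q]
    (hX0 : IsClosed X0)
    (Xc : Cplx (Ω ∩ X0) Q dim K) (H : Inv Cc K univ g P c) (OK : GridOK C T co)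
    (ex : ∀ q, ∃ y, Ex Cc Pf q y)
    (prop : ∀ r, ∃ A ⊆ Ω, IsCompact A ∧
      ∀ q, ∀ x ∈ K q, gG T (merge hfin g) x ∈ C.cell r → x ∈ A)
    (hΛ : IsOpen Λ) (hΩ : IsOpen Ω) (hE : finrank ℝ E = 3) (hP : P2 E' 3)
    (hdim : ∀ q, C.dim q ≤ 3)
    (bd : ∀ c, ∀ x ∈ Kt c, x ∈ X0 → ∀ ε > (0:ℝ), ∃ z ∈ ball x ε, z ∉ Kt c)
    (arcs : ∀ (G : E' → E) (X : Tr0 Ω C G), OnMesh X K g T (XM Ω K) →
      Nonempty (Exact X κ (fun _ => 0) Kt (XM Ω K)) → ∀ q, cod C q = 1 →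
      IsBall 1 (X.F q ∩ XM Ω K) (X.F q ∩ XM Ω K ∩ ⋃ c, Kt c))
    (sheets : ∀ (G : E' → E) (X : Tr0 Ω C G), OnMesh X K g T (XM Ω K) →
      Nonempty (Exact X κ (fun _ => 0) Kt (XM Ω K)) → ∀ q, cod C q = 2 →
      SheetData X Kt (XM Ω K) q) :
    ∃ (G : E' → E) (_ : Trn Ω C G), ContinuousOn G Ω ∧
      (∀ q, ∀ x ∈ K q, G x = gG T (merge hfin g) x) ∧
      (∀ c, ∀ x ∈ Kt c, G x = cG C (κ c) (Th c).f x) := by
  obtain ⟨G, X, ⟨hEx⟩, hOn, hc, hcont, hG, -, -, hGc, -, -⟩ := h.exact hX0 Xc H OK ex prop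
  have hMc : IsClosed (XM Ω K) := by
    have := (h.mach hX0 Xc H OK ex prop).isClosed_X0 hΩ
    exact this
  have hcov : Ω ⊆ XM Ω K ∪ ⋃ c, Kt c := (h.mach hX0 Xc H OK ex prop).cov_X0
  refine ⟨G, hEx.trn hΛ hΩ hE hP hdim hc hMc hcov ?_ (arcs G X hOn ⟨hEx⟩)
    (sheets G X hOn ⟨hEx⟩), hcont, hG, hGc⟩
  intro c x hx hx0 ε hε
  refine bd c x hx ?_ ε hε
  rcases hx0 with h1 | h1
  · exact absurd (h.sub c hx) h1
  · obtain ⟨q, hq⟩ := mem_iUnion.1 h1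
    exact (Xc.sub q hq).2

end trn

end Crest.Agent.R096.Fin_147
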