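import Crest.Agent.R096.Brk1_582

/-!
# Simple foams: continuity of `T` and `s_c`, level spheres, chain formula, quads
-/

set_option autoImplicit false
set_option linter.unusedSectionVars false
set_option linter.style.haveILetI false
open Set Filter Topology MeasureTheory

namespace Crest.Agent.R096.Brk2_582

open Crest.Agent.R096.Brk1_582

variable {E : Type*} [NormedAddCommGroup E] [NormedSpace ℝ E] [CompleteSpace E] {I : Type*}
variable {La : Set E} {P : I → Set E} {b : Set I → E} {N : ℕ}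

/-- Lipschitz bound for `T` -/
theorem norm_T_sub_le {u v : I → ℝ} (hu : {c | u c < 1}.Finite) (hv : {c | v c < 1}.Finite)
    (S : Finset I) (hS : ∀ c, c ∉ S → u c = v c) {D : ℝ} (hD0 : 0 ≤ D)
    (hD : ∀ τ ∈ Ioo (0 : ℝ) 1, ‖b {c | u c ≤ τ} - b {c | v c ≤ τ}‖ ≤ D) :
    ‖T b u - T b v‖ ≤ D * ∑ c ∈ S, |u c - v c| := by
  classical
  rw [T, T, ← intervalIntegral.integral_sub (integr hu zero_le_one le_rfl)
    (integr hv zero_le_one le_rfl)]
  have hint : ∀ c, IntervalIntegrable
      (fun τ => (Ico (min (u c) (v c)) (max (u c) (v c))).indicator (fun _ => (1 : ℝ)) τ)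
      volume 0 1 := by
    intro c
    rw [intervalIntegrable_iff]
    exact (integrableOn_const (by simp [uIoc])).indicator measurableSet_Ico
  have h1 := intervalIntegral.norm_integral_le_of_norm_le (μ := volume) (a := 0) (b := 1)
    (f := fun τ => b {c | u c ≤ τ} - b {c | v c ≤ τ})
    (g := fun τ => D * ∑ c ∈ S,
      (Ico (min (u c) (v c)) (max (u c) (v c))).indicator (fun _ => (1 : ℝ)) τ)
    zero_le_one ?_ ?_
  · refine h1.trans ?_
    rw [intervalIntegral.integral_const_mul]
    refine mul_le_mul_of_nonneg_left ?_ hD0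
    rw [intervalIntegral.integral_finsetSum fun c _ => hint c]
    refine Finset.sum_le_sum fun c _ => ?_
    rw [intervalIntegral.integral_of_le zero_le_one, integral_indicator measurableSet_Ico,
      Measure.restrict_restrict measurableSet_Ico]
    simp only [integral_const, smul_eq_mul, mul_one, measureReal_restrict_apply_univ]
    refine (measureReal_mono inter_subset_left (by simp)).trans ?_
    rw [Real.volume_real_Ico_of_le min_le_max, max_sub_min_eq_abs, abs_sub_comm]
  · have h0 : ∀ᵐ τ : ℝ ∂volume, τ ≠ 1 := by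
      simp [ae_iff]
    filter_upwards [h0] with τ hτ1 hτ
    have hτ' : τ ∈ Ioo (0 : ℝ) 1 := ⟨hτ.1, lt_of_le_of_ne hτ.2 hτ1⟩
    by_cases h : ∃ c ∈ S, τ ∈ Ico (min (u c) (v c)) (max (u c) (v c))
    · obtain ⟨c, hc, hτc⟩ := h
      refine (hD τ hτ').trans ?_
      have : (1 : ℝ) ≤ ∑ c ∈ S,
          (Ico (min (u c) (v c)) (max (u c) (v c))).indicator (fun _ => (1 : ℝ)) τ := by
        have h2 := Finset.single_le_sum (f := fun c =>
          (Ico (min (u c) (v c)) (max (u c) (v c))).indicator (fun _ => (1 : ℝ)) τ)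
          (fun c _ => indicator_nonneg (fun _ _ => zero_le_one) _) hc
        simpa [indicator_of_mem hτc] using h2
      nlinarith
    · push Not at h
      have : {c | u c ≤ τ} = {c | v c ≤ τ} := by
        ext c
        simp only [mem_ofPred_eq]
        by_cases hc : c ∈ S
        · have := h c hc
          simp only [mem_Ico, not_and, not_lt] at this
          constructor
          · intro h1
            by_contra h2
            push Not at h2
            have := this (min_le_of_left_le h1)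
            exact absurd ((le_max_right _ _).trans this) (not_le.2 h2)
          · intro h1
            by_contra h2
            push Not at h2
            have := this (min_le_of_right_le h1)
            exact absurd ((le_max_left _ _).trans this) (not_le.2 h2)
        · rw [hS c hc]
      rw [this, sub_self, norm_zero]
      exact mul_nonneg hD0 (Finset.sum_nonneg fun c _ => indicator_nonneg (fun _ _ => zero_le_one) _)
  · have h2 := (IntervalIntegrable.sum S fun c _ => hint c).const_mul D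
    simpa only [Finset.sum_apply] using h2

section cont

variable (F : Foam La P b N)

include F

/-- all cells of a common face with `c0` touch `P c0` -/
theorem lt_one_sub {u : I → ℝ} (hu : u ∈ K P) {c0 : I} (h0 : u c0 < 1) :
    {c | u c < 1} ⊆ {c | (P c ∩ P c0).Nonempty} := by
  obtain ⟨y, hy⟩ := hu.2.2
  intro c hc
  exact ⟨y, mem_fc.1 hy c hc, mem_fc.1 hy c0 h0⟩

theorem finite_touch (c0 : I) : {c | (P c ∩ P c0).Nonempty}.Finite :=
  F.finite_meet (F.cpt c0) (F.sub c0)

omit F in
theorem exists_bound {C : Set I} (hC : C.Finite) :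
    ∃ D : ℝ, 0 ≤ D ∧ ∀ A A' : Set I, A ⊆ C → A' ⊆ C → ‖b A - b A'‖ ≤ D := by
  obtain ⟨D, hD⟩ := ((hC.finite_subsets.image fun A => ‖b A‖)).bddAbove
  refine ⟨2 * max D 0, by positivity, fun A A' hA hA' => (norm_sub_le _ _).trans ?_⟩
  have h1 : ‖b A‖ ≤ D := hD ⟨A, hA, rfl⟩
  have h2 : ‖b A'‖ ≤ D := hD ⟨A', hA', rfl⟩
  have := le_max_left D 0
  linarith

/-- `T` is continuous on the cube complex (product topology) -/
theorem continuousOn_T : ContinuousOn (T b) (K P) := by
  classical
  intro u0 hu0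
  obtain ⟨c0, hc0⟩ := hu0.2.1
  have hfin := finite_touch F c0
  obtain ⟨D, hD0, hD⟩ := exists_bound (b := b) hfin
  have key : ∀ u ∈ K P, u c0 < 1 → ‖T b u - T b u0‖ ≤ D * ∑ c ∈ hfin.toFinset, |u c - u0 c| := by
    intro u hu hlt
    have h1 := lt_one_sub F hu hlt
    have h2 := lt_one_sub F hu0 (c0 := c0) (by rw [hc0]; exact one_pos)
    refine norm_T_sub_le (F.K_finite hu) (F.K_finite hu0) _ ?_ hD0 ?_
    · intro c hc
      have hc' : ¬ (P c ∩ P c0).Nonempty := by simpa using hc
      have a1 : ¬ u c < 1 := fun h => hc' (h1 h)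
      have a2 : ¬ u0 c < 1 := fun h => hc' (h2 h)
      linarith [(hu.1 c).2, (hu0.1 c).2, not_lt.1 a1, not_lt.1 a2]
    · intro τ hτ
      refine hD _ _ (fun c (hc : u c ≤ τ) => h1 (hc.trans_lt hτ.2))
        (fun c (hc : u0 c ≤ τ) => h2 (hc.trans_lt hτ.2))
  rw [ContinuousWithinAt, tendsto_iff_norm_sub_tendsto_zero]
  have hlim : Tendsto (fun u : I → ℝ => D * ∑ c ∈ hfin.toFinset, |u c - u0 c|) (𝓝[K P] u0)
      (𝓝 0) := by
    have hcont : Continuous (fun u : I → ℝ => D * ∑ c ∈ hfin.toFinset, |u c - u0 c|) := by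
      fun_prop
    have := hcont.tendsto u0
    simp only [sub_self, abs_zero, Finset.sum_const_zero, mul_zero] at this
    exact this.mono_left nhdsWithin_le_nhds
  refine squeeze_zero' (Eventually.of_forall fun _ => norm_nonneg _) ?_ hlim
  have hnear : ∀ᶠ u : I → ℝ in 𝓝[K P] u0, u c0 < 1 := by
    have : Continuous (fun u : I → ℝ => u c0) := continuous_apply c0
    have h := this.tendsto u0
    rw [hc0] at h
    exact (h.eventually (gt_mem_nhds one_pos)).filter_mono nhdsWithin_le_nhds
  filter_upwards [hnear, self_mem_nhdsWithin] with u hu1 huK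
  exact key u huK hu1

/-- the part of the cube complex supported in a finite set of cells is compact -/
theorem isCompact_KC {C : Set I} (hC : C.Finite) : IsCompact {u ∈ K P | ∀ c, c ∉ C → u c = 1} := by
  classical
  let G : Set I → Set (I → ℝ) := fun B =>
    {u | (∀ c, u c ∈ Icc (0 : ℝ) 1) ∧ (∀ c, c ∉ B → u c = 1) ∧ ∃ c ∈ B, u c = 0}
  have hG : ∀ B : Set I, B.Finite → IsCompact (G B) := by
    intro B hB
    have h1 : IsCompact (Set.univ.pi fun _ : I => Icc (0 : ℝ) 1) :=
      isCompact_univ_pi fun _ => isCompact_Icc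
    refine h1.of_isClosed_subset ?_ (fun u hu c _ => hu.1 c)
    have e : G B = (⋂ c, {u : I → ℝ | u c ∈ Icc (0 : ℝ) 1}) ∩
        ((⋂ c, ⋂ (_ : c ∉ B), {u : I → ℝ | u c = 1}) ∩ ⋃ c ∈ B, {u : I → ℝ | u c = 0}) := by
      ext u
      simp [G]
    rw [e]
    refine IsClosed.inter ?_ (IsClosed.inter ?_ ?_)
    · exact isClosed_iInter fun c => isClosed_Icc.preimage (continuous_apply c)
    · exact isClosed_iInter fun c => isClosed_iInter fun _ =>
        isClosed_eq (continuous_apply c) continuous_const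
    · exact hB.isClosed_biUnion fun c _ => isClosed_eq (continuous_apply c) continuous_const
  have e : {u ∈ K P | ∀ c, c ∉ C → u c = 1} = ⋃ B ∈ {B : Set I | B ⊆ C ∧ (fc P B).Nonempty}, G B := by
    ext u
    simp only [mem_iUnion, mem_ofPred_eq, exists_prop]
    constructor
    · rintro ⟨hu, huC⟩
      refine ⟨{c | u c < 1}, ⟨fun c hc => ?_, hu.2.2⟩, fun c => hu.1 c, fun c hc => ?_, ?_⟩
      · by_contra h
        have h1 : u c < 1 := hc
        rw [huC c h] at h1
        exact lt_irrefl _ h1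
      · exact le_antisymm (hu.1 c).2 (not_lt.1 hc)
      · obtain ⟨c, hc⟩ := hu.2.1
        exact ⟨c, by simp [hc], hc⟩
    · rintro ⟨B, ⟨hBC, hB⟩, h1, h2, c, hc, hc0⟩
      refine ⟨⟨h1, ⟨c, hc0⟩, hB.mono (fc_anti fun c' hc' => ?_)⟩, fun c hc => h2 c fun h => hc (hBC h)⟩
      by_contra h
      have h3 : u c' < 1 := hc'
      rw [h2 c' h] at h3
      exact lt_irrefl _ h3
  rw [e]
  refine Set.Finite.isCompact_biUnion (hC.finite_subsets.subset fun B hB => hB.1) fun B hB =>
    hG B (hC.subset hB.1)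

/-- **the coordinates are continuous** -/
theorem continuousOn_sc : ContinuousOn (sc P b) La := by
  intro y0 hy0
  -- finitely many cells near `y0`, and their neighbours
  obtain ⟨r, hr, hfin⟩ := F.lf y0 hy0
  let C : Set I := ⋃ c ∈ {c | (P c ∩ Metric.ball y0 r).Nonempty}, {c' | (P c' ∩ P c).Nonempty}
  have hC : C.Finite := hfin.biUnion fun c _ => finite_touch F c
  set KC : Set (I → ℝ) := {u ∈ K P | ∀ c, c ∉ C → u c = 1} with hKC
  have hKCc : IsCompact KC := isCompact_KC F hC
  have hTc : ContinuousOn (T b) KC := (continuousOn_T F).mono fun u hu => hu.1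
  have hsub : Metric.ball y0 r ∩ La ⊆ T b '' KC := by
    rintro y ⟨hy, hyL⟩
    refine ⟨sc P b y, ⟨F.sc_mem_K hyL, fun c hc => ?_⟩, F.T_sc hyL⟩
    by_contra h
    have hlt : sc P b y c < 1 := lt_of_le_of_ne (F.sc_le_one hyL c) h
    obtain ⟨c1, hc1⟩ := (F.sc_mem_K hyL).2.1
    have hc1y : y ∈ P c1 := (F.sc_eq_zero hyL).1 hc1
    apply hc
    refine mem_biUnion (show c1 ∈ {c | (P c ∩ Metric.ball y0 r).Nonempty} from ⟨y, hc1y, hy⟩) ?_
    exact lt_one_sub F (F.sc_mem_K hyL) (c0 := c1) (by rw [hc1]; exact one_pos) hlt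
  have hcont : ContinuousOn (sc P b) (T b '' KC) := by
    rw [continuousOn_iff_isClosed]
    intro t ht
    refine ⟨T b '' (KC ∩ t), ((hKCc.inter_right ht).image_of_continuousOn
      (hTc.mono inter_subset_left)).isClosed, ?_⟩
    ext y
    constructor
    · rintro ⟨hyt, u, hu, rfl⟩
      have : sc P b (T b u) = u := F.sc_T hu.1
      refine ⟨⟨u, ⟨hu, ?_⟩, rfl⟩, u, hu, rfl⟩
      rw [← this]; exact hyt
    · rintro ⟨⟨u, hu, rfl⟩, -⟩
      refine ⟨?_, u, hu.1, rfl⟩
      have : sc P b (T b u) = u := F.sc_T hu.1.1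
      change sc P b (T b u) ∈ t
      rw [this]; exact hu.2
  have hnh : Metric.ball y0 r ∩ La ∈ 𝓝 y0 :=
    inter_mem (Metric.ball_mem_nhds y0 hr) (F.op.mem_nhds hy0)
  have : ContinuousAt (sc P b) y0 :=
    (hcont.mono hsub).continuousAt hnh
  exact this.continuousWithinAt

theorem continuousOn_sc_apply (c : I) : ContinuousOn (fun y => sc P b y c) La :=
  (continuous_apply c).comp_continuousOn (continuousOn_sc F)

/-! ### moving one coordinate: the level spheres -/

omit F [CompleteSpace E] in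
theorem update_mem_K [DecidableEq I] {u : I → ℝ} (hu : u ∈ K P) {c : I} (hc : u c < 1)
    (hz : ∃ c', c' ≠ c ∧ u c' = 0) {s : ℝ} (hs0 : 0 ≤ s) (hs1 : s < 1) :
    Function.update u c s ∈ K P := by
  refine ⟨fun c' => ?_, ?_, ?_⟩
  · by_cases h : c' = c
    · subst h; simp [hs0, hs1.le]
    · simp [h, hu.1 c']
  · obtain ⟨c', hne, h0⟩ := hz
    exact ⟨c', by simp [hne, h0]⟩
  · have : {c' | Function.update u c s c' < 1} = {c' | u c' < 1} := by
      ext c'
      by_cases h : c' = c
      · subst h; simp [hs1, hc]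
      · simp [h]
    rw [this]; exact hu.2.2

/-- the level `s` of the cell `c` (for `s = 0`: the boundary of the cell) -/
def Lset (La : Set E) (P : I → Set E) (b : Set I → E) (c : I) (s : ℝ) : Set E :=
  {y ∈ La | sc P b y c = s ∧ ∃ c', c' ≠ c ∧ y ∈ P c'}

omit F in
/-- move the coordinate `c` to the value `s` -/
noncomputable def mv [DecidableEq I] (P : I → Set E) (b : Set I → E) (c : I) (s : ℝ) (y : E) : E :=
  T b (Function.update (sc P b y) c s)

theorem mem_Lset_of_pos {c : I} {s : ℝ} (hs : s ≠ 0) {y : E} (hy : y ∈ La)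
    (h : sc P b y c = s) : y ∈ Lset La P b c s := by
  refine ⟨hy, h, ?_⟩
  obtain ⟨c', hc'⟩ := (F.sc_mem_K hy).2.1
  refine ⟨c', ?_, (F.sc_eq_zero hy).1 hc'⟩
  rintro rfl
  exact hs (h.symm.trans hc')

theorem Lset_eq_of_pos {c : I} {s : ℝ} (hs : s ≠ 0) :
    Lset La P b c s = {y ∈ La | sc P b y c = s} := by
  ext y
  exact ⟨fun h => ⟨h.1, h.2.1⟩, fun h => mem_Lset_of_pos F hs h.1 h.2⟩

theorem Lset_zero (c : I) : Lset La P b c 0 = {y ∈ P c | ∃ c', c' ≠ c ∧ y ∈ P c'} := by
  ext y
  constructor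
  · rintro ⟨hy, h, h'⟩; exact ⟨(F.sc_eq_zero hy).1 h, h'⟩
  · rintro ⟨hy, h'⟩
    exact ⟨F.sub c hy, (F.sc_eq_zero (F.sub c hy)).2 hy, h'⟩

theorem sc_mv [DecidableEq I] {c : I} {s s' : ℝ} (hs : s < 1) (hs0' : 0 ≤ s') (hs' : s' < 1)
    {y : E} (hy : y ∈ Lset La P b c s) :
    sc P b (mv P b c s' y) = Function.update (sc P b y) c s' := by
  obtain ⟨hyL, hys, c', hne, hc'⟩ := hy
  exact F.sc_T (update_mem_K (F.sc_mem_K hyL) (by rw [hys]; exact hs)
    ⟨c', hne, (F.sc_eq_zero hyL).2 hc'⟩ hs0' hs')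

theorem mv_mem [DecidableEq I] {c : I} {s s' : ℝ} (hs : s < 1) (hs0' : 0 ≤ s') (hs' : s' < 1)
    {y : E} (hy : y ∈ Lset La P b c s) : mv P b c s' y ∈ Lset La P b c s' := by
  have h := sc_mv F hs hs0' hs' hy
  obtain ⟨hyL, hys, c', hne, hc'⟩ := hy
  have hK := update_mem_K (F.sc_mem_K hyL) (c := c) (by rw [hys]; exact hs)
    ⟨c', hne, (F.sc_eq_zero hyL).2 hc'⟩ hs0' hs'
  have hL : mv P b c s' y ∈ La := F.T_mem_La hK
  refine ⟨hL, by rw [h]; simp, c', hne, ?_⟩
  rw [← F.sc_eq_zero hL, h]
  simp only [Function.update_of_ne hne]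
  exact (F.sc_eq_zero hyL).2 hc'

theorem mv_mv [DecidableEq I] {c : I} {s s' : ℝ} (hs : s < 1) (hs0' : 0 ≤ s')
    (hs' : s' < 1) {y : E} (hy : y ∈ Lset La P b c s) : mv P b c s (mv P b c s' y) = y := by
  have h := sc_mv F hs hs0' hs' hy
  have hy2 := hy.2.1
  rw [mv, h, Function.update_idem]
  have : Function.update (sc P b y) c s = sc P b y := by
    rw [← hy2]; exact Function.update_eq_self c _
  rw [this, F.T_sc hy.1]

theorem continuousOn_mv [DecidableEq I] {c : I} {s s' : ℝ} (hs : s < 1) (hs0' : 0 ≤ s')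
    (hs' : s' < 1) : ContinuousOn (mv P b c s') (Lset La P b c s) := by
  have h1 : ContinuousOn (fun y => Function.update (sc P b y) c s') (Lset La P b c s) := by
    have : Continuous (fun u : I → ℝ => Function.update u c s') :=
      continuous_id.update c continuous_const
    exact this.comp_continuousOn ((continuousOn_sc F).mono fun y hy => hy.1)
  refine (continuousOn_T F).comp h1 ?_
  rintro y ⟨hyL, hys, c', hne, hc'⟩
  exact update_mem_K (F.sc_mem_K hyL) (by rw [hys]; exact hs)
    ⟨c', hne, (F.sc_eq_zero hyL).2 hc'⟩ hs0' hs'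

/-- **all level sets `{s_c = s}`, `0 ≤ s < 1`, are homeomorphic (to the boundary of the cell `c`)**;
all other coordinates are preserved (`sc_mv`). -/
noncomputable def mvHomeo [DecidableEq I] (c : I) {s s' : ℝ} (hs0 : 0 ≤ s) (hs : s < 1)
    (hs0' : 0 ≤ s') (hs' : s' < 1) : Lset La P b c s ≃ₜ Lset La P b c s' where
  toFun y := ⟨mv P b c s' y, mv_mem F hs hs0' hs' y.2⟩
  invFun y := ⟨mv P b c s y, mv_mem F hs' hs0 hs y.2⟩
  left_inv y := Subtype.ext (mv_mv F hs hs0' hs' y.2)
  right_inv y := Subtype.ext (mv_mv F hs' hs0 hs y.2)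
  continuous_toFun := by
    exact (continuousOn_iff_continuous_domRestrict.1 (continuousOn_mv F hs hs0' hs')).subtype_mk _
  continuous_invFun := by
    exact (continuousOn_iff_continuous_domRestrict.1 (continuousOn_mv F hs' hs0 hs)).subtype_mk _

/-! ### chains -/

/-- **`s_c` is affine on the simplices of the barycentric subdivision** -/
theorem sc_chain {k : ℕ} (A : Fin (k + 1) → Set I) (hA : Monotone A) (h0 : (A 0).Nonempty)
    (hlast : (fc P (A (Fin.last k))).Nonempty) (w : Fin (k + 1) → ℝ) (hw : ∀ i, 0 ≤ w i)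
    (hsum : ∑ i, w i = 1) (c : I) [∀ i, Decidable (c ∈ A i)] :
    sc P b (∑ i, w i • b (A i)) c = ∑ i, if c ∈ A i then 0 else w i := by
  induction' k with k ih
  · have hw0 : w 0 = 1 := by simpa [Fin.sum_univ_succ] using hsum
    have e1 : ∑ i, w i • b (A i) = b (A 0) := by simp [Fin.sum_univ_succ, hw0]
    have e2 : (∑ i, if c ∈ A i then 0 else w i) = if c ∈ A 0 then 0 else 1 := by
      simp [Fin.sum_univ_succ, hw0]
    rw [e1, e2]
    exact F.sc_b h0 hlast c
  · have hne : ∀ i, (A i).Nonempty := fun i => h0.mono (hA (Fin.zero_le i))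
    have hfc : ∀ i, (fc P (A i)).Nonempty := fun i => hlast.mono (fc_anti (hA (Fin.le_last i)))
    have hb : ∀ i, b (A i) ∈ fc P (A 0) := fun i =>
      fc_anti (hA (Fin.zero_le i)) (F.mem _ (hne i) (hfc i))
    have hyA0 : ∑ i, w i • b (A i) ∈ fc P (A 0) :=
      F.convex_fc.sum_mem (fun i _ => hw i) hsum fun i _ => hb i
    have hyL := F.fc_sub_La h0 hyA0
    by_cases hc0 : c ∈ A 0
    · have hall : ∀ i, c ∈ A i := fun i => hA (Fin.zero_le i) hc0
      rw [(F.sc_eq_zero hyL).2 (mem_fc.1 hyA0 c hc0)]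
      symm
      exact Finset.sum_eq_zero fun i _ => by simp [hall i]
    rw [Fin.sum_univ_succ] at hsum ⊢
    rw [Fin.sum_univ_succ (f := fun i => if c ∈ A i then 0 else w i)]
    simp only [hc0, if_false]
    have hrest : 0 ≤ ∑ i : Fin (k + 1), w i.succ := Finset.sum_nonneg fun i _ => hw _
    rcases hrest.eq_or_lt with h1 | h1
    · have hz : ∀ i : Fin (k + 1), w i.succ = 0 := by
        intro i
        have := (Finset.sum_eq_zero_iff_of_nonneg (fun i _ => hw _)).1 h1.symm i (Finset.mem_univ i)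
        exact this
      have hw0 : w 0 = 1 := by rw [← h1] at hsum; linarith
      simp only [hz, zero_smul, Finset.sum_const_zero, add_zero, hw0, one_smul]
      rw [F.sc_b h0 (hfc 0) c]
      simp [hc0]
    · set μ := ∑ i : Fin (k + 1), w i.succ with hμ
      have hμ1 : μ ≤ 1 := by linarith [hw 0]
      have hw0 : w 0 = 1 - μ := by linarith
      set z : E := ∑ i : Fin (k + 1), (w i.succ / μ) • b (A i.succ) with hz
      have hsum' : ∑ i : Fin (k + 1), w i.succ / μ = 1 := by
        rw [← Finset.sum_div, ← hμ, div_self h1.ne']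
      have hzfc : z ∈ fc P (A 0) :=
        F.convex_fc.sum_mem (fun i _ => div_nonneg (hw _) h1.le) hsum' fun i _ => hb _
      have hy : w 0 • b (A 0) + ∑ i : Fin (k + 1), w i.succ • b (A i.succ) =
          b (A 0) + μ • (z - b (A 0)) := by
        have : μ • z = ∑ i : Fin (k + 1), w i.succ • b (A i.succ) := by
          rw [hz, Finset.smul_sum]
          refine Finset.sum_congr rfl fun i _ => ?_
          rw [smul_smul, mul_div_cancel₀ _ h1.ne']
        rw [smul_sub, this, hw0]
        module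
      rw [hy, F.sc_ray' h0 hzfc h1.le hμ1 hc0]
      rw [ih (fun i => A i.succ) (fun i j hij => hA (Fin.succ_le_succ_iff.2 hij)) (hne _)
        (by rw [Fin.succ_last]; exact hlast) (fun i => w i.succ / μ)
        (fun i => div_nonneg (hw _) h1.le) hsum', hw0, Finset.mul_sum]
      congr 1
      refine Finset.sum_congr rfl fun i _ => ?_
      by_cases h : c ∈ A i.succ
      · simp [h]
      · simp only [h, if_false]
        rw [mul_div_cancel₀ _ h1.ne']

end cont

end Crest.Agent.R096.Brk2_582
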