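import Crest.Agent.R096.Bsp4_628
import Crest.Agent.R096.Brk2_582

/-!
# Row 96, U1: box foams (628) are foams in the sense of `Brk1_582.Foam`
-/

set_option autoImplicit false
set_option linter.unusedSectionVars false
set_option linter.style.haveILetI false
open Set Filter Topology

namespace Crest.Agent.R096.Brk3_582

open Crest.Agent.R096.Brk1_582 Crest.Agent.R096.Brk2_582 Crest.Agent.R096.Bsp_628

variable {κ : Type*} [Fintype κ] [Nonempty κ] {La : Set (κ → ℝ)} {F : Set (Bx κ)} {δ κ0 : ℝ}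

/-- the cells -/
def Pc (F : Set (Bx κ)) : F → Set (κ → ℝ) := fun c => c.1.set

/-- lower / upper corner of the face of `A` -/
noncomputable def loA (A : Set F) (k : κ) : ℝ := sSup ((fun c : F => c.1.lo k) '' A)
noncomputable def hiA (A : Set F) (k : κ) : ℝ := sInf ((fun c : F => c.1.hi k) '' A)

/-- the centre of the face of `A` -/
noncomputable def bc (A : Set F) : κ → ℝ := fun k => (loA A k + hiA A k) / 2

theorem exists_loA {A : Set F} (hA : A.Finite) (hne : A.Nonempty) (k : κ) :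
    (∃ c ∈ A, c.1.lo k = loA A k) ∧ ∀ c ∈ A, c.1.lo k ≤ loA A k := by
  have hf : ((fun c : F => c.1.lo k) '' A).Finite := hA.image _
  refine ⟨?_, fun c hc => le_csSup hf.bddAbove ⟨c, hc, rfl⟩⟩
  obtain ⟨c, hc, h⟩ := (hne.image _).csSup_mem hf
  exact ⟨c, hc, h⟩

theorem exists_hiA {A : Set F} (hA : A.Finite) (hne : A.Nonempty) (k : κ) :
    (∃ c ∈ A, c.1.hi k = hiA A k) ∧ ∀ c ∈ A, hiA A k ≤ c.1.hi k := by
  have hf : ((fun c : F => c.1.hi k) '' A).Finite := hA.image _
  refine ⟨?_, fun c hc => csInf_le hf.bddBelow ⟨c, hc, rfl⟩⟩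
  obtain ⟨c, hc, h⟩ := (hne.image _).csInf_mem hf
  exact ⟨c, hc, h⟩

theorem mem_fc_iff {A : Set F} (hA : A.Finite) (hne : A.Nonempty) {x : κ → ℝ} :
    x ∈ fc (Pc F) A ↔ ∀ k, loA A k ≤ x k ∧ x k ≤ hiA A k := by
  rw [mem_fc]
  constructor
  · intro h k
    obtain ⟨c, hc, h1⟩ := (exists_loA hA hne k).1
    obtain ⟨c', hc', h2⟩ := (exists_hiA hA hne k).1
    rw [← h1, ← h2]
    exact ⟨(Bx.mem_set.1 (h c hc) k).1, (Bx.mem_set.1 (h c' hc') k).2⟩
  · intro h c hc
    refine Bx.mem_set.2 fun k => ?_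
    exact ⟨((exists_loA hA hne k).2 c hc).trans (h k).1, (h k).2.trans ((exists_hiA hA hne k).2 c hc)⟩

/-- the finset of boxes of a finite set of cells -/
noncomputable def bxs {A : Set F} (hA : A.Finite) : Finset (Bx κ) :=
  by classical exact hA.toFinset.image Subtype.val

theorem mem_bxs {A : Set F} (hA : A.Finite) {B : Bx κ} :
    B ∈ bxs hA ↔ ∃ c ∈ A, c.1 = B := by
  classical
  simp [bxs]

theorem card_bxs {A : Set F} (hA : A.Finite) : (bxs hA).card = A.ncard := by
  classical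
  rw [bxs, Finset.card_image_of_injective _ Subtype.val_injective, ncard_eq_toFinset_card A hA]

theorem bxs_sub {A : Set F} (hA : A.Finite) : (↑(bxs hA) : Set (Bx κ)) ⊆ F := by
  intro B hB
  obtain ⟨c, -, rfl⟩ := (mem_bxs hA).1 hB
  exact c.2

theorem bxs_nonempty {A : Set F} (hA : A.Finite) (hne : A.Nonempty) : (bxs hA).Nonempty := by
  obtain ⟨c, hc⟩ := hne
  exact ⟨c.1, (mem_bxs hA).2 ⟨c, hc, rfl⟩⟩

theorem bxs_meet {A : Set F} (hA : A.Finite) {x : κ → ℝ} (hx : x ∈ fc (Pc F) A) :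
    Meet (bxs hA) := by
  intro B hB C hC k
  obtain ⟨c, hc, rfl⟩ := (mem_bxs hA).1 hB
  obtain ⟨c', hc', rfl⟩ := (mem_bxs hA).1 hC
  exact (Bx.mem_set.1 (mem_fc.1 hx c hc) k).1.trans (Bx.mem_set.1 (mem_fc.1 hx c' hc') k).2

theorem deg_iff {A : Set F} (hA : A.Finite) (hne : A.Nonempty) {x : κ → ℝ}
    (hx : x ∈ fc (Pc F) A) (k : κ) : Deg (bxs hA) k ↔ loA A k = hiA A k := by
  have hle := (mem_fc_iff hA hne).1 hx k
  constructor
  · rintro ⟨B, hB, C, hC, h⟩
    obtain ⟨c, hc, rfl⟩ := (mem_bxs hA).1 hB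
    obtain ⟨c', hc', rfl⟩ := (mem_bxs hA).1 hC
    have h1 := (exists_loA hA hne k).2 c hc
    have h2 := (exists_hiA hA hne k).2 c' hc'
    linarith
  · intro h
    obtain ⟨c, hc, h1⟩ := (exists_loA hA hne k).1
    obtain ⟨c', hc', h2⟩ := (exists_hiA hA hne k).1
    exact ⟨c.1, (mem_bxs hA).2 ⟨c, hc, rfl⟩, c'.1, (mem_bxs hA).2 ⟨c', hc', rfl⟩, by
      rw [h1, h2, h]⟩

section foam

variable (BF : BoxFoam La F δ κ0)

include BF

/-- the number of degenerate directions of a face -/
theorem deg_count {A : Set F} (hA : A.Finite) (hne : A.Nonempty)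
    (hx : (fc (Pc F) A).Nonempty) : {k | loA A k = hiA A k}.ncard + 1 = A.ncard := by
  obtain ⟨x, hx⟩ := hx
  have h := (BF.inv (bxs hA) (bxs_sub hA) (bxs_nonempty hA hne) (bxs_meet hA hx)).1
  rw [card_bxs] at h
  rw [← h]
  congr 2
  ext k
  exact (deg_iff hA hne hx k).symm

/-- the non-degenerate directions of a face are at least `δ *` the size of one of its cells -/
theorem width_ge {A : Set F} (hA : A.Finite) (hne : A.Nonempty)
    (hx : (fc (Pc F) A).Nonempty) {k : κ} (hk : loA A k ≠ hiA A k) :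
    ∃ D ∈ A, loA A k + δ * D.1.sz ≤ hiA A k := by
  obtain ⟨x, hx⟩ := hx
  obtain ⟨D, hD, h⟩ :=
    (BF.inv (bxs hA) (bxs_sub hA) (bxs_nonempty hA hne) (bxs_meet hA hx)).2 k
      (fun h => hk ((deg_iff hA hne hx k).1 h))
  obtain ⟨d, hd, rfl⟩ := (mem_bxs hA).1 hD
  obtain ⟨c, hc, h1⟩ := (exists_loA hA hne k).1
  obtain ⟨c', hc', h2⟩ := (exists_hiA hA hne k).1
  refine ⟨d, hd, ?_⟩
  rw [← h1, ← h2]
  exact h _ ((mem_bxs hA).2 ⟨c, hc, rfl⟩) _ ((mem_bxs hA).2 ⟨c', hc', rfl⟩)

/-- some box contains `y` and points of the ray in direction `w` -/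
theorem cover_dir (hLa : IsOpen La) {y : κ → ℝ} (hy : y ∈ La) (w : κ → ℝ) :
    ∃ c : F, y ∈ Pc F c ∧ ∃ ε : ℝ, 0 < ε ∧ y + ε • w ∈ Pc F c := by
  obtain ⟨r, hr, hfin⟩ := BF.lf y hy
  have hlim : Tendsto (fun ε : ℝ => y + ε • w) (𝓝[>] 0) (𝓝 y) := by
    have : Continuous (fun ε : ℝ => y + ε • w) := by fun_prop
    have h := this.tendsto 0
    simp only [zero_smul, add_zero] at h
    exact h.mono_left nhdsWithin_le_nhds
  have hev : ∀ᶠ ε : ℝ in 𝓝[>] 0, y + ε • w ∈ La ∩ Metric.ball y r :=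
    hlim.eventually (inter_mem (hLa.mem_nhds hy) (Metric.ball_mem_nhds y hr))
  -- some box is hit frequently
  have hfr : ∃ C ∈ {C | C ∈ F ∧ (C.set ∩ Metric.ball y r).Nonempty},
      ∃ᶠ ε : ℝ in 𝓝[>] 0, y + ε • w ∈ C.set := by
    by_contra hcon
    push Not at hcon
    have h2 : ∀ᶠ ε : ℝ in 𝓝[>] 0, ∀ C ∈ {C | C ∈ F ∧ (C.set ∩ Metric.ball y r).Nonempty},
        ¬ (y + ε • w ∈ C.set) := by
      rw [eventually_all_finite hfin]
      intro C hC
      exact hcon C hC
    obtain ⟨ε, h3, h4⟩ := (hev.and h2).exists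
    obtain ⟨C, hC, hC'⟩ := BF.cov _ h3.1
    exact h4 C ⟨hC, _, hC', h3.2⟩ hC'
  obtain ⟨C, hC, hfr⟩ := hfr
  refine ⟨⟨C, hC.1⟩, ?_, ?_⟩
  · have hcl : IsClosed C.set := isClosed_Icc
    by_contra hn
    have : ∀ᶠ ε : ℝ in 𝓝[>] 0, y + ε • w ∈ C.setᶜ :=
      hlim.eventually (hcl.isOpen_compl.mem_nhds hn)
    exact hfr (this.mono fun ε h h' => h h')
  · obtain ⟨ε, h1, h2⟩ := (hfr.and_eventually self_mem_nhdsWithin).exists
    exact ⟨ε, h2, h1⟩

omit BF in
/-- two boxes with a common point in exactly one opposite direction -/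
theorem opp_of_pair (BF : BoxFoam La F δ κ0) {c c' : F} (hne : c ≠ c') {y : κ → ℝ}
    (h : y ∈ Pc F c) (h' : y ∈ Pc F c') :
    ∃ k, (c'.1.lo k = y k ∧ c.1.hi k = y k) ∨ (c.1.lo k = y k ∧ c'.1.hi k = y k) := by
  have hA : ({c, c'} : Set F).Finite := by simp
  have hAne : ({c, c'} : Set F).Nonempty := ⟨c, by simp⟩
  have hy : y ∈ fc (Pc F) ({c, c'} : Set F) := by
    rw [mem_fc]; rintro x (rfl | rfl) <;> assumption
  have h1 := deg_count BF hA hAne ⟨y, hy⟩
  rw [ncard_pair hne] at h1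
  have h2 : {k | loA ({c, c'} : Set F) k = hiA ({c, c'} : Set F) k}.Nonempty := by
    by_contra h3
    rw [not_nonempty_iff_eq_empty] at h3
    rw [h3, ncard_empty] at h1
    omega
  obtain ⟨k, hk⟩ := h2
  refine ⟨k, ?_⟩
  have h3 := (mem_fc_iff hA hAne).1 hy k
  have hk' : loA ({c, c'} : Set F) k = hiA ({c, c'} : Set F) k := hk
  obtain ⟨a, ha, ha'⟩ := (exists_loA hA hAne k).1
  obtain ⟨a2, ha2, ha2'⟩ := (exists_hiA hA hAne k).1
  have e1 : a.1.lo k = y k := by linarith
  have e2 : a2.1.hi k = y k := by linarith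
  rcases ha with rfl | ha
  · rcases ha2 with rfl | ha2
    · exact absurd (BF.pos _ a2.2 k) (by rw [e1, e2]; exact lt_irrefl _)
    · rw [mem_singleton_iff] at ha2; subst ha2
      exact Or.inr ⟨e1, e2⟩
  · rw [mem_singleton_iff] at ha; subst ha
    rcases ha2 with rfl | ha2
    · exact Or.inl ⟨e1, e2⟩
    · rw [mem_singleton_iff] at ha2; subst ha2
      exact absurd (BF.pos _ a2.2 k) (by rw [e1, e2]; exact lt_irrefl _)

/-- at a point of the relative boundary (upper side) of its face a new cell appears -/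
theorem lt_hiA (hLa : IsOpen La) {y : κ → ℝ} (hy : y ∈ La) {k : κ}
    (hk : loA (act (Pc F) y) k ≠ hiA (act (Pc F) y) k)
    (hfin : (act (Pc F) y).Finite) (hne : (act (Pc F) y).Nonempty) :
    y k < hiA (act (Pc F) y) k := by
  have hyA := (mem_fc_iff hfin hne).1 (self_mem_fc_act (P := Pc F) (y := y)) k
  refine lt_of_le_of_ne hyA.2 fun heq => ?_
  obtain ⟨c, hc, hck⟩ := (exists_hiA hfin hne k).1
  classical
  let w : κ → ℝ := fun j => if j = k then 1 else (c.1.lo j + c.1.hi j) / 2 - y j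
  obtain ⟨c', hc', ε, hε, hcε⟩ := cover_dir BF hLa hy w
  have hcc : c ≠ c' := by
    rintro rfl
    have h1 := (Bx.mem_set.1 hcε k).2
    simp only [w, Pi.add_apply, Pi.smul_apply, if_true, smul_eq_mul, mul_one] at h1
    linarith
  have hc'A : c' ∈ act (Pc F) y := hc'
  obtain ⟨j, hj⟩ := opp_of_pair BF hcc hc hc'
  have hcpos := BF.pos _ c.2 j
  rcases hj with ⟨h1, h2⟩ | ⟨h1, h2⟩
  · by_cases hjk : j = k
    · subst hjk
      have h3 := (exists_loA hfin hne j).2 c' hc'A
      exact hk (le_antisymm (hyA.1.trans hyA.2) (by linarith))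
    · have h4 := (Bx.mem_set.1 hcε j).1
      simp only [w, Pi.add_apply, Pi.smul_apply, if_neg hjk, smul_eq_mul] at h4
      nlinarith
  · by_cases hjk : j = k
    · subst hjk
      linarith
    · have h4 := (Bx.mem_set.1 hcε j).2
      simp only [w, Pi.add_apply, Pi.smul_apply, if_neg hjk, smul_eq_mul] at h4
      nlinarith

/-- at a point of the relative boundary (lower side) of its face a new cell appears -/
theorem loA_lt (hLa : IsOpen La) {y : κ → ℝ} (hy : y ∈ La) {k : κ}
    (hk : loA (act (Pc F) y) k ≠ hiA (act (Pc F) y) k)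
    (hfin : (act (Pc F) y).Finite) (hne : (act (Pc F) y).Nonempty) :
    loA (act (Pc F) y) k < y k := by
  have hyA := (mem_fc_iff hfin hne).1 (self_mem_fc_act (P := Pc F) (y := y)) k
  refine lt_of_le_of_ne hyA.1 fun heq => ?_
  obtain ⟨c, hc, hck⟩ := (exists_loA hfin hne k).1
  classical
  let w : κ → ℝ := fun j => if j = k then -1 else (c.1.lo j + c.1.hi j) / 2 - y j
  obtain ⟨c', hc', ε, hε, hcε⟩ := cover_dir BF hLa hy w
  have hcc : c ≠ c' := by
    rintro rfl
    have h1 := (Bx.mem_set.1 hcε k).1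
    simp only [w, Pi.add_apply, Pi.smul_apply, if_true, smul_eq_mul, mul_neg, mul_one] at h1
    linarith
  have hc'A : c' ∈ act (Pc F) y := hc'
  obtain ⟨j, hj⟩ := opp_of_pair BF hcc hc hc'
  have hcpos := BF.pos _ c.2 j
  rcases hj with ⟨h1, h2⟩ | ⟨h1, h2⟩
  · by_cases hjk : j = k
    · subst hjk
      linarith
    · have h4 := (Bx.mem_set.1 hcε j).1
      simp only [w, Pi.add_apply, Pi.smul_apply, if_neg hjk, smul_eq_mul] at h4
      nlinarith
  · by_cases hjk : j = k
    · subst hjk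
      have h3 := (exists_hiA hfin hne j).2 c' hc'A
      exact hk (le_antisymm (hyA.1.trans hyA.2) (by linarith))
    · have h4 := (Bx.mem_set.1 hcε j).2
      simp only [w, Pi.add_apply, Pi.smul_apply, if_neg hjk, smul_eq_mul] at h4
      nlinarith

omit BF in
theorem finite_act' (BF : BoxFoam La F δ κ0) {y : κ → ℝ} (hy : y ∈ La) :
    (act (Pc F) y).Finite := by
  obtain ⟨r, hr, hfin⟩ := BF.lf y hy
  refine Set.Finite.of_finite_image (f := Subtype.val) (hfin.subset ?_) Subtype.val_injective.injOn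
  rintro C ⟨c, hc, rfl⟩
  exact ⟨c.2, y, hc, Metric.mem_ball_self hr⟩

/-- **box foams are foams** -/
theorem foam (hLa : IsOpen La) : Foam La (Pc F) (bc (F := F)) (Fintype.card κ + 1) := by
  have hfc : ∀ A : Set F, A.Nonempty → (fc (Pc F) A).Nonempty → A.Finite := by
    rintro A ⟨c, hc⟩ ⟨y, hy⟩
    have hyL : y ∈ La := BF.sub _ c.2 (mem_fc.1 hy c hc)
    exact (finite_act' BF hyL).subset (mem_fc'.1 hy)
  have hmem : ∀ A : Set F, A.Nonempty → (fc (Pc F) A).Nonempty → bc A ∈ fc (Pc F) A := by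
    intro A hA h
    have hfin := hfc A hA h
    obtain ⟨y, hy⟩ := h
    rw [mem_fc_iff hfin hA] at hy ⊢
    intro k
    have := (hy k).1.trans (hy k).2
    unfold bc
    constructor <;> linarith
  refine
    { op := hLa
      cpt := fun c => isCompact_Icc
      cvx := fun c => convex_Icc _ _
      sub := fun c => BF.sub _ c.2
      cov := ?_
      lf := ?_
      card := ?_
      mem := hmem
      rel := ?_
      exit := ?_ }
  · intro y hy
    obtain ⟨C, hC, h⟩ := BF.cov y hy
    exact ⟨⟨C, hC⟩, h⟩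
  · intro y hy
    obtain ⟨r, hr, hfin⟩ := BF.lf y hy
    refine ⟨r, hr, Set.Finite.of_finite_image (f := Subtype.val) (hfin.subset ?_)
      Subtype.val_injective.injOn⟩
    rintro C ⟨c, hc, rfl⟩
    exact ⟨c.2, hc⟩
  · intro y hy
    have hfin := finite_act' BF hy
    have hne : (act (Pc F) y).Nonempty := by
      obtain ⟨C, hC, h⟩ := BF.cov y hy
      exact ⟨⟨C, hC⟩, h⟩
    rw [← deg_count BF hfin hne ⟨y, self_mem_fc_act⟩]
    have := Set.ncard_le_card {k | loA (act (Pc F) y) k = hiA (act (Pc F) y) k}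
    rw [Nat.card_eq_fintype_card] at this
    omega
  · intro A hA y hy t ht
    have hAne : (fc (Pc F) A).Nonempty := ⟨y, hy⟩
    have hfin := hfc A hA hAne
    set z := bc A + t • (y - bc A) with hz
    have hbA := hmem A hA hAne
    have hcvx : Convex ℝ (fc (Pc F) A) := convex_iInter₂ fun c _ => convex_Icc _ _
    have hzA : z ∈ fc (Pc F) A := by
      have := hcvx hbA hy (sub_nonneg.2 ht.2.le) ht.1 (by ring)
      convert this using 1
      rw [hz]; module
    refine Subset.antisymm ?_ (mem_fc'.1 hzA)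
    intro c' hc'
    by_contra hn
    have hyk := (mem_fc_iff hfin hA).1 hy
    -- strictness
    have hstrict : ∀ k, loA A k ≠ hiA A k → loA A k < z k ∧ z k < hiA A k := by
      intro k hk
      have hlt : loA A k < hiA A k := lt_of_le_of_ne ((hyk k).1.trans (hyk k).2) hk
      have h1 := (hyk k).1
      have h2 := (hyk k).2
      have ht0 := ht.1
      have ht1 := ht.2
      simp only [hz, bc, Pi.add_apply, Pi.smul_apply, Pi.sub_apply, smul_eq_mul]
      constructor <;> nlinarith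
    -- the set with c' added
    set A' : Set F := insert c' A with hA'
    have hfin' : A'.Finite := hfin.insert c'
    have hne' : A'.Nonempty := ⟨c', mem_insert _ _⟩
    have hzA' : z ∈ fc (Pc F) A' := by
      rw [mem_fc]; intro c hc
      rcases hc with rfl | hc
      · exact hc'
      · exact mem_fc.1 hzA c hc
    have e1 := deg_count BF hfin hA hAne
    have e2 := deg_count BF hfin' hne' ⟨z, hzA'⟩
    rw [ncard_insert_of_notMem hn hfin] at e2
    have hzk' := (mem_fc_iff hfin' hne').1 hzA'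
    have : ∃ k, loA A' k = hiA A' k ∧ loA A k ≠ hiA A k := by
      by_contra hcon
      push Not at hcon
      have := ncard_le_ncard (s := {k | loA A' k = hiA A' k}) (t := {k | loA A k = hiA A k})
        (fun k hk => hcon k hk) (toFinite _)
      omega
    obtain ⟨k, hk', hk⟩ := this
    have hs := hstrict k hk
    have hzk := hzk' k
    obtain ⟨a, ha, ha'⟩ := (exists_loA hfin' hne' k).1
    obtain ⟨a2, ha2, ha2'⟩ := (exists_hiA hfin' hne' k).1
    have f1 : a.1.lo k = z k := by linarith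
    have f2 : a2.1.hi k = z k := by linarith
    rcases ha with rfl | ha
    · rcases ha2 with rfl | ha2
      · exact absurd (BF.pos _ a2.2 k) (by rw [f1, f2]; exact lt_irrefl _)
      · have := (exists_hiA hfin hA k).2 a2 ha2
        linarith
    · have := (exists_loA hfin hA k).2 a ha
      linarith
  · intro y hy hyb
    set A := act (Pc F) y with hA
    have hfin : A.Finite := finite_act' BF hy
    have hne : A.Nonempty := by
      obtain ⟨C, hC, h⟩ := BF.cov y hy
      exact ⟨⟨C, hC⟩, h⟩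
    have hyk := (mem_fc_iff hfin hne).1 (self_mem_fc_act (P := Pc F) (y := y))
    have hlim : ∀ k, ∀ᶠ t : ℝ in 𝓝[>] 1,
        loA A k ≤ (bc A + t • (y - bc A)) k ∧ (bc A + t • (y - bc A)) k ≤ hiA A k := by
      intro k
      by_cases hk : loA A k = hiA A k
      · have h1 := hyk k
        have h2 : y k = bc A k := by
          unfold bc; linarith
        refine Eventually.of_forall fun t => ?_
        simp only [Pi.add_apply, Pi.smul_apply, Pi.sub_apply, h2, sub_self, smul_zero, add_zero]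
        unfold bc
        constructor <;> linarith
      · have h1 := loA_lt BF hLa hy hk hfin hne
        have h2 := lt_hiA BF hLa hy hk hfin hne
        have hc : Tendsto (fun t : ℝ => (bc A + t • (y - bc A)) k) (𝓝[>] 1) (𝓝 (y k)) := by
          have : Continuous (fun t : ℝ => (bc A + t • (y - bc A)) k) := by
            simp only [Pi.add_apply, Pi.smul_apply, Pi.sub_apply]
            fun_prop
          have h := this.tendsto 1
          simp only [one_smul, add_sub_cancel] at h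
          exact h.mono_left nhdsWithin_le_nhds
        filter_upwards [hc.eventually (lt_mem_nhds h1), hc.eventually (gt_mem_nhds h2)] with t g1 g2
        exact ⟨g1.le, g2.le⟩
    have hall := (eventually_all.2 hlim).and self_mem_nhdsWithin
    obtain ⟨t, h1, h2⟩ := hall.exists
    exact ⟨t, h2, (mem_fc_iff hfin hne).2 h1⟩

end foam

end Crest.Agent.R096.Brk3_582
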