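import Crest.Agent.R096.Grd2_714
import Crest.Agent.R096.Brk3_582

/-!
# R096 (row 96), GRID, part 8 (helper714): the quadrilaterals of a box foam in dimension 3

`quads_box : BoxFoam La F δ κ0 → card κ = 3 → Quads (Pc F) bc`, and the transport along a
continuous linear equivalence.
-/

set_option autoImplicit false
set_option linter.unusedSectionVars false

open Set

namespace Crest.Agent.R096.Grd_714

open Crest.Agent.R096.Brk1_582 Crest.Agent.R096.Brk2_582 Crest.Agent.R096.Bsp_628
open Crest.Agent.R096.Brk3_582

section map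

variable {E E' : Type*} [NormedAddCommGroup E] [NormedSpace ℝ E] [NormedAddCommGroup E']
  [NormedSpace ℝ E'] {I : Type*} {P : I → Set E} {b : Set I → E}

theorem QC.map {v P' C P : E} (h : QC v P' C P) (e : E ≃L[ℝ] E') :
    QC (e v) (e P') (e C) (e P) := by
  obtain ⟨h1, x, y, hx, hy, hxy, hv⟩ := h
  refine ⟨fun s t hst => h1 s t ?_, x, y, hx, hy, hxy, ?_⟩
  · apply e.injective
    rw [map_zero, map_add, map_smul, map_smul, map_sub, map_sub]
    exact hst
  · rw [← map_sub, hv, map_add, map_smul, map_smul, map_sub, map_sub]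

theorem Quads.map (h : Quads P b) (e : E ≃L[ℝ] E') :
    Quads (fun c => e '' P c) (fun A => e (b A)) := by
  intro A c1 c2 hA hc1 hc2 hne hfc
  refine (h A c1 c2 hA hc1 hc2 hne ?_).map e
  obtain ⟨y, hy⟩ := hfc
  refine ⟨e.symm y, ?_⟩
  rw [mem_fc] at hy ⊢
  intro c hc
  obtain ⟨z, hz, hzy⟩ := hy c hc
  rw [← hzy, e.symm_apply_apply]
  exact hz

end map

variable {κ : Type*} [Fintype κ] [Nonempty κ] {La : Set (κ → ℝ)} {F : Set (Bx κ)} {δ κ0 : ℝ}

section faces

theorem loA_mono {A A' : Set F} (hA' : A'.Finite) (hne : A.Nonempty) (h : A ⊆ A') (k : κ) :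
    loA A k ≤ loA A' k := by
  obtain ⟨c, hc, e⟩ := (exists_loA (hA'.subset h) hne k).1
  rw [← e]
  exact (exists_loA hA' (hne.mono h) k).2 c (h hc)

theorem hiA_anti {A A' : Set F} (hA' : A'.Finite) (hne : A.Nonempty) (h : A ⊆ A') (k : κ) :
    hiA A' k ≤ hiA A k := by
  obtain ⟨c, hc, e⟩ := (exists_hiA (hA'.subset h) hne k).1
  rw [← e]
  exact (exists_hiA hA' (hne.mono h) k).2 c (h hc)

/-- in a degenerate direction of `insert c A` the face lies at an end of the face of `A` -/
theorem end_of_deg (BF : BoxFoam La F δ κ0) {A : Set F} (hA : A.Finite) (hne : A.Nonempty)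
    {c : F} {y : κ → ℝ} (hy : y ∈ fc (Pc F) (insert c A)) {d : κ}
    (hd : loA (insert c A) d = hiA (insert c A) d) : y d = loA A d ∨ y d = hiA A d := by
  have hyA : y ∈ fc (Pc F) A := fc_anti (subset_insert c A) hy
  have h1 := (mem_fc_iff hA hne).1 hyA d
  have h2 := (mem_fc_iff (hA.insert c) (insert_nonempty c A)).1 hy d
  obtain ⟨a, ha, ea⟩ := (exists_loA (hA.insert c) (insert_nonempty c A) d).1
  obtain ⟨a', ha', ea'⟩ := (exists_hiA (hA.insert c) (insert_nonempty c A) d).1
  have f1 : a.1.lo d = y d := by linarith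
  have f2 : a'.1.hi d = y d := by linarith
  rcases ha with rfl | ha
  · rcases ha' with rfl | ha'
    · exact absurd (BF.pos _ a'.2 d) (by rw [f1, f2]; exact lt_irrefl _)
    · right
      have := (exists_hiA hA hne d).2 a' ha'
      linarith
  · left
    have := (exists_loA hA hne d).2 a ha
    linarith

end faces

/-- three directions -/
theorem three_cases (h3 : Fintype.card κ = 3) {k0 d e : κ} (h1 : k0 ≠ d) (h2 : k0 ≠ e) (h4 : d ≠ e)
    (k : κ) : k = k0 ∨ k = d ∨ k = e := by
  classical
  by_contra h
  push Not at h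
  have : ({k, k0, d, e} : Finset κ).card ≤ 3 := by
    rw [← h3]; exact Finset.card_le_univ _
  rw [Finset.card_insert_of_notMem (by simp [h.1, h.2.1, h.2.2]),
    Finset.card_insert_of_notMem (by simp [h1, h2]),
    Finset.card_insert_of_notMem (by simp [h4]), Finset.card_singleton] at this
  omega

theorem adj_aux {s t : ℝ} (h : 1 - s * t ≠ 0) :
    (1 - t) / (1 - s * t) + (1 - s) / (1 - s * t) * t = 1 := by
  have e : (1 - t) / (1 - s * t) + (1 - s) / (1 - s * t) * t = (1 - s * t) / (1 - s * t) := by
    ring
  rw [e, div_self h]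

theorem adj_aux' {s t : ℝ} (h : 1 - s * t ≠ 0) :
    (1 - t) / (1 - s * t) * s + (1 - s) / (1 - s * t) = 1 := by
  have e : (1 - t) / (1 - s * t) * s + (1 - s) / (1 - s * t) = (1 - s * t) / (1 - s * t) := by
    ring
  rw [e, div_self h]

set_option maxHeartbeats 2000000 in
/-- **the quadrilaterals of a box foam** -/
theorem quads_box (BF : BoxFoam La F δ κ0) (h3 : Fintype.card κ = 3) :
    Quads (Pc F) (bc (F := F)) := by
  classical
  intro A c1 c2 hA hc1 hc2 hne hfc
  set A1 : Set F := insert c1 A with hA1
  set A2 : Set F := insert c2 A with hA2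
  set A4 : Set F := insert c2 A1 with hA4
  have fA : A.Finite := finite_of_ncard_ne_zero (by rw [hA]; norm_num)
  have nA : A.Nonempty := nonempty_of_ncard_ne_zero (by rw [hA]; norm_num)
  have fA1 : A1.Finite := fA.insert c1
  have fA2 : A2.Finite := fA.insert c2
  have fA4 : A4.Finite := fA1.insert c2
  have nA1 : A1.Nonempty := insert_nonempty _ _
  have nA2 : A2.Nonempty := insert_nonempty _ _
  have nA4 : A4.Nonempty := insert_nonempty _ _
  have s1 : A ⊆ A1 := subset_insert _ _
  have s2 : A ⊆ A2 := subset_insert _ _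
  have s14 : A1 ⊆ A4 := subset_insert _ _
  have e42 : A4 = insert c1 A2 := insert_comm _ _ _
  have s24 : A2 ⊆ A4 := by rw [e42]; exact subset_insert _ _
  have g1 : (fc (Pc F) A1).Nonempty := hfc.mono (fc_anti s14)
  have g2 : (fc (Pc F) A2).Nonempty := hfc.mono (fc_anti s24)
  have g0 : (fc (Pc F) A).Nonempty := g1.mono (fc_anti s1)
  have hc21 : c2 ∉ A1 := by
    rintro (h | h)
    · exact hne h.symm
    · exact hc2 h
  have k1 : A1.ncard = 3 := by rw [hA1, ncard_insert_of_notMem hc1 fA, hA]
  have k2 : A2.ncard = 3 := by rw [hA2, ncard_insert_of_notMem hc2 fA, hA]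
  have k4 : A4.ncard = 4 := by rw [hA4, ncard_insert_of_notMem hc21 fA1, k1]
  have D0 : {k | loA A k = hiA A k}.ncard = 1 := by
    have := deg_count BF fA nA g0; omega
  have D1 : {k | loA A1 k = hiA A1 k}.ncard = 2 := by
    have := deg_count BF fA1 nA1 g1; omega
  have D2 : {k | loA A2 k = hiA A2 k}.ncard = 2 := by
    have := deg_count BF fA2 nA2 g2; omega
  have D4 : ∀ k, loA A4 k = hiA A4 k := by
    have h : {k | loA A4 k = hiA A4 k}.ncard = 3 := by
      have := deg_count BF fA4 nA4 hfc; omega
    have h' : {k | loA A4 k = hiA A4 k} = univ := by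
      apply Set.eq_of_subset_of_ncard_le (subset_univ _)
      rw [h, ncard_univ, Nat.card_eq_fintype_card, h3]
    intro k
    have : k ∈ {k | loA A4 k = hiA A4 k} := by rw [h']; trivial
    exact this
  -- nonempty faces
  have wle : ∀ {B : Set F}, B.Finite → B.Nonempty → (fc (Pc F) B).Nonempty →
      ∀ k, loA B k ≤ hiA B k := by
    rintro B fB nB ⟨y, hy⟩ k
    have := (mem_fc_iff fB nB).1 hy k
    exact this.1.trans this.2
  have wA := wle fA nA g0
  have w1 := wle fA1 nA1 g1
  have w2 := wle fA2 nA2 g2
  have mo1 := loA_mono (A := A) fA1 nA s1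
  have mo1' := hiA_anti (A := A) fA1 nA s1
  have mo2 := loA_mono (A := A) fA2 nA s2
  have mo2' := hiA_anti (A := A) fA2 nA s2
  have mo14 := loA_mono (A := A1) fA4 nA1 s14
  have mo14' := hiA_anti (A := A1) fA4 nA1 s14
  have mo24 := loA_mono (A := A2) fA4 nA2 s24
  have mo24' := hiA_anti (A := A2) fA4 nA2 s24
  -- the vertex
  set v : κ → ℝ := bc A4 with hv
  have vlo : ∀ k, v k = loA A4 k := fun k => by
    have := D4 k
    rw [hv]; unfold bc; linarith
  have vfc : v ∈ fc (Pc F) A4 := by
    rw [mem_fc_iff fA4 nA4]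
    intro k
    have := D4 k
    have h2 := vlo k
    constructor <;> linarith
  -- directions
  obtain ⟨k0, hk0⟩ := ncard_eq_one.1 D0
  have hk0' : loA A k0 = hiA A k0 := by
    have : k0 ∈ {k | loA A k = hiA A k} := by rw [hk0]; rfl
    exact this
  have hnd : ∀ k, k ≠ k0 → loA A k < hiA A k := by
    intro k hk
    refine lt_of_le_of_ne (wA k) fun h => hk ?_
    have : k ∈ {k | loA A k = hiA A k} := h
    rw [hk0] at this
    exact this
  have dir : ∀ {B : Set F}, A ⊆ B → B.Finite → {k | loA B k = hiA B k}.ncard = 2 →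
      (∀ k, loA B k ≤ hiA B k) →
      ∃ d, d ≠ k0 ∧ loA B d = hiA B d ∧ ∀ k, k ≠ k0 → k ≠ d → loA B k < hiA B k := by
    intro B hAB fB hB wB
    have hk0B : k0 ∈ {k | loA B k = hiA B k} := by
      have h1 := loA_mono fB nA hAB k0
      have h2 := hiA_anti fB nA hAB k0
      have h3 := wB k0
      show loA B k0 = hiA B k0
      linarith
    obtain ⟨x, y, hxy, hB'⟩ := ncard_eq_two.1 hB
    rw [hB'] at hk0B
    rcases hk0B with h | h
    · subst h
      refine ⟨y, hxy.symm, ?_, fun k hk hk' => lt_of_le_of_ne (wB k) fun h => ?_⟩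
      · have : y ∈ {k | loA B k = hiA B k} := by rw [hB']; simp
        exact this
      · have : k ∈ {k | loA B k = hiA B k} := h
        rw [hB'] at this
        rcases this with h | h
        · exact hk h
        · exact hk' h
    · rw [mem_singleton_iff] at h
      subst h
      refine ⟨x, hxy, ?_, fun k hk hk' => lt_of_le_of_ne (wB k) fun h => ?_⟩
      · have : x ∈ {k | loA B k = hiA B k} := by rw [hB']; simp
        exact this
      · have : k ∈ {k | loA B k = hiA B k} := h
        rw [hB'] at this
        rcases this with h | h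
        · exact hk' h
        · exact hk h
  obtain ⟨d1, hd1, hd1', hd1''⟩ := dir s1 fA1 D1 w1
  obtain ⟨d2, hd2, hd2', hd2''⟩ := dir s2 fA2 D2 w2
  -- values
  have v1 : bc A1 d1 = v d1 := by
    rw [vlo]
    have a1 := mo14 d1
    have a2 := mo14' d1
    have a3 := D4 d1
    unfold bc; linarith
  have v2 : bc A2 d2 = v d2 := by
    rw [vlo]
    have a1 := mo24 d2
    have a2 := mo24' d2
    have a3 := D4 d2
    unfold bc; linarith
  have vk0 : v k0 = bc A k0 ∧ bc A1 k0 = bc A k0 ∧ bc A2 k0 = bc A k0 := by
    have a1 := mo1 k0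
    have a2 := mo1' k0
    have a3 := mo2 k0
    have a4 := mo2' k0
    have a5 := mo14 k0
    have a6 := mo14' k0
    have a7 := D4 k0
    have a8 := w1 k0
    have a9 := w2 k0
    have a0 := vlo k0
    unfold bc
    refine ⟨?_, ?_, ?_⟩ <;> linarith
  have ed1 : v d1 = loA A d1 ∨ v d1 = hiA A d1 :=
    end_of_deg BF fA nA (fc_anti s14 vfc) hd1'
  have ed2 : v d2 = loA A d2 ∨ v d2 = hiA A d2 :=
    end_of_deg BF fA nA (fc_anti s24 vfc) hd2'
  have en1 : ∀ k, v k = loA A1 k ∨ v k = hiA A1 k := fun k => end_of_deg BF fA1 nA1 vfc (D4 k)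
  have vfc' : v ∈ fc (Pc F) (insert c1 A2) := by rw [← e42]; exact vfc
  have en2 : ∀ k, v k = loA A2 k ∨ v k = hiA A2 k := fun k =>
    end_of_deg BF fA2 nA2 vfc' (by rw [← e42]; exact D4 k)
  by_cases hdd : d1 = d2
  · -- the two edges lie on the same side
    subst hdd
    -- third direction
    obtain ⟨e, he0, he1⟩ : ∃ e, e ≠ k0 ∧ e ≠ d1 := by
      by_contra hcon
      push Not at hcon
      have : (Finset.univ : Finset κ) ⊆ {k0, d1} := fun k _ => by
        by_cases h : k = k0
        · simp [h]
        · simp [hcon k h]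
      have := Finset.card_le_card this
      rw [Finset.card_univ, h3] at this
      have h5 := Finset.card_le_two (a := k0) (b := d1)
      omega
    have b1 := hd1'' e he0 he1
    have b2 := hd2'' e he0 he1
    have c0 := hnd d1 hd1
    -- opposite sides
    have opp : (v e = loA A1 e ∧ v e = hiA A2 e) ∨ (v e = hiA A1 e ∧ v e = loA A2 e) := by
      have pin : ∀ y : κ → ℝ, y ∈ fc (Pc F) A1 → y ∈ fc (Pc F) A2 → y e = v e := by
        intro y h1 h2
        have : y ∈ fc (Pc F) A4 := by
          rw [mem_fc] at h1 h2 ⊢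
          rintro c (h | h)
          · exact h2 c (Or.inl h)
          · exact h1 c h
        have h4 := (mem_fc_iff fA4 nA4).1 this e
        have := D4 e
        have := vlo e
        linarith
      rcases en1 e with h | h <;> rcases en2 e with h' | h'
      · exfalso
        set r : ℝ := min (hiA A1 e) (hiA A2 e) with hr
        have hr1 : r ≤ hiA A1 e := min_le_left _ _
        have hr2 : r ≤ hiA A2 e := min_le_right _ _
        have hr3 : v e < r := lt_min (by linarith) (by linarith)
        have h5 : Function.update v e r ∈ fc (Pc F) A1 := by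
          rw [mem_fc_iff fA1 nA1]
          intro k
          by_cases hk : k = e
          · subst hk; rw [Function.update_self]; constructor <;> linarith
          · rw [Function.update_of_ne hk]
            exact (mem_fc_iff fA1 nA1).1 (fc_anti s14 vfc) k
        have h6 : Function.update v e r ∈ fc (Pc F) A2 := by
          rw [mem_fc_iff fA2 nA2]
          intro k
          by_cases hk : k = e
          · subst hk; rw [Function.update_self]; constructor <;> linarith
          · rw [Function.update_of_ne hk]
            exact (mem_fc_iff fA2 nA2).1 (fc_anti s24 vfc) k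
        have h7 := pin _ h5 h6
        rw [Function.update_self] at h7
        linarith
      · exact Or.inl ⟨h, h'⟩
      · exact Or.inr ⟨h, h'⟩
      · exfalso
        set r : ℝ := max (loA A1 e) (loA A2 e) with hr
        have hr1 : loA A1 e ≤ r := le_max_left _ _
        have hr2 : loA A2 e ≤ r := le_max_right _ _
        have hr3 : r < v e := max_lt (by linarith) (by linarith)
        have h5 : Function.update v e r ∈ fc (Pc F) A1 := by
          rw [mem_fc_iff fA1 nA1]
          intro k
          by_cases hk : k = e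
          · subst hk; rw [Function.update_self]; constructor <;> linarith
          · rw [Function.update_of_ne hk]
            exact (mem_fc_iff fA1 nA1).1 (fc_anti s14 vfc) k
        have h6 : Function.update v e r ∈ fc (Pc F) A2 := by
          rw [mem_fc_iff fA2 nA2]
          intro k
          by_cases hk : k = e
          · subst hk; rw [Function.update_self]; constructor <;> linarith
          · rw [Function.update_of_ne hk]
            exact (mem_fc_iff fA2 nA2).1 (fc_anti s24 vfc) k
        have h7 := pin _ h5 h6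
        rw [Function.update_self] at h7
        linarith
    have vd : v d1 - bc A d1 ≠ 0 := by
      unfold bc
      rcases ed1 with h | h <;> rw [h] <;> intro h' <;> linarith
    have p1 : bc A1 e = (loA A1 e + hiA A1 e) / 2 := rfl
    have p2 : bc A2 e = (loA A2 e + hiA A2 e) / 2 := rfl
    have hPne : bc A2 e - bc A1 e ≠ 0 := by
      rcases opp with ⟨h, h'⟩ | ⟨h, h'⟩ <;> intro h'' <;> rw [p1, p2] at h'' <;> linarith
    set lam : ℝ := (v e - bc A1 e) / (bc A2 e - bc A1 e) with hlam
    have hlam' : lam * (bc A2 e - bc A1 e) = v e - bc A1 e := div_mul_cancel₀ _ hPne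
    have l0 : 0 < lam ∧ lam < 1 := by
      rcases opp with ⟨h, h'⟩ | ⟨h, h'⟩
      · have n1 : bc A2 e - bc A1 e < 0 := by rw [p1, p2]; linarith
        have n2 : v e - bc A1 e < 0 := by rw [p1]; linarith
        have n3 : bc A2 e < v e := by rw [p2]; linarith
        refine ⟨div_pos_of_neg_of_neg n2 n1, ?_⟩
        rw [hlam, div_lt_one_of_neg n1]; linarith
      · have n1 : 0 < bc A2 e - bc A1 e := by rw [p1, p2]; linarith
        have n2 : 0 < v e - bc A1 e := by rw [p1]; linarith
        have n3 : v e < bc A2 e := by rw [p2]; linarith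
        refine ⟨div_pos n2 n1, ?_⟩
        rw [hlam, div_lt_one n1]; linarith
    refine ⟨fun s t hst => ?_, lam, 1 - lam, l0.1, by linarith [l0.2], by linarith, ?_⟩
    · have q1 := congrFun hst d1
      have q2 := congrFun hst e
      simp only [Pi.add_apply, Pi.smul_apply, Pi.sub_apply, smul_eq_mul, Pi.zero_apply] at q1 q2
      rw [v1, v2] at q1
      have q3 : (s + t) * (v d1 - bc A d1) = 0 := by linarith
      have q4 : s + t = 0 := (mul_eq_zero.1 q3).resolve_right vd
      have q5 : s * (bc A2 e - bc A1 e) = 0 := by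
        have : t = -s := by linarith
        rw [this] at q2; linarith
      have q6 : s = 0 := (mul_eq_zero.1 q5).resolve_right hPne
      exact ⟨q6, by linarith⟩
    · funext k
      simp only [Pi.add_apply, Pi.smul_apply, Pi.sub_apply, smul_eq_mul]
      rcases three_cases h3 hd1.symm he0.symm he1.symm k with rfl | rfl | rfl
      · rw [vk0.1, vk0.2.1, vk0.2.2]; ring
      · rw [v1, v2]; ring
      · linarith
  · -- adjacent sides
    have b1 := hd1'' d2 hd2 (fun h => hdd h.symm)
    have b2 := hd2'' d1 hd1 hdd
    have c1' := hnd d1 hd1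
    have c2' := hnd d2 hd2
    have u1 := mo1 d2
    have u1' := mo1' d2
    have u2 := mo2 d1
    have u2' := mo2' d1
    -- half widths
    set r1 : ℝ := v d1 - bc A d1 with hr1
    set r2 : ℝ := v d2 - bc A d2 with hr2
    set p : ℝ := bc A1 d2 - bc A d2 with hp
    set p' : ℝ := bc A2 d1 - bc A d1 with hp'
    have r1ne : r1 ≠ 0 := by
      rw [hr1]; unfold bc
      rcases ed1 with h | h <;> rw [h] <;> intro h' <;> linarith
    have r2ne : r2 ≠ 0 := by
      rw [hr2]; unfold bc
      rcases ed2 with h | h <;> rw [h] <;> intro h' <;> linarith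
    have hp1 : |p| < |r2| := by
      have e1 : |r2| = (hiA A d2 - loA A d2) / 2 := by
        rw [hr2]; unfold bc
        rcases ed2 with h | h
        · rw [h, abs_of_neg (by linarith)]; ring
        · rw [h, abs_of_pos (by linarith)]; ring
      rw [e1, hp, abs_lt]
      unfold bc
      constructor <;> linarith
    have hp2 : |p'| < |r1| := by
      have e1 : |r1| = (hiA A d1 - loA A d1) / 2 := by
        rw [hr1]; unfold bc
        rcases ed1 with h | h
        · rw [h, abs_of_neg (by linarith)]; ring
        · rw [h, abs_of_pos (by linarith)]; ring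
      rw [e1, hp', abs_lt]
      unfold bc
      constructor <;> linarith
    set s' : ℝ := p' / r1 with hs'
    set t' : ℝ := p / r2 with ht'
    have es : p' = s' * r1 := (div_mul_cancel₀ _ r1ne).symm
    have et : p = t' * r2 := (div_mul_cancel₀ _ r2ne).symm
    have hs1 : |s'| < 1 := by rw [hs', abs_div, div_lt_one (abs_pos.2 r1ne)]; exact hp2
    have ht1 : |t'| < 1 := by rw [ht', abs_div, div_lt_one (abs_pos.2 r2ne)]; exact hp1
    rw [abs_lt] at hs1 ht1
    have hst : 0 < 1 - s' * t' := by
      have a1 : |s' * t'| < 1 := by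
        rw [abs_mul]
        exact mul_lt_one_of_nonneg_of_lt_one_left (abs_nonneg _) (abs_lt.2 hs1) (abs_lt.2 ht1).le
      have := (abs_lt.1 a1).2
      linarith
    have coordP' : bc A2 d2 - bc A d2 = r2 := by rw [v2]
    have coordP : bc A1 d1 - bc A d1 = r1 := by rw [v1]
    refine ⟨fun s t hst0 => ?_, (1 - t') / (1 - s' * t'), (1 - s') / (1 - s' * t'),
      div_pos (by linarith) hst, div_pos (by linarith) hst, ?_, ?_⟩
    · have q1 := congrFun hst0 d1
      have q2 := congrFun hst0 d2
      simp only [Pi.add_apply, Pi.smul_apply, Pi.sub_apply, smul_eq_mul, Pi.zero_apply] at q1 q2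
      rw [coordP, show bc A2 d1 - bc A d1 = p' from rfl, es] at q1
      rw [coordP', show bc A1 d2 - bc A d2 = p from rfl, et] at q2
      have q3 : (s * s' + t) * r1 = 0 := by linarith
      have q4 : (s + t * t') * r2 = 0 := by linarith
      have q5 := (mul_eq_zero.1 q3).resolve_right r1ne
      have q6 := (mul_eq_zero.1 q4).resolve_right r2ne
      have q7 : s * (1 - s' * t') = 0 := by
        have : t = -(s * s') := by linarith
        rw [this] at q6; linarith
      have q8 : s = 0 := (mul_eq_zero.1 q7).resolve_right hst.ne'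
      refine ⟨q8, ?_⟩
      rw [q8] at q5; linarith
    · rw [← add_div, le_div_iff₀ hst]
      have hfin : 0 ≤ (1 - s') * (1 - t') := mul_nonneg (by linarith) (by linarith)
      have hfe : (1 - s') * (1 - t') = (1 - t' + (1 - s')) - 1 * (1 - s' * t') := by ring
      rw [hfe] at hfin
      linarith
    · funext k
      simp only [Pi.add_apply, Pi.smul_apply, Pi.sub_apply, smul_eq_mul]
      rcases three_cases h3 hd1.symm hd2.symm hdd k with rfl | rfl | rfl
      · rw [vk0.1, vk0.2.1, vk0.2.2]; ring
      · rw [coordP, show bc A2 k - bc A k = p' from rfl, es, show v k - bc A k = r1 from rfl]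
        have hX : (1 - t') / (1 - s' * t') * s' + (1 - s') / (1 - s' * t') = 1 :=
          adj_aux' hst.ne'
        linear_combination (-r1) * hX
      · rw [coordP', show bc A1 k - bc A k = p from rfl, et, show v k - bc A k = r2 from rfl]
        have hX : (1 - t') / (1 - s' * t') + (1 - s') / (1 - s' * t') * t' = 1 :=
          adj_aux hst.ne'
        linear_combination (-r2) * hX

end Crest.Agent.R096.Grd_714
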