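import Crest.Agent.R096.Grd7_714
import Crest.Agent.R096.Xq3_537

/-!
# R096 (row 96), GRID, part 9 (helper714): the instance of 537's `GridOK`
-/

set_option autoImplicit false
set_option linter.unusedSectionVars false

open Set

namespace Crest.Agent.R096.Grd_714

open Crest.Agent.R096.Brk1_582 Crest.Agent.R096.Xp_537 Crest.Agent.R096.Ce_537 Crest.Agent.R096.Bd_416

variable {E : Type*} [NormedAddCommGroup E] [NormedSpace ℝ E] [CompleteSpace E]
variable {E' : Type*} [NormedAddCommGroup E'] [NormedSpace ℝ E'] {I : Type*}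
variable {La : Set E} {P : I → Set E} {b : Set I → E} {m : I → ℕ}

open Classical in
/-- **the grid is an instance of `GridOK`** -/
theorem gridOK (F : Foam La P b 4) (hQ : Quads P b) (hne : ∀ c, (P c).Nonempty)
    (hm : ∀ c, 0 < m c) :
    GridOK (grid F hQ hne hm) (Tq b m) (co P b m) where
  co_mem := fun q t ht => ⟨co_mem F hQ hm ht, Tq_co_of_mem F hQ hm ht⟩
  T_mem := fun q v hv => ⟨⟨v, hv, rfl⟩, co_Tq F hQ hm (q.bx_sub hm hv)⟩
  co_b := fun q a => by
    show co P b m (Tq b m q.ctr) a = _
    rw [co_ctr F hQ hm q]; rfl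
  plco := fun q a => plOn_co F hQ hm q a
  plT q := by
    have hfin : q.free.Finite := q.free_fin F hm
    refine ⟨hfin.toFinset, fun w => Tq b m (fun a => if h : a ∈ hfin.toFinset then w ⟨a, h⟩ else q.hi a),
      ?_, fun v hv => ?_⟩
    · refine plOn_Tq F hQ hm q (fun w hw a => ?_) (fun a ha => ?_)
      · by_cases h : a ∈ hfin.toFinset
        · simp only [h, dite_true]; exact hw ⟨a, h⟩
        · simp only [h, dite_false]
          have h' : a ∉ q.free := fun h' => h (hfin.mem_toFinset.2 h')
          exact ⟨by rw [Gx.lo_eq h'], le_rfl⟩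
      · have h : a ∈ hfin.toFinset := hfin.mem_toFinset.2 ha
        simp only [h, dite_true]
        exact pl_apply (plOn_id _) _
    · congr 1
      funext a
      by_cases h : a ∈ hfin.toFinset
      · simp only [h, dite_true]
      · simp only [h, dite_false]
        exact Gx.eq_of_mem (fun h' => h (hfin.mem_toFinset.2 h')) hv

end Crest.Agent.R096.Grd_714
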