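import Crest.Agent.R096.Bd10_416

/-!
# R096 (row 96), P4-MESH, part 4: one stage of the recursion (helper416)
-/

set_option autoImplicit false

open Set Metric

namespace Crest.Agent.R096.Bd_416

open Crest.Agent.R096.Ce_537

open scoped Classical

variable {Q : Type} [PartialOrder Q] {dim : Q → ℕ} {J Fam : Type}
variable {E : Type*} [NormedAddCommGroup E] [NormedSpace ℝ E]

/-! ### gluing of colour data -/

section glue

set_option linter.unusedSectionVars false

/-- agreement at a point -/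
structure EqAt {κ : Type*} (g g' : Gd E κ) (z : E) : Prop where
  G : ∀ a, g'.G a z = g.G a z
  B : ∀ a, z ∈ g'.B a ↔ z ∈ g.B a
  lev : ∀ a, z ∈ g.B a → g'.lev a z = g.lev a z
  tr : ∀ a, z ∈ g.B a → ∀ s ∈ I2, g'.tr a (z, s) = g.tr a (z, s)

lemma EqAt.symm {κ : Type*} {g g' : Gd E κ} {z : E} (h : EqAt g g' z) : EqAt g' g z where
  G a := (h.G a).symm
  B a := (h.B a).symm
  lev a hB := (h.lev a ((h.B a).1 hB)).symm
  tr a hB s hs := (h.tr a ((h.B a).1 hB) s hs).symm

lemma EqAt.trans {κ : Type*} {g g' g'' : Gd E κ} {z : E} (h : EqAt g g' z) (h' : EqAt g' g'' z) :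
    EqAt g g'' z where
  G a := (h'.G a).trans (h.G a)
  B a := (h'.B a).trans (h.B a)
  lev a hB := (h'.lev a ((h.B a).2 hB)).trans (h.lev a hB)
  tr a hB s hs := (h'.tr a ((h.B a).2 hB) s hs).trans (h.tr a hB s hs)

lemma eqs_of_eqAt {κ : Type*} {g g' : Gd E κ} {Z : Set E} (h : ∀ z ∈ Z, EqAt g g' z) :
    g.Eqs g' Z :=
  ⟨fun a z hz => (h z hz).G a, fun a z hz => (h z hz).B a, fun a z hz => (h z hz).lev a,
    fun a z hz => (h z hz).tr a⟩

lemma Gd.Eqs.eqAt {κ : Type*} {g g' : Gd E κ} {Z : Set E} (h : g.Eqs g' Z) {z : E}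
    (hz : z ∈ Z) : EqAt g g' z :=
  ⟨fun a => h.G a z hz, fun a => h.B a z hz, fun a => h.lev a z hz, fun a => h.tr a z hz⟩

variable {K : Q → Set E} {N : Set Q}

/-- the data used at the point `z` -/
noncomputable def sel (K : Q → Set E) (N : Set Q) (g0 : Gd E J) (gN : ∀ τ, τ ∈ N → Gd E J)
    (z : E) : Gd E J :=
  if h : ∃ τ, ∃ _ : τ ∈ N, Opn K τ z then gN h.choose h.choose_spec.choose else g0

/-- the glued data -/
noncomputable def glueGd (K : Q → Set E) (N : Set Q) (g0 : Gd E J)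
    (gN : ∀ τ, τ ∈ N → Gd E J) : Gd E J where
  G a z := (sel K N g0 gN z).G a z
  B a := {z | z ∈ (sel K N g0 gN z).B a}
  lev a z := (sel K N g0 gN z).lev a z
  tr a p := (sel K N g0 gN p.1).tr a p

lemma eqAt_glue {g0 : Gd E J} {gN : ∀ τ, τ ∈ N → Gd E J} {z : E} {g : Gd E J}
    (h : sel K N g0 gN z = g) : EqAt g (glueGd K N g0 gN) z where
  G a := by show (sel K N g0 gN z).G a z = _; rw [h]
  B a := by show z ∈ (sel K N g0 gN z).B a ↔ _; rw [h]
  lev a _ := by show (sel K N g0 gN z).lev a z = _; rw [h]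
  tr a _ s _ := by show (sel K N g0 gN z).tr a (z, s) = _; rw [h]

variable {Ω : Set E}

lemma sel_new (X : Cplx Ω Q dim K) {g0 : Gd E J} {gN : ∀ τ, τ ∈ N → Gd E J} {τ : Q}
    (hτ : τ ∈ N) {z : E} (h : Opn K τ z) : sel K N g0 gN z = gN τ hτ := by
  have hex : ∃ τ, ∃ _ : τ ∈ N, Opn K τ z := ⟨τ, hτ, h⟩
  unfold sel
  rw [dif_pos hex]
  have : hex.choose = τ := X.disj _ _ _ hex.choose_spec.choose_spec h
  congr 1

lemma sel_old (X : Cplx Ω Q dim K) {D : Set Q} (hD : ∀ q ∈ D, ∀ p < q, p ∈ D)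
    (hDN : ∀ q ∈ N, q ∉ D) {g0 : Gd E J} {gN : ∀ τ, τ ∈ N → Gd E J} {σ : Q}
    (hσ : σ ∈ D) {z : E} (h : z ∈ K σ) : sel K N g0 gN z = g0 := by
  have hex : ¬ ∃ τ, ∃ _ : τ ∈ N, Opn K τ z := by
    rintro ⟨τ, hτ, ho⟩
    have h1 := X.opn_le ho h
    rcases h1.eq_or_lt with rfl | hlt
    · exact hDN _ hτ hσ
    · exact hDN _ hτ (hD σ hσ _ hlt)
  unfold sel
  rw [dif_neg hex]

end glue

/-! ### the product formula on a new cell -/

section PF

variable {Z : Set E} {I κ : Type*} [Fintype I]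

/-- `lev = 0` if the level function has values in `[0,1]` -/
lemma lev0_of {g : Gd E κ} (hI : g.Is Z) {j : κ} (hG : ∀ z ∈ Z, g.G j z ∈ Icc (0:ℝ) 1) {z : E}
    (hz : z ∈ Z) (hB : z ∈ g.B j) : g.lev j z = 0 := by
  have h1 := hI.tG j z hz hB 0 zero_mem_I2
  have h2 := hG _ (hI.tZ j z hz hB 0 zero_mem_I2)
  rw [h1] at h2
  obtain ⟨n, hn⟩ := mem_Zs.1 (hI.li j z hz hB)
  rw [hn] at h2 ⊢
  have h3 : (-1 : ℝ) < n := by linarith [h2.1]
  have h4 : (n : ℝ) < 1 := by linarith [h2.2]
  have h5 : (-1 : ℤ) < n := by exact_mod_cast h3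
  have h6 : n < 1 := by exact_mod_cast h4
  have : n = 0 := by omega
  rw [this]; simp

/-- the integer `(1 - sg a)/2` -/
def lab0 (a : ZMod 2) : ℤ := if a = 0 then 0 else 1

lemma lab0_eq (a : ZMod 2) : (lab0 a : ℝ) = 1/2 - sg a / 2 := by
  unfold lab0 sg
  split_ifs <;> norm_num

/-- **the product formula** by connectedness -/
theorem PF_gd (L : Lam Z I) (hZ : IsPreconnected Z) (col : I → κ) (Λ : κ → ZMod 2)
    (side : I → I → ZMod 2) (hd : L.Dj col)
    (hs : ∀ x x', x ≠ x' → col x' = col x → ∀ z ∈ L.B x, -2 * L.c x' z = sg (side x x'))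
    {o : E} (ho : o ∈ Z) (hoc : ∀ x, L.c x o = -1/2) (j : κ) {z : E} (hz : z ∈ Z) :
    (L.gd col (fun x => sg (Λ (col x) + ∑ x' : I with (col x' = col x ∧ x' ≠ x), side x x'))
      (fun j => lab0 (Λ j))).G j z
      = 1/2 - sg (Λ j) / 2 * ∏ x : I with col x = j, (-2 * L.c x z) := by
  set ε : I → ℝ := fun x => sg (Λ (col x) + ∑ x' : I with (col x' = col x ∧ x' ≠ x), side x x')
    with hεdef
  have hε : ∀ x, ε x = 1 ∨ ε x = -1 := fun x => sg_or _
  set u : E → ℝ := fun z => (L.gd col ε (fun j => lab0 (Λ j))).G j z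
    - (1/2 - sg (Λ j) / 2 * ∏ x : I with col x = j, (-2 * L.c x z)) with hu
  have hcont : ContinuousOn u Z := by
    refine ((Lam.gd_is ε (fun j => lab0 (Λ j)) hd hε).pG j).1.sub ?_
    refine continuousOn_const.sub (continuousOn_const.mul ?_)
    exact continuousOn_finsetProd _ fun x _ => (pl_mul (-2) (L.pc x)).1
  have hint : ∀ z ∈ Z, u z ∈ Zs := by
    intro z hz
    have hG : (L.gd col ε (fun j => lab0 (Λ j))).G j z
        = (lab0 (Λ j) : ℝ) + stp col ε j (fun x => L.c x z) := rfl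
    by_cases hex : ∃ x, col x = j ∧ z ∈ L.B x
    · obtain ⟨x, hx, hxB⟩ := hex
      have h1 : stp col ε j (fun x => L.c x z) - 1/2 - ε x * L.c x z ∈ Zs := by
        refine stp_one hε hx fun y hy hya => L.half hz ?_
        exact fun hc => hy (hd.uniq hya hx hc hxB)
      have hmem : x ∈ (Finset.univ.filter fun x' : I => col x' = j) := by simp [hx]
      have h2 : ∏ x' : I with col x' = j, (-2 * L.c x' z)
          = (-2 * L.c x z) * sg (∑ x' : I with (col x' = col x ∧ x' ≠ x), side x x') := by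
        rw [← Finset.mul_prod_erase _ _ hmem, sg_sum]
        congr 1
        refine Finset.prod_congr ?_ fun x' hx' => ?_
        · ext x'
          simp only [Finset.mem_erase, Finset.mem_filter, Finset.mem_univ, true_and, hx]
          tauto
        · rw [Finset.mem_filter] at hx'
          exact hs x x' (Ne.symm hx'.2.2) hx'.2.1 z hxB
      have h3 : u z = lab0 (Λ j) + (stp col ε j (fun x => L.c x z) - 1/2 - ε x * L.c x z) := by
        rw [hu]
        simp only
        rw [hG, h2]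
        have : ε x = sg (Λ j) * sg (∑ x' : I with (col x' = col x ∧ x' ≠ x), side x x') := by
          rw [hεdef]; simp only; rw [sg_add, hx]
        rw [this]; ring
      rw [h3]
      exact Zs.add_mem (int_mem_Zs _) h1
    · have h1 : ∀ x, col x = j → L.c x z = -1/2 ∨ L.c x z = 1/2 :=
        fun x hx => L.half hz fun hc => hex ⟨x, hx, hc⟩
      have h2 : |∏ x : I with col x = j, (-2 * L.c x z)| = 1 :=
        abs_prod_eq fun x hx => by
          rw [Finset.mem_filter] at hx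
          exact abs_of_half (h1 x hx.2)
      have h3 : (1/2 - sg (Λ j) / 2 * ∏ x : I with col x = j, (-2 * L.c x z)) ∈ Zs := by
        rcases sign_of_abs h2 with h | h <;> rw [h] <;> rcases sg_or (Λ j) with h' | h' <;>
          rw [h'] <;> norm_num <;> first | exact Zs.zero_mem | exact ⟨1, by simp⟩
      exact Zs.sub_mem (Zs.add_mem (int_mem_Zs _) (stp_int hε h1)) h3
  have h0 : u o = 0 := by
    have hG : (L.gd col ε (fun j => lab0 (Λ j))).G j o
        = (lab0 (Λ j) : ℝ) + stp col ε j (fun x => L.c x o) := rfl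
    have h1 : stp col ε j (fun x => L.c x o) = 0 := by
      unfold stp
      refine Finset.sum_eq_zero fun x _ => ?_
      show (if col x = j then ε x * (L.c x o + 1/2) else 0) = 0
      rw [hoc x]; split_ifs <;> ring
    have h2 : ∏ x : I with col x = j, (-2 * L.c x o) = 1 := by
      refine Finset.prod_eq_one fun x _ => ?_
      rw [hoc x]; norm_num
    rw [hu]; simp only
    rw [hG, h1, h2, lab0_eq]; ring
  have h1 := pre_int hZ hcont hint hz ho
  rw [h0] at h1
  have : u z = (L.gd col ε (fun j => lab0 (Λ j))).G j z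
    - (1/2 - sg (Λ j) / 2 * ∏ x : I with col x = j, (-2 * L.c x z)) := rfl
  rw [this] at h1
  linarith

end PF

end Crest.Agent.R096.Bd_416
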