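import Crest.Agent.R096.Xq7_537
import Crest.Agent.R096.Bd11_416

/-!
# R096 (row 96), EXPLODE, part q8 (helper537)

`GMach`: closed pieces with band structures (`Gd.Is`, helper416) in the level complex, equal on the
overlaps, and exact cores; `GMach.mach` = the corresponding `Mach`.
-/

set_option autoImplicit false
set_option linter.unusedSectionVars false
set_option linter.unusedVariables false
set_option linter.deprecated false

open Set Topology
open scoped NNReal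

namespace Crest.Agent.R096.Xp_537

open Crest.Agent.R096.Ce_537 (PLOn PLEquiv cube sph IsBall LocPL)
open Crest.Agent.R096.Ar_241 (Tr0 TopC Exact)
open Crest.Agent.R096.Bd_416
open Crest.Agent.R096.Grd_714

variable {E E' : Type*} [NormedAddCommGroup E] [NormedSpace ℝ E]
  [NormedAddCommGroup E'] [NormedSpace ℝ E']
  {I : Type*} {P : I → Set E} {m : I → ℕ} {Λ : Set E}

/-! ### finitely many colours -/

section fin

variable {g : Gd E' I} {Z : Set E'}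

/-- the colours which are not constant on `Z` -/
def cols (g : Gd E' I) (m : I → ℕ) (Z : Set E') : Set I := {a | ∃ x ∈ Z, g.G a x ≠ m a}

lemma mem_cols_of_B (h : g.Is Z) {a : I} {x : E'} (hx : x ∈ Z) (ha : x ∈ g.B a) :
    a ∈ cols g m Z := by
  have h0 : (0 : ℝ) ∈ I2 := by constructor <;> norm_num
  refine ⟨_, h.tZ a x hx ha 0 h0, ?_⟩
  rw [h.tG a x hx ha 0 h0]
  obtain ⟨k, hk⟩ := h.li a x hx ha
  intro he
  have h1 : (k : ℝ) = g.lev a x := hk
  rw [← h1] at he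
  have h2 : (2 * k + 1 : ℝ) = 2 * (m a : ℝ) := by linarith
  have h3 : (2 * k + 1 : ℤ) = 2 * (m a : ℤ) := by exact_mod_cast h2
  omega

lemma fin_B (h : g.Is Z) (hf : (cols g m Z).Finite) {x : E'} (hx : x ∈ Z) :
    {a | x ∈ g.B a}.Finite := hf.subset fun a ha => mem_cols_of_B h hx ha

/-- finitely many grid cells with given colours -/
lemma fin_cells {A : Set I} (hA : A.Finite) :
    {q : Gx P m | ∀ a, a ∉ A → q.lo a = m a ∧ q.hi a = m a}.Finite := by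
  have : Finite A := hA
  have hS : (Set.pi univ (fun a : A => Iic (m a)) : Set (A → ℕ)).Finite :=
    Set.Finite.pi (fun a => Set.finite_Iic _)
  refine Set.Finite.of_finite_image (f := fun q : Gx P m =>
    ((fun a : A => q.lo a, fun a : A => q.hi a) : (A → ℕ) × (A → ℕ)))
    ((hS.prod hS).subset ?_) ?_
  · rintro _ ⟨q, hq, rfl⟩
    exact ⟨fun a _ => (q.le a).trans (q.him a), fun a _ => q.him a⟩
  · intro q hq q' hq' he
    rw [Prod.mk.injEq] at he
    ext a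
    · by_cases ha : a ∈ A
      · exact congrFun he.1 ⟨a, ha⟩
      · rw [(hq a ha).1, (hq' a ha).1]
    · by_cases ha : a ∈ A
      · exact congrFun he.2 ⟨a, ha⟩
      · rw [(hq a ha).2, (hq' a ha).2]

/-- **the map is PL on a piece** -/
theorem plOn_gG {C : CC Λ (Cel P m)} {T : (I → ℝ) → E} {co : E → I → ℝ} (X : GridOK C T co)
    (hm : ∀ c, 0 < m c) (h : g.Is Z) (hZ : IsClosed Z) (hf : (cols g m Z).Finite)
    (hK : ∀ x ∈ Z, (fun a => g.G a x) ∈ G2 P m) : PLOn (gG T g) Z := by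
  refine plOn_cover' (I := {q : Gx P m | ∀ a, a ∉ cols g m Z → q.lo a = m a ∧ q.hi a = m a})
    (Ks := fun q => Z ∩ {x | (fun a => g.G a x) ∈ q.bx}) (fin_cells hf) (fun q _ => ?_)
    (fun x hx => ?_) (fun q _ => ?_)
  · have h1 : Z ∩ {x | (fun a => g.G a x) ∈ q.bx} =
        Z ∩ ⋂ a, (Z ∩ g.G a ⁻¹' Icc (q.lo a : ℝ) (q.hi a)) := by
      ext x
      constructor
      · rintro ⟨hx, h2⟩
        exact ⟨hx, mem_iInter.2 fun a => ⟨hx, h2 a⟩⟩
      · rintro ⟨hx, h2⟩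
        exact ⟨hx, fun a => (mem_iInter.1 h2 a).2⟩
    rw [h1]
    exact hZ.inter (isClosed_iInter fun a =>
      (h.pG a).1.preimage_isClosed_of_isClosed hZ isClosed_Icc)
  · refine ⟨flb hm _ (hK x hx), fun a ha => ?_, hx, mem_flb hm (hK x hx)⟩
    have h1 : g.G a x = m a := by
      by_contra hne
      exact ha ⟨x, hx, hne⟩
    constructor
    · show ⌊g.G a x⌋₊ = m a
      rw [h1, Nat.floor_natCast]
    · show ⌈g.G a x⌉₊ = m a
      rw [h1, Nat.ceil_natCast]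
  · exact X.comp q (fun a => (h.pG a).mono (fun x hx => hx.1)) (fun x hx => hx.2.2)

end fin

/-! ### equal band structures -/

section eq

variable {ι : Type*}

/-- the intersection of two pieces with equal structures is a piece -/
lemma is_inter {g g' : Gd E' I} {Z Z' : Set E'} (h : g.Is Z) (h' : g'.Is Z')
    (hc : IsClosed Z) (hc' : IsClosed Z') (e : ∀ x ∈ Z, x ∈ Z' → EqAt g g' x) :
    g.Is (Z ∩ Z') := by
  refine h.restrict inter_subset_left (hc.inter hc') ?_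
  intro a z hz hB s hs
  refine ⟨h.tZ a z hz.1 hB s hs, ?_⟩
  have h1 := e z hz.1 hz.2
  rw [← h1.tr a hB s hs]
  exact h'.tZ a z hz.2 ((h1.B a).2 hB) s hs

lemma agree_mesh {C : CC Λ (Cel P m)} {T : (I → ℝ) → E} {co : E → I → ℝ} (X : GridOK C T co)
    (hm : ∀ c, 0 < m c) (q0 : Cel P m) {g g' : Gd E' I} {Z Z' : Set E'} (h : g.Is Z)
    (h' : g'.Is Z') (hc : IsClosed Z) (hc' : IsClosed Z')
    (e : ∀ x ∈ Z, x ∈ Z' → EqAt g g' x) (hf : (cols g m Z).Finite)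
    (hK : ∀ x ∈ Z, (fun a => g.G a x) ∈ G2 P m) {x : E'} (hx : x ∈ Z) (hx' : x ∈ Z') :
    gG T g x = gG T g' x ∧ gtop hm q0 g x = gtop hm q0 g' x ∧
      ∀ t ∈ C.cell (gtop hm q0 g x), gtr co g x t = gtr co g' x t := by
  have h1 := is_inter h h' hc hc' e
  have h2 : g.Eqs g' (Z ∩ Z') := eqs_of_eqAt (fun z hz => e z hz.1 hz.2)
  obtain ⟨a1, a2, a3⟩ := agree_eqs X hm q0 h1 h2 (fun y hy => fin_B h hf hy.1)
    (fun y hy => hK y hy.1) (x := x) ⟨hx, hx'⟩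
  exact ⟨a1.symm, a2.symm, fun t ht => (a3 t ht).symm⟩

end eq

/-! ### the boundary of a core -/

section core

variable {Q : Type*} [PartialOrder Q] {C : CC Λ Q} {κ θ : ℝ} {c : Q} {K : Set E'}

/-- the boundary of the core -/
def bdK (C : CC Λ Q) (κ θ : ℝ) (c : Q) (K : Set E') (Th : E' → E) : Set E' :=
  {x | x ∈ K ∧ sl C κ (Th x) c = θ}

/-- if the weight of `c` is less than one the top cell is not `c` -/
lemma mn_ne {l : Q →₀ ℝ} (hl : Wt l) (hle : ∀ ρ ∈ l.support, ρ ≤ c) (h1 : l c < 1) :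
    mn c l ≠ c := by
  intro he
  obtain ⟨k1, k2⟩ := mn_spec c hl
  rw [he] at k2
  have h2 : ∀ ρ ∈ l.support, ρ = c := fun ρ hρ => le_antisymm (hle ρ hρ) (k2 ρ hρ)
  have h3 : l.support ⊆ {c} := fun ρ hρ => Finset.mem_singleton.2 (h2 ρ hρ)
  have h4 := Finset.sum_subset h3 (f := fun σ => l σ)
    (fun σ _ hσ => Finsupp.notMem_support_iff.1 hσ)
  rw [Finset.sum_singleton] at h4
  have h5 := hl.sum
  have h6 : l c = 1 := by rw [← h4]; exact h5
  linarith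

lemma ctop_lt (hκ : 0 < κ ∧ κ < 1) (h1 : θ < 1) (Th : PLEquiv K (coreF C κ c θ)) {x : E'}
    (hx : x ∈ bdK C κ θ c K Th.f) : ctop C κ c Th.f x < c := by
  obtain ⟨k1, k2, k3⟩ := st_spec C hκ (Th.mf hx.1).1
  exact lt_of_le_of_ne (k3 _ (mn_spec c k1.wt).1)
    (mn_ne k1.wt k3 (by rw [hx.2]; exact h1))

/-- **the exact structure on the boundary of the core** -/
theorem core_bd_trnOn [FiniteDimensional ℝ E] (hκ : 0 < κ ∧ κ < 1)
    (Th : PLEquiv K (coreF C κ c θ)) :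
    TrnOn (bdK C κ θ c K Th.f) C (cG C κ Th.f) (ctop C κ c Th.f) (ctr C κ Th.f Th.g) := by
  refine (core_trnOn hκ Th).mono (fun x hx => hx.1) ?_
  intro x hx t ht
  have h1 : Th.f (ctr C κ Th.f Th.g x t) = pk C κ (sl C κ (Th.f x)) t :=
    Th.ri _ (coreF_move hκ (Th.mf hx.1) ht)
  refine ⟨Th.mg (coreF_move hκ (Th.mf hx.1) ht), ?_⟩
  rw [h1, sl_move hκ (Th.mf hx.1).1 ht]
  exact hx.2

end core

section bg

variable [FiniteDimensional ℝ E] {C : CC Λ (Cel P m)} {T : (I → ℝ) → E} {co : E → I → ℝ}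
  {κ θ : ℝ} {c : Cel P m} {K : Set E'}

lemma ctop_gr (hκ : 0 < κ ∧ κ < 1) (h1 : θ < 1) (Th : PLEquiv K (coreF C κ c θ)) {x : E'}
    (hx : x ∈ bdK C κ θ c K Th.f) : ∃ q, ctop C κ c Th.f x = .gr q := by
  have h2 := ctop_lt hκ h1 Th hx
  cases h : ctop C κ c Th.f x with
  | top c' => rw [h] at h2; exact absurd h2 Cel.not_top_lt
  | gr q => exact ⟨q, rfl⟩

/-- **core / mesh agreement from the agreement of the band structures** -/
theorem bg_of_eqAt (X : GridOK C T co) (hm : ∀ c, 0 < m c) (q0 : Cel P m)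
    (hff : ∀ q : Gx P m, q.free.Finite) (hκ : 0 < κ ∧ κ < 1) (h1 : θ < 1)
    (Th : PLEquiv K (coreF C κ c θ)) {g : Gd E' I} {Z : Set E'} (h : g.Is Z) (hc : IsClosed Z)
    (hK : IsClosed K) (hf : (cols g m Z).Finite) (hG : ∀ x ∈ Z, (fun a => g.G a x) ∈ G2 P m)
    (hsub : Z ∩ K ⊆ bdK C κ θ c K Th.f)
    (e : ∀ x ∈ Z, x ∈ K →
      EqAt g (gdT T co (cG C κ Th.f) (ctop C κ c Th.f) (ctr C κ Th.f Th.g)) x)
    {x : E'} (hx : x ∈ Z) (hxK : x ∈ K) :
    gG T g x = cG C κ Th.f x ∧ gtop hm q0 g x = ctop C κ c Th.f x ∧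
      ∀ t ∈ C.cell (gtop hm q0 g x), gtr co g x t = ctr C κ Th.f Th.g x t := by
  classical
  set g' := gdT T co (cG C κ Th.f) (ctop C κ c Th.f) (ctr C κ Th.f Th.g) with hg'
  have hT := core_bd_trnOn hκ Th
  have htop : ∀ x ∈ bdK C κ θ c K Th.f, ∃ q, ctop C κ c Th.f x = .gr q :=
    fun x hx => ctop_gr hκ h1 Th hx
  -- `Z ∩ K` is invariant
  have h2 : g.Is (Z ∩ K) := by
    refine h.restrict inter_subset_left (hc.inter hK) ?_
    intro a z hz hB s hs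
    refine ⟨h.tZ a z hz.1 hB s hs, ?_⟩
    have h3 := e z hz.1 hz.2
    rw [← h3.tr a hB s hs]
    have hB' : a ∈ fre (ctop C κ c Th.f z) := (h3.B a).2 hB
    obtain ⟨q, hq⟩ := htop z (hsub hz)
    rw [hq] at hB'
    have h4 := hT.G_mem z (hsub hz)
    rw [hq] at h4
    have h5 := upd_mem (X.co_mem q _ h4).1 (show a ∈ q.free from hB') hs
    have h6 : g'.tr a (z, s) = ctr C κ Th.f Th.g z
        (T (Function.update (co (cG C κ Th.f z)) a ((q.lo a : ℝ) + 1 / 2 + s))) := by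
      show ctr C κ Th.f Th.g z (T (Function.update (co (cG C κ Th.f z)) a
        (lof (ctop C κ c Th.f z) a + 1 / 2 + s))) = _
      rw [hq]; rfl
    rw [h6]
    have h7 := hT.tr_mem z (hsub hz)
      (T (Function.update (co (cG C κ Th.f z)) a ((q.lo a : ℝ) + 1 / 2 + s)))
      (by rw [hq]; exact (X.T_mem q _ h5).1)
    exact h7.1
  have h3 : g.Eqs g' (Z ∩ K) := eqs_of_eqAt (fun z hz => e z hz.1 hz.2)
  obtain ⟨a1, a2, a3⟩ := agree_eqs X hm q0 h2 h3 (fun y hy => fin_B h hf hy.1)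
    (fun y hy => hG y hy.1) (x := x) ⟨hx, hxK⟩
  obtain ⟨b1, b2, b3⟩ := gdT_round X hm q0 hT htop hff (hsub ⟨hx, hxK⟩)
  refine ⟨a1.symm.trans b1, a2.symm.trans b2, fun t ht => ?_⟩
  rw [← a3 t ht]
  refine b3 t ?_
  rw [← b2, a2]; exact ht

end bg

/-! ### the machine -/

section machine

variable {ι : Type*} [FiniteDimensional ℝ E]

/-- **band pieces and exact cores** -/
structure GMach (Ω : Set E') (C : CC Λ (Cel P m)) (T : (I → ℝ) → E) (co : E → I → ℝ)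
    (hm : ∀ c, 0 < m c) (q0 : Cel P m) (Z : ι → Set E') (g : ι → Gd E' I)
    (κ θ : TopC (Cel P m) → ℝ) (Kc : TopC (Cel P m) → Set E')
    (Th : ∀ c, PLEquiv (Kc c) (coreF C (κ c) c.1 (θ c))) : Prop where
  κpos : ∀ c, 0 < κ c ∧ κ c < 1
  θ0 : ∀ c, 0 ≤ θ c
  θ1 : ∀ c, θ c < 1
  closed : ∀ i, IsClosed (Z i)
  subZ : ∀ i, Z i ⊆ Ω
  subK : ∀ c, Kc c ⊆ Ω
  cov : ∀ x ∈ Ω, (∃ i, x ∈ Z i) ∨ ∃ c, x ∈ Kc c
  is : ∀ i, (g i).Is (Z i)
  lvl : ∀ i, ∀ x ∈ Z i, (fun a => (g i).G a x) ∈ G2 P m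
  fin : ∀ i, (cols (g i) m (Z i)).Finite
  eqs : ∀ i j, ∀ x ∈ Z i, x ∈ Z j → EqAt (g i) (g j) x
  bg : ∀ i c, ∀ x ∈ Z i, x ∈ Kc c →
    gG T (g i) x = cG C (κ c) (Th c).f x ∧
    gtop hm q0 (g i) x = ctop C (κ c) c.1 (Th c).f x ∧
    ∀ t ∈ C.cell (gtop hm q0 (g i) x), gtr co (g i) x t = ctr C (κ c) (Th c).f (Th c).g x t
  disj : ∀ c c', c ≠ c' → Disjoint (Kc c) (Kc c')
  bdry : ∀ c, ∀ x ∈ Kc c, (∃ i, x ∈ Z i) ↔ sl C (κ c) ((Th c).f x) c.1 = θ c
  lfZ : ∀ x ∈ Ω, ∃ U ∈ 𝓝 x, {i | (Z i ∩ U).Nonempty}.Finite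
  lfK : ∀ x ∈ Ω, ∃ U ∈ 𝓝 x, {c | (Kc c ∩ U).Nonempty}.Finite
  prop : ∀ q, ∃ A ⊆ Ω, IsCompact A ∧ ∀ i, ∀ x ∈ Z i, gG T (g i) x ∈ C.cell q → x ∈ A

variable {Ω : Set E'} {C : CC Λ (Cel P m)} {T : (I → ℝ) → E} {co : E → I → ℝ}
  {hm : ∀ c, 0 < m c} {q0 : Cel P m} {Z : ι → Set E'} {g : ι → Gd E' I}
  {κ θ : TopC (Cel P m) → ℝ} {Kc : TopC (Cel P m) → Set E'}
  {Th : ∀ c, PLEquiv (Kc c) (coreF C (κ c) c.1 (θ c))}

theorem GMach.mach (h : GMach Ω C T co hm q0 Z g κ θ Kc Th) (X : GridOK C T co) :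
    Mach Ω C Z (fun i => gG T (g i)) (fun i => gtop hm q0 (g i)) (fun i => gtr co (g i))
      κ θ Kc Th where
  κpos := h.κpos
  θ0 := h.θ0
  θ1 := h.θ1
  closed := h.closed
  subZ := h.subZ
  subK := h.subK
  cov := h.cov
  on i := mesh_trnOn X hm q0 (h.is i) (fun x hx => fin_B (h.is i) (h.fin i) hx) (h.lvl i)
  cont i := (plOn_gG X hm (h.is i) (h.closed i) (h.fin i) (h.lvl i)).1
  agG i j x hx hx' := (agree_mesh X hm q0 (h.is i) (h.is j) (h.closed i) (h.closed j)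
    (h.eqs i j) (h.fin i) (h.lvl i) hx hx').1
  agT i j x hx hx' := (agree_mesh X hm q0 (h.is i) (h.is j) (h.closed i) (h.closed j)
    (h.eqs i j) (h.fin i) (h.lvl i) hx hx').2.1
  agt i j x hx hx' := (agree_mesh X hm q0 (h.is i) (h.is j) (h.closed i) (h.closed j)
    (h.eqs i j) (h.fin i) (h.lvl i) hx hx').2.2
  bgG i c x hx hx' := (h.bg i c x hx hx').1
  bgT i c x hx hx' := (h.bg i c x hx hx').2.1
  bgt i c x hx hx' := (h.bg i c x hx hx').2.2
  disj := h.disj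
  bdry := h.bdry
  ntop i x hx := by
    obtain ⟨q, hq, -⟩ := gtop_spec (hm := hm) (q0 := q0) (h.is i)
      (fun x hx => fin_B (h.is i) (h.fin i) hx) (h.lvl i) hx
    obtain ⟨c, c', hne, h0, h0'⟩ := q.two
    refine ⟨.top c, ?_⟩
    show gtop hm q0 (g i) x < _
    rw [hq]
    exact Cel.gr_lt_top.2 h0
  lfZ := h.lfZ
  lfK := h.lfK
  prop := h.prop

/-- the top cells are the foam cells -/
lemma topC_eq (c : TopC (Cel P m)) : ∃ a : I, c.1 = .top a := by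
  obtain ⟨c, hc⟩ := c
  cases c with
  | top a => exact ⟨a, rfl⟩
  | gr q =>
    obtain ⟨a, a', hne, h0, h0'⟩ := q.two
    have := hc (.top a) (Cel.gr_le_top.2 h0)
    exact absurd this (by simp)

/-- a foam cell as a top cell -/
def topc (a : I) : TopC (Cel P m) := ⟨.top a, fun r hr => by
  cases r with
  | top a' => rw [Cel.top_le_top] at hr; rw [hr]
  | gr q => exact absurd hr Cel.top_le_gr⟩

/-- the index of a top cell -/
noncomputable def tix (c : TopC (Cel P m)) : I := (topC_eq c).choose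

lemma tix_spec (c : TopC (Cel P m)) : c.1 = .top (tix c) := (topC_eq c).choose_spec

@[simp] lemma tix_topc (a : I) : tix (topc a : TopC (Cel P m)) = a := by
  have := tix_spec (topc a : TopC (Cel P m))
  injection this with h1
  exact h1.symm

@[simp] lemma topc_tix (c : TopC (Cel P m)) : topc (tix c) = c :=
  Subtype.ext (tix_spec c).symm

end machine

end Crest.Agent.R096.Xp_537
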