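import Crest.Agent.R096.Oa3_527
import Crest.Agent.R096.Fin2_147
import Crest.Agent.R096.Xq8_537
import Crest.Agent.R096.Grd8_714
import Crest.Agent.R096.Grd9_714

/-!
# Row 96 (S0127), OUT-ASM, part 4 (helper527): `prop` and `adj` on the data of `Fin_147`

* `adj2S`, `cpt_of_adj` : adjacency and properness on a part `S` of `Om` (the mesh part);
* `MeshEx` : every mesh cell lies in a tile which is in no `J0 c`, and has 441's (K4) at the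
  coordinates of `Psi (f x0)` for a point `x0` of that tile;
* **`MeshEx.prop`** : the hypothesis `prop` of `Giants.mach` / `Giants.trn`;
* `cG_mem'` : the map of a giant has values in its brick;
* **`MeshEx.gadj`** : clause `adj` of `GOut` for the map of `Giants.trn`.
-/

set_option autoImplicit false
set_option linter.unusedSectionVars false
set_option linter.unusedVariables false
set_option linter.style.longLine false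

open Set Filter Topology Metric MeasureTheory
open scoped ENNReal

namespace Crest.Agent.R096.Oa_527

open Crest.Agent.R096.Brk1_582 Crest.Agent.R096.Brk3_582 Crest.Agent.R096.Brk5_582
open Crest.Agent.R096.Bsp_628
open Crest.Agent.R096.SkC1_961 (E3 Hom3 FoamD Cfg th NN)
open Crest.Agent.R096.Msh_715 Crest.Agent.R096.Nr_527
open Crest.Agent.R096.Xp_537 (CC Expl Trn gG cG ctop ctr coreF core_trnOn)
open Crest.Agent.R096.Mbf_337 (KJ sb gau)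
open Crest.Agent.R096.Ce_537 (PLOn PLEquiv IsBall Cplx)
open Crest.Agent.R096.Bd_416 Crest.Agent.R096.Grd_714 Crest.Agent.R096.Mg_441
open Crest.Agent.R096.Ar_241 (Tr0 TopC Exact)

variable {δ κ0 R c0 : ℝ} {La Om : Set E3} {ι : Type} {Φ : FoamD δ κ0 R c0 La} {Tl : Tiling Om ι}
  {f : E3 → E3} {κ1 κ2 : ℝ} {X : Set Φ.F} {J0 J V : Φ.F → Set ι} {ct : Φ.F → ι}
  {A : Φ.F → E3 ≃ᵃ[ℝ] E3} {lam : Φ.F → ℝ} {z : Φ.F → E3} {θ : Φ.F → E3 → E3} {φ : Φ.F → E3 → ℝ}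

/-- adjacency on a part of `Om` -/
theorem adj2S (hLa : IsOpen La) (hf : Hom3 f Om La) (hs : Small δ κ0 R κ1 κ2)
    (hC : Mbf_337.Cores Φ Tl f κ1 κ2 X J0 J V ct A lam z θ φ) (hF : Mbf_337.Fine Φ Tl f κ1 J0)
    {S : Set E3} (hSO : S ⊆ Om) {G : E3 → E3}
    (hG : ∀ x ∈ S, (∃ c : Φ.F, x ∈ KJ Tl (V c) ∧ G x ∈ Pc Φ.F c) ∨
      ∃ i, (∀ c, i ∉ J0 c) ∧ x ∈ P (Tl.H i) ∧ ∃ x0 ∈ P (Tl.H i), ∀ a : Φ.F,
        Φ.Psi (f x0) ∈ Pc Φ.F a → G x ∈ Pc Φ.F a) : Adj Φ.F S f G := by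
  intro x hx c hc
  rcases hG x hx with ⟨d, hxd, hGd⟩ | ⟨i, hi, hxi, x0, hx0, h0⟩
  · obtain ⟨h1, h2⟩ := open_only Φ hLa (V_inside hC hxd)
    refine ⟨d, hGd, ?_⟩
    rw [h2 c hc]
    exact ⟨_, h1, h1⟩
  · have hS := fineAt hf hs.k1 hs.c hC hF hi
    have hmap : f x0 ∈ La := by
      obtain ⟨fi, hm, -⟩ := hf
      exact hm (Tl.sub i hx0)
    obtain ⟨d, hd⟩ := (foam Φ.bf hLa).cov _ hmap
    have hpd : Φ.Psi (f x0) ∈ Pc Φ.F d := Psi_mem Φ hLa hd (hS.hole x0 hx0 d)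
    exact ⟨d, h0 d hpd, hS.touch hLa hs.δ0 hs.R0 hf (Tl.sub i) hs.a hxi hx0 hc hpd⟩

/-- **properness on a part of `Om`** (no continuity of `G`) -/
theorem cpt_of_adj (hLa : IsOpen La) (hf : Hom3 f Om La) {S : Set E3} (hSO : S ⊆ Om)
    {G : E3 → E3} (hA : Adj Φ.F S f G) {Y : Set E3} (hY : IsCompact Y) (hYL : Y ⊆ La) :
    ∃ B ⊆ Om, IsCompact B ∧ ∀ x ∈ S, G x ∈ Y → x ∈ B := by
  obtain ⟨fi, hm, hfi, h1, h2, hcf, hcfi⟩ := hf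
  obtain ⟨Z, hZ, hZL, hZf⟩ := hA.exists_compact Φ.bf hLa (fun x hx => hm (hSO hx)) hY hYL
  refine ⟨fi '' Z, ?_, hZ.image_of_continuousOn (hcfi.mono hZL), fun x hx hxY =>
    ⟨f x, hZf x hx hxY, h1 x (hSO hx)⟩⟩
  rintro _ ⟨y, hy, rfl⟩
  exact hfi (hZL hy)

section mesh

variable {Q : Type} [PartialOrder Q] {dim : Q → ℕ} {Jc : Type}
  {Cc : Cmb Q dim Jc Φ.F} {K : Q → Set E3} {D : Set Q} {g : Gd E3 Jc}
  {Pp : ∀ q, Cc.I q → Set E3} {cc : ∀ q, Cc.I q → E3 → ℝ}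

/-- **(K4) with base points** -/
def MeshEx (Φ : FoamD δ κ0 R c0 La) (Tl : Tiling Om ι) (f : E3 → E3) (J0 : Φ.F → Set ι)
    (Cc : Cmb Q dim Jc Φ.F) (K : Q → Set E3) (D : Set Q) : Prop :=
  ∀ q ∈ D, ∃ i, (∀ c, i ∉ J0 c) ∧ K q ⊆ P (Tl.H i) ∧
    ∃ x0 ∈ P (Tl.H i), Ex Cc (Pc Φ.F) q (sb Φ (Φ.Psi (f x0)))

theorem MeshEx.ex (h : MeshEx Φ Tl f J0 Cc K D) {q : Q} (hq : q ∈ D) :
    ∃ y, Ex Cc (Pc Φ.F) q y := by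
  obtain ⟨i, -, -, x0, -, h0⟩ := h q hq
  exact ⟨_, h0⟩

/-- the adjacency input on the mesh cells -/
theorem MeshEx.adj0 (hLa : IsOpen La) (hf : Hom3 f Om La) (hs : Small δ κ0 R κ1 κ2)
    (hC : Mbf_337.Cores Φ Tl f κ1 κ2 X J0 J V ct A lam z θ φ)
    (h : MeshEx Φ Tl f J0 Cc K D) (H : Inv Cc K D g Pp cc)
    (hfin : ∀ a, {j | Cc.fam j = a}.Finite) (hm : ∀ a, 0 < mm hfin a)
    {Tt : (Φ.F → ℝ) → E3}
    (hT : ∀ v ∈ G2 (Pc Φ.F) (mm hfin), ∀ a, v a = 0 → Tt v ∈ Pc Φ.F a) {q : Q} (hq : q ∈ D)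
    {x : E3} (hx : x ∈ K q) :
    ∃ i, (∀ c, i ∉ J0 c) ∧ x ∈ P (Tl.H i) ∧ ∃ x0 ∈ P (Tl.H i), ∀ a : Φ.F,
      Φ.Psi (f x0) ∈ Pc Φ.F a → gG Tt (merge hfin g) x ∈ Pc Φ.F a := by
  obtain ⟨i, hi, hK, x0, hx0, hex⟩ := h q hq
  refine ⟨i, hi, hK hx, x0, hx0, fun a ha => ?_⟩
  have hmem : Φ.Psi (f x0) ∈ La := (foam Φ.bf hLa).sub a ha
  exact gG_mem (foam Φ.bf hLa) H hfin hm hq hx hmem hex hT ha

/-- **the hypothesis `prop` of `Giants.mach`** -/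
theorem MeshEx.prop (hLa : IsOpen La) (hf : Hom3 f Om La) (hs : Small δ κ0 R κ1 κ2)
    (hC : Mbf_337.Cores Φ Tl f κ1 κ2 X J0 J V ct A lam z θ φ) (hF : Mbf_337.Fine Φ Tl f κ1 J0)
    (h : MeshEx Φ Tl f J0 Cc K univ) (H : Inv Cc K univ g Pp cc)
    (hfin : ∀ a, {j | Cc.fam j = a}.Finite) (hm : ∀ a, 0 < mm hfin a)
    {Tt : (Φ.F → ℝ) → E3}
    (hT : ∀ v ∈ G2 (Pc Φ.F) (mm hfin), ∀ a, v a = 0 → Tt v ∈ Pc Φ.F a)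
    {Q' : Type*} [PartialOrder Q'] (𝒞 : CC La Q') :
    ∀ r, ∃ B ⊆ Om, IsCompact B ∧
      ∀ q, ∀ x ∈ K q, gG Tt (merge hfin g) x ∈ 𝒞.cell r → x ∈ B := by
  intro r
  have hSO : (⋃ q, K q) ⊆ Om := by
    intro x hx
    obtain ⟨q, hq⟩ := mem_iUnion.1 hx
    obtain ⟨i, -, hK, -⟩ := h q (mem_univ q)
    exact Tl.sub i (hK hq)
  have hA : Adj Φ.F (⋃ q, K q) f (gG Tt (merge hfin g)) := by
    refine adj2S hLa hf hs hC hF hSO fun x hx => ?_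
    obtain ⟨q, hq⟩ := mem_iUnion.1 hx
    exact Or.inr (h.adj0 hLa hf hs hC H hfin hm hT (mem_univ q) hq)
  obtain ⟨B, hB, hBc, hB'⟩ := cpt_of_adj hLa hf hSO hA (𝒞.cpt r) (𝒞.sub r)
  exact ⟨B, hB, hBc, fun q x hx hxr => hB' x (mem_iUnion.2 ⟨q, hx⟩) hxr⟩

end mesh

/-- **the map of a giant has values in its brick** -/
theorem cG_mem' {Q' : Type*} [PartialOrder Q'] {𝒞 : CC La Q'} {κ t : ℝ} (hκ : 0 < κ ∧ κ < 1)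
    {q : Q'} {Kt : Set E3} (Th : PLEquiv Kt (coreF 𝒞 κ q t)) {x : E3} (hx : x ∈ Kt) :
    cG 𝒞 κ Th.f x ∈ 𝒞.cell q := by
  have h1 : ctop 𝒞 κ q Th.f x ≤ q := by
    obtain ⟨k1, k2, k3⟩ := Xp_537.st_spec 𝒞 hκ ((Th).mf hx).1
    exact k3 _ (Xp_537.mn_spec q k1.wt).1
  exact 𝒞.mono_le h1 ((core_trnOn hκ Th).G_mem x hx)

/-- **clause `adj` of `GOut`** for the map of `Giants.trn` (`Tt := Tq bc (mm hfin)`, `𝒞 := grid ..`) -/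
theorem gadj {Q : Type} [PartialOrder Q] {dim : Q → ℕ} {Jc : Type}
    {Cc : Cmb Q dim Jc Φ.F} {K : Q → Set E3} {g : Gd E3 Jc}
    {Pp : ∀ q, Cc.I q → Set E3} {cc : ∀ q, Cc.I q → E3 → ℝ}
    (hLa : IsOpen La) (hf : Hom3 f Om La) (hs : Small δ κ0 R κ1 κ2)
    (hC : Mbf_337.Cores Φ Tl f κ1 κ2 X J0 J V ct A lam z θ φ)
    (h : MeshEx Φ Tl f J0 Cc K univ) (H : Inv Cc K univ g Pp cc)
    {hfin : ∀ a, {j | Cc.fam j = a}.Finite} (hm : ∀ a, 0 < mm hfin a)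
    {Tt : (Φ.F → ℝ) → E3}
    (hT : ∀ v ∈ G2 (Pc Φ.F) (mm hfin), ∀ a, v a = 0 → Tt v ∈ Pc Φ.F a)
    {𝒞 : CC La (Cel (Pc Φ.F) (mm hfin))} (htop : ∀ a : Φ.F, 𝒞.cell (.top a) = Pc Φ.F a)
    {κ : TopC (Cel (Pc Φ.F) (mm hfin)) → ℝ} (hκ : ∀ c, 0 < κ c ∧ κ c < 1)
    {Kt : TopC (Cel (Pc Φ.F) (mm hfin)) → Set E3}
    {Th : ∀ c, PLEquiv (Kt c) (coreF 𝒞 (κ c) c.1 0)}
    (hKt : ∀ c, Kt c ⊆ KJ Tl (J (Xp_537.tix c))) {G : E3 → E3}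
    (hcov : ∀ x ∈ Om, (∃ q, x ∈ K q) ∨ ∃ c, x ∈ Kt c)
    (hG1 : ∀ q, ∀ x ∈ K q, G x = gG Tt (merge hfin g) x)
    (hG2 : ∀ c, ∀ x ∈ Kt c, G x = cG 𝒞 (κ c) (Th c).f x) :
    ∀ x ∈ Om, (∃ c : Φ.F, x ∈ KJ Tl (V c) ∧ G x ∈ Pc Φ.F c) ∨
      ∃ i, (∀ c, i ∉ J0 c) ∧ x ∈ P (Tl.H i) ∧ ∃ x0 ∈ P (Tl.H i), ∀ a : Φ.F,
        Φ.Psi (f x0) ∈ Pc Φ.F a → G x ∈ Pc Φ.F a := by
  intro x hx
  rcases hcov x hx with ⟨q, hq⟩ | ⟨c, hc⟩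
  · right
    rw [hG1 q x hq]
    exact h.adj0 hLa hf hs hC H hfin hm hT (mem_univ q) hq
  · left
    refine ⟨Xp_537.tix c, ?_, ?_⟩
    · obtain ⟨i, hi, hxi⟩ := mem_KJ.1 (hKt c hc)
      exact mem_KJ.2 ⟨i, J_sub hC _ hi, hxi⟩
    · rw [hG2 c x hc, ← htop, ← Xp_537.tix_spec c]
      exact cG_mem' (hκ c) (Th c) hc

/-- the target map of the grid -/
theorem hT_Tq (hLa : IsOpen La) {m : Φ.F → ℕ} (hm : ∀ a, 0 < m a) :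
    ∀ v ∈ G2 (Pc Φ.F) m, ∀ a, v a = 0 → Tq (bc (F := Φ.F)) m v ∈ Pc Φ.F a := fun v hv a ha =>
  (Tq_mem_iff (foam Φ.bf hLa) (quads_box Φ.bf (by simp)) hm hv).2 ha

/-- **[F10]: from the output of `Giants.trn` to `GOut`**; `met` = the metric clauses (835 / 199 / 487:
`lip`; 609 / 714 / 628: `core`) for every map with these values. -/
theorem gout_of {Q : Type} [PartialOrder Q] {dim : Q → ℕ} {Jc : Type}
    {Cc : Cmb Q dim Jc Φ.F} {K : Q → Set E3} {g : Gd E3 Jc}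
    {Pp : ∀ q, Cc.I q → Set E3} {cc : ∀ q, Cc.I q → E3 → ℝ}
    (hLa : IsOpen La) (hf : Hom3 f Om La) (hs : Small δ κ0 R κ1 κ2)
    (hC : Mbf_337.Cores Φ Tl f κ1 κ2 X J0 J V ct A lam z θ φ)
    (h : MeshEx Φ Tl f J0 Cc K univ) (H : Inv Cc K univ g Pp cc)
    {hfin : ∀ a, {j | Cc.fam j = a}.Finite} (hm : ∀ a, 0 < mm hfin a)
    {Tt : (Φ.F → ℝ) → E3}
    (hT : ∀ v ∈ G2 (Pc Φ.F) (mm hfin), ∀ a, v a = 0 → Tt v ∈ Pc Φ.F a)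
    {𝒞 : CC La (Cel (Pc Φ.F) (mm hfin))} (htop : ∀ a : Φ.F, 𝒞.cell (.top a) = Pc Φ.F a)
    {κ : TopC (Cel (Pc Φ.F) (mm hfin)) → ℝ} (hκ : ∀ c, 0 < κ c ∧ κ c < 1)
    {Kt : TopC (Cel (Pc Φ.F) (mm hfin)) → Set E3}
    {Th : ∀ c, PLEquiv (Kt c) (coreF 𝒞 (κ c) c.1 0)}
    (hKt : ∀ c, Kt c ⊆ KJ Tl (J (Xp_537.tix c)))
    (hcov : ∀ x ∈ Om, (∃ q, x ∈ K q) ∨ ∃ c, x ∈ Kt c)
    (hG : ∃ (G : E3 → E3) (_ : Trn Om 𝒞 G), ContinuousOn G Om ∧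
      (∀ q, ∀ x ∈ K q, G x = gG Tt (merge hfin g) x) ∧
      (∀ c, ∀ x ∈ Kt c, G x = cG 𝒞 (κ c) (Th c).f x))
    {C0 e : ℝ} {Cs : Set (Set E3) → ℝ} {κw : Φ.F → ℕ} {L : Φ.F → Finset ℝ}
    (met : ∀ G : E3 → E3, ContinuousOn G Om → (∀ q, ∀ x ∈ K q, G x = gG Tt (merge hfin g) x) →
      (∀ c, ∀ x ∈ Kt c, G x = cG 𝒞 (κ c) (Th c).f x) →
      OutG C0 Cs e Φ Tl f X V ct A lam κw L G) :
    ∃ G : E3 → E3, GOut C0 Cs e Φ Tl f X J0 V ct A lam κw L G := by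
  obtain ⟨G, E, hGc, hG1, hG2⟩ := hG
  exact ⟨G, ⟨_, _, 𝒞, ⟨E.expl⟩⟩,
    gadj hLa hf hs hC h H hm hT htop hκ hKt hcov hG1 hG2, met G hGc hG1 hG2⟩

end Crest.Agent.R096.Oa_527
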