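import Crest.Agent.R096.At5_241

/-!
# R096 (row 96), SQ-CHN (helper241), part 2: the ends of the chain

* `frozen_core` : a side of the face of a node is active or a core tile;
* `Ends` : exactly one node at each of the two cores of the quad;
* `sqChn` : the chain.
-/

set_option autoImplicit false
set_option linter.unusedSectionVars false

namespace Crest.Agent.R096.At_241

open Crest.Agent.R096.St_147 Crest.Agent.R096.Seq_213
open Crest.Agent.R096.Arc_422 (Chn)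

variable {ι Φ W J C K : Type} {M : MeshC ι Φ W} {fam : J → C} {s : GSt M fam}
  {Q : Quads ι C K} {far : J → Set W} {k : K} {i0 : Q.Nm fam k} {nm : Bool → Q.Nm fam k}

/-- the points of a node in the global state -/
theorem nd_at (z : (s.res Q k i0).Dbl) (x : Bool) :
    s.At z.F (z.e x) ∧ Q.In k (fam (s.lab (z.e x))) := GSt.res_at.1 (z.at_ x)

theorem nd_ne (z : (s.res Q k i0).Dbl) : fam (s.lab (z.e true)) ≠ fam (s.lab (z.e false)) := by
  intro h
  have h1 := z.colr true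
  have h2 := z.colr false
  have h3 : Q.cl fam k ((s.res Q k i0).lab (z.e true)) =
      Q.cl fam k ((s.res Q k i0).lab (z.e false)) := by
    rw [Q.cl_eq_iff, GSt.res_lab (nd_at z true).2, GSt.res_lab (nd_at z false).2]
    exact h
  rw [h1, h2] at h3
  exact absurd h3 (by simp)

/-- a point which is not marked on a face touching `Act k`: the face is inner -/
theorem inner_of_notFar (hI : s.Inv Q far) {F : Φ} (hF : Tch M (Q.Act k) F) {w : W}
    (hw : s.At F w) (hfar : w ∉ far (s.lab w)) : Inner M (Q.Act k) F := by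
  rcases hI.loc hw.1 with h | ⟨k', -, hint⟩
  · exact absurd h hfar
  · have h1 := hint.2 F hw.2
    obtain ⟨q, hq, hqA⟩ := hF
    by_cases hkk : k' = k
    · rw [← hkk]; exact h1
    · exact absurd hqA (Set.disjoint_left.1 (Q.disj k' k hkk) (h1 q hq))

/-- **a frozen side of the face of a node is a core tile** -/
theorem frozen_core (hI : s.Inv Q far) {Kor : Set ι}
    (hN : ∀ F, Tch M (Q.Act k) F → ∀ w w', s.At F w → s.At F w' → w ∈ far (s.lab w) →
      w' ∈ far (s.lab w') → Q.In k (fam (s.lab w)) → Q.In k (fam (s.lab w')) →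
      fam (s.lab w) ≠ fam (s.lab w') → ∀ q ∈ M.side F, q ∈ Q.Act k ∨ q ∈ Kor)
    (z : NdT (s.res Q k i0) (Q.Act k) nm) {q : ι} (hq : q ∈ M.side z.1.F) :
    q ∈ Q.Act k ∨ q ∈ Kor := by
  by_cases h1 : z.1.e true ∈ far (s.lab (z.1.e true))
  · by_cases h2 : z.1.e false ∈ far (s.lab (z.1.e false))
    · exact hN _ z.2.2 _ _ (nd_at z.1 true).1 (nd_at z.1 false).1 h1 h2 (nd_at z.1 true).2
        (nd_at z.1 false).2 (nd_ne z.1) q hq
    · exact Or.inl (inner_of_notFar hI z.2.2 (nd_at z.1 false).1 h2 q hq)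
  · exact Or.inl (inner_of_notFar hI z.2.2 (nd_at z.1 true).1 h1 q hq)

/-- **the ends of the double curve of two sheets over the quad `k`**: `A0`, `A1` the core tiles of
the two zero colours of the quad -/
structure Ends (s : GSt M fam) (Q : Quads ι C K) (k : K) (i0 : Q.Nm fam k)
    (nm : Bool → Q.Nm fam k) (A0 A1 : Set ι) : Prop where
  one0 : ∃! z : NdT (s.res Q k i0) (Q.Act k) nm, ∃ q ∈ M.side z.1.F, q ∈ A0
  one1 : ∃! z : NdT (s.res Q k i0) (Q.Act k) nm, ∃ q ∈ M.side z.1.F, q ∈ A1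
  d0 : Disjoint A0 (Q.Act k)
  d1 : Disjoint A1 (Q.Act k)
  d : Disjoint A0 A1
  fr : ∀ z : NdT (s.res Q k i0) (Q.Act k) nm, ∀ q ∈ M.side z.1.F, q ∈ Q.Act k ∨ q ∈ A0 ∨ q ∈ A1

namespace Ends

variable {A0 A1 : Set ι} (h : Ends s Q k i0 nm A0 A1)
include h

/-- the first end -/
noncomputable def e : NdT (s.res Q k i0) (Q.Act k) nm := h.one0.choose

/-- the second end -/
noncomputable def e' : NdT (s.res Q k i0) (Q.Act k) nm := h.one1.choose

theorem e_spec : ∃ q ∈ M.side h.e.1.F, q ∈ A0 := h.one0.choose_spec.1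

theorem e'_spec : ∃ q ∈ M.side h.e'.1.F, q ∈ A1 := h.one1.choose_spec.1

theorem eq_e {z : NdT (s.res Q k i0) (Q.Act k) nm} (hz : ∃ q ∈ M.side z.1.F, q ∈ A0) : z = h.e :=
  h.one0.choose_spec.2 z hz

theorem eq_e' {z : NdT (s.res Q k i0) (Q.Act k) nm} (hz : ∃ q ∈ M.side z.1.F, q ∈ A1) :
    z = h.e' := h.one1.choose_spec.2 z hz

theorem frozen_e : ∃ q ∈ M.side h.e.1.F, q ∉ Q.Act k := by
  obtain ⟨q, hq, hq0⟩ := h.e_spec
  exact ⟨q, hq, Set.disjoint_left.1 h.d0 hq0⟩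

theorem frozen_e' : ∃ q ∈ M.side h.e'.1.F, q ∉ Q.Act k := by
  obtain ⟨q, hq, hq0⟩ := h.e'_spec
  exact ⟨q, hq, Set.disjoint_left.1 h.d1 hq0⟩

theorem ne : h.e ≠ h.e' := by
  intro he
  obtain ⟨q, hq, hq0⟩ := h.e_spec
  obtain ⟨q', hq', hq1⟩ := h.e'_spec
  obtain ⟨r, hr, hrA⟩ := h.e.2.2
  rw [← he] at hq'
  have h1 : q ≠ r := fun e1 => Set.disjoint_left.1 h.d0 hq0 (e1 ▸ hrA)
  have h2 : q' ≠ r := fun e1 => Set.disjoint_left.1 h.d1 hq1 (e1 ▸ hrA)
  have h3 : q ≠ q' := fun e1 => Set.disjoint_left.1 h.d hq0 (e1 ▸ hq1)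
  have h4 : M.side h.e.1.F = s(q, r) := (Sym2.mem_and_mem_iff h1).1 ⟨hq, hr⟩
  rw [h4, Sym2.mem_iff] at hq'
  rcases hq' with h5 | h5
  · exact h3 h5.symm
  · exact h2 h5

theorem inner {z : NdT (s.res Q k i0) (Q.Act k) nm} (h1 : z ≠ h.e) (h2 : z ≠ h.e') :
    ∀ q ∈ M.side z.1.F, q ∈ Q.Act k := by
  intro q hq
  rcases h.fr z q hq with h3 | h3 | h3
  · exact h3
  · exact absurd (h.eq_e ⟨q, hq, h3⟩) h1
  · exact absurd (h.eq_e' ⟨q, hq, h3⟩) h2

/-- **the chain** -/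
noncomputable def chn (A : (s.res Q k i0).Arcs (Q.Act k))
    (hno : NoClosed (s.res Q k i0) (Q.Act k)) : Chn (NdT (s.res Q k i0) (Q.Act k) nm) ι :=
  stChnT A (hno A) nm h.e h.e' h.ne h.frozen_e h.frozen_e' fun _ h1 h2 => h.inner h1 h2

variable (A : (s.res Q k i0).Arcs (Q.Act k)) (hno : NoClosed (s.res Q k i0) (Q.Act k))

theorem chn_S (z : NdT (s.res Q k i0) (Q.Act k) nm) :
    (h.chn A hno).S z = {q | q ∈ M.side z.1.F ∧ q ∈ Q.Act k} := rfl

theorem chn_e : (h.chn A hno).e = h.e := rfl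

theorem chn_e' : (h.chn A hno).e' = h.e' := rfl

theorem chn_arc {q : ι} {z : NdT (s.res Q k i0) (Q.Act k) nm}
    (hq : q ∈ M.side z.1.F) (hA : q ∈ Q.Act k) :
    ((h.chn A hno).arc q z).1 = A.arc q z.1 := narcT_val A ⟨hq, hA⟩

end Ends

end Crest.Agent.R096.At_241
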