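import Crest.Agent.R096.SkB1_662
import Crest.Agent.R096.At6_241

/-!
# R096 (row 96), bottom, SkB1 (helper662), part 1d: (E1), (E2), (N1) from `s₀` to the final state

On faces which are not inner to a quad all points of the two states are marked (`Inv.loc`), so the
copy map `β` of `Cps` is, name by name, an isomorphism there.

* `XP s F j j' x y` : `x, y` are the low ends of two interlaced chords of the names `j, j'` on `F`;
* `Two s A B j j'`  : exactly one such triple on the faces which touch `A` and have a side in `B`;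
* `two_iff`         : `Two` = 241's `Ends.one0 / one1`;
* `StO.one`         : (E1) = 334's `Gnt.one`;
* `StO.two`, `StO.n1`.
-/

set_option autoImplicit false
set_option linter.unusedSectionVars false

open Set

namespace Crest.Agent.R096.SkB_662

open Crest.Agent.R096.St_147 Crest.Agent.R096.Seq_213 Crest.Agent.R096.Cp_298
  Crest.Agent.R096.Lm_117 Crest.Agent.R096.Grd_714 Crest.Agent.R096.Gl_422

variable {ι Φ W J C K : Type} {M : MeshC ι Φ W} {fam : J → C}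

/-- `x`, `y` are the low ends of two interlaced chords of the names `j`, `j'` on the face `F` -/
structure XP (s : GSt M fam) (F : Φ) (j j' : J) (x y : W) : Prop where
  ax : s.At F x
  ay : s.At F y
  lx : s.lab x = j
  ly : s.lab y = j'
  px : M.pos F x < M.pos F (s.mu F x)
  py : M.pos F y < M.pos F (s.mu F y)
  lace : M.Lace F x (s.mu F x) y (s.mu F y)

/-- exactly one double point of the names `j`, `j'` on the faces which touch `A` and have a side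
in `B` -/
def Two (s : GSt M fam) (A B : Set ι) (j j' : J) : Prop :=
  ∃! t : Φ × W × W, XP s t.1 j j' t.2.1 t.2.2 ∧ Tch M A t.1 ∧ ∃ q ∈ M.side t.1, q ∈ B

/-- (E1): the name `j` has at most one closed curve on the faces `D` -/
def One (s : GSt M fam) (D : Set Φ) (j : J) : Prop :=
  ∀ Z : Set W, (∀ F w, F ∈ D → w ∈ Z → s.At F w → s.lab w = j → s.mu F w ∈ Z) →
    ∀ F w F' w', F ∈ D → F' ∈ D → s.At F w → s.At F' w' → s.lab w = j → s.lab w' = j →
    w ∈ Z → w' ∈ Z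

/-- (N1) -/
def NI (s : GSt M fam) (far : J → Set W) (Q : Quads ι C K) (k : K) (B : Set ι) : Prop :=
  ∀ F, Tch M (Q.Act k) F → ∀ w w', s.At F w → s.At F w' → w ∈ far (s.lab w) →
    w' ∈ far (s.lab w') → Q.In k (fam (s.lab w)) → Q.In k (fam (s.lab w')) →
    fam (s.lab w) ≠ fam (s.lab w') → ∀ q ∈ M.side F, q ∈ Q.Act k ∨ q ∈ B

/-! ### `Two` and the nodes of 241 -/

section nodes

variable {Q : Quads ι C K} {k : K} {i0 : Q.Nm fam k} {nm : Bool → Q.Nm fam k} {s : GSt M fam}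

/-- a node gives a crossing -/
theorem xp_of_nd {A : Set ι} (z : At_241.NdT (s.res Q k i0) A nm) :
    XP s z.1.F (nm true).1 (nm false).1 (z.1.e true) (z.1.e false) := by
  obtain ⟨z, hz, hT⟩ := z
  have h1 := GSt.res_at.1 (z.at_ true)
  have h2 := GSt.res_at.1 (z.at_ false)
  refine ⟨h1.1, h2.1, ?_, ?_, z.low true, z.low false, z.lace⟩
  · exact (GSt.res_lab_iff h1.2).1 (hz true)
  · exact (GSt.res_lab_iff h2.2).1 (hz false)

/-- a crossing gives a node -/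
theorem nd_of_xp {A : Set ι} (hnm : ∀ b, fam (nm b).1 = Q.pr k b) {F : Φ} {x y : W}
    (h : XP s F (nm true).1 (nm false).1 x y) (hT : Tch M A F) :
    ∃ z : At_241.NdT (s.res Q k i0) A nm, z.1.F = F ∧ z.1.e true = x ∧ z.1.e false = y := by
  have i1 : Q.In k (fam (s.lab x)) := by rw [h.lx]; exact (nm true).2
  have i2 : Q.In k (fam (s.lab y)) := by rw [h.ly]; exact (nm false).2
  refine ⟨⟨⟨F, fun b => if b then x else y, ?_, ?_, ?_, ?_⟩, ?_, hT⟩, rfl, rfl, rfl⟩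
  · intro b; cases b
    · exact GSt.res_at.2 ⟨h.ay, i2⟩
    · exact GSt.res_at.2 ⟨h.ax, i1⟩
  · intro b; cases b
    · exact h.py
    · exact h.px
  · intro b; cases b
    · refine (Q.cl_iff fam k _ _).2 ?_
      have e : (s.res Q k i0).lab y = nm false := (GSt.res_lab_iff i2).2 h.ly
      exact (congrArg (fun j : Q.Nm fam k => fam j.1) e).trans (hnm false)
    · refine (Q.cl_iff fam k _ _).2 ?_
      have e : (s.res Q k i0).lab x = nm true := (GSt.res_lab_iff i1).2 h.lx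
      exact (congrArg (fun j : Q.Nm fam k => fam j.1) e).trans (hnm true)
  · exact h.lace
  · intro b; cases b
    · exact (GSt.res_lab_iff i2).2 h.ly
    · exact (GSt.res_lab_iff i1).2 h.lx

theorem nd_ext {A : Set ι} {z z' : At_241.NdT (s.res Q k i0) A nm} (hF : z.1.F = z'.1.F)
    (h1 : z.1.e true = z'.1.e true) (h2 : z.1.e false = z'.1.e false) : z = z' := by
  obtain ⟨⟨F, e, a, b, c, d⟩, p⟩ := z
  obtain ⟨⟨F', e', a', b', c', d'⟩, p'⟩ := z'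
  simp only at hF h1 h2
  subst hF
  have : e = e' := by
    funext b; cases b
    · exact h2
    · exact h1
  subst this
  rfl

/-- **`Two` = 241's `Ends.one0 / one1`** -/
theorem two_iff {A B : Set ι} (hnm : ∀ b, fam (nm b).1 = Q.pr k b) :
    Two s A B (nm true).1 (nm false).1 ↔
      ∃! z : At_241.NdT (s.res Q k i0) A nm, ∃ q ∈ M.side z.1.F, q ∈ B := by
  constructor
  · rintro ⟨⟨F, x, y⟩, ⟨hX, hT, hB⟩, hu⟩
    obtain ⟨z, rfl, rfl, rfl⟩ := nd_of_xp (i0 := i0) hnm hX hT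
    refine ⟨z, hB, ?_⟩
    rintro z' hz'
    have h := hu (z'.1.F, z'.1.e true, z'.1.e false) ⟨xp_of_nd z', z'.2.2, hz'⟩
    simp only [Prod.mk.injEq] at h
    exact nd_ext h.1 h.2.1 h.2.2
  · rintro ⟨z, hz, hu⟩
    refine ⟨(z.1.F, z.1.e true, z.1.e false), ⟨xp_of_nd z, z.2.2, hz⟩, ?_⟩
    rintro ⟨F, x, y⟩ ⟨hX, hT, hB⟩
    simp only at hX hT hB
    obtain ⟨z', rfl, rfl, rfl⟩ := nd_of_xp (i0 := i0) hnm hX hT
    have h := hu z' hB
    subst h
    rfl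

end nodes

/-! ### frozen faces -/

section frozen

variable {J1 : Type} {fam1 : J1 → C} {O : Ori M} {Q : Quads ι C K} {Rel : W → W → Prop}
  {s₀ : GSt M fam} {far₀ : J → Set W} {σ₀ : W → ZMod 2} {p : J1 → J} {m : J1 → ℕ}
  {s : GSt M fam1} {far : J1 → Set W} {β : W → W}

/-- the points on a frozen face are marked -/
theorem far_of_frozen {J' : Type} {fam' : J' → C} {s : GSt M fam'} {far : J' → Set W}
    (hI : s.Inv Q far) {F : Φ} (hF : ∀ k, ¬ Inner M (Q.Act k) F) {w : W} (hw : s.At F w) :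
    w ∈ far (s.lab w) := by
  rcases hI.loc hw.1 with h | ⟨k, -, hint⟩
  · exact h
  · exact absurd (hint.2 F hw.2) (hF k)

theorem ok_of_frozen {J' : Type} {fam' : J' → C} {s : GSt M fam'} {F : Φ}
    (hF : ∀ k, ¬ Inner M (Q.Act k) F) (w : W) : s.OK Q F w := fun k _ h => absurd h (hF k)

variable (hC : Cps O Q Rel s₀ far₀ σ₀ p m s far β) (hI₀ : s₀.Inv Q far₀) (hI : s.Inv Q far)
include hC hI₀ hI

/-- **the copy map on a frozen face** -/
theorem cps_at {F : Φ} (hF : ∀ k, ¬ Inner M (Q.Act k) F) {x : W} (hx : s.At F x) :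
    s₀.At F (β x) ∧ s₀.lab (β x) = p (s.lab x) ∧ β (s.mu F x) = s₀.mu F (β x) := by
  have h1 := far_of_frozen hI hF hx
  have h2 := hC.far_mem h1
  have h3 := hI₀.far_mem h2
  have h4 : s₀.At F (β x) := ⟨h3.1, (hC.on F hx.1).1 hx.2⟩
  refine ⟨h4, h3.2, ?_⟩
  have h5 := s₀.mu_mem h4.1 h4.2
  have h6 : s₀.mu F (β x) ∈ far₀ (p (s.lab x)) := by
    have := far_of_frozen hI₀ hF (w := s₀.mu F (β x)) h5
    rwa [s₀.mu_lab h4.1 h4.2, h3.2] at this
  exact (hC.ok h1 h4 h6 (ok_of_frozen hF _)).1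

/-- **every point of `s₀` on a frozen face has its copies** -/
theorem cps_ex {F : Φ} (hF : ∀ k, ¬ Inner M (Q.Act k) F) {w : W} (hw : s₀.At F w) {y : J1}
    (hy : p y = s₀.lab w) : ∃ x, s.At F x ∧ s.lab x = y ∧ β x = w := by
  have h1 := far_of_frozen hI₀ hF hw
  rw [← hy] at h1
  obtain ⟨x, hx, hxw⟩ := hC.far_ex h1
  obtain ⟨h2, h3⟩ := hI.far_mem hx
  refine ⟨x, ⟨h2, (hC.on F h2).2 (by rw [hxw]; exact hw.2)⟩, h3, hxw⟩

theorem cps_uniq {F F' : Φ} (hF : ∀ k, ¬ Inner M (Q.Act k) F)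
    (hF' : ∀ k, ¬ Inner M (Q.Act k) F') {x x' : W} (hx : s.At F x) (hx' : s.At F' x')
    (hl : s.lab x = s.lab x') (hb : β x = β x') : x = x' := by
  have h1 := far_of_frozen hI hF hx
  have h2 := far_of_frozen hI hF' hx'
  rw [← hl] at h2
  exact hC.far_uniq h1 h2 hb

/-- the order on a frozen face -/
theorem cps_lt {F : Φ} (hF : ∀ k, ¬ Inner M (Q.Act k) F) {x y : W} (hx : s.At F x)
    (hy : s.At F y) (hne : β x ≠ β y) :
    M.pos F x < M.pos F y ↔ M.pos F (β x) < M.pos F (β y) := by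
  have h1 := cps_at hC hI₀ hI hF hx
  have h2 := cps_at hC hI₀ hI hF hy
  constructor
  · intro h
    by_contra h'
    rcases lt_or_eq_of_le (not_lt.1 h') with h3 | h3
    · exact absurd (hC.lt hy hx h3) (not_lt.2 h.le)
    · exact hne (M.pos_inj F h1.1.2 h2.1.2 h3.symm)
  · exact fun h => hC.lt hx hy h

/-- the crossings of two names on a frozen face -/
theorem xp_iff {F : Φ} (hF : ∀ k, ¬ Inner M (Q.Act k) F) {x y : W} (hx : s.At F x)
    (hy : s.At F y) (hne : p (s.lab x) ≠ p (s.lab y)) :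
    XP s F (s.lab x) (s.lab y) x y ↔ XP s₀ F (p (s.lab x)) (p (s.lab y)) (β x) (β y) := by
  obtain ⟨a1, a2, a3⟩ := cps_at hC hI₀ hI hF hx
  obtain ⟨b1, b2, b3⟩ := cps_at hC hI₀ hI hF hy
  have hmx : s.At F (s.mu F x) := s.mu_mem hx.1 hx.2
  have hmy : s.At F (s.mu F y) := s.mu_mem hy.1 hy.2
  have c1 := s₀.mu_lab a1.1 a1.2
  have c2 := s₀.mu_lab b1.1 b1.2
  have e1 : M.pos F x < M.pos F (s.mu F x) ↔ M.pos F (β x) < M.pos F (s₀.mu F (β x)) := by
    rw [cps_lt hC hI₀ hI hF hx hmx (by rw [a3]; exact (s₀.mu_ne a1.1 a1.2).symm), a3]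
  have e2 : M.pos F y < M.pos F (s.mu F y) ↔ M.pos F (β y) < M.pos F (s₀.mu F (β y)) := by
    rw [cps_lt hC hI₀ hI hF hy hmy (by rw [b3]; exact (s₀.mu_ne b1.1 b1.2).symm), b3]
  have n1 : β x ≠ β y := fun h => hne (by rw [← a2, ← b2, h])
  have n2 : β x ≠ β (s.mu F y) := fun h => hne (by rw [← a2, ← b2, h, b3, c2])
  have n3 : β (s.mu F x) ≠ β y := fun h => hne (by rw [← a2, ← b2, ← h, a3, c1])
  have n4 : β (s.mu F x) ≠ β (s.mu F y) := fun h => hne (by rw [← a2, ← b2, ← c1, ← c2, ← a3, h, b3])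
  have e3 : M.Lace F x (s.mu F x) y (s.mu F y) ↔
      M.Lace F (β x) (s₀.mu F (β x)) (β y) (s₀.mu F (β y)) := by
    unfold MeshC.Lace MeshC.Btw
    rw [cps_lt hC hI₀ hI hF hx hy n1, cps_lt hC hI₀ hI hF hy hmx n3.symm,
      cps_lt hC hI₀ hI hF hmx hy n3, cps_lt hC hI₀ hI hF hy hx n1.symm,
      cps_lt hC hI₀ hI hF hx hmy n2, cps_lt hC hI₀ hI hF hmy hmx n4.symm,
      cps_lt hC hI₀ hI hF hmx hmy n4, cps_lt hC hI₀ hI hF hmy hx n2.symm, a3, b3]
  constructor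
  · intro h
    exact ⟨a1, b1, a2, b2, e1.1 h.px, e2.1 h.py, e3.1 h.lace⟩
  · intro h
    exact ⟨hx, hy, rfl, rfl, e1.2 h.px, e2.2 h.py, e3.2 h.lace⟩

/-- **(E2) is transported** -/
theorem two_cps {A B : Set ι} (hB : ∀ k, ∀ q ∈ B, q ∉ Q.Act k) {y y' : J1} (hne : p y ≠ p y')
    (h : Two s₀ A B (p y) (p y')) : Two s A B y y' := by
  have hfr : ∀ F, (∃ q ∈ M.side F, q ∈ B) → ∀ k, ¬ Inner M (Q.Act k) F := by
    rintro F ⟨q, hq, hqB⟩ k hin
    exact hB k q hqB (hin q hq)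
  obtain ⟨⟨F, w, w'⟩, ⟨hX, hT, hS⟩, hu⟩ := h
  have hF := hfr F hS
  obtain ⟨x, hx, hxl, hxw⟩ := cps_ex hC hI₀ hI hF hX.ax (y := y) hX.lx.symm
  obtain ⟨x', hx', hxl', hxw'⟩ := cps_ex hC hI₀ hI hF hX.ay (y := y') hX.ly.symm
  subst hxl
  subst hxl'
  refine ⟨(F, x, x'), ⟨(xp_iff hC hI₀ hI hF hx hx' hne).2 ?_, hT, hS⟩, ?_⟩
  · rw [hxw, hxw']; exact hX
  · rintro ⟨G, v, v'⟩ ⟨hX1, hT1, hS1⟩
    simp only at hX1 hT1 hS1
    have hG := hfr G hS1
    have hX2 : XP s₀ G (p (s.lab x)) (p (s.lab x')) (β v) (β v') := by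
      have := (xp_iff hC hI₀ hI hG hX1.ax hX1.ay (by rw [hX1.lx, hX1.ly]; exact hne)).1 (by
        rw [hX1.lx, hX1.ly]; exact hX1)
      rwa [hX1.lx, hX1.ly] at this
    have h1 := hu (G, β v, β v') ⟨hX2, hT1, hS1⟩
    simp only [Prod.mk.injEq] at h1
    obtain ⟨h2, h3, h4⟩ := h1
    subst h2
    have h5 : v = x := cps_uniq hC hI₀ hI hG hG hX1.ax hx hX1.lx (by rw [h3, hxw])
    have h6 : v' = x' := cps_uniq hC hI₀ hI hG hG hX1.ay hx' hX1.ly (by rw [h4, hxw'])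
    rw [h5, h6]

/-- **(E1) is transported** -/
theorem one_cps {D : Set Φ} (hD : ∀ F ∈ D, ∀ k, ¬ Inner M (Q.Act k) F) {y : J1}
    (h : One s₀ D (p y)) : One s D y := by
  intro Z hZ F x F' x' hF hF' hx hx' hxl hxl' hxZ
  have h1 := h {w | ∃ G x, G ∈ D ∧ s.At G x ∧ s.lab x = y ∧ x ∈ Z ∧ β x = w} (by
    rintro G w hG ⟨G', v, hG', hv, hvl, hvZ, rfl⟩ hw hwl
    have hvP := hv.1
    have hv2 : s.At G v := ⟨hvP, (hC.on G hvP).2 hw.2⟩
    have h2 := cps_at hC hI₀ hI (hD G hG) hv2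
    refine ⟨G, s.mu G v, hG, s.mu_mem hvP hv2.2, ?_, hZ G v hG hvZ hv2 hvl, h2.2.2⟩
    rw [s.mu_lab hvP hv2.2, hvl])
    F (β x) F' (β x') hF hF' (cps_at hC hI₀ hI (hD F hF) hx).1
    (cps_at hC hI₀ hI (hD F' hF') hx').1
    (by rw [(cps_at hC hI₀ hI (hD F hF) hx).2.1, hxl])
    (by rw [(cps_at hC hI₀ hI (hD F' hF') hx').2.1, hxl'])
    ⟨F, x, hF, hx, hxl, hxZ, rfl⟩
  obtain ⟨G, v, hG, hv, hvl, hvZ, hvx⟩ := h1
  have : v = x' := cps_uniq hC hI₀ hI (hD G hG) (hD F' hF') hv hx' (by rw [hvl, hxl']) hvx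
  rwa [this] at hvZ

/-- a name which has a point on the faces `D` -/
theorem ne_cps {D : Set Φ} (hD : ∀ F ∈ D, ∀ k, ¬ Inner M (Q.Act k) F) {y : J1} :
    (∃ F ∈ D, ∃ x, s.At F x ∧ s.lab x = y) ↔ ∃ F ∈ D, ∃ w, s₀.At F w ∧ s₀.lab w = p y := by
  constructor
  · rintro ⟨F, hF, x, hx, rfl⟩
    have h := cps_at hC hI₀ hI (hD F hF) hx
    exact ⟨F, hF, β x, h.1, h.2.1⟩
  · rintro ⟨F, hF, w, hw, hl⟩
    obtain ⟨x, hx, hxl, -⟩ := cps_ex hC hI₀ hI (hD F hF) hw (y := y) hl.symm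
    exact ⟨F, hF, x, hx, hxl⟩

/-- **(N1) is transported** -/
theorem n1_cps (hp : ∀ y, fam1 y = fam (p y)) {k : K} {B : Set ι} (h : NI s₀ far₀ Q k B) :
    NI s far Q k B := by
  intro F hT w w' hw hw' hf hf' hi hi' hne
  have a1 := hI₀.far_mem (hC.far_mem hf)
  have a2 := hI₀.far_mem (hC.far_mem hf')
  have b1 : s₀.At F (β w) := ⟨a1.1, (hC.on F hw.1).1 hw.2⟩
  have b2 : s₀.At F (β w') := ⟨a2.1, (hC.on F hw'.1).1 hw'.2⟩
  refine h F hT (β w) (β w') b1 b2 (by rw [a1.2]; exact hC.far_mem hf)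
    (by rw [a2.2]; exact hC.far_mem hf') ?_ ?_ ?_
  · rw [a1.2, ← hp]; exact hi
  · rw [a2.2, ← hp]; exact hi'
  · rw [a1.2, a2.2, ← hp, ← hp]; exact hne

end frozen

/-! ### for the output `StO` -/

section out

variable {Qc : Type} [PartialOrder Qc] {dim : Qc → ℕ} {L : LM M Qc dim} {O : Ori M}
  {τ : Qc → ZMod 2} {Rel : W → W → Prop} {V : Set W} {Qd : Quads ι C K} {κ : C → ℕ}
  {s₀ : GSt M fam} {far₀ : J → Set W} {Z : C → Set Qc} {lam₀ : J → Qc → ZMod 2} {v₀ v₁ : C → Qc}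
  {hfin : ∀ a, {j | fam j = a}.Finite} {kap : C → ℕ} {s : GSt M (fam' fam (Rk κ kap))}
  {far : Nm' fam (Rk κ kap) → Set W} {β : W → W} {lam : Nm' fam (Rk κ kap) → Qc → ZMod 2}
  (h : StO L O τ Rel V Qd κ s₀ far₀ Z lam₀ v₀ v₁ hfin kap s far β lam)
include h

/-- **(E1) of the final state** = 334's `Gnt.one` -/
theorem StO.one (hI₀ : s₀.Inv Qd far₀) {D : Set Φ} (hD : ∀ F ∈ D, ∀ k, ¬ Inner M (Qd.Act k) F)
    {y : Nm' fam (Rk κ kap)} (h1 : One s₀ D y.1) : One s D y :=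
  one_cps h.cps hI₀ h.inv hD h1

/-- **(E2) of the final state** -/
theorem StO.two (hI₀ : s₀.Inv Qd far₀) {A B : Set ι} (hB : ∀ k, ∀ q ∈ B, q ∉ Qd.Act k)
    {y y' : Nm' fam (Rk κ kap)} (hne : y.1 ≠ y'.1) (h2 : Two s₀ A B y.1 y'.1) :
    Two s A B y y' :=
  two_cps h.cps hI₀ h.inv hB hne h2

/-- **(N1) of the final state** -/
theorem StO.n1 (hI₀ : s₀.Inv Qd far₀) {k : K} {B : Set ι} (h3 : NI s₀ far₀ Qd k B) :
    NI s far Qd k B :=
  n1_cps h.cps hI₀ h.inv (fun _ => rfl) h3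

/-- **241's `Ends` for the final state**, from (E2), (N1) of `s₀` -/
theorem StO.ends (hI₀ : s₀.Inv Qd far₀) {k : K} {i0 : Qd.Nm (fam' fam (Rk κ kap)) k}
    {nm : Bool → Qd.Nm (fam' fam (Rk κ kap)) k}
    (hnm : ∀ b, fam' fam (Rk κ kap) (nm b).1 = Qd.pr k b) {A0 A1 : Set ι}
    (hA0 : ∀ k, ∀ q ∈ A0, q ∉ Qd.Act k) (hA1 : ∀ k, ∀ q ∈ A1, q ∉ Qd.Act k)
    (hd : Disjoint A0 A1)
    (h0 : Two s₀ (Qd.Act k) A0 (nm true).1.1 (nm false).1.1)
    (h1 : Two s₀ (Qd.Act k) A1 (nm true).1.1 (nm false).1.1)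
    (hN : NI s₀ far₀ Qd k (A0 ∪ A1)) : At_241.Ends s Qd k i0 nm A0 A1 := by
  have hne : (nm true).1.1 ≠ (nm false).1.1 := by
    intro e
    refine Qd.ne k ?_
    rw [← hnm true, ← hnm false]
    exact congrArg fam e
  refine ⟨(two_iff hnm).1 (h.two hI₀ hA0 hne h0), (two_iff hnm).1 (h.two hI₀ hA1 hne h1),
    Set.disjoint_left.2 fun q hq => hA0 k q hq, Set.disjoint_left.2 fun q hq => hA1 k q hq, hd,
    fun z q hq => ?_⟩
  have h4 := At_241.frozen_core (Kor := A0 ∪ A1) h.inv (h.n1 hI₀ hN) z hq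
  exact h4

end out

end Crest.Agent.R096.SkB_662
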