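import Crest.Agent.R096.Init12_543
import Crest.Agent.R096.Gl12_422
import Crest.Agent.R096.Gm4_298
import Crest.Agent.R096.SkB1d_662
import Crest.Agent.R096.Cpo2_642
import Crest.Agent.R096.Oa4_527

/-!
# R096 (row 96), bottom, the seam FRONT -> BACK (helper337)

`Lay`   : the tiling `T3` (= `T` cut into layers inside the tiny cores) with the remaining cores `KK`;
`Front` : the initial state over `meshK T3 KK` with everything that the back half consumes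
(INIT + DOORS prove it; for `X = univ` it is INIT only);
`stI_front`, `k4_front` : the input of the state half over the cells outside all cores.
-/

set_option autoImplicit false
set_option linter.unusedSectionVars false
set_option linter.unusedVariables false
set_option linter.style.longLine false

open Set Relation Module Topology Filter Metric MeasureTheory

namespace Crest.Agent.R096.Frn_337

open Crest.Agent.R096.Brk1_582 Crest.Agent.R096.Brk2_582 Crest.Agent.R096.Brk3_582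
open Crest.Agent.R096.Brk5_582 Crest.Agent.R096.Bsp_628
open Crest.Agent.R096.St_147 Crest.Agent.R096.Seq_213 Crest.Agent.R096.Seq_213.GSt
open Crest.Agent.R096.Lm_117 Crest.Agent.R096.Ac_117 Crest.Agent.R096.Msh_715
open Crest.Agent.R096.Cp_298 Crest.Agent.R096.Gm_298 Crest.Agent.R096.Gl_422
open Crest.Agent.R096.SkB_662 Crest.Agent.R096.Cpo_642
open Crest.Agent.R096.Agl5_543 Crest.Agent.R096.Ori_543
open Crest.Agent.R096.Init_543 (JJ fr3)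
open Crest.Agent.R096.Ce_537 (PLEquiv IsBall Cplx)
open Crest.Agent.R096.SkC1_961 (E3 Hom3 FoamD Cfg th NN)
open Crest.Agent.R096.Mbf_337 (KJ sb)

variable {δ κ0 R c0 : ℝ} {La Om : Set E3} {ι : Type}

/-- the tiny cores -/
abbrev Ti {Φ : FoamD δ κ0 R c0 La} (X : Set Φ.F) : Type := {c : Φ.F // c ∉ X}

/-- **the tiling with layers**: `T3` is `T` cut into layers inside the tiny cores `KJ T (Jt c)`,
`KK c` = the remaining core, `c3` = index of an uncut tile -/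
structure Lay (Φ : FoamD δ κ0 R c0 La) (T : Tiling Om ι) (X : Set Φ.F) (J0 Jt : Φ.F → Set ι)
    {ι3 : Type} (T3 : Tiling Om ι3) (KK : Ti X → Set E3) (c3 : ι → ι3) : Prop where
  core : ∀ k, CoreH T3 (KK k)
  ball : ∀ k, IsBall 3 (KK k) (frontier (KK k))
  sub : ∀ k, KK k ⊆ KJ T (Jt k.1)
  disj : ∀ k k', k ≠ k' → Disjoint (KK k) (KK k')
  /-- tiles which are in no tiny core are not cut -/
  keep : ∀ i, (∀ k : Ti X, i ∉ Jt k.1) → P (T3.H (c3 i)) = P (T.H i)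
  /-- a tile outside the remaining cores is an uncut tile or it lies in a tile of a tiny core which
  is not near the hole -/
  lay : ∀ i3, (∀ k, ¬ P (T3.H i3) ⊆ KK k) →
    (∃ i, i3 = c3 i ∧ ∀ k : Ti X, i ∉ Jt k.1) ∨
      ∃ (k : Ti X) (i : ι), i ∈ Jt k.1 ∧ i ∉ J0 k.1 ∧ P (T3.H i3) ⊆ P (T.H i)
  /-- outside the open tiny cores nothing changes -/
  cc : ∀ x ∈ Om, (∀ k : Ti X, x ∉ interior (KJ T (Jt k.1))) → T3.cc x = T.cc x ∧ T3.dim x = T.dim x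

section front

variable {Φ : FoamD δ κ0 R c0 La} {T : Tiling Om ι} {X : Set Φ.F} {J0 Jt : Φ.F → Set ι}
  {ι3 : Type} {T3 : Tiling Om ι3} {KK : Ti X → Set E3} {c3 : ι → ι3}

/-- the 3-cells of the exact cores are cores of the placement -/
abbrev tlX (X : Set Φ.F) (c3 : ι → ι3) (ct : Φ.F → ι) : {c : Φ.F // c ∈ X} → ι3 :=
  fun c => c3 (ct c.1)

open Classical in
/-- all cores of the placement -/
noncomputable def Kcs (T : Tiling Om ι) (KK : Ti X → Set E3) (ct : Φ.F → ι) (c : Φ.F) : Set E3 :=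
  if h : c ∉ X then KK ⟨c, h⟩ else P (T.H (ct c))

open Classical in
/-- the tile / merged cell of the core `c` in `meshK` -/
noncomputable def cti (X : Set Φ.F) (c3 : ι → ι3) (ct : Φ.F → ι) (c : Φ.F) : ι3 ⊕ Ti X :=
  if h : c ∉ X then Sum.inr ⟨c, h⟩ else Sum.inl (c3 (ct c))

/-- the cells outside all cores -/
abbrev pO (T3 : Tiling Om ι3) (KK : Ti X → Set E3) (c3 : ι → ι3) (ct : Φ.F → ι) :
    QK (belK T3 KK) → Prop := pK T3 KK (tlX X c3 ct)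

/-- **THE SEAM.** `s₀` = the initial state over `meshK T3 KK`. -/
structure Front (T : Tiling Om ι) (f : E3 → E3) (J0 Jt V : Φ.F → Set ι) (ct : Φ.F → ι)
    (c3 : ι → ι3) [Nonempty T3.Cell] (hH : ∀ k, CoreH T3 (KK k))
    (hdis : ∀ k k', k ≠ k' → Disjoint (KK k) (KK k')) (hne : ∃ c, OutK T3 KK c)
    {L : Φ.F → Finset ℝ} (Qd : Quads (ι3 ⊕ Ti X) Φ.F (Init_543.QK (Pc Φ.F)))
    (s₀ : GSt (mK fr3 hH hdis) (fun j : JJ Φ L => j.1)) (far₀ : JJ Φ L → Set E3)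
    (Gc : Φ.F → Set E3) (Zc : Φ.F → Set (QK (belK T3 KK)))
    (lam₀ : JJ Φ L → QK (belK T3 KK) → ZMod 2) (v₀ v₁ : Φ.F → QK (belK T3 KK)) : Prop where
  inv : s₀.Inv Qd far₀
  on : ∀ w ∈ s₀.P, w ∈ (lmK fr3 hH hdis hne).W1
  fin : ∀ F, (s₀.P ∩ (mK fr3 hH hdis).On F).Finite
  lab : LabIn (lmK fr3 hH hdis hne) Qd s₀ Gc Zc lam₀ v₀ v₁
  /-- the quads -/
  qin : ∀ k c, Qd.In k c ↔ c ∈ k.B
  actK : ∀ k c, cti X c3 ct c ∉ Qd.Act k
  /-- the tiles in a remaining core are not active -/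
  actO : ∀ k i3, Sum.inl i3 ∈ Qd.Act k → ∀ k', ¬ P (T3.H i3) ⊆ KK k'
  /-- active cells: the two families of the quad are strictly inside, the two cores are at 0 -/
  actP : ∀ k i3, Sum.inl i3 ∈ Qd.Act k → ∀ i, P (T3.H i3) ⊆ P (T.H i) → ∀ x ∈ P (T.H i),
    (∀ a ∈ k.B, Φ.lev a (f x) ∈ Ioo (0:ℝ) 1) ∧ ∀ a ∈ k.Z, Φ.lev a (f x) = 0
  /-- a 3-cell over the quad with a point of each of the two families is active -/
  actI : ∀ k i3, (∀ k', ¬ P (T3.H i3) ⊆ KK k') → ∀ i, (∀ c, i ∉ J0 c) →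
    P (T3.H i3) ⊆ P (T.H i) → ∀ x ∈ P (T.H i),
    (∀ a ∈ k.B, ∃ w ∈ s₀.P, (s₀.lab w).1 = a ∧ w ∈ P (T3.H i3)) →
    (∀ a ∈ k.Z, Φ.lev a (f x) = 0) → Sum.inl i3 ∈ Qd.Act k
  /-- the points on the tiles off the `V c`, `c ∉ X`, are points of the levels -/
  lev : ∀ x ∈ s₀.P, ∀ i, (∀ k : Ti X, i ∉ V k.1) → x ∈ P (T.H i) →
    Φ.lev (s₀.lab x).1 (f x) = (s₀.lab x).2.1
  /-- labels of the vertices of the exact core tiles -/
  labX : ∀ c ∈ X, ∀ v : {c : T3.Cell // OutK T3 KK c}, v.1.dim = 0 → v.1.set ⊆ P (T.H (ct c)) →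
    ∀ j : JJ Φ L, lam₀ j (QK.c _ v) = 1 ↔ Φ.lev j.1 (f v.1.pt) < j.2.1
  /-- every exact core tile has a vertex which is reached from the deep vertex of every family on
  frozen 1-cells, or it is far away from the family -/
  ropX : ∀ c ∈ X, ∀ j : JJ Φ L,
    (∃ v : {c : T3.Cell // OutK T3 KK c}, v.1.dim = 0 ∧ v.1.set ⊆ P (T.H (ct c)) ∧
      ReflTransGen (Ed (lmK fr3 hH hdis hne) {e | FrE (lmK fr3 hH hdis hne) Qd j.1 e})
        (v₀ j.1) (QK.c _ v)) ∨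
    ∀ v : {c : T3.Cell // OutK T3 KK c}, v.1.dim = 0 → v.1.set ⊆ P (T.H (ct c)) →
      QK.c _ v ∈ Zc j.1 ∧ ∀ j' : JJ Φ L, j'.1 = j.1 → lam₀ j' (QK.c _ v) = 0
  /-- (K4), for every base point of the tile -/
  k4 : ∀ q, pO T3 KK c3 ct q → ∃ i, (∀ c, i ∉ J0 c) ∧ setK T3 KK q ⊆ P (T.H i) ∧
    ∀ x ∈ P (T.H i), K4In (lmK fr3 hH hdis hne) Qd s₀ Zc v₀ (Pc Φ.F) {q}
      (fun _ => sb Φ (Φ.Psi (f x)))
  /-- (E1) at every core -/
  one : ∀ c (j : JJ Φ L), One s₀ {F | cti X c3 ct c ∈ (mK fr3 hH hdis).side F} j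
  /-- (E2) at the two cores of a quad -/
  two : ∀ k, ∀ c ∈ k.Z, ∀ j j' : JJ Φ L, j.1 ∈ k.B → j'.1 ∈ k.B → j.1 ≠ j'.1 →
    Two s₀ (Qd.Act k) {cti X c3 ct c} j j'
  /-- (N1) -/
  ni : ∀ k, NI s₀ far₀ Qd k (cti X c3 ct '' k.Z)

/-! ### consumers -/

variable {f : E3 → E3} {V : Φ.F → Set ι} {ct : Φ.F → ι}

theorem pO_two (c : QK (belK T3 KK)) (h : dimK (belK T3 KK) (fun c => c.1.dim) c ≤ 2) :
    pO T3 KK c3 ct c := by
  rcases c with c | k
  · have : Nonempty T3.Cell := ⟨c.1⟩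
    refine notTile_of_dim (tlX X c3 ct) fr3 ?_
    have h1 : c.1.dim ≤ 2 := h
    omega
  · exact absurd (show (3 : ℕ) ≤ 2 from h) (by norm_num)

theorem pO_down (c d : QK (belK T3 KK)) (h : c ≤ d) (hd : pO T3 KK c3 ct d) :
    pO T3 KK c3 ct c := pK_down _ c d h hd

theorem pO_ne (hne : ∃ c, OutK T3 KK c) : ∃ c, pO T3 KK c3 ct c := by
  obtain ⟨c, hc⟩ := hne
  have : Nonempty T3.Cell := ⟨c⟩
  obtain ⟨v, h1, h2⟩ := (skT T3).base c
  refine ⟨QK.c _ ⟨v, outK_down v c h1 hc⟩, pO_two _ ?_⟩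
  show v.dim ≤ 2
  have h4 : v.dim = 0 := h2
  omega

theorem setK_ne {q : QK (belK T3 KK)} (hq : pO T3 KK c3 ct q) : (setK T3 KK q).Nonempty := by
  rcases q with c | k
  · refine ⟨c.1.pt, ?_⟩
    show c.1.pt ∈ c.1.set
    rw [c.1.set_eq]
    exact T3.self_mem_cc _
  · exact absurd hq id

section lm

variable [Nonempty T3.Cell] (c3 ct) (hH : ∀ k, CoreH T3 (KK k))
    (hdis : ∀ k k', k ≠ k' → Disjoint (KK k) (KK k')) (hne : ∃ c, OutK T3 KK c)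

/-- **the labelled mesh of the cells outside all cores** -/
noncomputable abbrev Lp : LM (mK fr3 hH hdis) {c : QK (belK T3 KK) // pO T3 KK c3 ct c}
    (fun c => dimK (belK T3 KK) (fun c => c.1.dim) c.1) :=
  sb (lmK fr3 hH hdis hne) (pO T3 KK c3 ct) pO_down (pO_ne hne) pO_two

end lm

variable [Nonempty T3.Cell] {hH : ∀ k, CoreH T3 (KK k)}
    {hdis : ∀ k k', k ≠ k' → Disjoint (KK k) (KK k')} {hne : ∃ c, OutK T3 KK c}
    {L : Φ.F → Finset ℝ} {Qd : Quads (ι3 ⊕ Ti X) Φ.F (Init_543.QK (Pc Φ.F))}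
    {s₀ : GSt (mK fr3 hH hdis) (fun j : JJ Φ L => j.1)} {far₀ : JJ Φ L → Set E3}
    {Gc : Φ.F → Set E3} {Zc : Φ.F → Set (QK (belK T3 KK))}
    {lam₀ : JJ Φ L → QK (belK T3 KK) → ZMod 2} {v₀ v₁ : Φ.F → QK (belK T3 KK)}

theorem jj_finite (L : Φ.F → Finset ℝ) (a : Φ.F) : {j : JJ Φ L | j.1 = a}.Finite := by
  refine (Set.finite_range (fun t : {t // t ∈ L a} => (⟨a, t⟩ : JJ Φ L))).subset ?_
  rintro ⟨c, t⟩ h
  obtain rfl : c = a := h
  exact ⟨t, rfl⟩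

theorem jj_mm (L : Φ.F → Finset ℝ) (hfin : ∀ a, {j : JJ Φ L | j.1 = a}.Finite) (a : Φ.F) :
    Mg_441.mm hfin a = (L a).card := by
  classical
  unfold Mg_441.mm
  have h1 : (Mg_441.sh hfin a : Set (JJ Φ L)) = range (fun t : {t // t ∈ L a} => (⟨a, t⟩ : JJ Φ L)) := by
    ext j
    rw [Finset.mem_coe, Mg_441.mem_sh]
    constructor
    · obtain ⟨c, t⟩ := j
      rintro (rfl : c = a)
      exact ⟨t, rfl⟩
    · rintro ⟨t, rfl⟩
      rfl
  rw [← Set.ncard_coe_finset, h1, ← Set.image_univ, Set.ncard_image_of_injective, Set.ncard_univ]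
  · simp
  · intro t t' h
    have := (Sigma.mk.inj_iff.1 h).2
    exact eq_of_heq this

theorem jj_inj (j j' : JJ Φ L) (h1 : j.1 = j'.1) (h2 : j.2.1 = j'.2.1) : j = j' := by
  obtain ⟨a, t⟩ := j
  obtain ⟨a', t'⟩ := j'
  obtain rfl : a = a' := h1
  obtain rfl : t = t' := Subtype.ext h2
  rfl

/-- **the input of the state half** over the cells outside all cores -/
theorem Front.stI (h : Front T f J0 Jt V ct c3 hH hdis hne Qd s₀ far₀ Gc Zc lam₀ v₀ v₁)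
    {κ : Φ.F → ℕ} (hκ : ∀ m, {c | κ c ≤ m}.Finite) :
    StI (Lp c3 ct hH hdis hne) (oriK fr3 hH hdis) (fun c => tauK T3 KK c.1) (RelM T3)
      (lmK fr3 hH hdis hne).W1 Qd κ s₀ far₀
      (fun c => {w | w ∈ Gc c ∧ w ∈ (lmK fr3 hH hdis hne).W1}) (fun c => {v | v.1 ∈ Zc c})
      (fun j v => lam₀ j v.1) (fun c => sv (pO T3 KK c3 ct) (pO_ne hne) (v₀ c))
      (fun c => sv (pO T3 KK c3 ct) (pO_ne hne) (v₁ c)) :=
  stI_sub pO_down (pO_ne hne) pO_two (stI_K hκ h.inv h.on h.fin (jj_finite L) h.lab)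

theorem relM_symm {E : Type} [NormedAddCommGroup E] [NormedSpace ℝ E] [FiniteDimensional ℝ E]
    {Om : Set E} {ι : Type} {T : Tiling Om ι} {x w : E} (h : RelM T x w) : RelM T w x := by
  rcases h with rfl | ⟨h1, h2⟩
  · exact Or.inl rfl
  · have h3 : x ∈ Om := T.cc_sub_Om h1.1 (T.oc_sub_cc w h2)
    refine Or.inr ⟨⟨h3, by rw [T.dim_eq_of_mem_oc h1.1 h2]; exact h1.2⟩, ?_⟩
    rw [T.oc_eq_of_mem h1.1 h2]
    exact T.self_mem_oc w

/-- the hypothesis `hrel` of 662 / 835 / 147 -/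
theorem rel_p : ∀ x w, RelM T3 x w → (x ∈ (Lp c3 ct hH hdis hne).W1 ∨ w ∈ (Lp c3 ct hH hdis hne).W1) →
    x ∈ (Lp c3 ct hH hdis hne).W1 ∧ w ∈ (Lp c3 ct hH hdis hne).W1 ∧
      (Lp c3 ct hH hdis hne).ed x = (Lp c3 ct hH hdis hne).ed w := by
  intro x w h hxw
  have key : ∀ {x w : E3}, RelM T3 x w → w ∈ (Lp c3 ct hH hdis hne).W1 →
      x ∈ (Lp c3 ct hH hdis hne).W1 ∧
        (Lp c3 ct hH hdis hne).ed x = (Lp c3 ct hH hdis hne).ed w := by
    intro x w h hw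
    have hw' := sb_W1.1 hw
    obtain ⟨h1, h2⟩ := relK h hw'
    exact ⟨sb_W1.2 h1, Subtype.ext (by rw [sb_ed h1, sb_ed hw', h2])⟩
  rcases hxw with hx | hw
  · obtain ⟨h1, h2⟩ := key (relM_symm h) hx
    exact ⟨hx, h1, h2.symm⟩
  · obtain ⟨h1, h2⟩ := key h hw
    exact ⟨h1, hw, h2⟩

/-- **(K4)** over the cells outside all cores: a tile `iq q` for every cell, any base point -/
theorem Front.k4' (h : Front T f J0 Jt V ct c3 hH hdis hne Qd s₀ far₀ Gc Zc lam₀ v₀ v₁) :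
    ∃ iq : {c : QK (belK T3 KK) // pO T3 KK c3 ct c} → ι,
      (∀ q, (∀ c, iq q ∉ J0 c) ∧ setK T3 KK q.1 ⊆ P (T.H (iq q))) ∧
      ∀ xq : {c : QK (belK T3 KK) // pO T3 KK c3 ct c} → E3, (∀ q, xq q ∈ P (T.H (iq q))) →
      K4In (Lp c3 ct hH hdis hne) Qd s₀ (fun c => {v | v.1 ∈ Zc c})
        (fun c => sv (pO T3 KK c3 ct) (pO_ne hne) (v₀ c)) (Pc Φ.F) univ
        (fun q => sb Φ (Φ.Psi (f (xq q)))) := by
  choose iq h1 h2 h3 using h.k4
  refine ⟨fun q => iq q.1 q.2, fun q => ⟨h1 q.1 q.2, h2 q.1 q.2⟩, fun xq hx => ?_⟩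
  classical
  let xk : QK (belK T3 KK) → E3 := fun q => if hq : pO T3 KK c3 ct q then xq ⟨q, hq⟩ else 0
  have hxk : ∀ q (hq : pO T3 KK c3 ct q), xk q = xq ⟨q, hq⟩ := fun q hq => dif_pos hq
  have h2' : K4In (lmK fr3 hH hdis hne) Qd s₀
      (fun c => {v | v ∈ Zc c ∧ dimK (belK T3 KK) (fun c => c.1.dim) v = 0}) v₀ (Pc Φ.F)
      {q | pO T3 KK c3 ct q} (fun q => sb Φ (Φ.Psi (f (xk q)))) := by
    have key : ∀ q (hq : pO T3 KK c3 ct q), K4In (lmK fr3 hH hdis hne) Qd s₀ Zc v₀ (Pc Φ.F) {q}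
        (fun _ => sb Φ (Φ.Psi (f (xk q)))) := fun q hq =>
      h3 q hq _ (by rw [hxk q hq]; exact hx ⟨q, hq⟩)
    exact ⟨fun q hq => (key q hq).mem q rfl, fun q hq => (key q hq).pt q rfl,
      fun q hq => (key q hq).act q rfl, fun q hq => (key q hq).zero q rfl, fun q hq j hj => by
      obtain ⟨v, a1, a2, v', a3, a4⟩ := (key q hq).one q rfl j hj
      refine ⟨v, a1, a2, v', ⟨a3, ?_⟩, a4⟩
      by_cases hvv : v' = v
      · rw [hvv]; exact a2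
      · exact (rope_vtx a4 hvv).1⟩
  have h3 := k4In_sub (p := pO T3 KK c3 ct) pO_down (pO_ne hne) pO_two h.on
    (fun j => (h.lab.v₀_dim j).1) (fun j v hv => hv.2) h2'
  have e : {q : {c : QK (belK T3 KK) // pO T3 KK c3 ct c} | q.1 ∈ {q | pO T3 KK c3 ct q}} = univ :=
    eq_univ_of_forall fun q => q.2
  rw [e] at h3
  have e2 : (fun q : {c : QK (belK T3 KK) // pO T3 KK c3 ct c} => sb Φ (Φ.Psi (f (xk q.1)))) =
      fun q => sb Φ (Φ.Psi (f (xq q))) := funext fun q => by rw [hxk q.1 q.2]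
  rw [e2] at h3
  exact ⟨h3.mem, h3.pt, h3.act, h3.zero, fun q hq j hj => by
    obtain ⟨v, a1, a2, v', a3, a4⟩ := h3.one q hq j hj
    exact ⟨v, a1, a2, v', a3.1, a4⟩⟩

/-- **(K4) for the final state, all base points** (534: `OutNO`) -/
theorem Front.exAll (h : Front T f J0 Jt V ct c3 hH hdis hne Qd s₀ far₀ Gc Zc lam₀ v₀ v₁)
    {κ : Φ.F → ℕ} (hκ : ∀ m, {c | κ c ≤ m}.Finite)
    {hfin : ∀ a, {j : JJ Φ L | j.1 = a}.Finite} {kap : Φ.F → ℕ}
    {s : GSt (mK fr3 hH hdis) (fam' (fun j : JJ Φ L => j.1) (Rk κ kap))}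
    {far : Nm' (fun j : JJ Φ L => j.1) (Rk κ kap) → Set E3} {β : E3 → E3}
    {lam : Nm' (fun j : JJ Φ L => j.1) (Rk κ kap) → {c : QK (belK T3 KK) // pO T3 KK c3 ct c} → ZMod 2}
    (hO : StO (Lp c3 ct hH hdis hne) (oriK fr3 hH hdis) (fun c => tauK T3 KK c.1) (RelM T3)
      (lmK fr3 hH hdis hne).W1 Qd κ s₀ far₀ (fun c => {v | v.1 ∈ Zc c})
      (fun j v => lam₀ j v.1) (fun c => sv (pO T3 KK c3 ct) (pO_ne hne) (v₀ c))
      (fun c => sv (pO T3 KK c3 ct) (pO_ne hne) (v₁ c)) hfin kap s far β lam) :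
    ∀ q : {c : QK (belK T3 KK) // pO T3 KK c3 ct c}, ∃ i, (∀ c, i ∉ J0 c) ∧
      setK T3 KK q.1 ⊆ P (T.H i) ∧ ∀ x ∈ P (T.H i),
        Mg_441.Ex hO.cmb (Pc Φ.F) q (sb Φ (Φ.Psi (f x))) := by
  obtain ⟨iq, h1, h2⟩ := h.k4'
  classical
  intro q
  refine ⟨iq q, (h1 q).1, (h1 q).2, fun x hx => ?_⟩
  have hne' : ∀ q, (P (T.H (iq q))).Nonempty := fun q => by
    exact (setK_ne q.2).mono (h1 q).2
  have h3 := h2 (Function.update (fun q => (hne' q).choose) q x) (fun q' => by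
    by_cases h : q' = q
    · subst h; rw [Function.update_self]; exact hx
    · rw [Function.update_of_ne h]; exact (hne' q').choose_spec)
  have h4 := hO.ex (h.stI hκ) h3 (mem_univ q)
  simpa only [Function.update_self] using h4

/-- **`MeshEx`** for the final state -/
theorem Front.meshEx (h : Front T f J0 Jt V ct c3 hH hdis hne Qd s₀ far₀ Gc Zc lam₀ v₀ v₁)
    {κ : Φ.F → ℕ} (hκ : ∀ m, {c | κ c ≤ m}.Finite)
    {hfin : ∀ a, {j : JJ Φ L | j.1 = a}.Finite} {kap : Φ.F → ℕ}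
    {s : GSt (mK fr3 hH hdis) (fam' (fun j : JJ Φ L => j.1) (Rk κ kap))}
    {far : Nm' (fun j : JJ Φ L => j.1) (Rk κ kap) → Set E3} {β : E3 → E3}
    {lam : Nm' (fun j : JJ Φ L => j.1) (Rk κ kap) → {c : QK (belK T3 KK) // pO T3 KK c3 ct c} → ZMod 2}
    (hO : StO (Lp c3 ct hH hdis hne) (oriK fr3 hH hdis) (fun c => tauK T3 KK c.1) (RelM T3)
      (lmK fr3 hH hdis hne).W1 Qd κ s₀ far₀ (fun c => {v | v.1 ∈ Zc c})
      (fun j v => lam₀ j v.1) (fun c => sv (pO T3 KK c3 ct) (pO_ne hne) (v₀ c))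
      (fun c => sv (pO T3 KK c3 ct) (pO_ne hne) (v₁ c)) hfin kap s far β lam) :
    Oa_527.MeshEx Φ T f J0 hO.cmb (fun q => setK T3 KK q.1) univ := by
  intro q _
  obtain ⟨i, a1, a2, a3⟩ := h.exAll hκ hO q
  obtain ⟨x, hx⟩ := (setK_ne q.2).mono a2
  exact ⟨i, a1, a2, x, hx, a3 x hx⟩

end front

end Crest.Agent.R096.Frn_337
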