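import Crest.Agent.R096.Cp12_298

/-!
# R096 / COPY, part 13 (helper298): the weighted sequence for merged meshes of tilings

`oriM_opp` : opposite signs at the two sides of a 2-cell.  `hasParC` : the hypothesis of `wseq` for
`mergeC (meshC T h3) π h` (715; `meshK` is an instance).
-/

set_option autoImplicit false

open Set Filter Topology Metric

namespace Crest.Agent.R096.Cp_298
open Crest.Agent.R096.Msh_715 Crest.Agent.R096.Agl5_543 Crest.Agent.R096.St_147
  Crest.Agent.R096.Agl1_543 Crest.Agent.R096.Agl2_543 Crest.Agent.R096.Agl3_543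
  Crest.Agent.R096.Ori_543 Crest.Agent.R096.Seq_213 Crest.Agent.R096.Seq_213.GSt
open scoped ENNReal

variable {E : Type} [NormedAddCommGroup E] [NormedSpace ℝ E] [FiniteDimensional ℝ E]
variable {Om : Set E} {ι : Type} {T : Tiling Om ι}

/-! ### the two sides of a 2-cell -/

theorem vol_dep (h3 : Module.finrank ℝ E = 3) (F : C2 T) {n : E} (hn : n ∈ T.V F.pt) :
    vol h3 ((F.lin 1 : T.V F.pt) : E) ((F.lin Complex.I : T.V F.pt) : E) n = 0 := by
  obtain ⟨z, hz⟩ : ∃ z, F.lin z = ⟨n, hn⟩ := ⟨F.lin.symm ⟨n, hn⟩, F.lin.apply_symm_apply _⟩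
  have h2 : z = z.re • (1 : ℂ) + z.im • Complex.I := by
    apply Complex.ext <;> simp
  have h4 : n = z.re • ((F.lin 1 : T.V F.pt) : E) + z.im • ((F.lin Complex.I : T.V F.pt) : E) := by
    have h5 := congrArg Subtype.val hz
    rw [h2, map_add, map_smul, map_smul] at h5
    exact h5.symm
  rw [h4, vol_add_third, vol_smul_third, vol_smul_third, vol_same_outer, vol_same_right]
  ring

theorem epsR_ne (h3 : Module.finrank ℝ E = 3) {F : C2 T} {q : ι} (hq : q ∈ F.side h3) :
    epsR h3 q F ≠ 0 := by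
  intro h0
  obtain ⟨s, t, r, hne, hrel⟩ := exists_rel h3 h0
  obtain ⟨h, hh, he⟩ := exists_act h3 hq
  have hq' : q ∈ T.at_ F.pt := C2.mem_side.1 hq
  have hpt : h.1 F.pt = h.2 := he _ (by rw [F.set_eq]; exact T.self_mem_cc _)
  have hV : ∀ v : T.V F.pt, h.1 (v : E) = 0 := fun v => v.2 q hq' h hh hpt
  have h4 := congrArg h.1 hrel
  rw [map_add, map_add, map_smul, map_smul, map_smul, hV, hV, map_zero] at h4
  simp only [smul_eq_mul, mul_zero, zero_add] at h4
  have e3 : 0 < h.1 (F.pt - cen T q) := by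
    rw [map_sub, hpt]
    have := cen_mem T q h hh
    linarith
  have hr : r = 0 := by
    rcases mul_eq_zero.1 h4 with h5 | h5
    · exact h5
    · exact absurd h5 e3.ne'
  rw [hr, zero_smul, add_zero] at hrel
  have h5 : F.lin (s • (1 : ℂ) + t • Complex.I) = 0 := by
    apply Subtype.ext
    rw [map_add, map_smul, map_smul]
    exact hrel
  have h6 : s • (1 : ℂ) + t • Complex.I = 0 := by
    have := F.lin.injective (h5.trans (map_zero _).symm)
    exact this
  have h7 := congrArg Complex.re h6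
  have h8 := congrArg Complex.im h6
  simp at h7 h8
  rcases hne with h9 | h9 | h9
  · exact h9 h7
  · exact h9 h8
  · exact h9 hr

/-- **the two tiles of a 2-cell have opposite signs** -/
theorem epsR_mul_neg (h3 : Module.finrank ℝ E = 3) {F : C2 T} {q q' : ι} (hq : q ∈ F.side h3)
    (hq' : q' ∈ F.side h3) (hne : q ≠ q') : epsR h3 q F * epsR h3 q' F < 0 := by
  by_contra hcon
  push Not at hcon
  have hD := epsR_ne h3 hq
  have hD' := epsR_ne h3 hq'
  have hqa : q ∈ T.at_ F.pt := C2.mem_side.1 hq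
  have hqa' : q' ∈ T.at_ F.pt := C2.mem_side.1 hq'
  set D := epsR h3 q F with hDdef
  set D' := epsR h3 q' F with hDdef'
  have hcr := cramer h3 ((F.lin 1 : T.V F.pt) : E) ((F.lin Complex.I : T.V F.pt) : E)
    (F.pt - cen T q) (F.pt - cen T q')
  -- the direction towards the centre of `q'`
  obtain ⟨g, m, hg, hm, hexp⟩ : ∃ (g : E) (m : ℝ), g ∈ T.V F.pt ∧ 0 < m ∧
      F.pt - cen T q' = g + m • (F.pt - cen T q) := by
    refine ⟨D⁻¹ • (vol h3 (F.pt - cen T q') ((F.lin Complex.I : T.V F.pt) : E)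
        (F.pt - cen T q) • ((F.lin 1 : T.V F.pt) : E) +
        vol h3 ((F.lin 1 : T.V F.pt) : E) (F.pt - cen T q') (F.pt - cen T q) •
        ((F.lin Complex.I : T.V F.pt) : E)), D' / D, ?_, ?_, ?_⟩
    · exact (T.V F.pt).smul_mem _ ((T.V F.pt).add_mem ((T.V F.pt).smul_mem _ (F.lin 1).2)
        ((T.V F.pt).smul_mem _ (F.lin Complex.I).2))
    · have h1 : 0 < D * D' := lt_of_le_of_ne hcon (Ne.symm (mul_ne_zero hD hD'))
      rcases mul_pos_iff.1 h1 with ⟨h2, h4⟩ | ⟨h2, h4⟩
      · exact div_pos h4 h2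
      · exact div_pos_of_neg_of_neg h4 h2
    · have h1 : F.pt - cen T q' = D⁻¹ • (D • (F.pt - cen T q')) := by
        rw [smul_smul, inv_mul_cancel₀ hD, one_smul]
      refine h1.trans ?_
      have h2 : D • (F.pt - cen T q') = _ := hcr
      rw [h2, smul_add, div_eq_inv_mul]
      congr 1
      rw [smul_smul]
      rfl
  -- both tiles contain points in the direction of the centre of `q'`
  have h1 : ∀ᶠ s in 𝓝[>] (0 : ℝ), F.pt + s • (cen T q' - F.pt) ∈ Msh_715.P (T.H q) := by
    refine mem_P_small hqa fun h hh he => ?_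
    have e1 : cen T q' - F.pt = -(g + m • (F.pt - cen T q)) := by rw [← hexp]; abel
    have e2 : h.1 g = 0 := hg q hqa h hh he
    rw [e1, map_neg, map_add, map_smul, e2, zero_add, smul_eq_mul, map_sub, he]
    have h4 := cen_mem T q h hh
    have h5 : 0 < m * (h.2 - h.1 (cen T q)) := mul_pos hm (by linarith)
    linarith
  have h2 : ∀ᶠ s in 𝓝[>] (0 : ℝ), s < 1 :=
    (gt_mem_nhds (zero_lt_one' ℝ)).filter_mono nhdsWithin_le_nhds
  obtain ⟨s, ⟨hs1, hs2⟩, hs3⟩ := ((h1.and h2).and self_mem_nhdsWithin).exists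
  have h4 := mem_I_of_move hqa' (cen_mem T q') hs3 hs2.le
  exact Set.disjoint_left.1 (disjoint_P_I (T.ne q) (T.dis q q' hne)) hs1 h4

theorem oriM_opp (h3 : Module.finrank ℝ E = 3) : (oriM (T := T) h3).Opp := by
  classical
  intro F q q' hq hq' hne
  have h := epsR_mul_neg h3 hq hq' hne
  show epsZ h3 q F + epsZ h3 q' F = 1
  unfold epsZ
  rcases mul_neg_iff.1 h with ⟨h1, h2⟩ | ⟨h1, h2⟩
  · rw [if_pos h1, if_neg (not_lt.2 h2.le)]; decide
  · rw [if_neg (not_lt.2 h1.le), if_pos h2]; decide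

/-! ### parallel points -/

/-- the radius of a point (543's `exists_rad` with local finiteness on the edge only) -/
theorem exists_rad1 {P : Set E} {δ : E → ℝ} {w : E} (hP : (P ∩ T.oc w).Finite)
    (hδ : ∀ w, 0 < δ w) (hw : w ∈ Om) :
    ∃ τ > 0, (∀ v ∈ T.V w, ‖v‖ < τ → w + v ∈ T.oc w) ∧ τ ≤ δ w ∧
      ∀ w' ∈ P, w' ∈ T.oc w → w' ≠ w → τ ≤ dist w w' / 2 := by
  obtain ⟨r, hr, hb⟩ := T.exists_ball_oc hw
  have hfin : ((P ∩ T.oc w) \ {w}).Finite := hP.subset fun x hx => hx.1
  obtain ⟨τ, hτ, h⟩ : ∃ τ > 0, ∀ w' ∈ (P ∩ T.oc w) \ {w}, τ ≤ dist w w' / 2 := by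
    rcases ((P ∩ T.oc w) \ {w}).eq_empty_or_nonempty with he | hne
    · exact ⟨1, one_pos, fun w' hw' => by rw [he] at hw'; exact absurd hw' (notMem_empty _)⟩
    · obtain ⟨z, hz, hmin⟩ := hfin.exists_minimalFor (fun w' => dist w w' / 2) _ hne
      refine ⟨dist w z / 2, ?_, fun w' hw' => ?_⟩
      · have : w ≠ z := fun e => hz.2 (by rw [mem_singleton_iff]; exact e.symm)
        have := dist_pos.2 this
        linarith
      · by_contra hcon
        push Not at hcon
        have := hmin hw' hcon.le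
        linarith
  refine ⟨min τ (min r (δ w)), lt_min hτ (lt_min hr (hδ w)), fun v hv hn => ?_, ?_, ?_⟩
  · exact hb v hv (hn.trans_le ((min_le_right _ _).trans (min_le_left _ _)))
  · exact (min_le_right _ _).trans (min_le_right _ _)
  · intro w' h1 h2 h4
    exact (min_le_left _ _).trans (h w' ⟨⟨h1, h2⟩, h4⟩)

/-- **parallel points exist**, if every open edge carries finitely many points (proof of 543's
`exists_par`) -/
theorem exists_par1 (h3 : Module.finrank ℝ E = 3) {P : Set E}
    (hP : ∀ w ∈ P, (P ∩ T.oc w).Finite) (hP1 : ∀ w ∈ P, w ∈ Om ∧ T.dim w = 1) (n : E → ℕ)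
    (δ : E → ℝ) (hδ : ∀ w, 0 < δ w) :
    ∃ π : Par (meshC T h3) (oriM h3) P n (Near T δ), ∀ w, π.c w 0 = w := by
  classical
  have hex : ∀ w, ∃ τ : ℝ, w ∈ P → 0 < τ ∧ (∀ v ∈ T.V w, ‖v‖ < τ → w + v ∈ T.oc w) ∧ τ ≤ δ w ∧
      ∀ w' ∈ P, w' ∈ T.oc w → w' ≠ w → τ ≤ dist w w' / 2 := by
    intro w
    by_cases h : w ∈ P
    · obtain ⟨τ, h1, h2⟩ := exists_rad1 (hP w h) hδ (hP1 w h).1
      exact ⟨τ, fun _ => ⟨h1, h2⟩⟩
    · exact ⟨0, fun h' => absurd h' h⟩
  choose τ hτ using hex
  let t : E → ℝ := fun w => τ w / ((n w + 1) * ‖dv T w‖)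
  let c : E → ℕ → E := fun w k => w + ((k : ℝ) * t w) • dv T w
  have hn : ∀ {w}, w ∈ P → 0 < ‖dv T w‖ := fun {w} h =>
    norm_pos_iff.2 (dv_ne (hP1 w h).1 (hP1 w h).2)
  have ht : ∀ {w}, w ∈ P → 0 < t w := fun {w} h => div_pos (hτ w h).1 (mul_pos (by positivity) (hn h))
  have hlen : ∀ {w k}, w ∈ P → k < n w → (k : ℝ) * t w * ‖dv T w‖ < τ w := by
    intro w k h hk
    have h1 := hn h
    have h2 := (hτ w h).1
    have e : (k : ℝ) * t w * ‖dv T w‖ = (k : ℝ) * τ w / (n w + 1) := by
      show (k : ℝ) * (τ w / ((n w + 1) * ‖dv T w‖)) * ‖dv T w‖ = _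
      field_simp
    rw [e, div_lt_iff₀ (by positivity)]
    have h4 : (k : ℝ) < n w + 1 := by
      have : (k : ℝ) < n w := by exact_mod_cast hk
      linarith
    nlinarith
  have hnorm : ∀ {w k}, w ∈ P → k < n w → ‖((k : ℝ) * t w) • dv T w‖ < τ w := by
    intro w k h hk
    rw [norm_smul, Real.norm_of_nonneg (mul_nonneg (Nat.cast_nonneg _) (ht h).le)]
    exact hlen h hk
  have hoc : ∀ {w k}, w ∈ P → k < n w → c w k ∈ T.oc w := by
    intro w k h hk
    exact (hτ w h).2.1 _ ((T.V w).smul_mem _ (dv_mem (hP1 w h).1 (hP1 w h).2)) (hnorm h hk)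
  have hdist : ∀ {w k}, w ∈ P → k < n w → dist (c w k) w < τ w := by
    intro w k h hk
    show dist (w + ((k : ℝ) * t w) • dv T w) w < τ w
    rw [dist_eq_norm, add_sub_cancel_left]
    exact hnorm h hk
  -- points in the same edge
  have hline : ∀ {w w'}, w ∈ P → w' ∈ P → w' ∈ T.oc w → ∃ s : ℝ, w' = w + s • dv T w ∧
      dist w w' = |s| * ‖dv T w‖ := by
    intro w w' h h' hw'
    have h1 := ed1_mem (hP1 w h).1 (hP1 w h).2
    obtain ⟨s, hs⟩ := mem_V_line (hP1 w h).2 h1.1 h1.2 (ed1_spec (hP1 w h).1 (hP1 w h).2).1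
      (T.sub_mem_V' (T.oc_sub_cc w hw') (T.self_mem_cc w))
    have e : w' = w + s • dv T w := by
      rw [show s • dv T w = w' - w from hs.symm]; abel
    refine ⟨s, e, ?_⟩
    rw [dist_comm, dist_eq_norm, hs, norm_smul, Real.norm_eq_abs]
    rfl
  refine ⟨{ c := c
            on := ?_
            inj := ?_
            sep := ?_
            up := ?_
            down := ?_
            dir := ?_
            rel := ?_ }, fun w => ?_⟩
  · intro w k F hw hk
    exact on_iff_oc (hP1 w hw).1 (hoc hw hk)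
  · intro w w' k k' hw hw' hk hk' he
    have hO := (hP1 w hw).1
    have hO' := (hP1 w' hw').1
    by_cases hww : w = w'
    · subst hww
      refine ⟨rfl, ?_⟩
      have h1 : ((k : ℝ) * t w) • dv T w = ((k' : ℝ) * t w) • dv T w := add_left_cancel he
      have h2 := smul_left_injective ℝ (norm_pos_iff.1 (hn hw)) h1
      have h4 : (k : ℝ) = k' := mul_right_cancel₀ (ht hw).ne' h2
      exact_mod_cast h4
    · exfalso
      have h1 := hoc hw hk
      have h2 := hoc hw' hk'
      rw [he] at h1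
      have h4 : T.oc w = T.oc w' := by
        rcases T.oc_disjoint_or_eq hO hO' with h | h
        · exact absurd h2 (disjoint_left.1 h h1)
        · exact h
      have h5 : w' ∈ T.oc w := by rw [h4]; exact T.self_mem_oc w'
      have h6 : w ∈ T.oc w' := by rw [← h4]; exact T.self_mem_oc w
      have h7 := (hτ w hw).2.2.2 w' hw' h5 (Ne.symm hww)
      have h8 := (hτ w' hw').2.2.2 w hw h6 hww
      have h9 := hdist hw hk
      have h10 := hdist hw' hk'
      rw [he] at h9
      have h11 := dist_triangle w (c w' k') w'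
      rw [dist_comm w (c w' k')] at h11
      rw [dist_comm w' w] at h8
      linarith
  · intro F w w' k k' hw hw' hk hk' hF hF' hlt
    have hO := (hP1 w hw).1
    have hO' := (hP1 w' hw').1
    by_cases hoo : T.oc w = T.oc w'
    · have h5 : w' ∈ T.oc w := by rw [hoo]; exact T.self_mem_oc w'
      have h6 : w ∈ T.oc w' := by rw [← hoo]; exact T.self_mem_oc w
      have hww : w ≠ w' := by
        rintro rfl
        exact lt_irrefl _ hlt
      obtain ⟨s, hs, hds⟩ := hline hw hw' h5
      have hdv : dv T w' = dv T w := dv_oc hO h5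
      have h7 := (hτ w hw).2.2.2 w' hw' h5 (Ne.symm hww)
      have h8 := (hτ w' hw').2.2.2 w hw h6 hww
      rw [dist_comm w' w] at h8
      rw [hds] at h7 h8
      have h9 := hlen hw hk
      have h10 := hlen hw' hk'
      rw [hdv] at h10
      have hnp := hn hw
      set a := (k : ℝ) * t w with ha
      set b := (k' : ℝ) * t w' with hb
      have ha0 : 0 ≤ a := mul_nonneg (Nat.cast_nonneg _) (ht hw).le
      have hb0 : 0 ≤ b := mul_nonneg (Nat.cast_nonneg _) (ht hw').le
      have ha1 : a < |s| / 2 := by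
        by_contra hcon
        push Not at hcon
        have := mul_le_mul_of_nonneg_right hcon hnp.le
        linarith
      have hb1 : b < |s| / 2 := by
        by_contra hcon
        push Not at hcon
        have := mul_le_mul_of_nonneg_right hcon hnp.le
        linarith
      have e1 : c w k = w + a • dv T w := rfl
      have e2 : c w' k' = w + (s + b) • dv T w := by
        show w' + b • dv T w' = _
        rw [hdv]
        nth_rewrite 1 [hs]
        module
      have m1 : w + a • dv T w ∈ T.oc w := by rw [← e1]; exact hoc hw hk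
      have m2 : w + (s + b) • dv T w ∈ T.oc w := by rw [← e2, hoo]; exact hoc hw' hk'
      have m0 : w + (0 : ℝ) • dv T w ∈ T.oc w := by
        rw [zero_smul, add_zero]; exact T.self_mem_oc w
      have ms : w + s • dv T w ∈ T.oc w := by rw [← hs]; exact h5
      have hs0 : s ≠ 0 := by
        rintro rfl
        rw [zero_smul, add_zero] at hs
        exact hww hs.symm
      have hlt' : F.pos (w + (0 : ℝ) • dv T w) < F.pos (w + s • dv T w) := by
        rw [zero_smul, add_zero, ← hs]; exact hlt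
      show F.pos (c w k) < F.pos (c w' k')
      rw [e1, e2]
      rcases Cp_298.z2_cases (dirZ F w) with hz | hz
      · have hs1 : 0 < s := by
          by_contra hcon
          push Not at hcon
          have h11 := (pos_line hF (lt_of_le_of_ne hcon hs0) ms m0).1 hz
          exact lt_asymm h11 hlt'
        rw [abs_of_pos hs1] at ha1 hb1
        exact (pos_line hF (by linarith) m1 m2).1 hz
      · have hs1 : s < 0 := by
          by_contra hcon
          push Not at hcon
          have h11 := (pos_line hF (lt_of_le_of_ne hcon hs0.symm) m0 ms).2 hz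
          exact lt_asymm h11 hlt'
        rw [abs_of_neg hs1] at ha1 hb1
        exact (pos_line hF (by linarith) m2 m1).2 hz
    · exact pos_sep hF hF' hoo hlt (hoc hw hk) (hoc hw' hk')
  · intro F w k k' hw hkk hk' hF hz
    have hlt : (k : ℝ) * t w < (k' : ℝ) * t w :=
      mul_lt_mul_of_pos_right (by exact_mod_cast hkk) (ht hw)
    exact (pos_line hF hlt (hoc hw (hkk.trans hk')) (hoc hw hk')).1 hz
  · intro F w k k' hw hkk hk' hF hz
    have hlt : (k : ℝ) * t w < (k' : ℝ) * t w :=
      mul_lt_mul_of_pos_right (by exact_mod_cast hkk) (ht hw)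
    exact (pos_line hF hlt (hoc hw (hkk.trans hk')) (hoc hw hk')).2 hz
  · intro F w k hw hk hF
    exact dirZ_oc (hP1 w hw).1 (hoc hw hk)
  · intro w k hw hk
    exact ⟨hoc hw hk, (hdist hw hk).trans_le (hτ w hw).2.2.1⟩
  · show w + (((0 : ℕ) : ℝ) * t w) • dv T w = w
    rw [Nat.cast_zero, zero_mul, zero_smul, add_zero]

/-! ### the merged mesh -/

section merged

variable {ι' : Type} (h3 : Module.finrank ℝ E = 3) (π : ι → ι')
  (hc : ∀ k w, ConnAt (meshC T h3) (π ⁻¹' {k}) w)

/-- **the orientation of a merged mesh of a tiling** -/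
noncomputable def oriC : Ori (mergeC (meshC T h3) π hc) := (oriM h3).merge π hc (oriM_opp h3)

theorem oriC_opp : (oriC h3 π hc).Opp := Ori.merge_opp π hc _ _

/-- the points in the open edges on the faces of the merged mesh -/
def VC : Set E := {w | w ∈ VM T ∧ ∃ F, w ∈ (mergeC (meshC T h3) π hc).On F}

theorem VC_sub : VC h3 π hc ⊆ VM T := fun _ h => h.1

theorem RelM.memC {x y : E} (h : RelM T x y) (hy : y ∈ VC h3 π hc) : x ∈ VC h3 π hc := by
  refine ⟨h.mem hy.1, ?_⟩
  obtain ⟨F, hF⟩ := hy.2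
  rcases h with rfl | ⟨-, h⟩
  · exact ⟨F, hF⟩
  · exact ⟨F, on_oc (F := F.1) hF h⟩

/-- **the hypotheses of `wseq` for a merged mesh of a tiling** -/
theorem hasParC : WS.HasPar (oriC h3 π hc) (RelM T) (VC h3 π hc) := by
  intro P hP hfin n
  obtain ⟨p, h⟩ := exists_par1 h3 (P := P) (T := T) (fun w hw => by
    obtain ⟨F, hF⟩ := (hP hw).2
    refine (hfin F).subset ?_
    rintro x ⟨h1, h2⟩
    exact ⟨h1, on_oc (F := F.1) hF h2⟩) (fun w hw => (hP hw).1) n (fun _ => 1)
    (fun _ => one_pos)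
  let p' : Par (meshC T h3) (oriM h3) P n (RelM T) :=
    { c := p.c
      on := p.on
      inj := p.inj
      sep := p.sep
      up := p.up
      down := p.down
      dir := p.dir
      rel := fun {w k} hw hk => Or.inr ⟨(hP hw).1, (p.rel hw hk).1⟩ }
  exact ⟨p'.merge π hc (oriM_opp h3), fun w _ _ => h w⟩

end merged

end Crest.Agent.R096.Cp_298
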