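import Crest.Agent.R096.Cm6_117

/-!
# R096 (row 96), DEP, part 3: the inside function is a colouring (helper117)
-/

set_option autoImplicit false
set_option linter.unusedSectionVars false

open Set Topology Filter Metric Module

namespace Crest.Agent.R096.Cm_117

open Crest.Agent.R096.Msh_715 Crest.Agent.R096.Lab_184 Crest.Agent.R096.Agl5_543
  Crest.Agent.R096.Pat5_543 Crest.Agent.R096.Coh_184 Crest.Agent.R096.Seq_213
  Crest.Agent.R096.St_147 Crest.Agent.R096.Wk_689 Crest.Agent.R096.Ac_117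

variable {E : Type} [NormedAddCommGroup E] [NormedSpace ℝ E]
variable {Om : Set E} {ι : Type} {T : Tiling Om ι}
variable [FiniteDimensional ℝ E] {h3 : finrank ℝ E = 3} {J C I K : Type} {fam : J → C}
variable {col : I → Bool}
variable {s : GSt (meshC T h3) fam} {r : St (meshC T h3) col} {q : ι} {c : T.Cell}

/-- points of an open edge off a finite set -/
lemma exists_off {w : E} (hw : w ∈ Om) (h1 : T.dim w = 1) (y : Finset E) :
    ∃ w' ∈ T.oc w, w' ∉ y := by
  obtain ⟨ε, hε, hb⟩ := T.exists_ball_oc hw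
  have hV : T.V w ≠ ⊥ := by
    intro h
    have h2 : finrank ℝ (T.V w) = 1 := h1
    rw [h, finrank_bot] at h2
    omega
  obtain ⟨v, hv, hv0⟩ := Submodule.exists_mem_ne_zero_of_ne_bot hV
  have hn : 0 < ‖v‖ := norm_pos_iff.2 hv0
  have hinf : ((fun t : ℝ => w + t • v) '' Ioo 0 (ε / ‖v‖)).Infinite := by
    refine (Set.Ioo_infinite (by positivity)).image ?_
    intro a _ b _ hab
    have h2 : a • v = b • v := add_left_cancel hab
    exact smul_left_injective ℝ hv0 h2
  obtain ⟨w', ⟨t, ht, rfl⟩, hw'⟩ := hinf.exists_notMem_finset y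
  refine ⟨_, hb _ ((T.V w).smul_mem t hv) ?_, hw'⟩
  rw [norm_smul, Real.norm_eq_abs, abs_of_pos ht.1]
  have := ht.2
  rwa [lt_div_iff₀ hn] at this

lemma cntP_lamF {y : Finset E} (hy : ∀ w ∈ y, T.dim w = 1) (F : C2 T) (w : E) :
    cntP (meshC T h3) y F ((meshC T h3).pos F w) = lamF F y w := by
  classical
  unfold cntP lamF
  rw [Finset.card_filter, Nat.cast_sum]
  apply Finset.sum_congr rfl
  intro v hv
  by_cases h : v ∈ F.set ∧ F.pos v < F.pos w
  · rw [if_pos h, if_pos ⟨⟨h.1, hy v hv⟩, h.2⟩]; rfl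
  · rw [if_neg h, if_neg (fun h' => h ⟨h'.1.1, h'.2⟩)]; rfl

lemma even_On {h : LF s} {x : Pc s c} {F : C2 T} (hF : F.set ⊆ c.set) :
    (open Classical in Even ((pts h c x).filter (fun v => v ∈ (meshC T h3).On F)).card) := by
  classical
  have h1 := even_pts (h := h) (x := x) hF
  unfold nQ at h1
  rw [← ZMod.natCast_eq_zero_iff_even, ← h1, Finset.card_filter, Nat.cast_sum]
  apply Finset.sum_congr rfl
  intro v hv
  by_cases hvF : v ∈ F.set
  · rw [if_pos hvF, if_pos (show v ∈ (meshC T h3).On F from ⟨hvF, pts_dim v hv⟩)]; rfl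
  · rw [if_neg hvF, if_neg (fun h' : v ∈ (meshC T h3).On F => hvF h'.1)]; rfl

open Classical in
/-- **the two faces at a point** -/
lemma kap_opp (S : SphM (meshC T h3) q) (hc : c.set = Msh_715.P (T.H q)) (h : LF s) (x : Pc s c)
    {F F' : C2 T} (hF : q ∈ (meshC T h3).side F) (hF' : q ∈ (meshC T h3).side F') (hne : F ≠ F')
    {w : E} (hw : w ∈ (meshC T h3).On F) (hw' : w ∈ (meshC T h3).On F') :
    kap h x F + lamF F (pts h c x) w = kap h x F' + lamF F' (pts h c x) w +
      (if w ∈ pts h c x ∧ S.opp w = true then 1 else 0) := by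
  have hFc := face_sub hc hF
  have hFc' := face_sub hc hF'
  by_cases hwx : w ∈ pts h c x
  · obtain ⟨κ, hκ⟩ := S.sph (pts h c x) (fun G hG => even_On (face_sub hc hG))
    have hwO : w ∈ Om := cell_sub F.1 hw.1
    obtain ⟨v, hv, hvx⟩ := exists_off hwO hw.2 (pts h c x)
    have hvcc := T.oc_sub_cc w hv
    have hv1 : T.dim v = 1 := by rw [T.dim_eq_of_mem_oc hwO hv]; exact hw.2
    have hvF : v ∈ F.set := cell_cc F.1 w hw.1 hvcc
    have hvF' : v ∈ F'.set := cell_cc F'.1 w hw'.1 hvcc
    have a1 := hκ F F' v hF hF' hne ⟨hvF, hv1⟩ ⟨hvF', hv1⟩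
    have a2 := hκ F F' w hF hF' hne hw hw'
    rw [cntP_lamF pts_dim, cntP_lamF pts_dim] at a1 a2
    rw [if_neg (fun h' => hvx h'.1), add_zero] at a1
    have b1 := kap_eq (h := h) (x := x) hFc hvF hv1.le hvx
    have b2 := kap_eq (h := h) (x := x) hFc' hvF' hv1.le hvx
    rw [b1] at b2
    generalize kap h x F = k1 at b2 ⊢
    generalize kap h x F' = k2 at b2 ⊢
    generalize lamF F (pts h c x) v = l1 at a1 b2
    generalize lamF F' (pts h c x) v = l2 at a1 b2
    generalize lamF F (pts h c x) w = m1 at a2 ⊢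
    generalize lamF F' (pts h c x) w = m2 at a2 ⊢
    generalize (if w ∈ pts h c x ∧ S.opp w = true then (1 : ZMod 2) else 0) = o at a2 ⊢
    generalize κ F = n1 at a1 a2
    generalize κ F' = n2 at a1 a2
    clear hκ
    have e : ∀ k1 k2 l1 l2 m1 m2 o n1 n2 : ZMod 2, k1 + l1 = k2 + l2 → n1 + l1 = n2 + l2 →
        n1 + m1 = n2 + m2 + o → k1 + m1 = k2 + m2 + o := by
      intro k1 k2 l1 l2 m1 m2 o n1 n2 h1 h2 h3
      have h4 : k1 + m1 = (k1 + l1) - (n1 + l1) + (n1 + m1) := by ring
      rw [h4, h1, h2, h3]; ring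
    exact e _ _ _ _ _ _ _ _ _ b2 a1 a2
  · rw [if_neg (fun h' => hwx h'.1), add_zero,
      ← kap_eq hFc hw.1 (le_of_eq hw.2) hwx, ← kap_eq hFc' hw'.1 (le_of_eq hw'.2) hwx]

/-- **the inside function is a colouring** -/
theorem inS_colr (S : SphM (meshC T h3) q) (R : ResOf s r) (hc : c.set = Msh_715.P (T.H q))
    {h : LF s} {x : Pc s c} (hx : ∀ w ∈ pts h c x, w ∈ r.P) :
    (arr S r).Colr (fun p => jx h x p.1.1 p.1.2) (inS h x) where
  jump := by
    intro p
    have h1 := sd_add (u := jx (r := r) h x) p.1.2 (jx_evD h x _)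
    show kap h x (chd p.1.2).1 + sd (jx h x) p.1.2 false +
      (kap h x (chd p.1.2).1 + sd (jx h x) p.1.2 true) = jx h x p.1.1 p.1.2
    rw [← h1]
    generalize kap h x (chd p.1.2).1 = k
    generalize sd (jx (r := r) h x) p.1.2 false = a
    generalize sd (jx (r := r) h x) p.1.2 true = b
    revert k a b; decide
  quad := by
    intro z i j
    obtain ⟨-, h2, -⟩ := face_side (jx (r := r) h x) z.1.F (jx_evD h x _)
    have h3' := h2 z.1 rfl i j
    have e1 : ∀ c j, (chd (dj z.1 c j).p).1 = z.1.F := fun c j => dj_fc z.1 c j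
    let t : (x : Bool) → r.Sub x → Bool → ZMod 2 := fun b p i => sd (jx (r := r) h x) p i
    have h4 : t (dj z.1 true j).x (dj z.1 true j).p i = t (dj z.1 false i).x (dj z.1 false i).p j := by
      rw [dj_qd z.1 true j, dj_qd z.1 false i]
      exact h3'
    show kap h x (chd (dj z.1 true j).p).1 + t (dj z.1 true j).x (dj z.1 true j).p i =
      kap h x (chd (dj z.1 false i).p).1 + t (dj z.1 false i).x (dj z.1 false i).p j
    rw [e1, e1, h4]
  lk := by
    classical
    intro w i
    show inS h x (pcQ (Sum.inr (w, false))) i =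
      inS h x (pcQ (Sum.inr (w, true))) (xor i (xor (S.opp w.1) (xor (upb w false) (upb w true))))
    rw [inS_end R hc hx, inS_end R hc hx]
    have h1 := kap_opp S hc h x (fa_side w false).1 (fa_side w true).1 (fa_ne w)
      (fa_side w false).2 (fa_side w true).2
    rw [h1]
    by_cases hw : w.1 ∈ pts h c x
    · generalize kap h x (fa w true) + lamF (fa w true) (pts h c x) w.1 = a
      cases i <;> cases S.opp w.1 <;> cases upb w false <;> cases upb w true <;>
        simp [hw] <;> (revert a; decide)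
    · rw [if_neg (fun h' => hw h'.1), if_neg hw, ite_self, ite_self, add_zero, add_zero]

end Crest.Agent.R096.Cm_117
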