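import Crest.Agent.R096.Lm1_117
import Crest.Agent.R096.Cm7_117

/-!
# R096 (row 96), LMesh, part 2: the instance of a tiling (helper117)
-/

set_option autoImplicit false
set_option linter.unusedSectionVars false

open Set Topology Filter Metric Module

namespace Crest.Agent.R096.Lm_117

open Crest.Agent.R096.Msh_715 Crest.Agent.R096.Lab_184 Crest.Agent.R096.Agl5_543
  Crest.Agent.R096.Pat5_543 Crest.Agent.R096.Coh_184
  Crest.Agent.R096.St_147 Crest.Agent.R096.Ac_117
open Crest.Agent.R096.Cm_117 (XL nQ lamF xl_lamF exists_xl bv bv_mem bv_dim cell_sub cell_cc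
  cell_conn bc bc_dim bc_set dim_lt_cell exists_off cell_dim_set vertex_set face_sub)

variable {E : Type} [NormedAddCommGroup E] [NormedSpace ℝ E]
variable {Om : Set E} {ι : Type} {T : Tiling Om ι} [FiniteDimensional ℝ E]

/-- the candidate points -/
def W1 (T : Tiling Om ι) : Set E := {w | w ∈ Om ∧ T.dim w = 1}

open Classical in
/-- the cell of a point -/
noncomputable def edC (T : Tiling Om ι) [Nonempty T.Cell] (w : E) : T.Cell :=
  if h : w ∈ Om then T.cl h else Classical.arbitrary _

lemma exists_ends {e : T.Cell} (h : e.dim = 1) : ∃ f : Bool → E, f false ≠ f true ∧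
    e.set = segment ℝ (f false) (f true) ∧ ∀ b, T.dim (f b) = 0 ∧ f b ∈ e.set := by
  obtain ⟨p, q, a1, a2, a3, a4, a5, a6, a7⟩ := T.edge_eq e.pt_mem h
  rw [← e.set_eq] at a2 a6 a7
  refine ⟨fun b => if b then q else p, a1, a2, fun b => ?_⟩
  cases b
  · exact ⟨a4, a6⟩
  · exact ⟨a5, a7⟩

open Classical in
/-- the ends of a 1-cell -/
noncomputable def epE (e : T.Cell) : Bool → E :=
  if h : e.dim = 1 then (exists_ends h).choose else fun _ => e.pt

lemma ep_spec {e : T.Cell} (h : e.dim = 1) : epE e false ≠ epE e true ∧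
    e.set = segment ℝ (epE e false) (epE e true) ∧ ∀ b, T.dim (epE e b) = 0 ∧ epE e b ∈ e.set := by
  unfold epE
  rw [dif_pos h]
  exact (exists_ends h).choose_spec

lemma pt_set (v : T.Cell) : v.pt ∈ v.set := by
  rw [v.set_eq]; exact T.self_mem_cc _

open Classical in
/-- the end cells of a 1-cell -/
noncomputable def enC (e : T.Cell) (b : Bool) : T.Cell :=
  if h : epE e b ∈ Om then T.cl h else e

lemma en_set {e : T.Cell} (h : e.dim = 1) (b : Bool) : (enC e b).set = {epE e b} := by
  have h1 := (ep_spec h).2.2 b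
  have hO := cell_sub e h1.2
  unfold enC
  rw [dif_pos hO, T.cl_set]
  exact T.cc_eq_singleton (T.dim_eq_zero_iff.1 h1.1)

lemma en_pt {e : T.Cell} (h : e.dim = 1) (b : Bool) : (enC e b).pt = epE e b := by
  have h1 : (enC e b).pt ∈ (enC e b).set := by
    rw [(enC e b).set_eq]; exact T.self_mem_cc _
  rw [en_set h b] at h1
  exact h1

lemma en_dim' {e : T.Cell} (h : e.dim = 1) (b : Bool) : (enC e b).dim = 0 := by
  show T.dim (enC e b).pt = 0
  rw [en_pt h b]
  exact ((ep_spec h).2.2 b).1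

lemma en_le {e : T.Cell} (h : e.dim = 1) (b : Bool) : enC e b ≤ e := by
  rw [Tiling.Cell.le_def, en_set h b, singleton_subset_iff]
  exact ((ep_spec h).2.2 b).2

section ed

variable [Nonempty T.Cell]

lemma edC_cl {w : E} (h : w ∈ Om) : edC T w = T.cl h := by
  unfold edC; rw [dif_pos h]

lemma edC_set {w : E} (h : w ∈ Om) : (edC T w).set = T.cc w := by
  rw [edC_cl h, T.cl_set]

lemma edC_dim {w : E} (h : w ∈ W1 T) : (edC T w).dim = 1 := by
  rw [edC_cl h.1, T.dim_cl]; exact h.2

lemma edC_le {w : E} (h : w ∈ Om) {c : T.Cell} : edC T w ≤ c ↔ w ∈ c.set := by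
  rw [Tiling.Cell.le_def, edC_set h]
  exact ⟨fun h' => h' (T.self_mem_cc w), fun h' => cell_cc c w h'⟩

lemma edC_eq {w : E} (h : w ∈ W1 T) {e : T.Cell} (he : e.dim = 1) : edC T w = e ↔ w ∈ e.set := by
  rw [← edC_le h.1]
  constructor
  · intro h'; rw [h']
  · intro h'
    by_contra hne
    have h1 := dim_lt_cell (lt_of_le_of_ne h' hne)
    rw [edC_dim h, he] at h1
    exact lt_irrefl _ h1

/-- position of a point on its 1-cell -/
noncomputable def tC (T : Tiling Om ι) [Nonempty T.Cell] (w : E) : ℝ := ‖w - epE (edC T w) false‖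

/-- parameter on a 1-cell -/
lemma exists_par1 {w : E} (h : w ∈ W1 T) : ∃ s ∈ Icc (0:ℝ) 1,
    w = epE (edC T w) false + s • (epE (edC T w) true - epE (edC T w) false) ∧
    tC T w = s * ‖epE (edC T w) true - epE (edC T w) false‖ := by
  have h1 : w ∈ (edC T w).set := (edC_eq h (edC_dim h)).1 rfl
  rw [(ep_spec (edC_dim h)).2.1, segment_eq_image'] at h1
  obtain ⟨s, hs, e⟩ := h1
  refine ⟨s, hs, e.symm, ?_⟩
  have e' : epE (edC T w) false + s • (epE (edC T w) true - epE (edC T w) false) = w := e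
  unfold tC
  nth_rewrite 1 [← e']
  rw [add_sub_cancel_left, norm_smul, Real.norm_eq_abs, abs_of_nonneg hs.1]

/-- **order on a 1-cell** -/
lemma mem_seg_iff {x w : E} (hx : x ∈ W1 T) (hw : w ∈ W1 T) (hne : x ≠ w) :
    x ∈ segment ℝ (epE (edC T w) false) w ↔ edC T x = edC T w ∧ tC T x < tC T w := by
  have hd := edC_dim hw
  obtain ⟨hne', hset, hmem⟩ := ep_spec hd
  obtain ⟨s, hs, e1, e2⟩ := exists_par1 hw
  have hN : 0 < ‖epE (edC T w) true - epE (edC T w) false‖ :=
    norm_pos_iff.2 (sub_ne_zero.2 (Ne.symm hne'))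
  constructor
  · intro h
    have hxe : x ∈ (edC T w).set := by
      have : segment ℝ (epE (edC T w) false) w ⊆ (edC T w).set := by
        have hconv : Convex ℝ (edC T w).set := by
          rw [(edC T w).set_eq]; exact T.convex_cc _
        exact hconv.segment_subset (hmem false).2 ((edC_eq hw hd).1 rfl)
      exact this h
    have hex : edC T x = edC T w := (edC_eq hx hd).2 hxe
    refine ⟨hex, ?_⟩
    rw [segment_eq_image'] at h
    obtain ⟨u, hu, e3⟩ := h
    have e3' : epE (edC T w) false + u • (w - epE (edC T w) false) = x := e3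
    have e4 : tC T x = u * tC T w := by
      unfold tC
      rw [hex, ← e3', add_sub_cancel_left, norm_smul, Real.norm_eq_abs, abs_of_nonneg hu.1]
    have hu1 : u ≠ 1 := by
      rintro rfl
      rw [one_smul, add_sub_cancel] at e3'
      exact hne e3'.symm
    have ht0 : 0 < tC T w := by
      unfold tC
      rw [norm_pos_iff, sub_ne_zero]
      intro h'
      have h1 := (hmem false).1
      rw [← h'] at h1
      have := hw.2
      omega
    rw [e4]
    have := lt_of_le_of_ne hu.2 hu1
    nlinarith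
  · rintro ⟨hex, hlt⟩
    obtain ⟨s', hs', e1', e2'⟩ := exists_par1 hx
    rw [hex] at e1' e2'
    rw [e2, e2'] at hlt
    have hss : s' < s := lt_of_mul_lt_mul_right hlt hN.le
    have hs0 : 0 < s := lt_of_le_of_lt hs'.1 hss
    rw [segment_eq_image']
    refine ⟨s' / s, ⟨div_nonneg hs'.1 hs0.le, (div_le_one hs0).2 hss.le⟩, ?_⟩
    show epE (edC T w) false + (s' / s) • (w - epE (edC T w) false) = x
    nth_rewrite 2 [e1]
    rw [add_sub_cancel_left, smul_smul, div_mul_cancel₀ _ hs0.ne', ← e1']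

end ed

/-- the 1-skeleton of a tiling -/
noncomputable def skT (T : Tiling Om ι) [Nonempty T.Cell] : Sk E T.Cell (fun c => c.dim) where
  W1 := W1 T
  ed := edC T
  en := enC
  t := tC T
  ed_dim w hw := edC_dim hw
  inf w hw := by
    have h1 : (T.oc w).Infinite := by
      intro hfin
      obtain ⟨w', h1, h2⟩ := exists_off hw.1 hw.2 hfin.toFinset
      exact h2 (hfin.mem_toFinset.2 h1)
    refine h1.mono ?_
    intro w' hw'
    have hO : w' ∈ Om := T.cc_sub_Om hw.1 (T.oc_sub_cc w hw')
    refine ⟨⟨hO, (T.dim_eq_of_mem_oc hw.1 hw').trans hw.2⟩, ?_⟩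
    apply Tiling.Cell.ext
    rw [edC_set hO, edC_set hw.1]
    exact T.cc_eq_of_mem_oc hw.1 hw'
  t_inj := by
    intro w hw w' hw' he ht
    obtain ⟨s, hs, e1, e2⟩ := exists_par1 hw
    obtain ⟨s', hs', e1', e2'⟩ := exists_par1 hw'
    rw [← he] at e1' e2'
    have hne := (ep_spec (edC_dim hw)).1
    have hN : 0 < ‖epE (edC T w) true - epE (edC T w) false‖ :=
      norm_pos_iff.2 (sub_ne_zero.2 (Ne.symm hne))
    rw [e2, e2'] at ht
    have : s = s' := mul_right_cancel₀ hN.ne' ht
    rw [e1, e1', this]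
  en_dim e h b := en_dim' h b
  en_lt e h b := by
    refine lt_of_le_of_ne (en_le h b) (fun h' => ?_)
    have h1 := en_dim' h b
    rw [h'] at h1
    have h2 : e.dim = 1 := h
    omega
  en_all := by
    intro e h v hv
    have h1 : v.dim < e.dim := dim_lt_cell hv
    have h2 : e.dim = 1 := h
    have h4 : v.dim = 0 := by omega
    have h5 : v.pt ∈ e.set := Tiling.Cell.le_def.1 hv.le (pt_set v)
    have h6 : e.set = T.cc e.pt := e.set_eq
    have h7 := T.vertex_of_edge e.pt_mem h (h6.symm.trans (ep_spec h).2.1) (h6 ▸ h5) h4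
    have h8 : v.set = {v.pt} := vertex_set h4
    rcases h7 with h7 | h7
    · left
      apply Tiling.Cell.ext
      rw [en_set h, h8, h7]
    · right
      apply Tiling.Cell.ext
      rw [en_set h, h8, h7]
  en_ne e h h' := by
    have h1 := en_set h false
    rw [h', en_set h true] at h1
    exact (ep_spec h).1 (singleton_injective h1.symm)
  dim_lt c d h := dim_lt_cell h
  base c := ⟨bc c, by rw [Tiling.Cell.le_def, bc_set, singleton_subset_iff]; exact bv_mem c, bc_dim c⟩
  conn := by
    classical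
    intro c φ hφ v v' hv hv' h0 h0'
    let ψ : E → ZMod 2 := fun x => if h : x ∈ Om then φ (T.cl h) else 0
    have hψ : ∀ v : T.Cell, v.dim = 0 → ψ v.pt = φ v := by
      intro v h
      show (if h : v.pt ∈ Om then φ (T.cl h) else 0) = _
      rw [dif_pos v.pt_mem]
      congr 1
      apply Tiling.Cell.ext
      rw [T.cl_set, ← v.set_eq]
    have h1 := T.const_of_preconnected (φ := ψ) (cell_conn c) (cell_sub c) (cell_cc c) (by
      intro e he h1 a b hab
      have heO := cell_sub c he
      have hd : (T.cl heO).dim = 1 := by rw [T.dim_cl]; exact h1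
      have hle : T.cl heO ≤ c := by
        rw [Tiling.Cell.le_def, T.cl_set]; exact cell_cc c e he
      have h2 := hφ (T.cl heO) hle hd
      rw [← hψ _ (en_dim' hd false), ← hψ _ (en_dim' hd true), en_pt hd, en_pt hd] at h2
      obtain ⟨q1, q2, q3⟩ := ep_spec hd
      have r0 := T.vertex_of_edge heO h1 hab (by rw [← T.cl_set heO]; exact (q3 false).2) (q3 false).1
      have r1 := T.vertex_of_edge heO h1 hab (by rw [← T.cl_set heO]; exact (q3 true).2) (q3 true).1
      rcases r0 with r0 | r0 <;> rcases r1 with r1 | r1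
      · exact absurd (r0.trans r1.symm) q1
      · rw [r0, r1] at h2; exact h2
      · rw [r0, r1] at h2; exact h2.symm
      · exact absurd (r0.trans r1.symm) q1)
    have hm : ∀ v : T.Cell, v ≤ c → v.pt ∈ c.set := fun v hv =>
      Tiling.Cell.le_def.1 hv (pt_set v)
    have := h1 v.pt (hm v hv) v'.pt (hm v' hv') h0 h0'
    rwa [hψ v h0, hψ v' h0'] at this

variable [Nonempty T.Cell]

/-- the points of `Y` on the 1-cells -/
noncomputable def fil (T : Tiling Om ι) (Y : Finset E) : Finset E :=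
  open Classical in Y.filter (· ∈ W1 T)

lemma fil_dim {Y : Finset E} : ∀ w ∈ fil T Y, T.dim w = 1 := by
  classical
  intro w hw
  exact ((Finset.mem_filter.1 hw).2).2

lemma nQ_fil (Y : Finset E) (X : Set E) : nQ (fil T Y) X = nW Y (W1 T ∩ X) := by
  classical
  unfold nQ nW fil
  rw [Finset.sum_filter]
  apply Finset.sum_congr rfl
  intro w _
  by_cases h1 : w ∈ W1 T <;> by_cases h2 : w ∈ X <;> simp [h1, h2]

/-- **labels of a tiling are labels of the 1-skeleton** -/
theorem xl_conv {Y : Finset E} {lam : E → ZMod 2} {c : T.Cell} (h : XL T (fil T Y) lam c.set) :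
    (skT T).XL Y (fun v => lam v.pt) c ∧
    ∀ w ∈ (skT T).In c, w ∉ Y → (skT T).ext Y (fun v => lam v.pt) w = lam w := by
  have hnot : ∀ v, T.dim v = 0 → v ∉ fil T Y := fun v hv h' => by
    have := fil_dim v h'
    omega
  constructor
  · intro e he h1
    have hd : e.dim = 1 := h1
    obtain ⟨q1, q2, q3⟩ := ep_spec hd
    show lam (enC e false).pt + lam (enC e true).pt = _
    rw [en_pt hd, en_pt hd]
    have hcc : T.cc e.pt = e.set := e.set_eq.symm
    have h2 := h e.pt (Tiling.Cell.le_def.1 he (pt_set e)) h1 (epE e false)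
      (by rw [hcc]; exact (q3 false).2) (epE e true) (by rw [hcc]; exact (q3 true).2)
      (hnot _ (q3 false).1) (hnot _ (q3 true).1)
    rw [h2, ← q2, nQ_fil]
    apply nW_congr
    intro w _
    constructor
    · rintro ⟨a1, a2⟩
      exact ⟨a1, (edC_eq a1 hd).2 a2⟩
    · rintro ⟨a1, a2⟩
      exact ⟨a1, (edC_eq a1 hd).1 a2⟩
  · rintro w ⟨hw1, hwc⟩ hwY
    have hwc' : w ∈ c.set := (edC_le hw1.1).1 hwc
    have hd := edC_dim hw1
    obtain ⟨q1, q2, q3⟩ := ep_spec hd
    have h2 := h w hwc' hw1.2 (epE (edC T w) false) (by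
        rw [← edC_set hw1.1]; exact (q3 false).2) w (T.self_mem_cc w) (hnot _ (q3 false).1)
      (fun h' => hwY (by classical exact (Finset.mem_filter.1 h').1))
    have e1 : (skT T).pre Y w = nQ (fil T Y) (segment ℝ (epE (edC T w) false) w) := by
      rw [nQ_fil]
      apply nW_congr
      intro x hx
      have hxw : x ≠ w := fun h' => hwY (h' ▸ hx)
      constructor
      · rintro ⟨a1, a2, a3⟩
        exact ⟨a1, (mem_seg_iff a1 hw1 hxw).2 ⟨a2, a3⟩⟩
      · rintro ⟨a1, a2⟩
        obtain ⟨a3, a4⟩ := (mem_seg_iff a1 hw1 hxw).1 a2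
        exact ⟨a1, a3, a4⟩
    show lam (enC (edC T w) false).pt + (skT T).pre Y w = lam w
    rw [e1, en_pt hd, ← h2, ← add_assoc, add_self, zero_add]

variable {h3 : finrank ℝ E = 3}

lemma cntP_fil (F : C2 T) (Y : Finset E) (p : E) :
    cntP (meshC T h3) Y F (F.pos p) = lamF F (fil T Y) p := by
  classical
  unfold cntP lamF fil
  rw [Finset.card_filter, Nat.cast_sum, Finset.sum_filter]
  apply Finset.sum_congr rfl
  intro v _
  by_cases h1 : v ∈ W1 T
  · rw [if_pos h1]
    by_cases h2 : v ∈ F.set ∧ F.pos v < F.pos p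
    · rw [if_pos h2, if_pos (show v ∈ (meshC T h3).On F ∧ (meshC T h3).pos F v < F.pos p from
        ⟨⟨h2.1, h1.2⟩, h2.2⟩)]
      rfl
    · rw [if_neg h2, if_neg (fun h' : v ∈ (meshC T h3).On F ∧ (meshC T h3).pos F v < F.pos p =>
        h2 ⟨h'.1.1, h'.2⟩)]
      rfl
  · rw [if_neg h1, if_neg (fun h' : v ∈ (meshC T h3).On F ∧ (meshC T h3).pos F v < F.pos p =>
      h1 ⟨cell_sub F.1 h'.1.1, h'.1.2⟩)]
    rfl

/-- **the labelled mesh of a tiling** -/
noncomputable def lmT (T : Tiling Om ι) (h3 : finrank ℝ E = 3) [Nonempty T.Cell] :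
    LM (meshC T h3) T.Cell (fun c => c.dim) where
  toSk := skT T
  cf F := F.1
  cf_dim F := F.2
  cf_inj F F' h := Subtype.ext h
  on_iff := by
    intro F w
    constructor
    · rintro ⟨h1, h2⟩
      have hO := cell_sub F.1 h1
      exact ⟨⟨hO, h2⟩, (edC_le hO).2 h1⟩
    · rintro ⟨h1, h2⟩
      exact ⟨(edC_le h1.1).1 h2, h1.2⟩
  vpos F v := F.pos v.pt
  face := by
    intro F Y hY
    have hev : nQ (fil T Y) F.set = 0 := by
      rw [nQ_fil, ← hY]
      apply nW_congr
      intro w _
      constructor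
      · rintro ⟨a1, a2⟩; exact ⟨a2, a1.2⟩
      · rintro ⟨a1, a2⟩; exact ⟨⟨cell_sub F.1 a1, a2⟩, a1⟩
    have h1 := xl_lamF F (fil_dim (T := T) (Y := Y)) hev
    obtain ⟨h2, h4⟩ := xl_conv (c := F.1) h1
    refine ⟨?_, ?_⟩
    · intro e he hd
      rw [← h2 e he hd]
      show cntP (meshC T h3) Y F (F.pos _) + cntP (meshC T h3) Y F (F.pos _) = _
      rw [cntP_fil, cntP_fil]
    · intro w hw hwY
      have hw' : w ∈ (skT T).In F.1 := by
        have hO := cell_sub F.1 hw.1
        exact ⟨⟨hO, hw.2⟩, (edC_le hO).2 hw.1⟩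
      have h5 := h4 w hw' hwY
      show _ = cntP (meshC T h3) Y F (F.pos w)
      rw [cntP_fil, ← h5]
      show cntP (meshC T h3) Y F (F.pos _) + _ = lamF F (fil T Y) _ + _
      rw [cntP_fil]
  cell := by
    intro c Y hY
    obtain ⟨lam, h1⟩ := exists_xl h3 c (fil_dim (T := T) (Y := Y)) (fun F hF => by
      rw [nQ_fil, ← hY F hF]
      apply nW_congr
      intro w _
      constructor
      · rintro ⟨a1, a2⟩; exact ⟨a2, a1.2⟩
      · rintro ⟨a1, a2⟩; exact ⟨⟨cell_sub F.1 a1, a2⟩, a1⟩)
    exact ⟨_, (xl_conv h1).1⟩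

end Crest.Agent.R096.Lm_117
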