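import Crest.Agent.R096.Cp1_298

/-!
# R096 / COPY, part 2 (helper298): parallel copies of the sheets of a global state

`Par M O P n R` : `n w` parallel candidate points near every `w ∈ P`, in the order of the mesh edge.
`cp`            : the state in which every sheet `j` is replaced by `r (fam j)` parallel copies,
  names `Σ j, Fin (r (fam j))`.
-/

set_option autoImplicit false

namespace Crest.Agent.R096.Cp_298
open Crest.Agent.R096.St_147 Crest.Agent.R096.Seq_213

variable {ι Φ W J C K : Type} {M : MeshC ι Φ W} {fam : J → C}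

/-- `n w` parallel candidate points near every `w ∈ P`; `R x w` = "`x` is near `w` on its edge" -/
structure Par (M : MeshC ι Φ W) (O : Ori M) (P : Set W) (n : W → ℕ) (R : W → W → Prop) where
  c : W → ℕ → W
  on : ∀ {w k} (F : Φ), w ∈ P → k < n w → (c w k ∈ M.On F ↔ w ∈ M.On F)
  inj : ∀ {w w' k k'}, w ∈ P → w' ∈ P → k < n w → k' < n w' → c w k = c w' k' → w = w' ∧ k = k'
  sep : ∀ {F w w' k k'}, w ∈ P → w' ∈ P → k < n w → k' < n w' → w ∈ M.On F → w' ∈ M.On F →
    M.pos F w < M.pos F w' → M.pos F (c w k) < M.pos F (c w' k')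
  up : ∀ {F w k k'}, w ∈ P → k < k' → k' < n w → w ∈ M.On F → O.dir F w = 0 →
    M.pos F (c w k) < M.pos F (c w k')
  down : ∀ {F w k k'}, w ∈ P → k < k' → k' < n w → w ∈ M.On F → O.dir F w = 1 →
    M.pos F (c w k') < M.pos F (c w k)
  dir : ∀ {F w k}, w ∈ P → k < n w → w ∈ M.On F → O.dir F (c w k) = O.dir F w
  rel : ∀ {w k}, w ∈ P → k < n w → R (c w k) w

theorem z2_cases (x : ZMod 2) : x = 0 ∨ x = 1 := by
  revert x; decide

theorem z2_one_ne : (1 : ZMod 2) ≠ 0 := by decide

section copy

variable {O : Ori M} {s : GSt M fam} {σ : W → ZMod 2} {r : C → ℕ} {R : W → W → Prop}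

/-- the number of copies of the sheet through `w` -/
def num (s : GSt M fam) (r : C → ℕ) (w : W) : ℕ := r (fam (s.lab w))

variable (π : Par M O s.P (num s r) R)

open Classical in
/-- the point of the copy number `l` near `w` -/
noncomputable def place (σ : W → ZMod 2) (π : Par M O s.P (num s r) R) (w : W) (l : ℕ) : W :=
  π.c w (if σ w = 0 then l else num s r w - 1 - l)

theorem place_idx_lt {w : W} {l : ℕ} (hl : l < num s r w) :
    (if σ w = 0 then l else num s r w - 1 - l) < num s r w := by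
  split_ifs
  · exact hl
  · omega

theorem place_on {w : W} {l : ℕ} (F : Φ) (hw : w ∈ s.P) (hl : l < num s r w) :
    place σ π w l ∈ M.On F ↔ w ∈ M.On F := by
  classical
  exact π.on F hw (place_idx_lt hl)

theorem place_inj {w w' : W} {l l' : ℕ} (hw : w ∈ s.P) (hw' : w' ∈ s.P) (hl : l < num s r w)
    (hl' : l' < num s r w') (h : place σ π w l = place σ π w' l') : w = w' ∧ l = l' := by
  classical
  obtain ⟨h1, h2⟩ := π.inj hw hw' (place_idx_lt (σ := σ) hl) (place_idx_lt (σ := σ) hl') h
  subst h1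
  refine ⟨rfl, ?_⟩
  split_ifs at h2
  · exact h2
  · omega

theorem place_rel {w : W} {l : ℕ} (hw : w ∈ s.P) (hl : l < num s r w) :
    R (place σ π w l) w := by
  classical
  exact π.rel hw (place_idx_lt hl)

theorem place_dir {F : Φ} {w : W} {l : ℕ} (hw : w ∈ s.P) (hl : l < num s r w)
    (hF : w ∈ M.On F) : O.dir F (place σ π w l) = O.dir F w := by
  classical
  exact π.dir hw (place_idx_lt hl) hF

/-- order of the copies of different points -/
theorem place_lt_iff {F : Φ} {w w' : W} {l l' : ℕ} (hw : s.At F w) (hw' : s.At F w')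
    (hl : l < num s r w) (hl' : l' < num s r w') (hne : w ≠ w') :
    M.pos F (place σ π w l) < M.pos F (place σ π w' l') ↔ M.pos F w < M.pos F w' := by
  classical
  constructor
  · intro h
    by_contra h1
    have h2 : M.pos F w' < M.pos F w := lt_of_le_of_ne (not_lt.1 h1)
      (fun e => hne (M.pos_inj F hw.2 hw'.2 e.symm))
    exact absurd h (lt_asymm (π.sep hw'.1 hw.1 (place_idx_lt (σ := σ) hl')
      (place_idx_lt (σ := σ) hl) hw'.2 hw.2 h2))
  · intro h
    exact π.sep hw.1 hw'.1 (place_idx_lt (σ := σ) hl) (place_idx_lt (σ := σ) hl') hw.2 hw'.2 h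

/-- order of the copies of one point -/
theorem place_up {F : Φ} {w : W} {l l' : ℕ} (hw : s.At F w) (h : l < l') (hl' : l' < num s r w)
    (h0 : σ w + O.dir F w = 0) : M.pos F (place σ π w l) < M.pos F (place σ π w l') := by
  classical
  unfold place
  rcases z2_cases (σ w) with h1 | h1
  · rw [if_pos h1, if_pos h1]
    rw [h1, zero_add] at h0
    exact π.up hw.1 h hl' hw.2 h0
  · have h2 : ¬ σ w = 0 := by rw [h1]; exact z2_one_ne
    rw [if_neg h2, if_neg h2]
    have h3 : O.dir F w = 1 := by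
      rcases z2_cases (O.dir F w) with h3 | h3
      · rw [h1, h3] at h0; exact absurd h0 (by decide)
      · exact h3
    exact π.down hw.1 (by omega) (by omega) hw.2 h3

theorem place_down {F : Φ} {w : W} {l l' : ℕ} (hw : s.At F w) (h : l < l')
    (hl' : l' < num s r w) (h0 : σ w + O.dir F w = 1) :
    M.pos F (place σ π w l') < M.pos F (place σ π w l) := by
  classical
  unfold place
  rcases z2_cases (σ w) with h1 | h1
  · rw [if_pos h1, if_pos h1]
    rw [h1, zero_add] at h0
    exact π.down hw.1 h hl' hw.2 h0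
  · have h2 : ¬ σ w = 0 := by rw [h1]; exact z2_one_ne
    rw [if_neg h2, if_neg h2]
    have h3 : O.dir F w = 0 := by
      rcases z2_cases (O.dir F w) with h3 | h3
      · exact h3
      · rw [h1, h3] at h0; exact absurd h0 (by decide)
    exact π.up hw.1 (by omega) (by omega) hw.2 h3

/-- the points of the copy -/
def cpP (σ : W → ZMod 2) (π : Par M O s.P (num s r) R) : Set W :=
  {x | ∃ w ∈ s.P, ∃ l < num s r w, x = place σ π w l}

open Classical in
/-- the original point -/
noncomputable def base (σ : W → ZMod 2) (π : Par M O s.P (num s r) R) (x : W) : W :=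
  if h : x ∈ cpP σ π then h.choose else x

open Classical in
/-- the number of the copy -/
noncomputable def idx (σ : W → ZMod 2) (π : Par M O s.P (num s r) R) (x : W) : ℕ :=
  if h : x ∈ cpP σ π then h.choose_spec.2.choose else 0

theorem place_mem {w : W} {l : ℕ} (hw : w ∈ s.P) (hl : l < num s r w) :
    place σ π w l ∈ cpP σ π := ⟨w, hw, l, hl, rfl⟩

theorem spec {x : W} (h : x ∈ cpP σ π) : base σ π x ∈ s.P ∧
    idx σ π x < num s r (base σ π x) ∧ x = place σ π (base σ π x) (idx σ π x) := by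
  unfold base idx
  simp only [dif_pos h]
  exact ⟨h.choose_spec.1, h.choose_spec.2.choose_spec.1, h.choose_spec.2.choose_spec.2⟩

theorem base_place {w : W} {l : ℕ} (hw : w ∈ s.P) (hl : l < num s r w) :
    base σ π (place σ π w l) = w := by
  obtain ⟨h1, h2, h3⟩ := spec π (place_mem (σ := σ) π hw hl)
  exact (place_inj π h1 hw h2 hl h3.symm).1

theorem idx_place {w : W} {l : ℕ} (hw : w ∈ s.P) (hl : l < num s r w) :
    idx σ π (place σ π w l) = l := by
  obtain ⟨h1, h2, h3⟩ := spec π (place_mem (σ := σ) π hw hl)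
  exact (place_inj π h1 hw h2 hl h3.symm).2

theorem idx_lt (hr : ∀ c, 0 < r c) (x : W) :
    idx σ π x < r (fam (s.lab (base σ π x))) := by
  by_cases h : x ∈ cpP σ π
  · exact (spec π h).2.1
  · unfold idx; rw [dif_neg h]; exact hr _

theorem num_mu {F : Φ} {w : W} (hw : s.At F w) : num s r (s.mu F w) = num s r w := by
  unfold num; rw [s.mu_lab hw.1 hw.2]

theorem mu_at {F : Φ} {w : W} (hw : s.At F w) : s.At F (s.mu F w) := s.mu_mem hw.1 hw.2

/-- chords which are not parallel: interlaced iff the originals are -/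
theorem lace_iff {F : Φ} {a b c d : W} {l l' : ℕ} (ha : s.At F a) (hb : s.At F b)
    (hc : s.At F c) (hd : s.At F d) (hla : l < num s r a) (hlb : l < num s r b)
    (hlc : l' < num s r c) (hld : l' < num s r d) (h1 : c ≠ a) (h2 : c ≠ b) (h3 : d ≠ a)
    (h4 : d ≠ b) :
    M.Lace F (place σ π a l) (place σ π b l) (place σ π c l') (place σ π d l') ↔
      M.Lace F a b c d := by
  unfold MeshC.Lace MeshC.Btw
  rw [place_lt_iff π ha hc hla hlc h1.symm, place_lt_iff π hc hb hlc hlb h2,
    place_lt_iff π hb hc hlb hlc h2.symm, place_lt_iff π hc ha hlc hla h1,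
    place_lt_iff π ha hd hla hld h3.symm, place_lt_iff π hd hb hld hlb h4,
    place_lt_iff π hb hd hlb hld h4.symm, place_lt_iff π hd ha hld hla h3]

theorem real_par {A B A' B' : ℝ} (h : (A < B ∧ A < B' ∧ A' < B ∧ A' < B') ∨
    (B < A ∧ B' < A ∧ B < A' ∧ B' < A'))
    (h' : (A < A' ∧ B' < B) ∨ (A' < A ∧ B < B')) :
    ((A < A' ∧ A' < B) ∨ (B < A' ∧ A' < A)) ↔ ((A < B' ∧ B' < B) ∨ (B < B' ∧ B' < A)) := by
  rcases h with ⟨h1, h2, h3, h4⟩ | ⟨h1, h2, h3, h4⟩ <;> rcases h' with ⟨h5, h6⟩ | ⟨h5, h6⟩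
  · exact ⟨fun _ => Or.inl ⟨h2, h6⟩, fun _ => Or.inl ⟨h5, h3⟩⟩
  · constructor
    · rintro (⟨h7, _⟩ | ⟨h7, _⟩)
      · exact absurd h7 (lt_asymm h5)
      · exact absurd h7 (lt_asymm h3)
    · rintro (⟨_, h7⟩ | ⟨_, h7⟩)
      · exact absurd h7 (lt_asymm h6)
      · exact absurd h7 (lt_asymm h2)
  · constructor
    · rintro (⟨_, h7⟩ | ⟨_, h7⟩)
      · exact absurd h7 (lt_asymm h3)
      · exact absurd h7 (lt_asymm h5)
    · rintro (⟨h7, _⟩ | ⟨h7, _⟩)
      · exact absurd h7 (lt_asymm h2)
      · exact absurd h7 (lt_asymm h6)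
  · exact ⟨fun _ => Or.inr ⟨h6, h2⟩, fun _ => Or.inr ⟨h3, h5⟩⟩

/-- parallel chords do not interlace -/
theorem not_lace_par (hσ : TS s O σ) {F : Φ} {w : W} {l l' : ℕ} (hw : s.At F w)
    (hl : l < num s r w) (hl' : l' < num s r w) (hne : l ≠ l') :
    ¬ M.Lace F (place σ π w l) (place σ π (s.mu F w) l) (place σ π w l')
      (place σ π (s.mu F w) l') := by
  have hm := mu_at hw
  have hn : num s r (s.mu F w) = num s r w := num_mu hw
  have hlm : l < num s r (s.mu F w) := by rw [hn]; exact hl
  have hlm' : l' < num s r (s.mu F w) := by rw [hn]; exact hl'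
  have hmn : s.mu F w ≠ w := s.mu_ne hw.1 hw.2
  unfold MeshC.Lace MeshC.Btw
  rw [not_not]
  apply real_par
  · rcases lt_or_gt_of_ne (fun e => hmn (M.pos_inj F hm.2 hw.2 e)) with h | h
    · right
      exact ⟨(place_lt_iff π hm hw hlm hl hmn).2 h, (place_lt_iff π hm hw hlm' hl hmn).2 h,
        (place_lt_iff π hm hw hlm hl' hmn).2 h, (place_lt_iff π hm hw hlm' hl' hmn).2 h⟩
    · left
      exact ⟨(place_lt_iff π hw hm hl hlm hmn.symm).2 h,
        (place_lt_iff π hw hm hl hlm' hmn.symm).2 h,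
        (place_lt_iff π hw hm hl' hlm hmn.symm).2 h,
        (place_lt_iff π hw hm hl' hlm' hmn.symm).2 h⟩
  · have h1 := hσ F w hw
    have h2 : (σ w + O.dir F w) + (σ (s.mu F w) + O.dir F (s.mu F w)) = 1 := by
      rw [← h1]; ring
    rcases z2_cases (σ w + O.dir F w) with h3 | h3
    · have h4 : σ (s.mu F w) + O.dir F (s.mu F w) = 1 := by rw [h3, zero_add] at h2; exact h2
      rcases lt_or_gt_of_ne hne with h5 | h5
      · left
        exact ⟨place_up π hw h5 hl' h3, place_down π hm h5 hlm' h4⟩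
      · right
        exact ⟨place_up π hw h5 hl h3, place_down π hm h5 hlm h4⟩
    · have h4 : σ (s.mu F w) + O.dir F (s.mu F w) = 0 := by
        rw [h3] at h2
        rcases z2_cases (σ (s.mu F w) + O.dir F (s.mu F w)) with h5 | h5
        · exact h5
        · rw [h5] at h2; exact absurd h2 (by decide)
      rcases lt_or_gt_of_ne hne with h5 | h5
      · right
        exact ⟨place_down π hw h5 hl' h3, place_up π hm h5 hlm' h4⟩
      · left
        exact ⟨place_down π hw h5 hl h3, place_up π hm h5 hlm h4⟩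

/-- names of the copies -/
abbrev Nm' (fam : J → C) (r : C → ℕ) : Type := Σ j : J, Fin (r (fam j))

/-- family of a copy -/
abbrev fam' (fam : J → C) (r : C → ℕ) : Nm' fam r → C := fun x => fam x.1

theorem nm_ext {r : C → ℕ} {x y : Nm' fam r} (h1 : x.1 = y.1) (h2 : (x.2 : ℕ) = (y.2 : ℕ)) :
    x = y := by
  obtain ⟨j, k⟩ := x
  obtain ⟨j', k'⟩ := y
  have h1' : j = j' := h1
  subst h1'
  have : k = k' := Fin.ext h2
  rw [this]

open Classical in
/-- **the state of the copies** -/
noncomputable def cp (s : GSt M fam) (σ : W → ZMod 2) (hσ : TS s O σ) (hr : ∀ c, 0 < r c)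
    (π : Par M O s.P (num s r) R) : GSt M (fam' fam r) where
  P := cpP σ π
  lab := fun x => ⟨s.lab (base σ π x), ⟨idx σ π x, idx_lt π hr x⟩⟩
  mu := fun F x => if x ∈ cpP σ π ∧ x ∈ M.On F then
    place σ π (s.mu F (base σ π x)) (idx σ π x) else s.mu F x
  mu_mem := by
    rintro F x ⟨w, hw, l, hl, rfl⟩ hF
    have hwF := (place_on π F hw hl).1 hF
    have hat : s.At F w := ⟨hw, hwF⟩
    rw [if_pos ⟨place_mem π hw hl, hF⟩, base_place π hw hl, idx_place π hw hl]
    have hlm : l < num s r (s.mu F w) := by rw [num_mu hat]; exact hl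
    exact ⟨place_mem π (mu_at hat).1 hlm, (place_on π F (mu_at hat).1 hlm).2 (mu_at hat).2⟩
  mu_ne := by
    rintro F x ⟨w, hw, l, hl, rfl⟩ hF
    have hwF := (place_on π F hw hl).1 hF
    have hat : s.At F w := ⟨hw, hwF⟩
    rw [if_pos ⟨place_mem π hw hl, hF⟩, base_place π hw hl, idx_place π hw hl]
    have hlm : l < num s r (s.mu F w) := by rw [num_mu hat]; exact hl
    intro h
    exact s.mu_ne hw hwF (place_inj π (mu_at hat).1 hw hlm hl h).1
  mu_mu := by
    rintro F x ⟨w, hw, l, hl, rfl⟩ hF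
    have hwF := (place_on π F hw hl).1 hF
    have hat : s.At F w := ⟨hw, hwF⟩
    have hlm : l < num s r (s.mu F w) := by rw [num_mu hat]; exact hl
    have hF2 : place σ π (s.mu F w) l ∈ M.On F :=
      (place_on π F (mu_at hat).1 hlm).2 (mu_at hat).2
    simp only [if_pos (And.intro (place_mem π hw hl) hF), base_place π hw hl,
      idx_place π hw hl]
    simp only [if_pos (And.intro (place_mem π (mu_at hat).1 hlm) hF2),
      base_place π (mu_at hat).1 hlm, idx_place π (mu_at hat).1 hlm, s.mu_mu hw hwF]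
  mu_lab := by
    rintro F x ⟨w, hw, l, hl, rfl⟩ hF
    have hwF := (place_on π F hw hl).1 hF
    have hat : s.At F w := ⟨hw, hwF⟩
    have hlm : l < num s r (s.mu F w) := by rw [num_mu hat]; exact hl
    refine nm_ext ?_ ?_
    · simp only [if_pos (And.intro (place_mem π hw hl) hF), base_place π hw hl,
        idx_place π hw hl]
      rw [base_place π (mu_at hat).1 hlm, s.mu_lab hw hwF]
    · simp only [if_pos (And.intro (place_mem π hw hl) hF), base_place π hw hl,
        idx_place π hw hl]
      rw [idx_place π (mu_at hat).1 hlm]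
  nc := by
    rintro F x y ⟨w, hw, l, hl, rfl⟩ hF ⟨w', hw', l', hl', rfl⟩ hF' hc hne hne'
    have hwF := (place_on π F hw hl).1 hF
    have hwF' := (place_on π F hw' hl').1 hF'
    have hat : s.At F w := ⟨hw, hwF⟩
    have hat' : s.At F w' := ⟨hw', hwF'⟩
    have hlm : l < num s r (s.mu F w) := by rw [num_mu hat]; exact hl
    have hlm' : l' < num s r (s.mu F w') := by rw [num_mu hat']; exact hl'
    simp only [fam', base_place π hw hl, base_place π hw' hl'] at hc
    simp only [if_pos (And.intro (place_mem π hw hl) hF), base_place π hw hl,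
      idx_place π hw hl] at hne' ⊢
    simp only [if_pos (And.intro (place_mem π hw' hl') hF'), base_place π hw' hl',
      idx_place π hw' hl']
    by_cases h1 : w' = w
    · subst h1
      exact not_lace_par π hσ hat' hl hl' (fun e => hne (by rw [e]))
    by_cases h2 : w' = s.mu F w
    · subst h2
      rw [s.mu_mu hw hwF, lace_swap_right]
      refine not_lace_par π hσ hat hl ?_ (fun e => hne' (by rw [e]))
      rw [← num_mu hat]; exact hl'
    · rw [lace_iff π hat (mu_at hat) hat' (mu_at hat') hl hlm hl' hlm' h1 h2]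
      · exact s.nc hw hwF hw' hwF' hc h1 h2
      · intro e; exact h2 (by rw [← e, s.mu_mu hw' hwF'])
      · intro e; exact h1 (by rw [← s.mu_mu hw' hwF', e, s.mu_mu hw hwF])
  fin := by
    intro c
    refine (((s.fin c).prod (Set.finite_lt_nat (r c))).image
      (fun p : W × ℕ => place σ π p.1 p.2)).subset ?_
    rintro x ⟨⟨w, hw, l, hl, rfl⟩, hc⟩
    simp only [fam', base_place π hw hl] at hc
    refine ⟨(w, l), ⟨⟨hw, hc⟩, ?_⟩, rfl⟩
    show l < r c
    rw [← hc]; exact hl

end copy

end Crest.Agent.R096.Cp_298
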