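import Mathlib

/-! # Parity of level sets in a disc (row 96, helper543)

`D` = closed unit disc of `ℂ`.  If `{u = c} ∩ D = A ⊔ B` with `A`, `B` closed, then `A` does not
meet the unit circle in exactly one point at which `u - c` changes sign. -/

set_option autoImplicit false

open Set Complex Filter Topology Metric

namespace Crest.Agent.R096.Pat2_543

/-- every continuous map `ℂ → Circle` has a continuous argument -/
theorem exists_arg (φ : C(ℂ, Circle)) : ∃ θ : C(ℂ, ℝ), ∀ x, Circle.exp (θ x) = φ x := by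
  obtain ⟨e₀, he₀⟩ : ∃ e₀ : ℝ, Circle.exp e₀ = φ 0 := Circle.exp_surjective (φ 0)
  obtain ⟨F, ⟨-, hF⟩, -⟩ := Circle.isCoveringMap_exp.existsUnique_continuousMap_lifts φ 0 e₀ he₀
  exact ⟨F, fun x => congrFun hF x⟩

/-- radial retraction onto the closed unit disc -/
noncomputable def retr (x : ℂ) : ℂ := ((max 1 ‖x‖)⁻¹ : ℝ) * x

theorem continuous_retr : Continuous retr := by
  unfold retr
  have h : Continuous fun x : ℂ => (max 1 ‖x‖)⁻¹ :=
    (continuous_const.max continuous_norm).inv₀ fun x => by positivity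
  fun_prop

theorem retr_mem (x : ℂ) : retr x ∈ closedBall (0 : ℂ) 1 := by
  rw [mem_closedBall_zero_iff]
  unfold retr
  have h : (0 : ℝ) < max 1 ‖x‖ := by positivity
  rw [norm_mul, Complex.norm_real, Real.norm_eq_abs, abs_of_pos (inv_pos.2 h),
    inv_mul_le_iff₀ h, mul_one]
  exact le_max_right _ _

theorem retr_eq {x : ℂ} (hx : x ∈ closedBall (0 : ℂ) 1) : retr x = x := by
  rw [mem_closedBall_zero_iff] at hx
  unfold retr
  rw [max_eq_left hx]; simp

/-- **Parity lemma.**  No relatively clopen part of a level set in the disc meets the circle in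
exactly one sign change. -/
theorem no_single {u : ℂ → ℝ} (hu : ContinuousOn u (closedBall 0 1)) {c : ℝ} {A B : Set ℂ}
    (hA : IsClosed A) (hB : IsClosed B) (hAB : Disjoint A B)
    (hZ : ∀ x ∈ closedBall (0 : ℂ) 1, u x = c → x ∈ A ∪ B)
    {z : ℂ} (hz : ‖z‖ = 1) (hzA : z ∈ A) (hAs : ∀ x ∈ A, ‖x‖ = 1 → x = z)
    (hAu : ∀ x ∈ A, x ∈ closedBall (0 : ℂ) 1 → u x = c)
    {δ : ℝ} (hδ : 0 < δ)
    (hpos : ∀ t : ℝ, 0 < t → t < δ → c < u (z * exp ((t : ℝ) * I)))
    (hneg : ∀ t : ℝ, 0 < t → t < δ → u (z * exp (((-t : ℝ) : ℂ) * I)) < c) : False := by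
  classical
  -- Urysohn function
  obtain ⟨φ, hφA, hφB, hφ01⟩ := exists_continuous_zero_one_of_isClosed hA hB hAB
  set Ψ : ℂ → ℂ := fun x => ((φ x - 1 / 2 : ℝ) : ℂ) + ((c - u x : ℝ) : ℂ) * I with hΨ
  have hre : ∀ x, (Ψ x).re = φ x - 1 / 2 := fun x => by simp [hΨ]
  have him : ∀ x, (Ψ x).im = c - u x := fun x => by simp [hΨ]
  have hΨc : ContinuousOn Ψ (closedBall 0 1) := by
    have h1 : ContinuousOn (fun x => (φ x - 1 / 2 : ℝ)) (closedBall (0 : ℂ) 1) :=
      (φ.continuous.sub continuous_const).continuousOn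
    have h2 : ContinuousOn (fun x => (c - u x : ℝ)) (closedBall (0 : ℂ) 1) :=
      continuousOn_const.sub hu
    exact (Complex.continuous_ofReal.comp_continuousOn h1).add
      ((Complex.continuous_ofReal.comp_continuousOn h2).mul continuousOn_const)
  have hΨ0 : ∀ x ∈ closedBall (0 : ℂ) 1, Ψ x ≠ 0 := by
    intro x hx h0
    have h1 : u x = c := by
      have := him x; rw [h0] at this; simp at this; linarith
    have h2 : φ x = 1 / 2 := by
      have := hre x; rw [h0] at this; simp at this; linarith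
    rcases hZ x hx h1 with h | h
    · have := hφA h; simp at this; rw [this] at h2; norm_num at h2
    · have := hφB h; simp at this; rw [this] at h2; norm_num at h2
  -- the continuous argument
  set N : ℂ → ℂ := fun x => Ψ (retr x) / (‖Ψ (retr x)‖ : ℂ) with hN
  have hNc : Continuous fun x => Ψ (retr x) :=
    hΨc.comp_continuous continuous_retr retr_mem
  have hN0 : ∀ x, Ψ (retr x) ≠ 0 := fun x => hΨ0 _ (retr_mem x)
  have hNn : ∀ x, ‖N x‖ = 1 := fun x => by
    simp only [hN, norm_div, Complex.norm_real, norm_norm]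
    exact div_self (norm_ne_zero_iff.2 (hN0 x))
  have hNcont : Continuous N := by
    refine hNc.div (Complex.continuous_ofReal.comp (continuous_norm.comp hNc)) fun x => ?_
    exact_mod_cast norm_ne_zero_iff.2 (hN0 x)
  obtain ⟨θ, hθ⟩ := exists_arg
    ⟨fun x => (⟨N x, mem_sphere_zero_iff_norm.2 (hNn x)⟩ : Circle), by
      exact Continuous.subtype_mk hNcont _⟩
  have hθ' : ∀ x ∈ closedBall (0 : ℂ) 1, exp ((θ x : ℝ) * I) = Ψ x / (‖Ψ x‖ : ℂ) := by
    intro x hx
    have h1 := congrArg (fun w : Circle => (w : ℂ)) (hθ x)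
    simp only [Circle.coe_exp] at h1
    rw [h1]
    change N x = _
    simp only [hN, retr_eq hx]
  -- the loop
  set γ : ℝ → ℂ := fun t => z * exp ((t : ℝ) * I) with hγ
  have hγc : Continuous γ := by simp only [hγ]; fun_prop
  have hγn : ∀ t, ‖γ t‖ = 1 := fun t => by
    simp only [hγ, norm_mul, hz, Complex.norm_exp_ofReal_mul_I, mul_one]
  have hγD : ∀ t, γ t ∈ closedBall (0 : ℂ) 1 := fun t => by
    rw [mem_closedBall_zero_iff, hγn]
  have hγ0 : γ 0 = z := by simp [hγ]
  have hγ1 : γ (2 * Real.pi) = z := by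
    simp only [hγ]; push_cast; rw [Complex.exp_two_pi_mul_I, mul_one]
  have hz0 : z ≠ 0 := by intro h; rw [h, norm_zero] at hz; norm_num at hz
  have hγz : ∀ t, 0 < t → t < 2 * Real.pi → γ t ≠ z := by
    intro t h0 h1 h
    simp only [hγ] at h
    have h2 : exp ((t : ℝ) * I) = 1 := by
      have : z * exp ((t : ℝ) * I) = z * 1 := by rw [h, mul_one]
      exact mul_left_cancel₀ hz0 this
    rw [Complex.exp_eq_one_iff] at h2
    obtain ⟨n, hn⟩ := h2
    have h3 : (t : ℂ) * I = ((n * (2 * Real.pi) : ℝ) : ℂ) * I := by rw [hn]; push_cast; ring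
    have h4 : t = n * (2 * Real.pi) := by exact_mod_cast mul_right_cancel₀ I_ne_zero h3
    have hp := Real.pi_pos
    have h5 : (0 : ℝ) < n := by
      by_contra hc; push Not at hc
      have := mul_nonpos_of_nonpos_of_nonneg hc (by positivity : (0 : ℝ) ≤ 2 * Real.pi)
      linarith
    have h6 : (n : ℝ) < 1 := by
      by_contra hc; push Not at hc
      have : 1 * (2 * Real.pi) ≤ n * (2 * Real.pi) :=
        mul_le_mul_of_nonneg_right hc (by positivity)
      linarith
    have h7 : (0 : ℤ) < n := by exact_mod_cast h5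
    have h8 : n < (1 : ℤ) := by exact_mod_cast h6
    omega
  have hslit : ∀ t, 0 < t → t < 2 * Real.pi → Ψ (γ t) ∈ slitPlane := by
    intro t h0 h1
    rw [Complex.mem_slitPlane_iff]
    by_contra hcon
    push Not at hcon
    obtain ⟨h2, h3⟩ := hcon
    rw [hre] at h2
    rw [him] at h3
    have h4 : u (γ t) = c := by linarith
    rcases hZ _ (hγD t) h4 with h | h
    · exact hγz t h0 h1 (hAs _ h (hγn t))
    · have := hφB h; simp at this; rw [this] at h2; norm_num at h2
  -- `θ ∘ γ - arg ∘ Ψ ∘ γ` is constant on `(0, 2π)`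
  set q : ℝ → ℝ := fun t => θ (γ t) - arg (Ψ (γ t)) with hq
  have hqc : ContinuousOn q (Ioo 0 (2 * Real.pi)) := by
    intro t ht
    refine ContinuousAt.continuousWithinAt ?_
    have h1 : ContinuousAt (fun t => arg (Ψ (γ t))) t := by
      have h2 : ContinuousAt (fun t => Ψ (γ t)) t :=
        (hΨc.comp_continuous hγc hγD).continuousAt
      exact ContinuousAt.comp (f := fun t => Ψ (γ t)) (g := arg)
        (continuousAt_arg (hslit t ht.1 ht.2)) h2
    exact (θ.continuous.comp hγc).continuousAt.sub h1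
  have hqint : ∀ t, ∃ n : ℤ, q t = n * (2 * Real.pi) := by
    intro t
    have h1 := hθ' _ (hγD t)
    have h2 : exp ((arg (Ψ (γ t)) : ℝ) * I) = Ψ (γ t) / (‖Ψ (γ t)‖ : ℂ) := by
      have h3 := Complex.norm_mul_exp_arg_mul_I (Ψ (γ t))
      have h4 : (‖Ψ (γ t)‖ : ℂ) ≠ 0 := by
        exact_mod_cast norm_ne_zero_iff.2 (hΨ0 _ (hγD t))
      rw [eq_div_iff h4, mul_comm]; exact h3
    have h3 : exp ((θ (γ t) : ℝ) * I) = exp ((arg (Ψ (γ t)) : ℝ) * I) := by rw [h1, h2]
    rw [Complex.exp_eq_exp_iff_exists_int] at h3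
    obtain ⟨n, hn⟩ := h3
    refine ⟨n, ?_⟩
    have h5 : ((θ (γ t) : ℝ) : ℂ) * I
        = ((arg (Ψ (γ t)) + n * (2 * Real.pi) : ℝ) : ℂ) * I := by
      rw [hn]; push_cast; ring
    have h6 : θ (γ t) = arg (Ψ (γ t)) + n * (2 * Real.pi) := by
      exact_mod_cast mul_right_cancel₀ I_ne_zero h5
    simp only [hq]; linarith
  have hp := Real.pi_pos
  obtain ⟨k, hk⟩ : ∃ k : ℝ, ∀ t ∈ Ioo (0 : ℝ) (2 * Real.pi), q t = k := by
    refine ⟨q Real.pi, fun t ht => ?_⟩
    have hpre : IsPreconnected (Ioo (0 : ℝ) (2 * Real.pi)) := isPreconnected_Ioo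
    have hpi : Real.pi ∈ Ioo (0 : ℝ) (2 * Real.pi) := ⟨hp, by linarith⟩
    have hdisc : ∀ t ∈ Ioo (0 : ℝ) (2 * Real.pi),
        q t / (2 * Real.pi) ∈ range ((↑) : ℤ → ℝ) := by
      intro t _
      obtain ⟨n, hn⟩ := hqint t
      exact ⟨n, by rw [hn]; field_simp⟩
    have hcc : ContinuousOn (fun t => q t / (2 * Real.pi)) (Ioo 0 (2 * Real.pi)) :=
      hqc.div_const _
    have hT : IsDiscrete (range ((↑) : ℤ → ℝ)) :=
      Int.isClosedEmbedding_coe_real.isInducing.isDiscrete_range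
    have h1 := hpre.constant_of_mapsTo hT hcc hdisc ht hpi
    have h2 : q t / (2 * Real.pi) = q Real.pi / (2 * Real.pi) := h1
    have h3 : (2 * Real.pi) ≠ 0 := by positivity
    exact (div_left_inj' h3).1 h2
  -- limits at the two ends
  have hΨγc : Continuous fun t => Ψ (γ t) := hΨc.comp_continuous hγc hγD
  have hθγc : Continuous fun t => θ (γ t) := θ.continuous.comp hγc
  have hφz : φ z = 0 := by have := hφA hzA; simpa using this
  have hzD : z ∈ closedBall (0 : ℂ) 1 := by rw [mem_closedBall_zero_iff, hz]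
  have huz : u z = c := hAu z hzA hzD
  have hΨz_re : (Ψ z).re < 0 := by rw [hre, hφz]; norm_num
  have hΨz_im : (Ψ z).im = 0 := by rw [him, huz]; ring
  have lim0 : Tendsto (fun t => arg (Ψ (γ t))) (𝓝[>] 0) (𝓝 (-Real.pi)) := by
    refine (tendsto_arg_nhdsWithin_im_neg_of_re_neg_of_im_zero hΨz_re hΨz_im).comp ?_
    refine tendsto_nhdsWithin_iff.2 ⟨?_, ?_⟩
    · have := hΨγc.tendsto 0
      simp only [hγ0] at this
      exact this.mono_left nhdsWithin_le_nhds
    · filter_upwards [Ioo_mem_nhdsGT hδ] with t ht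
      change (Ψ (γ t)).im < 0
      rw [him]
      have := hpos t ht.1 ht.2
      simp only [hγ]; linarith
  have lim1 : Tendsto (fun t => arg (Ψ (γ t))) (𝓝[<] (2 * Real.pi)) (𝓝 Real.pi) := by
    refine (tendsto_arg_nhdsWithin_im_nonneg_of_re_neg_of_im_zero hΨz_re hΨz_im).comp ?_
    refine tendsto_nhdsWithin_iff.2 ⟨?_, ?_⟩
    · have := hΨγc.tendsto (2 * Real.pi)
      simp only [hγ1] at this
      exact this.mono_left nhdsWithin_le_nhds
    · have hm : Ioo (2 * Real.pi - δ) (2 * Real.pi) ∈ 𝓝[<] (2 * Real.pi) :=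
        Ioo_mem_nhdsLT (by linarith)
      filter_upwards [hm] with t ht
      change 0 ≤ (Ψ (γ t)).im
      rw [him]
      have h1 := hneg (2 * Real.pi - t) (by linarith [ht.2]) (by linarith [ht.1])
      have h2 : z * exp (((-(2 * Real.pi - t) : ℝ) : ℂ) * I) = γ t := by
        simp only [hγ]
        have : (((-(2 * Real.pi - t) : ℝ) : ℂ) * I) = (t : ℂ) * I - 2 * Real.pi * I := by
          push_cast; ring
        rw [this, Complex.exp_sub, Complex.exp_two_pi_mul_I, div_one]
      rw [h2] at h1; linarith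
  have hI0 : Ioo 0 (2 * Real.pi) ∈ 𝓝[>] (0 : ℝ) := Ioo_mem_nhdsGT (by linarith)
  have hI1 : Ioo 0 (2 * Real.pi) ∈ 𝓝[<] (2 * Real.pi) := Ioo_mem_nhdsLT (by linarith)
  have q0 : Tendsto q (𝓝[>] 0) (𝓝 (θ z - (-Real.pi))) := by
    have h1 := (hθγc.tendsto 0).mono_left (nhdsWithin_le_nhds (s := Ioi 0))
    simp only [hγ0] at h1
    exact h1.sub lim0
  have q1 : Tendsto q (𝓝[<] (2 * Real.pi)) (𝓝 (θ z - Real.pi)) := by
    have h1 := (hθγc.tendsto (2 * Real.pi)).mono_left
      (nhdsWithin_le_nhds (s := Iio (2 * Real.pi)))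
    simp only [hγ1] at h1
    exact h1.sub lim1
  have q0' : Tendsto q (𝓝[>] 0) (𝓝 k) :=
    tendsto_const_nhds.congr' (by filter_upwards [hI0] with t ht using (hk t ht).symm)
  have q1' : Tendsto q (𝓝[<] (2 * Real.pi)) (𝓝 k) :=
    tendsto_const_nhds.congr' (by filter_upwards [hI1] with t ht using (hk t ht).symm)
  have e0 := tendsto_nhds_unique q0 q0'
  have e1 := tendsto_nhds_unique q1 q1'
  linarith

end Crest.Agent.R096.Pat2_543
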