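import Mathlib
import Crest.Agent.R202.Miranda

/-! # Crossing lemma (row 96, helper543)

Two interlaced paths in a region of the plane meet: radial version around the origin.  The four
end points `p_j = r_j e^{i θ_j}` are radially exposed (`t e^{i θ_j}` is outside both sets for
`t > r_j`), `θ_a < θ_b < θ_c < θ_d < θ_a + 2π`. -/

set_option autoImplicit false

open Set Complex

namespace Crest.Agent.R096.Pat1_543

/-- angle of the exterior arc at radius `ρ` -/
noncomputable def ph (R θ θ' ρ : ℝ) : ℝ := θ + max 0 (ρ / R - 1) * (θ' - θ)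

/-- exterior arc -/
noncomputable def arc (R θ θ' ρ : ℝ) : ℂ := (ρ : ℂ) * exp ((ph R θ θ' ρ : ℝ) * I)

theorem continuous_ph (R θ θ' : ℝ) : Continuous (ph R θ θ') := by
  unfold ph; fun_prop

theorem continuous_arc (R θ θ' : ℝ) : Continuous (arc R θ θ') := by
  unfold arc
  have := continuous_ph R θ θ'
  fun_prop

theorem ph_le {R θ θ' ρ : ℝ} (hR : 0 < R) (h : ρ ≤ R) : ph R θ θ' ρ = θ := by
  unfold ph
  have : ρ / R - 1 ≤ 0 := by
    have : ρ / R ≤ 1 := by rw [div_le_one hR]; exact h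
    linarith
  rw [max_eq_left this]; ring

theorem ph_two {R θ θ' : ℝ} (hR : 0 < R) : ph R θ θ' (2 * R) = θ' := by
  unfold ph
  have : 2 * R / R - 1 = 1 := by field_simp; norm_num
  rw [this]; norm_num

theorem arc_le {R θ θ' ρ : ℝ} (hR : 0 < R) (h : ρ ≤ R) :
    arc R θ θ' ρ = (ρ : ℂ) * exp ((θ : ℝ) * I) := by
  unfold arc; rw [ph_le hR h]

theorem arc_two {R θ θ' : ℝ} (hR : 0 < R) :
    arc R θ θ' (2 * R) = ((2 * R : ℝ) : ℂ) * exp ((θ' : ℝ) * I) := by
  unfold arc; rw [ph_two hR]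

theorem norm_arc {R θ θ' ρ : ℝ} (h : 0 ≤ ρ) : ‖arc R θ θ' ρ‖ = ρ := by
  unfold arc
  rw [norm_mul, Complex.norm_exp_ofReal_mul_I, mul_one, Complex.norm_real, Real.norm_eq_abs,
    abs_of_nonneg h]

theorem arc_inj {R θ₁ θ₁' θ₂ θ₂' ρ₁ ρ₂ : ℝ} (hR : 0 < R) (h1 : 0 < ρ₁) (h2 : 0 < ρ₂)
    (h1R : ρ₁ ≤ 2 * R)
    (hθ : θ₁ < θ₂) (hθ2 : θ₂ < θ₁ + 2 * Real.pi) (hθ' : θ₁' < θ₂')
    (hθ2' : θ₂' < θ₁' + 2 * Real.pi) : arc R θ₁ θ₁' ρ₁ ≠ arc R θ₂ θ₂' ρ₂ := by
  intro h
  have hρ : ρ₁ = ρ₂ := by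
    have := congrArg norm h
    rwa [norm_arc h1.le, norm_arc h2.le] at this
  subst hρ
  unfold arc at h
  have hne : (ρ₁ : ℂ) ≠ 0 := by exact_mod_cast h1.ne'
  have h3 := mul_left_cancel₀ hne h
  rw [Complex.exp_eq_exp_iff_exists_int] at h3
  obtain ⟨n, hn⟩ := h3
  have h4 : ph R θ₁ θ₁' ρ₁ = ph R θ₂ θ₂' ρ₁ + n * (2 * Real.pi) := by
    have h5 : ((ph R θ₁ θ₁' ρ₁ : ℝ) : ℂ) * I
        = ((ph R θ₂ θ₂' ρ₁ + n * (2 * Real.pi) : ℝ) : ℂ) * I := by
      rw [hn]; push_cast; ring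
    have h6 := mul_right_cancel₀ I_ne_zero h5
    exact_mod_cast h6
  set s : ℝ := max 0 (ρ₁ / R - 1) with hs
  have hs0 : 0 ≤ s := le_max_left _ _
  have hs1 : s ≤ 1 := by
    refine max_le zero_le_one ?_
    have : ρ₁ / R ≤ 2 := by rw [div_le_iff₀ hR]; exact h1R
    linarith
  have h7 : ph R θ₂ θ₂' ρ₁ - ph R θ₁ θ₁' ρ₁ = (1 - s) * (θ₂ - θ₁) + s * (θ₂' - θ₁') := by
    unfold ph; rw [← hs]; ring
  have hpos : 0 < ph R θ₂ θ₂' ρ₁ - ph R θ₁ θ₁' ρ₁ := by
    rw [h7]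
    rcases hs1.lt_or_eq with h8 | h8
    · have := mul_pos (sub_pos.2 h8) (sub_pos.2 hθ)
      have := mul_nonneg hs0 (sub_pos.2 hθ').le
      linarith
    · rw [h8]; linarith
  have hlt : ph R θ₂ θ₂' ρ₁ - ph R θ₁ θ₁' ρ₁ < 2 * Real.pi := by
    rw [h7]
    have hp := Real.pi_pos
    rcases hs1.lt_or_eq with h8 | h8
    · have e1 : (1 - s) * (θ₂ - θ₁) < (1 - s) * (2 * Real.pi) :=
        mul_lt_mul_of_pos_left (by linarith) (sub_pos.2 h8)
      have e2 : s * (θ₂' - θ₁') ≤ s * (2 * Real.pi) :=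
        mul_le_mul_of_nonneg_left (by linarith) hs0
      nlinarith
    · rw [h8]; linarith
  have h9 : ((-n : ℤ) : ℝ) * (2 * Real.pi) = ph R θ₂ θ₂' ρ₁ - ph R θ₁ θ₁' ρ₁ := by
    push_cast; linarith
  have hp := Real.pi_pos
  have h10 : (0 : ℝ) < ((-n : ℤ) : ℝ) := by
    by_contra hc
    push Not at hc
    have := mul_nonpos_of_nonpos_of_nonneg hc (by positivity : (0 : ℝ) ≤ 2 * Real.pi)
    linarith
  have h11 : ((-n : ℤ) : ℝ) < 1 := by
    by_contra hc
    push Not at hc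
    have : 1 * (2 * Real.pi) ≤ ((-n : ℤ) : ℝ) * (2 * Real.pi) :=
      mul_le_mul_of_nonneg_right hc (by positivity)
    linarith
  have h12 : (0 : ℤ) < -n := by exact_mod_cast h10
  have h13 : (-n : ℤ) < 1 := by exact_mod_cast h11
  omega

/-- exterior path from radius `r` to radius `2R` -/
noncomputable def arcPath (R θ θ' r : ℝ) : Path (arc R θ θ' r) (arc R θ θ' (2 * R)) where
  toFun t := arc R θ θ' (r + (t : ℝ) * (2 * R - r))
  continuous_toFun := (continuous_arc R θ θ').comp (by fun_prop)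
  source' := by simp
  target' := by simp

theorem mem_range_arcPath {R θ θ' r : ℝ} (hr : r ≤ 2 * R) {z : ℂ}
    (hz : z ∈ range (arcPath R θ θ' r)) : ∃ ρ, r ≤ ρ ∧ ρ ≤ 2 * R ∧ z = arc R θ θ' ρ := by
  obtain ⟨t, rfl⟩ := hz
  have h0 := t.2.1
  have h1 := t.2.2
  refine ⟨r + (t : ℝ) * (2 * R - r), ?_, ?_, rfl⟩
  · have := mul_nonneg h0 (sub_nonneg.2 hr)
    linarith
  · have := mul_le_mul_of_nonneg_right h1 (sub_nonneg.2 hr)
    linarith

/-- Two paths in the square of half side `L` joining opposite sides meet. -/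
theorem meet_of_opposite {L : ℝ} {z₁ z₂ w₁ w₂ : ℂ} (A : Path z₁ z₂) (B : Path w₁ w₂)
    (hA : ∀ t, |(A t).re| ≤ L ∧ |(A t).im| ≤ L) (hB : ∀ t, |(B t).re| ≤ L ∧ |(B t).im| ≤ L)
    (hz1 : z₁.re = -L) (hz2 : z₂.re = L) (hw1 : w₁.im = -L) (hw2 : w₂.im = L) :
    (range A ∩ range B).Nonempty := by
  classical
  set f : (Fin 2 → ℝ) → Fin 2 → ℝ := fun x =>
    ![(A.extend ((x 0 + 1) / 2) - B.extend ((x 1 + 1) / 2)).re,
      (B.extend ((x 1 + 1) / 2) - A.extend ((x 0 + 1) / 2)).im] with hf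
  have hAr : ∀ s : ℝ, A.extend s ∈ range A := fun s => by
    rw [← A.extend_range]; exact mem_range_self s
  have hBr : ∀ s : ℝ, B.extend s ∈ range B := fun s => by
    rw [← B.extend_range]; exact mem_range_self s
  have hA' : ∀ s : ℝ, |(A.extend s).re| ≤ L ∧ |(A.extend s).im| ≤ L := fun s => by
    obtain ⟨t, ht⟩ := hAr s
    rw [← ht]; exact hA t
  have hB' : ∀ s : ℝ, |(B.extend s).re| ≤ L ∧ |(B.extend s).im| ≤ L := fun s => by
    obtain ⟨t, ht⟩ := hBr s
    rw [← ht]; exact hB t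
  have hcont : Continuous f := by
    have h1 : Continuous fun x : Fin 2 → ℝ => A.extend ((x 0 + 1) / 2) :=
      A.continuous_extend.comp (by fun_prop)
    have h2 : Continuous fun x : Fin 2 → ℝ => B.extend ((x 1 + 1) / 2) :=
      B.continuous_extend.comp (by fun_prop)
    refine continuous_pi fun i => ?_
    fin_cases i
    · exact Complex.continuous_re.comp (h1.sub h2)
    · exact Complex.continuous_im.comp (h2.sub h1)
  obtain ⟨x, hx, hx0⟩ := Crest.Agent.R202.poincare_miranda f hcont.continuousOn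
    (by
      intro x hx i hi
      fin_cases i
      · have h0 : x 0 = 1 := hi
        have : A.extend ((x 0 + 1) / 2) = z₂ := by rw [h0]; norm_num
        change 0 ≤ (A.extend ((x 0 + 1) / 2) - B.extend ((x 1 + 1) / 2)).re
        rw [this, Complex.sub_re, hz2]
        have := (abs_le.1 (hB' ((x 1 + 1) / 2)).1).2
        linarith
      · have h0 : x 1 = 1 := hi
        have : B.extend ((x 1 + 1) / 2) = w₂ := by rw [h0]; norm_num
        change 0 ≤ (B.extend ((x 1 + 1) / 2) - A.extend ((x 0 + 1) / 2)).im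
        rw [this, Complex.sub_im, hw2]
        have := (abs_le.1 (hA' ((x 0 + 1) / 2)).2).2
        linarith)
    (by
      intro x hx i hi
      fin_cases i
      · have h0 : x 0 = -1 := hi
        have : A.extend ((x 0 + 1) / 2) = z₁ := by rw [h0]; norm_num
        change (A.extend ((x 0 + 1) / 2) - B.extend ((x 1 + 1) / 2)).re ≤ 0
        rw [this, Complex.sub_re, hz1]
        have := (abs_le.1 (hB' ((x 1 + 1) / 2)).1).1
        linarith
      · have h0 : x 1 = -1 := hi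
        have : B.extend ((x 1 + 1) / 2) = w₁ := by rw [h0]; norm_num
        change (B.extend ((x 1 + 1) / 2) - A.extend ((x 0 + 1) / 2)).im ≤ 0
        rw [this, Complex.sub_im, hw1]
        have := (abs_le.1 (hA' ((x 0 + 1) / 2)).2).1
        linarith)
  refine ⟨A.extend ((x 0 + 1) / 2), hAr _, ?_⟩
  have h1 := hx0 0
  have h2 := hx0 1
  have h3 : A.extend ((x 0 + 1) / 2) = B.extend ((x 1 + 1) / 2) := by
    apply Complex.ext
    · have : (A.extend ((x 0 + 1) / 2) - B.extend ((x 1 + 1) / 2)).re = 0 := h1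
      rw [Complex.sub_re] at this; linarith
    · have : (B.extend ((x 1 + 1) / 2) - A.extend ((x 0 + 1) / 2)).im = 0 := h2
      rw [Complex.sub_im] at this; linarith
  rw [h3]; exact hBr _

/-- radial exposure of the end point `r e^{iθ}` with respect to a set -/
def Exposed (S : Set ℂ) (r θ : ℝ) : Prop :=
  ∀ t : ℝ, r < t → (t : ℂ) * exp ((θ : ℝ) * I) ∉ S

/-- **Crossing lemma**, path version. -/
theorem crossing_path {S S' : Set ℂ} {a b c d ra rb rc rd : ℝ} (hab : a < b) (hbc : b < c)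
    (hcd : c < d) (hda : d < a + 2 * Real.pi) (ha0 : 0 < ra) (hb0 : 0 < rb) (hc0 : 0 < rc)
    (hd0 : 0 < rd)
    (ha : Exposed (S ∪ S') ra a) (hb : Exposed (S ∪ S') rb b) (hc : Exposed (S ∪ S') rc c)
    (hd : Exposed (S ∪ S') rd d)
    (hS : JoinedIn S ((ra : ℂ) * exp ((a : ℝ) * I)) ((rc : ℂ) * exp ((c : ℝ) * I)))
    (hS' : JoinedIn S' ((rb : ℂ) * exp ((b : ℝ) * I)) ((rd : ℂ) * exp ((d : ℝ) * I))) :
    (S ∩ S').Nonempty := by
  obtain ⟨α, hα⟩ := hS
  obtain ⟨β, hβ⟩ := hS'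
  -- a large radius
  obtain ⟨Rα, hRα⟩ := (isCompact_range α.continuous).isBounded.exists_norm_le
  obtain ⟨Rβ, hRβ⟩ := (isCompact_range β.continuous).isBounded.exists_norm_le
  set R : ℝ := max (max Rα Rβ) (max (max ra rb) (max rc rd)) with hR
  have hRa : ra ≤ R := (le_max_left _ _).trans ((le_max_left _ _).trans (le_max_right _ _))
  have hRb : rb ≤ R := (le_max_right _ _).trans ((le_max_left _ _).trans (le_max_right _ _))
  have hRc : rc ≤ R := (le_max_left _ _).trans ((le_max_right _ _).trans (le_max_right _ _))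
  have hRd : rd ≤ R := (le_max_right _ _).trans ((le_max_right _ _).trans (le_max_right _ _))
  have hRα' : ∀ t, ‖α t‖ ≤ R := fun t =>
    (hRα _ (mem_range_self t)).trans ((le_max_left _ _).trans (le_max_left _ _))
  have hRβ' : ∀ t, ‖β t‖ ≤ R := fun t =>
    (hRβ _ (mem_range_self t)).trans ((le_max_right _ _).trans (le_max_left _ _))
  have hR0 : 0 < R := ha0.trans_le hRa
  have hp := Real.pi_pos
  set a' : ℝ := -Real.pi
  set b' : ℝ := -(Real.pi / 2)
  set c' : ℝ := 0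
  set d' : ℝ := Real.pi / 2
  -- the two long paths
  have ea := arc_le (θ := a) (θ' := a') hR0 hRa
  have eb := arc_le (θ := b) (θ' := b') hR0 hRb
  have ec := arc_le (θ := c) (θ' := c') hR0 hRc
  have ed := arc_le (θ := d) (θ' := d') hR0 hRd
  let A := ((arcPath R a a' ra).symm.trans (α.cast ea ec)).trans (arcPath R c c' rc)
  let B := ((arcPath R b b' rb).symm.trans (β.cast eb ed)).trans (arcPath R d d' rd)
  have hAr : range A = (range (arcPath R a a' ra) ∪ range α) ∪ range (arcPath R c c' rc) := by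
    simp only [A, Path.trans_range, Path.symm_range]
    rfl
  have hBr : range B = (range (arcPath R b b' rb) ∪ range β) ∪ range (arcPath R d d' rd) := by
    simp only [B, Path.trans_range, Path.symm_range]
    rfl
  have hle : ∀ r : ℝ, r ≤ R → r ≤ 2 * R := fun r hr => by linarith
  have narc : ∀ {θ θ' r : ℝ} (_ : 0 < r) (_ : r ≤ R) {z : ℂ}, z ∈ range (arcPath R θ θ' r) →
      ‖z‖ ≤ 2 * R := by
    intro θ θ' r h0 hr z hz
    obtain ⟨ρ, h1, h2, rfl⟩ := mem_range_arcPath (hle r hr) hz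
    rw [norm_arc (h0.le.trans h1)]; exact h2
  have hAn : ∀ t, ‖A t‖ ≤ 2 * R := by
    intro t
    have : A t ∈ range A := mem_range_self t
    rw [hAr] at this
    rcases this with (h | h) | h
    · exact narc ha0 hRa h
    · obtain ⟨u, hu⟩ := h
      rw [← hu]; linarith [hRα' u]
    · exact narc hc0 hRc h
  have hBn : ∀ t, ‖B t‖ ≤ 2 * R := by
    intro t
    have : B t ∈ range B := mem_range_self t
    rw [hBr] at this
    rcases this with (h | h) | h
    · exact narc hb0 hRb h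
    · obtain ⟨u, hu⟩ := h
      rw [← hu]; linarith [hRβ' u]
    · exact narc hd0 hRd h
  have hmeet : (range A ∩ range B).Nonempty := by
    refine meet_of_opposite (L := 2 * R) A B (fun t => ⟨?_, ?_⟩) (fun t => ⟨?_, ?_⟩) ?_ ?_ ?_ ?_
    · exact (Complex.abs_re_le_norm _).trans (hAn t)
    · exact (Complex.abs_im_le_norm _).trans (hAn t)
    · exact (Complex.abs_re_le_norm _).trans (hBn t)
    · exact (Complex.abs_im_le_norm _).trans (hBn t)
    · rw [arc_two hR0, Complex.re_ofReal_mul, Complex.exp_ofReal_mul_I_re]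
      simp [a']
    · rw [arc_two hR0, Complex.re_ofReal_mul, Complex.exp_ofReal_mul_I_re]
      simp [c']
    · rw [arc_two hR0, Complex.im_ofReal_mul, Complex.exp_ofReal_mul_I_im]
      simp [b']
    · rw [arc_two hR0, Complex.im_ofReal_mul, Complex.exp_ofReal_mul_I_im]
      simp [d']
  obtain ⟨z, hzA, hzB⟩ := hmeet
  rw [hAr] at hzA
  rw [hBr] at hzB
  -- an exterior arc meets `S ∪ S'` at its end point only
  have key : ∀ {θ θ' r : ℝ}, 0 < r → r ≤ R → Exposed (S ∪ S') r θ → ∀ {w : ℂ},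
      w ∈ range (arcPath R θ θ' r) → w ∈ S ∪ S' → ‖w‖ ≤ R → w = (r : ℂ) * exp ((θ : ℝ) * I) := by
    intro θ θ' r h0 hr hexp w hw hwS hwR
    obtain ⟨ρ, h1, h2, rfl⟩ := mem_range_arcPath (hle r hr) hw
    rw [norm_arc (h0.le.trans h1)] at hwR
    rw [arc_le hR0 hwR] at hwS ⊢
    rcases h1.lt_or_eq with h3 | h3
    · exact absurd hwS (hexp ρ h3)
    · rw [h3]
  have hαS : ∀ {w}, w ∈ range α → w ∈ S ∧ ‖w‖ ≤ R := by
    rintro w ⟨t, rfl⟩; exact ⟨hα t, hRα' t⟩
  have hβS : ∀ {w}, w ∈ range β → w ∈ S' ∧ ‖w‖ ≤ R := by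
    rintro w ⟨t, rfl⟩; exact ⟨hβ t, hRβ' t⟩
  have pa : (ra : ℂ) * exp ((a : ℝ) * I) ∈ S := by have := hα 0; rwa [α.source] at this
  have pc : (rc : ℂ) * exp ((c : ℝ) * I) ∈ S := by have := hα 1; rwa [α.target] at this
  have pb : (rb : ℂ) * exp ((b : ℝ) * I) ∈ S' := by have := hβ 0; rwa [β.source] at this
  have pd : (rd : ℂ) * exp ((d : ℝ) * I) ∈ S' := by have := hβ 1; rwa [β.target] at this
  have noarc : ∀ {θ₁ θ₁' r₁ θ₂ θ₂' r₂ : ℝ}, 0 < r₁ → r₁ ≤ R → 0 < r₂ → r₂ ≤ R →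
      θ₁ < θ₂ → θ₂ < θ₁ + 2 * Real.pi → θ₁' < θ₂' → θ₂' < θ₁' + 2 * Real.pi → ∀ {w : ℂ},
      w ∈ range (arcPath R θ₁ θ₁' r₁) → w ∈ range (arcPath R θ₂ θ₂' r₂) → False := by
    intro θ₁ θ₁' r₁ θ₂ θ₂' r₂ h1 h1R h2 h2R h3 h4 h5 h6 w hw1 hw2
    obtain ⟨ρ₁, g1, g2, rfl⟩ := mem_range_arcPath (hle _ h1R) hw1
    obtain ⟨ρ₂, g3, g4, g5⟩ := mem_range_arcPath (hle _ h2R) hw2
    exact arc_inj hR0 (h1.trans_le g1) (h2.trans_le g3) g2 h3 h4 h5 h6 g5
  rcases hzA with (hz | hz) | hz <;> rcases hzB with (hz' | hz') | hz'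
  · exact (noarc ha0 hRa hb0 hRb hab (by linarith) (by simp only [a', b']; linarith)
      (by simp only [a', b']; linarith) hz hz').elim
  · obtain ⟨h1, h2⟩ := hβS hz'
    have := key ha0 hRa ha hz (Or.inr h1) h2
    exact ⟨z, by rw [this]; exact pa, h1⟩
  · exact (noarc ha0 hRa hd0 hRd (by linarith) hda (by simp only [a', d']; linarith)
      (by simp only [a', d']; linarith) hz hz').elim
  · obtain ⟨h1, h2⟩ := hαS hz
    have := key hb0 hRb hb hz' (Or.inl h1) h2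
    exact ⟨z, h1, by rw [this]; exact pb⟩
  · exact ⟨z, (hαS hz).1, (hβS hz').1⟩
  · obtain ⟨h1, h2⟩ := hαS hz
    have := key hd0 hRd hd hz' (Or.inl h1) h2
    exact ⟨z, h1, by rw [this]; exact pd⟩
  · exact (noarc hb0 hRb hc0 hRc hbc (by linarith) (by simp only [c', b']; linarith)
      (by simp only [c', b']; linarith) hz' hz).elim
  · obtain ⟨h1, h2⟩ := hβS hz'
    have := key hc0 hRc hc hz (Or.inr h1) h2
    exact ⟨z, by rw [this]; exact pc, h1⟩
  · exact (noarc hc0 hRc hd0 hRd hcd (by linarith) (by simp only [c', d']; linarith)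
      (by simp only [c', d']; linarith) hz hz').elim

end Crest.Agent.R096.Pat1_543
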