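import Mathlib
import Crest.Agent.R096.Pat1_543

/-! # Moore triods: levels with a three point component are countable (row 96, helper543) -/

set_option autoImplicit false

open Set Complex Filter Topology Metric

namespace Crest.Agent.R096.Pat3_543

open Crest.Agent.R096.Pat1_543

theorem joinedIn_thickening {K : Set ℂ} (hK : IsPreconnected K) {D : Set ℂ} (hD : Convex ℝ D)
    (hKD : K ⊆ D) {δ : ℝ} (hδ : 0 < δ) {x y : ℂ} (hx : x ∈ K) (hy : y ∈ K) :
    JoinedIn (D ∩ thickening δ K) x y := by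
  refine hK.induction₂ (fun x y => JoinedIn (D ∩ thickening δ K) x y) ?_ ?_ ?_ hx hy
  · intro z hz
    have h1 : K ∩ ball z δ ∈ 𝓝[K] z := inter_mem_nhdsWithin K (ball_mem_nhds z hδ)
    filter_upwards [h1] with w hw
    have hcv : Convex ℝ (D ∩ ball z δ) := hD.inter (convex_ball _ _)
    have hz' : z ∈ D ∩ ball z δ := ⟨hKD hz, mem_ball_self hδ⟩
    have hw' : w ∈ D ∩ ball z δ := ⟨hKD hw.1, hw.2⟩
    refine JoinedIn.of_segment_subset ((hcv.segment_subset hz' hw').trans ?_)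
    exact inter_subset_inter_right _ (ball_subset_thickening hz δ)
  · intro a b c _ _ _ h1 h2
    exact h1.trans h2
  · intro a b _ _ h
    exact h.symm

theorem exposed_disc {S : Set ℂ} (hS : S ⊆ closedBall 0 1) (θ : ℝ) : Exposed S 1 θ := by
  intro t ht h
  have h1 := hS h
  rw [mem_closedBall_zero_iff, norm_mul, Complex.norm_exp_ofReal_mul_I, mul_one,
    Complex.norm_real, Real.norm_eq_abs, abs_of_pos (by linarith)] at h1
  linarith

/-- **Crossing lemma**, continua in the closed unit disc. -/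
theorem crossing_disc {K K' : Set ℂ} (hK : IsPreconnected K) (hK' : IsPreconnected K')
    (hKc : IsCompact K) (hKc' : IsCompact K') (hKD : K ⊆ closedBall 0 1)
    (hKD' : K' ⊆ closedBall 0 1) {a b c d : ℝ} (hab : a < b) (hbc : b < c) (hcd : c < d)
    (hda : d < a + 2 * Real.pi) (ha : exp ((a : ℝ) * I) ∈ K) (hc : exp ((c : ℝ) * I) ∈ K)
    (hb : exp ((b : ℝ) * I) ∈ K') (hd : exp ((d : ℝ) * I) ∈ K') : (K ∩ K').Nonempty := by
  by_contra hcon
  have hdisj : Disjoint K K' := by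
    rw [Set.disjoint_iff_inter_eq_empty]
    exact not_nonempty_iff_eq_empty.1 hcon
  obtain ⟨δ, hδ, hth⟩ := hdisj.exists_thickenings hKc hKc'.isClosed
  have hconv : Convex ℝ (closedBall (0 : ℂ) 1) := convex_closedBall _ _
  have j1 := joinedIn_thickening hK hconv hKD hδ ha hc
  have j2 := joinedIn_thickening hK' hconv hKD' hδ hb hd
  have hsub : (closedBall (0 : ℂ) 1 ∩ thickening δ K) ∪ (closedBall (0 : ℂ) 1 ∩ thickening δ K')
      ⊆ closedBall 0 1 := by
    rintro x (hx | hx) <;> exact hx.1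
  obtain ⟨x, hx1, hx2⟩ := crossing_path (ra := 1) (rb := 1) (rc := 1) (rd := 1) hab hbc hcd hda
    one_pos one_pos one_pos one_pos (exposed_disc hsub a) (exposed_disc hsub b)
    (exposed_disc hsub c) (exposed_disc hsub d) (by simpa using j1) (by simpa using j2)
  exact Set.disjoint_left.1 hth hx1.2 hx2.2

/-- the angles of three distinct points of the circle in increasing order -/
theorem exists_angles {x₁ x₂ x₃ : ℂ} (h1 : ‖x₁‖ = 1) (h2 : ‖x₂‖ = 1) (h3 : ‖x₃‖ = 1)
    (h12 : x₁ ≠ x₂) (h13 : x₁ ≠ x₃) (h23 : x₂ ≠ x₃) (K : Set ℂ) (k1 : x₁ ∈ K) (k2 : x₂ ∈ K)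
    (k3 : x₃ ∈ K) : ∃ a b c : ℝ, a < b ∧ b < c ∧ c < a + 2 * Real.pi ∧
      exp ((a : ℝ) * I) ∈ K ∧ exp ((b : ℝ) * I) ∈ K ∧ exp ((c : ℝ) * I) ∈ K := by
  have e : ∀ {x : ℂ}, ‖x‖ = 1 → exp ((arg x : ℝ) * I) = x := by
    intro x hx
    have := Complex.norm_mul_exp_arg_mul_I x
    rwa [hx, Complex.ofReal_one, one_mul] at this
  have i : ∀ {x y : ℂ}, ‖x‖ = 1 → ‖y‖ = 1 → x ≠ y → arg x ≠ arg y := by
    intro x y hx hy hxy h
    exact hxy (by rw [← e hx, ← e hy, h])
  have b : ∀ x y : ℂ, arg x < arg y + 2 * Real.pi := by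
    intro x y
    have := arg_le_pi x
    have := neg_pi_lt_arg y
    linarith
  have i12 := i h1 h2 h12
  have i13 := i h1 h3 h13
  have i23 := i h2 h3 h23
  have m1 : exp ((arg x₁ : ℝ) * I) ∈ K := by rw [e h1]; exact k1
  have m2 : exp ((arg x₂ : ℝ) * I) ∈ K := by rw [e h2]; exact k2
  have m3 : exp ((arg x₃ : ℝ) * I) ∈ K := by rw [e h3]; exact k3
  rcases lt_or_gt_of_ne i12 with g12 | g12 <;> rcases lt_or_gt_of_ne i13 with g13 | g13 <;>
    rcases lt_or_gt_of_ne i23 with g23 | g23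
  · exact ⟨_, _, _, g12, g23, b _ _, m1, m2, m3⟩
  · exact ⟨_, _, _, g13, g23, b _ _, m1, m3, m2⟩
  · exact absurd (g12.trans g23) (not_lt.2 g13.le)
  · exact ⟨_, _, _, g13, g12, b _ _, m3, m1, m2⟩
  · exact ⟨_, _, _, g12, g13, b _ _, m2, m1, m3⟩
  · exact absurd (g23.trans g12) (not_lt.2 g13.le)
  · exact ⟨_, _, _, g23, g13, b _ _, m2, m3, m1⟩
  · exact ⟨_, _, _, g23, g12, b _ _, m3, m2, m1⟩

/-- level set in the disc -/
def Z (u : ℂ → ℝ) (c : ℝ) : Set ℂ := {x | x ∈ closedBall (0 : ℂ) 1 ∧ u x = c}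

theorem isCompact_Z {u : ℂ → ℝ} (hu : ContinuousOn u (closedBall 0 1)) (c : ℝ) :
    IsCompact (Z u c) := by
  have h1 : IsClosed (Z u c) := by
    have := hu.preimage_isClosed_of_isClosed isClosed_closedBall (isClosed_singleton (x := c))
    exact this
  exact (isCompact_closedBall (0 : ℂ) 1).of_isClosed_subset h1 fun x hx => hx.1

/-- bad levels: some component of the level set meets the circle in three points -/
def Bad (u : ℂ → ℝ) : Set ℝ :=
  {c | ∃ x₁ ∈ Z u c, ∃ x₂ ∈ connectedComponentIn (Z u c) x₁,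
    ∃ x₃ ∈ connectedComponentIn (Z u c) x₁,
      ‖x₁‖ = 1 ∧ ‖x₂‖ = 1 ∧ ‖x₃‖ = 1 ∧ x₁ ≠ x₂ ∧ x₁ ≠ x₃ ∧ x₂ ≠ x₃}

theorem isCompact_connectedComponentIn {F : Set ℂ} (hF : IsCompact F) (x : ℂ) :
    IsCompact (connectedComponentIn F x) := by
  by_cases hx : x ∈ F
  · rw [connectedComponentIn_eq_image hx]
    have : CompactSpace F := isCompact_iff_compactSpace.1 hF
    exact (isClosed_connectedComponent.isCompact).image continuous_subtype_val
  · rw [connectedComponentIn_eq_empty hx]; exact isCompact_empty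

/-- **Moore's triod theorem** in the form needed: the bad levels are countable. -/
theorem countable_bad {u : ℂ → ℝ} (hu : ContinuousOn u (closedBall 0 1)) :
    (Bad u).Countable := by
  classical
  -- data
  have key : ∀ c : Bad u, ∃ K : Set ℂ, ∃ a b d : ℝ, ∃ r : ℚ × ℚ × ℚ, IsPreconnected K ∧
      IsCompact K ∧ K ⊆ Z u c ∧ exp ((a : ℝ) * I) ∈ K ∧ exp ((b : ℝ) * I) ∈ K ∧
      exp ((d : ℝ) * I) ∈ K ∧ ((r.1 : ℝ) < a ∧ a < r.2.1 ∧ (r.2.1 : ℝ) < b ∧ b < r.2.2 ∧
        (r.2.2 : ℝ) < d ∧ d < r.1 + 2 * Real.pi) := by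
    rintro ⟨c, x₁, hx1, x₂, hx2, x₃, hx3, n1, n2, n3, h12, h13, h23⟩
    obtain ⟨a, b, d, hab, hbd, hda, ma, mb, md⟩ := exists_angles n1 n2 n3 h12 h13 h23
      (connectedComponentIn (Z u c) x₁) (mem_connectedComponentIn hx1) hx2 hx3
    obtain ⟨r0, hr0, hr0'⟩ := exists_rat_btwn (show d - 2 * Real.pi < a by linarith)
    obtain ⟨r1, hr1, hr1'⟩ := exists_rat_btwn hab
    obtain ⟨r2, hr2, hr2'⟩ := exists_rat_btwn hbd
    exact ⟨connectedComponentIn (Z u c) x₁, a, b, d, (r0, r1, r2),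
      isPreconnected_connectedComponentIn, isCompact_connectedComponentIn (isCompact_Z hu c) _,
      connectedComponentIn_subset _ _, ma, mb, md, hr0', hr1, hr1', hr2, hr2', by linarith⟩
  choose K a b d r hK hKc hKZ ha hb hd hr using key
  have hinj : Function.Injective r := by
    intro c c' hcc
    by_contra hne
    have hne' : (c : ℝ) ≠ c' := fun h => hne (Subtype.ext h)
    have hdis : ¬ (K c ∩ K c').Nonempty := by
      rintro ⟨x, hx, hx'⟩
      exact hne' ((hKZ c hx).2.symm.trans (hKZ c' hx').2)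
    have hD : ∀ c, K c ⊆ closedBall 0 1 := fun c x hx => (hKZ c hx).1
    obtain ⟨p0, p1, p2, p3, p4, p5⟩ := hr c
    obtain ⟨q0, q1, q2, q3, q4, q5⟩ := hr c'
    rw [← hcc] at q0 q1 q2 q3 q4 q5
    rcases lt_trichotomy (a c) (a c') with h | h | h
    · -- `a < a' < b < d'`
      exact hdis (crossing_disc (hK c) (hK c') (hKc c) (hKc c') (hD c) (hD c') h
        (by linarith) (by linarith) (by linarith) (ha c) (hb c) (ha c') (hd c'))
    · apply hdis
      exact ⟨_, ha c, by rw [h]; exact ha c'⟩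
    · -- `a' < a < b' < d`
      have := crossing_disc (hK c') (hK c) (hKc c') (hKc c) (hD c') (hD c) h
        (by linarith) (by linarith) (by linarith) (ha c') (hb c') (ha c) (hd c)
      rw [inter_comm] at this
      exact hdis this
  have : Countable (Bad u) := hinj.countable
  exact this.to_set

end Crest.Agent.R096.Pat3_543
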