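import Mathlib
import Crest.Agent.R096.Pat2_543
import Crest.Agent.R096.Pat3_543

/-! # Components of a regular level in a face meet the boundary in 0 or 2 points
(row 96, helper543) -/

set_option autoImplicit false

open Set Complex Filter Topology Metric

namespace Crest.Agent.R096.Pat4_543

open Crest.Agent.R096.Pat1_543 Crest.Agent.R096.Pat2_543 Crest.Agent.R096.Pat3_543

/-- `c` is a regular level of `u` on the loop `C` (a subset of a topological space): finitely
many points, each of them a limit of both strict sides (on `C`). -/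
structure RegOn {X : Type*} [TopologicalSpace X] (u : X → ℝ) (C : Set X) (c : ℝ) : Prop where
  fin : {x | x ∈ C ∧ u x = c}.Finite
  up : ∀ x ∈ C, u x = c → x ∈ closure {y | y ∈ C ∧ c < u y}
  down : ∀ x ∈ C, u x = c → x ∈ closure {y | y ∈ C ∧ u y < c}

theorem RegOn.neg {X : Type*} [TopologicalSpace X] {u : X → ℝ} {C : Set X} {c : ℝ}
    (h : RegOn u C c) : RegOn (fun x => - u x) C (-c) where
  fin := by
    refine h.fin.subset ?_
    rintro x ⟨hx, h1⟩
    exact ⟨hx, by have : -u x = -c := h1; linarith⟩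
  up := by
    intro x hx h1
    have h2 : u x = c := by have : -u x = -c := h1; linarith
    refine closure_mono ?_ (h.down x hx h2)
    rintro y ⟨hy, h3⟩
    exact ⟨hy, by linarith⟩
  down := by
    intro x hx h1
    have h2 : u x = c := by have : -u x = -c := h1; linarith
    refine closure_mono ?_ (h.up x hx h2)
    rintro y ⟨hy, h3⟩
    exact ⟨hy, by linarith⟩

theorem arcz_ne {z : ℂ} (hz : ‖z‖ = 1) {t : ℝ} (h0 : t ≠ 0) (h1 : |t| < 2 * Real.pi) :
    z * exp ((t : ℝ) * I) ≠ z := by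
  intro h
  have hz0 : z ≠ 0 := by intro h; rw [h, norm_zero] at hz; norm_num at hz
  have h2 : exp ((t : ℝ) * I) = 1 := by
    have : z * exp ((t : ℝ) * I) = z * 1 := by rw [h, mul_one]
    exact mul_left_cancel₀ hz0 this
  rw [Complex.exp_eq_one_iff] at h2
  obtain ⟨n, hn⟩ := h2
  have h3 : (t : ℂ) * I = ((n * (2 * Real.pi) : ℝ) : ℂ) * I := by rw [hn]; push_cast; ring
  have h4 : t = n * (2 * Real.pi) := by exact_mod_cast mul_right_cancel₀ I_ne_zero h3
  have hp := Real.pi_pos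
  rw [h4, abs_mul, abs_of_pos (by positivity : (0 : ℝ) < 2 * Real.pi)] at h1
  have h6 : |(n : ℝ)| < 1 := by
    by_contra hc; push Not at hc
    have : 1 * (2 * Real.pi) ≤ |(n : ℝ)| * (2 * Real.pi) :=
      mul_le_mul_of_nonneg_right hc (by positivity)
    linarith
  have h7 : |n| < 1 := by exact_mod_cast h6
  have h8 : n = 0 := Int.abs_lt_one_iff.1 h7
  rw [h8] at h4
  exact h0 (by rw [h4]; simp)

theorem norm_arcz {z : ℂ} (hz : ‖z‖ = 1) (t : ℝ) : ‖z * exp ((t : ℝ) * I)‖ = 1 := by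
  rw [norm_mul, hz, Complex.norm_exp_ofReal_mul_I, mul_one]

/-- near `z`, the circle is the arc -/
theorem eventually_arc {z : ℂ} (hz : ‖z‖ = 1) {δ : ℝ} (hδ : 0 < δ) :
    ∀ᶠ y in 𝓝 z, ‖y‖ = 1 → ∃ t : ℝ, |t| < δ ∧ y = z * exp ((t : ℝ) * I) := by
  have hz0 : z ≠ 0 := by intro h; rw [h, norm_zero] at hz; norm_num at hz
  have h1 : ContinuousAt (fun y : ℂ => arg (y / z)) z := by
    refine ContinuousAt.comp (f := fun y : ℂ => y / z) (g := arg) ?_ (by fun_prop)
    rw [div_self hz0]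
    exact continuousAt_arg (by simp)
  have h2 : ∀ᶠ y in 𝓝 z, |arg (y / z)| < δ := by
    have h3 : Tendsto (fun y : ℂ => |arg (y / z)|) (𝓝 z) (𝓝 |arg (z / z)|) := h1.abs
    rw [div_self hz0] at h3
    simp at h3
    exact h3.eventually (gt_mem_nhds hδ)
  filter_upwards [h2] with y hy hy1
  refine ⟨arg (y / z), hy, ?_⟩
  have h4 := Complex.norm_mul_exp_arg_mul_I (y / z)
  rw [norm_div, hz, hy1, div_one, Complex.ofReal_one, one_mul] at h4
  rw [h4, mul_div_cancel₀ _ hz0]

/-- sign of a continuous nonvanishing function on an interval -/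
theorem const_sign {f : ℝ → ℝ} {a b : ℝ} (hf : ContinuousOn f (Ioo a b))
    (h0 : ∀ t ∈ Ioo a b, f t ≠ 0) : (∀ t ∈ Ioo a b, 0 < f t) ∨ (∀ t ∈ Ioo a b, f t < 0) := by
  by_contra hcon
  push Not at hcon
  obtain ⟨⟨s, hs, hs1⟩, ⟨t, ht, ht1⟩⟩ := hcon
  have h2 : IsPreconnected (f '' Ioo a b) := isPreconnected_Ioo.image _ hf
  have h3 := h2.Icc_subset (mem_image_of_mem f hs) (mem_image_of_mem f ht)
  obtain ⟨r, hr, hr1⟩ := h3 ⟨hs1, ht1⟩
  exact h0 r hr hr1

/-- sign change at a regular boundary point, in the two orientations -/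
theorem RegOn.signs {u : ℂ → ℝ} (hu : ContinuousOn u (closedBall 0 1)) {c : ℝ}
    (h : RegOn u (sphere 0 1) c) {z : ℂ} (hz : ‖z‖ = 1) (hzc : u z = c) :
    ∃ δ > 0, (∀ t : ℝ, 0 < t → t < δ →
        c < u (z * exp ((t : ℝ) * I)) ∧ u (z * exp (((-t : ℝ) : ℂ) * I)) < c) ∨
      (∀ t : ℝ, 0 < t → t < δ →
        u (z * exp ((t : ℝ) * I)) < c ∧ c < u (z * exp (((-t : ℝ) : ℂ) * I))) := by
  have hp := Real.pi_pos
  -- no other zero near `z`
  set γ : ℝ → ℂ := fun t => z * exp ((t : ℝ) * I) with hγ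
  have hγc : Continuous γ := by simp only [hγ]; fun_prop
  have hγD : ∀ t, γ t ∈ closedBall (0 : ℂ) 1 := fun t => by
    rw [mem_closedBall_zero_iff]; exact (norm_arcz hz t).le
  have hγS : ∀ t, γ t ∈ sphere (0 : ℂ) 1 := fun t => by
    rw [mem_sphere_zero_iff_norm]; exact norm_arcz hz t
  have hγ0 : γ 0 = z := by simp [hγ]
  have hfin : ({x | x ∈ sphere (0 : ℂ) 1 ∧ u x = c} \ {z}).Finite := h.fin.subset sdiff_subset
  have hnb : ({x | x ∈ sphere (0 : ℂ) 1 ∧ u x = c} \ {z})ᶜ ∈ 𝓝 z :=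
    hfin.isClosed.isOpen_compl.mem_nhds (by simp)
  have hnb' : γ ⁻¹' ({x | x ∈ sphere (0 : ℂ) 1 ∧ u x = c} \ {z})ᶜ ∈ 𝓝 (0 : ℝ) :=
    hγc.continuousAt.preimage_mem_nhds (by rw [hγ0]; exact hnb)
  obtain ⟨δ₀, hδ₀, hb⟩ := Metric.mem_nhds_iff.1 hnb'
  set δ := min δ₀ Real.pi with hδ
  have hδpos : 0 < δ := lt_min hδ₀ hp
  have hne : ∀ t : ℝ, t ≠ 0 → |t| < δ → u (γ t) ≠ c := by
    intro t ht0 ht h1
    have h2 : t ∈ ball (0 : ℝ) δ₀ := by
      rw [mem_ball_zero_iff, Real.norm_eq_abs]; exact ht.trans_le (min_le_left _ _)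
    have h3 := hb h2
    have h4 : γ t = z := by
      by_contra h5
      exact h3 ⟨⟨hγS t, h1⟩, h5⟩
    exact arcz_ne hz ht0 (by linarith [min_le_right δ₀ Real.pi]) h4
  have hcont : Continuous fun t => u (γ t) - c :=
    (hu.comp_continuous hγc hγD).sub continuous_const
  have s1 := const_sign (f := fun t => u (γ t) - c) (a := 0) (b := δ) hcont.continuousOn
    (by
      intro t ht h1
      exact hne t ht.1.ne' (by rw [abs_of_pos ht.1]; exact ht.2) (by linarith))
  have s2 := const_sign (f := fun t => u (γ t) - c) (a := -δ) (b := 0) hcont.continuousOn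
    (by
      intro t ht h1
      exact hne t ht.2.ne (by rw [abs_of_neg ht.2]; linarith [ht.1]) (by linarith))
  have hup := h.up z (mem_sphere_zero_iff_norm.2 hz) hzc
  have hdown := h.down z (mem_sphere_zero_iff_norm.2 hz) hzc
  have hev := eventually_arc hz hδpos
  refine ⟨δ, hδpos, ?_⟩
  rcases s1 with s1 | s1 <;> rcases s2 with s2 | s2
  · -- both positive
    exfalso
    rw [mem_closure_iff_frequently] at hdown
    obtain ⟨y, ⟨hy, hyc⟩, hy2⟩ := (hdown.and_eventually hev).exists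
    obtain ⟨t, ht, rfl⟩ := hy2 (mem_sphere_zero_iff_norm.1 hy)
    have hyc' : u (γ t) < c := hyc
    rcases lt_trichotomy t 0 with h0 | h0 | h0
    · have := s2 t ⟨by linarith [(abs_lt.1 ht).1], h0⟩
      linarith
    · rw [h0, hγ0, hzc] at hyc'
      exact lt_irrefl _ hyc'
    · have := s1 t ⟨h0, by linarith [(abs_lt.1 ht).2]⟩
      linarith
  · left
    intro t ht0 ht1
    have h1 := s1 t ⟨ht0, ht1⟩
    have h2 := s2 (-t) ⟨by linarith, by linarith⟩
    exact ⟨by simp only [hγ] at h1; linarith, by simp only [hγ] at h2; linarith⟩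
  · right
    intro t ht0 ht1
    have h1 := s1 t ⟨ht0, ht1⟩
    have h2 := s2 (-t) ⟨by linarith, by linarith⟩
    exact ⟨by simp only [hγ] at h1; linarith, by simp only [hγ] at h2; linarith⟩
  · exfalso
    rw [mem_closure_iff_frequently] at hup
    obtain ⟨y, ⟨hy, hyc⟩, hy2⟩ := (hup.and_eventually hev).exists
    obtain ⟨t, ht, rfl⟩ := hy2 (mem_sphere_zero_iff_norm.1 hy)
    have hyc' : c < u (γ t) := hyc
    rcases lt_trichotomy t 0 with h0 | h0 | h0
    · have := s2 t ⟨by linarith [(abs_lt.1 ht).1], h0⟩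
      linarith
    · rw [h0, hγ0, hzc] at hyc'
      exact lt_irrefl _ hyc'
    · have := s1 t ⟨h0, by linarith [(abs_lt.1 ht).2]⟩
      linarith

/-- a component of a regular level through a boundary point has another boundary point -/
theorem exists_partner {u : ℂ → ℝ} (hu : ContinuousOn u (closedBall 0 1)) {c : ℝ}
    (h : RegOn u (sphere 0 1) c) {z : ℂ} (hz : ‖z‖ = 1) (hzc : u z = c) :
    ∃ w, w ≠ z ∧ ‖w‖ = 1 ∧ w ∈ connectedComponentIn (Z u c) z := by
  classical
  by_contra hcon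
  push Not at hcon
  have hzZ : z ∈ Z u c := ⟨by rw [mem_closedBall_zero_iff, hz], hzc⟩
  have : CompactSpace (Z u c) := isCompact_iff_compactSpace.1 (isCompact_Z hu c)
  set z' : Z u c := ⟨z, hzZ⟩
  -- the other boundary points
  set W : Set (Z u c) := {w | ‖(w : ℂ)‖ = 1 ∧ (w : ℂ) ≠ z} with hW
  have hWfin : W.Finite := by
    have h1 : (Subtype.val '' W).Finite := by
      refine h.fin.subset ?_
      rintro x ⟨w, ⟨hw1, hw2⟩, rfl⟩
      exact ⟨mem_sphere_zero_iff_norm.2 hw1, w.2.2⟩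
    exact h1.of_finite_image Subtype.val_injective.injOn
  have hclop : ∀ w ∈ W, ∃ s : Set (Z u c), IsClopen s ∧ z' ∈ s ∧ w ∉ s := by
    intro w hw
    have h1 : w ∉ connectedComponent z' := by
      intro h2
      apply hcon w hw.2 hw.1
      rw [connectedComponentIn_eq_image hzZ]
      exact ⟨w, h2, rfl⟩
    rw [connectedComponent_eq_iInter_isClopen] at h1
    simp only [mem_iInter, not_forall] at h1
    obtain ⟨s, hs⟩ := h1
    exact ⟨s, s.2.1, s.2.2, hs⟩
  choose! s hs1 hs2 hs3 using hclop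
  set A0 : Set (Z u c) := ⋂ w ∈ W, s w with hA0
  have hA0c : IsClopen A0 := by
    constructor
    · exact isClosed_biInter fun w hw => (hs1 w hw).1
    · exact hWfin.isOpen_biInter fun w hw => (hs1 w hw).2
  have hz'A : z' ∈ A0 := mem_iInter₂.2 fun w hw => hs2 w hw
  set A : Set ℂ := Subtype.val '' A0
  set B : Set ℂ := Subtype.val '' A0ᶜ
  have hA : IsClosed A := (hA0c.1.isCompact.image continuous_subtype_val).isClosed
  have hB : IsClosed B := (hA0c.compl.1.isCompact.image continuous_subtype_val).isClosed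
  have hAB : Disjoint A B := by
    rw [Set.disjoint_left]
    rintro x ⟨a, ha, rfl⟩ ⟨b, hb, hb2⟩
    have : b = a := Subtype.ext hb2
    rw [this] at hb
    exact hb ha
  have hZ : ∀ x ∈ closedBall (0 : ℂ) 1, u x = c → x ∈ A ∪ B := by
    intro x hx hxc
    by_cases hxa : (⟨x, hx, hxc⟩ : Z u c) ∈ A0
    · exact Or.inl ⟨_, hxa, rfl⟩
    · exact Or.inr ⟨_, hxa, rfl⟩
  have hzA : z ∈ A := ⟨z', hz'A, rfl⟩
  have hAs : ∀ x ∈ A, ‖x‖ = 1 → x = z := by
    rintro x ⟨a, ha, rfl⟩ hx1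
    by_contra hne
    have haW : a ∈ W := ⟨hx1, hne⟩
    exact hs3 a haW (mem_iInter₂.1 ha a haW)
  have hAu : ∀ x ∈ A, x ∈ closedBall (0 : ℂ) 1 → u x = c := by
    rintro x ⟨a, ha, rfl⟩ _
    exact a.2.2
  obtain ⟨δ, hδ, hsg⟩ := h.signs hu hz hzc
  rcases hsg with hsg | hsg
  · exact no_single hu hA hB hAB hZ hz hzA hAs hAu hδ (fun t h0 h1 => (hsg t h0 h1).1)
      (fun t h0 h1 => (hsg t h0 h1).2)
  · refine no_single (u := fun x => - u x) (c := -c) hu.neg hA hB hAB ?_ hz hzA hAs ?_ hδ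
      (fun t h0 h1 => ?_) (fun t h0 h1 => ?_)
    · intro x hx hxc
      exact hZ x hx (by have : -u x = -c := hxc; linarith)
    · intro x hx hxD
      have := hAu x hx hxD
      change -u x = -c; linarith
    · have := (hsg t h0 h1).1
      change -c < -u _; linarith
    · have := (hsg t h0 h1).2
      change -u _ < -c; linarith

/-- **(D), disc form.** -/
theorem existsUnique_partner {u : ℂ → ℝ} (hu : ContinuousOn u (closedBall 0 1)) {c : ℝ}
    (hc : c ∉ Bad u) (h : RegOn u (sphere 0 1) c) {z : ℂ} (hz : ‖z‖ = 1) (hzc : u z = c) :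
    ∃! w, w ≠ z ∧ ‖w‖ = 1 ∧ w ∈ connectedComponentIn (Z u c) z := by
  obtain ⟨w, h1, h2, h3⟩ := exists_partner hu h hz hzc
  refine ⟨w, ⟨h1, h2, h3⟩, ?_⟩
  rintro w' ⟨h4, h5, h6⟩
  by_contra hne
  exact hc ⟨z, ⟨by rw [mem_closedBall_zero_iff, hz], hzc⟩, w, h3, w', h6, hz, h2, h5, h1.symm,
    h4.symm, fun h => hne h.symm⟩

/-- components through interlaced pairs of boundary points coincide (levels `c`, `c'`) -/
theorem noncross {u : ℂ → ℝ} (hu : ContinuousOn u (closedBall 0 1)) {c c' : ℝ} {x y : ℂ}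
    {a b d e : ℝ} (hab : a < b) (hbd : b < d) (hde : d < e) (hea : e < a + 2 * Real.pi)
    (h1 : exp ((a : ℝ) * I) ∈ connectedComponentIn (Z u c) x)
    (h2 : exp ((d : ℝ) * I) ∈ connectedComponentIn (Z u c) x)
    (h3 : exp ((b : ℝ) * I) ∈ connectedComponentIn (Z u c') y)
    (h4 : exp ((e : ℝ) * I) ∈ connectedComponentIn (Z u c') y) :
    c = c' ∧ connectedComponentIn (Z u c) x = connectedComponentIn (Z u c') y := by
  have hD : ∀ c x, connectedComponentIn (Z u c) x ⊆ closedBall 0 1 := fun c x w hw =>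
    (connectedComponentIn_subset _ _ hw).1
  obtain ⟨w, hw, hw'⟩ := crossing_disc isPreconnected_connectedComponentIn
    isPreconnected_connectedComponentIn
    (isCompact_connectedComponentIn (isCompact_Z hu c) x)
    (isCompact_connectedComponentIn (isCompact_Z hu c') y) (hD c x) (hD c' y)
    hab hbd hde hea h1 h2 h3 h4
  have e1 := (connectedComponentIn_subset _ _ hw).2
  have e2 := (connectedComponentIn_subset _ _ hw').2
  have hcc : c = c' := e1.symm.trans e2
  subst hcc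
  exact ⟨rfl, (connectedComponentIn_eq hw).trans (connectedComponentIn_eq hw').symm⟩

end Crest.Agent.R096.Pat4_543
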