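import Mathlib
import Crest.Agent.R096.Pat4_543

/-! # Faces: components of a regular level in a topological disc (row 96, helper543) -/

set_option autoImplicit false

open Set Complex Filter Topology Metric

namespace Crest.Agent.R096.Pat5_543

open Crest.Agent.R096.Pat3_543 Crest.Agent.R096.Pat4_543

variable {X : Type*} [TopologicalSpace X] [T2Space X]

/-- `F` is a closed topological disc with boundary loop `C`, parametrised by `e`. -/
structure IsDisc (e : ℂ → X) (F C : Set X) : Prop where
  cont : ContinuousOn e (closedBall 0 1)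
  inj : InjOn e (closedBall 0 1)
  img : e '' closedBall 0 1 = F
  bd : e '' sphere 0 1 = C

/-- bad levels of `u` on a disc `F`: some component of the level has three boundary points -/
def BadF (u : X → ℝ) (F C : Set X) : Set ℝ :=
  {c | ∃ x₁ ∈ C, ∃ x₂ ∈ C, ∃ x₃ ∈ C, x₁ ≠ x₂ ∧ x₁ ≠ x₃ ∧ x₂ ≠ x₃ ∧ u x₁ = c ∧
    x₂ ∈ connectedComponentIn {x | x ∈ F ∧ u x = c} x₁ ∧
    x₃ ∈ connectedComponentIn {x | x ∈ F ∧ u x = c} x₁}

namespace IsDisc

variable {e : ℂ → X} {F C : Set X} (h : IsDisc e F C)
include h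

theorem bd_subset : C ⊆ F := by
  rw [← h.bd, ← h.img]; exact image_mono sphere_subset_closedBall

theorem contComp {u : X → ℝ} (hu : ContinuousOn u F) :
    ContinuousOn (fun z => u (e z)) (closedBall 0 1) := by
  refine hu.comp h.cont ?_
  intro z hz
  rw [← h.img]; exact mem_image_of_mem e hz

/-- preconnected subsets of `F` pull back -/
theorem preconn {K : Set X} (hK : IsPreconnected K) (hKF : K ⊆ F) :
    IsPreconnected {z | z ∈ closedBall (0 : ℂ) 1 ∧ e z ∈ K} := by
  have hcomp : CompactSpace (closedBall (0 : ℂ) 1) :=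
    isCompact_iff_compactSpace.1 (isCompact_closedBall _ _)
  set eD : closedBall (0 : ℂ) 1 → X := fun z => e z with heD
  have hc : Continuous eD := continuousOn_iff_continuous_restrict.1 h.cont
  have hi : Function.Injective eD := by
    intro a b hab
    exact Subtype.ext (h.inj a.2 b.2 hab)
  have hemb : IsClosedEmbedding eD := hc.isClosedEmbedding hi
  have h1 : eD '' (eD ⁻¹' K) = K := by
    rw [image_preimage_eq_inter_range]
    have : range eD = F := by
      rw [← h.img]
      ext y
      constructor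
      · rintro ⟨z, rfl⟩; exact ⟨z, z.2, rfl⟩
      · rintro ⟨z, hz, rfl⟩; exact ⟨⟨z, hz⟩, rfl⟩
    rw [this]
    exact inter_eq_left.2 hKF
  have h2 : IsPreconnected (eD ⁻¹' K) := by
    rw [← hemb.isInducing.isPreconnected_image, h1]; exact hK
  have h3 := h2.image (Subtype.val) continuous_subtype_val.continuousOn
  have h4 : Subtype.val '' (eD ⁻¹' K) = {z | z ∈ closedBall (0 : ℂ) 1 ∧ e z ∈ K} := by
    ext z
    constructor
    · rintro ⟨w, hw, rfl⟩; exact ⟨w.2, hw⟩
    · rintro ⟨hz, hw⟩; exact ⟨⟨z, hz⟩, hw, rfl⟩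
  rwa [h4] at h3

theorem image_Z (u : X → ℝ) (c : ℝ) :
    e '' Z (fun z => u (e z)) c = {x | x ∈ F ∧ u x = c} := by
  ext x
  constructor
  · rintro ⟨z, ⟨hz, hc⟩, rfl⟩
    exact ⟨by rw [← h.img]; exact mem_image_of_mem e hz, hc⟩
  · rintro ⟨hx, hc⟩
    rw [← h.img] at hx
    obtain ⟨z, hz, rfl⟩ := hx
    exact ⟨z, ⟨hz, hc⟩, rfl⟩

/-- components correspond -/
theorem mem_component_iff (u : X → ℝ) (c : ℝ) {z w : ℂ} (hz : z ∈ closedBall (0 : ℂ) 1)
    (hzc : u (e z) = c) (hw : w ∈ closedBall (0 : ℂ) 1) :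
    e w ∈ connectedComponentIn {x | x ∈ F ∧ u x = c} (e z) ↔
      w ∈ connectedComponentIn (Z (fun z => u (e z)) c) z := by
  have hzZ : z ∈ Z (fun z => u (e z)) c := ⟨hz, hzc⟩
  have hezF : e z ∈ F := by rw [← h.img]; exact mem_image_of_mem e hz
  constructor
  · intro h1
    have hK := h.preconn (isPreconnected_connectedComponentIn
      (F := {x | x ∈ F ∧ u x = c}) (x := e z))
      (fun x hx => (connectedComponentIn_subset _ _ hx).1)
    have hsub := hK.subset_connectedComponentIn (F := Z (fun z => u (e z)) c) (x := z)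
      ⟨hz, mem_connectedComponentIn ⟨hezF, hzc⟩⟩
      (fun y hy => ⟨hy.1, (connectedComponentIn_subset _ _ hy.2).2⟩)
    exact hsub ⟨hw, h1⟩
  · intro h1
    have hcont : ContinuousOn e (connectedComponentIn (Z (fun z => u (e z)) c) z) :=
      h.cont.mono fun y hy => (connectedComponentIn_subset _ _ hy).1
    have h2 := isPreconnected_connectedComponentIn.image e hcont
    have hsub := h2.subset_connectedComponentIn (F := {x | x ∈ F ∧ u x = c}) (x := e z)
      (mem_image_of_mem e (mem_connectedComponentIn hzZ))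
      (by
        rintro _ ⟨y, hy, rfl⟩
        have := connectedComponentIn_subset _ _ hy
        exact ⟨by rw [← h.img]; exact mem_image_of_mem e this.1, this.2⟩)
    exact hsub (mem_image_of_mem e h1)

theorem badF_subset (u : X → ℝ) : BadF u F C ⊆ Bad (fun z => u (e z)) := by
  rintro c ⟨x₁, h1, x₂, h2, x₃, h3, h12, h13, h23, hc, m2, m3⟩
  rw [← h.bd] at h1 h2 h3
  obtain ⟨z₁, hz1, rfl⟩ := h1
  obtain ⟨z₂, hz2, rfl⟩ := h2
  obtain ⟨z₃, hz3, rfl⟩ := h3
  have d1 := sphere_subset_closedBall hz1
  have d2 := sphere_subset_closedBall hz2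
  have d3 := sphere_subset_closedBall hz3
  exact ⟨z₁, ⟨d1, hc⟩, z₂, (h.mem_component_iff u c d1 hc d2).1 m2, z₃,
    (h.mem_component_iff u c d1 hc d3).1 m3, mem_sphere_zero_iff_norm.1 hz1,
    mem_sphere_zero_iff_norm.1 hz2, mem_sphere_zero_iff_norm.1 hz3,
    fun g => h12 (by rw [g]), fun g => h13 (by rw [g]), fun g => h23 (by rw [g])⟩

/-- **(C), face form**: the bad levels are countable. -/
theorem countable_badF {u : X → ℝ} (hu : ContinuousOn u F) : (BadF u F C).Countable :=
  (countable_bad (h.contComp hu)).mono (h.badF_subset u)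

/-- regular levels transport to the circle -/
theorem reg {u : X → ℝ} {c : ℝ} (hr : RegOn u C c) :
    RegOn (fun z => u (e z)) (sphere 0 1) c := by
  have hinjS : InjOn e (sphere (0 : ℂ) 1) := h.inj.mono sphere_subset_closedBall
  -- closures transport
  have key : ∀ (P : X → Prop) (z : ℂ), z ∈ sphere (0 : ℂ) 1 →
      e z ∈ closure {y | y ∈ C ∧ P y} → z ∈ closure {w | w ∈ sphere (0 : ℂ) 1 ∧ P (e w)} := by
    intro P z hz hcl
    have hcomp : IsCompact (closure {w | w ∈ sphere (0 : ℂ) 1 ∧ P (e w)}) := by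
      refine (isCompact_sphere (0 : ℂ) 1).of_isClosed_subset isClosed_closure ?_
      exact closure_minimal (fun w hw => hw.1) isClosed_sphere
    have hsubS : closure {w | w ∈ sphere (0 : ℂ) 1 ∧ P (e w)} ⊆ sphere (0 : ℂ) 1 :=
      closure_minimal (fun w hw => hw.1) isClosed_sphere
    have himg : IsClosed (e '' closure {w | w ∈ sphere (0 : ℂ) 1 ∧ P (e w)}) := by
      refine (hcomp.image_of_continuousOn (h.cont.mono ?_)).isClosed
      exact hsubS.trans sphere_subset_closedBall
    have hsub : {y | y ∈ C ∧ P y} ⊆ e '' closure {w | w ∈ sphere (0 : ℂ) 1 ∧ P (e w)} := by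
      rintro y ⟨hy, hP⟩
      rw [← h.bd] at hy
      obtain ⟨w, hw, rfl⟩ := hy
      exact ⟨w, subset_closure ⟨hw, hP⟩, rfl⟩
    obtain ⟨w, hw, hwz⟩ := closure_minimal hsub himg hcl
    have : w = z := hinjS (hsubS hw) hz hwz
    rwa [this] at hw
  constructor
  · have h1 : (e '' {x | x ∈ sphere (0 : ℂ) 1 ∧ u (e x) = c}).Finite := by
      refine hr.fin.subset ?_
      rintro _ ⟨x, ⟨hx, hc⟩, rfl⟩
      exact ⟨by rw [← h.bd]; exact mem_image_of_mem e hx, hc⟩
    exact h1.of_finite_image (hinjS.mono fun x hx => hx.1)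
  · intro x hx hc
    exact key (fun y => c < u y) x hx
      (hr.up (e x) (by rw [← h.bd]; exact mem_image_of_mem e hx) hc)
  · intro x hx hc
    exact key (fun y => u y < c) x hx
      (hr.down (e x) (by rw [← h.bd]; exact mem_image_of_mem e hx) hc)

/-- **(D), face form**: at a regular level outside the countable set `BadF` every boundary point
of the level has exactly one partner: the other boundary point of its component. -/
theorem existsUnique_partner {u : X → ℝ} (hu : ContinuousOn u F) {c : ℝ}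
    (hc : c ∉ BadF u F C) (hr : RegOn u C c) {p : X} (hp : p ∈ C) (hpc : u p = c) :
    ∃! q, q ≠ p ∧ q ∈ C ∧ q ∈ connectedComponentIn {x | x ∈ F ∧ u x = c} p := by
  have hp' := hp
  rw [← h.bd] at hp'
  obtain ⟨z, hz, rfl⟩ := hp'
  have hzD := sphere_subset_closedBall hz
  obtain ⟨w, h1, h2, h3⟩ := exists_partner (h.contComp hu) (h.reg hr)
    (mem_sphere_zero_iff_norm.1 hz) hpc
  have hwS : w ∈ sphere (0 : ℂ) 1 := mem_sphere_zero_iff_norm.2 h2
  have hwD := sphere_subset_closedBall hwS
  have hm := (h.mem_component_iff u c hzD hpc hwD).2 h3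
  have hwC : e w ∈ C := by rw [← h.bd]; exact mem_image_of_mem e hwS
  have hne : e w ≠ e z := fun g => h1 (h.inj hwD hzD g)
  refine ⟨e w, ⟨hne, hwC, hm⟩, ?_⟩
  rintro q ⟨g1, g2, g3⟩
  by_contra hne2
  exact hc ⟨e z, hp, e w, hwC, q, g2, hne.symm, g1.symm, fun g => hne2 g.symm, hpc, hm, g3⟩

/-- two points of the boundary joined in the level: the relation is symmetric, and the number of
boundary points of a component is 0 or 2 -/
theorem ncard_component {u : X → ℝ} (hu : ContinuousOn u F) {c : ℝ}
    (hc : c ∉ BadF u F C) (hr : RegOn u C c) {x : X} :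
    (connectedComponentIn {x | x ∈ F ∧ u x = c} x ∩ C).ncard = 0 ∨
      (connectedComponentIn {x | x ∈ F ∧ u x = c} x ∩ C).ncard = 2 := by
  rcases (connectedComponentIn {x | x ∈ F ∧ u x = c} x ∩ C).eq_empty_or_nonempty with he | he
  · left; rw [he]; simp
  · right
    obtain ⟨p, hp, hpC⟩ := he
    have hpc : u p = c := (connectedComponentIn_subset _ _ hp).2
    rw [connectedComponentIn_eq hp]
    obtain ⟨q, ⟨h1, h2, h3⟩, huniq⟩ := h.existsUnique_partner hu hc hr hpC hpc
    have hpp : p ∈ connectedComponentIn {x | x ∈ F ∧ u x = c} p :=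
      mem_connectedComponentIn ⟨h.bd_subset hpC, hpc⟩
    have : connectedComponentIn {x | x ∈ F ∧ u x = c} p ∩ C = {p, q} := by
      ext y
      constructor
      · rintro ⟨hy, hyC⟩
        by_cases hyp : y = p
        · exact Or.inl hyp
        · exact Or.inr (huniq y ⟨hyp, hyC, hy⟩)
      · rintro (rfl | hy)
        · exact ⟨hpp, hpC⟩
        · rw [mem_singleton_iff] at hy
          rw [hy]; exact ⟨h3, h2⟩
    rw [this, ncard_pair h1.symm]

end IsDisc

/-- every compact convex set with nonempty interior of a plane is a disc -/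
theorem exists_isDisc {V : Type*} [NormedAddCommGroup V] [NormedSpace ℝ V]
    [FiniteDimensional ℝ V] (hV : Module.finrank ℝ V = 2) {S : Set V} (hS : Convex ℝ S)
    (hc : IsCompact S) (hne : (interior S).Nonempty) :
    ∃ e : ℂ ≃ₜ V, e '' closedBall 0 1 = S ∧ e '' sphere 0 1 = frontier S ∧
      IsDisc e S (frontier S) := by
  have hfr : Module.finrank ℝ ℂ = Module.finrank ℝ V := by
    rw [hV, Complex.finrank_real_complex]
  let L : ℂ ≃L[ℝ] V := ContinuousLinearEquiv.ofFinrankEq hfr
  set T : Set V := L '' closedBall 0 1 with hT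
  have hTc : Convex ℝ T := (convex_closedBall (0 : ℂ) 1).linear_image (L : ℂ →ₗ[ℝ] V)
  have hTi : interior T = L '' ball 0 1 := by
    have := L.toHomeomorph.image_interior (closedBall (0 : ℂ) 1)
    rw [interior_closedBall (0 : ℂ) one_ne_zero] at this
    exact this.symm
  have hTne : (interior T).Nonempty := by
    rw [hTi]; exact ⟨L 0, 0, by simp, rfl⟩
  have hTcl : IsClosed T :=
    ((isCompact_closedBall (0 : ℂ) 1).image L.continuous).isClosed
  have hTb : Bornology.IsVonNBounded ℝ T := by
    refine NormedSpace.isVonNBounded_of_isBounded _ ?_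
    exact ((isCompact_closedBall (0 : ℂ) 1).image L.continuous).isBounded
  have hTf : frontier T = L '' sphere 0 1 := by
    have := L.toHomeomorph.image_frontier (closedBall (0 : ℂ) 1)
    rw [frontier_closedBall (0 : ℂ) one_ne_zero] at this
    exact this.symm
  obtain ⟨g, -, g2, g3⟩ := exists_homeomorph_image_eq hTc hTne hTb hS hne
    (NormedSpace.isVonNBounded_of_isBounded _ hc.isBounded)
  rw [hTcl.closure_eq, hc.isClosed.closure_eq] at g2
  rw [hTf] at g3
  let e : ℂ ≃ₜ V := L.toHomeomorph.trans g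
  have e1 : e '' closedBall 0 1 = S := by
    rw [← g2, hT, image_image]; rfl
  have e2 : e '' sphere 0 1 = frontier S := by
    rw [← g3, image_image]; rfl
  exact ⟨e, e1, e2, ⟨e.continuous.continuousOn, e.injective.injOn, e1, e2⟩⟩

/-- images of discs under maps that are continuous and injective on them -/
theorem IsDisc.map {Y : Type*} [TopologicalSpace Y] [T2Space Y] {e : ℂ → X} {F C : Set X}
    (h : IsDisc e F C) {g : X → Y} (hg : ContinuousOn g F) (hgi : InjOn g F) :
    IsDisc (fun z => g (e z)) (g '' F) (g '' C) where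
  cont := hg.comp h.cont (by intro z hz; rw [← h.img]; exact mem_image_of_mem e hz)
  inj := by
    intro z hz w hw hzw
    refine h.inj hz hw (hgi ?_ ?_ hzw)
    · rw [← h.img]; exact mem_image_of_mem e hz
    · rw [← h.img]; exact mem_image_of_mem e hw
  img := by rw [← h.img, image_image]
  bd := by rw [← h.bd, image_image]

end Crest.Agent.R096.Pat5_543
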