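import Mathlib
import Crest.Agent.R096.Msh1_715
import Crest.Agent.R096.Pat5_543

/-! # A-GLUE 1 (row 96, helper543): cells of a tiling of codimension 1 and 2

* two-dimensional cells are topological discs,
* a tile through a point of a codimension 2 cell has exactly two codimension 1 cells at the
  point. -/

set_option autoImplicit false

open Set Filter Topology Metric

namespace Crest.Agent.R096.Agl1_543

open Crest.Agent.R096.Msh_715 Crest.Agent.R096.Pat5_543

variable {E : Type*} [NormedAddCommGroup E] [NormedSpace ℝ E]

/-! ### two-dimensional cells are discs -/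

section disc

variable {Om : Set E} {ι : Type*} (T : Tiling Om ι)

theorem isDisc_cell [FiniteDimensional ℝ E] {x : E} (hx : x ∈ Om) (hd : T.dim x = 2) :
    ∃ e : ℂ → E, IsDisc e (T.cc x) (T.cc x \ T.oc x) := by
  -- the model in `V x`
  set S : Set (T.V x) := {v | x + (v : E) ∈ T.cc x} with hS
  have hconv : Convex ℝ S := by
    intro v hv w hw a b ha hb hab
    have h1 := T.convex_cc x hv hw ha hb hab
    have : x + ((a • v + b • w : T.V x) : E) = a • (x + (v : E)) + b • (x + (w : E)) := by
      have h2 : a • (x + (v : E)) + b • (x + (w : E))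
          = (a + b) • x + (a • (v : E) + b • (w : E)) := by
        rw [smul_add, smul_add, add_smul]; abel
      rw [h2, hab, one_smul]; push_cast; rfl
    change x + ((a • v + b • w : T.V x) : E) ∈ T.cc x
    rw [this]; exact h1
  have hcont : Continuous fun v : T.V x => x + (v : E) := by fun_prop
  have hinj : Function.Injective fun v : T.V x => x + (v : E) := by
    intro v w h
    exact Subtype.ext (add_left_cancel h)
  have himg : (fun v : T.V x => x + (v : E)) '' S = T.cc x := by
    ext y
    constructor
    · rintro ⟨v, hv, rfl⟩; exact hv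
    · intro hy
      exact ⟨⟨y - x, T.sub_mem_V hy⟩, by simpa [hS] using hy, by simp⟩
  have hemb : IsClosedEmbedding fun v : T.V x => x + (v : E) := by
    have h1 : IsClosedEmbedding (Subtype.val : T.V x → E) :=
      (Submodule.closed_of_finiteDimensional (T.V x)).isClosedEmbedding_subtypeVal
    exact (Homeomorph.addLeft x).isClosedEmbedding.comp h1
  have hcpt : IsCompact S := by
    have h1 : S = (fun v : T.V x => x + (v : E)) ⁻¹' T.cc x := rfl
    rw [h1]
    exact hemb.isCompact_preimage (T.isCompact_cc hx)
  have hint : interior S = {v : T.V x | x + (v : E) ∈ T.oc x} := by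
    refine Subset.antisymm ?_ ?_
    · intro v hv
      -- move a little further away from `x`
      have h2 : ∀ᶠ s : ℝ in 𝓝[>] 0, v + s • v ∈ S := by
        have hc : Tendsto (fun s : ℝ => v + s • v) (𝓝 0) (𝓝 (v + (0 : ℝ) • v)) := by
          apply Continuous.tendsto; fun_prop
        rw [zero_smul, add_zero] at hc
        exact ((hc.eventually (mem_interior_iff_mem_nhds.1 hv)).filter_mono
          nhdsWithin_le_nhds)
      obtain ⟨s, hs, hs0⟩ := (h2.and self_mem_nhdsWithin).exists
      have hs0 : (0 : ℝ) < s := hs0
      have hs' : x + ((v + s • v : T.V x) : E) ∈ T.cc x := hs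
      -- `x + v` lies on the segment from `x + (1 + s) v` to `x`
      have h3 := T.move_mem_oc hs' (s := s / (1 + s)) (by positivity)
        (by rw [div_le_one (by positivity)]; linarith)
      have h4 : x + ((v + s • v : T.V x) : E) + (s / (1 + s)) • (x - (x + ((v + s • v : T.V x) : E)))
          = x + (v : E) := by
        have h5 : ((v + s • v : T.V x) : E) = (1 + s) • (v : E) := by
          push_cast; rw [add_smul, one_smul]
        rw [h5]
        have h6 : x - (x + (1 + s) • (v : E)) = -((1 + s) • (v : E)) := by abel
        rw [h6, smul_neg, smul_smul, div_mul_cancel₀ _ (by positivity : (1 + s) ≠ 0)]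
        rw [add_smul, one_smul]; abel
      rw [h4] at h3
      exact h3
    · intro v hv
      have hv' : x + (v : E) ∈ T.oc x := hv
      have hxv : x + (v : E) ∈ Om := T.cc_sub_Om hx (T.oc_sub_cc x hv')
      obtain ⟨r, hr, hb⟩ := T.exists_ball_oc hxv
      rw [T.V_eq_of_mem_oc hx hv', T.oc_eq_of_mem hx hv'] at hb
      rw [mem_interior_iff_mem_nhds, Metric.mem_nhds_iff]
      refine ⟨r, hr, fun w hw => ?_⟩
      have h1 := hb ((w : E) - v) ((T.V x).sub_mem w.2 v.2) (by
        rw [mem_ball, dist_eq_norm] at hw; exact hw)
      have h2 : x + (v : E) + ((w : E) - v) = x + (w : E) := by abel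
      rw [h2] at h1
      exact T.oc_sub_cc x h1
  have hfr : frontier S = {v : T.V x | x + (v : E) ∈ T.cc x \ T.oc x} := by
    rw [hcpt.isClosed.frontier_eq, hint]; rfl
  have hne : (interior S).Nonempty := ⟨0, by
    rw [hint]
    change x + ((0 : T.V x) : E) ∈ T.oc x
    simpa using T.self_mem_oc x⟩
  obtain ⟨e, -, -, he⟩ := exists_isDisc (V := T.V x) hd hconv hcpt hne
  have h1 := he.map (g := fun v : T.V x => x + (v : E)) hcont.continuousOn hinj.injOn
  rw [himg, hfr] at h1
  refine ⟨fun z => x + ((e z : T.V x) : E), ?_⟩
  convert h1 using 1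
  ext y
  constructor
  · intro hy
    exact ⟨⟨y - x, T.sub_mem_V hy.1⟩, by
      change x + (y - x) ∈ T.cc x \ T.oc x
      simpa using hy, by simp⟩
  · rintro ⟨v, hv, rfl⟩; exact hv

end disc

end Crest.Agent.R096.Agl1_543
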