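import Crest.Agent.R096.Lab2_184
import Crest.Agent.R096.Agl1_543
import Crest.Agent.R096.Cel1_715

/-! Row 96, P1-LAB (helper184), part 3: labels on a two-dimensional cell. -/

set_option autoImplicit false

open Set Topology Filter Metric

namespace Crest.Agent.R096.Lab_184

open Crest.Agent.R096.Msh_715 Crest.Agent.R096.Agl1_543 Crest.Agent.R096.Pat5_543

theorem exp_inj {s t : ℝ} (h : Complex.exp (Real.pi * s * Complex.I) =
    Complex.exp (Real.pi * t * Complex.I)) : ∃ n : ℤ, s = t + 2 * n := by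
  obtain ⟨n, hn⟩ := Complex.exp_eq_exp_iff_exists_int.1 h
  refine ⟨n, ?_⟩
  have h1 : ((Real.pi : ℂ) * Complex.I) * (s - t - 2 * n) = 0 := by
    linear_combination hn
  have h2 : ((Real.pi : ℂ) * Complex.I) ≠ 0 :=
    mul_ne_zero (by exact_mod_cast Real.pi_ne_zero) Complex.I_ne_zero
  have h3 := (mul_eq_zero.1 h1).resolve_left h2
  have h4 : ((s - t - 2 * n : ℝ) : ℂ) = 0 := by push_cast; exact h3
  have h5 : s - t - 2 * n = 0 := by exact_mod_cast h4
  linarith

theorem loop_of_disc {X : Type*} [TopologicalSpace X] {e : ℂ → X} {F C : Set X}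
    (h : IsDisc e F C) : Loop (fun θ : ℝ => e (Complex.exp (Real.pi * θ * Complex.I))) C := by
  have hsph : ∀ θ : ℝ, Complex.exp (Real.pi * θ * Complex.I) ∈ sphere (0 : ℂ) 1 := by
    intro θ
    rw [mem_sphere_zero_iff_norm]
    have := Complex.norm_exp_ofReal_mul_I (Real.pi * θ)
    push_cast at this; exact this
  refine ⟨?_, ?_, ?_, ?_⟩
  · have h1 : Continuous fun θ : ℝ => Complex.exp (Real.pi * θ * Complex.I) := by fun_prop
    exact h.cont.comp_continuous h1 fun θ => sphere_subset_closedBall (hsph θ)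
  · intro θ
    show e _ = e _
    congr 1
    have : (Real.pi : ℂ) * ((θ + 2 : ℝ) : ℂ) * Complex.I =
        Real.pi * θ * Complex.I + 2 * Real.pi * Complex.I := by push_cast; ring
    rw [this, Complex.exp_periodic]
  · intro s hs t ht hst
    have h1 := h.inj (sphere_subset_closedBall (hsph s)) (sphere_subset_closedBall (hsph t)) hst
    obtain ⟨n, hn⟩ := exp_inj h1
    have h2 : n = 0 := by
      have h3 : (-1 : ℝ) < n := by linarith [hs.1, ht.2]
      have h4 : (n : ℝ) < 1 := by linarith [hs.2, ht.1]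
      have h5 : (-1 : ℤ) < n := by exact_mod_cast h3
      have h6 : n < (1 : ℤ) := by exact_mod_cast h4
      omega
    rw [h2] at hn; simpa using hn
  · rw [← h.bd]
    apply Subset.antisymm
    · rintro _ ⟨θ, _, rfl⟩
      exact ⟨_, hsph θ, rfl⟩
    · rintro _ ⟨z, hz, rfl⟩
      rw [mem_sphere_zero_iff_norm] at hz
      have hpi := Real.pi_pos
      have harg := Complex.arg_mem_Ioc z
      have hz1 : Complex.exp (Complex.arg z * Complex.I) = z := by
        have := Complex.norm_mul_exp_arg_mul_I z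
        rw [hz] at this; simpa using this
      rcases le_or_gt 0 (Complex.arg z) with h0 | h0
      · refine ⟨Complex.arg z / Real.pi, ⟨by positivity, ?_⟩, ?_⟩
        · rw [div_lt_iff₀ hpi]; linarith [harg.2]
        · show e _ = e z
          congr 1
          rw [← hz1]
          congr 2
          push_cast
          rw [hz1]
          field_simp
      · refine ⟨Complex.arg z / Real.pi + 2, ⟨?_, ?_⟩, ?_⟩
        · have : -1 ≤ Complex.arg z / Real.pi := by
            rw [le_div_iff₀ hpi]; linarith [harg.1]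
          linarith
        · have : Complex.arg z / Real.pi < 0 := div_neg_of_neg_of_pos h0 hpi
          linarith
        · show e _ = e z
          congr 1
          have : (Real.pi : ℂ) * ((Complex.arg z / Real.pi + 2 : ℝ) : ℂ) * Complex.I =
              Complex.arg z * Complex.I + 2 * Real.pi * Complex.I := by
            push_cast
            have : (Real.pi : ℂ) ≠ 0 := by exact_mod_cast Real.pi_ne_zero
            field_simp
          rw [this, Complex.exp_periodic, hz1]

variable {E : Type*} [NormedAddCommGroup E] [NormedSpace ℝ E]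
variable {Om : Set E} {ι : Type*} (T : Tiling Om ι)

/-- a closed sheet pattern on the 1-skeleton -/
structure EvPat (Q : Finset E) : Prop where
  mem : ∀ w ∈ Q, w ∈ Om ∧ T.dim w = 1
  even : ∀ x ∈ Om, T.dim x = 2 → Even ((Q : Set E) ∩ T.cc x).ncard

/-- `lam` is a label function of `Q` on the set `K` -/
def Ex (Q : Finset E) (lam : E → ZMod 2) (K : Set E) : Prop :=
  ∀ w ∈ Om, T.dim w = 1 → T.cc w ⊆ K → ∀ a b, T.cc w = segment ℝ a b →
    lam a + lam b = (((Q : Set E) ∩ T.cc w).ncard : ZMod 2)

variable {T}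

/-- end points of 1-cells -/
theorem ends_of_segment [FiniteDimensional ℝ E] {w a b : E} (hw : w ∈ Om) (hd : T.dim w = 1)
    (hab : T.cc w = segment ℝ a b) : a ≠ b ∧ T.dim a = 0 ∧ T.dim b = 0 ∧
      T.cc w \ {a, b} = openSegment ℝ a b := by
  obtain ⟨a', b', hne, h1, h2, h3, h4, h5, h6⟩ := T.edge_eq hw hd
  have ha' := T.vertex_of_edge hw hd hab h5 h3
  have hb' := T.vertex_of_edge hw hd hab h6 h4
  have key : (a = a' ∧ b = b') ∨ (a = b' ∧ b = a') := by
    rcases ha' with ha' | ha' <;> rcases hb' with hb' | hb'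
    · exact absurd (ha'.trans hb'.symm) hne
    · exact Or.inl ⟨ha'.symm, hb'.symm⟩
    · exact Or.inr ⟨hb'.symm, ha'.symm⟩
    · exact absurd (ha'.trans hb'.symm) hne
  have hab' : a ≠ b := by
    rcases key with ⟨rfl, rfl⟩ | ⟨rfl, rfl⟩
    · exact hne
    · exact hne.symm
  refine ⟨hab', ?_, ?_, ?_⟩
  · rcases key with ⟨rfl, rfl⟩ | ⟨rfl, rfl⟩
    · exact h3
    · exact h4
  · rcases key with ⟨rfl, rfl⟩ | ⟨rfl, rfl⟩
    · exact h4
    · exact h3
  · rw [hab, ← insert_endpoints_openSegment]
    ext y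
    simp only [Set.mem_sdiff, mem_insert_iff, mem_singleton_iff]
    constructor
    · rintro ⟨h7 | h7 | h7, h8⟩
      · exact absurd (Or.inl h7) h8
      · exact absurd (Or.inr h7) h8
      · exact h7
    · intro h7
      refine ⟨Or.inr (Or.inr h7), ?_⟩
      rintro (rfl | rfl)
      · exact hab' (left_mem_openSegment_iff.1 h7)
      · exact hab' (right_mem_openSegment_iff.1 h7)

/-- labels on the boundary of a two-dimensional cell -/
theorem exists_ex_cell2 [FiniteDimensional ℝ E] {Q : Finset E}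
    (hQ1 : ∀ w ∈ Q, T.dim w = 1) {x : E} (hx : x ∈ Om) (hd : T.dim x = 2)
    (heven : Even ((Q : Set E) ∩ T.cc x).ncard) : ∃ lam : E → ZMod 2, Ex T Q lam (T.cc x) := by
  classical
  obtain ⟨e, he⟩ := isDisc_cell T hx hd
  have hloop := loop_of_disc he
  set Qx : Finset E := Q.filter (· ∈ T.cc x) with hQx
  have hQxC : (Qx : Set E) ⊆ T.cc x \ T.oc x := by
    intro w hw
    obtain ⟨h1, h2⟩ := Finset.mem_filter.1 (Finset.mem_coe.1 hw)
    refine ⟨h2, fun h3 => ?_⟩
    have := T.dim_eq_of_mem_oc hx h3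
    rw [hQ1 w h1, hd] at this
    exact absurd this (by norm_num)
  have hcard : Even Qx.card := by
    have : Qx.card = ((Q : Set E) ∩ T.cc x).ncard := by
      rw [← Set.ncard_coe_finset]
      congr 1
      ext w; simp [hQx]
    rw [this]; exact heven
  refine ⟨fun p => (cnt (fun θ : ℝ => e (Complex.exp (Real.pi * θ * Complex.I))) Qx p : ℕ), ?_⟩
  intro w hw hwd hwx a b hab
  obtain ⟨hne, ha0, hb0, hop⟩ := ends_of_segment hw hwd hab
  have hsub : T.cc w ⊆ T.cc x \ T.oc x := by
    intro y hy
    refine ⟨hwx hy, fun h3 => ?_⟩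
    have h4 := T.dim_eq_of_mem_oc hx h3
    have h5 := T.dim_le hy
    omega
  have h1 := hloop.arc_count (Q := Qx) hQxC hcard hne (J := T.cc w)
    (T.convex_cc w).isPreconnected (by rw [hab]; exact left_mem_segment ℝ a b)
    (by rw [hab]; exact right_mem_segment ℝ a b)
    (fun h => by have := hQ1 a (Finset.mem_filter.1 h).1; omega)
    (fun h => by have := hQ1 b (Finset.mem_filter.1 h).1; omega)
    hsub (by rw [hop]; exact (convex_openSegment a b).isPreconnected)
  rw [h1]
  congr 1
  rw [← Set.ncard_coe_finset]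
  congr 1
  ext u
  simp only [hQx, Finset.coe_filter, Finset.mem_filter, mem_ofPred_eq, mem_inter_iff,
    Finset.mem_coe]
  constructor
  · rintro ⟨⟨h2, h3⟩, h4⟩; exact ⟨h2, h4⟩
  · rintro ⟨h2, h4⟩; exact ⟨⟨h2, hwx h4⟩, h4⟩

end Crest.Agent.R096.Lab_184
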