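import Mathlib
import Crest.Agent.R096.Msh2_715

/-! # A-GLUE 2 (row 96, helper543): codimension two cells

At a point `p` of a cell of codimension 2 (dimension 1 in a 3-dimensional space), every tile
through `p` contains exactly two codimension one cells through `p`. -/

set_option autoImplicit false

open Set Filter Topology Metric

namespace Crest.Agent.R096.Agl2_543

open Crest.Agent.R096.Msh_715

variable {E : Type*} [NormedAddCommGroup E] [NormedSpace ℝ E]
variable {Om : Set E} {ι : Type*} (T : Tiling Om ι)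

/-- a ball in which everything is conical about `p` -/
theorem good_ball {p : E} (hp : p ∈ Om) : ∃ r > 0, ball p r ⊆ Om ∧ ∀ y ∈ ball p r,
    T.at_ y ⊆ T.at_ p ∧ ∀ i ∈ T.at_ p, ∀ h ∈ T.H i, h.1 p < h.2 → h.1 y < h.2 := by
  obtain ⟨r, hr, hO, hb⟩ := T.exists_ball hp
  have : ∀ᶠ y in 𝓝 p, ∀ i ∈ T.at_ p, ∀ h ∈ T.H i, h.1 p < h.2 → h.1 y < h.2 := by
    rw [Filter.eventually_all_finite (T.at_finite hp)]
    intro i _
    rw [Finset.eventually_all]
    intro h _
    by_cases e : h.1 p < h.2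
    · simp only [e, forall_const]
      exact (h.1.continuous.tendsto p).eventually (gt_mem_nhds e)
    · simp [e]
  obtain ⟨r', hr', hb'⟩ := Metric.eventually_nhds_iff_ball.1 this
  refine ⟨min r r', lt_min hr hr', ?_, fun y hy => ⟨?_, ?_⟩⟩
  · exact (ball_subset_ball (min_le_left _ _)).trans hO
  · exact hb y (ball_subset_ball (min_le_left _ _) hy)
  · exact hb' y (ball_subset_ball (min_le_right _ _) hy)

section good

variable {p : E} {r : ℝ} (hp : p ∈ Om)
  (hb : ∀ y ∈ ball p r, T.at_ y ⊆ T.at_ p ∧ ∀ i ∈ T.at_ p, ∀ h ∈ T.H i, h.1 p < h.2 → h.1 y < h.2)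
include hb

theorem mem_cc_of_good {y : E} (hy : y ∈ ball p r) : p ∈ T.cc y := by
  intro i hi h hh
  have hip := (hb y hy).1 hi
  refine ⟨hip h hh, fun e => ?_⟩
  by_contra hne
  have := (hb y hy).2 i hip h hh (lt_of_le_of_ne (hip h hh) hne)
  linarith

theorem mem_at_iff_good {y : E} (hy : y ∈ ball p r) {i : ι} (hi : i ∈ T.at_ p) :
    i ∈ T.at_ y ↔ ∀ h ∈ T.H i, h.1 p = h.2 → h.1 (y - p) ≤ 0 := by
  constructor
  · intro hy h hh e
    have := hy h hh
    rw [map_sub, e]; linarith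
  · intro h1 h hh
    rcases eq_or_lt_of_le (hi h hh) with e | e
    · have := h1 h hh e
      rw [map_sub, e] at this; linarith
    · exact ((hb y hy).2 i hi h hh e).le

theorem mem_I_iff_good {y : E} (hy : y ∈ ball p r) {i : ι} (hi : i ∈ T.at_ p) :
    y ∈ I (T.H i) ↔ ∀ h ∈ T.H i, h.1 p = h.2 → h.1 (y - p) < 0 := by
  constructor
  · intro hy h hh e
    have := hy h hh
    rw [map_sub, e]; linarith
  · intro h1 h hh
    rcases eq_or_lt_of_le (hi h hh) with e | e
    · have := h1 h hh e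
      rw [map_sub, e] at this; linarith
    · exact (hb y hy).2 i hi h hh e

end good

/-- a point of a tile which is not in its interior has dimension less than the whole space -/
theorem dim_lt_finrank [FiniteDimensional ℝ E] {x : E} (hx : x ∈ Om) {i : ι} (hi : i ∈ T.at_ x)
    (hn : x ∉ I (T.H i)) : T.dim x < Module.finrank ℝ E := by
  refine lt_of_le_of_ne (T.dim_le_finrank x) ?_
  intro e
  have h1 : T.V x = ⊤ := Submodule.eq_top_of_finrank_eq e
  obtain ⟨k, hk⟩ := (T.V_eq_top_iff hx).1 h1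
  rw [T.at_eq_singleton hk, mem_singleton_iff] at hi
  rw [← hi] at hk
  exact hn hk

theorem notMem_I_of_dim [FiniteDimensional ℝ E] {x : E} (hx : x ∈ Om)
    (hd : T.dim x < Module.finrank ℝ E) (i : ι) : x ∉ I (T.H i) := by
  intro hi
  have h1 := (T.V_eq_top_iff hx).2 ⟨i, hi⟩
  have h2 : T.dim x = Module.finrank ℝ E := by
    unfold Tiling.dim; rw [h1]; exact finrank_top ℝ E
  omega

/-- **one side of the sector**: the boundary ray of the tile `q` at `p` on the side of `w`. -/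
theorem side [FiniteDimensional ℝ E] (h3 : Module.finrank ℝ E = 3) {p : E} (hp : p ∈ Om)
    (hd : T.dim p = 1) {q : ι} (hq : q ∈ T.at_ p) {v0 w : E} (hv0 : p + v0 ∈ I (T.H q))
    (hspan : ∀ v : E, ∃ ω ∈ T.V p, ∃ a b : ℝ, v = ω + a • v0 + b • w)
    (hind : ∀ ω ∈ T.V p, ∀ a b : ℝ, ω + a • v0 + b • w = 0 → a = 0 ∧ b = 0) :
    ∃ M : ℝ, ∃ x ∈ Om, T.dim x = 2 ∧ q ∈ T.at_ x ∧ p ∈ T.cc x ∧
      (∃ s : ℝ, 0 < s ∧ x = p + s • (M • v0 + w)) ∧
      ∀ y ∈ Om, T.dim y = 2 → q ∈ T.at_ y → p ∈ T.cc y →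
        (∃ ω ∈ T.V p, ∃ a b : ℝ, 0 < b ∧ y - p = ω + a • v0 + b • w) → T.cc y = T.cc x := by
  classical
  obtain ⟨r, hr, hO, hb⟩ := good_ball T hp
  -- active constraints
  set Act := (T.H q).filter (fun h => h.1 p = h.2) with hAct
  have hActm : ∀ h, h ∈ Act ↔ h ∈ T.H q ∧ h.1 p = h.2 := by
    intro h; rw [hAct, Finset.mem_filter]
  have hnI : p ∉ I (T.H q) := notMem_I_of_dim T hp (by omega) q
  have hne : Act.Nonempty := by
    by_contra hcon
    rw [Finset.not_nonempty_iff_eq_empty] at hcon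
    apply hnI
    intro h hh
    refine lt_of_le_of_ne (hq h hh) fun e => ?_
    have : h ∈ Act := (hActm h).2 ⟨hh, e⟩
    rw [hcon] at this
    exact absurd this (Finset.notMem_empty h)
  have hneg : ∀ h ∈ Act, h.1 v0 < 0 := by
    intro h hh
    obtain ⟨h1, h2⟩ := (hActm h).1 hh
    have := hv0 h h1
    rw [map_add, h2] at this
    linarith
  have hVz : ∀ h ∈ Act, ∀ ω ∈ T.V p, h.1 ω = 0 := by
    intro h hh ω hω
    obtain ⟨h1, h2⟩ := (hActm h).1 hh
    exact hω q hq h h1 h2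
  obtain ⟨hM, hMA, hMmax⟩ := Finset.exists_max_image Act
    (fun h => h.1 w / (-h.1 v0)) hne
  set M : ℝ := hM.1 w / (-hM.1 v0) with hMdef
  -- values of active constraints
  have hval : ∀ h ∈ Act, ∀ ω ∈ T.V p, ∀ a b : ℝ,
      h.1 (ω + a • v0 + b • w) = (-h.1 v0) * (b * (h.1 w / (-h.1 v0)) - a) := by
    intro h hh ω hω a b
    have h1 := hneg h hh
    have h2 : (-h.1 v0) ≠ 0 := by linarith
    have h3 : (-h.1 v0) * (h.1 w / (-h.1 v0)) = h.1 w := mul_div_cancel₀ _ h2
    have h4 : (-h.1 v0) * (b * (h.1 w / (-h.1 v0)) - a)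
        = b * ((-h.1 v0) * (h.1 w / (-h.1 v0))) + a * h.1 v0 := by ring
    rw [h4, h3]
    simp only [map_add, map_smul, smul_eq_mul, hVz h hh ω hω]
    ring
  set d : E := M • v0 + w with hddef
  have hdval : ∀ ω ∈ T.V p, ∀ b : ℝ, ω + b • d = ω + (b * M) • v0 + b • w := by
    intro ω hω b
    rw [hddef, smul_add, smul_smul, add_assoc]
  have hdnV : ∀ b : ℝ, b ≠ 0 → ∀ ω ∈ T.V p, ω + b • d ∉ T.V p := by
    intro b hb0 ω hω hcon
    have h1 : b • d ∈ T.V p := by
      have := (T.V p).sub_mem hcon hω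
      rwa [add_sub_cancel_left] at this
    have h2 := hind (-(b • d)) ((T.V p).neg_mem h1) (b * M) b (by
      have := hdval 0 (T.V p).zero_mem b
      rw [zero_add, zero_add] at this
      rw [this]; abel)
    exact hb0 h2.2
  -- the open half plane near `p`
  set R : Set E := {x | x ∈ ball p r ∧ ∃ ω ∈ T.V p, ∃ b : ℝ, 0 < b ∧ x = p + (ω + b • d)} with hR
  have hRconv : Convex ℝ R := by
    intro x hx y hy α β hα hβ hαβ
    obtain ⟨hx1, ω1, hω1, b1, hb1, rfl⟩ := hx
    obtain ⟨hy1, ω2, hω2, b2, hb2, rfl⟩ := hy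
    refine ⟨(convex_ball p r) hx1 hy1 hα hβ hαβ, α • ω1 + β • ω2,
      (T.V p).add_mem ((T.V p).smul_mem α hω1) ((T.V p).smul_mem β hω2), α * b1 + β * b2, ?_, ?_⟩
    · rcases hα.lt_or_eq with h | h
      · have := mul_pos h hb1
        have := mul_nonneg hβ hb2.le
        linarith
      · have hβ1 : β = 1 := by linarith
        rw [← h, hβ1]; linarith
    · have e1 : α • (p + (ω1 + b1 • d)) + β • (p + (ω2 + b2 • d))
          = (α + β) • p + (α • ω1 + β • ω2 + (α * b1 + β * b2) • d) := by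
        simp only [smul_add, add_smul, mul_smul]; abel
      rw [e1, hαβ, one_smul]
  -- basic facts for points of `R`
  have hRat : ∀ x ∈ R, q ∈ T.at_ x := by
    rintro x ⟨hx1, ω, hω, b, hb0, rfl⟩
    rw [mem_at_iff_good T hb hx1 hq]
    intro h hh e
    have hA : h ∈ Act := (hActm h).2 ⟨hh, e⟩
    rw [add_sub_cancel_left, hdval ω hω, hval h hA ω hω]
    have h1 := hneg h hA
    have h2 := hMmax h hA
    have h3 : b * (h.1 w / (-h.1 v0)) - b * M ≤ 0 := by
      have := mul_le_mul_of_nonneg_left h2 hb0.le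
      linarith
    exact mul_nonpos_of_nonneg_of_nonpos (by linarith) h3
  have hRnI : ∀ x ∈ R, x ∉ I (T.H q) := by
    rintro x ⟨hx1, ω, hω, b, hb0, rfl⟩ hI
    obtain ⟨h1, h2⟩ := (hActm hM).1 hMA
    have := hI hM h1
    rw [map_add, h2, hdval ω hω, hval hM hMA ω hω] at this
    rw [← hMdef] at this
    simp at this
  have hRcc : ∀ x ∈ R, p ∈ T.cc x := fun x hx => mem_cc_of_good T hb hx.1
  have hROm : ∀ x ∈ R, x ∈ Om := fun x hx => hO hx.1
  have hRV : ∀ x ∈ R, d ∈ T.V x := by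
    rintro x ⟨hx1, ω, hω, b, hb0, hxe⟩
    have hcc := mem_cc_of_good T hb hx1
    have h1 := T.sub_mem_V hcc
    have h2 := T.V_mono hcc
    have h3 : b • d ∈ T.V x := by
      have e1 : b • d = -(p - x) - ω := by rw [hxe]; abel
      rw [e1]
      exact (T.V _).sub_mem ((T.V _).neg_mem h1) (h2 hω)
    have h4 := (T.V x).smul_mem b⁻¹ h3
    rwa [smul_smul, inv_mul_cancel₀ hb0.ne', one_smul] at h4
  have hRdim : ∀ x ∈ R, T.dim x = 2 := by
    intro x hx
    have h1 : T.dim x < 3 := by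
      have := dim_lt_finrank T (hROm x hx) (hRat x hx) (hRnI x hx)
      omega
    have h2 : T.dim p < T.dim x := by
      refine T.dim_lt (hRcc x hx) fun hcon => ?_
      -- `p ∈ oc x`, then `x ∈ oc p`
      have h3 : T.cc p = T.cc x := T.cc_eq_of_mem_oc (hROm x hx) hcon
      have h4 : x ∈ T.cc p := by rw [h3]; exact T.self_mem_cc x
      have h5 := T.sub_mem_V h4
      obtain ⟨_, ω, hω, b, hb0, rfl⟩ := hx
      rw [add_sub_cancel_left] at h5
      exact hdnV b hb0.ne' ω hω h5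
    omega
  set Pi : Submodule ℝ E := T.V p ⊔ Submodule.span ℝ {d} with hPi
  have hPilt : T.V p < Pi := by
    refine lt_of_le_of_ne le_sup_left fun e => ?_
    have h1 : d ∈ T.V p := by
      rw [e]; exact Submodule.mem_sup_right (Submodule.mem_span_singleton_self d)
    exact hdnV 1 one_ne_zero 0 (T.V p).zero_mem (by rw [one_smul, zero_add]; exact h1)
  have hRVeq : ∀ x ∈ R, Pi = T.V x := by
    intro x hx
    have hle : Pi ≤ T.V x := by
      refine sup_le (T.V_mono (hRcc x hx)) ?_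
      rw [Submodule.span_le, singleton_subset_iff]
      exact hRV x hx
    refine Submodule.eq_of_le_of_finrank_le hle ?_
    have h1 : Module.finrank ℝ (T.V p) < Module.finrank ℝ Pi :=
      Submodule.finrank_lt_finrank_of_lt hPilt
    have h2 : Module.finrank ℝ (T.V p) = 1 := hd
    have h3 : Module.finrank ℝ (T.V x) = 2 := hRdim x hx
    omega
  -- all points of `R` are in one cell
  have hRone : ∀ x ∈ R, ∀ y ∈ R, y ∈ T.oc x := by
    intro x hx y hy
    refine hRconv.isPreconnected.induction₂ (fun x y => y ∈ T.oc x) ?_ ?_ ?_ hx hy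
    · intro z hz
      obtain ⟨r', hr', hb'⟩ := T.exists_ball_oc (hROm z hz)
      have h1 : R ∩ ball z r' ∈ 𝓝[R] z := inter_mem_nhdsWithin R (ball_mem_nhds z hr')
      filter_upwards [h1] with y hy
      have h2 : y - z ∈ T.V z := by
        rw [← hRVeq z hz]
        obtain ⟨⟨_, ω1, hω1, b1, _, rfl⟩, _⟩ := hy
        obtain ⟨_, ω2, hω2, b2, _, rfl⟩ := hz
        have e1 : p + (ω1 + b1 • d) - (p + (ω2 + b2 • d)) = (ω1 - ω2) + (b1 - b2) • d := by
          rw [sub_smul]; abel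
        rw [e1]
        exact Submodule.add_mem_sup ((T.V p).sub_mem hω1 hω2)
          (Submodule.smul_mem _ _ (Submodule.mem_span_singleton_self d))
      have h3 := hb' (y - z) h2 (by
        have := hy.2
        rwa [mem_ball, dist_eq_norm] at this)
      rwa [add_sub_cancel] at h3
    · intro a b c ha _ _ h1 h2
      rwa [T.oc_eq_of_mem (hROm a ha) h1] at h2
    · intro a b ha hb h1
      rw [T.oc_eq_of_mem (hROm a ha) h1]
      exact T.self_mem_oc a
  -- a point of `R`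
  have hev : ∀ v : E, ∀ᶠ s in 𝓝[>] (0 : ℝ), p + s • v ∈ ball p r := by
    intro v
    have hc : Tendsto (fun s : ℝ => p + s • v) (𝓝 0) (𝓝 (p + (0 : ℝ) • v)) := by
      apply Continuous.tendsto; fun_prop
    rw [zero_smul, add_zero] at hc
    exact (hc.eventually (ball_mem_nhds p hr)).filter_mono nhdsWithin_le_nhds
  obtain ⟨s0, hs0, hs0'⟩ := ((hev d).and self_mem_nhdsWithin).exists
  have hs0' : (0 : ℝ) < s0 := hs0'
  have hx0 : p + s0 • d ∈ R := ⟨hs0, 0, (T.V p).zero_mem, s0, hs0', by rw [zero_add]⟩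
  refine ⟨M, p + s0 • d, hROm _ hx0, hRdim _ hx0, hRat _ hx0, hRcc _ hx0, ⟨s0, hs0', rfl⟩, ?_⟩
  intro y hy hyd hyq hyp hyw
  obtain ⟨ω, hω, a, b, hb0, hyw⟩ := hyw
  -- move towards `p`
  have hlt1 : ∀ᶠ s in 𝓝[>] (0 : ℝ), s < 1 :=
    (gt_mem_nhds (zero_lt_one' ℝ)).filter_mono nhdsWithin_le_nhds
  obtain ⟨s, ⟨hs1, hs2⟩, hs3⟩ := (((hev (y - p)).and hlt1).and self_mem_nhdsWithin).exists
  have hs3 : (0 : ℝ) < s := hs3
  set ys : E := p + s • (y - p) with hys
  have hysoc : ys ∈ T.oc y := T.move_mem_oc hyp hs3 hs2.le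
  have hysOm : ys ∈ Om := hO hs1
  have hysd : T.dim ys = 2 := by rw [T.dim_eq_of_mem_oc hy hysoc, hyd]
  have hysat : q ∈ T.at_ ys := by rw [T.at_eq_of_mem_oc hy hysoc]; exact hyq
  have hysnI : ys ∉ I (T.H q) := notMem_I_of_dim T hysOm (by omega) q
  -- an active constraint of `ys`
  obtain ⟨h, hh, he⟩ : ∃ h ∈ T.H q, h.1 ys = h.2 := by
    by_contra hcon
    push Not at hcon
    exact hysnI fun h hh => lt_of_le_of_ne (hysat h hh) (hcon h hh)
  have hpcc : p ∈ T.cc ys := mem_cc_of_good T hb hs1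
  have hA : h ∈ Act := (hActm h).2 ⟨hh, (hpcc q hysat h hh).2 he⟩
  have hdec : ys - p = s • ω + (s * a) • v0 + (s * b) • w := by
    rw [hys, add_sub_cancel_left, hyw]
    simp only [smul_add, smul_smul]
  have hsω : s • ω ∈ T.V p := (T.V p).smul_mem s hω
  have e1 : s * b * (h.1 w / (-h.1 v0)) - s * a = 0 := by
    have h1 := hval h hA (s • ω) hsω (s * a) (s * b)
    rw [← hdec, map_sub, he, ((hActm h).1 hA).2, sub_self] at h1
    have h2 := hneg h hA
    rcases mul_eq_zero.1 h1.symm with h3 | h3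
    · linarith
    · exact h3
  have e2 : s * b * M - s * a ≤ 0 := by
    have h1 := (mem_at_iff_good T hb hs1 hq).1 hysat hM ((hActm hM).1 hMA).1 ((hActm hM).1 hMA).2
    rw [hdec, hval hM hMA (s • ω) hsω (s * a) (s * b), ← hMdef] at h1
    have h2 := hneg hM hMA
    by_contra hcon
    push Not at hcon
    have := mul_pos (by linarith : 0 < -hM.1 v0) hcon
    linarith
  have hsb : 0 < s * b := mul_pos hs3 hb0
  have e3 : s * a = s * b * M := by
    have h2 := hMmax h hA
    have h3 := mul_le_mul_of_nonneg_left h2 hsb.le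
    have h4 : s * b * (hM.1 w / (-hM.1 v0)) = s * b * M := by rw [hMdef]
    linarith
  have hysR : ys ∈ R := by
    refine ⟨hs1, s • ω, hsω, s * b, hsb, ?_⟩
    rw [hdval _ hsω, ← e3, ← hdec]; abel
  have h5 := hRone _ hx0 _ hysR
  have h6 : T.cc ys = T.cc (p + s0 • d) := T.cc_eq_of_mem_oc (hROm _ hx0) h5
  rw [← h6, T.cc_eq_of_mem_oc hy hysoc]

end Crest.Agent.R096.Agl2_543
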