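import Mathlib
import Crest.Agent.R096.Agl2_543

/-! # A-GLUE 3 (row 96, helper543): exactly two codimension one cells of a tile at a point of a
codimension two cell, and connectedness of the tiles around it. -/

set_option autoImplicit false

open Set Filter Topology Metric

namespace Crest.Agent.R096.Agl3_543

open Crest.Agent.R096.Msh_715 Crest.Agent.R096.Agl2_543

variable {E : Type*} [NormedAddCommGroup E] [NormedSpace ℝ E]
variable {Om : Set E} {ι : Type*} (T : Tiling Om ι)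

/-- an active constraint at a point of lower dimension -/
theorem exists_active [FiniteDimensional ℝ E] {x : E} (hx : x ∈ Om)
    (hd : T.dim x < Module.finrank ℝ E) {q : ι} (hq : q ∈ T.at_ x) :
    ∃ h ∈ T.H q, h.1 x = h.2 := by
  by_contra hcon
  push Not at hcon
  exact notMem_I_of_dim T hx hd q fun h hh => lt_of_le_of_ne (hq h hh) (hcon h hh)

theorem exists_w [FiniteDimensional ℝ E] (h3 : Module.finrank ℝ E = 3) {V : Submodule ℝ E}
    (hV : Module.finrank ℝ V = 1) {v0 : E} (hv0 : v0 ∉ V) :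
    ∃ w : E, (∀ v : E, ∃ ω ∈ V, ∃ a b : ℝ, v = ω + a • v0 + b • w) ∧
      ∀ ω ∈ V, ∀ a b : ℝ, ω + a • v0 + b • w = 0 → a = 0 ∧ b = 0 := by
  set W2 : Submodule ℝ E := V ⊔ Submodule.span ℝ {v0} with hW2
  have hfs : Module.finrank ℝ (Submodule.span ℝ {v0} : Submodule ℝ E) ≤ 1 := by
    have := finrank_span_le_card (R := ℝ) ({v0} : Set E)
    simpa using this
  have hW2le : Module.finrank ℝ W2 ≤ 2 := by
    have h1 := Submodule.finrank_add_le_finrank_add_finrank V (Submodule.span ℝ {v0})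
    rw [hW2]; omega
  have hW2ge : 2 ≤ Module.finrank ℝ W2 := by
    have h1 : V < W2 := by
      refine lt_of_le_of_ne le_sup_left fun e => hv0 ?_
      rw [e]; exact Submodule.mem_sup_right (Submodule.mem_span_singleton_self v0)
    have := Submodule.finrank_lt_finrank_of_lt h1
    omega
  obtain ⟨w, hw⟩ : ∃ w : E, w ∉ W2 := by
    by_contra hcon
    push Not at hcon
    have h1 : W2 = ⊤ := by rw [eq_top_iff]; intro v _; exact hcon v
    rw [h1, finrank_top, h3] at hW2le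
    omega
  set W3 : Submodule ℝ E := W2 ⊔ Submodule.span ℝ {w} with hW3
  have hW3top : W3 = ⊤ := by
    apply Submodule.eq_top_of_finrank_eq
    have h1 : W2 < W3 := by
      refine lt_of_le_of_ne le_sup_left fun e => hw ?_
      rw [e]; exact Submodule.mem_sup_right (Submodule.mem_span_singleton_self w)
    have h2 := Submodule.finrank_lt_finrank_of_lt h1
    have h4 := Submodule.finrank_le W3
    omega
  refine ⟨w, fun v => ?_, fun ω hω a b h => ?_⟩
  · have hv : v ∈ W3 := by rw [hW3top]; trivial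
    obtain ⟨y, hy, z, hz, rfl⟩ := Submodule.mem_sup.1 hv
    obtain ⟨ω, hω, y', hy', rfl⟩ := Submodule.mem_sup.1 hy
    obtain ⟨a, rfl⟩ := Submodule.mem_span_singleton.1 hy'
    obtain ⟨b, rfl⟩ := Submodule.mem_span_singleton.1 hz
    exact ⟨ω, hω, a, b, rfl⟩
  · have hb : b = 0 := by
      by_contra hb
      apply hw
      have e1 : w = b⁻¹ • (-(ω + a • v0)) := by
        have : b • w = -(ω + a • v0) := by
          rw [eq_neg_iff_add_eq_zero, add_comm]; exact h
        rw [← this, smul_smul, inv_mul_cancel₀ hb, one_smul]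
      rw [e1]
      refine W2.smul_mem _ (W2.neg_mem (W2.add_mem ?_ ?_))
      · exact Submodule.mem_sup_left hω
      · exact Submodule.mem_sup_right
          (Submodule.smul_mem _ _ (Submodule.mem_span_singleton_self v0))
    refine ⟨?_, hb⟩
    by_contra ha
    apply hv0
    rw [hb, zero_smul, add_zero] at h
    have e1 : v0 = a⁻¹ • (-ω) := by
      have : a • v0 = -ω := by
        rw [eq_neg_iff_add_eq_zero, add_comm]; exact h
      rw [← this, smul_smul, inv_mul_cancel₀ ha, one_smul]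
    rw [e1]
    exact V.smul_mem _ (V.neg_mem hω)

/-- **exactly two codimension one cells** of the tile `q` at the point `p` of a codimension two
cell -/
theorem two_cells [FiniteDimensional ℝ E] (h3 : Module.finrank ℝ E = 3) {p : E} (hp : p ∈ Om)
    (hd : T.dim p = 1) {q : ι} (hq : q ∈ T.at_ p) :
    ∃ x₁ ∈ Om, ∃ x₂ ∈ Om, T.dim x₁ = 2 ∧ T.dim x₂ = 2 ∧ q ∈ T.at_ x₁ ∧ q ∈ T.at_ x₂ ∧
      p ∈ T.cc x₁ ∧ p ∈ T.cc x₂ ∧ T.cc x₁ ≠ T.cc x₂ ∧
      ∀ y ∈ Om, T.dim y = 2 → q ∈ T.at_ y → p ∈ T.cc y →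
        T.cc y = T.cc x₁ ∨ T.cc y = T.cc x₂ := by
  obtain ⟨z, hz⟩ := T.ne q
  set v0 := z - p with hv0def
  have hv0 : p + v0 ∈ I (T.H q) := by rw [hv0def, add_sub_cancel]; exact hz
  obtain ⟨h, hh, he⟩ := exists_active T hp (by omega) hq
  have hv0neg : ∀ h ∈ T.H q, h.1 p = h.2 → h.1 v0 < 0 := by
    intro h hh he
    have := hv0 h hh
    rw [map_add, he] at this
    linarith
  have hv0V : v0 ∉ T.V p := by
    intro hcon
    have h1 := hcon q hq h hh he
    have h2 := hv0neg h hh he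
    rw [h1] at h2
    exact lt_irrefl _ h2
  obtain ⟨w, hspan, hind⟩ := exists_w h3 (V := T.V p) hd hv0V
  have hspan' : ∀ v : E, ∃ ω ∈ T.V p, ∃ a b : ℝ, v = ω + a • v0 + b • (-w) := by
    intro v
    obtain ⟨ω, hω, a, b, e⟩ := hspan v
    exact ⟨ω, hω, a, -b, by rw [e, smul_neg, neg_smul, neg_neg]⟩
  have hind' : ∀ ω ∈ T.V p, ∀ a b : ℝ, ω + a • v0 + b • (-w) = 0 → a = 0 ∧ b = 0 := by
    intro ω hω a b e
    have := hind ω hω a (-b) (by rw [neg_smul, ← smul_neg]; exact e)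
    exact ⟨this.1, by linarith [this.2]⟩
  obtain ⟨M₁, x₁, hx1, hd1, hq1, hp1, ⟨s₁, hs1, hxe1⟩, hu1⟩ := side T h3 hp hd hq hv0 hspan hind
  obtain ⟨M₂, x₂, hx2, hd2, hq2, hp2, ⟨s₂, hs2, hxe2⟩, hu2⟩ :=
    side T h3 hp hd hq hv0 hspan' hind'
  refine ⟨x₁, hx1, x₂, hx2, hd1, hd2, hq1, hq2, hp1, hp2, ?_, ?_⟩
  · intro hcc
    have hx2cc : x₂ ∈ T.cc x₁ := by rw [hcc]; exact T.self_mem_cc x₂
    -- the combination lies in `V x₁`
    have m1 : x₁ - p ∈ T.V x₁ := by
      have := (T.V x₁).neg_mem (T.sub_mem_V hp1)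
      rwa [neg_sub] at this
    have m2 : x₂ - p ∈ T.V x₁ := T.sub_mem_V' hx2cc hp1
    have e0 : s₂ • (x₁ - p) + s₁ • (x₂ - p) = (s₁ * s₂ * (M₁ + M₂)) • v0 := by
      rw [hxe1, hxe2, add_sub_cancel_left, add_sub_cancel_left]
      module
    have m3 : (s₁ * s₂ * (M₁ + M₂)) • v0 ∈ T.V x₁ := by
      rw [← e0]
      exact (T.V x₁).add_mem ((T.V x₁).smul_mem _ m1) ((T.V x₁).smul_mem _ m2)
    obtain ⟨g, hg, hge⟩ := exists_active T hx1 (by omega) hq1
    have hgp : g.1 p = g.2 := (hp1 q hq1 g hg).2 hge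
    have h5 := m3 q hq1 g hg hge
    rw [map_smul, smul_eq_mul] at h5
    have h6 : s₁ * s₂ * (M₁ + M₂) = 0 := by
      rcases mul_eq_zero.1 h5 with h | h
      · exact h
      · exact absurd h (hv0neg g hg hgp).ne
    rw [h6, zero_smul] at e0
    -- `p` is a convex combination
    have hsum : 0 < s₁ + s₂ := by linarith
    have hx2oc : x₂ ∈ T.oc x₁ := (T.cc_eq_iff hx1).1 hcc.symm
    have h7 := T.convex_oc x₁ (T.self_mem_oc x₁) hx2oc (a := s₂ / (s₁ + s₂))
      (b := s₁ / (s₁ + s₂)) (by positivity) (by positivity) (by field_simp; ring)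
    have h8 : (s₂ / (s₁ + s₂)) • x₁ + (s₁ / (s₁ + s₂)) • x₂ = p := by
      have e1 : (s₂ / (s₁ + s₂)) • x₁ + (s₁ / (s₁ + s₂)) • x₂
          = (s₁ + s₂)⁻¹ • (s₂ • (x₁ - p) + s₁ • (x₂ - p)) + p := by
        have : (s₁ + s₂) ≠ 0 := hsum.ne'
        have hp' : p = (s₁ + s₂)⁻¹ • ((s₁ + s₂) • p) := by
          rw [smul_smul, inv_mul_cancel₀ this, one_smul]
        conv_rhs => rw [hp']
        rw [← smul_add]
        rw [div_eq_inv_mul, div_eq_inv_mul, mul_smul, mul_smul, ← smul_add]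
        congr 1
        conv_rhs => rw [← hp']
        module
      rw [e1, e0, smul_zero, zero_add]
    rw [h8] at h7
    have h9 := T.dim_eq_of_mem_oc hx1 h7
    omega
  · intro y hy hyd hyq hyp
    obtain ⟨ω, hω, a, b, e⟩ := hspan (y - p)
    rcases lt_trichotomy b 0 with hb | hb | hb
    · right
      refine hu2 y hy hyd hyq hyp ⟨ω, hω, a, -b, by linarith, ?_⟩
      rw [e, smul_neg, neg_smul, neg_neg]
    · exfalso
      rw [hb, zero_smul, add_zero] at e
      obtain ⟨g, hg, hge⟩ := exists_active T hy (by omega) hyq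
      have hgp : g.1 p = g.2 := (hyp q hyq g hg).2 hge
      have h5 : g.1 (y - p) = 0 := by rw [map_sub, hge, hgp, sub_self]
      rw [e, map_add, map_smul, smul_eq_mul, hω q hq g hg hgp, zero_add] at h5
      have ha : a = 0 := by
        rcases mul_eq_zero.1 h5 with h | h
        · exact h
        · exact absurd h (hv0neg g hg hgp).ne
      rw [ha, zero_smul, add_zero] at e
      obtain ⟨r, hr, hb'⟩ := T.exists_ball_oc hp
      have hc : Tendsto (fun s : ℝ => s • (y - p)) (𝓝 0) (𝓝 ((0 : ℝ) • (y - p))) := by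
        apply Continuous.tendsto; fun_prop
      rw [zero_smul] at hc
      have h1 : ∀ᶠ s in 𝓝[>] (0 : ℝ), s • (y - p) ∈ ball (0 : E) r :=
        (hc.eventually (ball_mem_nhds 0 hr)).filter_mono nhdsWithin_le_nhds
      have hlt1 : ∀ᶠ s in 𝓝[>] (0 : ℝ), s < 1 :=
        (gt_mem_nhds (zero_lt_one' ℝ)).filter_mono nhdsWithin_le_nhds
      obtain ⟨s, ⟨hs1, hs2⟩, hs3⟩ := ((h1.and hlt1).and self_mem_nhdsWithin).exists
      have hs3 : (0 : ℝ) < s := hs3
      have h6 := hb' (s • (y - p)) ((T.V p).smul_mem s (by rw [e]; exact hω))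
        (mem_ball_zero_iff.1 hs1)
      have h7 := T.move_mem_oc hyp hs3 hs2.le
      have h8 := T.dim_eq_of_mem_oc hp h6
      have h9 := T.dim_eq_of_mem_oc hy h7
      omega
    · left
      exact hu1 y hy hyd hyq hyp ⟨ω, hω, a, b, hb, e⟩

/-- **connectedness around a codimension two cell**: a set of tiles through `p` which is closed
under crossing codimension one cells at `p` contains all tiles through `p`. -/
theorem link [FiniteDimensional ℝ E] (h3 : Module.finrank ℝ E = 3) {p : E} (hp : p ∈ Om)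
    (hd : T.dim p = 1) {A : Set ι} {q : ι} (hqA : q ∈ A) (hq : q ∈ T.at_ p)
    (hA : ∀ k ∈ A, ∀ l, ∀ x ∈ Om, T.dim x = 2 → p ∈ T.cc x → T.at_ x = {k, l} → l ∈ A) :
    ∀ q' ∈ T.at_ p, q' ∈ A := by
  by_contra hcon
  push Not at hcon
  obtain ⟨q', hq', hq'A⟩ := hcon
  obtain ⟨r, hr, hO, hb⟩ := good_ball T hp
  -- closed cones
  set cone : ι → Set E := fun i => {v | ∀ h ∈ T.H i, h.1 p = h.2 → h.1 v ≤ 0} with hcone
  have hclosed : ∀ i, IsClosed (cone i) := by
    intro i
    have : cone i = ⋂ h ∈ T.H i, {v | h.1 p = h.2 → h.1 v ≤ 0} := by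
      ext v; simp [hcone]
    rw [this]
    refine isClosed_biInter fun h _ => ?_
    by_cases e : h.1 p = h.2
    · simp only [e, forall_const]
      exact isClosed_le h.1.continuous continuous_const
    · simp [e]
  have hfin := T.at_finite hp
  set U : Set E := ⋃ i ∈ T.at_ p ∩ A, cone i with hU
  set W : Set E := ⋃ i ∈ T.at_ p \ A, cone i with hW
  have hUc : IsClosed U := (hfin.inter_of_left A).isClosed_biUnion fun i _ => hclosed i
  have hWc : IsClosed W := (hfin.sdiff).isClosed_biUnion fun i _ => hclosed i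
  -- a small step
  have hev : ∀ v : E, ∀ᶠ s in 𝓝[>] (0 : ℝ), p + s • v ∈ ball p r := by
    intro v
    have hc : Tendsto (fun s : ℝ => p + s • v) (𝓝 0) (𝓝 (p + (0 : ℝ) • v)) := by
      apply Continuous.tendsto; fun_prop
    rw [zero_smul, add_zero] at hc
    exact (hc.eventually (ball_mem_nhds p hr)).filter_mono nhdsWithin_le_nhds
  have hstep : ∀ v : E, ∃ s : ℝ, 0 < s ∧ p + s • v ∈ ball p r := by
    intro v
    obtain ⟨s, hs, hs'⟩ := ((hev v).and self_mem_nhdsWithin).exists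
    exact ⟨s, hs', hs⟩
  have hmem : ∀ v : E, ∀ s : ℝ, 0 < s → p + s • v ∈ ball p r → ∀ i ∈ T.at_ p,
      (i ∈ T.at_ (p + s • v) ↔ v ∈ cone i) := by
    intro v s hs hb' i hi
    rw [mem_at_iff_good T hb hb' hi, add_sub_cancel_left]
    refine forall₃_congr fun h _ _ => ?_
    rw [map_smul, smul_eq_mul]
    constructor
    · intro h1; by_contra h2; push Not at h2
      have := mul_pos hs h2; linarith
    · intro h1; exact mul_nonpos_of_nonneg_of_nonpos hs.le h1
  have hcov : (T.V p : Set E)ᶜ ⊆ U ∪ W := by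
    intro v _
    obtain ⟨s, hs, hs'⟩ := hstep v
    obtain ⟨i, hi⟩ := T.cov _ (hO hs')
    have hi' : i ∈ T.at_ p := (hb _ hs').1 hi
    have hvi : v ∈ cone i := (hmem v s hs hs' i hi').1 hi
    by_cases hiA : i ∈ A
    · left; exact mem_biUnion (⟨hi', hiA⟩ : i ∈ T.at_ p ∩ A) hvi
    · right; exact mem_biUnion (⟨hi', hiA⟩ : i ∈ T.at_ p \ A) hvi
  -- interior directions of a tile are outside `V p`
  have hdir : ∀ i ∈ T.at_ p, ∃ v ∈ cone i, v ∉ T.V p := by
    intro i hi
    obtain ⟨z, hz⟩ := T.ne i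
    obtain ⟨h, hh, he⟩ := exists_active T hp (by omega) hi
    refine ⟨z - p, ?_, ?_⟩
    · intro g hg hge
      have := hz g hg
      rw [map_sub, hge]; linarith
    · intro hcon
      have h1 := hcon i hi h hh he
      have h2 := hz h hh
      rw [map_sub, he] at h1
      linarith
  have hcodim : 1 < Module.rank ℝ (E ⧸ T.V p) := by
    rw [← Module.finrank_eq_rank]
    have h1 := Submodule.finrank_quotient_add_finrank (T.V p)
    have h2 : Module.finrank ℝ (T.V p) = 1 := hd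
    have h4 : Module.finrank ℝ (E ⧸ T.V p) = 2 := by omega
    rw [h4]; norm_num
  have hconn := (isConnected_compl_of_one_lt_codim hcodim).isPreconnected
  rw [isPreconnected_closed_iff] at hconn
  obtain ⟨v1, hv1, hv1V⟩ := hdir q hq
  obtain ⟨v2, hv2, hv2V⟩ := hdir q' hq'
  obtain ⟨v, hvV, hvU, hvW⟩ := hconn U W hUc hWc hcov
    ⟨v1, hv1V, mem_biUnion (⟨hq, hqA⟩ : q ∈ T.at_ p ∩ A) hv1⟩
    ⟨v2, hv2V, mem_biUnion (⟨hq', hq'A⟩ : q' ∈ T.at_ p \ A) hv2⟩
  rw [hU, mem_iUnion₂] at hvU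
  rw [hW, mem_iUnion₂] at hvW
  obtain ⟨k, ⟨hk, hkA⟩, hvk⟩ := hvU
  obtain ⟨l, ⟨hl, hlA⟩, hvl⟩ := hvW
  obtain ⟨s, hs, hs'⟩ := hstep v
  set x := p + s • v with hx
  have hxO : x ∈ Om := hO hs'
  have hkx : k ∈ T.at_ x := (hmem v s hs hs' k hk).2 hvk
  have hlx : l ∈ T.at_ x := (hmem v s hs hs' l hl).2 hvl
  have hkl : k ≠ l := fun e => hlA (e ▸ hkA)
  have hpcc : p ∈ T.cc x := mem_cc_of_good T hb hs'
  have hd1 : T.dim p < T.dim x := by
    refine T.dim_lt hpcc fun hcon => ?_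
    have h4 : T.cc p = T.cc x := T.cc_eq_of_mem_oc hxO hcon
    have h5 : x ∈ T.cc p := by rw [h4]; exact T.self_mem_cc x
    have h6 := T.sub_mem_V h5
    rw [hx, add_sub_cancel_left] at h6
    have h7 := (T.V p).smul_mem s⁻¹ h6
    rw [smul_smul, inv_mul_cancel₀ hs.ne', one_smul] at h7
    exact hvV h7
  have hnI : x ∉ I (T.H k) := by
    intro h4
    have h5 := T.at_eq_singleton h4
    rw [h5, mem_singleton_iff] at hlx
    exact hkl hlx.symm
  have hd2 := dim_lt_finrank T hxO hkx hnI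
  have hdx : T.dim x = 2 := by omega
  obtain ⟨i, j, hij, hat, -⟩ := T.two_tiles hxO (by omega)
  have hkl' : T.at_ x = {k, l} := by
    rw [hat] at hkx hlx ⊢
    simp only [mem_insert_iff, mem_singleton_iff] at hkx hlx
    rcases hkx with rfl | rfl <;> rcases hlx with rfl | rfl
    · exact absurd rfl hkl
    · rfl
    · exact pair_comm _ _
    · exact absurd rfl hkl
  exact hlA (hA k hkA l x hxO hdx hpcc hkl')

end Crest.Agent.R096.Agl3_543
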