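import Crest.Agent.R096.Pb1_715
import Crest.Agent.R096.Msh2_715
import Crest.Agent.R096.Ce2_537

/-!
# R096 (row 96), MESH, part 3: cells of a tiling are PL balls; the complex of a tiling (helper715)

`isBall_cell`: `IsBall (T.dim x) (T.cc x) (T.cc x \ T.oc x)`.
`cplx`: the cells of a tiling of `Om`, ordered by inclusion, are a `Cplx` of 537.
`isBall_P`: a nonempty compact polyhedron `P H` is a PL ball.
-/

set_option autoImplicit false

open Set Metric Module
open scoped Classical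

namespace Crest.Agent.R096.Msh_715

open Ce_537 Pb_715

variable {E : Type*} [NormedAddCommGroup E] [NormedSpace ℝ E]

section poly

variable (H : Finset ((E →L[ℝ] ℝ) × ℝ))

/-- the direction space of the face of `P H` with `x` in its relative interior -/
def dirP (x : E) : Submodule ℝ E where
  carrier := {v | ∀ h ∈ H, h.1 x = h.2 → h.1 v = 0}
  zero_mem' := by intro h _ _; exact map_zero _
  add_mem' := by
    intro a b ha hb h hh e
    rw [map_add, ha h hh e, hb h hh e, add_zero]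
  smul_mem' := by
    intro c a ha h hh e
    rw [map_smul, ha h hh e, smul_zero]

theorem mem_dirP {x v : E} : v ∈ dirP H x ↔ ∀ h ∈ H, h.1 x = h.2 → h.1 v = 0 := Iff.rfl

/-- the normalised inactive forms -/
noncomputable def nf (x : E) : Finset (E →L[ℝ] ℝ) :=
  (H.filter fun h => h.1 x < h.2).image fun h => (h.2 - h.1 x)⁻¹ • h.1

/-- the smallest face containing `x` of `P H` -/
def fc (x : E) : Set E := {y | ∀ h ∈ H, h.1 y ≤ h.2 ∧ (h.1 x = h.2 → h.1 y = h.2)}

/-- its relative interior -/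
def fo (x : E) : Set E := {y | ∀ h ∈ H, h.1 y ≤ h.2 ∧ (h.1 y = h.2 ↔ h.1 x = h.2)}

theorem nf_le_iff {x y : E} {h : (E →L[ℝ] ℝ) × ℝ} (e : h.1 x < h.2) :
    ((h.2 - h.1 x)⁻¹ • h.1) (y - x) ≤ 1 ↔ h.1 y ≤ h.2 := by
  have h0 : 0 < h.2 - h.1 x := sub_pos.2 e
  rw [smul_apply, map_sub, smul_eq_mul, inv_mul_le_iff₀ h0, mul_one]
  constructor <;> intro h1 <;> linarith

theorem nf_eq_iff {x y : E} {h : (E →L[ℝ] ℝ) × ℝ} (e : h.1 x < h.2) :
    ((h.2 - h.1 x)⁻¹ • h.1) (y - x) = 1 ↔ h.1 y = h.2 := by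
  have h0 : 0 < h.2 - h.1 x := sub_pos.2 e
  rw [smul_apply, map_sub, smul_eq_mul, inv_mul_eq_iff_eq_mul₀ h0.ne', mul_one]
  constructor <;> intro h1 <;> linarith

/-- **every compact face of a polyhedron is a PL ball** -/
theorem isBall_fc [FiniteDimensional ℝ E] {x : E} (hx : x ∈ P H)
    (hb : Bornology.IsBounded (fc H x)) :
    IsBall (finrank ℝ (dirP H x)) (fc H x) (fc H x \ fo H x) := by
  refine isBall_core x (dirP H x) (nf H x) (fun y => ?_) (fun y => ?_) hb
  · constructor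
    · intro hy
      refine ⟨fun h hh e => by rw [map_sub, (hy h hh).2 e, e, sub_self], fun l hl => ?_⟩
      obtain ⟨h, hh, rfl⟩ := Finset.mem_image.1 hl
      rw [Finset.mem_filter] at hh
      exact (nf_le_iff hh.2).2 (hy h hh.1).1
    · rintro ⟨h1, h2⟩ h hh
      rcases (hx h hh).eq_or_lt with e | e
      · have h3 := h1 h hh e
        rw [map_sub, sub_eq_zero, e] at h3
        exact ⟨h3.le, fun _ => h3⟩
      · exact ⟨(nf_le_iff e).1 (h2 _ (Finset.mem_image_of_mem _ (Finset.mem_filter.2 ⟨hh, e⟩))),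
          fun e' => absurd e' e.ne⟩
  · constructor
    · rintro ⟨hy, hn⟩
      refine ⟨hy, ?_⟩
      have : ∃ h ∈ H, ¬ (h.1 y ≤ h.2 ∧ (h.1 y = h.2 ↔ h.1 x = h.2)) := by
        by_contra hcon
        push Not at hcon
        exact hn fun h hh => by
          have := hcon h hh
          tauto
      obtain ⟨h, hh, hne⟩ := this
      have h1 := hy h hh
      have h2 : h.1 y = h.2 := by
        by_contra h3
        exact hne ⟨h1.1, fun e => absurd e h3, h1.2⟩
      have h3 : h.1 x < h.2 := lt_of_le_of_ne (hx h hh) fun e => hne ⟨h1.1, fun _ => e, h1.2⟩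
      exact ⟨_, Finset.mem_image_of_mem _ (Finset.mem_filter.2 ⟨hh, h3⟩), (nf_eq_iff h3).2 h2⟩
    · rintro ⟨hy, l, hl, e⟩
      refine ⟨hy, fun ho => ?_⟩
      obtain ⟨h, hh, rfl⟩ := Finset.mem_image.1 hl
      rw [Finset.mem_filter] at hh
      have h1 := (nf_eq_iff hh.2).1 e
      exact hh.2.ne ((ho h hh.1).2.1 h1)

/-- a relative interior point of a nonempty polyhedron -/
theorem exists_relint (hne : (P H).Nonempty) :
    ∃ x ∈ P H, ∀ h ∈ H, h.1 x = h.2 → ∀ y ∈ P H, h.1 y = h.2 := by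
  -- induction: a point which is good for all `h` of a subset
  have key : ∀ S : Finset ((E →L[ℝ] ℝ) × ℝ), S ⊆ H →
      ∃ x ∈ P H, ∀ h ∈ S, h.1 x = h.2 → ∀ y ∈ P H, h.1 y = h.2 := by
    intro S
    induction S using Finset.induction_on with
    | empty =>
      intro _
      obtain ⟨x, hx⟩ := hne
      exact ⟨x, hx, by simp⟩
    | insert a S ha ih =>
      intro hS
      obtain ⟨x, hx, hxS⟩ := ih ((Finset.subset_insert a S).trans hS)
      by_cases hg : ∀ y ∈ P H, a.1 y = a.2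
      · refine ⟨x, hx, fun h hh e => ?_⟩
        rcases Finset.mem_insert.1 hh with rfl | hh
        · exact hg
        · exact hxS h hh e
      · push Not at hg
        obtain ⟨y, hy, hay⟩ := hg
        have haH : a ∈ H := hS (Finset.mem_insert_self a S)
        have mid : ∀ h : (E →L[ℝ] ℝ) × ℝ, h.1 ((1 / 2 : ℝ) • x + (1 / 2 : ℝ) • y) =
            1 / 2 * h.1 x + 1 / 2 * h.1 y := fun h => by
          simp only [map_add, map_smul, smul_eq_mul]
        refine ⟨(1 / 2 : ℝ) • x + (1 / 2 : ℝ) • y, fun h hh => ?_, fun h hh e => ?_⟩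
        · rw [mid]
          have h1 := hx h hh
          have h2 := hy h hh
          linarith
        · rw [mid] at e
          have h1 := hx h (hS hh)
          have h2 := hy h (hS hh)
          rcases Finset.mem_insert.1 hh with rfl | hh
          · exact absurd (by linarith) hay
          · exact hxS h hh (by linarith)
  obtain ⟨x, hx, h⟩ := key H Finset.Subset.rfl
  exact ⟨x, hx, h⟩

theorem fc_eq_P {x : E} (hri : ∀ h ∈ H, h.1 x = h.2 → ∀ y ∈ P H, h.1 y = h.2) :
    fc H x = P H := by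
  ext y
  constructor
  · intro hy h hh
    exact (hy h hh).1
  · intro hy h hh
    exact ⟨hy h hh, fun e => hri h hh e y hy⟩

/-- **nonempty compact polyhedra are PL balls** -/
theorem isBall_P [FiniteDimensional ℝ E] (hc : IsCompact (P H)) {x : E} (hx : x ∈ P H)
    (hri : ∀ h ∈ H, h.1 x = h.2 → ∀ y ∈ P H, h.1 y = h.2) :
    IsBall (finrank ℝ (dirP H x)) (P H) {y ∈ P H | ∃ h ∈ H, h.1 y = h.2 ∧ h.1 x < h.2} := by
  have e := fc_eq_P H hri
  have h1 := isBall_fc H hx (by rw [e]; exact hc.isBounded)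
  rw [e] at h1
  have e2 : P H \ fo H x = {y ∈ P H | ∃ h ∈ H, h.1 y = h.2 ∧ h.1 x < h.2} := by
    ext y
    constructor
    · rintro ⟨hy, hn⟩
      refine ⟨hy, ?_⟩
      by_contra hcon
      push Not at hcon
      exact hn fun h hh => ⟨hy h hh, fun e1 => le_antisymm (hx h hh) (hcon h hh e1),
        fun e1 => hri h hh e1 y hy⟩
    · rintro ⟨hy, h, hh, e1, e2⟩
      exact ⟨hy, fun ho => e2.ne ((ho h hh).2.1 e1)⟩
  rwa [e2] at h1

/-- a polyhedron with interior is a ball of full dimension, its boundary sphere is `P H \ I H` -/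
theorem isBall_P_top [FiniteDimensional ℝ E] (hc : IsCompact (P H)) (hI : (I H).Nonempty) :
    IsBall (finrank ℝ E) (P H) (P H \ I H) := by
  obtain ⟨x, hx⟩ := hI
  have h1 := isBall_P H hc (I_sub_P H hx) (fun h hh e => absurd e (hx h hh).ne)
  have e1 : dirP H x = ⊤ := by
    rw [eq_top_iff]
    intro v _ h hh e
    exact absurd e (hx h hh).ne
  have e2 : {y ∈ P H | ∃ h ∈ H, h.1 y = h.2 ∧ h.1 x < h.2} = P H \ I H := by
    ext y
    constructor
    · rintro ⟨hy, h, hh, e, -⟩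
      exact ⟨hy, fun hI => (hI h hh).ne e⟩
    · rintro ⟨hy, hn⟩
      refine ⟨hy, ?_⟩
      by_contra hcon
      push Not at hcon
      exact hn fun h hh => lt_of_le_of_ne (hy h hh) fun e =>
        absurd (hx h hh) (not_lt.2 (hcon h hh e))
  rw [e1, e2, finrank_top] at h1
  exact h1

end poly

namespace Tiling

variable {Om : Set E} {ι : Type*} (T : Tiling Om ι)

/-- all inequalities of the tiles through `x` -/
noncomputable def Hx {x : E} (hx : x ∈ Om) : Finset ((E →L[ℝ] ℝ) × ℝ) :=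
  (T.at_finite hx).toFinset.biUnion T.H

theorem mem_Hx {x : E} (hx : x ∈ Om) {h : (E →L[ℝ] ℝ) × ℝ} :
    h ∈ T.Hx hx ↔ ∃ i ∈ T.at_ x, h ∈ T.H i := by
  simp [Hx]

theorem fc_Hx {x : E} (hx : x ∈ Om) : fc (T.Hx hx) x = T.cc x := by
  ext y
  constructor
  · intro hy i hi h hh
    exact hy h ((T.mem_Hx hx).2 ⟨i, hi, hh⟩)
  · intro hy h hh
    obtain ⟨i, hi, hh⟩ := (T.mem_Hx hx).1 hh
    exact hy i hi h hh

theorem fo_Hx {x : E} (hx : x ∈ Om) : fo (T.Hx hx) x = T.oc x := by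
  ext y
  constructor
  · intro hy i hi h hh
    exact hy h ((T.mem_Hx hx).2 ⟨i, hi, hh⟩)
  · intro hy h hh
    obtain ⟨i, hi, hh⟩ := (T.mem_Hx hx).1 hh
    exact hy i hi h hh

theorem dirP_Hx {x : E} (hx : x ∈ Om) : dirP (T.Hx hx) x = T.V x := by
  ext y
  constructor
  · intro hy i hi h hh
    exact hy h ((T.mem_Hx hx).2 ⟨i, hi, hh⟩)
  · intro hy h hh
    obtain ⟨i, hi, hh⟩ := (T.mem_Hx hx).1 hh
    exact hy i hi h hh

/-- **the cells of a tiling are PL balls** -/
theorem isBall_cell [FiniteDimensional ℝ E] {x : E} (hx : x ∈ Om) :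
    IsBall (T.dim x) (T.cc x) (T.cc x \ T.oc x) := by
  have h1 : x ∈ P (T.Hx hx) := by
    intro h hh
    obtain ⟨i, hi, hh⟩ := (T.mem_Hx hx).1 hh
    exact hi h hh
  have h2 := isBall_fc (T.Hx hx) h1 (by rw [T.fc_Hx hx]; exact (T.isCompact_cc hx).isBounded)
  rw [T.fc_Hx hx, T.fo_Hx hx, T.dirP_Hx hx] at h2
  exact h2

/-! ### the complex -/

/-- the cells -/
def Cell : Type _ := {c : Set E // ∃ x ∈ Om, c = T.cc x}

instance : PartialOrder T.Cell := Subtype.partialOrder _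

/-- the underlying set -/
def Cell.set {T : Tiling Om ι} (c : T.Cell) : Set E := c.1

/-- the cell of a point -/
def cl {x : E} (hx : x ∈ Om) : T.Cell := ⟨T.cc x, x, hx, rfl⟩

/-- a point in the relative interior -/
noncomputable def Cell.pt {T : Tiling Om ι} (c : T.Cell) : E := c.2.choose

theorem Cell.pt_mem {T : Tiling Om ι} (c : T.Cell) : c.pt ∈ Om := c.2.choose_spec.1

theorem Cell.set_eq {T : Tiling Om ι} (c : T.Cell) : c.set = T.cc c.pt := c.2.choose_spec.2

/-- the dimension of a cell -/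
noncomputable def Cell.dim {T : Tiling Om ι} (c : T.Cell) : ℕ := T.dim c.pt

/-- the open cell -/
def Cell.opn {T : Tiling Om ι} (c : T.Cell) : Set E := T.oc c.pt

theorem Cell.le_def {T : Tiling Om ι} {c d : T.Cell} : c ≤ d ↔ c.set ⊆ d.set := Iff.rfl

theorem Cell.ext {T : Tiling Om ι} {c d : T.Cell} (h : c.set = d.set) : c = d := Subtype.ext h

theorem cl_set {x : E} (hx : x ∈ Om) : (T.cl hx).set = T.cc x := rfl

theorem eq_cl {c : T.Cell} {x : E} (hx : x ∈ Om) (h : x ∈ c.opn) : c = T.cl hx :=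
  Cell.ext (by rw [c.set_eq, cl_set]; exact (T.cc_eq_of_mem_oc c.pt_mem h).symm)

theorem pt_cl {x : E} (hx : x ∈ Om) : (T.cl hx).pt ∈ T.oc x :=
  (T.cc_eq_iff hx).1 ((T.cl hx).set_eq.symm.trans (T.cl_set hx))

theorem dim_cl {x : E} (hx : x ∈ Om) : (T.cl hx).dim = T.dim x :=
  T.dim_eq_of_mem_oc hx (T.pt_cl hx)

theorem opn_cl {x : E} (hx : x ∈ Om) : (T.cl hx).opn = T.oc x := T.oc_eq_of_mem hx (T.pt_cl hx)

theorem Cell.opn_sub {T : Tiling Om ι} (c : T.Cell) : c.opn ⊆ c.set := by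
  rw [c.set_eq]; exact T.oc_sub_cc _

theorem Cell.lt_iff {T : Tiling Om ι} {c d : T.Cell} :
    c < d ↔ c.pt ∈ d.set ∧ c.pt ∉ d.opn := by
  rw [lt_iff_le_and_ne, Cell.le_def, c.set_eq, d.set_eq]
  constructor
  · rintro ⟨h1, h2⟩
    refine ⟨h1 (T.self_mem_cc _), fun h3 => h2 (Cell.ext ?_)⟩
    rw [c.set_eq, d.set_eq]
    exact T.cc_eq_of_mem_oc d.pt_mem h3
  · rintro ⟨h1, h2⟩
    refine ⟨T.cc_sub_of_mem h1, fun h3 => h2 ?_⟩
    rw [h3]
    exact T.self_mem_oc _

/-- the boundary of a cell is the union of the smaller cells -/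
theorem Cell.bdry {T : Tiling Om ι} (c : T.Cell) :
    c.set \ c.opn = ⋃ d ∈ {d : T.Cell | d < c}, d.set := by
  ext y
  simp only [mem_iUnion, mem_ofPred_eq, exists_prop]
  constructor
  · rintro ⟨h1, h2⟩
    have hy : y ∈ Om := by
      rw [c.set_eq] at h1
      exact T.cc_sub_Om c.pt_mem h1
    refine ⟨T.cl hy, Cell.lt_iff.2 ?_, T.self_mem_cc y⟩
    have h3 := T.pt_cl hy
    rw [c.set_eq] at h1
    constructor
    · rw [c.set_eq]
      exact T.cc_sub_of_mem h1 (T.oc_sub_cc y h3)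
    · intro h4
      apply h2
      have e1 := T.oc_eq_of_mem hy h3
      have e2 := T.oc_eq_of_mem c.pt_mem h4
      show y ∈ T.oc c.pt
      rw [← e2, e1]
      exact T.self_mem_oc y
  · rintro ⟨d, hd, hy⟩
    obtain ⟨h1, h2⟩ := Cell.lt_iff.1 hd
    refine ⟨Cell.le_def.1 hd.le hy, fun h3 => ?_⟩
    rw [d.set_eq] at hy
    rw [c.set_eq] at h1
    exact (Set.disjoint_left.1 (T.disjoint_oc_cc c.pt_mem h1 h2)) h3 hy

/-- 537's open cell is the open cell -/
theorem opn_iff {c : T.Cell} {x : E} : Opn (fun c : T.Cell => c.set) c x ↔ x ∈ c.opn := by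
  have h1 : x ∈ c.set \ c.opn ↔ ∃ d < c, x ∈ d.set := by
    rw [Cell.bdry]
    simp only [mem_iUnion, mem_ofPred_eq, exists_prop]
  constructor
  · rintro ⟨h2, h3⟩
    by_contra h4
    obtain ⟨d, hd, hx⟩ := h1.1 ⟨h2, h4⟩
    exact h3 d hd hx
  · intro h
    refine ⟨c.opn_sub h, fun d hd hx => ?_⟩
    exact (h1.2 ⟨d, hd, hx⟩).2 h

/-- **the complex of a tiling** -/
theorem cplx [FiniteDimensional ℝ E] :
    Cplx Om T.Cell (fun c => c.dim) (fun c => c.set) where
  isBall c := by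
    rw [← Cell.bdry, c.set_eq]
    exact T.isBall_cell c.pt_mem
  mono c d h := by
    obtain ⟨h1, h2⟩ := Cell.lt_iff.1 h
    rw [c.set_eq] at h1
    exact T.dim_lt h1 h2
  disj c d x h1 h2 := by
    rw [opn_iff] at h1 h2
    have hx : x ∈ Om := by
      have := c.opn_sub h1
      rw [c.set_eq] at this
      exact T.cc_sub_Om c.pt_mem this
    rw [T.eq_cl hx h1, T.eq_cl hx h2]
  sub c := by
    show c.set ⊆ Om
    rw [c.set_eq]
    exact T.cc_sub_Om c.pt_mem
  cover x hx := ⟨T.cl hx, T.self_mem_cc x⟩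
  lf x hx := by
    have : ProperSpace E := FiniteDimensional.proper ℝ E
    obtain ⟨r, hr, hf⟩ := T.lf_cells hx
    refine ⟨r, hr, Set.Finite.of_finite_image (f := Subtype.val) (hf.subset ?_)
      (Subtype.val_injective.injOn)⟩
    rintro _ ⟨c, hc, rfl⟩
    exact ⟨c.2, hc⟩

end Tiling

end Crest.Agent.R096.Msh_715
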