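import Mathlib

/-!
# R096 / P3: the combinatorial STATE of a pair problem (two colours of disjoint sheets over a mesh)

* `MeshC`  : cells `ι`, faces `Φ`, candidates `W` for the crossing points with the 1-skeleton.
* `St`     : a tight state: crossing points `P`, names `lab` of sheets, partners `mu F w` on faces.
* `H1`, `Conn` : tile free forms of "the sheet has `H¹ = 0`" and "the sheet is connected".
* `Dbl`    : double points = interlaced pairs of chords of different colours on a face.
* `Sub`    : sub-chords (pieces of a chord between consecutive double points).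
* `Arcs`   : double arcs in the active cells, non crossing on every tile.
* `Good`   : frozen part (`far`), `P3` : the theorem to be proved.
-/

set_option autoImplicit false

namespace Crest.Agent.R096.St_147

/-- Combinatorial mesh near a pair problem.  `On F` = the candidate points on `∂F`,
`pos F` = their position on the circle `∂F` cut at a base point. -/
structure MeshC (ι Φ W : Type) where
  side : Φ → Sym2 ι
  side_nd : ∀ F, ¬ (side F).IsDiag
  On : Φ → Set W
  pos : Φ → W → ℝ
  pos_inj : ∀ F, Set.InjOn (pos F) (On F)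
  /-- a cell containing `w` has exactly two faces at `w` -/
  deg : ∀ (q : ι) (w : W), {F | q ∈ side F ∧ w ∈ On F}.ncard = 0 ∨
    {F | q ∈ side F ∧ w ∈ On F}.ncard = 2
  fin : ∀ w, {F | w ∈ On F}.Finite
  /-- the cells at `w` are connected through the faces at `w` -/
  link : ∀ (w : W) (A : Set ι), (∀ F, w ∈ On F → ∀ q ∈ side F, ∀ q' ∈ side F, q ∈ A → q' ∈ A) →
    ∀ F, w ∈ On F → ∀ q ∈ side F, q ∈ A → ∀ F', w ∈ On F' → ∀ q' ∈ side F', q' ∈ A

variable {ι Φ W : Type}

/-- `x` is between `u` and `v` on `∂F` (cut open) -/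
def MeshC.Btw (M : MeshC ι Φ W) (F : Φ) (u v x : W) : Prop :=
  (M.pos F u < M.pos F x ∧ M.pos F x < M.pos F v) ∨
    (M.pos F v < M.pos F x ∧ M.pos F x < M.pos F u)

/-- the pairs `{u,v}` and `{x,y}` are interlaced on `∂F` (used for four different points) -/
def MeshC.Lace (M : MeshC ι Φ W) (F : Φ) (u v x y : W) : Prop :=
  ¬ (M.Btw F u v x ↔ M.Btw F u v y)

/-- A tight state.  `I` = names of the sheets, `col` their colour. -/
structure St (M : MeshC ι Φ W) {I : Type} (col : I → Bool) where
  P : Finset W
  lab : W → I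
  mu : Φ → W → W
  mu_mem : ∀ {F : Φ} {w : W}, w ∈ P → w ∈ M.On F → mu F w ∈ P ∧ mu F w ∈ M.On F
  mu_ne : ∀ {F : Φ} {w : W}, w ∈ P → w ∈ M.On F → mu F w ≠ w
  mu_mu : ∀ {F : Φ} {w : W}, w ∈ P → w ∈ M.On F → mu F (mu F w) = w
  mu_lab : ∀ {F : Φ} {w : W}, w ∈ P → w ∈ M.On F → lab (mu F w) = lab w
  /-- chords of the same colour do not interlace -/
  nc : ∀ {F : Φ} {w x : W}, w ∈ P → w ∈ M.On F → x ∈ P → x ∈ M.On F →
    col (lab w) = col (lab x) → x ≠ w → x ≠ mu F w → ¬ M.Lace F w (mu F w) x (mu F x)

variable {M : MeshC ι Φ W} {I : Type} {col : I → Bool}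

namespace St

/-- `w` is a point of the state on the face `F` -/
def At (s : St M col) (F : Φ) (w : W) : Prop := w ∈ s.P ∧ w ∈ M.On F

/-- `H¹ = 0` of the sheet `i` (tile free form): a function on the chords which is a coboundary on
the boundary of every cell is a coboundary. -/
def H1 (s : St M col) (i : I) : Prop :=
  ∀ κ : Φ → W → ZMod 2,
    (∀ q : ι, ∃ ψ : W → ZMod 2, ∀ F w, q ∈ M.side F → s.At F w → s.lab w = i →
      κ F w = ψ w + ψ (s.mu F w)) →
    ∃ Ψ : W → ZMod 2, ∀ F w, s.At F w → s.lab w = i → κ F w = Ψ w + Ψ (s.mu F w)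

/-- the sheet `i` is connected and not empty -/
def Conn (s : St M col) (i : I) : Prop :=
  (∃ w ∈ s.P, s.lab w = i) ∧
  ∀ X : Set W, (∀ F w, w ∈ X → s.At F w → s.lab w = i → s.mu F w ∈ X) →
    ∀ w ∈ X, w ∈ s.P → s.lab w = i → ∀ w' ∈ s.P, s.lab w' = i → w' ∈ X

/-- lower end point of the chord of `w` on `F` -/
noncomputable def lo (s : St M col) (F : Φ) (w : W) : W :=
  if M.pos F w ≤ M.pos F (s.mu F w) then w else s.mu F w

/-- upper end point of the chord of `w` on `F` -/
noncomputable def up (s : St M col) (F : Φ) (w : W) : W :=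
  if M.pos F w ≤ M.pos F (s.mu F w) then s.mu F w else w

/-- Double points: a face `F`, the lower end point `e true` of a chord of colour `true` and the
lower end point `e false` of a chord of colour `false`, interlaced. -/
structure Dbl (s : St M col) where
  F : Φ
  e : Bool → W
  at_ : ∀ x, s.At F (e x)
  low : ∀ x, M.pos F (e x) < M.pos F (s.mu F (e x))
  colr : ∀ x, col (s.lab (e x)) = x
  lace : M.Lace F (e true) (s.mu F (e true)) (e false) (s.mu F (e false))

/-- the end point of the other chord (colour `!x`) which lies between the end points of the chord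
of colour `x`: it gives the position of the double point along the chord of colour `x`. -/
noncomputable def Dbl.key {s : St M col} (z : s.Dbl) (x : Bool) : ℝ :=
  by
    classical
    exact if M.Btw z.F (z.e x) (s.mu z.F (z.e x)) (z.e (!x)) then M.pos z.F (z.e (!x))
      else M.pos z.F (s.mu z.F (z.e (!x)))

/-- the chord `(F,w)` has no double point -/
def Free (s : St M col) (F : Φ) (w : W) : Prop :=
  ∀ z : s.Dbl, z.F = F → ∀ x, z.e x ≠ s.lo F w

/-- Sub-chords of colour `x`: `inl (F,w)`, `w` a lower end point: the first piece of the chord;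
`inr z` : the piece just above the double point `z` on the chord of colour `x`. -/
def Sub (s : St M col) (x : Bool) : Type :=
  {p : Φ × W // s.At p.1 p.2 ∧ M.pos p.1 p.2 < M.pos p.1 (s.mu p.1 p.2) ∧
    col (s.lab p.2) = x} ⊕ s.Dbl

/-- `z'` is the next double point above `z` on the chord of colour `x` -/
def Dbl.Next {s : St M col} (x : Bool) (z z' : s.Dbl) : Prop :=
  z'.F = z.F ∧ z'.e x = z.e x ∧ z.key x < z'.key x ∧
    ∀ u : s.Dbl, u.F = z.F → u.e x = z.e x → ¬ (z.key x < u.key x ∧ u.key x < z'.key x)

/-- the sub-chord `p` ends (above) at the double point `z` -/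
def Sub.Below {s : St M col} {x : Bool} (p : s.Sub x) (z : s.Dbl) : Prop :=
  match p with
  | .inl a => a.1.1 = z.F ∧ a.1.2 = z.e x ∧ ∀ u : s.Dbl, u.F = z.F → u.e x = z.e x →
      ¬ (u.key x < z.key x)
  | .inr y => Dbl.Next x y z

/-- the sub-chord `p` starts (below) at the double point `z` -/
def Sub.Above {s : St M col} {x : Bool} (p : s.Sub x) (z : s.Dbl) : Prop := p = Sum.inr z

/-- the sub-chord `p` lies on the chord of `w` on `F` and contains its end point `w` -/
def Sub.End {s : St M col} {x : Bool} (p : s.Sub x) (F : Φ) (w : W) : Prop :=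
  s.At F w ∧ ((M.pos F w < M.pos F (s.mu F w) ∧ ∃ a, p = Sum.inl a ∧ a.1 = (F, w)) ∨
    (M.pos F (s.mu F w) < M.pos F w ∧
      match p with
      | .inl a => a.1 = (F, s.mu F w) ∧ ∀ u : s.Dbl, u.F = F → u.e x ≠ s.mu F w
      | .inr z => z.F = F ∧ z.e x = s.mu F w ∧
          ∀ u : s.Dbl, u.F = F → u.e x = s.mu F w → ¬ (z.key x < u.key x)))

/-- Double arcs in the active cells `Act`. -/
structure Arcs (s : St M col) (Act : Set ι) where
  arc : ι → s.Dbl → s.Dbl
  mem : ∀ {q : ι} {z : s.Dbl}, q ∈ Act → q ∈ M.side z.F → q ∈ M.side (arc q z).F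
  ne : ∀ {q : ι} {z : s.Dbl}, q ∈ Act → q ∈ M.side z.F → arc q z ≠ z
  inv : ∀ {q : ι} {z : s.Dbl}, q ∈ Act → q ∈ M.side z.F → arc q (arc q z) = z
  /-- both ends on the same tile, non crossing: a function on the sub-chords of `∂q` which is
  continuous at the points of `P`, jumps exactly at the two ends `z`, `arc q z` of the arc, and
  has the same value at both ends of every other arc. -/
  side : ∀ {q : ι} {z : s.Dbl} (x : Bool), q ∈ Act → q ∈ M.side z.F →
    ∃ φ : s.Sub x → ZMod 2,
      (∀ (F F' : Φ) (w : W) (p p' : s.Sub x), q ∈ M.side F → q ∈ M.side F' →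
        p.End F w → p'.End F' w → φ p = φ p') ∧
      (∀ (u : s.Dbl) (p p' : s.Sub x), q ∈ M.side u.F → p.Below u → p'.Above u →
        ((φ p ≠ φ p') ↔ (u = z ∨ u = arc q z))) ∧
      (∀ (u : s.Dbl), q ∈ M.side u.F → u ≠ z → u ≠ arc q z →
        φ (Sum.inr u) = φ (Sum.inr (arc q u)))
  /-- both ends of an arc lie on the same tile (colour `x`): functions on the sub-chords of `∂q`
  without any jump have the same value at the two ends. -/
  same : ∀ {q : ι} {z : s.Dbl} (x : Bool), q ∈ Act → q ∈ M.side z.F →
    ∀ φ : s.Sub x → ZMod 2,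
      (∀ (F F' : Φ) (w : W) (p p' : s.Sub x), q ∈ M.side F → q ∈ M.side F' →
        p.End F w → p'.End F' w → φ p = φ p') →
      (∀ (u : s.Dbl) (p p' : s.Sub x), q ∈ M.side u.F → p.Below u → p'.Above u → φ p = φ p') →
      φ (Sum.inr z) = φ (Sum.inr (arc q z))

/-- a closed set of double arcs: it never leaves the active cells -/
def Arcs.Closed {s : St M col} {Act : Set ι} (A : s.Arcs Act) (G : Set s.Dbl) : Prop :=
  ∀ z ∈ G, ∀ q ∈ M.side z.F, q ∈ Act ∧ A.arc q z ∈ G

/-- the face has an inactive side: its pattern never changes -/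
def Frozen (M : MeshC ι Φ W) (Act : Set ι) (F : Φ) : Prop := ∃ q ∈ M.side F, q ∉ Act

/-- Clauses which are kept by the exchange.  `far i` = marked points of the sheet `i`. -/
structure Good (s : St M col) (Act : Set ι) (far : I → Set W) : Prop where
  h1 : ∀ i, s.H1 i
  conn : ∀ i, s.Conn i
  far_mem : ∀ {i w}, w ∈ far i → w ∈ s.P ∧ s.lab w = i
  far_ne : ∀ i, (far i).Nonempty
  /-- points on frozen faces are marked -/
  far_frozen : ∀ {F w}, s.At F w → Frozen M Act F → w ∈ far (s.lab w)
  /-- the marked points of a sheet are connected by chords which are free or on frozen faces -/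
  far_conn : ∀ (i : I) (X : Set W),
    (∀ F w, w ∈ X → w ∈ far i → s.At F w → s.mu F w ∈ far i → (s.Free F w ∨ Frozen M Act F) →
      s.mu F w ∈ X) → ∀ w ∈ X, w ∈ far i → far i ⊆ X

end St

/-- **P3** (statement): there is a state on a subset of the old crossing points, with the same
frozen part, the same free chords with marked ends, the double points only on faces where sheets of
the same names had a double point before, and without closed double curves, whatever arcs are
chosen in the active cells. -/
def P3 : Prop :=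
  ∀ (ι Φ W I : Type) (M : MeshC ι Φ W) (col : I → Bool) (Act : Set ι), Act.Finite →
    ∀ (s₀ : St M col) (far : I → Set W), s₀.Good Act far →
    ∃ s : St M col, s.Good Act far ∧ s.P ⊆ s₀.P ∧
      -- frozen faces
      (∀ F w, St.Frozen M Act F → w ∈ M.On F → (w ∈ s.P ↔ w ∈ s₀.P)) ∧
      (∀ F w, St.Frozen M Act F → s₀.At F w → s.mu F w = s₀.mu F w) ∧
      -- free chords with marked ends are kept and stay free
      (∀ F w, s₀.At F w → w ∈ far (s₀.lab w) → s₀.mu F w ∈ far (s₀.lab w) → s₀.Free F w →
        s.mu F w = s₀.mu F w ∧ s.Free F w) ∧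
      -- double points: same face, same names as an old one
      (∀ z : s.Dbl, ∃ z₀ : s₀.Dbl, z₀.F = z.F ∧ ∀ x, s₀.lab (z₀.e x) = s.lab (z.e x)) ∧
      -- no closed double curve
      ∀ (A : s.Arcs Act) (G : Set s.Dbl), A.Closed G → G = ∅

end Crest.Agent.R096.St_147
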