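import Mathlib
import Crest.Agent.R096.Msh3_715
import Crest.Agent.R096.Agl1_543
import Crest.Agent.R096.Rad1_543
import Crest.Agent.R096.Agl3_543
import Crest.Agent.R096.Pat3_543
import Crest.Agent.R096.St1_147

/-! # A-STATE 1 (row 96, helper543): the combinatorial mesh of a three-dimensional tiling -/

set_option autoImplicit false
set_option linter.unusedSectionVars false

open Set Filter Topology Metric

namespace Crest.Agent.R096.Agl5_543

open Crest.Agent.R096.Msh_715 Crest.Agent.R096.Agl1_543 Crest.Agent.R096.Agl2_543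
  Crest.Agent.R096.Agl3_543 Crest.Agent.R096.Pat5_543 Crest.Agent.R096.St_147

variable {E : Type} [NormedAddCommGroup E] [NormedSpace ℝ E]
variable {Om : Set E} {ι : Type}

/-- the two-dimensional cells of a tiling -/
def C2 (T : Tiling Om ι) : Type := {c : T.Cell // c.dim = 2}

variable {T : Tiling Om ι}

/-- the closed set of points of a two-dimensional cell -/
def C2.set (F : C2 T) : Set E := F.1.set

/-- the relative boundary -/
def C2.bd (F : C2 T) : Set E := F.1.set \ F.1.opn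

/-- an interior point -/
noncomputable def C2.pt (F : C2 T) : E := F.1.pt

theorem C2.pt_mem (F : C2 T) : F.pt ∈ Om := F.1.pt_mem

theorem C2.dim_pt (F : C2 T) : T.dim F.pt = 2 := F.2

theorem C2.set_eq (F : C2 T) : F.set = T.cc F.pt := F.1.set_eq

theorem C2.bd_eq (F : C2 T) : F.bd = T.cc F.pt \ T.oc F.pt := by
  unfold C2.bd
  rw [F.1.set_eq]
  rfl

theorem C2.ext {F G : C2 T} (h : F.set = G.set) : F = G :=
  Subtype.ext (Tiling.Cell.ext h)

theorem C2.set_sub (F : C2 T) : F.set ⊆ Om := by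
  rw [F.set_eq]; exact T.cc_sub_Om F.pt_mem

theorem C2.bd_sub (F : C2 T) : F.bd ⊆ F.set := fun _ h => h.1

/-- the 2-cell of a point of dimension two -/
def mk2 (T : Tiling Om ι) {x : E} (hx : x ∈ Om) (hd : T.dim x = 2) : C2 T :=
  ⟨T.cl hx, by rw [T.dim_cl hx]; exact hd⟩

theorem mk2_set {x : E} (hx : x ∈ Om) (hd : T.dim x = 2) : (mk2 T hx hd).set = T.cc x := rfl

variable [FiniteDimensional ℝ E]

theorem C2.mem_bd_iff (F : C2 T) {y : E} (hy : y ∈ F.set) : y ∈ F.bd ↔ T.dim y ≤ 1 := by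
  rw [F.bd_eq]
  rw [F.set_eq] at hy
  constructor
  · rintro ⟨h1, h2⟩
    have := T.dim_lt h1 h2
    have := F.dim_pt
    omega
  · intro h1
    refine ⟨hy, fun h2 => ?_⟩
    have := T.dim_eq_of_mem_oc F.pt_mem h2
    have := F.dim_pt
    omega

/-- extreme points of closed cells are vertices -/
theorem dim_extreme (T : Tiling Om ι) {x v : E} (hx : x ∈ Om)
    (hv : v ∈ (T.cc x).extremePoints ℝ) : T.dim v = 0 := by
  have hvc : v ∈ T.cc x := hv.1
  have hvO : v ∈ Om := T.cc_sub_Om hx hvc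
  by_contra hd
  have hne : T.V v ≠ ⊥ := by
    intro h
    apply hd
    unfold Tiling.dim
    rw [h]
    exact finrank_bot ℝ E
  obtain ⟨d, hdV, hd0⟩ := Submodule.exists_mem_ne_zero_of_ne_bot hne
  obtain ⟨r, hr, hb⟩ := T.exists_ball_oc hvO
  have hn : 0 < ‖d‖ := norm_pos_iff.2 hd0
  set t : ℝ := r / (2 * ‖d‖) with ht
  have ht0 : 0 < t := by positivity
  have hnt : ‖t • d‖ < r := by
    rw [norm_smul, Real.norm_of_nonneg ht0.le, ht]
    have : r / (2 * ‖d‖) * ‖d‖ = r / 2 := by field_simp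
    rw [this]; linarith
  have h1 : v + t • d ∈ T.cc x :=
    T.cc_sub_of_mem hvc (T.oc_sub_cc v (hb _ ((T.V v).smul_mem _ hdV) hnt))
  have h2 : v + -(t • d) ∈ T.cc x := by
    refine T.cc_sub_of_mem hvc (T.oc_sub_cc v (hb _ ?_ ?_))
    · exact (T.V v).neg_mem ((T.V v).smul_mem _ hdV)
    · rw [norm_neg]; exact hnt
  have h3 : v ∈ openSegment ℝ (v + t • d) (v + -(t • d)) := by
    refine ⟨1 / 2, 1 / 2, by norm_num, by norm_num, by norm_num, ?_⟩
    module
  have h4 := hv.2 h1 h2 h3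
  have h5 : t • d = 0 := by
    have : v + t • d = v + 0 := by rw [add_zero]; exact h4
    exact add_left_cancel this
  rcases smul_eq_zero.1 h5 with h6 | h6
  · exact ht0.ne' h6
  · exact hd0 h6

/-- every closed cell has a vertex -/
theorem exists_vertex (T : Tiling Om ι) {x : E} (hx : x ∈ Om) : ∃ v ∈ T.cc x, T.dim v = 0 := by
  obtain ⟨v, hv⟩ := (T.isCompact_cc hx).extremePoints_nonempty ⟨x, T.self_mem_cc x⟩
  exact ⟨v, hv.1, dim_extreme T hx hv⟩

/-- a linear isomorphism of `ℂ` with the plane of a 2-cell, `-1` goes to a vertex -/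
theorem C2.exists_lin (F : C2 T) : ∃ L : ℂ ≃L[ℝ] T.V F.pt, ∃ v, v ∈ F.set ∧ T.dim v = 0 ∧
    ((L (-1) : T.V F.pt) : E) = v - F.pt := by
  obtain ⟨v, hv, hd⟩ := exists_vertex T F.pt_mem
  rw [← F.set_eq] at hv
  have hL : Nonempty (ℂ ≃L[ℝ] T.V F.pt) := ⟨ContinuousLinearEquiv.ofFinrankEq (by
    rw [Complex.finrank_real_complex]
    exact F.dim_pt.symm)⟩
  obtain ⟨L⟩ := hL
  have hmem : v - F.pt ∈ T.V F.pt := T.sub_mem_V (by rw [← F.set_eq]; exact hv)
  set z : ℂ := L.symm ⟨v - F.pt, hmem⟩ with hz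
  have hz0 : z ≠ 0 := by
    intro h
    have h1 : (⟨v - F.pt, hmem⟩ : T.V F.pt) = 0 := by
      have := congrArg L (hz.symm.trans h)
      rwa [L.apply_symm_apply, map_zero] at this
    have h2 : v - F.pt = 0 := congrArg Subtype.val h1
    have h4 : T.dim F.pt = 0 := by rw [← sub_eq_zero.1 h2]; exact hd
    have := F.dim_pt
    omega
  have hz1 : -z ≠ 0 := neg_ne_zero.2 hz0
  let m : ℂ ≃L[ℝ] ℂ := ContinuousLinearEquiv.equivOfInverse
    (ContinuousLinearMap.mul ℝ ℂ (-z)) (ContinuousLinearMap.mul ℝ ℂ (-z)⁻¹)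
    (fun w => by
      show (-z)⁻¹ * (-z * w) = w
      rw [← mul_assoc, inv_mul_cancel₀ hz1, one_mul])
    (fun w => by
      show -z * ((-z)⁻¹ * w) = w
      rw [← mul_assoc, mul_inv_cancel₀ hz1, one_mul])
  refine ⟨m.trans L, v, hv, hd, ?_⟩
  have h1 : (m.trans L) (-1) = L (-z * (-1)) := rfl
  rw [h1, show -z * (-1) = z by ring, hz, L.apply_symm_apply]

/-- a linear isomorphism of the plane of a 2-cell with `ℂ` -/
noncomputable def C2.lin (F : C2 T) : ℂ ≃L[ℝ] T.V F.pt := F.exists_lin.choose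

/-- the vertex of a 2-cell in the direction `-1` -/
noncomputable def C2.cut (F : C2 T) : E := F.exists_lin.choose_spec.choose

theorem C2.cut_mem (F : C2 T) : F.cut ∈ F.set := F.exists_lin.choose_spec.choose_spec.1

theorem C2.dim_cut (F : C2 T) : T.dim F.cut = 0 := F.exists_lin.choose_spec.choose_spec.2.1

theorem C2.lin_neg_one (F : C2 T) : ((F.lin (-1) : T.V F.pt) : E) = F.cut - F.pt :=
  F.exists_lin.choose_spec.choose_spec.2.2

theorem C2.cut_bd (F : C2 T) : F.cut ∈ F.bd :=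
  (F.mem_bd_iff F.cut_mem).2 (by rw [F.dim_cut]; exact Nat.zero_le _)

theorem C2.exists_disc (F : C2 T) : ∃ e : ℂ → E, IsDisc e F.set F.bd ∧
    ∀ z, ∃ t : ℝ, 0 < t ∧ e z = F.pt + t • ((F.lin z : T.V F.pt) : E) := by
  rw [F.set_eq, F.bd_eq]
  exact Rad1_543.isDisc_cell_radial T F.pt_mem F.lin

/-- a parametrisation of a 2-cell by the disc -/
noncomputable def C2.par (F : C2 T) : ℂ → E := F.exists_disc.choose

theorem C2.isDisc (F : C2 T) : IsDisc F.par F.set F.bd := F.exists_disc.choose_spec.1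

/-- the parametrisation is radial -/
theorem C2.par_radial (F : C2 T) (z : ℂ) :
    ∃ t : ℝ, 0 < t ∧ F.par z = F.pt + t • ((F.lin z : T.V F.pt) : E) :=
  F.exists_disc.choose_spec.2 z

/-- the inverse of the parametrisation -/
noncomputable def C2.inv (F : C2 T) (w : E) : ℂ := by
  classical
  exact if h : ∃ z ∈ closedBall (0 : ℂ) 1, F.par z = w then h.choose else 0

theorem C2.inv_mem (F : C2 T) {w : E} (hw : w ∈ F.set) :
    F.inv w ∈ closedBall (0 : ℂ) 1 ∧ F.par (F.inv w) = w := by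
  have h : ∃ z ∈ closedBall (0 : ℂ) 1, F.par z = w := by
    rw [← F.isDisc.img] at hw
    exact hw
  have e : F.inv w = h.choose := by
    unfold C2.inv
    rw [dif_pos h]
  rw [e]
  exact h.choose_spec

theorem C2.inv_par (F : C2 T) {z : ℂ} (hz : z ∈ closedBall (0 : ℂ) 1) : F.inv (F.par z) = z := by
  have hm : F.par z ∈ F.set := by rw [← F.isDisc.img]; exact mem_image_of_mem _ hz
  have h := F.inv_mem hm
  exact F.isDisc.inj h.1 hz h.2

theorem C2.norm_inv (F : C2 T) {w : E} (hw : w ∈ F.bd) : ‖F.inv w‖ = 1 := by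
  have hw' := hw
  rw [← F.isDisc.bd] at hw'
  obtain ⟨z, hz, rfl⟩ := hw'
  rw [F.inv_par (sphere_subset_closedBall hz)]
  exact mem_sphere_zero_iff_norm.1 hz

/-- the position of a boundary point: the angle of the parameter -/
noncomputable def C2.pos (F : C2 T) (w : E) : ℝ := Complex.arg (F.inv w)

theorem C2.exp_pos (F : C2 T) {w : E} (hw : w ∈ F.bd) :
    Complex.exp ((F.pos w : ℝ) * Complex.I) = F.inv w := by
  have h1 := Complex.norm_mul_exp_arg_mul_I (F.inv w)
  rw [F.norm_inv hw, Complex.ofReal_one, one_mul] at h1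
  exact h1

theorem C2.sub_mem_V (F : C2 T) {w : E} (hw : w ∈ F.set) : w - F.pt ∈ T.V F.pt :=
  T.sub_mem_V (by rw [← F.set_eq]; exact hw)

/-- **the position is the angle of `w - F.pt` in the plane of `F`** -/
theorem C2.pos_eq_arg (F : C2 T) {w : E} (hw : w ∈ F.set) :
    F.pos w = Complex.arg (F.lin.symm ⟨w - F.pt, F.sub_mem_V hw⟩) := by
  obtain ⟨-, h2⟩ := F.inv_mem hw
  obtain ⟨t, ht, h3⟩ := F.par_radial (F.inv w)
  have h4 : (⟨w - F.pt, F.sub_mem_V hw⟩ : T.V F.pt) = t • F.lin (F.inv w) := by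
    apply Subtype.ext
    show w - F.pt = t • ((F.lin (F.inv w) : T.V F.pt) : E)
    have h5 : w - F.pt = F.par (F.inv w) - F.pt := by rw [h2]
    rw [h5, h3]
    abel
  rw [h4, map_smul, F.lin.symm_apply_apply]
  unfold C2.pos
  have h5 : (t • F.inv w : ℂ) = ((t : ℝ) : ℂ) * F.inv w := by
    rw [Complex.real_smul]
  rw [h5, Complex.arg_real_mul _ ht]

theorem C2.pos_injOn (F : C2 T) : InjOn F.pos F.bd := by
  intro w hw w' hw' h
  have h1 := F.exp_pos hw
  have h2 := F.exp_pos hw'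
  rw [h, h2] at h1
  have h3 := (F.inv_mem (F.bd_sub hw)).2
  have h4 := (F.inv_mem (F.bd_sub hw')).2
  rw [← h3, ← h4, h1]

theorem C2.pos_le_pi (F : C2 T) (w : E) : F.pos w ≤ Real.pi := Complex.arg_le_pi _

theorem C2.neg_pi_lt_pos (F : C2 T) (w : E) : -Real.pi < F.pos w := Complex.neg_pi_lt_arg _

/-- the cut of the position is a vertex -/
theorem C2.pos_cut (F : C2 T) : F.pos F.cut = Real.pi := by
  rw [F.pos_eq_arg F.cut_mem]
  have h : (⟨F.cut - F.pt, F.sub_mem_V F.cut_mem⟩ : T.V F.pt) = F.lin (-1) :=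
    Subtype.ext F.lin_neg_one.symm
  rw [h, F.lin.symm_apply_apply, Complex.arg_neg_one]

theorem C2.eq_cut (F : C2 T) {w : E} (hw : w ∈ F.bd) (h : F.pos w = Real.pi) : w = F.cut :=
  F.pos_injOn hw F.cut_bd (h.trans F.pos_cut.symm)

theorem C2.pos_bound (F : C2 T) (w w' : E) : F.pos w' < F.pos w + 2 * Real.pi := by
  have h1 := Complex.arg_le_pi (F.inv w')
  have h2 := Complex.neg_pi_lt_arg (F.inv w)
  unfold C2.pos
  linarith

/-- **crossing on a 2-cell**, points in cyclic order -/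
theorem C2.crossing (F : C2 T) {K K' : Set E} (hK : IsPreconnected K) (hK' : IsPreconnected K')
    (hKc : IsCompact K) (hKc' : IsCompact K') (hKF : K ⊆ F.set) (hKF' : K' ⊆ F.set)
    {a b c d : E} (ha : a ∈ F.bd) (hb : b ∈ F.bd) (hc : c ∈ F.bd) (hd : d ∈ F.bd)
    (hab : F.pos a < F.pos b) (hbc : F.pos b < F.pos c) (hcd : F.pos c < F.pos d)
    (ma : a ∈ K) (mc : c ∈ K) (mb : b ∈ K') (md : d ∈ K') : (K ∩ K').Nonempty := by
  have hcomp : ∀ {K : Set E}, IsCompact K → K ⊆ F.set →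
      IsCompact {z | z ∈ closedBall (0 : ℂ) 1 ∧ F.par z ∈ K} := by
    intro K hKc _
    have h1 : IsClosed {z | z ∈ closedBall (0 : ℂ) 1 ∧ F.par z ∈ K} :=
      F.isDisc.cont.preimage_isClosed_of_isClosed isClosed_closedBall hKc.isClosed
    exact (isCompact_closedBall (0 : ℂ) 1).of_isClosed_subset h1 fun x hx => hx.1
  have key : ∀ {w : E} {K : Set E}, w ∈ F.bd → w ∈ K →
      Complex.exp ((F.pos w : ℝ) * Complex.I) ∈ {z | z ∈ closedBall (0 : ℂ) 1 ∧ F.par z ∈ K} := by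
    intro w K hw hwK
    rw [F.exp_pos hw]
    have h1 := F.inv_mem (F.bd_sub hw)
    exact ⟨h1.1, by rw [h1.2]; exact hwK⟩
  obtain ⟨z, hz1, hz2⟩ := Pat3_543.crossing_disc (F.isDisc.preconn hK hKF)
    (F.isDisc.preconn hK' hKF') (hcomp hKc hKF) (hcomp hKc' hKF')
    (fun z hz => hz.1) (fun z hz => hz.1) hab hbc hcd (F.pos_bound a d) (key ha ma) (key hc mc)
    (key hb mb) (key hd md)
  exact ⟨F.par z, hz1.2, hz2.2⟩

/-- interlaced pairs of boundary points are not separated by disjoint continua -/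
theorem C2.meet_of_lace (F : C2 T) {K K' : Set E} (hK : IsPreconnected K)
    (hK' : IsPreconnected K') (hKc : IsCompact K) (hKc' : IsCompact K') (hKF : K ⊆ F.set)
    (hKF' : K' ⊆ F.set) {u v x y : E} (hu : u ∈ F.bd) (hv : v ∈ F.bd) (hx : x ∈ F.bd)
    (hy : y ∈ F.bd) (hux : u ≠ x) (huy : u ≠ y) (hvx : v ≠ x) (hvy : v ≠ y)
    (mu : u ∈ K) (mv : v ∈ K) (mx : x ∈ K') (my : y ∈ K')
    (hl : ¬ (((F.pos u < F.pos x ∧ F.pos x < F.pos v) ∨
        (F.pos v < F.pos x ∧ F.pos x < F.pos u)) ↔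
      ((F.pos u < F.pos y ∧ F.pos y < F.pos v) ∨
        (F.pos v < F.pos y ∧ F.pos y < F.pos u)))) : (K ∩ K').Nonempty := by
  have hinj := F.pos_injOn
  have dux : F.pos u ≠ F.pos x := fun h => hux (hinj hu hx h)
  have duy : F.pos u ≠ F.pos y := fun h => huy (hinj hu hy h)
  have dvx : F.pos v ≠ F.pos x := fun h => hvx (hinj hv hx h)
  have dvy : F.pos v ≠ F.pos y := fun h => hvy (hinj hv hy h)
  -- without loss of generality
  have main : ∀ u v x y : E, u ∈ F.bd → v ∈ F.bd → x ∈ F.bd → y ∈ F.bd → u ∈ K → v ∈ K →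
      x ∈ K' → y ∈ K' → F.pos u < F.pos x → F.pos x < F.pos v →
      (F.pos y < F.pos u ∨ F.pos v < F.pos y) → (K ∩ K').Nonempty := by
    intro u v x y hu hv hx hy mu mv mx my h1 h2 h3
    rcases h3 with h3 | h3
    · rw [inter_comm]
      exact F.crossing hK' hK hKc' hKc hKF' hKF hy hu hx hv h3 h1 h2 my mx mu mv
    · exact F.crossing hK hK' hKc hKc' hKF hKF' hu hx hv hy h1 h2 h3 mu mv mx my
  have side : ∀ x y : E, x ∈ F.bd → y ∈ F.bd → F.pos u ≠ F.pos y → F.pos v ≠ F.pos y →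
      x ∈ K' → y ∈ K' →
      ((F.pos u < F.pos x ∧ F.pos x < F.pos v) ∨ (F.pos v < F.pos x ∧ F.pos x < F.pos u)) →
      ¬ ((F.pos u < F.pos y ∧ F.pos y < F.pos v) ∨
        (F.pos v < F.pos y ∧ F.pos y < F.pos u)) → (K ∩ K').Nonempty := by
    intro x y hx hy duy dvy mx my hB hn
    rcases hB with ⟨h1, h2⟩ | ⟨h1, h2⟩
    · refine main u v x y hu hv hx hy mu mv mx my h1 h2 ?_
      by_contra hcon
      push Not at hcon
      exact hn (Or.inl ⟨lt_of_le_of_ne hcon.1 duy, lt_of_le_of_ne hcon.2 dvy.symm⟩)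
    · refine main v u x y hv hu hx hy mv mu mx my h1 h2 ?_
      by_contra hcon
      push Not at hcon
      exact hn (Or.inr ⟨lt_of_le_of_ne hcon.1 dvy, lt_of_le_of_ne hcon.2 duy.symm⟩)
  by_cases hB : (F.pos u < F.pos x ∧ F.pos x < F.pos v) ∨ (F.pos v < F.pos x ∧ F.pos x < F.pos u)
  · exact side x y hx hy duy dvy mx my hB fun h => hl ⟨fun _ => h, fun _ => hB⟩
  · refine side y x hy hx dux dvx my mx ?_ hB
    by_contra h
    exact hl ⟨fun h' => absurd h' hB, fun h' => absurd h' h⟩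

/-- the two tiles of a 2-cell -/
theorem C2.exists_side (h3 : Module.finrank ℝ E = 3) (F : C2 T) :
    ∃ x : ι × ι, x.1 ≠ x.2 ∧ T.at_ F.pt = {x.1, x.2} ∧
      F.set = Msh_715.P (T.H x.1) ∩ Msh_715.P (T.H x.2) := by
  obtain ⟨i, j, h1, h2, h4⟩ := T.two_tiles F.pt_mem (by rw [F.dim_pt, h3])
  exact ⟨(i, j), h1, h2, by rw [F.set_eq]; exact h4⟩

/-- the pair of tiles of a 2-cell -/
noncomputable def C2.side (h3 : Module.finrank ℝ E = 3) (F : C2 T) : Sym2 ι :=
  s((F.exists_side h3).choose.1, (F.exists_side h3).choose.2)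

theorem C2.mem_side {h3 : Module.finrank ℝ E = 3} {F : C2 T} {q : ι} :
    q ∈ F.side h3 ↔ q ∈ T.at_ F.pt := by
  have h := (F.exists_side h3).choose_spec
  rw [h.2.1]
  unfold C2.side
  rw [Sym2.mem_iff]
  rfl

theorem C2.side_nd {h3 : Module.finrank ℝ E = 3} (F : C2 T) : ¬ (F.side h3).IsDiag :=
  fun h => (F.exists_side h3).choose_spec.1 (Sym2.mk_isDiag_iff.1 h)

/-- the 2-cell is the intersection of its two tiles -/
theorem C2.set_inter {h3 : Module.finrank ℝ E = 3} {F : C2 T} {q q' : ι}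
    (h : F.side h3 = s(q, q')) : F.set = Msh_715.P (T.H q) ∩ Msh_715.P (T.H q') := by
  have h1 := (F.exists_side h3).choose_spec.2.2
  have h2 : s((F.exists_side h3).choose.1, (F.exists_side h3).choose.2) = s(q, q') := h
  rw [Sym2.eq_iff] at h2
  rcases h2 with ⟨e1, e2⟩ | ⟨e1, e2⟩
  · rw [h1, e1, e2]
  · rw [h1, e1, e2, inter_comm]

theorem C2.at_pt {h3 : Module.finrank ℝ E = 3} {F : C2 T} {q q' : ι}
    (h : F.side h3 = s(q, q')) : T.at_ F.pt = {q, q'} := by
  ext k
  rw [← C2.mem_side (h3 := h3), h, Sym2.mem_iff]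
  rfl

theorem C2.sub_tile {h3 : Module.finrank ℝ E = 3} {F : C2 T} {q : ι} (h : q ∈ F.side h3) :
    F.set ⊆ Msh_715.P (T.H q) := by
  rw [F.set_eq]
  exact T.cc_sub_tile (C2.mem_side.1 h)

/-- the crossing points of the 1-skeleton on the boundary of a 2-cell -/
def C2.On (F : C2 T) : Set E := {w | w ∈ F.set ∧ T.dim w = 1}

theorem C2.on_sub_bd (F : C2 T) : F.On ⊆ F.bd := by
  rintro w ⟨h1, h2⟩
  exact (F.mem_bd_iff h1).2 h2.le

/-- points of the 1-cells are not at the cut -/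
theorem C2.pos_lt_pi (F : C2 T) {w : E} (hw : w ∈ F.On) : F.pos w < Real.pi := by
  refine lt_of_le_of_ne (F.pos_le_pi w) fun h => ?_
  have h1 := F.eq_cut (F.on_sub_bd hw) h
  have h2 := hw.2
  rw [h1, F.dim_cut] at h2
  exact absurd h2 (by norm_num)

theorem finite_on (T : Tiling Om ι) (w : E) : {F : C2 T | w ∈ F.On}.Finite := by
  by_cases hw : w ∈ Om
  · have h1 := T.finite_cells (K := {w}) isCompact_singleton (singleton_subset_iff.2 hw)
    refine Set.Finite.of_finite_image (f := fun F : C2 T => F.set) (h1.subset ?_) ?_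
    · rintro _ ⟨F, hF, rfl⟩
      exact ⟨⟨F.pt, F.pt_mem, F.set_eq⟩, w, hF.1, rfl⟩
    · intro F _ G _ h
      exact C2.ext h
  · refine Set.finite_empty.subset ?_
    intro F hF
    exact (hw (F.set_sub hF.1)).elim

/-- **the combinatorial mesh of a three-dimensional tiling** -/
noncomputable def meshC (T : Tiling Om ι) (h3 : Module.finrank ℝ E = 3) :
    MeshC ι (C2 T) E where
  side := fun F => F.side h3
  side_nd := fun F => F.side_nd
  On := fun F => F.On
  pos := fun F => F.pos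
  pos_inj := fun F => F.pos_injOn.mono F.on_sub_bd
  deg := by
    intro q w
    by_cases hw : w ∈ Om ∧ T.dim w = 1 ∧ q ∈ T.at_ w
    · right
      obtain ⟨hwO, hw1, hq⟩ := hw
      obtain ⟨x₁, hx1, x₂, hx2, hd1, hd2, hq1, hq2, hp1, hp2, hne, huniq⟩ :=
        two_cells T h3 hwO hw1 hq
      have hset : {F : C2 T | q ∈ F.side h3 ∧ w ∈ F.On} = {mk2 T hx1 hd1, mk2 T hx2 hd2} := by
        ext F
        constructor
        · rintro ⟨h1, h2⟩
          have h4 : w ∈ T.cc F.pt := by rw [← F.set_eq]; exact h2.1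
          rcases huniq F.pt F.pt_mem F.dim_pt (C2.mem_side.1 h1) h4 with h | h
          · left; exact C2.ext (by rw [F.set_eq, h]; rfl)
          · right; exact C2.ext (by rw [F.set_eq, h]; rfl)
        · have aux : ∀ x (hx : x ∈ Om) (hd : T.dim x = 2), q ∈ T.at_ x → w ∈ T.cc x →
              q ∈ (mk2 T hx hd).side h3 ∧ w ∈ (mk2 T hx hd).On := by
            intro x hx hd hqx hwx
            refine ⟨?_, hwx, hw1⟩
            rw [C2.mem_side]
            have h5 : (mk2 T hx hd).pt ∈ T.oc x := T.pt_cl hx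
            rw [T.at_eq_of_mem_oc hx h5]
            exact hqx
          rintro (h | h)
          · rw [h]; exact aux x₁ hx1 hd1 hq1 hp1
          · rw [mem_singleton_iff.1 h]; exact aux x₂ hx2 hd2 hq2 hp2
      rw [hset]
      refine ncard_pair fun h => hne ?_
      have := congrArg C2.set h
      exact this
    · left
      have hset : {F : C2 T | q ∈ F.side h3 ∧ w ∈ F.On} = ∅ := by
        rw [eq_empty_iff_forall_notMem]
        rintro F ⟨h1, h2⟩
        exact hw ⟨F.set_sub h2.1, h2.2, C2.sub_tile h1 h2.1⟩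
      rw [hset, ncard_empty]
  fin := fun w => finite_on T w
  link := by
    intro w A hA F hwF q hq hqA F' hwF' q' hq'
    refine link T h3 (F.set_sub hwF.1) hwF.2 hqA (C2.sub_tile hq hwF.1) ?_ q'
      (C2.sub_tile hq' hwF'.1)
    intro k hk l x hx hd hwx hat
    have h5 : (mk2 T hx hd).pt ∈ T.oc x := T.pt_cl hx
    have h6 : ∀ m, m ∈ (mk2 T hx hd).side h3 ↔ m = k ∨ m = l := by
      intro m
      rw [C2.mem_side, T.at_eq_of_mem_oc hx h5, hat]
      rfl
    exact hA (mk2 T hx hd) ⟨hwx, hwF.2⟩ k ((h6 k).2 (Or.inl rfl)) l ((h6 l).2 (Or.inr rfl)) hk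

end Crest.Agent.R096.Agl5_543
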