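import Mathlib
import Crest.Agent.R096.Agl5_543

/-! # Orientation 1 (row 96, helper543): cross products, sectors and the position `pos` on the
boundary of a 2-cell; parity counting along an edge -/

set_option autoImplicit false
set_option linter.unusedSectionVars false

open Set Filter Topology Metric

namespace Crest.Agent.R096.Ori_543

open Crest.Agent.R096.Msh_715 Crest.Agent.R096.Agl5_543 Crest.Agent.R096.St_147
open Complex (arg)

/-! ### cross products and arguments -/

/-- the cross product -/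
def cr (u v : ℂ) : ℝ := u.re * v.im - u.im * v.re

theorem cr_swap (u v : ℂ) : cr v u = - cr u v := by unfold cr; ring

theorem cr_self (u : ℂ) : cr u u = 0 := by unfold cr; ring

theorem cr_eq (u v : ℂ) : cr u v = ‖u‖ * ‖v‖ * Real.sin (arg v - arg u) := by
  have h1 : u.re = ‖u‖ * Real.cos (arg u) := (Complex.norm_mul_cos_arg u).symm
  have h2 : u.im = ‖u‖ * Real.sin (arg u) := (Complex.norm_mul_sin_arg u).symm
  have h3 : v.re = ‖v‖ * Real.cos (arg v) := (Complex.norm_mul_cos_arg v).symm
  have h4 : v.im = ‖v‖ * Real.sin (arg v) := (Complex.norm_mul_sin_arg v).symm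
  unfold cr
  rw [Real.sin_sub, h1, h2, h3, h4]
  ring

theorem sin_pos_iff {x : ℝ} (h1 : -(2 * Real.pi) < x) (h2 : x < 2 * Real.pi) :
    0 < Real.sin x ↔ (0 < x ∧ x < Real.pi) ∨ x < -Real.pi := by
  have hp := Real.pi_pos
  constructor
  · intro h
    by_contra hcon
    push Not at hcon
    obtain ⟨h3, h4⟩ := hcon
    rcases le_or_gt x 0 with h5 | h5
    · have := Real.sin_nonpos_of_nonpos_of_neg_pi_le h5 h4
      linarith
    · have h6 := h3 h5
      have h7 : Real.sin (x - Real.pi) = - Real.sin x := Real.sin_sub_pi x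
      have h8 : 0 ≤ Real.sin (x - Real.pi) :=
        Real.sin_nonneg_of_nonneg_of_le_pi (by linarith) (by linarith)
      linarith
  · rintro (⟨h3, h4⟩ | h3)
    · exact Real.sin_pos_of_pos_of_lt_pi h3 h4
    · have h7 : Real.sin (x + 2 * Real.pi) = Real.sin x := Real.sin_add_two_pi x
      rw [← h7]
      exact Real.sin_pos_of_pos_of_lt_pi (by linarith) (by linarith)

theorem cr_pos_iff {u v : ℂ} (hu : u ≠ 0) (hv : v ≠ 0) :
    0 < cr u v ↔ (arg u < arg v ∧ arg v < arg u + Real.pi) ∨ arg v < arg u - Real.pi := by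
  have h1 : 0 < ‖u‖ * ‖v‖ := mul_pos (norm_pos_iff.2 hu) (norm_pos_iff.2 hv)
  rw [cr_eq, mul_pos_iff_of_pos_left h1]
  have hp := Real.pi_pos
  have a1 := Complex.neg_pi_lt_arg u
  have a2 := Complex.arg_le_pi u
  have a3 := Complex.neg_pi_lt_arg v
  have a4 := Complex.arg_le_pi v
  rw [sin_pos_iff (by linarith) (by linarith)]
  constructor
  · rintro (⟨h2, h3⟩ | h2)
    · left; constructor <;> linarith
    · right; linarith
  · rintro (⟨h2, h3⟩ | h2)
    · left; constructor <;> linarith
    · right; linarith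

/-- the open sector from `u` to `w` in terms of arguments -/
theorem sector_iff {u v w : ℂ} (hu : u ≠ 0) (hv : v ≠ 0) (hw : w ≠ 0) (huw : 0 < cr u w) :
    (0 < cr u v ∧ 0 < cr v w) ↔
      ((arg u < arg w ∧ arg u < arg v ∧ arg v < arg w) ∨
        (arg w < arg u ∧ (arg u < arg v ∨ arg v < arg w))) := by
  have hp := Real.pi_pos
  have a1 := Complex.neg_pi_lt_arg u
  have a2 := Complex.arg_le_pi u
  have a3 := Complex.neg_pi_lt_arg v
  have a4 := Complex.arg_le_pi v
  have a5 := Complex.neg_pi_lt_arg w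
  have a6 := Complex.arg_le_pi w
  rw [cr_pos_iff hu hw] at huw
  rw [cr_pos_iff hu hv, cr_pos_iff hv hw]
  constructor
  · rintro ⟨(⟨h1, h2⟩ | h1), (⟨h3, h4⟩ | h3)⟩
    · left; refine ⟨by linarith, h1, h3⟩
    · rcases huw with ⟨h5, h6⟩ | h5
      · exfalso; linarith
      · right; exact ⟨by linarith, Or.inl h1⟩
    · rcases huw with ⟨h5, h6⟩ | h5
      · exfalso; linarith
      · right; exact ⟨by linarith, Or.inr h3⟩
    · exfalso; linarith
  · rintro (⟨h1, h2, h3⟩ | ⟨h1, h2 | h2⟩)
    · rcases huw with ⟨h5, h6⟩ | h5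
      · exact ⟨Or.inl ⟨h2, by linarith⟩, Or.inl ⟨h3, by linarith⟩⟩
      · exfalso; linarith
    · rcases huw with ⟨h5, h6⟩ | h5
      · exfalso; linarith
      · exact ⟨Or.inl ⟨h2, by linarith⟩, Or.inr (by linarith)⟩
    · rcases huw with ⟨h5, h6⟩ | h5
      · exfalso; linarith
      · exact ⟨Or.inr (by linarith), Or.inl ⟨h2, by linarith⟩⟩

/-- a vector in the open sector is a positive combination of the two sides -/
theorem exists_comb {u v w : ℂ} (huw : 0 < cr u w) (h1 : 0 < cr u v) (h2 : 0 < cr v w) :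
    ∃ s t : ℝ, 0 < s ∧ 0 < t ∧ v = s • u + t • w := by
  refine ⟨cr v w / cr u w, cr u v / cr u w, div_pos h2 huw, div_pos h1 huw, ?_⟩
  have hne : cr u w ≠ 0 := huw.ne'
  have key : (cr u w) • v = (cr v w) • u + (cr u v) • w := by
    apply Complex.ext
    · simp only [Complex.real_smul, Complex.add_re, Complex.mul_re, Complex.ofReal_re,
        Complex.ofReal_im, zero_mul, sub_zero]
      unfold cr; ring
    · simp only [Complex.real_smul, Complex.add_im, Complex.mul_im, Complex.ofReal_re,
        Complex.ofReal_im, zero_mul, add_zero]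
      unfold cr; ring
  have h3 : v = (cr u w)⁻¹ • ((cr v w) • u + (cr u v) • w) := by
    rw [← key, smul_smul, inv_mul_cancel₀ hne, one_smul]
  refine h3.trans ?_
  rw [smul_add, smul_smul, smul_smul, div_eq_inv_mul, div_eq_inv_mul]

/-! ### coordinates on a 2-cell -/

variable {E : Type} [NormedAddCommGroup E] [NormedSpace ℝ E] [FiniteDimensional ℝ E]
variable {Om : Set E} {ι : Type} {T : Tiling Om ι}

/-- the complex coordinate of a point of a 2-cell, centred at `F.pt` -/
noncomputable def crd (F : C2 T) (x : E) : ℂ := by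
  classical
  exact if h : x - F.pt ∈ T.V F.pt then F.lin.symm ⟨x - F.pt, h⟩ else 0

theorem crd_eq (F : C2 T) {x : E} (h : x - F.pt ∈ T.V F.pt) :
    crd F x = F.lin.symm ⟨x - F.pt, h⟩ := by
  unfold crd
  rw [dif_pos h]

theorem pos_eq (F : C2 T) {x : E} (h : x ∈ F.set) : F.pos x = arg (crd F x) := by
  rw [F.pos_eq_arg h, crd_eq F (F.sub_mem_V h)]

/-- coordinates determine the point -/
theorem eq_of_crd (F : C2 T) {x y : E} (hx : x ∈ F.set) (hy : y ∈ F.set)
    (h : crd F x = crd F y) : x = y := by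
  rw [crd_eq F (F.sub_mem_V hx), crd_eq F (F.sub_mem_V hy)] at h
  have h1 := F.lin.symm.injective h
  have h2 := congrArg Subtype.val h1
  exact sub_left_injective h2

theorem crd_comb (F : C2 T) {x y : E} (hx : x ∈ F.set) (hy : y ∈ F.set) {a b : ℝ}
    (hab : a + b = 1) : crd F (a • x + b • y) = a • crd F x + b • crd F y := by
  have h1 := F.sub_mem_V hx
  have h2 := F.sub_mem_V hy
  have h3 : a • x + b • y - F.pt = a • (x - F.pt) + b • (y - F.pt) := by
    have : F.pt = a • F.pt + b • F.pt := by rw [← add_smul, hab, one_smul]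
    nth_rewrite 1 [this]
    rw [smul_sub, smul_sub]; abel
  have h4 : a • x + b • y - F.pt ∈ T.V F.pt := by
    rw [h3]
    exact (T.V F.pt).add_mem ((T.V F.pt).smul_mem _ h1) ((T.V F.pt).smul_mem _ h2)
  rw [crd_eq F h4, crd_eq F h1, crd_eq F h2, ← map_smul, ← map_smul, ← map_add]
  congr 1
  exact Subtype.ext h3

theorem pt_mem_opn (F : C2 T) : F.pt ∈ F.1.opn := T.self_mem_oc _

theorem pt_notMem_bd (F : C2 T) : F.pt ∉ F.bd := fun h => h.2 (pt_mem_opn F)

theorem crd_ne (F : C2 T) {x : E} (hx : x ∈ F.bd) : crd F x ≠ 0 := by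
  intro h
  have hxs := F.bd_sub hx
  rw [crd_eq F (F.sub_mem_V hxs)] at h
  have h1 : (⟨x - F.pt, F.sub_mem_V hxs⟩ : T.V F.pt) = 0 := by
    have := congrArg F.lin h
    rwa [F.lin.apply_symm_apply, map_zero] at this
  have h2 : x - F.pt = 0 := congrArg Subtype.val h1
  rw [sub_eq_zero] at h2
  rw [h2] at hx
  exact pt_notMem_bd F hx

/-- the ends of a segment in the boundary are independent -/
theorem cr_ne (F : C2 T) {x y : E} (hs : segment ℝ x y ⊆ F.bd) (hne : x ≠ y) :
    cr (crd F x) (crd F y) ≠ 0 := by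
  intro h
  have hx : x ∈ F.bd := hs (left_mem_segment ℝ x y)
  have hy : y ∈ F.bd := hs (right_mem_segment ℝ x y)
  have hxs := F.bd_sub hx
  have hys := F.bd_sub hy
  set u := crd F x with hu
  set v := crd F y with hv
  have hu0 : u ≠ 0 := crd_ne F hx
  have hv0 : v ≠ 0 := crd_ne F hy
  -- `v = l • u`
  obtain ⟨l, hl⟩ : ∃ l : ℝ, v = l • u := by
    by_cases h1 : u.re = 0
    · have h2 : u.im ≠ 0 := fun h2 => hu0 (Complex.ext h1 h2)
      refine ⟨v.im / u.im, Complex.ext ?_ ?_⟩
      · have h3 : u.im * v.re = 0 := by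
          unfold cr at h; rw [h1] at h; linarith
        have h4 : v.re = 0 := by
          rcases mul_eq_zero.1 h3 with h5 | h5
          · exact absurd h5 h2
          · exact h5
        simp [h1, h4]
      · simp [div_mul_cancel₀ _ h2]
    · refine ⟨v.re / u.re, Complex.ext ?_ ?_⟩
      · simp [div_mul_cancel₀ _ h1]
      · unfold cr at h
        have h3 : v.im = v.re / u.re * u.im := by
          field_simp
          linarith
        simp [h3]
  have hl0 : l ≠ 0 := by
    rintro rfl
    rw [zero_smul] at hl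
    exact hv0 hl
  rcases lt_or_gt_of_ne hl0 with h1 | h1
  · -- the segment passes through `F.pt`
    have hm : (1 - 1 / (1 - l)) + 1 / (1 - l) = 1 := by ring
    have h1l : 0 < 1 - l := by linarith
    have hpos : 0 ≤ 1 / (1 - l) := by positivity
    have hle : 1 / (1 - l) ≤ 1 := by rw [div_le_one h1l]; linarith
    have hseg : (1 - 1 / (1 - l)) • x + (1 / (1 - l)) • y ∈ segment ℝ x y :=
      ⟨1 - 1 / (1 - l), 1 / (1 - l), by linarith, hpos, hm, rfl⟩
    have h2 := crd_comb F hxs hys hm
    have h3 : crd F ((1 - 1 / (1 - l)) • x + (1 / (1 - l)) • y) = 0 := by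
      rw [h2, ← hu, ← hv, hl, smul_smul, ← add_smul]
      have : 1 - 1 / (1 - l) + 1 / (1 - l) * l = 0 := by
        field_simp; ring
      rw [this, zero_smul]
    exact crd_ne F (hs hseg) h3
  · -- the arguments agree
    have h2 : F.pos x = F.pos y := by
      rw [pos_eq F hxs, pos_eq F hys, ← hu, ← hv, hl]
      rw [show l • u = ((l : ℝ) : ℂ) * u from by rw [Complex.real_smul], Complex.arg_real_mul _ h1]
    exact hne (F.pos_injOn hx hy h2)

/-- boundary points in the open sector over a boundary segment lie on the segment -/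
theorem mem_openSegment_iff (F : C2 T) {x y v : E} (hs : segment ℝ x y ⊆ F.bd)
    (hxy : 0 < cr (crd F x) (crd F y)) (hv : v ∈ F.bd) :
    v ∈ openSegment ℝ x y ↔ (0 < cr (crd F x) (crd F v) ∧ 0 < cr (crd F v) (crd F y)) := by
  have hx : x ∈ F.bd := hs (left_mem_segment ℝ x y)
  have hy : y ∈ F.bd := hs (right_mem_segment ℝ x y)
  have hxs := F.bd_sub hx
  have hys := F.bd_sub hy
  constructor
  · rintro ⟨a, b, ha, hb, hab, rfl⟩
    have h1 := crd_comb F hxs hys hab
    rw [h1]
    have e1 : cr (crd F x) (a • crd F x + b • crd F y) = b * cr (crd F x) (crd F y) := by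
      unfold cr
      simp only [Complex.real_smul, Complex.add_im, Complex.add_re, Complex.mul_im,
        Complex.mul_re, Complex.ofReal_re, Complex.ofReal_im, zero_mul, add_zero, sub_zero]
      ring
    have e2 : cr (a • crd F x + b • crd F y) (crd F y) = a * cr (crd F x) (crd F y) := by
      unfold cr
      simp only [Complex.real_smul, Complex.add_im, Complex.add_re, Complex.mul_im,
        Complex.mul_re, Complex.ofReal_re, Complex.ofReal_im, zero_mul, add_zero, sub_zero]
      ring
    rw [e1, e2]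
    exact ⟨mul_pos hb hxy, mul_pos ha hxy⟩
  · rintro ⟨h1, h2⟩
    obtain ⟨s, t, hs0, ht0, hv'⟩ := exists_comb hxy h1 h2
    have hst : 0 < s + t := by linarith
    have hab : s / (s + t) + t / (s + t) = 1 := by field_simp
    set z := (s / (s + t)) • x + (t / (s + t)) • y with hz
    have hzseg : z ∈ openSegment ℝ x y :=
      ⟨s / (s + t), t / (s + t), by positivity, by positivity, hab, rfl⟩
    have hzbd : z ∈ F.bd := hs (openSegment_subset_segment ℝ x y hzseg)
    have h3 : crd F v = (s + t) • crd F z := by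
      rw [hz, crd_comb F hxs hys hab, smul_add, smul_smul, smul_smul,
        mul_div_cancel₀ _ hst.ne', mul_div_cancel₀ _ hst.ne']
      exact hv'
    have h4 : F.pos v = F.pos z := by
      rw [pos_eq F (F.bd_sub hv), pos_eq F (F.bd_sub hzbd), h3]
      rw [show (s + t) • crd F z = (((s + t : ℝ)) : ℂ) * crd F z from by rw [Complex.real_smul],
        Complex.arg_real_mul _ hst]
    rw [F.pos_injOn hv hzbd h4]
    exact hzseg

/-- the open segment in terms of positions -/
theorem mem_openSegment_iff' (F : C2 T) {x y v : E} (hs : segment ℝ x y ⊆ F.bd)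
    (hxy : 0 < cr (crd F x) (crd F y)) (hv : v ∈ F.bd) :
    v ∈ openSegment ℝ x y ↔ ((F.pos x < F.pos y ∧ F.pos x < F.pos v ∧ F.pos v < F.pos y) ∨
        (F.pos y < F.pos x ∧ (F.pos x < F.pos v ∨ F.pos v < F.pos y))) := by
  have hx : x ∈ F.bd := hs (left_mem_segment ℝ x y)
  have hy : y ∈ F.bd := hs (right_mem_segment ℝ x y)
  rw [mem_openSegment_iff F hs hxy hv, sector_iff (crd_ne F hx) (crd_ne F hv) (crd_ne F hy) hxy,
    ← pos_eq F (F.bd_sub hx), ← pos_eq F (F.bd_sub hy), ← pos_eq F (F.bd_sub hv)]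

/-! ### parity counting -/

open Classical in
/-- number mod 2 of the points of `Y` on `F` with position `< t` (`cntP` of 117) -/
noncomputable def cnt (F : C2 T) (Y : Finset E) (t : ℝ) : ZMod 2 :=
  ((Y.filter (fun v => v ∈ F.On ∧ F.pos v < t)).card : ZMod 2)

open Classical in
/-- **counting lemma**: along a boundary segment `[x, y]`, counter-clockwise from `x` to `y` in
the coordinates of `F`: the difference of the counts is the number of points in `[x, y)`. -/
theorem cnt_add (F : C2 T) {Y : Finset E} (hY : Even (Y.filter (fun v => v ∈ F.On)).card)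
    {x y : E} (hs : segment ℝ x y ⊆ F.bd) (hxy : 0 < cr (crd F x) (crd F y)) :
    cnt F Y (F.pos x) + cnt F Y (F.pos y) =
      ((Y.filter (fun v => v ∈ F.On ∧ (v ∈ openSegment ℝ x y ∨ v = x))).card : ZMod 2) := by
  have hx : x ∈ F.bd := hs (left_mem_segment ℝ x y)
  have hy : y ∈ F.bd := hs (right_mem_segment ℝ x y)
  have hne : x ≠ y := by
    rintro rfl
    rw [cr_self] at hxy
    exact lt_irrefl _ hxy
  have hpne : F.pos x ≠ F.pos y := fun h => hne (F.pos_injOn hx hy h)
  unfold cnt
  set Z := Y.filter (fun v => v ∈ F.On) with hZ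
  have hZbd : ∀ v ∈ Z, v ∈ F.bd := fun v hv => F.on_sub_bd (Finset.mem_filter.1 hv).2
  have e1 : ∀ (p : E → Prop) [DecidablePred p] [DecidablePred fun v => v ∈ F.On ∧ p v],
      (Y.filter (fun v => v ∈ F.On ∧ p v)) = Z.filter p := by
    intro p _ _
    ext v
    simp only [hZ, Finset.mem_filter, and_assoc]
  rw [e1, e1, e1]
  have hZ2 : ((Z.card : ℕ) : ZMod 2) = 0 := (ZMod.natCast_eq_zero_iff_even).2 hY
  -- membership of the segment
  have hmem : ∀ v ∈ Z, (v ∈ openSegment ℝ x y ∨ v = x) ↔
      ((F.pos x < F.pos y ∧ F.pos x ≤ F.pos v ∧ F.pos v < F.pos y) ∨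
        (F.pos y < F.pos x ∧ (F.pos x ≤ F.pos v ∨ F.pos v < F.pos y))) := by
    intro v hv
    rw [mem_openSegment_iff' F hs hxy (hZbd v hv)]
    by_cases hvx : v = x
    · subst hvx
      simp only [or_true, true_iff, le_refl, true_and, true_or]
      rcases lt_or_gt_of_ne hpne with h | h
      · left; exact ⟨h, h⟩
      · right; exact ⟨h, trivial⟩
    · have h1 : F.pos x ≤ F.pos v ↔ F.pos x < F.pos v := by
        constructor
        · intro h
          exact lt_of_le_of_ne h fun h' => hvx (F.pos_injOn (hZbd v hv) hx h'.symm)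
        · exact le_of_lt
      simp only [hvx, or_false, h1]
  rw [Finset.filter_congr hmem]
  rcases lt_or_gt_of_ne hpne with h | h
  · -- no cut: `[x, y) = {pos x ≤ pos v < pos y}`
    have e2 : Z.filter (fun v => F.pos v < F.pos y) = Z.filter (fun v => F.pos v < F.pos x) ∪
        Z.filter (fun v => F.pos x ≤ F.pos v ∧ F.pos v < F.pos y) := by
      ext v
      simp only [Finset.mem_union, Finset.mem_filter]
      constructor
      · rintro ⟨h1, h2⟩
        rcases lt_or_ge (F.pos v) (F.pos x) with h3 | h3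
        · left; exact ⟨h1, h3⟩
        · right; exact ⟨h1, h3, h2⟩
      · rintro (⟨h1, h2⟩ | ⟨h1, h2, h3⟩)
        · exact ⟨h1, h2.trans h⟩
        · exact ⟨h1, h3⟩
    have hdis : Disjoint (Z.filter (fun v => F.pos v < F.pos x))
        (Z.filter (fun v => F.pos x ≤ F.pos v ∧ F.pos v < F.pos y)) := by
      rw [Finset.disjoint_filter]
      intro v _ h1 h2
      linarith [h2.1]
    have e3 : Z.filter (fun v => (F.pos x < F.pos y ∧ F.pos x ≤ F.pos v ∧ F.pos v < F.pos y) ∨
        (F.pos y < F.pos x ∧ (F.pos x ≤ F.pos v ∨ F.pos v < F.pos y))) =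
        Z.filter (fun v => F.pos x ≤ F.pos v ∧ F.pos v < F.pos y) := by
      apply Finset.filter_congr
      intro v _
      constructor
      · rintro (h1 | h1)
        · exact h1.2
        · exact absurd h1.1 (not_lt.2 h.le)
      · intro h1
        exact Or.inl ⟨h, h1⟩
    rw [e3, e2, Finset.card_union_of_disjoint hdis]
    push_cast
    rw [← add_assoc, CharTwo.add_self_eq_zero, zero_add]
  · -- cut
    have e2 : Z.filter (fun v => F.pos v < F.pos x) = Z.filter (fun v => F.pos v < F.pos y) ∪
        Z.filter (fun v => F.pos y ≤ F.pos v ∧ F.pos v < F.pos x) := by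
      ext v
      simp only [Finset.mem_union, Finset.mem_filter]
      constructor
      · rintro ⟨h1, h2⟩
        rcases lt_or_ge (F.pos v) (F.pos y) with h3 | h3
        · left; exact ⟨h1, h3⟩
        · right; exact ⟨h1, h3, h2⟩
      · rintro (⟨h1, h2⟩ | ⟨h1, h2, h3⟩)
        · exact ⟨h1, h2.trans h⟩
        · exact ⟨h1, h3⟩
    have hdis : Disjoint (Z.filter (fun v => F.pos v < F.pos y))
        (Z.filter (fun v => F.pos y ≤ F.pos v ∧ F.pos v < F.pos x)) := by
      rw [Finset.disjoint_filter]
      intro v _ h1 h2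
      linarith [h2.1]
    have e3 : Z.filter (fun v => (F.pos x < F.pos y ∧ F.pos x ≤ F.pos v ∧ F.pos v < F.pos y) ∨
        (F.pos y < F.pos x ∧ (F.pos x ≤ F.pos v ∨ F.pos v < F.pos y))) =
        Z.filter (fun v => ¬ (F.pos y ≤ F.pos v ∧ F.pos v < F.pos x)) := by
      apply Finset.filter_congr
      intro v _
      constructor
      · rintro (h1 | ⟨-, h1 | h1⟩)
        · exact absurd h1.1 (not_lt.2 h.le)
        · rintro ⟨-, h2⟩; linarith
        · rintro ⟨h2, -⟩; linarith
      · intro h1
        right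
        refine ⟨h, ?_⟩
        by_contra hcon
        push Not at hcon
        exact h1 ⟨hcon.2, hcon.1⟩
    have e4 : (Z.filter (fun v => (F.pos y ≤ F.pos v ∧ F.pos v < F.pos x))).card +
        (Z.filter (fun v => ¬ (F.pos y ≤ F.pos v ∧ F.pos v < F.pos x))).card = Z.card :=
      Finset.card_filter_add_card_filter_not _
    have e5 : (((Z.filter (fun v => (F.pos y ≤ F.pos v ∧ F.pos v < F.pos x))).card : ℕ) : ZMod 2)
        + ((Z.filter (fun v => ¬ (F.pos y ≤ F.pos v ∧ F.pos v < F.pos x))).card : ZMod 2) = 0 := by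
      have := congrArg (Nat.cast (R := ZMod 2)) e4
      push_cast at this
      rw [this, hZ2]
    rw [e3, e2, Finset.card_union_of_disjoint hdis]
    push_cast
    have e6 := CharTwo.add_eq_zero.1 e5
    rw [← e6, add_comm ((Z.filter (fun v => F.pos v < F.pos y)).card : ZMod 2), add_assoc,
      CharTwo.add_self_eq_zero, add_zero]

end Crest.Agent.R096.Ori_543
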