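import Mathlib
import Crest.Agent.R096.Ori1_543

/-! # Orientation 2 (row 96, helper543): the two faces of a tile at an edge are oppositely
oriented along the edge -/

set_option autoImplicit false
set_option linter.unusedSectionVars false

open Set Filter Topology Metric

namespace Crest.Agent.R096.Ori_543

open Crest.Agent.R096.Msh_715 Crest.Agent.R096.Agl5_543 Crest.Agent.R096.St_147
  Crest.Agent.R096.Agl3_543

variable {E : Type} [NormedAddCommGroup E] [NormedSpace ℝ E] [FiniteDimensional ℝ E]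
variable {Om : Set E} {ι : Type} {T : Tiling Om ι}

section vol

variable (h3 : Module.finrank ℝ E = 3)

/-- coordinates in a fixed basis -/
noncomputable def co (i : Fin 3) : E →ₗ[ℝ] ℝ := (Module.finBasisOfFinrankEq ℝ E h3).coord i

/-- a fixed volume form -/
noncomputable def vol (a b c : E) : ℝ :=
  co h3 0 a * (co h3 1 b * co h3 2 c - co h3 2 b * co h3 1 c)
    - co h3 1 a * (co h3 0 b * co h3 2 c - co h3 2 b * co h3 0 c)
    + co h3 2 a * (co h3 0 b * co h3 1 c - co h3 1 b * co h3 0 c)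

theorem co_ext {v w : E} (h : ∀ i, co h3 i v = co h3 i w) : v = w :=
  (Module.finBasisOfFinrankEq ℝ E h3).ext_elem fun i => h i

theorem exists_rel {a b c : E} (h : vol h3 a b c = 0) :
    ∃ s t r : ℝ, (s ≠ 0 ∨ t ≠ 0 ∨ r ≠ 0) ∧ s • a + t • b + r • c = 0 := by
  let M : Matrix (Fin 3) (Fin 3) ℝ := Matrix.of ![fun j => co h3 j a, fun j => co h3 j b,
    fun j => co h3 j c]
  have hdet : M.det = 0 := by
    rw [Matrix.det_fin_three]
    simp only [M, Matrix.of_apply, Matrix.cons_val_zero, Matrix.cons_val_one, Matrix.cons_val]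
    unfold vol at h
    linarith
  obtain ⟨v, hv, hv0⟩ := Matrix.exists_vecMul_eq_zero_iff.2 hdet
  refine ⟨v 0, v 1, v 2, ?_, ?_⟩
  · by_contra hcon
    push Not at hcon
    apply hv
    ext i
    fin_cases i
    · exact hcon.1
    · exact hcon.2.1
    · exact hcon.2.2
  · apply co_ext h3
    intro i
    have h1 := congrFun hv0 i
    simp only [Matrix.vecMul, dotProduct, Fin.sum_univ_three, Pi.zero_apply, M, Matrix.of_apply,
      Matrix.cons_val_zero, Matrix.cons_val_one, Matrix.cons_val] at h1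
    rw [map_add, map_add, map_smul, map_smul, map_smul, map_zero]
    simp only [smul_eq_mul]
    exact h1

/-- Cramer's rule -/
theorem cramer (a b c v : E) : vol h3 a b c • v =
    vol h3 v b c • a + vol h3 a v c • b + vol h3 a b v • c := by
  apply co_ext h3
  intro i
  rw [map_add, map_add, map_smul, map_smul, map_smul, map_smul]
  simp only [smul_eq_mul]
  unfold vol
  fin_cases i <;> · simp only [Fin.zero_eta, Fin.mk_one, Fin.reduceFinMk]; ring

theorem vol_smul_third (a b c : E) (r : ℝ) : vol h3 a b (r • c) = r * vol h3 a b c := by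
  unfold vol
  simp only [map_smul, smul_eq_mul]
  ring

theorem vol_add_third (a b c c' : E) : vol h3 a b (c + c') = vol h3 a b c + vol h3 a b c' := by
  unfold vol
  simp only [map_add]
  ring

theorem vol_same_left (a c : E) : vol h3 a a c = 0 := by unfold vol; ring

theorem vol_same_outer (a b : E) : vol h3 a b a = 0 := by unfold vol; ring

theorem vol_same_right (a b : E) : vol h3 a b b = 0 := by unfold vol; ring

/-- the volume over the plane of a 2-cell -/
theorem vol_face (F : C2 T) {x y : E} (hx : x ∈ F.set) (hy : y ∈ F.set) (n : E) :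
    vol h3 (x - F.pt) (y - F.pt) n = cr (crd F x) (crd F y) *
      vol h3 ((F.lin 1 : T.V F.pt) : E) ((F.lin Complex.I : T.V F.pt) : E) n := by
  have key : ∀ {v : E}, v ∈ F.set → v - F.pt = (crd F v).re • ((F.lin 1 : T.V F.pt) : E) +
      (crd F v).im • ((F.lin Complex.I : T.V F.pt) : E) := by
    intro v hv
    have h1 : (⟨v - F.pt, F.sub_mem_V hv⟩ : T.V F.pt) = F.lin (crd F v) := by
      rw [crd_eq F (F.sub_mem_V hv), F.lin.apply_symm_apply]
    have h2 : crd F v = (crd F v).re • (1 : ℂ) + (crd F v).im • Complex.I := by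
      apply Complex.ext <;> simp
    have h4 := congrArg Subtype.val h1
    rw [h2, map_add, map_smul, map_smul] at h4
    exact h4
  rw [key hx, key hy]
  unfold vol cr
  simp only [map_add, map_smul, smul_eq_mul]
  ring

end vol

/-! ### the wedge of a tile at an edge -/

/-- an interior point of a tile -/
noncomputable def cen (T : Tiling Om ι) (q : ι) : E := (T.ne q).choose

theorem cen_mem (T : Tiling Om ι) (q : ι) : cen T q ∈ Msh_715.I (T.H q) := (T.ne q).choose_spec

/-- an active functional of the tile along a side -/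
theorem exists_act (h3 : Module.finrank ℝ E = 3) {F : C2 T} {q : ι} (hq : q ∈ F.side h3) :
    ∃ h ∈ T.H q, ∀ y ∈ F.set, h.1 y = h.2 := by
  have hq' : q ∈ T.at_ F.pt := C2.mem_side.1 hq
  obtain ⟨h, hh, he⟩ := exists_active T F.pt_mem (by rw [F.dim_pt, h3]; norm_num) hq'
  refine ⟨h, hh, fun y hy => ?_⟩
  rw [F.set_eq] at hy
  exact (hy q hq' h hh).2 he

/-- functionals active at `w` vanish on the direction of the edge -/
theorem act_dir {w x y : E} (hx : x ∈ T.cc w) (hy : y ∈ T.cc w) {q : ι} (hq : q ∈ T.at_ w)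
    {h : (E →L[ℝ] ℝ) × ℝ} (hh : h ∈ T.H q) (he : h.1 w = h.2) : h.1 (y - x) = 0 := by
  rw [map_sub, (hx q hq h hh).2 he, (hy q hq h hh).2 he, sub_self]

/-- the direction space of a one-dimensional cell -/
theorem mem_V_line {w x y : E} (hw : T.dim w = 1) (hx : x ∈ T.cc w) (hy : y ∈ T.cc w)
    (hxy : x ≠ y) {v : E} (hv : v ∈ T.V w) : ∃ r : ℝ, v = r • (y - x) := by
  have h1 : y - x ∈ T.V w := T.sub_mem_V' hy hx
  have h2 : (⟨y - x, h1⟩ : T.V w) ≠ 0 := by
    intro h
    exact hxy (sub_eq_zero.1 (congrArg Subtype.val h)).symm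
  obtain ⟨r, hr⟩ := (finrank_eq_one_iff_of_nonzero' (⟨y - x, h1⟩ : T.V w) h2).1 hw ⟨v, hv⟩
  exact ⟨r, (congrArg Subtype.val hr).symm⟩

/-- the centre of a 2-cell does not lie on the line of an edge of it -/
theorem pt_notMem_line {F : C2 T} {w : E} (hwF : w ∈ F.On) : F.pt - w ∉ T.V w := by
  intro hv
  have hwO := F.set_sub hwF.1
  have hwcc : w ∈ T.cc F.pt := by rw [← F.set_eq]; exact hwF.1
  obtain ⟨r, hr, hb⟩ := T.exists_ball_oc hwO
  -- a small move towards the centre
  obtain ⟨s, hs0, hs1, hs2⟩ : ∃ s : ℝ, 0 < s ∧ s ≤ 1 ∧ ‖s • (F.pt - w)‖ < r := by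
    refine ⟨min 1 (r / (2 * (‖F.pt - w‖ + 1))), lt_min one_pos (by positivity), min_le_left _ _,
      ?_⟩
    rw [norm_smul, Real.norm_of_nonneg (le_min zero_le_one (by positivity))]
    have h1 : min 1 (r / (2 * (‖F.pt - w‖ + 1))) ≤ r / (2 * (‖F.pt - w‖ + 1)) := min_le_right _ _
    have h2 : min 1 (r / (2 * (‖F.pt - w‖ + 1))) * ‖F.pt - w‖ ≤
        r / (2 * (‖F.pt - w‖ + 1)) * ‖F.pt - w‖ := mul_le_mul_of_nonneg_right h1 (norm_nonneg _)
    have h4 : r / (2 * (‖F.pt - w‖ + 1)) * ‖F.pt - w‖ < r := by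
      rw [div_mul_eq_mul_div, div_lt_iff₀ (by positivity)]
      nlinarith [norm_nonneg (F.pt - w)]
    linarith
  have h1 := hb (s • (F.pt - w)) ((T.V w).smul_mem _ hv) hs2
  have h2 := T.move_mem_oc hwcc hs0 hs1
  have d1 := T.dim_eq_of_mem_oc hwO h1
  have d2 := T.dim_eq_of_mem_oc F.pt_mem h2
  rw [d1, F.dim_pt, hwF.2] at d2
  omega

variable (h3 : Module.finrank ℝ E = 3)

/-- the wedge volume of a side at an edge point -/
theorem wedge_ne {F : C2 T} {q : ι} (hq : q ∈ F.side h3) {w x y : E} (hw : w ∈ F.On)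
    (hx : x ∈ T.cc w) (hy : y ∈ T.cc w) (hxy : x ≠ y) :
    vol h3 (w - cen T q) (y - x) (F.pt - w) ≠ 0 := by
  intro h0
  obtain ⟨s, t, r, hne, hrel⟩ := exists_rel h3 h0
  obtain ⟨h, hh, he⟩ := exists_act h3 hq
  have hqw : q ∈ T.at_ w := C2.sub_tile hq hw.1
  have hFpt : F.pt ∈ F.set := by rw [F.set_eq]; exact T.self_mem_cc _
  have e1 : h.1 (y - x) = 0 := act_dir hx hy hqw hh (he w hw.1)
  have e2 : h.1 (F.pt - w) = 0 := by rw [map_sub, he _ hFpt, he _ hw.1, sub_self]
  have e3 : 0 < h.1 (w - cen T q) := by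
    rw [map_sub, he _ hw.1]
    have := cen_mem T q h hh
    linarith
  have h4 := congrArg h.1 hrel
  rw [map_add, map_add, map_smul, map_smul, map_smul, e1, e2, map_zero] at h4
  simp only [smul_eq_mul, mul_zero, add_zero] at h4
  have hs : s = 0 := by
    rcases mul_eq_zero.1 h4 with h5 | h5
    · exact h5
    · exact absurd h5 e3.ne'
  rw [hs, zero_smul, zero_add] at hrel
  by_cases hr : r = 0
  · rw [hr, zero_smul, add_zero] at hrel
    have ht : t ≠ 0 := by
      rcases hne with h5 | h5 | h5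
      · exact absurd hs h5
      · exact h5
      · exact absurd hr h5
    have := (smul_eq_zero.1 hrel).resolve_left ht
    exact hxy (sub_eq_zero.1 this).symm
  · apply pt_notMem_line hw
    have h5 : F.pt - w = (-(t / r)) • (y - x) := by
      have h6 : r • (F.pt - w) = -(t • (y - x)) := by
        rw [eq_neg_iff_add_eq_zero, add_comm]; exact hrel
      have h7 : F.pt - w = r⁻¹ • (r • (F.pt - w)) := by
        rw [smul_smul, inv_mul_cancel₀ hr, one_smul]
      rw [h7, h6, smul_neg, smul_smul, neg_smul, div_eq_inv_mul]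
    rw [h5]
    exact (T.V w).smul_mem _ (T.sub_mem_V' hy hx)

/-- **the two sides of a tile at an edge lie on opposite sides of the plane through the edge and
the centre of the tile** -/
theorem wedge_opp {F F' : C2 T} {q : ι} (hq : q ∈ F.side h3) (hq' : q ∈ F'.side h3)
    (hne : F ≠ F') {w x y : E} (hw : w ∈ F.On) (hw' : w ∈ F'.On)
    (hx : x ∈ T.cc w) (hy : y ∈ T.cc w) (hxy : x ≠ y) :
    vol h3 (w - cen T q) (y - x) (F.pt - w) * vol h3 (w - cen T q) (y - x) (F'.pt - w) < 0 := by
  by_contra hcon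
  push Not at hcon
  set a := w - cen T q with ha
  set e := y - x with he
  have hD := wedge_ne h3 hq hw hx hy hxy
  have hD' := wedge_ne h3 hq' hw' hx hy hxy
  have hqw : q ∈ T.at_ w := C2.sub_tile hq hw.1
  have hwO := F.set_sub hw.1
  have hFpt : F.pt ∈ F.set := by rw [F.set_eq]; exact T.self_mem_cc _
  have hFpt' : F'.pt ∈ F'.set := by rw [F'.set_eq]; exact T.self_mem_cc _
  have hwcc : w ∈ T.cc F.pt := by rw [← F.set_eq]; exact hw.1
  have hwcc' : w ∈ T.cc F'.pt := by rw [← F'.set_eq]; exact hw'.1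
  -- expansion
  have hcr := cramer h3 a e (F.pt - w) (F'.pt - w)
  set D := vol h3 a e (F.pt - w) with hDdef
  obtain ⟨l, n, m, hm, hexp⟩ : ∃ l n m : ℝ, 0 < m ∧
      F'.pt - w = l • a + n • e + m • (F.pt - w) := by
    refine ⟨vol h3 (F'.pt - w) e (F.pt - w) / D, vol h3 a (F'.pt - w) (F.pt - w) / D,
      vol h3 a e (F'.pt - w) / D, ?_, ?_⟩
    · have h1 : 0 < D * vol h3 a e (F'.pt - w) :=
        lt_of_le_of_ne hcon (Ne.symm (mul_ne_zero hD hD'))
      rcases mul_pos_iff.1 h1 with ⟨h2, h4⟩ | ⟨h2, h4⟩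
      · exact div_pos h4 h2
      · exact div_pos_of_neg_of_neg h4 h2
    · have h1 : F'.pt - w = D⁻¹ • (D • (F'.pt - w)) := by
        rw [smul_smul, inv_mul_cancel₀ hD, one_smul]
      refine h1.trans ?_
      rw [hcr, smul_add, smul_add, smul_smul, smul_smul, smul_smul, div_eq_inv_mul,
        div_eq_inv_mul, div_eq_inv_mul]
  -- the functionals
  obtain ⟨h, hh, hact⟩ := exists_act h3 hq
  obtain ⟨h', hh', hact'⟩ := exists_act h3 hq'
  have hP : ∀ {v : E} {g : (E →L[ℝ] ℝ) × ℝ}, v ∈ Msh_715.P (T.H q) → g ∈ T.H q →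
      g.1 w = g.2 → g.1 (v - w) ≤ 0 := by
    intro v g hv hg hgw
    rw [map_sub, hgw]
    have := hv g hg
    linarith
  have hA : ∀ {g : (E →L[ℝ] ℝ) × ℝ}, g ∈ T.H q → g.1 w = g.2 → 0 < g.1 a := by
    intro g hg hgw
    rw [ha, map_sub, hgw]
    have := cen_mem T q g hg
    linarith
  have hE : ∀ {g : (E →L[ℝ] ℝ) × ℝ}, g ∈ T.H q → g.1 w = g.2 → g.1 e = 0 := fun hg hgw =>
    act_dir hx hy hqw hg hgw
  have hl : l = 0 := by
    apply le_antisymm
    · -- from `h`
      have h1 := congrArg h.1 hexp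
      rw [map_add, map_add, map_smul, map_smul, map_smul, hE hh (hact w hw.1)] at h1
      have h2 : h.1 (F.pt - w) = 0 := by rw [map_sub, hact _ hFpt, hact _ hw.1, sub_self]
      rw [h2] at h1
      simp only [smul_eq_mul, mul_zero, add_zero] at h1
      have h4 := hP (C2.sub_tile hq' hFpt') hh (hact w hw.1)
      have h5 := hA hh (hact w hw.1)
      rw [h1] at h4
      by_contra hlt
      push Not at hlt
      have := mul_pos hlt h5
      linarith
    · -- from `h'`
      have h1 := congrArg h'.1 hexp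
      rw [map_add, map_add, map_smul, map_smul, map_smul, hE hh' (hact' w hw'.1)] at h1
      have h2 : h'.1 (F'.pt - w) = 0 := by rw [map_sub, hact' _ hFpt', hact' _ hw'.1, sub_self]
      rw [h2] at h1
      simp only [smul_eq_mul, mul_zero, add_zero] at h1
      have h4 := hP (C2.sub_tile hq hFpt) hh' (hact' w hw'.1)
      have h5 := hA hh' (hact' w hw'.1)
      by_contra hlt
      push Not at hlt
      have h6 := mul_neg_of_neg_of_pos hlt h5
      have h7 : m * h'.1 (F.pt - w) ≤ 0 := mul_nonpos_of_nonneg_of_nonpos hm.le h4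
      linarith
  rw [hl, zero_smul, zero_add] at hexp
  -- the two open cells meet
  obtain ⟨r, hr, hb⟩ := T.exists_ball_oc hwO
  obtain ⟨s, hs0, hs1, hs2, hs3⟩ : ∃ s : ℝ, 0 < s ∧ s ≤ 1 ∧ s * m ≤ 1 / 2 ∧
      s * (2 * ‖n • e‖) < r := by
    refine ⟨min 1 (min (1 / (2 * m)) (r / (2 * (2 * ‖n • e‖ + 1)))), by positivity,
      min_le_left _ _, ?_, ?_⟩
    · have h1 : min 1 (min (1 / (2 * m)) (r / (2 * (2 * ‖n • e‖ + 1)))) ≤ 1 / (2 * m) :=
        (min_le_right _ _).trans (min_le_left _ _)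
      calc _ ≤ 1 / (2 * m) * m := mul_le_mul_of_nonneg_right h1 hm.le
        _ = 1 / 2 := by field_simp
    · have h1 : min 1 (min (1 / (2 * m)) (r / (2 * (2 * ‖n • e‖ + 1)))) ≤
          r / (2 * (2 * ‖n • e‖ + 1)) := (min_le_right _ _).trans (min_le_right _ _)
      calc _ ≤ r / (2 * (2 * ‖n • e‖ + 1)) * (2 * ‖n • e‖) :=
            mul_le_mul_of_nonneg_right h1 (by positivity)
        _ < r := by
          rw [div_mul_eq_mul_div, div_lt_iff₀ (by positivity)]
          nlinarith [norm_nonneg (n • e)]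
  have h1m : 0 < 1 - s * m := by linarith
  set u := w + (s / (1 - s * m)) • (n • e) with hu
  have hedir : n • e ∈ T.V w := (T.V w).smul_mem _ (T.sub_mem_V' hy hx)
  have huoc : u ∈ T.oc w := by
    refine hb _ ((T.V w).smul_mem _ hedir) ?_
    rw [norm_smul, Real.norm_of_nonneg (by positivity)]
    have h4 : s / (1 - s * m) ≤ s * 2 := by
      rw [div_le_iff₀ h1m]
      nlinarith
    calc _ ≤ s * 2 * ‖n • e‖ := mul_le_mul_of_nonneg_right h4 (norm_nonneg _)
      _ = s * (2 * ‖n • e‖) := by ring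
      _ < r := hs3
  have hucc : u ∈ T.cc F.pt := T.cc_sub_of_mem hwcc (T.oc_sub_cc w huoc)
  have p1 := T.move_mem_oc hucc (s := s * m) (by positivity) (by linarith)
  have p2 := T.move_mem_oc hwcc' hs0 hs1
  have heq : u + (s * m) • (F.pt - u) = w + s • (F'.pt - w) := by
    rw [hexp, hu]
    generalize n • e = g
    have h5 : s • g = (1 - s * m) • ((s / (1 - s * m)) • g) := by
      rw [smul_smul, mul_div_cancel₀ _ h1m.ne']
    generalize (s / (1 - s * m)) • g = g' at h5 ⊢
    rw [smul_add, h5]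
    module
  rw [heq] at p1
  have h6 : T.oc F.pt = T.oc F'.pt := by
    rcases T.oc_disjoint_or_eq F.pt_mem F'.pt_mem with h7 | h7
    · exact absurd p2 (disjoint_left.1 h7 p1)
    · exact h7
  apply hne
  apply C2.ext
  rw [F.set_eq, F'.set_eq]
  refine (T.cc_eq_iff F'.pt_mem).2 ?_
  rw [← h6]
  exact T.self_mem_oc _

/-- orientation number of a side of a tile: the sign of this number compares the coordinates of
the face with the outward direction -/
noncomputable def epsR (q : ι) (F : C2 T) : ℝ :=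
  vol h3 ((F.lin 1 : T.V F.pt) : E) ((F.lin Complex.I : T.V F.pt) : E) (F.pt - cen T q)

/-- **opposite orientations along the common edge** -/
theorem eps_opp {F F' : C2 T} {q : ι} (hq : q ∈ F.side h3) (hq' : q ∈ F'.side h3)
    (hne : F ≠ F') {w x y : E} (hw : w ∈ F.On) (hw' : w ∈ F'.On)
    (hx : x ∈ T.cc w) (hy : y ∈ T.cc w) (hxy : x ≠ y) :
    (epsR h3 q F * cr (crd F x) (crd F y)) * (epsR h3 q F' * cr (crd F' x) (crd F' y)) < 0 := by
  have key : ∀ {G : C2 T}, w ∈ G.On → epsR h3 q G * cr (crd G x) (crd G y) =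
      vol h3 (w - cen T q) (y - x) (G.pt - w) := by
    intro G hwG
    have hsub : T.cc w ⊆ G.set := by
      rw [G.set_eq]
      refine T.cc_sub_of_mem ?_
      rw [← G.set_eq]; exact hwG.1
    have h1 := vol_face h3 G (hsub hx) (hsub hy) (G.pt - cen T q)
    rw [mul_comm]
    unfold epsR
    rw [← h1]
    -- `x = w + s e`
    obtain ⟨s, hs⟩ := mem_V_line hwG.2 hx hy hxy (T.sub_mem_V' hx (T.self_mem_cc w))
    have e1 : x - G.pt = s • (y - x) + (w - cen T q) - (G.pt - cen T q) := by rw [← hs]; abel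
    have e2 : y - G.pt = (y - x) + (x - G.pt) := by abel
    have e3 : G.pt - w = (G.pt - cen T q) - (w - cen T q) := by abel
    rw [e2, e1, e3]
    unfold vol
    simp only [map_add, map_sub, map_smul, smul_eq_mul]
    ring
  rw [key hw, key hw']
  exact wedge_opp h3 hq hq' hne hw hw' hx hy hxy

end Crest.Agent.R096.Ori_543
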