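import Mathlib
import Crest.Agent.R096.Ori2_543
import Crest.Agent.R096.Cp2_298
import Crest.Agent.R096.Lab3_184

/-! # Orientation 3 (row 96, helper543): `pos` along an edge, the orientation data `Cp_298.Ori` of
the mesh of a tiling, parallel points `Cp_298.Par`, counting along an edge -/

set_option autoImplicit false
set_option linter.unusedSectionVars false

open Set Filter Topology Metric

namespace Crest.Agent.R096.Ori_543

open Crest.Agent.R096.Msh_715 Crest.Agent.R096.Agl5_543 Crest.Agent.R096.St_147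
  Crest.Agent.R096.Agl1_543 Crest.Agent.R096.Agl2_543 Crest.Agent.R096.Agl3_543

variable {E : Type} [NormedAddCommGroup E] [NormedSpace ℝ E] [FiniteDimensional ℝ E]
variable {Om : Set E} {ι : Type} {T : Tiling Om ι}

/-! ### positions along an edge -/

theorem cc_sub_set {F : C2 T} {w : E} (hw : w ∈ F.On) : T.cc w ⊆ F.set := by
  rw [F.set_eq]
  refine T.cc_sub_of_mem ?_
  rw [← F.set_eq]; exact hw.1

theorem on_oc {F : C2 T} {w x : E} (hw : w ∈ F.On) (hx : x ∈ T.oc w) : x ∈ F.On := by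
  have hwO := F.set_sub hw.1
  refine ⟨cc_sub_set hw (T.oc_sub_cc w hx), ?_⟩
  rw [T.dim_eq_of_mem_oc hwO hx]; exact hw.2

theorem mem_oc_symm {w x : E} (hw : w ∈ Om) (hx : x ∈ T.oc w) : w ∈ T.oc x := by
  rw [T.oc_eq_of_mem hw hx]; exact T.self_mem_oc w

theorem on_iff_oc {F : C2 T} {w x : E} (hw : w ∈ Om) (hx : x ∈ T.oc w) :
    x ∈ F.On ↔ w ∈ F.On :=
  ⟨fun h => on_oc h (mem_oc_symm hw hx), fun h => on_oc h hx⟩

theorem cc_sub_bd {F : C2 T} {w : E} (hw : w ∈ F.On) : T.cc w ⊆ F.bd := by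
  intro z hz
  refine (F.mem_bd_iff (cc_sub_set hw hz)).2 ?_
  have h1 := T.dim_le hz
  rw [hw.2] at h1
  exact h1

theorem seg_bd {F : C2 T} {w x y : E} (hw : w ∈ F.On) (hx : x ∈ T.cc w) (hy : y ∈ T.cc w) :
    segment ℝ x y ⊆ F.bd :=
  ((T.convex_cc w).segment_subset hx hy).trans (cc_sub_bd hw)

/-- **positions along an edge** -/
theorem pos_lt_iff {F : C2 T} {w x y : E} (hw : w ∈ F.On) (hx : x ∈ T.oc w) (hy : y ∈ T.oc w) :
    F.pos x < F.pos y ↔ 0 < cr (crd F x) (crd F y) := by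
  have key : ∀ x y, x ∈ T.oc w → y ∈ T.oc w → 0 < cr (crd F x) (crd F y) →
      F.pos x < F.pos y := by
    intro x y hx hy h
    have hseg := seg_bd hw (T.oc_sub_cc w hx) (T.oc_sub_cc w hy)
    by_contra hcon
    push Not at hcon
    have hne : x ≠ y := by
      rintro rfl
      rw [cr_self] at h; exact lt_irrefl _ h
    have hxb : x ∈ F.bd := hseg (left_mem_segment ℝ x y)
    have hyb : y ∈ F.bd := hseg (right_mem_segment ℝ x y)
    have hlt : F.pos y < F.pos x :=
      lt_of_le_of_ne hcon fun e => hne (F.pos_injOn hxb hyb e.symm)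
    have h1 : F.cut ∈ openSegment ℝ x y := (mem_openSegment_iff' F hseg h F.cut_bd).2
      (Or.inr ⟨hlt, Or.inl (by rw [F.pos_cut]; exact F.pos_lt_pi (on_oc hw hx))⟩)
    have h2 : F.cut ∈ T.oc w := (T.convex_oc w).openSegment_subset hx hy h1
    have h3 := (on_oc hw h2).2
    rw [F.dim_cut] at h3
    exact absurd h3 (by norm_num)
  refine ⟨fun h => ?_, key x y hx hy⟩
  have hseg := seg_bd hw (T.oc_sub_cc w hx) (T.oc_sub_cc w hy)
  have hne : x ≠ y := by
    rintro rfl
    exact lt_irrefl _ h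
  rcases lt_or_gt_of_ne (cr_ne F hseg hne) with h1 | h1
  · exfalso
    have h2 := key y x hy hx (by rw [cr_swap]; linarith)
    exact lt_asymm h h2
  · exact h1

/-- the open segment between two points of one edge, in terms of positions -/
theorem mem_openSegment_pos {F : C2 T} {w x y v : E} (hw : w ∈ F.On) (hx : x ∈ T.oc w)
    (hy : y ∈ T.oc w) (hxy : F.pos x < F.pos y) (hv : v ∈ F.bd) :
    v ∈ openSegment ℝ x y ↔ F.pos x < F.pos v ∧ F.pos v < F.pos y := by
  have hseg := seg_bd hw (T.oc_sub_cc w hx) (T.oc_sub_cc w hy)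
  rw [mem_openSegment_iff' F hseg ((pos_lt_iff hw hx hy).1 hxy) hv]
  constructor
  · rintro (h | h)
    · exact ⟨h.2.1, h.2.2⟩
    · exact absurd h.1 (not_lt.2 hxy.le)
  · intro h
    exact Or.inl ⟨hxy, h.1, h.2⟩

/-- positions on two different edges are not mixed -/
theorem pos_sep {F : C2 T} {w w' x x' : E} (hw : w ∈ F.On) (hw' : w' ∈ F.On)
    (hne : T.oc w ≠ T.oc w') (hlt : F.pos w < F.pos w') (hx : x ∈ T.oc w) (hx' : x' ∈ T.oc w') :
    F.pos x < F.pos x' := by
  have hwO := F.set_sub hw.1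
  have hwO' := F.set_sub hw'.1
  have hdis : Disjoint (T.oc w) (T.oc w') := by
    rcases T.oc_disjoint_or_eq hwO hwO' with h | h
    · exact h
    · exact absurd h hne
  have key : ∀ {u y z v : E}, u ∈ F.On → y ∈ T.oc u → z ∈ T.oc u → v ∈ F.bd →
      v ∉ T.oc u → F.pos y < F.pos v → F.pos z < F.pos v := by
    intro u y z v hu hy hz hv hvu h1
    have hzb := cc_sub_bd hu (T.oc_sub_cc u hz)
    by_contra hcon
    push Not at hcon
    have hzv : F.pos v < F.pos z := lt_of_le_of_ne hcon fun e =>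
      hvu (by rw [F.pos_injOn hv hzb e]; exact hz)
    have h2 := (mem_openSegment_pos hu hy hz (h1.trans hzv) hv).2 ⟨h1, hzv⟩
    exact hvu ((T.convex_oc u).openSegment_subset hy hz h2)
  have hb' : w' ∈ F.bd := F.on_sub_bd hw'
  have h1 : F.pos x < F.pos w' := key hw (T.self_mem_oc w) hx hb'
    (fun h => disjoint_left.1 hdis h (T.self_mem_oc w')) hlt
  have hxb : x ∈ F.bd := F.on_sub_bd (on_oc hw hx)
  by_contra hcon
  push Not at hcon
  have hne' : F.pos x' ≠ F.pos x := fun e => by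
    have h2 := F.pos_injOn (F.on_sub_bd (on_oc hw' hx')) hxb e
    rw [h2] at hx'
    exact disjoint_left.1 hdis hx hx'
  have h3 : F.pos x' < F.pos x := lt_of_le_of_ne hcon hne'
  have h4 := key hw' hx' (T.self_mem_oc w') hxb (fun h => disjoint_left.1 hdis hx h) h3
  exact lt_asymm h1 h4

/-! ### the direction of an edge -/

/-- chosen end points of a segment -/
noncomputable def ed1 (c : Set E) : E × E := by
  classical
  exact if h : ∃ p : E × E, p.1 ≠ p.2 ∧ c = segment ℝ p.1 p.2 then h.choose else (0, 0)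

theorem ed1_spec {w : E} (hw : w ∈ Om) (hd : T.dim w = 1) :
    (ed1 (T.cc w)).1 ≠ (ed1 (T.cc w)).2 ∧
      T.cc w = segment ℝ (ed1 (T.cc w)).1 (ed1 (T.cc w)).2 := by
  classical
  obtain ⟨a, b, hne, h1, -⟩ := T.edge_eq hw hd
  have h : ∃ p : E × E, p.1 ≠ p.2 ∧ T.cc w = segment ℝ p.1 p.2 := ⟨(a, b), hne, h1⟩
  have e : ed1 (T.cc w) = h.choose := by
    unfold ed1
    rw [dif_pos h]
  rw [e]
  exact h.choose_spec

theorem ed1_mem {w : E} (hw : w ∈ Om) (hd : T.dim w = 1) :
    (ed1 (T.cc w)).1 ∈ T.cc w ∧ (ed1 (T.cc w)).2 ∈ T.cc w := by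
  obtain ⟨-, h⟩ := ed1_spec hw hd
  have h1 : (ed1 (T.cc w)).1 ∈ segment ℝ (ed1 (T.cc w)).1 (ed1 (T.cc w)).2 :=
    left_mem_segment ℝ _ _
  have h2 : (ed1 (T.cc w)).2 ∈ segment ℝ (ed1 (T.cc w)).1 (ed1 (T.cc w)).2 :=
    right_mem_segment ℝ _ _
  rw [← h] at h1 h2
  exact ⟨h1, h2⟩

/-- the direction vector of the 1-cell of `w` -/
noncomputable def dv (T : Tiling Om ι) (w : E) : E := (ed1 (T.cc w)).2 - (ed1 (T.cc w)).1

theorem dv_ne {w : E} (hw : w ∈ Om) (hd : T.dim w = 1) : dv T w ≠ 0 := fun h =>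
  (ed1_spec hw hd).1 (sub_eq_zero.1 h).symm

theorem dv_mem {w : E} (hw : w ∈ Om) (hd : T.dim w = 1) : dv T w ∈ T.V w :=
  T.sub_mem_V' (ed1_mem hw hd).2 (ed1_mem hw hd).1

theorem dv_oc {w x : E} (hw : w ∈ Om) (hx : x ∈ T.oc w) : dv T x = dv T w := by
  unfold dv
  rw [T.cc_eq_of_mem_oc hw hx]

/-- the sign of the direction of the edge of `w` in the coordinates of `F` -/
noncomputable def sg (F : C2 T) (w : E) : ℝ :=
  cr (crd F (ed1 (T.cc w)).1) (crd F (ed1 (T.cc w)).2)

theorem sg_ne {F : C2 T} {w : E} (hw : w ∈ F.On) : sg F w ≠ 0 := by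
  have hwO := F.set_sub hw.1
  obtain ⟨h1, h2⟩ := ed1_mem hwO hw.2
  exact cr_ne F (seg_bd hw h1 h2) (ed1_spec hwO hw.2).1

theorem sg_oc {F : C2 T} {w x : E} (hw : w ∈ Om) (hx : x ∈ T.oc w) : sg F x = sg F w := by
  unfold sg
  rw [T.cc_eq_of_mem_oc hw hx]

/-- cross products of points of a line -/
theorem cr_line (F : C2 T) {w : E} (hw : w ∈ F.On) {a b : ℝ}
    (ha : w + a • dv T w ∈ T.cc w) (hb : w + b • dv T w ∈ T.cc w) :
    cr (crd F (w + a • dv T w)) (crd F (w + b • dv T w)) = (b - a) * sg F w := by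
  have hwO := F.set_sub hw.1
  obtain ⟨h1, h2⟩ := ed1_mem hwO hw.2
  have hne := (ed1_spec hwO hw.2).1
  set p := (ed1 (T.cc w)).1 with hp
  set q := (ed1 (T.cc w)).2 with hq
  have hdv : dv T w = q - p := rfl
  have hsg : sg F w = cr (crd F p) (crd F q) := rfl
  rw [hdv] at ha hb ⊢
  rw [hsg]
  have hsub := cc_sub_set hw
  obtain ⟨s, hs⟩ := mem_V_line hw.2 h1 h2 hne (T.sub_mem_V' (T.self_mem_cc w) h1)
  have key : ∀ {c : ℝ}, w + c • (q - p) ∈ T.cc w →
      crd F (w + c • (q - p)) = (1 - (s + c)) • crd F p + (s + c) • crd F q := by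
    intro c hc
    have e : w + c • (q - p) = (1 - (s + c)) • p + (s + c) • q := by
      have : w = p + s • (q - p) := by rw [← hs]; abel
      nth_rewrite 1 [this]
      module
    rw [e]
    exact crd_comb F (hsub h1) (hsub h2) (by ring)
  rw [key ha, key hb]
  unfold cr
  simp only [Complex.real_smul, Complex.add_im, Complex.add_re, Complex.mul_im,
    Complex.mul_re, Complex.ofReal_re, Complex.ofReal_im, zero_mul, add_zero, sub_zero]
  ring

open Classical in
/-- discrete direction -/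
noncomputable def dirZ (F : C2 T) (w : E) : ZMod 2 := if 0 < sg F w then 0 else 1

open Classical in
/-- discrete orientation of a side -/
noncomputable def epsZ (h3 : Module.finrank ℝ E = 3) (q : ι) (F : C2 T) : ZMod 2 :=
  if 0 < epsR h3 q F then 0 else 1

/-- **the orientation data of the mesh of a three-dimensional tiling** -/
noncomputable def oriM (h3 : Module.finrank ℝ E = 3) : Cp_298.Ori (meshC T h3) where
  dir := fun F w => dirZ F w
  eps := fun q F => epsZ h3 q F
  comp := by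
    classical
    intro q F F' w hq hq' hw hw' hne
    have hwO := C2.set_sub F hw.1
    obtain ⟨h1, h2⟩ := ed1_mem hwO hw.2
    have h := eps_opp h3 hq hq' hne hw hw' h1 h2 (ed1_spec hwO hw.2).1
    have hs : cr (crd F (ed1 (T.cc w)).1) (crd F (ed1 (T.cc w)).2) = sg F w := rfl
    have hs' : cr (crd F' (ed1 (T.cc w)).1) (crd F' (ed1 (T.cc w)).2) = sg F' w := rfl
    rw [hs, hs'] at h
    show epsZ h3 q F + dirZ F w + (epsZ h3 q F' + dirZ F' w) = 1
    unfold epsZ dirZ
    generalize epsR h3 q F = A at h ⊢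
    generalize epsR h3 q F' = B at h ⊢
    generalize sg F w = C at h ⊢
    generalize sg F' w = D at h ⊢
    rcases mul_neg_iff.1 h with ⟨h4, h5⟩ | ⟨h4, h5⟩
    · rcases pos_and_pos_or_neg_and_neg_of_mul_pos h4 with ⟨h6, h7⟩ | ⟨h6, h7⟩ <;>
      rcases mul_neg_iff.1 h5 with ⟨h8, h9⟩ | ⟨h8, h9⟩ <;>
      simp only [h6, h7, h8, h9, not_lt.2 h6.le, not_lt.2 h7.le, not_lt.2 h8.le, not_lt.2 h9.le,
        if_true, if_false] <;> decide
    · rcases pos_and_pos_or_neg_and_neg_of_mul_pos h5 with ⟨h6, h7⟩ | ⟨h6, h7⟩ <;>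
      rcases mul_neg_iff.1 h4 with ⟨h8, h9⟩ | ⟨h8, h9⟩ <;>
      simp only [h6, h7, h8, h9, not_lt.2 h6.le, not_lt.2 h7.le, not_lt.2 h8.le, not_lt.2 h9.le,
        if_true, if_false] <;> decide

theorem dirZ_oc {F : C2 T} {w x : E} (hw : w ∈ Om) (hx : x ∈ T.oc w) : dirZ F x = dirZ F w := by
  unfold dirZ
  rw [sg_oc hw hx]

/-- points of the edge in the direction `dv` -/
theorem pos_line {F : C2 T} {w : E} (hw : w ∈ F.On) {a b : ℝ} (hab : a < b)
    (ha : w + a • dv T w ∈ T.oc w) (hb : w + b • dv T w ∈ T.oc w) :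
    (dirZ F w = 0 → F.pos (w + a • dv T w) < F.pos (w + b • dv T w)) ∧
      (dirZ F w = 1 → F.pos (w + b • dv T w) < F.pos (w + a • dv T w)) := by
  classical
  have h1 := cr_line F hw (T.oc_sub_cc w ha) (T.oc_sub_cc w hb)
  have h2 := cr_line F hw (T.oc_sub_cc w hb) (T.oc_sub_cc w ha)
  constructor
  · intro h
    rw [pos_lt_iff hw ha hb, h1]
    unfold dirZ at h
    split_ifs at h with h5
    · exact mul_pos (by linarith) h5
    · exact absurd h (by decide)
  · intro h
    rw [pos_lt_iff hw hb ha, h2]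
    unfold dirZ at h
    split_ifs at h with h5
    · exact absurd h (by decide)
    · have h6 : sg F w < 0 := lt_of_le_of_ne (not_lt.1 h5) (sg_ne hw)
      exact mul_pos_of_neg_of_neg (by linarith) h6

/-! ### parallel points -/

/-- nearness: the same open mesh edge and distance `< δ` -/
def Near (T : Tiling Om ι) (δ : E → ℝ) (x w : E) : Prop := x ∈ T.oc w ∧ dist x w < δ w

theorem exists_on (h3 : Module.finrank ℝ E = 3) {w : E} (hw : w ∈ Om) (hd : T.dim w = 1) :
    ∃ F : C2 T, w ∈ F.On := by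
  obtain ⟨q, hq⟩ := T.at_nonempty hw
  obtain ⟨x₁, hx1, x₂, hx2, hd1, hd2, hq1, hq2, hp1, hp2, hne, huniq⟩ :=
    two_cells T h3 hw hd hq
  exact ⟨mk2 T hx1 hd1, hp1, hd⟩

/-- the radius of a point -/
theorem exists_rad (h3 : Module.finrank ℝ E = 3) {P : Set E}
    (hP : ∀ F : C2 T, (P ∩ F.On).Finite) {δ : E → ℝ} (hδ : ∀ w, 0 < δ w) {w : E} (hw : w ∈ Om)
    (hd : T.dim w = 1) : ∃ τ > 0, (∀ v ∈ T.V w, ‖v‖ < τ → w + v ∈ T.oc w) ∧ τ ≤ δ w ∧
      ∀ w' ∈ P, w' ∈ T.oc w → w' ≠ w → τ ≤ dist w w' / 2 := by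
  obtain ⟨F, hF⟩ := exists_on h3 hw hd
  obtain ⟨r, hr, hb⟩ := T.exists_ball_oc hw
  have hfin : ((P ∩ T.oc w) \ {w}).Finite := by
    refine (hP F).subset ?_
    rintro x ⟨⟨h1, h2⟩, -⟩
    exact ⟨h1, on_oc hF h2⟩
  obtain ⟨τ, hτ, h⟩ : ∃ τ > 0, ∀ w' ∈ (P ∩ T.oc w) \ {w}, τ ≤ dist w w' / 2 := by
    rcases ((P ∩ T.oc w) \ {w}).eq_empty_or_nonempty with he | hne
    · exact ⟨1, one_pos, fun w' hw' => by rw [he] at hw'; exact absurd hw' (notMem_empty _)⟩
    · obtain ⟨z, hz, hmin⟩ := hfin.exists_minimalFor (fun w' => dist w w' / 2) _ hne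
      refine ⟨dist w z / 2, ?_, fun w' hw' => ?_⟩
      · have : w ≠ z := fun e => hz.2 (by rw [mem_singleton_iff]; exact e.symm)
        have := dist_pos.2 this
        linarith
      · by_contra hcon
        push Not at hcon
        have := hmin hw' hcon.le
        linarith
  refine ⟨min τ (min r (δ w)), lt_min hτ (lt_min hr (hδ w)), fun v hv hn => ?_, ?_, ?_⟩
  · exact hb v hv (hn.trans_le ((min_le_right _ _).trans (min_le_left _ _)))
  · exact (min_le_right _ _).trans (min_le_right _ _)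
  · intro w' h1 h2 h4
    exact (min_le_left _ _).trans (h w' ⟨⟨h1, h2⟩, h4⟩)

/-- **parallel points exist** -/
theorem exists_par (h3 : Module.finrank ℝ E = 3) {P : Set E}
    (hP : ∀ F : C2 T, (P ∩ F.On).Finite) (hP1 : ∀ w ∈ P, w ∈ Om ∧ T.dim w = 1) (n : E → ℕ)
    (δ : E → ℝ) (hδ : ∀ w, 0 < δ w) :
    Nonempty (Cp_298.Par (meshC T h3) (oriM h3) P n (Near T δ)) := by
  classical
  have hex : ∀ w, ∃ τ : ℝ, w ∈ P → 0 < τ ∧ (∀ v ∈ T.V w, ‖v‖ < τ → w + v ∈ T.oc w) ∧ τ ≤ δ w ∧
      ∀ w' ∈ P, w' ∈ T.oc w → w' ≠ w → τ ≤ dist w w' / 2 := by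
    intro w
    by_cases h : w ∈ P
    · obtain ⟨τ, h1, h2⟩ := exists_rad h3 hP hδ (hP1 w h).1 (hP1 w h).2
      exact ⟨τ, fun _ => ⟨h1, h2⟩⟩
    · exact ⟨0, fun h' => absurd h' h⟩
  choose τ hτ using hex
  let t : E → ℝ := fun w => τ w / ((n w + 1) * ‖dv T w‖)
  let c : E → ℕ → E := fun w k => w + ((k : ℝ) * t w) • dv T w
  have hn : ∀ {w}, w ∈ P → 0 < ‖dv T w‖ := fun {w} h =>
    norm_pos_iff.2 (dv_ne (hP1 w h).1 (hP1 w h).2)
  have ht : ∀ {w}, w ∈ P → 0 < t w := fun {w} h => div_pos (hτ w h).1 (mul_pos (by positivity) (hn h))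
  have hlen : ∀ {w k}, w ∈ P → k < n w → (k : ℝ) * t w * ‖dv T w‖ < τ w := by
    intro w k h hk
    have h1 := hn h
    have h2 := (hτ w h).1
    have e : (k : ℝ) * t w * ‖dv T w‖ = (k : ℝ) * τ w / (n w + 1) := by
      show (k : ℝ) * (τ w / ((n w + 1) * ‖dv T w‖)) * ‖dv T w‖ = _
      field_simp
    rw [e, div_lt_iff₀ (by positivity)]
    have h4 : (k : ℝ) < n w + 1 := by
      have : (k : ℝ) < n w := by exact_mod_cast hk
      linarith
    nlinarith
  have hnorm : ∀ {w k}, w ∈ P → k < n w → ‖((k : ℝ) * t w) • dv T w‖ < τ w := by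
    intro w k h hk
    rw [norm_smul, Real.norm_of_nonneg (mul_nonneg (Nat.cast_nonneg _) (ht h).le)]
    exact hlen h hk
  have hoc : ∀ {w k}, w ∈ P → k < n w → c w k ∈ T.oc w := by
    intro w k h hk
    exact (hτ w h).2.1 _ ((T.V w).smul_mem _ (dv_mem (hP1 w h).1 (hP1 w h).2)) (hnorm h hk)
  have hdist : ∀ {w k}, w ∈ P → k < n w → dist (c w k) w < τ w := by
    intro w k h hk
    show dist (w + ((k : ℝ) * t w) • dv T w) w < τ w
    rw [dist_eq_norm, add_sub_cancel_left]
    exact hnorm h hk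
  -- points in the same edge
  have hline : ∀ {w w'}, w ∈ P → w' ∈ P → w' ∈ T.oc w → ∃ s : ℝ, w' = w + s • dv T w ∧
      dist w w' = |s| * ‖dv T w‖ := by
    intro w w' h h' hw'
    have h1 := ed1_mem (hP1 w h).1 (hP1 w h).2
    obtain ⟨s, hs⟩ := mem_V_line (hP1 w h).2 h1.1 h1.2 (ed1_spec (hP1 w h).1 (hP1 w h).2).1
      (T.sub_mem_V' (T.oc_sub_cc w hw') (T.self_mem_cc w))
    have e : w' = w + s • dv T w := by
      rw [show s • dv T w = w' - w from hs.symm]; abel
    refine ⟨s, e, ?_⟩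
    rw [dist_comm, dist_eq_norm, hs, norm_smul, Real.norm_eq_abs]
    rfl
  refine ⟨{ c := c
            on := ?_
            inj := ?_
            sep := ?_
            up := ?_
            down := ?_
            dir := ?_
            rel := ?_ }⟩
  · intro w k F hw hk
    exact on_iff_oc (hP1 w hw).1 (hoc hw hk)
  · intro w w' k k' hw hw' hk hk' he
    have hO := (hP1 w hw).1
    have hO' := (hP1 w' hw').1
    by_cases hww : w = w'
    · subst hww
      refine ⟨rfl, ?_⟩
      have h1 : ((k : ℝ) * t w) • dv T w = ((k' : ℝ) * t w) • dv T w := add_left_cancel he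
      have h2 := smul_left_injective ℝ (norm_pos_iff.1 (hn hw)) h1
      have h4 : (k : ℝ) = k' := mul_right_cancel₀ (ht hw).ne' h2
      exact_mod_cast h4
    · exfalso
      have h1 := hoc hw hk
      have h2 := hoc hw' hk'
      rw [he] at h1
      have h4 : T.oc w = T.oc w' := by
        rcases T.oc_disjoint_or_eq hO hO' with h | h
        · exact absurd h2 (disjoint_left.1 h h1)
        · exact h
      have h5 : w' ∈ T.oc w := by rw [h4]; exact T.self_mem_oc w'
      have h6 : w ∈ T.oc w' := by rw [← h4]; exact T.self_mem_oc w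
      have h7 := (hτ w hw).2.2.2 w' hw' h5 (Ne.symm hww)
      have h8 := (hτ w' hw').2.2.2 w hw h6 hww
      have h9 := hdist hw hk
      have h10 := hdist hw' hk'
      rw [he] at h9
      have h11 := dist_triangle w (c w' k') w'
      rw [dist_comm w (c w' k')] at h11
      rw [dist_comm w' w] at h8
      linarith
  · intro F w w' k k' hw hw' hk hk' hF hF' hlt
    have hO := (hP1 w hw).1
    have hO' := (hP1 w' hw').1
    by_cases hoo : T.oc w = T.oc w'
    · have h5 : w' ∈ T.oc w := by rw [hoo]; exact T.self_mem_oc w'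
      have h6 : w ∈ T.oc w' := by rw [← hoo]; exact T.self_mem_oc w
      have hww : w ≠ w' := by
        rintro rfl
        exact lt_irrefl _ hlt
      obtain ⟨s, hs, hds⟩ := hline hw hw' h5
      have hdv : dv T w' = dv T w := dv_oc hO h5
      have h7 := (hτ w hw).2.2.2 w' hw' h5 (Ne.symm hww)
      have h8 := (hτ w' hw').2.2.2 w hw h6 hww
      rw [dist_comm w' w] at h8
      rw [hds] at h7 h8
      have h9 := hlen hw hk
      have h10 := hlen hw' hk'
      rw [hdv] at h10
      have hnp := hn hw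
      set a := (k : ℝ) * t w with ha
      set b := (k' : ℝ) * t w' with hb
      have ha0 : 0 ≤ a := mul_nonneg (Nat.cast_nonneg _) (ht hw).le
      have hb0 : 0 ≤ b := mul_nonneg (Nat.cast_nonneg _) (ht hw').le
      have ha1 : a < |s| / 2 := by
        by_contra hcon
        push Not at hcon
        have := mul_le_mul_of_nonneg_right hcon hnp.le
        linarith
      have hb1 : b < |s| / 2 := by
        by_contra hcon
        push Not at hcon
        have := mul_le_mul_of_nonneg_right hcon hnp.le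
        linarith
      have e1 : c w k = w + a • dv T w := rfl
      have e2 : c w' k' = w + (s + b) • dv T w := by
        show w' + b • dv T w' = _
        rw [hdv]
        nth_rewrite 1 [hs]
        module
      have m1 : w + a • dv T w ∈ T.oc w := by rw [← e1]; exact hoc hw hk
      have m2 : w + (s + b) • dv T w ∈ T.oc w := by rw [← e2, hoo]; exact hoc hw' hk'
      have m0 : w + (0 : ℝ) • dv T w ∈ T.oc w := by
        rw [zero_smul, add_zero]; exact T.self_mem_oc w
      have ms : w + s • dv T w ∈ T.oc w := by rw [← hs]; exact h5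
      have hs0 : s ≠ 0 := by
        rintro rfl
        rw [zero_smul, add_zero] at hs
        exact hww hs.symm
      have hlt' : F.pos (w + (0 : ℝ) • dv T w) < F.pos (w + s • dv T w) := by
        rw [zero_smul, add_zero, ← hs]; exact hlt
      show F.pos (c w k) < F.pos (c w' k')
      rw [e1, e2]
      rcases Cp_298.z2_cases (dirZ F w) with hz | hz
      · have hs1 : 0 < s := by
          by_contra hcon
          push Not at hcon
          have h11 := (pos_line hF (lt_of_le_of_ne hcon hs0) ms m0).1 hz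
          exact lt_asymm h11 hlt'
        rw [abs_of_pos hs1] at ha1 hb1
        exact (pos_line hF (by linarith) m1 m2).1 hz
      · have hs1 : s < 0 := by
          by_contra hcon
          push Not at hcon
          have h11 := (pos_line hF (lt_of_le_of_ne hcon hs0.symm) m0 ms).2 hz
          exact lt_asymm h11 hlt'
        rw [abs_of_neg hs1] at ha1 hb1
        exact (pos_line hF (by linarith) m2 m1).2 hz
    · exact pos_sep hF hF' hoo hlt (hoc hw hk) (hoc hw' hk')
  · intro F w k k' hw hkk hk' hF hz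
    have hlt : (k : ℝ) * t w < (k' : ℝ) * t w :=
      mul_lt_mul_of_pos_right (by exact_mod_cast hkk) (ht hw)
    exact (pos_line hF hlt (hoc hw (hkk.trans hk')) (hoc hw hk')).1 hz
  · intro F w k k' hw hkk hk' hF hz
    have hlt : (k : ℝ) * t w < (k' : ℝ) * t w :=
      mul_lt_mul_of_pos_right (by exact_mod_cast hkk) (ht hw)
    exact (pos_line hF hlt (hoc hw (hkk.trans hk')) (hoc hw hk')).2 hz
  · intro F w k hw hk hF
    exact dirZ_oc (hP1 w hw).1 (hoc hw hk)
  · intro w k hw hk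
    exact ⟨hoc hw hk, (hdist hw hk).trans_le (hτ w hw).2.2.1⟩

/-! ### parity counting along an edge -/

theorem seg_eq_cc {w a b : E} (hw : w ∈ Om) (hd : T.dim w = 1) (hab : T.cc w = segment ℝ a b) :
    T.oc w = openSegment ℝ a b := by
  obtain ⟨a', b', hne, h1, h2, h3, h4, h5, h6⟩ := T.edge_eq hw hd
  obtain ⟨k1, k2, k3, k4⟩ := Lab_184.ends_of_segment hw hd hab
  obtain ⟨l1, l2, l3, l4⟩ := Lab_184.ends_of_segment hw hd h1
  rw [h2, ← l4, ← k4]
  have ha := T.vertex_of_edge hw hd hab h5 h3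
  have hb := T.vertex_of_edge hw hd hab h6 h4
  have hs : ({a', b'} : Set E) = {a, b} := by
    rcases ha with ha | ha <;> rcases hb with hb | hb
    · exact absurd (ha.trans hb.symm) hne
    · rw [ha, hb]
    · rw [ha, hb, pair_comm]
    · exact absurd (ha.trans hb.symm) hne
  rw [hs]

open Classical in
/-- **parity counting along an edge**: the counts at the two end points of a mesh edge differ by
the number of points on the edge -/
theorem cnt_edge (F : C2 T) {Y : Finset E} (hY : Even (Y.filter (fun v => v ∈ F.On)).card)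
    {w a b : E} (hw : w ∈ F.On) (hab : T.cc w = segment ℝ a b) :
    cnt F Y (F.pos a) + cnt F Y (F.pos b) =
      ((Y.filter (fun v => v ∈ T.oc w)).card : ZMod 2) := by
  have hwO := F.set_sub hw.1
  obtain ⟨hne, ha0, hb0, -⟩ := Lab_184.ends_of_segment hwO hw.2 hab
  have hop := seg_eq_cc hwO hw.2 hab
  have main : ∀ a b : E, a ≠ b → T.dim a = 0 → T.cc w = segment ℝ a b →
      T.oc w = openSegment ℝ a b → 0 < cr (crd F a) (crd F b) →
      cnt F Y (F.pos a) + cnt F Y (F.pos b) =
        ((Y.filter (fun v => v ∈ T.oc w)).card : ZMod 2) := by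
    intro a b hne ha0 hab hop hcr
    have hs : segment ℝ a b ⊆ F.bd := by rw [← hab]; exact cc_sub_bd hw
    rw [cnt_add F hY hs hcr]
    congr 2
    apply Finset.filter_congr
    intro v _
    constructor
    · rintro ⟨h1, h2 | h2⟩
      · rw [hop]; exact h2
      · exfalso
        have h4 := h1.2
        rw [h2, ha0] at h4
        exact absurd h4 (by norm_num)
    · intro h
      exact ⟨on_oc hw h, Or.inl (by rw [← hop]; exact h)⟩
  have hs : segment ℝ a b ⊆ F.bd := by rw [← hab]; exact cc_sub_bd hw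
  rcases lt_or_gt_of_ne (cr_ne F hs hne) with h | h
  · rw [add_comm]
    exact main b a hne.symm hb0 (by rw [hab, segment_symm]) (by rw [hop, openSegment_symm])
      (by rw [cr_swap]; linarith)
  · exact main a b hne ha0 hab hop h

end Crest.Agent.R096.Ori_543
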