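import Crest.Agent.R096.Gl4_422
import Crest.Agent.R096.Ori3_543
import Crest.Agent.R096.Lm2_117

/-!
# R096 (row 96), GLUE-STATE over a mesh with labels, part 7 (helper422): positions and directions
along the 1-cells of a tiling: `dirT : Dir (lmT T h3) (oriM h3) (tauT T)`.
-/

set_option autoImplicit false
set_option linter.unusedSectionVars false

open Set Relation Module

namespace Crest.Agent.R096.Gl_422

open Crest.Agent.R096.St_147 Crest.Agent.R096.Lm_117 Crest.Agent.R096.Ac_117
  Crest.Agent.R096.Cp_298 Crest.Agent.R096.Msh_715 Crest.Agent.R096.Agl5_543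
  Crest.Agent.R096.Ori_543

variable {E : Type} [NormedAddCommGroup E] [NormedSpace ℝ E] [FiniteDimensional ℝ E]
variable {Om : Set E} {ι : Type} {T : Tiling Om ι} [Nonempty T.Cell]

open Classical in
/-- the direction of a 1-cell: `0` if the ends are in the order of `dv` -/
noncomputable def tauT (T : Tiling Om ι) (e : T.Cell) : ZMod 2 :=
  if epE e true - epE e false = (ed1 e.set).2 - (ed1 e.set).1 then 0 else 1

theorem ep_sub {w : E} (hw : w ∈ W1 T) :
    epE (edC T w) true - epE (edC T w) false = dv T w ∨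
      epE (edC T w) true - epE (edC T w) false = - dv T w := by
  obtain ⟨q1, q2, q3⟩ := ep_spec (edC_dim hw)
  obtain ⟨r1, r2⟩ := ed1_spec hw.1 hw.2
  rw [edC_set hw.1] at q2
  have m0 : epE (edC T w) false ∈ T.cc w := by rw [← edC_set hw.1]; exact (q3 false).2
  have m1 : epE (edC T w) true ∈ T.cc w := by rw [← edC_set hw.1]; exact (q3 true).2
  have a0 := T.vertex_of_edge hw.1 hw.2 r2 m0 (q3 false).1
  have a1 := T.vertex_of_edge hw.1 hw.2 r2 m1 (q3 true).1
  unfold dv
  rcases a0 with a0 | a0 <;> rcases a1 with a1 | a1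
  · exact absurd (a0.trans a1.symm) q1
  · left; rw [a0, a1]
  · right; rw [a0, a1, neg_sub]
  · exact absurd (a0.trans a1.symm) q1

theorem same_oc {x y : E} (hx : x ∈ W1 T) (hy : y ∈ W1 T) (h : edC T x = edC T y) :
    y ∈ T.oc x := by
  have h1 : T.cc y = T.cc x := by rw [← edC_set hx.1, ← edC_set hy.1, h]
  exact (T.cc_eq_iff hx.1).1 h1

/-- two points of one 1-cell: `y = x + b • dv` -/
theorem line_pt {x y : E} (hx : x ∈ W1 T) (hy : y ∈ W1 T) (h : edC T x = edC T y)
    (ht : tC T x < tC T y) : ∃ b : ℝ, 0 < b ∧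
      y = x + (if tauT T (edC T x) = 0 then b else -b) • dv T x := by
  classical
  obtain ⟨s, hs, e1, e2⟩ := exists_par1 hx
  obtain ⟨s', hs', e1', e2'⟩ := exists_par1 hy
  rw [← h] at e1' e2'
  have hne := (ep_spec (edC_dim hx)).1
  have hN : 0 < ‖epE (edC T x) true - epE (edC T x) false‖ :=
    norm_pos_iff.2 (sub_ne_zero.2 (Ne.symm hne))
  rw [e2, e2'] at ht
  have hss : s < s' := lt_of_mul_lt_mul_right ht hN.le
  refine ⟨s' - s, sub_pos.2 hss, ?_⟩
  have key : y = x + (s' - s) • (epE (edC T x) true - epE (edC T x) false) := by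
    nth_rewrite 1 [e1, e1']
    rw [add_assoc, ← add_smul, add_sub_cancel]
  have hdv : dv T x = (ed1 (edC T x).set).2 - (ed1 (edC T x).set).1 := by
    unfold dv; rw [edC_set hx.1]
  by_cases hc : epE (edC T x) true - epE (edC T x) false = dv T x
  · have h1 : tauT T (edC T x) = 0 := by
      unfold tauT
      rw [if_pos (hc.trans hdv)]
    rw [if_pos h1, ← hc]
    exact key
  · have h1 : tauT T (edC T x) ≠ 0 := by
      unfold tauT
      rw [if_neg (fun h' => hc (h'.trans hdv.symm))]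
      decide
    rw [if_neg h1]
    rcases ep_sub hx with h2 | h2
    · exact absurd h2 hc
    · rw [h2] at key
      rw [neg_smul, ← smul_neg]
      exact key

theorem z2_one {a : ZMod 2} (h : a ≠ 0) : a = 1 := by
  revert a; decide

theorem dirT_pos {x y : E} {F : C2 T} (hxF : x ∈ F.On) (hyF : y ∈ F.On) (h : edC T x = edC T y)
    (ht : tC T x < tC T y) : (dirZ F x = tauT T (edC T x) → F.pos x < F.pos y) ∧
      (dirZ F x ≠ tauT T (edC T x) → F.pos y < F.pos x) := by
  have hx : x ∈ W1 T := ⟨F.set_sub hxF.1, hxF.2⟩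
  have hy : y ∈ W1 T := ⟨F.set_sub hyF.1, hyF.2⟩
  obtain ⟨b, hb, e⟩ := line_pt hx hy h ht
  have hyo := same_oc hx hy h
  have hx0 : x + (0:ℝ) • dv T x ∈ T.oc x := by
    rw [zero_smul, add_zero]; exact T.self_mem_oc x
  by_cases h0 : tauT T (edC T x) = 0
  · rw [if_pos h0] at e
    rw [e] at hyo
    obtain ⟨k1, k2⟩ := pos_line hxF hb hx0 hyo
    rw [zero_smul, add_zero, ← e] at k1 k2
    rw [h0]
    exact ⟨k1, fun h' => k2 (z2_one h')⟩
  · rw [if_neg h0] at e
    rw [e] at hyo
    obtain ⟨k1, k2⟩ := pos_line hxF (neg_neg_of_pos hb) hyo hx0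
    rw [zero_smul, add_zero, ← e] at k1 k2
    rw [z2_one h0]
    refine ⟨k2, fun h' => k1 ?_⟩
    by_contra h''
    exact h' (z2_one h'')

variable {h3 : finrank ℝ E = 3}

/-- **positions and directions along the 1-cells of a tiling** -/
theorem dirT (h3 : finrank ℝ E = 3) : Dir (lmT T h3) (oriM h3) (tauT T) where
  dir := by
    rintro F e - x ⟨hx, hxe⟩ y ⟨hy, hye⟩
    exact (dirZ_oc hx.1 (same_oc hx hy (hxe.trans hye.symm))).symm
  up := by
    rintro F e he x ⟨hx, hxe⟩ y ⟨hy, hye⟩ ht hd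
    have hxF : x ∈ F.On := ⟨(edC_le hx.1).1 (hxe.trans_le he), hx.2⟩
    have hyF : y ∈ F.On := ⟨(edC_le hy.1).1 (hye.trans_le he), hy.2⟩
    refine (dirT_pos hxF hyF (hxe.trans hye.symm) ht).1 ?_
    rw [show edC T x = e from hxe]
    exact hd
  down := by
    rintro F e he x ⟨hx, hxe⟩ y ⟨hy, hye⟩ ht hd
    have hxF : x ∈ F.On := ⟨(edC_le hx.1).1 (hxe.trans_le he), hx.2⟩
    have hyF : y ∈ F.On := ⟨(edC_le hy.1).1 (hye.trans_le he), hy.2⟩
    refine (dirT_pos hxF hyF (hxe.trans hye.symm) ht).2 ?_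
    rw [show edC T x = e from hxe]
    exact hd
  vtx := by
    rintro F e he x ⟨hx, hxe⟩ y ⟨hy, hye⟩ v hv hv0
    have key : ∀ x y : E, x ∈ W1 T → edC T x = e → y ∈ W1 T → edC T y = e →
        F.pos x < F.pos v.pt → F.pos y < F.pos v.pt := by
      intro x y hx hxe hy hye h1
      have hxF : x ∈ F.On := ⟨(edC_le hx.1).1 (hxe.trans_le he), hx.2⟩
      have hyF : y ∈ F.On := ⟨(edC_le hy.1).1 (hye.trans_le he), hy.2⟩
      have hvd : T.dim v.pt = 0 := hv0
      have hvs : v.pt ∈ F.set := Tiling.Cell.le_def.1 hv (pt_set v)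
      have hvb : v.pt ∈ F.bd := (F.mem_bd_iff hvs).2 (by omega)
      by_contra hcon
      push Not at hcon
      have hyo := same_oc hx hy (hxe.trans hye.symm)
      have hne : F.pos v.pt ≠ F.pos y := by
        intro h
        have := F.pos_injOn hvb (F.on_sub_bd hyF) h
        rw [this] at hvd
        have := hy.2
        omega
      have h2 : F.pos v.pt < F.pos y := lt_of_le_of_ne hcon hne
      have h4 := (mem_openSegment_pos hxF (T.self_mem_oc x) hyo (h1.trans h2) hvb).2 ⟨h1, h2⟩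
      have h5 := (T.convex_oc x).openSegment_subset (T.self_mem_oc x) hyo h4
      have h6 := T.dim_eq_of_mem_oc hx.1 h5
      have := hx.2
      omega
    exact ⟨key x y hx hxe hy hye, key y x hy hye hx hxe⟩

end Crest.Agent.R096.Gl_422
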