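import Crest.Agent.R096.Gm2_298
import Crest.Agent.R096.Cp13_298
import Crest.Agent.R096.Gl7_422

/-!
# R096 / GLUE-STATE for merged meshes, part 3 (helper298): directions (`Dir` of 422) for subcomplexes,
merged meshes and meshes with giant cells (117's `lmO`, `lmK`), the candidate points, parallel points
-/

set_option autoImplicit false
set_option linter.unusedSectionVars false

open Set Filter Topology Metric Module

namespace Crest.Agent.R096.Gm_298

open Crest.Agent.R096.Msh_715 Crest.Agent.R096.Coh_184 Crest.Agent.R096.Agl5_543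
  Crest.Agent.R096.Lab_184 Crest.Agent.R096.Lm_117 Crest.Agent.R096.St_147
  Crest.Agent.R096.Seq_213 Crest.Agent.R096.Gl_422 Crest.Agent.R096.Cp_298
  Crest.Agent.R096.Ori_543

section gen

variable {ι Φ W Q ι' Φ' κ : Type} {M : MeshC ι Φ W} [PartialOrder Q] {dim : Q → ℕ}

/-- **directions on a subcomplex** -/
theorem dir_sub {L : LM M Q dim} {O : Ori M} {τ : Q → ZMod 2} (D : Dir L O τ) (p : Q → Prop)
    (hp : ∀ c d, c ≤ d → p d → p c) (hne : ∃ c, p c) (M' : MeshC ι' Φ' W) (φ : Φ' → Φ)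
    (hφ : Function.Injective φ) (hOn : ∀ F, M'.On F = M.On (φ F))
    (hpos : ∀ F, M'.pos F = M.pos (φ F)) (hcf : ∀ F, p (L.cf (φ F)))
    (hall : ∀ F, p (L.cf F) → ∃ F', φ F' = F) {O' : Ori M'}
    (hO : ∀ F w, O'.dir F w = O.dir (φ F) w) :
    Dir (L.sub p hp hne M' φ hφ hOn hpos hcf hall) O' (fun c => τ c.1) where
  dir F e he x hx y hy := by
    have hx' : x ∈ L.On1 e.1 := (sub_On1 (L := L.toSk) (hp := hp) (hne := hne) e) ▸ hx
    have hy' : y ∈ L.On1 e.1 := (sub_On1 (L := L.toSk) (hp := hp) (hne := hne) e) ▸ hy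
    rw [hO, hO]
    exact D.dir (φ F) e.1 he x hx' y hy'
  up F e he x hx y hy ht hd := by
    have hx' : x ∈ L.On1 e.1 := (sub_On1 (L := L.toSk) (hp := hp) (hne := hne) e) ▸ hx
    have hy' : y ∈ L.On1 e.1 := (sub_On1 (L := L.toSk) (hp := hp) (hne := hne) e) ▸ hy
    rw [hO] at hd
    rw [hpos]
    exact D.up (φ F) e.1 he x hx' y hy' ht hd
  down F e he x hx y hy ht hd := by
    have hx' : x ∈ L.On1 e.1 := (sub_On1 (L := L.toSk) (hp := hp) (hne := hne) e) ▸ hx
    have hy' : y ∈ L.On1 e.1 := (sub_On1 (L := L.toSk) (hp := hp) (hne := hne) e) ▸ hy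
    rw [hO] at hd
    rw [hpos]
    exact D.down (φ F) e.1 he x hx' y hy' ht hd
  vtx F e he x hx y hy v hv h0 := by
    have hx' : x ∈ L.On1 e.1 := (sub_On1 (L := L.toSk) (hp := hp) (hne := hne) e) ▸ hx
    have hy' : y ∈ L.On1 e.1 := (sub_On1 (L := L.toSk) (hp := hp) (hne := hne) e) ▸ hy
    rw [hpos]
    exact D.vtx (φ F) e.1 he x hx' y hy' v.1 hv h0

/-- **directions with extra cells** -/
theorem dir_glue {L : LM M Q dim} {O : Ori M} {τ : Q → ZMod 2} (D : Dir L O τ) {b : Bel Q κ}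
    (H : BelH L.toSk M L.cf b) : Dir (L.glue b H) O (Sum.elim τ (fun _ => 0)) where
  dir F e he x hx y hy := by
    obtain ⟨d, rfl, hd⟩ := QK.le_c he
    have h1 := glue_On1 L.toSk H d
    exact D.dir F d hd x (h1 ▸ hx) y (h1 ▸ hy)
  up F e he x hx y hy ht h := by
    obtain ⟨d, rfl, hd⟩ := QK.le_c he
    have h1 := glue_On1 L.toSk H d
    exact D.up F d hd x (h1 ▸ hx) y (h1 ▸ hy) ht h
  down F e he x hx y hy ht h := by
    obtain ⟨d, rfl, hd⟩ := QK.le_c he
    have h1 := glue_On1 L.toSk H d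
    exact D.down F d hd x (h1 ▸ hx) y (h1 ▸ hy) ht h
  vtx F e he x hx y hy v hv h0 := by
    obtain ⟨d, rfl, hd⟩ := QK.le_c he
    obtain ⟨u, rfl, hu⟩ := QK.le_c hv
    have h1 := glue_On1 L.toSk H d
    exact D.vtx F d hd x (h1 ▸ hx) y (h1 ▸ hy) u hu h0

end gen

section tiling

variable {E : Type} [NormedAddCommGroup E] [NormedSpace ℝ E] [FiniteDimensional ℝ E]
variable {Om : Set E} {ι : Type} {T : Tiling Om ι} {κ : Type} {Kc : κ → Set E}
variable {h3 : finrank ℝ E = 3} {hH : ∀ c, CoreH T (Kc c)}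
  {hdis : ∀ c c', c ≠ c' → Disjoint (Kc c) (Kc c')}

/-- the orientation of the merged mesh -/
noncomputable abbrev oriK (h3 : finrank ℝ E = 3) (hH : ∀ c, CoreH T (Kc c))
    (hdis : ∀ c c', c ≠ c' → Disjoint (Kc c) (Kc c')) : Ori (mK h3 hH hdis) :=
  oriC h3 (piK T Kc) (connAt_piK h3 (fun c => (hH c).core) (fun c => (hH c).cc) hdis)

variable [Nonempty T.Cell] {hne : ∃ c, OutK T Kc c}

/-- **directions outside the cores** -/
theorem dirO {τ : T.Cell → ZMod 2} (D : Dir (lmT T h3) (oriM h3) τ) :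
    Dir (lmO h3 hH hdis hne) (oriK h3 hH hdis) (fun c => τ c.1) :=
  dir_sub D _ _ _ _ _ _ _ _ _ _ (fun _ _ => rfl)

/-- the direction function of `lmK` -/
noncomputable def tauK (T : Tiling Om ι) (Kc : κ → Set E) [Nonempty T.Cell] :
    QK (belK T Kc) → ZMod 2 :=
  Sum.elim (fun c => tauT T c.1) (fun _ => 0)

/-- **directions on the merged mesh with the giant cells** -/
theorem dirK : Dir (lmK h3 hH hdis hne) (oriK h3 hH hdis) (tauK T Kc) :=
  dir_glue (dirO (dirT h3)) _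

/-- parallel points lie on the same 1-cell -/
theorem relT {x w : E} (h : RelM T x w) (hw : w ∈ (lmT T h3).W1) :
    x ∈ (lmT T h3).W1 ∧ (lmT T h3).ed x = (lmT T h3).ed w := by
  rcases h with rfl | ⟨h1, h2⟩
  · exact ⟨hw, rfl⟩
  · have hO : x ∈ Om := T.cc_sub_Om h1.1 (T.oc_sub_cc w h2)
    refine ⟨⟨hO, (T.dim_eq_of_mem_oc h1.1 h2).trans h1.2⟩, ?_⟩
    show edC T x = edC T w
    apply Tiling.Cell.ext
    rw [edC_set hO, edC_set h1.1]
    exact T.cc_eq_of_mem_oc h1.1 h2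

theorem relO {x w : E} (h : RelM T x w) (hw : w ∈ (lmO h3 hH hdis hne).W1) :
    x ∈ (lmO h3 hH hdis hne).W1 ∧
      (lmO h3 hH hdis hne).ed x = (lmO h3 hH hdis hne).ed w := by
  obtain ⟨h1, h2⟩ := relT (h3 := h3) h hw.1
  have h2' : edC T x = edC T w := h2
  have h4 : x ∈ (lmO h3 hH hdis hne).W1 := by
    refine ⟨h1, ?_⟩
    have h5 : OutK T Kc (edC T w) := hw.2
    show OutK T Kc (edC T x)
    rw [h2']; exact h5
  exact ⟨h4, Subtype.ext (by rw [edO_eq h4, edO_eq hw, h2'])⟩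

theorem relK {x w : E} (h : RelM T x w) (hw : w ∈ (lmK h3 hH hdis hne).W1) :
    x ∈ (lmK h3 hH hdis hne).W1 ∧
      (lmK h3 hH hdis hne).ed x = (lmK h3 hH hdis hne).ed w := by
  obtain ⟨h1, h2⟩ := relO (h3 := h3) (hH := hH) (hdis := hdis) (hne := hne) h hw
  exact ⟨h1, congrArg (QK.c _) h2⟩

/-- every candidate point lies on a face of the merged mesh -/
theorem faceO {w : E} (hw : w ∈ (lmO h3 hH hdis hne).W1) : ∃ F, w ∈ (mK h3 hH hdis).On F := by
  obtain ⟨h1, h2, h4⟩ := mem_W1O.1 hw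
  obtain ⟨q, hq, h5⟩ := exists_tile_out hdis h1 h4
  obtain ⟨F, hF, hqF⟩ := exists_face_out (h3 := h3) h1 h2 hq
  exact ⟨⟨F, out_face h3 F ⟨q, h5, C2.sub_tile (h3 := h3) hqF⟩⟩, hF⟩

theorem faceK {w : E} (hw : w ∈ (lmK h3 hH hdis hne).W1) : ∃ F, w ∈ (mK h3 hH hdis).On F :=
  faceO (h3 := h3) (hH := hH) (hdis := hdis) (hne := hne) hw

/-- every 1-cell lies on a face -/
theorem cfO (e : {c : T.Cell // OutK T Kc c}) (he : e.1.dim = 1) :
    ∃ F, e ≤ (lmO h3 hH hdis hne).cf F := by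
  obtain ⟨q, h1, h2⟩ := e.2
  have hq : e.1.pt ∈ Msh_715.P (T.H q) := h2 (pt_set e.1)
  obtain ⟨F, hF, hqF⟩ := exists_face_out (h3 := h3) e.1.pt_mem he hq
  refine ⟨⟨F, out_face h3 F ⟨q, h1, C2.sub_tile (h3 := h3) hqF⟩⟩, ?_⟩
  show e.1.set ⊆ F.set
  rw [e.1.set_eq]
  have h4 : e.1.pt ∈ F.set := hF.1
  rw [F.set_eq] at h4 ⊢
  exact T.cc_sub_of_mem h4

theorem cfK (e : QK (belK T Kc)) (he : dimK (belK T Kc) (fun c => c.1.dim) e = 1) :
    ∃ F, e ≤ (lmK h3 hH hdis hne).cf F := by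
  rcases e with e | k
  · exact cfO e he
  · exact absurd (show (3 : ℕ) = 1 from he) (by norm_num)

/-- finitely many cells of a tiling in a compact set -/
theorem finite_sub {S : Set E} (hS : IsCompact S) (hSO : S ⊆ Om) :
    {c : T.Cell | c.set ⊆ S}.Finite := by
  refine Set.Finite.of_finite_image (f := fun c : T.Cell => c.set)
    ((T.finite_cells hS hSO).subset ?_) (fun c _ d _ h => Tiling.Cell.ext h)
  rintro _ ⟨c, hc, rfl⟩
  exact ⟨⟨c.pt, c.pt_mem, c.set_eq⟩, c.pt, pt_set c, hc (pt_set c)⟩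

/-- finitely many cells below a cell -/
theorem finite_leK (c : QK (belK T Kc)) (hH : ∀ c, CoreH T (Kc c)) : {d | d ≤ c}.Finite := by
  rcases c with c | k
  · have h1 : {d : T.Cell | d.set ⊆ c.1.set}.Finite := by
      rw [c.1.set_eq]
      exact finite_sub (T.isCompact_cc c.1.pt_mem) (T.cc_sub_Om c.1.pt_mem)
    have h2 : {d : {c : T.Cell // OutK T Kc c} | d.1.set ⊆ c.1.set}.Finite :=
      h1.preimage Subtype.val_injective.injOn
    refine (h2.image (QK.c (belK T Kc))).subset ?_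
    rintro d hd
    obtain ⟨d', rfl, hd'⟩ := QK.le_c hd
    exact ⟨d', hd', rfl⟩
  · have h1 : {d : T.Cell | d.set ⊆ Kc k}.Finite := finite_sub (hH k).cpt (hH k).sub
    have h2 : {d : {c : T.Cell // OutK T Kc c} | d.1.set ⊆ Kc k}.Finite :=
      h1.preimage Subtype.val_injective.injOn
    refine ((h2.image (QK.c (belK T Kc))).union (finite_singleton (QK.k _ k))).subset ?_
    rintro d hd
    rcases d with d | k'
    · left
      have h4 : d.1.set ⊆ frontier (Kc k) := hd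
      exact ⟨d, h4.trans (hH k).cpt.isClosed.frontier_subset, rfl⟩
    · right
      have h5 : k' = k := hd
      exact congrArg (QK.k (belK T Kc)) h5

/-- the candidate points are the points on the faces of the merged mesh -/
theorem W1K_eq : (lmK h3 hH hdis hne).W1 = VC h3 (piK T Kc)
    (connAt_piK h3 (fun c => (hH c).core) (fun c => (hH c).cc) hdis) := by
  ext w
  constructor
  · intro hw
    exact ⟨⟨(mem_W1K.1 hw).1, (mem_W1K.1 hw).2.1⟩, faceK hw⟩
  · rintro ⟨h1, F, hF⟩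
    exact ((lmK h3 hH hdis hne).on_iff F w).1 hF |>.1

/-- **parallel points for the merged mesh of a tiling** -/
theorem hasParK : WS.HasPar (oriK h3 hH hdis) (RelM T) (lmK h3 hH hdis hne).W1 := by
  rw [W1K_eq]
  exact hasParC h3 _ _

end tiling

end Crest.Agent.R096.Gm_298
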