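import Crest.Agent.R096.Dfi5_471
import Crest.Agent.R096.Frn1_337
import Crest.Agent.R096.Gm3_298

/-!
# R096 (row 96), DOORS_final, part 2 (helper539): the record of the state after CUT

`CutOut M s am Act s'` : `s` = state with barriers (names `J ⊕ Mo`), `s'` = state of the families after
the cut along all barriers; `am m` = the family which is cut by the barrier `m`, `Act a` = the cells in
which the family `a` may have been changed.

Consequences over `meshK`: points on 1-cells, finiteness, tiles of the new points.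
-/

set_option autoImplicit false
set_option linter.unusedSectionVars false
set_option linter.style.longLine false

open Set Topology Filter Metric Module
open scoped Classical

namespace Crest.Agent.R096.Dfo_539

open Crest.Agent.R096.St_147 Crest.Agent.R096.Seq_213 Crest.Agent.R096.Seq_213.GSt
  Crest.Agent.R096.SkB_662
open Crest.Agent.R096.St_147.St (Frozen)

section record

variable {ι Φ W J C Mo : Type} {M : MeshC ι Φ W} {fam : J → C}

/-- the barrier chord `(F, x)` is crossed by no chord of the family `a` -/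
def NoX (s : GSt M (Sum.map fam (id : Mo → Mo))) (a : C) (F : Φ) (x : W) : Prop :=
  ∀ y, s.At F y → (∃ i, s.lab y = Sum.inl i ∧ fam i = a) → ¬ M.Lace F x (s.mu F x) y (s.mu F y)

/-- the barrier point `h` of name `m` is not joined with a point on a frozen face by barrier chords
which are not crossed by the family of `m` (892's `Encl` for the pair state) -/
def Encl (s : GSt M (Sum.map fam (id : Mo → Mo))) (am : Mo → C) (Act : C → Set ι) (m : Mo) (h : W) :
    Prop :=
  ∃ X : Set W, h ∈ X ∧ (∀ x ∈ X, x ∈ s.P ∧ s.lab x = Sum.inr m) ∧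
    (∀ F x, x ∈ X → s.At F x → NoX s (am m) F x → s.mu F x ∈ X) ∧
    ∀ F x, x ∈ X → s.At F x → ¬ Frozen M (Act (am m)) F

/-- `Encl` is impossible when every closed set has a frozen point -/
theorem Encl.not {s : GSt M (Sum.map fam (id : Mo → Mo))} {am : Mo → C} {Act : C → Set ι} {m : Mo}
    {h : W} (he : Encl s am Act m h)
    (hy : ∀ X : Set W, h ∈ X → (∀ F x, x ∈ X → s.At F x → s.lab x = Sum.inr m → NoX s (am m) F x →
      s.mu F x ∈ X) → ∃ x ∈ X, ∃ F, s.At F x ∧ Frozen M (Act (am m)) F) : False := by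
  obtain ⟨X, h1, h2, h3, h4⟩ := he
  obtain ⟨x, hx, F, hF, hfr⟩ := hy X h1 fun F x hx hA _ hn => h3 F x hx hA hn
  exact h4 F x hx hF hfr

/-- **output of the cut of all families** -/
structure CutOut (s : GSt M (Sum.map fam (id : Mo → Mo))) (am : Mo → C) (Act : C → Set ι)
    (s' : GSt M fam) : Prop where
  h1 : ∀ j, s.H1 (Sum.inl j) → s'.H1 j
  conn : ∀ j, s.Conn (Sum.inl j) → s'.Conn j
  /-- common points have the same name -/
  old : ∀ w ∈ s'.P, w ∈ s.P → s.lab w = Sum.inl (s'.lab w)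
  /-- new points are next to enclosed barrier points -/
  new : ∀ w ∈ s'.P, w ∉ s.P → ∃ h ∈ s.P, ∃ m, s.lab h = Sum.inr m ∧ am m = fam (s'.lab w) ∧
    (∀ F, w ∈ M.On F ↔ h ∈ M.On F) ∧ Encl s am Act m h
  /-- nothing changes on frozen faces -/
  frozen : ∀ F w j, Frozen M (Act (fam j)) F →
    ((s'.At F w ∧ s'.lab w = j) ↔ (s.At F w ∧ s.lab w = Sum.inl j))
  frozen_mu : ∀ F w, s'.At F w → Frozen M (Act (fam (s'.lab w))) F → s'.mu F w = s.mu F w

variable {s : GSt M (Sum.map fam (id : Mo → Mo))} {am : Mo → C} {Act : C → Set ι} {s' : GSt M fam}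

namespace CutOut

/-- **finitely many points on a face** -/
theorem fin (D : CutOut s am Act s') (F : Φ) (hfin : (s.P ∩ M.On F).Finite) :
    (s'.P ∩ M.On F).Finite := by
  have h2 : (⋃ h ∈ s.P ∩ M.On F, {w | w ∈ s'.P ∧ ∃ m, s.lab h = Sum.inr m ∧
      fam (s'.lab w) = am m}).Finite := by
    refine hfin.biUnion fun h _ => ?_
    rcases hl : s.lab h with i | m
    · refine (Set.finite_empty (α := W)).subset ?_
      rintro w ⟨-, m, h1, -⟩
      simp at h1
    · refine (s'.fin (am m)).subset ?_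
      rintro w ⟨h1, m', h2, h3⟩
      obtain rfl : m = m' := Sum.inr_injective h2
      exact ⟨h1, h3⟩
  refine (hfin.union h2).subset ?_
  rintro w ⟨hw, hF⟩
  by_cases hs : w ∈ s.P
  · exact Or.inl ⟨hs, hF⟩
  · right
    obtain ⟨h, h3, m, h4, h5, h6, -⟩ := D.new w hw hs
    exact mem_biUnion (⟨h3, (h6 F).1 hF⟩ : h ∈ s.P ∩ M.On F) ⟨hw, m, h4, h5.symm⟩

/-- (E1) on frozen faces -/
theorem one (D : CutOut s am Act s') {S : Set Φ} {j : J} (hS : ∀ F ∈ S, Frozen M (Act (fam j)) F)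
    (h : One s S (Sum.inl j)) : One s' S j := by
  intro Z hZ F w F' w' hF hF' hw hw' hl hl' hwZ
  obtain ⟨a1, a2⟩ := (D.frozen F w j (hS F hF)).1 ⟨hw, hl⟩
  obtain ⟨b1, b2⟩ := (D.frozen F' w' j (hS F' hF')).1 ⟨hw', hl'⟩
  have key := h (Z ∩ {x | s'.lab x = j ∧ x ∈ s'.P}) (fun G x hG hx hA hlx => ?_) F w F' w' hF hF'
    a1 b1 a2 b2 ⟨hwZ, hl, hw.1⟩
  · exact key.1
  · have h1 := (D.frozen G x j (hS G hG)).2 ⟨hA, hlx⟩
    have h2 : s'.mu G x = s.mu G x := D.frozen_mu G x h1.1 (by rw [h1.2]; exact hS G hG)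
    have h3 := s'.mu_mem h1.1.1 h1.1.2
    rw [← h2]
    exact ⟨hZ G x hG hx.1 h1.1 h1.2, by rw [s'.mu_lab h1.1.1 h1.1.2]; exact h1.2, h3.1⟩

theorem xp (D : CutOut s am Act s') {F : Φ} {j j' : J} (hj : Frozen M (Act (fam j)) F)
    (hj' : Frozen M (Act (fam j')) F) {x y : W} :
    XP s' F j j' x y ↔ XP s F (Sum.inl j) (Sum.inl j') x y := by
  constructor
  · rintro ⟨h1, h2, h3, h4, h5, h6, h7⟩
    obtain ⟨a1, a2⟩ := (D.frozen F x j hj).1 ⟨h1, h3⟩
    obtain ⟨b1, b2⟩ := (D.frozen F y j' hj').1 ⟨h2, h4⟩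
    have e1 : s'.mu F x = s.mu F x := D.frozen_mu F x h1 (by rw [h3]; exact hj)
    have e2 : s'.mu F y = s.mu F y := D.frozen_mu F y h2 (by rw [h4]; exact hj')
    rw [e1] at h5 h7
    rw [e2] at h6 h7
    exact ⟨a1, b1, a2, b2, h5, h6, h7⟩
  · rintro ⟨h1, h2, h3, h4, h5, h6, h7⟩
    obtain ⟨a1, a2⟩ := (D.frozen F x j hj).2 ⟨h1, h3⟩
    obtain ⟨b1, b2⟩ := (D.frozen F y j' hj').2 ⟨h2, h4⟩
    have e1 : s'.mu F x = s.mu F x := D.frozen_mu F x a1 (by rw [a2]; exact hj)
    have e2 : s'.mu F y = s.mu F y := D.frozen_mu F y b1 (by rw [b2]; exact hj')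
    rw [← e1] at h5 h7
    rw [← e2] at h6 h7
    exact ⟨a1, b1, a2, b2, h5, h6, h7⟩

/-- (E2) on frozen faces -/
theorem two (D : CutOut s am Act s') {A B : Set ι} {j j' : J}
    (hB : ∀ F, (∃ q ∈ M.side F, q ∈ B) → Frozen M (Act (fam j)) F ∧ Frozen M (Act (fam j')) F)
    (h : Two s A B (Sum.inl j) (Sum.inl j')) : Two s' A B j j' := by
  obtain ⟨t, ⟨h1, h2, h3⟩, h4⟩ := h
  refine ⟨t, ⟨(D.xp (hB _ h3).1 (hB _ h3).2).2 h1, h2, h3⟩, ?_⟩
  rintro u ⟨g1, g2, g3⟩
  exact h4 u ⟨(D.xp (hB _ g3).1 (hB _ g3).2).1 g1, g2, g3⟩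

end CutOut

end record

end Crest.Agent.R096.Dfo_539
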