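import Crest.Agent.R096.Fin2_441

/-!
# R096 (row 96), GLUE-STATE part 2 (helper422): NEST.  The sheets of one family of a global state over
the mesh of a tiling are totally ordered by inclusion of their insides, as soon as all labels are 1
at one vertex and 0 at another one (joined by 1-cells).
-/

set_option autoImplicit false
set_option linter.unusedSectionVars false

open Set Metric Relation

namespace Crest.Agent.R096.Gs_422

open Crest.Agent.R096.Msh_715 Crest.Agent.R096.Agl5_543 Crest.Agent.R096.St_147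
  Crest.Agent.R096.Seq_213 Crest.Agent.R096.Lab_184 Crest.Agent.R096.Mv_441
  Crest.Agent.R096.Main_4

variable {E : Type} [NormedAddCommGroup E] [NormedSpace ℝ E] [FiniteDimensional ℝ E]
variable {Om : Set E} {ι J C : Type} {T : Tiling Om ι} {h3 : Module.finrank ℝ E = 3}
variable {fam : J → C}

theorem edg_symm {W : Set ι} {v v' : E} (h : ReflTransGen (Edg T W) v v') :
    ReflTransGen (Edg T W) v' v := by
  induction h with
  | refl => exact .refl
  | tail _ h ih => exact .head h.symm ih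

/-- **FIRST POINT**: if a property of the labels of finitely many sheets changes along a path of
1-cells, there is a vertex `a` with the property and a point `w` of one of the sheets for which the
sides with respect to the other sheets are their labels at `a`. -/
theorem first_pt {s : GSt (meshC T h3) fam} (hon : ∀ w ∈ s.P, w ∈ Om ∧ T.dim w = 1)
    {I : Finset J} {lam : J → E → ZMod 2} (hl : ∀ i ∈ I, IsLab T (gPts s i) (lam i))
    {A : (J → ZMod 2) → Prop} (hA : ∀ x y, (∀ i ∈ I, x i = y i) → A x → A y) {W : Set ι}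
    {v v' : E} (hp : ReflTransGen (Edg T W) v v') (h1 : A (fun i => lam i v))
    (h2 : ¬ A (fun i => lam i v')) :
    ∃ a, A (fun i => lam i a) ∧ ∃ w ∈ s.P, s.lab w ∈ I ∧
      ∀ i' ∈ I, i' ≠ s.lab w → sd T (gPts s i') (lam i') w = lam i' a := by
  classical
  induction hp with
  | refl => exact absurd h1 h2
  | @tail a b _ hs ih =>
    by_cases ha : A (fun i => lam i a)
    swap
    · exact ih ha
    obtain ⟨w₀, hw₀, hd, hseg, -⟩ := hs
    obtain ⟨hab, ha0, hb0, hoc⟩ := ends_of_segment hw₀ hd hseg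
    have hQ : ∀ i, EvenPat T (gPts s i) := fun i => gst_even s i fun w hw _ => hon w hw
    set R : Finset E := I.biUnion (gPts s) with hR
    have hne : (R.filter (fun u => u ∈ segment ℝ a b)).Nonempty := by
      by_contra hcon
      rw [Finset.not_nonempty_iff_eq_empty] at hcon
      refine h2 (hA _ _ (fun i hi => ?_) ha)
      have e1 := hl i hi w₀ hw₀ hd a b hseg
      have e2 : (gPts s i).filter (fun u => u ∈ T.cc w₀) = ∅ := by
        rw [Finset.filter_eq_empty_iff]
        intro u hu hc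
        rw [hseg] at hc
        have : u ∈ R.filter (fun u => u ∈ segment ℝ a b) :=
          Finset.mem_filter.2 ⟨Finset.mem_biUnion.2 ⟨i, hi, hu⟩, hc⟩
        rw [hcon] at this
        exact absurd this (Finset.notMem_empty u)
      have e3 : (((gPts s i).filter (fun u => u ∈ T.cc w₀)).card : ZMod 2) = 0 := by rw [e2]; simp
      exact CharTwo.add_eq_zero.1 (e1.trans (by convert e3))
    obtain ⟨w, hwR, hws, hfirst⟩ := Fin_441.exists_first R hne
    obtain ⟨i, hi, hwi⟩ := Finset.mem_biUnion.1 hwR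
    obtain ⟨hwP, hwl⟩ := mem_gPts.1 hwi
    obtain ⟨hwO, hw1⟩ := hon w hwP
    have hwcc : w ∈ T.cc w₀ := by rw [hseg]; exact hws
    have hwoc : w ∈ T.oc w₀ := by
      by_contra hn
      have := T.dim_lt hwcc hn
      omega
    have hcc : T.cc w = segment ℝ a b := by
      rw [← hseg]; exact T.cc_eq_of_mem_oc hw₀ hwoc
    refine ⟨a, ha, w, hwP, by rw [hwl]; exact hi, fun i' hi' hne' => ?_⟩
    have hwQ : w ∉ gPts s i' := fun h => hne' (mem_gPts.1 h).2.symm
    rw [sd_eq h3 (hQ i') (hl i' hi') hwO hw1 hwQ hcc ha0]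
    have e4 : ons (gPts s i') a w = 0 := by
      unfold ons
      rw [Finset.filter_eq_empty_iff.2]
      · simp
      · intro u hu hua
        have := hfirst u (Finset.mem_biUnion.2 ⟨i', hi', hu⟩) hua
        exact hwQ (this ▸ hu)
    rw [e4, add_zero]

/-- the sheet `j` lies inside the sheet `j'` -/
def Ins (s : GSt (meshC T h3) fam) (lam : J → E → ZMod 2) (j j' : J) : Prop :=
  ∀ w ∈ s.P, s.lab w = j → sd T (gPts s j') (lam j') w = 1

/-- the sheet `j` lies outside the sheet `j'` -/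
def Out (s : GSt (meshC T h3) fam) (lam : J → E → ZMod 2) (j j' : J) : Prop :=
  ∀ w ∈ s.P, s.lab w = j → sd T (gPts s j') (lam j') w = 0

/-- labelled sheets of the family `c`: label 1 at `v₀`, 0 at `v₁` -/
structure Lbd (s : GSt (meshC T h3) fam) (c : C) (lam : J → E → ZMod 2) (v₀ v₁ : E) : Prop where
  on : ∀ w ∈ s.P, w ∈ Om ∧ T.dim w = 1
  conn : ∀ j, fam j = c → s.Conn j
  lab : ∀ j, fam j = c → IsLab T (gPts s j) (lam j)
  one : ∀ j, fam j = c → lam j v₀ = 1
  zero : ∀ j, fam j = c → lam j v₁ = 0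
  path : ∃ W : Set ι, ReflTransGen (Edg T W) v₀ v₁

variable {s : GSt (meshC T h3) fam} {c : C} {lam : J → E → ZMod 2} {v₀ v₁ : E}

theorem Lbd.ins_of_pt (h : Lbd s c lam v₀ v₁) {j j' : J} (hj : fam j = c) (hj' : fam j' = c)
    (hne : j' ≠ j) {w : E} (hw : w ∈ s.P) (hl : s.lab w = j)
    (h1 : sd T (gPts s j') (lam j') w = 1) : Ins s lam j j' := by
  intro w' hw' hl'
  rw [← h1]
  exact Fin_441.side_const (hj'.trans hj.symm) hne h.on (h.conn j hj) (h.lab j' hj') hw' hl' hw hl

theorem Lbd.out_of_pt (h : Lbd s c lam v₀ v₁) {j j' : J} (hj : fam j = c) (hj' : fam j' = c)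
    (hne : j' ≠ j) {w : E} (hw : w ∈ s.P) (hl : s.lab w = j)
    (h1 : sd T (gPts s j') (lam j') w = 0) : Out s lam j j' := by
  intro w' hw' hl'
  rw [← h1]
  exact Fin_441.side_const (hj'.trans hj.symm) hne h.on (h.conn j hj) (h.lab j' hj') hw' hl' hw hl

theorem Lbd.not_both (h : Lbd s c lam v₀ v₁) {j j' : J} (hj : fam j = c)
    (h1 : Ins s lam j j') (h2 : Out s lam j j') : False := by
  obtain ⟨⟨w, hw, hl⟩, -⟩ := h.conn j hj
  have e1 := h1 w hw hl
  rw [h2 w hw hl] at e1
  exact absurd e1 (by decide)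

/-- a nonempty finite set of sheets of the family has an innermost sheet -/
theorem Lbd.inner (h : Lbd s c lam v₀ v₁) {I : Finset J} (hI : I.Nonempty)
    (hf : ∀ i ∈ I, fam i = c) : ∃ i ∈ I, ∀ i' ∈ I, i' ≠ i → Ins s lam i i' := by
  obtain ⟨W, hW⟩ := h.path
  obtain ⟨i₀, hi₀⟩ := hI
  obtain ⟨a, ha, w, hw, hwI, h1⟩ := first_pt h.on (I := I) (fun i hi => h.lab i (hf i hi))
    (A := fun x => ∀ i ∈ I, x i = 1) (fun x y hxy hx i hi => by rw [← hxy i hi]; exact hx i hi) hW
    (fun i hi => h.one i (hf i hi))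
    (fun hcon => by
      have e1 : lam i₀ v₁ = 1 := hcon i₀ hi₀
      have e2 := h.zero i₀ (hf i₀ hi₀)
      rw [e2] at e1
      exact absurd e1 (by decide))
  refine ⟨s.lab w, hwI, fun i' hi' hne => ?_⟩
  exact h.ins_of_pt (hf _ hwI) (hf i' hi') hne hw rfl (by rw [h1 i' hi' hne]; exact ha i' hi')

/-- a nonempty finite set of sheets of the family has an outermost sheet -/
theorem Lbd.outer (h : Lbd s c lam v₀ v₁) {I : Finset J} (hI : I.Nonempty)
    (hf : ∀ i ∈ I, fam i = c) : ∃ i ∈ I, ∀ i' ∈ I, i' ≠ i → Out s lam i i' := by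
  obtain ⟨W, hW⟩ := h.path
  obtain ⟨i₀, hi₀⟩ := hI
  obtain ⟨a, ha, w, hw, hwI, h1⟩ := first_pt h.on (I := I) (fun i hi => h.lab i (hf i hi))
    (A := fun x => ∀ i ∈ I, x i = 0) (fun x y hxy hx i hi => by rw [← hxy i hi]; exact hx i hi)
    (edg_symm hW) (fun i hi => h.zero i (hf i hi))
    (fun hcon => by
      have e1 : lam i₀ v₀ = 0 := hcon i₀ hi₀
      have e2 := h.one i₀ (hf i₀ hi₀)
      rw [e2] at e1
      exact absurd e1 (by decide))
  refine ⟨s.lab w, hwI, fun i' hi' hne => ?_⟩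
  exact h.out_of_pt (hf _ hwI) (hf i' hi') hne hw rfl (by rw [h1 i' hi' hne]; exact ha i' hi')

/-- **two sheets of the family are nested** -/
theorem Lbd.tri (h : Lbd s c lam v₀ v₁) {j j' : J} (hj : fam j = c) (hj' : fam j' = c)
    (hne : j ≠ j') : (Ins s lam j j' ∧ Out s lam j' j) ∨ (Ins s lam j' j ∧ Out s lam j j') := by
  classical
  have hf : ∀ i ∈ ({j, j'} : Finset J), fam i = c := by
    intro i hi
    rcases Finset.mem_insert.1 hi with rfl | hi
    · exact hj
    · rw [Finset.mem_singleton.1 hi]; exact hj'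
  have hn : ({j, j'} : Finset J).Nonempty := ⟨j, Finset.mem_insert_self _ _⟩
  have hjI : j ∈ ({j, j'} : Finset J) := Finset.mem_insert_self _ _
  have hjI' : j' ∈ ({j, j'} : Finset J) := Finset.mem_insert_of_mem (Finset.mem_singleton_self _)
  have h1 : Ins s lam j j' ∨ Ins s lam j' j := by
    obtain ⟨i, hi, h1⟩ := h.inner hn hf
    rcases Finset.mem_insert.1 hi with rfl | hi
    · exact Or.inl (h1 j' hjI' hne.symm)
    · rw [Finset.mem_singleton.1 hi] at h1
      exact Or.inr (h1 j hjI hne)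
  have h2 : Out s lam j j' ∨ Out s lam j' j := by
    obtain ⟨i, hi, h1⟩ := h.outer hn hf
    rcases Finset.mem_insert.1 hi with rfl | hi
    · exact Or.inl (h1 j' hjI' hne.symm)
    · rw [Finset.mem_singleton.1 hi] at h1
      exact Or.inr (h1 j hjI hne)
  rcases h1 with h1 | h1
  · rcases h2 with h2 | h2
    · exact (h.not_both hj h1 h2).elim
    · exact Or.inl ⟨h1, h2⟩
  · rcases h2 with h2 | h2
    · exact Or.inr ⟨h1, h2⟩
    · exact (h.not_both hj' h1 h2).elim

theorem Lbd.asymm (h : Lbd s c lam v₀ v₁) {j j' : J} (hj : fam j = c) (hj' : fam j' = c)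
    (hne : j ≠ j') (h1 : Ins s lam j j') : ¬ Ins s lam j' j := by
  intro h2
  rcases h.tri hj hj' hne with ⟨-, h4⟩ | ⟨-, h4⟩
  · exact h.not_both hj' h2 h4
  · exact h.not_both hj h1 h4

theorem Lbd.out_of_not (h : Lbd s c lam v₀ v₁) {j j' : J} (hj : fam j = c) (hj' : fam j' = c)
    (hne : j ≠ j') (h1 : ¬ Ins s lam j j') : Ins s lam j' j ∧ Out s lam j j' := by
  rcases h.tri hj hj' hne with ⟨h2, -⟩ | h2
  · exact absurd h2 h1
  · exact h2

/-- **transitivity** -/
theorem Lbd.trans (h : Lbd s c lam v₀ v₁) {j j' j'' : J} (hj : fam j = c) (hj' : fam j' = c)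
    (hj'' : fam j'' = c) (n1 : j ≠ j') (n2 : j' ≠ j'') (h1 : Ins s lam j j')
    (h2 : Ins s lam j' j'') : j ≠ j'' ∧ Ins s lam j j'' := by
  classical
  have n3 : j ≠ j'' := by
    rintro rfl
    exact h.asymm hj hj' n1 h1 h2
  refine ⟨n3, ?_⟩
  by_contra hcon
  have hf : ∀ i ∈ ({j, j', j''} : Finset J), fam i = c := by
    intro i hi
    simp only [Finset.mem_insert, Finset.mem_singleton] at hi
    rcases hi with rfl | rfl | rfl
    · exact hj
    · exact hj'
    · exact hj''
  obtain ⟨i, hi, h4⟩ := h.inner (I := {j, j', j''}) ⟨j, by simp⟩ hf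
  simp only [Finset.mem_insert, Finset.mem_singleton] at hi h4
  rcases hi with rfl | rfl | rfl
  · exact hcon (h4 j'' (Or.inr (Or.inr rfl)) n3.symm)
  · exact h.asymm hj hj' n1 h1 (h4 j (Or.inl rfl) n1)
  · exact h.asymm hj' hj'' n2 h2 (h4 j' (Or.inr (Or.inl rfl)) n2)

/-- **labels are nested** -/
theorem Lbd.mono (h : Lbd s c lam v₀ v₁) {j j' : J} (hj : fam j = c) (hj' : fam j' = c)
    (hne : j ≠ j') (h1 : Ins s lam j j') {W : Set ι} {v : E}
    (hv : ReflTransGen (Edg T W) v v₁) (hv1 : lam j v = 1) : lam j' v = 1 := by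
  classical
  by_contra hcon
  have hz : ∀ x : ZMod 2, x ≠ 1 → x = 0 := by decide
  have hcon0 := hz _ hcon
  have hf : ∀ i ∈ ({j, j'} : Finset J), fam i = c := by
    intro i hi
    rcases Finset.mem_insert.1 hi with rfl | hi
    · exact hj
    · rw [Finset.mem_singleton.1 hi]; exact hj'
  have hjI : j ∈ ({j, j'} : Finset J) := Finset.mem_insert_self _ _
  have hjI' : j' ∈ ({j, j'} : Finset J) := Finset.mem_insert_of_mem (Finset.mem_singleton_self _)
  obtain ⟨a, ha, w, hw, hwI, h4⟩ := first_pt h.on (I := {j, j'})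
    (fun i hi => h.lab i (hf i hi)) (A := fun x => x j = 1 ∧ x j' = 0)
    (fun x y hxy hx => ⟨by rw [← hxy j hjI]; exact hx.1, by rw [← hxy j' hjI']; exact hx.2⟩) hv
    ⟨hv1, hcon0⟩ (fun hcon => by
      have e1 : lam j v₁ = 1 := hcon.1
      rw [h.zero j hj] at e1
      exact absurd e1 (by decide))
  have ha1 : lam j a = 1 := ha.1
  have ha2 : lam j' a = 0 := ha.2
  rcases Finset.mem_insert.1 hwI with e | e
  · have e1 := h4 j' hjI' (by rw [e]; exact hne.symm)
    rw [h1 w hw e, ha2] at e1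
    exact absurd e1 (by decide)
  · have e' := Finset.mem_singleton.1 e
    have e1 := h4 j hjI (by rw [e']; exact hne)
    have h5 : Out s lam j' j := by
      rcases h.tri hj hj' hne with ⟨-, h5⟩ | ⟨h5, -⟩
      · exact h5
      · exact absurd h5 (h.asymm hj hj' hne h1)
    rw [h5 w hw e', ha1] at e1
    exact absurd e1 (by decide)

/-! ### the order number -/

open Classical in
/-- number of the sheets of the family outside `j` -/
noncomputable def ord (s : GSt (meshC T h3) fam) (lam : J → E → ZMod 2) (A : Finset J) (j : J) : ℕ :=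
  (A.filter (fun j' => j' ≠ j ∧ Ins s lam j j')).card

theorem Lbd.ord_lt (h : Lbd s c lam v₀ v₁) {A : Finset J} (hA : ∀ j ∈ A, fam j = c) {j j' : J}
    (hj : j ∈ A) (hj' : j' ∈ A) (hne : j ≠ j') (h1 : Ins s lam j j') :
    ord s lam A j' < ord s lam A j := by
  classical
  unfold ord
  refine Finset.card_lt_card ⟨?_, ?_⟩
  · intro i hi
    obtain ⟨hiA, hi1, hi2⟩ := Finset.mem_filter.1 hi
    obtain ⟨h4, h5⟩ := h.trans (hA j hj) (hA j' hj') (hA i hiA) hne hi1.symm h1 hi2
    exact Finset.mem_filter.2 ⟨hiA, h4.symm, h5⟩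
  · intro hsub
    have h2 : j' ∈ A.filter (fun i => i ≠ j ∧ Ins s lam j i) :=
      Finset.mem_filter.2 ⟨hj', hne.symm, h1⟩
    have h4 := hsub h2
    exact (Finset.mem_filter.1 h4).2.1 rfl

/-- **the order number determines the sheet** -/
theorem Lbd.ord_inj (h : Lbd s c lam v₀ v₁) {A : Finset J} (hA : ∀ j ∈ A, fam j = c) :
    Set.InjOn (ord s lam A) A := by
  intro j hj j' hj' e
  by_contra hne
  rcases h.tri (hA j hj) (hA j' hj') hne with ⟨h1, -⟩ | ⟨h1, -⟩
  · have := h.ord_lt hA hj hj' hne h1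
    omega
  · have := h.ord_lt hA hj' hj (Ne.symm hne) h1
    omega

theorem ord_lt_card {A : Finset J} {j : J} (hj : j ∈ A) : ord s lam A j < A.card := by
  classical
  unfold ord
  refine Finset.card_lt_card ⟨Finset.filter_subset _ _, fun hsub => ?_⟩
  exact (Finset.mem_filter.1 (hsub hj)).2.1 rfl

end Crest.Agent.R096.Gs_422
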