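import Crest.Agent.R096.Cel2_715
import Crest.Agent.R096.Lab3_184

/-! Row 96, P1-LAB (helper184), part 4: global potentials / labels with compact support
(`Om` may have holes). -/

set_option autoImplicit false

open Set Topology Filter Metric Module

namespace Crest.Agent.R096.Lab_184

open Crest.Agent.R096.Msh_715 Crest.Agent.R096.Coh_184

variable {E : Type*} [NormedAddCommGroup E] [NormedSpace ℝ E] [FiniteDimensional ℝ E]
variable {Om : Set E} {ι : Type*} {T : Tiling Om ι} {A : Type*} [AddCommGroup A]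

/-- **potentials with compact support**: `D` compact with trivial torsors and connected frontier,
`κ` exact on every 2-cell and zero on the tiles which do not lie in the interior of `D`. -/
theorem potential (h3 : finrank ℝ E = 3) {D : Set E} (hD : IsCompact D) (hDO : D ⊆ Om)
    (hfr : IsPreconnected (frontier D)) (ht : TrivF A D) {κ : E → E → E → A}
    (h2 : ∀ x ∈ Om, T.dim x = 2 → ∃ ψ : E → A, T.Exact κ ψ (T.cc x))
    (h0 : ∀ q, ¬ P (T.H q) ⊆ interior D → T.Exact κ (fun _ => 0) (P (T.H q))) :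
    ∃ ψ : E → A, (∀ v ∉ D, ψ v = 0) ∧ (∀ v, T.dim v ≠ 0 → ψ v = 0) ∧
      (∀ q, ¬ P (T.H q) ⊆ interior D → ∀ v ∈ P (T.H q), ψ v = 0) ∧ T.Exact κ ψ Om := by
  classical
  -- local potentials
  have hloc : ∀ q, ∃ ψ : E → A, T.Exact κ ψ (P (T.H q)) ∧
      (¬ P (T.H q) ⊆ interior D → ψ = fun _ => 0) := by
    intro q
    by_cases hq : P (T.H q) ⊆ interior D
    · obtain ⟨ψ, hψ⟩ := T.exact_tile h3 q fun x hx => h2 x (T.sub q hx)
      exact ⟨ψ, hψ, fun h => (h hq).elim⟩
    · exact ⟨fun _ => 0, h0 q hq, fun _ => rfl⟩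
  choose ψ hψ hψ0 using hloc
  have hvert : ∀ x ∈ Om, ∃ v ∈ T.cc x, T.dim v = 0 := fun x hx => T.exists_vertex hx
  choose! g hg hg0 using hvert
  have hgv : ∀ v ∈ Om, T.dim v = 0 → g v = v := by
    intro v hv hv0
    have h1 := hg v hv
    rw [T.cc_eq_singleton (T.dim_eq_zero_iff.1 hv0), mem_singleton_iff] at h1
    exact h1
  have hfin := T.finite_tiles hD hDO
  have : Finite {q // (P (T.H q) ∩ D).Nonempty} := hfin
  have hcoc : Coc (fun q : {q // (P (T.H q) ∩ D).Nonempty} => P (T.H q.1))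
      (fun i j x => ψ i.1 (g x) - ψ j.1 (g x)) D := by
    refine ⟨fun q => isClosed_P _, ?_, fun i j => ?_, fun i j k x _ _ _ _ => by abel⟩
    · intro x hx
      obtain ⟨q, hq⟩ := T.cov x (hDO hx)
      exact mem_iUnion.2 ⟨⟨q, x, hq, hx⟩, hq⟩
    · rintro x ⟨⟨hxi, hxj⟩, hxS⟩
      have hxO := T.sub i.1 hxi
      have h1 : ∀ᶠ y in 𝓝[P (T.H i.1) ∩ P (T.H j.1) ∩ D] x, y ∈ Om ∧ x ∈ T.cc y :=
        (T.eventually_mem_cc hxO).filter_mono nhdsWithin_le_nhds
      filter_upwards [h1, self_mem_nhdsWithin] with y hy hyC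
      have h2 : T.EdgeConst (fun v => ψ i.1 v - ψ j.1 v) (T.cc y) :=
        Tiling.Exact.edgeConst T ((hψ i.1).mono T (T.cc_sub_tile hyC.1.1))
          ((hψ j.1).mono T (T.cc_sub_tile hyC.1.2))
      exact T.const_cell hy.1 h2 (g y) (hg y hy.1) (g x) (T.cc_sub_of_mem hy.2 (hg x hxO))
        (hg0 y hy.1) (hg0 x hxO)
  obtain ⟨χ, hχ, hχd⟩ := (ht.all {q // (P (T.H q) ∩ D).Nonempty}) _ _ hcoc
  have hDc : IsClosed D := hD.isClosed
  have hfrD : frontier D ⊆ D := hDc.frontier_subset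
  -- tiles meeting `D` but not inside the interior meet the frontier
  have hmeet : ∀ q, (P (T.H q) ∩ D).Nonempty → ¬ P (T.H q) ⊆ interior D →
      (P (T.H q) ∩ frontier D).Nonempty := by
    intro q ⟨x, hxq, hxD⟩ hq
    by_contra hne
    rw [not_nonempty_iff_eq_empty] at hne
    apply hq
    have hpre : IsPreconnected (P (T.H q)) := (convex_P _).isPreconnected
    have hcov : P (T.H q) ⊆ interior D ∪ Dᶜ := by
      intro y hy
      by_cases hyD : y ∈ D
      · left
        by_contra hyi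
        have : y ∈ P (T.H q) ∩ frontier D := ⟨hy, by
          rw [hDc.frontier_eq]; exact ⟨hyD, hyi⟩⟩
        rw [hne] at this; exact this
      · right; exact hyD
    have hxi : x ∈ interior D := by
      rcases hcov hxq with h | h
      · exact h
      · exact (h hxD).elim
    exact hpre.subset_left_of_subset_union isOpen_interior hDc.isOpen_compl
      (disjoint_compl_right.mono_left interior_subset) hcov ⟨x, hxq, hxi⟩
  -- a tile meeting the frontier is not in the interior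
  have hnot : ∀ q, (P (T.H q) ∩ frontier D).Nonempty → ¬ P (T.H q) ⊆ interior D := by
    rintro q ⟨x, hx1, hx2⟩ h
    rw [hDc.frontier_eq] at hx2
    exact hx2.2 (h hx1)
  -- the constant on the frontier
  have hconst : ∃ ε : A, ∀ q : {q // (P (T.H q) ∩ D).Nonempty}, ∀ x ∈ P (T.H q.1) ∩ frontier D,
      χ q x = ε := by
    rcases (frontier D).eq_empty_or_nonempty with hemp | ⟨x0, hx0⟩
    · exact ⟨0, fun q x hx => by rw [hemp] at hx; exact hx.2.elim⟩
    have hsame : ∀ (i j : {q // (P (T.H q) ∩ D).Nonempty}) (x : E), x ∈ P (T.H i.1) →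
        x ∈ P (T.H j.1) → x ∈ frontier D → χ i x = χ j x := by
      intro i j x hi hj hx
      have h1 : χ i x - χ j x = ψ i.1 (g x) - ψ j.1 (g x) := hχd i j x hi hj (hfrD hx)
      rw [hψ0 i.1 (hnot i.1 ⟨x, hi, hx⟩), hψ0 j.1 (hnot j.1 ⟨x, hj, hx⟩)] at h1
      simpa [sub_eq_zero] using h1
    have hcovf : ∀ x ∈ frontier D, ∃ q : {q // (P (T.H q) ∩ D).Nonempty}, x ∈ P (T.H q.1) := by
      intro x hx
      obtain ⟨q, hq⟩ := T.cov x (hDO (hfrD hx))
      exact ⟨⟨q, x, hq, hfrD hx⟩, hq⟩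
    let hh : E → A := fun x => if h : ∃ q : {q // (P (T.H q) ∩ D).Nonempty}, x ∈ P (T.H q.1) then
      χ h.choose x else 0
    have hhv : ∀ (q : {q // (P (T.H q) ∩ D).Nonempty}) (x : E), x ∈ P (T.H q.1) →
        x ∈ frontier D → hh x = χ q x := by
      intro q x hq hx
      have h : ∃ q : {q // (P (T.H q) ∩ D).Nonempty}, x ∈ P (T.H q.1) := ⟨q, hq⟩
      have e1 : hh x = χ h.choose x := dif_pos h
      rw [e1]; exact hsame _ _ x h.choose_spec hq hx
    have hLC : LC hh (frontier D) := by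
      have hEq : frontier D = ⋃ q : {q // (P (T.H q) ∩ D).Nonempty},
          (P (T.H q.1) ∩ frontier D) := by
        rw [← iUnion_inter]
        apply (inter_eq_self_of_subset_right _).symm
        intro x hx
        obtain ⟨q, hq⟩ := hcovf x hx
        exact mem_iUnion.2 ⟨q, hq⟩
      rw [hEq]
      apply LC.iUnion
      · intro q; exact (isClosed_P _).inter isClosed_frontier
      · intro q
        exact ((hχ q).mono (inter_subset_inter_right _ hfrD)).congr fun x hx => hhv q x hx.1 hx.2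
    refine ⟨hh x0, fun q x hx => ?_⟩
    rw [← hhv q x hx.1 hx.2]
    exact hLC.eq_of_preconnected hfr hx.2 hx0
  obtain ⟨ε, hε⟩ := hconst
  -- boundary bumping
  have hbump : ∀ q : {q // (P (T.H q) ∩ D).Nonempty}, ¬ P (T.H q.1) ⊆ interior D →
      ∀ x ∈ P (T.H q.1) ∩ D, χ q x = ε := by
    intro q hq x hx
    by_contra hne
    obtain ⟨y0, hy0, hy0f⟩ := hmeet q.1 q.2 hq
    -- indicator function on the tile
    have hLC : LC (fun y => y ∈ D ∧ χ q y ≠ ε) (P (T.H q.1)) := by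
      intro y hy
      by_cases hyD : y ∈ interior D
      · have h1 := hχ q y ⟨hy, interior_subset hyD⟩
        have h2 : ∀ᶠ z in 𝓝[P (T.H q.1)] y, z ∈ interior D :=
          nhdsWithin_le_nhds (isOpen_interior.mem_nhds hyD)
        have h3 : ∀ᶠ z in 𝓝[P (T.H q.1)] y, z ∈ D → χ q z = χ q y := by
          rw [eventually_nhdsWithin_iff] at h1 ⊢
          filter_upwards [h1] with z hz h4 h5
          exact hz ⟨h4, h5⟩
        filter_upwards [h2, h3] with z hz1 hz2
        have hzD := interior_subset hz1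
        rw [hz2 hzD]
        apply propext
        exact ⟨fun h => ⟨interior_subset hyD, h.2⟩, fun h => ⟨hzD, h.2⟩⟩
      · by_cases hyD' : y ∈ D
        · -- frontier point
          have hyf : y ∈ frontier D := by rw [hDc.frontier_eq]; exact ⟨hyD', hyD⟩
          have hyε : χ q y = ε := hε q y ⟨hy, hyf⟩
          have h1 := hχ q y ⟨hy, hyD'⟩
          have h3 : ∀ᶠ z in 𝓝[P (T.H q.1)] y, z ∈ D → χ q z = χ q y := by
            rw [eventually_nhdsWithin_iff] at h1 ⊢
            filter_upwards [h1] with z hz h4 h5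
            exact hz ⟨h4, h5⟩
          filter_upwards [h3] with z hz
          apply propext
          constructor
          · rintro ⟨h4, h5⟩
            exact (h5 ((hz h4).trans hyε)).elim
          · rintro ⟨_, h5⟩
            exact (h5 hyε).elim
        · have h2 : ∀ᶠ z in 𝓝[P (T.H q.1)] y, z ∈ Dᶜ :=
            nhdsWithin_le_nhds (hDc.isOpen_compl.mem_nhds hyD')
          filter_upwards [h2] with z hz
          apply propext
          exact ⟨fun h => (hz h.1).elim, fun h => (hyD' h.1).elim⟩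
    have h1 := hLC.eq_of_preconnected (convex_P _).isPreconnected hx.1 hy0
    have h2 : y0 ∈ D ∧ χ q y0 ≠ ε := by
      have h3 : (x ∈ D ∧ χ q x ≠ ε) = (y0 ∈ D ∧ χ q y0 ≠ ε) := h1
      rw [← h3]; exact ⟨hx.2, hne⟩
    exact h2.2 (hε q y0 ⟨hy0, hy0f⟩)
  -- the potential
  let Ψ : E → A := fun v => if h : (∃ q : {q // (P (T.H q) ∩ D).Nonempty}, v ∈ P (T.H q.1)) ∧
    v ∈ D ∧ T.dim v = 0 then ψ h.1.choose.1 v - χ h.1.choose v + ε else 0
  have hΨ : ∀ (q : {q // (P (T.H q) ∩ D).Nonempty}) (v : E), v ∈ P (T.H q.1) → v ∈ D →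
      T.dim v = 0 → Ψ v = ψ q.1 v - χ q v + ε := by
    intro q v hq hv hv0
    have h : (∃ q : {q // (P (T.H q) ∩ D).Nonempty}, v ∈ P (T.H q.1)) ∧ v ∈ D ∧ T.dim v = 0 :=
      ⟨⟨q, hq⟩, hv, hv0⟩
    have e1 : Ψ v = ψ h.1.choose.1 v - χ h.1.choose v + ε := dif_pos h
    have h1 : χ h.1.choose v - χ q v = ψ h.1.choose.1 (g v) - ψ q.1 (g v) :=
      hχd h.1.choose q v h.1.choose_spec hq hv
    rw [hgv v (hDO hv) hv0] at h1
    rw [e1]
    congr 1
    rw [sub_eq_sub_iff_add_eq_add] at h1 ⊢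
    rw [add_comm (ψ q.1 v)]; exact h1.symm
  have hΨD : ∀ v ∉ D, Ψ v = 0 := fun v hv => dif_neg fun h => hv h.2.1
  have hΨ0 : ∀ v, T.dim v ≠ 0 → Ψ v = 0 := fun v hv => dif_neg fun h => hv h.2.2
  have hΨq : ∀ q, ¬ P (T.H q) ⊆ interior D → ∀ v ∈ P (T.H q), Ψ v = 0 := by
    intro q hq v hv
    by_cases hvD : v ∈ D
    · by_cases hv0 : T.dim v = 0
      · rw [hΨ ⟨q, v, hv, hvD⟩ v hv hvD hv0, hψ0 q hq, hbump ⟨q, v, hv, hvD⟩ hq v ⟨hv, hvD⟩]
        simp
      · exact hΨ0 v hv0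
    · exact hΨD v hvD
  refine ⟨Ψ, hΨD, hΨ0, hΨq, ?_⟩
  intro e he he1 a b hab
  obtain ⟨ha0, hb0, hae, hbe, -⟩ := T.dim_ends he he1 hab
  obtain ⟨q, hq⟩ := T.cov e he
  have haq := T.cc_sub_tile (i := q) hq hae
  have hbq := T.cc_sub_tile (i := q) hq hbe
  by_cases hqi : P (T.H q) ⊆ interior D
  · have haD := interior_subset (hqi haq)
    have hbD := interior_subset (hqi hbq)
    have hne : (P (T.H q) ∩ D).Nonempty := ⟨a, haq, haD⟩
    rw [hΨ ⟨q, hne⟩ a haq haD ha0, hΨ ⟨q, hne⟩ b hbq hbD hb0, ← hψ q e hq he1 a b hab]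
    have hχab : χ ⟨q, hne⟩ a = χ ⟨q, hne⟩ b := by
      have hsub : P (T.H q) ⊆ P (T.H q) ∩ D := fun y hy => ⟨hy, interior_subset (hqi hy)⟩
      exact ((hχ ⟨q, hne⟩).mono hsub).eq_of_preconnected (convex_P _).isPreconnected haq hbq
    rw [hχab]; abel
  · rw [hΨq q hqi a haq, hΨq q hqi b hbq, ← h0 q hqi e hq he1 a b hab]

/-- number of points of `Q` on the cell of `e`, as a cochain -/
noncomputable def kap (T : Tiling Om ι) (Q : Finset E) : E → E → E → ZMod 2 :=
  fun e _ _ => (((Q : Set E) ∩ T.cc e).ncard : ZMod 2)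

omit [FiniteDimensional ℝ E] in
theorem exact_kap_iff {Q : Finset E} {lam : E → ZMod 2} {K : Set E} :
    T.Exact (kap T Q) lam K ↔ ∀ e ∈ K, T.dim e = 1 → ∀ a b, T.cc e = segment ℝ a b →
      lam a + lam b = (((Q : Set E) ∩ T.cc e).ncard : ZMod 2) := by
  constructor
  · intro h e he h1 a b hab
    rw [← CharTwo.sub_eq_add]; exact h e he h1 a b hab
  · intro h e he h1 a b hab
    rw [CharTwo.sub_eq_add]; exact h e he h1 a b hab

/-- labels on a 2-cell -/
theorem exact_cell2 {Q : Finset E} (hQ1 : ∀ w ∈ Q, T.dim w = 1) {x : E} (hx : x ∈ Om)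
    (hd : T.dim x = 2) (heven : Even ((Q : Set E) ∩ T.cc x).ncard) :
    ∃ lam : E → ZMod 2, T.Exact (kap T Q) lam (T.cc x) := by
  obtain ⟨lam, hlam⟩ := exists_ex_cell2 hQ1 hx hd heven
  refine ⟨lam, exact_kap_iff.2 fun e he h1 a b hab => ?_⟩
  exact hlam e (T.cc_sub_Om hx he) h1 (T.cc_sub_of_mem he) a b hab

/-- labels on a tile -/
theorem exact_tile2 (h3 : finrank ℝ E = 3) {Q : Finset E} (hQ1 : ∀ w ∈ Q, T.dim w = 1) (q : ι)
    (heven : ∀ x ∈ P (T.H q), T.dim x = 2 → Even ((Q : Set E) ∩ T.cc x).ncard) :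
    ∃ lam : E → ZMod 2, T.Exact (kap T Q) lam (P (T.H q)) :=
  T.exact_tile h3 q fun x hx hd => exact_cell2 hQ1 (T.sub q hx) hd (heven x hx hd)

/-- **LABELS**: global labels of a closed sheet pattern inside `D` -/
theorem labels (h3 : finrank ℝ E = 3) {Q : Finset E} (hQ : EvPat T Q) {D : Set E}
    (hD : IsCompact D) (hDO : D ⊆ Om) (hfr : IsPreconnected (frontier D)) (ht : TrivF (ZMod 2) D)
    (hsupp : ∀ w ∈ Q, ∀ q, w ∈ P (T.H q) → P (T.H q) ⊆ interior D) :
    ∃ lam : E → ZMod 2, (∀ v ∉ D, lam v = 0) ∧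
      (∀ q, ¬ P (T.H q) ⊆ interior D → ∀ v ∈ P (T.H q), lam v = 0) ∧
      ∀ e ∈ Om, T.dim e = 1 → ∀ a b, T.cc e = segment ℝ a b →
        lam a + lam b = (((Q : Set E) ∩ T.cc e).ncard : ZMod 2) := by
  obtain ⟨lam, h1, _, h2, h4⟩ := potential (T := T) (κ := kap T Q) h3 hD hDO hfr ht
    (fun x hx hd => exact_cell2 (fun w hw => (hQ.mem w hw).2) hx hd (hQ.even x hx hd))
    (fun q hq => exact_kap_iff.2 fun e he _ a b _ => by
      have : (Q : Set E) ∩ T.cc e = ∅ := by
        rw [Set.eq_empty_iff_forall_notMem]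
        rintro w ⟨hw1, hw2⟩
        exact hq (hsupp w hw1 q (T.cc_sub_tile (i := q) he hw2))
      rw [this]; simp)
  exact ⟨lam, h1, h2, exact_kap_iff.1 h4⟩

end Crest.Agent.R096.Lab_184
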