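import Mathlib
import Crest.Agent.R096.Pat5_543

/-! # Almost every level is regular (row 96, helper543)

Values of local extrema are countable, so `RegOn u C c` holds for all but countably many of the
levels that are finite on `C`. -/

set_option autoImplicit false

open Set Filter Topology

namespace Crest.Agent.R096.Pat6_543

open Crest.Agent.R096.Pat4_543 Crest.Agent.R096.Pat5_543

variable {X : Type*} [TopologicalSpace X]

/-- The values of a real function at its local maxima on `C` are countable. -/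
theorem countable_localMax [SecondCountableTopology X] (u : X → ℝ) (C : Set X) :
    {c | ∃ x ∈ C, u x = c ∧ x ∉ closure {y | y ∈ C ∧ c < u y}}.Countable := by
  classical
  obtain ⟨B, hBc, -, hB⟩ := TopologicalSpace.exists_countable_basis X
  have key : ∀ c : {c | ∃ x ∈ C, u x = c ∧ x ∉ closure {y | y ∈ C ∧ c < u y}},
      ∃ b : B, (∃ x ∈ (b : Set X), x ∈ C ∧ u x = c) ∧ ∀ y ∈ (b : Set X), y ∈ C → u y ≤ c := by
    rintro ⟨c, x, hx, hxc, hcl⟩
    have hmem : (closure {y | y ∈ C ∧ c < u y})ᶜ ∈ 𝓝 x :=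
      isClosed_closure.isOpen_compl.mem_nhds hcl
    obtain ⟨b, hb, hxb, hbs⟩ := hB.mem_nhds_iff.1 hmem
    refine ⟨⟨b, hb⟩, ⟨x, hxb, hx, hxc⟩, fun y hy hyC => ?_⟩
    by_contra hcon
    push Not at hcon
    exact hbs hy (subset_closure ⟨hyC, hcon⟩)
  choose b hb1 hb2 using key
  have hinj : Function.Injective b := by
    intro c c' hcc
    obtain ⟨x, hx, hxC, hxc⟩ := hb1 c
    obtain ⟨y, hy, hyC, hyc⟩ := hb1 c'
    have h1 := hb2 c' x (by rw [← hcc]; exact hx) hxC
    have h2 := hb2 c y (by rw [hcc]; exact hy) hyC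
    rw [hxc] at h1
    rw [hyc] at h2
    exact Subtype.ext (le_antisymm h1 h2)
  have : Countable B := hBc.to_subtype
  exact (hinj.countable).to_set

theorem countable_localMin [SecondCountableTopology X] (u : X → ℝ) (C : Set X) :
    {c | ∃ x ∈ C, u x = c ∧ x ∉ closure {y | y ∈ C ∧ u y < c}}.Countable := by
  have h := (countable_localMax (fun x => - u x) C).image (fun c => -c)
  refine h.mono ?_
  rintro c ⟨x, hx, hxc, hcl⟩
  refine ⟨-c, ⟨x, hx, by rw [hxc], ?_⟩, neg_neg c⟩
  intro h2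
  apply hcl
  refine closure_mono ?_ h2
  rintro y ⟨hy, h3⟩
  exact ⟨hy, by linarith⟩

/-- all but countably many finite levels are regular -/
theorem countable_not_reg [SecondCountableTopology X] (u : X → ℝ) (C : Set X) :
    {c | {x | x ∈ C ∧ u x = c}.Finite ∧ ¬ RegOn u C c}.Countable := by
  refine ((countable_localMax u C).union (countable_localMin u C)).mono ?_
  rintro c ⟨hf, hn⟩
  by_contra hcon
  apply hn
  refine ⟨hf, fun x hx hxc => ?_, fun x hx hxc => ?_⟩
  · by_contra h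
    exact hcon (Or.inl ⟨x, hx, hxc, h⟩)
  · by_contra h
    exact hcon (Or.inr ⟨x, hx, hxc, h⟩)

open MeasureTheory in
/-- **Almost every level is good on every face of a countable mesh**: the number of boundary
points is finite for a.e. level (Banach indicatrix) ==> for a.e. level, every face has the
pairing property. -/
theorem ae_level {ι : Type*} [Countable ι] [T2Space X] [SecondCountableTopology X] (u : X → ℝ)
    (e : ι → ℂ → X) (F C : ι → Set X) (h : ∀ i, IsDisc (e i) (F i) (C i))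
    (hu : ∀ i, ContinuousOn u (F i))
    (hfin : ∀ i, ∀ᵐ c : ℝ, {x | x ∈ C i ∧ u x = c}.Finite)
    {P : Set X} (hP : P.Countable) :
    ∀ᵐ c : ℝ, (∀ x ∈ P, u x ≠ c) ∧ ∀ i, RegOn u (C i) c ∧ c ∉ BadF u (F i) (C i) := by
  have h1 : ∀ᵐ c : ℝ, ∀ i, {x | x ∈ C i ∧ u x = c}.Finite := ae_all_iff.2 hfin
  have h2 : (⋃ i, {c | {x | x ∈ C i ∧ u x = c}.Finite ∧ ¬ RegOn u (C i) c}).Countable :=
    countable_iUnion fun i => countable_not_reg u (C i)
  have h3 : (⋃ i, BadF u (F i) (C i)).Countable :=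
    countable_iUnion fun i => (h i).countable_badF (hu i)
  have h4 : (u '' P).Countable := hP.image u
  have e2 : ∀ᵐ c : ℝ, c ∉ ⋃ i, {c | {x | x ∈ C i ∧ u x = c}.Finite ∧ ¬ RegOn u (C i) c} :=
    h2.ae_notMem volume
  have e3 : ∀ᵐ c : ℝ, c ∉ ⋃ i, BadF u (F i) (C i) := h3.ae_notMem volume
  have e4 : ∀ᵐ c : ℝ, c ∉ u '' P := h4.ae_notMem volume
  filter_upwards [h1, e2, e3, e4] with c g1 g2 g3 g4
  refine ⟨fun x hx hxc => g4 ⟨x, hx, hxc⟩, fun i => ⟨?_, ?_⟩⟩
  · by_contra hn
    exact g2 (mem_iUnion.2 ⟨i, g1 i, hn⟩)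
  · intro hb
    exact g3 (mem_iUnion.2 ⟨i, hb⟩)

end Crest.Agent.R096.Pat6_543
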