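import Mathlib
import Crest.Agent.R096.Agl1_543
import Crest.Agent.R096.Agl3_543
import Crest.Agent.R096.Coh6_184
import Crest.Agent.R096.Pat6_543

/-! # A-GLUE 4 (row 96, helper543): a regular level set and a tiling give `SheetHyp` -/

set_option autoImplicit false

open Set Filter Topology Metric

namespace Crest.Agent.R096.Agl4_543

open Crest.Agent.R096.Msh_715 Crest.Agent.R096.Agl1_543 Crest.Agent.R096.Agl2_543
  Crest.Agent.R096.Agl3_543 Crest.Agent.R096.Pat4_543 Crest.Agent.R096.Pat5_543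
  Crest.Agent.R096.Coh_184

variable {E : Type*} [NormedAddCommGroup E] [NormedSpace ℝ E]
variable {Om : Set E} {ι : Type*} (T : Tiling Om ι)

/-- A compact set `S` which on every two-dimensional cell is a regular level of `u`. -/
structure RegLevel (u : E → ℝ) (c : ℝ) (S : Set E) : Prop where
  cpt : IsCompact S
  sub : S ⊆ Om
  vert : ∀ x ∈ S, T.dim x ≠ 0
  cont : ∀ x ∈ Om, T.dim x = 2 → (T.cc x ∩ S).Nonempty → ContinuousOn u (T.cc x)
  lev : ∀ x ∈ Om, T.dim x = 2 → (T.cc x ∩ S).Nonempty → ∀ y ∈ T.cc x, y ∈ S ↔ u y = c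
  reg : ∀ x ∈ Om, T.dim x = 2 → (T.cc x ∩ S).Nonempty → RegOn u (T.cc x \ T.oc x) c
  bad : ∀ x ∈ Om, T.dim x = 2 → (T.cc x ∩ S).Nonempty →
    c ∉ BadF u (T.cc x) (T.cc x \ T.oc x)

/-- the boundary of a 2-cell consists of the points of smaller dimension -/
theorem mem_bd_iff {T : Tiling Om ι} [FiniteDimensional ℝ E] {x y : E} (hx : x ∈ Om)
    (hd : T.dim x = 2) (hy : y ∈ T.cc x) :
    y ∈ T.cc x \ T.oc x ↔ T.dim y ≤ 1 := by
  constructor
  · rintro ⟨h1, h2⟩
    have := T.dim_lt h1 h2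
    omega
  · intro h1
    refine ⟨hy, fun h2 => ?_⟩
    have := T.dim_eq_of_mem_oc hx h2
    omega

section

variable {T}
variable [FiniteDimensional ℝ E] (h3 : Module.finrank ℝ E = 3) {u : E → ℝ} {c : ℝ} {S : Set E}
  (h : RegLevel T u c S)
include h

/-- the level set in a 2-cell -/
theorem RegLevel.inter_cc {x : E} (hx : x ∈ Om) (hd : T.dim x = 2)
    (hne : (T.cc x ∩ S).Nonempty) : S ∩ T.cc x = {y | y ∈ T.cc x ∧ u y = c} := by
  ext y
  constructor
  · rintro ⟨h1, h2⟩; exact ⟨h2, (h.lev x hx hd hne y h2).1 h1⟩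
  · rintro ⟨h1, h2⟩; exact ⟨(h.lev x hx hd hne y h1).2 h2, h1⟩

include h3

/-- points of `S` of dimension at most one: a finite set -/
theorem RegLevel.finite_P : {x | x ∈ S ∧ T.dim x ≤ 1}.Finite := by
  have hcells := T.finite_cells h.cpt h.sub
  -- cells of dimension two
  have h1 : {x | x ∈ S ∧ T.dim x ≤ 1} ⊆
      ⋃ F ∈ {F : Set E | (∃ x ∈ Om, F = T.cc x) ∧ (F ∩ S).Nonempty},
        {y | y ∈ S ∧ T.dim y ≤ 1 ∧ ∃ x ∈ Om, F = T.cc x ∧ T.dim x = 2 ∧ y ∈ T.cc x} := by
    rintro y ⟨hy, hyd⟩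
    have hyO := h.sub hy
    have hy1 : T.dim y = 1 := by have := h.vert y hy; omega
    obtain ⟨q, hq⟩ := T.at_nonempty hyO
    obtain ⟨x, hx, -, -, hdx, -, -, -, hyx, -⟩ := two_cells T h3 hyO hy1 hq
    exact mem_biUnion (show T.cc x ∈ {F : Set E | (∃ x ∈ Om, F = T.cc x) ∧ (F ∩ S).Nonempty}
      from ⟨⟨x, hx, rfl⟩, y, hyx, hy⟩) ⟨hy, hyd, x, hx, rfl, hdx, hyx⟩
  refine (hcells.biUnion fun F hF => ?_).subset h1
  by_cases hex : ∃ x ∈ Om, F = T.cc x ∧ T.dim x = 2 ∧ (T.cc x ∩ S).Nonempty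
  · obtain ⟨x, hx, hFx, hdx, hne⟩ := hex
    refine (h.reg x hx hdx hne).fin.subset ?_
    rintro y ⟨hy, hyd, x', hx', hFx', hdx', hyx'⟩
    have hyx : y ∈ T.cc x := by rw [← hFx, hFx']; exact hyx'
    exact ⟨(mem_bd_iff hx hdx hyx).2 hyd, (h.lev x hx hdx hne y hyx).1 hy⟩
  · push Not at hex
    refine (finite_empty).subset ?_
    rintro y ⟨hy, hyd, x', hx', hFx', hdx', hyx'⟩
    have := hex x' hx' hFx' hdx'
    exact absurd (⟨y, hyx', hy⟩ : (T.cc x' ∩ S).Nonempty) (not_nonempty_iff_eq_empty.2 this)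

/-- **the chords at a point are exactly the two partners** -/
theorem RegLevel.partner {x p : E} (hx : x ∈ Om) (hd : T.dim x = 2) (hp : p ∈ S)
    (hpd : T.dim p = 1) (hpx : p ∈ T.cc x) :
    ∃! p', p' ≠ p ∧ (p' ∈ S ∧ T.dim p' ≤ 1) ∧ p' ∈ connectedComponentIn (S ∩ T.cc x) p := by
  have hne : (T.cc x ∩ S).Nonempty := ⟨p, hpx, hp⟩
  obtain ⟨e, he⟩ := isDisc_cell T hx hd
  have hpC : p ∈ T.cc x \ T.oc x := (mem_bd_iff hx hd hpx).2 hpd.le
  obtain ⟨p', ⟨h1, h2, h3'⟩, huniq⟩ := he.existsUnique_partner (h.cont x hx hd hne)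
    (h.bad x hx hd hne) (h.reg x hx hd hne) hpC ((h.lev x hx hd hne p hpx).1 hp)
  rw [h.inter_cc hx hd hne]
  have hm := connectedComponentIn_subset _ _ h3'
  refine ⟨p', ⟨h1, ⟨(h.lev x hx hd hne p' hm.1).2 hm.2, (mem_bd_iff hx hd hm.1).1 h2⟩, h3'⟩, ?_⟩
  rintro y ⟨g1, ⟨g2, g3⟩, g4⟩
  have hym := connectedComponentIn_subset _ _ g4
  exact huniq y ⟨g1, (mem_bd_iff hx hd hym.1).2 g3, g4⟩

/-- a chord between two tiles lives on a common two-dimensional cell -/
theorem RegLevel.chord_cell {P : Finset E} (hP : ∀ x, x ∈ P ↔ x ∈ S ∧ T.dim x ≤ 1) {q q' : ι}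
    {p p' : E} (hne : p' ≠ p) (hc : Chord S (fun i => Msh_715.P (T.H i)) P q q' p p') :
    ∃ x ∈ Om, T.dim x = 2 ∧ T.at_ x = {q, q'} ∧
      T.cc x = Msh_715.P (T.H q) ∩ Msh_715.P (T.H q') := by
  by_contra hcon
  push Not at hcon
  -- all points of the intersection have dimension at most one
  have h1 : S ∩ (Msh_715.P (T.H q) ∩ Msh_715.P (T.H q')) ⊆ {x | x ∈ S ∧ T.dim x ≤ 1} := by
    rintro y ⟨hy, hyq, hyq'⟩
    refine ⟨hy, ?_⟩
    by_contra hd
    push Not at hd
    have hyO := h.sub hy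
    have hnI : y ∉ I (T.H q) := by
      intro hI
      have h4 := T.at_eq_singleton hI
      have h5 : q' ∈ T.at_ y := hyq'
      rw [h4, mem_singleton_iff] at h5
      exact hc.ne h5.symm
    have h2 := dim_lt_finrank T hyO (i := q) hyq hnI
    have hd2 : T.dim y = 2 := by omega
    obtain ⟨i, j, hij, hat, hcc⟩ := T.two_tiles hyO (by omega)
    have h5 : q ∈ T.at_ y := hyq
    have h6 : q' ∈ T.at_ y := hyq'
    rw [hat] at h5 h6
    simp only [mem_insert_iff, mem_singleton_iff] at h5 h6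
    rcases h5 with rfl | rfl <;> rcases h6 with rfl | rfl
    · exact hc.ne rfl
    · exact hcon y hyO hd2 hat hcc
    · exact hcon y hyO hd2 (by rw [hat, pair_comm]) (by rw [hcc, inter_comm])
    · exact hc.ne rfl
  have hfin := (h.finite_P h3).subset h1
  have hpre : IsPreconnected (connectedComponentIn
      (S ∩ (Msh_715.P (T.H q) ∩ Msh_715.P (T.H q'))) p) := isPreconnected_connectedComponentIn
  have hsub := connectedComponentIn_subset (S ∩ (Msh_715.P (T.H q) ∩ Msh_715.P (T.H q'))) p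
  have hnt : (connectedComponentIn
      (S ∩ (Msh_715.P (T.H q) ∩ Msh_715.P (T.H q'))) p).Nontrivial :=
    ⟨p', hc.conn, p, mem_connectedComponentIn hc.mem, hne⟩
  exact hpre.infinite_of_nontrivial hnt (hfin.subset hsub)

/-- **A-GLUE**: a regular level of a tiling satisfies the hypotheses of the sheet theorem. -/
theorem RegLevel.sheetHyp {P : Finset E} (hP : ∀ x, x ∈ P ↔ x ∈ S ∧ T.dim x ≤ 1) :
    SheetHyp S (fun i => Msh_715.P (T.H i)) P where
  cpt := h.cpt
  closed := fun q => isClosed_P _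
  cov := fun x hx => by
    obtain ⟨i, hi⟩ := T.cov x (h.sub hx)
    exact mem_iUnion.2 ⟨i, hi⟩
  fin := by
    have := T.finite_tiles h.cpt h.sub
    refine this.subset ?_
    rintro q ⟨x, h1, h2⟩
    exact ⟨x, h2, h1⟩
  sub := fun x hx => ((hP x).1 hx).1
  trip := by
    rintro q q' q'' h1 h2 h4 x ⟨hx, ⟨hq, hq'⟩, hq''⟩
    rw [Finset.mem_coe, hP]
    refine ⟨hx, ?_⟩
    by_contra hd
    push Not at hd
    have hxO := h.sub hx
    have e1 : q ∈ T.at_ x := hq
    have e2 : q' ∈ T.at_ x := hq'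
    have e3 : q'' ∈ T.at_ x := hq''
    have hnI : x ∉ I (T.H q) := by
      intro hI
      rw [T.at_eq_singleton hI, mem_singleton_iff] at e2
      exact h1 e2.symm
    have h5 := dim_lt_finrank T hxO e1 hnI
    obtain ⟨i, j, hij, hat, -⟩ := T.two_tiles hxO (by omega)
    rw [hat] at e1 e2 e3
    simp only [mem_insert_iff, mem_singleton_iff] at e1 e2 e3
    rcases e1 with rfl | rfl <;> rcases e2 with rfl | rfl <;> rcases e3 with rfl | rfl <;>
      first
        | exact h1 rfl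
        | exact h2 rfl
        | exact h4 rfl
  deg := by
    intro p hp q hq
    obtain ⟨hpS, hpd⟩ := (hP p).1 hp
    have hpO := h.sub hpS
    have hp1 : T.dim p = 1 := by have := h.vert p hpS; omega
    have hqp : q ∈ T.at_ p := hq
    obtain ⟨x₁, hx1, x₂, hx2, hd1, hd2, hq1, hq2, hp1', hp2', hne, huniq⟩ :=
      two_cells T h3 hpO hp1 hqp
    -- neighbours
    have nb : ∀ x ∈ Om, T.dim x = 2 → q ∈ T.at_ x → ∃ q', q ≠ q' ∧ T.at_ x = {q, q'} ∧
        T.cc x = Msh_715.P (T.H q) ∩ Msh_715.P (T.H q') := by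
      intro x hx hd hqx
      obtain ⟨i, j, hij, hat, hcc⟩ := T.two_tiles hx (by omega)
      have := hqx
      rw [hat] at this
      simp only [mem_insert_iff, mem_singleton_iff] at this
      rcases this with rfl | rfl
      · exact ⟨j, hij, hat, hcc⟩
      · exact ⟨i, hij.symm, by rw [hat, pair_comm], by rw [hcc, inter_comm]⟩
    obtain ⟨k₁, hk1, hat1, hcc1⟩ := nb x₁ hx1 hd1 hq1
    obtain ⟨k₂, hk2, hat2, hcc2⟩ := nb x₂ hx2 hd2 hq2
    obtain ⟨p₁, ⟨a1, a2, a3⟩, u1⟩ := h.partner h3 hx1 hd1 hpS hp1 hp1'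
    obtain ⟨p₂, ⟨b1, b2, b3⟩, u2⟩ := h.partner h3 hx2 hd2 hpS hp1 hp2'
    have hk : k₁ ≠ k₂ := by
      intro e
      apply hne
      rw [hcc1, hcc2, e]
    have hset : {x : ι × E | x.2 ≠ p ∧ Chord S (fun i => Msh_715.P (T.H i)) P q x.1 p x.2}
        = {(k₁, p₁), (k₂, p₂)} := by
      ext ⟨k, y⟩
      simp only [mem_setOf_eq, mem_insert_iff, mem_singleton_iff, Prod.mk.injEq]
      constructor
      · rintro ⟨hy, hch⟩
        obtain ⟨x, hx, hd, hat, hcc⟩ := h.chord_cell h3 hP hy hch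
        have hqx : q ∈ T.at_ x := by rw [hat]; exact mem_insert _ _
        have hpx : p ∈ T.cc x := by rw [hcc]; exact hch.mem.2
        have hyP := (hP y).1 hch.right
        rcases huniq x hx hd hqx hpx with e | e
        · left
          have h6 : T.at_ x = T.at_ x₁ := T.at_eq_of_mem_oc hx1 ((T.cc_eq_iff hx1).1 e)
          have h7 : k = k₁ := by
            have h8 : k ∈ T.at_ x₁ := by rw [← h6, hat]; simp
            rw [hat1] at h8
            simp only [mem_insert_iff, mem_singleton_iff] at h8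
            rcases h8 with h8 | h8
            · exact absurd h8 hch.ne.symm
            · exact h8
          refine ⟨h7, u1 y ⟨hy, hyP, ?_⟩⟩
          have := hch.conn
          rw [← hcc, e] at this
          exact this
        · right
          have h6 : T.at_ x = T.at_ x₂ := T.at_eq_of_mem_oc hx2 ((T.cc_eq_iff hx2).1 e)
          have h7 : k = k₂ := by
            have h8 : k ∈ T.at_ x₂ := by rw [← h6, hat]; simp
            rw [hat2] at h8
            simp only [mem_insert_iff, mem_singleton_iff] at h8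
            rcases h8 with h8 | h8
            · exact absurd h8 hch.ne.symm
            · exact h8
          refine ⟨h7, u2 y ⟨hy, hyP, ?_⟩⟩
          have := hch.conn
          rw [← hcc, e] at this
          exact this
      · rintro (⟨rfl, rfl⟩ | ⟨rfl, rfl⟩)
        · refine ⟨a1, hk1, hp, (hP y).2 a2, ?_, ?_⟩
          · rw [← hcc1]; exact ⟨hpS, hp1'⟩
          · rw [← hcc1]; exact a3
        · refine ⟨b1, hk2, hp, (hP y).2 b2, ?_, ?_⟩
          · rw [← hcc2]; exact ⟨hpS, hp2'⟩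
          · rw [← hcc2]; exact b3
    rw [hset]
    exact ncard_pair fun e => hk (congrArg Prod.fst e)
  link := by
    intro p hp A q hqA hq hA q' hq'
    obtain ⟨hpS, hpd⟩ := (hP p).1 hp
    have hpO := h.sub hpS
    have hp1 : T.dim p = 1 := by have := h.vert p hpS; omega
    refine link T h3 hpO hp1 hqA hq ?_ q' hq'
    intro k hk l x hx hd hpx hat
    by_cases hkl : k = l
    · rw [← hkl]; exact hk
    obtain ⟨p', ⟨a1, a2, a3⟩, -⟩ := h.partner h3 hx hd hpS hp1 hpx
    obtain ⟨i, j, hij, hat', hcc⟩ := T.two_tiles hx (by omega)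
    have hcc' : T.cc x = Msh_715.P (T.H k) ∩ Msh_715.P (T.H l) := by
      rw [hat] at hat'
      have e1 : k ∈ ({i, j} : Set ι) := by rw [← hat']; simp
      have e2 : l ∈ ({i, j} : Set ι) := by rw [← hat']; simp
      simp only [mem_insert_iff, mem_singleton_iff] at e1 e2
      rcases e1 with rfl | rfl <;> rcases e2 with rfl | rfl
      · exact absurd rfl hkl
      · exact hcc
      · rw [hcc, inter_comm]
      · exact absurd rfl hkl
    refine hA k hk l p' a1 ⟨hkl, hp, (hP p').2 a2, ?_, ?_⟩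
    · rw [← hcc']; exact ⟨hpS, hpx⟩
    · rw [← hcc']; exact a3

end

end Crest.Agent.R096.Agl4_543
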