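import Crest.Agent.R096.Coh3_184

/-! Row 96, P1-JOIN (helper890): Mayer-Vietoris / Janiszewski for spaces with trivial torsors;
chord paths in the frontier of a set of cells (`join`), chord paths inside a set of cells
(`carry`), all core traces lie in one component of the chord surface (`join_cores`). -/

set_option autoImplicit false

open Set Topology Filter

namespace Crest.Agent.R096.Jn_890

open Crest.Agent.R096.Coh_184

variable {X : Type*} [TopologicalSpace X] {A : Type*} [AddCommGroup A]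

/-- Mayer-Vietoris: a locally constant function on `Y ∩ Z ∩ S` is a difference. -/
theorem mv {S Y Z : Set X} (h : TrivAll Bool A S) (hY : IsClosed Y) (hZ : IsClosed Z)
    (hS : S ⊆ Y ∪ Z) {d : X → A} (hd : LC d (Y ∩ Z ∩ S)) :
    ∃ a b : X → A, LC a (Y ∩ S) ∧ LC b (Z ∩ S) ∧ ∀ x ∈ Y ∩ Z ∩ S, a x - b x = d x := by
  let C : Bool → Set X := fun i => if i then Y else Z
  let D : Bool → Bool → X → A := fun i j x =>
    if i then (if j then 0 else d x) else (if j then - d x else 0)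
  have hcoc : Coc C D S := by
    refine ⟨?_, ?_, ?_, ?_⟩
    · intro i; cases i
      · simpa [C] using hZ
      · simpa [C] using hY
    · intro x hx
      rcases hS hx with h | h
      · exact mem_iUnion.2 ⟨true, by simpa [C] using h⟩
      · exact mem_iUnion.2 ⟨false, by simpa [C] using h⟩
    · intro i j
      cases i <;> cases j
      · simp only [C, D]
        exact LC_const _ _
      · have : LC (fun x => - d x) (Z ∩ Y ∩ S) :=
          (hd.comp₂ (LC_const (0 : A) _) (fun a _ => - a)).mono fun x hx => ⟨⟨hx.1.2, hx.1.1⟩, hx.2⟩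
        simpa [C, D] using this
      · simpa [C, D] using hd
      · simp only [C, D]
        exact LC_const _ _
    · intro i j k x _ _ _ _
      cases i <;> cases j <;> cases k <;> simp [D]
  obtain ⟨χ, hχ, hχd⟩ := h C D hcoc
  refine ⟨χ true, χ false, ?_, ?_, ?_⟩
  · simpa [C] using hχ true
  · simpa [C] using hχ false
  · rintro x ⟨⟨hxY, hxZ⟩, hxS⟩
    have := hχd true false x (by simpa [C] using hxY) (by simpa [C] using hxZ) hxS
    simpa [D] using this

/-- Janiszewski: two points joined in `S ∩ Y` and joined in `S ∩ Z` are joined in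
`S ∩ Y ∩ Z` (`S` compact with trivial `ZMod 2` torsors). -/
theorem janiszewski [T2Space X] {S Y Z : Set X} (hSc : IsCompact S)
    (h : TrivAll Bool (ZMod 2) S) (hY : IsClosed Y) (hZ : IsClosed Z) (hS : S ⊆ Y ∪ Z)
    {a b : Set X} (ha : IsPreconnected a) (haY : a ⊆ Y ∩ S) (hb : IsPreconnected b)
    (hbZ : b ⊆ Z ∩ S) {x y : X} (hxa : x ∈ a) (hya : y ∈ a) (hxb : x ∈ b) (hyb : y ∈ b) :
    y ∈ connectedComponentIn (Y ∩ Z ∩ S) x := by
  classical
  by_contra hcon
  have hK : IsCompact (Y ∩ Z ∩ S) := hSc.inter_left (hY.inter hZ)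
  have hx : x ∈ Y ∩ Z ∩ S := ⟨⟨(haY hxa).1, (hbZ hxb).1⟩, (haY hxa).2⟩
  have hy : y ∈ Y ∩ Z ∩ S := ⟨⟨(haY hya).1, (hbZ hyb).1⟩, (haY hya).2⟩
  obtain ⟨D, hD, hxD, hyD⟩ := exists_clopen_sep hK hx {y} (by
    intro q hq _
    rw [Finset.mem_singleton] at hq
    subst hq; exact hcon)
  have hd : LC (fun z => if z ∈ D then (1 : ZMod 2) else 0) (Y ∩ Z ∩ S) :=
    hD.comp₂ (LC_const (0 : ZMod 2) _) (fun a _ => if a then (1 : ZMod 2) else 0)
  obtain ⟨u, v, hu, hv, huv⟩ := mv h hY hZ hS hd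
  have h1 : u x = u y := (hu.mono haY).eq_of_preconnected ha hxa hya
  have h2 : v x = v y := (hv.mono hbZ).eq_of_preconnected hb hxb hyb
  have h3 := huv x hx
  have h4 := huv y hy
  simp only [if_pos hxD] at h3
  simp only [if_neg (hyD y (Finset.mem_singleton_self y) hy)] at h4
  rw [h1, h2, h4] at h3
  exact zero_ne_one h3

variable {ι : Type*}

/-- union of the cells of `W` -/
def un (c : ι → Set X) (W : Set ι) : Set X := ⋃ q ∈ W, c q

omit [TopologicalSpace X] in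
theorem mem_un {c : ι → Set X} {W : Set ι} {x : X} : x ∈ un c W ↔ ∃ q ∈ W, x ∈ c q := by
  simp [un]

theorem isClosed_un [Finite ι] {c : ι → Set X} (hc : ∀ q, IsClosed (c q)) (W : Set ι) :
    IsClosed (un c W) := by
  unfold un
  exact (Set.toFinite W).isClosed_biUnion fun q _ => hc q

theorem un_cov {c : ι → Set X} {S : Set X} (hcov : S ⊆ ⋃ q, c q) (W : Set ι) :
    S ⊆ un c W ∪ un c Wᶜ := by
  intro x hx
  obtain ⟨q, hq⟩ := mem_iUnion.1 (hcov hx)
  by_cases h : q ∈ W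
  · exact Or.inl (mem_un.2 ⟨q, h, hq⟩)
  · exact Or.inr (mem_un.2 ⟨q, h, hq⟩)

/-- gluing of locally constant functions on the faces between `W` and its complement -/
theorem glue_frontier [Finite ι] {S : Set X} (hSc : IsClosed S) {c : ι → Set X}
    (hc : ∀ q, IsClosed (c q)) {P : Finset X}
    (htrip : ∀ q q' q'', q ≠ q' → q' ≠ q'' → q ≠ q'' → S ∩ (c q ∩ c q' ∩ c q'') ⊆ P)
    (W : Set ι) (ψ : X → A) (D : ι → ι → X → A)
    (hD : ∀ q ∈ W, ∀ q' ∉ W, LC (D q q') (S ∩ (c q ∩ c q')))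
    (hDP : ∀ q ∈ W, ∀ q' ∉ W, ∀ p ∈ P, p ∈ S ∩ (c q ∩ c q') → D q q' p = ψ p) :
    ∃ d : X → A, LC d (un c W ∩ un c Wᶜ ∩ S) ∧
      ∀ q ∈ W, ∀ q' ∉ W, ∀ x ∈ S ∩ (c q ∩ c q'), d x = D q q' x := by
  classical
  let d : X → A := fun x =>
    if h : ∃ r : ι × ι, r.1 ∈ W ∧ r.2 ∉ W ∧ x ∈ S ∩ (c r.1 ∩ c r.2) then
      D h.choose.1 h.choose.2 x else 0
  have hd : ∀ q ∈ W, ∀ q' ∉ W, ∀ x ∈ S ∩ (c q ∩ c q'), d x = D q q' x := by
    intro q hq q' hq' x hx
    have h : ∃ r : ι × ι, r.1 ∈ W ∧ r.2 ∉ W ∧ x ∈ S ∩ (c r.1 ∩ c r.2) := ⟨(q, q'), hq, hq', hx⟩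
    have e1 : d x = D h.choose.1 h.choose.2 x := dif_pos h
    obtain ⟨h1, h2, h3⟩ := h.choose_spec
    rw [e1]
    generalize h.choose.1 = r at *
    generalize h.choose.2 = r' at *
    by_cases hP : x ∈ P
    · rw [hDP r h1 r' h2 x hP h3, hDP q hq q' hq' x hP hx]
    · have hrq : r = q := by
        by_contra hne
        exact hP (htrip r q q' hne (fun h => hq' (h ▸ hq)) (fun h => hq' (h ▸ h1))
          ⟨hx.1, ⟨h3.2.1, hx.2.1⟩, hx.2.2⟩)
      have hrq' : r' = q' := by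
        by_contra hne
        exact hP (htrip q r' q' (fun h => h2 (h ▸ hq)) hne (fun h => hq' (h ▸ hq))
          ⟨hx.1, ⟨hx.2.1, h3.2.2⟩, hx.2.2⟩)
      rw [hrq, hrq']
  refine ⟨d, ?_, hd⟩
  have hsub : un c W ∩ un c Wᶜ ∩ S ⊆ ⋃ r : {r : ι × ι // r.1 ∈ W ∧ r.2 ∉ W},
      S ∩ (c r.1.1 ∩ c r.1.2) := by
    rintro x ⟨⟨h1, h2⟩, h3⟩
    obtain ⟨q, hq, hxq⟩ := mem_un.1 h1
    obtain ⟨q', hq', hxq'⟩ := mem_un.1 h2
    exact mem_iUnion.2 ⟨⟨(q, q'), hq, hq'⟩, h3, hxq, hxq'⟩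
  refine LC.mono ?_ hsub
  apply LC.iUnion
  · intro r; exact hSc.inter ((hc _).inter (hc _))
  · rintro ⟨⟨q, q'⟩, hq, hq'⟩
    exact (hD q hq q' hq').congr fun x hx => hd q hq q' hq' x hx

/-- a function on `P` which is constant on the chords of the frontier of `W` extends to a locally
constant function on the frontier -/
theorem exists_frontier [Finite ι] [T2Space X] {S : Set X} (hSc : IsCompact S) {c : ι → Set X}
    (hc : ∀ q, IsClosed (c q)) {P : Finset X}
    (htrip : ∀ q q' q'', q ≠ q' → q' ≠ q'' → q ≠ q'' → S ∩ (c q ∩ c q' ∩ c q'') ⊆ P)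
    (W : Set ι) (ψ : X → A)
    (hψ : ∀ q ∈ W, ∀ q' ∉ W, ∀ p p', Chord S c P q q' p p' → ψ p = ψ p') :
    ∃ d : X → A, LC d (un c W ∩ un c Wᶜ ∩ S) ∧
      ∀ p ∈ P, p ∈ S → p ∈ un c W → p ∈ un c Wᶜ → d p = ψ p := by
  classical
  have h1 : ∀ q q', ∃ D : X → A, q ∈ W → q' ∉ W → (LC D (S ∩ (c q ∩ c q')) ∧
      ∀ p ∈ P, p ∈ S ∩ (c q ∩ c q') → D p = ψ p) := by
    intro q q'
    by_cases hq : q ∈ W
    · by_cases hq' : q' ∈ W
      · exact ⟨fun _ => 0, fun _ h => (h hq').elim⟩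
      · have hK : IsCompact (S ∩ (c q ∩ c q')) := hSc.inter_right ((hc q).inter (hc q'))
        obtain ⟨D, hD, hDP⟩ := exists_LC_of_components hK ψ P (by
          intro p hp p' hp' hpK hcon
          exact hψ q hq q' hq' p p' ⟨fun h => hq' (h ▸ hq), hp, hp', hpK, hcon⟩)
        exact ⟨D, fun _ _ => ⟨hD, hDP⟩⟩
    · exact ⟨fun _ => 0, fun h => (hq h).elim⟩
  choose D hD using h1
  obtain ⟨d, hd, hdD⟩ := glue_frontier hSc.isClosed hc htrip W ψ D
    (fun q hq q' hq' => (hD q q' hq hq').1) (fun q hq q' hq' => (hD q q' hq hq').2)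
  refine ⟨d, hd, fun p hp hpS h1 h2 => ?_⟩
  obtain ⟨q, hq, hxq⟩ := mem_un.1 h1
  obtain ⟨q', hq', hxq'⟩ := mem_un.1 h2
  rw [hdD q hq q' hq' p ⟨hpS, hxq, hxq'⟩]
  exact (hD q q' hq hq').2 p hp ⟨hpS, hxq, hxq'⟩

/-- a step along a chord in a face between `W` and its complement -/
def FrStep (S : Set X) (c : ι → Set X) (P : Finset X) (W : Set ι) (x y : X) : Prop :=
  ∃ q ∈ W, ∃ q' ∉ W, Chord S c P q q' x y

/-- a step along a chord in a face of a cell of `W` -/
def InStep (S : Set X) (c : ι → Set X) (P : Finset X) (W : Set ι) (x y : X) : Prop :=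
  ∃ q ∈ W, ∃ q', Chord S c P q q' x y

/-- a step along any chord -/
def Step (S : Set X) (c : ι → Set X) (P : Finset X) (x y : X) : Prop :=
  ∃ q q', Chord S c P q q' x y

theorem InStep.symm {S : Set X} {c : ι → Set X} {P : Finset X} {W : Set ι} {x y : X}
    (h : InStep S c P W x y) : InStep S c P W y x := by
  obtain ⟨q, hq, q', h⟩ := h
  exact ⟨q, hq, q', h.symm⟩

theorem FrStep.symm {S : Set X} {c : ι → Set X} {P : Finset X} {W : Set ι} {x y : X}
    (h : FrStep S c P W x y) : FrStep S c P W y x := by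
  obtain ⟨q, hq, q', hq', h⟩ := h
  exact ⟨q, hq, q', hq', h.symm⟩

theorem FrStep.inStep {S : Set X} {c : ι → Set X} {P : Finset X} {W : Set ι} {x y : X}
    (h : FrStep S c P W x y) : InStep S c P W x y := by
  obtain ⟨q, hq, q', _, h⟩ := h
  exact ⟨q, hq, q', h⟩

theorem InStep.step {S : Set X} {c : ι → Set X} {P : Finset X} {W : Set ι} {x y : X}
    (h : InStep S c P W x y) : Step S c P x y := by
  obtain ⟨q, _, q', h⟩ := h
  exact ⟨q, q', h⟩

/-- **JOIN.** Two points of `P` which are joined by a connected set inside the cells of `W` and by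
a connected set inside the other cells are joined by a chord path in the frontier of `W`. -/
theorem join [Finite ι] [T2Space X] {S : Set X} (hSc : IsCompact S)
    (htriv : TrivAll Bool (ZMod 2) S) {c : ι → Set X} (hc : ∀ q, IsClosed (c q))
    (hcov : S ⊆ ⋃ q, c q) {P : Finset X}
    (htrip : ∀ q q' q'', q ≠ q' → q' ≠ q'' → q ≠ q'' → S ∩ (c q ∩ c q' ∩ c q'') ⊆ P)
    (W : Set ι) {a b : Set X} (ha : IsPreconnected a) (haW : a ⊆ un c W ∩ S)
    (hb : IsPreconnected b) (hbW : b ⊆ un c Wᶜ ∩ S) {p p' : X} (hp : p ∈ P) (hp' : p' ∈ P)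
    (hpa : p ∈ a) (hpa' : p' ∈ a) (hpb : p ∈ b) (hpb' : p' ∈ b) :
    Relation.ReflTransGen (FrStep S c P W) p p' := by
  classical
  let ψ : X → ZMod 2 := fun x => if Relation.ReflTransGen (FrStep S c P W) p x then 1 else 0
  have hψ : ∀ q ∈ W, ∀ q' ∉ W, ∀ x y, Chord S c P q q' x y → ψ x = ψ y := by
    intro q hq q' hq' x y hxy
    have hs : FrStep S c P W x y := ⟨q, hq, q', hq', hxy⟩
    by_cases hx : Relation.ReflTransGen (FrStep S c P W) p x
    · simp only [ψ, if_pos hx, if_pos (hx.tail hs)]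
    · have hy : ¬ Relation.ReflTransGen (FrStep S c P W) p y := fun h => hx (h.tail hs.symm)
      simp only [ψ, if_neg hx, if_neg hy]
  obtain ⟨d, hd, hdP⟩ := exists_frontier hSc hc htrip W ψ hψ
  obtain ⟨u, v, hu, hv, huv⟩ := mv htriv (isClosed_un hc W) (isClosed_un hc Wᶜ)
    (un_cov hcov W) hd
  have h1 : u p = u p' := (hu.mono haW).eq_of_preconnected ha hpa hpa'
  have h2 : v p = v p' := (hv.mono hbW).eq_of_preconnected hb hpb hpb'
  have h3 := huv p ⟨⟨(haW hpa).1, (hbW hpb).1⟩, (haW hpa).2⟩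
  have h4 := huv p' ⟨⟨(haW hpa').1, (hbW hpb').1⟩, (haW hpa').2⟩
  rw [hdP p hp (haW hpa).2 (haW hpa).1 (hbW hpb).1] at h3
  rw [hdP p' hp' (haW hpa').2 (haW hpa').1 (hbW hpb').1, ← h1, ← h2, h3] at h4
  by_contra hcon
  simp only [ψ, if_neg hcon, if_pos Relation.ReflTransGen.refl] at h4
  exact one_ne_zero h4

/-- **CARRY.** Two points of `P` in the same component of the chord graph which are joined by a
connected set inside the cells of `W` are joined by a chord path in faces of cells of `W`. -/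
theorem carry [Finite ι] [T2Space X] {S : Set X} (hSc : IsCompact S)
    (htriv : TrivAll Bool (ZMod 2) S) {c : ι → Set X} (hc : ∀ q, IsClosed (c q))
    (hcov : S ⊆ ⋃ q, c q) {P : Finset X}
    (htrip : ∀ q q' q'', q ≠ q' → q' ≠ q'' → q ≠ q'' → S ∩ (c q ∩ c q' ∩ c q'') ⊆ P)
    (W : Set ι) {a : Set X} (ha : IsPreconnected a) (haW : a ⊆ un c W ∩ S) {p p' : X}
    (hpa : p ∈ a) (hpa' : p' ∈ a)
    (hpath : Relation.ReflTransGen (Step S c P) p p') :
    Relation.ReflTransGen (InStep S c P W) p p' := by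
  classical
  let ψ : X → ZMod 2 := fun x => if Relation.ReflTransGen (InStep S c P W) p x then 1 else 0
  have hψ : ∀ x y, InStep S c P W x y → ψ x = ψ y := by
    intro x y hs
    by_cases hx : Relation.ReflTransGen (InStep S c P W) p x
    · simp only [ψ, if_pos hx, if_pos (hx.tail hs)]
    · have hy : ¬ Relation.ReflTransGen (InStep S c P W) p y := fun h => hx (h.tail hs.symm)
      simp only [ψ, if_neg hx, if_neg hy]
  obtain ⟨d, hd, hdP⟩ := exists_frontier hSc hc htrip W ψ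
    (fun q hq q' _ x y hxy => hψ x y ⟨q, hq, q', hxy⟩)
  obtain ⟨u, v, hu, hv, huv⟩ := mv htriv (isClosed_un hc W) (isClosed_un hc Wᶜ)
    (un_cov hcov W) hd
  let g : X → ZMod 2 := fun x => if x ∈ un c W then u x - ψ x else v x
  have hgW : ∀ x, x ∈ un c W → g x = u x - ψ x := fun x hx => if_pos hx
  have hgZ : ∀ x ∈ P, x ∈ S → x ∈ un c Wᶜ → g x = v x := by
    intro x hxP hxS hx
    by_cases hxW : x ∈ un c W
    · rw [hgW x hxW, ← hdP x hxP hxS hxW hx, ← huv x ⟨⟨hxW, hx⟩, hxS⟩]; abel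
    · exact if_neg hxW
  have hstep : ∀ x y, Step S c P x y → g x = g y := by
    rintro x y ⟨q, q', hxy⟩
    have hy : y ∈ S ∩ (c q ∩ c q') := connectedComponentIn_subset _ _ hxy.conn
    have hx : x ∈ S ∩ (c q ∩ c q') := hxy.mem
    by_cases hq : q ∈ W
    · have hxW : x ∈ un c W := mem_un.2 ⟨q, hq, hx.2.1⟩
      have hyW : y ∈ un c W := mem_un.2 ⟨q, hq, hy.2.1⟩
      have h1 : u x = u y := by
        refine (hu.mono fun z hz => ?_).eq_of_preconnected
          isPreconnected_connectedComponentIn (mem_connectedComponentIn hxy.mem) hxy.conn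
        have hz' := connectedComponentIn_subset _ _ hz
        exact ⟨mem_un.2 ⟨q, hq, hz'.2.1⟩, hz'.1⟩
      rw [hgW x hxW, hgW y hyW, h1, hψ x y ⟨q, hq, q', hxy⟩]
    · by_cases hq' : q' ∈ W
      · have hxW : x ∈ un c W := mem_un.2 ⟨q', hq', hx.2.2⟩
        have hyW : y ∈ un c W := mem_un.2 ⟨q', hq', hy.2.2⟩
        have h1 : u x = u y := by
          refine (hu.mono fun z hz => ?_).eq_of_preconnected
            isPreconnected_connectedComponentIn (mem_connectedComponentIn hxy.mem) hxy.conn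
          have hz' := connectedComponentIn_subset _ _ hz
          exact ⟨mem_un.2 ⟨q', hq', hz'.2.2⟩, hz'.1⟩
        rw [hgW x hxW, hgW y hyW, h1, hψ x y ⟨q', hq', q, hxy.swap⟩]
      · have hxZ : x ∈ un c Wᶜ := mem_un.2 ⟨q, hq, hx.2.1⟩
        have hyZ : y ∈ un c Wᶜ := mem_un.2 ⟨q, hq, hy.2.1⟩
        have h1 : v x = v y := by
          refine (hv.mono fun z hz => ?_).eq_of_preconnected
            isPreconnected_connectedComponentIn (mem_connectedComponentIn hxy.mem) hxy.conn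
          have hz' := connectedComponentIn_subset _ _ hz
          exact ⟨mem_un.2 ⟨q, hq, hz'.2.1⟩, hz'.1⟩
        rw [hgZ x hxy.left hx.1 hxZ, hgZ y hxy.right hy.1 hyZ, h1]
  have hg : g p = g p' := by
    clear hpa'
    induction hpath with
    | refl => rfl
    | tail _ h ih => rw [ih, hstep _ _ h]
  have h1 : u p = u p' := (hu.mono haW).eq_of_preconnected ha hpa hpa'
  rw [hgW p (haW hpa).1, hgW p' (haW hpa').1, h1] at hg
  have h2 : ψ p = ψ p' := sub_right_injective hg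
  by_contra hcon
  simp only [ψ, if_neg hcon, if_pos Relation.ReflTransGen.refl] at h2
  exact one_ne_zero h2

/-- a step along a chord or inside a core (giant cell, index in `G`) -/
def CStep (S : Set X) (c : ι → Set X) (P : Finset X) (G : Set ι) (x y : X) : Prop :=
  Step S c P x y ∨ ∃ K ∈ G, x ∈ S ∩ c K ∧ y ∈ S ∩ c K

theorem Step.symm {S : Set X} {c : ι → Set X} {P : Finset X} {x y : X}
    (h : Step S c P x y) : Step S c P y x := by
  obtain ⟨q, q', h⟩ := h
  exact ⟨q, q', h.symm⟩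

theorem CStep.symm {S : Set X} {c : ι → Set X} {P : Finset X} {G : Set ι} {x y : X}
    (h : CStep S c P G x y) : CStep S c P G y x := by
  rcases h with h | ⟨K, hK, hx, hy⟩
  · exact Or.inl h.symm
  · exact Or.inr ⟨K, hK, hy, hx⟩

/-- **JOIN for cores.** `K`, `K'` are cores whose traces `S ∩ c K`, `S ∩ c K'` are connected,
`a` joins them inside the cells of `W`, `b` joins them inside the other cells. Then all points of
`P` on the two cores lie in one component of the chord surface. -/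
theorem join_cores [Finite ι] [T2Space X] {S : Set X} (hSc : IsCompact S)
    (htriv : TrivAll Bool (ZMod 2) S) {c : ι → Set X} (hc : ∀ q, IsClosed (c q))
    (hcov : S ⊆ ⋃ q, c q) {P : Finset X} (hPS : (P : Set X) ⊆ S)
    (htrip : ∀ q q' q'', q ≠ q' → q' ≠ q'' → q ≠ q'' → S ∩ (c q ∩ c q' ∩ c q'') ⊆ P)
    (G : Set ι) {W : Set ι} {K K' : ι} (hKG : K ∈ G) (hKG' : K' ∈ G) (hKW : K ∈ W) (hKW' : K' ∈ W)
    (hK : IsPreconnected (S ∩ c K)) (hK' : IsPreconnected (S ∩ c K'))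
    {a b : Set X} (ha : IsPreconnected a) (haW : a ⊆ un c W ∩ S)
    (haK : (a ∩ c K).Nonempty) (haK' : (a ∩ c K').Nonempty)
    (hb : IsPreconnected b) (hbW : b ⊆ un c Wᶜ ∩ S)
    (hbK : (b ∩ c K).Nonempty) (hbK' : (b ∩ c K').Nonempty)
    {p p' : X} (hp : p ∈ P) (hp' : p' ∈ P) (hpK : p ∈ c K) (hpK' : p' ∈ c K') :
    Relation.ReflTransGen (CStep S c P G) p p' := by
  classical
  by_contra hcon
  let ψ : X → ZMod 2 := fun x => if Relation.ReflTransGen (CStep S c P G) p x then 1 else 0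
  have hψ : ∀ x y, CStep S c P G x y → ψ x = ψ y := by
    intro x y hs
    by_cases hx : Relation.ReflTransGen (CStep S c P G) p x
    · simp only [ψ, if_pos hx, if_pos (hx.tail hs)]
    · have hy : ¬ Relation.ReflTransGen (CStep S c P G) p y := fun h => hx (h.tail hs.symm)
      simp only [ψ, if_neg hx, if_neg hy]
  have hψp : ψ p = 1 := if_pos Relation.ReflTransGen.refl
  have hψp' : ψ p' = 0 := if_neg hcon
  have hψK : ∀ x ∈ S ∩ c K, ψ x = 1 := by
    intro x hx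
    rw [← hψp]
    exact (hψ p x (Or.inr ⟨K, hKG, ⟨hPS hp, hpK⟩, hx⟩)).symm
  have hψK' : ∀ x ∈ S ∩ c K', ψ x = 0 := by
    intro x hx
    rw [← hψp']
    exact (hψ p' x (Or.inr ⟨K', hKG', ⟨hPS hp', hpK'⟩, hx⟩)).symm
  have hne : K ≠ K' := by
    rintro rfl
    have := hψK p' ⟨hPS hp', hpK'⟩
    rw [hψp'] at this
    exact zero_ne_one this
  have h1 : ∀ q q', ∃ D : X → ZMod 2, q ∈ W → q' ∉ W → (LC D (S ∩ (c q ∩ c q')) ∧
      (∀ x ∈ P, x ∈ S ∩ (c q ∩ c q') → D x = ψ x) ∧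
      (q = K → ∀ x, D x = 1) ∧ (q = K' → ∀ x, D x = 0)) := by
    intro q q'
    by_cases hq : q ∈ W
    · by_cases hq' : q' ∈ W
      · exact ⟨fun _ => 0, fun _ h => (h hq').elim⟩
      · by_cases hqK : q = K
        · refine ⟨fun _ => 1, fun _ _ => ⟨LC_const _ _, ?_, fun _ _ => rfl, ?_⟩⟩
          · intro x _ hx
            subst hqK
            exact (hψK x ⟨hx.1, hx.2.1⟩).symm
          · intro h; exact (hne (hqK ▸ h)).elim
        · by_cases hqK' : q = K'
          · refine ⟨fun _ => 0, fun _ _ => ⟨LC_const _ _, ?_, ?_, fun _ _ => rfl⟩⟩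
            · intro x _ hx
              subst hqK'
              exact (hψK' x ⟨hx.1, hx.2.1⟩).symm
            · intro h; exact (hqK h).elim
          · have hC : IsCompact (S ∩ (c q ∩ c q')) := hSc.inter_right ((hc q).inter (hc q'))
            obtain ⟨D, hD, hDP⟩ := exists_LC_of_components hC ψ P (by
              intro x hx y hy hxK hcon
              exact hψ x y (Or.inl ⟨q, q', fun h => hq' (h ▸ hq), hx, hy, hxK, hcon⟩))
            exact ⟨D, fun _ _ => ⟨hD, hDP, fun h => (hqK h).elim, fun h => (hqK' h).elim⟩⟩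
    · exact ⟨fun _ => 0, fun h => (hq h).elim⟩
  choose D hD using h1
  obtain ⟨d, hd, hdD⟩ := glue_frontier hSc.isClosed hc htrip W ψ D
    (fun q hq q' hq' => (hD q q' hq hq').1) (fun q hq q' hq' => (hD q q' hq hq').2.1)
  obtain ⟨u, v, hu, hv, huv⟩ := mv htriv (isClosed_un hc W) (isClosed_un hc Wᶜ)
    (un_cov hcov W) hd
  obtain ⟨s, hsa, hsK⟩ := haK
  obtain ⟨s', hsa', hsK'⟩ := haK'
  obtain ⟨t, htb, htK⟩ := hbK
  obtain ⟨t', htb', htK'⟩ := hbK'
  have hKsub : S ∩ c K ⊆ un c W ∩ S := fun x hx => ⟨mem_un.2 ⟨K, hKW, hx.2⟩, hx.1⟩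
  have hKsub' : S ∩ c K' ⊆ un c W ∩ S := fun x hx => ⟨mem_un.2 ⟨K', hKW', hx.2⟩, hx.1⟩
  have e1 : u t = u s := (hu.mono hKsub).eq_of_preconnected hK ⟨(hbW htb).2, htK⟩
    ⟨(haW hsa).2, hsK⟩
  have e2 : u s = u s' := (hu.mono haW).eq_of_preconnected ha hsa hsa'
  have e3 : u s' = u t' := (hu.mono hKsub').eq_of_preconnected hK' ⟨(haW hsa').2, hsK'⟩
    ⟨(hbW htb').2, htK'⟩
  have e4 : v t = v t' := (hv.mono hbW).eq_of_preconnected hb htb htb'
  obtain ⟨r, hr, htr⟩ := mem_un.1 (hbW htb).1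
  obtain ⟨r', hr', htr'⟩ := mem_un.1 (hbW htb').1
  have f1 := huv t ⟨⟨mem_un.2 ⟨K, hKW, htK⟩, (hbW htb).1⟩, (hbW htb).2⟩
  have f2 := huv t' ⟨⟨mem_un.2 ⟨K', hKW', htK'⟩, (hbW htb').1⟩, (hbW htb').2⟩
  rw [hdD K hKW r hr t ⟨(hbW htb).2, htK, htr⟩, (hD K r hKW hr).2.2.1 rfl t] at f1
  rw [hdD K' hKW' r' hr' t' ⟨(hbW htb').2, htK', htr'⟩, (hD K' r' hKW' hr').2.2.2 rfl t'] at f2
  rw [e1, e2, e3, e4, f2] at f1
  exact zero_ne_one f1

end Crest.Agent.R096.Jn_890
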