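import Mathlib
import Crest.Agent.R096.Agl4_543
import Crest.Agent.R096.Jn1_890

/-! # Row 96, P1-MAIN (helper4), part 1: classes of the chord relation are even patterns; the
class which separates the core vertex from the far vertices. -/

set_option autoImplicit false

open Set Filter Topology Metric

namespace Crest.Agent.R096.Main_4

open Crest.Agent.R096.Msh_715 Crest.Agent.R096.Agl4_543 Crest.Agent.R096.Coh_184
  Crest.Agent.R096.Jn_890

variable {E : Type*} [NormedAddCommGroup E] [NormedSpace ℝ E]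
variable {Om : Set E} {ι : Type*}

open Classical in
/-- `Q` is a pattern of points on the 1-cells which meets the boundary of every 2-cell evenly -/
structure EvenPat (T : Tiling Om ι) (Q : Finset E) : Prop where
  on : ∀ w ∈ Q, w ∈ Om ∧ T.dim w = 1
  even : ∀ x ∈ Om, T.dim x = 2 → Even (Q.filter (fun w => w ∈ T.cc x)).card

open Classical in
/-- `lam` is a labelling of the vertices which jumps exactly at the points of `Q` -/
def IsLab (T : Tiling Om ι) (Q : Finset E) (lam : E → ZMod 2) : Prop :=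
  ∀ w ∈ Om, T.dim w = 1 → ∀ v v', T.cc w = segment ℝ v v' →
    lam v + lam v' = ((Q.filter (fun u => u ∈ T.cc w)).card : ZMod 2)

/-- `v`, `v'` are the end points of a 1-cell of a tile in `W` -/
def Edg (T : Tiling Om ι) (W : Set ι) (v v' : E) : Prop :=
  ∃ w ∈ Om, T.dim w = 1 ∧ T.cc w = segment ℝ v v' ∧ ∃ i ∈ W, i ∈ T.at_ w

theorem Edg.symm {T : Tiling Om ι} {W : Set ι} {v v' : E} (h : Edg T W v v') : Edg T W v' v := by
  obtain ⟨w, h1, h2, h3, h4⟩ := h
  exact ⟨w, h1, h2, by rw [h3, segment_symm], h4⟩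

theorem Edg.mono {T : Tiling Om ι} {W W' : Set ι} (hW : W ⊆ W') {v v' : E} (h : Edg T W v v') :
    Edg T W' v v' := by
  obtain ⟨w, h1, h2, h3, i, h4, h5⟩ := h
  exact ⟨w, h1, h2, h3, i, hW h4, h5⟩

section label

variable {T : Tiling Om ι}

/-- along a path of 1-cells on which two labels have the same jumps the difference is constant -/
theorem IsLab.diff_eq {Q Q' : Finset E} {lam lam' : E → ZMod 2} (h : IsLab T Q lam)
    (h' : IsLab T Q' lam') {W : Set ι}
    (hQ : ∀ i ∈ W, ∀ u ∈ Msh_715.P (T.H i), (u ∈ Q ↔ u ∈ Q')) {v v' : E}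
    (hp : Relation.ReflTransGen (Edg T W) v v') : lam v + lam' v = lam v' + lam' v' := by
  classical
  induction hp with
  | refl => rfl
  | tail _ hs ih =>
    obtain ⟨w, h1, h2, h3, i, h4, h5⟩ := hs
    rw [ih]
    have e1 := h w h1 h2 _ _ h3
    have e2 := h' w h1 h2 _ _ h3
    have e3 : Q.filter (fun u => u ∈ T.cc w) = Q'.filter (fun u => u ∈ T.cc w) := by
      ext u
      simp only [Finset.mem_filter]
      constructor
      · rintro ⟨a, b⟩; exact ⟨(hQ i h4 u (T.cc_sub_tile h5 b)).1 a, b⟩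
      · rintro ⟨a, b⟩; exact ⟨(hQ i h4 u (T.cc_sub_tile h5 b)).2 a, b⟩
    have e4 : ∀ a b c d : ZMod 2, a + b = c + d → a + c = b + d := by decide
    have e5 : (Q.filter (fun u => u ∈ T.cc w)).card = (Q'.filter (fun u => u ∈ T.cc w)).card := by
      rw [e3]
    apply e4
    rw [← e5] at e2
    exact e1.trans e2.symm

/-- a label is constant along paths of 1-cells without points of the pattern -/
theorem IsLab.const {Q : Finset E} {lam : E → ZMod 2} (h : IsLab T Q lam) {W : Set ι}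
    (hQ : ∀ i ∈ W, ∀ u ∈ Q, u ∉ Msh_715.P (T.H i)) {v v' : E}
    (hp : Relation.ReflTransGen (Edg T W) v v') : lam v = lam v' := by
  classical
  induction hp with
  | refl => rfl
  | tail _ hs ih =>
    obtain ⟨w, h1, h2, h3, i, h4, h5⟩ := hs
    rw [ih]
    have e1 := h w h1 h2 _ _ h3
    have e3 : Q.filter (fun u => u ∈ T.cc w) = ∅ := by
      rw [Finset.filter_eq_empty_iff]
      intro u hu hw
      exact hQ i h4 u hu (T.cc_sub_tile h5 hw)
    rw [e3, Finset.card_empty, Nat.cast_zero] at e1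
    exact CharTwo.add_eq_zero.1 e1

/-- **REACH**: on every path of 1-cells between vertices with different labels there is a point of
the pattern. -/
theorem IsLab.reach {Q : Finset E} {lam : E → ZMod 2} (h : IsLab T Q lam) {W : Set ι}
    {v v' : E} (hp : Relation.ReflTransGen (Edg T W) v v') (hne : lam v ≠ lam v') :
    ∃ i ∈ W, ∃ u ∈ Q, u ∈ Msh_715.P (T.H i) := by
  by_contra hcon
  push Not at hcon
  exact hne (h.const (fun i hi u hu => hcon i hi u hu) hp)

/-- the sum of labels of the parts is a label of the disjoint union -/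
theorem IsLab.sum {κ : Type*} [DecidableEq κ] {s : Finset κ} {Q : κ → Finset E}
    {lam : κ → E → ZMod 2} {P : Finset E} (h : ∀ a ∈ s, IsLab T (Q a) (lam a))
    (hP : ∀ u, u ∈ P ↔ ∃ a ∈ s, u ∈ Q a) (hd : ∀ a ∈ s, ∀ b ∈ s, ∀ u, u ∈ Q a → u ∈ Q b → a = b) :
    IsLab T P (fun v => ∑ a ∈ s, lam a v) := by
  classical
  intro w hw hd1 v v' hc
  have e1 : P.filter (fun u => u ∈ T.cc w) = s.biUnion fun a => (Q a).filter (fun u => u ∈ T.cc w) := by
    ext u
    simp only [Finset.mem_filter, Finset.mem_biUnion, hP]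
    constructor
    · rintro ⟨⟨a, ha, hu⟩, hc⟩; exact ⟨a, ha, hu, hc⟩
    · rintro ⟨a, ha, hu, hc⟩; exact ⟨⟨a, ha, hu⟩, hc⟩
  have e2 : (P.filter (fun u => u ∈ T.cc w)).card
      = ∑ a ∈ s, ((Q a).filter (fun u => u ∈ T.cc w)).card := by
    rw [e1, Finset.card_biUnion]
    intro a ha b hb hab
    rw [Function.onFun, Finset.disjoint_left]
    intro u h1 h2
    exact hab (hd a ha b hb u (Finset.mem_filter.1 h1).1 (Finset.mem_filter.1 h2).1)
  have e3 : (∑ a ∈ s, lam a v) + ∑ a ∈ s, lam a v'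
      = ((P.filter (fun u => u ∈ T.cc w)).card : ZMod 2) := by
    rw [e2, Nat.cast_sum, ← Finset.sum_add_distrib]
    exact Finset.sum_congr rfl fun a ha => h a ha w hw hd1 v v' hc
  exact e3

end label

section classes

variable (T : Tiling Om ι) (S : Set E) (P : Finset E)

/-- one chord of the level `S` -/
def St (x y : E) : Prop := Step S (fun i => Msh_715.P (T.H i)) P x y

open Classical in
/-- the points joined with `p` by chords -/
noncomputable def cls (p : E) : Finset E := P.filter fun y => Relation.ReflTransGen (St T S P) p y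

variable {T S P}

theorem mem_cls {p y : E} : y ∈ cls T S P p ↔ y ∈ P ∧ Relation.ReflTransGen (St T S P) p y := by
  classical
  unfold cls
  rw [Finset.mem_filter]

theorem cls_sub (p : E) : cls T S P p ⊆ P := fun _ h => (mem_cls.1 h).1

theorem self_mem_cls {p : E} (hp : p ∈ P) : p ∈ cls T S P p := mem_cls.2 ⟨hp, .refl⟩

theorem St.mem_right {x y : E} (h : St T S P x y) : y ∈ P := by
  obtain ⟨q, q', h⟩ := h
  exact h.right

theorem St.symm {x y : E} (h : St T S P x y) : St T S P y x := by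
  obtain ⟨q, q', h⟩ := h
  exact ⟨q, q', h.symm⟩

theorem path_symm {x y : E} (h : Relation.ReflTransGen (St T S P) x y) :
    Relation.ReflTransGen (St T S P) y x := by
  induction h with
  | refl => exact .refl
  | tail _ h ih => exact .head h.symm ih

theorem cls_closed {p x y : E} (hx : x ∈ cls T S P p) (h : St T S P x y) : y ∈ cls T S P p :=
  mem_cls.2 ⟨h.mem_right, (mem_cls.1 hx).2.tail h⟩

theorem cls_eq {p x : E} (hx : x ∈ cls T S P p) : cls T S P x = cls T S P p := by
  ext y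
  rw [mem_cls, mem_cls]
  have h := (mem_cls.1 hx).2
  exact ⟨fun g => ⟨g.1, h.trans g.2⟩, fun g => ⟨g.1, (path_symm h).trans g.2⟩⟩

/-- **a set of points closed under chords is an even pattern** -/
theorem even_of_closed [FiniteDimensional ℝ E] (h3 : Module.finrank ℝ E = 3) {u : E → ℝ} {c : ℝ}
    (h : RegLevel T u c S) (hP : ∀ x, x ∈ P ↔ x ∈ S ∧ T.dim x ≤ 1) {Q : Finset E}
    (hQ : Q ⊆ P) (hcl : ∀ x ∈ Q, ∀ y, St T S P x y → y ∈ Q) : EvenPat T Q := by
  classical
  have hon : ∀ w ∈ Q, w ∈ S ∧ w ∈ Om ∧ T.dim w = 1 := by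
    intro w hw
    obtain ⟨h1, h2⟩ := (hP w).1 (hQ hw)
    exact ⟨h1, h.sub h1, by have := h.vert w h1; omega⟩
  refine ⟨fun w hw => (hon w hw).2, fun x hx hd => ?_⟩
  have hpart : ∀ p ∈ Q.filter (fun w => w ∈ T.cc x), ∃! p', p' ≠ p ∧
      (p' ∈ S ∧ T.dim p' ≤ 1) ∧ p' ∈ connectedComponentIn (S ∩ T.cc x) p := by
    intro p hp
    obtain ⟨h1, h2⟩ := Finset.mem_filter.1 hp
    exact h.partner h3 hx hd (hon p h1).1 (hon p h1).2.2 h2
  choose! g hg hgu using fun p hp => (hpart p hp)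
  have hgm : ∀ p ∈ Q.filter (fun w => w ∈ T.cc x), g p ∈ Q.filter (fun w => w ∈ T.cc x) := by
    intro p hp
    obtain ⟨h1, h2⟩ := Finset.mem_filter.1 hp
    obtain ⟨g1, g2, g3⟩ := hg p hp
    have g4 := connectedComponentIn_subset _ _ g3
    obtain ⟨i, j, hij, -, hcc⟩ := T.two_tiles hx (by omega)
    refine Finset.mem_filter.2 ⟨hcl p h1 (g p) ⟨i, j, hij, hQ h1, (hP _).2 g2, ?_, ?_⟩, g4.2⟩
    · rw [← hcc]; exact ⟨(hon p h1).1, h2⟩
    · rw [← hcc]; exact g3
  have hgg : ∀ p ∈ Q.filter (fun w => w ∈ T.cc x), g (g p) = p := by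
    intro p hp
    obtain ⟨h1, h2⟩ := Finset.mem_filter.1 hp
    obtain ⟨g1, g2, g3⟩ := hg p hp
    refine (hgu (g p) (hgm p hp) p ⟨g1.symm, ⟨(hon p h1).1, (hon p h1).2.2.le⟩, ?_⟩).symm
    rw [← connectedComponentIn_eq g3]
    exact mem_connectedComponentIn ⟨(hon p h1).1, h2⟩
  have h1 : ∑ _p ∈ Q.filter (fun w => w ∈ T.cc x), (1 : ZMod 2) = 0 := by
    refine Finset.sum_involution (fun p _ => g p) (fun p hp => by decide) (fun p hp _ => ?_)
      (fun p hp => hgm p hp) (fun p hp => hgg p hp)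
    exact (hg p hp).1
  rw [Finset.sum_const, nsmul_eq_mul, mul_one] at h1
  exact (ZMod.natCast_eq_zero_iff_even).1 h1

theorem cls_even [FiniteDimensional ℝ E] (h3 : Module.finrank ℝ E = 3) {u : E → ℝ} {c : ℝ}
    (h : RegLevel T u c S) (hP : ∀ x, x ∈ P ↔ x ∈ S ∧ T.dim x ≤ 1) (p : E) :
    EvenPat T (cls T S P p) :=
  even_of_closed h3 h hP (cls_sub p) fun _ hx _ hs => cls_closed hx hs

/-- **EXISTENCE OF THE MAIN CLASS.** `χ` is a label of the whole level, every class has a label,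
all of them vanish at `v₁`; `χ v₀ = 1` and `v₀`, `v₁` are joined by 1-cells: some class has a label
with value 1 at `v₀`. -/
theorem exists_main {χ : E → ZMod 2} (hχ : IsLab T P χ) {v₀ v₁ : E} (h0 : χ v₀ = 1)
    (h1 : χ v₁ = 0) (hp : Relation.ReflTransGen (Edg T univ) v₀ v₁)
    {lam : E → E → ZMod 2} (hlam : ∀ p ∈ P, IsLab T (cls T S P p) (lam p))
    (hfar : ∀ p ∈ P, lam p v₁ = 0) : ∃ p ∈ P, lam p v₀ = 1 := by
  classical
  -- one representative for each class
  let cl : Finset (Finset E) := P.image (cls T S P)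
  have hrep : ∀ Q ∈ cl, ∃ p ∈ P, cls T S P p = Q := by
    intro Q hQ
    obtain ⟨p, hp, rfl⟩ := Finset.mem_image.1 hQ
    exact ⟨p, hp, rfl⟩
  choose! r hr hrQ using hrep
  have hsum : IsLab T P (fun v => ∑ Q ∈ cl, lam (r Q) v) := by
    refine IsLab.sum (Q := fun Q => Q) (fun Q hQ => ?_) (fun u => ?_) ?_
    · have := hlam (r Q) (hr Q hQ)
      rw [hrQ Q hQ] at this
      exact this
    · constructor
      · intro hu
        exact ⟨cls T S P u, Finset.mem_image_of_mem _ hu, self_mem_cls hu⟩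
      · rintro ⟨Q, hQ, hu⟩
        obtain ⟨p, hp, rfl⟩ := Finset.mem_image.1 hQ
        exact cls_sub p hu
    · intro Q hQ Q' hQ' x hx hx'
      obtain ⟨p, hp, rfl⟩ := Finset.mem_image.1 hQ
      obtain ⟨p', hp', rfl⟩ := Finset.mem_image.1 hQ'
      rw [← cls_eq hx, ← cls_eq hx']
  have h2 := hχ.diff_eq hsum (W := univ) (fun _ _ _ _ => Iff.rfl) hp
  have h3 : ∑ Q ∈ cl, lam (r Q) v₁ = 0 :=
    Finset.sum_eq_zero fun Q hQ => hfar _ (hr Q hQ)
  rw [h0, h1, h3, add_zero] at h2
  have h4 : ∑ Q ∈ cl, lam (r Q) v₀ = 1 := by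
    have : ∀ a : ZMod 2, 1 + a = 0 → a = 1 := by decide
    exact this _ h2
  by_contra hcon
  push Not at hcon
  have h5 : ∑ Q ∈ cl, lam (r Q) v₀ = 0 := by
    refine Finset.sum_eq_zero fun Q hQ => ?_
    have : ∀ a : ZMod 2, a ≠ 1 → a = 0 := by decide
    exact this _ (hcon _ (hr Q hQ))
  rw [h5] at h4
  exact zero_ne_one h4

end classes

end Crest.Agent.R096.Main_4
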