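import Crest.Agent.R096.Lab1_184
import Crest.Agent.R096.Lab4_184
import Crest.Agent.R096.Main1_4
import Crest.Prelude.Def_SobolevMap

/-! Row 96, P1-LAB (helper184), part 5: users' forms. Paths of 1-cells, cochains of 1-cells,
preimages of convex bodies under a homeomorphism. -/

set_option autoImplicit false

open Set Topology Filter Metric Module

namespace Crest.Agent.R096.Lab_184

open Crest.Agent.R096.Msh_715 Crest.Agent.R096.Coh_184

section tiling

variable {E : Type*} [NormedAddCommGroup E] [NormedSpace ℝ E]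
variable {Om : Set E} {ι : Type*} {T : Tiling Om ι}

/-- the union of the tiles which meet a connected set is connected -/
theorem isPreconnected_meet {K : Set E} (hK : IsPreconnected K) (hKO : K ⊆ Om) :
    IsPreconnected (⋃ i ∈ {i | (P (T.H i) ∩ K).Nonempty}, P (T.H i)) := by
  rcases K.eq_empty_or_nonempty with rfl | ⟨x0, hx0⟩
  · have : (⋃ i ∈ {i | (P (T.H i) ∩ (∅ : Set E)).Nonempty}, P (T.H i)) = ∅ := by
      rw [Set.eq_empty_iff_forall_notMem]
      intro x hx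
      obtain ⟨i, hi, -⟩ := mem_iUnion₂.1 hx
      obtain ⟨y, -, hy⟩ := hi
      exact hy
    rw [this]; exact isPreconnected_empty
  have hKC : K ⊆ ⋃ i ∈ {i | (P (T.H i) ∩ K).Nonempty}, P (T.H i) := by
    intro x hx
    obtain ⟨i, hi⟩ := T.cov x (hKO hx)
    exact mem_iUnion₂.2 ⟨i, ⟨x, hi, hx⟩, hi⟩
  refine isPreconnected_of_forall x0 fun y hy => ?_
  obtain ⟨i, ⟨z, hz1, hz2⟩, hy⟩ := mem_iUnion₂.1 hy
  refine ⟨K ∪ P (T.H i), union_subset hKC fun u hu => mem_iUnion₂.2 ⟨i, ⟨z, hz1, hz2⟩, hu⟩,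
    Or.inl hx0, Or.inr hy, ?_⟩
  exact IsPreconnected.union z hz2 hz1 hK (convex_P _).isPreconnected

variable [FiniteDimensional ℝ E]

/-- **PATHS**: two vertices of tiles which meet a connected set are joined by 1-cells of tiles
which meet this set -/
theorem edg_path {K : Set E} (hK : IsPreconnected K) (hKO : K ⊆ Om) {v w : E}
    (hv : ∃ i, (P (T.H i) ∩ K).Nonempty ∧ v ∈ P (T.H i))
    (hw : ∃ i, (P (T.H i) ∩ K).Nonempty ∧ w ∈ P (T.H i)) (hv0 : T.dim v = 0) (hw0 : T.dim w = 0) :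
    Relation.ReflTransGen (Main_4.Edg T {i | (P (T.H i) ∩ K).Nonempty}) v w := by
  have hCO : (⋃ i ∈ {i | (P (T.H i) ∩ K).Nonempty}, P (T.H i)) ⊆ Om :=
    iUnion₂_subset fun i _ => T.sub i
  have h1 := T.reflTransGen_adj (isPreconnected_meet (T := T) hK hKO) hCO
    (fun x hx => by
      obtain ⟨i, hi, hxi⟩ := mem_iUnion₂.1 hx
      exact fun y hy => mem_iUnion₂.2 ⟨i, hi, T.cc_sub_tile (i := i) hxi hy⟩)
    (v := v) (w := w) (by obtain ⟨i, h1, h2⟩ := hv; exact mem_iUnion₂.2 ⟨i, h1, h2⟩)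
    (by obtain ⟨i, h1, h2⟩ := hw; exact mem_iUnion₂.2 ⟨i, h1, h2⟩) hv0 hw0
  have h2 : ∀ a b, T.Adj (⋃ i ∈ {i | (P (T.H i) ∩ K).Nonempty}, P (T.H i)) a b →
      Main_4.Edg T {i | (P (T.H i) ∩ K).Nonempty} a b := by
    rintro a b ⟨e, he, he1, hab⟩
    obtain ⟨i, hi, hei⟩ := mem_iUnion₂.1 he
    exact ⟨e, hCO he, he1, hab, i, hi, hei⟩
  clear hv hw hv0 hw0
  induction h1 with
  | refl => exact .refl
  | tail _ hs ih => exact ih.tail (h2 _ _ hs)

omit [FiniteDimensional ℝ E] in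
theorem _root_.Crest.Agent.R096.Main_4.EvenPat.evPat {Q : Finset E} (h : Main_4.EvenPat T Q) :
    EvPat T Q := by
  classical
  refine ⟨h.on, fun x hx hd => ?_⟩
  have h1 := h.even x hx hd
  rw [← Set.ncard_coe_finset] at h1
  have : ((Q.filter (fun w => w ∈ T.cc x) : Finset E) : Set E) = (Q : Set E) ∩ T.cc x := by
    ext u; simp
  rwa [this] at h1

omit [FiniteDimensional ℝ E] in
theorem isLab_iff {Q : Finset E} {lam : E → ZMod 2} :
    Main_4.IsLab T Q lam ↔ ∀ e ∈ Om, T.dim e = 1 → ∀ a b, T.cc e = segment ℝ a b →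
      lam a + lam b = (((Q : Set E) ∩ T.cc e).ncard : ZMod 2) := by
  classical
  have key : ∀ e, ((Q.filter (fun u => u ∈ T.cc e)).card : ZMod 2) =
      (((Q : Set E) ∩ T.cc e).ncard : ZMod 2) := by
    intro e
    rw [← Set.ncard_coe_finset]
    have : ((Q.filter (fun w => w ∈ T.cc e) : Finset E) : Set E) = (Q : Set E) ∩ T.cc e := by
      ext u; simp
    rw [this]
  constructor
  · intro h e he h1 a b hab
    rw [← key e]
    have := h e he h1 a b hab
    convert this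
  · intro h e he h1 a b hab
    have := h e he h1 a b hab
    rw [← key e] at this
    convert this

/-- labels in the words of `Main_4` -/
theorem isLab_of_even (h3 : finrank ℝ E = 3) {Q : Finset E} (hQ : Main_4.EvenPat T Q) {D : Set E}
    (hD : IsCompact D) (hDO : D ⊆ Om) (hfr : IsPreconnected (frontier D)) (ht : TrivF (ZMod 2) D)
    (hsupp : ∀ w ∈ Q, ∀ q, w ∈ P (T.H q) → P (T.H q) ⊆ interior D) :
    ∃ lam : E → ZMod 2, Main_4.IsLab T Q lam ∧ (∀ v ∉ D, lam v = 0) ∧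
      (∀ q, ¬ P (T.H q) ⊆ interior D → ∀ v ∈ P (T.H q), lam v = 0) := by
  obtain ⟨lam, h1, h2, h4⟩ := labels h3 hQ.evPat hD hDO hfr ht hsupp
  exact ⟨lam, isLab_iff.2 h4, h1, h2⟩

/-- a label is unique up to a constant on the vertices of a connected set of cells -/
theorem isLab_unique {Q : Finset E} {lam lam' : E → ZMod 2} (h : Main_4.IsLab T Q lam)
    (h' : Main_4.IsLab T Q lam') (hOm : IsPreconnected Om) {v w : E} (hv : v ∈ Om) (hw : w ∈ Om)
    (hv0 : T.dim v = 0) (hw0 : T.dim w = 0) (hvv : lam v = lam' v) : lam w = lam' w := by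
  have h1 := T.const_of_preconnected (φ := fun z => lam z + lam' z) hOm (Subset.refl _)
    (fun x hx => T.cc_sub_Om hx) (fun e he h1 a b hab => by
      have e1 := h e he h1 a b hab
      have e2 := h' e he h1 a b hab
      have e3 : lam a + lam b = lam' a + lam' b := e1.trans e2.symm
      have e4 : ∀ a b c d : ZMod 2, a + b = c + d → a + c = b + d := by decide
      exact e4 _ _ _ _ e3) v hv w hw hv0 hw0
  have h2 : lam v + lam' v = 0 := by rw [hvv]; exact CharTwo.add_self_eq_zero _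
  have h3 : lam w + lam' w = 0 := by rw [← h2]; exact h1.symm
  exact CharTwo.add_eq_zero.1 h3

/-- the 1-cells of a cell -/
def edges (T : Tiling Om ι) (x : E) : Set (Set E) := {K | ∃ e ∈ T.cc x, T.dim e = 1 ∧ T.cc e = K}

omit [FiniteDimensional ℝ E] in
theorem finite_edges {x : E} (hx : x ∈ Om) : (edges T x).Finite := by
  refine (T.finite_below hx).subset ?_
  rintro K ⟨e, he, _, rfl⟩
  exact ⟨⟨e, T.cc_sub_Om hx he, rfl⟩, T.cc_sub_of_mem he⟩

/-- **cochains**: a function of the 1-cells with sum zero over a 2-cell is exact on the 2-cell -/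
theorem exact_cell2_cochain {c : Set E → ZMod 2} {x : E} (hx : x ∈ Om) (hd : T.dim x = 2)
    (h0 : ∑ᶠ K ∈ edges T x, c K = 0) :
    ∃ lam : E → ZMod 2, T.Exact (fun e _ _ => c (T.cc e)) lam (T.cc x) := by
  classical
  have hfin := finite_edges (T := T) hx
  have hr : ∀ K ∈ edges T x, ∃ e ∈ T.cc x, T.dim e = 1 ∧ T.cc e = K := fun K hK => hK
  choose! r hr1 hr2 hr3 using hr
  set S : Finset (Set E) := hfin.toFinset.filter (fun K => c K = 1) with hS
  have hSm : ∀ K, K ∈ S ↔ K ∈ edges T x ∧ c K = 1 := by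
    intro K; rw [hS, Finset.mem_filter, Set.Finite.mem_toFinset]
  have hinj : ∀ K ∈ S, ∀ K' ∈ S, r K = r K' → K = K' := by
    intro K hK K' hK' h
    rw [← hr3 K ((hSm K).1 hK).1, ← hr3 K' ((hSm K').1 hK').1, h]
  set Q : Finset E := S.image r with hQ
  have hQcard : (Q.card : ZMod 2) = 0 := by
    rw [hQ, Finset.card_image_of_injOn (fun K hK K' hK' h => hinj K hK K' hK' h)]
    rw [finsum_mem_eq_finite_toFinset_sum _ hfin] at h0
    rw [← h0, Finset.card_eq_sum_ones, Nat.cast_sum, hS, Finset.sum_filter]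
    refine Finset.sum_congr rfl fun K _ => ?_
    have : ∀ a : ZMod 2, (if a = 1 then ((1 : ℕ) : ZMod 2) else 0) = a := by decide
    exact this (c K)
  have hQm : ∀ w ∈ Q, w ∈ T.cc x ∧ T.dim w = 1 := by
    intro w hw
    obtain ⟨K, hK, rfl⟩ := Finset.mem_image.1 hw
    exact ⟨hr1 K ((hSm K).1 hK).1, hr2 K ((hSm K).1 hK).1⟩
  have hQx : (Q : Set E) ∩ T.cc x = Q := inter_eq_left.2 fun w hw => (hQm w hw).1
  obtain ⟨lam, hlam⟩ := exact_cell2 (T := T) (Q := Q) (fun w hw => (hQm w hw).2) hx hd (by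
    rw [hQx, Set.ncard_coe_finset]
    exact (ZMod.natCast_eq_zero_iff_even).1 hQcard)
  refine ⟨lam, fun e he h1 a b hab => ?_⟩
  have h2 := hlam e he h1 a b hab
  rw [h2]
  show (((Q : Set E) ∩ T.cc e).ncard : ZMod 2) = c (T.cc e)
  have heO := T.cc_sub_Om hx he
  have hmem : ∀ K ∈ S, r K ∈ T.cc e → K = T.cc e := by
    intro K hK hrK
    have h4 : r K ∈ T.oc e := by
      by_contra h5
      have := T.dim_lt hrK h5
      rw [hr2 K ((hSm K).1 hK).1, h1] at this
      exact lt_irrefl _ this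
    rw [← hr3 K ((hSm K).1 hK).1]
    exact T.cc_eq_of_mem_oc heO h4
  have hedge : T.cc e ∈ edges T x := ⟨e, he, h1, rfl⟩
  by_cases hc : c (T.cc e) = 1
  · have hK : T.cc e ∈ S := (hSm _).2 ⟨hedge, hc⟩
    have : (Q : Set E) ∩ T.cc e = {r (T.cc e)} := by
      ext u
      constructor
      · rintro ⟨hu1, hu2⟩
        obtain ⟨K, hK', rfl⟩ := Finset.mem_image.1 (Finset.mem_coe.1 hu1)
        rw [hmem K hK' hu2]; rfl
      · rintro hu
        rw [mem_singleton_iff] at hu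
        subst hu
        refine ⟨Finset.mem_coe.2 (Finset.mem_image_of_mem _ hK), ?_⟩
        have h6 : r (T.cc e) ∈ T.cc (r (T.cc e)) := T.self_mem_cc _
        rwa [hr3 _ hedge] at h6
    rw [this, Set.ncard_singleton, hc]; rfl
  · have hc0 : c (T.cc e) = 0 := by
      have : ∀ a : ZMod 2, a ≠ 1 → a = 0 := by decide
      exact this _ hc
    have : (Q : Set E) ∩ T.cc e = ∅ := by
      rw [Set.eq_empty_iff_forall_notMem]
      rintro u ⟨hu1, hu2⟩
      obtain ⟨K, hK', rfl⟩ := Finset.mem_image.1 (Finset.mem_coe.1 hu1)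
      have h7 := ((hSm K).1 hK').2
      rw [hmem K hK' hu2] at h7
      exact hc h7
    rw [this, Set.ncard_empty, hc0]; rfl

/-- **labels of a cochain with compact support** -/
theorem labels_cochain (h3 : finrank ℝ E = 3) {c : Set E → ZMod 2} {D : Set E}
    (hD : IsCompact D) (hDO : D ⊆ Om) (hfr : IsPreconnected (frontier D)) (ht : TrivF (ZMod 2) D)
    (hc : ∀ x ∈ Om, T.dim x = 2 → ∑ᶠ K ∈ edges T x, c K = 0)
    (hsupp : ∀ q, ¬ P (T.H q) ⊆ interior D → ∀ e ∈ P (T.H q), T.dim e = 1 → c (T.cc e) = 0) :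
    ∃ lam : E → ZMod 2, (∀ v ∉ D, lam v = 0) ∧
      (∀ q, ¬ P (T.H q) ⊆ interior D → ∀ v ∈ P (T.H q), lam v = 0) ∧
      ∀ e ∈ Om, T.dim e = 1 → ∀ a b, T.cc e = segment ℝ a b → lam a + lam b = c (T.cc e) := by
  obtain ⟨lam, h1, _, h2, h4⟩ := potential (T := T) (κ := fun e _ _ => c (T.cc e)) h3 hD hDO hfr ht
    (fun x hx hd => exact_cell2_cochain hx hd (hc x hx hd))
    (fun q hq e he h1 a b _ => by
      show (0 : ZMod 2) - 0 = c (T.cc e)
      rw [hsupp q hq e he h1, sub_zero])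
  refine ⟨lam, h1, h2, fun e he h5 a b hab => ?_⟩
  rw [← CharTwo.sub_eq_add]; exact h4 e he h5 a b hab

end tiling

section homeo

theorem trivF_convex {A : Type*} [AddCommGroup A] {E : Type*} [NormedAddCommGroup E]
    [NormedSpace ℝ E] [FiniteDimensional ℝ E] {X : Type*} [TopologicalSpace X] [T2Space X]
    {K : Set E} (hK : IsCompact K) (hKc : Convex ℝ K) {g : E → X} (hg : ContinuousOn g K)
    (hinj : InjOn g K) : TrivF A (g '' K) := by
  let L : E ≃L[ℝ] (Fin (finrank ℝ E) → ℝ) := ContinuousLinearEquiv.ofFinrankEq (by simp)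
  have h1 : g '' K = (g ∘ L.symm) '' (L '' K) := by
    rw [image_comp]
    congr 1
    ext x
    constructor
    · intro hx; exact ⟨L x, ⟨x, hx, rfl⟩, by simp⟩
    · rintro ⟨_, ⟨y, hy, rfl⟩, rfl⟩; simpa using hy
  have hm : MapsTo L.symm (L '' K) K := by
    rintro _ ⟨y, hy, rfl⟩; simpa using hy
  rw [h1]
  refine trivF_convex_image (hK.image L.continuous)
    (hKc.linear_image (L : E →ₗ[ℝ] (Fin (finrank ℝ E) → ℝ)))
    (hg.comp L.symm.continuous.continuousOn hm) (hinj.comp L.symm.injective.injOn hm)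

open Crest.AnalysisR.VecCalc3 Crest.AnalysisR.Sobolev

variable {f : R3 → R3} {Om La : Set R3}

theorem interior_preimage (hOm : IsOpen Om) (hLa : IsOpen La) (hf : IsHomeomorphOn f Om La)
    (D : Set R3) : interior (Om ∩ f ⁻¹' D) = Om ∩ f ⁻¹' interior D := by
  obtain ⟨g, a1, a2, a3, a4, a5, a6⟩ := hf
  apply Subset.antisymm
  · intro x hx
    have hxO : x ∈ Om := (interior_subset hx).1
    refine ⟨hxO, ?_⟩
    have h1 : IsOpen (La ∩ g ⁻¹' interior (Om ∩ f ⁻¹' D)) :=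
      a6.isOpen_inter_preimage hLa isOpen_interior
    show f x ∈ interior D
    refine mem_interior.2 ⟨La ∩ g ⁻¹' interior (Om ∩ f ⁻¹' D), ?_, h1, ⟨a1 hxO, ?_⟩⟩
    · rintro y ⟨hy, hy2⟩
      have hy3 : g y ∈ interior (Om ∩ f ⁻¹' D) := hy2
      have h3 : f (g y) ∈ D := (interior_subset hy3).2
      rwa [a4 y hy] at h3
    · show g (f x) ∈ interior (Om ∩ f ⁻¹' D)
      rw [a3 x hxO]; exact hx
  · refine interior_maximal ?_ (a5.isOpen_inter_preimage hOm isOpen_interior)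
    exact inter_subset_inter_right _ (preimage_mono interior_subset)

theorem isCompact_preimage (hf : IsHomeomorphOn f Om La) {D : Set R3} (hD : IsCompact D)
    (hDL : D ⊆ La) : IsCompact (Om ∩ f ⁻¹' D) := by
  obtain ⟨g, a1, a2, a3, a4, a5, a6⟩ := hf
  have he : Om ∩ f ⁻¹' D = g '' D := by
    ext x
    constructor
    · rintro ⟨hx, hxD⟩; exact ⟨f x, hxD, a3 x hx⟩
    · rintro ⟨y, hy, rfl⟩
      refine ⟨a2 (hDL hy), ?_⟩
      show f (g y) ∈ D
      rw [a4 y (hDL hy)]; exact hy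
  rw [he]; exact hD.image_of_continuousOn (a6.mono hDL)

theorem frontier_preimage (hOm : IsOpen Om) (hLa : IsOpen La) (hf : IsHomeomorphOn f Om La)
    {D : Set R3} (hD : IsCompact D) (hDL : D ⊆ La) :
    frontier (Om ∩ f ⁻¹' D) = Om ∩ f ⁻¹' frontier D := by
  rw [(isCompact_preimage hf hD hDL).isClosed.frontier_eq, interior_preimage hOm hLa hf,
    hD.isClosed.frontier_eq]
  ext x
  constructor
  · rintro ⟨⟨h1, h2⟩, h4⟩
    exact ⟨h1, h2, fun h5 => h4 ⟨h1, h5⟩⟩
  · rintro ⟨h1, h2, h4⟩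
    exact ⟨⟨h1, h2⟩, fun h5 => h4 h5.2⟩

theorem isPreconnected_frontier_preimage (hOm : IsOpen Om) (hLa : IsOpen La)
    (hf : IsHomeomorphOn f Om La) {D : Set R3} (hD : IsCompact D) (hDc : Convex ℝ D)
    (hDn : (interior D).Nonempty) (hDL : D ⊆ La) :
    IsPreconnected (frontier (Om ∩ f ⁻¹' D)) := by
  rw [frontier_preimage hOm hLa hf hD hDL]
  obtain ⟨g, a1, a2, a3, a4, a5, a6⟩ := hf
  have hfrL : frontier D ⊆ La := hD.isClosed.frontier_subset.trans hDL
  have he : Om ∩ f ⁻¹' frontier D = g '' frontier D := by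
    ext x
    constructor
    · rintro ⟨hx, hxD⟩; exact ⟨f x, hxD, a3 x hx⟩
    · rintro ⟨y, hy, rfl⟩
      refine ⟨a2 (hfrL hy), ?_⟩
      show f (g y) ∈ frontier D
      rw [a4 y (hfrL hy)]; exact hy
  rw [he]
  exact (isPreconnected_frontier (by simp) hD hDc hDn).image _ (a6.mono hfrL)

theorem trivF_preimage {A : Type*} [AddCommGroup A] (hf : IsHomeomorphOn f Om La) {D : Set R3}
    (hD : IsCompact D) (hDc : Convex ℝ D) (hDL : D ⊆ La) : TrivF A (Om ∩ f ⁻¹' D) := by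
  obtain ⟨g, a1, a2, a3, a4, a5, a6⟩ := hf
  have he : Om ∩ f ⁻¹' D = g '' D := by
    ext x
    constructor
    · rintro ⟨hx, hxD⟩; exact ⟨f x, hxD, a3 x hx⟩
    · rintro ⟨y, hy, rfl⟩
      refine ⟨a2 (hDL hy), ?_⟩
      show f (g y) ∈ D
      rw [a4 y (hDL hy)]; exact hy
  rw [he]
  refine trivF_convex hD hDc (a6.mono hDL) ?_
  intro x hx y hy hxy
  rw [← a4 x (hDL hx), ← a4 y (hDL hy), hxy]

/-- level spheres: preimages of frontiers of convex bodies -/
theorem trivF_preimage_frontier {A : Type*} [AddCommGroup A] (hf : IsHomeomorphOn f Om La)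
    {D : Set R3} (hD : IsCompact D) (hDc : Convex ℝ D) (hDn : (interior D).Nonempty)
    (hDL : D ⊆ La) : TrivF A (Om ∩ f ⁻¹' frontier D) := by
  obtain ⟨g, a1, a2, a3, a4, a5, a6⟩ := hf
  have hfrL : frontier D ⊆ La := hD.isClosed.frontier_subset.trans hDL
  have he : Om ∩ f ⁻¹' frontier D = g '' frontier D := by
    ext x
    constructor
    · rintro ⟨hx, hxD⟩; exact ⟨f x, hxD, a3 x hx⟩
    · rintro ⟨y, hy, rfl⟩
      refine ⟨a2 (hfrL hy), ?_⟩
      show f (g y) ∈ frontier D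
      rw [a4 y (hfrL hy)]; exact hy
  rw [he]
  have hfc : IsCompact (frontier D) := hD.of_isClosed_subset isClosed_frontier
    hD.isClosed.frontier_subset
  refine (trivF_frontier (by simp) hD hDc hDn).of_image hfc isClosed_frontier (a6.mono hfrL) ?_
  intro x hx y hy hxy
  rw [← a4 x (hfrL hx), ← a4 y (hfrL hy), hxy]

/-- **LABELS for a homeomorphism**: `D ⊆ Λ` a compact convex body, all tiles with a point of `Q`
inside `f⁻¹ (int D)` -/
theorem isLab_homeo {ι : Type*} {T : Tiling Om ι} (hLa : IsOpen La)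
    (hf : IsHomeomorphOn f Om La) {D : Set R3} (hD : IsCompact D) (hDc : Convex ℝ D)
    (hDn : (interior D).Nonempty) (hDL : D ⊆ La) {Q : Finset R3} (hQ : Main_4.EvenPat T Q)
    (hsupp : ∀ w ∈ Q, ∀ q, w ∈ P (T.H q) → P (T.H q) ⊆ f ⁻¹' interior D) :
    ∃ lam : R3 → ZMod 2, Main_4.IsLab T Q lam ∧ (∀ v, ¬ (v ∈ Om ∧ f v ∈ D) → lam v = 0) ∧
      (∀ q, ¬ P (T.H q) ⊆ f ⁻¹' interior D → ∀ v ∈ P (T.H q), lam v = 0) := by
  have hint := interior_preimage T.op hLa hf D
  obtain ⟨lam, h1, h2, h4⟩ := isLab_of_even (by simp) hQ (isCompact_preimage hf hD hDL)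
    inter_subset_left (isPreconnected_frontier_preimage T.op hLa hf hD hDc hDn hDL)
    (trivF_preimage hf hD hDc hDL) (fun w hw q hq => by
      rw [hint]; exact subset_inter (T.sub q) (hsupp w hw q hq))
  refine ⟨lam, h1, fun v hv => h2 v hv, fun q hq v hv => h4 q (fun h5 => hq ?_) v hv⟩
  rw [hint] at h5
  exact h5.trans inter_subset_right

/-- potentials for a homeomorphism -/
theorem potential_homeo {ι : Type*} {T : Tiling Om ι} {A : Type*} [AddCommGroup A]
    (hLa : IsOpen La) (hf : IsHomeomorphOn f Om La) {D : Set R3} (hD : IsCompact D)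
    (hDc : Convex ℝ D) (hDn : (interior D).Nonempty) (hDL : D ⊆ La) {κ : R3 → R3 → R3 → A}
    (h2 : ∀ x ∈ Om, T.dim x = 2 → ∃ ψ : R3 → A, T.Exact κ ψ (T.cc x))
    (h0 : ∀ q, ¬ P (T.H q) ⊆ f ⁻¹' interior D → T.Exact κ (fun _ => 0) (P (T.H q))) :
    ∃ ψ : R3 → A, (∀ v, ¬ (v ∈ Om ∧ f v ∈ D) → ψ v = 0) ∧ (∀ v, T.dim v ≠ 0 → ψ v = 0) ∧
      (∀ q, ¬ P (T.H q) ⊆ f ⁻¹' interior D → ∀ v ∈ P (T.H q), ψ v = 0) ∧ T.Exact κ ψ Om := by
  have hint := interior_preimage T.op hLa hf D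
  have hiff : ∀ q, P (T.H q) ⊆ interior (Om ∩ f ⁻¹' D) ↔ P (T.H q) ⊆ f ⁻¹' interior D := by
    intro q
    rw [hint]
    exact ⟨fun h => h.trans inter_subset_right, fun h => subset_inter (T.sub q) h⟩
  obtain ⟨ψ, b1, b2, b3, b4⟩ := potential (T := T) (by simp) (isCompact_preimage hf hD hDL)
    inter_subset_left (isPreconnected_frontier_preimage T.op hLa hf hD hDc hDn hDL)
    (trivF_preimage hf hD hDc hDL) h2 (fun q hq => h0 q (fun h => hq ((hiff q).2 h)))
  exact ⟨ψ, fun v hv => b1 v hv, b2, fun q hq v hv => b3 q (fun h => hq ((hiff q).1 h)) v hv, b4⟩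

end homeo

end Crest.Agent.R096.Lab_184
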