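import Mathlib

/-!
# R096 (row 96), P4-MESH, part 1: the discrete input (helper416)

`Cmb Q dim J Fam`: for every cell `q` of a cell complex (poset `Q`) the finite type `I q` of the
pieces of the sheets in `q` (vertex: none, edge: crossing points, face: chords, 3-cell: closed
chord cycles = tiles), `up : I p → I q` for `p < q`, and labels in `ZMod 2`:
`0` = outside (`c = -1/2`), `1` = inside (`c = 1/2`).

Geometric meaning: `c x : K q → [-1/2,1/2]` the band function of the piece `x`, `o q` the base
vertex of `q`, where all `c x = -1/2`; `s h x = 1` iff `c x = 1/2` at the base vertex of the smaller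
cell; `side q x x' = 1` iff `c x' = 1/2` on the band of `x`; `Lab j q` = the label of the base
vertex of `q` with respect to the whole sheet `j`.
-/

set_option autoImplicit false

namespace Crest.Agent.R096.Bd_416

open scoped Classical in
/-- **the discrete input of P4** -/
structure Cmb (Q : Type) [PartialOrder Q] (dim : Q → ℕ) (J Fam : Type) where
  /-- pieces in the cell -/
  I : Q → Type
  [fin : ∀ q, Fintype (I q)]
  /-- sheet of a piece -/
  col : ∀ q, I q → J
  /-- family of a sheet -/
  fam : J → Fam
  /-- the piece of `q` which contains the piece `y` of `p < q` -/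
  up : ∀ {p q}, p < q → I p → I q
  col_up : ∀ {p q} (h : p < q) (y : I p), col q (up h y) = col p y
  up_up : ∀ {p r q} (h : p < r) (h' : r < q) (y : I p), up (h.trans h') y = up h' (up h y)
  /-- no pieces in vertices -/
  vert : ∀ q, dim q = 0 → IsEmpty (I q)
  /-- the label of the base vertex of `p` with respect to the piece `x` of `q > p` -/
  s : ∀ {p q}, p < q → I q → ZMod 2
  coc : ∀ {p r q} (h : p < r) (h' : r < q) (x : I q),
    s (h.trans h') x = s h' x + ∑ y : I r with up h' y = x, s h y
  /-- the base vertex -/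
  o : Q → Q
  o_dim : ∀ q, 1 ≤ dim q → dim (o q) = 0
  o_lt : ∀ q, 1 ≤ dim q → o q < q
  s_o : ∀ q (h : 1 ≤ dim q) (x : I q), s (o_lt q h) x = 0
  /-- the label of the base vertex of `q` with respect to the sheet `j` -/
  Lab : J → Q → ZMod 2
  lab_eq : ∀ {p q} (h : p < q) (j : J), Lab j p = Lab j q + ∑ x : I q with col q x = j, s h x
  /-- `side q x x' = 1` iff `x` lies inside `x'` (used for `x ≠ x'` in the same family) -/
  side : ∀ q, I q → I q → ZMod 2
  side_up : ∀ {p q} (h : p < q) (y : I p) (x' : I q), x' ≠ up h y →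
    fam (col p y) = fam (col q x') →
    side q (up h y) x' = s h x' + ∑ y' : I p with up h y' = x', side p y y'
  /-- at the other end of an edge every crossing point has been crossed -/
  s_edge : ∀ {v q} (h : v < q), dim q = 1 → v ≠ o q → ∀ x, s h x = 1

attribute [instance] Cmb.fin

variable {Q : Type} [PartialOrder Q] {dim : Q → ℕ} {J Fam : Type}

/-! ### signs -/

/-- the sign `(-1)^a` -/
def sg (a : ZMod 2) : ℝ := if a = 0 then 1 else -1

@[simp] lemma sg_zero : sg 0 = 1 := by simp [sg]

@[simp] lemma sg_one : sg 1 = -1 := by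
  have : (1 : ZMod 2) ≠ 0 := by decide
  simp [sg, this]

lemma z2 (a : ZMod 2) : a = 0 ∨ a = 1 := by revert a; decide

lemma sg_add (a b : ZMod 2) : sg (a + b) = sg a * sg b := by
  have h : (1 + 1 : ZMod 2) = 0 := by decide
  rcases z2 a with rfl | rfl <;> rcases z2 b with rfl | rfl <;> simp [h]

lemma sg_sum {ι : Type*} (t : Finset ι) (f : ι → ZMod 2) : sg (∑ i ∈ t, f i) = ∏ i ∈ t, sg (f i) := by
  classical
  induction t using Finset.induction_on with
  | empty => simp
  | @insert a t ha ih => rw [Finset.sum_insert ha, Finset.prod_insert ha, sg_add, ih]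

lemma sg_or (a : ZMod 2) : sg a = 1 ∨ sg a = -1 := by
  unfold sg; split_ifs <;> simp

lemma sg_sq (a : ZMod 2) : sg a * sg a = 1 := by
  rcases sg_or a with h | h <;> rw [h] <;> norm_num

lemma sg_ne (a : ZMod 2) : sg a ≠ 0 := by
  rcases sg_or a with h | h <;> rw [h] <;> norm_num

lemma sg_inj {a b : ZMod 2} (h : sg a = sg b) : a = b := by
  rcases z2 a with rfl | rfl <;> rcases z2 b with rfl | rfl <;>
    first | rfl | (exfalso; norm_num at h)

lemma zmod2_add_self (a : ZMod 2) : a + a = 0 := CharTwo.add_self_eq_zero a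

namespace Cmb

variable (C : Cmb Q dim J Fam)

open scoped Classical in
/-- `ε x = sg (eps x)`: the jump of the label of the sheet across `x` from outside to inside -/
noncomputable def eps (q : Q) (x : C.I q) : ZMod 2 :=
  C.Lab (C.col q x) q + ∑ x' : C.I q with (C.col q x' = C.col q x ∧ x' ≠ x), C.side q x x'

open scoped Classical in
/-- the signs of a piece and of the piece in the bigger cell -/
lemma eps_up {p q : Q} (h : p < q) (y : C.I p) :
    C.eps q (C.up h y) = C.eps p y + C.s h (C.up h y) +
      ∑ y' : C.I p with (C.up h y' = C.up h y ∧ y' ≠ y), C.side p y y' := by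
  unfold eps
  set x := C.up h y with hx
  set j := C.col p y with hj
  have hc : C.col q x = j := C.col_up h y
  rw [hc]
  -- the sum over the other pieces of the sheet
  have e1 : ∑ x' : C.I q with (C.col q x' = j ∧ x' ≠ x), C.side q x x'
      = ∑ x' : C.I q with (C.col q x' = j ∧ x' ≠ x), C.s h x' +
        ∑ x' : C.I q with (C.col q x' = j ∧ x' ≠ x), ∑ y' : C.I p with C.up h y' = x',
          C.side p y y' := by
    rw [← Finset.sum_add_distrib]
    refine Finset.sum_congr rfl fun x' hx' => ?_
    rw [Finset.mem_filter] at hx'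
    rw [hx]
    exact C.side_up h y x' hx'.2.2 (by rw [hx'.2.1])
  have e2 : ∑ x' : C.I q with C.col q x' = j, C.s h x'
      = C.s h x + ∑ x' : C.I q with (C.col q x' = j ∧ x' ≠ x), C.s h x' := by
    have hmem : x ∈ (Finset.univ.filter fun x' : C.I q => C.col q x' = j) := by
      simp [hc]
    rw [← Finset.add_sum_erase _ _ hmem]
    congr 1
    refine Finset.sum_congr ?_ fun _ _ => rfl
    ext x'
    simp only [Finset.mem_erase, Finset.mem_filter, Finset.mem_univ, true_and]
    tauto
  have e3 : ∑ y' : C.I p with (C.col p y' = j ∧ y' ≠ y), C.side p y y'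
      = ∑ y' : C.I p with (C.up h y' = x ∧ y' ≠ y), C.side p y y' +
        ∑ x' : C.I q with (C.col q x' = j ∧ x' ≠ x), ∑ y' : C.I p with C.up h y' = x',
          C.side p y y' := by
    have f1 : (Finset.univ.filter fun y' : C.I p => C.col p y' = j ∧ y' ≠ y)
        = (Finset.univ.filter fun y' : C.I p => C.up h y' = x ∧ y' ≠ y) ∪
          (Finset.univ.filter fun y' : C.I p => C.col p y' = j ∧ C.up h y' ≠ x) := by
      ext y'
      simp only [Finset.mem_filter, Finset.mem_univ, true_and, Finset.mem_union]
      constructor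
      · rintro ⟨h1, h2⟩
        by_cases h3 : C.up h y' = x
        · exact Or.inl ⟨h3, h2⟩
        · exact Or.inr ⟨h1, h3⟩
      · rintro (⟨h1, h2⟩ | ⟨h1, h2⟩)
        · refine ⟨?_, h2⟩
          rw [← C.col_up h y', h1, hc]
        · refine ⟨h1, ?_⟩
          rintro rfl
          exact h2 rfl
    rw [f1, Finset.sum_union]
    · congr 1
      have f2 : (Finset.univ.filter fun y' : C.I p => C.col p y' = j ∧ C.up h y' ≠ x)
          = (Finset.univ.filter fun x' : C.I q => C.col q x' = j ∧ x' ≠ x).biUnion
            (fun x' => Finset.univ.filter fun y' : C.I p => C.up h y' = x') := by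
        ext y'
        simp only [Finset.mem_filter, Finset.mem_univ, true_and, Finset.mem_biUnion]
        constructor
        · rintro ⟨h1, h2⟩
          exact ⟨C.up h y', ⟨by rw [C.col_up h y', h1], h2⟩, rfl⟩
        · rintro ⟨x', ⟨h1, h2⟩, rfl⟩
          exact ⟨by rw [← C.col_up h y', h1], h2⟩
      rw [f2, Finset.sum_biUnion]
      intro x1 _ x2 _ hne
      simp only [Function.onFun]
      rw [Finset.disjoint_left]
      intro y' h1 h2
      rw [Finset.mem_filter] at h1 h2
      exact hne (h1.2.symm.trans h2.2)
    · rw [Finset.disjoint_left]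
      intro y' h1 h2
      rw [Finset.mem_filter] at h1 h2
      exact h2.2.2 h1.2.1
  rw [e1, e3, C.lab_eq h j, e2]
  set A := ∑ x' : C.I q with (C.col q x' = j ∧ x' ≠ x), C.s h x'
  set B := ∑ x' : C.I q with (C.col q x' = j ∧ x' ≠ x), ∑ y' : C.I p with C.up h y' = x',
          C.side p y y'
  set D := ∑ y' : C.I p with (C.up h y' = x ∧ y' ≠ y), C.side p y y'
  have g1 := zmod2_add_self D
  have g2 := zmod2_add_self (C.s h x)
  linear_combination (- g1 - g2)

end Cmb

end Crest.Agent.R096.Bd_416
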