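import Crest.Agent.R096.Seq1_213

/-!
# R096 / SEQ, part 2: global states, restriction to a quad, gluing, the invariant

`GSt M fam` : a state with any number of families (`fam : J → C` = family of a sheet).
`Quads`     : quads `k` with two families `pr k true`, `pr k false` and disjoint finite `Act k`.
-/

set_option autoImplicit false

namespace Crest.Agent.R096.Seq_213
open Crest.Agent.R096.St_147 Crest.Agent.R096.St_147.St

/-! ### order lemmas -/

theorem lace_swap_left {ι Φ W : Type} (M : MeshC ι Φ W) (F : Φ) (u v x y : W) :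
    M.Lace F u v x y ↔ M.Lace F v u x y := by
  unfold MeshC.Lace MeshC.Btw
  rw [or_comm (a := M.pos F u < M.pos F x ∧ M.pos F x < M.pos F v),
    or_comm (a := M.pos F u < M.pos F y ∧ M.pos F y < M.pos F v)]

theorem lace_swap_right {ι Φ W : Type} (M : MeshC ι Φ W) (F : Φ) (u v x y : W) :
    M.Lace F u v x y ↔ M.Lace F u v y x := by
  unfold MeshC.Lace
  rw [not_iff_not]
  exact Iff.comm

theorem lace_real {a b c d : ℝ} (hac : a ≠ c) (had : a ≠ d) (hbc : b ≠ c)
    (hbd : b ≠ d)
    (h : ¬ ((a < c ∧ c < b ∨ b < c ∧ c < a) ↔ (a < d ∧ d < b ∨ b < d ∧ d < a))) :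
    ¬ ((c < a ∧ a < d ∨ d < a ∧ a < c) ↔ (c < b ∧ b < d ∨ d < b ∧ b < c)) := by
  intro h'
  apply h
  clear h
  rcases lt_or_gt_of_ne hac with h1 | h1 <;> rcases lt_or_gt_of_ne had with h2 | h2 <;>
    rcases lt_or_gt_of_ne hbc with h3 | h3 <;> rcases lt_or_gt_of_ne hbd with h4 | h4 <;>
    simp_all [lt_asymm]

theorem lace_symm {ι Φ W : Type} (M : MeshC ι Φ W) (F : Φ) {u v x y : W}
    (hu : u ∈ M.On F) (hv : v ∈ M.On F) (hx : x ∈ M.On F) (hy : y ∈ M.On F)
    (h1 : u ≠ x) (h2 : u ≠ y) (h3 : v ≠ x) (h4 : v ≠ y)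
    (h : M.Lace F u v x y) : M.Lace F x y u v := by
  unfold MeshC.Lace MeshC.Btw at h ⊢
  exact lace_real (fun e => h1 (M.pos_inj F hu hx e)) (fun e => h2 (M.pos_inj F hu hy e))
    (fun e => h3 (M.pos_inj F hv hx e)) (fun e => h4 (M.pos_inj F hv hy e)) h

/-! ### facts on one state -/
section St
variable {ι Φ W I : Type} {M : MeshC ι Φ W} {col : I → Bool}

theorem lo_cases (s : St M col) (F : Φ) (w : W) : s.lo F w = w ∨ s.lo F w = s.mu F w := by
  unfold St.lo; split_ifs
  · exact Or.inl rfl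
  · exact Or.inr rfl

theorem lo_at (s : St M col) {F : Φ} {w : W} (h : s.At F w) : s.At F (s.lo F w) := by
  rcases lo_cases s F w with e | e <;> rw [e]
  · exact h
  · exact s.mu_mem h.1 h.2

theorem lo_lab (s : St M col) {F : Φ} {w : W} (h : s.At F w) : s.lab (s.lo F w) = s.lab w := by
  rcases lo_cases s F w with e | e <;> rw [e]
  exact s.mu_lab h.1 h.2

theorem lo_lt (s : St M col) {F : Φ} {w : W} (h : s.At F w) :
    M.pos F (s.lo F w) < M.pos F (s.mu F (s.lo F w)) := by
  have hne : M.pos F w ≠ M.pos F (s.mu F w) := fun e =>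
    s.mu_ne h.1 h.2 (M.pos_inj F h.2 (s.mu_mem h.1 h.2).2 e).symm
  unfold St.lo; split_ifs with h1
  · exact lt_of_le_of_ne h1 hne
  · rw [s.mu_mu h.1 h.2]; exact not_le.1 h1

theorem lace_lo_left (s : St M col) {F : Φ} {w : W} (h : s.At F w) (x y : W) :
    M.Lace F (s.lo F w) (s.mu F (s.lo F w)) x y ↔ M.Lace F w (s.mu F w) x y := by
  rcases lo_cases s F w with e | e <;> rw [e]
  rw [s.mu_mu h.1 h.2, lace_swap_left]

theorem lace_lo_right (s : St M col) {F : Φ} {x : W} (h : s.At F x) (u v : W) :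
    M.Lace F u v (s.lo F x) (s.mu F (s.lo F x)) ↔ M.Lace F u v x (s.mu F x) := by
  rcases lo_cases s F x with e | e <;> rw [e]
  rw [s.mu_mu h.1 h.2, lace_swap_right]

/-- lacing of chords of two sheets is symmetric -/
theorem lace_comm (s : St M col) {F : Φ} {w x : W} (hw : s.At F w) (hx : s.At F x)
    (hne : s.lab w ≠ s.lab x) (h : M.Lace F w (s.mu F w) x (s.mu F x)) :
    M.Lace F x (s.mu F x) w (s.mu F w) := by
  have e1 := s.mu_lab hw.1 hw.2
  have e2 := s.mu_lab hx.1 hx.2
  refine lace_symm M F hw.2 (s.mu_mem hw.1 hw.2).2 hx.2 (s.mu_mem hx.1 hx.2).2 ?_ ?_ ?_ ?_ h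
  · intro e; exact hne (by rw [e])
  · intro e; exact hne (by rw [← e2, ← e])
  · intro e; exact hne (by rw [← e1, e])
  · intro e; exact hne (by rw [← e1, ← e2, e])

/-- two crossing chords of different colours give a double point -/
theorem exists_dbl (s : St M col) {F : Φ} {w x : W} (hw : s.At F w) (hx : s.At F x)
    (hc : col (s.lab x) ≠ col (s.lab w)) (hl : M.Lace F w (s.mu F w) x (s.mu F x)) :
    ∃ z : s.Dbl, z.F = F ∧ z.e (col (s.lab w)) = s.lo F w ∧ z.e (col (s.lab x)) = s.lo F x := by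
  classical
  have hl' := lace_comm s hw hx (fun e => hc (by rw [e])) hl
  have hcx : col (s.lab x) = !(col (s.lab w)) := by
    cases h1 : col (s.lab x) <;> cases h2 : col (s.lab w) <;> simp_all
  cases hcw : col (s.lab w) with
  | true =>
    refine ⟨⟨F, fun b => if b then s.lo F w else s.lo F x, ?_, ?_, ?_, ?_⟩, rfl, ?_, ?_⟩
    · intro b; cases b
      · simpa using lo_at s hx
      · simpa using lo_at s hw
    · intro b; cases b
      · simpa using lo_lt s hx
      · simpa using lo_lt s hw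
    · intro b; cases b
      · simp only [Bool.false_eq_true, if_false]; rw [lo_lab s hx, hcx, hcw]; rfl
      · simp only [if_true]; rw [lo_lab s hw, hcw]
    · simp only [if_true, Bool.false_eq_true, if_false]
      rw [lace_lo_left s hw, lace_lo_right s hx]; exact hl
    · simp
    · simp [hcx, hcw]
  | false =>
    refine ⟨⟨F, fun b => if b then s.lo F x else s.lo F w, ?_, ?_, ?_, ?_⟩, rfl, ?_, ?_⟩
    · intro b; cases b
      · simpa using lo_at s hw
      · simpa using lo_at s hx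
    · intro b; cases b
      · simpa using lo_lt s hw
      · simpa using lo_lt s hx
    · intro b; cases b
      · simp only [Bool.false_eq_true, if_false]; rw [lo_lab s hw, hcw]
      · simp only [if_true]; rw [lo_lab s hx, hcx, hcw]; rfl
    · simp only [if_true, Bool.false_eq_true, if_false]
      rw [lace_lo_left s hx, lace_lo_right s hw]; exact hl'
    · simp
    · simp [hcx, hcw]

theorem free_iff (s : St M col) {F : Φ} {w : W} (hw : s.At F w) :
    s.Free F w ↔ ∀ x, s.At F x → col (s.lab x) ≠ col (s.lab w) →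
      ¬ M.Lace F w (s.mu F w) x (s.mu F x) := by
  classical
  constructor
  · intro hf x hx hc hl
    obtain ⟨z, h1, h2, _⟩ := exists_dbl s hw hx hc hl
    exact hf z h1 _ h2
  · intro h z hz b hb
    subst hz
    have hbw : col (s.lab w) = b := by
      rw [← lo_lab s hw, ← hb]; exact z.colr b
    have hne : s.lab (z.e true) ≠ s.lab (z.e false) := by
      intro e
      have h1 := z.colr true
      have h2 := z.colr false
      rw [e, h2] at h1
      exact absurd h1 (by simp)
    cases b with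
    | true =>
      refine h (z.e false) (z.at_ false) ?_ ?_
      · rw [z.colr false, hbw]; simp
      · have := z.lace
        rw [hb, lace_lo_left s hw] at this
        exact this
    | false =>
      refine h (z.e true) (z.at_ true) ?_ ?_
      · rw [z.colr true, hbw]; simp
      · have := lace_comm s (z.at_ true) (z.at_ false) hne z.lace
        rw [hb, lace_lo_left s hw] at this
        exact this

end St

/-! ### global states -/

variable {ι Φ W J C K : Type}

/-- A global state: any number of families of sheets. -/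
structure GSt (M : MeshC ι Φ W) (fam : J → C) where
  P : Set W
  lab : W → J
  mu : Φ → W → W
  mu_mem : ∀ {F : Φ} {w : W}, w ∈ P → w ∈ M.On F → mu F w ∈ P ∧ mu F w ∈ M.On F
  mu_ne : ∀ {F : Φ} {w : W}, w ∈ P → w ∈ M.On F → mu F w ≠ w
  mu_mu : ∀ {F : Φ} {w : W}, w ∈ P → w ∈ M.On F → mu F (mu F w) = w
  mu_lab : ∀ {F : Φ} {w : W}, w ∈ P → w ∈ M.On F → lab (mu F w) = lab w
  nc : ∀ {F : Φ} {w x : W}, w ∈ P → w ∈ M.On F → x ∈ P → x ∈ M.On F →
    fam (lab w) = fam (lab x) → x ≠ w → x ≠ mu F w → ¬ M.Lace F w (mu F w) x (mu F x)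
  fin : ∀ c, {w | w ∈ P ∧ fam (lab w) = c}.Finite

/-- The quads. -/
structure Quads (ι C K : Type) where
  pr : K → Bool → C
  ne : ∀ k, pr k true ≠ pr k false
  Act : K → Set ι
  fin : ∀ k, (Act k).Finite
  disj : ∀ k l, k ≠ l → Disjoint (Act k) (Act l)
  finK : ∀ c, {k | ∃ b, pr k b = c}.Finite

namespace Quads

/-- `c` is one of the two families of the quad `k` -/
def In (Q : Quads ι C K) (k : K) (c : C) : Prop := ∃ b, Q.pr k b = c

/-- the sheets of the two families of the quad `k` -/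
def Nm (Q : Quads ι C K) (fam : J → C) (k : K) : Type := {j : J // Q.In k (fam j)}

open Classical in
/-- colour of a sheet for the quad `k` -/
noncomputable def cl (Q : Quads ι C K) (fam : J → C) (k : K) : Q.Nm fam k → Bool :=
  fun j => decide (fam j.1 = Q.pr k true)

theorem cl_iff (Q : Quads ι C K) (fam : J → C) (k : K) (j : Q.Nm fam k) (b : Bool) :
    Q.cl fam k j = b ↔ fam j.1 = Q.pr k b := by
  classical
  obtain ⟨b', hb'⟩ := j.2
  unfold cl
  cases b with
  | true => simp
  | false =>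
    rw [decide_eq_false_iff_not]
    cases b' with
    | true =>
      constructor
      · intro h; exact absurd hb'.symm h
      · intro h h'; exact Q.ne k (h'.symm.trans h)
    | false =>
      constructor
      · intro _; exact hb'.symm
      · intro h h'; exact Q.ne k (h'.symm.trans h)

theorem cl_eq_iff (Q : Quads ι C K) (fam : J → C) (k : K) (j j' : Q.Nm fam k) :
    Q.cl fam k j = Q.cl fam k j' ↔ fam j.1 = fam j'.1 := by
  constructor
  · intro h
    have h1 := (Q.cl_iff fam k j _).1 rfl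
    have h2 := (Q.cl_iff fam k j' _).1 rfl
    rw [h1, h2, h]
  · intro h
    rw [Q.cl_iff, h]
    exact (Q.cl_iff fam k j' _).1 rfl

end Quads

/-- all sides of the face `F` lie in `A` -/
def Inner (M : MeshC ι Φ W) (A : Set ι) (F : Φ) : Prop := ∀ q ∈ M.side F, q ∈ A

/-- the point `w` lies in the interior of the cells `A` -/
def Int (M : MeshC ι Φ W) (A : Set ι) (w : W) : Prop :=
  (∃ F, w ∈ M.On F) ∧ ∀ F, w ∈ M.On F → Inner M A F

theorem not_inner {M : MeshC ι Φ W} {A : Set ι} {F : Φ} : ¬ Inner M A F ↔ Frozen M A F := by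
  unfold Inner Frozen; simp only [not_forall, exists_prop]

theorem not_frozen {M : MeshC ι Φ W} {A : Set ι} {F : Φ} : ¬ Frozen M A F ↔ Inner M A F := by
  rw [← not_inner, not_not]

theorem side_ex (M : MeshC ι Φ W) (F : Φ) : ∃ q, q ∈ M.side F := by
  induction hh : M.side F using Sym2.ind with
  | _ a b => exact ⟨a, by simp⟩

theorem Quads.frozen_of_inner (Q : Quads ι C K) {M : MeshC ι Φ W} {k l : K} (hkl : k ≠ l)
    {F : Φ} (h : Inner M (Q.Act k) F) : Frozen M (Q.Act l) F := by
  obtain ⟨q, hq⟩ := side_ex M F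
  exact ⟨q, hq, fun h' => Set.disjoint_left.1 (Q.disj k l hkl) (h q hq) h'⟩

theorem Quads.frozen_of_tch (Q : Quads ι C K) {M : MeshC ι Φ W} {k l : K} (hkl : k ≠ l)
    {F : Φ} (h : Tch M (Q.Act k) F) : Frozen M (Q.Act l) F := by
  obtain ⟨q, hq, hq'⟩ := h
  exact ⟨q, hq, fun h' => Set.disjoint_left.1 (Q.disj k l hkl) hq' h'⟩

variable {M : MeshC ι Φ W} {fam : J → C}

namespace GSt

def At (s : GSt M fam) (F : Φ) (w : W) : Prop := w ∈ s.P ∧ w ∈ M.On F

/-- `H¹ = 0` of the sheet `i`, as in `St.H1` -/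
def H1 (s : GSt M fam) (i : J) : Prop :=
  ∀ κ : Φ → W → ZMod 2,
    (∀ q : ι, ∃ ψ : W → ZMod 2, ∀ F w, q ∈ M.side F → s.At F w → s.lab w = i →
      κ F w = ψ w + ψ (s.mu F w)) →
    ∃ Ψ : W → ZMod 2, ∀ F w, s.At F w → s.lab w = i → κ F w = Ψ w + Ψ (s.mu F w)

/-- the sheet `i` is connected and not empty, as in `St.Conn` -/
def Conn (s : GSt M fam) (i : J) : Prop :=
  (∃ w ∈ s.P, s.lab w = i) ∧
  ∀ X : Set W, (∀ F w, w ∈ X → s.At F w → s.lab w = i → s.mu F w ∈ X) →
    ∀ w ∈ X, w ∈ s.P → s.lab w = i → ∀ w' ∈ s.P, s.lab w' = i → w' ∈ X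

/-- the chord `(F,w)` does not cross the other family of the quad `k` -/
def Free (s : GSt M fam) (Q : Quads ι C K) (k : K) (F : Φ) (w : W) : Prop :=
  ∀ x, s.At F x → Q.In k (fam (s.lab x)) → fam (s.lab x) ≠ fam (s.lab w) →
    ¬ M.Lace F w (s.mu F w) x (s.mu F x)

/-- the chord `(F,w)` is free in its own quad (if its face is inner to a quad) -/
def OK (s : GSt M fam) (Q : Quads ι C K) (F : Φ) (w : W) : Prop :=
  ∀ k, Q.In k (fam (s.lab w)) → Inner M (Q.Act k) F → s.Free Q k F w

theorem finP (s : GSt M fam) (Q : Quads ι C K) (k : K) :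
    {w | w ∈ s.P ∧ Q.In k (fam (s.lab w))}.Finite := by
  refine ((s.fin (Q.pr k true)).union (s.fin (Q.pr k false))).subset ?_
  rintro w ⟨hw, b, hb⟩
  cases b
  · right; exact ⟨hw, hb.symm⟩
  · left; exact ⟨hw, hb.symm⟩

open Classical in
/-- restriction of a global state to the two families of a quad -/
noncomputable def res (s : GSt M fam) (Q : Quads ι C K) (k : K) (i0 : Q.Nm fam k) :
    St M (Q.cl fam k) where
  P := (s.finP Q k).toFinset
  lab := fun w => if h : Q.In k (fam (s.lab w)) then ⟨s.lab w, h⟩ else i0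
  mu := s.mu
  mu_mem := by
    intro F w hw hF
    rw [Set.Finite.mem_toFinset] at hw ⊢
    obtain ⟨h1, h2⟩ := s.mu_mem hw.1 hF
    exact ⟨⟨h1, by rw [s.mu_lab hw.1 hF]; exact hw.2⟩, h2⟩
  mu_ne := by
    intro F w hw hF
    rw [Set.Finite.mem_toFinset] at hw
    exact s.mu_ne hw.1 hF
  mu_mu := by
    intro F w hw hF
    rw [Set.Finite.mem_toFinset] at hw
    exact s.mu_mu hw.1 hF
  mu_lab := by
    intro F w hw hF
    rw [Set.Finite.mem_toFinset] at hw
    simp only [s.mu_lab hw.1 hF]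
  nc := by
    intro F w x hw hF hx hF' hc hne hne'
    rw [Set.Finite.mem_toFinset] at hw hx
    rw [dif_pos hw.2, dif_pos hx.2, Q.cl_eq_iff] at hc
    exact s.nc hw.1 hF hx.1 hF' hc hne hne'

theorem mem_res {s : GSt M fam} {Q : Quads ι C K} {k : K} {i0 : Q.Nm fam k} {w : W} :
    w ∈ (s.res Q k i0).P ↔ w ∈ s.P ∧ Q.In k (fam (s.lab w)) := by
  simp only [res, Set.Finite.mem_toFinset]; exact Iff.rfl

theorem res_mu {s : GSt M fam} {Q : Quads ι C K} {k : K} {i0 : Q.Nm fam k} (F : Φ) (w : W) :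
    (s.res Q k i0).mu F w = s.mu F w := rfl

theorem res_lab {s : GSt M fam} {Q : Quads ι C K} {k : K} {i0 : Q.Nm fam k} {w : W}
    (h : Q.In k (fam (s.lab w))) : (s.res Q k i0).lab w = ⟨s.lab w, h⟩ := by
  simp only [res, dif_pos h]

theorem res_lab_iff {s : GSt M fam} {Q : Quads ι C K} {k : K} {i0 i : Q.Nm fam k} {w : W}
    (h : Q.In k (fam (s.lab w))) : (s.res Q k i0).lab w = i ↔ s.lab w = i.1 := by
  rw [res_lab h]
  constructor
  · intro e; rw [← e]
  · intro e; exact Subtype.ext e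

theorem res_at {s : GSt M fam} {Q : Quads ι C K} {k : K} {i0 : Q.Nm fam k} {F : Φ} {w : W} :
    (s.res Q k i0).At F w ↔ s.At F w ∧ Q.In k (fam (s.lab w)) := by
  unfold St.At At
  rw [mem_res]; tauto

theorem res_H1 {s : GSt M fam} {Q : Quads ι C K} {k : K} {i0 : Q.Nm fam k} (i : Q.Nm fam k)
    (h : s.H1 i.1) : (s.res Q k i0).H1 i := by
  intro κ hκ
  obtain ⟨Ψ, hΨ⟩ := h κ (fun q => by
    obtain ⟨ψ, hψ⟩ := hκ q
    refine ⟨ψ, fun F w hq hw hl => ?_⟩
    have hin : Q.In k (fam (s.lab w)) := by rw [hl]; exact i.2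
    exact hψ F w hq (res_at.2 ⟨hw, hin⟩) ((res_lab_iff hin).2 hl))
  refine ⟨Ψ, fun F w hw hl => ?_⟩
  obtain ⟨h1, h2⟩ := res_at.1 hw
  exact hΨ F w h1 ((res_lab_iff h2).1 hl)

theorem res_Conn {s : GSt M fam} {Q : Quads ι C K} {k : K} {i0 : Q.Nm fam k} (i : Q.Nm fam k)
    (h : s.Conn i.1) : (s.res Q k i0).Conn i := by
  obtain ⟨⟨w, hw, hl⟩, h2⟩ := h
  refine ⟨⟨w, mem_res.2 ⟨hw, by rw [hl]; exact i.2⟩, (res_lab_iff (by rw [hl]; exact i.2)).2 hl⟩, ?_⟩
  intro X hX a ha haP hal b hbP hbl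
  have ha1 := mem_res.1 haP
  have hb1 := mem_res.1 hbP
  refine h2 X ?_ a ha ha1.1 ((res_lab_iff ha1.2).1 hal) b hb1.1 ((res_lab_iff hb1.2).1 hbl)
  intro F u hu hat hul
  have hin : Q.In k (fam (s.lab u)) := by rw [hul]; exact i.2
  exact hX F u hu (res_at.2 ⟨hat, hin⟩) ((res_lab_iff hin).2 hul)

theorem res_free {s : GSt M fam} {Q : Quads ι C K} {k : K} {i0 : Q.Nm fam k} {F : Φ} {w : W}
    (hw : s.At F w) (hin : Q.In k (fam (s.lab w))) :
    (s.res Q k i0).Free F w ↔ s.Free Q k F w := by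
  rw [free_iff _ (res_at.2 ⟨hw, hin⟩)]
  constructor
  · intro h x hx hxin hne
    refine h x (res_at.2 ⟨hx, hxin⟩) ?_
    rw [res_lab hin, res_lab hxin, Ne, Q.cl_eq_iff]
    exact hne
  · intro h x hx hne
    obtain ⟨hx1, hx2⟩ := res_at.1 hx
    rw [res_lab hin, res_lab hx2, Ne, Q.cl_eq_iff] at hne
    exact h x hx1 hx2 hne

open Classical in
/-- replace the two families of the quad `k` -/
noncomputable def glue (s : GSt M fam) (Q : Quads ι C K) (k : K) (i0 : Q.Nm fam k)
    (t : St M (Q.cl fam k)) (ht : t.P ⊆ (s.res Q k i0).P) : GSt M fam where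
  P := {w | (w ∈ s.P ∧ ¬ Q.In k (fam (s.lab w))) ∨ w ∈ t.P}
  lab := fun w => if w ∈ t.P then (t.lab w).1 else s.lab w
  mu := fun F w => if w ∈ t.P then t.mu F w else s.mu F w
  mu_mem := by
    intro F w hw hF
    by_cases h : w ∈ t.P
    · simp only [if_pos h]
      exact ⟨Or.inr (t.mu_mem h hF).1, (t.mu_mem h hF).2⟩
    · simp only [if_neg h]
      have h1 : w ∈ s.P ∧ ¬ Q.In k (fam (s.lab w)) := hw.resolve_right h
      refine ⟨Or.inl ⟨(s.mu_mem h1.1 hF).1, ?_⟩, (s.mu_mem h1.1 hF).2⟩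
      rw [s.mu_lab h1.1 hF]; exact h1.2
  mu_ne := by
    intro F w hw hF
    by_cases h : w ∈ t.P
    · simp only [if_pos h]
      exact t.mu_ne h hF
    · simp only [if_neg h]
      exact s.mu_ne (hw.resolve_right h).1 hF
  mu_mu := by
    intro F w hw hF
    by_cases h : w ∈ t.P
    · simp only [if_pos h, if_pos (t.mu_mem h hF).1]
      exact t.mu_mu h hF
    · have h1 : w ∈ s.P ∧ ¬ Q.In k (fam (s.lab w)) := hw.resolve_right h
      have h2 : s.mu F w ∉ t.P := by
        intro h3
        have := (mem_res.1 (ht h3)).2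
        rw [s.mu_lab h1.1 hF] at this
        exact h1.2 this
      simp only [if_neg h, if_neg h2]
      exact s.mu_mu h1.1 hF
  mu_lab := by
    intro F w hw hF
    by_cases h : w ∈ t.P
    · simp only [if_pos h, if_pos (t.mu_mem h hF).1]
      rw [t.mu_lab h hF]
    · have h1 : w ∈ s.P ∧ ¬ Q.In k (fam (s.lab w)) := hw.resolve_right h
      have h2 : s.mu F w ∉ t.P := by
        intro h3
        have := (mem_res.1 (ht h3)).2
        rw [s.mu_lab h1.1 hF] at this
        exact h1.2 this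
      simp only [if_neg h, if_neg h2]
      exact s.mu_lab h1.1 hF
  nc := by
    intro F w x hw hF hx hF' hc hne hne'
    by_cases h : w ∈ t.P <;> by_cases h' : x ∈ t.P
    · simp only [if_pos h, if_pos h'] at hc hne' ⊢
      exact t.nc h hF h' hF' ((Q.cl_eq_iff fam k _ _).2 hc) hne hne'
    · simp only [if_pos h, if_neg h'] at hc
      exact absurd (hc ▸ (t.lab w).2) (hx.resolve_right h').2
    · simp only [if_neg h, if_pos h'] at hc
      exact absurd (hc ▸ (t.lab x).2) (hw.resolve_right h).2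
    · simp only [if_neg h, if_neg h'] at hc hne' ⊢
      exact s.nc (hw.resolve_right h).1 hF (hx.resolve_right h').1 hF' hc hne hne'
  fin := by
    intro c
    refine ((s.fin c).union t.P.finite_toSet).subset ?_
    rintro w ⟨hw, hc⟩
    by_cases h : w ∈ t.P
    · right; exact h
    · left
      simp only [if_neg h] at hc
      exact ⟨(hw.resolve_right h).1, hc⟩

section glue
variable {s : GSt M fam} {Q : Quads ι C K} {k : K} {i0 : Q.Nm fam k}
  {t : St M (Q.cl fam k)} {ht : t.P ⊆ (s.res Q k i0).P}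

theorem mem_glue {w : W} : w ∈ (s.glue Q k i0 t ht).P ↔
    (w ∈ s.P ∧ ¬ Q.In k (fam (s.lab w))) ∨ w ∈ t.P := Iff.rfl

theorem glue_lab_pos {w : W} (h : w ∈ t.P) : (s.glue Q k i0 t ht).lab w = (t.lab w).1 := by
  simp only [glue, if_pos h]

theorem glue_lab_neg {w : W} (h : w ∉ t.P) : (s.glue Q k i0 t ht).lab w = s.lab w := by
  simp only [glue, if_neg h]

theorem glue_mu_pos {F : Φ} {w : W} (h : w ∈ t.P) :
    (s.glue Q k i0 t ht).mu F w = t.mu F w := by
  simp only [glue, if_pos h]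

theorem glue_mu_neg {F : Φ} {w : W} (h : w ∉ t.P) :
    (s.glue Q k i0 t ht).mu F w = s.mu F w := by
  simp only [glue, if_neg h]

theorem glue_sub : (s.glue Q k i0 t ht).P ⊆ s.P := by
  intro w hw
  rcases mem_glue.1 hw with h | h
  · exact h.1
  · exact (mem_res.1 (ht h)).1

/-- in the glued state, points with names of the quad are the points of `t` -/
theorem glue_in {w : W} (hw : w ∈ (s.glue Q k i0 t ht).P) :
    Q.In k (fam ((s.glue Q k i0 t ht).lab w)) ↔ w ∈ t.P := by
  constructor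
  · intro h
    by_contra h'
    rw [glue_lab_neg h'] at h
    exact ((mem_glue.1 hw).resolve_right h').2 h
  · intro h
    rw [glue_lab_pos h]
    exact (t.lab w).2

/-- the restriction of the glued state is `t` -/
theorem glue_agr (i1 : Q.Nm fam k) (A : Set ι) : Agr t ((s.glue Q k i0 t ht).res Q k i1) A := by
  intro F _ w
  constructor
  · rw [res_at]
    constructor
    · intro h
      have hg : w ∈ (s.glue Q k i0 t ht).P := mem_glue.2 (Or.inr h.1)
      exact ⟨⟨hg, h.2⟩, (glue_in hg).2 h.1⟩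
    · rintro ⟨⟨h1, h2⟩, h3⟩
      exact ⟨(glue_in h1).1 h3, h2⟩
  · intro h
    have hg : w ∈ (s.glue Q k i0 t ht).P := mem_glue.2 (Or.inr h.1)
    refine ⟨by rw [res_mu, glue_mu_pos h.1], ?_⟩
    have h2 := (glue_in hg).2 h.1
    symm
    rw [res_lab_iff h2, glue_lab_pos h.1]

end glue

/-- Invariant of the sequence of exchanges. `far j` = marked points of the sheet `j`. -/
structure Inv (s : GSt M fam) (Q : Quads ι C K) (far : J → Set W) : Prop where
  h1 : ∀ j, s.H1 j
  conn : ∀ j, s.Conn j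
  far_mem : ∀ {j w}, w ∈ far j → w ∈ s.P ∧ s.lab w = j
  far_ne : ∀ j, (far j).Nonempty
  /-- over a quad only the two families of the quad are present -/
  only : ∀ {k F w}, s.At F w → Inner M (Q.Act k) F → Q.In k (fam (s.lab w))
  /-- unmarked points lie inside the quads -/
  loc : ∀ {w}, w ∈ s.P → w ∈ far (s.lab w) ∨
    ∃ k, Q.In k (fam (s.lab w)) ∧ Int M (Q.Act k) w
  /-- the marked points are connected by chords which are free in their own quad -/
  gc : ∀ (j : J) (X : Set W),
    (∀ F w, w ∈ X → w ∈ far j → s.At F w → s.mu F w ∈ far j → s.OK Q F w → s.mu F w ∈ X) →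
    ∀ w ∈ X, w ∈ far j → far j ⊆ X

end GSt

end Crest.Agent.R096.Seq_213
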