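import Crest.Agent.R096.Lab5_184
import Crest.Agent.R096.Agl5_543
import Crest.Agent.R096.Seq2_213

/-! Row 96, P1-LAB (helper184), part 6: the sheets of a state over the mesh of a tiling are even
patterns, hence they have labels. -/

set_option autoImplicit false

open Set Topology Filter Metric Module

namespace Crest.Agent.R096.Lab_184

open Crest.Agent.R096.Msh_715 Crest.Agent.R096.Coh_184 Crest.Agent.R096.St_147
  Crest.Agent.R096.Seq_213 Crest.Agent.R096.Agl5_543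

variable {E : Type} [NormedAddCommGroup E] [NormedSpace ℝ E] [FiniteDimensional ℝ E]
variable {Om : Set E} {ι : Type} {T : Tiling Om ι}

omit [FiniteDimensional ℝ E] in
/-- a finite set of points of the 1-cells which are paired on every 2-cell is an even pattern -/
theorem even_of_pairing {Q : Finset E} (hQ : ∀ w ∈ Q, w ∈ Om ∧ T.dim w = 1)
    {mu : C2 T → E → E}
    (hmem : ∀ F : C2 T, ∀ w ∈ Q, w ∈ F.On → mu F w ∈ Q ∧ mu F w ∈ F.On)
    (hne : ∀ F : C2 T, ∀ w ∈ Q, w ∈ F.On → mu F w ≠ w)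
    (hmm : ∀ F : C2 T, ∀ w ∈ Q, w ∈ F.On → mu F (mu F w) = w) : Main_4.EvenPat T Q := by
  classical
  refine ⟨hQ, fun x hx hd => ?_⟩
  have hon : ∀ w ∈ Q.filter (fun w => w ∈ T.cc x), w ∈ Q ∧ w ∈ (mk2 T hx hd).On := by
    intro w hw
    obtain ⟨h1, h2⟩ := Finset.mem_filter.1 hw
    exact ⟨h1, h2, (hQ w h1).2⟩
  have h1 : ∑ _p ∈ Q.filter (fun w => w ∈ T.cc x), (1 : ZMod 2) = 0 := by
    refine Finset.sum_involution (fun p _ => mu (mk2 T hx hd) p) (fun p hp => by decide)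
      (fun p hp _ => ?_) (fun p hp => ?_) (fun p hp => ?_)
    · exact hne _ p (hon p hp).1 (hon p hp).2
    · obtain ⟨h2, h3⟩ := hmem _ p (hon p hp).1 (hon p hp).2
      exact Finset.mem_filter.2 ⟨h2, h3.1⟩
    · exact hmm _ p (hon p hp).1 (hon p hp).2
  rw [Finset.sum_const, nsmul_eq_mul, mul_one] at h1
  have h2 := (ZMod.natCast_eq_zero_iff_even).1 h1
  convert h2

section st

variable {h3 : finrank ℝ E = 3} {I : Type} {col : I → Bool}

open Classical in
/-- the points of the sheet `i` of a pair state -/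
noncomputable def stPts (s : St (meshC T h3) col) (i : I) : Finset E :=
  s.P.filter (fun w => s.lab w = i)


theorem mem_stPts {s : St (meshC T h3) col} {i : I} {w : E} :
    w ∈ stPts s i ↔ w ∈ s.P ∧ s.lab w = i := by
  classical
  unfold stPts; rw [Finset.mem_filter]

/-- **the sheets of a state are even patterns** -/
theorem st_even (s : St (meshC T h3) col) (i : I)
    (hon : ∀ w ∈ s.P, s.lab w = i → w ∈ Om ∧ T.dim w = 1) :
    Main_4.EvenPat T (stPts s i) := by
  refine even_of_pairing (mu := s.mu) (fun w hw => ?_) (fun F w hw hF => ?_) (fun F w hw hF => ?_)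
    (fun F w hw hF => ?_)
  · exact hon w (mem_stPts.1 hw).1 (mem_stPts.1 hw).2
  · obtain ⟨h1, h2⟩ := mem_stPts.1 hw
    obtain ⟨h4, h5⟩ := s.mu_mem (F := F) h1 hF
    exact ⟨mem_stPts.2 ⟨h4, (s.mu_lab (F := F) h1 hF).trans h2⟩, h5⟩
  · exact s.mu_ne (F := F) (mem_stPts.1 hw).1 hF
  · exact s.mu_mu (F := F) (mem_stPts.1 hw).1 hF

end st

section gst

variable {h3 : finrank ℝ E = 3} {J C : Type} {fam : J → C}

theorem finite_gst (s : GSt (meshC T h3) fam) (j : J) : {w | w ∈ s.P ∧ s.lab w = j}.Finite :=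
  (s.fin (fam j)).subset fun w hw => ⟨hw.1, by rw [hw.2]⟩

/-- the points of the sheet `j` of a global state -/
noncomputable def gPts (s : GSt (meshC T h3) fam) (j : J) : Finset E := (finite_gst s j).toFinset

theorem mem_gPts {s : GSt (meshC T h3) fam} {j : J} {w : E} :
    w ∈ gPts s j ↔ w ∈ s.P ∧ s.lab w = j := by
  unfold gPts; rw [Set.Finite.mem_toFinset]; rfl

/-- **the sheets of a global state are even patterns** -/
theorem gst_even (s : GSt (meshC T h3) fam) (j : J)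
    (hon : ∀ w ∈ s.P, s.lab w = j → w ∈ Om ∧ T.dim w = 1) :
    Main_4.EvenPat T (gPts s j) := by
  refine even_of_pairing (mu := s.mu) (fun w hw => ?_) (fun F w hw hF => ?_) (fun F w hw hF => ?_)
    (fun F w hw hF => ?_)
  · exact hon w (mem_gPts.1 hw).1 (mem_gPts.1 hw).2
  · obtain ⟨h1, h2⟩ := mem_gPts.1 hw
    obtain ⟨h4, h5⟩ := s.mu_mem (F := F) h1 hF
    exact ⟨mem_gPts.2 ⟨h4, (s.mu_lab (F := F) h1 hF).trans h2⟩, h5⟩
  · exact s.mu_ne (F := F) (mem_gPts.1 hw).1 hF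
  · exact s.mu_mu (F := F) (mem_gPts.1 hw).1 hF

end gst

section homeo

open Crest.AnalysisR.VecCalc3 Crest.AnalysisR.Sobolev

variable {f : R3 → R3} {Om La : Set R3} {ι : Type} {T : Tiling Om ι}
variable {h3 : finrank ℝ R3 = 3} {J C : Type} {fam : J → C}

/-- **LABELS OF THE SHEETS OF A GLOBAL STATE**: sheet `j` in tiles inside `f⁻¹ (int D)` -/
theorem gst_label (hLa : IsOpen La) (hf : IsHomeomorphOn f Om La) {D : Set R3}
    (hD : IsCompact D) (hDc : Convex ℝ D) (hDn : (interior D).Nonempty) (hDL : D ⊆ La)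
    (s : GSt (meshC T h3) fam) (j : J)
    (hon : ∀ w ∈ s.P, s.lab w = j → w ∈ Om ∧ T.dim w = 1)
    (hsupp : ∀ w ∈ s.P, s.lab w = j → ∀ q, w ∈ P (T.H q) → P (T.H q) ⊆ f ⁻¹' interior D) :
    ∃ lam : R3 → ZMod 2, Main_4.IsLab T (gPts s j) lam ∧
      (∀ v, ¬ (v ∈ Om ∧ f v ∈ D) → lam v = 0) ∧
      (∀ q, ¬ P (T.H q) ⊆ f ⁻¹' interior D → ∀ v ∈ P (T.H q), lam v = 0) :=
  isLab_homeo hLa hf hD hDc hDn hDL (gst_even s j hon)
    (fun w hw q hq => hsupp w (mem_gPts.1 hw).1 (mem_gPts.1 hw).2 q hq)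

end homeo

end Crest.Agent.R096.Lab_184
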