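import Crest.Agent.R096.Cm2_117
import Crest.Agent.R096.Lab6_184
import Crest.Agent.R096.Bd8_416

/-!
# R096 (row 96), CMB, part 3: the discrete input `Bd_416.Cmb` of P4-MESH from a global state
(helper117)
-/

set_option autoImplicit false
set_option linter.unusedSectionVars false

open Set Topology Filter Metric Module

namespace Crest.Agent.R096.Cm_117

open Crest.Agent.R096.Msh_715 Crest.Agent.R096.Lab_184 Crest.Agent.R096.Agl5_543
  Crest.Agent.R096.Pat5_543 Crest.Agent.R096.Coh_184 Crest.Agent.R096.Seq_213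
  Crest.Agent.R096.Bd_416 Crest.Agent.R096.St_147

variable {E : Type} [NormedAddCommGroup E] [NormedSpace ℝ E]
variable {Om : Set E} {ι : Type} {T : Tiling Om ι}
variable [FiniteDimensional ℝ E] {h3 : finrank ℝ E = 3} {J C : Type} {fam : J → C}
variable {s : GSt (meshC T h3) fam}

/-- the normalised label function of a piece -/
noncomputable def nl (h : LF s) (c : T.Cell) (x : Pc s c) : E → ZMod 2 :=
  (exists_nlab h3 c (pts_dim (h := h) (x := x)) (fun _ hF => even_pts hF)).choose

lemma nl_xl (h : LF s) (c : T.Cell) (x : Pc s c) : XL T (pts h c x) (nl h c x) c.set :=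
  (exists_nlab h3 c (pts_dim (h := h) (x := x)) (fun _ hF => even_pts hF)).choose_spec.1

lemma nl_bv (h : LF s) (c : T.Cell) (x : Pc s c) : nl h c x (bv c) = 0 :=
  (exists_nlab h3 c (pts_dim (h := h) (x := x)) (fun _ hF => even_pts hF)).choose_spec.2

lemma not_pts_of_dim {h : LF s} {c : T.Cell} {x : Pc s c} {v : E} (hv : T.dim v = 0) :
    v ∉ pts h c x := fun h' => by
  have := pts_dim v h'
  omega

open Classical in
/-- a family of pieces of `c` as a set of points -/
lemma nQ_pieces {h : LF s} {c : T.Cell} {Q : Finset E} (Y : Finset (Pc s c))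
    (hQ : ∀ w ∈ c.set, (w ∈ Q ↔ ∃ y ∈ Y, w ∈ pts h c y)) {X : Set E} (hX : X ⊆ c.set) :
    nQ Q X = ∑ y ∈ Y, nQ (pts h c y) X := by
  unfold nQ
  have e1 : ∑ w ∈ Q, (if w ∈ X then (1 : ZMod 2) else 0) =
      ∑ w ∈ Q.filter (· ∈ c.set), (if w ∈ X then (1 : ZMod 2) else 0) := by
    rw [Finset.sum_filter]
    apply Finset.sum_congr rfl
    intro w _
    by_cases hw : w ∈ c.set
    · rw [if_pos hw]
    · rw [if_neg hw, if_neg (fun h' => hw (hX h'))]
  have e2 : Q.filter (· ∈ c.set) = Y.biUnion (fun y => pts h c y) := by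
    ext w
    rw [Finset.mem_filter, Finset.mem_biUnion]
    constructor
    · rintro ⟨h1, h2⟩
      exact (hQ w h2).1 h1
    · rintro ⟨y, hy, hw⟩
      obtain ⟨h', -⟩ := mem_pts.1 hw
      exact ⟨(hQ w h'.2.1).2 ⟨y, hy, hw⟩, h'.2.1⟩
  rw [e1, e2, Finset.sum_biUnion]
  intro y _ y' _ hne
  simp only [Function.onFun]
  rw [Finset.disjoint_left]
  intro w h1 h2
  exact hne (pts_disj h1 h2)

/-- the sum of the labels of a family of pieces of `c` is a label -/
lemma xl_sum {h : LF s} {c : T.Cell} {Q : Finset E} (Y : Finset (Pc s c))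
    (hQ : ∀ w ∈ c.set, (w ∈ Q ↔ ∃ y ∈ Y, w ∈ pts h c y)) :
    XL T Q (fun v => ∑ y ∈ Y, nl h c y v) c.set := by
  intro e he h1 a ha b hb haQ hbQ
  have hac := cell_cc c e he ha
  have hbc := cell_cc c e he hb
  have hX : segment ℝ a b ⊆ c.set :=
    ((T.convex_cc e).segment_subset ha hb).trans (cell_cc c e he)
  show ∑ y ∈ Y, nl h c y a + ∑ y ∈ Y, nl h c y b = _
  rw [nQ_pieces Y hQ hX, ← Finset.sum_add_distrib]
  apply Finset.sum_congr rfl
  intro y hy
  exact nl_xl h c y e he h1 a ha b hb (fun h' => haQ ((hQ a hac).2 ⟨y, hy, h'⟩))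
    (fun h' => hbQ ((hQ b hbc).2 ⟨y, hy, h'⟩))

open Classical in
/-- **the cocycle rule** at all points of the 1-skeleton -/
lemma nl_coc {h : LF s} {c d : T.Cell} (hcd : c ≤ d) (x : Pc s d) [Fintype (Pc s c)] {v : E}
    (hv : v ∈ c.set) (hv1 : T.dim v ≤ 1) (hvQ : v ∉ pts h d x) :
    nl h d x v = nl h d x (bv c) + ∑ y : Pc s c with pup s hcd y = x, nl h c y v := by
  have h1 := (nl_xl h d x).mono (Tiling.Cell.le_def.1 hcd)
  have h2 := xl_sum (h := h) (c := c) (Q := pts h d x)
    (Finset.univ.filter (fun y : Pc s c => pup s hcd y = x)) (fun w hw => by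
      rw [mem_pts_pup hcd hw]
      constructor
      · rintro ⟨y, h4, h5⟩
        exact ⟨y, Finset.mem_filter.2 ⟨Finset.mem_univ _, h4⟩, h5⟩
      · rintro ⟨y, h4, h5⟩
        exact ⟨y, (Finset.mem_filter.1 h4).2, h5⟩)
  have h4 := h1.unique h2 pts_dim (cell_conn c) (cell_sub c) (cell_cc c) hv (bv_mem c) hv1
    (by rw [bv_dim]; omega) hvQ (not_pts_of_dim (bv_dim c))
  have h5 : ∑ y : Pc s c with pup s hcd y = x, nl h c y (bv c) = 0 :=
    Finset.sum_eq_zero fun y _ => nl_bv h c y
  rw [h5, add_zero] at h4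
  have e4 : ∀ a b c : ZMod 2, a + b = c → a = c + b := by decide
  exact e4 _ _ _ h4

/-! ### sides -/

/-- non crossing: both ends of a chord are on the same side of another piece of the family -/
lemma nl_mu {h : LF s} {c : T.Cell} {x : Pc s c} {F : C2 T} (hF : F.set ⊆ c.set) {w : E}
    (hw : w ∈ s.P) (hwF : w ∈ F.set) (hw1 : T.dim w = 1) (hwx : w ∉ pts h c x)
    (hfam : fam (s.lab w) = fam (pcol s c x)) : nl h c x (s.mu F w) = nl h c x w := by
  classical
  have hmu := s.mu_mem hw (mem_On hwF hw1)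
  have hmF : s.mu F w ∈ F.set := hmu.2.1
  have hm1 : T.dim (s.mu F w) = 1 := hmu.2.2
  have hmx : s.mu F w ∉ pts h c x := fun h' => hwx (by
    have h1 := mu_pts h' hF hmF
    rwa [s.mu_mu hw (mem_On hwF hw1)] at h1)
  have hFcc : ∀ z ∈ F.set, T.cc z ⊆ F.set := cell_cc F.1
  have h1 := ((nl_xl h c x).mono hF).unique (xl_lamF F pts_dim (even_pts hF)) pts_dim
    (cell_conn F.1) (cell_sub F.1) hFcc hmF hwF hm1.le hw1.le hmx hwx
  -- the two counts agree
  have h2 : lamF F (pts h c x) (s.mu F w) + lamF F (pts h c x) w = 0 := by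
    unfold lamF
    rw [← Finset.sum_add_distrib]
    have hin : ∀ v ∈ pts h c x, ((if v ∈ F.set ∧ F.pos v < F.pos (s.mu F w) then (1 : ZMod 2) else 0)
        + if v ∈ F.set ∧ F.pos v < F.pos w then 1 else 0) =
        if v ∈ F.set ∧ (meshC T h3).Btw F w (s.mu F w) v then 1 else 0 := by
      intro v hv
      by_cases hvF : v ∈ F.set
      · have hv1 := pts_dim v hv
        have hne : F.pos v ≠ F.pos w := fun h' => by
          have := F.pos_injOn (F.on_sub_bd ⟨hvF, hv1⟩) (F.on_sub_bd ⟨hwF, hw1⟩) h'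
          subst this; exact hwx hv
        have hne' : F.pos v ≠ F.pos (s.mu F w) := fun h' => by
          have := F.pos_injOn (F.on_sub_bd ⟨hvF, hv1⟩) (F.on_sub_bd ⟨hmF, hm1⟩) h'
          rw [this] at hv; exact hmx hv
        have e1 : (meshC T h3).Btw F w (s.mu F w) v ↔
            ((F.pos w < F.pos v ∧ F.pos v < F.pos (s.mu F w)) ∨
              (F.pos (s.mu F w) < F.pos v ∧ F.pos v < F.pos w)) := Iff.rfl
        rcases lt_or_gt_of_ne hne with g1 | g1 <;> rcases lt_or_gt_of_ne hne' with g2 | g2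
        · rw [if_pos ⟨hvF, g2⟩, if_pos ⟨hvF, g1⟩, if_neg]
          · decide
          · rintro ⟨-, h'⟩
            rcases e1.1 h' with h' | h'
            · exact lt_asymm g1 h'.1
            · exact lt_asymm g2 h'.1
        · rw [if_neg (fun h' => lt_asymm g2 h'.2), if_pos ⟨hvF, g1⟩,
            if_pos ⟨hvF, e1.2 (Or.inr ⟨g2, g1⟩)⟩, zero_add]
        · rw [if_pos ⟨hvF, g2⟩, if_neg (fun h' => lt_asymm g1 h'.2),
            if_pos ⟨hvF, e1.2 (Or.inl ⟨g1, g2⟩)⟩, add_zero]
        · rw [if_neg (fun h' => lt_asymm g2 h'.2), if_neg (fun h' => lt_asymm g1 h'.2), if_neg]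
          · decide
          · rintro ⟨-, h'⟩
            rcases e1.1 h' with h' | h'
            · exact lt_asymm g2 h'.2
            · exact lt_asymm g1 h'.2
      · rw [if_neg (fun h' => hvF h'.1), if_neg (fun h' => hvF h'.1), if_neg (fun h' => hvF h'.1)]
        decide
    rw [Finset.sum_congr rfl hin, ← Finset.sum_filter]
    have hcl : ∀ v ∈ (pts h c x).filter (fun v => v ∈ F.set ∧
        (meshC T h3).Btw F w (s.mu F w) v), s.mu F v ∈ (pts h c x).filter (fun v => v ∈ F.set ∧
        (meshC T h3).Btw F w (s.mu F w) v) := by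
      intro v hv
      obtain ⟨hvm, hvF, hb⟩ := Finset.mem_filter.1 hv
      obtain ⟨hv', hvx⟩ := mem_pts.1 hvm
      have hvOn := mem_On (h3 := h3) hvF hv'.2.2
      have hm := s.mu_mem hv'.1 hvOn
      refine Finset.mem_filter.2 ⟨mu_pts hvm hF hvF, hm.2.1, ?_⟩
      have hfv : fam (s.lab w) = fam (s.lab v) := by
        rw [hfam, ← hvx]; rfl
      have hnc := s.nc hw (mem_On hwF hw1) hv'.1 hvOn hfv
        (fun h' => hwx (h' ▸ hvm)) (fun h' => hmx (h' ▸ hvm))
      unfold MeshC.Lace at hnc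
      rw [not_not] at hnc
      exact hnc.1 hb
    refine Finset.sum_involution (fun v _ => s.mu F v) ?_ ?_ ?_ ?_
    · intro v _; decide
    · intro v hv _
      obtain ⟨hv, hvF, hb⟩ := Finset.mem_filter.1 hv
      obtain ⟨hv', hvx⟩ := mem_pts.1 hv
      exact s.mu_ne hv'.1 (mem_On hvF hv'.2.2)
    · intro v hv
      exact hcl v hv
    · intro v hv
      obtain ⟨hv, hvF, hb⟩ := Finset.mem_filter.1 hv
      obtain ⟨hv', hvx⟩ := mem_pts.1 hv
      exact s.mu_mu hv'.1 (mem_On hvF hv'.2.2)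
  have e4 : ∀ a b c d : ZMod 2, a + b = c + d → b + d = 0 → a = c := by decide
  exact e4 _ _ _ _ h1 h2

/-- a point of a piece -/
noncomputable def rep (h : LF s) {c : T.Cell} (x : Pc s c) : E := (pts_ne (h := h) x).choose

lemma rep_mem (h : LF s) {c : T.Cell} (x : Pc s c) : rep h x ∈ pts h c x :=
  (pts_ne (h := h) x).choose_spec

/-- the side of a piece with respect to another one: at any of its points -/
lemma side_const {h : LF s} {c : T.Cell} {x x' : Pc s c} (hne : x ≠ x')
    (hfam : fam (pcol s c x) = fam (pcol s c x')) {w w' : E} (hw : w ∈ pts h c x)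
    (hw' : w' ∈ pts h c x) : nl h c x' w = nl h c x' w' := by
  classical
  obtain ⟨h1, e1⟩ := mem_pts.1 hw
  obtain ⟨h2, e2⟩ := mem_pts.1 hw'
  -- a function on pieces
  have key : ∀ a b : Pt s c, Rel s c a b → (if (Quot.mk _ a : Pc s c) = x then nl h c x' a.1 else 0)
      = (if (Quot.mk _ b : Pc s c) = x then nl h c x' b.1 else 0) := by
    intro a b hab
    have hmk : (Quot.mk _ a : Pc s c) = Quot.mk _ b := Quot.sound hab
    by_cases hx : (Quot.mk _ a : Pc s c) = x
    · rw [if_pos hx, if_pos (hmk ▸ hx)]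
      obtain ⟨F, hF, haF, hb⟩ := hab
      rw [hb]
      refine (nl_mu hF a.2.1 haF a.2.2.2 ?_ ?_).symm
      · intro h'
        exact hne (pts_disj (mem_pts.2 ⟨a.2, hx⟩) h')
      · rw [← hfam, ← hx]; rfl
    · rw [if_neg hx, if_neg (fun h' => hx (hmk.trans h'))]
  let g : Pc s c → ZMod 2 := Quot.lift
    (fun a => if (Quot.mk _ a : Pc s c) = x then nl h c x' a.1 else 0) key
  have g1 : g (Quot.mk _ ⟨w, h1⟩) = nl h c x' w := by
    show (if (Quot.mk _ ⟨w, h1⟩ : Pc s c) = x then nl h c x' w else 0) = _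
    rw [if_pos e1]
  have g2 : g (Quot.mk _ ⟨w', h2⟩) = nl h c x' w' := by
    show (if (Quot.mk _ ⟨w', h2⟩ : Pc s c) = x then nl h c x' w' else 0) = _
    rw [if_pos e2]
  rw [← g1, ← g2, e1, e2]

/-! ### edges and vertices -/

lemma cell_dim_set (c : T.Cell) {v : E} (hv : v ∈ c.set) : T.dim v ≤ c.dim := by
  rw [c.set_eq] at hv
  exact T.dim_le hv

lemma vertex_set {c : T.Cell} (h : c.dim = 0) : c.set = {c.pt} := by
  rw [c.set_eq]
  exact T.cc_eq_singleton (T.dim_eq_zero_iff.1 h)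

lemma bv_vertex {c : T.Cell} (h : c.dim = 0) : bv c = c.pt := by
  have h1 := bv_mem c
  rw [vertex_set h] at h1
  exact h1

/-- the cell of the base vertex -/
noncomputable def bc (c : T.Cell) : T.Cell := T.cl (cell_sub c (bv_mem c))

lemma bc_dim (c : T.Cell) : (bc c).dim = 0 := by
  unfold bc
  rw [T.dim_cl]
  exact bv_dim c

lemma bc_set (c : T.Cell) : (bc c).set = {bv c} := by
  unfold bc
  rw [T.cl_set]
  exact T.cc_eq_singleton (T.dim_eq_zero_iff.1 (bv_dim c))

lemma bv_bc (c : T.Cell) : bv (bc c) = bv c := by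
  have h1 := bv_mem (bc c)
  rw [bc_set] at h1
  exact h1

lemma bc_lt {c : T.Cell} (h : 1 ≤ c.dim) : bc c < c := by
  rw [lt_iff_le_and_ne]
  refine ⟨?_, ?_⟩
  · rw [Tiling.Cell.le_def, bc_set, singleton_subset_iff]
    exact bv_mem c
  · intro h'
    have := bc_dim c
    rw [h'] at this
    omega

lemma dim_lt_cell {c d : T.Cell} (h : c < d) : c.dim < d.dim := by
  obtain ⟨h1, h2⟩ := Tiling.Cell.lt_iff.1 h
  rw [d.set_eq] at h1
  exact T.dim_lt h1 h2

/-- the pieces of an edge are points -/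
lemma pts_edge {h : LF s} {c : T.Cell} (hc : c.dim = 1) (x : Pc s c) {w w' : E}
    (hw : w ∈ pts h c x) (hw' : w' ∈ pts h c x) : w = w' := by
  obtain ⟨h1, e1⟩ := mem_pts.1 hw
  obtain ⟨h2, e2⟩ := mem_pts.1 hw'
  let g : Pc s c → E := Quot.lift (fun a => a.1) (by
    rintro a b ⟨F, hF, -, -⟩
    exfalso
    have h4 := cell_dim_set c (hF (by
      show F.pt ∈ F.set
      rw [F.set_eq]; exact T.self_mem_cc _))
    rw [hc, F.dim_pt] at h4
    omega)
  have g1 : g (Quot.mk _ ⟨w, h1⟩) = w := rfl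
  have g2 : g (Quot.mk _ ⟨w', h2⟩) = w' := rfl
  rw [← g1, ← g2, e1, e2]

open Classical in
/-- **CMB**: the discrete input of P4-MESH -/
noncomputable def cmb (h : LF s) (hon : ∀ w ∈ s.P, w ∈ Om ∧ T.dim w = 1) (Lam : J → E → ZMod 2)
    (hLam : ∀ j, ∀ e ∈ Om, T.dim e = 1 → ∀ a b, T.cc e = segment ℝ a b →
      Lam j a + Lam j b = (((gPts s j : Set E) ∩ T.cc e).ncard : ZMod 2)) :
    Cmb T.Cell (fun c => c.dim) J C where
  I := fun c => Pc s c
  fin := fun c => by
    have := h.pc c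
    exact Fintype.ofFinite _
  col := fun c x => pcol s c x
  fam := fam
  up := fun hcd y => pup s hcd.le y
  col_up := fun hcd y => pcol_pup s hcd.le y
  up_up := fun h1 h2 y => pup_pup s h1.le h2.le y
  vert := fun c hc => by
    refine ⟨fun x => ?_⟩
    obtain ⟨w, -⟩ := Quot.exists_rep x
    have h1 := cell_dim_set c w.2.2.1
    have h2 := w.2.2.2
    have h4 : c.dim = 0 := hc
    omega
  s := fun {c d} _ x => nl h d x (bv c)
  coc := fun {p r q} h1 h2 x => by
    have := h.pc r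
    let _ : Fintype (Pc s r) := Fintype.ofFinite _
    refine (nl_coc (h := h) h2.le x (Tiling.Cell.le_def.1 h1.le (bv_mem p)) (by rw [bv_dim]; omega)
      (not_pts_of_dim (bv_dim p))).trans ?_
    congr 1
  o := fun c => bc c
  o_dim := fun c _ => bc_dim c
  o_lt := fun c hc => bc_lt hc
  s_o := fun c hc x => by
    show nl h c x (bv (bc c)) = 0
    rw [bv_bc]
    exact nl_bv h c x
  Lab := fun j c => Lam j (bv c)
  lab_eq := fun {p q} hpq j => by
    have := h.pc q
    let _ : Fintype (Pc s q) := Fintype.ofFinite _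
    have hx1 : XL T (gPts s j) (xt T (gPts s j) (Lam j)) Om :=
      xl_of_exact (Subset.refl _) (fun w hw => (hon w (mem_gPts.1 hw).1).2)
        (exact_kap_iff.2 (hLam j))
    have hx2 := xl_sum (h := h) (c := q) (Q := gPts s j)
      (Finset.univ.filter (fun x : Pc s q => pcol s q x = j)) (fun w hw => by
        rw [mem_gPts]
        constructor
        · rintro ⟨h4, h5⟩
          refine ⟨Quot.mk _ ⟨w, h4, hw, (hon w h4).2⟩, Finset.mem_filter.2
            ⟨Finset.mem_univ _, h5⟩, mem_pts.2 ⟨_, rfl⟩⟩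
        · rintro ⟨x, hx, hwx⟩
          obtain ⟨h4, e4⟩ := mem_pts.1 hwx
          refine ⟨h4.1, ?_⟩
          have h5 := (Finset.mem_filter.1 hx).2
          rw [← e4] at h5
          exact h5)
    have hQ0 : ∀ v, T.dim v = 0 → v ∉ gPts s j := fun v h0 h' => by
      have := (hon v (mem_gPts.1 h').1).2
      omega
    have h4 := (hx1.mono (cell_sub q)).unique hx2
      (fun w hw => (hon w (mem_gPts.1 hw).1).2) (cell_conn q) (cell_sub q) (cell_cc q)
      (Tiling.Cell.le_def.1 hpq.le (bv_mem p)) (bv_mem q) (by rw [bv_dim]; omega) (by rw [bv_dim]; omega)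
      (hQ0 _ (bv_dim p)) (hQ0 _ (bv_dim q))
    have h5 : ∑ x : Pc s q with pcol s q x = j, nl h q x (bv q) = 0 :=
      Finset.sum_eq_zero fun y _ => nl_bv h q y
    rw [h5, add_zero, xt_zero (bv_dim p), xt_zero (bv_dim q)] at h4
    have e4 : ∀ a b c : ZMod 2, a + b = c → a = c + b := by decide
    refine (e4 _ _ _ h4).trans ?_
    congr 1
  side := fun c x x' => nl h c x' (rep h x)
  side_up := fun {p q} hpq y x' hne hfam => by
    have := h.pc p
    let _ : Fintype (Pc s p) := Fintype.ofFinite _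
    have h1 : rep h y ∈ pts h q (pup s hpq.le y) :=
      (mem_pts_pup hpq.le (mem_pts.1 (rep_mem h y)).1.2.1).2 ⟨y, rfl, rep_mem h y⟩
    have hfam' : fam (pcol s q (pup s hpq.le y)) = fam (pcol s q x') := by
      rw [pcol_pup]; exact hfam
    have h2 := side_const (h := h) (Ne.symm hne) hfam' (rep_mem h (pup s hpq.le y)) h1
    have h4 := nl_coc (h := h) hpq.le x' (mem_pts.1 (rep_mem h y)).1.2.1
      (pts_dim _ (rep_mem h y)).le (fun h' => hne (pts_disj h' h1))
    refine (h2.trans h4).trans ?_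
    congr 1
  s_edge := fun {v q} hvq hq hne x => by
    have hq' : q.dim = 1 := hq
    have hv0 : v.dim = 0 := by
      have := dim_lt_cell hvq
      omega
    have hbvv := bv_vertex hv0
    have hvm : bv v ∈ q.set := Tiling.Cell.le_def.1 hvq.le (bv_mem v)
    obtain ⟨a, b, hab, e1, e2, ha0, hb0, ha, hb⟩ := T.edge_eq q.pt_mem hq'
    have hset := q.set_eq
    have hne' : bv v ≠ bv q := by
      intro h'
      apply hne
      apply Tiling.Cell.ext
      show v.set = (bc q).set
      rw [bc_set, vertex_set hv0, ← hbvv, h']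
    have hends : segment ℝ (bv v) (bv q) = q.set := by
      rw [hset] at hvm ⊢
      have hqm := bv_mem q
      rw [hset] at hqm
      rcases T.vertex_of_edge q.pt_mem hq' e1 hvm (bv_dim v) with h5 | h5 <;>
        rcases T.vertex_of_edge q.pt_mem hq' e1 hqm (bv_dim q) with h6 | h6
      · exact absurd (h5.trans h6.symm) hne'
      · rw [h5, h6, e1]
      · rw [h5, h6, e1, segment_symm]
      · exact absurd (h5.trans h6.symm) hne'
    have h1 := nl_xl h q x q.pt (by rw [hset]; exact T.self_mem_cc _) hq' (bv v)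
      (by rw [← hset]; exact hvm) (bv q) (by rw [← hset]; exact bv_mem q)
      (not_pts_of_dim (bv_dim v)) (not_pts_of_dim (bv_dim q))
    rw [nl_bv, add_zero, hends] at h1
    show nl h q x (bv v) = 1
    rw [h1]
    obtain ⟨w, hw⟩ := pts_ne (h := h) x
    have h2 : pts h q x = {w} := by
      ext u
      rw [Finset.mem_singleton]
      exact ⟨fun hu => pts_edge hq' x hu hw, fun hu => hu ▸ hw⟩
    unfold nQ
    rw [h2, Finset.sum_singleton, if_pos]
    rw [h2] at hw
    exact (mem_pts.1 (h2 ▸ hw : w ∈ pts h q x)).1.2.1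

end Crest.Agent.R096.Cm_117
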