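import Crest.Agent.R096.Mv1_441

/-!
# Row 96 (helper441): parity along the boundary of a 2-cell, labels, side function of points
-/

set_option autoImplicit false
set_option linter.unusedSectionVars false

open Set Metric Relation

namespace Crest.Agent.R096.Mv_441

open Crest.Agent.R096.Msh_715 Crest.Agent.R096.Main_4 Crest.Agent.R096.Agl5_543
  Crest.Agent.R096.St_147 Crest.Agent.R096.Clo_441

variable {E : Type} [NormedAddCommGroup E] [NormedSpace ℝ E] [FiniteDimensional ℝ E]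
variable {Om : Set E} {ι : Type} {T : Tiling Om ι}

open Classical in
/-- number of points of `Q` on `F` between `u` and `v`, mod 2 -/
noncomputable def bet (F : C2 T) (Q : Finset E) (u v : E) : ZMod 2 :=
  ((Q.filter (fun q => q ∈ F.set ∧ Btw F u v q)).card : ZMod 2)

open Classical in
/-- number of points of `Q` on the segment `[u,v]`, mod 2 -/
noncomputable def ons (Q : Finset E) (u v : E) : ZMod 2 :=
  ((Q.filter (fun q => q ∈ segment ℝ u v)).card : ZMod 2)

open Classical in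
/-- number of points of `Q` on `F` before `w`, mod 2 -/
noncomputable def sgn (F : C2 T) (Q : Finset E) (w : E) : ZMod 2 :=
  ((Q.filter (fun q => q ∈ F.set ∧ F.pos q < F.pos w)).card : ZMod 2)

theorem even_face {Q : Finset E} (hQ : EvenPat T Q) (F : C2 T) :
    open Classical in Even (Q.filter (fun q => q ∈ F.set)).card := by
  classical
  have h := hQ.even F.pt F.pt_mem F.dim_pt
  have e : Q.filter (fun q => q ∈ F.set) = Q.filter (fun w => w ∈ T.cc F.pt) := by
    ext q; simp only [Finset.mem_filter, F.set_eq]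
  rw [e]
  convert h

theorem on_bd {Q : Finset E} (hQ : EvenPat T Q) {F : C2 T} {q : E} (hq : q ∈ Q) (hF : q ∈ F.set) :
    q ∈ F.bd := F.on_sub_bd ⟨hF, (hQ.on q hq).2⟩

theorem iff_aux1 {p q r s : Prop} (h : (p ↔ q) ↔ (r ↔ s)) (hc : q ↔ s) : p ↔ r := by
  by_cases hp : p <;> by_cases hq : q <;> by_cases hr : r <;> by_cases hs : s <;> simp_all

theorem iff_aux2 {p q r s : Prop} (h : (p ↔ q) ↔ (r ↔ s)) (hc : ¬ (q ↔ s)) : p ↔ ¬ r := by
  by_cases hp : p <;> by_cases hq : q <;> by_cases hr : r <;> by_cases hs : s <;> simp_all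

/-- **(MV2)** -/
theorem btw_parity {Q : Finset E} (hQ : EvenPat T Q) {F : C2 T} {w₀ : E} (hw : w₀ ∈ F.set)
    (hd : T.dim w₀ = 1) {x y : E} (hx : x ∈ T.cc w₀) (hy : y ∈ T.cc w₀) (hxy : x ≠ y)
    (hxQ : x ∉ Q) (hyQ : y ∉ Q) : bet F Q x y = ons Q x y := by
  classical
  have hsub := edge_sub_bd hw hd
  have hseg : segment ℝ x y ⊆ T.cc w₀ := (T.convex_cc _).segment_subset hx hy
  have hcase : ∀ {t : E}, t ≠ x → t ≠ y → (t ∈ segment ℝ x y ↔ t ∈ openSegment ℝ x y) := by
    intro t h1 h2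
    rw [← insert_endpoints_openSegment]
    constructor
    · rintro (h | h | h)
      · exact absurd h h1
      · exact absurd h h2
      · exact h
    · intro h; exact Or.inr (Or.inr h)
  have hne : ∀ {q : E}, q ∈ Q → q ≠ x ∧ q ≠ y := fun hq =>
    ⟨fun h => hxQ (h ▸ hq), fun h => hyQ (h ▸ hq)⟩
  set QF := Q.filter (fun q => q ∈ F.set) with hQF
  have hev : Even QF.card := even_face hQ F
  have e1 : Q.filter (fun q => q ∈ F.set ∧ Btw F x y q) = QF.filter (fun q => Btw F x y q) := by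
    rw [hQF, Finset.filter_filter]
  have e2 : Q.filter (fun q => q ∈ segment ℝ x y) = QF.filter (fun q => q ∈ openSegment ℝ x y) := by
    rw [hQF, Finset.filter_filter]
    ext q
    simp only [Finset.mem_filter]
    constructor
    · rintro ⟨h1, h2⟩
      exact ⟨h1, F.bd_sub (hsub (hseg h2)), (hcase (hne h1).1 (hne h1).2).1 h2⟩
    · rintro ⟨h1, -, h2⟩
      exact ⟨h1, openSegment_subset_segment ℝ x y h2⟩
  unfold bet ons
  rw [e1, e2]
  rcases QF.eq_empty_or_nonempty with h0 | ⟨q0, hq0⟩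
  · rw [h0]; simp
  have hl : ∀ q ∈ QF, ((Btw F x y q ↔ Btw F x y q0) ↔
      (q ∈ openSegment ℝ x y ↔ q0 ∈ openSegment ℝ x y)) := by
    intro q hq
    obtain ⟨h1, h2⟩ := Finset.mem_filter.1 hq
    obtain ⟨h3, h4⟩ := Finset.mem_filter.1 hq0
    exact lace_iff hw hd hx hy hxy (on_bd hQ h1 h2) (on_bd hQ h3 h4) (hne h1).1 (hne h1).2
      (hne h3).1 (hne h3).2
  by_cases hc : (Btw F x y q0 ↔ q0 ∈ openSegment ℝ x y)
  · have e3 : QF.filter (fun q => Btw F x y q) = QF.filter (fun q => q ∈ openSegment ℝ x y) := by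
      refine Finset.filter_congr fun q hq => ?_
      exact iff_aux1 (hl q hq) hc
    rw [e3]
  · have e3 : QF.filter (fun q => Btw F x y q) = QF.filter (fun q => ¬ q ∈ openSegment ℝ x y) := by
      refine Finset.filter_congr fun q hq => ?_
      exact iff_aux2 (hl q hq) hc
    have e4 := Finset.card_filter_add_card_filter_not (s := QF)
      (fun q => q ∈ openSegment ℝ x y)
    rw [e3]
    have e5 : ((QF.filter (fun q => q ∈ openSegment ℝ x y)).card : ZMod 2) +
        ((QF.filter (fun q => ¬ q ∈ openSegment ℝ x y)).card : ZMod 2) = 0 := by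
      rw [← Nat.cast_add, e4]
      exact (ZMod.natCast_eq_zero_iff_even).2 hev
    exact (CharTwo.add_eq_zero.1 e5).symm

theorem btw_symm (F : C2 T) (u v x : E) : Btw F u v x ↔ Btw F v u x := by
  unfold Btw; exact or_comm

theorem sgn_add {Q : Finset E} (hQ : EvenPat T Q) {F : C2 T} {w w' : E} (hw : w ∈ F.bd)
    (hw' : w' ∈ F.bd) (hwQ : w ∉ Q) (hwQ' : w' ∉ Q) :
    sgn F Q w + sgn F Q w' = bet F Q w w' := by
  classical
  have key : ∀ {w w' : E}, w ∈ F.bd → w' ∈ F.bd → w ∉ Q → w' ∉ Q → F.pos w < F.pos w' →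
      sgn F Q w + sgn F Q w' = bet F Q w w' := by
    intro w w' hw hw' hwQ hwQ' hlt
    have e1 : Q.filter (fun q => q ∈ F.set ∧ F.pos q < F.pos w') =
        Q.filter (fun q => q ∈ F.set ∧ F.pos q < F.pos w) ∪
          Q.filter (fun q => q ∈ F.set ∧ Btw F w w' q) := by
      ext q
      simp only [Finset.mem_union, Finset.mem_filter]
      constructor
      · rintro ⟨h1, h2, h3⟩
        rcases lt_trichotomy (F.pos q) (F.pos w) with h | h | h
        · exact Or.inl ⟨h1, h2, h⟩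
        · exact absurd (F.pos_injOn (on_bd hQ h1 h2) hw h ▸ h1) hwQ
        · exact Or.inr ⟨h1, h2, Or.inl ⟨h, h3⟩⟩
      · rintro (⟨h1, h2, h3⟩ | ⟨h1, h2, h3⟩)
        · exact ⟨h1, h2, h3.trans hlt⟩
        · rcases h3 with h3 | h3
          · exact ⟨h1, h2, h3.2⟩
          · exact ⟨h1, h2, by linarith⟩
    have hd : Disjoint (Q.filter (fun q => q ∈ F.set ∧ F.pos q < F.pos w))
        (Q.filter (fun q => q ∈ F.set ∧ Btw F w w' q)) := by
      rw [Finset.disjoint_left]
      intro q h1 h2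
      obtain ⟨-, -, h3⟩ := Finset.mem_filter.1 h1
      obtain ⟨-, -, h4⟩ := Finset.mem_filter.1 h2
      rcases h4 with h4 | h4 <;> linarith
    unfold sgn bet
    rw [e1, Finset.card_union_of_disjoint hd, Nat.cast_add, ← add_assoc, CharTwo.add_self_eq_zero,
      zero_add]
  have hsymm : bet F Q w w' = bet F Q w' w := by
    unfold bet
    simp only [btw_symm F w w']
  rcases lt_trichotomy (F.pos w) (F.pos w') with h | h | h
  · exact key hw hw' hwQ hwQ' h
  · have : w = w' := F.pos_injOn hw hw' h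
    subst this
    rw [CharTwo.add_self_eq_zero]
    unfold bet
    have e : Q.filter (fun q => q ∈ F.set ∧ Btw F w w q) = ∅ := by
      rw [Finset.filter_eq_empty_iff]
      rintro q - ⟨-, h | h⟩ <;> linarith [h.1, h.2]
    rw [e]; simp
  · rw [add_comm, hsymm]
    exact key hw' hw hwQ' hwQ h

theorem isPreconnected_bd (F : C2 T) : IsPreconnected F.bd := by
  rw [← F.isDisc.bd]
  refine IsPreconnected.image ?_ _ (F.isDisc.cont.mono sphere_subset_closedBall)
  exact isPreconnected_sphere (by rw [Complex.rank_real_complex]; norm_num) 0 1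

theorem isCompact_bd (F : C2 T) : IsCompact F.bd := by
  rw [← F.isDisc.bd]
  exact (isCompact_sphere 0 1).image_of_continuousOn
    (F.isDisc.cont.mono sphere_subset_closedBall)

theorem cc_sub_bd (F : C2 T) {x : E} (hx : x ∈ F.bd) : T.cc x ⊆ F.bd := by
  intro y hy
  have hxF := F.bd_sub hx
  have hx1 : T.dim x ≤ 1 := (F.mem_bd_iff hxF).1 hx
  have hyF : y ∈ F.set := by
    rw [F.set_eq] at hxF ⊢
    exact T.cc_sub_of_mem hxF hy
  refine (F.mem_bd_iff hyF).2 ?_
  by_cases h : y ∈ T.oc x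
  · rw [T.dim_eq_of_mem_oc (F.set_sub hxF) h]; exact hx1
  · have := T.dim_lt hy h
    omega

/-- the label of the vertices of `F` is the counting function of the cyclic order -/
theorem sgn_label {Q : Finset E} (hQ : EvenPat T Q) {lam : E → ZMod 2} (h : IsLab T Q lam)
    (F : C2 T) {v v' : E} (hv : v ∈ F.set) (hv0 : T.dim v = 0) (hv' : v' ∈ F.set)
    (hv0' : T.dim v' = 0) : lam v + sgn F Q v = lam v' + sgn F Q v' := by
  classical
  have hb : ∀ {v : E}, v ∈ F.set → T.dim v = 0 → v ∈ F.bd := fun hv hv0 =>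
    (F.mem_bd_iff hv).2 (by omega)
  have hnQ : ∀ {v : E}, T.dim v = 0 → v ∉ Q := by
    intro v hv0 hvQ
    have := (hQ.on v hvQ).2
    omega
  refine tiling_const T (isCompact_bd F) (isPreconnected_bd F) (F.bd_sub.trans F.set_sub)
    (fun x hx => cc_sub_bd F hx) (lam := fun v => lam v + sgn F Q v) ?_ (hb hv hv0) hv0
    (hb hv' hv0') hv0'
  intro w hw hw1 p hp q hq hp0 hq0
  by_cases hpq : p = q
  · rw [hpq]
  have hwO : w ∈ Om := F.set_sub (F.bd_sub hw)
  obtain ⟨a, b, hab, hseg, -, ha0, hb0, ha, hb'⟩ := T.edge_eq hwO hw1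
  have hcc : T.cc w = segment ℝ p q := by
    rcases ends_unique T hwO hw1 hseg ha0 hb0 hp hp0 with h1 | h1 <;>
      rcases ends_unique T hwO hw1 hseg ha0 hb0 hq hq0 with h2 | h2
    · exact absurd (h1.trans h2.symm) hpq
    · rw [h1, h2]; exact hseg
    · rw [h1, h2, segment_symm]; exact hseg
    · exact absurd (h1.trans h2.symm) hpq
  have e1 := h w hwO hw1 p q hcc
  have e2 : ((Q.filter (fun u => u ∈ T.cc w)).card : ZMod 2) = ons Q p q := by
    unfold ons; rw [hcc]
  have e3 := btw_parity hQ (F.bd_sub hw) hw1 hp hq hpq (hnQ hp0) (hnQ hq0)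
  have hpb : p ∈ F.bd := cc_sub_bd F hw hp
  have hqb : q ∈ F.bd := cc_sub_bd F hw hq
  have e4 := sgn_add hQ hpb hqb (hnQ hp0) (hnQ hq0)
  have e5 : lam p + lam q = sgn F Q p + sgn F Q q := by
    rw [e4, e3, ← e2]; convert e1
  have e6 : ∀ a b c d : ZMod 2, a + b = c + d → a + c = b + d := by decide
  exact e6 _ _ _ _ e5

/-- the side of a point `w` of a 1-cell, computed from the end point `a` -/
theorem side_sgn {Q : Finset E} (hQ : EvenPat T Q) {lam : E → ZMod 2} (h : IsLab T Q lam)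
    (F : C2 T) {w a b v : E} (hw : w ∈ F.On) (hwQ : w ∉ Q) (hseg : T.cc w = segment ℝ a b)
    (ha0 : T.dim a = 0) (hv : v ∈ F.set) (hv0 : T.dim v = 0) :
    lam a + ons Q a w = lam v + sgn F Q v + sgn F Q w := by
  classical
  have hwF := hw.1
  have hw1 := hw.2
  have hwb := F.on_sub_bd hw
  have ha : a ∈ T.cc w := by rw [hseg]; exact left_mem_segment ℝ a b
  have haF : a ∈ F.set := F.bd_sub (cc_sub_bd F hwb ha)
  have hab : a ∈ F.bd := cc_sub_bd F hwb ha
  have haQ : a ∉ Q := fun hQ' => by have := (hQ.on a hQ').2; omega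
  have haw : a ≠ w := fun h => by rw [h] at ha0; omega
  have e1 := btw_parity hQ hwF hw1 ha (T.self_mem_cc w) haw haQ hwQ
  have e2 := sgn_add hQ hab hwb haQ hwQ
  have e3 := sgn_label hQ h F haF ha0 hv hv0
  rw [← e1, ← e2, ← add_assoc, e3]

open Classical in
/-- **side of the point `w` with respect to the pattern `Q` with label `lam`** -/
noncomputable def sd (T : Tiling Om ι) (Q : Finset E) (lam : E → ZMod 2) (w : E) : ZMod 2 :=
  if h : w ∈ Om ∧ T.dim w = 1 then
    lam (T.edge_eq h.1 h.2).choose + ons Q (T.edge_eq h.1 h.2).choose w else 0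

theorem sd_spec (T : Tiling Om ι) (Q : Finset E) (lam : E → ZMod 2) {w : E} (hw : w ∈ Om)
    (hd : T.dim w = 1) : ∃ a b, T.cc w = segment ℝ a b ∧ T.dim a = 0 ∧ T.dim b = 0 ∧
      sd T Q lam w = lam a + ons Q a w := by
  have h := (T.edge_eq hw hd).choose_spec
  obtain ⟨b, -, h2, -, h4, h5, -⟩ := h
  refine ⟨_, b, h2, h4, h5, ?_⟩
  unfold sd
  rw [dif_pos ⟨hw, hd⟩]

/-- every 2-cell contains a vertex -/
theorem exists_vertex_face (F : C2 T) : ∃ v ∈ F.set, T.dim v = 0 := by
  obtain ⟨p, h1, h2⟩ := T.exists_vertex F.pt_mem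
  exact ⟨p, by rw [F.set_eq]; exact h1, h2⟩

/-- **(MV3)**: the sides of two points of `∂F` differ by the number of points of `Q` between them -/
theorem sd_add {Q : Finset E} (hQ : EvenPat T Q) {lam : E → ZMod 2} (h : IsLab T Q lam)
    (F : C2 T) {w w' : E} (hw : w ∈ F.On) (hw' : w' ∈ F.On) (hwQ : w ∉ Q) (hwQ' : w' ∉ Q) :
    sd T Q lam w + sd T Q lam w' = bet F Q w w' := by
  obtain ⟨v, hv, hv0⟩ := exists_vertex_face F
  obtain ⟨a, b, h1, h2, -, h4⟩ := sd_spec T Q lam (F.set_sub hw.1) hw.2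
  obtain ⟨a', b', h1', h2', -, h4'⟩ := sd_spec T Q lam (F.set_sub hw'.1) hw'.2
  rw [h4, h4', side_sgn hQ h F hw hwQ h1 h2 hv hv0, side_sgn hQ h F hw' hwQ' h1' h2' hv hv0,
    ← sgn_add hQ (F.on_sub_bd hw) (F.on_sub_bd hw') hwQ hwQ']
  have e : ∀ a b c : ZMod 2, a + b + (a + c) = b + c := by decide
  exact e _ _ _

/-- the side can be computed from any end point of the 1-cell -/
theorem sd_eq (h3 : Module.finrank ℝ E = 3) {Q : Finset E} (hQ : EvenPat T Q)
    {lam : E → ZMod 2} (h : IsLab T Q lam) {w : E} (hwO : w ∈ Om) (hd : T.dim w = 1) (hwQ : w ∉ Q)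
    {a b : E} (hseg : T.cc w = segment ℝ a b) (ha0 : T.dim a = 0) :
    sd T Q lam w = lam a + ons Q a w := by
  obtain ⟨q, hq⟩ := T.at_nonempty hwO
  obtain ⟨x, hx, -, -, hd1, -, -, -, hp1, -⟩ := Agl3_543.two_cells T h3 hwO hd hq
  set F : C2 T := mk2 T hx hd1 with hF
  have hwF : w ∈ F.On := ⟨by rw [hF, mk2_set]; exact hp1, hd⟩
  obtain ⟨v, hv, hv0⟩ := exists_vertex_face F
  obtain ⟨a', b', h1, h2, -, h4⟩ := sd_spec T Q lam hwO hd
  rw [h4, side_sgn hQ h F hwF hwQ h1 h2 hv hv0, side_sgn hQ h F hwF hwQ hseg ha0 hv hv0]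

end Crest.Agent.R096.Mv_441
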