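import Crest.Agent.R096.Fin1_441
import Crest.Agent.R096.Mv2_441

/-!
# Row 96, FINLAB (helper441), part 2: NEST.  Two sheets of the same family do not cross, so the side
of the points of one sheet with respect to the other one is constant; sheets are nested.
-/

set_option autoImplicit false
set_option linter.unusedSectionVars false

open Set Metric Relation

namespace Crest.Agent.R096.Fin_441

open Crest.Agent.R096.Msh_715 Crest.Agent.R096.Main_4 Crest.Agent.R096.Agl5_543
  Crest.Agent.R096.St_147 Crest.Agent.R096.Seq_213 Crest.Agent.R096.Clo_441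
  Crest.Agent.R096.Lab_184 Crest.Agent.R096.Mv_441

variable {E : Type} [NormedAddCommGroup E] [NormedSpace ℝ E] [FiniteDimensional ℝ E]
variable {Om : Set E} {ι J C K : Type} {T : Tiling Om ι} {h3 : Module.finrank ℝ E = 3}
variable {fam : J → C}

/-- a chord of `j'` on `F` separates an even number of points of the sheet `j` of the same family -/
theorem bet_chord {s : GSt (meshC T h3) fam} {j j' : J} (hfam : fam j = fam j') (hne : j ≠ j')
    {F : C2 T} {w : E} (hw : w ∈ s.P) (hwF : w ∈ (meshC T h3).On F) (hwj : s.lab w = j')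
    (hP : ∀ w ∈ s.P, w ∈ Om ∧ T.dim w = 1) : bet F (gPts s j) w (s.mu F w) = 0 := by
  classical
  unfold bet
  have hon : ∀ q ∈ (gPts s j).filter (fun q => q ∈ F.set ∧ Btw F w (s.mu F w) q),
      q ∈ s.P ∧ s.lab q = j ∧ q ∈ (meshC T h3).On F := by
    intro q hq
    obtain ⟨h1, h2, -⟩ := Finset.mem_filter.1 hq
    obtain ⟨h4, h5⟩ := mem_gPts.1 h1
    exact ⟨h4, h5, h2, (hP q h4).2⟩
  have hmw := s.mu_mem hw hwF
  have hmlab := s.mu_lab hw hwF
  have h1 : ∑ _q ∈ (gPts s j).filter (fun q => q ∈ F.set ∧ Btw F w (s.mu F w) q),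
      (1 : ZMod 2) = 0 := by
    refine Finset.sum_involution (fun q _ => s.mu F q) (fun q hq => by decide)
      (fun q hq _ => ?_) (fun q hq => ?_) (fun q hq => ?_)
    · obtain ⟨a1, a2, a3⟩ := hon q hq
      exact s.mu_ne a1 a3
    · obtain ⟨a1, a2, a3⟩ := hon q hq
      obtain ⟨b1, b2⟩ := s.mu_mem a1 a3
      have b3 := s.mu_lab a1 a3
      have hnl : ¬ (meshC T h3).Lace F w (s.mu F w) q (s.mu F q) := by
        refine s.nc hw hwF a1 a3 (by rw [hwj, a2, hfam]) ?_ ?_
        · rintro rfl; exact hne (a2.symm.trans hwj)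
        · rintro rfl
          exact hne (a2.symm.trans (hmlab.trans hwj))
      have hl : (Btw F w (s.mu F w) q ↔ Btw F w (s.mu F w) (s.mu F q)) := by
        by_contra hcon
        exact hnl hcon
      obtain ⟨-, -, hq3⟩ := Finset.mem_filter.1 hq
      exact Finset.mem_filter.2 ⟨mem_gPts.2 ⟨b1, b3.trans a2⟩, b2.1, hl.1 hq3⟩
    · obtain ⟨a1, a2, a3⟩ := hon q hq
      exact s.mu_mu a1 a3
  rw [Finset.sum_const, nsmul_eq_mul, mul_one] at h1
  exact h1

/-- **(FL5) the side of the points of the sheet `j'` with respect to the sheet `j` of the same family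
is constant** -/
theorem side_const {s : GSt (meshC T h3) fam} {j j' : J} (hfam : fam j = fam j') (hne : j ≠ j')
    (hP : ∀ w ∈ s.P, w ∈ Om ∧ T.dim w = 1) (hconn : s.Conn j') {lam : E → ZMod 2}
    (h : IsLab T (gPts s j) lam) {w w' : E} (hw : w ∈ s.P) (hwj : s.lab w = j') (hw' : w' ∈ s.P)
    (hwj' : s.lab w' = j') : sd T (gPts s j) lam w = sd T (gPts s j) lam w' := by
  have hQ : EvenPat T (gPts s j) := gst_even s j fun w hw _ => hP w hw
  have hnot : ∀ {u : E}, s.lab u = j' → u ∉ gPts s j := fun hu hu' =>
    hne ((mem_gPts.1 hu').2.symm.trans hu)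
  refine (hconn.2 {u | sd T (gPts s j) lam u = sd T (gPts s j) lam w} ?_ w rfl hw hwj w' hw'
    hwj').symm
  rintro F u hu hat hul
  have hm := s.mu_mem hat.1 hat.2
  have hml : s.lab (s.mu F u) = j' := (s.mu_lab hat.1 hat.2).trans hul
  have e1 := sd_add hQ h F hat.2 hm.2 (hnot hul) (hnot hml)
  rw [bet_chord hfam hne hat.1 hat.2 hul hP] at e1
  show sd T (gPts s j) lam (s.mu F u) = sd T (gPts s j) lam w
  rw [← CharTwo.add_eq_zero.1 e1]
  exact hu

open Classical in
/-- **first point on an edge**: if `[a,b]` is a 1-cell with a point of `Q ∪ Q'`, then there is a point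
`w` of `Q ∪ Q'` with no point of `Q ∪ Q'` on `[a,w)`. -/
theorem exists_first (R : Finset E) {a b : E}
    (hne : (R.filter (fun u => u ∈ segment ℝ a b)).Nonempty) :
    ∃ w ∈ R, w ∈ segment ℝ a b ∧ ∀ u ∈ R, u ∈ segment ℝ a w → u = w := by
  obtain ⟨w, hw, hmin⟩ := (R.filter (fun u => u ∈ segment ℝ a b)).exists_min_image
    (fun u => dist a u) hne
  obtain ⟨h1, h2⟩ := Finset.mem_filter.1 hw
  refine ⟨w, h1, h2, fun u hu hua => ?_⟩
  have hub : u ∈ segment ℝ a b :=
    (convex_segment a b).segment_subset (left_mem_segment ℝ a b) h2 hua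
  have h3 := hmin u (Finset.mem_filter.2 ⟨hu, hub⟩)
  -- `u` on `[a,w]`, `dist a w ≤ dist a u`
  have h4 : dist a u + dist u w = dist a w := by
    obtain ⟨s, t, hs, ht, hst, rfl⟩ := hua
    have e1 : s = 1 - t := by linarith
    have e2 : a - (s • a + t • w) = t • (a - w) := by rw [e1]; module
    have e3 : (s • a + t • w) - w = (1 - t) • (a - w) := by rw [e1]; module
    rw [dist_eq_norm, dist_eq_norm, dist_eq_norm, e2, e3, norm_smul, norm_smul, Real.norm_eq_abs,
      Real.norm_eq_abs, abs_of_nonneg ht, abs_of_nonneg (by linarith)]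
    ring
  have h5 : dist u w = 0 := by linarith [dist_nonneg (x := u) (y := w)]
  exact dist_eq_zero.1 h5

/-- **(FL5) NEST**: `j` inner, `j'` outer sheet of one family: points of `j'` are outside `j`, points
of `j` are inside `j'`, both labels vanish at a vertex which is joined with `v` by 1-cells: then
`lam j v = 1` implies `lam j' v = 1`. -/
theorem nest {Q Q' : Finset E} (hQ : EvenPat T Q) (hQ' : EvenPat T Q') {lam lam' : E → ZMod 2}
    (h3 : Module.finrank ℝ E = 3)
    (h : IsLab T Q lam) (h' : IsLab T Q' lam') (hdis : ∀ w ∈ Q, w ∉ Q')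
    (hout : ∀ w ∈ Q', sd T Q lam w = 0) (hin : ∀ w ∈ Q, sd T Q' lam' w = 1)
    {W : Set ι} {v v₁ : E} (hp : ReflTransGen (Edg T W) v v₁) (h1 : lam v₁ = 0)
    (hv : lam v = 1) : lam' v = 1 := by
  classical
  by_contra hv'
  have hz : ∀ x : ZMod 2, x ≠ 1 → x = 0 := by decide
  have hv0 : lam' v = 0 := hz _ hv'
  have key : lam v₁ = 1 ∧ lam' v₁ = 0 := by
    clear h1
    induction hp with
    | refl => exact ⟨hv, hv0⟩
    | @tail a b _ hs ih =>
      obtain ⟨w₀, hw₀, hd, hseg, -⟩ := hs
      obtain ⟨i1, i2⟩ := ih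
      -- end points of the 1-cell
      obtain ⟨p, q, hpq, hseg', hoc, hp0, hq0, -, -⟩ := T.edge_eq hw₀ hd
      have hend : ∀ {x : E}, x ∈ segment ℝ a b → T.dim x ≠ 0 → x ∈ T.oc w₀ := by
        intro x hx hx0
        rw [hoc]
        rw [← hseg, hseg'] at hx
        refine mem_openSegment_of_ne_left_right ?_ ?_ hx
        · rintro rfl; exact hx0 hp0
        · rintro rfl; exact hx0 hq0
      have hab : a ≠ b := by
        rintro rfl
        rw [hseg', segment_same] at hseg
        have e1 : p ∈ ({a} : Set E) := hseg ▸ left_mem_segment ℝ p q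
        have e2 : q ∈ ({a} : Set E) := hseg ▸ right_mem_segment ℝ p q
        exact hpq ((mem_singleton_iff.1 e1).trans (mem_singleton_iff.1 e2).symm)
      have ha0 : T.dim a = 0 := by
        by_contra hne
        have hx := hend (left_mem_segment ℝ a b) hne
        rw [hoc] at hx
        obtain ⟨s, t, hs, ht, hst, hx⟩ := hx
        -- `a` extreme point of the segment `[a,b] = [p,q]`
        have hpe : p ∈ segment ℝ a b := by rw [← hseg, hseg']; exact left_mem_segment ℝ p q
        have hqe : q ∈ segment ℝ a b := by rw [← hseg, hseg']; exact right_mem_segment ℝ p q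
        obtain ⟨s1, t1, hs1, ht1, hst1, hp1⟩ := hpe
        obtain ⟨s2, t2, hs2, ht2, hst2, hq2⟩ := hqe
        have e1 : s1 = 1 - t1 := by linarith
        have e2 : s2 = 1 - t2 := by linarith
        have e3 : s = 1 - t := by linarith
        have e4 : ((1 - t) * t1 + t * t2) • (b - a) = 0 := by
          have : ((1 - t) * t1 + t * t2) • (b - a) = (s • p + t • q) - a := by
            rw [← hp1, ← hq2, e1, e2, e3]; module
          rw [this, hx, sub_self]
        rcases smul_eq_zero.1 e4 with e5 | e5
        · have f1 : t1 = 0 := by nlinarith [mul_nonneg ht.le ht2, mul_nonneg hs.le ht1]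
          have f2 : t2 = 0 := by nlinarith [mul_nonneg ht.le ht2, mul_nonneg hs.le ht1]
          apply hpq
          rw [← hp1, ← hq2, e1, e2, f1, f2]
        · exact hab (sub_eq_zero.1 e5).symm
      -- no point of `Q ∪ Q'` on the edge
      have hno : ((Q ∪ Q').filter (fun u => u ∈ segment ℝ a b)) = ∅ := by
        by_contra hne
        obtain ⟨w, hwR, hws, hfirst⟩ := exists_first (Q ∪ Q')
          (Finset.nonempty_iff_ne_empty.2 hne)
        have hwd : w ∈ Om ∧ T.dim w = 1 := by
          rcases Finset.mem_union.1 hwR with h | h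
          · exact hQ.on w h
          · exact hQ'.on w h
        have hwoc : w ∈ T.oc w₀ := hend hws (by rw [hwd.2]; exact one_ne_zero)
        have hcc : T.cc w = segment ℝ a b := by
          rw [← hseg]; exact T.cc_eq_of_mem_oc hw₀ hwoc
        rcases Finset.mem_union.1 hwR with hwQ | hwQ'
        · have e1 := hin w hwQ
          rw [sd_eq h3 hQ' h' hwd.1 hwd.2 (hdis w hwQ) hcc ha0, i2, zero_add] at e1
          have e2 : ons Q' a w = 0 := by
            unfold ons
            rw [Finset.filter_eq_empty_iff.2]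
            · simp
            · intro u hu hua
              have := hfirst u (Finset.mem_union_right _ hu) hua
              exact hdis w hwQ (this ▸ hu)
          rw [e2] at e1
          exact absurd e1 (by decide)
        · have hwQ : w ∉ Q := fun h => hdis w h hwQ'
          have e1 := hout w hwQ'
          rw [sd_eq h3 hQ h hwd.1 hwd.2 hwQ hcc ha0, i1] at e1
          have e2 : ons Q a w = 0 := by
            unfold ons
            rw [Finset.filter_eq_empty_iff.2]
            · simp
            · intro u hu hua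
              have := hfirst u (Finset.mem_union_left _ hu) hua
              exact hwQ (this ▸ hu)
          rw [e2] at e1
          exact absurd e1 (by decide)
      have hq1 : Q.filter (fun u => u ∈ T.cc w₀) = ∅ := by
        rw [Finset.filter_eq_empty_iff]
        intro u hu hc
        rw [hseg] at hc
        have : u ∈ ((Q ∪ Q').filter (fun u => u ∈ segment ℝ a b)) :=
          Finset.mem_filter.2 ⟨Finset.mem_union_left _ hu, hc⟩
        rw [hno] at this
        exact absurd this (Finset.notMem_empty u)
      have hq2 : Q'.filter (fun u => u ∈ T.cc w₀) = ∅ := by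
        rw [Finset.filter_eq_empty_iff]
        intro u hu hc
        rw [hseg] at hc
        have : u ∈ ((Q ∪ Q').filter (fun u => u ∈ segment ℝ a b)) :=
          Finset.mem_filter.2 ⟨Finset.mem_union_right _ hu, hc⟩
        rw [hno] at this
        exact absurd this (Finset.notMem_empty u)
      have e1 := h w₀ hw₀ hd a b hseg
      have e2 := h' w₀ hw₀ hd a b hseg
      have e3 : ((Q.filter (fun u => u ∈ T.cc w₀)).card : ZMod 2) = 0 := by rw [hq1]; simp
      have e4 : ((Q'.filter (fun u => u ∈ T.cc w₀)).card : ZMod 2) = 0 := by rw [hq2]; simp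
      have e5 : lam a + lam b = 0 := e1.trans (by convert e3)
      have e6 : lam' a + lam' b = 0 := e2.trans (by convert e4)
      exact ⟨(CharTwo.add_eq_zero.1 e5).symm.trans i1, (CharTwo.add_eq_zero.1 e6).symm.trans i2⟩
  rw [h1] at key
  exact absurd key.1 (by decide)

end Crest.Agent.R096.Fin_441
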