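import Crest.Agent.R096.Mg2_441
import Crest.Agent.R096.Cm3_117
import Crest.Agent.R096.Fin2_441

/-!
# R096 (row 96), MERGE (helper441), part 3: the discrete input `cmb` (helper117) of a global state

* `lbl_cmb`   : the label of a piece is the (extended) label of any of its points;
* `connC_cmb` : connected sheets have connected pieces;
* `ord_cmb`   : order of the sheets of a family from one point of every sheet.
-/

set_option autoImplicit false
set_option linter.unusedSectionVars false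

open Set Relation Module

namespace Crest.Agent.R096.Mg_441

open Crest.Agent.R096.Msh_715 Crest.Agent.R096.Lab_184 Crest.Agent.R096.Agl5_543
  Crest.Agent.R096.Pat5_543 Crest.Agent.R096.Coh_184 Crest.Agent.R096.Seq_213
  Crest.Agent.R096.Bd_416 Crest.Agent.R096.St_147 Crest.Agent.R096.Cm_117

variable {E : Type} [NormedAddCommGroup E] [NormedSpace ℝ E] [FiniteDimensional ℝ E]
variable {Om : Set E} {ι : Type} {T : Tiling Om ι} {h3 : finrank ℝ E = 3} {J Cc : Type}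
variable {fam : J → Cc} {s : GSt (meshC T h3) fam}

/-- the extended label of a sheet from the vertex labels -/
theorem xl_sheet (hon : ∀ w ∈ s.P, w ∈ Om ∧ T.dim w = 1) {Lam : J → E → ZMod 2}
    (hLam : ∀ j, ∀ e ∈ Om, T.dim e = 1 → ∀ a b, T.cc e = segment ℝ a b →
      Lam j a + Lam j b = (((gPts s j : Set E) ∩ T.cc e).ncard : ZMod 2)) (j : J) :
    XL T (gPts s j) (xt T (gPts s j) (Lam j)) Om :=
  xl_of_exact (Subset.refl _) (fun w hw => (hon w (mem_gPts.1 hw).1).2) (exact_kap_iff.2 (hLam j))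

/-- the extended label of a point from an end of its 1-cell -/
theorem xt_end (hon : ∀ w ∈ s.P, w ∈ Om ∧ T.dim w = 1) {Lam : J → E → ZMod 2}
    (hLam : ∀ j, ∀ e ∈ Om, T.dim e = 1 → ∀ a b, T.cc e = segment ℝ a b →
      Lam j a + Lam j b = (((gPts s j : Set E) ∩ T.cc e).ncard : ZMod 2)) {j : J} {w a : E}
    (hw : w ∈ Om) (hw1 : T.dim w = 1) (hwj : w ∉ gPts s j) (ha : a ∈ T.cc w) (ha0 : T.dim a = 0) :
    xt T (gPts s j) (Lam j) w = Lam j a + nQ (gPts s j) (segment ℝ a w) := by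
  have haQ : a ∉ gPts s j := fun h => by
    have := (hon a (mem_gPts.1 h).1).2
    omega
  have h1 := xl_sheet hon hLam j w hw hw1 a ha w (T.self_mem_cc w) haQ hwj
  rw [xt_zero ha0] at h1
  have e : ∀ a b c : ZMod 2, a + b = c → b = a + c := by decide
  exact e _ _ _ h1

variable (h : LF s) (hon : ∀ w ∈ s.P, w ∈ Om ∧ T.dim w = 1) (Lam : J → E → ZMod 2)
    (hLam : ∀ j, ∀ e ∈ Om, T.dim e = 1 → ∀ a b, T.cc e = segment ℝ a b →
      Lam j a + Lam j b = (((gPts s j : Set E) ∩ T.cc e).ncard : ZMod 2))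

/-- **the label of a piece is the label of any of its points** -/
theorem lbl_cmb {c : T.Cell} {x : Pc s c} {w : E} (hw : w ∈ pts h c x) {j' : J}
    (hne : j' ≠ pcol s c x) (hf : fam (pcol s c x) = fam j') :
    lbl (cmb h hon Lam hLam) c x j' = xt T (gPts s j') (Lam j') w := by
  classical
  obtain ⟨h4w, ew⟩ := mem_pts.1 hw
  have hwj : w ∉ gPts s j' := by
    intro h'
    apply hne
    rw [← (mem_gPts.1 h').2, ← ew]
    rfl
  have := h.pc c
  let _ : Fintype (Pc s c) := Fintype.ofFinite _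
  have hx2 := xl_sum (h := h) (c := c) (Q := gPts s j')
    (Finset.univ.filter (fun x : Pc s c => pcol s c x = j')) (fun w hw => by
      rw [mem_gPts]
      constructor
      · rintro ⟨h4, h5⟩
        refine ⟨Quot.mk _ ⟨w, h4, hw, (hon w h4).2⟩, Finset.mem_filter.2
          ⟨Finset.mem_univ _, h5⟩, mem_pts.2 ⟨_, rfl⟩⟩
      · rintro ⟨x, hx, hwx⟩
        obtain ⟨h4, e4⟩ := mem_pts.1 hwx
        refine ⟨h4.1, ?_⟩
        have h5 := (Finset.mem_filter.1 hx).2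
        rw [← e4] at h5
        exact h5)
  have hb0 : bv c ∉ gPts s j' := fun h' => by
    have h5 := (hon _ (mem_gPts.1 h').1).2
    rw [bv_dim] at h5
    omega
  have h4 := ((xl_sheet hon hLam j').mono (cell_sub c)).unique hx2
    (fun w hw => (hon w (mem_gPts.1 hw).1).2) (cell_conn c) (cell_sub c) (cell_cc c)
    (bv_mem c) h4w.2.1 (by rw [bv_dim]; omega) h4w.2.2.le hb0 hwj
  have h5 : ∑ x : Pc s c with pcol s c x = j', nl h c x (bv c) = 0 :=
    Finset.sum_eq_zero fun y _ => nl_bv h c y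
  rw [h5, add_zero, xt_zero (bv_dim c)] at h4
  have h6 : lbl (cmb h hon Lam hLam) c x j' =
      Lam j' (bv c) + ∑ x' : Pc s c with pcol s c x' = j', nl h c x' (rep h x) := by
    unfold lbl
    congr 1
  have h7 : ∑ x' : Pc s c with pcol s c x' = j', nl h c x' (rep h x)
      = ∑ x' : Pc s c with pcol s c x' = j', nl h c x' w := by
    refine Finset.sum_congr rfl fun x' hx' => ?_
    have hx'' := (Finset.mem_filter.1 hx').2
    refine side_const (h := h) ?_ (by rw [hx'']; exact hf) (rep_mem h x) hw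
    rintro rfl
    exact hne hx''.symm
  rw [h6, h7, h4]
  have e : ∀ a b : ZMod 2, a + b + b = a := by decide
  exact e _ _

/-- the piece of a point in a cell -/
def pp (c : T.Cell) {w : E} (hw : w ∈ s.P ∧ w ∈ c.set ∧ T.dim w = 1) :
    Σ q, (cmb h hon Lam hLam).I q := ⟨c, (Quot.mk _ ⟨w, hw⟩ : Pc s c)⟩

theorem pp_le {c d : T.Cell} (hcd : c ≤ d) {w : E} (hw : w ∈ s.P ∧ w ∈ c.set ∧ T.dim w = 1)
    (hw' : w ∈ s.P ∧ w ∈ d.set ∧ T.dim w = 1) :
    EqvGen (Stp (cmb h hon Lam hLam)) (pp h hon Lam hLam c hw) (pp h hon Lam hLam d hw') := by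
  rcases hcd.eq_or_lt with rfl | hlt
  · exact EqvGen.refl _
  · exact EqvGen.rel _ _ (Stp.mk (C := cmb h hon Lam hLam) hlt (Quot.mk _ ⟨w, hw⟩ : Pc s c))

theorem pp_two {c d : T.Cell} {w : E} (hw : w ∈ s.P ∧ w ∈ c.set ∧ T.dim w = 1)
    (hw' : w ∈ s.P ∧ w ∈ d.set ∧ T.dim w = 1) :
    EqvGen (Stp (cmb h hon Lam hLam)) (pp h hon Lam hLam c hw) (pp h hon Lam hLam d hw') := by
  have hO : w ∈ Om := (hon w hw.1).1
  have h1 : w ∈ s.P ∧ w ∈ (T.cl hO).set ∧ T.dim w = 1 :=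
    ⟨hw.1, by rw [T.cl_set]; exact T.self_mem_cc w, hw.2.2⟩
  have hle : ∀ e : T.Cell, w ∈ e.set → T.cl hO ≤ e := fun e he => by
    rw [Tiling.Cell.le_def, T.cl_set]
    exact cell_cc e w he
  exact EqvGen.trans _ _ _ (EqvGen.symm _ _ (pp_le h hon Lam hLam (hle c hw.2.1) h1 hw))
    (pp_le h hon Lam hLam (hle d hw'.2.1) h1 hw')

theorem pp_mu {F : C2 T} {w : E} (hw : w ∈ s.P ∧ w ∈ F.1.set ∧ T.dim w = 1)
    (hw' : s.mu F w ∈ s.P ∧ s.mu F w ∈ F.1.set ∧ T.dim (s.mu F w) = 1) :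
    pp h hon Lam hLam F.1 hw = pp h hon Lam hLam F.1 hw' := by
  unfold pp
  congr 1
  exact Quot.sound ⟨F, Subset.refl _, hw.2.1, rfl⟩

/-- **connected sheets have connected pieces** -/
theorem connC_cmb {j : J} (hconn : s.Conn j) : ConnC (cmb h hon Lam hLam) j := by
  rintro ⟨c, x⟩ ⟨d, y⟩ hx hy
  obtain ⟨⟨w, hw⟩, rfl⟩ := Quot.exists_rep (r := Rel s c) x
  obtain ⟨⟨w', hw'⟩, rfl⟩ := Quot.exists_rep (r := Rel s d) y
  have hwj : s.lab w = j := hx
  have hwj' : s.lab w' = j := hy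
  have key := hconn.2 {u | ∀ (e : T.Cell) (hu : u ∈ s.P ∧ u ∈ e.set ∧ T.dim u = 1),
    EqvGen (Stp (cmb h hon Lam hLam)) (pp h hon Lam hLam c hw) (pp h hon Lam hLam e hu)} ?_ w
    (fun e hu => pp_two h hon Lam hLam hw hu) hw.1 hwj w' hw'.1 hwj'
  · exact key d hw'
  · intro F u hu hat _ e hmu
    have hm := s.mu_mem hat.1 hat.2
    have hu1 : u ∈ s.P ∧ u ∈ F.1.set ∧ T.dim u = 1 := ⟨hat.1, hat.2.1, hat.2.2⟩
    have hm1 : s.mu F u ∈ s.P ∧ s.mu F u ∈ F.1.set ∧ T.dim (s.mu F u) = 1 :=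
      ⟨hm.1, hm.2.1, hm.2.2⟩
    refine EqvGen.trans _ _ _ (hu F.1 hu1) ?_
    rw [pp_mu h hon Lam hLam hu1 hm1]
    exact pp_two h hon Lam hLam hm1 hmu

/-- **order of the sheets of a family** from one point of every sheet -/
theorem ord_cmb (hconn : ∀ j, s.Conn j) {ℓ : J → ℝ}
    (hlev : ∀ j j', j ≠ j' → fam j = fam j' →
      ∃ w ∈ s.P, s.lab w = j ∧ (xt T (gPts s j') (Lam j') w = 1 ↔ ℓ j' < ℓ j)) :
    Ord (cmb h hon Lam hLam) ℓ := by
  refine ord_of _ (fun j => connC_cmb h hon Lam hLam (hconn j)) ?_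
  intro j j' hne hf
  obtain ⟨w, hw, hwj, e⟩ := hlev j j' hne hf
  obtain ⟨hO, h1⟩ := hon w hw
  have h2 : w ∈ s.P ∧ w ∈ (T.cl hO).set ∧ T.dim w = 1 :=
    ⟨hw, by rw [T.cl_set]; exact T.self_mem_cc w, h1⟩
  refine ⟨pp h hon Lam hLam (T.cl hO) h2, hwj, ?_⟩
  have h4 : lbl (cmb h hon Lam hLam) (T.cl hO) (Quot.mk _ ⟨w, h2⟩ : Pc s (T.cl hO)) j' =
      xt T (gPts s j') (Lam j') w :=
    lbl_cmb h hon Lam hLam (mem_pts.2 ⟨h2, rfl⟩) (by show j' ≠ s.lab w; rw [hwj]; exact hne.symm)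
      (by show fam (s.lab w) = fam j'; rw [hwj]; exact hf)
  rw [← e, ← h4]
  exact Iff.rfl

end Crest.Agent.R096.Mg_441
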