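import Crest.Agent.R096.Gs1_422
import Crest.Agent.R096.Gs2_422
import Crest.Agent.R096.Lab5_184
import Crest.Agent.R096.Mg3_441

/-!
# R096 (row 96), GLUE-STATE part 3 (helper422): labels of the final sheets

`LabIn` = label data of the initial state (bodies `D c`, labels, a deep vertex and a far vertex
joined by 1-cells of tiles active in no quad of the family); `exists_lam` = labels of the sheets of a
later state with copies (`LabOut`); their values at frozen / empty places; the order of the sheets of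
a family in the form of `Mg_441.ord_cmb`.
-/

set_option autoImplicit false
set_option linter.unusedSectionVars false

open Set Metric Relation

namespace Crest.Agent.R096.Gs_422

open Crest.Agent.R096.Msh_715 Crest.Agent.R096.Agl5_543 Crest.Agent.R096.St_147
  Crest.Agent.R096.Seq_213 Crest.Agent.R096.Lab_184 Crest.Agent.R096.Cp_298
  Crest.Agent.R096.Ori_543 Crest.Agent.R096.Mv_441 Crest.Agent.R096.Main_4
  Crest.Agent.R096.Coh_184

variable {E : Type} [NormedAddCommGroup E] [NormedSpace ℝ E] [FiniteDimensional ℝ E]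
variable {Om : Set E} {ι J J1 C K : Type} {T : Tiling Om ι} {h3 : Module.finrank ℝ E = 3}
variable {fam : J → C} {fam1 : J1 → C}

/-- **label data of the initial state**: `D c` body of the family `c`, `v₀ c` deep vertex, `v₁ c`
far vertex -/
structure LabIn (Q : Quads ι C K) (s₀ : GSt (meshC T h3) fam) (D : C → Set E)
    (lam₀ : J → E → ZMod 2) (v₀ v₁ : C → E) : Prop where
  cpt : ∀ j, IsCompact (D (fam j))
  sub : ∀ j, D (fam j) ⊆ Om
  fr : ∀ j, IsPreconnected (frontier (D (fam j)))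
  triv : ∀ j, TrivF (ZMod 2) (D (fam j))
  supp : ∀ w ∈ s₀.P, ∀ q, w ∈ Msh_715.P (T.H q) →
    Msh_715.P (T.H q) ⊆ interior (D (fam (s₀.lab w)))
  act : ∀ j k, Q.In k (fam j) → ∀ q ∈ Q.Act k, Msh_715.P (T.H q) ⊆ interior (D (fam j))
  lab : ∀ j, IsLab T (gPts s₀ j) (lam₀ j)
  one : ∀ j, lam₀ j (v₀ (fam j)) = 1
  zero : ∀ j, lam₀ j (v₁ (fam j)) = 0
  far : ∀ j, ∃ q, v₁ (fam j) ∈ Msh_715.P (T.H q) ∧ ¬ Msh_715.P (T.H q) ⊆ interior (D (fam j))
  rope : ∀ j, ReflTransGen (Edg T {q | CFr Q (fam j) q}) (v₀ (fam j)) (v₁ (fam j))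

/-- **labels of the final sheets** -/
structure LabOut (Q : Quads ι C K) (s : GSt (meshC T h3) fam1) (D : C → Set E) (p : J1 → J)
    (lam₀ : J → E → ZMod 2) (v₀ v₁ : C → E) (lam : J1 → E → ZMod 2) : Prop where
  on : ∀ w ∈ s.P, w ∈ Om ∧ T.dim w = 1
  conn : ∀ j, s.Conn j
  lab : ∀ j, IsLab T (gPts s j) (lam j)
  out : ∀ j v, v ∉ D (fam1 j) → lam j v = 0
  far : ∀ j q, ¬ Msh_715.P (T.H q) ⊆ interior (D (fam1 j)) → ∀ v ∈ Msh_715.P (T.H q), lam j v = 0
  one : ∀ j, lam j (v₀ (fam1 j)) = 1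
  zero : ∀ j, lam j (v₁ (fam1 j)) = 0
  rope : ∀ j, ReflTransGen (Edg T {q | CFr Q (fam1 j) q}) (v₀ (fam1 j)) (v₁ (fam1 j))
  frz : ∀ j v, ReflTransGen (Edg T {q | CFr Q (fam1 j) q}) (v₀ (fam1 j)) v →
    lam j v = lam₀ (p j) v

section cps

variable {Q : Quads ι C K} {δ : E → ℝ} {s₀ : GSt (meshC T h3) fam} {far₀ : J → Set E}
  {σ₀ : E → ZMod 2} {p : J1 → J} {m : J1 → ℕ} {s : GSt (meshC T h3) fam1} {far : J1 → Set E}
  {β : E → E} {D : C → Set E} {lam₀ : J → E → ZMod 2} {v₀ v₁ : C → E}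

/-- **LABELS OF THE FINAL SHEETS EXIST** -/
theorem exists_lam (h : Cps (oriM h3) Q (Near T δ) s₀ far₀ σ₀ p m s far β)
    (hP0 : ∀ w ∈ s₀.P, w ∈ Om ∧ T.dim w = 1) (hp : ∀ j, fam (p j) = fam1 j)
    (hI₀ : s₀.Inv Q far₀) (hI : s.Inv Q far) (L : LabIn Q s₀ D lam₀ v₀ v₁) :
    ∃ lam : J1 → E → ZMod 2, LabOut Q s D p lam₀ v₀ v₁ lam := by
  have hon := on_final h hP0
  have hsupp : ∀ w ∈ s.P, ∀ q, w ∈ Msh_715.P (T.H q) →
      Msh_715.P (T.H q) ⊆ interior (D (fam1 (s.lab w))) := by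
    intro w hw q hq
    rcases hI.loc hw with h1 | ⟨k, hk, hint⟩
    · have h2 := h.far_mem h1
      obtain ⟨h4, h5⟩ := hI₀.far_mem h2
      have h6 := L.supp _ h4 q ((mem_tile_iff h hP0 hw).1 hq)
      rwa [h5, hp] at h6
    · have h1 := Fin_441.act_of_int (hon w hw).1 (hon w hw).2 hint hq
      rw [← hp] at hk ⊢
      exact L.act _ k hk q h1
  have hex : ∀ j : J1, ∃ lam : E → ZMod 2, IsLab T (gPts s j) lam ∧ (∀ v ∉ D (fam1 j), lam v = 0) ∧
      (∀ q, ¬ Msh_715.P (T.H q) ⊆ interior (D (fam1 j)) → ∀ v ∈ Msh_715.P (T.H q), lam v = 0) := by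
    intro j
    have e := hp j
    refine isLab_of_even h3 (gst_even s j fun w hw _ => hon w hw) ?_ ?_ ?_ ?_ ?_
    · rw [← e]; exact L.cpt _
    · rw [← e]; exact L.sub _
    · rw [← e]; exact L.fr _
    · rw [← e]; exact L.triv _
    · intro w hw q hq
      obtain ⟨h1, h2⟩ := mem_gPts.1 hw
      have h4 := hsupp w h1 q hq
      rwa [h2] at h4
  choose lam h1 h2 h4 using hex
  have hz : ∀ j, lam j (v₁ (fam1 j)) = 0 := by
    intro j
    obtain ⟨q, hq1, hq2⟩ := L.far (p j)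
    rw [hp] at hq1 hq2
    exact h4 j q hq2 _ hq1
  have hr : ∀ j, ReflTransGen (Edg T {q | CFr Q (fam1 j) q}) (v₀ (fam1 j)) (v₁ (fam1 j)) := by
    intro j
    have h5 := L.rope (p j)
    rwa [hp] at h5
  have ho : ∀ j, lam j (v₀ (fam1 j)) = 1 := by
    intro j
    have h5 := lab_frozen h hP0 hp hI₀ hI (h1 j) (L.lab (p j)) (hr j)
    have h6 := L.one (p j)
    have h7 := L.zero (p j)
    rw [hp] at h6 h7
    rw [hz j, h6, h7] at h5
    have e4 : ∀ a : ZMod 2, a + 1 = 0 + 0 → a = 1 := by decide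
    exact e4 _ h5
  refine ⟨lam, hon, fun j => hI.conn j, h1, h2, h4, ho, hz, hr, fun j v hv => ?_⟩
  have h5 := lab_frozen h hP0 hp hI₀ hI (h1 j) (L.lab (p j)) hv
  have h6 := L.one (p j)
  rw [hp] at h6
  rw [ho j, h6] at h5
  have e4 : ∀ a b : ZMod 2, 1 + 1 = a + b → a = b := by decide
  exact e4 _ _ h5

end cps

section out

variable {Q : Quads ι C K} {s : GSt (meshC T h3) fam1} {p : J1 → J}
  {D : C → Set E} {lam₀ : J → E → ZMod 2} {v₀ v₁ : C → E} {lam : J1 → E → ZMod 2}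

theorem LabOut.lbd (L : LabOut Q s D p lam₀ v₀ v₁ lam) (j₀ : J1) :
    Lbd s (fam1 j₀) lam (v₀ (fam1 j₀)) (v₁ (fam1 j₀)) where
  on := L.on
  conn := fun j _ => L.conn j
  lab := fun j _ => L.lab j
  one := fun j hj => by rw [← hj]; exact L.one j
  zero := fun j hj => by rw [← hj]; exact L.zero j
  path := ⟨_, L.rope j₀⟩

/-- labels with `ncard` (input `hLam` of `Cm_117.cmb`) -/
theorem LabOut.hLam (L : LabOut Q s D p lam₀ v₀ v₁ lam) : ∀ j, ∀ e ∈ Om, T.dim e = 1 →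
    ∀ a b, T.cc e = segment ℝ a b →
      lam j a + lam j b = (((gPts s j : Set E) ∩ T.cc e).ncard : ZMod 2) :=
  fun j => isLab_iff.1 (L.lab j)

/-- the label in a connected region which contains the deep vertex and whose tiles contain no
point of the sheet -/
theorem LabOut.lam_one (L : LabOut Q s D p lam₀ v₀ v₁ lam) {j : J1} {A : Set E}
    (hA : IsPreconnected A) (hAO : A ⊆ Om)
    (hE : ∀ q, (Msh_715.P (T.H q) ∩ A).Nonempty → ∀ u ∈ gPts s j, u ∉ Msh_715.P (T.H q))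
    (hv₀ : v₀ (fam1 j) ∈ VM T A) {v : E} (hv : v ∈ VM T A) : lam j v = 1 := by
  rw [(L.lab j).const_geom hA hAO hE hv hv₀]
  exact L.one j

/-- the label in a connected region which contains the far vertex and whose tiles contain no
point of the sheet -/
theorem LabOut.lam_zero (L : LabOut Q s D p lam₀ v₀ v₁ lam) {j : J1} {A : Set E}
    (hA : IsPreconnected A) (hAO : A ⊆ Om)
    (hE : ∀ q, (Msh_715.P (T.H q) ∩ A).Nonempty → ∀ u ∈ gPts s j, u ∉ Msh_715.P (T.H q))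
    (hv₁ : v₁ (fam1 j) ∈ VM T A) {v : E} (hv : v ∈ VM T A) : lam j v = 0 := by
  rw [(L.lab j).const_geom hA hAO hE hv hv₁]
  exact L.zero j

/-- the same with a tile which is not deep inside the body -/
theorem LabOut.lam_far (L : LabOut Q s D p lam₀ v₀ v₁ lam) {j : J1} {A : Set E}
    (hA : IsPreconnected A) (hAO : A ⊆ Om)
    (hE : ∀ q, (Msh_715.P (T.H q) ∩ A).Nonempty → ∀ u ∈ gPts s j, u ∉ Msh_715.P (T.H q))
    {q : ι} (hq : ¬ Msh_715.P (T.H q) ⊆ interior (D (fam1 j)))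
    (hqA : (Msh_715.P (T.H q) ∩ A).Nonempty) {v : E} (hv : v ∈ VM T A) : lam j v = 0 := by
  obtain ⟨x, hx, hxA⟩ := hqA
  obtain ⟨v', hv', hd'⟩ := exists_vertex_tile hx
  rw [(L.lab j).const_geom hA hAO hE hv (mem_VM hx hxA hv' hd')]
  exact L.far j q hq v' hv'

/-- side of a point = extended label -/
theorem LabOut.sd_xt (L : LabOut Q s D p lam₀ v₀ v₁ lam) {j : J1} {w : E} (hw : w ∈ s.P)
    (hne : s.lab w ≠ j) :
    sd T (gPts s j) (lam j) w = Cm_117.xt T (gPts s j) (lam j) w := by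
  classical
  obtain ⟨hO, h1⟩ := L.on w hw
  have hwQ : w ∉ gPts s j := fun h => hne (mem_gPts.1 h).2
  obtain ⟨a, b, hab, hseg, hoc, ha0, hb0, ha, hb⟩ := T.edge_eq hO h1
  have haw : a ∈ T.cc w := by rw [hseg]; exact left_mem_segment ℝ a b
  rw [sd_eq h3 (gst_even s j fun w hw _ => L.on w hw) (L.lab j) hO h1 hwQ hseg ha0,
    Mg_441.xt_end L.on L.hLam hO h1 hwQ haw ha0]
  congr 1
  unfold ons Cm_117.nQ
  rw [← Finset.sum_filter, Finset.sum_const, nsmul_eq_mul, mul_one]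

/-- the sheets of the family of `j` -/
noncomputable def sib (hfin : ∀ a, {j | fam1 j = a}.Finite) (j : J1) : Finset J1 :=
  (hfin (fam1 j)).toFinset

theorem mem_sib {hfin : ∀ a, {j | fam1 j = a}.Finite} {j i : J1} :
    i ∈ sib hfin j ↔ fam1 i = fam1 j := by
  unfold sib; rw [Finite.mem_toFinset]; rfl

/-- the number of the sheets of the family outside `j` -/
noncomputable def rk (s : GSt (meshC T h3) fam1) (lam : J1 → E → ZMod 2)
    (hfin : ∀ a, {j | fam1 j = a}.Finite) (j : J1) : ℕ := ord s lam (sib hfin j) j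

theorem sib_congr {hfin : ∀ a, {j | fam1 j = a}.Finite} {j j' : J1} (h : fam1 j = fam1 j') :
    sib hfin j = sib hfin j' := by
  ext i
  rw [mem_sib, mem_sib, h]

/-- **order**: `j` lies inside `j'` iff its number is larger -/
theorem LabOut.ins_iff (L : LabOut Q s D p lam₀ v₀ v₁ lam)
    (hfin : ∀ a, {j | fam1 j = a}.Finite) {j j' : J1} (hf : fam1 j = fam1 j') (hne : j ≠ j') :
    Ins s lam j j' ↔ rk s lam hfin j' < rk s lam hfin j := by
  have B := L.lbd j
  have hA : ∀ i ∈ sib hfin j, fam1 i = fam1 j := fun i hi => mem_sib.1 hi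
  have hj : j ∈ sib hfin j := mem_sib.2 rfl
  have hj' : j' ∈ sib hfin j := mem_sib.2 hf.symm
  unfold rk
  rw [sib_congr hf.symm]
  constructor
  · intro h
    exact B.ord_lt hA hj hj' hne h
  · intro h
    by_contra hcon
    obtain ⟨h1, -⟩ := B.out_of_not rfl hf.symm hne hcon
    exact absurd (B.ord_lt hA hj' hj hne.symm h1) (not_lt.2 h.le)

theorem LabOut.rk_inj (L : LabOut Q s D p lam₀ v₀ v₁ lam)
    (hfin : ∀ a, {j | fam1 j = a}.Finite) {j j' : J1} (hf : fam1 j = fam1 j')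
    (h : rk s lam hfin j = rk s lam hfin j') : j = j' := by
  by_contra hne
  by_cases h1 : Ins s lam j j'
  · have := (L.ins_iff hfin hf hne).1 h1
    omega
  · obtain ⟨h2, -⟩ := (L.lbd j).out_of_not rfl hf.symm hne h1
    have := (L.ins_iff hfin hf.symm (Ne.symm hne)).1 h2
    omega

/-- the side of any point of `j` with respect to `j'` -/
theorem LabOut.sd_iff (L : LabOut Q s D p lam₀ v₀ v₁ lam)
    (hfin : ∀ a, {j | fam1 j = a}.Finite) {j j' : J1} (hf : fam1 j = fam1 j') (hne : j ≠ j')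
    {w : E} (hw : w ∈ s.P) (hl : s.lab w = j) :
    sd T (gPts s j') (lam j') w = 1 ↔ rk s lam hfin j' < rk s lam hfin j := by
  rw [← L.ins_iff hfin hf hne]
  constructor
  · intro h
    exact (L.lbd j).ins_of_pt rfl hf.symm hne.symm hw hl h
  · intro h
    exact h w hw hl

/-- **input `hlev` of `Mg_441.ord_cmb`** -/
theorem LabOut.hlev (L : LabOut Q s D p lam₀ v₀ v₁ lam)
    (hfin : ∀ a, {j | fam1 j = a}.Finite) : ∀ j j', j ≠ j' → fam1 j = fam1 j' →
      ∃ w ∈ s.P, s.lab w = j ∧ (Cm_117.xt T (gPts s j') (lam j') w = 1 ↔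
        (rk s lam hfin j' : ℝ) < rk s lam hfin j) := by
  intro j j' hne hf
  obtain ⟨⟨w, hw, hl⟩, -⟩ := L.conn j
  refine ⟨w, hw, hl, ?_⟩
  rw [← L.sd_xt hw (by rw [hl]; exact hne), L.sd_iff hfin hf hne hw hl, Nat.cast_lt]

/-- **`Mg_441.Ord` for the final state** -/
theorem LabOut.ord_cmb (L : LabOut Q s D p lam₀ v₀ v₁ lam)
    (hfin : ∀ a, {j | fam1 j = a}.Finite) (hLF : Cm_117.LF s) :
    Mg_441.Ord (Cm_117.cmb hLF L.on lam L.hLam) (fun j => (rk s lam hfin j : ℝ)) :=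
  Mg_441.ord_cmb hLF L.on lam L.hLam L.conn (L.hlev hfin)

end out

section pieces

variable {s : GSt (meshC T h3) fam1}

/-- no points of the family in a tile: no pieces of the family in the cells of the tile -/
theorem pc_empty {c : T.Cell} {q : ι} (hcq : c.set ⊆ Msh_715.P (T.H q)) {a : C}
    (he : ∀ w ∈ s.P, fam1 (s.lab w) = a → w ∉ Msh_715.P (T.H q)) :
    ∀ x : Cm_117.Pc s c, fam1 (Cm_117.pcol s c x) ≠ a := by
  intro x hx
  obtain ⟨w, rfl⟩ := Quot.exists_rep x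
  exact he w.1 w.2.1 hx (hcq w.2.2.1)

end pieces

end Crest.Agent.R096.Gs_422
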