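import Mathlib
import Crest.Agent.R096.Agl4_543
import Crest.Agent.R096.Agl5_543

/-! # A-STATE 2 (row 96, helper543): a family of regular levels gives a state (`St_147`) -/

set_option autoImplicit false

open Set Filter Topology Metric

namespace Crest.Agent.R096.Agl6_543

open Crest.Agent.R096.Msh_715 Crest.Agent.R096.Agl4_543 Crest.Agent.R096.Agl5_543
  Crest.Agent.R096.Pat5_543 Crest.Agent.R096.St_147 Crest.Agent.R096.Coh_184

theorem isCompact_component {X : Type*} [TopologicalSpace X] {F : Set X} (hF : IsCompact F)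
    (x : X) : IsCompact (connectedComponentIn F x) := by
  by_cases hx : x ∈ F
  · rw [connectedComponentIn_eq_image hx]
    have : CompactSpace F := isCompact_iff_compactSpace.1 hF
    exact (isClosed_connectedComponent.isCompact).image continuous_subtype_val
  · rw [connectedComponentIn_eq_empty hx]; exact isCompact_empty

/-- the name of the sheet of a crossing point -/
noncomputable def labf {E I : Type} [Nonempty I] (S : I → Set E) (w : E) : I := by
  classical
  exact if h : ∃ i, w ∈ S i then h.choose else Classical.arbitrary I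

theorem lab_mem {E I : Type} [Nonempty I] {S : I → Set E} {w : E} (hw : ∃ i, w ∈ S i) :
    w ∈ S (labf S w) := by
  unfold labf
  rw [dif_pos hw]
  exact hw.choose_spec

variable {E : Type} [NormedAddCommGroup E] [NormedSpace ℝ E]
variable {Om : Set E} {ι : Type} {T : Tiling Om ι}

/-- a family of regular levels: finitely many crossings with the 1-skeleton, different sheets do
not meet there, sheets of one colour are disjoint -/
structure Fam (T : Tiling Om ι) {I : Type} (u : I → E → ℝ) (c : I → ℝ) (S : I → Set E)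
    (col : I → Bool) : Prop where
  lev : ∀ i, RegLevel T (u i) (c i) (S i)
  fin : {x | ∃ i, x ∈ S i ∧ T.dim x ≤ 1}.Finite
  sep1 : ∀ i j x, x ∈ S i → x ∈ S j → T.dim x ≤ 1 → i = j
  disj : ∀ i j, col i = col j → i ≠ j → Disjoint (S i) (S j)

namespace Fam

variable {I : Type} {u : I → E → ℝ} {c : I → ℝ} {S : I → Set E} {col : I → Bool}
variable (h : Fam T u c S col)

/-- the crossing points -/
noncomputable def pts (h : Fam T u c S col) : Finset E := h.fin.toFinset

include h

theorem mem_pts {w : E} : w ∈ h.pts ↔ ∃ i, w ∈ S i ∧ T.dim w ≤ 1 := by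
  unfold pts
  rw [h.fin.mem_toFinset]
  rfl

theorem lab_eq [Nonempty I] {w : E} {i : I} (hw : w ∈ S i) (hd : T.dim w ≤ 1) : labf S w = i :=
  h.sep1 _ _ w (lab_mem ⟨i, hw⟩) hw hd

theorem mem_lab [Nonempty I] {w : E} (hw : w ∈ h.pts) : w ∈ S (labf S w) := by
  obtain ⟨i, hi, -⟩ := h.mem_pts.1 hw
  exact lab_mem ⟨i, hi⟩

variable [FiniteDimensional ℝ E] (h3 : Module.finrank ℝ E = 3)
include h3

theorem exists_mu {F : C2 T} {w : E} {i : I} (hw : w ∈ S i) (hF : w ∈ F.On) :
    ∃! w', w' ≠ w ∧ (w' ∈ S i ∧ w' ∈ F.On) ∧ w' ∈ connectedComponentIn (S i ∩ F.set) w := by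
  have hw1 := hF.1
  rw [F.set_eq] at hw1
  obtain ⟨w', ⟨h1, h2, h4⟩, huniq⟩ := (h.lev i).partner h3 F.pt_mem F.dim_pt hw hF.2 hw1
  have h5 : w' ∈ F.On := by
    have h5 := (connectedComponentIn_subset _ _ h4).2
    refine ⟨by rw [F.set_eq]; exact h5, ?_⟩
    have := (h.lev i).vert w' h2.1
    have := h2.2
    omega
  refine ⟨w', ⟨h1, ⟨h2.1, h5⟩, by rw [F.set_eq]; exact h4⟩, ?_⟩
  rintro y ⟨g1, ⟨g2, g3⟩, g4⟩
  rw [F.set_eq] at g4
  exact huniq y ⟨g1, ⟨g2, g3.2.le⟩, g4⟩

variable [Nonempty I]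

/-- the partner of `w` on `F` -/
noncomputable def mu (F : C2 T) (w : E) : E := by
  classical
  exact if hw : w ∈ h.pts ∧ w ∈ F.On then
    (h.exists_mu h3 (h.mem_lab hw.1) hw.2).choose else w

theorem mu_spec {F : C2 T} {w : E} (hw : w ∈ h.pts) (hF : w ∈ F.On) :
    (h.mu h3 F w ≠ w ∧ (h.mu h3 F w ∈ S (labf S w) ∧ h.mu h3 F w ∈ F.On) ∧
      h.mu h3 F w ∈ connectedComponentIn (S (labf S w) ∩ F.set) w) ∧
    ∀ y, y ≠ w → y ∈ S (labf S w) → y ∈ F.On →
      y ∈ connectedComponentIn (S (labf S w) ∩ F.set) w → y = h.mu h3 F w := by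
  have e : h.mu h3 F w = (h.exists_mu h3 (h.mem_lab hw) hF).choose := by
    unfold mu
    rw [dif_pos ⟨hw, hF⟩]
  rw [e]
  have hs := (h.exists_mu h3 (h.mem_lab hw) hF).choose_spec
  exact ⟨hs.1, fun y h1 h2 h4 h5 => hs.2 y ⟨h1, ⟨h2, h4⟩, h5⟩⟩

theorem mu_pts {F : C2 T} {w : E} (hw : w ∈ h.pts) (hF : w ∈ F.On) : h.mu h3 F w ∈ h.pts := by
  have hs := (h.mu_spec h3 hw hF).1
  exact h.mem_pts.2 ⟨_, hs.2.1.1, hs.2.1.2.2.le⟩

theorem mu_lab {F : C2 T} {w : E} (hw : w ∈ h.pts) (hF : w ∈ F.On) :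
    labf S (h.mu h3 F w) = labf S w := by
  have hs := (h.mu_spec h3 hw hF).1
  exact h.lab_eq hs.2.1.1 hs.2.1.2.2.le

theorem mu_mu {F : C2 T} {w : E} (hw : w ∈ h.pts) (hF : w ∈ F.On) :
    h.mu h3 F (h.mu h3 F w) = w := by
  have hs := (h.mu_spec h3 hw hF).1
  have ht := (h.mu_spec h3 (h.mu_pts h3 hw hF) hs.2.1.2).2 w hs.1.symm
  rw [h.mu_lab h3 hw hF] at ht
  refine (ht (h.mem_lab hw) hF ?_).symm
  have h1 := connectedComponentIn_eq hs.2.2
  rw [← h1]
  exact mem_connectedComponentIn ⟨h.mem_lab hw, hF.1⟩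

/-- **the state of a family of regular levels** -/
noncomputable def st (h : Fam T u c S col) : St (meshC T h3) col where
  P := h.pts
  lab := labf S
  mu := h.mu h3
  mu_mem := fun hw hF => ⟨h.mu_pts h3 hw hF, (h.mu_spec h3 hw hF).1.2.1.2⟩
  mu_ne := fun hw hF => (h.mu_spec h3 hw hF).1.1
  mu_mu := fun hw hF => h.mu_mu h3 hw hF
  mu_lab := fun hw hF => h.mu_lab h3 hw hF
  nc := by
    intro F w x hw hwF hx hxF hcol hxw hxm hl
    have hwF' : w ∈ F.On := hwF
    have hxF' : x ∈ F.On := hxF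
    have hsw := (h.mu_spec h3 hw hwF').1
    have hsx := (h.mu_spec h3 hx hxF').1
    have hmw := h.mu_mu h3 hw hwF'
    have hmx := h.mu_mu h3 hx hxF'
    have hFc : IsClosed F.set := by rw [F.set_eq]; exact T.isClosed_cc _
    have hcK : ∀ i, IsCompact (S i ∩ F.set) := fun i => (h.lev i).cpt.inter_right hFc
    have h1 : w ≠ h.mu h3 F x := fun e => hxm (by
      show x = h.mu h3 F w
      rw [e, hmx])
    have h2 : h.mu h3 F w ≠ h.mu h3 F x := fun e => hxw (by rw [← hmx, ← e, hmw])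
    obtain ⟨z, hz1, hz2⟩ := F.meet_of_lace
      (K := connectedComponentIn (S (labf S w) ∩ F.set) w)
      (K' := connectedComponentIn (S (labf S x) ∩ F.set) x)
      isPreconnected_connectedComponentIn isPreconnected_connectedComponentIn
      (isCompact_component (hcK _) _) (isCompact_component (hcK _) _)
      (fun y hy => (connectedComponentIn_subset _ _ hy).2)
      (fun y hy => (connectedComponentIn_subset _ _ hy).2)
      (F.on_sub_bd hwF') (F.on_sub_bd hsw.2.1.2) (F.on_sub_bd hxF') (F.on_sub_bd hsx.2.1.2)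
      (Ne.symm hxw) h1 (fun e => hxm e.symm) h2
      (mem_connectedComponentIn ⟨h.mem_lab hw, hwF'.1⟩) hsw.2.2
      (mem_connectedComponentIn ⟨h.mem_lab hx, hxF'.1⟩) hsx.2.2 hl
    by_cases hij : labf S w = labf S x
    · -- the same sheet: the two components agree
      rw [← hij] at hz2
      have e1 := connectedComponentIn_eq hz1
      have e2 := connectedComponentIn_eq hz2
      have h5 : x ∈ connectedComponentIn (S (labf S w) ∩ F.set) w := by
        rw [e1, ← e2]
        refine mem_connectedComponentIn ⟨?_, hxF'.1⟩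
        rw [hij]; exact h.mem_lab hx
      refine hxm ((h.mu_spec h3 hw hwF').2 x hxw ?_ hxF' h5)
      rw [hij]; exact h.mem_lab hx
    · exact disjoint_left.1 (h.disj _ _ hcol hij) (connectedComponentIn_subset _ _ hz1).1
        (connectedComponentIn_subset _ _ hz2).1

end Fam

end Crest.Agent.R096.Agl6_543
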