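import Mathlib
import Crest.Agent.R096.Agl6_543

/-! # A-STATE 3 (row 96, helper543): `H1`, restriction to the marked component, `Conn` -/

set_option autoImplicit false

open Set Filter Topology Metric

namespace Crest.Agent.R096.Agl7_543

open Crest.Agent.R096.Msh_715 Crest.Agent.R096.Agl4_543 Crest.Agent.R096.Agl5_543
  Crest.Agent.R096.Agl6_543
  Crest.Agent.R096.Pat5_543 Crest.Agent.R096.St_147 Crest.Agent.R096.Coh_184

section restrict

variable {ι Φ W : Type} {M : MeshC ι Φ W} {I : Type} {col : I → Bool}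

/-- the part of a state on a set of points which is closed under partners -/
noncomputable def restrict (s : St M col) (X : Set W)
    (hX : ∀ {F : Φ} {w : W}, w ∈ X → s.At F w → s.mu F w ∈ X) : St M col := by
  classical
  exact
  { P := s.P.filter (fun w => w ∈ X)
    lab := s.lab
    mu := s.mu
    mu_mem := fun {F w} hw hF => by
      rw [Finset.mem_filter] at hw ⊢
      exact ⟨⟨(s.mu_mem hw.1 hF).1, hX hw.2 ⟨hw.1, hF⟩⟩, (s.mu_mem hw.1 hF).2⟩
    mu_ne := fun hw hF => s.mu_ne (Finset.mem_filter.1 hw).1 hF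
    mu_mu := fun hw hF => s.mu_mu (Finset.mem_filter.1 hw).1 hF
    mu_lab := fun hw hF => s.mu_lab (Finset.mem_filter.1 hw).1 hF
    nc := fun hw hF hx hxF h1 h2 h3 =>
      s.nc (Finset.mem_filter.1 hw).1 hF (Finset.mem_filter.1 hx).1 hxF h1 h2 h3 }

variable {s : St M col} {X : Set W} {hX : ∀ {F : Φ} {w : W}, w ∈ X → s.At F w → s.mu F w ∈ X}

theorem mem_restrict {w : W} : w ∈ (restrict s X hX).P ↔ w ∈ s.P ∧ w ∈ X := by
  classical
  exact Finset.mem_filter

theorem at_restrict {F : Φ} {w : W} : (restrict s X hX).At F w ↔ s.At F w ∧ w ∈ X := by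
  constructor
  · rintro ⟨h1, h2⟩
    have := mem_restrict.1 h1
    exact ⟨⟨this.1, h2⟩, this.2⟩
  · rintro ⟨⟨h1, h2⟩, h3⟩
    exact ⟨mem_restrict.2 ⟨h1, h3⟩, h2⟩

theorem restrict_lab : (restrict s X hX).lab = s.lab := rfl

theorem restrict_mu : (restrict s X hX).mu = s.mu := rfl

theorem H1.restrict {i : I} (h : s.H1 i) : (restrict s X hX).H1 i := by
  classical
  intro κ hκ
  have h1 := h (fun F w => if w ∈ X then κ F w else 0) ?_
  · obtain ⟨Ψ, hΨ⟩ := h1
    refine ⟨Ψ, fun F w hw hi => ?_⟩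
    have hw' := at_restrict.1 hw
    have := hΨ F w hw'.1 hi
    rw [if_pos hw'.2] at this
    exact this
  · intro q
    obtain ⟨ψ, hψ⟩ := hκ q
    refine ⟨fun w => if w ∈ X then ψ w else 0, fun F w hq hw hi => ?_⟩
    by_cases hwX : w ∈ X
    · have h2 := hψ F w hq (at_restrict.2 ⟨hw, hwX⟩) hi
      have h3 : s.mu F w ∈ X := hX hwX hw
      simp only [hwX, h3, if_true]
      exact h2
    · have h3 : s.mu F w ∉ X := by
        intro h3
        have h4 := hX (F := F) h3 ⟨(s.mu_mem hw.1 hw.2).1, (s.mu_mem hw.1 hw.2).2⟩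
        rw [s.mu_mu hw.1 hw.2] at h4
        exact hwX h4
      simp only [hwX, h3, if_false, add_zero]

/-- one step along a chord -/
def Step (s : St M col) (a b : W) : Prop := ∃ F, s.At F a ∧ b = s.mu F a

theorem Step.symm {a b : W} (h : Step s a b) : Step s b a := by
  obtain ⟨F, h1, rfl⟩ := h
  exact ⟨F, ⟨(s.mu_mem h1.1 h1.2).1, (s.mu_mem h1.1 h1.2).2⟩, (s.mu_mu h1.1 h1.2).symm⟩

theorem Step.mem {a b : W} (h : Step s a b) : b ∈ s.P ∧ s.lab b = s.lab a := by
  obtain ⟨F, h1, rfl⟩ := h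
  exact ⟨(s.mu_mem h1.1 h1.2).1, s.mu_lab h1.1 h1.2⟩

/-- the chord component of the base points -/
def comp (s : St M col) (b : I → W) : Set W := {w | ∃ i, Relation.ReflTransGen (Step s) (b i) w}

theorem comp_closed {b : I → W} {F : Φ} {w : W} (hw : w ∈ comp s b) (hF : s.At F w) :
    s.mu F w ∈ comp s b := by
  obtain ⟨i, hi⟩ := hw
  exact ⟨i, hi.tail ⟨F, hF, rfl⟩⟩

theorem comp_lab {b : I → W} (hb : ∀ i, b i ∈ s.P ∧ s.lab (b i) = i) {i : I} {w : W}
    (hi : Relation.ReflTransGen (Step s) (b i) w) : w ∈ s.P ∧ s.lab w = i := by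
  induction hi with
  | refl => exact hb i
  | tail h1 h2 ih =>
    have := h2.mem
    exact ⟨this.1, by rw [this.2]; exact ih.2⟩

/-- the sheets of the restricted state are connected -/
theorem conn_restrict {b : I → W} (hb : ∀ i, b i ∈ s.P ∧ s.lab (b i) = i) (i : I) :
    (restrict s (comp s b) (fun hw hF => comp_closed hw hF)).Conn i := by
  constructor
  · exact ⟨b i, mem_restrict.2 ⟨(hb i).1, i, Relation.ReflTransGen.refl⟩, (hb i).2⟩
  · intro Y hY w hwY hw hwi w' hw' hwi'
    have hrel : ∀ {v : W}, v ∈ comp s b → s.lab v = i →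
        Relation.ReflTransGen (Step s) (b i) v := by
      rintro v ⟨j, hj⟩ hv
      have := (comp_lab hb hj).2
      rw [hv] at this
      rw [this]
      exact hj
    have h1 := hrel (mem_restrict.1 hw).2 hwi
    have h2 := hrel (mem_restrict.1 hw').2 hwi'
    -- membership in `Y` is transported along the chords of sheet `i`
    have key : ∀ {v v' : W}, v ∈ comp s b → s.lab v = i → Step s v v' → v ∈ Y → v' ∈ Y := by
      rintro v v' hv hvi ⟨F, hF, rfl⟩ hvY
      exact hY F v hvY (at_restrict.2 ⟨hF, hv⟩) hvi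
    have hall : ∀ {v : W}, Relation.ReflTransGen (Step s) (b i) v → (v ∈ Y ↔ b i ∈ Y) := by
      intro v hv
      induction hv with
      | refl => exact Iff.rfl
      | tail g1 g2 ih =>
        rename_i x y
        have hx := comp_lab hb g1
        have hy := comp_lab hb (g1.tail g2)
        rw [← ih]
        exact ⟨fun h => key ⟨i, g1.tail g2⟩ hy.2 g2.symm h, fun h => key ⟨i, g1⟩ hx.2 g2 h⟩
    exact (hall h2).2 ((hall h1).1 hwY)

end restrict

variable {E : Type} [NormedAddCommGroup E] [NormedSpace ℝ E] [FiniteDimensional ℝ E]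
variable {Om : Set E} {ι : Type} {T : Tiling Om ι}
variable {I : Type} {u : I → E → ℝ} {c : I → ℝ} {S : I → Set E} {col : I → Bool}

/-- **`H1` of the sheets of the state** -/
theorem Fam.H1 [Nonempty I] (h : Fam T u c S col) (h3 : Module.finrank ℝ E = 3) (i : I)
    (ht : TrivF (ZMod 2) (S i)) : (h.st h3).H1 i := by
  classical
  intro κ hκ
  have hlev := h.lev i
  have hfinP := hlev.finite_P h3
  set P : Finset E := hfinP.toFinset with hP
  have memP : ∀ x, x ∈ P ↔ x ∈ S i ∧ T.dim x ≤ 1 := fun x => by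
    rw [hP, hfinP.mem_toFinset]; rfl
  have hsh := hlev.sheetHyp h3 memP
  -- the cochain on pairs of tiles
  let κ2 : Sym2 ι → E → E → ZMod 2 := fun t p p' =>
    if hh : p ≠ p' ∧ ∃ F : C2 T, F.side h3 = t ∧ p ∈ P ∧ p ∈ F.On ∧ h.mu h3 F p = p' then
      κ hh.2.choose p else 0
  have hκ2 : ∀ (F : C2 T) (p : E), p ∈ P → p ∈ F.On →
      κ2 (F.side h3) p (h.mu h3 F p) = κ F p := by
    intro F p hp hF
    have hp' : p ∈ h.pts := h.mem_pts.2 ⟨i, (memP p).1 hp⟩
    have hne : p ≠ h.mu h3 F p := (h.mu_spec h3 hp' hF).1.1.symm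
    have hh : p ≠ h.mu h3 F p ∧ ∃ G : C2 T, G.side h3 = F.side h3 ∧ p ∈ P ∧ p ∈ G.On ∧
        h.mu h3 G p = h.mu h3 F p := ⟨hne, F, rfl, hp, hF, rfl⟩
    have e1 : κ2 (F.side h3) p (h.mu h3 F p) = κ hh.2.choose p := dif_pos hh
    rw [e1]
    have h5 := hh.2.choose_spec.1
    have h6 : hh.2.choose = F := by
      obtain ⟨x, h7, -, h8⟩ := F.exists_side h3
      apply C2.ext
      have h9 : ∀ q q' : ι, F.side h3 = s(q, q') → (hh.2.choose).set = F.set := by
        intro q q' hqq
        rw [C2.set_inter hqq, C2.set_inter (h5.trans hqq)]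
      exact h9 _ _ rfl
    rw [h6]
  choose ψ hψ using hκ
  obtain ⟨Ψ, hΨ⟩ := coh' (A := ZMod 2) hlev.cpt ht hsh.closed hsh.cov hsh.fin hsh.sub hsh.trip
    (κ := fun q q' p p' => κ2 s(q, q') p p')
    (fun q q' p p' => by
      show κ2 s(q', q) p p' = κ2 s(q, q') p p'
      rw [Sym2.eq_swap]) (ψ := ψ)
    (fun q q' p p' hch => by
      show ψ q p - ψ q p' = κ2 s(q, q') p p'
      by_cases hpp : p = p'
      · subst hpp
        have e1 : κ2 s(q, q') p p = 0 := dif_neg fun h' => h'.1 rfl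
        rw [e1, sub_self]
      · obtain ⟨x, hx, hd, hat, hcc⟩ := hlev.chord_cell h3 memP (Ne.symm hpp) hch
        set F : C2 T := mk2 T hx hd with hFdef
        have hFset : F.set = T.cc x := rfl
        have hFpt : F.pt ∈ T.oc x := T.pt_cl hx
        have hp := (memP p).1 hch.left
        have hp' := (memP p').1 hch.right
        have hpO : p ∈ F.On := by
          refine ⟨by rw [hFset, hcc]; exact hch.mem.2, ?_⟩
          have := hlev.vert p hp.1
          have := hp.2
          omega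
        have hpO' : p' ∈ F.On := by
          refine ⟨by rw [hFset, hcc]; exact hch.mem_right.2, ?_⟩
          have := hlev.vert p' hp'.1
          have := hp'.2
          omega
        have hpp' : p ∈ h.pts := h.mem_pts.2 ⟨i, hp⟩
        have hlab : labf S p = i := h.lab_eq hp.1 hp.2
        have hmu : h.mu h3 F p = p' := by
          refine ((h.mu_spec h3 hpp' hpO).2 p' (Ne.symm hpp) (by rw [hlab]; exact hp'.1) hpO'
            ?_).symm
          rw [hlab, hFset, hcc]
          exact hch.conn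
        have hside : F.side h3 = s(q, q') := by
          have h6 : ∀ m, m ∈ F.side h3 ↔ m = q ∨ m = q' := by
            intro m
            rw [C2.mem_side, T.at_eq_of_mem_oc hx hFpt, hat]
            rfl
          refine ((Sym2.mem_and_mem_iff hch.ne).1 ⟨(h6 q).2 (Or.inl rfl), (h6 q').2 (Or.inr rfl)⟩)
        have h7 := hκ2 F p hch.left hpO
        rw [hside, hmu] at h7
        rw [h7]
        have h8 := hψ q F p (by show q ∈ F.side h3; rw [hside]; exact Sym2.mem_mk_left _ _)
          ⟨hpp', hpO⟩ hlab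
        rw [h8]
        show ψ q p - ψ q p' = ψ q p + ψ q (h.mu h3 F p)
        rw [hmu, CharTwo.sub_eq_add])
  refine ⟨Ψ, ?_⟩
  intro F w hw hi
  have hw1 : w ∈ h.pts := hw.1
  have hw2 : w ∈ F.On := hw.2
  have hi' : labf S w = i := hi
  have hs := (h.mu_spec h3 hw1 hw2).1
  rw [hi'] at hs
  have hwS : w ∈ S i := by
    have := h.mem_lab hw1
    rwa [hi'] at this
  obtain ⟨x, h7, h8, h9⟩ := F.exists_side h3
  have hside : F.side h3 = s(x.1, x.2) := by
    refine ((Sym2.mem_and_mem_iff h7).1 ⟨?_, ?_⟩)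
    · rw [C2.mem_side, h8]; exact Or.inl rfl
    · rw [C2.mem_side, h8]; exact Or.inr rfl
  have hwP : w ∈ P := (memP w).2 ⟨hwS, hw2.2.le⟩
  have hch : Chord (S i) (fun i => Msh_715.P (T.H i)) P x.1 x.2 w (h.mu h3 F w) := by
    refine ⟨h7, hwP, (memP _).2 ⟨hs.2.1.1, hs.2.1.2.2.le⟩, ?_, ?_⟩
    · refine ⟨hwS, ?_⟩
      rw [← h9]; exact hw2.1
    · rw [← h9]; exact hs.2.2
  have h10 := hΨ x.1 x.2 w (h.mu h3 F w) hch
  have h11 := hκ2 F w hwP hw2
  rw [hside] at h11
  have h12 : Ψ w - Ψ (h.mu h3 F w) = κ2 s(x.1, x.2) w (h.mu h3 F w) := h10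
  rw [h11, CharTwo.sub_eq_add] at h12
  exact h12.symm

end Crest.Agent.R096.Agl7_543
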