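import Crest.Agent.R096.Loc3_965

/-! Row 96, P1-LOC (helper965), part 4: the far part, several blobs at once.  `N k` = the cells near
the blob `k`, `Q k ⊇ N k` the cells of its strip.  Every point of a connected sheet is either
connected to the marked point `m` by chords having a cell outside all `N k`, or all cells at it
lie in one `Q k`. -/

set_option autoImplicit false
set_option linter.unusedSectionVars false

open Set

namespace Crest.Agent.R096.Loc_965

open Crest.Agent.R096.Coh_184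

variable {ι V E : Type*} {A : Pat ι V E} [Fintype V] [Fintype E]

/-- a chord with a cell in `N` -/
def Nr (A : Pat ι V E) (N : Set ι) (e : E) : Prop := ∃ q ∈ A.cells e, q ∈ N

/-- FAR PART, several blobs -/
theorem far_fam {U : Set V} (hconn : ∀ X : Set V, X ⊆ U → A.Closed X → X.Nonempty → X = U)
    (hU : A.Closed U) (hlink : ∀ v, A.Linked v) {K : Type*} (KK : Finset K) {N Q : K → Set ι}
    (hfill : ∀ k ∈ KK, Fills A (N k) (Q k)) (hNQ : ∀ k ∈ KK, N k ⊆ Q k)
    (hdis : ∀ k ∈ KK, ∀ k' ∈ KK, ∀ v e e', v ∈ A.ends e → v ∈ A.ends e' → Nr A (N k) e →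
      Nr A (N k') e' → k = k')
    {m : V} (hmU : m ∈ U) {em : E} (hme : m ∈ A.ends em) {qm : ι}
    (hqm : qm ∈ A.cells em) (hqmQ : ∀ k ∈ KK, qm ∉ Q k) {v : V} (hvU : v ∈ U) :
    Reach A {q | ∃ k ∈ KK, q ∈ N k} m v ∨
      ∃ k ∈ KK, ∀ e, v ∈ A.ends e → ∀ q ∈ A.cells e, q ∈ Q k := by
  classical
  set N0 : Set ι := {q | ∃ k ∈ KK, q ∈ N k} with hN0
  by_cases hvr : Reach A N0 m v
  · exact Or.inl hvr
  right
  let χ : A.Tile → ZMod 2 := fun f =>
    if A.cell f ∉ N0 ∧ ∃ e u, A.On f e ∧ u ∈ A.ends e ∧ Reach A N0 m u then 1 else 0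
  have hχ1 : ∀ f e u, A.cell f ∉ N0 → A.On f e → u ∈ A.ends e → Reach A N0 m u → χ f = 1 :=
    fun f e u h1 h2 h3 h4 => if_pos ⟨h1, e, u, h2, h3, h4⟩
  have hχ2 : ∀ f e u, χ f = 1 → A.On f e → u ∈ A.ends e → Reach A N0 m u := by
    intro f e u h1 h2 h3
    by_cases hh : A.cell f ∉ N0 ∧ ∃ e u, A.On f e ∧ u ∈ A.ends e ∧ Reach A N0 m u
    · obtain ⟨hN, e', u', h4, h5, h6⟩ := hh
      exact reach_tile hN h4 h2 h5 h3 h6
    · have : χ f = 0 := if_neg hh
      rw [this] at h1
      exact absurd h1 (by decide)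
  have hχ01 : ∀ f, χ f = 0 ∨ χ f = 1 := by
    intro f
    by_cases hh : A.cell f ∉ N0 ∧ ∃ e u, A.On f e ∧ u ∈ A.ends e ∧ Reach A N0 m u
    · exact Or.inr (if_pos hh)
    · exact Or.inl (if_neg hh)
  have hend : ∀ e, ∃ u, u ∈ A.ends e := by
    intro e
    induction h : A.ends e using Sym2.ind with
    | _ a b => exact ⟨a, Sym2.mem_mk_left _ _⟩
  let z : E → ZMod 2 := fun e => ∑ f, χ f * A.a f e
  have hz0 : ∀ e, z e = ∑ f, χ f * A.a f e := fun _ => rfl
  have hz1 : ∀ e, z e ≠ 0 → ∃ k ∈ KK, Nr A (N k) e := by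
    intro e he
    by_contra hcon
    apply he
    obtain ⟨f, g, hne, hcells, hall⟩ := A.exists_two e
    have h1 : z e = χ f + χ g := A.sum_a_mul e hne hall χ
    have hf : A.On f e := (hall f).2 (Or.inl rfl)
    have hg : A.On g e := (hall g).2 (Or.inr rfl)
    have hq : ∀ q ∈ A.cells e, q ∉ N0 := fun q hq ⟨k, hk, hqk⟩ => hcon ⟨k, hk, q, hq, hqk⟩
    have hfN := hq _ hf.cell_mem
    have hgN := hq _ hg.cell_mem
    obtain ⟨u, hu⟩ := hend e
    have h2 : χ f = χ g := by
      rcases hχ01 f with h0 | h0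
      · rcases hχ01 g with h3 | h3
        · rw [h0, h3]
        · rw [hχ1 f e u hfN hf hu (hχ2 g e u h3 hg hu), h3]
      · rw [h0, hχ1 g e u hgN hg hu (hχ2 f e u h0 hf hu)]
    rw [h1, h2, CharTwo.add_self_eq_zero]
  have hz2 : ∀ v, ∑ e, z e * A.b e v = 0 := by
    intro v
    have : ∑ e, z e * A.b e v = ∑ f, χ f * ∑ e, A.a f e * A.b e v := by
      simp only [z, Finset.sum_mul, Finset.mul_sum]
      rw [Finset.sum_comm]
      refine Finset.sum_congr rfl fun f _ => Finset.sum_congr rfl fun e _ => ?_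
      ring
    rw [this]
    refine Finset.sum_eq_zero fun f _ => ?_
    rw [A.sum_ab f v, mul_zero]
  -- the part of `z` near the blob `k`
  let zk : K → E → ZMod 2 := fun k e => if Nr A (N k) e then z e else 0
  have hzk1 : ∀ k e, Nr A (N k) e → zk k e = z e := fun k e h => if_pos h
  have hzk2 : ∀ k e, ¬ Nr A (N k) e → zk k e = 0 := fun k e h => if_neg h
  have hcyc : ∀ k ∈ KK, ∀ u, ∑ e, zk k e * A.b e u = 0 := by
    intro k hk u
    by_cases hex : ∃ e, Nr A (N k) e ∧ u ∈ A.ends e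
    · obtain ⟨e0, he0, hu0⟩ := hex
      rw [← hz2 u]
      refine Finset.sum_congr rfl fun e _ => ?_
      by_cases hu : u ∈ A.ends e
      · by_cases hze : z e = 0
        · by_cases hn : Nr A (N k) e
          · rw [hzk1 k e hn]
          · rw [hzk2 k e hn, hze]
        · obtain ⟨k', hk', hn'⟩ := hz1 e hze
          have := hdis k hk k' hk' u e0 e hu0 hu he0 hn'
          subst this
          rw [hzk1 k e hn']
      · rw [Pat.b_of_not hu, mul_zero, mul_zero]
    · refine Finset.sum_eq_zero fun e _ => ?_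
      by_cases hn : Nr A (N k) e
      · rw [Pat.b_of_not (fun hu => hex ⟨e, hn, hu⟩), mul_zero]
      · rw [hzk2 k e hn, zero_mul]
  have hsum : ∀ e, z e = ∑ k ∈ KK, zk k e := by
    intro e
    by_cases hze : z e = 0
    · rw [hze]
      symm
      refine Finset.sum_eq_zero fun k _ => ?_
      by_cases hn : Nr A (N k) e
      · rw [hzk1 k e hn, hze]
      · exact hzk2 k e hn
    · obtain ⟨k, hk, hn⟩ := hz1 e hze
      obtain ⟨u, hu⟩ := hend e
      rw [Finset.sum_eq_single_of_mem k hk, hzk1 k e hn]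
      intro k' hk' hne
      apply hzk2
      intro hn'
      exact hne (hdis k' hk' k hk u e e hu hu hn' hn)
  have hfills : ∀ k, ∃ w : A.Tile → ZMod 2, k ∈ KK → (∀ f, A.cell f ∉ Q k → w f = 0) ∧
      ∀ e, zk k e = ∑ f, w f * A.a f e := by
    intro k
    by_cases hk : k ∈ KK
    · obtain ⟨w, hw⟩ := hfill k hk (zk k)
        (fun e he => hzk2 k e fun ⟨q, hq, hqN⟩ => he q hq hqN) (hcyc k hk)
      exact ⟨w, fun _ => hw⟩
    · exact ⟨0, fun h => (hk h).elim⟩
  choose w hw using hfills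
  have hc : ∀ e, ∑ f, (χ f + ∑ k ∈ KK, w k f) * A.a f e = 0 := by
    intro e
    have h2 : ∑ f, (∑ k ∈ KK, w k f) * A.a f e = z e := by
      rw [hsum e]
      simp only [Finset.sum_mul]
      rw [Finset.sum_comm]
      exact Finset.sum_congr rfl fun k hk => ((hw k hk).2 e).symm
    have h3 : ∑ f, (χ f + ∑ k ∈ KK, w k f) * A.a f e = z e + z e := by
      have h1 : ∑ f, (χ f + ∑ k ∈ KK, w k f) * A.a f e =
          (∑ f, χ f * A.a f e) + ∑ f, (∑ k ∈ KK, w k f) * A.a f e := by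
        simp only [add_mul, Finset.sum_add_distrib]
      rw [h1, ← hz0 e, h2]
    rw [h3, CharTwo.add_self_eq_zero]
  -- a chord at `v`
  have hve : ∃ e, v ∈ A.ends e := by
    by_contra hcon
    push Not at hcon
    have h1 := hconn {v} (by intro x hx; rw [mem_singleton_iff.1 hx]; exact hvU)
      (fun e u hu u' _ hu1 => by
        rw [mem_singleton_iff] at hu1
        subst hu1
        exact (hcon e hu).elim) ⟨v, rfl⟩
    have h2 : m ∈ ({v} : Set V) := by rw [h1]; exact hmU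
    rw [mem_singleton_iff] at h2
    subst h2
    exact hvr Reach.base
  obtain ⟨e, hve⟩ := hve
  obtain ⟨q, hq⟩ : ∃ q, q ∈ A.cells e := by
    induction h : A.cells e using Sym2.ind with
    | _ a b => exact ⟨a, Sym2.mem_mk_left _ _⟩
  obtain ⟨fm, hfm, hfmq⟩ := A.exists_tile hqm
  obtain ⟨f, hf, hfq⟩ := A.exists_tile hq
  have h5 := const_of_closed (c := fun f => χ f + ∑ k ∈ KK, w k f) hconn hU hlink hc hfm hf hme hve
    hmU hvU
  have h6 : χ fm = 1 := hχ1 fm em m (by
    rw [hfmq]; rintro ⟨k, hk, hqk⟩; exact hqmQ k hk (hNQ k hk hqk)) hfm hme Reach.base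
  have h7 : ∑ k ∈ KK, w k fm = 0 := Finset.sum_eq_zero fun k hk =>
    (hw k hk).1 fm (by rw [hfmq]; exact hqmQ k hk)
  -- no tile at `v` has value 1
  have hχv : ∀ g e', A.On g e' → v ∈ A.ends e' → χ g = 0 := by
    intro g e' hg hv'
    rcases hχ01 g with h | h
    · exact h
    · exact (hvr (hχ2 g e' v h hg hv')).elim
  have h8 : ∑ k ∈ KK, w k f = 1 := by
    simp only [h6, h7, hχv f e hf hve, add_zero, zero_add] at h5
    exact h5.symm
  obtain ⟨k, hk, hwk⟩ : ∃ k ∈ KK, w k f ≠ 0 := by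
    by_contra hcon
    push Not at hcon
    rw [Finset.sum_eq_zero hcon] at h8
    exact absurd h8 (by decide)
  refine ⟨k, hk, fun e' hv' q' hq' => ?_⟩
  obtain ⟨g, hg, hgq⟩ := A.exists_tile hq'
  have h9 : g ∈ {t | w k t ≠ 0} := by
    refine (hlink v).link (X := {t | w k t ≠ 0}) ?_ hf hve hg hv' hwk
    intro e1 hv1 f1 g1 hf1 hg1 hX
    obtain ⟨t1, t2, hne, _, hall⟩ := A.exists_two e1
    have h10 : zk k e1 = w k t1 + w k t2 := by
      rw [(hw k hk).2 e1]; exact A.sum_a_mul e1 hne hall (w k)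
    have h11 : z e1 = χ t1 + χ t2 := A.sum_a_mul e1 hne hall χ
    have h12 : z e1 = 0 := by
      rw [h11, hχv t1 e1 ((hall t1).2 (Or.inl rfl)) hv1,
        hχv t2 e1 ((hall t2).2 (Or.inr rfl)) hv1, add_zero]
    have h13 : zk k e1 = 0 := by
      by_cases hn : Nr A (N k) e1
      · rw [hzk1 k e1 hn, h12]
      · exact hzk2 k e1 hn
    rw [h13] at h10
    have h14 : w k t1 = w k t2 := CharTwo.add_eq_zero.1 h10.symm
    have h15 : w k f1 = w k g1 := by
      rcases (hall f1).1 hf1 with rfl | rfl <;> rcases (hall g1).1 hg1 with rfl | rfl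
      · rfl
      · exact h14
      · exact h14.symm
      · rfl
    show w k g1 ≠ 0
    rw [← h15]
    exact hX
  by_contra hcon
  exact h9 ((hw k hk).1 g (by rw [hgq]; exact hcon))

end Crest.Agent.R096.Loc_965
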