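import Crest.Agent.R096.St1_147
import Crest.Agent.R096.Loc4_965

/-! Row 96, P1-LOC (helper965), part 5: one sheet over a mesh (points `P`, partners `mu`), its local
`H¹` near a blob, and the far part `far` with everything the state of P3/SEQ asks. -/

set_option autoImplicit false
set_option linter.unusedSectionVars false

open Set

namespace Crest.Agent.R096.Loc_965

open Crest.Agent.R096.Coh_184 Crest.Agent.R096.St_147

variable {ι Φ W : Type} {M : MeshC ι Φ W}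

/-- one sheet over the mesh `M`: crossing points `P` and partners -/
structure Sht (M : MeshC ι Φ W) where
  P : Finset W
  mu : Φ → W → W
  mu_mem : ∀ {F : Φ} {w : W}, w ∈ P → w ∈ M.On F → mu F w ∈ P ∧ mu F w ∈ M.On F
  mu_ne : ∀ {F : Φ} {w : W}, w ∈ P → w ∈ M.On F → mu F w ≠ w
  mu_mu : ∀ {F : Φ} {w : W}, w ∈ P → w ∈ M.On F → mu F (mu F w) = w

namespace Sht

variable (s : Sht M)

/-- local `H¹`: a function on the chords which is exact in every cell of `Q` is exact on the chords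
having a cell in `N` -/
def LocH1 (N Q : Set ι) : Prop :=
  ∀ κ : Φ → W → ZMod 2,
    (∀ q ∈ Q, ∃ ψ : W → ZMod 2, ∀ F w, q ∈ M.side F → w ∈ s.P → w ∈ M.On F →
      κ F w = ψ w + ψ (s.mu F w)) →
    ∃ Ψ : W → ZMod 2, ∀ F w, w ∈ s.P → w ∈ M.On F → (∃ q ∈ M.side F, q ∈ N) →
      κ F w = Ψ w + Ψ (s.mu F w)

/-- the sheet is connected -/
def Cn : Prop :=
  ∀ X : Set W, (∀ F w, w ∈ X → w ∈ s.P → w ∈ M.On F → s.mu F w ∈ X) →
    ∀ w ∈ X, w ∈ s.P → ∀ w' ∈ s.P, w' ∈ X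

/-- points of the sheet -/
abbrev V := {w // w ∈ s.P}

/-- being a chord -/
def IsCh (x : Φ × Sym2 s.V) : Prop :=
  ∃ (w : s.V) (h : w.1 ∈ M.On x.1), x.2 = s(w, ⟨s.mu x.1 w.1, (s.mu_mem w.2 h).1⟩)

/-- chords of the sheet -/
def Ch := {x : Φ × Sym2 s.V // s.IsCh x}

/-- the chord of the point `w` on the face `F` -/
def ch (F : Φ) (w : s.V) (h : w.1 ∈ M.On F) : s.Ch :=
  ⟨(F, s(w, ⟨s.mu F w.1, (s.mu_mem w.2 h).1⟩)), w, h, rfl⟩

variable {s}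

theorem ch_mu {F : Φ} {w : s.V} (h : w.1 ∈ M.On F) :
    s.ch F ⟨s.mu F w.1, (s.mu_mem w.2 h).1⟩ (s.mu_mem w.2 h).2 = s.ch F w h := by
  apply Subtype.ext
  show (F, _) = (F, _)
  congr 1
  rw [Sym2.eq_iff]
  right
  exact ⟨rfl, Subtype.ext (s.mu_mu w.2 h)⟩

/-- every chord containing `w` is the chord of `w` on its face -/
theorem eq_ch {e : s.Ch} {w : s.V} (hw : w ∈ e.1.2) : ∃ h : w.1 ∈ M.On e.1.1, e = s.ch e.1.1 w h := by
  obtain ⟨u, hu, hy⟩ := e.2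
  have he : e = s.ch e.1.1 u hu := Subtype.ext (Prod.ext rfl hy)
  rw [hy] at hw
  rcases Sym2.mem_iff.1 hw with rfl | rfl
  · exact ⟨hu, he⟩
  · exact ⟨(s.mu_mem u.2 hu).2, he.trans (ch_mu hu).symm⟩

theorem mem_ch {F : Φ} {w : s.V} (h : w.1 ∈ M.On F) : w ∈ (s.ch F w h).1.2 := Sym2.mem_mk_left _ _

theorem ch_inj {F F' : Φ} {w : s.V} {h : w.1 ∈ M.On F} {h' : w.1 ∈ M.On F'}
    (he : s.ch F w h = s.ch F' w h') : F = F' := congrArg (fun e : s.Ch => e.1.1) he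

instance : Finite s.Ch := by
  have h1 : ∀ w : s.V, Finite {F : Φ // w.1 ∈ M.On F} := fun w => M.fin w.1
  have h2 : Function.Surjective
      (fun x : (w : s.V) × {F : Φ // w.1 ∈ M.On F} => s.ch x.2.1 x.1 x.2.2) := by
    intro e
    obtain ⟨w, hw, h⟩ := e.2
    refine ⟨⟨w, e.1.1, hw⟩, ?_⟩
    apply Subtype.ext
    exact Prod.ext rfl h.symm
  exact Finite.of_surjective _ h2

noncomputable instance : Fintype s.Ch := Fintype.ofFinite _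

variable (s)

/-- the sheet pattern -/
def pat : Pat ι s.V s.Ch where
  cells := fun e => M.side e.1.1
  ends := fun e => e.1.2
  cells_nd := fun e => M.side_nd _
  ends_nd := by
    intro e
    obtain ⟨w, hw, h⟩ := e.2
    rw [h]
    intro hd
    have := Sym2.mk_isDiag_iff.1 hd
    exact s.mu_ne w.2 hw (congrArg Subtype.val this).symm
  deg := by
    intro q v
    have h1 : {e : s.Ch | q ∈ M.side e.1.1 ∧ v ∈ e.1.2}.ncard =
        {F | q ∈ M.side F ∧ v.1 ∈ M.On F}.ncard := by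
      symm
      refine Set.ncard_congr (fun F hF => s.ch F v hF.2) ?_ ?_ ?_
      · intro F hF
        exact ⟨hF.1, mem_ch hF.2⟩
      · intro F F' hF hF' he
        exact ch_inj he
      · intro e he
        obtain ⟨h, he'⟩ := eq_ch he.2
        exact ⟨e.1.1, ⟨he.1, h⟩, he'.symm⟩
    rw [h1]
    exact M.deg q v.1

theorem ends_ch {F : Φ} {w : s.V} (h : w.1 ∈ M.On F) :
    s.pat.ends (s.ch F w h) = s(w, ⟨s.mu F w.1, (s.mu_mem w.2 h).1⟩) := rfl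

theorem linked (v : s.V) : s.pat.Linked v := by
  intro X q hq ⟨e, hqe, hve⟩ hX q' ⟨e', hqe', hve'⟩
  obtain ⟨h, he⟩ := eq_ch hve
  obtain ⟨h', he'⟩ := eq_ch hve'
  refine M.link v.1 X ?_ e.1.1 h q hqe hq e'.1.1 h' q' hqe'
  intro F hF q1 hq1 q2 hq2 hq1X
  exact hX (s.ch F v hF) (mem_ch hF) q1 hq1 q2 hq2 hq1X

variable {s}

/-- local `H¹` implies local filling -/
theorem LocH1.fills {N Q : Set ι} (h : s.LocH1 N Q) : Fills s.pat N Q := by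
  classical
  intro z hz1 hz2
  refine homology_of_cohomology s.pat.a s.pat.b (fun f => s.pat.cell f ∈ Q)
    (fun e => Nr s.pat N e) (fun κ hκ => ?_) z ?_ hz2
  · have h1 : ∀ q ∈ Q, ∃ ψ : s.V → ZMod 2, ∀ e, q ∈ s.pat.cells e →
        κ e = ∑ v, s.pat.b e v * ψ v := fun q hq =>
      s.pat.exact_in_cell fun f hf => hκ f (by rw [hf]; exact hq)
    let κ' : Φ → W → ZMod 2 := fun F w =>
      if hh : ∃ h1 : w ∈ s.P, w ∈ M.On F then κ (s.ch F ⟨w, hh.1⟩ hh.2) else 0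
    have hκ' : ∀ F (w : s.V) (h : w.1 ∈ M.On F), κ' F w.1 = κ (s.ch F w h) := fun F w h =>
      dif_pos ⟨w.2, h⟩
    obtain ⟨Ψ, hΨ⟩ := h κ' (by
      intro q hq
      obtain ⟨ψ, hψ⟩ := h1 q hq
      refine ⟨fun w => if hw : w ∈ s.P then ψ ⟨w, hw⟩ else 0, fun F w hqF hw hwF => ?_⟩
      rw [hκ' F ⟨w, hw⟩ hwF, hψ (s.ch F ⟨w, hw⟩ hwF) hqF,
        s.pat.sum_b_mul _ (s.ends_ch (w := ⟨w, hw⟩) hwF)]
      simp only [dif_pos hw, dif_pos (s.mu_mem hw hwF).1])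
    refine ⟨fun v => Ψ v.1, fun e he => ?_⟩
    obtain ⟨w, hw, hw2⟩ := e.2
    have he2 : w ∈ e.1.2 := by rw [hw2]; exact Sym2.mem_mk_left _ _
    obtain ⟨h3, h4⟩ := eq_ch he2
    rw [h4, s.pat.sum_b_mul _ (s.ends_ch (w := w) h3), ← hκ' e.1.1 w h3]
    exact hΨ e.1.1 w.1 w.2 h3 he
  · intro e he
    exact hz1 e fun q hq hqN => he ⟨q, hq, hqN⟩

/-- reaching through chords with a cell outside `N`, in the language of the mesh -/
theorem reach_ind {N : Set ι} {m v : s.V} (h : Reach s.pat N m v) {X : Set W} (hm : m.1 ∈ X)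
    (hX : ∀ F (w : s.V), Reach s.pat N m w → w.1 ∈ M.On F → (∃ q ∈ M.side F, q ∉ N) → w.1 ∈ X →
      s.mu F w.1 ∈ X) : v.1 ∈ X := by
  induction h with
  | base => exact hm
  | @step v w e q h1 hv hw hq hqN ih =>
    obtain ⟨h3, h4⟩ := eq_ch hv
    have hw' : w ∈ s.pat.ends (s.ch e.1.1 v h3) := by rw [← h4]; exact hw
    rcases Sym2.mem_iff.1 hw' with rfl | rfl
    · exact ih
    · exact hX e.1.1 v h1 h3 ⟨q, hq, hqN⟩ ih

/-- THE FAR PART OF A SHEET.  `K` = finite set of blobs, `N k` = cells near the blob `k`,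
`Q k` = cells of its strip, `m` = a point on a face with a side outside all strips. -/
theorem far (hconn : s.Cn) {K : Type*} (KK : Finset K) {N Q : K → Set ι}
    (hloc : ∀ k ∈ KK, s.LocH1 (N k) (Q k)) (hNQ : ∀ k ∈ KK, N k ⊆ Q k)
    (hdis : ∀ k ∈ KK, ∀ k' ∈ KK, ∀ w ∈ s.P, ∀ F F', w ∈ M.On F → w ∈ M.On F' →
      ∀ q ∈ M.side F, ∀ q' ∈ M.side F', q ∈ N k → q' ∈ N k' → k = k')
    {m : W} (hm : m ∈ s.P) {Fm : Φ} (hmF : m ∈ M.On Fm) {qm : ι}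
    (hqm : qm ∈ M.side Fm) (hqmQ : ∀ k ∈ KK, qm ∉ Q k) :
    ∃ far : Set W, m ∈ far ∧ (∀ w ∈ far, w ∈ s.P) ∧
      (∀ w ∈ s.P, w ∉ far → ∃ k ∈ KK, ∀ F, w ∈ M.On F → ∀ q ∈ M.side F, q ∈ Q k) ∧
      (∀ F w, w ∈ far → w ∈ M.On F → (∃ q ∈ M.side F, ∀ k ∈ KK, q ∉ N k) → s.mu F w ∈ far) ∧
      (∀ X : Set W, (∀ F w, w ∈ X → w ∈ far → w ∈ M.On F → s.mu F w ∈ far →
        (∃ q ∈ M.side F, ∀ k ∈ KK, q ∉ N k) → s.mu F w ∈ X) → ∀ w ∈ X, w ∈ far → far ⊆ X) := by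
  classical
  set N0 : Set ι := {q | ∃ k ∈ KK, q ∈ N k} with hN0
  let m' : s.V := ⟨m, hm⟩
  have hN : ∀ F, (∃ q ∈ M.side F, ∀ k ∈ KK, q ∉ N k) ↔ ∃ q ∈ M.side F, q ∉ N0 := by
    intro F
    constructor
    · rintro ⟨q, hq, h⟩; exact ⟨q, hq, fun ⟨k, hk, h'⟩ => h k hk h'⟩
    · rintro ⟨q, hq, h⟩; exact ⟨q, hq, fun k hk h' => h ⟨k, hk, h'⟩⟩
  have hstep : ∀ F (w : s.V) (h : w.1 ∈ M.On F), Reach s.pat N0 m' w →
      (∃ q ∈ M.side F, q ∉ N0) → Reach s.pat N0 m' ⟨s.mu F w.1, (s.mu_mem w.2 h).1⟩ := by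
    intro F w h hr ⟨q, hq, hqN⟩
    exact hr.step (s.ch F w h) (Sym2.mem_mk_left _ _) (Sym2.mem_mk_right _ _) hq hqN
  refine ⟨{w | ∃ h : w ∈ s.P, Reach s.pat N0 m' ⟨w, h⟩}, ⟨hm, Reach.base⟩, fun w hw => hw.1,
    ?_, ?_, ?_⟩
  · intro w hw hwf
    have h1 := far_fam (A := s.pat) (U := univ) (fun X _ hX hne => ?_) (fun _ _ _ _ _ _ => trivial)
      s.linked KK (N := N) (Q := Q) (fun k hk => (hloc k hk).fills) hNQ ?_ (m := m') trivial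
      (em := s.ch Fm m' hmF) (mem_ch hmF) hqm hqmQ (v := ⟨w, hw⟩) trivial
    · rcases h1 with h1 | ⟨k, hk, h1⟩
      · exact (hwf ⟨hw, h1⟩).elim
      · exact ⟨k, hk, fun F hF q hq => h1 (s.ch F ⟨w, hw⟩ hF) (mem_ch hF) q hq⟩
    · obtain ⟨u, hu⟩ := hne
      rw [eq_univ_iff_forall]
      intro x
      have := hconn {y | ∃ h : y ∈ s.P, (⟨y, h⟩ : s.V) ∈ X} ?_ u.1 ⟨u.2, hu⟩ u.2 x.1 x.2
      · exact this.2
      · rintro F y ⟨hy, hyX⟩ _ hyF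
        exact ⟨(s.mu_mem hy hyF).1, hX (s.ch F ⟨y, hy⟩ hyF) ⟨y, hy⟩ (mem_ch hyF) _
          (Sym2.mem_mk_right _ _) hyX⟩
    · rintro k hk k' hk' v e e' hv hv' ⟨q, hq, hqN⟩ ⟨q', hq', hqN'⟩
      obtain ⟨h3, h4⟩ := eq_ch hv
      obtain ⟨h5, h6⟩ := eq_ch hv'
      exact hdis k hk k' hk' v.1 v.2 e.1.1 e'.1.1 h3 h5 q hq q' hq' hqN hqN'
  · rintro F w ⟨hw, hwr⟩ hwF hq
    exact ⟨(s.mu_mem hw hwF).1, hstep F ⟨w, hw⟩ hwF hwr ((hN F).1 hq)⟩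
  · intro X hX w hwX ⟨hw, hwr⟩ w' ⟨hw', hwr'⟩
    have h1 : Reach s.pat N0 ⟨w, hw⟩ ⟨w', hw'⟩ := Reach.trans hwr.symm hwr'
    refine reach_ind h1 hwX ?_
    intro F y hy hyF hq hyX
    have h2 : Reach s.pat N0 m' y := Reach.trans hwr hy
    exact hX F y.1 hyX ⟨y.2, h2⟩ hyF ⟨(s.mu_mem y.2 hyF).1, hstep F y hyF h2 hq⟩ ((hN F).2 hq)

end Sht

end Crest.Agent.R096.Loc_965
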