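import Mathlib
import Crest.Agent.R096.Agl7_543
import Crest.Agent.R096.Loc5_965

/-! # A-STATE 5 (row 96, helper543): relative `H1` of a sheet of the state (`LocH1` of 965) -/

set_option autoImplicit false

open Set Filter Topology Metric

namespace Crest.Agent.R096.Agl9_543

open Crest.Agent.R096.Msh_715 Crest.Agent.R096.Agl4_543 Crest.Agent.R096.Agl5_543
  Crest.Agent.R096.Agl6_543 Crest.Agent.R096.Agl7_543 Crest.Agent.R096.Loc_965
  Crest.Agent.R096.Pat5_543 Crest.Agent.R096.St_147 Crest.Agent.R096.Coh_184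

/-- one sheet of a state -/
noncomputable def stSht {ι Φ W : Type} {M : MeshC ι Φ W} {I : Type} {col : I → Bool}
    (s : St M col) (i : I) : Sht M := by
  classical
  exact
  { P := s.P.filter (fun w => s.lab w = i)
    mu := s.mu
    mu_mem := fun {F w} hw hF => by
      rw [Finset.mem_filter] at hw ⊢
      exact ⟨⟨(s.mu_mem hw.1 hF).1, by rw [s.mu_lab hw.1 hF]; exact hw.2⟩, (s.mu_mem hw.1 hF).2⟩
    mu_ne := fun hw hF => s.mu_ne (Finset.mem_filter.1 hw).1 hF
    mu_mu := fun hw hF => s.mu_mu (Finset.mem_filter.1 hw).1 hF }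

theorem mem_stSht {ι Φ W : Type} {M : MeshC ι Φ W} {I : Type} {col : I → Bool}
    {s : St M col} {i : I} {w : W} : w ∈ (stSht s i).P ↔ w ∈ s.P ∧ s.lab w = i := by
  classical
  exact Finset.mem_filter

/-- `H1` is `LocH1` for all cells -/
theorem H1_iff {ι Φ W : Type} {M : MeshC ι Φ W} {I : Type} {col : I → Bool}
    {s : St M col} {i : I} : s.H1 i ↔ (stSht s i).LocH1 univ univ := by
  constructor
  · intro h κ hκ
    obtain ⟨Ψ, hΨ⟩ := h κ (fun q => by
      obtain ⟨ψ, hψ⟩ := hκ q (mem_univ q)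
      exact ⟨ψ, fun F w hq hw hi => hψ F w hq (mem_stSht.2 ⟨hw.1, hi⟩) hw.2⟩)
    refine ⟨Ψ, fun F w hw hF _ => ?_⟩
    have := mem_stSht.1 hw
    exact hΨ F w ⟨this.1, hF⟩ this.2
  · intro h κ hκ
    obtain ⟨Ψ, hΨ⟩ := h κ (fun q _ => by
      obtain ⟨ψ, hψ⟩ := hκ q
      refine ⟨ψ, fun F w hq hw hF => ?_⟩
      have := mem_stSht.1 hw
      exact hψ F w hq ⟨this.1, hF⟩ this.2)
    refine ⟨Ψ, fun F w hw hi => hΨ F w (mem_stSht.2 ⟨hw.1, hi⟩) hw.2 ?_⟩
    induction hs : M.side F using Sym2.ind with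
    | _ x y => exact ⟨x, Sym2.mem_mk_left _ _, mem_univ _⟩

variable {E : Type} [NormedAddCommGroup E] [NormedSpace ℝ E] [FiniteDimensional ℝ E]
variable {Om : Set E} {ι : Type} {T : Tiling Om ι}
variable {I : Type} {u : I → E → ℝ} {c : I → ℝ} {S : I → Set E} {col : I → Bool}

/-- **relative exactness**: `S' ⊆ S i` compact with trivial torsors, `κ` exact in every tile
meeting `S'`: then `κ` is exact on the chords whose component lies in `S'`. -/
theorem Fam.relH1 [Nonempty I] (h : Fam T u c S col) (h3 : Module.finrank ℝ E = 3) (i : I)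
    {S' : Set E} (hS' : IsCompact S') (hsub : S' ⊆ S i) (ht : TrivF (ZMod 2) S') {Q : Set ι}
    (hQ : ∀ q, (S' ∩ Msh_715.P (T.H q)).Nonempty → q ∈ Q) (κ : C2 T → E → ZMod 2)
    (hκ : ∀ q ∈ Q, ∃ ψ : E → ZMod 2, ∀ (F : C2 T) (w : E), q ∈ F.side h3 → w ∈ h.pts →
      w ∈ F.On → labf S w = i → κ F w = ψ w + ψ (h.mu h3 F w)) :
    ∃ Ψ : E → ZMod 2, ∀ (F : C2 T) (w : E), w ∈ h.pts → w ∈ F.On → labf S w = i →
      connectedComponentIn (S i ∩ F.set) w ⊆ S' → κ F w = Ψ w + Ψ (h.mu h3 F w) := by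
  classical
  have hlev := h.lev i
  have hfinP := hlev.finite_P h3
  set P : Finset E := hfinP.toFinset with hP
  have memP : ∀ x, x ∈ P ↔ x ∈ S i ∧ T.dim x ≤ 1 := fun x => by
    rw [hP, hfinP.mem_toFinset]; rfl
  have hsh := hlev.sheetHyp h3 memP
  -- the cochain on pairs of tiles
  let κ2 : Sym2 ι → E → E → ZMod 2 := fun t p p' =>
    if hh : p ≠ p' ∧ ∃ F : C2 T, F.side h3 = t ∧ p ∈ P ∧ p ∈ F.On ∧ h.mu h3 F p = p' then
      κ hh.2.choose p else 0
  have hκ2 : ∀ (F : C2 T) (p : E), p ∈ P → p ∈ F.On →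
      κ2 (F.side h3) p (h.mu h3 F p) = κ F p := by
    intro F p hp hF
    have hp' : p ∈ h.pts := h.mem_pts.2 ⟨i, (memP p).1 hp⟩
    have hne : p ≠ h.mu h3 F p := (h.mu_spec h3 hp' hF).1.1.symm
    have hh : p ≠ h.mu h3 F p ∧ ∃ G : C2 T, G.side h3 = F.side h3 ∧ p ∈ P ∧ p ∈ G.On ∧
        h.mu h3 G p = h.mu h3 F p := ⟨hne, F, rfl, hp, hF, rfl⟩
    have e1 : κ2 (F.side h3) p (h.mu h3 F p) = κ hh.2.choose p := dif_pos hh
    rw [e1]
    have h5 := hh.2.choose_spec.1
    have h6 : hh.2.choose = F := by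
      obtain ⟨x, h7, -, h8⟩ := F.exists_side h3
      apply C2.ext
      have h9 : ∀ q q' : ι, F.side h3 = s(q, q') → (hh.2.choose).set = F.set := by
        intro q q' hqq
        rw [C2.set_inter hqq, C2.set_inter (h5.trans hqq)]
      exact h9 _ _ rfl
    rw [h6]
  choose! ψ hψ using hκ
  obtain ⟨Ψ, hΨ⟩ := coh' (A := ZMod 2) hS' ht hsh.closed (hsub.trans hsh.cov)
    (hsh.fin.subset fun q hq => hq.mono (inter_subset_inter_left _ hsub))
    (P := P.filter (fun x => x ∈ S'))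
    (fun x hx => (Finset.mem_filter.1 (Finset.mem_coe.1 hx)).2)
    (fun q q' q'' h1 h2 h4 x hx => by
      rw [Finset.mem_coe, Finset.mem_filter]
      exact ⟨hsh.trip q q' q'' h1 h2 h4 ⟨hsub hx.1, hx.2⟩, hx.1⟩)
    (κ := fun q q' p p' => κ2 s(q, q') p p')
    (fun q q' p p' => by
      show κ2 s(q', q) p p' = κ2 s(q, q') p p'
      rw [Sym2.eq_swap]) (ψ := ψ)
    (fun q q' p p' hch0 => by
      show ψ q p - ψ q p' = κ2 s(q, q') p p'
      have hqQ : q ∈ Q := hQ q ⟨p, hch0.mem.1, hch0.mem.2.1⟩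
      have hch : Chord (S i) (fun i => Msh_715.P (T.H i)) P q q' p p' :=
        hch0.mono hsub (Finset.filter_subset _ _)
      by_cases hpp : p = p'
      · subst hpp
        have e1 : κ2 s(q, q') p p = 0 := dif_neg fun h' => h'.1 rfl
        rw [e1, sub_self]
      · obtain ⟨x, hx, hd, hat, hcc⟩ := hlev.chord_cell h3 memP (Ne.symm hpp) hch
        set F : C2 T := mk2 T hx hd with hFdef
        have hFset : F.set = T.cc x := rfl
        have hFpt : F.pt ∈ T.oc x := T.pt_cl hx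
        have hp := (memP p).1 hch.left
        have hp' := (memP p').1 hch.right
        have hpO : p ∈ F.On := by
          refine ⟨by rw [hFset, hcc]; exact hch.mem.2, ?_⟩
          have := hlev.vert p hp.1
          have := hp.2
          omega
        have hpO' : p' ∈ F.On := by
          refine ⟨by rw [hFset, hcc]; exact hch.mem_right.2, ?_⟩
          have := hlev.vert p' hp'.1
          have := hp'.2
          omega
        have hpp' : p ∈ h.pts := h.mem_pts.2 ⟨i, hp⟩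
        have hlab : labf S p = i := h.lab_eq hp.1 hp.2
        have hmu : h.mu h3 F p = p' := by
          refine ((h.mu_spec h3 hpp' hpO).2 p' (Ne.symm hpp) (by rw [hlab]; exact hp'.1) hpO'
            ?_).symm
          rw [hlab, hFset, hcc]
          exact hch.conn
        have hside : F.side h3 = s(q, q') := by
          have h6 : ∀ m, m ∈ F.side h3 ↔ m = q ∨ m = q' := by
            intro m
            rw [C2.mem_side, T.at_eq_of_mem_oc hx hFpt, hat]
            rfl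
          refine ((Sym2.mem_and_mem_iff hch.ne).1 ⟨(h6 q).2 (Or.inl rfl), (h6 q').2 (Or.inr rfl)⟩)
        have h7 := hκ2 F p hch.left hpO
        rw [hside, hmu] at h7
        rw [h7]
        have h8 := hψ q hqQ F p (by rw [hside]; exact Sym2.mem_mk_left _ _) hpp' hpO hlab
        rw [h8, hmu, CharTwo.sub_eq_add])
  refine ⟨Ψ, ?_⟩
  intro F w hw1 hw2 hi' hcS
  have hs := (h.mu_spec h3 hw1 hw2).1
  rw [hi'] at hs
  have hwS : w ∈ S i := by
    have := h.mem_lab hw1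
    rwa [hi'] at this
  obtain ⟨x, h7, h8, h9⟩ := F.exists_side h3
  have hside : F.side h3 = s(x.1, x.2) := by
    refine ((Sym2.mem_and_mem_iff h7).1 ⟨?_, ?_⟩)
    · rw [C2.mem_side, h8]; exact Or.inl rfl
    · rw [C2.mem_side, h8]; exact Or.inr rfl
  have hwP : w ∈ P := (memP w).2 ⟨hwS, hw2.2.le⟩
  have hch : Chord (S i) (fun i => Msh_715.P (T.H i)) P x.1 x.2 w (h.mu h3 F w) := by
    refine ⟨h7, hwP, (memP _).2 ⟨hs.2.1.1, hs.2.1.2.2.le⟩, ?_, ?_⟩
    · refine ⟨hwS, ?_⟩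
      rw [← h9]; exact hw2.1
    · rw [← h9]; exact hs.2.2
  have hch' : Chord S' (fun i => Msh_715.P (T.H i)) (P.filter (fun x => x ∈ S')) x.1 x.2 w
      (h.mu h3 F w) := by
    refine hch.restrict ?_ fun y hy hy' => Finset.mem_filter.2 ⟨hy, hy'⟩
    show connectedComponentIn (S i ∩ (Msh_715.P (T.H x.1) ∩ Msh_715.P (T.H x.2))) w ⊆ S'
    rw [← h9]
    exact hcS
  have h10 := hΨ x.1 x.2 w (h.mu h3 F w) hch'
  have h11 := hκ2 F w hwP hw2
  rw [hside] at h11
  have h12 : Ψ w - Ψ (h.mu h3 F w) = κ2 s(x.1, x.2) w (h.mu h3 F w) := h10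
  rw [h11, CharTwo.sub_eq_add] at h12
  exact h12.symm

/-- **965's local `H1`** of a sheet of the state -/
theorem Fam.locH1 [Nonempty I] (h : Fam T u c S col) (h3 : Module.finrank ℝ E = 3) (i : I)
    {S' : Set E} (hS' : IsCompact S') (hsub : S' ⊆ S i) (ht : TrivF (ZMod 2) S') {N Q : Set ι}
    (hQ : ∀ q, (S' ∩ Msh_715.P (T.H q)).Nonempty → q ∈ Q)
    (hN : ∀ (F : C2 T) (w : E), w ∈ S i → w ∈ F.On → (∃ q ∈ F.side h3, q ∈ N) →
      connectedComponentIn (S i ∩ F.set) w ⊆ S') :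
    (stSht (h.st h3) i).LocH1 N Q := by
  intro κ hκ
  obtain ⟨Ψ, hΨ⟩ := Fam.relH1 h h3 i hS' hsub ht hQ κ (fun q hq => by
    obtain ⟨ψ, hψ⟩ := hκ q hq
    exact ⟨ψ, fun F w hqF hw hF hi => hψ F w hqF (mem_stSht.2 ⟨hw, hi⟩) hF⟩)
  refine ⟨Ψ, fun F w hw hF hq => ?_⟩
  have hw' := mem_stSht.1 hw
  have hwS : w ∈ S i := by
    have := h.mem_lab (show w ∈ h.pts from hw'.1)
    have h2 : labf S w = i := hw'.2
    rwa [h2] at this
  exact hΨ F w hw'.1 hF hw'.2 (hN F w hwS hF hq)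

end Crest.Agent.R096.Agl9_543
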