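import Crest.Agent.R096.Seq2_213

/-!
# R096 / SEQ, part 3: one step of the sequence (apply `P3` to the quad `k`)
-/

set_option autoImplicit false

namespace Crest.Agent.R096.Seq_213
open Crest.Agent.R096.St_147 Crest.Agent.R096.St_147.St

variable {ι Φ W J C K : Type} {M : MeshC ι Φ W} {fam : J → C}

namespace GSt

/-- marked points for the quad `k` -/
def farK (s : GSt M fam) (Q : Quads ι C K) (far : J → Set W) (k : K) : Q.Nm fam k → Set W :=
  fun i => {w | w ∈ s.P ∧ s.lab w = i.1 ∧ (w ∈ far i.1 ∨ ¬ Int M (Q.Act k) w)}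

theorem int_inner {A : Set ι} {w : W} (h : Int M A w) {F : Φ} (hF : w ∈ M.On F) : Inner M A F :=
  h.2 F hF

/-- **the restricted state is good** -/
theorem Inv.good {s : GSt M fam} {Q : Quads ι C K} {far : J → Set W} (hI : s.Inv Q far) (k : K)
    (i0 : Q.Nm fam k) : (s.res Q k i0).Good (Q.Act k) (s.farK Q far k) where
  h1 := fun i => res_H1 i (hI.h1 i.1)
  conn := fun i => res_Conn i (hI.conn i.1)
  far_mem := by
    rintro i w ⟨h1, h2, _⟩
    have hin : Q.In k (fam (s.lab w)) := by rw [h2]; exact i.2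
    exact ⟨mem_res.2 ⟨h1, hin⟩, (res_lab_iff hin).2 h2⟩
  far_ne := by
    intro i
    obtain ⟨w, hw⟩ := hI.far_ne i.1
    obtain ⟨h1, h2⟩ := hI.far_mem hw
    exact ⟨w, h1, h2, Or.inl hw⟩
  far_frozen := by
    intro F w hw hF
    obtain ⟨h1, h2⟩ := res_at.1 hw
    rw [res_lab h2]
    exact ⟨h1.1, rfl, Or.inr (fun h => not_inner.2 hF (int_inner h h1.2))⟩
  far_conn := by
    intro i X hX w₁ hw₁ hw₁f
    classical
    -- allowed chords
    let R : W → W → Prop := fun u v => ∃ F, s.At F u ∧ s.lab u = i.1 ∧ v = s.mu F u ∧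
      u ∈ s.farK Q far k i ∧ v ∈ s.farK Q far k i ∧
      ((s.res Q k i0).Free F u ∨ Frozen M (Q.Act k) F)
    have Rsymm : ∀ u v, R u v → R v u := by
      rintro u v ⟨F, h1, h2, rfl, h3, h4, h5⟩
      have hm := s.mu_mem h1.1 h1.2
      refine ⟨F, ⟨hm.1, hm.2⟩, by rw [s.mu_lab h1.1 h1.2]; exact h2, (s.mu_mu h1.1 h1.2).symm,
        h4, h3, ?_⟩
      rcases h5 with h5 | h5
      · left
        have hin : Q.In k (fam (s.lab u)) := by rw [h2]; exact i.2
        have hin' : Q.In k (fam (s.lab (s.mu F u))) := by rw [s.mu_lab h1.1 h1.2]; exact hin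
        rw [res_free ⟨hm.1, hm.2⟩ hin']
        rw [res_free h1 hin] at h5
        intro x hx hxin hne
        rw [s.mu_lab h1.1 h1.2] at hne
        rw [s.mu_mu h1.1 h1.2, lace_swap_left]
        exact h5 x hx hxin hne
      · right; exact h5
    have RX : ∀ u v, R u v → u ∈ X → v ∈ X := by
      rintro u v ⟨F, h1, h2, rfl, h3, h4, h5⟩ hu
      have hin : Q.In k (fam (s.lab u)) := by rw [h2]; exact i.2
      exact hX F u hu h3 (res_at.2 ⟨h1, hin⟩) h4 h5
    have RTX : ∀ u v, Relation.ReflTransGen R u v → u ∈ X → v ∈ X := by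
      intro u v h hu
      induction h with
      | refl => exact hu
      | tail _ h2 ih => exact RX _ _ h2 ih
    have RTsymm : ∀ u v, Relation.ReflTransGen R u v → Relation.ReflTransGen R v u := by
      intro u v h
      induction h with
      | refl => exact Relation.ReflTransGen.refl
      | tail _ h2 ih => exact Relation.ReflTransGen.head (Rsymm _ _ h2) ih
    -- every marked point is joined to a point of `far`
    have toFar : ∀ v ∈ s.farK Q far k i, ∃ v0 ∈ far i.1, Relation.ReflTransGen R v v0 := by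
      intro v hv
      by_contra hcon
      push Not at hcon
      have hall := (hI.conn i.1).2 {u | u ∈ s.farK Q far k i ∧ Relation.ReflTransGen R v u} ?_ v
        ⟨hv, Relation.ReflTransGen.refl⟩ hv.1 hv.2.1
      · obtain ⟨w0, hw0⟩ := hI.far_ne i.1
        obtain ⟨h1, h2⟩ := hI.far_mem hw0
        exact hcon w0 hw0 (hall w0 h1 h2).2
      · rintro F u ⟨hu1, hu2⟩ hat hul
        have hunf : u ∉ far i.1 := fun h => hcon u h hu2
        have hloc := hI.loc hu1.1
        rw [hul] at hloc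
        obtain ⟨l, hl1, hl2⟩ := hloc.resolve_left hunf
        have hlk : l ≠ k := by
          rintro rfl
          exact (hu1.2.2.resolve_left hunf) hl2
        have hFl : Inner M (Q.Act l) F := int_inner hl2 hat.2
        have hFk : Frozen M (Q.Act k) F := Q.frozen_of_inner hlk hFl
        have hm := s.mu_mem hat.1 hat.2
        have hmf : s.mu F u ∈ s.farK Q far k i := by
          refine ⟨hm.1, by rw [s.mu_lab hat.1 hat.2]; exact hul, Or.inr (fun h => ?_)⟩
          exact not_inner.2 hFk (int_inner h hm.2)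
        exact ⟨hmf, hu2.tail ⟨F, hat, hul, rfl, hu1, hmf, Or.inr hFk⟩⟩
    -- points of `far` are joined
    have farFar : ∀ v ∈ far i.1, ∀ v' ∈ far i.1, Relation.ReflTransGen R v v' := by
      intro v hv v' hv'
      have hfk : ∀ u, u ∈ far i.1 → u ∈ s.farK Q far k i := by
        intro u hu
        obtain ⟨h1, h2⟩ := hI.far_mem hu
        exact ⟨h1, h2, Or.inl hu⟩
      refine (hI.gc i.1 {u | Relation.ReflTransGen R v u} ?_ v Relation.ReflTransGen.refl hv) hv'
      intro F u hu1 hu2 hat hmf hok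
      have hul := (hI.far_mem hu2).2
      refine Relation.ReflTransGen.tail hu1 ⟨F, hat, hul, rfl, hfk u hu2, hfk _ hmf, ?_⟩
      by_cases hF : Frozen M (Q.Act k) F
      · exact Or.inr hF
      · left
        have hin : Q.In k (fam (s.lab u)) := by rw [hul]; exact i.2
        rw [res_free hat hin]
        exact hok k hin (not_frozen.1 hF)
    obtain ⟨a, ha, ha2⟩ := toFar w₁ hw₁f
    intro v hv
    obtain ⟨b, hb, hb2⟩ := toFar v hv
    exact RTX _ _ ((ha2.trans (farFar a ha b hb)).trans (RTsymm _ _ hb2)) hw₁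

/-- one step at the quad `k` -/
structure Step (Q : Quads ι C K) (far : J → Set W) (k : K) (s s' : GSt M fam) : Prop where
  P_sub : s'.P ⊆ s.P
  off : ∀ {w}, w ∈ s.P → ¬ Q.In k (fam (s.lab w)) →
    w ∈ s'.P ∧ s'.lab w = s.lab w ∧ ∀ F, s'.mu F w = s.mu F w
  inn : ∀ {w}, w ∈ s'.P → (Q.In k (fam (s'.lab w)) ↔ Q.In k (fam (s.lab w)))
  frozen : ∀ {F w}, Frozen M (Q.Act k) F → w ∈ M.On F → (w ∈ s'.P ↔ w ∈ s.P) ∧
    (w ∈ s.P → s'.lab w = s.lab w ∧ s'.mu F w = s.mu F w)
  cross : ∀ {F w x}, s'.At F w → s'.At F x → fam (s'.lab w) ≠ fam (s'.lab x) →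
    M.Lace F w (s'.mu F w) x (s'.mu F x) → ∃ w' x', s.At F w' ∧ s.At F x' ∧
      s.lab w' = s'.lab w ∧ s.lab x' = s'.lab x ∧ M.Lace F w' (s.mu F w') x' (s.mu F x')
  ok : ∀ {F u}, s.At F u → u ∈ far (s.lab u) → s.mu F u ∈ far (s.lab u) → s.OK Q F u →
    s'.mu F u = s.mu F u ∧ s'.OK Q F u

/-- **One step.** -/
theorem Inv.step (hP3 : P3) {s : GSt M fam} {Q : Quads ι C K} {far : J → Set W}
    (hI : s.Inv Q far) (k : K) (i0 : Q.Nm fam k) :
    ∃ s' : GSt M fam, Step Q far k s s' ∧ s'.Inv Q far ∧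
      ∀ i1, NoClosed (s'.res Q k i1) (Q.Act k) := by
  classical
  obtain ⟨t, hgood, htP, htF, htM, htFree, htD, htN⟩ :=
    hP3 ι Φ W (Q.Nm fam k) M (Q.cl fam k) (Q.Act k) (Q.fin k) (s.res Q k i0) (s.farK Q far k)
      (hI.good k i0)
  have htlab : ∀ {w}, w ∈ t.P → (w ∈ far (s.lab w) ∨ ¬ Int M (Q.Act k) w) →
      (t.lab w).1 = s.lab w := by
    intro w hw hf
    obtain ⟨h1, h2⟩ := mem_res.1 (htP hw)
    have : w ∈ s.farK Q far k ⟨s.lab w, h2⟩ := ⟨h1, rfl, hf⟩
    rw [(hgood.far_mem this).2]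
  have htmem : ∀ {w}, w ∈ s.P → Q.In k (fam (s.lab w)) →
      (w ∈ far (s.lab w) ∨ ¬ Int M (Q.Act k) w) → w ∈ t.P := by
    intro w h1 h2 hf
    exact (hgood.far_mem (i := ⟨s.lab w, h2⟩) ⟨h1, rfl, hf⟩).1
  have hnotint : ∀ {F w}, Frozen M (Q.Act k) F → w ∈ M.On F → ¬ Int M (Q.Act k) w := by
    intro F w hF hw h
    exact not_inner.2 hF (int_inner h hw)
  set g : GSt M fam := s.glue Q k i0 t htP with hg
  -- frozen faces
  have hfrozen : ∀ {F w}, Frozen M (Q.Act k) F → w ∈ M.On F → (w ∈ g.P ↔ w ∈ s.P) ∧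
      (w ∈ s.P → g.lab w = s.lab w ∧ g.mu F w = s.mu F w) := by
    intro F w hF hw
    refine ⟨⟨fun h => glue_sub h, fun h => ?_⟩, fun h => ?_⟩
    · by_cases hin : Q.In k (fam (s.lab w))
      · exact mem_glue.2 (Or.inr (htmem h hin (Or.inr (hnotint hF hw))))
      · exact mem_glue.2 (Or.inl ⟨h, hin⟩)
    · by_cases hwt : w ∈ t.P
      · rw [hg, glue_lab_pos hwt, glue_mu_pos hwt, htlab hwt (Or.inr (hnotint hF hw))]
        refine ⟨rfl, ?_⟩
        have := htM F w hF ⟨htP hwt, hw⟩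
        rw [this, res_mu]
      · rw [hg, glue_lab_neg hwt, glue_mu_neg hwt]
        exact ⟨rfl, rfl⟩
  have hoff : ∀ {w}, w ∈ s.P → ¬ Q.In k (fam (s.lab w)) →
      w ∈ g.P ∧ g.lab w = s.lab w ∧ ∀ F, g.mu F w = s.mu F w := by
    intro w h1 h2
    have hwt : w ∉ t.P := fun h => h2 (mem_res.1 (htP h)).2
    refine ⟨mem_glue.2 (Or.inl ⟨h1, h2⟩), ?_, fun F => ?_⟩
    · rw [hg, glue_lab_neg hwt]
    · rw [hg, glue_mu_neg hwt]
  have hinn : ∀ {w}, w ∈ g.P → (Q.In k (fam (g.lab w)) ↔ Q.In k (fam (s.lab w))) := by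
    intro w hw
    by_cases hwt : w ∈ t.P
    · rw [hg, glue_lab_pos hwt]
      exact ⟨fun _ => (mem_res.1 (htP hwt)).2, fun _ => (t.lab w).2⟩
    · rw [hg, glue_lab_neg hwt]
  -- the invariant
  have honly : ∀ {l F w}, g.At F w → Inner M (Q.Act l) F → Q.In l (fam (g.lab w)) := by
    intro l F w hw hF
    by_cases hlk : l = k
    · subst hlk
      rw [hinn hw.1]
      exact hI.only ⟨glue_sub hw.1, hw.2⟩ hF
    · have hFk := Q.frozen_of_inner hlk hF
      rw [((hfrozen hFk hw.2).2 (glue_sub hw.1)).1]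
      exact hI.only ⟨glue_sub hw.1, hw.2⟩ hF
  have hfarmem : ∀ {j w}, w ∈ far j → w ∈ g.P ∧ g.lab w = j := by
    intro j w hw
    obtain ⟨h1, h2⟩ := hI.far_mem hw
    by_cases hin : Q.In k (fam (s.lab w))
    · have hwf : w ∈ far (s.lab w) := by rw [h2]; exact hw
      have hwt := htmem h1 hin (Or.inl hwf)
      refine ⟨mem_glue.2 (Or.inr hwt), ?_⟩
      rw [hg, glue_lab_pos hwt, htlab hwt (Or.inl hwf), h2]
    · obtain ⟨h3, h4, _⟩ := hoff h1 hin
      exact ⟨h3, h4.trans h2⟩
  have hfree : ∀ {F u} , s.At F u → u ∈ far (s.lab u) → s.mu F u ∈ far (s.lab u) → s.OK Q F u →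
      g.mu F u = s.mu F u ∧ g.OK Q F u := by
    intro F u hat hu1 hu2 hok
    have hgl := (hfarmem hu1).2
    have hgP := (hfarmem hu1).1
    have hmu : g.mu F u = s.mu F u := by
      by_cases hin : Q.In k (fam (s.lab u))
      · have hut := htmem hat.1 hin (Or.inl hu1)
        by_cases hF : Frozen M (Q.Act k) F
        · exact ((hfrozen hF hat.2).2 hat.1).2
        · have hfr : (s.res Q k i0).Free F u := (res_free hat hin).2 (hok k hin (not_frozen.1 hF))
          have := (htFree F u (res_at.2 ⟨hat, hin⟩) ?_ ?_ hfr).1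
          · rw [hg, glue_mu_pos hut, this, res_mu]
          · rw [res_lab hin]
            exact ⟨hat.1, rfl, Or.inl hu1⟩
          · rw [res_lab hin, res_mu]
            exact ⟨(s.mu_mem hat.1 hat.2).1, s.mu_lab hat.1 hat.2, Or.inl hu2⟩
      · exact (hoff hat.1 hin).2.2 F
    refine ⟨hmu, ?_⟩
    intro l hl hFl x hx hxin hne
    rw [hgl] at hl hne
    by_cases hlk : l = k
    · subst hlk
      have hut := htmem hat.1 hl (Or.inl hu1)
      have hfr : (s.res Q l i0).Free F u := (res_free hat hl).2 (hok l hl hFl)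
      have h2 := (htFree F u (res_at.2 ⟨hat, hl⟩) (by
        rw [res_lab hl]; exact ⟨hat.1, rfl, Or.inl hu1⟩) (by
        rw [res_lab hl, res_mu]
        exact ⟨(s.mu_mem hat.1 hat.2).1, s.mu_lab hat.1 hat.2, Or.inl hu2⟩) hfr).2
      have hxt : x ∈ t.P := (glue_in hx.1).1 hxin
      rw [free_iff t ⟨hut, hat.2⟩] at h2
      have h3 := h2 x ⟨hxt, hx.2⟩ ?_
      · rw [hg, glue_mu_pos hut, glue_mu_pos hxt]
        exact h3
      · rw [Ne, Q.cl_eq_iff]
        rw [hg, glue_lab_pos hxt] at hne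
        rw [htlab hut (Or.inl hu1)]
        exact hne
    · have hFk := Q.frozen_of_inner hlk hFl
      have hxs : x ∈ s.P := glue_sub hx.1
      obtain ⟨hxl, hxm⟩ := (hfrozen hFk hx.2).2 hxs
      rw [hxl] at hxin hne
      rw [hmu, hxm]
      exact hok l hl hFl x ⟨hxs, hx.2⟩ hxin hne
  have hInv : g.Inv Q far := by
    refine ⟨?_, ?_, hfarmem, hI.far_ne, honly, ?_, ?_⟩
    · -- H1
      intro j
      by_cases hj : Q.In k (fam j)
      · intro κ hκ
        obtain ⟨Ψ, hΨ⟩ := hgood.h1 ⟨j, hj⟩ κ (fun q => by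
          obtain ⟨ψ, hψ⟩ := hκ q
          refine ⟨ψ, fun F w hq hw hl => ?_⟩
          have := hψ F w hq ⟨mem_glue.2 (Or.inr hw.1), hw.2⟩ (by
            rw [hg, glue_lab_pos hw.1, hl])
          rw [this, hg, glue_mu_pos hw.1])
        refine ⟨Ψ, fun F w hw hl => ?_⟩
        have hwt : w ∈ t.P := (glue_in hw.1).1 (by
          show Q.In k (fam (g.lab w)); rw [hl]; exact hj)
        rw [hg, glue_lab_pos hwt] at hl
        rw [hΨ F w ⟨hwt, hw.2⟩ (Subtype.ext hl), hg, glue_mu_pos hwt]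
      · intro κ hκ
        obtain ⟨Ψ, hΨ⟩ := hI.h1 j κ (fun q => by
          obtain ⟨ψ, hψ⟩ := hκ q
          refine ⟨ψ, fun F w hq hw hl => ?_⟩
          obtain ⟨h3, h4, h5⟩ := hoff hw.1 (by rw [hl]; exact hj)
          rw [hψ F w hq ⟨h3, hw.2⟩ (h4.trans hl), h5])
        refine ⟨Ψ, fun F w hw hl => ?_⟩
        have hws : w ∈ s.P := glue_sub hw.1
        have hin : ¬ Q.In k (fam (s.lab w)) := by
          rw [← hinn hw.1, hl]; exact hj
        obtain ⟨h3, h4, h5⟩ := hoff hws hin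
        rw [hΨ F w ⟨hws, hw.2⟩ (h4.symm.trans hl), h5]
    · -- Conn
      intro j
      refine ⟨?_, ?_⟩
      · obtain ⟨w, hw⟩ := hI.far_ne j
        exact ⟨w, (hfarmem hw).1, (hfarmem hw).2⟩
      · intro X hX a ha haP hal b hbP hbl
        by_cases hj : Q.In k (fam j)
        · have hat : a ∈ t.P := (glue_in haP).1 (by
            show Q.In k (fam (g.lab a)); rw [hal]; exact hj)
          have hbt : b ∈ t.P := (glue_in hbP).1 (by
            show Q.In k (fam (g.lab b)); rw [hbl]; exact hj)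
          rw [hg, glue_lab_pos hat] at hal
          rw [hg, glue_lab_pos hbt] at hbl
          refine (hgood.conn ⟨j, hj⟩).2 X ?_ a ha hat (Subtype.ext hal) b hbt (Subtype.ext hbl)
          intro F u hu hut hul
          have := hX F u hu ⟨mem_glue.2 (Or.inr hut.1), hut.2⟩ (by
            rw [hg, glue_lab_pos hut.1, hul])
          rw [hg, glue_mu_pos hut.1] at this
          exact this
        · have has : ¬ Q.In k (fam (s.lab a)) := by rw [← hinn haP, hal]; exact hj
          have hbs : ¬ Q.In k (fam (s.lab b)) := by rw [← hinn hbP, hbl]; exact hj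
          have ha4 := (hoff (glue_sub haP) has).2.1
          have hb4 := (hoff (glue_sub hbP) hbs).2.1
          refine (hI.conn j).2 X ?_ a ha (glue_sub haP) (ha4.symm.trans hal) b (glue_sub hbP)
            (hb4.symm.trans hbl)
          intro F u hu hut hul
          obtain ⟨h3, h4, h5⟩ := hoff hut.1 (by rw [hul]; exact hj)
          have := hX F u hu ⟨h3, hut.2⟩ (h4.trans hul)
          rw [h5] at this
          exact this
    · -- loc
      intro w hw
      have hws : w ∈ s.P := glue_sub hw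
      by_cases hin : Q.In k (fam (s.lab w))
      · have hwt : w ∈ t.P := (glue_in hw).1 ((hinn hw).2 hin)
        by_cases hint : Int M (Q.Act k) w
        · exact Or.inr ⟨k, (hinn hw).2 hin, hint⟩
        · have hl : g.lab w = s.lab w := by
            rw [hg, glue_lab_pos hwt, htlab hwt (Or.inr hint)]
          rw [hl]
          exact hI.loc hws
      · rw [(hoff hws hin).2.1]
        exact hI.loc hws
    · -- gc
      intro j X hX w hw hwf
      refine hI.gc j X ?_ w hw hwf
      intro F u hu huf hat huf' hok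
      have hul := (hI.far_mem huf).2
      obtain ⟨h1, h2⟩ := hfree hat (by rw [hul]; exact huf) (by rw [hul]; exact huf') hok
      have := hX F u hu huf ⟨(hfarmem huf).1, hat.2⟩ (by rw [h1]; exact huf') h2
      rw [h1] at this
      exact this
  refine ⟨g, ⟨glue_sub, hoff, hinn, hfrozen, ?_, hfree⟩, hInv, ?_⟩
  · -- crossings
    intro F w x hw hx hne hl
    by_cases hF : Frozen M (Q.Act k) F
    · obtain ⟨h1, h2⟩ := (hfrozen hF hw.2).2 (glue_sub hw.1)
      obtain ⟨h3, h4⟩ := (hfrozen hF hx.2).2 (glue_sub hx.1)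
      refine ⟨w, x, ⟨glue_sub hw.1, hw.2⟩, ⟨glue_sub hx.1, hx.2⟩, h1.symm, h3.symm, ?_⟩
      rw [← h2, ← h4]; exact hl
    · have hFi := not_frozen.1 hF
      have hwt : w ∈ t.P := (glue_in hw.1).1 (honly hw hFi)
      have hxt : x ∈ t.P := (glue_in hx.1).1 (honly hx hFi)
      rw [hg, glue_mu_pos hwt, glue_mu_pos hxt] at hl
      rw [hg, glue_lab_pos hwt, glue_lab_pos hxt] at hne ⊢
      have hc : Q.cl fam k (t.lab x) ≠ Q.cl fam k (t.lab w) := by
        rw [Ne, Q.cl_eq_iff]; exact fun e => hne e.symm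
      obtain ⟨z, hz1, hz2, hz3⟩ := exists_dbl t ⟨hwt, hw.2⟩ ⟨hxt, hx.2⟩ hc hl
      obtain ⟨z0, h1, h2⟩ := htD z
      have hA := res_at.1 (z0.at_ (Q.cl fam k (t.lab w)))
      have hB := res_at.1 (z0.at_ (Q.cl fam k (t.lab x)))
      have hzF : z0.F = F := h1.trans hz1
      have e1 := h2 (Q.cl fam k (t.lab w))
      have e2 := h2 (Q.cl fam k (t.lab x))
      rw [hz2, lo_lab t ⟨hwt, hw.2⟩, res_lab hA.2] at e1
      rw [hz3, lo_lab t ⟨hxt, hx.2⟩, res_lab hB.2] at e2
      refine ⟨z0.e (Q.cl fam k (t.lab w)), z0.e (Q.cl fam k (t.lab x)), ?_, ?_, ?_, ?_, ?_⟩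
      · rw [← hzF]; exact hA.1
      · rw [← hzF]; exact hB.1
      · exact congrArg Subtype.val e1
      · exact congrArg Subtype.val e2
      · have hlace := z0.lace
        have hne2 : (s.res Q k i0).lab (z0.e true) ≠ (s.res Q k i0).lab (z0.e false) := by
          intro e
          have a1 := z0.colr true
          have a2 := z0.colr false
          rw [e, a2] at a1
          exact absurd a1 (by simp)
        have hlace2 := lace_comm (s.res Q k i0) (z0.at_ true) (z0.at_ false) hne2 hlace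
        rw [hzF] at hlace hlace2
        cases hcw : Q.cl fam k (t.lab w) with
        | true =>
          have hcx : Q.cl fam k (t.lab x) = false := by
            rw [hcw] at hc; simpa using hc
          rw [hcx]; exact hlace
        | false =>
          have hcx : Q.cl fam k (t.lab x) = true := by
            rw [hcw] at hc; simpa using hc
          rw [hcx]; exact hlace2
  · intro i1
    exact (glue_agr i1 (Q.Act k)).noClosed htN

/-- a step at `k` does not change what the other quads see -/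
theorem Step.noClosed {Q : Quads ι C K} {far : J → Set W} {k l : K} {s s' : GSt M fam}
    (h : Step Q far k s s')
    (hkl : l ≠ k) {i1 : Q.Nm fam l} (hs : NoClosed (s.res Q l i1) (Q.Act l)) :
    NoClosed (s'.res Q l i1) (Q.Act l) := by
  refine Agr.noClosed ?_ hs
  intro F hF w
  have hFk := Q.frozen_of_tch hkl hF
  constructor
  · rw [res_at, res_at]
    constructor
    · rintro ⟨⟨h1, h2⟩, h3⟩
      obtain ⟨h4, h5⟩ := h.frozen hFk h2
      exact ⟨⟨h4.2 h1, h2⟩, by rw [(h5 h1).1]; exact h3⟩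
    · rintro ⟨⟨h1, h2⟩, h3⟩
      obtain ⟨h4, h5⟩ := h.frozen hFk h2
      refine ⟨⟨h4.1 h1, h2⟩, ?_⟩
      rw [← (h5 (h4.1 h1)).1]; exact h3
  · intro hw
    obtain ⟨⟨h1, h2⟩, h3⟩ := res_at.1 hw
    obtain ⟨h4, h5⟩ := h.frozen hFk h2
    obtain ⟨h6, h7⟩ := h5 h1
    refine ⟨by rw [res_mu, res_mu, h7], ?_⟩
    rw [res_lab h3]
    symm
    rw [res_lab_iff (by rw [h6]; exact h3)]
    exact h6

end GSt

end Crest.Agent.R096.Seq_213
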