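import Mathlib
import Crest.Agent.R096.Agl6_543
import Crest.Agent.R096.Seq3_213

/-! # GINV 1 (row 96, helper543): the global state (`GSt` of 213) of a locally finite family of
regular levels, and restriction to chord components -/

set_option autoImplicit false

open Set Filter Topology Metric

namespace Crest.Agent.R096.Ginv_543

open Crest.Agent.R096.Msh_715 Crest.Agent.R096.Agl4_543 Crest.Agent.R096.Agl5_543
  Crest.Agent.R096.Agl6_543
  Crest.Agent.R096.Pat5_543 Crest.Agent.R096.St_147 Crest.Agent.R096.Coh_184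
  Crest.Agent.R096.Seq_213

/-! ### restriction of a global state -/

section restrict

variable {ι Φ W J C : Type} {M : MeshC ι Φ W} {fam : J → C}

/-- the part of a global state on a set of points closed under partners -/
def grestrict (s : GSt M fam) (X : Set W)
    (hX : ∀ {F : Φ} {w : W}, w ∈ X → s.At F w → s.mu F w ∈ X) : GSt M fam where
  P := s.P ∩ X
  lab := s.lab
  mu := s.mu
  mu_mem := fun hw hF => ⟨⟨(s.mu_mem hw.1 hF).1, hX hw.2 ⟨hw.1, hF⟩⟩, (s.mu_mem hw.1 hF).2⟩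
  mu_ne := fun hw hF => s.mu_ne hw.1 hF
  mu_mu := fun hw hF => s.mu_mu hw.1 hF
  mu_lab := fun hw hF => s.mu_lab hw.1 hF
  nc := fun hw hF hx hxF h1 h2 h3 => s.nc hw.1 hF hx.1 hxF h1 h2 h3
  fin := fun c => (s.fin c).subset fun _ hw => ⟨hw.1.1, hw.2⟩

variable {s : GSt M fam} {X : Set W}
  {hX : ∀ {F : Φ} {w : W}, w ∈ X → s.At F w → s.mu F w ∈ X}

theorem at_grestrict {F : Φ} {w : W} : (grestrict s X hX).At F w ↔ s.At F w ∧ w ∈ X :=
  ⟨fun h => ⟨⟨h.1.1, h.2⟩, h.1.2⟩, fun h => ⟨⟨h.1.1, h.2⟩, h.1.2⟩⟩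

theorem mu_mem_iff {F : Φ} {w : W} (hX : ∀ {F : Φ} {w : W}, w ∈ X → s.At F w → s.mu F w ∈ X)
    (hw : s.At F w) : s.mu F w ∈ X ↔ w ∈ X := by
  constructor
  · intro h
    have h4 := hX (F := F) h ⟨(s.mu_mem hw.1 hw.2).1, (s.mu_mem hw.1 hw.2).2⟩
    rwa [s.mu_mu hw.1 hw.2] at h4
  · intro h
    exact hX h hw

theorem gH1_restrict {i : J} (h : s.H1 i) : (grestrict s X hX).H1 i := by
  classical
  intro κ hκ
  have h1 := h (fun F w => if w ∈ X then κ F w else 0) ?_
  · obtain ⟨Ψ, hΨ⟩ := h1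
    refine ⟨Ψ, fun F w hw hi => ?_⟩
    have hw' := at_grestrict.1 hw
    have := hΨ F w hw'.1 hi
    rw [if_pos hw'.2] at this
    exact this
  · intro q
    obtain ⟨ψ, hψ⟩ := hκ q
    refine ⟨fun w => if w ∈ X then ψ w else 0, fun F w hq hw hi => ?_⟩
    by_cases hwX : w ∈ X
    · have h2 := hψ F w hq (at_grestrict.2 ⟨hw, hwX⟩) hi
      have h3 : s.mu F w ∈ X := hX hwX hw
      simp only [hwX, h3, if_true]
      exact h2
    · have h3 : s.mu F w ∉ X := fun h3 => hwX ((mu_mem_iff hX hw).1 h3)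
      simp only [hwX, h3, if_false, add_zero]

/-- one step along a chord -/
def GStep (s : GSt M fam) (a b : W) : Prop := ∃ F, s.At F a ∧ b = s.mu F a

theorem GStep.symm {a b : W} (h : GStep s a b) : GStep s b a := by
  obtain ⟨F, h1, rfl⟩ := h
  exact ⟨F, ⟨(s.mu_mem h1.1 h1.2).1, (s.mu_mem h1.1 h1.2).2⟩, (s.mu_mu h1.1 h1.2).symm⟩

theorem GStep.mem {a b : W} (h : GStep s a b) : b ∈ s.P ∧ s.lab b = s.lab a := by
  obtain ⟨F, h1, rfl⟩ := h
  exact ⟨(s.mu_mem h1.1 h1.2).1, s.mu_lab h1.1 h1.2⟩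

/-- the chord components of the base points -/
def gcomp (s : GSt M fam) (b : J → W) : Set W := {w | ∃ i, Relation.ReflTransGen (GStep s) (b i) w}

theorem gcomp_closed {b : J → W} {F : Φ} {w : W} (hw : w ∈ gcomp s b) (hF : s.At F w) :
    s.mu F w ∈ gcomp s b := by
  obtain ⟨i, hi⟩ := hw
  exact ⟨i, hi.tail ⟨F, hF, rfl⟩⟩

theorem gcomp_lab {b : J → W} (hb : ∀ i, b i ∈ s.P ∧ s.lab (b i) = i) {i : J} {w : W}
    (hi : Relation.ReflTransGen (GStep s) (b i) w) : w ∈ s.P ∧ s.lab w = i := by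
  induction hi with
  | refl => exact hb i
  | tail h1 h2 ih =>
    have := h2.mem
    exact ⟨this.1, by rw [this.2]; exact ih.2⟩

/-- the restriction to the chord components of the base points -/
def gmain (s : GSt M fam) (b : J → W) : GSt M fam :=
  grestrict s (gcomp s b) (fun hw hF => gcomp_closed hw hF)

theorem gconn_main {b : J → W} (hb : ∀ i, b i ∈ s.P ∧ s.lab (b i) = i) (i : J) :
    (gmain s b).Conn i := by
  constructor
  · exact ⟨b i, ⟨(hb i).1, i, Relation.ReflTransGen.refl⟩, (hb i).2⟩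
  · intro Y hY w hwY hw hwi w' hw' hwi'
    have hrel : ∀ {v : W}, v ∈ gcomp s b → s.lab v = i →
        Relation.ReflTransGen (GStep s) (b i) v := by
      rintro v ⟨j, hj⟩ hv
      have := (gcomp_lab hb hj).2
      rw [hv] at this
      rw [this]
      exact hj
    have h1 := hrel hw.2 hwi
    have h2 := hrel hw'.2 hwi'
    have key : ∀ {v v' : W}, v ∈ gcomp s b → s.lab v = i → GStep s v v' → v ∈ Y → v' ∈ Y := by
      rintro v v' hv hvi ⟨F, hF, rfl⟩ hvY
      exact hY F v hvY (at_grestrict.2 ⟨hF, hv⟩) hvi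
    have hall : ∀ {v : W}, Relation.ReflTransGen (GStep s) (b i) v → (v ∈ Y ↔ b i ∈ Y) := by
      intro v hv
      induction hv with
      | refl => exact Iff.rfl
      | tail g1 g2 ih =>
        rename_i x y
        have hx := gcomp_lab hb g1
        have hy := gcomp_lab hb (g1.tail g2)
        rw [← ih]
        exact ⟨fun h => key ⟨i, g1.tail g2⟩ hy.2 g2.symm h, fun h => key ⟨i, g1⟩ hx.2 g2 h⟩
    exact (hall h2).2 ((hall h1).1 hwY)

theorem gH1_main {b : J → W} {i : J} (h : s.H1 i) : (gmain s b).H1 i := gH1_restrict h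

end restrict

/-! ### the global state of a family of regular levels -/

variable {E : Type} [NormedAddCommGroup E] [NormedSpace ℝ E]
variable {Om : Set E} {ι : Type} {T : Tiling Om ι}

/-- a family of regular levels: finitely many sheets in every family `fam`, different sheets do
not meet on the 1-skeleton, sheets of one family are disjoint -/
structure GFam (T : Tiling Om ι) {J C : Type} (u : J → E → ℝ) (c : J → ℝ) (S : J → Set E)
    (fam : J → C) : Prop where
  lev : ∀ i, RegLevel T (u i) (c i) (S i)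
  sep1 : ∀ i j x, x ∈ S i → x ∈ S j → T.dim x ≤ 1 → i = j
  disj : ∀ i j, fam i = fam j → i ≠ j → Disjoint (S i) (S j)
  finC : ∀ a : C, {j | fam j = a}.Finite

namespace GFam

variable {J C : Type} {u : J → E → ℝ} {c : J → ℝ} {S : J → Set E} {fam : J → C}
variable (h : GFam T u c S fam)

/-- the crossing points -/
def pts (_ : GFam T u c S fam) : Set E := {w | ∃ i, w ∈ S i ∧ T.dim w ≤ 1}

include h

theorem lab_eq [Nonempty J] {w : E} {i : J} (hw : w ∈ S i) (hd : T.dim w ≤ 1) : labf S w = i :=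
  h.sep1 _ _ w (lab_mem ⟨i, hw⟩) hw hd

theorem mem_lab [Nonempty J] {w : E} (hw : w ∈ h.pts) : w ∈ S (labf S w) := by
  obtain ⟨i, hi, -⟩ := hw
  exact lab_mem ⟨i, hi⟩

theorem mem_pts_iff [Nonempty J] {w : E} {i : J} :
    (w ∈ h.pts ∧ labf S w = i) ↔ (w ∈ S i ∧ T.dim w ≤ 1) := by
  constructor
  · rintro ⟨h1, h2⟩
    have h3 := h.mem_lab h1
    rw [h2] at h3
    obtain ⟨j, -, h4⟩ := h1
    exact ⟨h3, h4⟩
  · rintro ⟨h1, h2⟩
    exact ⟨⟨i, h1, h2⟩, h.lab_eq h1 h2⟩

variable [FiniteDimensional ℝ E] (h3 : Module.finrank ℝ E = 3)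
include h3

theorem exists_mu {F : C2 T} {w : E} {i : J} (hw : w ∈ S i) (hF : w ∈ F.On) :
    ∃! w', w' ≠ w ∧ (w' ∈ S i ∧ w' ∈ F.On) ∧ w' ∈ connectedComponentIn (S i ∩ F.set) w := by
  have hw1 := hF.1
  rw [F.set_eq] at hw1
  obtain ⟨w', ⟨h1, h2, h4⟩, huniq⟩ := (h.lev i).partner h3 F.pt_mem F.dim_pt hw hF.2 hw1
  have h5 : w' ∈ F.On := by
    have h5 := (connectedComponentIn_subset _ _ h4).2
    refine ⟨by rw [F.set_eq]; exact h5, ?_⟩
    have := (h.lev i).vert w' h2.1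
    have := h2.2
    omega
  refine ⟨w', ⟨h1, ⟨h2.1, h5⟩, by rw [F.set_eq]; exact h4⟩, ?_⟩
  rintro y ⟨g1, ⟨g2, g3⟩, g4⟩
  rw [F.set_eq] at g4
  exact huniq y ⟨g1, ⟨g2, g3.2.le⟩, g4⟩

variable [Nonempty J]

/-- the partner of `w` on `F` -/
noncomputable def mu (F : C2 T) (w : E) : E := by
  classical
  exact if hw : w ∈ h.pts ∧ w ∈ F.On then
    (h.exists_mu h3 (h.mem_lab hw.1) hw.2).choose else w

theorem mu_spec {F : C2 T} {w : E} (hw : w ∈ h.pts) (hF : w ∈ F.On) :
    (h.mu h3 F w ≠ w ∧ (h.mu h3 F w ∈ S (labf S w) ∧ h.mu h3 F w ∈ F.On) ∧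
      h.mu h3 F w ∈ connectedComponentIn (S (labf S w) ∩ F.set) w) ∧
    ∀ y, y ≠ w → y ∈ S (labf S w) → y ∈ F.On →
      y ∈ connectedComponentIn (S (labf S w) ∩ F.set) w → y = h.mu h3 F w := by
  have e : h.mu h3 F w = (h.exists_mu h3 (h.mem_lab hw) hF).choose := by
    unfold mu
    rw [dif_pos ⟨hw, hF⟩]
  rw [e]
  have hs := (h.exists_mu h3 (h.mem_lab hw) hF).choose_spec
  exact ⟨hs.1, fun y h1 h2 h4 h5 => hs.2 y ⟨h1, ⟨h2, h4⟩, h5⟩⟩

theorem mu_pts {F : C2 T} {w : E} (hw : w ∈ h.pts) (hF : w ∈ F.On) : h.mu h3 F w ∈ h.pts := by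
  have hs := (h.mu_spec h3 hw hF).1
  exact ⟨_, hs.2.1.1, hs.2.1.2.2.le⟩

theorem mu_lab {F : C2 T} {w : E} (hw : w ∈ h.pts) (hF : w ∈ F.On) :
    labf S (h.mu h3 F w) = labf S w := by
  have hs := (h.mu_spec h3 hw hF).1
  exact h.lab_eq hs.2.1.1 hs.2.1.2.2.le

theorem mu_mu {F : C2 T} {w : E} (hw : w ∈ h.pts) (hF : w ∈ F.On) :
    h.mu h3 F (h.mu h3 F w) = w := by
  have hs := (h.mu_spec h3 hw hF).1
  have ht := (h.mu_spec h3 (h.mu_pts h3 hw hF) hs.2.1.2).2 w hs.1.symm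
  rw [h.mu_lab h3 hw hF] at ht
  refine (ht (h.mem_lab hw) hF ?_).symm
  have h1 := connectedComponentIn_eq hs.2.2
  rw [← h1]
  exact mem_connectedComponentIn ⟨h.mem_lab hw, hF.1⟩

/-- interlaced chords (of any two sheets): the components meet -/
theorem meet_of_lace {F : C2 T} {w x : E} (hw : w ∈ h.pts) (hwF : w ∈ F.On) (hx : x ∈ h.pts)
    (hxF : x ∈ F.On) (hxw : x ≠ w) (hxm : x ≠ h.mu h3 F w)
    (hl : (meshC T h3).Lace F w (h.mu h3 F w) x (h.mu h3 F x)) :
    (connectedComponentIn (S (labf S w) ∩ F.set) w ∩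
      connectedComponentIn (S (labf S x) ∩ F.set) x).Nonempty := by
  have hsw := (h.mu_spec h3 hw hwF).1
  have hsx := (h.mu_spec h3 hx hxF).1
  have hmw := h.mu_mu h3 hw hwF
  have hmx := h.mu_mu h3 hx hxF
  have hFc : IsClosed F.set := by rw [F.set_eq]; exact T.isClosed_cc _
  have hcK : ∀ i, IsCompact (S i ∩ F.set) := fun i => (h.lev i).cpt.inter_right hFc
  have h1 : w ≠ h.mu h3 F x := fun e => hxm (by
    show x = h.mu h3 F w
    rw [e, hmx])
  have h2 : h.mu h3 F w ≠ h.mu h3 F x := fun e => hxw (by rw [← hmx, ← e, hmw])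
  exact F.meet_of_lace
    (K := connectedComponentIn (S (labf S w) ∩ F.set) w)
    (K' := connectedComponentIn (S (labf S x) ∩ F.set) x)
    isPreconnected_connectedComponentIn isPreconnected_connectedComponentIn
    (isCompact_component (hcK _) _) (isCompact_component (hcK _) _)
    (fun y hy => (connectedComponentIn_subset _ _ hy).2)
    (fun y hy => (connectedComponentIn_subset _ _ hy).2)
    (F.on_sub_bd hwF) (F.on_sub_bd hsw.2.1.2) (F.on_sub_bd hxF) (F.on_sub_bd hsx.2.1.2)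
    (Ne.symm hxw) h1 (fun e => hxm e.symm) h2
    (mem_connectedComponentIn ⟨h.mem_lab hw, hwF.1⟩) hsw.2.2
    (mem_connectedComponentIn ⟨h.mem_lab hx, hxF.1⟩) hsx.2.2 hl

/-- **the global state of a family of regular levels** (all crossings) -/
noncomputable def gst (h : GFam T u c S fam) : GSt (meshC T h3) fam where
  P := h.pts
  lab := labf S
  mu := h.mu h3
  mu_mem := fun hw hF => ⟨h.mu_pts h3 hw hF, (h.mu_spec h3 hw hF).1.2.1.2⟩
  mu_ne := fun hw hF => (h.mu_spec h3 hw hF).1.1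
  mu_mu := fun hw hF => h.mu_mu h3 hw hF
  mu_lab := fun hw hF => h.mu_lab h3 hw hF
  nc := by
    intro F w x hw hwF hx hxF hcol hxw hxm hl
    have hwF' : w ∈ F.On := hwF
    have hxF' : x ∈ F.On := hxF
    obtain ⟨z, hz1, hz2⟩ := h.meet_of_lace h3 hw hwF' hx hxF' hxw hxm hl
    by_cases hij : labf S w = labf S x
    · -- the same sheet: the two components agree
      rw [← hij] at hz2
      have e1 := connectedComponentIn_eq hz1
      have e2 := connectedComponentIn_eq hz2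
      have h5 : x ∈ connectedComponentIn (S (labf S w) ∩ F.set) w := by
        rw [e1, ← e2]
        refine mem_connectedComponentIn ⟨?_, hxF'.1⟩
        rw [hij]; exact h.mem_lab hx
      refine hxm ((h.mu_spec h3 hw hwF').2 x hxw ?_ hxF' h5)
      rw [hij]; exact h.mem_lab hx
    · exact disjoint_left.1 (h.disj _ _ hcol hij) (connectedComponentIn_subset _ _ hz1).1
        (connectedComponentIn_subset _ _ hz2).1
  fin := by
    intro a
    have h1 : (⋃ j ∈ {j | fam j = a}, {x | x ∈ S j ∧ T.dim x ≤ 1}).Finite :=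
      (h.finC a).biUnion fun j _ => (h.lev j).finite_P h3
    refine h1.subset ?_
    rintro w ⟨hw, ha⟩
    have hw' := hw
    obtain ⟨i, -, hd⟩ := hw'
    exact mem_biUnion (x := labf S w) ha ⟨h.mem_lab hw, hd⟩

end GFam

end Crest.Agent.R096.Ginv_543
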