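import Mathlib
import Crest.Agent.R096.Ginv1_543
import Crest.Agent.R096.Agl9_543

/-! # GINV 2 (row 96, helper543): relative `H1` of the global state, and the invariant `Inv` of 213
from geometric hypotheses (with the far part of 965) -/

set_option autoImplicit false

open Set Filter Topology Metric

namespace Crest.Agent.R096.Ginv_543

open Crest.Agent.R096.Msh_715 Crest.Agent.R096.Agl4_543 Crest.Agent.R096.Agl5_543
  Crest.Agent.R096.Agl6_543 Crest.Agent.R096.Loc_965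
  Crest.Agent.R096.Pat5_543 Crest.Agent.R096.St_147 Crest.Agent.R096.Coh_184
  Crest.Agent.R096.Seq_213

variable {E : Type} [NormedAddCommGroup E] [NormedSpace ℝ E] [FiniteDimensional ℝ E]
variable {Om : Set E} {ι : Type} {T : Tiling Om ι}
variable {J C K : Type} {u : J → E → ℝ} {c : J → ℝ} {S : J → Set E} {fam : J → C}

namespace GFam

/-- **relative exactness**: `S' ⊆ S i` compact with trivial torsors, `κ` exact in every tile
meeting `S'`: then `κ` is exact on the chords whose component lies in `S'`. -/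
theorem relH1 [Nonempty J] (h : GFam T u c S fam) (h3 : Module.finrank ℝ E = 3) (i : J)
    {S' : Set E} (hS' : IsCompact S') (hsub : S' ⊆ S i) (ht : TrivF (ZMod 2) S') {Q : Set ι}
    (hQ : ∀ q, (S' ∩ Msh_715.P (T.H q)).Nonempty → q ∈ Q) (κ : C2 T → E → ZMod 2)
    (hκ : ∀ q ∈ Q, ∃ ψ : E → ZMod 2, ∀ (F : C2 T) (w : E), q ∈ F.side h3 → w ∈ h.pts →
      w ∈ F.On → labf S w = i → κ F w = ψ w + ψ (h.mu h3 F w)) :
    ∃ Ψ : E → ZMod 2, ∀ (F : C2 T) (w : E), w ∈ h.pts → w ∈ F.On → labf S w = i →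
      connectedComponentIn (S i ∩ F.set) w ⊆ S' → κ F w = Ψ w + Ψ (h.mu h3 F w) := by
  classical
  have hlev := h.lev i
  have hfinP := hlev.finite_P h3
  set P : Finset E := hfinP.toFinset with hP
  have memP : ∀ x, x ∈ P ↔ x ∈ S i ∧ T.dim x ≤ 1 := fun x => by
    rw [hP, hfinP.mem_toFinset]; rfl
  have hsh := hlev.sheetHyp h3 memP
  -- the cochain on pairs of tiles
  let κ2 : Sym2 ι → E → E → ZMod 2 := fun t p p' =>
    if hh : p ≠ p' ∧ ∃ F : C2 T, F.side h3 = t ∧ p ∈ P ∧ p ∈ F.On ∧ h.mu h3 F p = p' then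
      κ hh.2.choose p else 0
  have hκ2 : ∀ (F : C2 T) (p : E), p ∈ P → p ∈ F.On →
      κ2 (F.side h3) p (h.mu h3 F p) = κ F p := by
    intro F p hp hF
    have hp' : p ∈ h.pts := ⟨i, (memP p).1 hp⟩
    have hne : p ≠ h.mu h3 F p := (h.mu_spec h3 hp' hF).1.1.symm
    have hh : p ≠ h.mu h3 F p ∧ ∃ G : C2 T, G.side h3 = F.side h3 ∧ p ∈ P ∧ p ∈ G.On ∧
        h.mu h3 G p = h.mu h3 F p := ⟨hne, F, rfl, hp, hF, rfl⟩
    have e1 : κ2 (F.side h3) p (h.mu h3 F p) = κ hh.2.choose p := dif_pos hh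
    rw [e1]
    have h5 := hh.2.choose_spec.1
    have h6 : hh.2.choose = F := by
      obtain ⟨x, h7, -, h8⟩ := F.exists_side h3
      apply C2.ext
      have h9 : ∀ q q' : ι, F.side h3 = s(q, q') → (hh.2.choose).set = F.set := by
        intro q q' hqq
        rw [C2.set_inter hqq, C2.set_inter (h5.trans hqq)]
      exact h9 _ _ rfl
    rw [h6]
  choose! ψ hψ using hκ
  obtain ⟨Ψ, hΨ⟩ := coh' (A := ZMod 2) hS' ht hsh.closed (hsub.trans hsh.cov)
    (hsh.fin.subset fun q hq => hq.mono (inter_subset_inter_left _ hsub))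
    (P := P.filter (fun x => x ∈ S'))
    (fun x hx => (Finset.mem_filter.1 (Finset.mem_coe.1 hx)).2)
    (fun q q' q'' h1 h2 h4 x hx => by
      rw [Finset.mem_coe, Finset.mem_filter]
      exact ⟨hsh.trip q q' q'' h1 h2 h4 ⟨hsub hx.1, hx.2⟩, hx.1⟩)
    (κ := fun q q' p p' => κ2 s(q, q') p p')
    (fun q q' p p' => by
      show κ2 s(q', q) p p' = κ2 s(q, q') p p'
      rw [Sym2.eq_swap]) (ψ := ψ)
    (fun q q' p p' hch0 => by
      show ψ q p - ψ q p' = κ2 s(q, q') p p'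
      have hqQ : q ∈ Q := hQ q ⟨p, hch0.mem.1, hch0.mem.2.1⟩
      have hch : Chord (S i) (fun i => Msh_715.P (T.H i)) P q q' p p' :=
        hch0.mono hsub (Finset.filter_subset _ _)
      by_cases hpp : p = p'
      · subst hpp
        have e1 : κ2 s(q, q') p p = 0 := dif_neg fun h' => h'.1 rfl
        rw [e1, sub_self]
      · obtain ⟨x, hx, hd, hat, hcc⟩ := hlev.chord_cell h3 memP (Ne.symm hpp) hch
        set F : C2 T := mk2 T hx hd with hFdef
        have hFset : F.set = T.cc x := rfl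
        have hFpt : F.pt ∈ T.oc x := T.pt_cl hx
        have hp := (memP p).1 hch.left
        have hp' := (memP p').1 hch.right
        have hpO : p ∈ F.On := by
          refine ⟨by rw [hFset, hcc]; exact hch.mem.2, ?_⟩
          have := hlev.vert p hp.1
          have := hp.2
          omega
        have hpO' : p' ∈ F.On := by
          refine ⟨by rw [hFset, hcc]; exact hch.mem_right.2, ?_⟩
          have := hlev.vert p' hp'.1
          have := hp'.2
          omega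
        have hpp' : p ∈ h.pts := ⟨i, hp⟩
        have hlab : labf S p = i := h.lab_eq hp.1 hp.2
        have hmu : h.mu h3 F p = p' := by
          refine ((h.mu_spec h3 hpp' hpO).2 p' (Ne.symm hpp) (by rw [hlab]; exact hp'.1) hpO'
            ?_).symm
          rw [hlab, hFset, hcc]
          exact hch.conn
        have hside : F.side h3 = s(q, q') := by
          have h6 : ∀ m, m ∈ F.side h3 ↔ m = q ∨ m = q' := by
            intro m
            rw [C2.mem_side, T.at_eq_of_mem_oc hx hFpt, hat]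
            rfl
          refine ((Sym2.mem_and_mem_iff hch.ne).1 ⟨(h6 q).2 (Or.inl rfl), (h6 q').2 (Or.inr rfl)⟩)
        have h7 := hκ2 F p hch.left hpO
        rw [hside, hmu] at h7
        rw [h7]
        have h8 := hψ q hqQ F p (by rw [hside]; exact Sym2.mem_mk_left _ _) hpp' hpO hlab
        rw [h8, hmu, CharTwo.sub_eq_add])
  refine ⟨Ψ, ?_⟩
  intro F w hw1 hw2 hi' hcS
  have hs := (h.mu_spec h3 hw1 hw2).1
  rw [hi'] at hs
  have hwS : w ∈ S i := by
    have := h.mem_lab hw1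
    rwa [hi'] at this
  obtain ⟨x, h7, h8, h9⟩ := F.exists_side h3
  have hside : F.side h3 = s(x.1, x.2) := by
    refine ((Sym2.mem_and_mem_iff h7).1 ⟨?_, ?_⟩)
    · rw [C2.mem_side, h8]; exact Or.inl rfl
    · rw [C2.mem_side, h8]; exact Or.inr rfl
  have hwP : w ∈ P := (memP w).2 ⟨hwS, hw2.2.le⟩
  have hch : Chord (S i) (fun i => Msh_715.P (T.H i)) P x.1 x.2 w (h.mu h3 F w) := by
    refine ⟨h7, hwP, (memP _).2 ⟨hs.2.1.1, hs.2.1.2.2.le⟩, ?_, ?_⟩
    · refine ⟨hwS, ?_⟩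
      rw [← h9]; exact hw2.1
    · rw [← h9]; exact hs.2.2
  have hch' : Chord S' (fun i => Msh_715.P (T.H i)) (P.filter (fun x => x ∈ S')) x.1 x.2 w
      (h.mu h3 F w) := by
    refine hch.restrict ?_ fun y hy hy' => Finset.mem_filter.2 ⟨hy, hy'⟩
    show connectedComponentIn (S i ∩ (Msh_715.P (T.H x.1) ∩ Msh_715.P (T.H x.2))) w ⊆ S'
    rw [← h9]
    exact hcS
  have h10 := hΨ x.1 x.2 w (h.mu h3 F w) hch'
  have h11 := hκ2 F w hwP hw2
  rw [hside] at h11
  have h12 : Ψ w - Ψ (h.mu h3 F w) = κ2 s(x.1, x.2) w (h.mu h3 F w) := h10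
  rw [h11, CharTwo.sub_eq_add] at h12
  exact h12.symm

/-- **`H1` of every sheet of the global state** -/
theorem H1 [Nonempty J] (h : GFam T u c S fam) (h3 : Module.finrank ℝ E = 3) (i : J)
    (ht : TrivF (ZMod 2) (S i)) : (h.gst h3).H1 i := by
  intro κ hκ
  obtain ⟨Ψ, hΨ⟩ := h.relH1 h3 i (h.lev i).cpt Subset.rfl ht (Q := univ) (fun _ _ => mem_univ _) κ
    (fun q _ => by
      obtain ⟨ψ, hψ⟩ := hκ q
      exact ⟨ψ, fun F w hq hw hF hi => hψ F w hq ⟨hw, hF⟩ hi⟩)
  exact ⟨Ψ, fun F w hw hi => hΨ F w hw.1 hw.2 hi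
    fun y hy => (connectedComponentIn_subset _ _ hy).1⟩

end GFam

/-! ### the sheet of a global state -/

section sht

variable {Φ W : Type} {M : MeshC ι Φ W}

theorem fin_sheet (s : GSt M fam) (i : J) : {w | w ∈ s.P ∧ s.lab w = i}.Finite :=
  (s.fin (fam i)).subset fun w hw => ⟨hw.1, by rw [hw.2]⟩

/-- one sheet of a global state -/
noncomputable def gSht (s : GSt M fam) (i : J) : Sht M := by
  classical
  exact
  { P := (fin_sheet s i).toFinset
    mu := s.mu
    mu_mem := fun {F w} hw hF => by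
      rw [Set.Finite.mem_toFinset] at hw ⊢
      exact ⟨⟨(s.mu_mem hw.1 hF).1, by rw [s.mu_lab hw.1 hF]; exact hw.2⟩, (s.mu_mem hw.1 hF).2⟩
    mu_ne := fun {F w} hw hF => by
      rw [Set.Finite.mem_toFinset] at hw
      exact s.mu_ne hw.1 hF
    mu_mu := fun {F w} hw hF => by
      rw [Set.Finite.mem_toFinset] at hw
      exact s.mu_mu hw.1 hF }

theorem mem_gSht {s : GSt M fam} {i : J} {w : W} : w ∈ (gSht s i).P ↔ w ∈ s.P ∧ s.lab w = i := by
  unfold gSht
  exact Set.Finite.mem_toFinset _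

theorem gSht_cn {s : GSt M fam} {i : J} (h : s.Conn i) : (gSht s i).Cn := by
  intro X hX w hwX hw w' hw'
  have h1 := mem_gSht.1 hw
  have h2 := mem_gSht.1 hw'
  exact h.2 X (fun F v hv hat hi => hX F v hv (mem_gSht.2 ⟨hat.1, hi⟩) hat.2) w hwX h1.1 h1.2 w'
    h2.1 h2.2

/-- local `H1` passes to a restriction -/
theorem locH1_restrict {s : GSt M fam} {X : Set W}
    {hX : ∀ {F : Φ} {w : W}, w ∈ X → s.At F w → s.mu F w ∈ X} {i : J} {N Q : Set ι}
    (h : (gSht s i).LocH1 N Q) : (gSht (grestrict s X hX) i).LocH1 N Q := by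
  classical
  intro κ hκ
  have h1 := h (fun F w => if w ∈ X then κ F w else 0) ?_
  · obtain ⟨Ψ, hΨ⟩ := h1
    refine ⟨Ψ, fun F w hw hF hq => ?_⟩
    have hw' := mem_gSht.1 hw
    have := hΨ F w (mem_gSht.2 ⟨hw'.1.1, hw'.2⟩) hF hq
    rw [if_pos hw'.1.2] at this
    exact this
  · intro q hq
    obtain ⟨ψ, hψ⟩ := hκ q hq
    refine ⟨fun w => if w ∈ X then ψ w else 0, fun F w hqF hw hF => ?_⟩
    have hw' := mem_gSht.1 hw
    have hat : s.At F w := ⟨hw'.1, hF⟩
    show (if w ∈ X then κ F w else 0) =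
      (if w ∈ X then ψ w else 0) + (if s.mu F w ∈ X then ψ (s.mu F w) else 0)
    by_cases hwX : w ∈ X
    · have h2 := hψ F w hqF (mem_gSht.2 ⟨⟨hw'.1, hwX⟩, hw'.2⟩) hF
      have h3 : s.mu F w ∈ X := hX hwX hat
      rw [if_pos hwX, if_pos hwX, if_pos h3]
      exact h2
    · have h3 : s.mu F w ∉ X := fun h3 => hwX ((mu_mem_iff hX hat).1 h3)
      rw [if_neg hwX, if_neg hwX, if_neg h3, add_zero]

end sht

namespace GFam

/-- 965's local `H1` for the sheets of the global state -/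
theorem locH1 [Nonempty J] (h : GFam T u c S fam) (h3 : Module.finrank ℝ E = 3) (i : J)
    {S' : Set E} (hS' : IsCompact S') (hsub : S' ⊆ S i) (ht : TrivF (ZMod 2) S') {N Q : Set ι}
    (hQ : ∀ q, (S' ∩ Msh_715.P (T.H q)).Nonempty → q ∈ Q)
    (hN : ∀ (F : C2 T) (w : E), w ∈ S i → w ∈ F.On → (∃ q ∈ F.side h3, q ∈ N) →
      connectedComponentIn (S i ∩ F.set) w ⊆ S') :
    (gSht (h.gst h3) i).LocH1 N Q := by
  intro κ hκ
  obtain ⟨Ψ, hΨ⟩ := h.relH1 h3 i hS' hsub ht hQ κ (fun q hq => by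
    obtain ⟨ψ, hψ⟩ := hκ q hq
    exact ⟨ψ, fun F w hqF hw hF hi => hψ F w hqF (mem_gSht.2 ⟨hw, hi⟩) hF⟩)
  refine ⟨Ψ, fun F w hw hF hq => ?_⟩
  have hw' := mem_gSht.1 hw
  have hwS : w ∈ S i := by
    have := h.mem_lab (show w ∈ h.pts from hw'.1)
    have h2 : labf S w = i := hw'.2
    rwa [h2] at this
  exact hΨ F w hw'.1 hF hw'.2 (hN F w hwS hF hq)

end GFam

/-- **Geometric data for the invariant**: base points `b`, for every sheet `j` and every quad `k`
of its family a strip `S' j k` with trivial torsors. `Nr j k` = tiles near a crossing of the sheet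
`j` with the other family of `k`. -/
structure GeoInv (h3 : Module.finrank ℝ E = 3) (T : Tiling Om ι) (S : J → Set E) (fam : J → C)
    (Q : Quads ι C K) (b : J → E) (S' : J → K → Set E) (Nr : J → K → Set ι) : Prop where
  triv : ∀ j, TrivF (ZMod 2) (S j)
  base : ∀ j, b j ∈ S j ∧ T.dim (b j) = 1 ∧ ∃ q, b j ∈ Msh_715.P (T.H q) ∧
    ∀ k, Q.In k (fam j) → q ∉ Q.Act k
  cpt : ∀ j k, Q.In k (fam j) → IsCompact (S' j k)
  sub : ∀ j k, Q.In k (fam j) → S' j k ⊆ S j
  triv' : ∀ j k, Q.In k (fam j) → TrivF (ZMod 2) (S' j k)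
  act : ∀ j k, Q.In k (fam j) → ∀ q, (S' j k ∩ Msh_715.P (T.H q)).Nonempty → q ∈ Q.Act k
  nr_act : ∀ j k, Q.In k (fam j) → Nr j k ⊆ Q.Act k
  /-- chords of a tile near a crossing stay in the strip -/
  chord : ∀ j k, Q.In k (fam j) → ∀ (F : C2 T) (w : E), w ∈ S j → w ∈ F.On →
    (∃ q ∈ F.side h3, q ∈ Nr j k) → connectedComponentIn (S j ∩ F.set) w ⊆ S' j k
  /-- a point is near the crossings of one quad only -/
  one : ∀ j k k', Q.In k (fam j) → Q.In k' (fam j) → ∀ w ∈ S j, ∀ q ∈ Nr j k, ∀ q' ∈ Nr j k',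
    w ∈ Msh_715.P (T.H q) → w ∈ Msh_715.P (T.H q') → k = k'
  /-- crossings of the two families of `k` over a face inside `Act k` -/
  cross : ∀ j j' k, Q.In k (fam j) → Q.In k (fam j') → fam j' ≠ fam j → ∀ F : C2 T,
    (∀ q ∈ F.side h3, q ∈ Q.Act k) → (F.set ∩ (S j ∩ S j')).Nonempty →
    ∀ q ∈ F.side h3, q ∈ Nr j k
  /-- over a face inside `Act k` only the two families of `k` are present -/
  only : ∀ j k, ∀ F : C2 T, (∀ q ∈ F.side h3, q ∈ Q.Act k) → (F.On ∩ S j).Nonempty →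
    Q.In k (fam j)

/-- **GINV: levels of all families give a global state with the invariant `Inv` of 213.** -/
theorem exists_inv [Nonempty J] (h3 : Module.finrank ℝ E = 3) (h : GFam T u c S fam)
    (Q : Quads ι C K) {b : J → E} {S' : J → K → Set E} {Nr : J → K → Set ι}
    (g : GeoInv h3 T S fam Q b S' Nr) :
    ∃ far : J → Set E, (gmain (h.gst h3) b).Inv Q far ∧ ∀ j, b j ∈ far j := by
  classical
  have hb : ∀ i, b i ∈ (h.gst h3).P ∧ (h.gst h3).lab (b i) = i := fun i =>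
    (h.mem_pts_iff (w := b i)).2 ⟨(g.base i).1, (g.base i).2.1.le⟩
  set s := gmain (h.gst h3) b with hs
  have hconn : ∀ i, s.Conn i := fun i => gconn_main hb i
  -- points of the state
  have hpt : ∀ {w : E}, w ∈ s.P → w ∈ S (s.lab w) := fun {w} hw => h.mem_lab hw.1
  -- the far part of every sheet
  have hfar : ∀ j, ∃ far : Set E, b j ∈ far ∧ (∀ w ∈ far, w ∈ (gSht s j).P) ∧
      (∀ w ∈ (gSht s j).P, w ∉ far → ∃ k, Q.In k (fam j) ∧
        ∀ F, w ∈ (meshC T h3).On F → ∀ q ∈ (meshC T h3).side F, q ∈ Q.Act k) ∧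
      (∀ X : Set E, (∀ F w, w ∈ X → w ∈ far → w ∈ (meshC T h3).On F → s.mu F w ∈ far →
        (∃ q ∈ (meshC T h3).side F, ∀ k, Q.In k (fam j) → q ∉ Nr j k) → s.mu F w ∈ X) →
        ∀ w ∈ X, w ∈ far → far ⊆ X) := by
    intro j
    have hKfin : {k | Q.In k (fam j)}.Finite := Q.finK (fam j)
    obtain ⟨hbS, hbd, q, hbq, hqA⟩ := g.base j
    -- a face through `b j` on the tile `q`
    have hbO : b j ∈ Om := (h.lev j).sub hbS
    obtain ⟨x, hx, -, -, hdx, -, hqx, -, hbx, -⟩ :=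
      Agl3_543.two_cells T h3 hbO hbd (show q ∈ T.at_ (b j) from hbq)
    set Fm : C2 T := mk2 T hx hdx with hFm
    have hside : q ∈ (meshC T h3).side Fm := by
      show q ∈ Fm.side h3
      rw [C2.mem_side]
      have h5 : Fm.pt ∈ T.oc x := T.pt_cl hx
      rw [T.at_eq_of_mem_oc hx h5]
      exact hqx
    obtain ⟨far, f1, f2, f3, -, f5⟩ := (gSht s j).far (gSht_cn (hconn j))
      (KK := hKfin.toFinset) (N := Nr j) (Q := Q.Act)
      (fun k hk => locH1_restrict (h.locH1 h3 j (g.cpt j k (hKfin.mem_toFinset.1 hk))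
        (g.sub j k (hKfin.mem_toFinset.1 hk)) (g.triv' j k (hKfin.mem_toFinset.1 hk))
        (g.act j k (hKfin.mem_toFinset.1 hk)) (g.chord j k (hKfin.mem_toFinset.1 hk))))
      (fun k hk => g.nr_act j k (hKfin.mem_toFinset.1 hk))
      (fun k hk k' hk' w hw F F' hF hF' q hq q' hq' hN hN' => by
        have hw' := mem_gSht.1 hw
        have hwS : w ∈ S j := by
          have := hpt hw'.1
          rwa [hw'.2] at this
        exact g.one j k k' (hKfin.mem_toFinset.1 hk) (hKfin.mem_toFinset.1 hk') w hwS q hN q' hN'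
          (C2.sub_tile (h3 := h3) hq hF.1) (C2.sub_tile (h3 := h3) hq' hF'.1))
      (m := b j) (mem_gSht.2 ⟨⟨(hb j).1, j, Relation.ReflTransGen.refl⟩, (hb j).2⟩)
      (Fm := Fm) ⟨hbx, hbd⟩ hside (fun k hk => hqA k (hKfin.mem_toFinset.1 hk))
    refine ⟨far, f1, f2, fun w hw hwf => ?_, fun X hX => f5 X fun F w hwX hwf hF hm hq => ?_⟩
    · obtain ⟨k, hk, h6⟩ := f3 w hw hwf
      exact ⟨k, hKfin.mem_toFinset.1 hk, h6⟩
    · obtain ⟨q', hq', h7⟩ := hq
      exact hX F w hwX hwf hF hm ⟨q', hq', fun k hk => h7 k (hKfin.mem_toFinset.2 hk)⟩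
  choose far f1 f2 f3 f5 using hfar
  refine ⟨far, ⟨fun j => gH1_main (h.H1 h3 j (g.triv j)), hconn, ?_, fun j => ⟨b j, f1 j⟩, ?_, ?_,
    ?_⟩, f1⟩
  · intro j w hw
    exact mem_gSht.1 (f2 j w hw)
  · -- only
    intro k F w hat hin
    exact g.only (s.lab w) k F hin ⟨w, hat.2, hpt hat.1⟩
  · -- loc
    intro w hw
    by_cases hwf : w ∈ far (s.lab w)
    · exact Or.inl hwf
    · right
      obtain ⟨k, hk, h6⟩ := f3 (s.lab w) w (mem_gSht.2 ⟨hw, rfl⟩) hwf
      refine ⟨k, hk, ?_, h6⟩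
      -- `w` lies on a face
      obtain ⟨i, hwi, hwd⟩ := hw.1
      have hwO : w ∈ Om := (h.lev i).sub hwi
      have hw1 : T.dim w = 1 := by
        have := (h.lev i).vert w hwi
        omega
      obtain ⟨q, hq⟩ := T.at_nonempty hwO
      obtain ⟨x, hx, -, -, hdx, -, -, -, hwx, -⟩ := Agl3_543.two_cells T h3 hwO hw1 hq
      exact ⟨mk2 T hx hdx, hwx, hw1⟩
  · -- gc
    intro j X hX w hwX hwf
    refine f5 j X (fun F w' hwX' hwf' hF hm hq => ?_) w hwX hwf
    obtain ⟨q, hq, hqN⟩ := hq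
    have hw' := mem_gSht.1 (f2 j w' hwf')
    refine hX F w' hwX' hwf' ⟨hw'.1, hF⟩ hm ?_
    -- the chord is free in its own quad
    intro k hk hin x hx hxk hne hl
    rw [hw'.2] at hk hne
    have hwp : w' ∈ h.pts := hw'.1.1
    have hxp : x ∈ h.pts := hx.1.1
    have hlw : labf S w' = j := hw'.2
    have hlx : labf S x = s.lab x := rfl
    have hxw : x ≠ w' := by
      intro e
      apply hne
      rw [e, hw'.2]
    have hxm : x ≠ h.mu h3 F w' := by
      intro e
      apply hne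
      have h8 := h.mu_lab h3 hwp (F := F) hF
      have h9 : s.lab x = j := by
        show labf S x = j
        rw [e, h8, hlw]
      rw [h9]
    obtain ⟨z, hz1, hz2⟩ := h.meet_of_lace h3 hwp hF hxp hx.2 hxw hxm hl
    have hz1' := connectedComponentIn_subset _ _ hz1
    have hz2' := connectedComponentIn_subset _ _ hz2
    rw [hlw] at hz1'
    have := g.cross j (s.lab x) k hk hxk hne F hin ⟨z, hz1'.2, hz1'.1, hz2'.1⟩ q hq
    exact hqN k hk this

end Crest.Agent.R096.Ginv_543
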