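import Mathlib
import Crest.Agent.R096.Ginv2_543

/-! # GINV 3 (row 96, helper543): the combinatorial form of the input of the invariant `Inv` -/

set_option autoImplicit false
set_option linter.unusedSectionVars false

open Set

namespace Crest.Agent.R096.Ginv_543

open Crest.Agent.R096.St_147 Crest.Agent.R096.Seq_213 Crest.Agent.R096.Loc_965

variable {ι Φ W J C K : Type} {M : MeshC ι Φ W} {fam : J → C}

/-- **Combinatorial data for the invariant** of a global state over any mesh: base points `b`,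
`Nr j k` = cells near a crossing of the sheet `j` with the other family of `k`. -/
structure CInv (s : GSt M fam) (Q : Quads ι C K) (b : J → W) (Nr : J → K → Set ι) : Prop where
  h1 : ∀ j, s.H1 j
  conn : ∀ j, s.Conn j
  base : ∀ j, b j ∈ s.P ∧ s.lab (b j) = j ∧ ∃ F, b j ∈ M.On F ∧ ∃ q ∈ M.side F,
    ∀ k, Q.In k (fam j) → q ∉ Q.Act k
  face : ∀ w ∈ s.P, ∃ F, w ∈ M.On F
  loc : ∀ j k, Q.In k (fam j) → (gSht s j).LocH1 (Nr j k) (Q.Act k)
  nr_act : ∀ j k, Q.In k (fam j) → Nr j k ⊆ Q.Act k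
  /-- a point is near the crossings of one quad only -/
  one : ∀ j k k', Q.In k (fam j) → Q.In k' (fam j) → ∀ w ∈ s.P, s.lab w = j →
    ∀ F F', w ∈ M.On F → w ∈ M.On F' → ∀ q ∈ M.side F, ∀ q' ∈ M.side F',
      q ∈ Nr j k → q' ∈ Nr j k' → k = k'
  /-- crossings of the two families of `k` over a face inside `Act k` -/
  cross : ∀ k F w x, s.At F w → s.At F x → Q.In k (fam (s.lab w)) → Q.In k (fam (s.lab x)) →
    fam (s.lab x) ≠ fam (s.lab w) → Inner M (Q.Act k) F →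
    M.Lace F w (s.mu F w) x (s.mu F x) → ∀ q ∈ M.side F, q ∈ Nr (s.lab w) k
  /-- over a face inside `Act k` only the two families of `k` are present -/
  only : ∀ k F w, s.At F w → Inner M (Q.Act k) F → Q.In k (fam (s.lab w))

/-- **the invariant from combinatorial data**, for a global state over any mesh -/
theorem exists_inv_comb {s : GSt M fam} {Q : Quads ι C K} {b : J → W} {Nr : J → K → Set ι}
    (g : CInv s Q b Nr) : ∃ far : J → Set W, s.Inv Q far ∧ ∀ j, b j ∈ far j := by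
  classical
  have hfar : ∀ j, ∃ far : Set W, b j ∈ far ∧ (∀ w ∈ far, w ∈ (gSht s j).P) ∧
      (∀ w ∈ (gSht s j).P, w ∉ far → ∃ k, Q.In k (fam j) ∧
        ∀ F, w ∈ M.On F → ∀ q ∈ M.side F, q ∈ Q.Act k) ∧
      (∀ X : Set W, (∀ F w, w ∈ X → w ∈ far → w ∈ M.On F → s.mu F w ∈ far →
        (∃ q ∈ M.side F, ∀ k, Q.In k (fam j) → q ∉ Nr j k) → s.mu F w ∈ X) →
        ∀ w ∈ X, w ∈ far → far ⊆ X) := by
    intro j
    have hKfin : {k | Q.In k (fam j)}.Finite := Q.finK (fam j)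
    obtain ⟨hbP, hbl, Fm, hbF, q, hbq, hqA⟩ := g.base j
    obtain ⟨far, f1, f2, f3, -, f5⟩ := (gSht s j).far (gSht_cn (g.conn j))
      (KK := hKfin.toFinset) (N := Nr j) (Q := Q.Act)
      (fun k hk => g.loc j k (hKfin.mem_toFinset.1 hk))
      (fun k hk => g.nr_act j k (hKfin.mem_toFinset.1 hk))
      (fun k hk k' hk' w hw F F' hF hF' q hq q' hq' hN hN' => by
        have hw' := mem_gSht.1 hw
        exact g.one j k k' (hKfin.mem_toFinset.1 hk) (hKfin.mem_toFinset.1 hk') w hw'.1 hw'.2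
          F F' hF hF' q hq q' hq' hN hN')
      (m := b j) (mem_gSht.2 ⟨hbP, hbl⟩)
      (Fm := Fm) hbF hbq (fun k hk => hqA k (hKfin.mem_toFinset.1 hk))
    refine ⟨far, f1, f2, fun w hw hwf => ?_, fun X hX => f5 X fun F w hwX hwf hF hm hq => ?_⟩
    · obtain ⟨k, hk, h6⟩ := f3 w hw hwf
      exact ⟨k, hKfin.mem_toFinset.1 hk, h6⟩
    · obtain ⟨q', hq', h7⟩ := hq
      exact hX F w hwX hwf hF hm ⟨q', hq', fun k hk => h7 k (hKfin.mem_toFinset.2 hk)⟩
  choose far f1 f2 f3 f5 using hfar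
  refine ⟨far, ⟨g.h1, g.conn, ?_, fun j => ⟨b j, f1 j⟩, ?_, ?_, ?_⟩, f1⟩
  · intro j w hw
    exact mem_gSht.1 (f2 j w hw)
  · intro k F w hat hin
    exact g.only k F w hat hin
  · intro w hw
    by_cases hwf : w ∈ far (s.lab w)
    · exact Or.inl hwf
    · right
      obtain ⟨k, hk, h6⟩ := f3 (s.lab w) w (mem_gSht.2 ⟨hw, rfl⟩) hwf
      exact ⟨k, hk, g.face w hw, h6⟩
  · intro j X hX w hwX hwf
    refine f5 j X (fun F w' hwX' hwf' hF hm hq => ?_) w hwX hwf
    obtain ⟨q, hq, hqN⟩ := hq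
    have hw' := mem_gSht.1 (f2 j w' hwf')
    refine hX F w' hwX' hwf' ⟨hw'.1, hF⟩ hm ?_
    intro k hk hin x hx hxk hne hl
    have h8 := g.cross k F w' x ⟨hw'.1, hF⟩ hx hk hxk hne hin hl q hq
    rw [hw'.2] at h8 hk
    exact hqN k hk h8

end Crest.Agent.R096.Ginv_543
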