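import Mathlib
import Crest.Agent.R096.Ginv3_543

/-! # GINV 4 (row 96, helper543): relative `H1` with frozen "leaf" tiles, `GeoInv'` -/

set_option autoImplicit false
set_option linter.unusedSectionVars false

open Set Filter Topology Metric

namespace Crest.Agent.R096.Ginv_543

open Crest.Agent.R096.Msh_715 Crest.Agent.R096.Agl4_543 Crest.Agent.R096.Agl5_543
  Crest.Agent.R096.Agl6_543 Crest.Agent.R096.Loc_965
  Crest.Agent.R096.Pat5_543 Crest.Agent.R096.St_147 Crest.Agent.R096.Coh_184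
  Crest.Agent.R096.Seq_213

variable {E : Type} [NormedAddCommGroup E] [NormedSpace ℝ E] [FiniteDimensional ℝ E]
variable {Om : Set E} {ι : Type} {T : Tiling Om ι}
variable {J C K : Type} {u : J → E → ℝ} {c : J → ℝ} {S : J → Set E} {fam : J → C}

namespace GFam

/-- **relative exactness**, only the chords inside `S'` matter -/
theorem relH1' [Nonempty J] (h : GFam T u c S fam) (h3 : Module.finrank ℝ E = 3) (i : J)
    {S' : Set E} (hS' : IsCompact S') (hsub : S' ⊆ S i) (ht : TrivF (ZMod 2) S')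
    (κ : C2 T → E → ZMod 2)
    (hκ : ∀ q, (S' ∩ Msh_715.P (T.H q)).Nonempty → ∃ ψ : E → ZMod 2, ∀ (F : C2 T) (w : E),
      q ∈ F.side h3 → w ∈ h.pts → w ∈ F.On → labf S w = i →
      h.mu h3 F w ∈ connectedComponentIn (S' ∩ F.set) w → κ F w = ψ w + ψ (h.mu h3 F w)) :
    ∃ Ψ : E → ZMod 2, ∀ (F : C2 T) (w : E), w ∈ h.pts → w ∈ F.On → labf S w = i →
      connectedComponentIn (S i ∩ F.set) w ⊆ S' → κ F w = Ψ w + Ψ (h.mu h3 F w) := by
  classical
  have hlev := h.lev i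
  have hfinP := hlev.finite_P h3
  set P : Finset E := hfinP.toFinset with hP
  have memP : ∀ x, x ∈ P ↔ x ∈ S i ∧ T.dim x ≤ 1 := fun x => by
    rw [hP, hfinP.mem_toFinset]; rfl
  have hsh := hlev.sheetHyp h3 memP
  -- the cochain on pairs of tiles
  let κ2 : Sym2 ι → E → E → ZMod 2 := fun t p p' =>
    if hh : p ≠ p' ∧ ∃ F : C2 T, F.side h3 = t ∧ p ∈ P ∧ p ∈ F.On ∧ h.mu h3 F p = p' then
      κ hh.2.choose p else 0
  have hκ2 : ∀ (F : C2 T) (p : E), p ∈ P → p ∈ F.On →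
      κ2 (F.side h3) p (h.mu h3 F p) = κ F p := by
    intro F p hp hF
    have hp' : p ∈ h.pts := ⟨i, (memP p).1 hp⟩
    have hne : p ≠ h.mu h3 F p := (h.mu_spec h3 hp' hF).1.1.symm
    have hh : p ≠ h.mu h3 F p ∧ ∃ G : C2 T, G.side h3 = F.side h3 ∧ p ∈ P ∧ p ∈ G.On ∧
        h.mu h3 G p = h.mu h3 F p := ⟨hne, F, rfl, hp, hF, rfl⟩
    have e1 : κ2 (F.side h3) p (h.mu h3 F p) = κ hh.2.choose p := dif_pos hh
    rw [e1]
    have h5 := hh.2.choose_spec.1
    have h6 : hh.2.choose = F := by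
      obtain ⟨x, h7, -, h8⟩ := F.exists_side h3
      apply C2.ext
      have h9 : ∀ q q' : ι, F.side h3 = s(q, q') → (hh.2.choose).set = F.set := by
        intro q q' hqq
        rw [C2.set_inter hqq, C2.set_inter (h5.trans hqq)]
      exact h9 _ _ rfl
    rw [h6]
  choose! ψ hψ using hκ
  obtain ⟨Ψ, hΨ⟩ := coh' (A := ZMod 2) hS' ht hsh.closed (hsub.trans hsh.cov)
    (hsh.fin.subset fun q hq => hq.mono (inter_subset_inter_left _ hsub))
    (P := P.filter (fun x => x ∈ S'))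
    (fun x hx => (Finset.mem_filter.1 (Finset.mem_coe.1 hx)).2)
    (fun q q' q'' h1 h2 h4 x hx => by
      rw [Finset.mem_coe, Finset.mem_filter]
      exact ⟨hsh.trip q q' q'' h1 h2 h4 ⟨hsub hx.1, hx.2⟩, hx.1⟩)
    (κ := fun q q' p p' => κ2 s(q, q') p p')
    (fun q q' p p' => by
      show κ2 s(q', q) p p' = κ2 s(q, q') p p'
      rw [Sym2.eq_swap]) (ψ := ψ)
    (fun q q' p p' hch0 => by
      show ψ q p - ψ q p' = κ2 s(q, q') p p'
      have hqQ : (S' ∩ Msh_715.P (T.H q)).Nonempty := ⟨p, hch0.mem.1, hch0.mem.2.1⟩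
      have hch : Chord (S i) (fun i => Msh_715.P (T.H i)) P q q' p p' :=
        hch0.mono hsub (Finset.filter_subset _ _)
      by_cases hpp : p = p'
      · subst hpp
        have e1 : κ2 s(q, q') p p = 0 := dif_neg fun h' => h'.1 rfl
        rw [e1, sub_self]
      · obtain ⟨x, hx, hd, hat, hcc⟩ := hlev.chord_cell h3 memP (Ne.symm hpp) hch
        set F : C2 T := mk2 T hx hd with hFdef
        have hFset : F.set = T.cc x := rfl
        have hFpt : F.pt ∈ T.oc x := T.pt_cl hx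
        have hp := (memP p).1 hch.left
        have hp' := (memP p').1 hch.right
        have hpO : p ∈ F.On := by
          refine ⟨by rw [hFset, hcc]; exact hch.mem.2, ?_⟩
          have := hlev.vert p hp.1
          have := hp.2
          omega
        have hpO' : p' ∈ F.On := by
          refine ⟨by rw [hFset, hcc]; exact hch.mem_right.2, ?_⟩
          have := hlev.vert p' hp'.1
          have := hp'.2
          omega
        have hpp' : p ∈ h.pts := ⟨i, hp⟩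
        have hlab : labf S p = i := h.lab_eq hp.1 hp.2
        have hmu : h.mu h3 F p = p' := by
          refine ((h.mu_spec h3 hpp' hpO).2 p' (Ne.symm hpp) (by rw [hlab]; exact hp'.1) hpO'
            ?_).symm
          rw [hlab, hFset, hcc]
          exact hch.conn
        have hside : F.side h3 = s(q, q') := by
          have h6 : ∀ m, m ∈ F.side h3 ↔ m = q ∨ m = q' := by
            intro m
            rw [C2.mem_side, T.at_eq_of_mem_oc hx hFpt, hat]
            rfl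
          refine ((Sym2.mem_and_mem_iff hch.ne).1 ⟨(h6 q).2 (Or.inl rfl), (h6 q').2 (Or.inr rfl)⟩)
        have h7 := hκ2 F p hch.left hpO
        rw [hside, hmu] at h7
        rw [h7]
        have h8 := hψ q hqQ F p (by rw [hside]; exact Sym2.mem_mk_left _ _) hpp' hpO hlab
          (by
            rw [hmu, hFset, hcc]
            exact hch0.conn)
        rw [h8, hmu, CharTwo.sub_eq_add])
  refine ⟨Ψ, ?_⟩
  intro F w hw1 hw2 hi' hcS
  have hs := (h.mu_spec h3 hw1 hw2).1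
  rw [hi'] at hs
  have hwS : w ∈ S i := by
    have := h.mem_lab hw1
    rwa [hi'] at this
  obtain ⟨x, h7, h8, h9⟩ := F.exists_side h3
  have hside : F.side h3 = s(x.1, x.2) := by
    refine ((Sym2.mem_and_mem_iff h7).1 ⟨?_, ?_⟩)
    · rw [C2.mem_side, h8]; exact Or.inl rfl
    · rw [C2.mem_side, h8]; exact Or.inr rfl
  have hwP : w ∈ P := (memP w).2 ⟨hwS, hw2.2.le⟩
  have hch : Chord (S i) (fun i => Msh_715.P (T.H i)) P x.1 x.2 w (h.mu h3 F w) := by
    refine ⟨h7, hwP, (memP _).2 ⟨hs.2.1.1, hs.2.1.2.2.le⟩, ?_, ?_⟩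
    · refine ⟨hwS, ?_⟩
      rw [← h9]; exact hw2.1
    · rw [← h9]; exact hs.2.2
  have hch' : Chord S' (fun i => Msh_715.P (T.H i)) (P.filter (fun x => x ∈ S')) x.1 x.2 w
      (h.mu h3 F w) := by
    refine hch.restrict ?_ fun y hy hy' => Finset.mem_filter.2 ⟨hy, hy'⟩
    show connectedComponentIn (S i ∩ (Msh_715.P (T.H x.1) ∩ Msh_715.P (T.H x.2))) w ⊆ S'
    rw [← h9]
    exact hcS
  have h10 := hΨ x.1 x.2 w (h.mu h3 F w) hch'
  have h11 := hκ2 F w hwP hw2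
  rw [hside] at h11
  have h12 : Ψ w - Ψ (h.mu h3 F w) = κ2 s(x.1, x.2) w (h.mu h3 F w) := h10
  rw [h11, CharTwo.sub_eq_add] at h12
  exact h12.symm

/-- The chords of the sheet `i` on the faces of the tile `q` which lie in `S'` form a forest: every
symmetric function on them is exact. -/
def Leaf [Nonempty J] (h : GFam T u c S fam) (h3 : Module.finrank ℝ E = 3) (i : J) (S' : Set E)
    (q : ι) : Prop :=
  ∀ κ : C2 T → E → ZMod 2,
    (∀ F w, w ∈ h.pts → w ∈ F.On → labf S w = i → κ F (h.mu h3 F w) = κ F w) →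
    ∃ ψ : E → ZMod 2, ∀ F w, q ∈ F.side h3 → w ∈ h.pts → w ∈ F.On → labf S w = i →
      h.mu h3 F w ∈ connectedComponentIn (S' ∩ F.set) w → κ F w = ψ w + ψ (h.mu h3 F w)

/-- 965's local `H1` for the sheets of the global state, with leaf tiles -/
theorem locH1' [Nonempty J] (h : GFam T u c S fam) (h3 : Module.finrank ℝ E = 3) (i : J)
    {S' : Set E} (hS' : IsCompact S') (hsub : S' ⊆ S i) (ht : TrivF (ZMod 2) S') {N Q : Set ι}
    (hQ : ∀ q, (S' ∩ Msh_715.P (T.H q)).Nonempty → q ∈ Q ∨ h.Leaf h3 i S' q) (hNQ : N ⊆ Q)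
    (hN : ∀ (F : C2 T) (w : E), w ∈ S i → w ∈ F.On → (∃ q ∈ F.side h3, q ∈ N) →
      connectedComponentIn (S i ∩ F.set) w ⊆ S') :
    (gSht (h.gst h3) i).LocH1 N Q := by
  classical
  intro κ hκ
  let κ' : C2 T → E → ZMod 2 := fun F w => if ∃ q ∈ F.side h3, q ∈ Q then κ F w else 0
  have hsym : ∀ F w, w ∈ h.pts → w ∈ F.On → labf S w = i → κ' F (h.mu h3 F w) = κ' F w := by
    intro F w hw hF hi
    by_cases hq : ∃ q ∈ F.side h3, q ∈ Q
    · show (if ∃ q ∈ F.side h3, q ∈ Q then κ F (h.mu h3 F w) else 0) =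
        (if ∃ q ∈ F.side h3, q ∈ Q then κ F w else 0)
      rw [if_pos hq, if_pos hq]
      obtain ⟨q, hqF, hqQ⟩ := hq
      obtain ⟨ψ, hψ⟩ := hκ q hqQ
      have hs := (h.mu_spec h3 hw hF).1
      have h1 : κ F w = ψ w + ψ (h.mu h3 F w) := hψ F w hqF (mem_gSht.2 ⟨hw, hi⟩) hF
      have h2 : κ F (h.mu h3 F w) = ψ (h.mu h3 F w) + ψ (h.mu h3 F (h.mu h3 F w)) :=
        hψ F (h.mu h3 F w) hqF (mem_gSht.2 ⟨h.mu_pts h3 hw hF, by
          show labf S (h.mu h3 F w) = i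
          rw [h.mu_lab h3 hw hF]; exact hi⟩) hs.2.1.2
      rw [h2, h1, h.mu_mu h3 hw hF, add_comm]
    · show (if ∃ q ∈ F.side h3, q ∈ Q then κ F (h.mu h3 F w) else 0) =
        (if ∃ q ∈ F.side h3, q ∈ Q then κ F w else 0)
      rw [if_neg hq, if_neg hq]
  have hpos : ∀ {F : C2 T} {w : E} {q : ι}, q ∈ F.side h3 → q ∈ Q → κ' F w = κ F w :=
    fun {F w q} h1 h2 => if_pos ⟨q, h1, h2⟩
  obtain ⟨Ψ, hΨ⟩ := h.relH1' h3 i hS' hsub ht κ' (fun q hq => by
    rcases hQ q hq with h1 | h1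
    · obtain ⟨ψ, hψ⟩ := hκ q h1
      refine ⟨ψ, fun F w hqF hw hF hi _ => ?_⟩
      rw [hpos hqF h1]
      exact hψ F w hqF (mem_gSht.2 ⟨hw, hi⟩) hF
    · exact h1 κ' hsym)
  refine ⟨Ψ, fun F w hw hF hq => ?_⟩
  have hw' := mem_gSht.1 hw
  have hwS : w ∈ S i := by
    have := h.mem_lab (show w ∈ h.pts from hw'.1)
    have h2 : labf S w = i := hw'.2
    rwa [h2] at this
  have h5 := hΨ F w hw'.1 hF hw'.2 (hN F w hwS hF hq)
  obtain ⟨q, hqF, hqN⟩ := hq
  rw [hpos hqF (hNQ hqN)] at h5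
  exact h5

end GFam

/-- **Geometric data for the invariant**, with frozen leaf tiles: as `GeoInv`, but tiles meeting the
strip `S' j k` are in `Act k` or leaf tiles. -/
structure GeoInv' [Nonempty J] (h3 : Module.finrank ℝ E = 3) (h : GFam T u c S fam)
    (Q : Quads ι C K) (b : J → E) (S' : J → K → Set E) (Nr : J → K → Set ι) : Prop where
  triv : ∀ j, TrivF (ZMod 2) (S j)
  base : ∀ j, b j ∈ S j ∧ T.dim (b j) = 1 ∧ ∃ q, b j ∈ Msh_715.P (T.H q) ∧
    ∀ k, Q.In k (fam j) → q ∉ Q.Act k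
  cpt : ∀ j k, Q.In k (fam j) → IsCompact (S' j k)
  sub : ∀ j k, Q.In k (fam j) → S' j k ⊆ S j
  triv' : ∀ j k, Q.In k (fam j) → TrivF (ZMod 2) (S' j k)
  act : ∀ j k, Q.In k (fam j) → ∀ q, (S' j k ∩ Msh_715.P (T.H q)).Nonempty →
    q ∈ Q.Act k ∨ h.Leaf h3 j (S' j k) q
  nr_act : ∀ j k, Q.In k (fam j) → Nr j k ⊆ Q.Act k
  chord : ∀ j k, Q.In k (fam j) → ∀ (F : C2 T) (w : E), w ∈ S j → w ∈ F.On →
    (∃ q ∈ F.side h3, q ∈ Nr j k) → connectedComponentIn (S j ∩ F.set) w ⊆ S' j k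
  one : ∀ j k k', Q.In k (fam j) → Q.In k' (fam j) → ∀ w ∈ S j, ∀ q ∈ Nr j k, ∀ q' ∈ Nr j k',
    w ∈ Msh_715.P (T.H q) → w ∈ Msh_715.P (T.H q') → k = k'
  cross : ∀ j j' k, Q.In k (fam j) → Q.In k (fam j') → fam j' ≠ fam j → ∀ F : C2 T,
    (∀ q ∈ F.side h3, q ∈ Q.Act k) → (F.set ∩ (S j ∩ S j')).Nonempty →
    ∀ q ∈ F.side h3, q ∈ Nr j k
  only : ∀ j k, ∀ F : C2 T, (∀ q ∈ F.side h3, q ∈ Q.Act k) → (F.On ∩ S j).Nonempty →
    Q.In k (fam j)

/-- **geometric data give combinatorial data** -/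
theorem cinv_of_geo [Nonempty J] (h3 : Module.finrank ℝ E = 3) (h : GFam T u c S fam)
    (Q : Quads ι C K) {b : J → E} {S' : J → K → Set E} {Nr : J → K → Set ι}
    (g : GeoInv' h3 h Q b S' Nr) : CInv (gmain (h.gst h3) b) Q b Nr := by
  classical
  have hb : ∀ i, b i ∈ (h.gst h3).P ∧ (h.gst h3).lab (b i) = i := fun i =>
    (h.mem_pts_iff (w := b i)).2 ⟨(g.base i).1, (g.base i).2.1.le⟩
  have hpt : ∀ {w : E}, w ∈ (gmain (h.gst h3) b).P → w ∈ S ((gmain (h.gst h3) b).lab w) :=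
    fun {w} hw => h.mem_lab hw.1
  have hface : ∀ {w : E} {q : ι}, w ∈ Om → T.dim w = 1 → w ∈ Msh_715.P (T.H q) →
      ∃ F : C2 T, w ∈ F.On ∧ q ∈ F.side h3 := by
    intro w q hwO hwd hq
    obtain ⟨x, hx, -, -, hdx, -, hqx, -, hbx, -⟩ :=
      Agl3_543.two_cells T h3 hwO hwd (show q ∈ T.at_ w from hq)
    refine ⟨mk2 T hx hdx, ⟨hbx, hwd⟩, ?_⟩
    rw [C2.mem_side]
    have h5 : (mk2 T hx hdx).pt ∈ T.oc x := T.pt_cl hx
    rw [T.at_eq_of_mem_oc hx h5]
    exact hqx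
  refine ⟨fun j => gH1_main (h.H1 h3 j (g.triv j)), fun j => gconn_main hb j, ?_, ?_, ?_,
    g.nr_act, ?_, ?_, ?_⟩
  · intro j
    obtain ⟨hbS, hbd, q, hbq, hqA⟩ := g.base j
    obtain ⟨F, h1, h2⟩ := hface ((h.lev j).sub hbS) hbd hbq
    exact ⟨⟨(hb j).1, j, Relation.ReflTransGen.refl⟩, (hb j).2, F, h1, q, h2, hqA⟩
  · intro w hw
    obtain ⟨i, hwi, hwd⟩ := hw.1
    have hwO : w ∈ Om := (h.lev i).sub hwi
    have hw1 : T.dim w = 1 := by
      have := (h.lev i).vert w hwi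
      omega
    obtain ⟨q, hq⟩ := T.at_nonempty hwO
    obtain ⟨F, h1, -⟩ := hface hwO hw1 hq
    exact ⟨F, h1⟩
  · intro j k hk
    exact locH1_restrict (h.locH1' h3 j (g.cpt j k hk) (g.sub j k hk) (g.triv' j k hk)
      (g.act j k hk) (g.nr_act j k hk) (g.chord j k hk))
  · intro j k k' hk hk' w hw hl F F' hF hF' q hq q' hq' hN hN'
    have hwS : w ∈ S j := by
      have := hpt hw
      rwa [hl] at this
    exact g.one j k k' hk hk' w hwS q hN q' hN' (C2.sub_tile (h3 := h3) hq hF.1)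
      (C2.sub_tile (h3 := h3) hq' hF'.1)
  · intro k F w x hw hx hk hxk hne hin hl q hq
    have hwp : w ∈ h.pts := hw.1.1
    have hxp : x ∈ h.pts := hx.1.1
    have hne' : labf S x ≠ labf S w := fun e => hne (congrArg fam e)
    have hxw : x ≠ w := by
      rintro rfl
      exact hne' rfl
    have hxm : x ≠ h.mu h3 F w := by
      intro e
      apply hne'
      have h8 := h.mu_lab h3 hwp (F := F) hw.2
      rw [e, h8]
    obtain ⟨z, hz1, hz2⟩ := h.meet_of_lace h3 hwp hw.2 hxp hx.2 hxw hxm hl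
    have hz1' := connectedComponentIn_subset _ _ hz1
    have hz2' := connectedComponentIn_subset _ _ hz2
    exact g.cross (labf S w) (labf S x) k hk hxk hne F hin ⟨z, hz1'.2, hz1'.1, hz2'.1⟩ q hq
  · intro k F w hw hin
    exact g.only (labf S w) k F hin ⟨w, hw.2, hpt hw.1⟩

/-- **GINV with leaf tiles** -/
theorem exists_inv' [Nonempty J] (h3 : Module.finrank ℝ E = 3) (h : GFam T u c S fam)
    (Q : Quads ι C K) {b : J → E} {S' : J → K → Set E} {Nr : J → K → Set ι}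
    (g : GeoInv' h3 h Q b S' Nr) :
    ∃ far : J → Set E, (gmain (h.gst h3) b).Inv Q far ∧ ∀ j, b j ∈ far j :=
  exists_inv_comb (cinv_of_geo h3 h Q g)

end Crest.Agent.R096.Ginv_543
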