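import Mathlib
import Crest.Agent.R096.Agl7_543
import Crest.Agent.R096.Pat6_543

/-! # A-STATE 4 (row 96, helper543): almost every level is regular -/

set_option autoImplicit false
set_option linter.unusedSectionVars false

open Set Filter Topology Metric MeasureTheory

namespace Crest.Agent.R096.Agl8_543

open Crest.Agent.R096.Msh_715 Crest.Agent.R096.Agl4_543 Crest.Agent.R096.Agl5_543
  Crest.Agent.R096.Pat4_543 Crest.Agent.R096.Pat5_543

variable {E : Type} [NormedAddCommGroup E] [NormedSpace ℝ E] [FiniteDimensional ℝ E]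
variable {Om : Set E} {ι : Type} (T : Tiling Om ι)

/-- a tiling has countably many cells -/
theorem countable_cells : {c : Set E | ∃ x ∈ Om, c = T.cc x}.Countable := by
  have : ProperSpace E := FiniteDimensional.proper_real E
  have h1 : ∀ x ∈ Om, ∃ r > 0, {c : Set E | (∃ z ∈ Om, c = T.cc z) ∧ (c ∩ ball x r).Nonempty}.Finite :=
    fun x hx => T.lf_cells hx
  choose! r hr hfin using h1
  obtain ⟨t, hts, htc, hcov⟩ := TopologicalSpace.countable_cover_nhdsWithin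
    (s := Om) (f := fun x => ball x (r x)) (fun x hx => mem_nhdsWithin_of_mem_nhds
      (ball_mem_nhds x (hr x hx)))
  have h2 : (⋃ x ∈ t, {c : Set E | (∃ z ∈ Om, c = T.cc z) ∧ (c ∩ ball x (r x)).Nonempty}).Countable :=
    htc.biUnion fun x hx => (hfin x (hts hx)).countable
  refine h2.mono ?_
  rintro c ⟨z, hz, rfl⟩
  obtain ⟨x, hx, hzx⟩ := mem_iUnion₂.1 (hcov hz)
  exact mem_biUnion hx ⟨⟨z, hz, rfl⟩, z, T.self_mem_cc z, hzx⟩

instance countable_C2 : Countable (C2 T) := by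
  have : Countable T.Cell := (countable_cells T).to_subtype
  have h2 : Function.Injective (fun F : C2 T => F.1) := fun F G h => Subtype.ext h
  exact h2.countable

/-- the vertices -/
theorem countable_vert : {x | x ∈ Om ∧ T.dim x = 0}.Countable := by
  have h1 := countable_cells T
  refine MapsTo.countable_of_injOn (f := fun x => T.cc x)
    (t := {c : Set E | ∃ x ∈ Om, c = T.cc x}) ?_ ?_ h1
  · rintro x ⟨hx, -⟩
    exact ⟨x, hx, rfl⟩
  · rintro x ⟨-, hx⟩ y ⟨-, hy⟩ hxy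
    have h1 := T.cc_eq_singleton (T.dim_eq_zero_iff.1 hx)
    have h2 := T.cc_eq_singleton (T.dim_eq_zero_iff.1 hy)
    have h3 : T.cc x = T.cc y := hxy
    rw [h1, h2] at h3
    exact singleton_injective h3

/-- the boundary of a 2-cell: finitely many edges and vertices -/
theorem finite_bd (F : C2 T) {u : E → ℝ} {c : ℝ}
    (h : ∀ x ∈ F.set, T.dim x = 1 → {y | y ∈ T.cc x ∧ u y = c}.Finite) :
    {y | y ∈ F.bd ∧ u y = c}.Finite := by
  have hb := T.finite_below F.pt_mem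
  rw [← F.set_eq] at hb
  -- vertices
  have hv : {y | y ∈ F.set ∧ T.dim y = 0}.Finite := by
    refine Set.Finite.of_finite_image (f := fun x => T.cc x) (hb.subset ?_) ?_
    · rintro _ ⟨y, ⟨hy, -⟩, rfl⟩
      refine ⟨⟨y, F.set_sub hy, rfl⟩, ?_⟩
      rw [F.set_eq] at hy ⊢
      exact T.cc_sub_of_mem hy
    · rintro x ⟨-, hx⟩ y ⟨-, hy⟩ hxy
      have h1 := T.cc_eq_singleton (T.dim_eq_zero_iff.1 hx)
      have h2 := T.cc_eq_singleton (T.dim_eq_zero_iff.1 hy)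
      have h3 : T.cc x = T.cc y := hxy
      rw [h1, h2] at h3
      exact singleton_injective h3
  have he : (⋃ D ∈ {D : Set E | (∃ z ∈ Om, D = T.cc z) ∧ D ⊆ F.set},
      {y | y ∈ D ∧ u y = c ∧ ∃ x ∈ F.set, T.dim x = 1 ∧ D = T.cc x}).Finite := by
    refine hb.biUnion fun D hD => ?_
    by_cases hex : ∃ x ∈ F.set, T.dim x = 1 ∧ D = T.cc x
    · obtain ⟨x, hx, hd, rfl⟩ := hex
      exact (h x hx hd).subset fun y hy => ⟨hy.1, hy.2.1⟩
    · refine finite_empty.subset ?_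
      rintro y ⟨-, -, h2⟩
      exact (hex h2).elim
  refine (hv.union he).subset ?_
  rintro y ⟨hy, hc⟩
  have hyF := F.bd_sub hy
  have hd := (F.mem_bd_iff hyF).1 hy
  rcases Nat.lt_or_ge (T.dim y) 1 with h1 | h1
  · left
    exact ⟨hyF, by omega⟩
  · right
    refine mem_biUnion (x := T.cc y) ⟨⟨y, F.set_sub hyF, rfl⟩, ?_⟩
      ⟨T.self_mem_cc y, hc, y, hyF, by omega, rfl⟩
    rw [F.set_eq] at hyF ⊢
    exact T.cc_sub_of_mem hyF

/-- **almost every level is regular** on every 2-cell inside the domain `W` of `u` -/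
theorem ae_reg {W : Set E} {u : E → ℝ} (hu : ContinuousOn u W)
    (hfin : ∀ x ∈ Om, T.dim x = 1 → T.cc x ⊆ W → ∀ᵐ c : ℝ, {y | y ∈ T.cc x ∧ u y = c}.Finite) :
    ∀ᵐ c : ℝ, (∀ x ∈ Om, T.dim x = 0 → u x ≠ c) ∧
      (∀ x ∈ Om, T.dim x = 1 → T.cc x ⊆ W → {y | y ∈ T.cc x ∧ u y = c}.Finite) ∧
      ∀ F : C2 T, F.set ⊆ W → RegOn u F.bd c ∧ c ∉ BadF u F.set F.bd := by
  -- edges, simultaneously
  have hc := countable_cells T
  have hedge : ∀ᵐ c : ℝ, ∀ D ∈ {c : Set E | ∃ x ∈ Om, c = T.cc x},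
      (∃ x ∈ Om, T.dim x = 1 ∧ D = T.cc x ∧ D ⊆ W) → {y | y ∈ D ∧ u y = c}.Finite := by
    rw [ae_ball_iff hc]
    intro D _
    by_cases hex : ∃ x ∈ Om, T.dim x = 1 ∧ D = T.cc x ∧ D ⊆ W
    · obtain ⟨x, hx, hd, rfl, hW⟩ := hex
      filter_upwards [hfin x hx hd hW] with c hc _
      exact hc
    · exact Eventually.of_forall fun c h => (hex h).elim
  have hedge' : ∀ᵐ c : ℝ, ∀ x ∈ Om, T.dim x = 1 → T.cc x ⊆ W →
      {y | y ∈ T.cc x ∧ u y = c}.Finite := by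
    filter_upwards [hedge] with c hc x hx hd hW
    exact hc (T.cc x) ⟨x, hx, rfl⟩ ⟨x, hx, hd, rfl, hW⟩
  have hlev := Pat6_543.ae_level (ι := {F : C2 T // F.set ⊆ W}) u (fun F => F.1.par)
    (fun F => F.1.set) (fun F => F.1.bd) (fun F => F.1.isDisc) (fun F => hu.mono F.2)
    (fun F => by
      filter_upwards [hedge'] with c hc
      refine finite_bd T F.1 fun x hx hd => hc x (F.1.set_sub hx) hd ?_
      refine Subset.trans ?_ F.2
      rw [F.1.set_eq] at hx ⊢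
      exact T.cc_sub_of_mem hx) (countable_vert T)
  filter_upwards [hedge', hlev] with c h1 h2
  exact ⟨fun x hx hd => h2.1 x ⟨hx, hd⟩, h1, fun F hF => h2.2 ⟨F, hF⟩⟩

/-- a compact piece of a regular level is a `RegLevel` -/
theorem regLevel_of {u : E → ℝ} {c : ℝ} {S : Set E} (hS : IsCompact S) (hSO : S ⊆ Om)
    (hv : ∀ x ∈ S, T.dim x ≠ 0)
    (h : ∀ F : C2 T, (F.set ∩ S).Nonempty → ContinuousOn u F.set ∧
      (∀ y ∈ F.set, y ∈ S ↔ u y = c) ∧ RegOn u F.bd c ∧ c ∉ BadF u F.set F.bd) :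
    RegLevel T u c S where
  cpt := hS
  sub := hSO
  vert := hv
  cont := fun x hx hd hne => (h (mk2 T hx hd) hne).1
  lev := fun x hx hd hne => (h (mk2 T hx hd) hne).2.1
  reg := fun x hx hd hne => by
    have h1 := (h (mk2 T hx hd) hne).2.2.1
    have h2 : (mk2 T hx hd).bd = T.cc x \ T.oc x := by
      unfold C2.bd mk2
      rw [T.opn_cl hx]
      rfl
    rwa [h2] at h1
  bad := fun x hx hd hne => by
    have h1 := (h (mk2 T hx hd) hne).2.2.2
    have h2 : (mk2 T hx hd).bd = T.cc x \ T.oc x := by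
      unfold C2.bd mk2
      rw [T.opn_cl hx]
      rfl
    rwa [h2] at h1

/-- the whole level set of a function on `Om` -/
theorem ae_regLevel {u : E → ℝ} (hu : ContinuousOn u Om)
    (hfin : ∀ x ∈ Om, T.dim x = 1 → ∀ᵐ c : ℝ, {y | y ∈ T.cc x ∧ u y = c}.Finite) :
    ∀ᵐ c : ℝ, IsCompact {x | x ∈ Om ∧ u x = c} → RegLevel T u c {x | x ∈ Om ∧ u x = c} := by
  filter_upwards [ae_reg T hu (fun x hx hd _ => hfin x hx hd)] with c hc hcpt
  refine regLevel_of T hcpt (fun x hx => hx.1) (fun x hx hd => hc.1 x hx.1 hd hx.2) ?_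
  intro F _
  refine ⟨hu.mono F.set_sub, fun y hy => ⟨fun h => h.2, fun h => ⟨F.set_sub hy, h⟩⟩, ?_⟩
  exact hc.2.2 F F.set_sub

/-- the crossings of a regular level with the 1-skeleton are countable -/
theorem countable_cross {W : Set E} {u : E → ℝ} {c : ℝ}
    (h0 : ∀ x ∈ Om, T.dim x = 0 → u x ≠ c)
    (h1 : ∀ x ∈ Om, T.dim x = 1 → T.cc x ⊆ W → {y | y ∈ T.cc x ∧ u y = c}.Finite) :
    {y | y ∈ Om ∧ T.dim y ≤ 1 ∧ T.cc y ⊆ W ∧ u y = c}.Countable := by
  have hc := countable_cells T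
  have h2 : (⋃ D ∈ {c : Set E | ∃ x ∈ Om, c = T.cc x},
      {y | y ∈ D ∧ u y = c ∧ ∃ x ∈ Om, T.dim x = 1 ∧ D = T.cc x ∧ D ⊆ W}).Countable := by
    refine hc.biUnion fun D _ => ?_
    by_cases hex : ∃ x ∈ Om, T.dim x = 1 ∧ D = T.cc x ∧ D ⊆ W
    · obtain ⟨x, hx, hd, rfl, hW⟩ := hex
      exact ((h1 x hx hd hW).subset fun y hy => ⟨hy.1, hy.2.1⟩).countable
    · refine countable_empty.mono ?_
      rintro y ⟨-, -, h3⟩
      exact (hex h3).elim
  refine h2.mono ?_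
  rintro y ⟨hy, hd, hW, hyc⟩
  have hd1 : T.dim y = 1 := by
    rcases Nat.lt_or_ge (T.dim y) 1 with h3 | h3
    · exact (h0 y hy (by omega) hyc).elim
    · omega
  exact mem_biUnion (x := T.cc y) ⟨y, hy, rfl⟩ ⟨T.self_mem_cc y, hyc, y, hy, hd1, rfl, hW⟩

/-- **different sheets do not meet on the 1-skeleton**: for almost every second level -/
theorem ae_sep {W : Set E} {u : E → ℝ} {c : ℝ}
    (h0 : ∀ x ∈ Om, T.dim x = 0 → u x ≠ c)
    (h1 : ∀ x ∈ Om, T.dim x = 1 → T.cc x ⊆ W → {y | y ∈ T.cc x ∧ u y = c}.Finite)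
    (u' : E → ℝ) :
    ∀ᵐ c' : ℝ, ∀ y ∈ Om, T.dim y ≤ 1 → T.cc y ⊆ W → u y = c → u' y ≠ c' := by
  have h2 := (countable_cross T h0 h1).image u'
  have h3 : ∀ᵐ c' : ℝ, c' ∉ u' '' {y | y ∈ Om ∧ T.dim y ≤ 1 ∧ T.cc y ⊆ W ∧ u y = c} :=
    compl_mem_ae_iff.2 (h2.measure_zero _)
  filter_upwards [h3] with c' hc' y hy hd hW hyc he
  exact hc' ⟨y, ⟨hy, hd, hW, hyc⟩, he⟩

/-- finiteness on a segment from finiteness in the parameter -/
theorem finite_segment {a b : E} {u : E → ℝ} {c : ℝ}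
    (h : (Icc (0 : ℝ) 1 ∩ (fun τ : ℝ => u (a + τ • (b - a))) ⁻¹' {c}).Finite) :
    {y | y ∈ segment ℝ a b ∧ u y = c}.Finite := by
  refine (h.image fun τ : ℝ => a + τ • (b - a)).subset ?_
  rintro y ⟨hy, hc⟩
  rw [segment_eq_image'] at hy
  obtain ⟨τ, hτ, rfl⟩ := hy
  exact ⟨τ, ⟨hτ, hc⟩, rfl⟩

/-- **edges**: if almost every level is finite along the segments of all edges, the hypothesis of
`ae_reg` holds -/
theorem ae_fin_edges {W : Set E} {u : E → ℝ}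
    (h : ∀ a b : E, T.dim a = 0 → T.dim b = 0 → a ∈ Om → b ∈ Om → segment ℝ a b ⊆ W →
      ∀ᵐ c : ℝ, (Icc (0 : ℝ) 1 ∩ (fun τ : ℝ => u (a + τ • (b - a))) ⁻¹' {c}).Finite) :
    ∀ x ∈ Om, T.dim x = 1 → T.cc x ⊆ W → ∀ᵐ c : ℝ, {y | y ∈ T.cc x ∧ u y = c}.Finite := by
  intro x hx hd hW
  obtain ⟨a, b, -, hcc, -, ha, hb, hax, hbx⟩ := T.edge_eq hx hd
  rw [hcc] at hW
  filter_upwards [h a b ha hb (T.cc_sub_Om hx hax) (T.cc_sub_Om hx hbx) hW] with c hc
  rw [hcc]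
  exact finite_segment hc

end Crest.Agent.R096.Agl8_543
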