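import Crest.Agent.R096.Coh6_184

/-! Row 96, P1-LAB (helper184), part 1: frontier of a convex body, counting labels on a circle. -/

set_option autoImplicit false

open Set Topology Filter Metric

namespace Crest.Agent.R096.Lab_184

open Crest.Agent.R096.Coh_184

variable {E : Type*} [NormedAddCommGroup E] [NormedSpace ℝ E]

theorem exists_homeo_sphere [FiniteDimensional ℝ E] (h3 : Module.finrank ℝ E = 3) {K : Set E}
    (hK : IsCompact K) (hc : Convex ℝ K) (hne : (interior K).Nonempty) :
    ∃ g : EuclideanSpace ℝ (Fin 3) ≃ₜ E, g '' Sph = frontier K := by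
  let L : E ≃L[ℝ] EuclideanSpace ℝ (Fin 3) := ContinuousLinearEquiv.ofFinrankEq (by simp [h3])
  have hc' : Convex ℝ (L '' K) := hc.linear_image (L : E →ₗ[ℝ] EuclideanSpace ℝ (Fin 3))
  have hne' : (interior (L '' K)).Nonempty := by
    have : interior (L '' K) = L '' interior K := (L.toHomeomorph.image_interior K).symm
    rw [this]; exact hne.image _
  have hb : Bornology.IsBounded (L '' K) := (hK.image L.continuous).isBounded
  obtain ⟨h, _, _, h4⟩ := exists_homeomorph_image_interior_closure_frontier_eq_unitBall hc' hne' hb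
  have hfr : frontier (L '' K) = L '' frontier K := (L.toHomeomorph.image_frontier K).symm
  refine ⟨h.symm.trans L.symm.toHomeomorph, ?_⟩
  have h5 : Sph = h '' (L '' frontier K) := by rw [← hfr]; exact h4.symm
  rw [h5]
  ext x
  constructor
  · rintro ⟨_, ⟨_, ⟨y, hy, rfl⟩, rfl⟩, rfl⟩
    simpa using hy
  · intro hx
    exact ⟨_, ⟨_, ⟨x, hx, rfl⟩, rfl⟩, by simp⟩

theorem trivF_frontier {A : Type*} [AddCommGroup A] [FiniteDimensional ℝ E]
    (h3 : Module.finrank ℝ E = 3) {K : Set E} (hK : IsCompact K) (hc : Convex ℝ K)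
    (hne : (interior K).Nonempty) : TrivF A (frontier K) := by
  obtain ⟨g, hg⟩ := exists_homeo_sphere h3 hK hc hne
  rw [← hg]
  exact trivF_sphere_image g.continuous.continuousOn g.injective.injOn

theorem isPreconnected_frontier [FiniteDimensional ℝ E]
    (h3 : Module.finrank ℝ E = 3) {K : Set E} (hK : IsCompact K) (hc : Convex ℝ K)
    (hne : (interior K).Nonempty) : IsPreconnected (frontier K) := by
  obtain ⟨g, hg⟩ := exists_homeo_sphere h3 hK hc hne
  rw [← hg]
  refine (isPreconnected_sphere ?_ _ _).image _ g.continuous.continuousOn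
  rw [← Module.finrank_eq_rank, finrank_euclideanSpace, Fintype.card_fin]
  norm_num

end Crest.Agent.R096.Lab_184
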