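import Crest.Agent.R096.Vb3_965
import Crest.Agent.R096.Brk2_582
import Crest.Agent.R096.Lab1_184

/-! Row 96, P1-TRIV (helper965), part 4: the level spheres of a simple foam; the exact sheets of a
foam pulled back by a push `Ψ` -/

set_option autoImplicit false
set_option linter.unusedSectionVars false
set_option linter.style.haveILetI false

open Set Topology Filter

namespace Crest.Agent.R096.Vb_965

open Crest.Agent.R096.Coh_184 Crest.Agent.R096.Brk1_582 Crest.Agent.R096.Brk2_582

variable {E : Type*} [NormedAddCommGroup E] [NormedSpace ℝ E] [CompleteSpace E] {I : Type*}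
variable {La : Set E} {P : I → Set E} {b : Set I → E} {N : ℕ}

section foam

variable (F : Foam La P b N)
include F

/-- near a point of one cell only there is only this cell -/
theorem only_cell {c : I} {y : E} (hy : y ∈ La) (h : ∀ d, y ∈ P d → d = c) :
    ∀ᶠ z in 𝓝 y, z ∈ La ∧ ∀ d, z ∈ P d → d = c := by
  obtain ⟨r, hr, hfin⟩ := F.lf y hy
  have h1 : ∀ d ∈ {d | (P d ∩ Metric.ball y r).Nonempty}, ∀ᶠ z in 𝓝 y, z ∈ P d → d = c := by
    intro d _
    by_cases hd : y ∈ P d
    · exact Eventually.of_forall fun _ _ => h d hd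
    · filter_upwards [(F.cpt d).isClosed.isOpen_compl.mem_nhds hd] with z hz hz2
      exact absurd hz2 hz
  filter_upwards [(hfin.eventually_all).2 h1, Metric.ball_mem_nhds y hr, F.op.mem_nhds hy]
    with z hz hzb hzL
  exact ⟨hzL, fun d hd => hz d ⟨z, hd, hzb⟩ hd⟩

theorem only_cell_nhds {c : I} {y : E} (hy : y ∈ La) (h : ∀ d, y ∈ P d → d = c) :
    P c ∈ 𝓝 y := by
  filter_upwards [only_cell F hy h] with z hz
  obtain ⟨d, hd⟩ := F.cov z hz.1
  rw [← hz.2 d hd]; exact hd

theorem cell_nonempty_of_b {c : I} (hc : (P c).Nonempty) : b {c} ∈ P c ∧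
    ∀ d, b {c} ∈ P d → d = c := by
  have hfc : (fc P {c}).Nonempty := by simpa [fc] using hc
  have h1 := F.act_b (singleton_nonempty c) hfc
  constructor
  · have : c ∈ act P (b {c}) := by rw [h1]; rfl
    exact this
  · intro d hd
    have : d ∈ act P (b {c}) := hd
    rw [h1] at this; exact this

/-- the boundary of a cell = its points in other cells -/
theorem frontier_cell (c : I) : frontier (P c) = Lset La P b c 0 := by
  rw [Lset_zero F, (F.cpt c).isClosed.frontier_eq]
  ext y
  constructor
  · rintro ⟨hy, hyi⟩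
    refine ⟨hy, ?_⟩
    by_contra hno
    push Not at hno
    exact hyi (mem_interior_iff_mem_nhds.2 (only_cell_nhds F (F.sub c hy) fun d hd => by
      by_contra hne
      exact hno d hne hd))
  · rintro ⟨hy, d, hdc, hyd⟩
    refine ⟨hy, fun hyi => ?_⟩
    -- points `b {d} + t (y - b {d})`, `t → 1`
    have hcont : Continuous fun t : ℝ => b {d} + t • (y - b {d}) := by fun_prop
    have h1 : Tendsto (fun t : ℝ => b {d} + t • (y - b {d})) (𝓝[<] 1) (𝓝 y) := by
      have := (hcont.tendsto 1).mono_left (nhdsWithin_le_nhds (s := Iio (1 : ℝ)))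
      simpa using this
    have h2 : ∀ᶠ t in 𝓝[<] (1 : ℝ), b {d} + t • (y - b {d}) ∈ P c :=
      h1 (mem_interior_iff_mem_nhds.1 hyi)
    have h3 : ∀ᶠ t in 𝓝[<] (1 : ℝ), t ∈ Ico (0 : ℝ) 1 := by
      have : Ico (0 : ℝ) 1 ∈ 𝓝[<] (1 : ℝ) := Ico_mem_nhdsLT (by norm_num)
      exact this
    obtain ⟨t, ht, ht2⟩ := (h2.and h3).exists
    have h4 := F.rel {d} (singleton_nonempty d) y (by simpa [fc] using hyd) t ht2
    have : c ∈ act P (b {d} + t • (y - b {d})) := ht
    rw [h4] at this
    exact hdc this.symm

theorem interior_cell {c : I} (hc : (P c).Nonempty) : (interior (P c)).Nonempty := by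
  have h := cell_nonempty_of_b F hc
  exact ⟨b {c}, mem_interior_iff_mem_nhds.2 (only_cell_nhds F (F.sub c h.1) h.2)⟩

theorem isClosed_Lset_zero (c : I) : IsClosed (Lset La P b c 0) := by
  rw [← frontier_cell F]; exact isClosed_frontier

theorem isCompact_Lset_zero (c : I) : IsCompact (Lset La P b c 0) := by
  rw [← frontier_cell F]
  exact (F.cpt c).of_isClosed_subset isClosed_frontier (F.cpt c).isClosed.frontier_subset

theorem isCompact_Lset (c : I) {s : ℝ} (hs0 : 0 ≤ s) (hs1 : s < 1) :
    IsCompact (Lset La P b c s) := by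
  classical
  have _ : CompactSpace (Lset La P b c 0) := isCompact_iff_compactSpace.1 (isCompact_Lset_zero F c)
  have _ : CompactSpace (Lset La P b c s) :=
    (mvHomeo F c le_rfl one_pos hs0 hs1).compactSpace
  exact isCompact_iff_compactSpace.2 inferInstance

/-- **the level spheres of a cell have trivial torsors** -/
theorem trivF_Lset {A : Type*} [AddCommGroup A] [FiniteDimensional ℝ E]
    (h3 : Module.finrank ℝ E = 3) {c : I} (hc : (P c).Nonempty) {s : ℝ} (hs0 : 0 ≤ s)
    (hs1 : s < 1) : TrivF A (Lset La P b c s) := by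
  classical
  have h1 : TrivF A (Lset La P b c 0) := by
    rw [← frontier_cell F]
    exact Lab_184.trivF_frontier h3 (F.cpt c) (F.cvx c) (interior_cell F hc)
  exact h1.of_homeo (isClosed_Lset_zero F c) (mvHomeo F c le_rfl one_pos hs0 hs1)

theorem isPreconnected_Lset [FiniteDimensional ℝ E]
    (h3 : Module.finrank ℝ E = 3) {c : I} (hc : (P c).Nonempty) {s : ℝ} (hs0 : 0 ≤ s)
    (hs1 : s < 1) : IsPreconnected (Lset La P b c s) := by
  classical
  have h1 : IsPreconnected (Lset La P b c 0) := by
    rw [← frontier_cell F]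
    exact Lab_184.isPreconnected_frontier h3 (F.cpt c) (F.cvx c) (interior_cell F hc)
  have h2 := isPreconnected_iff_preconnectedSpace.1 h1
  have h3 : IsPreconnected (univ : Set (Lset La P b c s)) := by
    have h4 := h2.isPreconnected_univ.image (mvHomeo F c le_rfl one_pos hs0 hs1)
      (mvHomeo F c le_rfl one_pos hs0 hs1).continuous.continuousOn
    rwa [image_univ, (mvHomeo F c le_rfl one_pos hs0 hs1).surjective.range_eq] at h4
  have := h3.image Subtype.val continuous_subtype_val.continuousOn
  rwa [image_univ, Subtype.range_coe] at this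

end foam

end Crest.Agent.R096.Vb_965
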