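import Mathlib
import Crest.Agent.R096.Vb4_965
import Crest.Agent.R096.Agl8_543
import Crest.Prelude.Def_SobolevMap

/-! # INIT 2 (row 96, helper543): monotone retractions of a foam, preimages, sheets and strips -/

set_option autoImplicit false
set_option linter.unusedSectionVars false

open Set Filter Topology Metric

namespace Crest.Agent.R096.Init_543

open Crest.Agent.R096.Brk1_582 Crest.Agent.R096.Brk2_582 Crest.Agent.R096.Coh_184
  Crest.Agent.R096.Vb_965

/-! ### homeomorphisms with explicit inverse -/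

/-- `f : Om → La` is a homeomorphism with inverse `g` -/
structure Hm {E V : Type*} [TopologicalSpace E] [TopologicalSpace V] (f : E → V) (g : V → E)
    (Om : Set E) (La : Set V) : Prop where
  fm : MapsTo f Om La
  gm : MapsTo g La Om
  gf : ∀ x ∈ Om, g (f x) = x
  fg : ∀ y ∈ La, f (g y) = y
  fc : ContinuousOn f Om
  gc : ContinuousOn g La

theorem exists_hm {f : Crest.AnalysisR.VecCalc3.R3 → Crest.AnalysisR.VecCalc3.R3}
    {Om La : Set Crest.AnalysisR.VecCalc3.R3}
    (h : Crest.AnalysisR.Sobolev.IsHomeomorphOn f Om La) : ∃ g, Hm f g Om La := by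
  obtain ⟨g, a1, a2, a3, a4, a5, a6⟩ := h
  exact ⟨g, a1, a2, a3, a4, a5, a6⟩

section hm

variable {E V : Type*} [MetricSpace E] [TopologicalSpace V] [T2Space V] {f : E → V} {g : V → E}
  {Om : Set E} {La : Set V}

theorem Hm.pre_eq (h : Hm f g Om La) {D : Set V} (hD : D ⊆ La) : Om ∩ f ⁻¹' D = g '' D := by
  ext x
  constructor
  · rintro ⟨hx, hxD⟩
    exact ⟨f x, hxD, h.gf x hx⟩
  · rintro ⟨y, hy, rfl⟩
    refine ⟨h.gm (hD hy), ?_⟩
    show f (g y) ∈ D
    rw [h.fg y (hD hy)]; exact hy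

theorem Hm.injOn (h : Hm f g Om La) : InjOn g La := by
  intro y hy y' hy' he
  rw [← h.fg y hy, he, h.fg y' hy']

theorem Hm.isCompact_pre (h : Hm f g Om La) {D : Set V} (hD : D ⊆ La) (hc : IsCompact D) :
    IsCompact (Om ∩ f ⁻¹' D) := by
  rw [h.pre_eq hD]
  exact hc.image_of_continuousOn (h.gc.mono hD)

theorem Hm.trivF_pre (h : Hm f g Om La) {D : Set V} (hD : D ⊆ La) (hc : IsCompact D)
    (ht : TrivF (ZMod 2) D) : TrivF (ZMod 2) (Om ∩ f ⁻¹' D) := by
  rw [h.pre_eq hD]
  exact ht.of_image hc hc.isClosed (h.gc.mono hD) (h.injOn.mono hD)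

theorem Hm.preconn_pre (h : Hm f g Om La) {D : Set V} (hD : D ⊆ La) (ht : IsPreconnected D) :
    IsPreconnected (Om ∩ f ⁻¹' D) := by
  rw [h.pre_eq hD]
  exact ht.image _ (h.gc.mono hD)

end hm

/-! ### monotone retractions -/

variable {V : Type*} [NormedAddCommGroup V] [NormedSpace ℝ V] [FiniteDimensional ℝ V] {I : Type*}
variable {La : Set V} {P : I → Set V} {b : Set I → V} {N : ℕ} {R : V → V}

/-- a continuous map of the foam onto itself which preserves the cells and has fibres with trivial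
torsors -/
structure Ret (La : Set V) (P : I → Set V) (R : V → V) : Prop where
  cont : ContinuousOn R La
  cell : ∀ c, MapsTo R (P c) (P c)
  surj : ∀ y ∈ La, ∃ y' ∈ La, R y' = y
  conn : ∀ y ∈ La, IsPreconnected (La ∩ R ⁻¹' {y})
  triv : ∀ y ∈ La, TrivF (ZMod 2) (La ∩ R ⁻¹' {y})

/-- the preimage under the retraction -/
def rpre (La : Set V) (R : V → V) (D : Set V) : Set V := La ∩ R ⁻¹' D

section ret

variable (F : Foam La P b N) (hR : Ret La P R)
include F hR

theorem Ret.mapsTo : MapsTo R La La := by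
  intro y hy
  obtain ⟨c, hc⟩ := F.cov y hy
  exact F.sub c (hR.cell c hc)

theorem Ret.isCompact_pre {D : Set V} (hD : IsCompact D) (hDL : D ⊆ La) :
    IsCompact (rpre La R D) := by
  have hfin : {c | (P c ∩ D).Nonempty}.Finite := F.finite_meet hD hDL
  have hK : IsCompact (⋃ c ∈ {c | (P c ∩ D).Nonempty}, P c) :=
    hfin.isCompact_biUnion fun c _ => F.cpt c
  have hKL : (⋃ c ∈ {c | (P c ∩ D).Nonempty}, P c) ⊆ La := iUnion₂_subset fun c _ => F.sub c
  have h1 : rpre La R D = (⋃ c ∈ {c | (P c ∩ D).Nonempty}, P c) ∩ R ⁻¹' D := by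
    ext y
    constructor
    · rintro ⟨hy, hyD⟩
      obtain ⟨c, hc⟩ := F.cov y hy
      exact ⟨mem_iUnion₂.2 ⟨c, ⟨R y, hR.cell c hc, hyD⟩, hc⟩, hyD⟩
    · rintro ⟨hy, hyD⟩
      exact ⟨hKL hy, hyD⟩
  rw [h1]
  exact hK.of_isClosed_subset ((hR.cont.mono hKL).preimage_isClosed_of_isClosed hK.isClosed
    hD.isClosed) inter_subset_left

theorem Ret.image_pre {D : Set V} (hDL : D ⊆ La) : R '' rpre La R D = D := by
  ext y
  constructor
  · rintro ⟨y', ⟨-, h⟩, rfl⟩; exact h
  · intro hy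
    obtain ⟨y', hy', he⟩ := hR.surj y (hDL hy)
    exact ⟨y', ⟨hy', by show R y' ∈ D; rw [he]; exact hy⟩, he⟩

omit F in
theorem Ret.fib {D : Set V} {z : V} (hz : z ∈ D) :
    rpre La R D ∩ R ⁻¹' {z} = La ∩ R ⁻¹' {z} := by
  ext y
  constructor
  · rintro ⟨h1, h2⟩; exact ⟨h1.1, h2⟩
  · rintro ⟨h1, h2⟩
    have h3 : R y = z := h2
    exact ⟨⟨h1, by show R y ∈ D; rw [h3]; exact hz⟩, h2⟩

theorem Ret.trivF_pre {D : Set V} (hD : IsCompact D) (hDL : D ⊆ La) (ht : TrivF (ZMod 2) D) :
    TrivF (ZMod 2) (rpre La R D) := by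
  have hc := hR.isCompact_pre F hD hDL
  intro n
  refine TrivAll.of_fibres hc hc.isClosed (hR.cont.mono inter_subset_left)
    (hR.image_pre F hDL) (fun z hz => ?_) (fun z hz => ?_) ht
  · rw [hR.fib hz]; exact hR.conn z (hDL hz)
  · rw [hR.fib hz]; exact hR.triv z (hDL hz) n

theorem Ret.preconn_pre {D : Set V} (hD : IsCompact D) (hDL : D ⊆ La) (ht : IsPreconnected D) :
    IsPreconnected (rpre La R D) := by
  have hc := hR.isCompact_pre F hD hDL
  refine preconn_of_fibres hc (hR.cont.mono inter_subset_left) (hR.image_pre F hDL)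
    (fun z hz => ?_) ht
  rw [hR.fib hz]; exact hR.conn z (hDL hz)

end ret

/-! ### the identity is a monotone retraction -/

theorem Ret.id : Ret La P (fun y => y) where
  cont := continuousOn_id
  cell := fun _ _ h => h
  surj := fun y hy => ⟨y, hy, rfl⟩
  conn := fun y hy => by
    have : La ∩ (fun y => y) ⁻¹' {y} = {y} := by
      ext z; constructor
      · rintro ⟨-, h⟩; exact h
      · rintro rfl; exact ⟨hy, rfl⟩
    rw [this]; exact isPreconnected_singleton
  triv := fun y hy => by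
    have : La ∩ (fun y => y) ⁻¹' {y} = {y} := by
      ext z; constructor
      · rintro ⟨-, h⟩; exact h
      · rintro rfl; exact ⟨hy, rfl⟩
    rw [this]; exact trivF_singleton y

/-! ### arcs: level, one more active coordinate -/

section arc

variable (F : Foam La P b N)
include F

open Classical in
/-- coordinates of a point of a quad: `a ↦ t`, `a' ↦ s`, zeros `Z`, all others `1` -/
noncomputable def qu (a a' : I) (Z : Set I) (t s : ℝ) : I → ℝ := fun c =>
  if c = a then t else if c = a' then s else if c ∈ Z then 0 else 1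

omit F in
theorem qu_mem {a a' : I} {Z : Set I} (haZ : a ∉ Z) (haZ' : a' ∉ Z) (hZ : Z.Nonempty)
    (hne : (fc P (insert a (insert a' Z))).Nonempty) {t s : ℝ} (ht : t ∈ Icc (0 : ℝ) 1)
    (hs : s ∈ Icc (0 : ℝ) 1) : qu a a' Z t s ∈ K P := by
  classical
  refine ⟨fun c => ?_, ?_, ?_⟩
  · unfold qu
    split_ifs
    · exact ht
    · exact hs
    · exact ⟨le_rfl, zero_le_one⟩
    · exact ⟨zero_le_one, le_rfl⟩
  · obtain ⟨c, hc⟩ := hZ
    refine ⟨c, ?_⟩
    unfold qu
    rw [if_neg (fun e : c = a => haZ (e ▸ hc)), if_neg (fun e : c = a' => haZ' (e ▸ hc)), if_pos hc]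
  · refine hne.mono (fc_anti fun c hc => ?_)
    have hc' : qu a a' Z t s c < 1 := hc
    unfold qu at hc'
    by_cases h1 : c = a
    · exact Or.inl h1
    by_cases h2 : c = a'
    · exact Or.inr (Or.inl h2)
    by_cases h3 : c ∈ Z
    · exact Or.inr (Or.inr h3)
    · rw [if_neg h1, if_neg h2, if_neg h3] at hc'
      exact absurd hc' (lt_irrefl _)

/-- the arc in a quad: the coordinate `a` is `t`, the coordinate `a'` in `[l, r]`, zeros `Z` -/
def qarc (La : Set V) (P : I → Set V) (b : Set I → V) (a a' : I) (Z : Set I) (t l r : ℝ) : Set V :=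
  {y | y ∈ La ∧ sc P b y a = t ∧ sc P b y a' ∈ Icc l r ∧ ∀ c ∈ Z, sc P b y c = 0}

variable {a a' : I} {Z : Set I} {t l r : ℝ}

/-- the coordinates of the points of the arc -/
theorem sc_qarc (hN : (insert a (insert a' Z)).ncard = N) (ht : t < 1) (hr : r < 1) {y : V}
    (hy : y ∈ qarc La P b a a' Z t l r) :
    sc P b y = qu a a' Z t (sc P b y a') := by
  classical
  obtain ⟨hyL, h1, h2, h3⟩ := hy
  have hsub : insert a (insert a' Z) ⊆ {c | sc P b y c < 1} := by
    rintro c (rfl | rfl | hc)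
    · show sc P b y c < 1
      rw [h1]; exact ht
    · exact h2.2.trans_lt hr
    · show sc P b y c < 1
      rw [h3 c hc]; exact one_pos
  have heq : insert a (insert a' Z) = {c | sc P b y c < 1} := by
    refine Set.eq_of_subset_of_ncard_le hsub ?_ (F.sc_lt_one_finite hyL)
    rw [hN]; exact F.sc_lt_one_ncard hyL
  funext c
  unfold qu
  by_cases c1 : c = a
  · rw [if_pos c1, c1, h1]
  by_cases c2 : c = a'
  · rw [if_neg c1, if_pos c2, c2]
  by_cases c3 : c ∈ Z
  · rw [if_neg c1, if_neg c2, if_pos c3, h3 c c3]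
  · rw [if_neg c1, if_neg c2, if_neg c3]
    have : c ∉ {c | sc P b y c < 1} := by
      rw [← heq]
      rintro (h | h | h)
      · exact c1 h
      · exact c2 h
      · exact c3 h
    exact le_antisymm (F.sc_le_one hyL c) (not_lt.1 this)

/-- the arc is the image of an interval -/
theorem qarc_eq (hN : (insert a (insert a' Z)).ncard = N) (ht0 : 0 ≤ t) (ht : t < 1) (hl : 0 ≤ l)
    (hr : r < 1) (haa : a ≠ a') (haZ : a ∉ Z) (haZ' : a' ∉ Z)
    (hZ : Z.Nonempty) (hne : (fc P (insert a (insert a' Z))).Nonempty) :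
    qarc La P b a a' Z t l r = (fun s => T b (qu a a' Z t s)) '' Icc l r := by
  classical
  ext y
  constructor
  · intro hy
    have h1 := sc_qarc F hN ht hr hy
    refine ⟨sc P b y a', hy.2.2.1, ?_⟩
    show T b (qu a a' Z t (sc P b y a')) = y
    rw [← h1, F.T_sc hy.1]
  · rintro ⟨s, hs, rfl⟩
    have hK : qu a a' Z t s ∈ K P := qu_mem haZ haZ' hZ hne ⟨ht0, ht.le⟩
      ⟨hl.trans hs.1, (hs.2.trans_lt hr).le⟩
    refine ⟨F.T_mem_La hK, ?_, ?_, ?_⟩
    · rw [F.sc_T hK]; simp [qu]
    · rw [F.sc_T hK]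
      have : qu a a' Z t s a' = s := by simp [qu, Ne.symm haa]
      rw [this]; exact hs
    · intro c hc
      rw [F.sc_T hK]
      unfold qu
      rw [if_neg (fun e : c = a => haZ (e ▸ hc)), if_neg (fun e : c = a' => haZ' (e ▸ hc)), if_pos hc]

omit F [FiniteDimensional ℝ V] in
theorem continuous_qu (a a' : I) (Z : Set I) (t : ℝ) : Continuous (qu a a' Z t) := by
  classical
  refine continuous_pi fun c => ?_
  unfold qu
  split_ifs
  · exact continuous_const
  · exact continuous_id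
  · exact continuous_const
  · exact continuous_const

theorem qarc_props (hN : (insert a (insert a' Z)).ncard = N) (ht0 : 0 ≤ t) (ht : t < 1)
    (hl : 0 ≤ l) (hr : r < 1) (haa : a ≠ a') (haZ : a ∉ Z) (haZ' : a' ∉ Z)
    (hZ : Z.Nonempty) (hne : (fc P (insert a (insert a' Z))).Nonempty) :
    IsCompact (qarc La P b a a' Z t l r) ∧ TrivF (ZMod 2) (qarc La P b a a' Z t l r) ∧
      IsPreconnected (qarc La P b a a' Z t l r) := by
  classical
  rw [qarc_eq F hN ht0 ht hl hr haa haZ haZ' hZ hne]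
  have hmem : ∀ s ∈ Icc l r, qu a a' Z t s ∈ K P := fun s hs =>
    qu_mem haZ haZ' hZ hne ⟨ht0, ht.le⟩ ⟨hl.trans hs.1, (hs.2.trans_lt hr).le⟩
  have hcont : ContinuousOn (fun s => T b (qu a a' Z t s)) (Icc l r) :=
    (continuousOn_T F).comp (continuous_qu a a' Z t).continuousOn hmem
  have hinj : InjOn (fun s => T b (qu a a' Z t s)) (Icc l r) := by
    intro s hs s' hs' he
    have h1 := F.T_injOn (hmem s hs) (hmem s' hs') he
    have h2 := congrFun h1 a'
    simpa [qu, Ne.symm haa] using h2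
  exact ⟨isCompact_Icc.image_of_continuousOn hcont,
    trivF_Icc.of_image isCompact_Icc isClosed_Icc hcont hinj,
    isPreconnected_Icc.image _ hcont⟩

end arc

end Crest.Agent.R096.Init_543
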