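import Mathlib
import Crest.Agent.R096.Init2_543
import Crest.Agent.R096.Ginv4_543

/-! # INIT 3 (row 96, helper543): the quads of a foam over a mesh with core tiles, the global family
of sheets and the invariant of the initial state -/

set_option autoImplicit false
set_option linter.unusedSectionVars false

open Set Filter Topology Metric

namespace Crest.Agent.R096.Init_543

open Crest.Agent.R096.Brk1_582 Crest.Agent.R096.Brk2_582 Crest.Agent.R096.Coh_184
  Crest.Agent.R096.Vb_965 Crest.Agent.R096.Msh_715 Crest.Agent.R096.Agl4_543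
  Crest.Agent.R096.Agl5_543 Crest.Agent.R096.Agl8_543 Crest.Agent.R096.Ginv_543
  Crest.Agent.R096.Seq_213 Crest.Agent.R096.Pat5_543

variable {E V : Type} [NormedAddCommGroup E] [NormedSpace ℝ E] [FiniteDimensional ℝ E]
  [NormedAddCommGroup V] [NormedSpace ℝ V] [FiniteDimensional ℝ V]
variable {I ι J : Type} {Om : Set E} {La : Set V} {P : I → Set V} {b : Set I → V} {N : ℕ}
  {R : V → V} {f : E → V} {g : V → E}

/-- the coordinates of the retracted map -/
noncomputable def va (P : I → Set V) (b : Set I → V) (R : V → V) (f : E → V) (a : I) (x : E) : ℝ :=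
  sc P b (R (f x)) a

/-- the sheet of the family `a` at the level `t` -/
def sheet (Om : Set E) (P : I → Set V) (b : Set I → V) (R : V → V) (f : E → V) (a : I) (t : ℝ) :
    Set E := {x | x ∈ Om ∧ va P b R f a x = t}

section sheet

variable (H : Hm f g Om La) (F : Foam La P b N) (hR : Ret La P R)
include H F hR

theorem mem_La {x : E} (hx : x ∈ Om) : R (f x) ∈ La := hR.mapsTo F (H.fm hx)

theorem va_nonneg {x : E} (hx : x ∈ Om) (a : I) : 0 ≤ va P b R f a x :=
  F.sc_nonneg (mem_La H F hR hx) a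

theorem va_le_one {x : E} (hx : x ∈ Om) (a : I) : va P b R f a x ≤ 1 :=
  F.sc_le_one (mem_La H F hR hx) a

theorem continuousOn_va (a : I) : ContinuousOn (va P b R f a) Om :=
  ((continuousOn_sc_apply F a).comp (hR.cont.comp H.fc H.fm)
    (fun _ hx => mem_La H F hR hx))

theorem sheet_eq {a : I} {t : ℝ} (ht : t ≠ 0) :
    sheet Om P b R f a t = Om ∩ f ⁻¹' (rpre La R (Lset La P b a t)) := by
  ext x
  constructor
  · rintro ⟨hx, h⟩
    exact ⟨hx, H.fm hx, mem_Lset_of_pos F ht (mem_La H F hR hx) h⟩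
  · rintro ⟨hx, -, h⟩
    exact ⟨hx, h.2.1⟩

theorem isCompact_sheet {a : I} {t : ℝ} (ht : 0 < t) (ht1 : t < 1) :
    IsCompact (sheet Om P b R f a t) := by
  rw [sheet_eq H F hR ht.ne']
  exact H.isCompact_pre (fun y hy => hy.1)
    (hR.isCompact_pre F (isCompact_Lset F a ht.le ht1) fun y hy => hy.1)

theorem trivF_sheet (hV : Module.finrank ℝ V = 3) {a : I} {t : ℝ} (ht : 0 < t) (ht1 : t < 1) :
    TrivF (ZMod 2) (sheet Om P b R f a t) := by
  rcases (P a).eq_empty_or_nonempty with he | hne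
  · have : sheet Om P b R f a t = ∅ := by
      rw [Set.eq_empty_iff_forall_notMem]
      rintro x ⟨hx, h⟩
      have h1 : va P b R f a x < 1 := by rw [h]; exact ht1
      obtain ⟨y, hy⟩ := F.sc_lt_one_fc (mem_La H F hR hx)
      have h2 : y ∈ P a := mem_fc.1 hy a h1
      rw [he] at h2
      exact h2
    rw [this]; exact trivF_empty
  · rw [sheet_eq H F hR ht.ne']
    have hc := isCompact_Lset F a ht.le ht1
    exact H.trivF_pre (fun y hy => hy.1) (hR.isCompact_pre F hc fun y hy => hy.1)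
      (hR.trivF_pre F hc (fun y hy => hy.1) (trivF_Lset F hV hne ht.le ht1))

theorem preconn_sheet (hV : Module.finrank ℝ V = 3) {a : I} {t : ℝ} (ht : 0 < t) (ht1 : t < 1) :
    IsPreconnected (sheet Om P b R f a t) := by
  rcases (P a).eq_empty_or_nonempty with he | hne
  · have : sheet Om P b R f a t = ∅ := by
      rw [Set.eq_empty_iff_forall_notMem]
      rintro x ⟨hx, h⟩
      have h1 : va P b R f a x < 1 := by rw [h]; exact ht1
      obtain ⟨y, hy⟩ := F.sc_lt_one_fc (mem_La H F hR hx)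
      have h2 : y ∈ P a := mem_fc.1 hy a h1
      rw [he] at h2
      exact h2
    rw [this]; exact isPreconnected_empty
  · rw [sheet_eq H F hR ht.ne']
    have hc := isCompact_Lset F a ht.le ht1
    exact H.preconn_pre (fun y hy => hy.1)
      (hR.preconn_pre F hc (fun y hy => hy.1) (isPreconnected_Lset F hV hne ht.le ht1))

/-- **almost every level is regular** -/
theorem ae_level (T : Tiling Om ι) (a : I)
    (hfin : ∀ x ∈ Om, T.dim x = 1 → ∀ᵐ c : ℝ, {y | y ∈ T.cc x ∧ va P b R f a y = c}.Finite) :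
    ∀ᵐ t : ℝ, t ∈ Ioo (0 : ℝ) 1 → RegLevel T (va P b R f a) t (sheet Om P b R f a t) := by
  filter_upwards [ae_regLevel T (continuousOn_va H F hR a) hfin] with t h ht
  exact h (isCompact_sheet H F hR ht.1 ht.2)

end sheet

/-! ### quads -/

/-- a quad: two active cells, two zero cells, the four cells have a common point -/
@[ext] structure QK (P : I → Set V) : Type where
  B : Set I
  Z : Set I
  cB : B.ncard = 2
  cZ : Z.ncard = 2
  dis : Disjoint B Z
  ne : (fc P (B ∪ Z)).Nonempty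

namespace QK

variable (k : QK P)

theorem exists_pr : ∃ a a' : I, a ≠ a' ∧ k.B = {a, a'} := Set.ncard_eq_two.1 k.cB

open Classical in
/-- the two active cells -/
noncomputable def pr (k : QK P) (β : Bool) : I :=
  if β then k.exists_pr.choose else k.exists_pr.choose_spec.choose

theorem pr_ne : k.pr true ≠ k.pr false := by
  simpa [pr] using k.exists_pr.choose_spec.choose_spec.1

theorem B_eq : k.B = {k.pr true, k.pr false} := by
  simpa [pr] using k.exists_pr.choose_spec.choose_spec.2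

theorem mem_B {a : I} : a ∈ k.B ↔ ∃ β, k.pr β = a := by
  rw [k.B_eq]
  constructor
  · rintro (h | h)
    · exact ⟨true, h.symm⟩
    · exact ⟨false, h.symm⟩
  · rintro ⟨β, rfl⟩
    cases β
    · exact Or.inr rfl
    · exact Or.inl rfl

theorem finB : k.B.Finite := Set.finite_of_ncard_ne_zero (by rw [k.cB]; norm_num)

theorem finZ : k.Z.Finite := Set.finite_of_ncard_ne_zero (by rw [k.cZ]; norm_num)

theorem card_union : (k.B ∪ k.Z).ncard = 4 := by
  rw [Set.ncard_union_eq k.dis k.finB k.finZ, k.cB, k.cZ]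

theorem Z_nonempty : k.Z.Nonempty := by
  rw [← Set.ncard_pos k.finZ, k.cZ]; norm_num

/-- the other active cell -/
theorem exists_other {a : I} (ha : a ∈ k.B) : ∃ a', a ≠ a' ∧ a' ∈ k.B ∧ k.B = {a, a'} := by
  rw [k.B_eq] at ha
  rcases ha with h | h
  · exact ⟨k.pr false, by rw [h]; exact k.pr_ne, k.mem_B.2 ⟨_, rfl⟩, by rw [h]; exact k.B_eq⟩
  · refine ⟨k.pr true, by rw [h]; exact k.pr_ne.symm, k.mem_B.2 ⟨_, rfl⟩, ?_⟩
    rw [h, k.B_eq, Set.pair_comm]

end QK

/-- the tiles over the quad `k`, at distance `s` from its boundary, core tiles excluded -/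
def Act0 (T : Tiling Om ι) (P : I → Set V) (b : Set I → V) (R : V → V) (f : E → V) (Kor : Set ι)
    (s : ℝ) (k : QK P) : Set ι :=
  {q | q ∉ Kor ∧ ∃ x ∈ Msh_715.P (T.H q), (∀ a ∈ k.B, va P b R f a x ∈ Icc s (1 - s)) ∧
    ∀ c ∈ k.Z, va P b R f c x = 0}

/-- the strip of the sheet `(a, t)` over the quad `k` -/
def strip (Om : Set E) (P : I → Set V) (b : Set I → V) (R : V → V) (f : E → V) (s : ℝ) (a : I)
    (t : ℝ) (k : QK P) : Set E :=
  {x | x ∈ Om ∧ va P b R f a x = t ∧ (∀ a' ∈ k.B, va P b R f a' x ∈ Icc s (1 - s)) ∧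
    ∀ c ∈ k.Z, va P b R f c x = 0}

/-- hypotheses on the mesh: outside the core tiles the retracted map lies on the walls and the
coordinates oscillate by at most `ε` -/
structure Mesh0 (T : Tiling Om ι) (P : I → Set V) (b : Set I → V) (R : V → V) (f : E → V)
    (Kor : Set ι) (ε : ℝ) : Prop where
  wall : ∀ q, q ∉ Kor → ∀ x ∈ Msh_715.P (T.H q), ∃ c c', c ≠ c' ∧ R (f x) ∈ P c ∧ R (f x) ∈ P c'
  osc : ∀ q, q ∉ Kor → ∀ x ∈ Msh_715.P (T.H q), ∀ x' ∈ Msh_715.P (T.H q), ∀ a,
    |va P b R f a x - va P b R f a x'| ≤ ε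

section quads

variable (H : Hm f g Om La) (F : Foam La P b 4) (hR : Ret La P R)
variable {T : Tiling Om ι} {Kor : Set ι} {ε : ℝ} (hM : Mesh0 T P b R f Kor ε)
include H F hR

/-- the strip is the preimage of an arc -/
theorem strip_eq {s : ℝ} {k : QK P} {a a' : I} (haa : a ≠ a') (hB : k.B = {a, a'}) {t : ℝ}
    (ht : t ∈ Icc s (1 - s)) :
    strip Om P b R f s a t k = Om ∩ f ⁻¹' (rpre La R (qarc La P b a a' k.Z t s (1 - s))) := by
  ext x
  constructor
  · rintro ⟨hx, h1, h2, h3⟩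
    exact ⟨hx, H.fm hx, mem_La H F hR hx, h1, h2 a' (by rw [hB]; exact Or.inr rfl), h3⟩
  · rintro ⟨hx, -, -, h1, h2, h3⟩
    refine ⟨hx, h1, ?_, h3⟩
    intro c hc
    rw [hB] at hc
    rcases hc with rfl | hc
    · have h4 : va P b R f c x = t := h1
      rw [h4]; exact ht
    · rw [Set.mem_singleton_iff.1 hc]; exact h2

theorem strip_props {s : ℝ} (hs : 0 < s) {k : QK P} {a : I} (ha : a ∈ k.B) {t : ℝ}
    (ht : t ∈ Icc s (1 - s)) :
    IsCompact (strip Om P b R f s a t k) ∧ TrivF (ZMod 2) (strip Om P b R f s a t k) := by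
  obtain ⟨a', haa, ha', hB⟩ := k.exists_other ha
  rw [strip_eq H F hR haa hB ht]
  have hU : insert a (insert a' k.Z) = k.B ∪ k.Z := by
    rw [hB]
    ext c
    simp [or_assoc]
  have haZ : a ∉ k.Z := fun h => disjoint_left.1 k.dis ha h
  have haZ' : a' ∉ k.Z := fun h => disjoint_left.1 k.dis ha' h
  obtain ⟨h1, h2, -⟩ := qarc_props F (a := a) (a' := a') (Z := k.Z) (t := t) (l := s)
    (r := 1 - s) (by rw [hU]; exact k.card_union) (hs.le.trans ht.1) (by linarith [ht.2]) hs.le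
    (by linarith) haa haZ haZ' k.Z_nonempty (by rw [hU]; exact k.ne)
  have hsub : qarc La P b a a' k.Z t s (1 - s) ⊆ La := fun y hy => hy.1
  exact ⟨H.isCompact_pre (fun y hy => hy.1) (hR.isCompact_pre F h1 hsub),
    H.trivF_pre (fun y hy => hy.1) (hR.isCompact_pre F h1 hsub) (hR.trivF_pre F h1 hsub h2)⟩

include hM

/-- **key lemma**: all points of a tile over a quad lie over this quad -/
theorem key {s : ℝ} (hε : ε < s) (hε1 : ε < 1) {k : QK P} {q : ι} (hq : q ∉ Kor) {x₀ x : E}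
    (hx₀ : x₀ ∈ Msh_715.P (T.H q)) (hx : x ∈ Msh_715.P (T.H q))
    (h1 : ∀ a ∈ k.B, va P b R f a x₀ ∈ Icc s (1 - s)) (h2 : ∀ c ∈ k.Z, va P b R f c x₀ = 0) :
    (∀ a ∈ k.B, va P b R f a x ∈ Icc (s - ε) (1 - (s - ε))) ∧ (∀ c ∈ k.Z, va P b R f c x = 0) ∧
      {c | va P b R f c x < 1} = k.B ∪ k.Z ∧ {c | va P b R f c x = 0} = k.Z := by
  have hxO : x ∈ Om := T.sub q hx
  have hyL := mem_La H F hR hxO
  have hB : ∀ a ∈ k.B, va P b R f a x ∈ Icc (s - ε) (1 - (s - ε)) := by
    intro a ha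
    have h3 := abs_le.1 (hM.osc q hq x₀ hx₀ x hx a)
    have h4 := h1 a ha
    constructor
    · linarith [h3.1, h3.2, h4.1, h4.2]
    · linarith [h3.1, h3.2, h4.1, h4.2]
  have hZ1 : ∀ c ∈ k.Z, va P b R f c x < 1 := by
    intro c hc
    have h3 := abs_le.1 (hM.osc q hq x₀ hx₀ x hx c)
    rw [h2 c hc] at h3
    linarith [h3.1, h3.2]
  have hsub : k.B ∪ k.Z ⊆ {c | va P b R f c x < 1} := by
    rintro c (hc | hc)
    · have := (hB c hc).2
      show va P b R f c x < 1
      linarith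
    · exact hZ1 c hc
  have heq : k.B ∪ k.Z = {c | va P b R f c x < 1} := by
    refine Set.eq_of_subset_of_ncard_le hsub ?_ (F.sc_lt_one_finite hyL)
    rw [k.card_union]; exact F.sc_lt_one_ncard hyL
  have hz : {c | va P b R f c x = 0} ⊆ k.Z := by
    intro c (hc : va P b R f c x = 0)
    have h3 : c ∈ k.B ∪ k.Z := by
      rw [heq]
      show va P b R f c x < 1
      rw [hc]; exact one_pos
    rcases h3 with h3 | h3
    · have := (hB c h3).1
      rw [hc] at this
      linarith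
    · exact h3
  obtain ⟨c, c', hne, hc, hc'⟩ := hM.wall q hq x hx
  have hc0 : va P b R f c x = 0 := (F.sc_eq_zero hyL).2 hc
  have hc0' : va P b R f c' x = 0 := (F.sc_eq_zero hyL).2 hc'
  have hpair : ({c, c'} : Set I) ⊆ {c | va P b R f c x = 0} := by
    rintro d (rfl | hd)
    · exact hc0
    · rw [Set.mem_singleton_iff.1 hd]; exact hc0'
  have hzeq : {c | va P b R f c x = 0} = k.Z := by
    refine Subset.antisymm hz ?_
    have h5 : ({c, c'} : Set I) = k.Z := by
      refine Set.eq_of_subset_of_ncard_le (hpair.trans hz) ?_ k.finZ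
      rw [k.cZ, Set.ncard_pair hne]
    rw [← h5]; exact hpair
  refine ⟨hB, fun c hc => ?_, heq.symm, hzeq⟩
  rw [← hzeq] at hc
  exact hc

/-- two quads over one tile are equal -/
theorem quad_unique {s : ℝ} (hε : ε < s) (hε1 : ε < 1) {k k' : QK P} {q q' : ι} {x : E}
    (hq : q ∈ Act0 T P b R f Kor s k) (hq' : q' ∈ Act0 T P b R f Kor s k')
    (hx : x ∈ Msh_715.P (T.H q)) (hx' : x ∈ Msh_715.P (T.H q')) : k = k' := by
  obtain ⟨h1, x₀, h2, h3, h4⟩ := hq
  obtain ⟨h1', x₀', h2', h3', h4'⟩ := hq'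
  obtain ⟨-, -, a3, a4⟩ := key H F hR hM hε hε1 h1 h2 hx h3 h4
  obtain ⟨-, -, b3, b4⟩ := key H F hR hM hε hε1 h1' h2' hx' h3' h4'
  have hZ : k.Z = k'.Z := a4.symm.trans b4
  have hU : k.B ∪ k.Z = k'.B ∪ k'.Z := a3.symm.trans b3
  refine QK.ext ?_ hZ
  ext c
  constructor
  · intro hc
    have h5 : c ∈ k'.B ∪ k'.Z := by rw [← hU]; exact Or.inl hc
    rcases h5 with h5 | h5
    · exact h5
    · rw [← hZ] at h5
      exact (disjoint_left.1 k.dis hc h5).elim
  · intro hc
    have h5 : c ∈ k.B ∪ k.Z := by rw [hU]; exact Or.inl hc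
    rcases h5 with h5 | h5
    · exact h5
    · rw [hZ] at h5
      exact (disjoint_left.1 k'.dis hc h5).elim

/-- **the quads of the foam over the mesh** -/
noncomputable def quads {s : ℝ} (hε : ε < s) (hε1 : ε < 1) : Quads ι I (QK P) where
  pr := QK.pr
  ne := QK.pr_ne
  Act := Act0 T P b R f Kor s
  fin := fun k => by
    obtain ⟨c, hc⟩ := k.Z_nonempty
    have hK : IsCompact (Om ∩ f ⁻¹' (rpre La R (P c))) :=
      H.isCompact_pre (fun y hy => hy.1) (hR.isCompact_pre F (F.cpt c) (F.sub c))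
    refine (T.finite_tiles hK inter_subset_left).subset ?_
    rintro q ⟨-, x, hx, -, h2⟩
    have hxO := T.sub q hx
    exact ⟨x, hx, hxO, H.fm hxO, (F.sc_eq_zero (mem_La H F hR hxO)).1 (h2 c hc)⟩
  disj := fun k l hne => by
    rw [disjoint_left]
    intro q hq hq'
    obtain ⟨-, x, hx, -⟩ := id hq
    exact hne (quad_unique H F hR hM hε hε1 hq hq' hx hx)
  finK := fun c => by
    have hC := finite_touch F c
    have hinj : Function.Injective (fun k : QK P => (k.B, k.Z)) := by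
      intro k k' he
      exact QK.ext (congrArg Prod.fst he) (congrArg Prod.snd he)
    have hfin : ((𝒫 {c' | (P c' ∩ P c).Nonempty}) ×ˢ (𝒫 {c' | (P c' ∩ P c).Nonempty})).Finite :=
      hC.finite_subsets.prod hC.finite_subsets
    refine (hfin.preimage hinj.injOn).subset ?_
    rintro k hk
    have hcB : c ∈ k.B := k.mem_B.2 hk
    obtain ⟨y, hy⟩ := k.ne
    have h1 : ∀ c' ∈ k.B ∪ k.Z, (P c' ∩ P c).Nonempty := fun c' hc' =>
      ⟨y, mem_fc.1 hy c' hc', mem_fc.1 hy c (Or.inl hcB)⟩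
    exact ⟨fun c' hc' => h1 c' (Or.inl hc'), fun c' hc' => h1 c' (Or.inr hc')⟩

theorem quads_in {s : ℝ} (hε : ε < s) (hε1 : ε < 1) {k : QK P} {c : I} :
    (quads H F hR hM hε hε1).In k c ↔ c ∈ k.B := k.mem_B.symm

end quads

end Crest.Agent.R096.Init_543
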