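import Mathlib
import Crest.Agent.R096.Init3_543

/-! # INIT 4 (row 96, helper543): the global family of sheets, geometric data, the invariant -/

set_option autoImplicit false
set_option linter.unusedSectionVars false

open Set Filter Topology Metric

namespace Crest.Agent.R096.Init_543

open Crest.Agent.R096.Brk1_582 Crest.Agent.R096.Brk2_582 Crest.Agent.R096.Coh_184
  Crest.Agent.R096.Vb_965 Crest.Agent.R096.Msh_715 Crest.Agent.R096.Agl4_543
  Crest.Agent.R096.Agl5_543 Crest.Agent.R096.Agl8_543 Crest.Agent.R096.Ginv_543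
  Crest.Agent.R096.Seq_213 Crest.Agent.R096.Pat5_543 Crest.Agent.R096.St_147

variable {E V : Type} [NormedAddCommGroup E] [NormedSpace ℝ E] [FiniteDimensional ℝ E]
  [NormedAddCommGroup V] [NormedSpace ℝ V] [FiniteDimensional ℝ V]
variable {I ι J : Type} {Om : Set E} {La : Set V} {P : I → Set V} {b : Set I → V} {N : ℕ}
  {R : V → V} {f : E → V} {g : V → E}

/-- the sheets: family `fam j`, level `t j` -/
def shS (Om : Set E) (P : I → Set V) (b : Set I → V) (R : V → V) (f : E → V) (fam : J → I)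
    (t : J → ℝ) (j : J) : Set E := sheet Om P b R f (fam j) (t j)

/-- **the global family of sheets** -/
theorem gfam {T : Tiling Om ι} {fam : J → I} {t : J → ℝ}
    (hlev : ∀ j, RegLevel T (va P b R f (fam j)) (t j) (shS Om P b R f fam t j))
    (hsep : ∀ i j x, x ∈ shS Om P b R f fam t i → x ∈ shS Om P b R f fam t j → T.dim x ≤ 1 →
      i = j)
    (hinj : ∀ i j, fam i = fam j → t i = t j → i = j) (hfin : ∀ a, {j | fam j = a}.Finite) :
    GFam T (fun j => va P b R f (fam j)) t (shS Om P b R f fam t) fam where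
  lev := hlev
  sep1 := hsep
  disj := by
    intro i j hf hne
    rw [disjoint_left]
    rintro x ⟨-, h1⟩ ⟨-, h2⟩
    rw [hf] at h1
    exact hne (hinj i j hf (h1.symm.trans h2))
  finC := hfin

/-- **GEOMETRIC DATA OF THE INITIAL STATE.** `s₁ ≤ s' ≤ s₀ - ε`, levels in `[s₀, 1 - s₀]`. -/
theorem geoInv [Nonempty J] (H : Hm f g Om La) (F : Foam La P b 4) (hR : Ret La P R)
    (h3 : Module.finrank ℝ E = 3) (hV : Module.finrank ℝ V = 3) {T : Tiling Om ι} {Kor : Set ι}
    {ε : ℝ} (hM : Mesh0 T P b R f Kor ε) {s₁ s' s₀ : ℝ} (hε0 : 0 ≤ ε) (hε : ε < s₁) (hε1 : ε < 1)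
    (hs' : s₁ ≤ s') (hs₀ : s' ≤ s₀ - ε) {fam : J → I} {t : J → ℝ}
    (ht : ∀ j, t j ∈ Icc s₀ (1 - s₀))
    (h : GFam T (fun j => va P b R f (fam j)) t (shS Om P b R f fam t) fam) {bp : J → E}
    (hbp : ∀ j, bp j ∈ shS Om P b R f fam t j ∧ T.dim (bp j) = 1 ∧
      ∃ q, bp j ∈ Msh_715.P (T.H q) ∧ ∀ k : QK P, fam j ∈ k.B → q ∉ Act0 T P b R f Kor s₁ k)
    (hleaf : ∀ j (k : QK P), fam j ∈ k.B → ∀ q ∈ Kor,
      (strip Om P b R f s' (fam j) (t j) k ∩ Msh_715.P (T.H q)).Nonempty →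
      h.Leaf h3 j (strip Om P b R f s' (fam j) (t j) k) q) :
    GeoInv' h3 h (quads H F hR hM hε hε1) bp
      (fun j k => strip Om P b R f s' (fam j) (t j) k) (fun _ k => Act0 T P b R f Kor s₀ k) := by
  have hs'0 : 0 < s' := by linarith
  have hin : ∀ {k : QK P} {c : I}, (quads H F hR hM hε hε1).In k c → c ∈ k.B :=
    fun h => (quads_in H F hR hM hε hε1).1 h
  have ht' : ∀ j, t j ∈ Icc s' (1 - s') := fun j =>
    ⟨by have := (ht j).1; linarith, by have := (ht j).2; linarith⟩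
  have hmono : ∀ k : QK P, Act0 T P b R f Kor s₀ k ⊆ Act0 T P b R f Kor s₁ k := by
    rintro k q ⟨h1, x, h2, h4, h5⟩
    refine ⟨h1, x, h2, fun a ha => ?_, h5⟩
    have := h4 a ha
    exact ⟨by linarith [this.1], by linarith [this.2]⟩
  -- points of the sheets in active tiles
  have hpt : ∀ {k : QK P} {q : ι} {j : J} {w : E}, q ∈ Act0 T P b R f Kor s₁ k →
      w ∈ shS Om P b R f fam t j → w ∈ Msh_715.P (T.H q) → fam j ∈ k.B := by
    intro k q j w hq hw hwq
    obtain ⟨g1, x₀, g2, g3, g4⟩ := hq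
    obtain ⟨-, -, a3, a4⟩ := key H F hR hM hε hε1 g1 g2 hwq g3 g4
    have h1 : va P b R f (fam j) w = t j := hw.2
    have h2 : fam j ∈ k.B ∪ k.Z := by
      rw [← a3]
      show va P b R f (fam j) w < 1
      rw [h1]
      have := (ht' j).2
      linarith
    rcases h2 with h2 | h2
    · exact h2
    · exfalso
      rw [← a4] at h2
      have h5 : va P b R f (fam j) w = 0 := h2
      rw [h1] at h5
      have := (ht' j).1
      linarith
  refine ⟨?_, ?_, ?_, ?_, ?_, ?_, ?_, ?_, ?_, ?_, ?_⟩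
  · intro j
    exact trivF_sheet H F hR hV (by have := (ht' j).1; linarith) (by have := (ht' j).2; linarith)
  · intro j
    obtain ⟨h1, h2, q, h4, h5⟩ := hbp j
    exact ⟨h1, h2, q, h4, fun k hk => h5 k (hin hk)⟩
  · intro j k hk
    exact (strip_props H F hR hs'0 (hin hk) (ht' j)).1
  · rintro j k hk x ⟨hx, h1, -⟩
    exact ⟨hx, h1⟩
  · intro j k hk
    exact (strip_props H F hR hs'0 (hin hk) (ht' j)).2
  · intro j k hk q hq
    by_cases hqK : q ∈ Kor
    · exact Or.inr (hleaf j k (hin hk) q hqK hq)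
    · left
      obtain ⟨x, ⟨hx, h1, h2, h4⟩, hxq⟩ := hq
      refine ⟨hqK, x, hxq, fun a ha => ?_, h4⟩
      have := h2 a ha
      exact ⟨by linarith [this.1], by linarith [this.2]⟩
  · intro j k hk
    exact hmono k
  · rintro j k hk F2 w hwS hwF ⟨q, hqF, hqN⟩ x hx
    have hxm := connectedComponentIn_subset _ _ hx
    obtain ⟨g1, x₀, g2, g3, g4⟩ := hqN
    have hxq := C2.sub_tile (h3 := h3) hqF hxm.2
    obtain ⟨a1, a2, -, -⟩ := key H F hR hM (s := s₀) (by linarith) hε1 g1 g2 hxq g3 g4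
    refine ⟨hxm.1.1, hxm.1.2, fun a ha => ?_, a2⟩
    have := a1 a ha
    exact ⟨by linarith [this.1], by linarith [this.2]⟩
  · intro j k k' hk hk' w hw q hq q' hq' hwq hwq'
    exact quad_unique H F hR hM hε hε1 (hmono k hq) (hmono k' hq') hwq hwq'
  · rintro j j' k hk hk' hne F2 hact ⟨x, hxF, hxj, hxj'⟩ q hq
    obtain ⟨g1, x₀, g2, g3, g4⟩ := hact q hq
    have hxq := C2.sub_tile (h3 := h3) hq hxF
    obtain ⟨a1, a2, -, -⟩ := key H F hR hM hε hε1 g1 g2 hxq g3 g4
    refine ⟨g1, x, hxq, fun a ha => ?_, a2⟩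
    -- the two active coordinates are the levels of `j` and `j'`
    have hjB := hin hk
    have hjB' := hin hk'
    have hB : a = fam j ∨ a = fam j' := by
      obtain ⟨a', haa, -, hBe⟩ := k.exists_other hjB
      rw [hBe] at ha hjB'
      rcases hjB' with h6 | h6
      · exact (hne h6).elim
      · rcases ha with h7 | h7
        · exact Or.inl h7
        · right
          rw [Set.mem_singleton_iff.1 h7, Set.mem_singleton_iff.1 h6]
    rcases hB with rfl | rfl
    · have h6 : va P b R f (fam j) x = t j := hxj.2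
      rw [h6]; exact ht j
    · have h6 : va P b R f (fam j') x = t j' := hxj'.2
      rw [h6]; exact ht j'
  · rintro j k F2 hact ⟨w, hwF, hwS⟩
    obtain ⟨x, h7, h8, h9⟩ := F2.exists_side h3
    have hq : x.1 ∈ F2.side h3 := by
      rw [C2.mem_side, h8]; exact Or.inl rfl
    exact (quads_in H F hR hM hε hε1).2
      (hpt (hact _ hq) hwS (C2.sub_tile (h3 := h3) hq hwF.1))

/-- **THE INVARIANT OF THE INITIAL STATE** -/
theorem exists_init [Nonempty J] (H : Hm f g Om La) (F : Foam La P b 4) (hR : Ret La P R)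
    (h3 : Module.finrank ℝ E = 3) (hV : Module.finrank ℝ V = 3) {T : Tiling Om ι} {Kor : Set ι}
    {ε : ℝ} (hM : Mesh0 T P b R f Kor ε) {s₁ s' s₀ : ℝ} (hε0 : 0 ≤ ε) (hε : ε < s₁) (hε1 : ε < 1)
    (hs' : s₁ ≤ s') (hs₀ : s' ≤ s₀ - ε) {fam : J → I} {t : J → ℝ}
    (ht : ∀ j, t j ∈ Icc s₀ (1 - s₀))
    (h : GFam T (fun j => va P b R f (fam j)) t (shS Om P b R f fam t) fam) {bp : J → E}
    (hbp : ∀ j, bp j ∈ shS Om P b R f fam t j ∧ T.dim (bp j) = 1 ∧
      ∃ q, bp j ∈ Msh_715.P (T.H q) ∧ ∀ k : QK P, fam j ∈ k.B → q ∉ Act0 T P b R f Kor s₁ k)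
    (hleaf : ∀ j (k : QK P), fam j ∈ k.B → ∀ q ∈ Kor,
      (strip Om P b R f s' (fam j) (t j) k ∩ Msh_715.P (T.H q)).Nonempty →
      h.Leaf h3 j (strip Om P b R f s' (fam j) (t j) k) q) :
    ∃ far : J → Set E, (gmain (h.gst h3) bp).Inv (quads H F hR hM hε hε1) far ∧
      ∀ j, bp j ∈ far j :=
  exists_inv' h3 h _ (geoInv H F hR h3 hV hM hε0 hε hε1 hs' hs₀ ht h hbp hleaf)

end Crest.Agent.R096.Init_543
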