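import Mathlib
import Crest.Agent.R096.Main1_4

/-! # Row 96, P1-MAIN (helper4), part 2: the sign of `u - c` labels a regular level. -/

set_option autoImplicit false

open Set Filter Topology Metric

namespace Crest.Agent.R096.Main_4

open Crest.Agent.R096.Msh_715 Crest.Agent.R096.Agl2_543 Crest.Agent.R096.Agl3_543
  Crest.Agent.R096.Agl4_543 Crest.Agent.R096.Coh_184
  Crest.Agent.R096.Jn_890 Crest.Agent.R096.Pat4_543

/-- constant sign on connected sets without zeros -/
theorem sign_const {X : Type*} [TopologicalSpace X] {g : X → ℝ} {I : Set X}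
    (hI : IsPreconnected I) (hg : ContinuousOn g I)
    (h0 : ∀ t ∈ I, g t ≠ 0) {s t : X} (hs : s ∈ I) (ht : t ∈ I) : g s < 0 → g t < 0 := by
  intro h1
  by_contra h2
  push Not at h2
  obtain ⟨x, hx, hx0⟩ := hI.intermediate_value hs ht hg (show (0 : ℝ) ∈ Icc (g s) (g t) from
    ⟨h1.le, h2⟩)
  exact h0 x hx hx0

open Classical in
/-- sign bit -/
noncomputable def sb (x : ℝ) : ZMod 2 := if x < 0 then 1 else 0

/-- parity of the number of crossings on an interval -/
theorem parity_Icc (g : ℝ → ℝ) (a : ℝ) : ∀ (n : ℕ) (b : ℝ) (Z : Finset ℝ), Z.card = n →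
    a < b → ContinuousOn g (Icc a b) → (∀ t, t ∈ Z ↔ t ∈ Icc a b ∧ g t = 0) → g a ≠ 0 → g b ≠ 0 →
    (∀ t ∈ Z, t ∈ closure {s | s ∈ Icc a b ∧ 0 < g s} ∧ t ∈ closure {s | s ∈ Icc a b ∧ g s < 0}) →
    sb (g a) + sb (g b) = (n : ZMod 2) := by
  classical
  intro n
  induction n with
  | zero =>
    intro b Z hZ hab hg hZm ha hb _
    have hZ0 : Z = ∅ := Finset.card_eq_zero.1 hZ
    have h0 : ∀ t ∈ Icc a b, g t ≠ 0 := by
      intro t ht h1
      have := (hZm t).2 ⟨ht, h1⟩
      rw [hZ0] at this
      exact absurd this (Finset.notMem_empty _)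
    have haI : a ∈ Icc a b := ⟨le_rfl, hab.le⟩
    have hbI : b ∈ Icc a b := ⟨hab.le, le_rfl⟩
    have e1 : g a < 0 ↔ g b < 0 :=
      ⟨sign_const isPreconnected_Icc hg h0 haI hbI, sign_const isPreconnected_Icc hg h0 hbI haI⟩
    rw [Nat.cast_zero]
    by_cases h : g a < 0
    · simp only [sb, h, e1.1 h, if_true]; decide
    · have h' : ¬ g b < 0 := fun h' => h (e1.2 h')
      simp only [sb, h, h', if_false]; decide
  | succ n ih =>
    intro b Z hZ hab hg hZm ha hb hcr
    have hne : Z.Nonempty := by rw [← Finset.card_pos, hZ]; omega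
    set z := Z.max' hne with hzdef
    have hzZ : z ∈ Z := Z.max'_mem hne
    obtain ⟨hzI, hz0⟩ := (hZm z).1 hzZ
    have hza : a < z := lt_of_le_of_ne hzI.1 (fun e => ha (by rw [e]; exact hz0))
    have hzb : z < b := lt_of_le_of_ne hzI.2 (fun e => hb (by rw [← e]; exact hz0))
    -- the last point before z
    set W := insert a (Z.erase z) with hW
    have hWne : W.Nonempty := ⟨a, Finset.mem_insert_self _ _⟩
    set m := W.max' hWne with hm
    have hmz : m < z := by
      have h1 : m ∈ W := W.max'_mem hWne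
      rcases Finset.mem_insert.1 h1 with h1 | h1
      · rw [h1]; exact hza
      · obtain ⟨h2, h3⟩ := Finset.mem_erase.1 h1
        exact lt_of_le_of_ne (Z.le_max' _ h3) h2
    have ham : a ≤ m := W.le_max' _ (Finset.mem_insert_self _ _)
    set b' := (m + z) / 2 with hb'
    have hb1 : m < b' := by rw [hb']; linarith
    have hb2 : b' < z := by rw [hb']; linarith
    have hab' : a < b' := by linarith
    have hsub : Icc a b' ⊆ Icc a b := Icc_subset_Icc le_rfl (by linarith)
    -- no zeros in [b', z) and (z, b]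
    have hz1 : ∀ t ∈ Ico b' z, g t ≠ 0 := by
      intro t ht h1
      have h2 : t ∈ Z := (hZm t).2 ⟨⟨by linarith [ht.1], by linarith [ht.2]⟩, h1⟩
      have h3 : t ∈ W := Finset.mem_insert_of_mem (Finset.mem_erase.2 ⟨ht.2.ne, h2⟩)
      have h4 := W.le_max' t h3
      have := ht.1
      rw [← hm] at h4
      linarith
    have hz2 : ∀ t ∈ Ioc z b, g t ≠ 0 := by
      intro t ht h1
      have h2 : t ∈ Z := (hZm t).2 ⟨⟨by linarith [ht.1], ht.2⟩, h1⟩
      have h3 := Z.le_max' t h2
      rw [← hzdef] at h3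
      exact absurd ht.1 (not_lt.2 h3)
    have hc1 : ContinuousOn g (Ico b' z) := hg.mono fun t ht => ⟨by linarith [ht.1], by linarith [ht.2]⟩
    have hc2 : ContinuousOn g (Ioc z b) := hg.mono fun t ht => ⟨by linarith [ht.1], ht.2⟩
    have hbI : b ∈ Ioc z b := ⟨hzb, le_rfl⟩
    have hbI' : b' ∈ Ico b' z := ⟨le_rfl, hb2⟩
    have hgb' : g b' ≠ 0 := hz1 b' hbI'
    -- opposite signs
    have hopp : (g b' < 0) ↔ ¬ (g b < 0) := by
      constructor
      · intro h1 h2
        -- positive points near z : contradiction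
        have h3 := (hcr z hzZ).1
        rw [mem_closure_iff_nhds] at h3
        obtain ⟨s, hs1, hs2, hs3⟩ := h3 (Ioo b' b) (Ioo_mem_nhds hb2 hzb)
        rcases lt_trichotomy s z with h | h | h
        · have := sign_const isPreconnected_Ico hc1 hz1 hbI' (show s ∈ Ico b' z from ⟨hs1.1.le, h⟩) h1
          linarith
        · rw [h, hz0] at hs3; exact lt_irrefl _ hs3
        · have := sign_const isPreconnected_Ioc hc2 hz2 hbI (show s ∈ Ioc z b from ⟨h, hs1.2.le⟩) h2
          linarith
      · intro h2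
        have h3 := (hcr z hzZ).2
        rw [mem_closure_iff_nhds] at h3
        obtain ⟨s, hs1, hs2, hs3⟩ := h3 (Ioo b' b) (Ioo_mem_nhds hb2 hzb)
        rcases lt_trichotomy s z with h | h | h
        · exact sign_const isPreconnected_Ico hc1 hz1 (show s ∈ Ico b' z from ⟨hs1.1.le, h⟩) hbI' hs3
        · rw [h, hz0] at hs3; exact absurd hs3 (lt_irrefl _)
        · exact absurd (sign_const isPreconnected_Ioc hc2 hz2 (show s ∈ Ioc z b from ⟨h, hs1.2.le⟩)
            hbI hs3) h2
    have hih := ih b' (Z.erase z) (by rw [Finset.card_erase_of_mem hzZ, hZ]; rfl) hab'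
      (hg.mono hsub) (fun t => by
        rw [Finset.mem_erase, hZm]
        constructor
        · rintro ⟨h1, h2, h3⟩
          refine ⟨⟨h2.1, ?_⟩, h3⟩
          have h4 : t ∈ W := Finset.mem_insert_of_mem (Finset.mem_erase.2 ⟨h1, (hZm t).2 ⟨h2, h3⟩⟩)
          have h5 := W.le_max' t h4
          rw [← hm] at h5
          linarith
        · rintro ⟨h2, h3⟩
          exact ⟨by have := h2.2; intro e; linarith, hsub h2, h3⟩) ha hgb' (fun t ht => by
        obtain ⟨h1, h2⟩ := Finset.mem_erase.1 ht
        have h4 : t ∈ W := Finset.mem_insert_of_mem ht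
        have h5 := W.le_max' t h4
        rw [← hm] at h5
        have htb : t < b' := by linarith
        have key : ∀ A : Set ℝ, t ∈ closure {s | s ∈ Icc a b ∧ s ∈ A} →
            t ∈ closure {s | s ∈ Icc a b' ∧ s ∈ A} := by
          intro A hA
          rw [mem_closure_iff_nhds] at hA ⊢
          intro U hU
          obtain ⟨s, ⟨hs1, hs4⟩, hs2, hs3⟩ := hA (U ∩ Iio b') (inter_mem hU (Iio_mem_nhds htb))
          exact ⟨s, hs1, ⟨hs2.1, le_of_lt hs4⟩, hs3⟩
        exact ⟨key {s | 0 < g s} (hcr t h2).1, key {s | g s < 0} (hcr t h2).2⟩)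
    rw [Nat.cast_succ, ← hih]
    by_cases h : g b < 0
    · have h' : ¬ g b' < 0 := fun h' => (hopp.1 h') h
      simp only [sb, h, h', if_true, if_false]
      by_cases h'' : g a < 0
      · simp only [h'', if_true]; decide
      · simp only [h'', if_false]; decide
    · have h' : g b' < 0 := hopp.2 h
      simp only [sb, h, h', if_true, if_false]
      by_cases h'' : g a < 0
      · simp only [h'', if_true]; decide
      · simp only [h'', if_false]; decide

variable {E : Type*} [NormedAddCommGroup E] [NormedSpace ℝ E]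
variable {Om : Set E} {ι : Type*}

/-- crossing points on a 1-cell, from regularity on a 2-cell -/
theorem crossing {T : Tiling Om ι} [FiniteDimensional ℝ E] (h3 : Module.finrank ℝ E = 3)
    {u : E → ℝ} {c : ℝ} {S : Set E} (h : RegLevel T u c S) {w p : E} (hw : w ∈ Om)
    (hd : T.dim w = 1) (hp : p ∈ S) (hpw : p ∈ T.cc w) :
    p ∈ closure {y | y ∈ T.cc w ∧ c < u y} ∧ p ∈ closure {y | y ∈ T.cc w ∧ u y < c} := by
  have hpO := h.sub hp
  have hp1 : T.dim p = 1 := by
    have h1 := h.vert p hp
    have h2 := T.dim_le hpw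
    omega
  obtain ⟨q, hq⟩ := T.at_nonempty hpO
  obtain ⟨x, hx, -, -, hdx, -, -, -, hpx, -⟩ := two_cells T h3 hpO hp1 hq
  have hne : (T.cc x ∩ S).Nonempty := ⟨p, hpx, hp⟩
  have hreg := h.reg x hx hdx hne
  have hpC : p ∈ T.cc x \ T.oc x := (mem_bd_iff hx hdx hpx).2 hp1.le
  have hup : u p = c := (h.lev x hx hdx hne p hpx).1 hp
  obtain ⟨r, hr, hrO, hb⟩ := good_ball T hpO
  -- near `p` the boundary of the 2-cell lies in the 1-cell
  have hpw' : T.cc p = T.cc w := by
    rw [T.cc_eq_iff hw]
    by_contra hn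
    have := T.dim_lt hpw hn
    omega
  have key : ∀ y ∈ ball p r, y ∈ T.cc x \ T.oc x → y ∈ T.cc w := by
    intro y hy hyC
    have h1 : p ∈ T.cc y := mem_cc_of_good T hb hy
    have h2 : T.dim y ≤ 1 := (mem_bd_iff hx hdx hyC.1).1 hyC
    have hyO : y ∈ Om := hrO hy
    have h4 : p ∈ T.oc y := by
      by_contra hn
      have := T.dim_lt h1 hn
      omega
    have h5 : T.cc p = T.cc y := T.cc_eq_of_mem_oc hyO h4
    rw [← hpw', h5]
    exact T.self_mem_cc y
  have mono : ∀ A : Set E, p ∈ closure {y | y ∈ T.cc x \ T.oc x ∧ y ∈ A} →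
      p ∈ closure {y | y ∈ T.cc w ∧ y ∈ A} := by
    intro A hA
    rw [mem_closure_iff_nhds] at hA ⊢
    intro U hU
    obtain ⟨s, ⟨hs1, hs4⟩, hs2, hs3⟩ := hA (U ∩ ball p r) (inter_mem hU (ball_mem_nhds p hr))
    exact ⟨s, hs1, key s hs4 hs2, hs3⟩
  exact ⟨mono {y | c < u y} (hreg.up p hpC hup), mono {y | u y < c} (hreg.down p hpC hup)⟩

open Classical in
/-- **the sign of `u - c` is a label of the level** -/
theorem chi_isLab {T : Tiling Om ι} [FiniteDimensional ℝ E] (h3 : Module.finrank ℝ E = 3)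
    {u : E → ℝ} {c : ℝ} {S : Set E} (h : RegLevel T u c S) (hu : ContinuousOn u Om)
    (hfull : ∀ x ∈ Om, u x = c → x ∈ S) {P : Finset E}
    (hP : ∀ x, x ∈ P ↔ x ∈ S ∧ T.dim x ≤ 1) : IsLab T P (fun v => sb (u v - c)) := by
  intro w hw hd v v' hc
  -- all points of `S` in the 1-cell are on the level
  have hlev : ∀ y ∈ T.cc w, y ∈ S → u y = c := by
    intro y hy hyS
    have hyO := h.sub hyS
    have hy1 : T.dim y = 1 := by
      have h1 := h.vert y hyS
      have h2 := T.dim_le hy
      omega
    obtain ⟨q, hq⟩ := T.at_nonempty hyO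
    obtain ⟨x, hx, -, -, hdx, -, -, -, hyx, -⟩ := two_cells T h3 hyO hy1 hq
    exact (h.lev x hx hdx ⟨y, hyx, hyS⟩ y hyx).1 hyS
  have hne : v ≠ v' := by
    rintro rfl
    obtain ⟨a, b, hab, hab', -, -, -, ha, hb⟩ := T.edge_eq hw hd
    rw [segment_same] at hc
    rw [hc] at ha hb
    exact hab ((mem_singleton_iff.1 ha).trans (mem_singleton_iff.1 hb).symm)
  -- the end points are vertices
  obtain ⟨a, b, hab, hab', -, hda, hdb, haw, hbw⟩ := T.edge_eq hw hd
  have hext : ∀ x, x = v ∨ x = v' → x ∉ S := by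
    -- `v`, `v'` are extreme points of the segment, hence equal to `a`, `b`
    have hseg : segment ℝ v v' = segment ℝ a b := by rw [← hc, hab']
    have hv : v = a ∨ v = b := by
      have h1 : v ∈ segment ℝ a b := by rw [← hseg]; exact left_mem_segment ℝ v v'
      have h2 : a ∈ segment ℝ v v' := by rw [hseg]; exact left_mem_segment ℝ a b
      have h4 : b ∈ segment ℝ v v' := by rw [hseg]; exact right_mem_segment ℝ a b
      rw [segment_eq_image_lineMap] at h1 h2 h4
      obtain ⟨t, ht, e1⟩ := h1
      obtain ⟨s, hs, e2⟩ := h2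
      obtain ⟨r, hr, e3⟩ := h4
      have e4 : AffineMap.lineMap v v' ((1 - t) * s + t * r) = AffineMap.lineMap v v' (0 : ℝ) := by
        rw [AffineMap.lineMap_apply_zero]
        conv_rhs => rw [← e1, ← e2, ← e3]
        simp only [AffineMap.lineMap_apply_module]
        module
      have e5 := AffineMap.lineMap_injective ℝ hne e4
      rcases eq_or_lt_of_le ht.1 with h5 | h5
      · left; rw [← e1, ← h5, AffineMap.lineMap_apply_zero]
      · rcases eq_or_lt_of_le ht.2 with h6 | h6
        · right; rw [← e1, h6, AffineMap.lineMap_apply_one]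
        · exfalso
          have h7 : 0 ≤ (1 - t) * s := mul_nonneg (by linarith) hs.1
          have h8 : 0 ≤ t * r := mul_nonneg ht.1 hr.1
          have h9 : (1 - t) * s = 0 := by linarith
          have h10 : t * r = 0 := by linarith
          have h11 : s = 0 := by
            rcases mul_eq_zero.1 h9 with h | h
            · linarith
            · exact h
          have h12 : r = 0 := by
            rcases mul_eq_zero.1 h10 with h | h
            · linarith
            · exact h
          rw [h11] at e2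
          rw [h12] at e3
          exact hab (e2.symm.trans e3)
    have hv' : v' = a ∨ v' = b := by
      have h1 : v' ∈ segment ℝ a b := by rw [← hseg]; exact right_mem_segment ℝ v v'
      have h2 : a ∈ segment ℝ v v' := by rw [hseg]; exact left_mem_segment ℝ a b
      have h4 : b ∈ segment ℝ v v' := by rw [hseg]; exact right_mem_segment ℝ a b
      rw [segment_eq_image_lineMap] at h1 h2 h4
      obtain ⟨t, ht, e1⟩ := h1
      obtain ⟨s, hs, e2⟩ := h2
      obtain ⟨r, hr, e3⟩ := h4
      have e4 : AffineMap.lineMap v v' ((1 - t) * s + t * r) = AffineMap.lineMap v v' (1 : ℝ) := by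
        rw [AffineMap.lineMap_apply_one]
        conv_rhs => rw [← e1, ← e2, ← e3]
        simp only [AffineMap.lineMap_apply_module]
        module
      have e5 := AffineMap.lineMap_injective ℝ hne e4
      rcases eq_or_lt_of_le ht.1 with h5 | h5
      · left; rw [← e1, ← h5, AffineMap.lineMap_apply_zero]
      · rcases eq_or_lt_of_le ht.2 with h6 | h6
        · right; rw [← e1, h6, AffineMap.lineMap_apply_one]
        · exfalso
          have h7 : (1 - t) * s ≤ (1 - t) * 1 := mul_le_mul_of_nonneg_left hs.2 (by linarith)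
          have h8 : t * r ≤ t * 1 := mul_le_mul_of_nonneg_left hr.2 ht.1
          have h9 : (1 - t) * (1 - s) = 0 := by nlinarith
          have h10 : t * (1 - r) = 0 := by nlinarith
          have h11 : s = 1 := by
            rcases mul_eq_zero.1 h9 with h | h <;> linarith
          have h12 : r = 1 := by
            rcases mul_eq_zero.1 h10 with h | h <;> linarith
          rw [h11] at e2
          rw [h12] at e3
          exact hab (e2.symm.trans e3)
    have hnS : ∀ y, T.dim y = 0 → y ∉ S := fun y hy hyS => h.vert y hyS hy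
    rintro x (rfl | rfl)
    · rcases hv with e | e <;> rw [e]
      · exact hnS a hda
      · exact hnS b hdb
    · rcases hv' with e | e <;> rw [e]
      · exact hnS a hda
      · exact hnS b hdb
  have hO : T.cc w ⊆ Om := T.cc_sub_Om hw
  have hvw : v ∈ T.cc w := by rw [hc]; exact left_mem_segment ℝ v v'
  have hvw' : v' ∈ T.cc w := by rw [hc]; exact right_mem_segment ℝ v v'
  -- parametrize
  let L : ℝ → E := fun t => AffineMap.lineMap v v' t
  have hLinj : Function.Injective L := AffineMap.lineMap_injective ℝ hne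
  have hLc : Continuous L := AffineMap.lineMap_continuous
  have hLi : T.cc w = L '' Icc 0 1 := by rw [hc, segment_eq_image_lineMap]
  let g : ℝ → ℝ := fun t => u (L t) - c
  have hg : ContinuousOn g (Icc 0 1) := by
    refine ContinuousOn.sub ?_ continuousOn_const
    refine (hu.mono hO).comp hLc.continuousOn ?_
    intro t ht
    rw [hLi]
    exact mem_image_of_mem _ ht
  let Z : Finset ℝ := (P.filter (fun y => y ∈ T.cc w)).preimage L hLinj.injOn
  have hZ : ∀ t, t ∈ Z ↔ t ∈ Icc (0 : ℝ) 1 ∧ g t = 0 := by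
    intro t
    simp only [Z, Finset.mem_preimage, Finset.mem_filter]
    constructor
    · rintro ⟨h1, h2⟩
      refine ⟨?_, ?_⟩
      · rw [hLi] at h2
        obtain ⟨s, hs, e⟩ := h2
        rwa [← hLinj e]
      · show u (L t) - c = 0
        rw [hlev _ h2 ((hP _).1 h1).1, sub_self]
    · rintro ⟨h1, h2⟩
      have h4 : L t ∈ T.cc w := by rw [hLi]; exact mem_image_of_mem _ h1
      have h5 : L t ∈ S := hfull _ (hO h4) (by have : u (L t) - c = 0 := h2; linarith)
      refine ⟨(hP _).2 ⟨h5, ?_⟩, h4⟩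
      have := T.dim_le h4
      omega
  have hcard : Z.card = (P.filter (fun y => y ∈ T.cc w)).card := by
    rw [← Finset.card_image_of_injective Z hLinj]
    congr 1
    rw [Finset.image_preimage]
    rw [Finset.filter_eq_self]
    intro y hy
    have h1 := (Finset.mem_filter.1 hy).2
    rw [hLi] at h1
    obtain ⟨s, -, e⟩ := h1
    exact ⟨s, e⟩
  have hL0 : L 0 = v := AffineMap.lineMap_apply_zero _ _
  have hL1 : L 1 = v' := AffineMap.lineMap_apply_one _ _
  have hg0 : g 0 ≠ 0 := by
    intro e
    have e' : u (L 0) - c = 0 := e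
    rw [hL0] at e'
    exact hext v (Or.inl rfl) (hfull v (hO hvw) (by linarith))
  have hg1 : g 1 ≠ 0 := by
    intro e
    have e' : u (L 1) - c = 0 := e
    rw [hL1] at e'
    exact hext v' (Or.inr rfl) (hfull v' (hO hvw') (by linarith))
  have hcl : ∀ t ∈ Z, ∀ A : Set E, L t ∈ closure {y | y ∈ T.cc w ∧ y ∈ A} →
      t ∈ closure {s | s ∈ Icc (0 : ℝ) 1 ∧ L s ∈ A} := by
    intro t ht A hA
    -- `L` is a closed embedding of the line
    have hemb : IsClosedEmbedding L := by
      have h1 : L = fun t : ℝ => t • (v' - v) + v := by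
        funext t
        simp only [L, AffineMap.lineMap_apply, vsub_eq_sub, vadd_eq_add]
      rw [h1]
      have h2 : IsClosedEmbedding (fun t : ℝ => t • (v' - v)) :=
        isClosedEmbedding_smul_left (sub_ne_zero.2 hne.symm)
      exact (Homeomorph.addRight v).isClosedEmbedding.comp h2
    have h1 : {y | y ∈ T.cc w ∧ y ∈ A} = L '' {s | s ∈ Icc (0 : ℝ) 1 ∧ L s ∈ A} := by
      ext y
      constructor
      · rintro ⟨h1, h2⟩
        rw [hLi] at h1
        obtain ⟨s, hs, rfl⟩ := h1
        exact ⟨s, ⟨hs, h2⟩, rfl⟩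
      · rintro ⟨s, ⟨hs, h2⟩, rfl⟩
        exact ⟨by rw [hLi]; exact mem_image_of_mem _ hs, h2⟩
    rw [h1, hemb.closure_image_eq] at hA
    obtain ⟨s, hs, e⟩ := hA
    rwa [← hLinj e]
  have hfin := parity_Icc g 0 Z.card 1 Z rfl one_pos hg hZ hg0 hg1 (fun t ht => by
    have ht' := (hZ t).1 ht
    have hLt : L t ∈ T.cc w := by rw [hLi]; exact mem_image_of_mem _ ht'.1
    have hLS : L t ∈ S := hfull _ (hO hLt) (by have : u (L t) - c = 0 := ht'.2; linarith)
    obtain ⟨c1, c2⟩ := crossing h3 h hw hd hLS hLt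
    refine ⟨closure_mono ?_ (hcl t ht {y | c < u y} c1),
      closure_mono ?_ (hcl t ht {y | u y < c} c2)⟩
    · rintro s ⟨hs1, hs2⟩
      have hs2' : c < u (L s) := hs2
      exact ⟨hs1, show 0 < u (L s) - c by linarith⟩
    · rintro s ⟨hs1, hs2⟩
      have hs2' : u (L s) < c := hs2
      exact ⟨hs1, show u (L s) - c < 0 by linarith⟩)
  show sb (u v - c) + sb (u v' - c) = _
  have e1 : g 0 = u v - c := by show u (L 0) - c = _; rw [hL0]
  have e2 : g 1 = u v' - c := by show u (L 1) - c = _; rw [hL1]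
  rw [e1, e2] at hfin
  rw [hfin, hcard]

end Crest.Agent.R096.Main_4
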