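import Mathlib
import Crest.Agent.R096.Main2_4
import Crest.Agent.R096.Lab5_184
import Crest.Agent.R096.Ginv1_543

/-! # Row 96, P1-MAIN (helper4), part 3: the main class of a level of a homeomorphism; reach, low,
high, nested; base points; comparison with the chord components of 543's global state. -/

set_option autoImplicit false

open Set Filter Topology Metric

namespace Crest.Agent.R096.Main_4

open Crest.Agent.R096.Msh_715 Crest.Agent.R096.Agl4_543 Crest.Agent.R096.Coh_184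
  Crest.Agent.R096.Jn_890 Crest.Agent.R096.Lab_184

/-- vertices of the tiles which meet `K` -/
def VM {E : Type*} [NormedAddCommGroup E] [NormedSpace ℝ E] {Om : Set E} {ι : Type*}
    (T : Tiling Om ι) (K : Set E) : Set E :=
  {v | T.dim v = 0 ∧ ∃ i, (Msh_715.P (T.H i) ∩ K).Nonempty ∧ v ∈ Msh_715.P (T.H i)}

section geom

variable {E : Type*} [NormedAddCommGroup E] [NormedSpace ℝ E]
variable {Om : Set E} {ι : Type*} {T : Tiling Om ι}

theorem mem_VM {K : Set E} {i : ι} {x v : E} (hx : x ∈ Msh_715.P (T.H i)) (hxK : x ∈ K)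
    (hv : v ∈ Msh_715.P (T.H i)) (h0 : T.dim v = 0) : v ∈ VM T K :=
  ⟨h0, i, ⟨x, hx, hxK⟩, hv⟩

theorem VM_mono {K K' : Set E} (h : K ⊆ K') : VM T K ⊆ VM T K' := by
  rintro v ⟨h0, i, hi, hv⟩
  exact ⟨h0, i, hi.mono (inter_subset_inter_right _ h), hv⟩

theorem self_mem_VM {K : Set E} {v : E} (hv : v ∈ Om) (h0 : T.dim v = 0) (hK : v ∈ K) :
    v ∈ VM T K := by
  obtain ⟨i, hi⟩ := T.cov v hv
  exact mem_VM hi hK hi h0

/-- every tile has a vertex -/
theorem exists_vertex_tile [FiniteDimensional ℝ E] {i : ι} {x : E} (hx : x ∈ Msh_715.P (T.H i)) :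
    ∃ v ∈ Msh_715.P (T.H i), T.dim v = 0 := by
  obtain ⟨v, hv, h0⟩ := T.exists_vertex (T.sub i hx)
  exact ⟨v, T.cc_sub_tile hx hv, h0⟩

variable [FiniteDimensional ℝ E]

theorem edg_VM {K : Set E} (hK : IsPreconnected K) (hKO : K ⊆ Om) {v w : E} (hv : v ∈ VM T K)
    (hw : w ∈ VM T K) :
    Relation.ReflTransGen (Edg T {i | (Msh_715.P (T.H i) ∩ K).Nonempty}) v w :=
  edg_path hK hKO hv.2 hw.2 hv.1 hw.1

/-- **LOW / HIGH**: without points of the pattern in the tiles meeting a connected set the label is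
constant on their vertices -/
theorem IsLab.const_geom {Q : Finset E} {lam : E → ZMod 2} (h : IsLab T Q lam) {K : Set E}
    (hK : IsPreconnected K) (hKO : K ⊆ Om)
    (hQ : ∀ i, (Msh_715.P (T.H i) ∩ K).Nonempty → ∀ u ∈ Q, u ∉ Msh_715.P (T.H i)) {v w : E}
    (hv : v ∈ VM T K) (hw : w ∈ VM T K) : lam v = lam w :=
  h.const (W := {i | (Msh_715.P (T.H i) ∩ K).Nonempty}) (fun i hi u hu => hQ i hi u hu)
    (edg_VM hK hKO hv hw)

/-- **REACH** -/
theorem IsLab.reach_geom {Q : Finset E} {lam : E → ZMod 2} (h : IsLab T Q lam) {K : Set E}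
    (hK : IsPreconnected K) (hKO : K ⊆ Om) {v w : E} (hv : v ∈ VM T K) (hw : w ∈ VM T K)
    (hne : lam v ≠ lam w) :
    ∃ i, (Msh_715.P (T.H i) ∩ K).Nonempty ∧ ∃ u ∈ Q, u ∈ Msh_715.P (T.H i) := by
  obtain ⟨i, hi, h1⟩ := h.reach (edg_VM hK hKO hv hw) hne
  exact ⟨i, hi, h1⟩

/-- two patterns with the same points in the tiles meeting a connected set -/
theorem IsLab.diff_geom {Q Q' : Finset E} {lam lam' : E → ZMod 2} (h : IsLab T Q lam)
    (h' : IsLab T Q' lam') {K : Set E} (hK : IsPreconnected K) (hKO : K ⊆ Om)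
    (hQ : ∀ i, (Msh_715.P (T.H i) ∩ K).Nonempty → ∀ u ∈ Msh_715.P (T.H i), (u ∈ Q ↔ u ∈ Q'))
    {v w : E} (hv : v ∈ VM T K) (hw : w ∈ VM T K) : lam v + lam' v = lam w + lam' w :=
  h.diff_eq h' (W := {i | (Msh_715.P (T.H i) ∩ K).Nonempty}) (fun i hi u hu => hQ i hi u hu)
    (edg_VM hK hKO hv hw)

/-- **NESTED**: `K` connected contains (a point of) the core tile and all points of `A`, no tile
meeting `K` contains a point of `A'`: `A'` has the label of the core at all tiles with a point of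
`A`. (Used twice: low side `A' = upper level`, high side `A' = lower level, v₀ = far vertex`.) -/
theorem IsLab.nested {A A' : Finset E} {lam' : E → ZMod 2} (h' : IsLab T A' lam') {K : Set E}
    (hK : IsPreconnected K) (hKO : K ⊆ Om)
    (hQ : ∀ i, (Msh_715.P (T.H i) ∩ K).Nonempty → ∀ u ∈ A', u ∉ Msh_715.P (T.H i)) {v₀ : E}
    (hv₀ : v₀ ∈ VM T K) (hA : (A : Set E) ⊆ K) {w : E} (hw : w ∈ A) {q : ι}
    (hq : w ∈ Msh_715.P (T.H q)) {v : E} (hv : v ∈ Msh_715.P (T.H q)) (h0 : T.dim v = 0) :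
    lam' v = lam' v₀ :=
  h'.const_geom hK hKO hQ (mem_VM hq (hA hw) hv h0) hv₀

end geom

section homeo

open Crest.AnalysisR.VecCalc3 Crest.AnalysisR.Sobolev

variable {f : R3 → R3} {Om La : Set R3} {ι : Type*} {T : Tiling Om ι}

theorem isPreconnected_preimage (hf : IsHomeomorphOn f Om La) {D : Set R3}
    (hD : IsPreconnected D) (hDL : D ⊆ La) : IsPreconnected (Om ∩ f ⁻¹' D) := by
  obtain ⟨g, a1, a2, a3, a4, a5, a6⟩ := hf
  have he : Om ∩ f ⁻¹' D = g '' D := by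
    ext x
    constructor
    · rintro ⟨hx, hxD⟩; exact ⟨f x, hxD, a3 x hx⟩
    · rintro ⟨y, hy, rfl⟩
      refine ⟨a2 (hDL hy), ?_⟩
      show f (g y) ∈ D
      rw [a4 y (hDL hy)]; exact hy
  rw [he]; exact hD.image _ (a6.mono hDL)

theorem exists_preimage (hf : IsHomeomorphOn f Om La) {y : R3} (hy : y ∈ La) :
    ∃ x ∈ Om, f x = y := by
  obtain ⟨g, a1, a2, a3, a4, a5, a6⟩ := hf
  exact ⟨g y, a2 hy, a4 y hy⟩

/-- the label of a class: 0 at all tiles which are not deep inside `f⁻¹ D` -/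
structure FarLab (T : Tiling Om ι) (f : R3 → R3) (D : Set R3) (Q : Finset R3)
    (lam : R3 → ZMod 2) : Prop where
  lab : IsLab T Q lam
  out : ∀ v, ¬ (v ∈ Om ∧ f v ∈ D) → lam v = 0
  far : ∀ q, ¬ Msh_715.P (T.H q) ⊆ f ⁻¹' interior D → ∀ v ∈ Msh_715.P (T.H q), lam v = 0

/-- every set of points of a level closed under chords has a far label -/
theorem exists_farLab (hLa : IsOpen La) (hf : IsHomeomorphOn f Om La) {D : Set R3}
    (hD : IsCompact D) (hDc : Convex ℝ D) (hDn : (interior D).Nonempty) (hDL : D ⊆ La)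
    {Q : Finset R3} (hQ : EvenPat T Q)
    (hsupp : ∀ w ∈ Q, ∀ q, w ∈ Msh_715.P (T.H q) → Msh_715.P (T.H q) ⊆ f ⁻¹' interior D) :
    ∃ lam : R3 → ZMod 2, FarLab T f D Q lam := by
  obtain ⟨lam, h1, h2, h3⟩ := isLab_homeo hLa hf hD hDc hDn hDL hQ hsupp
  exact ⟨lam, h1, h2, h3⟩

/-- **EXISTENCE OF THE MAIN CLASS** of a full level `S = {u = c}` of a homeomorphism, `u < c` at
the core vertex `v₀`, `c ≤ u` at the tiles which are not inside `f⁻¹ (int D)`. -/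
theorem exists_main_homeo (hLa : IsOpen La) (hf : IsHomeomorphOn f Om La) {D : Set R3}
    (hD : IsCompact D) (hDc : Convex ℝ D) (hDn : (interior D).Nonempty) (hDL : D ⊆ La)
    {u : R3 → ℝ} {c : ℝ} {S : Set R3} (h : RegLevel T u c S) (hu : ContinuousOn u Om)
    (hfull : ∀ x ∈ Om, u x = c → x ∈ S) {P : Finset R3}
    (hP : ∀ x, x ∈ P ↔ x ∈ S ∧ T.dim x ≤ 1)
    (hsupp : ∀ w ∈ S, ∀ q, w ∈ Msh_715.P (T.H q) → Msh_715.P (T.H q) ⊆ f ⁻¹' interior D)
    (hout : ∀ q, ¬ Msh_715.P (T.H q) ⊆ f ⁻¹' interior D → ∀ v ∈ Msh_715.P (T.H q), c ≤ u v)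
    {v₀ : R3} (hv₀ : v₀ ∈ Om) (hd₀ : T.dim v₀ = 0) (h0 : u v₀ < c) :
    ∃ p ∈ P, ∃ lam, FarLab T f D (cls T S P p) lam ∧ lam v₀ = 1 := by
  classical
  have h3 : Module.finrank ℝ R3 = 3 := by simp
  -- labels of all classes
  have hl : ∀ p ∈ P, ∃ lam, FarLab T f D (cls T S P p) lam := fun p hp =>
    exists_farLab hLa hf hD hDc hDn hDL (cls_even h3 h hP p)
      (fun w hw q hq => hsupp w ((hP w).1 (cls_sub p hw)).1 q hq)
  choose! lam hlam using hl
  -- the core vertex lies inside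
  obtain ⟨q₀, hq₀⟩ := T.cov v₀ hv₀
  have hq₀' : Msh_715.P (T.H q₀) ⊆ f ⁻¹' interior D := by
    by_contra hcon
    exact absurd (hout q₀ hcon v₀ hq₀) (not_le.2 h0)
  have hfv₀ : f v₀ ∈ D := interior_subset (hq₀' hq₀)
  -- a far vertex
  have hfr : (frontier D).Nonempty := by
    obtain ⟨x, hx⟩ := hDn
    by_contra hne
    rw [not_nonempty_iff_eq_empty] at hne
    have h1 : IsClopen D := isClopen_iff_frontier_eq_empty.2 hne
    rcases isClopen_iff.1 h1 with h2 | h2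
    · rw [h2] at hx; simp at hx
    · rw [h2] at hD
      exact noncompact_univ R3 hD
  obtain ⟨y₁, hy₁⟩ := hfr
  have hy₁D : y₁ ∈ D := hD.isClosed.frontier_subset hy₁
  obtain ⟨x₁, hx₁, hfx₁⟩ := exists_preimage hf (hDL hy₁D)
  obtain ⟨q₁, hq₁⟩ := T.cov x₁ hx₁
  have hq₁' : ¬ Msh_715.P (T.H q₁) ⊆ f ⁻¹' interior D := by
    intro h4
    have h5 : f x₁ ∈ interior D := h4 hq₁
    rw [hfx₁] at h5
    rw [hD.isClosed.frontier_eq] at hy₁
    exact hy₁.2 h5
  obtain ⟨v₁, hv₁, hd₁⟩ := exists_vertex_tile hq₁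
  set K : Set R3 := Om ∩ f ⁻¹' D with hK
  have hKc : IsPreconnected K := isPreconnected_preimage hf hDc.isPreconnected hDL
  have hp := edg_VM (T := T) hKc inter_subset_left
    (self_mem_VM hv₀ hd₀ (show v₀ ∈ K from ⟨hv₀, hfv₀⟩))
    (mem_VM hq₁ (show x₁ ∈ K from ⟨hx₁, by show f x₁ ∈ D; rw [hfx₁]; exact hy₁D⟩) hv₁ hd₁)
  have hp' : Relation.ReflTransGen (Edg T univ) v₀ v₁ := by
    clear * - hp
    induction hp with
    | refl => exact .refl
    | tail _ hs ih => exact ih.tail (hs.mono (subset_univ _))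
  have hχ := chi_isLab h3 h hu hfull hP
  have e0 : sb (u v₀ - c) = 1 := if_pos (by linarith)
  have e1 : sb (u v₁ - c) = 0 := if_neg (by have := hout q₁ hq₁' v₁ hv₁; linarith)
  obtain ⟨p, hp, hp1⟩ := exists_main hχ e0 e1 hp' (lam := lam)
    (fun p hp => (hlam p hp).lab) (fun p hp => (hlam p hp).far q₁ hq₁' v₁ hv₁)
  exact ⟨p, hp, lam p, hlam p hp, hp1⟩

/-- **BASE POINT**: the main class has a point in a tile which meets a given connected set `K`
from a tile with the core vertex `v₀` to a tile which is not deep inside `f⁻¹ D`. -/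
theorem exists_base (hLa : IsOpen La) (hf : IsHomeomorphOn f Om La) {D : Set R3}
    (hD : IsCompact D) (hDc : Convex ℝ D) (hDn : (interior D).Nonempty) (hDL : D ⊆ La)
    {u : R3 → ℝ} {c : ℝ} {S : Set R3} (h : RegLevel T u c S) (hu : ContinuousOn u Om)
    (hfull : ∀ x ∈ Om, u x = c → x ∈ S) {P : Finset R3}
    (hP : ∀ x, x ∈ P ↔ x ∈ S ∧ T.dim x ≤ 1)
    (hsupp : ∀ w ∈ S, ∀ q, w ∈ Msh_715.P (T.H q) → Msh_715.P (T.H q) ⊆ f ⁻¹' interior D)
    (hout : ∀ q, ¬ Msh_715.P (T.H q) ⊆ f ⁻¹' interior D → ∀ v ∈ Msh_715.P (T.H q), c ≤ u v)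
    {v₀ : R3} (hv₀ : v₀ ∈ Om) (hd₀ : T.dim v₀ = 0) (h0 : u v₀ < c)
    {K : Set R3} (hK : IsPreconnected K) (hKO : K ⊆ Om) (hKv : v₀ ∈ VM T K)
    (hKf : ∃ q, ¬ Msh_715.P (T.H q) ⊆ f ⁻¹' interior D ∧ (Msh_715.P (T.H q) ∩ K).Nonempty) :
    ∃ b ∈ P, (∃ i, (Msh_715.P (T.H i) ∩ K).Nonempty ∧ b ∈ Msh_715.P (T.H i)) ∧
      ∃ lam, FarLab T f D (cls T S P b) lam ∧ lam v₀ = 1 := by
  obtain ⟨p, hp, lam, h1, h2⟩ := exists_main_homeo hLa hf hD hDc hDn hDL h hu hfull hP hsupp hout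
    hv₀ hd₀ h0
  obtain ⟨q, hq, x, hx, hxK⟩ := hKf
  obtain ⟨v₁, hv₁, hd₁⟩ := exists_vertex_tile hx
  have h4 : lam v₁ = 0 := h1.far q hq v₁ hv₁
  obtain ⟨i, hi, b, hb, hbi⟩ := h1.lab.reach_geom hK hKO hKv (mem_VM hx hxK hv₁ hd₁)
    (by rw [h2, h4]; exact one_ne_zero)
  exact ⟨b, cls_sub p hb, ⟨i, hi, hbi⟩, lam, by rw [cls_eq hb]; exact h1, h2⟩

/-- **DENSITY of the main class in the target**: `Γ ⊆ Λ` connected through the image of a tile
with a vertex of label 1 and the image of a tile with a vertex of label 0. -/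
theorem FarLab.reach_target (hf : IsHomeomorphOn f Om La) {D : Set R3} {Q : Finset R3}
    {lam : R3 → ZMod 2} (h : FarLab T f D Q lam) {G : Set R3} (hG : IsPreconnected G)
    (hGL : G ⊆ La) {q₀ q₁ : ι} {x₀ x₁ v₀ v₁ : R3} (h1 : x₀ ∈ Msh_715.P (T.H q₀)) (h2 : f x₀ ∈ G)
    (h3 : v₀ ∈ Msh_715.P (T.H q₀)) (h4 : T.dim v₀ = 0) (h5 : x₁ ∈ Msh_715.P (T.H q₁))
    (h6 : f x₁ ∈ G) (h7 : v₁ ∈ Msh_715.P (T.H q₁)) (h8 : T.dim v₁ = 0) (hne : lam v₀ ≠ lam v₁) :
    ∃ w ∈ Q, ∃ q, w ∈ Msh_715.P (T.H q) ∧ (f '' Msh_715.P (T.H q) ∩ G).Nonempty := by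
  obtain ⟨i, ⟨x, hx1, hx2⟩, w, hw, hwi⟩ := h.lab.reach_geom
    (isPreconnected_preimage hf hG hGL) inter_subset_left
    (mem_VM h1 ⟨T.sub _ h1, h2⟩ h3 h4) (mem_VM h5 ⟨T.sub _ h5, h6⟩ h7 h8) hne
  exact ⟨w, hw, i, hwi, f x, mem_image_of_mem _ hx1, hx2.2⟩

end homeo

/-! ### comparison with 543's global state -/

section gst

open Crest.Agent.R096.Ginv_543 Crest.Agent.R096.Agl5_543 Crest.Agent.R096.Agl6_543

variable {E : Type} [NormedAddCommGroup E] [NormedSpace ℝ E] [FiniteDimensional ℝ E]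
variable {Om : Set E} {ι : Type} {T : Tiling Om ι}
variable {J C : Type} {u : J → E → ℝ} {c : J → ℝ} {S : J → Set E} {fam : J → C} [Nonempty J]

/-- a step of the global state is a chord of the level -/
theorem st_of_gstep (h : GFam T u c S fam) (h3 : Module.finrank ℝ E = 3) {i : J} {P : Finset E}
    (hP : ∀ x, x ∈ P ↔ x ∈ S i ∧ T.dim x ≤ 1) {a b : E} (ha : a ∈ S i)
    (hs : GStep (h.gst h3) a b) : St T (S i) P a b ∧ b ∈ S i := by
  obtain ⟨F, ⟨hat1, hat2⟩, rfl⟩ := hs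
  have hpts : a ∈ h.pts := hat1
  have hF : a ∈ F.On := hat2
  have hsp := (h.mu_spec h3 hpts hF).1
  have hlab : labf S a = i := h.lab_eq ha hF.2.le
  rw [hlab] at hsp
  obtain ⟨x, h7, h8, h9⟩ := F.exists_side h3
  refine ⟨⟨x.1, x.2, h7, (hP a).2 ⟨ha, hF.2.le⟩, (hP _).2 ⟨hsp.2.1.1, hsp.2.1.2.2.le⟩, ?_, ?_⟩,
    hsp.2.1.1⟩
  · refine ⟨ha, ?_⟩
    have := hF.1
    rwa [h9] at this
  · have := hsp.2.2
    rwa [h9] at this

/-- a chord of the level is a step of the global state -/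
theorem gstep_of_st (h : GFam T u c S fam) (h3 : Module.finrank ℝ E = 3) {i : J} {P : Finset E}
    (hP : ∀ x, x ∈ P ↔ x ∈ S i ∧ T.dim x ≤ 1) {a b : E} (hne : a ≠ b)
    (hs : St T (S i) P a b) : GStep (h.gst h3) a b := by
  obtain ⟨q, q', hch⟩ := hs
  obtain ⟨x, hx, hd, hat, hcc⟩ := (h.lev i).chord_cell h3 hP (Ne.symm hne) hch
  set F : C2 T := mk2 T hx hd with hFdef
  have hFset : F.set = T.cc x := rfl
  have ha := (hP a).1 hch.left
  have hb := (hP b).1 hch.right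
  have haF : a ∈ F.On := by
    refine ⟨by rw [hFset, hcc]; exact hch.mem.2, ?_⟩
    have := (h.lev i).vert a ha.1
    have := ha.2
    omega
  have hbF : b ∈ F.On := by
    refine ⟨by rw [hFset, hcc]; exact hch.mem_right.2, ?_⟩
    have := (h.lev i).vert b hb.1
    have := hb.2
    omega
  have hlab : labf S a = i := h.lab_eq ha.1 ha.2
  have hmu : b = h.mu h3 F a := by
    refine (h.mu_spec h3 ⟨i, ha⟩ haF).2 b (Ne.symm hne) (by rw [hlab]; exact hb.1) hbF ?_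
    rw [hlab, hFset, hcc]
    exact hch.conn
  exact ⟨F, ⟨⟨i, ha⟩, haF⟩, hmu⟩

/-- the chord component of `b` in the global state is the class of `b` -/
theorem reflTransGen_gstep_iff (h : GFam T u c S fam) (h3 : Module.finrank ℝ E = 3) {i : J}
    {P : Finset E} (hP : ∀ x, x ∈ P ↔ x ∈ S i ∧ T.dim x ≤ 1) {b w : E} (hb : b ∈ P) :
    Relation.ReflTransGen (GStep (h.gst h3)) b w ↔ w ∈ cls T (S i) P b := by
  constructor
  · intro hw
    have key : w ∈ S i ∧ w ∈ cls T (S i) P b := by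
      induction hw with
      | refl => exact ⟨((hP b).1 hb).1, self_mem_cls hb⟩
      | tail _ hs ih =>
        obtain ⟨h4, h5⟩ := st_of_gstep h h3 hP ih.1 hs
        exact ⟨h5, cls_closed ih.2 h4⟩
    exact key.2
  · intro hw
    have h1 := (mem_cls.1 hw).2
    clear hw
    induction h1 with
    | refl => exact .refl
    | @tail x y _ hs ih =>
      by_cases hxy : x = y
      · rw [← hxy]; exact ih
      · exact ih.tail (gstep_of_st h h3 hP hxy hs)

end gst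

end Crest.Agent.R096.Main_4
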