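import Mathlib
import Crest.Agent.R096.Init4_543
import Crest.Agent.R096.Lab5_184
import Crest.Agent.R096.Main3_4

/-! # Row 96, INIT (helper543), part 9: ropes in the foam (connected sets from the centre of a cell
to the centre of any other cell which avoid the active parts of the quads of the cell `a`), bodies. -/

set_option autoImplicit false

open Set Topology Filter

namespace Crest.Agent.R096.Init_543

open Crest.Agent.R096.Coh_184 Crest.Agent.R096.Brk1_582 Crest.Agent.R096.Brk2_582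
  Crest.Agent.R096.Lab_184

section foam

variable {V : Type*} [NormedAddCommGroup V] [NormedSpace ℝ V] [CompleteSpace V] {I : Type*}
  {La : Set V} {P : I → Set V} {b : Set I → V} {N : ℕ}

/-- points of the target which are not over the active part of a quad of the cell `a` -/
def Free (P : I → Set V) (b : Set I → V) (a : I) (y : V) : Prop :=
  sc P b y a = 0 ∨ sc P b y a = 1 ∨ ∀ c, c ≠ a → sc P b y c = 0 ∨ sc P b y c = 1

/-- the coordinates on the segment from the centre of a cell to the centre of a face -/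
theorem seg_sc (F : Foam La P b N) {A : Set I} {c : I} (hc : c ∈ A) (hA : (fc P A).Nonempty) {y : V}
    (hy : y ∈ segment ℝ (b {c}) (b A)) : y ∈ P c ∧ ∀ c' ∉ A, sc P b y c' = 1 := by
  classical
  have hAn : A.Nonempty := ⟨c, hc⟩
  have hcn : ({c} : Set I).Nonempty := singleton_nonempty c
  have h1 : b A ∈ fc P A := F.mem A hAn hA
  have h2 : b A ∈ P c := mem_fc.1 h1 c hc
  have hcc : (fc P {c}).Nonempty := ⟨b A, mem_fc.2 fun d hd => by rw [mem_singleton_iff.1 hd]; exact h2⟩
  have h3 : b {c} ∈ P c := mem_fc.1 (F.mem _ hcn hcc) c rfl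
  refine ⟨(F.cvx c).segment_subset h3 h2 hy, fun c' hc' => ?_⟩
  rw [segment_eq_image'] at hy
  obtain ⟨μ, ⟨hμ0, hμ1⟩, rfl⟩ := hy
  have hne : c' ∉ ({c} : Set I) := by
    intro h
    rw [mem_singleton_iff.1 h] at hc'
    exact hc' hc
  have h4 := F.sc_ray' hcn (z := b A) (mem_fc.2 fun d hd => by rw [mem_singleton_iff.1 hd]; exact h2)
    hμ0 hμ1 hne
  rw [F.sc_b hAn hA c', if_neg hc'] at h4
  rw [h4]; ring

omit [CompleteSpace V] in
/-- the cells of `La` are connected by touching -/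
theorem touch_induction (F : Foam La P b N) (hLa : IsPreconnected La) (hne : ∀ c, (P c).Nonempty)
    {X : Set I} (hX : ∀ c ∈ X, ∀ c', (P c ∩ P c').Nonempty → c' ∈ X) {a : I} (ha : a ∈ X) (c : I) :
    c ∈ X := by
  have hop : ∀ Y : Set I, IsOpen {y | y ∈ La ∧ ∀ c, y ∈ P c → c ∈ Y} := by
    intro Y
    rw [Metric.isOpen_iff]
    rintro y ⟨hy, hyY⟩
    obtain ⟨r, hr, hfin⟩ := F.lf y hy
    have hcl : IsClosed (⋃ c ∈ {c | (P c ∩ Metric.ball y r).Nonempty ∧ c ∉ Y}, P c) :=
      (hfin.subset fun c hc => hc.1).isClosed_biUnion fun c _ => (F.cpt c).isClosed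
    have hyn : y ∉ ⋃ c ∈ {c | (P c ∩ Metric.ball y r).Nonempty ∧ c ∉ Y}, P c := by
      intro h
      obtain ⟨c, hc, hyc⟩ := mem_iUnion₂.1 h
      exact hc.2 (hyY c hyc)
    have h1 : La ∩ (Metric.ball y r ∩
        (⋃ c ∈ {c | (P c ∩ Metric.ball y r).Nonempty ∧ c ∉ Y}, P c)ᶜ) ∈ 𝓝 y :=
      inter_mem (F.op.mem_nhds hy) (inter_mem (Metric.ball_mem_nhds y hr)
        (hcl.isOpen_compl.mem_nhds hyn))
    obtain ⟨δ, hδ, hsub⟩ := Metric.mem_nhds_iff.1 h1
    refine ⟨δ, hδ, fun z hz => ?_⟩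
    obtain ⟨g1, g2, g3⟩ := hsub hz
    refine ⟨g1, fun c hc => ?_⟩
    by_contra hcY
    exact g3 (mem_iUnion₂.2 ⟨c, ⟨⟨z, hc, g2⟩, hcY⟩, hc⟩)
  have hcov : La ⊆ {y | y ∈ La ∧ ∀ c, y ∈ P c → c ∈ X} ∪ {y | y ∈ La ∧ ∀ c, y ∈ P c → c ∈ Xᶜ} := by
    intro y hy
    obtain ⟨d, hd⟩ := F.cov y hy
    by_cases hdX : d ∈ X
    · exact Or.inl ⟨hy, fun c hc => hX d hdX c ⟨y, hd, hc⟩⟩
    · exact Or.inr ⟨hy, fun c hc hcX => hdX (hX c hcX d ⟨y, hc, hd⟩)⟩
  have hdis : Disjoint {y | y ∈ La ∧ ∀ c, y ∈ P c → c ∈ X}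
      {y | y ∈ La ∧ ∀ c, y ∈ P c → c ∈ Xᶜ} := by
    rw [disjoint_left]
    rintro y ⟨h1, h2⟩ ⟨-, h3⟩
    obtain ⟨d, hd⟩ := F.cov y h1
    exact h3 d hd (h2 d hd)
  obtain ⟨y0, hy0⟩ := hne a
  have h4 : La ⊆ {y | y ∈ La ∧ ∀ c, y ∈ P c → c ∈ X} :=
    hLa.subset_left_of_subset_union (hop X) (hop Xᶜ) hdis hcov
      ⟨y0, F.sub a hy0, F.sub a hy0, fun c hc => hX a ha c ⟨y0, hy0, hc⟩⟩
  obtain ⟨y1, hy1⟩ := hne c
  exact (h4 (F.sub c hy1)).2 c hy1

/-- **ROPES.** The centre of the cell `a` is joined with the centre of every cell by a compact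
connected set which avoids the active parts of the quads of `a`. -/
theorem exists_rope (F : Foam La P b N) (hLa : IsPreconnected La) (hne : ∀ c, (P c).Nonempty)
    (a c : I) : ∃ G : Set V, IsCompact G ∧ IsPreconnected G ∧ G ⊆ La ∧ b {a} ∈ G ∧ b {c} ∈ G ∧
      ∀ y ∈ G, Free P b a y := by
  classical
  have hfc1 : ∀ c, (fc P {c}).Nonempty := fun c => by
    obtain ⟨y, hy⟩ := hne c
    exact ⟨y, mem_fc.2 fun d hd => by rw [mem_singleton_iff.1 hd]; exact hy⟩
  have hb1 : ∀ c, b {c} ∈ P c := fun c =>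
    mem_fc.1 (F.mem _ (singleton_nonempty c) (hfc1 c)) c rfl
  have hfc2 : ∀ c d, (P c ∩ P d).Nonempty → (fc P {c, d}).Nonempty := by
    rintro c d ⟨y, h1, h2⟩
    refine ⟨y, mem_fc.2 fun e he => ?_⟩
    rcases he with rfl | he
    · exact h1
    · rw [mem_singleton_iff.1 he]; exact h2
  have hseg : ∀ {x y : V}, IsCompact (segment ℝ x y) := fun {x y} => by
    rw [segment_eq_image']
    exact isCompact_Icc.image (by fun_prop)
  -- the two segments between two touching cells
  have two : ∀ c d, (P c ∩ P d).Nonempty →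
      IsCompact (segment ℝ (b {c}) (b {c, d}) ∪ segment ℝ (b {d}) (b {c, d})) ∧
      IsPreconnected (segment ℝ (b {c}) (b {c, d}) ∪ segment ℝ (b {d}) (b {c, d})) ∧
      segment ℝ (b {c}) (b {c, d}) ∪ segment ℝ (b {d}) (b {c, d}) ⊆ La := by
    intro c d hcd
    refine ⟨hseg.union hseg, ?_, ?_⟩
    · exact IsPreconnected.union (b {c, d}) (right_mem_segment ℝ _ _) (right_mem_segment ℝ _ _)
        (convex_segment _ _).isPreconnected (convex_segment _ _).isPreconnected
    · refine union_subset (fun y hy => F.sub c ?_) (fun y hy => F.sub d ?_)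
      · exact (seg_sc F (by simp) (hfc2 c d hcd) hy).1
      · exact (seg_sc F (by simp) (hfc2 c d hcd) hy).1
  have key : ∀ c, c ∈ {c | ∃ G : Set V, IsCompact G ∧ IsPreconnected G ∧ G ⊆ La ∧ b {a} ∈ G ∧
      b {c} ∈ G ∧ ∀ y ∈ G, Free P b a y} := by
    refine touch_induction F hLa hne ?_ (a := a) ?_
    · rintro c ⟨G, h1, h2, h3, h4, h5, h6⟩ c' hcc
      by_cases hca : c' = a
      · subst hca
        exact ⟨G, h1, h2, h3, h4, h4, h6⟩
      by_cases hta : (P a ∩ P c').Nonempty
      · -- direct connection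
        obtain ⟨g1, g2, g3⟩ := two a c' hta
        refine ⟨_, g1, g2, g3, Or.inl (left_mem_segment ℝ _ _), Or.inr (left_mem_segment ℝ _ _), ?_⟩
        rintro y (hy | hy)
        · left
          obtain ⟨k1, -⟩ := seg_sc F (by simp) (hfc2 a c' hta) hy
          exact (F.sc_eq_zero (F.sub a k1)).2 k1
        · right; right
          intro d hd
          obtain ⟨k1, k2⟩ := seg_sc F (by simp) (hfc2 a c' hta) hy
          by_cases hdc : d = c'
          · left; rw [hdc]; exact (F.sc_eq_zero (F.sub c' k1)).2 k1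
          · right
            refine k2 d ?_
            rintro (h | h)
            · exact hd h
            · exact hdc h
      · -- extension by two segments
        have hca' : c ≠ a := by
          rintro rfl
          exact hta hcc
        obtain ⟨g1, g2, g3⟩ := two c c' hcc
        refine ⟨_, h1.union g1, ?_, union_subset h3 g3, Or.inl h4,
          Or.inr (Or.inr (left_mem_segment ℝ _ _)), ?_⟩
        · exact IsPreconnected.union (b {c}) h5 (Or.inl (left_mem_segment ℝ _ _)) h2 g2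
        · have hna : a ∉ ({c, c'} : Set I) := by
            rintro (h | h)
            · exact hca' h.symm
            · exact hca (Set.mem_singleton_iff.1 h).symm
          rintro y (hy | hy | hy)
          · exact h6 y hy
          · exact Or.inr (Or.inl ((seg_sc F (by simp) (hfc2 c c' hcc) hy).2 a hna))
          · exact Or.inr (Or.inl ((seg_sc F (by simp) (hfc2 c c' hcc) hy).2 a hna))
    · refine ⟨{b {a}}, isCompact_singleton, isPreconnected_singleton, ?_, rfl, rfl, ?_⟩
      · rintro y rfl; exact F.sub a (hb1 a)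
      · rintro y rfl
        left
        exact (F.sc_eq_zero (F.sub a (hb1 a))).2 (hb1 a)
  exact key c

/-- a compact part of `La` misses some cell -/
theorem exists_far_cell [FiniteDimensional ℝ V] [Nontrivial V] (F : Foam La P b N)
    (hLn : La.Nonempty) {D : Set V} (hD : IsCompact D) (hDL : D ⊆ La) : ∃ e, ∀ y ∈ P e, y ∉ D := by
  by_contra hcon
  push Not at hcon
  have hfin : (univ : Set I).Finite := by
    refine (F.finite_meet hD hDL).subset fun c _ => ?_
    obtain ⟨y, hy, hyD⟩ := hcon c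
    exact ⟨y, hy, hyD⟩
  have hLa : La = ⋃ c ∈ (univ : Set I), P c := by
    apply Subset.antisymm
    · intro y hy
      obtain ⟨c, hc⟩ := F.cov y hy
      exact mem_biUnion (mem_univ c) hc
    · exact iUnion₂_subset fun c _ => F.sub c
  have hcpt : IsCompact La := by
    rw [hLa]
    exact hfin.isCompact_biUnion fun c _ => F.cpt c
  rcases isClopen_iff.1 ⟨hcpt.isClosed, F.op⟩ with h | h
  · rw [h] at hLn; simp at hLn
  · rw [h] at hcpt
    exact noncompact_univ V hcpt

end foam

/-! ### bodies -/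

section body

variable {E V : Type*} [NormedAddCommGroup E] [NormedSpace ℝ E] [NormedAddCommGroup V]
  [NormedSpace ℝ V] {I : Type*} {Om : Set E} {La : Set V} {P : I → Set V} {f : E → V} {g : V → E}

/-- **body** of the cell `a`: a compact set in the source with connected frontier and `H¹ = 0`
which contains the cells touching `a` in its interior, and misses some cell -/
structure Body (Om : Set E) (f : E → V) (P : I → Set V) (a : I) (D : Set E) : Prop where
  cpt : IsCompact D
  sub : D ⊆ Om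
  fr : IsPreconnected (frontier D)
  triv : TrivF (ZMod 2) D
  star : ∀ c, (P c ∩ P a).Nonempty → ∀ x ∈ Om, f x ∈ P c → x ∈ interior D
  far : ∃ e, ∀ x ∈ D, f x ∉ P e

theorem interior_pre (hOm : IsOpen Om) (H : Hm f g Om La) (hLa : IsOpen La) (D : Set V) :
    interior (Om ∩ f ⁻¹' D) = Om ∩ f ⁻¹' interior D := by
  obtain ⟨a1, a2, a3, a4, a5, a6⟩ := H
  apply Subset.antisymm
  · intro x hx
    have hxO : x ∈ Om := (interior_subset hx).1
    refine ⟨hxO, ?_⟩
    have h1 : IsOpen (La ∩ g ⁻¹' interior (Om ∩ f ⁻¹' D)) :=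
      a6.isOpen_inter_preimage hLa isOpen_interior
    show f x ∈ interior D
    refine mem_interior.2 ⟨La ∩ g ⁻¹' interior (Om ∩ f ⁻¹' D), ?_, h1, ⟨a1 hxO, ?_⟩⟩
    · rintro y ⟨hy, hy2⟩
      have hy3 : g y ∈ interior (Om ∩ f ⁻¹' D) := hy2
      have h3 : f (g y) ∈ D := (interior_subset hy3).2
      rwa [a4 y hy] at h3
    · show g (f x) ∈ interior (Om ∩ f ⁻¹' D)
      rw [a3 x hxO]; exact hx
  · refine interior_maximal ?_ (a5.isOpen_inter_preimage hOm isOpen_interior)
    exact inter_subset_inter_right _ (preimage_mono interior_subset)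

theorem frontier_pre (hOm : IsOpen Om) (H : Hm f g Om La) (hLa : IsOpen La) {D : Set V}
    (hD : IsCompact D) (hDL : D ⊆ La) :
    frontier (Om ∩ f ⁻¹' D) = Om ∩ f ⁻¹' frontier D := by
  rw [(H.isCompact_pre hDL hD).isClosed.frontier_eq, interior_pre hOm H hLa,
    hD.isClosed.frontier_eq]
  ext x
  constructor
  · rintro ⟨⟨h1, h2⟩, h4⟩
    exact ⟨h1, h2, fun h5 => h4 ⟨h1, h5⟩⟩
  · rintro ⟨h1, h2, h4⟩
    exact ⟨⟨h1, h2⟩, fun h5 => h4 h5.2⟩

/-- **bodies from convex sets** -/
theorem exists_body [FiniteDimensional ℝ V] (hV : Module.finrank ℝ V = 3) {b : Set I → V} {N : ℕ}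
    (hOm : IsOpen Om) (H : Hm f g Om La) (F : Foam La P b N) {a : I} (ha : (P a).Nonempty)
    {D : Set V} (hD : IsCompact D) (hDc : Convex ℝ D) (hDL : D ⊆ La)
    (hst : ∀ c, (P c ∩ P a).Nonempty → P c ⊆ interior D) : Body Om f P a (Om ∩ f ⁻¹' D) := by
  have hnt : Nontrivial V := Module.nontrivial_of_finrank_pos (R := ℝ) (by rw [hV]; norm_num)
  have hcs : CompleteSpace V := FiniteDimensional.complete ℝ V
  obtain ⟨y0, hy0⟩ := ha
  have hDn : (interior D).Nonempty := ⟨y0, hst a ⟨y0, hy0, hy0⟩ hy0⟩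
  refine ⟨H.isCompact_pre hDL hD, inter_subset_left, ?_, ?_, ?_, ?_⟩
  · rw [frontier_pre hOm H F.op hD hDL]
    exact H.preconn_pre (hD.isClosed.frontier_subset.trans hDL)
      (Lab_184.isPreconnected_frontier hV hD hDc hDn)
  · rw [H.pre_eq hDL]
    exact trivF_convex hD hDc (H.gc.mono hDL) (H.injOn.mono hDL)
  · intro c hc x hx hxc
    rw [interior_pre hOm H F.op]
    exact ⟨hx, hst c hc hxc⟩
  · obtain ⟨e, he⟩ := exists_far_cell F ⟨y0, F.sub a hy0⟩ hD hDL
    exact ⟨e, fun x hx hxe => he _ hxe hx.2⟩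

end body

end Crest.Agent.R096.Init_543
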