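import Mathlib
import Crest.Agent.R096.Init9_543
import Crest.Agent.R096.Gs3_422

/-! # Row 96, INIT (helper543), part 10: the main class of every sheet, its label, the ropes, the
base points; **the initial state with its labels** (`LabIn` of helper422). -/

set_option autoImplicit false
set_option linter.unusedSectionVars false

open Set Topology Filter Relation

namespace Crest.Agent.R096.Init_543

open Crest.Agent.R096.Coh_184 Crest.Agent.R096.Brk1_582 Crest.Agent.R096.Brk2_582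
  Crest.Agent.R096.Lab_184 Crest.Agent.R096.Main_4 Crest.Agent.R096.Msh_715
  Crest.Agent.R096.Agl4_543 Crest.Agent.R096.Agl5_543 Crest.Agent.R096.Agl6_543
  Crest.Agent.R096.Ginv_543 Crest.Agent.R096.Seq_213 Crest.Agent.R096.Seq_213.GSt
  Crest.Agent.R096.St_147 Crest.Agent.R096.Gs_422

/-! ### the main class of one level -/

section main

variable {E : Type*} [NormedAddCommGroup E] [NormedSpace ℝ E] [FiniteDimensional ℝ E]
  {Om : Set E} {ι : Type*} {T : Tiling Om ι}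

/-- label of a set of points, vanishing outside the body `D` -/
structure FarL (T : Tiling Om ι) (D : Set E) (Q : Finset E) (lam : E → ZMod 2) : Prop where
  lab : IsLab T Q lam
  out : ∀ v ∉ D, lam v = 0
  far : ∀ q, ¬ Msh_715.P (T.H q) ⊆ interior D → ∀ v ∈ Msh_715.P (T.H q), lam v = 0

/-- **THE MAIN CLASS** of a full level: its label is `1` at `v₀` and `0` at `v₁`, it has a point in
a tile which meets the rope `K` -/
theorem main_class (h3 : Module.finrank ℝ E = 3) {u : E → ℝ} {c : ℝ} {S : Set E}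
    (h : RegLevel T u c S) (hu : ContinuousOn u Om) (hfull : ∀ x ∈ Om, u x = c → x ∈ S)
    {Pt : Finset E} (hP : ∀ x, x ∈ Pt ↔ x ∈ S ∧ T.dim x ≤ 1) {D : Set E} (hD : IsCompact D)
    (hDO : D ⊆ Om) (hfr : IsPreconnected (frontier D)) (htr : TrivF (ZMod 2) D)
    (hsupp : ∀ w ∈ S, ∀ q, w ∈ Msh_715.P (T.H q) → Msh_715.P (T.H q) ⊆ interior D)
    {v₀ v₁ : E} (h0 : u v₀ < c) (h1 : c ≤ u v₁)
    (hfar : ∃ q, v₁ ∈ Msh_715.P (T.H q) ∧ ¬ Msh_715.P (T.H q) ⊆ interior D)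
    {K : Set E} (hK : IsPreconnected K) (hKO : K ⊆ Om) (hv₀ : v₀ ∈ VM T K) (hv₁ : v₁ ∈ VM T K) :
    ∃ p ∈ Pt, (∃ i, (Msh_715.P (T.H i) ∩ K).Nonempty ∧ p ∈ Msh_715.P (T.H i)) ∧
      ∃ lam, FarL T D (cls T S Pt p) lam ∧ lam v₀ = 1 ∧ lam v₁ = 0 := by
  classical
  have hl : ∀ p ∈ Pt, ∃ lam, FarL T D (cls T S Pt p) lam := fun p hp => by
    obtain ⟨lam, g1, g2, g3⟩ := isLab_of_even h3 (cls_even h3 h hP p) hD hDO hfr htr
      (fun w hw q hq => hsupp w ((hP w).1 (cls_sub p hw)).1 q hq)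
    exact ⟨lam, g1, g2, g3⟩
  choose! lam hlam using hl
  obtain ⟨q₁, hq₁, hq₁'⟩ := hfar
  have hp := edg_VM (T := T) hK hKO hv₀ hv₁
  have hp' : Relation.ReflTransGen (Edg T univ) v₀ v₁ := by
    clear * - hp
    induction hp with
    | refl => exact .refl
    | tail _ hs ih => exact ih.tail (hs.mono (subset_univ _))
  have hχ := chi_isLab h3 h hu hfull hP
  have e0 : sb (u v₀ - c) = 1 := if_pos (by linarith)
  have e1 : sb (u v₁ - c) = 0 := if_neg (by linarith)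
  obtain ⟨p, hp, hp1⟩ := exists_main hχ e0 e1 hp' (lam := lam)
    (fun p hp => (hlam p hp).lab) (fun p hp => (hlam p hp).far q₁ hq₁' v₁ hq₁)
  have h4 : lam p v₁ = 0 := (hlam p hp).far q₁ hq₁' v₁ hq₁
  obtain ⟨i, hi, b, hb, hbi⟩ := (hlam p hp).lab.reach_geom hK hKO hv₀ hv₁
    (by rw [hp1, h4]; exact one_ne_zero)
  exact ⟨b, cls_sub p hb, ⟨i, hi, hbi⟩, lam p, by rw [cls_eq hb]; exact hlam p hp, hp1, h4⟩

end main

/-! ### the points of the main state -/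

section gmain

variable {E : Type} [NormedAddCommGroup E] [NormedSpace ℝ E] [FiniteDimensional ℝ E]
  {Om : Set E} {ι : Type} {T : Tiling Om ι} {J C : Type} {u : J → E → ℝ} {c : J → ℝ}
  {S : J → Set E} {fam : J → C} [Nonempty J]

theorem gmain_gPts (h : GFam T u c S fam) (h3 : Module.finrank ℝ E = 3) {bp : J → E}
    (hbp : ∀ j, bp j ∈ S j ∧ T.dim (bp j) ≤ 1) (j : J) {Pt : Finset E}
    (hP : ∀ x, x ∈ Pt ↔ x ∈ S j ∧ T.dim x ≤ 1) :
    gPts (gmain (h.gst h3) bp) j = cls T (S j) Pt (bp j) := by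
  have hb : ∀ i, bp i ∈ (h.gst h3).P ∧ (h.gst h3).lab (bp i) = i := fun i =>
    h.mem_pts_iff.2 (hbp i)
  have hbP : bp j ∈ Pt := (hP _).2 (hbp j)
  ext w
  rw [mem_gPts, ← reflTransGen_gstep_iff h h3 hP hbP]
  constructor
  · rintro ⟨⟨h1, i, hi⟩, h2⟩
    have h4 := (gcomp_lab hb hi).2
    have h5 : (h.gst h3).lab w = j := h2
    rw [h4] at h5
    rw [← h5]
    exact hi
  · intro hw
    have h4 := gcomp_lab hb hw
    exact ⟨⟨h4.1, j, hw⟩, h4.2⟩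

end gmain

/-! ### the initial state -/

section init

variable {E V : Type} [NormedAddCommGroup E] [NormedSpace ℝ E] [FiniteDimensional ℝ E]
  [NormedAddCommGroup V] [NormedSpace ℝ V] [FiniteDimensional ℝ V]
variable {I ι J : Type} {Om : Set E} {La : Set V} {P : I → Set V} {b : Set I → V}
  {R : V → V} {f : E → V} {g : V → E}

theorem star_of_lt {N : ℕ} (H : Hm f g Om La) (F : Foam La P b N) (hR : Ret La P R) {x : E}
    (hx : x ∈ Om) {a c : I} (hc : f x ∈ P c) (h1 : va P b R f a x < 1) :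
    (P c ∩ P a).Nonempty := by
  have hcs : CompleteSpace V := FiniteDimensional.complete ℝ V
  have hy : R (f x) ∈ La := hR.mapsTo F (H.fm hx)
  obtain ⟨z, hz⟩ := F.sc_lt_one_fc hy
  refine ⟨z, mem_fc.1 hz c ?_, mem_fc.1 hz a h1⟩
  show sc P b (R (f x)) c < 1
  rw [(F.sc_eq_zero hy).2 (hR.cell c hc)]
  exact one_pos

/-- **ROPE in the source**: connected set from a vertex with `v_a ≤ ε` to a vertex with
`v_a ≥ 1 - ε` outside the body of `a`, all tiles which meet it are active in no quad of `a` -/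
theorem exists_ends (H : Hm f g Om La) (F : Foam La P b 4) (hR : Ret La P R)
    (hLa : IsPreconnected La) (hne : ∀ c, (P c).Nonempty) {T : Tiling Om ι} {Kor : Set ι} {ε : ℝ}
    (hM : Mesh0 T P b R f Kor ε) (hcore : ∀ q ∈ Kor, ∃ c, ∀ x ∈ Msh_715.P (T.H q), f x ∈ P c)
    {s₁ : ℝ} (hε0 : 0 ≤ ε) (hε : ε < s₁) {a : I} {D : Set E} (hD : Body Om f P a D) :
    ∃ (K : Set E) (v₀ v₁ : E), IsPreconnected K ∧ K ⊆ Om ∧ v₀ ∈ VM T K ∧ v₁ ∈ VM T K ∧
      va P b R f a v₀ ≤ ε ∧ 1 - ε ≤ va P b R f a v₁ ∧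
      (∃ q, v₁ ∈ Msh_715.P (T.H q) ∧ ¬ Msh_715.P (T.H q) ⊆ interior D) ∧
      (∀ q, (Msh_715.P (T.H q) ∩ K).Nonempty → ∀ k : QK P, a ∈ k.B →
        q ∉ Act0 T P b R f Kor s₁ k) ∧
      ∃ q, v₀ ∈ Msh_715.P (T.H q) ∧ ∃ x ∈ Msh_715.P (T.H q), f x ∈ P a := by
  have hcs : CompleteSpace V := FiniteDimensional.complete ℝ V
  have hfc1 : ∀ c, (fc P {c}).Nonempty := fun c => by
    obtain ⟨y, hy⟩ := hne c
    exact ⟨y, mem_fc.2 fun d hd => by rw [mem_singleton_iff.1 hd]; exact hy⟩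
  have hb1 : ∀ c, b {c} ∈ P c := fun c =>
    mem_fc.1 (F.mem _ (singleton_nonempty c) (hfc1 c)) c rfl
  have hact : ∀ c d, b {c} ∈ P d → d = c := fun c d hd => by
    have h1 := F.act_b (singleton_nonempty c) (hfc1 c)
    have h2 : d ∈ act P (b {c}) := hd
    rw [h1] at h2
    exact h2
  obtain ⟨e, he⟩ := hD.far
  obtain ⟨G, hG1, hG2, hG3, hG4, hG5, hG6⟩ := exists_rope F hLa hne a e
  -- a point over the centre of a cell lies in this cell
  have hpt : ∀ c, ∃ x ∈ Om, R (f x) = b {c} ∧ f x ∈ P c := by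
    intro c
    obtain ⟨y, hy, hye⟩ := hR.surj (b {c}) (F.sub c (hb1 c))
    refine ⟨g y, H.gm hy, by rw [H.fg y hy]; exact hye, ?_⟩
    rw [H.fg y hy]
    obtain ⟨d, hd⟩ := F.cov y hy
    have h1 := hR.cell d hd
    rw [hye] at h1
    rw [← hact c d h1]; exact hd
  -- a core tile over the centre of a cell
  have hcc : ∀ c q x, q ∈ Kor → x ∈ Msh_715.P (T.H q) → R (f x) = b {c} →
      ∀ z ∈ Msh_715.P (T.H q), R (f z) ∈ P c := by
    intro c q x hq hx hxc z hz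
    obtain ⟨d, hd⟩ := hcore q hq
    have h1 := hR.cell d (hd x hx)
    rw [hxc] at h1
    have h2 := hR.cell d (hd z hz)
    rw [hact c d h1] at h2
    exact h2
  obtain ⟨x₀, hx₀, hx₀R, hx₀P⟩ := hpt a
  obtain ⟨x₁, hx₁, hx₁R, hx₁P⟩ := hpt e
  obtain ⟨q₀, hq₀⟩ := T.cov x₀ hx₀
  obtain ⟨q₁, hq₁⟩ := T.cov x₁ hx₁
  obtain ⟨v₀, hv₀, hd₀⟩ := exists_vertex_tile hq₀
  obtain ⟨v₁, hv₁, hd₁⟩ := exists_vertex_tile hq₁
  have hKm : ∀ x ∈ Om, R (f x) ∈ G → x ∈ Om ∩ f ⁻¹' rpre La R G := fun x hx hxG =>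
    ⟨hx, H.fm hx, hxG⟩
  -- `e` does not touch `a`
  have hea : ¬ (P e ∩ P a).Nonempty := by
    intro h
    exact he x₁ (interior_subset (hD.star e h x₁ hx₁ hx₁P)) hx₁P
  refine ⟨Om ∩ f ⁻¹' rpre La R G, v₀, v₁,
    H.preconn_pre (fun y hy => hy.1) (hR.preconn_pre F hG1 hG3 hG2), inter_subset_left,
    mem_VM hq₀ (hKm x₀ hx₀ (by rw [hx₀R]; exact hG4)) hv₀ hd₀,
    mem_VM hq₁ (hKm x₁ hx₁ (by rw [hx₁R]; exact hG5)) hv₁ hd₁, ?_, ?_, ?_, ?_,
    ⟨q₀, hv₀, x₀, hq₀, hx₀P⟩⟩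
  · by_cases hqK : q₀ ∈ Kor
    · have h1 := hcc a q₀ x₀ hqK hq₀ hx₀R v₀ hv₀
      have h2 : va P b R f a v₀ = 0 := (F.sc_eq_zero (F.sub a h1)).2 h1
      rw [h2]; exact hε0
    · have h1 : va P b R f a x₀ = 0 := by
        show sc P b (R (f x₀)) a = 0
        rw [hx₀R]; exact (F.sc_eq_zero (F.sub a (hb1 a))).2 (hb1 a)
      have h2 := abs_le.1 (hM.osc q₀ hqK v₀ hv₀ x₀ hq₀ a)
      linarith [h2.2]
  · by_cases hqK : q₁ ∈ Kor
    · have h1 := hcc e q₁ x₁ hqK hq₁ hx₁R v₁ hv₁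
      by_contra hcon
      push Not at hcon
      refine hea ?_
      obtain ⟨d, hd⟩ := hcore q₁ hqK
      have h4 := hR.cell d (hd x₁ hq₁)
      rw [hx₁R] at h4
      have h5 := hact e d h4
      rw [h5] at hd
      exact star_of_lt H F hR (T.sub q₁ hv₁) (hd v₁ hv₁) (by linarith)
    · have h1 : va P b R f a x₁ = 1 := by
        show sc P b (R (f x₁)) a = 1
        by_contra hne1
        refine hea (star_of_lt H F hR hx₁ hx₁P ?_)
        exact lt_of_le_of_ne (F.sc_le_one (hR.mapsTo F (H.fm hx₁)) a) hne1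
      have h2 := abs_le.1 (hM.osc q₁ hqK x₁ hq₁ v₁ hv₁ a)
      linarith [h2.2]
  · refine ⟨q₁, hv₁, fun h => ?_⟩
    exact he x₁ (interior_subset (h hq₁)) hx₁P
  · rintro q ⟨x, hxq, hxO, hxL, hxG⟩ k hk ⟨hqK, x', hx', h1, h2⟩
    have hfree := hG6 (R (f x)) hxG
    have hin : ∀ a' ∈ k.B, 0 < va P b R f a' x ∧ va P b R f a' x < 1 := by
      intro a' ha'
      have h4 := abs_le.1 (hM.osc q hqK x hxq x' hx' a')
      have h5 := h1 a' ha'
      constructor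
      · linarith [h5.1, h4.1]
      · linarith [h5.2, h4.2]
    rcases hfree with h4 | h4 | h4
    · exact (hin a hk).1.ne' h4
    · exact (hin a hk).2.ne h4
    · obtain ⟨a', haa, ha', -⟩ := k.exists_other hk
      rcases h4 a' (Ne.symm haa) with h5 | h5
      · exact (hin a' ha').1.ne' h5
      · exact (hin a' ha').2.ne h5

/-- tiles with a point on which `v_a ≤ 1 - s`, `ε < s`, lie inside the body of `a` -/
theorem tile_in_body (H : Hm f g Om La) (F : Foam La P b 4) (hR : Ret La P R)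
    {T : Tiling Om ι} {Kor : Set ι} {ε : ℝ}
    (hM : Mesh0 T P b R f Kor ε) (hcore : ∀ q ∈ Kor, ∃ c, ∀ x ∈ Msh_715.P (T.H q), f x ∈ P c)
    (hε0 : 0 ≤ ε) {a : I} {D : Set E} (hD : Body Om f P a D) {q : ι} {w : E}
    (hw : w ∈ Msh_715.P (T.H q)) (h1 : va P b R f a w < 1 - ε) :
    Msh_715.P (T.H q) ⊆ interior D := by
  intro x hx
  have hxO := T.sub q hx
  by_cases hqK : q ∈ Kor
  · obtain ⟨c, hc⟩ := hcore q hqK
    exact hD.star c (star_of_lt H F hR (T.sub q hw) (hc w hw) (by linarith)) x hxO (hc x hx)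
  · obtain ⟨c, hc⟩ := F.cov (f x) (H.fm hxO)
    refine hD.star c (star_of_lt H F hR hxO hc ?_) x hxO hc
    have h2 := abs_le.1 (hM.osc q hqK x hx w hw a)
    linarith [h2.2]

/-- **THE INITIAL STATE WITH ITS LABELS** (no condition on the core tiles). Levels in
`[s₀, 1 - s₀]`, `ε < s₁`, `ε < s₀`. -/
theorem exists_lab [Nonempty J] (H : Hm f g Om La) (F : Foam La P b 4) (hR : Ret La P R)
    (h3 : Module.finrank ℝ E = 3) (hLa : IsPreconnected La)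
    (hne : ∀ c, (P c).Nonempty) {T : Tiling Om ι} {Kor : Set ι} {ε : ℝ}
    (hM : Mesh0 T P b R f Kor ε) (hcore : ∀ q ∈ Kor, ∃ c, ∀ x ∈ Msh_715.P (T.H q), f x ∈ P c)
    {s₁ s₀ : ℝ} (hε0 : 0 ≤ ε) (hε : ε < s₁) (hε1 : ε < 1) (hs₀ : ε < s₀)
    {fam : J → I} {t : J → ℝ} (ht : ∀ j, t j ∈ Icc s₀ (1 - s₀))
    (h : GFam T (fun j => va P b R f (fam j)) t (shS Om P b R f fam t) fam)
    {D : I → Set E} (hD : ∀ a, Body Om f P a (D a)) :
    ∃ (bp : J → E) (lam₀ : J → E → ZMod 2) (v₀ v₁ : I → E),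
      LabIn (quads H F hR hM hε hε1) (gmain (h.gst h3) bp) D lam₀ v₀ v₁ ∧
      (∀ j, FarL T (D (fam j)) (gPts (gmain (h.gst h3) bp) j) (lam₀ j)) ∧
      (∀ j, bp j ∈ shS Om P b R f fam t j ∧ T.dim (bp j) = 1 ∧
        ∃ q, bp j ∈ Msh_715.P (T.H q) ∧ ∀ k : QK P, fam j ∈ k.B → q ∉ Act0 T P b R f Kor s₁ k) ∧
      (∀ a, v₀ a ∈ Om ∧ T.dim (v₀ a) = 0 ∧ va P b R f a (v₀ a) ≤ ε) ∧
      (∀ a, v₁ a ∈ Om ∧ T.dim (v₁ a) = 0 ∧ 1 - ε ≤ va P b R f a (v₁ a)) ∧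
      (∀ a, ∃ q, v₀ a ∈ Msh_715.P (T.H q) ∧ ∃ x ∈ Msh_715.P (T.H q), f x ∈ P a) := by
  classical
  have hends := fun a => exists_ends H F hR hLa hne hM hcore hε0 hε (hD a)
  choose K v₀ v₁ k1 k2 k3 k4 k5 k6 k7 k8 k9 using hends
  have hfin := fun j => (h.lev j).finite_P h3
  have hP : ∀ j, ∀ x, x ∈ (hfin j).toFinset ↔ x ∈ shS Om P b R f fam t j ∧ T.dim x ≤ 1 := by
    intro j x
    rw [Set.Finite.mem_toFinset]; rfl
  have hsupp : ∀ j, ∀ w ∈ shS Om P b R f fam t j, ∀ q, w ∈ Msh_715.P (T.H q) →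
      Msh_715.P (T.H q) ⊆ interior (D (fam j)) := by
    intro j w hw q hq
    refine tile_in_body H F hR hM hcore hε0 (hD (fam j)) hq ?_
    have h1 : va P b R f (fam j) w = t j := hw.2
    rw [h1]
    have := (ht j).2
    linarith
  have hmain : ∀ j, ∃ p ∈ (hfin j).toFinset,
      (∃ i, (Msh_715.P (T.H i) ∩ K (fam j)).Nonempty ∧ p ∈ Msh_715.P (T.H i)) ∧
      ∃ lam, FarL T (D (fam j)) (cls T (shS Om P b R f fam t j) (hfin j).toFinset p) lam ∧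
        lam (v₀ (fam j)) = 1 ∧ lam (v₁ (fam j)) = 0 := by
    intro j
    refine main_class h3 (h.lev j) (continuousOn_va H F hR (fam j)) (fun x hx hxt => ⟨hx, hxt⟩)
      (hP j) (hD (fam j)).cpt (hD (fam j)).sub (hD (fam j)).fr (hD (fam j)).triv (hsupp j)
      (v₀ := v₀ (fam j)) (v₁ := v₁ (fam j)) ?_ ?_ (k7 (fam j)) (k1 (fam j)) (k2 (fam j))
      (k3 (fam j)) (k4 (fam j))
    · have := k5 (fam j)
      have := (ht j).1
      linarith
    · have := k6 (fam j)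
      have := (ht j).2
      linarith
  choose bp hbp1 hbp2 lam hlam1 hlam2 hlam3 using hmain
  have hbS : ∀ j, bp j ∈ shS Om P b R f fam t j ∧ T.dim (bp j) ≤ 1 := fun j =>
    (hP j _).1 (hbp1 j)
  have hbd : ∀ j, T.dim (bp j) = 1 := fun j => by
    have h1 := (h.lev j).vert _ (hbS j).1
    have h2 := (hbS j).2
    omega
  have hgp : ∀ j, gPts (gmain (h.gst h3) bp) j =
      cls T (shS Om P b R f fam t j) (hfin j).toFinset (bp j) := fun j =>
    gmain_gPts h h3 hbS j (hP j)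
  have hfarL : ∀ j, FarL T (D (fam j)) (gPts (gmain (h.gst h3) bp) j) (lam j) := fun j => by
    rw [hgp j]; exact hlam1 j
  have hQin : ∀ {k : QK P} {c : I}, (quads H F hR hM hε hε1).In k c → c ∈ k.B :=
    fun h => (quads_in H F hR hM hε hε1).1 h
  refine ⟨bp, lam, v₀, v₁, ⟨fun j => (hD _).cpt, fun j => (hD _).sub,
    fun j => (hD _).fr, fun j => (hD _).triv, ?_, ?_, fun j => (hfarL j).lab, hlam2, hlam3,
    fun j => k7 (fam j), ?_⟩, hfarL, fun j => ?_, ?_, ?_, k9⟩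
  · -- tiles with points of the state
    rintro w hw q hq
    have h1 : w ∈ shS Om P b R f fam t ((gmain (h.gst h3) bp).lab w) := h.mem_lab hw.1
    exact hsupp _ w h1 q hq
  · -- active tiles
    rintro j k hk q ⟨-, x, hx, h1, -⟩
    refine tile_in_body H F hR hM hcore hε0 (hD (fam j)) hx ?_
    have := (h1 (fam j) (hQin hk)).2
    linarith
  · -- the rope
    intro j
    have hp := edg_VM (T := T) (k1 (fam j)) (k2 (fam j)) (k3 (fam j)) (k4 (fam j))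
    have hsub : {i | (Msh_715.P (T.H i) ∩ K (fam j)).Nonempty} ⊆
        {q | CFr (quads H F hR hM hε hε1) (fam j) q} := fun q hq k hk =>
      k8 (fam j) q hq k (hQin hk)
    exact ReflTransGen.mono (fun x y (hs : Edg T _ x y) => hs.mono hsub) _ _ hp
  · obtain ⟨i, hi, hpi⟩ := hbp2 j
    exact ⟨(hbS j).1, hbd j, i, hpi, fun k hk => k8 (fam j) i hi k hk⟩
  · intro a
    obtain ⟨g1, i, -, g2⟩ := k3 a
    exact ⟨T.sub i g2, g1, k5 a⟩
  · intro a
    obtain ⟨g1, i, -, g2⟩ := k4 a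
    exact ⟨T.sub i g2, g1, k6 a⟩

/-- **THE INITIAL STATE WITH INVARIANT AND LABELS.** Levels in `[s₀, 1 - s₀]`,
`ε < s₁ ≤ s' ≤ s₀ - ε`. -/
theorem exists_init_lab [Nonempty J] (H : Hm f g Om La) (F : Foam La P b 4) (hR : Ret La P R)
    (h3 : Module.finrank ℝ E = 3) (hV : Module.finrank ℝ V = 3) (hLa : IsPreconnected La)
    (hne : ∀ c, (P c).Nonempty) {T : Tiling Om ι} {Kor : Set ι} {ε : ℝ}
    (hM : Mesh0 T P b R f Kor ε) (hcore : ∀ q ∈ Kor, ∃ c, ∀ x ∈ Msh_715.P (T.H q), f x ∈ P c)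
    {s₁ s' s₀ : ℝ} (hε0 : 0 ≤ ε) (hε : ε < s₁) (hε1 : ε < 1)
    (hs' : s₁ ≤ s') (hs₀ : s' ≤ s₀ - ε) {fam : J → I} {t : J → ℝ}
    (ht : ∀ j, t j ∈ Icc s₀ (1 - s₀))
    (h : GFam T (fun j => va P b R f (fam j)) t (shS Om P b R f fam t) fam)
    {D : I → Set E} (hD : ∀ a, Body Om f P a (D a))
    (hleaf : ∀ j (k : QK P), fam j ∈ k.B → ∀ q ∈ Kor,
      (strip Om P b R f s' (fam j) (t j) k ∩ Msh_715.P (T.H q)).Nonempty →
      h.Leaf h3 j (strip Om P b R f s' (fam j) (t j) k) q) :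
    ∃ (bp : J → E) (far : J → Set E) (lam₀ : J → E → ZMod 2) (v₀ v₁ : I → E),
      (gmain (h.gst h3) bp).Inv (quads H F hR hM hε hε1) far ∧ (∀ j, bp j ∈ far j) ∧
      LabIn (quads H F hR hM hε hε1) (gmain (h.gst h3) bp) D lam₀ v₀ v₁ ∧
      (∀ j, FarL T (D (fam j)) (gPts (gmain (h.gst h3) bp) j) (lam₀ j)) ∧
      (∀ j, bp j ∈ shS Om P b R f fam t j ∧ T.dim (bp j) = 1) ∧
      (∀ a, v₀ a ∈ Om ∧ T.dim (v₀ a) = 0 ∧ va P b R f a (v₀ a) ≤ ε) ∧
      (∀ a, v₁ a ∈ Om ∧ T.dim (v₁ a) = 0 ∧ 1 - ε ≤ va P b R f a (v₁ a)) := by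
  obtain ⟨bp, lam₀, v₀, v₁, h1, h2, h4, h5, h6, -⟩ := exists_lab H F hR h3 hLa hne hM hcore
    hε0 hε hε1 (by linarith : ε < s₀) ht h hD
  obtain ⟨far, hI, hfar⟩ := exists_init H F hR h3 hV hM hε0 hε hε1 hs' hs₀ ht h (bp := bp) h4
    hleaf
  exact ⟨bp, far, lam₀, v₀, v₁, hI, hfar, h1, h2, fun j => ⟨(h4 j).1, (h4 j).2.1⟩, h5, h6⟩

end init

end Crest.Agent.R096.Init_543
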