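import Mathlib
import Crest.Agent.R096.Init4_543

/-! # INIT 5 (row 96, helper543): forests of chords on a tile (`Leaf`) -/

set_option autoImplicit false
set_option linter.unusedSectionVars false

open Set Filter Topology Metric

namespace Crest.Agent.R096.Init_543

open Crest.Agent.R096.Coh_184 Crest.Agent.R096.Msh_715 Crest.Agent.R096.Agl4_543
  Crest.Agent.R096.Agl5_543 Crest.Agent.R096.Agl6_543 Crest.Agent.R096.Ginv_543
  Crest.Agent.R096.Pat5_543

/-! ### a graph lemma -/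

/-- **Duality.** `W` with two flags at each point, `inv` the partner of a flag; if there is no
nonzero even set of chords inside `A`, every symmetric function is exact on the chords in `A`. -/
theorem exact_of_noCycle {W : Type} [Fintype W] [DecidableEq W] (inv : W × Bool → W × Bool)
    (hinv : ∀ p, inv (inv p) = p) (hne : ∀ p, (inv p).1 ≠ p.1) (A : Set (W × Bool))
    (hA : ∀ d : W × Bool → ZMod 2, (∀ p, d (inv p) = d p) → (∀ p, p ∉ A → d p = 0) →
      (∀ w, d (w, true) = d (w, false)) → ∀ p, d p = 0)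
    (hAs : ∀ p, p ∈ A → inv p ∈ A)
    (κ : W × Bool → ZMod 2) (hκ : ∀ p, κ (inv p) = κ p) :
    ∃ ψ : W → ZMod 2, ∀ p ∈ A, κ p = ψ p.1 + ψ (inv p).1 := by
  classical
  let U : Submodule (ZMod 2) (W × Bool → ZMod 2) :=
    { carrier := {κ | ∃ ψ : W → ZMod 2, ∀ p ∈ A, κ p = ψ p.1 + ψ (inv p).1}
      add_mem' := by
        rintro a b ⟨ψ, h1⟩ ⟨ψ', h2⟩
        refine ⟨ψ + ψ', fun p hp => ?_⟩
        simp only [Pi.add_apply, h1 p hp, h2 p hp]
        ring
      zero_mem' := ⟨0, fun p _ => by simp⟩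
      smul_mem' := by
        rintro c a ⟨ψ, h1⟩
        refine ⟨c • ψ, fun p hp => ?_⟩
        simp only [Pi.smul_apply, h1 p hp, smul_eq_mul]
        ring }
  by_contra hcon
  have hn : κ ∉ U := fun h => hcon h
  obtain ⟨φ, hφκ, hφU⟩ := Submodule.exists_le_ker_of_notMem hn
  -- the coefficients
  let c : W × Bool → ZMod 2 := fun p => φ (Pi.single p 1)
  have hφ : ∀ x : W × Bool → ZMod 2, φ x = ∑ p, x p * c p := by
    intro x
    have e1 : x = ∑ p, x p • Pi.single p (1 : ZMod 2) := by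
      funext q
      simp [Finset.sum_apply, Pi.single_apply]
    conv_lhs => rw [e1]
    rw [map_sum]
    exact Finset.sum_congr rfl fun p _ => by rw [map_smul, smul_eq_mul]
  have hφ0 : ∀ x ∈ U, ∑ p, x p * c p = 0 := by
    intro x hx
    rw [← hφ x]
    exact hφU hx
  have hc0 : ∀ p, p ∉ A → c p = 0 := by
    intro p hp
    have h1 : (Pi.single p (1 : ZMod 2) : W × Bool → ZMod 2) ∈ U := by
      refine ⟨0, fun q hq => ?_⟩
      have : q ≠ p := fun e => hp (e ▸ hq)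
      simp [this]
    have h2 := hφU h1
    exact h2
  let E : (W × Bool) ≃ (W × Bool) := ⟨inv, inv, hinv, hinv⟩
  let d : W × Bool → ZMod 2 := fun p => c p + c (inv p)
  have hd1 : ∀ p, d (inv p) = d p := by
    intro p
    show c (inv p) + c (inv (inv p)) = c p + c (inv p)
    rw [hinv, add_comm]
  have hd2 : ∀ p, p ∉ A → d p = 0 := by
    intro p hp
    have h1 : inv p ∉ A := fun h => hp (by have := hAs _ h; rwa [hinv] at this)
    show c p + c (inv p) = 0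
    rw [hc0 p hp, hc0 _ h1, add_zero]
  have hd3 : ∀ w, d (w, true) = d (w, false) := by
    intro w
    have h1 : (fun p : W × Bool => (if p.1 = w then (1 : ZMod 2) else 0) +
        (if (inv p).1 = w then 1 else 0)) ∈ U :=
      ⟨fun v => if v = w then 1 else 0, fun p _ => rfl⟩
    have h2 := hφ0 _ h1
    have h3 : ∑ p : W × Bool, ((if p.1 = w then (1 : ZMod 2) else 0) +
        (if (inv p).1 = w then 1 else 0)) * c p =
        ∑ p : W × Bool, (if p.1 = w then (1 : ZMod 2) else 0) * d p := by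
      have h4 : ∑ p : W × Bool, (if (inv p).1 = w then (1 : ZMod 2) else 0) * c p =
          ∑ p : W × Bool, (if p.1 = w then (1 : ZMod 2) else 0) * c (inv p) := by
        rw [← Equiv.sum_comp E]
        refine Finset.sum_congr rfl fun p _ => ?_
        show (if (inv (inv p)).1 = w then (1 : ZMod 2) else 0) * c (inv p) = _
        rw [hinv]
      simp only [add_mul, Finset.sum_add_distrib]
      rw [h4, ← Finset.sum_add_distrib]
      exact Finset.sum_congr rfl fun p _ => by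
        show _ = (if p.1 = w then (1 : ZMod 2) else 0) * (c p + c (inv p))
        ring
    rw [h3, Fintype.sum_prod_type] at h2
    have h5 : ∀ v : W, ∑ β : Bool, (if (v, β).1 = w then (1 : ZMod 2) else 0) * d (v, β) =
        if v = w then d (v, true) + d (v, false) else 0 := by
      intro v
      simp only [Fintype.sum_bool]
      by_cases hv : v = w
      · simp [hv]
      · simp [hv]
    rw [Finset.sum_congr rfl fun v _ => h5 v, Finset.sum_ite_eq' Finset.univ w] at h2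
    simp only [Finset.mem_univ, if_true] at h2
    exact CharTwo.add_eq_zero.1 h2
  have hd := hA d hd1 hd2 hd3
  have hcs : ∀ p, c (inv p) = c p := fun p => (CharTwo.add_eq_zero.1 (hd p)).symm
  apply hφκ
  rw [hφ κ]
  refine Finset.sum_involution (fun p _ => inv p) (fun p _ => ?_) (fun p _ _ h => hne p ?_)
    (fun p _ => Finset.mem_univ _) (fun p _ => hinv p)
  · rw [hκ, hcs]
    exact CharTwo.add_self_eq_zero _
  · rw [h]

/-- a height function: every point of a chord of `A` has a partner which is higher -/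
theorem exact_of_height {W : Type} [Fintype W] [DecidableEq W] (inv : W × Bool → W × Bool)
    (hinv : ∀ p, inv (inv p) = p) (hne : ∀ p, (inv p).1 ≠ p.1) (A : Set (W × Bool))
    (hAs : ∀ p, p ∈ A → inv p ∈ A) (φ : W → ℝ)
    (hφ : ∀ w, (∃ β, (w, β) ∈ A) → ∃ β, φ w < φ (inv (w, β)).1)
    (κ : W × Bool → ZMod 2) (hκ : ∀ p, κ (inv p) = κ p) :
    ∃ ψ : W → ZMod 2, ∀ p ∈ A, κ p = ψ p.1 + ψ (inv p).1 := by
  classical
  refine exact_of_noCycle inv hinv hne A ?_ hAs κ hκ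
  intro d h1 h2 h3
  by_contra hcon
  push Not at hcon
  obtain ⟨p0, hp0⟩ := hcon
  have hb : ∀ (w : W) (β : Bool), d (w, β) = d (w, true) := by
    intro w β
    cases β
    · exact (h3 w).symm
    · rfl
  have hne0 : (Finset.univ.filter fun w : W => d (w, true) ≠ 0).Nonempty :=
    ⟨p0.1, Finset.mem_filter.2 ⟨Finset.mem_univ _, by rw [← hb p0.1 p0.2]; exact hp0⟩⟩
  obtain ⟨w, hw, hmax⟩ := Finset.exists_max_image _ φ hne0
  have hw' := (Finset.mem_filter.1 hw).2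
  have hwA : (w, true) ∈ A := by
    by_contra h
    exact hw' (h2 _ h)
  obtain ⟨β, hβ⟩ := hφ w ⟨true, hwA⟩
  have h4 : d (inv (w, β)) ≠ 0 := by rw [h1, hb]; exact hw'
  have h5 : (inv (w, β)).1 ∈ Finset.univ.filter fun w : W => d (w, true) ≠ 0 := by
    refine Finset.mem_filter.2 ⟨Finset.mem_univ _, ?_⟩
    have : d ((inv (w, β)).1, (inv (w, β)).2) ≠ 0 := h4
    rwa [hb] at this
  exact absurd (hmax _ h5) (not_le.2 hβ)

/-- connected chords and a point outside -/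
theorem exact_of_conn {W : Type} [Fintype W] [DecidableEq W] (inv : W × Bool → W × Bool)
    (hinv : ∀ p, inv (inv p) = p) (hne : ∀ p, (inv p).1 ≠ p.1) (A : Set (W × Bool))
    (hAs : ∀ p, p ∈ A → inv p ∈ A)
    (hconn : ∀ X : Set W, (∀ p : W × Bool, p.1 ∈ X → (inv p).1 ∈ X) → ∀ w w', w ∈ X → w' ∈ X)
    (w0 : W) (h0 : ∀ β, (w0, β) ∉ A)
    (κ : W × Bool → ZMod 2) (hκ : ∀ p, κ (inv p) = κ p) :
    ∃ ψ : W → ZMod 2, ∀ p ∈ A, κ p = ψ p.1 + ψ (inv p).1 := by
  classical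
  refine exact_of_noCycle inv hinv hne A ?_ hAs κ hκ
  intro d h1 h2 h3 p
  have hb : ∀ (w : W) (β : Bool), d (w, β) = d (w, true) := by
    intro w β
    cases β
    · exact (h3 w).symm
    · rfl
  have h4 := hconn {w | d (w, true) = 0} (fun p hp => by
    have h5 : d p = 0 := by
      have : d (p.1, p.2) = 0 := by rw [hb]; exact hp
      exact this
    have h6 : d ((inv p).1, (inv p).2) = 0 := by
      have := h1 p
      rw [h5] at this
      exact this
    show d ((inv p).1, true) = 0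
    rwa [hb] at h6) w0 p.1 (h2 _ (h0 true))
  have h7 : d (p.1, true) = 0 := h4
  have : d (p.1, p.2) = 0 := by rw [hb]; exact h7
  exact this

/-! ### chords on a tile -/

variable {E : Type} [NormedAddCommGroup E] [NormedSpace ℝ E] [FiniteDimensional ℝ E]
variable {Om : Set E} {ι : Type} {T : Tiling Om ι}
variable {J C : Type} {u : J → E → ℝ} {c : J → ℝ} {S : J → Set E} {fam : J → C}

/-- the two faces of the tile `q` through a point of an open edge -/
theorem exists_faces (h3 : Module.finrank ℝ E = 3) {w : E} (hw : w ∈ Om) (hd : T.dim w = 1) {q : ι}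
    (hq : w ∈ Msh_715.P (T.H q)) :
    ∃ fc : Bool → C2 T, (∀ β, q ∈ (fc β).side h3 ∧ w ∈ (fc β).On) ∧ fc true ≠ fc false ∧
      ∀ F : C2 T, q ∈ F.side h3 → w ∈ F.On → ∃ β, F = fc β := by
  obtain ⟨x₁, hx1, x₂, hx2, hd1, hd2, hq1, hq2, hw1, hw2, hne, huniq⟩ :=
    Agl3_543.two_cells T h3 hw hd (show q ∈ T.at_ w from hq)
  have hside : ∀ {x : E} (hx : x ∈ Om) (hdx : T.dim x = 2), q ∈ T.at_ x →
      q ∈ (mk2 T hx hdx).side h3 := by
    intro x hx hdx hqx
    rw [C2.mem_side]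
    have h5 : (mk2 T hx hdx).pt ∈ T.oc x := T.pt_cl hx
    rw [T.at_eq_of_mem_oc hx h5]
    exact hqx
  refine ⟨fun β => if β then mk2 T hx1 hd1 else mk2 T hx2 hd2, ?_, ?_, ?_⟩
  · intro β
    cases β
    · exact ⟨hside hx2 hd2 hq2, hw2, hd⟩
    · exact ⟨hside hx1 hd1 hq1, hw1, hd⟩
  · intro h
    apply hne
    have h' : mk2 T hx1 hd1 = mk2 T hx2 hd2 := by simpa using h
    have := congrArg C2.set h'
    exact this
  · intro F hF hwF
    have h6 : q ∈ T.at_ F.pt := C2.mem_side.1 hF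
    have h7 : w ∈ T.cc F.pt := by rw [← F.set_eq]; exact hwF.1
    rcases huniq F.pt F.pt_mem F.dim_pt h6 h7 with h | h
    · exact ⟨true, by
        have : F = mk2 T hx1 hd1 := C2.ext (by rw [F.set_eq, h, mk2_set])
        simpa using this⟩
    · exact ⟨false, by
        have : F = mk2 T hx2 hd2 := C2.ext (by rw [F.set_eq, h, mk2_set])
        simpa using this⟩

/-- reduction of `Leaf` to the graph of chords on the tile `q` -/
theorem leaf_aux [Nonempty J] (h : GFam T u c S fam) (h3 : Module.finrank ℝ E = 3) (i : J)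
    {S' : Set E} {q : ι}
    (hG : ∀ (W : Type) [Fintype W] [DecidableEq W] (pt : W → E) (fc : W → Bool → C2 T)
      (inv : W × Bool → W × Bool), Function.Injective pt →
      (∀ w, pt w ∈ S i ∧ T.dim (pt w) = 1 ∧ pt w ∈ Msh_715.P (T.H q)) →
      (∀ x, x ∈ S i → T.dim x = 1 → x ∈ Msh_715.P (T.H q) → ∃ w, pt w = x) →
      (∀ w β, q ∈ (fc w β).side h3 ∧ pt w ∈ (fc w β).On) →
      (∀ w, fc w true ≠ fc w false) →
      (∀ w (F : C2 T), q ∈ F.side h3 → pt w ∈ F.On → ∃ β, F = fc w β) →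
      (∀ p : W × Bool, pt (inv p).1 = h.mu h3 (fc p.1 p.2) (pt p.1) ∧
        fc (inv p).1 (inv p).2 = fc p.1 p.2) →
      (∀ p, inv (inv p) = p) → (∀ p, (inv p).1 ≠ p.1) →
      ∀ κ : W × Bool → ZMod 2, (∀ p, κ (inv p) = κ p) →
      ∃ ψ : W → ZMod 2, ∀ p : W × Bool, pt p.1 ∈ S' → pt (inv p).1 ∈ S' →
        κ p = ψ p.1 + ψ (inv p).1) :
    h.Leaf h3 i S' q := by
  classical
  intro κ hκ
  have hfin : {x | x ∈ S i ∧ T.dim x = 1 ∧ x ∈ Msh_715.P (T.H q)}.Finite :=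
    ((h.lev i).finite_P h3).subset fun x hx => ⟨hx.1, hx.2.1.le⟩
  let W : Type := {x | x ∈ S i ∧ T.dim x = 1 ∧ x ∈ Msh_715.P (T.H q)}
  have _ : Fintype W := hfin.fintype
  have hO : ∀ w : W, w.1 ∈ Om := fun w => (h.lev i).sub w.2.1
  have hpts : ∀ w : W, w.1 ∈ h.pts ∧ labf S w.1 = i := fun w =>
    (h.mem_pts_iff (w := w.1)).2 ⟨w.2.1, w.2.2.1.le⟩
  choose fc f1 f2 f3 using fun w : W => exists_faces (T := T) h3 (hO w) w.2.2.1 w.2.2.2
  -- the partner
  have hmem : ∀ p : W × Bool, h.mu h3 (fc p.1 p.2) p.1.1 ∈ S i ∧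
      T.dim (h.mu h3 (fc p.1 p.2) p.1.1) = 1 ∧
      h.mu h3 (fc p.1 p.2) p.1.1 ∈ Msh_715.P (T.H q) := by
    intro p
    have hs := (h.mu_spec h3 (hpts p.1).1 (f1 p.1 p.2).2).1
    rw [(hpts p.1).2] at hs
    exact ⟨hs.2.1.1, hs.2.1.2.2, C2.sub_tile (h3 := h3) (f1 p.1 p.2).1 hs.2.1.2.1⟩
  have hmuOn : ∀ p : W × Bool, h.mu h3 (fc p.1 p.2) p.1.1 ∈ (fc p.1 p.2).On := fun p =>
    (h.mu_spec h3 (hpts p.1).1 (f1 p.1 p.2).2).1.2.1.2
  choose β' hβ' using fun p : W × Bool =>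
    f3 ⟨h.mu h3 (fc p.1 p.2) p.1.1, hmem p⟩ (fc p.1 p.2) (f1 p.1 p.2).1 (hmuOn p)
  let inv : W × Bool → W × Bool := fun p => (⟨h.mu h3 (fc p.1 p.2) p.1.1, hmem p⟩, β' p)
  have hinv1 : ∀ p : W × Bool, ((inv p).1 : E) = h.mu h3 (fc p.1 p.2) p.1.1 := fun p => rfl
  have hinv2 : ∀ p : W × Bool, fc (inv p).1 (inv p).2 = fc p.1 p.2 := fun p => (hβ' p).symm
  have hinv : ∀ p, inv (inv p) = p := by
    intro p
    have e1 : (inv (inv p)).1 = p.1 := by
      apply Subtype.ext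
      rw [hinv1, hinv2, hinv1]
      exact h.mu_mu h3 (hpts p.1).1 (f1 p.1 p.2).2
    have e2 : fc p.1 (inv (inv p)).2 = fc p.1 p.2 := by
      have := hinv2 (inv p)
      rw [e1, hinv2 p] at this
      exact this
    have e3 : (inv (inv p)).2 = p.2 := by
      have h4 := f2 p.1
      rcases hb : (inv (inv p)).2 with _ | _ <;> rcases hc : p.2 with _ | _
      · rfl
      · rw [hb, hc] at e2; exact (h4 e2.symm).elim
      · rw [hb, hc] at e2; exact (h4 e2).elim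
      · rfl
    exact Prod.ext e1 e3
  have hne : ∀ p, (inv p).1 ≠ p.1 := by
    intro p he
    have h4 := (h.mu_spec h3 (hpts p.1).1 (f1 p.1 p.2).2).1.1
    exact h4 (congrArg Subtype.val he)
  obtain ⟨ψ, hψ⟩ := hG W (fun w => w.1) fc inv Subtype.val_injective (fun w => w.2)
    (fun x h1 h2 h4 => ⟨⟨x, h1, h2, h4⟩, rfl⟩) f1 f2 f3 (fun p => ⟨rfl, hinv2 p⟩) hinv hne
    (fun p => κ (fc p.1 p.2) p.1.1) (fun p => by
      show κ (fc (inv p).1 (inv p).2) (inv p).1.1 = κ (fc p.1 p.2) p.1.1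
      rw [hinv2, hinv1]
      exact hκ _ _ (hpts p.1).1 (f1 p.1 p.2).2 (hpts p.1).2)
  refine ⟨fun x => if hx : x ∈ S i ∧ T.dim x = 1 ∧ x ∈ Msh_715.P (T.H q) then ψ ⟨x, hx⟩ else 0,
    fun F w hqF hw hF hi hmu => ?_⟩
  have hwS : w ∈ S i := by
    have := h.mem_lab hw
    rwa [hi] at this
  have hwW : w ∈ S i ∧ T.dim w = 1 ∧ w ∈ Msh_715.P (T.H q) :=
    ⟨hwS, hF.2, C2.sub_tile (h3 := h3) hqF hF.1⟩
  obtain ⟨β, hβ⟩ := f3 ⟨w, hwW⟩ F hqF hF
  have hmW := hmem (⟨w, hwW⟩, β)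
  have e1 : h.mu h3 (fc ⟨w, hwW⟩ β) w = h.mu h3 F w := by rw [hβ]
  have hwS' : w ∈ S' := by
    by_contra hn
    have : connectedComponentIn (S' ∩ F.set) w = ∅ :=
      connectedComponentIn_eq_empty fun h => hn h.1
    rw [this] at hmu
    exact hmu
  have hmS' : h.mu h3 F w ∈ S' := (connectedComponentIn_subset _ _ hmu).1
  have h5 := hψ (⟨w, hwW⟩, β) hwS' (by
    show h.mu h3 (fc ⟨w, hwW⟩ β) w ∈ S'
    rw [e1]; exact hmS')
  have hmW' : h.mu h3 F w ∈ S i ∧ T.dim (h.mu h3 F w) = 1 ∧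
      h.mu h3 F w ∈ Msh_715.P (T.H q) := by
    rw [← e1]; exact hmW
  beta_reduce
  rw [dif_pos hwW, dif_pos hmW']
  have e2 : (inv (⟨w, hwW⟩, β)).1 = ⟨h.mu h3 F w, hmW'⟩ := Subtype.ext e1
  rw [e2] at h5
  rw [← h5]
  show κ F w = κ (fc ⟨w, hwW⟩ β) w
  rw [hβ]

/-- **LEAF from a height function** on the points of the sheet on the tile: every point in `S'` has
a partner which is higher. -/
theorem leaf_of_height [Nonempty J] (h : GFam T u c S fam) (h3 : Module.finrank ℝ E = 3) (i : J)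
    {S' : Set E} {q : ι} (φ : E → ℝ)
    (hφ : ∀ w ∈ S i, T.dim w = 1 → w ∈ Msh_715.P (T.H q) → w ∈ S' →
      ∃ F : C2 T, q ∈ F.side h3 ∧ w ∈ F.On ∧ φ w < φ (h.mu h3 F w)) :
    h.Leaf h3 i S' q := by
  classical
  refine leaf_aux h h3 i ?_
  intro W _ _ pt fc inv hpi hp1 hp2 hfc hfne hfu hi1 hinv hne κ hκ
  obtain ⟨ψ, hψ⟩ := exact_of_height inv hinv hne {p | pt p.1 ∈ S' ∧ pt (inv p).1 ∈ S'}
    (fun p hp => ⟨hp.2, by rw [hinv]; exact hp.1⟩) (fun w => φ (pt w)) (by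
      rintro w ⟨β, hβ, -⟩
      obtain ⟨F, h4, h5, h6⟩ := hφ (pt w) (hp1 w).1 (hp1 w).2.1 (hp1 w).2.2 hβ
      obtain ⟨β', hβ'⟩ := hfu w F h4 h5
      refine ⟨β', ?_⟩
      show φ (pt w) < φ (pt (inv (w, β')).1)
      rw [(hi1 (w, β')).1, ← hβ']
      exact h6) κ hκ
  exact ⟨ψ, fun p h1 h2 => hψ p ⟨h1, h2⟩⟩

/-- **LEAF from one cycle** and a point outside `S'` -/
theorem leaf_of_conn [Nonempty J] (h : GFam T u c S fam) (h3 : Module.finrank ℝ E = 3) (i : J)
    {S' : Set E} {q : ι}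
    (hconn : ∀ X : Set E, (∀ (F : C2 T) (w : E), q ∈ F.side h3 → w ∈ S i → w ∈ F.On → w ∈ X →
      h.mu h3 F w ∈ X) → ∀ w w', w ∈ S i → T.dim w = 1 → w ∈ Msh_715.P (T.H q) →
      w' ∈ S i → T.dim w' = 1 → w' ∈ Msh_715.P (T.H q) → w ∈ X → w' ∈ X)
    {w₀ : E} (h0 : w₀ ∈ S i) (hd0 : T.dim w₀ = 1) (hq0 : w₀ ∈ Msh_715.P (T.H q))
    (hS' : w₀ ∉ S') : h.Leaf h3 i S' q := by
  classical
  refine leaf_aux h h3 i ?_
  intro W _ _ pt fc inv hpi hp1 hp2 hfc hfne hfu hi1 hinv hne κ hκ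
  obtain ⟨v0, hv0⟩ := hp2 w₀ h0 hd0 hq0
  obtain ⟨ψ, hψ⟩ := exact_of_conn inv hinv hne {p | pt p.1 ∈ S' ∧ pt (inv p).1 ∈ S'}
    (fun p hp => ⟨hp.2, by rw [hinv]; exact hp.1⟩) (by
      intro X hX w w' hwX
      have h5 := hconn (pt '' X) (by
        rintro F _ hqF - hF ⟨v, hv, rfl⟩
        obtain ⟨β, hβ⟩ := hfu v F hqF hF
        refine ⟨(inv (v, β)).1, hX (v, β) hv, ?_⟩
        rw [(hi1 (v, β)).1, ← hβ]) (pt w) (pt w') (hp1 w).1 (hp1 w).2.1 (hp1 w).2.2
        (hp1 w').1 (hp1 w').2.1 (hp1 w').2.2 ⟨w, hwX, rfl⟩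
      obtain ⟨v, hv, he⟩ := h5
      rwa [hpi he] at hv) v0 (by
      rintro β ⟨h5, -⟩
      rw [hv0] at h5
      exact hS' h5) κ hκ
  exact ⟨ψ, fun p h1 h2 => hψ p ⟨h1, h2⟩⟩

end Crest.Agent.R096.Init_543
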