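import Crest.Agent.R096.Vb1_965

/-! Row 96, P1-TRIV (helper965), part 2: compact convex sets of any finite-dimensional space,
preimages under maps with convex fibres (the collapse `θ` of Theorem C), cones over a point. -/

set_option autoImplicit false

open Set Topology Filter

namespace Crest.Agent.R096.Vb_965

open Crest.Agent.R096.Coh_184

variable {ι A : Type*} [AddCommGroup A]

/-- compact convex sets in a finite-dimensional space -/
theorem trivAll_convex' [Finite ι] {V : Type*} [NormedAddCommGroup V] [NormedSpace ℝ V]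
    [FiniteDimensional ℝ V] {S : Set V} (hS : IsCompact S) (hconv : Convex ℝ S) :
    TrivAll ι A S := by
  let e : V ≃L[ℝ] (Fin (Module.finrank ℝ V) → ℝ) := ContinuousLinearEquiv.ofFinrankEq (by simp)
  have h1 : IsCompact (e '' S) := hS.image e.continuous
  have h2 : Convex ℝ (e '' S) := hconv.linear_image e.toLinearEquiv.toLinearMap
  have h3 : TrivAll ι A (e '' S) := trivAll_convex h1 h2
  have h4 := h3.of_image_compact (g := e.symm) h1 h1.isClosed e.symm.continuous.continuousOn
    e.symm.injective.injOn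
  have h5 : e.symm '' (e '' S) = S := by
    rw [← image_comp]
    simp
  rwa [h5] at h4

/-- preimage of a compact set under a continuous map with compact convex fibres -/
theorem trivAll_preimage [Finite ι] {V Z : Type*} [NormedAddCommGroup V] [NormedSpace ℝ V]
    [FiniteDimensional ℝ V] [MetricSpace Z] {th : V → Z} {T : Set Z}
    (hcomp : IsCompact (th ⁻¹' T)) (hth : ContinuousOn th (th ⁻¹' T))
    (hne : ∀ p ∈ T, (th ⁻¹' {p}).Nonempty) (hconv : ∀ p ∈ T, Convex ℝ (th ⁻¹' {p}))
    (hT : ∀ n : ℕ, TrivAll (Fin n) A T) : TrivAll ι A (th ⁻¹' T) := by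
  have hfib : ∀ z ∈ T, th ⁻¹' T ∩ th ⁻¹' {z} = th ⁻¹' {z} := by
    intro z hz
    refine inter_eq_right.2 fun x hx => ?_
    have : th x = z := hx
    show th x ∈ T
    rw [this]; exact hz
  refine TrivAll.of_fibres hcomp hcomp.isClosed hth ?_ ?_ ?_ hT
  · ext z
    constructor
    · rintro ⟨x, hx, rfl⟩; exact hx
    · intro hz
      obtain ⟨x, hx⟩ := hne z hz
      have hx' : th x = z := hx
      exact ⟨x, by show th x ∈ T; rw [hx']; exact hz, hx'⟩
  · intro z hz
    rw [hfib z hz]
    exact (hconv z hz).isPreconnected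
  · intro z hz
    rw [hfib z hz]
    refine trivAll_convex' ?_ (hconv z hz)
    rw [← hfib z hz]
    exact hcomp.of_isClosed_subset (hth.preimage_isClosed_of_isClosed hcomp.isClosed
      isClosed_singleton) inter_subset_left

/-- the exact sheet: `g` (= `f⁻¹`) continuous and injective on `θ⁻¹ T` -/
theorem trivAll_sheet [Finite ι] {V Z X : Type*} [NormedAddCommGroup V] [NormedSpace ℝ V]
    [FiniteDimensional ℝ V] [MetricSpace Z] [TopologicalSpace X] [T2Space X] {th : V → Z}
    {T : Set Z} (hcomp : IsCompact (th ⁻¹' T)) (hth : ContinuousOn th (th ⁻¹' T))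
    (hne : ∀ p ∈ T, (th ⁻¹' {p}).Nonempty) (hconv : ∀ p ∈ T, Convex ℝ (th ⁻¹' {p}))
    (hT : ∀ n : ℕ, TrivAll (Fin n) A T) {g : V → X} (hg : ContinuousOn g (th ⁻¹' T))
    (hinj : InjOn g (th ⁻¹' T)) : TrivAll ι A (g '' (th ⁻¹' T)) :=
  (trivAll_preimage hcomp hth hne hconv hT).of_image_compact hcomp hcomp.isClosed hg hinj

/-- the boundary of a compact convex body in `ℝ³` is a 2-sphere -/
theorem trivAll_frontier [Finite ι] {K : Set (EuclideanSpace ℝ (Fin 3))} (hK : IsCompact K)
    (hconv : Convex ℝ K) (hint : (interior K).Nonempty) : TrivAll ι A (frontier K) := by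
  classical
  obtain ⟨x0, hx0⟩ := hint
  -- translate to the origin
  let K0 : Set (EuclideanSpace ℝ (Fin 3)) := (Homeomorph.addLeft (-x0)) '' K
  have hK0 : IsCompact K0 := hK.image (Homeomorph.addLeft (-x0)).continuous
  have hK0c : Convex ℝ K0 := by
    have : K0 = (fun x => -x0 + x) '' K := rfl
    rw [this]
    exact hconv.translate (-x0)
  have h0 : (0 : EuclideanSpace ℝ (Fin 3)) ∈ interior K0 := by
    have h1 : interior K0 = (Homeomorph.addLeft (-x0)) '' interior K :=
      ((Homeomorph.addLeft (-x0)).image_interior K).symm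
    rw [h1]
    exact ⟨x0, hx0, by simp⟩
  obtain ⟨e, he1, he2, he3⟩ := exists_homeomorph_image_interior_closure_frontier_eq_unitBall
    hK0c ⟨0, h0⟩ hK0.isBounded
  have h4 : frontier K0 = e.symm '' Metric.sphere 0 1 := by
    rw [← he3, ← image_comp]; simp
  have h5 : frontier K0 = (Homeomorph.addLeft (-x0)) '' frontier K :=
    ((Homeomorph.addLeft (-x0)).image_frontier K).symm
  have h6 : frontier K = (Homeomorph.addLeft (-x0)).symm '' (e.symm '' Metric.sphere 0 1) := by
    rw [← h4, h5, ← image_comp]
    have : ((Homeomorph.addLeft (-x0)).symm ∘ (Homeomorph.addLeft (-x0)) :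
        EuclideanSpace ℝ (Fin 3) → EuclideanSpace ℝ (Fin 3)) = id := by
      funext a; exact (Homeomorph.addLeft (-x0)).symm_apply_apply a
    rw [this, image_id]
  rw [h6, ← image_comp]
  have hs : IsCompact (Metric.sphere (0 : EuclideanSpace ℝ (Fin 3)) 1) := isCompact_sphere 0 1
  exact trivAll_sphere.of_image_compact hs hs.isClosed
    ((Homeomorph.addLeft (-x0)).symm.continuous.comp e.symm.continuous).continuousOn
    ((Homeomorph.addLeft (-x0)).symm.injective.comp e.symm.injective).injOn

end Crest.Agent.R096.Vb_965
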