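import Mathlib
import Crest.Agent.R096.Init2_543
import Crest.Agent.R096.Vb2_965

/-! # INIT 6 (row 96, helper543): the monotone retraction of a foam given by rays in the cells -/

set_option autoImplicit false
set_option linter.unusedSectionVars false

open Set Filter Topology Metric

namespace Crest.Agent.R096.Init_543

open Crest.Agent.R096.Brk1_582 Crest.Agent.R096.Brk2_582 Crest.Agent.R096.Coh_184
  Crest.Agent.R096.Vb_965

variable {V : Type*} [NormedAddCommGroup V] [NormedSpace ℝ V] [FiniteDimensional ℝ V] {I : Type*}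
variable {La : Set V} {P : I → Set V} {b : Set I → V} {N : ℕ}

/-- the points of the cell `c` which lie in another cell -/
def Bd (P : I → Set V) (c : I) : Set V := {y | y ∈ P c ∧ ∃ c', c' ≠ c ∧ y ∈ P c'}

/-- rays in the cells: `Ho c` the hole, `pu c` the push onto the boundary, `rad c` the radius,
`ray c` the rays. -/
structure Rays (P : I → Set V) (Ho : I → Set V) (pu : I → V → V) (rad : I → V → ℝ)
    (ray : I → V → ℝ → V) : Prop where
  hne : ∀ c, (P c).Nonempty → (Ho c).Nonempty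
  hcp : ∀ c, IsCompact (Ho c)
  hcv : ∀ c, Convex ℝ (Ho c)
  hin : ∀ c, ∀ y ∈ Ho c, y ∈ P c ∧ y ∉ Bd P c
  crad : ∀ c, ContinuousOn (rad c) (P c)
  cpu : ∀ c, ContinuousOn (pu c) (P c \ Ho c)
  cray : ∀ c, ∀ g ∈ Bd P c, ContinuousOn (ray c g) (Ioc 0 1)
  ray_one : ∀ c, ∀ g ∈ Bd P c, ray c g 1 = g
  ray_mem : ∀ c, ∀ g ∈ Bd P c, ∀ r ∈ Ioc (0 : ℝ) 1, ray c g r ∈ P c \ Ho c
  pu_ray : ∀ c, ∀ g ∈ Bd P c, ∀ r ∈ Ioc (0 : ℝ) 1, pu c (ray c g r) = g
  rad_ray : ∀ c, ∀ g ∈ Bd P c, ∀ r ∈ Ioc (0 : ℝ) 1, rad c (ray c g r) = r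
  pu_mem : ∀ c, ∀ y ∈ P c \ Ho c, pu c y ∈ Bd P c
  rad_mem : ∀ c, ∀ y ∈ P c \ Ho c, rad c y ∈ Ioc (0 : ℝ) 1
  ray_pu : ∀ c, ∀ y ∈ P c \ Ho c, ray c (pu c y) (rad c y) = y
  rad_hole : ∀ c, ∀ y ∈ Ho c, rad c y ≤ 0

/-- the cut-off -/
noncomputable def cut (r₀ r : ℝ) : ℝ := max 0 (min 1 (1 - r / r₀))

theorem continuous_cut (r₀ : ℝ) : Continuous (cut r₀) := by
  unfold cut; fun_prop

theorem cut_nonneg (r₀ r : ℝ) : 0 ≤ cut r₀ r := le_max_left _ _

theorem cut_le_one (r₀ r : ℝ) : cut r₀ r ≤ 1 := max_le zero_le_one (min_le_left _ _)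

theorem cut_eq_zero {r₀ r : ℝ} (h0 : 0 < r₀) (h : r₀ ≤ r) : cut r₀ r = 0 := by
  unfold cut
  have : 1 - r / r₀ ≤ 0 := by
    rw [sub_nonpos, le_div_iff₀ h0]; linarith
  exact max_eq_left ((min_le_right _ _).trans this)

theorem cut_eq_one {r₀ r : ℝ} (h0 : 0 < r₀) (h : r ≤ 0) : cut r₀ r = 1 := by
  unfold cut
  have : r / r₀ ≤ 0 := div_nonpos_of_nonpos_of_nonneg h h0.le
  rw [min_eq_left (by linarith), max_eq_right zero_le_one]

theorem cut_eq {r₀ r : ℝ} (h0 : 0 < r₀) (hr : 0 ≤ r) (h : r ≤ r₀) : cut r₀ r = 1 - r / r₀ := by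
  unfold cut
  have h1 : 0 ≤ r / r₀ := div_nonneg hr h0.le
  have h2 : r / r₀ ≤ 1 := (div_le_one h0).2 h
  rw [min_eq_right (by linarith), max_eq_right (by linarith)]

theorem cut_lt_one {r₀ r : ℝ} (h0 : 0 < r₀) (hr : 0 < r) : cut r₀ r < 1 := by
  unfold cut
  have h1 : 0 < r / r₀ := div_pos hr h0
  exact max_lt one_pos ((min_le_right _ _).trans_lt (by linarith))

theorem le_of_cut_eq_zero {r₀ r : ℝ} (h0 : 0 < r₀) (h : cut r₀ r = 0) : r₀ ≤ r := by
  by_contra hcon
  push Not at hcon
  rcases le_total r 0 with h1 | h1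
  · rw [cut_eq_one h0 h1] at h; exact one_ne_zero h
  · rw [cut_eq h0 h1 hcon.le] at h
    have : r / r₀ < 1 := (div_lt_one h0).2 hcon
    linarith

/-- the map on one cell -/
noncomputable def rc (b : Set I → V) (pu : I → V → V) (rad : I → V → ℝ) (r₀ : I → ℝ) (c : I)
    (y : V) : V := (1 - cut (r₀ c) (rad c y)) • pu c y + cut (r₀ c) (rad c y) • b {c}

open Classical in
/-- **the retraction** -/
noncomputable def RR (P : I → Set V) (b : Set I → V) (pu : I → V → V) (rad : I → V → ℝ)
    (r₀ : I → ℝ) (y : V) : V := if h : ∃ c, y ∈ P c then rc b pu rad r₀ h.choose y else y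

section rays

variable (F : Foam La P b N) {Ho : I → Set V} {pu : I → V → V} {rad : I → V → ℝ}
  {ray : I → V → ℝ → V} (hR : Rays P Ho pu rad ray) {r₀ : I → ℝ}
  (h0 : ∀ c, 0 < r₀ c) (h1 : ∀ c, r₀ c ≤ 1)

theorem bd_of_two {c c' : I} {y : V} (hne : c ≠ c') (hc : y ∈ P c) (hc' : y ∈ P c') :
    y ∈ Bd P c := ⟨hc, c', hne.symm, hc'⟩

include hR in
theorem not_hole {c : I} {y : V} (hy : y ∈ Bd P c) : y ∈ P c \ Ho c :=
  ⟨hy.1, fun h => (hR.hin c y h).2 hy⟩

include hR in
theorem pu_bd {c : I} {y : V} (hy : y ∈ Bd P c) : pu c y = y := by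
  have := hR.pu_ray c y hy 1 ⟨one_pos, le_rfl⟩
  rwa [hR.ray_one c y hy] at this

include hR in
theorem rad_bd {c : I} {y : V} (hy : y ∈ Bd P c) : rad c y = 1 := by
  have := hR.rad_ray c y hy 1 ⟨one_pos, le_rfl⟩
  rwa [hR.ray_one c y hy] at this

include hR h0 h1 in
theorem rc_bd {c : I} {y : V} (hy : y ∈ Bd P c) : rc b pu rad r₀ c y = y := by
  unfold rc
  rw [rad_bd hR hy, cut_eq_zero (h0 c) (h1 c), pu_bd hR hy]
  simp

include hR h0 h1 in
/-- the value in a cell -/
theorem RR_eq {c : I} {y : V} (hy : y ∈ P c) : RR P b pu rad r₀ y = rc b pu rad r₀ c y := by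
  classical
  have h : ∃ c, y ∈ P c := ⟨c, hy⟩
  have e : RR P b pu rad r₀ y = rc b pu rad r₀ h.choose y := dif_pos h
  rw [e]
  by_cases hc : h.choose = c
  · rw [hc]
  · rw [rc_bd hR h0 h1 (bd_of_two hc h.choose_spec hy),
      rc_bd hR h0 h1 (bd_of_two (Ne.symm hc) hy h.choose_spec)]

include hR h0 h1 in
/-- outside the cut-off the retraction is the push -/
theorem RR_pu {c : I} {y : V} (hy : y ∈ P c) (hr : r₀ c ≤ rad c y) :
    RR P b pu rad r₀ y = pu c y := by
  rw [RR_eq hR h0 h1 hy]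
  unfold rc
  rw [cut_eq_zero (h0 c) hr]
  simp

include F hR h0 h1 in
theorem continuousOn_rc (c : I) : ContinuousOn (rc b pu rad r₀ c) (P c) := by
  have hcut : ContinuousOn (fun y => cut (r₀ c) (rad c y)) (P c) :=
    (continuous_cut _).comp_continuousOn (hR.crad c)
  obtain ⟨M, hM⟩ := (F.cpt c).isBounded.exists_norm_le
  intro y hy
  by_cases hyH : y ∈ Ho c
  · -- at the hole
    have hz : rc b pu rad r₀ c y = b {c} := by
      unfold rc
      rw [cut_eq_one (h0 c) (hR.rad_hole c y hyH)]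
      simp
    have h2 : Tendsto (fun y => (1 - cut (r₀ c) (rad c y)) * (M + ‖b {c}‖)) (𝓝[P c] y) (𝓝 0) := by
      have h3 : Tendsto (fun y => cut (r₀ c) (rad c y)) (𝓝[P c] y) (𝓝 1) := by
        have := hcut y hy
        rwa [ContinuousWithinAt, cut_eq_one (h0 c) (hR.rad_hole c y hyH)] at this
      have h4 := (tendsto_const_nhds (x := (1 : ℝ))).sub h3
      rw [sub_self] at h4
      have h5 := h4.mul_const (M + ‖b {c}‖)
      rwa [zero_mul] at h5
    rw [ContinuousWithinAt, hz, tendsto_iff_norm_sub_tendsto_zero]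
    refine squeeze_zero' (Eventually.of_forall fun _ => norm_nonneg _) ?_ h2
    filter_upwards [self_mem_nhdsWithin] with y' hy'
    have e : rc b pu rad r₀ c y' - b {c} = (1 - cut (r₀ c) (rad c y')) • (pu c y' - b {c}) := by
      unfold rc; module
    rw [e, norm_smul, Real.norm_of_nonneg (by linarith [cut_le_one (r₀ c) (rad c y')])]
    by_cases hH' : y' ∈ Ho c
    · rw [cut_eq_one (h0 c) (hR.rad_hole c y' hH')]
      simp
    · refine mul_le_mul_of_nonneg_left ?_ (by linarith [cut_le_one (r₀ c) (rad c y')])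
      have := hM _ (hR.pu_mem c y' ⟨hy', hH'⟩).1
      exact (norm_sub_le _ _).trans (by linarith)
  · have h2 : 𝓝[P c] y = 𝓝[P c \ Ho c] y := by
      rw [sdiff_eq, nhdsWithin_inter, (hR.hcp c).isClosed.isOpen_compl.nhdsWithin_eq hyH]
      exact (inf_eq_left.2 nhdsWithin_le_nhds).symm
    have h3 : ContinuousWithinAt (pu c) (P c) y := by
      have := hR.cpu c y ⟨hy, hyH⟩
      rw [ContinuousWithinAt, ← h2] at this
      exact this
    have h4 := hcut y hy
    exact ((continuousWithinAt_const.sub h4).smul h3).add (h4.smul continuousWithinAt_const)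

include F hR h0 h1 in
theorem continuousOn_RR : ContinuousOn (RR P b pu rad r₀) La := by
  intro y hy
  obtain ⟨r, hr, hfin⟩ := F.lf y hy
  have h2 : ∀ c, y ∈ P c → ContinuousWithinAt (RR P b pu rad r₀) (P c) y := by
    intro c hc
    refine ((continuousOn_rc F hR h0 h1 c) y hc).congr (fun y' hy' => RR_eq hR h0 h1 hy')
      (RR_eq hR h0 h1 hc)
  intro U hU
  have h3 : ∀ c ∈ {c | (P c ∩ ball y r).Nonempty}, ∀ᶠ y' in 𝓝 y, y' ∈ P c →
      RR P b pu rad r₀ y' ∈ U := by
    intro c _
    by_cases hc : y ∈ P c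
    · have := h2 c hc hU
      rw [Filter.mem_map, mem_nhdsWithin_iff_eventually] at this
      exact this
    · filter_upwards [(F.cpt c).isClosed.isOpen_compl.mem_nhds hc] with y' hy' h
      exact absurd h hy'
  rw [Filter.mem_map, mem_nhdsWithin_iff_eventually]
  filter_upwards [(hfin.eventually_all).2 h3, ball_mem_nhds y hr] with y' h4 h5 h6
  obtain ⟨c, hc⟩ := F.cov y' h6
  exact h4 c ⟨y', hc, h5⟩ hc

include F in
theorem b_mem {c : I} (hne : (P c).Nonempty) : b {c} ∈ P c ∧ act P (b {c}) = {c} := by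
  have hfc : (fc P {c}).Nonempty := by simpa [fc] using hne
  have h2 := F.act_b (singleton_nonempty c) hfc
  refine ⟨?_, h2⟩
  have : c ∈ act P (b {c}) := by rw [h2]; rfl
  exact this

include F in
/-- interior points of the cone -/
theorem act_cone {c : I} {g : V} (hg : g ∈ P c) {μ : ℝ} (hμ : μ ∈ Ico (0 : ℝ) 1) :
    act P (b {c} + μ • (g - b {c})) = {c} :=
  F.rel {c} (singleton_nonempty c) g (by simpa [fc] using hg) μ hμ

/-- the form of `rc` -/
theorem rc_form (c : I) (y : V) : rc b pu rad r₀ c y =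
    b {c} + (1 - cut (r₀ c) (rad c y)) • (pu c y - b {c}) := by
  unfold rc; module

include F hR h0 h1 in
theorem rc_mem {c : I} {y : V} (hy : y ∈ P c) : rc b pu rad r₀ c y ∈ P c := by
  have hb := (b_mem F ⟨y, hy⟩).1
  by_cases hyH : y ∈ Ho c
  · unfold rc
    rw [cut_eq_one (h0 c) (hR.rad_hole c y hyH)]
    simpa using hb
  · unfold rc
    exact F.cvx c (hR.pu_mem c y ⟨hy, hyH⟩).1 hb
      (by linarith [cut_le_one (r₀ c) (rad c y)]) (cut_nonneg _ _) (by ring)

include F hR h0 h1 in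
/-- where the retraction hits a point of two cells -/
theorem rad_ge_of_bd {c c' : I} {y : V} (hy : y ∈ P c) (hne : c' ≠ c)
    (h : RR P b pu rad r₀ y ∈ P c') : y ∉ Ho c ∧ r₀ c ≤ rad c y := by
  rw [RR_eq hR h0 h1 hy, rc_form] at h
  have key : ∀ g ∈ P c, ∀ μ ∈ Ico (0 : ℝ) 1, b {c} + μ • (g - b {c}) ∉ P c' := by
    intro g hg μ hμ hmem
    have h2 := act_cone F hg hμ
    have h3 : c' ∈ act P (b {c} + μ • (g - b {c})) := hmem
    rw [h2] at h3
    exact hne h3
  have hyH : y ∉ Ho c := by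
    intro hyH
    rw [cut_eq_one (h0 c) (hR.rad_hole c y hyH), sub_self, zero_smul] at h
    refine key y hy 0 ⟨le_rfl, one_pos⟩ ?_
    rw [zero_smul]; exact h
  refine ⟨hyH, ?_⟩
  have hpu := hR.pu_mem c y ⟨hy, hyH⟩
  have h4 : cut (r₀ c) (rad c y) = 0 := by
    by_contra hcon
    have h5 := lt_of_le_of_ne (cut_nonneg (r₀ c) (rad c y)) (Ne.symm hcon)
    exact key _ hpu.1 _ ⟨by linarith [cut_le_one (r₀ c) (rad c y)], by linarith⟩ h
  exact le_of_cut_eq_zero (h0 c) h4

include F hR h0 h1 in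
/-- the fibre over a point of the wall: a star of arcs -/
theorem fibre_wall {z : V} (hz : z ∈ La) (h2 : ∀ c ∈ act P z, z ∈ Bd P c) :
    La ∩ RR P b pu rad r₀ ⁻¹' {z} = ⋃ c ∈ (F.finite_act hz).toFinset, ray c z '' Icc (r₀ c) 1 := by
  ext y
  simp only [mem_iUnion, Finite.mem_toFinset, exists_prop]
  constructor
  · rintro ⟨hy, hyz⟩
    have hyz' : RR P b pu rad r₀ y = z := hyz
    obtain ⟨c, hc⟩ := F.cov y hy
    have hzc : z ∈ P c := by
      rw [← hyz', RR_eq hR h0 h1 hc]
      exact rc_mem F hR h0 h1 hc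
    obtain ⟨-, c', hne, hc'⟩ := h2 c hzc
    obtain ⟨h5, h6⟩ := rad_ge_of_bd F hR h0 h1 hc hne (by rw [hyz']; exact hc')
    have h7 : pu c y = z := by rw [← RR_pu hR h0 h1 hc h6, hyz']
    refine ⟨c, hzc, rad c y, ⟨h6, (hR.rad_mem c y ⟨hc, h5⟩).2⟩, ?_⟩
    rw [← h7]
    exact hR.ray_pu c y ⟨hc, h5⟩
  · rintro ⟨c, hc, r, hr, rfl⟩
    have hzb := h2 c hc
    have hr' : r ∈ Ioc (0 : ℝ) 1 := ⟨(h0 c).trans_le hr.1, hr.2⟩
    have h5 := hR.ray_mem c z hzb r hr'
    refine ⟨F.sub c h5.1, ?_⟩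
    show RR P b pu rad r₀ (ray c z r) = z
    rw [RR_pu hR h0 h1 h5.1 (by rw [hR.rad_ray c z hzb r hr']; exact hr.1),
      hR.pu_ray c z hzb r hr']

include F hR h0 h1 in
/-- **the retraction of a foam given by rays** -/
theorem ret_of_rays : Ret La P (RR P b pu rad r₀) := by
  classical
  have hcell : ∀ c, MapsTo (RR P b pu rad r₀) (P c) (P c) := fun c y hy => by
    rw [RR_eq hR h0 h1 hy]; exact rc_mem F hR h0 h1 hy
  -- the fibres
  have hfib : ∀ z ∈ La, IsPreconnected (La ∩ RR P b pu rad r₀ ⁻¹' {z}) ∧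
      TrivF (ZMod 2) (La ∩ RR P b pu rad r₀ ⁻¹' {z}) := by
    intro z hz
    obtain ⟨c, hc⟩ := F.cov z hz
    by_cases hw : z ∈ Bd P c
    · -- star
      have hall : ∀ d ∈ act P z, z ∈ Bd P d := by
        intro d hd
        by_cases hdc : d = c
        · rw [hdc]; exact hw
        · exact bd_of_two hdc hd hc
      rw [fibre_wall F hR h0 h1 hz hall]
      have harc : ∀ d ∈ (F.finite_act hz).toFinset, IsCompact (ray d z '' Icc (r₀ d) 1) ∧
          IsPreconnected (ray d z '' Icc (r₀ d) 1) ∧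
          TrivF (ZMod 2) (ray d z '' Icc (r₀ d) 1) ∧ z ∈ ray d z '' Icc (r₀ d) 1 := by
        intro d hd
        have hd' := hall d ((F.finite_act hz).mem_toFinset.1 hd)
        have hsub : Icc (r₀ d) 1 ⊆ Ioc (0 : ℝ) 1 := fun r hr => ⟨(h0 d).trans_le hr.1, hr.2⟩
        have hcont := (hR.cray d z hd').mono hsub
        have hinj : InjOn (ray d z) (Icc (r₀ d) 1) := by
          intro r hr r' hr' he
          rw [← hR.rad_ray d z hd' r (hsub hr), he, hR.rad_ray d z hd' r' (hsub hr')]
        exact ⟨isCompact_Icc.image_of_continuousOn hcont, isPreconnected_Icc.image _ hcont,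
          trivF_Icc.of_image isCompact_Icc isClosed_Icc hcont hinj,
          1, ⟨h1 d, le_rfl⟩, hR.ray_one d z hd'⟩
      refine trivF_star _ (fun d => ray d z '' Icc (r₀ d) 1) z
        ⟨c, (F.finite_act hz).mem_toFinset.2 hc⟩
        (fun d hd => (harc d hd).2.2.2) (fun d hd => (harc d hd).1.isClosed)
        (fun d hd => (harc d hd).2.1) (fun d hd => (harc d hd).2.2.1) ?_
      rintro d hd d' hd' hne y ⟨⟨r, hr, rfl⟩, ⟨r', hr', he⟩⟩
      have g1 := hall d ((F.finite_act hz).mem_toFinset.1 hd)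
      have g2 := hall d' ((F.finite_act hz).mem_toFinset.1 hd')
      have m1 : r ∈ Ioc (0 : ℝ) 1 := ⟨(h0 d).trans_le hr.1, hr.2⟩
      have m2 : r' ∈ Ioc (0 : ℝ) 1 := ⟨(h0 d').trans_le hr'.1, hr'.2⟩
      have k1 := (hR.ray_mem d z g1 r m1).1
      have k2 := (hR.ray_mem d' z g2 r' m2).1
      rw [he] at k2
      have k3 := rad_bd hR (bd_of_two hne k1 k2)
      rw [hR.rad_ray d z g1 r m1] at k3
      rw [k3, hR.ray_one d z g1]
      exact mem_singleton z
    · -- interior point of the cell `c`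
      have hact : ∀ d, z ∈ P d → d = c := fun d hd => by
        by_contra hne
        exact hw (bd_of_two (Ne.symm hne) hc hd)
      have hcz : ∀ y ∈ La ∩ RR P b pu rad r₀ ⁻¹' {z}, y ∈ P c := by
        rintro y ⟨hy, hyz⟩
        have hyz' : RR P b pu rad r₀ y = z := hyz
        obtain ⟨d, hd⟩ := F.cov y hy
        have := hcell d hd
        rw [hyz'] at this
        rw [← hact d this]; exact hd
      obtain ⟨hb1, hb2⟩ := b_mem F ⟨z, hc⟩
      by_cases hzb : z = b {c}
      · -- the hole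
        have he : La ∩ RR P b pu rad r₀ ⁻¹' {z} = Ho c := by
          ext y
          constructor
          · rintro ⟨hy, hyz⟩
            have hyc := hcz y ⟨hy, hyz⟩
            have hyz' : RR P b pu rad r₀ y = z := hyz
            by_contra hyH
            rw [RR_eq hR h0 h1 hyc, rc_form, hzb] at hyz'
            have h5 : (1 - cut (r₀ c) (rad c y)) • (pu c y - b {c}) = 0 := by
              simpa using hyz'
            rcases smul_eq_zero.1 h5 with h6 | h6
            · have := cut_lt_one (h0 c) (hR.rad_mem c y ⟨hyc, hyH⟩).1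
              linarith
            · have h7 := hR.pu_mem c y ⟨hyc, hyH⟩
              rw [sub_eq_zero.1 h6, ← hzb] at h7
              exact hw h7
          · intro hyH
            obtain ⟨h5, -⟩ := hR.hin c y hyH
            refine ⟨F.sub c h5, ?_⟩
            show RR P b pu rad r₀ y = z
            rw [RR_eq hR h0 h1 h5, rc_form, cut_eq_one (h0 c) (hR.rad_hole c y hyH), sub_self,
              zero_smul, add_zero, hzb]
        rw [he]
        exact ⟨(hR.hcv c).isPreconnected, fun n => trivAll_convex' (hR.hcp c) (hR.hcv c)⟩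
      · -- one point
        have hsub : (La ∩ RR P b pu rad r₀ ⁻¹' {z}).Subsingleton := by
          intro y hy y' hy'
          have hyc := hcz y hy
          have hyc' := hcz y' hy'
          have e : RR P b pu rad r₀ y = z := hy.2
          have e' : RR P b pu rad r₀ y' = z := hy'.2
          have hH : ∀ x ∈ P c, RR P b pu rad r₀ x = z → x ∉ Ho c := by
            intro x hx hxz hxH
            apply hzb
            rw [← hxz, RR_eq hR h0 h1 hx, rc_form, cut_eq_one (h0 c) (hR.rad_hole c x hxH),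
              sub_self, zero_smul, add_zero]
          have hyH := hH y hyc e
          have hyH' := hH y' hyc' e'
          have g1 := hR.pu_mem c y ⟨hyc, hyH⟩
          have g1' := hR.pu_mem c y' ⟨hyc', hyH'⟩
          have m1 := hR.rad_mem c y ⟨hyc, hyH⟩
          have m1' := hR.rad_mem c y' ⟨hyc', hyH'⟩
          rw [RR_eq hR h0 h1 hyc, rc_form] at e
          rw [RR_eq hR h0 h1 hyc', rc_form] at e'
          have s1 : 0 < 1 - cut (r₀ c) (rad c y) := by linarith [cut_lt_one (h0 c) m1.1]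
          have s1' : 0 < 1 - cut (r₀ c) (rad c y') := by linarith [cut_lt_one (h0 c) m1'.1]
          have hact' : ∀ g ∈ Bd P c, act P g ≠ {c} := by
            rintro g ⟨-, d, hd1, hd2⟩ he
            have : d ∈ act P g := hd2
            rw [he] at this
            exact hd1 this
          have hrel : ∀ w ∈ fc P {c}, ∀ t ∈ Ico (0 : ℝ) 1, act P (b {c} + t • (w - b {c})) = {c} :=
            fun w hw t ht => F.rel {c} (singleton_nonempty c) w hw t ht
          have u1 := Foam.smul_unique (A := {c}) hrel (z := pu c y) (w := pu c y')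
            (by simpa [fc] using g1.1) (hact' _ g1') s1.le s1' (e.trans e'.symm)
          have u2 := Foam.smul_unique (A := {c}) hrel (z := pu c y') (w := pu c y)
            (by simpa [fc] using g1'.1) (hact' _ g1) s1'.le s1 (e'.trans e.symm)
          have hcc : cut (r₀ c) (rad c y) = cut (r₀ c) (rad c y') := by linarith
          have hpp : pu c y = pu c y' := by
            have h5 := e.trans e'.symm
            rw [← hcc] at h5
            have h6 := smul_right_injective V s1.ne' (add_left_cancel h5)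
            exact sub_left_injective h6
          -- the radii
          have hlt : ∀ x ∈ P c \ Ho c, RR P b pu rad r₀ x = z → rad c x < r₀ c := by
            intro x hx hxz
            by_contra hcon
            push Not at hcon
            rw [RR_pu hR h0 h1 hx.1 hcon] at hxz
            apply hw
            rw [← hxz]
            exact hR.pu_mem c x hx
          have l1 := hlt y ⟨hyc, hyH⟩ hy.2
          have l1' := hlt y' ⟨hyc', hyH'⟩ hy'.2
          rw [cut_eq (h0 c) m1.1.le l1.le, cut_eq (h0 c) m1'.1.le l1'.le] at hcc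
          have hrr : rad c y = rad c y' := by
            have h5 : rad c y / r₀ c = rad c y' / r₀ c := by linarith
            have h6 := (h0 c).ne'
            field_simp at h5
            exact h5
          rw [← hR.ray_pu c y ⟨hyc, hyH⟩, ← hR.ray_pu c y' ⟨hyc', hyH'⟩, hpp, hrr]
        rcases hsub.eq_empty_or_singleton with h5 | ⟨x, h5⟩
        · rw [h5]; exact ⟨isPreconnected_empty, trivF_empty⟩
        · rw [h5]; exact ⟨isPreconnected_singleton, trivF_singleton x⟩
  refine ⟨continuousOn_RR F hR h0 h1, hcell, ?_, fun z hz => (hfib z hz).1,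
    fun z hz => (hfib z hz).2⟩
  -- surjectivity
  intro z hz
  obtain ⟨c, hc⟩ := F.cov z hz
  by_cases hw : z ∈ Bd P c
  · exact ⟨z, hz, by rw [RR_eq hR h0 h1 hc, rc_bd hR h0 h1 hw]⟩
  · have hact : act P z = {c} := by
      ext d
      constructor
      · intro hd
        by_contra hne
        exact hw (bd_of_two (fun e => hne e.symm) hc hd)
      · rintro rfl; exact hc
    by_cases hzb : z = b {c}
    · obtain ⟨y, hy⟩ := hR.hne c ⟨z, hc⟩
      obtain ⟨h5, -⟩ := hR.hin c y hy
      refine ⟨y, F.sub c h5, ?_⟩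
      rw [RR_eq hR h0 h1 h5, rc_form, cut_eq_one (h0 c) (hR.rad_hole c y hy), sub_self,
        zero_smul, add_zero, hzb]
    · obtain ⟨g, hg, μ, hμ, hga, he⟩ := F.exists_exit hz (by rw [hact]; exact hzb)
      rw [hact] at hg hga he
      have hgc : g ∈ P c := by simpa [fc] using hg
      have hgb : g ∈ Bd P c := by
        refine ⟨hgc, ?_⟩
        by_contra hno
        push Not at hno
        apply hga
        ext d
        constructor
        · intro hd
          by_contra hne
          exact hno d hne hd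
        · rintro rfl; exact hgc
      have hr : r₀ c * μ ∈ Ioc (0 : ℝ) 1 :=
        ⟨mul_pos (h0 c) hμ.1, by nlinarith [h1 c, hμ.2, hμ.1, h0 c]⟩
      have h5 := hR.ray_mem c g hgb _ hr
      refine ⟨ray c g (r₀ c * μ), F.sub c h5.1, ?_⟩
      rw [RR_eq hR h0 h1 h5.1, rc_form, hR.rad_ray c g hgb _ hr, hR.pu_ray c g hgb _ hr,
        cut_eq (h0 c) hr.1.le (by nlinarith [hμ.2, h0 c]), he]
      have h6 : r₀ c * μ / r₀ c = μ := by
        have := (h0 c).ne'
        field_simp
      rw [h6, sub_sub_cancel]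

end rays

end Crest.Agent.R096.Init_543
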