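import Mathlib
import Crest.Agent.R096.Init6_543
import Crest.Agent.R096.SkC1_961
import Crest.Agent.R96.Push18_899

/-! # INIT 7 (row 96, helper543): the rays of 899's pushes (one and two stages) and the retraction of
961's `FoamD` -/

set_option autoImplicit false
set_option linter.unusedSectionVars false

open Set Filter Topology Metric
open Crest.Agent.R96

namespace Crest.Agent.R096.Init_543

open Crest.Agent.R096.Brk1_582 Crest.Agent.R096.Brk2_582 Crest.Agent.R096.Coh_184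
  Crest.Agent.R096.Vb_965 Crest.Agent.R96.Push_899 Crest.Agent.R096.SkC1_961
  Crest.Agent.R096.Bsp_628 Crest.Agent.R096.Brk3_582 Crest.Agent.R096.Brk5_582

/-- rays in one box -/
structure BRays (Q B : Box (Fin 3)) (pu : E3 → E3) (rad : E3 → ℝ) (ray : E3 → ℝ → E3) :
    Prop where
  nest : ∀ y ∈ B.S, y ∈ Q.I
  crad : Continuous rad
  cpu : ContinuousOn pu (Q.S \ B.S)
  cray : ∀ g, Continuous (ray g)
  ray_one : ∀ g, ray g 1 = g
  ray_mem : ∀ g ∈ Q.S \ Q.I, ∀ r ∈ Ioc (0 : ℝ) 1, ray g r ∈ Q.S \ B.S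
  pu_ray : ∀ g ∈ Q.S \ Q.I, ∀ r ∈ Ioc (0 : ℝ) 1, pu (ray g r) = g
  rad_ray : ∀ g ∈ Q.S \ Q.I, ∀ r ∈ Ioc (0 : ℝ) 1, rad (ray g r) = r
  pu_mem : ∀ y ∈ Q.S \ B.S, pu y ∈ Q.S \ Q.I
  rad_mem : ∀ y ∈ Q.S \ B.S, rad y ∈ Ioc (0 : ℝ) 1
  ray_pu : ∀ y ∈ Q.S \ B.S, ray (pu y) (rad y) = y
  rad_hole : ∀ y ∈ B.S, rad y ≤ 0

theorem continuousOn_psh {Q C : Box (Fin 3)} (h : Nest C Q) {S : Set E3}
    (hS : ∀ y ∈ S, 0 ≤ tt Q C y ∧ (0 < tt Q C y ∨ ∀ i, 0 < C.W i)) : ContinuousOn (psh Q C) S := by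
  refine continuousOn_pi.2 fun i => ?_
  have h1 : Continuous fun y : E3 => ww Q C i (tt Q C y) := by
    unfold ww ch cl
    have := continuous_tt Q C
    fun_prop
  have h2 : Continuous fun y : E3 => cl Q C i (tt Q C y) := by
    unfold cl
    have := continuous_tt Q C
    fun_prop
  unfold psh
  refine continuousOn_const.add (((continuous_apply i).sub h2).continuousOn.mul
    (continuousOn_const.div h1.continuousOn fun y hy => ?_))
  exact (ww_pos h i (hS y hy).1 (hS y hy).2).ne'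

/-- one stage -/
theorem brays_psh {P : Finset (Fin 3)} {c₀ κ ρ : ℝ} {Q B : Box (Fin 3)}
    (hQ : Shape P c₀ κ ρ Q B) : BRays Q B (psh Q B) (tt Q B)
      (fun g r i => cl Q B i r + Push_899.rc Q g i * ww Q B i r) := by
  have hn := hQ.nest
  have hl : ∀ g ∈ Q.S \ Q.I, (∀ i, Push_899.rc Q g i ∈ Icc (0 : ℝ) 1) ∧
      ∃ i, Push_899.rc Q g i = 0 ∨ Push_899.rc Q g i = 1 := fun g hg =>
    ⟨fun i => Push_899.rc_mem hQ.W0 hg.1 i, Push_899.rc_bd hQ.W0 hg.1 hg.2⟩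
  have ht : ∀ g ∈ Q.S \ Q.I, ∀ r ∈ Ioc (0 : ℝ) 1,
      tt Q B (fun i => cl Q B i r + Push_899.rc Q g i * ww Q B i r) = r := fun g hg r hr =>
    level_tt hn (hl g hg).1 (hl g hg).2 hr.1.le (Or.inl hr.1)
  have hpos : ∀ y ∈ Q.S \ B.S, 0 < tt Q B y := fun y hy =>
    not_le.1 (mt (tt_le_zero_iff hn y).1 hy.2)
  refine ⟨?_, continuous_tt Q B, ?_, ?_, ?_, ?_, ?_, ht, ?_, ?_, ?_, ?_⟩
  · intro y hy i
    have := hy i
    exact ⟨(hn.lo i).trans_le this.1, this.2.trans_lt (hn.hi i)⟩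
  · exact continuousOn_psh hn fun y hy => ⟨(hpos y hy).le, Or.inl (hpos y hy)⟩
  · intro g
    refine continuous_pi fun i => ?_
    unfold ww ch cl
    fun_prop
  · intro g
    funext i
    show cl Q B i 1 + Push_899.rc Q g i * ww Q B i 1 = g i
    rw [cl_one, ww_eq]
    have h1 := rc_mul hQ.W0 g i
    have h2 : B.W i + 1 * (Q.W i - B.W i) = Q.W i := by ring
    rw [h2]
    exact h1
  · intro g hg r hr
    have h1 := ht g hg r hr
    constructor
    · rw [← tt_le_one_iff hn, h1]; exact hr.2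
    · intro h2
      rw [← tt_le_zero_iff hn, h1] at h2
      exact absurd h2 (not_le.2 hr.1)
  · intro g hg r hr
    rw [level_psh hn (hl g hg).1 (hl g hg).2 hr.1.le (Or.inl hr.1)]
    exact funext fun i => rc_mul hQ.W0 g i
  · intro y hy
    exact ⟨psh_mem hn (hpos y hy).le (Or.inl (hpos y hy)),
      psh_not_mem_I hn (hpos y hy).le (Or.inl (hpos y hy))⟩
  · intro y hy
    exact ⟨hpos y hy, (tt_le_one_iff hn y).2 hy.1⟩
  · intro y hy
    funext i
    exact psh_level hn (hpos y hy).le (Or.inl (hpos y hy)) i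
  · intro y hy
    exact (tt_le_zero_iff hn y).2 hy

/-- two stages -/
theorem brays_psi {P : Finset (Fin 3)} {c₀ κ ρ : ℝ} {Q C B : Box (Fin 3)}
    (hQ : Shape P c₀ κ ρ Q C) (hC : Inner C B) :
    BRays Q B (psi Q C B) (rad Q C B) (ray Q C B) := by
  have hn := hC.nest
  have hBC : ∀ y ∈ B.S, y ∈ C.I := fun y hy i =>
    ⟨(hn.lo i).trans_le (hy i).1, (hy i).2.trans_lt (hn.hi i)⟩
  have hCQ : ∀ y ∈ C.S, y ∈ Q.I := fun y hy i =>
    ⟨(hQ.nest.lo i).trans_le (hy i).1, (hy i).2.trans_lt (hQ.nest.hi i)⟩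
  have hIS : ∀ D : Box (Fin 3), ∀ y ∈ D.I, y ∈ D.S := fun D y hy i =>
    ⟨(hy i).1.le, (hy i).2.le⟩
  have hpos : ∀ y, y ∉ B.S → 0 < tt C B y := fun y hy =>
    not_le.1 (mt (tt_le_zero_iff hn y).1 hy)
  have hoff : ∀ y, y ∉ B.S → Off C B y := fun y hy => ⟨(hpos y hy).le, Or.inl (hpos y hy)⟩
  refine ⟨fun y hy => hCQ y (hIS C y (hBC y hy)), continuous_rad Q C B, ?_, ?_,
    fun g => ray_one hQ.W0 g, ?_, ?_, ?_, ?_, ?_, ?_, ?_⟩
  · -- continuity of `psi`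
    have c1 : ContinuousOn (psh Q C) (C.I)ᶜ := continuousOn_psh hQ.nest fun y hy =>
      ⟨not_lt.1 (mt (tt_lt_zero_iff hQ.nest _).1 hy), Or.inr hQ.CW⟩
    have c2 : ContinuousOn (fun y => psh Q C (psh C B y)) (C.S \ B.S) := by
      have d1 : ContinuousOn (psh C B) (C.S \ B.S) := continuousOn_psh hn fun y hy =>
        ⟨(hpos y hy.2).le, Or.inl (hpos y hy.2)⟩
      refine c1.comp d1 fun y hy => ?_
      exact psh_not_mem_I hn (hpos y hy.2).le (Or.inl (hpos y hy.2))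
    have hclC : IsClosed C.S := by
      have : C.S = Icc C.lo C.hi := by
        ext y
        exact ⟨fun h => ⟨fun i => (h i).1, fun i => (h i).2⟩, fun h i => ⟨h.1 i, h.2 i⟩⟩
      rw [this]; exact isClosed_Icc
    have hopI : IsOpen C.I := by
      have : C.I = {y | tt Q C y < 0} := by
        ext y; exact (tt_lt_zero_iff hQ.nest y).symm
      rw [this]; exact isOpen_lt (continuous_tt Q C) continuous_const
    intro y hy
    have hsplit : Q.S \ B.S ⊆ (C.S \ B.S) ∪ ((Q.S \ B.S) ∩ (C.I)ᶜ) := by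
      intro z hz
      by_cases hzC : z ∈ C.S
      · exact Or.inl ⟨hzC, hz.2⟩
      · exact Or.inr ⟨hz, fun h => hzC (hIS C z h)⟩
    refine ContinuousWithinAt.mono ?_ hsplit
    refine ContinuousWithinAt.union ?_ ?_
    · by_cases hyC : y ∈ C.S
      · exact (c2 y ⟨hyC, hy.2⟩).congr (fun z hz => psi_in hz.1) (psi_in hyC)
      · have : 𝓝[C.S \ B.S] y = ⊥ := by
          rw [← notMem_closure_iff_nhdsWithin_eq_bot]
          intro h
          exact hyC (closure_minimal sdiff_subset hclC h)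
        rw [ContinuousWithinAt, this]; exact tendsto_bot
    · by_cases hyC : y ∈ C.I
      · have : 𝓝[(Q.S \ B.S) ∩ (C.I)ᶜ] y = ⊥ := by
          rw [← notMem_closure_iff_nhdsWithin_eq_bot]
          intro h
          exact closure_minimal inter_subset_right hopI.isClosed_compl h hyC
        rw [ContinuousWithinAt, this]; exact tendsto_bot
      · exact ((c1 y hyC).mono inter_subset_right).congr (fun z hz => psi_out hn hz.2)
          (psi_out hn hyC)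
  · intro g
    exact (continuous_ray Q C B).comp (continuous_const.prodMk continuous_id)
  · intro g hg r hr
    refine ⟨ray_mem hQ hC hg.1 hg.2 hr.1.le hr.2, fun h => ?_⟩
    have h1 := off_ray hQ hC hg.1 hg.2 hr.1
    exact absurd ((tt_le_zero_iff hn _).2 h) (not_le.2 h1)
  · intro g hg r hr
    exact psi_ray hQ hC hg.1 hg.2 hr.1.le (Or.inl hr.1)
  · intro g hg r hr
    exact rad_ray hQ hC hg.1 hg.2 hr.1.le (Or.inl hr.1)
  · intro y hy
    exact psi_bd hQ hC hy.1 (hoff y hy.2)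
  · intro y hy
    exact ⟨rad_pos hQ hC (hpos y hy.2), rad_le_one hQ hC hy.1⟩
  · intro y hy
    exact ray_psi hQ hC (hoff y hy.2)
  · intro y hy
    have h1 : tt C B y ≤ 0 := (tt_le_zero_iff hn y).2 hy
    have h2 : tt Q C y ≤ 0 := (tt_le_zero_iff hQ.nest y).2 (hIS C y (hBC y hy))
    unfold Push_899.rad
    rw [max_eq_left h2, min_eq_right (by linarith)]
    linarith

/-- every admissible push has rays -/
theorem exists_brays {c0 : ℝ} {Q B : Box (Fin 3)} {pu : E3 → E3} (h : IsPush c0 Q B pu) :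
    ∃ (rad : E3 → ℝ) (ray : E3 → ℝ → E3), BRays Q B pu rad ray := by
  rcases h with ⟨P, κ, ρ, hQ, rfl⟩ | ⟨P, κ, ρ, C, hQ, hC, rfl⟩
  · exact ⟨_, _, brays_psh hQ⟩
  · exact ⟨_, _, brays_psi hQ hC⟩

/-! ### the foam -/

section foamD

variable {δ κ0 R c0 : ℝ} {La : Set E3} (Φ : FoamD δ κ0 R c0 La)

/-- the brick as a box -/
def bxc (c : Φ.F) : Box (Fin 3) := ⟨c.1.lo, c.1.hi, fun i => (Φ.bf.pos c.1 c.2 i).le⟩

theorem bxc_S (c : Φ.F) : (bxc Φ c).S = Pc Φ.F c := by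
  ext y
  exact Bx.mem_set.symm

theorem foam4 (hLa : IsOpen La) : Foam La (Pc Φ.F) (bc (F := Φ.F)) 4 := foam Φ.bf hLa

theorem interior_Pc (c : Φ.F) : interior (Pc Φ.F c) = (bxc Φ c).I := by
  have h1 : Pc Φ.F c = Set.pi univ fun i => Icc (c.1.lo i) (c.1.hi i) := by
    rw [Set.pi_univ_Icc]; rfl
  rw [h1, interior_pi_set finite_univ]
  ext y
  simp only [interior_Icc, mem_univ_pi, mem_Ioo]
  exact Iff.rfl

theorem Bd_eq (hLa : IsOpen La) (c : Φ.F) : Bd (Pc Φ.F) c = (bxc Φ c).S \ (bxc Φ c).I := by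
  have F := foam4 Φ hLa
  have h1 : Bd (Pc Φ.F) c = frontier (Pc Φ.F c) := by
    rw [frontier_cell F, Lset_zero F]; rfl
  rw [h1, (F.cpt c).isClosed.frontier_eq, interior_Pc, bxc_S]

/-- the radius and the rays of the brick -/
noncomputable def rdF (c : Φ.F) : E3 → ℝ := (exists_brays (Φ.push c)).choose
noncomputable def ryF (c : Φ.F) : E3 → ℝ → E3 := (exists_brays (Φ.push c)).choose_spec.choose

theorem braysF (c : Φ.F) : BRays (bxc Φ c) (Φ.B c) (Φ.pu c) (rdF Φ c) (ryF Φ c) :=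
  (exists_brays (Φ.push c)).choose_spec.choose_spec

theorem isCompact_boxS (B : Box (Fin 3)) : IsCompact B.S := by
  have : B.S = Icc B.lo B.hi := by
    ext y
    exact ⟨fun h => ⟨fun i => (h i).1, fun i => (h i).2⟩, fun h i => ⟨h.1 i, h.2 i⟩⟩
  rw [this]; exact isCompact_Icc

theorem convex_boxS (B : Box (Fin 3)) : Convex ℝ B.S := by
  have : B.S = Icc B.lo B.hi := by
    ext y
    exact ⟨fun h => ⟨fun i => (h i).1, fun i => (h i).2⟩, fun h i => ⟨h.1 i, h.2 i⟩⟩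
  rw [this]; exact convex_Icc _ _

/-- **the rays of the foam** -/
theorem raysF (hLa : IsOpen La) :
    Rays (Pc Φ.F) (fun c => (Φ.B c).S) Φ.pu (rdF Φ) (ryF Φ) := by
  have hS := bxc_S Φ
  have hB := Bd_eq Φ hLa
  refine ⟨fun c _ => ⟨(Φ.B c).lo, fun i => ⟨le_rfl, (Φ.B c).le i⟩⟩, fun c => isCompact_boxS _,
    fun c => convex_boxS _, fun c y hy => ?_, fun c => (braysF Φ c).crad.continuousOn, fun c => ?_,
    fun c g _ => ((braysF Φ c).cray g).continuousOn, fun c g _ => (braysF Φ c).ray_one g,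
    fun c g hg r hr => ?_, fun c g hg r hr => ?_, fun c g hg r hr => ?_, fun c y hy => ?_,
    fun c y hy => ?_, fun c y hy => ?_, fun c y hy => (braysF Φ c).rad_hole y hy⟩
  · have h1 := (braysF Φ c).nest y hy
    rw [hB c, ← hS c]
    exact ⟨fun i => ⟨(h1 i).1.le, (h1 i).2.le⟩, fun h2 => h2.2 h1⟩
  · rw [← hS c]; exact (braysF Φ c).cpu
  · rw [hB c] at hg
    have := (braysF Φ c).ray_mem g hg r hr
    rwa [hS c] at this
  · rw [hB c] at hg
    exact (braysF Φ c).pu_ray g hg r hr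
  · rw [hB c] at hg
    exact (braysF Φ c).rad_ray g hg r hr
  · rw [← hS c] at hy
    rw [hB c]
    exact (braysF Φ c).pu_mem y hy
  · rw [← hS c] at hy
    exact (braysF Φ c).rad_mem y hy
  · rw [← hS c] at hy
    exact (braysF Φ c).ray_pu y hy

/-- the retraction of the foam -/
noncomputable def RF (r₀ : Φ.F → ℝ) : E3 → E3 := RR (Pc Φ.F) (bc (F := Φ.F)) Φ.pu (rdF Φ) r₀

theorem retF (hLa : IsOpen La) {r₀ : Φ.F → ℝ} (h0 : ∀ c, 0 < r₀ c) (h1 : ∀ c, r₀ c ≤ 1) :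
    Ret La (Pc Φ.F) (RF Φ r₀) :=
  ret_of_rays (foam4 Φ hLa) (raysF Φ hLa) h0 h1

/-- the push in a brick -/
theorem Psi_eq (hLa : IsOpen La) {c : Φ.F} {y : E3} (hy : y ∈ Pc Φ.F c) : Φ.Psi y = Φ.pu c y := by
  classical
  have h : ∃ c : Φ.F, y ∈ c.1.set := ⟨c, hy⟩
  have e : Φ.Psi y = Φ.pu h.choose y := dif_pos h
  rw [e]
  by_cases hc : h.choose = c
  · rw [hc]
  · have h1 : y ∈ Bd (Pc Φ.F) h.choose := bd_of_two hc h.choose_spec hy
    have h2 : y ∈ Bd (Pc Φ.F) c := bd_of_two (Ne.symm hc) hy h.choose_spec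
    rw [pu_bd (raysF Φ hLa) h1, pu_bd (raysF Φ hLa) h2]

/-- outside the cut-offs the retraction is 961's `Psi` -/
theorem RF_eq (hLa : IsOpen La) {r₀ : Φ.F → ℝ} (h0 : ∀ c, 0 < r₀ c) (h1 : ∀ c, r₀ c ≤ 1)
    {c : Φ.F} {y : E3} (hy : y ∈ Pc Φ.F c) (hr : r₀ c ≤ rdF Φ c y) :
    RF Φ r₀ y = Φ.Psi y ∧ ∃ c', c' ≠ c ∧ Φ.Psi y ∈ Pc Φ.F c ∧ Φ.Psi y ∈ Pc Φ.F c' := by
  have hRR := raysF Φ hLa
  have e1 : RF Φ r₀ y = Φ.pu c y := RR_pu hRR h0 h1 hy hr
  have hH : y ∉ (Φ.B c).S := by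
    intro h
    have := hRR.rad_hole c y h
    linarith [h0 c]
  have h2 := hRR.pu_mem c y ⟨hy, hH⟩
  obtain ⟨h3, c', h4, h5⟩ := h2
  rw [e1, Psi_eq Φ hLa hy]
  exact ⟨rfl, c', h4, h3, h5⟩

end foamD

end Crest.Agent.R096.Init_543
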