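import Mathlib
import Crest.Agent.R096.Init5_543
import Crest.Agent.R096.Init7_543

/-! # INIT 8 (row 96, helper543): the initial state in 961's format -/

set_option autoImplicit false
set_option linter.unusedSectionVars false

open Set Filter Topology Metric
open Crest.Agent.R96

namespace Crest.Agent.R096.Init_543

open Crest.Agent.R096.Brk1_582 Crest.Agent.R096.Brk2_582 Crest.Agent.R096.Coh_184
  Crest.Agent.R096.Vb_965 Crest.Agent.R96.Push_899 Crest.Agent.R096.SkC1_961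
  Crest.Agent.R096.Bsp_628 Crest.Agent.R096.Brk3_582 Crest.Agent.R096.Brk5_582
  Crest.Agent.R096.Msh_715 Crest.Agent.R096.Agl4_543 Crest.Agent.R096.Agl5_543
  Crest.Agent.R096.Agl8_543 Crest.Agent.R096.Ginv_543 Crest.Agent.R096.Pat4_543
  Crest.Agent.R096.Pat5_543 Crest.Agent.R096.Pat6_543

/-! ### all but countably many levels are regular -/

section bad

variable {E V : Type} [NormedAddCommGroup E] [NormedSpace ℝ E] [FiniteDimensional ℝ E]
  [NormedAddCommGroup V] [NormedSpace ℝ V] [FiniteDimensional ℝ V]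
variable {I ι : Type} {Om : Set E} {La : Set V} {P : I → Set V} {b : Set I → V} {N : ℕ}
  {R : V → V} {f : E → V} {g : V → E}

/-- **regular levels**: outside a countable set every level which avoids the vertices and is finite
on the edges is regular -/
theorem exists_bad (H : Hm f g Om La) (F : Foam La P b N) (hR : Ret La P R) (T : Tiling Om ι)
    (a : I) : ∃ Z : Set ℝ, Z.Countable ∧ ∀ t, t ∉ Z → t ∈ Ioo (0 : ℝ) 1 →
      (∀ x ∈ Om, T.dim x = 0 → va P b R f a x ≠ t) →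
      (∀ x ∈ Om, T.dim x = 1 → {y | y ∈ T.cc x ∧ va P b R f a y = t}.Finite) →
      RegLevel T (va P b R f a) t (sheet Om P b R f a t) := by
  have hu := continuousOn_va H F hR a (b := b)
  have h2 : (⋃ F : C2 T, {c | {x | x ∈ F.bd ∧ va P b R f a x = c}.Finite ∧
      ¬ RegOn (va P b R f a) F.bd c}).Countable :=
    countable_iUnion fun F => countable_not_reg _ F.bd
  have h3 : (⋃ F : C2 T, BadF (va P b R f a) F.set F.bd).Countable :=
    countable_iUnion fun F => F.isDisc.countable_badF (hu.mono F.set_sub)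
  refine ⟨_, h2.union h3, fun t ht ht01 hv hf => ?_⟩
  refine regLevel_of T (isCompact_sheet H F hR ht01.1 ht01.2) (fun x hx => hx.1)
    (fun x hx hd => hv x hx.1 hd hx.2) fun F _ => ?_
  refine ⟨hu.mono F.set_sub, fun y hy => ⟨fun h => h.2, fun h => ⟨F.set_sub hy, h⟩⟩, ?_, ?_⟩
  · by_contra hn
    exact ht (Or.inl (mem_iUnion.2 ⟨F, finite_bd T F fun x hx hd => hf x (F.set_sub hx) hd, hn⟩))
  · intro hb
    exact ht (Or.inr (mem_iUnion.2 ⟨F, hb⟩))

end bad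

/-! ### interiors of the tiles -/

section tile

variable {E : Type} [NormedAddCommGroup E] [NormedSpace ℝ E] {Om : Set E} {ι : Type}
  {T : Tiling Om ι}

theorem not_mem_I {q i : ι} (hne : q ≠ i) {x : E} (hx : x ∈ Msh_715.P (T.H q)) :
    x ∉ Msh_715.I (T.H i) := fun h =>
  disjoint_left.1 (disjoint_P_I (T.ne q) (T.dis q i hne)) hx h

theorem dim_I [FiniteDimensional ℝ E] {i : ι} {x : E} (hx : x ∈ Msh_715.I (T.H i)) :
    T.dim x = Module.finrank ℝ E := by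
  have hO : x ∈ Om := T.sub i (I_sub_P _ hx)
  have h1 := (T.V_eq_top_iff hO).2 ⟨i, hx⟩
  unfold Tiling.dim
  rw [h1]
  exact finrank_top ℝ E

theorem interior_sub_I {H : Finset ((E →L[ℝ] ℝ) × ℝ)} (hne : (Msh_715.I H).Nonempty) {x : E}
    (hx : x ∈ interior (Msh_715.P H)) : x ∈ Msh_715.I H := by
  obtain ⟨z, hz⟩ := hne
  intro h hh
  refine lt_of_le_of_ne (interior_subset hx h hh) fun he => ?_
  have hc : Continuous fun s : ℝ => x - s • (z - x) := by fun_prop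
  have h1 : Tendsto (fun s : ℝ => x - s • (z - x)) (𝓝[>] 0) (𝓝 x) := by
    have := (hc.tendsto 0).mono_left (nhdsWithin_le_nhds (s := Ioi (0 : ℝ)))
    simpa using this
  have h2 := h1.eventually (mem_interior_iff_mem_nhds.1 hx)
  obtain ⟨s, hs1, hs2⟩ := (h2.and self_mem_nhdsWithin).exists
  have h3 := hs1 h hh
  have h4 := hz h hh
  have h5 : (0 : ℝ) < s := hs2
  simp only [map_sub, map_smul, smul_eq_mul] at h3
  nlinarith

end tile

/-! ### 961's format -/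

section mach

variable {δ κ0 R c0 : ℝ} {La Om : Set E3} {ι : Type} (Φ : FoamD δ κ0 R c0 La)
  {T : Tiling Om ι} {f g : E3 → E3} {ct : Φ.F → ι}

/-- the preimages of the holes lie in the interiors of the core tiles -/
def HoleIn (Φ : FoamD δ κ0 R c0 La) (T : Tiling Om ι) (f : E3 → E3) (ct : Φ.F → ι) : Prop :=
  ∀ c, ∀ x ∈ Om, f x ∈ (Φ.B c).S → x ∈ Msh_715.I (T.H (ct c))

theorem exists_hm3 (h : Hom3 f Om La) : ∃ g, Hm f g Om La := by
  obtain ⟨g, a1, a2, a3, a4, a5, a6⟩ := h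
  exact ⟨g, a1, a2, a3, a4, a5, a6⟩

theorem holeIn_of_cores (H : Hm f g Om La) {κ1 κ2 : ℝ} {X : Set Φ.F} {A : Φ.F → E3 ≃ᵃ[ℝ] E3}
    {lam : Φ.F → ℝ} {z : Φ.F → E3} (hC : Cores Φ T f κ1 κ2 X ct A lam z) (hκ1 : 0 ≤ κ1)
    (hκ : κ1 * κ0 < κ2) (hκ2 : 0 ≤ κ2) : HoleIn Φ T f ct := by
  intro c x hx hfx
  by_cases hc : c ∈ X
  · have hE := hC.exact_ c hc
    have hlam := hE.lam0
    have hpos := Φ.bf.pos c.1 c.2
    have hasp := Φ.bf.asp c.1 c.2
    have hside : ∀ k, 0 < c.1.side k := fun k => Bx.side_pos hpos k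
    have hxP : x ∈ Msh_715.P (T.H (ct c)) := by
      by_contra hn
      exact hE.miss x hx hn hfx
    have hbox : ∀ k, z c k + lam c * c.1.lo k ≤ A c x k ∧ A c x k ≤ z c k + lam c * c.1.hi k := by
      have h1 := hxP
      rw [hE.tile] at h1
      exact h1
    have hm : ∀ k, 0 ≤ κ2 * (lam c * c.1.side k) := fun k =>
      mul_nonneg hκ2 (mul_nonneg hlam.le (hside k).le)
    have hnb := (hE.nbd x (fun k => ⟨by linarith [(hbox k).1, hm k],
      by linarith [(hbox k).2, hm k]⟩)).2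
    have hcomp : ∀ k, |f x k - A c x k| ≤ κ1 * (lam c * c.1.sz) := by
      intro k
      have := (norm_le_pi_norm (f x - A c x) k).trans hnb
      simpa using this
    have hgap : ∀ k, κ1 * (lam c * c.1.sz) < κ2 * (lam c * c.1.side k) := by
      intro k
      have h1 := hasp k
      have h2 : κ1 * (lam c * c.1.sz) ≤ κ1 * (lam c * (κ0 * c.1.side k)) :=
        mul_le_mul_of_nonneg_left (mul_le_mul_of_nonneg_left h1 hlam.le) hκ1
      have h3 : κ1 * (lam c * (κ0 * c.1.side k)) = κ1 * κ0 * (lam c * c.1.side k) := by ring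
      rw [h3] at h2
      exact h2.trans_lt (mul_lt_mul_of_pos_right hκ (mul_pos hlam (hside k)))
    have hop : ∀ k, z c k + lam c * c.1.lo k < A c x k ∧ A c x k < z c k + lam c * c.1.hi k := by
      intro k
      have h1 := abs_le.1 (hcomp k)
      have h2 := hE.hole k
      have h3 := hfx k
      have h4 := hgap k
      constructor
      · linarith [h1.1, h1.2, h2.1, h3.1]
      · linarith [h1.1, h1.2, h2.2, h3.2]
    -- open box
    have hopen : IsOpen (A c ⁻¹' {y : E3 | ∀ k, z c k + lam c * c.1.lo k < y k ∧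
        y k < z c k + lam c * c.1.hi k}) := by
      refine IsOpen.preimage (A c).continuous_of_finiteDimensional ?_
      simp only [ofPred_forall]
      refine isOpen_iInter_of_finite fun k => ?_
      exact (isOpen_lt continuous_const (continuous_apply k)).inter
        (isOpen_lt (continuous_apply k) continuous_const)
    refine interior_sub_I (T.ne (ct c)) ?_
    rw [hE.tile]
    refine mem_interior.2 ⟨_, ?_, hopen, hop⟩
    intro y hy k
    exact ⟨(hy k).1.le, (hy k).2.le⟩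
  · have hT := hC.tiny c hc
    obtain ⟨x0, hx0, he⟩ := hT.mem
    have h1 : f x = (Φ.B c).lo := by
      funext k
      have h2 := hfx k
      have h3 := congrFun hT.pt k
      exact le_antisymm (by rw [h3]; exact h2.2) h2.1
    have hx0O : x0 ∈ Om := T.sub _ (I_sub_P _ hx0)
    have h4 : x = x0 := by
      rw [← H.gf x hx, ← H.gf x0 hx0O, h1, he]
    rw [h4]; exact hx0

/-- cut-offs inside the core tiles -/
theorem exists_r0 (hLa : IsOpen La) (H : Hm f g Om La) (hH : HoleIn Φ T f ct) :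
    ∃ r₀ : Φ.F → ℝ, (∀ c, 0 < r₀ c) ∧ (∀ c, r₀ c ≤ 1) ∧
      ∀ c, ∀ x ∈ Om, f x ∈ Pc Φ.F c → x ∉ Msh_715.I (T.H (ct c)) → r₀ c ≤ rdF Φ c (f x) := by
  have F := foam4 Φ hLa
  have hRR := raysF Φ hLa
  have key : ∀ c : Φ.F, ∃ r : ℝ, 0 < r ∧ r ≤ 1 ∧
      ∀ x ∈ Om, f x ∈ Pc Φ.F c → x ∉ Msh_715.I (T.H (ct c)) → r ≤ rdF Φ c (f x) := by
    intro c
    set K : Set E3 := Pc Φ.F c ∩ g ⁻¹' (Msh_715.I (T.H (ct c)))ᶜ with hK
    have hKc : IsCompact K := by
      refine (F.cpt c).of_isClosed_subset ?_ inter_subset_left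
      exact (H.gc.mono (F.sub c)).preimage_isClosed_of_isClosed (F.cpt c).isClosed
        (isOpen_I _).isClosed_compl
    have hpos : ∀ y ∈ K, 0 < rdF Φ c y := by
      rintro y ⟨hy, hyI⟩
      have hyL := F.sub c hy
      refine (hRR.rad_mem c y ⟨hy, fun h => hyI ?_⟩).1
      refine hH c (g y) (H.gm hyL) ?_
      rw [H.fg y hyL]; exact h
    rcases K.eq_empty_or_nonempty with he | hne
    · refine ⟨1, one_pos, le_rfl, fun x hx hfx hxI => ?_⟩
      exfalso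
      have : f x ∈ K := ⟨hfx, by
        show g (f x) ∉ Msh_715.I (T.H (ct c))
        rw [H.gf x hx]; exact hxI⟩
      rw [he] at this
      exact this
    · obtain ⟨y0, hy0, hmin⟩ := hKc.exists_isMinOn hne ((hRR.crad c).mono inter_subset_left)
      refine ⟨min 1 (rdF Φ c y0), lt_min one_pos (hpos y0 hy0), min_le_left _ _,
        fun x hx hfx hxI => (min_le_right _ _).trans ?_⟩
      exact hmin (show f x ∈ K from ⟨hfx, by
        show g (f x) ∉ Msh_715.I (T.H (ct c))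
        rw [H.gf x hx]; exact hxI⟩)
  choose r h1 h2 h3 using key
  exact ⟨r, h1, h2, h3⟩

/-- 961's levels at the points outside the interiors of the core tiles; two cells -/
theorem va_eq (hLa : IsOpen La) (H : Hm f g Om La) {r₀ : Φ.F → ℝ} (h0 : ∀ c, 0 < r₀ c)
    (h1 : ∀ c, r₀ c ≤ 1)
    (h2 : ∀ c, ∀ x ∈ Om, f x ∈ Pc Φ.F c → x ∉ Msh_715.I (T.H (ct c)) → r₀ c ≤ rdF Φ c (f x))
    {x : E3} (hx : x ∈ Om) (hxI : ∀ c, x ∉ Msh_715.I (T.H (ct c))) :
    (∀ a, va (Pc Φ.F) (bc (F := Φ.F)) (RF Φ r₀) f a x = Φ.lev a (f x)) ∧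
      ∃ c c', c ≠ c' ∧ RF Φ r₀ (f x) ∈ Pc Φ.F c ∧ RF Φ r₀ (f x) ∈ Pc Φ.F c' := by
  obtain ⟨c, hc⟩ := (foam4 Φ hLa).cov (f x) (H.fm hx)
  obtain ⟨e1, c', hne, h4, h5⟩ := RF_eq Φ hLa h0 h1 hc (h2 c x hx hc (hxI c))
  refine ⟨fun a => ?_, c, c', hne.symm, by rw [e1]; exact h4, by rw [e1]; exact h5⟩
  show sc (Pc Φ.F) (bc (F := Φ.F)) (RF Φ r₀ (f x)) a = _
  rw [e1]; rfl

/-- fineness in terms of the levels -/
def FineL (Φ : FoamD δ κ0 R c0 La) (T : Tiling Om ι) (f : E3 → E3) (ε : ℝ) (ct : Φ.F → ι) :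
    Prop :=
  ∀ i, i ∉ range ct → ∀ x ∈ Msh_715.P (T.H i), ∀ y ∈ Msh_715.P (T.H i), ∀ c : Φ.F,
    |Φ.lev c (f x) - Φ.lev c (f y)| ≤ ε

/-- points of non-core tiles are not in the interiors of core tiles -/
theorem not_core {q : ι} (hq : q ∉ range ct) {x : E3} (hx : x ∈ Msh_715.P (T.H q)) (c : Φ.F) :
    x ∉ Msh_715.I (T.H (ct c)) :=
  not_mem_I (fun e => hq ⟨c, e.symm⟩) hx

theorem mesh0F (hLa : IsOpen La) (H : Hm f g Om La) {r₀ : Φ.F → ℝ} (h0 : ∀ c, 0 < r₀ c)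
    (h1 : ∀ c, r₀ c ≤ 1)
    (h2 : ∀ c, ∀ x ∈ Om, f x ∈ Pc Φ.F c → x ∉ Msh_715.I (T.H (ct c)) → r₀ c ≤ rdF Φ c (f x))
    {ε : ℝ} (hF : FineL Φ T f ε ct) :
    Mesh0 T (Pc Φ.F) (bc (F := Φ.F)) (RF Φ r₀) f (range ct) ε where
  wall := fun q hq x hx =>
    (va_eq Φ hLa H h0 h1 h2 (T.sub q hx) fun c => not_core Φ hq hx c).2
  osc := fun q hq x hx x' hx' a => by
    rw [(va_eq Φ hLa H h0 h1 h2 (T.sub q hx) fun c => not_core Φ hq hx c).1,
      (va_eq Φ hLa H h0 h1 h2 (T.sub q hx') fun c => not_core Φ hq hx' c).1]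
    exact hF q hq x hx x' hx' a

/-- index set of the sheets -/
abbrev JJ (L : Φ.F → Finset ℝ) : Type := Σ c : Φ.F, {t // t ∈ L c}

/-- **the global family of sheets in 961's format** -/
theorem gfamF (hLa : IsOpen La) (H : Hm f g Om La) {r₀ : Φ.F → ℝ} (h0 : ∀ c, 0 < r₀ c)
    (h1 : ∀ c, r₀ c ≤ 1)
    (h2 : ∀ c, ∀ x ∈ Om, f x ∈ Pc Φ.F c → x ∉ Msh_715.I (T.H (ct c)) → r₀ c ≤ rdF Φ c (f x)) :
    ∃ Z : Φ.F → Set ℝ, (∀ c, (Z c).Countable) ∧ ∀ L : Φ.F → Finset ℝ,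
      (∀ c, ∀ t ∈ L c, t ∈ Ioo (0 : ℝ) 1) → (∀ c, ∀ t ∈ L c, t ∉ Z c) →
      (∀ c, ∀ t ∈ L c, ∀ x ∈ Om, T.dim x = 0 → Φ.lev c (f x) ≠ t) →
      (∀ c, ∀ t ∈ L c, ∀ x ∈ Om, T.dim x = 1 → {y ∈ T.cc x | Φ.lev c (f y) = t}.Finite) →
      (∀ c c', c ≠ c' → ∀ t ∈ L c, ∀ t' ∈ L c', ∀ x ∈ Om, T.dim x = 1 →
        ¬ (Φ.lev c (f x) = t ∧ Φ.lev c' (f x) = t')) →
      GFam T (fun j : JJ Φ L => va (Pc Φ.F) (bc (F := Φ.F)) (RF Φ r₀) f j.1) (fun j => j.2.1)
        (shS Om (Pc Φ.F) (bc (F := Φ.F)) (RF Φ r₀) f (fun j : JJ Φ L => j.1) (fun j => j.2.1))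
        (fun j => j.1) := by
  have F := foam4 Φ hLa
  have hR := retF Φ hLa h0 h1
  choose Z hZ1 hZ2 using fun c : Φ.F => exists_bad H F hR T c
  refine ⟨Z, hZ1, fun L hL1 hL2 hv hf hs => ?_⟩
  have h3 : Module.finrank ℝ E3 = 3 := by simp
  have hlow : ∀ x ∈ Om, T.dim x ≤ 2 → ∀ a,
      va (Pc Φ.F) (bc (F := Φ.F)) (RF Φ r₀) f a x = Φ.lev a (f x) := by
    intro x hx hd
    refine (va_eq Φ hLa H h0 h1 h2 hx fun c hc => ?_).1
    have := dim_I hc
    rw [h3] at this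
    omega
  refine gfam (fun j => ?_) ?_ ?_ ?_
  · refine hZ2 j.1 j.2.1 (hL2 _ _ j.2.2) (hL1 _ _ j.2.2) (fun x hx hd => ?_) (fun x hx hd => ?_)
    · rw [hlow x hx (by omega)]
      exact hv _ _ j.2.2 x hx hd
    · refine (hf _ _ j.2.2 x hx hd).subset ?_
      rintro y ⟨hy, hyt⟩
      refine ⟨hy, ?_⟩
      rw [← hlow y (T.cc_sub_Om hx hy) (by have := T.dim_le hy; omega)]
      exact hyt
  · rintro ⟨c, t, ht⟩ ⟨c', t', ht'⟩ x ⟨hx, h4⟩ ⟨-, h5⟩ hd
    have e1 : Φ.lev c (f x) = t := by rw [← hlow x hx (by omega)]; exact h4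
    have e2 : Φ.lev c' (f x) = t' := by rw [← hlow x hx (by omega)]; exact h5
    have hd1 : T.dim x = 1 := by
      rcases Nat.lt_or_ge (T.dim x) 1 with h6 | h6
      · exact (hv c t ht x hx (by omega) e1).elim
      · omega
    by_cases hcc : c = c'
    · subst hcc
      have : t = t' := e1.symm.trans e2
      subst this
      rfl
    · exact (hs c c' hcc t ht t' ht' x hx hd1 ⟨e1, e2⟩).elim
  · rintro ⟨c, t, ht⟩ ⟨c', t', ht'⟩ h4 h5
    simp only at h4 h5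
    subst h4
    subst h5
    rfl
  · intro a
    have : {j : JJ Φ L | j.1 = a} ⊆ range (fun t : {t // t ∈ L a} => (⟨a, t⟩ : JJ Φ L)) := by
      rintro ⟨c, t⟩ hc
      simp only [mem_ofPred_eq] at hc
      subst hc
      exact ⟨t, rfl⟩
    exact (Set.finite_range _).subset this

end mach

end Crest.Agent.R096.Init_543
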