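import Mathlib

/-!
# R096 (row 96), P8-CELLEXT, part 1: PL maps on sets, PL equivalences of sets, balls, cone extension
(helper537)

`PLOn f K`: `f` is continuous on `K` and a selection of finitely many affine maps on `K`.
`PLEquiv A B`: a PL map `A → B` with a PL inverse (both are data).
`IsBall k K dK`: `K` is a standard PL `k`-ball with boundary sphere `dK`.
`IsBall.extend`: every PL equivalence of the boundaries of two `k`-balls extends to the balls.
-/

set_option autoImplicit false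

open Set Metric

namespace Crest.Agent.R096.Ce_537

section PLOn

variable {E F G : Type*} [NormedAddCommGroup E] [NormedSpace ℝ E]
  [NormedAddCommGroup F] [NormedSpace ℝ F] [NormedAddCommGroup G] [NormedSpace ℝ G]

/-- `f` is continuous on `K` and, on `K`, a selection of finitely many affine maps. -/
def PLOn (f : E → F) (K : Set E) : Prop :=
  ContinuousOn f K ∧ ∃ S : Finset (E →ᵃ[ℝ] F), ∀ x ∈ K, ∃ g ∈ S, f x = g x

lemma PLOn.mono {f : E → F} {K L : Set E} (h : PLOn f K) (hL : L ⊆ K) : PLOn f L := by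
  obtain ⟨h1, S, h2⟩ := h
  exact ⟨h1.mono hL, S, fun x hx => h2 x (hL hx)⟩

lemma PLOn.congr {f g : E → F} {K : Set E} (h : PLOn f K) (e : EqOn g f K) : PLOn g K := by
  obtain ⟨h1, S, h2⟩ := h
  refine ⟨h1.congr e, S, fun x hx => ?_⟩
  obtain ⟨a, ha, hxa⟩ := h2 x hx
  exact ⟨a, ha, by rw [e hx, hxa]⟩

lemma plOn_id (K : Set E) : PLOn (fun x : E => x) K :=
  ⟨continuousOn_id, {AffineMap.id ℝ E}, fun _ _ => ⟨_, Finset.mem_singleton_self _, rfl⟩⟩

lemma plOn_const (c : F) (K : Set E) : PLOn (fun _ : E => c) K :=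
  ⟨continuousOn_const, {AffineMap.const ℝ E c}, fun _ _ =>
    ⟨_, Finset.mem_singleton_self _, rfl⟩⟩

lemma plOn_affine [FiniteDimensional ℝ E] (a : E →ᵃ[ℝ] F) (K : Set E) : PLOn (fun x => a x) K :=
  ⟨(AffineMap.continuous_of_finiteDimensional a).continuousOn, {a}, fun _ _ =>
    ⟨_, Finset.mem_singleton_self _, rfl⟩⟩

lemma PLOn.comp {f : E → F} {g : F → G} {K : Set E} {L : Set F} (hg : PLOn g L)
    (hf : PLOn f K) (hm : MapsTo f K L) : PLOn (fun x => g (f x)) K := by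
  classical
  obtain ⟨f1, S, f2⟩ := hf
  obtain ⟨g1, T, g2⟩ := hg
  refine ⟨g1.comp f1 hm, (T ×ˢ S).image (fun p => p.1.comp p.2), fun x hx => ?_⟩
  obtain ⟨a, ha, hxa⟩ := f2 x hx
  obtain ⟨b, hb, hxb⟩ := g2 (f x) (hm hx)
  refine ⟨b.comp a, Finset.mem_image.2 ⟨(b, a), Finset.mem_product.2 ⟨hb, ha⟩, rfl⟩, ?_⟩
  show g (f x) = b (a x)
  rw [hxb, hxa]

lemma PLOn.union {f : E → F} {K L : Set E} (hK : PLOn f K) (hL : PLOn f L)
    (cK : IsClosed K) (cL : IsClosed L) : PLOn f (K ∪ L) := by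
  classical
  obtain ⟨k1, S, k2⟩ := hK
  obtain ⟨l1, T, l2⟩ := hL
  refine ⟨k1.union_of_isClosed l1 cK cL, S ∪ T, ?_⟩
  rintro x (hx | hx)
  · obtain ⟨a, ha, e⟩ := k2 x hx
    exact ⟨a, Finset.mem_union_left _ ha, e⟩
  · obtain ⟨a, ha, e⟩ := l2 x hx
    exact ⟨a, Finset.mem_union_right _ ha, e⟩

lemma plOn_empty (f : E → F) : PLOn f ∅ :=
  ⟨continuousOn_empty f, ∅, fun x hx => absurd hx (notMem_empty x)⟩

lemma plOn_biUnion {ι : Type*} {f : E → F} {K : ι → Set E} (s : Set ι) (hs : s.Finite)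
    (h : ∀ i ∈ s, PLOn f (K i)) (hc : ∀ i ∈ s, IsClosed (K i)) :
    PLOn f (⋃ i ∈ s, K i) := by
  induction s, hs using Set.Finite.induction_on with
  | empty => simpa using plOn_empty f
  | @insert a s ha hs ih =>
    rw [biUnion_insert]
    refine PLOn.union (h a (mem_insert _ _)) (ih (fun i hi => h i (mem_insert_of_mem _ hi))
      (fun i hi => hc i (mem_insert_of_mem _ hi))) (hc a (mem_insert _ _)) ?_
    exact hs.isClosed_biUnion (fun i hi => hc i (mem_insert_of_mem _ hi))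

end PLOn

section PLEquiv

variable {E F G : Type*} [NormedAddCommGroup E] [NormedSpace ℝ E]
  [NormedAddCommGroup F] [NormedSpace ℝ F] [NormedAddCommGroup G] [NormedSpace ℝ G]

/-- A PL equivalence between the sets `A` and `B`: a PL map and its PL inverse. -/
structure PLEquiv (A : Set E) (B : Set F) where
  f : E → F
  g : F → E
  pf : PLOn f A
  pg : PLOn g B
  mf : MapsTo f A B
  mg : MapsTo g B A
  li : ∀ x ∈ A, g (f x) = x
  ri : ∀ y ∈ B, f (g y) = y

namespace PLEquiv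

/-- the identity -/
def refl (A : Set E) : PLEquiv A A :=
  ⟨fun x => x, fun x => x, plOn_id A, plOn_id A, fun _ h => h, fun _ h => h,
    fun _ _ => rfl, fun _ _ => rfl⟩

/-- the inverse -/
def symm {A : Set E} {B : Set F} (e : PLEquiv A B) : PLEquiv B A :=
  ⟨e.g, e.f, e.pg, e.pf, e.mg, e.mf, e.ri, e.li⟩

/-- composition -/
def trans {A : Set E} {B : Set F} {C : Set G} (e : PLEquiv A B) (e' : PLEquiv B C) :
    PLEquiv A C where
  f := fun x => e'.f (e.f x)
  g := fun y => e.g (e'.g y)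
  pf := e'.pf.comp e.pf e.mf
  pg := e.pg.comp e'.pg e'.mg
  mf := fun _ hx => e'.mf (e.mf hx)
  mg := fun _ hy => e.mg (e'.mg hy)
  li := fun x hx => by rw [e'.li _ (e.mf hx), e.li x hx]
  ri := fun y hy => by rw [e.ri _ (e'.mg hy), e'.ri y hy]

lemma image_eq {A : Set E} {B : Set F} (e : PLEquiv A B) : e.f '' A = B := by
  ext y
  constructor
  · rintro ⟨x, hx, rfl⟩
    exact e.mf hx
  · intro hy
    exact ⟨e.g y, e.mg hy, e.ri y hy⟩

lemma injOn {A : Set E} {B : Set F} (e : PLEquiv A B) : InjOn e.f A := by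
  intro x hx y hy h
  rw [← e.li x hx, ← e.li y hy, h]

/-- restriction to a subset and its image -/
def restr {A : Set E} {B : Set F} (e : PLEquiv A B) {A' : Set E} {B' : Set F}
    (hA : A' ⊆ A) (hB : B' ⊆ B) (h1 : MapsTo e.f A' B') (h2 : MapsTo e.g B' A') :
    PLEquiv A' B' :=
  ⟨e.f, e.g, e.pf.mono hA, e.pg.mono hB, h1, h2, fun x hx => e.li x (hA hx),
    fun y hy => e.ri y (hB hy)⟩

/-- restriction to a subset, target = image -/
def restrImage {A : Set E} {B : Set F} (e : PLEquiv A B) {A' : Set E} (hA : A' ⊆ A) :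
    PLEquiv A' (e.f '' A') :=
  e.restr hA (by rintro _ ⟨x, hx, rfl⟩; exact e.mf (hA hx)) (fun x hx => ⟨x, hx, rfl⟩)
    (by rintro _ ⟨x, hx, rfl⟩; rw [e.li x (hA hx)]; exact hx)

/-- change of the functions off the sets -/
def congr {A : Set E} {B : Set F} (e : PLEquiv A B) (f' : E → F) (g' : F → E)
    (hf : EqOn f' e.f A) (hg : EqOn g' e.g B) : PLEquiv A B :=
  ⟨f', g', e.pf.congr hf, e.pg.congr hg, fun x hx => by rw [hf hx]; exact e.mf hx,
    fun y hy => by rw [hg hy]; exact e.mg hy,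
    fun x hx => by rw [hf hx, hg (e.mf hx)]; exact e.li x hx,
    fun y hy => by rw [hg hy, hf (e.mg hy)]; exact e.ri y hy⟩

end PLEquiv

end PLEquiv

/-! ### the cube and cone extension -/

section Cone

variable {k : ℕ} {F : Type*} [NormedAddCommGroup F] [NormedSpace ℝ F]

/-- the model cube `[-1,1]^k` -/
abbrev cube (k : ℕ) : Set (Fin k → ℝ) := closedBall 0 1

/-- its boundary -/
abbrev sph (k : ℕ) : Set (Fin k → ℝ) := sphere 0 1

/-- radial extension -/
noncomputable def cone (η : (Fin k → ℝ) → (Fin k → ℝ)) : (Fin k → ℝ) → (Fin k → ℝ) :=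
  fun x => ‖x‖ • η (‖x‖⁻¹ • x)

lemma cone_zero (η : (Fin k → ℝ) → (Fin k → ℝ)) : cone η 0 = 0 := by
  simp [cone]

lemma smul_mem_sph {x : Fin k → ℝ} (hx : x ≠ 0) : ‖x‖⁻¹ • x ∈ sph k := by
  have hn : ‖x‖ ≠ 0 := norm_ne_zero_iff.2 hx
  simp only [sph, mem_sphere_iff_norm, sub_zero, norm_smul, norm_inv, norm_norm]
  exact inv_mul_cancel₀ hn

lemma cone_sph (η : (Fin k → ℝ) → (Fin k → ℝ)) {x : Fin k → ℝ} (hx : x ∈ sph k) :
    cone η x = η x := by
  have h : ‖x‖ = 1 := by simpa using hx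
  simp [cone, h]

lemma norm_cone {η : (Fin k → ℝ) → (Fin k → ℝ)} (hη : MapsTo η (sph k) (sph k))
    (x : Fin k → ℝ) : ‖cone η x‖ = ‖x‖ := by
  by_cases hx : x = 0
  · subst hx; simp [cone_zero]
  · have h : ‖η (‖x‖⁻¹ • x)‖ = 1 := by simpa using hη (smul_mem_sph hx)
    simp [cone, norm_smul, h]

lemma cone_comp {η ξ : (Fin k → ℝ) → (Fin k → ℝ)} (hη : MapsTo η (sph k) (sph k))
    (x : Fin k → ℝ) : cone ξ (cone η x) = cone (fun y => ξ (η y)) x := by
  by_cases hx : x = 0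
  · subst hx; simp [cone_zero]
  · have hn : ‖x‖ ≠ 0 := norm_ne_zero_iff.2 hx
    have h : ‖cone η x‖ = ‖x‖ := norm_cone hη x
    have h2 : ‖x‖⁻¹ • cone η x = η (‖x‖⁻¹ • x) := by
      simp only [cone]
      rw [smul_smul, inv_mul_cancel₀ hn, one_smul]
    show ‖cone η x‖ • ξ (‖cone η x‖⁻¹ • cone η x) = ‖x‖ • ξ (η (‖x‖⁻¹ • x))
    rw [h, h2]

lemma cone_id {η : (Fin k → ℝ) → (Fin k → ℝ)} (hη : ∀ y ∈ sph k, η y = y)
    (x : Fin k → ℝ) : cone η x = x := by
  by_cases hx : x = 0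
  · subst hx; simp [cone_zero]
  · have hn : ‖x‖ ≠ 0 := norm_ne_zero_iff.2 hx
    simp only [cone]
    rw [hη _ (smul_mem_sph hx), smul_smul, mul_inv_cancel₀ hn, one_smul]

/-- the linear map `x ↦ g.linear x + (c * x i) • g 0` -/
noncomputable def lin (g : (Fin k → ℝ) →ᵃ[ℝ] (Fin k → ℝ)) (i : Fin k) (c : ℝ) :
    (Fin k → ℝ) →ᵃ[ℝ] (Fin k → ℝ) :=
  (g.linear + (c • LinearMap.proj (R := ℝ) (φ := fun _ : Fin k => ℝ) i).smulRight (g 0)).toAffineMap

lemma lin_apply (g : (Fin k → ℝ) →ᵃ[ℝ] (Fin k → ℝ)) (i : Fin k) (c : ℝ) (x : Fin k → ℝ) :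
    lin g i c x = g.linear x + (c * x i) • g 0 := by
  simp [lin]

lemma affine_apply (g : (Fin k → ℝ) →ᵃ[ℝ] (Fin k → ℝ)) (x : Fin k → ℝ) :
    g x = g.linear x + g 0 := by
  have := g.map_vadd 0 x
  simpa using this

lemma exists_coord {x : Fin k → ℝ} (hx : x ≠ 0) : ∃ i : Fin k, ‖x‖ = |x i| := by
  have hk : Nonempty (Fin k) := by
    by_contra hne
    rw [not_nonempty_iff] at hne
    exact hx (Subsingleton.elim _ _)
  obtain ⟨i, -, hi⟩ := Finset.exists_mem_eq_sup' (s := (Finset.univ : Finset (Fin k)))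
    Finset.univ_nonempty (fun i => ‖x i‖₊)
  refine ⟨i, ?_⟩
  have h1 : ‖x‖₊ = ‖x i‖₊ := by
    rw [Pi.nnnorm_def, ← hi, Finset.sup'_eq_sup]
  have h2 : ‖x‖ = ‖x i‖ := congrArg NNReal.toReal h1
  rw [h2, Real.norm_eq_abs]

lemma plOn_cone {η : (Fin k → ℝ) → (Fin k → ℝ)} (hη : MapsTo η (sph k) (sph k))
    (pη : PLOn η (sph k)) (K : Set (Fin k → ℝ)) : PLOn (cone η) K := by
  classical
  obtain ⟨hc, S, hS⟩ := pη
  constructor
  · -- continuity
    have hcont : Continuous (cone η) := by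
      rw [continuous_iff_continuousAt]
      intro x
      by_cases hx : x = 0
      · subst hx
        rw [ContinuousAt, cone_zero]
        rw [tendsto_zero_iff_norm_tendsto_zero]
        have : (fun y => ‖cone η y‖) = fun y : Fin k → ℝ => ‖y‖ := by
          funext y; exact norm_cone hη y
        rw [this]
        simpa using (continuous_norm (E := Fin k → ℝ)).tendsto 0
      · have h1 : ContinuousAt (fun y : Fin k → ℝ => ‖y‖⁻¹ • y) x :=
          (continuous_norm.continuousAt.inv₀ (norm_ne_zero_iff.2 hx)).smul continuousAt_id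
        have h2 : ContinuousAt (fun y : Fin k → ℝ => η (‖y‖⁻¹ • y)) x := by
          have h3 : ContinuousWithinAt η (sph k) (‖x‖⁻¹ • x) := hc _ (smul_mem_sph hx)
          have h4 : ContinuousWithinAt (fun y : Fin k → ℝ => ‖y‖⁻¹ • y) {0}ᶜ x :=
            h1.continuousWithinAt
          have h5 : ContinuousWithinAt (fun y : Fin k → ℝ => η (‖y‖⁻¹ • y)) {0}ᶜ x :=
            ContinuousWithinAt.comp (f := fun y : Fin k → ℝ => ‖y‖⁻¹ • y) (g := η)
              (t := sph k) h3 h4 (fun y hy => smul_mem_sph hy)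
          exact h5.continuousAt (isOpen_compl_singleton.mem_nhds hx)
        exact continuous_norm.continuousAt.smul h2
    exact hcont.continuousOn
  · refine ⟨insert (0 : (Fin k → ℝ) →ᵃ[ℝ] (Fin k → ℝ))
      ((S ×ˢ (Finset.univ : Finset (Fin k × Bool))).image
        (fun p => lin p.1 p.2.1 (if p.2.2 then 1 else -1))), fun x _ => ?_⟩
    by_cases hx : x = 0
    · subst hx
      exact ⟨0, Finset.mem_insert_self _ _, by simp [cone_zero]⟩
    · obtain ⟨g, hg, e⟩ := hS _ (smul_mem_sph hx)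
      obtain ⟨i, hi⟩ := exists_coord hx
      have hn : ‖x‖ ≠ 0 := norm_ne_zero_iff.2 hx
      have key : cone η x = g.linear x + ‖x‖ • g 0 := by
        show ‖x‖ • η (‖x‖⁻¹ • x) = _
        rw [e, affine_apply, smul_add, map_smul, smul_smul, mul_inv_cancel₀ hn, one_smul]
      refine ⟨lin g i (if (decide (0 ≤ x i)) then 1 else -1), ?_, ?_⟩
      · refine Finset.mem_insert_of_mem (Finset.mem_image.2 ⟨(g, (i, decide (0 ≤ x i))), ?_, rfl⟩)
        exact Finset.mem_product.2 ⟨hg, Finset.mem_univ _⟩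
      · rw [key, lin_apply, hi]
        congr 2
        by_cases h0 : 0 ≤ x i
        · simp [h0, abs_of_nonneg h0]
        · simp [h0, abs_of_neg (not_le.1 h0)]

/-- **cone extension** of a PL equivalence of the boundary of the cube -/
noncomputable def coneEquiv (e : PLEquiv (sph k) (sph k)) : PLEquiv (cube k) (cube k) where
  f := cone e.f
  g := cone e.g
  pf := plOn_cone e.mf e.pf _
  pg := plOn_cone e.mg e.pg _
  mf := fun x hx => by
    have := norm_cone e.mf x
    simp only [cube, mem_closedBall_zero_iff] at hx ⊢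
    rw [this]; exact hx
  mg := fun x hx => by
    have := norm_cone e.mg x
    simp only [cube, mem_closedBall_zero_iff] at hx ⊢
    rw [this]; exact hx
  li := fun x _ => by
    rw [cone_comp e.mf]
    exact cone_id (fun y hy => e.li y hy) x
  ri := fun x _ => by
    rw [cone_comp e.mg]
    exact cone_id (fun y hy => e.ri y hy) x

lemma sph_subset_cube : sph k ⊆ cube k := sphere_subset_closedBall

end Cone

/-! ### balls -/

section Ball

variable {E F G : Type*} [NormedAddCommGroup E] [NormedSpace ℝ E]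
  [NormedAddCommGroup F] [NormedSpace ℝ F] [NormedAddCommGroup G] [NormedSpace ℝ G]

/-- `K` is a standard PL `k`-ball with boundary sphere `dK`. -/
def IsBall (k : ℕ) (K dK : Set E) : Prop :=
  ∃ e : PLEquiv (cube k) K, e.f '' (sph k) = dK

lemma IsBall.subset {k : ℕ} {K dK : Set E} (h : IsBall k K dK) : dK ⊆ K := by
  obtain ⟨e, rfl⟩ := h
  rintro _ ⟨x, hx, rfl⟩
  exact e.mf (sph_subset_cube hx)

lemma IsBall.isCompact {k : ℕ} {K dK : Set E} (h : IsBall k K dK) : IsCompact K := by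
  obtain ⟨e, -⟩ := h
  rw [← e.image_eq]
  exact (isCompact_closedBall (0 : Fin k → ℝ) 1).image_of_continuousOn e.pf.1

lemma IsBall.isCompact_bdry {k : ℕ} {K dK : Set E} (h : IsBall k K dK) : IsCompact dK := by
  obtain ⟨e, rfl⟩ := h
  exact (isCompact_sphere (0 : Fin k → ℝ) 1).image_of_continuousOn
    (e.pf.1.mono sph_subset_cube)

lemma IsBall.isClosed {k : ℕ} {K dK : Set E} (h : IsBall k K dK) : IsClosed K :=
  h.isCompact.isClosed

lemma IsBall.isClosed_bdry {k : ℕ} {K dK : Set E} (h : IsBall k K dK) : IsClosed dK :=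
  h.isCompact_bdry.isClosed

lemma IsBall.nonempty {k : ℕ} {K dK : Set E} (h : IsBall k K dK) : K.Nonempty := by
  obtain ⟨e, -⟩ := h
  exact ⟨e.f 0, e.mf (by simp [cube])⟩

/-- the image of a ball under a PL equivalence is a ball -/
lemma IsBall.map {k : ℕ} {K dK : Set E} {L : Set F} (h : IsBall k K dK) (e : PLEquiv K L) :
    IsBall k L (e.f '' dK) := by
  obtain ⟨a, rfl⟩ := h
  refine ⟨a.trans e, ?_⟩
  rw [image_image]
  rfl

lemma isBall_cube (k : ℕ) : IsBall k (cube k) (sph k) :=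
  ⟨PLEquiv.refl _, by simp [PLEquiv.refl]⟩

/-- **Extension over balls**: a PL equivalence of the boundaries extends. -/
theorem IsBall.extend {k : ℕ} {K dK : Set E} {L dL : Set F} (hK : IsBall k K dK)
    (hL : IsBall k L dL) (e : PLEquiv dK dL) :
    ∃ e' : PLEquiv K L, EqOn e'.f e.f dK ∧ EqOn e'.g e.g dL := by
  obtain ⟨a, rfl⟩ := hK
  obtain ⟨b, rfl⟩ := hL
  let a' : PLEquiv (sph k) (a.f '' sph k) := a.restrImage sph_subset_cube
  let b' : PLEquiv (sph k) (b.f '' sph k) := b.restrImage sph_subset_cube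
  let m : PLEquiv (sph k) (sph k) := (a'.trans e).trans b'.symm
  refine ⟨(a.symm.trans (coneEquiv m)).trans b, ?_, ?_⟩
  · rintro _ ⟨x, hx, rfl⟩
    show b.f (cone m.f (a.g (a.f x))) = e.f (a.f x)
    rw [a.li x (sph_subset_cube hx), cone_sph _ hx]
    show b.f (b.g (e.f (a.f x))) = _
    have h1 : e.f (a.f x) ∈ b.f '' sph k := e.mf ⟨x, hx, rfl⟩
    obtain ⟨y, hy, hye⟩ := h1
    rw [← hye, b.li y (sph_subset_cube hy)]
  · rintro _ ⟨x, hx, rfl⟩
    show a.f (cone m.g (b.g (b.f x))) = e.g (b.f x)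
    rw [b.li x (sph_subset_cube hx), cone_sph _ hx]
    show a.f (a.g (e.g (b.f x))) = _
    have h1 : e.g (b.f x) ∈ a.f '' sph k := e.mg ⟨x, hx, rfl⟩
    obtain ⟨y, hy, hye⟩ := h1
    rw [← hye, a.li y (sph_subset_cube hy)]

end Ball

end Crest.Agent.R096.Ce_537
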