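import Crest.Agent.R096.SkC1_961
import Crest.Agent.R096.Ce1_537

/-!
Row 96 (S0127), helper337 (bottom half).  **The literal Prop `MachBF`, FINAL version** (replaces
`SkC1_961.MachBF`): #9694 / #9715 (constant = function of the shape), #9765 / #9777 (`dens`, `m0`,
relative error in `core`), #10115 / #10411 (`grid` for all closed cells), #9880 / #9938 / #10111 /
#10318 / #10429 (tiny cores = finite sets of tiles, `θ`, `φ` given, `tr`, `reg`, `lip` off a second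
finite set `V c`), #9878 (a) (`κ3`), #10362 (`Star`).
Definitions only.
-/

set_option autoImplicit false
set_option linter.style.longLine false
set_option linter.unusedSectionVars false

open MeasureTheory Set Filter Topology Metric
open scoped ENNReal

namespace Crest.Agent.R096.Mbf_337

open Crest.Agent.R096.Bsp_628 Crest.Agent.R096.Brk1_582 Crest.Agent.R096.Brk3_582
open Crest.Agent.R096.Brk5_582
open Crest.Agent.R096.Msh_715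
open Crest.Agent.R96.Push_899
open Crest.Agent.R096.SkC1_961 (E3 Hom3 IsPush FoamD Cfg th NN)
open Crest.Agent.R096.Ce_537 (PLEquiv IsBall)

noncomputable section

variable {δ κ0 R c0 : ℝ} {La Om : Set E3} {ι : Type}

/-- the coordinates of the foam -/
def sb (Φ : FoamD δ κ0 R c0 La) (y : E3) (c : Φ.F) : ℝ := sc (Pc Φ.F) (bc (F := Φ.F)) y c

/-- union of the tiles of `J` -/
def KJ (T : Tiling Om ι) (J : Set ι) : Set E3 := ⋃ i ∈ J, P (T.H i)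

/-- the gauge of the open brick `c` with centre `p` -/
def gau (c : Bx (Fin 3)) (p y : E3) : ℝ := sInf {r : ℝ | 0 < r ∧ ∀ k, r⁻¹ * (y k - p k) + p k ∈ Icc (c.lo k) (c.hi k)}

/-- on `{gau ≤ r}` the push is constant along the straight rays from the hole (539 #10454) -/
def RayTo (Φ : FoamD δ κ0 R c0 La) (c : Φ.F) (r : ℝ) : Prop :=
  ∀ y : E3, y ≠ (Φ.B c).lo → gau c.1 (Φ.B c).lo y ≤ r →
    Φ.Psi y = Φ.Psi ((Φ.B c).lo + (r / gau c.1 (Φ.B c).lo y) • (y - (Φ.B c).lo))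

/-- **exact core** of the brick `c`: the tile `i` is `A⁻¹ (box)`, `box = z + lam • brick`. -/
structure Exact (Φ : FoamD δ κ0 R c0 La) (T : Tiling Om ι) (f : E3 → E3) (κ1 κ2 : ℝ) (c : Φ.F)
    (i : ι) (A : E3 ≃ᵃ[ℝ] E3) (lam : ℝ) (z : E3) : Prop where
  lam0 : 0 < lam
  lam1 : lam < 1
  box_in : ∀ k, c.1.lo k < z k + lam * c.1.lo k ∧ z k + lam * c.1.hi k < c.1.hi k
  hole : ∀ k, z k + lam * c.1.lo k + κ2 * (lam * c.1.side k) ≤ (Φ.B c).lo k ∧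
    (Φ.B c).hi k ≤ z k + lam * c.1.hi k - κ2 * (lam * c.1.side k)
  ray : ∀ y : E3, (∀ k, z k + lam * c.1.lo k ≤ y k ∧ y k ≤ z k + lam * c.1.hi k) →
    (∃ k, y k = z k + lam * c.1.lo k ∨ y k = z k + lam * c.1.hi k) →
    Φ.pu c y = fun k => (y k - z k) / lam
  tile : P (T.H i) = A ⁻¹' {y | ∀ k, z k + lam * c.1.lo k ≤ y k ∧ y k ≤ z k + lam * c.1.hi k}
  /-- `f` is close to `A` on the collar of relative size `κ2` outside the open core -/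
  nbd : ∀ x : E3, (∀ k, z k + lam * c.1.lo k - κ2 * (lam * c.1.side k) ≤ A x k ∧
      A x k ≤ z k + lam * c.1.hi k + κ2 * (lam * c.1.side k)) →
    x ∈ Om ∧ (x ∉ interior (P (T.H i)) → ‖f x - A x‖ ≤ κ1 * (lam * c.1.sz))
  /-- the core is mapped into the open brick -/
  inside : ∀ x ∈ P (T.H i), ∀ k, c.1.lo k < f x k ∧ f x k < c.1.hi k
  miss : ∀ x ∈ Om, x ∉ P (T.H i) → f x ∉ (Φ.B c).S

/-- **tiny core** (only for `p < 3`; #9880, #9938, #10111).  `J` = the tiles of the core, their union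
`K` is a PL ball with the preimage of the hole (one point) inside, `θ` = PL homeomorphism of
`frontier K` onto the boundary of the brick near `Psi o f`; `J0 ⊆ J` = the tiles near the hole (not
fine), `V ⊇ J` = the tiles near the core (no estimate there), `φ` = PL function for the slices. -/
structure Tiny (Φ : FoamD δ κ0 R c0 La) (T : Tiling Om ι) (f : E3 → E3) (κ1 : ℝ) (c : Φ.F)
    (J0 J V : Set ι) (θ : E3 → E3) (φ : E3 → ℝ) : Prop where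
  pt : (Φ.B c).lo = (Φ.B c).hi
  finV : V.Finite
  sub0 : J0 ⊆ J
  sub : J ⊆ V
  ball : IsBall 3 (KJ T J) (frontier (KJ T J))
  mem : ∃ i ∈ J0, ∃ x ∈ I (T.H i), f x = (Φ.B c).lo
  inside : ∀ x ∈ KJ T V, ∀ k, c.1.lo k < f x k ∧ f x k < c.1.hi k
  /-- radii: `J0` inside `ρ1`, `frontier K` between `ρ2` and `ρ3`, everything meeting `ρ4` in `V`; `d` =
  oscillation on the tiles of `V \ J0` and the distance of `θ` and `Psi o f` -/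
  room : ∃ ρ1 ρ2 ρ3 ρ4 d : ℝ, 0 < d ∧ d ≤ κ1 ∧ 0 < ρ1 ∧ ρ1 + 16 * d ≤ ρ2 ∧ ρ2 ≤ ρ3 ∧
    ρ3 + 16 * d ≤ ρ4 ∧ ρ4 < 1 ∧ RayTo Φ c ρ4 ∧
    (∀ x ∈ KJ T J0, gau c.1 (Φ.B c).lo (f x) < ρ1) ∧
    (∀ x ∈ frontier (KJ T J), ρ2 ≤ gau c.1 (Φ.B c).lo (f x) ∧ gau c.1 (Φ.B c).lo (f x) ≤ ρ3) ∧
    (∀ i, (∃ x ∈ P (T.H i), gau c.1 (Φ.B c).lo (f x) ≤ ρ4) → i ∈ V) ∧
    (∀ i ∈ V, i ∉ J0 → ∀ x ∈ P (T.H i), ∀ y ∈ P (T.H i),
      |gau c.1 (Φ.B c).lo (f x) - gau c.1 (Φ.B c).lo (f y)| ≤ d ∧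
      ‖Φ.Psi (f x) - Φ.Psi (f y)‖ ≤ d * c.1.sz ∧ ∀ c', |Φ.lev c' (f x) - Φ.lev c' (f y)| ≤ d) ∧
    ∀ x ∈ frontier (KJ T J), ‖θ x - Φ.Psi (f x)‖ ≤ d * c.1.sz
  bij : ∃ e : PLEquiv (frontier (KJ T J)) (frontier c.1.set), ∀ x ∈ frontier (KJ T J), e.f x = θ x
  aff : ∀ x ∈ frontier (KJ T J), T.dim x = 2 → ∃ u : E3 →ᵃ[ℝ] E3, ∀ y ∈ T.cc x, θ y = u y
  lin : ∀ x ∈ frontier (KJ T J), T.dim x = 2 → ∀ a : Φ.F, ∃ g : E3 →ᵃ[ℝ] ℝ, ∀ y ∈ T.cc x,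
    sb Φ (θ y) a = g y
  /-- a closed cell in `K` which meets `frontier K` is in `frontier K` or meets it in one closed cell of
  dimension one less -/
  tr : ∀ x ∈ KJ T J, T.cc x ⊆ KJ T J → (T.cc x ∩ frontier (KJ T J)).Nonempty →
    T.cc x ⊆ frontier (KJ T J) ∨
      ∃ y ∈ frontier (KJ T J), T.cc x ∩ frontier (KJ T J) = T.cc y ∧ T.dim y + 1 = T.dim x
  /-- over a point of `frontier K` there is one inner cell of the next dimension, and it is in every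
  inner cell at this point (184 #10539) -/
  st : ∀ z ∈ frontier (KJ T J), ∃ x ∈ KJ T J, x ∉ frontier (KJ T J) ∧ z ∈ T.cc x ∧
    T.dim x = T.dim z + 1 ∧ ∀ y ∈ KJ T J, y ∉ frontier (KJ T J) → z ∈ T.cc y → x ∈ T.cc y
  /-- on the 1-cells of the tiles of `V` all Lipschitz functions of `f` have finite level sets -/
  reg : ∀ x ∈ KJ T V, T.dim x = 1 → ∀ ℓ : E3 → ℝ, (∃ k, LipschitzWith k ℓ) →
    ∀ᵐ t : ℝ, {y ∈ T.cc x | ℓ (f y) = t}.Finite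
  /-- the slices `{φ = t}`, `a < t < t0`, are parallel to `frontier K = {φ = t0}` -/
  slice : ∃ a t0 : ℝ, a < t0 ∧ ContinuousOn φ (KJ T J) ∧
    (∀ i ∈ J, ∃ g : E3 →ᵃ[ℝ] ℝ, EqOn φ g (P (T.H i))) ∧
    (∀ x ∈ KJ T J, φ x ≤ t0 ∧ (φ x = t0 ↔ x ∈ frontier (KJ T J))) ∧
    ∀ v ∈ KJ T J, T.dim v = 0 → φ v ≤ a ∨ φ v = t0

/-- all cores: exact on `X`, tiny off `X`; `J c` = the tiles of the core, `V c` = the tiles near it. -/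
structure Cores (Φ : FoamD δ κ0 R c0 La) (T : Tiling Om ι) (f : E3 → E3) (κ1 κ2 : ℝ) (X : Set Φ.F)
    (J0 J V : Φ.F → Set ι) (ct : Φ.F → ι) (A : Φ.F → E3 ≃ᵃ[ℝ] E3) (lam : Φ.F → ℝ) (z : Φ.F → E3)
    (θ : Φ.F → E3 → E3) (φ : Φ.F → E3 → ℝ) : Prop where
  disj : ∀ c c', c ≠ c' → Disjoint (V c) (V c')
  one : ∀ c ∈ X, J0 c = {ct c} ∧ J c = {ct c} ∧ V c = {ct c}
  exact_ : ∀ c ∈ X, Exact Φ T f κ1 κ2 c (ct c) (A c) (lam c) (z c)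
  tiny : ∀ c ∉ X, Tiny Φ T f κ1 c (J0 c) (J c) (V c) (θ c) (φ c)

/-- **fineness** off the tiles near the holes -/
structure Fine (Φ : FoamD δ κ0 R c0 La) (T : Tiling Om ι) (f : E3 → E3) (ε : ℝ) (J0 : Φ.F → Set ι) :
    Prop where
  psi : ∀ i, (∀ c, i ∉ J0 c) → ∀ x ∈ P (T.H i), ∀ y ∈ P (T.H i), ∀ c : Φ.F,
    Φ.Psi (f x) ∈ c.1.set → ‖Φ.Psi (f y) - Φ.Psi (f x)‖ ≤ ε * c.1.sz
  lev : ∀ i, (∀ c, i ∉ J0 c) → ∀ x ∈ P (T.H i), ∀ y ∈ P (T.H i), ∀ c : Φ.F,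
    |Φ.lev c (f y) - Φ.lev c (f x)| ≤ ε

/-- **levels**: weights `2^(-κ c)`, margin `μ` at 0 and 1, upper density `1 + κp`. -/
structure Levels (Φ : FoamD δ κ0 R c0 La) (T : Tiling Om ι) (f : E3 → E3) (κp μ κ3 : ℝ)
    (Z : Φ.F → Set ℝ) (m0 : Φ.F → ℕ) (κ : Φ.F → ℕ) (L : Φ.F → Finset ℝ) : Prop where
  lf : ∀ m : ℕ, {c | κ c ≤ m}.Finite
  marg : ∀ c, ∀ t ∈ L c, μ ≤ t ∧ t ≤ 1 - μ
  many : ∀ c, c.1.sz ≤ κ3 * ((L c).card * (2 : ℝ)⁻¹ ^ κ c)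
  few : ∀ c, (L c).card * (2 : ℝ)⁻¹ ^ κ c ≤ κ3 * c.1.sz
  large : ∀ c, m0 c ≤ (L c).card
  dens : ∀ c, ∀ u v : ℝ, u ≤ v →
    (((L c).filter fun t => u < t ∧ t < v).card : ℝ) ≤ (1 + κp) * (v - u) * (L c).card + 1
  off : ∀ c, ∀ t ∈ L c, t ∉ Z c
  vert : ∀ c, ∀ t ∈ L c, ∀ x ∈ Om, T.dim x = 0 → Φ.lev c (f x) ≠ t
  fin : ∀ c, ∀ t ∈ L c, ∀ x ∈ Om, T.dim x = 1 → {y ∈ T.cc x | Φ.lev c (f y) = t}.Finite
  sep : ∀ c c', c ≠ c' → ∀ t ∈ L c, ∀ t' ∈ L c', ∀ x ∈ Om, T.dim x = 1 →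
    ¬ (Φ.lev c (f x) = t ∧ Φ.lev c' (f x) = t')

/-- **exact words on the boundary of the exact cores.**
`grid`: the closed cells on the boundary of the core tile are the cells of the `M`-grid in the level
coordinates `u x a := sb Φ (th .. x) a` (446 #10115);
`word`: every used level crosses every edge of the core tile exactly as the exact map does;
`sign`: at the vertices the level functions are on the same side as for the exact map. -/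
structure Words (Φ : FoamD δ κ0 R c0 La) (T : Tiling Om ι) (f : E3 → E3) (X : Set Φ.F) (ct : Φ.F → ι)
    (A : Φ.F → E3 ≃ᵃ[ℝ] E3) (lam : Φ.F → ℝ) (z : Φ.F → E3) (M : Φ.F → ℕ) (L : Φ.F → Finset ℝ) :
    Prop where
  grid : ∀ c ∈ X, 0 < M c ∧ ∀ x ∈ P (T.H (ct c)), x ∉ I (T.H (ct c)) →
    T.cc x = {y | y ∈ P (T.H (ct c)) ∧ ∀ a : Φ.F,
      (⌊M c * sb Φ (th (A c) (lam c) (z c) x) a⌋₊ : ℝ) ≤ M c * sb Φ (th (A c) (lam c) (z c) y) a ∧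
      M c * sb Φ (th (A c) (lam c) (z c) y) a ≤ ⌈M c * sb Φ (th (A c) (lam c) (z c) x) a⌉₊} ∧
    T.dim x = {a : Φ.F | ⌊M c * sb Φ (th (A c) (lam c) (z c) x) a⌋₊ <
      ⌈M c * sb Φ (th (A c) (lam c) (z c) x) a⌉₊}.ncard
  word : ∀ c ∈ X, ∀ x ∈ P (T.H (ct c)), T.dim x = 1 → ∀ c' : Φ.F, ∀ t ∈ L c',
    ∀ a b : E3, T.cc x = segment ℝ a b →
    let s := fun y => sb Φ (th (A c) (lam c) (z c) y) c'
    s a ≠ t ∧ s b ≠ t ∧ (s a < t ↔ Φ.lev c' (f a) < t) ∧ (s b < t ↔ Φ.lev c' (f b) < t) ∧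
    ((s a < t ∧ t < s b) ∨ (s b < t ∧ t < s a) → ∃! y, y ∈ T.cc x ∧ Φ.lev c' (f y) = t) ∧
    (¬ ((s a < t ∧ t < s b) ∨ (s b < t ∧ t < s a)) → ∀ y ∈ T.cc x, Φ.lev c' (f y) ≠ t)
  sign : ∀ c ∈ X, ∀ x ∈ P (T.H (ct c)), T.dim x = 0 → ∀ c' : Φ.F, ∀ t ∈ L c',
    (Φ.lev c' (f x) < t ↔ sb Φ (th (A c) (lam c) (z c) x) c' < t)

/-- the closed star of every brick lies in the interior of a convex compact subset of `La`
(543 #10362; true for 628's `exists_foam`) -/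
def Star (Φ : FoamD δ κ0 R c0 La) : Prop :=
  ∀ c : Φ.F, ∃ D : Set E3, IsCompact D ∧ Convex ℝ D ∧ D ⊆ La ∧
    ∀ c' : Φ.F, (Pc Φ.F c' ∩ Pc Φ.F c).Nonempty → Pc Φ.F c' ⊆ interior D

/-- **output** of the machine; `C0` a constant, `C` a function of the shape -/
structure Out (C0 : ℝ) (C : Set (Set E3) → ℝ) (e : ℝ)
    (Φ : FoamD δ κ0 R c0 La) (T : Tiling Om ι) (f : E3 → E3) (X : Set Φ.F) (V : Φ.F → Set ι)
    (ct : Φ.F → ι) (A : Φ.F → E3 ≃ᵃ[ℝ] E3) (lam : Φ.F → ℝ) (κ : Φ.F → ℕ) (L : Φ.F → Finset ℝ)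
    (tol : ι → ℝ) (g : E3 → E3) : Prop where
  homeo : Hom3 g Om La
  pl : Str_696.LocPL g Om
  near : ∀ x ∈ Om, ∀ c : Φ.F, f x ∈ c.1.set → ‖g x - f x‖ ≤ C0 * c.1.sz
  /-- ordinary tiles: all tiles which are in no `V c` -/
  lip : ∀ i, (∀ c, i ∉ V c) → ∀ B : E3 ≃ᵃ[ℝ] E3, ∀ N : ℝ, 0 ≤ N →
    NN Φ T f κ L i ≤ ENNReal.ofReal N → ∀ x ∈ I (T.H i), ∀ᶠ y in 𝓝 x,
      ‖g y - g x‖ ≤ C ((fun K => B '' K) '' Cfg T i) * N * ‖B y - B x‖ + tol i * ‖y - x‖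
  /-- exact cores -/
  core : ∀ c ∈ X, (∀ x ∈ I (T.H (ct c)), ∀ᶠ y in 𝓝 x,
      ‖g y - g x‖ ≤ C0 * (1 / lam c * ‖A c y - A c x‖)) ∧
    ∃ W : Set E3, volume (W ∩ P (T.H (ct c))) ≤ ENNReal.ofReal e * volume (P (T.H (ct c))) ∧
      ∀ x ∈ I (T.H (ct c)), x ∉ W → ∀ᶠ y in 𝓝 x,
        ‖(g y - g x) - (1 / lam c) • (A c y - A c x)‖ ≤ e * (1 / lam c * ‖A c y - A c x‖)

/-- **MACHINE, bounded factor + exact cores** (`p`-free, to be proved by the bottom half).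
Order: foam constants, `C0`, `C`, then `e`, then `κp` (density of the levels), `μ ≤ κp` (margin of the
levels), `κ1` (mesh and cores), then the data, `Z`, `m0`, then the levels, then `tol`. -/
def MachBF : Prop :=
  ∀ δ κ0 R c0 κ2 κ3 : ℝ, 0 < δ → 1 ≤ κ0 → 1 ≤ R → 0 < c0 → 0 < κ2 → 8 ≤ κ3 →
  ∃ (C0 : ℝ) (C : Set (Set E3) → ℝ), 0 < C0 ∧ (∀ 𝒦, 0 < C 𝒦) ∧ ∀ e : ℝ, 0 < e →
  ∃ κp : ℝ, 0 < κp ∧ ∀ μ : ℝ, 0 < μ → μ ≤ κp → ∃ κ1 : ℝ, 0 < κ1 ∧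
  ∀ (Om La : Set E3) (f : E3 → E3), IsOpen Om → Bornology.IsBounded Om → IsConnected Om →
    IsOpen La → Bornology.IsBounded La → IsConnected La → Hom3 f Om La →
  ∀ (Φ : FoamD δ κ0 R c0 La) (ι : Type) (T : Tiling Om ι) (X : Set Φ.F) (J0 J V : Φ.F → Set ι)
    (ct : Φ.F → ι) (A : Φ.F → E3 ≃ᵃ[ℝ] E3) (lam : Φ.F → ℝ) (z : Φ.F → E3) (θ : Φ.F → E3 → E3)
    (φ : Φ.F → E3 → ℝ) (M : Φ.F → ℕ),
    Star Φ → Cores Φ T f κ1 κ2 X J0 J V ct A lam z θ φ → Fine Φ T f κ1 J0 →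
  ∃ (Z : Φ.F → Set ℝ) (m0 : Φ.F → ℕ), (∀ c, volume (Z c) = 0) ∧
  ∀ (κ : Φ.F → ℕ) (L : Φ.F → Finset ℝ), Levels Φ T f κp μ κ3 Z m0 κ L →
    Words Φ T f X ct A lam z M L →
  ∀ tol : ι → ℝ, (∀ i, 0 < tol i) →
  ∃ g : E3 → E3, Out C0 C e Φ T f X V ct A lam κ L tol g

end

end Crest.Agent.R096.Mbf_337
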