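import Mathlib
import Crest.Agent.R096.Init8_543
import Crest.Agent.R096.Init10_543
import Crest.Agent.R096.Mbf_337

/-! # Row 96, INIT (helper543), part 11: **the initial state from the literal data of `MachBF`**
(`Mbf_337`: `Star`, `Cores`, `Fine`, `Levels`). -/

set_option autoImplicit false
set_option linter.unusedSectionVars false

open Set Topology Filter Relation MeasureTheory

namespace Crest.Agent.R096.Init_543

open Crest.Agent.R096.Coh_184 Crest.Agent.R096.Brk1_582 Crest.Agent.R096.Brk2_582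
  Crest.Agent.R096.Brk3_582 Crest.Agent.R096.Brk5_582 Crest.Agent.R096.Bsp_628
  Crest.Agent.R096.Lab_184 Crest.Agent.R096.Main_4 Crest.Agent.R096.Msh_715
  Crest.Agent.R096.Agl4_543 Crest.Agent.R096.Agl5_543 Crest.Agent.R096.Agl6_543
  Crest.Agent.R096.Ginv_543 Crest.Agent.R096.Seq_213 Crest.Agent.R096.Seq_213.GSt
  Crest.Agent.R096.St_147 Crest.Agent.R096.Gs_422 Crest.Agent.R96.Push_899

open Crest.Agent.R096.SkC1_961 (E3 Hom3 IsPush FoamD Cfg th)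

section mach

variable {δ κ0 R c0 : ℝ} {La Om : Set E3} {ι : Type} (Φ : FoamD δ κ0 R c0 La)
  {T : Tiling Om ι} {f g : E3 → E3}

/-- all tiles near the holes -/
def KorJ (J0 : Φ.F → Set ι) : Set ι := {q | ∃ c, q ∈ J0 c}

/-- the preimage of every hole lies in an open tile of `J0` -/
def HoleJ (Φ : FoamD δ κ0 R c0 La) (T : Tiling Om ι) (f : E3 → E3) (J0 : Φ.F → Set ι) : Prop :=
  ∀ c, ∃ i ∈ J0 c, ∀ x ∈ Om, f x ∈ (Φ.B c).S → x ∈ Msh_715.I (T.H i)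

/-- exact cores: the preimage of the hole lies in the open core tile -/
theorem exact_hole {κ1 κ2 lam : ℝ} {c : Φ.F} {i : ι} {A : E3 ≃ᵃ[ℝ] E3} {z : E3}
    (hE : Mbf_337.Exact Φ T f κ1 κ2 c i A lam z) (hκ1 : 0 ≤ κ1) (hκ : κ1 * κ0 < κ2)
    (hκ2 : 0 ≤ κ2) {x : E3} (hx : x ∈ Om) (hfx : f x ∈ (Φ.B c).S) : x ∈ Msh_715.I (T.H i) := by
  have hlam := hE.lam0
  have hpos := Φ.bf.pos c.1 c.2
  have hasp := Φ.bf.asp c.1 c.2
  have hside : ∀ k, 0 < c.1.side k := fun k => Bx.side_pos hpos k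
  have hxP : x ∈ Msh_715.P (T.H i) := by
    by_contra hn
    exact hE.miss x hx hn hfx
  by_contra hxI
  have hint : x ∉ interior (Msh_715.P (T.H i)) := fun h => hxI (interior_sub_I (T.ne i) h)
  have hbox : ∀ k, z k + lam * c.1.lo k ≤ A x k ∧ A x k ≤ z k + lam * c.1.hi k := by
    have h1 := hxP
    rw [hE.tile] at h1
    exact h1
  have hm : ∀ k, 0 ≤ κ2 * (lam * c.1.side k) := fun k =>
    mul_nonneg hκ2 (mul_nonneg hlam.le (hside k).le)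
  have hnb := (hE.nbd x (fun k => ⟨by linarith [(hbox k).1, hm k],
    by linarith [(hbox k).2, hm k]⟩)).2 hint
  have hcomp : ∀ k, |f x k - A x k| ≤ κ1 * (lam * c.1.sz) := by
    intro k
    have := (norm_le_pi_norm (f x - A x) k).trans hnb
    simpa using this
  have hgap : ∀ k, κ1 * (lam * c.1.sz) < κ2 * (lam * c.1.side k) := by
    intro k
    have h1 := hasp k
    have h2 : κ1 * (lam * c.1.sz) ≤ κ1 * (lam * (κ0 * c.1.side k)) :=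
      mul_le_mul_of_nonneg_left (mul_le_mul_of_nonneg_left h1 hlam.le) hκ1
    have h3 : κ1 * (lam * (κ0 * c.1.side k)) = κ1 * κ0 * (lam * c.1.side k) := by ring
    rw [h3] at h2
    exact h2.trans_lt (mul_lt_mul_of_pos_right hκ (mul_pos hlam (hside k)))
  have hop : ∀ k, z k + lam * c.1.lo k < A x k ∧ A x k < z k + lam * c.1.hi k := by
    intro k
    have h1 := abs_le.1 (hcomp k)
    have h2 := hE.hole k
    have h3 := hfx k
    have h4 := hgap k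
    constructor
    · linarith [h1.1, h1.2, h2.1, h3.1]
    · linarith [h1.1, h1.2, h2.2, h3.2]
  -- open box
  have hopen : IsOpen (A ⁻¹' {y : E3 | ∀ k, z k + lam * c.1.lo k < y k ∧
      y k < z k + lam * c.1.hi k}) := by
    refine IsOpen.preimage A.continuous_of_finiteDimensional ?_
    simp only [ofPred_forall]
    refine isOpen_iInter_of_finite fun k => ?_
    exact (isOpen_lt continuous_const (continuous_apply k)).inter
      (isOpen_lt (continuous_apply k) continuous_const)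
  refine hint ?_
  rw [hE.tile]
  refine mem_interior.2 ⟨_, ?_, hopen, hop⟩
  intro y hy k
  exact ⟨(hy k).1.le, (hy k).2.le⟩

/-- **holes**: from `Cores` and 'the preimages of the point holes lie in open tiles' -/
theorem holeJ_of_cores (H : Hm f g Om La) {κ1 κ2 : ℝ} {X : Set Φ.F} {J0 J V : Φ.F → Set ι}
    {ct : Φ.F → ι} {A : Φ.F → E3 ≃ᵃ[ℝ] E3} {lam : Φ.F → ℝ} {z : Φ.F → E3} {θ : Φ.F → E3 → E3}
    {φ : Φ.F → E3 → ℝ} (hC : Mbf_337.Cores Φ T f κ1 κ2 X J0 J V ct A lam z θ φ) (hκ1 : 0 ≤ κ1)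
    (hκ : κ1 * κ0 < κ2) (hκ2 : 0 ≤ κ2)
    (hmem : ∀ c ∉ X, ∃ i ∈ J0 c, ∃ x ∈ Msh_715.I (T.H i), f x = (Φ.B c).lo) :
    HoleJ Φ T f J0 := by
  intro c
  by_cases hc : c ∈ X
  · refine ⟨ct c, by rw [(hC.one c hc).1]; rfl, fun x hx hfx => ?_⟩
    exact exact_hole Φ (hC.exact_ c hc) hκ1 hκ hκ2 hx hfx
  · obtain ⟨i, hi, x0, hx0, he⟩ := hmem c hc
    refine ⟨i, hi, fun x hx hfx => ?_⟩
    have h1 : f x = (Φ.B c).lo := by
      funext k
      have h2 := hfx k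
      have h3 := congrFun (hC.tiny c hc).pt k
      exact le_antisymm (by rw [h3]; exact h2.2) h2.1
    have hx0O : x0 ∈ Om := T.sub _ (I_sub_P _ hx0)
    have h4 : x = x0 := by
      rw [← H.gf x hx, ← H.gf x0 hx0O, h1, he]
    rw [h4]; exact hx0

/-- the tiles near the holes are mapped into single bricks -/
theorem core_sub {κ1 κ2 : ℝ} {X : Set Φ.F} {J0 J V : Φ.F → Set ι}
    {ct : Φ.F → ι} {A : Φ.F → E3 ≃ᵃ[ℝ] E3} {lam : Φ.F → ℝ} {z : Φ.F → E3} {θ : Φ.F → E3 → E3}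
    {φ : Φ.F → E3 → ℝ} (hC : Mbf_337.Cores Φ T f κ1 κ2 X J0 J V ct A lam z θ φ) :
    ∀ q ∈ KorJ Φ J0, ∃ c, ∀ x ∈ Msh_715.P (T.H q), f x ∈ Pc Φ.F c := by
  rintro q ⟨c, hq⟩
  refine ⟨c, fun x hx => ?_⟩
  have h1 : ∀ k, c.1.lo k < f x k ∧ f x k < c.1.hi k := by
    by_cases hc : c ∈ X
    · rw [(hC.one c hc).1] at hq
      rw [Set.mem_singleton_iff.1 hq] at hx
      exact (hC.exact_ c hc).inside x hx
    · have hT := hC.tiny c hc
      exact hT.inside x (mem_biUnion (hT.sub (hT.sub0 hq)) hx)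
  exact ⟨fun k => (h1 k).1.le, fun k => (h1 k).2.le⟩

/-- **MESH0 in the form of `Mbf_337`** -/
theorem mesh0J (hLa : IsOpen La) (H : Hm f g Om La) {J0 : Φ.F → Set ι} {ct' : Φ.F → ι}
    (hct : ∀ c, ct' c ∈ J0 c) {r₀ : Φ.F → ℝ} (h0 : ∀ c, 0 < r₀ c) (h1 : ∀ c, r₀ c ≤ 1)
    (h2 : ∀ c, ∀ x ∈ Om, f x ∈ Pc Φ.F c → x ∉ Msh_715.I (T.H (ct' c)) → r₀ c ≤ rdF Φ c (f x))
    {ε : ℝ} (hF : Mbf_337.Fine Φ T f ε J0) :
    Mesh0 T (Pc Φ.F) (bc (F := Φ.F)) (RF Φ r₀) f (KorJ Φ J0) ε := by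
  have hnc : ∀ {q : ι}, q ∉ KorJ Φ J0 → ∀ {x : E3}, x ∈ Msh_715.P (T.H q) → ∀ c : Φ.F,
      x ∉ Msh_715.I (T.H (ct' c)) := by
    intro q hq x hx c
    refine not_mem_I (fun e => hq ⟨c, ?_⟩) hx
    rw [e]; exact hct c
  refine ⟨fun q hq x hx => ?_, fun q hq x hx x' hx' a => ?_⟩
  · exact (va_eq Φ hLa H h0 h1 h2 (T.sub q hx) fun c => hnc hq hx c).2
  · rw [(va_eq Φ hLa H h0 h1 h2 (T.sub q hx) fun c => hnc hq hx c).1,
      (va_eq Φ hLa H h0 h1 h2 (T.sub q hx') fun c => hnc hq hx' c).1]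
    exact hF.lev q (fun c hc => hq ⟨c, hc⟩) x' hx' x hx a

/-- bodies from `Star` -/
theorem exists_bodies (hLa : IsOpen La) (H : Hm f g Om La) (hS : Mbf_337.Star Φ)
    (hOm : IsOpen Om) : ∃ D : Φ.F → Set E3, ∀ a, Body Om f (Pc Φ.F) a (D a) := by
  have F := foam4 Φ hLa
  choose D h1 h2 h3 h4 using hS
  refine ⟨fun a => Om ∩ f ⁻¹' D a, fun a => ?_⟩
  have hV : Module.finrank ℝ E3 = 3 := by simp
  refine exists_body hV hOm H F (a := a) ?_ (h1 a) (h2 a) (h3 a) (fun c hc => h4 a c hc)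
  exact ⟨a.1.lo, fun k => le_rfl, fun k => (Φ.bf.pos a.1 a.2 k).le⟩

/-- the objects of INIT: inverse, cut-offs, hole tiles -/
structure InitR (Φ : FoamD δ κ0 R c0 La) (T : Tiling Om ι) (f g : E3 → E3) (J0 : Φ.F → Set ι)
    (ct' : Φ.F → ι) (r₀ : Φ.F → ℝ) : Prop where
  hm : Hm f g Om La
  ct : ∀ c, ct' c ∈ J0 c
  pos : ∀ c, 0 < r₀ c
  le_one : ∀ c, r₀ c ≤ 1
  out : ∀ c, ∀ x ∈ Om, f x ∈ Pc Φ.F c → x ∉ Msh_715.I (T.H (ct' c)) → r₀ c ≤ rdF Φ c (f x)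

theorem exists_initR (hLa : IsOpen La) (hf : Hom3 f Om La) {J0 : Φ.F → Set ι}
    (hH : HoleJ Φ T f J0) : ∃ (g : E3 → E3) (ct' : Φ.F → ι) (r₀ : Φ.F → ℝ),
      InitR Φ T f g J0 ct' r₀ := by
  obtain ⟨g, H⟩ := exists_hm3 hf
  choose ct' h1 h2 using hH
  obtain ⟨r₀, h4, h5, h6⟩ := exists_r0 Φ hLa H (ct := ct') (fun c x hx hfx => h2 c x hx hfx)
  exact ⟨g, ct', r₀, H, h1, h4, h5, h6⟩

/-- the continuous level functions of INIT -/
noncomputable def vF (r₀ : Φ.F → ℝ) (f : E3 → E3) (a : Φ.F) : E3 → ℝ :=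
  va (Pc Φ.F) (bc (F := Φ.F)) (RF Φ r₀) f a

/-- **they are the levels of the machine** outside the open hole tiles -/
theorem InitR.v_eq (hLa : IsOpen La) {J0 : Φ.F → Set ι} {ct' : Φ.F → ι} {r₀ : Φ.F → ℝ}
    (hR : InitR Φ T f g J0 ct' r₀) {x : E3} (hx : x ∈ Om)
    (hxI : ∀ c, x ∉ Msh_715.I (T.H (ct' c))) (a : Φ.F) : vF Φ r₀ f a x = Φ.lev a (f x) :=
  (va_eq Φ hLa hR.hm hR.pos hR.le_one hR.out hx hxI).1 a

theorem InitR.v_eq' (hLa : IsOpen La) {J0 : Φ.F → Set ι} {ct' : Φ.F → ι} {r₀ : Φ.F → ℝ}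
    (hR : InitR Φ T f g J0 ct' r₀) {x : E3} (hx : x ∈ Om) (hd : T.dim x ≤ 2) (a : Φ.F) :
    vF Φ r₀ f a x = Φ.lev a (f x) := by
  refine hR.v_eq Φ hLa hx (fun c hc => ?_) a
  have := dim_I hc
  have h3 : Module.finrank ℝ E3 = 3 := by simp
  rw [h3] at this
  omega

/-- the family of sheets -/
abbrev GF (r₀ : Φ.F → ℝ) (T : Tiling Om ι) (f : E3 → E3) (L : Φ.F → Finset ℝ) : Prop :=
  GFam T (fun j : JJ Φ L => va (Pc Φ.F) (bc (F := Φ.F)) (RF Φ r₀) f j.1) (fun j => j.2.1)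
    (shS Om (Pc Φ.F) (bc (F := Φ.F)) (RF Φ r₀) f (fun j : JJ Φ L => j.1) (fun j => j.2.1))
    (fun j => j.1)

/-- **exceptional null sets** -/
theorem exists_Z (hLa : IsOpen La) {J0 : Φ.F → Set ι} {ct' : Φ.F → ι} {r₀ : Φ.F → ℝ}
    (hR : InitR Φ T f g J0 ct' r₀) : ∃ Z : Φ.F → Set ℝ, (∀ c, (Z c).Countable) ∧
      (∀ c, volume (Z c) = 0) ∧ ∀ (κp μ κ3 : ℝ) (Z' : Φ.F → Set ℝ) (m0 κ : Φ.F → ℕ)
        (L : Φ.F → Finset ℝ), 0 < μ → (∀ c, Z c ⊆ Z' c) →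
        Mbf_337.Levels Φ T f κp μ κ3 Z' m0 κ L → GF Φ r₀ T f L := by
  obtain ⟨Z, hZ1, hZ2⟩ := gfamF (T := T) Φ hLa hR.hm hR.pos hR.le_one hR.out
  refine ⟨Z, hZ1, fun c => (hZ1 c).measure_zero volume, fun κp μ κ3 Z' m0 κ L hμ hZ hL => ?_⟩
  refine hZ2 L (fun c t ht => ?_) (fun c t ht h => hL.off c t ht (hZ c h)) hL.vert hL.fin hL.sep
  obtain ⟨h1, h2⟩ := hL.marg c t ht
  exact ⟨by linarith, by linarith⟩

end mach

end Crest.Agent.R096.Init_543
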