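import Mathlib
import Crest.Agent.R096.Init11_543

/-! # Row 96, INIT (helper543), part 12: **INIT for `Mbf_337.MachBF`**: the truthful state of the
machine data, its labels, and its invariant. -/

set_option autoImplicit false
set_option linter.unusedSectionVars false

open Set Topology Filter Relation MeasureTheory

namespace Crest.Agent.R096.Init_543

open Crest.Agent.R096.Coh_184 Crest.Agent.R096.Brk1_582 Crest.Agent.R096.Brk2_582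
  Crest.Agent.R096.Brk3_582 Crest.Agent.R096.Brk5_582 Crest.Agent.R096.Bsp_628
  Crest.Agent.R096.Lab_184 Crest.Agent.R096.Main_4 Crest.Agent.R096.Msh_715
  Crest.Agent.R096.Agl4_543 Crest.Agent.R096.Agl5_543 Crest.Agent.R096.Agl6_543
  Crest.Agent.R096.Ginv_543 Crest.Agent.R096.Seq_213 Crest.Agent.R096.Seq_213.GSt
  Crest.Agent.R096.St_147 Crest.Agent.R096.Gs_422 Crest.Agent.R96.Push_899

open Crest.Agent.R096.SkC1_961 (E3 Hom3 IsPush FoamD Cfg th)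

theorem fr3 : Module.finrank ℝ E3 = 3 := by simp

section mach

variable {δ κ0 R c0 : ℝ} {La Om : Set E3} {ι : Type} {Φ : FoamD δ κ0 R c0 La}
  {T : Tiling Om ι} {f g : E3 → E3} {J0 : Φ.F → Set ι} {ct' : Φ.F → ι} {r₀ : Φ.F → ℝ}

/-- the quads of the machine data: `k.B` = the two active bricks, `k.Z` = the two bricks on the
other sides; the tile `q` is active if `q ∉ ⋃ J0 c` and some point of it lies over the part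
`s₁ ≤ v_a ≤ 1 - s₁` (`a ∈ k.B`), `v_c = 0` (`c ∈ k.Z`) -/
noncomputable def qdF (hLa : IsOpen La) (hR : InitR Φ T f g J0 ct' r₀) {ε s₁ : ℝ}
    (hM : Mesh0 T (Pc Φ.F) (bc (F := Φ.F)) (RF Φ r₀) f (KorJ Φ J0) ε) (hε : ε < s₁) (hε1 : ε < 1) :
    Quads ι Φ.F (QK (Pc Φ.F)) :=
  quads hR.hm (foam4 Φ hLa) (retF Φ hLa hR.pos hR.le_one) hM hε hε1

theorem qdF_in (hLa : IsOpen La) (hR : InitR Φ T f g J0 ct' r₀) {ε s₁ : ℝ}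
    (hM : Mesh0 T (Pc Φ.F) (bc (F := Φ.F)) (RF Φ r₀) f (KorJ Φ J0) ε) (hε : ε < s₁) (hε1 : ε < 1)
    {k : QK (Pc Φ.F)} {c : Φ.F} : (qdF hLa hR hM hε hε1).In k c ↔ c ∈ k.B :=
  quads_in _ _ _ _ _ _

theorem qdF_act (hLa : IsOpen La) (hR : InitR Φ T f g J0 ct' r₀) {ε s₁ : ℝ}
    (hM : Mesh0 T (Pc Φ.F) (bc (F := Φ.F)) (RF Φ r₀) f (KorJ Φ J0) ε) (hε : ε < s₁) (hε1 : ε < 1)
    (k : QK (Pc Φ.F)) : (qdF hLa hR hM hε hε1).Act k =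
      Act0 T (Pc Φ.F) (bc (F := Φ.F)) (RF Φ r₀) f (KorJ Φ J0) s₁ k := rfl

/-- active tiles in terms of the machine levels -/
theorem mem_act_iff (hLa : IsOpen La) (hR : InitR Φ T f g J0 ct' r₀) {s : ℝ}
    {k : QK (Pc Φ.F)} {q : ι} :
    q ∈ Act0 T (Pc Φ.F) (bc (F := Φ.F)) (RF Φ r₀) f (KorJ Φ J0) s k ↔
      q ∉ KorJ Φ J0 ∧ ∃ x ∈ Msh_715.P (T.H q), (∀ a ∈ k.B, Φ.lev a (f x) ∈ Icc s (1 - s)) ∧
        ∀ c ∈ k.Z, Φ.lev c (f x) = 0 := by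
  have hv : ∀ {q : ι}, q ∉ KorJ Φ J0 → ∀ {x : E3}, x ∈ Msh_715.P (T.H q) → ∀ a,
      va (Pc Φ.F) (bc (F := Φ.F)) (RF Φ r₀) f a x = Φ.lev a (f x) := by
    intro q hq x hx a
    refine hR.v_eq Φ hLa (T.sub q hx) (fun c => ?_) a
    refine not_mem_I (fun e => hq ⟨c, ?_⟩) hx
    rw [e]; exact hR.ct c
  constructor
  · rintro ⟨h1, x, h2, h3, h4⟩
    refine ⟨h1, x, h2, fun a ha => ?_, fun c hc => ?_⟩
    · rw [← hv h1 h2]; exact h3 a ha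
    · rw [← hv h1 h2]; exact h4 c hc
  · rintro ⟨h1, x, h2, h3, h4⟩
    refine ⟨h1, x, h2, fun a ha => ?_, fun c hc => ?_⟩
    · rw [hv h1 h2]; exact h3 a ha
    · rw [hv h1 h2]; exact h4 c hc

/-- there is a sheet -/
theorem nonempty_JJ (hLn : La.Nonempty) {κp μ κ3 : ℝ} {Z : Φ.F → Set ℝ} {m0 κ : Φ.F → ℕ}
    {L : Φ.F → Finset ℝ} (hL : Mbf_337.Levels Φ T f κp μ κ3 Z m0 κ L) : Nonempty (JJ Φ L) := by
  obtain ⟨y, hy⟩ := hLn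
  obtain ⟨C, hC, -⟩ := Φ.bf.cov y hy
  have h1 := hL.many ⟨C, hC⟩
  have h2 : 0 < C.sz := Bx.sz_pos (Φ.bf.pos C hC)
  have h3 : (L ⟨C, hC⟩).card ≠ 0 := by
    intro h0
    rw [h0] at h1
    simp only [Nat.cast_zero, zero_mul, mul_zero] at h1
    linarith
  obtain ⟨t, ht⟩ := Finset.card_pos.1 (Nat.pos_of_ne_zero h3)
  exact ⟨⟨⟨C, hC⟩, t, ht⟩⟩

/-- **the truthful state** -/
noncomputable def st0 {L : Φ.F → Finset ℝ} [Nonempty (JJ Φ L)] (hG : GF Φ r₀ T f L)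
    (bp : JJ Φ L → E3) : GSt (meshC T fr3) (fun j : JJ Φ L => j.1) := gmain (hG.gst fr3) bp

/-- **output of INIT** (labels; no statement on the invariant) -/
structure InitS (hLa : IsOpen La) (hR : InitR Φ T f g J0 ct' r₀) {ε s₁ : ℝ}
    (hM : Mesh0 T (Pc Φ.F) (bc (F := Φ.F)) (RF Φ r₀) f (KorJ Φ J0) ε) (hε : ε < s₁) (hε1 : ε < 1)
    {L : Φ.F → Finset ℝ} [Nonempty (JJ Φ L)] (hG : GF Φ r₀ T f L) (D : Φ.F → Set E3)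
    (bp : JJ Φ L → E3) (lam₀ : JJ Φ L → E3 → ZMod 2) (v₀ v₁ : Φ.F → E3) : Prop where
  body : ∀ a, Body Om f (Pc Φ.F) a (D a)
  lab : LabIn (qdF hLa hR hM hε hε1) (st0 hG bp) D lam₀ v₀ v₁
  farL : ∀ j : JJ Φ L, FarL T (D j.1) (gPts (st0 hG bp) j) (lam₀ j)
  base : ∀ j : JJ Φ L, bp j ∈ Om ∧ T.dim (bp j) = 1 ∧ Φ.lev j.1 (f (bp j)) = j.2.1 ∧
    ∃ q, bp j ∈ Msh_715.P (T.H q) ∧ ∀ k : QK (Pc Φ.F), j.1 ∈ k.B →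
      q ∉ Act0 T (Pc Φ.F) (bc (F := Φ.F)) (RF Φ r₀) f (KorJ Φ J0) s₁ k
  deep : ∀ a, v₀ a ∈ Om ∧ T.dim (v₀ a) = 0 ∧ Φ.lev a (f (v₀ a)) ≤ ε
  far : ∀ a, v₁ a ∈ Om ∧ T.dim (v₁ a) = 0 ∧ 1 - ε ≤ Φ.lev a (f (v₁ a))
  deepT : ∀ a, ∃ q, v₀ a ∈ Msh_715.P (T.H q) ∧ ∃ x ∈ Msh_715.P (T.H q), f x ∈ Pc Φ.F a

section facts

variable {L : Φ.F → Finset ℝ} [Nonempty (JJ Φ L)] {hG : GF Φ r₀ T f L} {bp : JJ Φ L → E3}

/-- the points of the truthful state -/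
theorem st0_mem (hLa : IsOpen La) (hR : InitR Φ T f g J0 ct' r₀) {w : E3}
    (hw : w ∈ (st0 hG bp).P) : w ∈ Om ∧ T.dim w = 1 ∧
      Φ.lev ((st0 hG bp).lab w).1 (f w) = ((st0 hG bp).lab w).2.1 := by
  have h1 := hG.mem_lab hw.1
  obtain ⟨j, -, hd⟩ := hw.1
  have h2 := (hG.lev _).vert w h1
  have hO : w ∈ Om := h1.1
  have hd1 : T.dim w = 1 := by omega
  refine ⟨hO, hd1, ?_⟩
  rw [← hR.v_eq' Φ hLa hO (by omega)]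
  exact h1.2

/-- finitely many points in every family -/
theorem st0_fin (a : Φ.F) : {w | w ∈ (st0 hG bp).P ∧ ((st0 hG bp).lab w).1 = a}.Finite := by
  refine ((hG.gst fr3).fin a).subset ?_
  rintro w ⟨h1, h2⟩
  exact ⟨h1.1, h2⟩

theorem jj_fin (hG : GF Φ r₀ T f L) (a : Φ.F) : {j : JJ Φ L | j.1 = a}.Finite := hG.finC a

theorem st0_H1 (hLa : IsOpen La) (hR : InitR Φ T f g J0 ct' r₀) (j : JJ Φ L)
    (h0 : 0 < j.2.1) (h1 : j.2.1 < 1) : (st0 hG bp).H1 j :=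
  gH1_main (hG.H1 fr3 j (trivF_sheet hR.hm (foam4 Φ hLa) (retF Φ hLa hR.pos hR.le_one) fr3 h0 h1))

theorem st0_conn (hLa : IsOpen La) (hR : InitR Φ T f g J0 ct' r₀)
    (hb : ∀ j : JJ Φ L, bp j ∈ Om ∧ T.dim (bp j) = 1 ∧ Φ.lev j.1 (f (bp j)) = j.2.1)
    (j : JJ Φ L) : (st0 hG bp).Conn j := by
  refine gconn_main (fun i => ?_) j
  refine hG.mem_pts_iff.2 ⟨⟨(hb i).1, ?_⟩, (hb i).2.1.le⟩
  have h := hR.v_eq' Φ hLa (hb i).1 (by rw [(hb i).2.1]; norm_num) i.1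
  exact h.trans (hb i).2.2

end facts

/-- **INIT (labels) FOR THE MACHINE DATA.** Any `X`; `μ` = margin of the levels, `κ1 < s₁`,
`κ1 < μ`. -/
theorem exists_initS (hLa : IsOpen La) (hLc : IsConnected La) {κ1 κ2 μ : ℝ} {X : Set Φ.F}
    {J V : Φ.F → Set ι} {ct : Φ.F → ι} {A : Φ.F → E3 ≃ᵃ[ℝ] E3} {lam : Φ.F → ℝ} {z : Φ.F → E3}
    {θ : Φ.F → E3 → E3} {φ : Φ.F → E3 → ℝ}
    (hC : Mbf_337.Cores Φ T f κ1 κ2 X J0 J V ct A lam z θ φ) (hS : Mbf_337.Star Φ)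
    (hR : InitR Φ T f g J0 ct' r₀)
    (hM : Mesh0 T (Pc Φ.F) (bc (F := Φ.F)) (RF Φ r₀) f (KorJ Φ J0) κ1) (h0 : 0 ≤ κ1) {s₁ : ℝ}
    (hs₁ : κ1 < s₁) (hκ1 : κ1 < 1) (hμ : κ1 < μ) {L : Φ.F → Finset ℝ} [Nonempty (JJ Φ L)]
    (hG : GF Φ r₀ T f L) (hm : ∀ c, ∀ t ∈ L c, μ ≤ t ∧ t ≤ 1 - μ) :
    ∃ (D : Φ.F → Set E3) (bp : JJ Φ L → E3) (lam₀ : JJ Φ L → E3 → ZMod 2) (v₀ v₁ : Φ.F → E3),
      InitS hLa hR hM hs₁ hκ1 hG D bp lam₀ v₀ v₁ := by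
  obtain ⟨D, hD⟩ := exists_bodies Φ hLa hR.hm hS T.op
  obtain ⟨bp, lam₀, v₀, v₁, h1, h2, h3, h4, h5, h6⟩ := exists_lab hR.hm (foam4 Φ hLa)
    (retF Φ hLa hR.pos hR.le_one) fr3 hLc.isPreconnected
    (fun c => ⟨c.1.lo, fun k => le_rfl, fun k => (Φ.bf.pos c.1 c.2 k).le⟩) hM (core_sub Φ hC)
    h0 hs₁ hκ1 hμ (fun j => hm _ _ j.2.2) hG hD
  refine ⟨D, bp, lam₀, v₀, v₁, hD, h1, h2, fun j => ?_, fun a => ?_, fun a => ?_, h6⟩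
  · obtain ⟨g1, g2, g3⟩ := h3 j
    refine ⟨g1.1, g2, ?_, g3⟩
    rw [← hR.v_eq' Φ hLa g1.1 (by omega)]
    exact g1.2
  · obtain ⟨g1, g2, g3⟩ := h4 a
    refine ⟨g1, g2, ?_⟩
    rw [← hR.v_eq' Φ hLa g1 (by omega)]
    exact g3
  · obtain ⟨g1, g2, g3⟩ := h5 a
    refine ⟨g1, g2, ?_⟩
    rw [← hR.v_eq' Φ hLa g1 (by omega)]
    exact g3

/-- **INVARIANT OF THE TRUTHFUL STATE**: from the condition `Leaf` on the hole tiles (all cores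
exact: helper965) -/
theorem InitS.inv (hLa : IsOpen La) (hR : InitR Φ T f g J0 ct' r₀) {ε s₁ : ℝ}
    {hM : Mesh0 T (Pc Φ.F) (bc (F := Φ.F)) (RF Φ r₀) f (KorJ Φ J0) ε} {hε : ε < s₁} {hε1 : ε < 1}
    {L : Φ.F → Finset ℝ} [Nonempty (JJ Φ L)] {hG : GF Φ r₀ T f L} {D : Φ.F → Set E3}
    {bp : JJ Φ L → E3} {lam₀ : JJ Φ L → E3 → ZMod 2} {v₀ v₁ : Φ.F → E3}
    (hI : InitS hLa hR hM hε hε1 hG D bp lam₀ v₀ v₁) (h0 : 0 ≤ ε) {s' μ : ℝ} (hs' : s₁ ≤ s')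
    (hμ : s' ≤ μ - ε) (hm : ∀ c, ∀ t ∈ L c, μ ≤ t ∧ t ≤ 1 - μ)
    (hleaf : ∀ (j : JJ Φ L) (k : QK (Pc Φ.F)), j.1 ∈ k.B → ∀ q ∈ KorJ Φ J0,
      (strip Om (Pc Φ.F) (bc (F := Φ.F)) (RF Φ r₀) f s' j.1 j.2.1 k ∩ Msh_715.P (T.H q)).Nonempty →
      hG.Leaf fr3 j (strip Om (Pc Φ.F) (bc (F := Φ.F)) (RF Φ r₀) f s' j.1 j.2.1 k) q) :
    ∃ far : JJ Φ L → Set E3, (st0 hG bp).Inv (qdF hLa hR hM hε hε1) far ∧ ∀ j, bp j ∈ far j := by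
  refine exists_init hR.hm (foam4 Φ hLa) (retF Φ hLa hR.pos hR.le_one) fr3 fr3 hM h0 hε hε1 hs' hμ
    (fun j => hm _ _ j.2.2) hG (bp := bp) (fun j => ?_) hleaf
  obtain ⟨g1, g2, g3, g4⟩ := hI.base j
  refine ⟨⟨g1, ?_⟩, g2, g4⟩
  have h := hR.v_eq' Φ hLa g1 (by rw [g2]; norm_num) j.1
  exact h.trans g3

end mach

end Crest.Agent.R096.Init_543
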