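import Crest.Agent.R096.Lr3_296
import Crest.Agent.R096.Lab4_184
import Crest.Agent.R096.Agl5_543

/-!
# R096 (row 96), P2-GEN, part 0 (helper702): definitions and the Props of the split

`Bxs T`    : all cells of the tiling `T` of `Fin 3 → ℝ` are boxes with integer corners.
`Adapted T S` : every cell that meets `S` meets it in a cone over its boundary trace, etc.
-/

set_option autoImplicit false

open Set Metric Topology

namespace Crest.Agent.R096.Gp_702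

open Ce_537 Msh_715

/-- the space -/
abbrev E3 := Fin 3 → ℝ

/-- closed box with integer corners (degenerate directions allowed) -/
def zcl (l h : Fin 3 → ℤ) : Set E3 := {y | ∀ j, (l j : ℝ) ≤ y j ∧ y j ≤ (h j : ℝ)}

/-- its relative interior -/
def zop (l h : Fin 3 → ℤ) : Set E3 :=
  {y | ∀ j, (l j = h j ∧ y j = (l j : ℝ)) ∨ ((l j : ℝ) < y j ∧ y j < (h j : ℝ))}

/-- all cells of the tiling are boxes with integer corners -/
def Bxs {ι : Type} (T : Tiling (univ : Set E3) ι) : Prop :=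
  ∀ x, ∃ l h : Fin 3 → ℤ, l ≤ h ∧ T.cc x = zcl l h ∧ T.oc x = zop l h

/-- `S` is in conical position with respect to the tiling `T` -/
structure Adapted {ι : Type} (T : Tiling (univ : Set E3) ι) (S : Set E3) : Prop where
  cpt : IsCompact S
  vert : ∀ x ∈ S, T.dim x ≠ 0
  cen : ∀ x, (T.cc x ∩ S).Nonempty → ∃ z ∈ T.oc x, z ∈ S ∧
    ∀ y ∈ T.cc x \ T.oc x, ∀ t : ℝ, 0 < t → t ≤ 1 → (z + t • (y - z) ∈ S ↔ y ∈ S)
  two : ∀ x ∈ S, T.dim x = 2 → ((T.cc x \ T.oc x) ∩ S).ncard = 2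
  con : ∀ x ∈ S, T.dim x = 3 → ∃ P N : Set E3, (T.cc x \ T.oc x) \ S = P ∪ N ∧
    IsPreconnected P ∧ IsPreconnected N

/-- polyhedral: a finite union of convex polytopes -/
def Poly (S : Set E3) : Prop := ∃ 𝒞 : Set (Set E3), 𝒞.Finite ∧ (∀ C ∈ 𝒞, Pl.VP C) ∧ ⋃₀ 𝒞 = S

/-- **(EXIST)** -/
def ExistStmt : Prop := ∀ S : Set E3, Poly S → S.Nonempty → (∀ x ∈ S, Ax_914.TwoSidedAt S x) →
  ∃ L : E3 ≃ₜ E3, Pl.PLH L ∧ ∃ (ι : Type) (T : Tiling (univ : Set E3) ι),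
    Bxs T ∧ Adapted T (L '' S)

/-- **(NORM)** -/
def NormStmt : Prop := ∀ (ι : Type) (T : Tiling (univ : Set E3) ι) (S : Set E3), Bxs T →
  Adapted T S → S.Nonempty → (∀ x ∈ S, Ax_914.TwoSidedAt S x) →
  ∃ Φ : E3 ≃ₜ E3, Pl.PLH Φ ∧ ∃ B : Finset (E3 × E3), (∀ p ∈ B, p.1 ≤ p.2) ∧
    (∀ p ∈ B, ∃ i, p.1 i = p.2 i ∧ ∀ j, j ≠ i → p.1 j ≠ p.2 j) ∧ Φ '' S = ⋃ p ∈ B, Icc p.1 p.2

/-! ### one cell -/

section Cell

variable {k : ℕ}

/-- boundary of the box `[l, h]` of `Fin k → ℝ` -/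
def bb (l h : Fin k → ℝ) : Set (Fin k → ℝ) := {y | y ∈ Icc l h ∧ ∃ j, y j = l j ∨ y j = h j}

/-- the collar of the box -/
noncomputable def kap (l h : Fin k → ℝ) (ω : Fin k → ℝ) (s : ℝ) : Fin k → ℝ :=
  fun j => max ((ω j + l j) / 2 + s) (min (ω j) ((ω j + h j) / 2 - s))

/-- the collar over `R` of depth `t` -/
def colr (l h : Fin k → ℝ) (R : Set (Fin k → ℝ)) (t : ℝ) : Set (Fin k → ℝ) :=
  {x | ∃ ω ∈ R, ∃ s ∈ Icc (0 : ℝ) t, x = kap l h ω s}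

/-- the cone over `R` with apex `c` -/
def cone1 {V : Type*} [AddCommGroup V] [Module ℝ V] (c : V) (R : Set V) : Set V :=
  {x | ∃ y ∈ R, ∃ r ∈ Icc (0 : ℝ) 1, x = c + r • (y - c)}

/-- upper and lower half of the boundary of the cube -/
def Hu (hk : 0 < k) : Set (Fin k → ℝ) := {y | y ∈ sph k ∧ 0 ≤ y ⟨0, hk⟩}
def Hd (hk : 0 < k) : Set (Fin k → ℝ) := {y | y ∈ sph k ∧ y ⟨0, hk⟩ ≤ 0}

/-- **(N2)** one cell -/
def StepStmt : Prop := ∀ (k : ℕ) (hk : 0 < k) (l h c : Fin k → ℝ) (t : ℝ), (∀ j, l j < c j) →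
  (∀ j, c j < h j) → 0 < t → (∀ j, 4 * t < h j - l j) →
  ∀ (R0 R1 : Set (Fin k → ℝ)) (th : PLEquiv (bb l h) (sph k)) (phi : PLEquiv (bb l h) (bb l h)),
  R0 ⊆ bb l h → R1 ⊆ bb l h → th.f '' R0 = Hu hk → th.f '' R1 = Hd hk →
  ∃ Psi : PLEquiv (Icc l h) (Icc l h), EqOn Psi.f phi.f (bb l h) ∧
    Psi.f '' cone1 c R0 = colr l h (phi.f '' R0) t ∧
    Psi.f '' cone1 c R1 = colr l h (phi.f '' R1) t ∪ Icc (fun j => l j + t) (fun j => h j - t)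

end Cell

/-- **(N3)** the circle lemma on the boundary of a box -/
def CircStmt : Prop := ∀ (l h : E3), (∀ j, l j < h j) → ∀ (n : ℕ) (α : Fin n → Set E3)
  (a b : Fin n → E3), 0 < n → (∀ i, IsBall 1 (α i) {a i, b i}) → (∀ i, α i ⊆ bb l h) →
  (∀ i j, i ≠ j → α i ∩ α j ⊆ {a i, b i} ∩ {a j, b j}) →
  (∀ i, ∃! j, j ≠ i ∧ a i ∈ α j) → (∀ i, ∃! j, j ≠ i ∧ b i ∈ α j) →
  (∃ P N : Set E3, bb l h \ (⋃ i, α i) = P ∪ N ∧ IsPreconnected P ∧ IsPreconnected N) →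
  ∀ R0 R1 : Set E3, IsClosed R0 → IsClosed R1 → R0 ∪ R1 = bb l h → R0 ∩ R1 = ⋃ i, α i →
  R0 ≠ ⋃ i, α i → R1 ≠ ⋃ i, α i →
  ∃ th : PLEquiv (bb l h) (sph 3), th.f '' R0 = Hu (k := 3) (by norm_num) ∧
    th.f '' R1 = Hd (k := 3) (by norm_num)

/-- **(N3')** two points on the boundary of a rectangle -/
def Circ2Stmt : Prop := ∀ (l h : Fin 2 → ℝ), (∀ j, l j < h j) → ∀ p q : Fin 2 → ℝ, p ≠ q →
  ∀ R0 R1 : Set (Fin 2 → ℝ), IsClosed R0 → IsClosed R1 → R0 ∪ R1 = bb l h → R0 ∩ R1 = {p, q} →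
  R0 ≠ {p, q} → R1 ≠ {p, q} →
  ∃ th : PLEquiv (bb l h) (sph 2), th.f '' R0 = Hu (k := 2) (by norm_num) ∧
    th.f '' R1 = Hd (k := 2) (by norm_num)

/-! ### the pieces of (NORM) -/

section Norm

variable {ι : Type} (T : Tiling (univ : Set E3) ι) (S : Set E3)

/-- the closed cell of `x` meets `S` -/
def Cr (x : E3) : Prop := (T.cc x ∩ S).Nonempty

/-- `z` is an apex of the cell of `x` -/
def Apex (x z : E3) : Prop := z ∈ T.oc x ∧ z ∈ S ∧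
  ∀ y ∈ T.cc x \ T.oc x, ∀ t : ℝ, 0 < t → t ≤ 1 → (z + t • (y - z) ∈ S ↔ y ∈ S)

/-- the two sides of `S` (`R0` inside) -/
structure Sides (R0 R1 : Set E3) : Prop where
  cpt : IsCompact R0
  closed1 : IsClosed R1
  union : R0 ∪ R1 = univ
  inter : R0 ∩ R1 = S
  front : frontier R0 = S
  reg : closure (interior R0) = R0
  noncr : ∀ x, ¬ Cr T S x → T.cc x ⊆ R0 ∨ T.cc x ⊆ R1
  cone0 : ∀ x z, Apex T S x z → ∀ y ∈ T.cc x \ T.oc x, ∀ t : ℝ, 0 < t → t ≤ 1 →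
    (z + t • (y - z) ∈ R0 ↔ y ∈ R0)
  cone1 : ∀ x z, Apex T S x z → ∀ y ∈ T.cc x \ T.oc x, ∀ t : ℝ, 0 < t → t ≤ 1 →
    (z + t • (y - z) ∈ R1 ↔ y ∈ R1)
  edge : ∀ x, T.dim x = 1 → Cr T S x → ∀ a b, T.cc x = segment ℝ a b →
    (a ∈ R0 ∧ b ∈ R1) ∨ (a ∈ R1 ∧ b ∈ R0)

end Norm

/-- **(N4)** sides (from `Lab_184.labels`) -/
def SidesStmt : Prop := ∀ (ι : Type) (T : Tiling (univ : Set E3) ι) (S : Set E3), Bxs T →
  Adapted T S → (∀ x ∈ S, Ax_914.TwoSidedAt S x) → ∃ R0 R1, Sides T S R0 R1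

/-- **(N7)** the boundary of a crossing cell and its two sides are standard -/
def ThStmt : Prop := ∀ (ι : Type) (T : Tiling (univ : Set E3) ι) (S : Set E3), Bxs T →
  Adapted T S → ∀ R0 R1, Sides T S R0 R1 → ∀ x, Cr T S x → ∀ hk : 0 < T.dim x,
  ∃ th : PLEquiv (T.cc x \ T.oc x) (sph (T.dim x)),
    th.f '' (R0 ∩ (T.cc x \ T.oc x)) = Hu hk ∧ th.f '' (R1 ∩ (T.cc x \ T.oc x)) = Hd hk

/-- depth of the collar in dimension `k` -/
noncomputable def dep (k : ℕ) : ℝ := (1 / 4) * (1 / 2) ^ k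

/-- the collar of an integer box, degenerate directions allowed -/
noncomputable def kapZ (l h : Fin 3 → ℤ) (ω : E3) (s : ℝ) : E3 :=
  fun j => if l j = h j then ω j else max ((ω j + l j) / 2 + s) (min (ω j) ((ω j + h j) / 2 - s))

/-- result of the skeleton recursion -/
structure Norm {ι : Type} (T : Tiling (univ : Set E3) ι) (S R0 : Set E3) (Φ : E3 ≃ₜ E3) :
    Prop where
  plh : Pl.PLH Φ
  cell : ∀ x, Φ '' T.cc x = T.cc x
  fix : ∀ x, ¬ Cr T S x → ∀ y ∈ T.cc x, Φ y = y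
  col : ∀ x, Cr T S x → ∀ l h : Fin 3 → ℤ, T.cc x = zcl l h → T.oc x = zop l h → l ≤ h →
    Φ '' (R0 ∩ T.cc x) = {y | ∃ ω ∈ Φ '' (R0 ∩ (T.cc x \ T.oc x)), ∃ s ∈ Icc (0 : ℝ) (dep (T.dim x)),
      y = kapZ l h ω s}

/-- **(N5)** skeleton recursion -/
def SkelStmt : Prop := StepStmt → ThStmt → ∀ (ι : Type) (T : Tiling (univ : Set E3) ι) (S : Set E3),
  Bxs T → Adapted T S → ∀ R0 R1, Sides T S R0 R1 → ∃ Φ : E3 ≃ₜ E3, Norm T S R0 Φ

/-- `x`, `x'` lie in the same open cell of the lattice `(1/32) ℤ³` -/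
def Same (x x' : E3) : Prop := ∀ (j : Fin 3) (m : ℤ), (32 * x j < m ↔ 32 * x' j < m) ∧
  ((m : ℝ) < 32 * x j ↔ (m : ℝ) < 32 * x' j)

/-- **(N1)** the normal form is cellular for the lattice `(1/32) ℤ³` -/
def CellStmt : Prop := ∀ (ι : Type) (T : Tiling (univ : Set E3) ι) (S : Set E3), Bxs T →
  Adapted T S → ∀ R0 R1, Sides T S R0 R1 → ∀ Φ : E3 ≃ₜ E3, Norm T S R0 Φ →
  ∀ x x', Same x x' → x ∈ Φ '' R0 → x' ∈ Φ '' R0

/-- **(N6)** frontier of a regular compact cellular set -/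
def FrontStmt : Prop := ∀ N : Set E3, IsCompact N → closure (interior N) = N →
  (∀ x x', Same x x' → x ∈ N → x' ∈ N) →
  ∃ B : Finset (E3 × E3), (∀ p ∈ B, p.1 ≤ p.2) ∧
    (∀ p ∈ B, ∃ i, p.1 i = p.2 i ∧ ∀ j, j ≠ i → p.1 j ≠ p.2 j) ∧ frontier N = ⋃ p ∈ B, Icc p.1 p.2

/-- (NORM) from the pieces -/
theorem norm_of (h4 : SidesStmt) (h2 : StepStmt) (h7 : ThStmt) (h5 : SkelStmt) (h1 : CellStmt)
    (h6 : FrontStmt) : NormStmt := by
  intro ι T S hT hA _ hS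
  obtain ⟨R0, R1, hR⟩ := h4 ι T S hT hA hS
  obtain ⟨Φ, hΦ⟩ := h5 h2 h7 ι T S hT hA R0 R1 hR
  refine ⟨Φ, hΦ.plh, ?_⟩
  obtain ⟨B, hB, hB1, hBf⟩ := h6 (Φ '' R0) (hR.cpt.image Φ.continuous)
    (by rw [← Φ.image_interior, ← Φ.image_closure, hR.reg]) (h1 ι T S hT hA R0 R1 hR Φ hΦ)
  refine ⟨B, hB, hB1, ?_⟩
  rw [← hBf, ← Φ.image_frontier, hR.front]

/-- **the final theorem from the two halves** -/
theorem alexander_gen (hE : ExistStmt) (hN : NormStmt) {S : Set E3} (hp : Poly S)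
    (hS : ∀ x ∈ S, Ax_914.TwoSidedAt S x) (hcon : IsConnected S)
    (htriv : ∀ n, Coh_184.TrivAll (Fin n) (ZMod 2) S) :
    Pl.StdC (F := ℝ × ℝ) (Pl.e3 ⁻¹' S) := by
  obtain ⟨L, hL, ι, T, hT, hA⟩ := hE S hp hcon.nonempty hS
  have hScl : IsClosed S := by
    have h1 : IsCompact (L '' S) := hA.cpt
    have h2 : L.symm '' (L '' S) = S := by rw [image_image]; simp
    rw [← h2]
    exact (h1.image L.symm.continuous).isClosed
  have hS1 : ∀ x ∈ L '' S, Ax_914.TwoSidedAt (L '' S) x := by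
    rintro _ ⟨x, hx, rfl⟩
    exact (hS x hx).map L
  obtain ⟨Φ, hΦ, B, hB, hB1, hBS⟩ := hN ι T (L '' S) hT hA (hcon.nonempty.image L) hS1
  have hst := Lr_296.alexander_axis hB hB1 hBS
    (by rintro _ ⟨x, hx, rfl⟩; exact (hS1 x hx).map Φ)
    ((hcon.image L L.continuous.continuousOn).image Φ Φ.continuous.continuousOn)
    (fun n => Ax_914.TrivAll.map Φ hA.cpt.isClosed (Ax_914.TrivAll.map L hScl (htriv n)))
  obtain ⟨H, hH, hHS⟩ := hst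
  have hE' : Pl.PLH Pl.e3.toHomeomorph := Pl.PLH_clm Pl.e3
  have hM : Pl.PLH (L.trans Φ) := hL.trans hΦ
  refine ⟨H.trans ((Pl.e3.toHomeomorph.trans (L.trans Φ).symm).trans Pl.e3.toHomeomorph.symm),
    hH.trans ((hE'.trans hM.symm).trans hE'.symm), ?_⟩
  have hLS : Φ '' (L '' S) = (L.trans Φ) '' S := by
    rw [image_image]; rfl
  rw [Pl.trans_image, hHS, hLS, Pl.trans_image, Pl.trans_image]
  have h1 : Pl.e3.toHomeomorph '' (Pl.e3 ⁻¹' ((L.trans Φ) '' S)) = (L.trans Φ) '' S :=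
    image_preimage_eq _ Pl.e3.surjective
  rw [h1, Pl.symm_image_image']
  exact (congrFun Pl.e3.toHomeomorph.image_symm S)

end Crest.Agent.R096.Gp_702
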