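import Crest.Agent.R096.Gn1_296
import Crest.Agent.R096.Gp0_702

/-!
# R096/Gn2_296 (helper296, row 96, P2-GEN, N3)

Boxes are balls; a 2-regular family of arcs on the boundary of a 3-ball whose complement consists of two
connected sets is ONE circle; `circStmt : CircStmt`, `circ2Stmt : Circ2Stmt`.
-/

set_option autoImplicit false
set_option linter.unusedSectionVars false

namespace Crest.Agent.R096.Gn_296

open Set Metric MeasureTheory Crest.Agent.R096.Ce_537 Crest.Agent.R096.Cb_609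
open Crest.Agent.R096.Pl Crest.Agent.R096.Gp_702

/-! ### boxes -/

section Box

variable {k : ℕ}

/-- the affine map of the box onto the cube, and its inverse -/
noncomputable def bxf (l h : Fin k → ℝ) (y : Fin k → ℝ) : Fin k → ℝ :=
  fun j => (2 * y j - (l j + h j)) / (h j - l j)
noncomputable def bxg (l h : Fin k → ℝ) (y : Fin k → ℝ) : Fin k → ℝ :=
  fun j => ((h j - l j) * y j + (l j + h j)) / 2

theorem bxf_pl (l h : Fin k → ℝ) : PLMap (bxf l h) :=
  Ax_914.plMap_pi fun j =>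
    ((PLMap.const_mul _ (Ax_914.plMap_apply j)).sub_const _).div_const _

theorem bxg_pl (l h : Fin k → ℝ) : PLMap (bxg l h) :=
  Ax_914.plMap_pi fun j =>
    ((PLMap.const_mul _ (Ax_914.plMap_apply j)).add_const _).div_const _

theorem bxg_bxf {l h : Fin k → ℝ} (hlh : ∀ j, l j < h j) (y : Fin k → ℝ) :
    bxg l h (bxf l h y) = y := by
  ext j
  have : h j - l j ≠ 0 := by have := hlh j; linarith
  unfold bxg bxf
  field_simp
  ring

theorem bxf_bxg {l h : Fin k → ℝ} (hlh : ∀ j, l j < h j) (y : Fin k → ℝ) :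
    bxf l h (bxg l h y) = y := by
  ext j
  have : h j - l j ≠ 0 := by have := hlh j; linarith
  unfold bxg bxf
  field_simp
  ring

theorem abs_bxf {l h : Fin k → ℝ} (hlh : ∀ j, l j < h j) (y : Fin k → ℝ) (j : Fin k) :
    (|bxf l h y j| ≤ 1 ↔ l j ≤ y j ∧ y j ≤ h j) ∧ (|bxf l h y j| = 1 ↔ y j = l j ∨ y j = h j) := by
  have h0 : 0 < h j - l j := by have := hlh j; linarith
  unfold bxf
  constructor
  · rw [abs_le, le_div_iff₀ h0, div_le_iff₀ h0]
    constructor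
    · rintro ⟨h1, h2⟩; constructor <;> linarith
    · rintro ⟨h1, h2⟩; constructor <;> linarith
  · rw [abs_eq zero_le_one, div_eq_iff h0.ne', div_eq_iff h0.ne']
    constructor
    · rintro (h1 | h1)
      · right; linarith
      · left; linarith
    · rintro (h1 | h1)
      · right; rw [h1]; ring
      · left; rw [h1]; ring

theorem norm_eq_one_iff {x : Fin k → ℝ} : ‖x‖ = 1 ↔ (∀ j, |x j| ≤ 1) ∧ ∃ j, |x j| = 1 := by
  constructor
  · intro h
    refine ⟨fun j => h ▸ norm_le_pi_norm x j, ?_⟩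
    rcases exists_norm_eq x with ⟨i, hi⟩ | h0
    · exact ⟨i, by rw [← hi, h]⟩
    · subst h0
      have : x = 0 := Subsingleton.elim _ _
      rw [this, norm_zero] at h
      exact absurd h zero_ne_one
  · rintro ⟨h1, j, hj⟩
    apply le_antisymm
    · exact (pi_norm_le_iff_of_nonneg zero_le_one).2 h1
    · rw [← hj]; exact norm_le_pi_norm x j

theorem bxf_mem {l h : Fin k → ℝ} (hlh : ∀ j, l j < h j) (y : Fin k → ℝ) :
    (bxf l h y ∈ cube k ↔ y ∈ Icc l h) ∧ (bxf l h y ∈ sph k ↔ y ∈ bb l h) := by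
  constructor
  · rw [mem_closedBall_zero_iff, pi_norm_le_iff_of_nonneg zero_le_one]
    constructor
    · intro h1
      exact ⟨fun j => ((abs_bxf hlh y j).1.1 (h1 j)).1, fun j => ((abs_bxf hlh y j).1.1 (h1 j)).2⟩
    · rintro ⟨h1, h2⟩ j
      exact (abs_bxf hlh y j).1.2 ⟨h1 j, h2 j⟩
  · rw [mem_sphere_zero_iff_norm, norm_eq_one_iff]
    constructor
    · rintro ⟨h1, j, hj⟩
      exact ⟨⟨fun j => ((abs_bxf hlh y j).1.1 (h1 j)).1, fun j => ((abs_bxf hlh y j).1.1 (h1 j)).2⟩,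
        j, (abs_bxf hlh y j).2.1 hj⟩
    · rintro ⟨⟨h1, h2⟩, j, hj⟩
      exact ⟨fun j => (abs_bxf hlh y j).1.2 ⟨h1 j, h2 j⟩, j, (abs_bxf hlh y j).2.2 hj⟩

/-- the box is the cube -/
noncomputable def boxE {l h : Fin k → ℝ} (hlh : ∀ j, l j < h j) : PLEquiv (Icc l h) (cube k) where
  f := bxf l h
  g := bxg l h
  pf := (bxf_pl l h).plOn _
  pg := (bxg_pl l h).plOn _
  mf := fun y hy => (bxf_mem hlh y).1.2 hy
  mg := fun y hy => (bxf_mem hlh _).1.1 (by rw [bxf_bxg hlh]; exact hy)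
  li := fun y _ => bxg_bxf hlh y
  ri := fun y _ => bxf_bxg hlh y

theorem boxE_bb {l h : Fin k → ℝ} (hlh : ∀ j, l j < h j) : bxg l h '' sph k = bb l h := by
  ext y
  constructor
  · rintro ⟨x, hx, rfl⟩
    exact (bxf_mem hlh _).2.1 (by rw [bxf_bxg hlh]; exact hx)
  · intro hy
    exact ⟨bxf l h y, (bxf_mem hlh y).2.2 hy, bxg_bxf hlh y⟩

theorem isBall_box {l h : Fin k → ℝ} (hlh : ∀ j, l j < h j) : IsBall k (Icc l h) (bb l h) :=
  ⟨(boxE hlh).symm, boxE_bb hlh⟩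

end Box

variable {E : Type*} [NormedAddCommGroup E] [NormedSpace ℝ E]

/-! ### arcs have no interior in a disc -/

theorem range_null (g : (Fin 1 → ℝ) →ᵃ[ℝ] (Fin 2 → ℝ)) : volume (range g) = 0 := by
  have h1 : (((⊤ : AffineSubspace ℝ (Fin 1 → ℝ)).map g : AffineSubspace ℝ (Fin 2 → ℝ)) :
      Set (Fin 2 → ℝ)) = range g := by
    rw [AffineSubspace.coe_map, AffineSubspace.top_coe, image_univ]
  rw [← h1]
  refine Measure.addHaar_affineSubspace _ _ ?_
  intro htop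
  have hsurj : Function.Surjective g := by
    rw [← range_eq_univ, ← h1, htop, AffineSubspace.top_coe]
  have h2 : Function.Surjective g.linear := g.linear_surjective_iff.2 hsurj
  have h3 := LinearMap.finrank_le_finrank_of_surjective (f := g.linear) h2
  simp at h3

theorem exists_not_mem_arcs {A Γ O : Set E} (hA : IsBall 2 A Γ) (hO : IsOpen O)
    (hne : ((A \ Γ) ∩ O).Nonempty) {n : ℕ} {α d : Fin n → Set E} (hα : ∀ i, IsBall 1 (α i) (d i)) :
    ∃ x ∈ (A \ Γ) ∩ O, ∀ i, x ∉ α i := by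
  by_contra hcon
  push Not at hcon
  obtain ⟨e, he⟩ := hA
  choose a ha using hα
  have hpl : ∀ i, PLOn (fun w => e.g ((a i).f w)) {w | w ∈ cube 1 ∧ (a i).f w ∈ A} := fun i =>
    e.pg.comp ((a i).pf.mono fun w hw => hw.1) fun w hw => hw.2
  choose S hS using fun i => (hpl i).2
  set V : Set (Fin 2 → ℝ) := ball 0 1 ∩ e.f ⁻¹' O with hV
  have hVo : IsOpen V := (e.pf.1.mono ball_subset_closedBall).isOpen_inter_preimage isOpen_ball hO
  have hVne : V.Nonempty := by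
    obtain ⟨x, ⟨hxA, hxΓ⟩, hxO⟩ := hne
    have h1 := e.mg hxA
    refine ⟨e.g x, ?_, ?_⟩
    · have h2 : e.g x ∉ sph 2 := fun h => hxΓ (by
        rw [← he]; exact ⟨_, h, e.ri x hxA⟩)
      rw [mem_closedBall] at h1
      rw [mem_sphere] at h2
      rw [mem_ball]
      exact lt_of_le_of_ne h1 h2
    · show e.f (e.g x) ∈ O
      rw [e.ri x hxA]; exact hxO
  have hcov : V ⊆ ⋃ i, ⋃ g ∈ S i, range g := by
    rintro v ⟨hv, hvO⟩
    have hvc : v ∈ cube 2 := ball_subset_closedBall hv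
    have hvs : e.f v ∉ Γ := by
      intro h
      rw [← he] at h
      obtain ⟨w, hw, hwe⟩ := h
      have := e.injOn (sph_subset_cube hw) hvc hwe
      subst this
      rw [mem_ball] at hv
      rw [mem_sphere] at hw
      linarith
    obtain ⟨i, hi⟩ := hcon (e.f v) ⟨⟨e.mf hvc, hvs⟩, hvO⟩
    have h1 := (a i).mg hi
    have h2 := (a i).ri _ hi
    obtain ⟨g, hg, hge⟩ := hS i ((a i).g (e.f v)) ⟨h1, by rw [h2]; exact e.mf hvc⟩
    refine mem_iUnion.2 ⟨i, mem_iUnion₂.2 ⟨g, hg, ⟨(a i).g (e.f v), ?_⟩⟩⟩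
    rw [← hge]
    simp only [h2]
    exact e.li v hvc
  have h0 : volume (⋃ i, ⋃ g ∈ S i, range g) = 0 :=
    measure_iUnion_null fun i => (measure_biUnion_null_iff (S i).countable_toSet).2
      fun g _ => range_null g
  exact (hVo.measure_pos volume hVne).ne' (measure_mono_null hcov h0)

/-! ### minimal closed subfamilies -/

/-- closed under meeting -/
def Cls {n : ℕ} (α : Fin n → Set E) (s : Finset (Fin n)) : Prop :=
  ∀ i ∈ s, ∀ j, (α i ∩ α j).Nonempty → j ∈ s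

theorem exists_min {n : ℕ} (α : Fin n → Set E) {s : Finset (Fin n)} (hs : Cls α s)
    (hne : s.Nonempty) (hsym : ∀ i, IsConnected (α i)) :
    ∃ t ⊆ s, t.Nonempty ∧ Cls α t ∧ IsPreconnected (⋃ i ∈ t, α i) := by
  classical
  obtain ⟨t, ht, hmin⟩ := Finset.exists_min_image (s.powerset.filter fun t => t.Nonempty ∧ Cls α t)
    Finset.card ⟨s, Finset.mem_filter.2 ⟨Finset.mem_powerset_self s, hne, hs⟩⟩
  obtain ⟨ht1, ht2, ht3⟩ := Finset.mem_filter.1 ht
  have hts := Finset.mem_powerset.1 ht1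
  refine ⟨t, hts, ht2, ht3, ?_⟩
  rw [isPreconnected_closed_iff]
  intro C1 C2 h1 h2 hcov hn1 hn2
  by_contra hcon
  have hdis : ∀ x ∈ ⋃ i ∈ t, α i, ¬ (x ∈ C1 ∧ x ∈ C2) := fun x hx h => hcon ⟨x, hx, h⟩
  have hone : ∀ i ∈ t, α i ⊆ C1 ∨ α i ⊆ C2 := by
    intro i hi
    have hsub : α i ⊆ ⋃ i ∈ t, α i := fun x hx => mem_iUnion₂.2 ⟨i, hi, hx⟩
    by_cases c1 : (α i ∩ C1).Nonempty
    · by_cases c2 : (α i ∩ C2).Nonempty
      · obtain ⟨x, hx, hx'⟩ := isPreconnected_closed_iff.1 (hsym i).isPreconnected C1 C2 h1 h2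
          (hsub.trans hcov) c1 c2
        exact (hdis x (hsub hx) hx').elim
      · left
        intro x hx
        exact (hcov (hsub hx)).resolve_right fun h => c2 ⟨x, hx, h⟩
    · right
      intro x hx
      exact (hcov (hsub hx)).resolve_left fun h => c1 ⟨x, hx, h⟩
  set t' := t.filter fun i => α i ⊆ C1 with ht'
  have hmem : ∀ i, i ∈ t' ↔ i ∈ t ∧ α i ⊆ C1 := fun i => Finset.mem_filter
  obtain ⟨x1, hx1, hxC1⟩ := hn1
  obtain ⟨x2, hx2, hxC2⟩ := hn2
  obtain ⟨i1, hi1, hxi1⟩ := mem_iUnion₂.1 hx1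
  obtain ⟨i2, hi2, hxi2⟩ := mem_iUnion₂.1 hx2
  have e1 : i1 ∈ t' := by
    refine (hmem _).2 ⟨hi1, (hone i1 hi1).resolve_right fun h => ?_⟩
    exact hdis x1 hx1 ⟨hxC1, h hxi1⟩
  have e2 : i2 ∉ t' := by
    intro h
    exact hdis x2 hx2 ⟨((hmem _).1 h).2 hxi2, hxC2⟩
  have hcls : Cls α t' := by
    rintro i hi j ⟨x, hxi, hxj⟩
    obtain ⟨hit, hiC⟩ := (hmem _).1 hi
    have hjt := ht3 i hit j ⟨x, hxi, hxj⟩
    refine (hmem _).2 ⟨hjt, (hone j hjt).resolve_right fun h => ?_⟩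
    exact hdis x (mem_iUnion₂.2 ⟨i, hit, hxi⟩) ⟨hiC hxi, h hxj⟩
  have hlt : t'.card < t.card := by
    apply Finset.card_lt_card
    refine ⟨Finset.filter_subset _ _, fun h => e2 (h hi2)⟩
  have := hmin t' (Finset.mem_filter.2 ⟨Finset.mem_powerset.2 ((Finset.filter_subset _ _).trans hts),
    ⟨i1, e1⟩, hcls⟩)
  omega

/-! ### one circle -/

/-- **a 2-regular family of arcs on the boundary of a 3-ball with two connected complementary pieces is
a circle** -/
theorem circ_main {K S : Set E} (hK : IsBall 3 K S) {n : ℕ} (hn : 0 < n) {α : Fin n → Set E}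
    {a b : Fin n → E} (hα : ∀ i, IsBall 1 (α i) {a i, b i}) (hS : ∀ i, α i ⊆ S)
    (hint : ∀ i j, i ≠ j → α i ∩ α j ⊆ {a i, b i} ∩ {a j, b j})
    (ha : ∀ i, ∃! j, j ≠ i ∧ a i ∈ α j) (hb : ∀ i, ∃! j, j ≠ i ∧ b i ∈ α j)
    {P N : Set E} (hPN : S \ (⋃ i, α i) = P ∪ N) (hP : IsPreconnected P) (hN : IsPreconnected N) :
    Nonempty (PLEquiv (S1 ℝ) (⋃ i, α i)) := by
  classical
  have hcon : ∀ i, IsConnected (α i) := fun i => ⟨(hα i).nonempty, (hα i).isPreconnected⟩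
  -- circles from minimal closed subfamilies
  have hcirc : ∀ t : Finset (Fin n), t.Nonempty → Cls α t → IsPreconnected (⋃ i ∈ t, α i) →
      Nonempty (PLEquiv (S1 ℝ) (⋃ i ∈ t, α i)) := by
    intro t ht hct hpre
    refine circle_of_arcs t α (fun i => {a i, b i}) ht (fun i _ => hα i)
      (fun i _ j _ hij => hint i j hij) ?_ hpre
    intro i hi x hx
    have key : ∀ x, x ∈ ({a i, b i} : Set E) → (∃! j, j ≠ i ∧ x ∈ α j) →
        ∃ j ∈ t, j ≠ i ∧ x ∈ ({a j, b j} : Set E) ∧ ∀ k ∈ t, x ∈ ({a k, b k} : Set E) →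
          k = i ∨ k = j := by
      rintro x hx ⟨j, ⟨hji, hxj⟩, hu⟩
      have hxi : x ∈ α i := (hα i).subset hx
      refine ⟨j, hct i hi j ⟨x, hxi, hxj⟩, hji, (hint i j hji.symm ⟨hxi, hxj⟩).2, ?_⟩
      intro k _ hxk
      by_cases hki : k = i
      · exact Or.inl hki
      · exact Or.inr (hu k ⟨hki, (hα k).subset hxk⟩)
    rcases hx with rfl | hx
    · exact key _ (by simp) (ha i)
    · rw [mem_singleton_iff] at hx
      subst hx
      exact key _ (by simp) (hb i)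
  obtain ⟨t0, -, hne0, hcl0, hpre0⟩ := exists_min α (s := Finset.univ)
    (fun i _ j _ => Finset.mem_univ j) ⟨⟨0, hn⟩, Finset.mem_univ _⟩ hcon
  have hc0 := hcirc t0 hne0 hcl0 hpre0
  by_cases hall : t0 = Finset.univ
  · subst hall
    simpa using hc0
  -- a second circle
  exfalso
  have hcompl : Cls α t0ᶜ := by
    rintro i hi j ⟨x, hxi, hxj⟩
    rw [Finset.mem_compl] at hi ⊢
    exact fun hj => hi (hcl0 j hj i ⟨x, hxj, hxi⟩)
  have hcne : (t0ᶜ).Nonempty := by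
    rw [Finset.nonempty_iff_ne_empty]
    intro h
    exact hall ((Finset.compl_eq_empty_iff t0).1 h)
  obtain ⟨t1, ht1, hne1, hcl1, hpre1⟩ := exists_min α hcompl hcne hcon
  have hc1 := hcirc t1 hne1 hcl1 hpre1
  set Γ0 := ⋃ i ∈ t0, α i with hΓ0
  set Γ1 := ⋃ i ∈ t1, α i with hΓ1
  have hdisj : Disjoint Γ0 Γ1 := by
    rw [Set.disjoint_left]
    intro x hx0 hx1
    obtain ⟨i, hi, hxi⟩ := mem_iUnion₂.1 hx0
    obtain ⟨j, hj, hxj⟩ := mem_iUnion₂.1 hx1
    exact (Finset.mem_compl.1 (ht1 hj)) (hcl0 i hi j ⟨x, hxi, hxj⟩)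
  have hΓ0S : Γ0 ⊆ S := iUnion₂_subset fun i _ => hS i
  have hΓ1S : Γ1 ⊆ S := iUnion₂_subset fun i _ => hS i
  have hΓ0Γ : Γ0 ⊆ ⋃ i, α i := iUnion₂_subset fun i _ => subset_iUnion α i
  have hΓ1Γ : Γ1 ⊆ ⋃ i, α i := iUnion₂_subset fun i _ => subset_iUnion α i
  have hΓ0ne : Γ0.Nonempty := by
    obtain ⟨i, hi⟩ := hne0
    obtain ⟨x, hx⟩ := (hα i).nonempty
    exact ⟨x, mem_iUnion₂.2 ⟨i, hi, hx⟩⟩
  have hΓ1ne : Γ1.Nonempty := by
    obtain ⟨i, hi⟩ := hne1
    obtain ⟨x, hx⟩ := (hα i).nonempty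
    exact ⟨x, mem_iUnion₂.2 ⟨i, hi, hx⟩⟩
  obtain ⟨A0, B0, hp0, hu0⟩ := sphere_sides hK hc0 hΓ0S
  obtain ⟨A1, B1, hp1, hu1⟩ := sphere_sides hK hc1 hΓ1S
  -- a connected set missing a circle lies on one side
  have hside : ∀ {A B Γ X : Set E}, BallPair 2 K A B Γ → A ∪ B = S → IsPreconnected X → X ⊆ S →
      Disjoint X Γ → X ⊆ A ∨ X ⊆ B := by
    intro A B Γ X hp hu hX hXS hd
    by_cases c1 : (X ∩ A).Nonempty
    · by_cases c2 : (X ∩ B).Nonempty
      · obtain ⟨x, hx, hx'⟩ := isPreconnected_closed_iff.1 hX A B hp.ball₁.isClosed hp.ball₂.isClosed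
          (by rw [hu]; exact hXS) c1 c2
        rw [hp.inter] at hx'
        exact (Set.disjoint_left.1 hd hx hx').elim
      · left
        intro x hx
        exact (by rw [hu]; exact hXS hx : x ∈ A ∪ B).resolve_right fun h => c2 ⟨x, hx, h⟩
    · right
      intro x hx
      exact (by rw [hu]; exact hXS hx : x ∈ A ∪ B).resolve_left fun h => c1 ⟨x, hx, h⟩
  -- the key contradiction, with names fixed
  have key : ∀ {A0 B0 A1 B1 : Set E}, BallPair 2 K A0 B0 Γ0 → A0 ∪ B0 = S → BallPair 2 K A1 B1 Γ1 →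
      A1 ∪ B1 = S → Γ1 ⊆ A0 → Γ0 ⊆ A1 → False := by
    intro A0 B0 A1 B1 hp0 hu0 hp1 hu1 h10 h01
    have hB1Γ0 : Disjoint B1 Γ0 := by
      rw [Set.disjoint_left]
      intro x hx hx0
      have : x ∈ Γ1 := by rw [← hp1.inter]; exact ⟨h01 hx0, hx⟩
      exact Set.disjoint_left.1 hdisj hx0 this
    have hB0Γ1 : Disjoint B0 Γ1 := by
      rw [Set.disjoint_left]
      intro x hx hx1
      have : x ∈ Γ0 := by rw [← hp0.inter]; exact ⟨h10 hx1, hx⟩
      exact Set.disjoint_left.1 hdisj this hx1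
    have hB1S : B1 ⊆ S := by rw [← hu1]; exact subset_union_right
    have hB1A0 : B1 ⊆ A0 := by
      rcases hside hp0 hu0 hp1.ball₂.isPreconnected hB1S hB1Γ0 with h | h
      · exact h
      · obtain ⟨x, hx⟩ := hΓ1ne
        exact (Set.disjoint_left.1 hB0Γ1 (h (hp1.ball₂.subset hx)) hx).elim
    -- three pieces
    obtain ⟨x0, hx0, hx0Γ⟩ := exists_not_mem_arcs hp0.ball₂ isOpen_univ
      (by rw [inter_univ]; exact hp0.ball₂.nonempty_diff) hα
    obtain ⟨x1, hx1, hx1Γ⟩ := exists_not_mem_arcs hp1.ball₂ isOpen_univ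
      (by rw [inter_univ]; exact hp1.ball₂.nonempty_diff) hα
    have h3 : ((A0 \ Γ0) ∩ B1ᶜ).Nonempty := by
      by_contra hne
      have hsub : A0 \ Γ0 ⊆ B1 := by
        intro x hx
        by_contra hxB
        exact hne ⟨x, hx, hxB⟩
      have h4 : A0 ⊆ B1 := by
        rw [← hp0.ball₁.closure_diff]
        exact closure_minimal hsub hp1.ball₂.isClosed
      obtain ⟨x, hx⟩ := hΓ0ne
      exact Set.disjoint_left.1 hB1Γ0 (h4 (hp0.ball₁.subset hx)) hx
    obtain ⟨x2, hx2, hx2Γ⟩ := exists_not_mem_arcs hp0.ball₁ hp1.ball₂.isClosed.isOpen_compl h3 hα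
    have hmemPN : ∀ x ∈ S, (∀ i, x ∉ α i) → x ∈ P ∪ N := by
      intro x hx hxΓ
      rw [← hPN]
      exact ⟨hx, fun h => by obtain ⟨i, hi⟩ := mem_iUnion.1 h; exact hxΓ i hi⟩
    have hA0S : A0 ⊆ S := by rw [← hu0]; exact subset_union_left
    have hB0S : B0 ⊆ S := by rw [← hu0]; exact subset_union_right
    have m0 := hmemPN x0 (hB0S hx0.1.1) hx0Γ
    have m1 := hmemPN x1 (hB1S hx1.1.1) hx1Γ
    have m2 := hmemPN x2 (hA0S hx2.1.1) hx2Γ
    -- a connected subset of the complement lies in one piece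
    have hloc : ∀ X : Set E, IsPreconnected X → X ⊆ S \ ⋃ i, α i →
        (x0 ∈ X → x1 ∉ X) ∧ (x0 ∈ X → x2 ∉ X) ∧ (x1 ∈ X → x2 ∉ X) := by
      intro X hX hXS
      have hXS' : X ⊆ S := fun x hx => (hXS hx).1
      have hX0 : Disjoint X Γ0 := Set.disjoint_left.2 fun x hx h => (hXS hx).2 (hΓ0Γ h)
      have hX1 : Disjoint X Γ1 := Set.disjoint_left.2 fun x hx h => (hXS hx).2 (hΓ1Γ h)
      have q0 : x0 ∉ A0 := fun h => hx0.1.2 (by rw [← hp0.inter]; exact ⟨h, hx0.1.1⟩)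
      have q1 : x1 ∉ A1 := fun h => hx1.1.2 (by rw [← hp1.inter]; exact ⟨h, hx1.1.1⟩)
      have q2 : x2 ∉ B0 := fun h => hx2.1.2 (by rw [← hp0.inter]; exact ⟨hx2.1.1, h⟩)
      have q3 : x1 ∉ B0 := fun h => by
        have h5 : x1 ∈ Γ0 := by rw [← hp0.inter]; exact ⟨hB1A0 hx1.1.1, h⟩
        exact Set.disjoint_left.1 hB1Γ0 hx1.1.1 h5
      refine ⟨fun hx hy => ?_, fun hx hy => ?_, fun hx hy => ?_⟩
      · rcases hside hp0 hu0 hX hXS' hX0 with h | h
        · exact q0 (h hx)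
        · exact q3 (h hy)
      · rcases hside hp0 hu0 hX hXS' hX0 with h | h
        · exact q0 (h hx)
        · exact q2 (h hy)
      · rcases hside hp1 hu1 hX hXS' hX1 with h | h
        · exact q1 (h hx)
        · exact hx2.2 (h hy)
    have hlP := hloc P hP (by rw [hPN]; exact subset_union_left)
    have hlN := hloc N hN (by rw [hPN]; exact subset_union_right)
    rcases m0 with m0 | m0
    · rcases m1 with m1 | m1
      · exact hlP.1 m0 m1
      · rcases m2 with m2 | m2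
        · exact hlP.2.1 m0 m2
        · exact hlN.2.2 m1 m2
    · rcases m1 with m1 | m1
      · rcases m2 with m2 | m2
        · exact hlP.2.2 m1 m2
        · exact hlN.2.1 m0 m2
      · exact hlN.1 m0 m1
  rcases hside hp0 hu0 hpre1 hΓ1S hdisj.symm with h10 | h10
  · rcases hside hp1 hu1 hpre0 hΓ0S hdisj with h01 | h01
    · exact key hp0 hu0 hp1 hu1 h10 h01
    · exact key hp0 hu0 hp1.symm (by rw [union_comm]; exact hu1) h10 h01
  · rcases hside hp1 hu1 hpre0 hΓ0S hdisj with h01 | h01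
    · exact key hp0.symm (by rw [union_comm]; exact hu0) hp1 hu1 h10 h01
    · exact key hp0.symm (by rw [union_comm]; exact hu0) hp1.symm (by rw [union_comm]; exact hu1)
        h10 h01

theorem exists_theta' {k : ℕ} {K R0 R1 Γ S : Set E} (h : BallPair k K R0 R1 Γ)
    (hu : R0 ∪ R1 = S) :
    ∃ th : PLEquiv S (sph (k + 1)), th.f '' R0 = Hp k ∧ th.f '' R1 = Hm k := by
  subst hu
  exact exists_theta h

/-- **(N3)** -/
theorem circStmt : CircStmt := by
  intro l h hlh n α a b hn hα hS hint ha hb hPN R0 R1 hR0 hR1 hu hi hn0 hn1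
  obtain ⟨P, N, hPN, hP, hN⟩ := hPN
  have hK := isBall_box hlh
  have hc := circ_main hK hn hα hS hint ha hb hPN hP hN
  have hne : ∀ {R : Set E3}, ⋃ i, α i ⊆ R → R ≠ ⋃ i, α i → (R \ ⋃ i, α i).Nonempty := by
    intro R h1 h2
    by_contra h3
    apply h2
    apply Subset.antisymm _ h1
    intro x hx
    by_contra hx'
    exact h3 ⟨x, hx, hx'⟩
  have hP2 := ballPair_sides hK hc (iUnion_subset hS) hR0 hR1 hu hi
    (hne (by rw [← hi]; exact inter_subset_left) hn0)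
    (hne (by rw [← hi]; exact inter_subset_right) hn1)
  obtain ⟨th, h1, h2⟩ := exists_theta' hP2 hu
  exact ⟨th, h1, h2⟩

/-- **(N3')** -/
theorem circ2Stmt : Circ2Stmt := by
  intro l h hlh p q hpq R0 R1 hR0 hR1 hu hi hn0 hn1
  have hK := isBall_box hlh
  have hp : p ∈ bb l h := by
    rw [← hu]; left
    have : p ∈ R0 ∩ R1 := by rw [hi]; simp
    exact this.1
  have hq : q ∈ bb l h := by
    rw [← hu]; left
    have : q ∈ R0 ∩ R1 := by rw [hi]; simp
    exact this.1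
  obtain ⟨A, B, hP, hAB⟩ := two_marks hK hp hq hpq
  have hne : ∀ {R : Set (Fin 2 → ℝ)}, {p, q} ⊆ R → R ≠ {p, q} → (R \ {p, q}).Nonempty := by
    intro R h1 h2
    by_contra h3
    apply h2
    apply Subset.antisymm _ h1
    intro x hx
    by_contra hx'
    exact h3 ⟨x, hx, hx'⟩
  have hP2 : BallPair 1 (Icc l h) R0 R1 {p, q} := by
    rcases sides_unique hP.ball₁ hP.ball₂ hAB hR0 hR1 hu hi
      (hne (by rw [← hi]; exact inter_subset_left) hn0)
      (hne (by rw [← hi]; exact inter_subset_right) hn1) with ⟨rfl, rfl⟩ | ⟨rfl, rfl⟩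
    · exact hP
    · exact hP.symm
  obtain ⟨th, h1, h2⟩ := exists_theta' hP2 hu
  exact ⟨th, h1, h2⟩

end Crest.Agent.R096.Gn_296
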