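import Mathlib

/-! # Row 96, SPHERE (G): the gauge `Ng z C` of a convex body centred at `z` and the radial
projection `pj z C` (helper316): definitions -/

set_option autoImplicit false

open Set Filter Topology Metric

namespace Crest.Agent.R096.Sphg_316

variable {V : Type*} [AddCommGroup V] [Module ℝ V]

/-- the gauge of `C` centred at `z` -/
noncomputable def Ng (z : V) (C : Set V) (y : V) : ℝ :=
  gauge ((fun w => w + z) ⁻¹' C) (y - z)

/-- the radial projection onto the frontier of `C` centred at `z` -/
noncomputable def pj (z : V) (C : Set V) (y : V) : V := z + (Ng z C y)⁻¹ • (y - z)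

theorem Ng_nonneg (z : V) (C : Set V) (y : V) : 0 ≤ Ng z C y := gauge_nonneg _

theorem Ng_self (z : V) (C : Set V) : Ng z C z = 0 := by
  rw [Ng, sub_self, gauge_zero]

/-- the gauge is positively homogeneous around `z` -/
theorem Ng_ray (z : V) (C : Set V) {r : ℝ} (hr : 0 ≤ r) (w : V) :
    Ng z C (z + r • (w - z)) = r * Ng z C w := by
  rw [Ng, Ng, add_sub_cancel_left, gauge_smul_of_nonneg hr, smul_eq_mul]

end Crest.Agent.R096.Sphg_316
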