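import Mathlib
import Crest.Agent.R096.Sphg1_316

/-! # Row 96, SPHERE (G): the gauge `Ng z C` of a convex body centred at `z` and the radial
projection `pj z C` (helper316): (g1)-(g4), (g6) -/

set_option autoImplicit false
set_option linter.unusedSectionVars false
set_option linter.deprecated false

open Set Filter Topology Metric NNReal

namespace Crest.Agent.R096.Sphg_316

variable {V : Type*} [NormedAddCommGroup V] [NormedSpace ℝ V] {z : V} {C : Set V}

/-- the standing hypotheses: a compact convex set with an interior point -/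
structure Bod (z : V) (C : Set V) : Prop where
  cpt : IsCompact C
  cvx : Convex ℝ C
  int : z ∈ interior C

/-! ### the translated body -/

theorem Bod.s_convex (h : Bod z C) : Convex ℝ ((fun w => w + z) ⁻¹' C) :=
  h.cvx.translate_preimage_left z

theorem Bod.s_nhds (h : Bod z C) : (fun w => w + z) ⁻¹' C ∈ 𝓝 (0 : V) := by
  have h1 : C ∈ 𝓝 (0 + z) := by rw [zero_add]; exact mem_interior_iff_mem_nhds.1 h.int
  exact (continuous_add_const z).continuousAt.preimage_mem_nhds h1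

theorem Bod.s_compact (h : Bod z C) : IsCompact ((fun w => w + z) ⁻¹' C) :=
  (Homeomorph.addRight z).isCompact_preimage.2 h.cpt

theorem Bod.s_closure (h : Bod z C) :
    closure ((fun w => w + z) ⁻¹' C) = (fun w => w + z) ⁻¹' C := h.s_compact.isClosed.closure_eq

theorem s_frontier (z : V) (C : Set V) :
    frontier ((fun w => w + z) ⁻¹' C) = (fun w => w + z) ⁻¹' frontier C :=
  ((Homeomorph.addRight z).preimage_frontier C).symm

theorem s_interior (z : V) (C : Set V) :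
    interior ((fun w => w + z) ⁻¹' C) = (fun w => w + z) ⁻¹' interior C :=
  ((Homeomorph.addRight z).preimage_interior C).symm

/-! ### (g1) -/

theorem Bod.lipschitz (h : Bod z C) : ∃ L : ℝ≥0, LipschitzWith L (Ng z C) := by
  obtain ⟨K, hK⟩ := h.s_convex.lipschitz_gauge h.s_nhds
  refine ⟨K * 1, hK.comp ?_⟩
  refine LipschitzWith.of_dist_le_mul fun x y => ?_
  rw [dist_sub_right, NNReal.coe_one, one_mul]

theorem Bod.continuous (h : Bod z C) : Continuous (Ng z C) := by
  obtain ⟨L, hL⟩ := h.lipschitz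
  exact hL.continuous

theorem Bod.eq_zero (h : Bod z C) {y : V} : Ng z C y = 0 ↔ y = z := by
  rw [Ng, gauge_eq_zero (absorbent_nhds_zero h.s_nhds)
    ((NormedSpace.isVonNBounded_iff ℝ).2 h.s_compact.isBounded), sub_eq_zero]

theorem Bod.pos (h : Bod z C) {y : V} : 0 < Ng z C y ↔ y ≠ z := by
  rw [(Ng_nonneg z C y).lt_iff_ne', Ne, h.eq_zero]

/-- the homothety with centre `z` -/
theorem ray_ray {r s : ℝ} (w : V) : z + r • (z + s • (w - z) - z) = z + (r * s) • (w - z) := by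
  rw [add_sub_cancel_left, smul_smul]

theorem ray_one (w : V) : z + (1 : ℝ) • (w - z) = w := by rw [one_smul, add_sub_cancel]

/-- the homothety as a homeomorphism -/
noncomputable def hh (z : V) (r : ℝ) (hr : r ≠ 0) : V ≃ₜ V where
  toFun w := z + r • (w - z)
  invFun w := z + r⁻¹ • (w - z)
  left_inv w := by
    show z + r⁻¹ • (z + r • (w - z) - z) = w
    rw [ray_ray, inv_mul_cancel₀ hr, ray_one]
  right_inv w := by
    show z + r • (z + r⁻¹ • (w - z) - z) = w
    rw [ray_ray, mul_inv_cancel₀ hr, ray_one]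
  continuous_toFun := by fun_prop
  continuous_invFun := by fun_prop

/-! ### (g2) -/

theorem Bod.le_one (h : Bod z C) : {y | Ng z C y ≤ 1} = C := by
  ext y
  rw [mem_setOf_eq, Ng, gauge_le_one_iff_mem_closure h.s_convex h.s_nhds, h.s_closure,
    mem_preimage, sub_add_cancel]

theorem Bod.lt_one (h : Bod z C) : {y | Ng z C y < 1} = interior C := by
  ext y
  rw [mem_setOf_eq, Ng, gauge_lt_one_iff_mem_interior h.s_convex h.s_nhds, s_interior,
    mem_preimage, sub_add_cancel]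

theorem Bod.eq_one (h : Bod z C) : {y | Ng z C y = 1} = frontier C := by
  ext y
  rw [mem_setOf_eq, Ng, gauge_eq_one_iff_mem_frontier h.s_convex h.s_nhds, s_frontier,
    mem_preimage, sub_add_cancel]

theorem Bod.le_one_iff (h : Bod z C) {y : V} : Ng z C y ≤ 1 ↔ y ∈ C := by
  rw [← mem_setOf_eq (p := fun y => Ng z C y ≤ 1), h.le_one]

theorem Bod.lt_one_iff (h : Bod z C) {y : V} : Ng z C y < 1 ↔ y ∈ interior C := by
  rw [← mem_setOf_eq (p := fun y => Ng z C y < 1), h.lt_one]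

theorem Bod.eq_one_iff (h : Bod z C) {y : V} : Ng z C y = 1 ↔ y ∈ frontier C := by
  rw [← mem_setOf_eq (p := fun y => Ng z C y = 1), h.eq_one]

/-- rescaling: `Ng y` against `r` -/
theorem Ng_scale (z : V) (C : Set V) {r : ℝ} (hr : 0 < r) (y : V) :
    Ng z C (z + r⁻¹ • (y - z)) = Ng z C y / r := by
  rw [Ng_ray z C (inv_nonneg.2 hr.le), div_eq_inv_mul]

theorem le_eq_pre {r : ℝ} (hr : 0 < r) :
    {y | Ng z C y ≤ r} = (hh z r⁻¹ (inv_ne_zero hr.ne')) ⁻¹' {y | Ng z C y ≤ 1} := by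
  ext y
  show Ng z C y ≤ r ↔ Ng z C (z + r⁻¹ • (y - z)) ≤ 1
  rw [Ng_scale z C hr, div_le_one hr]

theorem lt_eq_pre {r : ℝ} (hr : 0 < r) :
    {y | Ng z C y < r} = (hh z r⁻¹ (inv_ne_zero hr.ne')) ⁻¹' {y | Ng z C y < 1} := by
  ext y
  show Ng z C y < r ↔ Ng z C (z + r⁻¹ • (y - z)) < 1
  rw [Ng_scale z C hr, div_lt_one hr]

theorem eq_eq_pre {r : ℝ} (hr : 0 < r) :
    {y | Ng z C y = r} = (hh z r⁻¹ (inv_ne_zero hr.ne')) ⁻¹' {y | Ng z C y = 1} := by
  ext y
  show Ng z C y = r ↔ Ng z C (z + r⁻¹ • (y - z)) = 1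
  rw [Ng_scale z C hr, div_eq_one_iff_eq hr.ne']

theorem Bod.isCompact_le (h : Bod z C) (r : ℝ) : IsCompact {y | Ng z C y ≤ r} := by
  rcases lt_or_ge 0 r with hr | hr
  · rw [le_eq_pre hr, h.le_one]
    exact (hh z r⁻¹ _).isCompact_preimage.2 h.cpt
  · refine (isCompact_singleton (x := z)).of_isClosed_subset
      (isClosed_le h.continuous continuous_const) ?_
    intro y hy
    exact h.eq_zero.1 (le_antisymm (le_trans hy hr) (Ng_nonneg _ _ _))

theorem Bod.isCompact_eq (h : Bod z C) (r : ℝ) : IsCompact {y | Ng z C y = r} :=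
  (h.isCompact_le r).of_isClosed_subset (isClosed_eq h.continuous continuous_const)
    fun _ hy => le_of_eq hy

/-- convexity in the form of an inequality -/
theorem Bod.convexOn (h : Bod z C) : ConvexOn ℝ univ (Ng z C) := by
  refine ⟨convex_univ, fun x _ y _ a b ha hb hab => ?_⟩
  have h1 : a • x + b • y - z = a • (x - z) + b • (y - z) := by
    have : z = (a + b) • z := by rw [hab, one_smul]
    calc a • x + b • y - z = a • x + b • y - (a + b) • z := by rw [← this]
      _ = a • (x - z) + b • (y - z) := by rw [add_smul, smul_sub, smul_sub]; abel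
  rw [Ng, h1]
  refine (gauge_add_le h.s_convex (absorbent_nhds_zero h.s_nhds) _ _).trans ?_
  rw [gauge_smul_of_nonneg ha, gauge_smul_of_nonneg hb]
  exact le_of_eq rfl

theorem Bod.convex_le (h : Bod z C) (r : ℝ) : Convex ℝ {y | Ng z C y ≤ r} := by
  have h1 := h.convexOn.convex_le r
  simpa using h1

theorem Bod.convex_lt (h : Bod z C) (r : ℝ) : Convex ℝ {y | Ng z C y < r} := by
  have h1 := h.convexOn.convex_lt r
  simpa using h1

theorem Bod.interior_le (h : Bod z C) {r : ℝ} (hr : 0 < r) :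
    interior {y | Ng z C y ≤ r} = {y | Ng z C y < r} := by
  rw [le_eq_pre hr, lt_eq_pre hr, ← Homeomorph.preimage_interior, h.le_one, h.lt_one]

theorem Bod.nonempty_lt (_h : Bod z C) {r : ℝ} (hr : 0 < r) : {y | Ng z C y < r}.Nonempty :=
  ⟨z, by rw [mem_setOf_eq, Ng_self]; exact hr⟩

theorem Bod.frontier_le (h : Bod z C) {r : ℝ} (hr : 0 < r) :
    frontier {y | Ng z C y ≤ r} = {y | Ng z C y = r} := by
  rw [le_eq_pre hr, eq_eq_pre hr, ← Homeomorph.preimage_frontier, h.le_one, h.eq_one]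

theorem Bod.isOpen_lt (h : Bod z C) (r : ℝ) : IsOpen {y | Ng z C y < r} :=
  _root_.isOpen_lt h.continuous continuous_const

theorem Bod.le_sub (h : Bod z C) {r : ℝ} (hr : r ≤ 1) : {y | Ng z C y ≤ r} ⊆ C := by
  intro y hy
  exact h.le_one_iff.1 (le_trans hy hr)

theorem Bod.eq_sub (h : Bod z C) {r : ℝ} (hr : r ≤ 1) : {y | Ng z C y = r} ⊆ C := by
  intro y hy
  exact h.le_one_iff.1 (le_trans (le_of_eq hy) hr)

/-- the sublevel is the homothetic image -/
theorem Bod.le_eq_image (h : Bod z C) {r : ℝ} (hr : 0 < r) :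
    {y | Ng z C y ≤ r} = (fun w => z + r • (w - z)) '' C := by
  ext y
  constructor
  · intro hy
    refine ⟨z + r⁻¹ • (y - z), h.le_one_iff.1 ?_, ?_⟩
    · rw [Ng_scale z C hr, div_le_one hr]; exact hy
    · show z + r • (z + r⁻¹ • (y - z) - z) = y
      rw [ray_ray, mul_inv_cancel₀ hr.ne', ray_one]
  · rintro ⟨w, hw, rfl⟩
    show Ng z C (z + r • (w - z)) ≤ r
    rw [Ng_ray z C hr.le]
    exact mul_le_of_le_one_right hr.le (h.le_one_iff.2 hw)

/-! ### (g3) -/

theorem Bod.Ng_pj (h : Bod z C) {y : V} (hy : y ≠ z) : Ng z C (pj z C y) = 1 := by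
  rw [pj, Ng_scale z C (h.pos.2 hy), div_self (h.pos.2 hy).ne']

theorem Bod.pj_mem (h : Bod z C) {y : V} (hy : y ≠ z) : pj z C y ∈ frontier C :=
  h.eq_one_iff.1 (h.Ng_pj hy)

theorem Bod.pj_ray (h : Bod z C) {w : V} (hw : w ∈ frontier C) {r : ℝ} (hr : 0 < r) :
    pj z C (z + r • (w - z)) = w := by
  rw [pj, Ng_ray z C hr.le, h.eq_one_iff.2 hw, mul_one, ray_ray, inv_mul_cancel₀ hr.ne', ray_one]

theorem Bod.pj_self_frontier (h : Bod z C) {w : V} (hw : w ∈ frontier C) : pj z C w = w := by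
  have h1 := h.pj_ray hw one_pos
  rwa [ray_one] at h1

theorem Bod.eq_ray (_h : Bod z C) {y : V} {r : ℝ} (hr : 0 < r) (hy : Ng z C y = r) :
    y = z + r • (pj z C y - z) := by
  rw [pj, ray_ray, hy, mul_inv_cancel₀ hr.ne', ray_one]

/-- the ray formula without a positivity hypothesis on `r` -/
theorem Bod.eq_ray' (h : Bod z C) (y : V) : y = z + Ng z C y • (pj z C y - z) := by
  rcases eq_or_ne y z with rfl | hy
  · rw [Ng_self, zero_smul, add_zero]
  · exact h.eq_ray (h.pos.2 hy) rfl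

/-- the projection of a point of the ray -/
theorem pj_of_ray (z : V) (C : Set V) {r : ℝ} (hr : 0 < r) (y : V) :
    pj z C (z + r • (y - z)) = pj z C y := by
  rw [pj, pj, Ng_ray z C hr.le, ray_ray, mul_inv, mul_comm r⁻¹, mul_assoc, inv_mul_cancel₀ hr.ne',
    mul_one]

theorem Bod.continuousOn_pj (h : Bod z C) : ContinuousOn (pj z C) {z}ᶜ := by
  refine continuousOn_const.add (ContinuousOn.smul ?_ (continuousOn_id.sub continuousOn_const))
  exact h.continuous.continuousOn.inv₀ fun y hy => (h.pos.2 hy).ne'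

theorem Bod.continuousAt_pj (h : Bod z C) {y : V} (hy : y ≠ z) : ContinuousAt (pj z C) y :=
  h.continuousOn_pj.continuousAt (isOpen_compl_singleton.mem_nhds hy)

/-! ### (g4) -/

theorem Bod.pj_unif (h : Bod z C) {r : ℝ} (hr : 0 < r) {δ : ℝ} (hδ : 0 < δ) :
    ∃ ε : ℝ, 0 < ε ∧ ∀ y y' : V, r ≤ Ng z C y → Ng z C y ≤ 1 → ‖y - y'‖ ≤ ε →
      ‖pj z C y - pj z C y'‖ ≤ δ := by
  have hK : IsCompact {y | r ≤ Ng z C y ∧ Ng z C y ≤ 1} :=
    (h.isCompact_le 1).of_isClosed_subset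
      ((isClosed_le continuous_const h.continuous).inter
        (isClosed_le h.continuous continuous_const)) fun _ hy => hy.2
  have hA : ∀ y ∈ {y | r ≤ Ng z C y ∧ Ng z C y ≤ 1}, ContinuousAt (pj z C) y := fun y hy =>
    h.continuousAt_pj (h.pos.1 (lt_of_lt_of_le hr hy.1))
  have h1 := hK.uniformContinuousAt_of_continuousAt (pj z C) hA (dist_mem_uniformity hδ)
  obtain ⟨ε, hε, h2⟩ := Metric.mem_uniformity_dist.1 h1
  refine ⟨ε / 2, half_pos hε, fun y y' ha hb hd => ?_⟩
  have h3 : dist y y' < ε := by rw [dist_eq_norm]; linarith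
  have h4 := h2 h3 ⟨ha, hb⟩
  rw [← dist_eq_norm]
  exact le_of_lt h4

/-- the bundled form of (g4) requested: for all `r`, `δ` -/
theorem Bod.g4 (h : Bod z C) : ∀ r : ℝ, 0 < r → ∀ δ : ℝ, 0 < δ → ∃ ε : ℝ, 0 < ε ∧
    ∀ y y' : V, r ≤ Ng z C y → Ng z C y ≤ 1 → ‖y - y'‖ ≤ ε → ‖pj z C y - pj z C y'‖ ≤ δ :=
  fun _ hr _ hδ => h.pj_unif hr hδ

/-! ### (g6) -/

theorem ray_image_preconn {Γ : Set V} (hΓ : IsPreconnected Γ) (z : V) (r : ℝ) :
    IsPreconnected ((fun w => z + r • (w - z)) '' Γ) :=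
  hΓ.image _ (by fun_prop)

theorem Bod.ray_image_eq (h : Bod z C) {Γ : Set V} (hΓ : Γ ⊆ frontier C) {r : ℝ} (hr : 0 < r) :
    (fun w => z + r • (w - z)) '' Γ = {y | Ng z C y = r ∧ pj z C y ∈ Γ} := by
  ext y
  constructor
  · rintro ⟨w, hw, rfl⟩
    refine ⟨?_, ?_⟩
    · show Ng z C (z + r • (w - z)) = r
      rw [Ng_ray z C hr.le, h.eq_one_iff.2 (hΓ hw), mul_one]
    · show pj z C (z + r • (w - z)) ∈ Γ
      rw [h.pj_ray (hΓ hw) hr]; exact hw
  · rintro ⟨h1, h2⟩
    exact ⟨pj z C y, h2, (h.eq_ray hr h1).symm⟩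

theorem Bod.preconn_level (h : Bod z C) {Γ : Set V} (hΓ : Γ ⊆ frontier C)
    (hp : IsPreconnected Γ) {r : ℝ} (hr : 0 < r) :
    IsPreconnected {y | Ng z C y = r ∧ pj z C y ∈ Γ} := by
  rw [← h.ray_image_eq hΓ hr]
  exact ray_image_preconn hp z r

theorem Bod.compact_level (h : Bod z C) {Γ : Set V} (hΓ : Γ ⊆ frontier C)
    (hp : IsCompact Γ) {r : ℝ} (hr : 0 < r) :
    IsCompact {y | Ng z C y = r ∧ pj z C y ∈ Γ} := by
  rw [← h.ray_image_eq hΓ hr]
  exact hp.image (by fun_prop)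

/-- the level as a homothetic image of the frontier -/
theorem Bod.eq_eq_image (h : Bod z C) {r : ℝ} (hr : 0 < r) :
    {y | Ng z C y = r} = (fun w => z + r • (w - z)) '' frontier C := by
  rw [h.ray_image_eq Subset.rfl hr]
  ext y
  constructor
  · intro hy
    exact ⟨hy, h.pj_mem (h.pos.1 (by rw [mem_setOf_eq] at hy; rw [hy]; exact hr))⟩
  · exact fun hy => hy.1

end Crest.Agent.R096.Sphg_316
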