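import Mathlib
import Crest.Agent.R096.Sphg2_316
import Crest.Agent.R96.Push4_899

/-! # Row 96, seam SPHERE → tiny cores (helper316), part 1: the two-stage push of a brick with a
point hole `p` is constant on the rays of a small body around `p`, and is a homeomorphism of the
frontier of the small body onto the frontier of the brick. -/

set_option autoImplicit false
set_option linter.unusedSectionVars false

open Set Filter Topology Metric NNReal

namespace Crest.Agent.R096.Pse_316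

open Crest.Agent.R096.Sphg_316 Crest.Agent.R96.Push_899

/-! ### projections onto two bodies with the same centre -/

section bodies

variable {V : Type*} [NormedAddCommGroup V] [NormedSpace ℝ V] {z : V} {C K : Set V}

theorem pj_ne (h : Bod z C) {y : V} (hy : y ≠ z) : pj z C y ≠ z := fun he => by
  have h1 := h.Ng_pj hy
  rw [he, Ng_self] at h1
  exact zero_ne_one h1

theorem pj_pj (hK : Bod z K) {y : V} (hy : y ≠ z) : pj z C (pj z K y) = pj z C y :=
  pj_of_ray z C (inv_pos.2 (hK.pos.2 hy)) y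

theorem ne_of_frontier (h : Bod z C) {y : V} (hy : y ∈ frontier C) : y ≠ z := by
  rintro rfl
  have h1 := h.eq_one_iff.2 hy
  rw [Ng_self] at h1
  exact zero_ne_one h1

/-- the sublevel bodies -/
theorem bod_sub (h : Bod z C) {r : ℝ} (hr : 0 < r) : Bod z {y | Ng z C y ≤ r} where
  cpt := h.isCompact_le r
  cvx := h.convex_le r
  int := by
    rw [h.interior_le hr]
    show Ng z C z < r
    rw [Ng_self]; exact hr

theorem eq_of_le_iff {a b : ℝ} (ha : 0 ≤ a) (hb : 0 ≤ b) (h : ∀ r : ℝ, 0 < r → (a ≤ r ↔ b ≤ r)) :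
    a = b := by
  refine le_antisymm ?_ ?_
  · refine le_of_forall_pos_le_add fun e he => ?_
    exact (h (b + e) (by linarith)).2 (by linarith)
  · refine le_of_forall_pos_le_add fun e he => ?_
    exact (h (a + e) (by linarith)).1 (by linarith)

theorem Ng_sub (h : Bod z C) {r : ℝ} (hr : 0 < r) (y : V) :
    Ng z {y | Ng z C y ≤ r} y = Ng z C y / r := by
  have hb := bod_sub h hr
  refine eq_of_le_iff (Ng_nonneg _ _ _) (div_nonneg (Ng_nonneg _ _ _) hr.le) fun s hs => ?_
  have h1 : Ng z {y | Ng z C y ≤ r} y ≤ s ↔ Ng z {y | Ng z C y ≤ r} (z + s⁻¹ • (y - z)) ≤ 1 := by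
    rw [Ng_scale _ _ hs, div_le_one hs]
  rw [h1, hb.le_one_iff, mem_setOf_eq, Ng_scale _ _ hs, div_le_iff₀ hs, div_le_iff₀ hr, mul_comm]

end bodies

/-! ### boxes -/

section box

variable {ι : Type*} [Fintype ι] [Nonempty ι] [DecidableEq ι] {Q C : Box ι} {p : ι → ℝ}

theorem S_eq_Icc (C : Box ι) : C.S = Icc C.lo C.hi := by
  ext y
  constructor
  · intro h; exact ⟨fun i => (h i).1, fun i => (h i).2⟩
  · intro h i; exact ⟨h.1 i, h.2 i⟩

theorem isOpen_I (C : Box ι) : IsOpen C.I := by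
  have : C.I = Set.pi univ fun i => Ioo (C.lo i) (C.hi i) := by
    ext y
    simp [Box.I, Set.mem_pi]
  rw [this]
  exact isOpen_set_pi finite_univ fun i _ => isOpen_Ioo

theorem I_sub_S (C : Box ι) : C.I ⊆ C.S := fun _ h i => ⟨(h i).1.le, (h i).2.le⟩

theorem bod_box (h : Nest (Box.pt p) C) : Bod p C.S where
  cpt := by rw [S_eq_Icc]; exact isCompact_Icc
  cvx := by rw [S_eq_Icc]; exact convex_Icc _ _
  int := interior_mono (I_sub_S C) (by
    rw [(isOpen_I C).interior_eq]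
    exact fun i => ⟨h.lo i, h.hi i⟩)

theorem scale_mem (h : Nest (Box.pt p) C) {r : ℝ} (hr : 0 < r) (y : ι → ℝ) :
    p + r⁻¹ • (y - p) ∈ C.S ↔ tt C (Box.pt p) y ≤ r := by
  rw [tt_le_iff]
  refine forall_congr' fun i => ?_
  rw [gg_le_iff h]
  simp only [cl, ch, Box.pt_lo, Box.pt_hi, Pi.add_apply, Pi.smul_apply, Pi.sub_apply, smul_eq_mul]
  have e : r⁻¹ * (y i - p i) = (y i - p i) / r := by rw [div_eq_inv_mul]
  rw [e]
  have h1 : C.lo i ≤ p i + (y i - p i) / r ↔ p i - r * (p i - C.lo i) ≤ y i := by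
    rw [← sub_le_iff_le_add', le_div_iff₀ hr]
    constructor <;> intro h2 <;> nlinarith
  have h2 : p i + (y i - p i) / r ≤ C.hi i ↔ y i ≤ p i + r * (C.hi i - p i) := by
    rw [← le_sub_iff_add_le', div_le_iff₀ hr]
    constructor <;> intro h2 <;> nlinarith
  rw [h1, h2]

/-- the gauge of 899 with a point core is the gauge `Ng` -/
theorem tt_eq_Ng (h : Nest (Box.pt p) C) (y : ι → ℝ) : tt C (Box.pt p) y = Ng p C.S y := by
  have hb := bod_box h
  have h0 : 0 ≤ tt C (Box.pt p) y := by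
    by_contra hlt
    have h1 := (tt_lt_zero_iff h y).1 (not_le.1 hlt)
    have h2 := h1 (Classical.arbitrary ι)
    simp only [Box.pt_lo, Box.pt_hi] at h2
    linarith [h2.1, h2.2]
  refine eq_of_le_iff h0 (Ng_nonneg _ _ _) fun r hr => ?_
  rw [← scale_mem h hr, ← hb.le_one_iff, Ng_scale _ _ hr, div_le_one hr]

theorem W_pt (p : ι → ℝ) (i : ι) : (Box.pt p).W i = 0 := by
  simp [Box.W]

/-- the first stage of the push of a point hole is the radial projection -/
theorem psh_pt (h : Nest (Box.pt p) C) {y : ι → ℝ} (hy : y ≠ p) :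
    psh C (Box.pt p) y = pj p C.S y := by
  have hb := bod_box h
  have ht : 0 < Ng p C.S y := hb.pos.2 hy
  funext i
  unfold psh
  rw [tt_eq_Ng h, ww_eq, W_pt]
  have hW : 0 < C.W i := h.Wpos i
  simp only [cl, Box.pt_lo, pj, Pi.add_apply, Pi.smul_apply, Pi.sub_apply, smul_eq_mul]
  have e1 : C.W i / (0 + Ng p C.S y * (C.W i - 0)) = (Ng p C.S y)⁻¹ := by
    rw [zero_add, sub_zero]
    field_simp
  rw [e1]
  field_simp
  ring

/-- the affine map of the core `C` onto the brick `Q` -/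
noncomputable def lam (Q C : Box ι) (hQ : ∀ i, 0 < Q.W i) (hC : ∀ i, 0 < C.W i) :
    (ι → ℝ) ≃ₜ (ι → ℝ) where
  toFun y i := Q.lo i + (y i - C.lo i) * (Q.W i / C.W i)
  invFun y i := C.lo i + (y i - Q.lo i) * (C.W i / Q.W i)
  left_inv y := by
    funext i
    have h1 := (hQ i).ne'
    have h2 := (hC i).ne'
    show C.lo i + (Q.lo i + (y i - C.lo i) * (Q.W i / C.W i) - Q.lo i) * (C.W i / Q.W i) = y i
    field_simp
    ring
  right_inv y := by
    funext i
    have h1 := (hQ i).ne'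
    have h2 := (hC i).ne'
    show Q.lo i + (C.lo i + (y i - Q.lo i) * (C.W i / Q.W i) - C.lo i) * (Q.W i / C.W i) = y i
    field_simp
    ring
  continuous_toFun := by fun_prop
  continuous_invFun := by fun_prop

theorem lam_apply (hQ : ∀ i, 0 < Q.W i) (hC : ∀ i, 0 < C.W i) (y : ι → ℝ) (i : ι) :
    lam Q C hQ hC y i = Q.lo i + (y i - C.lo i) * (Q.W i / C.W i) := rfl

theorem lam_mem (hQ : ∀ i, 0 < Q.W i) (hC : ∀ i, 0 < C.W i) (y : ι → ℝ) :
    lam Q C hQ hC y ∈ Q.S ↔ y ∈ C.S := by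
  refine forall_congr' fun i => ?_
  rw [lam_apply]
  have h1 := hQ i
  have h2 := hC i
  have h3 : 0 < Q.W i / C.W i := div_pos h1 h2
  have e1 : Q.hi i = Q.lo i + C.W i * (Q.W i / C.W i) := by
    rw [mul_div_cancel₀ _ h2.ne']; unfold Box.W; ring
  have e2 : C.W i = C.hi i - C.lo i := rfl
  constructor
  · rintro ⟨a, b⟩
    constructor
    · by_contra hlt
      have : (y i - C.lo i) * (Q.W i / C.W i) < 0 := mul_neg_of_neg_of_pos (by linarith) h3
      linarith
    · by_contra hlt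
      have : C.W i * (Q.W i / C.W i) < (y i - C.lo i) * (Q.W i / C.W i) :=
        mul_lt_mul_of_pos_right (by linarith) h3
      linarith
  · rintro ⟨a, b⟩
    constructor
    · have : 0 ≤ (y i - C.lo i) * (Q.W i / C.W i) := mul_nonneg (by linarith) h3.le
      linarith
    · have : (y i - C.lo i) * (Q.W i / C.W i) ≤ C.W i * (Q.W i / C.W i) :=
        mul_le_mul_of_nonneg_right (by linarith) h3.le
      linarith

theorem lam_frontier (hQ : ∀ i, 0 < Q.W i) (hC : ∀ i, 0 < C.W i) (y : ι → ℝ) :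
    lam Q C hQ hC y ∈ frontier Q.S ↔ y ∈ frontier C.S := by
  have h1 : (lam Q C hQ hC) ⁻¹' Q.S = C.S := by
    ext y; exact lam_mem hQ hC y
  have h2 := (lam Q C hQ hC).preimage_frontier Q.S
  rw [h1] at h2
  rw [← h2]; rfl

theorem psh_frontier (hn : Nest C Q) (hQ : ∀ i, 0 < Q.W i) (hC : ∀ i, 0 < C.W i) {y : ι → ℝ}
    (hy : y ∈ C.S) (hy' : y ∉ C.I) : psh Q C y = lam Q C hQ hC y := by
  have ht : tt Q C y = 0 := by
    have h1 := (tt_le_zero_iff hn y).2 hy
    have h2 := mt (tt_lt_zero_iff hn y).1 hy'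
    exact le_antisymm h1 (not_lt.1 h2)
  funext i
  unfold psh
  rw [ht, ww_eq, cl_zero, zero_mul, add_zero, lam_apply]

theorem frontier_sub (C : Box ι) {y : ι → ℝ} (hy : y ∈ frontier C.S) : y ∈ C.S ∧ y ∉ C.I := by
  have hc : IsClosed C.S := by rw [S_eq_Icc]; exact isClosed_Icc
  rw [hc.frontier_eq] at hy
  exact ⟨hy.1, fun h => hy.2 (interior_mono (I_sub_S C) (by
    rw [(isOpen_I C).interior_eq]; exact h))⟩

/-- **the two-stage push of a point hole** -/
theorem psi_eq (hn : Nest C Q) (h : Nest (Box.pt p) C) (hQ : ∀ i, 0 < Q.W i)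
    (hC : ∀ i, 0 < C.W i) {y : ι → ℝ} (hy : y ∈ C.S) (hyp : y ≠ p) :
    psi Q C (Box.pt p) y = lam Q C hQ hC (pj p C.S y) := by
  have hb := bod_box h
  obtain ⟨h1, h2⟩ := frontier_sub C (hb.pj_mem hyp)
  rw [psi_in hy, psh_pt h hyp, psh_frontier hn hQ hC h1 h2]

/-! ### the homeomorphism `frontier K → frontier Q` of a body `K` around `p` -/

variable {K : Set (ι → ℝ)}

/-- from the small body to the brick -/
noncomputable def e0 (Q C : Box ι) (p : ι → ℝ) (hQ : ∀ i, 0 < Q.W i) (hC : ∀ i, 0 < C.W i)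
    (y : ι → ℝ) : ι → ℝ := lam Q C hQ hC (pj p C.S y)

/-- from the brick to the small body -/
noncomputable def e1 (Q C : Box ι) (p : ι → ℝ) (K : Set (ι → ℝ)) (hQ : ∀ i, 0 < Q.W i)
    (hC : ∀ i, 0 < C.W i) (y : ι → ℝ) : ι → ℝ := pj p K ((lam Q C hQ hC).symm y)

variable (hQ : ∀ i, 0 < Q.W i) (hC : ∀ i, 0 < C.W i)

theorem e0_cont (h : Nest (Box.pt p) C) (hK : Bod p K) :
    ContinuousOn (e0 Q C p hQ hC) (frontier K) :=
  (lam Q C hQ hC).continuous.comp_continuousOn
    ((bod_box h).continuousOn_pj.mono fun _ hy => ne_of_frontier hK hy)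

theorem e0_maps (h : Nest (Box.pt p) C) (hK : Bod p K) :
    MapsTo (e0 Q C p hQ hC) (frontier K) (frontier Q.S) := fun _ hy =>
  (lam_frontier hQ hC _).2 ((bod_box h).pj_mem (ne_of_frontier hK hy))

theorem lam_symm_mem {y : ι → ℝ} (hy : y ∈ frontier Q.S) :
    (lam Q C hQ hC).symm y ∈ frontier C.S := by
  rw [← lam_frontier hQ hC, Homeomorph.apply_symm_apply]
  exact hy

theorem e1_cont (h : Nest (Box.pt p) C) (hK : Bod p K) :
    ContinuousOn (e1 Q C p K hQ hC) (frontier Q.S) := by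
  refine hK.continuousOn_pj.comp (lam Q C hQ hC).symm.continuous.continuousOn fun y hy => ?_
  exact ne_of_frontier (bod_box h) (lam_symm_mem hQ hC hy)

theorem e1_maps (h : Nest (Box.pt p) C) (hK : Bod p K) :
    MapsTo (e1 Q C p K hQ hC) (frontier Q.S) (frontier K) := fun _ hy =>
  hK.pj_mem (ne_of_frontier (bod_box h) (lam_symm_mem hQ hC hy))

theorem e0_e1 (h : Nest (Box.pt p) C) (hK : Bod p K) {y : ι → ℝ} (hy : y ∈ frontier Q.S) :
    e0 Q C p hQ hC (e1 Q C p K hQ hC y) = y := by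
  have h1 := lam_symm_mem hQ hC hy
  unfold e0 e1
  rw [pj_pj hK (ne_of_frontier (bod_box h) h1), (bod_box h).pj_self_frontier h1,
    Homeomorph.apply_symm_apply]

theorem e1_e0 (h : Nest (Box.pt p) C) (hK : Bod p K) {y : ι → ℝ} (hy : y ∈ frontier K) :
    e1 Q C p K hQ hC (e0 Q C p hQ hC y) = y := by
  unfold e0 e1
  rw [Homeomorph.symm_apply_apply, pj_pj (bod_box h) (ne_of_frontier hK hy),
    hK.pj_self_frontier hy]

/-- **the push is `e0` of the projection onto the small body** -/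
theorem psi_eq_e0 (hn : Nest C Q) (h : Nest (Box.pt p) C) (hK : Bod p K) {y : ι → ℝ}
    (hy : y ∈ C.S) (hyp : y ≠ p) :
    psi Q C (Box.pt p) y = e0 Q C p hQ hC (pj p K y) := by
  unfold e0
  rw [pj_pj hK hyp, psi_eq hn h hQ hC hy hyp]

end box

end Crest.Agent.R096.Pse_316
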