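import Crest.Agent.R096.Vb7_965
import Crest.Agent.R096.SkC1_961
import Crest.Agent.R96.Push18_899

/-! Row 96, P1-TRIV (helper965), part 8: the pushes of 899 / `FoamD` of 961 are `Push`es -/

set_option autoImplicit false
set_option linter.unusedSectionVars false
set_option linter.style.haveILetI false

open Set Topology Filter

namespace Crest.Agent.R096.Vb_965

open Crest.Agent.R096.Coh_184 Crest.Agent.R096.Brk1_582 Crest.Agent.R096.Brk2_582
open Crest.Agent.R096.Bsp_628 Crest.Agent.R096.Brk3_582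
open Crest.Agent.R96.Push_899 Crest.Agent.R096.SkC1_961

section box

variable {ι : Type*} [Fintype ι] [Nonempty ι] [DecidableEq ι]

/-- push data of one box -/
structure BoxPush (Q B : Box ι) (pu : (ι → ℝ) → ι → ℝ) (m : (ι → ℝ) → ℝ) : Prop where
  cont_m : Continuous m
  m_mem : ∀ y ∈ Q.S, 0 ≤ m y ∧ m y ≤ 1
  m_pos : ∀ y ∈ Q.S, 0 < m y ↔ y ∉ B.S
  m_bd : ∀ y ∈ Q.S, y ∉ Q.I → m y = 1 ∧ pu y = y
  cont : ContinuousOn pu (Q.S ∩ {y | 0 < m y})
  mem : ∀ y ∈ Q.S, 0 < m y → pu y ∈ Q.S ∧ pu y ∉ Q.I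
  inj : ∀ y ∈ Q.S, ∀ z ∈ Q.S, 0 < m y → m y = m z → pu y = pu z → y = z
  surj : ∀ p ∈ Q.S, p ∉ Q.I → ∀ t ∈ Ioc (0 : ℝ) 1, ∃ y ∈ Q.S, pu y = p ∧ m y = t

theorem continuousOn_psh {Q C : Box ι} {U : Set (ι → ℝ)}
    (h : ∀ y ∈ U, ∀ i, ww Q C i (tt Q C y) ≠ 0) : ContinuousOn (psh Q C) U := by
  have ht : ContinuousOn (tt Q C) U := (continuous_tt Q C).continuousOn
  refine continuousOn_pi.2 fun i => ?_
  unfold psh
  have h1 : ContinuousOn (fun y : ι → ℝ => cl Q C i (tt Q C y)) U := by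
    unfold cl; fun_prop
  have h2 : ContinuousOn (fun y : ι → ℝ => ww Q C i (tt Q C y)) U := by
    unfold ww ch cl; fun_prop
  have h3 : ContinuousOn (fun y : ι → ℝ => y i) U := (continuous_apply i).continuousOn
  exact continuousOn_const.add ((h3.sub h1).mul (continuousOn_const.div h2 fun y hy => h y hy i))

/-- one stage -/
theorem boxPush_one {Q C : Box ι} (h : Nest C Q) :
    BoxPush Q C (psh Q C) (fun y => max 0 (min 1 (tt Q C y))) := by
  have key : ∀ y ∈ Q.S, max 0 (min 1 (tt Q C y)) = max 0 (tt Q C y) := by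
    intro y hy
    rw [min_eq_right ((tt_le_one_iff h y).2 hy)]
  have hpos : ∀ y ∈ Q.S, 0 < max 0 (min 1 (tt Q C y)) ↔ 0 < tt Q C y := by
    intro y hy
    rw [key y hy]; simp
  refine ⟨?_, ?_, ?_, ?_, ?_, ?_, ?_, ?_⟩
  · exact continuous_const.max (continuous_const.min (continuous_tt Q C))
  · intro y hy
    exact ⟨le_max_left _ _, max_le zero_le_one (min_le_left _ _)⟩
  · intro y hy
    rw [hpos y hy, ← tt_le_zero_iff h y, not_le]
  · intro y hy hy'
    have h1 := tt_eq_one h hy hy'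
    refine ⟨?_, psh_eq_self h h1⟩
    rw [h1]; simp
  · refine continuousOn_psh fun y hy i => ?_
    have h1 : 0 < tt Q C y := (hpos y hy.1).1 hy.2
    exact (ww_pos h i h1.le (Or.inl h1)).ne'
  · intro y hy h0
    have h1 : 0 < tt Q C y := (hpos y hy).1 h0
    exact ⟨psh_mem h h1.le (Or.inl h1), psh_not_mem_I h h1.le (Or.inl h1)⟩
  · intro y hy z hz h0 hm hpu
    have h1 : 0 < tt Q C y := (hpos y hy).1 h0
    have h2 : 0 < tt Q C z := (hpos z hz).1 (by rw [← hm]; exact h0)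
    rw [key y hy, key z hz, max_eq_right h1.le, max_eq_right h2.le] at hm
    funext i
    rw [← psh_level h h1.le (Or.inl h1) i, ← psh_level h h2.le (Or.inl h2) i, hpu, hm]
  · intro p hp hp' t ht
    have hl := fun i => rc_mem h.Wpos hp i
    have hb := rc_bd h.Wpos hp hp'
    have h1 := level_tt h hl hb ht.1.le (Or.inl ht.1)
    have h2 := level_psh h hl hb ht.1.le (Or.inl ht.1)
    have hy : (fun i => cl Q C i t + rc Q p i * ww Q C i t) ∈ Q.S := by
      rw [← tt_le_one_iff h, h1]; exact ht.2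
    refine ⟨_, hy, ?_, ?_⟩
    · rw [h2]; exact funext fun i => rc_mul h.Wpos p i
    · rw [key _ hy, h1, max_eq_right ht.1.le]

/-- two stages -/
theorem boxPush_two {P : Finset ι} {c₀ κ ρ : ℝ} {Q C B : Box ι} (hQ : Shape P c₀ κ ρ Q C)
    (hC : Inner C B) : BoxPush Q B (psi Q C B) (fun y => max 0 (rad Q C B y)) := by
  have hBC := hC.nest
  have hCQ := hQ.nest
  have hrad : ∀ y, 0 < rad Q C B y ↔ 0 < tt C B y := by
    intro y
    refine ⟨fun h => ?_, rad_pos hQ hC⟩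
    by_cases hyC : y ∈ C.S
    · have h1 : tt Q C y ≤ 0 := (tt_le_zero_iff hCQ _).2 hyC
      unfold rad at h
      rw [max_eq_left h1] at h
      have h2 : 0 < min 1 (tt C B y) := by linarith
      exact (lt_min_iff.1 h2).2
    · have h1 : ¬ tt C B y ≤ 1 := mt (tt_le_one_iff hBC y).1 hyC
      linarith [not_le.1 h1]
  have hpos : ∀ y, 0 < max 0 (rad Q C B y) ↔ 0 < tt C B y := by
    intro y; rw [← hrad y]; simp
  have hoff : ∀ y, 0 < tt C B y → Off C B y := fun y h => ⟨h.le, Or.inl h⟩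
  refine ⟨?_, ?_, ?_, ?_, ?_, ?_, ?_, ?_⟩
  · exact continuous_const.max (continuous_rad Q C B)
  · intro y hy
    exact ⟨le_max_left _ _, max_le zero_le_one (rad_le_one hQ hC hy)⟩
  · intro y hy
    rw [hpos y, ← tt_le_zero_iff hBC y, not_le]
  · intro y hy hy'
    have h1 : rad Q C B y = 1 := rad_eq_one hQ hC hy hy'
    have h2 : 0 < tt C B y := (hrad y).1 (by rw [h1]; exact one_pos)
    refine ⟨by rw [h1]; simp, ?_⟩
    have h3 := ray_psi hQ hC (hoff y h2)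
    have h4 := psi_ray hQ hC hy hy' zero_le_one (Or.inl one_pos)
    rw [ray_one hQ.W0] at h4
    exact h4
  · -- continuity
    have hSc : IsClosed C.S := by
      have : C.S = Icc C.lo C.hi := by
        ext y; exact ⟨fun h => ⟨fun i => (h i).1, fun i => (h i).2⟩,
          fun h i => ⟨h.1 i, h.2 i⟩⟩
      rw [this]; exact isClosed_Icc
    have hIo : IsOpen C.I := by
      have : C.I = {y | tt C B y < 1} := by
        ext y; exact (tt_lt_one_iff hBC y).symm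
      rw [this]; exact isOpen_lt (continuous_tt C B) continuous_const
    have h1 : ContinuousOn (psi Q C B) ({y | 0 < tt C B y} ∩ C.S) := by
      have e : EqOn (psi Q C B) (fun y => psh Q C (psh C B y)) ({y | 0 < tt C B y} ∩ C.S) :=
        fun y hy => psi_in hy.2
      refine ContinuousOn.congr ?_ e
      have h2 : ContinuousOn (psh C B) ({y | 0 < tt C B y} ∩ C.S) :=
        continuousOn_psh fun y hy i => (ww_pos hBC i (le_of_lt hy.1) (Or.inl hy.1)).ne'
      have h3 : ContinuousOn (psh Q C) {y | 0 ≤ tt Q C y} :=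
        continuousOn_psh fun y hy i => (ww_pos hCQ i hy (Or.inr hQ.CW)).ne'
      refine h3.comp h2 fun y hy => ?_
      exact (psh_inner_tt hQ hC (hoff y hy.1)).ge
    have h2 : ContinuousOn (psi Q C B) (C.I)ᶜ := by
      have e : EqOn (psi Q C B) (psh Q C) (C.I)ᶜ := fun y hy => psi_out hBC hy
      refine ContinuousOn.congr ?_ e
      exact continuousOn_psh fun y hy i =>
        (ww_pos hCQ i (not_lt.1 (mt (tt_lt_zero_iff hCQ y).1 hy)) (Or.inr hQ.CW)).ne'
    intro y hy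
    have h0 : 0 < tt C B y := (hpos y).1 hy.2
    have hcov : Q.S ∩ {y | 0 < max 0 (rad Q C B y)} ⊆
        ({y | 0 < tt C B y} ∩ C.S) ∪ (C.I)ᶜ := by
      intro z hz
      by_cases hzC : z ∈ C.I
      · exact Or.inl ⟨(hpos z).1 hz.2, fun i => ⟨(hzC i).1.le, (hzC i).2.le⟩⟩
      · exact Or.inr hzC
    refine ContinuousWithinAt.mono ?_ hcov
    refine ContinuousWithinAt.union ?_ ?_
    · by_cases hyC : y ∈ C.S
      · exact h1 y ⟨h0, hyC⟩
      · refine continuousWithinAt_of_notMem_closure fun h => hyC ?_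
        exact hSc.closure_subset (closure_mono inter_subset_right h)
    · by_cases hyC : y ∈ C.I
      · refine continuousWithinAt_of_notMem_closure fun h => ?_
        exact (hIo.isClosed_compl.closure_subset h) hyC
      · exact h2 y hyC
  · intro y hy h0
    exact psi_bd hQ hC hy (hoff y ((hpos y).1 h0))
  · intro y hy z hz h0 hm hpu
    have h1 := (hpos y).1 h0
    have h2 := (hpos z).1 (by rw [← hm]; exact h0)
    have h3 := (hrad y).2 h1
    have h4 := (hrad z).2 h2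
    rw [max_eq_right h3.le, max_eq_right h4.le] at hm
    rw [← ray_psi hQ hC (hoff y h1), ← ray_psi hQ hC (hoff z h2), hpu, hm]
  · intro p hp hp' t ht
    refine ⟨ray Q C B p t, ray_mem hQ hC hp hp' ht.1.le ht.2,
      psi_ray hQ hC hp hp' ht.1.le (Or.inl ht.1), ?_⟩
    rw [rad_ray hQ hC hp hp' ht.1.le (Or.inl ht.1), max_eq_right ht.1.le]

end box

/-! ### the foam `FoamD` of 961 -/

variable {δ κ0 R c0 : ℝ} {La : Set E3} (Φ : FoamD δ κ0 R c0 La)

/-- the brick as a box of 899 -/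
def qb (c : Φ.F) : Box (Fin 3) := ⟨c.1.lo, c.1.hi, fun i => (Φ.bf.pos c.1 c.2 i).le⟩

theorem mem_qb {c : Φ.F} {y : E3} : y ∈ (qb Φ c).S ↔ y ∈ c.1.set := by
  rw [Bx.mem_set]; rfl

theorem exists_boxPush (c : Φ.F) : ∃ m : E3 → ℝ, BoxPush (qb Φ c) (Φ.B c) (Φ.pu c) m := by
  rcases Φ.push c with ⟨P, κ, ρ, hS, he⟩ | ⟨P, κ, ρ, C, hS, hI, he⟩
  · rw [he]; exact ⟨_, boxPush_one hS.nest⟩
  · rw [he]; exact ⟨_, boxPush_two hS hI⟩

/-- the gauge of the brick `c` -/
noncomputable def mc (c : Φ.F) : E3 → ℝ := (exists_boxPush Φ c).choose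

theorem mc_spec (c : Φ.F) : BoxPush (qb Φ c) (Φ.B c) (Φ.pu c) (mc Φ c) :=
  (exists_boxPush Φ c).choose_spec

open Classical in
/-- **the gauge `μ`**: `1` on the walls, `0` exactly on the holes -/
noncomputable def muD (y : E3) : ℝ :=
  if h : ∃ c : Φ.F, y ∈ c.1.set then mc Φ h.choose y else 1

theorem interior_box {Q : Bx (Fin 3)} {y : E3} :
    y ∈ interior Q.set ↔ ∀ i, Q.lo i < y i ∧ y i < Q.hi i := by
  unfold Bx.set
  rw [← Set.pi_univ_Icc, interior_pi_set finite_univ]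
  simp [interior_Icc]

theorem wall_iff (hLa : IsOpen La) {c : Φ.F} {y : E3} (hy : y ∈ c.1.set) :
    (∃ c' : Φ.F, c' ≠ c ∧ y ∈ c'.1.set) ↔ y ∉ (qb Φ c).I := by
  have hF := Brk3_582.foam Φ.bf hLa
  have h1 := frontier_cell hF c
  rw [Lset_zero hF, (hF.cpt c).isClosed.frontier_eq] at h1
  have h2 := Set.ext_iff.1 h1 y
  have h3 : y ∈ interior (Pc Φ.F c) ↔ y ∈ (qb Φ c).I := interior_box
  constructor
  · rintro ⟨c', h4, h5⟩ h6
    exact (h2.2 ⟨hy, c', h4, h5⟩).2 (h3.2 h6)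
  · intro h
    exact (h2.1 ⟨hy, fun h4 => h (h3.1 h4)⟩).2

theorem Psi_eqD (hLa : IsOpen La) {c : Φ.F} {y : E3} (hy : y ∈ c.1.set) :
    Φ.Psi y = Φ.pu c y := by
  classical
  have h : ∃ c : Φ.F, y ∈ c.1.set := ⟨c, hy⟩
  have e : Φ.Psi y = Φ.pu h.choose y := by
    unfold FoamD.Psi; rw [dif_pos h]
  rw [e]
  by_cases hc : h.choose = c
  · rw [hc]
  · have h1 : y ∉ (qb Φ h.choose).I := (wall_iff Φ hLa h.choose_spec).1 ⟨c, fun h' => hc h'.symm, hy⟩
    have h2 : y ∉ (qb Φ c).I := (wall_iff Φ hLa hy).1 ⟨h.choose, hc, h.choose_spec⟩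
    rw [((mc_spec Φ _).m_bd y ((mem_qb Φ).2 h.choose_spec) h1).2,
      ((mc_spec Φ c).m_bd y ((mem_qb Φ).2 hy) h2).2]

theorem muD_eq (hLa : IsOpen La) {c : Φ.F} {y : E3} (hy : y ∈ c.1.set) :
    muD Φ y = mc Φ c y := by
  classical
  have h : ∃ c : Φ.F, y ∈ c.1.set := ⟨c, hy⟩
  have e : muD Φ y = mc Φ h.choose y := by
    unfold muD; rw [dif_pos h]
  rw [e]
  by_cases hc : h.choose = c
  · rw [hc]
  · have h1 : y ∉ (qb Φ h.choose).I := (wall_iff Φ hLa h.choose_spec).1 ⟨c, fun h' => hc h'.symm, hy⟩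
    have h2 : y ∉ (qb Φ c).I := (wall_iff Φ hLa hy).1 ⟨h.choose, hc, h.choose_spec⟩
    rw [((mc_spec Φ _).m_bd y ((mem_qb Φ).2 h.choose_spec) h1).1,
      ((mc_spec Φ c).m_bd y ((mem_qb Φ).2 hy) h2).1]

/-- gluing continuous functions over the cells of a foam -/
theorem glue_cont {E : Type*} [NormedAddCommGroup E] [NormedSpace ℝ E] {I : Type*}
    {La : Set E} {P : I → Set E} {b : Set I → E} {N : ℕ} (F : Foam La P b N) {Z : Type*}
    [TopologicalSpace Z] {g : E → Z} {gc : I → E → Z} {U : Set E} (hU : U ⊆ La)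
    (hg : ∀ c, ∀ y ∈ P c, g y = gc c y) (hc : ∀ c, ContinuousOn (gc c) (P c ∩ U)) :
    ContinuousOn g U := by
  intro y0 hy0
  obtain ⟨r, hr, hfin⟩ := F.lf y0 (hU hy0)
  have h0 : ContinuousWithinAt g
      (⋃ d ∈ {d | (P d ∩ Metric.ball y0 r).Nonempty}, (P d ∩ U)) y0 := by
    unfold ContinuousWithinAt
    rw [nhdsWithin_biUnion hfin]
    simp only [tendsto_iSup]
    intro d hd
    by_cases hyd : y0 ∈ P d
    · have h1 := hc d y0 ⟨hyd, hy0⟩
      unfold ContinuousWithinAt at h1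
      rw [hg d y0 hyd]
      refine h1.congr' ?_
      filter_upwards [self_mem_nhdsWithin] with y hy
      exact (hg d y hy.1).symm
    · have h2 : 𝓝[P d ∩ U] y0 = ⊥ := by
        rw [← notMem_closure_iff_nhdsWithin_eq_bot]
        intro h
        exact hyd ((F.cpt d).isClosed.closure_subset (closure_mono inter_subset_left h))
      rw [h2]; exact tendsto_bot
  refine h0.mono_of_mem_nhdsWithin ?_
  have hnh0 : U ∩ Metric.ball y0 r ∈ 𝓝[U] y0 :=
    inter_mem self_mem_nhdsWithin (nhdsWithin_le_nhds (Metric.ball_mem_nhds y0 hr))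
  filter_upwards [hnh0] with y hy
  obtain ⟨d, hd⟩ := F.cov y (hU hy.1)
  exact mem_biUnion (show d ∈ {d | (P d ∩ Metric.ball y0 r).Nonempty} from ⟨y, hd, hy.2⟩)
    ⟨hd, hy.1⟩

/-- **the push of 961's foam is a `Push`** -/
theorem pushD (hLa : IsOpen La) : Push La (Pc Φ.F) Φ.Psi (muD Φ) := by
  have hF := Brk3_582.foam Φ.bf hLa
  have hmem : ∀ c : Φ.F, ∀ y ∈ Pc Φ.F c, y ∈ (qb Φ c).S := fun c y hy => (mem_qb Φ).2 hy
  refine ⟨?_, ?_, ?_, ?_, ?_, ?_, ?_⟩
  · exact glue_cont hF Subset.rfl (fun c y hy => muD_eq Φ hLa hy)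
      fun c => (mc_spec Φ c).cont_m.continuousOn
  · intro y hy
    obtain ⟨c, hc⟩ := hF.cov y hy
    rw [muD_eq Φ hLa hc]
    exact (mc_spec Φ c).m_mem y (hmem c y hc)
  · intro c c' hne y hy hy'
    have h1 : y ∉ (qb Φ c).I := (wall_iff Φ hLa hy).1 ⟨c', hne, hy'⟩
    rw [muD_eq Φ hLa hy, Psi_eqD Φ hLa hy]
    exact (mc_spec Φ c).m_bd y (hmem c y hy) h1
  · refine glue_cont hF inter_subset_left (gc := fun c => Φ.pu c)
      (fun c y hy => Psi_eqD Φ hLa hy) fun c => ?_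
    refine (mc_spec Φ c).cont.mono ?_
    rintro y ⟨hy, -, hy2⟩
    refine ⟨hmem c y hy, ?_⟩
    show 0 < mc Φ c y
    rw [← muD_eq Φ hLa hy]; exact hy2
  · intro c y hy h0
    rw [muD_eq Φ hLa hy] at h0
    obtain ⟨h1, h2⟩ := (mc_spec Φ c).mem y (hmem c y hy) h0
    have h3 : Φ.pu c y ∈ c.1.set := (mem_qb Φ).1 h1
    rw [Psi_eqD Φ hLa hy]
    exact ⟨h3, (wall_iff Φ hLa h3).2 h2⟩
  · intro c y hy z hz h0 hm hpsi
    rw [muD_eq Φ hLa hy] at h0 hm
    rw [muD_eq Φ hLa hz] at hm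
    rw [Psi_eqD Φ hLa hy, Psi_eqD Φ hLa hz] at hpsi
    exact (mc_spec Φ c).inj y (hmem c y hy) z (hmem c z hz) h0 hm hpsi
  · intro c c' hne p hp hp' t ht
    have h1 : p ∉ (qb Φ c).I := (wall_iff Φ hLa hp).1 ⟨c', hne, hp'⟩
    obtain ⟨y, hy, h2, h3⟩ := (mc_spec Φ c).surj p (hmem c p hp) h1 t ht
    have hy' : y ∈ c.1.set := (mem_qb Φ).1 hy
    exact ⟨y, hy', by rw [Psi_eqD Φ hLa hy', h2], by rw [muD_eq Φ hLa hy', h3]⟩

/-- `μ = 0` exactly on the holes -/
theorem muD_pos (hLa : IsOpen La) {c : Φ.F} {y : E3} (hy : y ∈ c.1.set) :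
    0 < muD Φ y ↔ y ∉ (Φ.B c).S := by
  rw [muD_eq Φ hLa hy]
  exact (mc_spec Φ c).m_pos y ((mem_qb Φ).2 hy)

end Crest.Agent.R096.Vb_965
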