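import Mathlib
import Crest.Agent.R096.Pse1_316
import Crest.Agent.R096.Vb8_965
import Crest.Agent.R096.Mbf_337
import Crest.Agent.R096.Gn2_296

/-! # Row 96, seam SPHERE → tiny cores (helper316), part 2: `FoamD` with a point hole. -/

set_option autoImplicit false
set_option linter.unusedSectionVars false
set_option linter.deprecated false

open Set Filter Topology Metric NNReal

namespace Crest.Agent.R096.Pse_316

open Crest.Agent.R096.Sphg_316 Crest.Agent.R96.Push_899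
open Crest.Agent.R096.Bsp_628 Crest.Agent.R096.Brk3_582
open Crest.Agent.R096.SkC1_961 (E3 FoamD IsPush)
open Crest.Agent.R096.Vb_965 (qb mem_qb Psi_eqD)
open Crest.Agent.R096.Ce_537 (PLEquiv IsBall)

/-- 337's gauge of a brick is `Ng` -/
theorem gau_eq (c : Bx (Fin 3)) (p y : E3) : Mbf_337.gau c p y = Ng p c.set y := by
  unfold Mbf_337.gau Ng
  rw [gauge_def']
  congr 1
  ext r
  constructor
  · rintro ⟨h1, h2⟩
    refine ⟨h1, ?_⟩
    show r⁻¹ • (y - p) + p ∈ c.set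
    rw [Bx.mem_set]
    intro k
    exact h2 k
  · rintro ⟨h1, h2⟩
    refine ⟨h1, fun k => ?_⟩
    have h3 : r⁻¹ • (y - p) + p ∈ c.set := h2
    rw [Bx.mem_set] at h3
    exact h3 k

variable {δ κ0 R c0 : ℝ} {La : Set E3} (Φ : FoamD δ κ0 R c0 La)

theorem qb_S (c : Φ.F) : (qb Φ c).S = c.1.set := by
  ext y; exact mem_qb Φ

/-- a point hole has a two-stage push -/
theorem exists_core (c : Φ.F) (hpt : (Φ.B c).lo = (Φ.B c).hi) :
    ∃ C : Box (Fin 3), Nest C (qb Φ c) ∧ (∀ i, 0 < (qb Φ c).W i) ∧ (∀ i, 0 < C.W i) ∧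
      Nest (Box.pt (Φ.B c).lo) C ∧ Φ.pu c = psi (qb Φ c) C (Box.pt (Φ.B c).lo) := by
  have hB : Φ.B c = Box.pt (Φ.B c).lo := by
    ext i
    · rfl
    · show (Φ.B c).hi i = (Φ.B c).lo i
      rw [← hpt]
  rcases Φ.push c with ⟨P, κ, ρ, hS, he⟩ | ⟨P, κ, ρ, C, hS, hI, he⟩
  · exfalso
    have h1 := hS.CW 0
    unfold Box.W at h1
    rw [← hpt] at h1
    simp at h1
  · refine ⟨C, hS.nest, hS.W0, hS.CW, ?_, ?_⟩
    · rw [← hB]; exact hI.nest
    · rw [← hB]; exact he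

/-- the brick is a body around the point hole -/
theorem bod_brick (c : Φ.F) (hpt : (Φ.B c).lo = (Φ.B c).hi) : Bod (Φ.B c).lo c.1.set := by
  obtain ⟨C, h1, h2, h3, h4, h5⟩ := exists_core Φ c hpt
  have h6 : Nest (Box.pt (Φ.B c).lo) (qb Φ c) :=
    ⟨fun i => (h1.lo i).trans (h4.lo i), fun i => (h4.hi i).trans (h1.hi i)⟩
  have h7 := bod_box h6
  rwa [qb_S] at h7

/-- the small body of radius `r` around the point hole of the brick `c` -/
def sb (c : Φ.F) (r : ℝ) : Set E3 := {y | Ng (Φ.B c).lo c.1.set y ≤ r}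

theorem bod_sb (c : Φ.F) (hpt : (Φ.B c).lo = (Φ.B c).hi) {r : ℝ} (hr : 0 < r) :
    Bod (Φ.B c).lo (sb Φ c r) := bod_sub (bod_brick Φ c hpt) hr

theorem Ng_sb (c : Φ.F) (hpt : (Φ.B c).lo = (Φ.B c).hi) {r : ℝ} (hr : 0 < r) (y : E3) :
    Ng (Φ.B c).lo (sb Φ c r) y = Mbf_337.gau c.1 (Φ.B c).lo y / r := by
  rw [gau_eq]; exact Ng_sub (bod_brick Φ c hpt) hr y

theorem sb_sub (c : Φ.F) (hpt : (Φ.B c).lo = (Φ.B c).hi) {r : ℝ} (hr : r ≤ 1) :
    sb Φ c r ⊆ c.1.set := (bod_brick Φ c hpt).le_sub hr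

theorem sb_sub_La (c : Φ.F) (hpt : (Φ.B c).lo = (Φ.B c).hi) {r : ℝ} (hr : r ≤ 1) :
    sb Φ c r ⊆ La := (sb_sub Φ c hpt hr).trans (Φ.bf.sub c.1 c.2)

/-- **`Psi` near a point hole.**  For small `r` the push is the composition of the projection onto
the frontier of the small body and a homeomorphism `e₀` onto the frontier of the brick. -/
theorem exists_e0 (hLa : IsOpen La) (c : Φ.F) (hpt : (Φ.B c).lo = (Φ.B c).hi) :
    ∃ r0 : ℝ, 0 < r0 ∧ r0 ≤ 1 ∧ ∀ r : ℝ, 0 < r → r ≤ r0 → ∃ e₀ e₁ : E3 → E3,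
      ContinuousOn e₀ (frontier (sb Φ c r)) ∧
      MapsTo e₀ (frontier (sb Φ c r)) (frontier c.1.set) ∧
      ContinuousOn e₁ (frontier c.1.set) ∧
      MapsTo e₁ (frontier c.1.set) (frontier (sb Φ c r)) ∧
      (∀ y ∈ frontier c.1.set, e₀ (e₁ y) = y) ∧
      (∀ y ∈ frontier (sb Φ c r), e₁ (e₀ y) = y) ∧
      ∀ y ∈ sb Φ c r0, y ≠ (Φ.B c).lo → Φ.Psi y = e₀ (pj (Φ.B c).lo (sb Φ c r) y) := by
  obtain ⟨C, hn, hQ, hC, hp, hpu⟩ := exists_core Φ c hpt
  have hb := bod_brick Φ c hpt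
  have hU : C.I ∈ 𝓝 (Φ.B c).lo := (isOpen_I C).mem_nhds fun i => ⟨hp.lo i, hp.hi i⟩
  obtain ⟨r0, hr0, hr1, hsub⟩ : ∃ r : ℝ, 0 < r ∧ r ≤ 1 ∧ sb Φ c r ⊆ C.I := by
    -- small sublevels are small
    obtain ⟨ε, hε, hε'⟩ := Metric.mem_nhds_iff.1 hU
    obtain ⟨M, hM⟩ := hb.cpt.isBounded.subset_closedBall (Φ.B c).lo
    have hM0 : 0 ≤ M := by
      have := hM (interior_subset hb.int)
      rw [mem_closedBall, dist_self] at this
      exact this
    refine ⟨min 1 (ε / (2 * (M + 1))), by positivity, min_le_left _ _, fun y hy => hε' ?_⟩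
    have hs0 : Ng (Φ.B c).lo c.1.set y ≤ ε / (2 * (M + 1)) := le_trans hy (min_le_right _ _)
    rw [mem_ball, dist_eq_norm]
    rcases eq_or_ne y (Φ.B c).lo with rfl | hne
    · rw [sub_self, norm_zero]; exact hε
    · have h1 := hb.eq_ray' y
      have h2 : pj (Φ.B c).lo c.1.set y ∈ c.1.set := hb.le_one_iff.1 (hb.Ng_pj hne).le
      have h3 := hM h2
      rw [mem_closedBall, dist_eq_norm] at h3
      have h4 : y - (Φ.B c).lo =
          Ng (Φ.B c).lo c.1.set y • (pj (Φ.B c).lo c.1.set y - (Φ.B c).lo) := by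
        rw [eq_comm, ← sub_eq_iff_eq_add'.2 h1]
      rw [h4, norm_smul, Real.norm_eq_abs, abs_of_nonneg (Ng_nonneg _ _ _)]
      calc Ng (Φ.B c).lo c.1.set y * ‖pj (Φ.B c).lo c.1.set y - (Φ.B c).lo‖
            ≤ ε / (2 * (M + 1)) * M := mul_le_mul hs0 h3 (norm_nonneg _) (by positivity)
        _ = ε * (M / (2 * (M + 1))) := by ring
        _ < ε * 1 := by
            refine mul_lt_mul_of_pos_left ?_ hε
            rw [div_lt_one (by positivity)]
            linarith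
        _ = ε := mul_one _
  refine ⟨r0, hr0, hr1, fun r hr hrr => ?_⟩
  have hK := bod_sb Φ c hpt hr
  have hQS := qb_S Φ c
  refine ⟨e0 (qb Φ c) C (Φ.B c).lo hQ hC, e1 (qb Φ c) C (Φ.B c).lo (sb Φ c r) hQ hC,
    e0_cont hQ hC hp hK, ?_, ?_, ?_, ?_, ?_, ?_⟩
  · rw [← hQS]; exact e0_maps hQ hC hp hK
  · rw [← hQS]; exact e1_cont hQ hC hp hK
  · rw [← hQS]; exact e1_maps hQ hC hp hK
  · rw [← hQS]; exact fun y hy => e0_e1 hQ hC hp hK hy
  · exact fun y hy => e1_e0 hQ hC hp hK hy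
  · intro y hy hyp
    rw [Psi_eqD Φ hLa (sb_sub Φ c hpt hr1 hy), hpu]
    exact psi_eq_e0 hQ hC hn hp hK (I_sub_S C (hsub hy)) hyp

/-- the brick is a PL ball with its frontier -/
theorem isBall_brick (c : Φ.F) : IsBall 3 c.1.set (frontier c.1.set) := by
  have hpos := Φ.bf.pos c.1 c.2
  have h1 := Gn_296.isBall_box hpos
  have h2 : frontier c.1.set = Gp_702.bb c.1.lo c.1.hi := by
    have hc : IsClosed c.1.set := isClosed_Icc
    rw [hc.frontier_eq]
    ext y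
    rw [mem_diff, Vb_965.interior_box]
    constructor
    · rintro ⟨h3, h4⟩
      refine ⟨h3, ?_⟩
      push Not at h4
      obtain ⟨i, hi⟩ := h4
      refine ⟨i, ?_⟩
      rcases lt_or_eq_of_le (h3.1 i) with h5 | h5
      · right; exact le_antisymm (h3.2 i) (hi h5)
      · left; exact h5.symm
    · rintro ⟨h3, i, hi⟩
      refine ⟨h3, fun h4 => ?_⟩
      rcases hi with hi | hi
      · exact absurd hi (h4 i).1.ne'
      · exact absurd hi (h4 i).2.ne
  rw [h2]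
  exact h1

end Crest.Agent.R096.Pse_316
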