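import Crest.Agent.R096.Bgf2_4
import Crest.Agent.R096.Init12_543
import Crest.Agent.R096.Pse2_316
import Crest.Agent.R096.Lab1_184

/-! # Row 96, DOORS, barriers (helper4), part 3: the barriers of the machine data -/

set_option autoImplicit false
set_option linter.unusedSectionVars false

open Set Filter Topology Metric MeasureTheory

namespace Crest.Agent.R096.Bgf_4

open Crest.Agent.R096.Msh_715 Crest.Agent.R096.Agl4_543 Crest.Agent.R096.Agl5_543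
  Crest.Agent.R096.Agl6_543 Crest.Agent.R096.Agl8_543
  Crest.Agent.R096.Pat4_543 Crest.Agent.R096.Pat5_543 Crest.Agent.R096.St_147
  Crest.Agent.R096.Coh_184 Crest.Agent.R096.Seq_213 Crest.Agent.R096.Seq_213.GSt
  Crest.Agent.R096.Ginv_543
  Crest.Agent.R096.Lab_184 Crest.Agent.R096.Init_543
  Crest.Agent.R096.Brk1_582 Crest.Agent.R096.Brk2_582 Crest.Agent.R096.Brk3_582
  Crest.Agent.R096.Brk5_582 Crest.Agent.R096.Bsp_628 Crest.Agent.R96.Push_899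

open Crest.Agent.R096.SkC1_961 (E3 Hom3 IsPush FoamD Cfg th)
open Crest.Agent.R096.Mbf_337 (gau KJ Tiny)

section convex

variable {V : Type*} [NormedAddCommGroup V] [NormedSpace ℝ V]

/-- the boundary of a neighbourhood of a convex set -/
theorem frontier_infDist {τ : Set V} (hc : Convex ℝ τ) (hcp : IsCompact τ) (hne : τ.Nonempty) {t : ℝ}
    (ht : 0 < t) : frontier {y | infDist y τ ≤ t} = {y | infDist y τ = t} := by
  apply Subset.antisymm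
  · exact frontier_le_subset_eq (continuous_infDist_pt τ) continuous_const
  · intro y hy
    have hy' : infDist y τ = t := hy
    rw [frontier_eq_closure_inter_closure]
    refine ⟨subset_closure hy'.le, ?_⟩
    obtain ⟨p, hp, hpd⟩ := hcp.exists_infDist_eq_dist hne y
    -- points beyond `y` on the ray from `p`
    have key : ∀ s : ℝ, 0 < s → t < infDist (y + s • (y - p)) τ := by
      intro s hs
      by_contra hcon
      rw [not_lt] at hcon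
      have h1 : infDist (y + s • (y - p)) τ < (1 + s) * t := by nlinarith
      obtain ⟨q, hq, hqd⟩ := (infDist_lt_iff hne).1 h1
      have h1s : (0:ℝ) < 1 + s := by linarith
      set q' : V := (1 / (1 + s)) • q + (s / (1 + s)) • p with hq'
      have hq'm : q' ∈ τ := hc hq hp (by positivity) (by positivity) (by field_simp)
      have h2 : dist y q' < t := by
        have e : y - q' = (1 / (1 + s)) • ((y + s • (y - p)) - q) := by
          rw [hq', smul_sub, smul_add, smul_smul, smul_sub]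
          have e1 : (1 / (1 + s)) • y + (1 / (1 + s) * s) • y = y := by
            rw [← add_smul]
            have : 1 / (1 + s) + 1 / (1 + s) * s = 1 := by field_simp
            rw [this, one_smul]
          have e2 : (s / (1 + s)) • p = (1 / (1 + s) * s) • p := by
            congr 1; field_simp
          rw [e2]
          nth_rewrite 1 [← e1]
          abel
        rw [dist_eq_norm, e, norm_smul, Real.norm_eq_abs, abs_of_pos (by positivity),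
          ← dist_eq_norm, one_div, inv_mul_lt_iff₀ h1s]
        exact hqd
      have h3 : infDist y τ ≤ dist y q' := infDist_le_dist_of_mem hq'm
      linarith
    refine mem_closure_of_tendsto (f := fun s : ℝ => y + s • (y - p)) (b := 𝓝[>] (0:ℝ)) ?_ ?_
    · have : Tendsto (fun s : ℝ => y + s • (y - p)) (𝓝 0) (𝓝 (y + (0:ℝ) • (y - p))) := by
        apply Continuous.tendsto; fun_prop
      rw [zero_smul, add_zero] at this
      exact this.mono_left nhdsWithin_le_nhds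
    · filter_upwards [self_mem_nhdsWithin] with s hs
      exact not_le.2 (key s hs)

end convex

section mach

variable {δ κ0 R c0 : ℝ} {La Om : Set E3} {ι : Type} (Φ : FoamD δ κ0 R c0 La)

/-- **a barrier function** of the brick `c`: the barriers are the surfaces `{ℓ = t}`, `lo < t < hi`
(topological form: compact, connected, with trivial torsors) -/
structure BFun (c : Φ.F) (ρ : ℝ) (ℓ : E3 → ℝ) (lo hi : ℝ) : Prop where
  lt : lo < hi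
  lip : ∃ k, LipschitzWith k ℓ
  cpt : ∀ t ∈ Ioo lo hi, IsCompact {y | ℓ y = t}
  conn : ∀ t ∈ Ioo lo hi, IsPreconnected {y | ℓ y = t}
  triv : ∀ t ∈ Ioo lo hi, TrivF (ZMod 2) {y | ℓ y = t}
  sub : ∀ y, ℓ y < hi → gau c.1 (Φ.B c).lo y ≤ ρ

variable {Φ} in
/-- convex sublevel sets -/
theorem bfun_convex {c : Φ.F} {ρ : ℝ} {ℓ : E3 → ℝ} {lo hi : ℝ} (hlt : lo < hi)
    (hlip : ∃ k, LipschitzWith k ℓ) (hcpt : ∀ t ∈ Ioo lo hi, IsCompact {y | ℓ y ≤ t})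
    (hcvx : ∀ t ∈ Ioo lo hi, Convex ℝ {y | ℓ y ≤ t})
    (hint : ∀ t ∈ Ioo lo hi, (interior {y | ℓ y ≤ t}).Nonempty)
    (hfr : ∀ t ∈ Ioo lo hi, frontier {y | ℓ y ≤ t} = {y | ℓ y = t})
    (hsub : ∀ y, ℓ y < hi → gau c.1 (Φ.B c).lo y ≤ ρ) : BFun Φ c ρ ℓ lo hi where
  lt := hlt
  lip := hlip
  cpt := fun t ht => by
    rw [← hfr t ht]
    exact (hcpt t ht).of_isClosed_subset isClosed_frontier (hcpt t ht).isClosed.frontier_subset
  conn := fun t ht => by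
    rw [← hfr t ht]
    exact isPreconnected_frontier fr3 (hcpt t ht) (hcvx t ht) (hint t ht)
  triv := fun t ht => by
    rw [← hfr t ht]
    exact trivF_frontier fr3 (hcpt t ht) (hcvx t ht) (hint t ht)
  sub := hsub

/-- neighbourhoods of convex sets -/
theorem bfun_infDist {c : Φ.F} {ρ : ℝ} {τ : Set E3} (hc : Convex ℝ τ) (hcp : IsCompact τ)
    (hne : τ.Nonempty) {lo hi : ℝ} (h0 : 0 ≤ lo) (hlt : lo < hi)
    (hsub : ∀ y, infDist y τ < hi → gau c.1 (Φ.B c).lo y ≤ ρ) :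
    BFun Φ c ρ (fun y => infDist y τ) lo hi := by
  refine bfun_convex hlt ⟨1, lipschitz_infDist_pt τ⟩ (fun t _ => ?_) (fun t ht => ?_)
    (fun t ht => ?_) (fun t ht => frontier_infDist hc hcp hne (by linarith [ht.1])) hsub
  · have := hcp.cthickening (r := t)
    refine this.of_isClosed_subset (isClosed_le (continuous_infDist_pt τ) continuous_const) ?_
    intro y hy
    rw [cthickening_eq_preimage_infEDist]
    show infEDist y τ ≤ ENNReal.ofReal t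
    have h1 : infEDist y τ ≠ ⊤ := infEDist_ne_top hne
    rw [← ENNReal.ofReal_toReal h1]
    exact ENNReal.ofReal_le_ofReal hy
  · have h1 : {y | infDist y τ ≤ t} = cthickening t τ := by
      ext y
      rw [cthickening_eq_preimage_infEDist]
      show infDist y τ ≤ t ↔ infEDist y τ ≤ ENNReal.ofReal t
      have h1 : infEDist y τ ≠ ⊤ := infEDist_ne_top hne
      rw [← ENNReal.ofReal_toReal h1, ENNReal.ofReal_le_ofReal_iff (by linarith [ht.1])]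
      rfl
    rw [h1]
    exact hc.cthickening t
  · obtain ⟨p, hp⟩ := hne
    refine ⟨p, mem_interior.2 ⟨{y | infDist y τ < t}, fun y hy =>
      (show infDist y τ ≤ t from le_of_lt hy),
      isOpen_lt (continuous_infDist_pt τ) continuous_const, ?_⟩⟩
    show infDist p τ < t
    rw [infDist_zero_of_mem hp]
    linarith [ht.1]

variable {Φ} {T : Tiling Om ι} {f g : E3 → E3}

/-- the barrier sheets are in the part of the brick where the gauge is `≤ ρ` -/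
theorem BFun.lt_one {c : Φ.F} {ρ lo hi : ℝ} {ℓ : E3 → ℝ} (h : BFun Φ c ρ ℓ lo hi)
    (hpt : (Φ.B c).lo = (Φ.B c).hi) (hρ : ρ < 1) {y : E3} (hy : ℓ y < hi) :
    (∀ k, c.1.lo k < y k ∧ y k < c.1.hi k) ∧ y ∈ La := by
  have h1 := h.sub y hy
  rw [Pse_316.gau_eq] at h1
  have hb := Pse_316.bod_brick Φ c hpt
  have h2 : y ∈ interior c.1.set := hb.lt_one_iff.1 (lt_of_le_of_lt h1 hρ)
  have h3 : y ∈ interior (Pc Φ.F c) := h2
  rw [interior_Pc] at h3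
  refine ⟨fun k => h3 k, ?_⟩
  exact Φ.bf.sub c.1 c.2 (interior_subset h2)

theorem BFun.sub_La {c : Φ.F} {ρ lo hi : ℝ} {ℓ : E3 → ℝ} (h : BFun Φ c ρ ℓ lo hi)
    (hpt : (Φ.B c).lo = (Φ.B c).hi) (hρ : ρ < 1) {t : ℝ} (ht : t ∈ Ioo lo hi) :
    {y | ℓ y = t} ⊆ La := fun y hy => (h.lt_one hpt hρ (y := y) (by
      show ℓ y < hi; rw [show ℓ y = t from hy]; exact ht.2)).2

theorem BFun.cpt_eq {c : Φ.F} {ρ lo hi : ℝ} {ℓ : E3 → ℝ} (h : BFun Φ c ρ ℓ lo hi) {t : ℝ}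
    (ht : t ∈ Ioo lo hi) : IsCompact {y | ℓ y = t} := h.cpt t ht

theorem BFun.sheet_cpt {c : Φ.F} {ρ lo hi : ℝ} {ℓ : E3 → ℝ} (h : BFun Φ c ρ ℓ lo hi)
    (hpt : (Φ.B c).lo = (Φ.B c).hi) (hρ : ρ < 1) (H : Hm f g Om La) {t : ℝ}
    (ht : t ∈ Ioo lo hi) : IsCompact {x | x ∈ Om ∧ ℓ (f x) = t} :=
  H.isCompact_pre (h.sub_La hpt hρ ht) (h.cpt_eq ht)

theorem BFun.sheet_trivF {c : Φ.F} {ρ lo hi : ℝ} {ℓ : E3 → ℝ} (h : BFun Φ c ρ ℓ lo hi)
    (hpt : (Φ.B c).lo = (Φ.B c).hi) (hρ : ρ < 1) (H : Hm f g Om La) {t : ℝ}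
    (ht : t ∈ Ioo lo hi) : TrivF (ZMod 2) {x | x ∈ Om ∧ ℓ (f x) = t} :=
  H.trivF_pre (h.sub_La hpt hρ ht) (h.cpt_eq ht) (h.triv t ht)

theorem BFun.sheet_preconn {c : Φ.F} {ρ lo hi : ℝ} {ℓ : E3 → ℝ} (h : BFun Φ c ρ ℓ lo hi)
    (hpt : (Φ.B c).lo = (Φ.B c).hi) (hρ : ρ < 1) (H : Hm f g Om La) {t : ℝ}
    (ht : t ∈ Ioo lo hi) : IsPreconnected {x | x ∈ Om ∧ ℓ (f x) = t} :=
  H.preconn_pre (h.sub_La hpt hρ ht) (h.conn t ht)

/-- the sheet is in the tiles of `V` -/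
theorem BFun.sheet_sub {c : Φ.F} {ρ lo hi : ℝ} {ℓ : E3 → ℝ} (h : BFun Φ c ρ ℓ lo hi) {V : Set ι}
    (hV : ∀ i, (∃ x ∈ P (T.H i), gau c.1 (Φ.B c).lo (f x) ≤ ρ) → i ∈ V) {x : E3} (hx : x ∈ Om)
    (hxl : ℓ (f x) < hi) : x ∈ KJ T V ∧ ∀ i, x ∈ P (T.H i) → i ∈ V := by
  have h1 : ∀ i, x ∈ P (T.H i) → i ∈ V := fun i hi => hV i ⟨x, hi, h.sub _ hxl⟩
  obtain ⟨i, hi⟩ := T.cov x hx
  exact ⟨mem_iUnion₂.2 ⟨i, h1 i hi, hi⟩, h1⟩

theorem BFun.fin {c : Φ.F} {ρ lo hi : ℝ} {ℓ : E3 → ℝ} (h : BFun Φ c ρ ℓ lo hi) {V : Set ι}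
    (hV : ∀ i, (∃ x ∈ P (T.H i), gau c.1 (Φ.B c).lo (f x) ≤ ρ) → i ∈ V)
    (hreg : ∀ x ∈ KJ T V, T.dim x = 1 → ∀ ℓ : E3 → ℝ, (∃ k, LipschitzWith k ℓ) →
      ∀ᵐ t : ℝ, {y ∈ T.cc x | ℓ (f y) = t}.Finite) (x : E3) (hx : x ∈ Om) (hd : T.dim x = 1) :
    ∀ᵐ t : ℝ, t ∈ Ioo lo hi → {y | y ∈ T.cc x ∧ ℓ (f y) = t}.Finite := by
  by_cases hxV : x ∈ KJ T V
  · filter_upwards [hreg x hxV hd ℓ h.lip] with t ht _
    exact ht
  · refine Eventually.of_forall fun t ht => ?_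
    refine Set.Finite.subset finite_empty fun y hy => ?_
    obtain ⟨i, hi⟩ := T.cov x hx
    have hyi : y ∈ P (T.H i) := T.cc_sub_tile hi hy.1
    have h1 : i ∈ V := hV i ⟨y, hyi, h.sub _ (by rw [hy.2]; exact ht.2)⟩
    exact hxV (mem_iUnion₂.2 ⟨i, h1, hi⟩)

/-- **the barriers at the tiny cores** -/
structure BData (Φ : FoamD δ κ0 R c0 La) (T : Tiling Om ι) (f : E3 → E3) (V : Φ.F → Set ι)
    {Mo : Type} (co : Mo → Φ.F) (ρ : Mo → ℝ) (ℓ : Mo → E3 → ℝ) (lo hi : Mo → ℝ) : Prop where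
  pt : ∀ m, (Φ.B (co m)).lo = (Φ.B (co m)).hi
  ρ1 : ∀ m, ρ m < 1
  bf : ∀ m, BFun Φ (co m) (ρ m) (ℓ m) (lo m) (hi m)
  tile : ∀ m i, (∃ x ∈ P (T.H i), gau (co m).1 (Φ.B (co m)).lo (f x) ≤ ρ m) → i ∈ V (co m)
  reg : ∀ m, ∀ x ∈ KJ T (V (co m)), T.dim x = 1 → ∀ ℓ : E3 → ℝ, (∃ k, LipschitzWith k ℓ) →
    ∀ᵐ t : ℝ, {y ∈ T.cc x | ℓ (f y) = t}.Finite

variable {Mo : Type} {co : Mo → Φ.F} {ρ : Mo → ℝ} {ℓ : Mo → E3 → ℝ} {lo hi : Mo → ℝ}
  {V : Φ.F → Set ι} {r₀ : Φ.F → ℝ} {L : Φ.F → Finset ℝ}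

/-- the level functions with the barriers -/
noncomputable def uB (Φ : FoamD δ κ0 R c0 La) (r₀ : Φ.F → ℝ) (f : E3 → E3) (L : Φ.F → Finset ℝ)
    (ℓ : Mo → E3 → ℝ) : JJ Φ L ⊕ Mo → E3 → ℝ :=
  Sum.elim (fun j : JJ Φ L => va (Pc Φ.F) (bc (F := Φ.F)) (RF Φ r₀) f j.1) fun m x => ℓ m (f x)

/-- the levels with the barriers -/
noncomputable def tB (Φ : FoamD δ κ0 R c0 La) (L : Φ.F → Finset ℝ) (ε : Mo → ℝ) :
    JJ Φ L ⊕ Mo → ℝ := Sum.elim (fun j : JJ Φ L => j.2.1) ε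

/-- the sheets with the barriers -/
noncomputable def SB (Om : Set E3) (Φ : FoamD δ κ0 R c0 La) (r₀ : Φ.F → ℝ) (f : E3 → E3)
    (L : Φ.F → Finset ℝ) (ℓ : Mo → E3 → ℝ) (ε : Mo → ℝ) : JJ Φ L ⊕ Mo → Set E3 :=
  Sum.elim (shS Om (Pc Φ.F) (bc (F := Φ.F)) (RF Φ r₀) f (fun j : JJ Φ L => j.1) (fun j => j.2.1))
    fun m => {x | x ∈ Om ∧ ℓ m (f x) = ε m}

/-- the families with the barriers: every barrier is one family -/
abbrev famB (Φ : FoamD δ κ0 R c0 La) (L : Φ.F → Finset ℝ) (Mo : Type) : JJ Φ L ⊕ Mo → Φ.F ⊕ Mo :=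
  Sum.map (fun j : JJ Φ L => j.1) id

/-- the family of all sheets and barriers -/
abbrev GFB (Φ : FoamD δ κ0 R c0 La) (r₀ : Φ.F → ℝ) (T : Tiling Om ι) (f : E3 → E3)
    (L : Φ.F → Finset ℝ) (ℓ : Mo → E3 → ℝ) (ε : Mo → ℝ) : Prop :=
  GFam T (uB Φ r₀ f L ℓ) (tB Φ L ε) (SB Om Φ r₀ f L ℓ ε) (famB Φ L Mo)

theorem countable_JJ : Countable (JJ Φ L) := by
  have : Countable Φ.F := Φ.bf.countable.to_subtype
  have : ∀ a : Φ.F, Countable {t // t ∈ L a} := fun a => inferInstance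
  infer_instance

/-- **existence of the levels of the barriers** -/
theorem exists_gfb [Countable Mo] (H : Hm f g Om La) (hG : GF Φ r₀ T f L)
    (hB : BData Φ T f V co ρ ℓ lo hi) (N : Mo → Set ℝ) (hN : ∀ m, volume (N m) = 0) :
    ∃ ε : Mo → ℝ, (∀ m, ε m ∈ Ioo (lo m) (hi m)) ∧ (∀ m, ε m ∉ N m) ∧ GFB Φ r₀ T f L ℓ ε := by
  have : Countable (JJ Φ L) := countable_JJ
  obtain ⟨ε, h1, h2, h3⟩ := exists_sum fr3 hG (U := fun m x => ℓ m (f x))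
    (fun m => (hB.bf m).lt)
    (fun m => by
      obtain ⟨k, hk⟩ := (hB.bf m).lip
      exact hk.continuous.comp_continuousOn H.fc)
    (fun m t ht => (hB.bf m).sheet_cpt (hB.pt m) (hB.ρ1 m) H ht)
    (fun m x hx hd => (hB.bf m).fin (hB.tile m) (hB.reg m) x hx hd) N hN
  exact ⟨ε, h1, h2, h3⟩

section st

variable [Nonempty (JJ Φ L)] {hG : GF Φ r₀ T f L} {ε : Mo → ℝ}

/-- **the truthful state with the barriers** -/
noncomputable def stB (hGB : GFB Φ r₀ T f L ℓ ε) (bp : JJ Φ L → E3) (bm : Mo → E3) :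
    GSt (meshC T fr3) (famB Φ L Mo) := gmain (hGB.gst fr3) (Sum.elim bp bm)

/-- base points -/
structure BBase (T : Tiling Om ι) (f : E3 → E3) (L : Φ.F → Finset ℝ) (ℓ : Mo → E3 → ℝ)
    (ε : Mo → ℝ) (bp : JJ Φ L → E3) (bm : Mo → E3) : Prop where
  lev : ∀ j : JJ Φ L, bp j ∈ Om ∧ T.dim (bp j) = 1 ∧ Φ.lev j.1 (f (bp j)) = j.2.1
  bar : ∀ m, bm m ∈ Om ∧ T.dim (bm m) = 1 ∧ ℓ m (f (bm m)) = ε m

variable {J0 : Φ.F → Set ι} {ct' : Φ.F → ι} {bp : JJ Φ L → E3} {bm : Mo → E3}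

theorem BBase.mem (hLa : IsOpen La) (hR : InitR Φ T f g J0 ct' r₀) (hb : BBase T f L ℓ ε bp bm)
    (j : JJ Φ L ⊕ Mo) : Sum.elim bp bm j ∈ SB Om Φ r₀ f L ℓ ε j ∧ T.dim (Sum.elim bp bm j) ≤ 1 := by
  rcases j with j | m
  · refine ⟨⟨(hb.lev j).1, ?_⟩, (hb.lev j).2.1.le⟩
    have h := hR.v_eq' Φ hLa (hb.lev j).1 (by rw [(hb.lev j).2.1]; norm_num) j.1
    exact h.trans (hb.lev j).2.2
  · exact ⟨⟨(hb.bar m).1, (hb.bar m).2.2⟩, (hb.bar m).2.1.le⟩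

theorem BBase.gst (hLa : IsOpen La) (hR : InitR Φ T f g J0 ct' r₀) (hb : BBase T f L ℓ ε bp bm)
    (hGB : GFB Φ r₀ T f L ℓ ε) (j : JJ Φ L ⊕ Mo) :
    Sum.elim bp bm j ∈ (hGB.gst fr3).P ∧ (hGB.gst fr3).lab (Sum.elim bp bm j) = j :=
  hGB.mem_pts_iff.2 (hb.mem hLa hR j)

/-- **the state with the barriers extends the truthful state** -/
theorem ext_stB (hLa : IsOpen La) (hR : InitR Φ T f g J0 ct' r₀) (hb : BBase T f L ℓ ε bp bm)
    (hGB : GFB Φ r₀ T f L ℓ ε) : Ext (st0 hG bp) (stB hGB bp bm) :=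
  (ext_gst hG hGB (fun _ => rfl) fr3).gmain (fun _ => rfl) fun i => hb.gst hLa hR hGB i

theorem stB_conn (hLa : IsOpen La) (hR : InitR Φ T f g J0 ct' r₀) (hb : BBase T f L ℓ ε bp bm)
    (hGB : GFB Φ r₀ T f L ℓ ε) (j : JJ Φ L ⊕ Mo) : (stB hGB bp bm).Conn j :=
  gconn_main (fun i => hb.gst hLa hR hGB i) j

/-- all sheets and barriers have trivial torsors -/
theorem trivF_SB (hLa : IsOpen La) (hR : InitR Φ T f g J0 ct' r₀)
    (hB : BData Φ T f V co ρ ℓ lo hi) (hε : ∀ m, ε m ∈ Ioo (lo m) (hi m))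
    (hL : ∀ c, ∀ t ∈ L c, 0 < t ∧ t < 1) (j : JJ Φ L ⊕ Mo) :
    TrivF (ZMod 2) (SB Om Φ r₀ f L ℓ ε j) := by
  rcases j with j | m
  · exact trivF_sheet hR.hm (foam4 Φ hLa) (retF Φ hLa hR.pos hR.le_one) fr3 (hL _ _ j.2.2).1
      (hL _ _ j.2.2).2
  · exact (hB.bf m).sheet_trivF (hB.pt m) (hB.ρ1 m) hR.hm (hε m)

theorem stB_H1 (hLa : IsOpen La) (hR : InitR Φ T f g J0 ct' r₀)
    (hB : BData Φ T f V co ρ ℓ lo hi) (hε : ∀ m, ε m ∈ Ioo (lo m) (hi m))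
    (hL : ∀ c, ∀ t ∈ L c, 0 < t ∧ t < 1) (hGB : GFB Φ r₀ T f L ℓ ε) (j : JJ Φ L ⊕ Mo) :
    (stB hGB bp bm).H1 j :=
  gH1_main (hGB.H1 fr3 j (trivF_SB hLa hR hB hε hL j))

/-- the points of the barriers -/
theorem stB_bar (hB : BData Φ T f V co ρ ℓ lo hi) (hε : ∀ m, ε m ∈ Ioo (lo m) (hi m))
    (hGB : GFB Φ r₀ T f L ℓ ε) {w : E3} {m : Mo} (hw : w ∈ (stB hGB bp bm).P)
    (hl : (stB hGB bp bm).lab w = Sum.inr m) :
    w ∈ Om ∧ T.dim w = 1 ∧ ℓ m (f w) = ε m ∧ gau (co m).1 (Φ.B (co m)).lo (f w) ≤ ρ m ∧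
      w ∈ KJ T (V (co m)) ∧ ∀ i, w ∈ P (T.H i) → i ∈ V (co m) := by
  have h1 := (hGB.mem_pts_iff (w := w) (i := Sum.inr m)).1 ⟨hw.1, hl⟩
  have hS : w ∈ Om ∧ ℓ m (f w) = ε m := h1.1
  have h2 := (hGB.lev (Sum.inr m)).vert w h1.1
  have hlt : ℓ m (f w) < hi m := by rw [hS.2]; exact (hε m).2
  have h4 := (hB.bf m).sheet_sub (hB.tile m) hS.1 hlt
  exact ⟨hS.1, by have := h1.2; omega, hS.2, (hB.bf m).sub _ hlt, h4.1, h4.2⟩

/-- the points of the sheets are the points of the truthful state -/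
theorem stB_lev (hLa : IsOpen La) (hR : InitR Φ T f g J0 ct' r₀) (hb : BBase T f L ℓ ε bp bm)
    (hGB : GFB Φ r₀ T f L ℓ ε) {w : E3} {j : JJ Φ L} (hw : w ∈ (stB hGB bp bm).P)
    (hl : (stB hGB bp bm).lab w = Sum.inl j) :
    w ∈ (st0 hG bp).P ∧ (st0 hG bp).lab w = j := (ext_stB hLa hR hb hGB).of_lab hw hl

end st

end mach

end Crest.Agent.R096.Bgf_4
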