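import Crest.Agent.R096.St1_147

/-!
# R096 (row 96): merging cells of a combinatorial mesh (helper715)

`ConnAt M A w` : the cells of `A` at `w` are connected through the faces at `w` inside `A`.
Then exactly `0` or `2` faces at `w` bound `A`, and cells may be merged.
-/

set_option autoImplicit false

open Set
open scoped Classical

namespace Crest.Agent.R096.Msh_715

open St_147

variable {ι ι' Φ W : Type}

/-- the cells of `A` at `w` are connected through the faces at `w` with both sides in `A` -/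
def ConnAt (M : MeshC ι Φ W) (A : Set ι) (w : W) : Prop :=
  ∀ X : Set ι, (∀ F, w ∈ M.On F → ∀ q ∈ M.side F, ∀ q' ∈ M.side F, q ∈ A → q' ∈ A → q ∈ X → q' ∈ X) →
    ∀ F, w ∈ M.On F → ∀ q ∈ M.side F, q ∈ A → q ∈ X →
      ∀ F', w ∈ M.On F' → ∀ q' ∈ M.side F', q' ∈ A → q' ∈ X

theorem connAt_empty (M : MeshC ι Φ W) (w : W) : ConnAt M ∅ w :=
  fun _ _ _ _ _ _ h => absurd h (notMem_empty _)

theorem connAt_singleton (M : MeshC ι Φ W) (q : ι) (w : W) : ConnAt M {q} w := by
  intro X _ F _ k _ hk hkX F' _ k' _ hk'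
  rw [mem_singleton_iff] at hk hk'
  rw [hk', ← hk]; exact hkX

/-- if all the cells at `w` are in `A` -/
theorem connAt_of_all (M : MeshC ι Φ W) {A : Set ι} {w : W}
    (h : ∀ F, w ∈ M.On F → ∀ q ∈ M.side F, q ∈ A) : ConnAt M A w := by
  intro X hX F hF q hq _ hqX F' hF' q' hq' _
  refine M.link w X (fun G hG k hk k' hk' hkX => ?_) F hF q hq hqX F' hF' q' hq'
  exact hX G hG k hk k' hk' (h G hG k hk) (h G hG k' hk') hkX

/-- if no cell at `w` is in `A` -/
theorem connAt_of_none (M : MeshC ι Φ W) {A : Set ι} {w : W}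
    (h : ∀ F, w ∈ M.On F → ∀ q ∈ M.side F, q ∉ A) : ConnAt M A w := by
  intro X hX F hF q hq hqA
  exact absurd hqA (h F hF q hq)

/-- the cells of `A` at `w` -/
def cellsAt (M : MeshC ι Φ W) (A : Set ι) (w : W) : Set ι :=
  {q | q ∈ A ∧ ∃ F, w ∈ M.On F ∧ q ∈ M.side F}

/-- the faces at `w` with both sides in `A` -/
def innAt (M : MeshC ι Φ W) (A : Set ι) (w : W) : Set Φ :=
  {F | w ∈ M.On F ∧ ∀ q ∈ M.side F, q ∈ A}

/-- the faces at `w` with exactly one side in `A` -/
def bdAt (M : MeshC ι Φ W) (A : Set ι) (w : W) : Set Φ :=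
  {F | w ∈ M.On F ∧ (∃ q ∈ M.side F, q ∈ A) ∧ ∃ q ∈ M.side F, q ∉ A}

theorem finite_innAt (M : MeshC ι Φ W) (A : Set ι) (w : W) : (innAt M A w).Finite :=
  (M.fin w).subset fun _ h => h.1

theorem finite_bdAt (M : MeshC ι Φ W) (A : Set ι) (w : W) : (bdAt M A w).Finite :=
  (M.fin w).subset fun _ h => h.1

theorem finite_cellsAt (M : MeshC ι Φ W) (A : Set ι) (w : W) : (cellsAt M A w).Finite := by
  have h1 : (⋃ F ∈ {F | w ∈ M.On F}, {q | q ∈ M.side F}).Finite := by
    refine Set.Finite.biUnion (M.fin w) fun F _ => ?_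
    induction M.side F using Sym2.ind with
    | _ x y =>
      refine (Set.toFinite {x, y}).subset ?_
      intro q hq
      simpa using hq
  refine h1.subset ?_
  rintro q ⟨_, F, hF, hq⟩
  exact mem_iUnion₂.2 ⟨F, hF, hq⟩

/-- handshake: `2 |A| = 2 |inner faces| + |boundary faces|` -/
theorem handshake (M : MeshC ι Φ W) (A : Set ι) (w : W) :
    2 * (cellsAt M A w).ncard = 2 * (innAt M A w).ncard + (bdAt M A w).ncard := by
  set V : Finset ι := (finite_cellsAt M A w).toFinset with hV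
  set EI : Finset Φ := (finite_innAt M A w).toFinset with hEI
  set EB : Finset Φ := (finite_bdAt M A w).toFinset with hEB
  have hVm : ∀ q, q ∈ V ↔ q ∈ A ∧ ∃ F, w ∈ M.On F ∧ q ∈ M.side F := fun q => by
    rw [hV, Set.Finite.mem_toFinset]; rfl
  have hIm : ∀ F, F ∈ EI ↔ w ∈ M.On F ∧ ∀ q ∈ M.side F, q ∈ A := fun F => by
    rw [hEI, Set.Finite.mem_toFinset]; rfl
  have hBm : ∀ F, F ∈ EB ↔ w ∈ M.On F ∧ (∃ q ∈ M.side F, q ∈ A) ∧ ∃ q ∈ M.side F, q ∉ A :=
    fun F => by rw [hEB, Set.Finite.mem_toFinset]; rfl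
  rw [Set.ncard_eq_toFinset_card _ (finite_cellsAt M A w),
    Set.ncard_eq_toFinset_card _ (finite_innAt M A w),
    Set.ncard_eq_toFinset_card _ (finite_bdAt M A w)]
  -- count pairs (q, F)
  have hdisj : Disjoint EI EB := by
    rw [Finset.disjoint_left]
    intro F h1 h2
    obtain ⟨q, hq, hqA⟩ := ((hBm F).1 h2).2.2
    exact hqA (((hIm F).1 h1).2 q hq)
  have hcell : ∀ q ∈ V, ((EI ∪ EB).filter fun F => q ∈ M.side F).card = 2 := by
    intro q hq
    obtain ⟨hqA, F0, hF0, hq0⟩ := (hVm q).1 hq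
    have hset : {F | q ∈ M.side F ∧ w ∈ M.On F} =
        (((EI ∪ EB).filter fun F => q ∈ M.side F : Finset Φ) : Set Φ) := by
      ext F
      simp only [mem_ofPred_eq, Finset.coe_filter, Finset.mem_union, hIm, hBm]
      constructor
      · rintro ⟨h1, h2⟩
        refine ⟨?_, h1⟩
        by_cases h3 : ∀ q ∈ M.side F, q ∈ A
        · exact Or.inl ⟨h2, h3⟩
        · push Not at h3
          obtain ⟨k, hk, hkA⟩ := h3
          exact Or.inr ⟨h2, ⟨q, h1, hqA⟩, k, hk, hkA⟩
      · rintro ⟨h1 | h1, h2⟩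
        · exact ⟨h2, h1.1⟩
        · exact ⟨h2, h1.1⟩
    rcases M.deg q w with h | h
    · have : {F | q ∈ M.side F ∧ w ∈ M.On F} = ∅ :=
        (Set.ncard_eq_zero ((M.fin w).subset fun F hF => hF.2)).1 h
      exact absurd (show F0 ∈ {F | q ∈ M.side F ∧ w ∈ M.On F} from ⟨hq0, hF0⟩)
        (by rw [this]; exact notMem_empty _)
    · rw [hset, Set.ncard_coe_finset] at h
      exact h
  have hI2 : ∀ F ∈ EI, (V.filter fun q => q ∈ M.side F).card = 2 := by
    intro F hF
    obtain ⟨h1, h2⟩ := (hIm F).1 hF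
    have hnd := M.side_nd F
    obtain ⟨⟨x, y⟩, hxy⟩ := Quot.exists_rep (M.side F)
    have hxy' : M.side F = s(x, y) := hxy.symm
    have hne : x ≠ y := by
      intro h; rw [hxy', h] at hnd; exact hnd (Sym2.mk_isDiag_iff.2 rfl)
    have : (V.filter fun q => q ∈ M.side F) = {x, y} := by
      ext q
      simp only [Finset.mem_filter, hVm, Finset.mem_insert, Finset.mem_singleton]
      constructor
      · rintro ⟨_, h3⟩; rw [hxy'] at h3; exact Sym2.mem_iff.1 h3
      · intro h3
        have h4 : q ∈ M.side F := by rw [hxy']; exact Sym2.mem_iff.2 h3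
        exact ⟨⟨h2 q h4, F, h1, h4⟩, h4⟩
    rw [this, Finset.card_pair hne]
  have hB1 : ∀ F ∈ EB, (V.filter fun q => q ∈ M.side F).card = 1 := by
    intro F hF
    obtain ⟨h1, ⟨q, hq, hqA⟩, k, hk, hkA⟩ := (hBm F).1 hF
    have hne : q ≠ k := fun h => hkA (h ▸ hqA)
    have hs : M.side F = s(q, k) := ((Sym2.mem_and_mem_iff hne).1 ⟨hq, hk⟩)
    have : (V.filter fun q => q ∈ M.side F) = {q} := by
      ext r
      simp only [Finset.mem_filter, hVm, Finset.mem_singleton]
      constructor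
      · rintro ⟨⟨hrA, _⟩, h3⟩
        rw [hs] at h3
        rcases Sym2.mem_iff.1 h3 with h4 | h4
        · exact h4
        · rw [h4] at hrA; exact absurd hrA hkA
      · rintro rfl
        exact ⟨⟨hqA, F, h1, hq⟩, hq⟩
    rw [this, Finset.card_singleton]
  have hdc : ∑ q ∈ V, ((EI ∪ EB).filter fun F => q ∈ M.side F).card =
      ∑ F ∈ EI ∪ EB, (V.filter fun q => q ∈ M.side F).card := by
    simp only [Finset.card_filter]
    exact Finset.sum_comm
  rw [Finset.sum_congr rfl hcell, Finset.sum_union hdisj, Finset.sum_congr rfl hI2,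
    Finset.sum_congr rfl hB1] at hdc
  simp only [Finset.sum_const, smul_eq_mul, mul_one] at hdc
  rw [← hV, ← hEI, ← hEB]
  omega

/-- **exactly `0` or `2` faces at `w` bound a locally connected set of cells** -/
theorem ncard_bd {M : MeshC ι Φ W} {A : Set ι} {w : W} (h : ConnAt M A w) :
    (bdAt M A w).ncard = 0 ∨ (bdAt M A w).ncard = 2 := by
  have hs := handshake M A w
  have hf := finite_cellsAt M A w
  rcases (cellsAt M A w).eq_empty_or_nonempty with he | hne
  · left
    rw [he, ncard_empty] at hs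
    omega
  -- the graph on the cells of `A` at `w`
  have : Fintype (cellsAt M A w) := hf.fintype
  let G : SimpleGraph (cellsAt M A w) :=
    { Adj := fun q q' => q ≠ q' ∧ ∃ F ∈ innAt M A w, q.1 ∈ M.side F ∧ q'.1 ∈ M.side F
      symm := ⟨fun q q' h => ⟨h.1.symm, by
        obtain ⟨F, hF, h1, h2⟩ := h.2; exact ⟨F, hF, h2, h1⟩⟩⟩
      loopless := ⟨fun q h => h.1 rfl⟩ }
  have hconn : G.Connected := by
    have : Nonempty (cellsAt M A w) := hne.to_subtype
    refine ⟨fun q q' => ?_⟩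
    let X : Set ι := {k | ∃ hk : k ∈ cellsAt M A w, G.Reachable q ⟨k, hk⟩}
    obtain ⟨hqA, F, hF, hqF⟩ := q.2
    obtain ⟨hqA', F', hF', hqF'⟩ := q'.2
    have hX : q'.1 ∈ X := by
      refine h X ?_ F hF q.1 hqF hqA ⟨q.2, SimpleGraph.Reachable.refl _⟩ F' hF' q'.1 hqF' hqA'
      rintro G' hG' k hk k' hk' hkA hkA' ⟨hkc, hkr⟩
      have hkc' : k' ∈ cellsAt M A w := ⟨hkA', G', hG', hk'⟩
      refine ⟨hkc', ?_⟩
      by_cases hkk : k = k'
      · subst hkk; exact hkr
      · have hadj : G.Adj ⟨k, hkc⟩ ⟨k', hkc'⟩ := by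
          refine ⟨fun h => hkk (congrArg Subtype.val h), G', ⟨hG', ?_⟩, hk, hk'⟩
          intro r hr
          have hs : M.side G' = s(k, k') := ((Sym2.mem_and_mem_iff hkk).1 ⟨hk, hk'⟩)
          rw [hs] at hr
          rcases Sym2.mem_iff.1 hr with h4 | h4
          · rw [h4]; exact hkA
          · rw [h4]; exact hkA'
        exact hkr.trans hadj.reachable
    obtain ⟨hk, hr⟩ := hX
    exact hr
  have hcard := hconn.card_vert_le_card_edgeSet_add_one
  -- the edges of the graph come from inner faces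
  have hedge : Nat.card G.edgeSet ≤ (innAt M A w).ncard := by
    have hfI := finite_innAt M A w
    have : Finite (innAt M A w) := hfI.to_subtype
    have hex : ∀ e : G.edgeSet, ∃ F : innAt M A w,
        (e.1.map Subtype.val : Sym2 ι) = M.side F.1 := by
      rintro ⟨e, he⟩
      induction e using Sym2.ind with
      | _ x y =>
        rw [SimpleGraph.mem_edgeSet] at he
        obtain ⟨hxy, F, hF, h1, h2⟩ := he
        refine ⟨⟨F, hF⟩, ?_⟩
        have hne : x.1 ≠ y.1 := fun h => hxy (Subtype.ext h)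
        exact ((Sym2.mem_and_mem_iff hne).1 ⟨h1, h2⟩).symm
    choose f hf using hex
    have hinj : Function.Injective f := by
      intro e e' hee
      have h1 := hf e
      rw [hee, ← hf e'] at h1
      exact Subtype.ext (Sym2.map.injective Subtype.val_injective h1)
    have := Nat.card_le_card_of_injective f hinj
    rwa [Nat.card_coe_set_eq (innAt M A w)] at this
  have hv : Nat.card (cellsAt M A w) = (cellsAt M A w).ncard := Nat.card_coe_set_eq _
  rw [hv] at hcard
  omega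

/-! ### the merged mesh -/

theorem mem_map_iff {s : Sym2 ι} {π : ι → ι'} {k : ι'} :
    k ∈ s.map π ↔ ∃ q ∈ s, π q = k := Sym2.mem_map

theorem map_isDiag_iff {s : Sym2 ι} {π : ι → ι'} :
    (s.map π).IsDiag ↔ ∀ q ∈ s, ∀ q' ∈ s, π q = π q' := by
  induction s using Sym2.ind with
  | _ x y =>
    rw [Sym2.map_mk, Sym2.mk_isDiag_iff]
    constructor
    · intro h q hq q' hq'
      rcases Sym2.mem_iff.1 hq with rfl | rfl <;> rcases Sym2.mem_iff.1 hq' with rfl | rfl
      · rfl
      · exact h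
      · exact h.symm
      · rfl
    · intro h
      exact h x (Sym2.mem_mk_left _ _) y (Sym2.mem_mk_right _ _)

/-- **the merged mesh** -/
def mergeC (M : MeshC ι Φ W) (π : ι → ι') (h : ∀ k w, ConnAt M (π ⁻¹' {k}) w) :
    MeshC ι' {F : Φ // ¬ ((M.side F).map π).IsDiag} W where
  side := fun F => (M.side F.1).map π
  side_nd := fun F => F.2
  On := fun F => M.On F.1
  pos := fun F => M.pos F.1
  pos_inj := fun F => M.pos_inj F.1
  deg := by
    intro k w
    have h1 : {F : {F : Φ // ¬ ((M.side F).map π).IsDiag} |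
        k ∈ (M.side F.1).map π ∧ w ∈ M.On F.1} = Subtype.val ⁻¹' (bdAt M (π ⁻¹' {k}) w) := by
      ext F
      simp only [mem_ofPred_eq, mem_preimage, bdAt, mem_map_iff]
      constructor
      · rintro ⟨⟨q, hq, hqk⟩, hw⟩
        refine ⟨hw, ⟨q, hq, hqk⟩, ?_⟩
        have h2 := F.2
        rw [map_isDiag_iff] at h2
        push Not at h2
        obtain ⟨x, hx, y, hy, hxy⟩ := h2
        by_cases hxk : π x = k
        · exact ⟨y, hy, fun h => hxy (hxk.trans h.symm)⟩
        · exact ⟨x, hx, hxk⟩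
      · rintro ⟨hw, ⟨q, hq, hqk⟩, _⟩
        exact ⟨⟨q, hq, hqk⟩, hw⟩
    have h2 : (Subtype.val ⁻¹' (bdAt M (π ⁻¹' {k}) w) :
        Set {F : Φ // ¬ ((M.side F).map π).IsDiag}).ncard = (bdAt M (π ⁻¹' {k}) w).ncard := by
      refine Set.ncard_preimage_of_injective_subset_range Subtype.val_injective ?_
      rintro F ⟨hw, ⟨q, hq, hqk⟩, q', hq', hqk'⟩
      refine ⟨⟨F, ?_⟩, rfl⟩
      rw [map_isDiag_iff]
      intro h3
      exact hqk' ((h3 q hq q' hq').symm.trans hqk)
    rw [h1, h2]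
    exact ncard_bd (h k w)
  fin := by
    intro w
    exact Set.Finite.preimage Subtype.val_injective.injOn (M.fin w)
  link := by
    intro w A hA F hF q hq hqA F' hF' q' hq'
    obtain ⟨x, hx, rfl⟩ := mem_map_iff.1 hq
    obtain ⟨y, hy, rfl⟩ := mem_map_iff.1 hq'
    refine M.link w (π ⁻¹' A) ?_ F.1 hF x hx hqA F'.1 hF' y hy
    intro G hG k hk k' hk' hkA
    by_cases hd : ((M.side G).map π).IsDiag
    · rw [map_isDiag_iff] at hd
      show π k' ∈ A
      rw [← hd k hk k' hk']
      exact hkA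
    · exact hA ⟨G, hd⟩ hG (π k) (mem_map_iff.2 ⟨k, hk, rfl⟩) (π k') (mem_map_iff.2 ⟨k', hk', rfl⟩)
        hkA

end Crest.Agent.R096.Msh_715
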