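import Crest.Agent.R096.Lm1_117
import Crest.Agent.R096.Mrg1_715

/-!
# R096 (row 96), LMesh, part 3: subcomplexes and merged meshes (helper117)
-/

set_option autoImplicit false
set_option linter.unusedSectionVars false

open Set

namespace Crest.Agent.R096.Lm_117

open Crest.Agent.R096.St_147 Crest.Agent.R096.Ac_117

variable {ι Φ W Q ι' Φ' : Type} {M : MeshC ι Φ W} [PartialOrder Q] {dim : Q → ℕ}

section sub

variable (L : Sk W Q dim) (p : Q → Prop) (hp : ∀ c d, c ≤ d → p d → p c) (hne : ∃ c, p c)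

open Classical in
/-- the cell of a point in the subcomplex -/
noncomputable def subEd (w : W) : {c : Q // p c} :=
  if h : p (L.ed w) then ⟨L.ed w, h⟩ else ⟨hne.choose, hne.choose_spec⟩

open Classical in
/-- the ends of a 1-cell in the subcomplex -/
noncomputable def subEn (e : {c : Q // p c}) (b : Bool) : {c : Q // p c} :=
  if h : dim e.1 = 1 then ⟨L.en e.1 b, hp _ _ (L.en_lt e.1 h b).le e.2⟩ else e

variable {L p hp hne}

lemma subEd_eq {w : W} (h : p (L.ed w)) : (subEd L p hne w).1 = L.ed w := by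
  unfold subEd; rw [dif_pos h]

lemma subEn_eq {e : {c : Q // p c}} (h : dim e.1 = 1) (b : Bool) :
    (subEn L p hp e b).1 = L.en e.1 b := by
  unfold subEn; rw [dif_pos h]

variable (L p hp hne)

/-- the 1-skeleton of a subcomplex -/
noncomputable def Sk.sub : Sk W {c : Q // p c} (fun c => dim c.1) where
  W1 := {w | w ∈ L.W1 ∧ p (L.ed w)}
  ed := subEd L p hne
  en := subEn L p hp
  t := L.t
  ed_dim w hw := by
    show dim (subEd L p hne w).1 = 1
    rw [subEd_eq hw.2]; exact L.ed_dim w hw.1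
  inf w hw := by
    refine (L.inf w hw.1).mono ?_
    rintro w' ⟨h1, h2⟩
    have h3 : p (L.ed w') := by rw [h2]; exact hw.2
    exact ⟨⟨h1, h3⟩, Subtype.ext (by rw [subEd_eq h3, subEd_eq hw.2, h2])⟩
  t_inj w hw w' hw' he ht := by
    have h1 := congrArg Subtype.val he
    rw [subEd_eq hw.2, subEd_eq hw'.2] at h1
    exact L.t_inj w hw.1 w' hw'.1 h1 ht
  en_dim e h b := by
    show dim (subEn L p hp e b).1 = 0
    rw [subEn_eq h]; exact L.en_dim e.1 h b
  en_lt e h b := by
    show (subEn L p hp e b).1 < e.1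
    rw [subEn_eq h]; exact L.en_lt e.1 h b
  en_all e h v hv := by
    rcases L.en_all e.1 h v.1 hv with h1 | h1
    · left; exact Subtype.ext (by rw [subEn_eq h, h1])
    · right; exact Subtype.ext (by rw [subEn_eq h, h1])
  en_ne e h h' := by
    have h1 := congrArg Subtype.val h'
    rw [subEn_eq h, subEn_eq h] at h1
    exact L.en_ne e.1 h h1
  dim_lt c d h := L.dim_lt c.1 d.1 h
  base c := by
    obtain ⟨v, h1, h2⟩ := L.base c.1
    exact ⟨⟨v, hp _ _ h1 c.2⟩, h1, h2⟩
  conn := by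
    classical
    intro c φ hφ v v' hv hv' h0 h0'
    let ψ : Q → ZMod 2 := fun x => if h : p x then φ ⟨x, h⟩ else 0
    have hψ : ∀ x : {c : Q // p c}, ψ x.1 = φ x := fun x => by
      show (if h : p x.1 then φ ⟨x.1, h⟩ else 0) = _
      rw [dif_pos x.2]
    have := L.conn c.1 ψ (by
      intro e he h1
      have hpe : p e := hp _ _ he c.2
      have h2 := hφ ⟨e, hpe⟩ he h1
      rw [← hψ, ← hψ, subEn_eq (e := ⟨e, hpe⟩) h1, subEn_eq (e := ⟨e, hpe⟩) h1] at h2
      exact h2) v.1 v'.1 hv hv' h0 h0'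
    rwa [hψ, hψ] at this

variable {L p hp hne}

lemma sub_On1 (e : {c : Q // p c}) : (L.sub p hp hne).On1 e = L.On1 e.1 := by
  ext w
  constructor
  · rintro ⟨h1, h2⟩
    refine ⟨h1.1, ?_⟩
    rw [← h2]; exact (subEd_eq h1.2).symm
  · rintro ⟨h1, h2⟩
    have h3 : p (L.ed w) := by rw [h2]; exact e.2
    exact ⟨⟨h1, h3⟩, Subtype.ext ((subEd_eq h3).trans h2)⟩

lemma sub_XL {Y : Finset W} {lam : Q → ZMod 2} {c : {c : Q // p c}} :
    (L.sub p hp hne).XL Y (fun v => lam v.1) c ↔ L.XL Y lam c.1 := by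
  constructor
  · intro h e he h1
    have hpe : p e := hp _ _ he c.2
    have h2 := h ⟨e, hpe⟩ he h1
    rw [sub_On1] at h2
    have e1 : ∀ b, ((L.sub p hp hne).en ⟨e, hpe⟩ b).1 = L.en e b := fun b =>
      subEn_eq (hp := hp) (e := ⟨e, hpe⟩) h1 b
    have h3 : lam ((L.sub p hp hne).en ⟨e, hpe⟩ false).1 +
        lam ((L.sub p hp hne).en ⟨e, hpe⟩ true).1 = nW Y (L.On1 e) := h2
    rw [e1, e1] at h3
    exact h3
  · intro h e he h1
    have e1 : ∀ b, ((L.sub p hp hne).en e b).1 = L.en e.1 b := fun b =>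
      subEn_eq (hp := hp) h1 b
    show lam ((L.sub p hp hne).en e false).1 + lam ((L.sub p hp hne).en e true).1 = _
    rw [sub_On1, e1, e1]
    exact h e.1 he h1

lemma sub_ext {Y : Finset W} {lam : Q → ZMod 2} {w : W} (hw : w ∈ L.W1) (hpw : p (L.ed w)) :
    (L.sub p hp hne).ext Y (fun v => lam v.1) w = L.ext Y lam w := by
  have h1 : ((L.sub p hp hne).ed w).1 = L.ed w := subEd_eq hpw
  have h2 : ((L.sub p hp hne).en ((L.sub p hp hne).ed w) false).1 = L.en (L.ed w) false := by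
    rw [← h1]
    exact subEn_eq (hp := hp) (by rw [h1]; exact L.ed_dim w hw) false
  have h3 : (L.sub p hp hne).pre Y w = L.pre Y w := by
    apply nW_congr
    intro x _
    constructor
    · rintro ⟨a1, a2, a3⟩
      refine ⟨a1.1, ?_, a3⟩
      have := congrArg Subtype.val a2
      rw [h1] at this
      rw [← this]
      exact (subEd_eq a1.2).symm
    · rintro ⟨a1, a2, a3⟩
      have hpx : p (L.ed x) := by rw [a2]; exact hpw
      refine ⟨⟨a1, hpx⟩, Subtype.ext ?_, a3⟩
      rw [h1, ← a2]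
      exact subEd_eq hpx
  show lam ((L.sub p hp hne).en ((L.sub p hp hne).ed w) false).1 + (L.sub p hp hne).pre Y w = _
  rw [h2, h3]
  rfl

end sub

/-- **restriction of a labelled mesh to a subcomplex** -/
noncomputable def LM.sub (L : LM M Q dim) (p : Q → Prop) (hp : ∀ c d, c ≤ d → p d → p c)
    (hne : ∃ c, p c) (M' : MeshC ι' Φ' W) (φ : Φ' → Φ) (hφ : Function.Injective φ)
    (hOn : ∀ F, M'.On F = M.On (φ F)) (hpos : ∀ F, M'.pos F = M.pos (φ F))
    (hcf : ∀ F, p (L.cf (φ F))) (hall : ∀ F, p (L.cf F) → ∃ F', φ F' = F) :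
    LM M' {c : Q // p c} (fun c => dim c.1) where
  toSk := L.toSk.sub p hp hne
  cf F := ⟨L.cf (φ F), hcf F⟩
  cf_dim F := L.cf_dim _
  cf_inj F F' h := hφ (L.cf_inj _ _ (congrArg Subtype.val h))
  on_iff := by
    intro F w
    rw [hOn, L.on_iff]
    constructor
    · rintro ⟨h1, h2⟩
      have hpw : p (L.ed w) := hp _ _ h2 (hcf F)
      refine ⟨⟨h1, hpw⟩, ?_⟩
      show (subEd L.toSk p hne w).1 ≤ L.cf (φ F)
      rw [subEd_eq hpw]; exact h2
    · rintro ⟨h1, h2⟩
      refine ⟨h1.1, ?_⟩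
      have h3 : (subEd L.toSk p hne w).1 ≤ L.cf (φ F) := h2
      rw [subEd_eq h1.2] at h3
      exact h3
  vpos F v := L.vpos (φ F) v.1
  face := by
    intro F Y hY
    rw [hOn] at hY
    obtain ⟨h1, h2⟩ := L.face (φ F) Y hY
    have hc : ∀ t, cntP M' Y F t = cntP M Y (φ F) t := by
      intro t
      classical
      unfold cntP
      rw [hOn, hpos]
    refine ⟨?_, ?_⟩
    · have h3 := (sub_XL (L := L.toSk) (p := p) (hp := hp) (hne := hne) (Y := Y)
        (lam := fun v => cntP M Y (φ F) (L.vpos (φ F) v)) (c := ⟨L.cf (φ F), hcf F⟩)).2 h1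
      intro e he hd
      show cntP M' Y F _ + cntP M' Y F _ = _
      rw [hc, hc]
      exact h3 e he hd
    · intro w hw hwY
      rw [hOn] at hw
      have hw' := (L.on_iff _ w).1 hw
      have h3 := h2 w hw hwY
      rw [hc, hpos, ← h3, ← sub_ext (L := L.toSk) (p := p) (hp := hp) (hne := hne) hw'.1
        (hp _ _ hw'.2 (hcf F))]
      show cntP M' Y F _ + _ = cntP M Y (φ F) _ + _
      rw [hc]
  cell := by
    intro c Y hY
    obtain ⟨lam, h1⟩ := L.cell c.1 Y (fun F hF => by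
      obtain ⟨F', rfl⟩ := hall F (hp _ _ hF c.2)
      rw [← hOn]
      exact hY F' hF)
    exact ⟨_, sub_XL.2 h1⟩

/-! ### merged meshes -/

open Crest.Agent.R096.Msh_715

/-- the ordinary cells: not merged with another one -/
def Ordi (π : ι → ι') (q : ι) : Prop := ∀ q', π q' = π q → q' = q

lemma ordi_side {π : ι → ι'} {h : ∀ k w, ConnAt M (π ⁻¹' {k}) w} {q : ι} (hq : Ordi π q)
    (F : {F : Φ // ¬ ((M.side F).map π).IsDiag}) :
    π q ∈ (mergeC M π h).side F ↔ q ∈ M.side F.1 := by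
  show π q ∈ (M.side F.1).map π ↔ _
  rw [mem_map_iff]
  constructor
  · rintro ⟨q', h1, h2⟩
    rw [← hq q' h2]; exact h1
  · intro h1
    exact ⟨q, h1, rfl⟩

lemma ordi_face {π : ι → ι'} {q : ι} (hq : Ordi π q) {F : Φ} (hF : q ∈ M.side F) :
    ¬ ((M.side F).map π).IsDiag := by
  rw [map_isDiag_iff]
  intro h
  apply M.side_nd F
  revert hF h
  induction M.side F using Sym2.ind with
  | _ x y =>
    intro hF h
    rw [Sym2.mk_isDiag_iff]
    have h1 := h x (Sym2.mem_mk_left _ _) y (Sym2.mem_mk_right _ _)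
    rcases Sym2.mem_iff.1 hF with rfl | rfl
    · exact (hq y h1.symm).symm
    · exact hq x h1

/-- **the boundary of an ordinary cell is the same sphere** -/
def sphM_merge {π : ι → ι'} {h : ∀ k w, ConnAt M (π ⁻¹' {k}) w} {q : ι} (hq : Ordi π q)
    (S : SphM M q) : SphM (mergeC M π h) (π q) where
  opp := S.opp
  sph := by
    classical
    intro y hy
    obtain ⟨κ, hκ⟩ := S.sph y (fun F hF => by
      exact hy ⟨F, ordi_face hq hF⟩ ((ordi_side hq _).2 hF))
    refine ⟨fun F => κ F.1, ?_⟩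
    intro F F' w hF hF' hne hw hw'
    exact hκ F.1 F'.1 w ((ordi_side hq F).1 hF) ((ordi_side hq F').1 hF')
      (fun h' => hne (Subtype.ext h')) hw hw'

/-- the cells outside the merged cells -/
def Outr (_ : LM M Q dim) (ci : ι → Q) (π : ι → ι') (c : Q) : Prop :=
  ∃ q, Ordi π q ∧ c ≤ ci q

/-- **the labelled mesh of a merged mesh**: the cells outside the merged cells.
`hadj` : two different merged cells have no common face -/
noncomputable def LM.merge (L : LM M Q dim) (ci : ι → Q)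
    (hci : ∀ F q, q ∈ M.side F ↔ L.cf F ≤ ci q) (π : ι → ι')
    (h : ∀ k w, ConnAt M (π ⁻¹' {k}) w) (hne : ∃ q, Ordi π q)
    (hadj : ∀ F, ¬ ((M.side F).map π).IsDiag → ∃ q ∈ M.side F, Ordi π q) :
    LM (mergeC M π h) {c : Q // Outr L ci π c} (fun c => dim c.1) :=
  L.sub (Outr L ci π) (fun c d hcd hd => by
      obtain ⟨q, h1, h2⟩ := hd
      exact ⟨q, h1, hcd.trans h2⟩)
    (by obtain ⟨q, hq⟩ := hne; exact ⟨ci q, q, hq, le_rfl⟩)
    (mergeC M π h) Subtype.val Subtype.val_injective (fun _ => rfl) (fun _ => rfl)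
    (fun F => by
      obtain ⟨q, h1, h2⟩ := hadj F.1 F.2
      exact ⟨q, h2, (hci _ _).1 h1⟩)
    (fun F hF => by
      obtain ⟨q, h1, h2⟩ := hF
      exact ⟨⟨F, ordi_face h1 ((hci _ _).2 h2)⟩, rfl⟩)

end Crest.Agent.R096.Lm_117
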