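import Crest.Agent.R096.Ecm2_446
import Crest.Agent.R096.Lm2_117
import Crest.Agent.R096.Lm3_117

/-!
# R096 (row 96), BASE-DISC, part 3 (helper446): `E1`, `F1`, heights and labels on the boundary of an
exact core, from the grid and the words

`CG T i₀ U` : the closed cells of dimension `≤ 2` of the tile `i₀` are the cells of the grid of the
heights `U x a` (`= M * s_a (th x)`); `CW` : every sheet `j` (direction `fam j`, height `τ j`) meets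
every 1-cell of the tile in at most one point, does not meet the 1-cells on which `U . (fam j)` has
the same value at both ends, and the vertices are on the side given by the heights.
-/

set_option autoImplicit false
set_option linter.unusedSectionVars false

open Set Relation

namespace Crest.Agent.R096.Ecm_446

open Crest.Agent.R096.Msh_715
open Crest.Agent.R096.St_147 Crest.Agent.R096.Seq_213 Crest.Agent.R096.Seq_213.GSt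
  Crest.Agent.R096.Lm_117 Crest.Agent.R096.Ac_117 Crest.Agent.R096.Gl_422
open Crest.Agent.R096.Lab_184 Crest.Agent.R096.Agl5_543
open Crest.Agent.R096.Cm_117 (cell_sub cell_cc)
open Crest.Agent.R096.On_441 (Lf xlf)

section floor

variable {r R : ℝ}

theorem flo_fix (h0 : 0 ≤ r) (h : ¬ ⌊r⌋₊ < ⌈r⌉₊) : r = ⌊r⌋₊ ∧ ⌈r⌉₊ = ⌊r⌋₊ := by
  have h1 := Nat.floor_le h0
  have h2 := Nat.le_ceil r
  have h3 := Nat.floor_le_ceil r
  have h4 : ⌈r⌉₊ = ⌊r⌋₊ := by omega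
  rw [h4] at h2
  exact ⟨le_antisymm h2 h1, h4⟩

theorem flo_nat {n : ℕ} (h : r = n) : ⌊r⌋₊ = n ∧ ⌈r⌉₊ = n := by
  subst h; simp

theorem flo_sub (h1 : (⌊R⌋₊ : ℝ) ≤ r) (h2 : r ≤ ⌈R⌉₊) (hf : ⌊r⌋₊ < ⌈r⌉₊) :
    ⌊r⌋₊ = ⌊R⌋₊ ∧ ⌈r⌉₊ = ⌈R⌉₊ := by
  have h3 := Nat.ceil_le_floor_add_one R
  have h0 : 0 ≤ r := (Nat.cast_nonneg _).trans h1
  have e1 : ⌊R⌋₊ ≤ ⌊r⌋₊ := Nat.le_floor h1
  have e2 : ⌈r⌉₊ ≤ ⌈R⌉₊ := Nat.ceil_le.2 h2
  omega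

end floor

variable {E : Type} [NormedAddCommGroup E] [NormedSpace ℝ E] [FiniteDimensional ℝ E]
variable {Om : Set E} {ι : Type} {C J : Type}

/-- **grid** of the boundary of the tile `i₀` -/
structure CG (T : Tiling Om ι) (i₀ : ι) (U : E → C → ℝ) : Prop where
  nn : ∀ x ∈ P (T.H i₀), ∀ a, 0 ≤ U x a
  cell : ∀ x ∈ P (T.H i₀), T.dim x ≤ 2 →
    T.cc x = {y | y ∈ P (T.H i₀) ∧ ∀ a, (⌊U x a⌋₊ : ℝ) ≤ U y a ∧ U y a ≤ ⌈U x a⌉₊}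
  dim : ∀ x ∈ P (T.H i₀), T.dim x ≤ 2 → T.dim x = {a | ⌊U x a⌋₊ < ⌈U x a⌉₊}.ncard
  fin : ∀ x ∈ P (T.H i₀), T.dim x ≤ 2 → {a | ⌊U x a⌋₊ < ⌈U x a⌉₊}.Finite
  lo : ∀ x ∈ P (T.H i₀), T.dim x ≤ 2 → ∃ y ∈ P (T.H i₀), ∀ a, U y a = ⌊U x a⌋₊
  hi : ∀ x ∈ P (T.H i₀), T.dim x ≤ 2 → ∃ y ∈ P (T.H i₀), ∀ a, U y a = ⌈U x a⌉₊

/-- **words** on the boundary of the tile `i₀`: `X j` = level set, `V j` = its inside (nearer to the
hole) -/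
structure CW (T : Tiling Om ι) (i₀ : ι) (U : E → C → ℝ) (fam : J → C) (τ : J → ℝ)
    (X V : J → Set E) : Prop where
  side : ∀ v ∈ P (T.H i₀), T.dim v = 0 → ∀ j, v ∈ V j ↔ U v (fam j) < τ j
  one : ∀ x ∈ P (T.H i₀), T.dim x = 1 → ∀ j, ∀ y ∈ T.cc x, ∀ y' ∈ T.cc x, y ∈ X j → y' ∈ X j →
    y = y'
  non : ∀ x ∈ P (T.H i₀), T.dim x = 1 → ∀ j a b, T.cc x = segment ℝ a b →
    U a (fam j) = U b (fam j) → ∀ y ∈ T.cc x, y ∉ X j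

/-- the cells of dimension `≤ 2` of the tile `i₀` -/
def Dc (T : Tiling Om ι) (i₀ : ι) : Set T.Cell := {q | q.set ⊆ P (T.H i₀) ∧ q.dim ≤ 2}

section basics

variable {T : Tiling Om ι} {i₀ : ι}

theorem dc_dn : ∀ q ∈ Dc T i₀, ∀ p < q, p ∈ Dc T i₀ := by
  intro q hq p hp
  exact ⟨(Tiling.Cell.le_def.1 hp.le).trans hq.1, (Cm_117.dim_lt_cell hp).le.trans hq.2⟩

theorem dc_pt {q : T.Cell} (hq : q ∈ Dc T i₀) : q.pt ∈ P (T.H i₀) ∧ T.dim q.pt ≤ 2 :=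
  ⟨hq.1 (by rw [q.set_eq]; exact T.self_mem_cc _), hq.2⟩

variable {U : E → C → ℝ} (G : CG T i₀ U)
include G

theorem CG.sub {x y : E} (hx : x ∈ P (T.H i₀)) (hd : T.dim x ≤ 2) (hy : y ∈ T.cc x) :
    y ∈ P (T.H i₀) ∧ T.dim y ≤ 2 ∧ ∀ a, (⌊U x a⌋₊ : ℝ) ≤ U y a ∧ U y a ≤ ⌈U x a⌉₊ := by
  have h1 := hy
  rw [G.cell x hx hd] at h1
  exact ⟨h1.1, (T.dim_le hy).trans hd, h1.2⟩

/-- heights of the vertices are integers -/
theorem CG.vtx {v : E} (hv : v ∈ P (T.H i₀)) (h0 : T.dim v = 0) (a : C) : U v a = ⌊U v a⌋₊ := by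
  have h1 := G.dim v hv (by omega)
  have h2 := G.fin v hv (by omega)
  rw [h0] at h1
  have h3 := (Set.ncard_eq_zero h2).1 h1.symm
  refine (flo_fix (G.nn v hv a) fun h => ?_).1
  have : a ∈ {a | ⌊U v a⌋₊ < ⌈U v a⌉₊} := h
  rw [h3] at this
  exact this

/-- points with integral heights are vertices -/
theorem CG.dim0 {v : E} (hv : v ∈ P (T.H i₀)) (hd : T.dim v ≤ 2) (h : ∀ a, ∃ n : ℕ, U v a = n) :
    T.dim v = 0 := by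
  rw [G.dim v hv hd, Set.ncard_eq_zero (G.fin v hv hd)]
  ext a
  simp only [mem_ofPred_eq, mem_empty_iff_false, iff_false, not_lt]
  obtain ⟨n, hn⟩ := h a
  obtain ⟨h1, h2⟩ := flo_nat hn
  omega

theorem CG.exists_lo {x : E} (hx : x ∈ P (T.H i₀)) (hd : T.dim x ≤ 2) :
    ∃ y ∈ T.cc x, T.dim y = 0 ∧ ∀ a, U y a = ⌊U x a⌋₊ := by
  obtain ⟨y, hy, h1⟩ := G.lo x hx hd
  have h2 : y ∈ T.cc x := by
    rw [G.cell x hx hd]
    refine ⟨hy, fun a => ?_⟩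
    rw [h1 a]
    exact ⟨le_rfl, by exact_mod_cast Nat.floor_le_ceil _⟩
  exact ⟨y, h2, G.dim0 hy ((T.dim_le h2).trans hd) fun a => ⟨_, h1 a⟩, h1⟩

theorem CG.exists_hi {x : E} (hx : x ∈ P (T.H i₀)) (hd : T.dim x ≤ 2) :
    ∃ y ∈ T.cc x, T.dim y = 0 ∧ ∀ a, U y a = ⌈U x a⌉₊ := by
  obtain ⟨y, hy, h1⟩ := G.hi x hx hd
  have h2 : y ∈ T.cc x := by
    rw [G.cell x hx hd]
    refine ⟨hy, fun a => ?_⟩
    rw [h1 a]
    exact ⟨by exact_mod_cast Nat.floor_le_ceil _, le_rfl⟩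
  exact ⟨y, h2, G.dim0 hy ((T.dim_le h2).trans hd) fun a => ⟨_, h1 a⟩, h1⟩

variable {fam : J → C} {τ : J → ℝ} {X V : J → Set E} (Wd : CW T i₀ U fam τ X V)
include Wd

/-- the direction of a crossed 1-cell -/
theorem CW.free {x : E} (hx : x ∈ P (T.H i₀)) (h1 : T.dim x = 1) {j : J} (hj : x ∈ X j) :
    {a | ⌊U x a⌋₊ < ⌈U x a⌉₊} = {fam j} := by
  have hd : T.dim x ≤ 2 := by omega
  obtain ⟨a, b, -, e, -, -, -, ha, hb⟩ := T.edge_eq (T.sub i₀ hx) h1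
  have h2 : fam j ∈ {a | ⌊U x a⌋₊ < ⌈U x a⌉₊} := by
    by_contra hno
    have h3 := (flo_fix (G.nn x hx (fam j)) hno).2
    have k1 := (G.sub hx hd ha).2.2 (fam j)
    have k2 := (G.sub hx hd hb).2.2 (fam j)
    rw [h3] at k1 k2
    exact Wd.non x hx h1 j a b e ((le_antisymm k1.2 k1.1).trans (le_antisymm k2.1 k2.2)) x
      (T.self_mem_cc x) hj
  have h3 := G.dim x hx hd
  rw [h1] at h3
  obtain ⟨c, hc⟩ := Set.ncard_eq_one.1 h3.symm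
  rw [hc] at h2 ⊢
  rw [mem_singleton_iff.1 h2]

/-- **at most two points of a sheet on a 2-cell** -/
theorem CW.two {x : E} (hx : x ∈ P (T.H i₀)) (h2 : T.dim x = 2) {j : J} {w₁ w₂ w₃ : E}
    (m₁ : w₁ ∈ T.cc x) (m₂ : w₂ ∈ T.cc x) (m₃ : w₃ ∈ T.cc x) (d₁ : T.dim w₁ = 1)
    (d₂ : T.dim w₂ = 1) (d₃ : T.dim w₃ = 1) (j₁ : w₁ ∈ X j) (j₂ : w₂ ∈ X j) (j₃ : w₃ ∈ X j) :
    w₁ = w₂ ∨ w₁ = w₃ ∨ w₂ = w₃ := by
  have hd : T.dim x ≤ 2 := by omega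
  have h3 := G.dim x hx hd
  rw [h2] at h3
  obtain ⟨a, b, hab, hfr⟩ := Set.ncard_eq_two.1 h3.symm
  -- a point of the sheet on a 1-cell of the face
  have key : ∀ w ∈ T.cc x, T.dim w = 1 → w ∈ X j →
      fam j ∈ {a | ⌊U x a⌋₊ < ⌈U x a⌉₊} ∧ ∀ c, (c = fam j → ⌊U w c⌋₊ = ⌊U x c⌋₊ ∧
        ⌈U w c⌉₊ = ⌈U x c⌉₊) ∧ (c ≠ fam j → U w c = ⌊U w c⌋₊ ∧ (⌊U w c⌋₊ = ⌊U x c⌋₊ ∨
        ⌊U w c⌋₊ = ⌈U x c⌉₊)) := by
    intro w hw hw1 hwj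
    obtain ⟨a1, a2, a3⟩ := G.sub hx hd hw
    have hf := CW.free G Wd a1 hw1 hwj
    have hff : ⌊U w (fam j)⌋₊ < ⌈U w (fam j)⌉₊ := by
      have : fam j ∈ {a | ⌊U w a⌋₊ < ⌈U w a⌉₊} := by rw [hf]; rfl
      exact this
    have e1 := flo_sub (a3 (fam j)).1 (a3 (fam j)).2 hff
    refine ⟨?_, fun c => ⟨?_, ?_⟩⟩
    · show ⌊U x (fam j)⌋₊ < ⌈U x (fam j)⌉₊
      rw [← e1.1, ← e1.2]; exact hff
    · rintro rfl; exact e1
    · intro hc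
      have hn : ¬ ⌊U w c⌋₊ < ⌈U w c⌉₊ := by
        intro h'
        have : c ∈ {a | ⌊U w a⌋₊ < ⌈U w a⌉₊} := h'
        rw [hf] at this
        exact hc this
      obtain ⟨f1, f2⟩ := flo_fix (G.nn w a1 c) hn
      refine ⟨f1, ?_⟩
      have g1 := (a3 c).1
      have g2 := (a3 c).2
      rw [f1] at g1 g2
      have g1' : ⌊U x c⌋₊ ≤ ⌊U w c⌋₊ := by exact_mod_cast g1
      have g2' : ⌊U w c⌋₊ ≤ ⌈U x c⌉₊ := by exact_mod_cast g2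
      have g3 := Nat.ceil_le_floor_add_one (U x c)
      omega
  -- the second direction
  have hk : ∃ b', b' ≠ fam j ∧ {a | ⌊U x a⌋₊ < ⌈U x a⌉₊} = {fam j, b'} := by
    have h4 := (key w₁ m₁ d₁ j₁).1
    rw [hfr] at h4 ⊢
    rcases h4 with h4 | h4
    · exact ⟨b, by rw [h4]; exact hab.symm, by rw [h4]⟩
    · refine ⟨a, ?_, ?_⟩
      · rw [mem_singleton_iff.1 h4]; exact hab
      · rw [mem_singleton_iff.1 h4]; exact Set.pair_comm _ _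
  obtain ⟨b', hb', hfr'⟩ := hk
  -- equal second coordinates: equal points
  have eqv : ∀ w ∈ T.cc x, ∀ w' ∈ T.cc x, T.dim w = 1 → T.dim w' = 1 → w ∈ X j → w' ∈ X j →
      ⌊U w b'⌋₊ = ⌊U w' b'⌋₊ → w = w' := by
    intro w hw w' hw' e1 e1' hj hj' e
    have k := (key w hw e1 hj).2
    have k' := (key w' hw' e1' hj').2
    obtain ⟨a1, a2, -⟩ := G.sub hx hd hw
    have a1' := (G.sub hx hd hw').1
    have hall : ∀ c, (⌊U w c⌋₊ : ℝ) ≤ U w' c ∧ U w' c ≤ ⌈U w c⌉₊ := by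
      intro c
      by_cases hc : c = fam j
      · subst hc
        rw [((k _).1 rfl).1, ((k _).1 rfl).2, ← ((k' _).1 rfl).1, ← ((k' _).1 rfl).2]
        exact ⟨Nat.floor_le (G.nn w' a1' _), Nat.le_ceil _⟩
      · obtain ⟨f1, f2⟩ := (k c).2 hc
        obtain ⟨f1', f2'⟩ := (k' c).2 hc
        have f3 : ⌊U w c⌋₊ = ⌊U w' c⌋₊ := by
          by_cases hcb : c = b'
          · rw [hcb]; exact e
          · have hnf : ¬ ⌊U x c⌋₊ < ⌈U x c⌉₊ := by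
              intro h'
              have : c ∈ {a | ⌊U x a⌋₊ < ⌈U x a⌉₊} := h'
              rw [hfr'] at this
              rcases this with h5 | h5
              · exact hc h5
              · exact hcb h5
            have h6 := Nat.floor_le_ceil (U x c)
            omega
        have f4 : ⌈U w c⌉₊ = ⌊U w c⌋₊ := (flo_nat f1).2
        rw [f4, f3, ← f1']
        exact ⟨le_rfl, le_rfl⟩
    have hm : w' ∈ T.cc w := by
      rw [G.cell w a1 (by omega)]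
      exact ⟨a1', hall⟩
    exact Wd.one w a1 e1 j w (T.self_mem_cc w) w' hm hj hj'
  -- pigeonhole
  have v1 := ((key w₁ m₁ d₁ j₁).2 b').2 hb' |>.2
  have v2 := ((key w₂ m₂ d₂ j₂).2 b').2 hb' |>.2
  have v3 := ((key w₃ m₃ d₃ j₃).2 b').2 hb' |>.2
  have : ⌊U w₁ b'⌋₊ = ⌊U w₂ b'⌋₊ ∨ ⌊U w₁ b'⌋₊ = ⌊U w₃ b'⌋₊ ∨ ⌊U w₂ b'⌋₊ = ⌊U w₃ b'⌋₊ := by
    omega
  rcases this with e | e | e
  · exact Or.inl (eqv _ m₁ _ m₂ d₁ d₂ j₁ j₂ e)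
  · exact Or.inr (Or.inl (eqv _ m₁ _ m₃ d₁ d₃ j₁ j₃ e))
  · exact Or.inr (Or.inr (eqv _ m₂ _ m₃ d₂ d₃ j₂ j₃ e))

end basics

/-! ### labelled skeletons made of cells of the tiling -/

/-- `L` is a skeleton made of cells of `T` (the tiling itself, subcomplexes, merged meshes) -/
structure OnT (T : Tiling Om ι) {Q : Type} [PartialOrder Q] {dim : Q → ℕ} (L : Sk E Q dim)
    (κ : Q → T.Cell) : Prop where
  w1 : ∀ w ∈ L.W1, w ∈ Om ∧ T.dim w = 1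
  mono : ∀ p q, p ≤ q → κ p ≤ κ q
  dim : ∀ q, (κ q).dim = dim q
  ed : ∀ w ∈ L.W1, (κ (L.ed w)).set = T.cc w
  down : ∀ q c, c ≤ κ q → ∃ p ≤ q, κ p = c

theorem onT_skT (T : Tiling Om ι) [Nonempty T.Cell] : OnT T (skT T) (fun c => c) where
  w1 := fun _ h => h
  mono := fun _ _ h => h
  dim := fun _ => rfl
  ed := fun _ h => edC_set h.1
  down := fun _ c h => ⟨c, h, rfl⟩

theorem onT_sub {T : Tiling Om ι} {Q : Type} [PartialOrder Q] {dim : Q → ℕ} {L : Sk E Q dim}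
    {κ : Q → T.Cell} (h : OnT T L κ) (p : Q → Prop) (hp : ∀ c d, c ≤ d → p d → p c)
    (hne : ∃ c, p c) : OnT T (L.sub p hp hne) (fun c => κ c.1) where
  w1 := fun w hw => h.w1 w hw.1
  mono := fun _ _ hle => h.mono _ _ hle
  dim := fun q => h.dim q.1
  ed := fun w hw => by
    show (κ (subEd L p hne w).1).set = T.cc w
    rw [subEd_eq hw.2]
    exact h.ed w hw.1
  down := fun q c hc => by
    obtain ⟨r, h1, h2⟩ := h.down q.1 c hc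
    exact ⟨⟨r, hp _ _ h1 q.2⟩, h1, h2⟩

section st

variable {ι' Φ Q : Type} [PartialOrder Q] {dim : Q → ℕ} {M : MeshC ι' Φ E} {L : LM M Q dim}
variable {T : Tiling Om ι} {i₀ : ι} {κ : Q → T.Cell} (hT : OnT T L.toSk κ)
variable {fam : J → C} {s : GSt M fam} {U : E → C → ℝ} {τ : J → ℝ} {X V : J → Set E}

/-- the cells of the skeleton in the boundary of the tile `i₀` -/
def Dk (i₀ : ι) (κ : Q → T.Cell) : Set Q := {q | κ q ∈ Dc T i₀}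

include hT

theorem dk_dn : ∀ q ∈ Dk i₀ κ, ∀ p < q, p ∈ Dk i₀ κ := by
  intro q hq p hp
  have h1 := hT.mono p q hp.le
  refine ⟨(Tiling.Cell.le_def.1 h1).trans hq.1, ?_⟩
  have h2 : (κ q).dim ≤ 2 := hq.2
  rw [hT.dim] at h2 ⊢
  exact (L.toSk.dim_lt p q hp).le.trans h2

theorem dk_dim : ∀ q ∈ Dk i₀ κ, dim q ≤ 2 := fun q hq => by rw [← hT.dim q]; exact hq.2

theorem dk_in {q : Q} {w : E} (hw : w ∈ L.toSk.In q) : w ∈ T.cc (κ q).pt := by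
  have h1 := Tiling.Cell.le_def.1 (hT.mono _ _ hw.2)
  rw [← (κ q).set_eq]
  refine h1 ?_
  rw [hT.ed w hw.1]
  exact T.self_mem_cc w

theorem E1_core (Wd : CW T i₀ U fam τ X V)
    (hX : ∀ w ∈ s.P, w ∈ P (T.H i₀) → w ∈ X (s.lab w)) : E1 L s (Dk i₀ κ) := by
  intro e he _ w w' hw hw' hwe hwe' hl
  have h1 : T.cc w = T.cc w' := by rw [← hT.ed w hwe.1, ← hT.ed w' hwe'.1, hwe.2, hwe'.2]
  have h2 : w ∈ P (T.H i₀) := he.1 (by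
    rw [← hwe.2, hT.ed w hwe.1]; exact T.self_mem_cc w)
  have h3 : w' ∈ P (T.H i₀) := he.1 (by
    rw [← hwe'.2, hT.ed w' hwe'.1]; exact T.self_mem_cc w')
  exact Wd.one w h2 (hT.w1 w hwe.1).2 (s.lab w) w (T.self_mem_cc w) w'
    (by rw [h1]; exact T.self_mem_cc w') (hX w hw h2) (by rw [hl]; exact hX w' hw' h3)

theorem F1_core (G : CG T i₀ U) (Wd : CW T i₀ U fam τ X V)
    (hX : ∀ w ∈ s.P, w ∈ P (T.H i₀) → w ∈ X (s.lab w)) : F1 L s (Dk i₀ κ) := by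
  intro q hq h2 w₁ w₂ w₃ a₁ a₂ a₃ i₁ i₂ i₃ l₂ l₃
  have hp := dc_pt hq
  have hd : T.dim (κ q).pt ≤ 2 := hp.2
  have k₁ := (G.sub hp.1 hd (dk_in hT i₁)).1
  have k₂ := (G.sub hp.1 hd (dk_in hT i₂)).1
  have k₃ := (G.sub hp.1 hd (dk_in hT i₃)).1
  exact CW.two G Wd hp.1 ((hT.dim q).trans h2) (dk_in hT i₁) (dk_in hT i₂) (dk_in hT i₃)
    (hT.w1 _ i₁.1).2 (hT.w1 _ i₂.1).2 (hT.w1 _ i₃.1).2 (hX w₁ a₁ k₁)
    (by rw [l₂]; exact hX w₂ a₂ k₂) (by rw [l₃]; exact hX w₃ a₃ k₃)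

omit hT in
/-- height of a vertex -/
noncomputable def uu (U : E → C → ℝ) (κ : Q → T.Cell) (v : Q) (a : C) : ℕ := ⌊U (κ v).pt a⌋₊

omit hT in
/-- smallest height of a cell -/
noncomputable def lo (U : E → C → ℝ) (κ : Q → T.Cell) (v : Q) (a : C) : ℕ := ⌊U (κ v).pt a⌋₊

omit hT in
/-- largest height of a cell -/
noncomputable def hi (U : E → C → ℝ) (κ : Q → T.Cell) (v : Q) (a : C) : ℕ := ⌈U (κ v).pt a⌉₊

theorem uu_eq (G : CG T i₀ U) {v : Q} (hv : v ∈ Dk i₀ κ) (h0 : dim v = 0) (a : C) :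
    U (κ v).pt a = uu U κ v a :=
  G.vtx (dc_pt hv).1 ((hT.dim v).trans h0) a

theorem hV_core (G : CG T i₀ U) (Wd : CW T i₀ U fam τ X V) {lam₀ : J → Q → ZMod 2}
    (hl : ∀ v ∈ Dk i₀ κ, dim v = 0 → ∀ j, lam₀ j v = 1 ↔ (κ v).pt ∈ V j) :
    ∀ v ∈ Dk i₀ κ, dim v = 0 → ∀ j, lam₀ j v = 0 ↔ τ j ≤ uu U κ v (fam j) := by
  intro v hv h0 j
  have hd : T.dim (κ v).pt = 0 := (hT.dim v).trans h0
  have s2 := Wd.side _ (dc_pt hv).1 hd j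
  have h1 : lam₀ j v = 0 ↔ ¬ lam₀ j v = 1 := by
    have e : ∀ a : ZMod 2, a = 0 ↔ ¬ a = 1 := by decide
    exact e _
  rw [h1, hl v hv h0 j, s2, ← uu_eq hT G hv h0, not_lt]

theorem bd_core (G : CG T i₀ U) : ∀ q ∈ Dk i₀ κ, ∀ v ≤ q, dim v = 0 → ∀ a,
    lo U κ q a ≤ uu U κ v a ∧ uu U κ v a ≤ hi U κ q a := by
  intro q hq v hv h0 a
  have hvD : v ∈ Dk i₀ κ := by
    rcases hv.eq_or_lt with h | h
    · rw [h]; exact hq
    · exact dk_dn hT q hq v h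
  have h1 : (κ v).pt ∈ T.cc (κ q).pt := by
    rw [← (κ q).set_eq]
    refine Tiling.Cell.le_def.1 (hT.mono _ _ hv) ?_
    rw [(κ v).set_eq]; exact T.self_mem_cc _
  obtain ⟨-, -, h2⟩ := G.sub (dc_pt hq).1 (dc_pt hq).2 h1
  have h3 := h2 a
  rw [uu_eq hT G hvD h0] at h3
  exact ⟨by exact_mod_cast h3.1, by exact_mod_cast h3.2⟩

omit hT in
theorem pt_vertex {v : T.Cell} {y : E} (h0 : T.dim y = 0) (e : v.set = T.cc y) :
    v.pt = y := by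
  have h1 : v.pt ∈ v.set := by rw [v.set_eq]; exact T.self_mem_cc _
  rw [e, T.cc_eq_singleton (T.dim_eq_zero_iff.1 h0)] at h1
  exact h1

theorem ex_vertex {q : Q} {y : E} (hy : y ∈ T.cc (κ q).pt)
    (h0 : T.dim y = 0) : ∃ v ≤ q, dim v = 0 ∧ (κ v).pt = y := by
  have hO : y ∈ Om := T.cc_sub_Om (κ q).pt_mem hy
  obtain ⟨v, h1, h2⟩ := hT.down q (T.cl hO) (by
    rw [Tiling.Cell.le_def, T.cl_set, (κ q).set_eq]
    exact T.cc_sub_of_mem hy)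
  have h4 : (κ v).pt = y := pt_vertex h0 (by rw [h2, T.cl_set])
  refine ⟨v, h1, ?_, h4⟩
  rw [← hT.dim v]
  show T.dim (κ v).pt = 0
  rw [h4, h0]

theorem lo_core (G : CG T i₀ U) : ∀ q ∈ Dk i₀ κ, ∀ a, ∃ v ≤ q, dim v = 0 ∧
    uu U κ v a = lo U κ q a := by
  intro q hq a
  obtain ⟨y, hy, h0, h1⟩ := G.exists_lo (dc_pt hq).1 (dc_pt hq).2
  obtain ⟨v, h2, h4, h5⟩ := ex_vertex hT hy h0
  refine ⟨v, h2, h4, ?_⟩
  unfold uu lo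
  rw [h5, h1 a, Nat.floor_natCast]

theorem hi_core (G : CG T i₀ U) : ∀ q ∈ Dk i₀ κ, ∀ a, ∃ v ≤ q, dim v = 0 ∧
    uu U κ v a = hi U κ q a := by
  intro q hq a
  obtain ⟨y, hy, h0, h1⟩ := G.exists_hi (dc_pt hq).1 (dc_pt hq).2
  obtain ⟨v, h2, h4, h5⟩ := ex_vertex hT hy h0
  refine ⟨v, h2, h4, ?_⟩
  unfold uu hi
  rw [h5, h1 a, Nat.floor_natCast]

end st

/-! ### the final state -/

section fin

open Crest.Agent.R096.Cp_298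

variable {ι' Φ Q J1 K : Type} [PartialOrder Q] {dim : Q → ℕ} {M : MeshC ι' Φ E} {L : LM M Q dim}
variable {T : Tiling Om ι} {i₀ : ι} {κ : Q → T.Cell} (hT : OnT T L.toSk κ)
variable {fam : J → C} {fam1 : J1 → C} {U : E → C → ℝ} {τ : J → ℝ} {X V : J → Set E}
variable {O : Ori M} {Qd : Quads ι' C K} {Rel : E → E → Prop} {s₀ : GSt M fam}
  {far₀ : J → Set E} {σ₀ : E → ZMod 2} {p : J1 → J} {m : J1 → ℕ} {s : GSt M fam1}
  {far : J1 → Set E} {β : E → E} {Z : C → Set Q} {lam₀ : J → Q → ZMod 2} {v₀ v₁ : C → Q}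
  {lam : J1 → Q → ZMod 2}

/-- **BASE-DISC for the final state** -/
theorem exa_core (hT : OnT T L.toSk κ) (G : CG T i₀ U) (Wd : CW T i₀ U fam τ X V)
    (h : Cps O Qd Rel s₀ far₀ σ₀ p m s far β)
    (hR : ∀ x w, Rel x w → w ∈ L.W1 → x ∈ L.W1 ∧ L.ed x = L.ed w)
    (hP0 : ∀ w ∈ s₀.P, w ∈ L.W1) (hX : ∀ w ∈ s₀.P, w ∈ P (T.H i₀) → w ∈ X (s₀.lab w))
    (hp : ∀ j, fam (p j) = fam1 j) (hI₀ : s₀.Inv Qd far₀)
    (hI : s.Inv Qd far) (D : LabOut L Qd s Z p lam₀ v₀ v₁ lam) (hLF : LF L s)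
    (hcf : ∀ q ∈ Dk i₀ κ, dim q = 2 → ∃ F, L.cf F = q)
    (hfr : ∀ e ∈ Dk i₀ κ, dim e = 1 → ∀ j : J1, FrE L Qd (fam1 j) e)
    (hpath : ∀ v ∈ Dk i₀ κ, dim v = 0 → ∀ j : J1,
      ReflTransGen (Ed L {e | FrE L Qd (fam1 j) e}) (v₀ (fam1 j)) v ∨
        (v ∈ Z (fam1 j) ∧ ∀ j' : J1, fam1 j' = fam1 j → lam₀ (p j') v = 0))
    (hfin : ∀ a, {j | fam1 j = a}.Finite)
    (hl : ∀ v ∈ Dk i₀ κ, dim v = 0 → ∀ j, lam₀ j v = 1 ↔ (κ v).pt ∈ V j) :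
    Exa (cmb hLF (Lf lam) (xlf D.lab)) (Dk i₀ κ) fam1 (nr L s lam hfin)
      (fun v a => cnt fam1 (fun j => τ (p j)) a (uu U κ v a))
      (fun q a => cnt fam1 (fun j => τ (p j)) a (lo U κ q a))
      (fun q a => cnt fam1 (fun j => τ (p j)) a (hi U κ q a)) :=
  exa_final h hR hP0 hp hI₀ hI D hLF (dk_dn hT) (dk_dim hT) hcf hfr hpath
    (E1_core hT Wd hX) (F1_core hT G Wd hX) hfin τ _ _ _ (hV_core hT G Wd hl)
    (bd_core hT G) (lo_core hT G) (hi_core hT G)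

end fin

end Crest.Agent.R096.Ecm_446
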