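import Crest.Agent.R096.Mf1_113
import Crest.Agent.R096.Ecm3_446

/-!
# Grid and words of a tile are the same for two tilings which agree at the tile

446 #10894 (b).  `At_eq T T' K`: through every point of `K` the two tilings have the same tiles (as
sets).
-/

set_option autoImplicit false
set_option linter.unusedSectionVars false

open Set Metric

namespace Crest.Agent.R096.Mf_113

open Crest.Agent.R096.Msh_715

section gen

variable {E : Type*} [NormedAddCommGroup E] [NormedSpace ℝ E] [FiniteDimensional ℝ E]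
variable {Om Om' : Set E} {ι ι' : Type*} {T : Tiling Om ι} {T' : Tiling Om' ι'}

/-- the same tiles (as sets) through `x` give the same closed cell -/
theorem cc_of_at {x : E}
    (h : (fun j => P (T'.H j)) '' T'.at_ x = (fun i => P (T.H i)) '' T.at_ x) :
    T'.cc x = T.cc x := by
  ext y
  rw [mem_cc_iff, mem_cc_iff]
  constructor
  · intro hy i hi
    have hm : P (T.H i) ∈ (fun j => P (T'.H j)) '' T'.at_ x := by rw [h]; exact ⟨i, hi, rfl⟩
    obtain ⟨j, hj, e⟩ := hm
    simp only at e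
    rw [← e]
    exact hy j hj
  · intro hy j hj
    have hm : P (T'.H j) ∈ (fun i => P (T.H i)) '' T.at_ x := by rw [← h]; exact ⟨j, hj, rfl⟩
    obtain ⟨i, hi, e⟩ := hm
    simp only at e
    rw [← e]
    exact hy i hi

/-- the dimension is determined by the closed cell -/
theorem dim_of_cc {x : E} (hx : x ∈ Om) (hx' : x ∈ Om') (h : T'.cc x = T.cc x) :
    T'.V x = T.V x ∧ T'.dim x = T.dim x := by
  have hV : T'.V x = T.V x := by
    ext v
    rw [mem_V_iff hx', mem_V_iff hx, h]
  refine ⟨hV, ?_⟩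
  unfold Tiling.dim
  rw [hV]

/-- the open cell is determined by the closed cells -/
theorem oc_of_cc {x : E} (hx : x ∈ Om) (hx' : x ∈ Om')
    (h : ∀ y ∈ T.cc x, T'.cc y = T.cc y) : T'.oc x = T.oc x := by
  have hxx := h x (T.self_mem_cc x)
  ext y
  constructor
  · intro hy
    have h1 : y ∈ T.cc x := by rw [← hxx]; exact T'.oc_sub_cc x hy
    refine T.mem_oc_of_mem_cc h1 ?_
    rw [← h y h1, T'.cc_eq_of_mem_oc hx' hy]
    exact T'.self_mem_cc x
  · intro hy
    have h1 : y ∈ T.cc x := T.oc_sub_cc x hy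
    refine T'.mem_oc_of_mem_cc (by rw [hxx]; exact h1) ?_
    rw [h y h1, T.cc_eq_of_mem_oc hx hy]
    exact T.self_mem_cc x

end gen

section cg

open Crest.Agent.R096.Ecm_446

variable {E : Type} [NormedAddCommGroup E] [NormedSpace ℝ E] [FiniteDimensional ℝ E]
variable {Om Om' : Set E} {ι ι' : Type} {T : Tiling Om ι} {T' : Tiling Om' ι'} {C J : Type}
variable {i₀ : ι} {i₀' : ι'}

/-- **grid of the tile, other tiling** -/
theorem CG.of_cc {U : E → C → ℝ} (G : CG T i₀ U) (h0 : P (T'.H i₀') = P (T.H i₀))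
    (hcc : ∀ x ∈ P (T.H i₀), T'.cc x = T.cc x) : CG T' i₀' U := by
  have hdim : ∀ x ∈ P (T.H i₀), T'.dim x = T.dim x := fun x hx =>
    (dim_of_cc (T.sub i₀ hx) (T'.sub i₀' (by rw [h0]; exact hx)) (hcc x hx)).2
  refine ⟨?_, ?_, ?_, ?_, ?_, ?_⟩
  · rw [h0]; exact G.nn
  · intro x hx hd
    rw [h0] at hx ⊢
    rw [hdim x hx] at hd
    rw [hcc x hx]
    exact G.cell x hx hd
  · intro x hx hd
    rw [h0] at hx
    rw [hdim x hx] at hd ⊢
    exact G.dim x hx hd
  · intro x hx hd
    rw [h0] at hx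
    rw [hdim x hx] at hd
    exact G.fin x hx hd
  · intro x hx hd
    rw [h0] at hx ⊢
    rw [hdim x hx] at hd
    exact G.lo x hx hd
  · intro x hx hd
    rw [h0] at hx ⊢
    rw [hdim x hx] at hd
    exact G.hi x hx hd

/-- **words of the tile, other tiling** -/
theorem CW.of_cc {U : E → C → ℝ} {fam : J → C} {τ : J → ℝ} {X V : J → Set E}
    (W : CW T i₀ U fam τ X V) (h0 : P (T'.H i₀') = P (T.H i₀))
    (hcc : ∀ x ∈ P (T.H i₀), T'.cc x = T.cc x) : CW T' i₀' U fam τ X V := by
  have hdim : ∀ x ∈ P (T.H i₀), T'.dim x = T.dim x := fun x hx =>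
    (dim_of_cc (T.sub i₀ hx) (T'.sub i₀' (by rw [h0]; exact hx)) (hcc x hx)).2
  refine ⟨?_, ?_, ?_⟩
  · intro v hv hd
    rw [h0] at hv
    rw [hdim v hv] at hd
    exact W.side v hv hd
  · intro x hx hd j y hy y' hy'
    rw [h0] at hx
    rw [hdim x hx] at hd
    rw [hcc x hx] at hy hy'
    exact W.one x hx hd j y hy y' hy'
  · intro x hx hd j a b hab hU y hy
    rw [h0] at hx
    rw [hdim x hx] at hd
    rw [hcc x hx] at hab hy
    exact W.non x hx hd j a b hab hU y hy

/-- the hypothesis of `CG.of_cc`, `CW.of_cc` from the tiles through the points of the tile -/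
theorem cc_of_tiles (h : ∀ x ∈ P (T.H i₀),
      (fun j => P (T'.H j)) '' T'.at_ x = (fun i => P (T.H i)) '' T.at_ x) :
    ∀ x ∈ P (T.H i₀), T'.cc x = T.cc x := fun x hx => cc_of_at (h x hx)

end cg

section refine

variable {E : Type*} [NormedAddCommGroup E] [NormedSpace ℝ E] [FiniteDimensional ℝ E]
variable {Om : Set E} {ι ι' : Type*} {T : Tiling Om ι} {T' : Tiling Om ι'}

/-- a refinement `T'` of `T` (`π j` = the old tile of `j`) which does not cut the tiles through `x`
has the same tiles through `x` -/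
theorem at_of_refine (π : ι' → ι) (hπ : ∀ j, P (T'.H j) ⊆ P (T.H (π j))) {x : E}
    (hun : ∀ i ∈ T.at_ x, ∀ j, π j = i → P (T'.H j) = P (T.H i)) :
    (fun j => P (T'.H j)) '' T'.at_ x = (fun i => P (T.H i)) '' T.at_ x := by
  ext K
  constructor
  · rintro ⟨j, hj, rfl⟩
    have hi : π j ∈ T.at_ x := hπ j hj
    exact ⟨π j, hi, (hun _ hi j rfl).symm⟩
  · rintro ⟨i, hi, rfl⟩
    -- a point of the open tile `i` is in a tile `j` of `T'`, and `π j = i`
    obtain ⟨z, hz⟩ := T.ne i
    have hzO : z ∈ Om := T.sub i (I_sub_P _ hz)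
    obtain ⟨j, hj⟩ := T'.cov z hzO
    have hπj : π j = i := by
      have h1 : π j ∈ T.at_ z := hπ j hj
      rw [T.at_eq_singleton hz] at h1
      exact h1
    have h2 := hun i hi j hπj
    exact ⟨j, by show x ∈ P (T'.H j); rw [h2]; exact hi, h2⟩

end refine

end Crest.Agent.R096.Mf_113
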