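import Crest.Agent.R096.Bd17_416

/-!
# R096 (row 96), P4-MESH: local Lipschitz constants in a frame (helper416)

`LB B Λ f Z z`: `|f y - f z| ≤ Λ * dist (B y) (B z)` for `y ∈ Z` near `z`; `B` = frame of the cell.
-/

set_option autoImplicit false

open Set Metric Filter Topology

namespace Crest.Agent.R096.Bd_416

open Crest.Agent.R096.Ce_537

open Crest.Agent.R096.Pc_117 (LL)

open scoped Classical

set_option linter.unusedSectionVars false

section calcB

variable {X X' Y : Type*} [TopologicalSpace X] [TopologicalSpace X'] [PseudoMetricSpace Y]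
  {Y' : Type*} [PseudoMetricSpace Y']

/-- local Lipschitz bound in the frame `B` -/
def LB (B : X → Y) (Λ : ℝ) (f : X → ℝ) (Z : Set X) (x : X) : Prop :=
  ∀ᶠ y in 𝓝[Z] x, |f y - f x| ≤ Λ * dist (B y) (B x)

/-- local Lipschitz bound of a map, in the frames `B` (source) and `B'` (target) -/
def MB (B : X → Y) (B' : X' → Y') (L : ℝ) (g : X → X') (Z : Set X) (x : X) : Prop :=
  ∀ᶠ y in 𝓝[Z] x, dist (B' (g y)) (B' (g x)) ≤ L * dist (B y) (B x)

variable {B : X → Y} {Λ Λ' : ℝ} {f f' : X → ℝ} {Z Z' : Set X} {x : X}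

lemma LB.mono_set (h : LB B Λ f Z x) (hZ : Z' ⊆ Z) : LB B Λ f Z' x :=
  h.filter_mono (nhdsWithin_mono x hZ)

lemma LB.mono (h : LB B Λ f Z x) (e : Λ ≤ Λ') : LB B Λ' f Z x := by
  filter_upwards [h] with y hy
  exact hy.trans (mul_le_mul_of_nonneg_right e dist_nonneg)

lemma LB.congr (h : LB B Λ f Z x) (e : EqOn f f' Z) (hx : x ∈ Z) : LB B Λ f' Z x := by
  filter_upwards [h, self_mem_nhdsWithin] with y hy hyZ
  rw [← e hyZ, ← e hx]; exact hy

lemma LB.const (c : ℝ) (hΛ : 0 ≤ Λ) : LB B Λ (fun _ => c) Z x := by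
  refine Filter.Eventually.of_forall fun y => ?_
  simp only [sub_self, abs_zero]
  exact mul_nonneg hΛ dist_nonneg

lemma LB.min (hf : LB B Λ f Z x) (hf' : LB B Λ f' Z x) :
    LB B Λ (fun y => min (f y) (f' y)) Z x := by
  filter_upwards [hf, hf'] with y h1 h2
  exact (abs_min_sub_min_le_max _ _ _ _).trans (max_le h1 h2)

lemma LB.add_const (hf : LB B Λ f Z x) (c : ℝ) : LB B Λ (fun y => c + f y) Z x := by
  filter_upwards [hf] with y h1
  have : c + f y - (c + f x) = f y - f x := by ring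
  rw [this]; exact h1

lemma LB.squeeze {b : ℝ} (hb : 0 < b) (h : LB B Λ f Z x) :
    LB B (Λ / (2 * b)) (fun y => Bd_416.cl (f y / (2 * b))) Z x := by
  filter_upwards [h] with y hy
  refine (abs_cl_sub _ _).trans ?_
  rw [← sub_div, abs_div, abs_of_pos (by linarith : (0:ℝ) < 2 * b), div_mul_eq_mul_div]
  exact div_le_div_of_nonneg_right hy (by linarith)

lemma LB.union (h : LB B Λ f Z x) (h' : LB B Λ f Z' x) : LB B Λ f (Z ∪ Z') x := by
  unfold LB at *
  rw [nhdsWithin_union, Filter.eventually_sup]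
  exact ⟨h, h'⟩

lemma LB.of_notMem (hZ : IsClosed Z) (hx : x ∉ Z) : LB B Λ f Z x := by
  unfold LB
  have : 𝓝[Z] x = ⊥ := by
    rw [← notMem_closure_iff_nhdsWithin_eq_bot, hZ.closure_eq]; exact hx
  rw [this]; exact Filter.eventually_bot

lemma LB.biUnion {ι : Type*} {A : ι → Set X} {s : Set ι} (hs : s.Finite)
    (hc : ∀ i ∈ s, IsClosed (A i)) (h : ∀ i ∈ s, x ∈ A i → LB B Λ f (A i) x) :
    LB B Λ f (⋃ i ∈ s, A i) x := by
  unfold LB
  rw [nhdsWithin_biUnion hs]
  simp only [Filter.eventually_iSup]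
  intro i hi
  by_cases hx : x ∈ A i
  · exact h i hi hx
  · exact LB.of_notMem (hc i hi) hx

lemma LB.comp {B' : X' → Y'} {f : X' → ℝ} {V : Set X'} {g : X → X'} {L : ℝ} (hΛ : 0 ≤ Λ)
    (hf : LB B' Λ f V (g x)) (hg : MB B B' L g Z x) (hc : ContinuousWithinAt g Z x)
    (hm : MapsTo g Z V) : LB B (Λ * L) (fun y => f (g y)) Z x := by
  have h1 : Tendsto g (𝓝[Z] x) (𝓝[V] (g x)) :=
    tendsto_nhdsWithin_iff.2 ⟨hc,
      by filter_upwards [self_mem_nhdsWithin] with y hy using hm hy⟩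
  filter_upwards [h1.eventually hf, hg] with y h2 h3
  refine h2.trans ?_
  rw [mul_assoc]
  exact mul_le_mul_of_nonneg_left h3 hΛ

lemma MB.comp {X'' Y'' : Type*} [TopologicalSpace X''] [PseudoMetricSpace Y''] {B' : X' → Y'}
    {B'' : X'' → Y''} {g : X → X'} {g' : X' → X''} {L L' : ℝ} {V : Set X'} (hL' : 0 ≤ L')
    (h' : MB B' B'' L' g' V (g x)) (h : MB B B' L g Z x) (hc : ContinuousWithinAt g Z x)
    (hm : MapsTo g Z V) : MB B B'' (L' * L) (fun y => g' (g y)) Z x := by
  have h1 : Tendsto g (𝓝[Z] x) (𝓝[V] (g x)) :=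
    tendsto_nhdsWithin_iff.2 ⟨hc,
      by filter_upwards [self_mem_nhdsWithin] with y hy using hm hy⟩
  filter_upwards [h1.eventually h', h] with y h2 h3
  refine h2.trans ?_
  rw [mul_assoc]
  exact mul_le_mul_of_nonneg_left h3 hL'

end calcB

/-! ### the cone rule -/

section cone

variable {E Y : Type*} [NormedAddCommGroup E] [NormedSpace ℝ E] [PseudoMetricSpace Y]
  {n : ℕ} {q dq : Set E} {I : Type*}
  (e : PLEquiv (cube n) q) (he : e.f '' sph n = dq) {L : Lam dq I} {K b : ℝ} {h ρ : I → ℝ}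
  (D : Dep L K b h ρ) {B : E → Y}

lemma Dep.fill_LB (i : I) {Λ Lf : ℝ} (hΛ : 0 ≤ Λ) (hLf : 0 ≤ Lf)
    (hL : ∀ ω ∈ dq, LB B Λ (L.c i) dq ω) (hf : ∀ ω ∈ sph n, MB id B Lf e.f (sph n) ω)
    {x : Fin n → ℝ} :
    LB id (7 * max (Λ * Lf) (1 / h i) / (2 * b)) ((D.pull e he).fill.c i) (cube n) x := by
  have hb := D.cst.b0
  have hh := D.h0 i
  have hm0 : 0 ≤ max (Λ * Lf) (1 / h i) := le_max_of_le_right (by positivity)
  suffices hh : LB id (7 * max (Λ * Lf) (1 / h i) / (2 * b)) ((D.pull e he).fill.c i)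
      (Ann n ∪ {x : Fin n → ℝ | ‖x‖ ≤ 1/2}) x from hh.mono_set cube_eq.ge
  refine LB.union ?_ ?_
  · by_cases hxA : x ∈ Ann n
    swap
    · exact LB.of_notMem isClosed_Ann hxA
    have hc : MB id id 7 (fun y => (collar n).f y) (Ann n) x := by
      filter_upwards with y using dist_collar y x
    have hc1 : MB id id 7 (fun y => ((collar n).f y).1) (Ann n) x := by
      filter_upwards [hc] with y hy
      exact (le_max_left _ _).trans hy
    have hm1 : MapsTo (fun y => ((collar n).f y).1) (Ann n) (sph n) := fun y hy =>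
      ((collar n).mf hy).1
    have hcol : ContinuousWithinAt (fun y => (collar n).f y) (Ann n) x :=
      (collar n).pf.1 x hxA
    have hcol1 : ContinuousWithinAt (fun y => ((collar n).f y).1) (Ann n) x :=
      continuous_fst.continuousAt.comp_continuousWithinAt hcol
    have hce : ContinuousWithinAt e.f (sph n) ((collar n).f x).1 :=
      (e.pf.1 _ (sph_subset_cube (hm1 hxA))).mono sph_subset_cube
    have hcc : ContinuousWithinAt (fun y => e.f ((collar n).f y).1) (Ann n) x :=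
      ContinuousWithinAt.comp (f := fun y => ((collar n).f y).1) (g := e.f) hce hcol1 hm1
    have h1 : LB id (7 * max (Λ * Lf) (1 / h i))
        (fun y => L.c i (e.f ((collar n).f y).1)) (Ann n) x := by
      have h2 : MB id B (Lf * 7) (fun y => e.f ((collar n).f y).1) (Ann n) x :=
        MB.comp (g := fun y => ((collar n).f y).1) (g' := e.f) (B' := id) hLf
          (hf _ (hm1 hxA)) hc1 hcol1 hm1
      have h3 : LB id (Λ * (Lf * 7)) (fun y => L.c i (e.f ((collar n).f y).1)) (Ann n) x :=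
        LB.comp (g := fun y => e.f ((collar n).f y).1) (f := L.c i) hΛ
          (hL (e.f ((collar n).f x).1) (by
        rw [← he]; exact ⟨_, hm1 hxA, rfl⟩)) h2 hcc (fun y hy => by
        rw [← he]; exact ⟨_, hm1 hy, rfl⟩)
      refine h3.mono ?_
      have := le_max_left (Λ * Lf) (1 / h i)
      nlinarith
    have h2 : LB id (7 * max (Λ * Lf) (1 / h i))
        (fun y => ramp (h i) (ρ i) ((collar n).f y).2) (Ann n) x := by
      filter_upwards [hc] with y hy
      have h4 : |((collar n).f y).2 - ((collar n).f x).2| ≤ 7 * dist y x :=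
        (le_max_right _ _).trans hy
      refine (abs_ramp_sub hh).trans ?_
      rw [div_le_iff₀ hh]
      refine h4.trans ?_
      have h5 := le_max_right (Λ * Lf) (1 / h i)
      have h6 : 1 ≤ max (Λ * Lf) (1 / h i) * h i := by
        calc (1:ℝ) = 1 / h i * h i := by field_simp
          _ ≤ _ := mul_le_mul_of_nonneg_right h5 hh.le
      have h7 : 0 ≤ dist y x := dist_nonneg
      show 7 * dist y x ≤ 7 * max (Λ * Lf) (1 / h i) * dist y x * h i
      nlinarith
    have h3 := (LB.squeeze hb (h1.min h2))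
    refine h3.congr (fun y hy => ?_) hxA
    show _ = (D.pull e he).fill.c i y
    rw [(D.pull e he).fill_c_ann i hy]
    rfl
  · have hcl : IsClosed {x : Fin n → ℝ | ‖x‖ ≤ 1/2} :=
      isClosed_le continuous_norm continuous_const
    by_cases hxA : x ∈ {x : Fin n → ℝ | ‖x‖ ≤ 1/2}
    swap
    · exact LB.of_notMem hcl hxA
    refine (LB.const (-1/2) ?_).congr (fun y hy => ?_) hxA
    · positivity
    · exact ((D.pull e he).fill_c_low i hy).symm

/-- **Lipschitz constants of the cone rule in a frame** -/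
theorem Dep.fillBall_LB (i : I) {Λ Lf Lg : ℝ} (hΛ : 0 ≤ Λ) (hLf : 0 ≤ Lf)
    (hL : ∀ ω ∈ dq, LB B Λ (L.c i) dq ω) (hf : ∀ ω ∈ sph n, MB id B Lf e.f (sph n) ω)
    (hg : ∀ z ∈ q, MB B id Lg e.g q z) {z : E} (hz : z ∈ q) :
    LB B (7 * max (Λ * Lf) (1 / h i) / (2 * b) * Lg) ((D.fillBall e he).c i) q z := by
  have hb := D.cst.b0
  have hh := D.h0 i
  have hm0 : 0 ≤ max (Λ * Lf) (1 / h i) := le_max_of_le_right (by positivity)
  have h1 := LB.comp (B := B) (g := e.g) (Z := q) (by positivity)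
    (D.fill_LB e he i hΛ hLf hL hf (x := e.g z)) (hg z hz) (e.pg.1 z hz) e.mg
  exact h1

end cone

/-! ### the edge rule -/

section edge

variable {E Y : Type*} [NormedAddCommGroup E] [NormedSpace ℝ E] [PseudoMetricSpace Y]
  {q : Set E} {I : Type*} {w p : I → ℝ} {B : E → Y}

theorem edge_LB (hE : Ed w p) (e : PLEquiv (cube 1) q) (hq : IsClosed q) (i : I) {Lg : ℝ}
    (hg : ∀ z ∈ q, MB B id Lg e.g q z) {z : E} (hz : z ∈ q) :
    LB B (Lg / w i) (((edgeLam hE).pull e.symm hq).c i) q z := by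
  have hh := hE.w0 i
  filter_upwards [hg z hz] with y hy
  show |ramp (w i) (p i) (e.g y 0) - ramp (w i) (p i) (e.g z 0)| ≤ _
  refine (abs_ramp_sub hh).trans ?_
  rw [div_mul_eq_mul_div]
  refine div_le_div_of_nonneg_right ?_ hh.le
  refine le_trans ?_ hy
  rw [← Real.dist_eq]
  exact dist_le_pi_dist (e.g y) (e.g z) 0

end edge

/-! ### products: only one factor moves -/

section prod

variable {Q : Type} [PartialOrder Q] {dim : Q → ℕ} {J Fam : Type}
variable {E Y : Type*} [NormedAddCommGroup E] [NormedSpace ℝ E] [PseudoMetricSpace Y]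
variable {C : Cmb Q dim J Fam} {K : Q → Set E} {D : Set Q} {g : Gd E J}
  {P : ∀ q, C.I q → Set E} {c : ∀ q, C.I q → E → ℝ} {b : ℝ} {Ω : Set E} {B : E → Y}

/-- **a product of band functions of one family has the Lipschitz constant of one factor** -/
theorem Inv.prod_LB (H : Inv C K D g P c) {q : Q} (hq : q ∈ D) (F : Finset (C.I q))
    (hF : ∀ x ∈ F, ∀ x' ∈ F, x ≠ x' → C.fam (C.col q x) = C.fam (C.col q x')) {z : E}
    (hz : z ∈ K q) {Λ : ℝ} (hΛ : 0 ≤ Λ) (hL : ∀ x ∈ F, LB B Λ (c q x) (K q) z) {r : ℝ}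
    (hr : |r| = 1) : LB B Λ (fun w => r / 2 * ∏ x ∈ F, (-2 * c q x w)) (K q) z := by
  have hconst : ∀ᶠ w in 𝓝[K q] z, ∀ x : C.I q, z ∉ P q x → c q x w = c q x z := by
    rw [Filter.eventually_all]
    intro x
    by_cases hx : z ∈ P q x
    · exact Filter.Eventually.of_forall fun w h => absurd hx h
    · filter_upwards [H.ev_const hq hz hx] with w hw _ using hw
  have hL' : ∀ᶠ w in 𝓝[K q] z, ∀ x ∈ F, |c q x w - c q x z| ≤ Λ * dist (B w) (B z) := by
    rw [Filter.eventually_all_finset]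
    exact hL
  filter_upwards [hconst, hL'] with w hw1 hw2
  by_cases hex : ∃ x ∈ F, z ∈ P q x
  · obtain ⟨x, hx, hxP⟩ := hex
    have hrest : ∀ x' ∈ F.erase x, z ∉ P q x' := by
      intro x' hx' hc
      have h1 := Finset.mem_of_mem_erase hx'
      have h2 := Finset.ne_of_mem_erase hx'
      exact Set.disjoint_left.1 (H.fd q hq x' x h2 (hF x' h1 x hx h2)) hc hxP
    rw [← Finset.mul_prod_erase _ _ hx, ← Finset.mul_prod_erase _ _ hx]
    have e1 : ∏ x' ∈ F.erase x, (-2 * c q x' w) = ∏ x' ∈ F.erase x, (-2 * c q x' z) :=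
      Finset.prod_congr rfl fun x' hx' => by rw [hw1 x' (hrest x' hx')]
    have e2 : |∏ x' ∈ F.erase x, (-2 * c q x' z)| = 1 :=
      abs_prod_eq fun x' hx' => abs_of_half (H.half hq hz (hrest x' hx'))
    rw [e1]
    have e3 : r / 2 * (-2 * c q x w * ∏ x' ∈ F.erase x, (-2 * c q x' z))
        - r / 2 * (-2 * c q x z * ∏ x' ∈ F.erase x, (-2 * c q x' z))
        = (-1) * (r * ((c q x w - c q x z) * ∏ x' ∈ F.erase x, (-2 * c q x' z))) := by ring
    rw [e3, abs_mul, abs_mul, abs_mul, hr, e2]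
    have := hw2 x hx
    simpa using this
  · push Not at hex
    have e1 : ∏ x ∈ F, (-2 * c q x w) = ∏ x ∈ F, (-2 * c q x z) :=
      Finset.prod_congr rfl fun x hx => by rw [hw1 x (hex x hx)]
    rw [e1, sub_self, abs_zero]
    exact mul_nonneg hΛ dist_nonneg

/-- **the level functions** -/
theorem Inv.LB_G (H : Inv C K D g P c) {q : Q} (hq : q ∈ D) (j : J) {z : E} (hz : z ∈ K q)
    {Λ : ℝ} (hΛ : 0 ≤ Λ) (hL : ∀ x, C.col q x = j → LB B Λ (c q x) (K q) z) :
    LB B Λ (g.G j) (K q) z := by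
  have h1 := H.prod_LB hq (Finset.univ.filter fun x => C.col q x = j) (fun x hx x' hx' _ => by
    rw [Finset.mem_filter] at hx hx'; rw [hx.2, hx'.2]) hz hΛ (fun x hx =>
      hL x (Finset.mem_filter.1 hx).2) (r := - sg (C.Lab j q)) (by rw [abs_neg]; exact abs_sg _)
  refine (h1.add_const (1/2)).congr (fun w hw => ?_) hz
  show _ = g.G j w
  rw [H.PF q hq j w hw]; ring

/-- **the boundary values on a new cell** -/
theorem Inv.LB_cbd (H : Inv C K D g P c) (X : Cplx Ω Q dim K) {τ : Q} (hτ : ∀ σ < τ, σ ∈ D)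
    (x : C.I τ) {z : E} {Λ : ℝ} (hΛ : 0 ≤ Λ)
    (hL : ∀ σ (h : σ < τ) (y : C.I σ), C.up h y = x → z ∈ K σ → LB B Λ (c σ y) (K σ) z) :
    LB B Λ (cbd C K c τ x) (bdS K τ) z := by
  refine LB.biUnion (X.finite_below τ) (fun σ _ => X.isClosed σ) fun σ h hz => ?_
  have h' : σ < τ := h
  have h1 := H.prod_LB (hτ σ h') (Finset.univ.filter fun y => C.up h' y = x)
    (fun y hy y' hy' _ => by
      rw [Finset.mem_filter] at hy hy'
      rw [← C.col_up h' y, ← C.col_up h' y', hy.2, hy'.2]) hz hΛ (fun y hy =>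
      hL σ h' y (Finset.mem_filter.1 hy).2 hz) (r := - sg (C.s h' x)) (by
        rw [abs_neg]; exact abs_sg _)
  refine h1.congr (fun w hw => ?_) hz
  have h2 := cbd_eq H X h' hτ x hw
  show - sg (C.s h' x) / 2 * _ = _
  linarith

/-- **the weighted sum over a family** -/
theorem Inv.LB_fam (H : Inv C K D g P c) (wt : J → ℝ) (hw : ∀ j, 0 < wt j) {q : Q} (hq : q ∈ D)
    (T : Finset J) (hT : ∀ j ∈ T, ∀ j' ∈ T, C.fam j = C.fam j') {z : E} (hz : z ∈ K q)
    {Λ : ℝ} (hΛ : 0 ≤ Λ) (hL : ∀ x, LB B (Λ / wt (C.col q x)) (c q x) (K q) z) :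
    LB B Λ (fun w => ∑ j ∈ T, wt j * g.G j w) (K q) z := by
  have hconst : ∀ᶠ w in 𝓝[K q] z, ∀ j ∈ T, z ∉ g.B j → g.G j w = g.G j z := by
    rw [Filter.eventually_all_finset]
    intro j _
    by_cases hB : z ∈ g.B j
    · exact Filter.Eventually.of_forall fun w h => absurd hB h
    have h1 : ∀ᶠ w in 𝓝[K q] z, ∀ x : C.I q, C.col q x = j → c q x w = c q x z := by
      rw [Filter.eventually_all]
      intro x
      by_cases hx : C.col q x = j
      · have hnP : z ∉ P q x := fun hP => hB (hx ▸ H.PB q hq x hP)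
        filter_upwards [H.ev_const hq hz hnP] with w hw _ using hw
      · exact Filter.Eventually.of_forall fun w h => absurd h hx
    filter_upwards [h1, self_mem_nhdsWithin] with w hw hwK _
    rw [H.PF q hq j w hwK, H.PF q hq j z hz]
    congr 2
    refine Finset.prod_congr rfl fun x hx => ?_
    rw [hw x (Finset.mem_filter.1 hx).2]
  have hL' : ∀ᶠ w in 𝓝[K q] z, ∀ j ∈ T,
      |g.G j w - g.G j z| ≤ Λ / wt j * dist (B w) (B z) := by
    rw [Filter.eventually_all_finset]
    intro j _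
    exact H.LB_G hq j hz (div_nonneg hΛ (hw j).le) fun x hx => hx ▸ hL x
  filter_upwards [hconst, hL'] with w hw1 hw2
  rw [← Finset.sum_sub_distrib]
  by_cases hex : ∃ j ∈ T, z ∈ g.B j
  · obtain ⟨j, hj, hB⟩ := hex
    have : ∑ i ∈ T, (wt i * g.G i w - wt i * g.G i z) = wt j * g.G j w - wt j * g.G j z := by
      refine Finset.sum_eq_single_of_mem j hj fun i hi hij => ?_
      rw [hw1 i hi (fun hBi => H.fam_disj hq hz hij (hT i hi j hj) hBi hB), sub_self]
    rw [this, ← mul_sub, abs_mul, abs_of_pos (hw j)]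
    calc wt j * |g.G j w - g.G j z| ≤ wt j * (Λ / wt j * dist (B w) (B z)) :=
          mul_le_mul_of_nonneg_left (hw2 j hj) (hw j).le
      _ = Λ * dist (B w) (B z) := by have := (hw j).ne'; field_simp
  · push Not at hex
    rw [Finset.sum_eq_zero (fun j hj => by rw [hw1 j hj (hex j hj), sub_self]), abs_zero]
    exact mul_nonneg hΛ dist_nonneg

end prod

end Crest.Agent.R096.Bd_416
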