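import Crest.Agent.R096.Pc1_117

/-!
# R096 (row 96), P4-CONE, part 2: the cone step and the local Lipschitz constant (helper117)

`LL K f Z x`: near `x` in `Z`, `|f y - f x| ≤ K * dist y x`.
`Lam.sum_LL`: for a laminar colour the sum of the collar functions has the SAME local Lipschitz
constant (only one summand moves at a time).
-/

set_option autoImplicit false

open Set Filter Topology

namespace Crest.Agent.R096.Pc_117

section LL

variable {X Y : Type*} [PseudoMetricSpace X] [PseudoMetricSpace Y]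

/-- local Lipschitz bound at the point `x` (relative to `Z`) -/
def LL (K : ℝ) (f : X → ℝ) (Z : Set X) (x : X) : Prop :=
  ∀ᶠ y in 𝓝[Z] x, |f y - f x| ≤ K * dist y x

lemma LL.mono_set {K : ℝ} {f : X → ℝ} {Z W : Set X} {x : X} (h : LL K f Z x) (hW : W ⊆ Z) :
    LL K f W x := h.filter_mono (nhdsWithin_mono x hW)

lemma LL.mono {K L : ℝ} {f : X → ℝ} {Z : Set X} {x : X} (h : LL K f Z x) (hKL : K ≤ L) :
    LL L f Z x := by
  filter_upwards [h] with y hy
  exact hy.trans (mul_le_mul_of_nonneg_right hKL dist_nonneg)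

lemma LL.congr {K : ℝ} {f g : X → ℝ} {Z : Set X} {x : X} (h : LL K f Z x)
    (hfg : EqOn f g Z) (hx : x ∈ Z) : LL K g Z x := by
  filter_upwards [h, self_mem_nhdsWithin] with y hy hyZ
  rw [← hfg hyZ, ← hfg hx]
  exact hy

lemma LL.congr_ev {K : ℝ} {f g : X → ℝ} {Z : Set X} {x : X} (h : LL K f Z x)
    (hfg : f =ᶠ[𝓝[Z] x] g) (hx : f x = g x) : LL K g Z x := by
  filter_upwards [h, hfg] with y hy hyZ
  rw [← hyZ, ← hx]
  exact hy

lemma LL.const (c : ℝ) (Z : Set X) (x : X) {K : ℝ} (hK : 0 ≤ K) : LL K (fun _ => c) Z x := by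
  refine Filter.Eventually.of_forall fun y => ?_
  simp only [sub_self, abs_zero]
  exact mul_nonneg hK dist_nonneg

lemma LL.continuousWithinAt {K : ℝ} {f : X → ℝ} {Z : Set X} {x : X} (h : LL K f Z x) :
    ContinuousWithinAt f Z x := by
  rw [ContinuousWithinAt, tendsto_iff_dist_tendsto_zero]
  have h1 : Tendsto (fun y => K * dist y x) (𝓝[Z] x) (𝓝 0) := by
    have h2 : Tendsto (fun y : X => K * dist y x) (𝓝 x) (𝓝 (K * dist x x)) :=
      (Continuous.tendsto (by fun_prop) x)
    rw [dist_self, mul_zero] at h2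
    exact h2.mono_left nhdsWithin_le_nhds
  refine squeeze_zero' (Filter.Eventually.of_forall fun _ => dist_nonneg) ?_ h1
  filter_upwards [h] with y hy
  rw [Real.dist_eq]
  exact hy

lemma LL.min {K : ℝ} {f g : X → ℝ} {Z : Set X} {x : X} (hf : LL K f Z x) (hg : LL K g Z x) :
    LL K (fun y => min (f y) (g y)) Z x := by
  filter_upwards [hf, hg] with y h1 h2
  exact (abs_min_sub_min_le_max _ _ _ _).trans (max_le h1 h2)

lemma LL.max {K : ℝ} {f g : X → ℝ} {Z : Set X} {x : X} (hf : LL K f Z x) (hg : LL K g Z x) :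
    LL K (fun y => max (f y) (g y)) Z x := by
  filter_upwards [hf, hg] with y h1 h2
  exact (abs_max_sub_max_le_max _ _ _ _).trans (max_le h1 h2)

lemma LL.neg {K : ℝ} {f : X → ℝ} {Z : Set X} {x : X} (hf : LL K f Z x) :
    LL K (fun y => - f y) Z x := by
  filter_upwards [hf] with y h1
  rw [neg_sub_neg, abs_sub_comm]
  exact h1

lemma LL.add {K L : ℝ} {f g : X → ℝ} {Z : Set X} {x : X} (hf : LL K f Z x) (hg : LL L g Z x) :
    LL (K + L) (fun y => f y + g y) Z x := by
  filter_upwards [hf, hg] with y h1 h2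
  have : f y + g y - (f x + g x) = (f y - f x) + (g y - g x) := by ring
  rw [this, add_mul]
  exact (abs_add_le _ _).trans (add_le_add h1 h2)

lemma LL.add_const {K : ℝ} {f : X → ℝ} {Z : Set X} {x : X} (hf : LL K f Z x) (c : ℝ) :
    LL K (fun y => c + f y) Z x := by
  filter_upwards [hf] with y h1
  have : c + f y - (c + f x) = f y - f x := by ring
  rw [this]
  exact h1

lemma LL.const_mul {K : ℝ} {f : X → ℝ} {Z : Set X} {x : X} (hf : LL K f Z x) (c : ℝ) :
    LL (|c| * K) (fun y => c * f y) Z x := by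
  filter_upwards [hf] with y h1
  rw [← mul_sub, abs_mul, mul_assoc]
  exact mul_le_mul_of_nonneg_left h1 (abs_nonneg _)

/-- post-composition with a map which is `L`-Lipschitz near the value -/
lemma LL.comp_real {K L : ℝ} (hL : 0 ≤ L) {f : X → ℝ} {g : ℝ → ℝ} {Z : Set X} {x : X}
    (hf : LL K f Z x) (hg : LL L g univ (f x)) : LL (L * K) (fun y => g (f y)) Z x := by
  have h1 := hf.continuousWithinAt
  have h2 : ∀ᶠ y in 𝓝[Z] x, |g (f y) - g (f x)| ≤ L * dist (f y) (f x) := by
    unfold LL at hg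
    rw [nhdsWithin_univ] at hg
    exact h1.eventually hg
  filter_upwards [hf, h2] with y h3 h4
  refine h4.trans ?_
  rw [mul_assoc]
  exact mul_le_mul_of_nonneg_left (by rw [Real.dist_eq]; exact h3) hL

lemma LL.cl {K : ℝ} {f : X → ℝ} {Z : Set X} {x : X} (hf : LL K f Z x) :
    LL K (fun y => cl (f y)) Z x := by
  filter_upwards [hf] with y h1
  exact (cl_lip _ _).trans h1

/-- pre-composition with a map of Lipschitz constant `L` at the point -/
lemma LL.comp {K L : ℝ} (hK : 0 ≤ K) {f : Y → ℝ} {W : Set Y} {Z : Set X} {g : X → Y} {x : X}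
    (hf : LL K f W (g x)) (hm : MapsTo g Z W) (hg : ContinuousWithinAt g Z x)
    (hgL : ∀ᶠ y in 𝓝[Z] x, dist (g y) (g x) ≤ L * dist y x) :
    LL (K * L) (fun y => f (g y)) Z x := by
  have h1 : Tendsto g (𝓝[Z] x) (𝓝[W] (g x)) :=
    tendsto_nhdsWithin_iff.2 ⟨hg, by filter_upwards [self_mem_nhdsWithin] with y hy using hm hy⟩
  filter_upwards [h1.eventually hf, hgL] with y h2 h3
  refine h2.trans ?_
  rw [mul_assoc]
  exact mul_le_mul_of_nonneg_left h3 hK

end LL

section Sum

variable {X I N : Type*} [PseudoMetricSpace X]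

/-- **only one summand moves**: near every point at most one member of a laminar colour changes. -/
theorem Lam.one_moves [Finite I] {Z : Set X} {col : I → N} {c : I → X → ℝ} (h : Lam Z col c)
    (hc : ∀ i, ContinuousOn (c i) Z) {x : X} (hx : x ∈ Z) :
    ∀ᶠ y in 𝓝[Z] x, ∀ i j, col i = col j → c i y ≠ c i x → c j y ≠ c j x → i = j := by
  have h1 : ∀ᶠ y in 𝓝[Z] x, ∀ i, -1/2 < c i x → -1/2 < c i y := by
    rw [Filter.eventually_all]
    intro i
    by_cases hi : -1/2 < c i x
    · filter_upwards [(hc i x hx).eventually (lt_mem_nhds hi)] with y hy _ using hy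
    · exact Filter.Eventually.of_forall fun y hy => absurd hy hi
  have h2 : ∀ᶠ y in 𝓝[Z] x, ∀ i, c i x < 1/2 → c i y < 1/2 := by
    rw [Filter.eventually_all]
    intro i
    by_cases hi : c i x < 1/2
    · filter_upwards [(hc i x hx).eventually (gt_mem_nhds hi)] with y hy _ using hy
    · exact Filter.Eventually.of_forall fun y hy => absurd hy hi
  filter_upwards [h1, h2, self_mem_nhdsWithin] with y hy1 hy2 hyZ
  intro i j hij hi hj
  by_contra hne
  -- a moving function is not at its minimum at `y`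
  have key1 : ∀ l, c l y ≠ c l x → -1/2 < c l y := by
    intro l hl
    by_contra hc'
    have e1 : c l y = -1/2 := le_antisymm (not_lt.1 hc') (h.mem l y hyZ).1
    have e2 : ¬ (-1/2 < c l x) := fun hh => hc' (hy1 l hh)
    have e3 : c l x = -1/2 := le_antisymm (not_lt.1 e2) (h.mem l x hx).1
    exact hl (e1.trans e3.symm)
  have key2 : ∀ l, c l y ≠ c l x → c l y < 1/2 := by
    intro l hl
    by_contra hc'
    have e1 : c l y = 1/2 := le_antisymm (h.mem l y hyZ).2 (not_lt.1 hc')
    have e2 : ¬ (c l x < 1/2) := fun hh => hc' (hy2 l hh)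
    have e3 : c l x = 1/2 := le_antisymm (h.mem l x hx).2 (not_lt.1 e2)
    exact hl (e1.trans e3.symm)
  have i1 := key1 i hi
  have i2 := key2 i hi
  have j1 := key1 j hj
  have j2 := key2 j hj
  rcases h.same i j hne hij with h3 | h3 | h3
  · rcases h3 y hyZ with h4 | h4
    · exact absurd h4 i1.ne'
    · exact absurd h4 j1.ne'
  · exact absurd (h3 y hyZ i1) j2.ne
  · exact absurd (h3 y hyZ j1) i2.ne

/-- **the counting Lipschitz constant**: weights of absolute value `≤ 1`, one colour. -/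
theorem Lam.sum_LL [Fintype I] {Z : Set X} {col : I → N} {c : I → X → ℝ} (h : Lam Z col c)
    {K : ℝ} (hK : 0 ≤ K) (hc : ∀ i, ContinuousOn (c i) Z) (s : Finset I) (ν : N)
    (hs : ∀ i ∈ s, col i = ν) (ε : I → ℝ) (hε : ∀ i, |ε i| ≤ 1) {x : X} (hx : x ∈ Z)
    (hL : ∀ i, LL K (c i) Z x) : LL K (fun y => ∑ i ∈ s, ε i * c i y) Z x := by
  have hL' : ∀ᶠ y in 𝓝[Z] x, ∀ i, |c i y - c i x| ≤ K * dist y x := by
    rw [Filter.eventually_all]
    exact hL
  filter_upwards [h.one_moves hc hx, hL'] with y hy1 hy2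
  rw [← Finset.sum_sub_distrib]
  by_cases hall : ∀ i ∈ s, c i y = c i x
  · have : ∑ i ∈ s, (ε i * c i y - ε i * c i x) = 0 := by
      apply Finset.sum_eq_zero
      intro i hi
      rw [hall i hi, sub_self]
    rw [this, abs_zero]
    exact mul_nonneg hK dist_nonneg
  · push Not at hall
    obtain ⟨i, hi, hne⟩ := hall
    have : ∑ j ∈ s, (ε j * c j y - ε j * c j x) = ε i * c i y - ε i * c i x := by
      apply Finset.sum_eq_single_of_mem i hi
      intro j hj hji
      by_cases hj2 : c j y = c j x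
      · rw [hj2, sub_self]
      · exact absurd (hy1 j i ((hs j hj).trans (hs i hi).symm) hj2 hne) hji
    rw [this, ← mul_sub, abs_mul]
    calc |ε i| * |c i y - c i x| ≤ 1 * (K * dist y x) :=
          mul_le_mul (hε i) (hy2 i) (abs_nonneg _) zero_le_one
      _ = K * dist y x := one_mul _

end Sum

section Global

variable {E : Type*} [NormedAddCommGroup E] [NormedSpace ℝ E]

/-- from the local to the global Lipschitz constant on a convex set -/
theorem LL.dist_le {K : ℝ} {f : E → ℝ} {s : Set E} (hs : Convex ℝ s)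
    (h : ∀ x ∈ s, LL K f s x) {x y : E} (hx : x ∈ s) (hy : y ∈ s) :
    |f y - f x| ≤ K * dist y x := by
  let g : ℝ → E := fun t => AffineMap.lineMap x y t
  have hg : Continuous g := AffineMap.lineMap_continuous
  have hgs : ∀ t ∈ Icc (0:ℝ) 1, g t ∈ s := fun t ht =>
    hs.lineMap_mem hx hy ht
  have hgd : ∀ t t' : ℝ, dist (g t) (g t') = |t - t'| * dist x y := by
    intro t t'
    show dist (AffineMap.lineMap x y t) (AffineMap.lineMap x y t') = _
    rw [dist_lineMap_lineMap, Real.dist_eq]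
  let S : Set ℝ := {t | |f (g t) - f x| ≤ K * (t * dist x y)}
  have hfc : ContinuousOn (fun t => f (g t)) (Icc 0 1) := by
    intro t ht
    have h1 : ContinuousWithinAt f s (g t) := (h (g t) (hgs t ht)).continuousWithinAt
    exact h1.comp hg.continuousWithinAt (fun t' ht' => hgs t' ht')
  have hclosed : IsClosed (S ∩ Icc 0 1) := by
    have h2 : ContinuousOn (fun t => K * (t * dist x y) - |f (g t) - f x|) (Icc 0 1) := by
      apply ContinuousOn.sub
      · fun_prop
      · exact (hfc.sub continuousOn_const).abs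
    have h3 := h2.preimage_isClosed_of_isClosed isClosed_Icc (isClosed_Ici (a := (0:ℝ)))
    convert h3 using 1
    ext t
    simp only [S, mem_inter_iff, mem_ofPred_eq, mem_preimage, mem_Ici, sub_nonneg]
    tauto
  have h0 : (0:ℝ) ∈ S := by
    show |f (g 0) - f x| ≤ K * (0 * dist x y)
    have : g 0 = x := AffineMap.lineMap_apply_zero x y
    rw [this]
    simp
  have hstep : ∀ t ∈ S ∩ Ico (0:ℝ) 1, S ∈ 𝓝[>] t := by
    rintro t ⟨htS, ht⟩
    have h4 : ∀ᶠ t' in 𝓝[Icc 0 1] t, |f (g t') - f (g t)| ≤ K * dist (g t') (g t) := by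
      have h5 := h (g t) (hgs t ⟨ht.1, ht.2.le⟩)
      have h6 : Tendsto g (𝓝[Icc 0 1] t) (𝓝[s] (g t)) :=
        tendsto_nhdsWithin_iff.2 ⟨hg.continuousWithinAt, by
          filter_upwards [self_mem_nhdsWithin] with t' ht' using hgs t' ht'⟩
      exact h6.eventually h5
    have h7 : 𝓝[>] t ≤ 𝓝[Icc 0 1] t := by
      rw [← nhdsWithin_Ioc_eq_nhdsGT ht.2]
      exact nhdsWithin_mono _ (fun u hu => ⟨ht.1.trans hu.1.le, hu.2⟩)
    filter_upwards [h7 h4, self_mem_nhdsWithin] with t' ht' htt'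
    show |f (g t') - f x| ≤ K * (t' * dist x y)
    have habs : |t' - t| = t' - t := abs_of_pos (sub_pos.2 (mem_Ioi.1 htt'))
    rw [hgd, habs] at ht'
    have h8 : |f (g t) - f x| ≤ K * (t * dist x y) := htS
    have h9 : f (g t') - f x = (f (g t') - f (g t)) + (f (g t) - f x) := by ring
    rw [h9]
    refine (abs_add_le _ _).trans ((add_le_add ht' h8).trans (le_of_eq ?_))
    ring
  have hall := hclosed.Icc_subset_of_forall_mem_nhdsWithin h0 hstep
  have h1 := hall (right_mem_Icc.2 zero_le_one)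
  have h1' : |f (g 1) - f x| ≤ K * (1 * dist x y) := h1
  have : g 1 = y := AffineMap.lineMap_apply_one x y
  rw [this, one_mul, dist_comm x y] at h1'
  exact h1'

/-- the derivative is bounded by the local Lipschitz constant -/
theorem LL.norm_fderiv_le {K : ℝ} (hK : 0 ≤ K) {f : E → ℝ} {s : Set E} {x : E}
    (h : LL K f s x) (hs : s ∈ 𝓝 x) : ‖fderiv ℝ f x‖ ≤ K := by
  by_cases hf : DifferentiableAt ℝ f x
  · refine hf.hasFDerivAt.le_of_lip' hK ?_
    unfold LL at h
    rw [nhdsWithin_eq_nhds.2 hs] at h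
    filter_upwards [h] with y hy
    rw [Real.norm_eq_abs, ← dist_eq_norm]
    exact hy
  · rw [fderiv_zero_of_not_differentiableAt hf, norm_zero]
    exact hK

end Global

section Cone

variable {E I N : Type*}

/-- the cone function in collar coordinates `(ω, r)` -/
noncomputable def AA (c : E → ℝ) (n k : ℕ) (p : E × ℝ) : ℝ := min (c p.1) (ww n k p.2)

lemma AA_mem {c : E → ℝ} {p : E × ℝ} {n k : ℕ} (h : c p.1 ∈ Icc (-1/2 : ℝ) (1/2)) :
    AA c n k p ∈ Icc (-1/2 : ℝ) (1/2) :=
  ⟨le_min h.1 (ww_mem _ _ _).1, (min_le_left _ _).trans h.2⟩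

lemma AA_one {c : E → ℝ} {n k : ℕ} (hk : k < n) {z : E} {r : ℝ} (hr : 1 - hh n ≤ r)
    (h : c z ≤ 1/2) : AA c n k (z, r) = c z := by
  unfold AA
  rw [ww_outer hk hr]
  exact min_eq_left h

lemma AA_inner {c : E → ℝ} {n k : ℕ} {z : E} {r : ℝ} (hr : r ≤ 1/2 + hh n)
    (h : -1/2 ≤ c z) : AA c n k (z, r) = -1/2 := by
  unfold AA
  rw [ww_inner hr]
  exact min_eq_right h

lemma Out.cone {Z : Set E} {f g : E → ℝ} (hf : ∀ z ∈ Z, -1/2 ≤ f z) (hg : ∀ z ∈ Z, -1/2 ≤ g z)
    (h : Out Z f g) (n k l : ℕ) (R : Set ℝ) : Out (Z ×ˢ R) (AA f n k) (AA g n l) := by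
  rintro ⟨z, r⟩ ⟨hz, -⟩
  rcases h z hz with h1 | h1
  · left
    refine le_antisymm ((min_le_left _ _).trans h1.le) (le_min (hf z hz) (ww_mem _ _ _).1)
  · right
    refine le_antisymm ((min_le_left _ _).trans h1.le) (le_min (hg z hz) (ww_mem _ _ _).1)

lemma Ins.cone {Z : Set E} {f g : E → ℝ} (h : Ins Z f g) {n k l : ℕ} (hkl : l < k) (R : Set ℝ) :
    Ins (Z ×ˢ R) (AA f n k) (AA g n l) := by
  rintro ⟨z, r⟩ ⟨hz, -⟩ hp
  have h1 : -1/2 < f z := lt_of_lt_of_le hp (min_le_left _ _)
  have h2 : -1/2 < ww n k r := lt_of_lt_of_le hp (min_le_right _ _)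
  show min (g z) (ww n l r) = 1/2
  rw [h z hz h1, ww_lt hkl h2, min_self]

/-- **cone step**: the cone family is laminar again (`k` = a depth function). -/
theorem Lam.cone {Z : Set E} {col : I → N} {c : I → E → ℝ} (h : Lam Z col c) {n : ℕ} {k : I → ℕ}
    (hk : ∀ i j, Ins Z (c i) (c j) → k j < k i) (hkn : ∀ i, k i < n) {R : Set ℝ} (h1 : (1:ℝ) ∈ R) :
    Lam (Z ×ˢ R) col (fun i => AA (c i) n (k i)) where
  mem i := fun ⟨z, r⟩ hp => AA_mem (h.mem i z hp.1)
  same i j hij hcol := by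
    rcases h.same i j hij hcol with h2 | h2 | h2
    · exact Or.inl (h2.cone (fun z hz => (h.mem i z hz).1) (fun z hz => (h.mem j z hz).1) _ _ _ _)
    · exact Or.inr (Or.inl (h2.cone (hk i j h2) R))
    · exact Or.inr (Or.inr (h2.cone (hk j i h2) R))
  mid i := by
    obtain ⟨z, hz, h0⟩ := h.mid i
    refine ⟨(z, 1), ⟨hz, h1⟩, ?_⟩
    have := hh_pos n
    rw [AA_one (hkn i) (by linarith) (by rw [h0]; norm_num), h0]

end Cone

section ConeLL

variable {X : Type*} [PseudoMetricSpace X]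

lemma AA_continuousOn {c : X → ℝ} {Z : Set X} (hc : ContinuousOn c Z) (n k : ℕ) (R : Set ℝ) :
    ContinuousOn (AA c n k) (Z ×ˢ R) := by
  unfold AA
  apply ContinuousOn.inf
  · exact hc.comp continuousOn_fst (fun p hp => hp.1)
  · exact ((ww_continuous n k).comp continuous_snd).continuousOn

lemma AA_LL {c : X → ℝ} {Z : Set X} {K : ℝ} {z : X} (hK : 0 ≤ K) (hc : LL K c Z z) (n k : ℕ)
    (R : Set ℝ) (r : ℝ) : LL (max K (4 * n + 4)) (AA c n k) (Z ×ˢ R) (z, r) := by
  have h1 : LL K (fun p : X × ℝ => c p.1) (Z ×ˢ R) (z, r) := by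
    have h2 : Tendsto (fun p : X × ℝ => p.1) (𝓝[Z ×ˢ R] (z, r)) (𝓝[Z] z) :=
      tendsto_nhdsWithin_iff.2 ⟨continuous_fst.continuousWithinAt, by
        filter_upwards [self_mem_nhdsWithin] with p hp using hp.1⟩
    filter_upwards [h2.eventually hc] with p hp
    refine hp.trans (mul_le_mul_of_nonneg_left ?_ hK)
    rw [Prod.dist_eq]
    exact le_max_left _ _
  have h2 : LL (4 * n + 4) (fun p : X × ℝ => ww n k p.2) (Z ×ˢ R) (z, r) := by
    refine Filter.Eventually.of_forall fun p => ?_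
    refine (ww_lip n k _ _).trans (mul_le_mul_of_nonneg_left ?_ (by positivity))
    rw [Prod.dist_eq, ← Real.dist_eq]
    exact le_max_right _ _
  exact LL.min (h1.mono (le_max_left _ _)) (h2.mono (le_max_right _ _))

end ConeLL

end Crest.Agent.R096.Pc_117
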