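/-
helper955, row 96: the constants of the recursion (199 Nu1 `Kn`, Nu5 `C𝒦`) are antitone in the
squeezing numbers `b` and monotone in `K₀`, `A`, `ε` (337 #10480: `b n → 1/2` after `e`).
-/
import Mathlib
import Crest.Agent.R96.Nu8_199

set_option autoImplicit false

open Set Metric Filter Topology

namespace Crest.Agent.R096.Knm_955

open Crest.Agent.R96.Nu1_199 Crest.Agent.R96.Nu5_199

set_option linter.unusedSectionVars false

noncomputable section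

variable {K₀ K₁ A A' ε ε' : ℝ} {b b' : ℕ → ℝ}

theorem Kn_le (hK : 0 ≤ K₀) (hK1 : K₀ ≤ K₁) (hA : 0 ≤ A) (hA1 : A ≤ A') (hε : ε ≤ ε')
    (hε1 : ε' < 1) (hb : ∀ n, 0 < b' n) (hb1 : ∀ n, b' n ≤ b n) :
    ∀ n, Kn K₀ A ε b n ≤ Kn K₁ A' ε' b' n
  | 0 => hK1
  | n + 1 => by
    have h1 := Kn_le hK hK1 hA hA1 hε hε1 hb hb1 n
    have h2 : 0 < b' n := hb n
    have h3 : 0 < b n := h2.trans_le (hb1 n)
    have h4 := hb1 n
    have h5 : 0 ≤ Kn K₀ A ε b n := Kn_nonneg hK (fun n => (hb n).trans_le (hb1 n)) n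
    have h6 : 0 ≤ Kn K₁ A' ε' b' n := h5.trans h1
    rw [Kn_succ, Kn_succ]
    refine max_le_max ?_ (max_le_max ?_ ?_)
    · exact div_le_div₀ h6 h1 (by positivity) (by linarith)
    · exact div_le_div₀ (hA.trans hA1) hA1 (by linarith) (by linarith)
    · refine mul_le_mul (div_le_div₀ (by linarith) (by linarith) (by positivity) (by linarith))
        (max_le_max h1 le_rfl) (le_max_of_le_right (by norm_num)) ?_
      have : 0 ≤ A' := hA.trans hA1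
      positivity

/-- the constant at `b` is at most the constant at `1/4` as soon as `1/4 ≤ b n` -/
theorem Kn_le_quarter (hK : 0 ≤ K₀) (hA : 0 ≤ A) (hε : ε ≤ ε') (hε1 : ε' < 1)
    (hb : ∀ n, 1/4 ≤ b n) (n : ℕ) : Kn K₀ A ε b n ≤ Kn K₀ A ε' (fun _ => 1/4) n :=
  Kn_le hK le_rfl hA le_rfl hε hε1 (fun _ => by norm_num) hb n

variable {E : Type*} [NormedAddCommGroup E] [NormedSpace ℝ E] [FiniteDimensional ℝ E]

theorem C𝒦_le (hK : 0 ≤ K₀) (hK1 : K₀ ≤ K₁) (hε : ε ≤ ε') (hε1 : ε' < 1) (hb : ∀ n, 0 < b' n)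
    (hb1 : ∀ n, b' n ≤ b n) (m : ℕ) (𝒦 : Set (Set E)) :
    C𝒦 K₀ ε b m 𝒦 ≤ C𝒦 K₁ ε' b' m 𝒦 := by
  have h2 := A𝒦_pos m 𝒦
  unfold C𝒦
  exact mul_le_mul_of_nonneg_right
    (Kn_le hK hK1 zero_le_one le_rfl hε hε1 hb hb1 (m + 1)) (by positivity)

/-- **the constant of a shape for all squeezing numbers `1/4 ≤ b n` is at most the one at `1/4`** -/
theorem C𝒦_le_quarter (hK : 0 ≤ K₀) (hε : ε ≤ ε') (hε1 : ε' < 1) (hb : ∀ n, 1/4 ≤ b n) (m : ℕ)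
    (𝒦 : Set (Set E)) : C𝒦 K₀ ε b m 𝒦 ≤ C𝒦 K₀ ε' (fun _ => 1/4) m 𝒦 :=
  C𝒦_le hK le_rfl hε hε1 (fun _ => by norm_num) hb m 𝒦

end

end Crest.Agent.R096.Knm_955
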