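/-
helper955, row 96, NUMBERS with a LOCAL base constant (112 #10580 (A)): `K₀ : Q → ℝ` monotone.
Everything is 199's Nu1 with `Kn (K₀ q)` in the cell `q`: a cell none of whose faces lies in the given
part `R` has `K₀ q = 0`, so its constants do not see the exact cores (no constant of the foam).
-/
import Mathlib
import Crest.Agent.R096.Knm1_955

set_option autoImplicit false

open Set Metric Filter Topology

namespace Crest.Agent.R096.Nk_955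

open Crest.Agent.R096.Ce_537 Crest.Agent.R096.Bd_416 Crest.Agent.R96.Nu1_199
open Crest.Agent.R096.Knm_955

open scoped Classical

set_option linter.unusedSectionVars false

noncomputable section

variable {Q : Type} [PartialOrder Q] {dim : Q → ℕ} {J Fam : Type}
variable {E : Type*} [NormedAddCommGroup E] [NormedSpace ℝ E]
variable {C : Cmb Q dim J Fam} {K : Q → Set E} {Ω : Set E}
variable {R : Set Q} {g0 : Gd E J} {P0 : ∀ q, C.I q → Set E} {c0 : ∀ q, C.I q → E → ℝ}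
variable {K₁ A ε : ℝ} {K₀ : Q → ℝ} {b : ℕ → ℝ} {wt : J → ℝ}

/-- the base constant may be changed -/
theorem num_k {ω δ Lf Lg : Q → ℝ} (N : Num C R wt K₁ A ε b ω δ Lf Lg) {K₂ : ℝ} (h : 0 ≤ K₂) :
    Num C R wt K₂ A ε b ω δ Lf Lg :=
  ⟨N.w0, N.b0, N.b2, N.e0, N.e1, N.A0, h, N.ω0, N.δ0, N.f0, N.g0, N.face, N.own⟩

section frames

variable {Y : Type*} [PseudoMetricSpace Y] {δ : Q → ℝ} {ω Lf Lg : (E → Y) → Q → ℝ}

/-- the Lipschitz numbers in the frames, local base constant -/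
def LamBk (K₀ : Q → ℝ) (A ε : ℝ) (b : ℕ → ℝ) (ω : (E → Y) → Q → ℝ) (n : ℕ) (q : Q) (B : E → Y) :
    ℝ := Kn (K₀ q) A ε b n * ω B q

theorem LamBk_eq (K₀ : Q → ℝ) (A ε : ℝ) (b : ℕ → ℝ) (ω : (E → Y) → Q → ℝ) (n : ℕ) (q : Q)
    (B : E → Y) : LamBk K₀ A ε b ω n q B = LamB (K₀ q) A ε b ω n q B := rfl

/-- **THE NUMBERS IN THE ALL-CONE MESH**, in frames, local base constant. -/
theorem mesh_num_k (B0 : E → Y) (X : Cplx Ω Q dim K)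
    (N : ∀ B, Num C R wt K₁ A ε b (ω B) δ (Lf B) (Lg B))
    (hK : ∀ q, 0 ≤ K₀ q) (hKm : ∀ σ τ : Q, σ < τ → K₀ σ ≤ K₀ τ)
    (hR : ∀ q ∈ R, ∀ p < q, p ∈ R) (H0 : Inv C K R g0 P0 c0)
    (Fr : Q → Set (E → Y)) (hFr : ∀ {σ τ : Q}, σ < τ → Fr τ ⊆ Fr σ)
    (hΛR : ∀ q ∈ R, ∀ B ∈ Fr q, ∀ x, ∀ z ∈ K q,
      LB B (K₀ q * ω B q / wt (C.col q x)) (c0 q x) (K q) z)
    (e : ∀ τ, 1 ≤ dim τ → PLEquiv (cube (dim τ)) (K τ))
    (he : ∀ τ ∉ R, ∀ hd : 1 ≤ dim τ, (e τ hd).f '' sph (dim τ) = bdS K τ)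
    (hef : ∀ τ ∉ R, ∀ hd : 1 ≤ dim τ, ∀ B ∈ Fr τ, ∀ v ∈ sph (dim τ),
      MB id B (Lf B τ) (e τ hd).f (sph (dim τ)) v)
    (heg : ∀ τ ∉ R, ∀ hd : 1 ≤ dim τ, ∀ B ∈ Fr τ, ∀ z ∈ K τ,
      MB B id (Lg B τ) (e τ hd).g (K τ) z)
    (k : ∀ τ, C.I τ → ℕ) (hk : ∀ τ ∉ R, dim τ = 1 → Function.Injective (k τ))
    (ord : ∀ τ ∉ R, dim τ = 1 → ∀ x x', x ≠ x' → C.fam (C.col τ x) = C.fam (C.col τ x') →
      (k τ x' < k τ x → C.side τ x x' = 1) ∧ (k τ x < k τ x' → C.side τ x x' = 0))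
    (Rl : (∀ q, C.I q → E → ℝ) → ∀ τ, C.I τ → C.I τ → Prop)
    (hRl : ∀ D g P c (_ : Inv C K D g P c) τ, 2 ≤ dim τ → (∀ σ < τ, σ ∈ D) →
      ∃ kk : C.I τ → ℕ, Function.Injective kk ∧ ∀ x x', Rl c τ x x' → kk x' < kk x)
    (hRI : ∀ c τ x x', Ins C K c τ x x' → Rl c τ x x')
    (Spec : ∀ q, Lam (K q) (C.I q) → Prop)
    (hS0 : ∀ τ ∉ R, dim τ = 0 → ∀ M, Spec τ M)
    (hS1 : ∀ τ ∉ R, dim τ = 1 → ∀ (e : PLEquiv (cube 1) (K τ)), e.f '' sph 1 = bdS K τ →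
      e.f (fun _ => -1) ∈ K (C.o τ) → ∀ (p : C.I τ → ℝ)
      (hE : Ed (fun i => 4 * (1 - ε) * uq C wt δ τ * wt (C.col τ i)) p),
      (∀ i j, k τ j < k τ i → p j < p i) → Spec τ ((edgeLam hE).pull e.symm (X.isClosed τ)))
    (hS2 : ∀ D g P c (H : Inv C K D g P c), ∀ τ, (hd : 2 ≤ dim τ) →
      (∀ q ∈ D, Trk C K R g0 P0 c0 b Spec Fr wt (LamBk K₀ A ε b ω) (dim τ) q g (P q) (c q)) →
      ∀ hR : τ ∉ R, ∀ (hτ : ∀ σ < τ, σ ∈ D) (κ : ℝ) (ρ : C.I τ → ℝ)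
      (Dp : Dep (bdLam H X τ hτ) κ (b (dim τ)) (fun x => uq C wt δ τ * wt (C.col τ x)) ρ),
      (∀ x x', Rl c τ x x' → ρ x' < ρ x) →
      Spec τ (Dp.fillBall (e τ (by omega)) (he τ hR (by omega))))
    (n : ℕ) : ∃ g P c, Inv C K (R ∪ {q | dim q < n}) g P c ∧
      ∀ q ∈ R ∪ {q | dim q < n}, Trk C K R g0 P0 c0 b Spec Fr wt (LamBk K₀ A ε b ω) n q g
        (P q) (c q) := by
  have N0 := N B0
  have Nq : ∀ q B, Num C R wt (K₀ q) A ε b (ω B) δ (Lf B) (Lg B) := fun q B => num_k (N B) (hK q)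
  exact mesh_cone X hR H0 N0.b0 N0.b2 N0.w0 Fr (fun n q B _ => (Nq q B).lam0 n q)
    (fun n q B _ => (Nq q B).lamS n q) hFr hΛR N0.e0 N0.e1 (uq C wt δ) N0.u0
    (fun τ _ => N0.uS τ) (fun τ B => Lf B τ) (fun τ B => Lg B τ) (fun τ B _ => ((N B).f0 τ).le)
    e he hef heg k hk ord (fun τ hτ hd B _ => (Nq τ B).lam1 τ hτ hd)
    (fun τ B => Bbq X R (K₀ τ) A ε b (ω B) (Lf B) (Lg B) τ)
    (fun τ _ h2 B _ σ hσ => by
      refine le_trans ?_ ((Nq τ B).Bb_le X τ h2 σ hσ)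
      exact mul_le_mul_of_nonneg_right (Kn_le (hK σ) (hKm σ τ hσ) N0.A0 le_rfl le_rfl N0.e1 N0.b0
        (fun _ => le_rfl) _) ((N B).ω0 σ))
    (fun τ hτ h2 B _ => (Nq τ B).lam2 X τ hτ h2) Rl hRl hRI Spec hS0 hS1 hS2 n

/-- the family functions of the final structure -/
theorem LB_family_k (N : ∀ B, Num C R wt K₁ A ε b (ω B) δ (Lf B) (Lg B)) (hK : ∀ q, 0 ≤ K₀ q)
    {n : ℕ} {D : Set Q}
    {g : Gd E J} {P : ∀ q, C.I q → Set E} {c : ∀ q, C.I q → E → ℝ} (H : Inv C K D g P c)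
    {Spec : ∀ q, Lam (K q) (C.I q) → Prop} {Fr : Q → Set (E → Y)}
    (hT : ∀ q ∈ D, Trk C K R g0 P0 c0 b Spec Fr wt (LamBk K₀ A ε b ω) n q g (P q) (c q))
    {q : Q} (hq : q ∈ D) {B : E → Y} (hB : B ∈ Fr q) (T : Finset J)
    (hTf : ∀ j ∈ T, ∀ j' ∈ T, C.fam j = C.fam j') {z : E} (hz : z ∈ K q) :
    LB B (Kn (K₀ q) A ε b n * ω B q) (fun w => ∑ j ∈ T, wt j * g.G j w) (K q) z :=
  H.LB_fam wt (N B).w0 hq T hTf hz ((num_k (N B) (hK q)).lam0 n q) fun x => (hT q hq).ll B hB x z hz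

end frames

end

end Crest.Agent.R096.Nk_955
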