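/-
helper955, row 96, NUMBERS with a LOCAL base constant (112 #10580 (A)), part 2: 199's Nu6 / Nu7
(`mesh_shape`, `lam_tile`, `tile_piece`, `tile_fam`) with `K₀ : Q → ℝ` monotone.
-/
import Mathlib
import Crest.Agent.R096.Nk1_955

set_option autoImplicit false

open Set Metric Filter Topology

namespace Crest.Agent.R096.Nk_955

open Crest.Agent.R096.Ce_537 Crest.Agent.R096.Bd_416 Crest.Agent.R96.Nu1_199
open Crest.Agent.R96.Nu2_199 Crest.Agent.R96.Nu3_199 Crest.Agent.R96.Nu4_199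
open Crest.Agent.R96.Nu5_199 Crest.Agent.R96.Nu6_199 Crest.Agent.R96.Nu7_199
open Crest.Agent.R096.Knm_955

open scoped Classical

set_option linter.unusedSectionVars false

noncomputable section

variable {E : Type*} [NormedAddCommGroup E] [NormedSpace ℝ E] [FiniteDimensional ℝ E]
variable {Q : Type} [PartialOrder Q] {dim : Q → ℕ} {J Fam : Type}
variable {C : Cmb Q dim J Fam} {K : Q → Set E} {Ω : Set E}
variable {R : Set Q} {K₀ : Q → ℝ} {ε : ℝ} {b : ℕ → ℝ} {wt : J → ℝ} {δ : Q → ℝ}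
variable {g0 : Gd E J} {P0 : ∀ q, C.I q → Set E} {c0 : ∀ q, C.I q → E → ℝ}

/-- the numbers of the mesh: `Kn (K₀ q) n * omB B q` -/
abbrev LamSk (X : Cplx Ω Q dim K) (C : Cmb Q dim J Fam) (K₀ : Q → ℝ) (ε : ℝ) (b : ℕ → ℝ)
    (wt : J → ℝ) (δ : Q → ℝ) : ℕ → Q → (E → E) → ℝ :=
  LamBk K₀ 1 ε b (fun B q => omB X C wt δ B q)

theorem LamSk_eq (X : Cplx Ω Q dim K) (n : ℕ) (q : Q) (B : E → E) :
    LamSk X C K₀ ε b wt δ n q B = LamS X C (K₀ q) ε b wt δ n q B := rfl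

/-- **one frame is enough**: 199's form of the base gives the form with all frames -/
theorem base_frame (X : Cplx Ω Q dim K) (hconv : ∀ τ, Convex ℝ (K τ))
    (hcpt : ∀ τ, IsCompact (K τ)) (hbd : ∀ τ, bdS K τ = K τ \ ri (K τ))
    (hw : ∀ j, 0 < wt j) (hδ : ∀ q, 0 < δ q) {q : Q} {κ : ℝ} {c : C.I q → E → ℝ}
    (h : ∃ (A : E ≃ᵃ[ℝ] E) (L : ℝ), 0 ≤ L ∧ L * AAc (dim q) (A '' K q) ≤ κ ∧
      ∀ x, ∀ z ∈ K q, LB A (L * (Wd C wt q + δ q) / wt (C.col q x)) (c x) (K q) z)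
    (B : E ≃ᵃ[ℝ] E) (x : C.I q) {z : E} (hz : z ∈ K q) :
    LB B (κ * AAc (dim q) (B '' K q) * (Wd C wt q + δ q) / wt (C.col q x)) (c x) (K q) z := by
  obtain ⟨A, L, hL, hLK, hA⟩ := h
  have hb : IsBall (dim q) (K q) (K q \ ri (K q)) := by
    rw [← hbd]; exact X.isBall q
  have hwx := hw (C.col q x)
  have hW : 0 ≤ Wd C wt q + δ q := by
    have h1 := Wd_nonneg (C := C) hw q
    have h2 := hδ q
    linarith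
  have h1 := Crest.Agent.R96.Nu5_199.LB.frame (hconv q) (hcpt q) hb.nonempty hb A B hz (by positivity) (hA x z hz)
  refine h1.mono ?_
  rw [div_mul_eq_mul_div]
  refine div_le_div_of_nonneg_right ?_ hwx.le
  calc L * (Wd C wt q + δ q) * (AAc (dim q) (A '' K q) * AAc (dim q) (B '' K q))
      = (L * AAc (dim q) (A '' K q)) * (AAc (dim q) (B '' K q) * (Wd C wt q + δ q)) := by ring
    _ ≤ κ * (AAc (dim q) (B '' K q) * (Wd C wt q + δ q)) :=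
        mul_le_mul_of_nonneg_right hLK (mul_nonneg (AAc_pos _ _).le hW)
    _ = _ := by ring

/-- **THE MESH, ALL FRAMES AT ONCE, LOCAL BASE CONSTANT** (112 #10580: base in the form
`K₀ q * AAc (dim q) (B '' K q) * (Wd + δ) / wt` for all frames `B`; 199's form: `base_frame`). -/
theorem mesh_shape_k (X : Cplx Ω Q dim K)
    (hw : ∀ j, 0 < wt j) (hb0 : ∀ n, 0 < b n) (hb2 : ∀ n, b n < 1/2) (hε0 : 0 < ε) (hε1 : ε < 1)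
    (hK : ∀ q, 0 ≤ K₀ q) (hKm : ∀ σ τ : Q, σ < τ → K₀ σ ≤ K₀ τ) (hδ : ∀ q, 0 < δ q)
    (hR : ∀ q ∈ R, ∀ p < q, p ∈ R) (H0 : Inv C K R g0 P0 c0)
    (hbase : ∀ q ∈ R, ∀ B : E ≃ᵃ[ℝ] E, ∀ x, ∀ z ∈ K q,
      LB B (K₀ q * AAc (dim q) (B '' K q) * (Wd C wt q + δ q) / wt (C.col q x)) (c0 q x) (K q) z)
    (e : ∀ τ, 1 ≤ dim τ → PLEquiv (cube (dim τ)) (K τ))
    (he : ∀ τ, ∀ hd : 1 ≤ dim τ, (e τ hd).f '' sph (dim τ) = bdS K τ)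
    (hef : ∀ τ, ∀ hd : 1 ≤ dim τ, ∀ B ∈ FrA E, ∀ v ∈ cube (dim τ),
      MB id B (AAc (dim τ) (B '' K τ)) (e τ hd).f (cube (dim τ)) v)
    (heg : ∀ τ, ∀ hd : 1 ≤ dim τ, ∀ B ∈ FrA E, ∀ z ∈ K τ,
      MB B id (AAc (dim τ) (B '' K τ)) (e τ hd).g (K τ) z)
    (k : ∀ τ, C.I τ → ℕ) (hk : ∀ τ ∉ R, dim τ = 1 → Function.Injective (k τ))
    (ord : ∀ τ ∉ R, dim τ = 1 → ∀ x x', x ≠ x' → C.fam (C.col τ x) = C.fam (C.col τ x') →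
      (k τ x' < k τ x → C.side τ x x' = 1) ∧ (k τ x < k τ x' → C.side τ x x' = 0))
    (Rl : (∀ q, C.I q → E → ℝ) → ∀ τ, C.I τ → C.I τ → Prop)
    (hRl : ∀ D g P c (_ : Inv C K D g P c) τ, 2 ≤ dim τ → (∀ σ < τ, σ ∈ D) →
      ∃ kk : C.I τ → ℕ, Function.Injective kk ∧ ∀ x x', Rl c τ x x' → kk x' < kk x)
    (hRI : ∀ c τ x x', Ins C K c τ x x' → Rl c τ x x')
    (Spec : ∀ q, Lam (K q) (C.I q) → Prop)
    (hS0 : ∀ τ ∉ R, dim τ = 0 → ∀ M, Spec τ M)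
    (hS1 : ∀ τ ∉ R, dim τ = 1 → ∀ (e : PLEquiv (cube 1) (K τ)), e.f '' sph 1 = bdS K τ →
      e.f (fun _ => -1) ∈ K (C.o τ) → ∀ (p : C.I τ → ℝ)
      (hE : Ed (fun i => 4 * (1 - ε) * uq C wt δ τ * wt (C.col τ i)) p),
      (∀ i j, k τ j < k τ i → p j < p i) → Spec τ ((edgeLam hE).pull e.symm (X.isClosed τ)))
    (hS2 : ∀ D g P c (H : Inv C K D g P c), ∀ τ, (hd : 2 ≤ dim τ) →
      (∀ q ∈ D, Trk C K R g0 P0 c0 b Spec (fun _ => FrA E) wt (LamSk X C K₀ ε b wt δ) (dim τ) q g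
        (P q) (c q)) →
      ∀ _ : τ ∉ R, ∀ (hτ : ∀ σ < τ, σ ∈ D) (κ : ℝ) (ρ : C.I τ → ℝ)
      (Dp : Dep (bdLam H X τ hτ) κ (b (dim τ)) (fun x => uq C wt δ τ * wt (C.col τ x)) ρ),
      (∀ x x', Rl c τ x x' → ρ x' < ρ x) →
      Spec τ (Dp.fillBall (e τ (by omega)) (he τ (by omega))))
    (n : ℕ) : ∃ g P c, Inv C K (R ∪ {q | dim q < n}) g P c ∧
      ∀ q ∈ R ∪ {q | dim q < n}, Trk C K R g0 P0 c0 b Spec (fun _ => FrA E) wt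
        (LamSk X C K₀ ε b wt δ) n q g (P q) (c q) := by
  refine mesh_num_k (fun x => x) X (ω := fun B q => omB X C wt δ B q)
    (Lf := fun B τ => AAc (dim τ) (B '' K τ)) (Lg := fun B τ => AAc (dim τ) (B '' K τ)) (K₁ := 0)
    (fun B => num_omB X hw hb0 hb2 hε0 hε1 le_rfl hδ B) hK hKm hR H0 (fun _ => FrA E)
    (fun _ => Subset.rfl) ?_ e (fun τ _ hd => he τ hd)
    (fun τ _ hd B hB v hv => ?_) (fun τ _ hd B hB z hz => heg τ hd B hB z hz) k hk ord Rl hRl hRI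
    Spec hS0 hS1 hS2 n
  · -- the base
    rintro q hq _ ⟨B, rfl⟩ x z hz
    refine (hbase q hq B x z hz).mono ?_
    refine div_le_div_of_nonneg_right ?_ (hw _).le
    rw [mul_assoc]
    exact mul_le_mul_of_nonneg_left (omB_ge (C := C) X hw hδ (B : E → E) q) (hK q)
  · exact (hef τ hd B hB v (sph_subset_cube hv)).filter_mono
      (nhdsWithin_mono _ fun _ h => sph_subset_cube h)

/-- the same with 199's form of the base (one frame) -/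
theorem mesh_shape_kA (X : Cplx Ω Q dim K) (hconv : ∀ τ, Convex ℝ (K τ))
    (hcpt : ∀ τ, IsCompact (K τ)) (hbd : ∀ τ, bdS K τ = K τ \ ri (K τ))
    (hw : ∀ j, 0 < wt j) (hb0 : ∀ n, 0 < b n) (hb2 : ∀ n, b n < 1/2) (hε0 : 0 < ε) (hε1 : ε < 1)
    (hK : ∀ q, 0 ≤ K₀ q) (hKm : ∀ σ τ : Q, σ < τ → K₀ σ ≤ K₀ τ) (hδ : ∀ q, 0 < δ q)
    (hR : ∀ q ∈ R, ∀ p < q, p ∈ R) (H0 : Inv C K R g0 P0 c0)
    (hbase : ∀ q ∈ R, ∃ (A : E ≃ᵃ[ℝ] E) (L : ℝ), 0 ≤ L ∧ L * AAc (dim q) (A '' K q) ≤ K₀ q ∧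
      ∀ x, ∀ z ∈ K q, LB A (L * (Wd C wt q + δ q) / wt (C.col q x)) (c0 q x) (K q) z)
    (e : ∀ τ, 1 ≤ dim τ → PLEquiv (cube (dim τ)) (K τ))
    (he : ∀ τ, ∀ hd : 1 ≤ dim τ, (e τ hd).f '' sph (dim τ) = bdS K τ)
    (hef : ∀ τ, ∀ hd : 1 ≤ dim τ, ∀ B ∈ FrA E, ∀ v ∈ cube (dim τ),
      MB id B (AAc (dim τ) (B '' K τ)) (e τ hd).f (cube (dim τ)) v)
    (heg : ∀ τ, ∀ hd : 1 ≤ dim τ, ∀ B ∈ FrA E, ∀ z ∈ K τ,
      MB B id (AAc (dim τ) (B '' K τ)) (e τ hd).g (K τ) z)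
    (k : ∀ τ, C.I τ → ℕ) (hk : ∀ τ ∉ R, dim τ = 1 → Function.Injective (k τ))
    (ord : ∀ τ ∉ R, dim τ = 1 → ∀ x x', x ≠ x' → C.fam (C.col τ x) = C.fam (C.col τ x') →
      (k τ x' < k τ x → C.side τ x x' = 1) ∧ (k τ x < k τ x' → C.side τ x x' = 0))
    (Rl : (∀ q, C.I q → E → ℝ) → ∀ τ, C.I τ → C.I τ → Prop)
    (hRl : ∀ D g P c (_ : Inv C K D g P c) τ, 2 ≤ dim τ → (∀ σ < τ, σ ∈ D) →
      ∃ kk : C.I τ → ℕ, Function.Injective kk ∧ ∀ x x', Rl c τ x x' → kk x' < kk x)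
    (hRI : ∀ c τ x x', Ins C K c τ x x' → Rl c τ x x')
    (Spec : ∀ q, Lam (K q) (C.I q) → Prop)
    (hS0 : ∀ τ ∉ R, dim τ = 0 → ∀ M, Spec τ M)
    (hS1 : ∀ τ ∉ R, dim τ = 1 → ∀ (e : PLEquiv (cube 1) (K τ)), e.f '' sph 1 = bdS K τ →
      e.f (fun _ => -1) ∈ K (C.o τ) → ∀ (p : C.I τ → ℝ)
      (hE : Ed (fun i => 4 * (1 - ε) * uq C wt δ τ * wt (C.col τ i)) p),
      (∀ i j, k τ j < k τ i → p j < p i) → Spec τ ((edgeLam hE).pull e.symm (X.isClosed τ)))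
    (hS2 : ∀ D g P c (H : Inv C K D g P c), ∀ τ, (hd : 2 ≤ dim τ) →
      (∀ q ∈ D, Trk C K R g0 P0 c0 b Spec (fun _ => FrA E) wt (LamSk X C K₀ ε b wt δ) (dim τ) q g
        (P q) (c q)) →
      ∀ _ : τ ∉ R, ∀ (hτ : ∀ σ < τ, σ ∈ D) (κ : ℝ) (ρ : C.I τ → ℝ)
      (Dp : Dep (bdLam H X τ hτ) κ (b (dim τ)) (fun x => uq C wt δ τ * wt (C.col τ x)) ρ),
      (∀ x x', Rl c τ x x' → ρ x' < ρ x) →
      Spec τ (Dp.fillBall (e τ (by omega)) (he τ (by omega))))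
    (n : ℕ) : ∃ g P c, Inv C K (R ∪ {q | dim q < n}) g P c ∧
      ∀ q ∈ R ∪ {q | dim q < n}, Trk C K R g0 P0 c0 b Spec (fun _ => FrA E) wt
        (LamSk X C K₀ ε b wt δ) n q g (P q) (c q) :=
  mesh_shape_k X hw hb0 hb2 hε0 hε1 hK hKm hδ hR H0
    (fun q hq B x z hz => base_frame X hconv hcpt hbd hw hδ (hbase q hq) B x hz)
    e he hef heg k hk ord Rl hRl hRI Spec hS0 hS1 hS2 n

/-- **THE CONSTANT OF A TILE IN A FRAME**: `m = dim q` the top dimension, `𝒦` the configuration in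
the frame `B`. -/
theorem lam_tile_k (X : Cplx Ω Q dim K) (hw : ∀ j, 0 < wt j) (hb0 : ∀ n, 0 < b n)
    (hK : ∀ q, 0 ≤ K₀ q)
    (hδ : ∀ q, 0 < δ q) {m : ℕ} {q : Q} (hq : 2 ≤ dim q) (hm : dim q ≤ m) {B : E ≃ᵃ[ℝ] E}
    {𝒦 : Set (Set E)} (h𝒦 : 𝒦.Finite) (hB : ∀ σ ≤ q, B '' K σ ∈ 𝒦)
    (hinj : ∀ σ ≤ q, ∀ σ' ≤ q, K σ = K σ' → σ = σ') {d : ℝ} (hd : ∀ σ ≤ q, δ σ ≤ d)
    (hne : ∀ σ ≤ q, 2 ≤ dim σ → ∀ x : C.I σ, ∃ e, ∃ h : e < σ, dim e = 1 ∧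
      ∃ y : C.I e, C.up h y = x) :
    LamSk X C K₀ ε b wt δ (m + 1) q B ≤
      C𝒦 (K₀ q) ε b m 𝒦 * (∑ e ∈ edg X q, Wd C wt e + d) :=
  lam_tile (K₀ := K₀ q) X hw hb0 (hK q) hδ hq hm h𝒦 hB hinj hd hne

/-- **THE PIECES OF A TILE IN A FRAME** (`C = 2 * C𝒦 (K₀ q)`, no tolerance) -/
theorem tile_piece_k (X : Cplx Ω Q dim K) (hw : ∀ j, 0 < wt j) (hb0 : ∀ n, 0 < b n)
    (hK : ∀ q, 0 ≤ K₀ q)
    (hδ : ∀ q, 0 < δ q) (hδ2 : ∀ q, 0 < WE X C wt q → ∀ σ ≤ q, δ σ ≤ WE X C wt q)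
    {m : ℕ} {q : Q} (hq : 2 ≤ dim q) (hm : dim q ≤ m) {B : E ≃ᵃ[ℝ] E}
    {𝒦 : Set (Set E)} (h𝒦 : 𝒦.Finite) (hB : ∀ σ ≤ q, B '' K σ ∈ 𝒦)
    (hinj : ∀ σ ≤ q, ∀ σ' ≤ q, K σ = K σ' → σ = σ')
    (hne : ∀ σ ≤ q, 2 ≤ dim σ → ∀ x : C.I σ, ∃ e, ∃ h : e < σ, dim e = 1 ∧
      ∃ y : C.I e, C.up h y = x)
    {Spec : ∀ q, Lam (K q) (C.I q) → Prop} {g : Gd E J} {P : C.I q → Set E} {c : C.I q → E → ℝ}
    (hT : Trk C K R g0 P0 c0 b Spec (fun _ => FrA E) wt (LamSk X C K₀ ε b wt δ) (m + 1) q g P c)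
    (x : C.I q) {z : E} (hz : z ∈ K q) :
    LB B (2 * C𝒦 (K₀ q) ε b m 𝒦 * WE X C wt q / wt (C.col q x)) (c x) (K q) z := by
  have hW := WE_pos X hw (hne q le_rfl hq) x
  have h1 := hT.ll B ⟨B, rfl⟩ x z hz
  refine h1.mono (div_le_div_of_nonneg_right ?_ (hw _).le)
  have h2 := lam_tile_k (ε := ε) (K₀ := K₀) (b := b) X hw hb0 hK hδ hq hm h𝒦 hB hinj (hδ2 q hW) hne
  refine h2.trans (le_of_eq ?_)
  unfold WE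
  ring

/-- **THE FAMILIES OF A TILE IN A FRAME** -/
theorem tile_fam_k (X : Cplx Ω Q dim K) (hw : ∀ j, 0 < wt j) (hb0 : ∀ n, 0 < b n)
    (hK : ∀ q, 0 ≤ K₀ q)
    (hδ : ∀ q, 0 < δ q) (hδ2 : ∀ q, 0 < WE X C wt q → ∀ σ ≤ q, δ σ ≤ WE X C wt q)
    {m : ℕ} {q : Q} (hq : 2 ≤ dim q) (hm : dim q ≤ m) {B : E ≃ᵃ[ℝ] E}
    {𝒦 : Set (Set E)} (h𝒦 : 𝒦.Finite) (hB : ∀ σ ≤ q, B '' K σ ∈ 𝒦)
    (hinj : ∀ σ ≤ q, ∀ σ' ≤ q, K σ = K σ' → σ = σ')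
    (hne : ∀ σ ≤ q, 2 ≤ dim σ → ∀ x : C.I σ, ∃ e, ∃ h : e < σ, dim e = 1 ∧
      ∃ y : C.I e, C.up h y = x)
    {Spec : ∀ q, Lam (K q) (C.I q) → Prop} {D : Set Q} {g : Gd E J} {P : ∀ q, C.I q → Set E}
    {c : ∀ q, C.I q → E → ℝ} (H : Inv C K D g P c) (hqD : q ∈ D)
    (hT : Trk C K R g0 P0 c0 b Spec (fun _ => FrA E) wt (LamSk X C K₀ ε b wt δ) (m + 1) q g (P q)
      (c q)) (T : Finset J) (hTf : ∀ j ∈ T, ∀ j' ∈ T, C.fam j = C.fam j') {z : E}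
    (hz : z ∈ K q) :
    LB B (2 * C𝒦 (K₀ q) ε b m 𝒦 * WE X C wt q) (fun w => ∑ j ∈ T, wt j * g.G j w) (K q) z := by
  have h0 := C𝒦_nonneg (ε := ε) (hK q) hb0 m 𝒦
  have h1 := WE_nonneg (C := C) X hw q
  exact H.LB_fam wt hw hqD T hTf hz (by positivity) fun x =>
    tile_piece_k X hw hb0 hK hδ hδ2 hq hm h𝒦 hB hinj hne hT x hz

/-! ### the local constant of the given part -/

/-- `κ` on the cells which have a face in `R`, `0` on all other cells -/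
def K0f (R : Set Q) (κ : ℝ) (q : Q) : ℝ := if ∃ σ ≤ q, σ ∈ R then κ else 0

theorem K0f_nonneg {κ : ℝ} (h : 0 ≤ κ) (q : Q) : 0 ≤ K0f R κ q := by
  unfold K0f; split_ifs <;> [exact h; exact le_rfl]

theorem K0f_mono {κ : ℝ} (h : 0 ≤ κ) {σ τ : Q} (hσ : σ ≤ τ) : K0f R κ σ ≤ K0f R κ τ := by
  unfold K0f
  by_cases h1 : ∃ ρ ≤ σ, ρ ∈ R
  · obtain ⟨ρ, h2, h3⟩ := h1
    rw [if_pos ⟨ρ, h2, h3⟩, if_pos ⟨ρ, h2.trans hσ, h3⟩]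
  · rw [if_neg h1]
    split_ifs <;> [exact h; exact le_rfl]

theorem K0f_le {κ : ℝ} (h : 0 ≤ κ) (q : Q) : K0f R κ q ≤ κ := by
  unfold K0f; split_ifs <;> [exact le_rfl; exact h]

theorem K0f_of_mem {κ : ℝ} {q : Q} (h : q ∈ R) : K0f R κ q = κ := if_pos ⟨q, le_rfl, h⟩

theorem K0f_of_not {κ : ℝ} {q : Q} (h : ∀ σ ≤ q, σ ∉ R) : K0f R κ q = 0 :=
  if_neg fun ⟨σ, h1, h2⟩ => h σ h1 h2

end

end Crest.Agent.R096.Nk_955
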