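import Crest.Agent.R096.Mi1_117
import Crest.Agent.R096.Nk2_955

/-!
# R096 (row 96), MESH-INST, part 2 (helper117): **`mesh_inst`** = the recursion over a labelled mesh,
all frames at once, base given on `R`; output: `Inv` on all cells, all geometric facts (`MGeo`), the
tracked data (`Trk`, 955's numbers).
-/

set_option autoImplicit false
set_option linter.unusedSectionVars false

open Set Metric

namespace Crest.Agent.R096.Mi_117

open Crest.Agent.R096.Ce_537 Crest.Agent.R096.Bd_416 Crest.Agent.R096.Arc_778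
open Crest.Agent.R096.St_147 Crest.Agent.R096.Seq_213 Crest.Agent.R096.Lm_117
open Crest.Agent.R096.Cb_609 Crest.Agent.R096.Pl
open Crest.Agent.R96.Nu1_199 Crest.Agent.R96.Nu2_199 Crest.Agent.R96.Nu3_199
open Crest.Agent.R96.Nu4_199 Crest.Agent.R96.Nu5_199 Crest.Agent.R96.Nu6_199
open Crest.Agent.R096.Nk_955

open scoped Classical

variable {ι Φ W Q J Fm : Type} {M : MeshC ι Φ W} [PartialOrder Q] {dim : Q → ℕ}
variable {L : LM M Q dim} {fam : J → Fm} {s : GSt M fam}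
variable {E : Type*} [NormedAddCommGroup E] [NormedSpace ℝ E] [FiniteDimensional ℝ E]
variable {h : LF L s} {Lam : J → Q → ZMod 2} {hLam : ∀ j c, L.toSk.XL (gP s j) (Lam j) c}
variable {K : Q → Set E} {Ω : Set E} {R : Set Q} {g0 : Gd E J}
  {P0 : ∀ q, (cmb h Lam hLam).I q → Set E} {c0 : ∀ q, (cmb h Lam hLam).I q → E → ℝ}
  {K₀ δ : Q → ℝ} {ε : ℝ} {b : ℕ → ℝ} {wt : J → ℝ}

/-- the tracked data of the final structure -/
abbrev TrkL (X : Cplx Ω Q dim K) (R : Set Q) (g0 : Gd E J)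
    (P0 : ∀ q, (cmb h Lam hLam).I q → Set E) (c0 : ∀ q, (cmb h Lam hLam).I q → E → ℝ)
    (K₀ δ : Q → ℝ) (ε : ℝ) (b : ℕ → ℝ) (wt : J → ℝ) (g : Gd E J)
    (P : ∀ q, (cmb h Lam hLam).I q → Set E) (c : ∀ q, (cmb h Lam hLam).I q → E → ℝ) (q : Q) :
    Prop :=
  Trk (cmb h Lam hLam) K R g0 P0 c0 b (SpecG (cmb h Lam hLam) K (ek h)) (fun _ => FrA E) wt
    (LamSk X (cmb h Lam hLam) K₀ ε b wt δ) 4 q g (P q) (c q)

/-- **MESH-INST** -/
theorem mesh_inst (X : Cplx Ω Q dim K) (T : Top3 L) (hconv : ∀ τ, Convex ℝ (K τ))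
    (hcpt : ∀ τ, IsCompact (K τ)) (hbd : ∀ τ, bdS K τ = K τ \ ri (K τ))
    (hw : ∀ j, 0 < wt j) (hb0 : ∀ n, 0 < b n) (hb2 : ∀ n, b n < 1/2) (hε0 : 0 < ε) (hε1 : ε < 1)
    (hK : ∀ q, 0 ≤ K₀ q) (hKm : ∀ σ τ : Q, σ < τ → K₀ σ ≤ K₀ τ) (hδ : ∀ q, 0 < δ q)
    (hR : ∀ q ∈ R, ∀ p < q, p ∈ R) (H0 : Inv (cmb h Lam hLam) K R g0 P0 c0)
    (hbase : ∀ q ∈ R, ∀ B : E ≃ᵃ[ℝ] E, ∀ x, ∀ z ∈ K q,
      LB B (K₀ q * AAc (dim q) (B '' K q) * (Wd (cmb h Lam hLam) wt q + δ q) /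
        wt ((cmb h Lam hLam).col q x)) (c0 q x) (K q) z)
    (GR : GeoR (cmb h Lam hLam) K c0 R)
    (GO : ∀ e ∈ R, dim e = 1 → EdgeO (K e) (c0 e) (ek h e)) :
    ∃ g P c, Inv (cmb h Lam hLam) K univ g P c ∧ MGeo h Lam hLam K R c ∧
      ∀ q, TrkL X R g0 P0 c0 K₀ δ ε b wt g P c q := by
  obtain ⟨e, he, hef, heg⟩ := exists_e X hconv hcpt hbd
  obtain ⟨g, P, c, H, hT⟩ := mesh_shape_k (C := cmb h Lam hLam) X hw hb0 hb2 hε0 hε1 hK hKm hδ hR
    H0 hbase e he hef heg (ek h) (fun τ _ hd => ek_inj h τ hd)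
    (fun τ _ hd x x' hne _ => cmb_ord h Lam hLam τ hd x x' hne)
    (fun c τ => RlG (cmb h Lam hLam) K c τ)
    (fun D g P c H τ hd hτ => rlG_rank X D g P c H τ hd hτ)
    (fun c τ x x' h' => rlG_ins c τ x x' h')
    (SpecG (cmb h Lam hLam) K (ek h)) (fun τ _ hd M' => specG0 hd M')
    (fun τ _ hd e he hb p hE hord => specG1 X hd e he hb hE hord)
    (fun D g P c H τ hd _ _ hτ κ ρ Dp hρ => specG2 H X hd hτ Dp hρ _ _) 4
  have hall : ∀ q, q ∈ R ∪ {q | dim q < 4} := fun q => Or.inr (by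
    have := T.dim_le q
    show dim q < 4
    omega)
  have hU : R ∪ {q | dim q < 4} = univ := eq_univ_of_forall hall
  rw [hU] at H
  exact ⟨g, P, c, H, mgeo_of_trk X T H hb0 (fun _ _ h' => h') (fun q => hT q (hall q)) GR GO,
    fun q => hT q (hall q)⟩

end Crest.Agent.R096.Mi_117
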