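import Crest.Agent.R096.Be6_416
import Crest.Agent.R096.Mi2_117
import Crest.Agent.R096.SkB1b_662

/-!
# R096 (row 96), P4-MESH (helper416): MESH-INST with the base of all cores

* `eqAt_sqs` : iterated squeeze of equal data.
* `mesh_inst_B` : 117's `mesh_inst` from ONE hypothesis `BaseC` on the base, errors `δ` chosen.
* `mesh_inst_cores` : the same for a family of cores (`BaseC` for each), with `eqR` core by core.
* `StO.mesh` : for the final state of 662.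
-/

set_option autoImplicit false

open Set Metric Filter Topology

namespace Crest.Agent.R096.Be_416

open Crest.Agent.R096.Ce_537 Crest.Agent.R096.Bd_416 Crest.Agent.R096.Arc_778
open Crest.Agent.R096.St_147 Crest.Agent.R096.Seq_213 Crest.Agent.R096.Lm_117
open Crest.Agent.R96.Nu1_199 Crest.Agent.R96.Nu3_199 Crest.Agent.R96.Nu5_199
open Crest.Agent.R96.Nu6_199 Crest.Agent.R96.Nu7_199
open Crest.Agent.R096.Nk_955 Crest.Agent.R096.Mi_117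

set_option linter.unusedSectionVars false

/-- iterated squeeze of equal data -/
theorem eqAt_sqs {V : Type*} [NormedAddCommGroup V] [NormedSpace ℝ V] {J : Type*} {g g' : Gd V J}
    {z : V} (h : EqAt g g' z) {b : ℕ → ℝ} (hb0 : ∀ n, 0 < b n) (hb2 : ∀ n, b n < 1/2) :
    ∀ n, EqAt (sqs g b n) (sqs g' b n) z
  | 0 => h
  | n + 1 => (eqAt_sqs h hb0 hb2 n).sq (hb0 n) (hb2 n)

section lm

open scoped Classical

variable {ι Φ W Q J Fm : Type} {M : MeshC ι Φ W} [PartialOrder Q] {dim : Q → ℕ}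
variable {L : LM M Q dim} {fam : J → Fm} {s : GSt M fam}
variable {E : Type*} [NormedAddCommGroup E] [NormedSpace ℝ E] [FiniteDimensional ℝ E]
variable {h : LF L s} {Lam : J → Q → ZMod 2} {hLam : ∀ j c, L.toSk.XL (gP s j) (Lam j) c}
variable {K : Q → Set E} {Ω : Set E} {ε Kb : ℝ} {b : ℕ → ℝ} {wt : J → ℝ}

/-- every piece of a cell of dimension `≥ 2` comes from a point of an edge (`hne` of 199 / 955) -/
theorem cmb_ne (h : LF L s) (Lam : J → Q → ZMod 2)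
    (hLam : ∀ j c, L.toSk.XL (gP s j) (Lam j) c) {q : Q} (hd : 2 ≤ dim q)
    (x : (cmb h Lam hLam).I q) : ∃ e, ∃ he : e < q, dim e = 1 ∧
      ∃ y : (cmb h Lam hLam).I e, (cmb h Lam hLam).up he y = x := by
  obtain ⟨⟨w, hw⟩, rfl⟩ := Quot.exists_rep x
  have he1 : dim (L.ed w) = 1 := L.ed_dim w hw.2.1
  have hle : L.ed w ≤ q := hw.2.2
  have hlt : L.ed w < q := lt_of_le_of_ne hle (fun h => by rw [h] at he1; omega)
  exact ⟨L.ed w, hlt, he1, Quot.mk _ ⟨w, hw.1, hw.2.1, le_rfl⟩, rfl⟩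

/-- **the numbers of a 3-cell in the frame `A`**, `𝒦` = any finite set which contains the images of
all its faces -/
theorem tile_num (X : Cplx Ω Q dim K) (hw : ∀ j, 0 < wt j) (hb0 : ∀ n, 0 < b n) (hKb : 0 ≤ Kb)
    {R : Set Q} {δ : Q → ℝ} (hδ : ∀ q, 0 < δ q)
    (hδ2 : ∀ q, 0 < WE X (cmb h Lam hLam) wt q → ∀ σ ≤ q, δ σ ≤ WE X (cmb h Lam hLam) wt q)
    {g0 : Gd E J} {P0 : ∀ q, (cmb h Lam hLam).I q → Set E}
    {c0 : ∀ q, (cmb h Lam hLam).I q → E → ℝ} {g : Gd E J}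
    {P : ∀ q, (cmb h Lam hLam).I q → Set E} {c : ∀ q, (cmb h Lam hLam).I q → E → ℝ} {q : Q}
    (hT : TrkL X R g0 P0 c0 (K0f R Kb) δ ε b wt g P c q) (hd : dim q = 3) (A : E ≃ᵃ[ℝ] E)
    {𝒦 : Set (Set E)} (h𝒦 : 𝒦.Finite) (hA : ∀ σ ≤ q, A '' K σ ∈ 𝒦)
    (hinj : ∀ σ ≤ q, ∀ σ' ≤ q, K σ = K σ' → σ = σ') (x : (cmb h Lam hLam).I q) {z : E}
    (hz : z ∈ K q) :
    LB A (2 * C𝒦 (K0f R Kb q) ε b 3 𝒦 * WE X (cmb h Lam hLam) wt q /
      wt ((cmb h Lam hLam).col q x)) (c q x) (K q) z :=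
  tile_piece_k X hw hb0 (K0f_nonneg hKb) hδ hδ2 (by omega) hd.le h𝒦 hA hinj
    (fun _ _ hσ y => cmb_ne h Lam hLam hσ y) hT x hz

/-- **MESH-INST with one hypothesis on the base** -/
theorem mesh_inst_B (X : Cplx Ω Q dim K) (T : Top3 L) (hconv : ∀ τ, Convex ℝ (K τ))
    (hcpt : ∀ τ, IsCompact (K τ)) (hbd : ∀ τ, bdS K τ = K τ \ ri (K τ))
    (hw : ∀ j, 0 < wt j) (hb0 : ∀ n, 0 < b n) (hb2 : ∀ n, b n < 1/2) (hε0 : 0 < ε) (hε1 : ε < 1)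
    (hKb : 0 ≤ Kb) {R : Set Q} {g0 : Gd E J} {P0 : ∀ q, (cmb h Lam hLam).I q → Set E}
    {c0 : ∀ q, (cmb h Lam hLam).I q → E → ℝ}
    (B : BaseC (cmb h Lam hLam) K wt Kb R g0 P0 c0) :
    ∃ δ : Q → ℝ, (∀ q, 0 < δ q) ∧
      (∀ q, 0 < WE X (cmb h Lam hLam) wt q → ∀ σ ≤ q, δ σ ≤ WE X (cmb h Lam hLam) wt q) ∧
      ∃ g P c, Inv (cmb h Lam hLam) K univ g P c ∧ MGeo h Lam hLam K R c ∧
        ∀ q, TrkL X R g0 P0 c0 (K0f R Kb) δ ε b wt g P c q := by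
  obtain ⟨δ, hδ, hδ2⟩ := exists_delta X (cmb h Lam hLam) wt
  refine ⟨δ, hδ, hδ2, mesh_inst X T hconv hcpt hbd hw hb0 hb2 hε0 hε1 (K0f_nonneg hKb)
    (fun σ τ hστ => K0f_mono hKb hστ.le) hδ B.down B.inv (fun q hq A x z hz => ?_) B.geo
    (go_of_fam B.inv Subset.rfl B.fam1)⟩
  have h1 := B.num q hq A (δ q) (hδ q).le x z hz
  rwa [K0f_of_mem hq, mul_assoc]

variable {Ic : Type} {S : Ic → Set E} {D : Ic → Set Q} {gb : Ic → Gd E J}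
  {Pb : Ic → ∀ q, (cmb h Lam hLam).I q → Set E} {cb : Ic → ∀ q, (cmb h Lam hLam).I q → E → ℝ}

/-- **MESH-INST over the cores** `i : Ic` with their bases `gb i, Pb i, cb i` on the cells `D i` -/
theorem mesh_inst_cores (X : Cplx Ω Q dim K) (T : Top3 L) (hconv : ∀ τ, Convex ℝ (K τ))
    (hcpt : ∀ τ, IsCompact (K τ)) (hbd : ∀ τ, bdS K τ = K τ \ ri (K τ))
    (hw : ∀ j, 0 < wt j) (hb0 : ∀ n, 0 < b n) (hb2 : ∀ n, b n < 1/2) (hε0 : 0 < ε) (hε1 : ε < 1)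
    (hKb : 0 ≤ Kb) (hS : ∀ i i', i ≠ i' → Disjoint (S i) (S i'))
    (hK : ∀ i, ∀ q ∈ D i, K q ⊆ S i)
    (B : ∀ i, BaseC (cmb h Lam hLam) K wt Kb (D i) (gb i) (Pb i) (cb i)) :
    ∃ δ : Q → ℝ, (∀ q, 0 < δ q) ∧
      (∀ q, 0 < WE X (cmb h Lam hLam) wt q → ∀ σ ≤ q, δ σ ≤ WE X (cmb h Lam hLam) wt q) ∧
      ∃ g P c, Inv (cmb h Lam hLam) K univ g P c ∧ MGeo h Lam hLam K (⋃ i, D i) c ∧
        (∀ q, TrkL X (⋃ i, D i) (ug S gb) (uP D Pb) (uc D cb) (K0f (⋃ i, D i) Kb) δ ε b wt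
          g P c q) ∧
        ∀ i, ∀ q ∈ D i, ∀ z ∈ K q, EqAt (sqs (gb i) b 4) g z := by
  have hne : ∀ q, (K q).Nonempty := fun q => (X.isBall q).nonempty
  obtain ⟨BB, hE⟩ := base_all hS hK hne B
  obtain ⟨δ, hδ, hδ2, g, P, c, H, G, hT⟩ :=
    mesh_inst_B X T hconv hcpt hbd hw hb0 hb2 hε0 hε1 hKb BB
  refine ⟨δ, hδ, hδ2, g, P, c, H, G, hT, fun i q hq z hz => ?_⟩
  exact (eqAt_sqs (hE i q hq z hz) hb0 hb2 4).trans
    ((hT q).eqR (mem_iUnion.2 ⟨i, hq⟩) z hz)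

end lm

/-! ### the final state of 662 -/

section sto

open Crest.Agent.R096.Seq_213.GSt Crest.Agent.R096.Mg_441 Crest.Agent.R096.Cp_298
  Crest.Agent.R096.Gl_422 Crest.Agent.R096.On_441 Crest.Agent.R096.SkB_662

open scoped Classical

variable {ι Φ W Q J C Kq : Type} {M : MeshC ι Φ W} [PartialOrder Q] {dim : Q → ℕ}
variable {L : LM M Q dim} {O : Ori M} {τ : Q → ZMod 2} {Rel : W → W → Prop} {V : Set W}
  {Qd : Quads ι C Kq} {κ : C → ℕ} {fam : J → C} {s₀ : GSt M fam} {far₀ : J → Set W}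
  {Z : C → Set Q} {lam₀ : J → Q → ZMod 2} {v₀ v₁ : C → Q}
  {hfin : ∀ a, {j | fam j = a}.Finite} {kap : C → ℕ} {s : GSt M (fam' fam (Rk κ kap))}
  {far : Nm' fam (Rk κ kap) → Set W} {β : W → W} {lam : Nm' fam (Rk κ kap) → Q → ZMod 2}
variable {E : Type*} [NormedAddCommGroup E] [NormedSpace ℝ E] [FiniteDimensional ℝ E]
variable {K : Q → Set E} {Ω : Set E} {ε Kb : ℝ} {b : ℕ → ℝ}

/-- weight of a final sheet -/
noncomputable abbrev wts (κ kap : C → ℕ) (fam : J → C) (j : Nm' fam (Rk κ kap)) : ℝ :=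
  (2 : ℝ)⁻¹ ^ kap (fam' fam (Rk κ kap) j)

theorem StO.mesh (h : StO L O τ Rel V Qd κ s₀ far₀ Z lam₀ v₀ v₁ hfin kap s far β lam)
    {Ic : Type} {S : Ic → Set E} {D : Ic → Set Q} {gb : Ic → Gd E (Nm' fam (Rk κ kap))}
    {Pb : Ic → ∀ q, h.cmb.I q → Set E} {cb : Ic → ∀ q, h.cmb.I q → E → ℝ}
    (X : Cplx Ω Q dim K) (T : Top3 L) (hconv : ∀ τ, Convex ℝ (K τ))
    (hcpt : ∀ τ, IsCompact (K τ)) (hbd : ∀ τ, bdS K τ = K τ \ ri (K τ))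
    (hb0 : ∀ n, 0 < b n) (hb2 : ∀ n, b n < 1/2) (hε0 : 0 < ε) (hε1 : ε < 1)
    (hKb : 0 ≤ Kb) (hS : ∀ i i', i ≠ i' → Disjoint (S i) (S i'))
    (hK : ∀ i, ∀ q ∈ D i, K q ⊆ S i)
    (B : ∀ i, BaseC h.cmb K (wts κ kap fam) Kb (D i) (gb i) (Pb i) (cb i)) :
    ∃ δ : Q → ℝ, (∀ q, 0 < δ q) ∧
      (∀ q, 0 < WE X h.cmb (wts κ kap fam) q → ∀ σ ≤ q, δ σ ≤ WE X h.cmb (wts κ kap fam) q) ∧
      ∃ g P c, Inv h.cmb K univ g P c ∧ MGeo h.lfs (Lf lam) (xlf h.lab.lab) K (⋃ i, D i) c ∧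
        (∀ q, TrkL (h := h.lfs) (Lam := Lf lam) (hLam := xlf h.lab.lab) X (⋃ i, D i) (ug S gb)
          (uP D Pb) (uc D cb) (K0f (⋃ i, D i) Kb) δ ε b (wts κ kap fam) g P c q) ∧
        ∀ i, ∀ q ∈ D i, ∀ z ∈ K q, EqAt (sqs (gb i) b 4) g z :=
  mesh_inst_cores (h := h.lfs) (Lam := Lf lam) (hLam := xlf h.lab.lab) X T hconv hcpt hbd
    (fun j => by positivity) hb0 hb2 hε0 hε1 hKb hS hK B

end sto

end Crest.Agent.R096.Be_416
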