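import Crest.Agent.R096.Grd7_714

/-!
# R096 (row 96), CONST-MESH (helper63, for helper446): the grid of a locally constant mesh is the
grid of `T`

* `itp_const` : the interpolation of `nu n n` on `[0, n]²` is `min (1 - g₁/n) (1 - g₂/n)`.
* `Nf_const` : `Nf n n w = min w₁ w₂` on the closed unit square.
* `Tq_eq_T` : if the two active colours of `g` have the same number of levels then
  `Tq b m g = T b (lv m g)`; `Tq_const` : the constant mesh.
* `co_eq` / `co_const` : `co P b m y c = m c * sc P b y c` on the walls.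
* `mem_bx_const`, `flb_const` : the grid cells of the constant mesh in the coordinates `sc`.
-/

set_option autoImplicit false
set_option linter.unusedSectionVars false

open Set

namespace Crest.Agent.R096.Cmh_63

open Crest.Agent.R096.Brk1_582 Crest.Agent.R096.Brk2_582 Crest.Agent.R096.Brk6_582
open Crest.Agent.R096.Grd_714

section itp

/-- `nu n n i j = 1 - max i j / n` -/
theorem nu_of_le {n i j : ℕ} (hn : 0 < n) (h : i ≤ j) : nu n n i j = 1 - (j : ℝ) / n := by
  have hn0 : (0 : ℝ) < n := by exact_mod_cast hn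
  refine min_eq_right ?_
  have h1 : (i : ℝ) ≤ j := by exact_mod_cast h
  have h2 : (i : ℝ) / n ≤ (j : ℝ) / n := div_le_div_of_nonneg_right h1 hn0.le
  linarith

theorem nu_of_ge {n i j : ℕ} (hn : 0 < n) (h : j ≤ i) : nu n n i j = 1 - (i : ℝ) / n := by
  have hn0 : (0 : ℝ) < n := by exact_mod_cast hn
  refine min_eq_left ?_
  have h1 : (j : ℝ) ≤ i := by exact_mod_cast h
  have h2 : (j : ℝ) / n ≤ (i : ℝ) / n := div_le_div_of_nonneg_right h1 hn0.le
  linarith

/-- **the interpolated heights for equal numbers of levels** -/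
theorem itp_const {n : ℕ} (hn : 0 < n) {g : ℝ × ℝ} (h1 : g.1 ∈ Icc (0 : ℝ) n)
    (h2 : g.2 ∈ Icc (0 : ℝ) n) : itp (nu n n) g = min (1 - g.1 / n) (1 - g.2 / n) := by
  have hn0 : (0 : ℝ) < n := by exact_mod_cast hn
  obtain ⟨p, hp, hgp⟩ := exists_cell hn h1
  obtain ⟨q, hq, hgq⟩ := exists_cell hn h2
  rw [itp_box (nu n n) (i' := p) (i := p + 1) (j' := q) (j := q + 1) (by omega) le_rfl
    (by omega) le_rfl hgp.1 (by push_cast; exact hgp.2) hgq.1 (by push_cast; exact hgq.2)]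
  simp only [itc]
  rcases lt_trichotomy p q with h | h | h
  · have hpq : (p : ℝ) + 1 ≤ q := by exact_mod_cast h
    have hle : g.1 ≤ g.2 := hgp.2.trans (hpq.trans hgq.1)
    have hm : g.1 / n ≤ g.2 / n := div_le_div_of_nonneg_right hle hn0.le
    rw [min_eq_right (a := 1 - g.1 / n) (by linarith), nu_of_le hn (by omega : p + 1 ≤ q + 1),
      nu_of_le hn (by omega : p + 1 ≤ q), nu_of_le hn (by omega : p ≤ q + 1),
      nu_of_le hn (by omega : p ≤ q)]
    push_cast
    field_simp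
    ring
  · subst h
    rw [nu_of_le hn (le_refl (p + 1)), nu_of_ge hn (by omega : p ≤ p + 1),
      nu_of_le hn (by omega : p ≤ p + 1), nu_of_le hn (le_refl p)]
    push_cast
    rcases le_total g.1 g.2 with hle | hle
    · have hm : g.1 / n ≤ g.2 / n := div_le_div_of_nonneg_right hle hn0.le
      rw [min_eq_right (a := 1 - g.1 / n) (by linarith),
        min_eq_right (a := (p : ℝ) + 1 - g.1) (by linarith)]
      field_simp
      ring
    · have hm : g.2 / n ≤ g.1 / n := div_le_div_of_nonneg_right hle hn0.le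
      rw [min_eq_left (a := 1 - g.1 / n) (by linarith),
        min_eq_left (a := (p : ℝ) + 1 - g.1) (by linarith)]
      field_simp
      ring
  · have hpq : (q : ℝ) + 1 ≤ p := by exact_mod_cast h
    have hle : g.2 ≤ g.1 := hgq.2.trans (hpq.trans hgp.1)
    have hm : g.2 / n ≤ g.1 / n := div_le_div_of_nonneg_right hle hn0.le
    rw [min_eq_left (a := 1 - g.1 / n) (by linarith), nu_of_ge hn (by omega : q + 1 ≤ p + 1),
      nu_of_ge hn (by omega : q ≤ p + 1), nu_of_ge hn (by omega : q + 1 ≤ p),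
      nu_of_ge hn (by omega : q ≤ p)]
    push_cast
    field_simp
    ring

/-- **`Nf n n = min`** on the closed unit square -/
theorem Nf_const {n : ℕ} (hn : 0 < n) {w : ℝ × ℝ} (h1 : w.1 ∈ Icc (0 : ℝ) 1)
    (h2 : w.2 ∈ Icc (0 : ℝ) 1) : Nf n n w = min w.1 w.2 := by
  have hn0 : (0 : ℝ) < n := by exact_mod_cast hn
  have k : ∀ x ∈ Icc (0 : ℝ) 1, (n : ℝ) * (1 - x) ∈ Icc (0 : ℝ) n := by
    intro x hx
    refine ⟨mul_nonneg hn0.le (by linarith [hx.2]), ?_⟩
    have := mul_nonneg hn0.le hx.1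
    linarith [mul_sub (n : ℝ) 1 x]
  have e : ∀ x : ℝ, 1 - (n : ℝ) * (1 - x) / n = x := by
    intro x
    field_simp
    ring
  rw [Nf, itp_const hn (k _ h1) (k _ h2)]
  simp only [e]

end itp

variable {E : Type*} [NormedAddCommGroup E] [NormedSpace ℝ E] {I : Type*}
variable {La : Set E} {P : I → Set E} {b : Set I → E}

/-- **equal numbers of levels on the active pair: `Tq = T ∘ lv`** -/
theorem Tq_eq_T {m : I → ℕ} (hm : ∀ c, 0 < m c) {g : I → ℝ}
    (h01 : ∀ c, 0 ≤ lv m g c ∧ lv m g c ≤ 1)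
    (hc : ∀ c1 c2, c1 ≠ c2 → av (lv m g) = {c1, c2} → m c1 = m c2) :
    Tq b m g = T b (lv m g) := by
  by_cases h : ∃ c1 c2 : I, c1 ≠ c2 ∧ av (lv m g) = {c1, c2}
  · obtain ⟨c1, c2, hne, hav⟩ := h
    rw [Tq, Bn_eq (sym_Nm m) hne hav]
    have e : Nm m c1 c2 (1 - lv m g c1, 1 - lv m g c2) =
        min (1 - lv m g c1) (1 - lv m g c2) := by
      rw [Nm, ← hc c1 c2 hne hav]
      exact Nf_const (hm c1) ⟨by linarith [(h01 c1).2], by linarith [(h01 c1).1]⟩
        ⟨by linarith [(h01 c2).2], by linarith [(h01 c2).1]⟩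
    rw [e, sub_self, zero_smul, add_zero]
  · rw [Tq, Bn, dif_neg h]

/-- **the constant mesh: `Tq b (fun _ => M) g = T b (fun a => g a / M)`** on `G2 P (fun _ => M)` -/
theorem Tq_const {M : ℕ} (hM : 0 < M) {g : I → ℝ} (hg : g ∈ G2 P (fun _ => M)) :
    Tq b (fun _ => M) g = T b (fun a => g a / M) :=
  Tq_eq_T (m := fun _ => M) (fun _ => hM) (fun c => hg.1.1 c) fun _ _ _ _ => rfl

section foam

variable [CompleteSpace E] (F : Foam La P b 4)
include F

/-- the coordinates of a point of a wall lie in the 2-skeleton of the cube complex -/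
theorem sc_mem_K2 {y : E} (hy : y ∈ La) {c c' : I} (hne : c ≠ c') (hc : y ∈ P c)
    (hc' : y ∈ P c') : sc P b y ∈ K2 P :=
  ⟨F.sc_mem_K hy, c, c', hne, (F.sc_eq_zero hy).2 hc, (F.sc_eq_zero hy).2 hc'⟩

omit F [CompleteSpace E] in
theorem lv_mul {m : I → ℕ} (hm : ∀ c, 0 < m c) (u : I → ℝ) :
    lv m (fun c => (m c : ℝ) * u c) = u := by
  funext c
  have h2 : (0 : ℝ) < m c := by exact_mod_cast hm c
  show (m c : ℝ) * u c / m c = u c
  field_simp

variable (hQ : Quads P b)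
include hQ

/-- **the level coordinates of a point of a wall are `m c * s_c y`** if the two active colours
have the same number of levels -/
theorem co_eq {m : I → ℕ} (hm : ∀ c, 0 < m c) {y : E} (hy : y ∈ La) {c c' : I} (hne : c ≠ c')
    (hc : y ∈ P c) (hc' : y ∈ P c')
    (hac : ∀ c1 c2, c1 ≠ c2 → av (sc P b y) = {c1, c2} → m c1 = m c2) :
    co P b m y = fun a => (m a : ℝ) * sc P b y a := by
  have h1 : (fun a => (m a : ℝ) * sc P b y a) ∈ G2 P m := by
    show lv m _ ∈ K2 P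
    rw [lv_mul hm]
    exact sc_mem_K2 F hy hne hc hc'
  have h2 : Tq b m (fun a => (m a : ℝ) * sc P b y a) = y := by
    rw [Tq_eq_T hm (by rw [lv_mul hm]; exact (F.sc_mem_K hy).1)
      (by rw [lv_mul hm]; exact hac), lv_mul hm]
    exact F.T_sc hy
  have h3 := co_Tq F hQ hm h1
  rw [h2] at h3
  exact h3

/-- **CONST-MESH: `co P b (fun _ => M) y a = M * s_a y` on the walls** -/
theorem co_const {M : ℕ} (hM : 0 < M) {y : E} (hy : y ∈ La) {c c' : I} (hne : c ≠ c')
    (hc : y ∈ P c) (hc' : y ∈ P c') (a : I) :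
    co P b (fun _ => M) y a = M * sc P b y a :=
  congrFun (co_eq F hQ (m := fun _ => M) (fun _ => hM) hy hne hc hc' fun _ _ _ _ => rfl) a

/-- **a grid cell of the constant mesh in the coordinates `s_a`** -/
theorem mem_cell_const {M : ℕ} (hM : 0 < M) (q : Gx P (fun _ => M)) {y : E} :
    y ∈ Tq b (fun _ => M) '' q.bx ↔ y ∈ La ∧
      ∀ a, (q.lo a : ℝ) ≤ M * sc P b y a ∧ (M : ℝ) * sc P b y a ≤ q.hi a := by
  have hm : ∀ c : I, 0 < (fun _ : I => M) c := fun _ => hM
  have hM0 : (0 : ℝ) < M := by exact_mod_cast hM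
  constructor
  · rintro ⟨g, hg, rfl⟩
    have hG := q.bx_sub hm hg
    have e : Tq b (fun _ => M) g = T b (lv (fun _ => M) g) := Tq_const hM hG
    refine ⟨Tq_mem_La F hQ hm hG, fun a => ?_⟩
    rw [e, F.sc_T hG.1]
    have : (M : ℝ) * lv (fun _ => M) g a = g a := by
      show (M : ℝ) * (g a / M) = g a
      field_simp
    rw [this]
    exact hg a
  · rintro ⟨hy, h⟩
    refine ⟨fun a => (M : ℝ) * sc P b y a, h, ?_⟩
    have hG := q.bx_sub hm h
    have e := Tq_const (b := b) hM hG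
    rw [e]
    have e2 : (fun a => (M : ℝ) * sc P b y a / M) = sc P b y := by
      funext a
      field_simp
    rw [e2]
    exact F.T_sc hy

/-- **the smallest grid cell of a point of a wall** (constant mesh): it is the set of the points
of `La` with `⌊M s_a x⌋ ≤ M s_a y ≤ ⌈M s_a x⌉` for all `a`, its dimension is the number of the
colours with `⌊M s_a x⌋ < ⌈M s_a x⌉`. -/
theorem exists_cell_const {M : ℕ} (hM : 0 < M) {x : E} (hx : x ∈ La) {c c' : I} (hne : c ≠ c')
    (hc : x ∈ P c) (hc' : x ∈ P c') :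
    ∃ q : Gx P (fun _ => M), (∀ a, q.lo a = ⌊(M : ℝ) * sc P b x a⌋₊) ∧
      (∀ a, q.hi a = ⌈(M : ℝ) * sc P b x a⌉₊) ∧
      x ∈ Tq b (fun _ => M) '' q.obx ∧
      Tq b (fun _ => M) '' q.bx = {y | y ∈ La ∧ ∀ a,
        (⌊(M : ℝ) * sc P b x a⌋₊ : ℝ) ≤ M * sc P b y a ∧
          (M : ℝ) * sc P b y a ≤ ⌈(M : ℝ) * sc P b x a⌉₊} ∧
      q.free = {a | ⌊(M : ℝ) * sc P b x a⌋₊ < ⌈(M : ℝ) * sc P b x a⌉₊} := by
  have hm : ∀ c : I, 0 < (fun _ : I => M) c := fun _ => hM
  obtain ⟨h1, h2⟩ := Tq_co F hQ hm hx hne hc hc'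
  have e : co P b (fun _ => M) x = fun a => (M : ℝ) * sc P b x a :=
    funext fun a => co_const F hQ hM hx hne hc hc' a
  refine ⟨flb hm _ h1, fun a => ?_, fun a => ?_, ⟨_, flb_mem_obx hm h1, h2⟩, ?_, ?_⟩
  · show ⌊co P b (fun _ => M) x a⌋₊ = _
    rw [e]
  · show ⌈co P b (fun _ => M) x a⌉₊ = _
    rw [e]
  · ext y
    rw [mem_cell_const F hQ hM]
    show (y ∈ La ∧ ∀ a, (⌊co P b (fun _ => M) x a⌋₊ : ℝ) ≤ M * sc P b y a ∧
      (M : ℝ) * sc P b y a ≤ (⌈co P b (fun _ => M) x a⌉₊ : ℝ)) ↔ _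
    rw [e]
    rfl
  · show {a | ⌊co P b (fun _ => M) x a⌋₊ < ⌈co P b (fun _ => M) x a⌉₊} = _
    rw [e]

end foam

end Crest.Agent.R096.Cmh_63
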