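import Crest.Agent.R096.Ecm3_446
import Crest.Agent.R096.Mbf_337

/-!
# R096 (row 96), BASE-DISC, part 4 (helper446): `CG` and `CW` from the literal words of `MachBF`

`Grid` = the closed form of the clause `grid` for one core; `U` = heights `M * s_a (th x)`.
-/

set_option autoImplicit false
set_option linter.unusedSectionVars false
set_option linter.style.longLine false

open Set Relation

namespace Crest.Agent.R096.Ecm_446

open Crest.Agent.R096.Bsp_628 Crest.Agent.R096.Brk1_582 Crest.Agent.R096.Brk3_582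
open Crest.Agent.R096.Brk5_582 Crest.Agent.R096.Msh_715
open Crest.Agent.R096.SkC1_961 (E3 FoamD th)
open Crest.Agent.R096.Mbf_337

/-! ### rounding in the cube complex -/

section cube

variable {E : Type*} [NormedAddCommGroup E] [NormedSpace ℝ E] {I : Type*} {P : I → Set E}
  {u : I → ℝ} {M : ℕ}

/-- rounding down to the grid -/
theorem floor_mem_K (hM : 0 < M) (hu : u ∈ K P) : (fun a => (⌊(M : ℝ) * u a⌋₊ : ℝ) / M) ∈ K P := by
  obtain ⟨h1, ⟨c, hc⟩, h3⟩ := hu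
  have hM' : (0 : ℝ) < M := by exact_mod_cast hM
  have h0 : ∀ a, 0 ≤ (M : ℝ) * u a := fun a => mul_nonneg hM'.le (h1 a).1
  have hle : ∀ a, (⌊(M : ℝ) * u a⌋₊ : ℝ) / M ≤ u a := fun a => by
    rw [div_le_iff₀ hM', mul_comm (u a)]
    exact Nat.floor_le (h0 a)
  refine ⟨fun a => ⟨by positivity, (hle a).trans (h1 a).2⟩, ⟨c, by simp [hc]⟩, ?_⟩
  have e : {a | (⌊(M : ℝ) * u a⌋₊ : ℝ) / M < 1} = {a | u a < 1} := by
    ext a
    simp only [mem_ofPred_eq]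
    constructor
    · intro h
      by_contra hn
      have h5 : u a = 1 := le_antisymm (h1 a).2 (not_lt.1 hn)
      rw [h5, mul_one, Nat.floor_natCast, div_self hM'.ne'] at h
      exact lt_irrefl _ h
    · exact fun h => (hle a).trans_lt h
  rw [e]
  exact h3

/-- rounding up to the grid -/
theorem ceil_mem_K (hM : 0 < M) (hu : u ∈ K P) : (fun a => (⌈(M : ℝ) * u a⌉₊ : ℝ) / M) ∈ K P := by
  obtain ⟨h1, ⟨c, hc⟩, h3⟩ := hu
  have hM' : (0 : ℝ) < M := by exact_mod_cast hM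
  have hle : ∀ a, u a ≤ (⌈(M : ℝ) * u a⌉₊ : ℝ) / M := fun a => by
    rw [le_div_iff₀ hM', mul_comm (u a)]
    exact Nat.le_ceil _
  refine ⟨fun a => ⟨by positivity, ?_⟩, ⟨c, by simp [hc]⟩, ?_⟩
  · show (⌈(M : ℝ) * u a⌉₊ : ℝ) / M ≤ 1
    rw [div_le_one hM']
    have h5 : ⌈(M : ℝ) * u a⌉₊ ≤ M := by
      refine Nat.ceil_le.2 ?_
      have := (h1 a).2
      nlinarith
    exact_mod_cast h5
  · obtain ⟨y, hy⟩ := h3
    exact ⟨y, fc_anti (fun a ha => (hle a).trans_lt ha) hy⟩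

end cube

variable {δ κ0 R c0 : ℝ} {La Om : Set E3} {ι : Type} {Φ : FoamD δ κ0 R c0 La} {T : Tiling Om ι}
  {f : E3 → E3}

/-- closed grid clause for the core `c`, the tile `i` -/
def Grid (Φ : FoamD δ κ0 R c0 La) (T : Tiling Om ι) (i : ι) (A : E3 ≃ᵃ[ℝ] E3)
    (lam : ℝ) (z : E3) (M : ℕ) : Prop :=
  0 < M ∧ ∀ x ∈ P (T.H i), x ∉ I (T.H i) →
    T.cc x = {y | y ∈ P (T.H i) ∧ ∀ a : Φ.F,
      (⌊(M : ℝ) * sb Φ (th A lam z x) a⌋₊ : ℝ) ≤ M * sb Φ (th A lam z y) a ∧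
      (M : ℝ) * sb Φ (th A lam z y) a ≤ ⌈(M : ℝ) * sb Φ (th A lam z x) a⌉₊} ∧
    T.dim x = {a : Φ.F | ⌊(M : ℝ) * sb Φ (th A lam z x) a⌋₊ < ⌈(M : ℝ) * sb Φ (th A lam z x) a⌉₊}.ncard

/-- the heights -/
noncomputable def U (Φ : FoamD δ κ0 R c0 La) (A : E3 ≃ᵃ[ℝ] E3) (lam : ℝ) (z : E3) (M : ℕ) (x : E3)
    (a : Φ.F) : ℝ := M * sb Φ (th A lam z x) a

section core

variable {κ1 κ2 : ℝ} {c : Φ.F} {i : ι} {A : E3 ≃ᵃ[ℝ] E3} {lam : ℝ} {z : E3} {M : ℕ}

/-- the exact map sends the tile onto the closed brick -/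
theorem th_mem (h : Exact Φ T f κ1 κ2 c i A lam z) {x : E3} : x ∈ P (T.H i) ↔ th A lam z x ∈ c.1.set := by
  rw [h.tile, Bx.mem_set]
  have h0 := h.lam0
  unfold th
  simp only [mem_preimage, mem_ofPred_eq]
  refine forall_congr' fun k => ?_
  rw [le_div_iff₀ h0, div_le_iff₀ h0]
  constructor
  · rintro ⟨h1, h2⟩
    constructor <;> linarith
  · rintro ⟨h1, h2⟩
    constructor <;> linarith

theorem th_surj (h : Exact Φ T f κ1 κ2 c i A lam z) (y : E3) : ∃ x, th A lam z x = y := by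
  refine ⟨A.symm (fun k => z k + lam * y k), ?_⟩
  funext k
  unfold th
  rw [AffineEquiv.apply_symm_apply, add_sub_cancel_left, mul_div_cancel_left₀ _ h.lam0.ne']

theorem th_inj (h : Exact Φ T f κ1 κ2 c i A lam z) {x x' : E3} (e : th A lam z x = th A lam z x') :
    x = x' := by
  refine A.injective (funext fun k => ?_)
  have h1 := congrFun e k
  unfold th at h1
  rw [div_left_inj' h.lam0.ne'] at h1
  linarith

variable (hLa : IsOpen La)
include hLa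

theorem foamΦ (Φ : FoamD δ κ0 R c0 La) : Foam La (Pc Φ.F) (bc (F := Φ.F)) 4 := by
  have := foam Φ.bf hLa
  simpa using this

omit hLa in
theorem th_La (h : Exact Φ T f κ1 κ2 c i A lam z) {x : E3} (hx : x ∈ P (T.H i)) :
    th A lam z x ∈ La := Φ.bf.sub _ c.2 ((th_mem h).1 hx)

/-- points of the tile with given coordinates -/
theorem exists_pt (h : Exact Φ T f κ1 κ2 c i A lam z) {u : Φ.F → ℝ} (hu : u ∈ K (Pc Φ.F))
    (hc : u c = 0) : ∃ y ∈ P (T.H i), ∀ a, sb Φ (th A lam z y) a = u a := by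
  have F := foamΦ hLa Φ
  have h1 : Brk1_582.T (bc (F := Φ.F)) u ∈ Pc Φ.F c := by
    have := F.act_T hu
    have h2 : c ∈ act (Pc Φ.F) (Brk1_582.T (bc (F := Φ.F)) u) := by rw [this]; exact hc
    exact h2
  obtain ⟨y, hy⟩ := th_surj h (Brk1_582.T (bc (F := Φ.F)) u)
  refine ⟨y, (th_mem h).2 (by rw [hy]; exact h1), fun a => ?_⟩
  unfold sb
  rw [hy, F.sc_T hu]

omit hLa in
theorem not_I_of_dim {x : E3} (hx : x ∈ P (T.H i)) (hd : T.dim x ≤ 2) : x ∉ I (T.H i) := by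
  intro hI
  have h1 := (T.V_eq_top_iff (T.sub i hx)).2 ⟨i, hI⟩
  have h2 : T.dim x = 3 := by
    unfold Tiling.dim
    rw [h1, finrank_top]
    simp
  omega

/-- **the grid** -/
theorem cg_of_grid (h : Exact Φ T f κ1 κ2 c i A lam z) (hG : Grid Φ T i A lam z M) :
    CG T i (U Φ A lam z M) := by
  have F := foamΦ hLa Φ
  obtain ⟨hM, hg⟩ := hG
  have hM' : (0 : ℝ) < M := by exact_mod_cast hM
  have hK : ∀ x ∈ P (T.H i), sb Φ (th A lam z x) ∈ K (Pc Φ.F) := fun x hx => F.sc_mem_K (th_La h hx)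
  have hc : ∀ x ∈ P (T.H i), sb Φ (th A lam z x) c = 0 := fun x hx =>
    (F.sc_eq_zero (th_La h hx)).2 ((th_mem h).1 hx)
  refine ⟨?_, ?_, ?_, ?_, ?_, ?_⟩
  · intro x hx a
    exact mul_nonneg hM'.le ((hK x hx).1 a).1
  · intro x hx hd
    exact (hg x hx (not_I_of_dim hx hd)).1
  · intro x hx hd
    exact (hg x hx (not_I_of_dim hx hd)).2
  · intro x hx _
    refine (F.sc_lt_one_finite (th_La h hx)).subset fun a ha => ?_
    have ha' : ⌊(M : ℝ) * sb Φ (th A lam z x) a⌋₊ < ⌈(M : ℝ) * sb Φ (th A lam z x) a⌉₊ := ha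
    show sb Φ (th A lam z x) a < 1
    by_contra hn
    have h5 : sb Φ (th A lam z x) a = 1 := le_antisymm ((hK x hx).1 a).2 (not_lt.1 hn)
    rw [h5, mul_one, Nat.floor_natCast, Nat.ceil_natCast] at ha'
    exact lt_irrefl _ ha'
  · intro x hx _
    obtain ⟨y, hy, h1⟩ := exists_pt hLa h (floor_mem_K hM (hK x hx)) (by simp [hc x hx])
    refine ⟨y, hy, fun a => ?_⟩
    unfold U
    rw [h1 a]
    field_simp
  · intro x hx _
    obtain ⟨y, hy, h1⟩ := exists_pt hLa h (ceil_mem_K hM (hK x hx)) (by simp [hc x hx])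
    refine ⟨y, hy, fun a => ?_⟩
    unfold U
    rw [h1 a]
    field_simp

omit hLa in
/-- **the words** -/
theorem cw_of_words {X : Set Φ.F} {ct : Φ.F → ι} {A : Φ.F → E3 ≃ᵃ[ℝ] E3} {lam : Φ.F → ℝ}
    {z : Φ.F → E3} {M : Φ.F → ℕ} {L : Φ.F → Finset ℝ} (W : Words Φ T f X ct A lam z M L) {c : Φ.F}
    (hc : c ∈ X) (hM : 0 < M c) {J : Type} {fam : J → Φ.F} {t : J → ℝ} (ht : ∀ j, t j ∈ L (fam j)) :
    CW T (ct c) (U Φ (A c) (lam c) (z c) (M c)) fam (fun j => M c * t j)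
      (fun j => {y | Φ.lev (fam j) (f y) = t j}) (fun j => {y | Φ.lev (fam j) (f y) < t j}) := by
  have hM' : (0 : ℝ) < M c := by exact_mod_cast hM
  refine ⟨?_, ?_, ?_⟩
  · intro v hv h0 j
    have h1 := W.sign c hc v hv h0 (fam j) (t j) (ht j)
    show Φ.lev (fam j) (f v) < t j ↔ (M c : ℝ) * _ < M c * t j
    rw [h1, mul_lt_mul_iff_right₀ hM']
  · intro x hx h1 j y hy y' hy' hj hj'
    obtain ⟨a, b, -, e, -⟩ := T.edge_eq (T.sub _ hx) h1
    obtain ⟨-, -, -, -, h2, h3⟩ := W.word c hc x hx h1 (fam j) (t j) (ht j) a b e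
    by_cases hcr : ((sb Φ (th (A c) (lam c) (z c) a) (fam j) < t j ∧
        t j < sb Φ (th (A c) (lam c) (z c) b) (fam j)) ∨
        (sb Φ (th (A c) (lam c) (z c) b) (fam j) < t j ∧
        t j < sb Φ (th (A c) (lam c) (z c) a) (fam j)))
    · exact (h2 hcr).unique ⟨hy, hj⟩ ⟨hy', hj'⟩
    · exact absurd hj (h3 hcr y hy)
  · intro x hx h1 j a b e hab y hy
    obtain ⟨-, -, -, -, -, h3⟩ := W.word c hc x hx h1 (fam j) (t j) (ht j) a b e
    refine h3 ?_ y hy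
    have hab' : sb Φ (th (A c) (lam c) (z c) a) (fam j) = sb Φ (th (A c) (lam c) (z c) b) (fam j) := by
      unfold U at hab
      exact mul_left_cancel₀ hM'.ne' hab
    show ¬ ((_ < _ ∧ _ < _) ∨ (_ < _ ∧ _ < _))
    rintro (⟨h4, h5⟩ | ⟨h4, h5⟩)
    · exact lt_asymm (hab'.symm.trans_lt h4) h5
    · exact lt_asymm h4 (h5.trans_eq hab')

omit hLa in
/-- the grid clause of `Words` -/
theorem grid_of_words {X : Set Φ.F} {ct : Φ.F → ι} {A : Φ.F → E3 ≃ᵃ[ℝ] E3} {lam : Φ.F → ℝ}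
    {z : Φ.F → E3} {M : Φ.F → ℕ} {L : Φ.F → Finset ℝ} (W : Words Φ T f X ct A lam z M L) {c : Φ.F}
    (hc : c ∈ X) : Grid Φ T (ct c) (A c) (lam c) (z c) (M c) := W.grid c hc

end core

end Crest.Agent.R096.Ecm_446
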