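import Crest.Agent.R096.Cin1_181
import Crest.Agent.R096.Ecm4_446
import Crest.Agent.R096.Cmh1_63
import Crest.Agent.R096.Grd8_714
import Crest.Agent.R096.Vb4_965

/-!
# R096 (row 96), CORE-INST, part 2 (helper181): the exact map of a core on the boundary of its tile; the
cells of the boundary of the tile as grid cells
-/

set_option autoImplicit false
set_option linter.unusedSectionVars false
set_option linter.style.longLine false

open Set Metric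

namespace Crest.Agent.R096.Cin_181

open Crest.Agent.R096.Bsp_628 Crest.Agent.R096.Brk1_582 Crest.Agent.R096.Brk2_582
open Crest.Agent.R096.Brk3_582 Crest.Agent.R096.Brk5_582 Crest.Agent.R096.Brk6_582
open Crest.Agent.R096.Ce_537 Crest.Agent.R096.Bd_416 Crest.Agent.R096.Xp_537
open Crest.Agent.R096.Msh_715 Crest.Agent.R096.Grd_714 Crest.Agent.R096.Bin_181
open Crest.Agent.R096.SkC1_961 (E3 FoamD th)
open Crest.Agent.R096.Mbf_337 (sb)
open Crest.Agent.R096.Ecm_446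

/-- the interior of a tile -/
theorem interior_P {E : Type*} [NormedAddCommGroup E] [NormedSpace ℝ E]
    {H : Finset ((E →L[ℝ] ℝ) × ℝ)} (hne : (I H).Nonempty) : interior (P H) = I H := by
  refine subset_antisymm ?_ (interior_maximal (I_sub_P H) (isOpen_I H))
  intro x hx
  obtain ⟨z, hz⟩ := hne
  by_cases hxz : x = z
  · rwa [hxz]
  have hev : ∀ᶠ s in nhds (0 : ℝ), x + s • (x - z) ∈ interior (P H) := by
    have hc : Filter.Tendsto (fun s : ℝ => x + s • (x - z)) (nhds 0) (nhds (x + (0 : ℝ) • (x - z))) := by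
      apply Continuous.tendsto
      fun_prop
    rw [zero_smul, add_zero] at hc
    exact hc.eventually (isOpen_interior.mem_nhds hx)
  have hev2 : ∀ᶠ s in nhdsWithin (0 : ℝ) (Ioi 0), x + s • (x - z) ∈ interior (P H) :=
    hev.filter_mono nhdsWithin_le_nhds
  obtain ⟨s, hs, hs0⟩ := (hev2.and self_mem_nhdsWithin).exists
  have hs0' : (0 : ℝ) < s := hs0
  have h1 := interior_subset hs
  intro h hh
  have h2 := h1 h hh
  have h3 := hz h hh
  simp only [map_add, map_smul, map_sub, smul_eq_mul] at h2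
  by_contra h4
  push Not at h4
  nlinarith

variable {δ κ0 R c0 : ℝ} {La Om : Set E3} {ι : Type} {Φ : FoamD δ κ0 R c0 La} {Tl : Tiling Om ι}
  {f : E3 → E3}
variable {κ1 κ2 : ℝ} {c : Φ.F} {i : ι} {A : E3 ≃ᵃ[ℝ] E3} {lam : ℝ} {z : E3} {M : ℕ}

/-! ### the exact map -/

/-- the exact map, affine -/
noncomputable def thA (A : E3 ≃ᵃ[ℝ] E3) (lam : ℝ) (z : E3) : E3 →ᵃ[ℝ] E3 :=
  lam⁻¹ • ((A : E3 →ᵃ[ℝ] E3) - AffineMap.const ℝ E3 z)

theorem thA_eq (x : E3) : thA A lam z x = th A lam z x := by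
  funext k
  show lam⁻¹ * (A x k - z k) = (A x k - z k) / lam
  rw [div_eq_inv_mul]

/-- its inverse, affine -/
noncomputable def thI (A : E3 ≃ᵃ[ℝ] E3) (lam : ℝ) (z : E3) : E3 →ᵃ[ℝ] E3 :=
  (A.symm : E3 →ᵃ[ℝ] E3).comp (lam • AffineMap.id ℝ E3 + AffineMap.const ℝ E3 z)

theorem thI_eq (y : E3) : thI A lam z y = A.symm (fun k => z k + lam * y k) := by
  show A.symm (lam • y + z) = _
  congr 1
  funext k
  simp [add_comm]

theorem thI_th (hl : lam ≠ 0) (x : E3) : thI A lam z (th A lam z x) = x := by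
  rw [thI_eq, AffineEquiv.symm_apply_eq]
  funext k
  unfold th
  field_simp
  ring

theorem th_thI (hl : lam ≠ 0) (y : E3) : th A lam z (thI A lam z y) = y := by
  rw [thI_eq]
  funext k
  unfold th
  rw [AffineEquiv.apply_symm_apply]
  field_simp
  ring

/-- the exact map, homeomorphism -/
noncomputable def thH (A : E3 ≃ᵃ[ℝ] E3) {lam : ℝ} (hl : lam ≠ 0) (z : E3) : E3 ≃ₜ E3 where
  toFun := th A lam z
  invFun := thI A lam z
  left_inv := thI_th hl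
  right_inv := th_thI hl
  continuous_toFun := by
    have : th A lam z = thA A lam z := funext fun x => (thA_eq x).symm
    rw [this]; exact AffineMap.continuous_of_finiteDimensional _
  continuous_invFun := AffineMap.continuous_of_finiteDimensional _

theorem mem_fr_iff {x : E3} : x ∈ frontier (P (Tl.H i)) ↔ x ∈ P (Tl.H i) ∧ x ∉ I (Tl.H i) := by
  rw [(isClosed_P _).frontier_eq, interior_P (Tl.ne i)]; rfl

section core

variable (hLa : IsOpen La)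

theorem quadsΦ (Φ : FoamD δ κ0 R c0 La) : Quads (Pc Φ.F) (bc (F := Φ.F)) :=
  quads_box Φ.bf (by simp)

include hLa in
theorem bdP_frontier {m' : Φ.F → ℕ} (hm' : ∀ a, 0 < m' a) (c : Φ.F) :
    bdP (Pc Φ.F) (bc (F := Φ.F)) m' c = frontier (Pc Φ.F c) := by
  rw [bdP_eq (foamΦ hLa Φ) (quadsΦ Φ) hm', Vb_965.frontier_cell (foamΦ hLa Φ),
    Lset_zero (foamΦ hLa Φ)]

theorem frontier_tile (h : Mbf_337.Exact Φ Tl f κ1 κ2 c i A lam z) :
    frontier (P (Tl.H i)) = th A lam z ⁻¹' frontier (Pc Φ.F c) := by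
  have h1 : P (Tl.H i) = thH A h.lam0.ne' z ⁻¹' (Pc Φ.F c) := by
    ext x; exact th_mem h
  rw [h1, ← Homeomorph.preimage_frontier]; rfl

include hLa in
theorem th_mem_bd (h : Mbf_337.Exact Φ Tl f κ1 κ2 c i A lam z) {m' : Φ.F → ℕ} (hm' : ∀ a, 0 < m' a)
    {x : E3} : x ∈ frontier (P (Tl.H i)) ↔ th A lam z x ∈ bdP (Pc Φ.F) (bc (F := Φ.F)) m' c := by
  rw [bdP_frontier hLa hm', frontier_tile h]; rfl

/-- **the exact map on the boundary of the tile** -/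
noncomputable def thC (h : Mbf_337.Exact Φ Tl f κ1 κ2 c i A lam z) {m' : Φ.F → ℕ}
    (hm' : ∀ a, 0 < m' a) :
    PLEquiv (frontier (P (Tl.H i))) (bdP (Pc Φ.F) (bc (F := Φ.F)) m' c) where
  f := th A lam z
  g := thI A lam z
  pf := (plOn_affine (thA A lam z) _).congr fun x _ => (thA_eq x).symm
  pg := plOn_affine (thI A lam z) _
  mf := fun x hx => (th_mem_bd hLa h hm').1 hx
  mg := fun y hy => (th_mem_bd hLa h hm').2 (by rw [th_thI h.lam0.ne']; exact hy)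
  li := fun x _ => thI_th h.lam0.ne' x
  ri := fun y _ => th_thI h.lam0.ne' y

theorem thC_f (h : Mbf_337.Exact Φ Tl f κ1 κ2 c i A lam z) {m' : Φ.F → ℕ}
    (hm' : ∀ a, 0 < m' a) (x : E3) : (thC hLa h hm').f x = th A lam z x := rfl

/-! ### the cells of the boundary of the tile -/

/-- a structure of cells of `Tl` on the index set `Q` -/
structure OnC {Q : Type} [PartialOrder Q] (Tl : Tiling Om ι) (κ : Q → Tl.Cell) (dim : Q → ℕ) :
    Prop where
  mono : ∀ p q, p ≤ q → κ p ≤ κ q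
  dm : ∀ q, (κ q).dim = dim q
  lt : ∀ p q, p < q → dim p < dim q
  down : ∀ q d, d ≤ κ q → ∃ p ≤ q, κ p = d

theorem OnC.of_onT {Q : Type} [PartialOrder Q] {dim : Q → ℕ} {L : Lm_117.Sk E3 Q dim}
    {κ : Q → Tl.Cell} (h : OnT Tl L κ) : OnC Tl κ dim :=
  ⟨h.mono, h.dim, L.dim_lt, h.down⟩

include hLa in
theorem exists_gx0 {m' : Φ.F → ℕ} (hm' : ∀ a, 0 < m' a) (c : Φ.F) :
    (bdP (Pc Φ.F) (bc (F := Φ.F)) m' c).Nonempty := by
  rw [bdP_frontier hLa hm', nonempty_frontier_iff]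
  have F := foamΦ hLa Φ
  refine ⟨⟨c.1.lo, Bx.mem_set.2 fun k => ⟨le_rfl, (Φ.bf.pos c.1 c.2 k).le⟩⟩, fun h => ?_⟩
  have h1 := F.cpt c
  rw [h] at h1
  exact noncompact_univ E3 h1

include hLa in
/-- the two colours of a point of `bd P_c` -/
theorem two_cells {m' : Φ.F → ℕ} (hm' : ∀ a, 0 < m' a) {y : E3}
    (hy : y ∈ bdP (Pc Φ.F) (bc (F := Φ.F)) m' c) : y ∈ La ∧ y ∈ Pc Φ.F c ∧ ∃ c1, c1 ≠ c ∧
      y ∈ Pc Φ.F c1 := by
  rw [bdP_eq (foamΦ hLa Φ) (quadsΦ Φ) hm'] at hy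
  exact ⟨(foamΦ hLa Φ).sub c hy.1, hy.1, hy.2⟩

include hLa in
theorem co_U (hM : 0 < M) {y : E3} (hy : y ∈ bdP (Pc Φ.F) (bc (F := Φ.F)) (fun _ => M) c) (a : Φ.F) :
    co (Pc Φ.F) (bc (F := Φ.F)) (fun _ => M) y a = M * sb Φ y a := by
  obtain ⟨h1, h2, c1, h3, h4⟩ := two_cells hLa (fun _ => hM) hy
  exact Cmh_63.co_const (foamΦ hLa Φ) (quadsΦ Φ) hM h1 h3 h4 h2 a

variable {Q : Type} [PartialOrder Q] {dim : Q → ℕ} {κ : Q → Tl.Cell}

include hLa in
/-- **the cells of the boundary of the tile are grid cells of the constant mesh** -/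
theorem exists_meshG (h : Mbf_337.Exact Φ Tl f κ1 κ2 c i A lam z) (hG : Grid Φ Tl i A lam z M)
    (hT : OnC Tl κ dim) :
    ∃ gx : Q → Gx (Pc Φ.F) (fun _ => M),
      MeshG (fun q => (κ q).set) (Dk i κ) dim (thC hLa h (m' := fun _ => M) fun _ => hG.1) gx ∧
      (∀ q ∈ Dk i κ, ∀ a, (gx q).lo a = ⌊U Φ A lam z M (κ q).pt a⌋₊) ∧
      (∀ q ∈ Dk i κ, ∀ a, (gx q).hi a = ⌈U Φ A lam z M (κ q).pt a⌉₊) := by
  classical
  obtain ⟨hM, hg⟩ := hG
  have F := foamΦ hLa Φ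
  have hQ := quadsΦ Φ
  have hm' : ∀ a : Φ.F, 0 < (fun _ : Φ.F => M) a := fun _ => hM
  have CG := cg_of_grid hLa h ⟨hM, hg⟩
  -- points of the cells
  have hpt : ∀ q ∈ Dk i κ, (κ q).pt ∈ P (Tl.H i) ∧ Tl.dim (κ q).pt ≤ 2 := fun q hq => dc_pt hq
  have hfr : ∀ x ∈ P (Tl.H i), Tl.dim x ≤ 2 → x ∈ frontier (P (Tl.H i)) := fun x hx hd =>
    mem_fr_iff.2 ⟨hx, not_I_of_dim hx hd⟩
  have hbd : ∀ x ∈ P (Tl.H i), Tl.dim x ≤ 2 →
      th A lam z x ∈ bdP (Pc Φ.F) (bc (F := Φ.F)) (fun _ => M) c := fun x hx hd =>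
    (th_mem_bd hLa h hm').1 (hfr x hx hd)
  obtain ⟨y0, hy0⟩ := exists_gx0 hLa hm' c
  let gx : Q → Gx (Pc Φ.F) (fun _ => M) := fun q =>
    if hq : th A lam z (κ q).pt ∈ bdP (Pc Φ.F) (bc (F := Φ.F)) (fun _ => M) c then
      flb hm' _ (co_bxS F hQ hm' hq).1 else flb hm' _ (co_bxS F hQ hm' hy0).1
  have hlo : ∀ q ∈ Dk i κ, ∀ a, (gx q).lo a = ⌊U Φ A lam z M (κ q).pt a⌋₊ := by
    intro q hq a
    have h1 := hbd _ (hpt q hq).1 (hpt q hq).2
    simp only [gx, dif_pos h1]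
    show ⌊co (Pc Φ.F) (bc (F := Φ.F)) (fun _ => M) (th A lam z (κ q).pt) a⌋₊ = _
    rw [co_U hLa hM h1]; rfl
  have hhi : ∀ q ∈ Dk i κ, ∀ a, (gx q).hi a = ⌈U Φ A lam z M (κ q).pt a⌉₊ := by
    intro q hq a
    have h1 := hbd _ (hpt q hq).1 (hpt q hq).2
    simp only [gx, dif_pos h1]
    show ⌈co (Pc Φ.F) (bc (F := Φ.F)) (fun _ => M) (th A lam z (κ q).pt) a⌉₊ = _
    rw [co_U hLa hM h1]; rfl
  have hdn : ∀ q ∈ Dk i κ, ∀ p < q, p ∈ Dk i κ := by
    intro q hq p hp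
    refine ⟨(Tiling.Cell.le_def.1 (hT.mono p q hp.le)).trans hq.1, ?_⟩
    have h2 : (κ q).dim ≤ 2 := hq.2
    rw [hT.dm] at h2 ⊢
    exact (hT.lt p q hp).le.trans h2
  have hset : ∀ q ∈ Dk i κ, (κ q).set = {y | y ∈ P (Tl.H i) ∧ ∀ a,
      (⌊U Φ A lam z M (κ q).pt a⌋₊ : ℝ) ≤ U Φ A lam z M y a ∧
        U Φ A lam z M y a ≤ ⌈U Φ A lam z M (κ q).pt a⌉₊} := fun q hq => by
    rw [(κ q).set_eq]; exact CG.cell _ (hpt q hq).1 (hpt q hq).2
  have hcell : ∀ q ∈ Dk i κ, ∀ x ∈ (κ q).set, x ∈ P (Tl.H i) ∧ Tl.dim x ≤ 2 := by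
    intro q hq x hx
    rw [(κ q).set_eq] at hx
    have := CG.sub (hpt q hq).1 (hpt q hq).2 hx
    exact ⟨this.1, this.2.1⟩
  refine ⟨gx, ⟨hdn, ?_, fun {p q} hp _ => hT.lt p q hp, ?_, ?_, ?_, ?_⟩, hlo, hhi⟩
  · intro p q hp hq a
    have hp' := hdn q hq p hp
    have h1 : (κ p).pt ∈ (κ q).set := by
      refine Tiling.Cell.le_def.1 (hT.mono p q hp.le) ?_
      rw [(κ p).set_eq]; exact Tl.self_mem_cc _
    rw [hset q hq] at h1
    have h2 := h1.2 a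
    rw [hlo q hq, hhi q hq, hlo p hp', hhi p hp']
    exact ⟨Nat.le_floor h2.1, Nat.ceil_le.2 h2.2⟩
  · intro q hq
    ext x
    constructor
    · intro hx
      obtain ⟨h1, h2⟩ := hcell q hq x hx
      refine ⟨hfr x h1 h2, ?_⟩
      rw [thC_f, Cmh_63.mem_cell_const F hQ hM]
      refine ⟨th_La h h1, fun a => ?_⟩
      rw [hlo q hq, hhi q hq]
      rw [hset q hq] at hx
      exact hx.2 a
    · rintro ⟨h1, h2⟩
      rw [thC_f, Cmh_63.mem_cell_const F hQ hM] at h2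
      show x ∈ (κ q).set
      rw [hset q hq]
      refine ⟨(mem_fr_iff.1 h1).1, fun a => ?_⟩
      have h3 := h2.2 a
      rw [hlo q hq, hhi q hq] at h3
      exact h3
  · intro q hq
    rw [hhi q hq]
    have h1 : sb Φ (th A lam z (κ q).pt) c = 0 :=
      (F.sc_eq_zero (th_La h (hpt q hq).1)).2 ((th_mem h).1 (hpt q hq).1)
    unfold U
    rw [h1, mul_zero, Nat.ceil_zero]
  · intro q hq
    rw [← hT.dm q]
    have h1 := CG.dim _ (hpt q hq).1 (hpt q hq).2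
    show Tl.dim (κ q).pt = _
    rw [h1]
    congr 1
    ext a
    have h2 : a ∈ (gx q).free ↔ (gx q).lo a < (gx q).hi a := Iff.rfl
    rw [h2, hlo q hq, hhi q hq]
    rfl
  · rintro q hq x hx ⟨a, ha, hxa⟩
    have hx' : x ∈ (κ q).set := hx
    obtain ⟨h1, h2⟩ := hcell q hq x hx'
    have hxO : x ∈ Om := Tl.sub i h1
    have h3 : Tl.cl hxO ≤ κ q := by
      rw [Tiling.Cell.le_def, Tl.cl_set, (κ q).set_eq]
      rw [(κ q).set_eq] at hx'
      exact Tl.cc_sub_of_mem hx'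
    obtain ⟨p, hp, hpe⟩ := hT.down q _ h3
    have hmem : x ∈ (κ p).set := by rw [hpe, Tl.cl_set]; exact Tl.self_mem_cc x
    rcases hp.lt_or_eq with hlt | heq
    · exact ⟨p, hlt, hmem⟩
    · exfalso
      rw [heq] at hpe
      -- the floors and ceilings agree
      have k1 : (κ q).pt ∈ Tl.oc x := by
        have := Tl.pt_cl hxO
        rw [← hpe] at this; exact this
      have k2 : (κ q).pt ∈ Tl.cc x := Tl.oc_sub_cc x k1
      have k3 := (CG.sub h1 h2 k2).2.2 a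
      rw [hset q hq] at hx'
      have k4 := hx'.2 a
      have k5 : ⌊U Φ A lam z M x a⌋₊ < ⌈U Φ A lam z M x a⌉₊ := by
        have a1 : ⌊U Φ A lam z M x a⌋₊ ≤ ⌊U Φ A lam z M (κ q).pt a⌋₊ := Nat.le_floor k3.1
        have a2 : ⌈U Φ A lam z M (κ q).pt a⌉₊ ≤ ⌈U Φ A lam z M x a⌉₊ := Nat.ceil_le.2 k3.2
        have a3 : (gx q).lo a < (gx q).hi a := ha
        rw [hlo q hq, hhi q hq] at a3
        omega
      have k6 : ∃ k : ℕ, U Φ A lam z M x a = k := by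
        rw [thC_f, co_U hLa hM (hbd x h1 h2)] at hxa
        rcases hxa with h' | h'
        · exact ⟨_, h'⟩
        · exact ⟨_, h'⟩
      obtain ⟨k, hk⟩ := k6
      obtain ⟨e1, e2⟩ := flo_nat hk
      omega

end core

end Crest.Agent.R096.Cin_181
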