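import Crest.Agent.R096.Ecm5_446
import Crest.Agent.R096.Cin2_181
import Crest.Agent.R096.Be7_416

/-!
# R096 (row 96), BASE-DISC, part 7 (helper446): the base of one type R core for the final state of
662, as the input `BaseC` of 416's `StO.mesh`
-/

set_option autoImplicit false
set_option linter.unusedSectionVars false
set_option linter.style.longLine false

open Set Relation

namespace Crest.Agent.R096.Ecm_446

open Crest.Agent.R096.Bsp_628 Crest.Agent.R096.Brk1_582 Crest.Agent.R096.Brk2_582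
open Crest.Agent.R096.Brk3_582 Crest.Agent.R096.Brk5_582 Crest.Agent.R096.Brk6_582
open Crest.Agent.R096.Ce_537 Crest.Agent.R096.Bd_416 Crest.Agent.R096.Xp_537
open Crest.Agent.R096.Msh_715 Crest.Agent.R096.Grd_714 Crest.Agent.R096.Bin_181
open Crest.Agent.R096.Be_416 Crest.Agent.R096.Cin_181
open Crest.Agent.R096.SkC1_961 (E3 FoamD th)
open Crest.Agent.R096.Mbf_337 (sb)
open Crest.Agent.R96.Nu3_199 (ri)

/-! ### exactness and grid do not depend on the tiling away from the tile -/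

section transfer

variable {δ κ0 R c0 : ℝ} {La Om : Set E3} {ι ι' : Type} {Φ : FoamD δ κ0 R c0 La} {T : Tiling Om ι}
  {T' : Tiling Om ι'} {f : E3 → E3} {κ1 κ2 : ℝ} {c : Φ.F} {i : ι} {i' : ι'} {A : E3 ≃ᵃ[ℝ] E3}
  {lam : ℝ} {z : E3} {M : ℕ}

/-- exact cores for another tiling with the same tile -/
theorem Exact.of_P (h : Mbf_337.Exact Φ T f κ1 κ2 c i A lam z) (hP : P (T'.H i') = P (T.H i)) :
    Mbf_337.Exact Φ T' f κ1 κ2 c i' A lam z where
  lam0 := h.lam0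
  lam1 := h.lam1
  box_in := h.box_in
  hole := h.hole
  ray := h.ray
  tile := by rw [hP]; exact h.tile
  nbd := by rw [hP]; exact h.nbd
  inside := by rw [hP]; exact h.inside
  miss := by rw [hP]; exact h.miss

/-- the grid for another tiling with the same cells in the tile -/
theorem Grid.of_cc (h : Grid Φ T i A lam z M) (hP : P (T'.H i') = P (T.H i))
    (hcc : ∀ x ∈ P (T.H i), T'.cc x = T.cc x) (hdim : ∀ x ∈ P (T.H i), T'.dim x = T.dim x) :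
    Grid Φ T' i' A lam z M := by
  refine ⟨h.1, fun x hx hxI => ?_⟩
  have hI : I (T'.H i') = I (T.H i) := by
    rw [← interior_P (T'.ne i'), ← interior_P (T.ne i), hP]
  rw [hI] at hxI
  rw [hP] at hx ⊢
  rw [hcc x hx, hdim x hx]
  exact h.2 x hx hxI

end transfer

/-! ### nodes -/

section nod

variable {C : Type}

/-- **nodes**: real nodes near the numbers `N a i` -/
structure Nod (M : ℕ) (m : C → ℕ) (N : C → ℕ → ℕ) (κ : ℝ) (n : C → ℕ → ℝ) : Prop where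
  mono : ∀ a, StrictMono (n a)
  zero : ∀ a, n a 0 = 0
  top : ∀ a, n a M = m a
  near : ∀ a i, i ≤ M → |n a i - N a i| < κ / 2
  /-- the steps of the nodes are bounded by the steps of the numbers -/
  step : ∀ a i, ∀ Λ : ℝ, 1 ≤ Λ → (N a (i + 1) : ℝ) - N a i ≤ Λ * m a / M →
    n a (i + 1) - n a i ≤ Λ * m a / M

theorem exists_nod {M : ℕ} {m : C → ℕ} {N : C → ℕ → ℕ} {κ : ℝ} (hκ : 0 < κ) (hM : 0 < M)
    (hm : ∀ a, 0 < m a) (hN : ∀ a, Monotone (N a)) (h0 : ∀ a, N a 0 = 0) (h1 : ∀ a, N a M = m a) :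
    ∃ n, Nod M m N κ n := by
  choose ε h2 h3 h4 h5 h6 h7 using fun a => exists_nodes hκ hM (hm a) (hN a) (h0 a) (h1 a)
  exact ⟨fun a => nds (ε a) M (m a) (N a), h4, h5, h6, h7,
    fun a i Λ hΛ h => nds_step_le (h2 a) (h3 a) hΛ h⟩

end nod

section core

variable {δ κ0 R c0 : ℝ} {La Om : Set E3} {ι : Type} {Φ : FoamD δ κ0 R c0 La} {Tl : Tiling Om ι}
  {f : E3 → E3}
variable {κ1 κ2 : ℝ} {c : Φ.F} {i : ι} {A : E3 ≃ᵃ[ℝ] E3} {lam : ℝ} {z : E3} {M : ℕ}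
variable {Q : Type} [PartialOrder Q] {dim : Q → ℕ} {ck : Q → Tl.Cell} {J : Type}
  {Cm : Cmb Q dim J Φ.F} {m : Φ.F → ℕ} {lv : J → ℕ}

/-- **the base of one type R core** from the discrete data `Disc` -/
theorem core_baseC (hLa : IsOpen La) (hδ : 0 < δ) (hR : 0 < R)
    (h : Mbf_337.Exact Φ Tl f κ1 κ2 c i A lam z)
    (hG : Grid Φ Tl i A lam z M) (hT : OnC Tl ck dim)
    {Ω : Set E3} (X : Cplx Ω Q dim (fun q => (ck q).set)) (hbd : ∀ q, bdS (fun q => (ck q).set) q =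
      (ck q).set \ ri (ck q).set)
    (hne : ∀ c, (Pc Φ.F c).Nonempty)
    (hm : ∀ a, 0 < m a) {n : Φ.F → ℕ → ℝ} {N : Φ.F → ℕ → ℕ} {κ : ℝ} (hn : Nod M m N κ n)
    (hNmo : ∀ a, Monotone (N a)) (hNM : ∀ a, N a M = m a)
    (hκ : 0 < κ ∧ κ < 1) (ce : Cel (Pc Φ.F) m)
    (D : Disc Cm (Dk i ck) lv N (lo (U Φ A lam z M) ck) (hi (U Φ A lam z M) ck))
    (sur : ∀ a k, k < m a → ∃ j, Cm.fam j = a ∧ lv j = k)
    {wt : J → ℝ} (hw : ∀ j, 0 < wt j) (hwf : ∀ j j', Cm.fam j = Cm.fam j' → wt j = wt j') :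
    BaseC Cm (fun q => (ck q).set) wt (Kbase 3 δ R κ) (Dk i ck)
      (ekS (grid (foamΦ hLa Φ) (quadsΦ Φ) hne hm) (bc (F := Φ.F)) κ ce Cm.fam lv
        ((thC hLa h (m' := fun _ => M) fun _ => hG.1).trans
          (rcR hn.mono hn.zero hn.top (foamΦ hLa Φ) (quadsΦ Φ) (fun _ => hG.1) hm c)))
      (fun q x => (ck q).set ∩ (ekS (grid (foamΦ hLa Φ) (quadsΦ Φ) hne hm) (bc (F := Φ.F)) κ ce
        Cm.fam lv ((thC hLa h (m' := fun _ => M) fun _ => hG.1).trans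
          (rcR hn.mono hn.zero hn.top (foamΦ hLa Φ) (quadsΦ Φ) (fun _ => hG.1) hm c))).B (Cm.col q x))
      (fun q x z' => sg (Cm.Lab (Cm.col q x) q) *
        ((ekS (grid (foamΦ hLa Φ) (quadsΦ Φ) hne hm) (bc (F := Φ.F)) κ ce Cm.fam lv
          ((thC hLa h (m' := fun _ => M) fun _ => hG.1).trans
            (rcR hn.mono hn.zero hn.top (foamΦ hLa Φ) (quadsΦ Φ) (fun _ => hG.1) hm c))).G
              (Cm.col q x) z' - 1/2)) := by
  obtain ⟨gx, G, hlo, hhi⟩ := exists_meshG hLa h hG hT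
  have D' : Disc Cm (Dk i ck) lv N (fun q => (gx q).lo) (fun q => (gx q).hi) :=
    D.congr fun q hq a => ⟨hlo q hq a, hhi q hq a⟩
  have key := baseC_box (Cm := Cm) (K := fun q => (ck q).set) (D := Dk i ck) hn.mono hn.zero hG.1 hn.top
    (foamΦ hLa Φ) (quadsΦ Φ) hne hm hκ ce Cm.fam lv
    (thC hLa h (m' := fun _ => M) fun _ => hG.1) N hn.near Φ.bf hLa (by simp) hδ hR Φ.cmp
    (thA A lam z) (fun z' _ => by rw [thA_eq]; rfl) D'.inj D'.dn gx
    (fun hp hq => G.mono hp hq) G.K_eq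
    (fun q _ => by rw [(ck q).set_eq]; exact Tl.isCompact_cc (ck q).pt_mem)
    (fun q _ => by rw [(ck q).set_eq]; exact Tl.convex_cc _)
    (fun q _ => by rw [← hbd q]; exact X.isBall q) G.h0 (fun q hq => ?_) G.dm
    (fun q hq _ z' hz' => G.bd (foamΦ hLa Φ) (quadsΦ Φ) (fun _ => hG.1) hq hz') D'.rng D'.one D'.ex sur
    hNM hNmo (fun _ _ => Iff.rfl) D'.lab1 D'.lab0 D'.sd hw hwf
  · simpa using key
  · rw [← hT.dm q]; exact hq.2

end core

/-! ### the final state of 662 -/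

section fin

open Crest.Agent.R096.St_147 Crest.Agent.R096.Seq_213 Crest.Agent.R096.Seq_213.GSt
  Crest.Agent.R096.Lm_117 Crest.Agent.R096.Ac_117 Crest.Agent.R096.Gl_422
  Crest.Agent.R096.Mg_441 Crest.Agent.R096.Lab_184 Crest.Agent.R096.Agl5_543
  Crest.Agent.R096.Cp_298 Crest.Agent.R096.SkB_662

variable {δ κ0 R c0 : ℝ} {La Om : Set E3} {ι : Type} {Φ : FoamD δ κ0 R c0 La} {T : Tiling Om ι}
  {f : E3 → E3} {κ1 κ2 : ℝ}
variable {ι' Fc Q J K : Type} [PartialOrder Q] {dim : Q → ℕ} {Mc : MeshC ι' Fc E3}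
  {L : LM Mc Q dim} {κ : Q → T.Cell}
variable {O : Ori Mc} {σ : Q → ZMod 2} {Rel : E3 → E3 → Prop} {VV : Set E3}
  {Qd : Quads ι' Φ.F K} {κc : Φ.F → ℕ} {fam : J → Φ.F} {s₀ : GSt Mc fam} {far₀ : J → Set E3}
  {G₀ : Φ.F → Set E3} {Z : Φ.F → Set Q} {lam₀ : J → Q → ZMod 2} {v₀ v₁ : Φ.F → Q}
  {hfin : ∀ a, {j | fam j = a}.Finite} {kap : Φ.F → ℕ} {s : GSt Mc (fam' fam (Rk κc kap))}
  {far : Nm' fam (Rk κc kap) → Set E3} {β : E3 → E3} {lab : Nm' fam (Rk κc kap) → Q → ZMod 2}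

variable (Φ f) in
/-- **the initial state at one exact core** (tile `i`): the cells of the tile are cells of `L`, the
points in the tile are points of the levels, the 1-cells of the tile are frozen, one vertex of the
tile is joined with the base point of every family by frozen 1-cells, the labels at the vertices are
the labels of the levels. -/
structure CoreS (L : LM Mc Q dim) (Qd : Quads ι' Φ.F K) (κ : Q → T.Cell) (i : ι) (s₀ : GSt Mc fam) (t : J → ℝ) (Z : Φ.F → Set Q) (v₀ : Φ.F → Q)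
    (lam₀ : J → Q → ZMod 2) : Prop where
  full : Full T i κ
  lev : ∀ w ∈ s₀.P, w ∈ P (T.H i) → Φ.lev (fam (s₀.lab w)) (f w) = t (s₀.lab w)
  fr : ∀ e ∈ Dk i κ, dim e = 1 → ∀ a, FrE L Qd a e
  path : ∀ a, (∃ j, fam j = a) → (∃ v ∈ Dk i κ, dim v = 0 ∧
      ReflTransGen (Ed L {e | FrE L Qd a e}) (v₀ a) v) ∨
      ∀ v ∈ Dk i κ, dim v = 0 → v ∈ Z a ∧ ∀ j, fam j = a → lam₀ j v = 0
  lab : ∀ v ∈ Dk i κ, dim v = 0 → ∀ j, lam₀ j v = 1 ↔ Φ.lev (fam j) (f (κ v).pt) < t j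

variable {c : Φ.F} {i : ι} {A : E3 ≃ᵃ[ℝ] E3} {lam : ℝ} {z : E3} {M : ℕ} {t : J → ℝ}

variable (Φ T f) in
/-- words at one core -/
abbrev CWt (i : ι) (A : E3 ≃ᵃ[ℝ] E3)
    (lam : ℝ) (z : E3) (M : ℕ) (fam : J → Φ.F) (t : J → ℝ) : Prop :=
  CW T i (U Φ A lam z M) fam (fun j => M * t j) (fun j => {y | Φ.lev (fam j) (f y) = t j})
    (fun j => {y | Φ.lev (fam j) (f y) < t j})

/-- the numbers of the nodes of a core -/
noncomputable abbrev NNt (fam : J → Φ.F) (κc kap : Φ.F → ℕ) (t : J → ℝ) (M : ℕ) : Φ.F → ℕ → ℕ :=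
  NN fam κc kap (fun j => M * t j)

theorem sto_discR (hi : StI L O σ Rel VV Qd κc s₀ far₀ G₀ Z lam₀ v₀ v₁)
    (h : StO L O σ Rel VV Qd κc s₀ far₀ Z lam₀ v₀ v₁ hfin kap s far β lab)
    (hLa : IsOpen La) (hT : OnT T L.toSk κ) (hE : Mbf_337.Exact Φ T f κ1 κ2 c i A lam z)
    (hG : Grid Φ T i A lam z M) (W : CWt Φ T f i A lam z M fam t)
    (S : CoreS Φ f L Qd κ i s₀ t Z v₀ lam₀) :
    Disc h.cmb (Dk i κ) (nr L s lab h.fin1) (NNt fam κc kap t M) (lo (U Φ A lam z M) κ)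
      (Ecm_446.hi (U Φ A lam z M) κ) :=
  sto_disc hi h hT S.full (cg_of_grid hLa hE hG) W S.lev S.fr S.path S.lab

theorem exists_nodR (hM : 0 < M) (hfin : ∀ a, {j | fam j = a}.Finite)
    (h : StO L O σ Rel VV Qd κc s₀ far₀ Z lam₀ v₀ v₁ hfin kap s far β lab)
    (hne : ∀ a, ∃ j, fam j = a) (ht : ∀ j, 0 < t j ∧ t j ≤ 1) {κf : ℝ} (hκf : 0 < κf) :
    ∃ n, Nod M (mm h.fin1) (NNt fam κc kap t M) κf n := by
  have hM' : (0 : ℝ) < M := by exact_mod_cast hM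
  exact exists_nod hκf hM (fun a => h.mm_pos (hne a)) (fun a => NN_mono hfin a)
    (fun a => NN_zero (fun j => mul_pos hM' (ht j).1) a)
    (fun a => NN_top (fun j => by nlinarith [(ht j).2]) a hfin)

/-- **THE BASE OF ONE TYPE R CORE OF THE FINAL STATE** -/
theorem sto_baseC (hi : StI L O σ Rel VV Qd κc s₀ far₀ G₀ Z lam₀ v₀ v₁)
    (h : StO L O σ Rel VV Qd κc s₀ far₀ Z lam₀ v₀ v₁ hfin kap s far β lab)
    (hLa : IsOpen La) (hδ : 0 < δ) (hR : 0 < R)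
    (hT : OnT T L.toSk κ) {Ω : Set E3} (X : Cplx Ω Q dim (fun q => (κ q).set))
    (hbd : ∀ q, bdS (fun q => (κ q).set) q = (κ q).set \ ri (κ q).set)
    (hne : ∀ c, (Pc Φ.F c).Nonempty) (hm : ∀ a, 0 < mm h.fin1 a)
    (ht : ∀ j, t j ≤ 1) {κf : ℝ} (hκ : 0 < κf ∧ κf < 1) (ce : Cel (Pc Φ.F) (mm h.fin1))
    (hE : Mbf_337.Exact Φ T f κ1 κ2 c i A lam z) (hG : Grid Φ T i A lam z M)
    (W : CWt Φ T f i A lam z M fam t) (S : CoreS Φ f L Qd κ i s₀ t Z v₀ lam₀)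
    {n : Φ.F → ℕ → ℝ} (hn : Nod M (mm h.fin1) (NNt fam κc kap t M) κf n) :
    BaseC h.cmb (fun q => (κ q).set) (wts κc kap fam) (Kbase 3 δ R κf) (Dk i κ)
      (ekS (grid (foamΦ hLa Φ) (quadsΦ Φ) hne hm) (bc (F := Φ.F)) κf ce h.cmb.fam
        (nr L s lab h.fin1) ((thC hLa hE (m' := fun _ => M) fun _ => hG.1).trans
          (rcR hn.mono hn.zero hn.top (foamΦ hLa Φ) (quadsΦ Φ) (fun _ => hG.1) hm c)))
      (fun q x => (κ q).set ∩ (ekS (grid (foamΦ hLa Φ) (quadsΦ Φ) hne hm) (bc (F := Φ.F)) κf ce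
        h.cmb.fam (nr L s lab h.fin1) ((thC hLa hE (m' := fun _ => M) fun _ => hG.1).trans
          (rcR hn.mono hn.zero hn.top (foamΦ hLa Φ) (quadsΦ Φ) (fun _ => hG.1) hm c))).B
            (h.cmb.col q x))
      (fun q x z' => sg (h.cmb.Lab (h.cmb.col q x) q) *
        ((ekS (grid (foamΦ hLa Φ) (quadsΦ Φ) hne hm) (bc (F := Φ.F)) κf ce h.cmb.fam
          (nr L s lab h.fin1) ((thC hLa hE (m' := fun _ => M) fun _ => hG.1).trans
            (rcR hn.mono hn.zero hn.top (foamΦ hLa Φ) (quadsΦ Φ) (fun _ => hG.1) hm c))).G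
              (h.cmb.col q x) z' - 1/2)) := by
  have hM' : (0 : ℝ) < M := by exact_mod_cast hG.1
  refine core_baseC hLa hδ hR hE hG (OnC.of_onT hT) X hbd hne hm hn (fun a => NN_mono hfin a)
    (fun a => ?_) hκ ce (sto_discR hi h hLa hT hE hG W S) (sto_sur h) (fun j => by positivity)
    (fun j j' hj => ?_)
  · exact NN_top (fun j => by nlinarith [ht j]) a hfin
  · show (2 : ℝ)⁻¹ ^ kap (fam' fam (Rk κc kap) j) = (2 : ℝ)⁻¹ ^ kap (fam' fam (Rk κc kap) j')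
    have hj' : fam' fam (Rk κc kap) j = fam' fam (Rk κc kap) j' := hj
    rw [hj']

end fin

end Crest.Agent.R096.Ecm_446
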