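import Crest.Agent.R096.Onb1_63
import Crest.Agent.R096.Frn1_337
import Crest.Agent.R096.Ecm7_446
import Crest.Agent.R096.Cgt1_113

/-!
# R096 (row 96), bottom: the exact cores of 337's seam `Front` (helper63)

For `c ∈ X`, from `Lay` + `Cores` (+ `Words`) + `Front`:
* `ct_not_V`, `ct_not_J`, `keep_ct`, `cc_ct`, `out_ct` : the core tile is not cut, it lies in no `KK k`;
* `exact3`, `grid3`, `cw3` : exactness, grid and words of the core tile over `T3`;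
* `onT_Lp`, `full_Lp` : the cells of `Lp` are cells of `T3` (cell map = 642's `celK`);
* **`Front.coreS`** : 446's `CoreS` over `Lp`.
-/

set_option autoImplicit false
set_option linter.unusedSectionVars false
set_option linter.unusedVariables false
set_option linter.style.longLine false

open Set Relation Module

namespace Crest.Agent.R096.Onb_63

open Crest.Agent.R096.Brk1_582 Crest.Agent.R096.Brk2_582 Crest.Agent.R096.Brk3_582
open Crest.Agent.R096.Brk5_582 Crest.Agent.R096.Bsp_628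
open Crest.Agent.R096.St_147 Crest.Agent.R096.Seq_213 Crest.Agent.R096.Seq_213.GSt
open Crest.Agent.R096.Lm_117 Crest.Agent.R096.Ac_117 Crest.Agent.R096.Msh_715
open Crest.Agent.R096.Cp_298 Crest.Agent.R096.Gm_298 Crest.Agent.R096.Gl_422
open Crest.Agent.R096.SkB_662 Crest.Agent.R096.Cpo_642
open Crest.Agent.R096.Agl5_543 Crest.Agent.R096.Ori_543
open Crest.Agent.R096.Init_543 (JJ fr3)
open Crest.Agent.R096.SkC1_961 (E3 Hom3 FoamD Cfg th)
open Crest.Agent.R096.Mbf_337 (KJ sb Cores Words Exact)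
open Crest.Agent.R096.Frn_337 Crest.Agent.R096.Ecm_446

variable {δ κ0 R c0 : ℝ} {La Om : Set E3} {ι : Type}

section geo

variable {Φ : FoamD δ κ0 R c0 La} {T : Tiling Om ι} {f : E3 → E3} {κ1 κ2 : ℝ} {X : Set Φ.F}
  {J0 Jt V : Φ.F → Set ι} {ct : Φ.F → ι} {A : Φ.F → E3 ≃ᵃ[ℝ] E3} {lam : Φ.F → ℝ} {z : Φ.F → E3}
  {θ : Φ.F → E3 → E3} {φ : Φ.F → E3 → ℝ}
  {ι3 : Type} {T3 : Tiling Om ι3} {KK : Ti X → Set E3} {c3 : ι → ι3}

/-- the tile of an exact core is not near a tiny core -/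
theorem ct_not_V (hC : Cores Φ T f κ1 κ2 X J0 Jt V ct A lam z θ φ) {c k : Φ.F} (hc : c ∈ X)
    (hk : k ∉ X) : ct c ∉ V k := by
  have hne : c ≠ k := by rintro rfl; exact hk hc
  have h1 : ct c ∈ V c := by rw [(hC.one c hc).2.2]; exact mem_singleton _
  exact Set.disjoint_left.1 (hC.disj c k hne) h1

theorem ct_not_J (hC : Cores Φ T f κ1 κ2 X J0 Jt V ct A lam z θ φ) {c : Φ.F} (hc : c ∈ X)
    (k : Ti X) : ct c ∉ Jt k.1 :=
  fun h => ct_not_V hC hc k.2 ((hC.tiny k.1 k.2).sub h)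

/-- the tile of an exact core is not cut -/
theorem keep_ct (hL : Lay Φ T X J0 Jt T3 KK c3) (hC : Cores Φ T f κ1 κ2 X J0 Jt V ct A lam z θ φ)
    {c : Φ.F} (hc : c ∈ X) : P (T3.H (c3 (ct c))) = P (T.H (ct c)) :=
  hL.keep _ fun k => ct_not_J hC hc k

/-- the open tile of an exact core is disjoint from the tiny cores -/
theorem open_disj (hC : Cores Φ T f κ1 κ2 X J0 Jt V ct A lam z θ φ) {c : Φ.F} (hc : c ∈ X)
    (k : Ti X) {y : E3} (hy : y ∈ I (T.H (ct c))) : y ∉ KJ T (Jt k.1) := by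
  intro h
  obtain ⟨i, hi, hyi⟩ := mem_iUnion₂.1 h
  have h1 : i ∈ T.at_ y := hyi
  rw [T.at_eq_singleton hy, mem_singleton_iff] at h1
  exact ct_not_J hC hc k (h1 ▸ hi)

theorem not_int_KJ (hC : Cores Φ T f κ1 κ2 X J0 Jt V ct A lam z θ φ) {c : Φ.F} (hc : c ∈ X)
    (k : Ti X) {x : E3} (hx : x ∈ P (T.H (ct c))) : x ∉ interior (KJ T (Jt k.1)) := by
  intro h
  obtain ⟨y, h1, h2⟩ := mem_closure_iff.1 (P_sub_closure_I (T.ne _) hx) _ isOpen_interior h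
  exact open_disj hC hc k h2 (interior_subset h1)

/-- the cells of the tile of an exact core -/
theorem cc_ct (hL : Lay Φ T X J0 Jt T3 KK c3) (hC : Cores Φ T f κ1 κ2 X J0 Jt V ct A lam z θ φ)
    {c : Φ.F} (hc : c ∈ X) : ∀ x ∈ P (T.H (ct c)), T3.cc x = T.cc x ∧ T3.dim x = T.dim x :=
  fun x hx => hL.cc x (T.sub _ hx) fun k => not_int_KJ hC hc k hx

/-- the tile of an exact core is in no remaining tiny core -/
theorem out_ct (hL : Lay Φ T X J0 Jt T3 KK c3) (hC : Cores Φ T f κ1 κ2 X J0 Jt V ct A lam z θ φ)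
    {c : Φ.F} (hc : c ∈ X) (k : Ti X) : ¬ P (T3.H (c3 (ct c))) ⊆ KK k := by
  rw [keep_ct hL hC hc]
  intro h
  obtain ⟨y, hy⟩ := T.ne (ct c)
  exact open_disj hC hc k hy (hL.sub k (h (I_sub_P _ hy)))

/-- the tile of an exact core is not a tile of another exact core -/
theorem ct_inj (hC : Cores Φ T f κ1 κ2 X J0 Jt V ct A lam z θ φ) {c c' : Φ.F} (hc : c ∈ X)
    (hc' : c' ∈ X) (h : ct c = ct c') : c = c' := by
  by_contra hne
  have h1 : ct c ∈ V c := by rw [(hC.one c hc).2.2]; exact mem_singleton _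
  have h2 : ct c' ∈ V c' := by rw [(hC.one c' hc').2.2]; exact mem_singleton _
  exact Set.disjoint_left.1 (hC.disj c c' hne) h1 (h ▸ h2)

/-! ### exactness, grid, words over `T3` -/

/-- **exact cores over `T3`** -/
theorem exact3 (hL : Lay Φ T X J0 Jt T3 KK c3) (hC : Cores Φ T f κ1 κ2 X J0 Jt V ct A lam z θ φ)
    {c : Φ.F} (hc : c ∈ X) : Exact Φ T3 f κ1 κ2 c (c3 (ct c)) (A c) (lam c) (z c) :=
  Exact.of_P (hC.exact_ c hc) (keep_ct hL hC hc)

variable {M : Φ.F → ℕ} {L : Φ.F → Finset ℝ}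

/-- **grid over `T3`** -/
theorem grid3 (hL : Lay Φ T X J0 Jt T3 KK c3) (hC : Cores Φ T f κ1 κ2 X J0 Jt V ct A lam z θ φ)
    (hW : Words Φ T f X ct A lam z M L) {c : Φ.F} (hc : c ∈ X) :
    Grid Φ T3 (c3 (ct c)) (A c) (lam c) (z c) (M c) :=
  Grid.of_cc (T := T) (T' := T3) (i := ct c) (hW.grid c hc) (keep_ct hL hC hc)
    (fun x hx => (cc_ct hL hC hc x hx).1) (fun x hx => (cc_ct hL hC hc x hx).2)

/-- **words over `T3`** -/
theorem cw3 (hL : Lay Φ T X J0 Jt T3 KK c3) (hC : Cores Φ T f κ1 κ2 X J0 Jt V ct A lam z θ φ)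
    (hW : Words Φ T f X ct A lam z M L) {c : Φ.F} (hc : c ∈ X) :
    CWt Φ T3 f (c3 (ct c)) (A c) (lam c) (z c) (M c) (fun j : JJ Φ L => j.1) (fun j => j.2.1) :=
  Mf_113.CW.of_cc (cw_of_words hW hc (hW.grid c hc).1 (fun j : JJ Φ L => j.2.2))
    (keep_ct hL hC hc) (fun x hx => (cc_ct hL hC hc x hx).1)

end geo

/-! ### the cells of `Lp` -/

section cells

variable {Φ : FoamD δ κ0 R c0 La} {X : Set Φ.F} {ι3 : Type} {T3 : Tiling Om ι3}
  {KK : Ti X → Set E3} {c3 : ι → ι3} {ct : Φ.F → ι}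
variable [Nonempty T3.Cell] {hH : ∀ k, CoreH T3 (KK k)}
    {hdis : ∀ k k', k ≠ k' → Disjoint (KK k) (KK k')} {hne : ∃ c, OutK T3 KK c}

/-- the cell map of `Lp` -/
noncomputable abbrev kp (T3 : Tiling Om ι3) (KK : Ti X → Set E3) (c3 : ι → ι3) (ct : Φ.F → ι) :
    {c : QK (belK T3 KK) // pO T3 KK c3 ct c} → T3.Cell := celK T3 KK (tlX X c3 ct)

theorem pO_k (k : Ti X) : ¬ pO T3 KK c3 ct (QK.k _ k) := fun h => h

theorem kT_kp : kT T3 KK (pO T3 KK c3 ct) = kp T3 KK c3 ct := by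
  funext q
  obtain ⟨a | a, ha⟩ := q
  · rfl
  · exact ha.elim

/-- **the cells of `Lp` are cells of `T3`** -/
theorem onT_Lp : OnT T3 (Lp c3 ct hH hdis hne).toSk (kp T3 KK c3 ct) := by
  rw [← kT_kp]
  exact onT_K (h3 := fr3) _ _ _ pO_k

theorem full_Lp {i : ι3} (hout : ∀ k, ¬ P (T3.H i) ⊆ KK k) : Full T3 i (kp T3 KK c3 ct) where
  sur := by
    rintro c ⟨h1, h2⟩
    rw [← kT_kp]
    exact kT_sur pO_two hout h1 h2
  inj := fun q q' h => celK_inj _ h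

end cells

/-! ### the seam -/

section front

variable {Φ : FoamD δ κ0 R c0 La} {T : Tiling Om ι} {f : E3 → E3} {κ1 κ2 : ℝ} {X : Set Φ.F}
  {J0 Jt V : Φ.F → Set ι} {ct : Φ.F → ι} {A : Φ.F → E3 ≃ᵃ[ℝ] E3} {lam : Φ.F → ℝ} {z : Φ.F → E3}
  {θ : Φ.F → E3 → E3} {φ : Φ.F → E3 → ℝ}
  {ι3 : Type} {T3 : Tiling Om ι3} {KK : Ti X → Set E3} {c3 : ι → ι3}
variable [Nonempty T3.Cell] {hH : ∀ k, CoreH T3 (KK k)}
    {hdis : ∀ k k', k ≠ k' → Disjoint (KK k) (KK k')} {hne : ∃ c, OutK T3 KK c}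
    {L : Φ.F → Finset ℝ} {Qd : Quads (ι3 ⊕ Ti X) Φ.F (Init_543.QK (Pc Φ.F))}
    {s₀ : GSt (mK fr3 hH hdis) (fun j : JJ Φ L => j.1)} {far₀ : JJ Φ L → Set E3}
    {Gc : Φ.F → Set E3} {Zc : Φ.F → Set (QK (belK T3 KK))}
    {lam₀ : JJ Φ L → QK (belK T3 KK) → ZMod 2} {v₀ v₁ : Φ.F → QK (belK T3 KK)}

/-- the tile of an exact core is active in no quad -/
theorem Front.act_ct (h : Front T f J0 Jt V ct c3 hH hdis hne Qd s₀ far₀ Gc Zc lam₀ v₀ v₁)
    {c : Φ.F} (hc : c ∈ X) (k : Init_543.QK (Pc Φ.F)) : Sum.inl (c3 (ct c)) ∉ Qd.Act k := by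
  have h1 := h.actK k c
  unfold cti at h1
  rw [dif_neg (not_not.2 hc)] at h1
  exact h1

/-- the 1-cells of the tile of an exact core are frozen -/
theorem Front.fr_ct (hL : Lay Φ T X J0 Jt T3 KK c3)
    (hC : Cores Φ T f κ1 κ2 X J0 Jt V ct A lam z θ φ)
    (h : Front T f J0 Jt V ct c3 hH hdis hne Qd s₀ far₀ Gc Zc lam₀ v₀ v₁) {c : Φ.F} (hc : c ∈ X) :
    ∀ e ∈ Dk (c3 (ct c)) (kp T3 KK c3 ct), dimK (belK T3 KK) (fun c => c.1.dim) e.1 = 1 → ∀ a,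
      FrE (Lp c3 ct hH hdis hne) Qd a e := by
  rw [← kT_kp]
  exact hfr_K (h3 := fr3) (hp := pO_down) (hpe := pO_ne hne) (h2 := pO_two) pO_k
    (fun k => Front.act_ct h hc k) (out_ct hL hC hc)

/-- **446's `CoreS` of the seam** -/
theorem Front.coreS (hL : Lay Φ T X J0 Jt T3 KK c3)
    (hC : Cores Φ T f κ1 κ2 X J0 Jt V ct A lam z θ φ)
    (h : Front T f J0 Jt V ct c3 hH hdis hne Qd s₀ far₀ Gc Zc lam₀ v₀ v₁)
    {c : Φ.F} (hc : c ∈ X) :
    CoreS Φ f (Lp c3 ct hH hdis hne) Qd (kp T3 KK c3 ct) (c3 (ct c)) s₀ (fun j => j.2.1)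
      (fun a => {v | v.1 ∈ Zc a}) (fun a => sv (pO T3 KK c3 ct) (pO_ne hne) (v₀ a))
      (fun j v => lam₀ j v.1) where
  full := full_Lp (out_ct hL hC hc)
  lev := by
    intro w hw hwi
    rw [keep_ct hL hC hc] at hwi
    exact h.lev w hw (ct c) (fun k => ct_not_V hC hc k.2) hwi
  fr := Front.fr_ct hL hC h hc
  path := by
    rintro a ⟨j, rfl⟩
    rcases h.ropX c hc j with ⟨v, h1, h2, h4⟩ | h1
    · left
      obtain ⟨hv', h5⟩ := path_sb (hp := pO_down (c3 := c3) (ct := ct)) (hne := pO_ne hne)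
        (h2 := pO_two) h4 (pO_two _ (by rw [(h.lab.v₀_dim j).1]; norm_num))
      refine ⟨⟨QK.c _ v, hv'⟩, ⟨?_, ?_⟩, h1, ?_⟩
      · show v.1.set ⊆ _
        rw [keep_ct hL hC hc]
        exact h2
      · show v.1.dim ≤ 2
        rw [h1]; norm_num
      · rw [sv_eq (pO_two _ (by rw [(h.lab.v₀_dim j).1]; norm_num))]
        exact h5
    · right
      rintro ⟨v | k, hv⟩ hvD hv0
      · exact h1 v hv0 (by rw [← keep_ct hL hC hc]; exact hvD.1)
      · exact hv.elim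
  lab := by
    rintro ⟨v | k, hv⟩ hvD hv0 j
    · exact h.labX c hc v hv0 (by rw [← keep_ct hL hC hc]; exact hvD.1) j
    · exact hv.elim

end front

end Crest.Agent.R096.Onb_63
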