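import Crest.Agent.R096.E1r2_914
import Crest.Agent.R096.Onb2_63

/-!
# R096 (row 96), (E1) at the exact cores, part 4 (helper914): the clause `one` of 337's `Front` at the
exact cores, from the other clauses of `Front` (`lev`, `lab`, `labX`), `Lay`, `Cores`, `Words`
-/

set_option autoImplicit false
set_option linter.unusedSectionVars false
set_option linter.unusedVariables false
set_option linter.style.longLine false

open Set Relation Module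

namespace Crest.Agent.R096.E1r_914

open Crest.Agent.R096.Brk1_582 Crest.Agent.R096.Brk2_582 Crest.Agent.R096.Brk3_582
open Crest.Agent.R096.Brk5_582 Crest.Agent.R096.Bsp_628
open Crest.Agent.R096.St_147 Crest.Agent.R096.Seq_213 Crest.Agent.R096.Seq_213.GSt
open Crest.Agent.R096.Lm_117 Crest.Agent.R096.Ac_117 Crest.Agent.R096.Msh_715
open Crest.Agent.R096.Cp_298 Crest.Agent.R096.Gm_298 Crest.Agent.R096.Gl_422
open Crest.Agent.R096.SkB_662 Crest.Agent.R096.Cpo_642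
open Crest.Agent.R096.Agl5_543 Crest.Agent.R096.Ori_543
open Crest.Agent.R096.Init_543 (JJ fr3)
open Crest.Agent.R096.SkC1_961 (E3 Hom3 FoamD Cfg th)
open Crest.Agent.R096.Mbf_337 (KJ sb Cores Words Exact)
open Crest.Agent.R096.Frn_337 Crest.Agent.R096.Ecm_446 Crest.Agent.R096.Onb_63

variable {δ κ0 R c0 : ℝ} {La Om : Set E3} {ι : Type}
variable {Φ : FoamD δ κ0 R c0 La} {T : Tiling Om ι} {f : E3 → E3} {κ1 κ2 : ℝ} {X : Set Φ.F}
  {J0 Jt V : Φ.F → Set ι} {ct : Φ.F → ι} {A : Φ.F → E3 ≃ᵃ[ℝ] E3} {lam : Φ.F → ℝ} {z : Φ.F → E3}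
  {θ : Φ.F → E3 → E3} {φ : Φ.F → E3 → ℝ} {M : Φ.F → ℕ}
  {ι3 : Type} {T3 : Tiling Om ι3} {KK : Ti X → Set E3} {c3 : ι → ι3}
variable [Nonempty T3.Cell] {hH : ∀ k, CoreH T3 (KK k)}
    {hdis : ∀ k k', k ≠ k' → Disjoint (KK k) (KK k')} {hne : ∃ c, OutK T3 KK c}
    {L : Φ.F → Finset ℝ}
    {s₀ : GSt (mK fr3 hH hdis) (fun j : JJ Φ L => j.1)}
    {lam₀ : JJ Φ L → QK (belK T3 KK) → ZMod 2}

/-- the faces of the exact core tile in `meshK T3 KK` over `Lp` -/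
theorem tileOf_Lp {i : ι3} (hout : ∀ k, ¬ P (T3.H i) ⊆ KK k) :
    TileOf (Lp c3 ct hH hdis hne) T3 (kp T3 KK c3 ct) (Sum.inl i) i := fun F => mem_side_K hout F

theorem sur_Lp (q : {c : QK (belK T3 KK) // pO T3 KK c3 ct c})
    (hq : dimK (belK T3 KK) (fun c => c.1.dim) q.1 = 2) : ∃ F, (Lp c3 ct hH hdis hne).cf F = q := by
  obtain ⟨F, hF⟩ := (top3K fr3 hH hdis hne).cf_sur q.1 hq
  exact ⟨F, Subtype.ext hF⟩

/-- **(E1) at the exact cores**: the clause `one` of `Front` for `c ∈ X` -/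
theorem one_ct (hLa : IsOpen La) (hL : Lay Φ T X J0 Jt T3 KK c3)
    (hC : Cores Φ T f κ1 κ2 X J0 Jt V ct A lam z θ φ) (hW : Words Φ T f X ct A lam z M L)
    (ht : ∀ j : JJ Φ L, 0 < (j.2.1 : ℝ))
    (hlab : ∀ j, GLab (lmK fr3 hH hdis hne) (gp s₀ j) (lam₀ j))
    (hlev : ∀ c ∈ X, ∀ w ∈ s₀.P, w ∈ P (T.H (ct c)) → Φ.lev (s₀.lab w).1 (f w) = (s₀.lab w).2.1)
    (hlabX : ∀ c ∈ X, ∀ v : {c : T3.Cell // OutK T3 KK c}, v.1.dim = 0 → v.1.set ⊆ P (T.H (ct c)) →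
      ∀ j : JJ Φ L, lam₀ j (QK.c _ v) = 1 ↔ Φ.lev j.1 (f v.1.pt) < j.2.1) :
    ∀ c ∈ X, ∀ j : JJ Φ L, One s₀ {F | cti X c3 ct c ∈ (mK fr3 hH hdis).side F} j := by
  intro c hc j
  have hcti : cti X c3 ct c = Sum.inl (c3 (ct c)) := by
    unfold cti; rw [dif_neg (not_not.2 hc)]
  rw [hcti, ← oneCyc_iff]
  have hM := (hW.grid c hc).1
  have hM' : (0 : ℝ) < M c := by exact_mod_cast hM
  refine one_init (T := T3) (L := Lp c3 ct hH hdis hne) (κ := kp T3 KK c3 ct) hLa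
    (exact3 hL hC hc) hM rfl onT_Lp (full_Lp (out_ct hL hC hc)) sur_Lp
    (tileOf_Lp (out_ct hL hC hc)) (cg_of_grid hLa (exact3 hL hC hc) (grid3 hL hC hW hc))
    (cw3 hL hC hW hc) (la := fun j v => lam₀ j v.1) ?_ ?_ ?_ j (mul_pos hM' (ht j))
  · intro w hw hwi
    rw [keep_ct hL hC hc] at hwi
    exact hlev c hc w hw hwi
  · intro j q
    rw [On_441.gp_eq]
    exact (glab_sb (hlab j)).xl q
  · rintro ⟨v | k, hv⟩ hvD hv0 j
    · exact hlabX c hc v hv0 (by rw [← keep_ct hL hC hc]; exact hvD.1) j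
    · exact hv.elim

end Crest.Agent.R096.E1r_914
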