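import Crest.Agent.R096.Sla6_184

/-!
# Row 96, DOORS, leaf SLC in the format of `Mbf_337.Tiny` (helper184), part 7: the tiles of the sliced
tiling.

* off the cores `S.T3` is `T` (same cells, same dimensions, same tiles);
* `tile_cases` : every tile of `S.T3` is an outer tile, the tile over a face of a shell in a layer, or
  it is inside an inner core.
-/

set_option autoImplicit false
set_option linter.unusedSectionVars false

open Set Filter Topology Metric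
open scoped Classical

namespace Crest.Agent.R096.Sla_184

open Crest.Agent.R096.Msh_715 Crest.Agent.R096.Agl5_543 Crest.Agent.R096.St_147
  Crest.Agent.R096.Lac_441 Crest.Agent.R096.Slc_184

variable {E : Type} [NormedAddCommGroup E] [NormedSpace ℝ E] [FiniteDimensional ℝ E]
variable {Om : Set E} {ι : Type}

namespace Sla

variable {T : Tiling Om ι} {κ : Type}
variable {S : Sla T κ} {h3 : Module.finrank ℝ E = 3} {c : κ} {x y z w : E} {j : ℕ}

/-- every point is outer or an inner point of exactly one core -/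
theorem out_or (hx : x ∈ Om) : S.Out x ∨ ∃ c, S.In c x := by
  by_cases h : ∃ c, S.In c x
  · exact Or.inr h
  · push Not at h
    exact Or.inl ⟨hx, h⟩

/-- the points of the outer tiles are outer -/
theorem out_of_tile {i : ι} (hi : ∀ c, ¬ P (T.H i) ⊆ S.K c) (hx : x ∈ P (T.H i)) : S.Out x :=
  ⟨T.sub i hx, fun c hc => hi c (hc.tile hx)⟩

/-- the tiles of the cores -/
theorem tile_or (S : Sla T κ) (i : ι) :
    (∀ c, ¬ P (T.H i) ⊆ S.K c) ∨ ∃ c, P (T.H i) ⊆ S.K c := by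
  by_cases h : ∃ c, P (T.H i) ⊆ S.K c
  · exact Or.inr h
  · push Not at h
    exact Or.inl h

theorem tile_unique {i : ι} {c c' : κ} (h : P (T.H i) ⊆ S.K c) (h' : P (T.H i) ⊆ S.K c') :
    c = c' := by
  obtain ⟨x, hx⟩ := T.ne i
  exact S.core_unique (h (I_sub_P _ hx)) (h' (I_sub_P _ hx))

/-- the tile of `T3` over an outer tile -/
noncomputable def ot (S : Sla T κ) (i : ι) (hi : ∀ c, ¬ P (T.H i) ⊆ S.K c) : T.RIdx S.HH :=
  Tiling.RIdx.of T (HH_empty hi)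

theorem ot_tile {i : ι} (hi : ∀ c, ¬ P (T.H i) ⊆ S.K c) : (S.ot i hi).tile = i := rfl

theorem ot_H {i : ι} (hi : ∀ c, ¬ P (T.H i) ⊆ S.K c) : S.T3.H (S.ot i hi) = T.H i :=
  Tiling.RIdx.HS_of_eq T (p := S.ot i hi) (HH_empty hi)

theorem ot_P {i : ι} (hi : ∀ c, ¬ P (T.H i) ⊆ S.K c) : P (S.T3.H (S.ot i hi)) = P (T.H i) := by
  rw [ot_H]

theorem ot_inj {i i' : ι} (hi : ∀ c, ¬ P (T.H i) ⊆ S.K c) (hi' : ∀ c, ¬ P (T.H i') ⊆ S.K c)
    (h : S.ot i hi = S.ot i' hi') : i = i' := congrArg Tiling.RIdx.tile h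

theorem eq_ot {p : T.RIdx S.HH} (hp : ∀ c, ¬ P (T.H p.tile) ⊆ S.K c) : p = S.ot p.tile hp :=
  Tiling.RIdx.eq_of T (HH_empty hp)

theorem ot_mem_at {i : ι} (hi : ∀ c, ¬ P (T.H i) ⊆ S.K c) :
    S.ot i hi ∈ S.T3.at_ x ↔ i ∈ T.at_ x := by
  show x ∈ P (S.T3.H (S.ot i hi)) ↔ x ∈ P (T.H i)
  rw [ot_P]

/-- the tile of `T3` is in the tile of `T` -/
theorem P3_sub (p : T.RIdx S.HH) : P (S.T3.H p) ⊆ P (T.H p.tile) := p.P_sub

theorem P3_K {p : T.RIdx S.HH} : P (S.T3.H p) ⊆ S.K c ↔ P (T.H p.tile) ⊆ S.K c := by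
  constructor
  · intro h
    obtain ⟨x, hx⟩ := S.T3.ne p
    have h1 : I (S.T3.H p) ⊆ interior (S.K c) :=
      interior_maximal ((I_sub_P _).trans h) (isOpen_I _)
    exact T.sub_of_mem_interior (S.closed c) (S.hH c).cc (P3_sub p (I_sub_P _ hx)) (h1 hx)
  · intro h
    exact (P3_sub p).trans h

/-- a point of full dimension is not on a slice -/
theorem OnS.dim_lt (h : S.OnS c j x) : S.T3.dim x < Module.finrank ℝ E := by
  have h1 := h.dim3
  have h2 : S.D c x ≤ Module.finrank ℝ E := Submodule.finrank_le _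
  omega

/-- the layer tile of a point -/
theorem eq_tg (h : S.InL c j x) (hd : S.T3.dim x = 3) {p : T.RIdx S.HH}
    (hp : x ∈ P (S.T3.H p)) : ∃ G : (S.sh h3 c).Fk, G.1.1.pt ∈ S.O c x ∧ p = tg G j := by
  have hD : S.D c x = 3 := by rw [← h.dim3]; exact hd
  have hd3 : T.dim (S.hc c x 0) = 2 := by
    have := base_dim h.bd; omega
  have h1 : (fx h3 (base_fr h.bd) hd3).1.1.pt ∈ S.O c x :=
    O_trans h.bd (hc_O h.bd 0) (fx_O (base_fr h.bd) hd3)
  refine ⟨fx h3 (base_fr h.bd) hd3, h1, ?_⟩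
  have h2 : x ∈ P (S.T3.H (tg (fx h3 (base_fr h.bd) hd3) j)) := by
    rw [tg_P _ h.2.1]
    exact ⟨O_C (fk_bd _) (O_symm h.bd h1), h.2.2.1.le, h.2.2.2.le⟩
  have hO := h.mem
  have hdf : S.T3.dim x = Module.finrank ℝ E := hd.trans h3.symm
  rw [tl_eq hO hdf hp]
  exact (tl_eq hO hdf h2).symm

/-- **the tiles of the sliced tiling** -/
theorem tile_cases (h3 : Module.finrank ℝ E = 3) (p : T.RIdx S.HH) :
    (∃ i, ∃ hi : ∀ c, ¬ P (T.H i) ⊆ S.K c, p = S.ot i hi) ∨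
    (∃ c, ∃ G : (S.sh h3 c).Fk, ∃ j < S.n c, p = tg G j) ∨ ∃ c, P (S.T3.H p) ⊆ S.KK c := by
  rcases S.tile_or p.tile with h | ⟨c, hc⟩
  · exact Or.inl ⟨p.tile, h, eq_ot h⟩
  · right
    obtain ⟨x, hxI, hxO, hxd⟩ := exists_full S.T3 p
    have hxP : x ∈ P (S.T3.H p) := I_sub_P _ hxI
    have hxK : x ∈ S.K c := hc (P3_sub p hxP)
    by_cases hφ : S.φ c x ≤ S.t c (S.n c)
    · right
      refine ⟨c, ?_⟩
      have h1 : x ∈ interior (S.KK c) := by
        rw [mem_int_KK]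
        refine ⟨hxK, lt_of_le_of_ne hφ fun e => ?_⟩
        have h2 : S.OnS c (S.n c) x := ⟨hxK, le_rfl, e⟩
        have h4 := h2.dim_lt
        omega
      exact S.T3.sub_of_mem_interior (closed_KK c) (hs_KK c) hxP h1
    · left
      push Not at hφ
      rcases onS_or_inL hxK hφ.le with ⟨j, hj⟩ | ⟨j, hj⟩
      · have h4 := hj.dim_lt
        omega
      · obtain ⟨G, -, hG⟩ := eq_tg (h3 := h3) hj (hxd.trans h3) hxP
        exact ⟨c, G, j, hj.2.1, hG⟩

/-- the tiles at an outer point outside all cores are outer tiles -/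
theorem at3_out (_hx : x ∈ Om) (h : ∀ c, x ∉ S.K c) {p : T.RIdx S.HH} (hp : p ∈ S.T3.at_ x) :
    ∃ hi : ∀ c, ¬ P (T.H p.tile) ⊆ S.K c, p = S.ot p.tile hi := by
  have hi : ∀ c, ¬ P (T.H p.tile) ⊆ S.K c := fun c hc => h c (hc (P3_sub p hp))
  exact ⟨hi, eq_ot hi⟩

/-- the tiles at a point of a layer are layer tiles of this layer -/
theorem at3_inL (h : S.InL c j x) {p : T.RIdx S.HH} (hp : p ∈ S.T3.at_ x) :
    ∃ G : (S.sh h3 c).Fk, p = tg G j ∧ x ∈ S.C c G.1.1.pt := by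
  have hpP : x ∈ P (S.T3.H p) := hp
  rcases tile_cases h3 p with ⟨i, hi, rfl⟩ | ⟨c', G, j', hj', rfl⟩ | ⟨c', hc'⟩
  · have h1 : x ∈ P (T.H i) := by rw [ot_P hi] at hpP; exact hpP
    exact absurd h.bo.1 ((out_of_tile hi h1).2 c)
  · obtain ⟨h1, h2, h4⟩ := (tg_P G hj').1 hpP
    have hcc : c' = c := S.core_unique (C_K (fk_bd G) h1) h.1
    subst hcc
    have hjj : j' = j := by
      rcases lt_trichotomy j' j with h7 | h7 | h7
      · have := S.t_le (c := c') (show j' + 1 ≤ j by omega) h.2.1.le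
        have := h.2.2.2
        linarith
      · exact h7
      · have := S.t_le (c := c') (show j + 1 ≤ j' by omega) hj'.le
        have := h.2.2.1
        linarith
    subst hjj
    exact ⟨G, rfl, h1⟩
  · exfalso
    have h1 := mem_KK.1 (hc' hpP)
    have hcc : c' = c := S.core_unique h1.1 h.1
    subst hcc
    have h2 := h.2.2.1
    have := S.t_le (c := c') (show j + 1 ≤ S.n c' from h.2.1) le_rfl
    have := h1.2
    linarith

/-- the cells of `mn` at an outer tile -/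
theorem piK_ot {i : ι} (hi : ∀ c, ¬ P (T.H i) ⊆ S.K c) :
    piK S.T3 S.KK (S.ot i hi) = Sum.inl (S.ot i hi) :=
  piK_inl' fun c h => hi c (by rw [← ot_P hi]; exact h.trans KK_K)

theorem piK_tg (G : (S.sh h3 c).Fk) (hj : j < S.n c) :
    piK S.T3 S.KK (tg G j) = Sum.inl (tg G j) := piK_inl' (tg_not G hj)

theorem piK_KK {p : T.RIdx S.HH} (h : P (S.T3.H p) ⊆ S.KK c) :
    piK S.T3 S.KK p = Sum.inr c := (piK_inr dis_KK).2 h

/-- **off the cores nothing changes** (cells and dimensions at the points of an outer tile) -/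
theorem T3_eq {i : ι} (hi : ∀ c, ¬ P (T.H i) ⊆ S.K c) (hx : x ∈ P (T.H i)) :
    S.T3.cc x = T.cc x ∧ S.T3.oc x = T.oc x ∧ S.T3.dim x = T.dim x :=
  ⟨(out_of_tile hi hx).cc, (out_of_tile hi hx).oc, (out_of_tile hi hx).dim⟩

/-- every vertex of the sliced tiling in a core is on a slice `j ≤ n`, or below the last slice -/
theorem vert3 (hx : x ∈ S.K c) (h : S.t c (S.n c) ≤ S.φ c x) (hd : S.T3.dim x = 0) :
    ∃ j ≤ S.n c, S.OnS c j x ∧ S.D c x = 1 := by
  rcases onS_or_inL hx h with ⟨j, hj⟩ | ⟨j, hj⟩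
  · refine ⟨j, hj.2.1, hj, ?_⟩
    rw [← hj.dim3, hd]
  · exfalso
    have h1 := hj.dim3
    have h2 := base_dim hj.bd
    omega

/-- every vertex of the sliced tiling in a layer is over a vertex of the shell -/
theorem exists_vx (hx : S.OnS c j x) (hd : S.T3.dim x = 0) :
    ∃ v : S.Vx c, x ∈ S.O c v.1 ∧ x = S.hc c v.1 j := by
  have hD : S.D c x = 1 := by rw [← hx.dim3, hd]
  have h0 := base_onS hx.bd
  have hd0 : T.dim (S.hc c x 0) = 0 := by have := base_dim hx.bd; omega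
  have h1 : x ∈ S.O c (S.hc c x 0) := O_symm hx.bd (hc_O hx.bd 0)
  refine ⟨⟨S.hc c x 0, hd0, h0.fr⟩, h1, ?_⟩
  refine lv_unique hx.bd hD (self_C hx.bd) (O_C hx.bd (O_trans hx.bd (hc_O hx.bd 0)
    (hc_O h0.bd j))) ?_
  rw [(hc_onS h0.bd hx.2.1).2.2, hx.2.2]

/-- every edge of the sliced tiling on a slice is over an edge of the shell -/
theorem exists_ed (hx : S.OnS c j x) (hd : S.T3.dim x = 1) :
    ∃ e : S.Ed c, x ∈ S.O c e.1.pt ∧ S.T3.cc x = S.T3.cc (S.hc c e.1.pt j) := by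
  obtain ⟨e, he, he', -⟩ := exists_hp_of hx hd
  refine ⟨e, he', ?_⟩
  have h1 : x ∈ S.T3.oc (S.hc c e.1.pt j) := (mem_oc_hc (ed_bd e) hx.2.1).2 ⟨he', hx.2.2⟩
  exact S.T3.cc_eq_of_mem_oc (hc_onS (ed_bd e) hx.2.1).mem h1

/-- every edge of the sliced tiling in a layer is over a vertex of the shell -/
theorem exists_vx' (hx : S.InL c j x) (hd : S.T3.dim x = 1) :
    ∃ v : S.Vx c, x ∈ S.O c v.1 ∧ S.T3.cc x = S.T3.cc (S.vc c v.1 j) := by
  have hD : S.D c x = 1 := by rw [← hx.dim3, hd]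
  have h0 := base_onS hx.bd
  have hd0 : T.dim (S.hc c x 0) = 0 := by have := base_dim hx.bd; omega
  have h1 : x ∈ S.O c (S.hc c x 0) := O_symm hx.bd (hc_O hx.bd 0)
  refine ⟨⟨S.hc c x 0, hd0, h0.fr⟩, h1, ?_⟩
  have h2 : x ∈ S.T3.oc (S.vc c (S.hc c x 0) j) :=
    (mem_oc_vc h0.bd hx.2.1).2 ⟨h1, hx.2.2.1, hx.2.2.2⟩
  exact S.T3.cc_eq_of_mem_oc (vc_inL h0.bd hx.2.1).mem h2

/-- the vertical edge over a vertex of the shell -/
theorem vert_cc (v : S.Vx c) (hj : j < S.n c) :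
    S.T3.cc (S.vc c v.1 j) = segment ℝ (S.hc c v.1 (j + 1)) (S.hc c v.1 j) ∧
    S.T3.oc (S.vc c v.1 j) = openSegment ℝ (S.hc c v.1 (j + 1)) (S.hc c v.1 j) := by
  have hv := vx_bd v
  have hO : S.vc c v.1 j ∈ Om := (vc_inL hv hj).mem
  have hd : S.T3.dim (S.vc c v.1 j) = 1 := by rw [vc_dim3 hv j, vx_D v]
  have hd0 : ∀ k, S.T3.dim (S.hc c v.1 k) = 0 := fun k => by
    have h1 := hc_dim3 hv k
    have h2 := vx_D v
    omega
  have hQ : S.hc c v.1 (j + 1) ∈ S.T3.cc (S.vc c v.1 j) := by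
    rw [mem_cc_vc hv hj]
    have h := hc_onS hv (j := j + 1) hj
    exact ⟨O_C hv (hc_O hv _), h.2.2.ge, by rw [h.2.2]; exact (S.anti c j hj).le⟩
  have hP : S.hc c v.1 j ∈ S.T3.cc (S.vc c v.1 j) := by
    rw [mem_cc_vc hv hj]
    have h := hc_onS hv hj.le
    exact ⟨O_C hv (hc_O hv _), by rw [h.2.2]; exact (S.anti c j hj).le, h.2.2.le⟩
  have hne : S.hc c v.1 (j + 1) ≠ S.hc c v.1 j := by
    intro e
    have h1 := (hc_onS hv (j := j + 1) hj).2.2
    rw [e, (hc_onS hv hj.le).2.2] at h1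
    have := S.anti c j hj
    linarith
  obtain ⟨a, b, -, h1, h2, -, -, -, -⟩ := S.T3.edge_eq hO hd
  have hP' := S.T3.vertex_of_edge hO hd h1 hQ (hd0 _)
  have hQ' := S.T3.vertex_of_edge hO hd h1 hP (hd0 _)
  rcases hP' with hP' | hP' <;> rcases hQ' with hQ' | hQ'
  · exact absurd (hP'.trans hQ'.symm) hne
  · rw [hP', hQ']; exact ⟨h1, h2⟩
  · rw [hP', hQ', segment_symm, openSegment_symm]; exact ⟨h1, h2⟩
  · exact absurd (hP'.trans hQ'.symm) hne

end Sla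

end Crest.Agent.R096.Sla_184
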