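import Crest.Agent.R096.Exa6_560

/-!
# R096 (row 96), DOORS / EXA part 7 (helper560): exact levels on a tiny core, for all families

* `tiny_disj`    : different tiny cores are disjoint.
* `exists_exact` : the exact levels of all families on the frontier of a tiny core.
-/

set_option autoImplicit false
set_option linter.unusedSectionVars false
set_option linter.style.longLine false

open Set Metric Module
open scoped Classical

namespace Crest.Agent.R096.Exa_560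

open Crest.Agent.R096.Msh_715 Crest.Agent.R096.Agl5_543
open Crest.Agent.R096.Brk1_582 Crest.Agent.R096.Brk3_582 Crest.Agent.R096.Brk5_582
open Crest.Agent.R096.Bsp_628
open Crest.Agent.R096.Mbf_337 (sb KJ Tiny gau)
open Crest.Agent.R096.SkC1_961 (E3 FoamD)
open Crest.Agent.R096.Ce_537 (PLEquiv IsBall)

section tiny

variable {δ κ0 R c0 : ℝ} {La Om : Set E3} {ι : Type} {Φ : FoamD δ κ0 R c0 La} {T : Tiling Om ι}
  {f : E3 → E3} {κ1 : ℝ} {c : Φ.F} {J0 J V : Set ι} {θ : E3 → E3} {φ : E3 → ℝ}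

theorem KJ_mono {J J' : Set ι} (h : J ⊆ J') : KJ T J ⊆ KJ T J' :=
  biUnion_subset_biUnion_left h

/-- a point of the open brick lies in no other brick -/
theorem only_brick (hLa : IsOpen La) {c d : Φ.F} {q : E3}
    (hq : ∀ k, c.1.lo k < q k ∧ q k < c.1.hi k) (hd : q ∈ Pc Φ.F d) : d = c := by
  have hopen : IsOpen {q : E3 | ∀ k, c.1.lo k < q k ∧ q k < c.1.hi k} := by
    have : {q : E3 | ∀ k, c.1.lo k < q k ∧ q k < c.1.hi k} =
        ⋂ k, {q : E3 | c.1.lo k < q k ∧ q k < c.1.hi k} := by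
      ext q; simp
    rw [this]
    refine isOpen_iInter_of_finite fun k => ?_
    exact (isOpen_lt continuous_const (continuous_apply k)).inter
      (isOpen_lt (continuous_apply k) continuous_const)
  have hsub : {q : E3 | ∀ k, c.1.lo k < q k ∧ q k < c.1.hi k} ⊆ c.1.set :=
    fun q hq => ⟨fun k => (hq k).1.le, fun k => (hq k).2.le⟩
  have hint : q ∈ interior c.1.set := interior_maximal hsub hopen hq
  by_contra hne
  have hfr : q ∈ frontier c.1.set := by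
    rw [frontier_c Φ hLa c]; exact ⟨hsub hq, d, hne, hd⟩
  exact hfr.2 hint

/-- **different tiny cores are disjoint** -/
theorem tiny_disj (hLa : IsOpen La) {c' : Φ.F} {J0' J' V' : Set ι} {θ' : E3 → E3} {φ' : E3 → ℝ}
    (H : Tiny Φ T f κ1 c J0 J V θ φ) (H' : Tiny Φ T f κ1 c' J0' J' V' θ' φ') (hne : c ≠ c') :
    Disjoint (KJ T J) (KJ T J') := by
  rw [Set.disjoint_left]
  intro x hx hx'
  have h1 := H.inside x (KJ_mono H.sub hx)
  have h2 := H'.inside x (KJ_mono H'.sub hx')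
  have h3 : f x ∈ Pc Φ.F c' := ⟨fun k => (h2 k).1.le, fun k => (h2 k).2.le⟩
  exact hne (only_brick hLa h1 h3).symm

/-- the neighbours of a brick are finitely many -/
theorem finite_nbr (hLa : IsOpen La) (c : Φ.F) :
    {a : Φ.F | (Pc Φ.F c ∩ Pc Φ.F a).Nonempty}.Finite := by
  have h := Brk2_582.finite_touch (foam Φ.bf hLa) c
  refine h.subset fun a ha => ?_
  obtain ⟨q, h1, h2⟩ := ha
  exact ⟨q, h2, h1⟩

/-- **the exact levels of all families on the frontier of a tiny core** -/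
theorem exists_exact (hLa : IsOpen La) (H : Tiny Φ T f κ1 c J0 J V θ φ) {N : Type}
    (fam : N → Φ.F) (lvl : N → ℝ) (hfin : ∀ a, {j | fam j = a}.Finite)
    (hinj : ∀ i j, fam i = fam j → lvl i = lvl j → i = j) {A B : ℝ} (hA : 0 < A) (hAB : A < B)
    (hB : B < 1) {Q : Set E3} (hQ : Q.Finite) :
    ∃ L : Φ.F → Lev T (frontier (KJ T J)) N, (∀ a, (L a).u = fun x => sb Φ (θ x) a) ∧
      (∀ a j, j ∈ (L a).J0 ↔ fam j = a ∧ a ≠ c ∧ (Pc Φ.F c ∩ Pc Φ.F a).Nonempty) ∧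
      (∀ a, ∀ j ∈ (L a).J0, A < (L a).lv j ∧ (L a).lv j < B) ∧
      (∀ a, ∀ j ∈ (L a).J0, ∀ w ∈ Q, (L a).u w ≠ (L a).lv j) ∧
      (∀ a, ∀ i ∈ (L a).J0, ∀ j ∈ (L a).J0, (L a).lv i < (L a).lv j ↔ lvl i < lvl j) ∧
      (∀ a b, a ≠ b → ∀ i ∈ (L a).J0, ∀ j ∈ (L b).J0, ∀ y ∈ frontier (KJ T J), T.dim y = 1 →
        (L a).u y = (L a).lv i → (L b).u y ≠ (L b).lv j) ∧
      ∀ a, ∀ j ∈ (L a).J0,
        IsPreconnected {x | x ∈ frontier (KJ T J) ∧ (L a).u x = (L a).lv j} ∧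
        {x | x ∈ frontier (KJ T J) ∧ (L a).u x = (L a).lv j}.Nonempty := by
  have hS : SgD T (frontier (KJ T J)) :=
    sgd (κ := Unit) (Kc := fun _ => KJ T J) (by simp) (fun _ => coreH_tiny H) ()
  have hN : {j : N | fam j ≠ c ∧ (Pc Φ.F c ∩ Pc Φ.F (fam j)).Nonempty}.Finite := by
    refine ((finite_nbr hLa c).biUnion fun a _ => hfin a).subset ?_
    intro j hj
    exact mem_biUnion (show fam j ∈ {a : Φ.F | (Pc Φ.F c ∩ Pc Φ.F a).Nonempty} from hj.2) rfl
  obtain ⟨L, h1, h2, h3, h4, h5, h6⟩ := exists_levs hS fam lvl hN.toFinset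
    (fun a x => sb Φ (θ x) a) (fun a F hF => tiny_aff H a F hF) (fun i _ j _ => hinj i j) hAB hQ
  have hmem : ∀ a j, j ∈ (L a).J0 ↔ fam j = a ∧ a ≠ c ∧ (Pc Φ.F c ∩ Pc Φ.F a).Nonempty := by
    intro a j
    rw [h2 a j, Set.Finite.mem_toFinset]
    constructor
    · rintro ⟨⟨g1, g2⟩, rfl⟩
      exact ⟨rfl, g1, g2⟩
    · rintro ⟨rfl, g1, g2⟩
      exact ⟨⟨g1, g2⟩, rfl⟩
  refine ⟨L, h1, hmem, h3, h4, h5, h6, ?_⟩
  intro a j hj
  obtain ⟨g1, g2, g3⟩ := (hmem a j).1 hj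
  obtain ⟨g4, g5⟩ := h3 a j hj
  have := tiny_level hLa H g2 g3 (t := (L a).lv j) (hA.trans g4) (g5.trans hB)
  rw [h1 a]
  exact this

end tiny

end Crest.Agent.R096.Exa_560
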