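import Crest.Agent.R096.Sla1_184
import Crest.Agent.R096.Exa7_560

/-!
# Row 96, DOORS (helper471): 184's slicing data from `Mbf_337.Tiny`

* `sub_core_iff` : the tiles inside a core `KJ T J` are the tiles of `J`.
* `sla`          : `Sla T {c // c ∉ X}` for any numbers of layers (`K`, `φ`, `n` by `rfl`).
-/

set_option autoImplicit false
set_option linter.unusedSectionVars false
set_option linter.style.longLine false

open Set Metric Module

namespace Crest.Agent.R096.Slt_471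

open Crest.Agent.R096.Msh_715 Crest.Agent.R096.Agl5_543
open Crest.Agent.R096.Brk1_582 Crest.Agent.R096.Brk3_582 Crest.Agent.R096.Brk5_582
open Crest.Agent.R096.Bsp_628
open Crest.Agent.R096.Mbf_337 (sb KJ Tiny gau)
open Crest.Agent.R096.SkC1_961 (E3 FoamD)
open Crest.Agent.R096.Ce_537 (PLEquiv IsBall)

/-- the tiles inside a union of tiles -/
theorem sub_KJ_iff {Om : Set E3} {ι : Type} {T : Tiling Om ι} {J : Set ι} {i : ι} :
    P (T.H i) ⊆ KJ T J ↔ i ∈ J := by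
  constructor
  · intro h
    obtain ⟨x, hx⟩ := T.ne i
    have h1 := h (I_sub_P _ hx)
    unfold KJ at h1
    rw [mem_iUnion₂] at h1
    obtain ⟨j, hj, hxj⟩ := h1
    have h2 : j ∈ T.at_ x := hxj
    rw [T.at_eq_singleton hx] at h2
    rw [mem_singleton_iff] at h2
    rw [← h2]; exact hj
  · intro h
    exact subset_biUnion_of_mem (u := fun i => P (T.H i)) h

section tiny

variable {δ κ0 R c0 : ℝ} {La Om : Set E3} {ι : Type} {Φ : FoamD δ κ0 R c0 La} {T : Tiling Om ι}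
  {f : E3 → E3} {κ1 : ℝ} {X : Set Φ.F} {J0 J V : Φ.F → Set ι} {θ : Φ.F → E3 → E3}
  {φ : Φ.F → E3 → ℝ}

/-- the numbers of the slices of a tiny core -/
theorem exists_at (H : ∀ c ∉ X, Tiny Φ T f κ1 c (J0 c) (J c) (V c) (θ c) (φ c)) :
    ∃ at0 : {c : Φ.F // c ∉ X} → ℝ × ℝ, ∀ c : {c : Φ.F // c ∉ X},
      (at0 c).1 < (at0 c).2 ∧ ContinuousOn (φ c.1) (KJ T (J c.1)) ∧
      (∀ i ∈ J c.1, ∃ g : E3 →ᵃ[ℝ] ℝ, EqOn (φ c.1) g (P (T.H i))) ∧
      (∀ x ∈ KJ T (J c.1), φ c.1 x ≤ (at0 c).2 ∧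
        (φ c.1 x = (at0 c).2 ↔ x ∈ frontier (KJ T (J c.1)))) ∧
      ∀ v ∈ KJ T (J c.1), T.dim v = 0 → φ c.1 v ≤ (at0 c).1 ∨ φ c.1 v = (at0 c).2 := by
  choose a t0 h1 h2 h3 h4 h5 using fun c : {c : Φ.F // c ∉ X} => (H c.1 c.2).slice
  exact ⟨fun c => (a c, t0 c), fun c => ⟨h1 c, h2 c, h3 c, h4 c, h5 c⟩⟩

/-- lower bound and top level of the slices -/
noncomputable def at0 (H : ∀ c ∉ X, Tiny Φ T f κ1 c (J0 c) (J c) (V c) (θ c) (φ c)) :
    {c : Φ.F // c ∉ X} → ℝ × ℝ := (exists_at H).choose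

theorem at0_spec (H : ∀ c ∉ X, Tiny Φ T f κ1 c (J0 c) (J c) (V c) (θ c) (φ c))
    (c : {c : Φ.F // c ∉ X}) :
      (at0 H c).1 < (at0 H c).2 ∧ ContinuousOn (φ c.1) (KJ T (J c.1)) ∧
      (∀ i ∈ J c.1, ∃ g : E3 →ᵃ[ℝ] ℝ, EqOn (φ c.1) g (P (T.H i))) ∧
      (∀ x ∈ KJ T (J c.1), φ c.1 x ≤ (at0 H c).2 ∧
        (φ c.1 x = (at0 H c).2 ↔ x ∈ frontier (KJ T (J c.1)))) ∧
      ∀ v ∈ KJ T (J c.1), T.dim v = 0 → φ c.1 v ≤ (at0 H c).1 ∨ φ c.1 v = (at0 H c).2 :=
  (exists_at H).choose_spec c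

/-- **slicing data of the tiny cores**, `n c` layers at the core `c`; `K`, `φ`, `n` by `rfl` -/
noncomputable def sla (hLa : IsOpen La)
    (H : ∀ c ∉ X, Tiny Φ T f κ1 c (J0 c) (J c) (V c) (θ c) (φ c))
    (n : {c : Φ.F // c ∉ X} → ℕ) (hn : ∀ c, 0 < n c) : Sla_184.Sla T {c : Φ.F // c ∉ X} where
  K := fun c => KJ T (J c.1)
  φ := fun c => φ c.1
  a := fun c => (at0 H c).1
  n := n
  t := fun c j => (at0 H c).2 - ((at0 H c).2 - (at0 H c).1) * (j / ((n c : ℝ) + 1))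
  hH := fun c => Exa_560.coreH_tiny (H c.1 c.2)
  dis := fun c c' hne => Exa_560.tiny_disj hLa (H c.1 c.2) (H c'.1 c'.2)
    fun h => hne (Subtype.ext h)
  cont := fun c => (at0_spec H c).2.1
  aff := fun c i hi => (at0_spec H c).2.2.1 i (sub_KJ_iff.1 hi)
  le := fun c x hx => by
    have := ((at0_spec H c).2.2.2.1 x hx).1
    simpa using this
  fr := fun c x hx => by
    have := ((at0_spec H c).2.2.2.1 x hx).2
    simpa using this
  vert := fun c v hv hd => by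
    have := (at0_spec H c).2.2.2.2 v hv hd
    simpa using this
  tr := fun c x hx hxf hne => by
    have hcore : CoreH T (KJ T (J c.1)) := Exa_560.coreH_tiny (H c.1 c.2)
    have hxi : x ∈ interior (KJ T (J c.1)) := by
      by_contra h
      exact hxf (by rw [hcore.core.closed.frontier_eq]; exact ⟨hx, h⟩)
    have hsub : T.cc x ⊆ KJ T (J c.1) := by
      obtain ⟨i, hi⟩ := T.cov x (hcore.sub hx)
      exact (T.cc_sub_tile hi).trans
        (T.sub_of_mem_interior hcore.core.closed hcore.cc hi hxi)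
    rcases (H c.1 c.2).tr x hx hsub hne with h | ⟨y, _, h6, h7⟩
    · exact absurd (h (T.self_mem_cc x)) hxf
    · refine ⟨y, ?_, h7, h6⟩
      have h8 : y ∈ T.cc x ∩ frontier (KJ T (J c.1)) := by rw [h6]; exact T.self_mem_cc y
      exact h8.1
  st := fun c => (H c.1 c.2).st
  npos := hn
  anti := fun c j _ => by
    have e0 : (0 : ℝ) < (n c : ℝ) + 1 := by positivity
    have e1 : (0 : ℝ) < (at0 H c).2 - (at0 H c).1 := sub_pos.2 (at0_spec H c).1
    have e2 : ((j : ℝ)) / ((n c : ℝ) + 1) < ((j + 1 : ℕ) : ℝ) / ((n c : ℝ) + 1) := by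
      refine div_lt_div_of_pos_right ?_ e0
      push_cast; linarith
    have := mul_lt_mul_of_pos_left e2 e1
    linarith
  gt := fun c => by
    have e0 : (0 : ℝ) < (n c : ℝ) + 1 := by positivity
    have e1 : (0 : ℝ) < (at0 H c).2 - (at0 H c).1 := sub_pos.2 (at0_spec H c).1
    have e2 : ((n c : ℝ)) / ((n c : ℝ) + 1) < 1 := (div_lt_one e0).2 (by linarith)
    have := mul_lt_mul_of_pos_left e2 e1
    linarith

variable (hLa : IsOpen La)
    (H : ∀ c ∉ X, Tiny Φ T f κ1 c (J0 c) (J c) (V c) (θ c) (φ c))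
    (n : {c : Φ.F // c ∉ X} → ℕ) (hn : ∀ c, 0 < n c)

theorem sla_K : (sla hLa H n hn).K = fun c => KJ T (J c.1) := rfl

theorem sla_φ : (sla hLa H n hn).φ = fun c => φ c.1 := rfl

theorem sla_n : (sla hLa H n hn).n = n := rfl

end tiny

end Crest.Agent.R096.Slt_471
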