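import Crest.Agent.R096.Lay1_316
import Crest.Agent.R096.Sla7_184
import Crest.Agent.R096.Slt1_471
import Crest.Agent.R096.Frn1_337
import Crest.Agent.R096.Mrg7_715

/-!
# Row 96, DOORS_final, leaf LAY (helper316), part 2: **337's `Lay` from 184's `Sla`**

* `ball_KK`, `coreH_KK` : the remaining cores are PL balls and `CoreH` for the sliced tiling.
* `c3`                  : the index of an uncut tile.
* `lay_of_sla`          : `Frn_337.Lay` from any slicing data whose cores are the tiny cores.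
* `lay_sla`             : the instance for 471's `sla`.
-/

set_option autoImplicit false
set_option linter.unusedSectionVars false
set_option linter.style.longLine false

open Set Filter Topology Metric
open scoped Classical

namespace Crest.Agent.R096.Lay_316

open Crest.Agent.R096.Msh_715 Crest.Agent.R096.Slc_184 Crest.Agent.R096.Sla_184
  Crest.Agent.R096.Ce_537 Crest.Agent.R096.Slp_316

section gen

variable {E : Type} [NormedAddCommGroup E] [NormedSpace ℝ E] [FiniteDimensional ℝ E]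
variable {Om : Set E} {ι : Type} {T : Tiling Om ι} {κ : Type} {S : Sla T κ} {c : κ}

theorem KK_eq (S : Sla T κ) (c : κ) : S.KK c = {x | x ∈ S.K c ∧ S.φ c x ≤ S.t c (S.n c)} := by
  ext x; exact Sla.mem_KK

theorem fr_KK_eq (S : Sla T κ) (c : κ) :
    frontier (S.KK c) = {x | x ∈ S.K c ∧ S.φ c x = S.t c (S.n c)} := by
  ext x
  rw [Sla.mem_fr_KK]
  exact ⟨fun h => ⟨h.1, h.2.2⟩, fun h => ⟨h.1, le_rfl, h.2⟩⟩

/-- **the remaining core is a PL ball** -/
theorem ball_KK (hb : IsBall 3 (S.K c) (frontier (S.K c))) :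
    IsBall 3 (S.KK c) (frontier (S.KK c)) := by
  rw [fr_KK_eq, KK_eq]
  exact ball_le S c (S.gt c) (S.tn_lt c).le hb

/-- **the remaining core is a core of the sliced tiling** -/
theorem coreH_KK (h3 : Module.finrank ℝ E = 3) (hb : IsBall 3 (S.K c) (frontier (S.K c))) :
    CoreH S.T3 (S.KK c) :=
  CoreH.of_ball h3 (ball_KK hb) (Sla.KK_sub c) (Sla.hs_KK c)

/-- the index of an uncut tile -/
noncomputable def c3 (S : Sla T κ) (i : ι) : T.RIdx S.HH :=
  if h : ∀ c, ¬ P (T.H i) ⊆ S.K c then S.ot i h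
  else (S.T3.cov (T.ne i).choose (T.sub i (I_sub_P _ (T.ne i).choose_spec))).choose

theorem c3_of {i : ι} (h : ∀ c, ¬ P (T.H i) ⊆ S.K c) : c3 S i = S.ot i h := dif_pos h

/-- a tile of the sliced tiling which is in a core but not in the remaining core meets the
frontier of the core -/
theorem layer_meets (h3 : Module.finrank ℝ E = 3) {p : T.RIdx S.HH}
    (hp : P (T.H p.tile) ⊆ S.K c) (hK : ∀ c, ¬ P (S.T3.H p) ⊆ S.KK c) :
    ∃ v ∈ P (T.H p.tile), v ∈ frontier (S.K c) := by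
  rcases Sla.tile_cases h3 p with ⟨i, hi, rfl⟩ | ⟨c', G, j, hj, rfl⟩ | ⟨c', hc'⟩
  · exact absurd hp (hi c)
  · obtain ⟨x, hx⟩ := S.T3.ne (Sla.tg G j)
    have hxP : x ∈ P (S.T3.H (Sla.tg G j)) := I_sub_P _ hx
    have hxT : x ∈ P (T.H (Sla.tg G j).tile) := Sla.P3_sub _ hxP
    obtain ⟨h1, h2, h4⟩ := (Sla.tg_P G hj).1 hxP
    have hcc : c' = c := S.core_unique (Sla.C_K (Sla.fk_bd G) h1) (hp hxT)
    subst hcc
    have hat : S.a c' < S.φ c' x := (S.a_lt_t hj).trans_le h2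
    by_cases hf : x ∈ frontier (S.K c')
    · exact ⟨x, hxT, hf⟩
    · have hB : x ∈ S.Bo c' := ⟨⟨hp hxT, hf⟩, hat⟩
      obtain ⟨v, hv, hvf⟩ := Sla.exists_high hB
      exact ⟨v, T.cc_sub_tile hxT hv, hvf⟩
  · exact absurd hc' (hK c')

end gen

open Crest.Agent.R096.Brk1_582 Crest.Agent.R096.Brk3_582 Crest.Agent.R096.Brk5_582
  Crest.Agent.R096.Bsp_628 Crest.Agent.R096.Frn_337
open Crest.Agent.R096.Mbf_337 (KJ Cores)
open Crest.Agent.R096.SkC1_961 (E3 FoamD)
open Crest.Agent.R096.Init_543 (fr3)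

variable {δ κ0 R c0 : ℝ} {La Om : Set E3} {ι : Type} {Φ : FoamD δ κ0 R c0 La} {T : Tiling Om ι}
  {f : E3 → E3} {κ1 κ2 : ℝ} {X : Set Φ.F} {J0 J V : Φ.F → Set ι} {ct : Φ.F → ι}
  {A : Φ.F → E3 ≃ᵃ[ℝ] E3} {lam : Φ.F → ℝ} {z : Φ.F → E3} {θ : Φ.F → E3 → E3} {φ : Φ.F → E3 → ℝ}

/-- the tiles of `J0` do not meet the frontier of the core -/
theorem j0_fr (hC : Cores Φ T f κ1 κ2 X J0 J V ct A lam z θ φ) (k : Ti X) {i : ι}
    (hi : i ∈ J0 k.1) {x : E3} (hx : x ∈ P (T.H i)) : x ∉ frontier (KJ T (J k.1)) := by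
  intro hf
  obtain ⟨ρ1, ρ2, ρ3, ρ4, d, hd, hdk, h1, h12, h23, h34, h4, hray, hJ0, hfr, hV, hosc, hth⟩ :=
    (hC.tiny k.1 k.2).room
  have g1 := hJ0 x (mem_biUnion (x := i) hi hx)
  have g2 := (hfr x hf).1
  linarith

/-- **`Lay` from slicing data of the tiny cores** -/
theorem lay_of_sla (hC : Cores Φ T f κ1 κ2 X J0 J V ct A lam z θ φ) (S : Sla T (Ti X))
    (hK : ∀ k, S.K k = KJ T (J k.1)) : Lay Φ T X J0 J S.T3 S.KK (c3 S) where
  core k := coreH_KK fr3 (by rw [hK k]; exact (hC.tiny k.1 k.2).ball)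
  ball k := ball_KK (by rw [hK k]; exact (hC.tiny k.1 k.2).ball)
  sub k := by rw [← hK k]; exact Sla.KK_K
  disj k k' h := Sla.dis_KK k k' h
  keep i hi := by
    have h : ∀ c, ¬ P (T.H i) ⊆ S.K c := fun k hk => by
      rw [hK k] at hk
      exact hi k (Slt_471.sub_KJ_iff.1 hk)
    rw [c3_of h]
    exact Sla.ot_P h
  lay p hp := by
    rcases S.tile_or p.tile with h | ⟨k, hk⟩
    · left
      refine ⟨p.tile, ?_, fun k hik => h k ?_⟩
      · rw [c3_of h]; exact Sla.eq_ot h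
      · rw [hK k]; exact Slt_471.sub_KJ_iff.2 hik
    · right
      have hk' : p.tile ∈ J k.1 := by
        rw [hK k] at hk
        exact Slt_471.sub_KJ_iff.1 hk
      refine ⟨k, p.tile, hk', fun h0 => ?_, Sla.P3_sub p⟩
      obtain ⟨v, hv, hvf⟩ := layer_meets fr3 hk hp
      rw [hK k] at hvf
      exact j0_fr hC k h0 hv hvf
  cc x hx h := by
    have ho : S.Out x := ⟨hx, fun k hk => h k (by rw [← hK k]; exact Sla.in_iff.1 hk)⟩
    exact ⟨ho.cc, ho.dim⟩

/-- **`Lay` for 471's `sla`** -/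
theorem lay_sla (hLa : IsOpen La) (hC : Cores Φ T f κ1 κ2 X J0 J V ct A lam z θ φ)
    (n : {c : Φ.F // c ∉ X} → ℕ) (hn : ∀ c, 0 < n c) :
    Lay Φ T X J0 J (Slt_471.sla hLa hC.tiny n hn).T3 (Slt_471.sla hLa hC.tiny n hn).KK
      (c3 (Slt_471.sla hLa hC.tiny n hn)) :=
  lay_of_sla hC _ fun _ => rfl

end Crest.Agent.R096.Lay_316
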