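import Crest.Agent.R096.Nr4_527
import Crest.Agent.R096.Mbf_337

/-!
# Row 96 (S0127), NEAR + PROPER, part 5 (helper527): the data of `Mbf_337.MachBF` (version 2)

* `V_inside` : `f x` is in the open brick `c` on all tiles of `V c` (exact and tiny cores);
* `not_hole2` : a tile which is in no `J0 c` misses all holes;
* `fineAt` : such a tile is a fine set; `Psi_mem2`, `Psi_La`, `continuousOn_Psi_f` there;
* **`adj2`** : adjacency of the structure map `G` and `f` (then `near_of_adj`, `proper_of_adj`,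
  `finite_of_adj` of `Nr2_527` as before);
* `core_touch`, `lev_lt`, `zero_touch` : which labels can be `0` at a point of a tile.
-/

set_option autoImplicit false
set_option linter.unusedSectionVars false
set_option linter.unusedVariables false
set_option linter.style.haveILetI false

open Set Filter Topology Metric

namespace Crest.Agent.R096.Nr_527

open Crest.Agent.R096.Brk1_582 Crest.Agent.R096.Brk2_582 Crest.Agent.R096.Brk3_582
open Crest.Agent.R096.Brk4_582 Crest.Agent.R096.Brk5_582 Crest.Agent.R096.Bsp_628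
open Crest.Agent.R096.SkC1_961 (E3 Hom3 FoamD Cfg th NN)
open Crest.Agent.R096.Vb_965 Crest.Agent.R096.Msh_715
open Crest.Agent.R96.Push_899
open Crest.Agent.R096.Mbf_337 (KJ sb gau)

variable {δ κ0 R c0 : ℝ} {La Om : Set E3} {ι : Type} {Φ : FoamD δ κ0 R c0 La}
  {T : Tiling Om ι} {f : E3 → E3} {κ1 κ2 : ℝ} {X : Set Φ.F} {J0 J V : Φ.F → Set ι} {ct : Φ.F → ι}
  {A : Φ.F → E3 ≃ᵃ[ℝ] E3} {lam : Φ.F → ℝ} {z : Φ.F → E3} {θ : Φ.F → E3 → E3} {φ : Φ.F → E3 → ℝ}

theorem mem_KJ {K : Set ι} {x : E3} : x ∈ KJ T K ↔ ∃ i ∈ K, x ∈ P (T.H i) := by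
  simp [KJ]

/-- the tile function is injective on the exact cores -/
theorem ct_inj (hC : Mbf_337.Cores Φ T f κ1 κ2 X J0 J V ct A lam z θ φ) : InjOn ct X := by
  intro c hc d hd h
  by_contra hne
  have := hC.disj c d hne
  rw [(hC.one c hc).2.2, (hC.one d hd).2.2, h, disjoint_self] at this
  exact singleton_ne_empty _ this

theorem J0_sub (hC : Mbf_337.Cores Φ T f κ1 κ2 X J0 J V ct A lam z θ φ) (c : Φ.F) :
    J0 c ⊆ J c := by
  by_cases hc : c ∈ X
  · rw [(hC.one c hc).1, (hC.one c hc).2.1]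
  · exact (hC.tiny c hc).sub0

theorem J_sub (hC : Mbf_337.Cores Φ T f κ1 κ2 X J0 J V ct A lam z θ φ) (c : Φ.F) :
    J c ⊆ V c := by
  by_cases hc : c ∈ X
  · rw [(hC.one c hc).2.1, (hC.one c hc).2.2]
  · exact (hC.tiny c hc).sub

/-- **near the cores `f x` is in the open brick** -/
theorem V_inside (hC : Mbf_337.Cores Φ T f κ1 κ2 X J0 J V ct A lam z θ φ) {c : Φ.F} {x : E3}
    (hx : x ∈ KJ T (V c)) : ∀ k, c.1.lo k < f x k ∧ f x k < c.1.hi k := by
  by_cases hc : c ∈ X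
  · rw [(hC.one c hc).2.2] at hx
    obtain ⟨i, hi, hx⟩ := mem_KJ.1 hx
    rw [mem_singleton_iff] at hi
    subst hi
    exact (hC.exact_ c hc).inside x hx
  · exact (hC.tiny c hc).inside x hx

/-- the boundary of an exact core misses the hole -/
theorem exact_bd_not_hole2 (hκ1 : 0 ≤ κ1) (hκ : κ0 * κ1 < κ2) {c : Φ.F} {i : ι} {A : E3 ≃ᵃ[ℝ] E3}
    {lam : ℝ} {z : E3} (hE : Mbf_337.Exact Φ T f κ1 κ2 c i A lam z) {x : E3}
    (hx : x ∈ P (T.H i)) (hxI : x ∉ I (T.H i)) : f x ∉ (Φ.B c).S := by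
  have hside : ∀ k, 0 < c.1.side k := fun k => Bx.side_pos (Φ.bf.pos _ c.2) k
  have hsz : 0 < c.1.sz := Bx.sz_pos (Φ.bf.pos _ c.2)
  have hκ2 : 0 < κ2 := by
    have h0 : 0 ≤ κ0 := by
      have h1 := Φ.bf.asp _ c.2 0
      by_contra hneg
      have := mul_neg_of_neg_of_pos (not_le.1 hneg) (hside 0)
      linarith
    exact (mul_nonneg h0 hκ1).trans_lt hκ
  have hbx : ∀ k, z k + lam * c.1.lo k ≤ A x k ∧ A x k ≤ z k + lam * c.1.hi k := by
    have := hx; rw [hE.tile] at this; exact this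
  -- a coordinate on the boundary
  have hk : ∃ k, A x k = z k + lam * c.1.lo k ∨ A x k = z k + lam * c.1.hi k := by
    by_contra hcon
    push Not at hcon
    apply hxI
    rw [← interior_P' (T.ne i), hE.tile, mem_interior_iff_mem_nhds]
    have hc : ∀ k, ContinuousAt (fun y : E3 => A y k) x := fun k =>
      (continuous_apply k).continuousAt.comp
        (AffineMap.continuous_of_finiteDimensional (A : E3 →ᵃ[ℝ] E3)).continuousAt
    have h1 : ∀ᶠ y in 𝓝 x, ∀ k, z k + lam * c.1.lo k < A y k ∧ A y k < z k + lam * c.1.hi k := by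
      rw [eventually_all]
      intro k
      exact ((hc k).eventually (lt_mem_nhds
        (lt_of_le_of_ne (hbx k).1 fun h => (hcon k).1 h.symm))).and
        ((hc k).eventually (gt_mem_nhds (lt_of_le_of_ne (hbx k).2 (hcon k).2)))
    filter_upwards [h1] with y hy
    exact fun k => ⟨(hy k).1.le, (hy k).2.le⟩
  have hfx : ‖f x - A x‖ ≤ κ1 * (lam * c.1.sz) := by
    refine (hE.nbd x fun k => ⟨?_, ?_⟩).2 (by rw [interior_P' (T.ne i)]; exact hxI)
    · have : 0 ≤ κ2 * (lam * c.1.side k) := by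
        have := hside k; have := hE.lam0; positivity
      linarith [(hbx k).1]
    · have : 0 ≤ κ2 * (lam * c.1.side k) := by
        have := hside k; have := hE.lam0; positivity
      linarith [(hbx k).2]
  intro hS
  obtain ⟨k, hk⟩ := hk
  have h2 : |f x k - A x k| < κ2 * (lam * c.1.side k) := by
    have h3 : |f x k - A x k| ≤ κ1 * (lam * c.1.sz) := by
      have := norm_le_pi_norm (f x - A x) k
      rw [Pi.sub_apply, Real.norm_eq_abs] at this
      exact this.trans hfx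
    have h4 := Φ.bf.asp _ c.2 k
    have h5 : κ1 * (lam * c.1.sz) ≤ κ1 * (lam * (κ0 * c.1.side k)) :=
      mul_le_mul_of_nonneg_left (mul_le_mul_of_nonneg_left h4 hE.lam0.le) hκ1
    have h6 : 0 < lam * c.1.side k := mul_pos hE.lam0 (hside k)
    have h7 : κ1 * (lam * (κ0 * c.1.side k)) < κ2 * (lam * c.1.side k) := by
      have : κ1 * (lam * (κ0 * c.1.side k)) = κ0 * κ1 * (lam * c.1.side k) := by ring
      rw [this]; exact mul_lt_mul_of_pos_right hκ h6
    linarith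
  rw [abs_lt] at h2
  have h8 := hE.hole k
  have h9 := hS k
  rcases hk with h | h
  · rw [h] at h2; linarith [h2.2, h8.1, h9.1]
  · rw [h] at h2; linarith [h2.1, h8.2, h9.2]

/-- a tile which is not in `K` has no point in the interior of `⋃ K` -/
theorem not_mem_interior_KJ {K : Set ι} {i : ι} (hi : i ∉ K) {x : E3} (hx : x ∈ P (T.H i)) :
    x ∉ interior (KJ T K) := by
  intro hxi
  have hcl : x ∈ closure (I (T.H i)) := by
    obtain ⟨z, hz⟩ := T.ne i
    rw [← T.oc_eq_tile hz, T.closure_oc, T.cc_eq_tile hz]; exact hx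
  obtain ⟨y, hy1, hy2⟩ := mem_closure_iff.1 hcl _ isOpen_interior hxi
  obtain ⟨j, hj, hyj⟩ := mem_KJ.1 (interior_subset hy1)
  have hne : j ≠ i := fun h => hi (h ▸ hj)
  exact Set.disjoint_left.1 (disjoint_P_I (T.ne j) (T.dis j i hne)) hyj hy2

/-- **a tile which is in no `J0 c` misses all holes** -/
theorem not_hole2 (hf : Hom3 f Om La) (hκ1 : 0 ≤ κ1) (hκ : κ0 * κ1 < κ2)
    (hC : Mbf_337.Cores Φ T f κ1 κ2 X J0 J V ct A lam z θ φ) {c : Φ.F} {i : ι} (hi : i ∉ J0 c)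
    {x : E3} (hx : x ∈ P (T.H i)) : f x ∉ (Φ.B c).S := by
  have hxO : x ∈ Om := T.sub i hx
  by_cases hcX : c ∈ X
  · have hE := hC.exact_ c hcX
    rw [(hC.one c hcX).1, mem_singleton_iff] at hi
    have hxI : x ∉ I (T.H (ct c)) := fun h =>
      (Set.disjoint_left.1 (disjoint_P_I (T.ne i) (T.dis i (ct c) hi))) hx h
    by_cases hxc : x ∈ P (T.H (ct c))
    · exact exact_bd_not_hole2 hκ1 hκ hE hxc hxI
    · exact hE.miss x hxO hxc
  · have hT := hC.tiny c hcX
    intro hS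
    obtain ⟨j, hjJ, x', hx'I, hx'⟩ := hT.mem
    have h1 : f x = (Φ.B c).lo := by
      funext k
      have h2 := hS k
      have h3 := congrFun hT.pt k
      linarith [h2.1, h2.2]
    obtain ⟨fi, -, -, h4, -, -, -⟩ := hf
    have hne : i ≠ j := fun h => hi (h ▸ hjJ)
    have hx'P : x' ∈ P (T.H j) := by
      have h0 := T.cc_eq_tile hx'I
      rw [← h0]; exact T.self_mem_cc _
    have hx'O : x' ∈ Om := T.sub j hx'P
    have h5 : x = x' := by
      rw [← h4 x hxO, ← h4 x' hx'O, h1, hx']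
    exact Set.disjoint_left.1 (disjoint_P_I (T.ne i) (T.dis i j hne)) hx (h5 ▸ hx'I)

/-- **a tile which is in no `J0 c` is a fine set** -/
theorem fineAt (hf : Hom3 f Om La) (hκ1 : 0 ≤ κ1) (hκ : κ0 * κ1 < κ2)
    (hC : Mbf_337.Cores Φ T f κ1 κ2 X J0 J V ct A lam z θ φ) (hF : Mbf_337.Fine Φ T f κ1 J0)
    {i : ι} (hi : ∀ c, i ∉ J0 c) : FineAt Φ f κ1 (P (T.H i)) where
  conn := (convex_P (T.H i)).isPreconnected
  hole x hx c := not_hole2 hf hκ1 hκ hC (hi c) hx
  osc x hx y hy c hc := hF.psi i hi x hx y hy c hc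

/-- **ADJACENCY, version 2** -/
theorem adj2 (hLa : IsOpen La) (hf : Hom3 f Om La) (hs : Small δ κ0 R κ1 κ2)
    (hC : Mbf_337.Cores Φ T f κ1 κ2 X J0 J V ct A lam z θ φ) (hF : Mbf_337.Fine Φ T f κ1 J0)
    {G : E3 → E3}
    (hG : ∀ x ∈ Om, (∃ c : Φ.F, x ∈ KJ T (V c) ∧ G x ∈ Pc Φ.F c) ∨
      ∃ i, (∀ c, i ∉ J0 c) ∧ x ∈ P (T.H i) ∧ ∃ x0 ∈ P (T.H i), ∀ a : Φ.F,
        Φ.Psi (f x0) ∈ Pc Φ.F a → G x ∈ Pc Φ.F a) : Adj Φ.F Om f G := by
  refine adj_of2 (Φ := Φ) hLa hs.δ0 hs.R0 hf hs.a fun x hx => ?_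
  rcases hG x hx with ⟨c, hxc, hc⟩ | ⟨i, hi, hxi, x0, hx0, h⟩
  · exact Or.inl ⟨c, V_inside hC hxc, hc⟩
  · exact Or.inr ⟨P (T.H i), T.sub i, fineAt hf hs.k1 hs.c hC hF hi, hxi, x0, hx0, h⟩

end Crest.Agent.R096.Nr_527
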