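import Crest.Agent.R096.Frn1_337
import Crest.Agent.R096.Nr5_527

/-!
# R096 (row 96), bottom, the seam (helper914): the clause `ni` of 337's `Front` (N1), all cores, from the
clauses `qin`, `actK`, `actP`, `actI` of `Front`, `Lay` and `Cores`
-/

set_option autoImplicit false
set_option linter.unusedSectionVars false
set_option linter.unusedVariables false
set_option linter.style.longLine false

open Set Relation Module

namespace Crest.Agent.R096.Ni_914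

open Crest.Agent.R096.Brk1_582 Crest.Agent.R096.Brk2_582 Crest.Agent.R096.Brk3_582
open Crest.Agent.R096.Brk5_582 Crest.Agent.R096.Bsp_628
open Crest.Agent.R096.St_147 Crest.Agent.R096.Seq_213 Crest.Agent.R096.Seq_213.GSt
open Crest.Agent.R096.Lm_117 Crest.Agent.R096.Ac_117 Crest.Agent.R096.Msh_715
open Crest.Agent.R096.Cp_298 Crest.Agent.R096.Gm_298 Crest.Agent.R096.Gl_422
open Crest.Agent.R096.SkB_662 Crest.Agent.R096.Cpo_642
open Crest.Agent.R096.Agl5_543 Crest.Agent.R096.Ori_543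
open Crest.Agent.R096.Init_543 (JJ fr3)
open Crest.Agent.R096.SkC1_961 (E3 Hom3 FoamD Cfg th)
open Crest.Agent.R096.Mbf_337 (KJ sb Cores)
open Crest.Agent.R096.Frn_337

variable {δ κ0 R c0 : ℝ} {La Om : Set E3} {ι : Type}
variable {Φ : FoamD δ κ0 R c0 La} {T : Tiling Om ι} {f : E3 → E3} {κ1 κ2 : ℝ} {X : Set Φ.F}
  {J0 Jt V : Φ.F → Set ι} {ct : Φ.F → ι} {A : Φ.F → E3 ≃ᵃ[ℝ] E3} {lam : Φ.F → ℝ} {z : Φ.F → E3}
  {θ : Φ.F → E3 → E3} {φ : Φ.F → E3 → ℝ}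
  {ι3 : Type} {T3 : Tiling Om ι3} {KK : Ti X → Set E3} {c3 : ι → ι3}

/-- **the fifth brick**: a point of the brick `c` which lies over the quad `k`, has `c ∈ k.Z` -/
theorem mem_Z (hLa : IsOpen La) {k : Init_543.QK (Pc Φ.F)} {y : E3} {c : Φ.F} (hy : y ∈ Pc Φ.F c)
    (hB : ∀ a ∈ k.B, sb Φ y a ∈ Ioo (0:ℝ) 1) (hZ : ∀ a ∈ k.Z, sb Φ y a = 0) : c ∈ k.Z := by
  have F : Foam La (Pc Φ.F) (bc (F := Φ.F)) 4 := by
    have := foam Φ.bf hLa
    simpa using this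
  have hyL := F.sub c hy
  have hc : sb Φ y c = 0 := (F.sc_eq_zero hyL).2 hy
  have hBf : k.B.Finite := Set.finite_of_ncard_ne_zero (by rw [k.cB]; norm_num)
  have hZf : k.Z.Finite := Set.finite_of_ncard_ne_zero (by rw [k.cZ]; norm_num)
  have h4 : (k.B ∪ k.Z).ncard = 4 := by
    rw [Set.ncard_union_eq k.dis hBf hZf, k.cB, k.cZ]
  have hsub : k.B ∪ k.Z ⊆ {b | sc (Pc Φ.F) (bc (F := Φ.F)) y b < 1} := by
    rintro b (hb | hb)
    · exact (hB b hb).2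
    · show sb Φ y b < 1
      rw [hZ b hb]; exact one_pos
  have heq : k.B ∪ k.Z = {b | sc (Pc Φ.F) (bc (F := Φ.F)) y b < 1} :=
    Set.eq_of_subset_of_ncard_le hsub (by rw [h4]; exact F.sc_lt_one_ncard hyL)
      (F.sc_lt_one_finite hyL)
  have hcm : c ∈ k.B ∪ k.Z := by
    rw [heq]
    show sb Φ y c < 1
    rw [hc]; exact one_pos
  rcases hcm with h | h
  · have := (hB c h).1
    rw [hc] at this
    exact absurd this (lt_irrefl _)
  · exact h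

variable [Nonempty T3.Cell] {hH : ∀ k, CoreH T3 (KK k)}
    {hdis : ∀ k k', k ≠ k' → Disjoint (KK k) (KK k')}
    {L : Φ.F → Finset ℝ} {Qd : Quads (ι3 ⊕ Ti X) Φ.F (Init_543.QK (Pc Φ.F))}
    {s₀ : GSt (mK fr3 hH hdis) (fun j : JJ Φ L => j.1)}

/-- sides of a face of `meshK` -/
theorem mem_sideM {q : ι3 ⊕ Ti X}
    {F : {F : C2 T3 // ¬ (((meshC T3 fr3).side F).map (piK T3 KK)).IsDiag}} :
    q ∈ (mK fr3 hH hdis).side F ↔ ∃ p ∈ T3.at_ F.1.pt, piK T3 KK p = q := by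
  show q ∈ ((meshC T3 fr3).side F.1).map _ ↔ _
  rw [mem_map_iff]
  constructor
  · rintro ⟨p, hp, h⟩; exact ⟨p, (C2.mem_side (h3 := fr3)).1 hp, h⟩
  · rintro ⟨p, hp, h⟩; exact ⟨p, (C2.mem_side (h3 := fr3)).2 hp, h⟩

/-- a `T3`-tile outside the remaining cores lies in a tile which is near no tiny hole -/
theorem exists_tile (hL : Lay Φ T X J0 Jt T3 KK c3)
    (hC : Cores Φ T f κ1 κ2 X J0 Jt V ct A lam z θ φ) {i3 : ι3}
    (hout : ∀ k, ¬ P (T3.H i3) ⊆ KK k) : ∃ i, P (T3.H i3) ⊆ P (T.H i) ∧ (∀ k : Ti X, i ∉ J0 k.1) ∧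
      ((∃ c ∈ X, i ∈ J0 c) → i3 = c3 i) := by
  rcases hL.lay i3 hout with ⟨i, rfl, hi⟩ | ⟨k, i, h1, h2, h3⟩
  · exact ⟨i, (hL.keep i hi).subset, fun k h => hi k ((hC.tiny k.1 k.2).sub0 h), fun _ => rfl⟩
  · have hV : i ∈ V k.1 := (hC.tiny k.1 k.2).sub h1
    refine ⟨i, h3, fun k' h => ?_, ?_⟩
    · by_cases hk : k'.1 = k.1
      · exact h2 (hk ▸ h)
      · exact Set.disjoint_left.1 (hC.disj k'.1 k.1 hk)
          ((hC.tiny k'.1 k'.2).sub ((hC.tiny k'.1 k'.2).sub0 h)) hV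
    · rintro ⟨c, hc, hic⟩
      have hne : c ≠ k.1 := by rintro rfl; exact k.2 hc
      have h5 : i ∈ V c := by
        rw [(hC.one c hc).2.2, ← (hC.one c hc).1]; exact hic
      exact absurd hV (Set.disjoint_left.1 (hC.disj c k.1 hne) h5)

/-- **(N1): the clause `ni` of `Front`** -/
theorem ni_front (hLa : IsOpen La) (hf : Hom3 f Om La) (hκ1 : 0 ≤ κ1) (hκ : κ0 * κ1 < κ2)
    (hL : Lay Φ T X J0 Jt T3 KK c3) (hC : Cores Φ T f κ1 κ2 X J0 Jt V ct A lam z θ φ)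
    (qin : ∀ k c, Qd.In k c ↔ c ∈ k.B) (actK : ∀ k c, cti X c3 ct c ∉ Qd.Act k)
    (actP : ∀ k i3, Sum.inl i3 ∈ Qd.Act k → ∀ i, P (T3.H i3) ⊆ P (T.H i) → ∀ x ∈ P (T.H i),
      (∀ a ∈ k.B, Φ.lev a (f x) ∈ Ioo (0:ℝ) 1) ∧ ∀ a ∈ k.Z, Φ.lev a (f x) = 0)
    (actI : ∀ k i3, (∀ k', ¬ P (T3.H i3) ⊆ KK k') → ∀ i, (∀ c, i ∉ J0 c) →
      P (T3.H i3) ⊆ P (T.H i) → ∀ x ∈ P (T.H i),
      (∀ a ∈ k.B, ∃ w ∈ s₀.P, (s₀.lab w).1 = a ∧ w ∈ P (T3.H i3)) →
      (∀ a ∈ k.Z, Φ.lev a (f x) = 0) → Sum.inl i3 ∈ Qd.Act k)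
    (far₀ : JJ Φ L → Set E3) : ∀ k, NI s₀ far₀ Qd k (cti X c3 ct '' k.Z) := by
  intro k F hT w w' hw hw' _ _ hin hin' hne q hq
  rw [qin] at hin hin'
  -- the active side
  obtain ⟨q₁, hq₁, hact⟩ := hT
  obtain ⟨p₁, hp₁, e₁⟩ := mem_sideM.1 hq₁
  have hq₁' : ∃ i1 : ι3, q₁ = Sum.inl i1 := by
    rcases q₁ with i1 | c
    · exact ⟨i1, rfl⟩
    · exfalso
      have h1 := actK k c.1
      unfold cti at h1
      rw [dif_pos c.2] at h1
      exact h1 hact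
  obtain ⟨i1, rfl⟩ := hq₁'
  obtain ⟨rfl, hout₁⟩ := piK_inl.1 e₁
  obtain ⟨i, hsub, hiT, hiX⟩ := exists_tile hL hC hout₁
  -- the tile of the active side is in no `J0`
  have hiJ : ∀ c, i ∉ J0 c := by
    intro c hc
    by_cases hcX : c ∈ X
    · have h1 := hiX ⟨c, hcX, hc⟩
      rw [(hC.one c hcX).1, mem_singleton_iff] at hc
      have h2 := actK k c
      unfold cti at h2
      rw [dif_neg (not_not.2 hcX), ← hc, ← h1] at h2
      exact h2 hact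
    · exact hiT ⟨c, hcX⟩ hc
  have hx1 : F.1.pt ∈ P (T3.H p₁) := hp₁
  have hxi : F.1.pt ∈ P (T.H i) := hsub hx1
  obtain ⟨hB, hZ⟩ := actP k p₁ hact i hsub _ hxi
  -- a core whose tile contains the point is one of the two cores of the quad
  have key : ∀ c : Φ.F, F.1.pt ∈ KJ T (V c) → c ∈ k.Z := by
    intro c hc
    have h1 := Nr_527.V_inside hC hc
    have h2 : f F.1.pt ∈ Pc Φ.F c := Bx.mem_set.2 fun l => ⟨(h1 l).1.le, (h1 l).2.le⟩
    exact mem_Z hLa (Nr_527.Psi_mem Φ hLa h2 (Nr_527.not_hole2 hf hκ1 hκ hC (hiJ c) hxi)) hB hZ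
  -- the other side
  obtain ⟨p, hp, e⟩ := mem_sideM.1 hq
  rcases q with i3 | c
  · obtain ⟨rfl, hout⟩ := piK_inl.1 e
    obtain ⟨i', hsub', hiT', hiX'⟩ := exists_tile hL hC hout
    by_cases hiJ' : ∀ c, i' ∉ J0 c
    · left
      refine actI k p hout i' hiJ' hsub' _ (hsub' hp) ?_ hZ
      have hFs : F.1.set ⊆ P (T3.H p) :=
        C2.sub_tile (h3 := fr3) ((C2.mem_side (h3 := fr3)).2 hp)
      obtain ⟨b, -, hbb, hbB⟩ := k.exists_other hin
      intro a ha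
      have hpair : k.B = {(s₀.lab w).1, (s₀.lab w').1} := by
        refine (Set.eq_of_subset_of_ncard_le ?_ ?_
          (Set.finite_of_ncard_ne_zero (by rw [k.cB]; norm_num))).symm
        · rintro x (rfl | rfl)
          · exact hin
          · exact hin'
        · rw [k.cB, Set.ncard_pair hne]
      rw [hpair] at ha
      rcases ha with rfl | rfl
      · exact ⟨w, hw.1, rfl, hFs hw.2.1⟩
      · exact ⟨w', hw'.1, rfl, hFs hw'.2.1⟩
    · right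
      push Not at hiJ'
      obtain ⟨c, hc⟩ := hiJ'
      have hcX : c ∈ X := by
        by_contra h
        exact hiT' ⟨c, h⟩ hc
      have h1 := hiX' ⟨c, hcX, hc⟩
      have hc' := hc
      rw [(hC.one c hcX).1, mem_singleton_iff] at hc'
      refine ⟨c, key c ?_, ?_⟩
      · refine Nr_527.mem_KJ.2 ⟨i', ?_, hsub' hp⟩
        rw [(hC.one c hcX).2.2, mem_singleton_iff]; exact hc'
      · unfold cti
        rw [dif_neg (not_not.2 hcX), ← hc', ← h1]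
  · right
    refine ⟨c.1, key c.1 ?_, ?_⟩
    · have h1 : P (T3.H p) ⊆ KK c := (piK_inr hdis).1 e
      obtain ⟨i', h2, h3⟩ := Nr_527.mem_KJ.1 (hL.sub c (h1 hp))
      exact Nr_527.mem_KJ.2 ⟨i', (hC.tiny c.1 c.2).sub h2, h3⟩
    · unfold cti
      rw [dif_pos c.2]

end Crest.Agent.R096.Ni_914
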