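import Crest.Agent.R096.Qdl1_662
import Crest.Agent.R096.Ni1_914
import Crest.Agent.R096.E1r4_914
import Crest.Agent.R096.Lay2_316

/-!
# R096 (row 96), FRONT (helper662): the shell of 534's `FrontP`, part 1

`FrontM` = the minimal list for the state after DOORS (quads = `Qdl_662.qdT`); `front_of_min` :
with `Lay`, `Cores`, `Fine`, `Words` it gives 337's `Front`.
-/

set_option autoImplicit false
set_option linter.unusedSectionVars false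
set_option linter.unusedVariables false
set_option linter.style.longLine false

open Set Relation Module Topology Filter Metric

namespace Crest.Agent.R096.Frs_662

open Crest.Agent.R096.Brk1_582 Crest.Agent.R096.Brk2_582 Crest.Agent.R096.Brk3_582
open Crest.Agent.R096.Brk5_582 Crest.Agent.R096.Bsp_628
open Crest.Agent.R096.St_147 Crest.Agent.R096.Seq_213 Crest.Agent.R096.Seq_213.GSt
open Crest.Agent.R096.Lm_117 Crest.Agent.R096.Ac_117 Crest.Agent.R096.Msh_715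
open Crest.Agent.R096.Cp_298 Crest.Agent.R096.Gm_298 Crest.Agent.R096.Gl_422
open Crest.Agent.R096.SkB_662 Crest.Agent.R096.Cpo_642
open Crest.Agent.R096.Agl5_543 Crest.Agent.R096.Ori_543
open Crest.Agent.R096.Init_543 Crest.Agent.R096.Qdl_662
open Crest.Agent.R096.SkC1_961 (E3 Hom3 FoamD Cfg th NN)
open Crest.Agent.R096.Mbf_337 (KJ sb)
open Crest.Agent.R096.Frn_337

variable {δ κ0 R c0 : ℝ} {La Om : Set E3} {ι : Type}
variable {Φ : FoamD δ κ0 R c0 La} {T : Tiling Om ι} {X : Set Φ.F} {J0 Jt : Φ.F → Set ι}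
  {ι3 : Type} {T3 : Tiling Om ι3} {KK : Ti X → Set E3} {c3 : ι → ι3}

/-- **MINIMAL OUTPUT OF DOORS** for the state `s₀` over `meshK T3 KK`: `til` = the tile of `T` over a
tile of `T3`, `s'` = the margin of (B) -/
structure FrontM (T : Tiling Om ι) (f : E3 → E3) (J0 V : Φ.F → Set ι) (ct : Φ.F → ι)
    (c3 : ι → ι3) (til : ι3 → ι) (s' : ℝ) [Nonempty T3.Cell] (hH : ∀ k, CoreH T3 (KK k))
    (hdis : ∀ k k', k ≠ k' → Disjoint (KK k) (KK k')) (hne : ∃ c, OutK T3 KK c)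
    {L : Φ.F → Finset ℝ} (Qd : Quads (ι3 ⊕ Ti X) Φ.F (Init_543.QK (Pc Φ.F)))
    (s₀ : GSt (mK fr3 hH hdis) (fun j : JJ Φ L => j.1)) (far₀ : JJ Φ L → Set E3)
    (Gc : Φ.F → Set E3) (Zc : Φ.F → Set (QK (belK T3 KK)))
    (lam₀ : JJ Φ L → QK (belK T3 KK) → ZMod 2) (v₀ v₁ : Φ.F → QK (belK T3 KK)) : Prop where
  inv : s₀.Inv Qd far₀
  on : ∀ w ∈ s₀.P, w ∈ (lmK fr3 hH hdis hne).W1
  fin : ∀ F, (s₀.P ∩ (mK fr3 hH hdis).On F).Finite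
  lab : LabIn (lmK fr3 hH hdis hne) Qd s₀ Gc Zc lam₀ v₀ v₁
  /-- (B): every point on a cell outside the remaining cores is near the middle levels of its
  family somewhere on the tile of `T` -/
  posB : ∀ w ∈ s₀.P, ∀ i3, (∀ k', ¬ P (T3.H i3) ⊆ KK k') → w ∈ P (T3.H i3) →
    til i3 ∉ KorJ Φ J0 → ∃ x ∈ P (T.H (til i3)), Φ.lev (s₀.lab w).1 (f x) ∈ Icc s' (1 - s')
  lev : ∀ x ∈ s₀.P, ∀ i, (∀ k : Ti X, i ∉ V k.1) → x ∈ P (T.H i) →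
    Φ.lev (s₀.lab x).1 (f x) = (s₀.lab x).2.1
  labX : ∀ c ∈ X, ∀ v : {c : T3.Cell // OutK T3 KK c}, v.1.dim = 0 → v.1.set ⊆ P (T.H (ct c)) →
    ∀ j : JJ Φ L, lam₀ j (QK.c _ v) = 1 ↔ Φ.lev j.1 (f v.1.pt) < j.2.1
  ropX : ∀ c ∈ X, ∀ j : JJ Φ L,
    (∃ v : {c : T3.Cell // OutK T3 KK c}, v.1.dim = 0 ∧ v.1.set ⊆ P (T.H (ct c)) ∧
      ReflTransGen (Ed (lmK fr3 hH hdis hne) {e | FrE (lmK fr3 hH hdis hne) Qd j.1 e})
        (v₀ j.1) (QK.c _ v)) ∨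
    ∀ v : {c : T3.Cell // OutK T3 KK c}, v.1.dim = 0 → v.1.set ⊆ P (T.H (ct c)) →
      QK.c _ v ∈ Zc j.1 ∧ ∀ j' : JJ Φ L, j'.1 = j.1 → lam₀ j' (QK.c _ v) = 0
  k4 : ∀ q, pO T3 KK c3 ct q → ∃ i, (∀ c, i ∉ J0 c) ∧ setK T3 KK q ⊆ P (T.H i) ∧
    ∀ x ∈ P (T.H i), K4In (lmK fr3 hH hdis hne) Qd s₀ Zc v₀ (Pc Φ.F) {q}
      (fun _ => sb Φ (Φ.Psi (f x)))
  /-- (E1) at the tiny cores -/
  oneT : ∀ (k : Ti X) (j : JJ Φ L), One s₀ {F | Sum.inr k ∈ (mK fr3 hH hdis).side F} j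
  /-- (E2) at the tiny cores -/
  twoT : ∀ (q : Init_543.QK (Pc Φ.F)) (k : Ti X), k.1 ∈ q.Z → ∀ j j' : JJ Φ L, j.1 ∈ q.B →
    j'.1 ∈ q.B → j.1 ≠ j'.1 → Two s₀ (Qd.Act q) {Sum.inr k} j j'

theorem cti_tiny {X : Set Φ.F} {c3 : ι → ι3} {ct : Φ.F → ι} {c : Φ.F} (hc : c ∉ X) :
    cti X c3 ct c = Sum.inr ⟨c, hc⟩ := by
  classical
  exact dif_pos hc

section of_min

variable {f g : E3 → E3} {V : Φ.F → Set ι} {ct : Φ.F → ι} {ct' : Φ.F → ι} {r₀ : Φ.F → ℝ}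
  {til : ι3 → ι} {ε s₁ s' : ℝ} {κ1 κ2 : ℝ} {A : Φ.F → E3 ≃ᵃ[ℝ] E3} {lam : Φ.F → ℝ}
  {z : Φ.F → E3} {θ : Φ.F → E3 → E3} {φ : Φ.F → E3 → ℝ} {M : Φ.F → ℕ}
  [Nonempty T3.Cell] {hH : ∀ k, CoreH T3 (KK k)}
  {hdis : ∀ k k', k ≠ k' → Disjoint (KK k) (KK k')} {hne : ∃ c, OutK T3 KK c}
  {L : Φ.F → Finset ℝ} {s₀ : GSt (mK fr3 hH hdis) (fun j : JJ Φ L => j.1)}
  {far₀ : JJ Φ L → Set E3} {Gc : Φ.F → Set E3} {Zc : Φ.F → Set (QK (belK T3 KK))}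
  {lam₀ : JJ Φ L → QK (belK T3 KK) → ZMod 2} {v₀ v₁ : Φ.F → QK (belK T3 KK)}

/-- **`Front` FROM THE MINIMAL LIST** (the hypothesis `htwoX` = 847) -/
theorem front_of_min (hLa : IsOpen La) (hf : Hom3 f Om La) (hκ1 : 0 ≤ κ1) (hκ : κ0 * κ1 < κ2)
    (hL : Lay Φ T X J0 Jt T3 KK c3) (hC : Mbf_337.Cores Φ T f κ1 κ2 X J0 Jt V ct A lam z θ φ)
    (hW : Mbf_337.Words Φ T f X ct A lam z M L) (ht : ∀ j : JJ Φ L, 0 < (j.2.1 : ℝ))
    (hsub : ∀ p, P (T3.H p) ⊆ P (T.H (til p)))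
    (htil : ∀ c ∈ X, til (c3 (ct c)) = ct c) (hR : InitR Φ T f g J0 ct' r₀)
    (hM : Mesh0 T (Pc Φ.F) (bc (F := Φ.F)) (RF Φ r₀) f (KorJ Φ J0) ε) (hε : ε < s₁)
    (hε1 : ε < 1) (hs' : s₁ + ε ≤ s')
    (h : FrontM T f J0 V ct c3 til s' hH hdis hne (qdT til hsub KK hLa hR hM hε hε1) s₀ far₀ Gc Zc
      lam₀ v₀ v₁)
    (htwoX : ∀ k, ∀ c ∈ k.Z, c ∈ X → ∀ j j' : JJ Φ L, j.1 ∈ k.B → j'.1 ∈ k.B → j.1 ≠ j'.1 →
      Two s₀ ((qdT til hsub KK hLa hR hM hε hε1).Act k) {cti X c3 ct c} j j') :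
    Front T f J0 Jt V ct c3 hH hdis hne (qdT til hsub KK hLa hR hM hε hε1) s₀ far₀ Gc Zc lam₀ v₀ v₁
    where
  inv := h.inv
  on := h.on
  fin := h.fin
  lab := h.lab
  qin := qin
  actK := actK hC htil
  actO := actO
  actP := actP
  actI := fun k i3 h1 i h2 h3 x hx hw hz => actI hs' h.posB k i3 h1 i h2 h3 x hx hw hz
  lev := h.lev
  labX := h.labX
  ropX := h.ropX
  k4 := h.k4
  one := by
    intro c j
    by_cases hc : c ∈ X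
    · refine E1r_914.one_ct hLa hL hC hW ht (fun j => h.lab.lab j) (fun c hc w hw hwt => ?_) h.labX
        c hc j
      refine h.lev w hw (ct c) (fun k hk => ?_) hwt
      have hck : c ≠ k.1 := fun e => k.2 (e ▸ hc)
      have h1 : ct c ∈ V c := by rw [(hC.one c hc).2.2]; rfl
      exact Set.disjoint_left.1 (hC.disj c k.1 hck) h1 hk
    · rw [cti_tiny hc]
      exact h.oneT ⟨c, hc⟩ j
  two := by
    intro k c hc j j' hj hj' hne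
    by_cases hcX : c ∈ X
    · exact htwoX k c hc hcX j j' hj hj' hne
    · rw [cti_tiny hcX]
      exact h.twoT k ⟨c, hcX⟩ hc j j' hj hj' hne
  ni := Ni_914.ni_front hLa hf hκ1 hκ hL hC qin (actK hC htil) actP
    (fun k i3 h1 i h2 h3 x hx hw hz => actI hs' h.posB k i3 h1 i h2 h3 x hx hw hz) far₀

end of_min

end Crest.Agent.R096.Frs_662
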