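import Crest.Agent.R096.Gk4_422

/-!
# R096 (row 96), DOORS (helper662), leaf (6) of 539 #11019: **`LabIn` over `lmK` in the mixed case**

Every family `a` has a core `co a : ι ⊕ κ` of the merged mesh which is never active: a giant
(`inr k`, exact pattern of the levels `u`, `t` on its boundary) or an exact tile (`inl q`, there the
state is the truthful state `t0` of the old tiling `T0` with the labels `lam0`).

* `LabIn.of_top`  : 422's `LabIn.of_core` for a 3-cell of a mesh with `Top3`;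
* `word_of_isLab` : parity of the old label on a common 1-cell;
* `labIn_mix`     : the mixed case; `labIn_mixD` : with the bodies `D a`.
-/

set_option autoImplicit false
set_option linter.unusedSectionVars false

open Set Relation Module

namespace Crest.Agent.R096.Lmx_662

open Crest.Agent.R096.St_147 Crest.Agent.R096.Seq_213 Crest.Agent.R096.Seq_213.GSt
  Crest.Agent.R096.Lm_117 Crest.Agent.R096.Ac_117
  Crest.Agent.R096.Cp_298 Crest.Agent.R096.Msh_715 Crest.Agent.R096.Agl5_543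
  Crest.Agent.R096.Ori_543 Crest.Agent.R096.Coh_184 Crest.Agent.R096.Gm_298
  Crest.Agent.R096.Gl_422

/-! ### any mesh with 3-cells -/

section top

variable {ι Φ W Q : Type} [PartialOrder Q] {dim : Q → ℕ} {M : MeshC ι Φ W}
variable {J C K : Type} {fam : J → C} {L : LM M Q dim}
variable {Qd : Quads ι C K} {s₀ : GSt M fam} {G : C → Set W} {Z : C → Set Q} {v₀ v₁ : C → Q}

/-- **label data from the pattern on the boundary of one 3-cell per family** -/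
theorem LabIn.of_top (X : Top3 L) (hW : ∀ w ∈ s₀.P, w ∈ L.W1)
    (has : ∀ j, HasLab L (G (fam j)) (Z (fam j)))
    (sat : ∀ j, ∀ w ∈ G (fam j), ∀ x ∈ L.W1, L.ed x = L.ed w → x ∈ G (fam j))
    (supp : ∀ w ∈ s₀.P, w ∈ G (fam (s₀.lab w)))
    (act : ∀ j k, Qd.In k (fam j) → ∀ w ∈ L.W1, Int M (Qd.Act k) w → w ∈ G (fam j))
    (far : ∀ j, v₁ (fam j) ∈ Z (fam j)) (ca : C → Q) (qa : C → ι)
    (h3 : ∀ j, dim (ca (fam j)) = 3)
    (hq : ∀ j F, L.cf F ≤ ca (fam j) → qa (fam j) ∈ M.side F)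
    (hact : ∀ j k, Qd.In k (fam j) → qa (fam j) ∉ Qd.Act k) {u₀ u₁ : C → Q}
    (hu0 : ∀ j, u₀ (fam j) ≤ ca (fam j) ∧ dim (u₀ (fam j)) = 0)
    (hu1 : ∀ j, u₁ (fam j) ≤ ca (fam j) ∧ dim (u₁ (fam j)) = 0)
    (hp0 : ∀ j, ReflTransGen (Ed L (Fr0 L Qd s₀ (fam j))) (v₀ (fam j)) (u₀ (fam j)))
    (hp1 : ∀ j, ReflTransGen (Ed L (Fr0 L Qd s₀ (fam j))) (u₁ (fam j)) (v₁ (fam j)))
    (φ : J → Q → ZMod 2) (h1 : ∀ j, φ j (u₀ (fam j)) + φ j (u₁ (fam j)) = 1)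
    (hφ : ∀ j, ∀ e ≤ ca (fam j), dim e = 1 →
      φ j (L.en e false) + φ j (L.en e true) = nW (gp s₀ j) (L.On1 e)) :
    ∃ lam₀, LabIn L Qd s₀ G Z lam₀ v₀ v₁ := by
  refine LabIn.of_core hW has sat supp act far ca qa ?_ hact hu0 hu1 hp0 hp1 φ h1 hφ
  intro j e he hd
  obtain ⟨F, h4, h5⟩ := X.mid _ (h3 j) e hd (lt_of_le_of_ne he (fun h => by
    rw [h, h3 j] at hd; omega))
  exact ⟨F, h4, hq j F h5⟩

end top

/-! ### merged meshes -/

section mix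

variable {E : Type} [NormedAddCommGroup E] [NormedSpace ℝ E] [FiniteDimensional ℝ E]
variable {Om : Set E} {ι : Type} {T : Tiling Om ι} {κ : Type} {Kc : κ → Set E}

/-- the 1-cells of the boundary of a tile or giant -/
def bdc (T : Tiling Om ι) (Kc : κ → Set E) : ι ⊕ κ → Set E :=
  Sum.elim (fun q => Msh_715.P (T.H q)) (fun k => frontier (Kc k))

/-- an outer tile or a giant -/
def OutI (T : Tiling Om ι) (Kc : κ → Set E) (x : ι ⊕ κ) : Prop :=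
  ∀ q, x = Sum.inl q → ∀ k, ¬ Msh_715.P (T.H q) ⊆ Kc k

variable [Nonempty T.Cell]
variable {h3 : finrank ℝ E = 3} {hH : ∀ c, CoreH T (Kc c)}
  {hdis : ∀ c c', c ≠ c' → Disjoint (Kc c) (Kc c')} {hne : ∃ c, OutK T Kc c}

theorem tcK0_out {q : ι} (h : ∀ k, ¬ Msh_715.P (T.H q) ⊆ Kc k) :
    tcK0 T Kc q = QK.c _ ⟨tcell T q, out_tcell (fun ⟨k, hk⟩ => h k hk)⟩ := by
  unfold tcK0
  rw [dif_neg (fun ⟨k, hk⟩ => h k hk)]

/-- the faces below the 3-cell of a tile have this tile as a side -/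
theorem side_of_le {x : ι ⊕ κ} (hx : OutI T Kc x)
    {F : {F : C2 T // ¬ (((meshC T h3).side F).map (piK T Kc)).IsDiag}}
    (hF : (lmK h3 hH hdis hne).cf F ≤ tcK T Kc x) : x ∈ (mK h3 hH hdis).side F := by
  rcases x with q | k
  · have h1 := hx q rfl
    have h2 : (lmK h3 hH hdis hne).cf F ≤ tcK0 T Kc q := hF
    rw [tcK0_out h1] at h2
    have h4 : F.1.set ⊆ (tcell T q).set := h2
    rw [tcell_set] at h4
    show Sum.inl q ∈ ((meshC T h3).side F.1).map (piK T Kc)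
    rw [mem_map_iff]
    refine ⟨q, ?_, piK_inl.2 ⟨rfl, h1⟩⟩
    show q ∈ F.1.side h3
    rw [C2.mem_side]
    exact h4 (set_ne F.1.1)
  · exact (giant_side h3 hH hdis k F).2 hF

/-- the 1-cells below the 3-cell of a tile -/
theorem le_tcK {x : ι ⊕ κ} (hx : OutI T Kc x) {e : QK (belK T Kc)} (he : e ≤ tcK T Kc x)
    (hd : dimK (belK T Kc) (fun c => c.1.dim) e = 1) :
    ∃ c, ∃ h : OutK T Kc c, e = oc c h ∧ c.dim = 1 ∧ c.set ⊆ bdc T Kc x := by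
  rcases x with q | k
  · have h1 := hx q rfl
    have h2 : e ≤ tcK0 T Kc q := he
    rw [tcK0_out h1] at h2
    rcases e with e | k'
    · refine ⟨e.1, e.2, rfl, hd, ?_⟩
      have h4 : e.1.set ⊆ (tcell T q).set := h2
      rw [tcell_set] at h4
      exact h4
    · exact absurd (show (3:ℕ) = 1 from hd) (by norm_num)
  · exact le_giant he hd

/-- a vertex on the boundary is below the 3-cell -/
theorem vtx_le_tcK {x : ι ⊕ κ} (hx : OutI T Kc x) {v : T.Cell} (ho : OutK T Kc v)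
    (hv : v.set ⊆ bdc T Kc x) : oc v ho ≤ tcK T Kc x := by
  rcases x with q | k
  · have h1 := hx q rfl
    show oc v ho ≤ tcK0 T Kc q
    rw [tcK0_out h1]
    show v.set ⊆ (tcell T q).set
    rw [tcell_set]
    exact hv
  · exact hv

/-- **parity of the label of an old tiling on a common 1-cell** -/
theorem word_of_isLab {ι0 : Type} {T0 : Tiling Om ι0} {Y0 Y : Finset E} {lam : E → ZMod 2}
    (hl : Main_4.IsLab T0 Y0 lam) {e : T.Cell} (he : e.dim = 1) (hcc : T0.cc e.pt = e.set)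
    (hd : T0.dim e.pt = 1) (hY0 : ∀ w ∈ Y0, w ∈ e.set → w ∈ Y)
    (hY : ∀ w ∈ Y, w ∈ e.set → T.dim w = 1 ∧ w ∈ Y0) :
    lam (epE e false) + lam (epE e true) = nW Y {w | w ∈ W1 T ∧ edC T w = e} := by
  classical
  obtain ⟨q1, q2, q3⟩ := ep_spec he
  rw [hl e.pt e.pt_mem hd _ _ (hcc.trans q2), nW_card, hcc]
  congr 2
  ext w
  simp only [Finset.mem_filter]
  constructor
  · rintro ⟨a1, a2⟩
    have a3 := hY0 w a1 a2
    have hW : w ∈ W1 T := ⟨Cm_117.cell_sub e a2, (hY w a3 a2).1⟩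
    exact ⟨a3, hW, (edC_eq hW he).2 a2⟩
  · rintro ⟨a1, a2, a3⟩
    have a4 : w ∈ e.set := (edC_eq a2 he).1 a3
    exact ⟨(hY w a1 a4).2, a4⟩

variable {J C K : Type} {fam : J → C} {Qd : Quads (ι ⊕ κ) C K} {s₀ : GSt (mK h3 hH hdis) fam}

/-- **`LabIn` over `meshK`, every family with a giant or tile `co a` and a partial label** -/
theorem labIn_co {G : C → Set E} {Z : C → Set (QK (belK T Kc))}
    {v₀ v₁ : C → QK (belK T Kc)} (hW : ∀ w ∈ s₀.P, w ∈ (lmK h3 hH hdis hne).W1)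
    (has : ∀ j, HasLab (lmK h3 hH hdis hne) (G (fam j)) (Z (fam j)))
    (sat : ∀ j, ∀ w ∈ G (fam j), ∀ x ∈ (lmK h3 hH hdis hne).W1,
      (lmK h3 hH hdis hne).ed x = (lmK h3 hH hdis hne).ed w → x ∈ G (fam j))
    (supp : ∀ w ∈ s₀.P, w ∈ G (fam (s₀.lab w)))
    (act : ∀ j k, Qd.In k (fam j) → ∀ w ∈ (lmK h3 hH hdis hne).W1,
      Int (mK h3 hH hdis) (Qd.Act k) w → w ∈ G (fam j))
    (far : ∀ j, v₁ (fam j) ∈ Z (fam j)) (co : C → ι ⊕ κ) (hco : ∀ j, OutI T Kc (co (fam j)))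
    (hact : ∀ j k, Qd.In k (fam j) → co (fam j) ∉ Qd.Act k)
    (φ : J → T.Cell → ZMod 2)
    (hφ : ∀ j, ∀ e : T.Cell, e.dim = 1 → e.set ⊆ bdc T Kc (co (fam j)) →
      φ j (enC e false) + φ j (enC e true) = nW (gp s₀ j) {w | w ∈ W1 T ∧ edC T w = e})
    (u₀ u₁ : C → T.Cell) (o₀ : ∀ a, OutK T Kc (u₀ a)) (o₁ : ∀ a, OutK T Kc (u₁ a))
    (hu0 : ∀ j, (u₀ (fam j)).set ⊆ bdc T Kc (co (fam j)) ∧ (u₀ (fam j)).dim = 0)
    (hu1 : ∀ j, (u₁ (fam j)).set ⊆ bdc T Kc (co (fam j)) ∧ (u₁ (fam j)).dim = 0)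
    (h1 : ∀ j, φ j (u₀ (fam j)) + φ j (u₁ (fam j)) = 1)
    (hp0 : ∀ j, ReflTransGen (Ed (lmK h3 hH hdis hne) (Fr0 (lmK h3 hH hdis hne) Qd s₀ (fam j)))
      (v₀ (fam j)) (oc (u₀ (fam j)) (o₀ _)))
    (hp1 : ∀ j, ReflTransGen (Ed (lmK h3 hH hdis hne) (Fr0 (lmK h3 hH hdis hne) Qd s₀ (fam j)))
      (oc (u₁ (fam j)) (o₁ _)) (v₁ (fam j))) :
    ∃ lam₀, Gl_422.LabIn (lmK h3 hH hdis hne) Qd s₀ G Z lam₀ v₀ v₁ := by
  refine LabIn.of_top (top3K h3 hH hdis hne) hW has sat supp act far (fun a => tcK T Kc (co a)) co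
    (fun j => tcK_dim h3 _) (fun j F hF => side_of_le (hco j) hF) hact
    (u₀ := fun a => oc (u₀ a) (o₀ a)) (u₁ := fun a => oc (u₁ a) (o₁ a))
    (fun j => ⟨vtx_le_tcK (hco j) _ (hu0 j).1, (hu0 j).2⟩)
    (fun j => ⟨vtx_le_tcK (hco j) _ (hu1 j).1, (hu1 j).2⟩) hp0 hp1
    (fun j => exφ T Kc (φ j)) h1 ?_
  intro j e he hd
  obtain ⟨c, h, rfl, hcd, hc⟩ := le_tcK (hco j) he hd
  obtain ⟨o1, e1⟩ := en_K (h3 := h3) (hH := hH) (hdis := hdis) (hne := hne) h hcd false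
  obtain ⟨o2, e2⟩ := en_K (h3 := h3) (hH := hH) (hdis := hdis) (hne := hne) h hcd true
  rw [e1, e2, on_K h]
  exact hφ j c hcd hc

/-- **`LabIn` IN THE MIXED CASE**: exact tiles carry the labels `lam0` of the truthful state `t0` of
the old tiling `T0`, giants carry exact patterns -/
theorem labIn_mix {ι0 : Type} {T0 : Tiling Om ι0} {t0 : GSt (meshC T0 h3) fam}
    {lam0 : J → E → ZMod 2} {G : C → Set E} {Z : C → Set (QK (belK T Kc))}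
    {v₀ v₁ : C → QK (belK T Kc)} (hW : ∀ w ∈ s₀.P, w ∈ (lmK h3 hH hdis hne).W1)
    (has : ∀ j, HasLab (lmK h3 hH hdis hne) (G (fam j)) (Z (fam j)))
    (sat : ∀ j, ∀ w ∈ G (fam j), ∀ x ∈ (lmK h3 hH hdis hne).W1,
      (lmK h3 hH hdis hne).ed x = (lmK h3 hH hdis hne).ed w → x ∈ G (fam j))
    (supp : ∀ w ∈ s₀.P, w ∈ G (fam (s₀.lab w)))
    (act : ∀ j k, Qd.In k (fam j) → ∀ w ∈ (lmK h3 hH hdis hne).W1,
      Int (mK h3 hH hdis) (Qd.Act k) w → w ∈ G (fam j))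
    (far : ∀ j, v₁ (fam j) ∈ Z (fam j)) (co : C → ι ⊕ κ) (hco : ∀ j, OutI T Kc (co (fam j)))
    (hact : ∀ j k, Qd.In k (fam j) → co (fam j) ∉ Qd.Act k)
    (u₀ u₁ : C → T.Cell) (o₀ : ∀ a, OutK T Kc (u₀ a)) (o₁ : ∀ a, OutK T Kc (u₁ a))
    (hu0 : ∀ j, (u₀ (fam j)).set ⊆ bdc T Kc (co (fam j)) ∧ (u₀ (fam j)).dim = 0)
    (hu1 : ∀ j, (u₁ (fam j)).set ⊆ bdc T Kc (co (fam j)) ∧ (u₁ (fam j)).dim = 0)
    -- exact tiles
    (hlab : ∀ j q, co (fam j) = Sum.inl q → Main_4.IsLab T0 (Lab_184.gPts t0 j) (lam0 j))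
    (hcell : ∀ j q, co (fam j) = Sum.inl q → ∀ e : T.Cell, e.dim = 1 →
      e.set ⊆ Msh_715.P (T.H q) → T0.cc e.pt = e.set ∧ T0.dim e.pt = 1)
    (hst : ∀ j q, co (fam j) = Sum.inl q → ∀ w ∈ Msh_715.P (T.H q),
      ((w ∈ s₀.P ∧ s₀.lab w = j) ↔ (w ∈ t0.P ∧ t0.lab w = j)))
    (hval : ∀ j q, co (fam j) = Sum.inl q →
      lam0 j (u₀ (fam j)).pt + lam0 j (u₁ (fam j)).pt = 1)
    -- giants
    (u : C → E → ℝ) (t : J → ℝ)
    (haff : ∀ j k, co (fam j) = Sum.inr k → ∀ e : T.Cell, e.dim = 1 →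
      e.set ⊆ frontier (Kc k) → ∃ g : E →ᵃ[ℝ] ℝ, EqOn (u (fam j)) g e.set)
    (hvt : ∀ j k, co (fam j) = Sum.inr k → ∀ v ∈ frontier (Kc k), T.dim v = 0 →
      u (fam j) v ≠ t j)
    (hpat : ∀ j k, co (fam j) = Sum.inr k → ∀ w ∈ frontier (Kc k), T.dim w = 1 →
      ((w ∈ s₀.P ∧ s₀.lab w = j) ↔ u (fam j) w = t j))
    (hut : ∀ j k, co (fam j) = Sum.inr k → u (fam j) (u₀ (fam j)).pt < t j ∧
      t j < u (fam j) (u₁ (fam j)).pt)
    -- ropes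
    (hp0 : ∀ j, ReflTransGen (Ed (lmK h3 hH hdis hne) (Fr0 (lmK h3 hH hdis hne) Qd s₀ (fam j)))
      (v₀ (fam j)) (oc (u₀ (fam j)) (o₀ _)))
    (hp1 : ∀ j, ReflTransGen (Ed (lmK h3 hH hdis hne) (Fr0 (lmK h3 hH hdis hne) Qd s₀ (fam j)))
      (oc (u₁ (fam j)) (o₁ _)) (v₁ (fam j))) :
    ∃ lam₀, Gl_422.LabIn (lmK h3 hH hdis hne) Qd s₀ G Z lam₀ v₀ v₁ := by
  classical
  have key : ∀ j, ∃ φ : T.Cell → ZMod 2,
      (∀ e : T.Cell, e.dim = 1 → e.set ⊆ bdc T Kc (co (fam j)) →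
        φ (enC e false) + φ (enC e true) = nW (gp s₀ j) {w | w ∈ W1 T ∧ edC T w = e}) ∧
      φ (u₀ (fam j)) + φ (u₁ (fam j)) = 1 := by
    intro j
    rcases hc : co (fam j) with q | k
    · refine ⟨fun v => lam0 j v.pt, fun e he hs => ?_, hval j q hc⟩
      obtain ⟨a1, a2⟩ := hcell j q hc e he hs
      show lam0 j (enC e false).pt + lam0 j (enC e true).pt = _
      rw [en_pt he, en_pt he]
      refine word_of_isLab (hlab j q hc) he a1 a2 (fun w hw hwe => ?_) (fun w hw hwe => ?_)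
      · exact mem_gp.2 ((hst j q hc w (hs hwe)).2 (Lab_184.mem_gPts.1 hw))
      · obtain ⟨b1, b2⟩ := mem_gp.1 hw
        exact ⟨(Gm_298.mem_W1K.1 (hW w b1)).2.1,
          Lab_184.mem_gPts.2 ((hst j q hc w (hs hwe)).1 ⟨b1, b2⟩)⟩
    · obtain ⟨b1, b2⟩ := hut j k hc
      refine ⟨fun v => ind (t j < u (fam j) v.pt), fun e he hs => ?_, ?_⟩
      · show ind (t j < u (fam j) (enC e false).pt) + ind (t j < u (fam j) (enC e true).pt) = _
        rw [en_pt he, en_pt he]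
        refine exact_parity he (haff j k hc e he hs) (fun b => ?_) ?_
        · have h4 := (ep_spec he).2.2 b
          exact hvt j k hc _ (hs h4.2) h4.1
        · intro w hw hw1
          rw [mem_gp]
          exact hpat j k hc w (hs hw) hw1
      · show ind (t j < u (fam j) (u₀ (fam j)).pt) + ind (t j < u (fam j) (u₁ (fam j)).pt) = 1
        rw [ind_neg (not_lt.2 b1.le), ind_pos b2, zero_add]
  choose φ hφ h1 using key
  exact labIn_co hW has sat supp act far co hco hact φ hφ u₀ u₁ o₀ o₁ hu0 hu1 h1 hp0 hp1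

/-- the same with the bodies `D a` -/
theorem labIn_mixD {ι0 : Type} {T0 : Tiling Om ι0} {t0 : GSt (meshC T0 h3) fam}
    {lam0 : J → E → ZMod 2} {v₀ v₁ : C → QK (belK T Kc)}
    (D : C → Set E) (hW : ∀ w ∈ s₀.P, w ∈ (lmK h3 hH hdis hne).W1)
    (hD : ∀ j, IsCompact (D (fam j))) (hDO : ∀ j, D (fam j) ⊆ Om)
    (hfr : ∀ j, IsPreconnected (frontier (D (fam j)))) (htr : ∀ j, TrivF (ZMod 2) (D (fam j)))
    (supp : ∀ w ∈ s₀.P, (∀ q, w ∈ Msh_715.P (T.H q) →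
      Msh_715.P (T.H q) ⊆ interior (D (fam (s₀.lab w)))) ∧
      ∀ c, w ∈ Kc c → Kc c ⊆ interior (D (fam (s₀.lab w))))
    (act : ∀ j k, Qd.In k (fam j) → Qd.Act k ⊆ AD T Kc (D (fam j)))
    (far : ∀ j, v₁ (fam j) ∈ ZK T Kc (D (fam j)))
    (co : C → ι ⊕ κ) (hco : ∀ j, OutI T Kc (co (fam j)))
    (hact : ∀ j k, Qd.In k (fam j) → co (fam j) ∉ Qd.Act k)
    (u₀ u₁ : C → T.Cell) (o₀ : ∀ a, OutK T Kc (u₀ a)) (o₁ : ∀ a, OutK T Kc (u₁ a))
    (hu0 : ∀ j, (u₀ (fam j)).set ⊆ bdc T Kc (co (fam j)) ∧ (u₀ (fam j)).dim = 0)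
    (hu1 : ∀ j, (u₁ (fam j)).set ⊆ bdc T Kc (co (fam j)) ∧ (u₁ (fam j)).dim = 0)
    -- exact tiles
    (hlab : ∀ j q, co (fam j) = Sum.inl q → Main_4.IsLab T0 (Lab_184.gPts t0 j) (lam0 j))
    (hcell : ∀ j q, co (fam j) = Sum.inl q → ∀ e : T.Cell, e.dim = 1 →
      e.set ⊆ Msh_715.P (T.H q) → T0.cc e.pt = e.set ∧ T0.dim e.pt = 1)
    (hst : ∀ j q, co (fam j) = Sum.inl q → ∀ w ∈ Msh_715.P (T.H q),
      ((w ∈ s₀.P ∧ s₀.lab w = j) ↔ (w ∈ t0.P ∧ t0.lab w = j)))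
    (hval : ∀ j q, co (fam j) = Sum.inl q →
      lam0 j (u₀ (fam j)).pt + lam0 j (u₁ (fam j)).pt = 1)
    -- giants
    (u : C → E → ℝ) (t : J → ℝ)
    (haff : ∀ j k, co (fam j) = Sum.inr k → ∀ e : T.Cell, e.dim = 1 →
      e.set ⊆ frontier (Kc k) → ∃ g : E →ᵃ[ℝ] ℝ, EqOn (u (fam j)) g e.set)
    (hvt : ∀ j k, co (fam j) = Sum.inr k → ∀ v ∈ frontier (Kc k), T.dim v = 0 →
      u (fam j) v ≠ t j)
    (hpat : ∀ j k, co (fam j) = Sum.inr k → ∀ w ∈ frontier (Kc k), T.dim w = 1 →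
      ((w ∈ s₀.P ∧ s₀.lab w = j) ↔ u (fam j) w = t j))
    (hut : ∀ j k, co (fam j) = Sum.inr k → u (fam j) (u₀ (fam j)).pt < t j ∧
      t j < u (fam j) (u₁ (fam j)).pt)
    -- ropes
    (hp0 : ∀ j, ReflTransGen (Ed (lmK h3 hH hdis hne) (Fr0 (lmK h3 hH hdis hne) Qd s₀ (fam j)))
      (v₀ (fam j)) (oc (u₀ (fam j)) (o₀ _)))
    (hp1 : ∀ j, ReflTransGen (Ed (lmK h3 hH hdis hne) (Fr0 (lmK h3 hH hdis hne) Qd s₀ (fam j)))
      (oc (u₁ (fam j)) (o₁ _)) (v₁ (fam j))) :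
    ∃ lam₀, Gl_422.LabIn (lmK h3 hH hdis hne) Qd s₀ (fun c => GD h3 hH hdis (D c))
      (fun c => ZK T Kc (D c)) lam₀ v₀ v₁ := by
  refine labIn_mix hW (fun j => hasLab_K (hD j) (hDO j) (hfr j) (htr j))
    (fun j w hw x hx he => GD_satK hw hx he) (fun w hw => ?_)
    (fun j k hk w _ hi => GD_act (act j k hk) hi) far co hco hact u₀ u₁ o₀ o₁ hu0 hu1 hlab hcell
    hst hval u t haff hvt hpat hut hp0 hp1
  exact GD_of (hne := hne) (hW w hw) (supp w hw).1 (supp w hw).2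

end mix

end Crest.Agent.R096.Lmx_662
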