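import Crest.Agent.R096.Sd1_161

/-!
# R096 / P3 / P3D-D (2): `exists_DD`
-/

set_option autoImplicit false

namespace Crest.Agent.R096.Sd1_161

open Wk_689 St_147

variable {ι Φ W I : Type} {M : MeshC ι Φ W} {col : I → Bool} {s : St M col} {Act : Set ι}
  {far : I → Set W} {A : s.Arcs Act} {τ : Bool → ι → s.Dbl → ZMod 2}

theorem Df_congr {z z' : s.Dbl} (hz : z ∈ A.mx) (h : z' ∈ A.cv z) :
    Df far A τ z' = Df far A τ z := by
  funext x d
  unfold Df
  rw [cv_eq hz h, lab_cv hz h x]

theorem Df_supp {z : s.Dbl} {x : Bool} {d : Dart s} (h : Df far A τ z x d ≠ 0) :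
    d.x = x ∧ s.lab (pt d) = s.lab (z.e x) := by
  have h1 : s.lab (pt d) = s.lab (z.e x) := by
    by_contra hne
    exact h (Df_off hne)
  refine ⟨?_, h1⟩
  rw [x_eq, h1, z.colr x]

section

variable (hg : s.Good Act far) (hR : RefStmt A τ)

include hR in
theorem Df_fl {z : s.Dbl} (hz : z ∈ A.mx) (x : Bool) (d : Dart s) :
    Df far A τ z x (flip d) = Df far A τ z x d := by
  have hl : s.lab (pt (flip d)) = s.lab (pt d) := by
    rw [lab_pt, lab_pt]
    rfl
  by_cases h : s.lab (pt d) = s.lab (z.e x)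
  · rw [Df_on h, Df_on (hl.trans h), (Cf_spec hR hz).fl]
  · rw [Df_off h, Df_off (fun h' => h (hl.symm.trans h'))]

include hR in
theorem Df_cont {z : s.Dbl} (hz : z ∈ A.mx) (x : Bool) (F F' : Φ) (w : W) (h : s.At F w)
    (h' : s.At F' w) : Df far A τ z x (ed h) = Df far A τ z x (ed h') := by
  by_cases hl : s.lab w = s.lab (z.e x)
  · rw [Df_on (by rw [pt_ed]; exact hl), Df_on (by rw [pt_ed]; exact hl),
      (Cf_spec hR hz).cont F F' w h h']
  · rw [Df_off (by rw [pt_ed]; exact hl), Df_off (by rw [pt_ed]; exact hl)]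

include hR in
theorem Df_jump_in {z : s.Dbl} (hz : z ∈ A.mx) {u : s.Dbl} (hu : u ∈ A.cv z) (x : Bool) :
    Df far A τ z x (dz u x true) + Df far A τ z x (dz u x false) = 1 := by
  have hl : ∀ b, s.lab (pt (dz u x b)) = s.lab (z.e x) := fun b => by
    rw [lab_dz, lab_cv hz hu]
  rw [Df_on (hl _), Df_on (hl _), add_add2, (Cf_spec hR hz).jin u hu x]

include hR in
theorem Df_jump_out {z : s.Dbl} (hz : z ∈ A.mx) {u : s.Dbl} (hu : u ∉ A.cv z) (x : Bool) :
    Df far A τ z x (dz u x true) = Df far A τ z x (dz u x false) := by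
  by_cases hl : s.lab (u.e x) = s.lab (z.e x)
  · rw [Df_on (by rw [lab_dz]; exact hl), Df_on (by rw [lab_dz]; exact hl),
      (Cf_spec hR hz).jout u hu x]
  · rw [Df_off (by rw [lab_dz]; exact hl), Df_off (by rw [lab_dz]; exact hl)]

include hR in
theorem Df_along {z : s.Dbl} (hz : z ∈ A.mx) {u : s.Dbl} (hu : u ∉ A.cv z) (x : Bool) {q : ι}
    (hqA : q ∈ Act) (hq : q ∈ M.side u.F) :
    Df far A τ z x (dz u x false) = Df far A τ z x (dz (A.arc q u) x false) := by
  by_cases hl : s.lab (u.e x) = s.lab (z.e x)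
  · rw [Df_on (by rw [lab_dz]; exact hl), Df_on (by rw [lab_dz, lab_arc A x hqA hq]; exact hl),
      (Cf_spec hR hz).along u hu x q hqA hq]
  · rw [Df_off (by rw [lab_dz]; exact hl), Df_off (by rw [lab_dz, lab_arc A x hqA hq]; exact hl)]

include hR in
theorem Df_tau {z : s.Dbl} (hz : z ∈ A.mx) {u : s.Dbl} (hu : u ∈ A.cv z) (x : Bool) {q : ι}
    (hq : q ∈ M.side u.F) :
    Df far A τ z x (dz u x false) + Df far A τ z x (dz (A.arc q u) x false) = τ x q u := by
  have hl : s.lab (u.e x) = s.lab (z.e x) := lab_cv hz hu x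
  have hl' : s.lab ((A.arc q u).e x) = s.lab (z.e x) := lab_cv hz (cv_step hu hq) x
  rw [Df_on (by rw [lab_dz]; exact hl), Df_on (by rw [lab_dz]; exact hl'), add_add2,
    (Cf_spec hR hz).tau u hu x q hq]

include hg hR in
theorem Df_far0 {z : s.Dbl} (hz : z ∈ A.mx) (x : Bool) (i : I) (F : Φ) (w : W) (h : s.At F w)
    (hw : w ∈ far i) : Df far A τ z x (ed h) = 0 := by
  by_cases hl : s.lab w = s.lab (z.e x)
  · rw [Df_on (by rw [pt_ed]; exact hl)]
    have hi : s.lab w = i := (hg.far_mem hw).2
    rw [fv_spec hg hz (Cf_spec hR hz) (i := s.lab (z.e x)) (F := F) (w := w)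
      (by rw [← hl, hi]; exact hw) h, add_self2]
  · rw [Df_off (by rw [pt_ed]; exact hl)]

/-- a function without jumps on a sheet which vanishes at the marked points vanishes -/
theorem zero_of_nojump {i : I} (hg : s.Good Act far) {g : Dart s → ZMod 2}
    (hfl : ∀ d, g (flip d) = g d)
    (hcont : ∀ (F F' : Φ) (w : W) (h : s.At F w) (h' : s.At F' w), g (ed h) = g (ed h'))
    (hj : ∀ u : s.Dbl, s.lab (u.e (col i)) = i → g (dz u (col i) true) = g (dz u (col i) false))
    (hex : ∃ (F : Φ) (w : W), w ∈ far i ∧ s.At F w)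
    (hfar : ∀ (F : Φ) (w : W) (h : s.At F w), w ∈ far i → g (ed h) = 0)
    {d : Dart s} (hd : s.lab (pt d) = i) : g d = 0 := by
  obtain ⟨F, w, hw, hat⟩ := hex
  rw [← hfar F w hat hw]
  exact const_sheet (hg.conn i) hfl hcont hj hd (by rw [pt_ed]; exact (hg.far_mem hw).2)

include hR in
/-- the disc of `z` is constant along the other curves -/
theorem Df_on_curve {z z' : s.Dbl} (hz : z ∈ A.mx) (hz' : z' ∈ A.mx) (hne : z' ∉ A.cv z)
    (x : Bool) {u : s.Dbl} (hu : u ∈ A.cv z') (b : Bool) :
    Df far A τ z x (dz u x b) = Df far A τ z x (dz z' x false) := by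
  have hout : ∀ v ∈ A.cv z', v ∉ A.cv z := by
    intro v hv hvz
    apply hne
    rw [← cv_eq hz hvz, cv_eq hz' hv]
    exact cv_self A z'
  have h1 : Df far A τ z x (dz u x false) = Df far A τ z x (dz z' x false) := by
    induction hu with
    | refl => rfl
    | @tail v w hv h ih =>
      obtain ⟨q, hq, rfl⟩ := h
      rw [← ih]
      exact (Df_along hR hz (hout v hv) x (A.mx_closed _ (cv_sub hz' hv) q hq).1 hq).symm
  cases b
  · exact h1
  · rw [Df_jump_out hR hz (hout u hu), h1]

include hg hR in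
theorem Df_lam {z z' : s.Dbl} (hz : z ∈ A.mx) (hz' : z' ∈ A.mx) (x : Bool) {d : Dart s}
    (h : Df far A τ z x d = 1) (h' : Df far A τ z' x d = 1) :
    (∀ d', Df far A τ z x d' = 1 → Df far A τ z' x d' = 1) ∨
      (∀ d', Df far A τ z' x d' = 1 → Df far A τ z x d' = 1) := by
  have n10 : (1 : ZMod 2) ≠ 0 := one_ne_zero
  have s1 := (Df_supp (by rw [h]; exact n10)).2
  have s2 := (Df_supp (by rw [h']; exact n10)).2
  have hll : s.lab (z'.e x) = s.lab (z.e x) := s2.symm.trans s1
  by_cases hcv : z' ∈ A.cv z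
  · left
    intro d' hd'
    rw [Df_congr hz hcv]
    exact hd'
  have hcv' : z ∉ A.cv z' := fun h => hcv (by rw [cv_eq hz' h]; exact cv_self A z')
  set i := s.lab (z.e x) with hi
  have hci : col i = x := z.colr x
  set f : Dart s → ZMod 2 := Df far A τ z x with hf
  set g : Dart s → ZMod 2 := Df far A τ z' x with hgg
  have dec : ∀ a : ZMod 2, a = 0 ∨ a = 1 := by decide
  -- values on the other curve
  have hfg : ∀ u ∈ A.cv z', ∀ b, f (dz u x b) = f (dz z' x false) := fun u hu b =>
    Df_on_curve hR hz hz' hcv x hu b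
  have hgf : ∀ u ∈ A.cv z, ∀ b, g (dz u x b) = g (dz z x false) := fun u hu b =>
    Df_on_curve hR hz' hz hcv' x hu b
  have hfo : ∀ u ∉ A.cv z, f (dz u x true) = f (dz u x false) := fun u hu =>
    Df_jump_out hR hz hu x
  have hgo : ∀ u ∉ A.cv z', g (dz u x true) = g (dz u x false) := fun u hu =>
    Df_jump_out hR hz' hu x
  have hex := exists_far hg z x
  rw [← hi] at hex
  -- polynomial in f and g without jumps
  have key : ∀ P : ZMod 2 → ZMod 2 → ZMod 2,
      (P 0 (g (dz z x false)) = P 1 (g (dz z x false))) →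
      (P (f (dz z' x false)) 0 = P (f (dz z' x false)) 1) →
      P 0 0 = 0 → ∀ d', s.lab (pt d') = i → P (f d') (g d') = 0 := by
    intro P h1 h2 h0 d' hd'
    refine zero_of_nojump (i := i) hg (g := fun d => P (f d) (g d)) ?_ ?_ ?_ hex ?_ hd'
    · intro e
      simp only [hf, hgg, Df_fl hR hz, Df_fl hR hz']
    · intro F F' w k k'
      simp only [hf, hgg]
      rw [Df_cont hR hz x F F' w k k', Df_cont hR hz' x F F' w k k']
    · intro u _
      rw [hci]
      show P (f (dz u x true)) (g (dz u x true)) = P (f (dz u x false)) (g (dz u x false))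
      by_cases hu : u ∈ A.cv z
      · rw [hgf u hu true, hgf u hu false]
        rcases dec (f (dz u x true)) with e | e <;> rcases dec (f (dz u x false)) with e' | e' <;>
          rw [e, e']
        · exact h1
        · exact h1.symm
      · rw [hfo u hu]
        by_cases hu' : u ∈ A.cv z'
        · rw [hfg u hu' false]
          rcases dec (g (dz u x true)) with e | e <;> rcases dec (g (dz u x false)) with e' | e' <;>
            rw [e, e']
          · exact h2
          · exact h2.symm
        · rw [hgo u hu']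
    · intro F w k hw
      simp only [hf, hgg]
      rw [Df_far0 hg hR hz x i F w k hw, Df_far0 hg hR hz' x i F w k hw, h0]
  -- cases
  rcases dec (g (dz z x false)) with e1 | e1 <;> rcases dec (f (dz z' x false)) with e2 | e2
  · exfalso
    have := key (fun a b => a * b) (by rw [e1]; rfl) (by rw [e2]; rfl) rfl d s1
    rw [h, h'] at this
    exact n10 this
  · right
    intro d' hd'
    have hs : s.lab (pt d') = i :=
      ((Df_supp (far := far) (A := A) (τ := τ) (z := z') (x := x) (d := d')
        (fun h0 => n10 (hd'.symm.trans h0))).2).trans hll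
    have := key (fun a b => (1 + a) * b) (by rw [e1]; rfl) (by rw [e2]; rfl) rfl d' hs
    have hd2 : g d' = 1 := hd'
    rw [hd2] at this
    rcases dec (f d') with e | e
    · rw [e] at this
      exact absurd this (by decide)
    · exact e
  · left
    intro d' hd'
    have hs : s.lab (pt d') = i :=
      (Df_supp (far := far) (A := A) (τ := τ) (z := z) (x := x) (d := d')
        (fun h0 => n10 (hd'.symm.trans h0))).2
    have := key (fun a b => a * (1 + b)) (by rw [e1]; rfl) (by rw [e2]; rfl) rfl d' hs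
    have hd2 : f d' = 1 := hd'
    rw [hd2] at this
    rcases dec (g d') with e | e
    · rw [e] at this
      exact absurd this (by decide)
    · exact e
  · exfalso
    have h3 := key (fun a b => a + b + a * b) (by rw [e1]; rfl) (by rw [e2]; rfl) rfl
      (dz z x false) (by rw [lab_dz])
    rw [e1] at h3
    rcases dec (f (dz z x false)) with e | e <;> rw [e] at h3 <;> exact absurd h3 (by decide)

include hg hR in
/-- the double points outside the closed curves are in the root regions -/
theorem Df_out {z u : s.Dbl} (hz : z ∈ A.mx) (hu : u ∉ A.mx) (x b : Bool) :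
    Df far A τ z x (dz u x b) = 0 := by
  have hcz : ∀ v ∉ A.mx, v ∉ A.cv z := fun v hv h => hv (cv_sub hz h)
  let O : Set s.Dbl := {v | Relation.ReflTransGen
    (fun a b : s.Dbl => ∃ q ∈ Act, q ∈ M.side a.F ∧ b = A.arc q a) u v}
  have hO : ∀ v ∈ O, v ∉ A.mx ∧ Df far A τ z x (dz v x false) = Df far A τ z x (dz u x false) := by
    intro v hv
    induction hv with
    | refl => exact ⟨hu, rfl⟩
    | @tail a c _ h ih =>
      obtain ⟨q, hqA, hq, rfl⟩ := h
      refine ⟨fun h => ih.1 (mx_back hqA hq h), ?_⟩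
      rw [← ih.2]
      exact (Df_along hR hz (hcz a ih.1) x hqA hq).symm
  have hfr : ∃ v ∈ O, St.Frozen M Act v.F := by
    by_contra hcon
    push Not at hcon
    apply hu
    refine A.sub_mx (G := O) ?_ Relation.ReflTransGen.refl
    intro v hv q hq
    have hqA : q ∈ Act := by
      by_contra hqn
      exact hcon v hv ⟨q, hq, hqn⟩
    exact ⟨hqA, Relation.ReflTransGen.tail hv ⟨q, hqA, hq, rfl⟩⟩
  obtain ⟨v, hv, hvf⟩ := hfr
  have h0 : Df far A τ z x (dz v x false) = 0 := by
    have hat : s.At v.F (v.e x) := v.at_ x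
    have hfarw : v.e x ∈ far (s.lab (v.e x)) := hg.far_frozen hat hvf
    rw [← Df_far0 hg hR hz x _ v.F (v.e x) hat hfarw]
    refine chord_const (g := Df far A τ z x) (Df_fl hR hz x) (F := v.F) (x := x) (a := v.e x)
      ?_ rfl ?_ rfl ?_
    · intro y hy hy2
      apply Df_jump_out hR hz
      intro hyc
      obtain ⟨q, hq, hqn⟩ := hvf
      exact hqn (A.mx_closed _ (cv_sub hz hyc) q (by rw [hy]; exact hq)).1
    · rw [chd_ed hat, lo_eq_of_lt (v.low x)]
    · rw [x_ed hat, v.colr x]
  have h1 : Df far A τ z x (dz u x false) = 0 := by rw [← (hO v hv).2, h0]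
  cases b
  · exact h1
  · rw [Df_jump_out hR hz (hcz u hu), h1]

end

/-- **P3D-D** : inner discs of the closed double curves -/
theorem exists_DD (hg : s.Good Act far) (A : s.Arcs Act) (τ : Bool → ι → s.Dbl → ZMod 2)
    (hR : RefStmt A τ) : ∃ D, DD A τ A.mx far D :=
  ⟨Df far A τ,
    { congr := fun _ hz _ h => Df_congr hz h
      supp := fun _ _ _ _ h => Df_supp h
      fl := fun _ hz x d => Df_fl hR hz x d
      cont := fun _ hz x F F' w h h' => Df_cont hR hz x F F' w h h'
      jump_in := fun _ hz _ hu x => Df_jump_in hR hz hu x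
      jump_out := fun _ hz _ hu x => Df_jump_out hR hz hu x
      along := fun _ hz _ hu x _ hqA hq => Df_along hR hz hu x hqA hq
      tau := fun _ hz _ hu x _ hq => Df_tau hR hz hu x hq
      far0 := fun _ hz x i F w h hw => Df_far0 hg hR hz x i F w h hw
      out := fun _ hz _ hu x b => Df_out hg hR hz hu x b
      lam := fun _ hz _ hz' x _ h h' => Df_lam hg hR hz hz' x h h' }⟩

end Crest.Agent.R096.Sd1_161
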