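import Crest.Agent.R096.St7_147

/-!
# R096 / P3: Sep of the new sheets, `Nms` (File E, last part)
-/

set_option autoImplicit false

namespace Crest.Agent.R096.St_147

open Wk_689

variable {ι Φ W I : Type} {M : MeshC ι Φ W} {col : I → Bool} {s : St M col}
variable {Act : Set ι} {A : s.Arcs Act} {τ : Bool → ι → s.Dbl → ZMod 2} {G : Set s.Dbl}
variable {far : I → Set W} {D : s.Dbl → Bool → Dart s → ZMod 2}

/-- functions on the arcs of the curve of `z₀` with given boundary -/
structure ArcSol (A : s.Arcs Act) (z₀ : s.Dbl) (y : s.Dbl → ZMod 2) (a : ι → s.Dbl → ZMod 2) :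
    Prop where
  off : ∀ q z, q ∉ Act → a q z = 0
  supp : ∀ q z, z ∉ A.cv z₀ → a q z = 0
  inv : ∀ q z, q ∈ Act → q ∈ M.side z.F → a q (A.arc q z) = a q z
  bd : ∀ z q q', M.side z.F = s(q, q') → a q z + a q' z = y z

theorem arcSol_sum (A : s.Arcs Act) {z₀ : s.Dbl} {K : Type} (S : Finset K)
    (y : K → s.Dbl → ZMod 2) (a : K → ι → s.Dbl → ZMod 2) (c : K → ZMod 2)
    (h : ∀ k ∈ S, ArcSol A z₀ (y k) (a k)) :
    ArcSol A z₀ (fun z => ∑ k ∈ S, c k * y k z) (fun q z => ∑ k ∈ S, c k * a k q z) where
  off := fun q z hq => Finset.sum_eq_zero fun k hk => by rw [(h k hk).off q z hq, mul_zero]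
  supp := fun q z hz => Finset.sum_eq_zero fun k hk => by rw [(h k hk).supp q z hz, mul_zero]
  inv := fun q z hq hz => Finset.sum_congr rfl fun k hk => by rw [(h k hk).inv q z hq hz]
  bd := fun z q q' hz => by
    rw [← Finset.sum_add_distrib]
    exact Finset.sum_congr rfl fun k hk => by rw [← mul_add, (h k hk).bd z q q' hz]

open Classical in
theorem arcSol_path (hG : A.Closed G) {z₀ u : s.Dbl} (hz₀ : z₀ ∈ G) (hu : u ∈ A.cv z₀) :
    ∃ a, ArcSol A z₀ (fun z => (if z = z₀ then 1 else 0) + (if z = u then 1 else 0)) a := by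
  induction hu with
  | refl =>
    refine ⟨fun _ _ => 0, fun _ _ _ => rfl, fun _ _ _ => rfl, fun _ _ _ _ => rfl, ?_⟩
    intro z q q' _
    rw [add_zero, add_self2]
  | @tail u v h1 h ih =>
    obtain ⟨q₀, hq₀, rfl⟩ := h
    obtain ⟨a, ha⟩ := ih
    have hu : u ∈ G := cv_sub hG hz₀ h1
    have hA : q₀ ∈ Act := (hG u hu q₀ hq₀).1
    have hne : A.arc q₀ u ≠ u := A.ne hA hq₀
    have hmem := A.mem hA hq₀
    have hinv := A.inv hA hq₀
    refine ⟨fun q z => a q z + if q = q₀ ∧ (z = u ∨ z = A.arc q₀ u) then 1 else 0, ?_, ?_, ?_, ?_⟩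
    · intro q z hq
      rw [ha.off q z hq, if_neg, add_zero]
      rintro ⟨rfl, -⟩
      exact hq hA
    · intro q z hz
      rw [ha.supp q z hz, if_neg, add_zero]
      rintro ⟨rfl, rfl | rfl⟩
      · exact hz h1
      · exact hz (cv_trans h1 (cv_arc hq₀))
    · intro q z hq hz
      rw [ha.inv q z hq hz]
      congr 1
      apply if_congr _ rfl rfl
      constructor
      · rintro ⟨rfl, h⟩
        refine ⟨rfl, ?_⟩
        rcases h with h | h
        · right; rw [← h, A.inv hq hz]
        · left
          have := congrArg (A.arc q) h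
          rwa [A.inv hq hz, hinv] at this
      · rintro ⟨rfl, rfl | rfl⟩
        · exact ⟨rfl, Or.inr rfl⟩
        · exact ⟨rfl, Or.inl hinv⟩
    · intro z q q' hz
      have h3 := ha.bd z q q' hz
      have hqq : q ≠ q' := by
        intro h
        have := M.side_nd z.F
        rw [hz, h] at this
        simp at this
      have h4 : ((if q = q₀ ∧ (z = u ∨ z = A.arc q₀ u) then (1 : ZMod 2) else 0) +
          if q' = q₀ ∧ (z = u ∨ z = A.arc q₀ u) then 1 else 0) =
          (if z = u then 1 else 0) + (if z = A.arc q₀ u then 1 else 0) := by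
        have h5 : z = u ∨ z = A.arc q₀ u → q₀ ∈ M.side z.F := by
          rintro (rfl | rfl)
          · exact hq₀
          · exact hmem
        by_cases hz1 : z = u
        · subst hz1
          rw [hz, Sym2.mem_iff] at hq₀
          rcases hq₀ with h | h
          · subst h
            simp [hqq.symm, hne.symm]
          · subst h
            simp [hqq, hne.symm]
        · by_cases hz2 : z = A.arc q₀ u
          · have h6 := h5 (Or.inr hz2)
            rw [hz, Sym2.mem_iff] at h6
            rcases h6 with h | h
            · subst h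
              simp [hqq.symm, hz2, hne]
            · subst h
              simp [hqq, hz2, hne]
          · simp [hz1, hz2]
      have h5 := add_self2 (if z = u then (1 : ZMod 2) else 0)
      linear_combination h3 + h4 + h5

open Classical in
theorem arcSol (hG : A.Closed G) {z₀ : s.Dbl} (hz₀ : z₀ ∈ G) (y : s.Dbl → ZMod 2)
    (hy : ∑ z : s.Dbl, (if z ∈ A.cv z₀ then y z else 0) = 0) :
    ∃ a, ArcSol A z₀ (fun z => if z ∈ A.cv z₀ then y z else 0) a := by
  have h : ∀ u : {u // u ∈ A.cv z₀}, ∃ a,
      ArcSol A z₀ (fun z => (if z = z₀ then 1 else 0) + (if z = u.1 then 1 else 0)) a :=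
    fun u => arcSol_path hG hz₀ u.2
  choose a ha using h
  have := arcSol_sum A Finset.univ
    (fun (u : {u // u ∈ A.cv z₀}) z => (if z = z₀ then (1 : ZMod 2) else 0) +
      (if z = u.1 then 1 else 0)) a (fun u => y u.1) (fun u _ => ha u)
  refine ⟨_, this.off, this.supp, this.inv, ?_⟩
  intro z q q' hz
  rw [this.bd z q q' hz]
  simp only [mul_add, mul_ite, mul_one, mul_zero]
  rw [Finset.sum_add_distrib]
  have e1 : ∑ u : {u // u ∈ A.cv z₀}, (if z = z₀ then y u.1 else 0) = 0 := by
    by_cases h : z = z₀
    · simp only [if_pos h]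
      rw [← hy, ← Finset.sum_filter]
      symm
      apply Finset.sum_subtype
      intro u
      simp
    · simp only [if_neg h]
      exact Finset.sum_const_zero
  rw [e1, zero_add]
  split_ifs with h
  · rw [Finset.sum_eq_single_of_mem (⟨z, h⟩ : {u // u ∈ A.cv z₀}) (Finset.mem_univ _)]
    · simp
    · intro b _ hb
      rw [if_neg]
      intro h'
      exact hb (Subtype.ext h'.symm)
  · apply Finset.sum_eq_zero
    intro b _
    rw [if_neg]
    intro h'
    exact h (h' ▸ b.2)

/-- canonical point of the curve of `z` -/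
noncomputable def rpt (A : s.Arcs Act) (z : s.Dbl) : s.Dbl :=
  (show (A.cv z).Nonempty from ⟨z, cv_refl A z⟩).some

theorem rpt_mem (A : s.Arcs Act) (z : s.Dbl) : rpt A z ∈ A.cv z :=
  (show (A.cv z).Nonempty from ⟨z, cv_refl A z⟩).some_mem

theorem rpt_eq (hG : A.Closed G) {z u : s.Dbl} (hz : z ∈ G) (hu : u ∈ A.cv z) :
    rpt A u = rpt A z := by
  unfold rpt
  have h := cv_eq hG hz hu
  congr 1

/-- the constants `e` along the chains -/
inductive Ev (G : Set s.Dbl) (D : s.Dbl → Bool → Dart s → ZMod 2) (k : Bool → s.Dbl → ZMod 2) :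
    Dart s → ZMod 2 → Prop
  | root (d : Dart s) (h : ∀ z ∈ G, D z d.x d = 0) : Ev G D k d 0
  | step (d : Dart s) (z : s.Dbl) (v : ZMod 2) (h : Inm G D z d)
      (h' : Ev G D k (outD (innD D) z (!d.x)) v) : Ev G D k d (v + k d.x z)

variable {k : Bool → s.Dbl → ZMod 2}

theorem Ev.congr {d d' : Dart s} {v : ZMod 2} (h : Ev G D k d v) (hr : Reg G D d d') :
    Ev G D k d' v := by
  cases h with
  | root _ h => exact Ev.root d' (fun z hz => by rw [hr.hx, hr.hD z hz]; exact h z hz)
  | step _ z v h h' =>
    rw [← hr.hx]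
    exact Ev.step d' z v (h.congr hr) (by rw [hr.hx]; exact h')

theorem Ev.unique (hD : DD A τ G far D) (hG : A.Closed G)
    (hk : ∀ z ∈ G, ∀ u ∈ A.cv z, ∀ x, k x u = k x z) {d : Dart s} {v v' : ZMod 2}
    (h : Ev G D k d v) (h' : Ev G D k d v') : v = v' := by
  induction h generalizing v' with
  | root d h =>
    cases h' with
    | root _ _ => rfl
    | step _ z _ h1 h2 =>
      exfalso
      have := h z h1.mem
      rw [h1.val] at this
      exact one_ne_zero this
  | step d z v h h1 ih =>
    cases h' with
    | root _ h2 =>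
      exfalso
      have := h2 z h.mem
      rw [h.val] at this
      exact one_ne_zero this
    | step _ z' v' h2 h3 =>
      have h4 := h2.cv hD h
      rw [ih (h3.congr (reg_out hD hG h2.mem h4 _)), hk z' h2.mem z h4]

theorem Ev.exists {d : Dart s} {i : I} {n : ℕ} (h : Nm G D d i n) : ∃ v, Ev G D k d v := by
  induction h with
  | root d h => exact ⟨0, Ev.root d h⟩
  | step d z i n h _ ih =>
    obtain ⟨v, hv⟩ := ih
    exact ⟨_, Ev.step d z v h hv⟩

open Classical in
noncomputable def chO (P : ZMod 2 → Prop) : ZMod 2 := if h : ∃ v, P v then h.choose else 0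

noncomputable def evf (G : Set s.Dbl) (D : s.Dbl → Bool → Dart s → ZMod 2)
    (k : Bool → s.Dbl → ZMod 2) (d : Dart s) : ZMod 2 := chO (Ev G D k d)

theorem evf_eq (hD : DD A τ G far D) (hG : A.Closed G)
    (hk : ∀ z ∈ G, ∀ u ∈ A.cv z, ∀ x, k x u = k x z) {d : Dart s} {v : ZMod 2}
    (h : Ev G D k d v) : evf G D k d = v := by
  unfold evf chO
  have h1 : ∃ v, Ev G D k d v := ⟨v, h⟩
  rw [dif_pos h1]
  exact h1.choose_spec.unique hD hG hk h

theorem evf_reg {d d' : Dart s} (h : Reg G D d d') : evf G D k d = evf G D k d' := by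
  unfold evf
  congr 1
  funext v
  exact propext ⟨fun h' => h'.congr h, fun h' => h'.congr h.symm⟩

theorem evf_in (hD : DD A τ G far D) (hG : A.Closed G)
    (hk : ∀ z ∈ G, ∀ u ∈ A.cv z, ∀ x, k x u = k x z) {z : s.Dbl} (hz : z ∈ G) (x : Bool)
    (halive : nmf G D (outD (innD D) z (!x)) ≠ none) :
    evf G D k (inD (innD D) z x) = evf G D k (outD (innD D) z (!x)) + k x z := by
  rcases h : nmf G D (outD (innD D) z (!x)) with _ | i
  · exact absurd h halive
  · obtain ⟨n, hn⟩ := (nmf_some hD hG).1 h
    obtain ⟨v, hv⟩ := Ev.exists (k := k) hn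
    rw [evf_eq hD hG hk hv]
    apply evf_eq hD hG hk
    have h2 := Ev.step (k := k) (inD (innD D) z x) z v (inm_in hD hz x) (by rw [inD_x]; exact hv)
    rwa [inD_x] at h2

/-- **the names of the new sheets and their Sep** -/
theorem exists_nms (hD : DD A τ G far D) (hG : A.Closed G) (hR : RefStmt A τ)
    (hfar : ∀ i w, w ∈ far i → s.lab w = i) : Nms s G far (innD D) (nmf G D) where
  fl := fun d => (nmf_reg hD hG (reg_flip hD d)).symm
  tt := nmf_tt hD hG
  cont := fun F F' w h h' => nmf_reg hD hG (reg_ed hD h h')
  out := fun z hz x b => by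
    rw [nmf_some hD hG]
    refine ⟨0, ?_⟩
    have := Nm.root (G := G) (D := D) (dz z x b) (fun z' hz' => by
      rw [dz_x]; exact hD.out z' hz' z hz _ b)
    rwa [lab_dz] at this
  far := fun i F w h hw => by
    rw [nmf_some hD hG]
    refine ⟨0, ?_⟩
    have := Nm.root (G := G) (D := D) (ed h) (fun z' hz' => hD.far0 z' hz' _ i F w h hw)
    rwa [pt_ed, hfar i w hw] at this
  sep := by
    classical
    intro t ht htt hsup
    -- the solutions on the curves
    have hsol : ∀ (x : Bool) (z₀ : s.Dbl), ∃ a, z₀ ∈ G →
        ArcSol A z₀ (fun z => if z ∈ A.cv z₀ then t (inD (innD D) z x) else 0) a := by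
      intro x z₀
      by_cases hz₀ : z₀ ∈ G
      · obtain ⟨a, ha⟩ := arcSol hG hz₀ (fun z => t (inD (innD D) z x))
          (parity hD hG ht htt hsup hz₀ x)
        exact ⟨a, fun _ => ha⟩
      · exact ⟨fun _ _ => 0, fun h => absurd h hz₀⟩
    choose sol hsol using hsol
    set α : Bool → ι → s.Dbl → ZMod 2 := fun x q z => sol x (rpt A z) q z with hα
    have hrG : ∀ z ∈ G, rpt A z ∈ G := fun z hz => cv_sub hG hz (rpt_mem A z)
    have hα_off : ∀ x q z, z ∈ G → q ∉ Act → α x q z = 0 := fun x q z hz hq =>
      (hsol x _ (hrG z hz)).off q z hq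
    have hα_inv : ∀ x q z, z ∈ G → q ∈ Act → q ∈ M.side z.F →
        α x q (A.arc q z) = α x q z := by
      intro x q z hz hq hqz
      simp only [hα]
      rw [rpt_eq hG hz (cv_arc hqz)]
      exact (hsol x _ (hrG z hz)).inv q z hq hqz
    have hα_bd : ∀ x z q q', z ∈ G → M.side z.F = s(q, q') →
        α x q z + α x q' z = t (inD (innD D) z x) := by
      intro x z q q' hz hqq
      have := (hsol x _ (hrG z hz)).bd z q q' hqq
      rw [if_pos (cv_symm hG hz (rpt_mem A z))] at this
      exact this
    have htin : ∀ z ∈ G, ∀ x, t (outD (innD D) z x) = t (inD (innD D) z (!x)) := by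
      intro z hz x
      have := htt (outD (innD D) z x)
      rw [tt_outD hz] at this
      exact this.symm
    set a : Bool → ι → s.Dbl → ZMod 2 := fun x q z =>
      if z ∈ G then α x q z + α (!x) q z else 0 with ha
    obtain ⟨c, hc⟩ := hR t a ht
      { off := fun x q z hq => by
          simp only [ha]
          split_ifs with hz
          · rw [hα_off _ _ _ hz hq, hα_off _ _ _ hz hq, add_zero]
          · rfl
        inv := fun x q z hq hqz => by
          simp only [ha]
          by_cases hz : z ∈ G
          · rw [if_pos hz, if_pos (hG z hz q hqz).2, hα_inv _ _ _ hz hq hqz,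
              hα_inv _ _ _ hz hq hqz]
          · rw [if_neg hz, if_neg (arc_notin hG hz hq hqz)] }
      (by
        intro x z q q' hqq
        simp only [ha]
        by_cases hz : z ∈ G
        · rw [if_pos hz, if_pos hz, sum_dz (innD D), htin z hz, ← hα_bd x z q q' hz hqq,
            ← hα_bd (!x) z q q' hz hqq]
          ring
        · rw [if_neg hz, if_neg hz, add_zero]
          apply add_of_eq2
          have := htt (dz z x true)
          rw [tt_dz_out hz] at this
          exact this.symm)
    -- values of `c` at inner and outer darts along the arcs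
    have hin_val : ∀ q x z, z ∈ G → q ∈ M.side z.F →
        c q (inD (innD D) z x) = c q (dz z x false) + (1 + D z x (dz z x false)) * a x q z := by
      intro q x z hz hqz
      have hj := hc.jump q x z hqz
      unfold inD innD
      by_cases h : D z x (dz z x false) = 1
      · simp only [h, decide_true, Bool.not_true]
        have : (1 : ZMod 2) + 1 = 0 := by decide
        rw [this, zero_mul, add_zero]
      · rw [z2_ne h, add_zero, one_mul]
        simp only [zero_ne_one, decide_false, Bool.not_false]
        rw [← hj]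
        have := add_self2 (c q (dz z x false))
        linear_combination -this
    have hout_val : ∀ q x z, z ∈ G → q ∈ M.side z.F →
        c q (outD (innD D) z x) = c q (inD (innD D) z x) + a x q z := by
      intro q x z hz hqz
      have hj := hc.jump q x z hqz
      rw [sum_dz (innD D)] at hj
      rw [← hj]
      have := add_self2 (c q (inD (innD D) z x))
      linear_combination -this
    have hin_arc : ∀ q x z, z ∈ G → q ∈ M.side z.F →
        c q (inD (innD D) (A.arc q z) x) = c q (inD (innD D) z x) := by
      intro q x z hz hqz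
      obtain ⟨hA, hz'⟩ := hG z hz q hqz
      have hqz' := A.mem hA hqz
      rw [hin_val q x z hz hqz, hin_val q x _ hz' hqz']
      have h1 := hc.arc q x z hA hqz
      have h2 := hD.tau z hz z (cv_refl A z) x q hqz
      have h3 : a x q (A.arc q z) = a x q z := by
        simp only [ha]
        rw [if_pos hz, if_pos hz', hα_inv _ _ _ hz hA hqz, hα_inv _ _ _ hz hA hqz]
      have h4 : D (A.arc q z) = D z := hD.congr z hz _ (cv_arc hqz)
      rw [h3, h4]
      have e1 := add_self2 (a x q z * τ x q z)
      have e2 := add_self2 (c q (dz z x false))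
      have e3 := add_self2 (a x q z * D z x (dz z x false))
      linear_combination h1 + a x q z * h2 + e1 - e2 - e3
    have hout_arc : ∀ q x z, z ∈ G → q ∈ M.side z.F →
        c q (outD (innD D) (A.arc q z) x) = c q (outD (innD D) z x) := by
      intro q x z hz hqz
      obtain ⟨hA, hz'⟩ := hG z hz q hqz
      have hqz' := A.mem hA hqz
      have h3 : a x q (A.arc q z) = a x q z := by
        simp only [ha]
        rw [if_pos hz, if_pos hz', hα_inv _ _ _ hz hA hqz, hα_inv _ _ _ hz hA hqz]
      rw [hout_val q x z hz hqz, hout_val q x _ hz' hqz', hin_arc q x z hz hqz, h3]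
    -- the constants
    have hfc : ∀ z x b, fc (dz (s := s) z x b) = z.F := fc_dz
    have hK1 : ∀ x z q q', z ∈ G → q ∈ M.side z.F → q' ∈ M.side z.F →
        c q (inD (innD D) z x) + c q (outD (innD D) z (!x)) =
        c q' (inD (innD D) z x) + c q' (outD (innD D) z (!x)) := by
      intro x z q q' hz hq hq'
      by_cases hqq : q = q'
      · rw [hqq]
      · have hs : M.side z.F = s(q, q') := (Sym2.mem_and_mem_iff hqq).1 ⟨hq, hq'⟩
        have e1 := hc.bd (inD (innD D) z x) q q' (by unfold inD; rw [hfc]; exact hs)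
        have e2 := hc.bd (outD (innD D) z (!x)) q q' (by unfold outD; rw [hfc]; exact hs)
        have e3 := htin z hz (!x)
        rw [Bool.not_not] at e3
        rw [e3] at e2
        have e4 := add_self2 (c q (outD (innD D) z (!x)))
        have e5 := add_self2 (c q' (inD (innD D) z x))
        linear_combination e2 - e1 + e4 - e5
    have hside : ∀ z : s.Dbl, ∃ q, q ∈ M.side z.F := by
      intro z
      rcases h : M.side z.F with ⟨q, q'⟩
      exact ⟨q, Sym2.mem_mk_left q q'⟩
    choose sd hsd using hside
    set k : Bool → s.Dbl → ZMod 2 := fun x z =>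
      c (sd z) (inD (innD D) z x) + c (sd z) (outD (innD D) z (!x)) with hk
    have hkq : ∀ x z q, z ∈ G → q ∈ M.side z.F →
        k x z = c q (inD (innD D) z x) + c q (outD (innD D) z (!x)) :=
      fun x z q hz hq => hK1 x z _ _ hz (hsd z) hq
    have hkc : ∀ z ∈ G, ∀ u ∈ A.cv z, ∀ x, k x u = k x z := by
      intro z hz u hu x
      induction hu with
      | refl => rfl
      | @tail u v h1 h ih =>
        obtain ⟨q, hq, rfl⟩ := h
        have hu : u ∈ G := cv_sub hG hz h1
        obtain ⟨hA, hu'⟩ := hG u hu q hq
        rw [← ih, hkq x u q hu hq, hkq x _ q hu' (A.mem hA hq), hin_arc q x u hu hq,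
          hout_arc q _ u hu hq]
    refine ⟨fun q d => c q d + evf G D k d, ?_, ?_, ?_, ?_⟩
    · intro q d
      simp only
      rw [hc.fl, evf_reg (reg_flip hD d)]
    · intro q d hal hq
      simp only
      rcases hn : node d with _ | z
      · rw [tt_none hn]
      · have hd := eq_dz hn
        have hqz : q ∈ M.side z.F := by rw [hd, hfc] at hq; exact hq
        rw [hd] at hal ⊢
        by_cases hz : z ∈ G
        · rcases dz_cases (innD D) z d.x d.b with h | h
          · rw [h] at hal ⊢
            rw [tt_inD hz]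
            have hal' : nmf G D (outD (innD D) z (!d.x)) ≠ none := by
              rw [← nmf_in hD hG hz]; exact hal
            rw [evf_in hD hG hkc hz d.x hal', hkq d.x z q hz hqz]
            have e1 := add_self2 (c q (inD (innD D) z d.x))
            linear_combination -e1
          · rw [h] at hal ⊢
            rw [tt_outD hz]
            have hal' : nmf G D (outD (innD D) z (!!d.x)) ≠ none := by
              rw [Bool.not_not]; exact hal
            rw [evf_in hD hG hkc hz (!d.x) hal', hkq (!d.x) z q hz hqz, Bool.not_not]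
            have e1 := add_self2 (c q (inD (innD D) z (!d.x)))
            linear_combination e1
        · rw [tt_dz_out hz, evf_reg (reg_dz hD hG hz d.x d.b (!d.b))]
          congr 1
          have hj := hc.jump q d.x z hqz
          simp only [ha] at hj
          rw [if_neg hz] at hj
          have hj' := eq_of_add2 hj
          cases d.b
          · exact hj'
          · exact hj'.symm
    · intro q F F' w h h' hF hF'
      simp only
      rw [hc.cont q F F' w h h' hF hF', evf_reg (reg_ed hD h h')]
    · intro d q q' hd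
      simp only
      rw [hc.bd d q q' hd]
      have := add_self2 (evf G D k d)
      linear_combination -this

end Crest.Agent.R096.St_147
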