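import Crest.Agent.R096.F1_422
import Crest.Agent.R096.St8_147
import Crest.Agent.R096.Sd2_161

/-!
# R096 / P3: assembly: `StepStmt` and `P3` (proofs by 147, 161, 689, 422)
-/

set_option autoImplicit false

namespace Crest.Agent.R096.F_422

open Crest.Agent.R096.St_147 Crest.Agent.R096.Wk_689

theorem stepStmt : StepStmt := by
  intro ι Φ W I M col Act _ s far hg A G hG hne
  have hR := refStmt A (fun i => B_422.sep_of_h1 s i (hg.h1 i))
  obtain ⟨D, hD⟩ := Sd1_161.exists_DD hg A _ hR
  exact new_state A.mx_closed (hne.mono (A.sub_mx hG)) hg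
    (exists_nms hD A.mx_closed hR (fun _ _ h => (hg.far_mem h).2))

/-- **P3** -/
theorem p3 : P3 := P3_of_step stepStmt

end Crest.Agent.R096.F_422
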