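import Crest.Agent.R096.Cp10_298
import Crest.Agent.R096.Ori3_543
import Crest.Agent.R096.F2_422

/-!
# R096 / COPY, part 11 (helper298): the weighted sequence for the mesh of a tiling, `wseqM`

`exists_par0` = 543's `exists_par` with `c w 0 = w`.
-/

set_option autoImplicit false

open Set Filter Topology Metric

namespace Crest.Agent.R096.Cp_298
open Crest.Agent.R096.Msh_715 Crest.Agent.R096.Agl5_543 Crest.Agent.R096.St_147
  Crest.Agent.R096.Agl1_543 Crest.Agent.R096.Agl2_543 Crest.Agent.R096.Agl3_543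
  Crest.Agent.R096.Ori_543 Crest.Agent.R096.Seq_213 Crest.Agent.R096.Seq_213.GSt
open scoped ENNReal

variable {E : Type} [NormedAddCommGroup E] [NormedSpace ℝ E] [FiniteDimensional ℝ E]
variable {Om : Set E} {ι : Type} {T : Tiling Om ι}

/-- **parallel points exist**, with `c w 0 = w` (proof of 543's `exists_par`) -/
theorem exists_par0 (h3 : Module.finrank ℝ E = 3) {P : Set E}
    (hP : ∀ F : C2 T, (P ∩ F.On).Finite) (hP1 : ∀ w ∈ P, w ∈ Om ∧ T.dim w = 1) (n : E → ℕ)
    (δ : E → ℝ) (hδ : ∀ w, 0 < δ w) :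
    ∃ π : Par (meshC T h3) (oriM h3) P n (Near T δ), ∀ w, π.c w 0 = w := by
  classical
  have hex : ∀ w, ∃ τ : ℝ, w ∈ P → 0 < τ ∧ (∀ v ∈ T.V w, ‖v‖ < τ → w + v ∈ T.oc w) ∧ τ ≤ δ w ∧
      ∀ w' ∈ P, w' ∈ T.oc w → w' ≠ w → τ ≤ dist w w' / 2 := by
    intro w
    by_cases h : w ∈ P
    · obtain ⟨τ, h1, h2⟩ := exists_rad h3 hP hδ (hP1 w h).1 (hP1 w h).2
      exact ⟨τ, fun _ => ⟨h1, h2⟩⟩
    · exact ⟨0, fun h' => absurd h' h⟩
  choose τ hτ using hex
  let t : E → ℝ := fun w => τ w / ((n w + 1) * ‖dv T w‖)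
  let c : E → ℕ → E := fun w k => w + ((k : ℝ) * t w) • dv T w
  have hn : ∀ {w}, w ∈ P → 0 < ‖dv T w‖ := fun {w} h =>
    norm_pos_iff.2 (dv_ne (hP1 w h).1 (hP1 w h).2)
  have ht : ∀ {w}, w ∈ P → 0 < t w := fun {w} h => div_pos (hτ w h).1 (mul_pos (by positivity) (hn h))
  have hlen : ∀ {w k}, w ∈ P → k < n w → (k : ℝ) * t w * ‖dv T w‖ < τ w := by
    intro w k h hk
    have h1 := hn h
    have h2 := (hτ w h).1
    have e : (k : ℝ) * t w * ‖dv T w‖ = (k : ℝ) * τ w / (n w + 1) := by
      show (k : ℝ) * (τ w / ((n w + 1) * ‖dv T w‖)) * ‖dv T w‖ = _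
      field_simp
    rw [e, div_lt_iff₀ (by positivity)]
    have h4 : (k : ℝ) < n w + 1 := by
      have : (k : ℝ) < n w := by exact_mod_cast hk
      linarith
    nlinarith
  have hnorm : ∀ {w k}, w ∈ P → k < n w → ‖((k : ℝ) * t w) • dv T w‖ < τ w := by
    intro w k h hk
    rw [norm_smul, Real.norm_of_nonneg (mul_nonneg (Nat.cast_nonneg _) (ht h).le)]
    exact hlen h hk
  have hoc : ∀ {w k}, w ∈ P → k < n w → c w k ∈ T.oc w := by
    intro w k h hk
    exact (hτ w h).2.1 _ ((T.V w).smul_mem _ (dv_mem (hP1 w h).1 (hP1 w h).2)) (hnorm h hk)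
  have hdist : ∀ {w k}, w ∈ P → k < n w → dist (c w k) w < τ w := by
    intro w k h hk
    show dist (w + ((k : ℝ) * t w) • dv T w) w < τ w
    rw [dist_eq_norm, add_sub_cancel_left]
    exact hnorm h hk
  -- points in the same edge
  have hline : ∀ {w w'}, w ∈ P → w' ∈ P → w' ∈ T.oc w → ∃ s : ℝ, w' = w + s • dv T w ∧
      dist w w' = |s| * ‖dv T w‖ := by
    intro w w' h h' hw'
    have h1 := ed1_mem (hP1 w h).1 (hP1 w h).2
    obtain ⟨s, hs⟩ := mem_V_line (hP1 w h).2 h1.1 h1.2 (ed1_spec (hP1 w h).1 (hP1 w h).2).1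
      (T.sub_mem_V' (T.oc_sub_cc w hw') (T.self_mem_cc w))
    have e : w' = w + s • dv T w := by
      rw [show s • dv T w = w' - w from hs.symm]; abel
    refine ⟨s, e, ?_⟩
    rw [dist_comm, dist_eq_norm, hs, norm_smul, Real.norm_eq_abs]
    rfl
  refine ⟨{ c := c
            on := ?_
            inj := ?_
            sep := ?_
            up := ?_
            down := ?_
            dir := ?_
            rel := ?_ }, fun w => ?_⟩
  · intro w k F hw hk
    exact on_iff_oc (hP1 w hw).1 (hoc hw hk)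
  · intro w w' k k' hw hw' hk hk' he
    have hO := (hP1 w hw).1
    have hO' := (hP1 w' hw').1
    by_cases hww : w = w'
    · subst hww
      refine ⟨rfl, ?_⟩
      have h1 : ((k : ℝ) * t w) • dv T w = ((k' : ℝ) * t w) • dv T w := add_left_cancel he
      have h2 := smul_left_injective ℝ (norm_pos_iff.1 (hn hw)) h1
      have h4 : (k : ℝ) = k' := mul_right_cancel₀ (ht hw).ne' h2
      exact_mod_cast h4
    · exfalso
      have h1 := hoc hw hk
      have h2 := hoc hw' hk'
      rw [he] at h1
      have h4 : T.oc w = T.oc w' := by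
        rcases T.oc_disjoint_or_eq hO hO' with h | h
        · exact absurd h2 (disjoint_left.1 h h1)
        · exact h
      have h5 : w' ∈ T.oc w := by rw [h4]; exact T.self_mem_oc w'
      have h6 : w ∈ T.oc w' := by rw [← h4]; exact T.self_mem_oc w
      have h7 := (hτ w hw).2.2.2 w' hw' h5 (Ne.symm hww)
      have h8 := (hτ w' hw').2.2.2 w hw h6 hww
      have h9 := hdist hw hk
      have h10 := hdist hw' hk'
      rw [he] at h9
      have h11 := dist_triangle w (c w' k') w'
      rw [dist_comm w (c w' k')] at h11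
      rw [dist_comm w' w] at h8
      linarith
  · intro F w w' k k' hw hw' hk hk' hF hF' hlt
    have hO := (hP1 w hw).1
    have hO' := (hP1 w' hw').1
    by_cases hoo : T.oc w = T.oc w'
    · have h5 : w' ∈ T.oc w := by rw [hoo]; exact T.self_mem_oc w'
      have h6 : w ∈ T.oc w' := by rw [← hoo]; exact T.self_mem_oc w
      have hww : w ≠ w' := by
        rintro rfl
        exact lt_irrefl _ hlt
      obtain ⟨s, hs, hds⟩ := hline hw hw' h5
      have hdv : dv T w' = dv T w := dv_oc hO h5
      have h7 := (hτ w hw).2.2.2 w' hw' h5 (Ne.symm hww)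
      have h8 := (hτ w' hw').2.2.2 w hw h6 hww
      rw [dist_comm w' w] at h8
      rw [hds] at h7 h8
      have h9 := hlen hw hk
      have h10 := hlen hw' hk'
      rw [hdv] at h10
      have hnp := hn hw
      set a := (k : ℝ) * t w with ha
      set b := (k' : ℝ) * t w' with hb
      have ha0 : 0 ≤ a := mul_nonneg (Nat.cast_nonneg _) (ht hw).le
      have hb0 : 0 ≤ b := mul_nonneg (Nat.cast_nonneg _) (ht hw').le
      have ha1 : a < |s| / 2 := by
        by_contra hcon
        push Not at hcon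
        have := mul_le_mul_of_nonneg_right hcon hnp.le
        linarith
      have hb1 : b < |s| / 2 := by
        by_contra hcon
        push Not at hcon
        have := mul_le_mul_of_nonneg_right hcon hnp.le
        linarith
      have e1 : c w k = w + a • dv T w := rfl
      have e2 : c w' k' = w + (s + b) • dv T w := by
        show w' + b • dv T w' = _
        rw [hdv]
        nth_rewrite 1 [hs]
        module
      have m1 : w + a • dv T w ∈ T.oc w := by rw [← e1]; exact hoc hw hk
      have m2 : w + (s + b) • dv T w ∈ T.oc w := by rw [← e2, hoo]; exact hoc hw' hk'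
      have m0 : w + (0 : ℝ) • dv T w ∈ T.oc w := by
        rw [zero_smul, add_zero]; exact T.self_mem_oc w
      have ms : w + s • dv T w ∈ T.oc w := by rw [← hs]; exact h5
      have hs0 : s ≠ 0 := by
        rintro rfl
        rw [zero_smul, add_zero] at hs
        exact hww hs.symm
      have hlt' : F.pos (w + (0 : ℝ) • dv T w) < F.pos (w + s • dv T w) := by
        rw [zero_smul, add_zero, ← hs]; exact hlt
      show F.pos (c w k) < F.pos (c w' k')
      rw [e1, e2]
      rcases Cp_298.z2_cases (dirZ F w) with hz | hz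
      · have hs1 : 0 < s := by
          by_contra hcon
          push Not at hcon
          have h11 := (pos_line hF (lt_of_le_of_ne hcon hs0) ms m0).1 hz
          exact lt_asymm h11 hlt'
        rw [abs_of_pos hs1] at ha1 hb1
        exact (pos_line hF (by linarith) m1 m2).1 hz
      · have hs1 : s < 0 := by
          by_contra hcon
          push Not at hcon
          have h11 := (pos_line hF (lt_of_le_of_ne hcon hs0.symm) m0 ms).2 hz
          exact lt_asymm h11 hlt'
        rw [abs_of_neg hs1] at ha1 hb1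
        exact (pos_line hF (by linarith) m2 m1).2 hz
    · exact pos_sep hF hF' hoo hlt (hoc hw hk) (hoc hw' hk')
  · intro F w k k' hw hkk hk' hF hz
    have hlt : (k : ℝ) * t w < (k' : ℝ) * t w :=
      mul_lt_mul_of_pos_right (by exact_mod_cast hkk) (ht hw)
    exact (pos_line hF hlt (hoc hw (hkk.trans hk')) (hoc hw hk')).1 hz
  · intro F w k k' hw hkk hk' hF hz
    have hlt : (k : ℝ) * t w < (k' : ℝ) * t w :=
      mul_lt_mul_of_pos_right (by exact_mod_cast hkk) (ht hw)
    exact (pos_line hF hlt (hoc hw (hkk.trans hk')) (hoc hw hk')).2 hz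
  · intro F w k hw hk hF
    exact dirZ_oc (hP1 w hw).1 (hoc hw hk)
  · intro w k hw hk
    exact ⟨hoc hw hk, (hdist hw hk).trans_le (hτ w hw).2.2.1⟩
  · show w + (((0 : ℕ) : ℝ) * t w) • dv T w = w
    rw [Nat.cast_zero, zero_mul, zero_smul, add_zero]

/-- the points in the open edges of the mesh -/
def VM (T : Tiling Om ι) : Set E := {w | w ∈ Om ∧ T.dim w = 1}

/-- "`x` is on the open mesh edge of `w`" -/
def RelM (T : Tiling Om ι) (x w : E) : Prop := x = w ∨ (w ∈ VM T ∧ x ∈ T.oc w)

theorem RelM.refl (x : E) : RelM T x x := Or.inl rfl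

theorem RelM.mem {x y : E} (h : RelM T x y) (hy : y ∈ VM T) : x ∈ VM T := by
  rcases h with rfl | ⟨-, h⟩
  · exact hy
  · exact ⟨T.cc_sub_Om hy.1 (T.oc_sub_cc y h), by rw [T.dim_eq_of_mem_oc hy.1 h]; exact hy.2⟩

theorem RelM.trans {x y z : E} (h : RelM T x y) (h' : RelM T y z) : RelM T x z := by
  rcases h with rfl | ⟨hy, h⟩
  · exact h'
  · rcases h' with rfl | ⟨hz, h'⟩
    · exact Or.inr ⟨hy, h⟩
    · exact Or.inr ⟨hz, by rw [← T.oc_eq_of_mem hz.1 h']; exact h⟩

/-- sets which are unions of open edges near the points of open edges are saturated -/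
theorem RelM.oc {x y w : E} (hw : w ∈ VM T) (h : RelM T x y) : x ∈ T.oc w ↔ y ∈ T.oc w := by
  rcases h with rfl | ⟨hy, h⟩
  · exact Iff.rfl
  · constructor
    · intro h1
      have e1 := T.oc_eq_of_mem hw.1 h1
      have e2 := T.oc_eq_of_mem hy.1 h
      rw [← e1, e2]
      exact T.self_mem_oc y
    · intro h1
      rw [← T.oc_eq_of_mem hw.1 h1]
      exact h

theorem hasParM (h3 : Module.finrank ℝ E = 3) :
    WS.HasPar (oriM (T := T) h3) (RelM T) (VM T) := by
  intro P hP hfin n
  obtain ⟨π, h⟩ := exists_par0 h3 (P := P) (T := T) hfin hP n (fun _ => 1) (fun _ => one_pos)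
  exact ⟨{ c := π.c
           on := π.on
           inj := π.inj
           sep := π.sep
           up := π.up
           down := π.down
           dir := π.dir
           rel := fun {w k} hw hk => Or.inr ⟨hP hw, (π.rel hw hk).1⟩ }, fun w _ _ => h w⟩

end Crest.Agent.R096.Cp_298
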