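import Crest.Agent.R096.Cp5_298

/-!
# R096 / COPY, part 6 (helper298): the relation `Cps` between a state and a later state with copies

`p : J1 → J` original sheet, `m : J1 → ℕ` number of the copy, `β x` original crossing point.
-/

set_option autoImplicit false

namespace Crest.Agent.R096.Cp_298
open Crest.Agent.R096.St_147 Crest.Agent.R096.Seq_213 Crest.Agent.R096.Seq_213.GSt

variable {ι Φ W J C K : Type} {M : MeshC ι Φ W} {fam : J → C}
variable {J1 : Type} {fam1 : J1 → C}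

/-- the state `s` is obtained from `s₀` by copies and exchanges -/
structure Cps (O : Ori M) (Q : Quads ι C K) (Rel : W → W → Prop) (s₀ : GSt M fam)
    (far₀ : J → Set W) (σ₀ : W → ZMod 2) (p : J1 → J) (m : J1 → ℕ) (s : GSt M fam1)
    (far : J1 → Set W) (β : W → W) : Prop where
  mem : ∀ {x}, x ∈ s.P → β x ∈ s₀.P
  rel : ∀ {x}, x ∈ s.P → Rel x (β x)
  on : ∀ {x} (F : Φ), x ∈ s.P → (x ∈ M.On F ↔ β x ∈ M.On F)
  dir : ∀ {F x}, s.At F x → O.dir F x = O.dir F (β x)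
  lt : ∀ {F x y}, s.At F x → s.At F y → M.pos F (β x) < M.pos F (β y) → M.pos F x < M.pos F y
  far_mem : ∀ {j x}, x ∈ far j → β x ∈ far₀ (p j)
  far_ex : ∀ {j w}, w ∈ far₀ (p j) → ∃ x ∈ far j, β x = w
  far_uniq : ∀ {j x y}, x ∈ far j → y ∈ far j → β x = β y → x = y
  far_ord : ∀ {j j' x y F}, p j = p j' → m j < m j' → x ∈ far j → y ∈ far j' → β x = β y →
    x ∈ M.On F → (σ₀ (β x) + O.dir F (β x) = 0 → M.pos F x < M.pos F y) ∧
      (σ₀ (β x) + O.dir F (β x) = 1 → M.pos F y < M.pos F x)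
  ok : ∀ {j x F}, x ∈ far j → s₀.At F (β x) → s₀.mu F (β x) ∈ far₀ (p j) →
    s₀.OK Q F (β x) → β (s.mu F x) = s₀.mu F (β x) ∧ s.mu F x ∈ far j ∧ s.OK Q F x
  cross : ∀ {F x y}, s.At F x → s.At F y → fam1 (s.lab x) ≠ fam1 (s.lab y) →
    M.Lace F x (s.mu F x) y (s.mu F y) → ∃ w v, s₀.At F w ∧ s₀.At F v ∧
      s₀.lab w = p (s.lab x) ∧ s₀.lab v = p (s.lab y) ∧ M.Lace F w (s₀.mu F w) v (s₀.mu F v)

section
variable {O : Ori M} {Q : Quads ι C K} {Rel : W → W → Prop} {s₀ : GSt M fam}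
  {far₀ : J → Set W} {σ₀ : W → ZMod 2} {p : J1 → J} {m : J1 → ℕ} {s : GSt M fam1}
  {far : J1 → Set W} {β : W → W}

/-- the beginning -/
theorem Cps.refl (hrel : ∀ x, Rel x x) (hI : s₀.Inv Q far₀) :
    Cps O Q Rel s₀ far₀ σ₀ (id : J → J) (fun _ => 0) s₀ far₀ id where
  mem := fun h => h
  rel := fun _ => hrel _
  on := fun _ _ => Iff.rfl
  dir := fun _ => rfl
  lt := fun _ _ h => h
  far_mem := fun h => h
  far_ex := fun h => ⟨_, h, rfl⟩
  far_uniq := fun _ _ h => h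
  far_ord := fun _ h => absurd h (lt_irrefl _)
  ok := fun _ _ h2 h3 => ⟨rfl, h2, h3⟩
  cross := fun hx hy _ hl => ⟨_, _, hx, hy, rfl, rfl, hl⟩

/-- names of points and of their originals -/
theorem Cps.nm (h : Cps O Q Rel s₀ far₀ σ₀ p m s far β) (hp : ∀ j, fam (p j) = fam1 j)
    (h₀ : s₀.Inv Q far₀) (hI : s.Inv Q far) {x : W} (hx : x ∈ s.P) :
    (x ∈ far (s.lab x) ∧ s₀.lab (β x) = p (s.lab x)) ∨
      ∃ k, Int M (Q.Act k) x ∧ Q.In k (fam1 (s.lab x)) ∧ Q.In k (fam (s₀.lab (β x))) := by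
  rcases hI.loc hx with h1 | ⟨k, h1, h2⟩
  · left
    exact ⟨h1, (h₀.far_mem (h.far_mem h1)).2⟩
  · right
    refine ⟨k, h2, h1, ?_⟩
    obtain ⟨F, hF⟩ := h2.1
    have hF' := (h.on F hx).1 hF
    exact h₀.only ⟨h.mem hx, hF'⟩ (h2.2 F hF)

/-- finitely many points on every face -/
theorem Cps.finite (h : Cps O Q Rel s₀ far₀ σ₀ p m s far β) (hp : ∀ j, fam (p j) = fam1 j)
    (h₀ : s₀.Inv Q far₀) (hI : s.Inv Q far) {F : Φ} (hfin : (s₀.P ∩ M.On F).Finite) :
    (s.P ∩ M.On F).Finite := by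
  classical
  set C0 : Set C := (fun w => fam (s₀.lab w)) '' (s₀.P ∩ M.On F) with hC0
  have hC0f : C0.Finite := hfin.image _
  set C1 : Set C := C0 ∪ ⋃ c ∈ C0, ⋃ k ∈ {k | Q.In k c}, {c' | Q.In k c'} with hC1
  have hIn : ∀ k, {c' | Q.In k c'}.Finite := by
    intro k
    refine (Set.finite_range (Q.pr k)).subset ?_
    rintro c' ⟨b, hb⟩
    exact ⟨b, hb⟩
  have hC1f : C1.Finite := by
    refine hC0f.union (hC0f.biUnion fun c _ => ?_)
    exact (Q.finK c).biUnion fun k _ => hIn k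
  refine (hC1f.biUnion (t := fun c => {x | x ∈ s.P ∧ fam1 (s.lab x) = c})
    fun c _ => s.fin c).subset ?_
  rintro x ⟨hx, hxF⟩
  rw [Set.mem_iUnion₂]
  have hb : β x ∈ s₀.P ∩ M.On F := ⟨h.mem hx, (h.on F hx).1 hxF⟩
  refine ⟨fam1 (s.lab x), ?_, hx, rfl⟩
  rcases h.nm hp h₀ hI hx with ⟨_, h1⟩ | ⟨k, _, h2, h3⟩
  · left
    refine ⟨β x, hb, ?_⟩
    simp only [h1, hp]
  · right
    simp only [Set.mem_iUnion]
    exact ⟨fam (s₀.lab (β x)), ⟨β x, hb, rfl⟩, k, h3, h2⟩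

/-- **the transversal orientation of the later state, equal to the old one at marked points** -/
theorem Cps.exists_sigma (h : Cps O Q Rel s₀ far₀ σ₀ p m s far β)
    (h₀ : s₀.Inv Q far₀) (hσ₀ : TS s₀ O σ₀) (hI : s.Inv Q far) :
    ∃ σ, TS s O σ ∧ ∀ j x, x ∈ far j → σ x = σ₀ (β x) := by
  choose w0 hw0 using hI.far_ne
  obtain ⟨σ, hσ, hv⟩ := exists_ts s O hI.h1 w0 (fun j => σ₀ (β (w0 j)))
    (fun j => (hI.far_mem (hw0 j)).2)
  refine ⟨σ, hσ, fun j x hx => ?_⟩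
  have key := h₀.gc (p j) {w | ∀ x ∈ far j, β x = w → σ x = σ₀ w} ?_ (β (w0 j)) ?_
    (h.far_mem (hw0 j))
  · exact key (h.far_mem hx) x hx rfl
  · intro F w hw hwf hat hmf hok y hy hyw
    obtain ⟨x, hx, rfl⟩ := h.far_ex hwf
    obtain ⟨h1, h2, _⟩ := h.ok hx hat hmf hok
    have hy' : y = s.mu F x := h.far_uniq hy h2 (hyw.trans h1.symm)
    subst hy'
    have hxl := (hI.far_mem hx)
    have hxat : s.At F x := ⟨hxl.1, (h.on F hxl.1).2 hat.2⟩
    have hxm : s.At F (s.mu F x) := s.mu_mem hxat.1 hxat.2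
    have e1 := hσ F x hxat
    have e2 := hσ₀ F (β x) hat
    rw [h.dir hxat, h.dir hxm, h1, hw x hx rfl] at e1
    rw [← e2] at e1
    exact add_left_cancel (add_right_cancel e1)
  · intro y hy hyw
    rw [h.far_uniq hy (hw0 j) hyw]
    exact hv j

end

/-! ### the copy step -/

section copy
variable {O : Ori M} {Q : Quads ι C K} {Rel : W → W → Prop} {s₀ : GSt M fam}
  {far₀ : J → Set W} {σ₀ : W → ZMod 2} {p : J1 → J} {m : J1 → ℕ} {s : GSt M fam1}
  {far : J1 → Set W} {β : W → W} {σ : W → ZMod 2} {r : C → ℕ}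
  {hσ : TS s O σ} {hr : ∀ c, 0 < r c} {π : Par M O s.P (num s r) Rel}

/-- number of a copy of a copy -/
def cpm (m : J1 → ℕ) (r : C → ℕ) (x : Nm' fam1 r) : ℕ := m x.1 * r (fam1 x.1) + x.2

theorem nat_lt {a a' R R' l l' : ℕ} (hR : R = R') (hl' : l' < R')
    (h : a * R + l < a' * R' + l') : a < a' ∨ (a = a' ∧ l < l') := by
  subst hR
  rcases lt_trichotomy a a' with h1 | h1 | h1
  · exact Or.inl h1
  · right
    subst h1
    exact ⟨rfl, by omega⟩
  · exfalso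
    have h3 : a' * R + R ≤ a * R := by
      calc a' * R + R = (a' + 1) * R := by ring
        _ ≤ a * R := Nat.mul_le_mul_right _ h1
    omega

theorem nat_inj {a a' R R' l l' : ℕ} (hR : R = R') (hl : l < R) (hl' : l' < R')
    (h : a * R + l = a' * R' + l') : a = a' ∧ l = l' := by
  subst hR
  have e1 : (a * R + l) / R = a := by
    rw [mul_comm, Nat.mul_add_div (by omega), Nat.div_eq_of_lt hl, add_zero]
  have e2 : (a' * R + l') / R = a' := by
    rw [mul_comm, Nat.mul_add_div (by omega), Nat.div_eq_of_lt hl', add_zero]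
  have h5 : a = a' := by rw [← e1, h, e2]
  subst h5
  exact ⟨rfl, by omega⟩

theorem cpm_lt {m : J1 → ℕ} {r : C → ℕ} {x y : Nm' fam1 r} (hf : fam1 x.1 = fam1 y.1)
    (h : cpm m r x < cpm m r y) : m x.1 < m y.1 ∨ (m x.1 = m y.1 ∧ (x.2 : ℕ) < y.2) :=
  nat_lt (congrArg r hf) y.2.2 h

theorem cpm_inj {m : J1 → ℕ} {r : C → ℕ} {p : J1 → J}
    (hp : ∀ j, fam (p j) = fam1 j)
    (hinj : ∀ j j', p j = p j' → m j = m j' → j = j') {x y : Nm' fam1 r}
    (h1 : p x.1 = p y.1) (h2 : cpm m r x = cpm m r y) : x = y := by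
  have hf : fam1 x.1 = fam1 y.1 := by rw [← hp, ← hp, h1]
  obtain ⟨h5, h6⟩ := nat_inj (congrArg r hf) x.2.2 y.2.2 h2
  exact nm_ext (hinj _ _ h1 h5) h6

/-- **the copy step** -/
theorem Cps.copy (h : Cps O Q Rel s₀ far₀ σ₀ p m s far β) (hp : ∀ j, fam (p j) = fam1 j)
    (hinj : ∀ j j', p j = p j' → m j = m j' → j = j')
    (htr : ∀ x y z, Rel x y → Rel y z → Rel x z) (hI : s.Inv Q far)
    (hs : ∀ j x, x ∈ far j → σ x = σ₀ (β x)) :
    Cps O Q Rel s₀ far₀ σ₀ (fun x : Nm' fam1 r => p x.1) (cpm m r) (cp s σ hσ hr π)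
      (cpFar σ π far) (fun x => β (base σ π x)) where
  mem := by
    intro x hx
    obtain ⟨w, hw, l, hl, rfl⟩ := cp_cases hx
    rw [base_place π hw hl]
    exact h.mem hw
  rel := by
    intro x hx
    obtain ⟨w, hw, l, hl, rfl⟩ := cp_cases hx
    rw [base_place π hw hl]
    exact htr _ _ _ (place_rel π hw hl) (h.rel hw)
  on := by
    intro x F hx
    obtain ⟨w, hw, l, hl, rfl⟩ := cp_cases hx
    rw [base_place π hw hl, place_on π F hw hl]
    exact h.on F hw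
  dir := by
    intro F x hx
    obtain ⟨w, hw, l, hl, rfl⟩ := cp_cases hx.1
    have hat := (cp_at hw hl).1 hx
    rw [base_place π hw hl, place_dir π hw hl hat.2]
    exact h.dir hat
  lt := by
    intro F x y hx hy hlt
    obtain ⟨w, hw, l, hl, rfl⟩ := cp_cases hx.1
    obtain ⟨v, hv, l', hl', rfl⟩ := cp_cases hy.1
    have hat := (cp_at hw hl).1 hx
    have hat' := (cp_at hv hl').1 hy
    rw [base_place π hw hl, base_place π hv hl'] at hlt
    have h1 := h.lt hat hat' hlt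
    exact (place_lt_iff π hat hat' hl hl' (by rintro rfl; exact lt_irrefl _ h1)).2 h1
  far_mem := by
    rintro j x ⟨w, hw, rfl⟩
    obtain ⟨h1, h2⟩ := hI.far_mem hw
    rw [base_place π h1 (num_of_lab h2)]
    exact h.far_mem hw
  far_ex := by
    intro j w hw
    obtain ⟨x, hx, rfl⟩ := h.far_ex hw
    obtain ⟨h1, h2⟩ := hI.far_mem hx
    exact ⟨place σ π x j.2, ⟨x, hx, rfl⟩, by rw [base_place π h1 (num_of_lab h2)]⟩
  far_uniq := by
    rintro j x y ⟨w, hw, rfl⟩ ⟨v, hv, rfl⟩ he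
    obtain ⟨h1, h2⟩ := hI.far_mem hw
    obtain ⟨h3, h4⟩ := hI.far_mem hv
    rw [base_place π h1 (num_of_lab h2), base_place π h3 (num_of_lab h4)] at he
    rw [h.far_uniq hw hv he]
  far_ord := by
    rintro j j' x y F hpj hm ⟨w, hw, rfl⟩ ⟨v, hv, rfl⟩ he hF
    obtain ⟨h1, h2⟩ := hI.far_mem hw
    obtain ⟨h3, h4⟩ := hI.far_mem hv
    have hlw := num_of_lab (r := r) h2
    have hlv := num_of_lab (r := r) h4
    have hwF : w ∈ M.On F := (place_on π F h1 hlw).1 hF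
    have hat : s.At F w := ⟨h1, hwF⟩
    have he' : β w = β v := by
      rw [base_place π h1 hlw, base_place π h3 hlv] at he
      exact he
    have hat' : s.At F v := ⟨h3, (h.on F h3).2 (by rw [← he']; exact (h.on F h1).1 hwF)⟩
    rw [base_place π h1 hlw]
    have hf : fam1 j.1 = fam1 j'.1 := by
      rw [← hp, ← hp]; exact congrArg fam hpj
    rcases cpm_lt hf hm with hlt | ⟨heq, hlt⟩
    · obtain ⟨h5, h6⟩ := h.far_ord hpj hlt hw hv he' hwF
      refine ⟨fun e => ?_, fun e => ?_⟩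
      · have h7 := h5 e
        exact (place_lt_iff π hat hat' hlw hlv (by rintro rfl; exact lt_irrefl _ h7)).2 h7
      · have h7 := h6 e
        exact (place_lt_iff π hat' hat hlv hlw (by rintro rfl; exact lt_irrefl _ h7)).2 h7
    · have hjj : j.1 = j'.1 := hinj _ _ hpj heq
      have hwv : w = v := by
        refine h.far_uniq hw ?_ he'
        rw [hjj]; exact hv
      subst hwv
      have hlv' : (j'.2 : ℕ) < num s r w := hlv
      refine ⟨fun e => ?_, fun e => ?_⟩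
      · refine place_up π hat hlt hlv' ?_
        rw [hs _ _ hw, h.dir hat]; exact e
      · refine place_down π hat hlt hlv' ?_
        rw [hs _ _ hw, h.dir hat]; exact e
  ok := by
    rintro j x F ⟨w, hw, rfl⟩ hat hmf hok
    obtain ⟨h1, h2⟩ := hI.far_mem hw
    have hlw := num_of_lab (r := r) h2
    rw [base_place π h1 hlw] at hat hmf hok ⊢
    obtain ⟨h3, h4, h5⟩ := h.ok hw hat hmf hok
    have hwat : s.At F w := ⟨h1, (h.on F h1).2 hat.2⟩
    have hlm : (j.2 : ℕ) < num s r (s.mu F w) := by rw [num_mu hwat]; exact hlw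
    rw [cp_mu hwat hlw, base_place π (s.mu_mem h1 hwat.2).1 hlm]
    exact ⟨h3, ⟨_, h4, rfl⟩, (cp_OK hwat hlw).2 h5⟩
  cross := by
    intro F x y hx hy hne hla
    obtain ⟨w, hw, l, hl, rfl⟩ := cp_cases hx.1
    obtain ⟨v, hv, l', hl', rfl⟩ := cp_cases hy.1
    have hat := (cp_at hw hl).1 hx
    have hat' := (cp_at hv hl').1 hy
    simp only [fam', cp_lab_fst hw hl, cp_lab_fst hv hl'] at hne
    rw [cp_lace hat hat' hl hl' (fun e => hne (by rw [e]))] at hla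
    simp only [cp_lab_fst hw hl, cp_lab_fst hv hl']
    exact h.cross hat hat' hne hla

end copy

/-! ### the exchange step -/

theorem Cps.step {O : Ori M} {Q : Quads ι C K} {Rel : W → W → Prop} {s₀ : GSt M fam}
    {far₀ : J → Set W} {σ₀ : W → ZMod 2} {p : J1 → J} {m : J1 → ℕ} {s s' : GSt M fam1}
    {far : J1 → Set W} {β : W → W} (h : Cps O Q Rel s₀ far₀ σ₀ p m s far β)
    (hI : s.Inv Q far) {k : K} (hst : Step Q far k s s') :
    Cps O Q Rel s₀ far₀ σ₀ p m s' far β where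
  mem := fun hx => h.mem (hst.P_sub hx)
  rel := fun hx => h.rel (hst.P_sub hx)
  on := fun F hx => h.on F (hst.P_sub hx)
  dir := fun hx => h.dir ⟨hst.P_sub hx.1, hx.2⟩
  lt := fun hx hy => h.lt ⟨hst.P_sub hx.1, hx.2⟩ ⟨hst.P_sub hy.1, hy.2⟩
  far_mem := h.far_mem
  far_ex := h.far_ex
  far_uniq := h.far_uniq
  far_ord := h.far_ord
  ok := by
    intro j x F hx hat hmf hok
    obtain ⟨h1, h2, h3⟩ := h.ok hx hat hmf hok
    obtain ⟨h4, h5⟩ := hI.far_mem hx
    have hxat : s.At F x := ⟨h4, (h.on F h4).2 hat.2⟩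
    obtain ⟨h6, h7⟩ := hst.ok hxat (by rw [h5]; exact hx) (by rw [h5]; exact h2) h3
    rw [h6]
    exact ⟨h1, h2, h7⟩
  cross := by
    intro F x y hx hy hne hl
    obtain ⟨w', x', k1, k2, k3, k4, k5⟩ := hst.cross hx hy hne hl
    obtain ⟨w, v, l1, l2, l3, l4, l5⟩ := h.cross k1 k2 (by rw [k3, k4]; exact hne) k5
    exact ⟨w, v, l1, l2, by rw [l3, k3], by rw [l4, k4], l5⟩

end Crest.Agent.R096.Cp_298
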