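import Crest.Agent.R096.Gl2_422
import Crest.Agent.R096.Cp6_298

/-!
# R096 (row 96), GLUE-STATE over a mesh with labels, part 3 (helper422): labels of the sheets of a
later state with copies (298's `Cps`) over ANY mesh with labels (`LM` of 117): tilings, merged meshes.
-/

set_option autoImplicit false
set_option linter.unusedSectionVars false

open Set Relation

namespace Crest.Agent.R096.Gl_422

open Crest.Agent.R096.St_147 Crest.Agent.R096.Seq_213 Crest.Agent.R096.Seq_213.GSt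
  Crest.Agent.R096.Lm_117 Crest.Agent.R096.Ac_117 Crest.Agent.R096.Cp_298

variable {ι Φ W Q : Type} [PartialOrder Q] {dim : Q → ℕ} {M : MeshC ι Φ W}
variable {J J1 C K : Type} {fam : J → C} {fam1 : J1 → C}

/-- the 1-cell `e` is not interior to the active region of any quad of the family `c` -/
def FrE (L : LM M Q dim) (Qd : Quads ι C K) (c : C) (e : Q) : Prop :=
  ∀ k, Qd.In k c → ∃ F, e ≤ L.cf F ∧ ∃ q ∈ M.side F, q ∉ Qd.Act k

/-- points on frozen 1-cells are marked -/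
theorem mem_far {L : LM M Q dim} {s : GSt M fam} {Qd : Quads ι C K} {far : J → Set W}
    (hI : s.Inv Qd far) {w : W} (hw : w ∈ s.P) (hw1 : w ∈ L.W1)
    (hf : FrE L Qd (fam (s.lab w)) (L.ed w)) : w ∈ far (s.lab w) := by
  rcases hI.loc hw with h | ⟨k, hk, hint⟩
  · exact h
  · obtain ⟨F, h1, q, h2, h3⟩ := hf k hk
    exact absurd (hint.2 F ((L.on_iff F w).2 ⟨hw1, h1⟩) q h2) h3

section cps

variable {L : LM M Q dim} {O : Ori M} {Qd : Quads ι C K} {Rel : W → W → Prop} {s₀ : GSt M fam}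
  {far₀ : J → Set W} {σ₀ : W → ZMod 2} {p : J1 → J} {m : J1 → ℕ} {s : GSt M fam1}
  {far : J1 → Set W} {β : W → W}

variable (h : Cps O Qd Rel s₀ far₀ σ₀ p m s far β)
  (hR : ∀ x w, Rel x w → w ∈ L.W1 → x ∈ L.W1 ∧ L.ed x = L.ed w)
  (hP0 : ∀ w ∈ s₀.P, w ∈ L.W1)
include h hR hP0

/-- the points of the final state lie on the 1-cells -/
theorem on_final : ∀ x ∈ s.P, x ∈ L.W1 := fun x hx => (hR x _ (h.rel hx) (hP0 _ (h.mem hx))).1

theorem ed_final {x : W} (hx : x ∈ s.P) : L.ed x = L.ed (β x) :=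
  (hR x _ (h.rel hx) (hP0 _ (h.mem hx))).2

/-- the bijection of a final sheet and its original on a frozen 1-cell -/
theorem bij_final (hp : ∀ j, fam (p j) = fam1 j) (hI₀ : s₀.Inv Qd far₀) (hI : s.Inv Qd far)
    {j : J1} {e : Q} (hf : FrE L Qd (fam1 j) e) :
    BijOn β {x | x ∈ s.P ∧ s.lab x = j ∧ x ∈ L.On1 e}
      {w | w ∈ s₀.P ∧ s₀.lab w = p j ∧ w ∈ L.On1 e} := by
  have hfar : ∀ x, x ∈ s.P → s.lab x = j → x ∈ L.On1 e → x ∈ far j := by
    intro x hx hl hxe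
    have := mem_far (L := L) hI hx hxe.1 (by rw [hl, hxe.2]; exact hf)
    rwa [hl] at this
  refine ⟨?_, ?_, ?_⟩
  · rintro x ⟨hx, hl, hxe⟩
    obtain ⟨h2, h4⟩ := hI₀.far_mem (h.far_mem (hfar x hx hl hxe))
    exact ⟨h2, h4, hP0 _ h2, (ed_final h hR hP0 hx).symm.trans hxe.2⟩
  · rintro x ⟨hx, hl, hxe⟩ y ⟨hy, hl', hye⟩ exy
    exact h.far_uniq (hfar x hx hl hxe) (hfar y hy hl' hye) exy
  · rintro w ⟨hw, hl, hwe⟩
    have h4 := mem_far (L := L) hI₀ hw hwe.1 (by rw [hl, hp, hwe.2]; exact hf)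
    rw [hl] at h4
    obtain ⟨x, hx, rfl⟩ := h.far_ex h4
    obtain ⟨h5, h6⟩ := hI.far_mem hx
    exact ⟨x, ⟨h5, h6, on_final h hR hP0 x h5, (ed_final h hR hP0 h5).trans hwe.2⟩, rfl⟩

/-- parities on frozen 1-cells -/
theorem nW_final (hp : ∀ j, fam (p j) = fam1 j) (hI₀ : s₀.Inv Qd far₀) (hI : s.Inv Qd far)
    {j : J1} {e : Q} (hf : FrE L Qd (fam1 j) e) :
    nW (gp s j) (L.On1 e) = nW (gp s₀ (p j)) (L.On1 e) := by
  classical
  have hb := bij_final h hR hP0 hp hI₀ hI hf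
  rw [nW_card, nW_card]
  congr 1
  refine Finset.card_bij (fun x _ => β x) ?_ ?_ ?_
  · intro x hx
    obtain ⟨h1, h2⟩ := Finset.mem_filter.1 hx
    obtain ⟨h4, h5⟩ := mem_gp.1 h1
    obtain ⟨a1, a2, a3⟩ := hb.mapsTo ⟨h4, h5, h2⟩
    exact Finset.mem_filter.2 ⟨mem_gp.2 ⟨a1, a2⟩, a3⟩
  · intro x hx y hy exy
    obtain ⟨h1, h2⟩ := Finset.mem_filter.1 hx
    obtain ⟨h4, h5⟩ := mem_gp.1 h1
    obtain ⟨h1', h2'⟩ := Finset.mem_filter.1 hy
    obtain ⟨h4', h5'⟩ := mem_gp.1 h1'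
    exact hb.injOn ⟨h4, h5, h2⟩ ⟨h4', h5', h2'⟩ exy
  · intro w hw
    obtain ⟨h1, h2⟩ := Finset.mem_filter.1 hw
    obtain ⟨h4, h5⟩ := mem_gp.1 h1
    obtain ⟨x, ⟨a1, a2, a3⟩, rfl⟩ := hb.surjOn ⟨h4, h5, h2⟩
    exact ⟨x, Finset.mem_filter.2 ⟨mem_gp.2 ⟨a1, a2⟩, a3⟩, rfl⟩

/-- a frozen 1-cell without points of the original sheet has no points of the final sheet -/
theorem empty_final (hp : ∀ j, fam (p j) = fam1 j) (hI₀ : s₀.Inv Qd far₀) (hI : s.Inv Qd far)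
    {j : J1} {e : Q} (hf : FrE L Qd (fam1 j) e) (he : ∀ w ∈ gp s₀ (p j), w ∉ L.On1 e) :
    ∀ x ∈ gp s j, x ∉ L.On1 e := by
  intro x hx hxe
  obtain ⟨h1, h2⟩ := mem_gp.1 hx
  obtain ⟨a1, a2, a3⟩ := (bij_final h hR hP0 hp hI₀ hI hf).mapsTo ⟨h1, h2, hxe⟩
  exact he _ (mem_gp.2 ⟨a1, a2⟩) a3

/-- finitely many points on every 1-cell -/
theorem fin_edge (hp : ∀ j, fam (p j) = fam1 j) (hI₀ : s₀.Inv Qd far₀) (hI : s.Inv Qd far)
    (hfin : ∀ F : Φ, (s₀.P ∩ M.On F).Finite) (F : Φ) : (s.P ∩ M.On F).Finite :=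
  h.finite hp hI₀ hI (hfin F)

end cps

/-- **labels exist for patterns in `G`**, vanishing at the vertices of `Z` -/
def HasLab (L : LM M Q dim) (G : Set W) (Z : Set Q) : Prop :=
  ∀ Y : Finset W, (∀ w ∈ Y, w ∈ L.W1) → (∀ w ∈ Y, w ∈ G) → (∀ F, nW Y (M.On F) = 0) →
    ∃ lam : Q → ZMod 2, GLab L Y lam ∧ ∀ v ∈ Z, lam v = 0

/-- **label data of the initial state**: `G c` = points of the 1-cells deep inside the body of the
family `c`, `Z c` = vertices which are not deep inside, `v₀ c` deep vertex, `v₁ c` far vertex -/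
structure LabIn (L : LM M Q dim) (Qd : Quads ι C K) (s₀ : GSt M fam) (G : C → Set W)
    (Z : C → Set Q) (lam₀ : J → Q → ZMod 2) (v₀ v₁ : C → Q) : Prop where
  has : ∀ j, HasLab L (G (fam j)) (Z (fam j))
  sat : ∀ j, ∀ w ∈ G (fam j), ∀ x ∈ L.W1, L.ed x = L.ed w → x ∈ G (fam j)
  supp : ∀ w ∈ s₀.P, w ∈ G (fam (s₀.lab w))
  act : ∀ j k, Qd.In k (fam j) → ∀ w ∈ L.W1, Int M (Qd.Act k) w → w ∈ G (fam j)
  lab : ∀ j, GLab L (gp s₀ j) (lam₀ j)
  one : ∀ j, lam₀ j (v₀ (fam j)) = 1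
  zero : ∀ j, lam₀ j (v₁ (fam j)) = 0
  far : ∀ j, v₁ (fam j) ∈ Z (fam j)
  rope : ∀ j, ReflTransGen (Ed L {e | FrE L Qd (fam j) e}) (v₀ (fam j)) (v₁ (fam j))

/-- **labels of the final sheets** -/
structure LabOut (L : LM M Q dim) (Qd : Quads ι C K) (s : GSt M fam1) (Z : C → Set Q)
    (p : J1 → J) (lam₀ : J → Q → ZMod 2) (v₀ v₁ : C → Q) (lam : J1 → Q → ZMod 2) : Prop where
  on : ∀ w ∈ s.P, w ∈ L.W1
  conn : ∀ j, s.Conn j
  lab : ∀ j, GLab L (gp s j) (lam j)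
  far : ∀ j, ∀ v ∈ Z (fam1 j), lam j v = 0
  one : ∀ j, lam j (v₀ (fam1 j)) = 1
  zero : ∀ j, lam j (v₁ (fam1 j)) = 0
  rope : ∀ j, ReflTransGen (Ed L {e | FrE L Qd (fam1 j) e}) (v₀ (fam1 j)) (v₁ (fam1 j))
  frz : ∀ j v, ReflTransGen (Ed L {e | FrE L Qd (fam1 j) e}) (v₀ (fam1 j)) v →
    lam j v = lam₀ (p j) v

section cps2

variable {L : LM M Q dim} {O : Ori M} {Qd : Quads ι C K} {Rel : W → W → Prop} {s₀ : GSt M fam}
  {far₀ : J → Set W} {σ₀ : W → ZMod 2} {p : J1 → J} {m : J1 → ℕ} {s : GSt M fam1}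
  {far : J1 → Set W} {β : W → W} {G : C → Set W} {Z : C → Set Q} {lam₀ : J → Q → ZMod 2}
  {v₀ v₁ : C → Q}

/-- **LABELS OF THE FINAL SHEETS EXIST** -/
theorem exists_lam (h : Cps O Qd Rel s₀ far₀ σ₀ p m s far β)
    (hR : ∀ x w, Rel x w → w ∈ L.W1 → x ∈ L.W1 ∧ L.ed x = L.ed w)
    (hP0 : ∀ w ∈ s₀.P, w ∈ L.W1) (hp : ∀ j, fam (p j) = fam1 j) (hI₀ : s₀.Inv Qd far₀)
    (hI : s.Inv Qd far) (D : LabIn L Qd s₀ G Z lam₀ v₀ v₁) :
    ∃ lam : J1 → Q → ZMod 2, LabOut L Qd s Z p lam₀ v₀ v₁ lam := by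
  have hon := on_final h hR hP0
  have hsupp : ∀ w ∈ s.P, w ∈ G (fam1 (s.lab w)) := by
    intro w hw
    rcases hI.loc hw with h1 | ⟨k, hk, hint⟩
    · obtain ⟨h4, h5⟩ := hI₀.far_mem (h.far_mem h1)
      have h6 := D.supp _ h4
      rw [h5] at h6
      have h7 := D.sat _ _ h6 w (hon w hw) (ed_final h hR hP0 hw)
      rwa [hp] at h7
    · rw [← hp] at hk ⊢
      exact D.act _ k hk w (hon w hw) hint
  have hex : ∀ j : J1, ∃ lam : Q → ZMod 2, GLab L (gp s j) lam ∧ ∀ v ∈ Z (fam1 j), lam v = 0 := by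
    intro j
    have h1 := D.has (p j)
    rw [hp] at h1
    refine h1 (gp s j) (fun w hw => hon w (mem_gp.1 hw).1) (fun w hw => ?_) (gp_even s j)
    obtain ⟨h2, h4⟩ := mem_gp.1 hw
    have h5 := hsupp w h2
    rwa [h4] at h5
  choose lam h1 h2 using hex
  have hz : ∀ j, lam j (v₁ (fam1 j)) = 0 := by
    intro j
    have h4 := D.far (p j)
    rw [hp] at h4
    exact h2 j _ h4
  have hr : ∀ j, ReflTransGen (Ed L {e | FrE L Qd (fam1 j) e}) (v₀ (fam1 j)) (v₁ (fam1 j)) := by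
    intro j
    have h5 := D.rope (p j)
    rwa [hp] at h5
  have hdiff : ∀ j v v', ReflTransGen (Ed L {e | FrE L Qd (fam1 j) e}) v v' →
      lam j v + lam₀ (p j) v = lam j v' + lam₀ (p j) v' := fun j v v' hv =>
    (h1 j).diff (D.lab (p j)) (fun e he _ => nW_final h hR hP0 hp hI₀ hI he) hv
  have ho : ∀ j, lam j (v₀ (fam1 j)) = 1 := by
    intro j
    have h5 := hdiff j _ _ (hr j)
    have h6 := D.one (p j)
    have h7 := D.zero (p j)
    rw [hp] at h6 h7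
    rw [hz j, h6, h7] at h5
    have e4 : ∀ a : ZMod 2, a + 1 = 0 + 0 → a = 1 := by decide
    exact e4 _ h5
  refine ⟨lam, hon, fun j => hI.conn j, h1, h2, ho, hz, hr, fun j v hv => ?_⟩
  have h5 := hdiff j _ _ hv
  have h6 := D.one (p j)
  rw [hp] at h6
  rw [ho j, h6] at h5
  have e4 : ∀ a b : ZMod 2, 1 + 1 = a + b → a = b := by decide
  exact e4 _ _ h5

end cps2

section out

variable {L : LM M Q dim} {Qd : Quads ι C K} {s : GSt M fam1} {Z : C → Set Q} {p : J1 → J}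
  {lam₀ : J → Q → ZMod 2} {v₀ v₁ : C → Q} {lam : J1 → Q → ZMod 2}

theorem LabOut.lbd (D : LabOut L Qd s Z p lam₀ v₀ v₁ lam) (j₀ : J1) :
    Lbd L s (fam1 j₀) lam (v₀ (fam1 j₀)) (v₁ (fam1 j₀)) where
  conn := fun j _ => D.conn j
  lab := fun j _ => D.lab j
  one := fun j hj => by rw [← hj]; exact D.one j
  zero := fun j hj => by rw [← hj]; exact D.zero j
  path := ⟨_, D.rope j₀⟩

/-- the label along a path of 1-cells without points of the sheet, from the deep vertex -/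
theorem LabOut.lam_one (D : LabOut L Qd s Z p lam₀ v₀ v₁ lam) {j : J1} {A : Set Q}
    (hE : ∀ e ∈ A, dim e = 1 → ∀ u ∈ gp s j, u ∉ L.On1 e) {v : Q}
    (hv : ReflTransGen (Ed L A) (v₀ (fam1 j)) v) : lam j v = 1 := by
  rw [← (D.lab j).const hE hv]
  exact D.one j

/-- the label along a path of 1-cells without points of the sheet, from a far vertex -/
theorem LabOut.lam_zero (D : LabOut L Qd s Z p lam₀ v₀ v₁ lam) {j : J1} {A : Set Q}
    (hE : ∀ e ∈ A, dim e = 1 → ∀ u ∈ gp s j, u ∉ L.On1 e) {v v' : Q} (hz : v' ∈ Z (fam1 j))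
    (hv : ReflTransGen (Ed L A) v' v) : lam j v = 0 := by
  rw [← (D.lab j).const hE hv]
  exact D.far j _ hz

/-- **order** -/
theorem LabOut.ins_iff (D : LabOut L Qd s Z p lam₀ v₀ v₁ lam)
    (hfin : ∀ a, {j | fam1 j = a}.Finite) {j j' : J1} (hf : fam1 j = fam1 j') (hne : j ≠ j') :
    Ins L s lam j j' ↔ rk L s lam hfin j' < rk L s lam hfin j :=
  (D.lbd j).ins_iff hfin rfl hf.symm hne

theorem LabOut.rk_inj (D : LabOut L Qd s Z p lam₀ v₀ v₁ lam)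
    (hfin : ∀ a, {j | fam1 j = a}.Finite) {j j' : J1} (hf : fam1 j = fam1 j')
    (h : rk L s lam hfin j = rk L s lam hfin j') : j = j' :=
  (D.lbd j).rk_inj hfin rfl hf.symm h

theorem LabOut.ext_iff (D : LabOut L Qd s Z p lam₀ v₀ v₁ lam)
    (hfin : ∀ a, {j | fam1 j = a}.Finite) {j j' : J1} (hf : fam1 j = fam1 j') (hne : j ≠ j')
    {w : W} (hw : w ∈ s.P) (hl : s.lab w = j) :
    L.ext (gp s j') (lam j') w = 1 ↔ rk L s lam hfin j' < rk L s lam hfin j :=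
  (D.lbd j).ext_iff hfin rfl hf.symm hne hw hl

/-- one point of every sheet (input of 441's `ord_cmb` over `LM`) -/
theorem LabOut.hlev (D : LabOut L Qd s Z p lam₀ v₀ v₁ lam)
    (hfin : ∀ a, {j | fam1 j = a}.Finite) : ∀ j j', j ≠ j' → fam1 j = fam1 j' →
      ∃ w ∈ s.P, s.lab w = j ∧ (L.ext (gp s j') (lam j') w = 1 ↔
        (rk L s lam hfin j' : ℝ) < rk L s lam hfin j) := by
  intro j j' hne hf
  obtain ⟨⟨w, hw, hl⟩, -⟩ := D.conn j
  refine ⟨w, hw, hl, ?_⟩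
  rw [D.ext_iff hfin hf hne hw hl, Nat.cast_lt]

end out

end Crest.Agent.R096.Gl_422
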