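import Crest.Agent.R096.Gl7_422
import Crest.Agent.R096.Gl3_422
import Crest.Agent.R096.Lab5_184

/-!
# R096 (row 96), GLUE-STATE over a mesh with labels, part 8 (helper422): labels with compact support
for the mesh of a tiling (`HasLab` for `lmT`), interior points and frozen 1-cells of a tiling.
-/

set_option autoImplicit false
set_option linter.unusedSectionVars false

open Set Relation Module

namespace Crest.Agent.R096.Gl_422

open Crest.Agent.R096.St_147 Crest.Agent.R096.Lm_117 Crest.Agent.R096.Ac_117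
  Crest.Agent.R096.Cp_298 Crest.Agent.R096.Msh_715 Crest.Agent.R096.Agl5_543
  Crest.Agent.R096.Ori_543 Crest.Agent.R096.Seq_213 Crest.Agent.R096.Lab_184
  Crest.Agent.R096.Coh_184

variable {E : Type} [NormedAddCommGroup E] [NormedSpace ℝ E] [FiniteDimensional ℝ E]
variable {Om : Set E} {ι : Type} {T : Tiling Om ι}

/-- points of 1-cells whose tiles lie in the interior of `D` -/
def GT (T : Tiling Om ι) (D : Set E) : Set E :=
  {w | w ∈ W1 T ∧ ∀ q, w ∈ Msh_715.P (T.H q) → Msh_715.P (T.H q) ⊆ interior D}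

/-- the vertices of the tiles which do not lie in the interior of `D` -/
def ZT (T : Tiling Om ι) (D : Set E) : Set T.Cell :=
  {v | ∃ q, v.pt ∈ Msh_715.P (T.H q) ∧ ¬ Msh_715.P (T.H q) ⊆ interior D}

theorem zt_of_notMem {D : Set E} {v : T.Cell} (h : v.pt ∉ interior D) : v ∈ ZT T D := by
  obtain ⟨q, hq⟩ := T.at_nonempty v.pt_mem
  exact ⟨q, hq, fun h' => h (h' hq)⟩

theorem gt_sat [Nonempty T.Cell] {D : Set E} {w x : E} (hw : w ∈ GT T D)
    (hx : x ∈ W1 T) (h : edC T x = edC T w) : x ∈ GT T D := by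
  refine ⟨hx, fun q hq => ?_⟩
  have h1 := T.at_eq_of_mem_oc hw.1.1 (same_oc hw.1 hx h.symm)
  refine hw.2 q ?_
  have : q ∈ T.at_ x := hq
  rw [h1] at this
  exact this

variable [Nonempty T.Cell]

/-- **labels with compact support** -/
theorem hasLab_T (h3 : finrank ℝ E = 3) {D : Set E} (hD : IsCompact D) (hDO : D ⊆ Om)
    (hfr : IsPreconnected (frontier D)) (ht : TrivF (ZMod 2) D) :
    HasLab (lmT T h3) (GT T D) (ZT T D) := by
  classical
  intro Y hY1 hYG hYe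
  have hev : EvPat T Y := by
    refine ⟨fun w hw => hY1 w hw, fun x hx hd => ?_⟩
    have h1 := hYe (mk2 T hx hd)
    rw [nW_card] at h1
    have h2 : (Y : Set E) ∩ T.cc x =
        ((Y.filter (· ∈ (meshC T h3).On (mk2 T hx hd)) : Finset E) : Set E) := by
      ext w
      simp only [Set.mem_inter_iff, Finset.coe_filter, Finset.mem_coe, Set.mem_ofPred_eq]
      constructor
      · rintro ⟨a1, a2⟩
        exact ⟨a1, a2, (hY1 w a1).2⟩
      · rintro ⟨a1, a2⟩
        exact ⟨a1, a2.1⟩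
    rw [h2, Set.ncard_coe_finset]
    exact (ZMod.natCast_eq_zero_iff_even).1 h1
  obtain ⟨lam, -, h2, h4⟩ := labels h3 hev hD hDO hfr ht (fun w hw => (hYG w hw).2)
  refine ⟨fun v => lam v.pt, ?_, ?_⟩
  · intro e he
    have hd : e.dim = 1 := he
    obtain ⟨q1, q2, q3⟩ := ep_spec hd
    show lam (enC e false).pt + lam (enC e true).pt = _
    rw [en_pt hd, en_pt hd, h4 e.pt e.pt_mem hd _ _ (e.set_eq.symm.trans q2), nW_card,
      ← e.set_eq]
    congr 1
    have h5 : (Y : Set E) ∩ e.set =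
        ((Y.filter (· ∈ (lmT T h3).On1 e) : Finset E) : Set E) := by
      ext w
      simp only [Set.mem_inter_iff, Finset.coe_filter, Finset.mem_coe, Set.mem_ofPred_eq]
      constructor
      · rintro ⟨a1, a2⟩
        exact ⟨a1, hY1 w a1, (edC_eq (hY1 w a1) hd).2 a2⟩
      · rintro ⟨a1, a2⟩
        exact ⟨a1, (edC_eq (hY1 w a1) hd).1 a2.2⟩
    rw [h5, Set.ncard_coe_finset]
  · rintro v ⟨q, hq, hqD⟩
    exact h2 q hqD _ hq

/-- interior points of an active region -/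
theorem int_T (h3 : finrank ℝ E = 3) {A : Set ι} {w : E} (hw : w ∈ W1 T) :
    Int (meshC T h3) A w ↔ ∀ q ∈ T.at_ w, q ∈ A := by
  constructor
  · rintro ⟨-, h⟩ q hq
    obtain ⟨x₁, hx1, x₂, hx2, hd1, hd2, hq1, hq2, hp1, hp2, hne, huniq⟩ :=
      Agl3_543.two_cells T h3 hw.1 hw.2 hq
    refine h (mk2 T hx1 hd1) ⟨hp1, hw.2⟩ q ?_
    show q ∈ (mk2 T hx1 hd1).side h3
    rw [C2.mem_side]
    have h5 : (mk2 T hx1 hd1).pt ∈ T.oc x₁ := T.pt_cl hx1
    rw [T.at_eq_of_mem_oc hx1 h5]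
    exact hq1
  · intro h
    refine ⟨exists_on h3 hw.1 hw.2, ?_⟩
    intro F hF q hq
    have hq' : q ∈ F.side h3 := hq
    rw [C2.mem_side] at hq'
    refine h q ?_
    have : w ∈ T.cc F.pt := by rw [← F.set_eq]; exact hF.1
    exact T.at_sub_of_mem_cc this hq'

/-- a 1-cell is frozen if a tile at it is not active -/
theorem frE_T (h3 : finrank ℝ E = 3) {C K : Type} {Qd : Quads ι C K} {c : C} {e : T.Cell}
    (he : e.dim = 1) (h : ∀ k, Qd.In k c → ∃ q, e.set ⊆ Msh_715.P (T.H q) ∧ q ∉ Qd.Act k) :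
    FrE (lmT T h3) Qd c e := by
  intro k hk
  obtain ⟨q, hq, hqA⟩ := h k hk
  have hq' : q ∈ T.at_ e.pt := hq (pt_set e)
  obtain ⟨x₁, hx1, x₂, hx2, hd1, hd2, hq1, hq2, hp1, hp2, hne, huniq⟩ :=
    Agl3_543.two_cells T h3 e.pt_mem he hq'
  refine ⟨mk2 T hx1 hd1, ?_, q, ?_, hqA⟩
  · show e ≤ (mk2 T hx1 hd1).1
    rw [Tiling.Cell.le_def, e.set_eq]
    show T.cc e.pt ⊆ (mk2 T hx1 hd1).set
    rw [mk2_set hx1 hd1]
    exact T.cc_sub_of_mem hp1
  · show q ∈ (mk2 T hx1 hd1).side h3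
    rw [C2.mem_side]
    have h5 : (mk2 T hx1 hd1).pt ∈ T.oc x₁ := T.pt_cl hx1
    rw [T.at_eq_of_mem_oc hx1 h5]
    exact hq1

end Crest.Agent.R096.Gl_422
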