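import Crest.Agent.R096.Lm1_117
import Crest.Agent.R096.Seq2_213

/-!
# R096 (row 96), LMesh, part 4: the pieces of a global state in the cells, their labels (helper117)
-/

set_option autoImplicit false
set_option linter.unusedSectionVars false

open Set

namespace Crest.Agent.R096.Lm_117

open Crest.Agent.R096.St_147 Crest.Agent.R096.Ac_117 Crest.Agent.R096.Seq_213

variable {ι Φ W Q J C : Type} {M : MeshC ι Φ W} [PartialOrder Q] {dim : Q → ℕ}
variable (L : LM M Q dim) {fam : J → C}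

/-! ### pieces -/

/-- the points of the state in the cell `c` -/
abbrev Pt (s : GSt M fam) (c : Q) : Type := {w : W // w ∈ s.P ∧ w ∈ L.toSk.In c}

/-- `w'` is the partner of `w` on a 2-cell of `c` -/
def Rel (s : GSt M fam) (c : Q) (w w' : Pt L s c) : Prop :=
  ∃ F : Φ, L.cf F ≤ c ∧ w.1 ∈ M.On F ∧ w'.1 = s.mu F w.1

/-- the pieces of the state in the cell `c` -/
def Pc (s : GSt M fam) (c : Q) : Type := Quot (Rel L s c)

variable {L}

lemma on_in {F : Φ} {c : Q} (hF : L.cf F ≤ c) {w : W} (hw : w ∈ M.On F) : w ∈ L.toSk.In c := by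
  have := (L.on_iff F w).1 hw
  exact ⟨this.1, this.2.trans hF⟩

lemma on_of_in {F : Φ} {w : W} (hw : w ∈ L.toSk.In (L.cf F)) : w ∈ M.On F := (L.on_iff F w).2 hw

variable (L)
variable (s : GSt M fam)

/-- sheet of a piece -/
def pcol (c : Q) : Pc L s c → J := Quot.lift (fun w => s.lab w.1) (by
  rintro w w' ⟨F, hF, hw, h⟩
  show s.lab w.1 = s.lab w'.1
  rw [h]
  exact (s.mu_lab w.2.1 hw).symm)

/-- inclusion of points -/
def pin {c d : Q} (h : c ≤ d) (w : Pt L s c) : Pt L s d := ⟨w.1, w.2.1, Sk.In_mono h w.2.2⟩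

/-- the piece of the bigger cell -/
def pup {c d : Q} (h : c ≤ d) : Pc L s c → Pc L s d :=
  Quot.lift (fun w => Quot.mk _ (pin L s h w)) (by
    rintro w w' ⟨F, hF, hw, h'⟩
    exact Quot.sound ⟨F, hF.trans h, hw, h'⟩)

lemma pcol_pup {c d : Q} (h : c ≤ d) (y : Pc L s c) : pcol L s d (pup L s h y) = pcol L s c y := by
  induction y using Quot.ind with
  | mk w => rfl

lemma pup_pup {c d e : Q} (h : c ≤ d) (h' : d ≤ e) (y : Pc L s c) :
    pup L s (h.trans h') y = pup L s h' (pup L s h y) := by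
  induction y using Quot.ind with
  | mk w => rfl

/-- local finiteness of the state -/
def LF : Prop := ∀ c : Q, {w | w ∈ s.P ∧ w ∈ L.toSk.In c}.Finite

variable {L s}

lemma LF.pt (h : LF L s) (c : Q) : Finite (Pt L s c) := (h c).to_subtype

lemma LF.pc (h : LF L s) (c : Q) : Finite (Pc L s c) := by
  have := h.pt c
  exact Finite.of_surjective (Quot.mk (Rel L s c)) Quot.mk_surjective

/-- the points of a piece -/
noncomputable def pts (h : LF L s) (c : Q) (x : Pc L s c) : Finset W :=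
  ((h c).subset (fun w (hw : w ∈ {w | ∃ h' : w ∈ s.P ∧ w ∈ L.toSk.In c,
    (Quot.mk _ ⟨w, h'⟩ : Pc L s c) = x}) => hw.1)).toFinset

lemma mem_pts {h : LF L s} {c : Q} {x : Pc L s c} {w : W} :
    w ∈ pts h c x ↔ ∃ h' : w ∈ s.P ∧ w ∈ L.toSk.In c, (Quot.mk _ ⟨w, h'⟩ : Pc L s c) = x := by
  unfold pts
  rw [Set.Finite.mem_toFinset]
  rfl

lemma pts_ne {h : LF L s} {c : Q} (x : Pc L s c) : ∃ w, w ∈ pts h c x := by
  obtain ⟨w, rfl⟩ := Quot.exists_rep x
  exact ⟨w.1, mem_pts.2 ⟨w.2, rfl⟩⟩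

lemma pts_in {h : LF L s} {c : Q} {x : Pc L s c} {w : W} (hw : w ∈ pts h c x) :
    w ∈ s.P ∧ w ∈ L.toSk.In c := (mem_pts.1 hw).choose

lemma pts_disj {h : LF L s} {c : Q} {x y : Pc L s c} {w : W} (hx : w ∈ pts h c x)
    (hy : w ∈ pts h c y) : x = y := by
  obtain ⟨h1, e1⟩ := mem_pts.1 hx
  obtain ⟨h2, e2⟩ := mem_pts.1 hy
  rw [← e1, ← e2]

lemma pcol_pts {h : LF L s} {c : Q} {x : Pc L s c} {w : W} (hw : w ∈ pts h c x) :
    pcol L s c x = s.lab w := by
  obtain ⟨h', rfl⟩ := mem_pts.1 hw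
  rfl

/-- partners stay in the piece -/
lemma mu_pts {h : LF L s} {c : Q} {x : Pc L s c} {w : W} (hw : w ∈ pts h c x) {F : Φ}
    (hF : L.cf F ≤ c) (hwF : w ∈ M.On F) : s.mu F w ∈ pts h c x := by
  obtain ⟨h', hx⟩ := mem_pts.1 hw
  have h1 := s.mu_mem h'.1 hwF
  have h2 : s.mu F w ∈ s.P ∧ s.mu F w ∈ L.toSk.In c := ⟨h1.1, on_in hF h1.2⟩
  refine mem_pts.2 ⟨h2, ?_⟩
  rw [← hx]
  exact (Quot.sound ⟨F, hF, hwF, rfl⟩).symm

/-- a piece meets every 2-cell in an even number of points -/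
lemma even_pts {h : LF L s} {c : Q} {x : Pc L s c} {F : Φ} (hF : L.cf F ≤ c) :
    nW (pts h c x) (M.On F) = 0 := by
  classical
  unfold nW
  rw [← Finset.sum_filter]
  have hpar : ∀ w ∈ (pts h c x).filter (· ∈ M.On F), s.mu F w ∈ (pts h c x).filter (· ∈ M.On F) := by
    intro w hw
    obtain ⟨h1, h2⟩ := Finset.mem_filter.1 hw
    exact Finset.mem_filter.2 ⟨mu_pts h1 hF h2, (s.mu_mem (pts_in h1).1 h2).2⟩
  refine Finset.sum_involution (fun w _ => s.mu F w) ?_ ?_ ?_ ?_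
  · intro w _; decide
  · intro w hw _
    obtain ⟨h1, h2⟩ := Finset.mem_filter.1 hw
    exact s.mu_ne (pts_in h1).1 h2
  · intro w hw
    exact hpar w hw
  · intro w hw
    obtain ⟨h1, h2⟩ := Finset.mem_filter.1 hw
    exact s.mu_mu (pts_in h1).1 h2

/-- the points of a piece on a smaller cell are the points of the pieces over it -/
lemma mem_pts_pup {h : LF L s} {c d : Q} (hcd : c ≤ d) {x : Pc L s d} {w : W}
    (hw : w ∈ L.toSk.In c) :
    w ∈ pts h d x ↔ ∃ y : Pc L s c, pup L s hcd y = x ∧ w ∈ pts h c y := by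
  constructor
  · intro hx
    obtain ⟨h', e⟩ := mem_pts.1 hx
    refine ⟨Quot.mk _ ⟨w, h'.1, hw⟩, ?_, mem_pts.2 ⟨⟨h'.1, hw⟩, rfl⟩⟩
    rw [← e]; rfl
  · rintro ⟨y, rfl, hy⟩
    obtain ⟨h', rfl⟩ := mem_pts.1 hy
    exact mem_pts.2 ⟨⟨h'.1, Sk.In_mono hcd h'.2⟩, rfl⟩

/-! ### labels -/

/-- the base vertex of a cell -/
noncomputable def bv (L : Sk W Q dim) (c : Q) : Q := (L.base c).choose

lemma bv_le (L : Sk W Q dim) (c : Q) : bv L c ≤ c := (L.base c).choose_spec.1

lemma bv_dim (L : Sk W Q dim) (c : Q) : dim (bv L c) = 0 := (L.base c).choose_spec.2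

lemma exists_nl (h : LF L s) (c : Q) (x : Pc L s c) : ∃ lam : Q → ZMod 2,
    L.toSk.XL (pts h c x) lam c ∧ lam (bv L.toSk c) = 0 := by
  obtain ⟨lam, h1⟩ := L.cell c (pts h c x) (fun F hF => even_pts hF)
  exact ⟨fun v => lam v + lam (bv L.toSk c), h1.add_const _, add_self _⟩

/-- the normalised label of a piece -/
noncomputable def nl (h : LF L s) (c : Q) (x : Pc L s c) : Q → ZMod 2 := (exists_nl h c x).choose

lemma nl_xl (h : LF L s) (c : Q) (x : Pc L s c) : L.toSk.XL (pts h c x) (nl h c x) c :=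
  (exists_nl h c x).choose_spec.1

lemma nl_bv (h : LF L s) (c : Q) (x : Pc L s c) : nl h c x (bv L.toSk c) = 0 :=
  (exists_nl h c x).choose_spec.2

/-- the normalised label of a piece at a point -/
noncomputable def nlw (h : LF L s) (c : Q) (x : Pc L s c) (w : W) : ZMod 2 :=
  L.toSk.ext (pts h c x) (nl h c x) w

/-- a family of pieces of `c` as a set of points -/
lemma nW_pieces {h : LF L s} {c : Q} {Y0 : Finset W} (Y : Finset (Pc L s c))
    (hQ : ∀ w ∈ L.toSk.In c, (w ∈ Y0 ↔ ∃ y ∈ Y, w ∈ pts h c y)) {X : Set W}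
    (hX : X ⊆ L.toSk.In c) : nW Y0 X = ∑ y ∈ Y, nW (pts h c y) X := by
  classical
  unfold nW
  have e1 : ∑ w ∈ Y0, (if w ∈ X then (1 : ZMod 2) else 0) =
      ∑ w ∈ Y0.filter (· ∈ L.toSk.In c), (if w ∈ X then (1 : ZMod 2) else 0) := by
    rw [Finset.sum_filter]
    apply Finset.sum_congr rfl
    intro w _
    by_cases hw : w ∈ L.toSk.In c
    · rw [if_pos hw]
    · rw [if_neg hw, if_neg (fun h' => hw (hX h'))]
  have e2 : Y0.filter (· ∈ L.toSk.In c) = Y.biUnion (fun y => pts h c y) := by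
    ext w
    rw [Finset.mem_filter, Finset.mem_biUnion]
    constructor
    · rintro ⟨h1, h2⟩
      exact (hQ w h2).1 h1
    · rintro ⟨y, hy, hw⟩
      have h' := pts_in hw
      exact ⟨(hQ w h'.2).2 ⟨y, hy, hw⟩, h'.2⟩
  rw [e1, e2, Finset.sum_biUnion]
  intro y _ y' _ hne
  simp only [Function.onFun]
  rw [Finset.disjoint_left]
  intro w h1 h2
  exact hne (pts_disj h1 h2)

lemma On1_in {e c : Q} (he : e ≤ c) : L.toSk.On1 e ⊆ L.toSk.In c :=
  fun _ hw => ⟨hw.1, hw.2.symm ▸ he⟩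

/-- the sum of the labels of a family of pieces of `c` is a label -/
lemma xl_sum {h : LF L s} {c : Q} {Y0 : Finset W} (Y : Finset (Pc L s c))
    (hQ : ∀ w ∈ L.toSk.In c, (w ∈ Y0 ↔ ∃ y ∈ Y, w ∈ pts h c y)) :
    L.toSk.XL Y0 (fun v => ∑ y ∈ Y, nl h c y v) c := by
  intro e he h1
  show ∑ y ∈ Y, nl h c y _ + ∑ y ∈ Y, nl h c y _ = _
  rw [nW_pieces Y hQ (On1_in he), ← Finset.sum_add_distrib]
  apply Finset.sum_congr rfl
  intro y _
  exact nl_xl h c y e he h1

lemma ext_sum {h : LF L s} {c : Q} {Y0 : Finset W} (Y : Finset (Pc L s c))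
    (hQ : ∀ w ∈ L.toSk.In c, (w ∈ Y0 ↔ ∃ y ∈ Y, w ∈ pts h c y)) {w : W} (hw : w ∈ L.toSk.In c) :
    L.toSk.ext Y0 (fun v => ∑ y ∈ Y, nl h c y v) w = ∑ y ∈ Y, nlw h c y w := by
  unfold nlw Sk.ext
  rw [Finset.sum_add_distrib]
  congr 1
  refine nW_pieces Y hQ ?_
  rintro x ⟨h1, h2, -⟩
  exact ⟨h1, h2 ▸ hw.2⟩

lemma mem_pieces {h : LF L s} {c d : Q} (hcd : c ≤ d) (x : Pc L s d) (Y : Finset (Pc L s c))
    (hY : ∀ y, y ∈ Y ↔ pup L s hcd y = x) :
    ∀ w ∈ L.toSk.In c, (w ∈ pts h d x ↔ ∃ y ∈ Y, w ∈ pts h c y) := by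
  intro w hw
  rw [mem_pts_pup hcd hw]
  constructor
  · rintro ⟨y, h4, h5⟩
    exact ⟨y, (hY y).2 h4, h5⟩
  · rintro ⟨y, h4, h5⟩
    exact ⟨y, (hY y).1 h4, h5⟩

lemma z4 {a b c : ZMod 2} (h : a + b = c) : a = c + b := by revert a b c; decide

/-- **the cocycle rule** at the vertices -/
lemma nl_coc {h : LF L s} {c d : Q} (hcd : c ≤ d) (x : Pc L s d) (Y : Finset (Pc L s c))
    (hY : ∀ y, y ∈ Y ↔ pup L s hcd y = x) {v : Q} (hv : v ≤ c) (hv0 : dim v = 0) :
    nl h d x v = nl h d x (bv L.toSk c) + ∑ y ∈ Y, nl h c y v := by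
  have h1 := (nl_xl h d x).mono hcd
  have hm := mem_pieces (h := h) hcd x Y hY
  have h2 := xl_sum (h := h) Y hm
  have h4 := h1.unique h2 (fun _ _ => Iff.rfl) hv (bv_le L.toSk c) hv0 (bv_dim L.toSk c)
  have h5 : ∑ y ∈ Y, nl h c y (bv L.toSk c) = 0 := Finset.sum_eq_zero fun y _ => nl_bv h c y
  rw [h5, add_zero] at h4
  exact z4 h4

/-- **the cocycle rule** at the points -/
lemma nlw_coc {h : LF L s} {c d : Q} (hcd : c ≤ d) (x : Pc L s d) (Y : Finset (Pc L s c))
    (hY : ∀ y, y ∈ Y ↔ pup L s hcd y = x) {w : W} (hw : w ∈ L.toSk.In c) :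
    nlw h d x w = nl h d x (bv L.toSk c) + ∑ y ∈ Y, nlw h c y w := by
  have h1 := (nl_xl h d x).mono hcd
  have hm := mem_pieces (h := h) hcd x Y hY
  have h2 := xl_sum (h := h) Y hm
  have h4 := h1.unique_ext h2 (fun _ _ => Iff.rfl) (bv_le L.toSk c) (bv_dim L.toSk c) hw
  have h5 : ∑ y ∈ Y, nl h c y (bv L.toSk c) = 0 := Finset.sum_eq_zero fun y _ => nl_bv h c y
  rw [h5, add_zero, ext_sum Y hm hw] at h4
  exact z4 h4

/-! ### the label on a face -/

/-- the base value of a face -/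
noncomputable def kap (h : LF L s) {c : Q} (x : Pc L s c) (F : Φ) : ZMod 2 :=
  nl h c x (bv L.toSk (L.cf F)) + cntP M (pts h c x) F (L.vpos F (bv L.toSk (L.cf F)))

/-- the label of a piece at the points of a face -/
lemma kap_eq {h : LF L s} {c : Q} {x : Pc L s c} {F : Φ} (hF : L.cf F ≤ c) {w : W}
    (hw : w ∈ M.On F) (hwx : w ∉ pts h c x) :
    nlw h c x w = kap h x F + cntP M (pts h c x) F (M.pos F w) := by
  obtain ⟨h1, h2⟩ := L.face F (pts h c x) (even_pts hF)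
  have h3 := ((nl_xl h c x).mono hF).unique_ext h1 (fun _ _ => Iff.rfl) (bv_le L.toSk _) (bv_dim L.toSk _)
    ((L.on_iff F w).1 hw)
  rw [h2 w hw hwx] at h3
  exact z4 h3

lemma cntP_sum (y : Finset W) (F : Φ) (t : ℝ) :
    cntP M y F t = (open Classical in ∑ v ∈ y, if v ∈ M.On F ∧ M.pos F v < t then (1 : ZMod 2) else 0) := by
  classical
  unfold cntP
  rw [Finset.card_filter, Nat.cast_sum]
  apply Finset.sum_congr rfl
  intro v _
  split_ifs <;> simp

/-- non crossing: both ends of a chord are on the same side of another piece of the family -/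
lemma nl_mu {h : LF L s} {c : Q} {x : Pc L s c} {F : Φ} (hF : L.cf F ≤ c) {w : W}
    (hw : w ∈ s.P) (hwF : w ∈ M.On F) (hwx : w ∉ pts h c x)
    (hfam : fam (s.lab w) = fam (pcol L s c x)) : nlw h c x (s.mu F w) = nlw h c x w := by
  classical
  have hmu := s.mu_mem hw hwF
  have hmx : s.mu F w ∉ pts h c x := fun h' => hwx (by
    have h1 := mu_pts h' hF hmu.2
    rwa [s.mu_mu hw hwF] at h1)
  rw [kap_eq hF hmu.2 hmx, kap_eq hF hwF hwx]
  congr 1
  have h2 : cntP M (pts h c x) F (M.pos F (s.mu F w)) + cntP M (pts h c x) F (M.pos F w) = 0 := by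
    rw [cntP_sum, cntP_sum, ← Finset.sum_add_distrib]
    have hin : ∀ v ∈ pts h c x,
        ((if v ∈ M.On F ∧ M.pos F v < M.pos F (s.mu F w) then (1 : ZMod 2) else 0)
        + if v ∈ M.On F ∧ M.pos F v < M.pos F w then 1 else 0) =
        if v ∈ M.On F ∧ M.Btw F w (s.mu F w) v then 1 else 0 := by
      intro v hv
      by_cases hvF : v ∈ M.On F
      · have hne : M.pos F v ≠ M.pos F w := fun h' => by
          have := M.pos_inj F hvF hwF h'
          subst this; exact hwx hv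
        have hne' : M.pos F v ≠ M.pos F (s.mu F w) := fun h' => by
          have := M.pos_inj F hvF hmu.2 h'
          rw [this] at hv; exact hmx hv
        have e1 : M.Btw F w (s.mu F w) v ↔
            ((M.pos F w < M.pos F v ∧ M.pos F v < M.pos F (s.mu F w)) ∨
              (M.pos F (s.mu F w) < M.pos F v ∧ M.pos F v < M.pos F w)) := Iff.rfl
        rcases lt_or_gt_of_ne hne with g1 | g1 <;> rcases lt_or_gt_of_ne hne' with g2 | g2
        · rw [if_pos ⟨hvF, g2⟩, if_pos ⟨hvF, g1⟩, if_neg]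
          · decide
          · rintro ⟨-, h'⟩
            rcases e1.1 h' with h' | h'
            · exact lt_asymm g1 h'.1
            · exact lt_asymm g2 h'.1
        · rw [if_neg (fun h' => lt_asymm g2 h'.2), if_pos ⟨hvF, g1⟩,
            if_pos ⟨hvF, e1.2 (Or.inr ⟨g2, g1⟩)⟩, zero_add]
        · rw [if_pos ⟨hvF, g2⟩, if_neg (fun h' => lt_asymm g1 h'.2),
            if_pos ⟨hvF, e1.2 (Or.inl ⟨g1, g2⟩)⟩, add_zero]
        · rw [if_neg (fun h' => lt_asymm g2 h'.2), if_neg (fun h' => lt_asymm g1 h'.2), if_neg]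
          · decide
          · rintro ⟨-, h'⟩
            rcases e1.1 h' with h' | h'
            · exact lt_asymm g2 h'.2
            · exact lt_asymm g1 h'.2
      · rw [if_neg (fun h' => hvF h'.1), if_neg (fun h' => hvF h'.1), if_neg (fun h' => hvF h'.1)]
        decide
    rw [Finset.sum_congr rfl hin, ← Finset.sum_filter]
    have hcl : ∀ v ∈ (pts h c x).filter (fun v => v ∈ M.On F ∧ M.Btw F w (s.mu F w) v),
        s.mu F v ∈ (pts h c x).filter (fun v => v ∈ M.On F ∧ M.Btw F w (s.mu F w) v) := by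
      intro v hv
      obtain ⟨hvm, hvF, hb⟩ := Finset.mem_filter.1 hv
      have hv' := pts_in hvm
      have hm := s.mu_mem hv'.1 hvF
      refine Finset.mem_filter.2 ⟨mu_pts hvm hF hvF, hm.2, ?_⟩
      have hfv : fam (s.lab w) = fam (s.lab v) := by
        rw [hfam, pcol_pts hvm]
      have hnc := s.nc hw hwF hv'.1 hvF hfv
        (fun h' => hwx (h' ▸ hvm)) (fun h' => hmx (h' ▸ hvm))
      unfold MeshC.Lace at hnc
      rw [not_not] at hnc
      exact hnc.1 hb
    refine Finset.sum_involution (fun v _ => s.mu F v) ?_ ?_ ?_ ?_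
    · intro v _; decide
    · intro v hv _
      obtain ⟨hv, hvF, hb⟩ := Finset.mem_filter.1 hv
      exact s.mu_ne (pts_in hv).1 hvF
    · intro v hv
      exact hcl v hv
    · intro v hv
      obtain ⟨hv, hvF, hb⟩ := Finset.mem_filter.1 hv
      exact s.mu_mu (pts_in hv).1 hvF
  have e4 : ∀ a b : ZMod 2, a + b = 0 → a = b := by decide
  exact e4 _ _ h2

/-- a point of a piece -/
noncomputable def rep (h : LF L s) {c : Q} (x : Pc L s c) : W := (pts_ne (h := h) x).choose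

lemma rep_mem (h : LF L s) {c : Q} (x : Pc L s c) : rep h x ∈ pts h c x :=
  (pts_ne (h := h) x).choose_spec

/-- the side of a piece with respect to another one: at any of its points -/
lemma side_const {h : LF L s} {c : Q} {x x' : Pc L s c} (hne : x ≠ x')
    (hfam : fam (pcol L s c x) = fam (pcol L s c x')) {w w' : W} (hw : w ∈ pts h c x)
    (hw' : w' ∈ pts h c x) : nlw h c x' w = nlw h c x' w' := by
  classical
  obtain ⟨h1, e1⟩ := mem_pts.1 hw
  obtain ⟨h2, e2⟩ := mem_pts.1 hw'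
  have key : ∀ a b : Pt L s c, Rel L s c a b →
      (if (Quot.mk _ a : Pc L s c) = x then nlw h c x' a.1 else 0)
      = (if (Quot.mk _ b : Pc L s c) = x then nlw h c x' b.1 else 0) := by
    intro a b hab
    have hmk : (Quot.mk _ a : Pc L s c) = Quot.mk _ b := Quot.sound hab
    by_cases hx : (Quot.mk _ a : Pc L s c) = x
    · rw [if_pos hx, if_pos (hmk ▸ hx)]
      obtain ⟨F, hF, haF, hb⟩ := hab
      rw [hb]
      refine (nl_mu hF a.2.1 haF ?_ ?_).symm
      · intro h'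
        exact hne (pts_disj (mem_pts.2 ⟨a.2, hx⟩) h')
      · rw [← hfam, ← hx]; rfl
    · rw [if_neg hx, if_neg (fun h' => hx (hmk.trans h'))]
  let g : Pc L s c → ZMod 2 := Quot.lift
    (fun a => if (Quot.mk _ a : Pc L s c) = x then nlw h c x' a.1 else 0) key
  have g1 : g (Quot.mk _ ⟨w, h1⟩) = nlw h c x' w := by
    show (if (Quot.mk _ ⟨w, h1⟩ : Pc L s c) = x then nlw h c x' w else 0) = _
    rw [if_pos e1]
  have g2 : g (Quot.mk _ ⟨w', h2⟩) = nlw h c x' w' := by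
    show (if (Quot.mk _ ⟨w', h2⟩ : Pc L s c) = x then nlw h c x' w' else 0) = _
    rw [if_pos e2]
  rw [← g1, ← g2, e1, e2]

end Crest.Agent.R096.Lm_117
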