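import Crest.Agent.R096.Gl6_422
import Crest.Agent.R096.Gl8_422
import Crest.Agent.R096.Gs3_422
import Crest.Agent.R096.Lm4_117

/-!
# R096 (row 96), GLUE-STATE over a mesh with labels, part 9 (helper422): the bundle `state_final`
(298's weighted sequence + labels + numbers of the sheets), local finiteness, the bridge from the
label data of a tiling (`Gs_422.LabIn`) to `LabIn` over `lmT`.
-/

set_option autoImplicit false
set_option linter.unusedSectionVars false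

open Set Relation Module

namespace Crest.Agent.R096.Gl_422

open Crest.Agent.R096.St_147 Crest.Agent.R096.Seq_213 Crest.Agent.R096.Seq_213.GSt
  Crest.Agent.R096.Lm_117 Crest.Agent.R096.Ac_117 Crest.Agent.R096.Cp_298

section gen

variable {ι Φ W Q : Type} [PartialOrder Q] {dim : Q → ℕ} {M : MeshC ι Φ W}
variable {J C K : Type} {fam : J → C} {L : LM M Q dim} {O : Ori M} {τ : Q → ZMod 2}

theorem LabIn.lbd {Qd : Quads ι C K} {s₀ : GSt M fam} {far₀ : J → Set W} {G : C → Set W}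
    {Z : C → Set Q} {lam₀ : J → Q → ZMod 2} {v₀ v₁ : C → Q}
    (D : LabIn L Qd s₀ G Z lam₀ v₀ v₁) (hI : s₀.Inv Qd far₀) (j₀ : J) :
    Lbd L s₀ (fam j₀) lam₀ (v₀ (fam j₀)) (v₁ (fam j₀)) where
  conn := fun j _ => hI.conn j
  lab := fun j _ => D.lab j
  one := fun j hj => by rw [← hj]; exact D.one j
  zero := fun j hj => by rw [← hj]; exact D.zero j
  path := ⟨_, D.rope j₀⟩

/-- local finiteness from finiteness on the faces -/
theorem lf_of (hc : ∀ c : Q, {e | e ≤ c ∧ dim e = 1}.Finite)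
    (hf : ∀ e : Q, dim e = 1 → ∃ F, e ≤ L.cf F) {J' : Type} {fam' : J' → C} {s : GSt M fam'}
    (hfin : ∀ F, (s.P ∩ M.On F).Finite) : LF L s := by
  intro c
  have h1 : ({e | e ≤ c ∧ dim e = 1}).Finite := hc c
  refine (h1.biUnion (t := fun e => {w | w ∈ s.P ∧ w ∈ L.W1 ∧ L.ed w = e}) ?_).subset ?_
  · intro e he
    obtain ⟨F, hF⟩ := hf e he.2
    refine (hfin F).subset ?_
    rintro w ⟨h2, h4, h5⟩
    exact ⟨h2, (L.on_iff F w).2 ⟨h4, by rw [h5]; exact hF⟩⟩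
  · rintro w ⟨h2, h4, h5⟩
    rw [mem_iUnion₂]
    exact ⟨L.ed w, ⟨h5, L.ed_dim w h4⟩, h2, h4, rfl⟩

variable {Rel : W → W → Prop} {V : Set W}

/-- **THE FINAL STATE WITH LABELS** over any mesh with labels -/
theorem state_final (hP3 : P3) (D : Dir L O τ) (hpar : WS.HasPar O Rel V)
    (hrefl : ∀ x, Rel x x) (htr : ∀ x y z, Rel x y → Rel y z → Rel x z)
    (hV : ∀ x y, Rel x y → y ∈ V → x ∈ V) (hV1 : V ⊆ L.W1)
    (hR : ∀ x w, Rel x w → w ∈ L.W1 → x ∈ L.W1 ∧ L.ed x = L.ed w)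
    (hc : ∀ c : Q, {e | e ≤ c ∧ dim e = 1}.Finite) (hf : ∀ e : Q, dim e = 1 → ∃ F, e ≤ L.cf F)
    (Qd : Quads ι C K) (κ : C → ℕ) (hκ : ∀ m, {k | dlt Qd κ k = m}.Finite) (s₀ : GSt M fam)
    (far₀ : J → Set W) (h₀ : s₀.Inv Qd far₀) (hP₀ : s₀.P ⊆ V)
    (hfin : ∀ F, (s₀.P ∩ M.On F).Finite) (hfam : ∀ a, {j | fam j = a}.Finite)
    {G : C → Set W} {Z : C → Set Q} {lam₀ : J → Q → ZMod 2} {v₀ v₁ : C → Q}
    (hL : LabIn L Qd s₀ G Z lam₀ v₀ v₁) :
    ∃ (kap : C → ℕ), (∀ c, κ c ≤ kap c) ∧ (∀ c k, Qd.In k c → dlt Qd κ k ≤ kap c) ∧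
      (∀ c, kap c = κ c ∨ ∃ k, Qd.In k c ∧ kap c = dlt Qd κ k) ∧
    ∃ (s : GSt M (fam' fam (fun c => 2 ^ (kap c - κ c))))
      (far : Nm' fam (fun c => 2 ^ (kap c - κ c)) → Set W) (σ : W → ZMod 2) (β : W → W)
      (lam : Nm' fam (fun c => 2 ^ (kap c - κ c)) → Q → ZMod 2),
      s.Inv Qd far ∧ TS s O σ ∧ (∀ j x, x ∈ far j → σ x = sgm L τ s₀ lam₀ (β x)) ∧ s.P ⊆ V ∧
      (∀ F, (s.P ∩ M.On F).Finite) ∧ LF L s ∧
      Cps O Qd Rel s₀ far₀ (sgm L τ s₀ lam₀)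
        (fun y : Nm' fam (fun c => 2 ^ (kap c - κ c)) => y.1) (fun y => (y.2 : ℕ)) s far β ∧
      (∀ E : Set W, (∀ x y, Rel x y → (x ∈ E ↔ y ∈ E)) →
        wsum s (wgt kap) E ≤ wsum s₀ (wgt κ) E) ∧
      (∀ (k : K) (i : Qd.Nm (fam' fam (fun c => 2 ^ (kap c - κ c))) k),
        (s.res Qd k i).Good (Qd.Act k) (s.farK Qd far k) ∧ NoClosed (s.res Qd k i) (Qd.Act k)) ∧
      LabOut L Qd s Z (fun y : Nm' fam (fun c => 2 ^ (kap c - κ c)) => y.1) lam₀ v₀ v₁ lam ∧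
      ∀ y : Nm' fam (fun c => 2 ^ (kap c - κ c)),
        rk L s lam (fin_copies _ hfam) y =
          2 ^ (kap (fam y.1) - κ (fam y.1)) * rk L s₀ lam₀ hfam y.1 + y.2 := by
  have hP0 : ∀ w ∈ s₀.P, w ∈ L.W1 := fun w hw => hV1 (hP₀ hw)
  obtain ⟨kap, h1, h2, h4, s, far, σ, β, hI, hTS, hσ, hPV, hF, hC, hw, hg⟩ :=
    wseq hP3 O hpar hrefl htr hV Qd κ hκ s₀ far₀ h₀ (sgm L τ s₀ lam₀) (ts_of_lab D hL.lab) hP₀
      hfin
  obtain ⟨lam, hlam⟩ := exists_lam hC hR hP0 (fun _ => rfl) h₀ hI hL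
  refine ⟨kap, h1, h2, h4, s, far, σ, β, lam, hI, hTS, hσ, hPV, hF, lf_of hc hf hF, hC, hw, hg,
    hlam, fun y => ?_⟩
  have hface : ∀ w ∈ s₀.P, ∃ F, w ∈ M.On F := by
    intro w hw
    obtain ⟨F, hF⟩ := hf (L.ed w) (L.ed_dim w (hP0 w hw))
    exact ⟨F, (L.on_iff F w).2 ⟨hP0 w hw, hF⟩⟩
  exact rk_copies D hC hR hP0 hface h₀ hI hlam (fun j => hL.lbd h₀ j) hfam y

end gen

section tiling

open Crest.Agent.R096.Msh_715 Crest.Agent.R096.Agl5_543 Crest.Agent.R096.Ori_543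
  Crest.Agent.R096.Lab_184 Crest.Agent.R096.Coh_184 Crest.Agent.R096.Main_4

variable {E : Type} [NormedAddCommGroup E] [NormedSpace ℝ E] [FiniteDimensional ℝ E]
variable {Om : Set E} {ι : Type} {T : Tiling Om ι} [Nonempty T.Cell]

/-- finitely many 1-cells below a cell -/
theorem fin_below_T (c : T.Cell) : {e : T.Cell | e ≤ c ∧ e.dim = 1}.Finite := by
  refine Finite.of_finite_image (f := fun e : T.Cell => e.set) ?_ ?_
  · refine (T.finite_below c.pt_mem).subset ?_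
    rintro _ ⟨e, ⟨he, -⟩, rfl⟩
    refine ⟨⟨e.pt, e.pt_mem, e.set_eq⟩, ?_⟩
    rw [← c.set_eq]
    exact Tiling.Cell.le_def.1 he
  · intro e _ e' _ h
    exact Tiling.Cell.ext h

theorem face_T (h3 : finrank ℝ E = 3) (e : T.Cell) (he : e.dim = 1) :
    ∃ F : C2 T, e ≤ (lmT T h3).cf F := by
  obtain ⟨F, hF⟩ := exists_on h3 e.pt_mem he
  refine ⟨F, ?_⟩
  show e ≤ F.1
  rw [Tiling.Cell.le_def, e.set_eq]
  exact cc_sub_set hF

/-- the cell of a vertex -/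
theorem ed_vtx {v : E} (hv : v ∈ Om) (h0 : T.dim v = 0) :
    (edC T v).pt = v ∧ (edC T v).dim = 0 := by
  have h1 := edC_set (T := T) hv
  rw [T.cc_eq_singleton (T.dim_eq_zero_iff.1 h0)] at h1
  have h2 : (edC T v).pt ∈ (edC T v).set := pt_set _
  rw [h1, mem_singleton_iff] at h2
  refine ⟨h2, ?_⟩
  show T.dim (edC T v).pt = 0
  rw [h2]; exact h0

theorem ed_end {e : T.Cell} (he : e.dim = 1) (b : Bool) : edC T (epE e b) = enC e b := by
  have h1 := (ep_spec he).2.2 b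
  have hO := Crest.Agent.R096.Cm_117.cell_sub e h1.2
  apply Tiling.Cell.ext
  rw [edC_set hO, en_set he, T.cc_eq_singleton (T.dim_eq_zero_iff.1 h1.1)]

/-- steps of the edge path -/
theorem ed_of_edg (h3 : finrank ℝ E = 3) {C K : Type} {Qd : Quads ι C K} {c : C} {v v' : E}
    (h : Edg T {q | Gs_422.CFr Qd c q} v v') :
    Ed (lmT T h3) {e | FrE (lmT T h3) Qd c e} (edC T v) (edC T v') := by
  obtain ⟨w, hw, hd, hcc, q, hq, hqw⟩ := h
  have hw1 : w ∈ W1 T := ⟨hw, hd⟩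
  have hed := edC_dim hw1
  obtain ⟨q1, q2, q3⟩ := ep_spec hed
  have hset := edC_set (T := T) hw
  have m0 : epE (edC T w) false ∈ T.cc w := by rw [← hset]; exact (q3 false).2
  have m1 : epE (edC T w) true ∈ T.cc w := by rw [← hset]; exact (q3 true).2
  have a0 := T.vertex_of_edge hw hd hcc m0 (q3 false).1
  have a1 := T.vertex_of_edge hw hd hcc m1 (q3 true).1
  refine ⟨edC T w, ?_, hed, ?_⟩
  · refine frE_T h3 hed fun k hk => ⟨q, ?_, hq k hk⟩
    rw [hset]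
    exact T.cc_sub_tile hqw
  · rcases a0 with a0 | a0 <;> rcases a1 with a1 | a1
    · exact absurd (a0.trans a1.symm) q1
    · refine ⟨false, ?_, ?_⟩
      · rw [← a0]; exact ed_end hed false
      · rw [← a1]; exact ed_end hed true
    · refine ⟨true, ?_, ?_⟩
      · rw [← a1]; exact ed_end hed true
      · rw [← a0]; exact ed_end hed false
    · exact absurd (a0.trans a1.symm) q1

theorem path_of_edg (h3 : finrank ℝ E = 3) {C K : Type} {Qd : Quads ι C K} {c : C} {v v' : E}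
    (h : ReflTransGen (Edg T {q | Gs_422.CFr Qd c q}) v v') :
    ReflTransGen (Ed (lmT T h3) {e | FrE (lmT T h3) Qd c e}) (edC T v) (edC T v') := by
  induction h with
  | refl => exact .refl
  | tail _ hs ih => exact ih.tail (ed_of_edg h3 hs)

theorem gp_even_T (h3 : finrank ℝ E = 3) {C J : Type} {fam : J → C} (s : GSt (meshC T h3) fam)
    (j : J) : gp s j = gPts s j := by
  ext w
  rw [mem_gp, mem_gPts]

/-- labels of a tiling -/
theorem glab_of_isLab (h3 : finrank ℝ E = 3) {Y : Finset E} {lam : E → ZMod 2}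
    (hY : ∀ w ∈ Y, w ∈ W1 T) (h : IsLab T Y lam) :
    GLab (lmT T h3) Y (fun v => lam v.pt) := by
  classical
  intro e he
  have hd : e.dim = 1 := he
  obtain ⟨q1, q2, q3⟩ := ep_spec hd
  show lam (enC e false).pt + lam (enC e true).pt = _
  rw [en_pt hd, en_pt hd, h e.pt e.pt_mem hd _ _ (e.set_eq.symm.trans q2), nW_card, ← e.set_eq]
  congr 2
  ext w
  simp only [Finset.mem_filter]
  constructor
  · rintro ⟨a1, a2⟩
    exact ⟨a1, hY w a1, (edC_eq (hY w a1) hd).2 a2⟩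
  · rintro ⟨a1, a2⟩
    exact ⟨a1, (edC_eq (hY w a1) hd).1 a2.2⟩

/-- **the label data of a tiling give the label data over `lmT`** -/
theorem labIn_T (h3 : finrank ℝ E = 3) {C K J : Type} {fam : J → C} {Qd : Quads ι C K}
    {s₀ : GSt (meshC T h3) fam} {D : C → Set E} {lam₀ : J → E → ZMod 2} {v₀ v₁ : C → E}
    (hP0 : ∀ w ∈ s₀.P, w ∈ W1 T) (H : Gs_422.LabIn Qd s₀ D lam₀ v₀ v₁) :
    LabIn (lmT T h3) Qd s₀ (fun c => GT T (D c)) (fun c => ZT T (D c))
      (fun j v => lam₀ j v.pt) (fun c => edC T (v₀ c)) (fun c => edC T (v₁ c)) := by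
  classical
  have hend : ∀ j, (v₀ (fam j) ∈ Om ∧ T.dim (v₀ (fam j)) = 0) ∧
      (v₁ (fam j) ∈ Om ∧ T.dim (v₁ (fam j)) = 0) := by
    intro j
    have hne : v₀ (fam j) ≠ v₁ (fam j) := by
      intro h
      have h1 := H.one j
      rw [h, H.zero j] at h1
      exact absurd h1 (by decide)
    have key : ∀ {v v' : E}, Edg T {q | Gs_422.CFr Qd (fam j) q} v v' →
        (v ∈ Om ∧ T.dim v = 0) ∧ (v' ∈ Om ∧ T.dim v' = 0) := by
      rintro v v' ⟨w, hw, hd, hcc, -⟩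
      obtain ⟨-, d1, d2, -⟩ := ends_of_segment hw hd hcc
      have hO := T.cc_sub_Om hw
      rw [hcc] at hO
      exact ⟨⟨hO (left_mem_segment ℝ _ _), d1⟩, ⟨hO (right_mem_segment ℝ _ _), d2⟩⟩
    constructor
    · rcases ReflTransGen.cases_head (H.rope j) with h | ⟨v, h, -⟩
      · exact absurd h hne
      · exact (key h).1
    · rcases ReflTransGen.cases_tail (H.rope j) with h | ⟨v, -, h⟩
      · exact absurd h.symm hne
      · exact (key h).2
  refine ⟨?_, ?_, ?_, ?_, ?_, ?_, ?_, ?_, ?_⟩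
  · intro j
    exact hasLab_T h3 (H.cpt j) (H.sub j) (H.fr j) (H.triv j)
  · intro j w hw x hx he
    exact gt_sat hw hx he
  · intro w hw
    exact ⟨hP0 w hw, fun q hq => H.supp w hw q hq⟩
  · intro j k hk w hw hint
    exact ⟨hw, fun q hq => H.act j k hk q ((int_T h3 hw).1 hint q hq)⟩
  · intro j
    rw [gp_even_T]
    exact glab_of_isLab h3 (fun w hw => hP0 w (mem_gPts.1 hw).1) (H.lab j)
  · intro j
    show lam₀ j (edC T (v₀ (fam j))).pt = 1
    rw [(ed_vtx (hend j).1.1 (hend j).1.2).1]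
    exact H.one j
  · intro j
    show lam₀ j (edC T (v₁ (fam j))).pt = 0
    rw [(ed_vtx (hend j).2.1 (hend j).2.2).1]
    exact H.zero j
  · intro j
    obtain ⟨q, hq, hqD⟩ := H.far j
    refine ⟨q, ?_, hqD⟩
    rw [(ed_vtx (hend j).2.1 (hend j).2.2).1]
    exact hq
  · intro j
    exact path_of_edg h3 (H.rope j)

end tiling

end Crest.Agent.R096.Gl_422
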