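import Crest.Agent.R096.Lm6_117
import Crest.Agent.R096.Lm3_117
import Crest.Agent.R096.Lm2_117

/-!
# R096 (row 96), LMesh, part 7: 2-cells and 3-cells of tilings and merged meshes, `CmbG` for the CMB
of a tiling, the order of the crossing points of an edge (helper117)
-/

set_option autoImplicit false
set_option linter.unusedSectionVars false

open Set Topology Filter Metric Module

namespace Crest.Agent.R096.Lm_117

open Crest.Agent.R096.St_147 Crest.Agent.R096.Ac_117 Crest.Agent.R096.Seq_213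
open Crest.Agent.R096.Bd_416 (Cmb)
open Crest.Agent.R096.Arc_778 (Blw CmbG)
open Crest.Agent.R096.Msh_715 Crest.Agent.R096.Lab_184 Crest.Agent.R096.Agl5_543
  Crest.Agent.R096.Pat5_543 Crest.Agent.R096.Coh_184

section tiling

variable {E : Type} [NormedAddCommGroup E] [NormedSpace ℝ E]
variable {Om : Set E} {ι : Type} {T : Tiling Om ι} [FiniteDimensional ℝ E]
variable (h3 : finrank ℝ E = 3)

include h3 in
/-- a cell of dimension three is a tile -/
lemma tile_of_dim {c : T.Cell} (hc : c.dim = 3) : ∃ q, c.set = Msh_715.P (T.H q) ∧ c.pt ∈ Msh_715.I (T.H q) := by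
  have hV : T.V c.pt = ⊤ := by
    apply Submodule.eq_top_of_finrank_eq
    rw [h3]; exact hc
  obtain ⟨i, hi⟩ := (T.V_eq_top_iff c.pt_mem).1 hV
  exact ⟨i, by rw [c.set_eq]; exact T.cc_eq_tile hi, hi⟩

/-- **2-cells and 3-cells of a tiling** -/
theorem top3T [Nonempty T.Cell] : Top3 (lmT T h3) where
  dim_le c := by rw [← h3]; exact T.dim_le_finrank c.pt
  cf_sur c hc := ⟨⟨c, hc⟩, rfl⟩
  tile c hc := by
    obtain ⟨q, h1, -⟩ := tile_of_dim h3 hc
    refine ⟨q, fun F => ⟨fun h => ?_, fun h => ?_⟩⟩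
    · show F.set ⊆ c.set
      exact Cm_117.face_sub h1 h
    · exact Cm_117.face_side' h1 h
  mid c hc e he hec := by
    obtain ⟨q, h1, -⟩ := tile_of_dim h3 hc
    have h2 : e.pt ∈ c.set := Tiling.Cell.le_def.1 hec.le (pt_set e)
    obtain ⟨x₁, hx1, x₂, hx2, hd1, hd2, hq1, hq2, hp1, hp2, hne, huniq⟩ :=
      Agl3_543.two_cells T h3 e.pt_mem he (show q ∈ T.at_ e.pt from by rw [T.mem_at, ← h1]; exact h2)
    refine ⟨mk2 T hx1 hd1, ?_, ?_⟩
    · show e.set ⊆ T.cc x₁
      rw [e.set_eq]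
      exact T.cc_sub_of_mem hp1
    · show T.cc x₁ ⊆ c.set
      rw [h1]
      exact T.cc_sub_tile hq1

variable {h3} {J C : Type} {fam : J → C} {s : GSt (meshC T h3) fam}

open Classical in
/-- the partner on a 2-cell -/
noncomputable def muT (s : GSt (meshC T h3) fam) (c : T.Cell) (w : E) : E :=
  if h : c.dim = 2 then s.mu ⟨c, h⟩ w else w

lemma muT_eq {c : T.Cell} (h : c.dim = 2) (w : E) : muT s c w = s.mu ⟨c, h⟩ w := by
  unfold muT; rw [dif_pos h]

/-- invariants of the pieces -/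
lemma quot_invT {c : T.Cell} (p : E → Prop)
    (hp : ∀ (F : C2 T), F.set ⊆ c.set → ∀ w ∈ s.P, w ∈ (meshC T h3).On F → p w → p (s.mu F w))
    {a b : Cm_117.Pt s c} (hab : (Quot.mk _ a : Cm_117.Pc s c) = Quot.mk _ b) (ha : p a.1) :
    p b.1 := by
  let g : Cm_117.Pc s c → Prop := Quot.lift (fun a => p a.1) (by
    rintro a b ⟨F, hF, haF, hb⟩
    have haF' := Cm_117.mem_On (h3 := h3) haF a.2.2.2
    apply propext
    constructor
    · intro h
      rw [hb]
      exact hp F hF a.1 a.2.1 haF' h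
    · intro h
      have hm := s.mu_mem a.2.1 haF'
      rw [hb] at h
      have := hp F hF _ hm.1 hm.2 h
      rwa [s.mu_mu a.2.1 haF'] at this)
  have h1 : g (Quot.mk _ a) = p a.1 := rfl
  have h2 : g (Quot.mk _ b) = p b.1 := rfl
  rw [← h2, ← hab, h1]
  exact ha

variable (h : Cm_117.LF s) (hon : ∀ w ∈ s.P, w ∈ Om ∧ T.dim w = 1) (Lam : J → E → ZMod 2)
    (hLam : ∀ j, ∀ e ∈ Om, T.dim e = 1 → ∀ a b, T.cc e = segment ℝ a b →
      Lam j a + Lam j b = (((gPts s j : Set E) ∩ T.cc e).ncard : ZMod 2))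

/-- **the pieces of `cmb` are classes of points** -/
noncomputable def pdT [Nonempty T.Cell] : PD (Cm_117.cmb h hon Lam hLam) E where
  A c := {w | w ∈ s.P ∧ w ∈ c.set ∧ T.dim w = 1}
  cls c w := Quot.mk _ w
  sur c := Quot.mk_surjective
  mono hpq w hw := ⟨hw.1, hpq hw.2.1, hw.2.2⟩
  up h w := rfl
  ed := edC T
  ed_dim c w hw := edC_dim ⟨(hon w hw.1).1, hw.2.2⟩
  ed_le c w hw := (edC_le (hon w hw.1).1).2 hw.2.1
  ed_mem c w hw := ⟨hw.1, (edC_eq ⟨(hon w hw.1).1, hw.2.2⟩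
    (edC_dim ⟨(hon w hw.1).1, hw.2.2⟩)).1 rfl, hw.2.2⟩
  inj e he w w' hww := by
    apply Subtype.ext
    have := quot_invT (s := s) (c := e) (fun x => x = w.1) (by
      intro F hF
      exfalso
      have h4 := Cm_117.cell_dim_set e (hF (by
        show F.pt ∈ F.set
        rw [F.set_eq]; exact T.self_mem_cc _))
      rw [he, F.dim_pt] at h4
      omega) hww rfl
    exact this.symm
  mu := muT s
  mu_mem c hc w hw := by
    rw [muT_eq hc]
    have := s.mu_mem hw.1 (Cm_117.mem_On (F := ⟨c, hc⟩) (h3 := h3) hw.2.1 hw.2.2)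
    exact ⟨this.1, this.2.1, this.2.2⟩
  mu_ne c hc w hw := by
    rw [muT_eq hc]
    exact s.mu_ne hw.1 (Cm_117.mem_On (F := ⟨c, hc⟩) (h3 := h3) hw.2.1 hw.2.2)
  mu_mk c hc w hw := by
    refine (Quot.sound (r := Cm_117.Rel s c) ?_).symm
    exact ⟨(⟨c, hc⟩ : C2 T), Subset.refl _, hw.2.1, muT_eq hc w⟩
  two c hc w w' hww := by
    rw [muT_eq hc]
    have hwF := Cm_117.mem_On (F := ⟨c, hc⟩) (h3 := h3) w.2.2.1 w.2.2.2
    refine quot_invT (s := s) (c := c) (fun x => x = w.1 ∨ x = s.mu ⟨c, hc⟩ w.1) ?_ hww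
      (Or.inl rfl)
    intro G hG u hu huG hh
    have hGF : G = (⟨c, hc⟩ : C2 T) := by
      apply Subtype.ext
      by_contra hne
      have := Cm_117.dim_lt_cell (lt_of_le_of_ne (show G.1 ≤ c from hG) hne)
      rw [G.2, hc] at this
      exact lt_irrefl _ this
    subst hGF
    rcases hh with rfl | rfl
    · exact Or.inr rfl
    · left
      exact s.mu_mu w.2.1 hwF
  ind c hc S hS w w' hww hw := by
    refine quot_invT (s := s) (c := c) (fun x => x ∈ S) ?_ hww hw
    intro F hF u hu huF huS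
    have h1 := hS F.1 F.2 (lt_of_le_of_ne hF fun h => by
      have := F.2
      rw [h, hc] at this
      omega) u ⟨hu, huF.1, huF.2⟩ huS
    rwa [muT_eq F.2] at h1
  dim_lt _ _ h := Cm_117.dim_lt_cell h

/-- **`CmbG` for `cmb` over a tiling** -/
theorem cmbG_T {R : Set T.Cell} {k : ∀ q, (Cm_117.cmb h hon Lam hLam).I q → ℕ}
    (hk : ∀ q ∉ R, q.dim = 1 → Function.Injective (k q)) :
    CmbG (Cm_117.cmb h hon Lam hLam) R k := by
  by_cases hne : Nonempty T.Cell
  · exact (pdT h hon Lam hLam).cmbG (top3T h3).dim_le hk (by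
      intro q _ hq e he heq ⟨y⟩
      obtain ⟨w, -⟩ := Quot.exists_rep y
      have hw1 : w.1 ∈ W1 T := ⟨(hon w.1 w.2.1).1, w.2.2.2⟩
      have h1 : edC T w.1 = e := (edC_eq hw1 he).2 w.2.2.1
      rw [← h1] at heq ⊢
      exact two_faces (top3T h3) hq hw1 heq)
  · exact ⟨fun q => (hne ⟨q⟩).elim, fun q => (hne ⟨q⟩).elim, fun q => (hne ⟨q⟩).elim,
      fun q => (hne ⟨q⟩).elim⟩

end tiling

/-! ### the order of the crossing points of an edge -/

section edge

variable {ι Φ W Q J C : Type} {M : MeshC ι Φ W} [PartialOrder Q] {dim : Q → ℕ}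
variable {L : LM M Q dim} {fam : J → C} {s : GSt M fam}

open Classical in
/-- the position of a point of an edge, seen from the base vertex -/
noncomputable def tt (L : LM M Q dim) (c : Q) (w : W) : ℝ :=
  if bv L.toSk c = L.en c false then L.t w else - L.t w

/-- order number of a crossing point of an edge, seen from the base vertex -/
noncomputable def ek (h : LF L s) (c : Q) (x : Pc L s c) : ℕ :=
  Set.ncard {y : Pc L s c | tt L c (rep h y) < tt L c (rep h x)}

lemma ek_lt (h : LF L s) (c : Q) {x x' : Pc L s c}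
    (hd : tt L c (rep h x') < tt L c (rep h x)) : ek h c x' < ek h c x := by
  have := h.pc c
  refine Set.ncard_lt_ncard ?_ (Set.toFinite _)
  refine ⟨fun y hy => lt_trans hy hd, fun hc => ?_⟩
  have h1 : tt L c (rep h x') < tt L c (rep h x') := hc hd
  exact lt_irrefl _ h1

lemma rep_inj (h : LF L s) (c : Q) {x x' : Pc L s c} (he : rep h x = rep h x') : x = x' :=
  pts_disj (rep_mem h x) (he ▸ rep_mem h x')

lemma rep_on (h : LF L s) {c : Q} (hc : dim c = 1) (x : Pc L s c) :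
    rep h x ∈ L.W1 ∧ L.ed (rep h x) = c := by
  have h1 := (pts_in (rep_mem h x)).2
  exact ⟨h1.1, eq_of_dim L.toSk h1.2 (by rw [hc, L.ed_dim _ h1.1])⟩

lemma tt_inj (h : LF L s) {c : Q} (hc : dim c = 1) {x x' : Pc L s c}
    (ht : tt L c (rep h x) = tt L c (rep h x')) : x = x' := by
  obtain ⟨a1, a2⟩ := rep_on h hc x
  obtain ⟨b1, b2⟩ := rep_on h hc x'
  apply rep_inj h c
  apply L.t_inj _ a1 _ b1 (a2.trans b2.symm)
  unfold tt at ht
  by_cases h1 : bv L.toSk c = L.en c false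
  · rw [if_pos h1, if_pos h1] at ht; exact ht
  · rw [if_neg h1, if_neg h1] at ht; exact neg_injective ht

lemma ek_lt_iff (h : LF L s) (c : Q) (hc : dim c = 1) {x x' : Pc L s c} :
    ek h c x' < ek h c x ↔ tt L c (rep h x') < tt L c (rep h x) := by
  refine ⟨fun hk => ?_, ek_lt h c⟩
  by_contra hd
  rcases (not_lt.1 hd).lt_or_eq with h1 | h1
  · exact absurd (ek_lt h c h1) (not_lt.2 hk.le)
  · rw [tt_inj h hc h1] at hk
    exact lt_irrefl _ hk

/-- **the order numbers are injective** -/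
theorem ek_inj (h : LF L s) (c : Q) (hc : dim c = 1) : Function.Injective (ek h c) := by
  intro x x' he
  by_contra hne
  have h1 : tt L c (rep h x) ≠ tt L c (rep h x') := fun hd => hne (tt_inj h hc hd)
  rcases lt_or_gt_of_ne h1 with h2 | h2
  · exact absurd he (ek_lt h c h2).ne
  · exact absurd he (ek_lt h c h2).ne'

/-- **sides on an edge = order** (for all pairs of crossing points) -/
theorem nlw_edge (h : LF L s) (c : Q) (hc : dim c = 1) {x x' : Pc L s c} (hne : x ≠ x') :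
    nlw h c x' (rep h x) = if ek h c x' < ek h c x then 1 else 0 := by
  classical
  obtain ⟨a1, a2⟩ := rep_on h hc x
  obtain ⟨b1, b2⟩ := rep_on h hc x'
  have hlt := ek_lt_iff h c hc (x := x) (x' := x')
  have hne' : L.t (rep h x') ≠ L.t (rep h x) := fun ht =>
    hne (rep_inj h c (L.t_inj _ a1 _ b1 (a2.trans b2.symm) ht.symm))
  have h1 := nl_xl h c x' c le_rfl hc
  have h2 : nW (pts h c x') (L.toSk.On1 c) = 1 :=
    nW_one (rep_mem h x') ⟨b1, b2⟩ (fun w' hw' _ => pts_edge hc x' hw' (rep_mem h x'))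
  rw [h2] at h1
  have h0 := nl_bv h c x'
  have hp : L.toSk.pre (pts h c x') (rep h x) =
      if L.t (rep h x') < L.t (rep h x) then 1 else 0 := by
    by_cases ht : L.t (rep h x') < L.t (rep h x)
    · rw [if_pos ht]
      exact nW_one (rep_mem h x') ⟨b1, b2.trans a2.symm, ht⟩
        (fun w' hw' _ => pts_edge hc x' hw' (rep_mem h x'))
    · rw [if_neg ht]
      refine nW_empty fun w hw h' => ht ?_
      rw [pts_edge hc x' (rep_mem h x') hw]
      exact h'.2.2
  unfold nlw Sk.ext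
  rw [a2, hp]
  have hbc : bv L.toSk c < c := by
    refine lt_of_le_of_ne (bv_le L.toSk c) (fun h' => ?_)
    have := bv_dim L.toSk c
    rw [h'] at this
    omega
  by_cases hb : bv L.toSk c = L.en c false
  · rw [← hb, h0, zero_add]
    unfold tt at hlt
    rw [if_pos hb, if_pos hb] at hlt
    by_cases ht : L.t (rep h x') < L.t (rep h x)
    · rw [if_pos ht, if_pos (hlt.2 ht)]
    · rw [if_neg ht, if_neg (fun h' => ht (hlt.1 h'))]
  · have hb' : bv L.toSk c = L.en c true := by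
      rcases L.en_all c hc _ hbc with e | e
      · exact absurd e hb
      · exact e
    rw [← hb', h0, add_zero] at h1
    rw [h1]
    unfold tt at hlt
    rw [if_neg hb, if_neg hb, neg_lt_neg_iff] at hlt
    by_cases ht : L.t (rep h x') < L.t (rep h x)
    · rw [if_pos ht, if_neg (fun h' => lt_asymm ht (hlt.1 h'))]
      decide
    · rw [if_neg ht, if_pos (hlt.2 (lt_of_le_of_ne (not_lt.1 ht) (Ne.symm hne')))]
      decide

variable (h : LF L s) (Lam : J → Q → ZMod 2) (hLam : ∀ j c, L.toSk.XL (gP s j) (Lam j) c)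

/-- **the hypothesis `ord` of `mesh_cone` for `cmb`** -/
theorem cmb_ord (c : Q) (hc : dim c = 1) (x x' : Pc L s c) (hne : x ≠ x') :
    (ek h c x' < ek h c x → (cmb h Lam hLam).side c x x' = 1) ∧
      (ek h c x < ek h c x' → (cmb h Lam hLam).side c x x' = 0) := by
  have h1 : (cmb h Lam hLam).side c x x' = nlw h c x' (rep h x) := rfl
  rw [h1, nlw_edge h c hc hne]
  exact ⟨fun hk => if_pos hk, fun hk => if_neg (not_lt.2 hk.le)⟩

end edge

/-! ### subcomplexes -/

section sub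

variable {ι Φ W Q ι' Φ' : Type} {M : MeshC ι Φ W} [PartialOrder Q] {dim : Q → ℕ}

/-- 2-cells and 3-cells of a subcomplex -/
theorem Top3.sub {L : LM M Q dim} (X : Top3 L) (p : Q → Prop) (hp : ∀ c d, c ≤ d → p d → p c)
    (hne : ∃ c, p c) (M' : MeshC ι' Φ' W) (φ : Φ' → Φ) (hφ : Function.Injective φ)
    (hOn : ∀ F, M'.On F = M.On (φ F)) (hpos : ∀ F, M'.pos F = M.pos (φ F))
    (hcf : ∀ F, p (L.cf (φ F))) (hall : ∀ F, p (L.cf F) → ∃ F', φ F' = F)
    (htile : ∀ c, p c → dim c = 3 → ∀ q, (∀ F, q ∈ M.side F ↔ L.cf F ≤ c) →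
      ∃ q' : ι', ∀ F', q' ∈ M'.side F' ↔ q ∈ M.side (φ F')) :
    Top3 (L.sub p hp hne M' φ hφ hOn hpos hcf hall) where
  dim_le c := X.dim_le c.1
  cf_sur c hc := by
    obtain ⟨F, hF⟩ := X.cf_sur c.1 hc
    obtain ⟨F', rfl⟩ := hall F (by rw [hF]; exact c.2)
    exact ⟨F', Subtype.ext hF⟩
  tile c hc := by
    obtain ⟨q, hq⟩ := X.tile c.1 hc
    obtain ⟨q', hq'⟩ := htile c.1 c.2 hc q hq
    exact ⟨q', fun F => (hq' F).trans (hq _)⟩
  mid c hc e he hec := by
    obtain ⟨F, h1, h2⟩ := X.mid c.1 hc e.1 he hec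
    obtain ⟨F', rfl⟩ := hall F (hp _ _ h2 c.2)
    exact ⟨F', h1, h2⟩

/-- **2-cells and 3-cells of a merged mesh** -/
theorem Top3.merge {L : LM M Q dim} (X : Top3 L) (ci : ι → Q)
    (hci : ∀ F q, q ∈ M.side F ↔ L.cf F ≤ ci q) (hc3 : ∀ q, dim (ci q) = 3) (π : ι → ι')
    (h : ∀ k w, ConnAt M (π ⁻¹' {k}) w) (hne : ∃ q, Ordi π q)
    (hadj : ∀ F, ¬ ((M.side F).map π).IsDiag → ∃ q ∈ M.side F, Ordi π q) :
    Top3 (L.merge ci hci π h hne hadj) := by
  refine X.sub _ _ _ _ _ _ _ _ _ _ ?_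
  rintro c ⟨q0, h1, h2⟩ hc q hq
  have h4 : c = ci q0 := eq_of_dim L.toSk h2 (by rw [hc3, hc])
  refine ⟨π q0, fun F' => ?_⟩
  rw [ordi_side h1, hci, hq, h4]

end sub

end Crest.Agent.R096.Lm_117
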