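import Crest.Agent.R096.SkB1_662
import Crest.Agent.R096.Gs3_422
import Crest.Agent.R096.Gl7_422
import Crest.Agent.R096.Gl9_422
import Crest.Agent.R096.Cp11_298
import Crest.Agent.R096.Lm7_117

/-!
# R096 (row 96), STATE HALF, cut 2 (helper662): the input `StI` over the mesh of a tiling

`stI_T` : the input of `SkB_662.exists_out` over `lmT T h3` from the label data of a tiling
(`Gs_422.LabIn`, `Gl_422.labIn_T`).
-/

set_option autoImplicit false
set_option linter.style.longLine false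
set_option linter.unusedSectionVars false

open Set Relation Module

namespace Crest.Agent.R096.SkB_662

open Crest.Agent.R096.St_147 Crest.Agent.R096.Lm_117 Crest.Agent.R096.Ac_117
  Crest.Agent.R096.Cp_298 Crest.Agent.R096.Msh_715 Crest.Agent.R096.Agl5_543
  Crest.Agent.R096.Ori_543 Crest.Agent.R096.Seq_213 Crest.Agent.R096.Lab_184
  Crest.Agent.R096.Coh_184 Crest.Agent.R096.Gl_422 Crest.Agent.R096.Main_4

variable {E : Type} [NormedAddCommGroup E] [NormedSpace ℝ E] [FiniteDimensional ℝ E]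
variable {Om : Set E} {ι : Type} {T : Tiling Om ι} [Nonempty T.Cell]

/-- the cell of a vertex -/
theorem edC_vertex {v : E} (hv : v ∈ Om) (hd : T.dim v = 0) :
    (edC T v).dim = 0 ∧ (edC T v).pt = v := by
  have h1 : (edC T v).set = {v} := by
    rw [edC_set hv, T.cc_eq_singleton (T.dim_eq_zero_iff.1 hd)]
  have h2 : (edC T v).pt = v := by
    have := pt_set (edC T v)
    rwa [h1] at this
  refine ⟨?_, h2⟩
  show T.dim (edC T v).pt = 0
  rw [h2, hd]

/-- the ends of the 1-cell of a segment -/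
theorem ed_of_edg {W : Set ι} {v v' : E} (h : Edg T W v v') {Z : Set T.Cell}
    (hZ : ∀ e : T.Cell, e.dim = 1 → (∃ i ∈ W, e.set ⊆ Msh_715.P (T.H i)) → e ∈ Z)
    (h3 : finrank ℝ E = 3) : Ed (lmT T h3) Z (edC T v) (edC T v') := by
  obtain ⟨w, hw, hd, hseg, i, hi, hiw⟩ := h
  have hwW : w ∈ W1 T := ⟨hw, hd⟩
  set e := edC T w with he
  have hed : e.dim = 1 := edC_dim hwW
  have hes : e.set = segment ℝ v v' := by rw [he, edC_set hw, hseg]
  obtain ⟨a1, a2, a3, a4⟩ := ends_of_segment hw hd hseg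
  have hvO : v ∈ Om := T.cc_sub_Om hw (by rw [hseg]; exact left_mem_segment ℝ v v')
  have hvO' : v' ∈ Om := T.cc_sub_Om hw (by rw [hseg]; exact right_mem_segment ℝ v v')
  have key : ∀ {u : E}, u ∈ Om → T.dim u = 0 → u ∈ e.set → ∃ b, edC T u = enC e b := by
    intro u hu hu0 hue
    have h1 := edC_vertex hu hu0
    have hle : edC T u ≤ e := (edC_le hu).2 hue
    have hlt : edC T u < e := lt_of_le_of_ne hle (fun h => by
      have h2 := h1.1
      rw [h, hed] at h2
      exact absurd h2 (by norm_num))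
    rcases (skT T).en_all e hed _ hlt with h2 | h2
    · exact ⟨false, h2⟩
    · exact ⟨true, h2⟩
  obtain ⟨b, hb⟩ := key hvO a2 (by rw [hes]; exact left_mem_segment ℝ v v')
  obtain ⟨b', hb'⟩ := key hvO' a3 (by rw [hes]; exact right_mem_segment ℝ v v')
  have hne : b' ≠ b := by
    rintro rfl
    apply a1
    rw [← (edC_vertex hvO a2).2, ← (edC_vertex hvO' a3).2, hb, hb']
  have hb2 : b' = !b := by
    cases b <;> cases b' <;> simp_all
  refine ⟨e, hZ e hed ⟨i, hi, ?_⟩, hed, b, hb, ?_⟩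
  · rw [he, edC_set hw]
    exact T.cc_sub_tile (x := w) (T.mem_at.1 hiw)
  · rw [hb', hb2]
    rfl

theorem path_of_edg {W : Set ι} {v v' : E} (h : ReflTransGen (Edg T W) v v') {Z : Set T.Cell}
    (hZ : ∀ e : T.Cell, e.dim = 1 → (∃ i ∈ W, e.set ⊆ Msh_715.P (T.H i)) → e ∈ Z)
    (h3 : finrank ℝ E = 3) : ReflTransGen (Ed (lmT T h3) Z) (edC T v) (edC T v') := by
  induction h with
  | refl => exact .refl
  | tail _ hs ih => exact ih.tail (ed_of_edg hs hZ h3)

variable {J C K : Type} {fam : J → C} {h3 : finrank ℝ E = 3}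

/-- labels at the points of `E` are labels over `lmT` -/
theorem gLab_T {s : GSt (meshC T h3) fam} (hon : ∀ w ∈ s.P, w ∈ Om ∧ T.dim w = 1) {j : J}
    {lam : E → ZMod 2} (h : IsLab T (gPts s j) lam) :
    GLab (lmT T h3) (gp s j) (fun v => lam v.pt) := by
  classical
  intro e he
  change lam (enC e false).pt + lam (enC e true).pt = nW (gp s j) ((skT T).On1 e)
  have h1 : T.cc e.pt = segment ℝ (epE e false) (epE e true) := by
    rw [← e.set_eq]; exact (ep_spec he).2.1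
  have hO : e.pt ∈ Om := Cm_117.cell_sub e (pt_set e)
  rw [en_pt he, en_pt he, h e.pt hO he _ _ h1, nW_card]
  congr 1
  have h2 : (gPts s j).filter (fun u => u ∈ T.cc e.pt) =
      (gp s j).filter (fun u => u ∈ (skT T).On1 e) := by
    ext u
    rw [Finset.mem_filter, Finset.mem_filter, mem_gPts, mem_gp]
    refine and_congr_right fun hu => ?_
    have hu1 : u ∈ W1 T := hon u hu.1
    rw [← e.set_eq, ← edC_eq hu1 he]
    exact ⟨fun h => ⟨hu1, h⟩, fun h => h.2⟩
  rw [h2]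

/-- the candidate points of a cell lie on finitely many faces -/
theorem loc_T (h3 : finrank ℝ E = 3) (c : T.Cell) : ∃ S : Finset (C2 T), ∀ w ∈ Cp_298.VM T,
    (lmT T h3).ed w ≤ c → ∃ F ∈ S, w ∈ (meshC T h3).On F := by
  have h1 : {i : T.Cell | (i.set ∩ c.set).Nonempty}.Finite :=
    T.cplx.finite_meet (T.cplx.isCompact c) (T.cplx.sub c)
  have h2 : {F : C2 T | (F.set ∩ c.set).Nonempty}.Finite :=
    h1.preimage (f := fun F : C2 T => F.1) (fun _ _ _ _ e => Subtype.ext e)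
  refine ⟨h2.toFinset, fun w hw hwc => ?_⟩
  obtain ⟨F, hwF⟩ := exists_on h3 hw.1 hw.2
  have hwc' : w ∈ c.set := (edC_le hw.1).1 hwc
  exact ⟨F, h2.mem_toFinset.2 ⟨w, hwF.1, hwc'⟩, hwF⟩

/-- points of one open mesh edge have the same 1-cell -/
theorem rel_T (h3 : finrank ℝ E = 3) : ∀ x w, RelM T x w → (x ∈ (lmT T h3).W1 ∨ w ∈ (lmT T h3).W1) →
    x ∈ (lmT T h3).W1 ∧ w ∈ (lmT T h3).W1 ∧ (lmT T h3).ed x = (lmT T h3).ed w := by
  rintro x w (rfl | ⟨hw, hx⟩) h
  · have h' : x ∈ (lmT T h3).W1 := h.elim id id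
    exact ⟨h', h', rfl⟩
  · have hxW : x ∈ W1 T := RelM.mem (Or.inr ⟨hw, hx⟩) hw
    refine ⟨hxW, hw, ?_⟩
    change edC T x = edC T w
    rw [edC_eq hxW (edC_dim hw), edC_set hw.1]
    exact T.oc_sub_cc _ hx

/-- **the input of the state half for the mesh of a tiling** -/
theorem stI_T {Qd : Quads ι C K} {κ : C → ℕ} {s₀ : GSt (meshC T h3) fam} {far₀ : J → Set E}
    {D : C → Set E} {lam₀ : J → E → ZMod 2} {v₀ v₁ : C → E}
    (hκ : ∀ m, {c | κ c ≤ m}.Finite) (hI : s₀.Inv Qd far₀)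
    (hon : ∀ w ∈ s₀.P, w ∈ Om ∧ T.dim w = 1) (hfin : ∀ F : C2 T, (s₀.P ∩ F.On).Finite)
    (hJ : ∀ a, {j | fam j = a}.Finite) (h : Gs_422.LabIn Qd s₀ D lam₀ v₀ v₁) :
    StI (lmT T h3) (oriM h3) (tauT T) (RelM T) (Cp_298.VM T) Qd κ s₀ far₀
      (fun c => GT T (D c)) (fun c => ZT T (D c)) (fun j v => lam₀ j v.pt)
      (fun c => edC T (v₀ c)) (fun c => edC T (v₁ c)) where
  top := top3T h3
  dir := dirT h3
  par := hasParM h3
  refl := RelM.refl
  trans := fun _ _ _ => RelM.trans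
  memV := fun _ _ => RelM.mem
  rel := fun x w h hw => ⟨(rel_T h3 x w h (Or.inr hw)).1, (rel_T h3 x w h (Or.inr hw)).2.2⟩
  V1 := fun _ hw => hw
  VF := fun _ hw => exists_on h3 hw.1 hw.2
  loc := loc_T h3
  lf := hκ
  inv := hI
  PV := hon
  fin := hfin
  finJ := hJ
  lab := Gl_422.labIn_T h3 hon h

end Crest.Agent.R096.SkB_662
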