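import Crest.Agent.R096.Sla5_184

/-!
# Row 96, DOORS, leaf SLC in the format of `Mbf_337.Tiny` (helper184), part 6: **the term `Cols`** of
`Door6_501`.

* `S.col h3 c`  : the `n c` layers over the shell of the outer core `c`;
* `S.cols h3`   : the inner mesh (cores `S.KK c` of the sliced tiling `S.T3`) is obtained from the
  outer mesh (cores `S.K c` of the tiling `T`) by inserting the layers.
-/

set_option autoImplicit false
set_option linter.unusedSectionVars false

open Set Filter Topology Metric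
open scoped Classical

namespace Crest.Agent.R096.Sla_184

open Crest.Agent.R096.Msh_715 Crest.Agent.R096.Agl5_543 Crest.Agent.R096.St_147
  Crest.Agent.R096.Lac_441 Crest.Agent.R096.Slc_184

variable {E : Type} [NormedAddCommGroup E] [NormedSpace ℝ E] [FiniteDimensional ℝ E]
variable {Om : Set E} {ι : Type}

namespace Sla

variable {T : Tiling Om ι} {κ : Type}

/-- **the layers over the shell of the core `c`** -/
noncomputable def col (S : Sla T κ) (h3 : Module.finrank ℝ E = 3) (c : κ) :
    Door_501.Col (S.mn h3) (Sum.inr c) (S.sh h3 c) (S.n c) where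
  cl G j := Sum.inl (tg G j)
  hf G j := hf G j
  vf e j := vf h3 e j
  hp j w := S.hp c j w
  vp j v := S.vc c v.1 j
  npos := S.npos c
  cl_inj hj hj' h := tg_inj hj hj' (Sum.inl_injective h)
  cl_ne _ h := by cases h
  hf_inj hj hj' h := hf_inj hj hj' h
  vf_inj hj hj' h := vf_inj hj hj' h
  hf_ne_vf := by
    intro G e j j' hj hj' h
    have h1 := hf_onS G hj
    rw [h] at h1
    exact (vf_inL e hj').not_onS h1
  hp_zero w := hp_zero w
  hp_inj hj hj' hw hw' h := hp_inj hj hj' hw hw' h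
  vp_inj hj hj' h := vp_inj hj hj' h
  hp_ne_vp := by
    intro w e v j j' hj hj' hw h
    have h1 := hp_onS e hw hj
    rw [h] at h1
    exact (vc_inL (vx_bd v) hj').not_onS h1
  side_top G := side_top G
  side_mid G _ hj := side_mid G hj
  side_bot G _ hj := side_bot G hj
  side_vf e _ hj := side_vf e hj
  faces_cl hj h := faces_cl hj h
  faces_kk h := faces_kk h
  on_hf hj := on_hf hj
  on_vf_hp hj hi hw := on_vf_hp hj hi hw
  on_vf_vp hj hi := on_vf_vp hj hi
  faces_hp h0 hj hw h := faces_hp h0 hj hw h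
  faces_vp hj h := faces_vp hj h
  lace_hf hj hu hv hx hy _ _ hux huy hvx hvy := lace_hf hj hu hv hx hy hux huy hvx hvy
  lace_vf hj ha hb hc hd _ _ hac had hbc hbd := lace_vf hj ha hb hc hd hac had hbc hbd

variable {S : Sla T κ} {h3 : Module.finrank ℝ E = 3} {c : κ} {x y z w : E} {j : ℕ}

/-! ### the old faces -/

theorem Out.mono (h : S.Out x) (hy : y ∈ T.cc x) : S.Out y :=
  ⟨T.cc_sub_Om h.1 hy, fun c hc => h.2 c (hc.up h.1 hy)⟩

theorem Out.not_int (h : S.Out x) (c : κ) : ¬ (x ∈ S.K c ∧ S.φ c x < S.t c (S.n c)) := by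
  rintro ⟨h1, h2⟩
  exact h.2 c (in_of_lt h1 (h2.trans (S.tn_lt c)))

theorem F0.out (F : S.F0 h3) : S.Out F.1.pt := nd0_iff.1 F.2

/-- the outer faces are faces of the inner mesh -/
noncomputable def old (F : S.F0 h3) : S.Fn h3 :=
  ⟨mk2 S.T3 F.1.pt_mem ((F0.out F).dim.trans F.1.dim_pt), nd_mk _ _ fun c => (F0.out F).not_int c⟩

theorem old_set (F : S.F0 h3) : (old F).1.set = F.1.set := by
  show S.T3.cc F.1.pt = F.1.set
  rw [(F0.out F).cc, F.1.set_eq]

theorem set_out (F : S.F0 h3) (hy : y ∈ F.1.set) : S.Out y := by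
  rw [F.1.set_eq] at hy
  exact (F0.out F).mono hy

theorem old_pt (F : S.F0 h3) : (old F).1.pt ∈ F.1.set := by
  rw [← old_set, (old F).1.set_eq]
  exact S.T3.self_mem_cc _

theorem old_out (F : S.F0 h3) : S.Out (old F).1.pt := set_out F (old_pt F)

theorem on_old (F : S.F0 h3) : (S.mn h3).On (old F) = (S.m0 h3).On F := by
  ext w
  rw [mem_onK, mem_onK0, old_set]
  constructor
  · rintro ⟨h1, h2⟩
    exact ⟨h1, by rw [← (set_out F h1).dim]; exact h2⟩
  · rintro ⟨h1, h2⟩
    exact ⟨h1, by rw [(set_out F h1).dim]; exact h2⟩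

theorem bd_old (F : S.F0 h3) : (old F).1.bd = F.1.bd := by
  ext w
  constructor
  · intro h
    have h1 := (old F).1.bd_sub h
    have h2 := ((old F).1.mem_bd_iff h1).1 h
    rw [old_set] at h1
    refine (F.1.mem_bd_iff h1).2 ?_
    rw [← (set_out F h1).dim]; exact h2
  · intro h
    have h1 := F.1.bd_sub h
    have h2 := (F.1.mem_bd_iff h1).1 h
    rw [← (set_out F h1).dim] at h2
    refine ((old F).1.mem_bd_iff ?_).2 h2
    rw [old_set]; exact h1

theorem lace_old {F : S.F0 h3} {u v x y : E} (hu : u ∈ (S.m0 h3).On F) (hv : v ∈ (S.m0 h3).On F)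
    (hx : x ∈ (S.m0 h3).On F) (hy : y ∈ (S.m0 h3).On F) (hux : u ≠ x) (huy : u ≠ y)
    (hvx : v ≠ x) (hvy : v ≠ y) :
    (S.mn h3).Lace (old F) u v x y ↔ (S.m0 h3).Lace F u v x y := by
  have hb : ∀ {w : E}, w ∈ (S.m0 h3).On F → w ∈ F.1.bd := fun hw => by
    rw [mem_onK0] at hw
    exact (F.1.mem_bd_iff hw.1).2 hw.2.le
  have h := lace_homeo h3 h3 F.1 (old F).1 (h := id) continuousOn_id (injOn_id _)
    (by rw [image_id, bd_old]) (hb hu) (hb hv) (hb hx) (hb hy) hux huy hvx hvy
  exact h

theorem old_inj {F G : S.F0 h3} (h : old F = old G) : F = G := by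
  have h1 : (old F).1.set = (old G).1.set := by rw [h]
  rw [old_set, old_set] at h1
  exact Subtype.ext (C2.ext h1)

/-- the cells of `T` which are in no core -/
theorem HH_empty {p : ι} (hp : ∀ c, ¬ P (T.H p) ⊆ S.K c) : S.HH p = ∅ := by
  rw [Finset.eq_empty_iff_forall_notMem]
  intro h hh
  obtain ⟨c, hc, -⟩ := S.mem_HH.1 hh
  exact hp c hc.sub

/-- **the inner mesh is obtained from the outer mesh by inserting the layers** -/
noncomputable def cols (S : Sla T κ) (h3 : Module.finrank ℝ E = 3) :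
    Door_501.Cols (S.mn h3) (S.m0 h3) (fun c : κ => Sum.inr c) (fun c : κ => Sum.inr c)
      (S.sh h3) S.n where
  old := old
  old_inj _ _ h := old_inj h
  on_old F := on_old F
  lace_old hu hv hx hy _ _ hux huy hvx hvy := lace_old hu hv hx hy hux huy hvx hvy
  cl c := S.col h3 c
  hf_zero := by
    intro c G
    have h1 : (old G.1).1.pt ∈ S.T3.oc G.1.1.pt :=
      mk2_pt (T := S.T3) G.1.1.pt_mem ((F0.out G.1).dim.trans G.1.1.dim_pt)
    have h2 := (fk_onS G).oc.1 h1
    exact (eq_hf (F := old G.1) (G := G) (Nat.zero_le _) h2.1 h2.2).symm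
  cases := by
    intro F
    by_cases h : S.Out F.1.pt
    · left
      have hd : T.dim F.1.pt = 2 := by rw [← h.dim]; exact F.1.dim_pt
      have ho : S.Out (mk2 T F.1.pt_mem hd).pt := h.mono (T.oc_sub_cc _ (mk2_pt F.1.pt_mem hd))
      refine ⟨⟨mk2 T F.1.pt_mem hd, nd0_iff.2 ho⟩, ?_⟩
      apply Subtype.ext
      apply C2.ext
      rw [old_set]
      show F.1.set = T.cc F.1.pt
      rw [F.1.set_eq, h.cc]
    · right
      have h0 : ∃ c, S.In c F.1.pt := by
        by_contra hc
        push Not at hc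
        exact h ⟨F.1.pt_mem, hc⟩
      obtain ⟨c, hc⟩ := h0
      rcases face_cases hc.1 with ⟨j, hj⟩ | ⟨j, hj⟩
      · left
        obtain ⟨G, hG⟩ := exists_hf (h3 := h3) hj
        refine ⟨c, G, j, ?_, hj.2.1, hG⟩
        rcases Nat.eq_zero_or_pos j with h4 | h4
        · subst h4
          exact absurd hj.fr hc.2
        · exact h4
      · right
        obtain ⟨e, -, he⟩ := exists_vf (h3 := h3) hj
        exact ⟨c, e, j, hj.2.1, he⟩
  hf_not_old := by
    intro c G j F0 h0 hj h
    have h1 := hf_onS G hj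
    have h2 : hf G j = old F0 := h
    rw [h2] at h1
    exact (old_out F0).2 c (h1.bo h0).1
  vf_not_old := by
    intro c e j F0 hj h
    have h1 := vf_inL (h3 := h3) e hj
    have h2 : vf h3 e j = old F0 := h
    rw [h2] at h1
    exact (old_out F0).2 c h1.bo.1
  hf_core := by
    intro c c' G G' j j' hj hj' h
    have h1 := hf_onS G hj
    have h2 : hf G j = hf G' j' := h
    rw [h2] at h1
    exact h1.core (hf_onS G' hj')
  vf_core := by
    intro c c' e e' j j' hj hj' h
    have h1 := vf_inL (h3 := h3) e hj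
    have h2 : vf h3 e j = vf h3 e' j' := h
    rw [h2] at h1
    exact S.core_unique h1.1 (vf_inL (h3 := h3) e' hj').1
  hf_ne_vf := by
    intro c c' G e j j' hj hj' h
    have h1 := hf_onS G hj
    have h2 : hf G j = vf h3 e j' := h
    rw [h2] at h1
    exact (vf_inL e hj').not_onS h1
  hp_new := by
    intro c w e j F0 h0 hj hw h
    rw [mem_onK0] at h
    exact (set_out F0 h.1).2 c ((hp_onS e hw hj).bo h0).1
  vp_new := by
    intro c v j F0 hj h
    rw [mem_onK0] at h
    exact (set_out F0 h.1).2 c (vc_inL (vx_bd v) hj).bo.1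
  hp_core := by
    intro c c' w w' e e' j j' hj hj' hw hw' h
    have h1 := hp_onS e hw hj
    have h2 := hp_onS e' hw' hj'
    have h4 : S.hp c j w = S.hp c' j' w' := h
    rw [h4] at h1
    exact h1.core h2
  vp_core := by
    intro c c' v v' j j' hj hj' h
    have h1 := vc_inL (vx_bd v) hj
    have h2 := vc_inL (vx_bd v') hj'
    have h4 : S.vc c v.1 j = S.vc c' v'.1 j' := h
    rw [h4] at h1
    exact S.core_unique h1.1 h2.1
  hp_ne_vp := by
    intro c c' w e v j j' hj hj' hw h
    have h1 := hp_onS e hw hj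
    have h4 : S.hp c j w = S.vc c' v.1 j' := h
    rw [h4] at h1
    exact (vc_inL (vx_bd v) hj').not_onS h1
  on_vf_core := by
    intro c c' w e e' j hne hw hj h
    rw [mem_onK] at h
    obtain ⟨h2, h4, h5⟩ := (vf_set (h3 := h3) e' hj).1 h.1
    exact hne (S.core_unique (ed_opn_onS e hw).1 (C_K (ed_bd e') h2))
  old_vf := by
    intro c F0 w e j h1 h2 hj
    rw [mem_onK0] at h1
    rw [mem_onK] at h2
    obtain ⟨h4, h5, h6⟩ := (vf_set (h3 := h3) e hj).1 h2.1
    have h7 := set_out F0 h1.1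
    have h8 : w ∈ frontier (S.K c) := by
      by_contra hf
      exact h7.2 c ⟨C_K (ed_bd e) h4, hf⟩
    exact ⟨edx h8 h1.2, edx_opn h8 h1.2⟩
  cells := by
    rintro (p | c)
    · right
      by_cases hp : ∀ c, ¬ P (T.H p) ⊆ S.K c
      · refine ⟨Sum.inl (Tiling.RIdx.of T (HH_empty hp)), fun F0 h => ?_⟩
        obtain ⟨p', hp', hpq⟩ := mem_side0.1 h
        obtain ⟨rfl, -⟩ := piK_inl.1 hpq
        have he : P (S.T3.H (Tiling.RIdx.of T (HH_empty hp))) = P (T.H p') := by
          show P (Tiling.RIdx.HS _) = _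
          rw [Tiling.RIdx.HS_of_eq T (HH_empty hp)]
          rfl
        refine mem_sideN.2 ⟨_, ?_, piK_inl' fun c' h' => hp c' ?_⟩
        · show (old F0).1.pt ∈ P (S.T3.H _)
          rw [he]
          have h2 := old_pt F0
          rw [F0.1.set_eq] at h2
          exact T.cc_sub_tile hp' h2
        · rw [← he]
          exact h'.trans KK_K
      · push Not at hp
        obtain ⟨c, hc⟩ := hp
        refine ⟨Sum.inr c, fun F0 h => ?_⟩
        obtain ⟨p', hp', hpq⟩ := mem_side0.1 h
        obtain ⟨rfl, hn⟩ := piK_inl.1 hpq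
        exact absurd hc (hn c)
    · exact Or.inl ⟨c, rfl⟩

end Sla

end Crest.Agent.R096.Sla_184
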