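import Crest.Agent.R096.Slp2_316
import Crest.Agent.R096.Sla6_184

/-!
# R096 (row 96), DOORS (helper422): the shrunk cores of 184's layered tiling satisfy 715's `CoreH`.
-/

set_option autoImplicit false
set_option linter.unusedSectionVars false

open Set Module

namespace Crest.Agent.R096.Vrt_422

open Crest.Agent.R096.Msh_715 Crest.Agent.R096.Coh_184 Crest.Agent.R096.Sla_184
  Crest.Agent.R096.Sla_184.Sla Crest.Agent.R096.Slp_316

variable {E : Type} [NormedAddCommGroup E] [NormedSpace ℝ E] [FiniteDimensional ℝ E]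
variable {Om : Set E} {ι κ : Type} {T : Tiling Om ι}

/-- **the shrunk cores are cores of the layered tiling** -/
theorem coreH_KK (h3 : finrank ℝ E = 3) (S : Sla T κ) (c : κ) : CoreH S.T3 (S.KK c) := by
  obtain ⟨e, -⟩ := exists_slide S c (Nat.zero_le _) (le_refl (S.n c))
  have h0 : sl S c 0 = frontier (S.K c) := sl_zero
  have hn : sl S c (S.n c) = frontier (S.KK c) := by
    ext x; exact mem_fr_KK.symm
  have him : e.f '' frontier (S.K c) = frontier (S.KK c) := by
    rw [← h0, ← hn]
    apply Set.Subset.antisymm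
    · rintro _ ⟨x, hx, rfl⟩; exact e.mf hx
    · intro y hy; exact ⟨e.g y, e.mg hy, e.ri y hy⟩
  have hcont : ContinuousOn e.f (frontier (S.K c)) := by rw [← h0]; exact e.pf.1
  have hinj : InjOn e.f (frontier (S.K c)) := by
    rw [← h0]
    intro x hx y hy hxy
    rw [← e.li x hx, ← e.li y hy, hxy]
  have hcpt : IsCompact (frontier (S.K c)) :=
    (S.hH c).cpt.of_isClosed_subset isClosed_frontier (S.fr_sub c)
  exact
    { core := core_KK c
      sub := KK_sub c
      cpt := (S.KL_all c (S.gt c) (S.tn_lt c)).1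
      cc := hs_KK c
      pc := pc_KK h3 c
      conn := by rw [← him]; exact (S.hH c).conn.image _ hcont
      nt := by
        rw [← him]
        obtain ⟨x, hx, y, hy, hxy⟩ := (S.hH c).nt
        exact ⟨e.f x, ⟨x, hx, rfl⟩, e.f y, ⟨y, hy, rfl⟩, fun h => hxy (hinj hx hy h)⟩
      triv := by
        rw [← him]
        exact (S.hH c).triv.of_image hcpt isClosed_frontier hcont hinj }

end Crest.Agent.R096.Vrt_422
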