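import Crest.Agent.R096.Lmx2_662
import Crest.Agent.R096.Lmx1_662
import Crest.Agent.R096.Slt1_471
import Crest.Agent.R096.Sla7_184
import Crest.Agent.R096.SkB1c_662
import Crest.Agent.R096.Vrt4_422

/-!
# R096 (row 96), DOORS (helper662): the vertices `v₀ a`, `v₁ a` in the sliced tiling

Over 184's `S : Sla T κ` : a vertex of an outer tile of `T` is a vertex of `S.T3`, its cell is a
vertex of `meshK S.T3 S.KK`, below the 3-cell of this tile, and it is in `ZK .. D` if the tile is not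
in the interior of `D`.
-/

set_option autoImplicit false
set_option linter.unusedSectionVars false
set_option linter.unusedVariables false

open Set Relation Module

namespace Crest.Agent.R096.Lmx_662

open Crest.Agent.R096.St_147 Crest.Agent.R096.Seq_213 Crest.Agent.R096.Seq_213.GSt
  Crest.Agent.R096.Lm_117 Crest.Agent.R096.Ac_117
  Crest.Agent.R096.Cp_298 Crest.Agent.R096.Msh_715 Crest.Agent.R096.Agl5_543
  Crest.Agent.R096.Ori_543 Crest.Agent.R096.Coh_184 Crest.Agent.R096.Gm_298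
  Crest.Agent.R096.Gl_422 Crest.Agent.R096.Sla_184

section sla

variable {E : Type} [NormedAddCommGroup E] [NormedSpace ℝ E] [FiniteDimensional ℝ E]
variable {Om : Set E} {ι : Type} {T : Tiling Om ι} {κ : Type} {S : Sla T κ}

theorem ot_not {q : ι} (hi : ∀ c, ¬ P (T.H q) ⊆ S.K c) (k : κ) :
    ¬ P (S.T3.H (S.ot q hi)) ⊆ S.KK k := fun h => hi k (by
  rw [← Sla.ot_P hi]
  exact h.trans Sla.KK_K)

variable [Nonempty S.T3.Cell]

/-- **a vertex of an outer tile in the sliced tiling** -/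
theorem vx3 {q : ι} (hi : ∀ c, ¬ P (T.H q) ⊆ S.K c) {v : E} (hv : v ∈ P (T.H q))
    (hd : T.dim v = 0) : S.T3.dim v = 0 ∧ (edC S.T3 v).dim = 0 ∧ (edC S.T3 v).pt = v ∧
      (edC S.T3 v).set = {v} ∧ OutK S.T3 S.KK (edC S.T3 v) := by
  have hO := Sla.out_of_tile hi hv
  have h0 : S.T3.dim v = 0 := by rw [hO.dim]; exact hd
  have hvO : v ∈ Om := T.sub q hv
  obtain ⟨h1, h2⟩ := SkB_662.edC_vertex (T := S.T3) hvO h0
  have h3 : (edC S.T3 v).set = {v} := by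
    rw [edC_set hvO, S.T3.cc_eq_singleton (S.T3.dim_eq_zero_iff.1 h0)]
  refine ⟨h0, h1, h2, h3, S.ot q hi, ot_not hi, ?_⟩
  rw [h3, singleton_subset_iff, Sla.ot_P hi]
  exact hv

/-- the vertex of `meshK` -/
noncomputable def vK {q : ι} (hi : ∀ c, ¬ P (T.H q) ⊆ S.K c) {v : E} (hv : v ∈ P (T.H q))
    (hd : T.dim v = 0) : QK (belK S.T3 S.KK) := oc (edC S.T3 v) (vx3 hi hv hd).2.2.2.2

theorem vK_eq {q : ι} (hi : ∀ c, ¬ P (T.H q) ⊆ S.K c) {v : E} (hv : v ∈ P (T.H q))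
    (hd : T.dim v = 0) (h : OutK S.T3 S.KK (edC S.T3 v)) : vK hi hv hd = oc (edC S.T3 v) h := rfl

theorem vK_dim {q : ι} (hi : ∀ c, ¬ P (T.H q) ⊆ S.K c) {v : E} (hv : v ∈ P (T.H q))
    (hd : T.dim v = 0) : dimK (belK S.T3 S.KK) (fun c => c.1.dim) (vK hi hv hd) = 0 :=
  (vx3 hi hv hd).2.1

/-- the vertex is below the 3-cell of the tile -/
theorem vK_le {q : ι} (hi : ∀ c, ¬ P (T.H q) ⊆ S.K c) {v : E} (hv : v ∈ P (T.H q))
    (hd : T.dim v = 0) : vK hi hv hd ≤ tcK S.T3 S.KK (Sum.inl (S.ot q hi)) := by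
  have h := vx3 hi hv hd
  refine vtx_le_tcK (x := Sum.inl (S.ot q hi)) (fun p hp k => ?_) _ ?_
  · obtain rfl : S.ot q hi = p := Sum.inl.inj hp
    exact ot_not hi k
  · show (edC S.T3 v).set ⊆ P (S.T3.H (S.ot q hi))
    rw [h.2.2.2.1, singleton_subset_iff, Sla.ot_P hi]
    exact hv

/-- **`far`** -/
theorem vK_far {q : ι} (hi : ∀ c, ¬ P (T.H q) ⊆ S.K c) {v : E} (hv : v ∈ P (T.H q))
    (hd : T.dim v = 0) {D : Set E} (hD : ¬ P (T.H q) ⊆ interior D) :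
    vK hi hv hd ∈ ZK S.T3 S.KK D := by
  refine ⟨⟨edC S.T3 v, (vx3 hi hv hd).2.2.2.2⟩, Or.inr ⟨S.ot q hi, ?_, ?_⟩, rfl⟩
  · show (edC S.T3 v).pt ∈ P (S.T3.H (S.ot q hi))
    rw [(vx3 hi hv hd).2.2.1, Sla.ot_P hi]
    exact hv
  · rw [Sla.ot_P hi]
    exact hD

/-- **`hcell`** of `labIn_mixD`: the 1-cells of the outer tiles are those of `T` -/
theorem cell3 {q : ι} (hi : ∀ c, ¬ P (T.H q) ⊆ S.K c) {e : S.T3.Cell} (hd : e.dim = 1)
    (he : e.set ⊆ P (S.T3.H (S.ot q hi))) : T.cc e.pt = e.set ∧ T.dim e.pt = 1 := by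
  have hp : e.pt ∈ P (T.H q) := by
    have h1 := he (set_ne e)
    rwa [Sla.ot_P hi] at h1
  have hO : S.Out e.pt := Sla.out_of_tile hi hp
  refine ⟨?_, ?_⟩
  · rw [← hO.cc, e.set_eq]
  · rw [← hO.dim]
    exact hd

/-- **the 3-cell of an outer tile of `T`** is never a merged tile -/
theorem outI_ot {q : ι} (hi : ∀ c, ¬ P (T.H q) ⊆ S.K c) :
    OutI S.T3 S.KK (Sum.inl (S.ot q hi)) := fun p hp k => by
  obtain rfl : S.ot q hi = p := Sum.inl.inj hp
  exact ot_not hi k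

theorem outI_inr (k : κ) : OutI S.T3 S.KK (Sum.inr k) := fun p hp => by cases hp

end sla

end Crest.Agent.R096.Lmx_662
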