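import Crest.Agent.R096.Rop13_441
import Crest.Agent.R096.Frs1_662
import Crest.Agent.R096.Lmx3_662

/-!
# R096 (row 96), FRONT (helper441): the fields `k4`, `ropX` of 662's `FrontM` from (B)

`S : Sla T (Ti X)` with `S.K k = KJ T (J k)`, quads = `Qdl_662.qdT`.

* `lst_of_B` : points on 1-cells + (B) ⟹ `Lst` (the input of the ropes).
* `k4_front`, `ropX_front` : literal fields.
* `deep_vK`, `far_vK` : the vertices of 662's `VxD`.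
-/

set_option autoImplicit false
set_option linter.unusedSectionVars false
set_option linter.unusedVariables false

open Set Relation Module

namespace Crest.Agent.R096.Frk_441

open Crest.Agent.R096.Brk1_582 Crest.Agent.R096.Brk2_582 Crest.Agent.R096.Brk3_582
  Crest.Agent.R096.Brk5_582 Crest.Agent.R096.Bsp_628 Crest.Agent.R096.Init_543
  Crest.Agent.R096.Vb_965 Crest.Agent.R096.Msh_715 Crest.Agent.R096.St_147
  Crest.Agent.R096.Seq_213 Crest.Agent.R096.Lm_117 Crest.Agent.R096.Gl_422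
  Crest.Agent.R096.SkB_662 Crest.Agent.R096.Cpo_642
  Crest.Agent.R096.Ce_537 Crest.Agent.R096.Agl5_543
  Crest.Agent.R096.Cp_298 Crest.Agent.R096.Gm_298 Crest.Agent.R096.Ac_117
  Crest.Agent.R096.Sla_184 Crest.Agent.R096.Sla_184.Sla Crest.Agent.R096.Kin_527
  Crest.Agent.R096.Vrt_422 Crest.Agent.R096.Rop_441 Crest.Agent.R096.Qdl_662
  Crest.Agent.R096.Lmx_662
open Crest.Agent.R096.SkC1_961 (E3 Hom3 FoamD)
open Crest.Agent.R096.Mbf_337 (KJ sb)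
open Crest.Agent.R096.Gia_537 (Kc Kc_sub Kc_compact Kc_disj Kc_exact)
open Crest.Agent.R096.Frn_337 (Ti cti Lay pO)

variable {δ κ0 R c0 : ℝ} {La Om : Set E3} {ι : Type} {Φ : FoamD δ κ0 R c0 La}
  {T : Tiling Om ι} {f g : E3 → E3} {κ1 κ2 s₁ s' : ℝ} {X : Set Φ.F} {J0 J V : Φ.F → Set ι}
  {ct : Φ.F → ι}
  {A : Φ.F → E3 ≃ᵃ[ℝ] E3} {lam : Φ.F → ℝ} {z : Φ.F → E3} {θ : Φ.F → E3 → E3} {φ : Φ.F → E3 → ℝ}
  {ct' : Φ.F → ι} {r₀ : Φ.F → ℝ} {S : Sla T (Ti X)}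

theorem tinyK_of (hK : ∀ k : Ti X, S.K k = KJ T (J k.1)) : TinyK X J S := fun k => ⟨k.1, k.2, hK k⟩

/-- the complex of the mesh with the remaining cores -/
theorem cplxS (hC : Mbf_337.Cores Φ T f κ1 κ2 X J0 J V ct A lam z θ φ)
    (hK : ∀ k : Ti X, S.K k = KJ T (J k.1)) :
    Cplx Om (QK (belK S.T3 S.KK)) (dimK (belK S.T3 S.KK) fun c => c.1.dim) (setK S.T3 S.KK) :=
  Csub_487.cplx_lmK fr3
    (fun k => Lay_316.coreH_KK fr3 (by rw [hK k]; exact (hC.tiny k.1 k.2).ball))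
    dis_KK (fun k => Lay_316.ball_KK (by rw [hK k]; exact (hC.tiny k.1 k.2).ball))

variable [Nonempty S.T3.Cell]

/-- **deep vertices** of 662's `VxD` -/
theorem deep_vK (hLa : IsOpen La) (hN : Num δ κ0 R c0 κ2 κ1 s₁) (hR : InitR Φ T f g J0 ct' r₀)
    (hC : Mbf_337.Cores Φ T f κ1 κ2 X J0 J V ct A lam z θ φ)
    (hK : ∀ k : Ti X, S.K k = KJ T (J k.1)) {D : Φ.F → Set E3} {q0 q1 : Φ.F → ι}
    {v0 v1 x0 x1 : Φ.F → E3} (hv : VxD Φ T f V D q0 q1 v0 v1 x0 x1) (a : Φ.F)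
    (hi : ∀ c, ¬ P (T.H (q0 a)) ⊆ S.K c) :
    DeepS hC r₀ S a (vK hi (hv.mem0 a) (hv.dim0 a)) := by
  refine deep_o hLa hN hR hC (tinyK_of hK) (hv.notKor0 hC a).1 (hv.mem0 a) (hv.dim0 a)
    (hv.px0 a) ?_ _
  rw [hv.va0 hLa (retF Φ hLa hR.pos hR.le_one) a]
  exact hN.hθ

/-- **far vertices** of 662's `VxD` -/
theorem far_vK (hLa : IsOpen La) (hN : Num δ κ0 R c0 κ2 κ1 s₁) (hR : InitR Φ T f g J0 ct' r₀)
    (hC : Mbf_337.Cores Φ T f κ1 κ2 X J0 J V ct A lam z θ φ)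
    (hK : ∀ k : Ti X, S.K k = KJ T (J k.1)) {D : Φ.F → Set E3} {q0 q1 : Φ.F → ι}
    {v0 v1 x0 x1 : Φ.F → E3} (hv : VxD Φ T f V D q0 q1 v0 v1 x0 x1) (a : Φ.F)
    (hi : ∀ c, ¬ P (T.H (q1 a)) ⊆ S.K c) :
    FarS Φ f r₀ J S (θN δ κ0 R c0 κ2 κ1) a (vK hi (hv.mem1 a) (hv.dim1 a)) := by
  refine far_o (tinyK_of hK) (hv.notKor1 hC a).1 (hv.mem1 a) (hv.dim1 a) (hv.px1 a) ?_ _
  rw [hv.va1 hLa (retF Φ hLa hR.pos hR.le_one) a]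
  have := hN.hθ
  linarith

variable {hH : ∀ k, CoreH S.T3 (S.KK k)} {hne : ∃ c, OutK S.T3 S.KK c}
  {L : Φ.F → Finset ℝ} {s₀ : GSt (mK fr3 hH (dis_KK (S := S))) (fun j : JJ Φ L => j.1)}
  {hLa : IsOpen La} {hR : InitR Φ T f g J0 ct' r₀}
  {hM : Mesh0 T (Pc Φ.F) (bc (F := Φ.F)) (RF Φ r₀) f (KorJ Φ J0) κ1} {hε : κ1 < s₁}
  {hε1 : κ1 < 1}

variable (Φ T f J0 S s₀ s') in
/-- **(B)** : literal field `posB` of 662's `FrontM` -/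
def PosS : Prop := ∀ w ∈ s₀.P, ∀ i3 : T.RIdx S.HH, (∀ k', ¬ P (S.T3.H i3) ⊆ S.KK k') →
  w ∈ P (S.T3.H i3) → i3.tile ∉ KorJ Φ J0 →
  ∃ x ∈ P (T.H i3.tile), Φ.lev (s₀.lab w).1 (f x) ∈ Icc s' (1 - s')

/-- **`Lst` from (B)** -/
theorem lst_of_B (hC : Mbf_337.Cores Φ T f κ1 κ2 X J0 J V ct A lam z θ φ)
    (hK : ∀ k : Ti X, S.K k = KJ T (J k.1)) (hs' : s₁ + κ1 ≤ s')
    (on : ∀ w ∈ s₀.P, w ∈ (lmK fr3 hH (dis_KK (S := S)) hne).W1)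
    (posB : PosS Φ T f s' J0 S s₀) :
    Lst Φ f J0 J r₀ S hH hne (qdT (fun p => p.tile) (sla_sub S) S.KK hLa hR hM hε hε1) s₀ s₁ s'
    where
  on := on
  act := fun p hp k hk => ⟨k, (inl_act.1 hk).1, fun c hc => (qin k c).1 hc⟩
  lev := fun w hw i hi hwi => by
    have hiS := (tinyK_of hK).subK.out hi
    have hi0 : i ∉ KorJ Φ J0 := fun h' => hi (korJ_mono hC h')
    obtain ⟨x, hx, h1⟩ := posB w hw (S.ot i hiS) (not_KK_ot hiS) (by rw [ot_P]; exact hwi) hi0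
    have hx' : x ∈ P (T.H i) := hx
    rw [← At_241.va_lev hLa hR hi0 hx'] at h1
    have h2 := abs_le.1 (hM.osc i hi0 w hwi x hx' (s₀.lab w).1)
    constructor
    · linarith [h1.1, h2.1]
    · linarith [h1.2, h2.2]
  lay := fun w hw p c hp hpc hwp => by
    obtain ⟨v, hv, hvf⟩ := Lay_316.layer_meets fr3 hpc hp
    have hp0 : p.tile ∉ KorJ Φ J0 := (tinyK_of hK).notJ0 hLa hC hvf hv
    obtain ⟨x, hx, h1⟩ := posB w hw p hp hwp hp0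
    rw [← At_241.va_lev hLa hR hp0 hx] at h1
    exact ⟨x, hx, h1.1, h1.2⟩

/-- **`Front.k4`** -/
theorem k4_front (hLc : IsPreconnected La) (hN : Num δ κ0 R c0 κ2 κ1 s₁) (hσ : 2 * κ1 < s')
    (hC : Mbf_337.Cores Φ T f κ1 κ2 X J0 J V ct A lam z θ φ)
    (hK : ∀ k : Ti X, S.K k = KJ T (J k.1)) (hs' : s₁ + κ1 ≤ s')
    (on : ∀ w ∈ s₀.P, w ∈ (lmK fr3 hH (dis_KK (S := S)) hne).W1)
    (posB : PosS Φ T f s' J0 S s₀)
    {Zc : Φ.F → Set (QK (belK S.T3 S.KK))} {v₀ v₁ : Φ.F → QK (belK S.T3 S.KK)}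
    (h0 : ∀ j : JJ Φ L, DeepS hC r₀ S j.1 (v₀ j.1))
    (h1 : ∀ j : JJ Φ L, FarS Φ f r₀ J S (θN δ κ0 R c0 κ2 κ1) j.1 (v₁ j.1))
    (hz : ∀ j : JJ Φ L, v₁ j.1 ∈ Zc j.1)
    (q : QK (belK S.T3 S.KK)) (hq : pO S.T3 S.KK (Lay_316.c3 S) ct q) :
    ∃ i, (∀ c, i ∉ J0 c) ∧ setK S.T3 S.KK q ⊆ P (T.H i) ∧
      ∀ x ∈ P (T.H i), K4In (lmK fr3 hH (dis_KK (S := S)) hne)
        (qdT (fun p => p.tile) (sla_sub S) S.KK hLa hR hM hε hε1) s₀ Zc v₀ (Pc Φ.F) {q}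
      (fun _ => sb Φ (Φ.Psi (f x))) := by
  rcases q with q | k
  swap
  · exact False.elim hq
  refine k4_S hLa hLc hN hσ hR hC hM (tinyK_of hK) (cplxS hC hK)
    (lst_of_B (hLa := hLa) (hR := hR) (hM := hM) (hε := hε) (hε1 := hε1) (hne := hne) hC hK hs' on
      posB) h0 (fun j => ⟨v₁ j.1, hz j, h1 j⟩)
    (fun c' hc' => ⟨⟨c', hc'⟩, hK ⟨c', hc'⟩⟩) q.2 (fun a ha he => ?_)
  have h4 : q.1.set ≠ P (S.T3.H (Lay_316.c3 S (ct a))) := hq ⟨a, ha⟩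
  have hout : ∀ c : Ti X, ¬ P (T.H (ct a)) ⊆ S.K c := by
    intro c hc
    rw [hK c] at hc
    obtain ⟨y, hy⟩ := T.ne (ct a)
    have hne' : c.1 ≠ a := fun e => c.2 (e ▸ ha)
    refine disjoint_left.1 (Kc_disj (T := T) (J := J) hLa hC hne') (hc (I_sub_P _ hy)) ?_
    rw [Kc_exact hC ha]; exact I_sub_P _ hy
  rw [Lay_316.c3_of hout, ot_P] at h4
  exact h4 he

/-- **`Front.ropX`** -/
theorem ropX_front (hLc : IsPreconnected La) (hN : Num δ κ0 R c0 κ2 κ1 s₁)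
    (hC : Mbf_337.Cores Φ T f κ1 κ2 X J0 J V ct A lam z θ φ)
    (hK : ∀ k : Ti X, S.K k = KJ T (J k.1)) (hs' : s₁ + κ1 ≤ s')
    (on : ∀ w ∈ s₀.P, w ∈ (lmK fr3 hH (dis_KK (S := S)) hne).W1)
    (posB : PosS Φ T f s' J0 S s₀)
    {Gc : Φ.F → Set E3} {Zc : Φ.F → Set (QK (belK S.T3 S.KK))}
    {lam₀ : JJ Φ L → QK (belK S.T3 S.KK) → ZMod 2} {v₀ v₁ : Φ.F → QK (belK S.T3 S.KK)}
    (h0 : ∀ j : JJ Φ L, DeepS hC r₀ S j.1 (v₀ j.1))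
    (h1 : ∀ j : JJ Φ L, FarS Φ f r₀ J S (θN δ κ0 R c0 κ2 κ1) j.1 (v₁ j.1))
    (hl : LabIn (lmK fr3 hH (dis_KK (S := S)) hne)
      (qdT (fun p => p.tile) (sla_sub S) S.KK hLa hR hM hε hε1) s₀ Gc Zc lam₀ v₀ v₁)
    (c : Φ.F) (hc : c ∈ X) (j : JJ Φ L) :
    (∃ v : {c : S.T3.Cell // OutK S.T3 S.KK c}, v.1.dim = 0 ∧ v.1.set ⊆ P (T.H (ct c)) ∧
      ReflTransGen (Ed (lmK fr3 hH (dis_KK (S := S)) hne)
        {e | FrE (lmK fr3 hH (dis_KK (S := S)) hne)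
          (qdT (fun p => p.tile) (sla_sub S) S.KK hLa hR hM hε hε1) j.1 e})
        (v₀ j.1) (QK.c _ v)) ∨
    ∀ v : {c : S.T3.Cell // OutK S.T3 S.KK c}, v.1.dim = 0 → v.1.set ⊆ P (T.H (ct c)) →
      QK.c _ v ∈ Zc j.1 ∧ ∀ j' : JJ Φ L, j'.1 = j.1 → lam₀ j' (QK.c _ v) = 0 :=
  Or.inl (ropX_S hLa hLc hN hR hC hM (tinyK_of hK) (cplxS hC hK)
    (lst_of_B (hLa := hLa) (hR := hR) (hM := hM) (hε := hε) (hε1 := hε1) (hne := hne) hC hK hs' on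
      posB) (h0 j) (h1 j) (hl.rope j) hc)

end Crest.Agent.R096.Frk_441
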