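import Crest.Agent.R096.Frn1_337

/-!
Row 96 (S0127), helper534.  **`FrontP`** = the front half of the machine (INIT + DOORS) as one literal
Prop: from the data of `MachBF` / `MachNO` to 337's `Lay` and `Front`.  Definitions, and the
monotonicity of `Levels`.
-/

set_option autoImplicit false
set_option linter.unusedSectionVars false
set_option linter.unusedVariables false
set_option linter.style.longLine false

open Set Relation Module Topology Filter Metric MeasureTheory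

namespace Crest.Agent.R096.Mno_534

open Crest.Agent.R096.Brk1_582 Crest.Agent.R096.Brk2_582 Crest.Agent.R096.Brk3_582
open Crest.Agent.R096.Brk5_582 Crest.Agent.R096.Bsp_628
open Crest.Agent.R096.St_147 Crest.Agent.R096.Seq_213 Crest.Agent.R096.Seq_213.GSt
open Crest.Agent.R096.Lm_117 Crest.Agent.R096.Ac_117 Crest.Agent.R096.Msh_715
open Crest.Agent.R096.Init_543 (JJ fr3)
open Crest.Agent.R096.SkC1_961 (E3 Hom3 FoamD Cfg th NN)
open Crest.Agent.R096.Mbf_337 (Star Cores Fine Levels Words)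
open Crest.Agent.R096.Frn_337

/-- **the output of the front half** for given data and levels -/
def FrontOut {δ κ0 R c0 : ℝ} {La Om : Set E3} {ι : Type} (Φ : FoamD δ κ0 R c0 La) (T : Tiling Om ι)
    (f : E3 → E3) (X : Set Φ.F) (J0 J V : Φ.F → Set ι) (ct : Φ.F → ι) (L : Φ.F → Finset ℝ) : Prop :=
  ∃ (ι3 : Type) (T3 : Tiling Om ι3) (KK : Ti X → Set E3) (c3 : ι → ι3) (_ : Nonempty T3.Cell)
    (hH : ∀ k, CoreH T3 (KK k)) (hdis : ∀ k k', k ≠ k' → Disjoint (KK k) (KK k'))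
    (hne : ∃ c, OutK T3 KK c) (Qd : Quads (ι3 ⊕ Ti X) Φ.F (Init_543.QK (Pc Φ.F)))
    (s₀ : GSt (mK fr3 hH hdis) (fun j : JJ Φ L => j.1)) (far₀ : JJ Φ L → Set E3)
    (Gc : Φ.F → Set E3) (Zc : Φ.F → Set (QK (belK T3 KK)))
    (lam₀ : JJ Φ L → QK (belK T3 KK) → ZMod 2) (v₀ v₁ : Φ.F → QK (belK T3 KK)),
    Lay Φ T X J0 J T3 KK c3 ∧ Front T f J0 J V ct c3 hH hdis hne Qd s₀ far₀ Gc Zc lam₀ v₀ v₁

/-- **THE FRONT HALF** (INIT + DOORS), literal -/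
def FrontP : Prop :=
  ∀ δ κ0 R c0 κ2 κ3 : ℝ, 0 < δ → 1 ≤ κ0 → 1 ≤ R → 0 < c0 → 0 < κ2 → 8 ≤ κ3 →
  ∀ κp : ℝ, 0 < κp → κp ≤ 1 → ∀ μ : ℝ, 0 < μ → μ ≤ κp → ∃ κ1 : ℝ, 0 < κ1 ∧
  ∀ (Om La : Set E3) (f : E3 → E3), IsOpen Om → Bornology.IsBounded Om → IsConnected Om →
    IsOpen La → Bornology.IsBounded La → IsConnected La → Hom3 f Om La →
  ∀ (Φ : FoamD δ κ0 R c0 La) (ι : Type) (T : Tiling Om ι) (X : Set Φ.F) (J0 J V : Φ.F → Set ι)
    (ct : Φ.F → ι) (A : Φ.F → E3 ≃ᵃ[ℝ] E3) (lam : Φ.F → ℝ) (z : Φ.F → E3) (θ : Φ.F → E3 → E3)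
    (φ : Φ.F → E3 → ℝ) (M : Φ.F → ℕ),
    Star Φ → Cores Φ T f κ1 κ2 X J0 J V ct A lam z θ φ → Fine Φ T f κ1 J0 →
  ∃ (Z : Φ.F → Set ℝ) (m0 : Φ.F → ℕ), (∀ c, volume (Z c) = 0) ∧
  ∀ (κ : Φ.F → ℕ) (L : Φ.F → Finset ℝ), Levels Φ T f κp μ κ3 Z m0 κ L →
    Words Φ T f X ct A lam z M L → FrontOut Φ T f X J0 J V ct L

/-- more excluded levels and more levels are allowed -/
theorem levels_mono {δ κ0 R c0 : ℝ} {La Om : Set E3} {ι : Type} {Φ : FoamD δ κ0 R c0 La}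
    {T : Tiling Om ι} {f : E3 → E3} {κp κp' μ μ' κ3 : ℝ} {Z Z' : Φ.F → Set ℝ} {m0 m0' : Φ.F → ℕ}
    {κ : Φ.F → ℕ} {L : Φ.F → Finset ℝ} (h : Levels Φ T f κp' μ' κ3 Z' m0' κ L)
    (hκ : κp' ≤ κp) (hμ : μ ≤ μ') (hZ : ∀ c, Z c ⊆ Z' c) (hm : ∀ c, m0 c ≤ m0' c) :
    Levels Φ T f κp μ κ3 Z m0 κ L where
  lf := h.lf
  marg := fun c t ht => ⟨hμ.trans (h.marg c t ht).1, (h.marg c t ht).2.trans (by linarith)⟩
  many := h.many
  few := h.few
  large := fun c => (hm c).trans (h.large c)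
  dens := fun c u v huv => (h.dens c u v huv).trans (by
    have h1 : 0 ≤ v - u := sub_nonneg.2 huv
    gcongr)
  off := fun c t ht hZt => h.off c t ht (hZ c hZt)
  vert := h.vert
  fin := h.fin
  sep := h.sep

end Crest.Agent.R096.Mno_534
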