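import Crest.Agent.R096.Be1_416

/-!
# R096 (row 96), GEO-BASE, part 2 (helper416): 778's `GeoR` for the base of 181
-/

set_option autoImplicit false
set_option linter.unusedSectionVars false

open Set Metric

namespace Crest.Agent.R096.Be_416

open Crest.Agent.R096.Ce_537 Crest.Agent.R096.Bd_416 Crest.Agent.R096.Xp_537
open Crest.Agent.R096.Brk1_582 Crest.Agent.R096.Brk2_582 Crest.Agent.R096.Brk6_582
open Crest.Agent.R096.Grd_714 Crest.Agent.R096.Bin_181 Crest.Agent.R096.Arc_778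

open scoped Classical

variable {E : Type*} [NormedAddCommGroup E] [NormedSpace ℝ E] {I : Type*}
variable {b : Set I → E} {P : I → Set E} {m : I → ℕ}
variable {V : Type*} [NormedAddCommGroup V] [NormedSpace ℝ V] [FiniteDimensional ℝ V] {Q : Type} [PartialOrder Q]
  {dim : Q → ℕ} {J Fam : Type} {Cm : Cmb Q dim J Fam} {K : Q → Set V} {D : Set Q}
  {fa : J → I} {lv : J → ℕ} {S : Set V} {T : Set E}

/-- **the cells of the base are real boxes in level coordinates** -/
structure BoxG (Cm : Cmb Q dim J Fam) (K : Q → Set V) (D : Set Q) (P : I → Set E)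
    (b : Set I → E) (m : I → ℕ) (κ : ℝ) (fa : J → I) (lv : J → ℕ) (e : PLEquiv S T)
    (L H : Q → I → ℝ) (rL rH : Q → I → ℕ) : Prop where
  KS : ∀ q ∈ D, K q ⊆ S
  sub : ∀ {p q : Q}, p < q → q ∈ D → K p ⊆ K q
  Ke : ∀ q ∈ D, e.f '' K q = bxR P b m (L q) (H q)
  full : ∀ q ∈ D, ∀ g : I → ℝ, (∀ c, L q c ≤ g c ∧ g c ≤ H q c) → g ∈ G2 P m
  le : ∀ q ∈ D, ∀ c, L q c ≤ H q c
  zero : ∀ q ∈ D, ∃ c0, H q c0 = 0
  aL : ∀ q ∈ D, ∀ a, |L q a - rL q a| < κ / 2
  aH : ∀ q ∈ D, ∀ a, |H q a - rH q a| < κ / 2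
  dim2 : ∀ q ∈ D, dim q ≤ 2
  fr1 : ∀ q ∈ D, dim q = 1 → ∃ a, ∀ c, c ≠ a → L q c = H q c
  fr2 : ∀ q ∈ D, dim q = 2 → ∃ a a', a ≠ a' ∧ L q a < H q a ∧ L q a' < H q a' ∧
    ∀ c, c ≠ a → c ≠ a' → L q c = H q c
  bd : ∀ q ∈ D, dim q = 2 → ∀ z ∈ K q, (z ∈ bdS K q ↔ ∃ c, L q c < H q c ∧
    (co P b m (e.f z) c = L q c ∨ co P b m (e.f z) c = H q c))
  rng : ∀ q ∈ D, ∀ x : Cm.I q, rL q (fa (Cm.col q x)) ≤ lv (Cm.col q x) ∧
    lv (Cm.col q x) < rH q (fa (Cm.col q x))
  one : ∀ q ∈ D, ∀ x x' : Cm.I q, Cm.col q x = Cm.col q x' → x = x'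
  inj : ∀ j j', fa j = fa j' → lv j = lv j' → j = j'

namespace BoxG

variable {κ : ℝ} {e : PLEquiv S T} {L H : Q → I → ℝ} {rL rH : Q → I → ℕ}
  (X : BoxG Cm K D P b m κ fa lv e L H rL rH)
variable {La : Set E} [CompleteSpace E] [FiniteDimensional ℝ E] (F : Foam La P b 4)
  (hQ : Quads P b) (hne : ∀ c, (P c).Nonempty) (hm : ∀ c, 0 < m c) (hκ : 0 < κ ∧ κ < 1)
  (cc0 : Cel P m)

include X

/-- the points of a cell -/
lemma pt_spec {q : Q} (hq : q ∈ D) {g : I → ℝ} (hg : ∀ c, L q c ≤ g c ∧ g c ≤ H q c) :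
    e.g (Tq b m g) ∈ K q ∧ e.f (e.g (Tq b m g)) = Tq b m g := by
  have h1 : Tq b m g ∈ bxR P b m (L q) (H q) := ⟨g, ⟨X.full q hq g hg, hg⟩, rfl⟩
  rw [← X.Ke q hq] at h1
  obtain ⟨z, hz, hzz⟩ := h1
  have h2 : e.g (Tq b m g) = z := by rw [← hzz, e.li z (X.KS q hq hz)]
  rw [h2]
  exact ⟨hz, hzz⟩

include F hQ hm

lemma co_spec {q : Q} (hq : q ∈ D) {z : V} (hz : z ∈ K q) :
    (∀ c, L q c ≤ co P b m (e.f z) c ∧ co P b m (e.f z) c ≤ H q c) ∧
      e.g (Tq b m (co P b m (e.f z))) = z ∧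
      ∃ q' : Gx P m, e.f z ∈ Tq b m '' q'.bx := by
  have h1 : e.f z ∈ bxR P b m (L q) (H q) := by rw [← X.Ke q hq]; exact ⟨z, hz, rfl⟩
  obtain ⟨g, ⟨hg, hb⟩, hgz⟩ := h1
  have h2 : co P b m (e.f z) = g := by rw [← hgz, co_Tq F hQ hm hg]
  rw [h2]
  refine ⟨hb, ?_, flb hm g hg, g, mem_flb hm hg, hgz⟩
  rw [hgz, e.li z (X.KS q hq hz)]

lemma co_pt {q : Q} (hq : q ∈ D) {g : I → ℝ} (hg : ∀ c, L q c ≤ g c ∧ g c ≤ H q c) :
    co P b m (e.f (e.g (Tq b m g))) = g := by
  rw [(X.pt_spec hq hg).2, co_Tq F hQ hm (X.full q hq g hg)]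

lemma eq_pt {q : Q} (hq : q ∈ D) {z z' : V} (hz : z ∈ K q) (hz' : z' ∈ K q)
    (h : ∀ c, L q c < H q c → co P b m (e.f z) c = co P b m (e.f z') c) : z = z' := by
  obtain ⟨h1, h2, -⟩ := X.co_spec F hQ hm hq hz
  obtain ⟨h1', h2', -⟩ := X.co_spec F hQ hm hq hz'
  have h3 : co P b m (e.f z) = co P b m (e.f z') := by
    funext c
    rcases (X.le q hq c).lt_or_eq with hc | hc
    · exact h c hc
    · exact le_antisymm (by linarith [(h1 c).2, (h1' c).1]) (by linarith [(h1 c).1, (h1' c).2])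
  rw [← h2, ← h2', h3]

include hκ

/-- the sign of a sheet -/
lemma sgn {q : Q} (hq : q ∈ D) (x : Cm.I q) {z : V} (hz : z ∈ K q) :
    SignType.sign (sg (Cm.Lab (Cm.col q x) q) *
      ((ekS (grid F hQ hne hm) b κ cc0 fa lv e).G (Cm.col q x) z - 1/2)) =
    SignType.sign (sg (Cm.Lab (Cm.col q x) q)) *
      SignType.sign (co P b m (e.f z) (fa (Cm.col q x)) - lv (Cm.col q x) - 1/2) := by
  obtain ⟨-, -, q', hq'⟩ := X.co_spec F hQ hm hq hz
  rw [sign_mul]
  congr 1
  rw [ekS_G, ← sign_st F hQ hne hm hκ hq' (fa (Cm.col q x)) (lv (Cm.col q x))]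
  rw [show (1/2 + cl ((ek (grid F hQ hne hm) b κ cc0).G (fa (Cm.col q x)) (e.f z) -
    lv (Cm.col q x) - 1/2) - 1/2) = cl ((ek (grid F hQ hne hm) b κ cc0).G (fa (Cm.col q x))
    (e.f z) - lv (Cm.col q x) - 1/2) by ring]
  show SignType.sign (cl (co P b m (st (grid F hQ hne hm) κ (e.f z)) (fa (Cm.col q x)) -
    lv (Cm.col q x) - 1/2)) = _
  set t := co P b m (st (grid F hQ hne hm) κ (e.f z)) (fa (Cm.col q x)) - lv (Cm.col q x) - 1/2
  rcases lt_trichotomy t 0 with h | h | h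
  · rw [sign_neg h, sign_neg]
    rcases le_total t (-1/2) with h' | h'
    · rw [cl_of_le h']; norm_num
    · rw [cl_of_mem ⟨h', by linarith⟩]; exact h
  · rw [h, cl_of_mem ⟨by norm_num, by norm_num⟩]
  · rw [sign_pos h, sign_pos]
    rcases le_total (1/2) t with h' | h'
    · rw [cl_of_ge h']; norm_num
    · rw [cl_of_mem ⟨by linarith, h'⟩]; exact h

/-- the zeros of a sheet -/
lemma zer_iff {q : Q} (hq : q ∈ D) (x : Cm.I q) {z : V} :
    z ∈ Zer (K q) (fun x z => sg (Cm.Lab (Cm.col q x) q) *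
      ((ekS (grid F hQ hne hm) b κ cc0 fa lv e).G (Cm.col q x) z - 1/2)) x ↔
    z ∈ K q ∧ co P b m (e.f z) (fa (Cm.col q x)) = lv (Cm.col q x) + 1/2 := by
  refine and_congr_right fun hz => ?_
  have h1 := X.sgn F hQ hne hm hκ cc0 hq x hz
  have h2 : SignType.sign (sg (Cm.Lab (Cm.col q x) q)) ≠ 0 := by
    rw [Ne, sign_eq_zero_iff]
    rcases sg_or (Cm.Lab (Cm.col q x) q) with h | h <;> rw [h] <;> norm_num
  constructor
  · intro h
    have h3 : SignType.sign (sg (Cm.Lab (Cm.col q x) q) *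
      ((ekS (grid F hQ hne hm) b κ cc0 fa lv e).G (Cm.col q x) z - 1/2)) = 0 := by
      rw [sign_eq_zero_iff]; exact h
    rw [h1] at h3
    have h4 := (mul_eq_zero.1 h3).resolve_left h2
    rw [sign_eq_zero_iff] at h4
    linarith
  · intro h
    have h3 : SignType.sign (sg (Cm.Lab (Cm.col q x) q) *
      ((ekS (grid F hQ hne hm) b κ cc0 fa lv e).G (Cm.col q x) z - 1/2)) = 0 := by
      rw [h1, show co P b m (e.f z) (fa (Cm.col q x)) - lv (Cm.col q x) - 1/2 = 0 by
        rw [h]; ring, sign_zero, mul_zero]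
    exact sign_eq_zero_iff.1 h3

omit F hQ hm in
/-- the middle of a level in the range -/
lemma mid {q : Q} (hq : q ∈ D) (x : Cm.I q) : L q (fa (Cm.col q x)) < lv (Cm.col q x) + 1/2 ∧
    (lv (Cm.col q x) : ℝ) + 1/2 < H q (fa (Cm.col q x)) := by
  obtain ⟨h1, h2⟩ := X.rng q hq x
  obtain ⟨l1, l2⟩ := abs_lt.1 (X.aL q hq (fa (Cm.col q x)))
  obtain ⟨r1, r2⟩ := abs_lt.1 (X.aH q hq (fa (Cm.col q x)))
  have h1' : (rL q (fa (Cm.col q x)) : ℝ) ≤ lv (Cm.col q x) := by exact_mod_cast h1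
  have h2' : (lv (Cm.col q x) : ℝ) + 1 ≤ rH q (fa (Cm.col q x)) := by exact_mod_cast h2
  have := hκ.2
  constructor <;> linarith

/-- edges -/
theorem edgeG {q : Q} (hq : q ∈ D) (hd : dim q = 1) : EdgeG (K q) (fun (x : Cm.I q) z =>
    sg (Cm.Lab (Cm.col q x) q) *
      ((ekS (grid F hQ hne hm) b κ cc0 fa lv e).G (Cm.col q x) z - 1/2)) := by
  obtain ⟨a, ha⟩ := X.fr1 q hq hd
  have hfa : ∀ x : Cm.I q, fa (Cm.col q x) = a := fun x => by
    by_contra hc
    have h1 := X.mid hκ hq x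
    have h2 := ha _ hc
    linarith
  refine ⟨fun x => ?_, fun x x' hne' => ?_⟩
  · have hmx := X.mid hκ hq x
    have hg : ∀ c, L q c ≤ Function.update (L q) (fa (Cm.col q x)) (lv (Cm.col q x) + 1/2) c ∧
        Function.update (L q) (fa (Cm.col q x)) (lv (Cm.col q x) + 1/2) c ≤ H q c := by
      intro c
      by_cases hc : c = fa (Cm.col q x)
      · subst hc; rw [Function.update_self]; exact ⟨hmx.1.le, hmx.2.le⟩
      · rw [Function.update_of_ne hc]; exact ⟨le_rfl, X.le q hq c⟩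
    refine ⟨e.g (Tq b m (Function.update (L q) (fa (Cm.col q x)) (lv (Cm.col q x) + 1/2))), ?_⟩
    ext z
    rw [X.zer_iff F hQ hne hm hκ cc0 hq x, mem_singleton_iff]
    constructor
    · rintro ⟨hz, hzz⟩
      refine X.eq_pt F hQ hm hq hz (X.pt_spec hq hg).1 fun c hc => ?_
      have hca : c = fa (Cm.col q x) := by
        rw [hfa]; by_contra h; exact hc.ne (ha c h)
      rw [X.co_pt F hQ hm hq hg, hca, Function.update_self, hzz]
    · rintro rfl
      refine ⟨(X.pt_spec hq hg).1, ?_⟩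
      rw [X.co_pt F hQ hm hq hg, Function.update_self]
  · refine Set.disjoint_left.2 fun z hz hz' => ?_
    rw [X.zer_iff F hQ hne hm hκ cc0 hq] at hz hz'
    apply hne'
    refine X.one q hq x x' (X.inj _ _ (by rw [hfa, hfa]) ?_)
    have h1 := hz.2
    have h2 := hz'.2
    rw [hfa] at h1 h2
    have : (lv (Cm.col q x) : ℝ) = lv (Cm.col q x') := by linarith
    exact_mod_cast this

omit F hQ hm in
/-- the other direction of a face -/
lemma other {q : Q} (hq : q ∈ D) (hd : dim q = 2) (x : Cm.I q) : ∃ a', a' ≠ fa (Cm.col q x) ∧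
    L q a' < H q a' ∧ ∀ c, c ≠ fa (Cm.col q x) → c ≠ a' → L q c = H q c := by
  obtain ⟨a, a', hne', h1, h2, h3⟩ := X.fr2 q hq hd
  have hmx := X.mid hκ hq x
  by_cases h4 : fa (Cm.col q x) = a
  · rw [h4]; exact ⟨a', hne'.symm, h2, h3⟩
  · by_cases h5 : fa (Cm.col q x) = a'
    · rw [h5]; exact ⟨a, hne', h1, fun c hc hc' => h3 c hc' hc⟩
    · have := h3 _ h4 h5
      linarith

omit hκ in
lemma L_nonneg {q : Q} (hq : q ∈ D) (c : I) : 0 ≤ L q c :=
  G2_nonneg hm (X.full q hq (L q) fun c => ⟨le_rfl, X.le q hq c⟩) c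

/-- the points of a chord -/
lemma bx2 {q : Q} (hq : q ∈ D) (x : Cm.I q) {a' : I} (ha' : a' ≠ fa (Cm.col q x)) {t : ℝ}
    (ht : t ∈ Icc (L q a') (H q a')) :
    ∀ c, L q c ≤ Function.update (Function.update (L q) (fa (Cm.col q x))
      (lv (Cm.col q x) + 1/2)) a' t c ∧ Function.update (Function.update (L q)
      (fa (Cm.col q x)) (lv (Cm.col q x) + 1/2)) a' t c ≤ H q c := by
  intro c
  have hmx := X.mid hκ hq x
  by_cases hc : c = a'
  · subst hc; rw [Function.update_self]; exact ht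
  rw [Function.update_of_ne hc]
  by_cases hc : c = fa (Cm.col q x)
  · subst hc; rw [Function.update_self]; exact ⟨hmx.1.le, hmx.2.le⟩
  · rw [Function.update_of_ne hc]; exact ⟨le_rfl, X.le q hq c⟩

/-- the chord as an image -/
lemma zer_eq {q : Q} (hq : q ∈ D) (x : Cm.I q) {a' : I} (ha' : a' ≠ fa (Cm.col q x))
    (hoth : ∀ c, c ≠ fa (Cm.col q x) → c ≠ a' → L q c = H q c) :
    Zer (K q) (fun x z => sg (Cm.Lab (Cm.col q x) q) *
      ((ekS (grid F hQ hne hm) b κ cc0 fa lv e).G (Cm.col q x) z - 1/2)) x =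
    e.g '' ((fun t => Tq b m (Function.update (Function.update (L q) (fa (Cm.col q x))
      (lv (Cm.col q x) + 1/2)) a' t)) '' Icc (L q a') (H q a')) := by
  ext z
  rw [X.zer_iff F hQ hne hm hκ cc0 hq x, image_image]
  constructor
  · rintro ⟨hz, hzz⟩
    have h1 := (X.co_spec F hQ hm hq hz).1
    have ht : co P b m (e.f z) a' ∈ Icc (L q a') (H q a') := h1 a'
    refine ⟨co P b m (e.f z) a', ht, ?_⟩
    have hb := X.bx2 F hQ hm hκ hq x ha' ht
    refine (X.eq_pt F hQ hm hq hz (X.pt_spec hq hb).1 fun c hc => ?_).symm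
    rw [X.co_pt F hQ hm hq hb]
    by_cases hc' : c = a'
    · subst hc'; rw [Function.update_self]
    rw [Function.update_of_ne hc']
    by_cases hc'' : c = fa (Cm.col q x)
    · subst hc''; rw [Function.update_self, hzz]
    · exact absurd (hoth c hc'' hc') hc.ne
  · rintro ⟨t, ht, rfl⟩
    have hb := X.bx2 F hQ hm hκ hq x ha' ht
    refine ⟨(X.pt_spec hq hb).1, ?_⟩
    rw [X.co_pt F hQ hm hq hb, Function.update_of_ne ha'.symm, Function.update_self]

/-- the ends of the chord -/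
lemma gam_iff {q : Q} (hq : q ∈ D) (hd : dim q = 2) (x : Cm.I q) {a' : I}
    (_ha' : a' ≠ fa (Cm.col q x)) (hlt : L q a' < H q a')
    (hoth : ∀ c, c ≠ fa (Cm.col q x) → c ≠ a' → L q c = H q c) {z : V} :
    z ∈ Gam (bdS K q) (fun x z => sg (Cm.Lab (Cm.col q x) q) *
      ((ekS (grid F hQ hne hm) b κ cc0 fa lv e).G (Cm.col q x) z - 1/2)) x ↔
    z ∈ K q ∧ co P b m (e.f z) (fa (Cm.col q x)) = lv (Cm.col q x) + 1/2 ∧
      (co P b m (e.f z) a' = L q a' ∨ co P b m (e.f z) a' = H q a') := by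
  have hmx := X.mid hκ hq x
  constructor
  · rintro ⟨h1, h2⟩
    have hzK : z ∈ K q := by
      obtain ⟨p, hp, hz⟩ := mem_iUnion₂.1 h1
      exact X.sub hp hq hz
    have h3 := (X.zer_iff F hQ hne hm hκ cc0 hq x).1 ⟨hzK, h2⟩
    refine ⟨hzK, h3.2, ?_⟩
    obtain ⟨c, hc, hcc⟩ := (X.bd q hq hd z hzK).1 h1
    by_cases hc' : c = a'
    · rw [hc'] at hcc; exact hcc
    by_cases hc'' : c = fa (Cm.col q x)
    · rw [hc'', h3.2] at hcc
      rcases hcc with h | h <;> linarith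
    · exact absurd (hoth c hc'' hc') hc.ne
  · rintro ⟨hz, h2, h3⟩
    refine ⟨(X.bd q hq hd z hz).2 ⟨a', hlt, h3⟩, ?_⟩
    exact ((X.zer_iff F hQ hne hm hκ cc0 hq x).2 ⟨hz, h2⟩).2

/-- **(chords)** the faces of the base -/
theorem chords {q : Q} (hq : q ∈ D) (hd : dim q = 2) : Chords (K q) (bdS K q)
    (fun (x : Cm.I q) z => sg (Cm.Lab (Cm.col q x) q) *
      ((ekS (grid F hQ hne hm) b κ cc0 fa lv e).G (Cm.col q x) z - 1/2)) := by
  have hsne : ∀ x : Cm.I q, SignType.sign (sg (Cm.Lab (Cm.col q x) q)) ≠ 0 := by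
    intro x
    rw [Ne, sign_eq_zero_iff]
    rcases sg_or (Cm.Lab (Cm.col q x) q) with h | h <;> rw [h] <;> norm_num
  -- the two ends of a chord
  have ends : ∀ (x : Cm.I q) {a' : I}, a' ≠ fa (Cm.col q x) → L q a' < H q a' →
      (∀ c, c ≠ fa (Cm.col q x) → c ≠ a' → L q c = H q c) →
      Gam (bdS K q) (fun x z => sg (Cm.Lab (Cm.col q x) q) *
        ((ekS (grid F hQ hne hm) b κ cc0 fa lv e).G (Cm.col q x) z - 1/2)) x =
      {e.g (Tq b m (Function.update (Function.update (L q) (fa (Cm.col q x))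
        (lv (Cm.col q x) + 1/2)) a' (L q a'))),
       e.g (Tq b m (Function.update (Function.update (L q) (fa (Cm.col q x))
        (lv (Cm.col q x) + 1/2)) a' (H q a')))} := by
    intro x a' ha' hlt hoth
    have hL := X.bx2 F hQ hm hκ hq x ha' (t := L q a') ⟨le_rfl, hlt.le⟩
    have hH := X.bx2 F hQ hm hκ hq x ha' (t := H q a') ⟨hlt.le, le_rfl⟩
    ext z
    rw [X.gam_iff F hQ hne hm hκ cc0 hq hd x ha' hlt hoth, mem_insert_iff, mem_singleton_iff]
    constructor
    · rintro ⟨hz, h1, h2 | h2⟩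
      · left
        refine X.eq_pt F hQ hm hq hz (X.pt_spec hq hL).1 fun c hc => ?_
        rw [X.co_pt F hQ hm hq hL]
        by_cases hc' : c = a'
        · subst hc'; rw [Function.update_self, h2]
        rw [Function.update_of_ne hc']
        by_cases hc'' : c = fa (Cm.col q x)
        · subst hc''; rw [Function.update_self, h1]
        · exact absurd (hoth c hc'' hc') hc.ne
      · right
        refine X.eq_pt F hQ hm hq hz (X.pt_spec hq hH).1 fun c hc => ?_
        rw [X.co_pt F hQ hm hq hH]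
        by_cases hc' : c = a'
        · subst hc'; rw [Function.update_self, h2]
        rw [Function.update_of_ne hc']
        by_cases hc'' : c = fa (Cm.col q x)
        · subst hc''; rw [Function.update_self, h1]
        · exact absurd (hoth c hc'' hc') hc.ne
    · rintro (rfl | rfl)
      · refine ⟨(X.pt_spec hq hL).1, ?_, Or.inl ?_⟩
        · rw [X.co_pt F hQ hm hq hL, Function.update_of_ne ha'.symm, Function.update_self]
        · rw [X.co_pt F hQ hm hq hL, Function.update_self]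
      · refine ⟨(X.pt_spec hq hH).1, ?_, Or.inr ?_⟩
        · rw [X.co_pt F hQ hm hq hH, Function.update_of_ne ha'.symm, Function.update_self]
        · rw [X.co_pt F hQ hm hq hH, Function.update_self]
  refine ⟨fun x => ?_, fun x x' hxx h1 h2 => ?_, fun x x' hxx h => ?_⟩
  · obtain ⟨a', ha', hlt, hoth⟩ := X.other hκ hq hd x
    rw [ends x ha' hlt hoth, X.zer_eq F hQ hne hm hκ cc0 hq x ha' hoth]
    obtain ⟨c0, h0⟩ := X.zero q hq
    have hn := X.L_nonneg F hQ hm hq
    have hmx := X.mid hκ hq x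
    have hL0 : L q c0 = 0 := le_antisymm (by rw [← h0]; exact X.le q hq c0) (hn c0)
    have hca : c0 ≠ fa (Cm.col q x) := by
      rintro rfl; rw [hL0, h0] at hmx; linarith [hmx.1, hmx.2]
    have hca' : c0 ≠ a' := by
      rintro rfl; rw [hL0, h0] at hlt; exact lt_irrefl _ hlt
    have h1 := seg_ball F hQ hm (g := Function.update (L q) (fa (Cm.col q x))
      (lv (Cm.col q x) + 1/2)) (a := a') hca' (by rw [Function.update_of_ne hca, hL0]) hlt
      (fun t ht => X.full q hq _ (X.bx2 F hQ hm hκ hq x ha' ht))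
    have hsub : ((fun t => Tq b m (Function.update (Function.update (L q) (fa (Cm.col q x))
      (lv (Cm.col q x) + 1/2)) a' t)) '' Icc (L q a') (H q a')) ⊆ T := by
      rintro _ ⟨t, ht, rfl⟩
      have h2 := X.pt_spec hq (X.bx2 F hQ hm hκ hq x ha' ht)
      have h3 := e.mf (X.KS q hq h2.1)
      rw [h2.2] at h3
      exact h3
    have h2 := h1.image_injOn (e.pg.mono hsub) ((Set.InjOn.mono hsub) fun y hy y' hy' h => by
      rw [← e.ri y hy, ← e.ri y' hy', h])
    rw [image_pair] at h2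
    exact h2
  · by_cases hf : fa (Cm.col q x) = fa (Cm.col q x')
    · exfalso
      obtain ⟨ω, hω, h1⟩ := h1
      obtain ⟨ω', hω', h2⟩ := h2
      obtain ⟨a', ha', hlt, hoth⟩ := X.other hκ hq hd x'
      rw [X.gam_iff F hQ hne hm hκ cc0 hq hd x' ha' hlt hoth] at hω hω'
      have s1 := X.sgn F hQ hne hm hκ cc0 hq x hω.1
      have s2 := X.sgn F hQ hne hm hκ cc0 hq x hω'.1
      rw [hf, hω.2.1] at s1
      rw [hf, hω'.2.1] at s2
      rw [← s2, sign_pos h1, sign_neg h2] at s1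
      exact absurd s1 (by decide)
    · obtain ⟨a', ha', hlt, hoth⟩ := X.other hκ hq hd x
      have hfa' : fa (Cm.col q x') = a' := by
        by_contra hc
        have h3 := X.mid hκ hq x'
        have h4 := hoth _ (Ne.symm hf) hc
        linarith
      have hmx' := X.mid hκ hq x'
      rw [hfa'] at hmx'
      have hb := X.bx2 F hQ hm hκ hq x ha' (t := lv (Cm.col q x') + 1/2) ⟨hmx'.1.le, hmx'.2.le⟩
      refine ⟨e.g (Tq b m (Function.update (Function.update (L q) (fa (Cm.col q x))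
        (lv (Cm.col q x) + 1/2)) a' (lv (Cm.col q x') + 1/2))), ?_⟩
      ext z
      rw [mem_inter_iff, X.zer_iff F hQ hne hm hκ cc0 hq, X.zer_iff F hQ hne hm hκ cc0 hq,
        mem_singleton_iff, hfa']
      constructor
      · rintro ⟨⟨hz, h3⟩, -, h4⟩
        refine X.eq_pt F hQ hm hq hz (X.pt_spec hq hb).1 fun c hc => ?_
        rw [X.co_pt F hQ hm hq hb]
        by_cases hc' : c = a'
        · subst hc'; rw [Function.update_self, h4]
        rw [Function.update_of_ne hc']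
        by_cases hc'' : c = fa (Cm.col q x)
        · subst hc''; rw [Function.update_self, h3]
        · exact absurd (hoth c hc'' hc') hc.ne
      · rintro rfl
        rw [X.co_pt F hQ hm hq hb]
        refine ⟨⟨(X.pt_spec hq hb).1, ?_⟩, (X.pt_spec hq hb).1, ?_⟩
        · rw [Function.update_of_ne ha'.symm, Function.update_self]
        · rw [Function.update_self]
  · by_cases hf : fa (Cm.col q x) = fa (Cm.col q x')
    · rw [Set.eq_empty_iff_forall_notMem]
      rintro z ⟨hz, hz'⟩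
      rw [X.zer_iff F hQ hne hm hκ cc0 hq] at hz hz'
      apply hxx
      refine X.one q hq x x' (X.inj _ _ hf ?_)
      have h1 := hz.2
      have h2 := hz'.2
      rw [hf] at h1
      have : (lv (Cm.col q x) : ℝ) = lv (Cm.col q x') := by linarith
      exact_mod_cast this
    · exfalso
      -- the chord `x'` runs from side to side
      obtain ⟨a', ha', hlt, hoth⟩ := X.other hκ hq hd x'
      have hfa : fa (Cm.col q x) = a' := by
        by_contra hc
        have h3 := X.mid hκ hq x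
        have h4 := hoth _ hf hc
        linarith
      have hmx := X.mid hκ hq x
      rw [hfa] at hmx
      have hL := X.bx2 F hQ hm hκ hq x' ha' (t := L q a') ⟨le_rfl, hlt.le⟩
      have hH := X.bx2 F hQ hm hκ hq x' ha' (t := H q a') ⟨hlt.le, le_rfl⟩
      have m1 := ends x' ha' hlt hoth
      have g1 : e.g (Tq b m (Function.update (Function.update (L q) (fa (Cm.col q x'))
        (lv (Cm.col q x') + 1/2)) a' (L q a'))) ∈ Gam (bdS K q)
        (fun x z => sg (Cm.Lab (Cm.col q x) q) *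
        ((ekS (grid F hQ hne hm) b κ cc0 fa lv e).G (Cm.col q x) z - 1/2)) x' := by
        rw [m1]; exact Or.inl rfl
      have g2 : e.g (Tq b m (Function.update (Function.update (L q) (fa (Cm.col q x'))
        (lv (Cm.col q x') + 1/2)) a' (H q a'))) ∈ Gam (bdS K q)
        (fun x z => sg (Cm.Lab (Cm.col q x) q) *
        ((ekS (grid F hQ hne hm) b κ cc0 fa lv e).G (Cm.col q x) z - 1/2)) x' := by
        rw [m1]; exact Or.inr rfl
      have s1 := X.sgn F hQ hne hm hκ cc0 hq x (X.pt_spec hq hL).1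
      have s2 := X.sgn F hQ hne hm hκ cc0 hq x (X.pt_spec hq hH).1
      rw [X.co_pt F hQ hm hq hL, hfa, Function.update_self,
        sign_neg (by linarith : L q a' - (lv (Cm.col q x) : ℝ) - 1/2 < 0)] at s1
      rw [X.co_pt F hQ hm hq hH, hfa, Function.update_self,
        sign_pos (by linarith : 0 < H q a' - (lv (Cm.col q x) : ℝ) - 1/2)] at s2
      have hs := hsne x
      rcases h with h | h
      · rw [sign_pos (h _ g1)] at s1
        rw [sign_pos (h _ g2)] at s2
        revert s1 s2 hs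
        generalize SignType.sign (sg (Cm.Lab (Cm.col q x) q)) = σ
        revert σ; decide
      · rw [sign_neg (h _ g1)] at s1
        rw [sign_neg (h _ g2)] at s2
        revert s1 s2 hs
        generalize SignType.sign (sg (Cm.Lab (Cm.col q x) q)) = σ
        revert σ; decide

/-- **GEO-BASE** -/
theorem geoR : GeoR Cm K (fun q (x : Cm.I q) z => sg (Cm.Lab (Cm.col q x) q) *
    ((ekS (grid F hQ hne hm) b κ cc0 fa lv e).G (Cm.col q x) z - 1/2)) D where
  edge q hq hd := X.edgeG F hQ hne hm hκ cc0 hq hd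
  face q hq hd := X.chords F hQ hne hm hκ cc0 hq hd
  cell q hq hd := by
    have := X.dim2 q hq
    omega

end BoxG

end Crest.Agent.R096.Be_416
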