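import Crest.Agent.R096.Bin9_181
import Crest.Agent.R096.Be2_416

/-!
# R096 (row 96), CORE-INST, part 1 (helper181): real nodes near integral nodes; 416's `BoxG` for a mesh
of grid cells
-/

set_option autoImplicit false
set_option linter.unusedSectionVars false

open Set Metric

namespace Crest.Agent.R096.Cin_181

open Crest.Agent.R096.Ce_537 Crest.Agent.R096.Bd_416 Crest.Agent.R096.Xp_537
open Crest.Agent.R096.Brk1_582 Crest.Agent.R096.Brk2_582 Crest.Agent.R096.Brk6_582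
open Crest.Agent.R096.Grd_714 Crest.Agent.R096.Bin_181

/-! ### nodes -/

/-- real nodes near the integral nodes `N i` -/
noncomputable def nds (ε : ℝ) (M m : ℕ) (N : ℕ → ℕ) (i : ℕ) : ℝ := (1 - ε) * N i + ε * (m * (i / M))

section nds

variable {ε : ℝ} {M m : ℕ} {N : ℕ → ℕ}

lemma nds_strictMono (h0 : 0 < ε) (h1 : ε ≤ 1) (hM : 0 < M) (hm : 0 < m) (hN : Monotone N) :
    StrictMono (nds ε M m N) := by
  intro i j h
  have hM' : (0:ℝ) < M := by exact_mod_cast hM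
  have hm' : (0:ℝ) < m := by exact_mod_cast hm
  have a1 : (N i : ℝ) ≤ N j := by exact_mod_cast hN h.le
  have a2 : (i : ℝ) / M < j / M := div_lt_div_of_pos_right (by exact_mod_cast h) hM'
  have a3 : (1 - ε) * (N i : ℝ) ≤ (1 - ε) * N j := mul_le_mul_of_nonneg_left a1 (by linarith)
  have a4 : ε * ((m : ℝ) * (i / M)) < ε * (m * (j / M)) :=
    mul_lt_mul_of_pos_left (mul_lt_mul_of_pos_left a2 hm') h0
  show (1 - ε) * (N i : ℝ) + _ < _ + _
  linarith

lemma nds_zero (h : N 0 = 0) : nds ε M m N 0 = 0 := by simp [nds, h]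

lemma nds_top (hM : 0 < M) (h : N M = m) : nds ε M m N M = m := by
  have hM' : (0:ℝ) < M := by exact_mod_cast hM
  rw [nds, h, div_self hM'.ne']; ring

lemma nds_near {κ : ℝ} (h0 : 0 < ε) (hM : 0 < M) (hN : Monotone N)
    (hNM : N M = m) (hε : ε * m < κ / 2) {i : ℕ} (hi : i ≤ M) : |nds ε M m N i - N i| < κ / 2 := by
  have hM' : (0:ℝ) < M := by exact_mod_cast hM
  have a1 : (N i : ℝ) ≤ m := by rw [← hNM]; exact_mod_cast hN hi
  have a2 : (i : ℝ) / M ≤ 1 := (div_le_one hM').2 (by exact_mod_cast hi)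
  have a3 : 0 ≤ (i : ℝ) / M := by positivity
  have a4 : (m : ℝ) * (i / M) ≤ m := by nlinarith [(Nat.cast_nonneg m : (0:ℝ) ≤ m)]
  have a5 : 0 ≤ (m : ℝ) * (i / M) := mul_nonneg (Nat.cast_nonneg m) a3
  have a6 : (0:ℝ) ≤ N i := Nat.cast_nonneg _
  have e : nds ε M m N i - N i = ε * (m * (i / M) - N i) := by rw [nds]; ring
  rw [e, abs_mul, abs_of_pos h0]
  have a7 : |(m : ℝ) * (i / M) - N i| ≤ m := abs_le.2 ⟨by linarith, by linarith⟩
  exact (mul_le_mul_of_nonneg_left a7 h0.le).trans_lt hε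

lemma nds_step (i : ℕ) : nds ε M m N (i + 1) - nds ε M m N i =
    (1 - ε) * ((N (i + 1) : ℝ) - N i) + ε * (m / M) := by
  rw [nds, nds]; push_cast; ring

lemma nds_step_le {Λ : ℝ} (h0 : 0 < ε) (h1 : ε ≤ 1) (hΛ : 1 ≤ Λ) {i : ℕ}
    (h : (N (i + 1) : ℝ) - N i ≤ Λ * m / M) : nds ε M m N (i + 1) - nds ε M m N i ≤ Λ * m / M := by
  rw [nds_step]
  have a1 : (1 - ε) * ((N (i + 1) : ℝ) - N i) ≤ (1 - ε) * (Λ * m / M) :=
    mul_le_mul_of_nonneg_left h (by linarith)
  have a2 : (m : ℝ) / M ≤ Λ * m / M := by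
    rw [mul_div_assoc]
    exact le_mul_of_one_le_left (by positivity) hΛ
  have a3 := mul_le_mul_of_nonneg_left a2 h0.le
  linarith

/-- **existence of real nodes** -/
theorem exists_nodes {κ : ℝ} (hκ : 0 < κ) (hM : 0 < M) (hm : 0 < m) (hN : Monotone N)
    (hN0 : N 0 = 0) (hNM : N M = m) : ∃ ε : ℝ, 0 < ε ∧ ε ≤ 1 ∧ StrictMono (nds ε M m N) ∧
      nds ε M m N 0 = 0 ∧ nds ε M m N M = m ∧ ∀ i, i ≤ M → |nds ε M m N i - N i| < κ / 2 := by
  have hm' : (0:ℝ) < m := by exact_mod_cast hm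
  refine ⟨min 1 (κ / 4 / m), lt_min one_pos (by positivity), min_le_left _ _,
    nds_strictMono (lt_min one_pos (by positivity)) (min_le_left _ _) hM hm hN, nds_zero hN0,
    nds_top hM hNM, fun i hi => nds_near (lt_min one_pos (by positivity)) hM hN hNM ?_ hi⟩
  have h1 : min 1 (κ / 4 / m) * m ≤ κ / 4 := by
    have h2 := mul_le_mul_of_nonneg_right (min_le_right 1 (κ / 4 / m)) hm'.le
    rwa [div_mul_cancel₀ _ hm'.ne'] at h2
  linarith

end nds

/-! ### `BoxG` for a mesh of grid cells -/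

section box

variable {E : Type*} [NormedAddCommGroup E] [NormedSpace ℝ E] {I : Type*}
variable {b : Set I → E} {P : I → Set E} {m m' : I → ℕ}
variable {V : Type*} [NormedAddCommGroup V] [NormedSpace ℝ V] [FiniteDimensional ℝ V] {Q : Type}
  [PartialOrder Q] {dim : Q → ℕ} {J Fam : Type} {Cm : Cmb Q dim J Fam} {K : Q → Set V} {D : Set Q}
variable {n : I → ℕ → ℝ} (hN : ∀ a, StrictMono (n a)) (hN0 : ∀ a, n a 0 = 0)
  (hNm : ∀ a, n a (m' a) = m a)
variable {La : Set E} [CompleteSpace E] [FiniteDimensional ℝ E] (F : Foam La P b 4)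
  (hQ : Quads P b) (hm' : ∀ c, 0 < m' c) (hm : ∀ c, 0 < m c)

/-- **a mesh of grid cells** of the sphere `S`, `th : S → bd P_c0` -/
structure MeshG (K : Q → Set V) (D : Set Q) (dim : Q → ℕ) {S : Set V} {c0 : I}
    (th : PLEquiv S (bdP P b m' c0)) (gx : Q → Gx P m') : Prop where
  dn : ∀ q ∈ D, ∀ p < q, p ∈ D
  mono : ∀ {p q : Q}, p < q → q ∈ D → gx p ≤ gx q
  lt : ∀ {p q : Q}, p < q → q ∈ D → dim p < dim q
  K_eq : ∀ q ∈ D, K q = {z | z ∈ S ∧ th.f z ∈ Tq b m' '' (gx q).bx}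
  h0 : ∀ q ∈ D, (gx q).hi c0 = 0
  dm : ∀ q ∈ D, dim q = (gx q).free.ncard
  /-- all faces are present -/
  face : ∀ q ∈ D, ∀ z ∈ K q, (∃ a ∈ (gx q).free, co P b m' (th.f z) a = (gx q).lo a ∨
    co P b m' (th.f z) a = (gx q).hi a) → ∃ p < q, z ∈ K p

variable {S : Set V} {c0 : I} {th : PLEquiv S (bdP P b m' c0)} {gx : Q → Gx P m'}

section geo
variable (G : MeshG K D dim th gx)
include G

include F hQ hm' in
lemma MeshG.co_mem {q : Q} (hq : q ∈ D) {z : V} (hz : z ∈ K q) :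
    co P b m' (th.f z) ∈ (gx q).bx := by
  rw [G.K_eq q hq] at hz
  exact Grd_714.co_mem F hQ hm' hz.2

lemma MeshG.sub {p q : Q} (h : p < q) (hq : q ∈ D) : K p ⊆ K q := by
  rw [G.K_eq q hq, G.K_eq p (G.dn q hq p h)]
  exact fun z hz => ⟨hz.1, image_mono (bx_mono (G.mono h hq)) hz.2⟩

include hm' in
lemma MeshG.image {q : Q} (hq : q ∈ D) : th.f '' K q = Tq b m' '' (gx q).bx := by
  rw [G.K_eq q hq]
  apply Subset.antisymm
  · rintro _ ⟨z, hz, rfl⟩; exact hz.2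
  · intro y hy
    have hy' : y ∈ bdP P b m' c0 := by
      rw [← bxS_gx hm'] at hy
      exact bxS_sub_bdP hm' (G.h0 q hq) hy
    refine ⟨th.g y, ⟨th.mg hy', ?_⟩, th.ri y hy'⟩
    rw [th.ri y hy']; exact hy

lemma MeshG.free_lt {p q : Q} (h : p < q) (hq : q ∈ D) : ∃ a ∈ (gx q).free, a ∉ (gx p).free := by
  by_contra hno
  push Not at hno
  have h1 := G.lt h hq
  rw [G.dm q hq, G.dm p (G.dn q hq p h)] at h1
  have h2 : (gx q).free ⊆ (gx p).free := fun a ha => hno a ha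
  have h3 : (gx p).free ⊆ (gx q).free := fun a ha => by
    have k1 := G.mono h hq a
    have k2 : (gx p).lo a < (gx p).hi a := ha
    show (gx q).lo a < (gx q).hi a
    omega
  rw [Subset.antisymm h2 h3] at h1
  exact lt_irrefl _ h1

include F hQ hm' in
/-- **the boundary of a cell** -/
lemma MeshG.bd {q : Q} (hq : q ∈ D) {z : V} (hz : z ∈ K q) : z ∈ bdS K q ↔
    ∃ a ∈ (gx q).free, co P b m' (th.f z) a = (gx q).lo a ∨
      co P b m' (th.f z) a = (gx q).hi a := by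
  constructor
  · intro h
    obtain ⟨p, hp, hzp⟩ := mem_iUnion₂.1 h
    obtain ⟨a, ha, ha'⟩ := G.free_lt hp hq
    have h1 := Gx.eq_of_mem ha' (G.co_mem F hQ hm' (G.dn q hq p hp) hzp)
    have h2 := Gx.lo_eq ha'
    have h3 := G.mono hp hq a
    have h4 := Gx.hi_eq ha
    refine ⟨a, ha, ?_⟩
    rw [h1]
    have h5 : (gx p).hi a = (gx q).lo a ∨ (gx p).hi a = (gx q).hi a := by omega
    rcases h5 with h | h <;> rw [h]
    · exact Or.inl rfl
    · exact Or.inr rfl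
  · intro h
    obtain ⟨p, hp, hzp⟩ := G.face q hq z hz h
    exact mem_iUnion₂.2 ⟨p, hp, hzp⟩

end geo

variable (N : I → ℕ → ℕ) {κ : ℝ} (hnN : ∀ a i, i ≤ m' a → |n a i - N a i| < κ / 2)
variable {fa : J → I} {lv : J → ℕ}

include hnN in
/-- **`BoxG` for a mesh of grid cells and real nodes** -/
theorem MeshG.boxG (G : MeshG K D dim th gx)
    (rng : ∀ q ∈ D, ∀ x : Cm.I q, N (fa (Cm.col q x)) ((gx q).lo (fa (Cm.col q x))) ≤
      lv (Cm.col q x) ∧ lv (Cm.col q x) < N (fa (Cm.col q x)) ((gx q).hi (fa (Cm.col q x))))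
    (one : ∀ q ∈ D, ∀ x x' : Cm.I q, Cm.col q x = Cm.col q x' → x = x')
    (inj : ∀ j j', fa j = fa j' → lv j = lv j' → j = j') :
    Be_416.BoxG Cm K D P b m κ fa lv (th.trans (rcR hN hN0 hNm F hQ hm' hm c0))
      (fun q a => n a ((gx q).lo a)) (fun q a => n a ((gx q).hi a))
      (fun q a => N a ((gx q).lo a)) (fun q a => N a ((gx q).hi a)) := by
  have him : ∀ q a, (gx q).hi a ≤ m' a := fun q a => (gx q).him a
  have hlm : ∀ q a, (gx q).lo a ≤ m' a := fun q a => ((gx q).le a).trans (him q a)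
  have lt_iff : ∀ q a, n a ((gx q).lo a) < n a ((gx q).hi a) ↔ a ∈ (gx q).free :=
    fun q a => (hN a).lt_iff_lt
  have fix : ∀ q a, a ∉ (gx q).free → n a ((gx q).lo a) = n a ((gx q).hi a) := fun q a h => by
    rw [Gx.lo_eq h]
  have ef : ∀ q ∈ D, ∀ z ∈ K q, ∀ a, co P b m ((th.trans
      (rcR hN hN0 hNm F hQ hm' hm c0)).f z) a = nuR (n a) (m' a) (co P b m' (th.f z) a) := by
    intro q hq z hz a
    have h1 : co P b m' (th.f z) ∈ G2 P m' := (gx q).bx_sub hm' (G.co_mem F hQ hm' hq hz)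
    show co P b m (Tq b m (fun a => nuR (n a) (m' a) (co P b m' (th.f z) a))) a = _
    rw [co_Tq F hQ hm (G2_nu (nuR_Nu hN hN0 hNm) hm' hm h1)]
  -- the values at the nodes
  have nod : ∀ q ∈ D, ∀ z ∈ K q, ∀ a, ∀ i ≤ m' a, (co P b m ((th.trans
      (rcR hN hN0 hNm F hQ hm' hm c0)).f z) a = n a i ↔ co P b m' (th.f z) a = i) := by
    intro q hq z hz a i hi
    have h1 : co P b m' (th.f z) ∈ G2 P m' := (gx q).bx_sub hm' (G.co_mem F hQ hm' hq hz)
    rw [ef q hq z hz a]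
    constructor
    · intro h
      have h2 := niR_nuR (hN a) (hN0 a) (hm' a)
        (x := co P b m' (th.f z) a) ⟨G2_nonneg hm' h1 a, G2_le hm' h1 a⟩
      rw [← h2, h, niR_nat (hN a) (hN0 a) hi]
    · intro h
      rw [h, nuR_nat (hN a) (hN0 a) hi]
  refine ⟨fun q hq => by rw [G.K_eq q hq]; exact fun z hz => hz.1, fun h hq => G.sub h hq,
    fun q hq => ?_, fun q hq g hg => ?_, fun q hq a => (hN a).monotone ((gx q).le a),
    fun q hq => ⟨c0, by show n c0 ((gx q).hi c0) = 0; rw [G.h0 q hq, hN0]⟩,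
    fun q hq a => hnN a _ (hlm q a), fun q hq a => hnN a _ (him q a), fun q hq => ?_,
    fun q hq hd => ?_, fun q hq hd => ?_, fun q hq hd z hz => ?_, rng, one, inj⟩
  · have h2 : (th.trans (rcR hN hN0 hNm F hQ hm' hm c0)).f '' K q =
        (rcR hN hN0 hNm F hQ hm' hm c0).f '' (th.f '' K q) := by
      rw [← image_comp]; rfl
    rw [h2, G.image hm' hq, ← bxS_gx hm']
    exact rcR_image hN hN0 hNm F hQ hm' hm (fun a => him q a) (fun a => hlm q a)
  · -- full
    have hb : (fun a => niR (n a) (m' a) (g a)) ∈ (gx q).bx := by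
      intro a
      have h1 := niR_mono (M := m' a) (hN a) (hg a).1
      have h2 := niR_mono (M := m' a) (hN a) (hg a).2
      rw [niR_nat (hN a) (hN0 a) (hlm q a)] at h1
      rw [niR_nat (hN a) (hN0 a) (him q a)] at h2
      exact ⟨h1, h2⟩
    have h3 := G2_nu (nuR_Nu hN hN0 hNm) hm' hm ((gx q).bx_sub hm' hb)
    have h4 : (fun a => nuR (n a) (m' a) (niR (n a) (m' a) (g a))) = g := by
      funext a
      refine nuR_niR (hN a) (hN0 a) (hm' a) ⟨?_, ?_⟩
      · refine le_trans ?_ (hg a).1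
        show 0 ≤ n a ((gx q).lo a)
        rw [← hN0 a]; exact (hN a).monotone (Nat.zero_le _)
      · exact (hg a).2.trans ((hN a).monotone (him q a))
    rw [← h4]; exact h3
  · rw [G.dm q hq]; exact (gx q).free_card F hm'
  · rw [G.dm q hq] at hd
    obtain ⟨a, ha⟩ := ncard_eq_one.1 hd
    exact ⟨a, fun c hc => fix q c (by rw [ha]; simpa using hc)⟩
  · rw [G.dm q hq] at hd
    obtain ⟨a, a', hne, ha⟩ := ncard_eq_two.1 hd
    refine ⟨a, a', hne, (lt_iff q a).2 (by rw [ha]; simp), (lt_iff q a').2 (by rw [ha]; simp),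
      fun c hc hc' => fix q c (by rw [ha]; simp [hc, hc'])⟩
  · rw [G.bd F hQ hm' hq hz]
    constructor
    · rintro ⟨a, ha, h⟩
      refine ⟨a, (lt_iff q a).2 ha, ?_⟩
      rw [nod q hq z hz a _ (hlm q a), nod q hq z hz a _ (him q a)]
      exact h
    · rintro ⟨a, ha, h⟩
      rw [nod q hq z hz a _ (hlm q a), nod q hq z hz a _ (him q a)] at h
      exact ⟨a, (lt_iff q a).1 ha, h⟩

end box

end Crest.Agent.R096.Cin_181
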