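import Crest.Agent.R096.Ecm3_446
import Crest.Agent.R096.Lab5_184
import Crest.Agent.R096.Lab3_184

/-!
# R096 (row 96), BASE-DISC, part 6 (helper446): the vertices of a tile are joined by the 1-cells of
the tile, in any labelled skeleton made of cells of the tiling
-/

set_option autoImplicit false
set_option linter.unusedSectionVars false

open Set Relation

namespace Crest.Agent.R096.Ecm_446

open Crest.Agent.R096.Msh_715
open Crest.Agent.R096.St_147 Crest.Agent.R096.Seq_213 Crest.Agent.R096.Seq_213.GSt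
  Crest.Agent.R096.Lm_117 Crest.Agent.R096.Ac_117 Crest.Agent.R096.Gl_422
open Crest.Agent.R096.Lab_184 Crest.Agent.R096.Coh_184 Crest.Agent.R096.Agl5_543
open Crest.Agent.R096.Cm_117 (cell_sub cell_cc)

variable {E : Type} [NormedAddCommGroup E] [NormedSpace ℝ E] [FiniteDimensional ℝ E]
variable {Om : Set E} {ι ι' Φ Q : Type} [PartialOrder Q] {dim : Q → ℕ} {M : MeshC ι' Φ E}
  {L : LM M Q dim}
variable {T : Tiling Om ι} {i₀ : ι} {κ : Q → T.Cell}

/-- the cells of the tile are cells of `L` -/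
structure Full (T : Tiling Om ι) (i₀ : ι) (κ : Q → T.Cell) : Prop where
  sur : ∀ c ∈ Dc T i₀, ∃ q, κ q = c
  inj : ∀ q q', κ q = κ q' → q = q'

/-- **the vertices of the tile are joined by the 1-cells of the tile** -/
theorem dk_conn (hT : OnT T L.toSk κ) (hF : Full T i₀ κ) {v v' : Q} (hv : v ∈ Dk i₀ κ)
    (hv' : v' ∈ Dk i₀ κ) (h0 : dim v = 0) (h0' : dim v' = 0) :
    ReflTransGen (Ed L {e | e ∈ Dk i₀ κ}) v v' := by
  classical
  have : Nonempty T.Cell := ⟨κ v⟩
  obtain ⟨z, hz⟩ := T.ne i₀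
  have hzO : z ∈ Om := T.sub i₀ (I_sub_P _ hz)
  have hc : (T.cl hzO).set = P (T.H i₀) := by rw [T.cl_set, T.cc_eq_tile hz]
  have hle : ∀ u : T.Cell, u.set ⊆ P (T.H i₀) → u ≤ T.cl hzO := by
    intro u hu
    rw [Tiling.Cell.le_def, hc]
    exact hu
  have key := (skT T).conn (T.cl hzO)
    (fun u => if ∃ q, κ q = u ∧ ReflTransGen (Ed L {e | e ∈ Dk i₀ κ}) v q then (1 : ZMod 2) else 0)
    ?_ (κ v) (κ v') (hle _ hv.1) (hle _ hv'.1) ((hT.dim v).trans h0) ((hT.dim v').trans h0')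
  · rw [if_pos ⟨v, rfl, ReflTransGen.refl⟩] at key
    by_contra hno
    rw [if_neg] at key
    · exact absurd key (by decide)
    · rintro ⟨q, h1, h2⟩
      rw [hF.inj _ _ h1] at h2
      exact hno h2
  · intro e he hed
    have heD : e ∈ Dc T i₀ := by
      refine ⟨?_, by rw [hed]; norm_num⟩
      rw [← hc]
      exact Tiling.Cell.le_def.1 he
    obtain ⟨e', he'⟩ := hF.sur e heD
    have hd' : dim e' = 1 := by rw [← hT.dim e', he']; exact hed
    have heD' : e' ∈ Dk i₀ κ := by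
      show κ e' ∈ Dc T i₀
      rw [he']; exact heD
    -- the ends
    have hend : ∀ b : Bool, ∃ b' : Bool, κ (L.en e' b') = (skT T).en e b := by
      intro b
      have h1 := (skT T).en_lt e hed b
      obtain ⟨u, h2, h3⟩ := hT.down e' ((skT T).en e b) (by rw [he']; exact h1.le)
      have h4 : dim u = 0 := by
        rw [← hT.dim u, h3]
        exact (skT T).en_dim e hed b
      have h5 : u < e' := lt_of_le_of_ne h2 (by rintro rfl; omega)
      rcases L.en_all e' hd' u h5 with h6 | h6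
      · exact ⟨false, by rw [← h6, h3]⟩
      · exact ⟨true, by rw [← h6, h3]⟩
    obtain ⟨b₀, hb₀⟩ := hend false
    obtain ⟨b₁, hb₁⟩ := hend true
    have hne : b₀ ≠ b₁ := by
      rintro rfl
      exact (skT T).en_ne e hed (hb₀.symm.trans hb₁)
    have hb : b₁ = !b₀ := by cases b₀ <;> cases b₁ <;> simp_all
    have hEd : Ed L {e | e ∈ Dk i₀ κ} (L.en e' b₀) (L.en e' b₁) := ⟨e', heD', hd', b₀, rfl, by rw [hb]⟩
    have hiff : (∃ q, κ q = (skT T).en e false ∧ ReflTransGen (Ed L {e | e ∈ Dk i₀ κ}) v q) ↔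
        ∃ q, κ q = (skT T).en e true ∧ ReflTransGen (Ed L {e | e ∈ Dk i₀ κ}) v q := by
      constructor
      · rintro ⟨q, h1, h2⟩
        rw [hF.inj q (L.en e' b₀) (h1.trans hb₀.symm)] at h2
        exact ⟨_, hb₁, h2.tail hEd⟩
      · rintro ⟨q, h1, h2⟩
        rw [hF.inj q (L.en e' b₁) (h1.trans hb₁.symm)] at h2
        exact ⟨_, hb₀, h2.tail hEd.symm⟩
    simp only [hiff]

end Crest.Agent.R096.Ecm_446
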