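import Crest.Agent.R096.Ecm4_446
import Crest.Agent.R096.Ecm6_446
import Crest.Agent.R096.Cin1_181
import Crest.Agent.R096.SkB1b_662

/-!
# R096 (row 96), BASE-DISC, part 5 (helper446): the discrete half of the instance for one core, from
662's final state `StO`; `Inv` and `BoxG` with 181's `MeshG`

`Disc Cm D lv N lo hi` : all discrete hypotheses of `inv_base_mesh_R` and of `MeshG.boxG`.
-/

set_option autoImplicit false
set_option linter.unusedSectionVars false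
set_option linter.style.longLine false

open Set Relation

namespace Crest.Agent.R096.Ecm_446

open Crest.Agent.R096.Msh_715
open Crest.Agent.R096.St_147 Crest.Agent.R096.Seq_213 Crest.Agent.R096.Seq_213.GSt
  Crest.Agent.R096.Lm_117 Crest.Agent.R096.Ac_117 Crest.Agent.R096.Gl_422
open Crest.Agent.R096.Ce_537 Crest.Agent.R096.Bd_416 Crest.Agent.R096.Mg_441
open Crest.Agent.R096.Lab_184 Crest.Agent.R096.Agl5_543
open Crest.Agent.R096.On_441 (Lf xlf)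
open Crest.Agent.R096.Cp_298

section comb

variable {Q : Type} [PartialOrder Q] {dim : Q → ℕ} {J C : Type}

/-- **all discrete hypotheses of the base** -/
structure Disc (Cm : Cmb Q dim J C) (D : Set Q) (lv : J → ℕ) (N : C → ℕ → ℕ) (lo hi : Q → C → ℕ) :
    Prop where
  dn : ∀ q ∈ D, ∀ p < q, p ∈ D
  inj : ∀ j j', Cm.fam j = Cm.fam j' → lv j = lv j' → j = j'
  one : ∀ q ∈ D, ∀ x x' : Cm.I q, Cm.col q x = Cm.col q x' → x = x'
  ex : ∀ q ∈ D, ∀ j, N (Cm.fam j) (lo q (Cm.fam j)) ≤ lv j →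
    lv j < N (Cm.fam j) (hi q (Cm.fam j)) → ∃ x, Cm.col q x = j
  lab1 : ∀ q ∈ D, ∀ j, (∀ x, Cm.col q x ≠ j) → lv j < N (Cm.fam j) (lo q (Cm.fam j)) →
    Cm.Lab j q = 1
  lab0 : ∀ q ∈ D, ∀ j, (∀ x, Cm.col q x ≠ j) → N (Cm.fam j) (hi q (Cm.fam j)) ≤ lv j →
    Cm.Lab j q = 0
  sd : ∀ q ∈ D, ∀ x x', x ≠ x' → Cm.fam (Cm.col q x) = Cm.fam (Cm.col q x') →
    Cm.side q x x' = Cm.Lab (Cm.col q x') q +
      if lv (Cm.col q x') < lv (Cm.col q x) then 1 else 0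
  rng : ∀ q ∈ D, ∀ x : Cm.I q, N (Cm.fam (Cm.col q x)) (lo q (Cm.fam (Cm.col q x))) ≤
    lv (Cm.col q x) ∧ lv (Cm.col q x) < N (Cm.fam (Cm.col q x)) (hi q (Cm.fam (Cm.col q x)))

theorem disc_of_exa {Cm : Cmb Q dim J C} {D : Set Q} {lv : J → ℕ} {N : C → ℕ → ℕ}
    {lo hi : Q → C → ℕ} {Nv : Q → C → ℕ}
    (X : Exa Cm D Cm.fam lv Nv (fun q a => N a (lo q a)) (fun q a => N a (hi q a)))
    (hO : OrdN Cm lv) (inj : ∀ j j', Cm.fam j = Cm.fam j' → lv j = lv j' → j = j')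
    (rng : ∀ q ∈ D, ∀ x : Cm.I q, N (Cm.fam (Cm.col q x)) (lo q (Cm.fam (Cm.col q x))) ≤
      lv (Cm.col q x) ∧ lv (Cm.col q x) < N (Cm.fam (Cm.col q x)) (hi q (Cm.fam (Cm.col q x)))) :
    Disc Cm D lv N lo hi :=
  ⟨X.dn, inj, X.one, X.ex, X.lab1, X.lab0', X.sd hO, rng⟩

theorem Disc.congr {Cm : Cmb Q dim J C} {D : Set Q} {lv : J → ℕ} {N : C → ℕ → ℕ}
    {lo hi lo' hi' : Q → C → ℕ} (X : Disc Cm D lv N lo hi)
    (h : ∀ q ∈ D, ∀ a, lo' q a = lo q a ∧ hi' q a = hi q a) : Disc Cm D lv N lo' hi' where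
  dn := X.dn
  inj := X.inj
  one := X.one
  ex := fun q hq j => by rw [(h q hq _).1, (h q hq _).2]; exact X.ex q hq j
  lab1 := fun q hq j hj => by rw [(h q hq _).1]; exact X.lab1 q hq j hj
  lab0 := fun q hq j hj => by rw [(h q hq _).2]; exact X.lab0 q hq j hj
  sd := X.sd
  rng := fun q hq x => by rw [(h q hq _).1, (h q hq _).2]; exact X.rng q hq x

theorem Disc.sub {Cm : Cmb Q dim J C} {D D' : Set Q} {lv : J → ℕ} {N : C → ℕ → ℕ}
    {lo hi : Q → C → ℕ} (X : Disc Cm D lv N lo hi) (h : D' ⊆ D)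
    (dn : ∀ q ∈ D', ∀ p < q, p ∈ D') : Disc Cm D' lv N lo hi where
  dn := dn
  inj := X.inj
  one := fun q hq => X.one q (h hq)
  ex := fun q hq => X.ex q (h hq)
  lab1 := fun q hq => X.lab1 q (h hq)
  lab0 := fun q hq => X.lab0 q (h hq)
  sd := fun q hq => X.sd q (h hq)
  rng := fun q hq => X.rng q (h hq)

end comb

/-! ### `Inv` and `BoxG` -/

section geo

open Crest.Agent.R096.Xp_537 Crest.Agent.R096.Brk1_582 Crest.Agent.R096.Brk2_582
open Crest.Agent.R096.Brk6_582 Crest.Agent.R096.Grd_714 Crest.Agent.R096.Bin_181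
open Crest.Agent.R096.Cin_181 Crest.Agent.R096.Be_416

variable {E : Type*} [NormedAddCommGroup E] [NormedSpace ℝ E] {I : Type}
variable {b : Set I → E} {P : I → Set E} {m m' : I → ℕ}
variable {V : Type*} [NormedAddCommGroup V] [NormedSpace ℝ V] [FiniteDimensional ℝ V] {Q : Type}
  [PartialOrder Q] {dim : Q → ℕ} {J : Type} {Cm : Cmb Q dim J I} {K : Q → Set V} {D : Set Q}
variable {n : I → ℕ → ℝ} (hN : ∀ a, StrictMono (n a)) (hN0 : ∀ a, n a 0 = 0)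
  (hNm : ∀ a, n a (m' a) = m a)
variable {La : Set E} [CompleteSpace E] [FiniteDimensional ℝ E] (F : Foam La P b 4)
  (hQ : Quads P b) (hne : ∀ c, (P c).Nonempty) (hm' : ∀ c, 0 < m' c) (hm : ∀ c, 0 < m c)
  {κ : ℝ} (hκ : 0 < κ ∧ κ < 1) (c : Cel P m)
variable {S : Set V} {c0 : I} {th : PLEquiv S (bdP P b m' c0)} {gx : Q → Gx P m'}
variable {N : I → ℕ → ℕ} (hnN : ∀ a i, i ≤ m' a → |n a i - N a i| < κ / 2) {lv : J → ℕ}

include hκ hnN in
/-- **BASE-INV for one exact core** -/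
theorem Disc.inv (X : Disc Cm D lv N (fun q => (gx q).lo) (fun q => (gx q).hi))
    (G : MeshG K D dim th gx) (hKc : ∀ q ∈ D, IsClosed (K q)) :
    Inv Cm K D (ekS (grid F hQ hne hm) b κ c Cm.fam lv (th.trans (rcR hN hN0 hNm F hQ hm' hm c0)))
      (fun q x => K q ∩ (ekS (grid F hQ hne hm) b κ c Cm.fam lv
        (th.trans (rcR hN hN0 hNm F hQ hm' hm c0))).B (Cm.col q x))
      (fun q x z => sg (Cm.Lab (Cm.col q x) q) *
        ((ekS (grid F hQ hne hm) b κ c Cm.fam lv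
          (th.trans (rcR hN hN0 hNm F hQ hm' hm c0))).G (Cm.col q x) z - 1/2)) :=
  inv_base_mesh_R hN hN0 hNm F hQ hne hm' hm hκ c Cm.fam lv th N hnN X.inj X.dn gx
    (fun h hq => G.mono h hq) G.K_eq hKc G.h0 X.one X.ex (fun _ _ h => h) X.lab1 X.lab0 X.sd

include hnN in
/-- **416's `BoxG` for one exact core** -/
theorem Disc.boxG (X : Disc Cm D lv N (fun q => (gx q).lo) (fun q => (gx q).hi))
    (G : MeshG K D dim th gx) :
    BoxG Cm K D P b m κ Cm.fam lv (th.trans (rcR hN hN0 hNm F hQ hm' hm c0))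
      (fun q a => n a ((gx q).lo a)) (fun q a => n a ((gx q).hi a))
      (fun q a => N a ((gx q).lo a)) (fun q a => N a ((gx q).hi a)) :=
  G.boxG hN hN0 hNm F hQ hm' hm N hnN X.rng X.one X.inj

end geo

/-! ### the final state of 662 -/

section fin

open Crest.Agent.R096.SkB_662

variable {E : Type} [NormedAddCommGroup E] [NormedSpace ℝ E] [FiniteDimensional ℝ E]
variable {Om : Set E} {ι ι' Φ Q J C K : Type} [PartialOrder Q] {dim : Q → ℕ} {M : MeshC ι' Φ E}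
  {L : LM M Q dim}
variable {T : Tiling Om ι} {i₀ : ι} {κ : Q → T.Cell}
variable {O : Ori M} {σ : Q → ZMod 2} {Rel : E → E → Prop} {VV : Set E}
  {Qd : Quads ι' C K} {κc : C → ℕ} {fam : J → C} {s₀ : GSt M fam} {far₀ : J → Set E}
  {G₀ : C → Set E} {Z : C → Set Q} {lam₀ : J → Q → ZMod 2} {v₀ v₁ : C → Q}
  {hfin : ∀ a, {j | fam j = a}.Finite} {kap : C → ℕ} {s : GSt M (fam' fam (Rk κc kap))}
  {far : Nm' fam (Rk κc kap) → Set E} {β : E → E} {lam : Nm' fam (Rk κc kap) → Q → ZMod 2}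
variable {U : E → C → ℝ} {τ : J → ℝ} {X V : J → Set E}

/-- the numbers of the nodes -/
noncomputable def NN (fam : J → C) (κc kap : C → ℕ) (τ : J → ℝ) : C → ℕ → ℕ :=
  cnt (fam' fam (Rk κc kap)) (fun y => τ y.1)

/-- **the final state on the boundary of an exact core** -/
theorem sto_disc (hi : StI L O σ Rel VV Qd κc s₀ far₀ G₀ Z lam₀ v₀ v₁)
    (h : StO L O σ Rel VV Qd κc s₀ far₀ Z lam₀ v₀ v₁ hfin kap s far β lam)
    (hT : OnT T L.toSk κ) (hF : Full T i₀ κ) (G : CG T i₀ U) (Wd : CW T i₀ U fam τ X V)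
    (hX : ∀ w ∈ s₀.P, w ∈ P (T.H i₀) → w ∈ X (s₀.lab w))
    (hfr : ∀ e ∈ Dk i₀ κ, dim e = 1 → ∀ c, FrE L Qd c e)
    (hpath : ∀ c, (∃ j, fam j = c) → (∃ v ∈ Dk i₀ κ, dim v = 0 ∧
      ReflTransGen (Ed L {e | FrE L Qd c e}) (v₀ c) v) ∨
      ∀ v ∈ Dk i₀ κ, dim v = 0 → v ∈ Z c ∧ ∀ j, fam j = c → lam₀ j v = 0)
    (hl : ∀ v ∈ Dk i₀ κ, dim v = 0 → ∀ j, lam₀ j v = 1 ↔ (κ v).pt ∈ V j) :
    Disc h.cmb (Dk i₀ κ) (nr L s lam h.fin1) (NN fam κc kap τ) (lo U κ) (Ecm_446.hi U κ) := by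
  have hP0 : ∀ w ∈ s₀.P, w ∈ L.W1 := fun w hw => hi.V1 (hi.PV hw)
  have hpath' : ∀ v ∈ Dk i₀ κ, dim v = 0 → ∀ j : Nm' fam (Rk κc kap),
      ReflTransGen (Ed L {e | FrE L Qd (fam' fam (Rk κc kap) j) e})
        (v₀ (fam' fam (Rk κc kap) j)) v ∨
        (v ∈ Z (fam' fam (Rk κc kap) j) ∧ ∀ j' : Nm' fam (Rk κc kap),
          fam' fam (Rk κc kap) j' = fam' fam (Rk κc kap) j → lam₀ j'.1 v = 0) := by
    intro v hv h0 j
    rcases hpath (fam j.1) ⟨j.1, rfl⟩ with ⟨u, h1, h2, h4⟩ | h5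
    · refine Or.inl (h4.trans ?_)
      have h6 := dk_conn hT hF h1 hv h2 h0
      refine ReflTransGen.mono ?_ _ _ h6
      rintro x y ⟨e, he, he1, b, k1, k2⟩
      exact ⟨e, hfr e he he1 _, he1, b, k1, k2⟩
    · exact Or.inr ⟨(h5 v hv h0).1, fun j' hj' => (h5 v hv h0).2 j'.1 hj'⟩
  have hE := exa_core hT G Wd h.cps hi.rel hP0 hX (fun _ => rfl) hi.inv h.inv h.lab h.lfs
    (fun q _ hq => hi.top.cf_sur q hq) (fun e he h1 j => hfr e he h1 _)
    hpath' h.fin1 hl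
  have h1 : E1 L s (Dk i₀ κ) := E1_final h.cps hi.rel hP0 (fun _ => rfl) hi.inv h.inv
    (fun e he h1 j => hfr e he h1 _) (E1_core hT Wd hX)
  exact disc_of_exa hE (ordN_final h.lab h.lfs h.fin1) (nr_hinj h.lab h.fin1)
    (rng_of_exa h.lfs (xlf h.lab.lab) h1 hE)

/-- every number is used -/
theorem sto_sur (h : StO L O σ Rel VV Qd κc s₀ far₀ Z lam₀ v₀ v₁ hfin kap s far β lam) :
    ∀ a k, k < mm h.fin1 a → ∃ j, h.cmb.fam j = a ∧ nr L s lam h.fin1 j = k :=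
  nr_hsur h.lab h.fin1

theorem sto_lt (h : StO L O σ Rel VV Qd κc s₀ far₀ Z lam₀ v₀ v₁ hfin kap s far β lam) :
    ∀ j, nr L s lam h.fin1 j < mm h.fin1 (h.cmb.fam j) := nr_hlt h.fin1

theorem sto_inj (h : StO L O σ Rel VV Qd κc s₀ far₀ Z lam₀ v₀ v₁ hfin kap s far β lam) :
    ∀ j j', h.cmb.fam j = h.cmb.fam j' → nr L s lam h.fin1 j = nr L s lam h.fin1 j' → j = j' :=
  nr_hinj h.lab h.fin1

/-- 416's form of `ex` -/
theorem Disc.ex' {Cm : Cmb Q dim J C} {D : Set Q} {lv : J → ℕ} {N : C → ℕ → ℕ}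
    {lo hi : Q → C → ℕ} (X : Disc Cm D lv N lo hi) {m : C → ℕ}
    (sur : ∀ a k, k < m a → ∃ j, Cm.fam j = a ∧ lv j = k) (hm : ∀ q ∈ D, ∀ a, N a (hi q a) ≤ m a) :
    ∀ q ∈ D, ∀ a k, N a (lo q a) ≤ k → k < N a (hi q a) →
      ∃ x : Cm.I q, Cm.fam (Cm.col q x) = a ∧ lv (Cm.col q x) = k := by
  intro q hq a k h1 h2
  obtain ⟨j, rfl, rfl⟩ := sur a k (h2.trans_le (hm q hq a))
  obtain ⟨x, hx⟩ := X.ex q hq j h1 h2
  exact ⟨x, by rw [hx], by rw [hx]⟩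

theorem NN_mono (hfin : ∀ a, {j | fam j = a}.Finite) (a : C) : Monotone (NN fam κc kap τ a) :=
  cnt_mono (fin_copies (Rk κc kap) hfin) _ a

theorem NN_zero (hτ : ∀ j, 0 < τ j) (a : C) : NN fam κc kap τ a 0 = 0 :=
  cnt_zero (fun y : Nm' fam (Rk κc kap) => hτ y.1) a

theorem NN_top {M : ℕ} (hτ : ∀ j, τ j ≤ M) (a : C) (hfin : ∀ a, {j | fam j = a}.Finite) :
    NN fam κc kap τ a M = mm (fin_copies (Rk κc kap) hfin) a := by
  unfold NN
  rw [cnt_top (fun y : Nm' fam (Rk κc kap) => hτ y.1) a]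
  exact ncard_mm (fin_copies (Rk κc kap) hfin) a

/-- the number of the copies below a height -/
theorem NN_eq (hfin : ∀ a, {j | fam j = a}.Finite) (a : C) (i : ℕ) :
    NN fam κc kap τ a i = Rk κc kap a * cnt fam τ a i := by
  classical
  have h1 : {y : Nm' fam (Rk κc kap) | fam' fam (Rk κc kap) y = a ∧ τ y.1 ≤ i} =
      (((sh hfin a).filter (fun j => τ j ≤ i)).sigma
        (fun j => (Finset.univ : Finset (Fin (Rk κc kap (fam j))))) : Set (Nm' fam (Rk κc kap))) := by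
    ext y
    rw [Finset.mem_coe, Finset.mem_sigma, Finset.mem_filter, mem_sh]
    exact ⟨fun h => ⟨⟨h.1, h.2⟩, Finset.mem_univ _⟩, fun h => ⟨h.1.1, h.1.2⟩⟩
  have h2 : {j | fam j = a ∧ τ j ≤ i} = (((sh hfin a).filter (fun j => τ j ≤ i) : Finset J) : Set J) := by
    ext j
    rw [Finset.mem_coe, Finset.mem_filter, mem_sh]
    exact Iff.rfl
  unfold NN cnt
  rw [h1, h2, Set.ncard_coe_finset, Set.ncard_coe_finset, Finset.card_sigma,
    Finset.sum_congr rfl (fun j hj => by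
    rw [Finset.card_univ, Fintype.card_fin, (mem_sh hfin).1 (Finset.mem_filter.1 hj).1] :
      ∀ j ∈ (sh hfin a).filter (fun j => τ j ≤ i),
        (Finset.univ : Finset (Fin (Rk κc kap (fam j)))).card = Rk κc kap a),
    Finset.sum_const, smul_eq_mul, mul_comm]

end fin

end Crest.Agent.R096.Ecm_446
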