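import Crest.Agent.R096.Vb9_965

/-! Row 96 (helper965), EXA-CIRC: the levels `{s_a = t}` on the boundary of a cell `c` are
preconnected; two levels meet in exactly one point of every quad -/

set_option autoImplicit false
set_option linter.unusedSectionVars false
set_option linter.style.haveILetI false

open Set Topology Filter

namespace Crest.Agent.R096.Exc_965

open Crest.Agent.R096.Coh_184 Crest.Agent.R096.Brk1_582 Crest.Agent.R096.Brk2_582
open Crest.Agent.R096.Bsp_628 Crest.Agent.R096.Brk3_582 Crest.Agent.R096.Vb_965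

section foam

variable {E : Type*} [NormedAddCommGroup E] [NormedSpace ℝ E] [CompleteSpace E] {I : Type*}
variable {La : Set E} {P : I → Set E} {b : Set I → E} {N : ℕ}

/-- the level `t` of `s_a` on the boundary of the cell `c` -/
def ring (P : I → Set E) (b : Set I → E) (c a : I) (t : ℝ) : Set E :=
  {q | q ∈ P c ∧ (∃ d, d ≠ c ∧ q ∈ P d) ∧ sc P b q a = t}

/-- the relative boundary of the face `{a, c}` -/
def rel2 (P : I → Set E) (c a : I) : Set E := {q | q ∈ P c ∧ q ∈ P a ∧ ∃ d, d ≠ c ∧ d ≠ a ∧ q ∈ P d}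

variable (F : Foam La P b N) {c a a' : I} {s t : ℝ}
include F

theorem ring_eq_frontier : ring P b c a t = {q ∈ frontier (P c) | sc P b q a = t} := by
  ext q
  rw [frontier_cell F, Lset_zero F]
  exact ⟨fun h => ⟨⟨h.1, h.2.1⟩, h.2.2⟩, fun h => ⟨h.1.1, h.1.2, h.2⟩⟩

theorem isCompact_ring : IsCompact (ring P b c a t) := by
  rw [ring_eq_frontier F]
  have h1 : IsCompact (frontier (P c)) := by
    rw [frontier_cell F]; exact isCompact_Lset_zero F c
  have h2 : frontier (P c) ⊆ La := (F.cpt c).isClosed.frontier_subset.trans (F.sub c)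
  exact h1.of_isClosed_subset (((continuousOn_sc_apply F a).mono h2).preimage_isClosed_of_isClosed
    h1.isClosed isClosed_singleton) inter_subset_left

theorem ring_sub_Lset (ht0 : 0 < t) : ring P b c a t ⊆ Lset La P b a t := fun _ hq =>
  mem_Lset_of_pos F ht0.ne' (F.sub c hq.1) hq.2.2

theorem rel2_sub_Lset (hac : a ≠ c) : rel2 P c a ⊆ Lset La P b a 0 := by
  rintro q ⟨h1, h2, -⟩
  rw [Lset_zero F]
  exact ⟨h2, c, hac.symm, h1⟩

/-- **the rings are images of the relative boundary of the facet under the coordinate move** -/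
theorem ring_eq_image [DecidableEq I] (hac : a ≠ c) (ht0 : 0 < t) (ht1 : t < 1) :
    ring P b c a t = mv P b a t '' rel2 P c a := by
  apply Subset.antisymm
  · intro q hq
    have hqL := ring_sub_Lset F ht0 hq
    have h1 := sc_mv F ht1 le_rfl one_pos hqL
    have h2 := mv_mem F ht1 le_rfl one_pos hqL
    refine ⟨mv P b a 0 q, ⟨?_, ?_, ?_⟩, mv_mv F ht1 le_rfl one_pos hqL⟩
    · rw [← F.sc_eq_zero h2.1, h1, Function.update_of_ne hac.symm]
      exact (F.sc_eq_zero hqL.1).2 hq.1
    · rw [← F.sc_eq_zero h2.1, h1, Function.update_self]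
    · obtain ⟨d, hdc, hd⟩ := hq.2.1
      have hda : d ≠ a := by
        rintro rfl
        have := (F.sc_eq_zero hqL.1).2 hd
        rw [hq.2.2] at this
        exact ht0.ne' this
      refine ⟨d, hdc, hda, ?_⟩
      rw [← F.sc_eq_zero h2.1, h1, Function.update_of_ne hda]
      exact (F.sc_eq_zero hqL.1).2 hd
  · rintro _ ⟨q, hq, rfl⟩
    have hqL := rel2_sub_Lset F hac hq
    have h1 := sc_mv F one_pos ht0.le ht1 hqL
    have h2 := mv_mem F one_pos ht0.le ht1 hqL
    obtain ⟨hqc, hqa, d, hdc, hda, hd⟩ := hq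
    refine ⟨?_, ⟨d, hdc, ?_⟩, h2.2.1⟩
    · rw [← F.sc_eq_zero h2.1, h1, Function.update_of_ne hac.symm]
      exact (F.sc_eq_zero hqL.1).2 hqc
    · rw [← F.sc_eq_zero h2.1, h1, Function.update_of_ne hda]
      exact (F.sc_eq_zero hqL.1).2 hd

theorem isPreconnected_ring_of (hac : a ≠ c) (ht0 : 0 < t) (ht1 : t < 1)
    (h : IsPreconnected (rel2 P c a)) : IsPreconnected (ring P b c a t) := by
  classical
  rw [ring_eq_image F hac ht0 ht1]
  exact h.image _ ((continuousOn_mv F one_pos ht0.le ht1).mono (rel2_sub_Lset F hac))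

theorem ring_nonempty_of (hac : a ≠ c) (ht0 : 0 < t) (ht1 : t < 1)
    (h : (rel2 P c a).Nonempty) : (ring P b c a t).Nonempty := by
  classical
  rw [ring_eq_image F hac ht0 ht1]
  exact h.image _

/-- **(E2) existence and uniqueness of the point of a quad** -/
theorem quad_point {Z : Set I} (hZ : Z.Nonempty) (hN : (insert a (insert a' Z)).ncard = N)
    (hne : (fc P (insert a (insert a' Z))).Nonempty) (haa : a ≠ a') (ha : a ∉ Z) (ha' : a' ∉ Z)
    (hs0 : 0 ≤ s) (hs1 : s < 1) (ht0 : 0 ≤ t) (ht1 : t < 1) :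
    ∃! q, q ∈ La ∧ (∀ z ∈ Z, q ∈ P z) ∧ sc P b q a = s ∧ sc P b q a' = t := by
  classical
  let u : I → ℝ := fun c => if c = a then s else if c = a' then t else if c ∈ Z then 0 else 1
  have hlt : {c | u c < 1} ⊆ insert a (insert a' Z) := by
    intro c hc
    have hc' : u c < 1 := hc
    by_contra hno
    have h1 : c ≠ a := fun h => hno (Or.inl h)
    have h2 : c ≠ a' := fun h => hno (Or.inr (Or.inl h))
    have h3 : c ∉ Z := fun h => hno (Or.inr (Or.inr h))
    simp only [u, if_neg h1, if_neg h2, if_neg h3] at hc'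
    exact lt_irrefl _ hc'
  have huZ : ∀ z ∈ Z, u z = 0 := by
    intro z hz
    have h1 : z ≠ a := fun h => ha (h ▸ hz)
    have h2 : z ≠ a' := fun h => ha' (h ▸ hz)
    simp only [u, if_neg h1, if_neg h2, if_pos hz]
  have huK : u ∈ K P := by
    refine ⟨fun c => ?_, ?_, ?_⟩
    · simp only [u]
      split_ifs
      · exact ⟨hs0, hs1.le⟩
      · exact ⟨ht0, ht1.le⟩
      · exact ⟨le_rfl, zero_le_one⟩
      · exact ⟨zero_le_one, le_rfl⟩
    · obtain ⟨z, hz⟩ := hZ
      exact ⟨z, huZ z hz⟩
    · exact hne.mono (fc_anti hlt)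
  have hL := F.T_mem_La huK
  have hsc := F.sc_T huK
  refine ⟨T b u, ⟨hL, ?_, ?_, ?_⟩, ?_⟩
  · intro z hz
    rw [← F.sc_eq_zero hL, hsc]
    exact huZ z hz
  · rw [hsc]; simp [u]
  · rw [hsc]; simp [u, haa.symm]
  · rintro q ⟨hqL, hqZ, hqa, hqa'⟩
    have hq : q ∈ arcQ La P b Z a a' s t t := ⟨hqL, hqZ, hqa, hqa'.ge, hqa'.le⟩
    refine F.sc_inj hqL hL ?_
    rw [hsc]
    funext c
    by_cases h1 : c = a
    · rw [h1, hqa]; simp [u]
    by_cases h2 : c = a'
    · rw [h2, hqa']; simp [u, haa.symm]
    by_cases h3 : c ∈ Z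
    · rw [(F.sc_eq_zero hqL).2 (hqZ c h3), huZ c h3]
    · rw [sc_arcQ F hN hs1 ht1 hq h1 h2 h3]
      simp only [u, if_neg h1, if_neg h2, if_neg h3]

/-- **(E2') a common point of two rings of `c` lies in exactly one further cell** (`N = 4`) -/
theorem ring_inter (hN : N ≤ 4) (hac : a ≠ c) (hac' : a' ≠ c) (haa : a ≠ a') (hs0 : 0 < s)
    (hs1 : s < 1) (ht0 : 0 < t) (ht1 : t < 1) {q : E} (h1 : q ∈ ring P b c a s)
    (h2 : q ∈ ring P b c a' t) :
    ∃! d, d ≠ c ∧ q ∈ P d := by
  have hqL := F.sub c h1.1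
  obtain ⟨d, hdc, hd⟩ := h1.2.1
  have hne : ∀ e, q ∈ P e → e ≠ a ∧ e ≠ a' := by
    intro e he
    have h0 := (F.sc_eq_zero hqL).2 he
    constructor
    · rintro rfl
      rw [h1.2.2] at h0; exact hs0.ne' h0
    · rintro rfl
      rw [h2.2.2] at h0; exact ht0.ne' h0
  refine ⟨d, ⟨hdc, hd⟩, ?_⟩
  rintro e ⟨hec, he⟩
  by_contra hed
  have hsub : ({a, a', c, d, e} : Set I) ⊆ {x | sc P b q x < 1} := by
    rintro x (rfl | rfl | rfl | rfl | rfl)
    · show sc P b q x < 1
      rw [h1.2.2]; exact hs1
    · show sc P b q x < 1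
      rw [h2.2.2]; exact ht1
    · show sc P b q x < 1
      rw [(F.sc_eq_zero hqL).2 h1.1]; exact one_pos
    · show sc P b q x < 1
      rw [(F.sc_eq_zero hqL).2 hd]; exact one_pos
    · show sc P b q x < 1
      rw [(F.sc_eq_zero hqL).2 he]; exact one_pos
  have h3 := (ncard_le_ncard hsub (F.sc_lt_one_finite hqL)).trans (F.sc_lt_one_ncard hqL)
  have h4 : ({a, a', c, d, e} : Set I).ncard = 5 := by
    obtain ⟨g1, g2⟩ := hne d hd
    obtain ⟨g3, g4⟩ := hne e he
    rw [ncard_insert_of_notMem, ncard_insert_of_notMem, ncard_insert_of_notMem,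
      ncard_pair (fun h => hed h.symm)]
    · rintro (h | h)
      · exact hdc h.symm
      · exact hec h.symm
    · rintro (h | h | h)
      · exact hac' h
      · exact g2 h.symm
      · exact g4 h.symm
    · rintro (h | h | h | h)
      · exact haa h
      · exact hac h
      · exact g1 h.symm
      · exact g3 h.symm
  omega

end foam

/-! ### box foams: the relative boundary of a face of dimension at least two is connected -/

section box

variable {κ : Type*} [Fintype κ] [Nonempty κ] {La : Set (κ → ℝ)} {F : Set (Bx κ)} {δ κ0 : ℝ}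

theorem mem_relbd (BF : BoxFoam La F δ κ0) (hLa : IsOpen La) {A : Set F} (hA : A.Finite)
    (hne : A.Nonempty) {y : κ → ℝ} (hy : y ∈ fc (Pc F) A) :
    act (Pc F) y ≠ A ↔ ∃ k, loA A k ≠ hiA A k ∧ (y k = loA A k ∨ y k = hiA A k) := by
  have FF := foam BF hLa
  have hyD := (mem_fc_iff hA hne).1 hy
  constructor
  · intro h
    by_contra hno
    push Not at hno
    apply h
    -- all nondegenerate coordinates are strictly inside
    have hcont : ∀ k, Continuous fun s : ℝ => (bc (F := F) A + s • (y - bc A)) k := by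
      intro k; fun_prop
    have hone : ∀ k, (bc (F := F) A + (1 : ℝ) • (y - bc A)) k = y k := by
      intro k; simp
    have hev : ∀ᶠ s in 𝓝 (1 : ℝ), ∀ k, loA A k ≤ (bc (F := F) A + s • (y - bc A)) k ∧
        (bc (F := F) A + s • (y - bc A)) k ≤ hiA A k := by
      rw [Filter.eventually_all]
      intro k
      by_cases hk : loA A k = hiA A k
      · refine Eventually.of_forall fun s => ?_
        have h1 : y k = bc (F := F) A k := by
          have := hyD k
          unfold bc
          linarith
        have h2 : (bc (F := F) A + s • (y - bc A)) k = bc (F := F) A k := by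
          simp [h1]
        rw [h2]
        unfold bc
        constructor <;> linarith
      · obtain ⟨h1, h2⟩ := hno k hk
        have h3 : loA A k < y k := lt_of_le_of_ne (hyD k).1 (Ne.symm h1)
        have h4 : y k < hiA A k := lt_of_le_of_ne (hyD k).2 h2
        have h5 : ∀ᶠ s in 𝓝 (1 : ℝ), loA A k < (bc (F := F) A + s • (y - bc A)) k :=
          (hcont k).continuousAt.eventually (lt_mem_nhds (by
            show loA A k < (bc (F := F) A + (1 : ℝ) • (y - bc A)) k
            rw [hone k]; exact h3))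
        have h6 : ∀ᶠ s in 𝓝 (1 : ℝ), (bc (F := F) A + s • (y - bc A)) k < hiA A k :=
          (hcont k).continuousAt.eventually (gt_mem_nhds (by
            show (bc (F := F) A + (1 : ℝ) • (y - bc A)) k < hiA A k
            rw [hone k]; exact h4))
        filter_upwards [h5, h6] with s g1 g2 using ⟨g1.le, g2.le⟩
    have hev2 : ∀ᶠ s in 𝓝[>] (1 : ℝ), bc (F := F) A + s • (y - bc A) ∈ fc (Pc F) A := by
      filter_upwards [nhdsWithin_le_nhds hev] with s hs
      exact (mem_fc_iff hA hne).2 hs
    obtain ⟨s, hs, hs1⟩ := (hev2.and self_mem_nhdsWithin).exists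
    have hs1' : (1 : ℝ) < s := hs1
    have h7 := FF.rel A hne _ hs (1 / s) ⟨by positivity, by rw [div_lt_one (by linarith)]; exact hs1'⟩
    have h8 : bc (F := F) A + (1 / s) • (bc A + s • (y - bc A) - bc A) = y := by
      rw [add_sub_cancel_left, smul_smul, one_div, inv_mul_cancel₀ (by linarith), one_smul]
      abel
    rw [h8] at h7
    exact h7
  · rintro ⟨k, hk, hyk⟩ hact
    have hlt : loA A k < hiA A k := lt_of_le_of_ne ((hyD k).1.trans (hyD k).2) hk
    have hyL : y ∈ La := FF.fc_sub_La hne hy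
    have hyb : y ≠ bc (act (Pc F) y) := by
      rw [hact]
      intro h
      have h1 : y k = (loA A k + hiA A k) / 2 := congrFun h k
      rcases hyk with h2 | h2 <;> linarith
    obtain ⟨t, ht, h3⟩ := FF.exit y hyL hyb
    rw [hact] at h3
    have h4 := (mem_fc_iff hA hne).1 h3 k
    have h5 : (bc (F := F) A + t • (y - bc A)) k =
        (loA A k + hiA A k) / 2 + t * (y k - (loA A k + hiA A k) / 2) := by
      simp [bc]
    rw [h5] at h4
    rcases hyk with h2 | h2
    · rw [h2] at h4
      nlinarith [h4.1]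
    · rw [h2] at h4
      nlinarith [h4.2]

/-- **the relative boundary of a face of dimension at least `2` is preconnected** -/
theorem isPreconnected_relbd (BF : BoxFoam La F δ κ0) (hLa : IsOpen La) {A : Set F}
    (hA : A.Finite) (hne : A.Nonempty) (hx : (fc (Pc F) A).Nonempty)
    (hcard : A.ncard + 1 ≤ Fintype.card κ) :
    IsPreconnected {y ∈ fc (Pc F) A | act (Pc F) y ≠ A} ∧
      ({y ∈ fc (Pc F) A | act (Pc F) y ≠ A}).Nonempty := by
  classical
  have hdeg := deg_count BF hA hne hx
  have hle : ∀ k, loA A k ≤ hiA A k := by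
    obtain ⟨x, hx⟩ := hx
    intro k
    have := (mem_fc_iff hA hne).1 hx k
    linarith
  let J := {k : κ // loA A k ≠ hiA A k}
  have hJ : 2 ≤ Fintype.card J := by
    have h1 : Fintype.card J + {k | loA A k = hiA A k}.ncard = Fintype.card κ := by
      have h2 : {k | loA A k = hiA A k}.ncard = Fintype.card {k : κ // loA A k = hiA A k} := by
        rw [← Nat.card_coe_set_eq, Nat.card_eq_fintype_card]
        rfl
      have h4 := Fintype.card_subtype_compl (fun k : κ => loA A k = hiA A k)
      have h5 := Fintype.card_subtype_le (fun k : κ => loA A k = hiA A k)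
      have h6 : Fintype.card J = Fintype.card {k : κ // ¬ loA A k = hiA A k} := rfl
      omega
    omega
  have _ : Nonempty J := Fintype.card_pos_iff.1 (by omega)
  let g : (J → ℝ) → κ → ℝ := fun w k =>
    (loA A k + hiA A k) / 2 + (hiA A k - loA A k) / 2 * (if h : loA A k ≠ hiA A k then w ⟨k, h⟩ else 0)
  have hg : Continuous g := by
    refine continuous_pi fun k => ?_
    by_cases h : loA A k ≠ hiA A k
    · simp only [g, dif_pos h]; fun_prop
    · simp only [g, dif_neg h]; fun_prop
  have himg : {y ∈ fc (Pc F) A | act (Pc F) y ≠ A} = g '' Metric.sphere 0 1 := by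
    ext y
    constructor
    · rintro ⟨hy, hact⟩
      obtain ⟨k, hk, hyk⟩ := (mem_relbd BF hLa hA hne hy).1 hact
      have hyD := (mem_fc_iff hA hne).1 hy
      let w : J → ℝ := fun j => (y j - (loA A j + hiA A j) / 2) / ((hiA A j - loA A j) / 2)
      have hw : ∀ j, |w j| ≤ 1 := by
        intro j
        have h1 : loA A j.1 < hiA A j.1 := lt_of_le_of_ne (hle _) j.2
        have h2 : 0 < (hiA A j.1 - loA A j.1) / 2 := by linarith
        rw [abs_div, abs_of_pos h2, div_le_one h2, abs_le]
        have := hyD j.1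
        constructor <;> linarith
      have hwk : |w ⟨k, hk⟩| = 1 := by
        have h1 : loA A k < hiA A k := lt_of_le_of_ne (hle _) hk
        have h2 : 0 < (hiA A k - loA A k) / 2 := by linarith
        simp only [w]
        rw [abs_div, abs_of_pos h2, div_eq_one_iff_eq h2.ne']
        rcases hyk with h3 | h3
        · rw [h3, abs_of_nonpos (by linarith)]; ring
        · rw [h3, abs_of_nonneg (by linarith)]; ring
      refine ⟨w, ?_, ?_⟩
      · rw [mem_sphere_zero_iff_norm]
        apply le_antisymm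
        · exact (pi_norm_le_iff_of_nonneg zero_le_one).2 hw
        · rw [← hwk]; exact norm_le_pi_norm w ⟨k, hk⟩
      · funext j
        by_cases h : loA A j ≠ hiA A j
        · simp only [g, dif_pos h, w]
          have h1 : loA A j < hiA A j := lt_of_le_of_ne (hle _) h
          have h2 : (hiA A j - loA A j) ≠ 0 := by linarith
          field_simp
          ring
        · simp only [g, dif_neg h]
          push Not at h
          have := hyD j
          linarith
    · rintro ⟨w, hw, rfl⟩
      rw [mem_sphere_zero_iff_norm] at hw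
      have hwj : ∀ j, |w j| ≤ 1 := fun j => hw ▸ norm_le_pi_norm w j
      have hex : ∃ j, |w j| = 1 := by
        by_contra hno
        push Not at hno
        have h1 : ‖w‖ < 1 := (pi_norm_lt_iff one_pos).2 fun j => lt_of_le_of_ne (hwj j) (hno j)
        rw [hw] at h1
        exact lt_irrefl _ h1
      have hgD : g w ∈ fc (Pc F) A := by
        refine (mem_fc_iff hA hne).2 fun k => ?_
        by_cases h : loA A k ≠ hiA A k
        · simp only [g, dif_pos h]
          have h1 := hle k
          obtain ⟨h2, h3⟩ := abs_le.1 (hwj ⟨k, h⟩)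
          constructor <;> nlinarith
        · simp only [g, dif_neg h]
          push Not at h
          constructor <;> linarith
      refine ⟨hgD, (mem_relbd BF hLa hA hne hgD).2 ?_⟩
      obtain ⟨⟨k, hk⟩, hwk⟩ := hex
      refine ⟨k, hk, ?_⟩
      simp only [g, dif_pos hk]
      rcases eq_or_eq_neg_of_abs_eq hwk with h1 | h1
      · right; rw [h1]; ring
      · left; rw [h1]; ring
  rw [himg]
  have hrank : 1 < Module.rank ℝ (J → ℝ) := by
    rw [rank_fun']
    exact_mod_cast hJ
  exact ⟨(isPreconnected_sphere hrank 0 1).image g hg.continuousOn,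
    (NormedSpace.sphere_nonempty.2 zero_le_one).image g⟩

theorem rel2_eq {c a : F} :
    rel2 (Pc F) c a = {y ∈ fc (Pc F) {a, c} | act (Pc F) y ≠ {a, c}} := by
  ext q
  constructor
  · rintro ⟨h1, h2, d, hdc, hda, hd⟩
    refine ⟨mem_fc.2 ?_, fun h => ?_⟩
    · rintro x (rfl | rfl)
      · exact h2
      · exact h1
    · have : d ∈ act (Pc F) q := hd
      rw [h] at this
      rcases this with h3 | h3
      · exact hda h3
      · exact hdc h3
  · rintro ⟨h1, h2⟩
    have h3 := mem_fc.1 h1
    refine ⟨h3 c (by simp), h3 a (by simp), ?_⟩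
    by_contra hno
    push Not at hno
    apply h2
    ext x
    constructor
    · intro hx
      by_contra h4
      have h5 : x ≠ a ∧ x ≠ c := by
        constructor
        · rintro rfl; exact h4 (by simp)
        · rintro rfl; exact h4 (by simp)
      exact hno x h5.2 h5.1 hx
    · intro hx; exact h3 x hx

/-- **(E1) the levels of `s_a` on the boundary of the brick `c` are connected** (`card κ ≥ 3`) -/
theorem isPreconnected_ring (BF : BoxFoam La F δ κ0) (hLa : IsOpen La) (h3 : 3 ≤ Fintype.card κ)
    {c a : F} (hac : a ≠ c) (hne : (Pc F c ∩ Pc F a).Nonempty) {t : ℝ} (ht0 : 0 < t)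
    (ht1 : t < 1) : IsPreconnected (ring (Pc F) (bc (F := F)) c a t) ∧
      (ring (Pc F) (bc (F := F)) c a t).Nonempty := by
  have FF := foam BF hLa
  have hfin : ({a, c} : Set F).Finite := by simp
  have hfc : (fc (Pc F) ({a, c} : Set F)).Nonempty := by
    obtain ⟨x, hx1, hx2⟩ := hne
    refine ⟨x, mem_fc.2 ?_⟩
    rintro y (rfl | rfl)
    · exact hx2
    · exact hx1
  have h := isPreconnected_relbd BF hLa (A := {a, c}) hfin ⟨a, by simp⟩ hfc
    (by rw [ncard_pair hac]; omega)
  rw [← rel2_eq] at h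
  exact ⟨isPreconnected_ring_of FF hac ht0 ht1 h.1, ring_nonempty_of FF hac ht0 ht1 h.2⟩

end box

end Crest.Agent.R096.Exc_965
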