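import Mathlib
import Crest.Agent.R096.Init8_543
import Crest.Agent.R096.Exc1_965

/-! Row 96 (helper965), LEAF for exact cores, part 1: on a tile whose boundary cells are the cells of
the `M`-grid in the level coordinates and on whose edges the sheet runs like the exact sheet, the
chords of the sheet inside a strip over a quad form a forest (height = the other coordinate). -/

set_option autoImplicit false
set_option linter.unusedSectionVars false

open Set Topology Filter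

namespace Crest.Agent.R096.Leaf_965

open Crest.Agent.R096.Brk1_582 Crest.Agent.R096.Brk2_582 Crest.Agent.R096.Msh_715
open Crest.Agent.R096.Agl5_543 Crest.Agent.R096.Ginv_543 Crest.Agent.R096.Pat5_543
open Crest.Agent.R096.Agl4_543 Crest.Agent.R096.Init_543 Crest.Agent.R096.Exc_965
open Crest.Agent.R096.Coh_184

theorem not_floor_lt {v : ℝ} (hv : 0 ≤ v) : ¬ (⌊v⌋₊ < ⌈v⌉₊) ↔ ∃ n : ℕ, v = n := by
  constructor
  · intro h
    push Not at h
    refine ⟨⌊v⌋₊, le_antisymm ?_ (Nat.floor_le hv)⟩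
    exact (Nat.le_ceil v).trans (by exact_mod_cast h)
  · rintro ⟨n, rfl⟩
    simp

section foam

variable {V : Type*} [NormedAddCommGroup V] [NormedSpace ℝ V] [CompleteSpace V] {I : Type*}
variable {La : Set V} {P : I → Set V} {b : Set I → V}

/-- the exact quad of a point of the boundary of the cell `c` -/
theorem quad_at (F : Foam La P b 4) {c a a' : I} {Z : Set I} {y : V} (haa : a ≠ a')
    (hZ : Z.ncard = 2) (haZ : a ∉ Z) (ha'Z : a' ∉ Z) (hy : y ∈ P c) (hy2 : ∃ e, e ≠ c ∧ y ∈ P e)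
    (ha : sc P b y a ∈ Ioo (0 : ℝ) 1) (ha' : sc P b y a' ∈ Ioo (0 : ℝ) 1)
    (hZ1 : ∀ e ∈ Z, sc P b y e < 1) :
    c ∈ Z ∧ (∀ e ∈ Z, y ∈ P e) ∧ ∀ e, e ≠ a → e ≠ a' → e ∉ Z → sc P b y e = 1 := by
  have hyL := F.sub c hy
  have hZf : Z.Finite := Set.finite_of_ncard_ne_zero (by rw [hZ]; norm_num)
  have hsub : insert a (insert a' Z) ⊆ {e | sc P b y e < 1} := by
    rintro e (rfl | rfl | he)
    · exact ha.2
    · exact ha'.2
    · exact hZ1 e he
  have hcard : (insert a (insert a' Z)).ncard = 4 := by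
    rw [ncard_insert_of_notMem _ (hZf.insert a'), ncard_insert_of_notMem ha'Z hZf, hZ]
    rintro (h | h)
    · exact haa h
    · exact haZ h
  have heq : insert a (insert a' Z) = {e | sc P b y e < 1} :=
    Set.eq_of_subset_of_ncard_le hsub (by rw [hcard]; exact F.sc_lt_one_ncard hyL)
      (F.sc_lt_one_finite hyL)
  have hzero : ∀ e, y ∈ P e → e ∈ Z := by
    intro e he
    have h0 := (F.sc_eq_zero hyL).2 he
    have h1 : e ∈ insert a (insert a' Z) := by
      rw [heq]; show sc P b y e < 1; rw [h0]; exact one_pos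
    rcases h1 with rfl | rfl | h1
    · rw [h0] at ha; exact (lt_irrefl _ ha.1).elim
    · rw [h0] at ha'; exact (lt_irrefl _ ha'.1).elim
    · exact h1
  obtain ⟨e, hec, hye⟩ := hy2
  have hcZ := hzero c hy
  have heZ := hzero e hye
  refine ⟨hcZ, ?_, ?_⟩
  · have h2 : ({c, e} : Set I) = Z := by
      refine Set.eq_of_subset_of_ncard_le ?_ ?_ hZf
      · rintro x (rfl | rfl)
        · exact hcZ
        · exact heZ
      · rw [hZ, ncard_pair hec.symm]
    rw [← h2]
    rintro x (rfl | rfl)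
    · exact hy
    · exact hye
  · intro e h1 h2 h3
    by_contra hne
    have h4 : sc P b y e < 1 := lt_of_le_of_ne (F.sc_le_one hyL e) hne
    have h5 : e ∈ insert a (insert a' Z) := by rw [heq]; exact h4
    rcases h5 with h5 | h5 | h5
    · exact h1 h5
    · exact h2 h5
    · exact h3 h5

end foam

section tile

variable {E V : Type} [NormedAddCommGroup E] [NormedSpace ℝ E] [FiniteDimensional ℝ E]
  [NormedAddCommGroup V] [NormedSpace ℝ V] [CompleteSpace V]
variable {I ι J C : Type} {Om : Set E} {La : Set V} {P : I → Set V} {b : Set I → V}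
variable {T : Tiling Om ι} {uu : J → E → ℝ} {cc : J → ℝ} {S : J → Set E} {fam : J → C}

/-- **LEAF on a tile with grid and words** (abstract form). -/
theorem leaf_of_grid [Nonempty J] (F : Foam La P b 4) (h3 : Module.finrank ℝ E = 3)
    (h : GFam T uu cc S fam) (j : J) {S' : Set E} {q : ι} {c a a' : I} {Z : Set I}
    (haa : a ≠ a') (hZ : Z.ncard = 2) (haZ : a ∉ Z) (ha'Z : a' ∉ Z)
    (hfc : (fc P (insert a (insert a' Z))).Nonempty) {t : ℝ} {M : ℕ} (hM : 0 < M) {th : E → V}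
    (c1 : ∀ x ∈ Msh_715.P (T.H q), th x ∈ P c)
    (c2 : ∀ y ∈ P c, ∃ x ∈ Msh_715.P (T.H q), th x = y)
    (c3 : ∀ x ∈ Msh_715.P (T.H q), x ∉ Msh_715.I (T.H q) ↔ ∃ e, e ≠ c ∧ th x ∈ P e)
    (grid : ∀ x ∈ Msh_715.P (T.H q), x ∉ Msh_715.I (T.H q) →
      T.cc x = {y | y ∈ Msh_715.P (T.H q) ∧ ∀ e : I,
        (⌊M * sc P b (th x) e⌋₊ : ℝ) ≤ M * sc P b (th y) e ∧
        M * sc P b (th y) e ≤ ⌈M * sc P b (th x) e⌉₊} ∧
      T.dim x = {e : I | ⌊M * sc P b (th x) e⌋₊ < ⌈M * sc P b (th x) e⌉₊}.ncard)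
    {lev : E → ℝ}
    (word : ∀ x ∈ Msh_715.P (T.H q), T.dim x = 1 → ∀ p r : E, T.cc x = segment ℝ p r →
      ((sc P b (th p) a < t ∧ t < sc P b (th r) a) ∨ (sc P b (th r) a < t ∧ t < sc P b (th p) a) →
        ∃! y, y ∈ T.cc x ∧ lev y = t) ∧
      (¬ ((sc P b (th p) a < t ∧ t < sc P b (th r) a) ∨
        (sc P b (th r) a < t ∧ t < sc P b (th p) a)) → ∀ y ∈ T.cc x, lev y ≠ t))
    (hS : ∀ w ∈ S j, w ∈ Msh_715.P (T.H q) → T.dim w = 1 → lev w = t)
    (hS' : ∀ w ∈ S', w ∈ S j → w ∈ Msh_715.P (T.H q) → T.dim w = 1 →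
      sc P b (th w) a' ∈ Ioo (0 : ℝ) 1 ∧ ∀ e ∈ Z, sc P b (th w) e < 1) :
    h.Leaf h3 j S' q := by
  classical
  have hM0 : (0 : ℝ) < M := by exact_mod_cast hM
  have hLa : ∀ {x}, x ∈ Msh_715.P (T.H q) → th x ∈ La := fun hx => F.sub c (c1 _ hx)
  have hsc0 : ∀ {x}, x ∈ Msh_715.P (T.H q) → ∀ e, 0 ≤ M * sc P b (th x) e := fun hx e =>
    mul_nonneg hM0.le (F.sc_nonneg (hLa hx) e)
  have hsc1 : ∀ {x}, x ∈ Msh_715.P (T.H q) → ∀ e, M * sc P b (th x) e ≤ M := fun hx e => by
    have := F.sc_le_one (hLa hx) e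
    nlinarith
  have hnI : ∀ {x}, T.dim x = 1 → x ∉ Msh_715.I (T.H q) := by
    intro x hd hI
    have := dim_I hI
    omega
  -- the only coordinate which varies along an edge crossed by the sheet is `a`
  have act1 : ∀ m ∈ S j, m ∈ Msh_715.P (T.H q) → T.dim m = 1 →
      {e : I | ⌊M * sc P b (th m) e⌋₊ < ⌈M * sc P b (th m) e⌉₊} = {a} ∧
      ∃! y, y ∈ T.cc m ∧ lev y = t := by
    intro m hm hmP hd
    have hmO : m ∈ Om := T.sub q hmP
    obtain ⟨p, r, -, hseg, -, -, -, hp, hr⟩ := T.edge_eq hmO hd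
    obtain ⟨w1, w2⟩ := word m hmP hd p r hseg
    have hstr : (sc P b (th p) a < t ∧ t < sc P b (th r) a) ∨
        (sc P b (th r) a < t ∧ t < sc P b (th p) a) := by
      by_contra hno
      exact w2 hno m (T.self_mem_cc m) (hS m hm hmP hd)
    refine ⟨?_, w1 hstr⟩
    obtain ⟨g1, g2⟩ := grid m hmP (hnI hd)
    have ha : a ∈ {e : I | ⌊M * sc P b (th m) e⌋₊ < ⌈M * sc P b (th m) e⌉₊} := by
      by_contra hno
      have hno' : ⌈M * sc P b (th m) a⌉₊ ≤ ⌊M * sc P b (th m) a⌋₊ := not_lt.1 hno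
      have hno2 : (⌈M * sc P b (th m) a⌉₊ : ℝ) ≤ ⌊M * sc P b (th m) a⌋₊ := by exact_mod_cast hno'
      rw [g1] at hp hr
      have hp1 := hp.2 a
      have hr1 := hr.2 a
      have he : M * sc P b (th p) a = M * sc P b (th r) a := by linarith [hp1.1, hp1.2, hr1.1, hr1.2]
      have he' := mul_left_cancel₀ hM0.ne' he
      rcases hstr with ⟨s1, s2⟩ | ⟨s1, s2⟩ <;> linarith
    rw [hd] at g2
    obtain ⟨x, hx⟩ := ncard_eq_one.1 g2.symm
    rw [hx] at ha ⊢
    rw [mem_singleton_iff] at ha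
    rw [ha]
  refine leaf_of_height h h3 j (fun w => sc P b (th w) a') ?_
  intro w hw hd hwP hwS'
  obtain ⟨hact, huniq⟩ := act1 w hw hwP hd
  obtain ⟨hwa', hwZ⟩ := hS' w hwS' hw hwP hd
  have hwL := hLa hwP
  have hwI := hnI hd
  obtain ⟨g1, g2⟩ := grid w hwP hwI
  -- the coordinate `a` is in `(0,1)`
  have hwa : sc P b (th w) a ∈ Ioo (0 : ℝ) 1 := by
    have hmem : a ∈ {e : I | ⌊M * sc P b (th w) e⌋₊ < ⌈M * sc P b (th w) e⌉₊} := by
      rw [hact]; rfl
    constructor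
    · refine lt_of_le_of_ne (F.sc_nonneg hwL a) fun h0 => ?_
      have h1 : ⌊M * sc P b (th w) a⌋₊ < ⌈M * sc P b (th w) a⌉₊ := hmem
      rw [← h0] at h1
      simp at h1
    · refine lt_of_le_of_ne (F.sc_le_one hwL a) fun h0 => ?_
      have h1 : ⌊M * sc P b (th w) a⌋₊ < ⌈M * sc P b (th w) a⌉₊ := hmem
      rw [h0] at h1
      simp at h1
  obtain ⟨hcZ, hPZ, hone⟩ := quad_at F haa hZ haZ ha'Z (c1 w hwP) ((c3 w hwP).1 hwI) hwa hwa' hwZ
  have hZf : Z.Finite := Set.finite_of_ncard_ne_zero (by rw [hZ]; norm_num)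
  have hcard : (insert a (insert a' Z)).ncard = 4 := by
    rw [ncard_insert_of_notMem _ (hZf.insert a'), ncard_insert_of_notMem ha'Z hZf, hZ]
    rintro (h | h)
    · exact haa h
    · exact haZ h
  -- the other coordinate is `l / M`
  obtain ⟨l, hl⟩ : ∃ n : ℕ, M * sc P b (th w) a' = n := by
    refine (not_floor_lt (hsc0 hwP a')).1 fun hlt => ?_
    have : a' ∈ {e : I | ⌊M * sc P b (th w) e⌋₊ < ⌈M * sc P b (th w) e⌉₊} := hlt
    rw [hact] at this
    exact haa (mem_singleton_iff.1 this).symm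
  have hlM : (l : ℝ) + 1 ≤ M := by
    have h1 : (l : ℝ) < M := by
      rw [← hl]
      have := hwa'.2
      nlinarith
    have h2 : l + 1 ≤ M := by exact_mod_cast h1
    exact_mod_cast h2
  have hl0 : (0 : ℝ) ≤ l := Nat.cast_nonneg l
  -- the point in the middle of the next square
  obtain ⟨y, ⟨hyL, hyZ, hya, hya'⟩, -⟩ := quad_point F (Z := Z) (a := a) (a' := a')
    (s := sc P b (th w) a) (t := (l + 1 / 2) / M) ⟨c, hcZ⟩ hcard hfc haa haZ ha'Z hwa.1.le hwa.2
    (by positivity) (by rw [div_lt_one hM0]; linarith)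
  obtain ⟨x, hxP, hxy⟩ := c2 y (hyZ c hcZ)
  have hy2 : ∃ e, e ≠ c ∧ y ∈ P e := by
    obtain ⟨e, he, hec⟩ : ∃ e ∈ Z, e ≠ c := by
      by_contra hno
      push Not at hno
      have : Z ⊆ {c} := fun e he => hno e he
      have := ncard_le_ncard this
      rw [hZ, ncard_singleton] at this
      omega
    exact ⟨e, hec, hyZ e he⟩
  have hxI : x ∉ Msh_715.I (T.H q) := (c3 x hxP).2 (by rw [hxy]; exact hy2)
  have hMya' : M * sc P b y a' = l + 1 / 2 := by
    rw [hya']; field_simp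
  have hyone : ∀ e, e ≠ a → e ≠ a' → e ∉ Z → sc P b y e = 1 := by
    refine (quad_at F haa hZ haZ ha'Z (hyZ c hcZ) hy2 (by rw [hya]; exact hwa) ?_ ?_).2.2
    · rw [hya']
      constructor
      · positivity
      · rw [div_lt_one hM0]; linarith
    · intro e he
      rw [(F.sc_eq_zero hyL).2 (hyZ e he)]; exact one_pos
  obtain ⟨k1, k2⟩ := grid x hxP hxI
  rw [hxy] at k1 k2
  have hfl : ⌊(M : ℝ) * sc P b y a'⌋₊ = l := by
    rw [hMya', Nat.floor_eq_iff (by positivity)]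
    constructor
    · linarith
    · linarith
  have hce : ⌈(M : ℝ) * sc P b y a'⌉₊ = l + 1 := by
    rw [hMya', Nat.ceil_eq_iff (by omega)]
    constructor
    · have : ((l + 1 - 1 : ℕ) : ℝ) = l := by simp
      rw [this]; linarith
    · push_cast; linarith
  have hset : {e : I | ⌊M * sc P b y e⌋₊ < ⌈M * sc P b y e⌉₊} = {a, a'} := by
    ext e
    constructor
    · intro he
      by_contra hno
      have h1 : e ≠ a := fun h => hno (Or.inl h)
      have h2 : e ≠ a' := fun h => hno (Or.inr h)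
      have he' : ⌊M * sc P b y e⌋₊ < ⌈M * sc P b y e⌉₊ := he
      by_cases h4 : e ∈ Z
      · rw [(F.sc_eq_zero hyL).2 (hyZ e h4)] at he'
        simp at he'
      · rw [hyone e h1 h2 h4] at he'
        simp at he'
    · rintro (rfl | rfl)
      · show ⌊M * sc P b y e⌋₊ < ⌈M * sc P b y e⌉₊
        rw [hya]
        have : e ∈ {e : I | ⌊M * sc P b (th w) e⌋₊ < ⌈M * sc P b (th w) e⌉₊} := by
          rw [hact]; rfl
        exact this
      · show ⌊M * sc P b y e⌋₊ < ⌈M * sc P b y e⌉₊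
        rw [hfl, hce]; omega
  have hdx : T.dim x = 2 := by rw [k2, hset, ncard_pair haa]
  have hxO : x ∈ Om := T.sub q hxP
  -- `w` is on the cell
  have hwx : w ∈ T.cc x := by
    rw [k1]
    refine ⟨hwP, fun e => ?_⟩
    by_cases h1 : e = a
    · rw [h1, hya]; exact ⟨Nat.floor_le (hsc0 hwP a), Nat.le_ceil _⟩
    by_cases h2 : e = a'
    · rw [h2, hfl, hce, hl]; push_cast; constructor <;> linarith
    by_cases h4 : e ∈ Z
    · rw [(F.sc_eq_zero hyL).2 (hyZ e h4), (F.sc_eq_zero hwL).2 (hPZ e h4)]; simp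
    · rw [hyone e h1 h2 h4, hone e h1 h2 h4]; simp
  set G : C2 T := mk2 T hxO hdx with hG
  have hGset : G.set = T.cc x := mk2_set hxO hdx
  have hGq : q ∈ G.side h3 := by
    rw [C2.mem_side]
    have h5 : G.pt ∈ T.oc x := T.pt_cl hxO
    rw [T.at_eq_of_mem_oc hxO h5]
    exact hxP
  have hwG : w ∈ G.On := ⟨by rw [hGset]; exact hwx, hd⟩
  refine ⟨G, hGq, hwG, ?_⟩
  obtain ⟨hwpts, hwlab⟩ := (h.mem_pts_iff (w := w)).2 ⟨hw, hd.le⟩
  obtain ⟨⟨m1, ⟨m2, m3⟩, -⟩, -⟩ := h.mu_spec h3 hwpts hwG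
  rw [hwlab] at m2
  set m := h.mu h3 G w with hm
  have hmx : m ∈ T.cc x := by rw [← hGset]; exact m3.1
  have hmP : m ∈ Msh_715.P (T.H q) := C2.sub_tile (h3 := h3) hGq m3.1
  obtain ⟨mact, -⟩ := act1 m m2 hmP m3.2
  have hmb := hmx
  rw [k1] at hmb
  have hmb' := hmb.2
  obtain ⟨n, hn⟩ : ∃ n : ℕ, M * sc P b (th m) a' = n := by
    refine (not_floor_lt (hsc0 hmP a')).1 fun hlt => ?_
    have : a' ∈ {e : I | ⌊M * sc P b (th m) e⌋₊ < ⌈M * sc P b (th m) e⌉₊} := hlt
    rw [mact] at this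
    exact haa (mem_singleton_iff.1 this).symm
  have hn1 : l ≤ n ∧ n ≤ l + 1 := by
    have := hmb' a'
    rw [hfl, hce, hn] at this
    exact ⟨by exact_mod_cast this.1, by exact_mod_cast this.2⟩
  have hnl : n ≠ l := by
    intro hnl
    apply m1
    -- same edge
    have hmcell : T.cc m = T.cc w := by
      rw [(grid m hmP (hnI m3.2)).1, g1]
      have hcoord : ∀ e, ⌊M * sc P b (th m) e⌋₊ = ⌊M * sc P b (th w) e⌋₊ ∧
          ⌈M * sc P b (th m) e⌉₊ = ⌈M * sc P b (th w) e⌉₊ := by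
        intro e
        by_cases h1 : e = a
        · subst h1
          have h5 := hmb' e
          rw [hya] at h5
          have hne : ∀ k : ℕ, M * sc P b (th m) e ≠ k := by
            intro k hk
            have h6 : e ∈ {e : I | ⌊M * sc P b (th m) e⌋₊ < ⌈M * sc P b (th m) e⌉₊} := by
              rw [mact]; rfl
            exact (not_floor_lt (hsc0 hmP e)).2 ⟨k, hk⟩ h6
          have hlt : ⌊M * sc P b (th w) e⌋₊ < ⌈M * sc P b (th w) e⌉₊ := by
            have h6 : e ∈ {e : I | ⌊M * sc P b (th w) e⌋₊ < ⌈M * sc P b (th w) e⌉₊} := by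
              rw [hact]; rfl
            exact h6
          have hce1 : ⌈M * sc P b (th w) e⌉₊ = ⌊M * sc P b (th w) e⌋₊ + 1 :=
            le_antisymm (Nat.ceil_le_floor_add_one _) hlt
          rw [hce1] at h5
          have h7 : (⌊M * sc P b (th w) e⌋₊ : ℝ) < M * sc P b (th m) e :=
            lt_of_le_of_ne h5.1 (hne _).symm
          have h8 : M * sc P b (th m) e < ((⌊M * sc P b (th w) e⌋₊ + 1 : ℕ) : ℝ) :=
            lt_of_le_of_ne h5.2 (hne _)
          constructor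
          · rw [Nat.floor_eq_iff (hsc0 hmP e)]
            exact ⟨h7.le, by push_cast at h8; exact h8⟩
          · rw [hce1, Nat.ceil_eq_iff (by omega)]
            refine ⟨?_, h8.le⟩
            simpa using h7
        by_cases h2 : e = a'
        · rw [h2, hn, hl, hnl]; exact ⟨rfl, rfl⟩
        by_cases h4 : e ∈ Z
        · have h5 := hmb' e
          rw [(F.sc_eq_zero hyL).2 (hyZ e h4)] at h5
          simp only [mul_zero, Nat.floor_zero, Nat.cast_zero, Nat.ceil_zero] at h5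
          have h6 : M * sc P b (th m) e = 0 := le_antisymm h5.2 h5.1
          rw [h6, (F.sc_eq_zero hwL).2 (hPZ e h4), mul_zero]
          exact ⟨rfl, rfl⟩
        · have h5 := hmb' e
          rw [hyone e h1 h2 h4] at h5
          simp only [mul_one, Nat.floor_natCast, Nat.ceil_natCast] at h5
          have h6 : M * sc P b (th m) e = M := le_antisymm h5.2 h5.1
          rw [h6, hone e h1 h2 h4, mul_one]
          exact ⟨rfl, rfl⟩
      ext z
      simp only [mem_ofPred_eq]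
      refine and_congr_right fun _ => forall_congr' fun e => ?_
      rw [(hcoord e).1, (hcoord e).2]
    obtain ⟨y0, -, hy0⟩ := huniq
    have e1 := hy0 m ⟨by rw [← hmcell]; exact T.self_mem_cc m, hS m m2 hmP m3.2⟩
    have e2 := hy0 w ⟨T.self_mem_cc w, hS w hw hwP hd⟩
    rw [e1, e2]
  have hn2 : n = l + 1 := by omega
  have h9 : M * sc P b (th w) a' < M * sc P b (th m) a' := by
    rw [hl, hn, hn2]; push_cast; linarith
  exact lt_of_mul_lt_mul_left h9 hM0.le

end tile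

end Crest.Agent.R096.Leaf_965
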