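import Mathlib
import Crest.Agent.R096.Leaf1_965
import Crest.Agent.R096.Mbf_337

/-! Row 96 (helper965), LEAF for exact cores, part 2: the instance for the exact cores of
`Mbf_337` (closeness of the levels as hypothesis). -/

set_option autoImplicit false
set_option linter.unusedSectionVars false
set_option linter.style.longLine false

open Set Topology Filter

namespace Crest.Agent.R096.Leaf_965

open Crest.Agent.R096.Brk1_582 Crest.Agent.R096.Brk2_582 Crest.Agent.R096.Brk3_582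
open Crest.Agent.R096.Brk5_582 Crest.Agent.R096.Bsp_628
open Crest.Agent.R096.Agl5_543 Crest.Agent.R096.Ginv_543 Crest.Agent.R096.Msh_715
open Crest.Agent.R096.Agl4_543 Crest.Agent.R096.Init_543 Crest.Agent.R096.Vb_965
open Crest.Agent.R096.SkC1_961 (E3 Hom3 IsPush FoamD Cfg th NN)
open Crest.Agent.R096.Mbf_337

variable {δ κ0 R c0 : ℝ} {La Om : Set E3} {ι : Type} {Φ : FoamD δ κ0 R c0 La}
  {T : Tiling Om ι} {f : E3 → E3}

/-- the exact map as a homeomorphism -/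
noncomputable def thH (A : E3 ≃ᵃ[ℝ] E3) (lam : ℝ) (hl : lam ≠ 0) (z : E3) : E3 ≃ₜ E3 :=
  (A.toHomeomorphOfFiniteDimensional.trans (Homeomorph.subRight z)).trans
    (Homeomorph.smulOfNeZero lam⁻¹ (inv_ne_zero hl))

theorem thH_apply (A : E3 ≃ᵃ[ℝ] E3) (lam : ℝ) (hl : lam ≠ 0) (z x : E3) :
    thH A lam hl z x = th A lam z x := by
  funext k
  show lam⁻¹ * (A x k - z k) = (A x k - z k) / lam
  rw [div_eq_inv_mul]

section

variable {κ1 κ2 : ℝ} {c : Φ.F} {i : ι} {A : E3 ≃ᵃ[ℝ] E3} {lam : ℝ} {z : E3}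
  (hE : Exact Φ T f κ1 κ2 c i A lam z)
include hE

theorem mem_tile_iff {x : E3} : x ∈ Msh_715.P (T.H i) ↔ th A lam z x ∈ Pc Φ.F c := by
  have hl := hE.lam0
  rw [hE.tile]
  show (∀ k, z k + lam * c.1.lo k ≤ A x k ∧ A x k ≤ z k + lam * c.1.hi k) ↔ th A lam z x ∈ c.1.set
  rw [Bx.mem_set]
  refine forall_congr' fun k => ?_
  show _ ↔ c.1.lo k ≤ (A x k - z k) / lam ∧ (A x k - z k) / lam ≤ c.1.hi k
  rw [le_div_iff₀ hl, div_le_iff₀ hl]
  constructor
  · rintro ⟨h1, h2⟩; constructor <;> nlinarith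
  · rintro ⟨h1, h2⟩; constructor <;> nlinarith

theorem exists_pre {y : E3} (hy : y ∈ Pc Φ.F c) : ∃ x ∈ Msh_715.P (T.H i), th A lam z x = y := by
  have hl := hE.lam0
  refine ⟨(thH A lam hl.ne' z).symm y, ?_, ?_⟩
  · rw [mem_tile_iff hE, ← thH_apply A lam hl.ne', Homeomorph.apply_symm_apply]; exact hy
  · rw [← thH_apply A lam hl.ne', Homeomorph.apply_symm_apply]

theorem not_mem_I_iff (hLa : IsOpen La) {x : E3} (hx : x ∈ Msh_715.P (T.H i)) :
    x ∉ Msh_715.I (T.H i) ↔ ∃ e, e ≠ c ∧ th A lam z x ∈ Pc Φ.F e := by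
  have hl := hE.lam0
  have F := foam4 Φ hLa
  have h1 : Msh_715.I (T.H i) = interior (Msh_715.P (T.H i)) :=
    Subset.antisymm ((isOpen_I _).subset_interior_iff.2 (I_sub_P _))
      fun y hy => interior_sub_I (T.ne i) hy
  have h2 : Msh_715.P (T.H i) = (thH A lam hl.ne' z) ⁻¹' (Pc Φ.F c) := by
    ext y
    rw [mem_preimage, thH_apply]
    exact mem_tile_iff hE
  rw [h1, h2, ← Homeomorph.preimage_interior, mem_preimage, thH_apply]
  have hxc : th A lam z x ∈ Pc Φ.F c := (mem_tile_iff hE).1 hx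
  have h3 : th A lam z x ∉ interior (Pc Φ.F c) ↔ th A lam z x ∈ frontier (Pc Φ.F c) := by
    rw [(F.cpt c).isClosed.frontier_eq]
    exact ⟨fun h => ⟨hxc, h⟩, fun h => h.2⟩
  rw [h3, frontier_cell F, Lset_zero F]
  exact ⟨fun h => h.2, fun h => ⟨hxc, h⟩⟩

end

/-- **LEAF for the exact cores** -/
theorem leaf_exact (hLa : IsOpen La) {κ1 κ2 η s' : ℝ} {X : Set Φ.F} {ct : Φ.F → ι}
    {A : Φ.F → E3 ≃ᵃ[ℝ] E3} {lam : Φ.F → ℝ} {z : Φ.F → E3} {M : Φ.F → ℕ} {L : Φ.F → Finset ℝ}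
    {c : Φ.F} (hc : c ∈ X) (hE : Exact Φ T f κ1 κ2 c (ct c) (A c) (lam c) (z c))
    (hW : Words Φ T f X ct A lam z M L)
    (hcl : ∀ w ∈ Msh_715.P (T.H (ct c)), w ∉ Msh_715.I (T.H (ct c)) → ∀ e,
      |Φ.lev e (f w) - sb Φ (th (A c) (lam c) (z c) w) e| ≤ η)
    (hη : η < s') {R' : E3 → E3}
    (hva : ∀ x ∈ Om, T.dim x ≤ 1 → ∀ e, va (Pc Φ.F) (bc (F := Φ.F)) R' f e x = Φ.lev e (f x))
    {J : Type} [Nonempty J] {fam : J → Φ.F} {t : J → ℝ} (htL : ∀ j, t j ∈ L (fam j))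
    (h3 : Module.finrank ℝ E3 = 3)
    (h : GFam T (fun j => va (Pc Φ.F) (bc (F := Φ.F)) R' f (fam j)) t
      (shS Om (Pc Φ.F) (bc (F := Φ.F)) R' f fam t) fam) (j : J) (k : QK (Pc Φ.F))
    (hk : fam j ∈ k.B) :
    h.Leaf h3 j (strip Om (Pc Φ.F) (bc (F := Φ.F)) R' f s' (fam j) (t j) k) (ct c) := by
  have F := foam4 Φ hLa
  obtain ⟨a', haa, ha'B, hB⟩ := k.exists_other hk
  have haB : fam j ∈ k.B := hk
  have haZ : fam j ∉ k.Z := fun hz => disjoint_left.1 k.dis haB hz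
  have ha'B' : a' ∈ k.B := by rw [hB]; exact Or.inr rfl
  have ha'Z : a' ∉ k.Z := fun hz => disjoint_left.1 k.dis ha'B' hz
  have hfc : (fc (Pc Φ.F) (insert (fam j) (insert a' k.Z))).Nonempty := by
    have := k.ne
    rw [hB, insert_union, singleton_union] at this
    exact this
  obtain ⟨hM, hgrid⟩ := hW.grid c hc
  have hnI : ∀ {x}, T.dim x = 1 → x ∉ Msh_715.I (T.H (ct c)) := by
    intro x hd hI
    have := dim_I hI
    omega
  refine leaf_of_grid F h3 h j (c := c) (a := fam j) (a' := a') (Z := k.Z) (t := t j) (M := M c)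
    (th := th (A c) (lam c) (z c)) (lev := fun w => Φ.lev (fam j) (f w)) ?_ k.cZ haZ ha'Z hfc hM
    ?_ ?_ ?_ hgrid ?_ ?_ ?_
  · exact haa
  · exact fun x hx => (mem_tile_iff hE).1 hx
  · exact fun y hy => exists_pre hE hy
  · exact fun x hx => not_mem_I_iff hE hLa hx
  · intro x hx hd p r hpr
    obtain ⟨-, -, -, -, h5, h6⟩ := hW.word c hc x hx hd (fam j) (t j) (htL j) p r hpr
    exact ⟨h5, h6⟩
  · rintro w ⟨hwO, hwt⟩ hwP hd
    rw [hva w hwO hd.le] at hwt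
    exact hwt
  · rintro w ⟨hwO, hwt, hwB, hwZ⟩ - hwP hd
    have h1 := hcl w hwP (hnI hd)
    constructor
    · have h2 := hwB a' ha'B'
      rw [hva w hwO hd.le] at h2
      have h4 := abs_le.1 (h1 a')
      constructor
      · have : 0 < sb Φ (th (A c) (lam c) (z c) w) a' := by linarith [h2.1, h4.2]
        exact this
      · have : sb Φ (th (A c) (lam c) (z c) w) a' < 1 := by linarith [h2.2, h4.1]
        exact this
    · intro e he
      have h2 := hwZ e he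
      rw [hva w hwO hd.le] at h2
      have h4 := abs_le.1 (h1 e)
      have h5 := hwB a' ha'B'
      have : sb Φ (th (A c) (lam c) (z c) w) e < 1 := by linarith [h4.1, h5.1, h5.2]
      exact this

end Crest.Agent.R096.Leaf_965
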