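import Crest.Agent.R096.Lab4_184

/-!
# R096 (row 96): labels for arbitrary cochains modulo 2 (helper715)

On 184's `labels`: a function on the 1-cells of a tiling, even on every 2-cell, has a potential on
every 2-cell, every tile, and on compact sets with trivial torsors.
-/

set_option autoImplicit false

open Set Metric Filter Topology Module
open scoped Classical

namespace Crest.Agent.R096.Msh_715

open Coh_184

variable {E : Type*} [NormedAddCommGroup E] [NormedSpace ℝ E] [FiniteDimensional ℝ E]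

namespace Tiling

variable {Om : Set E} {ι : Type*} (T : Tiling Om ι)

/-- the 1-cells of a compact set in `Om` -/
theorem finite_cells1 {K : Set E} (hK : IsCompact K) (hKO : K ⊆ Om) :
    {e : T.Cell | e.dim = 1 ∧ e.set ⊆ K}.Finite := by
  have h := T.finite_cells hK hKO
  refine Set.Finite.of_finite_image (f := Subtype.val) (h.subset ?_) Subtype.val_injective.injOn
  rintro _ ⟨c, ⟨_, hc2⟩, rfl⟩
  refine ⟨c.2, c.pt, ?_, hc2 ?_⟩
  · show c.pt ∈ c.set
    exact c.opn_sub (T.self_mem_oc _)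
  · exact c.opn_sub (T.self_mem_oc _)

/-- the 1-cells of the closed cell of `x` -/
noncomputable def edges (x : E) : Finset T.Cell :=
  if h : {e : T.Cell | e.dim = 1 ∧ e.set ⊆ T.cc x}.Finite then h.toFinset else ∅

variable {T}

theorem mem_edges {x : E} (hx : x ∈ Om) {e : T.Cell} :
    e ∈ T.edges x ↔ e.dim = 1 ∧ e.set ⊆ T.cc x := by
  have h := T.finite_cells1 (T.isCompact_cc hx) (T.cc_sub_Om hx)
  rw [edges, dif_pos h, Set.Finite.mem_toFinset]
  rfl

/-- a point of dimension one in a closed 1-cell is in the open cell -/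
theorem cl_eq_of_dim1 {e w : E} (he : e ∈ Om) (h1 : T.dim e = 1) (hw : w ∈ T.cc e)
    (hw1 : T.dim w = 1) : w ∈ T.oc e := by
  by_contra h
  have := T.dim_lt hw h
  omega

/-- the value of a cochain on the 1-cell of a point -/
noncomputable def kapC (c : T.Cell → ZMod 2) : E → E → E → ZMod 2 :=
  fun e _ _ => if h : e ∈ Om then c (T.cl h) else 0

theorem kapC_cl (c : T.Cell → ZMod 2) {e : E} (he : e ∈ Om) (a b : E) :
    kapC c e a b = c (T.cl he) := by
  rw [kapC, dif_pos he]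

/-- **the circle step for arbitrary cochains modulo 2** -/
theorem exact_cell2C {c : T.Cell → ZMod 2} {x : E} (hx : x ∈ Om) (hd : T.dim x = 2)
    (heven : ∑ e ∈ T.edges x, c e = 0) :
    ∃ lam : E → ZMod 2, T.Exact (kapC c) lam (T.cc x) := by
  set R : Finset T.Cell := (T.edges x).filter (fun e => c e = 1) with hR
  set Q : Finset E := R.image (fun e => e.pt) with hQ
  have hQ1 : ∀ w ∈ Q, T.dim w = 1 := by
    intro w hw
    obtain ⟨e, he, rfl⟩ := Finset.mem_image.1 hw
    exact ((mem_edges hx).1 (Finset.mem_filter.1 he).1).1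
  have hQx : (Q : Set E) ⊆ T.cc x := by
    intro w hw
    obtain ⟨e, he, rfl⟩ := Finset.mem_image.1 (Finset.mem_coe.1 hw)
    exact ((mem_edges hx).1 (Finset.mem_filter.1 he).1).2 (e.opn_sub (T.self_mem_oc _))
  have hptinj : ∀ e e' : T.Cell, e.pt = e'.pt → e = e' := by
    intro e e' h
    apply Cell.ext
    rw [e.set_eq, e'.set_eq, h]
  have hcard : Q.card = R.card := Finset.card_image_of_injective _ fun e e' h => hptinj e e' h
  have hz : ∀ z : ZMod 2, z = if z = 1 then 1 else 0 := by decide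
  have hsum : ((R.card : ℕ) : ZMod 2) = 0 := by
    rw [← heven, hR, Finset.card_filter, Nat.cast_sum]
    refine Finset.sum_congr rfl fun e _ => ?_
    rw [Nat.cast_ite, Nat.cast_one, Nat.cast_zero]
    exact (hz (c e)).symm
  have hev : Even ((Q : Set E) ∩ T.cc x).ncard := by
    rw [inter_eq_left.2 hQx, Set.ncard_coe_finset, hcard]
    exact (ZMod.natCast_eq_zero_iff_even).1 hsum
  obtain ⟨lam, hlam⟩ := Lab_184.exact_cell2 hQ1 hx hd hev
  refine ⟨lam, fun e he h1 a b hab => ?_⟩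
  have heO := T.cc_sub_Om hx he
  rw [hlam e he h1 a b hab, kapC_cl c heO, Lab_184.kap]
  have hclm : T.cl heO ∈ T.edges x := (mem_edges hx).2 ⟨(T.dim_cl heO).trans h1, by
    rw [cl_set]; exact T.cc_sub_of_mem he⟩
  have hkey : ∀ w ∈ (Q : Set E) ∩ T.cc e, w = (T.cl heO).pt ∧ T.cl heO ∈ R := by
    rintro w ⟨hw1, hw2⟩
    obtain ⟨e', he', rfl⟩ := Finset.mem_image.1 (Finset.mem_coe.1 hw1)
    have hd' : T.dim e'.pt = 1 := ((mem_edges hx).1 (Finset.mem_filter.1 he').1).1
    have h3 := cl_eq_of_dim1 heO h1 hw2 hd'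
    have h4 : e' = T.cl heO := Cell.ext (by
      rw [e'.set_eq, cl_set]; exact T.cc_eq_of_mem_oc heO h3)
    rw [h4] at he' ⊢
    exact ⟨rfl, he'⟩
  by_cases hc : c (T.cl heO) = 1
  · have hR' : T.cl heO ∈ R := Finset.mem_filter.2 ⟨hclm, hc⟩
    have : (Q : Set E) ∩ T.cc e = {(T.cl heO).pt} := by
      apply Subset.antisymm
      · intro w hw
        exact (hkey w hw).1
      · rintro w rfl
        exact ⟨Finset.mem_coe.2 (Finset.mem_image.2 ⟨_, hR', rfl⟩), T.oc_sub_cc _ (T.pt_cl heO)⟩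
    rw [this, ncard_singleton, hc]; rfl
  · have : (Q : Set E) ∩ T.cc e = ∅ := by
      rw [Set.eq_empty_iff_forall_notMem]
      intro w hw
      exact hc (Finset.mem_filter.1 (hkey w hw).2).2
    rw [this, ncard_empty, hz (c (T.cl heO)), if_neg hc]; rfl

/-- a cochain which is even on the 2-cells of a tile has a potential on the tile -/
theorem exact_tileC (h3 : finrank ℝ E = 3) {c : T.Cell → ZMod 2} (q : ι)
    (heven : ∀ x ∈ P (T.H q), T.dim x = 2 → ∑ e ∈ T.edges x, c e = 0) :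
    ∃ lam : E → ZMod 2, T.Exact (kapC c) lam (P (T.H q)) :=
  T.exact_tile h3 q fun x hx hd => exact_cell2C (T.sub q hx) hd (heven x hx hd)

/-- potentials on compact sets with trivial torsors -/
theorem exact_of_trivC (h3 : finrank ℝ E = 3) {S : Set E} (hS : IsCompact S) (hSO : S ⊆ Om)
    (ht : TrivF (ZMod 2) S) (hpre : ∀ q, IsPreconnected (P (T.H q) ∩ S)) {c : T.Cell → ZMod 2}
    (heven : ∀ x ∈ Om, T.dim x = 2 → ∑ e ∈ T.edges x, c e = 0) :
    ∃ ψ : E → ZMod 2, ∀ e : T.Cell, e.dim = 1 → e.set ⊆ S → ∀ a b : E, e.set = segment ℝ a b →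
      ψ a + ψ b = c e := by
  obtain ⟨ψ, hψ⟩ := T.exact_of_triv' h3 hS hSO ht hpre (κ := kapC c)
    fun x hx hd => exact_cell2C hx hd (heven x hx hd)
  refine ⟨ψ, fun e h1 heS a b hab => ?_⟩
  have h := hψ e.pt e.pt_mem h1 (by rw [← e.set_eq]; exact heS) a b (by rw [← e.set_eq]; exact hab)
  rw [kapC_cl c e.pt_mem] at h
  rw [← CharTwo.sub_eq_add, h]
  congr 1
  exact (Cell.ext (by rw [cl_set, e.set_eq]))

/-- potentials on finite unions of tiles with trivial torsors -/
theorem exact_of_tilesC (h3 : finrank ℝ E = 3) {J : Set ι} (hJ : J.Finite)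
    (ht : TrivF (ZMod 2) (⋃ q ∈ J, P (T.H q))) {c : T.Cell → ZMod 2}
    (heven : ∀ q ∈ J, ∀ x ∈ P (T.H q), T.dim x = 2 → ∑ e ∈ T.edges x, c e = 0) :
    ∃ ψ : E → ZMod 2, ∀ e : T.Cell, e.dim = 1 → e.set ⊆ (⋃ q ∈ J, P (T.H q)) → ∀ a b : E,
      e.set = segment ℝ a b → ψ a + ψ b = c e := by
  obtain ⟨ψ, hψ⟩ := T.exact_of_tiles h3 hJ ht (κ := kapC c)
    fun q hq x hx hd => exact_cell2C (T.sub q hx) hd (heven q hq x hx hd)
  refine ⟨ψ, fun e h1 heS a b hab => ?_⟩
  have h := hψ e.pt (heS (e.opn_sub (T.self_mem_oc _))) h1 a b (by rw [← e.set_eq]; exact hab)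
  rw [kapC_cl c e.pt_mem] at h
  rw [← CharTwo.sub_eq_add, h]
  congr 1
  exact (Cell.ext (by rw [cl_set, e.set_eq]))

/-- **LABELS for arbitrary cochains**: `D` compact with trivial torsors and connected frontier, the
cochain `c` is even on every 2-cell and vanishes on the tiles not in the interior of `D`. -/
theorem labelsC (h3 : finrank ℝ E = 3) {D : Set E} (hD : IsCompact D) (hDO : D ⊆ Om)
    (hfr : IsPreconnected (frontier D)) (ht : TrivF (ZMod 2) D) {c : T.Cell → ZMod 2}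
    (heven : ∀ x ∈ Om, T.dim x = 2 → ∑ e ∈ T.edges x, c e = 0)
    (h0 : ∀ q, ¬ P (T.H q) ⊆ interior D → ∀ e : T.Cell, e.dim = 1 → e.set ⊆ P (T.H q) → c e = 0) :
    ∃ ψ : E → ZMod 2, (∀ v ∉ D, ψ v = 0) ∧ (∀ v, T.dim v ≠ 0 → ψ v = 0) ∧
      (∀ q, ¬ P (T.H q) ⊆ interior D → ∀ v ∈ P (T.H q), ψ v = 0) ∧
      ∀ e : T.Cell, e.dim = 1 → ∀ a b : E, e.set = segment ℝ a b → ψ a + ψ b = c e := by
  obtain ⟨ψ, h1, h2, h4, h5⟩ := Lab_184.potential (T := T) (κ := kapC c) h3 hD hDO hfr ht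
    (fun x hx hd => exact_cell2C hx hd (heven x hx hd))
    (fun q hq e he hd a b _ => by
      have heO := T.sub q he
      rw [kapC_cl c heO, sub_self]
      exact (h0 q hq (T.cl heO) ((T.dim_cl heO).trans hd) (by
        rw [cl_set]; exact T.cc_sub_tile he)).symm)
  refine ⟨ψ, h1, h2, h4, fun e hd a b hab => ?_⟩
  have h := h5 e.pt e.pt_mem hd a b (by rw [← e.set_eq]; exact hab)
  rw [kapC_cl c e.pt_mem] at h
  rw [← CharTwo.sub_eq_add, h]
  congr 1
  exact (Cell.ext (by rw [cl_set, e.set_eq]))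

end Tiling

end Crest.Agent.R096.Msh_715
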