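/-
helper609, row 96, leaf P1-CELL, part 1: piecewise affine maps on subsets, without triangulations.

* `PLOn s f`: `f` is continuous on `s` and is on `s` a selection of finitely many affine maps;
* `FinConv s`: `s` is a finite union of convex sets;
* `exists_convex_pieces`: a `PLOn` map on a finite union of convex sets is affine on each of finitely
  many convex pieces (continuous selections are constant on the cells of a hyperplane arrangement);
* `PLOn.inv`: the inverse of an injective `PLOn` map on a compact finite union of convex sets is `PLOn`.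
-/
import Mathlib

set_option autoImplicit false
set_option linter.unusedSectionVars false

open Set Metric

namespace Crest.Agent.R096.Cx_609

noncomputable section

variable {E F G : Type*} [NormedAddCommGroup E] [NormedSpace ℝ E]
  [NormedAddCommGroup F] [NormedSpace ℝ F] [NormedAddCommGroup G] [NormedSpace ℝ G]

/-- `f` is piecewise affine on `s`: continuous, and a selection of finitely many affine maps. -/
def PLOn (s : Set E) (f : E → F) : Prop :=
  ContinuousOn f s ∧ ∃ A : Set (E →ᵃ[ℝ] F), A.Finite ∧ ∀ x ∈ s, ∃ g ∈ A, f x = g x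

theorem PLOn.continuousOn {s : Set E} {f : E → F} (h : PLOn s f) : ContinuousOn f s := h.1

theorem PLOn.mono {s t : Set E} {f : E → F} (h : PLOn s f) (hts : t ⊆ s) : PLOn t f :=
  ⟨h.1.mono hts, h.2.imp fun _ hA => ⟨hA.1, fun x hx => hA.2 x (hts hx)⟩⟩

theorem PLOn.congr {s : Set E} {f f' : E → F} (h : PLOn s f) (hff : EqOn f' f s) : PLOn s f' :=
  ⟨h.1.congr hff, h.2.imp fun _ hA => ⟨hA.1, fun x hx => by
    obtain ⟨g, hg, hxg⟩ := hA.2 x hx
    exact ⟨g, hg, (hff hx).trans hxg⟩⟩⟩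

theorem plOn_congr {s : Set E} {f f' : E → F} (hff : EqOn f' f s) : PLOn s f' ↔ PLOn s f :=
  ⟨fun h => h.congr hff.symm, fun h => h.congr hff⟩

theorem plOn_affine [FiniteDimensional ℝ E] (s : Set E) (g : E →ᵃ[ℝ] F) : PLOn s g :=
  ⟨g.continuous_of_finiteDimensional.continuousOn, {g}, finite_singleton g, fun _ _ => ⟨g, rfl, rfl⟩⟩

theorem plOn_const (s : Set E) (y : F) : PLOn s (fun _ => y) :=
  ⟨continuousOn_const, {AffineMap.const ℝ E y}, finite_singleton _, fun _ _ => ⟨_, rfl, rfl⟩⟩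

theorem plOn_id (s : Set E) : PLOn s (id : E → E) :=
  ⟨continuousOn_id, {AffineMap.id ℝ E}, finite_singleton _, fun _ _ => ⟨_, rfl, rfl⟩⟩

theorem plOn_empty (f : E → F) : PLOn ∅ f := ⟨continuousOn_empty f, ∅, finite_empty, by simp⟩

theorem PLOn.comp {s : Set E} {t : Set F} {f : E → F} {g : F → G} (hg : PLOn t g) (hf : PLOn s f)
    (hst : MapsTo f s t) : PLOn s (g ∘ f) := by
  obtain ⟨hfc, A, hA, hfA⟩ := hf
  obtain ⟨hgc, B, hB, hgB⟩ := hg
  refine ⟨hgc.comp hfc hst, (fun p : (F →ᵃ[ℝ] G) × (E →ᵃ[ℝ] F) => p.1.comp p.2) '' (B ×ˢ A),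
    (hB.prod hA).image _, ?_⟩
  intro x hx
  obtain ⟨a, ha, hxa⟩ := hfA x hx
  obtain ⟨b, hb, hxb⟩ := hgB (f x) (hst hx)
  exact ⟨b.comp a, ⟨(b, a), ⟨hb, ha⟩, rfl⟩, by simp only [Function.comp, AffineMap.coe_comp, hxb, ← hxa]⟩

/-- gluing over a finite closed cover -/
theorem PLOn.iUnion {ι : Type*} [Finite ι] {c : ι → Set E} (hc : ∀ i, IsClosed (c i)) {f : E → F}
    (h : ∀ i, PLOn (c i) f) : PLOn (⋃ i, c i) f := by
  choose h1 A hA hfA using h
  refine ⟨(locallyFinite_of_finite c).continuousOn_iUnion hc h1, ⋃ i, A i, finite_iUnion hA, ?_⟩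
  intro x hx
  obtain ⟨i, hi⟩ := mem_iUnion.1 hx
  obtain ⟨g, hg, hxg⟩ := hfA i x hi
  exact ⟨g, mem_iUnion.2 ⟨i, hg⟩, hxg⟩

theorem PLOn.biUnion {ι : Type*} {I : Set ι} (hI : I.Finite) {c : ι → Set E}
    (hc : ∀ i ∈ I, IsClosed (c i)) {f : E → F}
    (h : ∀ i ∈ I, PLOn (c i) f) : PLOn (⋃ i ∈ I, c i) f := by
  have : Finite (I : Type _) := hI
  have h1 : PLOn (⋃ i : (I : Type _), c i.1) f :=
    PLOn.iUnion (c := fun i : (I : Type _) => c i.1) (fun i => hc i.1 i.2) (fun i => h i.1 i.2)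
  rwa [← biUnion_eq_iUnion I (fun i _ => c i)] at h1

theorem PLOn.union {s t : Set E} (hs : IsClosed s) (ht : IsClosed t) {f : E → F}
    (h1 : PLOn s f) (h2 : PLOn t f) : PLOn (s ∪ t) f := by
  rw [union_eq_iUnion]
  exact PLOn.iUnion (fun b => by cases b <;> assumption) (fun b => by cases b <;> assumption)

theorem PLOn.closure_inter {s : Set E} {f : E → F} {g : E →ᵃ[ℝ] F} [FiniteDimensional ℝ E]
    (hf : ContinuousOn f s) {C : Set E} (hCs : C ⊆ s) (h : EqOn f g C) :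
    EqOn f g (closure C ∩ s) := by
  rintro x ⟨hxC, hxs⟩
  have hne : (nhdsWithin x C).NeBot := mem_closure_iff_nhdsWithin_neBot.1 hxC
  have h1 : Filter.Tendsto f (nhdsWithin x C) (nhds (f x)) := (hf x hxs).mono_left (nhdsWithin_mono x hCs)
  have h2 : Filter.Tendsto f (nhdsWithin x C) (nhds (g x)) := by
    have h3 : Filter.Tendsto g (nhdsWithin x C) (nhds (g x)) :=
      (g.continuous_of_finiteDimensional.tendsto x).mono_left nhdsWithin_le_nhds
    refine h3.congr' ?_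
    filter_upwards [self_mem_nhdsWithin] with y hy using (h hy).symm
  exact tendsto_nhds_unique h1 h2

/-! ### factoring affine maps on convex sets -/

/-- differences of a convex set: every vector of the span of differences is a multiple of ONE
difference -/
theorem exists_diff {C : Set E} (hC : Convex ℝ C) (hne : C.Nonempty) {v : E}
    (hv : v ∈ Submodule.span ℝ {w : E | ∃ x ∈ C, ∃ y ∈ C, w = x - y}) :
    ∃ t : ℝ, 0 < t ∧ ∃ x ∈ C, ∃ y ∈ C, v = t • (x - y) := by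
  induction hv using Submodule.span_induction with
  | mem w hw =>
    obtain ⟨x, hx, y, hy, rfl⟩ := hw
    exact ⟨1, one_pos, x, hx, y, hy, by simp⟩
  | zero =>
    obtain ⟨x, hx⟩ := hne
    exact ⟨1, one_pos, x, hx, x, hx, by simp⟩
  | add u w _ _ hu hw =>
    obtain ⟨t, ht, x, hx, y, hy, rfl⟩ := hu
    obtain ⟨s, hs, x', hx', y', hy', rfl⟩ := hw
    have hts : 0 < t + s := by linarith
    refine ⟨t + s, hts, (t / (t + s)) • x + (s / (t + s)) • x', ?_,
      (t / (t + s)) • y + (s / (t + s)) • y', ?_, ?_⟩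
    · exact hC hx hx' (by positivity) (by positivity) (by field_simp)
    · exact hC hy hy' (by positivity) (by positivity) (by field_simp)
    · have e1 : (t + s) * (t / (t + s)) = t := by field_simp
      have e2 : (t + s) * (s / (t + s)) = s := by field_simp
      simp only [smul_sub, smul_add, smul_smul, e1, e2]
      abel
  | smul a w _ hw =>
    obtain ⟨t, ht, x, hx, y, hy, rfl⟩ := hw
    rcases lt_trichotomy a 0 with ha | ha | ha
    · refine ⟨-a * t, by nlinarith, y, hy, x, hx, ?_⟩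
      rw [smul_smul, ← neg_sub y x, smul_neg, ← neg_smul]
      congr 1
      ring
    · subst ha
      exact ⟨1, one_pos, x, hx, x, hx, by simp⟩
    · exact ⟨a * t, by positivity, x, hx, y, hy, by rw [smul_smul]⟩

/-- an affine map constant on the fibres of another affine map inside a convex set factors -/
theorem factor {C : Set E} (hC : Convex ℝ C) (a : E →ᵃ[ℝ] F) (b : E →ᵃ[ℝ] G)
    (h : ∀ x ∈ C, ∀ y ∈ C, a x = a y → b x = b y) :
    ∃ b' : F →ᵃ[ℝ] G, ∀ x ∈ C, b x = b' (a x) := by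
  rcases C.eq_empty_or_nonempty with rfl | hne
  · exact ⟨AffineMap.const ℝ F 0, by simp⟩
  set D : Submodule ℝ E := Submodule.span ℝ {w : E | ∃ x ∈ C, ∃ y ∈ C, w = x - y} with hD
  -- kernel inclusion on D
  have hker : LinearMap.ker (a.linear.domRestrict D) ≤ LinearMap.ker (b.linear.domRestrict D) := by
    rintro ⟨v, hv⟩ hvk
    rw [LinearMap.mem_ker, LinearMap.domRestrict_apply] at hvk ⊢
    obtain ⟨t, ht, x, hx, y, hy, rfl⟩ := exists_diff hC hne hv
    have h1 : a x = a y := by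
      have h2 : a.linear (x - y) = 0 := by
        rw [map_smul] at hvk
        exact (smul_eq_zero.1 hvk).resolve_left ht.ne'
      have h3 := a.linearMap_vsub x y
      rw [vsub_eq_sub, vsub_eq_sub, h2] at h3
      exact (sub_eq_zero.1 h3.symm)
    have h4 := h x hx y hy h1
    have h5 := b.linearMap_vsub x y
    rw [vsub_eq_sub, vsub_eq_sub, h4, sub_self] at h5
    simp only
    rw [map_smul, h5, smul_zero]
  -- a linear map on F
  obtain ⟨L, hL⟩ : ∃ L : F →ₗ[ℝ] G, ∀ v ∈ D, b.linear v = L (a.linear v) := by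
    -- define on the range
    have h6 : ∃ L0 : (LinearMap.range (a.linear.domRestrict D)) →ₗ[ℝ] G,
        ∀ v : D, L0 ⟨a.linear.domRestrict D v, ⟨v, rfl⟩⟩ = b.linear.domRestrict D v := by
      let q : (D ⧸ LinearMap.ker (a.linear.domRestrict D)) →ₗ[ℝ] G :=
        (LinearMap.ker (a.linear.domRestrict D)).liftQ (b.linear.domRestrict D) hker
      refine ⟨q ∘ₗ (a.linear.domRestrict D).quotKerEquivRange.symm.toLinearMap, ?_⟩
      intro v
      have h7 : (a.linear.domRestrict D).quotKerEquivRange.symm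
          ⟨a.linear.domRestrict D v, ⟨v, rfl⟩⟩ = Submodule.Quotient.mk v := by
        rw [LinearEquiv.symm_apply_eq]
        rfl
      simp only [LinearMap.coe_comp, Function.comp, LinearEquiv.coe_coe, h7]
      rfl
    obtain ⟨L0, hL0⟩ := h6
    obtain ⟨L, hL⟩ := L0.exists_extend
    refine ⟨L, fun v hv => ?_⟩
    have h8 := hL0 ⟨v, hv⟩
    have h9 : L (a.linear v) = L0 ⟨a.linear.domRestrict D ⟨v, hv⟩, ⟨⟨v, hv⟩, rfl⟩⟩ := by
      rw [← hL]
      rfl
    rw [h9, h8]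
    rfl
  obtain ⟨x0, hx0⟩ := hne
  refine ⟨AffineMap.mk' (fun y => L (y - a x0) + b x0) L (a x0) (fun y => by simp), ?_⟩
  intro x hx
  have h10 : x - x0 ∈ D := Submodule.subset_span ⟨x, hx, x0, hx0, rfl⟩
  have h11 := hL _ h10
  have h12 := b.linearMap_vsub x x0
  have h13 := a.linearMap_vsub x x0
  rw [vsub_eq_sub, vsub_eq_sub] at h12 h13
  rw [h12, h13] at h11
  show b x = L (a x - a x0) + b x0
  rw [← h11]
  abel

/-! ### finite unions of convex sets and pieces of affinity -/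

/-- finite unions of convex sets -/
def FinConv (s : Set E) : Prop :=
  ∃ 𝒞 : Set (Set E), 𝒞.Finite ∧ (∀ K ∈ 𝒞, Convex ℝ K) ∧ ⋃₀ 𝒞 = s

theorem _root_.Convex.finConv {s : Set E} (h : Convex ℝ s) : FinConv s :=
  ⟨{s}, finite_singleton s, by simpa using h, by simp⟩

theorem FinConv.union {s t : Set E} (hs : FinConv s) (ht : FinConv t) : FinConv (s ∪ t) := by
  obtain ⟨A, hA, hA1, rfl⟩ := hs
  obtain ⟨B, hB, hB1, rfl⟩ := ht
  refine ⟨A ∪ B, hA.union hB, ?_, sUnion_union A B⟩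
  rintro K (hK | hK)
  · exact hA1 K hK
  · exact hB1 K hK

theorem FinConv.biUnion {ι : Type*} {I : Set ι} (hI : I.Finite) {s : ι → Set E}
    (hs : ∀ i ∈ I, FinConv (s i)) : FinConv (⋃ i ∈ I, s i) := by
  induction I, hI using Set.Finite.induction_on with
  | empty => exact ⟨∅, finite_empty, by simp, by simp⟩
  | @insert a S _ _ ih =>
    rw [biUnion_insert]
    exact (hs a (mem_insert a S)).union (ih fun i hi => hs i (mem_insert_of_mem a hi))

theorem FinConv.inter {s t : Set E} (hs : FinConv s) (ht : FinConv t) : FinConv (s ∩ t) := by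
  obtain ⟨A, hA, hA1, rfl⟩ := hs
  obtain ⟨B, hB, hB1, rfl⟩ := ht
  refine ⟨(fun p : Set E × Set E => p.1 ∩ p.2) '' (A ×ˢ B), (hA.prod hB).image _, ?_, ?_⟩
  · rintro _ ⟨⟨K, L⟩, ⟨hK, hL⟩, rfl⟩
    exact (hA1 K hK).inter (hB1 L hL)
  · ext x
    simp only [mem_sUnion, mem_image, mem_prod, Prod.exists, mem_inter_iff]
    constructor
    · rintro ⟨_, ⟨K, L, ⟨hK, hL⟩, rfl⟩, hx⟩
      exact ⟨⟨K, hK, hx.1⟩, ⟨L, hL, hx.2⟩⟩
    · rintro ⟨⟨K, hK, hxK⟩, ⟨L, hL, hxL⟩⟩
      exact ⟨K ∩ L, ⟨K, L, ⟨hK, hL⟩, rfl⟩, hxK, hxL⟩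

/-- a set of the form `{x | sign (l x) = s}` is convex -/
theorem convex_sign (l : E →ᵃ[ℝ] ℝ) (s : SignType) : Convex ℝ {x | SignType.sign (l x) = s} := by
  have h1 : Convex ℝ {y : ℝ | SignType.sign y = s} := by
    cases s with
    | zero =>
      have : {y : ℝ | SignType.sign y = SignType.zero} = {0} := by
        ext y
        exact sign_eq_zero_iff
      rw [this]
      exact convex_singleton 0
    | neg =>
      have : {y : ℝ | SignType.sign y = SignType.neg} = Iio 0 := by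
        ext y
        exact sign_eq_neg_one_iff
      rw [this]
      exact convex_Iio 0
    | pos =>
      have : {y : ℝ | SignType.sign y = SignType.pos} = Ioi 0 := by
        ext y
        exact sign_eq_one_iff
      rw [this]
      exact convex_Ioi 0
  exact h1.affine_preimage l

/-- a continuous selection of finitely many maps, pairwise equal everywhere or nowhere on a
preconnected set, is constant -/
theorem selection_const {C : Set E} (hC : IsPreconnected C) {f : E → F} (hf : ContinuousOn f C)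
    {A : Set (E → F)} (hA : A.Finite) (hAc : ∀ g ∈ A, ContinuousOn g C)
    (hsel : ∀ x ∈ C, ∃ g ∈ A, f x = g x)
    (hpair : ∀ g ∈ A, ∀ g' ∈ A, (∃ x ∈ C, g x = g' x) → ∀ x ∈ C, g x = g' x) (hne : C.Nonempty) :
    ∃ g ∈ A, EqOn f g C := by
  obtain ⟨x0, hx0⟩ := hne
  obtain ⟨g0, hg0, hfg0⟩ := hsel x0 hx0
  refine ⟨g0, hg0, ?_⟩
  have hps : PreconnectedSpace C := isPreconnected_iff_preconnectedSpace.1 hC
  have hfc : Continuous (C.domRestrict f) := continuousOn_iff_continuous_domRestrict.1 hf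
  have hcl : ∀ g ∈ A, IsClosed {x : C | f x = g x} := fun g hg =>
    isClosed_eq hfc (continuousOn_iff_continuous_domRestrict.1 (hAc g hg))
  have hcompl : {x : C | f x = g0 x}ᶜ =
      ⋃ g ∈ {g ∈ A | ∀ x ∈ C, g x ≠ g0 x}, {x : C | f x = g x} := by
    ext ⟨x, hx⟩
    simp only [mem_compl_iff, mem_ofPred_eq, mem_iUnion, exists_prop]
    constructor
    · intro hne
      obtain ⟨g, hg, hfg⟩ := hsel x hx
      refine ⟨g, ⟨hg, ?_⟩, hfg⟩
      intro y hy hgy
      exact hne (hfg.trans (hpair g hg g0 hg0 ⟨y, hy, hgy⟩ x hx))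
    · rintro ⟨g, ⟨_, hg⟩, hfg⟩ h
      exact hg x hx (hfg.symm.trans h)
  have hclopen : IsClopen {x : C | f x = g0 x} := by
    refine ⟨hcl g0 hg0, ?_⟩
    rw [← isClosed_compl_iff, hcompl]
    exact (hA.subset (sep_subset _ _)).isClosed_biUnion fun g hg => hcl g hg.1
  rcases isClopen_iff.1 hclopen with h | h
  · exact absurd (show (⟨x0, hx0⟩ : C) ∈ {x : C | f x = g0 x} from hfg0) (by rw [h]; simp)
  · intro x hx
    have : (⟨x, hx⟩ : C) ∈ {x : C | f x = g0 x} := by rw [h]; trivial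
    exact this

variable [FiniteDimensional ℝ E] [FiniteDimensional ℝ F]

/-- a piecewise affine map on a convex set is affine on each of finitely many convex pieces -/
theorem exists_pieces_of_convex {C : Set E} (hC : Convex ℝ C) {f : E → F} (hf : ContinuousOn f C)
    {A : Set (E →ᵃ[ℝ] F)} (hA : A.Finite) (hfA : ∀ x ∈ C, ∃ g ∈ A, f x = g x) :
    ∃ 𝒞 : Set (Set E), 𝒞.Finite ∧ (∀ K ∈ 𝒞, Convex ℝ K ∧ ∃ g ∈ A, EqOn f g K) ∧ ⋃₀ 𝒞 = C := by
  have hfin : Finite (A : Type _) := hA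
  let b := Module.finBasis ℝ F
  let l : (A × A × Fin (Module.finrank ℝ F)) → E →ᵃ[ℝ] ℝ := fun p =>
    (b.coord p.2.2).toAffineMap.comp (p.1.1 - p.2.1.1)
  have hl : ∀ (g g' : A) (k : Fin (Module.finrank ℝ F)) (x : E),
      l (g, g', k) x = b.coord k (g.1 x - g'.1 x) := fun _ _ _ _ => rfl
  let K : ((A × A × Fin (Module.finrank ℝ F)) → SignType) → Set E := fun σ =>
    C ∩ ⋂ p, {x | SignType.sign (l p x) = σ p}
  have hKc : ∀ σ, Convex ℝ (K σ) := fun σ =>
    hC.inter (convex_iInter fun p => convex_sign (l p) (σ p))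
  refine ⟨K '' {σ | (K σ).Nonempty}, (toFinite _).image K, ?_, ?_⟩
  · rintro _ ⟨σ, hσ, rfl⟩
    refine ⟨hKc σ, ?_⟩
    have h1 := selection_const (hKc σ).isPreconnected (hf.mono inter_subset_left)
      (A := (fun g : E →ᵃ[ℝ] F => (g : E → F)) '' A) (hA.image _)
      (by
        rintro _ ⟨g, _, rfl⟩
        exact g.continuous_of_finiteDimensional.continuousOn)
      (by
        intro x hx
        obtain ⟨g, hg, hxg⟩ := hfA x hx.1
        exact ⟨g, ⟨g, hg, rfl⟩, hxg⟩)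
      (by
        rintro _ ⟨g, hg, rfl⟩ _ ⟨g', hg', rfl⟩ ⟨x, hx, hgx⟩ y hy
        have h2 : ∀ k, b.coord k (g y - g' y) = 0 := by
          intro k
          have h3 : SignType.sign (l (⟨g, hg⟩, ⟨g', hg'⟩, k) x) = σ (⟨g, hg⟩, ⟨g', hg'⟩, k) :=
            mem_iInter.1 hx.2 _
          have h4 : SignType.sign (l (⟨g, hg⟩, ⟨g', hg'⟩, k) y) = σ (⟨g, hg⟩, ⟨g', hg'⟩, k) :=
            mem_iInter.1 hy.2 _
          rw [hl] at h3 h4
          have h5 : g x - g' x = 0 := sub_eq_zero.2 hgx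
          simp only [h5, map_zero, sign_zero] at h3
          rw [← h3] at h4
          exact sign_eq_zero_iff.1 h4
        exact sub_eq_zero.1 (b.forall_coord_eq_zero_iff.1 h2)) hσ
    obtain ⟨_, ⟨g, hg, rfl⟩, hfg⟩ := h1
    exact ⟨g, hg, hfg⟩
  · ext x
    constructor
    · rintro ⟨_, ⟨σ, _, rfl⟩, hx⟩
      exact hx.1
    · intro hx
      have hxK : x ∈ K (fun p => SignType.sign (l p x)) :=
        ⟨hx, mem_iInter.2 fun p => rfl⟩
      exact ⟨_, ⟨_, ⟨x, hxK⟩, rfl⟩, hxK⟩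

theorem PLOn.pieces {s : Set E} (hs : FinConv s) {f : E → F} (hf : PLOn s f) :
    ∃ 𝒞 : Set (Set E), 𝒞.Finite ∧ (∀ K ∈ 𝒞, Convex ℝ K ∧ ∃ g : E →ᵃ[ℝ] F, EqOn f g K) ∧
      ⋃₀ 𝒞 = s := by
  obtain ⟨𝒜, h𝒜, hconv, rfl⟩ := hs
  obtain ⟨hfc, A, hA, hfA⟩ := hf
  have h1 : ∀ C ∈ 𝒜, ∃ 𝒞 : Set (Set E), 𝒞.Finite ∧
      (∀ K ∈ 𝒞, Convex ℝ K ∧ ∃ g ∈ A, EqOn f g K) ∧ ⋃₀ 𝒞 = C := fun C hC =>
    exists_pieces_of_convex (hconv C hC) (hfc.mono (subset_sUnion_of_mem hC)) hA
      (fun x hx => hfA x ⟨C, hC, hx⟩)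
  choose! 𝒞 h2 h3 h4 using h1
  refine ⟨⋃ C ∈ 𝒜, 𝒞 C, h𝒜.biUnion h2, ?_, ?_⟩
  · intro K hK
    obtain ⟨C, hC, hK⟩ := mem_iUnion₂.1 hK
    obtain ⟨h5, g, _, h6⟩ := h3 C hC K hK
    exact ⟨h5, g, h6⟩
  · ext x
    constructor
    · rintro ⟨K, hK, hx⟩
      obtain ⟨C, hC, hK⟩ := mem_iUnion₂.1 hK
      exact ⟨C, hC, by rw [← h4 C hC]; exact ⟨K, hK, hx⟩⟩
    · rintro ⟨C, hC, hx⟩
      rw [← h4 C hC] at hx
      obtain ⟨K, hK, hx⟩ := hx
      exact ⟨K, mem_iUnion₂.2 ⟨C, hC, hK⟩, hx⟩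

/-- images of finite unions of convex sets -/
theorem PLOn.finConv_image {s : Set E} (hs : FinConv s) {f : E → F} (hf : PLOn s f) :
    FinConv (f '' s) := by
  obtain ⟨𝒞, hfin, h1, h2⟩ := hf.pieces hs
  refine ⟨(fun K => f '' K) '' 𝒞, hfin.image _, ?_, ?_⟩
  · rintro _ ⟨K, hK, rfl⟩
    obtain ⟨hc, g, hg⟩ := h1 K hK
    show Convex ℝ (f '' K)
    rw [hg.image_eq]
    exact hc.affine_image g
  · rw [← h2, image_sUnion]

/-- the inverse of an injective piecewise affine map on a finite union of convex sets is a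
selection of finitely many affine maps -/
theorem PLOn.inv_sel {s : Set E} (hs : FinConv s) {f : E → F} (hf : PLOn s f) {r : F → E}
    (hr : LeftInvOn r f s) :
    ∃ A : Set (F →ᵃ[ℝ] E), A.Finite ∧ ∀ y ∈ f '' s, ∃ g ∈ A, r y = g y := by
  obtain ⟨𝒞, hfin, h1, h2⟩ := hf.pieces hs
  have h3 : ∀ K ∈ 𝒞, ∃ g' : F →ᵃ[ℝ] E, ∀ x ∈ K, x = g' (f x) := by
    intro K hK
    obtain ⟨hc, g, hg⟩ := h1 K hK
    have hKs : K ⊆ s := by rw [← h2]; exact subset_sUnion_of_mem hK
    obtain ⟨b', hb'⟩ := factor hc g (AffineMap.id ℝ E) (by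
      intro x hx y hy hxy
      rw [← hg hx, ← hg hy] at hxy
      exact hr.injOn (hKs hx) (hKs hy) hxy)
    refine ⟨b', fun x hx => ?_⟩
    rw [hg hx]
    exact hb' x hx
  choose! g' hg' using h3
  refine ⟨g' '' 𝒞, hfin.image _, ?_⟩
  rintro _ ⟨x, hx, rfl⟩
  rw [← h2] at hx
  obtain ⟨K, hK, hxK⟩ := hx
  refine ⟨g' K, mem_image_of_mem _ hK, ?_⟩
  rw [← hg' K hK x hxK, hr (by rw [← h2]; exact ⟨K, hK, hxK⟩)]

/-- continuity of the inverse on a compact set -/
theorem continuousOn_inv {s : Set E} (hs : IsCompact s) {f : E → F} (hf : ContinuousOn f s)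
    {r : F → E} (hr : LeftInvOn r f s) : ContinuousOn r (f '' s) := by
  rw [continuousOn_iff_isClosed]
  intro t ht
  refine ⟨f '' (s ∩ t), ((hs.inter_right ht).image_of_continuousOn
    (hf.mono inter_subset_left)).isClosed, ?_⟩
  ext y
  constructor
  · rintro ⟨hy, x, hx, rfl⟩
    refine ⟨⟨x, ⟨hx, ?_⟩, rfl⟩, ⟨x, hx, rfl⟩⟩
    rw [mem_preimage, hr hx] at hy
    exact hy
  · rintro ⟨⟨x, ⟨hx, hxt⟩, rfl⟩, hy⟩
    refine ⟨?_, hy⟩
    rw [mem_preimage, hr hx]
    exact hxt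

theorem PLOn.inv {s : Set E} (hs : FinConv s) (hsc : IsCompact s) {f : E → F} (hf : PLOn s f)
    {r : F → E} (hr : LeftInvOn r f s) : PLOn (f '' s) r :=
  ⟨continuousOn_inv hsc hf.1 hr, hf.inv_sel hs hr⟩

end

end Crest.Agent.R096.Cx_609
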