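import Crest.Agent.R096.Msh4_715
import Crest.Agent.R096.Ce2_537
import Crest.Agent.R096.Cx1_609

/-!
# R096 (row 96), MESH-REFINE, part 2 (helper715): arbitrarily fine refinements, refinements adapted to
polyhedra, refinements on whose tiles a given PL map is affine.

Every property of a refinement `T.refine HH` used below is monotone in `HH`, so that finitely many
requirements are met at once by taking unions.
-/

set_option autoImplicit false

open Set Metric Filter Topology Module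
open scoped Classical

namespace Crest.Agent.R096.Msh_715

variable {E : Type*} [NormedAddCommGroup E] [NormedSpace ℝ E]
variable {F : Type*} [NormedAddCommGroup F] [NormedSpace ℝ F]

/-- a fine grid of hyperplanes around a bounded set -/
theorem exists_grid [FiniteDimensional ℝ E] {K : Set E} (hK : Bornology.IsBounded K) {ε : ℝ}
    (hε : 0 < ε) : ∃ G : Finset ((E →L[ℝ] ℝ) × ℝ), (∀ h ∈ G, h.1 ≠ 0) ∧
      ∀ C ⊆ K, (∀ h ∈ G, (∀ y ∈ C, h.1 y ≤ h.2) ∨ (∀ y ∈ C, h.2 ≤ h.1 y)) →
        ∀ y ∈ C, ∀ z ∈ C, dist y z ≤ ε := by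
  let b := finBasis ℝ E
  let co : Fin (finrank ℝ E) → E →L[ℝ] ℝ := fun j => LinearMap.toContinuousLinearMap (b.coord j)
  have hco : ∀ j y, co j y = b.repr y j := fun j y => rfl
  set S : ℝ := ∑ j, ‖b j‖ + 1 with hS
  have hS0 : 0 < S := by
    have : 0 ≤ ∑ j, ‖b j‖ := Finset.sum_nonneg fun _ _ => norm_nonneg _
    linarith
  set δ : ℝ := ε / S with hδ
  have hδ0 : 0 < δ := div_pos hε hS0
  -- bound of the coordinates
  obtain ⟨R, hR0, hR⟩ : ∃ R : ℝ, 0 ≤ R ∧ ∀ y ∈ K, ∀ j, |co j y| ≤ R := by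
    obtain ⟨r, hr⟩ := hK.subset_closedBall (0 : E)
    refine ⟨∑ j, ‖co j‖ * |r|, Finset.sum_nonneg fun j _ => by positivity, fun y hy j => ?_⟩
    have h1 : ‖y‖ ≤ |r| := by
      have := hr hy
      rw [mem_closedBall_zero_iff] at this
      exact this.trans (le_abs_self r)
    have h2 : |co j y| ≤ ‖co j‖ * |r| := by
      rw [← Real.norm_eq_abs]
      exact ((co j).le_opNorm y).trans (mul_le_mul_of_nonneg_left h1 (norm_nonneg _))
    exact h2.trans (Finset.single_le_sum (f := fun j => ‖co j‖ * |r|)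
      (fun j _ => by positivity) (Finset.mem_univ j))
  set m : ℤ := ⌈R / δ⌉ + 1 with hm
  refine ⟨(Finset.univ ×ˢ Finset.Icc (-m) m).image fun q => (co q.1, (q.2 : ℝ) * δ), ?_, ?_⟩
  · intro h hh
    obtain ⟨⟨j, k⟩, -, rfl⟩ := Finset.mem_image.1 hh
    intro h0
    have h1 : co j (b j) = 0 := by
      have : (co j) = 0 := h0
      rw [this]; rfl
    rw [hco, b.repr_self, Finsupp.single_eq_same] at h1
    exact one_ne_zero h1
  · intro C hC hsign y hy z hz
    -- one sided estimate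
    have key : ∀ y ∈ C, ∀ z ∈ C, ∀ j, co j z ≤ co j y + δ := by
      intro y hy z hz j
      by_contra hcon
      push Not at hcon
      set k : ℤ := ⌊co j y / δ⌋ + 1 with hk
      have h1 : co j y < (k : ℝ) * δ := by
        have := Int.lt_floor_add_one (co j y / δ)
        rw [div_lt_iff₀ hδ0] at this
        rw [hk]; push_cast; exact this
      have h2 : (k : ℝ) * δ ≤ co j y + δ := by
        have := Int.floor_le (co j y / δ)
        rw [le_div_iff₀ hδ0] at this
        rw [hk]; push_cast; linarith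
      have hbd := abs_le.1 (hR y (hC hy) j)
      have h3 : -m ≤ k := by
        have h4 : -(R / δ) ≤ co j y / δ := by
          rw [← neg_div]
          exact div_le_div_of_nonneg_right hbd.1 hδ0.le
        have h5 : (-(m : ℝ)) < k := by
          have h6 : co j y / δ < k := by rw [hk]; push_cast; exact Int.lt_floor_add_one _
          have h7 : R / δ ≤ ⌈R / δ⌉ := Int.le_ceil _
          rw [hm]; push_cast; linarith
        have h8 : -m < k := by exact_mod_cast h5
        exact h8.le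
      have h4 : k ≤ m := by
        have h5 : co j y / δ ≤ R / δ := div_le_div_of_nonneg_right hbd.2 hδ0.le
        have h6 : ⌊co j y / δ⌋ ≤ ⌈R / δ⌉ :=
          (Int.floor_mono h5).trans (Int.floor_le_ceil _)
        rw [hk, hm]; linarith
      have hmem : ((co j, (k : ℝ) * δ) : (E →L[ℝ] ℝ) × ℝ) ∈
          (Finset.univ ×ˢ Finset.Icc (-m) m).image
            fun q : Fin (finrank ℝ E) × ℤ => (co q.1, (q.2 : ℝ) * δ) :=
        Finset.mem_image.2 ⟨(j, k), Finset.mem_product.2 ⟨Finset.mem_univ _,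
          Finset.mem_Icc.2 ⟨h3, h4⟩⟩, rfl⟩
      rcases hsign _ hmem with h | h
      · have := h z hz
        simp only at this
        linarith
      · have := h y hy
        simp only at this
        linarith
    have habs : ∀ j, |co j (y - z)| ≤ δ := by
      intro j
      rw [map_sub, abs_le]
      constructor
      · have := key y hy z hz j
        linarith
      · have := key z hz y hy j
        linarith
    rw [dist_eq_norm]
    calc ‖y - z‖ = ‖∑ j, co j (y - z) • b j‖ := by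
          congr 1
          exact (b.sum_repr (y - z)).symm
      _ ≤ ∑ j, ‖co j (y - z) • b j‖ := norm_sum_le _ _
      _ ≤ ∑ j, δ * ‖b j‖ := by
          refine Finset.sum_le_sum fun j _ => ?_
          rw [norm_smul, Real.norm_eq_abs]
          exact mul_le_mul_of_nonneg_right (habs j) (norm_nonneg _)
      _ = δ * ∑ j, ‖b j‖ := by rw [Finset.mul_sum]
      _ ≤ δ * S := mul_le_mul_of_nonneg_left (by rw [hS]; linarith) hδ0.le
      _ = ε := by rw [hδ]; field_simp

/-- the hyperplanes which separate finitely many affine maps -/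
theorem exists_sep [FiniteDimensional ℝ E] [FiniteDimensional ℝ F] (S : Finset (E →ᵃ[ℝ] F)) :
    ∃ G : Finset ((E →L[ℝ] ℝ) × ℝ), (∀ h ∈ G, h.1 ≠ 0) ∧
      ∀ (C : Set E) (f : E → F), IsPreconnected C → C.Nonempty →
        (∀ h ∈ G, ∀ y ∈ C, h.1 y ≠ h.2) → ContinuousOn f C → (∀ x ∈ C, ∃ g ∈ S, f x = g x) →
        ∃ g ∈ S, EqOn f g C := by
  let b := finBasis ℝ F
  let l : (E →ᵃ[ℝ] F) → (E →ᵃ[ℝ] F) → Fin (finrank ℝ F) → E →L[ℝ] ℝ := fun g g' k =>
    LinearMap.toContinuousLinearMap ((b.coord k).comp (g.linear - g'.linear))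
  let c : (E →ᵃ[ℝ] F) → (E →ᵃ[ℝ] F) → Fin (finrank ℝ F) → ℝ := fun g g' k =>
    -(b.repr (g 0 - g' 0) k)
  have hval : ∀ g g' k (x : E), b.repr (g x - g' x) k = l g g' k x - c g g' k := by
    intro g g' k x
    have e1 : ∀ g : E →ᵃ[ℝ] F, g x = g.linear x + g 0 := by
      intro g
      have := g.map_vadd 0 x
      simpa using this
    have e2 : g x - g' x = (g.linear x - g'.linear x) + (g 0 - g' 0) := by
      rw [e1 g, e1 g']; abel
    have e3 : l g g' k x = b.repr (g.linear x - g'.linear x) k := rfl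
    rw [e2, map_add, Finsupp.add_apply, e3]
    show _ = _ - -(b.repr (g 0 - g' 0) k)
    ring
  refine ⟨((S ×ˢ S ×ˢ (Finset.univ : Finset (Fin (finrank ℝ F)))).image fun q =>
    (l q.1 q.2.1 q.2.2, c q.1 q.2.1 q.2.2)).filter fun h => h.1 ≠ 0, ?_, ?_⟩
  · intro h hh
    exact (Finset.mem_filter.1 hh).2
  · intro C f hC hne hG hf hsel
    obtain ⟨g, hg, hfg⟩ := Cx_609.selection_const (A := (fun g : E →ᵃ[ℝ] F => (g : E → F)) '' (S : Set _))
      hC hf ((S.finite_toSet).image _)
      (by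
        rintro _ ⟨g, -, rfl⟩
        exact (AffineMap.continuous_of_finiteDimensional g).continuousOn)
      (fun x hx => by
        obtain ⟨g, hg, e⟩ := hsel x hx
        exact ⟨g, ⟨g, hg, rfl⟩, e⟩)
      (by
        rintro _ ⟨g, hg, rfl⟩ _ ⟨g', hg', rfl⟩ ⟨x, hx, hxe⟩ y hy
        have hz : ∀ k, l g g' k = 0 := by
          intro k
          by_contra hk
          have hmem : ((l g g' k, c g g' k) : (E →L[ℝ] ℝ) × ℝ) ∈
              ((S ×ˢ S ×ˢ (Finset.univ : Finset (Fin (finrank ℝ F)))).image fun q =>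
                (l q.1 q.2.1 q.2.2, c q.1 q.2.1 q.2.2)).filter fun h => h.1 ≠ 0 :=
            Finset.mem_filter.2 ⟨Finset.mem_image.2 ⟨(g, g', k), Finset.mem_product.2 ⟨hg,
              Finset.mem_product.2 ⟨hg', Finset.mem_univ _⟩⟩, rfl⟩, hk⟩
          have h1 := hG _ hmem x hx
          apply h1
          have h2 := hval g g' k x
          have hxe' : g x = g' x := hxe
          rw [hxe', sub_self, map_zero, Finsupp.zero_apply] at h2
          show l g g' k x = c g g' k
          linarith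
        have h3 : g y - g' y = 0 := by
          apply b.ext_elem
          intro k
          have h4 := hval g g' k y
          have h5 := hval g g' k x
          have hxe' : g x = g' x := hxe
          rw [hz k] at h4 h5
          rw [hxe', sub_self, map_zero, Finsupp.zero_apply] at h5
          rw [h4, map_zero, Finsupp.zero_apply]
          exact h5.symm
        exact sub_eq_zero.1 h3) hne
    obtain ⟨g', hg', rfl⟩ := hg
    exact ⟨g', hg', hfg⟩

/-- a locally PL map is PL on compact sets -/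
theorem LocPL.plOn {f : E → F} {Om : Set E} (hf : Ce_537.LocPL f Om) {K : Set E}
    (hK : IsCompact K) (hKO : K ⊆ Om) : Ce_537.PLOn f K := by
  choose! r hr hp using hf
  obtain ⟨t, ht, hc⟩ := hK.elim_nhds_subcover (fun x => ball x (r x))
    (fun x hx => ball_mem_nhds x (hr x (hKO hx)))
  refine ⟨fun x hx => ?_, ?_⟩
  · have h1 := (hp x (hKO hx)).1 x (mem_ball_self (hr x (hKO hx)))
    exact (h1.continuousAt (ball_mem_nhds x (hr x (hKO hx)))).continuousWithinAt
  · have : ∀ x ∈ t, ∃ S : Finset (E →ᵃ[ℝ] F), ∀ y ∈ ball x (r x), ∃ g ∈ S, f y = g y :=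
      fun x hx => (hp x (hKO (ht x hx))).2
    choose! S hS using this
    refine ⟨t.biUnion S, fun y hy => ?_⟩
    obtain ⟨x, hx, hyx⟩ := mem_iUnion₂.1 (hc hy)
    obtain ⟨g, hg, e⟩ := hS x hx y hyx
    exact ⟨g, Finset.mem_biUnion.2 ⟨x, hx, hg⟩, e⟩

namespace Tiling

variable {Om : Set E} {ι : Type*} (T : Tiling Om ι) {HH : ι → Finset ((E →L[ℝ] ℝ) × ℝ)}

/-- pieces lie on one side of the cutting hyperplanes -/
theorem RIdx.side {T : Tiling Om ι} (p : T.RIdx HH) {h : (E →L[ℝ] ℝ) × ℝ} (hh : h ∈ HH p.tile) :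
    (∀ y ∈ P p.HS, h.1 y ≤ h.2) ∨ (∀ y ∈ P p.HS, h.2 ≤ h.1 y) := by
  by_cases hs : h ∈ p.1.2
  · exact Or.inr fun y hy => ((T.mem_P_rH HH).1 hy).2 h hh |>.1 hs
  · exact Or.inl fun y hy => ((T.mem_P_rH HH).1 hy).2 h hh |>.2 hs

theorem RIdx.ne_of_mem_I {T : Tiling Om ι} (p : T.RIdx HH) {h : (E →L[ℝ] ℝ) × ℝ}
    (hh : h ∈ HH p.tile) {y : E} (hy : y ∈ I p.HS) : h.1 y ≠ h.2 := by
  have h1 := ((T.mem_I_rH HH).1 hy).2 h hh
  by_cases hs : h ∈ p.1.2
  · exact (h1.1 hs).ne'
  · exact (h1.2 hs).ne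

/-- (R5) the cuts which make the pieces of the tile `i` small -/
theorem exists_fine [FiniteDimensional ℝ E] (i : ι) {ε : ℝ} (hε : 0 < ε) :
    ∃ G : Finset ((E →L[ℝ] ℝ) × ℝ), (∀ h ∈ G, h.1 ≠ 0) ∧
      ∀ HH : ι → Finset ((E →L[ℝ] ℝ) × ℝ), G ⊆ HH i → ∀ p : T.RIdx HH, p.tile = i →
        ∀ y ∈ P p.HS, ∀ z ∈ P p.HS, dist y z ≤ ε := by
  obtain ⟨G, hG0, hG⟩ := exists_grid (T.cpt i).isBounded hε
  refine ⟨G, hG0, fun HH hHH p hp => ?_⟩
  subst hp
  exact hG _ p.P_sub fun h hh => p.side (hHH hh)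

/-- (R6) the cuts which make a PL map affine on the pieces of the tile `i` -/
theorem exists_affine [FiniteDimensional ℝ E] [FiniteDimensional ℝ F] (i : ι) {f : E → F}
    (hf : Ce_537.PLOn f (P (T.H i))) :
    ∃ G : Finset ((E →L[ℝ] ℝ) × ℝ), (∀ h ∈ G, h.1 ≠ 0) ∧
      ∀ HH : ι → Finset ((E →L[ℝ] ℝ) × ℝ), G ⊆ HH i → ∀ p : T.RIdx HH, p.tile = i →
        ∃ g : E →ᵃ[ℝ] F, EqOn f g (P p.HS) := by
  obtain ⟨hc, S, hS⟩ := hf
  obtain ⟨G, hG0, hG⟩ := exists_sep S
  refine ⟨G, hG0, fun HH hHH p hp => ?_⟩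
  subst hp
  have hIP : I p.HS ⊆ P (T.H p.tile) := (I_sub_P _).trans p.P_sub
  obtain ⟨g, -, hg⟩ := hG (I p.HS) f (convex_I _).isPreconnected p.ne
    (fun h hh y hy => p.ne_of_mem_I (hHH hh) hy) (hc.mono hIP) (fun x hx => hS x (hIP hx))
  refine ⟨g, fun x hx => ?_⟩
  have hx' := P_sub_closure_I p.ne hx
  have h1 : ContinuousWithinAt f (I p.HS) x := (hc x (p.P_sub hx)).mono hIP
  have h2 : ContinuousWithinAt g (I p.HS) x :=
    (AffineMap.continuous_of_finiteDimensional g).continuousWithinAt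
  have hne : (𝓝[I p.HS] x).NeBot := mem_closure_iff_nhdsWithin_neBot.1 hx'
  have h3 : Tendsto f (𝓝[I p.HS] x) (𝓝 (f x)) := h1
  have h4 : Tendsto f (𝓝[I p.HS] x) (𝓝 (g x)) :=
    Tendsto.congr' (by
      filter_upwards [self_mem_nhdsWithin] with y hy
      exact (hg hy).symm) h2
  exact tendsto_nhds_unique h3 h4

/-- **the combined statement**: a refinement which is as fine as prescribed on the tiles of `A`,
on whose pieces of the tiles of `A` the map `f` is affine, in which all polyhedra of a locally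
finite family are subcomplexes, and which is unchanged on the other tiles which miss them -/
theorem exists_refinement [FiniteDimensional ℝ E] [FiniteDimensional ℝ F] (A : Set ι) {ε : ι → ℝ}
    (hε : ∀ i, 0 < ε i) {f : E → F} (hf : ∀ i ∈ A, Ce_537.PLOn f (P (T.H i)))
    {κ : Type*} (K : κ → Finset ((E →L[ℝ] ℝ) × ℝ))
    (hK : ∀ i, {k | (P (K k) ∩ P (T.H i)).Nonempty}.Finite) :
    ∃ (HH : ι → Finset ((E →L[ℝ] ℝ) × ℝ)) (h0 : ∀ i, ∀ h ∈ HH i, h.1 ≠ 0),
      (∀ i, i ∉ A → (∀ k, P (K k) ∩ P (T.H i) = ∅) → HH i = ∅) ∧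
      (∀ p : T.RIdx HH, p.tile ∈ A → ∀ y ∈ P p.HS, ∀ z ∈ P p.HS, dist y z ≤ ε p.tile) ∧
      (∀ p : T.RIdx HH, p.tile ∈ A → ∃ g : E →ᵃ[ℝ] F, EqOn f g (P p.HS)) ∧
      (∀ k, ∀ x ∈ P (K k), x ∈ Om → (T.refine HH h0).cc x ⊆ P (K k)) := by
  choose G1 hG10 hG1 using fun i => T.exists_fine i (hε i)
  choose! G2 hG20 hG2 using fun i (hi : i ∈ A) => T.exists_affine i (hf i hi)
  let GA : ι → Finset ((E →L[ℝ] ℝ) × ℝ) := fun i => if i ∈ A then G1 i ∪ G2 i else ∅
  let GK : ι → Finset ((E →L[ℝ] ℝ) × ℝ) := fun i =>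
    ((hK i).toFinset.biUnion K).filter fun h => h.1 ≠ 0
  refine ⟨fun i => GA i ∪ GK i, fun i h hh => ?_, fun i hi hk => ?_, fun p hp => ?_,
    fun p hp => ?_, fun k x hx hxO => ?_⟩
  · rcases Finset.mem_union.1 hh with hh | hh
    · by_cases hi : i ∈ A
      · simp only [GA, hi, if_true] at hh
        rcases Finset.mem_union.1 hh with hh | hh
        · exact hG10 i h hh
        · exact hG20 i hi h hh
      · simp only [GA, hi, if_false] at hh
        exact absurd hh (Finset.notMem_empty h)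
    · exact (Finset.mem_filter.1 hh).2
  · have h1 : GA i = ∅ := by simp only [GA, hi, if_false]
    have h2 : GK i = ∅ := by
      have h3 : (hK i).toFinset = ∅ := by
        ext k
        simp only [Set.Finite.mem_toFinset, mem_ofPred_eq, Finset.notMem_empty, iff_false]
        rw [hk k]
        exact Set.not_nonempty_empty
      simp only [GK, h3, Finset.biUnion_empty, Finset.filter_empty]
    show GA i ∪ GK i = ∅
    rw [h1, h2, Finset.union_empty]
  · refine hG1 p.tile _ ?_ p rfl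
    intro h hh
    refine Finset.mem_union_left _ ?_
    simp only [GA, hp, if_true]
    exact Finset.mem_union_left _ hh
  · refine hG2 p.tile hp _ ?_ p rfl
    intro h hh
    refine Finset.mem_union_left _ ?_
    simp only [GA, hp, if_true]
    exact Finset.mem_union_right _ hh
  · obtain ⟨i, hi⟩ := T.cov x hxO
    refine T.refine_cc_sub_P _ hx hi fun h hh h0 => ?_
    refine Finset.mem_union_right _ (Finset.mem_filter.2 ⟨Finset.mem_biUnion.2 ⟨k, ?_, hh⟩, h0⟩)
    rw [Set.Finite.mem_toFinset]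
    exact ⟨x, hx, hi⟩

end Tiling

end Crest.Agent.R096.Msh_715
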