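import Crest.Agent.R096.Mrg1_715
import Crest.Agent.R096.Msh5_715
import Crest.Agent.R096.Cel3_715
import Crest.Agent.R096.Agl5_543

/-!
# R096 (row 96): cores in a tiling and the merged mesh (helper715)

`Core K` : closed set with a locally two-sided frontier (images of convex bodies under
homeomorphisms of the space).  If the frontier of `K` is a subcomplex of a three-dimensional tiling,
then exactly two 2-cells of the frontier pass through every 1-cell of the frontier, and the tiles of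
`K` can be merged.
-/

set_option autoImplicit false

open Set Metric Filter Topology Module
open scoped Classical

namespace Crest.Agent.R096.Msh_715

open St_147 Agl5_543

section CoreDef

variable {E F : Type*} [NormedAddCommGroup E] [NormedSpace ℝ E]
  [NormedAddCommGroup F] [NormedSpace ℝ F]

/-- closed sets with a locally two-sided frontier -/
structure Core (K : Set E) : Prop where
  closed : IsClosed K
  reg : frontier K ⊆ closure (interior K)
  inn : ∀ x ∈ frontier K, ∀ U ∈ 𝓝 x, ∃ V ∈ 𝓝 x, ∃ S, IsPreconnected S ∧ V ∩ interior K ⊆ S ∧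
    S ⊆ U ∩ interior K
  out : ∀ x ∈ frontier K, ∀ U ∈ 𝓝 x, ∃ V ∈ 𝓝 x, ∃ S, IsPreconnected S ∧ V \ K ⊆ S ∧ S ⊆ U \ K

/-- homeomorphic images -/
theorem Core.image {K : Set E} (h : Core K) (H : E ≃ₜ F) : Core (H '' K) where
  closed := H.isClosed_image.2 h.closed
  reg := by
    rw [← H.image_frontier, ← H.image_interior, ← H.image_closure]
    exact image_mono h.reg
  inn := by
    intro x hx U hU
    rw [← H.image_frontier] at hx
    obtain ⟨y, hy, rfl⟩ := hx
    obtain ⟨V, hV, S, hS, h1, h2⟩ := h.inn y hy (H ⁻¹' U) (H.continuous.continuousAt hU)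
    refine ⟨H '' V, H.isOpenMap.image_mem_nhds hV, H '' S, hS.image _ H.continuous.continuousOn,
      ?_, ?_⟩
    · rw [← H.image_interior, ← image_inter H.injective]
      exact image_mono h1
    · rw [← H.image_interior]
      rintro _ ⟨s, hs, rfl⟩
      exact ⟨(h2 hs).1, s, (h2 hs).2, rfl⟩
  out := by
    intro x hx U hU
    rw [← H.image_frontier] at hx
    obtain ⟨y, hy, rfl⟩ := hx
    obtain ⟨V, hV, S, hS, h1, h2⟩ := h.out y hy (H ⁻¹' U) (H.continuous.continuousAt hU)
    refine ⟨H '' V, H.isOpenMap.image_mem_nhds hV, H '' S, hS.image _ H.continuous.continuousOn,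
      ?_, ?_⟩
    · rw [← image_sdiff H.injective]
      exact image_mono h1
    · rintro _ ⟨s, hs, rfl⟩
      refine ⟨(h2 hs).1, ?_⟩
      rintro ⟨s', hs', e⟩
      rw [H.injective e] at hs'
      exact (h2 hs).2 hs'

/-- closed convex sets with nonempty interior -/
theorem Core.of_convex {C : Set E} (hcl : IsClosed C) (hc : Convex ℝ C)
    (hne : (interior C).Nonempty) : Core C where
  closed := hcl
  reg := by
    rw [hc.closure_interior_eq_closure_of_nonempty_interior hne]
    exact frontier_subset_closure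
  inn := by
    intro x _ U hU
    obtain ⟨ε, hε, hb⟩ := Metric.mem_nhds_iff.1 hU
    exact ⟨ball x ε, ball_mem_nhds x hε, ball x ε ∩ interior C,
      ((convex_ball x ε).inter hc.interior).isPreconnected, Subset.rfl,
      fun y hy => ⟨hb hy.1, hy.2⟩⟩
  out := by
    intro x hx U hU
    obtain ⟨δ, hδ, hb⟩ := Metric.mem_nhds_iff.1 hU
    obtain ⟨c, hc0⟩ := hne
    obtain ⟨r, hr, hrc⟩ := Metric.isOpen_iff.1 isOpen_interior c hc0
    have hxC : x ∈ C := hcl.frontier_subset hx
    have hxi : x ∉ interior C := by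
      have h1 : x ∈ C \ interior C := by rw [← hcl.frontier_eq]; exact hx
      exact h1.2
    set e : E := x - c with he
    set t : ℝ := δ / (2 * (‖e‖ + 1)) with ht
    have ht0 : 0 < t := by positivity
    have hte : t * ‖e‖ < δ / 2 := by
      rw [ht, div_mul_eq_mul_div, div_lt_div_iff₀ (by positivity) (by norm_num)]
      nlinarith [norm_nonneg e]
    set ε : ℝ := min (min r (t * r)) (δ / 2) with hε
    have hε0 : 0 < ε := by positivity
    have hε1 : ε ≤ r := (min_le_left _ _).trans (min_le_left _ _)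
    have hε2 : ε ≤ t * r := (min_le_left _ _).trans (min_le_right _ _)
    have hε3 : ε ≤ δ / 2 := min_le_right _ _
    -- moving outwards
    have key1 : ∀ y ∈ ball x ε, y ∉ C → ∀ s : ℝ, 0 ≤ s → y + s • e ∉ C := by
      intro y hy hyC s hs hcon
      apply hyC
      have h1 : y - e ∈ C := by
        apply interior_subset
        apply hrc
        have : y - e - c = y - x := by rw [he]; abel
        rw [mem_ball, dist_eq_norm, this, ← dist_eq_norm]
        exact (mem_ball.1 hy).trans_le hε1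
      have h2 := hc hcon h1 (show (0 : ℝ) ≤ 1 / (1 + s) by positivity)
        (show (0 : ℝ) ≤ s / (1 + s) by positivity) (by field_simp)
      have h3 : (1 / (1 + s)) • (y + s • e) + (s / (1 + s)) • (y - e) = y := by
        have hs1 : (1 + s) ≠ 0 := by positivity
        clear_value e
        match_scalars <;> field_simp <;> ring
      rwa [h3] at h2
    have key2 : ∀ z ∈ ball (x + t • e) ε, z ∉ C := by
      intro z hz hzC
      apply hxi
      set c' : E := c + (1 / t) • (x + t • e - z) with hc'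
      have h1 : c' ∈ interior C := by
        apply hrc
        rw [mem_ball, dist_eq_norm, hc', add_sub_cancel_left, norm_smul, Real.norm_eq_abs,
          abs_of_pos (by positivity)]
        rw [mem_ball, dist_eq_norm, ← norm_neg, neg_sub] at hz
        calc 1 / t * ‖x + t • e - z‖ < 1 / t * ε := by gcongr
          _ ≤ 1 / t * (t * r) := by gcongr
          _ = r := by field_simp
      have h2 := hc.combo_self_interior_mem_interior hzC h1 (a := 1 / (1 + t)) (b := t / (1 + t))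
        (by positivity) (by positivity) (by field_simp)
      have h3 : (1 / (1 + t)) • z + (t / (1 + t)) • c' = x := by
        have ht1 : (1 + t) ≠ 0 := by positivity
        have ht2 : t ≠ 0 := ht0.ne'
        rw [hc', he]
        clear_value t
        match_scalars <;> field_simp <;> ring
      rwa [h3] at h2
    refine ⟨ball x ε, ball_mem_nhds x hε0,
      (⋃ y ∈ ball x ε \ C, segment ℝ y (y + t • e)) ∪ ball (x + t • e) ε, ?_, ?_, ?_⟩
    · apply isPreconnected_of_forall (x + t • e)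
      rintro z (hz | hz)
      · obtain ⟨y, hy, hz⟩ := mem_iUnion₂.1 hz
        refine ⟨segment ℝ y (y + t • e) ∪ ball (x + t • e) ε, ?_, Or.inr (mem_ball_self hε0),
          Or.inl hz, ?_⟩
        · exact union_subset_union_left _ (subset_biUnion_of_mem (u := fun y => segment ℝ y (y + t • e)) hy)
        · refine IsPreconnected.union (y + t • e) (right_mem_segment ℝ _ _) ?_
            (convex_segment _ _).isPreconnected (convex_ball _ _).isPreconnected
          rw [mem_ball, dist_add_right]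
          exact hy.1
      · exact ⟨ball (x + t • e) ε, subset_union_right, mem_ball_self hε0, hz,
          (convex_ball _ _).isPreconnected⟩
    · intro y hy
      exact Or.inl (mem_biUnion hy (left_mem_segment ℝ _ _))
    · rintro z (hz | hz)
      · obtain ⟨y, hy, hz⟩ := mem_iUnion₂.1 hz
        rw [segment_eq_image'] at hz
        obtain ⟨s, hs, rfl⟩ := hz
        simp only [add_sub_cancel_left, smul_smul]
        refine ⟨hb ?_, key1 y hy.1 hy.2 (s * t) (mul_nonneg hs.1 ht0.le)⟩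
        rw [mem_ball, dist_eq_norm]
        have h1 : y + (s * t) • e - x = (y - x) + (s * t) • e := by abel
        have h2 : ‖(s * t) • e‖ ≤ t * ‖e‖ := by
          rw [norm_smul, Real.norm_eq_abs, abs_of_nonneg (mul_nonneg hs.1 ht0.le)]
          have : s * t ≤ 1 * t := mul_le_mul_of_nonneg_right hs.2 ht0.le
          rw [one_mul] at this
          exact mul_le_mul_of_nonneg_right this (norm_nonneg _)
        have h3 : ‖y - x‖ < ε := by rw [← dist_eq_norm]; exact hy.1
        rw [h1]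
        have := norm_add_le (y - x) ((s * t) • e)
        linarith
      · refine ⟨hb ?_, key2 z hz⟩
        rw [mem_ball, dist_eq_norm] at hz ⊢
        have h1 : z - x = (z - (x + t • e)) + t • e := by abel
        have h2 : ‖t • e‖ = t * ‖e‖ := by
          rw [norm_smul, Real.norm_eq_abs, abs_of_pos ht0]
        rw [h1]
        have := norm_add_le (z - (x + t • e)) (t • e)
        linarith

/-- images of convex bodies under homeomorphisms of the space -/
theorem Core.of_homeo {C : Set E} (hcl : IsClosed C) (hc : Convex ℝ C)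
    (hne : (interior C).Nonempty) (H : E ≃ₜ F) : Core (H '' C) :=
  (Core.of_convex hcl hc hne).image H

end CoreDef

/-! ### cores in a tiling -/

section Geo

variable {E : Type} [NormedAddCommGroup E] [NormedSpace ℝ E] [FiniteDimensional ℝ E]
variable {Om : Set E} {ι : Type} (T : Tiling Om ι) {K : Set E}

namespace Tiling

include T

omit [FiniteDimensional ℝ E] in
/-- open tiles miss the frontier -/
theorem disjoint_I_frontier (hcl : IsClosed K) (hs : ∀ x ∈ frontier K, T.cc x ⊆ frontier K)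
    (q : ι) : Disjoint (I (T.H q)) (frontier K) := by
  rw [Set.disjoint_left]
  intro x hx hxF
  have hat : ∀ i ∈ T.at_ x, i = q := by
    intro i hi
    by_contra hne
    exact Set.disjoint_left.1 (disjoint_P_I (T.ne i) (T.dis i q hne)) hi hx
  have h1 : I (T.H q) ⊆ frontier K := by
    refine Subset.trans (fun y hy => ?_) (hs x hxF)
    intro i hi h hh
    rw [hat i hi] at hh
    exact ⟨(hy h hh).le, fun e => absurd e (hx h hh).ne⟩
  have h2 : I (T.H q) ⊆ interior (frontier K) := interior_maximal h1 (isOpen_I _)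
  rw [interior_frontier hcl] at h2
  exact (h2 hx).elim

omit [FiniteDimensional ℝ E] in
/-- every open tile is inside or outside -/
theorem I_dich (hcl : IsClosed K) (hs : ∀ x ∈ frontier K, T.cc x ⊆ frontier K) (q : ι) :
    I (T.H q) ⊆ interior K ∨ I (T.H q) ⊆ Kᶜ := by
  refine (convex_I (T.H q)).isPreconnected.subset_or_subset isOpen_interior hcl.isOpen_compl ?_ ?_
  · rw [Set.disjoint_left]; intro y hy hyK; exact hyK (interior_subset hy)
  · intro y hy
    by_cases hyK : y ∈ K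
    · left
      by_contra hyi
      have : y ∈ frontier K := by rw [hcl.frontier_eq]; exact ⟨hyK, hyi⟩
      exact Set.disjoint_left.1 (T.disjoint_I_frontier hcl hs q) hy this
    · exact Or.inr hyK

omit [FiniteDimensional ℝ E] in
theorem sub_iff_I (hcl : IsClosed K) (q : ι) : P (T.H q) ⊆ K ↔ I (T.H q) ⊆ K := by
  constructor
  · exact fun h => (I_sub_P _).trans h
  · intro h
    exact (P_sub_closure_I (T.ne q)).trans (closure_minimal h hcl)

omit [FiniteDimensional ℝ E] in
/-- **tile dichotomy** -/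
theorem tile_dich (hcl : IsClosed K) (hs : ∀ x ∈ frontier K, T.cc x ⊆ frontier K) (q : ι) :
    (P (T.H q) ⊆ K ∧ I (T.H q) ⊆ interior K) ∨
      (¬ P (T.H q) ⊆ K ∧ I (T.H q) ⊆ Kᶜ ∧ Disjoint (P (T.H q)) (interior K)) := by
  rcases T.I_dich hcl hs q with h | h
  · exact Or.inl ⟨(T.sub_iff_I hcl q).2 (h.trans interior_subset), h⟩
  · refine Or.inr ⟨fun hP => ?_, h, ?_⟩
    · obtain ⟨z, hz⟩ := T.ne q
      exact h hz (hP (I_sub_P _ hz))
    · rw [Set.disjoint_left]
      intro y hy hyi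
      obtain ⟨z, hz1, hz2⟩ := mem_closure_iff.1 (P_sub_closure_I (T.ne q) hy) _ isOpen_interior hyi
      exact h hz2 (interior_subset hz1)

omit [FiniteDimensional ℝ E] in
theorem sub_of_mem_interior (hcl : IsClosed K) (hs : ∀ x ∈ frontier K, T.cc x ⊆ frontier K)
    {q : ι} {y : E} (hy : y ∈ P (T.H q)) (hyi : y ∈ interior K) : P (T.H q) ⊆ K := by
  rcases T.tile_dich hcl hs q with h | h
  · exact h.1
  · exact absurd hyi (Set.disjoint_left.1 h.2.2 hy)

omit [FiniteDimensional ℝ E] in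
/-- near a point of the frontier there are tiles inside -/
theorem exists_inner (hK : Core K) (hKO : K ⊆ Om) (hs : ∀ x ∈ frontier K, T.cc x ⊆ frontier K)
    {x : E} (hx : x ∈ K) : ∃ q ∈ T.at_ x, P (T.H q) ⊆ K := by
  obtain ⟨r, hr, hO, hb⟩ := T.exists_ball (hKO hx)
  have hcl : x ∈ closure (interior K) := by
    by_cases h : x ∈ interior K
    · exact subset_closure h
    · exact hK.reg (by rw [hK.closed.frontier_eq]; exact ⟨hx, h⟩)
  obtain ⟨y, hy1, hy2⟩ := Metric.mem_closure_iff.1 hcl r hr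
  have hyb : y ∈ ball x r := by rw [mem_ball, dist_comm]; exact hy2
  obtain ⟨q, hq⟩ := T.cov y (hO hyb)
  exact ⟨q, hb y hyb hq, T.sub_of_mem_interior hK.closed hs hq hy1⟩

omit [FiniteDimensional ℝ E] in
/-- near a point of the frontier there are tiles outside -/
theorem exists_outer (hKc : IsClosed K) (hKO : K ⊆ Om) {x : E} (hx : x ∈ frontier K) :
    ∃ q ∈ T.at_ x, ¬ P (T.H q) ⊆ K := by
  obtain ⟨r, hr, hO, hb⟩ := T.exists_ball (hKO (hKc.frontier_subset hx))
  have hcl : x ∈ closure Kᶜ := by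
    rw [frontier_eq_closure_inter_closure] at hx; exact hx.2
  obtain ⟨y, hy1, hy2⟩ := Metric.mem_closure_iff.1 hcl r hr
  have hyb : y ∈ ball x r := by rw [mem_ball, dist_comm]; exact hy2
  obtain ⟨q, hq⟩ := T.cov y (hO hyb)
  exact ⟨q, hb y hyb hq, fun h => hy1 (h hq)⟩

omit [FiniteDimensional ℝ E] in
/-- the core is the union of its tiles -/
theorem core_eq (hK : Core K) (hKO : K ⊆ Om) (hs : ∀ x ∈ frontier K, T.cc x ⊆ frontier K) :
    K = ⋃ q ∈ {q | P (T.H q) ⊆ K}, P (T.H q) := by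
  apply Subset.antisymm
  · intro x hx
    obtain ⟨q, hq, hqK⟩ := T.exists_inner hK hKO hs hx
    exact mem_biUnion (show q ∈ {q | P (T.H q) ⊆ K} from hqK) hq
  · exact iUnion₂_subset fun q hq => hq

/-- a 2-cell is on the frontier iff exactly one of its two tiles is inside -/
theorem mem_frontier_iff (hK : Core K) (hKO : K ⊆ Om)
    (hs : ∀ x ∈ frontier K, T.cc x ⊆ frontier K) {x : E} (hx : x ∈ Om) {i j : ι}
    (hat : T.at_ x = {i, j}) : x ∈ frontier K ↔ ¬ (P (T.H i) ⊆ K ↔ P (T.H j) ⊆ K) := by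
  constructor
  · intro hxF hiff
    obtain ⟨q, hq, hqK⟩ := T.exists_inner hK hKO hs (hK.closed.frontier_subset hxF)
    obtain ⟨q', hq', hqK'⟩ := T.exists_outer hK.closed hKO hxF
    rw [hat] at hq hq'
    rcases hq with rfl | hq <;> rcases hq' with rfl | hq'
    · exact hqK' hqK
    · rw [mem_singleton_iff] at hq'; subst hq'; exact hqK' (hiff.1 hqK)
    · rw [mem_singleton_iff] at hq; subst hq; exact hqK' (hiff.2 hqK)
    · rw [mem_singleton_iff] at hq hq'; subst hq; subst hq'; exact hqK' hqK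
  · intro hne
    have hi : i ∈ T.at_ x := by rw [hat]; exact mem_insert _ _
    have hj : j ∈ T.at_ x := by rw [hat]; exact mem_insert_of_mem _ rfl
    have key : ∀ k l : ι, k ∈ T.at_ x → l ∈ T.at_ x → P (T.H k) ⊆ K → ¬ P (T.H l) ⊆ K →
        x ∈ frontier K := by
      intro k l hk hl hkK hlK
      rw [hK.closed.frontier_eq]
      exact ⟨hkK hk, fun h => hlK (T.sub_of_mem_interior hK.closed hs hl h)⟩
    by_cases h1 : P (T.H i) ⊆ K <;> by_cases h2 : P (T.H j) ⊆ K
    · exact absurd (iff_of_true h1 h2) hne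
    · exact key i j hi hj h1 h2
    · exact key j i hj hi h2 h1
    · exact absurd (iff_of_false h1 h2) hne

/-- the connectedness argument: `S` a preconnected set near `w` off the cell of `w` -/
theorem conn_aux (h3 : finrank ℝ E = 3) {w : E} (hw : w ∈ Om) (hd : T.dim w = 1) {A X : Set ι}
    (hX : ∀ F : C2 T, w ∈ F.On → ∀ q ∈ F.side h3, ∀ q' ∈ F.side h3, q ∈ A → q' ∈ A → q ∈ X →
      q' ∈ X) {S : Set E} (hS : IsPreconnected S)
    (hSU : ∀ y ∈ S, y ∈ Om ∧ T.at_ y ⊆ T.at_ w ∧ w ∈ T.cc y ∧ y ∉ T.cc w)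
    (hSA : ∀ y ∈ S, ∀ k ∈ T.at_ y, k ∈ A) {q q' : ι} (hqX : q ∈ X) (hq' : q' ∉ X)
    (h1 : (S ∩ P (T.H q)).Nonempty) (h2 : (S ∩ P (T.H q')).Nonempty) : False := by
  have hfin := T.at_finite hw
  set U : Set E := ⋃ k ∈ T.at_ w ∩ X, P (T.H k) with hU
  set V : Set E := ⋃ k ∈ T.at_ w \ X, P (T.H k) with hV
  have hUc : IsClosed U := (hfin.inter_of_left X).isClosed_biUnion fun k _ => isClosed_P _
  have hVc : IsClosed V := (hfin.sdiff).isClosed_biUnion fun k _ => isClosed_P _
  have hcov : S ⊆ U ∪ V := by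
    intro y hy
    obtain ⟨hyO, hyat, _, _⟩ := hSU y hy
    obtain ⟨k, hk⟩ := T.cov y hyO
    have hkw := hyat hk
    by_cases hkX : k ∈ X
    · exact Or.inl (mem_biUnion (⟨hkw, hkX⟩ : k ∈ T.at_ w ∩ X) hk)
    · exact Or.inr (mem_biUnion (⟨hkw, hkX⟩ : k ∈ T.at_ w \ X) hk)
  obtain ⟨y1, hy1S, hy1⟩ := h1
  obtain ⟨y2, hy2S, hy2⟩ := h2
  obtain ⟨y, hyS, hyU, hyV⟩ := (isPreconnected_closed_iff.1 hS) U V hUc hVc hcov
    ⟨y1, hy1S, mem_biUnion (⟨(hSU y1 hy1S).2.1 hy1, hqX⟩ : q ∈ T.at_ w ∩ X) hy1⟩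
    ⟨y2, hy2S, mem_biUnion (⟨(hSU y2 hy2S).2.1 hy2, hq'⟩ : q' ∈ T.at_ w \ X) hy2⟩
  rw [hU, mem_iUnion₂] at hyU
  rw [hV, mem_iUnion₂] at hyV
  obtain ⟨k, ⟨hk, hkX⟩, hyk⟩ := hyU
  obtain ⟨l, ⟨hl, hlX⟩, hyl⟩ := hyV
  have hkl : k ≠ l := fun h => hlX (h ▸ hkX)
  obtain ⟨hyO, hyat, hwy, hyw⟩ := hSU y hyS
  -- the dimension of `y` is two
  have hd3 : T.dim y ≠ 3 := by
    intro h
    have hV : T.V y = ⊤ := by
      apply Submodule.eq_top_of_finrank_eq
      rw [h3]; exact h
    obtain ⟨i, hi⟩ := (T.V_eq_top_iff hyO).1 hV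
    have hat : ∀ m ∈ T.at_ y, m = i := by
      intro m hm
      by_contra hne
      exact Set.disjoint_left.1 (disjoint_P_I (T.ne m) (T.dis m i hne)) hm hi
    exact hkl ((hat k hyk).trans (hat l hyl).symm)
  have hle := T.dim_le_finrank y
  rw [h3] at hle
  have hwn : w ∉ T.oc y := by
    intro h
    apply hyw
    rw [T.cc_eq_of_mem_oc hyO h]
    exact T.self_mem_cc y
  have hlt := T.dim_lt hwy hwn
  have hd2 : T.dim y = 2 := by omega
  have hat2 := T.two_tiles hyO (by rw [hd2, h3])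
  obtain ⟨i, j, hij, hat, _⟩ := hat2
  have hside : ∀ m, m ∈ (mk2 T hyO hd2).side h3 ↔ m ∈ T.at_ y := by
    intro m
    have e : T.at_ (mk2 T hyO hd2).pt = T.at_ y := T.at_eq_of_mem_oc hyO (T.pt_cl hyO)
    rw [C2.mem_side, e]
  refine hlX (hX (mk2 T hyO hd2) ⟨?_, hd⟩ k ((hside k).2 hyk) l ((hside l).2 hyl)
    (hSA y hyS k hyk) (hSA y hyS l hyl) hkX)
  exact hwy

/-- the good neighbourhood -/
theorem good_nhds {w : E} (hw : w ∈ Om) :
    {y | y ∈ Om ∧ T.at_ y ⊆ T.at_ w ∧ w ∈ T.cc y} ∈ 𝓝 w := by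
  obtain ⟨r, hr, hO, hb⟩ := T.exists_ball hw
  filter_upwards [ball_mem_nhds w hr, T.eventually_mem_cc hw] with y hy hy2
  exact ⟨hy2.1, hb y hy, hy2.2⟩

/-- **the tiles of a core at a point of a 1-cell are connected through 2-cells** -/
theorem connAt_in (h3 : finrank ℝ E = 3) (hK : Core K)
    (hs : ∀ x ∈ frontier K, T.cc x ⊆ frontier K) (w : E) :
    ConnAt (meshC T h3) {q | P (T.H q) ⊆ K} w := by
  by_cases hwK : w ∈ K
  swap
  · refine connAt_of_none _ fun F hF q hq hqK => hwK ?_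
    exact hqK (C2.sub_tile (h3 := h3) hq hF.1)
  by_cases hwi : w ∈ interior K
  · refine connAt_of_all _ fun F hF q hq => ?_
    exact T.sub_of_mem_interior hK.closed hs (C2.sub_tile (h3 := h3) hq hF.1) hwi
  have hwF : w ∈ frontier K := by rw [hK.closed.frontier_eq]; exact ⟨hwK, hwi⟩
  intro X hX F hF q hq hqA hqX F' hF' q' hq' hqA'
  by_contra hq'X
  have hwO : w ∈ Om := F.set_sub hF.1
  have hd : T.dim w = 1 := hF.2
  obtain ⟨V, hV, S, hSc, hVS, hSU⟩ := hK.inn w hwF _ (T.good_nhds hwO)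
  refine T.conn_aux h3 hwO hd (A := {q | P (T.H q) ⊆ K}) (X := X)
    (fun G hG k hk k' hk' h1 h2 h3' => hX G hG k hk k' hk' h1 h2 h3') hSc
    (fun y hy => ⟨(hSU hy).1.1, (hSU hy).1.2.1, (hSU hy).1.2.2, fun h => ?_⟩)
    (fun y hy k hk => T.sub_of_mem_interior hK.closed hs hk (hSU hy).2) hqX hq'X ?_ ?_
  · have h1 : y ∈ frontier K := hs w hwF h
    rw [hK.closed.frontier_eq] at h1
    exact h1.2 (hSU hy).2
  · have h1 : w ∈ closure (I (T.H q)) := P_sub_closure_I (T.ne q) (C2.sub_tile (h3 := h3) hq hF.1)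
    obtain ⟨z, hzV, hzI⟩ := mem_closure_iff_nhds.1 h1 V hV
    have hzK : z ∈ interior K := interior_maximal ((I_sub_P _).trans hqA) (isOpen_I _) hzI
    exact ⟨z, hVS ⟨hzV, hzK⟩, I_sub_P _ hzI⟩
  · have h1 : w ∈ closure (I (T.H q')) := P_sub_closure_I (T.ne q') (C2.sub_tile (h3 := h3) hq' hF'.1)
    obtain ⟨z, hzV, hzI⟩ := mem_closure_iff_nhds.1 h1 V hV
    have hzK : z ∈ interior K := interior_maximal ((I_sub_P _).trans hqA') (isOpen_I _) hzI
    exact ⟨z, hVS ⟨hzV, hzK⟩, I_sub_P _ hzI⟩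

/-- the same for the outer tiles -/
theorem connAt_out (h3 : finrank ℝ E = 3) (hK : Core K)
    (hs : ∀ x ∈ frontier K, T.cc x ⊆ frontier K) (w : E) :
    ConnAt (meshC T h3) {q | ¬ P (T.H q) ⊆ K} w := by
  by_cases hwK : w ∈ K
  swap
  · refine connAt_of_all _ fun F hF q hq hqK => hwK ?_
    exact hqK (C2.sub_tile (h3 := h3) hq hF.1)
  by_cases hwi : w ∈ interior K
  · refine connAt_of_none _ fun F hF q hq hqA => hqA ?_
    exact T.sub_of_mem_interior hK.closed hs (C2.sub_tile (h3 := h3) hq hF.1) hwi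
  have hwF : w ∈ frontier K := by rw [hK.closed.frontier_eq]; exact ⟨hwK, hwi⟩
  intro X hX F hF q hq hqA hqX F' hF' q' hq' hqA'
  by_contra hq'X
  have hwO : w ∈ Om := F.set_sub hF.1
  have hd : T.dim w = 1 := hF.2
  have hout : ∀ k : ι, ¬ P (T.H k) ⊆ K → I (T.H k) ⊆ Kᶜ := by
    intro k hk
    rcases T.tile_dich hK.closed hs k with h | h
    · exact absurd h.1 hk
    · exact h.2.1
  obtain ⟨V, hV, S, hSc, hVS, hSU⟩ := hK.out w hwF _ (T.good_nhds hwO)
  refine T.conn_aux h3 hwO hd (A := {q | ¬ P (T.H q) ⊆ K}) (X := X)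
    (fun G hG k hk k' hk' h1 h2 h3' => hX G hG k hk k' hk' h1 h2 h3') hSc
    (fun y hy => ⟨(hSU hy).1.1, (hSU hy).1.2.1, (hSU hy).1.2.2, fun h => ?_⟩)
    (fun y hy k hk hkK => (hSU hy).2 (hkK hk)) hqX hq'X ?_ ?_
  · exact (hSU hy).2 (hK.closed.frontier_subset (hs w hwF h))
  · have h1 : w ∈ closure (I (T.H q)) := P_sub_closure_I (T.ne q) (C2.sub_tile (h3 := h3) hq hF.1)
    obtain ⟨z, hzV, hzI⟩ := mem_closure_iff_nhds.1 h1 V hV
    exact ⟨z, hVS ⟨hzV, hout q hqA hzI⟩, I_sub_P _ hzI⟩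
  · have h1 : w ∈ closure (I (T.H q')) := P_sub_closure_I (T.ne q') (C2.sub_tile (h3 := h3) hq' hF'.1)
    obtain ⟨z, hzV, hzI⟩ := mem_closure_iff_nhds.1 h1 V hV
    exact ⟨z, hVS ⟨hzV, hout q' hqA' hzI⟩, I_sub_P _ hzI⟩

/-- the 2-cells of the frontier are the boundary faces -/
theorem sub_frontier_iff (h3 : finrank ℝ E = 3) (hK : Core K) (hKO : K ⊆ Om)
    (hs : ∀ x ∈ frontier K, T.cc x ⊆ frontier K) (F : C2 T) :
    F.set ⊆ frontier K ↔ (∃ q ∈ F.side h3, P (T.H q) ⊆ K) ∧ ∃ q ∈ F.side h3, ¬ P (T.H q) ⊆ K := by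
  obtain ⟨i, j, hij, hat, _⟩ := T.two_tiles F.pt_mem (by rw [F.dim_pt, h3])
  have hside : ∀ m, m ∈ F.side h3 ↔ m = i ∨ m = j := by
    intro m
    rw [C2.mem_side, hat]
    rfl
  have h1 : F.set ⊆ frontier K ↔ F.pt ∈ frontier K := by
    rw [F.set_eq]
    exact ⟨fun h => h (T.self_mem_cc _), fun h => hs _ h⟩
  rw [h1, T.mem_frontier_iff hK hKO hs F.pt_mem hat]
  constructor
  · intro h
    by_cases a : P (T.H i) ⊆ K <;> by_cases b : P (T.H j) ⊆ K
    · exact absurd (iff_of_true a b) h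
    · exact ⟨⟨i, (hside i).2 (Or.inl rfl), a⟩, j, (hside j).2 (Or.inr rfl), b⟩
    · exact ⟨⟨j, (hside j).2 (Or.inr rfl), b⟩, i, (hside i).2 (Or.inl rfl), a⟩
    · exact absurd (iff_of_false a b) h
  · rintro ⟨⟨q, hq, hqK⟩, q', hq', hqK'⟩ hiff
    rcases (hside q).1 hq with rfl | rfl <;> rcases (hside q').1 hq' with rfl | rfl
    · exact hqK' hqK
    · exact hqK' (hiff.1 hqK)
    · exact hqK' (hiff.2 hqK)
    · exact hqK' hqK

/-- **exactly two 2-cells of the frontier pass through every 1-cell of the frontier** -/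
theorem two_faces (h3 : finrank ℝ E = 3) (hK : Core K) (hKO : K ⊆ Om)
    (hs : ∀ x ∈ frontier K, T.cc x ⊆ frontier K) {w : E} (hw : w ∈ frontier K)
    (hd : T.dim w = 1) : {F : C2 T | w ∈ F.On ∧ F.set ⊆ frontier K}.ncard = 2 := by
  have hset : {F : C2 T | w ∈ F.On ∧ F.set ⊆ frontier K} =
      bdAt (meshC T h3) {q | P (T.H q) ⊆ K} w := by
    ext F
    show (w ∈ F.On ∧ F.set ⊆ frontier K) ↔ _
    rw [T.sub_frontier_iff h3 hK hKO hs F]
    rfl
  rw [hset]
  rcases ncard_bd (T.connAt_in h3 hK hs w) with h | h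
  swap
  · exact h
  exfalso
  have hwO : w ∈ Om := hKO (hK.closed.frontier_subset hw)
  have hemp : bdAt (meshC T h3) {q | P (T.H q) ⊆ K} w = ∅ :=
    (Set.ncard_eq_zero (finite_bdAt _ _ _)).1 h
  obtain ⟨q, hq, hqK⟩ := T.exists_inner hK hKO hs (hK.closed.frontier_subset hw)
  obtain ⟨q', hq', hqK'⟩ := T.exists_outer hK.closed hKO hw
  have hface : ∀ k ∈ T.at_ w, ∃ F : C2 T, w ∈ F.On ∧ k ∈ F.side h3 := by
    intro k hk
    obtain ⟨x₁, hx1, x₂, hx2, hd1, hd2, hq1, hq2, hp1, hp2, hne, huniq⟩ :=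
      Agl3_543.two_cells T h3 hwO hd hk
    refine ⟨mk2 T hx1 hd1, ⟨hp1, hd⟩, ?_⟩
    have e : T.at_ (mk2 T hx1 hd1).pt = T.at_ x₁ := T.at_eq_of_mem_oc hx1 (T.pt_cl hx1)
    rw [C2.mem_side, e]
    exact hq1
  obtain ⟨F, hF, hqF⟩ := hface q hq
  obtain ⟨F', hF', hqF'⟩ := hface q' hq'
  refine hqK' ((meshC T h3).link w {q | P (T.H q) ⊆ K} ?_ F hF q hqF hqK F' hF' q' hqF')
  intro G hG k hk k' hk' hkK
  by_contra hkK'
  have : G ∈ bdAt (meshC T h3) {q | P (T.H q) ⊆ K} w := ⟨hG, ⟨k, hk, hkK⟩, k', hk', hkK'⟩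
  rw [hemp] at this
  exact this

end Tiling

/-! ### the merged mesh -/

variable {κ : Type} (Kc : κ → Set E)

/-- the cell of the merged mesh containing a tile -/
noncomputable def piK (q : ι) : ι ⊕ κ :=
  if h : ∃ c, P (T.H q) ⊆ Kc c then Sum.inr h.choose else Sum.inl q

variable {T Kc}

omit [FiniteDimensional ℝ E] in
theorem piK_inr (hdis : ∀ c c', c ≠ c' → Disjoint (Kc c) (Kc c')) {q : ι} {c : κ} :
    piK T Kc q = Sum.inr c ↔ P (T.H q) ⊆ Kc c := by
  constructor
  · intro h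
    by_cases hex : ∃ c, P (T.H q) ⊆ Kc c
    · rw [piK, dif_pos hex] at h
      have := Sum.inr_injective h
      rw [← this]
      exact hex.choose_spec
    · rw [piK, dif_neg hex] at h
      exact absurd h (by simp)
  · intro h
    have hex : ∃ c, P (T.H q) ⊆ Kc c := ⟨c, h⟩
    rw [piK, dif_pos hex]
    congr 1
    by_contra hne
    obtain ⟨z, hz⟩ := T.ne q
    exact Set.disjoint_left.1 (hdis _ _ hne) (hex.choose_spec (I_sub_P _ hz)) (h (I_sub_P _ hz))

omit [FiniteDimensional ℝ E] in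
theorem piK_inl {q q' : ι} :
    piK T Kc q = Sum.inl q' ↔ q = q' ∧ ∀ c, ¬ P (T.H q) ⊆ Kc c := by
  by_cases hex : ∃ c, P (T.H q) ⊆ Kc c
  · rw [piK, dif_pos hex]
    simp only [reduceCtorEq, false_iff, not_and, not_forall, not_not]
    intro _
    exact hex
  · rw [piK, dif_neg hex]
    push Not at hex
    constructor
    · intro h; exact ⟨Sum.inl_injective h, hex⟩
    · rintro ⟨rfl, _⟩; rfl

/-- the merged cells are connected at every point -/
theorem connAt_piK (h3 : finrank ℝ E = 3) (hK : ∀ c, Core (Kc c))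
    (hs : ∀ c, ∀ x ∈ frontier (Kc c), T.cc x ⊆ frontier (Kc c))
    (hdis : ∀ c c', c ≠ c' → Disjoint (Kc c) (Kc c')) (k : ι ⊕ κ) (w : E) :
    ConnAt (meshC T h3) (piK T Kc ⁻¹' {k}) w := by
  rcases k with q | c
  · by_cases h : ∀ c, ¬ P (T.H q) ⊆ Kc c
    · have : piK T Kc ⁻¹' {Sum.inl q} = {q} := by
        ext q'
        rw [mem_preimage, mem_singleton_iff, piK_inl, mem_singleton_iff]
        constructor
        · exact fun h => h.1
        · rintro rfl; exact ⟨rfl, h⟩
      rw [this]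
      exact connAt_singleton _ _ _
    · have : piK T Kc ⁻¹' {Sum.inl q} = ∅ := by
        rw [Set.eq_empty_iff_forall_notMem]
        intro q' hq'
        rw [mem_preimage, mem_singleton_iff, piK_inl] at hq'
        apply h
        rw [← hq'.1]
        exact hq'.2
      rw [this]
      exact connAt_empty _ _
  · have : piK T Kc ⁻¹' {Sum.inr c} = {q | P (T.H q) ⊆ Kc c} := by
      ext q'
      rw [mem_preimage, mem_singleton_iff, piK_inr hdis]
      rfl
    rw [this]
    exact T.connAt_in h3 (hK c) (hs c) w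

/-- **the mesh with the cores `Kc c` as giant cells `inr c`** -/
noncomputable def meshK (T : Tiling Om ι) (h3 : finrank ℝ E = 3) (Kc : κ → Set E)
    (hK : ∀ c, Core (Kc c)) (hs : ∀ c, ∀ x ∈ frontier (Kc c), T.cc x ⊆ frontier (Kc c))
    (hdis : ∀ c c', c ≠ c' → Disjoint (Kc c) (Kc c')) :
    MeshC (ι ⊕ κ) {F : C2 T // ¬ (((meshC T h3).side F).map (piK T Kc)).IsDiag} E :=
  mergeC (meshC T h3) (piK T Kc) (connAt_piK h3 hK hs hdis)

end Geo

end Crest.Agent.R096.Msh_715
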