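import Crest.Agent.R096.PlDiag_296

/-!
# The PL Schoenflies theorem in the plane, polygon form (helper296, row 96, P2-Y)
-/

namespace Crest.Agent.R096.Pl

open Set Metric Topology

set_option linter.unusedSectionVars false

theorem Kp_real : Kp ℝ = segment ℝ ((-1 : ℝ), (0 : ℝ)) (0, 1) ∪ segment ℝ ((0 : ℝ), (1 : ℝ)) (1, 0) := by
  ext p
  constructor
  · rintro ⟨h1, h2⟩
    have h2' : |p.1| + |p.2| = 1 := h2
    rw [abs_of_nonneg h1] at h2'
    rcases le_total p.1 0 with h | h
    · left
      rw [abs_of_nonpos h] at h2'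
      have e : p = (1 - p.2) • ((-1 : ℝ), (0 : ℝ)) + p.2 • ((0 : ℝ), (1 : ℝ)) := by
        ext
        · simp; linarith
        · simp
      rw [e]; exact comb_mem_segment h1 (by linarith)
    · right
      rw [abs_of_nonneg h] at h2'
      have e : p = (1 - p.1) • ((0 : ℝ), (1 : ℝ)) + p.1 • ((1 : ℝ), (0 : ℝ)) := by
        ext
        · simp
        · simp; linarith
      rw [e]; exact comb_mem_segment h (by linarith)
  · rintro (h | h)
    · obtain ⟨τ, h1, h2, rfl⟩ := mem_segment_comb h
      refine ⟨by simpa using h1, ?_⟩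
      show |((1 - τ) • ((-1 : ℝ), (0 : ℝ)) + τ • ((0 : ℝ), (1 : ℝ))).1| +
        |((1 - τ) • ((-1 : ℝ), (0 : ℝ)) + τ • ((0 : ℝ), (1 : ℝ))).2| = 1
      simp only [Prod.fst_add, Prod.snd_add, Prod.smul_fst, Prod.smul_snd, smul_eq_mul]
      rw [abs_of_nonpos (by linarith), abs_of_nonneg (by linarith)]; ring
    · obtain ⟨τ, h1, h2, rfl⟩ := mem_segment_comb h
      refine ⟨by simpa using h2, ?_⟩
      show |((1 - τ) • ((0 : ℝ), (1 : ℝ)) + τ • ((1 : ℝ), (0 : ℝ))).1| +
        |((1 - τ) • ((0 : ℝ), (1 : ℝ)) + τ • ((1 : ℝ), (0 : ℝ))).2| = 1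
      simp only [Prod.fst_add, Prod.snd_add, Prod.smul_fst, Prod.smul_snd, smul_eq_mul]
      rw [abs_of_nonneg (by linarith), abs_of_nonneg (by linarith)]; ring

theorem flat_real : (fun x : ℝ => (x, (0 : ℝ))) '' closedBall (0 : ℝ) 1 =
    segment ℝ ((-1 : ℝ), (0 : ℝ)) (1, 0) := by
  ext p
  constructor
  · rintro ⟨x, hx, rfl⟩
    rw [Real.closedBall_eq_Icc, mem_Icc] at hx
    have e : (x, (0:ℝ)) = (1 - (x + 1) / 2) • ((-1 : ℝ), (0 : ℝ)) + ((x + 1) / 2) • ((1 : ℝ), (0 : ℝ)) := by
      ext
      · simp; ring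
      · simp
    show (x, (0:ℝ)) ∈ _
    rw [e]; exact comb_mem_segment (by linarith [hx.1]) (by linarith [hx.2])
  · intro h
    obtain ⟨τ, h1, h2, rfl⟩ := mem_segment_comb h
    refine ⟨2 * τ - 1, ?_, ?_⟩
    · rw [Real.closedBall_eq_Icc, mem_Icc]; constructor <;> linarith
    · ext
      · simp; ring
      · simp

/-- the standard triangle is standard -/
theorem stdC_tri : StdC (segment ℝ ((-1 : ℝ), (0 : ℝ)) (0, 1) ∪
    segment ℝ ((0 : ℝ), (1 : ℝ)) (1, 0) ∪ segment ℝ ((-1 : ℝ), (0 : ℝ)) (1, 0)) := by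
  obtain ⟨H, hH, h1, h2, -⟩ := exists_halfPush polyNorm_real
  refine ⟨H.symm, hH.symm, ?_⟩
  rw [← Kp_real, ← flat_real]
  have e : H '' (Kp ℝ ∪ (fun x : ℝ => (x, (0 : ℝ))) '' closedBall (0 : ℝ) 1) = S1 ℝ := by
    rw [image_union, ← Kp_union_Km]
    congr 1
    · conv_rhs => rw [← image_id (Kp ℝ)]
      exact image_congr fun p hp => h1 p hp
    · rw [← em_image, ← image_comp]
      refine image_congr fun x hx => ?_
      exact h2 x (by simpa using hx)
  rw [← e, symm_image_image']

/-- triangles are standard -/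
theorem stdC_triangle {o a b : ℝ × ℝ} (h : dt (a - o) (b - o) ≠ 0) :
    StdC (segment ℝ o a ∪ segment ℝ a b ∪ segment ℝ o b) := by
  obtain ⟨s, t, hst⟩ := exists_coord h
  let fst' : (ℝ × ℝ) →ᵃ[ℝ] ℝ := (LinearMap.fst ℝ ℝ ℝ).toAffineMap
  let snd' : (ℝ × ℝ) →ᵃ[ℝ] ℝ := (LinearMap.snd ℝ ℝ ℝ).toAffineMap
  let A : (ℝ × ℝ) →ᵃ[ℝ] (ℝ × ℝ) :=
    ((LinearMap.toSpanSingleton ℝ (ℝ × ℝ) ((1/2 : ℝ) • (b - o))).toAffineMap.comp fst' +
      (LinearMap.toSpanSingleton ℝ (ℝ × ℝ) (a - (1/2 : ℝ) • (o + b))).toAffineMap.comp snd') +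
      AffineMap.const ℝ _ ((1/2 : ℝ) • (o + b))
  have hA : ∀ p, A p = p.1 • ((1/2 : ℝ) • (b - o)) + p.2 • (a - (1/2 : ℝ) • (o + b)) +
      (1/2 : ℝ) • (o + b) := fun p => by
    simp [A, fst', snd']
  let B : (ℝ × ℝ) →ᵃ[ℝ] (ℝ × ℝ) :=
    ((2 : ℝ) • t + s - AffineMap.const ℝ _ 1).prod s
  have hB : ∀ p, B p = (2 * t p + s p - 1, s p) := fun p => by simp [B]
  have hA' : ∀ p, A p = ((1 - p.1 - p.2) / 2) • o + (p.2 • a + ((1 + p.1 - p.2) / 2) • b) := fun p => by
    rw [hA]; module
  have haff : ∀ (f : (ℝ × ℝ) →ᵃ[ℝ] ℝ) (α β γ : ℝ), α + β + γ = 1 →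
      f (α • o + (β • a + γ • b)) = α * f o + (β * f a + γ * f b) := by
    intro f α β γ hsum
    have hl : ∀ x : ℝ × ℝ, f x = f.linear x + f 0 := fun x => by
      have := congrFun (AffineMap.decomp f) x; simpa using this
    rw [hl (α • o + (β • a + γ • b)), hl o, hl a, hl b]
    simp only [map_add, map_smul, smul_eq_mul]
    linear_combination (-(f 0)) * hsum
  have hsA : ∀ p, s (A p) = p.2 := fun p => by
    rw [hA', haff s _ _ _ (by ring), hst.so, hst.sa, hst.sb]; ring
  have htA : ∀ p, t (A p) = (1 + p.1 - p.2) / 2 := fun p => by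
    rw [hA', haff t _ _ _ (by ring), hst.to', hst.ta, hst.tb]; ring
  have hBA : ∀ p, B (A p) = p := fun p => by
    rw [hB, hsA, htA]; ext
    · simp only; ring
    · rfl
  have hAB : ∀ p, A (B p) = p := fun p => by
    apply hst.inj
    · rw [hsA, hB]
    · rw [htA, hB]; simp only; ring
  let H : (ℝ × ℝ) ≃ₜ (ℝ × ℝ) := mkH A B (PLMap.of_affine A) (PLMap.of_affine B) hBA hAB
  have hH : PLH H := PLH_mkH _ _ _ _ _ _
  have := stdC_tri.map hH
  have e0 : A (-1, 0) = o := by rw [hA']; norm_num
  have e1 : A (0, 1) = a := by rw [hA']; norm_num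
  have e2 : A (1, 0) = b := by rw [hA']; norm_num
  have himg : ∀ x y : ℝ × ℝ, H '' segment ℝ x y = segment ℝ (A x) (A y) := fun x y =>
    image_segment ℝ A x y
  rw [image_union, image_union, himg, himg, himg, e0, e1, e2] at this
  exact this

/-- **PL Schoenflies theorem for closed simple polygons in the plane** -/
theorem Poly.stdC : ∀ (n : ℕ) (v : ℤ → ℝ × ℝ), Poly n v → StdC (polySet v) := by
  intro n
  induction n using Nat.strong_induction_on with
  | _ n ih =>
    intro v h
    rcases h.three.eq_or_lt with h3 | h4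
    · -- triangles
      obtain ⟨i₀, _, hi₀⟩ := Finset.exists_min_image (Finset.Ico (0:ℤ) n) (fun i => toLex (v i))
        ⟨0, by simp; omega⟩
      have hmin : ∀ j, toLex (v i₀) ≤ toLex (v j) := by
        intro j
        obtain ⟨j', h1, h2, h3⟩ := h.exists_rep 0 j
        rw [h.eq_of_dvd h3]
        exact hi₀ j' (Finset.mem_Ico.2 ⟨h1, by simpa using h2⟩)
      have hs := h.shift i₀
      have hc := hs.corner (by
        intro j
        simp only [zero_add]
        exact hmin _)
      rw [← polySet_shift v i₀]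
      set w : ℤ → ℝ × ℝ := fun i => v (i + i₀) with hw
      have hset : polySet w = segment ℝ (w 0) (w 1) ∪ segment ℝ (w 1) (w (-1)) ∪
          segment ℝ (w 0) (w (-1)) := by
        rw [hs.polySet_eq (-1)]
        have hw2 : w 2 = w (-1) := hs.eq_of_dvd ⟨1, by rw [← h3]; norm_num⟩
        ext x
        rw [mem_arcSet]
        constructor
        · rintro ⟨i, h1, h2, h5⟩
          have : i = -1 ∨ i = 0 ∨ i = 1 := by omega
          rcases this with rfl | rfl | rfl
          · right
            have : x ∈ segment ℝ (w (-1)) (w (-1 + 1)) := h5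
            rwa [neg_add_cancel, segment_symm] at this
          · left; left
            have : x ∈ segment ℝ (w 0) (w (0 + 1)) := h5
            rwa [zero_add] at this
          · left; right
            have : x ∈ segment ℝ (w 1) (w (1 + 1)) := h5
            rwa [show (1:ℤ) + 1 = 2 by norm_num, hw2] at this
        · rintro ((h5 | h5) | h5)
          · refine ⟨0, by omega, by omega, ?_⟩
            show x ∈ segment ℝ (w 0) (w (0 + 1))
            rwa [zero_add]
          · refine ⟨1, by omega, by omega, ?_⟩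
            show x ∈ segment ℝ (w 1) (w (1 + 1))
            rwa [show (1:ℤ) + 1 = 2 by norm_num, hw2]
          · refine ⟨-1, by omega, by omega, ?_⟩
            show x ∈ segment ℝ (w (-1)) (w (-1 + 1))
            rwa [neg_add_cancel, segment_symm]
      rw [hset]
      exact stdC_triangle hc
    · -- cut along a diagonal
      obtain ⟨c, k, hk, hkn, hD⟩ := h.exists_diag h4
      rw [← polySet_shift v c]
      rw [← polySet_shift v c] at hD
      have hs := h.shift c
      set w : ℤ → ℝ × ℝ := fun i => v (i + c) with hw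
      have hw0 : v c = w 0 := by simp [hw]
      have hwk : v (c + k) = w k := by simp only [hw]; rw [add_comm]
      rw [hw0, hwk] at hD
      set D := segment ℝ (w k) (w 0) with hDdef
      have hn0 : w n = w 0 := hs.eq_of_dvd ⟨1, by ring⟩
      obtain ⟨hp1, hset1⟩ := hs.sub hk hkn (fun x hx hxp => hD x hx hxp)
      -- the other side
      obtain ⟨l, hl⟩ : ∃ l : ℕ, n = k + l := ⟨n - k, by omega⟩
      have hs2 := hs.shift k
      have hwl : w ((l : ℤ) + k) = w 0 := by
        rw [← hn0]; congr 1; rw [hl]; push_cast; ring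
      have hwl0 : w (0 + (k : ℤ)) = w k := by
        rw [zero_add]
      obtain ⟨hp2, hset2⟩ := hs2.sub (k := l) (by omega) (by omega) (by
        rw [hwl, hwl0, polySet_shift w]
        intro x hx hxp
        rw [segment_symm] at hx
        exact (hD x hx hxp).symm)
      rw [hwl, hwl0, arcSet_shift, segment_symm] at hset2
      have hlk : (0 : ℤ) + k = k := zero_add _
      have hlk2 : (l : ℤ) + k = n := by rw [hl]; push_cast; ring
      rw [hlk, hlk2] at hset2
      have hne : w 0 ≠ w k := by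
        intro h'
        have := dvd_small (hs.inj _ _ h') (by omega) (by omega)
        omega
      have hpoly : arcSet w 0 k ∪ arcSet w k n = polySet w := by
        rw [arcSet_union (by omega) (by omega), hs.polySet_eq 0, zero_add]
      have hint : arcSet w 0 k ∩ arcSet w k n = {w 0, w k} := hs.arc_inter (by omega) (by omega)
      have hm0 : w 0 ∈ arcSet w 0 k ∩ arcSet w k n := by rw [hint]; simp
      have hmk : w k ∈ arcSet w 0 k ∩ arcSet w k n := by rw [hint]; simp
      have hE1D : arcSet w 0 k ∩ D = {w 0, w k} := by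
        apply Subset.antisymm
        · rintro x ⟨hx, hxD⟩
          exact hD x hxD (by rw [← hpoly]; exact Or.inl hx)
        · rintro x (rfl | rfl)
          · exact ⟨hm0.1, right_mem_segment ℝ _ _⟩
          · exact ⟨hmk.1, left_mem_segment ℝ _ _⟩
      have hE2D : arcSet w k n ∩ D = {w 0, w k} := by
        apply Subset.antisymm
        · rintro x ⟨hx, hxD⟩
          exact hD x hxD (by rw [← hpoly]; exact Or.inr hx)
        · rintro x (rfl | rfl)
          · exact ⟨hm0.2, right_mem_segment ℝ _ _⟩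
          · exact ⟨hmk.2, left_mem_segment ℝ _ _⟩
      have hc1 : IsPreconnected (arcSet w 0 k \ {w 0, w k}) :=
        hs.isPreconnected_arc (by omega) (by omega)
      have hc2 : IsPreconnected (arcSet w k n \ {w 0, w k}) := by
        have := hs.isPreconnected_arc (a := k) (b := n) (by omega) (by omega)
        rwa [hn0, pair_comm] at this
      have hcD : IsPreconnected (D \ {w 0, w k}) := by
        refine isPreconnected_segment_diff hne.symm ?_
        rintro z (rfl | rfl) _
        · exact Or.inr rfl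
        · exact Or.inl rfl
      have hstd1 : StdS (arcSet w 0 k) D :=
        (ih (k + 1) (by omega) _ hp1).pair_real hne (by rw [hset1]) hE1D hc1 hcD
      have hstd2 : StdS (arcSet w k n) D :=
        (ih (l + 1) (by omega) _ hp2).pair_real hne (by rw [hset2]) hE2D hc2 hcD
      have := (hstd1.cut polyNorm_real hstd2 (by rw [hint, hE1D]) (by rw [hE2D, hE1D])).stdC
      rwa [hpoly] at this

end Crest.Agent.R096.Pl
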