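import Crest.Agent.R096.Cb2_609
import Crest.Agent.R096.PlSch_296

/-!
# R096 (row 96), CE3 ball calculus, part 3: the bridge to 296's models; marks on a circle
(helper609)

* `ballPair_model`: for every norm `F` whose unit ball is a PL ball, 296's double cone
  `({N1 ≤ 1}, Kp F, Km F, Eqt F)` is a ball pair; instances `F = ℝ`, `F = ℝ × ℝ`.
* `StdS.ballPair`, `StdC.isBall`: standard spheres bound balls.
* `two_marks`: two points of the boundary of a 2-ball cut it into two arcs.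
* `arc_unique`, `exists_compl_arc`: an arc in the boundary of a 2-ball has a complementary arc.
-/

set_option autoImplicit false

open Set Metric

namespace Crest.Agent.R096.Cb_609

open Ce_537 Pl

section Bridge

variable {F : Type*} [NormedAddCommGroup F] [NormedSpace ℝ F] [FiniteDimensional ℝ F] {n : ℕ}

/-- 296's double cone is a ball pair as soon as the unit ball of `F` is a PL ball -/
theorem ballPair_model (hB : IsBall n (closedBall (0:F) 1) (sphere (0:F) 1)) :
    BallPair n {p : F × ℝ | N1 p ≤ 1} (Kp F) (Km F) (Eqt F) := by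
  obtain ⟨a, ha⟩ := hB
  have hsph : ∀ x ∈ sph n, ‖a.f x‖ = 1 := by
    intro x hx
    have : a.f x ∈ sphere (0:F) 1 := by rw [← ha]; exact ⟨x, hx, rfl⟩
    simpa using this
  -- the norm preserving homogeneous extension
  let c : (Fin n → ℝ) → F := Cx_609.cone a.f
  have hcpl : PLOn c univ := Cx_609.plOn_iff.1
    (Cx_609.PLOn.cone (Cx_609.plOn_iff.2 (a.pf.mono sph_subset_cube)))
  have hnorm : ∀ x, ‖c x‖ = ‖x‖ := by
    intro x
    by_cases hx : x = 0
    · rw [hx]; simp [c, Cx_609.cone_zero]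
    · show ‖‖x‖ • a.f (‖x‖⁻¹ • x)‖ = ‖x‖
      rw [norm_smul, hsph _ (Cx_609.norm_smul_inv hx), norm_norm, mul_one]
  have hinj : Function.Injective c := by
    intro x y e
    have hn : ‖x‖ = ‖y‖ := by rw [← hnorm x, e, hnorm y]
    by_cases hx : x = 0
    · rw [hx, norm_zero] at hn
      rw [hx, norm_eq_zero.1 hn.symm]
    · have hy : y ≠ 0 := by
        intro h; rw [h, norm_zero] at hn; exact hx (norm_eq_zero.1 hn)
      have h0 : ‖x‖ ≠ 0 := norm_ne_zero_iff.2 hx
      have e' : ‖x‖ • a.f (‖x‖⁻¹ • x) = ‖x‖ • a.f (‖x‖⁻¹ • y) := by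
        have e2 : ‖x‖ • a.f (‖x‖⁻¹ • x) = ‖y‖ • a.f (‖y‖⁻¹ • y) := e
        rwa [← hn] at e2
      have e3 := smul_right_injective F h0 e'
      have e4 := a.injOn (sph_subset_cube (Cx_609.norm_smul_inv hx))
        (sph_subset_cube (by rw [hn]; exact Cx_609.norm_smul_inv hy)) e3
      exact smul_right_injective _ (inv_ne_zero h0) e4
  have hsurj : ∀ y : F, ∃ x, c x = y := by
    intro y
    by_cases hy : y = 0
    · exact ⟨0, by rw [hy]; exact Cx_609.cone_zero _⟩
    · have hyn : ‖y‖ ≠ 0 := norm_ne_zero_iff.2 hy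
      have h1 : ‖y‖⁻¹ • y ∈ sphere (0:F) 1 := by
        rw [mem_sphere_zero_iff_norm, norm_smul, norm_inv, norm_norm]
        exact inv_mul_cancel₀ hyn
      rw [← ha] at h1
      obtain ⟨z, hz, e⟩ := h1
      refine ⟨‖y‖ • z, ?_⟩
      show Cx_609.cone a.f (‖y‖ • z) = y
      rw [Cx_609.cone_smul _ (norm_nonneg y), Cx_609.cone_of_sphere _ hz, e, smul_smul,
        mul_inv_cancel₀ hyn, one_smul]
  let ψ : (Fin n → ℝ) × ℝ → F × ℝ := fun p => (c p.1, p.2)
  have hψ : PLOn ψ {p : (Fin n → ℝ) × ℝ | N1 p ≤ 1} :=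
    (PLOn_prodMap hcpl (plOn_id (univ : Set ℝ))).mono (fun p _ => ⟨mem_univ _, mem_univ _⟩)
  have hψi : InjOn ψ {p : (Fin n → ℝ) × ℝ | N1 p ≤ 1} := by
    intro p _ q _ e
    have e1 : (ψ p).1 = (ψ q).1 := congrArg Prod.fst e
    have e2 : (ψ p).2 = (ψ q).2 := congrArg Prod.snd e
    exact Prod.ext (hinj e1) e2
  have hN : ∀ p, N1 (ψ p) = N1 p := fun p => by simp only [N1, ψ, hnorm]
  have h := (ballPair_dbl n).image_injOn hψ hψi
  have img : ∀ (A : Set ((Fin n → ℝ) × ℝ)) (B : Set (F × ℝ)), (∀ p, ψ p ∈ B ↔ p ∈ A) →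
      ψ '' A = B := by
    intro A B hAB
    ext q
    constructor
    · rintro ⟨p, hp, rfl⟩; exact (hAB p).2 hp
    · intro hq
      obtain ⟨x, hx⟩ := hsurj q.1
      have e : ψ (x, q.2) = q := Prod.ext hx rfl
      exact ⟨(x, q.2), (hAB _).1 (by rw [e]; exact hq), e⟩
  rw [img _ {p : F × ℝ | N1 p ≤ 1} (fun p => by simp only [mem_ofPred_eq, hN]),
    img _ (Kp F) (fun p => by simp only [Kp, mem_ofPred_eq, hN]; rfl),
    img _ (Km F) (fun p => by simp only [Km, mem_ofPred_eq, hN]; rfl),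
    img _ (Eqt F) (fun p => by simp only [Eqt, mem_ofPred_eq, ψ, hnorm])] at h
  exact h

theorem norm_fin_one (x : Fin 1 → ℝ) : ‖x‖ = |x 0| := by
  rw [← Real.norm_eq_abs]
  apply le_antisymm
  · rw [pi_norm_le_iff_of_nonneg (norm_nonneg _)]
    intro i; rw [Subsingleton.elim i 0]
  · exact norm_le_pi_norm x 0

theorem isBall_real : IsBall 1 (closedBall (0:ℝ) 1) (sphere (0:ℝ) 1) := by
  let L : (Fin 1 → ℝ) ≃ₗ[ℝ] ℝ := LinearEquiv.funUnique (Fin 1) ℝ ℝ
  have hL : ∀ x, L x = x 0 := fun x => rfl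
  let e : PLEquiv (cube 1) (closedBall (0:ℝ) 1) := ofLin L (fun x => by
    rw [hL, mem_closedBall, dist_zero_right, mem_closedBall, dist_zero_right, norm_fin_one]
    rfl)
  refine ⟨e, ?_⟩
  ext y
  constructor
  · rintro ⟨x, hx, rfl⟩
    rw [mem_sphere, dist_zero_right, norm_fin_one] at hx
    rw [mem_sphere, dist_zero_right]
    exact hx
  · intro hy
    refine ⟨fun _ => y, ?_, rfl⟩
    rw [mem_sphere, dist_zero_right] at hy ⊢
    rw [norm_fin_one]; exact hy

omit [FiniteDimensional ℝ F] in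
theorem isBall_closedBall_prod {F' : Type*} [NormedAddCommGroup F'] [NormedSpace ℝ F'] {m : ℕ}
    (h : IsBall n (closedBall (0:F) 1) (sphere (0:F) 1))
    (h' : IsBall m (closedBall (0:F') 1) (sphere (0:F') 1)) :
    IsBall (n + m) (closedBall (0 : F × F') 1) (sphere (0 : F × F') 1) := by
  have h1 := h.prod h'
  rw [closedBall_prod_same] at h1
  rw [sphere_prod]
  exact h1

theorem isBall_real2 : IsBall 2 (closedBall (0:ℝ × ℝ) 1) (sphere (0:ℝ × ℝ) 1) :=
  isBall_closedBall_prod isBall_real isBall_real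

theorem ballPair_real : BallPair 1 {p : ℝ × ℝ | N1 p ≤ 1} (Kp ℝ) (Km ℝ) (Eqt ℝ) :=
  ballPair_model isBall_real

theorem ballPair_real2 :
    BallPair 2 {p : (ℝ × ℝ) × ℝ | N1 p ≤ 1} (Kp (ℝ × ℝ)) (Km (ℝ × ℝ)) (Eqt (ℝ × ℝ)) :=
  ballPair_model isBall_real2

theorem BallPair.plh {V W : Type*} [NormedAddCommGroup V] [NormedSpace ℝ V]
    [NormedAddCommGroup W] [NormedSpace ℝ W] {X M T Q : Set V} (h : BallPair n X M T Q)
    {H : V ≃ₜ W} (hH : PLH H) : BallPair n (H '' X) (H '' M) (H '' T) (H '' Q) :=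
  h.map (ofPLH hH X)

/-- a standard pair bounds a ball -/
theorem ballPair_of_stdS (hB : IsBall n (closedBall (0:F) 1) (sphere (0:F) 1))
    {E₁ E₂ : Set (F × ℝ)} (h : StdS E₁ E₂) : ∃ B, BallPair n B E₁ E₂ (E₁ ∩ E₂) := by
  obtain ⟨H, hH, h1, h2⟩ := h
  refine ⟨H '' {p | N1 p ≤ 1}, ?_⟩
  have h := (ballPair_model hB).plh hH
  rwa [h1, h2, StdS.inter h1 h2] at h

/-- the closed inside of a standard sphere is a ball -/
theorem isBall_of_stdC (hB : IsBall n (closedBall (0:F) 1) (sphere (0:F) 1))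
    {S : Set (F × ℝ)} {H : (F × ℝ) ≃ₜ (F × ℝ)} (hH : PLH H) (h : H '' S1 F = S) :
    IsBall (n + 1) (H '' {p | N1 p ≤ 1}) S := by
  have h1 := (ballPair_model hB).ball.plh hH
  rwa [Kp_union_Km, h] at h1

theorem stdC_isBall_real {S : Set (ℝ × ℝ)} (h : StdC S) : ∃ B, IsBall 2 B S := by
  obtain ⟨H, hH, h1⟩ := h
  exact ⟨_, isBall_of_stdC isBall_real hH h1⟩

theorem stdC_isBall_real2 {S : Set ((ℝ × ℝ) × ℝ)} (h : StdC S) : ∃ B, IsBall 3 B S := by
  obtain ⟨H, hH, h1⟩ := h
  exact ⟨_, isBall_of_stdC isBall_real2 hH h1⟩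

end Bridge

/-! ### connectedness -/

section Conn

variable {E : Type*} [NormedAddCommGroup E] [NormedSpace ℝ E] {k : ℕ}

theorem diff_eq_image {K dK : Set E} (e : PLEquiv (cube k) K) (he : e.f '' sph k = dK) :
    K \ dK = e.f '' ball 0 1 := by
  ext y
  constructor
  · rintro ⟨hy, hny⟩
    rw [← e.image_eq] at hy
    obtain ⟨x, hx, rfl⟩ := hy
    refine ⟨x, ?_, rfl⟩
    rw [mem_closedBall] at hx
    rcases hx.lt_or_eq with h | h
    · exact h
    · exact absurd (he ▸ ⟨x, h, rfl⟩) hny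
  · rintro ⟨x, hx, rfl⟩
    refine ⟨e.mf (ball_subset_closedBall hx), ?_⟩
    rw [← he]
    rintro ⟨z, hz, h⟩
    have := e.injOn (sph_subset_cube hz) (ball_subset_closedBall hx) h
    rw [this] at hz
    rw [mem_sphere] at hz
    rw [mem_ball] at hx
    linarith

theorem _root_.Crest.Agent.R096.Ce_537.IsBall.isPreconnected {K dK : Set E}
    (h : IsBall k K dK) : IsPreconnected K := by
  obtain ⟨e, -⟩ := h
  rw [← e.image_eq]
  exact (convex_closedBall (0 : Fin k → ℝ) 1).isPreconnected.image _ e.pf.1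

theorem _root_.Crest.Agent.R096.Ce_537.IsBall.isPreconnected_diff {K dK : Set E}
    (h : IsBall k K dK) : IsPreconnected (K \ dK) := by
  obtain ⟨e, he⟩ := h
  rw [diff_eq_image e he]
  exact (convex_ball (0 : Fin k → ℝ) 1).isPreconnected.image _
    (e.pf.1.mono ball_subset_closedBall)

theorem _root_.Crest.Agent.R096.Ce_537.IsBall.nonempty_diff {K dK : Set E}
    (h : IsBall k K dK) : (K \ dK).Nonempty := by
  obtain ⟨e, he⟩ := h
  rw [diff_eq_image e he]
  exact ⟨_, 0, by simp, rfl⟩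

/-- the interior is dense in a ball -/
theorem _root_.Crest.Agent.R096.Ce_537.IsBall.closure_diff {K dK : Set E}
    (h : IsBall k K dK) : closure (K \ dK) = K := by
  apply Subset.antisymm
  · exact closure_minimal sdiff_subset h.isClosed
  · obtain ⟨e, he⟩ := h
    rw [diff_eq_image e he]
    intro y hy
    rw [← e.image_eq] at hy
    obtain ⟨x, hx, rfl⟩ := hy
    have hx' : x ∈ closure (ball (0 : Fin k → ℝ) 1) := by
      rw [closure_ball _ one_ne_zero]; exact hx
    have h1 : ContinuousWithinAt e.f (ball 0 1) x := (e.pf.1 x hx).mono ball_subset_closedBall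
    exact h1.mem_closure_image hx'

end Conn

/-! ### arcs -/

section Arc

variable {E : Type*} [NormedAddCommGroup E] [NormedSpace ℝ E]

theorem sph_one : sph 1 = {fun _ => (-1:ℝ), fun _ => (1:ℝ)} := by
  ext x
  rw [mem_sphere, dist_zero_right, norm_fin_one, abs_eq zero_le_one]
  constructor
  · rintro (h | h)
    · right; ext i; rw [Subsingleton.elim i 0]; exact h
    · left; ext i; rw [Subsingleton.elim i 0]; exact h
  · rintro (rfl | rfl)
    · right; rfl
    · left; rfl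

/-- the end points of an arc are different -/
theorem arc_ne {A : Set E} {p q : E} (h : IsBall 1 A {p, q}) : p ≠ q := by
  rintro rfl
  obtain ⟨e, he⟩ := h
  have h1 : e.f (fun _ => (-1:ℝ)) = p := by
    have : e.f (fun _ => (-1:ℝ)) ∈ ({p, p} : Set E) := by
      rw [← he]; exact ⟨_, by rw [sph_one]; simp, rfl⟩
    simpa using this
  have h2 : e.f (fun _ => (1:ℝ)) = p := by
    have : e.f (fun _ => (1:ℝ)) ∈ ({p, p} : Set E) := by
      rw [← he]; exact ⟨_, by rw [sph_one]; simp, rfl⟩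
    simpa using this
  have h3 := e.injOn (sph_subset_cube (by rw [sph_one]; simp))
    (sph_subset_cube (by rw [sph_one]; simp)) (h1.trans h2.symm)
  have := congrFun h3 0
  norm_num at this

/-- arcs as ball pairs -/
theorem arc_pair {A : Set E} {p q : E} (h : IsBall 1 A {p, q}) : BallPair 0 A {p} {q} ∅ where
  ball := by
    have : ({p} : Set E) ∪ {q} = {p, q} := rfl
    rw [this]; exact h
  ball₁ := isBall_point p
  ball₂ := isBall_point q
  inter := by
    rw [singleton_inter_eq_empty]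
    exact arc_ne h

/-- concatenation of arcs -/
theorem arc_glue {A B : Set E} {p q r : E} (hA : IsBall 1 A {p, q}) (hB : IsBall 1 B {q, r})
    (h : A ∩ B = {q}) : IsBall 1 (A ∪ B) {p, r} :=
  ((arc_pair hA).symm.glue (arc_pair hB) h).ball

/-- chains of arcs -/
theorem arc_chain {A : ℕ → Set E} {v : ℕ → E} {n : ℕ}
    (hA : ∀ i ≤ n, IsBall 1 (A i) {v i, v (i + 1)})
    (h1 : ∀ i < n, A i ∩ A (i + 1) = {v (i + 1)})
    (h2 : ∀ i j, i + 1 < j → j ≤ n → Disjoint (A i) (A j)) :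
    IsBall 1 (⋃ i ∈ Finset.range (n + 1), A i) {v 0, v (n + 1)} := by
  induction n with
  | zero => simpa using hA 0 le_rfl
  | succ n ih =>
    have h3 := ih (fun i hi => hA i (hi.trans (Nat.le_succ n))) (fun i hi => h1 i (by omega))
      (fun i j hij hj => h2 i j hij (hj.trans (Nat.le_succ n)))
    have h4 := arc_glue h3 (hA (n + 1) le_rfl) (by
      ext x
      constructor
      · rintro ⟨hx, hx'⟩
        obtain ⟨i, hi, hxi⟩ := mem_iUnion₂.1 hx
        have hi' : i ≤ n := by have := Finset.mem_range.1 hi; omega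
        rcases hi'.lt_or_eq with h | rfl
        · exact absurd hx' (Set.disjoint_left.1 (h2 i (n + 1) (by omega) le_rfl) hxi)
        · rw [← h1 i (Nat.lt_succ_self i)]; exact ⟨hxi, hx'⟩
      · intro hx
        rw [← h1 n (Nat.lt_succ_self n)] at hx
        exact ⟨mem_biUnion (Finset.mem_coe.2 (Finset.self_mem_range_succ n)) hx.1, hx.2⟩)
    rw [Finset.range_add_one, Finset.set_biUnion_insert, union_comm]
    exact h4

/-- a connected subset of an arc containing both end points is the arc -/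
theorem arc_eq_of_preconnected {A B : Set E} {p q : E} (h : IsBall 1 A {p, q}) (hB : B ⊆ A)
    (hc : IsPreconnected B) (hp : p ∈ B) (hq : q ∈ B) : B = A := by
  apply Subset.antisymm hB
  obtain ⟨e, he⟩ := h
  -- pull back to `ℝ`
  have hc1 : IsPreconnected ((fun y => e.g y 0) '' B) :=
    hc.image _ ((continuous_apply 0).comp_continuousOn (e.pg.1.mono hB))
  have hmem : ∀ s : ℝ, (s = -1 ∨ s = 1) → s ∈ (fun y => e.g y 0) '' B := by
    intro s hs
    have h1 : e.f (fun _ => s) ∈ ({p, q} : Set E) := by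
      rw [← he]; refine ⟨_, ?_, rfl⟩
      rw [sph_one]
      rcases hs with rfl | rfl <;> simp
    have h2 : e.f (fun _ => s) ∈ B := by
      rcases h1 with h1 | h1
      · rw [h1]; exact hp
      · rw [mem_singleton_iff.1 h1]; exact hq
    refine ⟨_, h2, ?_⟩
    have : (fun _ => s) ∈ sph 1 := by
      rw [sph_one]
      rcases hs with rfl | rfl <;> simp
    simp only [e.li _ (sph_subset_cube this)]
  have hord := hc1.ordConnected
  intro y hy
  have hg := e.mg hy
  rw [mem_closedBall, dist_zero_right, norm_fin_one, abs_le] at hg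
  obtain ⟨z, hz, ez⟩ := hord.out (hmem (-1) (Or.inl rfl)) (hmem 1 (Or.inr rfl)) ⟨hg.1, hg.2⟩
  have e1 : e.g z = e.g y := by
    ext i; rw [Subsingleton.elim i 0]; exact ez
  have e2 : z = y := by rw [← e.ri z (hB hz), e1, e.ri y hy]
  rw [← e2]; exact hz

/-- **two points of the boundary of a 2-ball cut it into two arcs** -/
theorem two_marks {K S : Set E} {p q : E} (h : IsBall 2 K S) (hp : p ∈ S) (hq : q ∈ S)
    (hne : p ≠ q) : ∃ A B, BallPair 1 K A B {p, q} ∧ A ∪ B = S := by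
  have hm := ballPair_real.ball
  rw [Kp_union_Km] at hm
  obtain ⟨e, he, -⟩ := hm.exists_equiv h
  rw [← he] at hp hq
  obtain ⟨p', hp', rfl⟩ := hp
  obtain ⟨q', hq', rfl⟩ := hq
  have hne' : p' ≠ q' := fun h => hne (by rw [h])
  obtain ⟨M, hM, hMS, h1, h2⟩ := mk_all hp' hq' hne'
  -- the closed ball is preserved by `M⁻¹`: we only use the boundary and cone again
  have hMs : M.symm '' S1 ℝ = S1 ℝ := by
    nth_rewrite 1 [← hMS]
    exact symm_image_image' M (S1 ℝ)
  -- PL self equivalence of the boundary, extended to the ball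
  let r : PLEquiv (S1 ℝ) (S1 ℝ) := (ofPLH hM.symm (S1 ℝ)).restr Subset.rfl
    (by rw [hMs]) (fun x hx => by rw [← hMs]; exact ⟨x, hx, rfl⟩)
    (fun x hx => by
      show M x ∈ S1 ℝ
      rw [← hMS]; exact ⟨x, hx, rfl⟩)
  obtain ⟨r', hr1, hr2⟩ := hm.extend hm r
  have hP := (ballPair_real.map r').map e
  have ha : r'.f '' Kp ℝ ∪ r'.f '' Km ℝ = S1 ℝ := by
    rw [← image_union, Kp_union_Km, image_congr hr1, r.image_eq]
  have hpt : r'.f '' Eqt ℝ = {p', q'} := by
    have h3 : r'.f '' Eqt ℝ = M.symm '' Eqt ℝ := image_congr fun x hx => hr1 (Eqt_subset_S1 hx)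
    rw [h3, Eqt_real, image_pair, ← h1, ← h2, M.symm_apply_apply, M.symm_apply_apply]
  refine ⟨e.f '' (r'.f '' Kp ℝ), e.f '' (r'.f '' Km ℝ), ?_, ?_⟩
  · rw [hpt, image_pair] at hP
    exact hP
  · rw [← image_union, ha, he]

/-- **arcs in a circle**: an arc in the boundary circle of a 2-ball has a complementary arc -/
theorem exists_compl_arc {K S A : Set E} {p q : E} (h : IsBall 2 K S) (hA : IsBall 1 A {p, q})
    (hAS : A ⊆ S) : ∃ B, BallPair 1 K A B {p, q} ∧ A ∪ B = S := by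
  have hpA : p ∈ A := hA.subset (by simp)
  have hqA : q ∈ A := hA.subset (by simp)
  obtain ⟨A₁, B₁, h1, h2⟩ := two_marks h (hAS hpA) (hAS hqA) (arc_ne hA)
  have key : ∀ {A₁ B₁ : Set E}, BallPair 1 K A₁ B₁ {p, q} → A₁ ∪ B₁ = S → A \ {p, q} ⊆ A₁ →
      A = A₁ := by
    intro A₁ B₁ h1 h2 h3
    refine arc_eq_of_preconnected h1.ball₁ ?_ hA.isPreconnected hpA hqA
    intro x hx
    by_cases hx' : x ∈ ({p, q} : Set E)
    · exact h1.ball₁.subset hx'
    · exact h3 ⟨hx, hx'⟩
  have hcov : A \ {p, q} ⊆ A₁ ∪ B₁ := by rw [h2]; exact sdiff_subset.trans hAS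
  have hpre := hA.isPreconnected_diff
  have hdis : (A \ {p, q}) ∩ (A₁ ∩ B₁) = ∅ := by
    rw [h1.inter]
    ext x
    constructor
    · rintro ⟨⟨-, h3⟩, h4⟩; exact h3 h4
    · simp
  rcases isPreconnected_closed_iff.1 hpre A₁ B₁ h1.ball₁.isClosed h1.ball₂.isClosed hcov with h3
  by_cases c1 : ((A \ {p, q}) ∩ A₁).Nonempty
  · by_cases c2 : ((A \ {p, q}) ∩ B₁).Nonempty
    · have := h3 c1 c2
      rw [hdis] at this
      exact absurd this (by simp)
    · have h4 : A \ {p, q} ⊆ A₁ := by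
        intro x hx
        rcases hcov hx with h5 | h5
        · exact h5
        · exact absurd ⟨x, hx, h5⟩ c2
      have e := key h1 h2 h4
      rw [e]
      exact ⟨B₁, h1, h2⟩
  · have h4 : A \ {p, q} ⊆ B₁ := by
      intro x hx
      rcases hcov hx with h5 | h5
      · exact absurd ⟨x, hx, h5⟩ c1
      · exact h5
    have e := key h1.symm (by rw [union_comm]; exact h2) h4
    rw [e]
    exact ⟨A₁, h1.symm, by rw [union_comm]; exact h2⟩

/-- **gluing of 2-balls along an arc** -/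
theorem glue_disc {K₁ K₂ S₁ S₂ D : Set E} {p q : E} (h₁ : IsBall 2 K₁ S₁) (h₂ : IsBall 2 K₂ S₂)
    (hD : IsBall 1 D {p, q}) (hD1 : D ⊆ S₁) (hD2 : D ⊆ S₂) (hK : K₁ ∩ K₂ = D) :
    ∃ D₁ D₂, BallPair 1 (K₁ ∪ K₂) D₁ D₂ {p, q} ∧ D ∪ D₁ = S₁ ∧ D ∪ D₂ = S₂ ∧
      D ∩ D₁ = {p, q} ∧ D ∩ D₂ = {p, q} := by
  obtain ⟨D₁, a1, a2⟩ := exists_compl_arc h₁ hD hD1
  obtain ⟨D₂, b1, b2⟩ := exists_compl_arc h₂ hD hD2
  exact ⟨D₁, D₂, a1.glue b1 hK, a2, b2, a1.inter, b1.inter⟩

end Arc

end Crest.Agent.R096.Cb_609
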