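import Crest.Agent.R096.Lm1_812
import Crest.Agent.R096.Cb3_609
import Crest.Agent.R096.Msh1_715

/-!
# The local move, cell form (helper812, row 96, 2SK)

`cell_move`: a disc `Fc` in a flat face `Q` of a convex cell `P`, a disc `D` in `P` with the same
rim meeting the boundary of `P` only in the rim; then a PL homeomorphism, the identity off a compact
subset of `U ⊇ interior P ∪ Fc`, maps `Q` onto `(Q \ Fc) ∪ D`.
`exists_cell`: a disc whose inside misses all the boundaries of the cells lies in one cell.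
-/

namespace Crest.Agent.R096.Lm_812

open Set Metric Crest.Agent.R096.Pl Crest.Agent.R096.Ce_537

section Convex

variable {E : Type*} [NormedAddCommGroup E] [NormedSpace ℝ E]

/-- the closed inside of a sphere lying in a closed convex set lies in this set -/
theorem subset_of_sphere {K S P : Set E} (hK : IsCompact K) (hop : IsOpen (K \ S)) (hS : S ⊆ P)
    (hP : Convex ℝ P) (hPc : IsClosed P) (hPn : P.Nonempty) : K ⊆ P := by
  intro x hx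
  by_contra hxP
  obtain ⟨f, u, hu, hux⟩ := geometric_hahn_banach_closed_point hP hPc hxP
  obtain ⟨y, hyK, hy⟩ := hK.exists_isMaxOn ⟨x, hx⟩ f.continuous.continuousOn
  have hxy : f x ≤ f y := hy hx
  obtain ⟨a, ha⟩ := hPn
  have hyW : y ∈ K \ S := ⟨hyK, fun h => by have := hu y (hS h); linarith⟩
  have hcont : ContinuousAt (fun t : ℝ => y + t • (x - a)) 0 := by fun_prop
  have hev : ∀ᶠ t in nhds (0 : ℝ), y + t • (x - a) ∈ K \ S := by
    refine hcont.eventually_mem (hop.mem_nhds ?_)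
    simpa using hyW
  obtain ⟨r, hr, hr'⟩ := Metric.eventually_nhds_iff.1 hev
  have h1 : y + (r / 2) • (x - a) ∈ K \ S := hr' (by
    rw [Real.dist_eq, sub_zero, abs_of_pos (by positivity)]; linarith)
  have h2 : f (y + (r / 2) • (x - a)) ≤ f y := hy h1.1
  rw [map_add, map_smul, map_sub, smul_eq_mul] at h2
  have h3 : f a < f x := (hu a ha).trans hux
  have h4 : 0 < r / 2 * (f x - f a) := by
    apply mul_pos (by positivity); linarith
  linarith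

/-- a disc whose inside lies in the union of disjoint open sets lies in the closure of one -/
theorem exists_cell {k : ℕ} {ι : Type*} {D Γ : Set E} (hD : IsBall k D Γ) {I : ι → Set E}
    (hI : ∀ i, IsOpen (I i)) (hdis : ∀ i j, i ≠ j → Disjoint (I i) (I j))
    (hsub : D \ Γ ⊆ ⋃ i, I i) : ∃ i, D \ Γ ⊆ I i ∧ D ⊆ closure (I i) := by
  obtain ⟨x, hx⟩ := hD.nonempty_diff
  obtain ⟨i, hi⟩ := mem_iUnion.1 (hsub hx)
  have h : D \ Γ ⊆ I i := by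
    refine hD.isPreconnected_diff.subset_left_of_subset_union (hI i)
      (isOpen_iUnion fun j : {j // j ≠ i} => hI j) ?_ ?_ ⟨x, hx, hi⟩
    · rw [disjoint_iUnion_right]
      exact fun j => hdis i j (Ne.symm j.2)
    · intro y hy
      obtain ⟨j, hj⟩ := mem_iUnion.1 (hsub hy)
      by_cases hji : j = i
      · left; rw [← hji]; exact hj
      · right; exact mem_iUnion.2 ⟨⟨j, hji⟩, hj⟩
  refine ⟨i, h, ?_⟩
  rw [← hD.closure_diff]
  exact closure_mono h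

end Convex

variable {F : Type*} [NormedAddCommGroup F] [NormedSpace ℝ F]

/-- **the local move, cell form**, the identity near the points of `Q \ Fc` -/
theorem cell_move_near (hF : PolyNorm F) [FiniteDimensional ℝ F] [Nontrivial F]
    {P Q Γ Fc D U : Set (F × ℝ)} (hPc : Convex ℝ P) (hPk : IsClosed P) (hQ : VP Q)
    (hQP : Q ⊆ frontier P) (hFcQ : Fc ⊆ Q) (hrel : ∃ O, IsOpen O ∧ O ∩ Q = Fc \ Γ)
    (hDP : D ⊆ P) (hΓF : Γ ⊆ Fc) (hΓD : Γ ⊆ D) (hDf : D ∩ frontier P ⊆ Γ)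
    (hS : StdS Fc D) (hU : IsOpen U) (hPU : interior P ⊆ U) (hFU : Fc ⊆ U) :
    ∃ ψ : (F × ℝ) ≃ₜ (F × ℝ), PLH ψ ∧ (∃ C ⊆ U, IsCompact C ∧ ∀ x ∉ C, ψ x = x) ∧
      (∀ x ∈ Q \ Fc, ∀ᶠ y in nhds x, ψ y = y) ∧ ψ '' Fc = D ∧ ψ '' Q = (Q \ Fc) ∪ D ∧ ∀ x ∈ Γ, ψ x = x := by
  have hQf : ∀ x ∈ Q, x ∉ interior P := fun x hx => (hQP hx).2
  obtain ⟨H, hH, h1, h2⟩ := id hS
  have hS1 : H '' S1 F = Fc ∪ D := by rw [← Kp_union_Km, image_union, h1, h2]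
  have hball : IsCompact {p : F × ℝ | N1 p ≤ 1} := by
    refine Metric.isCompact_of_isClosed_isBounded (isClosed_le N1_continuous continuous_const) ?_
    refine (Metric.isBounded_closedBall (x := (0 : F × ℝ)) (r := 1)).subset fun p hp => ?_
    rw [mem_closedBall, dist_zero_right]
    exact (norm_le_N1 p).trans hp
  set K : Set (F × ℝ) := H '' {p | N1 p ≤ 1} with hKdef
  have hKc : IsCompact K := hball.image H.continuous
  have hsub : Fc ∪ D ⊆ K := by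
    rw [← hS1]; exact image_mono fun p hp => le_of_eq hp
  have hKS : K \ (Fc ∪ D) = H '' {p | N1 p < 1} := by
    rw [← hS1, hKdef, ← image_sdiff H.injective]
    congr 1
    ext p
    simp only [mem_sdiff, mem_ofPred_eq, S1]
    exact ⟨fun h => lt_of_le_of_ne h.1 h.2, fun h => ⟨h.le, h.ne⟩⟩
  have hop : IsOpen (K \ (Fc ∪ D)) := by
    rw [hKS]; exact H.isOpenMap _ (isOpen_lt N1_continuous continuous_const)
  have hne : (K \ (Fc ∪ D)).Nonempty := by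
    rw [hKS]; exact ⟨_, 0, by simp [N1], rfl⟩
  have hFP : Fc ⊆ P := fun x hx => hPk.frontier_subset (hQP (hFcQ hx))
  have hPn : P.Nonempty := by
    obtain ⟨x, hx⟩ := hne
    by_contra hP
    rw [not_nonempty_iff_eq_empty] at hP
    have h3 : Fc ∪ D = ∅ := by
      rw [eq_empty_iff_forall_notMem]
      rintro y (h | h)
      · have := hFP h; rw [hP] at this; exact this
      · have := hDP h; rw [hP] at this; exact this
    rw [← hS1, image_eq_empty] at h3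
    obtain ⟨v, hv⟩ := exists_norm_eq F (c := (1 : ℝ)) zero_le_one
    have h4 : ((v, 0) : F × ℝ) ∈ S1 F := by simp [S1, N1, hv]
    rw [h3] at h4
    exact h4
  have hKP : K ⊆ P := subset_of_sphere hKc hop (union_subset hFP hDP) hPc hPk hPn
  have hWP : K \ (Fc ∪ D) ⊆ interior P := interior_maximal (sdiff_subset.trans hKP) hop
  have hKQ : Q ∩ K = Fc := by
    apply Subset.antisymm
    · rintro x ⟨hxQ, hxK⟩
      by_contra hxF
      have hxD : x ∉ D := fun h => hxF (hΓF (hDf ⟨h, hQP hxQ⟩))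
      exact hQf x hxQ (hWP ⟨hxK, by simp [hxF, hxD]⟩)
    · exact fun x hx => ⟨hFcQ hx, hsub (Or.inl hx)⟩
  have hKU : K ⊆ U := by
    intro x hx
    by_cases hxi : x ∈ interior P
    · exact hPU hxi
    · have hxf : x ∈ frontier P := ⟨subset_closure (hKP hx), hxi⟩
      by_cases hxF : x ∈ Fc
      · exact hFU hxF
      · have hxD : x ∉ D := fun h => hxF (hΓF (hDf ⟨h, hxf⟩))
        exact absurd (hWP ⟨hx, by simp [hxF, hxD]⟩) hxi
  have hFD : Fc ∩ D = Γ := by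
    apply Subset.antisymm
    · rintro x ⟨hxF, hxD⟩
      exact hDf ⟨hxD, hQP (hFcQ hxF)⟩
    · exact fun x hx => ⟨hΓF hx, hΓD hx⟩
  have hrel' : ∃ O, IsOpen O ∧ Fc \ D = Q ∩ O := by
    obtain ⟨O, hO, hOQ⟩ := hrel
    refine ⟨O, hO, ?_⟩
    rw [inter_comm Q O, hOQ]
    ext x
    constructor
    · rintro ⟨h, h'⟩
      exact ⟨h, fun hΓ => h' (hΓD hΓ)⟩
    · rintro ⟨h, h'⟩
      exact ⟨h, fun hD => h' (hFD ▸ ⟨h, hD⟩)⟩
  -- a compact neighbourhood of `K` in `U`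
  obtain ⟨C, hC, hKC, hCU⟩ := exists_compact_between hKc hU hKU
  obtain ⟨ψ, hψ, hψU, hψQ, hψF, hψΓ⟩ := exists_move_near hF hS hKc hsub hop hne
    (isOpen_interior (s := C)) hKC hQ hKQ hrel'
  refine ⟨ψ, hψ, ⟨C, hCU, hC, fun x hx => hψU x fun h => hx (interior_subset h)⟩, hψQ, hψF, ?_,
    fun x hx => hψΓ x (hFD ▸ hx)⟩
  have e : Q = (Q \ Fc) ∪ Fc := (sdiff_union_of_subset hFcQ).symm
  conv_lhs => rw [e]
  rw [image_union, hψF]
  congr 1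
  ext x
  constructor
  · rintro ⟨y, hy, rfl⟩
    rw [(hψQ y hy).self_of_nhds]; exact hy
  · intro hx
    exact ⟨x, hx, (hψQ x hx).self_of_nhds⟩

/-- **the local move, cell form** -/
theorem cell_move (hF : PolyNorm F) [FiniteDimensional ℝ F] [Nontrivial F]
    {P Q Γ Fc D U : Set (F × ℝ)} (hPc : Convex ℝ P) (hPk : IsClosed P) (hQ : VP Q)
    (hQP : Q ⊆ frontier P) (hFcQ : Fc ⊆ Q) (hrel : ∃ O, IsOpen O ∧ O ∩ Q = Fc \ Γ)
    (hDP : D ⊆ P) (hΓF : Γ ⊆ Fc) (hΓD : Γ ⊆ D) (hDf : D ∩ frontier P ⊆ Γ)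
    (hS : StdS Fc D) (hU : IsOpen U) (hPU : interior P ⊆ U) (hFU : Fc ⊆ U) :
    ∃ ψ : (F × ℝ) ≃ₜ (F × ℝ), PLH ψ ∧ (∃ C ⊆ U, IsCompact C ∧ ∀ x ∉ C, ψ x = x) ∧
      (∀ x ∈ Q \ Fc, ψ x = x) ∧ ψ '' Fc = D ∧ ψ '' Q = (Q \ Fc) ∪ D ∧ ∀ x ∈ Γ, ψ x = x := by
  obtain ⟨ψ, h1, h2, h3, h4⟩ :=
    cell_move_near hF hPc hPk hQ hQP hFcQ hrel hDP hΓF hΓD hDf hS hU hPU hFU
  exact ⟨ψ, h1, h2, fun x hx => (h3 x hx).self_of_nhds, h4⟩

/-- the space of the row, with the PL Schoenflies statement for two discs as hypothesis -/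
theorem disc_move_near
    (hP2 : ∀ A B Γ : Set ((ℝ × ℝ) × ℝ), IsBall 2 A Γ → IsBall 2 B Γ → A ∩ B = Γ → StdS A B)
    {P Q Γ Fc D U : Set ((ℝ × ℝ) × ℝ)} (hPc : Convex ℝ P) (hPk : IsClosed P) (hQ : VP Q)
    (hQP : Q ⊆ frontier P) (hFcQ : Fc ⊆ Q) (hrel : ∃ O, IsOpen O ∧ O ∩ Q = Fc \ Γ)
    (hFc : IsBall 2 Fc Γ) (hD : IsBall 2 D Γ) (hDi : D \ Γ ⊆ interior P)
    (hU : IsOpen U) (hPU : interior P ⊆ U) (hFU : Fc ⊆ U) :
    ∃ ψ : ((ℝ × ℝ) × ℝ) ≃ₜ ((ℝ × ℝ) × ℝ), PLH ψ ∧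
      (∃ C ⊆ U, IsCompact C ∧ ∀ x ∉ C, ψ x = x) ∧
      (∀ x ∈ Q \ Fc, ∀ᶠ y in nhds x, ψ y = y) ∧ ψ '' Fc = D ∧ ψ '' Q = (Q \ Fc) ∪ D ∧
      ∀ x ∈ Γ, ψ x = x := by
  have hDP : D ⊆ P := by
    rw [← hD.closure_diff]
    exact closure_minimal (hDi.trans interior_subset) hPk
  have hDf : D ∩ frontier P ⊆ Γ := by
    rintro x ⟨hxD, hxf⟩
    by_contra hx
    exact hxf.2 (hDi ⟨hxD, hx⟩)
  have hFD : Fc ∩ D = Γ := by
    apply Subset.antisymm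
    · rintro x ⟨hxF, hxD⟩
      exact hDf ⟨hxD, hQP (hFcQ hxF)⟩
    · exact fun x hx => ⟨hFc.subset hx, hD.subset hx⟩
  exact cell_move_near polyNorm_plane hPc hPk hQ hQP hFcQ hrel hDP hFc.subset hD.subset hDf
    (hP2 _ _ _ hFc hD hFD) hU hPU hFU

/-- `disc_move_near` without the neighbourhoods -/
theorem disc_move
    (hP2 : ∀ A B Γ : Set ((ℝ × ℝ) × ℝ), IsBall 2 A Γ → IsBall 2 B Γ → A ∩ B = Γ → StdS A B)
    {P Q Γ Fc D U : Set ((ℝ × ℝ) × ℝ)} (hPc : Convex ℝ P) (hPk : IsClosed P) (hQ : VP Q)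
    (hQP : Q ⊆ frontier P) (hFcQ : Fc ⊆ Q) (hrel : ∃ O, IsOpen O ∧ O ∩ Q = Fc \ Γ)
    (hFc : IsBall 2 Fc Γ) (hD : IsBall 2 D Γ) (hDi : D \ Γ ⊆ interior P)
    (hU : IsOpen U) (hPU : interior P ⊆ U) (hFU : Fc ⊆ U) :
    ∃ ψ : ((ℝ × ℝ) × ℝ) ≃ₜ ((ℝ × ℝ) × ℝ), PLH ψ ∧
      (∃ C ⊆ U, IsCompact C ∧ ∀ x ∉ C, ψ x = x) ∧
      (∀ x ∈ Q \ Fc, ψ x = x) ∧ ψ '' Fc = D ∧ ψ '' Q = (Q \ Fc) ∪ D ∧ ∀ x ∈ Γ, ψ x = x := by
  obtain ⟨ψ, h1, h2, h3, h4⟩ := disc_move_near hP2 hPc hPk hQ hQP hFcQ hrel hFc hD hDi hU hPU hFU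
  exact ⟨ψ, h1, h2, fun x hx => (h3 x hx).self_of_nhds, h4⟩

end Crest.Agent.R096.Lm_812
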