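import Crest.Agent.R096.Msh2_715

/-!
# R096 (row 96), MESH-REFINE, part 1: cutting the tiles of a tiling by hyperplanes (helper715)

`T.refine HH h0`: every tile `i` is cut by its own finite set `HH i` of hyperplanes.
-/

set_option autoImplicit false

open Set Metric Filter Topology Module
open scoped Classical

namespace Crest.Agent.R096.Msh_715

variable {E : Type*} [NormedAddCommGroup E] [NormedSpace ℝ E]

/-- the opposite half space -/
def opp (h : (E →L[ℝ] ℝ) × ℝ) : (E →L[ℝ] ℝ) × ℝ := (-h.1, -h.2)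

@[simp] theorem opp_fst (h : (E →L[ℝ] ℝ) × ℝ) (y : E) : (opp h).1 y = -h.1 y := rfl
@[simp] theorem opp_snd (h : (E →L[ℝ] ℝ) × ℝ) : (opp h).2 = -h.2 := rfl

/-- the complement of finitely many hyperplanes is dense -/
theorem dense_ne {F : Finset ((E →L[ℝ] ℝ) × ℝ)} (h0 : ∀ h ∈ F, h.1 ≠ 0) :
    Dense {y : E | ∀ h ∈ F, h.1 y ≠ h.2} := by
  have one : ∀ h : (E →L[ℝ] ℝ) × ℝ, h.1 ≠ 0 → IsOpen {y : E | h.1 y ≠ h.2} ∧
      Dense {y : E | h.1 y ≠ h.2} := by
    intro h hh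
    refine ⟨isOpen_ne_fun h.1.continuous continuous_const, ?_⟩
    rw [Metric.dense_iff]
    intro x r hr
    by_cases hx : h.1 x ≠ h.2
    · exact ⟨x, mem_ball_self hr, hx⟩
    · push Not at hx
      obtain ⟨v, hv⟩ : ∃ v, h.1 v ≠ 0 := by
        by_contra hcon
        push Not at hcon
        exact hh (ContinuousLinearMap.ext hcon)
      refine ⟨x + (r / (2 * (‖v‖ + 1))) • v, ?_, ?_⟩
      · rw [mem_ball, dist_eq_norm, add_sub_cancel_left, norm_smul, Real.norm_eq_abs,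
          abs_of_pos (by positivity), div_mul_eq_mul_div, div_lt_iff₀ (by positivity)]
        nlinarith [norm_nonneg v]
      · show h.1 (x + (r / (2 * (‖v‖ + 1))) • v) ≠ h.2
        rw [map_add, map_smul, hx, smul_eq_mul]
        intro e
        have h1 : r / (2 * (‖v‖ + 1)) * h.1 v = 0 := by linarith
        rcases mul_eq_zero.1 h1 with h2 | h2
        · have : 0 < r / (2 * (‖v‖ + 1)) := by positivity
          linarith
        · exact hv h2
  induction F using Finset.induction_on with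
  | empty => simp
  | insert a F ha ih =>
    have e : {y : E | ∀ h ∈ insert a F, h.1 y ≠ h.2} =
        {y : E | a.1 y ≠ a.2} ∩ {y : E | ∀ h ∈ F, h.1 y ≠ h.2} := by
      ext y; simp
    rw [e]
    exact (one a (h0 a (Finset.mem_insert_self a F))).2.inter_of_isOpen_left
      (ih fun h hh => h0 h (Finset.mem_insert_of_mem hh))
      (one a (h0 a (Finset.mem_insert_self a F))).1

theorem P_sub_closure_I {H : Finset ((E →L[ℝ] ℝ) × ℝ)} (hne : (I H).Nonempty) :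
    P H ⊆ closure (I H) := by
  intro x hx
  obtain ⟨z, hz⟩ := hne
  have hc : Tendsto (fun s : ℝ => x + s • (z - x)) (𝓝[>] 0) (𝓝 x) := by
    have : Tendsto (fun s : ℝ => x + s • (z - x)) (𝓝 0) (𝓝 (x + (0 : ℝ) • (z - x))) := by
      apply Continuous.tendsto
      fun_prop
    rw [zero_smul, add_zero] at this
    exact this.mono_left nhdsWithin_le_nhds
  refine mem_closure_of_tendsto hc ?_
  have h1 : ∀ᶠ s : ℝ in 𝓝[>] 0, s ≤ 1 := by
    have : ∀ᶠ s : ℝ in 𝓝 0, s < 1 := gt_mem_nhds one_pos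
    exact (this.filter_mono nhdsWithin_le_nhds).mono fun s hs => hs.le
  filter_upwards [self_mem_nhdsWithin, h1] with s h0 h1
  exact mem_I_of_move hx hz h0 h1

theorem closure_I {H : Finset ((E →L[ℝ] ℝ) × ℝ)} (hne : (I H).Nonempty) :
    closure (I H) = P H :=
  Set.Subset.antisymm ((isClosed_P H).closure_subset_iff.2 (I_sub_P H)) (P_sub_closure_I hne)

namespace Tiling

variable {Om : Set E} {ι : Type*} (T : Tiling Om ι)

/-- the inequalities of a piece of the tile `i`: those in `s` are reversed -/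
noncomputable def rH (HH : ι → Finset ((E →L[ℝ] ℝ) × ℝ)) (i : ι)
    (s : Finset ((E →L[ℝ] ℝ) × ℝ)) : Finset ((E →L[ℝ] ℝ) × ℝ) :=
  T.H i ∪ (HH i).image fun h => if h ∈ s then opp h else h

variable (HH : ι → Finset ((E →L[ℝ] ℝ) × ℝ))

theorem sub_rH (i : ι) (s : Finset ((E →L[ℝ] ℝ) × ℝ)) : T.H i ⊆ T.rH HH i s :=
  Finset.subset_union_left

theorem mem_rH_of_mem {i : ι} {s : Finset ((E →L[ℝ] ℝ) × ℝ)} {h : (E →L[ℝ] ℝ) × ℝ}
    (hh : h ∈ HH i) (hs : h ∈ s) : opp h ∈ T.rH HH i s :=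
  Finset.mem_union_right _ (Finset.mem_image.2 ⟨h, hh, by simp [hs]⟩)

theorem mem_rH_of_notMem {i : ι} {s : Finset ((E →L[ℝ] ℝ) × ℝ)} {h : (E →L[ℝ] ℝ) × ℝ}
    (hh : h ∈ HH i) (hs : h ∉ s) : h ∈ T.rH HH i s :=
  Finset.mem_union_right _ (Finset.mem_image.2 ⟨h, hh, by simp [hs]⟩)

theorem mem_P_rH {i : ι} {s : Finset ((E →L[ℝ] ℝ) × ℝ)} {y : E} :
    y ∈ P (T.rH HH i s) ↔
      y ∈ P (T.H i) ∧ ∀ h ∈ HH i, (h ∈ s → h.2 ≤ h.1 y) ∧ (h ∉ s → h.1 y ≤ h.2) := by
  constructor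
  · intro hy
    refine ⟨fun h hh => hy h (T.sub_rH HH i s hh), fun h hh => ⟨fun hs => ?_, fun hs => ?_⟩⟩
    · have := hy _ (T.mem_rH_of_mem HH hh hs)
      simp only [opp_fst, opp_snd] at this
      linarith
    · exact hy _ (T.mem_rH_of_notMem HH hh hs)
  · rintro ⟨h1, h2⟩ h hh
    rcases Finset.mem_union.1 hh with hh | hh
    · exact h1 h hh
    · obtain ⟨g, hg, rfl⟩ := Finset.mem_image.1 hh
      by_cases hs : g ∈ s
      · have := (h2 g hg).1 hs
        simp only [hs, if_true, opp_fst, opp_snd]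
        linarith
      · simp only [hs, if_false]
        exact (h2 g hg).2 hs

theorem mem_I_rH {i : ι} {s : Finset ((E →L[ℝ] ℝ) × ℝ)} {y : E} :
    y ∈ I (T.rH HH i s) ↔
      y ∈ I (T.H i) ∧ ∀ h ∈ HH i, (h ∈ s → h.2 < h.1 y) ∧ (h ∉ s → h.1 y < h.2) := by
  constructor
  · intro hy
    refine ⟨fun h hh => hy h (T.sub_rH HH i s hh), fun h hh => ⟨fun hs => ?_, fun hs => ?_⟩⟩
    · have := hy _ (T.mem_rH_of_mem HH hh hs)
      simp only [opp_fst, opp_snd] at this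
      linarith
    · exact hy _ (T.mem_rH_of_notMem HH hh hs)
  · rintro ⟨h1, h2⟩ h hh
    rcases Finset.mem_union.1 hh with hh | hh
    · exact h1 h hh
    · obtain ⟨g, hg, rfl⟩ := Finset.mem_image.1 hh
      by_cases hs : g ∈ s
      · have := (h2 g hg).1 hs
        simp only [hs, if_true, opp_fst, opp_snd]
        linarith
      · simp only [hs, if_false]
        exact (h2 g hg).2 hs

/-- the indices of the pieces -/
def RIdx : Type _ :=
  {p : ι × Finset ((E →L[ℝ] ℝ) × ℝ) // p.2 ⊆ HH p.1 ∧ (I (T.rH HH p.1 p.2)).Nonempty}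

/-- the tile of a piece -/
def RIdx.tile {T : Tiling Om ι} {HH : ι → Finset ((E →L[ℝ] ℝ) × ℝ)} (p : T.RIdx HH) : ι := p.1.1

/-- the inequalities of a piece -/
noncomputable def RIdx.HS {T : Tiling Om ι} {HH : ι → Finset ((E →L[ℝ] ℝ) × ℝ)} (p : T.RIdx HH) :
    Finset ((E →L[ℝ] ℝ) × ℝ) := T.rH HH p.1.1 p.1.2

theorem RIdx.ne {T : Tiling Om ι} {HH : ι → Finset ((E →L[ℝ] ℝ) × ℝ)} (p : T.RIdx HH) :
    (I p.HS).Nonempty := p.2.2

theorem RIdx.P_sub {T : Tiling Om ι} {HH : ι → Finset ((E →L[ℝ] ℝ) × ℝ)} (p : T.RIdx HH) :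
    P p.HS ⊆ P (T.H p.tile) := fun _ hy => ((T.mem_P_rH HH).1 hy).1

theorem RIdx.I_sub {T : Tiling Om ι} {HH : ι → Finset ((E →L[ℝ] ℝ) × ℝ)} (p : T.RIdx HH) :
    I p.HS ⊆ I (T.H p.tile) := fun _ hy => ((T.mem_I_rH HH).1 hy).1

variable {HH}

/-- every point of a tile is in a piece of this tile -/
theorem exists_piece (h0 : ∀ i, ∀ h ∈ HH i, h.1 ≠ 0) {i : ι} {x : E} (hx : x ∈ P (T.H i)) :
    ∃ p : T.RIdx HH, p.tile = i ∧ x ∈ P p.HS := by
  -- the union of the pieces is closed and contains a dense set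
  obtain ⟨J, hJ⟩ : ∃ J : Finset (Finset ((E →L[ℝ] ℝ) × ℝ)),
      ∀ s, s ∈ J ↔ s ⊆ HH i ∧ (I (T.rH HH i s)).Nonempty :=
    ⟨(HH i).powerset.filter fun s => (I (T.rH HH i s)).Nonempty, fun s => by
      rw [Finset.mem_filter, Finset.mem_powerset]⟩
  have hcl : IsClosed (⋃ s ∈ (J : Set (Finset ((E →L[ℝ] ℝ) × ℝ))), P (T.rH HH i s)) :=
    (J.finite_toSet).isClosed_biUnion fun s _ => isClosed_P _
  have hsub : I (T.H i) ∩ {y : E | ∀ h ∈ HH i, h.1 y ≠ h.2} ⊆
      ⋃ s ∈ (J : Set (Finset ((E →L[ℝ] ℝ) × ℝ))), P (T.rH HH i s) := by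
    rintro y ⟨h1, h2⟩
    obtain ⟨s, hs⟩ : ∃ s : Finset ((E →L[ℝ] ℝ) × ℝ), ∀ h, h ∈ s ↔ h ∈ HH i ∧ h.2 < h.1 y :=
      ⟨(HH i).filter fun h => h.2 < h.1 y, fun h => by rw [Finset.mem_filter]⟩
    have h3 : y ∈ I (T.rH HH i s) := by
      rw [mem_I_rH]
      refine ⟨h1, fun h hh => ⟨fun hs' => ((hs h).1 hs').2, fun hs' => ?_⟩⟩
      have h4 : ¬ h.2 < h.1 y := fun h5 => hs' ((hs h).2 ⟨hh, h5⟩)
      exact lt_of_le_of_ne (not_lt.1 h4) (h2 h hh)
    have h4 : s ∈ (J : Set (Finset ((E →L[ℝ] ℝ) × ℝ))) :=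
      (hJ s).2 ⟨fun h hh => ((hs h).1 hh).1, ⟨y, h3⟩⟩
    exact mem_biUnion h4 (I_sub_P _ h3)
  have h1 : x ∈ closure (I (T.H i) ∩ {y : E | ∀ h ∈ HH i, h.1 y ≠ h.2}) := by
    have h2 := P_sub_closure_I (T.ne i) hx
    have h3 := (dense_ne (h0 i)).open_subset_closure_inter (isOpen_I (T.H i))
    exact (closure_minimal h3 isClosed_closure) h2
  have h2 := (hcl.closure_subset_iff.2 hsub) h1
  obtain ⟨s, hs, hxs⟩ := mem_iUnion₂.1 h2
  have hs' := (hJ s).1 hs
  exact ⟨⟨(i, s), hs'⟩, rfl, hxs⟩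

/-- **the refined tiling** -/
noncomputable def refine (HH : ι → Finset ((E →L[ℝ] ℝ) × ℝ)) (h0 : ∀ i, ∀ h ∈ HH i, h.1 ≠ 0) :
    Tiling Om (T.RIdx HH) where
  op := T.op
  H := fun p => p.HS
  cpt := fun p => (T.cpt p.tile).of_isClosed_subset (isClosed_P _) p.P_sub
  ne := fun p => p.ne
  sub := fun p => p.P_sub.trans (T.sub p.tile)
  cov := fun x hx => by
    obtain ⟨i, hi⟩ := T.cov x hx
    obtain ⟨p, -, hp⟩ := T.exists_piece h0 hi
    exact ⟨p, hp⟩
  dis := fun p q hpq => by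
    rw [Set.disjoint_left]
    intro y hy hy'
    have e1 : p.tile = q.tile := by
      by_contra hne
      exact (Set.disjoint_left.1 (T.dis _ _ hne)) (p.I_sub hy) (q.I_sub hy')
    have h1 := ((T.mem_I_rH HH).1 hy).2
    have h2 := ((T.mem_I_rH HH).1 hy').2
    have e1' : p.1.1 = q.1.1 := e1
    have e2 : p.1.2 = q.1.2 := by
      ext h
      constructor
      · intro hh
        have hhH := p.2.1 hh
        by_contra hn
        have h3 := (h1 h hhH).1 hh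
        have h4 := (h2 h (e1' ▸ hhH)).2 hn
        linarith
      · intro hh
        have hhH := q.2.1 hh
        by_contra hn
        have h3 := (h2 h hhH).1 hh
        have h4 := (h1 h (e1' ▸ hhH)).2 hn
        linarith
    exact hpq (Subtype.ext (Prod.ext e1' e2))
  lf := fun x hx => by
    obtain ⟨r, hr, hf⟩ := T.lf x hx
    refine ⟨r, hr, ?_⟩
    have hfin : (⋃ i ∈ {i | (P (T.H i) ∩ ball x r).Nonempty},
        (fun s => ((i, s) : ι × Finset ((E →L[ℝ] ℝ) × ℝ))) '' ((HH i).powerset : Set _)).Finite :=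
      hf.biUnion fun i _ => (HH i).powerset.finite_toSet.image _
    refine Set.Finite.of_finite_image (f := Subtype.val) (hfin.subset ?_)
      Subtype.val_injective.injOn
    rintro _ ⟨p, ⟨y, hy1, hy2⟩, rfl⟩
    exact mem_biUnion (show p.1.1 ∈ {i | (P (T.H i) ∩ ball x r).Nonempty} from
      ⟨y, p.P_sub hy1, hy2⟩) ⟨p.1.2, Finset.mem_powerset.2 p.2.1, rfl⟩

section refine

variable (h0 : ∀ i, ∀ h ∈ HH i, h.1 ≠ 0)

theorem refine_H (p : T.RIdx HH) : (T.refine HH h0).H p = p.HS := rfl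

theorem mem_refine_at {x : E} {p : T.RIdx HH} : p ∈ (T.refine HH h0).at_ x ↔ x ∈ P p.HS := Iff.rfl

theorem tile_mem_at {x : E} {p : T.RIdx HH} (hp : p ∈ (T.refine HH h0).at_ x) :
    p.tile ∈ T.at_ x := p.P_sub hp

theorem exists_mem_at {x : E} {i : ι} (hi : i ∈ T.at_ x) :
    ∃ p : T.RIdx HH, p.tile = i ∧ p ∈ (T.refine HH h0).at_ x := T.exists_piece h0 hi

include h0 in
/-- every tile is the union of its pieces -/
theorem tile_eq_iUnion (i : ι) : P (T.H i) = ⋃ p ∈ {p : T.RIdx HH | p.tile = i}, P p.HS := by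
  ext x
  simp only [mem_iUnion, mem_ofPred_eq, exists_prop]
  constructor
  · intro hx
    exact T.exists_piece h0 hx
  · rintro ⟨p, rfl, hp⟩
    exact p.P_sub hp

/-- (R1) -/
theorem refine_oc_sub (x : E) : (T.refine HH h0).oc x ⊆ T.oc x := by
  intro y hy i hi h hh
  obtain ⟨p, rfl, hp⟩ := T.exists_mem_at h0 hi
  exact hy p hp h (T.sub_rH HH _ _ hh)

theorem refine_cc_sub (x : E) : (T.refine HH h0).cc x ⊆ T.cc x := by
  intro y hy i hi h hh
  obtain ⟨p, rfl, hp⟩ := T.exists_mem_at h0 hi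
  exact hy p hp h (T.sub_rH HH _ _ hh)

/-- (R2) closed cells respect the cutting hyperplanes -/
theorem le_of_refine_cc {x y : E} (hy : y ∈ (T.refine HH h0).cc x) {i : ι} (hi : i ∈ T.at_ x)
    {h : (E →L[ℝ] ℝ) × ℝ} (hh : h ∈ HH i) (hx : h.1 x ≤ h.2) : h.1 y ≤ h.2 := by
  obtain ⟨p, rfl, hp⟩ := T.exists_mem_at h0 hi
  by_cases hs : h ∈ p.1.2
  · have h1 := hy p hp (opp h) (T.mem_rH_of_mem HH hh hs)
    have h2 : (opp h).1 x ≤ (opp h).2 := hp (opp h) (T.mem_rH_of_mem HH hh hs)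
    simp only [opp_fst, opp_snd] at h1 h2
    have h3 := h1.2 (by linarith)
    linarith
  · exact (hy p hp h (T.mem_rH_of_notMem HH hh hs)).1

theorem ge_of_refine_cc {x y : E} (hy : y ∈ (T.refine HH h0).cc x) {i : ι} (hi : i ∈ T.at_ x)
    {h : (E →L[ℝ] ℝ) × ℝ} (hh : h ∈ HH i) (hx : h.2 ≤ h.1 x) : h.2 ≤ h.1 y := by
  obtain ⟨p, rfl, hp⟩ := T.exists_mem_at h0 hi
  by_cases hs : h ∈ p.1.2
  · have h1 := (hy p hp (opp h) (T.mem_rH_of_mem HH hh hs)).1
    simp only [opp_fst, opp_snd] at h1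
    linarith
  · have h1 := hy p hp h (T.mem_rH_of_notMem HH hh hs)
    have h2 : h.1 x ≤ h.2 := hp h (T.mem_rH_of_notMem HH hh hs)
    exact (h1.2 (by linarith)).ge

theorem eq_of_refine_cc {x y : E} (hy : y ∈ (T.refine HH h0).cc x) {i : ι} (hi : i ∈ T.at_ x)
    {h : (E →L[ℝ] ℝ) × ℝ} (hh : h ∈ HH i) (hx : h.1 x = h.2) : h.1 y = h.2 :=
  le_antisymm (T.le_of_refine_cc h0 hy hi hh hx.le) (T.ge_of_refine_cc h0 hy hi hh hx.ge)

/-- (R2) the sign is constant on the open cells -/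
theorem eq_iff_of_refine_oc {x y : E} (hy : y ∈ (T.refine HH h0).oc x) {i : ι} (hi : i ∈ T.at_ x)
    {h : (E →L[ℝ] ℝ) × ℝ} (hh : h ∈ HH i) : h.1 y = h.2 ↔ h.1 x = h.2 := by
  obtain ⟨p, rfl, hp⟩ := T.exists_mem_at h0 hi
  by_cases hs : h ∈ p.1.2
  · have h1 := (hy p hp (opp h) (T.mem_rH_of_mem HH hh hs)).2
    simp only [opp_fst, opp_snd, neg_inj] at h1
    exact h1
  · exact (hy p hp h (T.mem_rH_of_notMem HH hh hs)).2

theorem lt_iff_of_refine_oc {x y : E} (hy : y ∈ (T.refine HH h0).oc x) {i : ι} (hi : i ∈ T.at_ x)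
    {h : (E →L[ℝ] ℝ) × ℝ} (hh : h ∈ HH i) : h.1 y < h.2 ↔ h.1 x < h.2 := by
  have hcc := (T.refine HH h0).oc_sub_cc x hy
  have he := T.eq_iff_of_refine_oc h0 hy hi hh
  constructor
  · intro h1
    by_contra h2
    have := T.ge_of_refine_cc h0 hcc hi hh (not_lt.1 h2)
    linarith
  · intro h1
    exact lt_of_le_of_ne (T.le_of_refine_cc h0 hcc hi hh h1.le) fun e => h1.ne (he.1 e)

/-- (R3) polyhedra whose inequalities are among the cutting hyperplanes are subcomplexes -/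
theorem refine_cc_sub_P {K : Finset ((E →L[ℝ] ℝ) × ℝ)} {x : E} (hx : x ∈ P K) {i : ι}
    (hi : i ∈ T.at_ x) (hK : ∀ h ∈ K, h.1 ≠ 0 → h ∈ HH i) : (T.refine HH h0).cc x ⊆ P K := by
  intro y hy h hh
  by_cases hz : h.1 = 0
  · have h1 := hx h hh
    simp only [hz] at h1 ⊢
    simpa using h1
  · exact T.le_of_refine_cc h0 hy hi (hK h hh hz) (hx h hh)

/-- (R4) nothing changes where nothing is cut -/
theorem refine_oc_eq {x : E} (hx : ∀ i ∈ T.at_ x, HH i = ∅) :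
    (T.refine HH h0).oc x = T.oc x := by
  refine Set.Subset.antisymm (T.refine_oc_sub h0 x) ?_
  intro y hy p hp h hh
  have hi := T.tile_mem_at h0 hp
  have he := hx _ hi
  have e2 : (T.refine HH h0).H p = T.H p.tile := by
    show T.rH HH p.1.1 p.1.2 = T.H p.1.1
    have he' : HH p.1.1 = ∅ := he
    rw [rH, he', Finset.image_empty, Finset.union_empty]
  rw [e2] at hh
  exact hy _ hi h hh

theorem refine_cc_eq {x : E} (hx : ∀ i ∈ T.at_ x, HH i = ∅) :
    (T.refine HH h0).cc x = T.cc x := by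
  refine Set.Subset.antisymm (T.refine_cc_sub h0 x) ?_
  intro y hy p hp h hh
  have hi := T.tile_mem_at h0 hp
  have he := hx _ hi
  have e2 : (T.refine HH h0).H p = T.H p.tile := by
    show T.rH HH p.1.1 p.1.2 = T.H p.1.1
    have he' : HH p.1.1 = ∅ := he
    rw [rH, he', Finset.image_empty, Finset.union_empty]
  rw [e2] at hh
  exact hy _ hi h hh

/-- the piece of an uncut tile -/
noncomputable def RIdx.of {i : ι} (hi : HH i = ∅) : T.RIdx HH :=
  ⟨(i, ∅), Finset.empty_subset _, by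
    have : T.rH HH i ∅ = T.H i := by rw [rH, hi, Finset.image_empty, Finset.union_empty]
    show (I (T.rH HH i ∅)).Nonempty
    rw [this]
    exact T.ne i⟩

theorem RIdx.HS_of_eq {p : T.RIdx HH} (hi : HH p.tile = ∅) : p.HS = T.H p.tile := by
  show T.rH HH p.1.1 p.1.2 = T.H p.1.1
  have he' : HH p.1.1 = ∅ := hi
  rw [rH, he', Finset.image_empty, Finset.union_empty]

theorem RIdx.eq_of {p : T.RIdx HH} (hi : HH p.tile = ∅) : p = RIdx.of T hi := by
  apply Subtype.ext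
  refine Prod.ext rfl ?_
  have h1 := p.2.1
  have he' : HH p.1.1 = ∅ := hi
  rw [he'] at h1
  exact Finset.subset_empty.1 h1

end refine

end Tiling

end Crest.Agent.R096.Msh_715
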