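import Crest.Agent.R096.Srg3_465
import Crest.Agent.R096.Lm2_812
import Crest.Agent.R096.Msh4_715
import Crest.Agent.R096.Agl2_543

/-!
# R096 (row 96), 2SK-SURG, part 4: the mesh of a tiling (helper465)

* `vp_cc`: cells are V-polytopes.  `interior_P`.
* `exists_cell2`: in dimension 3 a point of dimension at most 2 lies in a closed 2-cell.
* `DMove E`: 812's disc move.  `mesh`: the 2-cells of a tiling form a `Mesh`.
-/

set_option autoImplicit false
set_option linter.unusedSectionVars false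

open Set Metric Topology Filter Module

namespace Crest.Agent.R096.Srg_465

open Ce_537 Pl Cb_609 Msh_715
open Sk2_855 (HP sk1)
open Crest.Agent.R096.Agl2_543 (good_ball mem_cc_of_good dim_lt_finrank notMem_I_of_dim)

variable {E : Type*} [NormedAddCommGroup E] [NormedSpace ℝ E]

section VPs

theorem VP.inter_finset {C : Set E} (hC : VP C) (A : Finset (E →ᵃ[ℝ] ℝ)) :
    VP (C ∩ {y | ∀ a ∈ A, 0 ≤ a y}) := by
  classical
  induction A using Finset.induction_on with
  | empty => simpa using hC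
  | insert a A ha ih =>
    have e : C ∩ {y | ∀ b ∈ insert a A, 0 ≤ b y} = (C ∩ {y | ∀ b ∈ A, 0 ≤ b y}) ∩ {y | 0 ≤ a y} := by
      ext y
      simp only [mem_inter_iff, mem_ofPred_eq, Finset.mem_insert, forall_eq_or_imp]
      tauto
    rw [e]
    exact ih.inter_nonneg a

theorem exists_vp [FiniteDimensional ℝ E] {A : Set E} (hA : Bornology.IsBounded A) :
    ∃ C, VP C ∧ A ⊆ C := by
  let e : E ≃L[ℝ] (Fin (finrank ℝ E) → ℝ) :=
    ContinuousLinearEquiv.ofFinrankEq (by simp)
  have hB : Bornology.IsBounded (e '' A) := by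
    have h1 := e.toContinuousLinearMap.lipschitz.isBounded_image hA
    exact h1
  obtain ⟨R, hR⟩ := hB.subset_closedBall 0
  let R' : ℝ := max R 1
  have hR' : 0 < R' := lt_of_lt_of_le one_pos (le_max_right _ _)
  obtain ⟨s, hs, hse⟩ := vp_cube (finrank ℝ E)
  let g : (Fin (finrank ℝ E) → ℝ) →ₗ[ℝ] E := R' • (e.symm : (Fin (finrank ℝ E) → ℝ) →ₗ[ℝ] E)
  refine ⟨g '' closedBall 0 1, ⟨g '' s, hs.image _, ?_⟩, ?_⟩
  · rw [hse, LinearMap.image_convexHull]
  · intro x hx
    refine ⟨R'⁻¹ • e x, ?_, ?_⟩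
    · have h1 : e x ∈ closedBall (0 : Fin (finrank ℝ E) → ℝ) R := hR ⟨x, hx, rfl⟩
      rw [mem_closedBall, dist_zero_right] at h1 ⊢
      rw [norm_smul, norm_inv, Real.norm_eq_abs, abs_of_pos hR', inv_mul_le_iff₀ hR', mul_one]
      exact h1.trans (le_max_left _ _)
    · show R' • (e.symm (R'⁻¹ • e x)) = x
      rw [map_smul, e.symm_apply_apply, smul_smul, mul_inv_cancel₀ hR'.ne', one_smul]

variable {Om : Set E} {ι : Type*} (T : Tiling Om ι)

theorem vp_cc [FiniteDimensional ℝ E] {x : E} (hx : x ∈ Om) : VP (T.cc x) := by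
  classical
  obtain ⟨C, hC, hsub⟩ := exists_vp (T.isCompact_cc hx).isBounded
  let A1 : Finset (E →ᵃ[ℝ] ℝ) := (T.Hx hx).image fun h =>
    AffineMap.const ℝ E h.2 - (h.1 : E →ₗ[ℝ] ℝ).toAffineMap
  let A2 : Finset (E →ᵃ[ℝ] ℝ) := ((T.Hx hx).filter fun h => h.1 x = h.2).image fun h =>
    (h.1 : E →ₗ[ℝ] ℝ).toAffineMap - AffineMap.const ℝ E h.2
  have e : T.cc x = C ∩ {y | ∀ a ∈ A1 ∪ A2, 0 ≤ a y} := by
    ext y
    rw [← T.fc_Hx hx]
    constructor
    · intro hy
      refine ⟨hsub (by rw [← T.fc_Hx hx]; exact hy), fun a ha => ?_⟩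
      rcases Finset.mem_union.1 ha with ha | ha
      · obtain ⟨h, hh, rfl⟩ := Finset.mem_image.1 ha
        have := (hy h hh).1
        simpa using this
      · obtain ⟨h, hh, rfl⟩ := Finset.mem_image.1 ha
        rw [Finset.mem_filter] at hh
        have := (hy h hh.1).2 hh.2
        simp [this]
    · rintro ⟨-, hy⟩ h hh
      have h1 := hy _ (Finset.mem_union_left _ (Finset.mem_image_of_mem _ hh))
      refine ⟨by simpa using h1, fun e => ?_⟩
      have h2 := hy _ (Finset.mem_union_right _ (Finset.mem_image_of_mem _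
        (Finset.mem_filter.2 ⟨hh, e⟩)))
      have h1' : h.1 y ≤ h.2 := by simpa using h1
      have h2' : h.2 ≤ h.1 y := by simpa using h2
      exact le_antisymm h1' h2'
  rw [e]
  exact VP.inter_finset hC _

end VPs

/-- the interior of a polyhedron with an interior point -/
theorem interior_P {H : Finset ((E →L[ℝ] ℝ) × ℝ)} (hne : (I H).Nonempty) :
    interior (P H) = I H := by
  apply Subset.antisymm
  · intro x hx h hh
    obtain ⟨z, hz⟩ := hne
    have hxP : x ∈ P H := interior_subset hx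
    by_contra hcon
    have e : h.1 x = h.2 := le_antisymm (hxP h hh) (not_lt.1 hcon)
    have hc : ContinuousAt (fun s : ℝ => x + s • (x - z)) 0 := by fun_prop
    have hev : ∀ᶠ s in 𝓝 (0 : ℝ), x + s • (x - z) ∈ interior (P H) := by
      refine hc.eventually_mem (isOpen_interior.mem_nhds ?_)
      simpa using hx
    obtain ⟨r, hr, hr'⟩ := Metric.eventually_nhds_iff.1 hev
    have h1 : x + (r / 2) • (x - z) ∈ P H := interior_subset (hr' (by
      rw [Real.dist_eq, sub_zero, abs_of_pos (by positivity)]; linarith))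
    have h2 := h1 h hh
    rw [map_add, map_smul, map_sub, e, smul_eq_mul] at h2
    have h3 := hz h hh
    have h4 : 0 < r / 2 * (h.2 - h.1 z) := by
      apply mul_pos (by positivity); linarith
    linarith
  · exact interior_maximal (I_sub_P H) (isOpen_I H)

section Cell2

variable {Om : Set E} {ι : Type*} (T : Tiling Om ι)

/-- the active functionals -/
def actF (x : E) : Set (E →L[ℝ] ℝ) :=
  {f | ∃ i ∈ T.at_ x, ∃ h ∈ T.H i, h.1 x = h.2 ∧ h.1 = f}

theorem actF_finite {x : E} (hx : x ∈ Om) : (actF T x).Finite := by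
  have h1 : (⋃ i ∈ T.at_ x, ((fun h : (E →L[ℝ] ℝ) × ℝ => h.1) '' (T.H i : Set _))).Finite :=
    (T.at_finite hx).biUnion fun i _ => (T.H i).finite_toSet.image _
  refine h1.subset ?_
  rintro f ⟨i, hi, h, hh, -, rfl⟩
  exact mem_biUnion hi ⟨h, hh, rfl⟩

/-- **in dimension three every point off the open tiles lies in a closed 2-cell** -/
theorem exists_cell2 [FiniteDimensional ℝ E] (h3 : finrank ℝ E = 3) {x : E} (hx : x ∈ Om)
    (hd : T.dim x < 3) : ∃ y ∈ Om, T.dim y = 2 ∧ x ∈ T.cc y := by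
  classical
  obtain ⟨r, hr, hO, hb⟩ := good_ball T hx
  -- a tile and an outer direction
  obtain ⟨i, hi⟩ := T.at_nonempty hx
  have hxI : x ∉ I (T.H i) := notMem_I_of_dim T hx (by omega) i
  obtain ⟨h0, hh0, e0⟩ : ∃ h ∈ T.H i, h.1 x = h.2 := by
    by_contra hcon
    push Not at hcon
    exact hxI fun h hh => lt_of_le_of_ne (hi h hh) (hcon h hh)
  obtain ⟨z0, hz0⟩ := T.ne i
  -- an inner point near x
  set v : E := x - z0 with hv
  have hvpos : ∀ h ∈ T.H i, h.1 x = h.2 → 0 < h.1 v := by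
    intro h hh e
    have := hz0 h hh
    rw [hv, map_sub, e]; linarith
  obtain ⟨s0, hs0, hs0'⟩ : ∃ s : ℝ, 0 < s ∧ s ≤ 1 ∧ s * ‖v‖ < r := by
    refine ⟨min 1 (r / (‖v‖ + 1)) , lt_min one_pos (by positivity), min_le_left _ _, ?_⟩
    have h1 : min 1 (r / (‖v‖ + 1)) ≤ r / (‖v‖ + 1) := min_le_right _ _
    have h2 : r / (‖v‖ + 1) * ‖v‖ < r := by
      rw [div_mul_eq_mul_div, div_lt_iff₀ (by positivity)]
      nlinarith [norm_nonneg v]
    exact lt_of_le_of_lt (mul_le_mul_of_nonneg_right h1 (norm_nonneg v)) h2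
  set p : E := x - s0 • v with hp
  have hpb : p ∈ ball x r := by
    rw [mem_ball, dist_eq_norm, hp, sub_sub_cancel_left, norm_neg, norm_smul, Real.norm_eq_abs,
      abs_of_pos hs0]
    exact hs0'.2
  have hpI : p ∈ I (T.H i) := by
    have : p = (1 - s0) • x + s0 • z0 := by
      rw [hp, hv]; module
    rw [this]
    intro h hh
    rw [map_add, map_smul, map_smul, smul_eq_mul, smul_eq_mul]
    have h1 := hi h hh
    have h2 := hz0 h hh
    nlinarith [hs0'.1]
  -- functionals for the small subspaces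
  have key : ∀ S : Set (E →L[ℝ] ℝ), ∃ g : E →L[ℝ] ℝ, g ≠ 0 ∧ g (p - x) = 0 ∧
      ∀ W : Submodule ℝ E, (∀ w, w ∈ W ↔ ∀ f ∈ S, f w = 0) → finrank ℝ W ≤ 1 →
        ∀ w ∈ W, g w = 0 := by
    intro S
    let W : Submodule ℝ E := ⨅ f ∈ S, LinearMap.ker (f : E →ₗ[ℝ] ℝ)
    have hW : ∀ w, w ∈ W ↔ ∀ f ∈ S, f w = 0 := by
      intro w
      simp [W, Submodule.mem_iInf]
    by_cases hf : finrank ℝ W ≤ 1
    · let W' : Submodule ℝ E := W ⊔ Submodule.span ℝ {p - x}
      have hlt : W' < ⊤ := by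
        rw [lt_top_iff_ne_top]
        intro htop
        have h1 : finrank ℝ W' = 3 := by rw [htop, finrank_top, h3]
        have h2 := Submodule.finrank_add_le_finrank_add_finrank W (Submodule.span ℝ {p - x})
        have h4 : finrank ℝ (Submodule.span ℝ {p - x}) ≤ 1 := by
          refine (finrank_span_le_card _).trans ?_
          simp
        have h5 : finrank ℝ W' ≤ finrank ℝ W + finrank ℝ (Submodule.span ℝ {p - x}) := h2
        omega
      obtain ⟨f, hf0, hf1⟩ := Submodule.exists_le_ker_of_lt_top W' hlt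
      refine ⟨LinearMap.toContinuousLinearMap f, ?_, ?_, ?_⟩
      · intro hcon
        apply hf0
        ext w
        exact congrArg (fun g : E →L[ℝ] ℝ => g w) hcon
      · exact hf1 (Submodule.mem_sup_right (Submodule.mem_span_singleton_self _))
      · intro W2 hW2 _ w hw
        have : w ∈ W := (hW w).2 ((hW2 w).1 hw)
        exact hf1 (Submodule.mem_sup_left this)
    · -- any functional vanishing at `p - x`
      have hlt : Submodule.span ℝ {p - x} < ⊤ := by
        rw [lt_top_iff_ne_top]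
        intro htop
        have h1 : finrank ℝ (Submodule.span ℝ {p - x}) = 3 := by rw [htop, finrank_top, h3]
        have h4 : finrank ℝ (Submodule.span ℝ {p - x}) ≤ 1 := by
          refine (finrank_span_le_card _).trans ?_
          simp
        omega
      obtain ⟨f, hf0, hf1⟩ := Submodule.exists_le_ker_of_lt_top _ hlt
      refine ⟨LinearMap.toContinuousLinearMap f, ?_, ?_, ?_⟩
      · intro hcon
        apply hf0
        ext w
        exact congrArg (fun g : E →L[ℝ] ℝ => g w) hcon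
      · exact hf1 (Submodule.mem_span_singleton_self _)
      · intro W2 hW2 h2 w hw
        exfalso
        apply hf
        have e : W2 = W := by
          ext w; rw [hW, hW2]
        rw [← e]; exact h2
  choose g hg0 hgp hgW using key
  -- the outer point
  let 𝒮 : Finset (Set (E →L[ℝ] ℝ)) := ((actF_finite T hx).finite_subsets).toFinset
  let G : Finset ((E →L[ℝ] ℝ) × ℝ) := 𝒮.image fun S => (g S, g S x)
  have hdense := dense_ne (F := G) (by
    intro h hh
    obtain ⟨S, -, rfl⟩ := Finset.mem_image.1 hh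
    exact hg0 S)
  have hUo : IsOpen (ball x r ∩ {y | h0.2 < h0.1 y}) :=
    isOpen_ball.inter (isOpen_lt continuous_const h0.1.continuous)
  have hUn : (ball x r ∩ {y | h0.2 < h0.1 y}).Nonempty := by
    refine ⟨x + s0 • v, ?_, ?_⟩
    · rw [mem_ball, dist_eq_norm, add_sub_cancel_left, norm_smul, Real.norm_eq_abs,
        abs_of_pos hs0]
      exact hs0'.2
    · show h0.2 < h0.1 (x + s0 • v)
      rw [map_add, map_smul, e0, smul_eq_mul]
      have := mul_pos hs0 (hvpos h0 hh0 e0)
      linarith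
  obtain ⟨q, ⟨hqb, hq0⟩, hqG⟩ := hdense.inter_open_nonempty _ hUo hUn
  -- the last point of the segment in the tile
  let σ : ℝ → E := fun s => p + s • (q - p)
  have hσ : Continuous σ := by fun_prop
  have hσb : ∀ s ∈ Icc (0 : ℝ) 1, σ s ∈ ball x r := by
    intro s hs
    have : σ s = (1 - s) • p + s • q := by simp only [σ]; module
    rw [this]
    exact (convex_ball x r) hpb hqb (by linarith [hs.2]) hs.1 (by ring)
  let A : Set ℝ := Icc 0 1 ∩ σ ⁻¹' P (T.H i)
  have hAc : IsCompact A := isCompact_Icc.inter_right ((isClosed_P _).preimage hσ)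
  have hAn : A.Nonempty := ⟨0, ⟨le_rfl, zero_le_one⟩, by
    show p + (0 : ℝ) • (q - p) ∈ P (T.H i)
    rw [zero_smul, add_zero]; exact I_sub_P _ hpI⟩
  obtain ⟨s, hsA, hsmax⟩ := hAc.exists_isGreatest hAn
  have hs1 : s ≠ 1 := by
    rintro rfl
    have h1 : q ∈ P (T.H i) := by
      have := hsA.2
      simpa [σ] using this
    exact absurd (h1 h0 hh0) (not_le.2 hq0)
  have hs1' : s < 1 := lt_of_le_of_ne hsA.1.2 hs1
  have hσI : σ s ∉ I (T.H i) := by
    intro hI
    have h1 : ∀ᶠ s' in 𝓝 s, σ s' ∈ I (T.H i) :=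
      hσ.continuousAt.eventually_mem ((isOpen_I _).mem_nhds hI)
    have h2 : ∀ᶠ s' in 𝓝[>] s, σ s' ∈ I (T.H i) ∧ s' < 1 ∧ s < s' := by
      filter_upwards [h1.filter_mono nhdsWithin_le_nhds,
        (gt_mem_nhds hs1').filter_mono nhdsWithin_le_nhds, self_mem_nhdsWithin] with a b c d
      exact ⟨b, c, d⟩
    obtain ⟨s', h4, h5, h6⟩ := h2.exists
    have := hsmax ⟨⟨hsA.1.1.trans h6.le, h5.le⟩, I_sub_P _ h4⟩
    linarith
  have hs0pos : 0 < s := by
    rcases eq_or_lt_of_le hsA.1.1 with h1 | h1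
    · exfalso
      apply hσI
      rw [← h1]
      show p + (0 : ℝ) • (q - p) ∈ I (T.H i)
      rw [zero_smul, add_zero]; exact hpI
    · exact h1
  set y : E := σ s with hy
  have hyb : y ∈ ball x r := hσb s hsA.1
  have hyO : y ∈ Om := hO hyb
  have hxy : x ∈ T.cc y := mem_cc_of_good T hb hyb
  have hyd : T.dim y < 3 := by
    have := dim_lt_finrank T hyO (i := i) hsA.2 hσI
    omega
  refine ⟨y, hyO, ?_, hxy⟩
  by_contra hd2
  have hyd1 : T.dim y ≤ 1 := by omega
  -- the subspace of y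
  let S : Set (E →L[ℝ] ℝ) := {f | ∃ j ∈ T.at_ y, ∃ h ∈ T.H j, h.1 y = h.2 ∧ h.1 = f}
  have hS : ∀ w, w ∈ T.V y ↔ ∀ f ∈ S, f w = 0 := by
    intro w
    rw [T.mem_V]
    constructor
    · rintro h1 f ⟨j, hj, h, hh, e, rfl⟩
      exact h1 j hj h hh e
    · intro h1 j hj h hh e
      exact h1 _ ⟨j, hj, h, hh, e, rfl⟩
  have hSsub : S ⊆ actF T x := by
    rintro f ⟨j, hj, h, hh, e, rfl⟩
    have hjx := (hb y hyb).1 hj
    refine ⟨j, hjx, h, hh, ?_, rfl⟩
    by_contra hne
    have := (hb y hyb).2 j hjx h hh (lt_of_le_of_ne (hjx h hh) hne)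
    linarith
  have hSm : S ∈ 𝒮 := by
    simp only [𝒮, Set.Finite.mem_toFinset]
    exact hSsub
  have h1 : g S (y - x) = 0 := by
    refine hgW S (T.V y) hS hyd1 _ ?_
    have h2 := T.sub_mem_V hxy
    have h4 := (T.V y).neg_mem h2
    rwa [neg_sub] at h4
  have h2 := hqG _ (Finset.mem_image_of_mem _ hSm)
  apply h2
  show g S q = g S x
  have e1 : y - x = (p - x) + s • ((q - x) - (p - x)) := by
    rw [hy]; simp only [σ]; module
  have h5 : g S p = g S x := by
    have := hgp S
    rw [map_sub] at this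
    linarith
  rw [e1] at h1
  simp only [map_add, map_smul, map_sub, smul_eq_mul, h5] at h1
  have h6 : s * (g S q - g S x) = 0 := by linarith
  rcases mul_eq_zero.1 h6 with h4 | h4
  · exact absurd h4 hs0pos.ne'
  · linarith

end Cell2

section MeshT

/-- the disc move (812) -/
def DMove (E : Type*) [NormedAddCommGroup E] [NormedSpace ℝ E] : Prop :=
  ∀ P Q Γ Fc D U : Set E, Convex ℝ P → IsClosed P → VP Q → Q ⊆ frontier P → Fc ⊆ Q →
    (∃ O, IsOpen O ∧ O ∩ Q = Fc \ Γ) → IsBall 2 Fc Γ → IsBall 2 D Γ → D \ Γ ⊆ interior P →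
    IsOpen U → interior P ⊆ U → Fc ⊆ U →
    ∃ ψ : E ≃ₜ E, PLH ψ ∧ (∃ C ⊆ U, IsCompact C ∧ ∀ x ∉ C, ψ x = x) ∧
      (∀ x ∈ Q \ Fc, ∀ᶠ y in 𝓝 x, ψ y = y) ∧ ψ '' Fc = D

/-- the disc move in the space, from the PL Schoenflies theorem for two discs -/
theorem dMove_space
    (hP2 : ∀ A B Γ : Set ((ℝ × ℝ) × ℝ), IsBall 2 A Γ → IsBall 2 B Γ → A ∩ B = Γ → StdS A B) :
    DMove ((ℝ × ℝ) × ℝ) := by
  intro P Q Γ Fc D U h1 h2 h3 h4 h5 h6 h7 h8 h9 h10 h11 h12
  obtain ⟨ψ, g1, g2, g3, g4, -, -⟩ := Lm_812.disc_move_near hP2 h1 h2 h3 h4 h5 h6 h7 h8 h9 h10 h11 h12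
  exact ⟨ψ, g1, g2, g3, g4⟩

variable {Om : Set E} {ι : Type*} (T : Tiling Om ι)

/-- the 2-cells -/
def Face : Type _ := {c : T.Cell // c.dim = 2}

/-- the underlying set -/
def Face.set {T : Tiling Om ι} (k : Face T) : Set E := k.1.set

variable {T}

theorem Face.exists_pt (k : Face T) : ∃ x ∈ Om, T.dim x = 2 ∧ k.set = T.cc x :=
  ⟨k.1.pt, k.1.pt_mem, k.2, k.1.set_eq⟩

/-- the face of a point -/
def mkFace {x : E} (hx : x ∈ Om) (hd : T.dim x = 2) : Face T :=
  ⟨T.cl hx, by rw [T.dim_cl hx]; exact hd⟩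

theorem mkFace_set {x : E} (hx : x ∈ Om) (hd : T.dim x = 2) : (mkFace hx hd).set = T.cc x := rfl

theorem Face.ext {k k' : Face T} (h : k.set = k'.set) : k = k' := Subtype.ext (Tiling.Cell.ext h)

variable [FiniteDimensional ℝ E]

theorem mem_oc_of_dim {x y : E} (hd : T.dim x = 2) (hy : y ∈ T.cc x) (hyd : ¬ T.dim y ≤ 1) :
    y ∈ T.oc x := by
  by_contra hn
  have := T.dim_lt hy hn
  omega

/-- the union of the two tiles at a 2-cell with the open 2-cell is open -/
theorem isOpen_star (h3 : finrank ℝ E = 3) {x : E} (hx : x ∈ Om) (hd : T.dim x = 2) :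
    IsOpen ((⋃ i ∈ T.at_ x, I (T.H i)) ∪ T.oc x) := by
  have hIo : IsOpen (⋃ i ∈ T.at_ x, I (T.H i)) := isOpen_biUnion fun i _ => isOpen_I _
  rw [isOpen_iff_mem_nhds]
  intro y hy
  rcases hy with hy | hy
  · exact mem_of_superset (hIo.mem_nhds hy) subset_union_left
  · have hyO : y ∈ Om := T.cc_sub_Om hx (T.oc_sub_cc x hy)
    obtain ⟨r, hr, hO, hb⟩ := good_ball T hyO
    refine mem_of_superset (ball_mem_nhds y hr) fun z hz => ?_
    have hzO := hO hz
    have hat := T.at_eq_of_mem_oc hx hy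
    have hz1 := (hb z hz).1
    rw [hat] at hz1
    by_cases hzI : ∃ i, z ∈ I (T.H i)
    · obtain ⟨i, hi⟩ := hzI
      exact Or.inl (mem_biUnion (hz1 (show i ∈ T.at_ z from I_sub_P _ hi)) hi)
    · right
      obtain ⟨i, j, hij, hatx, hcc⟩ := T.two_tiles hx (by omega)
      -- z is in both tiles
      have hzb : i ∈ T.at_ z ∧ j ∈ T.at_ z := by
        by_contra hcon
        apply hzI
        obtain ⟨m, hm⟩ := T.at_nonempty hzO
        have hone : T.at_ z = {m} := by
          apply Subset.antisymm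
          · intro l hl
            have h5 := hz1 hl
            have h6 := hz1 hm
            rw [hatx] at h5 h6
            simp only [mem_insert_iff, mem_singleton_iff] at h5 h6 ⊢
            rcases h5 with rfl | rfl <;> rcases h6 with rfl | rfl
            · rfl
            · exact absurd ⟨hl, hm⟩ hcon
            · exact absurd ⟨hm, hl⟩ hcon
            · rfl
          · intro l hl
            rw [mem_singleton_iff.1 hl]; exact hm
        refine ⟨m, ?_⟩
        rw [← interior_P (T.ne m), mem_interior_iff_mem_nhds]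
        obtain ⟨r', hr', hO', hb'⟩ := T.exists_ball hzO
        refine mem_of_superset (ball_mem_nhds z hr') fun w hw => ?_
        obtain ⟨l, hl⟩ := T.at_nonempty (hO' hw)
        have h5 := hb' w hw hl
        rw [hone, mem_singleton_iff] at h5
        rw [← h5]; exact hl
      have hzcc : z ∈ T.cc x := by rw [hcc]; exact hzb
      refine fun m hm h hh => ⟨?_, ?_⟩
      · exact (hzcc m hm h hh).1
      · constructor
        · intro e
          by_contra hne
          have hlt : h.1 x < h.2 := lt_of_le_of_ne (hm h hh) hne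
          have hy2 : h.1 y < h.2 := by
            refine lt_of_le_of_ne (hy m hm h hh).1 fun e' => hne ?_
            exact (hy m hm h hh).2.1 e'
          have := (hb z hz).2 m (by rw [hat]; exact hm) h hh hy2
          linarith
        · exact (hzcc m hm h hh).2

theorem notMem_I_of_cc (h3 : finrank ℝ E = 3) {x : E} (hx : x ∈ Om) (hd : T.dim x = 2) {y : E}
    (hy : y ∈ T.cc x) (i : ι) : y ∉ I (T.H i) :=
  notMem_I_of_dim T (T.cc_sub_Om hx hy) (by have := T.dim_le hy; omega) i

/-- **the 2-cells of a tiling of a domain of the space** -/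
theorem mesh (h3 : finrank ℝ E = 3) (hDM : DMove E) : Mesh Om (sk1 T) (fun k : Face T => k.set) where
  comp k := by
    obtain ⟨x, hx, hd, e⟩ := k.exists_pt
    rw [e]; exact T.isCompact_cc hx
  sub k := by
    obtain ⟨x, hx, hd, e⟩ := k.exists_pt
    show k.set ⊆ Om
    rw [e]; exact T.cc_sub_Om hx
  meet k k' hne := by
    obtain ⟨x, hx, hd, e⟩ := k.exists_pt
    obtain ⟨x', hx', hd', e'⟩ := k'.exists_pt
    rintro y ⟨hy, hy'⟩
    change y ∈ k.set at hy
    change y ∈ k'.set at hy'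
    rw [e] at hy
    rw [e'] at hy'
    refine ⟨T.cc_sub_Om hx hy, ?_⟩
    by_contra hyd
    have h1 := T.cc_eq_of_mem_oc hx (mem_oc_of_dim hd hy hyd)
    have h2 := T.cc_eq_of_mem_oc hx' (mem_oc_of_dim hd' hy' hyd)
    exact hne (Face.ext (by rw [e, e', ← h1, ← h2]))
  move k Fc D Γ O hFc hFsub hO hOF hD hDO hDF := by
    obtain ⟨x, hx, hd, e⟩ := k.exists_pt
    change Fc ⊆ k.set \ sk1 T at hFsub
    change O ∩ k.set = Fc \ Γ at hOF
    rw [e] at hFsub hOF
    have hFoc : Fc ⊆ T.oc x := by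
      intro y hy
      refine mem_oc_of_dim hd (hFsub hy).1 fun h1 => (hFsub hy).2 ⟨T.cc_sub_Om hx (hFsub hy).1, h1⟩
    have hcov : D \ Γ ⊆ ⋃ i, I (T.H i) := by
      intro y hy
      by_contra hn
      have hyO := hDO hy.1
      have hyd : T.dim y < 3 := by
        obtain ⟨i, hi⟩ := T.at_nonempty hyO
        have := dim_lt_finrank T hyO (i := i) hi fun h => hn (mem_iUnion.2 ⟨i, h⟩)
        omega
      obtain ⟨w, hw, hwd, hyw⟩ := exists_cell2 T h3 hyO hyd
      exact disjoint_left.1 (hDF (mkFace hw hwd)) hy hyw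
    obtain ⟨i, hi1, hi2⟩ := Lm_812.exists_cell hD (I := fun i => I (T.H i)) (fun i => isOpen_I _)
      (fun i j hij => T.dis i j hij) hcov
    rw [closure_I (T.ne i)] at hi2
    have hix : i ∈ T.at_ x := by
      obtain ⟨z, hz⟩ := nonempty_of_disc hFc
      rw [← T.at_eq_of_mem_oc hx (hFoc (hFc.subset hz))]
      exact hi2 (hD.subset hz)
    set U : Set E := (⋃ i ∈ T.at_ x, I (T.H i)) ∪ T.oc x with hU
    obtain ⟨ψ, g1, ⟨C, hCU, hC, hCid⟩, g3, g4⟩ := hDM (P (T.H i)) (T.cc x) Γ Fc D U (convex_P _)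
      (isClosed_P _) (vp_cc T hx) (by
        rw [(isClosed_P _).frontier_eq, interior_P (T.ne i)]
        exact fun y hy => ⟨T.cc_sub_tile hix hy, notMem_I_of_cc h3 hx hd hy i⟩)
      (fun y hy => (hFsub hy).1) ⟨O, hO, hOF⟩ hFc hD (by rw [interior_P (T.ne i)]; exact hi1)
      (isOpen_star h3 hx hd) (by
        rw [interior_P (T.ne i)]
        exact (subset_biUnion_of_mem (u := fun i => I (T.H i)) hix).trans subset_union_left)
      (hFoc.trans subset_union_right)
    have hUO : U ⊆ Om := by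
      rintro y (hy | hy)
      · obtain ⟨j, hj, hy⟩ := mem_iUnion₂.1 hy
        exact T.sub j (I_sub_P _ hy)
      · exact T.cc_sub_Om hx (T.oc_sub_cc x hy)
    have hUd : ∀ y ∈ U, ¬ T.dim y ≤ 1 := by
      rintro y (hy | hy) hyd
      · obtain ⟨j, hj, hy⟩ := mem_iUnion₂.1 hy
        exact notMem_I_of_dim T (T.sub j (I_sub_P _ hy)) (by omega) j hy
      · rw [T.dim_eq_of_mem_oc hx hy] at hyd
        omega
    refine ⟨ψ, ⟨g1, C, hC, hCU.trans hUO, ?_, hCid⟩, fun k' hne y hy => ?_, ?_, g4⟩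
    · rw [disjoint_left]
      intro y hy hy1
      exact hUd y (hCU hy) hy1.2
    · suffices hyC : y ∉ C by
        filter_upwards [hC.isClosed.isOpen_compl.mem_nhds hyC] with z hz
        exact hCid z hz
      intro hyC
      obtain ⟨x', hx', hd', e'⟩ := k'.exists_pt
      change y ∈ k'.set at hy
      rw [e'] at hy
      rcases hCU hyC with h1 | h1
      · obtain ⟨j, hj, h1⟩ := mem_iUnion₂.1 h1
        exact notMem_I_of_cc h3 hx' hd' hy j h1
      · have hyd := hUd y (hCU hyC)
        have h2 := T.cc_eq_of_mem_oc hx h1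
        have h4 := T.cc_eq_of_mem_oc hx' (mem_oc_of_dim hd' hy hyd)
        exact hne (Face.ext (by rw [e, e', ← h2, ← h4]))
    · intro y hy
      change y ∈ k.set \ Fc at hy
      rw [e] at hy
      exact g3 y hy

end MeshT

end Crest.Agent.R096.Srg_465
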