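import Crest.Agent.R096.Sk3a_270
import Crest.Agent.R096.Srg4_465

/-!
# Row 96 (S0127), p ≤ 2: lemma 2SK for an arbitrary convex tiling (helper270), part b

* `exists_cell2_tile`, `capture`, `capture_tile`: the maximum principle for a tile.
* `two_sk_tiles`: a finite family of tiles with `One`.  `two_sk_near`: the metric form.
-/

set_option autoImplicit false
set_option linter.unusedSectionVars false

open Set Metric Topology Filter Module

namespace Crest.Agent.R096.Sk3_270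

open Crest.Agent.R096.Msh_715
open Crest.Agent.R096.Ce_537 (LocPL PLOn)
open Crest.Agent.R096.Sk2_855 (sk1 HP Mv)
open Crest.Agent.R096.Ub_113 (UBox USurg)
open Crest.Agent.R096.Srg_465 (actF actF_finite)
open Crest.Agent.R096.Agl2_543 (good_ball mem_cc_of_good dim_lt_finrank notMem_I_of_dim)

variable {E : Type*} [NormedAddCommGroup E] [NormedSpace ℝ E] [FiniteDimensional ℝ E]
  {Om La : Set E} {ι : Type*}

section Cell2

variable (T : Tiling Om ι)

/-- **in dimension three every boundary point of a tile lies in a closed 2-cell of this tile**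
(465's `exists_cell2` with a given tile) -/
theorem exists_cell2_tile (h3 : finrank ℝ E = 3) {x : E} (hx : x ∈ Om) {i : ι}
    (hi : x ∈ P (T.H i)) (hd : T.dim x < 3) :
    ∃ y ∈ Om, T.dim y = 2 ∧ x ∈ T.cc y ∧ T.cc y ⊆ P (T.H i) := by
  classical
  obtain ⟨r, hr, hO, hb⟩ := good_ball T hx
  -- a tile and an outer direction
  have hxI : x ∉ I (T.H i) := notMem_I_of_dim T hx (by omega) i
  obtain ⟨h0, hh0, e0⟩ : ∃ h ∈ T.H i, h.1 x = h.2 := by
    by_contra hcon
    push Not at hcon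
    exact hxI fun h hh => lt_of_le_of_ne (hi h hh) (hcon h hh)
  obtain ⟨z0, hz0⟩ := T.ne i
  -- an inner point near x
  set v : E := x - z0 with hv
  have hvpos : ∀ h ∈ T.H i, h.1 x = h.2 → 0 < h.1 v := by
    intro h hh e
    have := hz0 h hh
    rw [hv, map_sub, e]; linarith
  obtain ⟨s0, hs0, hs0'⟩ : ∃ s : ℝ, 0 < s ∧ s ≤ 1 ∧ s * ‖v‖ < r := by
    refine ⟨min 1 (r / (‖v‖ + 1)) , lt_min one_pos (by positivity), min_le_left _ _, ?_⟩
    have h1 : min 1 (r / (‖v‖ + 1)) ≤ r / (‖v‖ + 1) := min_le_right _ _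
    have h2 : r / (‖v‖ + 1) * ‖v‖ < r := by
      rw [div_mul_eq_mul_div, div_lt_iff₀ (by positivity)]
      nlinarith [norm_nonneg v]
    exact lt_of_le_of_lt (mul_le_mul_of_nonneg_right h1 (norm_nonneg v)) h2
  set p : E := x - s0 • v with hp
  have hpb : p ∈ ball x r := by
    rw [mem_ball, dist_eq_norm, hp, sub_sub_cancel_left, norm_neg, norm_smul, Real.norm_eq_abs,
      abs_of_pos hs0]
    exact hs0'.2
  have hpI : p ∈ I (T.H i) := by
    have : p = (1 - s0) • x + s0 • z0 := by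
      rw [hp, hv]; module
    rw [this]
    intro h hh
    rw [map_add, map_smul, map_smul, smul_eq_mul, smul_eq_mul]
    have h1 := hi h hh
    have h2 := hz0 h hh
    nlinarith [hs0'.1]
  -- functionals for the small subspaces
  have key : ∀ S : Set (E →L[ℝ] ℝ), ∃ g : E →L[ℝ] ℝ, g ≠ 0 ∧ g (p - x) = 0 ∧
      ∀ W : Submodule ℝ E, (∀ w, w ∈ W ↔ ∀ f ∈ S, f w = 0) → finrank ℝ W ≤ 1 →
        ∀ w ∈ W, g w = 0 := by
    intro S
    let W : Submodule ℝ E := ⨅ f ∈ S, LinearMap.ker (f : E →ₗ[ℝ] ℝ)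
    have hW : ∀ w, w ∈ W ↔ ∀ f ∈ S, f w = 0 := by
      intro w
      simp [W, Submodule.mem_iInf]
    by_cases hf : finrank ℝ W ≤ 1
    · let W' : Submodule ℝ E := W ⊔ Submodule.span ℝ {p - x}
      have hlt : W' < ⊤ := by
        rw [lt_top_iff_ne_top]
        intro htop
        have h1 : finrank ℝ W' = 3 := by rw [htop, finrank_top, h3]
        have h2 := Submodule.finrank_add_le_finrank_add_finrank W (Submodule.span ℝ {p - x})
        have h4 : finrank ℝ (Submodule.span ℝ {p - x}) ≤ 1 := by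
          refine (finrank_span_le_card _).trans ?_
          simp
        have h5 : finrank ℝ W' ≤ finrank ℝ W + finrank ℝ (Submodule.span ℝ {p - x}) := h2
        omega
      obtain ⟨f, hf0, hf1⟩ := Submodule.exists_le_ker_of_lt_top W' hlt
      refine ⟨LinearMap.toContinuousLinearMap f, ?_, ?_, ?_⟩
      · intro hcon
        apply hf0
        ext w
        exact congrArg (fun g : E →L[ℝ] ℝ => g w) hcon
      · exact hf1 (Submodule.mem_sup_right (Submodule.mem_span_singleton_self _))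
      · intro W2 hW2 _ w hw
        have : w ∈ W := (hW w).2 ((hW2 w).1 hw)
        exact hf1 (Submodule.mem_sup_left this)
    · -- any functional vanishing at `p - x`
      have hlt : Submodule.span ℝ {p - x} < ⊤ := by
        rw [lt_top_iff_ne_top]
        intro htop
        have h1 : finrank ℝ (Submodule.span ℝ {p - x}) = 3 := by rw [htop, finrank_top, h3]
        have h4 : finrank ℝ (Submodule.span ℝ {p - x}) ≤ 1 := by
          refine (finrank_span_le_card _).trans ?_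
          simp
        omega
      obtain ⟨f, hf0, hf1⟩ := Submodule.exists_le_ker_of_lt_top _ hlt
      refine ⟨LinearMap.toContinuousLinearMap f, ?_, ?_, ?_⟩
      · intro hcon
        apply hf0
        ext w
        exact congrArg (fun g : E →L[ℝ] ℝ => g w) hcon
      · exact hf1 (Submodule.mem_span_singleton_self _)
      · intro W2 hW2 h2 w hw
        exfalso
        apply hf
        have e : W2 = W := by
          ext w; rw [hW, hW2]
        rw [← e]; exact h2
  choose g hg0 hgp hgW using key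
  -- the outer point
  let 𝒮 : Finset (Set (E →L[ℝ] ℝ)) := ((actF_finite T hx).finite_subsets).toFinset
  let G : Finset ((E →L[ℝ] ℝ) × ℝ) := 𝒮.image fun S => (g S, g S x)
  have hdense := dense_ne (F := G) (by
    intro h hh
    obtain ⟨S, -, rfl⟩ := Finset.mem_image.1 hh
    exact hg0 S)
  have hUo : IsOpen (ball x r ∩ {y | h0.2 < h0.1 y}) :=
    isOpen_ball.inter (isOpen_lt continuous_const h0.1.continuous)
  have hUn : (ball x r ∩ {y | h0.2 < h0.1 y}).Nonempty := by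
    refine ⟨x + s0 • v, ?_, ?_⟩
    · rw [mem_ball, dist_eq_norm, add_sub_cancel_left, norm_smul, Real.norm_eq_abs,
        abs_of_pos hs0]
      exact hs0'.2
    · show h0.2 < h0.1 (x + s0 • v)
      rw [map_add, map_smul, e0, smul_eq_mul]
      have := mul_pos hs0 (hvpos h0 hh0 e0)
      linarith
  obtain ⟨q, ⟨hqb, hq0⟩, hqG⟩ := hdense.inter_open_nonempty _ hUo hUn
  -- the last point of the segment in the tile
  let σ : ℝ → E := fun s => p + s • (q - p)
  have hσ : Continuous σ := by fun_prop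
  have hσb : ∀ s ∈ Icc (0 : ℝ) 1, σ s ∈ ball x r := by
    intro s hs
    have : σ s = (1 - s) • p + s • q := by simp only [σ]; module
    rw [this]
    exact (convex_ball x r) hpb hqb (by linarith [hs.2]) hs.1 (by ring)
  let A : Set ℝ := Icc 0 1 ∩ σ ⁻¹' P (T.H i)
  have hAc : IsCompact A := isCompact_Icc.inter_right ((isClosed_P _).preimage hσ)
  have hAn : A.Nonempty := ⟨0, ⟨le_rfl, zero_le_one⟩, by
    show p + (0 : ℝ) • (q - p) ∈ P (T.H i)
    rw [zero_smul, add_zero]; exact I_sub_P _ hpI⟩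
  obtain ⟨s, hsA, hsmax⟩ := hAc.exists_isGreatest hAn
  have hs1 : s ≠ 1 := by
    rintro rfl
    have h1 : q ∈ P (T.H i) := by
      have := hsA.2
      simpa [σ] using this
    exact absurd (h1 h0 hh0) (not_le.2 hq0)
  have hs1' : s < 1 := lt_of_le_of_ne hsA.1.2 hs1
  have hσI : σ s ∉ I (T.H i) := by
    intro hI
    have h1 : ∀ᶠ s' in 𝓝 s, σ s' ∈ I (T.H i) :=
      hσ.continuousAt.eventually_mem ((isOpen_I _).mem_nhds hI)
    have h2 : ∀ᶠ s' in 𝓝[>] s, σ s' ∈ I (T.H i) ∧ s' < 1 ∧ s < s' := by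
      filter_upwards [h1.filter_mono nhdsWithin_le_nhds,
        (gt_mem_nhds hs1').filter_mono nhdsWithin_le_nhds, self_mem_nhdsWithin] with a b c d
      exact ⟨b, c, d⟩
    obtain ⟨s', h4, h5, h6⟩ := h2.exists
    have := hsmax ⟨⟨hsA.1.1.trans h6.le, h5.le⟩, I_sub_P _ h4⟩
    linarith
  have hs0pos : 0 < s := by
    rcases eq_or_lt_of_le hsA.1.1 with h1 | h1
    · exfalso
      apply hσI
      rw [← h1]
      show p + (0 : ℝ) • (q - p) ∈ I (T.H i)
      rw [zero_smul, add_zero]; exact hpI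
    · exact h1
  set y : E := σ s with hy
  have hyb : y ∈ ball x r := hσb s hsA.1
  have hyO : y ∈ Om := hO hyb
  have hxy : x ∈ T.cc y := mem_cc_of_good T hb hyb
  have hyd : T.dim y < 3 := by
    have := dim_lt_finrank T hyO (i := i) hsA.2 hσI
    omega
  refine ⟨y, hyO, ?_, hxy, T.cc_sub_tile hsA.2⟩
  by_contra hd2
  have hyd1 : T.dim y ≤ 1 := by omega
  -- the subspace of y
  let S : Set (E →L[ℝ] ℝ) := {f | ∃ j ∈ T.at_ y, ∃ h ∈ T.H j, h.1 y = h.2 ∧ h.1 = f}
  have hS : ∀ w, w ∈ T.V y ↔ ∀ f ∈ S, f w = 0 := by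
    intro w
    rw [T.mem_V]
    constructor
    · rintro h1 f ⟨j, hj, h, hh, e, rfl⟩
      exact h1 j hj h hh e
    · intro h1 j hj h hh e
      exact h1 _ ⟨j, hj, h, hh, e, rfl⟩
  have hSsub : S ⊆ actF T x := by
    rintro f ⟨j, hj, h, hh, e, rfl⟩
    have hjx := (hb y hyb).1 hj
    refine ⟨j, hjx, h, hh, ?_, rfl⟩
    by_contra hne
    have := (hb y hyb).2 j hjx h hh (lt_of_le_of_ne (hjx h hh) hne)
    linarith
  have hSm : S ∈ 𝒮 := by
    simp only [𝒮, Set.Finite.mem_toFinset]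
    exact hSsub
  have h1 : g S (y - x) = 0 := by
    refine hgW S (T.V y) hS hyd1 _ ?_
    have h2 := T.sub_mem_V hxy
    have h4 := (T.V y).neg_mem h2
    rwa [neg_sub] at h4
  have h2 := hqG _ (Finset.mem_image_of_mem _ hSm)
  apply h2
  show g S q = g S x
  have e1 : y - x = (p - x) + s • ((q - x) - (p - x)) := by
    rw [hy]; simp only [σ]; module
  have h5 : g S p = g S x := by
    have := hgp S
    rw [map_sub] at this
    linarith
  rw [e1] at h1
  simp only [map_add, map_smul, map_sub, smul_eq_mul, h5] at h1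
  have h6 : s * (g S q - g S x) = 0 := by linarith
  rcases mul_eq_zero.1 h6 with h4 | h4
  · exact absurd h4 hs0pos.ne'
  · linarith

end Cell2

variable {T : Tiling Om ι} {f : E → E}

theorem locPL_cont {h : E → E} {U : Set E} (hh : LocPL h U) : ContinuousOn h U := by
  intro x hx
  obtain ⟨r, hr, h1⟩ := hh x hx
  exact (h1.1.continuousAt (ball_mem_nhds x hr)).continuousWithinAt

/-- (C0) the maximum principle -/
theorem capture {h hi : E → E} (H : HP Om La h hi) (hLa : IsOpen La) (Ψ : E ≃ₜ E)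
    (hΨ : MapsTo Ψ Om Om) {P B : Set E} (hP : IsCompact P) (hPO : P ⊆ Om)
    (hB : Convex ℝ B) (hBc : IsClosed B) (hBn : B.Nonempty)
    (hb : ∀ x ∈ P, x ∉ interior P → h (Ψ x) ∈ B) : ∀ x ∈ P, h (Ψ x) ∈ B := by
  intro x0 hx0
  by_contra hn
  obtain ⟨ℓ, u, h1, h2⟩ := geometric_hahn_banach_closed_point hB hBc hn
  have hcont : ContinuousOn (fun x => ℓ (h (Ψ x))) P :=
    ℓ.continuous.comp_continuousOn
      ((locPL_cont H.pl).comp Ψ.continuous.continuousOn fun x hx => hΨ (hPO hx))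
  obtain ⟨x1, hx1, hmax⟩ := hP.exists_isMaxOn ⟨x0, hx0⟩ hcont
  have h3 : u < ℓ (h (Ψ x1)) := lt_of_lt_of_le h2 (hmax hx0)
  have hint : x1 ∈ interior P := by
    by_contra h4
    exact absurd (h1 _ (hb x1 hx1 h4)) (not_lt.2 h3.le)
  obtain ⟨b, hb'⟩ := hBn
  have h5 : 0 < ℓ (h (Ψ x1) - b) := by rw [map_sub]; linarith [h1 b hb']
  set v := h (Ψ x1) - b with hv
  have hyL : h (Ψ x1) ∈ La := H.mt (hΨ (hPO hx1))
  have e : Ψ.symm (hi (h (Ψ x1))) = x1 := by
    rw [H.li _ (hΨ (hPO hx1)), Ψ.symm_apply_apply]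
  have hc : ContinuousAt (fun y => Ψ.symm (hi y)) (h (Ψ x1)) :=
    Ψ.symm.continuous.continuousAt.comp ((locPL_cont H.pli).continuousAt (hLa.mem_nhds hyL))
  have hev : ∀ᶠ y in nhds (h (Ψ x1)), y ∈ La ∧ Ψ.symm (hi y) ∈ interior P :=
    (hLa.eventually_mem hyL).and
      (hc.eventually_mem (by simp only [e]; exact isOpen_interior.mem_nhds hint))
  have hs : ContinuousAt (fun s : ℝ => h (Ψ x1) + s • v) 0 := by fun_prop
  have hs' : ∀ᶠ s in nhds (0 : ℝ), (h (Ψ x1) + s • v) ∈ La ∧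
      Ψ.symm (hi (h (Ψ x1) + s • v)) ∈ interior P := by
    have hev' : ∀ᶠ y in nhds (h (Ψ x1) + (0 : ℝ) • v), y ∈ La ∧ Ψ.symm (hi y) ∈ interior P := by
      rw [zero_smul, add_zero]
      exact hev
    exact hs.eventually hev'
  obtain ⟨s, ⟨hs1, hs2⟩, hs0⟩ :=
    ((hs'.filter_mono (nhdsWithin_le_nhds (s := Ioi (0 : ℝ)))).and self_mem_nhdsWithin).exists
  have h6 := hmax (interior_subset hs2)
  simp only [Set.mem_ofPred_eq] at h6
  rw [Ψ.apply_symm_apply, H.ri _ hs1, map_add, map_smul, smul_eq_mul] at h6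
  have h7 : 0 < s * ℓ v := mul_pos hs0 h5
  linarith

theorem dim_lt_of_notMem_interior (h3 : Module.finrank ℝ E = 3) {x' x : E} (hx' : x' ∈ Om)
    (hx : x ∈ T.cc x') (hn : x ∉ interior (T.cc x')) : T.dim x < 3 := by
  by_contra hcon
  have h1 : T.dim x ≤ 3 := h3 ▸ T.dim_le_finrank x
  have hxO := T.cc_sub_Om hx' hx
  have hV : T.V x = ⊤ :=
    Submodule.eq_top_of_finrank_eq (by rw [h3]; exact le_antisymm h1 (not_lt.1 hcon))
  obtain ⟨i, hi⟩ := (T.V_eq_top_iff hxO).1 hV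
  apply hn
  rw [mem_interior]
  refine ⟨T.oc x, (T.oc_sub_cc x).trans (T.cc_sub_of_mem hx), ?_, T.self_mem_oc x⟩
  rw [T.oc_eq_tile hi]
  exact isOpen_I _


/-- the capture lemma for a tile -/
theorem capture_tile (h3 : finrank ℝ E = 3) {h hi : E → E} (H : HP Om La h hi)
    (hLa : IsOpen La) {Ψ : E ≃ₜ E} (hΨ : Mv T Ψ) (i : ι) {B : Set E}
    (hB : Convex ℝ B) (hBc : IsClosed B)
    (hb : ∀ y ∈ Om, T.dim y = 2 → T.cc y ⊆ P (T.H i) → h '' (Ψ '' T.cc y) ⊆ B) :
    ∀ x ∈ P (T.H i), h (Ψ x) ∈ B := by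
  obtain ⟨z0, hz0⟩ := T.ne i
  have hz0O : z0 ∈ Om := T.sub i (I_sub_P _ hz0)
  have hcc := T.cc_eq_tile hz0
  have key : ∀ x ∈ T.cc z0, x ∉ interior (T.cc z0) → h (Ψ x) ∈ B := by
    intro x hx hn
    have hxO := T.cc_sub_Om hz0O hx
    have hd := dim_lt_of_notMem_interior h3 hz0O hx hn
    obtain ⟨y, hy, hyd, hxy, hyi⟩ := exists_cell2_tile T h3 hxO (hcc ▸ hx) hd
    exact hb y hy hyd hyi ⟨Ψ x, ⟨x, hxy, rfl⟩, rfl⟩
  intro x hx
  rw [← hcc] at hx
  refine capture H hLa Ψ hΨ.mapsTo (T.isCompact_cc hz0O) (T.cc_sub_Om hz0O) hB hBc ?_ key x hx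
  obtain ⟨v, hv, hv0⟩ := T.exists_vertex hz0O
  refine ⟨h (Ψ v), key v hv fun hn => ?_⟩
  have hvO := T.cc_sub_Om hz0O hv
  have h1 : v ∈ I (T.H i) := by
    have h2 : interior (P (T.H i)) = I (T.H i) := Srg_465.interior_P ⟨z0, hz0⟩
    rw [← h2, ← hcc]; exact hn
  have h4 := (T.V_eq_top_iff hvO).2 ⟨i, h1⟩
  have h5 : T.dim v = 3 := by
    show finrank ℝ (T.V v) = 3
    rw [h4, finrank_top, h3]
  omega

/-- **2SK for a finite family of tiles**, set form -/
theorem two_sk_tiles (h3 : finrank ℝ E = 3) (hLa : IsOpen La) (hS : USurg T La)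
    {J : Type*} [Finite J] (i : J → ι) {Y : J → Set E}
    (O : ∀ j, One T La f (P (T.H (i j))) (Y j)) {n : ℕ} (col : J → Fin n)
    (hcol : ∀ j j', j ≠ j' → col j = col j' → Disjoint (Y j) (Y j')) :
    ∃ η > 0, ∀ h hi : E → E, HP Om La h hi → (∀ x ∈ Om, ‖h x - f x‖ ≤ η) →
      ∃ Ψ : E ≃ₜ E, Mv T Ψ ∧ ∀ Z : ℕ → Set E, (∀ m, Z m ⊆ Z (m + 1)) →
        (∀ m < n, ∀ j, (Z m ∩ Y j).Nonempty → Y j ⊆ Z (m + 1)) →
        Convex ℝ (Z n) → IsClosed (Z n) →
        (∀ j, Y j ⊆ Z 0 → ∀ x ∈ P (T.H (i j)), h (Ψ x) ∈ Z n) ∧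
        (∀ k, (∀ x ∈ P (T.H k), T.dim x ≤ 2 → h x ∈ Z 0) → ∀ x ∈ P (T.H k), h (Ψ x) ∈ Z n) := by
  obtain ⟨η, hη, g⟩ := family hS O col hcol
  refine ⟨η, hη, fun h hi H hh => ?_⟩
  obtain ⟨Ψ, hΨ, g'⟩ := g h hi H hh
  refine ⟨Ψ, hΨ, fun Z hZ hZY hC hCc => ?_⟩
  obtain ⟨g1, g2⟩ := g' Z hZ hZY
  refine ⟨fun j hj => capture_tile h3 H hLa hΨ (i j) hC hCc fun y hy hyd hyi =>
    g2 j hj y hy hyd hyi, fun k hk => capture_tile h3 H hLa hΨ k hC hCc fun y hy hyd hyi => ?_⟩
  refine g1 y hy hyd ?_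
  rintro _ ⟨x, hx, rfl⟩
  refine hk x (hyi hx) ?_
  have h1 : T.dim x ≤ T.dim y := T.dim_le hx
  omega

/-- **2SK for a finite family of tiles**, metric form: `Ψ` is a `Mv` of the tiling (PL, compact
support in `Om`, the identity near the 1-skeleton); on the tile `i j` the map `f ∘ Ψ` stays in the
ball round `Y j` enlarged by `n` times the local diameter of the bodies `Y j'`; on every other tile
it stays in the ball round the image of this tile, enlarged likewise. -/
theorem two_sk_near (h3 : finrank ℝ E = 3) (hLa : IsOpen La) (hS : USurg T La)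
    {J : Type*} [Finite J] (i : J → ι) {Y : J → Set E}
    (O : ∀ j, One T La f (P (T.H (i j))) (Y j)) {n : ℕ} (col : J → Fin n)
    (hcol : ∀ j j', j ≠ j' → col j = col j' → Disjoint (Y j) (Y j'))
    (happ : ∀ η > 0, ∃ h hi, HP Om La h hi ∧ ∀ x ∈ Om, ‖h x - f x‖ ≤ η) {e : ℝ} (he : 0 < e) :
    ∃ Ψ : E ≃ₜ E, Mv T Ψ ∧
      (∀ j (y0 : E) (R D : ℝ), 0 ≤ D → Y j ⊆ closedBall y0 R →
        (∀ j', (Y j' ∩ closedBall y0 (R + n * D + e)).Nonempty →
          ∀ y ∈ Y j', ∀ y' ∈ Y j', ‖y - y'‖ ≤ D) →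
        ∀ x ∈ P (T.H (i j)), ‖f (Ψ x) - y0‖ ≤ R + n * D + e) ∧
      (∀ k (y0 : E) (R D : ℝ), 0 ≤ D → (∀ x ∈ P (T.H k), T.dim x ≤ 2 → f x ∈ closedBall y0 R) →
        (∀ j', (Y j' ∩ closedBall y0 (R + n * D + e)).Nonempty →
          ∀ y ∈ Y j', ∀ y' ∈ Y j', ‖y - y'‖ ≤ D) →
        ∀ x ∈ P (T.H k), ‖f (Ψ x) - y0‖ ≤ R + n * D + e) := by
  obtain ⟨η, hη, g⟩ := two_sk_tiles h3 hLa hS i O col hcol
  obtain ⟨h, hi, H, hh⟩ := happ (min η (e / 2)) (lt_min hη (by positivity))
  have hh1 : ∀ x ∈ Om, ‖h x - f x‖ ≤ e / 2 := fun x hx => (hh x hx).trans (min_le_right _ _)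
  obtain ⟨Ψ, hΨ, g'⟩ := g h hi H fun x hx => (hh x hx).trans (min_le_left _ _)
  -- balls
  have key : ∀ (y0 : E) (R D : ℝ), 0 ≤ D →
      (∀ j', (Y j' ∩ closedBall y0 (R + n * D)).Nonempty → ∀ y ∈ Y j', ∀ y' ∈ Y j', ‖y - y'‖ ≤ D) →
      (∀ j, Y j ⊆ closedBall y0 R → ∀ x ∈ P (T.H (i j)), ‖h (Ψ x) - y0‖ ≤ R + n * D) ∧
      (∀ k, (∀ x ∈ P (T.H k), T.dim x ≤ 2 → h x ∈ closedBall y0 R) →
        ∀ x ∈ P (T.H k), ‖h (Ψ x) - y0‖ ≤ R + n * D) := by
    intro y0 R D hD hdiam
    obtain ⟨g1, g2⟩ := g' (fun m => closedBall y0 (R + m * D))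
      (by
        intro m
        refine closedBall_subset_closedBall ?_
        push_cast
        nlinarith)
      (by
        rintro m hm j' ⟨y', hy'', hy'⟩ y hy
        have hmn : (m : ℝ) * D ≤ n * D :=
          mul_le_mul_of_nonneg_right (by exact_mod_cast hm.le) hD
        have h1 := hdiam j' ⟨y', hy', closedBall_subset_closedBall (by linarith) hy''⟩ y hy y' hy'
        have h2 : ‖y' - y0‖ ≤ R + m * D := by
          rw [← dist_eq_norm]; exact hy''
        show y ∈ closedBall y0 (R + ((m + 1 : ℕ) : ℝ) * D)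
        rw [mem_closedBall, dist_eq_norm]
        have e1 : y - y0 = (y - y') + (y' - y0) := by abel
        rw [e1]
        refine (norm_add_le _ _).trans ?_
        push_cast
        linarith)
      (convex_closedBall _ _) isClosed_closedBall
    refine ⟨fun j hj x hx => ?_, fun k hk x hx => ?_⟩
    · have := g1 j (by simpa using hj) x hx
      rwa [mem_closedBall, dist_eq_norm] at this
    · have := g2 k (by simpa using hk) x hx
      rwa [mem_closedBall, dist_eq_norm] at this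
  have hfΨ : ∀ x ∈ Om, ∀ y0 : E, ‖f (Ψ x) - y0‖ ≤ ‖h (Ψ x) - y0‖ + e / 2 := by
    intro x hx y0
    have h1 := hh1 (Ψ x) (hΨ.mapsTo hx)
    have e1 : f (Ψ x) - y0 = (h (Ψ x) - y0) - (h (Ψ x) - f (Ψ x)) := by abel
    rw [e1]
    exact (norm_sub_le _ _).trans (by linarith)
  refine ⟨Ψ, hΨ, fun j y0 R D hD hj hdiam x hx => ?_, fun k y0 R D hD hk hdiam x hx => ?_⟩
  · have h1 := (key y0 R D hD fun j' hj' => hdiam j' (hj'.mono (inter_subset_inter_right _
      (closedBall_subset_closedBall (by linarith))))).1 j hj x hx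
    have h2 := hfΨ x (T.sub _ hx) y0
    linarith
  · have h1 := (key y0 (R + e / 2) D hD fun j' hj' => hdiam j' (hj'.mono
      (inter_subset_inter_right _ (closedBall_subset_closedBall (by linarith))))).2 k
      (by
        intro z hz hzd
        have h4 := hk z hz hzd
        have h5 := hh1 z (T.sub _ hz)
        rw [mem_closedBall, dist_eq_norm] at h4 ⊢
        have e1 : h z - y0 = (h z - f z) + (f z - y0) := by abel
        rw [e1]
        exact (norm_add_le _ _).trans (by linarith)) x hx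
    have h2 := hfΨ x (T.sub _ hx) y0
    linarith

/-- greedy colouring -/
theorem exists_col {J : Type*} [Finite J] (R : J → J → Prop) (hR : ∀ j j', R j j' → R j' j)
    {n : ℕ} (hn : ∀ j, {j' | j' ≠ j ∧ R j j'}.ncard < n) :
    ∃ col : J → Fin n, ∀ j j', j ≠ j' → col j = col j' → ¬ R j j' := by
  classical
  cases nonempty_fintype J
  rcases isEmpty_or_nonempty J with h0 | ⟨⟨j0⟩⟩
  · exact ⟨fun j => (h0.false j).elim, fun j => (h0.false j).elim⟩
  have hn0 : 0 < n := lt_of_le_of_lt (Nat.zero_le _) (hn j0)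
  have key : ∀ S : Finset J, ∃ col : J → Fin n,
      ∀ j ∈ S, ∀ j' ∈ S, j ≠ j' → col j = col j' → ¬ R j j' := by
    intro S
    induction S using Finset.induction_on with
    | empty => exact ⟨fun _ => ⟨0, hn0⟩, by simp⟩
    | insert a S ha ih =>
      obtain ⟨col, hc⟩ := ih
      obtain ⟨c, hcn⟩ : ∃ c : Fin n, c ∉ col '' {j' | j' ≠ a ∧ R a j'} := by
        by_contra hcon
        push Not at hcon
        have h1 : col '' {j' | j' ≠ a ∧ R a j'} = univ := eq_univ_of_forall hcon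
        have h2 : (col '' {j' | j' ≠ a ∧ R a j'}).ncard ≤ _ := ncard_image_le (toFinite _)
        rw [h1, ncard_univ, Nat.card_fin] at h2
        exact absurd (hn a) (not_lt.2 h2)
      refine ⟨Function.update col a c, fun j hj j' hj' hne hcc hRR => ?_⟩
      rcases Finset.mem_insert.1 hj with e1 | h1 <;> rcases Finset.mem_insert.1 hj' with e2 | h2
      · exact hne (e1.trans e2.symm)
      · subst e1
        rw [Function.update_self, Function.update_of_ne (Ne.symm hne)] at hcc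
        exact hcn ⟨j', ⟨Ne.symm hne, hRR⟩, hcc.symm⟩
      · subst e2
        rw [Function.update_self, Function.update_of_ne hne] at hcc
        exact hcn ⟨j, ⟨hne, hR _ _ hRR⟩, hcc⟩
      · have hja : j ≠ a := by rintro rfl; exact ha h1
        have hja' : j' ≠ a := by rintro rfl; exact ha h2
        rw [Function.update_of_ne hja, Function.update_of_ne hja'] at hcc
        exact hc j h1 j' h2 hne hcc hRR
  obtain ⟨col, hc⟩ := key Finset.univ
  exact ⟨col, fun j j' => hc j (Finset.mem_univ _) j' (Finset.mem_univ _)⟩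

end Crest.Agent.R096.Sk3_270
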