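import Crest.Agent.R096.E1r1_914
import Crest.Agent.R096.Ecm5_446
import Crest.Agent.R096.Sk3b_270
import Crest.Agent.R096.Leaf2_965
import Crest.Agent.R096.SkB1d_662
import Crest.Agent.R096.Mrg2_715

/-!
# R096 (row 96), (E1) at the exact cores (337 #10755 (3)(c)), part 2 (helper914)

* `fin_side`, `cov_side` : hypotheses on the tile from `Full`;
* `mem_side_K` : the sides of an ordinary tile of `meshK`;
* `ring_exact`, `cont_exact` : the levels of the heights of an exact core are preconnected;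
* `one_disc` : (E1) from 446's `Disc` (final state);
* `one_init`, `one_final` : (E1) for an exact core, at `s₀` and at the final state.
-/

set_option autoImplicit false
set_option linter.unusedSectionVars false
set_option linter.style.longLine false

open Set Relation

namespace Crest.Agent.R096.E1r_914

open Crest.Agent.R096.St_147 Crest.Agent.R096.Seq_213 Crest.Agent.R096.Lm_117
  Crest.Agent.R096.Ac_117 Crest.Agent.R096.Ecm_446 Crest.Agent.R096.Msh_715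
  Crest.Agent.R096.Cm_117
open Crest.Agent.R096.Bd_416 (Cmb)
open Crest.Agent.R096.Agl5_543 (C2 meshC)

/-! ### the tile in the mesh -/

section tile

variable {E : Type} [NormedAddCommGroup E] [NormedSpace ℝ E] [FiniteDimensional ℝ E]
variable {Om : Set E} {ι ι' Φ Q : Type} [PartialOrder Q] {dim : Q → ℕ} {M : MeshC ι' Φ E}
variable {L : LM M Q dim} {T : Tiling Om ι} {i₀ : ι} {q₀ : ι'} {κ : Q → T.Cell}

/-- `q₀` is the tile `i₀` of the tiling: its faces are the 2-cells of the boundary of the tile -/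
def TileOf (L : LM M Q dim) (T : Tiling Om ι) (κ : Q → T.Cell) (q₀ : ι') (i₀ : ι) : Prop :=
  ∀ F, q₀ ∈ M.side F ↔ (κ (L.cf F)).set ⊆ P (T.H i₀)

theorem dk_side (hT : OnT T L.toSk κ) (hs : TileOf L T κ q₀ i₀) :
    ∀ F, q₀ ∈ M.side F → L.cf F ∈ Dk i₀ κ := fun F hF =>
  ⟨(hs F).1 hF, by rw [hT.dim, L.cf_dim]⟩

theorem fin_side (hF : Full T i₀ κ) (hs : TileOf L T κ q₀ i₀) : {F | q₀ ∈ M.side F}.Finite := by
  obtain ⟨z, hz⟩ := T.ne i₀
  have hzO : z ∈ Om := T.sub i₀ (I_sub_P _ hz)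
  refine Set.Finite.of_finite_image (f := fun F => (κ (L.cf F)).set)
    ((T.finite_below hzO).subset ?_) ?_
  · rintro _ ⟨F, hF, rfl⟩
    refine ⟨⟨(κ (L.cf F)).pt, T.sub i₀ ((hs F).1 hF (by rw [(κ (L.cf F)).set_eq]; exact T.self_mem_cc _)), (κ (L.cf F)).set_eq⟩, ?_⟩
    rw [T.cc_eq_tile hz]
    exact (hs F).1 hF
  · intro F _ F' _ h
    apply L.cf_inj
    apply hF.inj
    exact le_antisymm (Tiling.Cell.le_def.2 (le_of_eq h)) (Tiling.Cell.le_def.2 (le_of_eq h.symm))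

theorem cov_side (h3 : Module.finrank ℝ E = 3) (hT : OnT T L.toSk κ) (hF : Full T i₀ κ)
    (hsur : ∀ q, dim q = 2 → ∃ F, L.cf F = q) (hs : TileOf L T κ q₀ i₀) :
    ∀ x ∈ P (T.H i₀), x ∉ I (T.H i₀) → ∃ F, q₀ ∈ M.side F ∧ x ∈ (κ (L.cf F)).set := by
  intro x hx hI
  have hO := T.sub i₀ hx
  have hd : T.dim x < 3 := by
    rcases Nat.lt_or_ge (T.dim x) 3 with h | h
    · exact h
    · exfalso
      have h1 : T.V x = ⊤ := Submodule.eq_top_of_finrank_eq (le_antisymm (Submodule.finrank_le _)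
        (by rw [h3]; exact h))
      obtain ⟨i, hi⟩ := (T.V_eq_top_iff hO).1 h1
      have h2 := T.at_eq_singleton hi
      have h4 : i₀ ∈ T.at_ x := hx
      rw [h2] at h4
      have h5 : i₀ = i := h4
      exact hI (h5 ▸ hi)
  obtain ⟨y, hy, hyd, hxy, hyi⟩ := Sk3_270.exists_cell2_tile T h3 hO hx hd
  obtain ⟨q, hq⟩ := hF.sur (T.cl hy) ⟨by rw [T.cl_set]; exact hyi, by rw [T.dim_cl, hyd]⟩
  have hq2 : dim q = 2 := by rw [← hT.dim q, hq, T.dim_cl, hyd]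
  obtain ⟨F, hF'⟩ := hsur q hq2
  refine ⟨F, (hs F).2 ?_, ?_⟩
  · rw [hF', hq, T.cl_set]; exact hyi
  · rw [hF', hq, T.cl_set]; exact hxy

theorem inj_dk (hF : Full T i₀ κ) : ∀ p ∈ Dk i₀ κ, ∀ p' ∈ Dk i₀ κ, κ p = κ p' → p = p' :=
  fun p _ p' _ h => hF.inj p p' h

end tile

/-! ### the sides of an ordinary tile of `meshK` -/

section meshk

variable {E : Type} [NormedAddCommGroup E] [NormedSpace ℝ E] [FiniteDimensional ℝ E]
variable {Om : Set E} {ι Kp : Type} {T : Tiling Om ι} {h3 : Module.finrank ℝ E = 3}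
  {Kc : Kp → Set E} {hK : ∀ c, Core (Kc c)}
  {hcc : ∀ c, ∀ x ∈ frontier (Kc c), T.cc x ⊆ frontier (Kc c)}
  {hdis : ∀ c c', c ≠ c' → Disjoint (Kc c) (Kc c')}

theorem mem_side_K {i₀ : ι} (h0 : ∀ c, ¬ P (T.H i₀) ⊆ Kc c)
    (F : {F : C2 T // ¬ (((meshC T h3).side F).map (piK T Kc)).IsDiag}) :
    Sum.inl i₀ ∈ (meshK T h3 Kc hK hcc hdis).side F ↔ F.1.1.set ⊆ P (T.H i₀) := by
  show Sum.inl i₀ ∈ ((meshC T h3).side F.1).map (piK T Kc) ↔ _
  rw [mem_map_iff]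
  constructor
  · rintro ⟨q, h1, h2⟩
    rw [← (piK_inl.1 h2).1]
    exact C2.sub_tile (h3 := h3) h1
  · intro h
    refine ⟨i₀, ?_, piK_inl.2 ⟨rfl, h0⟩⟩
    show i₀ ∈ F.1.side h3
    rw [C2.mem_side]
    exact h (by rw [F.1.1.set_eq]; exact T.self_mem_cc _)

/-- the tile of `meshK` for any `L` whose faces are the 2-cells -/
theorem tileOf_K {Q : Type} [PartialOrder Q] {dim : Q → ℕ} {L : LM (meshK T h3 Kc hK hcc hdis) Q dim}
    {κ : Q → T.Cell} {i₀ : ι} (h0 : ∀ c, ¬ P (T.H i₀) ⊆ Kc c)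
    (hcf : ∀ F, κ (L.cf F) = F.1.1) : TileOf L T κ (Sum.inl i₀) i₀ := fun F => by
  rw [hcf]; exact mem_side_K h0 F

end meshk

/-! ### the rings of an exact core -/

section exact

open Crest.Agent.R096.Bsp_628 Crest.Agent.R096.Brk1_582 Crest.Agent.R096.Brk2_582
open Crest.Agent.R096.Brk3_582 Crest.Agent.R096.Brk5_582
open Crest.Agent.R096.SkC1_961 (E3 FoamD th)
open Crest.Agent.R096.Mbf_337

variable {δ κ0 R c0 : ℝ} {La Om : Set E3} {ι ι₃ : Type} {Φ : FoamD δ κ0 R c0 La}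
  {T : Tiling Om ι} {T₃ : Tiling Om ι₃} {f : E3 → E3}
variable {κ1 κ2 : ℝ} {c : Φ.F} {i : ι} {i₃ : ι₃} {A : E3 ≃ᵃ[ℝ] E3} {lam : ℝ} {z : E3} {M : ℕ}

theorem th_eq (h : Exact Φ T f κ1 κ2 c i A lam z) (x : E3) :
    Leaf_965.thH A lam h.lam0.ne' z x = th A lam z x := Leaf_965.thH_apply _ _ _ _ _

/-- **the levels of the heights on the boundary of an exact core are preconnected** -/
theorem ring_exact (hLa : IsOpen La) (h : Exact Φ T f κ1 κ2 c i A lam z) (hM : 0 < M)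
    (hH : T₃.H i₃ = T.H i) (a : Φ.F) (k : ℕ) (hne : (lvl T₃ i₃ (U Φ A lam z M) a k).Nonempty) :
    IsPreconnected (lvl T₃ i₃ (U Φ A lam z M) a k) := by
  have F := foamΦ hLa Φ
  have hM' : (0 : ℝ) < M := by exact_mod_cast hM
  set t : ℝ := ((k : ℝ) + 1 / 2) / M with ht
  have hlev : lvl T₃ i₃ (U Φ A lam z M) a k =
      (Leaf_965.thH A lam h.lam0.ne' z).symm '' Exc_965.ring (Pc Φ.F) (bc (F := Φ.F)) c a t := by
    ext x
    unfold lvl
    rw [hH]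
    constructor
    · rintro ⟨h1, h2, h4⟩
      refine ⟨th A lam z x, ⟨(th_mem h).1 h1, (Leaf_965.not_mem_I_iff h hLa h1).1 h2, ?_⟩, ?_⟩
      · rw [ht, eq_div_iff hM'.ne', mul_comm]
        exact h4
      · rw [← th_eq h, Homeomorph.symm_apply_apply]
    · rintro ⟨y, ⟨h1, h2, h4⟩, rfl⟩
      have e : th A lam z ((Leaf_965.thH A lam h.lam0.ne' z).symm y) = y := by
        rw [← th_eq h, Homeomorph.apply_symm_apply]
      have h5 : (Leaf_965.thH A lam h.lam0.ne' z).symm y ∈ P (T.H i) := (th_mem h).2 (by rw [e]; exact h1)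
      refine ⟨h5, (Leaf_965.not_mem_I_iff h hLa h5).2 (by rw [e]; exact h2), ?_⟩
      show (M : ℝ) * sb Φ (th A lam z _) a = _
      rw [e]
      rw [ht, eq_div_iff hM'.ne', mul_comm] at h4
      exact h4
  obtain ⟨x, hx1, hx2, hx3⟩ := hne
  rw [hH] at hx1
  have hxLa := th_La h hx1
  have hK := F.sc_mem_K hxLa
  have hsx : sb Φ (th A lam z x) a = t := by
    rw [ht, eq_div_iff hM'.ne', mul_comm]; exact hx3
  have ht0 : 0 < t := by positivity
  have ht1 : t < 1 := by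
    refine lt_of_le_of_ne (hsx ▸ (hK.1 a).2) ?_
    rw [ht, Ne, div_eq_one_iff_eq hM'.ne']
    exact half_ne_nat k M
  have hac : a ≠ c := by
    rintro rfl
    have h1 : sb Φ (th A lam z x) a = 0 := (F.sc_eq_zero hxLa).2 ((th_mem h).1 hx1)
    rw [hsx] at h1
    exact ht0.ne' h1
  have hne : (Pc Φ.F c ∩ Pc Φ.F a).Nonempty := by
    obtain ⟨y, hy⟩ := hK.2.2
    rw [mem_fc] at hy
    refine ⟨y, hy c ?_, hy a ?_⟩
    · show sc (Pc Φ.F) (bc (F := Φ.F)) (th A lam z x) c < 1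
      rw [(F.sc_eq_zero hxLa).2 ((th_mem h).1 hx1)]
      exact one_pos
    · show sb Φ (th A lam z x) a < 1
      rw [hsx]; exact ht1
  rw [hlev]
  exact ((Exc_965.isPreconnected_ring Φ.bf hLa (by simp) hac hne ht0 ht1).1).image _
    (Homeomorph.continuous _).continuousOn

/-- the heights are continuous -/
theorem cont_exact (hLa : IsOpen La) (h : Exact Φ T f κ1 κ2 c i A lam z) (hH : T₃.H i₃ = T.H i)
    (a : Φ.F) : ContinuousOn (fun x => U Φ A lam z M x a) (P (T₃.H i₃)) := by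
  have F := foamΦ hLa Φ
  have h1 : Continuous (th A lam z) := by
    have : th A lam z = Leaf_965.thH A lam h.lam0.ne' z := funext fun x => (th_eq h x).symm
    rw [this]; exact Homeomorph.continuous _
  rw [hH]
  exact continuousOn_const.mul ((continuousOn_sc_apply F a).comp h1.continuousOn
    fun x hx => th_La h hx)

end exact

/-! ### (E1) from `Disc` -/

section disc

variable {E : Type} [NormedAddCommGroup E] [NormedSpace ℝ E] [FiniteDimensional ℝ E]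
variable {Om : Set E} {ι ι' Φ Q J C : Type} [PartialOrder Q] {dim : Q → ℕ} {M : MeshC ι' Φ E}
variable {L : LM M Q dim} {T : Tiling Om ι} {i₀ : ι} {q₀ : ι'} {κ : Q → T.Cell}
variable {fam : J → C} {s : GSt M fam} {U : E → C → ℝ}

/-- **(E1) at one core tile from 446's `Disc`** -/
theorem one_disc (h3 : Module.finrank ℝ E = 3) (hT : OnT T L.toSk κ) (hF : Full T i₀ κ)
    (hsur : ∀ q, dim q = 2 → ∃ F, L.cf F = q) (hs : TileOf L T κ q₀ i₀) (G : CG T i₀ U)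
    (hU : ∀ a, ContinuousOn (fun x => U x a) (P (T.H i₀)))
    (hring : ∀ a k, (lvl T i₀ U a k).Nonempty → IsPreconnected (lvl T i₀ U a k))
    {hLF : LF L s} {lam : J → Q → ZMod 2} {hX : ∀ j c, L.toSk.XL (gP s j) (lam j) c}
    {lv : J → ℕ} {n : C → ℕ → ℕ} (hn : ∀ a, Monotone (n a))
    (X : Disc (cmb hLF lam hX) (Dk i₀ κ) lv n (lo U κ) (hi U κ))
    (h2 : F1 L s (Dk i₀ κ)) (j : J) : OneCyc s j q₀ := by
  -- the numbers of a cell with a point of the sheet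
  have num : ∀ q ∈ Dk i₀ κ, ∀ w ∈ s.P, w ∈ L.toSk.In q → s.lab w = j →
      n (fam j) (lo U κ q (fam j)) ≤ lv j ∧ lv j < n (fam j) (hi U κ q (fam j)) := by
    intro q hq w hw hwq hj
    have h4 := X.rng q hq (Quot.mk _ ⟨w, hw, hwq⟩ : Pc L s q)
    have h5 : (cmb hLF lam hX).col q (Quot.mk _ ⟨w, hw, hwq⟩ : Pc L s q) = j := hj
    rw [h5] at h4
    exact h4
  have hstep : ∀ q : Q, hi U κ q (fam j) ≤ lo U κ q (fam j) + 1 := fun q =>
    Nat.ceil_le_floor_add_one _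
  intro Z hZ F w F' w' hF1 hF1' hw hw' hj hj' hwZ
  obtain ⟨k1, k2⟩ := num _ (dk_side hT hs F hF1) w hw.1 (on_in le_rfl hw.2) hj
  set k := lo U κ (L.cf F) (fam j) with hk
  have k3 : hi U κ (L.cf F) (fam j) = k + 1 := by
    have h4 := hstep (L.cf F)
    have h5 : k < hi U κ (L.cf F) (fam j) := by
      by_contra hn'
      exact absurd (hn (fam j) (not_lt.1 hn')) (by omega)
    omega
  rw [k3] at k2
  refine one_level (a := fam j) (k := k) h3 hT G (inj_dk hF) hU (fin_side hF hs) (dk_side hT hs)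
    (cov_side h3 hT hF hsur hs) h2 (hring (fam j) k) ?_ ?_ Z hZ F w F' w' hF1 hF1' hw hw' hj hj' hwZ
  · intro q hq w hw hwq hj
    obtain ⟨m1, m2⟩ := num q hq w hw hwq hj
    have h4 := hstep q
    have h5 : lo U κ q (fam j) ≤ k := by
      by_contra hn'
      have := hn (fam j) (show k + 1 ≤ lo U κ q (fam j) by omega)
      omega
    have h6 : k < hi U κ q (fam j) := by
      by_contra hn'
      have := hn (fam j) (not_lt.1 hn')
      omega
    omega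
  · intro p hpD _ l1 l2
    obtain ⟨y, hy⟩ := X.ex p hpD j (by rw [show (cmb hLF lam hX).fam j = fam j from rfl, l1]; exact k1)
      (by rw [show (cmb hLF lam hX).fam j = fam j from rfl, l2]; exact k2)
    obtain ⟨v, hv⟩ := pts_ne (h := hLF) (y : Pc L s p)
    have hvi := pts_in hv
    exact ⟨v, hvi.1, hvi.2, by rw [← pcol_pts hv]; exact hy⟩

end disc

/-! ### the exact cores -/

section fin

open Crest.Agent.R096.Bsp_628 Crest.Agent.R096.Brk1_582 Crest.Agent.R096.Brk2_582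
open Crest.Agent.R096.Brk3_582 Crest.Agent.R096.Brk5_582
open Crest.Agent.R096.SkC1_961 (E3 FoamD th)
open Crest.Agent.R096.Mbf_337 Crest.Agent.R096.SkB_662 Crest.Agent.R096.Gl_422
open Crest.Agent.R096.Cp_298

variable {δ κ0 R c0 : ℝ} {La Om : Set E3} {ι ι₃ ι' Ph Q J Kq : Type} {Φ : FoamD δ κ0 R c0 La}
  {T : Tiling Om ι} {T₃ : Tiling Om ι₃} {f : E3 → E3}
variable {κ1 κ2 : ℝ} {c : Φ.F} {i : ι} {i₃ : ι₃} {A : E3 ≃ᵃ[ℝ] E3} {lam : ℝ} {z : E3} {M : ℕ}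
variable [PartialOrder Q] {dim : Q → ℕ} {Mh : MeshC ι' Ph E3} {L : LM Mh Q dim} {q₀ : ι'}
  {κ : Q → T₃.Cell} {fam : J → Φ.F}

/-- 662's `One` and 334's `Gnt.one` are `OneCyc` by definition -/
theorem oneCyc_iff {s : GSt Mh fam} {j : J} : OneCyc s j q₀ ↔ One s {F | q₀ ∈ Mh.side F} j := Iff.rfl

/-- **(E1) at an exact core, initial state** -/
theorem one_init (hLa : IsOpen La) (h : Exact Φ T f κ1 κ2 c i A lam z) (hM : 0 < M)
    (hH : T₃.H i₃ = T.H i) (hT : OnT T₃ L.toSk κ) (hF : Full T₃ i₃ κ)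
    (hsur : ∀ q, dim q = 2 → ∃ F, L.cf F = q) (hs : TileOf L T₃ κ q₀ i₃)
    (G : CG T₃ i₃ (U Φ A lam z M)) {τ : J → ℝ} {X V : J → Set E3}
    (Wd : CW T₃ i₃ (U Φ A lam z M) fam τ X V) {s : GSt Mh fam}
    (hX : ∀ w ∈ s.P, w ∈ P (T₃.H i₃) → w ∈ X (s.lab w)) {la : J → Q → ZMod 2}
    (hXL : ∀ j c, L.toSk.XL (gP s j) (la j) c)
    (hl : ∀ v ∈ Dk i₃ κ, dim v = 0 → ∀ j, la j v = 1 ↔ (κ v).pt ∈ V j) (j : J) (hτ : 0 < τ j) :
    OneCyc s j q₀ :=
  one_words (by simp) hT G (inj_dk hF) (cont_exact hLa h hH) (ring_exact hLa h hM hH)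
    (fin_side hF hs) (dk_side hT hs) (cov_side (by simp) hT hF hsur hs) Wd hX hXL hl j hτ

variable {O : Ori Mh} {σ : Q → ZMod 2} {Rel : E3 → E3 → Prop} {VV : Set E3}
  {Qd : Seq_213.Quads ι' Φ.F Kq} {κc : Φ.F → ℕ} {s₀ : GSt Mh fam} {far₀ : J → Set E3}
  {G₀ : Φ.F → Set E3} {Z : Φ.F → Set Q} {lam₀ : J → Q → ZMod 2} {v₀ v₁ : Φ.F → Q}
  {hfin : ∀ a, {j | fam j = a}.Finite} {kap : Φ.F → ℕ} {s : GSt Mh (fam' fam (Rk κc kap))}
  {far : Nm' fam (Rk κc kap) → Set E3} {β : E3 → E3} {lamF : Nm' fam (Rk κc kap) → Q → ZMod 2}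

/-- **(E1) at an exact core, final state** (the hypotheses of 446's `sto_disc`) -/
theorem one_final (hLa : IsOpen La) (he : Exact Φ T f κ1 κ2 c i A lam z) (hM : 0 < M)
    (hH : T₃.H i₃ = T.H i) (hi : StI L O σ Rel VV Qd κc s₀ far₀ G₀ Z lam₀ v₀ v₁)
    (h : StO L O σ Rel VV Qd κc s₀ far₀ Z lam₀ v₀ v₁ hfin kap s far β lamF)
    (hT : OnT T₃ L.toSk κ) (hF : Full T₃ i₃ κ) (hs : TileOf L T₃ κ q₀ i₃)
    (G : CG T₃ i₃ (U Φ A lam z M)) {τ : J → ℝ} {X V : J → Set E3}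
    (Wd : CW T₃ i₃ (U Φ A lam z M) fam τ X V)
    (hX : ∀ w ∈ s₀.P, w ∈ P (T₃.H i₃) → w ∈ X (s₀.lab w))
    (hfr : ∀ e ∈ Dk i₃ κ, dim e = 1 → ∀ c, FrE L Qd c e)
    (hpath : ∀ c, (∃ j, fam j = c) → (∃ v ∈ Dk i₃ κ, dim v = 0 ∧
      ReflTransGen (Ed L {e | FrE L Qd c e}) (v₀ c) v) ∨
      ∀ v ∈ Dk i₃ κ, dim v = 0 → v ∈ Z c ∧ ∀ j, fam j = c → lam₀ j v = 0)
    (hl : ∀ v ∈ Dk i₃ κ, dim v = 0 → ∀ j, lam₀ j v = 1 ↔ (κ v).pt ∈ V j)
    (y : Nm' fam (Rk κc kap)) : OneCyc s y q₀ := by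
  have h2 : F1 L s (Dk i₃ κ) := F1_final h.cps hi.rel (fun w hw => hi.V1 (hi.PV hw)) (fun _ => rfl)
    hi.inv h.inv (fun e he h1 j => hfr e he h1 _) (dk_dn hT) (F1_core hT G Wd hX)
  exact one_disc (by simp) hT hF hi.top.cf_sur hs G (cont_exact hLa he hH)
    (ring_exact hLa he hM hH) (NN_mono hfin) (sto_disc hi h hT hF G Wd hX hfr hpath hl) h2 y

end fin

end Crest.Agent.R096.E1r_914
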