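import Mathlib

/-!
# R096 (row 96), DOORS (D6) / SPH: interface definitions (helper560)

* `Surf V E T` : finite combinatorial closed surface with trivial mod 2 homology.
* `Cub N R X`  : finite cubic polyhedral graph (nodes, edges, faces).
* `Place S G`  : zones and edge sets for the nodes and edges of `G` in the vertices of `S`.
* `Emb S G`    : embedded copy of `G` in the 1-skeleton of `S`, with its faces = sets of tiles.
-/

set_option autoImplicit false

namespace Crest.Agent.R096.Sph_560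

/-- Finite combinatorial closed surface: vertices `V`, edges `E`, tiles `T`. -/
structure Surf (V E T : Type*) [Fintype E] where
  /-- the two end points of an edge -/
  ends : E → Sym2 V
  nd : ∀ e, ¬ (ends e).IsDiag
  /-- the edge `e` is on the boundary of the tile `f` -/
  On : T → E → Prop
  /-- every edge is on exactly two tiles -/
  two : ∀ e, ∃ f g, f ≠ g ∧ ∀ h, On h e ↔ h = f ∨ h = g
  /-- the tiles at a vertex are connected through the edges at this vertex -/
  link : ∀ (v : V) (A : Set T),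
    (∀ e, v ∈ ends e → ∀ f g, On f e → On g e → f ∈ A → g ∈ A) →
    ∀ e, v ∈ ends e → ∀ f, On f e → f ∈ A → ∀ e', v ∈ ends e' → ∀ g, On g e' → g ∈ A
  /-- an even set of edges is the boundary of a set of tiles -/
  sep : ∀ z : E → ZMod 2, (∀ v, (∑ e, open Classical in if v ∈ ends e then z e else 0) = 0) →
    ∃ w : T → ZMod 2, ∀ e f g, f ≠ g → On f e → On g e → z e = w f + w g
  /-- the surface is connected -/
  conn : ∀ w : T → ZMod 2, (∀ e f g, On f e → On g e → w f = w g) → ∀ f g, w f = w g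

namespace Surf

variable {V E T : Type*} [Fintype E]

/-- `w` has boundary `z` -/
def Bd (S : Surf V E T) (w : T → ZMod 2) (z : E → ZMod 2) : Prop :=
  ∀ e f g, f ≠ g → S.On f e → S.On g e → z e = w f + w g

/-- `A` is connected through edges with both ends in `B` -/
def ConnIn (S : Surf V E T) (A B : Set V) : Prop :=
  ∀ X : Set V, (∀ e u v, S.ends e = s(u, v) → u ∈ B → v ∈ B → u ∈ X → v ∈ X) →
    ∀ u ∈ A, u ∈ X → ∀ v ∈ A, v ∈ X

end Surf

/-- Finite cubic polyhedral graph: nodes `N`, edges `R`, faces `X`. -/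
structure Cub (N R X : Type*) where
  ends : R → Sym2 N
  nd : ∀ r, ¬ (ends r).IsDiag
  /-- no multiple edges -/
  multi : ∀ r r', ends r = ends r' → r = r'
  /-- every node is on exactly three edges -/
  three : ∀ a, {r | a ∈ ends r}.ncard = 3
  /-- the boundary of a face -/
  bd : X → Finset R
  bd_ne : ∀ x, (bd x).Nonempty
  /-- every edge is on exactly two faces -/
  twoF : ∀ r, ∃ x y, x ≠ y ∧ ∀ z, r ∈ bd z ↔ z = x ∨ z = y
  /-- the boundary of a face is a cycle ... -/
  deg : ∀ x a, {r | r ∈ bd x ∧ a ∈ ends r}.ncard = 0 ∨ {r | r ∈ bd x ∧ a ∈ ends r}.ncard = 2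
  /-- ... without proper even subset -/
  simple : ∀ x (Q : Finset R), Q ⊆ bd x → (∀ a, Even {r | r ∈ Q ∧ a ∈ ends r}.ncard) →
    Q = ∅ ∨ Q = bd x
  /-- there is an edge outside -/
  out : ∀ x, ∃ r, r ∉ bd x
  /-- the edges outside `bd x` are connected through the nodes not on `bd x` -/
  conn : ∀ x (A : Set R),
    (∀ a, (∀ r ∈ bd x, a ∉ ends r) → ∀ r r', a ∈ ends r → a ∈ ends r' → r ∈ A → r' ∈ A) →
    ∀ r r', r ∉ bd x → r' ∉ bd x → r ∈ A → r' ∈ A

/-- Placing of the graph `G` near the vertices of the surface `S`: `Z a ⊆ Z' a` zones of the nodes,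
`Y r` edge sets. -/
structure Place {V E T N R X : Type*} [Fintype E] (S : Surf V E T) (G : Cub N R X) where
  Z : N → Set V
  Z' : N → Set V
  Y : R → Set V
  sub : ∀ a, Z a ⊆ Z' a
  /-- `Z a` is connected inside `Z' a` -/
  zc : ∀ a, S.ConnIn (Z a) (Z' a)
  /-- `Y r` is connected -/
  yc : ∀ r, S.ConnIn (Y r) (Y r)
  /-- the edge set meets the zone of its ends -/
  meet : ∀ r, ∀ a ∈ G.ends r, (Y r ∩ Z a).Nonempty
  /-- the big zones are pairwise disjoint -/
  zd : ∀ a b, a ≠ b → Disjoint (Z' a) (Z' b)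
  /-- an edge set meets only the big zones of its ends -/
  yz : ∀ r a, a ∉ G.ends r → Disjoint (Y r) (Z' a)
  /-- two edge sets meet only in the zone of a common end -/
  yy : ∀ r r', r ≠ r' → ∀ v, v ∈ Y r → v ∈ Y r' → ∃ a, a ∈ G.ends r ∧ a ∈ G.ends r' ∧ v ∈ Z a

/-- Embedded copy of `G` in the 1-skeleton of `S`: nodes and paths. -/
structure PEmb {V E T N R X : Type*} [Fintype E] (S : Surf V E T) (G : Cub N R X) where
  pt : N → V
  inj : Function.Injective pt
  /-- the edges of `S` on the path of `r` -/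
  P : R → Finset E
  /-- the vertices of `S` on the path of `r` -/
  vs : R → Finset V
  /-- the vertex sets are the ends of the edges -/
  vs_iff : ∀ r v, v ∈ vs r ↔ ∃ e ∈ P r, v ∈ S.ends e
  ends_mem : ∀ r, ∀ a ∈ G.ends r, pt a ∈ vs r
  /-- a path: degree one at the two ends, degree two at the other vertices -/
  deg_end : ∀ r, ∀ a ∈ G.ends r, {e | e ∈ P r ∧ pt a ∈ S.ends e}.ncard = 1
  deg_in : ∀ r, ∀ v ∈ vs r, (∀ a ∈ G.ends r, v ≠ pt a) → {e | e ∈ P r ∧ v ∈ S.ends e}.ncard = 2
  /-- the path is connected -/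
  pconn : ∀ r (Q : Finset E), Q ⊆ P r → Q.Nonempty →
    (∀ e ∈ Q, ∀ v ∈ S.ends e, ∀ e' ∈ P r, v ∈ S.ends e' → e' ∈ Q) → Q = P r
  /-- two paths meet only in common nodes -/
  meet : ∀ r r', r ≠ r' → ∀ v ∈ vs r, v ∈ vs r' → ∃ a, a ∈ G.ends r ∧ a ∈ G.ends r' ∧ v = pt a

/-- Embedded copy of `G` in the 1-skeleton of `S`, with the faces. -/
structure Emb {V E T N R X : Type*} [Fintype E] (S : Surf V E T) (G : Cub N R X)
    extends PEmb S G where
  /-- the faces -/
  w : X → T → ZMod 2
  w_bd : ∀ x, S.Bd (w x) (fun e => open Classical in if ∃ r ∈ G.bd x, e ∈ P r then 1 else 0)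
  /-- every tile lies in exactly one face -/
  w_one : ∀ f, ∃! x, w x f = 1
  /-- next to the paths outside `bd x` the face `x` is not present -/
  w_out : ∀ x r, r ∉ G.bd x → ∀ e ∈ P r, ∀ f, S.On f e → w x f = 0

end Crest.Agent.R096.Sph_560
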