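import Crest.Agent.R096.Cb6_609
import Crest.Agent.R096.Sph0_560

/-!
# R096 (row 96), DOORS (D6) / SPH, part 2 (helper560): paths and circles of PL arcs

* `PathI ends P a b` : the finite edge set `P` is a simple path from `a` to `b`.
* `exists_pathI`     : degree conditions give a simple path.
* `ArcG`             : graph of PL arcs; `path_ball`, `cycle_circle`.
* `disc_of_split`    : Schoenflies for a sphere split into two closed sets meeting in a circle.
-/

set_option autoImplicit false

open Set Metric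

namespace Crest.Agent.R096.Sph_560

open Crest.Agent.R096.Ce_537 Crest.Agent.R096.Cb_609 Crest.Agent.R096.Pl

section Graph

variable {α β : Type*} (ends : β → Sym2 α)

/-- the edges of `P` at `v` -/
def star (P : Finset β) (v : α) : Set β := {e | e ∈ P ∧ v ∈ ends e}

variable {ends}

theorem star_finite (P : Finset β) (v : α) : (star ends P v).Finite :=
  (P.finite_toSet).subset fun _ h => h.1

open Classical in
/-- simple paths -/
inductive PathI (ends : β → Sym2 α) : Finset β → α → α → Prop
  | single (e : β) (a b : α) (h : ends e = s(a, b)) (hne : a ≠ b) : PathI ends {e} a b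
  | cons (e : β) (P : Finset β) (a v b : α) (h : ends e = s(a, v)) (hv : a ≠ v)
      (hP : PathI ends P v b) (ha : ∀ e' ∈ P, a ∉ ends e') (hab : a ≠ b) :
      PathI ends (insert e P) a b

theorem PathI.ne {P : Finset β} {a b : α} (h : PathI ends P a b) : a ≠ b := by
  cases h with
  | single e a b h hne => exact hne
  | cons e P a v b h hv hP ha hab => exact hab

theorem PathI.nonempty {P : Finset β} {a b : α} (h : PathI ends P a b) : P.Nonempty := by
  classical
  cases h with
  | single e a b h hne => exact ⟨e, Finset.mem_singleton_self e⟩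
  | cons e P a v b h hv hP ha hab => exact ⟨e, Finset.mem_insert_self e P⟩

/-- degrees of a simple path -/
theorem PathI.deg {P : Finset β} {a b : α} (h : PathI ends P a b) :
    (star ends P a).ncard = 1 ∧ (star ends P b).ncard = 1 ∧
      ∀ v, v ≠ a → v ≠ b → (star ends P v).ncard = 0 ∨ (star ends P v).ncard = 2 := by
  classical
  induction h with
  | single e a b h hne =>
    refine ⟨?_, ?_, fun v hva hvb => Or.inl ?_⟩
    · rw [Set.ncard_eq_one]
      refine ⟨e, ?_⟩
      ext x
      simp only [star, Finset.mem_singleton, mem_setOf_eq, mem_singleton_iff]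
      exact ⟨fun h => h.1, fun hx => ⟨hx, by rw [hx, h]; exact Sym2.mem_mk_left _ _⟩⟩
    · rw [Set.ncard_eq_one]
      refine ⟨e, ?_⟩
      ext x
      simp only [star, Finset.mem_singleton, mem_setOf_eq, mem_singleton_iff]
      exact ⟨fun h => h.1, fun hx => ⟨hx, by rw [hx, h]; exact Sym2.mem_mk_right _ _⟩⟩
    · rw [Set.ncard_eq_zero (star_finite _ _), eq_empty_iff_forall_notMem]
      rintro x ⟨hx, hv⟩
      rw [Finset.mem_singleton.1 hx, h, Sym2.mem_iff] at hv
      rcases hv with hv | hv
      · exact hva hv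
      · exact hvb hv
  | cons e P a v b h hv hP ha hab ih =>
    obtain ⟨i1, i2, i3⟩ := ih
    have heP : e ∉ P := fun he => ha e he (by rw [h]; exact Sym2.mem_mk_left _ _)
    have hvb : v ≠ b := hP.ne
    have hin : ∀ u, (u = a ∨ u = v) → star ends (insert e P) u = insert e (star ends P u) := by
      intro u hu
      ext x
      simp only [star, Finset.mem_insert, mem_setOf_eq, Set.mem_insert_iff]
      constructor
      · rintro ⟨hx | hx, hx'⟩
        · exact Or.inl hx
        · exact Or.inr ⟨hx, hx'⟩
      · rintro (hx | ⟨hx, hx'⟩)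
        · refine ⟨Or.inl hx, ?_⟩
          rw [hx, h]
          rcases hu with rfl | rfl
          · exact Sym2.mem_mk_left _ _
          · exact Sym2.mem_mk_right _ _
        · exact ⟨Or.inr hx, hx'⟩
    have hout : ∀ u, u ≠ a → u ≠ v → star ends (insert e P) u = star ends P u := by
      intro u hua huv
      ext x
      simp only [star, Finset.mem_insert, mem_setOf_eq]
      constructor
      · rintro ⟨hx | hx, hx'⟩
        · exfalso
          rw [hx, h, Sym2.mem_iff] at hx'
          rcases hx' with h' | h'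
          · exact hua h'
          · exact huv h'
        · exact ⟨hx, hx'⟩
      · rintro ⟨hx, hx'⟩
        exact ⟨Or.inr hx, hx'⟩
    have hins : ∀ u, (u = a ∨ u = v) →
        (star ends (insert e P) u).ncard = (star ends P u).ncard + 1 := by
      intro u hu
      rw [hin u hu, Set.ncard_insert_of_notMem (fun hx => heP hx.1) (star_finite _ _)]
    refine ⟨?_, ?_, fun u hua hub => ?_⟩
    · rw [hins a (Or.inl rfl)]
      have h0 : star ends P a = ∅ := by
        rw [eq_empty_iff_forall_notMem]
        rintro x ⟨hx, hx'⟩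
        exact ha x hx hx'
      rw [h0, Set.ncard_empty]
    · rw [hout b hab.symm hvb.symm]; exact i2
    · by_cases huv : u = v
      · right
        rw [hins u (Or.inr huv), huv, i1]
      · rw [hout u hua huv]
        exact i3 u huv hub

/-- degree conditions give a simple path -/
theorem exists_pathI (nd : ∀ e, ¬ (ends e).IsDiag) (n : ℕ) : ∀ (P : Finset β) (a b : α),
    P.card = n → a ≠ b →
    (star ends P a).ncard = 1 → (star ends P b).ncard = 1 →
    (∀ v, v ≠ a → v ≠ b → (star ends P v).ncard = 0 ∨ (star ends P v).ncard = 2) →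
    ∃ Q ⊆ P, PathI ends Q a b := by
  classical
  induction n with
  | zero =>
    intro P a b hn hab h1 h2 h3
    exfalso
    rw [Finset.card_eq_zero] at hn
    subst hn
    have : star ends (∅ : Finset β) a = ∅ := by
      rw [eq_empty_iff_forall_notMem]
      rintro x ⟨hx, -⟩
      exact absurd hx (Finset.notMem_empty x)
    rw [this, Set.ncard_empty] at h1
    exact absurd h1 (by decide)
  | succ n ih =>
    intro P a b hn hab h1 h2 h3
    obtain ⟨e, he⟩ := Set.ncard_eq_one.1 h1
    have heP : e ∈ P ∧ a ∈ ends e := by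
      have : e ∈ star ends P a := by rw [he]; rfl
      exact this
    obtain ⟨v, hv⟩ := Sym2.mem_iff_exists.1 heP.2
    have hav : a ≠ v := by
      rintro rfl
      exact nd e (by rw [hv]; exact Sym2.mk_isDiag_iff.2 rfl)
    by_cases hvb : v = b
    · subst hvb
      exact ⟨{e}, Finset.singleton_subset_iff.2 heP.1, PathI.single e a v hv hab⟩
    · have hve : v ∈ ends e := by rw [hv]; exact Sym2.mem_mk_right _ _
      have hvs : e ∈ star ends P v := ⟨heP.1, hve⟩
      have hv2 : (star ends P v).ncard = 2 := by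
        rcases h3 v hav.symm hvb with h | h
        · exact absurd h (Set.ncard_ne_zero_of_mem hvs (star_finite _ _))
        · exact h
      have hsub : ∀ u, star ends (P.erase e) u = star ends P u \ {e} := by
        intro u
        ext x
        simp only [star, Finset.mem_erase, mem_setOf_eq, mem_diff, mem_singleton_iff]
        tauto
      have hother : ∀ u, u ≠ a → u ≠ v → star ends (P.erase e) u = star ends P u := by
        intro u hua huv
        rw [hsub, Set.diff_singleton_eq_self]
        rintro ⟨-, hx⟩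
        rw [hv, Sym2.mem_iff] at hx
        rcases hx with h | h
        · exact hua h
        · exact huv h
      have ha0 : star ends (P.erase e) a = ∅ := by
        rw [hsub, he, Set.diff_self]
      obtain ⟨Q, hQ, hQP⟩ := ih (P.erase e) v b (by
          rw [Finset.card_erase_of_mem heP.1, hn]; rfl) hvb
        (by rw [hsub, Set.ncard_diff_singleton_of_mem hvs, hv2])
        (by rw [hother b hab.symm (Ne.symm hvb)]; exact h2)
        (by
          intro u huv hub
          by_cases hua : u = a
          · left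
            rw [hua, ha0, Set.ncard_empty]
          · rw [hother u hua huv]
            exact h3 u hua hub)
      refine ⟨insert e Q, Finset.insert_subset heP.1 (hQ.trans (Finset.erase_subset _ _)),
        PathI.cons e Q a v b hv hav hQP (fun e' he' hae' => ?_) hab⟩
      have : e' ∈ star ends (P.erase e) a := ⟨hQ he', hae'⟩
      rw [ha0] at this
      exact this

/-- a connected edge set with the degrees of a path is a path -/
theorem pathI_of_deg (nd : ∀ e, ¬ (ends e).IsDiag) {P : Finset β} {a b : α} (hab : a ≠ b)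
    (h1 : (star ends P a).ncard = 1) (h2 : (star ends P b).ncard = 1)
    (h3 : ∀ v, v ≠ a → v ≠ b → (star ends P v).ncard = 0 ∨ (star ends P v).ncard = 2)
    (hc : ∀ Q ⊆ P, Q.Nonempty → (∀ e ∈ Q, ∀ v ∈ ends e, ∀ e' ∈ P, v ∈ ends e' → e' ∈ Q) → Q = P) :
    PathI ends P a b := by
  classical
  obtain ⟨Q, hQ, hQP⟩ := exists_pathI nd _ P a b rfl hab h1 h2 h3
  obtain ⟨d1, d2, d3⟩ := hQP.deg
  have key : ∀ v, ∀ e ∈ Q, v ∈ ends e → star ends Q v = star ends P v := by
    intro v e he hve
    have hsub : star ends Q v ⊆ star ends P v := fun x hx => ⟨hQ hx.1, hx.2⟩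
    have hmem : e ∈ star ends Q v := ⟨he, hve⟩
    refine Set.eq_of_subset_of_ncard_le hsub ?_ (star_finite _ _)
    by_cases hva : v = a
    · rw [hva, h1, d1]
    · by_cases hvb : v = b
      · rw [hvb, h2, d2]
      · have e1 := Set.ncard_ne_zero_of_mem hmem (star_finite _ _)
        rcases d3 v hva hvb with h | h
        · exact absurd h e1
        · rw [h]
          rcases h3 v hva hvb with h' | h'
          · rw [h']; exact Nat.zero_le _
          · rw [h']
  have : Q = P := by
    refine hc Q hQ hQP.nonempty fun e he v hv e' he' hve' => ?_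
    have h4 : e' ∈ star ends P v := ⟨he', hve'⟩
    rw [← key v e he hv] at h4
    exact h4.1
  rwa [this] at hQP

end Graph

section Real

variable {Em : Type*} [NormedAddCommGroup Em] [NormedSpace ℝ Em] {α β : Type*}

/-- graph of PL arcs -/
structure ArcG (ends : β → Sym2 α) (pt : α → Em) (arc : β → Set Em) : Prop where
  nd : ∀ e, ¬ (ends e).IsDiag
  inj : Function.Injective pt
  ball : ∀ e, IsBall 1 (arc e) (pt '' {v | v ∈ ends e})
  pt_arc : ∀ v e, pt v ∈ arc e → v ∈ ends e
  arc_arc : ∀ e e', e ≠ e' → ∀ y ∈ arc e, y ∈ arc e' → ∃ v ∈ ends e, y = pt v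

variable {ends : β → Sym2 α} {pt : α → Em} {arc : β → Set Em}

theorem image_ends {e : β} {a b : α} (h : ends e = s(a, b)) :
    pt '' {v | v ∈ ends e} = {pt a, pt b} := by
  ext y
  simp only [mem_image, mem_setOf_eq, h, Sym2.mem_iff, mem_insert_iff, mem_singleton_iff]
  constructor
  · rintro ⟨v, rfl | rfl, rfl⟩
    · exact Or.inl rfl
    · exact Or.inr rfl
  · rintro (rfl | rfl)
    · exact ⟨a, Or.inl rfl, rfl⟩
    · exact ⟨b, Or.inr rfl, rfl⟩

theorem ArcG.pt_mem (A : ArcG ends pt arc) {v : α} {e : β} (h : v ∈ ends e) : pt v ∈ arc e :=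
  (A.ball e).subset ⟨v, h, rfl⟩

/-- the union of the arcs of a simple path is a PL arc -/
theorem ArcG.path_ball (A : ArcG ends pt arc) {P : Finset β} {a b : α}
    (h : PathI ends P a b) : IsBall 1 (⋃ e ∈ P, arc e) {pt a, pt b} := by
  classical
  induction h with
  | single e a b h hne =>
    have h1 := A.ball e
    rw [image_ends h] at h1
    simpa using h1
  | cons e P a v b h hv hP ha hab ih =>
    have h1 := A.ball e
    rw [image_ends h] at h1
    have h2 : (⋃ e' ∈ insert e P, arc e') = arc e ∪ ⋃ e' ∈ P, arc e' := by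
      rw [Finset.set_biUnion_insert]
    rw [h2]
    refine arc_glue h1 ih ?_
    have heP : e ∉ P := fun he => ha e he (by rw [h]; exact Sym2.mem_mk_left _ _)
    have hvP : ∃ e' ∈ P, v ∈ ends e' := by
      have h3 := hP.deg.1
      obtain ⟨e', he'⟩ := Set.ncard_eq_one.1 h3
      have : e' ∈ star ends P v := by rw [he']; rfl
      exact ⟨e', this.1, this.2⟩
    ext y
    simp only [mem_inter_iff, mem_singleton_iff]
    constructor
    · rintro ⟨hy, hy'⟩
      obtain ⟨e', he', hye'⟩ := mem_iUnion₂.1 hy'
      have hne : e ≠ e' := by rintro rfl; exact heP he'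
      obtain ⟨u, hu, rfl⟩ := A.arc_arc e e' hne y hy hye'
      have hu' : u ∈ ends e' := A.pt_arc u e' hye'
      rw [h, Sym2.mem_iff] at hu
      rcases hu with rfl | rfl
      · exact absurd hu' (ha e' he')
      · rfl
    · rintro rfl
      obtain ⟨e', he', hve'⟩ := hvP
      exact ⟨A.pt_mem (by rw [h]; exact Sym2.mem_mk_right _ _), mem_biUnion he' (A.pt_mem hve')⟩

/-- the union of the arcs of a simple cycle is a PL circle -/
theorem ArcG.cycle_circle (A : ArcG ends pt arc) {P : Finset β} (hne : P.Nonempty)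
    (hdeg : ∀ v, (star ends P v).ncard = 0 ∨ (star ends P v).ncard = 2)
    (hs : ∀ Q : Finset β, Q ⊆ P → (∀ v, Even (star ends Q v).ncard) → Q = ∅ ∨ Q = P) :
    Nonempty (PLEquiv (S1 ℝ) (⋃ e ∈ P, arc e)) := by
  classical
  obtain ⟨e, he⟩ := hne
  obtain ⟨a, b, hab'⟩ : ∃ a b, ends e = s(a, b) := by
    induction h : ends e using Sym2.ind with
    | _ a b => exact ⟨a, b, rfl⟩
  have hab : a ≠ b := by
    rintro rfl
    exact A.nd e (by rw [hab']; exact Sym2.mk_isDiag_iff.2 rfl)
  have hsub : ∀ u, star ends (P.erase e) u = star ends P u \ {e} := by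
    intro u
    ext x
    simp only [star, Finset.mem_erase, mem_setOf_eq, mem_diff, mem_singleton_iff]
    tauto
  have hmem : ∀ u, u ∈ ends e → e ∈ star ends P u := fun u hu => ⟨he, hu⟩
  have h1 : ∀ u, u ∈ ends e → (star ends (P.erase e) u).ncard = 1 := by
    intro u hu
    rw [hsub, Set.ncard_diff_singleton_of_mem (hmem u hu)]
    rcases hdeg u with h | h
    · exact absurd h (Set.ncard_ne_zero_of_mem (hmem u hu) (star_finite _ _))
    · rw [h]
  have hae : a ∈ ends e := by rw [hab']; exact Sym2.mem_mk_left _ _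
  have hbe : b ∈ ends e := by rw [hab']; exact Sym2.mem_mk_right _ _
  have hnot : ∀ u, u ≠ a → u ≠ b → u ∉ ends e := by
    intro u hua hub hu
    rw [hab', Sym2.mem_iff] at hu
    rcases hu with h | h
    · exact hua h
    · exact hub h
  obtain ⟨Q, hQ, hQP⟩ := exists_pathI A.nd _ (P.erase e) a b rfl hab (h1 a hae) (h1 b hbe)
    (fun v hva hvb => by
      rw [hsub, Set.diff_singleton_eq_self (fun h => hnot v hva hvb h.2)]
      exact hdeg v)
  have heQ : e ∉ Q := fun h => Finset.notMem_erase e P (hQ h)
  obtain ⟨d1, d2, d3⟩ := hQP.deg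
  have hins : ∀ u, u ∈ ends e → (star ends (insert e Q) u).ncard = (star ends Q u).ncard + 1 := by
    intro u hu
    have : star ends (insert e Q) u = insert e (star ends Q u) := by
      ext x
      simp only [star, Finset.mem_insert, mem_setOf_eq, Set.mem_insert_iff]
      constructor
      · rintro ⟨hx | hx, hx'⟩
        · exact Or.inl hx
        · exact Or.inr ⟨hx, hx'⟩
      · rintro (hx | ⟨hx, hx'⟩)
        · exact ⟨Or.inl hx, by rw [hx]; exact hu⟩
        · exact ⟨Or.inr hx, hx'⟩
    rw [this, Set.ncard_insert_of_notMem (fun hx => heQ hx.1) (star_finite _ _)]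
  have hnins : ∀ u, u ∉ ends e → star ends (insert e Q) u = star ends Q u := by
    intro u hu
    ext x
    simp only [star, Finset.mem_insert, mem_setOf_eq]
    constructor
    · rintro ⟨hx | hx, hx'⟩
      · exact absurd (by rw [← hx]; exact hx') hu
      · exact ⟨hx, hx'⟩
    · rintro ⟨hx, hx'⟩
      exact ⟨Or.inr hx, hx'⟩
  have hQ2 : insert e Q = P := by
    rcases hs (insert e Q) (Finset.insert_subset he (hQ.trans (Finset.erase_subset _ _))) (by
      intro v
      by_cases hva : v = a
      · rw [hva, hins a hae, d1]; exact ⟨1, rfl⟩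
      · by_cases hvb : v = b
        · rw [hvb, hins b hbe, d2]; exact ⟨1, rfl⟩
        · rw [hnins v (hnot v hva hvb)]
          rcases d3 v hva hvb with h | h
          · rw [h]; exact ⟨0, rfl⟩
          · rw [h]; exact ⟨1, rfl⟩) with h | h
    · exact absurd h (Finset.insert_ne_empty _ _)
    · exact h
  have hb1 := A.ball e
  rw [image_ends hab'] at hb1
  have hb2 := A.path_ball hQP
  have hinter : arc e ∩ (⋃ e' ∈ Q, arc e') = {pt a, pt b} := by
    ext y
    simp only [mem_inter_iff, mem_insert_iff, mem_singleton_iff]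
    constructor
    · rintro ⟨hy, hy'⟩
      obtain ⟨e', he', hye'⟩ := mem_iUnion₂.1 hy'
      have hne : e ≠ e' := by rintro rfl; exact heQ he'
      obtain ⟨u, hu, rfl⟩ := A.arc_arc e e' hne y hy hye'
      rw [hab', Sym2.mem_iff] at hu
      rcases hu with rfl | rfl
      · exact Or.inl rfl
      · exact Or.inr rfl
    · intro hy
      refine ⟨hb1.subset ?_, hb2.subset ?_⟩
      · simpa using hy
      · simpa using hy
  obtain ⟨c, -, -, -⟩ := exists_equiv_union ballPair_real hb1 hb2 hinter
  have h5 : Kp ℝ ∪ Km ℝ = S1 ℝ := Kp_union_Km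
  have h6 : arc e ∪ (⋃ e' ∈ Q, arc e') = ⋃ e' ∈ P, arc e' := by
    rw [← hQ2, Finset.set_biUnion_insert]
  rw [h5, h6] at c
  exact ⟨c⟩

/-- **Schoenflies, split form**: the boundary sphere of a 3-ball is the union of two closed sets
meeting in a circle: both are discs. -/
theorem disc_of_split {K S Γ D D' : Set Em} (hK : IsBall 3 K S)
    (hΓ : Nonempty (PLEquiv (S1 ℝ) Γ)) (hD : IsClosed D) (hD' : IsClosed D') (hu : D ∪ D' = S)
    (hi : D ∩ D' = Γ) (hn : (D \ Γ).Nonempty) (hn' : (D' \ Γ).Nonempty) : IsBall 2 D Γ := by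
  have hΓS : Γ ⊆ S := by rw [← hi, ← hu]; exact inter_subset_left.trans subset_union_left
  obtain ⟨A, B, hAB, hABS⟩ := sphere_sides hK hΓ hΓS
  -- each open side lies in `D` or in `D'`
  have key : ∀ C : Set Em, IsBall 2 C Γ → C ⊆ S → C \ Γ ⊆ D ∨ C \ Γ ⊆ D' := by
    intro C hC hCS
    have hpre := hC.isPreconnected_diff
    have h1 := isPreconnected_closed_iff.1 hpre D D' hD hD' (sdiff_subset.trans (by rw [hu]; exact hCS))
    by_contra hcon
    push Not at hcon
    obtain ⟨h2, h3⟩ := hcon
    obtain ⟨x, hx, hxD⟩ := not_subset.1 h2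
    obtain ⟨y, hy, hyD⟩ := not_subset.1 h3
    have hx' : x ∈ D' := by
      have : x ∈ D ∪ D' := by rw [hu]; exact hCS hx.1
      exact this.resolve_left hxD
    have hy' : y ∈ D := by
      have : y ∈ D ∪ D' := by rw [hu]; exact hCS hy.1
      exact this.resolve_right hyD
    obtain ⟨z, hz, hz'⟩ := h1 ⟨y, hy, hy'⟩ ⟨x, hx, hx'⟩
    rw [hi] at hz'
    exact hz.2 hz'
  have hA := hAB.ball₁
  have hB := hAB.ball₂
  have hAS : A ⊆ S := by rw [← hABS]; exact subset_union_left
  have hBS : B ⊆ S := by rw [← hABS]; exact subset_union_right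
  have fin : ∀ C C' : Set Em, IsBall 2 C Γ → C ∪ C' = S → C \ Γ ⊆ D → C' \ Γ ⊆ D' → D = C := by
    intro C C' hC hCC h1 h2
    apply Subset.antisymm
    · intro x hx
      by_cases hxΓ : x ∈ Γ
      · exact hC.subset hxΓ
      · have hxS : x ∈ C ∪ C' := by rw [hCC, ← hu]; exact Or.inl hx
        rcases hxS with h | h
        · exact h
        · exfalso
          apply hxΓ
          rw [← hi]
          exact ⟨hx, h2 ⟨h, hxΓ⟩⟩
    · rw [← hC.closure_diff]
      exact closure_minimal h1 hD
  have noD : ¬ (A \ Γ ⊆ D ∧ B \ Γ ⊆ D) := by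
    rintro ⟨h1, h2⟩
    obtain ⟨x, hx, hxΓ⟩ := hn'
    have hxS : x ∈ A ∪ B := by rw [hABS, ← hu]; exact Or.inr hx
    apply hxΓ
    rw [← hi]
    rcases hxS with h | h
    · exact ⟨h1 ⟨h, hxΓ⟩, hx⟩
    · exact ⟨h2 ⟨h, hxΓ⟩, hx⟩
  have noD' : ¬ (A \ Γ ⊆ D' ∧ B \ Γ ⊆ D') := by
    rintro ⟨h1, h2⟩
    obtain ⟨x, hx, hxΓ⟩ := hn
    have hxS : x ∈ A ∪ B := by rw [hABS, ← hu]; exact Or.inl hx
    apply hxΓ
    rw [← hi]
    rcases hxS with h | h
    · exact ⟨hx, h1 ⟨h, hxΓ⟩⟩
    · exact ⟨hx, h2 ⟨h, hxΓ⟩⟩
  rcases key A hA hAS with h1 | h1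
  · rcases key B hB hBS with h2 | h2
    · exact absurd ⟨h1, h2⟩ noD
    · rw [fin A B hA hABS h1 h2]; exact hA
  · rcases key B hB hBS with h2 | h2
    · rw [fin B A hB (by rw [union_comm]; exact hABS) h2 h1]; exact hB
    · exact absurd ⟨h1, h2⟩ noD'

end Real

end Crest.Agent.R096.Sph_560
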