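import Crest.Agent.R096.Sph1_560
import Crest.Agent.R096.Sph2_560

/-!
# R096 (row 96), DOORS (D6) / SPH, part 3 (helper560): from an embedded cubic graph to `θ`

* `Real S Sg`     : geometric realisation of the combinatorial surface `S` on the set `Sg`.
* `Real.region`   : the union of the tiles with `w = 1`.
* `Real.disc`     : a region bounded by a simple cycle is a PL disc (`Sg` boundary of a 3-ball).
* `Emb.lay`       : the embedded graph gives a realisation `Lay G Sg`.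
* `Emb.exists_theta` : `θ : Sg → Sg'` near `g`.
-/

set_option autoImplicit false

open Set Metric

namespace Crest.Agent.R096.Sph_560

open Crest.Agent.R096.Ce_537 Crest.Agent.R096.Cb_609 Crest.Agent.R096.Pl

variable {Em F : Type*} [NormedAddCommGroup Em] [NormedSpace ℝ Em]
  [NormedAddCommGroup F] [NormedSpace ℝ F]
  {V E T N R X : Type*} [Fintype E]

/-- Geometric realisation of `S` on the set `Sg`. -/
structure Real (S : Surf V E T) (Sg : Set Em) where
  pt : V → Em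
  arc : E → Set Em
  tile : T → Set Em
  inj : Function.Injective pt
  arc_ball : ∀ e, IsBall 1 (arc e) (pt '' {v | v ∈ S.ends e})
  pt_arc : ∀ v e, pt v ∈ arc e → v ∈ S.ends e
  arc_arc : ∀ e e', e ≠ e' → ∀ y ∈ arc e, y ∈ arc e' → ∃ v ∈ S.ends e, y = pt v
  tile_closed : ∀ f, IsClosed (tile f)
  arc_tile : ∀ f e, S.On f e → arc e ⊆ tile f
  /-- an edge meets other tiles only at vertices -/
  tile_arc : ∀ f e, ∀ y ∈ tile f, y ∈ arc e → S.On f e ∨ ∃ v, y = pt v
  /-- a vertex on a tile is a vertex of the tile -/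
  tile_pt : ∀ f v, pt v ∈ tile f → ∃ e, v ∈ S.ends e ∧ S.On f e
  /-- two tiles meet in their boundaries -/
  tile_tile : ∀ f g, f ≠ g → ∀ y ∈ tile f, y ∈ tile g → ∃ e, S.On f e ∧ y ∈ arc e
  /-- a tile has an interior point -/
  tile_ne : ∀ f, ∃ y ∈ tile f, ∀ e, y ∉ arc e
  cov : Sg = ⋃ f, tile f

namespace Real

variable {S : Surf V E T} {Sg : Set Em} (A : Real S Sg)

theorem arcG : ArcG S.ends A.pt A.arc :=
  ⟨S.nd, A.inj, A.arc_ball, A.pt_arc, A.arc_arc⟩

/-- the union of the tiles with `w = c` -/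
def region (w : T → ZMod 2) (c : ZMod 2) : Set Em := ⋃ f ∈ {f | w f = c}, A.tile f

theorem mem_region {w : T → ZMod 2} {c : ZMod 2} {y : Em} :
    y ∈ A.region w c ↔ ∃ f, w f = c ∧ y ∈ A.tile f := by
  unfold region
  rw [mem_iUnion₂]
  constructor
  · rintro ⟨f, hf, hy⟩; exact ⟨f, hf, hy⟩
  · rintro ⟨f, hf, hy⟩; exact ⟨f, hf, hy⟩

theorem isClosed_region [Finite T] (w : T → ZMod 2) (c : ZMod 2) : IsClosed (A.region w c) :=
  (toFinite _).isClosed_biUnion fun f _ => A.tile_closed f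

theorem two' (a : ZMod 2) : a = 0 ∨ a = 1 := by
  fin_cases a
  · exact Or.inl rfl
  · exact Or.inr rfl

theorem region_union (w : T → ZMod 2) : A.region w 1 ∪ A.region w 0 = Sg := by
  ext y
  constructor
  · rintro (h | h)
    · obtain ⟨f, -, hy⟩ := A.mem_region.1 h
      rw [A.cov]; exact mem_iUnion.2 ⟨f, hy⟩
    · obtain ⟨f, -, hy⟩ := A.mem_region.1 h
      rw [A.cov]; exact mem_iUnion.2 ⟨f, hy⟩
  · intro h
    rw [A.cov] at h
    obtain ⟨f, hy⟩ := mem_iUnion.1 h
    rcases two' (w f) with h' | h'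
    · exact Or.inr (A.mem_region.2 ⟨f, h', hy⟩)
    · exact Or.inl (A.mem_region.2 ⟨f, h', hy⟩)

theorem region_inter {w : T → ZMod 2} {z : E → ZMod 2} (h : S.Bd w z) :
    A.region w 1 ∩ A.region w 0 = ⋃ e ∈ {e | z e = 1}, A.arc e := by
  ext y
  constructor
  · rintro ⟨h1, h0⟩
    obtain ⟨f, hf, hyf⟩ := A.mem_region.1 h1
    obtain ⟨g, hg, hyg⟩ := A.mem_region.1 h0
    have hfg : f ≠ g := by rintro rfl; rw [hf] at hg; exact absurd hg (by decide)
    obtain ⟨e, hfe, hye⟩ := A.tile_tile f g hfg y hyf hyg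
    rcases A.tile_arc g e y hyg hye with hge | ⟨v, rfl⟩
    · refine mem_biUnion (show e ∈ {e | z e = 1} from ?_) hye
      show z e = 1
      rw [h e f g hfg hfe hge, hf, hg]; rfl
    · by_contra hcon
      have hz : ∀ e, v ∈ S.ends e → z e = 0 := by
        intro e he
        rcases two' (z e) with h' | h'
        · exact h'
        · exact absurd (mem_biUnion (show e ∈ {e | z e = 1} from h') (A.arcG.pt_mem he)) hcon
      obtain ⟨e1, hv1, hf1⟩ := A.tile_pt f v hyf
      obtain ⟨e2, hv2, hg2⟩ := A.tile_pt g v hyg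
      have := S.link v {f | w f = 1} (fun e he f g hfe hge hfA => by
        by_cases hfg : f = g
        · rw [← hfg]; exact hfA
        · have h3 := h e f g hfg hfe hge
          rw [hz e he] at h3
          have h4 : w f = w g := by
            have h5 : w f + w g = 0 := h3.symm
            rwa [CharTwo.add_eq_zero] at h5
          show w g = 1
          rw [← h4]; exact hfA) e1 hv1 f hf1 hf e2 hv2 g hg2
      have h6 : w g = 1 := this
      rw [hg] at h6
      exact absurd h6 (by decide)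
  · intro hy
    obtain ⟨e, he, hye⟩ := mem_iUnion₂.1 hy
    have he' : z e = 1 := he
    obtain ⟨f, g, hfg, hall⟩ := S.two e
    have hf := (hall f).2 (Or.inl rfl)
    have hg := (hall g).2 (Or.inr rfl)
    have h1 := h e f g hfg hf hg
    rw [he'] at h1
    have hyf := A.arc_tile f e hf hye
    have hyg := A.arc_tile g e hg hye
    rcases two' (w f) with h2 | h2
    · have h3 : w g = 1 := by rw [h2, zero_add] at h1; exact h1.symm
      exact ⟨A.mem_region.2 ⟨g, h3, hyg⟩, A.mem_region.2 ⟨f, h2, hyf⟩⟩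
    · have h3 : w g = 0 := by
        rcases two' (w g) with h | h
        · exact h
        · rw [h2, h] at h1; exact absurd h1 (by decide)
      exact ⟨A.mem_region.2 ⟨f, h2, hyf⟩, A.mem_region.2 ⟨g, h3, hyg⟩⟩

/-- a region bounded by a circle is a disc -/
theorem disc [Finite T] {K : Set Em} (hK : IsBall 3 K Sg) {w : T → ZMod 2} {z : E → ZMod 2}
    (h : S.Bd w z) (hΓ : Nonempty (PLEquiv (S1 ℝ) (⋃ e ∈ {e | z e = 1}, A.arc e)))
    (h1 : ∃ f, w f = 1) (h0 : ∃ f, w f = 0) :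
    IsBall 2 (A.region w 1) (⋃ e ∈ {e | z e = 1}, A.arc e) := by
  have hne : ∀ c : ZMod 2, (∃ f, w f = c) →
      (A.region w c \ ⋃ e ∈ {e | z e = 1}, A.arc e).Nonempty := by
    rintro c ⟨f, hf⟩
    obtain ⟨y, hy, hye⟩ := A.tile_ne f
    refine ⟨y, A.mem_region.2 ⟨f, hf, hy⟩, fun h => ?_⟩
    obtain ⟨e, -, he⟩ := mem_iUnion₂.1 h
    exact hye e he
  exact disc_of_split hK hΓ (A.isClosed_region w 1) (A.isClosed_region w 0) (A.region_union w)
    (A.region_inter h) (hne 1 h1) (hne 0 h0)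

end Real

namespace Emb

variable {S : Surf V E T} {G : Cub N R X} (M : Emb S G) {Sg : Set Em} (A : Real S Sg)

theorem pt_vs {a : N} {r : R} (h : M.pt a ∈ M.vs r) : a ∈ G.ends r := by
  obtain ⟨r', hr'⟩ := Lay.exists_edge G a
  by_cases hrr : r' = r
  · rw [← hrr]; exact hr'
  · obtain ⟨b, hb, -, hab⟩ := M.meet r r' (Ne.symm hrr) (M.pt a) h (M.ends_mem r' a hr')
    rw [M.inj hab]; exact hb

/-- the path of an edge is a simple path -/
theorem pathI {r : R} {a b : N} (h : G.ends r = s(a, b)) :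
    PathI S.ends (M.P r) (M.pt a) (M.pt b) := by
  have hab : a ≠ b := by
    rintro rfl
    exact G.nd r (by rw [h]; exact Sym2.mk_isDiag_iff.2 rfl)
  have ha : a ∈ G.ends r := by rw [h]; exact Sym2.mem_mk_left _ _
  have hb : b ∈ G.ends r := by rw [h]; exact Sym2.mem_mk_right _ _
  refine pathI_of_deg S.nd (fun h' => hab (M.inj h')) (M.deg_end r a ha) (M.deg_end r b hb)
    (fun v hva hvb => ?_) (M.pconn r)
  by_cases hv : v ∈ M.vs r
  · right
    refine M.deg_in r v hv (fun c hc => ?_)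
    rw [h, Sym2.mem_iff] at hc
    rcases hc with rfl | rfl
    · exact hva
    · exact hvb
  · left
    rw [Set.ncard_eq_zero (star_finite _ _), eq_empty_iff_forall_notMem]
    rintro e ⟨he, hve⟩
    exact hv ((M.vs_iff r v).2 ⟨e, he, hve⟩)

theorem P_disj {r r' : R} (h : r ≠ r') {e : E} (h1 : e ∈ M.P r) (h2 : e ∈ M.P r') : False := by
  obtain ⟨u, v, huv⟩ : ∃ u v, S.ends e = s(u, v) := by
    induction h : S.ends e using Sym2.ind with
    | _ a b => exact ⟨a, b, rfl⟩
  have hne : u ≠ v := by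
    rintro rfl
    exact S.nd e (by rw [huv]; exact Sym2.mk_isDiag_iff.2 rfl)
  have hu : u ∈ S.ends e := by rw [huv]; exact Sym2.mem_mk_left _ _
  have hv : v ∈ S.ends e := by rw [huv]; exact Sym2.mem_mk_right _ _
  obtain ⟨a, ha, ha', rfl⟩ := M.meet r r' h u ((M.vs_iff r u).2 ⟨e, h1, hu⟩)
    ((M.vs_iff r' u).2 ⟨e, h2, hu⟩)
  obtain ⟨b, hb, hb', rfl⟩ := M.meet r r' h v ((M.vs_iff r v).2 ⟨e, h1, hv⟩)
    ((M.vs_iff r' v).2 ⟨e, h2, hv⟩)
  have hab : a ≠ b := fun h => hne (by rw [h])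
  apply h
  apply G.multi
  rw [(Sym2.mem_and_mem_iff hab).1 ⟨ha, hb⟩, (Sym2.mem_and_mem_iff hab).1 ⟨ha', hb'⟩]

/-- arcs of the edges -/
def arc (r : R) : Set Em := ⋃ e ∈ M.P r, A.arc e

theorem arcG : ArcG G.ends (fun a => A.pt (M.pt a)) (M.arc A) where
  nd := G.nd
  inj := fun _ _ h => M.inj (A.inj h)
  ball := by
    intro r
    obtain ⟨a, b, hab⟩ : ∃ a b, G.ends r = s(a, b) := by
      induction h : G.ends r using Sym2.ind with
      | _ a b => exact ⟨a, b, rfl⟩
    rw [image_ends hab]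
    exact A.arcG.path_ball (M.pathI hab)
  pt_arc := by
    intro a r h
    obtain ⟨e, he, hae⟩ := mem_iUnion₂.1 h
    exact M.pt_vs ((M.vs_iff r _).2 ⟨e, he, A.pt_arc _ _ hae⟩)
  arc_arc := by
    intro r r' hrr y hy hy'
    obtain ⟨e, he, hye⟩ := mem_iUnion₂.1 hy
    obtain ⟨e', he', hye'⟩ := mem_iUnion₂.1 hy'
    have hee : e ≠ e' := by rintro rfl; exact M.P_disj hrr he he'
    obtain ⟨v, hv, rfl⟩ := A.arc_arc e e' hee y hye hye'
    obtain ⟨a, ha, -, hva⟩ := M.meet r r' hrr v ((M.vs_iff r v).2 ⟨e, he, hv⟩)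
      ((M.vs_iff r' v).2 ⟨e', he', A.pt_arc _ _ hye'⟩)
    exact ⟨a, ha, by rw [hva]⟩

/-- the boundary of the face `x` as a chain -/
noncomputable def z (x : X) (e : E) : ZMod 2 := by
  classical exact if ∃ r ∈ G.bd x, e ∈ M.P r then 1 else 0

theorem z_eq_one {x : X} {e : E} : M.z x e = 1 ↔ ∃ r ∈ G.bd x, e ∈ M.P r := by
  classical
  unfold z
  split_ifs with h
  · exact ⟨fun _ => h, fun _ => rfl⟩
  · exact ⟨fun h' => absurd h' (by decide), fun h' => absurd h' h⟩

theorem bd (x : X) : S.Bd (M.w x) (M.z x) := by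
  intro e f g hfg hf hg
  rw [← M.w_bd x e f g hfg hf hg]
  beta_reduce
  by_cases h : ∃ r ∈ G.bd x, e ∈ M.P r
  · rw [M.z_eq_one.2 h, if_pos h]
  · rw [if_neg h]
    rcases Real.two' (M.z x e) with h' | h'
    · exact h'
    · exact absurd (M.z_eq_one.1 h') h

theorem union_z (x : X) : (⋃ e ∈ {e | M.z x e = 1}, A.arc e) = ⋃ r ∈ G.bd x, M.arc A r := by
  ext y
  constructor
  · intro hy
    obtain ⟨e, he, hye⟩ := mem_iUnion₂.1 hy
    obtain ⟨r, hr, her⟩ := M.z_eq_one.1 he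
    exact mem_biUnion hr (mem_biUnion her hye)
  · intro hy
    obtain ⟨r, hr, hyr⟩ := mem_iUnion₂.1 hy
    obtain ⟨e, he, hye⟩ := mem_iUnion₂.1 hyr
    exact mem_biUnion (show e ∈ {e | M.z x e = 1} from M.z_eq_one.2 ⟨r, hr, he⟩) hye

theorem P_ne (r : R) : (M.P r).Nonempty := by
  obtain ⟨a, b, hab⟩ : ∃ a b, G.ends r = s(a, b) := by
    induction h : G.ends r using Sym2.ind with
    | _ a b => exact ⟨a, b, rfl⟩
  exact (M.pathI hab).nonempty

theorem disc_ball [Finite T] {K : Set Em} (hK : IsBall 3 K Sg) (x : X) :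
    IsBall 2 (A.region (M.w x) 1) (⋃ r ∈ G.bd x, M.arc A r) := by
  rw [← M.union_z A x]
  refine A.disc hK (M.bd x) ?_ ?_ ?_
  · rw [M.union_z A x]
    exact (M.arcG A).cycle_circle (G.bd_ne x) (fun v => G.deg x v) (fun Q hQ hQe =>
      G.simple x Q hQ fun a => hQe a)
  · obtain ⟨r, hr⟩ := G.bd_ne x
    obtain ⟨e, he⟩ := M.P_ne r
    obtain ⟨f, g, hfg, hall⟩ := S.two e
    have h1 := M.bd x e f g hfg ((hall f).2 (Or.inl rfl)) ((hall g).2 (Or.inr rfl))
    rw [M.z_eq_one.2 ⟨r, hr, he⟩] at h1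
    rcases Real.two' (M.w x f) with h | h
    · refine ⟨g, ?_⟩
      rw [h, zero_add] at h1; exact h1.symm
    · exact ⟨f, h⟩
  · obtain ⟨r, hr⟩ := G.out x
    obtain ⟨e, he⟩ := M.P_ne r
    obtain ⟨f, g, hfg, hall⟩ := S.two e
    exact ⟨f, M.w_out x r hr e he f ((hall f).2 (Or.inl rfl))⟩

/-- **the embedded graph gives a cell structure of `Sg`** -/
noncomputable def lay [Finite T] {K : Set Em} (hK : IsBall 3 K Sg) : Lay G Sg where
  pt := fun a => A.pt (M.pt a)
  arc := M.arc A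
  disc := fun x => A.region (M.w x) 1
  inj := (M.arcG A).inj
  arc_ball := (M.arcG A).ball
  disc_ball := M.disc_ball A hK
  pt_arc := (M.arcG A).pt_arc
  arc_arc := (M.arcG A).arc_arc
  disc_disc := by
    intro x x' hxx y hy hy'
    rw [← M.union_z A x, ← A.region_inter (M.bd x)]
    refine ⟨hy, ?_⟩
    obtain ⟨f, hf, hyf⟩ := A.mem_region.1 hy'
    refine A.mem_region.2 ⟨f, ?_, hyf⟩
    rcases Real.two' (M.w x f) with h | h
    · exact h
    · obtain ⟨x0, -, hx0⟩ := M.w_one f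
      exact absurd ((hx0 x h).trans (hx0 x' hf).symm) hxx
  cov := by
    refine A.cov.trans ?_
    ext y
    constructor
    · intro hy
      obtain ⟨f, hf⟩ := mem_iUnion.1 hy
      obtain ⟨x, hx, -⟩ := M.w_one f
      exact mem_iUnion.2 ⟨x, A.mem_region.2 ⟨f, hx, hf⟩⟩
    · intro hy
      obtain ⟨x, hx⟩ := mem_iUnion.1 hy
      obtain ⟨f, -, hf⟩ := A.mem_region.1 hx
      exact mem_iUnion.2 ⟨f, hf⟩

/-- **SPH, geometric form**: an embedded copy of the cubic graph `G` in a cell structure of the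
PL sphere `Sg` whose faces are near the faces of a realisation `L'` of `G` on `Sg'` gives a PL
equivalence `θ` near `g`. -/
theorem exists_theta [Finite T] [Finite N] [Finite R] [Finite X] {K : Set Em}
    (hK : IsBall 3 K Sg) {Sg' : Set F} (L' : Lay G Sg') {g : Em → F} {ε : ℝ}
    (hg : ∀ x f, M.w x f = 1 → ∀ p ∈ A.tile f, ∀ y ∈ L'.disc x, dist y (g p) ≤ ε) :
    ∃ θ : PLEquiv Sg Sg', (∀ a, θ.f (A.pt (M.pt a)) = L'.pt a) ∧
      (∀ r, θ.f '' M.arc A r = L'.arc r) ∧ (∀ x, θ.f '' A.region (M.w x) 1 = L'.disc x) ∧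
      ∀ p ∈ Sg, dist (θ.f p) (g p) ≤ ε := by
  refine (M.lay A hK).exists_equiv_near L' (g := g) (ε := ε) ?_
  intro x p hp y hy
  obtain ⟨f, hf, hpf⟩ := A.mem_region.1 hp
  exact hg x f hf p hpf y hy

end Emb

end Crest.Agent.R096.Sph_560
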