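import Mathlib

/-!
# R096 (row 96), DOORS / SPH (helper333), part 0: `H^1 = 0` gives `sep` (duality mod 2)

`Crest.Agent.R096.Spp_333.sep_of_h1`: on a finite set of edges such that every edge is on exactly two
tiles: if every cochain which is even on every tile is a coboundary, then every even set of edges
is the boundary of a set of tiles.
-/

set_option autoImplicit false

namespace Crest.Agent.R096.Spp_333

open Finset

variable {V E T : Type*} [Fintype E]

/-- **duality mod 2**: vanishing of the cohomology gives that even sets of edges bound. -/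
theorem sep_of_h1 {ends : E → Sym2 V} (nd : ∀ e, ¬ (ends e).IsDiag) {On : T → E → Prop}
    (two : ∀ e, ∃ f g, f ≠ g ∧ ∀ h, On h e ↔ h = f ∨ h = g)
    (h1 : ∀ κ : E → ZMod 2, (∀ f, (∑ e, open Classical in if On f e then κ e else 0) = 0) →
      ∃ ψ : V → ZMod 2, ∀ e u v, ends e = s(u, v) → κ e = ψ u + ψ v)
    (z : E → ZMod 2)
    (hz : ∀ v, (∑ e, open Classical in if v ∈ ends e then z e else 0) = 0) :
    ∃ w : T → ZMod 2, ∀ e f g, f ≠ g → On f e → On g e → z e = w f + w g := by
  classical
  -- the coboundary of the tiles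
  have hfin : ∀ κ : E → ZMod 2, {f | (∑ e, if On f e then κ e else 0) ≠ 0}.Finite := by
    intro κ
    refine (Set.finite_iUnion (fun e : E => (show {f | On f e}.Finite from ?_))).subset
      (s := ⋃ e : E, {f | On f e}) ?_
    · obtain ⟨f, g, -, h⟩ := two e
      exact (Set.toFinite {f, g}).subset fun k hk => (h k).1 hk
    · intro f hf
      by_contra hcon
      apply hf
      apply Finset.sum_eq_zero
      intro e _
      rw [if_neg]
      intro h
      exact hcon (Set.mem_iUnion.2 ⟨e, h⟩)
  let D2 : (E → ZMod 2) →ₗ[ZMod 2] (T →₀ ZMod 2) :=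
    { toFun := fun κ => Finsupp.onFinset (hfin κ).toFinset
        (fun f => ∑ e, if On f e then κ e else 0) (fun f hf => by
          rw [Set.Finite.mem_toFinset]; exact hf)
      map_add' := by
        intro κ κ'
        ext f
        simp only [Finsupp.onFinset_apply, Finsupp.add_apply, Pi.add_apply]
        rw [← Finset.sum_add_distrib]
        refine Finset.sum_congr rfl fun e _ => ?_
        split_ifs <;> simp
      map_smul' := by
        intro c κ
        ext f
        simp only [Finsupp.onFinset_apply, Finsupp.smul_apply, Pi.smul_apply, smul_eq_mul,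
          RingHom.id_apply]
        rw [Finset.mul_sum]
        refine Finset.sum_congr rfl fun e _ => ?_
        split_ifs <;> simp }
  have hD2 : ∀ κ f, D2 κ f = ∑ e, if On f e then κ e else 0 := fun κ f => rfl
  -- the functional of `z`
  let φ : (E → ZMod 2) →ₗ[ZMod 2] ZMod 2 :=
    { toFun := fun κ => ∑ e, z e * κ e
      map_add' := by
        intro κ κ'
        simp only [Pi.add_apply, mul_add]
        rw [Finset.sum_add_distrib]
      map_smul' := by
        intro c κ
        simp only [Pi.smul_apply, smul_eq_mul, RingHom.id_apply]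
        rw [Finset.mul_sum]
        exact Finset.sum_congr rfl fun e _ => by ring }
  have hφ : ∀ κ, φ κ = ∑ e, z e * κ e := fun κ => rfl
  -- it vanishes on the kernel
  have hker : LinearMap.ker D2 ≤ LinearMap.ker φ := by
    intro κ hκ
    rw [LinearMap.mem_ker] at hκ ⊢
    have h2 : ∀ f, (∑ e, if On f e then κ e else 0) = 0 := fun f => by
      rw [← hD2, hκ]; rfl
    obtain ⟨ψ, hψ⟩ := h1 κ h2
    rw [hφ]
    -- choose end points
    have hch : ∀ e, ∃ u v, ends e = s(u, v) := fun e => by
      induction h : ends e using Sym2.ind with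
      | _ a b => exact ⟨a, b, rfl⟩
    choose a b hab using hch
    let U : Finset V := Finset.univ.image a ∪ Finset.univ.image b
    have e1 : ∀ e, z e * κ e = ∑ v ∈ U, ψ v * (if v ∈ ends e then z e else 0) := by
      intro e
      have hne : a e ≠ b e := fun h => nd e (by rw [hab e, h]; exact Sym2.mk_isDiag_iff.2 rfl)
      have ha : a e ∈ U := Finset.mem_union_left _ (Finset.mem_image_of_mem _ (mem_univ e))
      have hb : b e ∈ U := Finset.mem_union_right _ (Finset.mem_image_of_mem _ (mem_univ e))
      have e2 : ∀ v ∈ U, ψ v * (if v ∈ ends e then z e else 0) =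
          if v ∈ ({a e, b e} : Finset V) then ψ v * z e else 0 := by
        intro v _
        by_cases h : v ∈ ends e
        · rw [if_pos h, if_pos]
          rw [hab e, Sym2.mem_iff] at h
          simpa using h
        · rw [if_neg h, if_neg, mul_zero]
          intro h'
          apply h
          rw [hab e, Sym2.mem_iff]
          simpa using h'
      rw [Finset.sum_congr rfl e2, Finset.sum_ite_mem, Finset.inter_eq_right.2, Finset.sum_pair hne,
        hψ e _ _ (hab e)]
      · ring
      · intro v hv
        rw [Finset.mem_insert, Finset.mem_singleton] at hv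
        rcases hv with rfl | rfl
        · exact ha
        · exact hb
    rw [Finset.sum_congr rfl fun e _ => e1 e, Finset.sum_comm]
    apply Finset.sum_eq_zero
    intro v _
    rw [← Finset.mul_sum, hz v, mul_zero]
  -- so it factors
  obtain ⟨θ, hθ⟩ : ∃ θ : (T →₀ ZMod 2) →ₗ[ZMod 2] ZMod 2, θ ∘ₗ D2 = φ := by
    obtain ⟨ψ0, h0⟩ : ∃ ψ0 : LinearMap.range D2 →ₗ[ZMod 2] ZMod 2,
        ψ0 ∘ₗ D2.rangeRestrict = φ := by
      refine ⟨(LinearMap.ker D2).liftQ φ hker ∘ₗ D2.quotKerEquivRange.symm.toLinearMap, ?_⟩
      ext1 e
      ext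
      simp only [LinearMap.coe_comp, Function.comp_apply, LinearEquiv.coe_coe]
      have : D2.quotKerEquivRange.symm (D2.rangeRestrict ((LinearMap.single (ZMod 2)
          (fun _ => ZMod 2) e) 1)) = Submodule.Quotient.mk ((LinearMap.single (ZMod 2)
          (fun _ => ZMod 2) e) 1) := by
        rw [LinearEquiv.symm_apply_eq]
        ext1
        rfl
      rw [this]
      rfl
    obtain ⟨θ, hθ⟩ := LinearMap.exists_extend ψ0
    refine ⟨θ, ?_⟩
    ext1 e
    ext
    have h3 := LinearMap.congr_fun hθ (D2.rangeRestrict ((LinearMap.single (ZMod 2)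
          (fun _ => ZMod 2) e) 1))
    have h4 := LinearMap.congr_fun h0 ((LinearMap.single (ZMod 2) (fun _ => ZMod 2) e) 1)
    simp only [LinearMap.coe_comp, Function.comp_apply] at h3 h4 ⊢
    rw [← h4, ← h3]
    rfl
  refine ⟨fun f => θ (Finsupp.single f 1), ?_⟩
  intro e f g hfg hf hg
  obtain ⟨f', g', hfg', hall⟩ := two e
  have hiff : ∀ h, On h e ↔ h = f ∨ h = g := by
    intro h
    rw [hall h]
    have hf' := (hall f).1 hf
    have hg' := (hall g).1 hg
    rcases hf' with rfl | rfl <;> rcases hg' with rfl | rfl
    · exact absurd rfl hfg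
    · rfl
    · exact or_comm
    · exact absurd rfl hfg
  have h5 : D2 (Pi.single e 1) = Finsupp.single f 1 + Finsupp.single g 1 := by
    ext h
    rw [hD2, Finsupp.add_apply, Finsupp.single_apply, Finsupp.single_apply]
    rw [Finset.sum_eq_single e]
    · rw [Pi.single_eq_same]
      by_cases h6 : h = f
      · rw [if_pos ((hiff h).2 (Or.inl h6)), if_pos h6.symm, if_neg, add_zero]
        rintro rfl
        exact hfg h6.symm
      · by_cases h7 : h = g
        · rw [if_pos ((hiff h).2 (Or.inr h7)), if_neg (Ne.symm h6), if_pos h7.symm, zero_add]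
        · rw [if_neg (fun h8 => ((hiff h).1 h8).elim h6 h7), if_neg (Ne.symm h6),
            if_neg (Ne.symm h7), add_zero]
    · intro e' _ hne
      rw [Pi.single_eq_of_ne hne]
      split_ifs <;> rfl
    · intro h; exact absurd (mem_univ e) h
  have h6 := LinearMap.congr_fun hθ (Pi.single e 1)
  rw [LinearMap.comp_apply, h5, map_add, hφ] at h6
  rw [h6, Finset.sum_eq_single e]
  · rw [Pi.single_eq_same, mul_one]
  · intro e' _ hne
    rw [Pi.single_eq_of_ne hne, mul_zero]
  · intro h; exact absurd (mem_univ e) h

end Crest.Agent.R096.Spp_333
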