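import Crest.Agent.R096.Mrg4_715
import Crest.Agent.R096.Sph3_560
import Crest.Agent.R096.Spp0_333

/-!
# R096 (row 96): the surface of a core (helper715)

The frontier of a core is a finite combinatorial sphere (`Sph_560.Surf`) with a geometric
realisation (`Sph_560.Real`).
-/

set_option autoImplicit false

open Set Metric Filter Topology Module
open scoped Classical

namespace Crest.Agent.R096.Msh_715

open St_147 Agl5_543 Coh_184

section Gen

variable {E : Type*} [NormedAddCommGroup E] [NormedSpace ℝ E] [FiniteDimensional ℝ E]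
variable {Om : Set E} {ι : Type*} (T : Tiling Om ι)

/-- a cochain is exact on a 1-cell -/
theorem Tiling.exact_cell1 {c : T.Cell → ZMod 2} {x : E} (hx : x ∈ Om) (hd : T.dim x = 1) :
    ∃ lam : E → ZMod 2, T.Exact (Tiling.kapC c) lam (T.cc x) := by
  obtain ⟨a0, b0, hab0, e1, e2, ha, hb, hax, hbx⟩ := T.edge_eq hx hd
  refine ⟨fun v => if v = a0 then c (T.cl hx) else 0, ?_⟩
  intro e he h1 a b hab
  have heO := T.cc_sub_Om hx he
  have hoc := Tiling.cl_eq_of_dim1 hx hd he h1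
  have hcc : T.cc e = T.cc x := T.cc_eq_of_mem_oc hx hoc
  have hcl : T.cl heO = T.cl hx := Cell.ext (by rw [T.cl_set, T.cl_set, hcc])
  rw [Tiling.kapC_cl c heO, hcl]
  obtain ⟨ha0, hb0, hae, hbe, hne⟩ := T.dim_ends heO h1 hab
  rw [hcc] at hae hbe
  have h3 := T.vertex_of_edge hx hd e1 hae ha0
  have h4 := T.vertex_of_edge hx hd e1 hbe hb0
  show (if a = a0 then c (T.cl hx) else 0) - (if b = a0 then c (T.cl hx) else 0) = c (T.cl hx)
  rcases h3 with rfl | rfl <;> rcases h4 with rfl | rfl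
  · exact absurd rfl hne
  · rw [if_pos rfl, if_neg hne.symm, sub_zero]
  · rw [if_neg hne, if_pos rfl, zero_sub, ZMod.neg_eq_self_mod_two]
  · exact absurd rfl hne

/-- **`H¹ = 0` on cells for two-dimensional compact subcomplexes with trivial torsors** -/
theorem Tiling.exact_sub {S : Set E} (hS : IsCompact S) (hSO : S ⊆ Om)
    (hScc : ∀ x ∈ S, T.cc x ⊆ S) (hSd : ∀ x ∈ S, T.dim x ≤ 2) (ht : TrivF (ZMod 2) S)
    {c : T.Cell → ZMod 2} (heven : ∀ x ∈ S, T.dim x = 2 → ∑ e ∈ T.edges x, c e = 0) :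
    ∃ ψ : E → ZMod 2, ∀ e : T.Cell, e.dim = 1 → e.set ⊆ S → ∀ a b : E, e.set = segment ℝ a b →
      ψ a + ψ b = c e := by
  have hfin := T.finite_cells hS hSO
  let J := {c : Set E // (∃ x ∈ Om, c = T.cc x) ∧ (c ∩ S).Nonempty ∧ c ⊆ S}
  have hJfin : Finite J := by
    have : {c : Set E | (∃ x ∈ Om, c = T.cc x) ∧ (c ∩ S).Nonempty ∧ c ⊆ S}.Finite :=
      hfin.subset fun c hc => ⟨hc.1, hc.2.1⟩
    exact this
  have hrep : ∀ j : J, ∃ x ∈ S, j.1 = T.cc x := by
    rintro ⟨c, ⟨x, hx, rfl⟩, hne, hcS⟩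
    exact ⟨x, hcS (T.self_mem_cc x), rfl⟩
  obtain ⟨ψ, hψ⟩ := T.glue (J := J) (Q := fun j => j.1) (S := S) (κ := Tiling.kapC c)
    (fun j => by
      obtain ⟨x, hx, e⟩ := hrep j
      rw [e]; exact T.isClosed_cc x)
    (fun j => j.2.2.2.trans hSO)
    (fun j y hy => by
      obtain ⟨x, hx, e⟩ := hrep j
      rw [e] at hy ⊢
      exact T.cc_sub_of_mem hy)
    ht
    (fun x hx => mem_iUnion.2 ⟨⟨T.cc x, ⟨x, hSO hx, rfl⟩, ⟨x, T.self_mem_cc x, hx⟩, hScc x hx⟩,
      T.self_mem_cc x⟩)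
    (fun j => by
      rw [Set.inter_eq_left.2 j.2.2.2]
      obtain ⟨x, hx, e⟩ := hrep j
      rw [e]; exact (T.convex_cc x).isPreconnected)
    (fun j => by
      obtain ⟨x, hx, e⟩ := hrep j
      rw [e]
      have hd := hSd x hx
      rcases Nat.lt_or_ge (T.dim x) 1 with h | h
      · refine ⟨fun _ => 0, Tiling.Exact.of_dim T _ fun y hy => ?_⟩
        have := T.dim_le hy
        omega
      rcases Nat.lt_or_ge (T.dim x) 2 with h' | h'
      · exact T.exact_cell1 (hSO hx) (by omega)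
      · exact Tiling.exact_cell2C (hSO hx) (by omega) (heven x hx (by omega)))
  refine ⟨ψ, fun e h1 heS a b hab => ?_⟩
  have h := hψ e.pt e.pt_mem h1 (by rw [← e.set_eq]; exact heS) a b (by rw [← e.set_eq]; exact hab)
  rw [Tiling.kapC_cl c e.pt_mem] at h
  rw [← CharTwo.sub_eq_add, h]
  congr 1
  exact (Cell.ext (by rw [T.cl_set, e.set_eq]))

end Gen

/-! ### the surface -/

section Surface

variable {E : Type} [NormedAddCommGroup E] [NormedSpace ℝ E] [FiniteDimensional ℝ E]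
variable {Om : Set E} {ι : Type} {T : Tiling Om ι} {κ : Type} {Kc : κ → Set E}

/-- 2-cells of the frontier of the core -/
abbrev FcK (T : Tiling Om ι) (Kc : κ → Set E) (c : κ) : Type :=
  {F : C2 T // F.set ⊆ frontier (Kc c)}

theorem finite_EdK {c : κ} (hc : IsCompact (Kc c)) (hKO : Kc c ⊆ Om) : Finite (EdK T Kc c) := by
  have hS : IsCompact (frontier (Kc c)) := hc.of_isClosed_subset isClosed_frontier
    hc.isClosed.frontier_subset
  exact T.finite_cells1 hS (hc.isClosed.frontier_subset.trans hKO)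

theorem finite_VxK {c : κ} (hc : IsCompact (Kc c)) (hKO : Kc c ⊆ Om) : Finite (VxK T Kc c) := by
  have hS : IsCompact (frontier (Kc c)) := hc.of_isClosed_subset isClosed_frontier
    hc.isClosed.frontier_subset
  have hfin := T.finite_cells hS (hc.isClosed.frontier_subset.trans hKO)
  have h1 : {v : E | T.dim v = 0 ∧ v ∈ frontier (Kc c)}.Finite := by
    refine Set.Finite.of_finite_image (f := fun v => ({v} : Set E)) (hfin.subset ?_)
      (fun a _ b _ h => singleton_injective h)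
    rintro _ ⟨v, ⟨h0, hv⟩, rfl⟩
    refine ⟨⟨v, (hc.isClosed.frontier_subset.trans hKO) hv, ?_⟩, v, rfl, hv⟩
    exact (T.cc_eq_singleton (T.dim_eq_zero_iff.1 h0)).symm
  exact h1

omit [FiniteDimensional ℝ E] in
theorem finite_FcK {c : κ} (hc : IsCompact (Kc c)) (hKO : Kc c ⊆ Om) : Finite (FcK T Kc c) := by
  have hS : IsCompact (frontier (Kc c)) := hc.of_isClosed_subset isClosed_frontier
    hc.isClosed.frontier_subset
  have hfin := T.finite_cells hS (hc.isClosed.frontier_subset.trans hKO)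
  have h1 : {F : C2 T | F.set ⊆ frontier (Kc c)}.Finite := by
    refine Set.Finite.of_finite_image (f := fun F : C2 T => F.set) (hfin.subset ?_)
      (fun F _ G _ h => C2.ext h)
    rintro _ ⟨F, hF, rfl⟩
    exact ⟨F.1.2, F.pt, F.1.opn_sub (T.self_mem_oc _), hF (F.1.opn_sub (T.self_mem_oc _))⟩
  exact h1

/-- ends of an edge -/
noncomputable def endK {c : κ} (e : EdK T Kc c) (b : Bool) : VxK T Kc c :=
  ⟨endp e.1 b, (endp_mem e.2.1 b).2, e.2.2 (endp_mem e.2.1 b).1⟩

theorem endK_iff {c : κ} (e : EdK T Kc c) (v : VxK T Kc c) :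
    (∃ b, endK e b = v) ↔ v.1 ∈ e.1.set := by
  rw [endp_iff e.2.1 v.2.1]
  exact ⟨fun ⟨b, hb⟩ => ⟨b, congrArg Subtype.val hb⟩, fun ⟨b, hb⟩ => ⟨b, Subtype.ext hb⟩⟩

theorem endK_ne {c : κ} (e : EdK T Kc c) : endK e false ≠ endK e true := fun h =>
  (lft_rgt e.2.1).1 (congrArg Subtype.val h)

theorem mem_ends {c : κ} (e : EdK T Kc c) (v : VxK T Kc c) :
    v ∈ s(endK e false, endK e true) ↔ v.1 ∈ e.1.set := by
  rw [← endK_iff, Sym2.mem_iff]
  constructor
  · rintro (h | h)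
    · exact ⟨false, h.symm⟩
    · exact ⟨true, h.symm⟩
  · rintro ⟨b, hb⟩
    cases b
    · exact Or.inl hb.symm
    · exact Or.inr hb.symm

theorem seg_endK {c : κ} (e : EdK T Kc c) :
    e.1.set = segment ℝ (endK e false).1 (endK e true).1 := (lft_rgt e.2.1).2.1

/-- the hypotheses on a core -/
structure CoreH (T : Tiling Om ι) (K : Set E) : Prop where
  core : Core K
  sub : K ⊆ Om
  cpt : IsCompact K
  cc : ∀ x ∈ frontier K, T.cc x ⊆ frontier K
  pc : PC (frontier K)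
  conn : IsPreconnected (frontier K)
  nt : (frontier K).Nontrivial
  triv : TrivF (ZMod 2) (frontier K)

omit [FiniteDimensional ℝ E] in
/-- homeomorphic images of convex bodies whose frontier is a subcomplex -/
theorem CoreH.of_homeo {F : Type*} [NormedAddCommGroup F] [NormedSpace ℝ F]
    [FiniteDimensional ℝ F] {C : Set F} (hC : IsCompact C) (hc : Convex ℝ C)
    (hne : (interior C).Nonempty) (H : F ≃ₜ E) (hF : finrank ℝ F = 3) (hO : H '' C ⊆ Om)
    (hcc : ∀ x ∈ frontier (H '' C), T.cc x ⊆ frontier (H '' C)) : CoreH T (H '' C) := by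
  obtain ⟨g, hg⟩ := Lab_184.exists_homeo_sphere hF hC hc hne
  have hfr : frontier (H '' C) = (g.trans H) '' sphere 0 1 := by
    rw [← H.image_frontier, ← hg, ← image_comp]; rfl
  refine ⟨Core.of_homeo hC.isClosed hc hne H, hO, hC.image H.continuous, hcc,
    PC.of_homeo hF hC hc hne H, ?_, ?_, ?_⟩
  · rw [hfr]
    refine (isPreconnected_sphere ?_ _ _).image _ (g.trans H).continuous.continuousOn
    rw [← Module.finrank_eq_rank, finrank_euclideanSpace, Fintype.card_fin]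
    norm_num
  · rw [hfr]
    refine Set.Nontrivial.image ?_ (g.trans H).injective
    have hn : ‖EuclideanSpace.single (0 : Fin 3) (1 : ℝ)‖ = 1 := by simp
    refine ⟨EuclideanSpace.single (0 : Fin 3) (1 : ℝ), by rw [mem_sphere_zero_iff_norm]; exact hn,
      -EuclideanSpace.single (0 : Fin 3) (1 : ℝ), by rw [mem_sphere_zero_iff_norm, norm_neg]; exact hn,
      fun h => ?_⟩
    have h0 := congrArg (fun v : EuclideanSpace ℝ (Fin 3) => v 0) h
    simp at h0
    norm_num at h0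
  · rw [hfr]
    exact trivF_sphere_image (g.trans H).continuous.continuousOn (g.trans H).injective.injOn

/-- an edge at a vertex inside a face -/
theorem exists_edge_at {c : κ} {F : C2 T} (hF : F.set ⊆ frontier (Kc c)) {v : E}
    (hv : v ∈ F.set) (hv0 : T.dim v = 0) : ∃ e : EdK T Kc c, v ∈ e.1.set ∧ e.1.set ⊆ F.set := by
  have hv' : v ∈ T.cc F.pt := by rw [← F.set_eq]; exact hv
  have h2 := T.two_edges F.pt_mem F.dim_pt hv' hv0
  have hne : (T.edgesAt F.pt v).Nonempty := by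
    rw [Set.nonempty_iff_ne_empty]
    intro h
    rw [h, ncard_empty] at h2
    omega
  obtain ⟨e, h4, h5, h6⟩ := hne
  rw [← F.set_eq] at h5
  exact ⟨⟨e, h4, h5.trans hF⟩, h6, h5⟩

/-- every point of the frontier is on a face -/
theorem exists_face (h3 : finrank ℝ E = 3) (hH : ∀ c, CoreH T (Kc c)) {c : κ}
    {y : E} (hy : y ∈ frontier (Kc c)) :
    ∃ F : C2 T, F.set ⊆ frontier (Kc c) ∧ y ∈ F.set := by
  have hK : ∀ c, Core (Kc c) := fun c => (hH c).core
  have hKO : ∀ c, Kc c ⊆ Om := fun c => (hH c).sub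
  have hs : ∀ c, ∀ x ∈ frontier (Kc c), T.cc x ⊆ frontier (Kc c) := fun c => (hH c).cc
  obtain ⟨hyK⟩ : y ∈ Kc c ∧ True := ⟨(hK c).closed.frontier_subset hy, trivial⟩
  obtain ⟨q, hq, hqK⟩ := T.exists_inner (hK c) (hKO c) (hs c) hyK
  -- a 2-cell near `y`
  have hd := dim_le_two (T := T) h3 (hK c) (hKO c) (hs c) hy
  have hyO := hKO c hyK
  rcases Nat.lt_or_ge (T.dim y) 2 with h | h
  swap
  · exact ⟨mk2 T hyO (by omega), hs c y hy, T.self_mem_cc y⟩
  rcases Nat.lt_or_ge (T.dim y) 1 with h' | h'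
  swap
  · have h1 := fcK_sub (h3 := h3) (hK := hK) (hKO := hKO) (hs := hs)
      (edK T Kc hs hyO hy (by omega)) true
    exact ⟨_, h1.1, h1.2 (by show y ∈ (T.cl hyO).set; rw [T.cl_set]; exact T.self_mem_cc y)⟩
  -- a vertex: the frontier has no isolated points
  have hy0 : T.dim y = 0 := by omega
  obtain ⟨V, hV, R, hR, hVR, hRU⟩ := (hH c).pc y hy _ (T.good_nhds hyO)
  have hex : ∃ z ∈ frontier (Kc c), z ≠ y ∧ z ∈ V := by
    by_contra hcon
    push Not at hcon
    -- `{y}` is open in the frontier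
    have hsing : frontier (Kc c) ⊆ {y} := by
      have hpre := (hH c).conn
      obtain ⟨O, hOV, hO, hyO'⟩ := _root_.mem_nhds_iff.1 hV
      intro z hz
      by_contra hzy
      have h5 := hpre O {y}ᶜ hO isOpen_compl_singleton
        (fun w hw => by
          by_cases hwy : w = y
          · left; rw [hwy]; exact hyO'
          · exact Or.inr hwy) ⟨y, hy, hyO'⟩ ⟨z, hz, hzy⟩
      obtain ⟨w, hw1, hw2, hw3⟩ := h5
      exact hcon w hw1 hw3 (hOV hw2)
    exact (hH c).nt.not_subset_singleton hsing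
  obtain ⟨z, hz, hzy, hzV⟩ := hex
  obtain ⟨⟨hzO, _, hyz⟩, _, _⟩ := hRU (hVR ⟨hzV, hz, hzy⟩)
  have hdz := dim_le_two (T := T) h3 (hK c) (hKO c) (hs c) hz
  have hdz0 : T.dim z ≠ 0 := by
    intro h0
    rw [T.cc_eq_singleton (T.dim_eq_zero_iff.1 h0), mem_singleton_iff] at hyz
    exact hzy hyz.symm
  rcases Nat.lt_or_ge (T.dim z) 2 with h2 | h2
  · have h1 := fcK_sub (h3 := h3) (hK := hK) (hKO := hKO) (hs := hs)
      (edK T Kc hs hzO hz (by omega)) true
    exact ⟨_, h1.1, h1.2 (by show y ∈ (T.cl hzO).set; rw [T.cl_set]; exact hyz)⟩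
  · exact ⟨mk2 T hzO (by omega), hs c z hz, hyz⟩

theorem conn_faces (h3 : finrank ℝ E = 3) (hH : ∀ c, CoreH T (Kc c)) (c : κ) (A : Set (C2 T))
    (hA : ∀ e : EdK T Kc c, ∀ F G : C2 T, F.set ⊆ frontier (Kc c) → G.set ⊆ frontier (Kc c) →
      e.1.set ⊆ F.set → e.1.set ⊆ G.set → F ∈ A → G ∈ A) {F G : C2 T}
    (hF : F.set ⊆ frontier (Kc c)) (hG : G.set ⊆ frontier (Kc c)) (hFA : F ∈ A) : G ∈ A := by
  by_contra hGA
  have hK : ∀ c, Core (Kc c) := fun c => (hH c).core
  have hKO : ∀ c, Kc c ⊆ Om := fun c => (hH c).sub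
  have hs : ∀ c, ∀ x ∈ frontier (Kc c), T.cc x ⊆ frontier (Kc c) := fun c => (hH c).cc
  set A1 : Set (C2 T) := {F | F.set ⊆ frontier (Kc c) ∧ F ∈ A} with hA1
  set A2 : Set (C2 T) := {F | F.set ⊆ frontier (Kc c) ∧ F ∉ A} with hA2
  have hfin : {F : C2 T | F.set ⊆ frontier (Kc c)}.Finite :=
    finite_FcK (T := T) (hH c).cpt (hH c).sub
  have hcl : ∀ F : C2 T, IsClosed F.set := fun F => by rw [F.set_eq]; exact T.isClosed_cc _
  have hU1 : IsClosed (⋃ F ∈ A1, F.set) :=
    (hfin.subset fun F hF => hF.1).isClosed_biUnion fun F _ => hcl F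
  have hU2 : IsClosed (⋃ F ∈ A2, F.set) :=
    (hfin.subset fun F hF => hF.1).isClosed_biUnion fun F _ => hcl F
  have hedge : ∀ (e : EdK T Kc c) (F : C2 T), F.set ⊆ frontier (Kc c) → e.1.set ⊆ F.set →
      ∃ b, fcK h3 hK hKO hs c e b = F := fun e F h h' => (fcK_iff e F).1 ⟨h, h'⟩
  have hcov : frontier (Kc c) ⊆ (⋃ F ∈ A1, F.set) ∪ ⋃ F ∈ A2, F.set := by
    intro y hy
    obtain ⟨F, h1, h4⟩ := exists_face h3 hH hy
    by_cases hFA : F ∈ A
    · exact Or.inl (mem_biUnion (show F ∈ A1 from ⟨h1, hFA⟩) h4)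
    · exact Or.inr (mem_biUnion (show F ∈ A2 from ⟨h1, hFA⟩) h4)
  have hn1 : (frontier (Kc c) ∩ ⋃ F ∈ A1, F.set).Nonempty :=
    ⟨F.pt, hF (F.1.opn_sub (T.self_mem_oc _)), mem_biUnion (show F ∈ A1 from ⟨hF, hFA⟩)
      (F.1.opn_sub (T.self_mem_oc _))⟩
  have hn2 : (frontier (Kc c) ∩ ⋃ F ∈ A2, F.set).Nonempty :=
    ⟨G.pt, hG (G.1.opn_sub (T.self_mem_oc _)), mem_biUnion (show G ∈ A2 from ⟨hG, hGA⟩)
      (G.1.opn_sub (T.self_mem_oc _))⟩
  obtain ⟨y, hyR, hy1, hy2⟩ :=
    (isPreconnected_closed_iff.1 (hH c).conn) _ _ hU1 hU2 hcov hn1 hn2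
  rw [mem_iUnion₂] at hy1 hy2
  obtain ⟨F1, ⟨hF1, hF3⟩, hyF⟩ := hy1
  obtain ⟨G1, ⟨hG1, hG3⟩, hyG⟩ := hy2
  have hyO := hKO c ((hK c).closed.frontier_subset hyR)
  have hFG : F1 ≠ G1 := fun h => hG3 (h ▸ hF3)
  have hd := dim_le_two (T := T) h3 (hK c) (hKO c) (hs c) hyR
  rcases Nat.lt_or_ge (T.dim y) 2 with h | h
  swap
  · -- dimension two
    have hopn : ∀ G : C2 T, y ∈ G.set → G.1 = T.cl hyO := by
      intro G hG
      apply T.eq_cl hyO
      show y ∈ T.oc G.pt
      by_contra hn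
      rw [G.set_eq] at hG
      have := T.dim_lt hG hn
      rw [G.dim_pt] at this
      omega
    exact hFG (Subtype.ext ((hopn F1 hyF).trans (hopn G1 hyG).symm))
  rcases Nat.lt_or_ge (T.dim y) 1 with h' | h'
  swap
  · -- dimension one
    have hd1 : T.dim y = 1 := by omega
    have hsub : ∀ G : C2 T, y ∈ G.set → (edK T Kc hs hyO hyR hd1).1.set ⊆ G.set := by
      intro G hG
      show (T.cl hyO).set ⊆ _
      rw [T.cl_set]
      rw [G.set_eq] at hG ⊢
      exact T.cc_sub_of_mem hG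
    exact hG3 (hA (edK T Kc hs hyO hyR hd1) F1 G1 hF1 hG1 (hsub _ hyF) (hsub _ hyG) hF3)
  -- a vertex
  have hy0 : T.dim y = 0 := by omega
  obtain ⟨e1, h1, h1'⟩ := exists_edge_at hF1 hyF hy0
  obtain ⟨e2, h2, h2'⟩ := exists_edge_at hG1 hyG hy0
  obtain ⟨b1, hb1⟩ := hedge e1 F1 hF1 h1'
  obtain ⟨b2, hb2⟩ := hedge e2 G1 hG1 h2'
  apply hG3
  rw [← hb2]
  refine link_aux h3 hK hKO hs (hH c).pc hyR A ?_ e1 h1 b1 (by rw [hb1]; exact hF3) e2 h2 b2
  intro g _ b hb
  have q1 := fcK_sub (h3 := h3) (hK := hK) (hKO := hKO) (hs := hs) g b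
  have q2 := fcK_sub (h3 := h3) (hK := hK) (hKO := hKO) (hs := hs) g (!b)
  exact hA g _ _ q1.1 q2.1 q1.2 q2.2 hb

/-- **`H¹ = 0` of the frontier of a core, on cells** -/
theorem exactK (hH : ∀ c, CoreH T (Kc c)) (h3 : finrank ℝ E = 3) (c : κ) [Fintype (EdK T Kc c)]
    (k : EdK T Kc c → ZMod 2)
    (hk : ∀ F : FcK T Kc c, (∑ e, if e.1.set ⊆ F.1.set then k e else 0) = 0) :
    ∃ ψ : VxK T Kc c → ZMod 2, ∀ e, k e = ψ (endK e false) + ψ (endK e true) := by
  have hS : IsCompact (frontier (Kc c)) := (hH c).cpt.of_isClosed_subset isClosed_frontier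
    (hH c).cpt.isClosed.frontier_subset
  have hSO : frontier (Kc c) ⊆ Om := (hH c).cpt.isClosed.frontier_subset.trans (hH c).sub
  let k' : T.Cell → ZMod 2 := fun e =>
    if h : e.dim = 1 ∧ e.set ⊆ frontier (Kc c) then k ⟨e, h⟩ else 0
  have hk' : ∀ e : EdK T Kc c, k' e.1 = k e := fun e => dif_pos e.2
  obtain ⟨ψ, hψ⟩ := T.exact_sub hS hSO (hH c).cc
    (fun x hx => dim_le_two h3 (hH c).core (hH c).sub (hH c).cc hx) (hH c).triv (c := k') (by
      intro x hx hd
      have hxO := hSO hx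
      have h1 := hk ⟨mk2 T hxO hd, (hH c).cc x hx⟩
      rw [← h1, ← Finset.sum_filter]
      have himg : T.edges x = (Finset.univ.filter fun e : EdK T Kc c =>
          e.1.set ⊆ (mk2 T hxO hd).set).image (fun e => e.1) := by
        ext e
        rw [Tiling.mem_edges hxO, Finset.mem_image]
        constructor
        · rintro ⟨h4, h5⟩
          exact ⟨⟨e, h4, h5.trans ((hH c).cc x hx)⟩, Finset.mem_filter.2 ⟨Finset.mem_univ _, h5⟩, rfl⟩
        · rintro ⟨e', he', rfl⟩
          exact ⟨e'.2.1, (Finset.mem_filter.1 he').2⟩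
      rw [himg, Finset.sum_image (fun a _ b _ h => Subtype.ext h)]
      exact Finset.sum_congr rfl fun e _ => hk' e)
  refine ⟨fun v => ψ v.1, fun e => ?_⟩
  rw [← hk' e]
  exact (hψ e.1 e.2.1 e.2.2 _ _ (seg_endK e)).symm

/-- **the frontier of a core as a finite combinatorial sphere** -/
noncomputable def surfK (hH : ∀ c, CoreH T (Kc c)) (h3 : finrank ℝ E = 3) (c : κ)
    [Fintype (EdK T Kc c)] : Sph_560.Surf (VxK T Kc c) (EdK T Kc c) (FcK T Kc c) where
  ends e := s(endK e false, endK e true)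
  nd e := fun h => endK_ne e (Sym2.mk_isDiag_iff.1 h)
  On F e := e.1.set ⊆ F.1.set
  two e := by
    obtain ⟨F, hne, hF⟩ := exists_fc h3 (fun c => (hH c).core) (fun c => (hH c).sub)
      (fun c => (hH c).cc) e
    have hs : ∀ b, (F b).set ⊆ frontier (Kc c) ∧ e.1.set ⊆ (F b).set := fun b => (hF _).2 ⟨b, rfl⟩
    refine ⟨⟨F false, (hs false).1⟩, ⟨F true, (hs true).1⟩, fun h => hne (congrArg Subtype.val h),
      ?_⟩
    intro G
    constructor
    · intro h
      obtain ⟨b, hb⟩ := (hF G.1).1 ⟨G.2, h⟩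
      cases b
      · exact Or.inl (Subtype.ext hb.symm)
      · exact Or.inr (Subtype.ext hb.symm)
    · rintro (rfl | rfl)
      · exact (hs false).2
      · exact (hs true).2
  link := by
    intro v A hA e he f hf hfA e' he' g hg
    have hK : ∀ c, Core (Kc c) := fun c => (hH c).core
    have hKO : ∀ c, Kc c ⊆ Om := fun c => (hH c).sub
    have hs : ∀ c, ∀ x ∈ frontier (Kc c), T.cc x ⊆ frontier (Kc c) := fun c => (hH c).cc
    obtain ⟨b, hb⟩ := (fcK_iff (h3 := h3) (hK := hK) (hKO := hKO) (hs := hs) e f.1).1 ⟨f.2, hf⟩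
    obtain ⟨b', hb'⟩ := (fcK_iff (h3 := h3) (hK := hK) (hKO := hKO) (hs := hs) e' g.1).1
      ⟨g.2, hg⟩
    have h1 := link_aux h3 hK hKO hs (hH c).pc v.2.2 (Subtype.val '' A) (by
      rintro e1 he1 b1 ⟨F, hFA, hFe⟩
      have q1 := fcK_sub (h3 := h3) (hK := hK) (hKO := hKO) (hs := hs) e1 b1
      have q2 := fcK_sub (h3 := h3) (hK := hK) (hKO := hKO) (hs := hs) e1 (!b1)
      refine ⟨⟨fcK h3 hK hKO hs c e1 (!b1), q2.1⟩, ?_, rfl⟩
      refine hA e1 ((mem_ends e1 v).2 he1) F _ ?_ q2.2 hFA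
      rw [hFe]; exact q1.2) e ((mem_ends e v).1 he) b (by rw [hb]; exact ⟨f, hfA, rfl⟩) e'
        ((mem_ends e' v).1 he') b'
    rw [hb'] at h1
    obtain ⟨G, hG, hGe⟩ := h1
    rwa [Subtype.ext hGe] at hG
  sep := by
    intro z hz
    refine Spp_333.sep_of_h1 (ends := fun e : EdK T Kc c => s(endK e false, endK e true))
      (On := fun (F : FcK T Kc c) (e : EdK T Kc c) => e.1.set ⊆ F.1.set)
      (fun e h => endK_ne e (Sym2.mk_isDiag_iff.1 h)) ?_ ?_ z hz
    · intro e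
      obtain ⟨F, hne, hF⟩ := exists_fc h3 (fun c => (hH c).core) (fun c => (hH c).sub)
        (fun c => (hH c).cc) e
      have hs : ∀ b, (F b).set ⊆ frontier (Kc c) ∧ e.1.set ⊆ (F b).set := fun b =>
        (hF _).2 ⟨b, rfl⟩
      refine ⟨⟨F false, (hs false).1⟩, ⟨F true, (hs true).1⟩,
        fun h => hne (congrArg Subtype.val h), ?_⟩
      intro G
      constructor
      · intro h
        obtain ⟨b, hb⟩ := (hF G.1).1 ⟨G.2, h⟩
        cases b
        · exact Or.inl (Subtype.ext hb.symm)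
        · exact Or.inr (Subtype.ext hb.symm)
      · rintro (rfl | rfl)
        · exact (hs false).2
        · exact (hs true).2
    · intro k hk
      obtain ⟨ψ, hψ⟩ := exactK hH h3 c k hk
      refine ⟨ψ, fun e u v huv => ?_⟩
      rw [hψ e]
      rcases Sym2.eq_iff.1 huv with ⟨h1, h2⟩ | ⟨h1, h2⟩
      · rw [h1, h2]
      · rw [h1, h2, add_comm]
  conn := by
    intro w hw f g
    by_contra hne
    have h1 := conn_faces h3 hH c (Subtype.val '' {F | w f = w F}) (by
      rintro e F G hF hG h1 h2 ⟨F', hF', rfl⟩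
      exact ⟨⟨G, hG⟩, (show w f = w F' from hF').trans (hw e F' ⟨G, hG⟩ h1 h2), rfl⟩) f.2 g.2
        ⟨f, rfl, rfl⟩
    obtain ⟨G, hG, hGe⟩ := h1
    rw [Subtype.ext hGe] at hG
    exact hne hG

/-- **its geometric realisation** -/
noncomputable def realK (hH : ∀ c, CoreH T (Kc c)) (h3 : finrank ℝ E = 3) (c : κ)
    [Fintype (EdK T Kc c)] : Sph_560.Real (surfK hH h3 c) (frontier (Kc c)) where
  pt v := v.1
  arc e := e.1.set
  tile F := F.1.set
  inj := Subtype.val_injective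
  arc_ball e := by
    have h1 := T.isBall_cell e.1.pt_mem
    have hd : T.dim e.1.pt = 1 := e.2.1
    rw [hd, ← e.1.set_eq] at h1
    have h2 : e.1.set \ T.oc e.1.pt =
        (fun v : VxK T Kc c => v.1) '' {v | v ∈ s(endK e false, endK e true)} := by
      ext y
      constructor
      · rintro ⟨hy, hyo⟩
        have hy' : y ∈ T.cc e.1.pt := by rw [← e.1.set_eq]; exact hy
        have h3' := T.dim_lt hy' hyo
        have hy0 : T.dim y = 0 := by omega
        refine ⟨⟨y, hy0, e.2.2 hy⟩, ?_, rfl⟩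
        exact (mem_ends e _).2 hy
      · rintro ⟨v, hv, rfl⟩
        refine ⟨(mem_ends e v).1 hv, fun ho => ?_⟩
        have h4 : T.dim v.1 = T.dim e.1.pt := T.dim_eq_of_mem_oc e.1.pt_mem ho
        have h5 : T.dim v.1 = 0 := v.2.1
        omega
    rw [h2] at h1
    exact h1
  pt_arc v e h := (mem_ends e v).2 h
  arc_arc := by
    intro e e' hne y hy hy'
    have hyO : y ∈ Om := (hH c).sub ((hH c).core.closed.frontier_subset (e.2.2 hy))
    have hy0 : T.dim y = 0 := by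
      by_contra h0
      have hcl : ∀ g : EdK T Kc c, y ∈ g.1.set → g.1 = T.cl hyO := by
        intro g hg
        apply T.eq_cl hyO
        show y ∈ T.oc g.1.pt
        by_contra hn
        rw [g.1.set_eq] at hg
        have h1 := T.dim_lt hg hn
        have h2 : T.dim g.1.pt = 1 := g.2.1
        omega
      exact hne (Subtype.ext ((hcl e hy).trans (hcl e' hy').symm))
    exact ⟨⟨y, hy0, e.2.2 hy⟩, (mem_ends e _).2 hy, rfl⟩
  tile_closed F := by rw [F.1.set_eq]; exact T.isClosed_cc _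
  arc_tile F e h := h
  tile_arc := by
    intro F e y hyF hye
    have hyO : y ∈ Om := (hH c).sub ((hH c).core.closed.frontier_subset (e.2.2 hye))
    by_cases hy0 : T.dim y = 0
    · exact Or.inr ⟨⟨y, hy0, e.2.2 hye⟩, rfl⟩
    · left
      have hcl : e.1 = T.cl hyO := by
        apply T.eq_cl hyO
        show y ∈ T.oc e.1.pt
        by_contra hn
        rw [e.1.set_eq] at hye
        have h1 := T.dim_lt hye hn
        have h2 : T.dim e.1.pt = 1 := e.2.1
        omega
      show e.1.set ⊆ F.1.set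
      rw [hcl, T.cl_set, F.1.set_eq]
      rw [F.1.set_eq] at hyF
      exact T.cc_sub_of_mem hyF
  tile_pt := by
    intro F v hv
    obtain ⟨e, h1, h2⟩ := exists_edge_at F.2 hv v.2.1
    exact ⟨e, (mem_ends e v).2 h1, h2⟩
  tile_tile := by
    intro F G hne y hyF hyG
    have hyK := F.2 hyF
    have hyO : y ∈ Om := (hH c).sub ((hH c).core.closed.frontier_subset hyK)
    have hd := dim_le_two (T := T) h3 (hH c).core (hH c).sub (hH c).cc hyK
    rcases Nat.lt_or_ge (T.dim y) 2 with h | h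
    swap
    · exfalso
      have hopn : ∀ G : C2 T, y ∈ G.set → G.1 = T.cl hyO := by
        intro G hG
        apply T.eq_cl hyO
        show y ∈ T.oc G.pt
        by_contra hn
        rw [G.set_eq] at hG
        have := T.dim_lt hG hn
        rw [G.dim_pt] at this
        omega
      exact hne (Subtype.ext (Subtype.ext ((hopn F.1 hyF).trans (hopn G.1 hyG).symm)))
    rcases Nat.lt_or_ge (T.dim y) 1 with h' | h'
    · obtain ⟨e, h1, h2⟩ := exists_edge_at F.2 hyF (by omega)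
      exact ⟨e, h2, h1⟩
    · refine ⟨edK T Kc (fun c => (hH c).cc) hyO hyK (by omega), ?_, ?_⟩
      · show (T.cl hyO).set ⊆ F.1.set
        rw [T.cl_set, F.1.set_eq]
        rw [F.1.set_eq] at hyF
        exact T.cc_sub_of_mem hyF
      · show y ∈ (T.cl hyO).set
        rw [T.cl_set]; exact T.self_mem_cc y
  tile_ne := by
    intro F
    refine ⟨F.1.pt, F.1.1.opn_sub (T.self_mem_oc _), fun e he => ?_⟩
    rw [e.1.set_eq] at he
    have h1 := T.dim_le he
    have h2 : T.dim e.1.pt = 1 := e.2.1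
    have h4 := F.1.dim_pt
    omega
  cov := by
    apply Subset.antisymm
    · intro y hy
      obtain ⟨F, h1, h2⟩ := exists_face h3 hH hy
      exact mem_iUnion.2 ⟨⟨F, h1⟩, h2⟩
    · exact iUnion_subset fun F => F.2

/-- **the 1-skeleton of the frontier of a core is connected** -/
theorem con_VxK (hH : ∀ c, CoreH T (Kc c)) (c : κ) {A : Type*} (φ : VxK T Kc c → A)
    (hφ : ∀ e : EdK T Kc c, φ (endK e false) = φ (endK e true)) : ∀ v w, φ v = φ w := by
  intro v w
  have hSO : frontier (Kc c) ⊆ Om := (hH c).cpt.isClosed.frontier_subset.trans (hH c).sub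
  let φ' : E → Option A := fun x => if h : T.dim x = 0 ∧ x ∈ frontier (Kc c) then some (φ ⟨x, h⟩)
    else none
  have hφ' : ∀ v : VxK T Kc c, φ' v.1 = some (φ v) := fun v => dif_pos v.2
  have h1 := T.const_of_preconnected (φ := φ') (hH c).conn hSO (hH c).cc (by
    intro e he h1 a b hab
    have heO := hSO he
    have hsub : (T.cl heO).set ⊆ frontier (Kc c) := by rw [T.cl_set]; exact (hH c).cc e he
    set g : EdK T Kc c := ⟨T.cl heO, (T.dim_cl heO).trans h1, hsub⟩ with hg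
    obtain ⟨ha0, hb0, hae, hbe, hne⟩ := T.dim_ends heO h1 hab
    have hset : g.1.set = T.cc e := T.cl_set heO
    have hae' : a ∈ g.1.set := by rw [hset]; exact hae
    have hbe' : b ∈ g.1.set := by rw [hset]; exact hbe
    have haF : a ∈ frontier (Kc c) := hsub hae'
    have hbF : b ∈ frontier (Kc c) := hsub hbe'
    obtain ⟨i, hi⟩ := (endK_iff g ⟨a, ha0, haF⟩).2 hae'
    obtain ⟨j, hj⟩ := (endK_iff g ⟨b, hb0, hbF⟩).2 hbe'
    show φ' a = φ' b
    have e1 : φ' a = some (φ (endK g i)) := by rw [hi]; exact hφ' ⟨a, ha0, haF⟩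
    have e2 : φ' b = some (φ (endK g j)) := by rw [hj]; exact hφ' ⟨b, hb0, hbF⟩
    rw [e1, e2]
    congr 1
    cases i <;> cases j
    · rfl
    · exact hφ g
    · exact (hφ g).symm
    · rfl) v.1 v.2.2 w.1 w.2.2 v.2.1 w.2.1
  rw [hφ', hφ'] at h1
  exact Option.some_injective _ h1

end Surface

end Crest.Agent.R096.Msh_715
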