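import Crest.Agent.R096.Lm9_117
import Crest.Agent.R096.Lm7_117
import Crest.Agent.R096.Mrg5_715

/-!
# R096 (row 96), LMesh, part 10: the labelled mesh of helper715's `meshK` with the giant cells
(helper117)
-/

set_option autoImplicit false
set_option linter.unusedSectionVars false

open Set Topology Filter Metric Module

namespace Crest.Agent.R096.Lm_117

open Crest.Agent.R096.St_147 Crest.Agent.R096.Ac_117
open Crest.Agent.R096.Msh_715 Crest.Agent.R096.Lab_184 Crest.Agent.R096.Agl5_543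
  Crest.Agent.R096.Pat5_543 Crest.Agent.R096.Coh_184
open Crest.Agent.R096.Cm_117 (cell_sub cell_cc dim_lt_cell)

variable {E : Type} [NormedAddCommGroup E] [NormedSpace ℝ E] [FiniteDimensional ℝ E]
variable {Om : Set E} {ι : Type} {T : Tiling Om ι} {κ : Type} {Kc : κ → Set E}

/-! ### the 1-skeleton of a tiling over a subcomplex -/

/-- connectedness of the 1-skeleton of a connected subcomplex -/
lemma skT_conn {S : Set E} (hS : IsPreconnected S) (hSO : S ⊆ Om) (hcc : ∀ x ∈ S, T.cc x ⊆ S)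
    (φ : T.Cell → ZMod 2)
    (hφ : ∀ e : T.Cell, e.set ⊆ S → e.dim = 1 → φ (enC e false) = φ (enC e true))
    (v v' : T.Cell) (hv : v.set ⊆ S) (hv' : v'.set ⊆ S) (h0 : v.dim = 0) (h0' : v'.dim = 0) :
    φ v = φ v' := by
  classical
  let ψ : E → ZMod 2 := fun x => if h : x ∈ Om then φ (T.cl h) else 0
  have hψ : ∀ v : T.Cell, v.dim = 0 → ψ v.pt = φ v := by
    intro v h
    show (if h : v.pt ∈ Om then φ (T.cl h) else 0) = _
    rw [dif_pos v.pt_mem]
    congr 1
    apply Tiling.Cell.ext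
    rw [T.cl_set, ← v.set_eq]
  have h1 := T.const_of_preconnected (φ := ψ) hS hSO hcc (by
    intro e he h1 a b hab
    have heO := hSO he
    have hd : (T.cl heO).dim = 1 := by rw [T.dim_cl]; exact h1
    have hle : (T.cl heO).set ⊆ S := by
      rw [T.cl_set]; exact hcc e he
    have h2 := hφ (T.cl heO) hle hd
    rw [← hψ _ (en_dim' hd false), ← hψ _ (en_dim' hd true), en_pt hd, en_pt hd] at h2
    obtain ⟨q1, q2, q3⟩ := ep_spec hd
    have r0 := T.vertex_of_edge heO h1 hab (by rw [← T.cl_set heO]; exact (q3 false).2) (q3 false).1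
    have r1 := T.vertex_of_edge heO h1 hab (by rw [← T.cl_set heO]; exact (q3 true).2) (q3 true).1
    rcases r0 with r0 | r0 <;> rcases r1 with r1 | r1
    · exact absurd (r0.trans r1.symm) q1
    · rw [r0, r1] at h2; exact h2
    · rw [r0, r1] at h2; exact h2.symm
    · exact absurd (r0.trans r1.symm) q1)
  have := h1 v.pt (hv (pt_set v)) v'.pt (hv' (pt_set v')) h0 h0'
  rwa [hψ v h0, hψ v' h0'] at this

variable [Nonempty T.Cell]

/-- the sum over the edges of a face -/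
lemma sum_edges {x : E} (hx : x ∈ Om) (hd : T.dim x = 2) (Y : Finset E) :
    ∑ e ∈ T.edges x, nW Y ((skT T).On1 e) = nW Y (mk2 T hx hd).On := by
  classical
  unfold nW
  rw [Finset.sum_comm]
  apply Finset.sum_congr rfl
  intro w _
  by_cases hw : w ∈ (mk2 T hx hd).On
  · rw [if_pos hw]
    have hwx : w ∈ T.cc x := hw.1
    have hO : w ∈ Om := T.cc_sub_Om hx hwx
    have hW : w ∈ W1 T := ⟨hO, hw.2⟩
    have hmem : edC T w ∈ T.edges x := by
      rw [Tiling.mem_edges hx]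
      refine ⟨edC_dim hW, ?_⟩
      rw [edC_set hO]
      exact T.cc_sub_of_mem hwx
    rw [Finset.sum_eq_single (edC T w)]
    · rw [if_pos]
      exact ⟨hW, rfl⟩
    · intro e _ hne
      rw [if_neg]
      rintro ⟨-, h⟩
      exact hne h.symm
    · intro h; exact absurd hmem h
  · rw [if_neg hw]
    apply Finset.sum_eq_zero
    intro e he
    rw [if_neg]
    rintro ⟨h1, h2⟩
    rw [Tiling.mem_edges hx] at he
    refine hw ⟨?_, h1.2⟩
    show w ∈ T.cc x
    exact he.2 ((edC_eq h1 he.1).1 h2)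

/-- labels over a two-dimensional subcomplex with trivial torsors -/
lemma skT_cell {S : Set E} (hS : IsCompact S) (hSO : S ⊆ Om)
    (hScc : ∀ x ∈ S, T.cc x ⊆ S) (hSd : ∀ x ∈ S, T.dim x ≤ 2) (ht : TrivF (ZMod 2) S)
    (Y : Finset E) (hY : ∀ F : C2 T, F.set ⊆ S → nW Y F.On = 0) :
    ∃ lam : T.Cell → ZMod 2, ∀ e : T.Cell, e.set ⊆ S → e.dim = 1 →
      lam (enC e false) + lam (enC e true) = nW Y ((skT T).On1 e) := by
  obtain ⟨ψ, hψ⟩ := T.exact_sub hS hSO hScc hSd ht (c := fun e => nW Y ((skT T).On1 e)) (by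
    intro x hx hd
    rw [sum_edges (hSO hx) hd]
    exact hY _ (hScc x hx))
  refine ⟨fun v => ψ v.pt, ?_⟩
  intro e he hd
  obtain ⟨q1, q2, q3⟩ := ep_spec hd
  show ψ (enC e false).pt + ψ (enC e true).pt = _
  rw [en_pt hd, en_pt hd]
  exact hψ e hd he _ _ q2

/-! ### the cells outside the giant cells -/

/-- the cell lies in a tile outside the cores -/
def OutK (T : Tiling Om ι) (Kc : κ → Set E) (c : T.Cell) : Prop :=
  ∃ q : ι, (∀ k, ¬ P (T.H q) ⊆ Kc k) ∧ c.set ⊆ P (T.H q)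

lemma outK_down (c d : T.Cell) (h : c ≤ d) (hd : OutK T Kc d) : OutK T Kc c := by
  obtain ⟨q, h1, h2⟩ := hd
  exact ⟨q, h1, (Tiling.Cell.le_def.1 h).trans h2⟩

variable (h3 : finrank ℝ E = 3) (hH : ∀ c, CoreH T (Kc c))
  (hdis : ∀ c c', c ≠ c' → Disjoint (Kc c) (Kc c'))

/-- the mesh with giant cells -/
noncomputable abbrev mK : MeshC (ι ⊕ κ) {F : C2 T // ¬ (((meshC T h3).side F).map (piK T Kc)).IsDiag} E :=
  meshK T h3 Kc (fun c => (hH c).core) (fun c => (hH c).cc) hdis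

omit [FiniteDimensional ℝ E] [Nonempty T.Cell] in
lemma set_ne (c : T.Cell) : c.pt ∈ c.set := by rw [c.set_eq]; exact T.self_mem_cc _

include hdis in
lemma face_out (F : {F : C2 T // ¬ (((meshC T h3).side F).map (piK T Kc)).IsDiag}) :
    OutK T Kc F.1.1 := by
  obtain ⟨F, hF⟩ := F
  by_contra hno
  apply hF
  rw [map_isDiag_iff]
  have key : ∀ q ∈ (meshC T h3).side F, ∃ k, P (T.H q) ⊆ Kc k := by
    intro q hq
    by_contra hk
    push Not at hk
    exact hno ⟨q, hk, C2.sub_tile (h3 := h3) hq⟩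
  intro q hq q' hq'
  obtain ⟨k, hk⟩ := key q hq
  obtain ⟨k', hk'⟩ := key q' hq'
  have hkk : k = k' := by
    by_contra hne
    exact Set.disjoint_left.1 (hdis _ _ hne) (hk (C2.sub_tile (h3 := h3) hq (set_ne F.1)))
      (hk' (C2.sub_tile (h3 := h3) hq' (set_ne F.1)))
  subst hkk
  rw [(piK_inr hdis).2 hk, (piK_inr hdis).2 hk']

lemma out_face (F : C2 T) (hF : OutK T Kc F.1) :
    ¬ (((meshC T h3).side F).map (piK T Kc)).IsDiag := by
  obtain ⟨q, h1, h2⟩ := hF
  have hq : q ∈ (meshC T h3).side F := by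
    show q ∈ F.side h3
    rw [C2.mem_side]
    exact h2 (set_ne F.1)
  rw [map_isDiag_iff]
  intro h
  apply (meshC T h3).side_nd F
  have hqq : ∀ q' ∈ (meshC T h3).side F, q' = q := by
    intro q' hq'
    have h4 := h q hq q' hq'
    rw [piK_inl.2 ⟨rfl, h1⟩] at h4
    exact (piK_inl.1 h4.symm).1
  revert hq hqq
  induction (meshC T h3).side F using Sym2.ind with
  | _ x y =>
    intro hq hqq
    rw [Sym2.mk_isDiag_iff, hqq x (Sym2.mem_mk_left _ _), hqq y (Sym2.mem_mk_right _ _)]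

/-- a point of the boundary of a giant cell lies in a tile outside -/
lemma exists_out (hH : ∀ c, CoreH T (Kc c)) (hdis : ∀ c c', c ≠ c' → Disjoint (Kc c) (Kc c'))
    {k : κ} {x : E} (hx : x ∈ frontier (Kc k)) :
    ∃ q ∈ T.at_ x, ∀ k', ¬ P (T.H q) ⊆ Kc k' := by
  obtain ⟨q, h1, h2⟩ := T.exists_outer (hH k).core.closed (hH k).sub hx
  refine ⟨q, h1, fun k' hk' => ?_⟩
  by_cases hkk : k = k'
  · subst hkk; exact h2 hk'
  · exact Set.disjoint_left.1 (hdis _ _ hkk) ((hH k).core.closed.frontier_subset hx) (hk' h1)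

lemma out_of_frontier (hH : ∀ c, CoreH T (Kc c)) (hdis : ∀ c c', c ≠ c' → Disjoint (Kc c) (Kc c'))
    {k : κ} {c : T.Cell} (hc : c.set ⊆ frontier (Kc k)) : OutK T Kc c := by
  obtain ⟨q, h1, h2⟩ := exists_out hH hdis (hc (set_ne c))
  refine ⟨q, h2, ?_⟩
  rw [c.set_eq]
  exact T.cc_sub_tile h1

variable (hne : ∃ c, OutK T Kc c)

/-- the labelled mesh of the cells outside -/
noncomputable def lmO : LM (mK h3 hH hdis) {c : T.Cell // OutK T Kc c} (fun c => c.1.dim) :=
  (lmT T h3).sub (OutK T Kc) outK_down hne (mK h3 hH hdis) Subtype.val Subtype.val_injective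
    (fun _ => rfl) (fun _ => rfl) (fun F => face_out h3 hdis F)
    (fun F hF => ⟨⟨F, out_face h3 F hF⟩, rfl⟩)

/-- the cells on the boundary of the giant cells -/
def belK (T : Tiling Om ι) (Kc : κ → Set E) : Bel {c : T.Cell // OutK T Kc c} κ where
  B k c := c.1.set ⊆ frontier (Kc k)
  down _ _ _ h hd := (Tiling.Cell.le_def.1 h).trans hd

theorem top3O : Top3 (lmO h3 hH hdis hne) := by
  refine (top3T h3).sub _ _ _ _ _ _ _ _ _ _ ?_
  rintro c ⟨q0, h1, h2⟩ hc q hq
  obtain ⟨q1, hq1, hI⟩ := tile_of_dim h3 (c := c) hc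
  have hqq : q1 = q0 := by
    have h4 : c.pt ∈ P (T.H q0) := h2 (set_ne c)
    have h5 := T.at_eq_singleton hI
    have h6 : q0 ∈ T.at_ c.pt := h4
    rw [h5] at h6
    exact h6.symm
  subst hqq
  refine ⟨Sum.inl q1, fun F' => ?_⟩
  have h7 : q1 ∈ (meshC T h3).side F'.1 ↔ q ∈ (meshC T h3).side F'.1 := by
    rw [hq]
    constructor
    · intro h
      show F'.1.set ⊆ c.set
      exact Cm_117.face_sub hq1 h
    · intro h
      exact Cm_117.face_side' hq1 h
  rw [← h7]
  show Sum.inl q1 ∈ ((meshC T h3).side F'.1).map (piK T Kc) ↔ _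
  rw [mem_map_iff]
  constructor
  · rintro ⟨q', h8, h9⟩
    have := (piK_inl.1 h9).1
    rw [← this]; exact h8
  · intro h8
    exact ⟨q1, h8, piK_inl.2 ⟨rfl, h1⟩⟩

/-! ### the giant cells -/

lemma cell_le_two (h3 : finrank ℝ E = 3) (hH : ∀ c, CoreH T (Kc c)) {k : κ} {c : T.Cell}
    (hc : c.set ⊆ frontier (Kc k)) : c.dim ≤ 2 :=
  dim_le_two h3 (hH k).core (hH k).sub (hH k).cc (hc (set_ne c))

lemma frontier_Om (hH : ∀ c, CoreH T (Kc c)) (k : κ) : frontier (Kc k) ⊆ Om :=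
  (hH k).cpt.isClosed.frontier_subset.trans (hH k).sub

/-- **the hypotheses of `LM.glue`** -/
theorem belH_K : BelH (lmO h3 hH hdis hne).toSk (mK h3 hH hdis) (lmO h3 hH hdis hne).cf
    (belK T Kc) where
  dim_lt k c hc := by
    have : c.1.dim ≤ 2 := cell_le_two h3 hH hc
    show c.1.dim < 3
    omega
  base k := by
    obtain ⟨x, hx⟩ := (hH k).nt.nonempty
    have hxO := frontier_Om hH k hx
    obtain ⟨v, h1, h2⟩ := T.exists_vertex hxO
    have hvO : v ∈ Om := T.cc_sub_Om hxO h1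
    have hsub : (T.cl hvO).set ⊆ frontier (Kc k) := by
      rw [T.cl_set]
      exact (T.cc_sub_of_mem h1).trans ((hH k).cc x hx)
    exact ⟨⟨T.cl hvO, out_of_frontier hH hdis hsub⟩, hsub, (T.dim_cl hvO).trans h2⟩
  conn k φ hφ v v' hv hv' h0 h0' := by
    classical
    let ψ : T.Cell → ZMod 2 := fun x => if h : OutK T Kc x then φ ⟨x, h⟩ else 0
    have hψ : ∀ x : {c : T.Cell // OutK T Kc c}, ψ x.1 = φ x := fun x => by
      show (if h : OutK T Kc x.1 then φ ⟨x.1, h⟩ else 0) = _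
      rw [dif_pos x.2]
    have := skT_conn (hH k).conn (frontier_Om hH k) (hH k).cc ψ (by
      intro e he h1
      have hpe : OutK T Kc e := out_of_frontier hH hdis he
      have h2 := hφ ⟨e, hpe⟩ he h1
      have e1 : ∀ b, ((lmO h3 hH hdis hne).en ⟨e, hpe⟩ b).1 = enC e b := fun b =>
        subEn_eq (L := skT T) (hp := outK_down) (e := ⟨e, hpe⟩) h1 b
      rw [← hψ, ← hψ, e1, e1] at h2
      exact h2) v.1 v'.1 hv hv' h0 h0'
    rwa [hψ, hψ] at this
  cell k Y hY := by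
    have hcpt : IsCompact (frontier (Kc k)) :=
      (hH k).cpt.of_isClosed_subset isClosed_frontier (hH k).cpt.isClosed.frontier_subset
    obtain ⟨lam, hlam⟩ := skT_cell hcpt (frontier_Om hH k) (hH k).cc
      (fun x hx => dim_le_two h3 (hH k).core (hH k).sub (hH k).cc hx) (hH k).triv Y (by
        intro F hF
        exact hY ⟨F, out_face h3 F (out_of_frontier hH hdis hF)⟩ hF)
    refine ⟨fun v => lam v.1, ?_⟩
    intro e he h1
    have e1 : ∀ b, ((lmO h3 hH hdis hne).en e b).1 = enC e.1 b := fun b =>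
      subEn_eq (L := skT T) (hp := outK_down) (e := e) h1 b
    have h2 := hlam e.1 he h1
    have h4 : (lmO h3 hH hdis hne).toSk.On1 e = (skT T).On1 e.1 :=
      sub_On1 (L := skT T) (p := OutK T Kc) (hp := outK_down) (hne := hne) e
    show lam ((lmO h3 hH hdis hne).en e false).1 + lam ((lmO h3 hH hdis hne).en e true).1 =
      nW Y ((lmO h3 hH hdis hne).toSk.On1 e)
    rw [e1, e1, h4]
    exact h2

/-- **the labelled mesh of `meshK` with the giant cells** -/
noncomputable def lmK : LM (mK h3 hH hdis) (QK (belK T Kc))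
    (dimK (belK T Kc) (fun c => c.1.dim)) :=
  (lmO h3 hH hdis hne).glue (belK T Kc) (belH_K h3 hH hdis hne)

/-- the giant cells are tiles of the mesh -/
lemma giant_side (k : κ) (F : {F : C2 T // ¬ (((meshC T h3).side F).map (piK T Kc)).IsDiag}) :
    Sum.inr k ∈ (mK h3 hH hdis).side F ↔ F.1.set ⊆ frontier (Kc k) := by
  rw [face_iff h3 (fun c => (hH c).core) (fun c => (hH c).sub) (fun c => (hH c).cc) hdis F.1 k]
  exact ⟨fun h => ⟨F.2, h⟩, fun h => h.2⟩

theorem top3K : Top3 (lmK h3 hH hdis hne) := by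
  refine (top3O h3 hH hdis hne).glue _ _ (fun k => ⟨Sum.inr k, fun F => ?_⟩) ?_
  · exact giant_side h3 hH hdis k F
  · intro k e he hek
    have h1 : e.1.pt ∈ frontier (Kc k) := hek (set_ne e.1)
    have h2 := T.two_faces h3 (hH k).core (hH k).sub (hH k).cc h1 he
    obtain ⟨F, hF1, hF2⟩ : {F : C2 T | e.1.pt ∈ F.On ∧ F.set ⊆ frontier (Kc k)}.Nonempty := by
      apply Set.nonempty_of_ncard_ne_zero
      rw [h2]; norm_num
    have hout := out_face h3 F (out_of_frontier hH hdis hF2)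
    refine ⟨⟨F, hout⟩, ?_, hF2⟩
    show e.1.set ⊆ F.set
    rw [e.1.set_eq, F.set_eq]
    have h4 : e.1.pt ∈ T.cc F.pt := by rw [← F.set_eq]; exact hF1.1
    exact T.cc_sub_of_mem h4

/-! ### the 3-cells -/

/-- the cell of a tile -/
noncomputable def tcell (T : Tiling Om ι) (q : ι) : T.Cell :=
  T.cl (T.sub q (I_sub_P _ (T.ne q).choose_spec))

omit [Nonempty T.Cell] [FiniteDimensional ℝ E] in
lemma tcell_set (q : ι) : (tcell T q).set = P (T.H q) := by
  unfold tcell
  rw [T.cl_set, T.cc_eq_tile (T.ne q).choose_spec]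

omit [Nonempty T.Cell] in
include h3 in
lemma tcell_dim (q : ι) : (tcell T q).dim = 3 := by
  unfold tcell
  rw [T.dim_cl]
  have h1 := (T.V_eq_top_iff (T.sub q (I_sub_P _ (T.ne q).choose_spec))).2
    ⟨q, (T.ne q).choose_spec⟩
  show finrank ℝ (T.V _) = 3
  rw [h1, finrank_top, h3]

omit [Nonempty T.Cell] [FiniteDimensional ℝ E] in
lemma out_tcell {q : ι} (h : ¬ ∃ k, P (T.H q) ⊆ Kc k) : OutK T Kc (tcell T q) :=
  ⟨q, fun k hk => h ⟨k, hk⟩, (tcell_set q).le⟩

open Classical in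
/-- the 3-cell of a tile of `T` -/
noncomputable def tcK0 (T : Tiling Om ι) (Kc : κ → Set E) (q : ι) : QK (belK T Kc) :=
  if h : ∃ k, P (T.H q) ⊆ Kc k then QK.k _ h.choose else QK.c _ ⟨tcell T q, out_tcell h⟩

/-- the 3-cell of a tile of `meshK` -/
noncomputable def tcK (T : Tiling Om ι) (Kc : κ → Set E) : ι ⊕ κ → QK (belK T Kc) :=
  Sum.elim (tcK0 T Kc) (QK.k _)

omit [Nonempty T.Cell] in
include h3 in
lemma tcK_dim (q : ι ⊕ κ) : dimK (belK T Kc) (fun c => c.1.dim) (tcK T Kc q) = 3 := by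
  rcases q with q | k
  · show dimK (belK T Kc) (fun c => c.1.dim) (tcK0 T Kc q) = 3
    unfold tcK0
    by_cases h : ∃ k, P (T.H q) ⊆ Kc k
    · rw [dif_pos h]; rfl
    · rw [dif_neg h]; exact tcell_dim h3 q
  · rfl

lemma tcK_side (q : ι ⊕ κ) (F : {F : C2 T // ¬ (((meshC T h3).side F).map (piK T Kc)).IsDiag})
    (hq : q ∈ (mK h3 hH hdis).side F) : (lmK h3 hH hdis hne).cf F ≤ tcK T Kc q := by
  rcases q with q | k
  · have h1 : Sum.inl q ∈ ((meshC T h3).side F.1).map (piK T Kc) := hq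
    rw [mem_map_iff] at h1
    obtain ⟨q', h2, h4⟩ := h1
    obtain ⟨rfl, h5⟩ := piK_inl.1 h4
    have h6 : ¬ ∃ k, P (T.H q') ⊆ Kc k := fun ⟨k, hk⟩ => h5 k hk
    show (lmK h3 hH hdis hne).cf F ≤ tcK0 T Kc q'
    unfold tcK0
    rw [dif_neg h6]
    show F.1.set ⊆ (tcell T q').set
    rw [tcell_set]
    exact C2.sub_tile (h3 := h3) h2
  · exact (giant_side h3 hH hdis k F).1 hq

/-- the sets of the cells -/
def setK (T : Tiling Om ι) (Kc : κ → Set E) : QK (belK T Kc) → Set E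
  | Sum.inl c => c.1.set
  | Sum.inr k => Kc k

end Crest.Agent.R096.Lm_117
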