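import Crest.Agent.R096.Gk2_422
import Crest.Agent.R096.Lm10_117

/-!
# R096 (row 96), LABK (helper422), part 3: `LabIn` over helper117's labelled mesh `lmK` of 715's
`meshK` from the exact pattern on the boundary of one giant core per family.
-/

set_option autoImplicit false
set_option linter.unusedSectionVars false

open Set Relation Module

namespace Crest.Agent.R096.Gl_422

open Crest.Agent.R096.St_147 Crest.Agent.R096.Seq_213 Crest.Agent.R096.Seq_213.GSt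
  Crest.Agent.R096.Lm_117 Crest.Agent.R096.Ac_117
  Crest.Agent.R096.Cp_298 Crest.Agent.R096.Msh_715 Crest.Agent.R096.Agl5_543
  Crest.Agent.R096.Ori_543 Crest.Agent.R096.Coh_184

variable {E : Type} [NormedAddCommGroup E] [NormedSpace ℝ E] [FiniteDimensional ℝ E]
variable {Om : Set E} {ι : Type} {T : Tiling Om ι} {κ : Type} {Kc : κ → Set E} [Nonempty T.Cell]
variable {h3 : finrank ℝ E = 3} {hH : ∀ c, CoreH T (Kc c)}
  {hdis : ∀ c c', c ≠ c' → Disjoint (Kc c) (Kc c')} {hne : ∃ c, OutK T Kc c}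

/-- the cell of the outside as a cell of `lmK` -/
def oc (c : T.Cell) (h : OutK T Kc c) : QK (belK T Kc) := QK.c _ ⟨c, h⟩

theorem en_K {c : T.Cell} (h : OutK T Kc c) (hd : c.dim = 1) (b : Bool) :
    ∃ h', (lmK h3 hH hdis hne).en (oc c h) b = oc (enC c b) h' := by
  have e1 : ((lmO h3 hH hdis hne).en ⟨c, h⟩ b).1 = enC c b :=
    subEn_eq (L := skT T) (hp := outK_down) (e := ⟨c, h⟩) hd b
  have h' : OutK T Kc (enC c b) := e1 ▸ ((lmO h3 hH hdis hne).en ⟨c, h⟩ b).2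
  refine ⟨h', ?_⟩
  show QK.c _ ((lmO h3 hH hdis hne).en ⟨c, h⟩ b) = _
  unfold oc
  congr 1
  exact Subtype.ext e1

theorem on_K {c : T.Cell} (h : OutK T Kc c) :
    (lmK h3 hH hdis hne).On1 (oc c h) = {w | w ∈ W1 T ∧ edC T w = c} := by
  have h1 : (lmK h3 hH hdis hne).toSk.On1 (oc c h) = (lmO h3 hH hdis hne).toSk.On1 ⟨c, h⟩ :=
    glue_On1 _ (belH_K h3 hH hdis hne) _
  rw [h1]
  exact sub_On1 (L := skT T) (p := OutK T Kc) (hp := outK_down) (hne := hne) ⟨c, h⟩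

/-- the 1-cells below a giant cell -/
theorem le_giant {k : κ} {e : QK (belK T Kc)} (he : e ≤ QK.k _ k)
    (hd : dimK (belK T Kc) (fun c => c.1.dim) e = 1) :
    ∃ c, ∃ h : OutK T Kc c, e = oc c h ∧ c.dim = 1 ∧ c.set ⊆ frontier (Kc k) := by
  rcases e with e | k'
  · exact ⟨e.1, e.2, rfl, hd, he⟩
  · exact absurd (show (3:ℕ) = 1 from hd) (by norm_num)

/-- a face of a giant cell at a 1-cell of its boundary -/
theorem face_giant {k : κ} {c : T.Cell} (h : OutK T Kc c) (hd : c.dim = 1)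
    (hc : c.set ⊆ frontier (Kc k)) :
    ∃ F, oc c h ≤ (lmK h3 hH hdis hne).cf F ∧ Sum.inr k ∈ (mK h3 hH hdis).side F := by
  have h1 : c.pt ∈ frontier (Kc k) := hc (set_ne c)
  have h2 := T.two_faces h3 (hH k).core (hH k).sub (hH k).cc h1 hd
  obtain ⟨F, hF1, hF2⟩ : {F : C2 T | c.pt ∈ F.On ∧ F.set ⊆ frontier (Kc k)}.Nonempty := by
    apply Set.nonempty_of_ncard_ne_zero
    rw [h2]; norm_num
  have hout := out_face h3 F (out_of_frontier hH hdis hF2)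
  refine ⟨⟨F, hout⟩, ?_, (giant_side h3 hH hdis k _).2 hF2⟩
  show c.set ⊆ F.set
  rw [c.set_eq, F.set_eq]
  have h4 : c.pt ∈ T.cc F.pt := by rw [← F.set_eq]; exact hF1.1
  exact T.cc_sub_of_mem h4

variable {J C K : Type} {fam : J → C} {Qd : Quads (ι ⊕ κ) C K} {s₀ : GSt (mK h3 hH hdis) fam}
  {G : C → Set E} {Z : C → Set (QK (belK T Kc))} {v₀ v₁ : C → QK (belK T Kc)}

open Classical in
/-- the exact label of the level `t` of `u` -/
noncomputable def exl (T : Tiling Om ι) (Kc : κ → Set E) (u : E → ℝ) (t : ℝ) :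
    QK (belK T Kc) → ZMod 2
  | Sum.inl c => ind (t < u c.1.pt)
  | Sum.inr _ => 0

/-- **`LabIn` OF A STATE OVER `meshK` FROM ONE EXACT CORE PER FAMILY.** -/
theorem labIn_K (hW : ∀ w ∈ s₀.P, w ∈ (lmK h3 hH hdis hne).W1)
    (has : ∀ j, HasLab (lmK h3 hH hdis hne) (G (fam j)) (Z (fam j)))
    (sat : ∀ j, ∀ w ∈ G (fam j), ∀ x ∈ (lmK h3 hH hdis hne).W1,
      (lmK h3 hH hdis hne).ed x = (lmK h3 hH hdis hne).ed w → x ∈ G (fam j))
    (supp : ∀ w ∈ s₀.P, w ∈ G (fam (s₀.lab w)))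
    (act : ∀ j k, Qd.In k (fam j) → ∀ w ∈ (lmK h3 hH hdis hne).W1,
      Int (mK h3 hH hdis) (Qd.Act k) w → w ∈ G (fam j))
    (far : ∀ j, v₁ (fam j) ∈ Z (fam j)) (kc : C → κ)
    (hact : ∀ j k, Qd.In k (fam j) → Sum.inr (kc (fam j)) ∉ Qd.Act k)
    (u : C → E → ℝ) (t : J → ℝ)
    (haff : ∀ j, ∀ e : T.Cell, e.dim = 1 → e.set ⊆ frontier (Kc (kc (fam j))) →
      ∃ g : E →ᵃ[ℝ] ℝ, EqOn (u (fam j)) g e.set)
    (hvt : ∀ j, ∀ v ∈ frontier (Kc (kc (fam j))), T.dim v = 0 → u (fam j) v ≠ t j)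
    (hpat : ∀ j, ∀ w ∈ frontier (Kc (kc (fam j))), T.dim w = 1 →
      ((w ∈ s₀.P ∧ s₀.lab w = j) ↔ u (fam j) w = t j))
    (u₀ u₁ : C → T.Cell) (o₀ : ∀ a, OutK T Kc (u₀ a)) (o₁ : ∀ a, OutK T Kc (u₁ a))
    (hu0 : ∀ j, (u₀ (fam j)).set ⊆ frontier (Kc (kc (fam j))) ∧ (u₀ (fam j)).dim = 0 ∧
      u (fam j) (u₀ (fam j)).pt < t j)
    (hu1 : ∀ j, (u₁ (fam j)).set ⊆ frontier (Kc (kc (fam j))) ∧ (u₁ (fam j)).dim = 0 ∧
      t j < u (fam j) (u₁ (fam j)).pt)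
    (hp0 : ∀ j, ReflTransGen (Ed (lmK h3 hH hdis hne) (Fr0 (lmK h3 hH hdis hne) Qd s₀ (fam j)))
      (v₀ (fam j)) (oc (u₀ (fam j)) (o₀ _)))
    (hp1 : ∀ j, ReflTransGen (Ed (lmK h3 hH hdis hne) (Fr0 (lmK h3 hH hdis hne) Qd s₀ (fam j)))
      (oc (u₁ (fam j)) (o₁ _)) (v₁ (fam j))) :
    ∃ lam₀, LabIn (lmK h3 hH hdis hne) Qd s₀ G Z lam₀ v₀ v₁ := by
  refine LabIn.of_core hW has sat supp act far (fun a => QK.k _ (kc a))
    (fun a => Sum.inr (kc a)) ?_ hact (u₀ := fun a => oc (u₀ a) (o₀ a))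
    (u₁ := fun a => oc (u₁ a) (o₁ a)) ?_ ?_ hp0 hp1 (fun j => exl T Kc (u (fam j)) (t j)) ?_ ?_
  · intro j e he hd
    obtain ⟨c, h, rfl, hcd, hc⟩ := le_giant he hd
    exact face_giant h hcd hc
  · exact fun j => ⟨(hu0 j).1, (hu0 j).2.1⟩
  · exact fun j => ⟨(hu1 j).1, (hu1 j).2.1⟩
  · intro j
    show ind (t j < u (fam j) (u₀ (fam j)).pt) + ind (t j < u (fam j) (u₁ (fam j)).pt) = 1
    rw [ind_neg (not_lt.2 (hu0 j).2.2.le), ind_pos (hu1 j).2.2, zero_add]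
  · intro j e he hd
    obtain ⟨c, h, rfl, hcd, hc⟩ := le_giant he hd
    obtain ⟨o1, e1⟩ := en_K (h3 := h3) (hH := hH) (hdis := hdis) (hne := hne) h hcd false
    obtain ⟨o2, e2⟩ := en_K (h3 := h3) (hH := hH) (hdis := hdis) (hne := hne) h hcd true
    rw [e1, e2, on_K h]
    show ind (t j < u (fam j) (enC c false).pt) + ind (t j < u (fam j) (enC c true).pt) = _
    rw [en_pt hcd, en_pt hcd]
    refine exact_parity hcd (haff j c hcd hc) (fun b => ?_) ?_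
    · have h4 := (ep_spec hcd).2.2 b
      exact hvt j _ (hc h4.2) h4.1
    · intro w hw hw1
      rw [mem_gp]
      exact hpat j w (hc hw) hw1

end Crest.Agent.R096.Gl_422
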