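import Crest.Agent.R096.Brk5_582
import Crest.Agent.R096.SkC1_961

/-!
# Row 96 (S0127), NEAR + PROPER, part 1 (helper527): adjacency in a box foam

* `sc_le_of_touch` : on the cells which touch `c` the coordinate `s_c` is bounded by the distance from
  `P c`, divided by the size (`lip_cell` + the nearest point of a box);
* `sc_lt_one_of_conn` : a preconnected set `S ⊆ La` which meets `P c` and stays at distance
  `≤ ε sz c` from `P c` lies in `{s_c < 1}`, so every cell which meets `S` touches `c`;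
* `Adj` : the relation "`G x` lies in a cell touching every cell of `f x`"; `Adj.near`, `Adj.proper`;
* `exists_eta` : a positive continuous lower bound of the sizes.
-/

set_option autoImplicit false
set_option linter.unusedSectionVars false
set_option linter.style.haveILetI false

open Set Filter Topology Metric

namespace Crest.Agent.R096.Nr_527

open Crest.Agent.R096.Brk1_582 Crest.Agent.R096.Brk2_582 Crest.Agent.R096.Brk3_582
open Crest.Agent.R096.Brk4_582 Crest.Agent.R096.Brk5_582 Crest.Agent.R096.Bsp_628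

section foam

variable {E : Type*} [NormedAddCommGroup E] [NormedSpace ℝ E] [CompleteSpace E] {I : Type*}
variable {La : Set E} {P : I → Set E} {b : Set I → E} {N : ℕ}

/-- a point with `s_c < 1`: all its cells touch `c` -/
theorem touch_of_lt (FF : Foam La P b N) {p : E} (hp : p ∈ La) {c : I} (h : sc P b p c < 1) {a : I}
    (ha : p ∈ P a) : (P a ∩ P c).Nonempty := by
  obtain ⟨x, hx⟩ := FF.sc_lt_one_fc hp
  have h0 : sc P b p a = 0 := (FF.sc_eq_zero hp).2 ha
  exact ⟨x, mem_fc.1 hx a (by show sc P b p a < 1; rw [h0]; exact one_pos), mem_fc.1 hx c h⟩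

end foam

section box

variable {κ : Type*} [Fintype κ] [Nonempty κ] {La : Set (κ → ℝ)} {F : Set (Bx κ)} {δ κ0 : ℝ}

/-- the nearest point of a box which touches the box `A` lies in `A` -/
theorem clamp_mem {A C : Bx κ} {w : κ → ℝ} (hw : w ∈ A.set) (hC : C.Pos)
    (ht : (A.set ∩ C.set).Nonempty) :
    (fun k => max (C.lo k) (min (w k) (C.hi k))) ∈ A.set ∩ C.set := by
  obtain ⟨t, htA, htC⟩ := ht
  have h1 := Bx.mem_set.1 hw
  have h2 := Bx.mem_set.1 htA
  have h3 := Bx.mem_set.1 htC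
  refine ⟨Bx.mem_set.2 fun k => ?_, Bx.mem_set.2 fun k => ?_⟩
  · obtain ⟨a1, a2⟩ := h1 k
    obtain ⟨b1, b2⟩ := h2 k
    obtain ⟨c1, c2⟩ := h3 k
    refine ⟨?_, ?_⟩
    · rcases le_total (w k) (C.hi k) with h | h
      · rw [min_eq_left h]; exact a1.trans (le_max_right _ _)
      · rw [min_eq_right h]
        exact (b1.trans c2).trans (le_max_right _ _)
    · refine max_le (c1.trans b2) ((min_le_left _ _).trans a2)
  · have := hC k
    exact ⟨le_max_left _ _, max_le this.le (min_le_right _ _)⟩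

/-- the clamp is a nearest point -/
theorem clamp_dist {C : Bx κ} {w y : κ → ℝ} (hy : y ∈ C.set) :
    ‖w - fun k => max (C.lo k) (min (w k) (C.hi k))‖ ≤ ‖w - y‖ := by
  refine (pi_norm_le_iff_of_nonneg (norm_nonneg _)).2 fun k => ?_
  refine le_trans ?_ (norm_le_pi_norm (w - y) k)
  have h := Bx.mem_set.1 hy k
  simp only [Pi.sub_apply, Real.norm_eq_abs]
  rcases le_total (w k) (C.hi k) with h1 | h1
  · rw [min_eq_left h1]
    rcases le_total (C.lo k) (w k) with h2 | h2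
    · rw [max_eq_right h2]; simp
    · rw [max_eq_left h2, abs_of_nonpos (by linarith), abs_of_nonpos (by linarith)]; linarith
  · rw [min_eq_right h1, max_eq_right (h.1.trans h.2), abs_of_nonneg (by linarith),
      abs_of_nonneg (by linarith)]
    linarith

/-- **(A)** on a cell touching `c` the coordinate `s_c` is at most `Cs R / sz c` times the distance
from any point of `P c` -/
theorem sc_le_of_touch (BF : BoxFoam La F δ κ0) (hLa : IsOpen La) (hδ : 0 < δ) {R : ℝ} (hR : 0 < R)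
    (hcmp : Cmp F R) {a c : F} (ht : (Pc F a ∩ Pc F c).Nonempty) {w y : κ → ℝ} (hw : w ∈ Pc F a)
    (hy : y ∈ Pc F c) :
    sc (Pc F) (bc (F := F)) w c ≤ Cs (Fintype.card κ) δ R * R / c.1.sz * ‖w - y‖ := by
  have FF := foam BF hLa
  have hza : 0 < a.1.sz := Bx.sz_pos (BF.pos _ a.2)
  have hzc : 0 < c.1.sz := Bx.sz_pos (BF.pos _ c.2)
  have hπ := clamp_mem (A := a.1) (C := c.1) hw (BF.pos _ c.2) ht
  set π : κ → ℝ := fun k => max (c.1.lo k) (min (w k) (c.1.hi k)) with hπd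
  have hπL : π ∈ La := BF.sub _ c.2 hπ.2
  have h0 : sc (Pc F) (bc (F := F)) π c = 0 := (FF.sc_eq_zero hπL).2 hπ.2
  have h1 := lip_cell BF hLa hδ hR hcmp a w hw π hπ.1 c
  rw [h0, sub_zero] at h1
  have hCs := Cs_nonneg (n := Fintype.card κ) hδ hR
  have hca : c.1.sz ≤ R * a.1.sz := by
    obtain ⟨t, t1, t2⟩ := ht
    exact hcmp c a ⟨t, t2, t1⟩
  have h2 : Cs (Fintype.card κ) δ R / a.1.sz ≤ Cs (Fintype.card κ) δ R * R / c.1.sz := by
    rw [div_le_div_iff₀ hza hzc]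
    nlinarith
  calc sc (Pc F) (bc (F := F)) w c ≤ |sc (Pc F) (bc (F := F)) w c| := le_abs_self _
    _ ≤ Cs (Fintype.card κ) δ R / a.1.sz * ‖w - π‖ := h1
    _ ≤ Cs (Fintype.card κ) δ R * R / c.1.sz * ‖w - y‖ :=
      mul_le_mul h2 (clamp_dist hy) (norm_nonneg _) (by positivity)

/-- **(B)** a preconnected set which meets `P c` and stays close to `P c` lies in `{s_c < 1}` -/
theorem sc_lt_one_of_conn (BF : BoxFoam La F δ κ0) (hLa : IsOpen La) (hδ : 0 < δ) {R : ℝ}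
    (hR : 0 < R) (hcmp : Cmp F R) {c : F} {ε : ℝ} (hε : Cs (Fintype.card κ) δ R * R * ε < 1)
    {S : Set (κ → ℝ)} (hS : IsPreconnected S) (hSL : S ⊆ La) (hmeet : (S ∩ Pc F c).Nonempty)
    (hnear : ∀ w ∈ S, ∃ y ∈ Pc F c, ‖w - y‖ ≤ ε * c.1.sz) :
    ∀ w ∈ S, sc (Pc F) (bc (F := F)) w c < 1 := by
  have FF := foam BF hLa
  have hzc : 0 < c.1.sz := Bx.sz_pos (BF.pos _ c.2)
  have hCs := Cs_nonneg (n := Fintype.card κ) hδ hR
  have key : ∀ w ∈ S, sc (Pc F) (bc (F := F)) w c < 1 →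
      sc (Pc F) (bc (F := F)) w c ≤ Cs (Fintype.card κ) δ R * R * ε := by
    intro w hw h1
    obtain ⟨a, ha⟩ := FF.cov w (hSL hw)
    obtain ⟨y, hy, hd⟩ := hnear w hw
    have h2 := sc_le_of_touch BF hLa hδ hR hcmp (touch_of_lt FF (hSL hw) h1 ha) ha hy
    refine h2.trans ?_
    calc Cs (Fintype.card κ) δ R * R / c.1.sz * ‖w - y‖
        ≤ Cs (Fintype.card κ) δ R * R / c.1.sz * (ε * c.1.sz) :=
          mul_le_mul_of_nonneg_left hd (by positivity)
      _ = Cs (Fintype.card κ) δ R * R * ε := by field_simp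
  have hcont : ContinuousOn (fun y => sc (Pc F) (bc (F := F)) y c) S :=
    (Brk2_582.continuousOn_sc_apply FF c).mono hSL
  have himg : IsPreconnected ((fun y => sc (Pc F) (bc (F := F)) y c) '' S) := hS.image _ hcont
  obtain ⟨y0, hy0, hy0c⟩ := hmeet
  have h00 : sc (Pc F) (bc (F := F)) y0 c = 0 := (FF.sc_eq_zero (hSL hy0)).2 hy0c
  intro w hw
  by_contra hcon
  have hge : 1 ≤ sc (Pc F) (bc (F := F)) w c := not_lt.1 hcon
  -- intermediate value
  set m : ℝ := (max 0 (Cs (Fintype.card κ) δ R * R * ε) + 1) / 2 with hm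
  have hm1 : m < 1 := by
    have : max 0 (Cs (Fintype.card κ) δ R * R * ε) < 1 := max_lt one_pos hε
    rw [hm]; linarith
  have hm0 : max 0 (Cs (Fintype.card κ) δ R * R * ε) < m := by
    have : max 0 (Cs (Fintype.card κ) δ R * R * ε) < 1 := max_lt one_pos hε
    rw [hm]; linarith
  have hmem : m ∈ (fun y => sc (Pc F) (bc (F := F)) y c) '' S := by
    refine himg.ordConnected.out ⟨y0, hy0, rfl⟩ ⟨w, hw, rfl⟩ ⟨?_, ?_⟩
    · show sc (Pc F) (bc (F := F)) y0 c ≤ m
      rw [h00]; exact ((le_max_left _ _).trans_lt hm0).le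
    · exact hm1.le.trans hge
  obtain ⟨v, hv, hvm⟩ := hmem
  have hvm' : sc (Pc F) (bc (F := F)) v c = m := hvm
  have h3 := key v hv (by rw [hvm']; exact hm1)
  rw [hvm'] at h3
  exact absurd (h3.trans (le_max_right 0 _)) (not_le.2 hm0)

/-- **(B')** so every cell which meets the set touches `c` -/
theorem touch_of_conn (BF : BoxFoam La F δ κ0) (hLa : IsOpen La) (hδ : 0 < δ) {R : ℝ}
    (hR : 0 < R) (hcmp : Cmp F R) {c : F} {ε : ℝ} (hε : Cs (Fintype.card κ) δ R * R * ε < 1)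
    {S : Set (κ → ℝ)} (hS : IsPreconnected S) (hSL : S ⊆ La) (hmeet : (S ∩ Pc F c).Nonempty)
    (hnear : ∀ w ∈ S, ∃ y ∈ Pc F c, ‖w - y‖ ≤ ε * c.1.sz) {a : F} (ha : (S ∩ Pc F a).Nonempty) :
    (Pc F a ∩ Pc F c).Nonempty := by
  obtain ⟨w, hw, hwa⟩ := ha
  exact touch_of_lt (foam BF hLa) (hSL hw)
    (sc_lt_one_of_conn BF hLa hδ hR hcmp hε hS hSL hmeet hnear w hw) hwa

/-! ### adjacency of two maps -/

/-- `G x` and `f x` lie in touching cells -/
def Adj {X : Type*} (F : Set (Bx κ)) (Om : Set X) (f G : X → κ → ℝ) : Prop :=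
  ∀ x ∈ Om, ∀ c : F, f x ∈ Pc F c → ∃ a : F, G x ∈ Pc F a ∧ (Pc F a ∩ Pc F c).Nonempty

variable {X : Type*} {Om : Set X} {f G : X → κ → ℝ}

/-- **closeness from adjacency** -/
theorem Adj.near (h : Adj F Om f G) (BF : BoxFoam La F δ κ0) {R : ℝ} (hcmp : Cmp F R) {x : X}
    (hx : x ∈ Om) {c : F} (hc : f x ∈ Pc F c) : ‖G x - f x‖ ≤ (1 + R) * c.1.sz := by
  obtain ⟨a, ha, t, hta, htc⟩ := h x hx c hc
  have h1 : ‖G x - t‖ ≤ a.1.sz := norm_sub_le_sz (BF.pos _ a.2) ha hta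
  have h2 : ‖t - f x‖ ≤ c.1.sz := norm_sub_le_sz (BF.pos _ c.2) htc hc
  have h3 : a.1.sz ≤ R * c.1.sz := hcmp a c ⟨t, hta, htc⟩
  calc ‖G x - f x‖ = ‖(G x - t) + (t - f x)‖ := by congr 1; abel
    _ ≤ ‖G x - t‖ + ‖t - f x‖ := norm_add_le _ _
    _ ≤ (1 + R) * c.1.sz := by linarith

/-- finitely many cells meet a compact subset of `La` -/
theorem finite_meet (BF : BoxFoam La F δ κ0) (hLa : IsOpen La) {Y : Set (κ → ℝ)} (hY : IsCompact Y)
    (hYL : Y ⊆ La) : {c : F | (Pc F c ∩ Y).Nonempty}.Finite := by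
  have FF := foam BF hLa
  choose! r hr hfin using FF.lf
  obtain ⟨t, ht, hcov⟩ := hY.elim_nhds_subcover (fun y => ball y (r y))
    (fun y hy => ball_mem_nhds y (hr y (hYL hy)))
  refine (t.finite_toSet.biUnion fun y hy => hfin y (hYL (ht y hy))).subset fun c hc => ?_
  obtain ⟨p, hpc, hpY⟩ := hc
  obtain ⟨y, hy, hpy⟩ := mem_iUnion₂.1 (hcov hpY)
  exact mem_iUnion₂.2 ⟨y, hy, p, hpc, hpy⟩

/-- the cells touching finitely many cells -/
theorem finite_touch2 (BF : BoxFoam La F δ κ0) (hLa : IsOpen La) {A : Set F} (hA : A.Finite) :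
    {c : F | ∃ a ∈ A, (Pc F a ∩ Pc F c).Nonempty}.Finite := by
  have FF := foam BF hLa
  refine (hA.biUnion fun a _ => Brk2_582.finite_touch FF a).subset fun c hc => ?_
  obtain ⟨a, ha, t, h1, h2⟩ := hc
  exact mem_iUnion₂.2 ⟨a, ha, t, h2, h1⟩

/-- **the compact set which contains the `f`-image of `{G ∈ Y}`** -/
theorem Adj.exists_compact (h : Adj F Om f G) (BF : BoxFoam La F δ κ0) (hLa : IsOpen La)
    (hf : MapsTo f Om La) {Y : Set (κ → ℝ)} (hY : IsCompact Y) (hYL : Y ⊆ La) :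
    ∃ Z : Set (κ → ℝ), IsCompact Z ∧ Z ⊆ La ∧ ∀ x ∈ Om, G x ∈ Y → f x ∈ Z := by
  have FF := foam BF hLa
  have h1 := finite_touch2 BF hLa (finite_meet BF hLa hY hYL)
  refine ⟨⋃ c ∈ {c : F | ∃ a ∈ {c : F | (Pc F c ∩ Y).Nonempty}, (Pc F a ∩ Pc F c).Nonempty}, Pc F c,
    h1.isCompact_biUnion fun c _ => FF.cpt c, iUnion₂_subset fun c _ => FF.sub c,
    fun x hx hxY => ?_⟩
  obtain ⟨c, hc⟩ := FF.cov _ (hf hx)
  obtain ⟨a, ha, hac⟩ := h x hx c hc
  exact mem_iUnion₂.2 ⟨c, ⟨a, ⟨G x, ha, hxY⟩, hac⟩, hc⟩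

/-- **PROPERNESS** -/
theorem Adj.proper [TopologicalSpace X] {fi : (κ → ℝ) → X} (h : Adj F Om f G)
    (BF : BoxFoam La F δ κ0) (hLa : IsOpen La) (hf : MapsTo f Om La) (hfi : MapsTo fi La Om)
    (h1 : ∀ x ∈ Om, fi (f x) = x) (h3 : ContinuousOn fi La)
    (hG : ContinuousOn G Om) {Y : Set (κ → ℝ)} (hY : IsCompact Y) (hYL : Y ⊆ La) :
    IsCompact {x | x ∈ Om ∧ G x ∈ Y} := by
  obtain ⟨Z, hZ, hZL, hZf⟩ := h.exists_compact BF hLa hf hY hYL
  have hK : IsCompact (fi '' Z) := hZ.image_of_continuousOn (h3.mono hZL)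
  have hKO : fi '' Z ⊆ Om := by
    rintro _ ⟨z, hz, rfl⟩
    exact hfi (hZL hz)
  have h4 : {x | x ∈ Om ∧ G x ∈ Y} = fi '' Z ∩ G ⁻¹' Y := by
    ext x
    constructor
    · rintro ⟨hx, hxY⟩
      exact ⟨⟨f x, hZf x hx hxY, h1 x hx⟩, hxY⟩
    · rintro ⟨hx, hxY⟩
      exact ⟨hKO hx, hxY⟩
  rw [h4]
  obtain ⟨u, hu, he⟩ := continuousOn_iff_isClosed.1 (hG.mono hKO) Y hY.isClosed
  rw [inter_comm, he]
  exact hK.inter_left hu

/-! ### the sizes have a positive continuous lower bound -/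

/-- **a positive `1`-Lipschitz function on `La` which is `≤ sz c` on every cell** -/
theorem exists_eta (BF : BoxFoam La F δ κ0) (hLa : IsOpen La) (hne : La.Nonempty) :
    ∃ η : (κ → ℝ) → ℝ, LipschitzWith 1 η ∧ (∀ y ∈ La, 0 < η y) ∧
      ∀ c : F, ∀ y ∈ Pc F c, η y ≤ c.1.sz := by
  have FF := foam BF hLa
  obtain ⟨y0, hy0⟩ := hne
  obtain ⟨c0, hc0⟩ := FF.cov y0 hy0
  haveI : Nonempty F := ⟨c0⟩
  have hz : ∀ c : F, 0 < c.1.sz := fun c => Bx.sz_pos (BF.pos _ c.2)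
  have hbd : ∀ y : κ → ℝ, BddBelow (range fun c : F => c.1.sz + infDist y (Pc F c)) := fun y =>
    ⟨0, by rintro _ ⟨c, rfl⟩; exact add_nonneg (hz c).le infDist_nonneg⟩
  refine ⟨fun y => ⨅ c : F, (c.1.sz + infDist y (Pc F c)), ?_, ?_, ?_⟩
  · refine LipschitzWith.of_le_add fun x y => ?_
    rw [← sub_le_iff_le_add]
    refine le_ciInf fun c => ?_
    rw [sub_le_iff_le_add]
    refine (ciInf_le (hbd x) c).trans ?_
    have := infDist_le_infDist_add_dist (s := Pc F c) (x := x) (y := y)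
    linarith
  · intro y hy
    obtain ⟨r, hr, hfin⟩ := FF.lf y hy
    have hne : {c : F | (Pc F c ∩ ball y r).Nonempty}.Nonempty := by
      obtain ⟨c, hc⟩ := FF.cov y hy
      exact ⟨c, y, hc, mem_ball_self hr⟩
    obtain ⟨c1, hc1, hmin⟩ := Set.exists_min_image _ (fun c : F => c.1.sz) hfin hne
    refine lt_of_lt_of_le (lt_min hr (hz c1)) (le_ciInf fun c => ?_)
    by_cases hc : (Pc F c ∩ ball y r).Nonempty
    · exact (min_le_right _ _).trans ((hmin c hc).trans (le_add_of_nonneg_right infDist_nonneg))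
    · refine (min_le_left _ _).trans ?_
      have hcne : (Pc F c).Nonempty := by
        refine ⟨c.1.lo, Bx.mem_set.2 fun k => ⟨le_rfl, (BF.pos _ c.2 k).le⟩⟩
      have h1 : r ≤ infDist y (Pc F c) := by
        refine (le_infDist hcne).2 fun z hz' => ?_
        by_contra h2
        exact hc ⟨z, hz', by rw [mem_ball, dist_comm]; exact not_le.1 h2⟩
      linarith [hz c]
  · intro c y hy
    refine (ciInf_le (hbd y) c).trans ?_
    rw [infDist_zero_of_mem hy, add_zero]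

end box

end Crest.Agent.R096.Nr_527
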