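import Crest.Agent.R096.Mbf_337
import Crest.Agent.R096.Vb8_965
import Crest.Agent.R096.Nr1_527
import Crest.Agent.R96.Push20_899

/-!
# Row 96 (S0127), helper847.  CLOSE: on the boundary of an exact core (`Mbf_337.Exact`) the pushed map
`Psi (f w)` is close to the exact map `th w`.

* `psi_lip`, `psh_lip`, `push_lip` : the push of a brick is Lipschitz on a convex set where one coordinate
  is off the hole by `τ` times the width;
* **`close_th`** : `‖Psi (f w) - th w‖ ≤ 54 κ0 / (c0² κ2) * κ1 * sz`;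
* **`close_lev`** : `|lev e (f w) - sb (th w) e| ≤ Cs 3 δ R * (54 κ0 / (c0² κ2) * κ1)`;
* `th_mem`, `th_wall`, `Psi_wall`.
-/

set_option autoImplicit false
set_option linter.unusedSectionVars false
set_option linter.style.haveILetI false
set_option linter.unusedVariables false

open Set Filter Topology Metric

namespace Crest.Agent.R096.Hlf_847

open Crest.Agent.R096.Bsp_628 Crest.Agent.R096.Brk1_582 Crest.Agent.R096.Brk2_582
open Crest.Agent.R096.Brk3_582 Crest.Agent.R096.Brk5_582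
open Crest.Agent.R96.Push_899
open Crest.Agent.R096.SkC1_961 (E3 Hom3 IsPush FoamD th)
open Crest.Agent.R096.Mbf_337 (Exact sb)
open Crest.Agent.R096.Vb_965 (qb mem_qb wall_iff Psi_eqD)
open Crest.Agent.R096.Msh_715

theorem sum_le3 (y y' : E3) : ∑ j, |y' j - y j| ≤ 3 * ‖y' - y‖ := by
  have : ∀ j ∈ (Finset.univ : Finset (Fin 3)), |y' j - y j| ≤ ‖y' - y‖ := fun j _ => by
    have := norm_le_pi_norm (y' - y) j
    rwa [Pi.sub_apply, Real.norm_eq_abs] at this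
  refine (Finset.sum_le_sum this).trans ?_
  simp

/-- every point of `N` is off the hole `B` by `τ` times the width of `Q`, in some coordinate -/
def OffN (Q B : Box (Fin 3)) (τ : ℝ) (N : Set E3) : Prop :=
  ∀ y ∈ N, ∃ k, y k ≤ B.lo k - τ * Q.W k ∨ B.hi k + τ * Q.W k ≤ y k

section lip

variable {P : Finset (Fin 3)} {c₀ κ ρ κ0 τ : ℝ} {Q C B : Box (Fin 3)}

theorem not_mem_of_off (hW : ∀ i, 0 < Q.W i) (hτ : 0 < τ) {N : Set E3} (hN : OffN Q B τ N) {y : E3}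
    (hy : y ∈ N) : y ∉ B.S := by
  intro h
  obtain ⟨k, hk⟩ := hN y hy
  have h1 := h k
  have h2 := mul_pos hτ (hW k)
  rcases hk with hk | hk <;> linarith [h1.1, h1.2]

theorem not_mem_I_of_off (hW : ∀ i, 0 < Q.W i) (hτ : 0 < τ) {N : Set E3} (hN : OffN Q B τ N) {y : E3}
    (hy : y ∈ N) : y ∉ B.I := fun h =>
  not_mem_of_off hW hτ hN hy fun i => ⟨(h i).1.le, (h i).2.le⟩

theorem tt_ge (hQ : Shape P c₀ κ ρ Q C) (hC : Inner C B) (hτ : 0 < τ) {N : Set E3}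
    (hN : OffN Q B τ N) {y : E3} (hy : y ∈ N) : τ ≤ tt C B y := by
  by_contra hlt
  push Not at hlt
  rw [tt_lt_iff] at hlt
  obtain ⟨k, hk⟩ := hN y hy
  have h1 := (gg_lt_iff hC.nest y k τ).1 (hlt k)
  unfold cl ch at h1
  have h2 := hC.gapU k
  have h3 : C.W k ≤ Q.W k := by
    have := hQ.nest.g1 k; have := hQ.nest.g2 k; unfold Box.W; linarith
  rcases hk with hk | hk
  · have : τ * (B.lo k - C.lo k) ≤ τ * Q.W k := mul_le_mul_of_nonneg_left (by linarith) hτ.le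
    linarith [h1.1]
  · have : τ * (C.hi k - B.hi k) ≤ τ * Q.W k := mul_le_mul_of_nonneg_left (by linarith) hτ.le
    linarith [h1.2]

/-- the one-level push -/
theorem psh_lip (hQ : Shape P c₀ κ ρ Q B) (hκ0 : 1 ≤ κ0) (hτ : 0 < τ) (hτ1 : τ ≤ 1) {N : Set E3}
    (hN : OffN Q B τ N) : ∀ y ∈ N, ∀ y' ∈ N,
      ‖psh Q B y - psh Q B y'‖ ≤ 27 * κ0 / (c₀ ^ 2 * τ) * ‖y - y'‖ := by
  intro y hy y' hy'
  have hc := hQ.c0
  have h1 : ∀ x ∈ N, 0 ≤ tt Q B x := fun x hx =>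
    not_lt.1 (mt (tt_lt_zero_iff hQ.nest _).1 (not_mem_I_of_off hQ.W0 hτ hN hx))
  refine (pi_norm_le_iff_of_nonneg (by positivity)).2 fun i => ?_
  rw [Pi.sub_apply, Real.norm_eq_abs]
  refine (hQ.incr (h1 y' hy') (h1 y hy) i).trans ?_
  have h5 : (2:ℝ) / c₀ ^ 2 * ∑ j, |y j - y' j| ≤ 2 / c₀ ^ 2 * (3 * ‖y - y'‖) :=
    mul_le_mul_of_nonneg_left (sum_le3 y' y) (by positivity)
  refine h5.trans ?_
  have h6 : (2:ℝ) / c₀ ^ 2 * (3 * ‖y - y'‖) = 6 * τ / (c₀ ^ 2 * τ) * ‖y - y'‖ := by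
    field_simp; ring
  rw [h6]
  apply mul_le_mul_of_nonneg_right _ (norm_nonneg _)
  apply div_le_div_of_nonneg_right _ (by positivity)
  nlinarith

/-- the two-level push -/
theorem psi_lip (hQ : Shape P c₀ κ ρ Q C) (hC : Inner C B) (hκ0 : 1 ≤ κ0)
    (hκ : ∀ i j, Q.W i ≤ κ0 * Q.W j) (hτ : 0 < τ) (hτ1 : τ ≤ 1) {N : Set E3} (hcv : Convex ℝ N)
    (hN : OffN Q B τ N) : ∀ y ∈ N, ∀ y' ∈ N,
      ‖psi Q C B y - psi Q C B y'‖ ≤ 27 * κ0 / (c₀ ^ 2 * τ) * ‖y - y'‖ := by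
  have hc0 := hQ.c0
  have hc1 := hQ.c1
  have hoff : ∀ y ∈ N, Off C B y := fun y hy => by
    have := tt_ge hQ hC hτ hN hy
    exact ⟨by linarith, Or.inl (by linarith)⟩
  have hout : ∀ y y' : E3, y ∉ C.I → y' ∉ C.I →
      ‖psi Q C B y - psi Q C B y'‖ ≤ 27 * κ0 / (c₀ ^ 2 * τ) * ‖y - y'‖ := by
    intro y y' h1 h2
    refine (pi_norm_le_iff_of_nonneg (by positivity)).2 fun i => ?_
    rw [Pi.sub_apply, Real.norm_eq_abs]
    refine (psi_incr_out hQ hC h2 h1 i).trans ?_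
    have h5 : (2:ℝ) / c₀ ^ 2 * ∑ j, |y j - y' j| ≤ 2 / c₀ ^ 2 * (3 * ‖y - y'‖) :=
      mul_le_mul_of_nonneg_left (sum_le3 y' y) (by positivity)
    refine h5.trans ?_
    have h6 : (2:ℝ) / c₀ ^ 2 * (3 * ‖y - y'‖) = 6 * τ / (c₀ ^ 2 * τ) * ‖y - y'‖ := by
      field_simp; ring
    rw [h6]
    apply mul_le_mul_of_nonneg_right _ (norm_nonneg _)
    apply div_le_div_of_nonneg_right _ (by positivity)
    nlinarith
  have hin : ∀ y ∈ N, ∀ y' ∈ N, y ∈ C.S → y' ∈ C.S →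
      ‖psi Q C B y - psi Q C B y'‖ ≤ 27 * κ0 / (c₀ ^ 2 * τ) * ‖y - y'‖ := by
    intro y hn y' hn' h1 h2
    refine (pi_norm_le_iff_of_nonneg (by positivity)).2 fun i => ?_
    rw [Pi.sub_apply, Real.norm_eq_abs]
    have h1t : tt C B y ≤ 1 := (tt_le_one_iff hC.nest _).2 h1
    have htau := tt_ge hQ hC hτ hN hn
    have h3 := psi_incr_in hQ hC (y := y') (y' := y) h2 h1 (hoff y' hn') (hoff y hn)
      (M := 1 / τ) (fun i => by
        have h4 := hC.W_le_ww i (t := tt C B y) (by linarith) h1t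
        have h5 := hC.W0 i
        rw [one_div, inv_mul_eq_div, le_div_iff₀ hτ]
        nlinarith) (a := fun _ => κ0 / c₀) (fun i j => by
        have h5 := hκ i j
        have h6 := hQ.wd j
        have h8 := hQ.W0 j
        rw [div_mul_eq_mul_div, le_div_iff₀ hc0]
        nlinarith) i
    refine h3.trans ?_
    have e : ∑ j, (fun _ : Fin 3 => κ0 / c₀) j * |y j - y' j| = κ0 / c₀ * ∑ j, |y j - y' j| := by
      rw [Finset.mul_sum]
    rw [e]
    have h5 : κ0 / c₀ * ∑ j, |y j - y' j| ≤ κ0 / c₀ * (3 * ‖y - y'‖) :=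
      mul_le_mul_of_nonneg_left (sum_le3 y' y) (by positivity)
    have h6 : κ0 / c₀ ≤ κ0 / c₀ ^ 2 := by
      apply div_le_div_of_nonneg_left (by linarith) (by positivity)
      nlinarith
    have h7 : κ0 / c₀ * (3 * ‖y - y'‖) ≤ κ0 / c₀ ^ 2 * (3 * ‖y - y'‖) :=
      mul_le_mul_of_nonneg_right h6 (by positivity)
    calc _ ≤ 9 * (1 / τ) * (κ0 / c₀ ^ 2 * (3 * ‖y - y'‖)) :=
          mul_le_mul_of_nonneg_left (h5.trans h7) (by positivity)
      _ = _ := by field_simp; ring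
  have hmix : ∀ y ∈ N, ∀ y' ∈ N, y ∈ C.S → y' ∉ C.S →
      ‖psi Q C B y - psi Q C B y'‖ ≤ 27 * κ0 / (c₀ ^ 2 * τ) * ‖y - y'‖ := by
    intro y hy y' hy' h1 h2
    have hy'I : y' ∉ C.I := fun h => h2 fun i => ⟨(h i).1.le, (h i).2.le⟩
    have ht1 : tt C B y ≤ 1 := (tt_le_one_iff hC.nest _).2 h1
    have ht2 : 1 ≤ tt C B y' := not_lt.1 (mt (tt_lt_one_iff hC.nest _).1 hy'I)
    have hcont : Continuous fun s : ℝ => tt C B (y + s • (y' - y)) :=
      (continuous_tt C B).comp (by fun_prop)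
    obtain ⟨s, hs, hs1⟩ : (1:ℝ) ∈ (fun s : ℝ => tt C B (y + s • (y' - y))) '' Icc 0 1 := by
      refine intermediate_value_Icc zero_le_one hcont.continuousOn ?_
      constructor
      · simpa using ht1
      · simpa using ht2
    set x := y + s • (y' - y) with hx
    have hs1' : tt C B x = 1 := hs1
    have hxN : x ∈ N := by
      have := hcv hy hy' (sub_nonneg.2 hs.2) hs.1 (by ring)
      convert this using 1
      rw [hx]; module
    have hxS : x ∈ C.S := (tt_le_one_iff hC.nest _).1 hs1'.le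
    have hxI : x ∉ C.I := fun h => by
      have := (tt_lt_one_iff hC.nest _).2 h
      linarith
    have e1 : ‖y - x‖ = s * ‖y - y'‖ := by
      rw [hx, show y - (y + s • (y' - y)) = s • (y - y') by module, norm_smul,
        Real.norm_of_nonneg hs.1]
    have e2 : ‖x - y'‖ = (1 - s) * ‖y - y'‖ := by
      rw [hx, show y + s • (y' - y) - y' = (1 - s) • (y - y') by module, norm_smul,
        Real.norm_of_nonneg (sub_nonneg.2 hs.2)]
    have b1 := hin y hy x hxN h1 hxS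
    have b2 := hout x y' hxI hy'I
    calc _ ≤ ‖psi Q C B y - psi Q C B x‖ + ‖psi Q C B x - psi Q C B y'‖ :=
          norm_sub_le_norm_sub_add_norm_sub _ _ _
      _ ≤ _ := add_le_add b1 b2
      _ = _ := by rw [e1, e2]; ring
  intro y hy y' hy'
  by_cases h1 : y ∈ C.S
  · by_cases h2 : y' ∈ C.S
    · exact hin y hy y' hy' h1 h2
    · exact hmix y hy y' hy' h1 h2
  · by_cases h2 : y' ∈ C.S
    · have := hmix y' hy' y hy h2 h1
      rwa [norm_sub_rev, norm_sub_rev y'] at this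
    · exact hout y y' (fun h => h1 fun i => ⟨(h i).1.le, (h i).2.le⟩)
        (fun h => h2 fun i => ⟨(h i).1.le, (h i).2.le⟩)

/-- **the admissible pushes are Lipschitz off the hole** -/
theorem push_lip {c0 : ℝ} {pu : E3 → E3} (h : IsPush c0 Q B pu) (hκ0 : 1 ≤ κ0)
    (hκ : ∀ i j, Q.W i ≤ κ0 * Q.W j) (hτ : 0 < τ) (hτ1 : τ ≤ 1) {N : Set E3} (hcv : Convex ℝ N)
    (hN : OffN Q B τ N) : ∀ y ∈ N, ∀ y' ∈ N,
      ‖pu y - pu y'‖ ≤ 27 * κ0 / (c0 ^ 2 * τ) * ‖y - y'‖ := by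
  rcases h with ⟨P, κ, ρ, hS, rfl⟩ | ⟨P, κ, ρ, C, hS, hI, rfl⟩
  · exact psh_lip hS hκ0 hτ hτ1 hN
  · exact psi_lip hS hI hκ0 hκ hτ hτ1 hcv hN

end lip

section exact

variable {δ κ0 R c0 : ℝ} {La Om : Set E3} {ι : Type} {Φ : FoamD δ κ0 R c0 La} {T : Tiling Om ι}
  {f : E3 → E3} {κ1 κ2 : ℝ} {c : Φ.F} {i : ι} {A : E3 ≃ᵃ[ℝ] E3} {lam : ℝ} {z : E3}

theorem side_pos (c : Φ.F) (k : Fin 3) : 0 < c.1.side k := Bx.side_pos (Φ.bf.pos _ c.2) k

theorem one_le_κ0 (c : Φ.F) : 1 ≤ κ0 := by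
  have h1 := Φ.bf.asp _ c.2 0
  have h2 := Bx.side_le_sz c.1 0
  have h4 := side_pos c 0
  by_contra hne
  nlinarith

theorem c0_pos (c : Φ.F) : 0 < c0 := by
  rcases Φ.push c with ⟨P, κ, ρ, hS, -⟩ | ⟨P, κ, ρ, C, hS, -, -⟩
  · exact hS.c0
  · exact hS.c0

variable (hE : Exact Φ T f κ1 κ2 c i A lam z)
include hE

theorem box_of {w : E3} (hw : w ∈ P (T.H i)) (k : Fin 3) :
    z k + lam * c.1.lo k ≤ A w k ∧ A w k ≤ z k + lam * c.1.hi k := by
  have := hw; rw [hE.tile] at this; exact this k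

theorem κ2_le : κ2 ≤ 1 / 2 := by
  have h1 := hE.hole 0
  have h2 := (Φ.B c).le 0
  have h3 : 0 < lam * c.1.side 0 := mul_pos hE.lam0 (side_pos c 0)
  have h4 : lam * c.1.side 0 = lam * c.1.hi 0 - lam * c.1.lo 0 := by unfold Bx.side; ring
  by_contra hne
  push Not at hne
  nlinarith [h1.1, h1.2]

/-- a point of the core tile off the interior is mapped by `A` to the boundary of the box -/
theorem bd_coord {w : E3} (hw : w ∈ P (T.H i)) (hwI : w ∉ I (T.H i)) :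
    ∃ k, A w k = z k + lam * c.1.lo k ∨ A w k = z k + lam * c.1.hi k := by
  have hbx := box_of hE hw
  by_contra hcon
  push Not at hcon
  apply hwI
  have hop : IsOpen (A ⁻¹' {y : E3 | ∀ k, z k + lam * c.1.lo k < y k ∧
      y k < z k + lam * c.1.hi k}) := by
    refine IsOpen.preimage (A.continuous_of_finiteDimensional) ?_
    simp only [ofPred_forall]
    refine isOpen_iInter_of_finite fun k => ?_
    exact (isOpen_lt continuous_const (continuous_apply k)).inter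
      (isOpen_lt (continuous_apply k) continuous_const)
  have hin : w ∈ interior (P (T.H i)) := by
    rw [hE.tile]
    refine mem_interior.2 ⟨_, ?_, hop, fun k => ⟨lt_of_le_of_ne (hbx k).1 fun h => (hcon k).1 h.symm,
      lt_of_le_of_ne (hbx k).2 (hcon k).2⟩⟩
    intro y hy k
    exact ⟨(hy k).1.le, (hy k).2.le⟩
  -- the interior of a polytope with nonempty open part
  obtain ⟨v, hv⟩ := T.ne i
  intro h hh
  have hxP : w ∈ P (T.H i) := interior_subset hin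
  by_contra hcon'
  have e : h.1 w = h.2 := le_antisymm (hxP h hh) (not_lt.1 hcon')
  have hc : ContinuousAt (fun s : ℝ => w + s • (w - v)) 0 := by fun_prop
  have hev : ∀ᶠ s in 𝓝 (0 : ℝ), w + s • (w - v) ∈ interior (P (T.H i)) := by
    refine hc.eventually_mem (isOpen_interior.mem_nhds ?_)
    simpa using hin
  obtain ⟨r, hr, hr'⟩ := Metric.eventually_nhds_iff.1 hev
  have h1 : w + (r / 2) • (w - v) ∈ P (T.H i) := interior_subset (hr' (by
    rw [Real.dist_eq, sub_zero, abs_of_pos (by positivity)]; linarith))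
  have h2 := h1 h hh
  rw [map_add, map_smul, map_sub, e, smul_eq_mul] at h2
  have h3 := hv h hh
  have h4 : 0 < r / 2 * (h.2 - h.1 v) := by
    apply mul_pos (by positivity); linarith
  linarith

theorem near_A (hκ2 : 0 ≤ κ2) {w : E3} (hw : w ∈ P (T.H i)) (hwI : w ∉ I (T.H i)) :
    ‖f w - A w‖ ≤ κ1 * (lam * c.1.sz) := by
  have hbx := box_of hE hw
  have hm : ∀ k, 0 ≤ κ2 * (lam * c.1.side k) := fun k =>
    mul_nonneg hκ2 (mul_nonneg hE.lam0.le (side_pos c k).le)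
  refine (hE.nbd w fun k => ⟨by linarith [(hbx k).1, hm k], by linarith [(hbx k).2, hm k]⟩).2 ?_
  intro h
  apply hwI
  -- `interior P ⊆ I`
  obtain ⟨v, hv⟩ := T.ne i
  intro g hg
  by_contra hcon'
  have e : g.1 w = g.2 := le_antisymm (hw g hg) (not_lt.1 hcon')
  have hc : ContinuousAt (fun s : ℝ => w + s • (w - v)) 0 := by fun_prop
  have hev : ∀ᶠ s in 𝓝 (0 : ℝ), w + s • (w - v) ∈ interior (P (T.H i)) := by
    refine hc.eventually_mem (isOpen_interior.mem_nhds ?_)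
    simpa using h
  obtain ⟨r, hr, hr'⟩ := Metric.eventually_nhds_iff.1 hev
  have h1 : w + (r / 2) • (w - v) ∈ P (T.H i) := interior_subset (hr' (by
    rw [Real.dist_eq, sub_zero, abs_of_pos (by positivity)]; linarith))
  have h2 := h1 g hg
  rw [map_add, map_smul, map_sub, e, smul_eq_mul] at h2
  have h3 := hv g hg
  have h4 : 0 < r / 2 * (g.2 - g.1 v) := by
    apply mul_pos (by positivity); linarith
  linarith

theorem fmem {w : E3} (hw : w ∈ P (T.H i)) : f w ∈ c.1.set :=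
  Bx.mem_set.2 fun k => ⟨(hE.inside w hw k).1.le, (hE.inside w hw k).2.le⟩

/-- the coordinate `k` of the boundary point and of `f w` are off the hole by `κ2 lam / 2` -/
theorem off_coord (hκ1 : 0 ≤ κ1) (hκ2 : 0 ≤ κ2) (hκ : 2 * κ0 * κ1 ≤ κ2) {w : E3}
    (hw : w ∈ P (T.H i)) (hwI : w ∉ I (T.H i)) :
    ∃ k, (A w k ≤ (Φ.B c).lo k - κ2 * lam / 2 * c.1.side k ∧
        f w k ≤ (Φ.B c).lo k - κ2 * lam / 2 * c.1.side k) ∨
      ((Φ.B c).hi k + κ2 * lam / 2 * c.1.side k ≤ A w k ∧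
        (Φ.B c).hi k + κ2 * lam / 2 * c.1.side k ≤ f w k) := by
  obtain ⟨k, hk⟩ := bd_coord hE hw hwI
  have h1 := near_A hE hκ2 hw hwI
  have h2 : |f w k - A w k| ≤ κ2 * lam / 2 * c.1.side k := by
    have h3 : |f w k - A w k| ≤ κ1 * (lam * c.1.sz) := by
      have := norm_le_pi_norm (f w - A w) k
      rw [Pi.sub_apply, Real.norm_eq_abs] at this
      exact this.trans h1
    have h4 := Φ.bf.asp _ c.2 k
    have h5 : κ1 * (lam * c.1.sz) ≤ κ1 * (lam * (κ0 * c.1.side k)) :=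
      mul_le_mul_of_nonneg_left (mul_le_mul_of_nonneg_left h4 hE.lam0.le) hκ1
    have h6 : 0 ≤ lam * c.1.side k := (mul_pos hE.lam0 (side_pos c k)).le
    have h7 : 2 * κ0 * κ1 * (lam * c.1.side k) ≤ κ2 * (lam * c.1.side k) :=
      mul_le_mul_of_nonneg_right hκ h6
    linarith
  have h3 := abs_le.1 h2
  have h4 := hE.hole k
  have h5 : 0 ≤ κ2 * lam / 2 * c.1.side k :=
    mul_nonneg (div_nonneg (mul_nonneg hκ2 hE.lam0.le) (by norm_num)) (side_pos c k).le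
  refine ⟨k, ?_⟩
  rcases hk with hk | hk
  · left
    constructor
    · linarith [h4.1]
    · linarith [h4.1, h3.2]
  · right
    constructor
    · linarith [h4.2]
    · linarith [h4.2, h3.1]

theorem f_not_hole (hκ1 : 0 ≤ κ1) (hκ2 : 0 < κ2) (hκ : 2 * κ0 * κ1 ≤ κ2) {w : E3}
    (hw : w ∈ P (T.H i)) (hwI : w ∉ I (T.H i)) : f w ∉ (Φ.B c).S := by
  obtain ⟨k, hk⟩ := off_coord hE hκ1 hκ2.le hκ hw hwI
  intro h
  have h5 : 0 < κ2 * lam / 2 * c.1.side k :=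
    mul_pos (div_pos (mul_pos hκ2 hE.lam0) (by norm_num)) (side_pos c k)
  have := h k
  rcases hk with hk | hk
  · linarith [hk.2, this.1]
  · linarith [hk.2, this.2]

/-- **CLOSE (1)** -/
theorem close_th (hLa : IsOpen La) (hκ1 : 0 ≤ κ1) (hκ2 : 0 < κ2) (hκ : 2 * κ0 * κ1 ≤ κ2) {w : E3}
    (hw : w ∈ P (T.H i)) (hwI : w ∉ I (T.H i)) :
    ‖Φ.Psi (f w) - th A lam z w‖ ≤ 54 * κ0 / (c0 ^ 2 * κ2) * κ1 * c.1.sz := by
  have hlam := hE.lam0
  have hk0 := one_le_κ0 c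
  have hc0 := c0_pos c
  have hsz : 0 < c.1.sz := Bx.sz_pos (Φ.bf.pos _ c.2)
  have e1 : Φ.Psi (f w) = Φ.pu c (f w) := Psi_eqD Φ hLa (fmem hE hw)
  have e2 : Φ.pu c (A w) = th A lam z w := hE.ray (A w) (box_of hE hw) (bd_coord hE hw hwI)
  rw [e1, ← e2]
  have hW : ∀ i j, (qb Φ c).W i ≤ κ0 * (qb Φ c).W j := fun i j =>
    (Bx.side_le_sz c.1 i).trans (Φ.bf.asp _ c.2 j)
  have hτ : 0 < κ2 * lam / 2 := by positivity
  have hτ1 : κ2 * lam / 2 ≤ 1 := by
    have h1 := κ2_le hE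
    have h2 := hE.lam1
    nlinarith
  have hmain : ‖Φ.pu c (f w) - Φ.pu c (A w)‖ ≤
      27 * κ0 / (c0 ^ 2 * (κ2 * lam / 2)) * ‖f w - A w‖ := by
    obtain ⟨k, hk⟩ := off_coord hE hκ1 hκ2.le hκ hw hwI
    rcases hk with hk | hk
    · refine push_lip (Q := qb Φ c) (N := {y : E3 | y k ≤ (Φ.B c).lo k - κ2 * lam / 2 * c.1.side k})
        (Φ.push c) hk0 hW hτ hτ1 ?_ (fun y hy => ⟨k, Or.inl hy⟩) (f w) hk.2 (A w) hk.1
      exact convex_halfSpace_le (f := fun y : E3 => y k) ⟨fun _ _ => rfl, fun _ _ => rfl⟩ _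
    · refine push_lip (Q := qb Φ c) (N := {y : E3 | (Φ.B c).hi k + κ2 * lam / 2 * c.1.side k ≤ y k})
        (Φ.push c) hk0 hW hτ hτ1 ?_ (fun y hy => ⟨k, Or.inr hy⟩) (f w) hk.2 (A w) hk.1
      exact convex_halfSpace_ge (f := fun y : E3 => y k) ⟨fun _ _ => rfl, fun _ _ => rfl⟩ _
  refine hmain.trans ?_
  have h1 := near_A hE hκ2.le hw hwI
  have h2 : 27 * κ0 / (c0 ^ 2 * (κ2 * lam / 2)) * ‖f w - A w‖ ≤
      27 * κ0 / (c0 ^ 2 * (κ2 * lam / 2)) * (κ1 * (lam * c.1.sz)) :=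
    mul_le_mul_of_nonneg_left h1 (by positivity)
  refine h2.trans (le_of_eq ?_)
  field_simp
  ring

/-- the exact map has values in the brick -/
theorem th_mem {w : E3} (hw : w ∈ P (T.H i)) : th A lam z w ∈ c.1.set := by
  have hlam := hE.lam0
  refine Bx.mem_set.2 fun k => ?_
  have := box_of hE hw k
  unfold th
  rw [le_div_iff₀ hlam, div_le_iff₀ hlam]
  constructor <;> linarith [this.1, this.2]

/-- the exact map on the boundary of the core has values on the walls -/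
theorem th_wall (hLa : IsOpen La) {w : E3} (hw : w ∈ P (T.H i)) (hwI : w ∉ I (T.H i)) :
    ∃ c' : Φ.F, c' ≠ c ∧ th A lam z w ∈ Pc Φ.F c' := by
  refine (wall_iff Φ hLa (th_mem hE hw)).2 fun h => ?_
  obtain ⟨k, hk⟩ := bd_coord hE hw hwI
  have h1 : c.1.lo k < th A lam z w k ∧ th A lam z w k < c.1.hi k := h k
  have hlam := hE.lam0
  unfold th at h1
  rw [lt_div_iff₀ hlam, div_lt_iff₀ hlam] at h1
  rcases hk with hk | hk <;> rw [hk] at h1
  · linarith [h1.1]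
  · linarith [h1.2]

/-- the pushed map on the boundary of the core has values on the walls -/
theorem Psi_wall (hLa : IsOpen La) (hκ1 : 0 ≤ κ1) (hκ2 : 0 < κ2) (hκ : 2 * κ0 * κ1 ≤ κ2) {w : E3}
    (hw : w ∈ P (T.H i)) (hwI : w ∉ I (T.H i)) :
    Φ.Psi (f w) ∈ Pc Φ.F c ∧ ∃ c' : Φ.F, c' ≠ c ∧ Φ.Psi (f w) ∈ Pc Φ.F c' := by
  have h1 := IsPush.bd (Φ.push c) ((mem_qb Φ).2 (fmem hE hw)) (f_not_hole hE hκ1 hκ2 hκ hw hwI)
  have e1 : Φ.Psi (f w) = Φ.pu c (f w) := Psi_eqD Φ hLa (fmem hE hw)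
  have h2 : Φ.Psi (f w) ∈ c.1.set := by rw [e1]; exact (mem_qb Φ).1 h1.1
  refine ⟨h2, (wall_iff Φ hLa h2).2 ?_⟩
  rw [e1]; exact h1.2

/-- **CLOSE (2)** -/
theorem close_lev (hLa : IsOpen La) (hδ : 0 < δ) (hR : 0 < R) (hκ1 : 0 ≤ κ1) (hκ2 : 0 < κ2)
    (hκ : 2 * κ0 * κ1 ≤ κ2) {w : E3} (hw : w ∈ P (T.H i)) (hwI : w ∉ I (T.H i)) (e : Φ.F) :
    |Φ.lev e (f w) - sb Φ (th A lam z w) e| ≤ Cs 3 δ R * (54 * κ0 / (c0 ^ 2 * κ2) * κ1) := by
  have hsz : 0 < c.1.sz := Bx.sz_pos (Φ.bf.pos _ c.2)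
  have h1 := lip_cell Φ.bf hLa hδ hR Φ.cmp c (Φ.Psi (f w)) (Psi_wall hE hLa hκ1 hκ2 hκ hw hwI).1
    (th A lam z w) (th_mem hE hw) e
  rw [Fintype.card_fin] at h1
  have hC := Cs_nonneg (n := 3) hδ hR
  refine h1.trans ?_
  have h2 := mul_le_mul_of_nonneg_left (close_th hE hLa hκ1 hκ2 hκ hw hwI)
    (div_nonneg hC hsz.le)
  refine h2.trans (le_of_eq ?_)
  field_simp

end exact

end Crest.Agent.R096.Hlf_847
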