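import Mathlib
import Crest.Agent.R096.Leaf2_965
import Crest.Agent.R096.Hlf1_847

/-! Row 96 (helper965), LEAF for exact cores, part 3: the theorem for `Mbf_337` with the closeness of
helper847. -/

set_option autoImplicit false
set_option linter.unusedSectionVars false
set_option linter.style.longLine false

open Set Topology Filter

namespace Crest.Agent.R096.Leaf_965

open Crest.Agent.R096.Brk1_582 Crest.Agent.R096.Brk2_582 Crest.Agent.R096.Brk3_582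
open Crest.Agent.R096.Brk5_582 Crest.Agent.R096.Bsp_628
open Crest.Agent.R096.Agl5_543 Crest.Agent.R096.Ginv_543 Crest.Agent.R096.Msh_715
open Crest.Agent.R096.Agl4_543 Crest.Agent.R096.Init_543 Crest.Agent.R096.Vb_965
open Crest.Agent.R096.SkC1_961 (E3 Hom3 IsPush FoamD Cfg th NN)
open Crest.Agent.R096.Mbf_337

variable {δ κ0 R c0 : ℝ} {La Om : Set E3} {ι : Type} {Φ : FoamD δ κ0 R c0 La}
  {T : Tiling Om ι} {f : E3 → E3}

/-- the constant of `hleaf` -/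
noncomputable def Chl (δ κ0 R c0 κ2 : ℝ) : ℝ := Cs 3 δ R * (54 * κ0 / (c0 ^ 2 * κ2))

/-- **hleaf, exact cores, in the format of `Mbf_337`**: `Chl * κ1 < s'`. -/
theorem hleaf_exact (hLa : IsOpen La) (hδ : 0 < δ) (hR : 0 < R) {κ1 κ2 s' : ℝ} (hκ1 : 0 ≤ κ1)
    (hκ2 : 0 < κ2) (h12 : 2 * κ0 * κ1 ≤ κ2) {X : Set Φ.F} {ct : Φ.F → ι}
    {A : Φ.F → E3 ≃ᵃ[ℝ] E3} {lam : Φ.F → ℝ} {z : Φ.F → E3} {M : Φ.F → ℕ} {L : Φ.F → Finset ℝ}
    {c : Φ.F} (hc : c ∈ X) (hE : Exact Φ T f κ1 κ2 c (ct c) (A c) (lam c) (z c))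
    (hW : Words Φ T f X ct A lam z M L) (hη : Chl δ κ0 R c0 κ2 * κ1 < s') {R' : E3 → E3}
    (hva : ∀ x ∈ Om, T.dim x ≤ 1 → ∀ e, va (Pc Φ.F) (bc (F := Φ.F)) R' f e x = Φ.lev e (f x))
    {J : Type} [Nonempty J] {fam : J → Φ.F} {t : J → ℝ} (htL : ∀ j, t j ∈ L (fam j))
    (h3 : Module.finrank ℝ E3 = 3)
    (h : GFam T (fun j => va (Pc Φ.F) (bc (F := Φ.F)) R' f (fam j)) t
      (shS Om (Pc Φ.F) (bc (F := Φ.F)) R' f fam t) fam) (j : J) (k : QK (Pc Φ.F))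
    (hk : fam j ∈ k.B) :
    h.Leaf h3 j (strip Om (Pc Φ.F) (bc (F := Φ.F)) R' f s' (fam j) (t j) k) (ct c) := by
  refine leaf_exact hLa hc hE hW (η := Chl δ κ0 R c0 κ2 * κ1) ?_ hη hva htL h3 h j k hk
  intro w hw hwI e
  have := Crest.Agent.R096.Hlf_847.close_lev hE hLa hδ hR hκ1 hκ2 h12 hw hwI e
  unfold Chl
  linarith

end Crest.Agent.R096.Leaf_965
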