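import Crest.Agent.R096.Agl5_543

/-!
# Row 96 (helper441): interlacing on the boundary of a 2-cell is a topological notion

`lac p q r s`  : the pairs `{p,q}` and `{r,s}` of real numbers interlace.
`Cut B u v x y` : `x` and `y` lie in one connected subset of `B \ {u, v}`.

* `lac_iff`    : on a loop `g : [a0, a1] → B`, `lac p q r s ↔ ¬ Cut B (g p) (g q) (g r) (g s)`;
* `lace_iff`   : `(meshC T h3).Lace F u v x y ↔ ¬ Cut F.bd u v x y` (points of `F.bd`);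
* `lace_homeo` : a homeomorphism `F.bd → F'.bd` preserves `Lace`;
* `lace_loop`  : `Lace` in terms of any parametrisation of `F.bd` by a loop.
-/

set_option autoImplicit false

open Set

namespace Crest.Agent.R096.Lac_441

open Crest.Agent.R096.Agl5_543 Crest.Agent.R096.Agl1_543 Crest.Agent.R096.Agl2_543
  Crest.Agent.R096.Agl3_543 Crest.Agent.R096.Pat5_543 Crest.Agent.R096.St_147
  Crest.Agent.R096.Msh_715

/-- the pairs `{p,q}` and `{r,s}` of real numbers interlace -/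
def lac (p q r s : ℝ) : Prop :=
  ¬ (((p < r ∧ r < q) ∨ (q < r ∧ r < p)) ↔ ((p < s ∧ s < q) ∨ (q < s ∧ s < p)))

theorem lac_swap {p q r s : ℝ} : lac p q r s ↔ lac q p r s := by
  unfold lac
  rw [or_comm (a := p < r ∧ r < q), or_comm (a := p < s ∧ s < q)]

theorem lac_swap' {p q r s : ℝ} : lac p q r s ↔ lac p q s r := by
  unfold lac
  exact not_congr ⟨Iff.symm, Iff.symm⟩

/-- strictly monotone changes of the parameter -/
theorem lac_congr {p q r s p' q' r' s' : ℝ} (h1 : p < r ↔ p' < r') (h2 : r < q ↔ r' < q')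
    (h3 : q < r ↔ q' < r') (h4 : r < p ↔ r' < p') (h5 : p < s ↔ p' < s') (h6 : s < q ↔ s' < q')
    (h7 : q < s ↔ q' < s') (h8 : s < p ↔ s' < p') : lac p q r s ↔ lac p' q' r' s' := by
  unfold lac
  rw [h1, h2, h3, h4, h5, h6, h7, h8]

variable {X Y : Type} [TopologicalSpace X] [TopologicalSpace Y]

/-- `x` and `y` are connected in `B` minus `u, v` -/
def Cut (B : Set X) (u v x y : X) : Prop :=
  ∃ K : Set X, IsPreconnected K ∧ K ⊆ B ∧ u ∉ K ∧ v ∉ K ∧ x ∈ K ∧ y ∈ K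

theorem Cut.swap {B : Set X} {u v x y : X} (h : Cut B u v x y) : Cut B v u x y := by
  obtain ⟨K, h2, h3, h4, h5, h6, h7⟩ := h
  exact ⟨K, h2, h3, h5, h4, h6, h7⟩

theorem Cut.swap' {B : Set X} {u v x y : X} (h : Cut B u v x y) : Cut B u v y x := by
  obtain ⟨K, h2, h3, h4, h5, h6, h7⟩ := h
  exact ⟨K, h2, h3, h4, h5, h7, h6⟩

section loop

variable {a0 a1 : ℝ} {g : ℝ → X} {B : Set X}

/-- interlaced: not connected -/
theorem not_cut_of_lac [T2Space X] (hg : ContinuousOn g (Icc a0 a1)) (hi : InjOn g (Ioc a0 a1))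
    (he : g a0 = g a1) (hB : B ⊆ g '' Icc a0 a1) {p q r s : ℝ} (hp : p ∈ Ioc a0 a1)
    (hq : q ∈ Ioc a0 a1) (hr : r ∈ Ioc a0 a1) (hs : s ∈ Ioc a0 a1) (hl : lac p q r s)
    (hps : p ≠ s) (hqs : q ≠ s) (hpr : p ≠ r) (hqr : q ≠ r) :
    ¬ Cut B (g p) (g q) (g r) (g s) := by
  have main : ∀ p q r s : ℝ, p ∈ Ioc a0 a1 → q ∈ Ioc a0 a1 → r ∈ Ioc a0 a1 → s ∈ Ioc a0 a1 →
      p < r → r < q → (s < p ∨ q < s) → ¬ Cut B (g p) (g q) (g r) (g s) := by
    clear hp hq hr hs hl hps hqs hpr hqr p q r s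
    intro p q r s hp hq hr hs h1 h2 h3 hcut
    obtain ⟨K, hKc, hKB, huK, hvK, hxK, hyK⟩ := hcut
    have hA : IsCompact (g '' Icc p q) :=
      isCompact_Icc.image_of_continuousOn (hg.mono (Icc_subset_Icc hp.1.le hq.2))
    have hB1 : IsCompact (g '' Icc a0 p) :=
      isCompact_Icc.image_of_continuousOn (hg.mono (Icc_subset_Icc le_rfl hp.2))
    have hB2 : IsCompact (g '' Icc q a1) :=
      isCompact_Icc.image_of_continuousOn (hg.mono (Icc_subset_Icc hq.1.le le_rfl))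
    have hcov : K ⊆ g '' Icc p q ∪ (g '' Icc a0 p ∪ g '' Icc q a1) := by
      intro z hz
      obtain ⟨t, ht, rfl⟩ := hB (hKB hz)
      rcases le_total t p with h | h
      · exact Or.inr (Or.inl ⟨t, ⟨ht.1, h⟩, rfl⟩)
      · rcases le_total t q with h' | h'
        · exact Or.inl ⟨t, ⟨h, h'⟩, rfl⟩
        · exact Or.inr (Or.inr ⟨t, ⟨h', ht.2⟩, rfl⟩)
    obtain ⟨z, hzK, hzA, hzB⟩ := isPreconnected_closed_iff.1 hKc _ _ hA.isClosed
      (hB1.union hB2).isClosed hcov ⟨g r, hxK, r, ⟨h1.le, h2.le⟩, rfl⟩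
      (by
        rcases h3 with h3 | h3
        · exact ⟨g s, hyK, Or.inl ⟨s, ⟨hs.1.le, h3.le⟩, rfl⟩⟩
        · exact ⟨g s, hyK, Or.inr ⟨s, ⟨h3.le, hs.2⟩, rfl⟩⟩)
    obtain ⟨t, ht, rfl⟩ := hzA
    have htI : t ∈ Ioc a0 a1 := ⟨hp.1.trans_le ht.1, ht.2.trans hq.2⟩
    rcases hzB with ⟨t', ht', e⟩ | ⟨t', ht', e⟩
    · rcases eq_or_lt_of_le ht'.1 with h | h
      · -- `t' = a0`, hence `g t = g a1`, `t = a1 = q`
        rw [← h, he] at e
        have h5 : a1 = t := hi ⟨hp.1.trans_le hp.2, le_rfl⟩ htI e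
        have h6 : t = q := le_antisymm ht.2 (h5 ▸ hq.2)
        exact hvK (h6 ▸ hzK)
      · have h5 : t' = t := hi ⟨h, ht'.2.trans hp.2⟩ htI e
        have h6 : t = p := le_antisymm (h5 ▸ ht'.2) ht.1
        exact huK (h6 ▸ hzK)
    · have h5 : t' = t := hi ⟨hq.1.trans_le ht'.1, ht'.2⟩ htI e
      have h6 : t = q := le_antisymm ht.2 (h5 ▸ ht'.1)
      exact hvK (h6 ▸ hzK)
  -- reduction to the main case
  have side : ∀ r s : ℝ, r ∈ Ioc a0 a1 → s ∈ Ioc a0 a1 → p ≠ s → q ≠ s →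
      ((p < r ∧ r < q) ∨ (q < r ∧ r < p)) → ¬ ((p < s ∧ s < q) ∨ (q < s ∧ s < p)) →
      ¬ Cut B (g p) (g q) (g r) (g s) := by
    intro r s hr hs hps hqs hb hn
    rcases hb with ⟨h1, h2⟩ | ⟨h1, h2⟩
    · refine main p q r s hp hq hr hs h1 h2 ?_
      by_contra h
      push Not at h
      exact hn (Or.inl ⟨lt_of_le_of_ne h.1 hps, lt_of_le_of_ne h.2 hqs.symm⟩)
    · intro hc
      refine main q p r s hq hp hr hs h1 h2 ?_ hc.swap
      by_contra h
      push Not at h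
      exact hn (Or.inr ⟨lt_of_le_of_ne h.1 hqs, lt_of_le_of_ne h.2 hps.symm⟩)
  by_cases hb : (p < r ∧ r < q) ∨ (q < r ∧ r < p)
  · exact side r s hr hs hps hqs hb fun h => hl ⟨fun _ => h, fun _ => hb⟩
  · intro hc
    refine side s r hs hr hpr hqr ?_ hb hc.swap'
    by_contra h
    exact hl ⟨fun h' => absurd h' hb, fun h' => absurd h' h⟩

/-- not interlaced: connected -/
theorem cut_of_not_lac (hg : ContinuousOn g (Icc a0 a1)) (hi : InjOn g (Ioc a0 a1))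
    (he : g a0 = g a1) (hB : g '' Icc a0 a1 ⊆ B) {p q r s : ℝ} (hp : p ∈ Ioc a0 a1)
    (hq : q ∈ Ioc a0 a1) (hr : r ∈ Ioc a0 a1) (hs : s ∈ Ioc a0 a1) (hl : ¬ lac p q r s)
    (hps : p ≠ s) (hqs : q ≠ s) (hpr : p ≠ r) (hqr : q ≠ r) :
    Cut B (g p) (g q) (g r) (g s) := by
  -- an interval without `p` and `q`
  have one : ∀ r s : ℝ, r ∈ Ioc a0 a1 → s ∈ Ioc a0 a1 → r ≤ s → p ∉ Icc r s → q ∉ Icc r s →
      Cut B (g p) (g q) (g r) (g s) := by
    intro r s hr hs hrs h1 h2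
    have hsub : Icc r s ⊆ Ioc a0 a1 := fun z hz => ⟨hr.1.trans_le hz.1, hz.2.trans hs.2⟩
    have hsub' : Icc r s ⊆ Icc a0 a1 := hsub.trans Ioc_subset_Icc_self
    refine ⟨g '' Icc r s, isPreconnected_Icc.image g (hg.mono hsub'), (image_mono hsub').trans hB, ?_, ?_,
      ⟨r, ⟨le_rfl, hrs⟩, rfl⟩, ⟨s, ⟨hrs, le_rfl⟩, rfl⟩⟩
    · rintro ⟨z, hz, e⟩
      exact h1 (hi (hsub hz) hp e ▸ hz)
    · rintro ⟨z, hz, e⟩
      exact h2 (hi (hsub hz) hq e ▸ hz)
  -- two intervals around the base point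
  have two : ∀ r s : ℝ, r ∈ Ioc a0 a1 → s ∈ Ioc a0 a1 → r < p → r < q → p < s → q < s →
      Cut B (g p) (g q) (g r) (g s) := by
    intro r s hr hs h1 h2 h3 h4
    have hs1 : Icc a0 r ⊆ Icc a0 a1 := Icc_subset_Icc le_rfl hr.2
    have hs2 : Icc s a1 ⊆ Icc a0 a1 := Icc_subset_Icc hs.1.le le_rfl
    have hnot : ∀ z, z ∈ Ioc a0 a1 → r < z → z < s → g z ∉ g '' Icc a0 r ∪ g '' Icc s a1 := by
      rintro z hz h5 h6 (⟨t, ht, e⟩ | ⟨t, ht, e⟩)
      · rcases eq_or_lt_of_le ht.1 with h | h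
        · rw [← h, he] at e
          have h7 : a1 = z := hi ⟨hz.1.trans_le hz.2, le_rfl⟩ hz e
          rw [← h7] at h6
          exact absurd hs.2 (not_le.2 h6)
        · have h7 : t = z := hi ⟨h, ht.2.trans hr.2⟩ hz e
          rw [← h7] at h5
          exact absurd ht.2 (not_le.2 h5)
      · have h7 : t = z := hi ⟨hs.1.trans_le ht.1, ht.2⟩ hz e
        rw [← h7] at h6
        exact absurd ht.1 (not_le.2 h6)
    refine ⟨g '' Icc a0 r ∪ g '' Icc s a1, ?_, ?_, hnot p hp h1 h3,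
      hnot q hq h2 h4, Or.inl ⟨r, ⟨hr.1.le, le_rfl⟩, rfl⟩, Or.inr ⟨s, ⟨le_rfl, hs.2⟩, rfl⟩⟩
    · refine IsPreconnected.union (g a0) ⟨a0, ⟨le_rfl, hr.1.le⟩, rfl⟩ ?_
        (isPreconnected_Icc.image g (hg.mono hs1)) (isPreconnected_Icc.image g (hg.mono hs2))
      rw [he]
      exact ⟨a1, ⟨hs.2, le_rfl⟩, rfl⟩
    · exact union_subset ((image_mono hs1).trans hB) ((image_mono hs2).trans hB)
  have hl' : (((p < r ∧ r < q) ∨ (q < r ∧ r < p)) ↔ ((p < s ∧ s < q) ∨ (q < s ∧ s < p))) := by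
    by_contra h
    exact hl h
  have main : ∀ r s : ℝ, r ∈ Ioc a0 a1 → s ∈ Ioc a0 a1 → r ≤ s → p ≠ s → q ≠ s → p ≠ r →
      q ≠ r → (((p < r ∧ r < q) ∨ (q < r ∧ r < p)) ↔ ((p < s ∧ s < q) ∨ (q < s ∧ s < p))) →
      Cut B (g p) (g q) (g r) (g s) := by
    intro r s hr hs hrs hps hqs hpr hqr hl
    by_cases h1 : p ∈ Icc r s
    · have h1a : r < p := lt_of_le_of_ne h1.1 (Ne.symm hpr)
      have h1b : p < s := lt_of_le_of_ne h1.2 hps
      have h2 : r < q ∧ q < s := by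
        rcases lt_or_gt_of_ne hqr with h | h
        · -- `q < r < p < s`: `r` between, `s` not
          exfalso
          rcases hl.1 (Or.inr ⟨h, h1a⟩) with h' | h'
          · exact absurd (h'.2.trans (h.trans h1a)) (not_lt.2 h1b.le)
          · exact absurd h'.2 (not_lt.2 h1b.le)
        · refine ⟨h, ?_⟩
          rcases lt_or_gt_of_ne hqs with h' | h'
          · exact h'
          · exfalso
            rcases hl.2 (Or.inl ⟨h1b, h'⟩) with h'' | h''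
            · exact absurd h''.1 (not_lt.2 h1a.le)
            · exact absurd h''.1 (not_lt.2 h.le)
      exact two r s hr hs h1a h2.1 h1b h2.2
    · by_cases h2 : q ∈ Icc r s
      · exfalso
        have h2a : r < q := lt_of_le_of_ne h2.1 (Ne.symm hqr)
        have h2b : q < s := lt_of_le_of_ne h2.2 hqs
        rcases lt_or_gt_of_ne hpr with h | h
        · rcases hl.1 (Or.inl ⟨h, h2a⟩) with h' | h'
          · exact absurd h'.2 (not_lt.2 h2b.le)
          · exact absurd (h'.2.trans (h.trans h2a)) (not_lt.2 h2b.le)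
        · rcases lt_or_gt_of_ne hps with h' | h'
          · exact h1 ⟨h.le, h'.le⟩
          · rcases hl.2 (Or.inr ⟨h2b, h'⟩) with h'' | h''
            · exact absurd h''.1 (not_lt.2 h.le)
            · exact absurd h''.1 (not_lt.2 h2a.le)
      · exact one r s hr hs hrs h1 h2
  rcases le_total r s with h | h
  · exact main r s hr hs h hps hqs hpr hqr hl'
  · exact (main s r hs hr h hpr hqr hps hqs hl'.symm).swap'

theorem lac_iff [T2Space X] (hg : ContinuousOn g (Icc a0 a1)) (hi : InjOn g (Ioc a0 a1))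
    (he : g a0 = g a1) (hB : g '' Icc a0 a1 = B) {p q r s : ℝ} (hp : p ∈ Ioc a0 a1)
    (hq : q ∈ Ioc a0 a1) (hr : r ∈ Ioc a0 a1) (hs : s ∈ Ioc a0 a1)
    (hps : p ≠ s) (hqs : q ≠ s) (hpr : p ≠ r) (hqr : q ≠ r) :
    lac p q r s ↔ ¬ Cut B (g p) (g q) (g r) (g s) :=
  ⟨fun h => not_cut_of_lac hg hi he hB.ge hp hq hr hs h hps hqs hpr hqr, fun h => by
    by_contra hl
    exact h (cut_of_not_lac hg hi he hB.le hp hq hr hs hl hps hqs hpr hqr)⟩

end loop

/-- homeomorphisms preserve `Cut` -/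
theorem cut_homeo [T2Space Y] {B : Set X} {B' : Set Y} {h : X → Y}
    (hB : IsCompact B) (hc : ContinuousOn h B) (hi : InjOn h B) (him : h '' B = B')
    {u v x y : X} (hu : u ∈ B) (hv : v ∈ B) (hx : x ∈ B) (hy : y ∈ B) :
    Cut B' (h u) (h v) (h x) (h y) ↔ Cut B u v x y := by
  constructor
  · rintro ⟨K, hKc, hKB, h1, h2, h3, h4⟩
    let f : B → Y := B.domRestrict h
    have : CompactSpace B := isCompact_iff_compactSpace.1 hB
    have hf : Continuous f := continuousOn_iff_continuous_domRestrict.1 hc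
    have hfi : Function.Injective f := fun a b e => Subtype.ext (hi a.2 b.2 e)
    have hrange : K ⊆ range f := by
      intro z hz
      rw [← him] at hKB
      obtain ⟨w, hw, rfl⟩ := hKB hz
      exact ⟨⟨w, hw⟩, rfl⟩
    have hpre : IsPreconnected (f ⁻¹' K) :=
      hKc.preimage_of_isClosedMap hfi hf.isClosedMap hrange
    refine ⟨Subtype.val '' (f ⁻¹' K), hpre.image _ continuous_subtype_val.continuousOn, ?_, ?_, ?_, ⟨⟨x, hx⟩, h3, rfl⟩,
      ⟨⟨y, hy⟩, h4, rfl⟩⟩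
    · rintro _ ⟨w, _, rfl⟩
      exact w.2
    · rintro ⟨w, hw, rfl⟩
      exact h1 hw
    · rintro ⟨w, hw, rfl⟩
      exact h2 hw
  · rintro ⟨K, hKc, hKB, h1, h2, h3, h4⟩
    refine ⟨h '' K, hKc.image h (hc.mono hKB),
      (image_mono hKB).trans him.le, ?_, ?_, ⟨x, h3, rfl⟩, ⟨y, h4, rfl⟩⟩
    · rintro ⟨w, hw, e⟩
      exact h1 (hi (hKB hw) hu e ▸ hw)
    · rintro ⟨w, hw, e⟩
      exact h2 (hi (hKB hw) hv e ▸ hw)

section cell

variable {E E' : Type} [NormedAddCommGroup E] [NormedSpace ℝ E] [FiniteDimensional ℝ E]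
  [NormedAddCommGroup E'] [NormedSpace ℝ E'] [FiniteDimensional ℝ E']
variable {Om : Set E} {Om' : Set E'} {ι ι' : Type} {T : Tiling Om ι} {T' : Tiling Om' ι'}

/-- the loop around a 2-cell -/
noncomputable def lp (F : C2 T) (θ : ℝ) : E := F.par (Complex.exp ((θ : ℝ) * Complex.I))

theorem lp_cont (F : C2 T) : Continuous (lp F) := by
  have h1 : Continuous fun θ : ℝ => Complex.exp ((θ : ℝ) * Complex.I) := by fun_prop
  have h2 : ∀ θ : ℝ, Complex.exp ((θ : ℝ) * Complex.I) ∈ Metric.closedBall (0 : ℂ) 1 := by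
    intro θ
    rw [mem_closedBall_zero_iff, Complex.norm_exp_ofReal_mul_I]
  exact F.isDisc.cont.comp_continuous h1 h2

theorem lp_mem (F : C2 T) (θ : ℝ) : lp F θ ∈ F.bd := by
  rw [← F.isDisc.bd]
  refine ⟨_, ?_, rfl⟩
  rw [mem_sphere_zero_iff_norm, Complex.norm_exp_ofReal_mul_I]

theorem lp_pos (F : C2 T) {w : E} (hw : w ∈ F.bd) : lp F (F.pos w) = w := by
  unfold lp
  rw [F.exp_pos hw]
  exact (F.inv_mem (F.bd_sub hw)).2

theorem pos_lp (F : C2 T) {θ : ℝ} (hθ : θ ∈ Ioc (-Real.pi) Real.pi) : F.pos (lp F θ) = θ := by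
  unfold lp C2.pos
  rw [F.inv_par, Complex.arg_exp_mul_I, toIocMod_eq_self]
  · have : -Real.pi + 2 * Real.pi = Real.pi := by ring
    rw [this]
    exact hθ
  · rw [mem_closedBall_zero_iff, Complex.norm_exp_ofReal_mul_I]

theorem lp_injOn (F : C2 T) : InjOn (lp F) (Ioc (-Real.pi) Real.pi) := by
  intro a ha b hb e
  rw [← pos_lp F ha, ← pos_lp F hb, e]

theorem lp_ends (F : C2 T) : lp F (-Real.pi) = lp F Real.pi := by
  unfold lp
  congr 1
  rw [Complex.ofReal_neg, neg_mul, Complex.exp_neg, Complex.exp_pi_mul_I]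
  norm_num

theorem lp_image (F : C2 T) : lp F '' Icc (-Real.pi) Real.pi = F.bd := by
  apply Subset.antisymm
  · rintro _ ⟨θ, _, rfl⟩
    exact lp_mem F θ
  · intro w hw
    exact ⟨F.pos w, ⟨(F.neg_pi_lt_pos w).le, F.pos_le_pi w⟩, lp_pos F hw⟩

theorem bd_compact (F : C2 T) : IsCompact F.bd := by
  rw [← lp_image F]
  exact isCompact_Icc.image (lp_cont F)

/-- **`Lace` is topological** -/
theorem lace_iff (h3 : Module.finrank ℝ E = 3) (F : C2 T) {u v x y : E} (hu : u ∈ F.bd)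
    (hv : v ∈ F.bd) (hx : x ∈ F.bd) (hy : y ∈ F.bd) (hux : u ≠ x) (huy : u ≠ y) (hvx : v ≠ x)
    (hvy : v ≠ y) : (meshC T h3).Lace F u v x y ↔ ¬ Cut F.bd u v x y := by
  have hm : ∀ w, F.pos w ∈ Ioc (-Real.pi) Real.pi := fun w => ⟨F.neg_pi_lt_pos w, F.pos_le_pi w⟩
  have hne : ∀ {a b : E}, a ∈ F.bd → b ∈ F.bd → a ≠ b → F.pos a ≠ F.pos b :=
    fun ha hb h e => h (F.pos_injOn ha hb e)
  have h := lac_iff (B := F.bd) (lp_cont F).continuousOn (lp_injOn F) (lp_ends F) (lp_image F)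
    (hm u) (hm v) (hm x) (hm y) (hne hu hy huy) (hne hv hy hvy) (hne hu hx hux) (hne hv hx hvx)
  rw [lp_pos F hu, lp_pos F hv, lp_pos F hx, lp_pos F hy] at h
  exact h

/-- **homeomorphisms of the boundaries preserve `Lace`** -/
theorem lace_homeo (h3 : Module.finrank ℝ E = 3) (h3' : Module.finrank ℝ E' = 3) (F : C2 T)
    (F' : C2 T') {h : E → E'} (hc : ContinuousOn h F.bd) (hi : InjOn h F.bd)
    (him : h '' F.bd = F'.bd) {u v x y : E} (hu : u ∈ F.bd)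
    (hv : v ∈ F.bd) (hx : x ∈ F.bd) (hy : y ∈ F.bd) (hux : u ≠ x) (huy : u ≠ y) (hvx : v ≠ x)
    (hvy : v ≠ y) :
    (meshC T' h3').Lace F' (h u) (h v) (h x) (h y) ↔ (meshC T h3).Lace F u v x y := by
  have hm : ∀ {w : E}, w ∈ F.bd → h w ∈ F'.bd := fun hw => him ▸ mem_image_of_mem h hw
  have hne : ∀ {a b : E}, a ∈ F.bd → b ∈ F.bd → a ≠ b → h a ≠ h b :=
    fun ha hb n e => n (hi ha hb e)
  rw [lace_iff h3' F' (hm hu) (hm hv) (hm hx) (hm hy) (hne hu hx hux) (hne hu hy huy)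
    (hne hv hx hvx) (hne hv hy hvy), lace_iff h3 F hu hv hx hy hux huy hvx hvy,
    cut_homeo (bd_compact F) hc hi him hu hv hx hy]

/-- **`Lace` in terms of any loop around the 2-cell** -/
theorem lace_loop (h3 : Module.finrank ℝ E = 3) (F : C2 T) {a0 a1 : ℝ} {g : ℝ → E}
    (hg : ContinuousOn g (Icc a0 a1)) (hi : InjOn g (Ioc a0 a1)) (he : g a0 = g a1)
    (hB : g '' Icc a0 a1 = F.bd) {p q r s : ℝ} (hp : p ∈ Ioc a0 a1)
    (hq : q ∈ Ioc a0 a1) (hr : r ∈ Ioc a0 a1) (hs : s ∈ Ioc a0 a1)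
    (hps : p ≠ s) (hqs : q ≠ s) (hpr : p ≠ r) (hqr : q ≠ r) :
    (meshC T h3).Lace F (g p) (g q) (g r) (g s) ↔ lac p q r s := by
  have hm : ∀ {w : ℝ}, w ∈ Ioc a0 a1 → g w ∈ F.bd :=
    fun hw => hB ▸ mem_image_of_mem g (Ioc_subset_Icc_self hw)
  have hne : ∀ {a b : ℝ}, a ∈ Ioc a0 a1 → b ∈ Ioc a0 a1 → a ≠ b → g a ≠ g b :=
    fun ha hb n e => n (hi ha hb e)
  rw [lac_iff hg hi he hB hp hq hr hs hps hqs hpr hqr]
  exact lace_iff h3 F (hm hp) (hm hq) (hm hr) (hm hs) (hne hp hr hpr) (hne hp hs hps)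
    (hne hq hr hqr) (hne hq hs hqs)

theorem lac_neg {p q r s : ℝ} : lac (-p) (-q) (-r) (-s) ↔ lac p q r s := by
  unfold lac
  simp only [neg_lt_neg_iff]
  rw [and_comm (a := r < p), and_comm (a := r < q), and_comm (a := s < p), and_comm (a := s < q),
    or_comm (a := q < r ∧ r < p), or_comm (a := q < s ∧ s < p)]

/-- the same with `[α, β)` (form of 184) -/
theorem lace_param (h3 : Module.finrank ℝ E = 3) (F : C2 T) {α β : ℝ} {γ : ℝ → E}
    (hg : ContinuousOn γ (Icc α β)) (he : γ α = γ β) (hi : InjOn γ (Ico α β))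
    (hB : γ '' Icc α β = F.bd) {a b c d : ℝ} (ha : a ∈ Ico α β)
    (hb : b ∈ Ico α β) (hc : c ∈ Ico α β) (hd : d ∈ Ico α β)
    (hac : a ≠ c) (had : a ≠ d) (hbc : b ≠ c) (hbd : b ≠ d) :
    (meshC T h3).Lace F (γ a) (γ b) (γ c) (γ d) ↔
      ¬ (((a < c ∧ c < b) ∨ (b < c ∧ c < a)) ↔ ((a < d ∧ d < b) ∨ (b < d ∧ d < a))) := by
  have hI : ∀ {x : ℝ}, x ∈ Icc (-β) (-α) → -x ∈ Icc α β := fun h => ⟨by linarith [h.2],
    by linarith [h.1]⟩
  have hm : ∀ {x : ℝ}, x ∈ Ico α β → -x ∈ Ioc (-β) (-α) := fun h => ⟨by linarith [h.2],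
    by linarith [h.1]⟩
  have h := lace_loop h3 F (a0 := -β) (a1 := -α) (g := fun t => γ (-t))
    (hg.comp continuous_neg.continuousOn fun x hx => hI hx)
    (by
      intro x hx y hy e
      have := hi (x₁ := -x) (x₂ := -y) ⟨by linarith [hx.2], by linarith [hx.1]⟩
        ⟨by linarith [hy.2], by linarith [hy.1]⟩ e
      linarith)
    (by simp only [neg_neg]; exact he.symm)
    (by
      rw [← hB]
      apply Subset.antisymm
      · rintro _ ⟨x, hx, rfl⟩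
        exact ⟨-x, hI hx, rfl⟩
      · rintro _ ⟨x, hx, rfl⟩
        exact ⟨-x, ⟨by linarith [hx.2], by linarith [hx.1]⟩, by simp only [neg_neg]⟩)
    (hm ha) (hm hb) (hm hc) (hm hd) (fun e => had (neg_injective e))
    (fun e => hbd (neg_injective e)) (fun e => hac (neg_injective e))
    (fun e => hbc (neg_injective e))
  simp only [neg_neg] at h
  rw [h, lac_neg]
  rfl

end cell

end Crest.Agent.R096.Lac_441
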