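import Mathlib
import Crest.Agent.R096.Ecm4_446
import Crest.Agent.R096.SkB1d_662
import Crest.Agent.R096.Lac1_441

/-! Row 96 (helper847), TYPE R (exact core tiles), part 1: **(E1)** for any state which has all the
points of the exact words on the faces of a grid tile. -/

set_option autoImplicit false
set_option linter.unusedSectionVars false
set_option linter.style.longLine false

open Set Topology Filter

namespace Crest.Agent.R096.Rone_847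

open Crest.Agent.R096.Msh_715 Crest.Agent.R096.St_147 Crest.Agent.R096.Seq_213
  Crest.Agent.R096.Ecm_446 Crest.Agent.R096.SkB_662

section abstr

variable {E : Type} [NormedAddCommGroup E] [NormedSpace ℝ E] [FiniteDimensional ℝ E]
variable {Om : Set E} {ι ι' Φ J C : Type}

/-- the faces `D` of the mesh `M` are the 2-cells of the tile `i₀` -/
structure FD (M : MeshC ι' Φ E) (T : Tiling Om ι) (i₀ : ι) (D : Set Φ) (ct : Φ → E) : Prop where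
  mem : ∀ F ∈ D, ct F ∈ P (T.H i₀) ∧ T.dim (ct F) = 2
  on : ∀ F ∈ D, ∀ w, w ∈ M.On F ↔ w ∈ T.cc (ct F) ∧ T.dim w = 1
  sur : ∀ x ∈ P (T.H i₀), T.dim x = 2 → ∃ F ∈ D, T.cc (ct F) = T.cc x
  inj : ∀ F ∈ D, ∀ F' ∈ D, T.cc (ct F) = T.cc (ct F') → F = F'
  lace : ∀ F ∈ D, ∀ u v x y, u ∈ M.On F → v ∈ M.On F → x ∈ M.On F → y ∈ M.On F → u ≠ x →
    u ≠ y → v ≠ x → v ≠ y → ¬ M.Lace F u v x y → ∃ K : Set E, IsPreconnected K ∧
      (∀ z ∈ K, z ∈ T.cc (ct F) ∧ T.dim z ≤ 1) ∧ u ∉ K ∧ v ∉ K ∧ x ∈ K ∧ y ∈ K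

/-- **crossing words** and the continuous heights, on the boundary of the tile `i₀` -/
structure WX (T : Tiling Om ι) (i₀ : ι) (U : E → C → ℝ) (fam : J → C) (τ : J → ℝ)
    (X : J → Set E) : Prop where
  vert : ∀ v ∈ P (T.H i₀), T.dim v = 0 → ∀ j, v ∉ X j
  cross : ∀ x ∈ P (T.H i₀), T.dim x = 1 → ∀ j, (∃ y ∈ T.cc x, y ∈ X j) ↔
    (⌊U x (fam j)⌋₊ : ℝ) < τ j ∧ τ j < ⌈U x (fam j)⌉₊
  cont : ∀ a, ContinuousOn (fun x => U x a) (P (T.H i₀))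
  mix : ∀ x ∈ P (T.H i₀), T.dim x ≤ 2 → ∀ a, ∃ y ∈ P (T.H i₀), U y a = U x a ∧
    ∀ b, b ≠ a → U y b = ⌊U x b⌋₊

variable {T : Tiling Om ι} {M : MeshC ι' Φ E} {i₀ : ι} {D : Set Φ} {ct : Φ → E}
  {U : E → C → ℝ} {fam : J → C} {τ : J → ℝ} {X V : J → Set E}

/-- the points of the sheet `j` on the 1-cells of the tile -/
def Jp (T : Tiling Om ι) (i₀ : ι) (X : J → Set E) (j : J) (v : E) : Prop :=
  v ∈ P (T.H i₀) ∧ T.dim v = 1 ∧ v ∈ X j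

theorem cc_sub_tile (hG : CG T i₀ U) {x y : E} (hx : x ∈ P (T.H i₀)) (hd : T.dim x ≤ 2)
    (hy : y ∈ T.cc x) : y ∈ P (T.H i₀) := (hG.sub hx hd hy).1

/-- a cell which is active at the level has a point of the sheet -/
theorem exists_jp (hG : CG T i₀ U) (hW : WX T i₀ U fam τ X) {x : E} (hx : x ∈ P (T.H i₀))
    (hd : T.dim x ≤ 2) {j : J} (h1 : (⌊U x (fam j)⌋₊ : ℝ) < τ j)
    (h2 : τ j < ⌈U x (fam j)⌉₊) : ∃ v ∈ T.cc x, Jp T i₀ X j v ∧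
      (∀ b, b ≠ fam j → U v b = ⌊U x b⌋₊) := by
  obtain ⟨y, hy, ha, hb⟩ := hW.mix x hx hd (fam j)
  have hyx : y ∈ T.cc x := by
    rw [hG.cell x hx hd]
    refine ⟨hy, fun b => ?_⟩
    by_cases hbj : b = fam j
    · subst hbj
      rw [ha]
      exact ⟨Nat.floor_le (hG.nn x hx _), Nat.le_ceil _⟩
    · rw [hb b hbj]
      exact ⟨le_rfl, by exact_mod_cast Nat.floor_le_ceil _⟩
  have hyd : T.dim y ≤ 2 := (T.dim_le hyx).trans hd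
  have hact : {b | ⌊U y b⌋₊ < ⌈U y b⌉₊} = {fam j} := by
    ext b
    simp only [mem_ofPred_eq, mem_singleton_iff]
    constructor
    · intro h
      by_contra hbj
      rw [hb b hbj, Nat.floor_natCast, Nat.ceil_natCast] at h
      exact lt_irrefl _ h
    · rintro rfl
      rw [ha]
      have : (⌊U x (fam j)⌋₊ : ℝ) < ⌈U x (fam j)⌉₊ := h1.trans h2
      exact_mod_cast this
  have hy1 : T.dim y = 1 := by
    rw [hG.dim y hy hyd, hact, ncard_singleton]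
  obtain ⟨v, hv, hvX⟩ := (hW.cross y hy hy1 j).2 (by rw [ha]; exact ⟨h1, h2⟩)
  have hvx : v ∈ T.cc x := T.cc_sub_of_mem hyx hv
  obtain ⟨hvP, hvd, hvc⟩ := hG.sub hy hyd hv
  have hv1 : T.dim v = 1 := by
    have h3 := T.dim_le hv
    have h4 : T.dim v ≠ 0 := fun h0 => hW.vert v hvP h0 j hvX
    omega
  refine ⟨v, hvx, ⟨hvP, hv1, hvX⟩, fun b hbj => ?_⟩
  have h5 := hvc b
  rw [hb b hbj, Nat.floor_natCast, Nat.ceil_natCast] at h5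
  exact le_antisymm h5.2 h5.1

/-- at a point of the sheet the direction is the family, between two integers around `τ` -/
theorem jp_act (hG : CG T i₀ U) (hC : CW T i₀ U fam τ X V) (hW : WX T i₀ U fam τ X) {v : E}
    {j : J} (hv : Jp T i₀ X j v) : {b | ⌊U v b⌋₊ < ⌈U v b⌉₊} = {fam j} ∧
      (⌊U v (fam j)⌋₊ : ℝ) < τ j ∧ τ j < ⌈U v (fam j)⌉₊ ∧ ⌊U v (fam j)⌋₊ = ⌊τ j⌋₊ ∧
      ⌈U v (fam j)⌉₊ = ⌊τ j⌋₊ + 1 := by
  have h1 := CW.free hG hC hv.1 hv.2.1 hv.2.2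
  obtain ⟨h2, h3⟩ := (hW.cross v hv.1 hv.2.1 j).1 ⟨v, T.self_mem_cc v, hv.2.2⟩
  have h4 : ⌈U v (fam j)⌉₊ ≤ ⌊U v (fam j)⌋₊ + 1 := Nat.ceil_le_floor_add_one _
  have h4' : (⌈U v (fam j)⌉₊ : ℝ) ≤ ⌊U v (fam j)⌋₊ + 1 := by exact_mod_cast h4
  have h5 : ⌊τ j⌋₊ = ⌊U v (fam j)⌋₊ := by
    rw [Nat.floor_eq_iff ((Nat.cast_nonneg _).trans h2.le)]
    exact ⟨h2.le, h3.trans_le h4'⟩
  refine ⟨h1, h2, h3, h5.symm, ?_⟩
  rw [h5]
  refine le_antisymm h4 ?_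
  have : (⌊U v (fam j)⌋₊ : ℝ) < ⌈U v (fam j)⌉₊ := h2.trans h3
  exact_mod_cast this

section state

variable {s : GSt M fam} (hF : FD M T i₀ D ct) (hG : CG T i₀ U) (hC : CW T i₀ U fam τ X V)
  (hW : WX T i₀ U fam τ X)

/-- the state has only points of the sheets -/
def OnX (s : GSt M fam) (D : Set Φ) (X : J → Set E) : Prop :=
  ∀ F ∈ D, ∀ w, s.At F w → w ∈ X (s.lab w)

/-- the state has all the points of the sheet `j` on the faces `D` -/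
def Full (s : GSt M fam) (D : Set Φ) (X : J → Set E) (j : J) : Prop :=
  ∀ F ∈ D, ∀ w ∈ M.On F, w ∈ X j → w ∈ s.P ∧ s.lab w = j

include hF hG hC

theorem on_of_jp {F : Φ} (hFD : F ∈ D) {x : E} (hx : T.cc (ct F) = T.cc x) {v : E} {j : J}
    (hv : Jp T i₀ X j v) (hvx : v ∈ T.cc x) : v ∈ M.On F :=
  (hF.on F hFD v).2 ⟨by rw [hx]; exact hvx, hv.2.1⟩

theorem jp_of_at (hX : OnX s D X) {F : Φ} (hFD : F ∈ D) {w : E} (hw : s.At F w) :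
    Jp T i₀ X (s.lab w) w := by
  have h1 := (hF.on F hFD w).1 hw.2
  have h2 := hF.mem F hFD
  exact ⟨cc_sub_tile hG h2.1 (by omega) h1.1, h1.2, hX F hFD w hw⟩

/-- the points of one sheet on one face: `w` and its partner -/
theorem eq_or_mu (hX : OnX s D X) {F : Φ} (hFD : F ∈ D) {w v : E} (hw : s.At F w)
    (hv : s.At F v) (hl : s.lab v = s.lab w) : v = w ∨ v = s.mu F w := by
  have a1 := jp_of_at hF hG hC hX hFD hw
  have a2 := jp_of_at hF hG hC hX hFD hv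
  have hm : s.At F (s.mu F w) := s.mu_mem hw.1 hw.2
  have a3 := jp_of_at hF hG hC hX hFD hm
  rw [hl] at a2
  rw [s.mu_lab hw.1 hw.2] at a3
  have h2 := hF.mem F hFD
  have hne := s.mu_ne hw.1 hw.2
  rcases CW.two hG hC h2.1 h2.2 ((hF.on F hFD w).1 hw.2).1 ((hF.on F hFD v).1 hv.2).1
    ((hF.on F hFD _).1 hm.2).1 a1.2.1 a2.2.1 a3.2.1 a1.2.2 a2.2.2 a3.2.2 with h | h | h
  · exact Or.inl h.symm
  · exact absurd h.symm hne
  · exact Or.inr h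

/-- closed sets of points contain all or none of the points of the sheet in a cell -/
theorem same_cell (hX : OnX s D X) {j : J} (hfull : Full s D X j) {Z : Set E}
    (hZ : ∀ F w, F ∈ D → w ∈ Z → s.At F w → s.lab w = j → s.mu F w ∈ Z) {x v v' : E}
    (hx : x ∈ P (T.H i₀)) (hd : T.dim x ≤ 2) (hv : Jp T i₀ X j v) (hvx : v ∈ T.cc x)
    (hv' : Jp T i₀ X j v') (hvx' : v' ∈ T.cc x) (hvZ : v ∈ Z) : v' ∈ Z := by
  by_cases h2 : T.dim x = 2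
  · obtain ⟨F, hFD, hFx⟩ := hF.sur x hx h2
    have o1 := on_of_jp hF hG hC hFD hFx hv hvx
    have o2 := on_of_jp hF hG hC hFD hFx hv' hvx'
    obtain ⟨p1, l1⟩ := hfull F hFD v o1 hv.2.2
    obtain ⟨p2, l2⟩ := hfull F hFD v' o2 hv'.2.2
    rcases eq_or_mu hF hG hC hX hFD (w := v) (v := v') ⟨p1, o1⟩ ⟨p2, o2⟩ (by rw [l1, l2]) with h | h
    · rw [h]; exact hvZ
    · rw [h]; exact hZ F v hFD hvZ ⟨p1, o1⟩ l1
  · have h3 := T.dim_le hvx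
    rw [hv.2.1] at h3
    have h1 : T.dim x = 1 := by omega
    have := hC.one x hx h1 j v hvx v' hvx' hv.2.2 hv'.2.2
    rw [← this]; exact hvZ

include hW

/-- **(E1)** -/
theorem one_core (hX : OnX s D X) {j : J} (hfull : Full s D X j)
    (hR : IsPreconnected {x | x ∈ P (T.H i₀) ∧ T.dim x ≤ 2 ∧ U x (fam j) = τ j}) :
    One s D j := by
  intro Z hZ F w F' w' hFD hFD' hw hw' hl hl' hwZ
  by_contra hno
  have jw := jp_of_at hF hG hC hX hFD hw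
  have jw' := jp_of_at hF hG hC hX hFD' hw'
  rw [hl] at jw
  rw [hl'] at jw'
  obtain ⟨-, c1, c2, c3, c4⟩ := jp_act hG hC hW jw
  have hτ : (⌊τ j⌋₊ : ℝ) < τ j ∧ τ j < ⌊τ j⌋₊ + 1 := by
    rw [c3] at c1
    rw [c4] at c2
    exact ⟨c1, by exact_mod_cast c2⟩
  have hτ0 : 0 ≤ τ j := (Nat.cast_nonneg _).trans hτ.1.le
  have hce : ⌈τ j⌉₊ = ⌊τ j⌋₊ + 1 := by
    refine le_antisymm (Nat.ceil_le_floor_add_one _) ?_
    have : (⌊τ j⌋₊ : ℝ) < ⌈τ j⌉₊ := hτ.1.trans_le (Nat.le_ceil _)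
    exact_mod_cast this
  -- the two families of closed cells
  let 𝒦 : Set E → Set (Set E) := fun Y => {K | ∃ x ∈ P (T.H i₀), T.dim x ≤ 2 ∧ K = T.cc x ∧
    ∃ v ∈ T.cc x, Jp T i₀ X j v ∧ v ∈ Y}
  have hcl : ∀ Y, IsClosed (⋃₀ 𝒦 Y) := by
    intro Y
    have hfin : (𝒦 Y).Finite := by
      refine (T.finite_cells (T.cpt i₀) (fun x hx => T.sub i₀ hx)).subset ?_
      rintro K ⟨x, hx, -, rfl, -⟩
      exact ⟨⟨x, T.sub i₀ hx, rfl⟩, x, T.self_mem_cc x, hx⟩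
    rw [sUnion_eq_biUnion]
    refine hfin.isClosed_biUnion ?_
    rintro K ⟨x, hx, -, rfl, -⟩
    exact (T.isCompact_cc (T.sub i₀ hx)).isClosed
  set R : Set E := {x | x ∈ P (T.H i₀) ∧ T.dim x ≤ 2 ∧ U x (fam j) = τ j} with hRdef
  have hRjp : ∀ x ∈ R, ∃ v ∈ T.cc x, Jp T i₀ X j v := by
    rintro x ⟨hx, hd, hxa⟩
    obtain ⟨v, h1, h2, -⟩ := exists_jp hG hW hx hd (j := j) (by rw [hxa]; exact hτ.1)
      (by rw [hxa, hce]; push_cast; exact hτ.2)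
    exact ⟨v, h1, h2⟩
  have hcov : R ⊆ ⋃₀ 𝒦 Z ∪ ⋃₀ 𝒦 Zᶜ := by
    intro x hx
    obtain ⟨v, h1, h2⟩ := hRjp x hx
    by_cases hv : v ∈ Z
    · exact Or.inl ⟨T.cc x, ⟨x, hx.1, hx.2.1, rfl, v, h1, h2, hv⟩, T.self_mem_cc x⟩
    · exact Or.inr ⟨T.cc x, ⟨x, hx.1, hx.2.1, rfl, v, h1, h2, hv⟩, T.self_mem_cc x⟩
  -- a point of the ring on the edge of a point of the sheet
  have hmeet : ∀ v, Jp T i₀ X j v → ∃ x ∈ R, x ∈ T.cc v := by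
    intro v hv
    have hvd : T.dim v ≤ 2 := by rw [hv.2.1]; norm_num
    obtain ⟨-, b1, b2, -, -⟩ := jp_act hG hC hW hv
    obtain ⟨p, hp, -, hpU⟩ := hG.exists_lo hv.1 hvd
    obtain ⟨r, hr, -, hrU⟩ := hG.exists_hi hv.1 hvd
    have hpre : IsPreconnected (T.cc v) := (T.convex_cc v).isPreconnected
    have hsub : T.cc v ⊆ P (T.H i₀) := fun y hy => cc_sub_tile hG hv.1 hvd hy
    have := hpre.intermediate_value hp hr ((hW.cont (fam j)).mono hsub)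
    obtain ⟨x, hx, hxa⟩ := this (show τ j ∈ Icc _ _ from
      ⟨by rw [hpU]; exact b1.le, by rw [hrU]; exact b2.le⟩)
    exact ⟨x, ⟨hsub hx, (T.dim_le hx).trans hvd, hxa⟩, hx⟩
  have hn1 : (R ∩ ⋃₀ 𝒦 Z).Nonempty := by
    obtain ⟨x, hx, hxw⟩ := hmeet w jw
    exact ⟨x, hx, T.cc w, ⟨w, jw.1, by rw [jw.2.1]; norm_num, rfl, w, T.self_mem_cc w, jw, hwZ⟩,
      hxw⟩
  have hn2 : (R ∩ ⋃₀ 𝒦 Zᶜ).Nonempty := by
    obtain ⟨x, hx, hxw⟩ := hmeet w' jw'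
    exact ⟨x, hx, T.cc w', ⟨w', jw'.1, by rw [jw'.2.1]; norm_num, rfl, w', T.self_mem_cc w', jw',
      hno⟩, hxw⟩
  obtain ⟨x, hxR, ⟨K₁, ⟨x₁, hx₁, hd₁, rfl, v₁, hv₁, j₁, z₁⟩, hxK₁⟩,
    ⟨K₂, ⟨x₂, hx₂, hd₂, rfl, v₂, hv₂, j₂, z₂⟩, hxK₂⟩⟩ :=
    (isPreconnected_closed_iff.1 hR) _ _ (hcl Z) (hcl Zᶜ) hcov hn1 hn2
  obtain ⟨v, hvx, hv⟩ := hRjp x hxR
  have hvZ : v ∈ Z := same_cell hF hG hC hX hfull hZ hx₁ hd₁ j₁ hv₁ hv
    (T.cc_sub_of_mem hxK₁ hvx) z₁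
  exact z₂ (same_cell hF hG hC hX hfull hZ hx₂ hd₂ hv (T.cc_sub_of_mem hxK₂ hvx) j₂ hv₂ hvZ)

end state

end abstr

end Crest.Agent.R096.Rone_847
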