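import Mathlib
import Crest.Agent.R096.Rone1_847

/-! Row 96 (helper847), TYPE R (exact core tiles), part 2: **(E2)**: two sheets of the two families
of a quad have exactly one interlaced pair on the faces of a grid tile which touch the quad. -/

set_option autoImplicit false
set_option linter.unusedSectionVars false
set_option linter.style.longLine false

open Set Topology Filter

namespace Crest.Agent.R096.Rone_847

open Crest.Agent.R096.Msh_715 Crest.Agent.R096.St_147 Crest.Agent.R096.Seq_213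
  Crest.Agent.R096.Ecm_446 Crest.Agent.R096.SkB_662

section abstr

variable {E : Type} [NormedAddCommGroup E] [NormedSpace ℝ E] [FiniteDimensional ℝ E]
variable {Om : Set E} {ι ι' Φ J C : Type}

/-- the sheets are level sets of continuous functions, on the right side at the vertices -/
structure HX (T : Tiling Om ι) (i₀ : ι) (U : E → C → ℝ) (fam : J → C) (τ : J → ℝ)
    (X : J → Set E) (g : J → E → ℝ) (t : J → ℝ) : Prop where
  cont : ∀ j, ContinuousOn (g j) (P (T.H i₀))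
  iff : ∀ v ∈ P (T.H i₀), T.dim v ≤ 1 → ∀ j, v ∈ X j ↔ g j v = t j
  side : ∀ v ∈ P (T.H i₀), T.dim v = 0 → ∀ j, g j v < t j ↔ U v (fam j) < τ j

variable {T : Tiling Om ι} {M : MeshC ι' Φ E} {i₀ : ι} {D : Set Φ} {ct : Φ → E}
  {U : E → C → ℝ} {fam : J → C} {τ : J → ℝ} {X V : J → Set E} {g : J → E → ℝ} {t : J → ℝ}

/-- on a cell of dimension at most one whose height is an integer the side is constant -/
theorem side_cell (hG : CG T i₀ U) (hW : WX T i₀ U fam τ X) (hH : HX T i₀ U fam τ X g t)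
    {x : E} (hx : x ∈ P (T.H i₀)) (hd : T.dim x ≤ 1) {j : J} {n : ℕ} (hn : U x (fam j) = n)
    (hne : (n : ℝ) ≠ τ j) : ((n : ℝ) < τ j → ∀ y ∈ T.cc x, g j y < t j) ∧
      (τ j < n → ∀ y ∈ T.cc x, t j < g j y) := by
  have hd2 : T.dim x ≤ 2 := by omega
  have hsub : T.cc x ⊆ P (T.H i₀) := fun y hy => cc_sub_tile hG hx hd2 hy
  have hnoX : ∀ y ∈ T.cc x, y ∉ X j := by
    intro y hy hyX
    rcases Nat.lt_or_ge (T.dim x) 1 with h0 | h1
    · have h2 := T.dim_le hy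
      exact hW.vert y (hsub hy) (by omega) j hyX
    · obtain ⟨a1, a2⟩ := (hW.cross x hx (by omega) j).1 ⟨y, hy, hyX⟩
      rw [hn, Nat.floor_natCast] at a1
      rw [hn, Nat.ceil_natCast] at a2
      exact lt_asymm a1 a2
  have hnog : ∀ y ∈ T.cc x, g j y ≠ t j := fun y hy h =>
    hnoX y hy ((hH.iff y (hsub hy) ((T.dim_le hy).trans hd) j).2 h)
  obtain ⟨v, hv, hv0, hvU⟩ := hG.exists_lo hx hd2
  have hvn : U v (fam j) = n := by rw [hvU, hn, Nat.floor_natCast]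
  have hs := hH.side v (hsub hv) hv0 j
  rw [hvn] at hs
  have hpre : IsPreconnected (T.cc x) := (T.convex_cc x).isPreconnected
  have hc := (hH.cont j).mono hsub
  constructor
  · intro hlt y hy
    have h1 := hs.2 hlt
    by_contra hge
    obtain ⟨z, hz, hzt⟩ := hpre.intermediate_value hv hy hc ⟨h1.le, not_lt.1 hge⟩
    exact hnog z hz hzt
  · intro hlt y hy
    have h1 : ¬ g j v < t j := fun h => lt_asymm hlt (hs.1 h)
    by_contra hge
    obtain ⟨z, hz, hzt⟩ := hpre.intermediate_value hy hv hc ⟨not_lt.1 hge, not_lt.1 h1⟩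
    exact hnog z hz hzt

section state

variable {s : GSt M fam} (hF : FD M T i₀ D ct) (hG : CG T i₀ U) (hC : CW T i₀ U fam τ X V)
  (hW : WX T i₀ U fam τ X)

include hF hG hC hW

/-- active directions of a face with a point of the sheet -/
theorem act_of_at (hX : OnX s D X) {F : Φ} (hFD : F ∈ D) {w : E} (hw : s.At F w) :
    ⌊U (ct F) (fam (s.lab w))⌋₊ = ⌊τ (s.lab w)⌋₊ ∧
      ⌈U (ct F) (fam (s.lab w))⌉₊ = ⌊τ (s.lab w)⌋₊ + 1 := by
  have jw := jp_of_at hF hG hC hX hFD hw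
  obtain ⟨c0, c1, c2, c3, c4⟩ := jp_act hG hC hW jw
  have hm := hF.mem F hFD
  obtain ⟨-, -, h3⟩ := hG.sub hm.1 (by omega) ((hF.on F hFD w).1 hw.2).1
  obtain ⟨e1, e2⟩ := flo_sub (h3 (fam (s.lab w))).1 (h3 (fam (s.lab w))).2 (by
    rw [c3, c4]; exact Nat.lt_succ_self _)
  rw [← e1, ← e2]
  exact ⟨c3, c4⟩

/-- a face with points of two families: its active directions are the two families -/
theorem act_pair (hX : OnX s D X) {F : Φ} (hFD : F ∈ D) {x y : E} (hx : s.At F x)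
    (hy : s.At F y) (hne : fam (s.lab x) ≠ fam (s.lab y)) :
    {b | ⌊U (ct F) b⌋₊ < ⌈U (ct F) b⌉₊} = {fam (s.lab x), fam (s.lab y)} := by
  have hm := hF.mem F hFD
  obtain ⟨a1, a2⟩ := act_of_at hF hG hC hW hX hFD hx
  obtain ⟨b1, b2⟩ := act_of_at hF hG hC hW hX hFD hy
  have hfin := hG.fin (ct F) hm.1 (by omega)
  refine (Set.eq_of_subset_of_ncard_le ?_ ?_ hfin).symm
  · rintro b (rfl | rfl)
    · show ⌊_⌋₊ < ⌈_⌉₊
      rw [a1, a2]; exact Nat.lt_succ_self _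
    · show ⌊_⌋₊ < ⌈_⌉₊
      rw [b1, b2]; exact Nat.lt_succ_self _
  · rw [← hG.dim (ct F) hm.1 (by omega), hm.2, ncard_pair hne]

/-- **the chords of the two sheets on a common face are interlaced** -/
theorem lace_core (hH : HX T i₀ U fam τ X g t) (hX : OnX s D X) {F : Φ} (hFD : F ∈ D) {x y : E}
    (hx : s.At F x) (hy : s.At F y) (hne : fam (s.lab x) ≠ fam (s.lab y))
    (hfull : Full s D X (s.lab x)) : M.Lace F x (s.mu F x) y (s.mu F y) := by
  by_contra hl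
  have hm := hF.mem F hFD
  have hd2 : T.dim (ct F) ≤ 2 := by omega
  have hmx : s.At F (s.mu F x) := s.mu_mem hx.1 hx.2
  have hmy : s.At F (s.mu F y) := s.mu_mem hy.1 hy.2
  have lx := s.mu_lab hx.1 hx.2
  have ly := s.mu_lab hy.1 hy.2
  have hlab : s.lab x ≠ s.lab y := fun e => hne (congrArg fam e)
  have n1 : x ≠ y := fun h => hlab (by rw [h])
  have n2 : x ≠ s.mu F y := fun h => hlab (by rw [← ly, ← h])
  have n3 : s.mu F x ≠ y := fun h => hlab (by rw [← lx, h])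
  have n4 : s.mu F x ≠ s.mu F y := fun h => hlab (by rw [← lx, ← ly, h])
  obtain ⟨K, hK, hKs, hxK, hmxK, hyK, hmyK⟩ :=
    hF.lace F hFD x (s.mu F x) y (s.mu F y) hx.2 hmx.2 hy.2 hmy.2 n1 n2 n3 n4 hl
  have hact := act_pair hF hG hC hW hX hFD hx hy hne
  obtain ⟨a1, a2⟩ := act_of_at hF hG hC hW hX hFD hx
  obtain ⟨-, c1, c2, c3, c4⟩ := jp_act hG hC hW (jp_of_at hF hG hC hX hFD hx)
  rw [c3] at c1
  rw [c4] at c2
  -- heights of the points of the second sheet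
  have hcoord : ∀ v, s.At F v → s.lab v = s.lab y → ∃ n : ℕ, U v (fam (s.lab x)) = n ∧
      (n = ⌊τ (s.lab x)⌋₊ ∨ n = ⌊τ (s.lab x)⌋₊ + 1) := by
    intro v hv hvl
    have jv := jp_of_at hF hG hC hX hFD hv
    obtain ⟨d0, -, -, -, -⟩ := jp_act hG hC hW jv
    rw [hvl] at d0
    have hnl : ¬ ⌊U v (fam (s.lab x))⌋₊ < ⌈U v (fam (s.lab x))⌉₊ := by
      intro h
      have : fam (s.lab x) ∈ {b | ⌊U v b⌋₊ < ⌈U v b⌉₊} := h
      rw [d0] at this
      exact hne this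
    obtain ⟨f1, -⟩ := flo_fix (hG.nn v jv.1 (fam (s.lab x))) hnl
    obtain ⟨-, -, h3⟩ := hG.sub hm.1 hd2 ((hF.on F hFD v).1 hv.2).1
    have h4 := h3 (fam (s.lab x))
    rw [a1, a2, f1] at h4
    have h5 : ⌊τ (s.lab x)⌋₊ ≤ ⌊U v (fam (s.lab x))⌋₊ := by exact_mod_cast h4.1
    have h6 : ⌊U v (fam (s.lab x))⌋₊ ≤ ⌊τ (s.lab x)⌋₊ + 1 := by exact_mod_cast h4.2
    exact ⟨_, f1, by omega⟩
  obtain ⟨n, hn, hn'⟩ := hcoord y hy rfl
  obtain ⟨n₂, hn₂, hn₂'⟩ := hcoord (s.mu F y) hmy ly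
  have hnn : n ≠ n₂ := by
    intro hnn
    have jy := jp_of_at hF hG hC hX hFD hy
    have jmy := jp_of_at hF hG hC hX hFD hmy
    obtain ⟨d0, d1, d2, d3, d4⟩ := jp_act hG hC hW jy
    obtain ⟨e0, e1, e2, e3, e4⟩ := jp_act hG hC hW jmy
    rw [ly] at e0 e1 e2 e3 e4 jmy
    have hmem : s.mu F y ∈ T.cc y := by
      rw [hG.cell y jy.1 (by rw [jy.2.1]; norm_num)]
      refine ⟨jmy.1, fun b => ?_⟩
      by_cases hb : b = fam (s.lab y)
      · rw [hb, d3, d4, ← e3]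
        refine ⟨Nat.floor_le (hG.nn _ jmy.1 _), ?_⟩
        rw [e3]
        have := Nat.le_ceil (U (s.mu F y) (fam (s.lab y)))
        rw [e4] at this
        exact this
      · have hi : ∀ v, s.At F v → s.lab v = s.lab y → b ≠ fam (s.lab x) →
            U v b = ⌊U (ct F) b⌋₊ := by
          intro v hv hvl hbx
          have hnl : ¬ ⌊U (ct F) b⌋₊ < ⌈U (ct F) b⌉₊ := by
            intro h
            have : b ∈ {b | ⌊U (ct F) b⌋₊ < ⌈U (ct F) b⌉₊} := h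
            rw [hact] at this
            rcases this with h | h
            · exact hbx h
            · exact hb h
          obtain ⟨-, f2⟩ := flo_fix (hG.nn _ hm.1 b) hnl
          obtain ⟨-, -, h3⟩ := hG.sub hm.1 hd2 ((hF.on F hFD v).1 hv.2).1
          have h4 := h3 b
          rw [f2] at h4
          exact le_antisymm h4.2 h4.1
        by_cases hbx : b = fam (s.lab x)
        · subst hbx
          rw [hn, hn₂, hnn, Nat.floor_natCast, Nat.ceil_natCast]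
          exact ⟨le_rfl, le_rfl⟩
        · rw [hi y hy rfl hbx, hi (s.mu F y) hmy ly hbx, Nat.floor_natCast, Nat.ceil_natCast]
          exact ⟨le_rfl, le_rfl⟩
    have := hC.one y jy.1 jy.2.1 (s.lab y) y (T.self_mem_cc y) (s.mu F y) hmem jy.2.2 jmy.2.2
    exact s.mu_ne hy.1 hy.2 this.symm
  -- the two points of the second sheet are on different sides of the first sheet
  have jy := jp_of_at hF hG hC hX hFD hy
  have jmy := jp_of_at hF hG hC hX hFD hmy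
  have hlow : ∀ v, s.At F v → U v (fam (s.lab x)) = (⌊τ (s.lab x)⌋₊ : ℕ) →
      g (s.lab x) v < t (s.lab x) := by
    intro v hv hvU
    have jv := jp_of_at hF hG hC hX hFD hv
    exact (side_cell hG hW hH jv.1 jv.2.1.le hvU c1.ne).1 c1 v (T.self_mem_cc v)
  have hup : ∀ v, s.At F v → U v (fam (s.lab x)) = ((⌊τ (s.lab x)⌋₊ + 1 : ℕ) : ℝ) →
      t (s.lab x) < g (s.lab x) v := by
    intro v hv hvU
    have jv := jp_of_at hF hG hC hX hFD hv
    exact (side_cell hG hW hH jv.1 jv.2.1.le hvU c2.ne').2 c2 v (T.self_mem_cc v)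
  have hcK : ContinuousOn (g (s.lab x)) K := (hH.cont (s.lab x)).mono fun z hz =>
    cc_sub_tile hG hm.1 hd2 (hKs z hz).1
  have key : ∃ z ∈ K, g (s.lab x) z = t (s.lab x) := by
    rcases hn' with h1 | h1 <;> rcases hn₂' with h2 | h2
    · exact absurd (h1.trans h2.symm) hnn
    · rw [h1] at hn
      rw [h2] at hn₂
      obtain ⟨z, hz, e⟩ := hK.intermediate_value hyK hmyK hcK
        ⟨(hlow y hy hn).le, (hup _ hmy hn₂).le⟩
      exact ⟨z, hz, e⟩
    · rw [h1] at hn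
      rw [h2] at hn₂
      obtain ⟨z, hz, e⟩ := hK.intermediate_value hmyK hyK hcK
        ⟨(hlow _ hmy hn₂).le, (hup y hy hn).le⟩
      exact ⟨z, hz, e⟩
    · exact absurd (h1.trans h2.symm) hnn
  obtain ⟨z, hz, hzt⟩ := key
  obtain ⟨hzc, hzd⟩ := hKs z hz
  have hzP : z ∈ P (T.H i₀) := cc_sub_tile hG hm.1 hd2 hzc
  have hzX : z ∈ X (s.lab x) := (hH.iff z hzP hzd _).2 hzt
  have hz1 : T.dim z = 1 := by
    have h0 : T.dim z ≠ 0 := fun h0 => hW.vert z hzP h0 _ hzX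
    omega
  have hzo : z ∈ M.On F := (hF.on F hFD z).2 ⟨hzc, hz1⟩
  obtain ⟨q1, q2⟩ := hfull F hFD z hzo hzX
  rcases eq_or_mu hF hG hC hX hFD hx ⟨q1, hzo⟩ q2 with h | h
  · exact hxK (h ▸ hz)
  · exact hmxK (h ▸ hz)

/-- the low ends of the chords of two sheets on a common face -/
theorem exists_xp (hH : HX T i₀ U fam τ X g t) (hX : OnX s D X) {F : Φ} (hFD : F ∈ D) {j j' : J}
    (hne : fam j ≠ fam j') (hfull : Full s D X j) (hx : ∃ x, s.At F x ∧ s.lab x = j)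
    (hy : ∃ y, s.At F y ∧ s.lab y = j') : ∃ x y, XP s F j j' x y := by
  have low : ∀ j, (∃ x, s.At F x ∧ s.lab x = j) → ∃ x, s.At F x ∧ s.lab x = j ∧
      M.pos F x < M.pos F (s.mu F x) := by
    rintro j ⟨x, h1, h2⟩
    have h3 : s.At F (s.mu F x) := s.mu_mem h1.1 h1.2
    have h4 := s.mu_ne h1.1 h1.2
    have h5 := s.mu_mu h1.1 h1.2
    rcases lt_trichotomy (M.pos F x) (M.pos F (s.mu F x)) with h | h | h
    · exact ⟨x, h1, h2, h⟩
    · exact absurd (M.pos_inj F h1.2 h3.2 h).symm h4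
    · exact ⟨s.mu F x, h3, by rw [s.mu_lab h1.1 h1.2, h2], by rw [h5]; exact h⟩
  obtain ⟨x, x1, x2, x3⟩ := low j hx
  obtain ⟨y, y1, y2, y3⟩ := low j' hy
  refine ⟨x, y, x1, y1, x2, y2, x3, y3, ?_⟩
  refine lace_core hF hG hC hW hH hX hFD x1 y1 (by rw [x2, y2]; exact hne) ?_
  rw [x2]; exact hfull

/-- low ends are unique -/
theorem xp_uniq (hX : OnX s D X) {F : Φ} (hFD : F ∈ D) {j j' : J} {x y x' y' : E}
    (h : XP s F j j' x y) (h' : XP s F j j' x' y') : x = x' ∧ y = y' := by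
  have key : ∀ {u v : E}, s.At F u → s.At F v → s.lab v = s.lab u →
      M.pos F u < M.pos F (s.mu F u) → M.pos F v < M.pos F (s.mu F v) → u = v := by
    intro u v hu hv hl p1 p2
    rcases eq_or_mu hF hG hC hX hFD hu hv hl with h | h
    · exact h.symm
    · rw [h, s.mu_mu hu.1 hu.2] at p2
      exact absurd p2 (lt_asymm p1)
  exact ⟨key h.ax h'.ax (by rw [h.lx, h'.lx]) h.px h'.px,
    key h.ay h'.ay (by rw [h.ly, h'.ly]) h.py h'.py⟩

/-- **(E2)** : `x₀` = a point of the crossing square, `o` = the other heights there -/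
theorem two_core (hH : HX T i₀ U fam τ X g t) (hX : OnX s D X) {A B : Set ι'}
    (hDB : ∀ F, (∃ q ∈ M.side F, q ∈ B) → F ∈ D) (hBD : ∀ F ∈ D, ∃ q ∈ M.side F, q ∈ B)
    {j j' : J} (hne : fam j ≠ fam j') (hfull : Full s D X j) (hfull' : Full s D X j')
    {x₀ : E} (hx₀ : x₀ ∈ P (T.H i₀)) (hd₀ : T.dim x₀ = 2) (o : C → ℕ)
    (h1 : (⌊U x₀ (fam j)⌋₊ : ℝ) < τ j) (h2 : τ j < ⌈U x₀ (fam j)⌉₊)
    (h1' : (⌊U x₀ (fam j')⌋₊ : ℝ) < τ j') (h2' : τ j' < ⌈U x₀ (fam j')⌉₊)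
    (ho : ∀ b, b ≠ fam j → b ≠ fam j' → U x₀ b = o b)
    (htch : ∀ F ∈ D, T.cc (ct F) = T.cc x₀ → Tch M A F)
    (huniq : ∀ F ∈ D, Tch M A F → ∀ x y, s.At F x → s.At F y → s.lab x = j → s.lab y = j' →
      ∀ b, b ≠ fam j → b ≠ fam j' → U (ct F) b = o b) : Two s A B j j' := by
  have hd2 : T.dim x₀ ≤ 2 := by omega
  obtain ⟨F, hFD, hFx⟩ := hF.sur x₀ hx₀ hd₀
  have hon : ∀ j, (⌊U x₀ (fam j)⌋₊ : ℝ) < τ j → τ j < ⌈U x₀ (fam j)⌉₊ → Full s D X j →
      ∃ x, s.At F x ∧ s.lab x = j := by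
    intro j a1 a2 hf
    obtain ⟨v, v1, v2, -⟩ := exists_jp hG hW hx₀ hd2 a1 a2
    have v3 := on_of_jp hF hG hC hFD hFx v2 v1
    obtain ⟨v4, v5⟩ := hf F hFD v v3 v2.2.2
    exact ⟨v, ⟨v4, v3⟩, v5⟩
  obtain ⟨x, y, hxy⟩ := exists_xp hF hG hC hW hH hX hFD hne hfull (hon j h1 h2 hfull)
    (hon j' h1' h2' hfull')
  refine ⟨(F, x, y), ⟨hxy, htch F hFD hFx, hBD F hFD⟩, ?_⟩
  rintro ⟨G, x', y'⟩ ⟨hX', hT', hB'⟩
  simp only at hX' hT' hB'
  have hGD := hDB G hB'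
  have hGF : G = F := by
    refine hF.inj G hGD F hFD ?_
    have mG := hF.mem G hGD
    have mF := hF.mem F hFD
    have hcoord : ∀ b, ⌊U (ct G) b⌋₊ = ⌊U x₀ b⌋₊ ∧ ⌈U (ct G) b⌉₊ = ⌈U x₀ b⌉₊ := by
      have hfl : ∀ i : J, (⌊U x₀ (fam i)⌋₊ : ℝ) < τ i → τ i < ⌈U x₀ (fam i)⌉₊ →
          ⌊U x₀ (fam i)⌋₊ = ⌊τ i⌋₊ ∧ ⌈U x₀ (fam i)⌉₊ = ⌊τ i⌋₊ + 1 := by
        intro i a1 a2
        have h4 : ⌈U x₀ (fam i)⌉₊ ≤ ⌊U x₀ (fam i)⌋₊ + 1 := Nat.ceil_le_floor_add_one _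
        have h4' : (⌈U x₀ (fam i)⌉₊ : ℝ) ≤ ⌊U x₀ (fam i)⌋₊ + 1 := by exact_mod_cast h4
        have h5 : ⌊τ i⌋₊ = ⌊U x₀ (fam i)⌋₊ := by
          rw [Nat.floor_eq_iff ((Nat.cast_nonneg _).trans a1.le)]
          exact ⟨a1.le, a2.trans_le h4'⟩
        refine ⟨h5.symm, ?_⟩
        rw [h5]
        refine le_antisymm h4 ?_
        have : (⌊U x₀ (fam i)⌋₊ : ℝ) < ⌈U x₀ (fam i)⌉₊ := a1.trans a2
        exact_mod_cast this
      intro b
      by_cases hb : b = fam j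
      · have k1 := act_of_at hF hG hC hW hX hGD hX'.ax
        rw [hX'.lx] at k1
        have k2 := hfl j h1 h2
        rw [hb, k1.1, k1.2, k2.1, k2.2]; exact ⟨rfl, rfl⟩
      by_cases hb' : b = fam j'
      · have k1 := act_of_at hF hG hC hW hX hGD hX'.ay
        rw [hX'.ly] at k1
        have k2 := hfl j' h1' h2'
        rw [hb', k1.1, k1.2, k2.1, k2.2]; exact ⟨rfl, rfl⟩
      · rw [huniq G hGD hT' x' y' hX'.ax hX'.ay hX'.lx hX'.ly b hb hb', ho b hb hb']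
        exact ⟨rfl, rfl⟩
    rw [hFx, hG.cell (ct G) mG.1 (by omega), hG.cell x₀ hx₀ hd2]
    ext z
    simp only [mem_ofPred_eq]
    refine and_congr_right fun _ => forall_congr' fun b => ?_
    rw [(hcoord b).1, (hcoord b).2]
  subst hGF
  obtain ⟨e1, e2⟩ := xp_uniq hF hG hC hW hX hGD hX' hxy
  rw [e1, e2]

end state

end abstr

end Crest.Agent.R096.Rone_847
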