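import Mathlib
import Crest.Agent.R096.Rone2_847
import Crest.Agent.R096.Leaf3_965

/-! Row 96 (helper847), TYPE R (exact core tiles), part 3: the abstract data of `Rone1`, `Rone2` from
the exact cores and words of `Mbf_337`. -/

set_option autoImplicit false
set_option linter.unusedSectionVars false
set_option linter.style.longLine false

open Set Topology Filter

namespace Crest.Agent.R096.Rone_847

open Crest.Agent.R096.Bsp_628 Crest.Agent.R096.Brk1_582 Crest.Agent.R096.Brk2_582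
  Crest.Agent.R096.Brk3_582 Crest.Agent.R096.Brk5_582 Crest.Agent.R096.Coh_184
  Crest.Agent.R096.Msh_715 Crest.Agent.R096.St_147 Crest.Agent.R096.Seq_213
  Crest.Agent.R096.Ecm_446 Crest.Agent.R096.SkB_662 Crest.Agent.R096.Agl5_543
  Crest.Agent.R096.Agl4_543
open Crest.Agent.R096.SkC1_961 (E3 Hom3 IsPush FoamD Cfg th)
open Crest.Agent.R096.Mbf_337

/-! ### the faces of a tile of `meshC` -/

section fd

variable {E : Type} [NormedAddCommGroup E] [NormedSpace ℝ E] [FiniteDimensional ℝ E]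
variable {Om : Set E} {ι : Type} (T : Tiling Om ι)

theorem fd_meshC (h3 : Module.finrank ℝ E = 3) (i₀ : ι) :
    FD (meshC T h3) T i₀ {F | i₀ ∈ (meshC T h3).side F} C2.pt where
  mem := by
    intro F hF
    have hF' : i₀ ∈ F.side h3 := hF
    exact ⟨C2.mem_side.1 hF', F.dim_pt⟩
  on := by
    intro F _ w
    show w ∈ F.On ↔ _
    unfold C2.On
    rw [F.set_eq]
    exact Iff.rfl
  sur := by
    intro x hx hd
    have hxO : x ∈ Om := T.sub i₀ hx
    refine ⟨mk2 T hxO hd, ?_, ?_⟩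
    · show i₀ ∈ (mk2 T hxO hd).side h3
      rw [C2.mem_side]
      have h5 : (mk2 T hxO hd).pt ∈ T.oc x := T.pt_cl hxO
      rw [T.at_eq_of_mem_oc hxO h5]
      exact hx
    · rw [← C2.set_eq]; rfl
  inj := by
    intro F _ F' _ h
    exact C2.ext (by rw [F.set_eq, F'.set_eq, h])
  lace := by
    intro F _ u v x y hu hv hx hy h1 h2 h4 h5 hl
    have hb : ∀ {w : E}, w ∈ (meshC T h3).On F → w ∈ F.bd := fun hw => F.on_sub_bd hw
    rw [Lac_441.lace_iff h3 F (hb hu) (hb hv) (hb hx) (hb hy) h1 h2 h4 h5, not_not] at hl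
    obtain ⟨K, k1, k2, k3, k4, k5, k6⟩ := hl
    refine ⟨K, k1, fun z hz => ?_, k3, k4, k5, k6⟩
    have h6 := k2 hz
    rw [← F.set_eq]
    exact ⟨F.bd_sub h6, (F.mem_bd_iff (F.bd_sub h6)).1 h6⟩

end fd

/-! ### partial rounding in the cube complex -/

section cube

variable {E : Type*} [NormedAddCommGroup E] [NormedSpace ℝ E] {I : Type*} {P : I → Set E}
  {u : I → ℝ} {M : ℕ}

open Classical in
/-- rounding down all coordinates except one -/
theorem mix_mem_K (hM : 0 < M) (hu : u ∈ K P) (a₀ : I) :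
    (fun a => if a = a₀ then u a else (⌊(M : ℝ) * u a⌋₊ : ℝ) / M) ∈ K P := by
  obtain ⟨h1, ⟨c, hc⟩, h3⟩ := hu
  have hM' : (0 : ℝ) < M := by exact_mod_cast hM
  have h0 : ∀ a, 0 ≤ (M : ℝ) * u a := fun a => mul_nonneg hM'.le (h1 a).1
  have hle : ∀ a, (⌊(M : ℝ) * u a⌋₊ : ℝ) / M ≤ u a := fun a => by
    rw [div_le_iff₀ hM', mul_comm (u a)]
    exact Nat.floor_le (h0 a)
  refine ⟨fun a => ?_, ⟨c, ?_⟩, ?_⟩
  · show 0 ≤ (if a = a₀ then u a else (⌊(M : ℝ) * u a⌋₊ : ℝ) / M) ∧
      (if a = a₀ then u a else (⌊(M : ℝ) * u a⌋₊ : ℝ) / M) ≤ 1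
    by_cases h : a = a₀
    · rw [if_pos h]; exact h1 a
    · rw [if_neg h]; exact ⟨by positivity, (hle a).trans (h1 a).2⟩
  · show (if c = a₀ then u c else (⌊(M : ℝ) * u c⌋₊ : ℝ) / M) = 0
    by_cases h : c = a₀
    · rw [if_pos h, hc]
    · rw [if_neg h, hc, mul_zero, Nat.floor_zero, Nat.cast_zero, zero_div]
  · have e : {a | (if a = a₀ then u a else (⌊(M : ℝ) * u a⌋₊ : ℝ) / M) < 1} = {a | u a < 1} := by
      ext a
      simp only [mem_ofPred_eq]
      by_cases h' : a = a₀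
      · rw [if_pos h']
      · rw [if_neg h']
        constructor
        · intro h
          by_contra hn
          have h5 : u a = 1 := le_antisymm (h1 a).2 (not_lt.1 hn)
          rw [h5, mul_one, Nat.floor_natCast, div_self hM'.ne'] at h
          exact lt_irrefl _ h
        · exact fun h => (hle a).trans_lt h
    rw [e]
    exact h3

end cube

section core

variable {δ κ0 R c0 : ℝ} {La Om : Set E3} {ι : Type} {Φ : FoamD δ κ0 R c0 La} {T : Tiling Om ι}
  {f : E3 → E3}

/-- the level sets of the machine -/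
def XL (Φ : FoamD δ κ0 R c0 La) (f : E3 → E3) {J : Type} (fam : J → Φ.F) (t : J → ℝ) (j : J) :
    Set E3 := {y | Φ.lev (fam j) (f y) = t j}

/-- their inside -/
def VL (Φ : FoamD δ κ0 R c0 La) (f : E3 → E3) {J : Type} (fam : J → Φ.F) (t : J → ℝ) (j : J) :
    Set E3 := {y | Φ.lev (fam j) (f y) < t j}

/-- heights on the core `c` -/
noncomputable abbrev Uc (Φ : FoamD δ κ0 R c0 La) (A : Φ.F → E3 ≃ᵃ[ℝ] E3) (lam : Φ.F → ℝ)
    (z : Φ.F → E3) (M : Φ.F → ℕ) (c : Φ.F) : E3 → Φ.F → ℝ := U Φ (A c) (lam c) (z c) (M c)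

theorem finE3 : Module.finrank ℝ E3 = 3 := by simp

/-- points of a tile of dimension at most two are not inner points -/
theorem dim_le_two_iff {i : ι} {x : E3} (hx : x ∈ P (T.H i)) : T.dim x ≤ 2 ↔ x ∉ I (T.H i) := by
  constructor
  · exact fun h => not_I_of_dim hx h
  · intro h
    by_contra hd
    have h1 := T.dim_le_finrank x
    rw [finE3] at h1
    have h2 : T.dim x = 3 := by omega
    have h4 : T.V x = ⊤ := by
      apply Submodule.eq_top_of_finrank_eq
      rw [finE3]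
      exact h2
    obtain ⟨m, hm⟩ := (T.V_eq_top_iff (T.sub i hx)).1 h4
    by_cases e : m = i
    · exact h (e ▸ hm)
    · exact (Init_543.not_mem_I (Ne.symm e) hx hm).elim

variable {κ1 κ2 : ℝ} {X : Set Φ.F} {ct : Φ.F → ι} {A : Φ.F → E3 ≃ᵃ[ℝ] E3} {lam : Φ.F → ℝ}
  {z : Φ.F → E3} {M : Φ.F → ℕ} {L : Φ.F → Finset ℝ} {c : Φ.F}

theorem continuous_th (A : E3 ≃ᵃ[ℝ] E3) (lam : ℝ) (z : E3) : Continuous (th A lam z) := by
  have h1 : Continuous A := A.continuous_of_finiteDimensional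
  unfold th
  fun_prop

variable (hLa : IsOpen La) (hc : c ∈ X)
  (hE : Exact Φ T f κ1 κ2 c (ct c) (A c) (lam c) (z c)) (W : Words Φ T f X ct A lam z M L)
include hLa hc hE W

theorem cg_core : CG T (ct c) (Uc Φ A lam z M c) := cg_of_grid hLa hE (W.grid c hc)

omit hLa hE in
theorem cw_core {J : Type} {fam : J → Φ.F} {t : J → ℝ} (ht : ∀ j, t j ∈ L (fam j)) :
    CW T (ct c) (Uc Φ A lam z M c) fam (fun j => M c * t j) (XL Φ f fam t) (VL Φ f fam t) :=
  cw_of_words W hc (W.grid c hc).1 ht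

/-- **crossing words** -/
theorem wx_core {J : Type} {fam : J → Φ.F} {t : J → ℝ} (ht : ∀ j, t j ∈ L (fam j))
    (hv : ∀ j, ∀ x ∈ Om, T.dim x = 0 → Φ.lev (fam j) (f x) ≠ t j) :
    WX T (ct c) (Uc Φ A lam z M c) fam (fun j => M c * t j) (XL Φ f fam t) := by
  have hG := cg_core hLa hc hE W
  have hM : 0 < M c := (W.grid c hc).1
  have hM' : (0 : ℝ) < M c := by exact_mod_cast hM
  have F := foamΦ hLa Φ
  refine ⟨?_, ?_, ?_, ?_⟩
  · intro v hvP h0 j hX
    exact hv j v (T.sub _ hvP) h0 hX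
  · intro x hx h1 j
    have hxO : x ∈ Om := T.sub _ hx
    obtain ⟨a, b, hab, e, eo, -, -, ha, hb⟩ := T.edge_eq hxO h1
    obtain ⟨-, -, -, -, w1, w2⟩ := W.word c hc x hx h1 (fam j) (t j) (ht j) a b e
    have ka := (hG.sub hx (by omega) ha).2.2 (fam j)
    have kb := (hG.sub hx (by omega) hb).2.2 (fam j)
    have hU : ∀ y, Uc Φ A lam z M c y (fam j) = M c * sb Φ (th (A c) (lam c) (z c) y) (fam j) :=
      fun _ => rfl
    constructor
    · rintro ⟨y, hy, hyX⟩
      have hcr : (sb Φ (th (A c) (lam c) (z c) a) (fam j) < t j ∧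
          t j < sb Φ (th (A c) (lam c) (z c) b) (fam j)) ∨
          (sb Φ (th (A c) (lam c) (z c) b) (fam j) < t j ∧
          t j < sb Φ (th (A c) (lam c) (z c) a) (fam j)) := by
        by_contra hno
        exact w2 hno y hy hyX
      rcases hcr with ⟨s1, s2⟩ | ⟨s1, s2⟩
      · have s1' := mul_lt_mul_of_pos_left s1 hM'
        have s2' := mul_lt_mul_of_pos_left s2 hM'
        rw [← hU] at s1' s2'
        exact ⟨ka.1.trans_lt s1', s2'.trans_le kb.2⟩
      · have s1' := mul_lt_mul_of_pos_left s1 hM'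
        have s2' := mul_lt_mul_of_pos_left s2 hM'
        rw [← hU] at s1' s2'
        exact ⟨kb.1.trans_lt s1', s2'.trans_le ka.2⟩
    · rintro ⟨s1, s2⟩
      have hend : ∀ y ∈ T.cc x, T.dim y = 0 → y = a ∨ y = b := by
        intro y hy h0
        by_contra hno
        push Not at hno
        have h2 : y ∈ T.oc x := by
          rw [eo]
          rw [e] at hy
          exact mem_openSegment_of_ne_left_right (Ne.symm hno.1) (Ne.symm hno.2) hy
        have := T.dim_eq_of_mem_oc hxO h2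
        omega
      obtain ⟨p, hp, hp0, hpU⟩ := hG.exists_lo hx (by omega)
      obtain ⟨r, hr, hr0, hrU⟩ := hG.exists_hi hx (by omega)
      have hpj := hpU (fam j)
      have hrj := hrU (fam j)
      have hpl : Uc Φ A lam z M c p (fam j) < M c * t j := by rw [hpj]; exact s1
      have hrl : M c * t j < Uc Φ A lam z M c r (fam j) := by rw [hrj]; exact s2
      rw [hU] at hpl hrl
      have hpl' := lt_of_mul_lt_mul_left hpl hM'.le
      have hrl' := lt_of_mul_lt_mul_left hrl hM'.le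
      have hcr : (sb Φ (th (A c) (lam c) (z c) a) (fam j) < t j ∧
          t j < sb Φ (th (A c) (lam c) (z c) b) (fam j)) ∨
          (sb Φ (th (A c) (lam c) (z c) b) (fam j) < t j ∧
          t j < sb Φ (th (A c) (lam c) (z c) a) (fam j)) := by
        rcases hend p hp hp0 with h | h <;> rcases hend r hr hr0 with h' | h'
        · rw [h] at hpl'; rw [h'] at hrl'; exact absurd hpl' (lt_asymm hrl')
        · rw [h] at hpl'; rw [h'] at hrl'; exact Or.inl ⟨hpl', hrl'⟩
        · rw [h] at hpl'; rw [h'] at hrl'; exact Or.inr ⟨hpl', hrl'⟩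
        · rw [h] at hpl'; rw [h'] at hrl'; exact absurd hpl' (lt_asymm hrl')
      obtain ⟨y, hy, -⟩ := w1 hcr
      exact ⟨y, hy.1, hy.2⟩
  · intro a
    have h1 : ContinuousOn (fun y => sc (Pc Φ.F) (bc (F := Φ.F)) y a) La :=
      continuousOn_sc_apply F a
    have h2 : ContinuousOn (fun x => sb Φ (th (A c) (lam c) (z c) x) a) (P (T.H (ct c))) :=
      h1.comp (continuous_th _ _ _).continuousOn fun x hx => th_La hE hx
    exact continuousOn_const.mul h2
  · intro x hx hd a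
    classical
    have hK : sb Φ (th (A c) (lam c) (z c) x) ∈ K (Pc Φ.F) := F.sc_mem_K (th_La hE hx)
    have hcz : sb Φ (th (A c) (lam c) (z c) x) c = 0 :=
      (F.sc_eq_zero (th_La hE hx)).2 ((Ecm_446.th_mem hE).1 hx)
    obtain ⟨y, hy, h1⟩ := exists_pt hLa hE (mix_mem_K hM hK a) (by
      by_cases h : c = a
      · rw [if_pos h, hcz]
      · rw [if_neg h, hcz]; simp)
    refine ⟨y, hy, ?_, fun b hb => ?_⟩
    · show (M c : ℝ) * _ = M c * _
      rw [h1 a, if_pos rfl]
    · show (M c : ℝ) * sb Φ (th (A c) (lam c) (z c) y) b = _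
      rw [h1 b, if_neg hb]
      field_simp
      rfl

/-- **the ring is connected** -/
theorem ring_core {J : Type} {fam : J → Φ.F} {t : J → ℝ} {j : J} (h0 : 0 < t j) (h1 : t j < 1) :
    IsPreconnected {x | x ∈ P (T.H (ct c)) ∧ T.dim x ≤ 2 ∧
      Uc Φ A lam z M c x (fam j) = M c * t j} := by
  have hM : 0 < M c := (W.grid c hc).1
  have hM' : (0 : ℝ) < M c := by exact_mod_cast hM
  have F := foamΦ hLa Φ
  have hl := hE.lam0
  have hset : {x | x ∈ P (T.H (ct c)) ∧ T.dim x ≤ 2 ∧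
      Uc Φ A lam z M c x (fam j) = M c * t j} =
      (Leaf_965.thH (A c) (lam c) hl.ne' (z c)) ⁻¹'
        Exc_965.ring (Pc Φ.F) (bc (F := Φ.F)) c (fam j) (t j) := by
    ext x
    simp only [mem_ofPred_eq, mem_preimage, Leaf_965.thH_apply]
    constructor
    · rintro ⟨a1, a2, a3⟩
      refine ⟨(Ecm_446.th_mem hE).1 a1, (Leaf_965.not_mem_I_iff hE hLa a1).1
        ((dim_le_two_iff a1).1 a2), ?_⟩
      exact mul_left_cancel₀ hM'.ne' a3
    · rintro ⟨a1, a2, a3⟩
      have a1' : x ∈ P (T.H (ct c)) := (Ecm_446.th_mem hE).2 a1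
      refine ⟨a1', (dim_le_two_iff a1').2 ((Leaf_965.not_mem_I_iff hE hLa a1').2 a2), ?_⟩
      show (M c : ℝ) * _ = M c * t j
      exact congrArg _ a3
  rw [hset, Homeomorph.isPreconnected_preimage]
  by_cases hac : fam j = c
  · have : Exc_965.ring (Pc Φ.F) (bc (F := Φ.F)) c (fam j) (t j) = ∅ := by
      rw [eq_empty_iff_forall_notMem]
      rintro q ⟨q1, -, q3⟩
      have := (F.sc_eq_zero (F.sub c q1)).2 q1
      rw [hac, this] at q3
      exact h0.ne q3
    rw [this]; exact isPreconnected_empty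
  by_cases hne : (Pc Φ.F c ∩ Pc Φ.F (fam j)).Nonempty
  · exact (Exc_965.isPreconnected_ring Φ.bf hLa (by simp) hac hne h0 h1).1
  · have : Exc_965.ring (Pc Φ.F) (bc (F := Φ.F)) c (fam j) (t j) = ∅ := by
      rw [eq_empty_iff_forall_notMem]
      rintro q ⟨q1, -, q3⟩
      have hL := F.sub c q1
      have hK := (F.sc_mem_K hL).2.2
      obtain ⟨y, hy⟩ := hK
      apply hne
      have hy' := mem_fc.1 hy
      refine ⟨y, hy' c ?_, hy' (fam j) ?_⟩
      · show sc (Pc Φ.F) (bc (F := Φ.F)) q c < 1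
        rw [(F.sc_eq_zero hL).2 q1]; exact one_pos
      · show sc (Pc Φ.F) (bc (F := Φ.F)) q (fam j) < 1
        rw [q3]; exact h1
    rw [this]; exact isPreconnected_empty

omit hLa hE in
/-- **continuous heights** -/
theorem hx_core {J : Type} {fam : J → Φ.F} {t : J → ℝ} (ht : ∀ j, t j ∈ L (fam j))
    {g : J → E3 → ℝ} (hg : ∀ j, ContinuousOn (g j) Om)
    (hgl : ∀ j, ∀ x ∈ Om, T.dim x ≤ 1 → g j x = Φ.lev (fam j) (f x)) :
    HX T (ct c) (Uc Φ A lam z M c) fam (fun j => M c * t j) (XL Φ f fam t) g t := by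
  have hM : 0 < M c := (W.grid c hc).1
  have hM' : (0 : ℝ) < M c := by exact_mod_cast hM
  refine ⟨fun j => (hg j).mono fun x hx => T.sub _ hx, ?_, ?_⟩
  · intro v hv hd j
    rw [hgl j v (T.sub _ hv) hd]
    exact Iff.rfl
  · intro v hv hd j
    rw [hgl j v (T.sub _ hv) (by omega), W.sign c hc v hv hd (fam j) (t j) (ht j)]
    show _ ↔ (M c : ℝ) * _ < M c * t j
    rw [mul_lt_mul_iff_right₀ hM']

end core

end Crest.Agent.R096.Rone_847
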