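import Mathlib
import Crest.Agent.R096.Rone3_847
import Crest.Agent.R096.Init12_543
import Crest.Agent.R096.Hlf1_847

/-! Row 96 (helper847), TYPE R (exact core tiles), part 4: `One`, `Two`, `NI` at the exact core tiles
for the states of INIT. -/

set_option autoImplicit false
set_option linter.unusedSectionVars false
set_option linter.style.longLine false

open Set Topology Filter

namespace Crest.Agent.R096.Rone_847

open Crest.Agent.R096.Bsp_628 Crest.Agent.R096.Brk1_582 Crest.Agent.R096.Brk2_582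
  Crest.Agent.R096.Brk3_582 Crest.Agent.R096.Brk5_582 Crest.Agent.R096.Coh_184
  Crest.Agent.R096.Lab_184
  Crest.Agent.R096.Msh_715 Crest.Agent.R096.St_147 Crest.Agent.R096.Seq_213
  Crest.Agent.R096.Ecm_446 Crest.Agent.R096.SkB_662 Crest.Agent.R096.Agl5_543
  Crest.Agent.R096.Agl4_543 Crest.Agent.R096.Ginv_543 Crest.Agent.R096.Init_543
  Crest.Agent.R096.Main_4 Crest.Agent.R096.Leaf_965
open Crest.Agent.R096.SkC1_961 (E3 Hom3 IsPush FoamD Cfg th)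
open Crest.Agent.R096.Mbf_337

/-! ### from the labels to `Full` -/

section lab

variable {E : Type} [NormedAddCommGroup E] [NormedSpace ℝ E] [FiniteDimensional ℝ E]
variable {Om : Set E} {ι J C : Type} {T : Tiling Om ι} {h3 : Module.finrank ℝ E = 3} {i₀ : ι}
  {U : E → C → ℝ} {fam : J → C} {τ : J → ℝ} {X V : J → Set E}
  {s : GSt (meshC T h3) fam}

/-- the faces of the tile -/
abbrev Df (T : Tiling Om ι) (h3 : Module.finrank ℝ E = 3) (i₀ : ι) : Set (C2 T) :=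
  {F | i₀ ∈ (meshC T h3).side F}

/-- **truthful labels at the vertices of the tile: the state has all points of the sheet** -/
theorem full_of_lab (hG : CG T i₀ U) (hC : CW T i₀ U fam τ X V) (hW : WX T i₀ U fam τ X)
    (hs : ∀ w ∈ s.P, w ∈ P (T.H i₀) → w ∈ X (s.lab w)) {j : J} {lam : E → ZMod 2}
    (hlab : IsLab T (gPts s j) lam)
    (hl : ∀ v ∈ P (T.H i₀), T.dim v = 0 → (lam v = 1 ↔ v ∈ V j)) :
    Full s (Df T h3 i₀) X j := by
  classical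
  intro F hFD w hw hwX
  have hF := fd_meshC T h3 i₀
  have hm := hF.mem F hFD
  have hw2 := (hF.on F hFD w).1 hw
  have hwP : w ∈ P (T.H i₀) := cc_sub_tile hG hm.1 (by omega) hw2.1
  have jw : Jp T i₀ X j w := ⟨hwP, hw2.2, hwX⟩
  obtain ⟨-, c1, c2, -, -⟩ := jp_act hG hC hW jw
  have hd2 : T.dim w ≤ 2 := by rw [hw2.2]; norm_num
  have hsub : T.cc w ⊆ P (T.H i₀) := fun y hy => cc_sub_tile hG hwP hd2 hy
  obtain ⟨a, b, hab, e, eo, -, -, ha, hb⟩ := T.edge_eq (T.sub _ hwP) hw2.2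
  have hend : ∀ y ∈ T.cc w, T.dim y = 0 → y = a ∨ y = b := by
    intro y hy h0
    by_contra hno
    push Not at hno
    have h2 : y ∈ T.oc w := by
      rw [eo]
      rw [e] at hy
      exact mem_openSegment_of_ne_left_right (Ne.symm hno.1) (Ne.symm hno.2) hy
    have h4 := T.dim_eq_of_mem_oc (T.sub _ hwP) h2
    rw [h0, hw2.2] at h4
    exact absurd h4 (by norm_num)
  obtain ⟨p, hp, hp0, hpU⟩ := hG.exists_lo hwP hd2
  obtain ⟨r, hr, hr0, hrU⟩ := hG.exists_hi hwP hd2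
  have lp : lam p = 1 := by
    rw [hl p (hsub hp) hp0, hC.side p (hsub hp) hp0 j, hpU]; exact c1
  have lr : lam r ≠ 1 := by
    rw [Ne, hl r (hsub hr) hr0, hC.side r (hsub hr) hr0 j, hrU]
    exact not_lt.2 c2.le
  have lr0 : lam r = 0 := by
    have h5 : ∀ a : ZMod 2, a ≠ 1 → a = 0 := by decide
    exact h5 _ lr
  have hsum : lam a + lam b = 1 := by
    rcases hend p hp hp0 with h | h <;> rcases hend r hr hr0 with h' | h'
    · rw [h] at lp; rw [h'] at lr; exact absurd lp lr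
    · rw [← h, ← h', lp, lr0, add_zero]
    · rw [← h, ← h', lp, lr0, zero_add]
    · rw [h] at lp; rw [h'] at lr; exact absurd lp lr
  have hcard := hlab w (T.sub _ hwP) hw2.2 a b e
  rw [hsum] at hcard
  have hne : ((gPts s j).filter (fun u => u ∈ T.cc w)).Nonempty := by
    rw [← Finset.card_pos]
    refine Nat.pos_of_ne_zero fun h0 => ?_
    rw [h0, Nat.cast_zero] at hcard
    exact one_ne_zero hcard
  obtain ⟨u, hu⟩ := hne
  obtain ⟨hu1, hu2⟩ := Finset.mem_filter.1 hu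
  obtain ⟨hu3, hu4⟩ := mem_gPts.1 hu1
  have huX := hs u hu3 (hsub hu2)
  rw [hu4] at huX
  have := hC.one w hwP hw2.2 j u hu2 w (T.self_mem_cc w) huX hwX
  rw [← this]
  exact ⟨hu3, hu4⟩

/-- one main point: all points are main -/
theorem full_main {u : J → E → ℝ} {cl : J → ℝ} {S : J → Set E} [Nonempty J]
    (h : GFam T u cl S fam) {b : J → E} {j : J} (hone : One (h.gst h3) (Df T h3 i₀) j)
    (hfull : Full (h.gst h3) (Df T h3 i₀) X j)
    (hex : ∃ F ∈ Df T h3 i₀, ∃ w, (gmain (h.gst h3) b).At F w ∧ (h.gst h3).lab w = j) :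
    Full (gmain (h.gst h3) b) (Df T h3 i₀) X j := by
  obtain ⟨F, hF, w, hw, hl⟩ := hex
  have hw' := at_grestrict.1 hw
  intro F' hF' w' hw1 hw2
  obtain ⟨a1, a2⟩ := hfull F' hF' w' hw1 hw2
  have := hone (gcomp (h.gst h3) b) (fun G v _ hv hGv _ => gcomp_closed hv hGv) F w F' w' hF hF'
    hw'.1 ⟨a1, hw1⟩ hl a2 hw'.2
  exact ⟨⟨a1, this⟩, a2⟩

end lab

section mach

variable {δ κ0 R c0 : ℝ} {La Om : Set E3} {ι : Type} {Φ : FoamD δ κ0 R c0 La} {T : Tiling Om ι}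
  {f : E3 → E3}
variable {κ1 κ2 : ℝ} {X : Set Φ.F} {J0 J V : Φ.F → Set ι} {ct : Φ.F → ι}
  {A : Φ.F → E3 ≃ᵃ[ℝ] E3} {lam : Φ.F → ℝ} {z : Φ.F → E3} {θ : Φ.F → E3 → E3}
  {φ : Φ.F → E3 → ℝ} {M : Φ.F → ℕ} {L : Φ.F → Finset ℝ} {c : Φ.F}

/-- active tiles (levels of the machine) -/
def ActL (Φ : FoamD δ κ0 R c0 La) (T : Tiling Om ι) (f : E3 → E3) (J0 : Φ.F → Set ι) (s : ℝ)
    (k : QK (Pc Φ.F)) : Set ι :=
  {q | (∀ c, q ∉ J0 c) ∧ ∃ x ∈ Msh_715.P (T.H q), (∀ a ∈ k.B, Φ.lev a (f x) ∈ Icc s (1 - s)) ∧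
    ∀ c ∈ k.Z, Φ.lev c (f x) = 0}

theorem actL_eq (hLa : IsOpen La) {g : E3 → E3} {ct' : Φ.F → ι} {r₀ : Φ.F → ℝ}
    (hR : InitR Φ T f g J0 ct' r₀) {ε s₁ : ℝ}
    (hM : Mesh0 T (Pc Φ.F) (bc (F := Φ.F)) (RF Φ r₀) f (KorJ Φ J0) ε) (hε : ε < s₁) (hε1 : ε < 1)
    (k : QK (Pc Φ.F)) : (qdF hLa hR hM hε hε1).Act k = ActL Φ T f J0 s₁ k := by
  ext q
  rw [qdF_act]
  refine (mem_act_iff hLa hR).trans ?_
  unfold KorJ ActL
  simp only [mem_ofPred_eq, not_exists]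

/-- the exact core tile and a hole tile of another core have no common point -/
theorem not_J0 (hC : Cores Φ T f κ1 κ2 X J0 J V ct A lam z θ φ) (hc : c ∈ X) {q : ι}
    (hq : q ≠ ct c) {x : E3} (hx : x ∈ P (T.H (ct c))) (hxq : x ∈ P (T.H q)) (c' : Φ.F) :
    q ∉ J0 c' := by
  intro hJ
  by_cases hcc : c' = c
  · subst hcc
    rw [(hC.one c' hc).1] at hJ
    exact hq hJ
  have h1 := (hC.exact_ c hc).inside x hx
  have h2 : ∀ k, c'.1.lo k < f x k ∧ f x k < c'.1.hi k := by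
    by_cases hc' : c' ∈ X
    · rw [(hC.one c' hc').1] at hJ
      rw [mem_singleton_iff.1 hJ] at hxq
      exact (hC.exact_ c' hc').inside x hxq
    · have hT := hC.tiny c' hc'
      exact hT.inside x (mem_biUnion (hT.sub (hT.sub0 hJ)) hxq)
  obtain ⟨k, hk⟩ := Φ.bf.inv.disj c'.2 c.2 (Φ.bf.pos _ c'.2) (Φ.bf.pos _ c.2)
    (fun h => hcc (Subtype.ext h))
  have a1 := h1 k
  have a2 := h2 k
  rcases hk with hk | hk
  · linarith [a1.1, a2.2]
  · linarith [a1.2, a2.1]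

variable (hLa : IsOpen La) (hδ : 0 < δ) (hR0 : 0 < R) (h0 : 0 ≤ κ1) (h2 : 0 < κ2)
  (h12 : 2 * κ0 * κ1 ≤ κ2)
include hLa hδ hR0 h0 h2 h12

/-- closeness -/
theorem close_c (hE : Exact Φ T f κ1 κ2 c (ct c) (A c) (lam c) (z c)) {w : E3}
    (hw : w ∈ P (T.H (ct c))) (hwI : w ∉ I (T.H (ct c))) (e : Φ.F) :
    |Φ.lev e (f w) - sb Φ (th (A c) (lam c) (z c) w) e| ≤ Chl δ κ0 R c0 κ2 * κ1 := by
  have := Hlf_847.close_lev hE hLa hδ hR0 h0 h2 h12 hw hwI e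
  unfold Chl
  linarith

/-- **over the exact square of a quad the neighbour tiles are active** -/
theorem act_square (hC : Cores Φ T f κ1 κ2 X J0 J V ct A lam z θ φ) (hc : c ∈ X)
    (k : QK (Pc Φ.F)) {a a' : Φ.F} (haa : a ≠ a') (hB : k.B = {a, a'}) {μ s : ℝ} (hs0 : 0 < s)
    (hs : s + Chl δ κ0 R c0 κ2 * κ1 ≤ μ) (hη : Chl δ κ0 R c0 κ2 * κ1 < 1) {x : E3}
    (hx : x ∈ P (T.H (ct c))) (hxI : x ∉ I (T.H (ct c)))
    (ha : sb Φ (th (A c) (lam c) (z c) x) a ∈ Icc μ (1 - μ))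
    (ha' : sb Φ (th (A c) (lam c) (z c) x) a' ∈ Icc μ (1 - μ))
    (hZ : ∀ e ∈ k.Z, sb Φ (th (A c) (lam c) (z c) x) e = 0) {q : ι} (hq : q ≠ ct c)
    (hxq : x ∈ P (T.H q)) : q ∈ ActL Φ T f J0 s k := by
  have hE := hC.exact_ c hc
  have F := foamΦ hLa Φ
  have hcl := fun e => abs_le.1 (close_c hLa hδ hR0 h0 h2 h12 hE hx hxI e)
  have haZ : a ∉ k.Z := fun h => disjoint_left.1 k.dis (by rw [hB]; exact Or.inl rfl) h
  have haZ' : a' ∉ k.Z := fun h => disjoint_left.1 k.dis (by rw [hB]; exact Or.inr rfl) h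
  have e1 : Φ.lev a (f x) ∈ Icc s (1 - s) := ⟨by linarith [(hcl a).1, ha.1],
    by linarith [(hcl a).2, ha.2]⟩
  have e2 : Φ.lev a' (f x) ∈ Icc s (1 - s) := ⟨by linarith [(hcl a').1, ha'.1],
    by linarith [(hcl a').2, ha'.2]⟩
  obtain ⟨w1, w2⟩ := Hlf_847.Psi_wall hE hLa h0 h2 h12 hx hxI
  obtain ⟨q1, q2, q3⟩ := quad_at F haa k.cZ haZ haZ' w1 w2
    (show Φ.lev a (f x) ∈ Ioo (0 : ℝ) 1 from ⟨by linarith [e1.1], by linarith [e1.2]⟩)
    (show Φ.lev a' (f x) ∈ Ioo (0 : ℝ) 1 from ⟨by linarith [e2.1], by linarith [e2.2]⟩)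
    (fun e he => by
      show Φ.lev e (f x) < 1
      have := (hcl e).2
      rw [hZ e he] at this
      linarith)
  refine ⟨not_J0 hC hc hq hx hxq, x, hxq, ?_, fun e he => ?_⟩
  · rw [hB]
    rintro b (rfl | rfl)
    · exact e1
    · exact e2
  · exact (F.sc_eq_zero (F.sub c w1)).2 (q2 e he)

/-- **an active neighbour tile: the face lies in the square of the quad** -/
theorem quad_of_act (hC : Cores Φ T f κ1 κ2 X J0 J V ct A lam z θ φ)
    (hFi : Mbf_337.Fine Φ T f κ1 J0) (hc : c ∈ X) (k : QK (Pc Φ.F)) {a a' : Φ.F}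
    (haa : a ≠ a') (hB : k.B = {a, a'}) {s : ℝ} (hη : Chl δ κ0 R c0 κ2 * κ1 + κ1 < 1) {x : E3}
    (hx : x ∈ P (T.H (ct c))) (hxI : x ∉ I (T.H (ct c)))
    (ha : sb Φ (th (A c) (lam c) (z c) x) a ∈ Ioo (0 : ℝ) 1)
    (ha' : sb Φ (th (A c) (lam c) (z c) x) a' ∈ Ioo (0 : ℝ) 1) {q : ι}
    (hq : q ∈ ActL Φ T f J0 s k) (hxq : x ∈ P (T.H q)) :
    c ∈ k.Z ∧ (∀ e ∈ k.Z, sb Φ (th (A c) (lam c) (z c) x) e = 0) ∧
      ∀ e, e ≠ a → e ≠ a' → e ∉ k.Z → sb Φ (th (A c) (lam c) (z c) x) e = 1 := by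
  have hE := hC.exact_ c hc
  have F := foamΦ hLa Φ
  have hcl := fun e => abs_le.1 (close_c hLa hδ hR0 h0 h2 h12 hE hx hxI e)
  have haZ : a ∉ k.Z := fun h => disjoint_left.1 k.dis (by rw [hB]; exact Or.inl rfl) h
  have haZ' : a' ∉ k.Z := fun h => disjoint_left.1 k.dis (by rw [hB]; exact Or.inr rfl) h
  obtain ⟨hqJ, y, hy, -, hyZ⟩ := hq
  have hw1 : th (A c) (lam c) (z c) x ∈ Pc Φ.F c := (Ecm_446.th_mem hE).1 hx
  have hw2 := Hlf_847.th_wall hE hLa hx hxI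
  obtain ⟨q1, q2, q3⟩ := quad_at F haa k.cZ haZ haZ' hw1 hw2 ha ha' (fun e he => by
    have h5 := abs_le.1 (hFi.lev q hqJ y hy x hxq e)
    rw [hyZ e he] at h5
    show sb Φ (th (A c) (lam c) (z c) x) e < 1
    linarith [h5.2, (hcl e).1])
  exact ⟨q1, fun e he => (F.sc_eq_zero (F.sub c hw1)).2 (q2 e he), q3⟩


end mach

end Crest.Agent.R096.Rone_847
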