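import Mathlib
import Crest.Agent.R096.Rone4_847

/-! Row 96 (helper847), TYPE R (exact core tiles), part 5: `Two` and `NI` for states with the levels
of the machine. -/

set_option autoImplicit false
set_option linter.unusedSectionVars false
set_option linter.style.longLine false

open Set Topology Filter

namespace Crest.Agent.R096.Rone_847

open Crest.Agent.R096.Bsp_628 Crest.Agent.R096.Brk1_582 Crest.Agent.R096.Brk2_582
  Crest.Agent.R096.Brk3_582 Crest.Agent.R096.Brk5_582 Crest.Agent.R096.Coh_184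
  Crest.Agent.R096.Lab_184
  Crest.Agent.R096.Msh_715 Crest.Agent.R096.St_147 Crest.Agent.R096.Seq_213
  Crest.Agent.R096.Ecm_446 Crest.Agent.R096.SkB_662 Crest.Agent.R096.Agl5_543
  Crest.Agent.R096.Agl4_543 Crest.Agent.R096.Ginv_543 Crest.Agent.R096.Init_543
  Crest.Agent.R096.Main_4 Crest.Agent.R096.Leaf_965
open Crest.Agent.R096.SkC1_961 (E3 Hom3 IsPush FoamD Cfg th)
open Crest.Agent.R096.Mbf_337

section mach

variable {δ κ0 R c0 : ℝ} {La Om : Set E3} {ι : Type} {Φ : FoamD δ κ0 R c0 La} {T : Tiling Om ι}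
  {f : E3 → E3}
variable {κ1 κ2 : ℝ} {X : Set Φ.F} {J0 J V : Φ.F → Set ι} {ct : Φ.F → ι}
  {A : Φ.F → E3 ≃ᵃ[ℝ] E3} {lam : Φ.F → ℝ} {z : Φ.F → E3} {θ : Φ.F → E3 → E3}
  {φ : Φ.F → E3 → ℝ} {M : Φ.F → ℕ} {L : Φ.F → Finset ℝ} {c : Φ.F}

section pts

variable (hLa : IsOpen La) (hE : Exact Φ T f κ1 κ2 c (ct c) (A c) (lam c) (z c))
include hLa hE

/-- the point of the exact tile with given coordinates in the square of a quad -/
theorem exists_sq {k : QK (Pc Φ.F)} (hcZ : c ∈ k.Z) {a a' : Φ.F} (haa : a ≠ a')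
    (hB : k.B = {a, a'}) {s t : ℝ} (hs : s ∈ Ioo (0 : ℝ) 1) (ht : t ∈ Ioo (0 : ℝ) 1) :
    ∃ x ∈ P (T.H (ct c)), x ∉ I (T.H (ct c)) ∧ sb Φ (th (A c) (lam c) (z c) x) a = s ∧
      sb Φ (th (A c) (lam c) (z c) x) a' = t ∧
      (∀ e ∈ k.Z, sb Φ (th (A c) (lam c) (z c) x) e = 0) ∧
      ∀ e, e ≠ a → e ≠ a' → e ∉ k.Z → sb Φ (th (A c) (lam c) (z c) x) e = 1 := by
  have F := foamΦ hLa Φ
  have haZ : a ∉ k.Z := fun h => disjoint_left.1 k.dis (by rw [hB]; exact Or.inl rfl) h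
  have haZ' : a' ∉ k.Z := fun h => disjoint_left.1 k.dis (by rw [hB]; exact Or.inr rfl) h
  have hZf : k.Z.Finite := Set.finite_of_ncard_ne_zero (by rw [k.cZ]; norm_num)
  have hcard : (insert a (insert a' k.Z)).ncard = 4 := by
    rw [ncard_insert_of_notMem _ (hZf.insert a'), ncard_insert_of_notMem haZ' hZf, k.cZ]
    rintro (h | h)
    · exact haa h
    · exact haZ h
  have hfc : (fc (Pc Φ.F) (insert a (insert a' k.Z))).Nonempty := by
    have := k.ne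
    rw [hB, insert_union, singleton_union] at this
    exact this
  obtain ⟨y, ⟨hyL, hyZ, hya, hya'⟩, -⟩ := Exc_965.quad_point F (Z := k.Z) ⟨c, hcZ⟩ hcard hfc haa
    haZ haZ' hs.1.le hs.2 ht.1.le ht.2
  obtain ⟨x, hx, hxy⟩ := exists_pre hE (hyZ c hcZ)
  obtain ⟨e, he, hec⟩ : ∃ e ∈ k.Z, e ≠ c := by
    by_contra hno
    push Not at hno
    have h1 : k.Z ⊆ {c} := fun e he => hno e he
    have := ncard_le_ncard h1
    rw [k.cZ, ncard_singleton] at this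
    omega
  have hy2 : ∃ e, e ≠ c ∧ y ∈ Pc Φ.F e := ⟨e, hec, hyZ e he⟩
  have hsc0 : ∀ e ∈ k.Z, sc (Pc Φ.F) (bc (F := Φ.F)) y e = 0 := fun e he =>
    (F.sc_eq_zero hyL).2 (hyZ e he)
  obtain ⟨-, -, q3⟩ := quad_at F haa k.cZ haZ haZ' (hyZ c hcZ) hy2 (by rw [hya]; exact hs)
    (by rw [hya']; exact ht) (fun e he => by rw [hsc0 e he]; exact one_pos)
  refine ⟨x, hx, (not_mem_I_iff hE hLa hx).2 (by rw [hxy]; exact hy2), ?_, ?_, ?_, ?_⟩
  · show sc (Pc Φ.F) (bc (F := Φ.F)) (th (A c) (lam c) (z c) x) a = s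
    rw [hxy]; exact hya
  · show sc (Pc Φ.F) (bc (F := Φ.F)) (th (A c) (lam c) (z c) x) a' = t
    rw [hxy]; exact hya'
  · intro e he
    show sc (Pc Φ.F) (bc (F := Φ.F)) (th (A c) (lam c) (z c) x) e = 0
    rw [hxy]; exact hsc0 e he
  · intro e h1 h2 h4
    show sc (Pc Φ.F) (bc (F := Φ.F)) (th (A c) (lam c) (z c) x) e = 1
    rw [hxy]; exact q3 e h1 h2 h4

/-- the used levels are not levels of the grid -/
theorem nonint (hc : c ∈ X) (W : Words Φ T f X ct A lam z M L) {k : QK (Pc Φ.F)} (hcZ : c ∈ k.Z)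
    {a a' : Φ.F} (haa : a ≠ a') (hB : k.B = {a, a'}) {t : ℝ} (ht : t ∈ Ioo (0 : ℝ) 1)
    (htL : t ∈ L a) (n : ℕ) : (M c : ℝ) * t ≠ n := by
  intro hn
  have hM : 0 < M c := (W.grid c hc).1
  have hM' : (0 : ℝ) < M c := by exact_mod_cast hM
  have hM1 : (1 : ℝ) ≤ M c := by exact_mod_cast hM
  have hG := cg_core hLa hc hE W
  obtain ⟨x, hx, hxI, xa, xa', xZ, xo⟩ := exists_sq hLa hE hcZ haa hB (s := t)
    (t := 1 / 2 / M c) ht ⟨by positivity, by rw [div_lt_one hM']; linarith⟩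
  have hd := (dim_le_two_iff hx).2 hxI
  have hU : ∀ y e, Uc Φ A lam z M c y e = M c * sb Φ (th (A c) (lam c) (z c) y) e :=
    fun _ _ => rfl
  have ua : Uc Φ A lam z M c x a = n := by rw [hU, xa, hn]
  have ua' : Uc Φ A lam z M c x a' = 1 / 2 := by rw [hU, xa']; field_simp
  have hact : {b | ⌊Uc Φ A lam z M c x b⌋₊ < ⌈Uc Φ A lam z M c x b⌉₊} = {a'} := by
    ext b
    simp only [mem_ofPred_eq, mem_singleton_iff]
    constructor
    · intro h
      by_contra hb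
      by_cases hb1 : b = a
      · rw [hb1, ua, Nat.floor_natCast, Nat.ceil_natCast] at h
        exact lt_irrefl _ h
      by_cases hb2 : b ∈ k.Z
      · rw [hU, xZ b hb2, mul_zero] at h
        simp at h
      · rw [hU, xo b hb1 hb hb2, mul_one, Nat.floor_natCast, Nat.ceil_natCast] at h
        exact lt_irrefl _ h
    · rintro rfl
      rw [ua']
      have h1 : ⌊(1 / 2 : ℝ)⌋₊ = 0 := by
        rw [Nat.floor_eq_zero]; norm_num
      rw [h1]
      exact Nat.ceil_pos.2 (by norm_num)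
  have hd1 : T.dim x = 1 := by rw [hG.dim x hx hd, hact, ncard_singleton]
  obtain ⟨p, r, -, e, -, -, -, hp, -⟩ := T.edge_eq (T.sub _ hx) hd1
  obtain ⟨w1, -⟩ := W.word c hc x hx hd1 a t htL p r e
  apply w1
  have h3 := (hG.sub hx hd hp).2.2 a
  rw [ua, Nat.floor_natCast, Nat.ceil_natCast] at h3
  have h4 := le_antisymm h3.2 h3.1
  rw [hU, ← hn] at h4
  exact mul_left_cancel₀ hM'.ne' h4

end pts

/-- a coordinate which is active on the tile is strictly between 0 and 1 -/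
theorem sb_Ioo (hLa : IsOpen La) (hE : Exact Φ T f κ1 κ2 c (ct c) (A c) (lam c) (z c)) {x : E3}
    (hx : x ∈ P (T.H (ct c))) {a : Φ.F}
    (h : ⌊Uc Φ A lam z M c x a⌋₊ < ⌈Uc Φ A lam z M c x a⌉₊) :
    sb Φ (th (A c) (lam c) (z c) x) a ∈ Ioo (0 : ℝ) 1 := by
  have F := foamΦ hLa Φ
  have hL := th_La hE hx
  have hU : Uc Φ A lam z M c x a = M c * sb Φ (th (A c) (lam c) (z c) x) a := rfl
  constructor
  · refine lt_of_le_of_ne (F.sc_nonneg hL a) fun h0 => ?_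
    have h1 : sb Φ (th (A c) (lam c) (z c) x) a = 0 := h0.symm
    rw [hU, h1, mul_zero] at h
    simp at h
  · refine lt_of_le_of_ne (F.sc_le_one hL a) fun h0 => ?_
    have h1 : sb Φ (th (A c) (lam c) (z c) x) a = 1 := h0
    rw [hU, h1, mul_one, Nat.floor_natCast, Nat.ceil_natCast] at h
    exact lt_irrefl _ h

theorem fl_of_nonint {r : ℝ} (h0 : 0 ≤ r) (h : ∀ n : ℕ, r ≠ n) :
    (⌊r⌋₊ : ℝ) < r ∧ r < ⌈r⌉₊ :=
  ⟨lt_of_le_of_ne (Nat.floor_le h0) (h _).symm, lt_of_le_of_ne (Nat.le_ceil r) (h _)⟩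

variable {JJ' : Type} {fam : JJ' → Φ.F} {t : JJ' → ℝ} {s : GSt (meshC T finE3) fam}

/-- **(E2) AT AN EXACT CORE TILE**, any state which has the machine points on the faces of the
tile -/
theorem two_exact (hLa : IsOpen La) (hδ : 0 < δ) (hR0 : 0 < R) (h0 : 0 ≤ κ1) (h2 : 0 < κ2)
    (h12 : 2 * κ0 * κ1 ≤ κ2) (hC : Cores Φ T f κ1 κ2 X J0 J V ct A lam z θ φ)
    (hFi : Mbf_337.Fine Φ T f κ1 J0) (W : Words Φ T f X ct A lam z M L) (hc : c ∈ X)
    (htL : ∀ j, t j ∈ L (fam j)) {μ s₁ : ℝ} (hμ0 : 0 < μ) (ht : ∀ j, t j ∈ Icc μ (1 - μ))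
    (hs0 : 0 < s₁) (hs₁ : s₁ + Chl δ κ0 R c0 κ2 * κ1 ≤ μ)
    (hη : Chl δ κ0 R c0 κ2 * κ1 + κ1 < 1)
    (hvert : ∀ j, ∀ x ∈ Om, T.dim x = 0 → Φ.lev (fam j) (f x) ≠ t j)
    {g : JJ' → E3 → ℝ} (hg : ∀ j, ContinuousOn (g j) Om)
    (hgl : ∀ j, ∀ x ∈ Om, T.dim x ≤ 1 → g j x = Φ.lev (fam j) (f x))
    (hX : OnX s (Df T finE3 (ct c)) (XL Φ f fam t)) {k : QK (Pc Φ.F)} (hcZ : c ∈ k.Z)
    {j j' : JJ'} (hj : fam j ∈ k.B) (hj' : fam j' ∈ k.B) (hne : fam j ≠ fam j')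
    (hfull : Full s (Df T finE3 (ct c)) (XL Φ f fam t) j)
    (hfull' : Full s (Df T finE3 (ct c)) (XL Φ f fam t) j') :
    Two s (ActL Φ T f J0 s₁ k) {ct c} j j' := by
  classical
  have hE := hC.exact_ c hc
  have hM : 0 < M c := (W.grid c hc).1
  have hM' : (0 : ℝ) < M c := by exact_mod_cast hM
  have hG := cg_core hLa hc hE W
  have hCW := cw_core (f := f) (T := T) hc W htL
  have hWX := wx_core hLa hc hE W htL hvert
  have hHX := hx_core (c := c) hc W htL hg hgl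
  have hF := fd_meshC T finE3 (ct c)
  have hB : k.B = {fam j, fam j'} := by
    obtain ⟨b, -, -, hb⟩ := k.exists_other hj
    rw [hb] at hj' ⊢
    rcases hj' with h | h
    · exact absurd h.symm hne
    · rw [mem_singleton_iff.1 h]
  have hB' : k.B = {fam j', fam j} := by rw [hB, Set.pair_comm]
  have tI : ∀ j, t j ∈ Ioo (0 : ℝ) 1 := fun j =>
    ⟨hμ0.trans_le (ht j).1, by linarith [(ht j).2]⟩
  obtain ⟨x₀, hx, hxI, xa, xa', xZ, xo⟩ := exists_sq hLa hE hcZ hne hB (tI j) (tI j')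
  have hd := (dim_le_two_iff hx).2 hxI
  have hU : ∀ y e, Uc Φ A lam z M c y e = M c * sb Φ (th (A c) (lam c) (z c) y) e :=
    fun _ _ => rfl
  have ua : Uc Φ A lam z M c x₀ (fam j) = M c * t j := by rw [hU, xa]
  have ua' : Uc Φ A lam z M c x₀ (fam j') = M c * t j' := by rw [hU, xa']
  have n1 := fl_of_nonint (mul_nonneg hM'.le (tI j).1.le)
    (nonint hLa hE hc W hcZ hne hB (tI j) (htL j))
  have n2 := fl_of_nonint (mul_nonneg hM'.le (tI j').1.le)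
    (nonint hLa hE hc W hcZ hne.symm hB' (tI j') (htL j'))
  have hact : {b | ⌊Uc Φ A lam z M c x₀ b⌋₊ < ⌈Uc Φ A lam z M c x₀ b⌉₊} = {fam j, fam j'} := by
    ext b
    simp only [mem_ofPred_eq, mem_insert_iff, mem_singleton_iff]
    constructor
    · intro h
      by_contra hb
      push Not at hb
      by_cases hb2 : b ∈ k.Z
      · rw [hU, xZ b hb2, mul_zero] at h
        simp at h
      · rw [hU, xo b hb.1 hb.2 hb2, mul_one, Nat.floor_natCast, Nat.ceil_natCast] at h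
        exact lt_irrefl _ h
    · rintro (rfl | rfl)
      · rw [ua]; exact_mod_cast n1.1.trans n1.2
      · rw [ua']; exact_mod_cast n2.1.trans n2.2
  have hd2 : T.dim x₀ = 2 := by rw [hG.dim x₀ hx hd, hact, ncard_pair hne]
  refine two_core hF hG hCW hWX hHX hX (A := ActL Φ T f J0 s₁ k) (B := {ct c})
    (fun F hF' => ?_) (fun F hF' => ⟨ct c, hF', rfl⟩) hne hfull hfull' hx hd2
    (fun b => if b ∈ k.Z then 0 else M c) (by rw [ua]; exact n1.1) (by rw [ua]; exact n1.2)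
    (by rw [ua']; exact n2.1) (by rw [ua']; exact n2.2) (fun b hb hb' => ?_)
    (fun F hFD hFx => ?_) (fun F hFD hFT x y hxF hyF hxl hyl b hb hb' => ?_)
  · obtain ⟨q, hq, hq'⟩ := hF'
    rw [mem_singleton_iff] at hq'
    rw [hq'] at hq
    exact hq
  · by_cases h : b ∈ k.Z
    · rw [if_pos h, hU, xZ b h, mul_zero, Nat.cast_zero]
    · rw [if_neg h, hU, xo b hb hb' h, mul_one]
  · have hFs : ct c ∈ F.side finE3 := hFD
    obtain ⟨q', hq'⟩ := Sym2.mem_iff_exists.1 hFs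
    have hne' : q' ≠ ct c := by
      intro e
      have := F.side_nd (h3 := finE3)
      rw [hq', e] at this
      exact this rfl
    have hq's : q' ∈ F.side finE3 := by rw [hq']; exact Sym2.mem_mk_right _ _
    have hx0F : x₀ ∈ F.set := by rw [F.set_eq, hFx]; exact T.self_mem_cc x₀
    exact ⟨q', hq's, act_square hLa hδ hR0 h0 h2 h12 hC hc k hne hB hs0 hs₁ (by linarith) hx hxI
      (by rw [xa]; exact ht j) (by rw [xa']; exact ht j') xZ hne' (C2.sub_tile hq's hx0F)⟩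
  · obtain ⟨q, hq, hqA⟩ := hFT
    have hm := hF.mem F hFD
    have hpI : F.pt ∉ I (T.H (ct c)) := (dim_le_two_iff hm.1).1 hm.2.le
    have hpq : F.pt ∈ P (T.H q) := by
      have hq' : q ∈ F.side finE3 := hq
      refine C2.sub_tile hq' ?_
      rw [F.set_eq]; exact T.self_mem_cc _
    have k1 := act_of_at hF hG hCW hWX hX hFD hxF
    have k2 := act_of_at hF hG hCW hWX hX hFD hyF
    rw [hxl] at k1
    rw [hyl] at k2
    have i1 := sb_Ioo (M := M) hLa hE hm.1 (a := fam j) (by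
      rw [k1.1, k1.2]; exact Nat.lt_succ_self _)
    have i2 := sb_Ioo (M := M) hLa hE hm.1 (a := fam j') (by
      rw [k2.1, k2.2]; exact Nat.lt_succ_self _)
    obtain ⟨-, r1, r2⟩ := quad_of_act hLa hδ hR0 h0 h2 h12 hC hFi hc k hne hB hη hm.1 hpI i1 i2
      hqA hpq
    by_cases h : b ∈ k.Z
    · rw [if_pos h, hU, r1 b h, mul_zero, Nat.cast_zero]
    · rw [if_neg h, hU, r2 b hb hb' h, mul_one]

/-- **(E1) AT AN EXACT CORE TILE** -/
theorem one_exact (hLa : IsOpen La) (hC : Cores Φ T f κ1 κ2 X J0 J V ct A lam z θ φ)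
    (W : Words Φ T f X ct A lam z M L) (hc : c ∈ X) (htL : ∀ j, t j ∈ L (fam j))
    (ht : ∀ j, t j ∈ Ioo (0 : ℝ) 1)
    (hvert : ∀ j, ∀ x ∈ Om, T.dim x = 0 → Φ.lev (fam j) (f x) ≠ t j)
    (hX : OnX s (Df T finE3 (ct c)) (XL Φ f fam t)) {j : JJ'}
    (hfull : Full s (Df T finE3 (ct c)) (XL Φ f fam t) j) : One s (Df T finE3 (ct c)) j := by
  have hE := hC.exact_ c hc
  exact one_core (fd_meshC T finE3 (ct c)) (cg_core hLa hc hE W)
    (cw_core (f := f) (T := T) hc W htL) (wx_core hLa hc hE W htL hvert) hX hfull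
    (ring_core hLa hc hE W (ht j).1 (ht j).2)

/-- **(N1)**: a face which touches the active cells of a quad and has points of both families has
both sides active or in the tiles near the holes of the two other bricks -/
theorem ni_exact (hLa : IsOpen La) (hC : Cores Φ T f κ1 κ2 X J0 J V ct A lam z θ φ)
    {g : E3 → E3} {ct' : Φ.F → ι} {r₀ : Φ.F → ℝ} (hR : InitR Φ T f g J0 ct' r₀) (h0 : 0 ≤ κ1)
    {μ s₁ : ℝ} (hM : Mesh0 T (Pc Φ.F) (bc (F := Φ.F)) (RF Φ r₀) f (KorJ Φ J0) κ1)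
    (hε : κ1 < s₁) (hε1 : κ1 < 1) (hs₁ : s₁ + κ1 ≤ μ) (ht : ∀ j, t j ∈ Icc μ (1 - μ))
    (hs : ∀ F w, s.At F w → Φ.lev (fam (s.lab w)) (f w) = t (s.lab w)) (far : JJ' → Set E3)
    (k : QK (Pc Φ.F)) :
    NI s far (qdF hLa hR hM hε hε1) k {q | ∃ e ∈ k.Z, q ∈ J0 e} := by
  have F4 := foamΦ hLa Φ
  intro F hT w w' hw hw' _ _ hin hin' hne q hq
  rw [qdF_in] at hin hin'
  obtain ⟨q₁, hq₁, hq₁A⟩ := hT
  have hB : k.B = {fam (s.lab w), fam (s.lab w')} := by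
    obtain ⟨b, -, -, hb⟩ := k.exists_other hin
    rw [hb] at hin' ⊢
    rcases hin' with h | h
    · exact absurd h.symm hne
    · rw [mem_singleton_iff.1 h]
  have haZ : fam (s.lab w) ∉ k.Z := fun h => disjoint_left.1 k.dis hin h
  have haZ' : fam (s.lab w') ∉ k.Z := fun h => disjoint_left.1 k.dis hin' h
  obtain ⟨hqJ, x₁, hx₁, -, hx₁Z⟩ := hq₁A
  have wF : w ∈ F.set := hw.2.1
  have w'F : w' ∈ F.set := hw'.2.1
  have wd : T.dim w = 1 := hw.2.2
  have wd' : T.dim w' = 1 := hw'.2.2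
  have hq₁' : q₁ ∈ F.side finE3 := hq₁
  have wq : w ∈ P (T.H q₁) := C2.sub_tile hq₁' wF
  have wq' : w' ∈ P (T.H q₁) := C2.sub_tile hq₁' w'F
  have hwO := T.sub q₁ wq
  have hwO' := T.sub q₁ wq'
  have va1 : va (Pc Φ.F) (bc (F := Φ.F)) (RF Φ r₀) f (fam (s.lab w)) w = t (s.lab w) :=
    (hR.v_eq' Φ hLa hwO (by omega) _).trans (hs F w hw)
  have va2 : va (Pc Φ.F) (bc (F := Φ.F)) (RF Φ r₀) f (fam (s.lab w')) w' = t (s.lab w') :=
    (hR.v_eq' Φ hLa hwO' (by omega) _).trans (hs F w' hw')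
  have t1 := ht (s.lab w)
  have t2 := ht (s.lab w')
  have o2 := abs_le.1 (hM.osc q₁ hqJ w wq w' wq' (fam (s.lab w')))
  rw [va2] at o2
  have I1 : va (Pc Φ.F) (bc (F := Φ.F)) (RF Φ r₀) f (fam (s.lab w)) w ∈ Icc s₁ (1 - s₁) := by
    rw [va1]; exact ⟨by linarith [t1.1], by linarith [t1.2]⟩
  have I2 : va (Pc Φ.F) (bc (F := Φ.F)) (RF Φ r₀) f (fam (s.lab w')) w ∈ Icc s₁ (1 - s₁) :=
    ⟨by linarith [t2.1, o2.1], by linarith [t2.2, o2.2]⟩
  obtain ⟨e, e', hee, he, he'⟩ := hM.wall q₁ hqJ w wq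
  have hyL : RF Φ r₀ (f w) ∈ La := F4.sub e he
  obtain ⟨-, q2, q3⟩ := quad_at F4 hne k.cZ haZ haZ' he ⟨e', hee.symm, he'⟩
    (show va (Pc Φ.F) (bc (F := Φ.F)) (RF Φ r₀) f (fam (s.lab w)) w ∈ Ioo (0 : ℝ) 1 from
      ⟨by linarith [I1.1], by linarith [I1.2]⟩)
    (show va (Pc Φ.F) (bc (F := Φ.F)) (RF Φ r₀) f (fam (s.lab w')) w ∈ Ioo (0 : ℝ) 1 from
      ⟨by linarith [I2.1], by linarith [I2.2]⟩)
    (fun b hb => by
      have o3 := abs_le.1 (hM.osc q₁ hqJ w wq x₁ hx₁ b)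
      rw [hx₁Z b hb] at o3
      show va (Pc Φ.F) (bc (F := Φ.F)) (RF Φ r₀) f b w < 1
      linarith [o3.2])
  have hq' : q ∈ F.side finE3 := hq
  have wqq : w ∈ P (T.H q) := C2.sub_tile hq' wF
  by_cases hK : q ∈ KorJ Φ J0
  · right
    obtain ⟨b, hb⟩ := hK
    obtain ⟨b', hb'⟩ := core_sub Φ hC q ⟨b, hb⟩
    -- `f w` lies in the open brick `b`
    have h2 : ∀ k, b.1.lo k < f w k ∧ f w k < b.1.hi k := by
      by_cases hbX : b ∈ X
      · rw [(hC.one b hbX).1] at hb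
        rw [mem_singleton_iff.1 hb] at wqq
        exact (hC.exact_ b hbX).inside w wqq
      · have hT := hC.tiny b hbX
        exact hT.inside w (mem_biUnion (hT.sub (hT.sub0 hb)) wqq)
    have h4 : RF Φ r₀ (f w) ∈ Pc Φ.F b :=
      (retF Φ hLa hR.pos hR.le_one).cell b (Bx.mem_set.2 fun k => ⟨(h2 k).1.le, (h2 k).2.le⟩)
    have h5 : sc (Pc Φ.F) (bc (F := Φ.F)) (RF Φ r₀ (f w)) b = 0 := (F4.sc_eq_zero hyL).2 h4
    refine ⟨b, ?_, hb⟩
    by_contra hbZ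
    by_cases c1 : b = fam (s.lab w)
    · have : va (Pc Φ.F) (bc (F := Φ.F)) (RF Φ r₀) f (fam (s.lab w)) w = 0 := by
        rw [← c1]; exact h5
      linarith [I1.1]
    by_cases c2 : b = fam (s.lab w')
    · have : va (Pc Φ.F) (bc (F := Φ.F)) (RF Φ r₀) f (fam (s.lab w')) w = 0 := by
        rw [← c2]; exact h5
      linarith [I2.1]
    have := q3 b c1 c2 hbZ
    rw [h5] at this
    exact zero_ne_one this
  · left
    refine ⟨hK, w, wqq, ?_, fun b hb => ?_⟩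
    · rw [hB]
      rintro b (rfl | rfl)
      · exact I1
      · exact I2
    · exact (F4.sc_eq_zero hyL).2 (q2 b hb)

end mach

end Crest.Agent.R096.Rone_847
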