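import Mathlib
import Crest.Agent.R096.Rone5_847
import Crest.Agent.R096.Onb2_63
import Crest.Agent.R096.E1r2_914
import Crest.Agent.R096.Gk3_422

/-! Row 96 (helper847), TYPE R (exact core tiles): **the clause `two` of 337's `Front` at the exact
cores, from the other clauses of `Front`** (`on`, `lab`, `lev`, `labX`, `actP`, `actI`), `Lay`,
`Cores`, `Words`; nothing is transported from INIT. -/

set_option autoImplicit false
set_option linter.unusedSectionVars false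
set_option linter.unusedVariables false
set_option linter.style.longLine false

open Set Relation Module

namespace Crest.Agent.R096.Rone_847

open Crest.Agent.R096.Brk1_582 Crest.Agent.R096.Brk2_582 Crest.Agent.R096.Brk3_582
open Crest.Agent.R096.Brk5_582 Crest.Agent.R096.Bsp_628
open Crest.Agent.R096.St_147 Crest.Agent.R096.Seq_213 Crest.Agent.R096.Seq_213.GSt
open Crest.Agent.R096.Lm_117 Crest.Agent.R096.Ac_117 Crest.Agent.R096.Msh_715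
open Crest.Agent.R096.Cp_298 Crest.Agent.R096.Gm_298 Crest.Agent.R096.Gl_422
open Crest.Agent.R096.SkB_662 Crest.Agent.R096.Cpo_642
open Crest.Agent.R096.Agl5_543 Crest.Agent.R096.Ori_543 Crest.Agent.R096.Coh_184
open Crest.Agent.R096.Init_543 (JJ fr3)
open Crest.Agent.R096.SkC1_961 (E3 Hom3 FoamD Cfg th)
open Crest.Agent.R096.Mbf_337 (KJ sb Cores Words Exact)
open Crest.Agent.R096.Frn_337 Crest.Agent.R096.Ecm_446 Crest.Agent.R096.Onb_63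
open Crest.Agent.R096.Leaf_965

variable {δ κ0 R c0 : ℝ} {La Om : Set E3} {ι : Type}
variable {Φ : FoamD δ κ0 R c0 La} {T : Tiling Om ι} {f : E3 → E3} {κ1 κ2 : ℝ} {X : Set Φ.F}
  {J0 Jt V : Φ.F → Set ι} {ct : Φ.F → ι} {A : Φ.F → E3 ≃ᵃ[ℝ] E3} {lam : Φ.F → ℝ} {z : Φ.F → E3}
  {θ : Φ.F → E3 → E3} {φ : Φ.F → E3 → ℝ} {M : Φ.F → ℕ}
  {ι3 : Type} {T3 : Tiling Om ι3} {KK : Ti X → Set E3} {c3 : ι → ι3}

/-! ### geometry -/

/-- two open bricks are disjoint -/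
theorem brick_ne {c c' : Φ.F} (hcc : c' ≠ c) {y : E3}
    (h1 : ∀ k, c.1.lo k < y k ∧ y k < c.1.hi k)
    (h2 : ∀ k, c'.1.lo k < y k ∧ y k < c'.1.hi k) : False := by
  obtain ⟨k, hk⟩ := Φ.bf.inv.disj c'.2 c.2 (Φ.bf.pos _ c'.2) (Φ.bf.pos _ c.2)
    (fun h => hcc (Subtype.ext h))
  have a1 := h1 k
  have a2 := h2 k
  rcases hk with hk | hk
  · linarith [a1.1, a2.2]
  · linarith [a1.2, a2.1]

/-- the tile of an exact core does not meet a tiny core -/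
theorem not_KJ (hC : Cores Φ T f κ1 κ2 X J0 Jt V ct A lam z θ φ) {c : Φ.F} (hc : c ∈ X)
    (k : Ti X) {x : E3} (hx : x ∈ P (T.H (ct c))) : x ∉ KJ T (Jt k.1) := by
  intro h
  have hT := hC.tiny k.1 k.2
  have h1 := (hC.exact_ c hc).inside x hx
  have h2 := hT.inside x (by
    obtain ⟨i, hi, hxi⟩ := mem_iUnion₂.1 h
    exact mem_biUnion (hT.sub hi) hxi)
  exact brick_ne (c := c) (c' := k.1) (fun e => k.2 (e ▸ hc)) h1 h2

variable [Nonempty T3.Cell] {hH : ∀ k, CoreH T3 (KK k)}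
    {hdis : ∀ k k', k ≠ k' → Disjoint (KK k) (KK k')} {hne : ∃ c, OutK T3 KK c}

/-- the faces of the exact core tile in `meshK T3 KK` -/
abbrev Dx (c3 : ι → ι3) (ct : Φ.F → ι) (hH : ∀ k, CoreH T3 (KK k))
    (hdis : ∀ k k', k ≠ k' → Disjoint (KK k) (KK k')) (c : Φ.F) :
    Set {F : C2 T3 // ¬ (((meshC T3 fr3).side F).map (piK T3 KK)).IsDiag} :=
  {F | Sum.inl (c3 (ct c)) ∈ (mK fr3 hH hdis).side F}

/-- **they are the 2-cells of the tile in the old tiling** -/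
theorem fd_lay (hL : Lay Φ T X J0 Jt T3 KK c3)
    (hC : Cores Φ T f κ1 κ2 X J0 Jt V ct A lam z θ φ) {c : Φ.F} (hc : c ∈ X) :
    FD (mK fr3 hH hdis) T (ct c) (Dx c3 ct hH hdis c) (fun F => F.1.pt) := by
  have hk := keep_ct hL hC hc
  have hcc := cc_ct hL hC hc
  have hout := out_ct hL hC hc
  have hside : ∀ F : {F : C2 T3 // ¬ (((meshC T3 fr3).side F).map (piK T3 KK)).IsDiag},
      F ∈ Dx c3 ct hH hdis c ↔ F.1.1.set ⊆ P (T.H (ct c)) := fun F => by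
    rw [← hk]; exact E1r_914.mem_side_K hout F
  have hpt : ∀ F ∈ Dx c3 ct hH hdis c, F.1.pt ∈ P (T.H (ct c)) := fun F hF => by
    refine (hside F).1 hF ?_
    exact set_ne F.1.1
  refine ⟨?_, ?_, ?_, ?_, ?_⟩
  · intro F hF
    have h1 := hpt F hF
    refine ⟨h1, ?_⟩
    rw [← (hcc _ h1).2]
    exact F.1.dim_pt
  · intro F hF w
    have h1 := hpt F hF
    have h2 := (hside F).1 hF
    have e1 : F.1.1.set = T.cc F.1.pt := by
      rw [← (hcc _ h1).1]; exact F.1.set_eq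
    show w ∈ F.1.On ↔ _
    unfold C2.On
    constructor
    · rintro ⟨a1, a2⟩
      have a3 : w ∈ P (T.H (ct c)) := h2 a1
      exact ⟨e1 ▸ a1, by rw [← (hcc _ a3).2]; exact a2⟩
    · rintro ⟨a1, a2⟩
      have a1' : w ∈ F.1.1.set := by rw [e1]; exact a1
      exact ⟨a1', by rw [(hcc _ (h2 a1')).2]; exact a2⟩
  · intro x hx hd
    have hxO : x ∈ Om := T.sub _ hx
    have hd3 : T3.dim x = 2 := by rw [(hcc x hx).2]; exact hd
    have hx3 : x ∈ P (T3.H (c3 (ct c))) := by rw [hk]; exact hx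
    have hset : (mk2 T3 hxO hd3).1.set = T3.cc x := T3.cl_set hxO
    have hsub : (mk2 T3 hxO hd3).1.set ⊆ P (T3.H (c3 (ct c))) := by
      rw [hset]; exact T3.cc_sub_tile hx3
    refine ⟨⟨mk2 T3 hxO hd3, out_face fr3 _ ⟨_, hout, hsub⟩⟩, ?_, ?_⟩
    · rw [hside]; rw [← hk]; exact hsub
    · have h5 : (mk2 T3 hxO hd3).pt ∈ P (T.H (ct c)) := by
        rw [← hk]; exact hsub (set_ne _)
      rw [← (hcc _ h5).1, ← (hcc _ hx).1, ← hset]
      exact (mk2 T3 hxO hd3).set_eq.symm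
  · intro F hF F' hF' h
    have h1 := hpt F hF
    have h1' := hpt F' hF'
    apply Subtype.ext
    apply C2.ext
    rw [F.1.set_eq, F'.1.set_eq, (hcc _ h1).1, (hcc _ h1').1]
    exact h
  · intro F hF u v x y hu hv hx hy h1 h2 h4 h5 hl
    have hp := hpt F hF
    have hs := (hside F).1 hF
    have hb : ∀ {w : E3}, w ∈ (mK fr3 hH hdis).On F → w ∈ F.1.bd := fun hw => F.1.on_sub_bd hw
    have hl' : ¬ (meshC T3 fr3).Lace F.1 u v x y := hl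
    rw [Lac_441.lace_iff fr3 F.1 (hb hu) (hb hv) (hb hx) (hb hy) h1 h2 h4 h5, not_not] at hl'
    obtain ⟨K, k1, k2, k3, k4, k5, k6⟩ := hl'
    refine ⟨K, k1, fun z hz => ?_, k3, k4, k5, k6⟩
    have h6 := k2 hz
    have h7 := F.1.bd_sub h6
    have h8 := (F.1.mem_bd_iff h7).1 h6
    have h9 : z ∈ P (T.H (ct c)) := hs h7
    refine ⟨?_, by rw [← (hcc _ h9).2]; exact h8⟩
    rw [← (hcc _ hp).1, ← F.1.set_eq]
    exact h7


/-! ### the state has all the points of the exact words on the exact cores -/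

variable {L : Φ.F → Finset ℝ}
    {s₀ : GSt (mK fr3 hH hdis) (fun j : JJ Φ L => j.1)}
    {lam₀ : JJ Φ L → QK (belK T3 KK) → ZMod 2}

/-- only level points -/
theorem onX_lay (hL : Lay Φ T X J0 Jt T3 KK c3)
    (hC : Cores Φ T f κ1 κ2 X J0 Jt V ct A lam z θ φ) {c : Φ.F} (hc : c ∈ X)
    (hlev : ∀ c ∈ X, ∀ w ∈ s₀.P, w ∈ P (T.H (ct c)) → Φ.lev (s₀.lab w).1 (f w) = (s₀.lab w).2.1) :
    OnX s₀ (Dx c3 ct hH hdis c) (XL Φ f (fun j : JJ Φ L => j.1) (fun j => j.2.1)) := by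
  intro F hF w hw
  have hF0 := fd_lay (hH := hH) (hdis := hdis) hL hC hc
  have h1 := (hF0.on F hF w).1 hw.2
  have h2 := hF0.mem F hF
  have hwP : w ∈ P (T.H (ct c)) := T.cc_sub_tile h2.1 h1.1
  exact hlev c hc w hw.1 hwP

/-- **all level points** -/
theorem full_lay (hLa : IsOpen La) (hL : Lay Φ T X J0 Jt T3 KK c3)
    (hC : Cores Φ T f κ1 κ2 X J0 Jt V ct A lam z θ φ) (hW : Words Φ T f X ct A lam z M L)
    (hvert : ∀ j : JJ Φ L, ∀ x ∈ Om, T.dim x = 0 → Φ.lev j.1 (f x) ≠ j.2.1)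
    (hlab : ∀ j, GLab (lmK fr3 hH hdis hne) (gp s₀ j) (lam₀ j))
    (hlev : ∀ c ∈ X, ∀ w ∈ s₀.P, w ∈ P (T.H (ct c)) → Φ.lev (s₀.lab w).1 (f w) = (s₀.lab w).2.1)
    (hlabX : ∀ c ∈ X, ∀ v : {c : T3.Cell // OutK T3 KK c}, v.1.dim = 0 → v.1.set ⊆ P (T.H (ct c)) →
      ∀ j : JJ Φ L, lam₀ j (QK.c _ v) = 1 ↔ Φ.lev j.1 (f v.1.pt) < j.2.1) {c : Φ.F} (hc : c ∈ X)
    (j : JJ Φ L) :
    Full s₀ (Dx c3 ct hH hdis c) (XL Φ f (fun j : JJ Φ L => j.1) (fun j => j.2.1)) j := by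
  classical
  have hE := hC.exact_ c hc
  have hG := cg_core hLa hc hE hW
  have hCW := cw_core (f := f) (T := T) (J := JJ Φ L) (fam := fun j => j.1) (t := fun j => j.2.1)
    hc hW (fun j => j.2.2)
  have hWX := wx_core (J := JJ Φ L) (fam := fun j => j.1) (t := fun j => j.2.1) hLa hc hE hW
    (fun j => j.2.2) hvert
  have hF := fd_lay (hH := hH) (hdis := hdis) hL hC hc
  have hk := keep_ct hL hC hc
  have hcc := cc_ct hL hC hc
  have hout := out_ct hL hC hc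
  intro F hFD w hw hwX
  have hm := hF.mem F hFD
  have hw2 := (hF.on F hFD w).1 hw
  have hwP : w ∈ P (T.H (ct c)) := cc_sub_tile hG hm.1 (by omega) hw2.1
  have jw : Jp T (ct c) (XL Φ f (fun j : JJ Φ L => j.1) (fun j => j.2.1)) j w := ⟨hwP, hw2.2, hwX⟩
  obtain ⟨-, c1, c2, -, -⟩ := jp_act hG hCW hWX jw
  have hd2 : T.dim w ≤ 2 := by rw [hw2.2]; norm_num
  have hsub : T.cc w ⊆ P (T.H (ct c)) := fun y hy => cc_sub_tile hG hwP hd2 hy
  have hwO : w ∈ Om := T.sub _ hwP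
  -- the edge as a cell of `T3`
  set e : T3.Cell := T3.cl hwO with he
  have hes : e.set = T.cc w := by rw [he, T3.cl_set]; exact (hcc w hwP).1
  have hed : e.dim = 1 := by rw [he, T3.dim_cl hwO, (hcc w hwP).2]; exact hw2.2
  have heo : OutK T3 KK e := ⟨_, hout, by rw [hes, hk]; exact hsub⟩
  obtain ⟨o1, e1⟩ := en_K (h3 := fr3) (hH := hH) (hdis := hdis) (hne := hne) heo hed false
  obtain ⟨o2, e2⟩ := en_K (h3 := fr3) (hH := hH) (hdis := hdis) (hne := hne) heo hed true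
  have hsum := hlab j (oc e heo) hed
  rw [e1, e2, on_K heo] at hsum
  obtain ⟨q1, q2, q3⟩ := ep_spec hed
  -- the ends of the edge
  have hvx : ∀ b, (enC e b).pt ∈ T.cc w ∧ T.dim (enC e b).pt = 0 := fun b => by
    rw [en_pt hed]
    have h1 := (q3 b).2
    rw [hes] at h1
    exact ⟨h1, by rw [← (hcc _ (hsub h1)).2]; exact (q3 b).1⟩
  have hl : ∀ b (o : OutK T3 KK (enC e b)), lam₀ j (oc (enC e b) o) = 1 ↔
      Uc Φ A lam z M c (enC e b).pt j.1 < M c * j.2.1 := by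
    intro b o
    obtain ⟨h1, h2⟩ := hvx b
    have h3 : (enC e b).dim = 0 := by
      have := (q3 b).1
      rw [← en_pt hed] at this
      exact this
    have h4 : (enC e b).set ⊆ P (T.H (ct c)) := by
      rw [(enC e b).set_eq, (hcc _ (hsub h1)).1]
      exact (T.cc_sub_of_mem h1).trans hsub
    have h5 := hlabX c hc ⟨enC e b, o⟩ h3 h4 j
    refine h5.trans ?_
    exact hCW.side _ (hsub h1) h2 j
  obtain ⟨p, hp, hp0, hpU⟩ := hG.exists_lo hwP hd2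
  obtain ⟨r, hr, hr0, hrU⟩ := hG.exists_hi hwP hd2
  have hend : ∀ y ∈ T.cc w, T.dim y = 0 → y = (enC e false).pt ∨ y = (enC e true).pt := by
    intro y hy h0
    rw [en_pt hed, en_pt hed]
    have hcc3 : T3.cc w = segment ℝ (epE e false) (epE e true) := by
      rw [(hcc w hwP).1, ← hes]; exact q2
    exact T3.vertex_of_edge hwO (by rw [(hcc w hwP).2]; exact hw2.2) hcc3
      (by rw [(hcc w hwP).1]; exact hy) (by rw [(hcc y (hsub hy)).2]; exact h0)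
  have hpl : Uc Φ A lam z M c p j.1 < M c * j.2.1 := by rw [hpU]; exact c1
  have hrl : ¬ Uc Φ A lam z M c r j.1 < M c * j.2.1 := by rw [hrU]; exact not_lt.2 c2.le
  have h5 : ∀ a : ZMod 2, a ≠ 1 → a = 0 := by decide
  have hsum1 : lam₀ j (oc (enC e false) o1) + lam₀ j (oc (enC e true) o2) = 1 := by
    rcases hend p hp hp0 with h | h <;> rcases hend r hr hr0 with h' | h'
    · rw [h, ← h'] at hpl; exact absurd hpl hrl
    · rw [h] at hpl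
      rw [h'] at hrl
      rw [(hl false o1).2 hpl, h5 _ (fun h6 => hrl ((hl true o2).1 h6)), add_zero]
    · rw [h] at hpl
      rw [h'] at hrl
      rw [(hl true o2).2 hpl, h5 _ (fun h6 => hrl ((hl false o1).1 h6)), zero_add]
    · rw [h, ← h'] at hpl; exact absurd hpl hrl
  rw [hsum1] at hsum
  obtain ⟨u, hu1, hu2⟩ : ∃ u ∈ gp s₀ j, u ∈ {w | w ∈ W1 T3 ∧ edC T3 w = e} := by
    by_contra hno
    push Not at hno
    have h7 : nW (gp s₀ j) {w | w ∈ W1 T3 ∧ edC T3 w = e} = 0 := by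
      unfold nW
      exact Finset.sum_eq_zero (fun u hu => if_neg (hno u hu))
    exact one_ne_zero (hsum.trans h7)
  obtain ⟨hu3, hu4⟩ := mem_gp.1 hu1
  have hue : u ∈ e.set := (edC_eq hu2.1 hed).1 hu2.2
  rw [hes] at hue
  have huX := hlev c hc u hu3 (hsub hue)
  rw [hu4] at huX
  have := hCW.one w hwP hw2.2 j u hue w (T.self_mem_cc w) huX hwX
  rw [← this]
  exact ⟨hu3, hu4⟩

/-! ### the clause `two` -/

/-- the sides of the faces of an exact core tile are uncut tiles -/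
theorem side_lay (hL : Lay Φ T X J0 Jt T3 KK c3)
    (hC : Cores Φ T f κ1 κ2 X J0 Jt V ct A lam z θ φ) {c : Φ.F} (hc : c ∈ X)
    {F : {F : C2 T3 // ¬ (((meshC T3 fr3).side F).map (piK T3 KK)).IsDiag}}
    (hF : F ∈ Dx c3 ct hH hdis c) {q : ι3 ⊕ Ti X} (hq : q ∈ (mK fr3 hH hdis).side F) :
    ∃ i, q = Sum.inl (c3 i) ∧ (∀ k, ¬ P (T3.H (c3 i)) ⊆ KK k) ∧ F.1.1.set ⊆ P (T3.H (c3 i)) ∧
      P (T3.H (c3 i)) = P (T.H i) := by
  have hF0 := fd_lay (hH := hH) (hdis := hdis) hL hC hc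
  have hpt := (hF0.mem F hF).1
  have hq' : q ∈ ((meshC T3 fr3).side F.1).map (piK T3 KK) := hq
  rw [mem_map_iff] at hq'
  obtain ⟨q₀, h1, h2⟩ := hq'
  have h4 : F.1.1.set ⊆ P (T3.H q₀) := C2.sub_tile (h3 := fr3) h1
  have h5 : F.1.pt ∈ P (T3.H q₀) := h4 (set_ne F.1.1)
  have hout : ∀ k, ¬ P (T3.H q₀) ⊆ KK k := fun k hk =>
    not_KJ hC hc k hpt (hL.sub k (hk h5))
  rcases hL.lay q₀ hout with ⟨i, rfl, hi⟩ | ⟨k, i, hi, -, hs⟩
  · exact ⟨i, by rw [← h2]; exact piK_inl.2 ⟨rfl, hout⟩, hout, h4, hL.keep i hi⟩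
  · exact absurd (mem_biUnion hi (hs h5)) (not_KJ hC hc k hpt)

variable {Qd : Quads (ι3 ⊕ Ti X) Φ.F (Init_543.QK (Pc Φ.F))}

/-- **(E2) AT THE EXACT CORES**: the clause `two` of `Front` for `c ∈ X` -/
theorem two_ct' (hLa : IsOpen La) (hδ : 0 < δ) (hR0 : 0 < R) (h0 : 0 ≤ κ1) (h2 : 0 < κ2)
    (h12 : 2 * κ0 * κ1 ≤ κ2) (hL : Lay Φ T X J0 Jt T3 KK c3)
    (hC : Cores Φ T f κ1 κ2 X J0 Jt V ct A lam z θ φ) (hW : Words Φ T f X ct A lam z M L)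
    {μ : ℝ} (hμ0 : 0 < μ) (hμ : Chl δ κ0 R c0 κ2 * κ1 < μ)
    (marg : ∀ c, ∀ t ∈ L c, μ ≤ t ∧ t ≤ 1 - μ)
    (vert : ∀ c, ∀ t ∈ L c, ∀ x ∈ Om, T.dim x = 0 → Φ.lev c (f x) ≠ t)
    {g : Φ.F → E3 → ℝ} (hg : ∀ a, ContinuousOn (g a) Om)
    (hgl : ∀ a, ∀ x ∈ Om, T.dim x ≤ 1 → g a x = Φ.lev a (f x))
    (hlab : ∀ j, GLab (lmK fr3 hH hdis hne) (gp s₀ j) (lam₀ j))
    (hlev : ∀ c ∈ X, ∀ w ∈ s₀.P, w ∈ P (T.H (ct c)) → Φ.lev (s₀.lab w).1 (f w) = (s₀.lab w).2.1)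
    (hlabX : ∀ c ∈ X, ∀ v : {c : T3.Cell // OutK T3 KK c}, v.1.dim = 0 → v.1.set ⊆ P (T.H (ct c)) →
      ∀ j : JJ Φ L, lam₀ j (QK.c _ v) = 1 ↔ Φ.lev j.1 (f v.1.pt) < j.2.1)
    (actP : ∀ k i3, Sum.inl i3 ∈ Qd.Act k → ∀ i, P (T3.H i3) ⊆ P (T.H i) → ∀ x ∈ P (T.H i),
      (∀ a ∈ k.B, Φ.lev a (f x) ∈ Ioo (0:ℝ) 1) ∧ ∀ a ∈ k.Z, Φ.lev a (f x) = 0)
    (actI : ∀ k i3, (∀ k', ¬ P (T3.H i3) ⊆ KK k') → ∀ i, (∀ c, i ∉ J0 c) →
      P (T3.H i3) ⊆ P (T.H i) → ∀ x ∈ P (T.H i),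
      (∀ a ∈ k.B, ∃ w ∈ s₀.P, (s₀.lab w).1 = a ∧ w ∈ P (T3.H i3)) →
      (∀ a ∈ k.Z, Φ.lev a (f x) = 0) → Sum.inl i3 ∈ Qd.Act k) :
    ∀ c ∈ X, ∀ k, c ∈ k.Z → ∀ j j' : JJ Φ L, j.1 ∈ k.B → j'.1 ∈ k.B → j.1 ≠ j'.1 →
      Two s₀ (Qd.Act k) {cti X c3 ct c} j j' := by
  classical
  intro c hc k hcZ j j' hj hj' hjj
  have hcti : cti X c3 ct c = Sum.inl (c3 (ct c)) := by
    unfold cti; rw [dif_neg (not_not.2 hc)]
  rw [hcti]
  have Fm := foamΦ hLa Φ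
  have hE := hC.exact_ c hc
  have hM : 0 < M c := (hW.grid c hc).1
  have hM' : (0 : ℝ) < M c := by exact_mod_cast hM
  have hG := cg_core hLa hc hE hW
  have hvert : ∀ j : JJ Φ L, ∀ x ∈ Om, T.dim x = 0 → Φ.lev j.1 (f x) ≠ j.2.1 :=
    fun j => vert j.1 j.2.1 j.2.2
  have hCW := cw_core (f := f) (T := T) (J := JJ Φ L) (fam := fun j => j.1) (t := fun j => j.2.1)
    hc hW (fun j => j.2.2)
  have hWX := wx_core (J := JJ Φ L) (fam := fun j => j.1) (t := fun j => j.2.1) hLa hc hE hW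
    (fun j => j.2.2) hvert
  have hHX := hx_core (c := c) (J := JJ Φ L) (fam := fun j => j.1) (t := fun j => j.2.1) hc hW
    (fun j => j.2.2) (g := fun j => g j.1) (fun j => hg j.1) (fun j => hgl j.1)
  have hF := fd_lay (hH := hH) (hdis := hdis) hL hC hc
  have hX := onX_lay (hH := hH) (hdis := hdis) hL hC hc hlev
  have hfull := full_lay (hne := hne) hLa hL hC hW hvert hlab hlev hlabX hc
  have hcc := cc_ct hL hC hc
  have hB : k.B = {j.1, j'.1} := by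
    obtain ⟨b, -, -, hb⟩ := k.exists_other hj
    rw [hb] at hj' ⊢
    rcases hj' with h | h
    · exact absurd h.symm hjj
    · rw [mem_singleton_iff.1 h]
  have hB' : k.B = {j'.1, j.1} := by rw [hB, Set.pair_comm]
  have ht : ∀ j : JJ Φ L, (j.2.1 : ℝ) ∈ Icc μ (1 - μ) := fun j => marg j.1 j.2.1 j.2.2
  have tI : ∀ j : JJ Φ L, (j.2.1 : ℝ) ∈ Ioo (0 : ℝ) 1 := fun j =>
    ⟨hμ0.trans_le (ht j).1, by linarith [(ht j).2]⟩
  have hμ1 : μ < 1 := by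
    have h5 := (ht j).1
    have h6 := (tI j).2
    linarith
  obtain ⟨x₀, hx, hxI, xa, xa', xZ, xo⟩ := exists_sq hLa hE hcZ hjj hB (tI j) (tI j')
  have hd := (dim_le_two_iff hx).2 hxI
  have hU : ∀ y e, Uc Φ A lam z M c y e = M c * sb Φ (th (A c) (lam c) (z c) y) e :=
    fun _ _ => rfl
  have ua : Uc Φ A lam z M c x₀ j.1 = M c * j.2.1 := by rw [hU, xa]
  have ua' : Uc Φ A lam z M c x₀ j'.1 = M c * j'.2.1 := by rw [hU, xa']
  have n1 := fl_of_nonint (mul_nonneg hM'.le (tI j).1.le)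
    (nonint hLa hE hc hW hcZ hjj hB (tI j) j.2.2)
  have n2 := fl_of_nonint (mul_nonneg hM'.le (tI j').1.le)
    (nonint hLa hE hc hW hcZ hjj.symm hB' (tI j') j'.2.2)
  have hact : {b | ⌊Uc Φ A lam z M c x₀ b⌋₊ < ⌈Uc Φ A lam z M c x₀ b⌉₊} = {j.1, j'.1} := by
    ext b
    simp only [mem_ofPred_eq, mem_insert_iff, mem_singleton_iff]
    constructor
    · intro h
      by_contra hb
      push Not at hb
      by_cases hb2 : b ∈ k.Z
      · rw [hU, xZ b hb2, mul_zero] at h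
        simp at h
      · rw [hU, xo b hb.1 hb.2 hb2, mul_one, Nat.floor_natCast, Nat.ceil_natCast] at h
        exact lt_irrefl _ h
    · rintro (rfl | rfl)
      · rw [ua]; exact_mod_cast n1.1.trans n1.2
      · rw [ua']; exact_mod_cast n2.1.trans n2.2
  have hd2 : T.dim x₀ = 2 := by rw [hG.dim x₀ hx hd, hact, ncard_pair hjj]
  refine two_core hF hG hCW hWX hHX hX (A := Qd.Act k) (B := {Sum.inl (c3 (ct c))})
    (fun F hF' => ?_) (fun F hF' => ⟨_, hF', rfl⟩) hjj (hfull j) (hfull j') hx hd2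
    (fun b => if b ∈ k.Z then 0 else M c) (by rw [ua]; exact n1.1) (by rw [ua]; exact n1.2)
    (by rw [ua']; exact n2.1) (by rw [ua']; exact n2.2) (fun b hb hb' => ?_)
    (fun F hFD hFx => ?_) (fun F hFD hFT x y hxF hyF hxl hyl b hb hb' => ?_)
  · obtain ⟨q, hq, hq'⟩ := hF'
    rw [mem_singleton_iff] at hq'
    rw [hq'] at hq
    exact hq
  · by_cases h : b ∈ k.Z
    · rw [if_pos h, hU, xZ b h, mul_zero, Nat.cast_zero]
    · rw [if_neg h, hU, xo b hb hb' h, mul_one]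
  · -- the crossing square touches an active tile
    have hFs : Sum.inl (c3 (ct c)) ∈ (mK fr3 hH hdis).side F := hFD
    obtain ⟨q', hq'⟩ := Sym2.mem_iff_exists.1 hFs
    have hne' : q' ≠ Sum.inl (c3 (ct c)) := by
      intro e
      have := (mK fr3 hH hdis).side_nd F
      rw [hq', e] at this
      exact this rfl
    have hq's : q' ∈ (mK fr3 hH hdis).side F := by rw [hq']; exact Sym2.mem_mk_right _ _
    obtain ⟨i, rfl, hout, hFi, hPi⟩ := side_lay hL hC hc hFD hq's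
    have hic : i ≠ ct c := fun e => hne' (by rw [e])
    have hm := hF.mem F hFD
    have hFset : F.1.1.set = T.cc x₀ := by
      rw [← hFx, ← (hcc _ hm.1).1]; exact F.1.set_eq
    have hx0F : x₀ ∈ F.1.1.set := by rw [hFset]; exact T.self_mem_cc x₀
    have hx0i : x₀ ∈ P (T.H i) := by rw [← hPi]; exact hFi hx0F
    obtain ⟨hiJ, y, hy, -, hyZ⟩ := act_square (μ := μ) (s := μ - Chl δ κ0 R c0 κ2 * κ1) hLa hδ hR0 h0 h2
      h12 hC hc k hjj hB (by linarith) (by linarith) (by linarith) hx hxI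
      (by rw [xa]; exact ht j) (by rw [xa']; exact ht j') xZ hic hx0i
    refine ⟨_, hq's, actI k (c3 i) hout i hiJ hPi.le y hy ?_ hyZ⟩
    have pts : ∀ j : JJ Φ L, (⌊Uc Φ A lam z M c x₀ j.1⌋₊ : ℝ) < M c * j.2.1 →
        (M c * j.2.1 : ℝ) < ⌈Uc Φ A lam z M c x₀ j.1⌉₊ →
        ∃ w ∈ s₀.P, (s₀.lab w).1 = j.1 ∧ w ∈ P (T3.H (c3 i)) := by
      intro j a1 a2
      obtain ⟨v, v1, v2, -⟩ := exists_jp (fam := fun j : JJ Φ L => j.1)
        (τ := fun j => (M c : ℝ) * j.2.1) (j := j) hG hWX hx hd a1 a2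
      have v3 := on_of_jp hF hG hCW hFD hFx v2 v1
      obtain ⟨v4, v5⟩ := hfull j F hFD v v3 v2.2.2
      exact ⟨v, v4, by rw [v5], hFi (by rw [hFset]; exact v1)⟩
    rw [hB]
    rintro a (rfl | rfl)
    · exact pts j (by rw [ua]; exact n1.1) (by rw [ua]; exact n1.2)
    · exact pts j' (by rw [ua']; exact n2.1) (by rw [ua']; exact n2.2)
  · -- uniqueness
    obtain ⟨q, hq, hqA⟩ := hFT
    obtain ⟨i, rfl, hout, hFi, hPi⟩ := side_lay hL hC hc hFD hq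
    have hm := hF.mem F hFD
    have hpI : F.1.pt ∉ I (T.H (ct c)) := (dim_le_two_iff hm.1).1 hm.2.le
    have hpi : F.1.pt ∈ P (T.H i) := by rw [← hPi]; exact hFi (set_ne _)
    obtain ⟨-, hz0⟩ := actP k (c3 i) hqA i hPi.le _ hpi
    have k1 := act_of_at hF hG hCW hWX hX hFD hxF
    have k2 := act_of_at hF hG hCW hWX hX hFD hyF
    rw [hxl] at k1
    rw [hyl] at k2
    have i1 := sb_Ioo (M := M) hLa hE hm.1 (a := j.1) (by
      rw [k1.1, k1.2]; exact Nat.lt_succ_self _)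
    have i2 := sb_Ioo (M := M) hLa hE hm.1 (a := j'.1) (by
      rw [k2.1, k2.2]; exact Nat.lt_succ_self _)
    have haZ : j.1 ∉ k.Z := fun h => disjoint_left.1 k.dis hj h
    have haZ' : j'.1 ∉ k.Z := fun h => disjoint_left.1 k.dis hj' h
    have hw1 : th (A c) (lam c) (z c) F.1.pt ∈ Pc Φ.F c := (Ecm_446.th_mem hE).1 hm.1
    have hw2 := Hlf_847.th_wall hE hLa hm.1 hpI
    obtain ⟨-, q2, q3⟩ := quad_at Fm hjj k.cZ haZ haZ' hw1 hw2 i1 i2 (fun e he => by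
      have h5 := abs_le.1 (close_c hLa hδ hR0 h0 h2 h12 hE hm.1 hpI e)
      rw [hz0 e he] at h5
      show sb Φ (th (A c) (lam c) (z c) F.1.pt) e < 1
      linarith [h5.1])
    by_cases h : b ∈ k.Z
    · have h6 : sb Φ (th (A c) (lam c) (z c) F.1.pt) b = 0 :=
        (Fm.sc_eq_zero (Fm.sub c hw1)).2 (q2 b h)
      rw [if_pos h, hU, h6, mul_zero, Nat.cast_zero]
    · have h6 : sb Φ (th (A c) (lam c) (z c) F.1.pt) b = 1 := q3 b hb hb' h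
      rw [if_neg h, hU, h6, mul_one]

/-- the data of INIT from the exact and tiny cores -/
theorem exists_initR_cores (hLa : IsOpen La) (hf : Hom3 f Om La) (h0 : 0 ≤ κ1) (h2 : 0 < κ2)
    (h12 : 2 * κ0 * κ1 ≤ κ2) (hC : Cores Φ T f κ1 κ2 X J0 Jt V ct A lam z θ φ) :
    ∃ (g : E3 → E3) (ct' : Φ.F → ι) (r₀ : Φ.F → ℝ), Init_543.InitR Φ T f g J0 ct' r₀ := by
  obtain ⟨g0, H0⟩ := Init_543.exists_hm3 hf
  exact Init_543.exists_initR Φ hLa hf (Init_543.holeJ_of_cores Φ H0 hC h0 (by linarith) h2.le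
    fun c hc => (hC.tiny c hc).mem)

/-- **(E2) AT THE EXACT CORES**: the clause `two` of `Front` for `c ∈ X` -/
theorem two_ct (hLa : IsOpen La) (hf : Hom3 f Om La) (hδ : 0 < δ) (hR0 : 0 < R) (h0 : 0 ≤ κ1)
    (h2 : 0 < κ2) (h12 : 2 * κ0 * κ1 ≤ κ2) (hL : Lay Φ T X J0 Jt T3 KK c3)
    (hC : Cores Φ T f κ1 κ2 X J0 Jt V ct A lam z θ φ) (hW : Words Φ T f X ct A lam z M L)
    {μ : ℝ} (hμ0 : 0 < μ) (hμ : Chl δ κ0 R c0 κ2 * κ1 < μ)
    (marg : ∀ c, ∀ t ∈ L c, μ ≤ t ∧ t ≤ 1 - μ)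
    (vert : ∀ c, ∀ t ∈ L c, ∀ x ∈ Om, T.dim x = 0 → Φ.lev c (f x) ≠ t)
    (hlab : ∀ j, GLab (lmK fr3 hH hdis hne) (gp s₀ j) (lam₀ j))
    (hlev : ∀ c ∈ X, ∀ w ∈ s₀.P, w ∈ P (T.H (ct c)) → Φ.lev (s₀.lab w).1 (f w) = (s₀.lab w).2.1)
    (hlabX : ∀ c ∈ X, ∀ v : {c : T3.Cell // OutK T3 KK c}, v.1.dim = 0 → v.1.set ⊆ P (T.H (ct c)) →
      ∀ j : JJ Φ L, lam₀ j (QK.c _ v) = 1 ↔ Φ.lev j.1 (f v.1.pt) < j.2.1)
    (actP : ∀ k i3, Sum.inl i3 ∈ Qd.Act k → ∀ i, P (T3.H i3) ⊆ P (T.H i) → ∀ x ∈ P (T.H i),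
      (∀ a ∈ k.B, Φ.lev a (f x) ∈ Ioo (0:ℝ) 1) ∧ ∀ a ∈ k.Z, Φ.lev a (f x) = 0)
    (actI : ∀ k i3, (∀ k', ¬ P (T3.H i3) ⊆ KK k') → ∀ i, (∀ c, i ∉ J0 c) →
      P (T3.H i3) ⊆ P (T.H i) → ∀ x ∈ P (T.H i),
      (∀ a ∈ k.B, ∃ w ∈ s₀.P, (s₀.lab w).1 = a ∧ w ∈ P (T3.H i3)) →
      (∀ a ∈ k.Z, Φ.lev a (f x) = 0) → Sum.inl i3 ∈ Qd.Act k) :
    ∀ c ∈ X, ∀ k, c ∈ k.Z → ∀ j j' : JJ Φ L, j.1 ∈ k.B → j'.1 ∈ k.B → j.1 ≠ j'.1 →
      Two s₀ (Qd.Act k) {cti X c3 ct c} j j' := by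
  obtain ⟨g, ct', r₀, hR⟩ := exists_initR_cores hLa hf h0 h2 h12 hC
  have hg : ∀ a, ContinuousOn (Init_543.vF Φ r₀ f a) Om := fun a =>
    Init_543.continuousOn_va hR.hm (foamΦ hLa Φ) (Init_543.retF Φ hLa hR.pos hR.le_one) a
  exact two_ct' hLa hδ hR0 h0 h2 h12 hL hC hW hμ0 hμ marg vert hg
    (fun a x hx hd => hR.v_eq' Φ hLa hx (by omega) a) hlab hlev hlabX actP actI

end Crest.Agent.R096.Rone_847
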