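import Crest.Agent.R096.Frs1_662
import Crest.Agent.R096.Frp1_534
import Crest.Agent.R096.Lmx3_662
import Crest.Agent.R096.Mch3_337
import Crest.Agent.R096.Rtw1_847

/-!
# R096 (row 96), FRONT (helper662): the shell of 534's `FrontP`, part 2

`DoorsP` : what DOORS has to prove, with all objects of INIT given (`InitR`, `Mesh0`, `GF`, `InitS`,
`VxD`), over 471's slicing `sla` of the tiny cores and the quads `Qdl_662.qdT`;
`frontPb_of : DoorsPb b → FrontPb b`, `frontP_of : DoorsP → FrontP`, `machBF_of_doors`.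
-/

set_option autoImplicit false
set_option linter.unusedSectionVars false
set_option linter.unusedVariables false
set_option linter.style.longLine false

open Set Relation Module Topology Filter Metric MeasureTheory

namespace Crest.Agent.R096.Frs_662

open Crest.Agent.R096.Brk1_582 Crest.Agent.R096.Brk2_582 Crest.Agent.R096.Brk3_582
open Crest.Agent.R096.Brk5_582 Crest.Agent.R096.Bsp_628
open Crest.Agent.R096.St_147 Crest.Agent.R096.Seq_213 Crest.Agent.R096.Seq_213.GSt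
open Crest.Agent.R096.Lm_117 Crest.Agent.R096.Ac_117 Crest.Agent.R096.Msh_715
open Crest.Agent.R096.Cp_298 Crest.Agent.R096.Gm_298 Crest.Agent.R096.Gl_422
open Crest.Agent.R096.SkB_662 Crest.Agent.R096.Cpo_642
open Crest.Agent.R096.Agl5_543 Crest.Agent.R096.Ori_543
open Crest.Agent.R096.Init_543 Crest.Agent.R096.Qdl_662 Crest.Agent.R096.Lmx_662
open Crest.Agent.R096.SkC1_961 (E3 Hom3 FoamD Cfg th NN)
open Crest.Agent.R096.Mbf_337 (Star Cores Fine Levels Words KJ sb)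
open Crest.Agent.R096.Frn_337 Crest.Agent.R096.Mno_534

/-- **471's slicing of the tiny cores** for given `Cores` -/
noncomputable abbrev slC {δ κ0 R c0 : ℝ} {La Om : Set E3} {ι : Type} {Φ : FoamD δ κ0 R c0 La}
    {T : Tiling Om ι} {f : E3 → E3} {κ1 κ2 : ℝ} {X : Set Φ.F} {J0 J V : Φ.F → Set ι}
    {ct : Φ.F → ι} {A : Φ.F → E3 ≃ᵃ[ℝ] E3} {lam : Φ.F → ℝ} {z : Φ.F → E3} {θ : Φ.F → E3 → E3}
    {φ : Φ.F → E3 → ℝ} (hLa : IsOpen La) (hC : Cores Φ T f κ1 κ2 X J0 J V ct A lam z θ φ)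
    (n : Ti X → ℕ) (hn : ∀ c, 0 < n c) : Sla_184.Sla T (Ti X) := Slt_471.sla hLa hC.tiny n hn

/-- **WHAT DOORS HAS TO PROVE** (`b` = bound of `κp`) -/
def DoorsPb (b : ℝ) : Prop :=
  ∀ δ κ0 R c0 κ2 κ3 : ℝ, 0 < δ → 1 ≤ κ0 → 1 ≤ R → 0 < c0 → 0 < κ2 → 8 ≤ κ3 →
  ∀ κp : ℝ, 0 < κp → κp ≤ b → ∀ μ : ℝ, 0 < μ → μ ≤ κp →
  ∃ s₁ s' κd : ℝ, 0 < s₁ ∧ s₁ < s' ∧ 0 < κd ∧
  ∀ κ1 : ℝ, 0 < κ1 → κ1 ≤ κd → ∀ (h1 : κ1 < s₁) (h2 : κ1 < 1),
  ∀ (Om La : Set E3) (f g : E3 → E3), IsOpen Om → Bornology.IsBounded Om → IsConnected Om →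
    ∀ hLa : IsOpen La, Bornology.IsBounded La → IsConnected La → Hom3 f Om La →
  ∀ (Φ : FoamD δ κ0 R c0 La) (ι : Type) (T : Tiling Om ι) (X : Set Φ.F) (J0 J V : Φ.F → Set ι)
    (ct : Φ.F → ι) (A : Φ.F → E3 ≃ᵃ[ℝ] E3) (lam : Φ.F → ℝ) (z : Φ.F → E3) (θ : Φ.F → E3 → E3)
    (φ : Φ.F → E3 → ℝ) (M : Φ.F → ℕ),
    Star Φ → ∀ hC : Cores Φ T f κ1 κ2 X J0 J V ct A lam z θ φ, Fine Φ T f κ1 J0 →
  ∀ (ct' : Φ.F → ι) (r₀ : Φ.F → ℝ) (hR : InitR Φ T f g J0 ct' r₀)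
    (hM : Mesh0 T (Pc Φ.F) (bc (F := Φ.F)) (RF Φ r₀) f (KorJ Φ J0) κ1),
  ∃ (Z : Φ.F → Set ℝ) (m0 : Φ.F → ℕ), (∀ c, volume (Z c) = 0) ∧
  ∀ (κ : Φ.F → ℕ) (L : Φ.F → Finset ℝ), Levels Φ T f κp μ κ3 Z m0 κ L →
    Words Φ T f X ct A lam z M L →
  ∀ [Nonempty (JJ Φ L)] (hG : GF Φ r₀ T f L) (D : Φ.F → Set E3) (bp : JJ Φ L → E3)
    (lam₀ : JJ Φ L → E3 → ZMod 2) (v₀ v₁ : Φ.F → E3),
    InitS hLa hR hM h1 h2 hG D bp lam₀ v₀ v₁ →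
  ∀ (q0 q1 : Φ.F → ι) (w0 w1 x0 x1 : Φ.F → E3), VxD Φ T f V D q0 q1 w0 w1 x0 x1 →
  ∃ (n : Ti X → ℕ) (hn : ∀ c, 0 < n c), ∀ [Nonempty (slC hLa hC n hn).T3.Cell]
    (hne : ∃ c, OutK (slC hLa hC n hn).T3 (slC hLa hC n hn).KK c),
  ∃ (s₀ : GSt (mK fr3 (Lay_316.lay_sla hLa hC n hn).core (Lay_316.lay_sla hLa hC n hn).disj)
      (fun j : JJ Φ L => j.1)) (far₀ : JJ Φ L → Set E3) (Gc : Φ.F → Set E3)
    (Zc : Φ.F → Set (QK (belK (slC hLa hC n hn).T3 (slC hLa hC n hn).KK)))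
    (lm : JJ Φ L → QK (belK (slC hLa hC n hn).T3 (slC hLa hC n hn).KK) → ZMod 2)
    (u₀ u₁ : Φ.F → QK (belK (slC hLa hC n hn).T3 (slC hLa hC n hn).KK)),
    FrontM T f J0 V ct (Lay_316.c3 (slC hLa hC n hn)) (fun p => p.tile) s'
      (Lay_316.lay_sla hLa hC n hn).core (Lay_316.lay_sla hLa hC n hn).disj hne
      (qdT (fun p : T.RIdx (slC hLa hC n hn).HH => p.tile) (sla_sub (slC hLa hC n hn))
        (slC hLa hC n hn).KK hLa hR hM h1 h2) s₀ far₀ Gc Zc lm u₀ u₁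

/-- `DoorsPb 1` -/
def DoorsP : Prop := DoorsPb 1

/-! ### the shell -/

section aux

variable {δ κ0 R c0 : ℝ} {La Om : Set E3} {ι : Type} {Φ : FoamD δ κ0 R c0 La}
  {T : Tiling Om ι} {f : E3 → E3} {κ1 κ2 : ℝ} {X : Set Φ.F} {J0 J V : Φ.F → Set ι} {ct : Φ.F → ι}
  {A : Φ.F → E3 ≃ᵃ[ℝ] E3} {lam : Φ.F → ℝ} {z : Φ.F → E3} {θ : Φ.F → E3 → E3} {φ : Φ.F → E3 → ℝ}

/-- a tile in no `V c` is in no tiny core -/
theorem out_of_V (hC : Cores Φ T f κ1 κ2 X J0 J V ct A lam z θ φ) {q : ι} (hq : ∀ c, q ∉ V c)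
    (k : Ti X) : ¬ P (T.H q) ⊆ KJ T (J k.1) := fun h =>
  hq k.1 (Nr_527.J_sub hC k.1 (Slt_471.sub_KJ_iff.1 h))

end aux

/-- **`FrontPb b` FROM `DoorsPb b`** -/
theorem frontPb_of {b : ℝ} (hD : DoorsPb b) : Mch_337.FrontPb b := by
  intro δ κ0 R c0 κ2 κ3 hδ hκ0 hR hc0 hκ2 hκ3 κp hp hpb μ hμ hμp
  obtain ⟨s₁, s', κd, hs1, hs2, hκd, hDo⟩ := hD δ κ0 R c0 κ2 κ3 hδ hκ0 hR hc0 hκ2 hκ3 κp hp hpb μ hμ
    hμp
  have hκ0' : 0 < κ0 := zero_lt_one.trans_le hκ0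
  have hR0 : 0 < R := zero_lt_one.trans_le hR
  set Ch : ℝ := Leaf_965.Chl δ κ0 R c0 κ2 with hCh
  have hCa : 0 ≤ |Ch| := abs_nonneg _
  obtain ⟨κ1, hκ1, g1, g3, g4, g5, g6, g7, g8⟩ : ∃ κ1 : ℝ, 0 < κ1 ∧ κ1 ≤ κd ∧ κ1 < s₁ ∧
      κ1 < 1 ∧ s₁ + κ1 ≤ s' ∧ κ1 < μ ∧ 2 * κ0 * κ1 < κ2 ∧ Ch * κ1 < μ := by
    have q1 : 0 < κ2 / (4 * κ0) := by positivity
    have q2 : 0 < s' - s₁ := sub_pos.2 hs2
    have q3 : 0 < μ / (2 * (|Ch| + 1)) := by positivity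
    obtain ⟨κ1, h0, k1, k2, k3, k4, k5, k6⟩ : ∃ κ1 : ℝ, 0 < κ1 ∧ κ1 ≤ κd ∧ κ1 ≤ s₁ / 2 ∧
        κ1 ≤ 1 / 2 ∧ κ1 ≤ s' - s₁ ∧ κ1 ≤ μ / (2 * (|Ch| + 1)) ∧ κ1 ≤ κ2 / (4 * κ0) := by
      refine ⟨min κd (min (s₁ / 2) (min (1 / 2) (min (s' - s₁) (min (μ / (2 * (|Ch| + 1)))
        (κ2 / (4 * κ0)))))), ?_, min_le_left _ _, (min_le_right _ _).trans (min_le_left _ _),
        (min_le_right _ _).trans ((min_le_right _ _).trans (min_le_left _ _)),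
        (min_le_right _ _).trans ((min_le_right _ _).trans ((min_le_right _ _).trans
          (min_le_left _ _))),
        (min_le_right _ _).trans ((min_le_right _ _).trans ((min_le_right _ _).trans
          ((min_le_right _ _).trans (min_le_left _ _)))),
        (min_le_right _ _).trans ((min_le_right _ _).trans ((min_le_right _ _).trans
          ((min_le_right _ _).trans (min_le_right _ _))))⟩
      refine lt_min hκd (lt_min (by positivity) (lt_min (by norm_num) (lt_min q2 (lt_min q3 q1))))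
    have k5' : κ1 * (2 * (|Ch| + 1)) ≤ μ := by
      rwa [le_div_iff₀ (by positivity)] at k5
    have k6' : κ1 * (4 * κ0) ≤ κ2 := by
      rwa [le_div_iff₀ (by positivity)] at k6
    have hab : Ch * κ1 ≤ |Ch| * κ1 := mul_le_mul_of_nonneg_right (le_abs_self _) h0.le
    have hab' : 0 ≤ |Ch| * κ1 := mul_nonneg hCa h0.le
    have hκκ : 0 < κ0 * κ1 := mul_pos hκ0' h0
    exact ⟨κ1, h0, k1, by linarith, by linarith, by linarith, by nlinarith, by nlinarith,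
      by nlinarith⟩
  refine ⟨κ1, hκ1, ?_⟩
  intro Om La f hOm hOb hOc hLa hLb hLc hf Φ ι T X J0 J V ct A lam z θ φ M hSt hC hF
  -- INIT
  obtain ⟨g, ct', r₀, hRI⟩ := Rone_847.exists_initR_cores hLa hf hκ1.le hκ2 g7.le hC
  have hM := mesh0J Φ hLa hRI.hm hRI.ct hRI.pos hRI.le_one hRI.out hF
  obtain ⟨Zd, m0, hZd, hDo'⟩ := hDo κ1 hκ1 g1 g3 g4 Om La f g hOm hOb hOc hLa hLb hLc hf Φ ι T X
    J0 J V ct A lam z θ φ M hSt hC hF ct' r₀ hRI hM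
  obtain ⟨Zi, -, hZi, hZi'⟩ := exists_Z Φ (T := T) hLa hRI
  refine ⟨fun c => Zd c ∪ Zi c, m0, fun c => measure_union_null (hZd c) (hZi c), ?_⟩
  intro κ L hL hW
  have hG : GF Φ r₀ T f L := hZi' κp μ κ3 _ m0 κ L hμ (fun c => subset_union_right) hL
  have hL' : Levels Φ T f κp μ κ3 Zd m0 κ L :=
    levels_mono hL le_rfl le_rfl (fun c => subset_union_left) fun c => le_rfl
  have hJJ : Nonempty (JJ Φ L) := nonempty_JJ hLc.nonempty hL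
  obtain ⟨D, bp, lam₀, v₀, v₁, hI⟩ := exists_initS hLa hLc hC hSt hRI hM hκ1.le g3 g4 g6 hG
    hL.marg
  obtain ⟨q0, q1, w0, w1, x0, x1, hv⟩ := exists_vxD hLa hRI.hm hC hI.body
  obtain ⟨n, hn, hDo''⟩ := hDo' κ L hL' hW hG D bp lam₀ v₀ v₁ hI q0 q1 w0 w1 x0 x1 hv
  -- the sliced tiling
  have hj0 := hJJ
  obtain ⟨j⟩ := hj0
  have hout : ∀ c, ¬ P (T.H (q0 j.1)) ⊆ (slC hLa hC n hn).K c := fun c =>
    out_of_V hC (hv.out0 j.1) c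
  have hvO : w0 j.1 ∈ Om := T.sub _ (hv.mem0 j.1)
  have hNc : Nonempty (slC hLa hC n hn).T3.Cell := ⟨(slC hLa hC n hn).T3.cl hvO⟩
  have hne : ∃ c, OutK (slC hLa hC n hn).T3 (slC hLa hC n hn).KK c :=
    ⟨_, (vx3 hout (hv.mem0 j.1) (hv.dim0 j.1)).2.2.2.2⟩
  obtain ⟨s₀, far₀, Gc, Zc, lm, u₀, u₁, hFM⟩ := hDo'' hne
  have hLay := Lay_316.lay_sla hLa hC n hn
  have ht : ∀ j : JJ Φ L, 0 < (j.2.1 : ℝ) := fun j => hμ.trans_le (hL.marg j.1 _ j.2.2).1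
  have htil : ∀ c ∈ X, (fun p : T.RIdx (slC hLa hC n hn).HH => p.tile)
      (Lay_316.c3 (slC hLa hC n hn) (ct c)) = ct c := by
    intro c hc
    have ho : ∀ k, ¬ P (T.H (ct c)) ⊆ (slC hLa hC n hn).K k := fun k h => by
      have h3 : ct c ∈ J k.1 := Slt_471.sub_KJ_iff.1 h
      have hck : c ≠ k.1 := fun e => k.2 (e ▸ hc)
      have h4 : ct c ∈ V c := by rw [(hC.one c hc).2.2]; rfl
      exact Set.disjoint_left.1 (hC.disj c k.1 hck) h4 (Nr_527.J_sub hC k.1 h3)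
    show (Lay_316.c3 (slC hLa hC n hn) (ct c)).tile = ct c
    rw [Lay_316.c3_of ho]
    rfl
  refine ⟨_, _, _, _, hNc, hLay.core, hLay.disj, hne,
    qdT (fun p : T.RIdx (slC hLa hC n hn).HH => p.tile) (sla_sub (slC hLa hC n hn))
      (slC hLa hC n hn).KK hLa hRI hM g3 g4, s₀, far₀, Gc, Zc, lm, u₀, u₁, hLay, ?_⟩
  refine front_of_min hLa hf hκ1.le (by linarith) hLay hC hW ht (sla_sub _) htil hRI hM g3 g4 g5
    hFM ?_
  intro k c hc hcX j j' hj hj' hne'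
  refine Rone_847.two_ct hLa hf hδ hR0 hκ1.le hκ2 g7.le hLay hC hW hμ g8 hL.marg hL.vert
    (fun j => hFM.lab.lab j) (fun c hc w hw hwt => ?_) hFM.labX actP
    (fun k i3 h1 i h2 h3 x hx hw hz => actI g5 hFM.posB k i3 h1 i h2 h3 x hx hw hz) c hcX k hc j j'
    hj hj' hne'
  refine hFM.lev w hw (ct c) (fun k hk => ?_) hwt
  have hck : c ≠ k.1 := fun e => k.2 (e ▸ hc)
  have h4 : ct c ∈ V c := by rw [(hC.one c hc).2.2]; rfl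
  exact Set.disjoint_left.1 (hC.disj c k.1 hck) h4 hk

/-- **`FrontP` FROM `DoorsP`** -/
theorem frontP_of (hD : DoorsP) : FrontP := frontPb_of hD

/-- **`MachBF` FROM `DoorsPb b`** -/
theorem machBF_of_doors {b : ℝ} (hb : 0 < b) (hD : DoorsPb b) : Mbf_337.MachBF :=
  Mch_337.machBF_of_b hb (frontPb_of hD)

end Crest.Agent.R096.Frs_662
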