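import Crest.Agent.R096.Init12_543
import Crest.Agent.R096.Leaf3_965
import Crest.Agent.R096.SkB1c_662

/-!
# R096 (row 96), BOTTOM, vertical slice `X = univ` (helper362, hot spare of SkM_337), part 1

From the literal data of `Mbf_337.MachBF` with all cores exact: INIT (543), `hleaf` (965),
`StI` (662) over `lmT T fr3`, and the final state `StO`.
-/

set_option autoImplicit false
set_option linter.style.longLine false
set_option linter.unusedSectionVars false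

open Set Topology Filter Relation MeasureTheory

namespace Crest.Agent.R096.SkMv_362

open Crest.Agent.R096.Coh_184 Crest.Agent.R096.Brk1_582 Crest.Agent.R096.Brk2_582
  Crest.Agent.R096.Brk3_582 Crest.Agent.R096.Brk5_582 Crest.Agent.R096.Bsp_628
  Crest.Agent.R096.Lab_184 Crest.Agent.R096.Main_4 Crest.Agent.R096.Msh_715
  Crest.Agent.R096.Agl4_543 Crest.Agent.R096.Agl5_543 Crest.Agent.R096.Agl6_543
  Crest.Agent.R096.Ginv_543 Crest.Agent.R096.Seq_213 Crest.Agent.R096.Seq_213.GSt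
  Crest.Agent.R096.St_147 Crest.Agent.R096.Gs_422 Crest.Agent.R96.Push_899
  Crest.Agent.R096.Init_543 Crest.Agent.R096.Leaf_965 Crest.Agent.R096.SkB_662
  Crest.Agent.R096.Lm_117 Crest.Agent.R096.Ac_117 Crest.Agent.R096.Gl_422
  Crest.Agent.R096.Cp_298 Crest.Agent.R096.Ori_543

open Crest.Agent.R096.SkC1_961 (E3 Hom3 IsPush FoamD Cfg th NN)

theorem nonempty_cell {Om : Set E3} {ι : Type} {T : Tiling Om ι} (h : Om.Nonempty) :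
    Nonempty T.Cell := by
  obtain ⟨x, hx⟩ := h
  exact ⟨⟨T.cc x, x, hx, rfl⟩⟩

section slice

variable {δ κ0 R c0 : ℝ} {La Om : Set E3} {ι : Type} {Φ : FoamD δ κ0 R c0 La}
  {T : Tiling Om ι} {f g : E3 → E3}

/-- the constants of INIT: all conditions on `κ1` (mesh and cores) against `μ` (margin of the
levels) and the constants of the foam -/
structure Sml (δ κ0 R c0 κ1 κ2 μ : ℝ) : Prop where
  δ0 : 0 < δ
  R0 : 0 < R
  κ10 : 0 ≤ κ1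
  κ20 : 0 < κ2
  μ0 : 0 < μ
  h12 : 2 * κ0 * κ1 ≤ κ2
  h8 : κ1 ≤ μ / 8
  hl : Chl δ κ0 R c0 κ2 * κ1 < μ / 2

/-- `κ1` exists for given `μ` -/
theorem exists_sml {δ κ0 R c0 κ2 μ : ℝ} (hδ : 0 < δ) (hκ0 : 1 ≤ κ0) (hR : 0 < R) (hκ2 : 0 < κ2)
    (hμ : 0 < μ) : ∃ κ : ℝ, 0 < κ ∧ ∀ κ1, 0 ≤ κ1 → κ1 ≤ κ → Sml δ κ0 R c0 κ1 κ2 μ := by
  set C := |Chl δ κ0 R c0 κ2| + 1 with hC
  have hC1 : 0 < C := by positivity
  have hκ00 : 0 < κ0 := by linarith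
  refine ⟨min (κ2 / (2 * κ0)) (min (μ / 8) (μ / (4 * C))), by positivity, fun κ1 h0 h1 => ?_⟩
  have a1 : κ1 ≤ κ2 / (2 * κ0) := h1.trans (min_le_left _ _)
  have a2 : κ1 ≤ μ / 8 := h1.trans ((min_le_right _ _).trans (min_le_left _ _))
  have a3 : κ1 ≤ μ / (4 * C) := h1.trans ((min_le_right _ _).trans (min_le_right _ _))
  refine ⟨hδ, hR, h0, hκ2, hμ, ?_, a2, ?_⟩
  · rw [le_div_iff₀ (by positivity)] at a1; linarith
  · rw [le_div_iff₀ (by positivity)] at a3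
    have h5 : Chl δ κ0 R c0 κ2 * κ1 ≤ C * κ1 :=
      mul_le_mul_of_nonneg_right (by rw [hC]; linarith [le_abs_self (Chl δ κ0 R c0 κ2)]) h0
    nlinarith

/-- the points of the truthful state in a compact part of `Om` are finitely many -/
theorem st0_finK (hLa : IsOpen La) {J0 : Φ.F → Set ι} {ct' : Φ.F → ι} {r₀ : Φ.F → ℝ}
    (hR : InitR Φ T f g J0 ct' r₀) {μ : ℝ} (hμ : 0 < μ) {L : Φ.F → Finset ℝ} [Nonempty (JJ Φ L)]
    (hm : ∀ c, ∀ t ∈ L c, μ ≤ t ∧ t ≤ 1 - μ) {hG : GF Φ r₀ T f L} {bp : JJ Φ L → E3} {K : Set E3}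
    (hK : IsCompact K) (hKO : K ⊆ Om) : ((st0 hG bp).P ∩ K).Finite := by
  have F := foam4 Φ hLa
  have hRet := retF Φ hLa hR.pos hR.le_one
  obtain ⟨a1, a2, a3, a4, a5, a6⟩ := hR.hm
  have hC : IsCompact (f '' K) := hK.image_of_continuousOn (a5.mono hKO)
  have hCL : f '' K ⊆ La := by
    rintro _ ⟨x, hx, rfl⟩
    exact a1 (hKO hx)
  have hN : (⋃ e ∈ {e | (Pc Φ.F e ∩ f '' K).Nonempty},
      {c | (Pc Φ.F c ∩ Pc Φ.F e).Nonempty}).Finite :=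
    (F.finite_meet hC hCL).biUnion fun e _ => F.finite_meet (F.cpt e) (F.sub e)
  refine (hN.biUnion fun c _ => st0_fin (hG := hG) (bp := bp) c).subset ?_
  rintro w ⟨hw, hwK⟩
  obtain ⟨h1, h2, h3⟩ := st0_mem hLa hR hw
  refine mem_biUnion (x := ((st0 hG bp).lab w).1) ?_ ⟨hw, rfl⟩
  obtain ⟨e, he⟩ := F.cov (f w) (a1 h1)
  refine mem_biUnion (x := e) ⟨f w, he, w, hwK, rfl⟩ ?_
  have hy : RF Φ r₀ (f w) ∈ Pc Φ.F e := hRet.cell e he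
  have hyL : RF Φ r₀ (f w) ∈ La := F.sub e hy
  have hlt : sc (Pc Φ.F) (bc (F := Φ.F)) (RF Φ r₀ (f w)) ((st0 hG bp).lab w).1 < 1 := by
    have h5 := hR.v_eq' Φ hLa h1 (by omega) ((st0 hG bp).lab w).1
    have h6 := hm _ _ ((st0 hG bp).lab w).2.2
    have h7 : vF Φ r₀ f ((st0 hG bp).lab w).1 w = ((st0 hG bp).lab w).2.1 := h5.trans h3
    have h8 : sc (Pc Φ.F) (bc (F := Φ.F)) (RF Φ r₀ (f w)) ((st0 hG bp).lab w).1 =
      ((st0 hG bp).lab w).2.1 := h7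
    rw [h8]
    linarith [h6.2]
  obtain ⟨y, hyf⟩ := F.sc_lt_one_fc hyL
  rw [mem_fc] at hyf
  refine ⟨y, hyf _ hlt, hyf e ?_⟩
  show sc (Pc Φ.F) (bc (F := Φ.F)) (RF Φ r₀ (f w)) e < 1
  rw [(F.sc_eq_zero hyL).2 hy]
  exact one_pos

/-- **INIT + StI for exact cores.** -/
theorem exists_slice (hOm : IsConnected Om) (hLa : IsOpen La) (hLc : IsConnected La)
    (hf : Hom3 f Om La) {κ1 κ2 μ : ℝ} (hs : Sml δ κ0 R c0 κ1 κ2 μ) {J0 J V : Φ.F → Set ι}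
    {ct : Φ.F → ι} {A : Φ.F → E3 ≃ᵃ[ℝ] E3} {lam : Φ.F → ℝ} {z : Φ.F → E3} {θ : Φ.F → E3 → E3}
    {φ : Φ.F → E3 → ℝ} {M : Φ.F → ℕ} (hS : Mbf_337.Star Φ)
    (hC : Mbf_337.Cores Φ T f κ1 κ2 univ J0 J V ct A lam z θ φ)
    (hF : Mbf_337.Fine Φ T f κ1 J0) :
    ∃ (_ : Nonempty T.Cell) (g : E3 → E3) (ct' : Φ.F → ι) (r₀ : Φ.F → ℝ)
      (hR : InitR Φ T f g J0 ct' r₀)
      (hM : Mesh0 T (Pc Φ.F) (bc (F := Φ.F)) (RF Φ r₀) f (KorJ Φ J0) κ1) (Z : Φ.F → Set ℝ),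
      (∀ c, volume (Z c) = 0) ∧
      ∀ (κp κ3 : ℝ) (m0 κ : Φ.F → ℕ) (L : Φ.F → Finset ℝ),
        Mbf_337.Levels Φ T f κp μ κ3 Z m0 κ L → Mbf_337.Words Φ T f univ ct A lam z M L →
        ∃ (_ : Nonempty (JJ Φ L)) (hG : GF Φ r₀ T f L) (h1 : κ1 < μ / 4) (h2 : κ1 < 1)
          (D : Φ.F → Set E3) (bp : JJ Φ L → E3) (lam₀ : JJ Φ L → E3 → ZMod 2) (v₀ v₁ : Φ.F → E3)
          (far₀ : JJ Φ L → Set E3),
          InitS hLa hR hM h1 h2 hG D bp lam₀ v₀ v₁ ∧ (∀ j, bp j ∈ far₀ j) ∧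
          StI (lmT T fr3) (oriM fr3) (tauT T) (RelM T) (Cp_298.VM T) (qdF hLa hR hM h1 h2) κ
            (st0 hG bp) far₀ (fun c => GT T (D c)) (fun c => ZT T (D c))
            (fun j v => lam₀ j v.pt) (fun c => edC T (v₀ c)) (fun c => edC T (v₁ c)) := by
  have hne : Nonempty T.Cell := nonempty_cell hOm.nonempty
  have hμ := hs.μ0
  have h12 : κ1 * κ0 < κ2 := by nlinarith [hs.h12, hs.κ20]
  obtain ⟨g0, H0⟩ := exists_hm3 hf
  have hH : HoleJ Φ T f J0 :=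
    holeJ_of_cores Φ H0 hC hs.κ10 h12 hs.κ20.le fun c hc => (hc (mem_univ c)).elim
  obtain ⟨g, ct', r₀, hR⟩ := exists_initR Φ hLa hf hH
  have hM : Mesh0 T (Pc Φ.F) (bc (F := Φ.F)) (RF Φ r₀) f (KorJ Φ J0) κ1 :=
    mesh0J Φ hLa hR.hm hR.ct hR.pos hR.le_one hR.out hF
  obtain ⟨Z, -, hZ0, hZG⟩ := exists_Z Φ hLa hR
  refine ⟨hne, g, ct', r₀, hR, hM, Z, hZ0, fun κp κ3 m0 κ L hL hW => ?_⟩
  have hJJ : Nonempty (JJ Φ L) := nonempty_JJ hLc.nonempty hL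
  have hG : GF Φ r₀ T f L := hZG κp μ κ3 Z m0 κ L hμ (fun _ => Subset.rfl) hL
  have h1 : κ1 < μ / 4 := by linarith [hs.h8]
  have h2 : κ1 < 1 := by
    obtain ⟨j⟩ := hJJ
    have := hL.marg j.1 j.2.1 j.2.2
    linarith [this.1, this.2, hs.h8]
  obtain ⟨D, bp, lam₀, v₀, v₁, hI⟩ := exists_initS hLa hLc hC hS hR hM hs.κ10 h1 h2
    (by linarith [hs.h8]) hG hL.marg
  have hva : ∀ x ∈ Om, T.dim x ≤ 1 → ∀ e,
      va (Pc Φ.F) (bc (F := Φ.F)) (RF Φ r₀) f e x = Φ.lev e (f x) := fun x hx hd e =>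
    hR.v_eq' Φ hLa hx (by omega) e
  obtain ⟨far₀, hinv, hbp⟩ := hI.inv hLa hR hs.κ10 (s' := μ / 2) (μ := μ) (by linarith)
    (by linarith [hs.h8]) hL.marg (by
      rintro j k hk q ⟨c, hq⟩ -
      rw [(hC.one c (mem_univ c)).1] at hq
      rw [Set.mem_singleton_iff.1 hq]
      exact hleaf_exact hLa hs.δ0 hs.R0 hs.κ10 hs.κ20 hs.h12 (mem_univ c)
        (hC.exact_ c (mem_univ c)) hW hs.hl hva (fun j => j.2.2) fr3 hG j k hk)
  refine ⟨hJJ, hG, h1, h2, D, bp, lam₀, v₀, v₁, far₀, hI, hbp, ?_⟩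
  refine stI_T hL.lf hinv (fun w hw => ?_) (fun F => ?_) (fun a => jj_fin hG a) hI.lab
  · obtain ⟨a1, a2, -⟩ := st0_mem hLa hR hw
    exact ⟨a1, a2⟩
  · have hFc : IsCompact F.set := T.cplx.isCompact F.1
    refine (st0_finK hLa hR hμ hL.marg (hG := hG) (bp := bp) hFc F.set_sub).subset ?_
    rintro w ⟨h5, h6⟩
    exact ⟨h5, h6.1⟩

end slice

end Crest.Agent.R096.SkMv_362
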