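import Crest.Agent.R096.Dff1_539
import Crest.Agent.R096.Frs2_662
import Crest.Agent.R096.Frk1_441
import Crest.Agent.R096.SkMv1_362
import Crest.Agent.R096.Bgf3_4

/-!
# R096 (row 96), DOORS_final (helper416): the fields `on`, `fin`, `lev` of 662's `FrontM`

`BarS` : the truthful state with barriers `sB` (names `JJ Φ L ⊕ Mo`): the machine families are the
truthful state, the barrier points are in the tiles of `V`, finitely many barriers at a core.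
For `CutOut (s2 S ..) am Act s₃` over `S : Sla T (Ti X)` with `S.K k = KJ T (J k)`:
`on_S3`, `fin_S3`, `lev_S3`.
-/

set_option autoImplicit false
set_option linter.unusedSectionVars false
set_option linter.unusedVariables false
set_option linter.style.longLine false

open Set Topology Filter Metric Module Relation
open scoped Classical

namespace Crest.Agent.R096.Dfn_416

open Crest.Agent.R096.Msh_715 Crest.Agent.R096.Coh_184 Crest.Agent.R096.Lab_184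
  Crest.Agent.R096.Main_4 Crest.Agent.R096.Agl5_543
  Crest.Agent.R096.Seq_213 Crest.Agent.R096.St_147 Crest.Agent.R096.Door_501
  Crest.Agent.R096.Twr_438 Crest.Agent.R096.Exa_560
  Crest.Agent.R096.Ess3_95 Crest.Agent.R096.Ess4_95 Crest.Agent.R096.Ac_117 Crest.Agent.R096.Lm_117
  Crest.Agent.R096.Dfi_539 Crest.Agent.R096.Dfi_471 Crest.Agent.R096.Dfo_539
  Crest.Agent.R096.Sla_184 Crest.Agent.R096.Gm_298
  Crest.Agent.R096.Brk1_582 Crest.Agent.R096.Brk2_582 Crest.Agent.R096.Brk3_582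
  Crest.Agent.R096.Brk5_582 Crest.Agent.R096.Bsp_628 Crest.Agent.R096.Init_543
open Crest.Agent.R096.Mbf_337 (KJ Tiny Cores)
open Crest.Agent.R096.SkC1_961 (E3 FoamD Hom3)
open Crest.Agent.R096.Frn_337 (Ti)
open Crest.Agent.R096.Bgf_4 (Ext)

variable {δ κ0 R c0 : ℝ} {La Om : Set E3} {ι : Type} {Φ : FoamD δ κ0 R c0 La} {T : Tiling Om ι}
  {f g : E3 → E3} {κ1 κ2 μ : ℝ} {X : Set Φ.F} {J0 J V : Φ.F → Set ι}
  {ct ct' : Φ.F → ι} {A : Φ.F → E3 ≃ᵃ[ℝ] E3} {lam : Φ.F → ℝ} {z : Φ.F → E3}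
  {θ : Φ.F → E3 → E3} {φ : Φ.F → E3 → ℝ} {r₀ : Φ.F → ℝ}
  {L : Φ.F → Finset ℝ} [Nonempty (JJ Φ L)] {hG : GF Φ r₀ T f L} {bp : JJ Φ L → E3}
  {Mo : Type} {co : Mo → Ti X}

/-- **the truthful state with barriers** -/
structure BarS (hG : GF Φ r₀ T f L) (bp : JJ Φ L → E3) (V : Φ.F → Set ι) (co : Mo → Ti X)
    (sB : GSt (meshC T fr3) (Sum.map (fun j : JJ Φ L => j.1) (id : Mo → Mo))) : Prop where
  ext : Ext (st0 hG bp) sB
  tile : ∀ w ∈ sB.P, ∀ m, sB.lab w = Sum.inr m → ∀ i, w ∈ P (T.H i) → i ∈ V (co m).1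
  fin : ∀ k : Ti X, {m | co m = k}.Finite

variable {sB : GSt (meshC T fr3) (Sum.map (fun j : JJ Φ L => j.1) (id : Mo → Mo))}

/-- the points of the state with barriers are on 1-cells -/
theorem BarS.mem (hB : BarS hG bp V co sB) (hLa : IsOpen La) (hR : InitR Φ T f g J0 ct' r₀)
    {w : E3} {j : JJ Φ L} (hw : w ∈ sB.P) (hl : sB.lab w = Sum.inl j) :
    w ∈ (st0 hG bp).P ∧ (st0 hG bp).lab w = j ∧ Φ.lev j.1 (f w) = j.2.1 := by
  obtain ⟨h1, h2⟩ := hB.ext.of_lab hw hl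
  have h3 := (st0_mem hLa hR h1).2.2
  rw [h2] at h3
  exact ⟨h1, h2, h3⟩

/-- **locally finite** -/
theorem BarS.finK (hB : BarS hG bp V co sB) (hLa : IsOpen La) (hR : InitR Φ T f g J0 ct' r₀)
    (hC : Cores Φ T f κ1 κ2 X J0 J V ct A lam z θ φ) (hμ : 0 < μ)
    (hm : ∀ c, ∀ t ∈ L c, μ ≤ t ∧ t ≤ 1 - μ) {K : Set E3} (hK : IsCompact K) (hKO : K ⊆ Om) :
    (sB.P ∩ K).Finite := by
  have h1 := SkMv_362.st0_finK (hG := hG) (bp := bp) hLa hR hμ hm hK hKO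
  have h2 := T.finite_tiles hK hKO
  have h3 : {k : Ti X | ∃ i, (P (T.H i) ∩ K).Nonempty ∧ i ∈ V k.1}.Finite := by
    have h4 : ({k : Ti X | ∃ i, (P (T.H i) ∩ K).Nonempty ∧ i ∈ V k.1}) ⊆
        ⋃ i ∈ {i | (P (T.H i) ∩ K).Nonempty}, {k : Ti X | i ∈ V k.1} := by
      rintro k ⟨i, hi, hk⟩
      exact mem_biUnion hi hk
    refine (h2.biUnion fun i _ => ?_).subset h4
    refine Set.Subsingleton.finite fun k hk k' hk' => ?_
    by_contra hne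
    exact Set.disjoint_left.1 (hC.disj k.1 k'.1 fun e => hne (Subtype.ext e)) hk hk'
  have h5 : (⋃ k ∈ {k : Ti X | ∃ i, (P (T.H i) ∩ K).Nonempty ∧ i ∈ V k.1},
      ⋃ m ∈ {m | co m = k}, {w | w ∈ sB.P ∧ Sum.map (fun j : JJ Φ L => j.1) (id : Mo → Mo)
        (sB.lab w) = Sum.inr m}).Finite :=
    h3.biUnion fun k _ => (hB.fin k).biUnion fun m _ => sB.fin _
  refine (h1.union h5).subset ?_
  rintro w ⟨hw, hwK⟩
  rcases hl : sB.lab w with j | m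
  · exact Or.inl ⟨(hB.ext.of_lab hw hl).1, hwK⟩
  · right
    obtain ⟨i, hi⟩ := T.cov w (hKO hwK)
    refine mem_biUnion (x := co m) ⟨i, ⟨w, hi, hwK⟩, hB.tile w hw m hl i hi⟩
      (mem_biUnion (x := m) rfl ⟨hw, ?_⟩)
    rw [hl]; rfl

theorem BarS.finF (hB : BarS hG bp V co sB) (hLa : IsOpen La) (hR : InitR Φ T f g J0 ct' r₀)
    (hC : Cores Φ T f κ1 κ2 X J0 J V ct A lam z θ φ) (hμ : 0 < μ)
    (hm : ∀ c, ∀ t ∈ L c, μ ≤ t ∧ t ≤ 1 - μ) (F : C2 T) : (sB.P ∩ F.On).Finite := by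
  refine (hB.finK hLa hR hC hμ hm (K := F.set) ?_ F.set_sub).subset
    (inter_subset_inter_right _ fun w hw => hw.1)
  rw [F.set_eq]
  exact T.isCompact_cc F.pt_mem

section s3

variable {S : Sla T (Ti X)} [Nonempty (JJ Φ L ⊕ Mo)]
  {r : JJ Φ L ⊕ Mo → E3} {Sf : JJ Φ L ⊕ Mo → Set E3} {nb : Ti X → Φ.F ⊕ Mo → Prop}
  {v0 v1 : ∀ c, Φ.F ⊕ Mo → VxK T S.K c} {u : Ti X → Φ.F ⊕ Mo → E3 → ℝ}
  {Al Bl : Ti X → Φ.F ⊕ Mo → ℝ} {Lx : ∀ c, Φ.F ⊕ Mo → Lev T (frontier (S.K c)) (JJ Φ L ⊕ Mo)}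
  {Tw : Twrs (S.sh fr3) S.n (outK S.hH S.dis sB r)} {l0 : E3 → JJ Φ L ⊕ Mo}
  {am : Mo → Φ.F} {Act : Φ.F → Set (T.RIdx S.HH ⊕ Ti X)}
  {s3 : GSt (S.mn fr3) (fun j : JJ Φ L => j.1)}
  {hKK : ∀ k, CoreH S.T3 (S.KK k)} [Nonempty S.T3.Cell] {hne : ∃ c, OutK S.T3 S.KK c}

/-- field `on` -/
theorem on_S3 (D3 : CutOut (s2 S fr3 Tw l0) am Act s3) :
    ∀ w ∈ s3.P, w ∈ (lmK fr3 hKK (Sla.dis_KK (S := S)) hne).W1 := fun w hw =>
  mem_W1K.2 (pts3 (hKK := hKK) D3 hw)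

/-- field `fin` -/
theorem fin_S3 (hB : BarS hG bp V co sB) (hLa : IsOpen La) (hR : InitR Φ T f g J0 ct' r₀)
    (hC : Cores Φ T f κ1 κ2 X J0 J V ct A lam z θ φ) (hμ : 0 < μ)
    (hm : ∀ c, ∀ t ∈ L c, μ ≤ t ∧ t ≤ 1 - μ)
    (D : DIn S.hH sB r Sf nb v0 v1 u Al Bl) (lo : LevOut (Kc := S.K) sB nb u Al Bl Lx)
    (tt : TwOut S fr3 sB r v0 v1 Lx Tw) (D3 : CutOut (s2 S fr3 Tw l0) am Act s3)
    (F : S.Fn fr3) : (s3.P ∩ (mK fr3 hKK (Sla.dis_KK (S := S))).On F).Finite :=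
  D3.fin F (fin2 D lo tt (hB.finF hLa hR hC hμ hm) F)

/-- a tile in no `V k` is in no tiny core -/
theorem outS (hC : Cores Φ T f κ1 κ2 X J0 J V ct A lam z θ φ)
    (hK : ∀ k : Ti X, S.K k = KJ T (J k.1)) {i : ι} (hi : ∀ k : Ti X, i ∉ V k.1) (k : Ti X) :
    ¬ P (T.H i) ⊆ S.K k := fun h => by
  rw [hK k] at h
  exact hi k (Nr_527.J_sub hC k.1 (Slt_471.sub_KJ_iff.1 h))

include hKK in
/-- **off the `V k` the final state is the truthful state** -/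
theorem mem_S3 (hB : BarS hG bp V co sB) 
    (hC : Cores Φ T f κ1 κ2 X J0 J V ct A lam z θ φ)
    (hK : ∀ k : Ti X, S.K k = KJ T (J k.1))
    (D : DIn S.hH sB r Sf nb v0 v1 u Al Bl) 
    (D3 : CutOut (s2 S fr3 Tw l0) am Act s3) {x : E3} (hx : x ∈ s3.P) {i : ι}
    (hi : ∀ k : Ti X, i ∉ V k.1) (hxi : x ∈ P (T.H i)) :
    x ∈ (st0 hG bp).P ∧ (st0 hG bp).lab x = s3.lab x := by
  have hiS := outS hC hK hi
  have hq : x ∈ P (S.T3.H (S.ot i hiS)) := by rw [Sla.ot_P]; exact hxi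
  have hqK : ∀ c, ¬ P (S.T3.H (S.ot i hiS)) ⊆ S.KK c := Rop_441.not_KK_ot hiS
  rcases cases3 (hKK := hKK) D3 hx hq hqK with ⟨h1, h2⟩ | ⟨h1, b, h2, m, h4, h5, h6, h7⟩
  · obtain ⟨h8, h9⟩ := out2_tile h1 hiS hxi
    exact hB.ext.of_lab h8 (h9 ▸ h2)
  · exfalso
    rw [Sla.ot_P] at h6
    obtain ⟨h8, h9⟩ := out2_tile h2 hiS h6
    exact hi (co m) (hB.tile b h8 m (h9 ▸ h4) i h6)

include hKK in
/-- field `lev` -/
theorem lev_S3 (hB : BarS hG bp V co sB) (hLa : IsOpen La) (hR : InitR Φ T f g J0 ct' r₀)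
    (hC : Cores Φ T f κ1 κ2 X J0 J V ct A lam z θ φ)
    (hK : ∀ k : Ti X, S.K k = KJ T (J k.1))
    (D : DIn S.hH sB r Sf nb v0 v1 u Al Bl) 
    (D3 : CutOut (s2 S fr3 Tw l0) am Act s3) :
    ∀ x ∈ s3.P, ∀ i, (∀ k : Ti X, i ∉ V k.1) → x ∈ P (T.H i) →
      Φ.lev (s3.lab x).1 (f x) = (s3.lab x).2.1 := by
  intro x hx i hi hxi
  obtain ⟨h1, h2⟩ := mem_S3 (hKK := hKK) hB hC hK D D3 hx hi hxi
  have h3 := (st0_mem hLa hR h1).2.2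
  rwa [h2] at h3

end s3

end Crest.Agent.R096.Dfn_416
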