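import Crest.Agent.R096.Door8_501

/-!
# Row 96, DOORS (helper501), part 9: `H¹ = 0` and connectedness of the state with layers

* `Twrs.h1   : s.H1 i → ((T.rel Z).st l0).H1 i`
* `Twrs.conn : s.Conn i → ((T.rel Z).st l0).Conn i`
* `Twrs.old_* , bot_*` : the state on the old faces and on the boundary of the shrunk cores
-/

set_option autoImplicit false

namespace Crest.Agent.R096.Door_501

open Crest.Agent.R096.St_147 Crest.Agent.R096.Seq_213 Classical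

variable {ι Φ ι0 Φ0 W J C : Type} {M : MeshC ι Φ W} {M0 : MeshC ι0 Φ0 W} {κ : Type} {k0 : κ → ι0}
  {kk : κ → ι} {Vx Ed : κ → Type} {S : ∀ c, Shell M0 (k0 c) (Vx c) (Ed c)} {n : κ → ℕ}
  {fam : J → C}

namespace Twrs

variable {s : GSt M0 fam} (Z : Cols M M0 k0 kk S n) (T : Twrs S n s)

/-- the embedding of the faces of the layer `j` -/
def phi (c : κ) (j : ℕ) : (S c).sphSh.Face → Φ :=
  Sum.elim (fun G => (Z.cl c).hf G j)
    (Sum.elim (fun G => (Z.cl c).hf G.1 (j + 1)) (fun e => (Z.cl c).vf e j))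

variable {Z T}

/-- partners in the layer `j` -/
theorem r_lay {c : κ} {a : C} {j : ℕ} (hj : j < n c) {F : (S c).sphSh.Face} {x : (S c).Pnt}
    (hx : x ∈ ((T.tw c a).mv j).P') (hF : x ∈ (S c).sphSh.On F) :
    R Z T (phi Z c j F) (emb Z c j x)
      (emb Z c j (((T.tw c a).mv j).mu' ((T.tw c a).par j) F x)) := by
  rcases F with G | G | e
  · rcases x with w | x
    · have hw : w ∈ M0.On G.1 := (S c).sphSh.top_mem_On.1 hF
      have hP := ((T.tw c a).mv j).top_mem_P'.1 hx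
      by_cases h0 : j = 0
      · subst h0
        left
        refine ⟨G.1, Z.hf_zero c G, ?_, ?_, ?_⟩
        · have := (T.P0 c a w).1 hP
          have e1 : emb Z c 0 (Sum.inl w) = w := (Z.cl c).hp_zero w
          rw [e1]; exact this.1
        · have e1 : emb Z c 0 (Sum.inl w) = w := (Z.cl c).hp_zero w
          rw [e1]; exact hw
        · have e1 : emb Z c 0 (Sum.inl w) = w := (Z.cl c).hp_zero w
          rw [e1]
          show (Z.cl c).hp 0 (((T.tw c a).pat 0).mu G w) = _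
          rw [(Z.cl c).hp_zero, T.mu0 hP hw]
      · right; left
        exact ⟨c, a, j, G, w, Nat.pos_of_ne_zero h0, hj.le, rfl, hP, hw, rfl, rfl⟩
    · obtain ⟨w, _, h⟩ := hF
      cases h
  · rcases x with w | w | v
    · exact ((S c).sphSh.top_not_mem_On hF).elim
    · have hw : w ∈ M0.On G.1.1 := (S c).sphSh.bot_mem_On.1 hF
      have hB := ((T.tw c a).mv j).bot_mem_P'.1 hx
      right; left
      refine ⟨c, a, j + 1, G.1, w, Nat.succ_pos j, hj, rfl, mem_B.1 hB, hw, rfl, ?_⟩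
      show (Z.cl c).hp (j + 1) (((T.tw c a).mv j).mu0 G.1 w) = _
      rw [mu0_eq]
    · exact ((S c).sphSh.vert_not_mem_On' hF).elim
  · right; right
    exact ⟨c, a, j, e, x, hj, rfl, hx, hF, rfl, rfl⟩

/-- cells of the layer `j` -/
theorem side_lay {c : κ} {j : ℕ} (hj : j < n c) {F : (S c).sphSh.Face} {G : (S c).sphSh.Fk}
    (h : (Sum.inr G : (S c).sphSh.Cell) ∈ (S c).sphSh.side F) :
    (Z.cl c).cl G.1 j ∈ M.side (phi Z c j F) := by
  rcases F with F | F | e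
  · have h1 : F = G.1 := (S c).sphSh.inr_mem_side.1 h
    subst h1
    show (Z.cl c).cl G.1 j ∈ M.side ((Z.cl c).hf G.1 j)
    by_cases h0 : j = 0
    · subst h0
      exact (Z.cl c).side_top G.1
    · obtain ⟨l, rfl⟩ := Nat.exists_eq_succ_of_ne_zero h0
      have := (Z.cl c).side_mid G.1 (j := l) hj
      show (Z.cl c).cl G.1 (l + 1) ∈ M.side ((Z.cl c).hf G.1 (l + 1))
      rw [this]
      exact Sym2.mem_mk_right _ _
  · have h1 : F = G := by
      rcases (S c).sphSh.mem_side_bot.1 h with h1 | h1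
      · exact (Sum.inr.inj h1).symm
      · cases h1
    subst h1
    show (Z.cl c).cl F.1 j ∈ M.side ((Z.cl c).hf F.1 (j + 1))
    by_cases h0 : j + 1 < n c
    · rw [(Z.cl c).side_mid F.1 h0]
      exact Sym2.mem_mk_left _ _
    · have h2 : j + 1 = n c := by omega
      have h3 := (Z.cl c).side_bot F.1 h2
      have h4 : (Z.cl c).hf F.1 (j + 1) = (Z.cl c).hf F.1 (n c) := congrArg ((Z.cl c).hf F.1) h2
      rw [h4, h3]
      exact Sym2.mem_mk_left _ _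
  · obtain ⟨b, hb⟩ := (S c).sphSh.mem_side_vert.1 h
    have h1 : G = ⟨(S c).sphSh.fc e b, (S c).sphSh.fc_side e b⟩ := Sum.inr.inj hb
    subst h1
    show (Z.cl c).cl ⟨(S c).fc e b, (S c).fc_side e b⟩ j ∈ M.side ((Z.cl c).vf e j)
    rw [(Z.cl c).side_vf e hj]
    cases b
    · exact Sym2.mem_mk_left _ _
    · exact Sym2.mem_mk_right _ _

/-- `H¹ = 0` -/
theorem rel_h1 {i : J} (hi : s.H1 i) (κ' : Φ → W → ZMod 2)
    (hκ : ∀ q : ι, ∃ ψ : W → ZMod 2, ∀ F w x, q ∈ M.side F → R Z T F w x → Lb Z T w i →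
      κ' F w = ψ w + ψ x) :
    ∃ Ψ : W → ZMod 2, ∀ F w x, R Z T F w x → Lb Z T w i → κ' F w = Ψ w + Ψ x := by
  -- potentials on the patterns
  let Pot : ∀ c : κ, ℕ → (W → ZMod 2) → Prop := fun c j ψ =>
    ∀ (G : (S c).Fk) (w : W), w ∈ ((T.tw c (fam i)).pat j).P → w ∈ M0.On G.1 →
      ((T.tw c (fam i)).pat j).lab w = i →
      κ' ((Z.cl c).hf G j) ((Z.cl c).hp j w) = ψ w + ψ (((T.tw c (fam i)).pat j).mu G w)
  let kj : ∀ c : κ, ℕ → (S c).sphSh.Face → (S c).Pnt → ZMod 2 := fun c j F x =>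
    κ' (phi Z c j F) (emb Z c j x)
  have hcell : ∀ c j, j < n c → ∀ G : (S c).sphSh.Fk,
      ((T.tw c (fam i)).mv j).Ex ((T.tw c (fam i)).par j) i (kj c j) (Sum.inr G) := by
    intro c j hj G
    obtain ⟨ψ, hψ⟩ := hκ ((Z.cl c).cl G.1 j)
    refine ⟨fun x => ψ (emb Z c j x), fun F x h1 h2 h3 h4 => ?_⟩
    exact hψ _ _ _ (side_lay hj h1) (r_lay hj h2 h3) (h4 ▸ lb_emb hj h2)
  have hcore : ∀ c j, j < n c → ∀ ψ, Pot c (j + 1) ψ →
      ((T.tw c (fam i)).mv j).Ex ((T.tw c (fam i)).par j) i (kj c j) (Sum.inl true) := by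
    intro c j hj ψ hψ
    refine ⟨Sum.elim (fun _ => 0) (Sum.elim ψ fun _ => 0), fun F x h1 h2 h3 h4 => ?_⟩
    rcases F with F | F | e
    · exact (((S c).sphSh.inl_mem_side.1 h1).2 rfl).elim
    · rcases x with w | w | v
      · exact ((S c).sphSh.top_not_mem_On h3).elim
      · have hw : w ∈ M0.On F.1.1 := (S c).sphSh.bot_mem_On.1 h3
        have hB := mem_B.1 (((T.tw c (fam i)).mv j).bot_mem_P'.1 h2)
        have hl : ((T.tw c (fam i)).pat (j + 1)).lab w = i := by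
          rw [← lab0_eq]; exact h4
        have := hψ F.1 w hB hw hl
        rw [← mu0_eq] at this
        exact this
      · exact ((S c).sphSh.vert_not_mem_On' h3).elim
    · obtain ⟨b, hb⟩ := (S c).sphSh.mem_side_vert.1 h1
      cases hb
  -- downward
  have hA : ∀ c, ∀ d j, j + d = n c → ∃ ψ, Pot c j ψ := by
    intro c d
    induction d with
    | zero =>
      intro j hj
      have hj' : j = n c := hj
      subst hj'
      obtain ⟨ψ, hψ⟩ := hκ (kk c)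
      have hn := (Z.cl c).npos
      refine ⟨fun w => ψ ((Z.cl c).hp (n c) w), fun G w h1 h2 h3 => ?_⟩
      refine hψ _ _ _ ?_ (Or.inr (Or.inl ⟨c, fam i, n c, G, w, hn, le_rfl, rfl, h1, h2, rfl, rfl⟩))
        (Or.inr (Or.inl ⟨c, fam i, n c, w, hn, le_rfl, h1, rfl, h3.symm⟩))
      have h4 : (n c - 1) + 1 = n c := by omega
      rw [(Z.cl c).side_bot G h4]
      exact Sym2.mem_mk_right _ _
    | succ d ih =>
      intro j hj
      have hj' : j < n c := by omega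
      obtain ⟨ψ, hψ⟩ := ih (j + 1) (by omega)
      obtain ⟨⟨ψ', hψ'⟩, _⟩ := ((T.tw c (fam i)).mv j).ext ((T.tw c (fam i)).par j)
        ((T.tw c (fam i)).qp j) ((T.tw c (fam i)).tc j) i (kj c j) (hcell c j hj')
        (hcore c j hj' ψ hψ)
      exact ⟨ψ', fun G w h1 h2 h3 => hψ' G w (Shell.mem_bool_side _) ⟨h1, h2⟩ h3⟩
  -- the outer potential
  obtain ⟨Ψ0, hΨ0⟩ := hi (fun F0 w => κ' (Z.old F0) w) (by
    intro q0
    rcases Z.cells q0 with ⟨c, rfl⟩ | ⟨q, hq⟩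
    · obtain ⟨ψ, hψ⟩ := hA c (n c) 0 (by omega)
      refine ⟨ψ, fun F w hF hw hl => ?_⟩
      obtain ⟨e, b, _, he⟩ := ((S c).onE hF).1 hw.2
      have hP : w ∈ ((T.tw c (fam i)).pat 0).P := (T.P0 _ _ _).2 ⟨hw.1, by rw [hl], e, he⟩
      have h1 := hψ ⟨F, hF⟩ w hP hw.2 ((T.lab0 hP).trans hl)
      rw [Z.hf_zero, (Z.cl c).hp_zero, T.mu0 (G := ⟨F, hF⟩) hP hw.2] at h1
      exact h1
    · obtain ⟨ψ, hψ⟩ := hκ q
      exact ⟨ψ, fun F w hF hw hl => hψ _ _ _ (hq F hF) (Or.inl ⟨F, rfl, hw.1, hw.2, rfl⟩)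
        (Or.inl ⟨hw.1, hl⟩)⟩)
  -- upward
  have hstep : ∀ c j, ∃ f : (W → ZMod 2) → (S c).Pnt → ZMod 2, ∀ ψ, j < n c → Pot c j ψ →
      (∀ w, f ψ ((S c).top w) = ψ w) ∧ ∀ F x, (S c).sphSh.Lay F →
        x ∈ ((T.tw c (fam i)).mv j).P' → x ∈ (S c).sphSh.On F →
        ((T.tw c (fam i)).mv j).lab' x = i →
        kj c j F x = f ψ x + f ψ (((T.tw c (fam i)).mv j).mu' ((T.tw c (fam i)).par j) F x) := by
    intro c j
    have : ∀ ψ, ∃ Θ : (S c).Pnt → ZMod 2, j < n c → Pot c j ψ →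
      (∀ w, Θ ((S c).top w) = ψ w) ∧ ∀ F x, (S c).sphSh.Lay F →
        x ∈ ((T.tw c (fam i)).mv j).P' → x ∈ (S c).sphSh.On F →
        ((T.tw c (fam i)).mv j).lab' x = i →
        kj c j F x = Θ x + Θ (((T.tw c (fam i)).mv j).mu' ((T.tw c (fam i)).par j) F x) := by
      intro ψ
      by_cases h : j < n c ∧ Pot c j ψ
      · obtain ⟨hj, hψ⟩ := h
        obtain ⟨ψ1, hψ1⟩ := hA c (n c - (j + 1)) (j + 1) (by omega)
        obtain ⟨Θ, h1, h2⟩ := (((T.tw c (fam i)).mv j).ext ((T.tw c (fam i)).par j)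
          ((T.tw c (fam i)).qp j) ((T.tw c (fam i)).tc j) i (kj c j) (hcell c j hj)
          (hcore c j hj ψ1 hψ1)).2 ψ (fun G w _ hw hl => hψ G w hw.1 hw.2 hl)
        exact ⟨Θ, fun _ _ => ⟨h1, h2⟩⟩
      · exact ⟨0, fun h1 h2 => (h ⟨h1, h2⟩).elim⟩
    choose f hf using this
    exact ⟨f, hf⟩
  choose f hf using hstep
  let ψ : ∀ c : κ, ℕ → W → ZMod 2 := fun c => Nat.rec Ψ0 fun j ψ w => f c j ψ ((S c).bot w)
  have ψz : ∀ c, ψ c 0 = Ψ0 := fun _ => rfl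
  have ψs : ∀ c j w, ψ c (j + 1) w = f c j (ψ c j) ((S c).bot w) := fun _ _ _ => rfl
  have hpot : ∀ c j, j ≤ n c → Pot c j (ψ c j) := by
    intro c j
    induction j with
    | zero =>
      intro _ G w h1 h2 h3
      have h4 := (T.P0 c (fam i) w).1 h1
      have h5 := hΨ0 G.1 w ⟨h4.1, h2⟩ ((T.lab0 h1).symm.trans h3)
      rw [ψz, Z.hf_zero, (Z.cl c).hp_zero, T.mu0 h1 h2]
      exact h5
    | succ j ih =>
      intro hj G w h1 h2 h3
      have hj' : j < n c := hj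
      obtain ⟨g1, g2⟩ := hf c j (ψ c j) hj' (ih hj'.le)
      have g3 := g2 (Sum.inr (Sum.inl ⟨G, Shell.mem_bool_side _⟩)) ((S c).bot w)
        ((S c).sphSh.lay_bot _) (((T.tw c (fam i)).mv j).bot_mem_P'.2 (mem_B.2 h1))
        ((S c).sphSh.bot_mem_On.2 h2) (by
          show ((T.tw c (fam i)).mv j).lab0 w = i
          rw [lab0_eq]; exact h3)
      have g4 : ((T.tw c (fam i)).mv j).mu' ((T.tw c (fam i)).par j)
          (Sum.inr (Sum.inl ⟨G, Shell.mem_bool_side _⟩)) ((S c).bot w) =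
          (S c).bot (((T.tw c (fam i)).pat (j + 1)).mu G w) := by
        rw [← mu0_eq]; rfl
      rw [g4] at g3
      rw [ψs, ψs]
      exact g3
  -- the final potential
  let Val : W → ZMod 2 → Prop := fun x z =>
    ((∃ F0, x ∈ M0.On F0) ∧ z = Ψ0 x) ∨
    (∃ c j w, 0 < j ∧ j ≤ n c ∧ (∃ e, w ∈ (S c).OnE e) ∧ x = (Z.cl c).hp j w ∧ z = ψ c j w) ∨
    ∃ c j v, j < n c ∧ x = (Z.cl c).vp j v ∧ z = f c j (ψ c j) ((S c).vert v)
  have hval : ∀ x z z', Val x z → Val x z' → z = z' := by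
    intro x z z' h h'
    rcases h with ⟨⟨F0, h1⟩, h2⟩ | ⟨c, j, w, h1, h2, ⟨e, h3⟩, h4, h5⟩ | ⟨c, j, v, h1, h2, h3⟩
    · rcases h' with ⟨_, g2⟩ | ⟨c', j', w', g1, g2, ⟨e', g3⟩, g4, g5⟩ | ⟨c', j', v', g1, g2, g3⟩
      · exact h2.trans g2.symm
      · rw [g4] at h1
        exact (Z.hp_new g1 g2 g3 h1).elim
      · rw [g2] at h1
        exact (Z.vp_new g1 h1).elim
    · rcases h' with ⟨⟨F0, g1⟩, g2⟩ | ⟨c', j', w', g1, g2, ⟨e', g3⟩, g4, g5⟩ | ⟨c', j', v', g1, g2, g3⟩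
      · rw [h4] at g1
        exact (Z.hp_new h1 h2 h3 g1).elim
      · have hc := Z.hp_core h2 g2 h3 g3 (h4.symm.trans g4)
        subst hc
        obtain ⟨rfl, rfl⟩ := (Z.cl c).hp_inj h2 g2 h3 g3 (h4.symm.trans g4)
        exact h5.trans g5.symm
      · exact (Z.hp_ne_vp h2 g1 h3 (h4.symm.trans g2)).elim
    · rcases h' with ⟨⟨F0, g1⟩, g2⟩ | ⟨c', j', w', g1, g2, ⟨e', g3⟩, g4, g5⟩ | ⟨c', j', v', g1, g2, g3⟩
      · rw [h2] at g1
        exact (Z.vp_new h1 g1).elim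
      · exact (Z.hp_ne_vp g2 h1 g3 (g4.symm.trans h2)).elim
      · have hc := Z.vp_core h1 g1 (h2.symm.trans g2)
        subst hc
        obtain ⟨rfl, rfl⟩ := (Z.cl c).vp_inj h1 g1 (h2.symm.trans g2)
        exact h3.trans g3.symm
  obtain ⟨Ψ, hΨ⟩ : ∃ Ψ : W → ZMod 2, ∀ x z, Val x z → Ψ x = z := by
    refine ⟨fun x => if h : ∃ z, Val x z then h.choose else 0, fun x z h => ?_⟩
    have h' : ∃ z, Val x z := ⟨z, h⟩
    show (if h : ∃ z, Val x z then h.choose else 0) = z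
    rw [dif_pos h']
    exact hval x _ _ h'.choose_spec h
  have Ψold : ∀ x F0, x ∈ M0.On F0 → Ψ x = Ψ0 x := fun x F0 h => hΨ x _ (Or.inl ⟨⟨F0, h⟩, rfl⟩)
  have Ψhp : ∀ c j w e, j ≤ n c → w ∈ (S c).OnE e → Ψ ((Z.cl c).hp j w) = ψ c j w := by
    intro c j w e hj he
    by_cases h0 : j = 0
    · subst h0
      rw [(Z.cl c).hp_zero, ψz]
      exact Ψold w _ ((S c).on_of_onE he false)
    · exact hΨ _ _ (Or.inr (Or.inl ⟨c, j, w, Nat.pos_of_ne_zero h0, hj, ⟨e, he⟩, rfl, rfl⟩))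
  have Ψemb : ∀ c j x, j < n c → x ∈ ((T.tw c (fam i)).mv j).P' →
      Ψ (emb Z c j x) = f c j (ψ c j) x := by
    intro c j x hj hx
    rcases x with w | w | v
    · obtain ⟨e, he⟩ := onE (((T.tw c (fam i)).mv j).top_mem_P'.1 hx)
      have h1 := (hf c j (ψ c j) hj (hpot c j hj.le)).1 w
      exact (Ψhp c j w e hj.le he).trans h1.symm
    · obtain ⟨e, he⟩ := onE (mem_B.1 (((T.tw c (fam i)).mv j).bot_mem_P'.1 hx))
      exact Ψhp c (j + 1) w e hj he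
    · exact hΨ _ _ (Or.inr (Or.inr ⟨c, j, v, hj, rfl, rfl⟩))
  refine ⟨Ψ, fun F w x hR hL => ?_⟩
  rcases Z.cases F with ⟨F0, rfl⟩ | ⟨c, G, j, hj0, hj, rfl⟩ | ⟨c, e, j, hj, rfl⟩
  · obtain ⟨h1, h2, rfl⟩ := r_old hR
    have hl : s.lab w = i := l_un (Or.inl ⟨h1, rfl⟩) hL
    rw [Ψold w F0 h2, Ψold _ F0 (s.mu_mem h1 h2).2]
    exact hΨ0 F0 w ⟨h1, h2⟩ hl
  · obtain ⟨a, u, h1, h2, rfl, rfl⟩ := r_hf hj0 hj hR
    have hl : ((T.tw c a).pat j).lab u = i :=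
      l_un (Or.inr (Or.inl ⟨c, a, j, u, hj0, hj, h1, rfl, rfl⟩)) hL
    have ha : a = fam i := by rw [← hl, T.labj h1]
    subst ha
    obtain ⟨e, he⟩ := onE h1
    have g1 := ((T.tw c (fam i)).pat j).mu_mem h1 (F := G) h2
    obtain ⟨e', he'⟩ := onE g1.1
    rw [Ψhp c j u e hj he, Ψhp c j _ e' hj he']
    exact hpot c j hj G u h1 h2 hl
  · obtain ⟨a, u, h1, h2, rfl, rfl⟩ := r_vf hj hR
    have hl : ((T.tw c a).mv j).lab' u = i := l_un (lb_emb hj h1) hL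
    have ha : a = fam i := by rw [← hl, fam_lab' h1]
    subst ha
    rw [Ψemb c j u hj h1, Ψemb c j _ hj (mu'_spec h1 h2).1]
    exact (hf c j (ψ c j) hj (hpot c j hj.le)).2 (Sum.inr (Sum.inr e)) u
      ((S c).sphSh.lay_vert e) h1 h2 hl

/-- **`H¹ = 0` for the state with layers** -/
theorem h1 {i : J} (hi : s.H1 i) (l0 : W → J) : ((rel Z T).st l0).H1 i :=
  (rel Z T).h1 fun κ' hκ => rel_h1 hi κ' hκ

/-- all points of the sheet `i` are joined with the old ones -/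
theorem new_mem {i : J} (X : Set W)
    (hX : ∀ F w x, w ∈ X → R Z T F w x → Lb Z T w i → x ∈ X)
    (h0 : ∀ w ∈ s.P, s.lab w = i → w ∈ X) : ∀ w, Lb Z T w i → w ∈ X := by
  have hlay : ∀ c j, j < n c →
      (∀ w, w ∈ ((T.tw c (fam i)).pat j).P → ((T.tw c (fam i)).pat j).lab w = i →
        (Z.cl c).hp j w ∈ X) →
      ∀ x, x ∈ ((T.tw c (fam i)).mv j).P' → ((T.tw c (fam i)).mv j).lab' x = i →
        emb Z c j x ∈ X := by
    intro c j hj hw x hxP hxl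
    let m := (T.tw c (fam i)).mv j
    let hp := (T.tw c (fam i)).par j
    have hX' : ∀ F x, (S c).sphSh.Lay F → emb Z c j x ∈ X → x ∈ m.P' → x ∈ (S c).sphSh.On F →
        m.lab' x = i → emb Z c j (m.mu' hp F x) ∈ X := by
      intro F x _ h2 h3 h4 h5
      exact hX _ _ _ h2 (r_lay hj h3 h4) (h5 ▸ lb_emb hj h3)
    by_cases hq : x ∈ m.qe
    · have hi : m.i0 = i := (m.lab_qe hq).symm.trans hxl
      refine (T.tw c (fam i)).qc j {x | emb Z c j x ∈ X} (fun F x h4 h5 h6 h7 => hX' F x h4 h7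
        (m.qe_sub_P' h5) h6 ((m.lab_qe h5).trans hi)) (fun w hw' => ?_) x hq
      have h1 := (m.top_mem_qe.1 hw').1
      exact hw w h1 ((m.lab_qe hw').trans hi)
    · rcases x with w | w | v
      · exact hw w (m.top_mem_P'.1 hxP) hxl
      · have hB := m.bot_mem_P'.1 hxP
        have hP : w ∈ ((T.tw c (fam i)).pat j).P := by
          by_contra hP
          exact hq (m.bot_mem_qe.2 ⟨hB, hP⟩)
        obtain ⟨e, he⟩ := m.B_on hB
        have hl : ((T.tw c (fam i)).pat j).lab w = i := (m.same_lab hP hB).symm.trans hxl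
        have h1 := hX' (Sum.inr (Sum.inr e)) ((S c).top w) ((S c).sphSh.lay_vert e) (hw w hP hl)
          (m.top_mem_P'.2 hP) ((S c).sphSh.top_mem_vert.2 he) hl
        rw [m.mu'_vert_nqe hp (m.top_not_qe hB)] at h1
        exact h1
      · exact (hq (m.vert_mem_qe.2 (m.vert_mem_P'.1 hxP))).elim
  have hpat : ∀ c j, j ≤ n c → ∀ w, w ∈ ((T.tw c (fam i)).pat j).P →
      ((T.tw c (fam i)).pat j).lab w = i → (Z.cl c).hp j w ∈ X := by
    intro c j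
    induction j with
    | zero =>
      intro _ w hw hl
      rw [(Z.cl c).hp_zero]
      exact h0 w ((T.P0 c (fam i) w).1 hw).1 ((T.lab0 hw).symm.trans hl)
    | succ j ih =>
      intro hj w hw hl
      exact hlay c j hj (ih (Nat.le_of_succ_le hj)) ((S c).bot w)
        (((T.tw c (fam i)).mv j).bot_mem_P'.2 (mem_B.2 hw)) (by
          show ((T.tw c (fam i)).mv j).lab0 w = i
          rw [lab0_eq]; exact hl)
  rintro w (⟨h1, h2⟩ | ⟨c, a, j, u, h1, h2, h3, rfl, h5⟩ | ⟨c, a, j, v, h1, h2, rfl, h4⟩)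
  · exact h0 w h1 h2
  · have ha : a = fam i := by rw [h5, T.labj h3]
    subst ha
    exact hpat c j h2 u h3 h5.symm
  · have ha : a = fam i := by rw [h4, T.labv h2]
    subst ha
    exact hlay c j h1 (hpat c j h1.le) ((S c).vert v)
      (((T.tw c (fam i)).mv j).vert_mem_P'.2 h2) h4.symm

/-- **connectedness for the state with layers** -/
theorem conn {i : J} (hi : s.Conn i) (l0 : W → J) : ((rel Z T).st l0).Conn i := by
  obtain ⟨⟨w0, hw0, hl0⟩, hc⟩ := hi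
  refine (rel Z T).conn ⟨w0, Or.inl ⟨hw0, hl0⟩⟩ ?_
  intro X hX w hw hL w' hL'
  have hX : ∀ F w x, w ∈ X → R Z T F w x → Lb Z T w i → x ∈ X := hX
  -- an old point of the sheet in `X`
  have hold : ∀ Y : Set W, (∀ F w x, w ∈ Y → R Z T F w x → Lb Z T w i → x ∈ Y) →
      (∃ u ∈ Y, u ∈ s.P ∧ s.lab u = i) → ∀ w, Lb Z T w i → w ∈ Y := by
    rintro Y hY ⟨u, hu, huP, hul⟩
    refine new_mem Y hY ?_
    intro w' hw' hl'
    exact hc Y (fun F w h1 h2 h3 => hY (Z.old F) w _ h1 (Or.inl ⟨F, rfl, h2.1, h2.2, rfl⟩)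
      (Or.inl ⟨h2.1, h3⟩)) u hu huP hul w' hw' hl'
  by_cases h : ∃ u ∈ X, u ∈ s.P ∧ s.lab u = i
  · exact hold X hX h w' hL'
  · exfalso
    have h2 : ∀ F w x, w ∈ Xᶜ → R Z T F w x → Lb Z T w i → x ∈ Xᶜ := by
      intro F w x h3 h4 h5 h6
      obtain ⟨i', h7, h8⟩ := r_lb h4
      have h9 : i' = i := l_un h7 h5
      subst h9
      exact h3 (hX F x w h6 (r_symm h4) h8)
    have h3 : w0 ∈ Xᶜ := fun h4 => h ⟨w0, h4, hw0, hl0⟩
    exact hold Xᶜ h2 ⟨w0, h3, hw0, hl0⟩ w hL hw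

/-! ### the state on the old faces and at the shrunk cores -/

theorem old_P {w : W} (h : w ∈ s.P) (l0 : W → J) :
    w ∈ ((rel Z T).st l0).P ∧ ((rel Z T).st l0).lab w = s.lab w :=
  ⟨⟨s.lab w, Or.inl ⟨h, rfl⟩⟩, (rel Z T).lab_eq (Or.inl ⟨h, rfl⟩)⟩

theorem of_old {w : W} {F0 : Φ0} (hF : w ∈ M0.On F0) {l0 : W → J}
    (h : w ∈ ((rel Z T).st l0).P) : w ∈ s.P := by
  obtain ⟨i, h | ⟨c, a, j, u, h1, h2, h3, rfl, h5⟩ | ⟨c, a, j, v, h1, h2, rfl, h4⟩⟩ := h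
  · exact h.1
  · obtain ⟨e, he⟩ := onE h3
    exact (Z.hp_new h1 h2 he hF).elim
  · exact (Z.vp_new h1 hF).elim

theorem old_mu {w : W} {F0 : Φ0} (h : w ∈ s.P) (hF : w ∈ M0.On F0) (l0 : W → J) :
    ((rel Z T).st l0).mu (Z.old F0) w = s.mu F0 w :=
  (rel Z T).mu_eq (Or.inl ⟨F0, rfl, h, hF, rfl⟩)

theorem bot_P {c : κ} {a : C} {u : W} (h : u ∈ ((T.tw c a).pat (n c)).P) (l0 : W → J) :
    (Z.cl c).hp (n c) u ∈ ((rel Z T).st l0).P ∧
      ((rel Z T).st l0).lab ((Z.cl c).hp (n c) u) = ((T.tw c a).pat (n c)).lab u := by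
  have h1 : Lb Z T ((Z.cl c).hp (n c) u) (((T.tw c a).pat (n c)).lab u) :=
    Or.inr (Or.inl ⟨c, a, n c, u, (Z.cl c).npos, le_rfl, h, rfl, rfl⟩)
  exact ⟨⟨_, h1⟩, (rel Z T).lab_eq h1⟩

theorem bot_mu {c : κ} {a : C} {u : W} {G : (S c).Fk} (h : u ∈ ((T.tw c a).pat (n c)).P)
    (hG : u ∈ M0.On G.1) (l0 : W → J) :
    ((rel Z T).st l0).mu ((Z.cl c).hf G (n c)) ((Z.cl c).hp (n c) u) =
      (Z.cl c).hp (n c) (((T.tw c a).pat (n c)).mu G u) :=
  (rel Z T).mu_eq (Or.inr (Or.inl ⟨c, a, n c, G, u, (Z.cl c).npos, le_rfl, rfl, h, hG, rfl, rfl⟩))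

/-- the points on the boundary of the shrunk core -/
theorem bot_cases {c : κ} {w : W} {G : (S c).Fk} {l0 : W → J}
    (h : w ∈ ((rel Z T).st l0).P) (hG : w ∈ M.On ((Z.cl c).hf G (n c))) :
    ∃ a u, u ∈ ((T.tw c a).pat (n c)).P ∧ u ∈ M0.On G.1 ∧ w = (Z.cl c).hp (n c) u := by
  obtain ⟨i, h⟩ := h
  obtain ⟨x, hx⟩ := r_ex (Z := Z) (T := T) h hG
  obtain ⟨a, u, h1, h2, h3, _⟩ := r_hf (Z.cl c).npos le_rfl hx
  exact ⟨a, u, h1, h2, h3⟩

end Twrs

end Crest.Agent.R096.Door_501
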