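import Crest.Agent.R096.Twr9_438

/-!
# Row 96, DOORS-TOWER, part 10 (helper438): the order of the essential curves, and the target
condition `Tgt` from positions

`exists_rk`   : essential curves of one family, one for every name, are ordered by a rank `rk`.
`tgt_of_pack` : `Tgt` when the exact curves are levels `{u = lv i}` above all essential curves
(560 #10528), `lv` in the order of `rk`.
-/

set_option autoImplicit false

namespace Crest.Agent.R096.Twr_438

open Crest.Agent.R096.St_147 Crest.Agent.R096.Door_501 Crest.Agent.R096.Qp_106 Classical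

variable {ι Φ W : Type} {M : MeshC ι Φ W} {k : ι} {Vx Ed : Type} {S : Shell M k Vx Ed}
variable {I : Type} {col : I → Bool}

section order

variable [Fintype Ed] {v0 v1 : Vx} {t : St S.sph col}

/-- the points strictly below the curve of `w` -/
noncomputable def blw (S : Shell M k Vx Ed) (v0 : Vx) (t : St S.sph col) (w : W) : Finset W :=
  t.P.filter fun x => x ∉ comp true t w ∧ sd S.sphSh v0 (comp true t w) x = 0

/-- of two essential curves one is below the other one -/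
theorem sd_add (hS : S.sphSh.Sph) (hC : S.sphSh.Circ) (hCon : S.sphSh.Con)
    (hv0 : ∃ e b, S.en e b = v0) (hv1 : ∃ e b, S.en e b = v1) (hcol : ∀ i j : I, col i = col j)
    (on : ∀ w ∈ t.P, ∃ e, w ∈ S.OnE e)
    (ess : ∀ w ∈ t.P, lbl S.sphSh v0 (comp true t w) v1 = 1) {x w : W} (hx : x ∈ t.P)
    (hw : w ∈ t.P) (hxw : x ∉ comp true t w) :
    (∀ y ∈ comp true t x, sd S.sphSh v0 (comp true t w) y = sd S.sphSh v0 (comp true t w) x) ∧
    (∀ y ∈ comp true t w, sd S.sphSh v0 (comp true t x) y = sd S.sphSh v0 (comp true t x) w) ∧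
    sd S.sphSh v0 (comp true t w) x + sd S.sphSh v0 (comp true t x) w = 1 ∧
    ∀ y, sd S.sphSh v0 (comp true t x) y * sd S.sphSh v0 (comp true t w) y =
      sd S.sphSh v0 (comp true t w) x * sd S.sphSh v0 (comp true t x) y +
      sd S.sphSh v0 (comp true t x) w * sd S.sphSh v0 (comp true t w) y := by
  have hd := comp_disj hx hxw
  obtain ⟨p, hp⟩ := sd_const hS hC v0 (cc S.sphSh t on x) (cc S.sphSh t on w) (cn_cc on x) hd
    (nlc_cc hcol on hd)
  obtain ⟨q, hq⟩ := sd_const hS hC v0 (cc S.sphSh t on w) (cc S.sphSh t on x) (cn_cc on w) hd.symm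
    (nlc_cc hcol on hd.symm)
  have hpx : p = sd S.sphSh v0 (comp true t w) x := (hp x (self_mem hx)).symm
  have hqw : q = sd S.sphSh v0 (comp true t x) w := (hq w (self_mem hw)).symm
  obtain ⟨r1, r2⟩ := sd_rule hS hCon hv0 (cc S.sphSh t on x) (cc S.sphSh t on w) hd hp hq
  have h1 := r2 v1 hv1
  have h2 : lbl S.sphSh v0 (cc S.sphSh t on x).C v1 = 1 := ess x hx
  have h3 : lbl S.sphSh v0 (cc S.sphSh t on w).C v1 = 1 := ess w hw
  rw [h2, h3] at h1
  have z : ∀ p q : ZMod 2, 1 * 1 = p * 1 + q * 1 → p + q = 1 := by decide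
  rw [← hpx, ← hqw]
  exact ⟨hp, hq, z p q h1, r1⟩

theorem blw_lt (hS : S.sphSh.Sph) (hC : S.sphSh.Circ) (hCon : S.sphSh.Con)
    (hv0 : ∃ e b, S.en e b = v0) (hv1 : ∃ e b, S.en e b = v1) (hcol : ∀ i j : I, col i = col j)
    (on : ∀ w ∈ t.P, ∃ e, w ∈ S.OnE e)
    (ess : ∀ w ∈ t.P, lbl S.sphSh v0 (comp true t w) v1 = 1) {x w : W} (hx : x ∈ t.P)
    (hw : w ∈ t.P) (hxw : x ∉ comp true t w) (h0 : sd S.sphSh v0 (comp true t w) x = 0) :
    (blw S v0 t x).card < (blw S v0 t w).card := by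
  obtain ⟨_, hq, hs, hr⟩ := sd_add hS hC hCon hv0 hv1 hcol on ess hx hw hxw
  have hq1 : sd S.sphSh v0 (comp true t x) w = 1 := by
    rw [h0, zero_add] at hs
    exact hs
  refine Finset.card_lt_card ((Finset.ssubset_iff_of_subset ?_).2 ⟨x, ?_, ?_⟩)
  · intro y hy
    obtain ⟨g1, g2, g3⟩ := Finset.mem_filter.1 hy
    refine Finset.mem_filter.2 ⟨g1, fun g4 => ?_, ?_⟩
    · have g5 := hq y g4
      rw [g3, hq1] at g5
      exact absurd g5 (by decide)
    · have g5 := hr y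
      rw [g3, h0, hq1] at g5
      have z : ∀ b : ZMod 2, 0 * b = 0 * 0 + 1 * b → b = 0 := by decide
      exact z _ g5
  · exact Finset.mem_filter.2 ⟨hx, hxw, h0⟩
  · intro h
    exact (Finset.mem_filter.1 h).2.1 (self_mem hx)

/-- **the order of the essential curves of one family** (one curve for every name) -/
theorem exists_rk (hS : S.sphSh.Sph) (hC : S.sphSh.Circ) (hCon : S.sphSh.Con)
    (hv0 : ∃ e b, S.en e b = v0) (hv1 : ∃ e b, S.en e b = v1) (hcol : ∀ i j : I, col i = col j)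
    (t : St S.sph col) (on : ∀ w ∈ t.P, ∃ e, w ∈ S.OnE e)
    (conn : ∀ w ∈ t.P, ∀ w' ∈ t.P, t.lab w' = t.lab w → w' ∈ comp true t w)
    (ess : ∀ w ∈ t.P, lbl S.sphSh v0 (comp true t w) v1 = 1) :
    ∃ rk : I → ℕ, (∀ i, rk i ≤ t.P.card) ∧ ∀ x ∈ t.P, ∀ w ∈ t.P, t.lab x ≠ t.lab w →
      (rk (t.lab x) < rk (t.lab w) ∧ sd S.sphSh v0 (comp true t w) x = 0) ∨
      (rk (t.lab w) < rk (t.lab x) ∧ sd S.sphSh v0 (comp true t w) x = 1) := by
  refine ⟨fun i => if h : ∃ w ∈ t.P, t.lab w = i then (blw S v0 t h.choose).card else 0, ?_, ?_⟩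
  · intro i
    dsimp only
    split_ifs with h
    · exact Finset.card_filter_le _ _
    · exact Nat.zero_le _
  · have key : ∀ w ∈ t.P, (if h : ∃ w' ∈ t.P, t.lab w' = t.lab w then
        (blw S v0 t h.choose).card else 0) = (blw S v0 t w).card := by
      intro w hw
      have h : ∃ w' ∈ t.P, t.lab w' = t.lab w := ⟨w, hw, rfl⟩
      rw [dif_pos h]
      obtain ⟨h1, h2⟩ := h.choose_spec
      have h3 := comp_eq (conn w hw _ h1 h2)
      unfold blw
      rw [h3]
    intro x hx w hw hne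
    dsimp only
    rw [key x hx, key w hw]
    have hxw : x ∉ comp true t w := fun h => hne (mem_comp.1 h).2.lab
    have hwx : w ∉ comp true t x := fun h => hne (mem_comp.1 h).2.lab.symm
    rcases zz_cases (sd S.sphSh v0 (comp true t w) x) with h | h
    · exact Or.inl ⟨blw_lt hS hC hCon hv0 hv1 hcol on ess hx hw hxw h, h⟩
    · obtain ⟨_, _, hs, _⟩ := sd_add hS hC hCon hv0 hv1 hcol on ess hx hw hxw
      have h0 : sd S.sphSh v0 (comp true t x) w = 0 := by
        rw [h] at hs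
        have z : ∀ q : ZMod 2, 1 + q = 1 → q = 0 := by decide
        exact z _ hs
      exact Or.inr ⟨blw_lt hS hC hCon hv0 hv1 hcol on ess hw hx hwx h0, h⟩

end order

/-- **`Tgt` from positions**: `u` = the level coordinate on the sphere, `lv i` = the exact level of
the sheet `i`, all above the essential curves; `lv` in the order of the essential curves. -/
theorem tgt_of_pack {v0 v1 : Vx} {t d : St S.sph col} (u : W → ℝ) (lv : I → ℝ)
    (on_s : ∀ w ∈ t.P, ∃ e, w ∈ S.OnE e) (on_d : ∀ w ∈ d.P, ∃ e, w ∈ S.OnE e)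
    (inj : ∀ w ∈ d.P, ∀ w' ∈ d.P, lv (d.lab w) = lv (d.lab w') → d.lab w = d.lab w')
    (hd : ∀ w ∈ d.P, u w = lv (d.lab w))
    (hlow : ∀ w ∈ t.P, ∀ w' ∈ d.P, u w < lv (d.lab w'))
    (hsd : ∀ w ∈ d.P, ∀ x, (∃ e, x ∈ S.OnE e) → u x ≠ lv (d.lab w) →
      sd S.sphSh v0 (comp true d w) x = if lv (d.lab w) < u x then 1 else 0)
    (nl : ∀ F w x, w ∈ t.P → w ∈ S.sph.On F → x ∈ d.P → x ∈ S.sph.On F →
      ¬ S.sph.Lace F w (t.mu F w) x (d.mu F x))
    (ord : ∀ x ∈ t.P, ∀ w ∈ t.P, lv (t.lab x) < lv (t.lab w) →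
      sd S.sphSh v0 (comp true t w) x = 0)
    (conn_s : ∀ w ∈ t.P, ∀ w' ∈ t.P, t.lab w' = t.lab w → w' ∈ comp true t w)
    (conn_d : ∀ w ∈ d.P, ∀ w' ∈ d.P, d.lab w' = d.lab w → w' ∈ comp true d w)
    (ess_s : ∀ w ∈ t.P, lbl S.sphSh v0 (comp true t w) v1 = 1)
    (ess_d : ∀ w ∈ d.P, lbl S.sphSh v0 (comp true d w) v1 = 1)
    (ex_s : ∀ w ∈ d.P, ∃ w' ∈ t.P, t.lab w' = d.lab w)
    (ex_d : ∀ w ∈ t.P, ∃ w' ∈ d.P, d.lab w' = t.lab w) : Tgt S v0 v1 t d lv where
  on_s := on_s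
  on_d := on_d
  disj := by
    rw [Finset.disjoint_left]
    intro w h1 h2
    have h3 := hlow w h1 w h2
    rw [hd w h2] at h3
    exact lt_irrefl _ h3
  conn_s := conn_s
  conn_d := conn_d
  ess_s := ess_s
  ess_d := ess_d
  ex_s := ex_s
  ex_d := ex_d
  nl := nl
  rk_inj := inj
  ord_t := ord
  ord_s := by
    intro x hx w hw _
    have h1 := hlow x hx w hw
    rw [hsd w hw x (on_s x hx) h1.ne, if_neg (not_lt.2 h1.le)]
  ord_d := by
    intro x hx w hw hxw
    have h1 : u x ≠ lv (d.lab w) := by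
      rw [hd x hx]
      intro h
      exact hxw (conn_d w hw x hx (inj x hx w hw h))
    rw [hsd w hw x (on_d x hx) h1, hd x hx]

end Crest.Agent.R096.Twr_438
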