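import Crest.Agent.R096.Exa7_560
import Crest.Agent.R096.Twr10_438

/-!
# R096 (row 96), DOORS / EXA part 8 (helper560): the target condition `Tgt` of the towers

* `exa_tgt`   : `Tgt` for one core and one neighbour family from a `Lev` above all essential curves.
* `exists_pt` : every level has a point of its name.
-/

set_option autoImplicit false
set_option linter.unusedSectionVars false
set_option linter.style.longLine false

open Set Metric Module
open scoped Classical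

namespace Crest.Agent.R096.Exa_560

open Crest.Agent.R096.Msh_715 Crest.Agent.R096.Agl5_543 Crest.Agent.R096.St_147
  Crest.Agent.R096.Lac_441 Crest.Agent.R096.Twr_438

variable {E : Type} [NormedAddCommGroup E] [NormedSpace ℝ E] [FiniteDimensional ℝ E]
variable {Om : Set E} {ι : Type} {T : Tiling Om ι}
variable {κ : Type} {Kc : κ → Set E} {J : Type}
variable {h3 : finrank ℝ E = 3} {hH : ∀ c, CoreH T (Kc c)}
  {hdis : ∀ c c', c ≠ c' → Disjoint (Kc c) (Kc c')} {c : κ}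

/-- every nonempty level has a point on a 1-cell -/
theorem exists_pt [Nonempty J] (L : Lev T (frontier (Kc c)) J) {j : J} (hj : j ∈ L.J0)
    (hne : {x | x ∈ frontier (Kc c) ∧ L.u x = L.lv j}.Nonempty) :
    ∃ w ∈ (exa h3 hH hdis L).P, (exa h3 hH hdis L).lab w = j := by
  obtain ⟨x, hx, hxj⟩ := hne
  obtain ⟨F, hF, hxF⟩ := (sgd h3 hH c).cov x hx
  obtain ⟨p, _, _, hp, _, hpj, _⟩ := L.face hF hj hxF hxj
  exact ⟨p, (mem_P L).2 ⟨hF hp.1, hp.2, j, hj, hpj⟩, lab_of L hj hpj⟩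

/-- **`Tgt` for one core and one family** -/
theorem exa_tgt [Nonempty J] (L : Lev T (frontier (Kc c)) J) {v0 v1 : VxK T Kc c}
    (hcon : ∀ j ∈ L.J0, IsPreconnected {x | x ∈ frontier (Kc c) ∧ L.u x = L.lv j})
    (hne : ∀ j ∈ L.J0, {x | x ∈ frontier (Kc c) ∧ L.u x = L.lv j}.Nonempty)
    (h0 : ∀ j ∈ L.J0, L.u v0.1 < L.lv j) (h1 : ∀ j ∈ L.J0, L.lv j < L.u v1.1)
    (t : St (shellH h3 hH hdis c).sph (fun _ : J => true))
    (on_s : ∀ w ∈ t.P, ∃ e, w ∈ (shellH h3 hH hdis c).OnE e)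
    (conn_s : ∀ w ∈ t.P, ∀ w' ∈ t.P, t.lab w' = t.lab w → w' ∈ comp true t w)
    (ess_s : ∀ w ∈ t.P, lbl (shellH h3 hH hdis c).sphSh v0 (comp true t w) v1 = 1)
    (ex_s : ∀ j ∈ L.J0, ∃ w ∈ t.P, t.lab w = j) (ex_t : ∀ w ∈ t.P, t.lab w ∈ L.J0)
    (hlow : ∀ w ∈ t.P, ∀ j ∈ L.J0, L.u w < L.lv j)
    (ord : ∀ x ∈ t.P, ∀ w ∈ t.P, L.lv (t.lab x) < L.lv (t.lab w) →
      sd (shellH h3 hH hdis c).sphSh v0 (comp true t w) x = 0) :
    Tgt (shellH h3 hH hdis c) v0 v1 t (exa h3 hH hdis L) L.lv := by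
  have hd : ∀ w ∈ (exa h3 hH hdis L).P, L.u w = L.lv ((exa h3 hH hdis L).lab w) :=
    fun w hw => (exa_lab L hw).2
  have hJ : ∀ w ∈ (exa h3 hH hdis L).P, (exa h3 hH hdis L).lab w ∈ L.J0 :=
    fun w hw => (exa_lab L hw).1
  refine tgt_of_pack L.u L.lv on_s (fun w hw => exa_on L hw) ?_ hd ?_ ?_ ?_ ord conn_s ?_ ess_s ?_
    ?_ ?_
  · intro w hw w' hw' h
    exact L.inj _ (hJ w hw) _ (hJ w' hw') h
  · intro w hw w' hw'
    exact hlow w hw _ (hJ w' hw')
  · rintro w hw x ⟨e, he⟩ hx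
    exact exa_sd L (hJ w hw) (hcon _ (hJ w hw)) hw rfl v0 (not_lt.2 (h0 _ (hJ w hw)).le) he hx
  · intro G w x hw hwG hx hxG
    have hw2 := t.mu_mem hw hwG
    have hx2 := (exa h3 hH hdis L).mu_mem hx hxG
    have hl2 : (exa h3 hH hdis L).lab ((exa h3 hH hdis L).mu G x) = (exa h3 hH hdis L).lab x :=
      (exa h3 hH hdis L).mu_lab hx hxG
    have g1 := hlow w hw _ (hJ x hx)
    have g2 := hlow _ hw2.1 _ (hJ x hx)
    have ux := hd x hx
    have ux2 := hd _ hx2.1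
    rw [hl2] at ux2
    have n1 : x ≠ w := fun h => by rw [← h, ux] at g1; exact lt_irrefl _ g1
    have n2 : x ≠ t.mu G w := fun h => by rw [← h, ux] at g2; exact lt_irrefl _ g2
    have n3 : (exa h3 hH hdis L).mu G x ≠ w := fun h => by
      rw [← h, ux2] at g1; exact lt_irrefl _ g1
    have n4 : (exa h3 hH hdis L).mu G x ≠ t.mu G w := fun h => by
      rw [← h, ux2] at g2; exact lt_irrefl _ g2
    refine lace_symm' hxG hx2.2 hwG hw2.2 n1 n2 n3 n4 ?_
    exact exa_nc L hx hxG rfl hwG hw2.2 g1.ne g2.ne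
      ⟨fun h => absurd h (not_lt.2 g1.le), fun h => absurd h (not_lt.2 g2.le)⟩
  · intro w hw w' hw' h
    exact exa_comp L (hJ w hw) (hcon _ (hJ w hw)) hw rfl hw' h
  · intro w hw
    rw [exa_lbl L (hJ w hw) (hcon _ (hJ w hw)) hw rfl v0 v1 (not_lt.2 (h0 _ (hJ w hw)).le),
      if_pos (h1 _ (hJ w hw))]
  · intro w hw
    exact ex_s _ (hJ w hw)
  · intro w hw
    exact exists_pt L (ex_t w hw) (hne _ (ex_t w hw))

end Crest.Agent.R096.Exa_560
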