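import Crest.Agent.R096.Fce1_793
import Crest.Agent.R096.Msh2_715

/-!
Row 96, p = 2, MF2 (i) of 753 #10588 (helper931): every closed 2-cell of a tiling is of the form
`pt e x '' P` with `P` compact convex in the unit square.
-/

set_option autoImplicit false
set_option linter.unusedSectionVars false

open Set Metric Module
open scoped RealInnerProductSpace

namespace Crest.Agent.R096.Mf2a_931

open Crest.Agent.R096.Fce_793 Crest.Agent.R096.Msh_715

noncomputable section

variable {E : Type*} [NormedAddCommGroup E] [InnerProductSpace ℝ E] [FiniteDimensional ℝ E]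

/-- `pt e a` as an affine function of the parameter -/
theorem pt_comb (e : Fin 2 → E) (a : E) (w w' : ℝ × ℝ) {s t : ℝ} (h : s + t = 1) :
    pt e a (s • w + t • w') = s • pt e a w + t • pt e a w' := by
  have ha : a = s • a + t • a := by rw [← add_smul, h, one_smul]
  simp only [pt, Prod.fst_add, Prod.smul_fst, Prod.snd_add, Prod.smul_snd, smul_eq_mul, add_smul,
    smul_add, mul_smul]
  conv_lhs => rw [ha]
  abel

/-- a compact convex set in a plane is `pt e x '' P`, `P` compact convex in the unit square -/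
theorem plane_form {K : Set E} {V : Submodule ℝ E} (hV : finrank ℝ V = 2) (hK : IsCompact K)
    (hc : Convex ℝ K) {z : E} (hKV : ∀ y ∈ K, y - z ∈ V) {D : ℝ} (hD : 0 < D)
    (hKD : ∀ y ∈ K, ‖y - z‖ ≤ D) :
    ∃ (e : Fin 2 → E) (a : E) (P : Set (ℝ × ℝ)), LinearIndependent ℝ e ∧ (∀ i, ‖e i‖ = 2 * D) ∧
      ⟪e 0, e 1⟫ = 0 ∧ (∀ i, e i ∈ V) ∧ IsCompact P ∧ Convex ℝ P ∧
      P ⊆ Icc (0 : ℝ) 1 ×ˢ Icc (0 : ℝ) 1 ∧ K = pt e a '' P := by
  set b : OrthonormalBasis (Fin 2) ℝ V := (stdOrthonormalBasis ℝ V).reindex (finCongr hV) with hb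
  have hon : Orthonormal ℝ (fun i => (b i : E)) :=
    b.orthonormal.comp_linearIsometry V.subtypeₗᵢ
  have h2D : (2 * D) ≠ 0 := by positivity
  set e : Fin 2 → E := fun i => (2 * D) • (b i : E) with he
  set a : E := z - (D • (b 0 : E) + D • (b 1 : E)) with ha
  have n1 : ∀ i, ‖(b i : E)‖ = 1 := fun i => hon.1 i
  have i00 : ⟪(b 0 : E), (b 0 : E)⟫ = 1 := by rw [real_inner_self_eq_norm_sq, n1]; norm_num
  have i11 : ⟪(b 1 : E), (b 1 : E)⟫ = 1 := by rw [real_inner_self_eq_norm_sq, n1]; norm_num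
  have i01 : ⟪(b 0 : E), (b 1 : E)⟫ = 0 := hon.2 (by decide)
  have i10 : ⟪(b 1 : E), (b 0 : E)⟫ = 0 := hon.2 (by decide)
  -- points of the plane
  have hpt : ∀ w : ℝ × ℝ, pt e a w =
      z + ((2 * D * w.1 - D) • (b 0 : E) + (2 * D * w.2 - D) • (b 1 : E)) := by
    intro w
    simp only [pt, he, ha, sub_smul, smul_smul]
    rw [mul_comm w.1, mul_comm w.2]
    abel
  have hco : ∀ y ∈ K, y = z + (⟪(b 0 : E), y - z⟫ • (b 0 : E) + ⟪(b 1 : E), y - z⟫ • (b 1 : E)) := by
    intro y hy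
    have h1 := b.sum_repr ⟨y - z, hKV y hy⟩
    rw [Fin.sum_univ_two] at h1
    have h2 := congrArg (Subtype.val) h1
    simp only [Submodule.coe_add, Submodule.coe_smul, OrthonormalBasis.repr_apply_apply,
      Submodule.coe_inner] at h2
    rw [h2]; abel
  have hin : ∀ y ∈ K, ∀ i, |⟪(b i : E), y - z⟫| ≤ D := by
    intro y hy i
    refine (abs_real_inner_le_norm _ _).trans ?_
    rw [n1, one_mul]
    exact hKD y hy
  have hcont : Continuous (pt e a) := by unfold pt; fun_prop
  have c0 : ∀ w : ℝ × ℝ, ⟪(b 0 : E), pt e a w - z⟫ = 2 * D * w.1 - D := by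
    intro w
    rw [hpt, add_sub_cancel_left, inner_add_right, real_inner_smul_right, real_inner_smul_right,
      i00, i01]; ring
  have c1 : ∀ w : ℝ × ℝ, ⟪(b 1 : E), pt e a w - z⟫ = 2 * D * w.2 - D := by
    intro w
    rw [hpt, add_sub_cancel_left, inner_add_right, real_inner_smul_right, real_inner_smul_right,
      i10, i11]; ring
  have hsub : pt e a ⁻¹' K ⊆ Icc (0 : ℝ) 1 ×ˢ Icc (0 : ℝ) 1 := by
    intro w hw
    have h1 := hin _ hw 0
    have h2 := hin _ hw 1
    rw [c0, abs_le] at h1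
    rw [c1, abs_le] at h2
    refine ⟨⟨?_, ?_⟩, ?_, ?_⟩
    · by_contra h; push Not at h; nlinarith
    · by_contra h; push Not at h; nlinarith
    · by_contra h; push Not at h; nlinarith
    · by_contra h; push Not at h; nlinarith
  refine ⟨e, a, pt e a ⁻¹' K, ?_, ?_, ?_, ?_, ?_, ?_, ?_, ?_⟩
  · exact hon.linearIndependent.units_smul (fun _ => Units.mk0 (2 * D) h2D)
  · intro i
    simp only [he]
    rw [norm_smul, n1, mul_one, Real.norm_of_nonneg (by positivity)]
  · simp only [he]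
    rw [real_inner_smul_left, real_inner_smul_right, i01]; ring
  · intro i
    exact V.smul_mem _ (b i).2
  · exact (isCompact_Icc.prod isCompact_Icc).of_isClosed_subset
      (hK.isClosed.preimage hcont) hsub
  · intro w hw w' hw' s t hs ht hst
    show pt e a _ ∈ K
    rw [pt_comb e a w w' hst]
    exact hc hw hw' hs ht hst
  · exact hsub
  · refine Subset.antisymm ?_ (image_preimage_subset _ _)
    intro y hy
    have h0 := hco y hy
    have h3 : pt e a ((⟪(b 0 : E), y - z⟫ + D) / (2 * D), (⟪(b 1 : E), y - z⟫ + D) / (2 * D)) = y := by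
      rw [hpt]
      dsimp only
      rw [mul_div_cancel₀ _ h2D, mul_div_cancel₀ _ h2D, add_sub_cancel_right, add_sub_cancel_right,
        ← h0]
    exact ⟨_, by rw [mem_preimage, h3]; exact hy, h3⟩

/-- **every closed 2-cell of a tiling is `pt e x '' P`**, `P` compact convex in the unit square,
`e` orthogonal of length `2 * diam` -/
theorem cc_form {Om : Set E} {ι : Type*} (T : Tiling Om ι) {y : E} (hy : y ∈ Om)
    (hd : T.dim y = 2) :
    ∃ (e : Fin 2 → E) (x : E) (P : Set (ℝ × ℝ)), LinearIndependent ℝ e ∧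
      (∀ i, ‖e i‖ = 2 * diam (T.cc y)) ∧ ⟪e 0, e 1⟫ = 0 ∧ (∀ i, e i ∈ T.V y) ∧ IsCompact P ∧
      Convex ℝ P ∧ P ⊆ Icc (0 : ℝ) 1 ×ˢ Icc (0 : ℝ) 1 ∧ T.cc y = pt e x '' P := by
  have hcpt := T.isCompact_cc hy
  have hV : finrank ℝ (T.V y) = 2 := hd
  have hD : 0 < diam (T.cc y) := by
    obtain ⟨r, hr, hb⟩ := T.exists_ball_oc hy
    have hne : T.V y ≠ ⊥ := by
      intro h
      rw [h, finrank_bot] at hV
      omega
    obtain ⟨v, hv, hv0⟩ := Submodule.exists_mem_ne_zero_of_ne_bot hne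
    have hn : 0 < ‖v‖ := norm_pos_iff.2 hv0
    have h1 : y + (r / (2 * ‖v‖)) • v ∈ T.oc y := by
      refine hb _ ((T.V y).smul_mem _ hv) ?_
      rw [norm_smul, Real.norm_of_nonneg (by positivity)]
      have : r / (2 * ‖v‖) * ‖v‖ = r / 2 := by field_simp
      rw [this]; linarith
    have h2 := dist_le_diam_of_mem hcpt.isBounded (T.oc_sub_cc y h1) (T.self_mem_cc y)
    rw [dist_eq_norm, add_sub_cancel_left, norm_smul, Real.norm_of_nonneg (by positivity)] at h2
    have : r / (2 * ‖v‖) * ‖v‖ = r / 2 := by field_simp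
    rw [this] at h2
    linarith
  exact plane_form hV hcpt (T.convex_cc y) (z := y) (fun w hw => T.sub_mem_V hw) hD fun w hw => by
    rw [← dist_eq_norm]
    exact dist_le_diam_of_mem hcpt.isBounded hw (T.self_mem_cc y)

end

end Crest.Agent.R096.Mf2a_931
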