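import Crest.Agent.R096.Mf1_113
import Crest.Agent.R096.Mf2a_931
import Crest.Agent.R096.Sk2a_855

/-!
# Edges and faces of a rigid family of tilings

* `Rig T0 T Tr W`: the tiles of `T a` through the points of `W` are the `a`-translates of the tiles
  of the model `T0`.
* `exists_edge_at`: at every vertex an edge starts.
* `Rig.faces`: the 2-cells which meet `W` are `pt (e φ) (a + x φ) '' P φ` with `φ` in a countable
  set which does not depend on `a`; `rim_pt`: the rim.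
-/

set_option autoImplicit false
set_option linter.unusedSectionVars false

open Set Metric Topology Filter

namespace Crest.Agent.R096.Mf_113

open Crest.Agent.R096.Msh_715 Crest.Agent.R096.Fce_793
open Crest.Agent.R096.Sk2_855 (sk1)

section normed

variable {E : Type*} [NormedAddCommGroup E] [NormedSpace ℝ E] [FiniteDimensional ℝ E]
variable {Om : Set E} {ι : Type*} {T : Tiling Om ι}

/-- a vertex of a cell of positive dimension is a vertex of an edge of the cell -/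
theorem exists_edge_of_vertex {v : E} (hv0 : T.dim v = 0) {y : E} (hy : y ∈ Om)
    (hvy : v ∈ T.cc y) (hd1 : 1 ≤ T.dim y) : ∃ e ∈ T.cc y, T.dim e = 1 ∧ v ∈ T.cc e := by
  have hvO : v ∈ Om := T.cc_sub_Om hy hvy
  induction hd : T.dim y using Nat.strong_induction_on generalizing y with
  | _ d ih =>
  rcases Nat.lt_or_ge d 2 with h2 | h2
  · exact ⟨y, T.self_mem_cc y, by omega, hvy⟩
  have hpre := T.isPreconnected_bdry hy (by omega : 2 ≤ T.dim y)
  have hvb : v ∈ T.cc y \ T.oc y := by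
    refine ⟨hvy, fun h => ?_⟩
    have := T.dim_eq_of_mem_oc hy h
    omega
  -- two boundary points
  have hne : T.V y ≠ ⊥ := by
    intro h
    have := T.dim_eq_zero_iff.2 h
    omega
  obtain ⟨w, hw, hw0⟩ := Submodule.exists_mem_ne_zero_of_ne_bot hne
  obtain ⟨t, ht, h3, h4, -⟩ := T.exists_exit hy hw hw0
  obtain ⟨t', ht', h3', h4', -⟩ := T.exists_exit hy ((T.V y).neg_mem hw) (neg_ne_zero.2 hw0)
  have hnt : (T.cc y \ T.oc y).Nontrivial := by
    refine ⟨_, ⟨h3, h4⟩, _, ⟨h3', h4'⟩, fun e => ?_⟩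
    have e1 : (t + t') • w = 0 := by
      have := add_left_cancel e
      rw [smul_neg] at this
      rw [add_smul, this]
      simp
    rcases smul_eq_zero.1 e1 with h | h
    · linarith
    · exact hw0 h
  have hacc := hpre.preperfect_of_nontrivial hnt v hvb
  have hev := T.eventually_mem_cc hvO
  rw [accPt_iff_frequently] at hacc
  obtain ⟨p, ⟨hpv, hp1, hp2⟩, hpO, hvp⟩ := (hacc.and_eventually hev).exists
  have hdp : 1 ≤ T.dim p := by
    by_contra hc
    have h0 : T.dim p = 0 := by omega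
    have h1 := T.cc_eq_singleton (T.dim_eq_zero_iff.1 h0)
    rw [h1, mem_singleton_iff] at hvp
    exact hpv hvp.symm
  obtain ⟨e, he, h5, h6⟩ := ih (T.dim p) (hd ▸ T.dim_lt hp1 hp2) hpO hvp hdp rfl
  exact ⟨e, T.cc_sub_of_mem hp1 he, h5, h6⟩

/-- every vertex is the end of an edge -/
theorem exists_edge_at [Nontrivial E] {v : E} (hvO : v ∈ Om) (hv0 : T.dim v = 0) :
    ∃ e ∈ Om, T.dim e = 1 ∧ v ∈ T.cc e := by
  have hev := T.eventually_mem_cc hvO
  obtain ⟨r, hr, hb⟩ := Metric.eventually_nhds_iff_ball.1 hev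
  obtain ⟨d, hd0⟩ := exists_ne (0 : E)
  have hnn : 0 < ‖d‖ := norm_pos_iff.2 hd0
  set t : ℝ := r / (2 * ‖d‖) with ht
  have ht0 : 0 < t := by positivity
  have hnt : ‖t • d‖ < r := by
    rw [norm_smul, Real.norm_of_nonneg ht0.le, ht]
    have : r / (2 * ‖d‖) * ‖d‖ = r / 2 := by field_simp
    rw [this]; linarith
  obtain ⟨hyO, hvy⟩ := hb (v + t • d) (by rw [mem_ball, dist_eq_norm, add_sub_cancel_left]
                                          exact hnt)
  have hd1 : 1 ≤ T.dim (v + t • d) := by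
    by_contra hc
    have h0 : T.dim (v + t • d) = 0 := by omega
    have h1 := T.cc_eq_singleton (T.dim_eq_zero_iff.1 h0)
    rw [h1, mem_singleton_iff] at hvy
    have h2 : t • d = 0 := by
      have : v + 0 = v + t • d := by rw [add_zero]; exact hvy
      exact (add_left_cancel this).symm
    rcases smul_eq_zero.1 h2 with h | h
    · exact ht0.ne' h
    · exact hd0 h
  obtain ⟨e, he, h1, h2⟩ := exists_edge_of_vertex hv0 hyO hvy hd1
  exact ⟨e, T.cc_sub_Om hyO he, h1, h2⟩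

/-- every point of the 1-skeleton is on an edge -/
theorem exists_edge [Nontrivial E] {y : E} (hy : y ∈ sk1 T) :
    ∃ e ∈ Om, T.dim e = 1 ∧ y ∈ T.cc e := by
  rcases Nat.eq_zero_or_pos (T.dim y) with h0 | h0
  · exact exists_edge_at hy.1 h0
  · exact ⟨y, hy.1, by have := hy.2; omega, T.self_mem_cc y⟩

/-- the parametrised faces: rim points are in the 1-skeleton -/
theorem rim_pt {e : Fin 2 → E} (he : LinearIndependent ℝ e) {x y : E} {Q : Set (ℝ × ℝ)}
    (hy : y ∈ Om) (hd : T.dim y = 2) (h : T.cc y = pt e x '' Q) {w : ℝ × ℝ} (hw : w ∈ Q)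
    (hwi : w ∉ interior Q) : pt e x w ∈ sk1 T := by
  have hz : pt e x w ∈ T.cc y := by rw [h]; exact ⟨w, hw, rfl⟩
  refine ⟨T.cc_sub_Om hy hz, ?_⟩
  by_contra hcon
  have hzo : pt e x w ∈ T.oc y := by
    by_contra hn
    have := T.dim_lt hz hn
    omega
  apply hwi
  have hzO := T.cc_sub_Om hy hz
  obtain ⟨r, hr, hb⟩ := T.exists_ball_oc hzO
  have hVz : T.V (pt e x w) = T.V y := T.V_eq_of_mem_oc hy hzo
  have hoz : T.oc (pt e x w) = T.oc y := T.oc_eq_of_mem hy hzo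
  have hdiff : ∀ w w' : ℝ × ℝ, pt e x w' - pt e x w = (w'.1 - w.1) • e 0 + (w'.2 - w.2) • e 1 := by
    intro w w'
    simp only [pt]
    module
  -- `V y` is the span of `e 0`, `e 1`
  set S := Submodule.span ℝ (range e) with hS
  have heS : ∀ i, e i ∈ S := fun i => Submodule.subset_span ⟨i, rfl⟩
  have hle : T.V y ≤ S := by
    intro v hv
    obtain ⟨ε, hε, h1, -⟩ := (mem_V_iff hy).1 hv
    have h2 := T.self_mem_cc y
    rw [h] at h1 h2
    obtain ⟨w1, -, e1⟩ := h1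
    obtain ⟨w2, -, e2⟩ := h2
    have e3 : ε • v = pt e x w1 - pt e x w2 := by rw [e1, e2]; abel
    have h3 : ε • v ∈ S := by
      rw [e3, hdiff]
      exact S.add_mem (S.smul_mem _ (heS 0)) (S.smul_mem _ (heS 1))
    have h4 := S.smul_mem ε⁻¹ h3
    rwa [smul_smul, inv_mul_cancel₀ hε.ne', one_smul] at h4
  have hS2 : Module.finrank ℝ S = 2 := by
    rw [hS, finrank_span_eq_card he, Fintype.card_fin]
  have hVS : T.V y = S := Submodule.eq_of_le_of_finrank_eq hle (by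
    rw [hS2]; exact hd)
  -- injectivity
  have hinj : ∀ w w' : ℝ × ℝ, pt e x w' = pt e x w → w' = w := by
    intro w w' h1
    have h2 := hdiff w w'
    rw [h1, sub_self] at h2
    have h3 := Fintype.linearIndependent_iff.1 he ![w'.1 - w.1, w'.2 - w.2] (by
      rw [Fin.sum_univ_two]
      simpa using h2.symm)
    have a0 := h3 0
    have a1 := h3 1
    simp at a0 a1
    exact Prod.ext (by linarith) (by linarith)
  rw [mem_interior_iff_mem_nhds]
  have hcont : Continuous (pt e x) := by unfold pt; fun_prop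
  filter_upwards [hcont.continuousAt.preimage_mem_nhds (ball_mem_nhds (pt e x w) hr)] with w' hw'
  have hv : pt e x w' - pt e x w ∈ T.V (pt e x w) := by
    rw [hVz, hVS, hdiff]
    exact S.add_mem (S.smul_mem _ (heS 0)) (S.smul_mem _ (heS 1))
  have h1 := hb _ hv (by
    have : pt e x w' ∈ ball (pt e x w) r := hw'
    rwa [mem_ball, dist_eq_norm] at this)
  rw [add_sub_cancel, hoz] at h1
  have h2 := T.oc_sub_cc y h1
  rw [h] at h2
  obtain ⟨w2, hw2, e2⟩ := h2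
  rw [← hinj _ _ e2]
  exact hw2

end normed

section rig

variable {E : Type*} [NormedAddCommGroup E] [NormedSpace ℝ E] [FiniteDimensional ℝ E]
variable {Om Om0 : Set E} {ι0 : Type*} {ι : E → Type*}

/-- the tiles of `T a` through the points of `W` are the translates of the tiles of the model -/
def Rig (T0 : Tiling Om0 ι0) (T : ∀ a, Tiling Om (ι a)) (Tr W : Set E) : Prop :=
  ∀ a ∈ Tr, ∀ p ∈ W, p ∈ Om ∧ p - a ∈ Om0 ∧
    (fun j => P ((T a).H j)) '' (T a).at_ p = (fun i => (a + ·) '' P (T0.H i)) '' T0.at_ (p - a)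

variable {T0 : Tiling Om0 ι0} {T : ∀ a, Tiling Om (ι a)} {Tr W : Set E}

/-- every cell which meets `W` is a translate of a cell of the model -/
theorem Rig.cell (h : Rig T0 T Tr W) {a : E} (ha : a ∈ Tr) {y : E} (hy : y ∈ Om)
    (hW : ((T a).cc y ∩ W).Nonempty) :
    ∃ c : T0.Cell, (T a).cc y = (a + ·) '' c.set ∧ c.dim = (T a).dim y := by
  obtain ⟨p, hp, hpW⟩ := hW
  obtain ⟨h1, h2, h3⟩ := h a ha p hpW
  obtain ⟨y0, hy0, e1, e2, -⟩ := cell_of_rigid h1 h2 h3 hy hp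
  exact ⟨T0.cl hy0, e1, by rw [T0.dim_cl]; exact e2⟩

/-- the cells of dimension `k` of the model: a countable set -/
abbrev CK (T0 : Tiling Om0 ι0) (k : ℕ) : Type _ := {c : T0.Cell // c.dim = k}

instance (k : ℕ) : Countable (CK T0 k) := by
  have := countable_cells T0
  infer_instance

/-- the edges of a rigid family: segments `a + x e + [0,1] v e` -/
theorem Rig.edges [Nontrivial E] (h : Rig T0 T Tr W) : ∃ x v : CK T0 1 → E,
    (∀ e, v e ≠ 0) ∧ (∀ e, ‖v e‖ = diam e.1.set) ∧ (∀ e, e.1.set = segment ℝ (x e) (x e + v e)) ∧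
    ∀ a ∈ Tr,
      (∀ y ∈ Om, (T a).dim y = 1 → ((T a).cc y ∩ W).Nonempty → ∃ e, (T a).cc y =
        segment ℝ (a + x e) (a + x e + v e)) ∧
      ∀ y ∈ sk1 (T a), y ∈ W → ∃ e, segment ℝ (a + x e) (a + x e + v e) ⊆ sk1 (T a) ∧
        y ∈ segment ℝ (a + x e) (a + x e + v e) := by
  have key : ∀ e : CK T0 1, ∃ p : E × E, p.2 ≠ 0 ∧ ‖p.2‖ = diam e.1.set ∧
      e.1.set = segment ℝ p.1 (p.1 + p.2) := by
    rintro ⟨c, hc⟩
    obtain ⟨a, b, hab, e1, -⟩ := T0.edge_eq c.pt_mem hc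
    refine ⟨(a, b - a), sub_ne_zero.2 hab.symm, ?_, ?_⟩
    · rw [c.set_eq, e1]
      have h1 : segment ℝ a b = convexHull ℝ {a, b} := (convexHull_pair a b).symm
      rw [h1, convexHull_diam, Metric.diam_pair, dist_eq_norm, norm_sub_rev]
    · show c.set = segment ℝ a (a + (b - a))
      rw [c.set_eq, e1, add_sub_cancel]
  choose q hq0 hq1 hq2 using key
  have htr : ∀ (a : E) (e : CK T0 1), (a + ·) '' e.1.set =
      segment ℝ (a + (q e).1) (a + (q e).1 + (q e).2) := by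
    intro a e
    rw [hq2 e, segment_translate_image, add_assoc]
  have hcell : ∀ a ∈ Tr, ∀ y ∈ Om, (T a).dim y = 1 → ((T a).cc y ∩ W).Nonempty →
      ∃ e : CK T0 1, (T a).cc y = segment ℝ (a + (q e).1) (a + (q e).1 + (q e).2) := by
    intro a ha y hy hd hW
    obtain ⟨c, h1, h2⟩ := h.cell ha hy hW
    exact ⟨⟨c, h2.trans hd⟩, by rw [h1]; exact htr a ⟨c, h2.trans hd⟩⟩
  refine ⟨fun e => (q e).1, fun e => (q e).2, hq0, hq1, hq2, fun a ha => ⟨hcell a ha, ?_⟩⟩
  intro y hy hyW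
  obtain ⟨e0, he0, hd0, hye⟩ := exists_edge hy
  obtain ⟨e, h1⟩ := hcell a ha e0 he0 hd0 ⟨y, hye, hyW⟩
  refine ⟨e, ?_, h1 ▸ hye⟩
  rw [← h1]
  intro z hz
  exact ⟨(T a).cc_sub_Om he0 hz, by rw [← hd0]; exact (T a).dim_le hz⟩

end rig

section faces

variable {E : Type*} [NormedAddCommGroup E] [InnerProductSpace ℝ E] [FiniteDimensional ℝ E]
variable {Om Om0 : Set E} {ι0 : Type*} {ι : E → Type*}
variable {T0 : Tiling Om0 ι0} {T : ∀ a, Tiling Om (ι a)} {Tr W : Set E}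

theorem pt_translate (e : Fin 2 → E) (a x : E) (Q : Set (ℝ × ℝ)) :
    (a + ·) '' (pt e x '' Q) = pt e (a + x) '' Q := by
  rw [image_image]
  refine image_congr fun w _ => ?_
  simp only [pt]
  abel

/-- **the faces of a rigid family**: 753's face clause -/
theorem Rig.faces (h : Rig T0 T Tr W) : ∃ (e : CK T0 2 → Fin 2 → E) (x : CK T0 2 → E)
    (Q : CK T0 2 → Set (ℝ × ℝ)), (∀ φ, LinearIndependent ℝ (e φ)) ∧
      (∀ φ i, ‖e φ i‖ = 2 * diam φ.1.set) ∧ (∀ φ, inner ℝ (e φ 0) (e φ 1) = 0) ∧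
      (∀ φ, IsCompact (Q φ)) ∧ (∀ φ, Convex ℝ (Q φ)) ∧
      (∀ φ, Q φ ⊆ Icc (0 : ℝ) 1 ×ˢ Icc (0 : ℝ) 1) ∧ (∀ φ, φ.1.set = pt (e φ) (x φ) '' Q φ) ∧
      ∀ a ∈ Tr, ∀ y ∈ Om, (T a).dim y = 2 → ((T a).cc y ∩ W).Nonempty →
        ∃ φ, (T a).cc y = pt (e φ) (a + x φ) '' Q φ ∧
          ∀ w ∈ Q φ, w ∉ interior (Q φ) → pt (e φ) (a + x φ) w ∈ sk1 (T a) := by
  have key : ∀ φ : CK T0 2, ∃ p : (Fin 2 → E) × E × Set (ℝ × ℝ), LinearIndependent ℝ p.1 ∧
      (∀ i, ‖p.1 i‖ = 2 * diam φ.1.set) ∧ inner ℝ (p.1 0) (p.1 1) = 0 ∧ IsCompact p.2.2 ∧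
      Convex ℝ p.2.2 ∧ p.2.2 ⊆ Icc (0 : ℝ) 1 ×ˢ Icc (0 : ℝ) 1 ∧ φ.1.set = pt p.1 p.2.1 '' p.2.2 := by
    rintro ⟨c, hc⟩
    obtain ⟨e, x, Q, h1, h2, h3, -, h4, h5, h6, h7⟩ := Mf2a_931.cc_form T0 c.pt_mem hc
    rw [← c.set_eq] at h2 h7
    exact ⟨(e, x, Q), h1, h2, h3, h4, h5, h6, h7⟩
  choose q q1 q2 q3 q4 q5 q6 q7 using key
  refine ⟨fun φ => (q φ).1, fun φ => (q φ).2.1, fun φ => (q φ).2.2, q1, q2, q3, q4, q5, q6, q7,
    fun a ha y hy hd hW => ?_⟩
  obtain ⟨c, h1, h2⟩ := h.cell ha hy hW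
  have hcc : (T a).cc y = pt (q ⟨c, h2.trans hd⟩).1 (a + (q ⟨c, h2.trans hd⟩).2.1) ''
      (q ⟨c, h2.trans hd⟩).2.2 := by
    rw [h1, ← pt_translate, ← q7]
  exact ⟨⟨c, h2.trans hd⟩, hcc, fun w hw hwi => rim_pt (q1 _) hy hd hcc hw hwi⟩

end faces

end Crest.Agent.R096.Mf_113
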