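import Crest.Agent.R096.Ess4_95
import Crest.Agent.R096.Exa8_560
import Crest.Agent.R096.Twr10_438
import Crest.Agent.R096.Door9_501
import Crest.Agent.R096.Mf2_113
import Crest.Agent.R096.Gm3_298

/-!
# R096 (row 96), DOORS_final, part 1 (helper539): the towers from the outer state

Generic: any tiling, any cores, any families `J → C` (the families of the machine and the barriers
of 892).  `DIn` : input; `exists_towers` : number of layers, exact levels and 438's towers over the
outer state.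
-/

set_option autoImplicit false
set_option linter.unusedSectionVars false
set_option linter.style.longLine false

open Set Topology Filter Metric Module
open scoped Classical

namespace Crest.Agent.R096.Dfi_539

open Crest.Agent.R096.Msh_715 Crest.Agent.R096.Coh_184 Crest.Agent.R096.Lab_184
  Crest.Agent.R096.Main_4 Crest.Agent.R096.Agl5_543
  Crest.Agent.R096.Seq_213 Crest.Agent.R096.St_147 Crest.Agent.R096.Door_501
  Crest.Agent.R096.Twr_438 Crest.Agent.R096.Exa_560 Crest.Agent.R096.Qp_106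
  Crest.Agent.R096.Ess3_95 Crest.Agent.R096.Ess4_95 Crest.Agent.R096.Ac_117 Crest.Agent.R096.Lm_117

variable {E : Type} [NormedAddCommGroup E] [NormedSpace ℝ E] [FiniteDimensional ℝ E]
variable {Om : Set E} {ι : Type} {T : Tiling Om ι} {J C : Type} {fam : J → C}
variable {κ : Type} {Kc : κ → Set E} {h3 : finrank ℝ E = 3}

/-- **input of the towers**: state `s` on the tiling, roots `r`, level sets `Sf`, neighbours `nb c a`
(the family `a` passes through the core `c`), far vertices `v0`, `v1`, level functions `u c a` on the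
sphere of the core, window `A c a < B c a` of the exact levels, above all the traces. -/
structure DIn (hH : ∀ c, CoreH T (Kc c)) (s : GSt (meshC T h3) fam) (r : J → E) (Sf : J → Set E)
    (nb : κ → C → Prop) (v0 v1 : ∀ c, C → VxK T Kc c) (u : κ → C → E → ℝ) (A B : κ → C → ℝ) where
  h1 : ∀ j, s.H1 j
  conn : ∀ j, s.Conn j
  root : ∀ j, r j ∈ s.P ∧ s.lab (r j) = j
  out : ∀ j c, r j ∉ interior (Kc c)
  dim1 : ∀ w ∈ s.P, w ∈ Om ∧ T.dim w = 1
  car : ∀ j, Car s j (Sf j)
  sub : ∀ j, Sf j ⊆ Om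
  finJ : ∀ a, {j | fam j = a}.Finite
  nb_c : ∀ c, {a | nb c a}.Finite
  nb_a : ∀ a, {c | nb c a}.Finite
  /-- the sheets of the other families do not meet the sphere of the core -/
  far : ∀ c w, w ∈ s.P → w ∈ frontier (Kc c) → nb c (fam (s.lab w))
  eg : ∀ c j, nb c (fam j) → Nonempty (EG s j (Sf j) Kc c (v0 c (fam j)) (v1 c (fam j)) (r j))
  low : ∀ c w, w ∈ s.P → w ∈ frontier (Kc c) →
    u c (fam (s.lab w)) w ≤ A c (fam (s.lab w))
  /-- `v0` is below, `v1` above the window -/
  v0_lt : ∀ c a, nb c a → u c a (v0 c a).1 ≤ A c a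
  v1_gt : ∀ c a, nb c a → B c a ≤ u c a (v1 c a).1
  /-- the exact levels: any order, inside the window, off a finite set, different for different
  families -/
  lev : ∀ c, ∀ lvl : J → ℝ, (∀ i j, fam i = fam j → lvl i = lvl j → i = j) →
    ∀ Q : Set E, Q.Finite → ∃ L : C → Lev T (frontier (Kc c)) J,
      (∀ a, (L a).u = u c a) ∧ (∀ a j, j ∈ (L a).J0 ↔ fam j = a ∧ nb c a) ∧
      (∀ a, ∀ j ∈ (L a).J0, A c a < (L a).lv j ∧ (L a).lv j < B c a) ∧
      (∀ a, ∀ j ∈ (L a).J0, ∀ w ∈ Q, (L a).u w ≠ (L a).lv j) ∧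
      (∀ a, ∀ i ∈ (L a).J0, ∀ j ∈ (L a).J0, (L a).lv i < (L a).lv j ↔ lvl i < lvl j) ∧
      (∀ a b, a ≠ b → ∀ i ∈ (L a).J0, ∀ j ∈ (L b).J0, ∀ y ∈ frontier (Kc c), T.dim y = 1 →
        (L a).u y = (L a).lv i → (L b).u y ≠ (L b).lv j) ∧
      ∀ a, ∀ j ∈ (L a).J0,
        IsPreconnected {x | x ∈ frontier (Kc c) ∧ (L a).u x = (L a).lv j} ∧
        {x | x ∈ frontier (Kc c) ∧ (L a).u x = (L a).lv j}.Nonempty

/-- what is known about the exact levels -/
structure LevOut (s : GSt (meshC T h3) fam) (nb : κ → C → Prop) (u : κ → C → E → ℝ)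
    (A B : κ → C → ℝ) (L : ∀ c, C → Lev T (frontier (Kc c)) J) : Prop where
  u : ∀ c a, (L c a).u = u c a
  mem : ∀ c a j, j ∈ (L c a).J0 ↔ fam j = a ∧ nb c a
  win : ∀ c a, ∀ j ∈ (L c a).J0, A c a < (L c a).lv j ∧ (L c a).lv j < B c a
  new : ∀ c a, ∀ j ∈ (L c a).J0, ∀ w ∈ s.P, w ∈ frontier (Kc c) → (L c a).u w ≠ (L c a).lv j
  sep : ∀ c a b, a ≠ b → ∀ i ∈ (L c a).J0, ∀ j ∈ (L c b).J0, ∀ y ∈ frontier (Kc c), T.dim y = 1 →
    (L c a).u y = (L c a).lv i → (L c b).u y ≠ (L c b).lv j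
  conn : ∀ c a, ∀ j ∈ (L c a).J0,
    IsPreconnected {x | x ∈ frontier (Kc c) ∧ (L c a).u x = (L c a).lv j} ∧
    {x | x ∈ frontier (Kc c) ∧ (L c a).u x = (L c a).lv j}.Nonempty


/-- every vertex of the sphere of a core is an end of an edge -/
theorem vx_edge {hH : ∀ c, CoreH T (Kc c)} {hdis : ∀ c c', c ≠ c' → Disjoint (Kc c) (Kc c')}
    {c : κ} (v : VxK T Kc c) : ∃ e b, (shellH h3 hH hdis c).en e b = v := by
  obtain ⟨F, hF, hvF⟩ := Msh_715.exists_face h3 hH v.2.2
  have hFO : F.pt ∈ Om := F.set_sub (by rw [F.set_eq]; exact T.self_mem_cc _)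
  have hvc : v.1 ∈ T.cc F.pt := by rw [← F.set_eq]; exact hvF
  obtain ⟨e, he, hd, hve⟩ := Mf_113.exists_edge_of_vertex v.2.1 hFO hvc (by
    have := F.dim_pt
    omega)
  have heF : e ∈ frontier (Kc c) := hF (by rw [F.set_eq]; exact he)
  have heO : e ∈ Om := T.cc_sub_Om hFO he
  let e' : EdK T Kc c := edK T Kc (fun c => (hH c).cc) heO heF hd
  obtain ⟨b, hb⟩ := (endK_iff e' v).2 (by
    show v.1 ∈ (T.cl heO).set
    rw [Tiling.cl_set]; exact hve)
  exact ⟨e', b, hb⟩

section

variable {hH : ∀ c, CoreH T (Kc c)} {hdis : ∀ c c', c ≠ c' → Disjoint (Kc c) (Kc c')}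
  {s : GSt (meshC T h3) fam} {r : J → E} {Sf : J → Set E} {nb : κ → C → Prop}
  {v0 v1 : ∀ c, C → VxK T Kc c} {u : κ → C → E → ℝ} {A B : κ → C → ℝ}

theorem trc_P {c : κ} {a : C} {w : E} (hw : w ∈ (trc hH hdis s r c a).P) :
    w ∈ s.P ∧ w ∈ frontier (Kc c) ∧ fam (s.lab w) = a := by
  obtain ⟨h1, h2, e, he⟩ := mem_trc.1 hw
  exact ⟨h1.1, onE_fr he, h2⟩

/-- no trace of the families which do not pass the core -/
theorem DIn.trc_empty (D : DIn hH s r Sf nb v0 v1 u A B) {c : κ} {a : C} (h : ¬ nb c a) :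
    (trc hH hdis s r c a).P = ∅ := by
  rw [Finset.eq_empty_iff_forall_notMem]
  intro w hw
  obtain ⟨h1, h2, h4⟩ := trc_P hw
  exact h (h4 ▸ D.far c w h1 h2)

/-- every point of the outer state is on a face of the merged mesh -/
theorem out_on (D : DIn hH s r Sf nb v0 v1 u A B) :
    ∀ w ∈ (outK hH hdis s r).P, ∃ F0, w ∈ (meshK T h3 Kc (fun c => (hH c).core)
      (fun c => (hH c).cc) hdis).On F0 := by
  intro w hw
  obtain ⟨hwP, hr⟩ := hw
  rcases Relation.ReflTransGen.cases_tail hr with h | ⟨z, _, F, g1, g2, g3, g4⟩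
  · obtain ⟨hO, hd⟩ := D.dim1 w hwP
    obtain ⟨q, hq, hqK⟩ := Gm_298.exists_tile_out hdis hO (fun c => by
      rw [h]; exact D.out _ c)
    obtain ⟨F, hF, hqF⟩ := Gm_298.exists_face_out (h3 := h3) hO hd hq
    have : Nonempty T.Cell := ⟨T.cl hO⟩
    exact ⟨⟨F, Lm_117.out_face h3 F ⟨q, hqK, C2.sub_tile (h3 := h3) hqF⟩⟩, hF⟩
  · exact ⟨⟨F, g1⟩, by rw [g4]; exact (s.mu_mem g2 g3).2⟩

/-- **the towers exist** -/
theorem exists_towers [∀ c, Fintype (EdK T Kc c)] [Nonempty J]
    (D : DIn hH s r Sf nb v0 v1 u A B) (m : κ → ℕ) :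
    ∃ (n : κ → ℕ) (L : ∀ c, C → Lev T (frontier (Kc c)) J)
      (Tw : Twrs (fun c => shellH h3 hH hdis c) n (outK hH hdis s r)),
      LevOut s nb u A B L ∧ (∀ c, 0 < n c ∧ m c ≤ n c) ∧
      (∀ c a, ((Tw.tw c a).pat (n c)).P = (exa h3 hH hdis (L c a)).P ∧
        (∀ w ∈ (exa h3 hH hdis (L c a)).P,
          ((Tw.tw c a).pat (n c)).lab w = (exa h3 hH hdis (L c a)).lab w) ∧
        ∀ F, ∀ w ∈ (exa h3 hH hdis (L c a)).P, w ∈ (shellH h3 hH hdis c).sph.On F →
          ((Tw.tw c a).pat (n c)).mu F w = (exa h3 hH hdis (L c a)).mu F w) ∧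
      (∀ c a, (Tw.tw c a).pat 0 = trc hH hdis s r c a) ∧
      (∀ c a j, Fits (trc hH hdis s r c a) (exa h3 hH hdis (L c a)) ((Tw.tw c a).pat j)) ∧
      ∀ c a j, ∀ v ∈ ((Tw.tw c a).mv j).Qv,
        Rgn (shellH h3 hH hdis c) (v0 c a) (v1 c a) (trc hH hdis s r c a)
          (exa h3 hH hdis (L c a)) ((Tw.tw c a).mv j).i0 v := by
  have hS : ∀ c, (shellH h3 hH hdis c).Sph := fun c => shellH_sph c
  have hCi : ∀ c, (shellH h3 hH hdis c).Circ := fun c => shellH_circ c
  have hCo : ∀ c, (shellH h3 hH hdis c).Con := fun c => shellH_con c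
  have hon : ∀ w ∈ s.P, T.dim w = 1 := fun w hw => (D.dim1 w hw).2
  -- the essential pattern
  let t : ∀ c a, St (shellH h3 hH hdis c).sph (fun _ : J => true) := fun c a =>
    essSt (shellH h3 hH hdis c) (v0 c a) (v1 c a) (trc hH hdis s r c a)
  have ht_on : ∀ c a, ∀ w ∈ (t c a).P, ∃ e, w ∈ (shellH h3 hH hdis c).OnE e := fun c a w hw =>
    (mem_trc.1 (mem_ess.1 hw).1).2.2
  have hconn : ∀ c a, nb c a → ∀ w ∈ (t c a).P, ∀ w' ∈ (t c a).P,
      (t c a).lab w' = (t c a).lab w → w' ∈ comp true (t c a) w := by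
    intro c a hn
    exact Ess4_95.conn_s (fun j _ => D.car j) (fun j _ => D.sub j) hon (fun j _ => D.h1 j)
      (fun j _ => D.conn j) (fun j _ => D.root j)
      (fun j hj => by
        have h := (D.eg c j (by rw [hj]; exact hn)).some
        rw [hj] at h
        exact h)
  have hex : ∀ c a, nb c a → ∀ j, fam j = a → ∃ w ∈ (t c a).P, (t c a).lab w = j := by
    intro c a hn
    exact Ess4_95.ex_s (fun j _ => D.car j) (fun j _ => D.sub j) hon (fun j _ => D.h1 j)
      (fun j _ => D.conn j) (fun j _ => D.root j)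
      (fun j hj => by
        have h := (D.eg c j (by rw [hj]; exact hn)).some
        rw [hj] at h
        exact h)
  have hess : ∀ c a, ∀ w ∈ (t c a).P, lbl (shellH h3 hH hdis c).sphSh (v0 c a)
      (comp true (t c a) w) (v1 c a) = 1 := by
    intro c a w hw
    rw [comp_ess hw]
    exact (mem_ess.1 hw).2
  -- the order of the essential curves
  have hrk : ∀ c a, nb c a → ∃ rk : J → ℕ, ∀ x ∈ (t c a).P, ∀ w ∈ (t c a).P,
      (t c a).lab x ≠ (t c a).lab w →
      (rk ((t c a).lab x) < rk ((t c a).lab w) ∧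
        sd (shellH h3 hH hdis c).sphSh (v0 c a) (comp true (t c a) w) x = 0) ∨
      (rk ((t c a).lab w) < rk ((t c a).lab x) ∧
        sd (shellH h3 hH hdis c).sphSh (v0 c a) (comp true (t c a) w) x = 1) := by
    intro c a hn
    obtain ⟨rk, -, h⟩ := exists_rk ((shellH h3 hH hdis c).sphSh_Sph (hS c))
      ((shellH h3 hH hdis c).sphSh_Circ (hCi c)) ((shellH h3 hH hdis c).sphSh_Con (hCo c))
      (vx_edge (v0 c a)) (vx_edge (v1 c a)) (fun _ _ => rfl) (t c a) (ht_on c a) (hconn c a hn)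
      (hess c a)
    exact ⟨rk, h⟩
  -- one order for every core
  have hlvl : ∀ c, ∃ lvl : J → ℝ, (∀ i j, fam i = fam j → lvl i = lvl j → i = j) ∧
      ∀ a, nb c a → ∀ x ∈ (t c a).P, ∀ w ∈ (t c a).P, lvl ((t c a).lab x) < lvl ((t c a).lab w) →
        sd (shellH h3 hH hdis c).sphSh (v0 c a) (comp true (t c a) w) x = 0 := by
    intro c
    choose rk hrk' using hrk c
    have henum : ∀ a, ∃ f : J → ℕ, ∀ i j, fam i = a → fam j = a → f i = f j → i = j := by
      intro a
      have hcn : Countable {j | fam j = a} := (D.finJ a).countable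
      obtain ⟨f, hf⟩ := hcn.exists_injective_nat
      refine ⟨fun j => if h : fam j = a then f ⟨j, h⟩ else 0, fun i j hi hj h => ?_⟩
      simp only [dif_pos hi, dif_pos hj] at h
      exact congrArg Subtype.val (hf h)
    choose f hf using henum
    have key : ∀ a (h : nb c a) b (h' : nb c b), a = b → ∀ x, rk a h x = rk b h' x := by
      rintro a h _ h' rfl x; rfl
    refine ⟨fun j => if h : nb c (fam j) then (rk (fam j) h j : ℝ) else (f (fam j) j : ℝ), ?_, ?_⟩
    · intro i j hij h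
      by_cases hn : nb c (fam j)
      · have hn' : nb c (fam i) := hij ▸ hn
        simp only [dif_pos hn, dif_pos hn'] at h
        have h : rk (fam i) hn' i = rk (fam j) hn j := by exact_mod_cast h
        obtain ⟨w, hw, hwl⟩ := hex c (fam j) hn i hij
        obtain ⟨w', hw', hwl'⟩ := hex c (fam j) hn j rfl
        have h' : rk (fam j) hn i = rk (fam j) hn j := by
          rw [← h]
          exact key _ _ _ _ hij.symm i
        by_contra hne
        rcases hrk' (fam j) hn w hw w' hw' (by rw [hwl, hwl']; exact hne) with h4 | h4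
        · rw [hwl, hwl', h'] at h4
          exact lt_irrefl _ h4.1
        · rw [hwl, hwl', h'] at h4
          exact lt_irrefl _ h4.1
      · have hn' : ¬ nb c (fam i) := hij ▸ hn
        simp only [dif_neg hn, dif_neg hn'] at h
        rw [hij] at h
        have h : f (fam j) i = f (fam j) j := by exact_mod_cast h
        exact hf (fam j) i j hij rfl h
    · intro a hn x hx w hw hl
      have hxa : fam ((t c a).lab x) = a := (trc_P (mem_ess.1 hx).1).2.2
      have hwa : fam ((t c a).lab w) = a := (trc_P (mem_ess.1 hw).1).2.2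
      have hnx : nb c (fam ((t c a).lab x)) := hxa.symm ▸ hn
      have hnw : nb c (fam ((t c a).lab w)) := hwa.symm ▸ hn
      simp only [dif_pos hnx, dif_pos hnw] at hl
      rw [key _ hnx a hn hxa, key _ hnw a hn hwa] at hl
      have hl : rk a hn ((t c a).lab x) < rk a hn ((t c a).lab w) := by exact_mod_cast hl
      rcases hrk' a hn x hx w hw (fun h => by rw [h] at hl; exact lt_irrefl _ hl) with h4 | h4
      · exact h4.2
      · exact absurd h4.1 (not_lt.2 hl.le)
  choose lvl lvl_inj lvl_ord using hlvl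
  -- the exact levels
  have hQ : ∀ c, {w | w ∈ s.P ∧ w ∈ frontier (Kc c)}.Finite := by
    intro c
    refine ((D.nb_c c).biUnion (t := fun a => {w | w ∈ s.P ∧ fam (s.lab w) = a})
      fun a _ => s.fin a).subset ?_
    rintro w ⟨h1, h2⟩
    exact mem_biUnion (D.far c w h1 h2) ⟨h1, rfl⟩
  choose L l1 l2 l4 l5 l6 l7 l8 using fun c => D.lev c (lvl c) (lvl_inj c) _ (hQ c)
  have hexp : ∀ c a, ¬ nb c a → (exa h3 hH hdis (L c a)).P = ∅ := by
    intro c a hn
    rw [Finset.eq_empty_iff_forall_notMem]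
    intro w hw
    exact hn ((l2 c a _).1 (exa_lab (L c a) hw).1).2
  let DT : TIn (fun c => shellH h3 hH hdis c) (outK hH hdis s r)
      (fun c a => exa h3 hH hdis (L c a)) := {
    sph := hS
    circ := hCi
    con := hCo
    v0 := v0
    v1 := v1
    hv0 := fun c a => vx_edge (v0 c a)
    hv1 := fun c a => vx_edge (v1 c a)
    rk := fun c a => (L c a).lv
    tgt := by
      intro c a
      by_cases hn : nb c a
      · refine exa_tgt (L c a) (fun j hj => (l8 c a j hj).1) (fun j hj => (l8 c a j hj).2) ?_ ?_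
          (t c a) (ht_on c a) (hconn c a hn) (hess c a) ?_ ?_ ?_ ?_
        · intro j hj
          rw [l1 c a]
          exact (D.v0_lt c a hn).trans_lt (l4 c a j hj).1
        · intro j hj
          rw [l1 c a]
          exact (l4 c a j hj).2.trans_le (D.v1_gt c a hn)
        · intro j hj
          exact hex c a hn j ((l2 c a j).1 hj).1
        · intro w hw
          have h1 := trc_P (mem_ess.1 hw).1
          exact (l2 c a _).2 ⟨h1.2.2, hn⟩
        · intro w hw j hj
          obtain ⟨g1, g2, g3⟩ := trc_P (mem_ess.1 hw).1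
          have g4 := D.low c w g1 g2
          rw [g3] at g4
          rw [l1 c a]
          exact g4.trans_lt (l4 c a j hj).1
        · intro x hx w hw hl
          have h1 := trc_P (mem_ess.1 hx).1
          have h2 := trc_P (mem_ess.1 hw).1
          exact lvl_ord c a hn x hx w hw
            ((l6 c a _ ((l2 c a _).2 ⟨h1.2.2, hn⟩) _ ((l2 c a _).2 ⟨h2.2.2, hn⟩)).1 hl)
      · refine tgt_empty _ ?_ (hexp c a hn)
        rw [Finset.eq_empty_iff_forall_notMem]
        intro w hw
        have h1 := (mem_ess.1 hw).1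
        have h2 : (trc hH hdis s r c a).P = ∅ := D.trc_empty hn
        rw [h2] at h1
        exact Finset.notMem_empty w h1
    d_fam := fun {c a w} hw => ((l2 c a _).1 (exa_lab (L c a) hw).1).1
    d_new := by
      intro c a w hw hws
      obtain ⟨h1, h2, j, hj, h4⟩ := (mem_P (L c a)).1 hw
      exact l5 c a j hj w ⟨hws.1, h1⟩ h4
    d_dis := by
      intro c a b w hw hw'
      obtain ⟨h1, h2, j, hj, h4⟩ := (mem_P (L c a)).1 hw
      obtain ⟨g1, g2, i, hi, g4⟩ := (mem_P (L c b)).1 hw'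
      by_contra hab
      exact l7 c a b hab j hj i hi w h1 h2 h4 g4
    fin_c := by
      intro c
      refine (D.nb_c c).subset ?_
      rintro a (h | h)
      · by_contra hn
        have h2 : (trc hH hdis s r c a).P = ∅ := D.trc_empty hn
        exact Finset.not_nonempty_empty (h2 ▸ h)
      · by_contra hn
        exact Finset.not_nonempty_empty (hexp c a hn ▸ h)
    fin_a := by
      intro a
      refine (D.nb_a a).subset ?_
      rintro c (h | h)
      · by_contra hn
        have h2 : (trc hH hdis s r c a).P = ∅ := D.trc_empty hn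
        exact Finset.not_nonempty_empty (h2 ▸ h)
      · by_contra hn
        exact Finset.not_nonempty_empty (hexp c a hn ▸ h)
    on := by
      exact out_on D }
  obtain ⟨n, Tw, a1, a2, a3, a4, a5⟩ := exists_twrs DT m
  exact ⟨n, L, Tw, ⟨l1, l2, l4, fun c a j hj w h1 h2 => l5 c a j hj w ⟨h1, h2⟩, l7, l8⟩, a1, a2, a3,
    a4, a5⟩

end

end Crest.Agent.R096.Dfi_539
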