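import Crest.Agent.R096.Etg3_163

/-! Row 96 (helper163), DOORS-ESS-TARGET, part 4: the target sets (g1)-(g4) of helper501 for the
foam `FoamD` of 961 (gauge `muD`, thresholds `e c`), and their pull-backs to `Om` -/

set_option autoImplicit false
set_option linter.unusedSectionVars false
set_option linter.style.haveILetI false

open Set Topology Filter

namespace Crest.Agent.R096.Etg_163

open Crest.Agent.R096.Coh_184 Crest.Agent.R096.Brk1_582 Crest.Agent.R096.Brk2_582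
open Crest.Agent.R096.Bsp_628 Crest.Agent.R096.Brk3_582 Crest.Agent.R096.Vb_965
open Crest.Agent.R096.Exc_965 Crest.Agent.R96.Push_899 Crest.Agent.R096.SkC1_961

section final

variable {δ κ0 R c0 : ℝ} {La : Set E3} (Φ : FoamD δ κ0 R c0 La) {e : Φ.F → ℝ}
variable {a c : Φ.F} {t ρ ρ' : ℝ}

/-! ### (g4) -/

/-- **(g4), lower part** -/
theorem frontier_le (hLa : IsOpen La) (hac : a ≠ c) (hne : (a.1.set ∩ c.1.set).Nonempty)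
    (ht0 : 0 ≤ t) (ht1 : t < 1) :
    IsPreconnected {q | q ∈ frontier c.1.set ∧ sc (Pc Φ.F) (bc (F := Φ.F)) q a ≤ t} ∧
      IsCompact {q | q ∈ frontier c.1.set ∧ sc (Pc Φ.F) (bc (F := Φ.F)) q a ≤ t} ∧
      {q | q ∈ frontier c.1.set ∧ sc (Pc Φ.F) (bc (F := Φ.F)) q a ≤ t}.Nonempty := by
  have F := Brk3_582.foam Φ.bf hLa
  have h1 : {q | q ∈ frontier c.1.set ∧ sc (Pc Φ.F) (bc (F := Φ.F)) q a ≤ t} =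
      Dle (Pc Φ.F) (bc (F := Φ.F)) c a t := by
    have h2 : frontier c.1.set = {q | q ∈ Pc Φ.F c ∧ ∃ d, d ≠ c ∧ q ∈ Pc Φ.F d} :=
      frontier_eq F c
    rw [h2]
    ext q
    exact ⟨fun h => ⟨h.1.1, h.1.2, h.2⟩, fun h => ⟨⟨h.1, h.2.1⟩, h.2.2⟩⟩
  rw [h1]
  have h3 := preconn_Dle F (a := a) (c := c) hac hne ht0 ht1
  exact ⟨h3.1, isCompact_Dle F, h3.2⟩

/-- **(g4), upper part** -/
theorem frontier_ge (hLa : IsOpen La) (hac : a ≠ c) (hne : (a.1.set ∩ c.1.set).Nonempty)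
    (ht0 : 0 < t) (ht1 : t < 1) :
    IsPreconnected {q | q ∈ frontier c.1.set ∧ t ≤ sc (Pc Φ.F) (bc (F := Φ.F)) q a} ∧
      IsCompact {q | q ∈ frontier c.1.set ∧ t ≤ sc (Pc Φ.F) (bc (F := Φ.F)) q a} ∧
      {q | q ∈ frontier c.1.set ∧ t ≤ sc (Pc Φ.F) (bc (F := Φ.F)) q a}.Nonempty := by
  have F := Brk3_582.foam Φ.bf hLa
  have h1 : {q | q ∈ frontier c.1.set ∧ t ≤ sc (Pc Φ.F) (bc (F := Φ.F)) q a} =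
      Dge (Pc Φ.F) (bc (F := Φ.F)) c a t := by
    have h2 : frontier c.1.set = {q | q ∈ Pc Φ.F c ∧ ∃ d, d ≠ c ∧ q ∈ Pc Φ.F d} :=
      frontier_eq F c
    rw [h2]
    ext q
    exact ⟨fun h => ⟨h.1.1, h.1.2, h.2⟩, fun h => ⟨⟨h.1, h.2.1⟩, h.2.2⟩⟩
  rw [h1]
  have h3 := preconn_Dge Φ.bf hLa (a := a) (c := c) hac hne ht0 ht1
  exact ⟨h3.1, isCompact_Dge F, h3.2⟩

/-! ### (g3) -/

/-- **(g3), lower part** -/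
theorem shell_le (hLa : IsOpen La) (hac : a ≠ c) (hne : (a.1.set ∩ c.1.set).Nonempty)
    (ht0 : 0 ≤ t) (ht1 : t < 1) (hρ : 0 < ρ) (hρρ : ρ ≤ ρ') (hρ' : ρ' ≤ 1) :
    IsPreconnected {y | y ∈ c.1.set ∧ Φ.lev a y ≤ t ∧ ρ ≤ muD Φ y ∧ muD Φ y ≤ ρ'} ∧
      IsCompact {y | y ∈ c.1.set ∧ Φ.lev a y ≤ t ∧ ρ ≤ muD Φ y ∧ muD Φ y ≤ ρ'} ∧
      {y | y ∈ c.1.set ∧ Φ.lev a y ≤ t ∧ ρ ≤ muD Φ y ∧ muD Φ y ≤ ρ'}.Nonempty := by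
  have F := Brk3_582.foam Φ.bf hLa
  have hp := pushD Φ hLa
  have h1 : {y | y ∈ c.1.set ∧ Φ.lev a y ≤ t ∧ ρ ≤ muD Φ y ∧ muD Φ y ≤ ρ'} =
      {y | y ∈ Pc Φ.F c ∧ Φ.Psi y ∈ Dle (Pc Φ.F) (bc (F := Φ.F)) c a t ∧ ρ ≤ muD Φ y ∧
        muD Φ y ≤ ρ'} := by
    ext y
    constructor
    · rintro ⟨h2, h3, h4, h5⟩
      obtain ⟨h6, h7⟩ := hp.mem c y h2 (hρ.trans_le h4)
      exact ⟨h2, ⟨h6, h7, h3⟩, h4, h5⟩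
    · rintro ⟨h2, h3, h4, h5⟩
      exact ⟨h2, h3.2.2, h4, h5⟩
  rw [h1]
  have h3 := preconn_Dle F (a := a) (c := c) hac hne ht0 ht1
  obtain ⟨g1, g2, g3⟩ := preconn_shell F hp (c := c) hρ hρρ hρ'
    (D := Dle (Pc Φ.F) (bc (F := Φ.F)) c a t) (fun q hq => ⟨hq.1, hq.2.1⟩) (isCompact_Dle F) h3.1
  exact ⟨g1, g2, g3 h3.2⟩

/-- **(g3), upper part** -/
theorem shell_ge (hLa : IsOpen La) (hac : a ≠ c) (hne : (a.1.set ∩ c.1.set).Nonempty)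
    (ht0 : 0 < t) (ht1 : t < 1) (hρ : 0 < ρ) (hρρ : ρ ≤ ρ') (hρ' : ρ' ≤ 1) :
    IsPreconnected {y | y ∈ c.1.set ∧ t ≤ Φ.lev a y ∧ ρ ≤ muD Φ y ∧ muD Φ y ≤ ρ'} ∧
      IsCompact {y | y ∈ c.1.set ∧ t ≤ Φ.lev a y ∧ ρ ≤ muD Φ y ∧ muD Φ y ≤ ρ'} ∧
      {y | y ∈ c.1.set ∧ t ≤ Φ.lev a y ∧ ρ ≤ muD Φ y ∧ muD Φ y ≤ ρ'}.Nonempty := by
  have F := Brk3_582.foam Φ.bf hLa
  have hp := pushD Φ hLa
  have h1 : {y | y ∈ c.1.set ∧ t ≤ Φ.lev a y ∧ ρ ≤ muD Φ y ∧ muD Φ y ≤ ρ'} =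
      {y | y ∈ Pc Φ.F c ∧ Φ.Psi y ∈ Dge (Pc Φ.F) (bc (F := Φ.F)) c a t ∧ ρ ≤ muD Φ y ∧
        muD Φ y ≤ ρ'} := by
    ext y
    constructor
    · rintro ⟨h2, h3, h4, h5⟩
      obtain ⟨h6, h7⟩ := hp.mem c y h2 (hρ.trans_le h4)
      exact ⟨h2, ⟨h6, h7, h3⟩, h4, h5⟩
    · rintro ⟨h2, h3, h4, h5⟩
      exact ⟨h2, h3.2.2, h4, h5⟩
  rw [h1]
  have h3 := preconn_Dge Φ.bf hLa (a := a) (c := c) hac hne ht0 ht1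
  obtain ⟨g1, g2, g3⟩ := preconn_shell F hp (c := c) hρ hρρ hρ'
    (D := Dge (Pc Φ.F) (bc (F := Φ.F)) c a t) (fun q hq => ⟨hq.1, hq.2.1⟩) (isCompact_Dge F) h3.1
  exact ⟨g1, g2, g3 h3.2⟩

/-! ### (g1), (g2) -/

variable (hLa : IsOpen La) (he : ∀ c, 0 < e c) (he1 : ∀ c, e c < 1)
include hLa he he1

theorem muE_eq' {y : E3} (hy : y ∈ c.1.set) : muE Φ e y = phi (e c) (muD Φ y) :=
  mue_eq (Brk3_582.foam Φ.bf hLa) (pushD Φ hLa) he he1 (c := c) hy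

theorem le_muE_iff {y : E3} (hy : y ∈ c.1.set) : phi (e c) ρ ≤ muE Φ e y ↔ ρ ≤ muD Φ y := by
  rw [muE_eq' Φ hLa he he1 hy]
  exact (phi_strictMono (he c) (he1 c)).le_iff_le

theorem muE_le_iff {y : E3} (hy : y ∈ c.1.set) : muE Φ e y ≤ phi (e c) ρ ↔ muD Φ y ≤ ρ := by
  rw [muE_eq' Φ hLa he he1 hy]
  exact (phi_strictMono (he c) (he1 c)).le_iff_le

/-- **(g1)**: the sheet of `a` outside the inner part `{muD < ρ}` of the brick `c` -/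
theorem outer_sheet (hac : a ≠ c) (hne : (a.1.set ∩ c.1.set).Nonempty)
    (ht0 : 0 < t) (ht1 : t < 1) (hρ : e c ≤ ρ) (hρ1 : ρ ≤ 1) :
    IsPreconnected {y | y ∈ La ∧ vE Φ e a y = t ∧ (y ∈ c.1.set → ρ ≤ muD Φ y)} ∧
      IsCompact {y | y ∈ La ∧ vE Φ e a y = t ∧ (y ∈ c.1.set → ρ ≤ muD Φ y)} ∧
      {y | y ∈ La ∧ vE Φ e a y = t ∧ (y ∈ c.1.set → ρ ≤ muD Φ y)}.Nonempty := by
  have F := Brk3_582.foam Φ.bf hLa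
  have hp := pushE Φ hLa he he1
  have hε : (0 : ℝ) < 1 / 2 := by norm_num
  have hε1 : (1 / 2 : ℝ) ≤ 1 := by norm_num
  have hL := isCompact_Lset F a ht0.le ht1
  have hb := b_not_mem_Lset F hp hε hε1 (a := a) ht0 ht1 (cell_nonempty Φ)
  have hφ := (phi_strictMono (he c) (he1 c)).monotone
  have hm1 : 1 / 2 ≤ phi (e c) ρ := by
    rw [← phi_half (he c) (he1 c)]; exact hφ hρ
  have hm2 : phi (e c) ρ ≤ 1 := by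
    rw [← phi_one (he c) (he1 c)]; exact hφ hρ1
  have h1 : {y | y ∈ La ∧ vE Φ e a y = t ∧ (y ∈ c.1.set → ρ ≤ muD Φ y)} =
      {y | y ∈ La ∧ RR (Pc Φ.F) (bc (F := Φ.F)) Φ.Psi (muE Φ e) (1 / 2) y ∈
        Lset La (Pc Φ.F) (bc (F := Φ.F)) a t ∧ (y ∈ Pc Φ.F c → phi (e c) ρ ≤ muE Φ e y)} := by
    ext y
    rw [Lset_eq_of_pos F ht0.ne']
    constructor
    · rintro ⟨h2, h3, h4⟩
      exact ⟨h2, ⟨RR_mem_La F hp hε hε1 h2, h3⟩, fun h5 => (le_muE_iff Φ hLa he he1 h5).2 (h4 h5)⟩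
    · rintro ⟨h2, h3, h4⟩
      exact ⟨h2, h3.2, fun h5 => (le_muE_iff Φ hLa he he1 h5).1 (h4 h5)⟩
  have hD : Dout La (Pc Φ.F) (bc (F := Φ.F)) c a t =
      {q | q ∈ Lset La (Pc Φ.F) (bc (F := Φ.F)) a t ∧ ∃ d, d ≠ c ∧ q ∈ Pc Φ.F d} := by
    ext q
    rw [Lset_eq_of_pos F ht0.ne']
    exact ⟨fun h => ⟨⟨h.1, h.2.1⟩, h.2.2⟩, fun h => ⟨h.1.1, h.1.2, h.2⟩⟩
  have h3 := preconn_Dout Φ.bf hLa (a := a) (c := c) hac hne ht0 ht1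
  rw [h1]
  obtain ⟨g1, g2, g3⟩ := preconn_outer F hp (c := c) hε hε1 hm1 hm2 hL (fun q hq => hq.1) hD
    (fun q hq _ => by
      rw [hD] at hq
      have h5 := fibreR_spec (A := ℤ) F hp hε hε1 hq.1.1 fun d h => hb d (h ▸ hq.1)
      exact ⟨h5.2.1, h5.1⟩) h3.1
  exact ⟨g1, g2, g3 h3.2⟩

/-- **(g2)**: the part of the sheet of `a` in the inner part `{muD ≤ ρ}` of the brick `c` -/
theorem inner_sheet (hac : a ≠ c) (hne : (a.1.set ∩ c.1.set).Nonempty)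
    (ht0 : 0 ≤ t) (ht1 : t < 1) (hρ : e c ≤ ρ) (hρ1 : ρ ≤ 1) :
    IsPreconnected {y | y ∈ c.1.set ∧ vE Φ e a y = t ∧ muD Φ y ≤ ρ} ∧
      IsCompact {y | y ∈ c.1.set ∧ vE Φ e a y = t ∧ muD Φ y ≤ ρ} ∧
      {y | y ∈ c.1.set ∧ vE Φ e a y = t ∧ muD Φ y ≤ ρ}.Nonempty := by
  classical
  have F := Brk3_582.foam Φ.bf hLa
  have hp := pushE Φ hLa he he1
  have hε : (0 : ℝ) < 1 / 2 := by norm_num
  have hε1 : (1 / 2 : ℝ) ≤ 1 := by norm_num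
  have hφ := (phi_strictMono (he c) (he1 c)).monotone
  have hm1 : 1 / 2 ≤ phi (e c) ρ := by
    rw [← phi_half (he c) (he1 c)]; exact hφ hρ
  have hm2 : phi (e c) ρ ≤ 1 := by
    rw [← phi_one (he c) (he1 c)]; exact hφ hρ1
  have h1 : {y | y ∈ c.1.set ∧ vE Φ e a y = t ∧ muD Φ y ≤ ρ} =
      {y | y ∈ Pc Φ.F c ∧ RR (Pc Φ.F) (bc (F := Φ.F)) Φ.Psi (muE Φ e) (1 / 2) y ∈
        Dlv (Pc Φ.F) (bc (F := Φ.F)) c a t ∧ muE Φ e y ≤ phi (e c) ρ} := by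
    ext y
    constructor
    · rintro ⟨h2, h3, h4⟩
      exact ⟨h2, ⟨RR_mem F hp hε hε1 (d := c) h2, h3⟩, (muE_le_iff Φ hLa he he1 h2).2 h4⟩
    · rintro ⟨h2, h3, h4⟩
      exact ⟨h2, h3.2, (muE_le_iff Φ hLa he he1 h2).1 h4⟩
  have h3 := preconn_Dlv F (a := a) (c := c) hac hne ht0 ht1
  have hb : bc (F := Φ.F) {c} ∉ Dlv (Pc Φ.F) (bc (F := Φ.F)) c a t := by
    intro h
    have h4 := F.sc_b (singleton_nonempty c) (A := {c}) (by simpa [fc] using cell_nonempty Φ c) a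
    rw [h.2] at h4
    rw [if_neg (by simpa using hac)] at h4
    exact ht1.ne h4
  rw [h1]
  obtain ⟨g1, g2, g3⟩ := preconn_inner F hp (c := c) hε hε1 hm1 hm2 (isCompact_Dlv F)
    (fun q hq => hq.1) hb h3.1
  exact ⟨g1, g2, g3 h3.2⟩

/-! ### pull-backs to `Om` -/

variable {f : E3 → E3} {Om : Set E3}

omit hLa he he1 in
/-- pull-back of the three properties -/
theorem pull {D : Set E3} (hf : Hom3 f Om La) (hD : IsPreconnected D ∧ IsCompact D ∧ D.Nonempty)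
    (hDL : D ⊆ La) : IsPreconnected {x ∈ Om | f x ∈ D} ∧ IsCompact {x ∈ Om | f x ∈ D} ∧
      {x ∈ Om | f x ∈ D}.Nonempty := by
  refine ⟨isPreconnected_hom hf hD.1 hDL, isCompact_hom hf hD.2.1 hDL, ?_⟩
  obtain ⟨g, h1, h2, h3⟩ := Hom3.preimage_eq hf hDL
  rw [h3]; exact hD.2.2.image g

/-- **(g1) in `Om`** -/
theorem outer_sheet_om (hf : Hom3 f Om La) (hac : a ≠ c) (hne : (a.1.set ∩ c.1.set).Nonempty)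
    (ht0 : 0 < t) (ht1 : t < 1) (hρ : e c ≤ ρ) (hρ1 : ρ ≤ 1) :
    IsPreconnected {x | x ∈ Om ∧ vE Φ e a (f x) = t ∧ (f x ∈ c.1.set → ρ ≤ muD Φ (f x))} ∧
      IsCompact {x | x ∈ Om ∧ vE Φ e a (f x) = t ∧ (f x ∈ c.1.set → ρ ≤ muD Φ (f x))} ∧
      {x | x ∈ Om ∧ vE Φ e a (f x) = t ∧ (f x ∈ c.1.set → ρ ≤ muD Φ (f x))}.Nonempty := by
  have h := pull hf (outer_sheet Φ hLa he he1 hac hne ht0 ht1 hρ hρ1) fun y hy => hy.1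
  have h1 : {x ∈ Om | f x ∈ {y | y ∈ La ∧ vE Φ e a y = t ∧ (y ∈ c.1.set → ρ ≤ muD Φ y)}} =
      {x | x ∈ Om ∧ vE Φ e a (f x) = t ∧ (f x ∈ c.1.set → ρ ≤ muD Φ (f x))} := by
    obtain ⟨g, a1, -⟩ := id hf
    ext x
    exact ⟨fun h => ⟨h.1, h.2.2⟩, fun h => ⟨h.1, a1 h.1, h.2⟩⟩
  rwa [h1] at h

/-- **(g2) in `Om`** -/
theorem inner_sheet_om (hf : Hom3 f Om La) (hac : a ≠ c) (hne : (a.1.set ∩ c.1.set).Nonempty)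
    (ht0 : 0 ≤ t) (ht1 : t < 1) (hρ : e c ≤ ρ) (hρ1 : ρ ≤ 1) :
    IsPreconnected {x | x ∈ Om ∧ f x ∈ c.1.set ∧ vE Φ e a (f x) = t ∧ muD Φ (f x) ≤ ρ} ∧
      IsCompact {x | x ∈ Om ∧ f x ∈ c.1.set ∧ vE Φ e a (f x) = t ∧ muD Φ (f x) ≤ ρ} ∧
      {x | x ∈ Om ∧ f x ∈ c.1.set ∧ vE Φ e a (f x) = t ∧ muD Φ (f x) ≤ ρ}.Nonempty :=
  pull hf (inner_sheet Φ hLa he he1 hac hne ht0 ht1 hρ hρ1) fun _ hy => Φ.bf.sub c.1 c.2 hy.1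

omit he he1 in
/-- **(g3), lower part, in `Om`** -/
theorem shell_le_om (hf : Hom3 f Om La) (hac : a ≠ c) (hne : (a.1.set ∩ c.1.set).Nonempty)
    (ht0 : 0 ≤ t) (ht1 : t < 1) (hρ : 0 < ρ) (hρρ : ρ ≤ ρ') (hρ' : ρ' ≤ 1) :
    IsPreconnected
        {x | x ∈ Om ∧ f x ∈ c.1.set ∧ Φ.lev a (f x) ≤ t ∧ ρ ≤ muD Φ (f x) ∧ muD Φ (f x) ≤ ρ'} ∧
      IsCompact
        {x | x ∈ Om ∧ f x ∈ c.1.set ∧ Φ.lev a (f x) ≤ t ∧ ρ ≤ muD Φ (f x) ∧ muD Φ (f x) ≤ ρ'} ∧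
      {x | x ∈ Om ∧ f x ∈ c.1.set ∧ Φ.lev a (f x) ≤ t ∧ ρ ≤ muD Φ (f x) ∧
        muD Φ (f x) ≤ ρ'}.Nonempty :=
  pull hf (shell_le Φ hLa hac hne ht0 ht1 hρ hρρ hρ') fun _ hy => Φ.bf.sub c.1 c.2 hy.1

omit he he1 in
/-- **(g3), upper part, in `Om`** -/
theorem shell_ge_om (hf : Hom3 f Om La) (hac : a ≠ c) (hne : (a.1.set ∩ c.1.set).Nonempty)
    (ht0 : 0 < t) (ht1 : t < 1) (hρ : 0 < ρ) (hρρ : ρ ≤ ρ') (hρ' : ρ' ≤ 1) :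
    IsPreconnected
        {x | x ∈ Om ∧ f x ∈ c.1.set ∧ t ≤ Φ.lev a (f x) ∧ ρ ≤ muD Φ (f x) ∧ muD Φ (f x) ≤ ρ'} ∧
      IsCompact
        {x | x ∈ Om ∧ f x ∈ c.1.set ∧ t ≤ Φ.lev a (f x) ∧ ρ ≤ muD Φ (f x) ∧ muD Φ (f x) ≤ ρ'} ∧
      {x | x ∈ Om ∧ f x ∈ c.1.set ∧ t ≤ Φ.lev a (f x) ∧ ρ ≤ muD Φ (f x) ∧
        muD Φ (f x) ≤ ρ'}.Nonempty :=
  pull hf (shell_ge Φ hLa hac hne ht0 ht1 hρ hρρ hρ') fun _ hy => Φ.bf.sub c.1 c.2 hy.1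

end final

end Crest.Agent.R096.Etg_163
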