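import Crest.Agent.R096.Ess4_95
import Crest.Agent.R096.Init12_543
import Crest.Agent.R096.Etg4_163

/-!
# Row 96, DOORS, (E-S) (helper95), part 5: the geometric input from `Mbf_337.Tiny`, local part

* `GA`   : facts on the straight gauge `ga Φ c = gau c.1 (Φ.B c).lo` (helper163);
* `Rm`   : the clause `room` of `Tiny`, unpacked;
* `K_loc`, `K_int`, `tile_osc` : position of the core and the oscillation on the tiles near it.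
-/

set_option autoImplicit false
set_option linter.unusedSectionVars false

open Set Topology Filter Metric Module
open scoped Classical

namespace Crest.Agent.R096.Ess5_95

open Crest.Agent.R096.Msh_715 Crest.Agent.R096.Coh_184 Crest.Agent.R096.Bsp_628
  Crest.Agent.R096.Brk1_582 Crest.Agent.R096.Brk2_582 Crest.Agent.R096.Brk3_582
  Crest.Agent.R096.Brk5_582 Crest.Agent.R096.Init_543 Crest.Agent.R096.Mbf_337
  Crest.Agent.R96.Push_899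

open Crest.Agent.R096.SkC1_961 (E3 Hom3 IsPush FoamD)
open Crest.Agent.R096.Ce_537 (PLEquiv IsBall)

variable {δ κ0 R c0 : ℝ} {La Om : Set E3} {ι : Type} {Φ : FoamD δ κ0 R c0 La}
  {T : Tiling Om ι} {f g : E3 → E3}

/-- the straight gauge of the brick `c` round its hole -/
noncomputable abbrev ga (Φ : FoamD δ κ0 R c0 La) (c : Φ.F) (y : E3) : ℝ := gau c.1 (Φ.B c).lo y

/-- **facts on the straight gauge** -/
structure GA (Φ : FoamD δ κ0 R c0 La) (c : Φ.F) (ρ : ℝ) : Prop where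
  zero : ga Φ c (Φ.B c).lo = 0
  one : ∀ y, ga Φ c y ≤ 1 ↔ y ∈ c.1.set
  lt_one : ∀ y, ga Φ c y < 1 → ∀ k, c.1.lo k < y k ∧ y k < c.1.hi k
  cpt : ∀ r, 0 < r → r ≤ 1 → IsCompact {y | ga Φ c y ≤ r}
  cvx : ∀ r, 0 < r → r ≤ 1 → Convex ℝ {y | ga Φ c y ≤ r}
  lt : ∀ r, 0 < r → r ≤ 1 → IsPreconnected {y | ga Φ c y < r}
  eq : ∀ r, 0 < r → r ≤ 1 → IsPreconnected {y | ga Φ c y = r}
  out : ∀ r, 0 < r → ∀ y ∈ c.1.set, r < ga Φ c y → ∃ A : Set E3, IsPreconnected A ∧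
    A ⊆ {y | y ∈ c.1.set ∧ r < ga Φ c y} ∧ y ∈ A ∧ ∃ y' ∈ A, y' ∈ frontier c.1.set
  ex : ∀ q ∈ frontier c.1.set, ∀ r, 0 < r → r ≤ ρ → ∃ y ∈ c.1.set, ga Φ c y = r ∧ Φ.Psi y = q
  shell : ∀ A ⊆ frontier c.1.set, IsPreconnected A → ∀ r r', 0 < r → r ≤ r' → r' ≤ ρ →
    IsPreconnected {y | y ∈ c.1.set ∧ r ≤ ga Φ c y ∧ ga Φ c y ≤ r' ∧ Φ.Psi y ∈ A}

/-- the clause `room` of `Tiny`, unpacked -/
structure Rm (Φ : FoamD δ κ0 R c0 La) (T : Tiling Om ι) (f : E3 → E3) (c : Φ.F)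
    (J0 J V : Set ι) (θ : E3 → E3) (ρ1 ρ2 ρ3 ρ4 d : ℝ) : Prop where
  d0 : 0 < d
  r1 : 0 < ρ1
  r12 : ρ1 + 16 * d ≤ ρ2
  r23 : ρ2 ≤ ρ3
  r34 : ρ3 + 16 * d ≤ ρ4
  r4 : ρ4 < 1
  ray : RayTo Φ c ρ4
  j0 : ∀ x ∈ KJ T J0, ga Φ c (f x) < ρ1
  fr : ∀ x ∈ frontier (KJ T J), ρ2 ≤ ga Φ c (f x) ∧ ga Φ c (f x) ≤ ρ3
  v : ∀ i, (∃ x ∈ P (T.H i), ga Φ c (f x) ≤ ρ4) → i ∈ V
  osc : ∀ i ∈ V, i ∉ J0 → ∀ x ∈ P (T.H i), ∀ y ∈ P (T.H i),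
      |ga Φ c (f x) - ga Φ c (f y)| ≤ d ∧
      ‖Φ.Psi (f x) - Φ.Psi (f y)‖ ≤ d * c.1.sz ∧ ∀ c', |Φ.lev c' (f x) - Φ.lev c' (f y)| ≤ d
  near : ∀ x ∈ frontier (KJ T J), ‖θ x - Φ.Psi (f x)‖ ≤ d * c.1.sz

theorem exists_rm {κ1 : ℝ} {c : Φ.F} {J0 J V : Set ι} {θ : E3 → E3} {φ : E3 → ℝ}
    (h : Tiny Φ T f κ1 c J0 J V θ φ) :
    ∃ ρ1 ρ2 ρ3 ρ4 d, d ≤ κ1 ∧ Rm Φ T f c J0 J V θ ρ1 ρ2 ρ3 ρ4 d := by
  obtain ⟨ρ1, ρ2, ρ3, ρ4, d, h1, h2, h3, h4, h5, h6, h7, h8, h9, h10, h11, h12, h13⟩ := h.room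
  exact ⟨ρ1, ρ2, ρ3, ρ4, d, h2, ⟨h1, h3, h4, h5, h6, h7, h8, h9, h10, h11, h12, h13⟩⟩

section loc

variable {c : Φ.F} {J0 J V : Set ι} {θ : E3 → E3} {ρ1 ρ2 ρ3 ρ4 d : ℝ}

theorem Rm.tile (hr : Rm Φ T f c J0 J V θ ρ1 ρ2 ρ3 ρ4 d) {q : ι} {x : E3}
    (hx : x ∈ P (T.H q)) (h1 : ρ1 ≤ ga Φ c (f x)) (h4 : ga Φ c (f x) ≤ ρ4) : q ∈ V ∧ q ∉ J0 := by
  refine ⟨hr.v q ⟨x, hx, h4⟩, fun h => ?_⟩
  have h5 := hr.j0 x (mem_biUnion (x := q) h hx)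
  linarith

theorem Rm.tile_osc (hr : Rm Φ T f c J0 J V θ ρ1 ρ2 ρ3 ρ4 d) {q : ι} {x y : E3}
    (hx : x ∈ P (T.H q)) (h1 : ρ1 ≤ ga Φ c (f x)) (h4 : ga Φ c (f x) ≤ ρ4)
    (hy : y ∈ P (T.H q)) : |ga Φ c (f x) - ga Φ c (f y)| ≤ d ∧
      ‖Φ.Psi (f x) - Φ.Psi (f y)‖ ≤ d * c.1.sz ∧ ∀ c', |Φ.lev c' (f x) - Φ.lev c' (f y)| ≤ d := by
  obtain ⟨h5, h6⟩ := hr.tile hx h1 h4
  exact hr.osc q h5 h6 x hx y hy

/-- an end of an interval at a point of the frontier of a brick -/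
theorem exists_end {Q : Bx (Fin 3)} {y : E3} (hy : y ∈ frontier Q.set) :
    ∃ k, y k ≤ Q.lo k ∨ Q.hi k ≤ y k := by
  by_contra hcon
  push Not at hcon
  have h1 : y ∈ interior Q.set := by
    rw [mem_interior]
    refine ⟨Set.pi univ fun k => Ioo (Q.lo k) (Q.hi k), fun z hz => ?_,
      isOpen_set_pi finite_univ fun k _ => isOpen_Ioo, fun k _ => hcon k⟩
    exact Bx.mem_set.2 fun k => ⟨(hz k trivial).1.le, (hz k trivial).2.le⟩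
  rw [frontier, mem_diff] at hy
  exact hy.2 h1

/-- a point of the open brick is in the interior -/
theorem mem_int_bx {Q : Bx (Fin 3)} {y : E3} (h : ∀ k, Q.lo k < y k ∧ y k < Q.hi k) :
    y ∈ interior Q.set := by
  rw [mem_interior]
  exact ⟨Set.pi univ fun k => Ioo (Q.lo k) (Q.hi k), fun z hz =>
      Bx.mem_set.2 fun k => ⟨(hz k trivial).1.le, (hz k trivial).2.le⟩,
    isOpen_set_pi finite_univ fun k _ => isOpen_Ioo, fun k _ => h k⟩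

/-- the core lies in `{ga ≤ ρ3}` -/
theorem K_loc (H : Hm f g Om La) (hc : c.1.set ⊆ La) (hG : GA Φ c ρ4)
    (hr : Rm Φ T f c J0 J V θ ρ1 ρ2 ρ3 ρ4 d) (hJV : J ⊆ V) (hcl : IsClosed (KJ T J))
    (hin : ∀ x ∈ KJ T V, ∀ k, c.1.lo k < f x k ∧ f x k < c.1.hi k) {x : E3}
    (hx : x ∈ KJ T J) : ga Φ c (f x) ≤ ρ3 := by
  by_contra hcon
  push Not at hcon
  have hxV : x ∈ KJ T V := by
    obtain ⟨q, hq, hxq⟩ := mem_iUnion₂.1 hx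
    exact mem_iUnion₂.2 ⟨q, hJV hq, hxq⟩
  have hxO : x ∈ Om := by
    obtain ⟨q, hq, hxq⟩ := mem_iUnion₂.1 hx
    exact T.sub q hxq
  have h3 : 0 < ρ3 := by linarith [hr.r1, hr.r12, hr.r23, hr.d0]
  have hfx : f x ∈ c.1.set := Bx.mem_set.2 fun k => ⟨(hin x hxV k).1.le, (hin x hxV k).2.le⟩
  obtain ⟨A, hA, hAs, hxA, y', hy'A, hy'⟩ := hG.out ρ3 h3 (f x) hfx hcon
  have hAL : A ⊆ La := fun y hy => hc (hAs hy).1
  have hB := H.preconn_pre hAL hA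
  have hy'O : g y' ∈ Om := H.gm (hAL hy'A)
  have hy'K : g y' ∉ KJ T J := by
    intro h
    obtain ⟨q, hq, hxq⟩ := mem_iUnion₂.1 h
    have h5 := hin (g y') (mem_iUnion₂.2 ⟨q, hJV hq, hxq⟩)
    rw [H.fg y' (hAL hy'A)] at h5
    obtain ⟨k, hk⟩ := exists_end hy'
    rcases hk with hk | hk
    · exact absurd (h5 k).1 (not_lt.2 hk)
    · exact absurd (h5 k).2 (not_lt.2 hk)
  have hne : (Om ∩ f ⁻¹' A ∩ frontier (KJ T J)).Nonempty := by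
    by_contra hno
    rw [not_nonempty_iff_eq_empty] at hno
    have h6 : Om ∩ f ⁻¹' A ⊆ interior (KJ T J) ∪ (KJ T J)ᶜ := by
      intro z hz
      by_cases hzK : z ∈ KJ T J
      · left
        by_contra hzi
        have : z ∈ Om ∩ f ⁻¹' A ∩ frontier (KJ T J) := ⟨hz, by
          rw [hcl.frontier_eq]; exact ⟨hzK, hzi⟩⟩
        rw [hno] at this
        exact this
      · exact Or.inr hzK
    have h7 := hB.subset_or_subset isOpen_interior hcl.isOpen_compl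
      (disjoint_left.2 fun z h1 h2 => h2 (interior_subset h1)) h6
    rcases h7 with h7 | h7
    · exact hy'K (interior_subset (h7 ⟨hy'O, by
        show f (g y') ∈ A
        rw [H.fg y' (hAL hy'A)]; exact hy'A⟩))
    · exact h7 ⟨hxO, hxA⟩ hx
  obtain ⟨z, ⟨hz1, hz2⟩, hz3⟩ := hne
  have h8 := (hr.fr z hz3).2
  have h9 := (hAs hz2).2
  exact absurd h9 (not_lt.2 h8)

/-- points over `{ga < ρ2}` are interior points of the core -/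
theorem K_int (H : Hm f g Om La) (hc : c.1.set ⊆ La) (hG : GA Φ c ρ4)
    (hr : Rm Φ T f c J0 J V θ ρ1 ρ2 ρ3 ρ4 d) (h0J : J0 ⊆ J)
    (hcl : IsClosed (KJ T J)) (hmem : ∃ i ∈ J0, ∃ x ∈ I (T.H i), f x = (Φ.B c).lo) {x : E3}
    (hx : x ∈ Om) (h : ga Φ c (f x) < ρ2) : x ∈ interior (KJ T J) := by
  have h2 : 0 < ρ2 := by linarith [hr.r1, hr.r12, hr.d0]
  have h21 : ρ2 ≤ 1 := by linarith [hr.r23, hr.r34, hr.r4, hr.d0]
  have hAL : {y | ga Φ c y < ρ2} ⊆ La := fun y hy => hc ((hG.one y).1 (by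
    have : ga Φ c y < ρ2 := hy
    linarith))
  have hB := H.preconn_pre hAL (hG.lt ρ2 h2 h21)
  obtain ⟨i, hi, x0, hx0, hfx0⟩ := hmem
  have hx0K : x0 ∈ interior (KJ T J) := by
    refine mem_interior.2 ⟨I (T.H i), fun z hz => ?_, isOpen_I _, hx0⟩
    exact mem_iUnion₂.2 ⟨i, h0J hi, I_sub_P _ hz⟩
  have hx0O : x0 ∈ Om := T.sub i (I_sub_P _ hx0)
  have h6 : Om ∩ f ⁻¹' {y | ga Φ c y < ρ2} ⊆ interior (KJ T J) ∪ (KJ T J)ᶜ := by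
    rintro z ⟨hzO, hz⟩
    by_cases hzK : z ∈ KJ T J
    · left
      by_contra hzi
      have h7 := (hr.fr z (by rw [hcl.frontier_eq]; exact ⟨hzK, hzi⟩)).1
      have h8 : ga Φ c (f z) < ρ2 := hz
      linarith
    · exact Or.inr hzK
  have h7 := hB.subset_or_subset isOpen_interior hcl.isOpen_compl
    (disjoint_left.2 fun z h1 h2 => h2 (interior_subset h1)) h6
  have hx0B : x0 ∈ Om ∩ f ⁻¹' {y | ga Φ c y < ρ2} := ⟨hx0O, by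
    show ga Φ c (f x0) < ρ2
    rw [hfx0, hG.zero]; exact h2⟩
  rcases h7 with h7 | h7
  · exact h7 ⟨hx, h⟩
  · exact absurd (interior_subset hx0K) (h7 hx0B)

end loc

end Crest.Agent.R096.Ess5_95
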