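import Crest.Agent.R096.Etg6_163

/-! Row 96 (helper163), DOORS-ESS-TARGET, part 7: pull-backs to `Om`, and (g4) on the frontier of a
tiny core (`Tiny.bij`) -/

set_option autoImplicit false
set_option linter.unusedSectionVars false
set_option linter.style.haveILetI false

open Set Topology Filter

namespace Crest.Agent.R096.Etg_163

open Crest.Agent.R096.Coh_184 Crest.Agent.R096.Brk1_582 Crest.Agent.R096.Brk2_582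
open Crest.Agent.R096.Bsp_628 Crest.Agent.R096.Brk3_582 Crest.Agent.R096.Vb_965
open Crest.Agent.R096.Exc_965 Crest.Agent.R96.Push_899 Crest.Agent.R096.SkC1_961
open Crest.Agent.R096.Sphg_316 Crest.Agent.R096.Msh_715
open Crest.Agent.R096.Pse_316 (gau_eq bod_brick)
open Crest.Agent.R096.Ce_537 (PLEquiv)

variable {δ κ0 R c0 : ℝ} {La : Set E3} (Φ : FoamD δ κ0 R c0 La) {e : Φ.F → ℝ}
variable {a c : Φ.F} {t ρ ρ' r : ℝ} {f : E3 → E3} {Om : Set E3}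

/-! ### pull-backs -/

/-- **the preimage of a gauge ball**: compact, connected, trivial torsors -/
theorem ball_gau_om (hf : Hom3 f Om La) (hpt : (Φ.B c).lo = (Φ.B c).hi) (h0 : 0 ≤ ρ)
    (h1 : ρ ≤ 1) {A : Type*} [AddCommGroup A] :
    TrivF A {x | x ∈ Om ∧ gg Φ c (f x) ≤ ρ} ∧ IsPreconnected {x | x ∈ Om ∧ gg Φ c (f x) ≤ ρ} ∧
      IsCompact {x | x ∈ Om ∧ gg Φ c (f x) ≤ ρ} ∧
      {x | x ∈ Om ∧ gg Φ c (f x) ≤ ρ}.Nonempty := by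
  obtain ⟨g1, g2, g3⟩ := ball_gau Φ (c := c) hpt ρ
  have hsub : {y | gg Φ c y ≤ ρ} ⊆ La := (g3 h1).trans (Φ.bf.sub c.1 c.2)
  have hne : {y | gg Φ c y ≤ ρ}.Nonempty := by
    refine ⟨(Φ.B c).lo, ?_⟩
    show gg Φ c (Φ.B c).lo ≤ ρ
    rw [gg_eq, Ng_self]; exact h0
  have h2 := pull (D := {y | gg Φ c y ≤ ρ}) hf ⟨g2.isPreconnected, g1, hne⟩ hsub
  have h3 := trivF_hom (A := A) hf g1 hsub fun _ => trivAll_convex' g1 g2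
  exact ⟨h3, h2.1, h2.2.1, h2.2.2⟩

section g3

variable (hf : Hom3 f Om La) (hLa : IsOpen La) (hpt : (Φ.B c).lo = (Φ.B c).hi) (hr1 : r < 1)
  (hray : Mbf_337.RayTo Φ c r) (h0 : 0 < ρ) (hρρ : ρ ≤ ρ') (hρ' : ρ' ≤ r)
include hf hLa hpt hr1 hray h0 hρρ hρ'

theorem shell_all_gau_om (hac : a ≠ c) (hne : (a.1.set ∩ c.1.set).Nonempty) :
    IsPreconnected {x | x ∈ Om ∧ f x ∈ c.1.set ∧ ρ ≤ gg Φ c (f x) ∧ gg Φ c (f x) ≤ ρ'} ∧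
      IsCompact {x | x ∈ Om ∧ f x ∈ c.1.set ∧ ρ ≤ gg Φ c (f x) ∧ gg Φ c (f x) ≤ ρ'} ∧
      {x | x ∈ Om ∧ f x ∈ c.1.set ∧ ρ ≤ gg Φ c (f x) ∧ gg Φ c (f x) ≤ ρ'}.Nonempty := by
  have h := shell_all_gau Φ hLa hpt hr1 hray h0 hρρ hρ'
  refine pull hf ⟨h.1, h.2, ?_⟩ fun _ hy => Φ.bf.sub c.1 c.2 hy.1
  obtain ⟨y, h1, -, h2⟩ := (shell_le_gau Φ hLa hpt hr1 hray h0 hρρ hρ' hac hne (t := 1 / 2)
    (by norm_num) (by norm_num)).2.2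
  exact ⟨y, h1, h2⟩

theorem shell_le_gau_om (hac : a ≠ c) (hne : (a.1.set ∩ c.1.set).Nonempty) (ht0 : 0 ≤ t)
    (ht1 : t < 1) :
    IsPreconnected {x | x ∈ Om ∧ f x ∈ c.1.set ∧ Φ.lev a (f x) ≤ t ∧ ρ ≤ gg Φ c (f x) ∧
        gg Φ c (f x) ≤ ρ'} ∧
      IsCompact {x | x ∈ Om ∧ f x ∈ c.1.set ∧ Φ.lev a (f x) ≤ t ∧ ρ ≤ gg Φ c (f x) ∧
        gg Φ c (f x) ≤ ρ'} ∧
      {x | x ∈ Om ∧ f x ∈ c.1.set ∧ Φ.lev a (f x) ≤ t ∧ ρ ≤ gg Φ c (f x) ∧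
        gg Φ c (f x) ≤ ρ'}.Nonempty :=
  pull hf (shell_le_gau Φ hLa hpt hr1 hray h0 hρρ hρ' hac hne ht0 ht1)
    fun _ hy => Φ.bf.sub c.1 c.2 hy.1

theorem shell_ge_gau_om (hac : a ≠ c) (hne : (a.1.set ∩ c.1.set).Nonempty) (ht0 : 0 < t)
    (ht1 : t < 1) :
    IsPreconnected {x | x ∈ Om ∧ f x ∈ c.1.set ∧ t ≤ Φ.lev a (f x) ∧ ρ ≤ gg Φ c (f x) ∧
        gg Φ c (f x) ≤ ρ'} ∧
      IsCompact {x | x ∈ Om ∧ f x ∈ c.1.set ∧ t ≤ Φ.lev a (f x) ∧ ρ ≤ gg Φ c (f x) ∧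
        gg Φ c (f x) ≤ ρ'} ∧
      {x | x ∈ Om ∧ f x ∈ c.1.set ∧ t ≤ Φ.lev a (f x) ∧ ρ ≤ gg Φ c (f x) ∧
        gg Φ c (f x) ≤ ρ'}.Nonempty :=
  pull hf (shell_ge_gau Φ hLa hpt hr1 hray h0 hρρ hρ' hac hne ht0 ht1)
    fun _ hy => Φ.bf.sub c.1 c.2 hy.1

theorem annulus_gau_om (hac : a ≠ c) (hne : (a.1.set ∩ c.1.set).Nonempty) (ht0 : 0 < t)
    (ht1 : t < 1) :
    IsPreconnected {x | x ∈ Om ∧ f x ∈ c.1.set ∧ Φ.lev a (f x) = t ∧ ρ ≤ gg Φ c (f x) ∧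
        gg Φ c (f x) ≤ ρ'} ∧
      IsCompact {x | x ∈ Om ∧ f x ∈ c.1.set ∧ Φ.lev a (f x) = t ∧ ρ ≤ gg Φ c (f x) ∧
        gg Φ c (f x) ≤ ρ'} ∧
      {x | x ∈ Om ∧ f x ∈ c.1.set ∧ Φ.lev a (f x) = t ∧ ρ ≤ gg Φ c (f x) ∧
        gg Φ c (f x) ≤ ρ'}.Nonempty :=
  pull hf (annulus_gau Φ hLa hpt hr1 hray h0 hρρ hρ' hac hne ht0 ht1)
    fun _ hy => Φ.bf.sub c.1 c.2 hy.1

end g3

section g12

variable (hf : Hom3 f Om La) (hLa : IsOpen La) (he : ∀ c, 0 < e c) (he1 : ∀ c, e c < 1)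
  (hpt : (Φ.B c).lo = (Φ.B c).hi) (hr1 : r < 1) (hray : Mbf_337.RayTo Φ c r)
  (h0 : 0 < ρ) (hρ : ρ ≤ r) (hcap : ∀ y ∈ c.1.set, muD Φ y < e c → gg Φ c y < ρ)
  (hac : a ≠ c) (hne : (a.1.set ∩ c.1.set).Nonempty)
include hf hLa he he1 hpt hr1 hray h0 hρ hcap hac hne

theorem outer_gau_om (ht0 : 0 < t) (ht1 : t < 1) :
    IsPreconnected {x | x ∈ Om ∧ vE Φ e a (f x) = t ∧ (f x ∈ c.1.set → ρ ≤ gg Φ c (f x))} ∧
      IsCompact {x | x ∈ Om ∧ vE Φ e a (f x) = t ∧ (f x ∈ c.1.set → ρ ≤ gg Φ c (f x))} ∧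
      {x | x ∈ Om ∧ vE Φ e a (f x) = t ∧ (f x ∈ c.1.set → ρ ≤ gg Φ c (f x))}.Nonempty := by
  have h := pull hf (outer_gau Φ hLa he he1 hpt hr1 hray h0 hρ hcap hac hne ht0 ht1)
    fun y hy => hy.1
  have h1 : {x ∈ Om | f x ∈ {y | y ∈ La ∧ vE Φ e a y = t ∧ (y ∈ c.1.set → ρ ≤ gg Φ c y)}} =
      {x | x ∈ Om ∧ vE Φ e a (f x) = t ∧ (f x ∈ c.1.set → ρ ≤ gg Φ c (f x))} := by
    obtain ⟨g, a1, -⟩ := id hf
    ext x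
    exact ⟨fun h => ⟨h.1, h.2.2⟩, fun h => ⟨h.1, a1 h.1, h.2⟩⟩
  rwa [h1] at h

theorem inner_gau_om (ht0 : 0 ≤ t) (ht1 : t < 1) :
    IsPreconnected {x | x ∈ Om ∧ f x ∈ c.1.set ∧ vE Φ e a (f x) = t ∧ gg Φ c (f x) ≤ ρ} ∧
      IsCompact {x | x ∈ Om ∧ f x ∈ c.1.set ∧ vE Φ e a (f x) = t ∧ gg Φ c (f x) ≤ ρ} ∧
      {x | x ∈ Om ∧ f x ∈ c.1.set ∧ vE Φ e a (f x) = t ∧ gg Φ c (f x) ≤ ρ}.Nonempty :=
  pull hf (inner_gau Φ hLa he he1 hpt hr1 hray h0 hρ hcap hac hne ht0 ht1)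
    fun _ hy => Φ.bf.sub c.1 c.2 hy.1

end g12

/-! ### (g4) on the frontier of the core -/

omit Φ in
/-- preimages under a PL equivalence -/
theorem pre_plEquiv {E F : Type*} [NormedAddCommGroup E] [NormedSpace ℝ E]
    [NormedAddCommGroup F] [NormedSpace ℝ F] {X : Set E} {Y : Set F} (u : PLEquiv X Y) {D : Set F}
    (hDY : D ⊆ Y) (hD : IsPreconnected D ∧ IsCompact D ∧ D.Nonempty) :
    IsPreconnected {x | x ∈ X ∧ u.f x ∈ D} ∧ IsCompact {x | x ∈ X ∧ u.f x ∈ D} ∧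
      {x | x ∈ X ∧ u.f x ∈ D}.Nonempty := by
  have h1 : {x | x ∈ X ∧ u.f x ∈ D} = u.g '' D := by
    ext x
    constructor
    · rintro ⟨hx, h⟩
      exact ⟨u.f x, h, u.li x hx⟩
    · rintro ⟨y, hy, rfl⟩
      exact ⟨u.mg (hDY hy), by rw [u.ri y (hDY hy)]; exact hy⟩
  have hc : ContinuousOn u.g D := u.pg.1.mono hDY
  rw [h1]
  exact ⟨hD.1.image _ hc, hD.2.1.image_of_continuousOn hc, hD.2.2.image _⟩

variable {ι : Type} {T : Tiling Om ι} {J0 J V : Set ι} {θ : E3 → E3} {φ : E3 → ℝ} {κ1 : ℝ}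

/-- **(g4) on the frontier of the tiny core, lower part** -/
theorem core_le (hLa : IsOpen La) (hT : Mbf_337.Tiny Φ T f κ1 c J0 J V θ φ) (hac : a ≠ c)
    (hne : (a.1.set ∩ c.1.set).Nonempty) (ht0 : 0 ≤ t) (ht1 : t < 1) :
    IsPreconnected {x | x ∈ frontier (Mbf_337.KJ T J) ∧ Mbf_337.sb Φ (θ x) a ≤ t} ∧
      IsCompact {x | x ∈ frontier (Mbf_337.KJ T J) ∧ Mbf_337.sb Φ (θ x) a ≤ t} ∧
      {x | x ∈ frontier (Mbf_337.KJ T J) ∧ Mbf_337.sb Φ (θ x) a ≤ t}.Nonempty := by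
  obtain ⟨u, hu⟩ := hT.bij
  have h := pre_plEquiv u (fun q hq => hq.1) (frontier_le Φ hLa hac hne ht0 ht1)
  have h1 : {x | x ∈ frontier (Mbf_337.KJ T J) ∧ u.f x ∈ {q | q ∈ frontier c.1.set ∧
      sc (Pc Φ.F) (bc (F := Φ.F)) q a ≤ t}} =
      {x | x ∈ frontier (Mbf_337.KJ T J) ∧ Mbf_337.sb Φ (θ x) a ≤ t} := by
    ext x
    constructor
    · rintro ⟨h2, h3⟩
      rw [hu x h2] at h3
      exact ⟨h2, h3.2⟩
    · rintro ⟨h2, h3⟩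
      refine ⟨h2, u.mf h2, ?_⟩
      rw [hu x h2]; exact h3
  rwa [h1] at h

/-- **(g4) on the frontier of the tiny core, upper part** -/
theorem core_ge (hLa : IsOpen La) (hT : Mbf_337.Tiny Φ T f κ1 c J0 J V θ φ) (hac : a ≠ c)
    (hne : (a.1.set ∩ c.1.set).Nonempty) (ht0 : 0 < t) (ht1 : t < 1) :
    IsPreconnected {x | x ∈ frontier (Mbf_337.KJ T J) ∧ t ≤ Mbf_337.sb Φ (θ x) a} ∧
      IsCompact {x | x ∈ frontier (Mbf_337.KJ T J) ∧ t ≤ Mbf_337.sb Φ (θ x) a} ∧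
      {x | x ∈ frontier (Mbf_337.KJ T J) ∧ t ≤ Mbf_337.sb Φ (θ x) a}.Nonempty := by
  obtain ⟨u, hu⟩ := hT.bij
  have h := pre_plEquiv u (fun q hq => hq.1) (frontier_ge Φ hLa hac hne ht0 ht1)
  have h1 : {x | x ∈ frontier (Mbf_337.KJ T J) ∧ u.f x ∈ {q | q ∈ frontier c.1.set ∧
      t ≤ sc (Pc Φ.F) (bc (F := Φ.F)) q a}} =
      {x | x ∈ frontier (Mbf_337.KJ T J) ∧ t ≤ Mbf_337.sb Φ (θ x) a} := by
    ext x
    constructor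
    · rintro ⟨h2, h3⟩
      rw [hu x h2] at h3
      exact ⟨h2, h3.2⟩
    · rintro ⟨h2, h3⟩
      refine ⟨h2, u.mf h2, ?_⟩
      rw [hu x h2]; exact h3
  rwa [h1] at h

/-- **the ring on the frontier of the tiny core** -/
theorem core_ring (hLa : IsOpen La) (hT : Mbf_337.Tiny Φ T f κ1 c J0 J V θ φ) (hac : a ≠ c)
    (hne : (a.1.set ∩ c.1.set).Nonempty) (ht0 : 0 < t) (ht1 : t < 1) :
    IsPreconnected {x | x ∈ frontier (Mbf_337.KJ T J) ∧ Mbf_337.sb Φ (θ x) a = t} ∧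
      IsCompact {x | x ∈ frontier (Mbf_337.KJ T J) ∧ Mbf_337.sb Φ (θ x) a = t} ∧
      {x | x ∈ frontier (Mbf_337.KJ T J) ∧ Mbf_337.sb Φ (θ x) a = t}.Nonempty := by
  have F := Brk3_582.foam Φ.bf hLa
  obtain ⟨u, hu⟩ := hT.bij
  have h3 := isPreconnected_ring Φ.bf hLa (c := c) (a := a) (t := t) (by simp) hac
    (by rw [inter_comm]; exact hne) ht0 ht1
  have h4 := isCompact_ring F (c := c) (a := a) (t := t)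
  rw [ring_eq_frontier F] at h3 h4
  have h := pre_plEquiv u (fun q hq => hq.1) ⟨h3.1, h4, h3.2⟩
  have h1 : {x | x ∈ frontier (Mbf_337.KJ T J) ∧ u.f x ∈ {q | q ∈ frontier (Pc Φ.F c) ∧
      sc (Pc Φ.F) (bc (F := Φ.F)) q a = t}} =
      {x | x ∈ frontier (Mbf_337.KJ T J) ∧ Mbf_337.sb Φ (θ x) a = t} := by
    ext x
    constructor
    · rintro ⟨h2, h3⟩
      rw [hu x h2] at h3
      exact ⟨h2, h3.2⟩
    · rintro ⟨h2, h3⟩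
      refine ⟨h2, u.mf h2, ?_⟩
      rw [hu x h2]; exact h3
  rwa [h1] at h

end Crest.Agent.R096.Etg_163
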