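import Crest.Agent.R096.Etg8_163
import Crest.Agent.R096.Etg7_163
import Crest.Agent.R096.Ess5_95

/-! Row 96 (helper163), DOORS-ESS-TARGET, part 9: helper95's structure `GA` (straight gauge of a tiny
brick) -/

set_option autoImplicit false
set_option linter.unusedSectionVars false
set_option linter.style.haveILetI false

open Set Topology Filter

namespace Crest.Agent.R096.Etg_163

open Crest.Agent.R096.Coh_184 Crest.Agent.R096.Brk1_582 Crest.Agent.R096.Brk2_582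
open Crest.Agent.R096.Bsp_628 Crest.Agent.R096.Brk3_582
open Crest.Agent.R096.Vb_965 (Push preconn_of_fibres isCompact_Lset isPreconnected_Lset
  frontier_cell glue_cont muD pushD cell_nonempty)
open Crest.Agent.R96.Push_899 Crest.Agent.R096.SkC1_961 Crest.Agent.R096.Sphg_316

section str

variable {E : Type*} [NormedAddCommGroup E] [NormedSpace ℝ E] [CompleteSpace E] {I : Type*}
variable {La : Set E} {P : I → Set E} {b : Set I → E} {N : ℕ} {Ψ : E → E} {μ : E → ℝ}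
variable {c : I} {z : E} {r : ℝ} (F : Foam La P b N) (hp : Push La P Ψ μ) (S : Str P Ψ μ c z r)
include F hp S

/-- **the shell over any connected part of the wall** (no compactness) -/
theorem preconn_shell_any {A : Set E} (hA : A ⊆ {q | q ∈ P c ∧ ∃ d, d ≠ c ∧ q ∈ P d})
    (hAp : IsPreconnected A) {ρ ρ' : ℝ} (h0 : 0 < ρ) (hρ' : ρ' ≤ r) :
    IsPreconnected {y | y ∈ P c ∧ ρ ≤ Ng z (P c) y ∧ Ng z (P c) y ≤ ρ' ∧ Ψ y ∈ A} := by
  set f : E × ℝ → E := fun p => z + (p.2 / r) • (rp P Ψ c z r p.1 - z) with hf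
  have hc : ContinuousOn f (A ×ˢ Icc ρ ρ') := by
    have h1 : ContinuousOn (fun p : E × ℝ => rp P Ψ c z r p.1) (A ×ˢ Icc ρ ρ') :=
      (continuousOn_rp F hp S).comp continuousOn_fst fun p hp' => hA hp'.1
    have h2 : ContinuousOn (fun p : E × ℝ => p.2 / r) (A ×ˢ Icc ρ ρ') :=
      continuousOn_snd.div_const r
    exact continuousOn_const.add (h2.smul (h1.sub continuousOn_const))
  have himg : f '' (A ×ˢ Icc ρ ρ') =
      {y | y ∈ P c ∧ ρ ≤ Ng z (P c) y ∧ Ng z (P c) y ≤ ρ' ∧ Ψ y ∈ A} := by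
    ext y
    constructor
    · rintro ⟨⟨q, s⟩, ⟨hq, hs⟩, rfl⟩
      obtain ⟨h1, d, hd, h2⟩ := hA hq
      obtain ⟨h3, h4⟩ := rp_spec F hp S hd h1 h2
      have hs0 : 0 < s / r := div_pos (h0.trans_le hs.1) S.r0
      have hs1 : s / r ≤ 1 := (div_le_one S.r0).2 (hs.2.trans hρ')
      obtain ⟨a1, a2, a3, a4⟩ := ray_pt F hp S h3 hs0 hs1
      rw [div_mul_cancel₀ _ S.r0.ne'] at a1
      refine ⟨a3, ?_, ?_, ?_⟩
      · show ρ ≤ Ng z (P c) (z + (s / r) • (rp P Ψ c z r q - z))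
        rw [a1]; exact hs.1
      · show Ng z (P c) (z + (s / r) • (rp P Ψ c z r q - z)) ≤ ρ'
        rw [a1]; exact hs.2
      · show Ψ (z + (s / r) • (rp P Ψ c z r q - z)) ∈ A
        rw [a2, h4]; exact hq
    · rintro ⟨hy, h1, h2, h3⟩
      obtain ⟨h4, d, hd, h5⟩ := hA h3
      obtain ⟨h6, h7⟩ := rp_spec F hp S hd h4 h5
      have hyz : y ≠ z := S.bod.pos.1 (h0.trans_le h1)
      refine ⟨(Ψ y, Ng z (P c) y), ⟨h3, h1, h2⟩, ?_⟩
      exact (eq_pt F hp S h6 hyz (h2.trans hρ') h7.symm).symm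
  rw [← himg]
  exact (hAp.prod isPreconnected_Icc).image _ hc

end str

variable {δ κ0 R c0 : ℝ} {La : Set E3} (Φ : FoamD δ κ0 R c0 La) {c : Φ.F} {r : ℝ}

/-- **helper95's `GA`** -/
theorem ga_gau (hLa : IsOpen La) (hpt : (Φ.B c).lo = (Φ.B c).hi) (hr0 : 0 < r) (hr1 : r < 1)
    (hray : Mbf_337.RayTo Φ c r) : Ess5_95.GA Φ c r := by
  have F := Brk3_582.foam Φ.bf hLa
  have hp := pushD Φ hLa
  have S := str_of Φ hLa hpt hr0 hr1 hray
  have hb : Bod (Φ.B c).lo c.1.set := S.bod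
  have h3 : Module.finrank ℝ E3 = 3 := by simp [E3]
  have hga : ∀ y, Ess5_95.ga Φ c y = Ng (Φ.B c).lo c.1.set y := fun y => gg_eq Φ c y
  have hfr : frontier c.1.set = {q | q ∈ Pc Φ.F c ∧ ∃ d, d ≠ c ∧ q ∈ Pc Φ.F d} :=
    frontier_eq F c
  refine ⟨?_, ?_, ?_, ?_, ?_, ?_, ?_, ?_, ?_, ?_⟩
  · rw [hga, Ng_self]
  · intro y
    rw [hga]; exact hb.le_one_iff
  · intro y hy
    rw [hga] at hy
    exact Vb_965.interior_box.1 (hb.lt_one_iff.1 hy)
  · intro s _ _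
    simp only [hga]
    exact hb.isCompact_le s
  · intro s _ _
    simp only [hga]
    exact hb.convex_le s
  · intro s _ _
    simp only [hga]
    exact (hb.convex_lt s).isPreconnected
  · intro s hs _
    simp only [hga]
    have h1 : IsPreconnected {y | Ng (Φ.B c).lo c.1.set y = 1} := by
      rw [hb.eq_one, hfr, ← Lset_zero F]
      exact isPreconnected_Lset F h3 (cell_nonempty Φ c) le_rfl one_pos
    have h2 : {y | Ng (Φ.B c).lo c.1.set y = s} =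
        (fun w => (Φ.B c).lo + s • (w - (Φ.B c).lo)) '' {y | Ng (Φ.B c).lo c.1.set y = 1} := by
      ext y
      constructor
      · intro hy
        have hy' : Ng (Φ.B c).lo c.1.set y = s := hy
        refine ⟨(Φ.B c).lo + s⁻¹ • (y - (Φ.B c).lo), ?_, ?_⟩
        · show Ng _ _ _ = 1
          rw [Ng_ray _ _ (inv_nonneg.2 hs.le), hy', inv_mul_cancel₀ hs.ne']
        · show (Φ.B c).lo + s • ((Φ.B c).lo + s⁻¹ • (y - (Φ.B c).lo) - (Φ.B c).lo) = y
          rw [ray_ray, mul_inv_cancel₀ hs.ne', Sphg_316.ray_one]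
      · rintro ⟨w, hw, rfl⟩
        have hw' : Ng (Φ.B c).lo c.1.set w = 1 := hw
        show Ng _ _ ((Φ.B c).lo + s • (w - (Φ.B c).lo)) = s
        rw [Ng_ray _ _ hs.le, hw', mul_one]
    rw [h2]
    exact h1.image _ (by fun_prop)
  · intro s hs y hy hlt
    rw [hga] at hlt
    have hy1 : Ng (Φ.B c).lo c.1.set y ≤ 1 := hb.le_one_iff.2 hy
    have hy0 : 0 < Ng (Φ.B c).lo c.1.set y := hs.trans hlt
    have hcont : Continuous fun u : ℝ => (Φ.B c).lo + u • (y - (Φ.B c).lo) := by fun_prop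
    have hle : (1 : ℝ) ≤ (Ng (Φ.B c).lo c.1.set y)⁻¹ := (one_le_inv₀ hy0).2 hy1
    refine ⟨(fun u : ℝ => (Φ.B c).lo + u • (y - (Φ.B c).lo)) ''
      Icc 1 (Ng (Φ.B c).lo c.1.set y)⁻¹, isPreconnected_Icc.image _ hcont.continuousOn, ?_, ?_,
      ?_⟩
    · rintro _ ⟨u, hu, rfl⟩
      have hu0 : 0 ≤ u := zero_le_one.trans hu.1
      have h1 : Ng (Φ.B c).lo c.1.set ((Φ.B c).lo + u • (y - (Φ.B c).lo)) =
          u * Ng (Φ.B c).lo c.1.set y := Ng_ray _ _ hu0 _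
      refine ⟨hb.le_one_iff.1 ?_, ?_⟩
      · rw [h1]
        calc u * Ng (Φ.B c).lo c.1.set y ≤ (Ng (Φ.B c).lo c.1.set y)⁻¹ *
            Ng (Φ.B c).lo c.1.set y := mul_le_mul_of_nonneg_right hu.2 hy0.le
          _ = 1 := inv_mul_cancel₀ hy0.ne'
      · rw [hga, h1]
        nlinarith [hu.1]
    · exact ⟨1, ⟨le_rfl, hle⟩, Sphg_316.ray_one y⟩
    · refine ⟨(Φ.B c).lo + (Ng (Φ.B c).lo c.1.set y)⁻¹ • (y - (Φ.B c).lo),
        ⟨_, ⟨hle, le_rfl⟩, rfl⟩, ?_⟩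
      rw [← hb.eq_one_iff, Ng_ray _ _ (inv_nonneg.2 hy0.le), inv_mul_cancel₀ hy0.ne']
  · intro q hq s hs hsr
    rw [hfr] at hq
    obtain ⟨h1, d, hd, h2⟩ := hq
    obtain ⟨w, hw1, hw2⟩ := exists_ring F hp (S.mono hs hsr) hd h1 h2
    refine ⟨w, mem_of_Ng F hp (S.mono hs hsr) hw1.le, ?_, hw2⟩
    rw [hga]; exact hw1
  · intro A hA hAp s s' hs _ hs'
    rw [hfr] at hA
    simp only [hga]
    exact preconn_shell_any F hp S hA hAp hs hs'

end Crest.Agent.R096.Etg_163
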