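import Crest.Agent.R096.Dia1_316
import Crest.Agent.R096.Dfi1_539
import Crest.Agent.R096.Etg9_163

/-!
# Row 96, DOORS_final (helper316), part 2: **`DIn` for the truthful state and the tiny cores**

* `dIn_st0`    : 539's `DIn` from 95's `EG`, roots outside the patches `V c`.
* `exists_eg`  : 95's `EG` for all tiny cores and all their neighbours (from `exists_EG`, 163's
  `ga_gau`, `outer_rf`).
* `exists_dIn` : both together: the input of `exists_towers` from the machine data, labels and roots.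
-/

set_option autoImplicit false
set_option linter.unusedSectionVars false
set_option linter.style.longLine false

open Set Topology Filter Metric Module
open scoped Classical

namespace Crest.Agent.R096.Dia_316

open Crest.Agent.R096.Msh_715 Crest.Agent.R096.Coh_184 Crest.Agent.R096.Bsp_628
  Crest.Agent.R096.Brk1_582 Crest.Agent.R096.Brk2_582 Crest.Agent.R096.Brk3_582
  Crest.Agent.R096.Brk5_582 Crest.Agent.R096.Init_543 Crest.Agent.R096.Mbf_337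
  Crest.Agent.R96.Push_899 Crest.Agent.R096.Ess4_95 Crest.Agent.R096.Ess7_95
  Crest.Agent.R096.Lab_184 Crest.Agent.R096.Main_4 Crest.Agent.R096.Exa_560
  Crest.Agent.R096.Agl4_543 Crest.Agent.R096.Agl5_543 Crest.Agent.R096.Agl6_543
  Crest.Agent.R096.Seq_213 Crest.Agent.R096.St_147 Crest.Agent.R096.Door_501
  Crest.Agent.R096.Twr_438

open Crest.Agent.R096.SkC1_961 (E3 Hom3 IsPush FoamD)
open Crest.Agent.R096.Ess3_95 (Car car_gmain outK trc mem_trc)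
open Crest.Agent.R096.Ess5_95 (Rm GA ga exists_rm)
open Crest.Agent.R096.Dfi_539 (DIn)

variable {δ κ0 R c0 : ℝ} {La Om : Set E3} {ι : Type} {Φ : FoamD δ κ0 R c0 La} {T : Tiling Om ι}
  {f g : E3 → E3} {κ1 κ2 μ : ℝ} {X : Set Φ.F} {J0 J V : Φ.F → Set ι}
  {ct ct' : Φ.F → ι} {A : Φ.F → E3 ≃ᵃ[ℝ] E3} {lam : Φ.F → ℝ} {z : Φ.F → E3}
  {θ : Φ.F → E3 → E3} {φ : Φ.F → E3 → ℝ} {r₀ : Φ.F → ℝ}
  {L : Φ.F → Finset ℝ} [Nonempty (JJ Φ L)] {hG : GF Φ r₀ T f L} {bp : JJ Φ L → E3}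

/-- a point of a tile not in `V c` is not in the interior of the core -/
theorem pt_notInt (hC : Cores Φ T f κ1 κ2 X J0 J V ct A lam z θ φ) (c : {c : Φ.F // c ∉ X}) {q : ι}
    (hq : q ∉ V c.1) {x : E3} (hx : x ∈ P (T.H q)) : x ∉ interior (KT T J X c) := by
  intro hi
  have h1 : x ∈ closure (I (T.H q)) := P_sub_closure_I (T.ne q) hx
  obtain ⟨y, hy1, hy2⟩ := mem_closure_iff.1 h1 _ isOpen_interior hi
  obtain ⟨q', hq', hyq'⟩ := mem_iUnion₂.1 (interior_subset hy1)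
  by_cases h2 : q' = q
  · exact hq ((hC.tiny c.1 c.2).sub (h2 ▸ hq'))
  · exact not_mem_I h2 hyq' hy2

variable {hH : ∀ c, CoreH T (KT T J X c)}

/-- the family `a` passes through the tiny core `c` -/
abbrev nbT (Φ : FoamD δ κ0 R c0 La) (X : Set Φ.F) (c : {c : Φ.F // c ∉ X}) (a : Φ.F) : Prop :=
  a ≠ c.1 ∧ (Pc Φ.F c.1 ∩ Pc Φ.F a).Nonempty

/-- **`DIn` for the truthful state**, `EG` as hypothesis -/
theorem dIn_st0 (hLa : IsOpen La) (hδ : 0 < δ) (hR : 0 < R) (hκ0 : 0 < κ1)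
    (hκ : 8 * ((Cn δ R + 1) * κ1) ≤ μ) (hμ1 : μ ≤ 1 / 2)
    (hC : Cores Φ T f κ1 κ2 X J0 J V ct A lam z θ φ) (hI : InitR Φ T f g J0 ct' r₀)
    (hm : ∀ c, ∀ t ∈ L c, μ ≤ t ∧ t ≤ 1 - μ)
    (hb : ∀ j : JJ Φ L, bp j ∈ Om ∧ T.dim (bp j) = 1 ∧ Φ.lev j.1 (f (bp j)) = j.2.1)
    {r : JJ Φ L → E3} (hr : ∀ j, r j ∈ (st0 hG bp).P ∧ (st0 hG bp).lab (r j) = j)
    (hrq : ∀ j, ∃ q, r j ∈ P (T.H q) ∧ ∀ c ∉ X, q ∉ V c)
    {v0 v1 : ∀ c, Φ.F → VxK T (KT T J X) c}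
    (hv0 : ∀ (c : {c : Φ.F // c ∉ X}) a, a ∈ nbr Φ c.1 →
      sb Φ (θ c.1 (v0 c a).1) a ≤ (2 * Cn δ R + 1) * κ1)
    (hv1 : ∀ (c : {c : Φ.F // c ∉ X}) a, a ∈ nbr Φ c.1 →
      1 - (2 * Cn δ R + 1) * κ1 ≤ sb Φ (θ c.1 (v1 c a).1) a)
    (eg : ∀ (c : {c : Φ.F // c ∉ X}) (j : JJ Φ L), j.1 ∈ nbr Φ c.1 → Nonempty
      (EG (st0 hG bp) j (Sh Om Φ r₀ f j) (KT T J X) c (v0 c j.1) (v1 c j.1) (r j))) :
    DIn hH (st0 hG bp) r (fun j => Sh Om Φ r₀ f j) (nbT Φ X) v0 v1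
      (fun c a x => sb Φ (θ c.1 x) a) (fun _ _ => 1 - μ + Cn δ R * κ1) (fun _ _ => 1 - μ / 2) := by
  obtain ⟨e1, e2, e3⟩ := cn_small hδ hR hκ0 hκ (by linarith)
  have e4 : 0 ≤ Cn δ R * κ1 := mul_nonneg (Cn_nonneg hδ hR) hκ0.le
  have e5 : Cn δ R * κ1 < μ / 2 := by
    have : (2 * Cn δ R + 1) * κ1 = 2 * (Cn δ R * κ1) + κ1 := by ring
    linarith
  have ht : ∀ j : JJ Φ L, 0 < (j.2.1 : ℝ) ∧ (j.2.1 : ℝ) < 1 := fun j => by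
    obtain ⟨g1, g2⟩ := hm _ _ j.2.2
    exact ⟨by linarith, by linarith⟩
  exact
  { h1 := fun j => st0_H1 hLa hI j (ht j).1 (ht j).2
    conn := fun j => st0_conn hLa hI hb j
    root := hr
    out := fun j c => by
      obtain ⟨q, h1, h2⟩ := hrq j
      exact pt_notInt hC c (h2 c.1 c.2) h1
    dim1 := fun w hw => ⟨(st0_mem hLa hI hw).1, (st0_mem hLa hI hw).2.1⟩
    car := fun j => st0_car hLa hI hb j (ht j).1 (ht j).2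
    sub := fun j x hx => hx.1
    finJ := fun a => jj_fin hG a
    nb_c := fun c => nbr_fin hLa c.1
    nb_a := fun a => nbr_fin' hLa (κ := {c : Φ.F // c ∉ X}) Subtype.val_injective a
    far := fun c w hw hwf => (st0_pt hLa hδ hR e1 e2 hC hI hm c hw hwf).1
    eg := eg
    low := fun c w hw hwf => (st0_pt hLa hδ hR e1 e2 hC hI hm c hw hwf).2.1
    v0_lt := fun c a ha => (hv0 c a ha).trans (by linarith)
    v1_gt := fun c a ha => le_trans (by linarith) (hv1 c a ha)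
    lev := fun c lvl hlvl Q hQ => exists_exact hLa (hC.tiny c.1 c.2) (fun j : JJ Φ L => j.1) lvl
      (fun a => jj_fin hG a) hlvl (by linarith) (by linarith) (by linarith) hQ }

/-- the constants of `room`, for all tiny cores -/
theorem exists_rms (hC : Cores Φ T f κ1 κ2 X J0 J V ct A lam z θ φ) :
    ∃ ρ1 ρ2 ρ3 ρ4 d : Φ.F → ℝ, ∀ c ∉ X, d c ≤ κ1 ∧
      Rm Φ T f c (J0 c) (J c) (V c) (θ c) (ρ1 c) (ρ2 c) (ρ3 c) (ρ4 c) (d c) := by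
  have h : ∀ c : Φ.F, ∃ ρ1 ρ2 ρ3 ρ4 d : ℝ, c ∉ X → d ≤ κ1 ∧
      Rm Φ T f c (J0 c) (J c) (V c) (θ c) ρ1 ρ2 ρ3 ρ4 d := by
    intro c
    by_cases hc : c ∈ X
    · exact ⟨0, 0, 0, 0, 0, fun h => absurd hc h⟩
    · obtain ⟨ρ1, ρ2, ρ3, ρ4, d, h1, h2⟩ := exists_rm (hC.tiny c hc)
      exact ⟨ρ1, ρ2, ρ3, ρ4, d, fun _ => ⟨h1, h2⟩⟩
  choose ρ1 ρ2 ρ3 ρ4 d h using h
  exact ⟨ρ1, ρ2, ρ3, ρ4, d, h⟩

/-- **`EG` for all tiny cores and all neighbours** -/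
theorem exists_eg (hLa : IsOpen La) (hδ : 0 < δ) (hR : 0 < R) (hκ0 : 0 < κ1)
    (hκ : 8 * ((Cn δ R + 1) * κ1) ≤ μ) (hμ1 : μ ≤ 1)
    (hC : Cores Φ T f κ1 κ2 X J0 J V ct A lam z θ φ) (hI : InitR Φ T f g J0 ct' r₀)
    (hm : ∀ c, ∀ t ∈ L c, μ ≤ t ∧ t ≤ 1 - μ)
    {r : JJ Φ L → E3} (hr : ∀ j, r j ∈ (st0 hG bp).P ∧ (st0 hG bp).lab (r j) = j)
    (hrq : ∀ j, ∃ q, r j ∈ P (T.H q) ∧ ∀ c ∉ X, q ∉ V c)
    {lm : JJ Φ L → E3 → ZMod 2} (hlam : ∀ j, IsLab T (gPts (st0 hG bp) j) (lm j))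
    (hlo : ∀ j : JJ Φ L, ∀ q ∉ KorJ Φ J0, ∀ v ∈ P (T.H q), T.dim v = 0 →
      Φ.lev j.1 (f v) ≤ j.2.1 - 2 * κ1 → lm j v = 1)
    (hhi : ∀ j : JJ Φ L, ∀ q ∉ KorJ Φ J0, ∀ v ∈ P (T.H q), T.dim v = 0 →
      j.2.1 + 2 * κ1 ≤ Φ.lev j.1 (f v) → lm j v = 0)
    {v0 v1 : ∀ c, Φ.F → VxK T (KT T J X) c}
    (hv0 : ∀ (c : {c : Φ.F // c ∉ X}) a, a ∈ nbr Φ c.1 →
      sb Φ (θ c.1 (v0 c a).1) a ≤ (2 * Cn δ R + 1) * κ1)
    (hv1 : ∀ (c : {c : Φ.F // c ∉ X}) a, a ∈ nbr Φ c.1 →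
      1 - (2 * Cn δ R + 1) * κ1 ≤ sb Φ (θ c.1 (v1 c a).1) a) :
    ∀ (c : {c : Φ.F // c ∉ X}) (j : JJ Φ L), j.1 ∈ nbr Φ c.1 → Nonempty
      (EG (st0 hG bp) j (Sh Om Φ r₀ f j) (KT T J X) c (v0 c j.1) (v1 c j.1) (r j)) := by
  obtain ⟨e1, e2, e3⟩ := cn_small hδ hR hκ0 hκ hμ1
  have e4 : 0 ≤ Cn δ R * κ1 := mul_nonneg (Cn_nonneg hδ hR) hκ0.le
  have hμ0 : 0 < μ := by linarith
  obtain ⟨ρ1, ρ2, ρ3, ρ4, d, hrm⟩ := exists_rms hC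
  have hρ4 : ∀ c ∉ X, 0 < ρ4 c := fun c hc => by
    have h := (hrm c hc).2
    linarith [h.d0, h.r1, h.r12, h.r23, h.r34]
  intro c j hj
  refine exists_EG hLa hδ hR hC hI (fun c hc => (hrm c hc).2) (fun c hc => (hrm c hc).1)
    (fun c hc => Etg_163.ga_gau Φ hLa (hC.tiny c hc).pt (hρ4 c hc) (hrm c hc).2.r4
      (hrm c hc).2.ray) (fun c hc a t ρ ht0 ht1 hρ0 hρ hcap => ?_) hG hμ0 hκ0 hκ hμ1 j
    (hm _ _ j.2.2) c hj.1 hj.2 ((hv0 c j.1 hj).trans e3)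
    (le_trans (by linarith) (hv1 c j.1 hj)) ?_ (hrq j) (hlam j) (hlo j) (hhi j)
  · exact (Etg_163.outer_rf Φ hLa hI.pos hI.le_one (hC.tiny c hc).pt (hrm c hc).2.r4
      (hrm c hc).2.ray hρ0 hρ hcap a ht0 ht1).1
  · have h1 := st0_sh (hr j).1
    rw [(hr j).2] at h1
    exact h1

/-- **the input of the towers for the machine**: from the data of `Mbf_337`, INIT, labels and
roots -/
theorem exists_dIn (hLa : IsOpen La) (hδ : 0 < δ) (hR : 0 < R) (hκ0 : 0 < κ1)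
    (hκ : 8 * ((Cn δ R + 1) * κ1) ≤ μ) (hμ1 : μ ≤ 1 / 2)
    (hC : Cores Φ T f κ1 κ2 X J0 J V ct A lam z θ φ) (hI : InitR Φ T f g J0 ct' r₀)
    (hm : ∀ c, ∀ t ∈ L c, μ ≤ t ∧ t ≤ 1 - μ)
    (hb : ∀ j : JJ Φ L, bp j ∈ Om ∧ T.dim (bp j) = 1 ∧ Φ.lev j.1 (f (bp j)) = j.2.1)
    {r : JJ Φ L → E3} (hr : ∀ j, r j ∈ (st0 hG bp).P ∧ (st0 hG bp).lab (r j) = j)
    (hrq : ∀ j, ∃ q, r j ∈ P (T.H q) ∧ ∀ c ∉ X, q ∉ V c)
    {lm : JJ Φ L → E3 → ZMod 2} (hlam : ∀ j, IsLab T (gPts (st0 hG bp) j) (lm j))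
    (hlo : ∀ j : JJ Φ L, ∀ q ∉ KorJ Φ J0, ∀ v ∈ P (T.H q), T.dim v = 0 →
      Φ.lev j.1 (f v) ≤ j.2.1 - 2 * κ1 → lm j v = 1)
    (hhi : ∀ j : JJ Φ L, ∀ q ∉ KorJ Φ J0, ∀ v ∈ P (T.H q), T.dim v = 0 →
      j.2.1 + 2 * κ1 ≤ Φ.lev j.1 (f v) → lm j v = 0) :
    ∃ v0 v1 : ∀ c, Φ.F → VxK T (KT T J X) c,
      (∀ (c : {c : Φ.F // c ∉ X}) a, nbT Φ X c a →
        sb Φ (θ c.1 (v0 c a).1) a ≤ (2 * Cn δ R + 1) * κ1) ∧
      (∀ (c : {c : Φ.F // c ∉ X}) a, nbT Φ X c a →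
        1 - (2 * Cn δ R + 1) * κ1 ≤ sb Φ (θ c.1 (v1 c a).1) a) ∧
      DIn hH (st0 hG bp) r (fun j => Sh Om Φ r₀ f j) (nbT Φ X) v0 v1
        (fun c a x => sb Φ (θ c.1 x) a) (fun _ _ => 1 - μ + Cn δ R * κ1)
        (fun _ _ => 1 - μ / 2) := by
  obtain ⟨e1, e2, e3⟩ := cn_small hδ hR hκ0 hκ (by linarith)
  obtain ⟨v0, v1, h0, h1⟩ := exists_vx (κ := {c : Φ.F // c ∉ X}) (cf := Subtype.val)
    (J := fun c => J c.1) (θ := fun c => θ c.1) hLa hδ hR e1 (fun c => hC.tiny c.1 c.2)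
  exact ⟨v0, v1, h0, h1, dIn_st0 hLa hδ hR hκ0 hκ hμ1 hC hI hm hb hr hrq h0 h1
    (exists_eg hLa hδ hR hκ0 hκ (by linarith) hC hI hm hr hrq hlam hlo hhi h0 h1)⟩

/-- `CoreH` of the tiny cores -/
theorem coreH_KT (hC : Cores Φ T f κ1 κ2 X J0 J V ct A lam z θ φ) (c : {c : Φ.F // c ∉ X}) :
    CoreH T (KT T J X c) := coreH_tiny (hC.tiny c.1 c.2)

/-- the tiny cores are disjoint -/
theorem dis_KT (hLa : IsOpen La) (hC : Cores Φ T f κ1 κ2 X J0 J V ct A lam z θ φ)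
    (c c' : {c : Φ.F // c ∉ X}) (h : c ≠ c') : Disjoint (KT T J X c) (KT T J X c') :=
  tiny_disj hLa (hC.tiny c.1 c.2) (hC.tiny c'.1 c'.2) (fun e => h (Subtype.ext e))

end Crest.Agent.R096.Dia_316
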