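import Crest.Agent.R096.Pbn1_147

/-!
# R096 (row 96), DOORS (helper147): `cutG`, CUT with the clauses of 778 (double points on a set of
faces, new points next to a set of barrier points)
-/

set_option autoImplicit false

namespace Crest.Agent.R096.Pbn_147

open Crest.Agent.R096.St_147 Crest.Agent.R096.Wk_689 Crest.Agent.R096.F_422
open Crest.Agent.R096.Sec_892 Crest.Agent.R096.SecW_892

variable {ι Φ W I : Type} {M : MeshC ι Φ W} {col : I → Bool} {s : St M col}
variable {Act : Set ι} {far : I → Set W}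

/-- the double points of the sheet `i` on the faces of `R` are joined with `b` by `K`-chords -/
def TrD (s : St M col) (i : I) (K : Φ → W → Prop) (b : W) (R : Set Φ) : Prop :=
  ∀ X : Set W, b ∈ X → KCl s i K X → ∀ z : s.Dbl, z.F ∈ R → s.lab (z.e true) = i → z.e true ∈ X

/-- and the points of `i` which are not in `P₀` and lie only next to barrier points of `S` -/
def TrQ (s : St M col) (i : I) (K : Φ → W → Prop) (b : W) (R : Set Φ) (S : Set W)
    (P₀ Ph₀ : Finset W) : Prop :=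
  TrD s i K b R ∧ ∀ X : Set W, b ∈ X → KCl s i K X → ∀ w ∈ s.P, w ∉ P₀ → s.lab w = i →
    (∀ h, HP s h → Nb M Ph₀ h w → h ∈ S) → w ∈ X

/-- the barrier points of `S` are joined, by barrier chords on the faces of `R`, with points which
are not enclosed -/
def ConnT (Act : Set ι) (far : I → Set W) (s : St M col) (R : Set Φ) (S : Set W) : Prop :=
  ∀ h ∈ S, HP s h → ∀ Y : Set W, h ∈ Y →
    (∀ F ∈ R, ∀ y ∈ Y, s.At F y → s.lab y = s.lab h → s.mu F y ∈ Y) →
    ∃ y ∈ Y, HP s y ∧ s.lab y = s.lab h ∧ ¬ Encl Act far s y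

/-- **the clause of 778 from `PBN`** -/
theorem trQ_of_pbn {Ph : Finset W} {s' s : St M col} (hc : CLe Act far Ph s' s)
    (hN : PBN Act far Ph s' s) (hg : s.Good Act far) (hg' : s'.Good Act far) {i : I}
    (hi : col i = true) {K : Φ → W → Prop} (hK : KBar s K) {b : W} (hb : b ∈ far i) {R : Set Φ}
    {S : Set W} (hR : ConnT Act far s R S) (hD : TrD s i K b R) :
    TrQ s' i K b R S s.P Ph := by
  constructor
  · intro X' hbX' hX' z' hzR hzl
    obtain ⟨X, hX, hcom, hd, -⟩ := hN i hi K hK X' hX'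
    have hbX : b ∈ X := (hcom b (hg.far_mem hb).1 (hg.far_mem hb).2 (hg'.far_mem hb).1
      (hg'.far_mem hb).2).2 hbX'
    obtain ⟨z, e1, e2, e3, e4⟩ := hd z' hzl
    exact e4.1 (hD X hbX hX z (by rw [e1]; exact hzR) e3)
  · intro X' hbX' hX' w hw hws hwl hall
    by_contra hwX
    obtain ⟨X, hX, hcom, hd, hn⟩ := hN i hi K hK X' hX'
    have hbX : b ∈ X := (hcom b (hg.far_mem hb).1 (hg.far_mem hb).2 (hg'.far_mem hb).1
      (hg'.far_mem hb).2).2 hbX'
    obtain ⟨h, hh, hnb, B, h1, h2, h3, h4⟩ := hn w hw hws hwl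
    obtain ⟨y, hyB, hy, hyl, hne⟩ := hR h (hall h ((hc.hp h).2 hh) hnb) hh B h1 (by
      intro F hF y hyB hA _
      exact h3 F y hyB hA fun z hzF _ hzl hiff =>
        hwX (hiff.1 (hD X hbX hX z (by rw [hzF]; exact hF) hzl)))
    apply hne
    refine ⟨B, hyB, fun x hx => ⟨(h2 x hx).1, (h2 x hx).2.trans hyl.symm⟩, ?_, ?_⟩
    · intro F x hx hA hf
      exact h3 F x hx hA fun z hzF hze _ _ => hf z hzF false hze
    · intro x hx
      rw [hyl]
      exact h4 x hx

/-- **CUT with 778's clause** (`cutG`) -/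
theorem cutG (up : Φ → W → Bool) (s : St M col) (hg : s.Good Act far) (h2 : Two s up)
    (hroom : Room s up) (Ph : Finset W) (hP : s.P ⊆ Ph) :
    ∃ s' : St M col, s'.Good Act far ∧ CL2 Act far Ph s' s ∧ Enc Act far Ph s' s ∧
      PBN Act far Ph s' s ∧
      (∀ i, col i = true → ∀ K : Φ → W → Prop, KBar s K → ∀ b ∈ far i, ∀ (R : Set Φ) (S : Set W),
        ConnT Act far s R S → TrD s i K b R → TrQ s' i K b R S s.P Ph) ∧
      ∀ (A : s'.Arcs Act) (G : Set s'.Dbl), A.Closed G → G = ∅ := by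
  obtain ⟨s', h1, h2, h3, h4, h5⟩ := cutN up s hg h2 hroom Ph hP
  exact ⟨s', h1, h2, h3, h4, fun i hi K hK b hb R S hR hD =>
    trQ_of_pbn h2.cle h4 hg h1 hi hK hb hR hD, h5⟩

end Crest.Agent.R096.Pbn_147
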