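import Crest.Agent.R096.Sec3_892

/-!
# Row 96, DOORS (helper501), CUT for all families at once, part 1: gathering

* `Piece M fam a` : a finite pattern of the sheets of one family `a`;
* `gather`        : pieces for all families with disjoint sets of points form a state;
* `pr`            : restriction of a state with barriers (names `J ⊕ Mo`) to the sheets of `a`
  (colour `true`) and the barriers of `a` (colour `false`).
-/

set_option autoImplicit false

namespace Crest.Agent.R096.Cg_501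

open Crest.Agent.R096.St_147 Crest.Agent.R096.Seq_213 Crest.Agent.R096.Sec_892

variable {ι Φ W J C Mo : Type} {M : MeshC ι Φ W} {fam : J → C}

/-- a finite pattern of sheets of the family `a` -/
structure Piece (M : MeshC ι Φ W) (fam : J → C) (a : C) where
  P : Set W
  fin : P.Finite
  lab : W → J
  mu : Φ → W → W
  fa : ∀ {w}, w ∈ P → fam (lab w) = a
  mu_mem : ∀ {F : Φ} {w : W}, w ∈ P → w ∈ M.On F → mu F w ∈ P ∧ mu F w ∈ M.On F
  mu_ne : ∀ {F : Φ} {w : W}, w ∈ P → w ∈ M.On F → mu F w ≠ w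
  mu_mu : ∀ {F : Φ} {w : W}, w ∈ P → w ∈ M.On F → mu F (mu F w) = w
  mu_lab : ∀ {F : Φ} {w : W}, w ∈ P → w ∈ M.On F → lab (mu F w) = lab w
  nc : ∀ {F : Φ} {w x : W}, w ∈ P → w ∈ M.On F → x ∈ P → x ∈ M.On F →
    x ≠ w → x ≠ mu F w → ¬ M.Lace F w (mu F w) x (mu F x)

open Classical in
/-- the state made of pieces -/
noncomputable def gather (p : ∀ a, Piece M fam a)
    (hd : ∀ {a b w}, w ∈ (p a).P → w ∈ (p b).P → a = b) [Nonempty C] : GSt M fam where
  P := {w | ∃ a, w ∈ (p a).P}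
  lab := fun w => (p (Classical.epsilon fun a => w ∈ (p a).P)).lab w
  mu := fun F w => (p (Classical.epsilon fun a => w ∈ (p a).P)).mu F w
  mu_mem := by
    rintro F w hw hF
    have h1 : w ∈ (p (Classical.epsilon fun a => w ∈ (p a).P)).P :=
      Classical.epsilon_spec (p := fun a => w ∈ (p a).P) hw
    have h2 := (p _).mu_mem h1 hF
    exact ⟨⟨_, h2.1⟩, h2.2⟩
  mu_ne := by
    rintro F w hw hF
    have h1 : w ∈ (p (Classical.epsilon fun a => w ∈ (p a).P)).P :=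
      Classical.epsilon_spec (p := fun a => w ∈ (p a).P) hw
    exact (p _).mu_ne h1 hF
  mu_mu := by
    rintro F w hw hF
    have h1 : w ∈ (p (Classical.epsilon fun a => w ∈ (p a).P)).P :=
      Classical.epsilon_spec (p := fun a => w ∈ (p a).P) hw
    have h2 := (p _).mu_mem h1 hF
    have h3 := Classical.epsilon_spec (p := fun a =>
      (p (Classical.epsilon fun a => w ∈ (p a).P)).mu F w ∈ (p a).P) ⟨_, h2.1⟩
    have h4 := hd h3 h2.1
    rw [h4]
    exact (p _).mu_mu h1 hF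
  mu_lab := by
    rintro F w hw hF
    have h1 : w ∈ (p (Classical.epsilon fun a => w ∈ (p a).P)).P :=
      Classical.epsilon_spec (p := fun a => w ∈ (p a).P) hw
    have h2 := (p _).mu_mem h1 hF
    have h3 := Classical.epsilon_spec (p := fun a =>
      (p (Classical.epsilon fun a => w ∈ (p a).P)).mu F w ∈ (p a).P) ⟨_, h2.1⟩
    have h4 := hd h3 h2.1
    rw [h4]
    exact (p _).mu_lab h1 hF
  nc := by
    rintro F w x hw hF hx hF' hc hne hne'
    have h1 : w ∈ (p (Classical.epsilon fun a => w ∈ (p a).P)).P :=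
      Classical.epsilon_spec (p := fun a => w ∈ (p a).P) hw
    have h2 : x ∈ (p (Classical.epsilon fun a => x ∈ (p a).P)).P :=
      Classical.epsilon_spec (p := fun a => x ∈ (p a).P) hx
    rw [(p _).fa h1, (p _).fa h2] at hc
    rw [← hc] at h2 ⊢
    exact (p _).nc h1 hF h2 hF' hne hne'
  fin := by
    intro c
    refine (p c).fin.subset ?_
    rintro w ⟨hw, hc⟩
    have h1 : w ∈ (p (Classical.epsilon fun a => w ∈ (p a).P)).P :=
      Classical.epsilon_spec (p := fun a => w ∈ (p a).P) hw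
    rw [(p _).fa h1] at hc
    rw [hc] at h1
    exact h1

section gather

variable {p : ∀ a, Piece M fam a} {hd : ∀ {a b w}, w ∈ (p a).P → w ∈ (p b).P → a = b}
  [Nonempty C]

theorem mem_gather {w : W} : w ∈ (gather p hd).P ↔ ∃ a, w ∈ (p a).P := Iff.rfl

theorem gather_eps (hd : ∀ {a b w}, w ∈ (p a).P → w ∈ (p b).P → a = b) {a : C} {w : W}
    (h : w ∈ (p a).P) : (Classical.epsilon fun a => w ∈ (p a).P) = a :=
  hd (Classical.epsilon_spec (p := fun a => w ∈ (p a).P) ⟨a, h⟩) h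

theorem gather_lab {a : C} {w : W} (h : w ∈ (p a).P) : (gather p hd).lab w = (p a).lab w := by
  show (p (Classical.epsilon fun a => w ∈ (p a).P)).lab w = _
  rw [gather_eps hd h]

theorem gather_mu {a : C} {w : W} (F : Φ) (h : w ∈ (p a).P) :
    (gather p hd).mu F w = (p a).mu F w := by
  show (p (Classical.epsilon fun a => w ∈ (p a).P)).mu F w = _
  rw [gather_eps hd h]

/-- the points of the family `a` -/
theorem gather_fam {a : C} {w : W} :
    (w ∈ (gather p hd).P ∧ fam ((gather p hd).lab w) = a) ↔ w ∈ (p a).P := by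
  constructor
  · rintro ⟨⟨b, hb⟩, h⟩
    rw [gather_lab (hd := hd) hb, (p b).fa hb] at h
    rw [← h]; exact hb
  · intro h
    exact ⟨⟨a, h⟩, by rw [gather_lab (hd := hd) h, (p a).fa h]⟩

theorem gather_at {j : J} {F : Φ} {w : W} :
    ((gather p hd).At F w ∧ (gather p hd).lab w = j) ↔
      (w ∈ (p (fam j)).P ∧ w ∈ M.On F ∧ (p (fam j)).lab w = j) := by
  constructor
  · rintro ⟨⟨h1, h2⟩, h3⟩
    have h4 : w ∈ (p (fam j)).P := (gather_fam (hd := hd)).1 ⟨h1, by rw [h3]⟩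
    exact ⟨h4, h2, by rw [← gather_lab (hd := hd) h4]; exact h3⟩
  · rintro ⟨h1, h2, h3⟩
    exact ⟨⟨⟨_, h1⟩, h2⟩, by rw [gather_lab (hd := hd) h1]; exact h3⟩

/-- `H1` of a sheet of a piece -/
def Piece.H1 {a : C} (t : Piece M fam a) (i : J) : Prop :=
  ∀ κ : Φ → W → ZMod 2,
    (∀ q : ι, ∃ ψ : W → ZMod 2, ∀ F w, q ∈ M.side F → w ∈ t.P → w ∈ M.On F → t.lab w = i →
      κ F w = ψ w + ψ (t.mu F w)) →
    ∃ Ψ : W → ZMod 2, ∀ F w, w ∈ t.P → w ∈ M.On F → t.lab w = i → κ F w = Ψ w + Ψ (t.mu F w)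

/-- `Conn` of a sheet of a piece -/
def Piece.Conn {a : C} (t : Piece M fam a) (i : J) : Prop :=
  (∃ w ∈ t.P, t.lab w = i) ∧
  ∀ X : Set W, (∀ F w, w ∈ X → w ∈ t.P → w ∈ M.On F → t.lab w = i → t.mu F w ∈ X) →
    ∀ w ∈ X, w ∈ t.P → t.lab w = i → ∀ w' ∈ t.P, t.lab w' = i → w' ∈ X

theorem gather_H1 {j : J} (h : (p (fam j)).H1 j) : (gather p hd).H1 j := by
  intro κ hκ
  obtain ⟨Ψ, hΨ⟩ := h κ (fun q => by
    obtain ⟨ψ, hψ⟩ := hκ q
    refine ⟨ψ, fun F w hq hw hF hl => ?_⟩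
    obtain ⟨h1, h2⟩ := (gather_at (hd := hd)).2 ⟨hw, hF, hl⟩
    have := hψ F w hq h1 h2
    rwa [gather_mu (hd := hd) F hw] at this)
  refine ⟨Ψ, fun F w hw hl => ?_⟩
  obtain ⟨h1, h2, h3⟩ := (gather_at (hd := hd)).1 ⟨hw, hl⟩
  rw [gather_mu (hd := hd) F h1]
  exact hΨ F w h1 h2 h3

theorem gather_Conn {j : J} (h : (p (fam j)).Conn j) : (gather p hd).Conn j := by
  obtain ⟨⟨w, hw, hl⟩, h2⟩ := h
  refine ⟨⟨w, ⟨_, hw⟩, by rw [gather_lab (hd := hd) hw]; exact hl⟩, ?_⟩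
  intro X hX w hwX hwP hwl w' hw'P hw'l
  have e1 : w ∈ (p (fam j)).P := (gather_fam (hd := hd)).1 ⟨hwP, by rw [hwl]⟩
  have e2 : w' ∈ (p (fam j)).P := (gather_fam (hd := hd)).1 ⟨hw'P, by rw [hw'l]⟩
  refine h2 X ?_ w hwX e1 (by rw [← gather_lab (hd := hd) e1]; exact hwl) w' e2
    (by rw [← gather_lab (hd := hd) e2]; exact hw'l)
  intro F y hyX hyP hyF hyl
  obtain ⟨g1, g2⟩ := (gather_at (hd := hd)).2 ⟨hyP, hyF, hyl⟩
  rw [← gather_mu (hd := hd) F hyP]
  exact hX F y hyX g1 g2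

end gather

/-! ### restriction to a family and its barriers -/

variable {am : Mo → C}

/-- sheets and barriers of the family `a` -/
def PN (fam : J → C) (am : Mo → C) (a : C) : Type := {j : J ⊕ Mo // Sum.elim fam am j = a}

/-- colour: sheets `true`, barriers `false` -/
def pcol (fam : J → C) (am : Mo → C) (a : C) : PN fam am a → Bool := fun j => j.1.isLeft

/-- no face carries points of two barriers of the same family -/
def BSep (s : GSt M (Sum.map fam (id : Mo → Mo))) (am : Mo → C) : Prop :=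
  ∀ F w x m m', s.At F w → s.At F x → s.lab w = Sum.inr m → s.lab x = Sum.inr m' →
    am m = am m' → m = m'

open Classical in
/-- the pair state -/
noncomputable def pr (s : GSt M (Sum.map fam (id : Mo → Mo))) (hs : BSep s am)
    (hm : ∀ a, {m | am m = a}.Finite) (a : C) (i0 : PN fam am a) : St M (pcol fam am a) where
  P := (Set.Finite.subset (s := {w | w ∈ s.P ∧ Sum.map fam (id : Mo → Mo) (s.lab w) = Sum.inl a} ∪
      ⋃ m ∈ {m | am m = a}, {w | w ∈ s.P ∧ Sum.map fam (id : Mo → Mo) (s.lab w) = Sum.inr m})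
    ((s.fin _).union ((hm a).biUnion fun m _ => s.fin _))
    (show {w | w ∈ s.P ∧ Sum.elim fam am (s.lab w) = a} ⊆ _ from by
      rintro w ⟨hw, h⟩
      rcases hl : s.lab w with j | m
      · left
        refine ⟨hw, ?_⟩
        rw [hl] at h ⊢
        exact congrArg Sum.inl h
      · right
        rw [hl] at h
        refine Set.mem_biUnion (x := m) h ⟨hw, ?_⟩
        rw [hl]; rfl)).toFinset
  lab := fun w => if h : Sum.elim fam am (s.lab w) = a then ⟨s.lab w, h⟩ else i0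
  mu := s.mu
  mu_mem := by
    intro F w hw hF
    rw [Set.Finite.mem_toFinset] at hw ⊢
    obtain ⟨h1, h2⟩ := s.mu_mem hw.1 hF
    exact ⟨⟨h1, by rw [s.mu_lab hw.1 hF]; exact hw.2⟩, h2⟩
  mu_ne := by
    intro F w hw hF
    rw [Set.Finite.mem_toFinset] at hw
    exact s.mu_ne hw.1 hF
  mu_mu := by
    intro F w hw hF
    rw [Set.Finite.mem_toFinset] at hw
    exact s.mu_mu hw.1 hF
  mu_lab := by
    intro F w hw hF
    rw [Set.Finite.mem_toFinset] at hw
    simp only [s.mu_lab hw.1 hF]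
  nc := by
    intro F w x hw hF hx hF' hc hne hne'
    rw [Set.Finite.mem_toFinset] at hw hx
    rw [dif_pos hw.2, dif_pos hx.2] at hc
    have hc' : (s.lab w).isLeft = (s.lab x).isLeft := hc
    refine s.nc hw.1 hF hx.1 hF' ?_ hne hne'
    have h1 := hw.2
    have h2 := hx.2
    rcases hl : s.lab w with j | m <;> rcases hl' : s.lab x with j' | m'
    · rw [hl] at h1; rw [hl'] at h2
      show (Sum.inl (fam j) : C ⊕ Mo) = Sum.inl (fam j')
      exact congrArg _ (h1.trans h2.symm)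
    · rw [hl, hl'] at hc'; exact absurd hc' (by simp)
    · rw [hl, hl'] at hc'; exact absurd hc' (by simp)
    · rw [hl] at h1; rw [hl'] at h2
      rw [hs F w x m m' ⟨hw.1, hF⟩ ⟨hx.1, hF'⟩ hl hl' (h1.trans h2.symm)]

section pr

variable {s : GSt M (Sum.map fam (id : Mo → Mo))} {hs : BSep s am}
  {hm : ∀ a, {m | am m = a}.Finite} {a : C} {i0 : PN fam am a}

theorem mem_pr {w : W} : w ∈ (pr s hs hm a i0).P ↔ w ∈ s.P ∧ Sum.elim fam am (s.lab w) = a := by
  show w ∈ Set.Finite.toFinset _ ↔ _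
  rw [Set.Finite.mem_toFinset]
  exact Iff.rfl

theorem pr_mu (F : Φ) (w : W) : (pr s hs hm a i0).mu F w = s.mu F w := rfl

theorem pr_lab {w : W} (h : Sum.elim fam am (s.lab w) = a) :
    (pr s hs hm a i0).lab w = ⟨s.lab w, h⟩ := by
  simp only [pr, dif_pos h]

theorem pr_lab_iff {w : W} (h : Sum.elim fam am (s.lab w) = a) {i : PN fam am a} :
    (pr s hs hm a i0).lab w = i ↔ s.lab w = i.1 := by
  rw [pr_lab h]
  constructor
  · intro e; rw [← e]
  · intro e; exact Subtype.ext e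

theorem pr_at {F : Φ} {w : W} : (pr s hs hm a i0).At F w ↔
    s.At F w ∧ Sum.elim fam am (s.lab w) = a := by
  unfold St.At GSt.At
  rw [mem_pr]; tauto

theorem pr_H1 (i : PN fam am a) (h : s.H1 i.1) : (pr s hs hm a i0).H1 i := by
  intro κ hκ
  obtain ⟨Ψ, hΨ⟩ := h κ (fun q => by
    obtain ⟨ψ, hψ⟩ := hκ q
    refine ⟨ψ, fun F w hq hw hl => ?_⟩
    have hin : Sum.elim fam am (s.lab w) = a := by rw [hl]; exact i.2
    exact hψ F w hq (pr_at.2 ⟨hw, hin⟩) ((pr_lab_iff hin).2 hl))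
  refine ⟨Ψ, fun F w hw hl => ?_⟩
  obtain ⟨h1, h2⟩ := pr_at.1 hw
  exact hΨ F w h1 ((pr_lab_iff h2).1 hl)

theorem pr_Conn (i : PN fam am a) (h : s.Conn i.1) : (pr s hs hm a i0).Conn i := by
  obtain ⟨⟨w, hw, hl⟩, h2⟩ := h
  refine ⟨⟨w, mem_pr.2 ⟨hw, by rw [hl]; exact i.2⟩, (pr_lab_iff (by rw [hl]; exact i.2)).2 hl⟩, ?_⟩
  intro X hX x ha haP hal b hbP hbl
  have ha1 := mem_pr.1 haP
  have hb1 := mem_pr.1 hbP
  refine h2 X ?_ x ha ha1.1 ((pr_lab_iff ha1.2).1 hal) b hb1.1 ((pr_lab_iff hb1.2).1 hbl)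
  intro F u hu hat hul
  have hin : Sum.elim fam am (s.lab u) = a := by rw [hul]; exact i.2
  exact hX F u hu (pr_at.2 ⟨hat, hin⟩) ((pr_lab_iff hin).2 hul)

theorem pr_hp {w : W} : HP (pr s hs hm a i0) w ↔ w ∈ s.P ∧ ∃ m, am m = a ∧ s.lab w = Sum.inr m := by
  unfold HP
  rw [mem_pr]
  constructor
  · rintro ⟨⟨h1, h2⟩, h3⟩
    refine ⟨h1, ?_⟩
    rw [pr_lab h2] at h3
    have h4 : (s.lab w).isLeft = false := h3
    rcases hl : s.lab w with j | m
    · rw [hl] at h4; exact absurd h4 (by simp)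
    · exact ⟨m, by rw [hl] at h2; exact h2, rfl⟩
  · rintro ⟨h1, m, h2, h3⟩
    have h4 : Sum.elim fam am (s.lab w) = a := by rw [h3]; exact h2
    refine ⟨⟨h1, h4⟩, ?_⟩
    rw [pr_lab h4]
    show (s.lab w).isLeft = false
    rw [h3]; rfl

end pr

/-! ### the piece of the sheets of a pair state -/

open Classical in
/-- the sheets (colour `true`) of a pair state -/
noncomputable def piece (a : C) (j0 : J) (t : St M (pcol fam am a)) : Piece M fam a where
  P := {w | w ∈ t.P ∧ (t.lab w).1.isLeft = true}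
  fin := t.P.finite_toSet.subset fun w hw => hw.1
  lab := fun w => Sum.elim id (fun _ => j0) (t.lab w).1
  mu := t.mu
  fa := by
    rintro w ⟨_, h⟩
    have h2 := (t.lab w).2
    rcases hl : (t.lab w).1 with j | m
    · rw [hl] at h2; exact h2
    · rw [hl] at h; exact absurd h (by simp)
  mu_mem := by
    rintro F w ⟨h1, h2⟩ hF
    have h3 := t.mu_mem h1 hF
    exact ⟨⟨h3.1, by rw [t.mu_lab h1 hF]; exact h2⟩, h3.2⟩
  mu_ne := fun hw hF => t.mu_ne hw.1 hF
  mu_mu := fun hw hF => t.mu_mu hw.1 hF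
  mu_lab := fun hw hF => by rw [t.mu_lab hw.1 hF]
  nc := by
    rintro F w x ⟨h1, h2⟩ hF ⟨h3, h4⟩ hF' hne hne'
    refine t.nc h1 hF h3 hF' ?_ hne hne'
    show (t.lab w).1.isLeft = (t.lab x).1.isLeft
    rw [h2, h4]

theorem piece_iff {a : C} {j0 : J} {t : St M (pcol fam am a)} {w : W} {j : J} (hj : fam j = a) :
    (w ∈ (piece a j0 t).P ∧ (piece a j0 t).lab w = j) ↔ (w ∈ t.P ∧ t.lab w = ⟨Sum.inl j, hj⟩) := by
  constructor
  · rintro ⟨⟨h1, h2⟩, h3⟩
    refine ⟨h1, Subtype.ext ?_⟩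
    have h4 : Sum.elim id (fun _ => j0) (t.lab w).1 = j := h3
    rcases hl : (t.lab w).1 with j' | m
    · rw [hl] at h4; exact congrArg Sum.inl h4
    · rw [hl] at h2; exact absurd h2 (by simp)
  · rintro ⟨h1, h2⟩
    refine ⟨⟨h1, by rw [h2]; rfl⟩, ?_⟩
    show Sum.elim id (fun _ => j0) (t.lab w).1 = j
    rw [h2]; rfl

theorem piece_H1 {a : C} {j0 : J} {t : St M (pcol fam am a)} {j : J} (hj : fam j = a)
    (h : t.H1 ⟨Sum.inl j, hj⟩) : (piece a j0 t).H1 j := by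
  intro κ hκ
  obtain ⟨Ψ, hΨ⟩ := h κ (fun q => by
    obtain ⟨ψ, hψ⟩ := hκ q
    refine ⟨ψ, fun F w hq hw hl => ?_⟩
    obtain ⟨h1, h2⟩ := (piece_iff (j0 := j0) hj).2 ⟨hw.1, hl⟩
    exact hψ F w hq h1 hw.2 h2)
  refine ⟨Ψ, fun F w hw hF hl => ?_⟩
  obtain ⟨h1, h2⟩ := (piece_iff (j0 := j0) hj).1 ⟨hw, hl⟩
  exact hΨ F w ⟨h1, hF⟩ h2

theorem piece_Conn {a : C} {j0 : J} {t : St M (pcol fam am a)} {j : J} (hj : fam j = a)
    (h : t.Conn ⟨Sum.inl j, hj⟩) : (piece a j0 t).Conn j := by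
  obtain ⟨⟨w, hw, hl⟩, h2⟩ := h
  obtain ⟨g1, g2⟩ := (piece_iff (j0 := j0) hj).2 ⟨hw, hl⟩
  refine ⟨⟨w, g1, g2⟩, ?_⟩
  intro X hX w hwX hwP hwl w' hw'P hw'l
  obtain ⟨e1, e2⟩ := (piece_iff (j0 := j0) hj).1 ⟨hwP, hwl⟩
  obtain ⟨e3, e4⟩ := (piece_iff (j0 := j0) hj).1 ⟨hw'P, hw'l⟩
  refine h2 X ?_ w hwX e1 e2 w' e3 e4
  intro F y hyX hyA hyl
  obtain ⟨g1, g2⟩ := (piece_iff (j0 := j0) hj).2 ⟨hyA.1, hyl⟩
  exact hX F y hyX g1 hyA.2 g2

end Crest.Agent.R096.Cg_501
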