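import Crest.Agent.R096.Seq2_213

/-!
# R096 / COPY, part 1 (helper298): sheets with `H¹ = 0` are two-sided

* `alt`       : two fixed point free involutions have a common alternating function.
* `Ori M`     : orientation data of a mesh: `dir F w` = direction (0 / 1) of the mesh edge of `w`
  along `pos F`, `eps q F` = orientation of the face `F` in the boundary of the cell `q`.
* `TS s O σ`  : `σ` is a transversal orientation of the sheets of the state `s`.
* `exists_ts` : it exists if all sheets have `H¹ = 0`.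
-/

set_option autoImplicit false

namespace Crest.Agent.R096.Cp_298
open Crest.Agent.R096.St_147 Crest.Agent.R096.Seq_213

/-! ### alternating functions of two involutions -/

section alt

variable {D : Type*}

theorem not_sameCycle (a b : Equiv.Perm D) (ha : ∀ d, a (a d) = d) (hb : ∀ d, b (b d) = d)
    (ha' : ∀ d, a d ≠ d) (hb' : ∀ d, b d ≠ d) (d : D) : ¬ (a * b).SameCycle d (a d) := by
  have inva : a * a = 1 := Equiv.ext ha
  have invb : b * b = 1 := Equiv.ext hb
  have e1 : a⁻¹ = a := inv_eq_of_mul_eq_one_left inva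
  have e2 : b⁻¹ = b := inv_eq_of_mul_eq_one_left invb
  have key : ∀ n : ℤ, a * (a * b) ^ n = (a * b) ^ (-n) * a := by
    intro n
    have h : (a * (a * b) * a⁻¹) ^ n = a * (a * b) ^ n * a⁻¹ := conj_zpow
    have h2 : a * (a * b) * a⁻¹ = (a * b)⁻¹ := by
      rw [mul_inv_rev, e1, e2, ← mul_assoc, inva, one_mul]
    rw [h2, inv_zpow, ← zpow_neg] at h
    rw [h, inv_mul_cancel_right]
  rintro ⟨n, hn⟩
  rcases Int.even_or_odd' n with ⟨m, hm | hm⟩
  · apply ha' (((a * b) ^ m) d)
    have h1 : ((a * b) ^ (-m)) (((a * b) ^ n) d) = ((a * b) ^ (-m)) (a d) := by rw [hn]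
    have h2 : ((a * b) ^ (-m)) (((a * b) ^ n) d) = ((a * b) ^ m) d := by
      rw [← Equiv.Perm.mul_apply, ← zpow_add]
      congr 2; omega
    have h3 : ((a * b) ^ (-m)) (a d) = a (((a * b) ^ m) d) := by
      rw [← Equiv.Perm.mul_apply, ← key, Equiv.Perm.mul_apply]
    rw [h2, h3] at h1
    exact h1.symm
  · apply hb' (((a * b) ^ m) d)
    have h1 : ((a * b) ^ (-m)) (((a * b) ^ n) d) = ((a * b) ^ (-m)) (a d) := by rw [hn]
    have h2 : ((a * b) ^ (-m)) (((a * b) ^ n) d) = (a * b) (((a * b) ^ m) d) := by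
      rw [← Equiv.Perm.mul_apply, ← zpow_add, ← Equiv.Perm.mul_apply, ← zpow_one_add]
      congr 2; omega
    have h3 : ((a * b) ^ (-m)) (a d) = a (((a * b) ^ m) d) := by
      rw [← Equiv.Perm.mul_apply, ← key, Equiv.Perm.mul_apply]
    rw [h2, h3, Equiv.Perm.mul_apply] at h1
    exact a.injective h1

/-- a fixed point free involution has an alternating function -/
theorem alt_one (a : D → D) (ha : ∀ d, a (a d) = d) (ha' : ∀ d, a d ≠ d) :
    ∃ χ : D → ZMod 2, ∀ d, χ (a d) = χ d + 1 := by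
  classical
  let r : LinearOrder D := WellOrderingRel.isWellOrder.linearOrder
  refine ⟨fun d => if d < a d then 0 else 1, fun d => ?_⟩
  simp only [ha]
  rcases lt_trichotomy d (a d) with h | h | h
  · rw [if_neg (lt_asymm h), if_pos h]; rfl
  · exact absurd h.symm (ha' d)
  · rw [if_pos h, if_neg (lt_asymm h)]; decide

/-- two fixed point free involutions have a common alternating function -/
theorem alt (a b : D → D) (ha : ∀ d, a (a d) = d) (hb : ∀ d, b (b d) = d)
    (ha' : ∀ d, a d ≠ d) (hb' : ∀ d, b d ≠ d) :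
    ∃ χ : D → ZMod 2, ∀ d, χ (a d) = χ d + 1 ∧ χ (b d) = χ d + 1 := by
  classical
  let A : Equiv.Perm D := ⟨a, a, ha, ha⟩
  let B : Equiv.Perm D := ⟨b, b, hb, hb⟩
  let S : Setoid D := Equiv.Perm.SameCycle.setoid (A * B)
  have hinva : A⁻¹ = A := by ext d; rfl
  have hinvb : B⁻¹ = B := by ext d; rfl
  have hA : ∀ d, A d = a d := fun d => rfl
  have hB : ∀ d, B d = b d := fun d => rfl
  -- `a` maps cycles of `A * B` to cycles
  have hconj : ∀ n : ℤ, ∀ d, a (((A * B) ^ n) d) = ((A * B) ^ (-n)) (a d) := by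
    intro n d
    have inva : A * A = 1 := Equiv.ext ha
    have h : (A * (A * B) * A⁻¹) ^ n = A * (A * B) ^ n * A⁻¹ := conj_zpow
    have h2 : A * (A * B) * A⁻¹ = (A * B)⁻¹ := by
      rw [mul_inv_rev, hinva, hinvb, ← mul_assoc, inva, one_mul]
    rw [h2, inv_zpow, ← zpow_neg] at h
    have h3 : A * (A * B) ^ n = (A * B) ^ (-n) * A := by
      rw [h, inv_mul_cancel_right]
    exact congrArg (fun g : Equiv.Perm D => g d) h3
  have hrel : ∀ d d', (A * B).SameCycle d d' → (A * B).SameCycle (a d) (a d') := by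
    rintro d d' ⟨n, hn⟩
    refine ⟨-n, ?_⟩
    rw [← hconj, hn]
  let q : Quotient S → Quotient S := Quotient.map a hrel
  have hq : ∀ d, q (Quotient.mk S d) = Quotient.mk S (a d) := fun d => rfl
  obtain ⟨χ, hχ⟩ := alt_one q
    (by
      intro x
      induction x using Quotient.inductionOn with
      | _ d => rw [hq, hq, ha])
    (by
      intro x
      induction x using Quotient.inductionOn with
      | _ d =>
        intro h
        rw [hq] at h
        have h1 : (A * B).SameCycle (a d) d := Quotient.exact h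
        exact not_sameCycle A B ha hb ha' hb' d h1.symm)
  refine ⟨fun d => χ (Quotient.mk S d), fun d => ⟨?_, ?_⟩⟩
  · show χ (Quotient.mk S (a d)) = _
    rw [← hq, hχ]
  · show χ (Quotient.mk S (b d)) = _
    have h1 : Quotient.mk S (b d) = Quotient.mk S (a d) := by
      apply Quotient.sound
      refine ⟨1, ?_⟩
      rw [zpow_one, Equiv.Perm.mul_apply, hA, hB, hb]
    rw [h1, ← hq, hχ]

end alt

/-! ### orientation data -/

variable {ι Φ W : Type}

/-- Orientation data of a mesh.  `dir F w = 0` if the (fixed) direction of the mesh edge of `w` is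
the direction of increasing `pos F`; `eps q F` orientation of `F` in the sphere `∂q`. -/
structure Ori (M : MeshC ι Φ W) where
  dir : Φ → W → ZMod 2
  eps : ι → Φ → ZMod 2
  comp : ∀ {q F F' w}, q ∈ M.side F → q ∈ M.side F' → w ∈ M.On F → w ∈ M.On F' → F ≠ F' →
    eps q F + dir F w + (eps q F' + dir F' w) = 1

/-- the other face of `q` at `w` -/
theorem exists_other (M : MeshC ι Φ W) {q : ι} {F : Φ} {w : W} (hq : q ∈ M.side F)
    (hw : w ∈ M.On F) : ∃ F', F' ≠ F ∧ q ∈ M.side F' ∧ w ∈ M.On F' ∧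
      ∀ G, q ∈ M.side G → w ∈ M.On G → G = F ∨ G = F' := by
  classical
  set S : Set Φ := {F | q ∈ M.side F ∧ w ∈ M.On F} with hS
  have hfin : S.Finite := (M.fin w).subset fun G hG => hG.2
  have hF : F ∈ S := ⟨hq, hw⟩
  have h2 : S.ncard = 2 := by
    rcases M.deg q w with h | h
    · rw [← hS, Set.ncard_eq_zero hfin] at h
      rw [h] at hF
      exact absurd hF (Set.notMem_empty _)
    · exact h
  obtain ⟨x, y, hxy, he⟩ := Set.ncard_eq_two.1 h2
  have hF' : F = x ∨ F = y := by
    have : F ∈ ({x, y} : Set Φ) := by rw [← he]; exact hF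
    simpa using this
  have hm : ∀ G, q ∈ M.side G → w ∈ M.On G → G = x ∨ G = y := by
    intro G h1 h3
    have : G ∈ ({x, y} : Set Φ) := by rw [← he]; exact ⟨h1, h3⟩
    simpa using this
  have hx : x ∈ S := by rw [he]; simp
  have hy : y ∈ S := by rw [he]; simp
  rcases hF' with rfl | rfl
  · exact ⟨y, hxy.symm, hy.1, hy.2, hm⟩
  · exact ⟨x, hxy, hx.1, hx.2, fun G h1 h3 => (hm G h1 h3).symm⟩

variable {J C K : Type} {M : MeshC ι Φ W} {fam : J → C}

/-- `σ` is a transversal orientation of the sheets of `s` -/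
def TS (s : GSt M fam) (O : Ori M) (σ : W → ZMod 2) : Prop :=
  ∀ F w, s.At F w → σ w + σ (s.mu F w) + (O.dir F w + O.dir F (s.mu F w)) = 1

/-- transversal orientation of one sheet -/
def TSj (s : GSt M fam) (O : Ori M) (j : J) (σ : W → ZMod 2) : Prop :=
  ∀ F w, s.At F w → s.lab w = j → σ w + σ (s.mu F w) + (O.dir F w + O.dir F (s.mu F w)) = 1

theorem z2_add_self (x : ZMod 2) : x + x = 0 := CharTwo.add_self_eq_zero x

/-- a sheet with `H¹ = 0` is two-sided -/
theorem exists_tsj (s : GSt M fam) (O : Ori M) {j : J} (h : s.H1 j) : ∃ σ, TSj s O j σ := by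
  classical
  obtain ⟨Ψ, hΨ⟩ := h (fun F w => 1 + (O.dir F w + O.dir F (s.mu F w))) (by
    intro q
    let D : Type := {p : Φ × W // q ∈ M.side p.1 ∧ s.At p.1 p.2 ∧ s.lab p.2 = j}
    have ho : ∀ d : D, ∃ F', F' ≠ d.1.1 ∧ q ∈ M.side F' ∧ d.1.2 ∈ M.On F' ∧
        ∀ G, q ∈ M.side G → d.1.2 ∈ M.On G → G = d.1.1 ∨ G = F' := fun d =>
      exists_other M d.2.1 d.2.2.1.2
    choose ot h1 h2 h3 h4 using ho
    let a : D → D := fun d => ⟨(d.1.1, s.mu d.1.1 d.1.2), d.2.1,
      s.mu_mem d.2.2.1.1 d.2.2.1.2, by rw [s.mu_lab d.2.2.1.1 d.2.2.1.2]; exact d.2.2.2⟩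
    let b : D → D := fun d => ⟨(ot d, d.1.2), h2 d, ⟨d.2.2.1.1, h3 d⟩, d.2.2.2⟩
    have ha1 : ∀ d, (a d).1 = (d.1.1, s.mu d.1.1 d.1.2) := fun d => rfl
    have hb1 : ∀ d, (b d).1 = (ot d, d.1.2) := fun d => rfl
    obtain ⟨χ, hχ⟩ := alt a b
      (fun d => by
        apply Subtype.ext
        rw [ha1, ha1]
        simp only [s.mu_mu d.2.2.1.1 d.2.2.1.2])
      (fun d => by
        apply Subtype.ext
        rw [hb1]
        have e : (b d).1.2 = d.1.2 := rfl
        have h5 : ot (b d) = d.1.1 := by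
          rcases h4 d (ot (b d)) (h2 (b d)) (h3 (b d)) with h | h
          · exact h
          · exact absurd h (h1 (b d))
        rw [h5, e])
      (fun d he => by
        have h6 := congrArg (fun x : D => x.1.2) he
        exact s.mu_ne d.2.2.1.1 d.2.2.1.2 h6)
      (fun d he => by
        have h6 := congrArg (fun x : D => x.1.1) he
        exact h1 d h6)
    -- the orientation of the curves
    let θ : D → ZMod 2 := fun d => O.eps q d.1.1 + O.dir d.1.1 d.1.2
    have hθ : ∀ d, θ d + θ (b d) = 1 := fun d =>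
      O.comp d.2.1 (h2 d) d.2.2.1.2 (h3 d) (h1 d).symm
    let ψ0 : D → ZMod 2 := fun d => χ d + θ d
    have hψb : ∀ d, ψ0 (b d) = ψ0 d := by
      intro d
      show χ (b d) + θ (b d) = χ d + θ d
      rw [(hχ d).2]
      have h5 : θ (b d) = 1 + θ d := by
        have := hθ d
        calc θ (b d) = (θ d + θ d) + θ (b d) := by rw [z2_add_self, zero_add]
          _ = (θ d + θ (b d)) + θ d := by ring
          _ = 1 + θ d := by rw [this]
      rw [h5]
      calc χ d + 1 + (1 + θ d) = χ d + θ d + (1 + 1) := by ring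
        _ = χ d + θ d := by rw [z2_add_self, add_zero]
    have hψF : ∀ d d' : D, d.1.2 = d'.1.2 → ψ0 d = ψ0 d' := by
      intro d d' he
      rcases h4 d d'.1.1 d'.2.1 (by rw [he]; exact d'.2.2.1.2) with h | h
      · have : d' = d := Subtype.ext (Prod.ext h he.symm)
        rw [this]
      · have : d' = b d := Subtype.ext (Prod.ext h he.symm)
        rw [this, hψb]
    refine ⟨fun w => if hw : ∃ d : D, d.1.2 = w then ψ0 hw.choose else 0, ?_⟩
    intro F w hqF hAt hl
    let d : D := ⟨(F, w), hqF, hAt, hl⟩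
    have hw : ∃ d : D, d.1.2 = w := ⟨d, rfl⟩
    have hw' : ∃ d : D, d.1.2 = s.mu F w := ⟨a d, rfl⟩
    simp only [dif_pos hw, dif_pos hw']
    rw [hψF hw.choose d hw.choose_spec, hψF hw'.choose (a d) hw'.choose_spec]
    show 1 + (O.dir F w + O.dir F (s.mu F w)) = (χ d + (O.eps q F + O.dir F w)) +
      (χ (a d) + (O.eps q F + O.dir F (s.mu F w)))
    rw [(hχ d).1]
    calc 1 + (O.dir F w + O.dir F (s.mu F w))
        = (χ d + χ d) + (O.eps q F + O.eps q F) + (1 + (O.dir F w + O.dir F (s.mu F w))) := by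
          rw [z2_add_self, z2_add_self, zero_add, zero_add]
      _ = _ := by ring)
  refine ⟨Ψ, fun F w hw hl => ?_⟩
  rw [← hΨ F w hw hl]
  calc 1 + (O.dir F w + O.dir F (s.mu F w)) + (O.dir F w + O.dir F (s.mu F w))
      = 1 + ((O.dir F w + O.dir F (s.mu F w)) + (O.dir F w + O.dir F (s.mu F w))) := by ring
    _ = 1 := by rw [z2_add_self, add_zero]

/-- two transversal orientations of a connected sheet which agree at a point agree -/
theorem tsj_unique {s : GSt M fam} {O : Ori M} {j : J} (hc : s.Conn j) {σ τ : W → ZMod 2}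
    (hσ : TSj s O j σ) (hτ : TSj s O j τ) {w0 : W} (h0 : w0 ∈ s.P) (hl0 : s.lab w0 = j)
    (he : σ w0 = τ w0) : ∀ w ∈ s.P, s.lab w = j → σ w = τ w := by
  intro w hw hl
  refine hc.2 {x | σ x = τ x} ?_ w0 he h0 hl0 w hw hl
  intro F x hx hat hlx
  have h1 := hσ F x hat hlx
  have h2 := hτ F x hat hlx
  have hx' : σ x = τ x := hx
  show σ (s.mu F x) = τ (s.mu F x)
  rw [hx', ← h2] at h1
  have h3 := add_right_cancel h1
  exact add_left_cancel h3

/-- transversal orientation of one sheet with a prescribed value at one point -/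
theorem exists_tsj_at (s : GSt M fam) (O : Ori M) {j : J} (h : s.H1 j) (w0 : W) (v : ZMod 2) :
    ∃ σ, TSj s O j σ ∧ σ w0 = v := by
  obtain ⟨σ, hσ⟩ := exists_tsj s O h
  refine ⟨fun w => σ w + (σ w0 + v), fun F w hw hl => ?_, ?_⟩
  · show σ w + (σ w0 + v) + (σ (s.mu F w) + (σ w0 + v)) + (O.dir F w + O.dir F (s.mu F w)) = 1
    rw [← hσ F w hw hl]
    calc σ w + (σ w0 + v) + (σ (s.mu F w) + (σ w0 + v)) + (O.dir F w + O.dir F (s.mu F w))
        = ((σ w0 + v) + (σ w0 + v)) +
          (σ w + σ (s.mu F w) + (O.dir F w + O.dir F (s.mu F w))) := by ring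
      _ = _ := by rw [z2_add_self, zero_add]
  · show σ w0 + (σ w0 + v) = v
    rw [← add_assoc, z2_add_self, zero_add]

/-- **all sheets with `H¹ = 0`: a transversal orientation with prescribed values at one point of
every sheet** -/
theorem exists_ts (s : GSt M fam) (O : Ori M) (h : ∀ j, s.H1 j) (w0 : J → W)
    (v : J → ZMod 2) (hl0 : ∀ j, s.lab (w0 j) = j) :
    ∃ σ, TS s O σ ∧ ∀ j, σ (w0 j) = v j := by
  choose σ hσ hv using fun j => exists_tsj_at s O (h j) (w0 j) (v j)
  refine ⟨fun w => σ (s.lab w) w, fun F w hw => ?_, fun j => ?_⟩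
  · simp only [s.mu_lab hw.1 hw.2]
    exact hσ _ F w hw rfl
  · simp only [hl0]
    exact hv j

end Crest.Agent.R096.Cp_298
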