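import Crest.Agent.R096.Sec3_892
import Crest.Agent.R096.Cp1_298

/-!
# R096 / DOORS-SEC, part 6 (helper892): SEC0, parity of crossings on a closed sheet

A function on the chords of a sheet which is exact on the boundary of every cell but one has even sum
on the boundary of this cell.
-/

set_option autoImplicit false

namespace Crest.Agent.R096.Sec_892

open Crest.Agent.R096.St_147 Crest.Agent.R096.Wk_689

variable {ι Φ W I : Type} {M : MeshC ι Φ W} {col : I → Bool} (s : St M col)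

theorem fin_darts (i : I) : {p : Φ × W | s.At p.1 p.2 ∧ s.lab p.2 = i}.Finite := by
  refine (Set.Finite.biUnion s.P.finite_toSet
    (fun w _ => ((M.fin w).image (fun F => (F, w))))).subset ?_
  rintro ⟨F, w⟩ ⟨h1, -⟩
  exact Set.mem_biUnion (x := w) h1.1 ⟨F, h1.2, rfl⟩

/-- the darts of the sheet `i` -/
noncomputable def dts (i : I) : Finset (Φ × W) := (fin_darts s i).toFinset

theorem mem_dts {i : I} {p : Φ × W} : p ∈ dts s i ↔ s.At p.1 p.2 ∧ s.lab p.2 = i := by
  unfold dts; rw [Set.Finite.mem_toFinset]; rfl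

open Classical in
/-- value of a function on the chords, counted at the lower end -/
noncomputable def lowv (ω : Φ → W → ZMod 2) (p : Φ × W) : ZMod 2 :=
  if M.pos p.1 p.2 < M.pos p.1 (s.mu p.1 p.2) then ω p.1 p.2 else 0

variable {s} {i : I} {ω : Φ → W → ZMod 2}

theorem low_alt {p : Φ × W} (h : s.At p.1 p.2) :
    (M.pos p.1 p.2 < M.pos p.1 (s.mu p.1 p.2)) ↔
      ¬ (M.pos p.1 (s.mu p.1 p.2) < M.pos p.1 (s.mu p.1 (s.mu p.1 p.2))) := by
  rw [s.mu_mu h.1 h.2]
  have := pos_ne s h (At.mu s h) (s.mu_ne h.1 h.2).symm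
  constructor
  · intro h1 h2; exact lt_asymm h1 h2
  · intro h1; exact lt_of_le_of_ne (not_lt.1 h1) this

open Classical in
/-- exact on the boundary of `q` ⟹ the sum over `∂q` vanishes -/
theorem sum_exact {q : ι} (hex : ∃ ψ : W → ZMod 2, ∀ F w, q ∈ M.side F → s.At F w →
    s.lab w = i → ω F w = ψ w + ψ (s.mu F w)) :
    ∑ p ∈ (dts s i).filter (fun p => q ∈ M.side p.1), lowv s ω p = 0 := by
  obtain ⟨ψ, hψ⟩ := hex
  have hm : ∀ p, p ∈ (dts s i).filter (fun p => q ∈ M.side p.1) ↔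
      (s.At p.1 p.2 ∧ s.lab p.2 = i) ∧ q ∈ M.side p.1 := by
    intro p
    rw [Finset.mem_filter, mem_dts]
  have h1 : ∑ p ∈ (dts s i).filter (fun p => q ∈ M.side p.1), (lowv s ω p + ψ p.2) = 0 := by
    apply Finset.sum_involution (fun p _ => (p.1, s.mu p.1 p.2))
    · intro p hp
      obtain ⟨⟨hA, hi⟩, hq⟩ := (hm p).1 hp
      have hA' := At.mu s hA
      have e := low_alt hA
      have hω := hψ p.1 p.2 hq hA hi
      have hω' := hψ p.1 (s.mu p.1 p.2) hq hA' (by rw [s.mu_lab hA.1 hA.2]; exact hi)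
      rw [s.mu_mu hA.1 hA.2] at hω'
      unfold lowv
      show (if M.pos p.1 p.2 < M.pos p.1 (s.mu p.1 p.2) then ω p.1 p.2 else 0) + ψ p.2 +
        ((if M.pos p.1 (s.mu p.1 p.2) < M.pos p.1 (s.mu p.1 (s.mu p.1 p.2)) then
          ω p.1 (s.mu p.1 p.2) else 0) + ψ (s.mu p.1 p.2)) = 0
      by_cases hl : M.pos p.1 p.2 < M.pos p.1 (s.mu p.1 p.2)
      · rw [if_pos hl, if_neg (e.1 hl), hω]
        generalize ψ p.2 = x
        generalize ψ (s.mu p.1 p.2) = y
        revert x y; decide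
      · rw [if_neg hl, if_pos (by by_contra h; exact hl (e.2 h)), hω']
        generalize ψ p.2 = x
        generalize ψ (s.mu p.1 p.2) = y
        revert x y; decide
    · intro p hp _ he
      obtain ⟨⟨hA, hi⟩, hq⟩ := (hm p).1 hp
      exact s.mu_ne hA.1 hA.2 (congrArg Prod.snd he)
    · intro p hp
      obtain ⟨⟨hA, hi⟩, hq⟩ := (hm p).1 hp
      exact (hm _).2 ⟨⟨At.mu s hA, by
        show s.lab (s.mu p.1 p.2) = i
        rw [s.mu_lab hA.1 hA.2]; exact hi⟩, hq⟩
    · intro p hp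
      obtain ⟨⟨hA, hi⟩, hq⟩ := (hm p).1 hp
      exact Prod.ext rfl (s.mu_mu hA.1 hA.2)
  have h2 : ∑ p ∈ (dts s i).filter (fun p => q ∈ M.side p.1), ψ p.2 = 0 := by
    have hex : ∀ p : Φ × W, ∃ F' : Φ, (p ∈ (dts s i).filter (fun p => q ∈ M.side p.1)) →
        F' ≠ p.1 ∧ q ∈ M.side F' ∧ p.2 ∈ M.On F' ∧
        ∀ G, q ∈ M.side G → p.2 ∈ M.On G → G = p.1 ∨ G = F' := by
      intro p
      by_cases hp : p ∈ (dts s i).filter (fun p => q ∈ M.side p.1)
      · obtain ⟨⟨hA, hi⟩, hq⟩ := (hm p).1 hp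
        obtain ⟨F', h⟩ := Cp_298.exists_other M hq hA.2
        exact ⟨F', fun _ => h⟩
      · exact ⟨p.1, fun h => absurd h hp⟩
    choose ot hot using hex
    apply Finset.sum_involution (fun p _ => (ot p, p.2))
    · intro p _
      exact add_self2 _
    · intro p hp _ he
      exact (hot p hp).1 (congrArg Prod.fst he)
    · intro p hp
      obtain ⟨⟨hA, hi⟩, hq⟩ := (hm p).1 hp
      obtain ⟨h1, h2, h3, h4⟩ := hot p hp
      exact (hm _).2 ⟨⟨⟨hA.1, h3⟩, hi⟩, h2⟩
    · intro p hp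
      obtain ⟨⟨hA, hi⟩, hq⟩ := (hm p).1 hp
      obtain ⟨h1, h2, h3, h4⟩ := hot p hp
      have hp' : (ot p, p.2) ∈ (dts s i).filter (fun p => q ∈ M.side p.1) :=
        (hm _).2 ⟨⟨⟨hA.1, h3⟩, hi⟩, h2⟩
      obtain ⟨k1, k2, k3, k4⟩ := hot _ hp'
      refine Prod.ext ?_ rfl
      rcases h4 _ k2 k3 with h | h
      · exact h
      · exact absurd h k1
  rw [Finset.sum_add_distrib, h2, add_zero] at h1
  exact h1

open Classical in
/-- **parity**: exact on every cell but `q₀` ⟹ the sum over `∂q₀` vanishes -/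
theorem sum_other (q₀ : ι) (hex : ∀ q, q ≠ q₀ → ∃ ψ : W → ZMod 2, ∀ F w, q ∈ M.side F →
    s.At F w → s.lab w = i → ω F w = ψ w + ψ (s.mu F w)) :
    ∑ p ∈ (dts s i).filter (fun p => q₀ ∈ M.side p.1), lowv s ω p = 0 := by
  let Q : Finset ι := (dts s i).biUnion (fun p => (M.side p.1).toFinset)
  have hQ : ∀ p ∈ dts s i, ∀ q ∈ M.side p.1, q ∈ Q := by
    intro p hp q hq
    exact Finset.mem_biUnion.2 ⟨p, hp, Sym2.mem_toFinset.2 hq⟩
  have h1 : ∑ q ∈ Q, ∑ p ∈ (dts s i).filter (fun p => q ∈ M.side p.1), lowv s ω p = 0 := by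
    simp only [Finset.sum_filter]
    rw [Finset.sum_comm]
    apply Finset.sum_eq_zero
    intro p hp
    rw [← Finset.sum_filter]
    obtain ⟨a, b, hab⟩ : ∃ a b, M.side p.1 = s(a, b) := ⟨_, _, (Quot.out_eq _).symm⟩
    have hnd : a ≠ b := by
      intro h
      have := M.side_nd p.1
      rw [hab, h] at this
      simp at this
    have : Q.filter (fun q => q ∈ M.side p.1) = {a, b} := by
      ext q
      rw [Finset.mem_filter, Finset.mem_insert, Finset.mem_singleton]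
      constructor
      · rintro ⟨-, h⟩
        rwa [hab, Sym2.mem_iff] at h
      · intro h
        have h' : q ∈ M.side p.1 := by rw [hab, Sym2.mem_iff]; exact h
        exact ⟨hQ p hp q h', h'⟩
    rw [this, Finset.sum_pair hnd]
    exact add_self2 _
  by_cases hq : q₀ ∈ Q
  · rw [Finset.sum_eq_single_of_mem q₀ hq (fun q _ hne => sum_exact (hex q hne))] at h1
    exact h1
  · apply Finset.sum_eq_zero
    intro p hp
    rw [Finset.mem_filter] at hp
    exact absurd (hQ p hp.1 q₀ hp.2) hq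

/-- **SEC0, contradiction form** : exactly one odd chord on the boundary of the exceptional cell is
impossible -/
theorem no_single (q₀ : ι)
    (hsym : ∀ F w, s.At F w → s.lab w = i → ω F (s.mu F w) = ω F w)
    (hex : ∀ q, q ≠ q₀ → ∃ ψ : W → ZMod 2, ∀ F w, q ∈ M.side F →
      s.At F w → s.lab w = i → ω F w = ψ w + ψ (s.mu F w))
    {F₀ : Φ} {w₀ : W} (h0 : q₀ ∈ M.side F₀) (hA0 : s.At F₀ w₀) (hi0 : s.lab w₀ = i)
    (h1 : ω F₀ w₀ = 1)
    (huniq : ∀ F w, q₀ ∈ M.side F → s.At F w → s.lab w = i → ω F w ≠ 0 →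
      F = F₀ ∧ (w = w₀ ∨ w = s.mu F₀ w₀)) : False := by
  classical
  have h := sum_other (s := s) (i := i) (ω := ω) q₀ hex
  -- the lower end of the odd chord
  obtain ⟨w₁, hA1, hi1, hω1, hl1, hu1⟩ : ∃ w₁, s.At F₀ w₁ ∧ s.lab w₁ = i ∧ ω F₀ w₁ = 1 ∧
      M.pos F₀ w₁ < M.pos F₀ (s.mu F₀ w₁) ∧
      ∀ w, (w = w₀ ∨ w = s.mu F₀ w₀) → w = w₁ ∨ w = s.mu F₀ w₁ := by
    by_cases hl : M.pos F₀ w₀ < M.pos F₀ (s.mu F₀ w₀)
    · exact ⟨w₀, hA0, hi0, h1, hl, fun w h => h⟩
    · have h2 : M.pos F₀ (s.mu F₀ w₀) < M.pos F₀ (s.mu F₀ (s.mu F₀ w₀)) := by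
        by_contra hcon
        exact hl ((low_alt (p := (F₀, w₀)) hA0).2 hcon)
      refine ⟨s.mu F₀ w₀, At.mu s hA0, by rw [s.mu_lab hA0.1 hA0.2]; exact hi0,
        by rw [hsym F₀ w₀ hA0 hi0]; exact h1, h2, ?_⟩
      intro w hw
      rw [s.mu_mu hA0.1 hA0.2]
      exact hw.symm
  rw [Finset.sum_eq_single_of_mem (F₀, w₁)] at h
  · unfold lowv at h
    rw [if_pos hl1, hω1] at h
    exact one_ne_zero h
  · exact Finset.mem_filter.2 ⟨(mem_dts s).2 ⟨hA1, hi1⟩, h0⟩
  · rintro ⟨F, w⟩ hp hne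
    obtain ⟨hp1, hp2⟩ := Finset.mem_filter.1 hp
    obtain ⟨hA, hi⟩ := (mem_dts s).1 hp1
    unfold lowv
    split_ifs with hl
    · by_contra hcon
      obtain ⟨rfl, hw⟩ := huniq F w hp2 hA hi hcon
      rcases hu1 w hw with rfl | rfl
      · exact hne rfl
      · have hl' : M.pos F (s.mu F w₁) < M.pos F (s.mu F (s.mu F w₁)) := hl
        rw [s.mu_mu hA1.1 hA1.2] at hl'
        exact lt_asymm hl1 hl'
    · rfl

open Classical in
/-- **SEC0, reach form**: `Y` = a set of points of the sheet which is closed under the odd chords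
and under all chords on the cells where `ω` is not zero; if `Y` contains the only odd chord of the
door `q₀`, it contains an odd chord of another exceptional cell -/
theorem door_reach (Bad : Set ι) (q₀ : ι)
    (hsym : ∀ F w, s.At F w → s.lab w = i → ω F (s.mu F w) = ω F w) (Y : Set W)
    (hYω : ∀ F w, w ∈ Y → s.At F w → s.lab w = i → ω F w ≠ 0 → s.mu F w ∈ Y)
    (hex : ∀ q, q ∉ Bad → (∀ F w, q ∈ M.side F → s.At F w → s.lab w = i → ω F w = 0) ∨
      ((∃ ψ : W → ZMod 2, ∀ F w, q ∈ M.side F → s.At F w → s.lab w = i →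
        ω F w = ψ w + ψ (s.mu F w)) ∧
      ∀ F w, q ∈ M.side F → s.At F w → s.lab w = i → w ∈ Y → s.mu F w ∈ Y))
    {F₀ : Φ} {w₀ : W} (h0 : q₀ ∈ M.side F₀) (hA0 : s.At F₀ w₀) (hi0 : s.lab w₀ = i)
    (hY0 : w₀ ∈ Y) (h1 : ω F₀ w₀ = 1)
    (huniq : ∀ F w, q₀ ∈ M.side F → s.At F w → s.lab w = i → ω F w ≠ 0 →
      F = F₀ ∧ (w = w₀ ∨ w = s.mu F₀ w₀)) :
    ∃ q ∈ Bad, q ≠ q₀ ∧ ∃ F w, q ∈ M.side F ∧ s.At F w ∧ s.lab w = i ∧ w ∈ Y ∧ ω F w ≠ 0 := by
  by_contra hcon
  push Not at hcon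
  -- the part of `ω` on `Y`
  have hmuY : ∀ F w, s.At F w → s.lab w = i → ω F w ≠ 0 → (s.mu F w ∈ Y ↔ w ∈ Y) := by
    intro F w hA hi hω
    constructor
    · intro h
      have h2 := hYω F _ h (At.mu s hA) (by rw [s.mu_lab hA.1 hA.2]; exact hi)
        (by rw [hsym F w hA hi]; exact hω)
      rwa [s.mu_mu hA.1 hA.2] at h2
    · intro h
      exact hYω F w h hA hi hω
  have hval : ∀ F w, s.At F w → s.lab w = i →
      (if s.mu F w ∈ Y then ω F (s.mu F w) else 0) = if w ∈ Y then ω F w else 0 := by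
    intro F w hA hi
    rw [hsym F w hA hi]
    by_cases hω : ω F w = 0
    · rw [hω, ite_self, ite_self]
    · exact if_congr (hmuY F w hA hi hω) rfl rfl
  refine no_single (s := s) (i := i) (ω := fun F w => if w ∈ Y then ω F w else 0) q₀ hval ?_
    h0 hA0 hi0 (by rw [if_pos hY0]; exact h1) ?_
  · intro q hq
    by_cases hB : q ∈ Bad
    · refine ⟨fun _ => 0, fun F w hqF hA hi => ?_⟩
      rw [add_zero]
      split_ifs with hY
      · by_contra hω
        exact hω (hcon q hB hq F w hqF hA hi hY)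
      · rfl
    · rcases hex q hB with h | ⟨⟨ψ, hψ⟩, h⟩
      · refine ⟨fun _ => 0, fun F w hqF hA hi => ?_⟩
        rw [add_zero]
        show (if w ∈ Y then ω F w else 0) = 0
        rw [h F w hqF hA hi, ite_self]
      · refine ⟨fun w => if w ∈ Y then ψ w else 0, fun F w hqF hA hi => ?_⟩
        have h3 : s.mu F w ∈ Y ↔ w ∈ Y := by
          constructor
          · intro h4
            have h5 := h F _ hqF (At.mu s hA) (by rw [s.mu_lab hA.1 hA.2]; exact hi) h4
            rwa [s.mu_mu hA.1 hA.2] at h5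
          · exact h F w hqF hA hi
        show (if w ∈ Y then ω F w else 0) = (if w ∈ Y then ψ w else 0) +
          if s.mu F w ∈ Y then ψ (s.mu F w) else 0
        by_cases hY : w ∈ Y
        · rw [if_pos hY, if_pos hY, if_pos (h3.2 hY)]
          exact hψ F w hqF hA hi
        · rw [if_neg hY, if_neg hY, if_neg (fun h4 => hY (h3.1 h4)), add_zero]
  · intro F w hqF hA hi hω
    apply huniq F w hqF hA hi
    intro h
    apply hω
    show (if w ∈ Y then ω F w else 0) = 0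
    rw [h, ite_self]

end Crest.Agent.R096.Sec_892
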