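import Crest.Agent.R096.Dinv2_106
import Crest.Agent.R096.Sec6_892

/-!
# Row 96, DOORS-INV (helper106), part 3: the door curve and the moat points are joined with the base

`door_in` : 892's parity lemma `door_reach` for one sheet of a global state: `ω` = crossings with one
sheet of another quad at the same core.  The only odd chord of the door lies in every set which
contains the base point and is closed under the chords which are not crossed in `k`.
-/

set_option autoImplicit false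

namespace Crest.Agent.R096.Dinv_106

open Crest.Agent.R096.St_147 Crest.Agent.R096.Seq_213 Crest.Agent.R096.Ginv_543

variable {ι Φ W J C K : Type} {M : MeshC ι Φ W} {fam : J → C}

/-- one sheet of a global state as a state of one colour -/
noncomputable def oneSt (s : GSt M fam) (j : J) : St M (fun _ : Unit => true) where
  P := (gSht s j).P
  lab := fun _ => ()
  mu := s.mu
  mu_mem := fun {_ _} hw hF => (gSht s j).mu_mem hw hF
  mu_ne := fun {_ _} hw hF => (gSht s j).mu_ne hw hF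
  mu_mu := fun {_ _} hw hF => (gSht s j).mu_mu hw hF
  mu_lab := fun _ _ => rfl
  nc := fun {F w x} hw hF hx hF' _ h1 h2 => by
    have a := mem_gSht.1 hw
    have b := mem_gSht.1 hx
    exact s.nc a.1 hF b.1 hF' (by rw [a.2, b.2]) h1 h2

theorem oneSt_at {s : GSt M fam} {j : J} {F : Φ} {w : W} :
    (oneSt s j).At F w ↔ s.At F w ∧ s.lab w = j := by
  constructor
  · rintro ⟨h1, h2⟩
    have a := mem_gSht.1 h1
    exact ⟨⟨a.1, h2⟩, a.2⟩
  · rintro ⟨h1, h2⟩
    exact ⟨mem_gSht.2 ⟨h1.1, h2⟩, h1.2⟩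

/-- **the door**: the odd chord of the door cell `q₀` lies in `X` -/
theorem door_in {s : GSt M fam} {Q : Quads ι C K} {j : J} {k : K} {X : Set W}
    (hX : KCl s Q j k X) (q₀ : ι) (Bad : Set ι) (ω : Φ → W → ZMod 2)
    (hsym : ∀ F w, s.At F w → s.lab w = j → ω F (s.mu F w) = ω F w)
    (hodd : ∀ F w, s.At F w → s.lab w = j → ω F w ≠ 0 → KFree s Q k F w)
    (hex : ∀ q, q ∉ Bad → (∀ F w, q ∈ M.side F → s.At F w → s.lab w = j → ω F w = 0) ∨
      ((∃ ψ : W → ZMod 2, ∀ F w, q ∈ M.side F → s.At F w → s.lab w = j →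
        ω F w = ψ w + ψ (s.mu F w)) ∧
      ∀ F w, q ∈ M.side F → s.At F w → s.lab w = j → KFree s Q k F w))
    (hbad : ∀ q ∈ Bad, q ≠ q₀ → ∀ F w, q ∈ M.side F → s.At F w → s.lab w = j → ω F w ≠ 0 →
      w ∈ X)
    {F₀ : Φ} {w₀ : W} (h0 : q₀ ∈ M.side F₀) (hA0 : s.At F₀ w₀) (hi0 : s.lab w₀ = j)
    (h1 : ω F₀ w₀ = 1)
    (huniq : ∀ F w, q₀ ∈ M.side F → s.At F w → s.lab w = j → ω F w ≠ 0 →
      F = F₀ ∧ (w = w₀ ∨ w = s.mu F₀ w₀)) : w₀ ∈ X := by
  by_contra hw0
  have hcl : ∀ F w, w ∉ X → s.At F w → s.lab w = j → KFree s Q k F w → s.mu F w ∉ X :=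
    fun F w hw hA hl hf h => hw ((hX.iff hA hl hf).1 h)
  obtain ⟨q, hq, hne, F, w, hqF, hA, -, hw, hω⟩ :=
    Sec_892.door_reach (s := oneSt s j) (i := ()) (ω := ω) Bad q₀
      (fun F w hA _ => hsym F w (oneSt_at.1 hA).1 (oneSt_at.1 hA).2) {w | w ∉ X}
      (fun F w hw hA _ hω => hcl F w hw (oneSt_at.1 hA).1 (oneSt_at.1 hA).2
        (hodd F w (oneSt_at.1 hA).1 (oneSt_at.1 hA).2 hω))
      (fun q hq => by
        rcases hex q hq with h | ⟨⟨ψ, hψ⟩, h⟩
        · exact Or.inl fun F w hqF hA _ => h F w hqF (oneSt_at.1 hA).1 (oneSt_at.1 hA).2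
        · exact Or.inr ⟨⟨ψ, fun F w hqF hA _ => hψ F w hqF (oneSt_at.1 hA).1 (oneSt_at.1 hA).2⟩,
            fun F w hqF hA _ hw => hcl F w hw (oneSt_at.1 hA).1 (oneSt_at.1 hA).2
              (h F w hqF (oneSt_at.1 hA).1 (oneSt_at.1 hA).2)⟩)
      h0 (oneSt_at.2 ⟨hA0, hi0⟩) rfl hw0 h1
      (fun F w hqF hA _ hω => huniq F w hqF (oneSt_at.1 hA).1 (oneSt_at.1 hA).2 hω)
  exact hw (hbad q hq hne F w hqF (oneSt_at.1 hA).1 (oneSt_at.1 hA).2 hω)

/-- a chord on a face with a side in no `Act` is not crossed in any quad -/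
theorem kfree_of_side {s : GSt M fam} {Q : Quads ι C K} {k : K} {F : Φ} {w : W} {q : ι}
    (hq : q ∈ M.side F) (h : q ∉ Q.Act k) : KFree s Q k F w := fun hin => absurd (hin q hq) h

/-- the points of a door curve: `D` is connected by the chords on the faces of the door cell `q₀` -/
theorem curve_in {s : GSt M fam} {Q : Quads ι C K} {j : J} {k : K} {X : Set W}
    (hX : KCl s Q j k X) {q₀ : ι} (hq₀ : q₀ ∉ Q.Act k) {D : Set W}
    (hD : ∀ Y : Set W, (∀ F w, q₀ ∈ M.side F → w ∈ Y → s.At F w → s.lab w = j → s.mu F w ∈ Y) →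
      ∀ w ∈ Y, w ∈ D → D ⊆ Y) {w₀ : W} (hw : w₀ ∈ D) (hwX : w₀ ∈ X) : D ⊆ X :=
  hD X (fun F w hF hwX hA hl => hX F w hwX hA hl (kfree_of_side hF hq₀)) w₀ hwX hw

end Crest.Agent.R096.Dinv_106
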