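import Crest.Agent.R096.Sgd1_298
import Crest.Agent.R096.Sec6_892
import Crest.Agent.R096.Cg1_501
import Crest.Agent.R096.Dinv3_106

/-!
# R096 (row 96), DOORS (helper298), part 2: `giant_reach` and `Good` for the pair state

`giant_reach` : (T2) of 501: a set `Y` of points of the sheet `j` which is closed under a class of
chords containing all chords on the faces of the region `R` and on the giant, and which meets the
giant `q₀`, reaches the outside of the zone `Zc` (on a face with a side in `R`, on a crossed chord).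
`good_pr` : `Good` for 501's pair state `pr`.
-/

set_option autoImplicit false
set_option linter.unusedSectionVars false

open Set

namespace Crest.Agent.R096.Sgd_298

open Crest.Agent.R096.St_147 Crest.Agent.R096.Seq_213 Crest.Agent.R096.Seq_213.GSt
  Crest.Agent.R096.Lm_117 Crest.Agent.R096.Ac_117 Crest.Agent.R096.Gl_422
  Crest.Agent.R096.Sec_892 Crest.Agent.R096.Cg_501 Crest.Agent.R096.Dinv_106

variable {ι Φ W J C Q : Type} {M : MeshC ι Φ W} {fam : J → C} {s : GSt M fam} {j j' : J}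

/-- the giant `q₀` carries exactly one interlaced pair of the names `j, j'` on the faces with a side
in `R` -/
structure OddDoor (s : GSt M fam) (j j' : J) (q₀ : ι) (R : Set ι) (F₀ : Φ) (w₀ x₀ : W) : Prop where
  side : q₀ ∈ M.side F₀
  reg : ∃ q ∈ M.side F₀, q ∈ R
  aw : s.At F₀ w₀
  lw : s.lab w₀ = j
  ax : s.At F₀ x₀
  lx : s.lab x₀ = j'
  lace : M.Lace F₀ w₀ (s.mu F₀ w₀) x₀ (s.mu F₀ x₀)
  uniq : ∀ F w x, q₀ ∈ M.side F → (∃ q ∈ M.side F, q ∈ R) → s.At F w → s.lab w = j →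
      s.At F x → s.lab x = j' → M.Lace F w (s.mu F w) x (s.mu F x) →
      F = F₀ ∧ (w = w₀ ∨ w = s.mu F₀ w₀) ∧ (x = x₀ ∨ x = s.mu F₀ x₀)

/-- **(T2)** -/
theorem giant_reach [PartialOrder Q] {dim : Q → ℕ} (L : LM M Q dim) (hne : j ≠ j') {q₀ : ι}
    {R Zc : Set ι} {F₀ : Φ} {w₀ x₀ : W} (D : OddDoor s j j' q₀ R F₀ w₀ x₀)
    (hc : ∀ q ∈ R, ∃ c, ∀ F, q ∈ M.side F → L.cf F ≤ c)
    (hbd : ∀ q, q ∈ Zc → q ∉ R → q ≠ q₀ → ∀ F w x, q ∈ M.side F → (∃ q' ∈ M.side F, q' ∈ R) →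
      s.At F w → s.lab w = j → s.At F x → s.lab x = j' →
      ¬ M.Lace F w (s.mu F w) x (s.mu F x))
    {Y : Set W} (hY : ∀ F w, (∃ q ∈ M.side F, q ∈ R) → w ∈ Y → s.At F w → s.lab w = j →
      s.mu F w ∈ Y) (hw₀ : w₀ ∈ Y) :
    ∃ q, q ∉ Zc ∧ ∃ F w x, q ∈ M.side F ∧ (∃ q' ∈ M.side F, q' ∈ R) ∧ s.At F w ∧ s.lab w = j ∧
      w ∈ Y ∧ s.At F x ∧ s.lab x = j' ∧ M.Lace F w (s.mu F w) x (s.mu F x) := by
  classical
  obtain ⟨h1, hu⟩ := xcR_door (j := j) D.side D.reg D.ax D.lx D.lace D.uniq D.aw D.lw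
  have hex := xcR_hex (s := s) (j := j) (j' := j') (R := R) L
    (Bad := {q | q ∉ Zc ∨ q = q₀}) hne hc (by
      intro q hR hB F w x hF hR' hA hl hx hxl
      have hB' : ¬ (q ∉ Zc ∨ q = q₀) := hB
      push Not at hB'
      exact hbd q hB'.1 hR hB'.2 F w x hF hR' hA hl hx hxl)
  have hRω : ∀ F w, xcR s j' R F w ≠ 0 → ∃ q ∈ M.side F, q ∈ R := fun F w h => (xcR_ne h).1
  obtain ⟨q, hq, hne', F, w, hqF, hA, -, hwY, hω⟩ :=
    door_reach (s := oneSt s j) (i := ()) (ω := xcR s j' R) {q | q ∉ Zc ∨ q = q₀} q₀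
      (fun F w hA _ => xcR_mu (oneSt_at.1 hA).1) Y
      (fun F w hw hA _ hω => hY F w (hRω F w hω) hw (oneSt_at.1 hA).1 (oneSt_at.1 hA).2)
      (fun q hq => by
        rcases hex q hq with h | ⟨hR, ψ, hψ⟩
        · exact Or.inl fun F w hqF hA _ => h F w hqF (oneSt_at.1 hA).1 (oneSt_at.1 hA).2
        · exact Or.inr ⟨⟨ψ, fun F w hqF hA _ => hψ F w hqF (oneSt_at.1 hA).1 (oneSt_at.1 hA).2⟩,
            fun F w hqF hA _ hw => hY F w ⟨q, hqF, hR⟩ hw (oneSt_at.1 hA).1 (oneSt_at.1 hA).2⟩)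
      D.side (oneSt_at.2 ⟨D.aw, D.lw⟩) rfl hw₀ h1
      (fun F w hqF hA _ hω => hu F w hqF (oneSt_at.1 hA).1 (oneSt_at.1 hA).2 hω)
  have hqZ : q ∉ Zc := by
    rcases (show q ∉ Zc ∨ q = q₀ from hq) with h | h
    · exact h
    · exact absurd h hne'
  obtain ⟨h2, x, hx, hxl, hL⟩ := xcR_ne hω
  exact ⟨q, hqZ, F, w, x, hqF, h2, (oneSt_at.1 hA).1, (oneSt_at.1 hA).2, hwY, hx, hxl, hL⟩

/-- the closed curve of `j` on the giant: one point in `Y` gives `w₀ ∈ Y` -/
def One1 (s : GSt M fam) (j : J) (q₀ : ι) : Prop :=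
  ∀ Z : Set W, (∀ F w, q₀ ∈ M.side F → w ∈ Z → s.At F w → s.lab w = j → s.mu F w ∈ Z) →
    ∀ F w F' w', q₀ ∈ M.side F → q₀ ∈ M.side F' → s.At F w → s.At F' w' → s.lab w = j →
    s.lab w' = j → w ∈ Z → w' ∈ Z

/-- **(T2), complement form** : `X` closed under the chords of `j` on the faces with a side in `R`
and on the giant `q₀`; if `X` contains all points of `j` on faces with a side outside the zone (and
a side in `R`), then it contains all points of `j` on the giant -/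
theorem giant_in [PartialOrder Q] {dim : Q → ℕ} (L : LM M Q dim) (hne : j ≠ j') {q₀ : ι}
    {R Zc : Set ι} {F₀ : Φ} {w₀ x₀ : W} (D : OddDoor s j j' q₀ R F₀ w₀ x₀)
    (hone : One1 s j q₀)
    (hc : ∀ q ∈ R, ∃ c, ∀ F, q ∈ M.side F → L.cf F ≤ c)
    (hbd : ∀ q, q ∈ Zc → q ∉ R → q ≠ q₀ → ∀ F w x, q ∈ M.side F → (∃ q' ∈ M.side F, q' ∈ R) →
      s.At F w → s.lab w = j → s.At F x → s.lab x = j' →
      ¬ M.Lace F w (s.mu F w) x (s.mu F x))
    {X : Set W} (hX : ∀ F w, ((∃ q ∈ M.side F, q ∈ R) ∨ q₀ ∈ M.side F) → w ∈ X → s.At F w →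
      s.lab w = j → s.mu F w ∈ X)
    (hout : ∀ q, q ∉ Zc → ∀ F w, q ∈ M.side F → (∃ q' ∈ M.side F, q' ∈ R) → s.At F w →
      s.lab w = j → w ∈ X) :
    ∀ F w, q₀ ∈ M.side F → s.At F w → s.lab w = j → w ∈ X := by
  intro F w hF hA hl
  by_contra hw
  have hcl : ∀ F w, ((∃ q ∈ M.side F, q ∈ R) ∨ q₀ ∈ M.side F) → w ∉ X → s.At F w →
      s.lab w = j → s.mu F w ∉ X := by
    intro F w hR hw hA hl h
    have h1 := hX F _ hR h (s.mu_mem hA.1 hA.2) ((s.mu_lab hA.1 hA.2).trans hl)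
    rw [s.mu_mu hA.1 hA.2] at h1
    exact hw h1
  have hw₀ : w₀ ∈ Xᶜ := hone Xᶜ (fun F w hF hw hA hl => hcl F w (Or.inr hF) hw hA hl) F w F₀ w₀
    hF D.side hA D.aw hl D.lw hw
  obtain ⟨q, hq, F', w', x', h1, h2, h3, h4, h5, -⟩ := giant_reach L hne D hc hbd (Y := Xᶜ)
    (fun F w hR hw hA hl => hcl F w (Or.inl hR) hw hA hl) hw₀
  exact h5 (hout q hq F' w' h1 h2 h3 h4)

/-! ### `Good` for the pair state -/

section pair

variable {Mo : Type} {am : Mo → C} {s : GSt M (Sum.map fam (id : Mo → Mo))}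

/-- no barrier point of the family `a` on the face `F` -/
def NB (s : GSt M (Sum.map fam (id : Mo → Mo))) (am : Mo → C) (a : C) (F : Φ) : Prop :=
  ∀ x m, s.At F x → s.lab x = Sum.inr m → am m ≠ a

variable {hs : BSep s am} {hm : ∀ a, {m | am m = a}.Finite} {a : C} {i0 : PN fam am a}

theorem no_dbl {F : Φ} (h : NB s am a F) (z : (pr s hs hm a i0).Dbl) : z.F ≠ F := by
  rintro rfl
  have h1 : HP (pr s hs hm a i0) (z.e false) := ⟨(z.at_ false).1, z.colr false⟩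
  obtain ⟨h2, m, h3, h4⟩ := pr_hp.1 h1
  exact h (z.e false) m ⟨h2, (z.at_ false).2⟩ h4 h3

theorem free_nb {F : Φ} (h : NB s am a F) (w : W) : (pr s hs hm a i0).Free F w :=
  fun z hz => absurd hz (no_dbl h z)

theorem st_free_mu {I : Type} {col : I → Bool} {t : St M col} {F : Φ} {w : W} (h : t.At F w) :
    t.Free F (t.mu F w) ↔ t.Free F w := by
  have e : t.lo F (t.mu F w) = t.lo F w := by
    unfold St.lo
    rw [t.mu_mu h.1 h.2]
    have hne : M.pos F w ≠ M.pos F (t.mu F w) := fun e =>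
      t.mu_ne h.1 h.2 (M.pos_inj F (t.mu_mem h.1 h.2).2 h.2 e.symm)
    by_cases h1 : M.pos F w ≤ M.pos F (t.mu F w)
    · rw [if_pos h1, if_neg (not_le.2 (lt_of_le_of_ne h1 hne))]
    · rw [if_neg h1, if_pos (not_le.1 h1).le]
  unfold St.Free
  rw [e]

/-- chords which are free in the pair state or on frozen faces -/
def OKp {I : Type} {col : I → Bool} (t : St M col) (Act : Set ι) (F : Φ) (w : W) : Prop :=
  t.Free F w ∨ St.Frozen M Act F

/-- one step along an `OKp` chord -/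
def PStep {I : Type} {col : I → Bool} (t : St M col) (Act : Set ι) (i : I) (w w' : W) : Prop :=
  ∃ F, t.At F w ∧ t.lab w = i ∧ OKp t Act F w ∧ w' = t.mu F w

theorem PStep.mem {I : Type} {col : I → Bool} {t : St M col} {Act : Set ι} {i : I} {w w' : W}
    (h : PStep t Act i w w') : w' ∈ t.P ∧ t.lab w' = i := by
  obtain ⟨F, h1, h2, _, rfl⟩ := h
  exact ⟨(t.mu_mem h1.1 h1.2).1, (t.mu_lab h1.1 h1.2).trans h2⟩

theorem PStep.symm {I : Type} {col : I → Bool} {t : St M col} {Act : Set ι} {i : I} {w w' : W}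
    (h : PStep t Act i w w') : PStep t Act i w' w := by
  obtain ⟨F, h1, h2, h3, rfl⟩ := h
  have h4 := t.mu_mem h1.1 h1.2
  exact ⟨F, h4, (t.mu_lab h1.1 h1.2).trans h2, h3.imp_left (st_free_mu h1).2,
    (t.mu_mu h1.1 h1.2).symm⟩

theorem preach_symm {I : Type} {col : I → Bool} {t : St M col} {Act : Set ι} {i : I} {w w' : W}
    (h : Relation.ReflTransGen (PStep t Act i) w w') :
    Relation.ReflTransGen (PStep t Act i) w' w := by
  induction h with
  | refl => exact Relation.ReflTransGen.refl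
  | tail _ h2 ih => exact Relation.ReflTransGen.head h2.symm ih

/-- **`Good` from one condition per name** : `far i` = class of the root under the chords which are
free or on frozen faces -/
theorem exists_good {I : Type} {col : I → Bool} {t : St M col} (Act : Set ι) (h1 : ∀ i, t.H1 i)
    (conn : ∀ i, t.Conn i) (r : I → W) (hr : ∀ i, r i ∈ t.P ∧ t.lab (r i) = i)
    (cl : ∀ i (X : Set W), r i ∈ X →
      (∀ F w, OKp t Act F w → w ∈ X → t.At F w → t.lab w = i → t.mu F w ∈ X) →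
      ∀ F w, t.At F w → t.lab w = i → St.Frozen M Act F → w ∈ X) :
    ∃ far : I → Set W, t.Good Act far ∧ (∀ i, r i ∈ far i) ∧
      ∀ i F w, w ∈ far i → t.At F w → OKp t Act F w → t.mu F w ∈ far i := by
  let far : I → Set W := fun i => {w | Relation.ReflTransGen (PStep t Act i) (r i) w}
  have hfm : ∀ {i w}, w ∈ far i → w ∈ t.P ∧ t.lab w = i := by
    intro i w hw
    induction hw with
    | refl => exact hr i
    | tail _ h _ => exact h.mem
  have hst : ∀ i F w, w ∈ far i → t.At F w → OKp t Act F w → t.mu F w ∈ far i := by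
    intro i F w hw hA hok
    exact Relation.ReflTransGen.tail hw ⟨F, hA, (hfm hw).2, hok, rfl⟩
  refine ⟨far, ⟨h1, conn, fun h => hfm h, fun i => ⟨r i, Relation.ReflTransGen.refl⟩, ?_, ?_⟩,
    fun i => Relation.ReflTransGen.refl, hst⟩
  · intro F w hA hF
    exact cl (t.lab w) (far (t.lab w)) Relation.ReflTransGen.refl
      (fun F' w' hok hw' hA' _ => hst _ F' w' hw' hA' hok) F w hA rfl hF
  · intro i X hX w hwX hwf w' hw'
    have h2 : Relation.ReflTransGen (PStep t Act i) w w' := (preach_symm hwf).trans hw'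
    have h3 : ∀ y, Relation.ReflTransGen (PStep t Act i) w y → y ∈ X ∧ y ∈ far i := by
      intro y hy
      induction hy with
      | refl => exact ⟨hwX, hwf⟩
      | @tail y z _ hz ih =>
        obtain ⟨F, hA, hl, hok, rfl⟩ := hz
        have hmf := hst i F y ih.2 hA hok
        exact ⟨hX F y ih.1 ih.2 hA hmf hok, hmf⟩
    exact (h3 w' h2).1

/-- **`Good` for 501's pair state** : one closed set condition per name, in terms of the global
state, with chords on faces which are frozen or carry no barrier point of `a` -/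
theorem good_pr (Act : Set ι) (h1 : ∀ i : PN fam am a, s.H1 i.1)
    (conn : ∀ i : PN fam am a, s.Conn i.1) (r : PN fam am a → W)
    (hr : ∀ i, r i ∈ s.P ∧ s.lab (r i) = i.1)
    (cl : ∀ (i : PN fam am a) (X : Set W), r i ∈ X →
      (∀ F w, (NB s am a F ∨ St.Frozen M Act F) → w ∈ X → s.At F w → s.lab w = i.1 →
        s.mu F w ∈ X) → ∀ F w, s.At F w → s.lab w = i.1 → St.Frozen M Act F → w ∈ X) :
    ∃ far : PN fam am a → Set W, (pr s hs hm a i0).Good Act far ∧ (∀ i, r i ∈ far i) ∧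
      ∀ i F w, w ∈ far i → (pr s hs hm a i0).At F w → OKp (pr s hs hm a i0) Act F w →
        s.mu F w ∈ far i := by
  refine exists_good Act (fun i => pr_H1 i (h1 i)) (fun i => pr_Conn i (conn i)) r ?_ ?_
  · intro i
    have hin : Sum.elim fam am (s.lab (r i)) = a := by rw [(hr i).2]; exact i.2
    exact ⟨mem_pr.2 ⟨(hr i).1, hin⟩, (pr_lab_iff hin).2 (hr i).2⟩
  · intro i X hrX hX F w hA hl hF
    obtain ⟨hA', hin⟩ := pr_at.1 hA
    refine cl i X hrX ?_ F w hA' ((pr_lab_iff hin).1 hl) hF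
    intro F' w' hok hw' hA'' hl'
    have hin' : Sum.elim fam am (s.lab w') = a := by rw [hl']; exact i.2
    refine hX F' w' ?_ hw' (pr_at.2 ⟨hA'', hin'⟩) ((pr_lab_iff hin').2 hl')
    exact hok.imp_left fun h => free_nb h w'

/-- the condition `cl` of a barrier: all its points on frozen faces lie on one giant `g` -/
theorem cl_bar {Act : Set ι} {n : J ⊕ Mo} {g : ι} (hg : g ∉ Act) (hone : One1 s n g)
    (hfr : ∀ F w, s.At F w → s.lab w = n → St.Frozen M Act F → g ∈ M.side F) {r : W}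
    (hr : ∃ F, g ∈ M.side F ∧ s.At F r ∧ s.lab r = n) (X : Set W) (hrX : r ∈ X)
    (hX : ∀ F w, (NB s am a F ∨ St.Frozen M Act F) → w ∈ X → s.At F w → s.lab w = n →
        s.mu F w ∈ X) : ∀ F w, s.At F w → s.lab w = n → St.Frozen M Act F → w ∈ X := by
  intro F w hA hl hF
  obtain ⟨F₀, h1, h2, h3⟩ := hr
  exact hone X (fun F w hF hw hA hl => hX F w (Or.inr ⟨g, hF, hg⟩) hw hA hl) F₀ r F w h1
    (hfr F w hA hl hF) h2 hA h3 hl hrX

/-- **the condition `cl` of a sheet** : frozen faces are giants (`Gt`) or outer faces; `hout` = the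
outer points are joined with the root; every giant with a point of `j` has an odd door into a region
`R` without barrier points, in a zone `Zc` whose outer cells are outer -/
theorem cl_sheet [PartialOrder Q] {dim : Q → ℕ} (L : LM M Q dim) {Act Gt : Set ι}
    (hGA : ∀ g ∈ Gt, g ∉ Act) {n : J ⊕ Mo} {r : W}
    (hout : ∀ X : Set W, r ∈ X → (∀ F w, (NB s am a F ∨ St.Frozen M Act F) → w ∈ X → s.At F w →
      s.lab w = n → s.mu F w ∈ X) → ∀ F w, s.At F w → s.lab w = n →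
      (∃ q ∈ M.side F, q ∉ Act ∧ q ∉ Gt) → w ∈ X)
    (hdoor : ∀ g ∈ Gt, (∃ F w, g ∈ M.side F ∧ s.At F w ∧ s.lab w = n) → One1 s n g ∧
      ∃ (n' : J ⊕ Mo) (R Zc : Set ι) (F₀ : Φ) (w₀ x₀ : W), n ≠ n' ∧
        OddDoor s n n' g R F₀ w₀ x₀ ∧
        (∀ q ∈ R, ∃ c, ∀ F, q ∈ M.side F → L.cf F ≤ c) ∧
        (∀ q, q ∈ Zc → q ∉ R → q ≠ g → ∀ F w x, q ∈ M.side F → (∃ q' ∈ M.side F, q' ∈ R) →
          s.At F w → s.lab w = n → s.At F x → s.lab x = n' →
          ¬ M.Lace F w (s.mu F w) x (s.mu F x)) ∧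
        (∀ q ∈ R, ∀ F, q ∈ M.side F → NB s am a F) ∧
        ∀ q, q ∉ Zc → ∀ F w, q ∈ M.side F → (∃ q' ∈ M.side F, q' ∈ R) → s.At F w → s.lab w = n →
          ∃ F', w ∈ M.On F' ∧ ∃ q' ∈ M.side F', q' ∉ Act ∧ q' ∉ Gt)
    (X : Set W) (hrX : r ∈ X)
    (hX : ∀ F w, (NB s am a F ∨ St.Frozen M Act F) → w ∈ X → s.At F w → s.lab w = n →
        s.mu F w ∈ X) : ∀ F w, s.At F w → s.lab w = n → St.Frozen M Act F → w ∈ X := by
  have ho := hout X hrX hX
  rintro F w hA hl ⟨q, hqF, hq⟩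
  by_cases hg : q ∈ Gt
  · obtain ⟨h1, n', R, Zc, F₀, w₀, x₀, hne, D, hc, hbd, hnb, hz⟩ :=
      hdoor q hg ⟨F, w, hqF, hA, hl⟩
    refine giant_in L hne D h1 hc hbd (X := X) ?_ ?_ F w hqF hA hl
    · rintro F' w' (⟨q', h2, h3⟩ | h2) hw' hA' hl'
      · exact hX F' w' (Or.inl (hnb q' h3 F' h2)) hw' hA' hl'
      · exact hX F' w' (Or.inr ⟨q, h2, hGA q hg⟩) hw' hA' hl'
    · intro q' hq' F' w' h2 h3 hA' hl'
      obtain ⟨F'', h4, h5⟩ := hz q' hq' F' w' h2 h3 hA' hl'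
      exact ho F'' w' ⟨hA'.1, h4⟩ hl' h5
  · exact ho F w hA hl ⟨q, hqF, hq, hg⟩

end pair

end Crest.Agent.R096.Sgd_298
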