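import Crest.Agent.R096.Sec12_892
import Crest.Agent.R096.Sec17_892
import Crest.Agent.R096.Sgd2_298

/-!
# R096 / DOORS-SEC, part 13 (helper892): CUT for all families at once

`cutAll` : from a state with barriers `s : GSt M (Sum.map fam id)`, `Good`, `Two`, `Room` for the pair
state of every family, to the state `s₃ : GSt M fam` of the families after the cut.
-/

set_option autoImplicit false

namespace Crest.Agent.R096.SecW_892

open Crest.Agent.R096.St_147 Crest.Agent.R096.Seq_213 Crest.Agent.R096.Sec_892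
  Crest.Agent.R096.Cg_501 Crest.Agent.R096.Sgd_298 Crest.Agent.R096.Cnp_824
open Crest.Agent.R096.Pbn_147 (PBN TrD TrQ ConnT trQ_of_pbn)

/-- choices with finite support, one after the other -/
theorem exists_seqP {C W : Type} [Countable C] {T : C → Type} (pts : ∀ c, T c → Finset W)
    (good : ∀ c, Finset W → T c → Prop) (h : ∀ c (Ph : Finset W), ∃ t, good c Ph t) :
    ∃ (t : ∀ c, T c) (Ph : C → Finset W), (∀ c, good c (Ph c) (t c)) ∧
      ∀ c c', c ≠ c' → pts c (t c) ⊆ Ph c' ∨ pts c' (t c') ⊆ Ph c := by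
  classical
  obtain ⟨e, he⟩ := exists_injective_nat C
  choose ch hch using h
  let Acc : ℕ → Finset W := fun n => Nat.rec (∅ : Finset W) (fun n A => A ∪
    if h : ∃ c, e c = n then pts h.choose (ch h.choose A) else ∅) n
  have hAcc : ∀ n, Acc (n + 1) = Acc n ∪
      if h : ∃ c, e c = n then pts h.choose (ch h.choose (Acc n)) else ∅ := fun n => rfl
  have hmono : Monotone Acc := monotone_nat_of_le_succ fun n => by
    rw [hAcc]; exact Finset.subset_union_left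
  have hin : ∀ c, pts c (ch c (Acc (e c))) ⊆ Acc (e c + 1) := by
    intro c
    have h1 : ∃ c', e c' = e c := ⟨c, rfl⟩
    have h2 : h1.choose = c := he h1.choose_spec
    have h3 : ∀ c', c' = c → pts c' (ch c' (Acc (e c))) = pts c (ch c (Acc (e c))) := by
      rintro _ rfl; rfl
    rw [hAcc, dif_pos h1, h3 _ h2]
    exact Finset.subset_union_right
  refine ⟨fun c => ch c (Acc (e c)), fun c => Acc (e c), fun c => hch c _, ?_⟩
  intro c c' hne
  rcases lt_trichotomy (e c) (e c') with h1 | h1 | h1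
  · left
    exact (hin c).trans (hmono h1)
  · exact absurd (he h1) hne
  · right
    exact (hin c').trans (hmono h1)

variable {ι Φ W J C Mo : Type} {M : MeshC ι Φ W} {fam : J → C} {am : Mo → C}

/-- the pair state of the family `a` (`j0 a` = some sheet of `a`) -/
noncomputable abbrev prS (s : GSt M (Sum.map fam (id : Mo → Mo))) (hs : BSep s am)
    (hm : ∀ a, {m | am m = a}.Finite) (j0 : C → J) (hj0 : ∀ a, fam (j0 a) = a) (a : C) :
    St M (pcol fam am a) := pr s hs hm a ⟨Sum.inl (j0 a), hj0 a⟩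

/-- the name of a sheet in the pair state -/
def nL (am : Mo → C) (j : J) : PN fam am (fam j) := ⟨Sum.inl j, rfl⟩

/-- **the relation between the state with barriers and the cut state** -/
structure CutR (s : GSt M (Sum.map fam (id : Mo → Mo))) (hs : BSep s am)
    (hm : ∀ a, {m | am m = a}.Finite) (j0 : C → J) (hj0 : ∀ a, fam (j0 a) = a)
    (Act : C → Set ι) (far : ∀ a, PN fam am a → Set W) (t : ∀ a, St M (pcol fam am a))
    (Ph : C → Finset W) (s₃ : GSt M fam) : Prop where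
  good0 : ∀ a, (prS s hs hm j0 hj0 a).Good (Act a) (far a)
  good : ∀ a, (t a).Good (Act a) (far a)
  cl2 : ∀ a, CL2 (Act a) (far a) (Ph a) (t a) (prS s hs hm j0 hj0 a)
  dbl : ∀ a, DblN (t a) (prS s hs hm j0 hj0 a)
  encN : ∀ a, EncN (Act a) (far a) (Ph a) (t a) (prS s hs hm j0 hj0 a)
  trn : ∀ a, TrN (Act a) (far a) (t a) (prS s hs hm j0 hj0 a)
  /-- 147's pull back with the values of the double points and the new points -/
  pbn : ∀ a, PBN (Act a) (far a) (Ph a) (t a) (prS s hs hm j0 hj0 a)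
  /-- no closed double curves -/
  noc : ∀ a (A : (t a).Arcs (Act a)) (G : Set (t a).Dbl), A.Closed G → G = ∅
  sub : ∀ a, (prS s hs hm j0 hj0 a).P ⊆ Ph a
  /-- `Ph a` contains all points on the faces at the points of the pair state -/
  full : ∀ a h F, h ∈ (prS s hs hm j0 hj0 a).P → h ∈ M.On F → ∀ v ∈ s.P, v ∈ M.On F → v ∈ Ph a
  new : ∀ a w, w ∈ (t a).P → w ∉ (prS s hs hm j0 hj0 a).P → w ∉ s.P
  mem : ∀ {j w}, (w ∈ s₃.P ∧ s₃.lab w = j) ↔
    (w ∈ (t (fam j)).P ∧ (t (fam j)).lab w = nL am j)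
  mu : ∀ {F w}, w ∈ s₃.P → s₃.mu F w = (t (fam (s₃.lab w))).mu F w

section cutAll

variable {s : GSt M (Sum.map fam (id : Mo → Mo))} {hs : BSep s am}
  {hm : ∀ a, {m | am m = a}.Finite} {j0 : C → J} {hj0 : ∀ a, fam (j0 a) = a}
  {Act : C → Set ι} {far : ∀ a, PN fam am a → Set W}

/-- **CUT for all families at once** -/
theorem cutAll [Countable C] [Nonempty C]
    (hg : ∀ a, (prS s hs hm j0 hj0 a).Good (Act a) (far a))
    (hu : ∀ a, ∃ up, Two (prS s hs hm j0 hj0 a) up ∧ Room (prS s hs hm j0 hj0 a) up)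
    (hfin : ∀ F, (s.P ∩ M.On F).Finite) :
    ∃ (t : ∀ a, St M (pcol fam am a)) (Ph : C → Finset W) (s₃ : GSt M fam),
      CutR s hs hm j0 hj0 Act far t Ph s₃ := by
  classical
  set base : C → Finset W := fun a => (prS s hs hm j0 hj0 a).P ∪
    (prS s hs hm j0 hj0 a).P.biUnion fun h => (M.fs h).biUnion fun F => (hfin F).toFinset
    with hbase
  obtain ⟨t, Q, hgood, hdis⟩ := exists_seqP (T := fun a => St M (pcol fam am a))
    (fun a t => t.P) (fun a Q t => t.Good (Act a) (far a) ∧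
      CL2 (Act a) (far a) (base a ∪ Q) t (prS s hs hm j0 hj0 a) ∧
      DblN t (prS s hs hm j0 hj0 a) ∧
      EncN (Act a) (far a) (base a ∪ Q) t (prS s hs hm j0 hj0 a) ∧
      TrN (Act a) (far a) t (prS s hs hm j0 hj0 a) ∧
      PBN (Act a) (far a) (base a ∪ Q) t (prS s hs hm j0 hj0 a) ∧
      ∀ (A : t.Arcs (Act a)) (G : Set t.Dbl), A.Closed G → G = ∅) (by
    intro a Q
    obtain ⟨up, h2, hr⟩ := hu a
    obtain ⟨t, h3, h4, h5, h6, h7, h8, h9⟩ := cutY up (prS s hs hm j0 hj0 a) (hg a) h2 hr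
      (base a ∪ Q) (Finset.subset_union_left.trans Finset.subset_union_left)
    exact ⟨t, h3, h4, h5, h6, h7, h8, h9⟩)
  have hsub : ∀ a, (prS s hs hm j0 hj0 a).P ⊆ base a ∪ Q a := fun a =>
    Finset.subset_union_left.trans Finset.subset_union_left
  have hfull : ∀ a h F, h ∈ (prS s hs hm j0 hj0 a).P → h ∈ M.On F → ∀ v ∈ s.P, v ∈ M.On F →
      v ∈ base a ∪ Q a := by
    intro a h F h1 h2 v hv hvF
    refine Finset.mem_union_left _ (Finset.mem_union_right _ ?_)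
    rw [Finset.mem_biUnion]
    refine ⟨h, h1, ?_⟩
    rw [Finset.mem_biUnion]
    exact ⟨F, MeshC.mem_fs.2 h2, (hfin F).mem_toFinset.2 ⟨hv, hvF⟩⟩
  have hnew : ∀ a w, w ∈ (t a).P → w ∉ (prS s hs hm j0 hj0 a).P → w ∉ s.P := by
    intro a w hw hwp hws
    obtain ⟨h, h1, ⟨F, h2⟩, h3, -⟩ := (hgood a).2.2.2.1 w hw hwp
    have hwF : w ∈ M.On F := (h3.1 F).2 h2
    rcases (hgood a).2.1.cle.P w hw with h4 | h4
    · exact hwp h4
    · exact h4.1 (hfull a h F h1.1 h2 w hws hwF)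
  have key : ∀ a w, w ∈ (t a).P → (w ∈ s.P ∧ Sum.elim fam am (s.lab w) = a) ∨
      (w ∉ s.P ∧ w ∉ base a ∪ Q a) := by
    intro a w hw
    by_cases h : w ∈ (prS s hs hm j0 hj0 a).P
    · exact Or.inl (mem_pr.1 h)
    · refine Or.inr ⟨hnew a w hw h, ?_⟩
      exact ((hgood a).2.1.cle.P w hw).resolve_left h |>.1
  have hd : ∀ {a b w}, w ∈ (piece a (j0 a) (t a)).P → w ∈ (piece b (j0 b) (t b)).P → a = b := by
    rintro a b w ⟨ha, -⟩ ⟨hb, -⟩
    by_contra hne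
    rcases key a w ha with ⟨h1, h2⟩ | ⟨h1, h2⟩
    · rcases key b w hb with ⟨h3, h4⟩ | ⟨h3, h4⟩
      · exact hne (h2.symm.trans h4)
      · exact h3 h1
    · rcases key b w hb with ⟨h3, h4⟩ | ⟨h3, h4⟩
      · exact h1 h3
      · rcases hdis a b hne with h5 | h5
        · exact h4 (Finset.mem_union_right _ (h5 ha))
        · exact h2 (Finset.mem_union_right _ (h5 hb))
  refine ⟨t, fun a => base a ∪ Q a, gather (fun a => piece a (j0 a) (t a)) hd, hg,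
    fun a => (hgood a).1, fun a => (hgood a).2.1, fun a => (hgood a).2.2.1,
    fun a => (hgood a).2.2.2.1, fun a => (hgood a).2.2.2.2.1, fun a => (hgood a).2.2.2.2.2.1,
    fun a => (hgood a).2.2.2.2.2.2, hsub, hfull, hnew, ?_, ?_⟩
  · intro j w
    constructor
    · rintro ⟨h1, h2⟩
      have h3 : w ∈ (piece (fam j) (j0 (fam j)) (t (fam j))).P :=
        (gather_fam (hd := hd)).1 ⟨h1, by rw [h2]⟩
      refine (piece_iff (j0 := j0 (fam j)) rfl).1 ⟨h3, ?_⟩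
      rw [← gather_lab (hd := hd) h3]; exact h2
    · intro h
      obtain ⟨h1, h2⟩ := (piece_iff (j0 := j0 (fam j)) (t := t (fam j)) (j := j) rfl).2 h
      exact ⟨⟨_, h1⟩, by rw [gather_lab (hd := hd) h1]; exact h2⟩
  · intro F w hw
    have h3 : w ∈ (piece (fam ((gather (fun a => piece a (j0 a) (t a)) hd).lab w)) _
      (t (fam ((gather (fun a => piece a (j0 a) (t a)) hd).lab w)))).P :=
      (gather_fam (hd := hd)).1 ⟨hw, rfl⟩
    rw [gather_mu (hd := hd) F h3]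
    rfl

end cutAll

namespace CutR

variable {s : GSt M (Sum.map fam (id : Mo → Mo))} {hs : BSep s am}
  {hm : ∀ a, {m | am m = a}.Finite} {j0 : C → J} {hj0 : ∀ a, fam (j0 a) = a}
  {Act : C → Set ι} {far : ∀ a, PN fam am a → Set W} {t : ∀ a, St M (pcol fam am a)}
  {Ph : C → Finset W} {s₃ : GSt M fam}

theorem mu' (D : CutR s hs hm j0 hj0 Act far t Ph s₃) {F : Φ} {w : W} {j : J} (hw : w ∈ s₃.P)
    (hl : s₃.lab w = j) : s₃.mu F w = (t (fam j)).mu F w := by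
  subst hl; exact D.mu hw

theorem at_iff (D : CutR s hs hm j0 hj0 Act far t Ph s₃) {F : Φ} {w : W} {j : J} :
    (s₃.At F w ∧ s₃.lab w = j) ↔ ((t (fam j)).At F w ∧ (t (fam j)).lab w = nL am j) := by
  constructor
  · rintro ⟨h1, h2⟩
    obtain ⟨h3, h4⟩ := D.mem.1 ⟨h1.1, h2⟩
    exact ⟨⟨h3, h1.2⟩, h4⟩
  · rintro ⟨h1, h2⟩
    obtain ⟨h3, h4⟩ := D.mem.2 ⟨h1.1, h2⟩
    exact ⟨⟨h3, h1.2⟩, h4⟩

theorem h1 (D : CutR s hs hm j0 hj0 Act far t Ph s₃) (j : J) : s₃.H1 j := by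
  intro κ hκ
  obtain ⟨Ψ, hΨ⟩ := (D.good (fam j)).h1 (nL am j) κ (fun q => by
    obtain ⟨ψ, hψ⟩ := hκ q
    refine ⟨ψ, fun F w hq hw hl => ?_⟩
    obtain ⟨e1, e2⟩ := D.at_iff.2 ⟨hw, hl⟩
    rw [hψ F w hq e1 e2, D.mu' e1.1 e2])
  refine ⟨Ψ, fun F w hw hl => ?_⟩
  obtain ⟨e1, e2⟩ := D.at_iff.1 ⟨hw, hl⟩
  rw [hΨ F w e1 e2, D.mu' hw.1 hl]

theorem conn (D : CutR s hs hm j0 hj0 Act far t Ph s₃) (j : J) : s₃.Conn j := by
  obtain ⟨⟨w, hw, hl⟩, h2⟩ := (D.good (fam j)).conn (nL am j)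
  obtain ⟨e1, e2⟩ := D.mem.2 ⟨hw, hl⟩
  refine ⟨⟨w, e1, e2⟩, ?_⟩
  intro X hX x hx hxP hxl y hyP hyl
  obtain ⟨a1, a2⟩ := D.mem.1 ⟨hxP, hxl⟩
  obtain ⟨b1, b2⟩ := D.mem.1 ⟨hyP, hyl⟩
  refine h2 X ?_ x hx a1 a2 y b1 b2
  intro F u hu hA hul
  obtain ⟨c1, c2⟩ := D.at_iff.2 ⟨hA, hul⟩
  rw [← D.mu' c1.1 c2]
  exact hX F u hu c1 c2

/-- common points have the same name -/
theorem old (D : CutR s hs hm j0 hj0 Act far t Ph s₃) {w : W} (hw : w ∈ s₃.P) (hws : w ∈ s.P) :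
    s.lab w = Sum.inl (s₃.lab w) := by
  obtain ⟨h1, h2⟩ := D.mem.1 ⟨hw, rfl⟩
  by_cases h : w ∈ (prS s hs hm j0 hj0 (fam (s₃.lab w))).P
  · have h3 := (D.cl2 _).lab w h1 h
    rw [h2] at h3
    have h4 := (pr_lab_iff (mem_pr.1 h).2).1 h3.symm
    exact h4
  · exact absurd hws (D.new _ w h1 h)

theorem pr_mem (D : CutR s hs hm j0 hj0 Act far t Ph s₃) {w : W} (hw : w ∈ s₃.P)
    (hws : w ∈ s.P) : w ∈ (prS s hs hm j0 hj0 (fam (s₃.lab w))).P :=
  mem_pr.2 ⟨hws, by rw [D.old hw hws]; rfl⟩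

/-- a point of `s` with the name `inl j` in the pair state -/
theorem pr_of (D : CutR s hs hm j0 hj0 Act far t Ph s₃) {w : W} {j : J} (hw : w ∈ s.P)
    (hl : s.lab w = Sum.inl j) : w ∈ (prS s hs hm j0 hj0 (fam j)).P ∧
      (prS s hs hm j0 hj0 (fam j)).lab w = nL am j := by
  have h : Sum.elim fam am (s.lab w) = fam j := by rw [hl]; rfl
  exact ⟨mem_pr.2 ⟨hw, h⟩, (pr_lab_iff h).2 hl⟩

theorem pr_of' (D : CutR s hs hm j0 hj0 Act far t Ph s₃) {w : W} {j : J}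
    (hw : w ∈ (prS s hs hm j0 hj0 (fam j)).P)
    (hl : (prS s hs hm j0 hj0 (fam j)).lab w = nL am j) : w ∈ s.P ∧ s.lab w = Sum.inl j := by
  obtain ⟨h1, h2⟩ := mem_pr.1 hw
  exact ⟨h1, (pr_lab_iff h2).1 hl⟩

/-- **new points are next to barrier points enclosed by their own sheet** -/
theorem newN (D : CutR s hs hm j0 hj0 Act far t Ph s₃) {w : W} (hw : w ∈ s₃.P) (hws : w ∉ s.P) :
    ∃ h ∈ s.P, ∃ m, s.lab h = Sum.inr m ∧ am m = fam (s₃.lab w) ∧ (∃ F, h ∈ M.On F) ∧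
      (∀ F, w ∈ M.On F ↔ h ∈ M.On F) ∧
      (∀ F v, h ∈ M.On F → v ∈ s.P → v ∈ M.On F → v ≠ h →
        (M.pos F v < M.pos F h ↔ M.pos F v < M.pos F w)) ∧
      ∃ X : Set W, h ∈ X ∧ (∀ x ∈ X, x ∈ s.P ∧ s.lab x = Sum.inr m) ∧
        (∀ F x, x ∈ X → s.At F x → (∀ y, s.At F y → s.lab y = Sum.inl (s₃.lab w) →
          ¬ M.Lace F x (s.mu F x) y (s.mu F y)) → s.mu F x ∈ X) ∧
        ∀ x ∈ X, ∀ F, s.At F x → ¬ St.Frozen M (Act (am m)) F := by
  obtain ⟨h1, h2⟩ := D.mem.1 ⟨hw, rfl⟩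
  have hwp : w ∉ (prS s hs hm j0 hj0 (fam (s₃.lab w))).P := fun h => hws (mem_pr.1 h).1
  obtain ⟨h, h3, h4, h5, X, h6, h7, h8, h9⟩ := D.encN _ w h1 hwp
  obtain ⟨h10, m, h11, h12⟩ := pr_hp.1 h3
  refine ⟨h, h10, m, h12, h11, h4, h5.1, ?_, X, h6, ?_, ?_, ?_⟩
  · intro F v hF hv hvF hne
    exact h5.2 F v hF (D.full _ h F h3.1 hF v hv hvF) hvF hne
  · intro x hx
    obtain ⟨g1, g2⟩ := h7 x hx
    obtain ⟨g3, m', g4, g5⟩ := pr_hp.1 g1
    refine ⟨g3, ?_⟩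
    have e1 : Sum.elim fam am (s.lab h) = fam (s₃.lab w) := by rw [h12]; exact h11
    have e2 := (pr_lab_iff (by rw [g5]; exact g4)).1 g2
    have e3 := (pr_lab_iff (hs := hs) (hm := hm) (i0 := ⟨Sum.inl (j0 (fam (s₃.lab w))), hj0 _⟩)
      e1).1 rfl
    rw [e2, ← e3, h12]
  · intro F x hx hA hno
    obtain ⟨g1, g2⟩ := h7 x hx
    refine h8 F x hx ⟨g1.1, hA.2⟩ ?_
    intro z hF he hl
    subst hF
    have hA' : (prS s hs hm j0 hj0 (fam (s₃.lab w))).At z.F x := ⟨g1.1, hA.2⟩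
    have h13 := z.lace
    rw [he] at h13
    have h14 := (lace_lo_right (prS s hs hm j0 hj0 (fam (s₃.lab w))) hA' _ _).1 h13
    have h15 := lace_comm (prS s hs hm j0 hj0 (fam (s₃.lab w))) (z.at_ true) hA' (by
      intro e
      have h16 := z.colr true
      have h17 := g1.2
      rw [← e, h16] at h17
      exact Bool.false_ne_true h17.symm) h14
    obtain ⟨h18, h19⟩ := pr_at.1 (z.at_ true)
    rw [h2] at hl
    exact hno (z.e true) h18 ((pr_lab_iff h19).1 hl) h15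
  · intro x hx F hA
    obtain ⟨g1, g2⟩ := h7 x hx
    rw [h11]
    exact (h9 x hx).2 F ⟨g1.1, hA.2⟩

/-- new points are next to enclosed barrier points -/
theorem new' (D : CutR s hs hm j0 hj0 Act far t Ph s₃) {w : W} (hw : w ∈ s₃.P) (hws : w ∉ s.P) :
    ∃ h ∈ s.P, ∃ m, s.lab h = Sum.inr m ∧ am m = fam (s₃.lab w) ∧ (∃ F, h ∈ M.On F) ∧
      (∀ F, w ∈ M.On F ↔ h ∈ M.On F) ∧
      ∃ X : Set W, h ∈ X ∧ (∀ x ∈ X, x ∈ s.P ∧ s.lab x = Sum.inr m) ∧
        (∀ F x, x ∈ X → s.At F x → (∀ y, s.At F y → (∃ i, s.lab y = Sum.inl i ∧ fam i = am m) →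
          ¬ M.Lace F x (s.mu F x) y (s.mu F y)) → s.mu F x ∈ X) ∧
        ∀ x ∈ X, ∀ F, s.At F x → ¬ St.Frozen M (Act (am m)) F := by
  obtain ⟨h, h1, m, h2, h3, h4, h5, -, X, h6, h7, h8, h9⟩ := D.newN hw hws
  exact ⟨h, h1, m, h2, h3, h4, h5, X, h6, h7, fun F x hx hA hno => h8 F x hx hA
    fun y hy hl => hno y hy ⟨_, hl, h3.symm⟩, h9⟩

/-- nothing changes on frozen faces -/
theorem frozen (D : CutR s hs hm j0 hj0 Act far t Ph s₃) {F : Φ} {w : W} {j : J}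
    (hF : St.Frozen M (Act (fam j)) F) :
    (s₃.At F w ∧ s₃.lab w = j) ↔ (s.At F w ∧ s.lab w = Sum.inl j) := by
  constructor
  · rintro ⟨h1, h2⟩
    obtain ⟨h3, h4⟩ := D.at_iff.1 ⟨h1, h2⟩
    have h5 := ((D.cl2 (fam j)).cle.frozen_P F w hF h1.2).1 h3.1
    have h6 := (D.cl2 (fam j)).lab w h3.1 h5
    obtain ⟨h7, h8⟩ := D.pr_of' h5 (h6.symm.trans h4)
    exact ⟨⟨h7, h1.2⟩, h8⟩
  · rintro ⟨h1, h2⟩
    obtain ⟨h3, h4⟩ := D.pr_of h1.1 h2
    have h5 := ((D.cl2 (fam j)).cle.frozen_P F w hF h1.2).2 h3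
    have h6 := (D.cl2 (fam j)).lab w h5 h3
    obtain ⟨h7, h8⟩ := D.mem.2 ⟨h5, h6.trans h4⟩
    exact ⟨⟨h7, h1.2⟩, h8⟩

theorem frozen_mu (D : CutR s hs hm j0 hj0 Act far t Ph s₃) {F : Φ} {w : W} (hw : s₃.At F w)
    (hF : St.Frozen M (Act (fam (s₃.lab w))) F) : s₃.mu F w = s.mu F w := by
  obtain ⟨h1, h2⟩ := (D.frozen hF).1 ⟨hw, rfl⟩
  obtain ⟨h3, h4⟩ := D.pr_of h1.1 h2
  rw [D.mu hw.1]
  exact (D.cl2 _).cle.frozen_mu F w hF ⟨h3, hw.2⟩

/-- free chords with a kept end are kept -/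
theorem off (D : CutR s hs hm j0 hj0 Act far t Ph s₃) {F : Φ} {w : W} (hw : s₃.At F w)
    (hws : w ∈ s.P) (hf : (prS s hs hm j0 hj0 (fam (s₃.lab w))).Free F w) :
    s₃.mu F w = s.mu F w := by
  obtain ⟨h3, h4⟩ := D.pr_of hws (D.old hw.1 hws)
  obtain ⟨h1, -⟩ := D.mem.1 ⟨hw.1, rfl⟩
  rw [D.mu hw.1]
  exact ((D.cl2 _).off F w ⟨h3, hw.2⟩ h1 hf).1

/-- on faces without barrier points of the family there are only old points -/
theorem on_nb (D : CutR s hs hm j0 hj0 Act far t Ph s₃) {F : Φ} {w : W} (hw : s₃.At F w)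
    (hF : NB s am (fam (s₃.lab w)) F) : w ∈ s.P := by
  by_contra h
  obtain ⟨v, h1, m, h2, h3, -, h4, -⟩ := D.new' hw.1 h
  exact hF v m ⟨h1, (h4 F).1 hw.2⟩ h2 h3

/-- chords on faces without barrier points of the family -/
theorem mu_nb (D : CutR s hs hm j0 hj0 Act far t Ph s₃) {F : Φ} {w : W} (hw : s₃.At F w)
    (hF : NB s am (fam (s₃.lab w)) F) : s₃.mu F w = s.mu F w :=
  D.off hw (D.on_nb hw hF) (free_nb hF w)

/-- **pull back of closed sets** -/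
theorem pb (D : CutR s hs hm j0 hj0 Act far t Ph s₃) {j : J} {K : Φ → W → Prop}
    (hK : ∀ q F F' h m, q ∈ M.side F → q ∈ M.side F' → s.At F' h → s.lab h = Sum.inr m →
      am m = fam j → ∀ w, K F w) {X' : Set W}
    (hX' : ∀ F w, s₃.At F w → s₃.lab w = j → K F w → (w ∈ X' ↔ s₃.mu F w ∈ X')) :
    ∃ X : Set W, (∀ F w, s.At F w → s.lab w = Sum.inl j → K F w → (w ∈ X ↔ s.mu F w ∈ X)) ∧
      ∀ w, w ∈ s.P → s.lab w = Sum.inl j → w ∈ s₃.P → (w ∈ X ↔ w ∈ X') := by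
  obtain ⟨X, h1, h2⟩ := (D.cl2 (fam j)).pb (nL am j) rfl K
    (fun q F F' h hq hq' hh hF' w => by
      obtain ⟨h3, m, h4, h5⟩ := pr_hp.1 hh
      exact hK q F F' h m hq hq' ⟨h3, hF'⟩ h5 h4 w) X' (fun F w hw hl hk => by
      obtain ⟨e1, e2⟩ := D.at_iff.2 ⟨hw, hl⟩
      rw [← D.mu' e1.1 e2]
      exact hX' F w e1 e2 hk)
  refine ⟨X, ?_, ?_⟩
  · intro F w hw hl hk
    obtain ⟨e1, e2⟩ := D.pr_of hw.1 hl
    exact h1 F w ⟨e1, hw.2⟩ e2 hk
  · intro w hw hl hw₃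
    obtain ⟨e1, e2⟩ := D.pr_of hw hl
    have e3 : s₃.lab w = j := Sum.inl_injective ((D.old hw₃ hw).symm.trans hl)
    obtain ⟨e4, e5⟩ := D.mem.1 ⟨hw₃, e3⟩
    exact h2 w e1 e2 e4 e5

/-- **the new points** (824's clause `TrN` in `GSt` form): `R` = a set of faces; `hR`: the barrier
points of the family on faces of `R` are joined by chords on faces of `R` with a point `y` which is
joined with a frozen point by chords not crossed by the family; `hT`: the points of `inl j` on faces of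
`R` are joined with the base point `b` by `K`-chords. -/
theorem trn' (D : CutR s hs hm j0 hj0 Act far t Ph s₃) {j : J} {K : Φ → W → Prop}
    (hK : ∀ q F F' h m, q ∈ M.side F → q ∈ M.side F' → s.At F' h → s.lab h = Sum.inr m →
      am m = fam j → ∀ w, K F w) {b : W} (hb : b ∈ far (fam j) (nL am j)) {R : Set Φ}
    (hR : ∀ h ∈ s.P, ∀ m, s.lab h = Sum.inr m → am m = fam j → ∀ F ∈ R, h ∈ M.On F →
      ∀ Y : Set W, h ∈ Y →
      (∀ F ∈ R, ∀ y ∈ Y, s.At F y → s.lab y = Sum.inr m → s.mu F y ∈ Y) →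
      ∃ y ∈ Y, y ∈ s.P ∧ s.lab y = Sum.inr m ∧ ∀ X : Set W, y ∈ X →
        (∀ x ∈ X, x ∈ s.P ∧ s.lab x = Sum.inr m) →
        (∀ F x, x ∈ X → s.At F x → (∀ z, s.At F z → (∃ i, s.lab z = Sum.inl i ∧ fam i = fam j) →
          ¬ M.Lace F x (s.mu F x) z (s.mu F z)) → s.mu F x ∈ X) →
        ∃ x ∈ X, ∃ F, s.At F x ∧ St.Frozen M (Act (fam j)) F)
    (hT : ∀ X : Set W, b ∈ X →
      (∀ F w, s.At F w → s.lab w = Sum.inl j → K F w → (w ∈ X ↔ s.mu F w ∈ X)) →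
      ∀ F ∈ R, ∀ w, s.At F w → s.lab w = Sum.inl j → w ∈ X)
    {X' : Set W} (hbX : b ∈ X')
    (hX' : ∀ F w, s₃.At F w → s₃.lab w = j → K F w → (w ∈ X' ↔ s₃.mu F w ∈ X'))
    {F : Φ} (hF : F ∈ R) {w : W} (hw : s₃.At F w) (hl : s₃.lab w = j) : w ∈ X' := by
  refine D.trn (fam j) (nL am j) rfl K
    (fun q F F' h hq hq' hh hF' w => by
      obtain ⟨h3, m, h4, h5⟩ := pr_hp.1 hh
      exact hK q F F' h m hq hq' ⟨h3, hF'⟩ h5 h4 w) b hb R ?_ ?_ X' hbX ?_ F hF w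
      (D.at_iff.1 ⟨hw, hl⟩).1 (D.at_iff.1 ⟨hw, hl⟩).2
  · intro h hh F hF hhF Y hY hYc
    obtain ⟨h3, m, h4, h5⟩ := pr_hp.1 hh
    have e1 : Sum.elim fam am (s.lab h) = fam j := by rw [h5]; exact h4
    have key : ∀ {x : W}, x ∈ s.P → s.lab x = Sum.inr m →
        (prS s hs hm j0 hj0 (fam j)).lab x = (prS s hs hm j0 hj0 (fam j)).lab h := by
      intro x hx hxl
      refine (pr_lab_iff (by rw [hxl]; exact h4)).2 ?_
      rw [← (pr_lab_iff (hs := hs) (hm := hm) (i0 := ⟨Sum.inl (j0 (fam j)), hj0 _⟩) e1).1 rfl,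
        h5, hxl]
    obtain ⟨y, g1, g2, g3, g4⟩ := hR h h3 m h5 h4 F hF hhF Y hY (by
      intro F' hF' y hy hA hly
      have e2 : Sum.elim fam am (s.lab y) = fam j := by rw [hly]; exact h4
      exact hYc F' hF' y hy (pr_at.2 ⟨hA, e2⟩) (key hA.1 hly))
    have e3 : Sum.elim fam am (s.lab y) = fam j := by rw [g3]; exact h4
    refine ⟨y, g1, pr_hp.2 ⟨g2, m, h4, g3⟩, key g2 g3, ?_⟩
    rintro ⟨X, k1, k2, k3, k4⟩
    have hg4 := g4 X k1 ?_ ?_
    · obtain ⟨x, hx, F', hxF, hfr⟩ := hg4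
      have e4 := (k2 x hx).1
      exact (k4 x hx).2 F' ⟨e4.1, hxF.2⟩ hfr
    · intro x hx
      obtain ⟨k5, k6⟩ := k2 x hx
      obtain ⟨k7, m', k8, k9⟩ := pr_hp.1 k5
      refine ⟨k7, ?_⟩
      have e5 := (pr_lab_iff (by rw [k9]; exact k8)).1 k6
      rw [e5, ← (pr_lab_iff (hs := hs) (hm := hm) (i0 := ⟨Sum.inl (j0 (fam j)), hj0 _⟩) e3).1 rfl,
        g3]
    · intro F' x hx hA hno
      obtain ⟨k5, k6⟩ := k2 x hx
      refine k3 F' x hx ⟨k5.1, hA.2⟩ ?_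
      intro z hF y he
      subst hF
      have hA' : (prS s hs hm j0 hj0 (fam j)).At z.F x := ⟨k5.1, hA.2⟩
      cases y
      · have h13 := z.lace
        rw [he] at h13
        have h14 := (lace_lo_right (prS s hs hm j0 hj0 (fam j)) hA' _ _).1 h13
        have h15 := lace_comm (prS s hs hm j0 hj0 (fam j)) (z.at_ true) hA' (by
          intro e
          have h16 := z.colr true
          have h17 := k5.2
          rw [← e, h16] at h17
          exact Bool.false_ne_true h17.symm) h14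
        obtain ⟨h18, h19⟩ := pr_at.1 (z.at_ true)
        have h20 := z.colr true
        rcases hl : s.lab (z.e true) with i | m'
        · refine hno (z.e true) h18 ⟨i, hl, ?_⟩ h15
          rw [hl] at h19
          exact h19
        · exfalso
          have h21 : ((prS s hs hm j0 hj0 (fam j)).lab (z.e true)).1.isLeft = true := h20
          have h22 := (pr_lab_iff (hs := hs) (hm := hm)
            (i0 := ⟨Sum.inl (j0 (fam j)), hj0 _⟩) h19).1 rfl
          rw [← h22, hl] at h21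
          exact Bool.false_ne_true h21
      · have h13 := z.colr true
        rw [he] at h13
        rw [lo_lab _ hA', k5.2] at h13
        exact Bool.false_ne_true h13
  · intro X hX hXc F hF w hw hl
    obtain ⟨e1, e2⟩ := D.pr_of' hw.1 hl
    refine hT X hX ?_ F hF w ⟨e1, hw.2⟩ e2
    intro F' w' hw' hl' hk
    obtain ⟨e3, e4⟩ := D.pr_of hw'.1 hl'
    exact hXc F' w' ⟨e3, hw'.2⟩ e4 hk
  · intro F' w' hw' hl' hk
    obtain ⟨e1, e2⟩ := D.at_iff.2 ⟨hw', hl'⟩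
    rw [← D.mu' e1.1 e2]
    exact hX' F' w' e1 e2 hk

/-- **the new points, 778's form** (147's `PBN` in `GSt` form): `R` = a set of faces, `S` = a set of
barrier points; `hS`: the barrier points of `S` are joined by chords on faces of `R` with a point `y`
which is not enclosed; `hD`: the double points of `inl j` on faces of `R` are joined with the base
point `b` by `K`-chords. Conclusion: a new point of `j` all of whose barrier neighbours are in `S` is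
joined with `b` by `K`-chords of `s₃`. -/
theorem trq' (D : CutR s hs hm j0 hj0 Act far t Ph s₃) {j : J} {K : Φ → W → Prop}
    (hK : ∀ q F F' h m, q ∈ M.side F → q ∈ M.side F' → s.At F' h → s.lab h = Sum.inr m →
      am m = fam j → ∀ w, K F w) {b : W} (hb : b ∈ far (fam j) (nL am j)) {R : Set Φ} {S : Set W}
    (hS : ∀ h ∈ S, h ∈ s.P → ∀ m, s.lab h = Sum.inr m → am m = fam j →
      ∀ Y : Set W, h ∈ Y →
      (∀ F ∈ R, ∀ y ∈ Y, s.At F y → s.lab y = Sum.inr m → s.mu F y ∈ Y) →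
      ∃ y ∈ Y, y ∈ s.P ∧ s.lab y = Sum.inr m ∧ ∀ X : Set W, y ∈ X →
        (∀ x ∈ X, x ∈ s.P ∧ s.lab x = Sum.inr m) →
        (∀ F x, x ∈ X → s.At F x → (∀ z, s.At F z → (∃ i, s.lab z = Sum.inl i ∧ fam i = fam j) →
          ¬ M.Lace F x (s.mu F x) z (s.mu F z)) → s.mu F x ∈ X) →
        ∃ x ∈ X, ∃ F, s.At F x ∧ St.Frozen M (Act (fam j)) F)
    (hD : ∀ X : Set W, b ∈ X →
      (∀ F w, s.At F w → s.lab w = Sum.inl j → K F w → (w ∈ X ↔ s.mu F w ∈ X)) →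
      ∀ F ∈ R, ∀ w h m, s.At F w → s.lab w = Sum.inl j → s.At F h → s.lab h = Sum.inr m →
        am m = fam j → M.Lace F w (s.mu F w) h (s.mu F h) → w ∈ X)
    {X' : Set W} (hbX : b ∈ X')
    (hX' : ∀ F w, s₃.At F w → s₃.lab w = j → K F w → (w ∈ X' ↔ s₃.mu F w ∈ X'))
    {w : W} (hw : w ∈ s₃.P) (hws : w ∉ s.P) (hl : s₃.lab w = j)
    (hn : ∀ h ∈ s.P, ∀ m, s.lab h = Sum.inr m → am m = fam j → (∀ F, w ∈ M.On F ↔ h ∈ M.On F) →
      (∀ F v, h ∈ M.On F → v ∈ s.P → v ∈ M.On F → v ≠ h →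
        (M.pos F v < M.pos F h ↔ M.pos F v < M.pos F w)) → h ∈ S) : w ∈ X' := by
  have hgs := D.good (fam j)
  have hlab : ∀ {h x : W} {m : Mo}, h ∈ s.P → s.lab h = Sum.inr m → am m = fam j → x ∈ s.P →
      (s.lab x = Sum.inr m ↔ Sum.elim fam am (s.lab x) = fam j ∧
        (prS s hs hm j0 hj0 (fam j)).lab x = (prS s hs hm j0 hj0 (fam j)).lab h) := by
    intro h x m hh hlh hma hx
    have e1 : Sum.elim fam am (s.lab h) = fam j := by rw [hlh]; exact hma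
    have e2 := (pr_lab_iff (hs := hs) (hm := hm) (i0 := ⟨Sum.inl (j0 (fam j)), hj0 _⟩) e1).1 rfl
    constructor
    · intro h1
      have e3 : Sum.elim fam am (s.lab x) = fam j := by rw [h1]; exact hma
      refine ⟨e3, (pr_lab_iff e3).2 ?_⟩
      rw [← e2, hlh, h1]
    · rintro ⟨e3, h1⟩
      have e4 := (pr_lab_iff e3).1 h1
      rw [e4, ← e2, hlh]
  have hConn : ConnT (Act (fam j)) (far (fam j)) (prS s hs hm j0 hj0 (fam j)) R S := by
    intro h hhS hh Y hY hYc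
    obtain ⟨h3, m, h4, h5⟩ := pr_hp.1 hh
    obtain ⟨y, g1, g2, g3, g4⟩ := hS h hhS h3 m h5 h4 Y hY (by
      intro F' hF' y hy hA hly
      obtain ⟨e2, e3⟩ := (hlab h3 h5 h4 hA.1).1 hly
      exact hYc F' hF' y hy (pr_at.2 ⟨hA, e2⟩) e3)
    obtain ⟨e3, e4⟩ := (hlab h3 h5 h4 g2).1 g3
    refine ⟨y, g1, pr_hp.2 ⟨g2, m, h4, g3⟩, e4, ?_⟩
    rintro ⟨X, k1, k2, k3, k4⟩
    have hg4 := g4 X k1 ?_ ?_
    · obtain ⟨x, hx, F', hxF, hfr⟩ := hg4
      have e4 := (k2 x hx).1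
      exact (k4 x hx).2 F' ⟨e4.1, hxF.2⟩ hfr
    · intro x hx
      obtain ⟨k5, k6⟩ := k2 x hx
      obtain ⟨k7, m', k8, k9⟩ := pr_hp.1 k5
      exact ⟨k7, (hlab g2 g3 h4 k7).2 ⟨by rw [k9]; exact k8, k6⟩⟩
    · intro F' x hx hA hno
      obtain ⟨k5, k6⟩ := k2 x hx
      refine k3 F' x hx ⟨k5.1, hA.2⟩ ?_
      intro z hF y he
      subst hF
      have hA' : (prS s hs hm j0 hj0 (fam j)).At z.F x := ⟨k5.1, hA.2⟩
      cases y
      · have h13 := z.lace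
        rw [he] at h13
        have h14 := (lace_lo_right (prS s hs hm j0 hj0 (fam j)) hA' _ _).1 h13
        have h15 := lace_comm (prS s hs hm j0 hj0 (fam j)) (z.at_ true) hA' (by
          intro e
          have h16 := z.colr true
          have h17 := k5.2
          rw [← e, h16] at h17
          exact Bool.false_ne_true h17.symm) h14
        obtain ⟨h18, h19⟩ := pr_at.1 (z.at_ true)
        have h20 := z.colr true
        rcases hl : s.lab (z.e true) with i | m'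
        · refine hno (z.e true) h18 ⟨i, hl, ?_⟩ h15
          rw [hl] at h19
          exact h19
        · exfalso
          have h21 : ((prS s hs hm j0 hj0 (fam j)).lab (z.e true)).1.isLeft = true := h20
          have h22 := (pr_lab_iff (hs := hs) (hm := hm)
            (i0 := ⟨Sum.inl (j0 (fam j)), hj0 _⟩) h19).1 rfl
          rw [← h22, hl] at h21
          exact Bool.false_ne_true h21
      · have h13 := z.colr true
        rw [he] at h13
        rw [lo_lab _ hA', k5.2] at h13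
        exact Bool.false_ne_true h13
  have hTrD : TrD (prS s hs hm j0 hj0 (fam j)) (nL am j) K b R := by
    intro X hX hXc z hzR hzl
    have hX0 : ∀ F w, s.At F w → s.lab w = Sum.inl j → K F w → (w ∈ X ↔ s.mu F w ∈ X) := by
      intro F' w' hw' hl' hk
      obtain ⟨e3, e4⟩ := D.pr_of hw'.1 hl'
      exact hXc F' w' ⟨e3, hw'.2⟩ e4 hk
    obtain ⟨h18, h19⟩ := pr_at.1 (z.at_ true)
    obtain ⟨h20, h21⟩ := pr_at.1 (z.at_ false)
    have e1 : s.lab (z.e true) = Sum.inl j := (pr_lab_iff h19).1 hzl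
    obtain ⟨h22, m, h23, h24⟩ := pr_hp.1 (⟨(z.at_ false).1, z.colr false⟩ :
      HP (prS s hs hm j0 hj0 (fam j)) (z.e false))
    exact hD X hX hX0 z.F hzR (z.e true) (z.e false) m h18 e1 h20 h24 h23 z.lace
  have hQ := trQ_of_pbn (D.cl2 (fam j)).cle (D.pbn (fam j)) (s := prS s hs hm j0 hj0 (fam j))
    (D.good0 (fam j)) hgs (i := nL am j) rfl (K := K) (fun q F F' h hq hq' hh hF' w => by
      obtain ⟨h3, m, h4, h5⟩ := pr_hp.1 hh
      exact hK q F F' h m hq hq' ⟨h3, hF'⟩ h5 h4 w) hb hConn hTrD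
  obtain ⟨e1, e2⟩ := D.mem.1 ⟨hw, hl⟩
  refine hQ.2 X' hbX (fun F' w' hw' hl' hk => ?_) w e1 (fun h => hws (mem_pr.1 h).1) e2 ?_
  · obtain ⟨e3, e4⟩ := D.at_iff.2 ⟨hw', hl'⟩
    rw [← D.mu' e3.1 e4]
    exact hX' F' w' e3 e4 hk
  · intro h hh hnb
    have hh0 : HP (prS s hs hm j0 hj0 (fam j)) h := ((D.cl2 (fam j)).cle.hp h).1 hh
    obtain ⟨h3, m, h4, h5⟩ := pr_hp.1 hh0
    exact hn h h3 m h5 h4 hnb.1 fun F v hF hv hvF hne =>
      hnb.2 F v hF (D.full _ h F hh0.1 hF v hv hvF) hvF hne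

end CutR

end Crest.Agent.R096.SecW_892
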