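import Crest.Agent.R096.Dfi3_471

/-!
# Row 96, DOORS_final, part 4 (helper471): the tiles of `T` at the points of the layers

* `at_O`   : the tiles of `T` at a point of the band over a point `q` of the frontier are the tiles
  at `q` inside the core;
* `at3_O`  : the tiles of `T3` at a point of a layer lie in these tiles;
* `at_hp`, `at_vc` : the same for the points of the layers.
-/

set_option autoImplicit false
set_option linter.unusedSectionVars false
set_option linter.style.longLine false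

open Set Module
open scoped Classical

namespace Crest.Agent.R096.Dfi_471

open Crest.Agent.R096.Msh_715 Crest.Agent.R096.Agl5_543 Crest.Agent.R096.St_147
  Crest.Agent.R096.Seq_213 Crest.Agent.R096.Door_501 Crest.Agent.R096.Sla_184
open Crest.Agent.R096.Sla_184.Sla (hf vf old tg F0 Fn Out OnS InL In)

variable {E : Type} [NormedAddCommGroup E] [NormedSpace ℝ E] [FiniteDimensional ℝ E]
variable {Om : Set E} {ι : Type} {T : Tiling Om ι} {κ : Type} {S : Sla T κ}
  {h3 : finrank ℝ E = 3} {c : κ} {j : ℕ} {w q x y : E}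

/-- **the tiles of `T` over a point of the frontier** -/
theorem at_O (hq : q ∈ frontier (S.K c)) (hw : w ∈ S.O c q) (hi : S.In c w) :
    T.at_ w = {i | i ∈ T.at_ q ∧ P (T.H i) ⊆ S.K c} := by
  obtain ⟨h1, h2, -⟩ := Sla.dn_fr hq
  have h4 : w ∈ T.oc (S.dn c q) := by
    have := hw.2
    rwa [Sla.dn_in hi] at this
  have h5 : T.at_ w = T.at_ (S.dn c q) := T.at_eq_of_mem_oc h1.1.mem h4
  ext i
  rw [h5]
  constructor
  · intro h
    exact ⟨T.at_sub_of_mem_cc h2 h, h1.1.tile h⟩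
  · rintro ⟨h6, h7⟩
    obtain ⟨z, hz⟩ := T.ne i
    have h8 : z ∈ interior (S.K c) := interior_maximal ((I_sub_P _).trans h7) (isOpen_I _) hz
    have h9 : S.In c z := Sla.in_iff.2 h8
    have h10 : q ∈ T.cc z := by
      rw [T.cc_eq_tile hz]
      exact h6
    have h11 := Sla.dn_cc (Sla.fr_Bd hq) h9 h10
    rw [T.cc_eq_tile hz] at h11
    exact h11

/-- the tile of `T` of a tile of `T3` at a point of the band -/
theorem at3_O (hq : q ∈ frontier (S.K c)) (hw : w ∈ S.O c q) (hi : S.In c w)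
    {p : T.RIdx S.HH} (hp : w ∈ P (S.T3.H p)) :
    q ∈ P (T.H p.tile) ∧ P (T.H p.tile) ⊆ S.K c := by
  have h1 : p.tile ∈ T.at_ w := Sla.P3_sub p hp
  rw [at_O hq hw hi] at h1
  exact h1

/-- the copies of a point of an edge -/
theorem at_hp (e : S.Ed c) (hq : q ∈ e.1.opn) (h0 : 0 < j) (hj : j ≤ S.n c) :
    S.In c (S.hp c j q) ∧ q ∈ frontier (S.K c) ∧ S.hp c j q ∈ S.O c q ∧
      T.at_ (S.hp c j q) = {i | i ∈ T.at_ q ∧ P (T.H i) ⊆ S.K c} := by
  have h1 := Sla.ed_opn_fr e hq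
  have h2 := Sla.hp_O' e hq hj
  have h4 := ((Sla.hp_onS e hq hj).bo h0).1
  exact ⟨h4, h1, h2, at_O h1 h2 h4⟩

/-- the points over a vertex -/
theorem at_vc (v : S.Vx c) (hj : j < S.n c) :
    S.In c (S.vc c v.1 j) ∧ v.1 ∈ frontier (S.K c) ∧ S.vc c v.1 j ∈ S.O c v.1 ∧
      T.at_ (S.vc c v.1 j) = {i | i ∈ T.at_ v.1 ∧ P (T.H i) ⊆ S.K c} := by
  have h1 := Sla.vx_fr v
  have h2 := Sla.vc_O (Sla.vx_bd v) j
  have h4 := (Sla.vc_inL (Sla.vx_bd v) hj).bo.1
  exact ⟨h4, h1, h2, at_O h1 h2 h4⟩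

/-- the tile of `T` of a layer tile: the tile of the core over the face `G` -/
theorem tg_tile {G : (S.sh h3 c).Fk} (hj : j < S.n c) :
    G.1.1.pt ∈ P (T.H (tg G j).tile) ∧ P (T.H (tg G j).tile) ⊆ S.K c := by
  have h1 := Sla.fk_fr G
  have h2 : S.InL c j (S.vc c G.1.1.pt j) := Sla.vc_inL (Sla.fk_bd G) hj
  have h4 : S.vc c G.1.1.pt j ∈ S.O c G.1.1.pt := Sla.vc_O (Sla.fk_bd G) j
  refine at3_O h1 h4 h2.bo.1 ?_
  rw [Sla.tg_P G hj]
  exact ⟨Sla.O_C (Sla.fk_bd G) h4, h2.2.2.1.le, h2.2.2.2.le⟩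

end Crest.Agent.R096.Dfi_471
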