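import Crest.Agent.R096.Exa13_560
import Crest.Agent.R096.Dfi1_539
import Crest.Agent.R096.Dfi4_471
import Crest.Agent.R096.Slt1_471

/-!
# R096 (row 96), DOORS / EXA part 14 (helper560): `One` and `Two` at the tiny giants, in the final
language (184's `Sla`, 471's `s2` and `sla`, 539's `LevOut`)

* `s2_one`, `s2_two` : for the state with layers `s2`;
* `AgreeOn`          : two states agree on a set of faces (names `J → J'`);
* `one_agree`, `two_agree` : transfer to the state after CUT.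
-/

set_option autoImplicit false
set_option linter.unusedSectionVars false
set_option linter.style.longLine false

open Set Metric Module
open scoped Classical

namespace Crest.Agent.R096.Exa_560

open Crest.Agent.R096.Msh_715 Crest.Agent.R096.Agl5_543 Crest.Agent.R096.St_147
open Crest.Agent.R096.Twr_438 Crest.Agent.R096.Door_501 Crest.Agent.R096.Seq_213
open Crest.Agent.R096.SkB_662

section agree

variable {ι Φ W J C J' C' : Type} {M : MeshC ι Φ W} {fam : J → C} {fam' : J' → C'}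

/-- the sheets `j` of `s'` and `e j` of `s` agree on the faces `D` -/
structure AgreeOn (s : GSt M fam') (s' : GSt M fam) (e : J → J') (D : Set Φ) : Prop where
  at_ : ∀ F ∈ D, ∀ w j, (s'.At F w ∧ s'.lab w = j) ↔ (s.At F w ∧ s.lab w = e j)
  mu : ∀ F ∈ D, ∀ w, s'.At F w → s'.mu F w = s.mu F w

variable {s : GSt M fam'} {s' : GSt M fam} {e : J → J'} {D : Set Φ}

theorem one_agree (h : AgreeOn s s' e D) {j : J} (h1 : One s D (e j)) : One s' D j := by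
  intro X hX F w F' w' hF hF' hw hw' hl hl' hwX
  obtain ⟨a1, a2⟩ := (h.at_ F hF w j).1 ⟨hw, hl⟩
  obtain ⟨b1, b2⟩ := (h.at_ F' hF' w' j).1 ⟨hw', hl'⟩
  refine h1 X (fun G x hG hx hA hlx => ?_) F w F' w' hF hF' a1 b1 a2 b2 hwX
  obtain ⟨c1, c2⟩ := (h.at_ G hG x j).2 ⟨hA, hlx⟩
  rw [← h.mu G hG x c1]
  exact hX G x hG hx c1 c2

theorem xp_agree (h : AgreeOn s s' e D) {F : Φ} (hF : F ∈ D) {j j' : J} {x y : W} :
    XP s' F j j' x y ↔ XP s F (e j) (e j') x y := by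
  constructor
  · rintro ⟨h1, h2, h3, h4, h5, h6, h7⟩
    obtain ⟨a1, a2⟩ := (h.at_ F hF x j).1 ⟨h1, h3⟩
    obtain ⟨b1, b2⟩ := (h.at_ F hF y j').1 ⟨h2, h4⟩
    rw [h.mu F hF x h1] at h5 h7
    rw [h.mu F hF y h2] at h6 h7
    exact ⟨a1, b1, a2, b2, h5, h6, h7⟩
  · rintro ⟨h1, h2, h3, h4, h5, h6, h7⟩
    obtain ⟨a1, a2⟩ := (h.at_ F hF x j).2 ⟨h1, h3⟩
    obtain ⟨b1, b2⟩ := (h.at_ F hF y j').2 ⟨h2, h4⟩
    rw [← h.mu F hF x a1] at h5 h7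
    rw [← h.mu F hF y b1] at h6 h7
    exact ⟨a1, b1, a2, b2, h5, h6, h7⟩

theorem two_agree {g : ι} (h : AgreeOn s s' e {F | g ∈ M.side F}) {A : Set ι} {j j' : J}
    (h1 : Two s A {g} (e j) (e j')) : Two s' A {g} j j' := by
  obtain ⟨⟨F, x, y⟩, ⟨hX, hA, q, hq, hqg⟩, hu⟩ := h1
  have hqg' : q = g := hqg
  have hF : F ∈ {F | g ∈ M.side F} := by rw [← hqg']; exact hq
  refine ⟨(F, x, y), ⟨(xp_agree h hF).2 hX, hA, q, hq, hqg⟩, ?_⟩
  rintro ⟨F', x', y'⟩ ⟨hX', hA', q', hq', hqg2⟩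
  have hqg3 : q' = g := hqg2
  have hF' : F' ∈ {F | g ∈ M.side F} := by rw [← hqg3]; exact hq'
  exact hu (F', x', y') ⟨(xp_agree h hF').1 hX', hA', q', hq', hqg2⟩

theorem AgreeOn.mono (h : AgreeOn s s' e D) {D' : Set Φ} (hD : D' ⊆ D) : AgreeOn s s' e D' :=
  ⟨fun F hF => h.at_ F (hD hF), fun F hF => h.mu F (hD hF)⟩

end agree

section sla

open Crest.Agent.R096.Sla_184 Crest.Agent.R096.Dfi_471
open Crest.Agent.R096.Sla_184.Sla (hf vf old tg F0 Fn Out OnS InL In)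

variable {E : Type} [NormedAddCommGroup E] [NormedSpace ℝ E] [FiniteDimensional ℝ E]
variable {Om : Set E} {ι : Type} {T : Tiling Om ι} {κ : Type} {S : Sla T κ}
  {h3 : finrank ℝ E = 3} {J C : Type} {fam : J → C} {c : κ}

/-- a core has one tile over a face of its frontier -/
theorem inner_unique {Kc : κ → Set E} {hH : ∀ c, CoreH T (Kc c)}
    {hdis : ∀ c c', c ≠ c' → Disjoint (Kc c) (Kc c')} (G : (shellH h3 hH hdis c).Fk) {q q' : ι}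
    (hq : q ∈ G.1.1.side h3) (hqK : P (T.H q) ⊆ Kc c) (hq' : q' ∈ G.1.1.side h3)
    (hqK' : P (T.H q') ⊆ Kc c) : q = q' := by
  obtain ⟨p, hp, hpK⟩ := ((T.sub_frontier_iff h3 (hH c).core (hH c).sub (hH c).cc G.1.1).1
    (fk_sub G)).2
  obtain ⟨i, j, hij, hat, _⟩ := T.two_tiles G.1.1.pt_mem (by rw [G.1.1.dim_pt, h3])
  have hside : ∀ m, m ∈ G.1.1.side h3 ↔ m = i ∨ m = j := by
    intro m
    rw [C2.mem_side, hat]
    rfl
  rw [hside] at hq hq' hp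
  have n1 : q ≠ p := fun h => hpK (h ▸ hqK)
  have n2 : q' ≠ p := fun h => hpK (h ▸ hqK')
  rcases hq with rfl | rfl <;> rcases hq' with rfl | rfl <;> rcases hp with rfl | rfl <;>
    first | rfl | exact absurd rfl n1 | exact absurd rfl n2

/-- the inner tile is the tile of the last layer -/
theorem inner_tg (G : (S.sh h3 c).Fk) {q : ι} (hq : q ∈ G.1.1.side h3)
    (hqK : P (T.H q) ⊆ S.K c) : (tg G (S.n c - 1)).tile = q := by
  have hn := S.npos c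
  obtain ⟨h1, h2⟩ := tg_tile (S := S) (h3 := h3) (c := c) (G := G) (j := S.n c - 1) (by omega)
  refine inner_unique (hH := S.hH) (hdis := S.dis) G ?_ h2 hq hqK
  rw [C2.mem_side]
  exact h1

theorem tch_iff {A : Set (T.RIdx S.HH ⊕ κ)} (hA : Sum.inr c ∉ A) (G : (S.sh h3 c).Fk) :
    Tch (S.mn h3) A (((S.cols h3).cl c).hf G (S.n c)) ↔ Sum.inl (tg G (S.n c - 1)) ∈ A := by
  have hn := S.npos c
  have h1 : (S.mn h3).side (hf G (S.n c)) = s(Sum.inl (tg G (S.n c - 1)), Sum.inr c) :=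
    Sla.side_bot G (by omega)
  have h2 : ((S.cols h3).cl c).hf G (S.n c) = hf G (S.n c) := rfl
  rw [h2]
  unfold Tch
  rw [h1]
  constructor
  · rintro ⟨q, hq, hqA⟩
    rcases Sym2.mem_iff.1 hq with rfl | rfl
    · exact hqA
    · exact absurd hqA hA
  · intro h
    exact ⟨_, Sym2.mem_mk_left _ _, h⟩

variable [Nonempty J] {s : GSt (S.m0 h3) fam} {Tw : Twrs (S.sh h3) S.n s} {l0 : E → J}
  {L : ∀ c, C → Lev T (frontier (S.K c)) J}

/-- **(E1) at the giants of `s2`** -/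
theorem s2_one (hT : EndsIn Tw (fun k a => exa h3 S.hH S.dis (L k a))) {j : J}
    (hc : j ∈ (L c (fam j)).J0 → IsPreconnected {x | x ∈ frontier (S.K c) ∧
      (L c (fam j)).u x = (L c (fam j)).lv j}) :
    One (s2 S h3 Tw l0) {F | Sum.inr c ∈ (S.mn h3).side F} j :=
  exa_one (Z := S.cols h3) hT hc

end sla

section machine

open Crest.Agent.R096.Sla_184 Crest.Agent.R096.Dfi_471 Crest.Agent.R096.Slt_471
open Crest.Agent.R096.Sla_184.Sla (hf vf old tg F0 Fn Out OnS InL In)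
open Crest.Agent.R096.Brk1_582 Crest.Agent.R096.Brk3_582 Crest.Agent.R096.Bsp_628
open Crest.Agent.R096.Init_543 Crest.Agent.R096.Dfi_539
open Crest.Agent.R096.Mbf_337 (sb KJ Tiny gau)
open Crest.Agent.R096.SkC1_961 (E3 FoamD)

variable {δ κ0 R c0 : ℝ} {La Om : Set E3} {ι : Type} {Φ : FoamD δ κ0 R c0 La} {T : Tiling Om ι}
  {f : E3 → E3} {κ1 μ : ℝ} {X : Set Φ.F} {J0 J V : Φ.F → Set ι} {θ : Φ.F → E3 → E3}
  {φ : Φ.F → E3 → ℝ} {h3 : finrank ℝ E3 = 3} {hLa : IsOpen La}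
  {H : ∀ c ∉ X, Tiny Φ T f κ1 c (J0 c) (J c) (V c) (θ c) (φ c)}
  {n : {c : Φ.F // c ∉ X} → ℕ} {hn : ∀ c, 0 < n c}
  {JJ C : Type} [Nonempty JJ] {fam : JJ → C} {s : GSt ((sla hLa H n hn).m0 h3) fam}
  {Tw : Twrs ((sla hLa H n hn).sh h3) n s} {l0 : E3 → JJ}
  {L : ∀ c, C → Lev T (frontier ((sla hLa H n hn).K c)) JJ}

/-- **(E2) at the giants of `s2`** -/
theorem s2_two (hδ : 0 < δ) (hR : 0 < R)
    (hT : EndsIn Tw (fun k a => exa h3 (sla hLa H n hn).hH (sla hLa H n hn).dis (L k a)))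
    {m : {c : Φ.F // c ∉ X}} {Q : QK (Pc Φ.F)} (hc : m.1 ∈ Q.Z) {a a' : Φ.F} (ha : a ∈ Q.B)
    (ha' : a' ∈ Q.B) (haa : a ≠ a') {j j' : JJ} (hfam : fam j ≠ fam j')
    (hu : ∀ x ∈ frontier (KJ T (J m.1)), (L m (fam j)).u x = sb Φ (θ m.1 x) a)
    (hu' : ∀ x ∈ frontier (KJ T (J m.1)), (L m (fam j')).u x = sb Φ (θ m.1 x) a')
    (hj : j ∈ (L m (fam j)).J0) (hj' : j' ∈ (L m (fam j')).J0) {s₁ A B : ℝ}
    (hκ : Cn δ R * κ1 < 1) (hs : (Cn δ R + 1) * κ1 < s₁) (hs1 : s₁ ≤ 1 / 2)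
    (hA : s₁ + Cn δ R * κ1 ≤ A) (hA0 : Cn δ R * κ1 < A) (hB : B + Cn δ R * κ1 ≤ 1 - s₁)
    (hB1 : B < 1) (hA1 : 0 ≤ A)
    (hlv : A < (L m (fam j)).lv j ∧ (L m (fam j)).lv j < B)
    (hlv' : A < (L m (fam j')).lv j' ∧ (L m (fam j')).lv j' < B)
    (hgen : ∀ y ∈ frontier (KJ T (J m.1)), T.dim y = 1 → (L m (fam j)).u y = (L m (fam j)).lv j →
      (L m (fam j')).u y ≠ (L m (fam j')).lv j')
    {A' : Set (T.RIdx (sla hLa H n hn).HH ⊕ {c : Φ.F // c ∉ X})} (hA' : Sum.inr m ∉ A')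
    (hAct : ∀ G : ((sla hLa H n hn).sh h3 m).Fk, Sum.inl (tg G (n m - 1)) ∈ A' ↔
      ∃ x ∈ P (T.H (tg G (n m - 1)).tile),
        (∀ b ∈ Q.B, Φ.lev b (f x) ∈ Icc s₁ (1 - s₁)) ∧ ∀ e ∈ Q.Z, Φ.lev e (f x) = 0) :
    Two (s2 (sla hLa H n hn) h3 Tw l0) A' {Sum.inr m} j j' := by
  refine tiny_two (cf := fun c : {c : Φ.F // c ∉ X} => c.1) (J0 := fun c => J0 c.1)
    (J := fun c => J c.1) (V := fun c => V c.1) (θ := fun c => θ c.1) (φ := fun c => φ c.1)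
    (h3 := h3) (hH := (sla hLa H n hn).hH) (hdis := (sla hLa H n hn).dis)
    (Z := (sla hLa H n hn).cols h3) hLa hδ hR hT (H m.1 m.2) hc ha ha' haa hfam hu hu' hj hj' hκ hs
    hs1 hA hA0 hB hB1 hA1 hlv hlv' hgen ?_
  intro G q hq hqK
  have h1 : (tg (S := sla hLa H n hn) (h3 := h3) G (n m - 1)).tile = q :=
    inner_tg (S := sla hLa H n hn) (h3 := h3) G hq hqK
  have h2 := tch_iff (S := sla hLa H n hn) (h3 := h3) hA' G
  have h4 := hAct G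
  rw [h1] at h4
  exact h2.trans h4

/-- **(E1) at the giants of `s2`, from `LevOut`** -/
theorem s2_one_lev {sC : GSt (meshC T h3) fam} {nb : {c : Φ.F // c ∉ X} → C → Prop}
    {u : {c : Φ.F // c ∉ X} → C → E3 → ℝ} {Aw Bw : {c : Φ.F // c ∉ X} → C → ℝ}
    (hT : EndsIn Tw (fun k a => exa h3 (sla hLa H n hn).hH (sla hLa H n hn).dis (L k a)))
    (LO : LevOut sC nb u Aw Bw L) (m : {c : Φ.F // c ∉ X}) (j : JJ) :
    One (s2 (sla hLa H n hn) h3 Tw l0) {F | Sum.inr m ∈ ((sla hLa H n hn).mn h3).side F} j :=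
  s2_one (S := sla hLa H n hn) hT fun hj => (LO.conn m (fam j) j hj).1

/-- **(E2) at the giants of `s2`, from `LevOut`** with 316's window `(1 - μ + Cn κ1, 1 - μ/2)` -/
theorem s2_two_lev {sC : GSt (meshC T h3) fam} {nb : {c : Φ.F // c ∉ X} → C → Prop}
    {u : {c : Φ.F // c ∉ X} → C → E3 → ℝ} {Aw Bw : {c : Φ.F // c ∉ X} → C → ℝ}
    (hδ : 0 < δ) (hR : 0 < R)
    (hT : EndsIn Tw (fun k a => exa h3 (sla hLa H n hn).hH (sla hLa H n hn).dis (L k a)))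
    (LO : LevOut sC nb u Aw Bw L) {fa : Φ.F → C} (hfa : Function.Injective fa)
    (hub : ∀ (c : {c : Φ.F // c ∉ X}) (a : Φ.F), ∀ x ∈ frontier (KJ T (J c.1)),
      u c (fa a) x = sb Φ (θ c.1 x) a)
    (hnb : ∀ (c : {c : Φ.F // c ∉ X}) (a : Φ.F), a ≠ c.1 → (Pc Φ.F c.1 ∩ Pc Φ.F a).Nonempty →
      nb c (fa a))
    (hAw : ∀ (c : {c : Φ.F // c ∉ X}) (a : Φ.F), 1 - μ ≤ Aw c (fa a))
    (hBw : ∀ (c : {c : Φ.F // c ∉ X}) (a : Φ.F), Bw c (fa a) ≤ 1 - μ / 2) {s₁ : ℝ} (hμ0 : 0 < μ)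
    (hμ1 : μ ≤ 1 / 2) (hs : (Cn δ R + 1) * κ1 < s₁) (hs1 : s₁ + Cn δ R * κ1 ≤ μ / 2)
    (hκ1 : 0 ≤ κ1) {m : {c : Φ.F // c ∉ X}} {Q : QK (Pc Φ.F)} (hc : m.1 ∈ Q.Z) {a a' : Φ.F}
    (ha : a ∈ Q.B) (ha' : a' ∈ Q.B) (haa : a ≠ a') {j j' : JJ} (hj : fam j = fa a)
    (hj' : fam j' = fa a')
    {A' : Set (T.RIdx (sla hLa H n hn).HH ⊕ {c : Φ.F // c ∉ X})} (hA' : Sum.inr m ∉ A')
    (hAct : ∀ G : ((sla hLa H n hn).sh h3 m).Fk, Sum.inl (tg G (n m - 1)) ∈ A' ↔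
      ∃ x ∈ P (T.H (tg G (n m - 1)).tile),
        (∀ b ∈ Q.B, Φ.lev b (f x) ∈ Icc s₁ (1 - s₁)) ∧ ∀ e ∈ Q.Z, Φ.lev e (f x) = 0) :
    Two (s2 (sla hLa H n hn) h3 Tw l0) A' {Sum.inr m} j j' := by
  have hC := Cn_nonneg hδ hR
  have hCκ : 0 ≤ Cn δ R * κ1 := mul_nonneg hC hκ1
  have hnbr : ∀ b ∈ Q.B, nb m (fa b) := by
    intro b hb
    refine hnb m b (fun h => (Set.disjoint_left.1 Q.dis hb) (by rw [h]; exact hc)) ?_
    obtain ⟨y, hy⟩ := Q.ne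
    exact ⟨y, mem_fc.1 hy _ (Or.inr hc), mem_fc.1 hy _ (Or.inl hb)⟩
  have hjJ : j ∈ (L m (fam j)).J0 := (LO.mem m (fam j) j).2 ⟨rfl, by rw [hj]; exact hnbr a ha⟩
  have hjJ' : j' ∈ (L m (fam j')).J0 :=
    (LO.mem m (fam j') j').2 ⟨rfl, by rw [hj']; exact hnbr a' ha'⟩
  have hfam : fam j ≠ fam j' := by
    rw [hj, hj']
    exact fun h => haa (hfa h)
  have w1 := LO.win m (fam j) j hjJ
  have w2 := LO.win m (fam j') j' hjJ'
  have g1 := hAw m a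
  have g2 := hBw m a
  have g3 := hAw m a'
  have g4 := hBw m a'
  rw [← hj] at g1 g2
  rw [← hj'] at g3 g4
  refine s2_two (A := 1 - μ) (B := 1 - μ / 2) hδ hR hT hc ha ha' haa hfam ?_ ?_ hjJ hjJ' ?_ hs ?_
    ?_ ?_ ?_ ?_ ?_ ⟨by linarith [w1.1], by linarith [w1.2]⟩ ⟨by linarith [w2.1], by linarith [w2.2]⟩
    ?_ hA' hAct
  · intro x hx
    rw [LO.u, hj]; exact hub m a x hx
  · intro x hx
    rw [LO.u, hj']; exact hub m a' x hx
  · have : (Cn δ R + 1) * κ1 = Cn δ R * κ1 + κ1 := by ring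
    linarith
  · linarith
  · linarith
  · have : (Cn δ R + 1) * κ1 = Cn δ R * κ1 + κ1 := by ring
    linarith
  · linarith
  · linarith
  · linarith
  · exact LO.sep m (fam j) (fam j') hfam j hjJ j' hjJ'

end machine

end Crest.Agent.R096.Exa_560
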