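import Crest.Agent.R096.Sgo1_298
import Crest.Agent.R096.Exa14_560

/-!
# Row 96, DOORS (helper298): `Good` for the pair states of `s₂`

`giant_pt` : every name with `nb` has a point on its giant;
`giant_nb` : the names on a giant have `nb`;
`good_s2`  : `Good` for `pr (s2 ..) hs hm a i0`, `Act := ActR S R`.
-/

set_option autoImplicit false
set_option linter.unusedSectionVars false
set_option linter.style.longLine false

open Set Module
open scoped Classical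

namespace Crest.Agent.R096.Sgo_298

open Crest.Agent.R096.St_147 Crest.Agent.R096.Seq_213 Crest.Agent.R096.Ginv_543
  Crest.Agent.R096.Msh_715 Crest.Agent.R096.Agl5_543 Crest.Agent.R096.Door_501
  Crest.Agent.R096.Sla_184 Crest.Agent.R096.Twr_438 Crest.Agent.R096.Ess3_95
  Crest.Agent.R096.Dfi_539 Crest.Agent.R096.Dfi_471 Crest.Agent.R096.Exa_560
  Crest.Agent.R096.Sec_892 Crest.Agent.R096.Cg_501 Crest.Agent.R096.Sgd_298
  Crest.Agent.R096.Lm_117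
open Crest.Agent.R096.Sla_184.Sla (hf vf old tg F0 Fn Out OnS InL In)

section giant

variable {E : Type} [NormedAddCommGroup E] [NormedSpace ℝ E] [FiniteDimensional ℝ E]
variable {Om : Set E} {ι : Type} {T : Tiling Om ι} {κ : Type} {S : Sla T κ}
  {h3 : finrank ℝ E = 3} {J C : Type} {fam : J → C} [Nonempty J]
  {s : GSt (meshC T h3) fam} {r : J → E} {nb : κ → C → Prop}
  {v0 v1 : ∀ c, C → VxK T S.K c} {u : κ → C → E → ℝ} {A B : κ → C → ℝ}
  {L : ∀ c, C → Lev T (frontier (S.K c)) J}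
  {Tw : Twrs (S.sh h3) S.n (outK S.hH S.dis s r)} {l0 : E → J} {c : κ}

/-- the towers of `TwOut` end in the exact patterns -/
theorem endsIn (tt : TwOut S h3 s r v0 v1 L Tw) :
    EndsIn Tw (fun k a => exa h3 S.hH S.dis (L k a)) := tt.bot

/-- **every name with `nb` has a point on the giant** -/
theorem giant_pt (LO : LevOut s nb u A B L) (tt : TwOut S h3 s r v0 v1 L Tw) {j : J}
    (hj : nb c (fam j)) : ∃ F w, Sum.inr c ∈ (S.mn h3).side F ∧ (s2 S h3 Tw l0).At F w ∧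
      (s2 S h3 Tw l0).lab w = j := by
  have hjJ : j ∈ (L c (fam j)).J0 := (LO.mem c (fam j) j).2 ⟨rfl, hj⟩
  obtain ⟨w, hw, hwl⟩ := exists_pt (h3 := h3) (hH := S.hH) (hdis := S.dis) (L c (fam j)) hjJ
    (LO.conn c (fam j) j hjJ).2
  have h1 := (Exa_560.mem_P (L c (fam j))).1 hw
  obtain ⟨F, hF, hwF⟩ := Msh_715.exists_face h3 S.hH h1.1
  have h2 := (face_iff h3 (fun c => (S.hH c).core) (fun c => (S.hH c).sub)
    (fun c => (S.hH c).cc) S.dis F c).1 hF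
  let G : (S.sh h3 c).Fk := ⟨⟨F, h2.1⟩, h2.2⟩
  have hT := endsIn tt
  have hG : w ∈ (S.sh h3 c).sph.On G := ⟨hwF, h1.2.1⟩
  exact ⟨_, _, (kk_iff (Z := S.cols h3)).2 ⟨G, rfl⟩, hT.at_ (Z := S.cols h3) (l0 := l0) hw hG,
    (hT.mem (Z := S.cols h3) (l0 := l0) hw).2.trans hwl⟩

/-- the names on a giant -/
theorem giant_nb (LO : LevOut s nb u A B L) (tt : TwOut S h3 s r v0 v1 L Tw) {F : S.Fn h3}
    (hF : Sum.inr c ∈ (S.mn h3).side F) {w : E} (hA : (s2 S h3 Tw l0).At F w) :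
    nb c (fam ((s2 S h3 Tw l0).lab w)) := by
  obtain ⟨G, rfl⟩ := (kk_iff (Z := S.cols h3)).1 hF
  obtain ⟨u', hu, -, -, hl⟩ := (endsIn tt).cases (Z := S.cols h3) (l0 := l0) hA
  exact (exa_nb LO hu).1

/-- (E1) at the giants -/
theorem giant_one (LO : LevOut s nb u A B L) (tt : TwOut S h3 s r v0 v1 L Tw) (j : J) :
    One1 (s2 S h3 Tw l0) j (Sum.inr c) := by
  have h := s2_one (l0 := l0) (c := c) (endsIn tt) (j := j) fun hj => (LO.conn c (fam j) j hj).1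
  exact h

end giant

/-! ### `Good` -/

section good

variable {E : Type} [NormedAddCommGroup E] [NormedSpace ℝ E] [FiniteDimensional ℝ E]
variable {Om : Set E} {ι : Type} {T : Tiling Om ι} {κ : Type} {S : Sla T κ}
  {h3 : finrank ℝ E = 3} {J C Mo : Type} {fam : J → C} [Nonempty (J ⊕ Mo)]
  {s : GSt (meshC T h3) (Sum.map fam (id : Mo → Mo))} {r : J ⊕ Mo → E} {am : Mo → C} {a : C}
  {Sf : J ⊕ Mo → Set E} {nb : κ → C ⊕ Mo → Prop}
  {v0 v1 : ∀ c, C ⊕ Mo → VxK T S.K c} {u : κ → C ⊕ Mo → E → ℝ} {A B : κ → C ⊕ Mo → ℝ}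
  {L : ∀ c, C ⊕ Mo → Lev T (frontier (S.K c)) (J ⊕ Mo)}
  {Tw : Twrs (S.sh h3) S.n (outK S.hH S.dis s r)} {l0 : E → J ⊕ Mo}
  {hs : BSep (s2 S h3 Tw l0) am} {hm : ∀ a, {m | am m = a}.Finite} {i0 : PN fam am a}

/-- a barrier has points on the frozen faces of its giant only -/
theorem bar_frozen (LO : LevOut s nb u A B L) (tt : TwOut S h3 s r v0 v1 L Tw) {co : Mo → κ}
    (hnbM : ∀ c m, nb c (Sum.inr m) → co m = c) {N R : Set ι} (hNR : N ⊆ R)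
    (hKN : ∀ q, q ∉ N → ∀ c, ¬ P (T.H q) ⊆ S.K c) {m : Mo}
    (hbar : ∀ w, w ∈ s.P → s.lab w = Sum.inr m → ∀ q, w ∈ P (T.H q) → q ∈ N) {F : S.Fn h3} {w : E}
    (hA : (s2 S h3 Tw l0).At F w) (hl : (s2 S h3 Tw l0).lab w = Sum.inr m)
    (hF : St.Frozen (S.mn h3) (ActR S R) F) : Sum.inr (co m) ∈ (S.mn h3).side F := by
  obtain ⟨q, hqF, hq⟩ := hF
  rcases q with p | c
  · exfalso
    have hpR : p.tile ∉ R := fun h => hq (inl_ActR.2 h)
    have hpK := hKN p.tile fun h => hpR (hNR h)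
    have hp := Sla.eq_ot hpK
    obtain ⟨F0, rfl, -, h2, h4⟩ := face_out F hpK (by rw [← hp]; exact hqF)
    obtain ⟨g1, g2, g3, -, -⟩ := mu_out hA.1 hA.2
    exact hpR (hNR (hbar w g1 (g3.symm.trans hl) p.tile (C2.sub_tile (h3 := h3) h4 g2.1)))
  · have h := giant_nb LO tt hqF hA
    rw [hl] at h
    rw [hnbM c m h]
    exact hqF

/-- **`Good` for the pair states of `s₂`**, `Act := ActR S R` -/
theorem good_s2 {Q : Type} [PartialOrder Q] {dim : Q → ℕ} (Lm : LM (S.mn h3) Q dim)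
    (hL : ∀ q, ∃ c, ∀ F, q ∈ (S.mn h3).side F → Lm.cf F ≤ c)
    (D : DIn S.hH s r Sf nb v0 v1 u A B) (LO : LevOut s nb u A B L)
    (tt : TwOut S h3 s r v0 v1 L Tw) {co : Mo → κ}
    (hnbM : ∀ c m, nb c (Sum.inr m) ↔ co m = c) {N R : Set ι} (hNR : N ⊆ R)
    (hKN : ∀ q, q ∉ N → ∀ c, ¬ P (T.H q) ⊆ S.K c)
    (hloc : ∀ j, fam j = a → (gSht s (Sum.inl j)).LocH1 N R)
    (hrR : ∀ j, fam j = a → ∃ q, r (Sum.inl j) ∈ P (T.H q) ∧ q ∉ R)
    (hbar : ∀ w m, w ∈ s.P → s.lab w = Sum.inr m → am m = a → ∀ q, w ∈ P (T.H q) → q ∈ N)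
    (hdoor : ∀ j, fam j = a → ∀ c, (∃ F w, Sum.inr c ∈ (S.mn h3).side F ∧
      (s2 S h3 Tw l0).At F w ∧ (s2 S h3 Tw l0).lab w = Sum.inl j) →
      ∃ (n' : J ⊕ Mo) (R' Zc : Set (T.RIdx S.HH ⊕ κ)) (F₀ : S.Fn h3) (w₀ x₀ : E),
        Sum.inl j ≠ n' ∧ OddDoor (s2 S h3 Tw l0) (Sum.inl j) n' (Sum.inr c) R' F₀ w₀ x₀ ∧
        (∀ q, q ∈ Zc → q ∉ R' → q ≠ Sum.inr c → ∀ F w x, q ∈ (S.mn h3).side F →
          (∃ q' ∈ (S.mn h3).side F, q' ∈ R') → (s2 S h3 Tw l0).At F w →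
          (s2 S h3 Tw l0).lab w = Sum.inl j → (s2 S h3 Tw l0).At F x →
          (s2 S h3 Tw l0).lab x = n' →
          ¬ (S.mn h3).Lace F w ((s2 S h3 Tw l0).mu F w) x ((s2 S h3 Tw l0).mu F x)) ∧
        (∀ q ∈ R', ∀ F, q ∈ (S.mn h3).side F → NB (s2 S h3 Tw l0) am a F) ∧
        ∀ q, q ∉ Zc → ∀ F w, q ∈ (S.mn h3).side F → (∃ q' ∈ (S.mn h3).side F, q' ∈ R') →
          (s2 S h3 Tw l0).At F w → (s2 S h3 Tw l0).lab w = Sum.inl j →
          ∃ F', w ∈ (S.mn h3).On F' ∧ ∃ q' ∈ (S.mn h3).side F', q' ∉ ActR S R ∧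
            q' ∉ Set.range (Sum.inr : κ → T.RIdx S.HH ⊕ κ)) :
    ∃ far : PN fam am a → Set E, (pr (s2 S h3 Tw l0) hs hm a i0).Good (ActR S R) far ∧
      (∀ i : PN fam am a, ∀ j, i.1 = Sum.inl j → r (Sum.inl j) ∈ far i) ∧
      ∀ i F w, w ∈ far i → (pr (s2 S h3 Tw l0) hs hm a i0).At F w →
        OKp (pr (s2 S h3 Tw l0) hs hm a i0) (ActR S R) F w → (s2 S h3 Tw l0).mu F w ∈ far i := by
  have hg : ∀ m, ∃ w F, Sum.inr (co m) ∈ (S.mn h3).side F ∧ (s2 S h3 Tw l0).At F w ∧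
      (s2 S h3 Tw l0).lab w = Sum.inr m := by
    intro m
    obtain ⟨F, w, h1, h2, h4⟩ := giant_pt (l0 := l0) (c := co m) LO tt (j := Sum.inr m)
      ((hnbM (co m) m).2 rfl)
    exact ⟨w, F, h1, h2, h4⟩
  choose b hb using hg
  let rr : PN fam am a → E := fun i => Sum.elim (fun j => r (Sum.inl j)) b i.1
  have hrr : ∀ i : PN fam am a, rr i ∈ (s2 S h3 Tw l0).P ∧ (s2 S h3 Tw l0).lab (rr i) = i.1 := by
    rintro ⟨j | m, hi⟩
    · exact root2 D (Sum.inl j)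
    · obtain ⟨F, -, h2, h4⟩ := hb m
      exact ⟨h2.1, h4⟩
  obtain ⟨far, g1, g2, g3⟩ := good_pr (s := s2 S h3 Tw l0) (hs := hs) (hm := hm) (i0 := i0)
    (ActR S R) (fun i => (h12 D i.1).1) (fun i => (h12 D i.1).2) rr hrr (by
      rintro ⟨j | m, hi⟩ X hrX hX
      · have hja : fam j = a := hi
        refine cl_sheet (a := a) Lm (Gt := Set.range (Sum.inr : κ → T.RIdx S.HH ⊕ κ)) ?_
          (n := Sum.inl j) (r := r (Sum.inl j)) ?_ ?_ X hrX hX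
        · rintro _ ⟨c, rfl⟩
          exact inr_ActR
        · exact fun X hrX hX => hout_s2 (D.conn _) D.dim1 (hloc j hja) hNR hKN (D.root _)
            (hrR j hja) hbar X hrX hX
        · rintro _ ⟨c, rfl⟩ hpt
          obtain ⟨n', R', Zc, F₀, w₀, x₀, k1, k2, k3, k4, k5⟩ := hdoor j hja c hpt
          exact ⟨giant_one LO tt _, n', R', Zc, F₀, w₀, x₀, k1, k2, fun q _ => hL q, k3, k4, k5⟩
      · have hma : am m = a := hi
        obtain ⟨F₁, h1, h2, h4⟩ := hb m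
        exact cl_bar (a := a) (g := Sum.inr (co m)) inr_ActR (giant_one LO tt _)
          (fun F w hA hl hF => bar_frozen LO tt (fun c m h => (hnbM c m).1 h) hNR hKN
            (fun w hw hl q hq => hbar w m hw hl hma q hq) hA hl hF) ⟨F₁, h1, h2, h4⟩ X hrX hX)
  refine ⟨far, g1, ?_, g3⟩
  rintro ⟨j' | m, hi⟩ j hij
  · cases hij
    exact g2 ⟨Sum.inl j', hi⟩
  · cases hij

end good

end Crest.Agent.R096.Sgo_298
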