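import Crest.Agent.R096.Civ1_662
import Crest.Agent.R096.Dfn1_416
import Crest.Agent.R096.Sgo2_298
import Crest.Agent.R096.Sec13_892
import Crest.Agent.R096.Dff4_539
import Crest.Agent.R096.Dia2_316

/-!
# R096 (row 96), DOORS (helper662): LEAF BC of the composition, part 2

Over `S : Sla T (Ti X)` with `S.K k = KJ T (J k)` and 471's state `s2`:
* `near_S3`, `one_S3`, `base_S3` : names at the giants, (E1), base points of the state after CUT;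
* `leafBC` : the frame of LEAF BC: the state after CUT with its invariant, from `Good` (298), the cut
  (892 / 824), (B) (471), (E2) (560), `TrOut` (543), `VIn`, `Dich` (106 / 847 / 527).
-/

set_option autoImplicit false
set_option linter.unusedSectionVars false
set_option linter.unusedVariables false
set_option linter.style.longLine false

open Set Topology Filter Metric Module Relation
open scoped Classical

namespace Crest.Agent.R096.Civ_662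

open Crest.Agent.R096.Msh_715 Crest.Agent.R096.Coh_184 Crest.Agent.R096.Agl5_543
  Crest.Agent.R096.Seq_213 Crest.Agent.R096.Seq_213.GSt Crest.Agent.R096.St_147
  Crest.Agent.R096.Door_501
  Crest.Agent.R096.Twr_438 Crest.Agent.R096.Exa_560
  Crest.Agent.R096.Ess3_95 Crest.Agent.R096.Ess4_95 Crest.Agent.R096.Ac_117 Crest.Agent.R096.Lm_117
  Crest.Agent.R096.Dfi_539 Crest.Agent.R096.Dfi_471 Crest.Agent.R096.Dfo_539
  Crest.Agent.R096.Sla_184 Crest.Agent.R096.Gm_298 Crest.Agent.R096.Qdl_662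
  Crest.Agent.R096.SkB_662
  Crest.Agent.R096.Brk1_582 Crest.Agent.R096.Brk2_582 Crest.Agent.R096.Brk3_582
  Crest.Agent.R096.Brk5_582 Crest.Agent.R096.Bsp_628 Crest.Agent.R096.Init_543
  Crest.Agent.R096.Cg_501 Crest.Agent.R096.SecW_892 Crest.Agent.R096.Sgo_298
  Crest.Agent.R096.Hdr_334 Crest.Agent.R096.Sgd_298
open Crest.Agent.R096.Dff_539 (cutOut_of)
open Crest.Agent.R096.Mbf_337 (KJ Tiny Cores)
open Crest.Agent.R096.SkC1_961 (E3 FoamD Hom3)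
open Crest.Agent.R096.Frn_337 (Ti)
open Crest.Agent.R096.Dia_316 (nbT)
open Crest.Agent.R096.Frk_441 (PosS)

variable {δ κ0 R c0 : ℝ} {La Om : Set E3} {ι : Type} {Φ : FoamD δ κ0 R c0 La} {T : Tiling Om ι}
  {f g : E3 → E3} {κ1 κ2 μ ε s₁ s' : ℝ} {X : Set Φ.F} {J0 J V : Φ.F → Set ι}
  {ct ct' : Φ.F → ι} {A : Φ.F → E3 ≃ᵃ[ℝ] E3} {lam : Φ.F → ℝ} {z : Φ.F → E3}
  {θ : Φ.F → E3 → E3} {φ : Φ.F → E3 → ℝ} {r₀ : Φ.F → ℝ}
  {L : Φ.F → Finset ℝ} [Nonempty (JJ Φ L)] {Mo : Type}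
  {sB : GSt (meshC T fr3) (Sum.map (fun j : JJ Φ L => j.1) (id : Mo → Mo))}

variable {S : Sla T (Ti X)} [Nonempty (JJ Φ L ⊕ Mo)]
  {r : JJ Φ L ⊕ Mo → E3} {Sf : JJ Φ L ⊕ Mo → Set E3} {nb : Ti X → Φ.F ⊕ Mo → Prop}
  {v0 v1 : ∀ c, Φ.F ⊕ Mo → VxK T S.K c} {u : Ti X → Φ.F ⊕ Mo → E3 → ℝ}
  {Al Bl : Ti X → Φ.F ⊕ Mo → ℝ} {Lx : ∀ c, Φ.F ⊕ Mo → Lev T (frontier (S.K c)) (JJ Φ L ⊕ Mo)}
  {Tw : Twrs (S.sh fr3) S.n (outK S.hH S.dis sB r)} {l0 : E3 → JJ Φ L ⊕ Mo}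
  {am : Mo → Φ.F} {Act : Φ.F → Set (T.RIdx S.HH ⊕ Ti X)}
  {s3 : GSt (S.mn fr3) (fun j : JJ Φ L => j.1)}
  {hKK : ∀ k, CoreH S.T3 (S.KK k)} [Nonempty S.T3.Cell] {hne : ∃ c, OutK S.T3 S.KK c}

/-- faces of the giants are frozen -/
theorem frozen_giant (hAct : ∀ a (k : Ti X), Sum.inr k ∉ Act a) {c : Ti X} {F : S.Fn fr3}
    (hF : Sum.inr c ∈ (S.mn fr3).side F) (a : Φ.F) : St.Frozen (S.mn fr3) (Act a) F :=
  ⟨_, hF, hAct a c⟩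

/-- **the names at the giants** -/
theorem near_S3 (lo : LevOut (Kc := S.K) sB nb u Al Bl Lx) (tt : TwOut S fr3 sB r v0 v1 Lx Tw)
    (hnb : ∀ c a, nb c (Sum.inl a) → nbT Φ X c a)
    (D3 : CutOut (s2 S fr3 Tw l0) am Act s3) (hAct : ∀ a (k : Ti X), Sum.inr k ∉ Act a)
    (c : Ti X) (F : S.Fn fr3) (w : E3) (hF : Sum.inr c ∈ (S.mn fr3).side F) (hA : s3.At F w) :
    c.1 ≠ (s3.lab w).1 ∧ (Pc Φ.F c.1 ∩ Pc Φ.F (s3.lab w).1).Nonempty := by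
  obtain ⟨h1, h2⟩ := (D3.frozen F w (s3.lab w) (frozen_giant hAct hF _)).1 ⟨hA, rfl⟩
  have h3 := giant_nb lo tt hF h1
  rw [h2] at h3
  obtain ⟨h4, h5⟩ := hnb c _ h3
  exact ⟨h4.symm, h5⟩

/-- **(E1) at the giants** -/
theorem one_S3 (lo : LevOut (Kc := S.K) sB nb u Al Bl Lx) (tt : TwOut S fr3 sB r v0 v1 Lx Tw)
    (D3 : CutOut (s2 S fr3 Tw l0) am Act s3) (hAct : ∀ a (k : Ti X), Sum.inr k ∉ Act a)
    (c : Ti X) (j : JJ Φ L) : One s3 {F | Sum.inr c ∈ (S.mn fr3).side F} j :=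
  D3.one (fun F hF => frozen_giant hAct hF _) (giant_one lo tt (Sum.inl j))

/-- **the base points** -/
theorem base_S3 {hs : BSep (s2 S fr3 Tw l0) am} {hm : ∀ a, {m | am m = a}.Finite}
    {j0 : Φ.F → JJ Φ L} {hj0 : ∀ a, (j0 a).1 = a}
    {far : ∀ a, PN (fun j : JJ Φ L => j.1) am a → Set E3}
    {t : ∀ a, St (S.mn fr3) (pcol (fun j : JJ Φ L => j.1) am a)} {Ph : Φ.F → Finset E3}
    (D : CutR (s2 S fr3 Tw l0) hs hm j0 hj0 Act far t Ph s3)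
    (hfar : ∀ a (i : PN (fun j : JJ Φ L => j.1) am a) (j : JJ Φ L), i.1 = Sum.inl j →
      r (Sum.inl j) ∈ far a i) (j : JJ Φ L) :
    r (Sum.inl j) ∈ s3.P ∧ s3.lab (r (Sum.inl j)) = j := by
  obtain ⟨h1, h2⟩ := (D.good j.1).far_mem (hfar j.1 (nL am j) j rfl)
  exact D.mem.2 ⟨h1, h2⟩

/-- **THE FRAME OF LEAF BC** -/
theorem leafBC (hKK : ∀ k, CoreH S.T3 (S.KK k)) {hLa : IsOpen La} {hR : InitR Φ T f g J0 ct' r₀}
    {hM : Mesh0 T (Pc Φ.F) (bc (F := Φ.F)) (RF Φ r₀) f (KorJ Φ J0) ε} {hε : ε < s₁} {hε1 : ε < 1}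
    (hne : ∃ c, OutK S.T3 S.KK c) (hs0 : 0 < s') (hs' : s₁ + ε ≤ s') (hL : ∀ a, (L a).Nonempty)
    (lo : LevOut (Kc := S.K) sB nb u Al Bl Lx) (tt : TwOut S fr3 sB r v0 v1 Lx Tw)
    (hnb : ∀ c a, nb c (Sum.inl a) → nbT Φ X c a)
    (hs : BSep (s2 S fr3 Tw l0) am) (hm : ∀ a, {m | am m = a}.Finite)
    (j0 : Φ.F → JJ Φ L) (hj0 : ∀ a, (j0 a).1 = a) {Rt : Set ι}
    -- 298
    (hgood : ∀ a, ∃ far : PN (fun j : JJ Φ L => j.1) am a → Set E3,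
      (prS (s2 S fr3 Tw l0) hs hm j0 hj0 a).Good (ActR S Rt) far ∧
      (∀ i : PN (fun j : JJ Φ L => j.1) am a, ∀ j, i.1 = Sum.inl j → r (Sum.inl j) ∈ far i) ∧
      ∀ i F w, w ∈ far i → (prS (s2 S fr3 Tw l0) hs hm j0 hj0 a).At F w →
        OKp (prS (s2 S fr3 Tw l0) hs hm j0 hj0 a) (ActR S Rt) F w →
          (s2 S fr3 Tw l0).mu F w ∈ far i)
    -- 892 / 824
    (Rel : ∀ a, (PN (fun j : JJ Φ L => j.1) am a → Set E3) →
      St (S.mn fr3) (pcol (fun j : JJ Φ L => j.1) am a) → Prop)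
    (hcut : ∀ far : ∀ a, PN (fun j : JJ Φ L => j.1) am a → Set E3,
      (∀ a, (prS (s2 S fr3 Tw l0) hs hm j0 hj0 a).Good (ActR S Rt) (far a)) →
      ∃ (t : ∀ a, St (S.mn fr3) (pcol (fun j : JJ Φ L => j.1) am a)) (Ph : Φ.F → Finset E3)
        (s₃ : GSt (S.mn fr3) (fun j : JJ Φ L => j.1)),
        CutR (s2 S fr3 Tw l0) hs hm j0 hj0 (fun _ => ActR S Rt) far t Ph s₃ ∧
          ∀ a, Rel a (far a) (t a))
    -- 334
    {Zo : Ti X → Set ι} (hZ : Zon Φ T S.T3 f X J0 S.KK Tiling.RIdx.tile Zo) {UT : Set E3}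
    (hU : ∀ p : T.RIdx S.HH, (∀ k, ¬ P (S.T3.H p) ⊆ S.KK k) → (∀ c, p.tile ∉ Zo c) →
      ∀ x ∈ P (S.T3.H p), x ∉ UT)
    -- 471 / 539
    (HB : ∀ s₃, CutOut (s2 S fr3 Tw l0) am (fun _ => ActR S Rt) s₃ → PosS (hH := hKK) Φ T f s' J0 S s₃)
    -- 560
    (H2 : ∀ s₃, CutOut (s2 S fr3 Tw l0) am (fun _ => ActR S Rt) s₃ →
      ∀ (k : Init_543.QK (Pc Φ.F)) (c : Ti X), c.1 ∈ k.Z → ∀ j j' : JJ Φ L, j.1 ∈ k.B →
      j'.1 ∈ k.B → j.1 ≠ j'.1 →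
      Two s₃ ((qdT (fun p : T.RIdx S.HH => p.tile) (sla_sub S) S.KK hLa hR hM hε hε1).Act k)
        {Sum.inr c} j j')
    {sd : Mo → E3 → Prop}
    -- 543, 527, 847 / 106
    (H : ∀ far t Ph s₃,
      (∀ a, (prS (s2 S fr3 Tw l0) hs hm j0 hj0 a).Good (ActR S Rt) (far a)) →
      (∀ a, ∀ i : PN (fun j : JJ Φ L => j.1) am a, ∀ j, i.1 = Sum.inl j →
        r (Sum.inl j) ∈ far a i) →
      (∀ a i F w, w ∈ far a i → (prS (s2 S fr3 Tw l0) hs hm j0 hj0 a).At F w →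
        OKp (prS (s2 S fr3 Tw l0) hs hm j0 hj0 a) (ActR S Rt) F w →
          (s2 S fr3 Tw l0).mu F w ∈ far a i) →
      CutR (s2 S fr3 Tw l0) hs hm j0 hj0 (fun _ => ActR S Rt) far t Ph s₃ →
      (∀ a, Rel a (far a) (t a)) → PosS (hH := hKK) Φ T f s' J0 S s₃ →
      TrOut (hH := hKK) (hdis := Sla.dis_KK)
        (qdT (fun p : T.RIdx S.HH => p.tile) (sla_sub S) S.KK hLa hR hM hε hε1) s₃
          (fun j => r (Sum.inl j)) UT ∧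
      VIn (hH := hKK) (hdis := Sla.dis_KK)
        (qdT (fun p : T.RIdx S.HH => p.tile) (sla_sub S) S.KK hLa hR hM hε hε1) s₃
          (fun j => r (Sum.inl j)) am sd ∧
      Dich (hH := hKK) (hdis := Sla.dis_KK)
        (qdT (fun p : T.RIdx S.HH => p.tile) (sla_sub S) S.KK hLa hR hM hε hε1) s₃ UT am sd) :
    ∃ (s₃ : GSt (S.mn fr3) (fun j : JJ Φ L => j.1)) (far₃ : JJ Φ L → Set E3),
      CutOut (s2 S fr3 Tw l0) am (fun _ => ActR S Rt) s₃ ∧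
      s₃.Inv (qdT (fun p : T.RIdx S.HH => p.tile) (sla_sub S) S.KK hLa hR hM hε hε1) far₃ ∧
      PosS (hH := hKK) Φ T f s' J0 S s₃ ∧
      (∀ (c : Ti X) (j : JJ Φ L), One s₃ {F | Sum.inr c ∈ (S.mn fr3).side F} j) ∧
      ∀ (k : Init_543.QK (Pc Φ.F)) (c : Ti X), c.1 ∈ k.Z → ∀ j j' : JJ Φ L, j.1 ∈ k.B →
        j'.1 ∈ k.B → j.1 ≠ j'.1 →
        Two s₃ ((qdT (fun p : T.RIdx S.HH => p.tile) (sla_sub S) S.KK hLa hR hM hε hε1).Act k)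
          {Sum.inr c} j j' := by
  choose far g1 g2 g3 using hgood
  obtain ⟨t, Ph, s₃, DR, hRel⟩ := hcut far g1
  have D3 : CutOut (s2 S fr3 Tw l0) am (fun _ => ActR S Rt) s₃ := cutOut_of DR
  have hAct : ∀ (a : Φ.F) (k : Ti X), Sum.inr k ∉ (fun _ : Φ.F => ActR S Rt) a :=
    fun _ _ => inr_ActR
  have hB := HB s₃ D3
  have h2 := H2 s₃ D3
  have h1 := one_S3 lo tt D3 hAct
  obtain ⟨hT, hV, hD⟩ := H far t Ph s₃ g1 g2 g3 DR hRel hB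
  obtain ⟨far₃, hI, -⟩ := exists_inv (hH := hKK) (hdis := Sla.dis_KK) (til := fun p : T.RIdx S.HH => p.tile) (s₃ := s₃) hne hZ hs0 hs' hL
    (fun j => DR.h1 j) (fun j => DR.conn j) hB (near_S3 lo tt hnb D3 hAct) h1 h2
    (base_S3 DR g2) hU hT hV hD
  exact ⟨s₃, far₃, D3, hI, hB, h1, h2⟩

end Crest.Agent.R096.Civ_662
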