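import Crest.Agent.R096.Dfi4_471

/-!
# Row 96, DOORS_final, part 5 (helper471): levels of the points of `s₂` (LEV)

`lev2` : every point `w` of `s₂` on a tile `P (T3.H p)` has a point `x` of the `T`-tile `p.tile`
with `σ ≤ lv a x ≤ 1 - σ`, `a` the family of `w`, from the same for the points of `s`, closeness of
`u c a` and `lv a` on the frontier of the core and the location of the vertex points (`hR`).
`Fm` : the families concerned (with barriers: the old families).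
-/

set_option autoImplicit false
set_option linter.unusedSectionVars false
set_option linter.style.longLine false

open Set Module
open scoped Classical

namespace Crest.Agent.R096.Dfi_471

open Crest.Agent.R096.Msh_715 Crest.Agent.R096.Agl5_543 Crest.Agent.R096.St_147
  Crest.Agent.R096.Seq_213 Crest.Agent.R096.Door_501 Crest.Agent.R096.Sla_184
  Crest.Agent.R096.Twr_438 Crest.Agent.R096.Exa_560 Crest.Agent.R096.Ess3_95
  Crest.Agent.R096.Ess4_95 Crest.Agent.R096.Dfi_539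
open Crest.Agent.R096.Sla_184.Sla (hf vf old tg F0 Fn Out OnS InL In)

variable {E : Type} [NormedAddCommGroup E] [NormedSpace ℝ E] [FiniteDimensional ℝ E]
variable {Om : Set E} {ι : Type} {T : Tiling Om ι} {κ : Type} {S : Sla T κ}
  {h3 : finrank ℝ E = 3} {J C : Type} {fam : J → C} [Nonempty J]
  {s : GSt (meshC T h3) fam} {r : J → E} {Sf : J → Set E} {nb : κ → C → Prop}
  {v0 v1 : ∀ c, C → VxK T S.K c} {u : κ → C → E → ℝ} {A B : κ → C → ℝ}
  {L : ∀ c, C → Lev T (frontier (S.K c)) J}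
  {Tw : Twrs (S.sh h3) S.n (outK S.hH S.dis s r)} {l0 : E → J}
  {c : κ} {a : C} {j : ℕ} {w x y : E}

/-- the base point of a point of the layers: on the frontier of the core, its tiles inside the core
contain the point; a point of the trace, of the exact pattern or a vertex with `Rgn` -/
theorem base2 (D : DIn S.hH s r Sf nb v0 v1 u A B) (lo : LevOut s nb u A B L)
    (tt : TwOut S h3 s r v0 v1 L Tw) (hw : w ∈ (s2 S h3 Tw l0).P) (hc : S.In c w) :
    ∃ q ∈ frontier (S.K c), w ∈ S.O c q ∧ T.at_ w = {i | i ∈ T.at_ q ∧ P (T.H i) ⊆ S.K c} ∧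
      ((q ∈ s.P ∧ s.lab q = (s2 S h3 Tw l0).lab w) ∨
        (∃ i ∈ (L c (fam ((s2 S h3 Tw l0).lab w))).J0, i = (s2 S h3 Tw l0).lab w ∧
          u c (fam ((s2 S h3 Tw l0).lab w)) q = (L c (fam ((s2 S h3 Tw l0).lab w))).lv i) ∨
        ∃ v : S.Vx c, v.1 = q ∧
          Rgn (S.sh h3 c) (v0 c (fam ((s2 S h3 Tw l0).lab w)))
            (v1 c (fam ((s2 S h3 Tw l0).lab w)))
            (trc S.hH S.dis s r c (fam ((s2 S h3 Tw l0).lab w)))
            (exa h3 S.hH S.dis (L c (fam ((s2 S h3 Tw l0).lab w)))) ((s2 S h3 Tw l0).lab w) v) := by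
  obtain ⟨-, h⟩ := in2 D lo tt hw hc
  rcases h with ⟨j, q, h1, h2, h4, h5, h6, h7, h8⟩ | ⟨j, v, h1, h2, h4, h5⟩
  · obtain ⟨e, he⟩ := pat_onE h4
    obtain ⟨g1, g2, g4, g5⟩ := at_hp e he h1 h2
    refine ⟨q, g2, ?_, ?_, ?_⟩
    · rw [h5]; exact g4
    · rw [h5]; exact g5
    · rcases h8 with ⟨-, k2, k4⟩ | ⟨k1, k2⟩
      · exact Or.inl ⟨k2, k4.symm⟩
      · refine Or.inr (Or.inl ⟨_, (exa_lab (L c _) k1).1, k2.symm, ?_⟩)
        rw [← lo.u c]
        exact (exa_lab (L c _) k1).2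
  · obtain ⟨g1, g2, g4, g5⟩ := at_vc (S := S) v h1
    refine ⟨v.1, g2, ?_, ?_, Or.inr (Or.inr ⟨v, rfl, h5⟩)⟩
    · rw [h4]; exact g4
    · rw [h4]; exact g5

/-- **(LEV) for `s₂`** -/
theorem lev2 (D : DIn S.hH s r Sf nb v0 v1 u A B) (lo : LevOut s nb u A B L)
    (tt : TwOut S h3 s r v0 v1 L Tw) (Fm : C → Prop) (lv : C → E → ℝ) {σ e : ℝ}
    (htr : ∀ w ∈ s.P, Fm (fam (s.lab w)) → σ ≤ lv (fam (s.lab w)) w ∧
      lv (fam (s.lab w)) w ≤ 1 - σ)
    (hnr : ∀ c a, nb c a → Fm a → ∀ x ∈ frontier (S.K c), |u c a x - lv a x| ≤ e)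
    (hA : ∀ c a, nb c a → Fm a → σ + e ≤ A c a ∧ B c a ≤ 1 - (σ + e))
    (hR : ∀ c a, nb c a → Fm a → ∀ i, ∀ v : S.Vx c,
      Rgn (S.sh h3 c) (v0 c a) (v1 c a) (trc S.hH S.dis s r c a)
        (exa h3 S.hH S.dis (L c a)) i v → σ ≤ lv a v.1 ∧ lv a v.1 ≤ 1 - σ)
    (hw : w ∈ (s2 S h3 Tw l0).P) (hF : Fm (fam ((s2 S h3 Tw l0).lab w)))
    {p : T.RIdx S.HH} (hp : w ∈ P (S.T3.H p)) :
    ∃ x ∈ P (T.H p.tile), σ ≤ lv (fam ((s2 S h3 Tw l0).lab w)) x ∧
      lv (fam ((s2 S h3 Tw l0).lab w)) x ≤ 1 - σ := by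
  have hpw : w ∈ P (T.H p.tile) := Sla.P3_sub p hp
  have hO : w ∈ Om := (s2_dim hw).1
  rcases Sla.out_or (S := S) hO with ho | ⟨c, hc⟩
  · obtain ⟨h1, h2, -⟩ := out2 hw ho
    refine ⟨w, hpw, ?_⟩
    rw [h2] at hF ⊢
    exact htr w h1 hF
  · have hn := (in2 D lo tt hw hc).1
    obtain ⟨q, h1, -, h2, h4⟩ := base2 D lo tt hw hc
    have hq : q ∈ P (T.H p.tile) := by
      have h5 : p.tile ∈ T.at_ w := hpw
      rw [h2] at h5
      exact h5.1
    refine ⟨q, hq, ?_⟩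
    rcases h4 with ⟨h5, h6⟩ | ⟨i, h5, -, h7⟩ | ⟨v, h5, h6⟩
    · rw [← h6] at hF ⊢
      exact htr q h5 hF
    · have h8 := lo.win c _ i h5
      have h9 := hnr c _ hn hF q h1
      have h10 := hA c _ hn hF
      rw [← h7] at h8
      rw [abs_le] at h9
      constructor <;> linarith [h8.1, h8.2, h9.1, h9.2, h10.1, h10.2]
    · rw [← h5]
      exact hR c _ hn hF _ v h6

end Crest.Agent.R096.Dfi_471
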