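import Crest.Agent.R096.Dff4_539
import Crest.Agent.R096.Dfi5_471

/-!
# R096 (row 96), DOORS_final (helper539): 892's cut for the state with layers
-/

set_option autoImplicit false
set_option linter.unusedSectionVars false
set_option linter.style.longLine false

open Set Module
open scoped Classical

namespace Crest.Agent.R096.Dff_539

open Crest.Agent.R096.Msh_715 Crest.Agent.R096.Agl5_543 Crest.Agent.R096.St_147
  Crest.Agent.R096.Seq_213 Crest.Agent.R096.Door_501 Crest.Agent.R096.Sla_184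
  Crest.Agent.R096.Twr_438 Crest.Agent.R096.Exa_560 Crest.Agent.R096.Ess3_95
  Crest.Agent.R096.Ess4_95 Crest.Agent.R096.Dfi_539 Crest.Agent.R096.Dfi_471
  Crest.Agent.R096.Cg_501 Crest.Agent.R096.SecW_892

variable {E : Type} [NormedAddCommGroup E] [NormedSpace ℝ E] [FiniteDimensional ℝ E]
variable {Om : Set E} {ι : Type} {T : Tiling Om ι} {κ : Type} {S : Sla T κ}
  {h3 : finrank ℝ E = 3} {J C Mo : Type} {fam : J → C} [Nonempty (J ⊕ Mo)]
  {s : GSt (meshC T h3) (Sum.map fam (id : Mo → Mo))} {r : J ⊕ Mo → E} {Sf : J ⊕ Mo → Set E}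
  {nb : κ → C ⊕ Mo → Prop}
  {v0 v1 : ∀ c, C ⊕ Mo → VxK T S.K c} {u : κ → C ⊕ Mo → E → ℝ} {A B : κ → C ⊕ Mo → ℝ}
  {L : ∀ c, C ⊕ Mo → Lev T (frontier (S.K c)) (J ⊕ Mo)}
  {Tw : Twrs (S.sh h3) S.n (outK S.hH S.dis s r)} {l0 : E → J ⊕ Mo} {am : Mo → C}

/-- **the cut of the state with layers** (892's `cutAll`) -/
theorem exists_cutR [Countable C] [Nonempty C] (D : DIn S.hH s r Sf nb v0 v1 u A B)
    (lo : LevOut s nb u A B L) (tt : TwOut S h3 s r v0 v1 L Tw)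
    (hs : BSep (s2 S h3 Tw l0) am) (hm : ∀ a, {m | am m = a}.Finite) (j0 : C → J)
    (hj0 : ∀ a, fam (j0 a) = a) (Act : C → Set (T.RIdx S.HH ⊕ κ))
    (far : ∀ a, PN fam am a → Set E)
    (hg : ∀ a, (prS (s2 S h3 Tw l0) hs hm j0 hj0 a).Good (Act a) (far a))
    (hfin : ∀ F : C2 T, (s.P ∩ F.On).Finite) :
    ∃ (t : ∀ a, St (S.mn h3) (pcol fam am a)) (Ph : C → Finset E) (s₃ : GSt (S.mn h3) fam),
      CutR (s2 S h3 Tw l0) hs hm j0 hj0 Act far t Ph s₃ :=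
  cutAll hg (fun a => pr_up h3 _ _ _ hs hm a _ (fun m _ => (h12 D _).1)
    fun w hw _ _ _ => s2_dim hw) (fin2 D lo tt hfin)

end Crest.Agent.R096.Dff_539
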