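import Crest.Agent.R096.Bar1_106

/-!
# Row 96, DOORS, barriers (helper106), part 2: the moats of a cell in a brick foam

* `exists_ends` : an edge of the foam has exactly two ends;
* `Mo.of2`, `Mo.of3` : the moats over the middle of a side of a facet / at an edge;
* `exists_mo` : every `(Z, a)` with `c ∈ Z`, `a ∉ Z`, `|Z| = 2, 3`, `fc (Z ∪ a) ≠ ∅` is a moat.
-/

set_option autoImplicit false
set_option linter.unusedSectionVars false

open Set Topology Filter

namespace Crest.Agent.R096.Bar_106

open Crest.Agent.R096.Brk1_582 Crest.Agent.R096.Brk2_582 Crest.Agent.R096.Etg_163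
open Crest.Agent.R096.Bsp_628 Crest.Agent.R096.Brk3_582 Crest.Agent.R096.Exc_965

section box

variable {κ : Type*} [Fintype κ] [Nonempty κ] {La : Set (κ → ℝ)} {F : Set (Bx κ)} {δ κ0 : ℝ}

/-- **an edge has exactly two ends** -/
theorem exists_ends (BF : BoxFoam La F δ κ0) (hLa : IsOpen La) (h3 : Fintype.card κ = 3)
    {A : Set F} (hA3 : A.ncard = 3) (hx : (fc (Pc F) A).Nonempty) :
    ∃ p m, p ≠ m ∧ p ∉ A ∧ m ∉ A ∧ (fc (Pc F) (insert p A)).Nonempty ∧
      (fc (Pc F) (insert m A)).Nonempty ∧
      ∀ g ∉ A, (fc (Pc F) (insert g A)).Nonempty → g = p ∨ g = m := by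
  classical
  have FF := foam BF hLa
  have hne : A.Nonempty := by
    rw [Set.nonempty_iff_ne_empty]; rintro rfl; simp at hA3
  have hA : A.Finite := FF.finite_of_fc hne hx
  have hdeg := deg_count BF hA hne hx
  have hdeg2 : {k | loA A k = hiA A k}.ncard = 2 := by omega
  have hle : ∀ k, loA A k ≤ hiA A k := by
    obtain ⟨x, hx⟩ := hx
    intro k
    have := (mem_fc_iff hA hne).1 hx k
    linarith [this.1, this.2]
  -- the direction of the edge
  obtain ⟨k, hk, huk⟩ : ∃ k, loA A k ≠ hiA A k ∧ ∀ k', loA A k' ≠ hiA A k' → k' = k := by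
    have h1 : ({k | loA A k = hiA A k}ᶜ : Set κ).ncard = 1 := by
      have := Set.ncard_add_ncard_compl {k | loA A k = hiA A k}
      rw [Nat.card_eq_fintype_card, h3, hdeg2] at this
      omega
    obtain ⟨k, hk⟩ := Set.ncard_eq_one.1 h1
    refine ⟨k, ?_, fun k' hk' => ?_⟩
    · have : k ∈ ({k | loA A k = hiA A k}ᶜ : Set κ) := by rw [hk]; rfl
      exact this
    · have : k' ∈ ({k | loA A k = hiA A k}ᶜ : Set κ) := hk'
      rw [hk] at this
      exact this
  have hlo : (loA A : κ → ℝ) ∈ fc (Pc F) A :=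
    (mem_fc_iff hA hne).2 fun i => ⟨le_rfl, hle i⟩
  have hhi : (hiA A : κ → ℝ) ∈ fc (Pc F) A :=
    (mem_fc_iff hA hne).2 fun i => ⟨hle i, le_rfl⟩
  have hnew : ∀ y ∈ fc (Pc F) A, (y k = loA A k ∨ y k = hiA A k) → ∃ g ∉ A, y ∈ Pc F g := by
    intro y hy hyk
    have h1 := (mem_relbd BF hLa hA hne hy).2 ⟨k, hk, hyk⟩
    by_contra hcon
    push Not at hcon
    apply h1
    ext g
    constructor
    · intro hg
      by_contra hgA
      exact hcon g hgA hg
    · intro hg
      exact mem_fc.1 hy g hg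
  obtain ⟨p, hpA, hp⟩ := hnew _ hlo (Or.inl rfl)
  obtain ⟨m, hmA, hm⟩ := hnew _ hhi (Or.inr rfl)
  have hins : ∀ {g : F} {y : κ → ℝ}, y ∈ fc (Pc F) A → y ∈ Pc F g → y ∈ fc (Pc F) (insert g A) := by
    intro g y hy hg
    rw [mem_fc]
    rintro x (rfl | hx)
    · exact hg
    · exact mem_fc.1 hy x hx
  have hpm : p ≠ m := by
    rintro rfl
    have h1 : bc (F := F) A ∈ Pc F p := by
      have hcv : Convex ℝ (Pc F p) := FF.cvx p
      have h2 := hcv hp hm (by norm_num : (0:ℝ) ≤ 1 / 2) (by norm_num : (0:ℝ) ≤ 1 / 2) (by norm_num)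
      convert h2 using 1
      funext i
      show (loA A i + hiA A i) / 2 = (1 / 2 : ℝ) * loA A i + (1 / 2 : ℝ) * hiA A i
      ring
    have h3 : p ∈ act (Pc F) (bc (F := F) A) := h1
    rw [FF.act_b hne hx] at h3
    exact hpA h3
  refine ⟨p, m, hpm, hpA, hmA, ⟨_, hins hlo hp⟩, ⟨_, hins hhi hm⟩, ?_⟩
  intro g hgA hg
  obtain ⟨y, hy⟩ := hg
  have hyA : y ∈ fc (Pc F) A := fc_anti (subset_insert g A) hy
  have hyg : y ∈ Pc F g := mem_fc.1 hy g (mem_insert g A)
  have h1 : act (Pc F) y ≠ A := by
    intro h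
    have : g ∈ act (Pc F) y := hyg
    rw [h] at this
    exact hgA this
  obtain ⟨k', hk', hyk⟩ := (mem_relbd BF hLa hA hne hyA).1 h1
  obtain rfl := huk k' hk'
  have hyb := (mem_fc_iff hA hne).1 hyA
  have hdg : ∀ i, i ≠ k' → loA A i = hiA A i := by
    intro i hi
    by_contra h
    exact hi (huk i h)
  -- at most one new brick at a point
  have hone : ∀ z ∈ fc (Pc F) A, ∀ g₁ g₂ : F, g₁ ∉ A → g₂ ∉ A → z ∈ Pc F g₁ → z ∈ Pc F g₂ →
      g₁ = g₂ := by
    intro z hz g₁ g₂ h₁ h₂ hz1 hz2
    by_contra hne12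
    have hfc : (fc (Pc F) (insert g₁ (insert g₂ A))).Nonempty := by
      refine ⟨z, ?_⟩
      rw [mem_fc]
      rintro x (rfl | rfl | hx)
      · exact hz1
      · exact hz2
      · exact mem_fc.1 hz x hx
    have hcard := FF.ncard_le_of_fc (insert_nonempty _ _) hfc
    rw [ncard_insert_of_notMem (by
      rintro (h | h)
      · exact hne12 h
      · exact h₁ h) (hA.insert g₂), ncard_insert_of_notMem h₂ hA, hA3, h3] at hcard
    omega
  rcases hyk with h | h
  · left
    have hyl : y = loA A := by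
      funext i
      by_cases hi : i = k'
      · rw [hi]; exact h
      · have := hyb i
        rw [← hdg i hi] at this
        exact le_antisymm this.2 this.1
    exact hone y hyA g p hgA hpA hyg (by rw [hyl]; exact hp)
  · right
    have hyl : y = hiA A := by
      funext i
      by_cases hi : i = k'
      · rw [hi]; exact h
      · have := hyb i
        rw [hdg i hi] at this
        exact le_antisymm this.2 this.1
    exact hone y hyA g m hgA hmA hyg (by rw [hyl]; exact hm)

end box

section mo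

variable {E : Type*} [NormedAddCommGroup E] [NormedSpace ℝ E] [CompleteSpace E] {I : Type*}
variable {La : Set E} {P : I → Set E} {b : Set I → E} {c d a p m : I}

theorem ncard5 (FF : Foam La P b 4) {S : Set I} (hS : (fc P S).Nonempty) {a₁ a₂ a₃ a₄ a₅ : I}
    (h1 : a₁ ∈ S) (h2 : a₂ ∈ S) (h3 : a₃ ∈ S) (h4 : a₄ ∈ S) (h5 : a₅ ∈ S)
    (hnd : [a₁, a₂, a₃, a₄, a₅].Nodup) : False := by
  classical
  have hf := FF.finite_of_fc ⟨_, h1⟩ hS
  have hc := FF.ncard_le_of_fc ⟨_, h1⟩ hS
  have h6 : (([a₁, a₂, a₃, a₄, a₅].toFinset : Finset I) : Set I) ⊆ S := by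
    intro x hx
    simp only [List.coe_toFinset, List.mem_cons, List.not_mem_nil, or_false, Set.mem_ofPred_eq] at hx
    rcases hx with rfl | rfl | rfl | rfl | rfl <;> assumption
  have h7 := Set.ncard_le_ncard h6 hf
  rw [Set.ncard_coe_finset, List.toFinset_card_of_nodup hnd] at h7
  simp at h7
  omega

/-- **moat at an edge** -/
theorem Mo.of3 (FF : Foam La P b 4) (hpc : p ≠ c) (hmc : m ≠ c) (hpm : p ≠ m) (hpa : p ≠ a)
    (hma : m ≠ a) (hca : c ≠ a) (hfc : (fc P (insert a ({c, p, m} : Set I))).Nonempty) :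
    Mo P c a {c, p, m} p m := by
  classical
  have hsub : ∀ x : I, {e | e ∈ ({c, p, m} : Set I) ∨ e = a ∨ e = x} =
      insert x (insert a ({c, p, m} : Set I)) := by
    intro x; ext e
    simp only [Set.mem_ofPred_eq, mem_insert_iff, mem_singleton_iff]
    tauto
  have hsp : {e | e ∈ ({c, p, m} : Set I) ∨ e = a ∨ e = p} = insert a ({c, p, m} : Set I) := by
    ext e
    simp only [Set.mem_ofPred_eq, mem_insert_iff, mem_singleton_iff]
    tauto
  have hsm : {e | e ∈ ({c, p, m} : Set I) ∨ e = a ∨ e = m} = insert a ({c, p, m} : Set I) := by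
    ext e
    simp only [Set.mem_ofPred_eq, mem_insert_iff, mem_singleton_iff]
    tauto
  refine ⟨by simp, ?_, hpm, hpa, hma, hpc, hmc, by rw [hsp]; exact hfc, by rw [hsm]; exact hfc,
    ⟨m, by simp, hmc, hpm.symm⟩, ⟨p, by simp, hpc, hpm⟩, ?_⟩
  · rintro (h | h | h)
    · exact hca h.symm
    · exact hpa h.symm
    · exact hma h.symm
  · intro u hu huc hd ha0 ha1 hlt
    have hI := hu.1
    have hpZ : p ∈ ({c, p, m} : Set I) := by simp
    have hmZ : m ∈ ({c, p, m} : Set I) := by simp
    have hdp : dv a ({c, p, m} : Set I) u p = u p := dv_in hpa hpZ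
    have hdm : dv a ({c, p, m} : Set I) u m = u m := dv_in hma hmZ
    have hp1 : u p < 1 := by rw [← hdp]; exact hlt p
    have hm1 : u m < 1 := by rw [← hdm]; exact hlt m
    have hout : ∀ e, e ≠ a → e ∉ ({c, p, m} : Set I) → u e = 1 := by
      intro e hea heZ
      by_contra hne
      have he1 : u e < 1 := lt_of_le_of_ne (hI e).2 hne
      simp only [mem_insert_iff, mem_singleton_iff, not_or] at heZ
      obtain ⟨h1, h2, h3⟩ := heZ
      refine ncard5 FF (S := {e | u e < 1}) hu.2.2 (a₁ := e) (a₂ := a) (a₃ := c) (a₄ := p) (a₅ := m)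
        he1 ha1 (by show u c < 1; rw [huc]; exact zero_lt_one) hp1 hm1 ?_
      simp only [List.nodup_cons, List.mem_cons, List.not_mem_nil, or_false, not_or,
        not_false_eq_true, List.nodup_nil, and_true]
      exact ⟨⟨hea, h1, h2, h3⟩, ⟨hca.symm, hpa.symm, hma.symm⟩, ⟨hpc.symm, hmc.symm⟩, hpm⟩
    obtain ⟨d', hd'c, hd'⟩ := hd
    have hd'a : d' ≠ a := by rintro rfl; rw [hd'] at ha0; exact lt_irrefl _ ha0
    have hd'Z : d' ∈ ({c, p, m} : Set I) := by
      by_contra h
      rw [hout d' hd'a h] at hd'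
      exact one_ne_zero hd'
    have hpm0 : u p = 0 ∨ u m = 0 := by
      rcases hd'Z with h | h | h
      · exact absurd h hd'c
      · left; rw [← h]; exact hd'
      · right; rw [← (show d' = m from h)]; exact hd'
    rw [hdp, hdm]
    funext e
    unfold uu
    by_cases hea : e = a
    · rw [if_pos hea, hea]
    · rw [if_neg hea]
      by_cases heZ : e ∈ ({c, p, m} : Set I)
      · rw [if_pos heZ]
        by_cases hep : e = p
        · rw [if_pos hep, hep]
          rcases hpm0 with h | h
          · rw [h, zero_sub, max_eq_right (by linarith [(hI m).1])]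
          · rw [h, sub_zero, max_eq_left (hI p).1]
        · rw [if_neg hep]
          by_cases hem : e = m
          · rw [if_pos hem, hem]
            rcases hpm0 with h | h
            · rw [h, zero_sub, neg_neg, max_eq_left (hI m).1]
            · rw [h, sub_zero, max_eq_right (by linarith [(hI p).1])]
          · rw [if_neg hem]
            rcases heZ with h | h | h
            · rw [h, huc]
            · exact absurd h hep
            · exact absurd h hem
      · rw [if_neg heZ, hout e hea heZ, if_neg (by rintro rfl; exact heZ hpZ),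
          if_neg (by rintro rfl; exact heZ hmZ), sub_zero]

/-- **moat over the middle of a side of a facet** -/
theorem Mo.of2 (FF : Foam La P b 4) (hdc : d ≠ c) (hca : c ≠ a) (hda : d ≠ a)
    (hpm : p ≠ m) (hp : p ∉ insert a ({c, d} : Set I)) (hm : m ∉ insert a ({c, d} : Set I))
    (hfp : (fc P (insert p (insert a ({c, d} : Set I)))).Nonempty)
    (hfm : (fc P (insert m (insert a ({c, d} : Set I)))).Nonempty)
    (two : ∀ g ∉ insert a ({c, d} : Set I),
      (fc P (insert g (insert a ({c, d} : Set I)))).Nonempty → g = p ∨ g = m) :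
    Mo P c a {c, d} p m := by
  classical
  have hsub : ∀ x : I, {e | e ∈ ({c, d} : Set I) ∨ e = a ∨ e = x} =
      insert x (insert a ({c, d} : Set I)) := by
    intro x; ext e
    simp only [Set.mem_ofPred_eq, mem_insert_iff, mem_singleton_iff]
    tauto
  have hpl : p ≠ a ∧ p ≠ c ∧ p ≠ d := by
    simpa only [mem_insert_iff, mem_singleton_iff, not_or] using hp
  have hml : m ≠ a ∧ m ≠ c ∧ m ≠ d := by
    simpa only [mem_insert_iff, mem_singleton_iff, not_or] using hm
  refine ⟨by simp, ?_, hpm, hpl.1, hml.1, hpl.2.1, hml.2.1, by rw [hsub]; exact hfp,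
    by rw [hsub]; exact hfm, ⟨d, by simp, hdc, hpl.2.2.symm⟩, ⟨d, by simp, hdc, hml.2.2.symm⟩, ?_⟩
  · rintro (h | h)
    · exact hca h.symm
    · exact hda h.symm
  · intro u hu huc hd ha0 ha1 hlt
    have hI := hu.1
    have hpZ : p ∉ ({c, d} : Set I) := by
      rintro (h | h)
      · exact hpl.2.1 h
      · exact hpl.2.2 h
    have hmZ : m ∉ ({c, d} : Set I) := by
      rintro (h | h)
      · exact hml.2.1 h
      · exact hml.2.2 h
    have hdp : dv a ({c, d} : Set I) u p = 1 - u p := dv_out hpl.1 hpZ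
    have hdm : dv a ({c, d} : Set I) u m = 1 - u m := dv_out hml.1 hmZ
    have hd1 : u d < 1 := by
      have := hlt d
      rwa [dv_in hda (by simp)] at this
    have hc1 : u c < 1 := by rw [huc]; exact zero_lt_one
    have hsome : ∀ e, e ≠ a → e ∉ ({c, d} : Set I) → u e ≠ 1 → e = p ∨ e = m := by
      intro e hea heZ hne
      have he1 : u e < 1 := lt_of_le_of_ne (hI e).2 hne
      refine two e (by
        rintro (h | h)
        · exact hea h
        · exact heZ h) (hu.2.2.mono (fc_anti ?_))
      rintro x (rfl | rfl | rfl | hx)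
      · exact he1
      · exact ha1
      · exact hc1
      · rw [show x = d from hx]; exact hd1
    obtain ⟨d', hd'c, hd'⟩ := hd
    have hd'a : d' ≠ a := by rintro rfl; rw [hd'] at ha0; exact lt_irrefl _ ha0
    have hd'd : d' = d := by
      by_contra hne
      have hZ : d' ∉ ({c, d} : Set I) := by
        rintro (h | h)
        · exact hd'c h
        · exact hne h
      have := hlt d'
      rw [dv_out hd'a hZ, hd'] at this
      linarith
    rw [hd'd] at hd'
    have hpm1 : u p = 1 ∨ u m = 1 := by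
      by_contra hcon
      push Not at hcon
      refine ncard5 FF (S := {e | u e < 1}) hu.2.2 (a₁ := p) (a₂ := m) (a₃ := a) (a₄ := c) (a₅ := d)
        (lt_of_le_of_ne (hI p).2 hcon.1) (lt_of_le_of_ne (hI m).2 hcon.2) ha1 hc1 hd1 ?_
      simp only [List.nodup_cons, List.mem_cons, List.not_mem_nil, or_false, not_or,
        not_false_eq_true, List.nodup_nil, and_true]
      exact ⟨⟨hpm, hpl.1, hpl.2.1, hpl.2.2⟩, ⟨hml.1, hml.2.1, hml.2.2⟩, ⟨hca.symm, hda.symm⟩, hdc.symm⟩
    rw [hdp, hdm]
    funext e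
    unfold uu
    by_cases hea : e = a
    · rw [if_pos hea, hea]
    · rw [if_neg hea]
      by_cases heZ : e ∈ ({c, d} : Set I)
      · rw [if_pos heZ, if_neg (by rintro rfl; exact hpZ heZ), if_neg (by rintro rfl; exact hmZ heZ)]
        rcases heZ with h | h
        · rw [h, huc]
        · rw [show e = d from h, hd']
      · rw [if_neg heZ]
        by_cases hep : e = p
        · rw [if_pos hep, hep]
          rcases hpm1 with h | h
          · rw [h, max_eq_right (by linarith [(hI m).2]), sub_zero]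
          · rw [h, show (1 : ℝ) - u p - (1 - 1) = 1 - u p by ring,
              max_eq_left (by linarith [(hI p).2])]
            ring
        · rw [if_neg hep]
          by_cases hem : e = m
          · rw [if_pos hem, hem]
            rcases hpm1 with h | h
            · rw [h, show -((1 : ℝ) - 1 - (1 - u m)) = 1 - u m by ring,
                max_eq_left (by linarith [(hI m).2])]
              ring
            · rw [h, max_eq_right (by linarith [(hI p).2]), sub_zero]
          · rw [if_neg hem, sub_zero]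
            by_contra hne
            rcases hsome e hea heZ hne with h | h
            · exact hep h
            · exact hem h

end mo

section exi

variable {κ : Type*} [Fintype κ] [Nonempty κ] {La : Set (κ → ℝ)} {F : Set (Bx κ)} {δ κ0 : ℝ}

/-- **every axis has two sides** -/
theorem exists_mo (BF : BoxFoam La F δ κ0) (hLa : IsOpen La) (h3 : Fintype.card κ = 3) {c a : F}
    {Z : Set F} (hcZ : c ∈ Z) (haZ : a ∉ Z) (hZ : Z.ncard = 2 ∨ Z.ncard = 3)
    (hfc : (fc (Pc F) (insert a Z)).Nonempty) : ∃ p m, Mo (Pc F) c a Z p m := by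
  classical
  have FF : Foam La (Pc F) (bc (F := F)) 4 := by
    have := foam BF hLa
    rwa [h3] at this
  have hca : c ≠ a := fun h => haZ (h ▸ hcZ)
  rcases hZ with hZ | hZ
  · obtain ⟨x, y, hxy, hZe⟩ := Set.ncard_eq_two.1 hZ
    obtain ⟨d, hdc, hZ2⟩ : ∃ d, d ≠ c ∧ Z = {c, d} := by
      rw [hZe] at hcZ
      rcases hcZ with h | h
      · exact ⟨y, by rw [h]; exact hxy.symm, by rw [hZe, h]⟩
      · exact ⟨x, by rw [show c = y from h]; exact hxy, by rw [hZe, show c = y from h, pair_comm]⟩
    subst hZ2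
    have hda : d ≠ a := by rintro rfl; exact haZ (by simp)
    have h4 : (insert a ({c, d} : Set F)).ncard = 3 := by
      rw [ncard_insert_of_notMem haZ (by simp), ncard_pair hdc.symm]
    obtain ⟨p, m, h5, h6, h7, h8, h9, h10⟩ := exists_ends BF hLa h3 h4 hfc
    exact ⟨p, m, Mo.of2 FF hdc hca hda h5 h6 h7 h8 h9 h10⟩
  · obtain ⟨x, y, z, hxy, hxz, hyz, hZe⟩ := Set.ncard_eq_three.1 hZ
    obtain ⟨p, m, hpc, hmc, hpm, hZ2⟩ : ∃ p m, p ≠ c ∧ m ≠ c ∧ p ≠ m ∧ Z = {c, p, m} := by
      rw [hZe] at hcZ
      rcases hcZ with h | h | h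
      · exact ⟨y, z, by rw [h]; exact hxy.symm, by rw [h]; exact hxz.symm, hyz, by rw [hZe, h]⟩
      · refine ⟨x, z, by rw [h]; exact hxy, by rw [h]; exact hyz.symm, hxz, ?_⟩
        rw [hZe, h]
        ext e; simp only [mem_insert_iff, mem_singleton_iff]; tauto
      · have h' : c = z := h
        refine ⟨x, y, by rw [h']; exact hxz, by rw [h']; exact hyz, hxy, ?_⟩
        rw [hZe, h']
        ext e; simp only [mem_insert_iff, mem_singleton_iff]; tauto
    subst hZ2
    refine ⟨p, m, Mo.of3 FF hpc hmc hpm ?_ ?_ hca hfc⟩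
    · rintro rfl; exact haZ (by simp)
    · rintro rfl; exact haZ (by simp)

end exi

end Crest.Agent.R096.Bar_106
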