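import Mathlib
import Crest.Agent.R096.Etg4_163
import Crest.Agent.R096.Coh6_184

/-! # Row 96, DOORS, barriers (helper543 for 106 #11427), Bar 2: connected sublevel and superlevel
sets of the distance from the axis of a moat on the boundary of a cell; unicoherence -/

set_option autoImplicit false
set_option linter.unusedSectionVars false

open Set Filter Topology

namespace Crest.Agent.R096.Bar_543

open Crest.Agent.R096.Coh_184 Crest.Agent.R096.Brk1_582 Crest.Agent.R096.Brk2_582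
  Crest.Agent.R096.Etg_163 Crest.Agent.R096.Vb_965 Crest.Agent.R096.Exc_965

/-! ### unicoherence -/

/-- **unicoherence** of a space with trivial torsors -/
theorem unicoh {X : Type*} [TopologicalSpace X] {A B : Set X} (hA : IsClosed A) (hB : IsClosed B)
    (ht : TrivF (ZMod 2) (A ∪ B)) (cA : IsPreconnected A) (cB : IsPreconnected B) :
    IsPreconnected (A ∩ B) := by
  classical
  rw [isPreconnected_closed_iff]
  rintro C D hC hD hcov ⟨x, hx, hxC⟩ ⟨y, hy, hyD⟩
  by_contra hno
  have hdis : ∀ z, z ∈ A ∩ B → z ∈ C → z ∈ D → False := fun z h1 h2 h3 =>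
    hno ⟨z, h1, h2, h3⟩
  let Cv : Fin 2 → Set X := fun i => if i = 0 then A else B
  let d : Fin 2 → Fin 2 → X → ZMod 2 := fun i j z => if i = j then 0 else if z ∈ C then 1 else 0
  have hI : LC (fun z => if z ∈ C then (1 : ZMod 2) else 0) (A ∩ B) := by
    intro z hz
    by_cases hzC : z ∈ C
    · have hzD : z ∉ D := fun h => hdis z hz hzC h
      filter_upwards [self_mem_nhdsWithin, nhdsWithin_le_nhds (hD.isOpen_compl.mem_nhds hzD)]
        with w hw hwD
      have : w ∈ C := (hcov hw).resolve_right hwD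
      rw [if_pos this, if_pos hzC]
    · filter_upwards [nhdsWithin_le_nhds (hC.isOpen_compl.mem_nhds hzC)] with w hw
      rw [if_neg hw, if_neg hzC]
  have hcoc : Coc Cv d (A ∪ B) := by
    refine ⟨fun i => ?_, ?_, fun i j => ?_, fun i j k z _ _ _ _ => ?_⟩
    · by_cases h : i = 0
      · simpa [Cv, h] using hA
      · simpa [Cv, h] using hB
    · rintro z (hz | hz)
      · exact mem_iUnion.2 ⟨0, by simpa [Cv] using hz⟩
      · exact mem_iUnion.2 ⟨1, by simpa [Cv] using hz⟩
    · by_cases h : i = j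
      · have : d i j = fun _ => 0 := by funext z; simp [d, h]
        rw [this]; exact LC_const _ _
      · have h1 : d i j = fun z => if z ∈ C then (1 : ZMod 2) else 0 := by
          funext z; simp [d, h]
        have h2 : Cv i ∩ Cv j ∩ (A ∪ B) ⊆ A ∩ B := by
          rintro z ⟨⟨hz1, hz2⟩, -⟩
          fin_cases i <;> fin_cases j
          · exact (h rfl).elim
          · exact ⟨by simpa [Cv] using hz1, by simpa [Cv] using hz2⟩
          · exact ⟨by simpa [Cv] using hz2, by simpa [Cv] using hz1⟩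
          · exact (h rfl).elim
        rw [h1]; exact hI.mono h2
    · have h2 : ∀ v : ZMod 2, v + v = 0 := fun v => CharTwo.add_self_eq_zero v
      by_cases hij : i = j
      · simp [d, hij]
      · by_cases hjk : j = k
        · simp [d, hjk]
        · have hik : i = k := by omega
          simp only [d, if_neg hij, if_neg hjk, if_pos hik, h2]
  obtain ⟨χ, h1, h2⟩ := ht 2 Cv d hcoc
  have hxy0 : χ 0 x = χ 0 y := by
    refine (h1 0).eq_of_preconnected ?_ ?_ ?_
    · have : Cv 0 ∩ (A ∪ B) = A := by simp [Cv]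
      rw [this]; exact cA
    · exact ⟨by simpa [Cv] using hx.1, Or.inl hx.1⟩
    · exact ⟨by simpa [Cv] using hy.1, Or.inl hy.1⟩
  have hxy1 : χ 1 x = χ 1 y := by
    refine (h1 1).eq_of_preconnected ?_ ?_ ?_
    · have : Cv 1 ∩ (A ∪ B) = B := by simp [Cv]
      rw [this]; exact cB
    · exact ⟨by simpa [Cv] using hx.2, Or.inl hx.1⟩
    · exact ⟨by simpa [Cv] using hy.2, Or.inl hy.1⟩
  have h3 := h2 0 1 x (by simpa [Cv] using hx.1) (by simpa [Cv] using hx.2) (Or.inl hx.1)
  have h4 := h2 0 1 y (by simpa [Cv] using hy.1) (by simpa [Cv] using hy.2) (Or.inl hy.1)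
  have hyC : y ∉ C := fun h => hdis y hy h hyD
  rw [hxy0, hxy1, h4] at h3
  simp [d, hxC, hyC] at h3

/-! ### the functions -/

section defs

variable {I : Type*}

open Classical in
/-- distance of the coordinate `e` from the axis -/
noncomputable def dv (a : I) (Z : Set I) (u : I → ℝ) (e : I) : ℝ :=
  if e = a then 0 else if e ∈ Z then u e else 1 - u e

open Classical in
/-- scaling away from the axis -/
noncomputable def scl (a : I) (Z : Set I) (τ : ℝ) (u : I → ℝ) (e : I) : ℝ :=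
  if e = a then u a else if e ∈ Z then τ * u e else 1 - τ * (1 - u e)

theorem dv_a {a : I} {Z : Set I} {u : I → ℝ} : dv a Z u a = 0 := by simp [dv]

theorem dv_Z {a : I} {Z : Set I} {u : I → ℝ} {e : I} (hea : e ≠ a) (he : e ∈ Z) :
    dv a Z u e = u e := by simp [dv, hea, he]

theorem dv_o {a : I} {Z : Set I} {u : I → ℝ} {e : I} (hea : e ≠ a) (he : e ∉ Z) :
    dv a Z u e = 1 - u e := by simp [dv, hea, he]

theorem dv_mem {a : I} {Z : Set I} {u : I → ℝ} (hu : ∀ c, 0 ≤ u c ∧ u c ≤ 1) (e : I) :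
    0 ≤ dv a Z u e ∧ dv a Z u e ≤ 1 := by
  have := hu e
  unfold dv
  split_ifs
  · exact ⟨le_rfl, zero_le_one⟩
  · exact this
  · exact ⟨by linarith [this.2], by linarith [this.1]⟩

theorem scl_a {a : I} {Z : Set I} {τ : ℝ} {u : I → ℝ} : scl a Z τ u a = u a := by simp [scl]

theorem dv_scl {a : I} {Z : Set I} {τ : ℝ} {u : I → ℝ} (e : I) :
    dv a Z (scl a Z τ u) e = τ * dv a Z u e := by
  unfold dv scl
  split_ifs <;> ring

theorem scl_one {a : I} {Z : Set I} {u : I → ℝ} : scl a Z 1 u = u := by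
  funext e
  unfold scl
  split_ifs with h1 h2
  · rw [h1]
  · ring
  · ring

theorem continuous_scl {a : I} {Z : Set I} {u : I → ℝ} : Continuous fun τ => scl a Z τ u := by
  refine continuous_pi fun e => ?_
  unfold scl
  split_ifs
  · exact continuous_const
  · exact continuous_id.mul continuous_const
  · exact continuous_const.sub (continuous_id.mul continuous_const)

open Classical in
/-- the axis -/
noncomputable def axu (a : I) (Z : Set I) (s : ℝ) (e : I) : ℝ :=
  if e = a then s else if e ∈ Z then 0 else 1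

theorem scl_zero {a : I} {Z : Set I} {u : I → ℝ} : scl a Z 0 u = axu a Z (u a) := by
  funext e
  unfold scl axu
  split_ifs <;> ring

theorem continuous_axu {a : I} {Z : Set I} : Continuous fun s => axu a Z s := by
  refine continuous_pi fun e => ?_
  unfold axu
  split_ifs
  · exact continuous_id
  · exact continuous_const
  · exact continuous_const

theorem dv_axu {a : I} {Z : Set I} {s : ℝ} (e : I) : dv a Z (axu a Z s) e = 0 := by
  unfold dv axu
  split_ifs <;> ring

end defs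

section foam

variable {E : Type*} [NormedAddCommGroup E] [NormedSpace ℝ E] [CompleteSpace E] {I : Type*}
variable {La : Set E} {P : I → Set E} {b : Set I → E} {N : ℕ}

/-- the boundary of the cell -/
def bdc (P : I → Set E) (c : I) : Set E := {q | q ∈ P c ∧ ∃ d, d ≠ c ∧ q ∈ P d}

variable (F : Foam La P b N) {c a : I} {Z : Set I}
variable (hcZ : c ∈ Z) (haZ : a ∉ Z) (hne : (fc P (insert a Z)).Nonempty)
  (hZ2 : ∃ d ∈ Z, d ≠ c)
include F hcZ haZ hne hZ2

omit F hcZ haZ hne hZ2 in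
theorem isCompact_bdc (F : Foam La P b N) : IsCompact (bdc P c) := isCompact_frontier' F c

/-- the points of the axis -/
theorem ax_mem {s : ℝ} (hs : s ∈ Icc (0 : ℝ) 1) :
    axu a Z s ∈ K P ∧ T b (axu a Z s) ∈ bdc P c ∧ sc P b (T b (axu a Z s)) = axu a Z s := by
  classical
  have hca : c ≠ a := fun h => haZ (h ▸ hcZ)
  have hK : axu a Z s ∈ K P := by
    refine ⟨fun e => ?_, ⟨c, by simp [axu, hca, hcZ]⟩, hne.mono (fc_anti fun e he => ?_)⟩
    · unfold axu
      split_ifs
      · exact hs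
      · exact ⟨le_rfl, zero_le_one⟩
      · exact ⟨zero_le_one, le_rfl⟩
    · have he' : axu a Z s e < 1 := he
      by_contra h
      have h1 : e ≠ a := fun h' => h (Or.inl h')
      have h2 : e ∉ Z := fun h' => h (Or.inr h')
      simp [axu, h1, h2] at he'
  have hsc := F.sc_T hK
  have hL := F.T_mem_La hK
  refine ⟨hK, ⟨?_, ?_⟩, hsc⟩
  · rw [← F.sc_eq_zero hL, hsc]; simp [axu, hca, hcZ]
  · obtain ⟨d, hd, hdc⟩ := hZ2
    have hda : d ≠ a := fun h => haZ (h ▸ hd)
    refine ⟨d, hdc, ?_⟩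
    rw [← F.sc_eq_zero hL, hsc]; simp [axu, hda, hd]

omit hne in
/-- scaling a point of the boundary -/
theorem scl_mem {q : E} (hq : q ∈ bdc P c) {τ : ℝ} (hτ : 0 ≤ τ)
    (h1 : ∀ e, τ * dv a Z (sc P b q) e ≤ 1)
    (hs : ∀ e ∈ Z, τ * sc P b q e < 1 → sc P b q e < 1)
    (hz : ∃ d, d ≠ c ∧ (d ∈ Z ∨ d = a) ∧ sc P b q d = 0) :
    scl a Z τ (sc P b q) ∈ K P ∧ T b (scl a Z τ (sc P b q)) ∈ bdc P c ∧
      sc P b (T b (scl a Z τ (sc P b q))) = scl a Z τ (sc P b q) := by
  classical
  have hca : c ≠ a := fun h => haZ (h ▸ hcZ)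
  have hqL := F.sub c hq.1
  have hu := F.sc_mem_K hqL
  set u := sc P b q with hu'
  have huc : u c = 0 := (F.sc_eq_zero hqL).2 hq.1
  have hc0 : scl a Z τ u c = 0 := by simp [scl, hca, hcZ, huc]
  have hK : scl a Z τ u ∈ K P := by
    refine ⟨fun e => ?_, ⟨c, hc0⟩, hu.2.2.mono (fc_anti fun e he => ?_)⟩
    · have h2 := h1 e
      have h3 := hu.1 e
      unfold scl
      unfold dv at h2
      split_ifs at h2 ⊢ with h4 h5
      · exact hu.1 a
      · exact ⟨mul_nonneg hτ h3.1, h2⟩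
      · have h6 := mul_nonneg hτ (sub_nonneg.2 h3.2)
        exact ⟨by linarith, by linarith⟩
    · have he' : scl a Z τ u e < 1 := he
      unfold scl at he'
      show u e < 1
      split_ifs at he' with h4 h5
      · rw [h4]; exact he'
      · exact hs e h5 he'
      · by_contra hcon
        have h6 : u e = 1 := le_antisymm (hu.1 e).2 (not_lt.1 hcon)
        rw [h6] at he'
        simp at he'
  have hsc := F.sc_T hK
  have hL := F.T_mem_La hK
  refine ⟨hK, ⟨?_, ?_⟩, hsc⟩
  · rw [← F.sc_eq_zero hL, hsc]; exact hc0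
  · obtain ⟨d, hdc, hd, hd0⟩ := hz
    refine ⟨d, hdc, ?_⟩
    rw [← F.sc_eq_zero hL, hsc]
    rcases hd with hd | hd
    · have hda : d ≠ a := fun h => haZ (h ▸ hd)
      simp [scl, hda, hd, hd0]
    · rw [hd] at hd0 ⊢
      simp [scl, hd0]

omit hne hZ2 in
/-- near the axis a point of the boundary has a zero in `Z \ c` or at `a` -/
theorem exists_zero {q : E} (hq : q ∈ bdc P c) (h1 : ∀ e, dv a Z (sc P b q) e < 1) :
    ∃ d, d ≠ c ∧ (d ∈ Z ∨ d = a) ∧ sc P b q d = 0 := by
  obtain ⟨hqc, d, hdc, hqd⟩ := hq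
  have hqL := F.sub c hqc
  have hd0 : sc P b q d = 0 := (F.sc_eq_zero hqL).2 hqd
  refine ⟨d, hdc, ?_, hd0⟩
  by_contra hcon
  have h2 : d ≠ a := fun h => hcon (Or.inr h)
  have h3 : d ∉ Z := fun h => hcon (Or.inl h)
  have h4 := h1 d
  rw [dv_o h2 h3, hd0] at h4
  linarith

/-- **starlike sets are connected** -/
theorem preconn_star {S : Set E} (hS : ∀ q ∈ S, q ∈ bdc P c ∧ ∀ e, dv a Z (sc P b q) e < 1)
    (hscl : ∀ q ∈ S, ∀ τ ∈ Icc (0 : ℝ) 1, T b (scl a Z τ (sc P b q)) ∈ S)
    {J : Set ℝ} (hJ : IsPreconnected J) (hJn : J.Nonempty) (hJ1 : J ⊆ Icc 0 1)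
    (hJS : ∀ s ∈ J, T b (axu a Z s) ∈ S) (hSJ : ∀ q ∈ S, sc P b q a ∈ J) :
    IsPreconnected S ∧ S.Nonempty := by
  have hB : IsPreconnected ((fun s => T b (axu a Z s)) '' J) := by
    refine hJ.image _ ((continuousOn_T F).comp continuous_axu.continuousOn fun s hs => ?_)
    exact (ax_mem F hcZ haZ hne hZ2 (hJ1 hs)).1
  have hBS : (fun s => T b (axu a Z s)) '' J ⊆ S := by
    rintro _ ⟨s, hs, rfl⟩; exact hJS s hs
  refine ⟨preconn_of_core hB hBS (hJn.image _) fun q hq => ?_, (hJn.image _).mono hBS⟩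
  obtain ⟨hqb, hq1⟩ := hS q hq
  have hqL := F.sub c hqb.1
  have hu := F.sc_mem_K hqL
  have hmem : ∀ τ ∈ Icc (0 : ℝ) 1, scl a Z τ (sc P b q) ∈ K P := by
    intro τ hτ
    refine (scl_mem F hcZ haZ hZ2 hqb hτ.1 (fun e => ?_) (fun e he h => ?_)
      (exists_zero F hcZ haZ hqb hq1)).1
    · have h1 := dv_mem (a := a) (Z := Z) hu.1 e
      nlinarith [hτ.1, hτ.2, h1.1, h1.2]
    · have hea : e ≠ a := fun h' => haZ (h' ▸ he)
      have := hq1 e
      rwa [dv_Z hea he] at this
  refine ⟨(fun τ => T b (scl a Z τ (sc P b q))) '' Icc 0 1, ?_, ?_, ?_, ?_⟩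
  · rintro _ ⟨τ, hτ, rfl⟩; exact hscl q hq τ hτ
  · refine ⟨1, right_mem_Icc.2 zero_le_one, ?_⟩
    show T b (scl a Z 1 (sc P b q)) = q
    rw [scl_one, F.T_sc hqL]
  · refine ⟨_, ⟨0, left_mem_Icc.2 zero_le_one, rfl⟩, sc P b q a, hSJ q hq, ?_⟩
    show T b (axu a Z (sc P b q a)) = T b (scl a Z 0 (sc P b q))
    rw [scl_zero]
  · exact isPreconnected_Icc.image _ ((continuousOn_T F).comp continuous_scl.continuousOn hmem)

end foam

end Crest.Agent.R096.Bar_543
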