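import Mathlib
import Crest.Agent.R096.Bar2_543

/-! # Row 96, DOORS, barriers (helper543 for 106 #11427), Bar 3: `{Fs ≤ t}`, `{Fs ≥ t}`, `{Fs = t}`,
`{Gm ≤ t}`, `{Gm ≥ t}`, `{Gm = t}` on the boundary of a cell are connected -/

set_option autoImplicit false
set_option linter.unusedSectionVars false

open Set Filter Topology

namespace Crest.Agent.R096.Bar_543

open Crest.Agent.R096.Coh_184 Crest.Agent.R096.Brk1_582 Crest.Agent.R096.Brk2_582
  Crest.Agent.R096.Etg_163 Crest.Agent.R096.Vb_965 Crest.Agent.R096.Exc_965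

section defs

variable {I : Type*}

/-- sum of the distances (affine on the 2-cells) -/
noncomputable def Fs (N : Finset I) (a : I) (Z : Set I) (u : I → ℝ) : ℝ := ∑ e ∈ N, dv a Z u e

/-- maximum of the distances -/
noncomputable def Fm (a : I) (Z : Set I) (u : I → ℝ) : ℝ := ⨆ e, dv a Z u e

/-- the truthful barrier function -/
noncomputable def Gm (l0 m ra : ℝ) (a : I) (Z : Set I) (u : I → ℝ) : ℝ :=
  max (Fm a Z u / l0) (|u a - m| / ra)

theorem Fs_scl {N : Finset I} {a : I} {Z : Set I} {τ : ℝ} {u : I → ℝ} :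
    Fs N a Z (scl a Z τ u) = τ * Fs N a Z u := by
  unfold Fs
  rw [Finset.mul_sum]
  exact Finset.sum_congr rfl fun e _ => dv_scl e

theorem Fs_axu {N : Finset I} {a : I} {Z : Set I} {s : ℝ} : Fs N a Z (axu a Z s) = 0 :=
  Finset.sum_eq_zero fun e _ => dv_axu e

theorem dv_le_Fs {N : Finset I} {a : I} {Z : Set I} {u : I → ℝ} (hu : ∀ c, 0 ≤ u c ∧ u c ≤ 1)
    {e : I} (he : e ∈ N) : dv a Z u e ≤ Fs N a Z u :=
  Finset.single_le_sum (f := fun e => dv a Z u e) (fun i _ => (dv_mem hu i).1) he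

theorem bdd_dv {a : I} {Z : Set I} {u : I → ℝ} (hu : ∀ c, 0 ≤ u c ∧ u c ≤ 1) :
    BddAbove (range fun e => dv a Z u e) := by
  refine ⟨1, ?_⟩
  rintro _ ⟨e, rfl⟩
  exact (dv_mem hu e).2

theorem dv_le_Fm {a : I} {Z : Set I} {u : I → ℝ} (hu : ∀ c, 0 ≤ u c ∧ u c ≤ 1) (e : I) :
    dv a Z u e ≤ Fm a Z u := le_ciSup (bdd_dv hu) e

theorem Fm_le {a : I} {Z : Set I} {u : I → ℝ} {t : ℝ} (h : ∀ e, dv a Z u e ≤ t) :
    Fm a Z u ≤ t := by
  have _ : Nonempty I := ⟨a⟩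
  exact ciSup_le h

theorem Fm_nonneg {a : I} {Z : Set I} {u : I → ℝ} (hu : ∀ c, 0 ≤ u c ∧ u c ≤ 1) :
    0 ≤ Fm a Z u := (dv_mem hu a).1.trans (dv_le_Fm hu a)

theorem exists_Fm {a : I} {Z : Set I} {u : I → ℝ} (hu : ∀ c, 0 ≤ u c ∧ u c ≤ 1)
    (hf : {e | dv a Z u e ≠ 0}.Finite) : ∃ e, dv a Z u e = Fm a Z u := by
  classical
  obtain ⟨e, he, hmax⟩ := (insert a hf.toFinset).exists_max_image (fun e => dv a Z u e)
    ⟨a, Finset.mem_insert_self _ _⟩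
  refine ⟨e, le_antisymm (dv_le_Fm hu e) (Fm_le fun e' => ?_)⟩
  by_cases h : dv a Z u e' = 0
  · rw [h]; exact (dv_mem hu e).1
  · exact hmax e' (Finset.mem_insert_of_mem (hf.mem_toFinset.2 h))

theorem Gm_le_iff {l0 m ra : ℝ} (hl : 0 < l0) (hr : 0 < ra) {a : I} {Z : Set I} {u : I → ℝ}
    {t : ℝ} : Gm l0 m ra a Z u ≤ t ↔ Fm a Z u ≤ t * l0 ∧ |u a - m| ≤ t * ra := by
  unfold Gm
  rw [max_le_iff, div_le_iff₀ hl, div_le_iff₀ hr]

theorem le_Gm_iff {l0 m ra : ℝ} (hl : 0 < l0) (hr : 0 < ra) {a : I} {Z : Set I} {u : I → ℝ}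
    {t : ℝ} : t ≤ Gm l0 m ra a Z u ↔ t * l0 ≤ Fm a Z u ∨ t * ra ≤ |u a - m| := by
  unfold Gm
  rw [le_max_iff, le_div_iff₀ hl, le_div_iff₀ hr]

end defs

section foam

variable {E : Type*} [NormedAddCommGroup E] [NormedSpace ℝ E] [CompleteSpace E] {I : Type*}
variable {La : Set E} {P : I → Set E} {b : Set I → E} {N : ℕ}

variable (F : Foam La P b N) {c a : I} {Z : Set I}
variable (hcZ : c ∈ Z) (haZ : a ∉ Z) (hne : (fc P (insert a Z)).Nonempty)
  (hZ2 : ∃ d ∈ Z, d ≠ c)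
include F hcZ haZ hne hZ2

omit hcZ haZ hZ2 in
theorem fin_dv {q : E} (hq : q ∈ La) : {e | dv a Z (sc P b q) e ≠ 0}.Finite := by
  have hZf : (insert a Z).Finite := F.finite_of_fc ⟨a, Or.inl rfl⟩ hne
  refine (hZf.union (F.sc_lt_one_finite hq)).subset fun e he => ?_
  by_contra hcon
  have h1 : e ≠ a := fun h => hcon (Or.inl (Or.inl h))
  have h2 : e ∉ Z := fun h => hcon (Or.inl (Or.inr h))
  have h3 : ¬ sc P b q e < 1 := fun h => hcon (Or.inr h)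
  have h4 : sc P b q e = 1 := le_antisymm (F.sc_le_one hq e) (not_lt.1 h3)
  apply he
  rw [dv_o h1 h2, h4]; ring

omit haZ hne hZ2 in
theorem touch_of_zero {q : E} (hq : q ∈ bdc P c) {e : I} (h : sc P b q e < 1) :
    (P e ∩ P c).Nonempty := by
  have hqL := F.sub c hq.1
  obtain ⟨y, hy⟩ := F.sc_lt_one_fc hqL
  refine ⟨y, mem_fc.1 hy e h, mem_fc.1 hy c ?_⟩
  show sc P b q c < 1
  rw [(F.sc_eq_zero hqL).2 hq.1]; exact one_pos

/-- **`{Fs ≤ t}`** -/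
theorem fs_le {Nf : Finset I} (hN : ∀ e, (P e ∩ P c).Nonempty → e ∈ Nf) {t : ℝ} (h0 : 0 ≤ t)
    (h1 : t < 1) : IsPreconnected {q | q ∈ bdc P c ∧ Fs Nf a Z (sc P b q) ≤ t} ∧
      {q | q ∈ bdc P c ∧ Fs Nf a Z (sc P b q) ≤ t}.Nonempty := by
  have hlt : ∀ q ∈ {q | q ∈ bdc P c ∧ Fs Nf a Z (sc P b q) ≤ t},
      q ∈ bdc P c ∧ ∀ e, dv a Z (sc P b q) e < 1 := by
    rintro q ⟨hq, hqt⟩
    have hqL := F.sub c hq.1
    have hu := (F.sc_mem_K hqL).1
    refine ⟨hq, fun e => ?_⟩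
    by_cases he : (P e ∩ P c).Nonempty
    · exact ((dv_le_Fs hu (hN e he)).trans hqt).trans_lt h1
    · have h2 : ¬ sc P b q e < 1 := fun h => he (touch_of_zero F hcZ hq h)
      have h3 : sc P b q e = 1 := le_antisymm (hu e).2 (not_lt.1 h2)
      by_cases hea : e = a
      · rw [hea, dv_a]; exact one_pos
      · by_cases heZ : e ∈ Z
        · exfalso
          apply he
          obtain ⟨y, hy⟩ := hne
          exact ⟨y, mem_fc.1 hy e (Or.inr heZ), mem_fc.1 hy c (Or.inr hcZ)⟩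
        · rw [dv_o hea heZ, h3]; norm_num
  refine preconn_star F hcZ haZ hne hZ2 hlt ?_ (J := Icc 0 1) isPreconnected_Icc
    ⟨0, left_mem_Icc.2 zero_le_one⟩ Subset.rfl ?_ ?_
  · rintro q hq τ hτ
    obtain ⟨hqb, hq1⟩ := hlt q hq
    have hqL := F.sub c hqb.1
    have hu := (F.sc_mem_K hqL).1
    obtain ⟨-, g1, g2⟩ := scl_mem F hcZ haZ hZ2 hqb hτ.1 (fun e => by
      have h3 := dv_mem (a := a) (Z := Z) hu e
      nlinarith [hτ.1, hτ.2, h3.1, h3.2]) (fun e he h => by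
      have hea : e ≠ a := fun h' => haZ (h' ▸ he)
      have := hq1 e
      rwa [dv_Z hea he] at this) (exists_zero F hcZ haZ hqb hq1)
    refine ⟨g1, ?_⟩
    rw [g2, Fs_scl]
    have h3 : 0 ≤ Fs Nf a Z (sc P b q) := Finset.sum_nonneg fun e _ => (dv_mem hu e).1
    nlinarith [hτ.1, hτ.2, hq.2]
  · intro s hs
    obtain ⟨-, g1, g2⟩ := ax_mem F hcZ haZ hne hZ2 hs
    exact ⟨g1, by rw [g2, Fs_axu]; exact h0⟩
  · rintro q ⟨hq, -⟩
    exact (F.sc_mem_K (F.sub c hq.1)).1 a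

/-- **`{Gm ≤ t}`** -/
theorem gm_le {l0 m ra t : ℝ} (hl : 0 < l0) (hr : 0 < ra) (h0 : 0 ≤ t) (h1 : t * l0 < 1)
    (hm0 : 0 ≤ m) (hm1 : m ≤ 1) :
    IsPreconnected {q | q ∈ bdc P c ∧ Gm l0 m ra a Z (sc P b q) ≤ t} ∧
      {q | q ∈ bdc P c ∧ Gm l0 m ra a Z (sc P b q) ≤ t}.Nonempty := by
  have htr : 0 ≤ t * ra := mul_nonneg h0 hr.le
  have hlt : ∀ q ∈ {q | q ∈ bdc P c ∧ Gm l0 m ra a Z (sc P b q) ≤ t},
      q ∈ bdc P c ∧ ∀ e, dv a Z (sc P b q) e < 1 := by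
    rintro q ⟨hq, hqt⟩
    have hu := (F.sc_mem_K (F.sub c hq.1)).1
    exact ⟨hq, fun e => ((dv_le_Fm hu e).trans ((Gm_le_iff hl hr).1 hqt).1).trans_lt h1⟩
  refine preconn_star F hcZ haZ hne hZ2 hlt ?_
    (J := Icc (max 0 (m - t * ra)) (min 1 (m + t * ra))) isPreconnected_Icc
    ⟨m, ⟨max_le hm0 (by linarith), le_min hm1 (by linarith)⟩⟩
    (fun s hs => ⟨(le_max_left _ _).trans hs.1, hs.2.trans (min_le_left _ _)⟩) ?_ ?_
  · rintro q hq τ hτ
    obtain ⟨hqb, hq1⟩ := hlt q hq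
    have hqL := F.sub c hqb.1
    have hu := (F.sc_mem_K hqL).1
    obtain ⟨-, g1, g2⟩ := scl_mem F hcZ haZ hZ2 hqb hτ.1 (fun e => by
      have h3 := dv_mem (a := a) (Z := Z) hu e
      nlinarith [hτ.1, hτ.2, h3.1, h3.2]) (fun e he h => by
      have hea : e ≠ a := fun h' => haZ (h' ▸ he)
      have := hq1 e
      rwa [dv_Z hea he] at this) (exists_zero F hcZ haZ hqb hq1)
    refine ⟨g1, ?_⟩
    have h5 := (Gm_le_iff hl hr).1 hq.2
    rw [g2, Gm_le_iff hl hr, scl_a]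
    refine ⟨Fm_le fun e => ?_, h5.2⟩
    rw [dv_scl]
    have h3 := dv_mem (a := a) (Z := Z) hu e
    have h4 := (dv_le_Fm (a := a) (Z := Z) hu e).trans h5.1
    nlinarith [hτ.1, hτ.2, h3.1]
  · intro s hs
    have hs1 : s ∈ Icc (0 : ℝ) 1 :=
      ⟨(le_max_left _ _).trans hs.1, hs.2.trans (min_le_left _ _)⟩
    obtain ⟨-, g1, g2⟩ := ax_mem F hcZ haZ hne hZ2 hs1
    refine ⟨g1, ?_⟩
    rw [g2, Gm_le_iff hl hr]
    refine ⟨Fm_le fun e => by rw [dv_axu]; positivity, ?_⟩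
    have h3 : axu a Z s a = s := by simp [axu]
    rw [h3, abs_le]
    have h4 := (le_max_right 0 (m - t * ra)).trans hs.1
    have h5 := hs.2.trans (min_le_right 1 (m + t * ra))
    exact ⟨by linarith, by linarith⟩
  · rintro q ⟨hq, hqt⟩
    have hu := (F.sc_mem_K (F.sub c hq.1)).1 a
    have h5 := abs_le.1 ((Gm_le_iff hl hr).1 hqt).2
    exact ⟨max_le hu.1 (by linarith [h5.1]), le_min hu.2 (by linarith [h5.2])⟩

omit hcZ haZ hne hZ2 in
/-- barycentres of two cells -/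
theorem bar_mem {e : I} (hec : e ≠ c) (h : (P e ∩ P c).Nonempty) :
    b {c, e} ∈ bdc P c ∧ b {c, e} ∈ P e ∧ ∀ d, d ≠ c → d ≠ e → sc P b (b {c, e}) d = 1 := by
  classical
  have hfc : (fc P {c, e}).Nonempty := by
    obtain ⟨y, h1, h2⟩ := h
    refine ⟨y, ?_⟩
    rw [mem_fc]
    rintro d (rfl | hd)
    · exact h2
    · rw [mem_singleton_iff.1 hd]; exact h1
  have hA : ({c, e} : Set I).Nonempty := ⟨c, Or.inl rfl⟩
  have hact := F.act_b hA hfc
  have h1 : b {c, e} ∈ P c := by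
    have : c ∈ act P (b {c, e}) := by rw [hact]; exact Or.inl rfl
    exact this
  have h2 : b {c, e} ∈ P e := by
    have : e ∈ act P (b {c, e}) := by rw [hact]; exact Or.inr rfl
    exact this
  refine ⟨⟨h1, e, hec, h2⟩, h2, fun d hd hde => ?_⟩
  rw [F.sc_b hA hfc]
  rw [if_neg]
  rintro (h3 | h3)
  · exact hd h3
  · exact hde h3

variable (hD : ∀ e, e ≠ c → (P e ∩ P c).Nonempty → ∀ t, 0 < t → t < 1 →
  IsPreconnected (Dge P b c e t))
include hD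

/-- **`{Fs ≥ t}`** -/
theorem fs_ge {Nf : Finset I} (hN : ∀ e, (P e ∩ P c).Nonempty → e ∈ Nf) {t : ℝ} (h0 : 0 < t)
    (h1 : t < 1) : IsPreconnected {q | q ∈ bdc P c ∧ t ≤ Fs Nf a Z (sc P b q)} ∧
      {q | q ∈ bdc P c ∧ t ≤ Fs Nf a Z (sc P b q)}.Nonempty := by
  classical
  have htouch : ∀ e ∈ insert a Z, (P e ∩ P c).Nonempty := by
    intro e he
    obtain ⟨y, hy⟩ := hne
    exact ⟨y, mem_fc.1 hy e he, mem_fc.1 hy c (Or.inr hcZ)⟩
  have hac : a ≠ c := fun h => haZ (h ▸ hcZ)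
  obtain ⟨d0, hd0, hd0c⟩ := id hZ2
  obtain ⟨hx1, hx2, hx3⟩ := bar_mem F hac (htouch a (Or.inl rfl))
  set W : Set E := {q | q ∈ bdc P c ∧ ((∃ e ∈ Z, e ≠ c ∧ t ≤ sc P b q e) ∨
    ∃ e, e ∉ insert a Z ∧ q ∈ P e)} with hW
  have hDsub : ∀ e ∈ Z, e ≠ c → Dge P b c e t ⊆ W := fun e he hec q hq =>
    ⟨⟨hq.1, hq.2.1⟩, Or.inl ⟨e, he, hec, hq.2.2⟩⟩
  have hxD : ∀ e ∈ Z, e ≠ c → b {c, a} ∈ Dge P b c e t := fun e he hec =>
    ⟨hx1.1, hx1.2, by
      rw [hx3 e hec (fun h => haZ (h ▸ he))]; exact h1.le⟩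
  have hWc : IsPreconnected W := by
    refine isPreconnected_of_forall (b {c, a}) fun q hq => ?_
    obtain ⟨hqb, ⟨e, he, hec, hqe⟩ | ⟨e, he, hqe⟩⟩ := hq
    · exact ⟨Dge P b c e t, hDsub e he hec, hxD e he hec, ⟨hqb.1, hqb.2, hqe⟩,
        hD e hec (htouch e (Or.inr he)) t h0 h1⟩
    · have hec : e ≠ c := fun h => he (Or.inr (h ▸ hcZ))
      have hted : (P e ∩ P c).Nonempty := ⟨q, hqe, hqb.1⟩
      obtain ⟨g1, g2, g3⟩ := bar_mem F hec hted
      have hd0e : d0 ≠ e := fun h => he (Or.inr (h ▸ hd0))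
      refine ⟨(P e ∩ P c) ∪ Dge P b c d0 t, ?_, Or.inr (hxD d0 hd0 hd0c), Or.inl ⟨hqe, hqb.1⟩, ?_⟩
      · rintro y (hy | hy)
        · exact ⟨⟨hy.2, e, hec, hy.1⟩, Or.inr ⟨e, he, hy.1⟩⟩
        · exact hDsub d0 hd0 hd0c hy
      · refine IsPreconnected.union (b {c, e}) ⟨g2, g1.1⟩ ⟨g1.1, g1.2, ?_⟩
          ((F.cvx e).inter (F.cvx c)).isPreconnected
          (hD d0 hd0c (htouch d0 (Or.inr hd0)) t h0 h1)
        rw [g3 d0 hd0c hd0e]; exact h1.le
  have hWS : W ⊆ {q | q ∈ bdc P c ∧ t ≤ Fs Nf a Z (sc P b q)} := by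
    rintro q ⟨hqb, h⟩
    have hqL := F.sub c hqb.1
    have hu := (F.sc_mem_K hqL).1
    refine ⟨hqb, ?_⟩
    rcases h with ⟨e, he, hec, hqe⟩ | ⟨e, he, hqe⟩
    · have hea : e ≠ a := fun h' => haZ (h' ▸ he)
      have h3 := dv_le_Fs (a := a) (Z := Z) hu (hN e (htouch e (Or.inr he)))
      rw [dv_Z hea he] at h3
      exact hqe.trans h3
    · have hea : e ≠ a := fun h => he (Or.inl h)
      have heZ : e ∉ Z := fun h => he (Or.inr h)
      have h3 := dv_le_Fs (a := a) (Z := Z) hu (hN e ⟨q, hqe, hqb.1⟩)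
      rw [dv_o hea heZ, (F.sc_eq_zero hqL).2 hqe] at h3
      linarith
  have hWn : W.Nonempty := ⟨_, hDsub d0 hd0 hd0c (hxD d0 hd0 hd0c)⟩
  refine ⟨preconn_of_core hWc hWS hWn fun q hq => ?_, hWn.mono hWS⟩
  by_cases hqW : q ∈ W
  · exact ⟨{q}, by rintro y rfl; exact hq, rfl, ⟨q, rfl, hqW⟩, isPreconnected_singleton⟩
  · obtain ⟨hqb, hqt⟩ := hq
    have hqL := F.sub c hqb.1
    have hu := (F.sc_mem_K hqL).1
    have hq1 : ∀ e, dv a Z (sc P b q) e < 1 := by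
      intro e
      by_cases hea : e = a
      · rw [hea, dv_a]; exact one_pos
      by_cases heZ : e ∈ Z
      · rw [dv_Z hea heZ]
        by_cases hec : e = c
        · rw [hec, (F.sc_eq_zero hqL).2 hqb.1]; exact one_pos
        · by_contra hcon
          exact hqW ⟨hqb, Or.inl ⟨e, heZ, hec, by linarith⟩⟩
      · rw [dv_o hea heZ]
        have h3 : 0 < sc P b q e := by
          refine lt_of_le_of_ne (hu e).1 fun h => ?_
          exact hqW ⟨hqb, Or.inr ⟨e, by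
            rintro (h' | h')
            · exact hea h'
            · exact heZ h', (F.sc_eq_zero hqL).1 h.symm⟩⟩
        linarith
    obtain ⟨e0, he0⟩ := exists_Fm (a := a) (Z := Z) hu (fin_dv F hne hqL)
    have hle : ∀ e, dv a Z (sc P b q) e ≤ dv a Z (sc P b q) e0 := fun e => by
      rw [he0]; exact dv_le_Fm hu e
    set M := dv a Z (sc P b q) e0 with hM
    have hM0 : 0 < M := by
      by_contra hcon
      have h3 : ∀ e, dv a Z (sc P b q) e = 0 := fun e =>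
        le_antisymm ((hle e).trans (not_lt.1 hcon)) (dv_mem hu e).1
      have h4 : Fs Nf a Z (sc P b q) = 0 := Finset.sum_eq_zero fun e _ => h3 e
      rw [h4] at hqt
      linarith
    have hM1 : M < 1 := hq1 e0
    have h1M : 1 ≤ 1 / M := by rw [le_div_iff₀ hM0]; linarith
    have hz := exists_zero F hcZ haZ hqb hq1
    have hmem : ∀ τ ∈ Icc (1 : ℝ) (1 / M), scl a Z τ (sc P b q) ∈ K P ∧
        T b (scl a Z τ (sc P b q)) ∈ bdc P c ∧
        sc P b (T b (scl a Z τ (sc P b q))) = scl a Z τ (sc P b q) := by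
      intro τ hτ
      refine scl_mem F hcZ haZ hZ2 hqb (zero_le_one.trans hτ.1) (fun e => ?_) (fun e he h => ?_) hz
      · have h3 : τ * M ≤ 1 := by
          have := hτ.2
          rwa [le_div_iff₀ hM0] at this
        have h4 := hle e
        nlinarith [hτ.1]
      · have h3 := (hu e).1
        nlinarith [hτ.1]
    refine ⟨(fun τ => T b (scl a Z τ (sc P b q))) '' Icc 1 (1 / M), ?_, ?_, ?_, ?_⟩
    · rintro _ ⟨τ, hτ, rfl⟩
      obtain ⟨-, g1, g2⟩ := hmem τ hτ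
      refine ⟨g1, ?_⟩
      show t ≤ Fs Nf a Z (sc P b (T b (scl a Z τ (sc P b q))))
      rw [g2, Fs_scl]
      nlinarith [hτ.1]
    · refine ⟨1, left_mem_Icc.2 h1M, ?_⟩
      show T b (scl a Z 1 (sc P b q)) = q
      rw [scl_one, F.T_sc hqL]
    · have hr : (1 / M : ℝ) ∈ Icc (1 : ℝ) (1 / M) := right_mem_Icc.2 h1M
      obtain ⟨-, g1, g2⟩ := hmem _ hr
      refine ⟨_, ⟨1 / M, hr, rfl⟩, g1, ?_⟩
      show (∃ e ∈ Z, e ≠ c ∧ t ≤ sc P b (T b (scl a Z (1 / M) (sc P b q))) e) ∨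
        ∃ e, e ∉ insert a Z ∧ T b (scl a Z (1 / M) (sc P b q)) ∈ P e
      have h5 : dv a Z (scl a Z (1 / M) (sc P b q)) e0 = 1 := by
        rw [dv_scl, ← hM, one_div_mul_cancel hM0.ne']
      have hea : e0 ≠ a := by
        rintro rfl
        rw [dv_a] at hM
        linarith
      by_cases heZ : e0 ∈ Z
      · left
        rw [dv_Z hea heZ] at h5
        refine ⟨e0, heZ, ?_, ?_⟩
        · rintro rfl
          rw [dv_Z hea heZ, (F.sc_eq_zero hqL).2 hqb.1] at hM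
          linarith
        · rw [g2, h5]; exact h1.le
      · right
        rw [dv_o hea heZ] at h5
        refine ⟨e0, ?_, ?_⟩
        · rintro (h' | h')
          · exact hea h'
          · exact heZ h'
        · rw [← F.sc_eq_zero (F.sub c g1.1), g2]
          linarith
    · exact isPreconnected_Icc.image _ ((continuousOn_T F).comp
        continuous_scl.continuousOn fun τ hτ => (hmem τ hτ).1)

/-- **`{Gm ≥ t}`**; `e1` = a further neighbour of `c` -/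
theorem gm_ge {l0 m ra t : ℝ} (hl : 0 < l0) (hr : 0 < ra) (h0 : 0 < t) (h1 : t * l0 < 1)
    (hm1 : m + t * ra < 1) (hm0 : 0 ≤ m)
    (he1 : ∃ e, e ∉ insert a Z ∧ (P e ∩ P c).Nonempty) :
    IsPreconnected {q | q ∈ bdc P c ∧ t ≤ Gm l0 m ra a Z (sc P b q)} ∧
      {q | q ∈ bdc P c ∧ t ≤ Gm l0 m ra a Z (sc P b q)}.Nonempty := by
  classical
  have htouch : ∀ e ∈ insert a Z, (P e ∩ P c).Nonempty := by
    intro e he
    obtain ⟨y, hy⟩ := hne
    exact ⟨y, mem_fc.1 hy e he, mem_fc.1 hy c (Or.inr hcZ)⟩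
  have hac : a ≠ c := fun h => haZ (h ▸ hcZ)
  obtain ⟨d0, hd0, hd0c⟩ := id hZ2
  obtain ⟨hx1, hx2, hx3⟩ := bar_mem F hac (htouch a (Or.inl rfl))
  obtain ⟨e1, he1a, he1t⟩ := he1
  set s := t * l0 with hs
  have hs0 : 0 < s := mul_pos h0 hl
  have htr : 0 < t * ra := mul_pos h0 hr
  set S : Set E := {q | q ∈ bdc P c ∧ t ≤ Gm l0 m ra a Z (sc P b q)} with hS
  have hSd : ∀ q ∈ bdc P c, (∃ e, s ≤ dv a Z (sc P b q) e) → q ∈ S := by
    rintro q hq ⟨e, he⟩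
    have hu := (F.sc_mem_K (F.sub c hq.1)).1
    exact ⟨hq, (le_Gm_iff hl hr).2 (Or.inl (he.trans (dv_le_Fm hu e)))⟩
  have hDsub : ∀ e ∈ Z, e ≠ c → Dge P b c e s ⊆ S := fun e he hec q hq =>
    hSd q ⟨hq.1, hq.2.1⟩ ⟨e, by
      have hea : e ≠ a := fun h => haZ (h ▸ he)
      rw [dv_Z hea he]; exact hq.2.2⟩
  have hxD : ∀ e ∈ Z, e ≠ c → b {c, a} ∈ Dge P b c e s := fun e he hec =>
    ⟨hx1.1, hx1.2, by
      rw [hx3 e hec (fun h => haZ (h ▸ he))]; exact h1.le⟩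
  have hx0 : b {c, a} ∈ S := hDsub d0 hd0 hd0c (hxD d0 hd0 hd0c)
  refine ⟨isPreconnected_of_forall (b {c, a}) fun q hq => ?_, _, hx0⟩
  obtain ⟨hqb, hqt⟩ := id hq
  have hqL := F.sub c hqb.1
  have hu := (F.sc_mem_K hqL).1
  rw [le_Gm_iff hl hr] at hqt
  rcases hqt with hqt | hqt
  · obtain ⟨e, he⟩ := exists_Fm (a := a) (Z := Z) hu (fin_dv F hne hqL)
    rw [← he] at hqt
    have hea : e ≠ a := by
      rintro rfl
      rw [dv_a] at hqt
      linarith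
    by_cases heZ : e ∈ Z
    · rw [dv_Z hea heZ] at hqt
      have hec : e ≠ c := by
        rintro rfl
        rw [(F.sc_eq_zero hqL).2 hqb.1] at hqt
        linarith
      exact ⟨Dge P b c e s, hDsub e heZ hec, hxD e heZ hec, ⟨hqb.1, hqb.2, hqt⟩,
        hD e hec (htouch e (Or.inr heZ)) s hs0 h1⟩
    · rw [dv_o hea heZ] at hqt
      have hec : e ≠ c := fun h => heZ (h ▸ hcZ)
      have het : (P e ∩ P c).Nonempty := touch_of_zero F hcZ hqb (by linarith)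
      obtain ⟨g1, g2, g3⟩ := bar_mem F hec het
      have hd0e : d0 ≠ e := fun h => heZ (h ▸ hd0)
      refine ⟨Dle P b c e (1 - s) ∪ Dge P b c d0 s, ?_, Or.inr (hxD d0 hd0 hd0c),
        Or.inl ⟨hqb.1, hqb.2, by linarith⟩, ?_⟩
      · rintro y (hy | hy)
        · refine hSd y ⟨hy.1, hy.2.1⟩ ⟨e, ?_⟩
          rw [dv_o hea heZ]
          have := hy.2.2
          linarith
        · exact hDsub d0 hd0 hd0c hy
      · refine IsPreconnected.union (b {c, e}) ⟨g1.1, g1.2, ?_⟩ ⟨g1.1, g1.2, ?_⟩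
          (preconn_Dle F hec het (by linarith) (by linarith)).1
          (hD d0 hd0c (htouch d0 (Or.inr hd0)) s hs0 h1)
        · rw [(F.sc_eq_zero (F.sub e g2)).2 g2]; linarith
        · rw [g3 d0 hd0c hd0e]; exact h1.le
  · have hat := htouch a (Or.inl rfl)
    rcases le_abs.1 hqt with h | h
    · -- upper part
      obtain ⟨g1, g2, g3⟩ := bar_mem F (fun h' : e1 = c => he1a (Or.inr (h' ▸ hcZ))) he1t
      have hd0e : d0 ≠ e1 := fun h' => he1a (Or.inr (h' ▸ hd0))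
      have hae : a ≠ e1 := fun h' => he1a (Or.inl h'.symm)
      refine ⟨Dge P b c a (m + t * ra) ∪ Dge P b c d0 s, ?_, Or.inr (hxD d0 hd0 hd0c),
        Or.inl ⟨hqb.1, hqb.2, by linarith⟩, ?_⟩
      · rintro y (hy | hy)
        · refine ⟨⟨hy.1, hy.2.1⟩, (le_Gm_iff hl hr).2 (Or.inr ?_)⟩
          have := hy.2.2
          exact (show t * ra ≤ sc P b y a - m by linarith).trans (le_abs_self _)
        · exact hDsub d0 hd0 hd0c hy
      · refine IsPreconnected.union (b {c, e1}) ⟨g1.1, g1.2, ?_⟩ ⟨g1.1, g1.2, ?_⟩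
          (hD a hac hat (m + t * ra) (by linarith) hm1)
          (hD d0 hd0c (htouch d0 (Or.inr hd0)) s hs0 h1)
        · rw [g3 a hac hae]; exact hm1.le
        · rw [g3 d0 hd0c hd0e]; exact h1.le
    · -- lower part
      have hqa := (hu a).1
      have hθ : 0 ≤ m - t * ra := by linarith
      refine ⟨Dle P b c a (m - t * ra), ?_, ⟨hx1.1, hx1.2, ?_⟩, ⟨hqb.1, hqb.2, by linarith⟩,
        (preconn_Dle F hac hat hθ (by linarith)).1⟩
      · rintro y hy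
        refine ⟨⟨hy.1, hy.2.1⟩, (le_Gm_iff hl hr).2 (Or.inr ?_)⟩
        have := hy.2.2
        rw [abs_sub_comm]
        exact (show t * ra ≤ m - sc P b y a by linarith).trans (le_abs_self _)
      · rw [(F.sc_eq_zero (F.sub a hx2)).2 hx2]; exact hθ

end foam

end Crest.Agent.R096.Bar_543
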