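import Crest.Agent.R096.Brk5_582

/-! Row 96 (helper965), LIPSC: the coordinates of a box foam are `C / size`-Lipschitz near every
cell, ACROSS cells; a ball of radius `c * size` round a point of a cell lies in the star of the cell
-/

set_option autoImplicit false
set_option linter.unusedSectionVars false
set_option linter.style.haveILetI false

open Set Topology Filter

namespace Crest.Agent.R096.Lsc_965

open Crest.Agent.R096.Bsp_628 Crest.Agent.R096.Brk1_582 Crest.Agent.R096.Brk2_582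
open Crest.Agent.R096.Brk3_582 Crest.Agent.R096.Brk4_582 Crest.Agent.R096.Brk5_582

section foam

variable {E : Type*} [NormedAddCommGroup E] [NormedSpace ℝ E] [CompleteSpace E] {I : Type*}
variable {La : Set E} {P : I → Set E} {b : Set I → E} {N : ℕ}

/-- near a point there are only the cells through this point -/
theorem eventually_act (F : Foam La P b N) {z : E} (hz : z ∈ La) :
    ∀ᶠ w in 𝓝 z, w ∈ La ∧ ∀ d, w ∈ P d → z ∈ P d := by
  obtain ⟨r, hr, hfin⟩ := F.lf z hz
  have h1 : ∀ d ∈ {d | (P d ∩ Metric.ball z r).Nonempty}, ∀ᶠ w in 𝓝 z, w ∈ P d → z ∈ P d := by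
    intro d _
    by_cases hd : z ∈ P d
    · exact Eventually.of_forall fun _ _ => hd
    · filter_upwards [(F.cpt d).isClosed.isOpen_compl.mem_nhds hd] with w hw hw2
      exact absurd hw2 hw
  filter_upwards [(hfin.eventually_all).2 h1, Metric.ball_mem_nhds z hr, F.op.mem_nhds hz]
    with w hw hwb hwL
  exact ⟨hwL, fun d hd => hw d ⟨w, hd, hwb⟩ hd⟩

/-- a cell with coordinate `< 1` touches all cells through the point -/
theorem touch_of_lt (F : Foam La P b N) {z : E} (hz : z ∈ La) {c d : I} (hc : sc P b z c < 1)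
    (hd : z ∈ P d) : (P d ∩ P c).Nonempty := by
  obtain ⟨w, hw⟩ := F.sc_lt_one_fc hz
  refine ⟨w, mem_fc.1 hw d ?_, mem_fc.1 hw c hc⟩
  show sc P b z d < 1
  rw [(F.sc_eq_zero hz).2 hd]; exact one_pos

end foam

variable {κ : Type*} [Fintype κ] [Nonempty κ] {La : Set (κ → ℝ)} {F : Set (Bx κ)} {δ κ0 : ℝ}

/-- the star of a brick -/
def star1 (F : Set (Bx κ)) (c0 : F) : Set (κ → ℝ) :=
  ⋃ c ∈ {c : F | (Pc F c ∩ Pc F c0).Nonempty}, Pc F c

theorem finite_star (BF : BoxFoam La F δ κ0) (hLa : IsOpen La) (c0 : F) :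
    {c : F | (Pc F c ∩ Pc F c0).Nonempty}.Finite := finite_touch (foam BF hLa) c0

theorem isClosed_star (BF : BoxFoam La F δ κ0) (hLa : IsOpen La) (c0 : F) :
    IsClosed (star1 F c0) :=
  (finite_star BF hLa c0).isClosed_biUnion fun _ _ => isClosed_Icc

theorem star_sub_La (BF : BoxFoam La F δ κ0) (c0 : F) : star1 F c0 ⊆ La :=
  iUnion₂_subset fun c _ => BF.sub c.1 c.2

/-- Lipschitz on convex subsets of the star -/
theorem lip_star (BF : BoxFoam La F δ κ0) (hLa : IsOpen La) (hδ : 0 < δ) {R : ℝ} (hR : 0 < R)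
    (hcmp : Cmp F R) {c0 : F} {G : Set (κ → ℝ)} (hG : Convex ℝ G) (hGs : G ⊆ star1 F c0) (c : F) :
    ∀ x ∈ G, ∀ y ∈ G, |sc (Pc F) (bc (F := F)) x c - sc (Pc F) (bc (F := F)) y c| ≤
      Cs (Fintype.card κ) δ R * R / c0.1.sz * ‖x - y‖ := by
  have hsz : 0 < c0.1.sz := Bx.sz_pos (BF.pos _ c0.2)
  have h := lip_convex BF hLa hδ hR hcmp hG (finite_star BF hLa c0) hGs (σ := c0.1.sz / R)
    (by positivity) (fun c1 hc1 => ?_) c
  · intro x hx y hy
    refine (h x hx y hy).trans (le_of_eq ?_)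
    field_simp
  · have h1 := hcmp c0 c1 (by rw [inter_comm]; exact hc1)
    rw [div_le_iff₀ hR]; linarith

/-- **the segments of length `< size / (Cs R)` from a point of `c0` stay in the star of `c0`** -/
theorem segment_sub_star (BF : BoxFoam La F δ κ0) (hLa : IsOpen La) (hδ : 0 < δ) {R : ℝ}
    (hR : 0 < R) (hcmp : Cmp F R) {c0 : F} {y y' : κ → ℝ} (hy : y ∈ Pc F c0)
    (h : Cs (Fintype.card κ) δ R * R * ‖y' - y‖ < c0.1.sz) : segment ℝ y y' ⊆ star1 F c0 := by
  have FF := foam BF hLa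
  have hsz : 0 < c0.1.sz := Bx.sz_pos (BF.pos _ c0.2)
  have hC0 : 0 ≤ Cs (Fintype.card κ) δ R := Cs_nonneg hδ hR
  let z : ℝ → κ → ℝ := fun t => y + t • (y' - y)
  have hz : Continuous z := by fun_prop
  have hz0 : z 0 = y := by simp [z]
  have hstar := isClosed_star BF hLa c0
  have hyst : y ∈ star1 F c0 := mem_biUnion (show c0 ∈ {c : F | (Pc F c ∩ Pc F c0).Nonempty} from
    ⟨y, hy, hy⟩) hy
  let S : Set ℝ := {t | ∀ u ∈ Icc (0 : ℝ) 1, z (u * t) ∈ star1 F c0}
  have hScl : IsClosed (S ∩ Icc 0 1) := by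
    refine IsClosed.inter ?_ isClosed_Icc
    have : S = ⋂ u ∈ Icc (0 : ℝ) 1, (fun t => z (u * t)) ⁻¹' star1 F c0 := by
      ext t; simp [S]
    rw [this]
    exact isClosed_biInter fun u _ => hstar.preimage (by fun_prop)
  have h0S : (0 : ℝ) ∈ S := by
    intro u _
    rw [mul_zero, hz0]; exact hyst
  have key : Icc (0 : ℝ) 1 ⊆ S := by
    refine hScl.Icc_subset_of_forall_mem_nhdsWithin h0S ?_
    rintro x ⟨hx, hx0, hx1⟩
    -- all points up to `x` are in the star
    have hx' : ∀ v ∈ Icc (0 : ℝ) x, z v ∈ star1 F c0 := by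
      intro v hv
      rcases hx0.eq_or_lt with h1 | h1
      · have : v = 0 := le_antisymm (by rw [h1]; exact hv.2) hv.1
        rw [this, hz0]; exact hyst
      · have := hx (v / x) ⟨div_nonneg hv.1 h1.le, by rw [div_le_one h1]; exact hv.2⟩
        rwa [div_mul_cancel₀ _ h1.ne'] at this
    have hxs : z x ∈ star1 F c0 := hx' x ⟨hx0, le_rfl⟩
    have hxL : z x ∈ La := star_sub_La BF c0 hxs
    have hG : segment ℝ y (z x) ⊆ star1 F c0 := by
      rw [segment_eq_image']
      rintro _ ⟨u, hu, rfl⟩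
      have h1 := hx u hu
      have h2 : y + u • (z x - y) = z (u * x) := by
        simp only [z, add_sub_cancel_left, smul_smul]
      show y + u • (z x - y) ∈ star1 F c0
      rw [h2]; exact h1
    have hlt : sc (Pc F) (bc (F := F)) (z x) c0 < 1 := by
      have h1 := lip_star BF hLa hδ hR hcmp (convex_segment y (z x)) hG c0 y
        (left_mem_segment ℝ y (z x)) (z x) (right_mem_segment ℝ y (z x))
      rw [(FF.sc_eq_zero (FF.sub c0 hy)).2 hy, zero_sub, abs_neg,
        abs_of_nonneg (FF.sc_nonneg hxL c0)] at h1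
      have h2 : ‖y - z x‖ = x * ‖y' - y‖ := by
        have : y - z x = -(x • (y' - y)) := by simp only [z]; abel
        rw [this, norm_neg, norm_smul, Real.norm_of_nonneg hx0]
      rw [h2] at h1
      have h3 : Cs (Fintype.card κ) δ R * R / c0.1.sz * (x * ‖y' - y‖) ≤
          Cs (Fintype.card κ) δ R * R * ‖y' - y‖ / c0.1.sz := by
        have h4 : 0 ≤ Cs (Fintype.card κ) δ R * R * ‖y' - y‖ := by positivity
        have h5 : Cs (Fintype.card κ) δ R * R / c0.1.sz * (x * ‖y' - y‖) =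
            x * (Cs (Fintype.card κ) δ R * R * ‖y' - y‖ / c0.1.sz) := by ring
        rw [h5]
        exact mul_le_of_le_one_left (by positivity) hx1.le
      have h6 : Cs (Fintype.card κ) δ R * R * ‖y' - y‖ / c0.1.sz < 1 := by
        rw [div_lt_one hsz]; exact h
      linarith
    have hev : ∀ᶠ w in 𝓝 (z x), w ∈ star1 F c0 := by
      filter_upwards [eventually_act FF hxL] with w hw
      obtain ⟨d, hd⟩ := FF.cov w hw.1
      exact mem_biUnion (show d ∈ {c : F | (Pc F c ∩ Pc F c0).Nonempty} from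
        touch_of_lt FF hxL hlt (hw.2 d hd)) hd
    have hev2 : ∀ᶠ t in 𝓝 x, z t ∈ star1 F c0 := hz.continuousAt.eventually hev
    obtain ⟨ρ, hρ, hball⟩ := Metric.eventually_nhds_iff.1 hev2
    have : Ioo x (x + ρ) ∈ 𝓝[>] x := Ioo_mem_nhdsGT (by linarith)
    filter_upwards [this] with t ht
    intro u hu
    by_cases hc : u * t ≤ x
    · exact hx' _ ⟨mul_nonneg hu.1 (hx0.trans ht.1.le), hc⟩
    · push Not at hc
      refine hball ?_
      rw [Real.dist_eq, abs_lt]
      have h7 : u * t ≤ t := mul_le_of_le_one_left (hx0.trans ht.1.le) hu.2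
      constructor <;> linarith [ht.2]
  rw [segment_eq_image']
  rintro _ ⟨u, hu, rfl⟩
  have h1 := key (right_mem_Icc.2 zero_le_one) u hu
  rw [mul_one] at h1
  exact h1

/-- **LIPSC: the coordinates are `Cs R / size`-Lipschitz across the cells** -/
theorem lip_near (BF : BoxFoam La F δ κ0) (hLa : IsOpen La) (hδ : 0 < δ) {R : ℝ}
    (hR : 0 < R) (hcmp : Cmp F R) {c0 : F} {y y' : κ → ℝ} (hy : y ∈ Pc F c0)
    (h : Cs (Fintype.card κ) δ R * R * ‖y' - y‖ < c0.1.sz) (c : F) :
    y' ∈ La ∧ |sc (Pc F) (bc (F := F)) y c - sc (Pc F) (bc (F := F)) y' c| ≤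
      Cs (Fintype.card κ) δ R * R / c0.1.sz * ‖y - y'‖ := by
  have h1 := segment_sub_star BF hLa hδ hR hcmp hy h
  exact ⟨star_sub_La BF c0 (h1 (right_mem_segment ℝ y y')),
    lip_star BF hLa hδ hR hcmp (convex_segment y y') h1 c y (left_mem_segment ℝ y y') y'
      (right_mem_segment ℝ y y')⟩

/-- in the form of `Fine`: `‖y' - y‖ ≤ ε size` gives oscillation `≤ Cs R ε` of all coordinates -/
theorem osc_le (BF : BoxFoam La F δ κ0) (hLa : IsOpen La) (hδ : 0 < δ) {R : ℝ}
    (hR : 0 < R) (hcmp : Cmp F R) {c0 : F} {y y' : κ → ℝ} (hy : y ∈ Pc F c0) {ε : ℝ}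
    (hε : Cs (Fintype.card κ) δ R * R * ε < 1) (h : ‖y' - y‖ ≤ ε * c0.1.sz) (c : F) :
    |sc (Pc F) (bc (F := F)) y c - sc (Pc F) (bc (F := F)) y' c| ≤
      Cs (Fintype.card κ) δ R * R * ε := by
  have hsz : 0 < c0.1.sz := Bx.sz_pos (BF.pos _ c0.2)
  have hC : 0 ≤ Cs (Fintype.card κ) δ R * R := mul_nonneg (Cs_nonneg hδ hR) hR.le
  have h1 : Cs (Fintype.card κ) δ R * R * ‖y' - y‖ < c0.1.sz := by
    have h2 := mul_le_mul_of_nonneg_left h hC
    have h3 : Cs (Fintype.card κ) δ R * R * (ε * c0.1.sz) =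
        (Cs (Fintype.card κ) δ R * R * ε) * c0.1.sz := by ring
    rw [h3] at h2
    have h4 := mul_lt_mul_of_pos_right hε hsz
    linarith
  refine (lip_near BF hLa hδ hR hcmp hy h1 c).2.trans ?_
  rw [norm_sub_rev]
  have h5 : Cs (Fintype.card κ) δ R * R / c0.1.sz * ‖y' - y‖ ≤
      Cs (Fintype.card κ) δ R * R / c0.1.sz * (ε * c0.1.sz) :=
    mul_le_mul_of_nonneg_left h (div_nonneg hC hsz.le)
  refine h5.trans (le_of_eq ?_)
  field_simp

end Crest.Agent.R096.Lsc_965
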