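import Crest.Agent.R096.Exa5_560
import Crest.Agent.R096.Exc1_965
import Crest.Agent.R096.Lsc1_965
import Crest.Agent.R096.Mbf_337
import Crest.Agent.R096.Mrg7_715

/-!
# R096 (row 96), DOORS / EXA part 6 (helper560): the frontier of a tiny core

For `H : Tiny Φ T f κ1 c J0 J V θ φ`, on `frontier (KJ T J)`:
* `tiny_near` : `|s_a (θ x) - lev a (f x)| ≤ Cs R κ1`.
* `tiny_osc`  : `s_a ∘ θ` oscillates by at most `(2 Cs R + 1) κ1` on a 2-cell.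
* `tiny_level` : the levels of `s_a ∘ θ` are connected and nonempty (`a` a neighbour of `c`).
* `tiny_far`  : `s_a ∘ θ = 1` if `a` does not touch `c`.
* `tiny_lo`, `tiny_hi` : vertices with `s_a ∘ θ` near `0`, near `1`.
* `tiny_quad` : exactly one common point of two levels over a quad.
-/

set_option autoImplicit false
set_option linter.unusedSectionVars false
set_option linter.style.longLine false

open Set Metric Module
open scoped Classical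

namespace Crest.Agent.R096.Exa_560

open Crest.Agent.R096.Msh_715 Crest.Agent.R096.Agl5_543
open Crest.Agent.R096.Brk1_582 Crest.Agent.R096.Brk3_582 Crest.Agent.R096.Brk5_582
open Crest.Agent.R096.Bsp_628
open Crest.Agent.R096.Mbf_337 (sb KJ Tiny gau)
open Crest.Agent.R096.SkC1_961 (E3 FoamD)
open Crest.Agent.R096.Ce_537 (PLEquiv IsBall)

section tiny

variable {δ κ0 R c0 : ℝ} {La Om : Set E3} {ι : Type} {Φ : FoamD δ κ0 R c0 La} {T : Tiling Om ι}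
  {f : E3 → E3} {κ1 : ℝ} {c : Φ.F} {J0 J V : Set ι} {θ : E3 → E3} {φ : E3 → ℝ}

/-- the constant of the coordinates -/
noncomputable def Cn (δ R : ℝ) : ℝ := Cs 3 δ R * R

theorem Cn_nonneg (hδ : 0 < δ) (hR : 0 < R) : 0 ≤ Cn δ R := mul_nonneg (Cs_nonneg hδ hR) hR.le

theorem KJ_sub : KJ T J ⊆ Om := iUnion₂_subset fun q _ => T.sub q

theorem coreH_tiny (H : Tiny Φ T f κ1 c J0 J V θ φ) : CoreH T (KJ T J) :=
  CoreH.of_tiles (by simp) rfl H.ball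

theorem fr_sub (H : Tiny Φ T f κ1 c J0 J V θ φ) : frontier (KJ T J) ⊆ KJ T J :=
  (coreH_tiny H).cpt.isClosed.frontier_subset

/-- tiles at the frontier are fine -/
theorem tiny_tile (H : Tiny Φ T f κ1 c J0 J V θ φ) {x : E3} (hx : x ∈ frontier (KJ T J)) {i : ι}
    (hi : x ∈ P (T.H i)) : ∃ d, 0 < d ∧ d ≤ κ1 ∧ ∀ y ∈ P (T.H i), ∀ z ∈ P (T.H i), ∀ a,
      |Φ.lev a (f y) - Φ.lev a (f z)| ≤ d := by
  obtain ⟨ρ1, ρ2, ρ3, ρ4, d, hd, hdk, h1, h12, h23, h34, h4, hray, hJ0, hfr, hV, hosc, hth⟩ :=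
    H.room
  obtain ⟨g1, g2⟩ := hfr x hx
  have hiV : i ∈ V := hV i ⟨x, hi, by linarith⟩
  have hi0 : i ∉ J0 := by
    intro h
    have := hJ0 x (mem_iUnion₂.2 ⟨i, h, hi⟩)
    linarith
  exact ⟨d, hd, hdk, fun y hy z hz a => (hosc i hiV hi0 y hy z hz).2.2 a⟩

theorem th_mem (H : Tiny Φ T f κ1 c J0 J V θ φ) {x : E3} (hx : x ∈ frontier (KJ T J)) :
    θ x ∈ frontier c.1.set := by
  obtain ⟨e, he⟩ := H.bij
  rw [← he x hx]; exact e.mf hx

theorem th_mem' (H : Tiny Φ T f κ1 c J0 J V θ φ) {x : E3} (hx : x ∈ frontier (KJ T J)) :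
    θ x ∈ Pc Φ.F c := by
  have h1 : IsClosed c.1.set := isClosed_Icc
  exact h1.frontier_subset (th_mem H hx)

theorem tiny_near (hLa : IsOpen La) (hδ : 0 < δ) (hR : 0 < R) (hκ : Cn δ R * κ1 < 1)
    (H : Tiny Φ T f κ1 c J0 J V θ φ) {x : E3} (hx : x ∈ frontier (KJ T J)) (a : Φ.F) :
    |sb Φ (θ x) a - Φ.lev a (f x)| ≤ Cn δ R * κ1 := by
  obtain ⟨ρ1, ρ2, ρ3, ρ4, d, hd, hdk, h1, h12, h23, h34, h4, hray, hJ0, hfr, hV, hosc, hth⟩ :=
    H.room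
  have hsz : 0 < c.1.sz := Bx.sz_pos (Φ.bf.pos _ c.2)
  have h5 : ‖Φ.Psi (f x) - θ x‖ ≤ κ1 * c.1.sz := by
    rw [norm_sub_rev]
    exact (hth x hx).trans (mul_le_mul_of_nonneg_right hdk hsz.le)
  have h6 := Lsc_965.osc_le Φ.bf hLa hδ hR Φ.cmp (c0 := c) (th_mem' H hx) (ε := κ1)
    (by rw [Fintype.card_fin]; exact hκ) h5 a
  rw [Fintype.card_fin] at h6
  exact h6

theorem tiny_osc (hLa : IsOpen La) (hδ : 0 < δ) (hR : 0 < R) (hκ : Cn δ R * κ1 < 1)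
    (H : Tiny Φ T f κ1 c J0 J V θ φ) {F : C2 T} (hF : F.set ⊆ frontier (KJ T J)) {x y : E3}
    (hx : x ∈ F.set) (hy : y ∈ F.set) (a : Φ.F) :
    |sb Φ (θ x) a - sb Φ (θ y) a| ≤ (2 * Cn δ R + 1) * κ1 := by
  have hpt : F.pt ∈ F.set := F.1.opn_sub (T.self_mem_oc _)
  obtain ⟨i, hi⟩ := T.at_nonempty F.pt_mem
  have hsub : F.set ⊆ P (T.H i) := by rw [F.set_eq]; exact T.cc_sub_tile hi
  obtain ⟨d, hd, hdk, hosc⟩ := tiny_tile H (hF hpt) (hsub hpt)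
  have h1 := tiny_near hLa hδ hR hκ H (hF hx) a
  have h2 := tiny_near hLa hδ hR hκ H (hF hy) a
  have h3 := hosc x (hsub hx) y (hsub hy) a
  rw [abs_le] at h1 h2 h3 ⊢
  constructor <;> linarith [h1.1, h1.2, h2.1, h2.2, h3.1, h3.2]

theorem tiny_aff (H : Tiny Φ T f κ1 c J0 J V θ φ) (a : Φ.F) (F : C2 T)
    (hF : F.set ⊆ frontier (KJ T J)) : ∃ g : E3 →ᵃ[ℝ] ℝ, EqOn (fun x => sb Φ (θ x) a) g F.set := by
  have hpt : F.pt ∈ F.set := F.1.opn_sub (T.self_mem_oc _)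
  obtain ⟨g, hg⟩ := H.lin F.pt (hF hpt) F.dim_pt a
  refine ⟨g, fun y hy => hg y ?_⟩
  rw [← F.set_eq]; exact hy

theorem frontier_c (Φ : FoamD δ κ0 R c0 La) (hLa : IsOpen La) (c : Φ.F) :
    frontier c.1.set = {q | q ∈ Pc Φ.F c ∧ ∃ d, d ≠ c ∧ q ∈ Pc Φ.F d} := by
  have FF := foam Φ.bf hLa
  have h1 : frontier (Pc Φ.F c) = Brk2_582.Lset La (Pc Φ.F) (bc (F := Φ.F)) c 0 :=
    Vb_965.frontier_cell FF c
  have h2 := Brk2_582.Lset_zero FF c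
  exact h1.trans h2

theorem level_eq (hLa : IsOpen La) (H : Tiny Φ T f κ1 c J0 J V θ φ) (a : Φ.F) (t : ℝ) :
    ∃ e : PLEquiv (frontier (KJ T J)) (frontier c.1.set), (∀ x ∈ frontier (KJ T J), e.f x = θ x) ∧
      {x | x ∈ frontier (KJ T J) ∧ sb Φ (θ x) a = t} =
        e.g '' Exc_965.ring (Pc Φ.F) (bc (F := Φ.F)) c a t := by
  obtain ⟨e, he⟩ := H.bij
  refine ⟨e, he, ?_⟩
  have hring := Exc_965.ring_eq_frontier (foam Φ.bf hLa) (c := c) (a := a) (t := t)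
  rw [hring]
  ext x
  constructor
  · rintro ⟨hx, hxt⟩
    have h1 : e.f x ∈ frontier c.1.set := e.mf hx
    refine ⟨e.f x, ⟨h1, ?_⟩, e.li x hx⟩
    rw [he x hx]; exact hxt
  · rintro ⟨q, ⟨hq, hqt⟩, rfl⟩
    have h1 : e.g q ∈ frontier (KJ T J) := e.mg hq
    refine ⟨h1, ?_⟩
    have h2 : θ (e.g q) = q := by rw [← he _ h1]; exact e.ri q hq
    rw [h2]; exact hqt

/-- **the levels are connected and nonempty** -/
theorem tiny_level (hLa : IsOpen La) (H : Tiny Φ T f κ1 c J0 J V θ φ) {a : Φ.F} (hac : a ≠ c)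
    (hne : (Pc Φ.F c ∩ Pc Φ.F a).Nonempty) {t : ℝ} (ht0 : 0 < t) (ht1 : t < 1) :
    IsPreconnected {x | x ∈ frontier (KJ T J) ∧ sb Φ (θ x) a = t} ∧
      {x | x ∈ frontier (KJ T J) ∧ sb Φ (θ x) a = t}.Nonempty := by
  obtain ⟨e, he, heq⟩ := level_eq hLa H a t
  obtain ⟨h1, h2⟩ := Exc_965.isPreconnected_ring Φ.bf hLa (by simp) hac hne ht0 ht1
  rw [heq]
  refine ⟨h1.image _ (e.pg.1.mono ?_), h2.image _⟩
  rw [Exc_965.ring_eq_frontier (foam Φ.bf hLa)]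
  exact fun q hq => hq.1

/-- **no level if `a` does not touch `c`** -/
theorem tiny_far (hLa : IsOpen La) (H : Tiny Φ T f κ1 c J0 J V θ φ) {a : Φ.F}
    (hne : ¬ (Pc Φ.F c ∩ Pc Φ.F a).Nonempty) {x : E3} (hx : x ∈ frontier (KJ T J)) :
    sb Φ (θ x) a = 1 := by
  have FF := foam Φ.bf hLa
  have hq := th_mem' H hx
  have hqL : θ x ∈ La := FF.sub c hq
  have hK := FF.sc_mem_K hqL
  have h0 : sc (Pc Φ.F) (bc (F := Φ.F)) (θ x) c = 0 := (FF.sc_eq_zero hqL).2 hq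
  by_contra hcon
  have hlt : sc (Pc Φ.F) (bc (F := Φ.F)) (θ x) a < 1 := lt_of_le_of_ne (hK.1 a).2 hcon
  obtain ⟨y, hy⟩ := hK.2.2
  have h1 := mem_fc.1 hy a hlt
  have h2 := mem_fc.1 hy c (by show sc _ _ _ _ < 1; rw [h0]; exact one_pos)
  exact hne ⟨y, h2, h1⟩

/-- a vertex near a point -/
theorem tiny_vertex (hLa : IsOpen La) (hδ : 0 < δ) (hR : 0 < R) (hκ : Cn δ R * κ1 < 1)
    (H : Tiny Φ T f κ1 c J0 J V θ φ) {q : E3} (hq : q ∈ frontier c.1.set) (a : Φ.F) :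
    ∃ v ∈ frontier (KJ T J), T.dim v = 0 ∧
      |sb Φ (θ v) a - sb Φ q a| ≤ (2 * Cn δ R + 1) * κ1 := by
  obtain ⟨e, he⟩ := H.bij
  have h1 : e.g q ∈ frontier (KJ T J) := e.mg hq
  have h2 : θ (e.g q) = q := by rw [← he _ h1]; exact e.ri q hq
  obtain ⟨F, hF, hqF⟩ := exists_face (κ := Unit) (Kc := fun _ => KJ T J) (c := ()) (by simp)
    (fun _ => coreH_tiny H) h1
  obtain ⟨v, hv, hv0⟩ := T.exists_vertex F.pt_mem
  rw [← F.set_eq] at hv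
  refine ⟨v, hF hv, hv0, ?_⟩
  have h3 := tiny_osc hLa hδ hR hκ H hF hv hqF a
  rw [h2] at h3
  exact h3

/-- **a vertex near `P_a`** -/
theorem tiny_lo (hLa : IsOpen La) (hδ : 0 < δ) (hR : 0 < R) (hκ : Cn δ R * κ1 < 1)
    (H : Tiny Φ T f κ1 c J0 J V θ φ) {a : Φ.F} (hac : a ≠ c)
    (hne : (Pc Φ.F c ∩ Pc Φ.F a).Nonempty) :
    ∃ v ∈ frontier (KJ T J), T.dim v = 0 ∧ sb Φ (θ v) a ≤ (2 * Cn δ R + 1) * κ1 := by
  obtain ⟨q, hq1, hq2⟩ := hne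
  have FF := foam Φ.bf hLa
  have hq : q ∈ frontier c.1.set := by
    rw [frontier_c Φ hLa c]; exact ⟨hq1, a, hac, hq2⟩
  obtain ⟨v, hv, hv0, h⟩ := tiny_vertex hLa hδ hR hκ H hq a
  refine ⟨v, hv, hv0, ?_⟩
  have h0 : sb Φ q a = 0 := (FF.sc_eq_zero (FF.sub c hq1)).2 hq2
  rw [h0, sub_zero] at h
  exact (le_abs_self _).trans h

/-- **a vertex far from `P_a`** -/
theorem tiny_hi (hLa : IsOpen La) (hδ : 0 < δ) (hR : 0 < R) (hκ : Cn δ R * κ1 < 1)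
    (H : Tiny Φ T f κ1 c J0 J V θ φ) {a : Φ.F} (hac : a ≠ c)
    (hne : (Pc Φ.F c ∩ Pc Φ.F a).Nonempty) :
    ∃ v ∈ frontier (KJ T J), T.dim v = 0 ∧ 1 - (2 * Cn δ R + 1) * κ1 ≤ sb Φ (θ v) a := by
  have FF := foam Φ.bf hLa
  -- a second neighbour
  obtain ⟨q, hq1, hq2⟩ := hne
  have hfc : (fc (Pc Φ.F) ({a, c} : Set Φ.F)).Nonempty := by
    refine ⟨q, mem_fc.2 ?_⟩
    rintro y (rfl | rfl)
    · exact hq2
    · exact hq1
  have h := Exc_965.isPreconnected_relbd Φ.bf hLa (A := {a, c}) (by simp) ⟨a, by simp⟩ hfc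
    (by rw [ncard_pair hac]; simp)
  rw [← Exc_965.rel2_eq] at h
  obtain ⟨p, hp1, hp2, d, hdc, hda, hpd⟩ := h.2
  have hne2 : (fc (Pc Φ.F) ({c, d} : Set Φ.F)).Nonempty := by
    refine ⟨p, mem_fc.2 ?_⟩
    rintro y (rfl | rfl)
    · exact hp1
    · exact hpd
  have hm := FF.mem {c, d} ⟨c, by simp⟩ hne2
  have hbc : bc (F := Φ.F) {c, d} ∈ Pc Φ.F c := mem_fc.1 hm c (by simp)
  have hbd : bc (F := Φ.F) {c, d} ∈ Pc Φ.F d := mem_fc.1 hm d (by simp)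
  have hq : bc (F := Φ.F) {c, d} ∈ frontier c.1.set := by
    rw [frontier_c Φ hLa c]; exact ⟨hbc, d, hdc, hbd⟩
  obtain ⟨v, hv, hv0, h⟩ := tiny_vertex hLa hδ hR hκ H hq a
  refine ⟨v, hv, hv0, ?_⟩
  have h1 : sb Φ (bc (F := Φ.F) {c, d}) a = 1 := by
    have h2 := Brk2_582.sc_chain FF (k := 0) (fun _ => ({c, d} : Set Φ.F)) (fun _ _ _ => le_rfl)
      ⟨c, by simp⟩ hne2 (fun _ => 1) (fun _ => zero_le_one) (by simp) a
    have h3 : a ∉ ({c, d} : Set Φ.F) := by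
      rintro (h | h)
      · exact hac h
      · exact hda h.symm
    simp only [Fin.sum_univ_succ, one_smul, Finset.univ_eq_empty, Finset.sum_empty, add_zero,
      if_neg h3] at h2
    exact h2
  rw [h1] at h
  have := (abs_le.1 h).1
  linarith

/-- **one common point of two levels over a quad** -/
theorem tiny_quad (hLa : IsOpen La) (H : Tiny Φ T f κ1 c J0 J V θ φ) {d a b : Φ.F} (hdc : d ≠ c)
    (hac : a ≠ c) (hbc : b ≠ c) (had : a ≠ d) (hbd : b ≠ d) (hab : a ≠ b)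
    (hne : (fc (Pc Φ.F) ({c, d, a, b} : Set Φ.F)).Nonempty) {s t : ℝ} (hs0 : 0 ≤ s) (hs1 : s < 1)
    (ht0 : 0 ≤ t) (ht1 : t < 1) :
    ∃! z, z ∈ frontier (KJ T J) ∧ θ z ∈ Pc Φ.F d ∧ sb Φ (θ z) a = s ∧ sb Φ (θ z) b = t := by
  have FF := foam Φ.bf hLa
  have hset : (insert a (insert b ({c, d} : Set Φ.F))) = {c, d, a, b} := by
    ext x; simp only [mem_insert_iff, mem_singleton_iff]; tauto
  have hcard : (insert a (insert b ({c, d} : Set Φ.F))).ncard = Fintype.card (Fin 3) + 1 := by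
    rw [ncard_insert_of_notMem (by
      simp only [mem_insert_iff, mem_singleton_iff]
      rintro (h | h | h)
      · exact hab h
      · exact hac h
      · exact had h) (by simp), ncard_insert_of_notMem (by
      simp only [mem_insert_iff, mem_singleton_iff]
      rintro (h | h)
      · exact hbc h
      · exact hbd h) (by simp), ncard_pair (fun h => hdc h.symm)]
    simp
  obtain ⟨q, ⟨hqL, hqZ, hqa, hqb⟩, hu⟩ := Exc_965.quad_point FF (Z := {c, d}) ⟨c, by simp⟩ hcard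
    (by rw [hset]; exact hne) hab (by
      rintro (h | h)
      · exact hac h
      · exact had h) (by
      rintro (h | h)
      · exact hbc h
      · exact hbd h) hs0 hs1 ht0 ht1
  obtain ⟨e, he⟩ := H.bij
  have hq : q ∈ frontier c.1.set := by
    rw [frontier_c Φ hLa c]; exact ⟨hqZ c (by simp), d, hdc, hqZ d (by simp)⟩
  have h1 : e.g q ∈ frontier (KJ T J) := e.mg hq
  have h2 : θ (e.g q) = q := by rw [← he _ h1]; exact e.ri q hq
  refine ⟨e.g q, ⟨h1, ?_, ?_, ?_⟩, ?_⟩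
  · rw [h2]; exact hqZ d (by simp)
  · rw [h2]; exact hqa
  · rw [h2]; exact hqb
  · rintro z ⟨hz, hzd, hza, hzb⟩
    have h3 : θ z = q := hu (θ z) ⟨FF.sub c (th_mem' H hz), by
      rintro w (rfl | rfl)
      · exact th_mem' H hz
      · exact hzd, hza, hzb⟩
    rw [← h3, ← he z hz, e.li z hz]

end tiny

end Crest.Agent.R096.Exa_560
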