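import Mathlib
import Crest.Agent.R096.Bar3_543
import Crest.Agent.R096.Bar2_106
import Crest.Agent.R096.Exa6_560

/-! # Row 96, DOORS, barriers (helper543 for 106 #11427, 438's `fs_level`), Bar 4: the sets
`{Fs ≤ t}`, `{t ≤ Fs}`, `{Fs = t}` on the boundary of a brick -/

set_option autoImplicit false
set_option linter.unusedSectionVars false

open Set Filter Topology

namespace Crest.Agent.R096.Bar_543

open Crest.Agent.R096.Coh_184 Crest.Agent.R096.Brk1_582 Crest.Agent.R096.Brk2_582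
  Crest.Agent.R096.Etg_163 Crest.Agent.R096.Vb_965 Crest.Agent.R096.Exc_965
  Crest.Agent.R096.Bsp_628 Crest.Agent.R096.Brk3_582 Crest.Agent.R096.Brk5_582
open Crest.Agent.R096.Mbf_337 (sb)
open Crest.Agent.R096.SkC1_961 (E3 FoamD)
open Crest.Agent.R096.Bar_106 (Mo)

section foam

variable {E : Type*} [NormedAddCommGroup E] [NormedSpace ℝ E] [CompleteSpace E]
  [FiniteDimensional ℝ E] {I : Type*}
variable {La : Set E} {P : I → Set E} {b : Set I → E} {N : ℕ}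
variable (F : Foam La P b N) {c a : I} {Z : Set I}
include F

/-- the function `Fs` is continuous on `La` -/
theorem continuousOn_fs (Nf : Finset I) (a : I) (Z : Set I) :
    ContinuousOn (fun q => Bar_106.Fs Nf a Z (sc P b q)) La := by
  classical
  unfold Bar_106.Fs
  refine continuousOn_finset_sum _ fun e _ => ?_
  have h1 : ContinuousOn (fun q => sc P b q e) La := continuousOn_sc_apply F e
  show ContinuousOn (fun q => Bar_106.dv a Z (sc P b q) e) La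
  unfold Bar_106.dv
  split_ifs
  · exact continuousOn_const
  · exact h1
  · exact continuousOn_const.sub h1

/-- the boundary of a cell is unicoherent -/
theorem trivF_bdc (h3 : Module.finrank ℝ E = 3) (hc : (P c).Nonempty) :
    TrivF (ZMod 2) (bdc P c) := by
  have h1 := trivF_Lset (A := ZMod 2) F h3 hc le_rfl one_pos
  rwa [Lset_zero F] at h1

/-- **`{Fs = t}`** -/
theorem fs_eq (h3 : Module.finrank ℝ E = 3) (hcZ : c ∈ Z) (haZ : a ∉ Z)
    (hne : (fc P (insert a Z)).Nonempty) (hZ2 : ∃ d ∈ Z, d ≠ c)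
    (hD : ∀ e, e ≠ c → (P e ∩ P c).Nonempty → ∀ t, 0 < t → t < 1 →
      IsPreconnected (Dge P b c e t))
    {Nf : Finset I} (hN : ∀ e, (P e ∩ P c).Nonempty → e ∈ Nf) {t : ℝ} (h0 : 0 < t)
    (h1 : t < 1) : IsPreconnected {q | q ∈ bdc P c ∧ Bar_106.Fs Nf a Z (sc P b q) = t} ∧
      IsCompact {q | q ∈ bdc P c ∧ Bar_106.Fs Nf a Z (sc P b q) = t} ∧
      {q | q ∈ bdc P c ∧ Bar_106.Fs Nf a Z (sc P b q) = t}.Nonempty := by
  have hcn : (P c).Nonempty := by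
    obtain ⟨y, hy⟩ := hne
    exact ⟨y, mem_fc.1 hy c (Or.inr hcZ)⟩
  have hcont : ContinuousOn (fun q => Bar_106.Fs Nf a Z (sc P b q)) (bdc P c) :=
    (continuousOn_fs F Nf a Z).mono fun q hq => F.sub c hq.1
  have hcpt : IsCompact (bdc P c) := isCompact_bdc F
  have hcl := hcpt.isClosed
  have hle : IsClosed {q | q ∈ bdc P c ∧ Bar_106.Fs Nf a Z (sc P b q) ≤ t} :=
    hcont.preimage_isClosed_of_isClosed hcl (isClosed_Iic (a := t))
  have hge : IsClosed {q | q ∈ bdc P c ∧ t ≤ Bar_106.Fs Nf a Z (sc P b q)} :=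
    hcont.preimage_isClosed_of_isClosed hcl (isClosed_Ici (a := t))
  have heq : {q | q ∈ bdc P c ∧ Bar_106.Fs Nf a Z (sc P b q) = t} =
      {q | q ∈ bdc P c ∧ Bar_106.Fs Nf a Z (sc P b q) ≤ t} ∩
        {q | q ∈ bdc P c ∧ t ≤ Bar_106.Fs Nf a Z (sc P b q)} := by
    ext q
    constructor
    · rintro ⟨g1, g2⟩
      exact ⟨⟨g1, g2.le⟩, ⟨g1, g2.ge⟩⟩
    · rintro ⟨⟨g1, g2⟩, ⟨-, g3⟩⟩
      exact ⟨g1, le_antisymm g2 g3⟩
  have hun : {q | q ∈ bdc P c ∧ Bar_106.Fs Nf a Z (sc P b q) ≤ t} ∪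
      {q | q ∈ bdc P c ∧ t ≤ Bar_106.Fs Nf a Z (sc P b q)} = bdc P c := by
    ext q
    constructor
    · rintro (h | h)
      · exact h.1
      · exact h.1
    · intro h
      rcases le_total (Bar_106.Fs Nf a Z (sc P b q)) t with h2 | h2
      · exact Or.inl ⟨h, h2⟩
      · exact Or.inr ⟨h, h2⟩
  have c1 : IsPreconnected {q | q ∈ bdc P c ∧ Bar_106.Fs Nf a Z (sc P b q) ≤ t} ∧
      {q | q ∈ bdc P c ∧ Bar_106.Fs Nf a Z (sc P b q) ≤ t}.Nonempty :=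
    fs_le F hcZ haZ hne hZ2 hN h0.le h1
  have c2 : IsPreconnected {q | q ∈ bdc P c ∧ t ≤ Bar_106.Fs Nf a Z (sc P b q)} ∧
      {q | q ∈ bdc P c ∧ t ≤ Bar_106.Fs Nf a Z (sc P b q)}.Nonempty :=
    fs_ge F hcZ haZ hne hZ2 hD hN h0 h1
  refine ⟨?_, ?_, ?_⟩
  · rw [heq]
    exact unicoh hle hge (by rw [hun]; exact trivF_bdc F h3 hcn) c1.1 c2.1
  · rw [heq]
    exact (hcpt.of_isClosed_subset hle fun q hq => hq.1).inter_right hge
  · have hpc : IsPreconnected (bdc P c) := by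
      have := isPreconnected_Lset F h3 hcn le_rfl one_pos
      rwa [Lset_zero F] at this
    obtain ⟨x, hx⟩ := c1.2
    obtain ⟨y, hy⟩ := c2.2
    obtain ⟨z, hz, hzt⟩ := hpc.intermediate_value hx.1 hy.1 hcont ⟨hx.2, hy.2⟩
    exact ⟨z, hz, hzt⟩

end foam

section literal

variable {δ κ0 R c0 : ℝ} {La : Set E3} {Φ : FoamD δ κ0 R c0 La} {c a p m : Φ.F}
  {Z : Set Φ.F} {N : Finset Φ.F} {t : ℝ}

/-- the data of a moat -/
theorem mo_data (M : Mo (Pc Φ.F) c a Z p m) :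
    (fc (Pc Φ.F) (insert a Z)).Nonempty ∧ ∃ d ∈ Z, d ≠ c := by
  refine ⟨M.fcp.mono (fc_anti ?_), ?_⟩
  · rintro e (h | h)
    · exact Or.inr (Or.inl h)
    · exact Or.inl h
  · obtain ⟨d, hd, hdc, -⟩ := M.wp
    exact ⟨d, hd, hdc⟩

/-- **`{Fs = t}` on the frontier of a brick** (438's `fs_level`) -/
theorem fs_eq_c (hLa : IsOpen La) (M : Mo (Pc Φ.F) c a Z p m)
    (hN : ∀ e, (Pc Φ.F c ∩ Pc Φ.F e).Nonempty → e ∈ N) (h0 : 0 < t) (h1 : t < 1) :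
    IsPreconnected {q | q ∈ frontier c.1.set ∧ Bar_106.Fs N a Z (sb Φ q) = t} ∧
      IsCompact {q | q ∈ frontier c.1.set ∧ Bar_106.Fs N a Z (sb Φ q) = t} ∧
      {q | q ∈ frontier c.1.set ∧ Bar_106.Fs N a Z (sb Φ q) = t}.Nonempty := by
  obtain ⟨hne, hZ2⟩ := mo_data M
  rw [Exa_560.frontier_c Φ hLa c]
  exact fs_eq (foam Φ.bf hLa) (by simp [E3]) M.cZ M.aZ hne hZ2
    (fun e hec het t h0 h1 => (preconn_Dge Φ.bf hLa hec het h0 h1).1)
    (fun e he => hN e (by rwa [inter_comm])) h0 h1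

/-- **`{Fs ≤ t}`** -/
theorem fs_le_c (hLa : IsOpen La) (M : Mo (Pc Φ.F) c a Z p m)
    (hN : ∀ e, (Pc Φ.F c ∩ Pc Φ.F e).Nonempty → e ∈ N) (h0 : 0 ≤ t) (h1 : t < 1) :
    IsPreconnected {q | q ∈ frontier c.1.set ∧ Bar_106.Fs N a Z (sb Φ q) ≤ t} ∧
      {q | q ∈ frontier c.1.set ∧ Bar_106.Fs N a Z (sb Φ q) ≤ t}.Nonempty := by
  obtain ⟨hne, hZ2⟩ := mo_data M
  rw [Exa_560.frontier_c Φ hLa c]
  exact fs_le (foam Φ.bf hLa) M.cZ M.aZ hne hZ2 (fun e he => hN e (by rwa [inter_comm])) h0 h1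

/-- **`{t ≤ Fs}`** -/
theorem fs_ge_c (hLa : IsOpen La) (M : Mo (Pc Φ.F) c a Z p m)
    (hN : ∀ e, (Pc Φ.F c ∩ Pc Φ.F e).Nonempty → e ∈ N) (h0 : 0 < t) (h1 : t < 1) :
    IsPreconnected {q | q ∈ frontier c.1.set ∧ t ≤ Bar_106.Fs N a Z (sb Φ q)} ∧
      {q | q ∈ frontier c.1.set ∧ t ≤ Bar_106.Fs N a Z (sb Φ q)}.Nonempty := by
  obtain ⟨hne, hZ2⟩ := mo_data M
  rw [Exa_560.frontier_c Φ hLa c]
  exact fs_ge (foam Φ.bf hLa) M.cZ M.aZ hne hZ2
    (fun e hec het t h0 h1 => (preconn_Dge Φ.bf hLa hec het h0 h1).1)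
    (fun e he => hN e (by rwa [inter_comm])) h0 h1

end literal

end Crest.Agent.R096.Bar_543
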