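import Crest.Agent.R096.Exa9_560

/-!
# R096 (row 96), DOORS / EXA part 10 (helper560): the tiny cores satisfy `Gag`

* `nbr c`      : the neighbours of the brick `c`.
* `tiny_pt`    : at a point of the frontier where `lev a ∘ f` is in the margins, `a` is a neighbour
                 and `s_a ∘ θ` is below the room of the exact levels.
* `tiny_gag`   : `Gag` for all tiny cores, families = neighbours, room `(1 - μ + Cn κ1, 1 - μ/2)`.
* `tiny_essIn` : `EssIn` from truthfulness on the frontiers and ESS (`conn`, `ex`).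
* `exists_tin_tiny` : both together with `exists_tin`.
-/

set_option autoImplicit false
set_option linter.unusedSectionVars false
set_option linter.style.longLine false

open Set Metric Module
open scoped Classical

namespace Crest.Agent.R096.Exa_560

open Crest.Agent.R096.Msh_715 Crest.Agent.R096.Agl5_543 Crest.Agent.R096.St_147
open Crest.Agent.R096.Twr_438 Crest.Agent.R096.Door_501 Crest.Agent.R096.Seq_213
open Crest.Agent.R096.Brk1_582 Crest.Agent.R096.Brk3_582 Crest.Agent.R096.Brk5_582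
open Crest.Agent.R096.Bsp_628
open Crest.Agent.R096.Mbf_337 (sb KJ Tiny gau)
open Crest.Agent.R096.SkC1_961 (E3 FoamD)
open Crest.Agent.R096.Ce_537 (PLEquiv IsBall)

variable {δ κ0 R c0 : ℝ} {La Om : Set E3} {ι : Type} {Φ : FoamD δ κ0 R c0 La} {T : Tiling Om ι}
  {f : E3 → E3} {κ1 μ : ℝ}

/-- the neighbours of the brick `c` -/
def nbr (Φ : FoamD δ κ0 R c0 La) (c : Φ.F) : Set Φ.F :=
  {a | a ≠ c ∧ (Pc Φ.F c ∩ Pc Φ.F a).Nonempty}

theorem nbr_fin (hLa : IsOpen La) (c : Φ.F) : (nbr Φ c).Finite :=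
  (finite_nbr hLa c).subset fun _ ha => ha.2

theorem nbr_fin' (hLa : IsOpen La) {κ : Type} {cf : κ → Φ.F} (hcf : Function.Injective cf)
    (a : Φ.F) : {k | a ∈ nbr Φ (cf k)}.Finite := by
  refine Set.Finite.of_finite_image (f := cf) ((finite_nbr hLa a).subset ?_) hcf.injOn
  rintro _ ⟨k, hk, rfl⟩
  obtain ⟨q, h1, h2⟩ := hk.2
  exact ⟨q, h2, h1⟩

section one

variable {c : Φ.F} {J0 J V : Set ι} {θ : E3 → E3} {φ : E3 → ℝ}

theorem tiny_c (hLa : IsOpen La) (H : Tiny Φ T f κ1 c J0 J V θ φ) {x : E3}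
    (hx : x ∈ frontier (KJ T J)) : sb Φ (θ x) c = 0 := by
  have FF := foam Φ.bf hLa
  have hq := th_mem' H hx
  exact (FF.sc_eq_zero (FF.sub c hq)).2 hq

/-- **truthful points** -/
theorem tiny_pt (hLa : IsOpen La) (hδ : 0 < δ) (hR : 0 < R) (hκ : Cn δ R * κ1 < 1)
    (hμ : Cn δ R * κ1 < μ) (H : Tiny Φ T f κ1 c J0 J V θ φ) {x : E3}
    (hx : x ∈ frontier (KJ T J)) {a : Φ.F} (h0 : μ ≤ Φ.lev a (f x))
    (h1 : Φ.lev a (f x) ≤ 1 - μ) :
    a ∈ nbr Φ c ∧ sb Φ (θ x) a ≤ 1 - μ + Cn δ R * κ1 ∧ μ - Cn δ R * κ1 ≤ sb Φ (θ x) a := by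
  have hn := abs_le.1 (tiny_near hLa hδ hR hκ H hx a)
  refine ⟨⟨?_, ?_⟩, by linarith [hn.2], by linarith [hn.1]⟩
  · rintro rfl
    rw [tiny_c hLa H hx] at hn
    linarith [hn.1]
  · by_contra hne
    rw [tiny_far hLa H hne hx] at hn
    linarith [hn.2]

/-- a vertex on the frontier -/
theorem tiny_vx (hLa : IsOpen La) (hδ : 0 < δ) (hR : 0 < R) (hκ : Cn δ R * κ1 < 1)
    (H : Tiny Φ T f κ1 c J0 J V θ φ) : ∃ v ∈ frontier (KJ T J), T.dim v = 0 := by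
  have hne : (frontier c.1.set).Nonempty := by
    rw [Set.nonempty_iff_ne_empty]
    intro h
    have h1 : IsClopen c.1.set := isClopen_iff_frontier_eq_empty.2 h
    have hpos : ∀ k, c.1.lo k < c.1.hi k := Φ.bf.pos _ c.2
    have hmem : c.1.lo ∈ c.1.set := ⟨le_rfl, fun k => (hpos k).le⟩
    rcases isClopen_iff.1 h1 with h2 | h2
    · rw [h2] at hmem; exact hmem
    · have h3 : (fun k => c.1.lo k - 1) ∈ c.1.set := by rw [h2]; trivial
      have := h3.1 0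
      simp only at this
      linarith
  obtain ⟨q, hq⟩ := hne
  obtain ⟨v, hv, hv0, _⟩ := tiny_vertex hLa hδ hR hκ H hq c
  exact ⟨v, hv, hv0⟩

end one

section inst

variable {κ : Type} {cf : κ → Φ.F} {J0 J V : κ → Set ι} {θ : κ → E3 → E3} {φ : κ → E3 → ℝ}

/-- **`Gag` for all tiny cores** -/
theorem tiny_gag (hLa : IsOpen La) (hδ : 0 < δ) (hR : 0 < R) (hκ1 : 0 < κ1) (hμ0 : 0 < μ)
    (hμ1 : μ ≤ 1 / 2) (hμ : (2 * Cn δ R + 1) * κ1 ≤ μ / 2) (hcf : Function.Injective cf)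
    (H : ∀ k, Tiny Φ T f κ1 (cf k) (J0 k) (J k) (V k) (θ k) (φ k)) :
    ∃ v0 v1 : ∀ k, Φ.F → VxK T (fun k => KJ T (J k)) k,
      Gag T (fun k => KJ T (J k)) (fun k => nbr Φ (cf k)) (fun k a x => sb Φ (θ k x) a)
        (fun _ _ => 1 - μ + Cn δ R * κ1) (fun _ _ => 1 - μ / 2) v0 v1 := by
  have hC := Cn_nonneg hδ hR
  have hCκ : 0 ≤ Cn δ R * κ1 := mul_nonneg hC hκ1.le
  have hCμ : Cn δ R * κ1 < μ / 2 := by nlinarith
  have hκ : Cn δ R * κ1 < 1 := by linarith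
  have h0 : ∀ k a, ∃ v : VxK T (fun k => KJ T (J k)) k, a ∈ nbr Φ (cf k) →
      sb Φ (θ k v.1) a ≤ (2 * Cn δ R + 1) * κ1 := by
    intro k a
    by_cases ha : a ∈ nbr Φ (cf k)
    · obtain ⟨v, hv, hv0, h⟩ := tiny_lo hLa hδ hR hκ (H k) ha.1 ha.2
      exact ⟨⟨v, hv0, hv⟩, fun _ => h⟩
    · obtain ⟨v, hv, hv0⟩ := tiny_vx hLa hδ hR hκ (H k)
      exact ⟨⟨v, hv0, hv⟩, fun h => absurd h ha⟩
  have h1 : ∀ k a, ∃ v : VxK T (fun k => KJ T (J k)) k, a ∈ nbr Φ (cf k) →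
      1 - (2 * Cn δ R + 1) * κ1 ≤ sb Φ (θ k v.1) a := by
    intro k a
    by_cases ha : a ∈ nbr Φ (cf k)
    · obtain ⟨v, hv, hv0, h⟩ := tiny_hi hLa hδ hR hκ (H k) ha.1 ha.2
      exact ⟨⟨v, hv0, hv⟩, fun _ => h⟩
    · obtain ⟨v, hv, hv0⟩ := tiny_vx hLa hδ hR hκ (H k)
      exact ⟨⟨v, hv0, hv⟩, fun h => absurd h ha⟩
  choose v0 hv0 using h0
  choose v1 hv1 using h1
  refine ⟨v0, v1, ?_⟩
  exact
  { aff := fun k a F hF => tiny_aff (H k) a F hF
    lt := fun _ _ => by linarith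
    lev := fun k a ha t ht0 ht1 => tiny_level hLa (H k) ha.1 ha.2 (by linarith) (by linarith)
    lo := fun k a ha => (hv0 k a ha).trans (by linarith)
    hi := fun k a ha => le_trans (by linarith) (hv1 k a ha)
    finN := fun k => nbr_fin hLa (cf k)
    finC := fun a => nbr_fin' hLa hcf a }

variable {h3 : finrank ℝ E3 = 3} {hH : ∀ k, CoreH T (KJ T (J k))}
  {hdis : ∀ c c', c ≠ c' → Disjoint (KJ T (J c)) (KJ T (J c'))}

/-- a point of the trace is on the frontier and has dimension one -/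
theorem onE_fr {k : κ} {w : E3} (h : ∃ e, w ∈ (shellH h3 hH hdis k).OnE e) :
    w ∈ frontier (KJ T (J k)) ∧ T.dim w = 1 := by
  obtain ⟨e, he⟩ := h
  exact ⟨e.2.2 (e.1.opn_sub he), (T.dim_eq_of_mem_oc e.1.pt_mem he).trans e.2.1⟩

variable {JJ : Type} {fam : JJ → Φ.F} {t : JJ → ℝ}

/-- **`EssIn` for the tiny cores** -/
theorem tiny_essIn (hLa : IsOpen La) (hδ : 0 < δ) (hR : 0 < R) (hκ : Cn δ R * κ1 < 1)
    (hμ : Cn δ R * κ1 < μ)
    (H : ∀ k, Tiny Φ T f κ1 (cf k) (J0 k) (J k) (V k) (θ k) (φ k))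
    {s : GSt (meshH h3 hH hdis) fam}
    {v0 v1 : ∀ k, Φ.F → VxK T (fun k => KJ T (J k)) k} (ht : ∀ j, μ ≤ t j ∧ t j ≤ 1 - μ)
    (htr : ∀ k, ∀ w ∈ s.P, w ∈ frontier (KJ T (J k)) → Φ.lev (fam (s.lab w)) (f w) = t (s.lab w))
    (conn : ∀ k, ∀ a ∈ nbr Φ (cf k),
      ∀ w ∈ (essSt (shellH h3 hH hdis k) (v0 k a) (v1 k a) (trace (shellH h3 hH hdis k) s a)).P,
      ∀ w' ∈ (essSt (shellH h3 hH hdis k) (v0 k a) (v1 k a) (trace (shellH h3 hH hdis k) s a)).P,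
      s.lab w' = s.lab w → w' ∈ comp true
        (essSt (shellH h3 hH hdis k) (v0 k a) (v1 k a) (trace (shellH h3 hH hdis k) s a)) w)
    (ex : ∀ k, ∀ a ∈ nbr Φ (cf k), ∀ j, fam j = a → ∃ w ∈
      (essSt (shellH h3 hH hdis k) (v0 k a) (v1 k a) (trace (shellH h3 hH hdis k) s a)).P,
      s.lab w = j)
    (on : ∀ w ∈ s.P, ∃ F, w ∈ (meshH h3 hH hdis).On F) (fin : ∀ a, {j | fam j = a}.Finite) :
    EssIn s (fun k => nbr Φ (cf k)) (fun k a x => sb Φ (θ k x) a)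
      (fun _ _ => 1 - μ + Cn δ R * κ1) v0 v1 := by
  have key : ∀ k a w, w ∈ (trace (shellH h3 hH hdis k) s a).P →
      a ∈ nbr Φ (cf k) ∧ sb Φ (θ k w) a ≤ 1 - μ + Cn δ R * κ1 := by
    intro k a w hw
    obtain ⟨h1, h2, h4⟩ := mem_trace.1 hw
    obtain ⟨h5, _⟩ := onE_fr h4
    have h6 := htr k w h1 h5
    rw [h2] at h6
    obtain ⟨g1, g2⟩ := ht (s.lab w)
    obtain ⟨e1, e2, _⟩ := tiny_pt hLa hδ hR hκ hμ (H k) h5 (a := a) (by rw [h6]; exact g1)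
      (by rw [h6]; exact g2)
    exact ⟨e1, e2⟩
  exact
  { far := fun k a ha => by
      rw [Finset.eq_empty_iff_forall_notMem]
      exact fun w hw => ha (key k a w hw).1
    conn := conn
    ex := ex
    low := fun k a _ w hw => (key k a w hw).2
    on := on
    fin := fin }

end inst

end Crest.Agent.R096.Exa_560
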