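import Crest.Agent.R096.Ess7_95
import Crest.Agent.R096.Exa10_560

/-!
# Row 96, DOORS_final (helper316): the input of the towers for the truthful state and the tiny cores

* `exists_vx`   : vertices of the spheres below and above the levels of every neighbour.
* `tiny_gag'`   : `Gag` (560) with these vertices.
* `st0_dim`, `st0_car`, `st0_pt` : the points of the truthful state: dimension, carry, the points on
  the frontier of a tiny core belong to neighbours and are below the window of the exact levels.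
-/

set_option autoImplicit false
set_option linter.unusedSectionVars false
set_option linter.style.longLine false

open Set Topology Filter Metric Module
open scoped Classical

namespace Crest.Agent.R096.Dia_316

open Crest.Agent.R096.Msh_715 Crest.Agent.R096.Coh_184 Crest.Agent.R096.Bsp_628
  Crest.Agent.R096.Brk1_582 Crest.Agent.R096.Brk2_582 Crest.Agent.R096.Brk3_582
  Crest.Agent.R096.Brk5_582 Crest.Agent.R096.Init_543 Crest.Agent.R096.Mbf_337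
  Crest.Agent.R96.Push_899 Crest.Agent.R096.Ess4_95 Crest.Agent.R096.Ess7_95
  Crest.Agent.R096.Lab_184 Crest.Agent.R096.Main_4 Crest.Agent.R096.Exa_560
  Crest.Agent.R096.Agl4_543 Crest.Agent.R096.Agl5_543 Crest.Agent.R096.Agl6_543
  Crest.Agent.R096.Seq_213 Crest.Agent.R096.St_147 Crest.Agent.R096.Door_501
  Crest.Agent.R096.Twr_438

open Crest.Agent.R096.SkC1_961 (E3 Hom3 IsPush FoamD)
open Crest.Agent.R096.Ess3_95 (Car car_gmain outK trc mem_trc)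

variable {δ κ0 R c0 : ℝ} {La Om : Set E3} {ι : Type} {Φ : FoamD δ κ0 R c0 La} {T : Tiling Om ι}
  {f : E3 → E3} {κ1 μ : ℝ}

section inst

variable {κ : Type} {cf : κ → Φ.F} {J0 J V : κ → Set ι} {θ : κ → E3 → E3} {φ : κ → E3 → ℝ}

/-- **vertices below and above the levels** of every neighbour -/
theorem exists_vx (hLa : IsOpen La) (hδ : 0 < δ) (hR : 0 < R) (hκ : Cn δ R * κ1 < 1)
    (H : ∀ k, Tiny Φ T f κ1 (cf k) (J0 k) (J k) (V k) (θ k) (φ k)) :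
    ∃ v0 v1 : ∀ k, Φ.F → VxK T (fun k => KJ T (J k)) k,
      (∀ k a, a ∈ nbr Φ (cf k) → sb Φ (θ k (v0 k a).1) a ≤ (2 * Cn δ R + 1) * κ1) ∧
      ∀ k a, a ∈ nbr Φ (cf k) → 1 - (2 * Cn δ R + 1) * κ1 ≤ sb Φ (θ k (v1 k a).1) a := by
  have h0 : ∀ k a, ∃ v : VxK T (fun k => KJ T (J k)) k, a ∈ nbr Φ (cf k) →
      sb Φ (θ k v.1) a ≤ (2 * Cn δ R + 1) * κ1 := by
    intro k a
    by_cases ha : a ∈ nbr Φ (cf k)
    · obtain ⟨v, hv, hv0, h⟩ := tiny_lo hLa hδ hR hκ (H k) ha.1 ha.2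
      exact ⟨⟨v, hv0, hv⟩, fun _ => h⟩
    · obtain ⟨v, hv, hv0⟩ := tiny_vx hLa hδ hR hκ (H k)
      exact ⟨⟨v, hv0, hv⟩, fun h => absurd h ha⟩
  have h1 : ∀ k a, ∃ v : VxK T (fun k => KJ T (J k)) k, a ∈ nbr Φ (cf k) →
      1 - (2 * Cn δ R + 1) * κ1 ≤ sb Φ (θ k v.1) a := by
    intro k a
    by_cases ha : a ∈ nbr Φ (cf k)
    · obtain ⟨v, hv, hv0, h⟩ := tiny_hi hLa hδ hR hκ (H k) ha.1 ha.2
      exact ⟨⟨v, hv0, hv⟩, fun _ => h⟩
    · obtain ⟨v, hv, hv0⟩ := tiny_vx hLa hδ hR hκ (H k)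
      exact ⟨⟨v, hv0, hv⟩, fun h => absurd h ha⟩
  choose v0 hv0 using h0
  choose v1 hv1 using h1
  exact ⟨v0, v1, hv0, hv1⟩

/-- **`Gag` for all tiny cores**, vertices given -/
theorem tiny_gag' (hLa : IsOpen La) (hδ : 0 < δ) (hR : 0 < R) (hκ1 : 0 < κ1)
    (hμ1 : μ ≤ 1 / 2) (hμ : (2 * Cn δ R + 1) * κ1 ≤ μ / 2) (hcf : Function.Injective cf)
    (H : ∀ k, Tiny Φ T f κ1 (cf k) (J0 k) (J k) (V k) (θ k) (φ k))
    {v0 v1 : ∀ k, Φ.F → VxK T (fun k => KJ T (J k)) k}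
    (hv0 : ∀ k a, a ∈ nbr Φ (cf k) → sb Φ (θ k (v0 k a).1) a ≤ (2 * Cn δ R + 1) * κ1)
    (hv1 : ∀ k a, a ∈ nbr Φ (cf k) → 1 - (2 * Cn δ R + 1) * κ1 ≤ sb Φ (θ k (v1 k a).1) a) :
    Gag T (fun k => KJ T (J k)) (fun k => nbr Φ (cf k)) (fun k a x => sb Φ (θ k x) a)
      (fun _ _ => 1 - μ + Cn δ R * κ1) (fun _ _ => 1 - μ / 2) v0 v1 := by
  have hC := Cn_nonneg hδ hR
  have hCκ : 0 ≤ Cn δ R * κ1 := mul_nonneg hC hκ1.le
  have hCμ : Cn δ R * κ1 < μ / 2 := by nlinarith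
  exact
  { aff := fun k a F hF => tiny_aff (H k) a F hF
    lt := fun _ _ => by linarith
    lev := fun k a ha t ht0 ht1 => tiny_level hLa (H k) ha.1 ha.2 (by linarith) (by linarith)
    lo := fun k a ha => (hv0 k a ha).trans (by linarith)
    hi := fun k a ha => le_trans (by linarith) (hv1 k a ha)
    finN := fun k => nbr_fin hLa (cf k)
    finC := fun a => nbr_fin' hLa hcf a }

end inst

section st0

variable {g : E3 → E3} {κ2 : ℝ} {X : Set Φ.F} {J0 J V : Φ.F → Set ι}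
  {ct ct' : Φ.F → ι} {A : Φ.F → E3 ≃ᵃ[ℝ] E3} {lam : Φ.F → ℝ} {z : Φ.F → E3}
  {θ : Φ.F → E3 → E3} {φ : Φ.F → E3 → ℝ} {r₀ : Φ.F → ℝ}
  {L : Φ.F → Finset ℝ} [Nonempty (JJ Φ L)] {hG : GF Φ r₀ T f L} {bp : JJ Φ L → E3}

/-- points of the truthful state are on 1-cells -/
theorem st0_dim (hLa : IsOpen La) (hI : InitR Φ T f g J0 ct' r₀) :
    ∀ w ∈ (st0 hG bp).P, T.dim w = 1 := fun _ hw => (st0_mem hLa hI hw).2.1

/-- points of the truthful state are on their sheet -/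
theorem st0_sh {w : E3} (hw : w ∈ (st0 hG bp).P) :
    w ∈ Sh Om Φ r₀ f ((st0 hG bp).lab w) := hG.mem_lab hw.1

theorem bp_sh (hLa : IsOpen La) (hI : InitR Φ T f g J0 ct' r₀)
    (hb : ∀ j : JJ Φ L, bp j ∈ Om ∧ T.dim (bp j) = 1 ∧ Φ.lev j.1 (f (bp j)) = j.2.1)
    (j : JJ Φ L) : bp j ∈ Sh Om Φ r₀ f j := by
  refine ⟨(hb j).1, ?_⟩
  have h := hI.v_eq' Φ hLa (hb j).1 (by rw [(hb j).2.1]; norm_num) j.1
  exact h.trans (hb j).2.2

/-- **carry** for the truthful state -/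
theorem st0_car (hLa : IsOpen La) (hI : InitR Φ T f g J0 ct' r₀)
    (hb : ∀ j : JJ Φ L, bp j ∈ Om ∧ T.dim (bp j) = 1 ∧ Φ.lev j.1 (f (bp j)) = j.2.1)
    (j : JJ Φ L) (h0 : 0 < j.2.1) (h1 : j.2.1 < 1) :
    Car (st0 hG bp) j (Sh Om Φ r₀ f j) :=
  car_gmain hG (fun i => ⟨bp_sh hLa hI hb i, (hb i).2.1.le⟩) j
    (trivF_sheet hI.hm (foam4 Φ hLa) (retF Φ hLa hI.pos hI.le_one) fr3 h0 h1)

/-- **points on the frontier of a tiny core** -/
theorem st0_pt (hLa : IsOpen La) (hδ : 0 < δ) (hR : 0 < R) (hκ : Cn δ R * κ1 < 1)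
    (hμ : Cn δ R * κ1 < μ) (hC : Cores Φ T f κ1 κ2 X J0 J V ct A lam z θ φ)
    (hI : InitR Φ T f g J0 ct' r₀) (hm : ∀ c, ∀ t ∈ L c, μ ≤ t ∧ t ≤ 1 - μ)
    (c : {c : Φ.F // c ∉ X}) {w : E3} (hw : w ∈ (st0 hG bp).P)
    (hwf : w ∈ frontier (KT T J X c)) :
    ((st0 hG bp).lab w).1 ∈ nbr Φ c.1 ∧
      sb Φ (θ c.1 w) ((st0 hG bp).lab w).1 ≤ 1 - μ + Cn δ R * κ1 ∧
      μ - Cn δ R * κ1 ≤ sb Φ (θ c.1 w) ((st0 hG bp).lab w).1 := by
  obtain ⟨-, -, h1⟩ := st0_mem hLa hI hw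
  obtain ⟨g1, g2⟩ := hm _ _ ((st0 hG bp).lab w).2.2
  exact tiny_pt hLa hδ hR hκ hμ (hC.tiny c.1 c.2) hwf (by rw [h1]; exact g1)
    (by rw [h1]; exact g2)

/-- `Rm` is what exists in `Tiny`; the inequalities between the constants -/
theorem cn_small (hδ : 0 < δ) (hR : 0 < R) (hκ1 : 0 < κ1) (hκ : 8 * ((Cn δ R + 1) * κ1) ≤ μ)
    (hμ1 : μ ≤ 1) : Cn δ R * κ1 < 1 ∧ Cn δ R * κ1 < μ ∧ (2 * Cn δ R + 1) * κ1 ≤ μ / 2 := by
  have h1 : 0 ≤ Cn δ R * κ1 := mul_nonneg (Cn_nonneg hδ hR) hκ1.le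
  have h2 : 8 * ((Cn δ R + 1) * κ1) = 8 * (Cn δ R * κ1) + 8 * κ1 := by ring
  have h3 : (2 * Cn δ R + 1) * κ1 = 2 * (Cn δ R * κ1) + κ1 := by ring
  refine ⟨by linarith, by linarith, by linarith⟩

variable {h3 : finrank ℝ E3 = 3} {hH : ∀ c, CoreH T (KT T J X c)}
  {hdis : ∀ c c', c ≠ c' → Disjoint (KT T J X c) (KT T J X c')}

/-- **the points of the outer state are on faces of the mesh with giants** if the roots are in no
core -/
theorem out_on {J' : Type} {C : Type} {fam : J' → C} {s : GSt (meshC T h3) fam} {r : J' → E3}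
    (hdim : ∀ w ∈ s.P, T.dim w = 1)
    (hrq : ∀ j, ∃ q, r j ∈ P (T.H q) ∧ ∀ c, ¬ P (T.H q) ⊆ KT T J X c) :
    ∀ w ∈ (outK hH hdis s r).P, ∃ F, w ∈ (meshH h3 hH hdis).On F := by
  rintro w ⟨hw, hr⟩
  rcases Relation.ReflTransGen.cases_tail hr with h | ⟨x, _, F, hF, hx, hxF, rfl⟩
  · have hwO : w ∈ Om := by
      obtain ⟨q, hq, -⟩ := hrq (s.lab w)
      rw [h]
      exact T.sub q hq
    obtain ⟨q, hq, hqK⟩ := hrq (s.lab w)
    rw [← h] at hq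
    obtain ⟨x₁, hx1, x₂, hx2, hd1, hd2, hq1, hq2, hw1, hw2, hne, huniq⟩ :=
      Agl3_543.two_cells T h3 hwO (hdim _ hw) (show q ∈ T.at_ w from hq)
    have hOn : w ∈ (mk2 T hx1 hd1).On := ⟨hw1, hdim _ hw⟩
    refine ⟨⟨mk2 T hx1 hd1, ?_⟩, hOn⟩
    rw [diag_iff]
    rintro ⟨k, hk⟩
    have hqs : q ∈ (mk2 T hx1 hd1).side h3 := by
      rw [C2.mem_side]
      have h5 : (mk2 T hx1 hd1).pt ∈ T.oc x₁ := T.pt_cl hx1
      rw [T.at_eq_of_mem_oc hx1 h5]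
      exact hq1
    rcases k with q' | c'
    · obtain ⟨x, h7, h8, -⟩ := (mk2 T hx1 hd1).exists_side h3
      have e1 : x.1 ∈ (meshC T h3).side (mk2 T hx1 hd1) := by
        show x.1 ∈ (mk2 T hx1 hd1).side h3
        rw [C2.mem_side, h8]; exact Or.inl rfl
      have e2 : x.2 ∈ (meshC T h3).side (mk2 T hx1 hd1) := by
        show x.2 ∈ (mk2 T hx1 hd1).side h3
        rw [C2.mem_side, h8]; exact Or.inr rfl
      exact h7 ((piK_inl.1 (hk _ e1)).1.trans (piK_inl.1 (hk _ e2)).1.symm)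
    · exact hqK c' ((piK_inr hdis).1 (hk q hqs))
  · exact ⟨⟨F, hF⟩, (s.mu_mem hx hxF).2⟩

/-- a tile not in `V c` is not in the core -/
theorem tile_notK (hC : Cores Φ T f κ1 κ2 X J0 J V ct A lam z θ φ) (c : {c : Φ.F // c ∉ X}) {q : ι}
    (hq : q ∉ V c.1) : ¬ P (T.H q) ⊆ KT T J X c := by
  intro h
  obtain ⟨x, hx⟩ := T.ne q
  have h1 := h (I_sub_P _ hx)
  obtain ⟨q', hq', hxq'⟩ := mem_iUnion₂.1 h1
  by_cases h2 : q' = q
  · exact hq ((hC.tiny c.1 c.2).sub (h2 ▸ hq'))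
  · exact not_mem_I h2 hxq' hx

/-- **`EssIn` of the outer truthful state** -/
theorem essIn_st0 [∀ c, Fintype (EdK T (KT T J X) c)] (hLa : IsOpen La) (hδ : 0 < δ) (hR : 0 < R)
    (hκ : Cn δ R * κ1 < 1) (hμ : Cn δ R * κ1 < μ)
    (hC : Cores Φ T f κ1 κ2 X J0 J V ct A lam z θ φ) (hI : InitR Φ T f g J0 ct' r₀)
    (hm : ∀ c, ∀ t ∈ L c, μ ≤ t ∧ t ≤ 1 - μ) (hμ0 : 0 < μ)
    (hb : ∀ j : JJ Φ L, bp j ∈ Om ∧ T.dim (bp j) = 1 ∧ Φ.lev j.1 (f (bp j)) = j.2.1)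
    {r : JJ Φ L → E3} (hr : ∀ j, r j ∈ (st0 hG bp).P ∧ (st0 hG bp).lab (r j) = j)
    (hrq : ∀ j, ∃ q, r j ∈ P (T.H q) ∧ ∀ c ∉ X, q ∉ V c)
    {v0 v1 : ∀ c, Φ.F → VxK T (KT T J X) c}
    (eg : ∀ (c : {c : Φ.F // c ∉ X}) (j : JJ Φ L), j.1 ∈ nbr Φ c.1 → Nonempty
      (EG (st0 hG bp) j (Sh Om Φ r₀ f j) (KT T J X) c (v0 c j.1) (v1 c j.1) (r j))) :
    EssIn (h3 := fr3) (hH := hH) (hdis := hdis) (outK hH hdis (st0 hG bp) r) (fun c => nbr Φ c.1)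
      (fun c a x => sb Φ (θ c.1 x) a) (fun _ _ => 1 - μ + Cn δ R * κ1) v0 v1 := by
  have hpt : ∀ (c : {c : Φ.F // c ∉ X}) (a : Φ.F) (w : E3), w ∈ (trc hH hdis (st0 hG bp) r c a).P →
      a ∈ nbr Φ c.1 ∧ sb Φ (θ c.1 w) a ≤ 1 - μ + Cn δ R * κ1 := by
    intro c a w hw
    obtain ⟨⟨h1, -⟩, h2, e, he⟩ := mem_trc.1 hw
    have h4 := st0_pt hLa hδ hR hκ hμ hC hI hm c h1 (Ess3_95.onE_fr he)
    rw [h2] at h4
    exact ⟨h4.1, h4.2.1⟩
  have ht : ∀ j : JJ Φ L, 0 < (j.2.1 : ℝ) ∧ (j.2.1 : ℝ) < 1 := fun j => by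
    obtain ⟨g1, g2⟩ := hm _ _ j.2.2
    exact ⟨by linarith, by linarith⟩
  exact
  { far := fun c a ha => by
      rw [Finset.eq_empty_iff_forall_notMem]
      exact fun w hw => ha (hpt c a w hw).1
    conn := by
      intro c a ha w hw w' hw' hl
      exact conn_s (Sf := fun j => Sh Om Φ r₀ f j)
        (fun j _ => st0_car hLa hI hb j (ht j).1 (ht j).2) (fun j _ x hx => hx.1)
        (st0_dim hLa hI) (fun j _ => st0_H1 hLa hI j (ht j).1 (ht j).2)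
        (fun j _ => st0_conn hLa hI hb j) (fun j _ => hr j)
        (fun j hj => (by rw [← hj]; exact (eg c j (by rw [hj]; exact ha)).some)) w hw w' hw' hl
    ex := by
      intro c a ha j hj
      exact ex_s (Sf := fun j => Sh Om Φ r₀ f j)
        (fun j _ => st0_car hLa hI hb j (ht j).1 (ht j).2) (fun j _ x hx => hx.1)
        (st0_dim hLa hI) (fun j _ => st0_H1 hLa hI j (ht j).1 (ht j).2)
        (fun j _ => st0_conn hLa hI hb j) (fun j _ => hr j)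
        (fun j hj => (by rw [← hj]; exact (eg c j (by rw [hj]; exact ha)).some)) j hj
    low := fun c a _ w hw => (hpt c a w hw).2
    on := out_on (st0_dim hLa hI) fun j => by
      obtain ⟨q, h1, h2⟩ := hrq j
      exact ⟨q, h1, fun c => tile_notK hC c (h2 c.1 c.2)⟩
    fin := fun a => jj_fin hG a }

end st0

end Crest.Agent.R096.Dia_316
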