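import Crest.Agent.R096.Exa8_560

/-!
# R096 (row 96), DOORS / EXA part 9 (helper560): the input `TIn` of the towers

Generic in the families: `N k` = the families with levels on the core `k`, `u k a` = their functions
on the frontier (affine on the 2-cells), `(A k a, B k a)` = the room for the exact levels, above the
pattern of the outer state.

* `exists_levs'` : generic increasing levels, one interval for every family.
* `Gag`, `EssIn` : geometric input, input from ESS.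
* `exists_tin`   : exact levels `L k a` and `TIn S s (exa (L k a))`.
-/

set_option autoImplicit false
set_option linter.unusedSectionVars false
set_option linter.style.longLine false

open Set Metric Module
open scoped Classical

namespace Crest.Agent.R096.Exa_560

open Crest.Agent.R096.Msh_715 Crest.Agent.R096.Agl5_543 Crest.Agent.R096.St_147
  Crest.Agent.R096.Lac_441 Crest.Agent.R096.Twr_438 Crest.Agent.R096.Door_501
  Crest.Agent.R096.Seq_213

variable {E : Type} [NormedAddCommGroup E] [NormedSpace ℝ E] [FiniteDimensional ℝ E]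
variable {Om : Set E} {ι : Type} {T : Tiling Om ι} {Sg : Set E} {J C : Type}

/-- **generic increasing levels of several families**, one interval for every family -/
theorem exists_levs' (hS : SgD T Sg) (fam : J → C) (lvl : J → ℝ) (N0 : Finset J) (u : C → E → ℝ)
    (haff : ∀ a, ∀ F : C2 T, F.set ⊆ Sg → ∃ g : E →ᵃ[ℝ] ℝ, EqOn (u a) g F.set)
    (hinj : ∀ i ∈ N0, ∀ j ∈ N0, fam i = fam j → lvl i = lvl j → i = j) {A B : C → ℝ}
    (hAB : ∀ a, A a < B a) {Q : Set E} (hQ : Q.Finite) :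
    ∃ L : C → Lev T Sg J, (∀ a, (L a).u = u a) ∧
      (∀ a j, j ∈ (L a).J0 ↔ j ∈ N0 ∧ fam j = a) ∧
      (∀ a, ∀ j ∈ (L a).J0, A a < (L a).lv j ∧ (L a).lv j < B a) ∧
      (∀ a, ∀ j ∈ (L a).J0, ∀ w ∈ Q, (L a).u w ≠ (L a).lv j) ∧
      (∀ a, ∀ i ∈ (L a).J0, ∀ j ∈ (L a).J0, (L a).lv i < (L a).lv j ↔ lvl i < lvl j) ∧
      ∀ a b, a ≠ b → ∀ i ∈ (L a).J0, ∀ j ∈ (L b).J0, ∀ y ∈ Sg, T.dim y = 1 →
        (L a).u y = (L a).lv i → (L b).u y ≠ (L b).lv j := by
  choose I0 hI01 hI02 hI03 using fun a => exists_intervals N0 lvl (hAB a)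
  set I : J → Set ℝ := fun j => I0 (fam j) j with hI
  have hI1 : ∀ j ∈ N0, (I j).Infinite := fun j hj => hI01 _ j hj
  have hI2 : ∀ j ∈ N0, I j ⊆ Ioo (A (fam j)) (B (fam j)) := fun j hj => hI02 _ j hj
  have hI3 : ∀ i ∈ N0, ∀ j ∈ N0, fam i = fam j → lvl i < lvl j → ∀ s ∈ I i, ∀ t ∈ I j, s < t := by
    intro i hi j hj hf hl s hs t ht
    have hs' : s ∈ I0 (fam j) i := by rw [← hf]; exact hs
    exact hI03 (fam j) i hi j hj hl s hs' t ht
  have hfin := T.finite_cells hS.cpt hS.sub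
  have hV : {v : E | v ∈ Sg ∧ T.dim v = 0}.Finite := by
    refine Set.Finite.of_finite_image (f := fun v => ({v} : Set E)) (hfin.subset ?_)
      (fun a _ b _ h => singleton_injective h)
    rintro _ ⟨v, ⟨hv, h0⟩, rfl⟩
    exact ⟨⟨v, hS.sub hv, (T.cc_eq_singleton (T.dim_eq_zero_iff.1 h0)).symm⟩, v, rfl, hv⟩
  have hEd : {e : Set E | ∃ x ∈ Sg, T.dim x = 1 ∧ e = T.cc x}.Finite := by
    refine hfin.subset ?_
    rintro _ ⟨x, hx, _, rfl⟩
    exact ⟨⟨x, hS.sub hx, rfl⟩, x, T.self_mem_cc x, hx⟩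
  obtain ⟨lv, hlv⟩ := Exs_776.exists_gen N0 (fun j => u (fam j)) I hI1 (hV.union hQ) hEd (by
    rintro j hj _ ⟨x, hx, hd, rfl⟩
    obtain ⟨a, b, hab, hcy, hoy, ha0, hb0, ha, hb⟩ := T.edge_eq (hS.sub hx) hd
    obtain ⟨F, hF, hxF⟩ := hS.cov x hx
    obtain ⟨g, hg⟩ := haff (fam j) F hF
    refine ⟨a, Or.inl ⟨hS.cc x hx ha, ha0⟩, b, Or.inl ⟨hS.cc x hx hb, hb0⟩, hcy, g, hg.mono ?_⟩
    rw [F.set_eq] at hxF ⊢; exact T.cc_sub_of_mem hxF)
  have hord : ∀ i ∈ N0, ∀ j ∈ N0, fam i = fam j → (lv i < lv j ↔ lvl i < lvl j) := by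
    intro i hi j hj hf
    rcases lt_trichotomy (lvl i) (lvl j) with h | h | h
    · exact ⟨fun _ => h, fun _ => hI3 i hi j hj hf h _ (hlv i hi).1 _ (hlv j hj).1⟩
    · have := hinj i hi j hj hf h
      subst this
      exact ⟨fun h' => absurd h' (lt_irrefl _), fun h' => absurd h' (lt_irrefl _)⟩
    · have h' := hI3 j hj i hi hf.symm h _ (hlv j hj).1 _ (hlv i hi).1
      exact ⟨fun h2 => absurd h2 (not_lt.2 h'.le), fun h2 => absurd h2 (not_lt.2 h.le)⟩
  refine ⟨fun a =>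
    { u := u a
      aff := haff a
      J0 := N0.filter fun j => fam j = a
      lv := lv
      inj := ?_
      vert := ?_ }, fun a => rfl, fun a j => Finset.mem_filter, ?_, ?_, ?_, ?_⟩
  · intro i hi j hj h
    obtain ⟨hi1, hi2⟩ := Finset.mem_filter.1 hi
    obtain ⟨hj1, hj2⟩ := Finset.mem_filter.1 hj
    refine hinj i hi1 j hj1 (hi2.trans hj2.symm) ?_
    rcases lt_trichotomy (lvl i) (lvl j) with h' | h' | h'
    · have := (hord i hi1 j hj1 (hi2.trans hj2.symm)).2 h'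
      exact absurd h this.ne
    · exact h'
    · have := (hord j hj1 i hi1 (hj2.trans hi2.symm)).2 h'
      exact absurd h this.ne'
  · intro v hv h0 j hj
    obtain ⟨hj1, hj2⟩ := Finset.mem_filter.1 hj
    have := (hlv j hj1).2.1 v (Or.inl ⟨hv, h0⟩)
    rwa [hj2] at this
  · intro a j hj
    obtain ⟨hj1, hj2⟩ := Finset.mem_filter.1 hj
    have := hI2 j hj1 (hlv j hj1).1
    rw [hj2] at this
    exact this
  · intro a j hj w hw
    obtain ⟨hj1, hj2⟩ := Finset.mem_filter.1 hj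
    have := (hlv j hj1).2.1 w (Or.inr hw)
    rwa [hj2] at this
  · intro a i hi j hj
    obtain ⟨hi1, hi2⟩ := Finset.mem_filter.1 hi
    obtain ⟨hj1, hj2⟩ := Finset.mem_filter.1 hj
    exact hord i hi1 j hj1 (hi2.trans hj2.symm)
  · intro a b hab i hi j hj y hy hd hya hyb
    obtain ⟨hi1, hi2⟩ := Finset.mem_filter.1 hi
    obtain ⟨hj1, hj2⟩ := Finset.mem_filter.1 hj
    have hne : j ≠ i := fun h => hab (by rw [← hi2, ← hj2, h])
    have h1 : u (fam i) y = lv i := by rw [hi2]; exact hya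
    have h2 : u (fam j) y = lv j := by rw [hj2]; exact hyb
    exact (hlv i hi1).2.2 j hj1 hne (T.cc y) ⟨y, hy, hd, rfl⟩ y (T.self_mem_cc y) h1 h2

variable {κ : Type} {Kc : κ → Set E}

/-- **geometric input**: functions `u k a` on the frontiers of the cores, room `(A, B)` for levels -/
structure Gag (T : Tiling Om ι) (Kc : κ → Set E) (N : κ → Set C) (u : κ → C → E → ℝ)
    (A B : κ → C → ℝ) (v0 v1 : ∀ k, C → VxK T Kc k) : Prop where
  aff : ∀ k a, ∀ F : C2 T, F.set ⊆ frontier (Kc k) → ∃ g : E →ᵃ[ℝ] ℝ, EqOn (u k a) g F.set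
  lt : ∀ k a, A k a < B k a
  lev : ∀ k, ∀ a ∈ N k, ∀ t, A k a < t → t < B k a →
    IsPreconnected {x | x ∈ frontier (Kc k) ∧ u k a x = t} ∧
    {x | x ∈ frontier (Kc k) ∧ u k a x = t}.Nonempty
  lo : ∀ k, ∀ a ∈ N k, u k a (v0 k a).1 ≤ A k a
  hi : ∀ k, ∀ a ∈ N k, B k a ≤ u k a (v1 k a).1
  finN : ∀ k, (N k).Finite
  finC : ∀ a, {k | a ∈ N k}.Finite

variable {h3 : finrank ℝ E = 3} {hH : ∀ c, CoreH T (Kc c)}
  {hdis : ∀ c c', c ≠ c' → Disjoint (Kc c) (Kc c')} {fam : J → C}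

/-- the mesh with the giants `Kc` (same arguments as `shellH`) -/
noncomputable abbrev meshH (h3 : finrank ℝ E = 3) (hH : ∀ c, CoreH T (Kc c))
    (hdis : ∀ c c', c ≠ c' → Disjoint (Kc c) (Kc c')) :=
  meshK T h3 Kc (fun c => (hH c).core) (fun c => (hH c).cc) hdis

/-- **input from ESS**: one essential curve for every name, all curves below the room -/
structure EssIn (s : GSt (meshH h3 hH hdis) fam) (N : κ → Set C) (u : κ → C → E → ℝ)
    (A : κ → C → ℝ) (v0 v1 : ∀ k, C → VxK T Kc k) : Prop where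
  far : ∀ k, ∀ a ∉ N k, (trace (shellH h3 hH hdis k) s a).P = ∅
  conn : ∀ k, ∀ a ∈ N k,
    ∀ w ∈ (essSt (shellH h3 hH hdis k) (v0 k a) (v1 k a) (trace (shellH h3 hH hdis k) s a)).P,
    ∀ w' ∈ (essSt (shellH h3 hH hdis k) (v0 k a) (v1 k a) (trace (shellH h3 hH hdis k) s a)).P,
    s.lab w' = s.lab w → w' ∈ comp true
      (essSt (shellH h3 hH hdis k) (v0 k a) (v1 k a) (trace (shellH h3 hH hdis k) s a)) w
  ex : ∀ k, ∀ a ∈ N k, ∀ j, fam j = a → ∃ w ∈
    (essSt (shellH h3 hH hdis k) (v0 k a) (v1 k a) (trace (shellH h3 hH hdis k) s a)).P, s.lab w = j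
  low : ∀ k, ∀ a ∈ N k, ∀ w ∈ (trace (shellH h3 hH hdis k) s a).P, u k a w ≤ A k a
  on : ∀ w ∈ s.P, ∃ F, w ∈ (meshH h3 hH hdis).On F
  fin : ∀ a, {j | fam j = a}.Finite

/-- every vertex of the frontier is an end of an edge -/
theorem exists_en (k : κ) (v : VxK T Kc k) :
    ∃ e b, (shellH h3 hH hdis k).en e b = v := by
  obtain ⟨F, hF, hvF⟩ := (sgd h3 hH k).cov v.1 v.2.2
  obtain ⟨e, he, _⟩ := exists_edge_at hF hvF v.2.1
  obtain ⟨b, hb⟩ := (endp_iff e.2.1 v.2.1).1 he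
  exact ⟨e, b, Subtype.ext hb⟩

variable [Nonempty J] [∀ k, Fintype (EdK T Kc k)]

/-- **the exact levels and the input of the towers** -/
theorem exists_tin {s : GSt (meshH h3 hH hdis) fam} {N : κ → Set C} {u : κ → C → E → ℝ}
    {A B : κ → C → ℝ} {v0 v1 : ∀ k, C → VxK T Kc k} (hG : Gag T Kc N u A B v0 v1)
    (hE : EssIn s N u A v0 v1) :
    ∃ L : ∀ k, C → Lev T (frontier (Kc k)) J, (∀ k a, (L k a).u = u k a) ∧
      (∀ k a j, j ∈ (L k a).J0 ↔ fam j = a ∧ a ∈ N k) ∧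
      (∀ k a, ∀ j ∈ (L k a).J0, A k a < (L k a).lv j ∧ (L k a).lv j < B k a) ∧
      (∀ k a b, a ≠ b → ∀ i ∈ (L k a).J0, ∀ j ∈ (L k b).J0, ∀ y ∈ frontier (Kc k), T.dim y = 1 →
        (L k a).u y = (L k a).lv i → (L k b).u y ≠ (L k b).lv j) ∧
      (∀ k, ∀ a ∈ N k,
        ∀ x ∈ (essSt (shellH h3 hH hdis k) (v0 k a) (v1 k a) (trace (shellH h3 hH hdis k) s a)).P,
        ∀ w ∈ (essSt (shellH h3 hH hdis k) (v0 k a) (v1 k a) (trace (shellH h3 hH hdis k) s a)).P,
        s.lab x ≠ s.lab w →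
        ((L k a).lv (s.lab x) < (L k a).lv (s.lab w) ∧ sd (shellH h3 hH hdis k).sphSh (v0 k a)
          (comp true (essSt (shellH h3 hH hdis k) (v0 k a) (v1 k a)
            (trace (shellH h3 hH hdis k) s a)) w) x = 0) ∨
        ((L k a).lv (s.lab w) < (L k a).lv (s.lab x) ∧ sd (shellH h3 hH hdis k).sphSh (v0 k a)
          (comp true (essSt (shellH h3 hH hdis k) (v0 k a) (v1 k a)
            (trace (shellH h3 hH hdis k) s a)) w) x = 1)) ∧
      ∃ D : TIn (fun k => shellH h3 hH hdis k) s (fun k a => exa h3 hH hdis (L k a)),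
        D.v0 = v0 ∧ D.v1 = v1 := by
  have hmem : ∀ k a w, w ∈ (trace (shellH h3 hH hdis k) s a).P → a ∈ N k := by
    intro k a w hw
    by_contra h
    rw [hE.far k a h] at hw
    exact absurd hw (Finset.notMem_empty w)
  have hL : ∀ k, ∃ L : C → Lev T (frontier (Kc k)) J, (∀ a, (L a).u = u k a) ∧
      (∀ a j, j ∈ (L a).J0 ↔ fam j = a ∧ a ∈ N k) ∧
      (∀ a, ∀ j ∈ (L a).J0, A k a < (L a).lv j ∧ (L a).lv j < B k a) ∧
      (∀ a b, a ≠ b → ∀ i ∈ (L a).J0, ∀ j ∈ (L b).J0, ∀ y ∈ frontier (Kc k), T.dim y = 1 →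
        (L a).u y = (L a).lv i → (L b).u y ≠ (L b).lv j) ∧
      (∀ a ∈ N k,
        ∀ x ∈ (essSt (shellH h3 hH hdis k) (v0 k a) (v1 k a) (trace (shellH h3 hH hdis k) s a)).P,
        ∀ w ∈ (essSt (shellH h3 hH hdis k) (v0 k a) (v1 k a) (trace (shellH h3 hH hdis k) s a)).P,
        s.lab x ≠ s.lab w →
        ((L a).lv (s.lab x) < (L a).lv (s.lab w) ∧ sd (shellH h3 hH hdis k).sphSh (v0 k a)
          (comp true (essSt (shellH h3 hH hdis k) (v0 k a) (v1 k a)
            (trace (shellH h3 hH hdis k) s a)) w) x = 0) ∨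
        ((L a).lv (s.lab w) < (L a).lv (s.lab x) ∧ sd (shellH h3 hH hdis k).sphSh (v0 k a)
          (comp true (essSt (shellH h3 hH hdis k) (v0 k a) (v1 k a)
            (trace (shellH h3 hH hdis k) s a)) w) x = 1)) ∧
      ∀ a, ∀ w ∈ (exa h3 hH hdis (L a)).P, w ∉ s.P := by
    intro k
    -- the ranks
    have hrk : ∀ a ∈ N k, ∃ rk : J → ℕ,
        ∀ x ∈ (essSt (shellH h3 hH hdis k) (v0 k a) (v1 k a) (trace (shellH h3 hH hdis k) s a)).P,
        ∀ w ∈ (essSt (shellH h3 hH hdis k) (v0 k a) (v1 k a) (trace (shellH h3 hH hdis k) s a)).P,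
        s.lab x ≠ s.lab w →
        (rk (s.lab x) < rk (s.lab w) ∧ sd (shellH h3 hH hdis k).sphSh (v0 k a)
          (comp true (essSt (shellH h3 hH hdis k) (v0 k a) (v1 k a)
            (trace (shellH h3 hH hdis k) s a)) w) x = 0) ∨
        (rk (s.lab w) < rk (s.lab x) ∧ sd (shellH h3 hH hdis k).sphSh (v0 k a)
          (comp true (essSt (shellH h3 hH hdis k) (v0 k a) (v1 k a)
            (trace (shellH h3 hH hdis k) s a)) w) x = 1) := by
      intro a ha
      obtain ⟨rk, _, h⟩ := exists_rk ((shellH h3 hH hdis k).sphSh_Sph (shellH_sph k))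
        ((shellH h3 hH hdis k).sphSh_Circ (shellH_circ k))
        ((shellH h3 hH hdis k).sphSh_Con (shellH_con k)) (exists_en k (v0 k a))
        (exists_en k (v1 k a)) (fun _ _ => rfl)
        (essSt (shellH h3 hH hdis k) (v0 k a) (v1 k a) (trace (shellH h3 hH hdis k) s a))
        (fun w hw => (mem_trace.1 (mem_ess.1 hw).1).2.2) (hE.conn k a ha)
        (fun w hw => by rw [comp_ess hw]; exact (mem_ess.1 hw).2)
      exact ⟨rk, h⟩
    choose! rk hrk using hrk
    have hN0 : {j | fam j ∈ N k}.Finite := by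
      refine ((hG.finN k).biUnion fun a _ => hE.fin a).subset ?_
      intro j hj
      exact mem_biUnion (show fam j ∈ N k from hj) rfl
    have hQ : (⋃ a ∈ N k, ((trace (shellH h3 hH hdis k) s a).P : Set E)).Finite :=
      (hG.finN k).biUnion fun a _ => Finset.finite_toSet _
    obtain ⟨L, h1, h2, h3', h4, h5, h6⟩ := exists_levs' (sgd h3 hH k) fam
      (fun j => ((rk (fam j) j : ℕ) : ℝ)) hN0.toFinset (u k) (hG.aff k) (by
        intro i hi j hj hf hl
        rw [Set.Finite.mem_toFinset] at hi hj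
        have hi' : fam i ∈ N k := hi
        by_contra hne
        obtain ⟨x, hx, hxi⟩ := hE.ex k (fam i) hi' i rfl
        obtain ⟨w, hw, hwj⟩ := hE.ex k (fam i) hi' j hf.symm
        have hl' : rk (fam i) i = rk (fam i) j := by
          have : rk (fam i) i = rk (fam j) j := by exact_mod_cast hl
          rw [this, hf]
        rcases hrk (fam i) hi' x hx w hw (by rw [hxi, hwj]; exact hne) with ⟨g, _⟩ | ⟨g, _⟩
        · rw [hxi, hwj, hl'] at g; exact lt_irrefl _ g
        · rw [hxi, hwj, hl'] at g; exact lt_irrefl _ g) (hG.lt k) hQ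
    have hJ0 : ∀ a j, j ∈ (L a).J0 ↔ fam j = a ∧ a ∈ N k := by
      intro a j
      rw [h2 a j, Set.Finite.mem_toFinset]
      constructor
      · rintro ⟨g, rfl⟩; exact ⟨rfl, g⟩
      · rintro ⟨rfl, g⟩; exact ⟨g, rfl⟩
    refine ⟨L, h1, hJ0, h3', h6, ?_, ?_⟩
    · intro a ha x hx w hw hne
      have hfx : fam (s.lab x) = a := (mem_trace.1 (mem_ess.1 hx).1).2.1
      have hfw : fam (s.lab w) = a := (mem_trace.1 (mem_ess.1 hw).1).2.1
      have jx := (hJ0 a (s.lab x)).2 ⟨hfx, ha⟩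
      have jw := (hJ0 a (s.lab w)).2 ⟨hfw, ha⟩
      have e1 := h5 a _ jx _ jw
      have e2 := h5 a _ jw _ jx
      rw [hfx, hfw] at e1 e2
      rcases hrk a ha x hx w hw hne with ⟨g, g'⟩ | ⟨g, g'⟩
      · exact Or.inl ⟨e1.2 (by exact_mod_cast g), g'⟩
      · exact Or.inr ⟨e2.2 (by exact_mod_cast g), g'⟩
    · intro a w hw hws
      obtain ⟨g1, g2⟩ := exa_lab (L a) hw
      obtain ⟨e, he⟩ := exa_on (L a) hw
      have hwt : w ∈ (trace (shellH h3 hH hdis k) s (fam (s.lab w))).P :=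
        mem_trace.2 ⟨hws, rfl, e, he⟩
      exact h4 a _ g1 w (mem_biUnion (hmem k _ w hwt) (Finset.mem_coe.2 hwt)) g2
  choose L hL1 hL2 hL3 hL4 hL5 hL6 using hL
  refine ⟨L, hL1, hL2, hL3, hL4, hL5, ?_⟩
  have hdN : ∀ k a w, w ∈ (exa h3 hH hdis (L k a)).P →
      fam ((exa h3 hH hdis (L k a)).lab w) = a ∧ a ∈ N k := by
    intro k a w hw
    exact (hL2 k a _).1 (exa_lab (L k a) hw).1
  refine ⟨{
    sph := fun k => shellH_sph k
    circ := fun k => shellH_circ k
    con := fun k => shellH_con k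
    v0 := v0
    v1 := v1
    hv0 := fun k a => exists_en k (v0 k a)
    hv1 := fun k a => exists_en k (v1 k a)
    rk := fun k a => (L k a).lv
    tgt := ?_
    d_fam := fun {k a w} hw => (hdN k a w hw).1
    d_new := fun {k a w} hw => hL6 k a w hw
    d_dis := ?_
    fin_c := ?_
    fin_a := ?_
    on := hE.on }, rfl, rfl⟩
  · intro k a
    by_cases ha : a ∈ N k
    · have hu : (L k a).u = u k a := hL1 k a
      have hJ : ∀ j, j ∈ (L k a).J0 ↔ fam j = a := fun j =>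
        ⟨fun h => ((hL2 k a j).1 h).1, fun h => (hL2 k a j).2 ⟨h, ha⟩⟩
      have htr : ∀ w ∈ (essSt (shellH h3 hH hdis k) (v0 k a) (v1 k a)
          (trace (shellH h3 hH hdis k) s a)).P, w ∈ (trace (shellH h3 hH hdis k) s a).P :=
        fun w hw => (mem_ess.1 hw).1
      refine exa_tgt (L k a) ?_ ?_ ?_ ?_ _ (fun w hw => (mem_trace.1 (htr w hw)).2.2)
        (hE.conn k a ha) (fun w hw => by rw [comp_ess hw]; exact (mem_ess.1 hw).2) ?_ ?_ ?_ ?_
      · intro j hj
        rw [hu]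
        exact (hG.lev k a ha _ (hL3 k a j hj).1 (hL3 k a j hj).2).1
      · intro j hj
        rw [hu]
        exact (hG.lev k a ha _ (hL3 k a j hj).1 (hL3 k a j hj).2).2
      · intro j hj
        rw [hu]
        exact (hG.lo k a ha).trans_lt (hL3 k a j hj).1
      · intro j hj
        rw [hu]
        exact (hL3 k a j hj).2.trans_le (hG.hi k a ha)
      · intro j hj
        exact hE.ex k a ha j ((hJ j).1 hj)
      · intro w hw
        exact (hJ _).2 (mem_trace.1 (htr w hw)).2.1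
      · intro w hw j hj
        rw [hu]
        exact (hE.low k a ha w (htr w hw)).trans_lt (hL3 k a j hj).1
      · intro x hx w hw hlt
        have hne : s.lab x ≠ s.lab w := fun h => by
          have hlt' : (L k a).lv (s.lab x) < (L k a).lv (s.lab w) := hlt
          rw [h] at hlt'; exact lt_irrefl _ hlt'
        rcases hL5 k a ha x hx w hw hne with ⟨_, g⟩ | ⟨g, _⟩
        · exact g
        · exact absurd hlt (not_lt.2 (le_of_lt g))
    · refine tgt_empty _ ?_ ?_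
      · rw [Finset.eq_empty_iff_forall_notMem]
        intro w hw
        exact ha (hmem k a w (mem_ess.1 hw).1)
      · rw [Finset.eq_empty_iff_forall_notMem]
        intro w hw
        exact ha (hdN k a w hw).2
  · intro k a b w hwa hwb
    by_contra hab
    obtain ⟨g1, g2⟩ := exa_lab (L k a) hwa
    obtain ⟨g3, g4⟩ := exa_lab (L k b) hwb
    obtain ⟨f1, f2, _⟩ := (mem_P (L k a)).1 hwa
    exact hL4 k a b hab _ g1 _ g3 w f1 f2 g2 g4
  · intro k
    refine (hG.finN k).subset ?_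
    rintro a (⟨w, hw⟩ | ⟨w, hw⟩)
    · exact hmem k a w hw
    · exact (hdN k a w hw).2
  · intro a
    refine (hG.finC a).subset ?_
    rintro k (⟨w, hw⟩ | ⟨w, hw⟩)
    · exact hmem k a w hw
    · exact (hdN k a w hw).2

end Crest.Agent.R096.Exa_560
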