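import Crest.Agent.R096.Dib1_438
import Crest.Agent.R096.Exa9_560
import Crest.Agent.R096.Dia1_316

/-! Row 96 (helper438), DOORS, `DIn` for the barrier families, part 2: the vertices `v0`, `v1`
and the exact levels (clause `lev` of 539's `DIn`) -/

set_option autoImplicit false
set_option linter.unusedSectionVars false
set_option linter.style.longLine false

open Set Metric Module
open scoped Classical

namespace Crest.Agent.R096.Dib_438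

open Crest.Agent.R096.Msh_715 Crest.Agent.R096.Agl5_543
open Crest.Agent.R096.Brk1_582 Crest.Agent.R096.Brk3_582 Crest.Agent.R096.Brk5_582
open Crest.Agent.R096.Bsp_628 Crest.Agent.R096.Bar_106 Crest.Agent.R096.Exa_560
open Crest.Agent.R096.St_147
open Crest.Agent.R096.Ess7_95 (KT)
open Crest.Agent.R096.Mbf_337 (sb KJ Tiny gau)
open Crest.Agent.R096.SkC1_961 (E3 FoamD)
open Crest.Agent.R096.Ce_537 (PLEquiv IsBall)

section one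

variable {δ κ0 R c0 : ℝ} {La Om : Set E3} {ι : Type} {Φ : FoamD δ κ0 R c0 La} {T : Tiling Om ι}
  {f : E3 → E3} {κ1 : ℝ} {c : Φ.F} {J0 J V : Set ι} {θ : E3 → E3} {φ : E3 → ℝ}
  {a p m : Φ.F} {Z : Set Φ.F} {N : Finset Φ.F}

/-- **a vertex near a point of the patch**, in all coordinates -/
theorem exists_vuu (hLa : IsOpen La) (hδ : 0 < δ) (hR : 0 < R) (hκ : Cn δ R * κ1 < 1)
    (H : Tiny Φ T f κ1 c J0 J V θ φ) (M : Mo (Pc Φ.F) c a Z p m) {x : ℝ × ℝ} (hx : x ∈ Rct) :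
    ∃ v ∈ frontier (KJ T J), T.dim v = 0 ∧
      ∀ e, |sb Φ (θ v) e - uu a Z p m x.1 x.2 e| ≤ (2 * Cn δ R + 1) * κ1 := by
  have FF := foam Φ.bf hLa
  have hq := M.gam_mem FF hx
  rw [show (gam (bc (F := Φ.F)) a Z p m x ∈ Pc Φ.F c ∧
    ∃ d, d ≠ c ∧ gam (bc (F := Φ.F)) a Z p m x ∈ Pc Φ.F d) ↔
    gam (bc (F := Φ.F)) a Z p m x ∈ frontier c.1.set from by
      rw [frontier_c Φ hLa c]; rfl] at hq
  obtain ⟨v, hv, hv0, hvn⟩ := tiny_vertex' hLa hδ hR hκ H hq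
  refine ⟨v, hv, hv0, fun e => ?_⟩
  have h1 := hvn e
  have h2 : sb Φ (gam (bc (F := Φ.F)) a Z p m x) e = uu a Z p m x.1 x.2 e := by
    show sc _ _ _ e = _
    rw [M.sc_gam FF hx]
  rwa [h2] at h1

theorem uu_mem0 (_ : Mo (Pc Φ.F) c a Z p m) {x : ℝ × ℝ} (hx : x ∈ Rct) (e : Φ.F) :
    0 ≤ uu a Z p m x.1 x.2 e ∧ uu a Z p m x.1 x.2 e ≤ 1 := uu_mem_Icc hx.1 hx.2 e

theorem r0 : ((1 / 2 : ℝ), (0 : ℝ)) ∈ Rct :=
  ⟨⟨by norm_num, by norm_num⟩, ⟨by norm_num, by norm_num⟩⟩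

theorem r1 : ((1 / 2 : ℝ), (1 : ℝ)) ∈ Rct :=
  ⟨⟨by norm_num, by norm_num⟩, ⟨by norm_num, by norm_num⟩⟩

/-- `Fs` at `v0` -/
theorem fs_uu0 (hLa : IsOpen La) (M : Mo (Pc Φ.F) c a Z p m) (hp : p ∈ N) (hm : m ∈ N) {q : E3}
    (hq : q ∈ frontier c.1.set) {r : ℝ} (hr : r < 1 / 2)
    (h : ∀ e, |sb Φ q e - uu a Z p m (1 / 2) 0 e| ≤ r) : Fs N a Z (sb Φ q) ≤ r := by
  have h2 := Fm_sub_le (a := a) (Z := Z) (u := sb Φ q)
    (v := uu a Z p m (1 / 2) 0) (sb_mem hLa hq) (uu_mem0 M r0) h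
  have h4 : Fm a Z (uu a Z p m (1 / 2) 0) = |(0 : ℝ)| := Fm_uu M.pa M.ma M.pm r0.1 r0.2
  rw [abs_zero] at h4
  rw [h4, sub_zero] at h2
  have h3 := (abs_le.1 h2).2
  have h5 := abs_le.1 (h a)
  rw [uu_a] at h5
  rw [fs_eq_fm hLa M hp hm hq (by linarith [h5.1]) (by linarith [h5.2]) (by linarith)]
  exact h3

/-- `Fs` at `v1` -/
theorem fs_uu1 (hLa : IsOpen La) (M : Mo (Pc Φ.F) c a Z p m)
    (hN : ∀ e, (Pc Φ.F c ∩ Pc Φ.F e).Nonempty → e ∈ N) {q : E3}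
    (hq : q ∈ frontier c.1.set) {r : ℝ}
    (h : ∀ e, |sb Φ q e - uu a Z p m (1 / 2) 1 e| ≤ r) : 1 - r ≤ Fs N a Z (sb Φ q) := by
  have h2 := Fm_sub_le (a := a) (Z := Z) (u := sb Φ q)
    (v := uu a Z p m (1 / 2) 1) (sb_mem hLa hq) (uu_mem0 M r1) h
  have h4 : Fm a Z (uu a Z p m (1 / 2) 1) = |(1 : ℝ)| := Fm_uu M.pa M.ma M.pm r1.1 r1.2
  rw [abs_one] at h4
  rw [h4] at h2
  have h3 := (abs_le.1 h2).1
  have h4 := Fm_le_Fs (a := a) (Z := Z) (N := N) (u := sb Φ q)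
    (fun e he => dv_off hLa M hq fun h => he (hN e h)) (sb_mem hLa hq)
  linarith

/-- `Gm` at `v0` -/
theorem gm_uu0 (hLa : IsOpen La) (M : Mo (Pc Φ.F) c a Z p m) {l0 mm ra : ℝ} (hl0 : 0 < l0)
    (hra : 0 < ra) {q : E3} (hq : q ∈ frontier c.1.set) {r : ℝ}
    (h : ∀ e, |sb Φ q e - uu a Z p m (1 / 2) 0 e| ≤ r) :
    Gm l0 mm ra a Z (sb Φ q) ≤ |1 / 2 - mm| / ra + max (r / l0) (r / ra) := by
  have h2 := Gm_sub_le (m := mm) hl0 hra (a := a) (Z := Z) (u := sb Φ q)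
    (v := uu a Z p m (1 / 2) 0) (sb_mem hLa hq) (uu_mem0 M r0) h
  have h4 : Gm l0 mm ra a Z (uu a Z p m (1 / 2) 0) = max (|(0 : ℝ)| / l0) (|1 / 2 - mm| / ra) :=
    Gm_uu M.pa M.ma M.pm r0.1 r0.2
  rw [abs_zero, zero_div, max_eq_right (by positivity)] at h4
  rw [h4] at h2
  have h3 := (abs_le.1 h2).2
  linarith

/-- `Gm` at `v1` -/
theorem gm_uu1 (hLa : IsOpen La) (M : Mo (Pc Φ.F) c a Z p m) {l0 mm ra : ℝ} (hl0 : 0 < l0)
    (hra : 0 < ra) {q : E3} (hq : q ∈ frontier c.1.set) {r : ℝ}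
    (h : ∀ e, |sb Φ q e - uu a Z p m (1 / 2) 1 e| ≤ r) :
    1 / l0 - max (r / l0) (r / ra) ≤ Gm l0 mm ra a Z (sb Φ q) := by
  have h2 := Gm_sub_le (m := mm) hl0 hra (a := a) (Z := Z) (u := sb Φ q)
    (v := uu a Z p m (1 / 2) 1) (sb_mem hLa hq) (uu_mem0 M r1) h
  have h4 : Gm l0 mm ra a Z (uu a Z p m (1 / 2) 1) = max (|(1 : ℝ)| / l0) (|1 / 2 - mm| / ra) :=
    Gm_uu M.pa M.ma M.pm r1.1 r1.2
  rw [abs_one] at h4
  have h5 : 1 / l0 ≤ Gm l0 mm ra a Z (uu a Z p m (1 / 2) 1) := by rw [h4]; exact le_max_left _ _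
  have h3 := (abs_le.1 h2).1
  linarith

/-- `Fs` is continuous on the frontier of the brick -/
theorem continuousOn_fs (hLa : IsOpen La) (N : Finset Φ.F) (a : Φ.F) (Z : Set Φ.F) :
    ContinuousOn (fun q => Fs N a Z (sb Φ q)) (frontier c.1.set) := by
  have FF := foam Φ.bf hLa
  have hsub : frontier c.1.set ⊆ La := by
    rw [frontier_c Φ hLa c]
    exact fun q hq => FF.sub c hq.1
  unfold Fs
  refine continuousOn_finsetSum _ fun e _ => ?_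
  have h1 : ContinuousOn (fun q => sb Φ q e) (frontier c.1.set) :=
    (Brk2_582.continuousOn_sc_apply FF e).mono hsub
  unfold dv
  split_ifs
  · exact continuousOn_const
  · exact h1
  · exact continuousOn_const.sub h1

theorem compact_fs (hLa : IsOpen La) (N : Finset Φ.F) (a : Φ.F) (Z : Set Φ.F) (t : ℝ) :
    IsCompact {q | q ∈ frontier c.1.set ∧ Fs N a Z (sb Φ q) = t} := by
  have h1 : IsCompact (frontier c.1.set) := by
    have : IsCompact c.1.set := isCompact_Icc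
    exact this.of_isClosed_subset isClosed_frontier this.isClosed.frontier_subset
  have h2 : IsClosed {q | q ∈ frontier c.1.set ∧ Fs N a Z (sb Φ q) = t} :=
    (continuousOn_fs hLa N a Z).preimage_isClosed_of_isClosed isClosed_frontier
      (isClosed_singleton (x := t))
  exact h1.of_isClosed_subset h2 fun q hq => hq.1

end one

section all

variable {δ κ0 R c0 : ℝ} {La Om : Set E3} {ι : Type} {Φ : FoamD δ κ0 R c0 La} {T : Tiling Om ι}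
  {f : E3 → E3} {κ1 : ℝ} {X : Set Φ.F} {J0 J V : Φ.F → Set ι}
  {θ : Φ.F → E3 → E3} {φ : Φ.F → E3 → ℝ}
  {Bm : Type} {co : Bm → {c : Φ.F // c ∉ X}} {am : Bm → Φ.F} {Zm : Bm → Set Φ.F}
  {pm mm : Bm → Φ.F}

/-- the finite set of the neighbours of a brick -/
noncomputable def Nb (Φ : FoamD δ κ0 R c0 La) (hLa : IsOpen La) (c : Φ.F) : Finset Φ.F :=
  (finite_nbr (Φ := Φ) hLa c).toFinset

theorem mem_Nb {hLa : IsOpen La} {c e : Φ.F} : e ∈ Nb Φ hLa c ↔ (Pc Φ.F c ∩ Pc Φ.F e).Nonempty := by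
  unfold Nb
  rw [Set.Finite.mem_toFinset]
  rfl

theorem mo_p {hLa : IsOpen La} {c a p m : Φ.F} {Z : Set Φ.F} (M : Mo (Pc Φ.F) c a Z p m) :
    p ∈ Nb Φ hLa c := by
  rw [mem_Nb]
  obtain ⟨y, hy⟩ := M.fcp
  exact ⟨y, mem_fc.1 hy c (Or.inl M.cZ), mem_fc.1 hy p (Or.inr (Or.inr rfl))⟩

theorem mo_m {hLa : IsOpen La} {c a p m : Φ.F} {Z : Set Φ.F} (M : Mo (Pc Φ.F) c a Z p m) :
    m ∈ Nb Φ hLa c := by
  rw [mem_Nb]
  obtain ⟨y, hy⟩ := M.fcm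
  exact ⟨y, mem_fc.1 hy c (Or.inl M.cZ), mem_fc.1 hy m (Or.inr (Or.inr rfl))⟩

/-- the moats of the tiny cores, `Bm` = names -/
structure MoD (Φ : FoamD δ κ0 R c0 La) {X : Set Φ.F} {Bm : Type} (co : Bm → {c : Φ.F // c ∉ X})
    (am : Bm → Φ.F) (Zm : Bm → Set Φ.F) (pm mm : Bm → Φ.F) : Prop where
  mo : ∀ b, Mo (Pc Φ.F) (co b).1 (am b) (Zm b) (pm b) (mm b)
  fin : ∀ c, {b | co b = c}.Finite

/-- the level function of the moat `b` on the sphere `c` -/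
noncomputable def uM (Φ : FoamD δ κ0 R c0 La) (hLa : IsOpen La) {X : Set Φ.F} {Bm : Type}
    (am : Bm → Φ.F) (Zm : Bm → Set Φ.F) (θ : Φ.F → E3 → E3) (c : {c : Φ.F // c ∉ X}) (b : Bm)
    (x : E3) : ℝ := Fs (Nb Φ hLa c.1) (am b) (Zm b) (sb Φ (θ c.1 x))

/-- **the exact levels of the moats**: the clause `lev` of `DIn` -/
theorem lev_mo (hLa : IsOpen La) (H : ∀ c ∉ X, Tiny Φ T f κ1 c (J0 c) (J c) (V c) (θ c) (φ c))
    (hD : MoD Φ co am Zm pm mm) {A B : ℝ} (hA : 0 ≤ A) (hAB : A < B) (hB : B ≤ 1)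
    (hFs : ∀ c a p m : Φ.F, ∀ Z, Mo (Pc Φ.F) c a Z p m → ∀ t, 0 < t → t < 1 →
      IsPreconnected {q | q ∈ frontier c.1.set ∧ Fs (Nb Φ hLa c) a Z (sb Φ q) = t} ∧
      {q | q ∈ frontier c.1.set ∧ Fs (Nb Φ hLa c) a Z (sb Φ q) = t}.Nonempty)
    (c : {c : Φ.F // c ∉ X}) (lvl : Bm → ℝ) (_ : ∀ i j : Bm, i = j → lvl i = lvl j → i = j)
    (Q : Set E3) (hQ : Q.Finite) :
    ∃ L : Bm → Lev T (frontier (KT T J X c)) Bm,
      (∀ a, (L a).u = uM Φ hLa am Zm θ c a) ∧ (∀ a j, j ∈ (L a).J0 ↔ j = a ∧ co a = c) ∧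
      (∀ a, ∀ j ∈ (L a).J0, A < (L a).lv j ∧ (L a).lv j < B) ∧
      (∀ a, ∀ j ∈ (L a).J0, ∀ w ∈ Q, (L a).u w ≠ (L a).lv j) ∧
      (∀ a, ∀ i ∈ (L a).J0, ∀ j ∈ (L a).J0, (L a).lv i < (L a).lv j ↔ lvl i < lvl j) ∧
      (∀ a b, a ≠ b → ∀ i ∈ (L a).J0, ∀ j ∈ (L b).J0, ∀ y ∈ frontier (KT T J X c), T.dim y = 1 →
        (L a).u y = (L a).lv i → (L b).u y ≠ (L b).lv j) ∧
      ∀ a, ∀ j ∈ (L a).J0,
        IsPreconnected {x | x ∈ frontier (KT T J X c) ∧ (L a).u x = (L a).lv j} ∧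
        {x | x ∈ frontier (KT T J X c) ∧ (L a).u x = (L a).lv j}.Nonempty := by
  have Hc := H c.1 c.2
  have hS : SgD T (frontier (KT T J X c)) :=
    sgd (κ := Unit) (Kc := fun _ => KT T J X c) (by simp) (fun _ => coreH_tiny Hc) ()
  obtain ⟨L, h1, h2, h3, h4, h5, h6⟩ := exists_levs hS (id : Bm → Bm) lvl (hD.fin c).toFinset
    (fun a x => uM Φ hLa am Zm θ c a x)
    (fun a F hF => fs_aff Hc (Nb Φ hLa c.1) (am a) (Zm a) F hF)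
    (fun i _ j _ h _ => h) hAB hQ
  have hmem : ∀ a j, j ∈ (L a).J0 ↔ j = a ∧ co a = c := by
    intro a j
    rw [h2 a j, Set.Finite.mem_toFinset]
    constructor
    · rintro ⟨g1, rfl⟩
      exact ⟨rfl, g1⟩
    · rintro ⟨rfl, g1⟩
      exact ⟨g1, rfl⟩
  refine ⟨L, h1, hmem, h3, h4, h5, h6, ?_⟩
  intro a j hj
  obtain ⟨rfl, g1⟩ := (hmem a j).1 hj
  obtain ⟨g4, g5⟩ := h3 j j hj
  have hM := hD.mo j
  rw [g1] at hM
  obtain ⟨g6, g7⟩ := hFs c.1 _ _ _ _ hM ((L j).lv j) (by linarith) (by linarith)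
  rw [h1 j]
  exact fs_level Hc ⟨g6, compact_fs hLa _ _ _ _, g7⟩

end all

end Crest.Agent.R096.Dib_438
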