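import Crest.Agent.R096.Lv4_471
import Crest.Agent.R096.Dfn1_416
import Crest.Agent.R096.Dib2_438
import Crest.Agent.R096.Bar4_543

/-!
# R096 (row 96), DOORS_final (helper539): position record of the barriers; (B) for the state after CUT

`BRec` : what the consumers need about the names `inl a` / `inr m` in the combined outer state
(names `JJ Φ L ⊕ Mo`), levels `u`, windows `A`, `B`, feet `v0`, `v1`.
`posB_S3` : field `posB` of `FrontM` / `FrontN`, from `CutOut`, `DIn`, `LevOut`, `TwOut`, `Mon`.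
-/

set_option autoImplicit false
set_option linter.unusedSectionVars false
set_option linter.unusedVariables false
set_option linter.style.longLine false

open Set Topology Filter Metric Module Relation
open scoped Classical

namespace Crest.Agent.R096.Dfg_539

open Crest.Agent.R096.Msh_715 Crest.Agent.R096.Coh_184 Crest.Agent.R096.Lab_184
  Crest.Agent.R096.Main_4 Crest.Agent.R096.Agl5_543
  Crest.Agent.R096.Seq_213 Crest.Agent.R096.St_147 Crest.Agent.R096.Door_501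
  Crest.Agent.R096.Twr_438 Crest.Agent.R096.Exa_560
  Crest.Agent.R096.Ess3_95 Crest.Agent.R096.Ess4_95 Crest.Agent.R096.Ac_117 Crest.Agent.R096.Lm_117
  Crest.Agent.R096.Dfi_539 Crest.Agent.R096.Dfi_471 Crest.Agent.R096.Dfo_539
  Crest.Agent.R096.Sla_184 Crest.Agent.R096.Gm_298
  Crest.Agent.R096.Brk1_582 Crest.Agent.R096.Brk2_582 Crest.Agent.R096.Brk3_582
  Crest.Agent.R096.Brk5_582 Crest.Agent.R096.Bsp_628 Crest.Agent.R096.Init_543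
  Crest.Agent.R096.Lv3_471 Crest.Agent.R096.Lv4_471 Crest.Agent.R096.Slt_471
  Crest.Agent.R096.Dib_438 Crest.Agent.R096.Rop_441 Crest.Agent.R096.Frk_441
  Crest.Agent.R096.Dff_539 Crest.Agent.R096.Frs_662
open Crest.Agent.R096.Mbf_337 (KJ Tiny Cores sb)
open Crest.Agent.R096.SkC1_961 (E3 FoamD Hom3)
open Crest.Agent.R096.Frn_337 (Ti)
open Crest.Agent.R096.Ess7_95 (KT)
open Crest.Agent.R096.Dia_316 (nbT)
open Crest.Agent.R096.Bar_106 (Fs Fm Gm)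
open Crest.Agent.R096.Bgf_4 (Ext)

variable {δ κ0 R c0 : ℝ} {La Om : Set E3} {ι : Type} {Φ : FoamD δ κ0 R c0 La} {T : Tiling Om ι}
  {f g : E3 → E3} {κ1 κ2 μ : ℝ} {X : Set Φ.F} {J0 J V : Φ.F → Set ι}
  {ct ct' : Φ.F → ι} {Aj : Φ.F → E3 ≃ᵃ[ℝ] E3} {lam : Φ.F → ℝ} {z : Φ.F → E3}
  {θ : Φ.F → E3 → E3} {φ : Φ.F → E3 → ℝ} {r₀ : Φ.F → ℝ}
  {L : Φ.F → Finset ℝ} [Nonempty (JJ Φ L)] {hG : GF Φ r₀ T f L} {bp : JJ Φ L → E3}
  {Mo : Type}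

/-- **position record of the names** of the combined outer state.
`l` = bound of the truthful patch function, `l0 mm ra` = parameters of the patch -/
structure BRec (hLa : IsOpen La) (s : GSt (meshC T fr3)
      (Sum.map (fun j : JJ Φ L => j.1) (id : Mo → Mo))) (f : E3 → E3) (X : Set Φ.F)
    (J : Φ.F → Set ι) (θ : Φ.F → E3 → E3)
    (co : Mo → Ti X) (am : Mo → Φ.F) (Zm : Mo → Set Φ.F) (nb : Ti X → Φ.F ⊕ Mo → Prop)
    (v0 v1 : ∀ c, Φ.F ⊕ Mo → VxK T (KT T J X) c) (u : Ti X → Φ.F ⊕ Mo → E3 → ℝ)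
    (A B : Ti X → Φ.F ⊕ Mo → ℝ) (μ κ l0 mm ra h W0 W1 : ℝ) : Prop where
  /-- families -/
  nbl : ∀ c a, nb c (Sum.inl a) ↔ nbT Φ X c a
  ul : ∀ c a x, u c (Sum.inl a) x = sb Φ (θ c.1 x) a
  Al : ∀ c a, A c (Sum.inl a) = 1 - μ + κ
  Bl : ∀ c a, B c (Sum.inl a) = 1 - μ / 2
  v0l : ∀ c a, nb c (Sum.inl a) → sb Φ (θ c.1 (v0 c (Sum.inl a)).1) a ≤ μ / 2
  v1l : ∀ c a, nb c (Sum.inl a) → 1 - μ / 2 ≤ sb Φ (θ c.1 (v1 c (Sum.inl a)).1) a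
  trl : ∀ w ∈ s.P, ∀ j, s.lab w = Sum.inl j →
    μ ≤ Φ.lev j.1 (f w) ∧ Φ.lev j.1 (f w) ≤ 1 - μ
  /-- moats -/
  mo : ∀ m, ∃ p q, Bar_106.Mo (Pc Φ.F) (co m).1 (am m) (Zm m) p q
  nbm : ∀ c m, nb c (Sum.inr m) ↔ co m = c
  um : ∀ c m x, u c (Sum.inr m) x = Fs (Nb Φ hLa c.1) (am m) (Zm m) (sb Φ (θ c.1 x))
  Am : ∀ c m, A c (Sum.inr m) = W0
  Bm : ∀ c m, B c (Sum.inr m) = W1
  trm : ∀ w ∈ s.P, ∀ m, s.lab w = Sum.inr m →
    (∀ e, 0 ≤ Φ.lev e (f w) ∧ Φ.lev e (f w) ≤ 1) ∧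
    Gm l0 mm ra (am m) (Zm m) (fun e => Φ.lev e (f w)) ≤ h

section posB

variable {co : Mo → Ti X} {am : Mo → Φ.F} {Zm : Mo → Set Φ.F} [Nonempty (JJ Φ L ⊕ Mo)]
  {sB : GSt (meshC T fr3) (Sum.map (fun j : JJ Φ L => j.1) (id : Mo → Mo))}
  {r : JJ Φ L ⊕ Mo → E3} {Sf : JJ Φ L ⊕ Mo → Set E3} {nb : Ti X → Φ.F ⊕ Mo → Prop}

/-- the coordinate of the family of a barrier point -/
theorem gm_lev {l0 mm ra h : ℝ} {a : Φ.F} {Z : Set Φ.F} {y : E3} (hra : 0 < ra)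
    (hG : Gm l0 mm ra a Z (fun e => Φ.lev e y) ≤ h) :
    mm - ra * h ≤ Φ.lev a y ∧ Φ.lev a y ≤ mm + ra * h := by
  have h1 : |Φ.lev a y - mm| / ra ≤ h := (le_max_right _ _).trans hG
  rw [div_le_iff₀ hra] at h1
  have h2 := abs_le.1 h1
  constructor <;> nlinarith [h2.1, h2.2]

/-- **(B)** : field `posB` for the state after CUT -/
theorem posB_S3 (hLa : IsOpen La) (hδ : 0 < δ) (hR0 : 0 < R) (hκ1 : 0 < κ1) (hμ0 : 0 < μ)
    (hμ1 : μ ≤ 1 / 2) (hC : Cores Φ T f κ1 κ2 X J0 J V ct Aj lam z θ φ)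
    (n : Ti X → ℕ) (hn : ∀ c, 0 < n c)
    {v0 v1 : ∀ c, Φ.F ⊕ Mo → VxK T (slC hLa hC n hn).K c} {u : Ti X → Φ.F ⊕ Mo → E3 → ℝ}
    {A B : Ti X → Φ.F ⊕ Mo → ℝ}
    {Lx : ∀ c, Φ.F ⊕ Mo → Lev T (frontier ((slC hLa hC n hn).K c)) (JJ Φ L ⊕ Mo)}
    {Tw : Twrs ((slC hLa hC n hn).sh fr3) (slC hLa hC n hn).n
      (outK (slC hLa hC n hn).hH (slC hLa hC n hn).dis sB r)} {l0' : E3 → JJ Φ L ⊕ Mo}
    (D : DIn (slC hLa hC n hn).hH sB r Sf nb v0 v1 u A B)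
    (lo : LevOut (Kc := (slC hLa hC n hn).K) sB nb u A B Lx)
    (tt : TwOut (slC hLa hC n hn) fr3 sB r v0 v1 Lx Tw)
    (mon : Mon (slC hLa hC n hn) fr3 Lx Tw)
    {l0 mm ra h W0 W1 : ℝ}
    (rec : BRec hLa sB f X J θ co am Zm nb v0 v1 u A B μ (Cn δ R * κ1) l0 mm ra h W0 W1)
    {s' σ₁ : ℝ} (hs' : 0 < s') (hs'1 : s' < 1 / 2)
    (n1 : (3 * Cn δ R + 1) * κ1 < μ / 2) (n2 : σ₁ + Cn δ R * κ1 ≤ μ / 2)
    (n3 : s' + (4 * Cn δ R + 1) * κ1 < σ₁) (n4 : σ₁ ≤ mm - ra * h) (n5 : mm + ra * h ≤ 1 - σ₁)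
    (n6 : (2 * Cn δ R + 1) * κ1 ≤ s')
    (hl0 : 0 < l0) (hra : 0 < ra) (hh : 0 ≤ h) (hW : l0 * h + (3 * Cn δ R + 1) * κ1 < W1)
    (hW1 : W1 ≤ 1 - (2 * Cn δ R + 1) * κ1)
    {Act : Φ.F → Set (T.RIdx (slC hLa hC n hn).HH ⊕ Ti X)}
    {s3 : GSt (mK fr3 (Lay_316.lay_sla hLa hC n hn).core (Lay_316.lay_sla hLa hC n hn).disj)
      (fun j : JJ Φ L => j.1)}
    (D3 : CutOut (s2 (slC hLa hC n hn) fr3 Tw l0') am Act s3)
    (hgi : ∀ a c, Sum.inr c ∉ Act a) :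
    PosS Φ T f s' J0 (slC hLa hC n hn) s3 := by
  have hCn := Cn_nonneg hδ hR0
  have hCκ : 0 ≤ Cn δ R * κ1 := mul_nonneg hCn hκ1.le
  intro w hw i3 hK hwp _
  have hp : Pos (S := slC hLa hC n hn) sB nb v0 v1 u A B Lx r (fun a x => Φ.lev a (f x)) am σ₁
      (Cn δ R * κ1) := by
    refine pos_tiny hLa hδ hR0 hκ1 hμ0 hμ1 n1 hC.tiny lo n2 (fun c a hn' => (rec.nbl c a).1 hn')
      rec.ul (fun c a => ?_) (fun c a => (rec.Bl c a).le) rec.v0l rec.v1l rec.trl ?_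
    · rw [rec.Al c a]; linarith
    · intro w hw m hl
      obtain ⟨h1, h2⟩ := gm_lev hra (rec.trm w hw m hl).2
      constructor <;> linarith
  have hr : ∀ c m, nb c (Sum.inr m) → ∃ ua, Reg (S := slC hLa hC n hn) sB v0 v1 Lx r c m ua
      (fun x => Φ.lev (am m) (f x)) (s' + Cn δ R * κ1) (Cn δ R * κ1) ((2 * Cn δ R + 1) * κ1) := by
    intro c m hnm
    have hco := (rec.nbm c m).1 hnm
    obtain ⟨p, q, hM⟩ := rec.mo m
    rw [hco] at hM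
    have hN : ∀ e, (Pc Φ.F c.1 ∩ Pc Φ.F e).Nonempty → e ∈ Nb Φ hLa c.1 := fun e he => mem_Nb.2 he
    have hW0 : 0 < W1 := by nlinarith [mul_nonneg hl0.le hh]
    exact ⟨_, reg_tiny hLa hδ hR0 hκ1 (by nlinarith) hC.tiny lo hM hN (rec.um c m)
      (by
        have h1 := (Bar_543.fs_ge_c hLa hM hN (t := W1) hW0 (by nlinarith)).1
        rw [rec.Bm c m]
        exact h1)
      (D.v0_lt c (Sum.inr m) hnm) (D.v1_gt c (Sum.inr m) hnm) hl0 hra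
      (by rw [rec.Bm c m]; exact hW) (by rw [rec.Bm c m]; exact hW1) (by linarith) (by linarith)
      (fun w hw hl _ => rec.trm w hw m hl) (by nlinarith) (by nlinarith)⟩
  have key := lev3 (hKK := (Lay_316.lay_sla hLa hC n hn).core) D lo tt mon hp hr hCκ
    (by positivity) le_rfl (by linarith) D3 hgi hw hwp hK
  exact key

end posB

end Crest.Agent.R096.Dfg_539
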