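import Crest.Agent.R096.Bgf6_4

/-! # Row 96, DOORS, barriers (helper4), part 7: the barrier function
`min hi (max (|gau - rm| / h) (G ∘ Psi))` -/

set_option autoImplicit false
set_option linter.unusedSectionVars false

open Set Filter Topology Metric

namespace Crest.Agent.R096.Bgf_4

open Crest.Agent.R096.Msh_715 Crest.Agent.R096.Coh_184 Crest.Agent.R096.Bsp_628
  Crest.Agent.R096.Brk1_582 Crest.Agent.R096.Brk2_582 Crest.Agent.R096.Brk3_582
  Crest.Agent.R096.Brk5_582 Crest.Agent.R096.Init_543 Crest.Agent.R096.Mbf_337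
  Crest.Agent.R96.Push_899 Crest.Agent.R096.Ess5_95
  Crest.Agent.R096.Exa_560 Crest.Agent.R096.Sphg_316

open Crest.Agent.R096.SkC1_961 (E3 Hom3 IsPush FoamD)
open Crest.Agent.R096.Vb_965 (Push pushD muD)

variable {δ κ0 R c0 : ℝ} {La Om : Set E3} {ι : Type} (Φ : FoamD δ κ0 R c0 La)

/-- **function of a moat on the frontier of the brick `c`** (106): Lipschitz, its levels between
`lo` and `hi` are connected, its sublevels have trivial torsors -/
structure GM (c : Φ.F) (G : E3 → ℝ) (lo hi : ℝ) : Prop where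
  lo0 : 0 ≤ lo
  lt : lo < hi
  lip : ∃ k : NNReal, LipschitzOnWith k G (frontier c.1.set)
  low : ∃ q ∈ frontier c.1.set, G q ≤ lo
  high : ∃ q ∈ frontier c.1.set, hi ≤ G q
  eq : ∀ t ∈ Ioo lo hi, IsPreconnected {q | q ∈ frontier c.1.set ∧ G q = t}
  triv : ∀ t ∈ Ioo lo hi, TrivF (ZMod 2) {q | q ∈ frontier c.1.set ∧ G q ≤ t}

/-- the barrier function -/
noncomputable def bl (c : Φ.F) (rm h hi : ℝ) (G : E3 → ℝ) (y : E3) : ℝ :=
  min hi (max (|ga Φ c y - rm| / h) (G (Φ.Psi y)))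

variable {Φ} {c : Φ.F} {G : E3 → ℝ} {lo hi rm h ρ : ℝ}

theorem bl_le_hi (y : E3) : bl Φ c rm h hi G y ≤ hi := min_le_left _ _

theorem bl_eq_iff {t : ℝ} (ht : t < hi) {y : E3} :
    bl Φ c rm h hi G y = t ↔ max (|ga Φ c y - rm| / h) (G (Φ.Psi y)) = t := by
  unfold bl
  constructor
  · intro h1
    rcases min_choice hi (max (|ga Φ c y - rm| / h) (G (Φ.Psi y))) with h2 | h2
    · rw [h2] at h1; exact absurd h1 ht.ne'
    · rw [← h2]; exact h1
  · intro h1
    rw [h1]; exact min_eq_right ht.le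

theorem bl_le_iff {t : ℝ} (ht : t < hi) {y : E3} :
    bl Φ c rm h hi G y ≤ t ↔ |ga Φ c y - rm| / h ≤ t ∧ G (Φ.Psi y) ≤ t := by
  unfold bl
  rw [min_le_iff, max_le_iff]
  exact ⟨fun h1 => h1.resolve_left (not_le.2 ht), Or.inr⟩

theorem bl_lt_iff {t : ℝ} (ht : t ≤ hi) {y : E3} :
    bl Φ c rm h hi G y < t ↔ |ga Φ c y - rm| / h < t ∧ G (Φ.Psi y) < t := by
  unfold bl
  rw [min_lt_iff, max_lt_iff]
  exact ⟨fun h1 => h1.resolve_left (not_lt.2 ht), Or.inr⟩

theorem le_bl_iff {t : ℝ} (ht : t ≤ hi) {y : E3} :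
    t ≤ bl Φ c rm h hi G y ↔ t ≤ |ga Φ c y - rm| / h ∨ t ≤ G (Φ.Psi y) := by
  unfold bl
  rw [le_min_iff, le_max_iff]
  exact ⟨fun h1 => h1.2, fun h1 => ⟨ht, h1⟩⟩

/-- far from the sphere of radius `rm` the function is `hi` -/
theorem bl_far (hh : 0 < h) {y : E3} (hy : h * hi ≤ |ga Φ c y - rm|) :
    bl Φ c rm h hi G y = hi := by
  unfold bl
  refine min_eq_left (le_max_of_le_left ?_)
  rw [le_div_iff₀ hh]; linarith

theorem bl_gau (hh : 0 < h) {t : ℝ} (ht : t ≤ hi) {y : E3} (hy : bl Φ c rm h hi G y < t) :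
    |ga Φ c y - rm| < h * t := by
  have h1 := ((bl_lt_iff ht).1 hy).1
  rw [div_lt_iff₀ hh] at h1
  linarith

/-- the frame of a barrier function: radii -/
structure Rad (rm h hi ρ : ℝ) : Prop where
  h0 : 0 < h
  lo : 0 < rm - h * hi
  hi_ : rm + h * hi ≤ ρ

variable {p : ℝ × E3 → E3}

/-- the set over a part of the cylinder -/
theorem Pol.image (hP : Pol Φ c ρ p) {A : Set (ℝ × E3)} (hA : A ⊆ Ioc 0 ρ ×ˢ frontier c.1.set) :
    p '' A = {y | (0 < ga Φ c y ∧ ga Φ c y ≤ ρ) ∧ (ga Φ c y, Φ.Psi y) ∈ A} := by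
  ext y
  constructor
  · rintro ⟨⟨s, q⟩, hx, rfl⟩
    have h1 := hA hx
    have h2 := hP.gau s h1.1 q h1.2
    have h3 := hP.psi s h1.1 q h1.2
    refine ⟨?_, ?_⟩
    · rw [h2]; exact h1.1
    · rw [h2, h3]; exact hx
  · rintro ⟨h1, h2⟩
    exact ⟨_, h2, (hP.inv y h1.1 h1.2).2⟩

theorem Pol.injOn (hP : Pol Φ c ρ p) {A : Set (ℝ × E3)}
    (hA : A ⊆ Ioc 0 ρ ×ˢ frontier c.1.set) : InjOn p A := by
  rintro ⟨s, q⟩ hx ⟨s', q'⟩ hx' he
  have h1 := hA hx
  have h1' := hA hx'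
  have h2 := hP.gau s h1.1 q h1.2
  have h3 := hP.psi s h1.1 q h1.2
  have h2' := hP.gau s' h1'.1 q' h1'.2
  have h3' := hP.psi s' h1'.1 q' h1'.2
  rw [he] at h2 h3
  rw [h2] at h2'
  rw [h3] at h3'
  rw [h2', h3']

theorem Pol.contOn (hP : Pol Φ c ρ p) {A : Set (ℝ × E3)}
    (hA : A ⊆ Ioc 0 ρ ×ˢ frontier c.1.set) : ContinuousOn p A :=
  hP.cont.mono fun _ hx => ⟨mem_univ _, (hA hx).2⟩

variable (hP : Pol Φ c ρ p) (hG : GM Φ c G lo hi) (hr : Rad rm h hi ρ)

theorem GM.cont {c : Φ.F} {G : E3 → ℝ} {lo hi : ℝ} (hG : GM Φ c G lo hi) :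
    ContinuousOn G (frontier c.1.set) := by
  obtain ⟨k, hk⟩ := hG.lip
  exact hk.continuousOn

include hP hG

theorem GM.le_conn {t : ℝ} (ht : t ∈ Ioo lo hi) :
    IsPreconnected {q | q ∈ frontier c.1.set ∧ G q ≤ t} :=
  preconn_le_of_eq isClosed_frontier hP.frp hG.cont (hG.eq t ht)

theorem GM.ge_conn {t : ℝ} (ht : t ∈ Ioo lo hi) :
    IsPreconnected {q | q ∈ frontier c.1.set ∧ t ≤ G q} :=
  preconn_ge_of_eq isClosed_frontier hP.frp hG.cont (hG.eq t ht)

theorem GM.eq_ne {t : ℝ} (ht : t ∈ Ioo lo hi) :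
    {q | q ∈ frontier c.1.set ∧ G q = t}.Nonempty := by
  obtain ⟨q0, h1, h2⟩ := hG.low
  obtain ⟨q1, h3, h4⟩ := hG.high
  obtain ⟨q, hq, he⟩ := hP.frp.intermediate_value h1 h3 hG.cont
    (show t ∈ Icc (G q0) (G q1) from ⟨h2.trans ht.1.le, ht.2.le.trans h4⟩)
  exact ⟨q, hq, he⟩

theorem GM.le_cpt (t : ℝ) : IsCompact {q | q ∈ frontier c.1.set ∧ G q ≤ t} :=
  hP.frc.of_isClosed_subset
    (hG.cont.preimage_isClosed_of_isClosed isClosed_frontier isClosed_Iic) fun _ hq => hq.1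

theorem GM.eq_cl (t : ℝ) : IsClosed {q | q ∈ frontier c.1.set ∧ G q = t} :=
  hG.cont.preimage_isClosed_of_isClosed isClosed_frontier isClosed_singleton

include hr

theorem Rad.mem {t s : ℝ} (ht : t ∈ Ioo lo hi) (hs : s ∈ Icc (rm - h * t) (rm + h * t)) :
    s ∈ Ioc 0 ρ := by
  have h1 : h * t < h * hi := mul_lt_mul_of_pos_left ht.2 hr.h0
  have h2 := hr.lo
  have h3 := hr.hi_
  exact ⟨by linarith [hs.1], by linarith [hs.2]⟩

/-- **the barrier is the boundary of a cylinder** -/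
theorem bl_image {t : ℝ} (ht : t ∈ Ioo lo hi) : {y | bl Φ c rm h hi G y = t} =
    p '' cyl {q | q ∈ frontier c.1.set ∧ G q ≤ t} {q | q ∈ frontier c.1.set ∧ G q = t}
      (rm - h * t) (rm + h * t) := by
  have hh := hr.h0
  rw [hP.image fun x hx => ⟨Rad.mem hP hG hr ht hx.2.1, hx.1.1⟩]
  ext y
  show bl Φ c rm h hi G y = t ↔ _
  rw [bl_eq_iff ht.2]
  constructor
  · intro h1
    have h2 : |ga Φ c y - rm| / h ≤ t := by rw [← h1]; exact le_max_left _ _
    have h3 : G (Φ.Psi y) ≤ t := by rw [← h1]; exact le_max_right _ _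
    rw [div_le_iff₀ hh, abs_le] at h2
    have h4 : ga Φ c y ∈ Icc (rm - h * t) (rm + h * t) :=
      ⟨by nlinarith [h2.1], by nlinarith [h2.2]⟩
    have h5 := Rad.mem hP hG hr ht h4
    have h6 := (hP.inv y h5.1 h5.2).1
    refine ⟨h5, ⟨h6, h3⟩, h4, ?_⟩
    rcases max_choice (|ga Φ c y - rm| / h) (G (Φ.Psi y)) with h7 | h7
    · rw [h7, div_eq_iff hh.ne'] at h1
      rcases abs_choice (ga Φ c y - rm) with h8 | h8
      · right; left
        show ga Φ c y = rm + h * t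
        rw [h8] at h1; linarith
      · left
        show ga Φ c y = rm - h * t
        rw [h8] at h1; linarith
    · right; right
      rw [h7] at h1
      exact ⟨h6, h1⟩
  · rintro ⟨h5, ⟨h6, h3⟩, h4, h7⟩
    have h3' : G (Φ.Psi y) ≤ t := h3
    have h4' : ga Φ c y ∈ Icc (rm - h * t) (rm + h * t) := h4
    have ht0 : 0 ≤ h * t := mul_nonneg hh.le (hG.lo0.trans ht.1.le)
    have h8 : |ga Φ c y - rm| / h ≤ t := by
      rw [div_le_iff₀ hh, abs_le]
      exact ⟨by linarith [h4'.1], by linarith [h4'.2]⟩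
    apply le_antisymm (max_le h8 h3')
    rcases h7 with h7 | h7 | h7
    · have h7' : ga Φ c y = rm - h * t := h7
      refine le_max_of_le_left ?_
      rw [h7', le_div_iff₀ hh, show rm - h * t - rm = -(h * t) by ring, abs_neg, abs_of_nonneg ht0]
      linarith
    · have h7' : ga Φ c y = rm + h * t := h7
      refine le_max_of_le_left ?_
      rw [h7', le_div_iff₀ hh, show rm + h * t - rm = h * t by ring, abs_of_nonneg ht0]
      linarith
    · exact le_max_of_le_right (h7.2).ge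

theorem bl_cyl_sub {t : ℝ} (ht : t ∈ Ioo lo hi) :
    cyl {q | q ∈ frontier c.1.set ∧ G q ≤ t} {q | q ∈ frontier c.1.set ∧ G q = t}
      (rm - h * t) (rm + h * t) ⊆ Ioc 0 ρ ×ˢ frontier c.1.set :=
  fun _ hx => ⟨Rad.mem hP hG hr ht hx.2.1, hx.1.1⟩

theorem bl_lip (hLa : IsOpen La) (hpt : (Φ.B c).lo = (Φ.B c).hi) (hρ : ρ < 1) :
    ∃ k, LipschitzWith k (bl Φ c rm h hi G) := by
  have hh := hr.h0
  have hb : Bod (Φ.B c).lo (Pc Φ.F c) := Pse_316.bod_brick Φ c hpt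
  have hgf : ga Φ c = Ng (Φ.B c).lo (Pc Φ.F c) := funext (Etg_163.gg_eq Φ c)
  obtain ⟨K, hK, hKl⟩ := Psi_lip (Φ := Φ) hLa hpt hr.lo
  obtain ⟨k, hk⟩ := hG.lip
  obtain ⟨L, hL⟩ := hP.lip
  have hLd : ∀ y y', |ga Φ c y - ga Φ c y'| ≤ L * ‖y - y'‖ := fun y y' => by
    have := hL.dist_le_mul y y'
    rwa [Real.dist_eq, dist_eq_norm] at this
  have hkd : ∀ q ∈ frontier c.1.set, ∀ q' ∈ frontier c.1.set, |G q - G q'| ≤ k * ‖q - q'‖ :=
    fun q hq q' hq' => by
      have := hk.dist_le_mul q hq q' hq'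
      rwa [Real.dist_eq, dist_eq_norm] at this
  -- on the shell
  set M : ℝ := max (L / h) (k * K) with hM
  have hM0 : 0 ≤ M := le_max_of_le_left (by positivity)
  have hin : ∀ y y', |ga Φ c y - rm| ≤ h * hi → |ga Φ c y' - rm| ≤ h * hi →
      |bl Φ c rm h hi G y - bl Φ c rm h hi G y'| ≤ M * ‖y - y'‖ := by
    intro y y' hy hy'
    rw [abs_le] at hy hy'
    have e1 : 0 < ga Φ c y := by linarith [hr.lo, hy.1]
    have e2 : ga Φ c y ≤ ρ := by linarith [hr.hi_, hy.2]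
    have e1' : 0 < ga Φ c y' := by linarith [hr.lo, hy'.1]
    have e2' : ga Φ c y' ≤ ρ := by linarith [hr.hi_, hy'.2]
    have q1 := (hP.inv y e1 e2).1
    have q1' := (hP.inv y' e1' e2').1
    have m1 : y ∈ c.1.set := hb.le_one_iff.1 (by rw [← hgf]; linarith)
    have m1' : y' ∈ c.1.set := hb.le_one_iff.1 (by rw [← hgf]; linarith)
    have a1 := hKl y' m1' y m1 (by show _ ≤ ga Φ c y'; linarith) (by show _ ≤ ga Φ c y; linarith)
    have a2 := hkd _ q1 _ q1'
    have a3 : |G (Φ.Psi y) - G (Φ.Psi y')| ≤ M * ‖y - y'‖ := by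
      refine a2.trans ?_
      calc (k:ℝ) * ‖Φ.Psi y - Φ.Psi y'‖ ≤ k * (K * ‖y - y'‖) :=
            mul_le_mul_of_nonneg_left a1 k.2
        _ = (k * K) * ‖y - y'‖ := by ring
        _ ≤ M * ‖y - y'‖ := mul_le_mul_of_nonneg_right (le_max_right _ _) (norm_nonneg _)
    have a4 : |(|ga Φ c y - rm| / h) - (|ga Φ c y' - rm| / h)| ≤ M * ‖y - y'‖ := by
      rw [← sub_div, abs_div, abs_of_pos hh, div_le_iff₀ hh]
      have b1 : |(|ga Φ c y - rm|) - (|ga Φ c y' - rm|)| ≤ |ga Φ c y - ga Φ c y'| := by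
        have := abs_abs_sub_abs_le (ga Φ c y - rm) (ga Φ c y' - rm)
        rwa [show ga Φ c y - rm - (ga Φ c y' - rm) = ga Φ c y - ga Φ c y' by ring] at this
      refine b1.trans ((hLd y y').trans ?_)
      have b2 : (L:ℝ) / h ≤ M := le_max_left _ _
      rw [div_le_iff₀ hh] at b2
      nlinarith [norm_nonneg (y - y')]
    unfold bl
    refine (abs_min_sub_min_le_max _ _ _ _).trans ?_
    rw [sub_self, abs_zero]
    refine max_le (mul_nonneg hM0 (norm_nonneg _)) ?_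
    exact (abs_max_sub_max_le_max _ _ _ _).trans (max_le a4 a3)
  -- mixed
  have hcon : Continuous (ga Φ c) := hL.continuous
  have hmix : ∀ y y', |ga Φ c y - rm| ≤ h * hi → h * hi < |ga Φ c y' - rm| →
      |bl Φ c rm h hi G y - bl Φ c rm h hi G y'| ≤ M * ‖y - y'‖ := by
    intro y y' hy hy'
    have hcont : ContinuousOn (fun s : ℝ => |ga Φ c (y + s • (y' - y)) - rm|) (Icc 0 1) := by
      refine Continuous.continuousOn ?_
      exact ((hcon.comp (by fun_prop)).sub continuous_const).abs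
    obtain ⟨s, hs, hst⟩ := intermediate_value_Icc (zero_le_one) hcont
      (show h * hi ∈ Icc _ _ from ⟨by simpa using hy, by simpa using hy'.le⟩)
    have hst' : |ga Φ c (y + s • (y' - y)) - rm| = h * hi := hst
    set w := y + s • (y' - y) with hw
    have e1 : bl Φ c rm h hi G w = hi := bl_far hh hst'.ge
    have e2 : bl Φ c rm h hi G y' = hi := bl_far hh hy'.le
    have a1 := hin y w hy hst'.le
    rw [e2.trans e1.symm]
    refine a1.trans (mul_le_mul_of_nonneg_left ?_ hM0)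
    have : y - w = s • (y - y') := by rw [hw, ← sub_sub, sub_self, zero_sub, ← smul_neg]; congr 1; abel
    rw [this, norm_smul, Real.norm_eq_abs, abs_of_nonneg hs.1]
    nlinarith [norm_nonneg (y - y'), hs.2]
  refine ⟨Real.toNNReal M, LipschitzWith.of_dist_le_mul fun y y' => ?_⟩
  rw [Real.coe_toNNReal _ hM0, Real.dist_eq, dist_eq_norm]
  rcases le_or_gt (|ga Φ c y - rm|) (h * hi) with h1 | h1
  · rcases le_or_gt (|ga Φ c y' - rm|) (h * hi) with h2 | h2
    · exact hin y y' h1 h2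
    · exact hmix y y' h1 h2
  · rcases le_or_gt (|ga Φ c y' - rm|) (h * hi) with h2 | h2
    · have := hmix y' y h2 h1
      rwa [abs_sub_comm, norm_sub_rev] at this
    · rw [bl_far hh h1.le, bl_far hh h2.le, sub_self, abs_zero]
      exact mul_nonneg hM0 (norm_nonneg _)

/-- **the barrier function is a barrier function** -/
theorem bfun_bl (hLa : IsOpen La) (hpt : (Φ.B c).lo = (Φ.B c).hi) (hρ : ρ < 1) :
    BFun Φ c ρ (bl Φ c rm h hi G) lo hi where
  lt := hG.lt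
  lip := bl_lip hP hG hr hLa hpt hρ
  cpt := fun t ht => by
    have hh := hr.h0
    have ht0 : 0 < h * t := mul_pos hh (hG.lo0.trans_lt ht.1)
    rw [bl_image hP hG hr ht]
    exact (cyl_cpt (hG.le_cpt hP t) (hG.eq_cl hP t) (by linarith)).image_of_continuousOn
      (hP.contOn (bl_cyl_sub hP hG hr ht))
  conn := fun t ht => by
    have hh := hr.h0
    have ht0 : 0 < h * t := mul_pos hh (hG.lo0.trans_lt ht.1)
    rw [bl_image hP hG hr ht]
    exact (cyl_pre (hG.le_cpt hP t) (hG.eq_cl hP t) (fun q hq => ⟨hq.1, hq.2.le⟩)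
      (hG.le_conn hP ht) (hG.eq_ne hP ht) (by linarith)).image _
      (hP.contOn (bl_cyl_sub hP hG hr ht))
  triv := fun t ht => by
    have hh := hr.h0
    have ht0 : 0 < h * t := mul_pos hh (hG.lo0.trans_lt ht.1)
    rw [bl_image hP hG hr ht]
    have hc := cyl_cpt (hG.le_cpt hP t) (hG.eq_cl hP t) (show rm - h * t < rm + h * t by linarith)
    exact (cyl_triv (hG.le_cpt hP t) (hG.eq_cl hP t) (fun q hq => ⟨hq.1, hq.2.le⟩)
      (hG.eq t ht) (hG.triv t ht) (by linarith)).of_image hc hc.isClosed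
      (hP.contOn (bl_cyl_sub hP hG hr ht)) (hP.injOn (bl_cyl_sub hP hG hr ht))
  sub := fun y hy => by
    have h1 := bl_gau hr.h0 le_rfl hy
    rw [abs_lt] at h1
    have h2 := hr.hi_
    show ga Φ c y ≤ ρ
    linarith [h1.2]

end Crest.Agent.R096.Bgf_4
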