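import Crest.Agent.R096.Etg2_163

/-!
# Row 96, DOORS, barriers (helper106), part 1: the patches on the boundary of a cell

A moat at the cell `c` is a pair `(Z, a)`, `c ∈ Z`, `a ∉ Z`, with axis `[b Z, b (Z ∪ a)]`.
`dv` = deviation from the axis, `Fm` = sup, `Fs` = sum, `Gm` = patch function.
`Mo P c a Z p m` : `p`, `m` = the two sides of the axis.  `gam (t, w)` = parametrisation of the patch.
-/

set_option autoImplicit false
set_option linter.unusedSectionVars false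

open Set Topology Filter

namespace Crest.Agent.R096.Bar_106

open Crest.Agent.R096.Brk1_582 Crest.Agent.R096.Brk2_582 Crest.Agent.R096.Etg_163

variable {E : Type*} [NormedAddCommGroup E] [NormedSpace ℝ E] {I : Type*}

open Classical in
/-- deviation from the axis of the moat `(Z, a)` -/
noncomputable def dv (a : I) (Z : Set I) (u : I → ℝ) (e : I) : ℝ :=
  if e = a then 0 else if e ∈ Z then u e else 1 - u e

/-- maximal deviation -/
noncomputable def Fm (a : I) (Z : Set I) (u : I → ℝ) : ℝ := ⨆ e, dv a Z u e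

/-- sum of the deviations -/
noncomputable def Fs (N : Finset I) (a : I) (Z : Set I) (u : I → ℝ) : ℝ := ∑ e ∈ N, dv a Z u e

/-- the patch function -/
noncomputable def Gm (l0 m ra : ℝ) (a : I) (Z : Set I) (u : I → ℝ) : ℝ :=
  max (Fm a Z u / l0) (|u a - m| / ra)

open Classical in
/-- coordinates of the point `(t, w)` of the patch -/
noncomputable def uu (a : I) (Z : Set I) (p m : I) (t w : ℝ) (e : I) : ℝ :=
  if e = a then t else
    if e ∈ Z then (if e = p then max w 0 else if e = m then max (-w) 0 else 0)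
    else 1 - (if e = p then max w 0 else if e = m then max (-w) 0 else 0)

section basic

variable {a : I} {Z : Set I} {u v : I → ℝ}

theorem dv_self : dv a Z u a = 0 := by unfold dv; rw [if_pos rfl]

theorem dv_in {e : I} (h : e ≠ a) (hZ : e ∈ Z) : dv a Z u e = u e := by
  unfold dv; rw [if_neg h, if_pos hZ]

theorem dv_out {e : I} (h : e ≠ a) (hZ : e ∉ Z) : dv a Z u e = 1 - u e := by
  unfold dv; rw [if_neg h, if_neg hZ]

theorem dv_mem (h : ∀ e, 0 ≤ u e ∧ u e ≤ 1) (e : I) : 0 ≤ dv a Z u e ∧ dv a Z u e ≤ 1 := by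
  unfold dv
  split_ifs
  · exact ⟨le_rfl, zero_le_one⟩
  · exact h e
  · exact ⟨by linarith [(h e).2], by linarith [(h e).1]⟩

theorem dv_bdd (h : ∀ e, 0 ≤ u e ∧ u e ≤ 1) : BddAbove (range (dv a Z u)) :=
  ⟨1, by rintro _ ⟨e, rfl⟩; exact (dv_mem h e).2⟩

theorem dv_le_Fm (h : ∀ e, 0 ≤ u e ∧ u e ≤ 1) (e : I) : dv a Z u e ≤ Fm a Z u :=
  le_ciSup (dv_bdd h) e

theorem Fm_le {s : ℝ} (h : ∀ e, dv a Z u e ≤ s) : Fm a Z u ≤ s := by
  have : Nonempty I := ⟨a⟩
  exact ciSup_le h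

theorem Fm_nonneg (h : ∀ e, 0 ≤ u e ∧ u e ≤ 1) : 0 ≤ Fm a Z u := by
  have := dv_le_Fm (a := a) (Z := Z) h a
  rwa [dv_self] at this

theorem abs_dv_sub (e : I) : |dv a Z u e - dv a Z v e| ≤ |u e - v e| := by
  unfold dv
  split_ifs
  · simp
  · exact le_rfl
  · rw [show (1 - u e) - (1 - v e) = -(u e - v e) by ring, abs_neg]

/-- `Fm` is 1-Lipschitz for the sup norm -/
theorem Fm_sub_le (hu : ∀ e, 0 ≤ u e ∧ u e ≤ 1) (hv : ∀ e, 0 ≤ v e ∧ v e ≤ 1) {r : ℝ}
    (h : ∀ e, |u e - v e| ≤ r) : |Fm a Z u - Fm a Z v| ≤ r := by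
  have key : ∀ {u v : I → ℝ}, (∀ e, 0 ≤ u e ∧ u e ≤ 1) → (∀ e, 0 ≤ v e ∧ v e ≤ 1) →
      (∀ e, |u e - v e| ≤ r) → Fm a Z u ≤ Fm a Z v + r := by
    intro u v hu hv h
    refine Fm_le fun e => ?_
    have h1 := abs_le.1 ((abs_dv_sub (a := a) (Z := Z) (u := u) (v := v) e).trans (h e))
    have h2 := dv_le_Fm (a := a) (Z := Z) hv e
    linarith [h1.2]
  have h1 := key hu hv h
  have h2 := key hv hu (fun e => by rw [abs_sub_comm]; exact h e)
  rw [abs_le]
  constructor <;> linarith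

/-- `Gm` is Lipschitz for the sup norm -/
theorem Gm_sub_le {l0 m ra : ℝ} (hl : 0 < l0) (hra : 0 < ra) (hu : ∀ e, 0 ≤ u e ∧ u e ≤ 1)
    (hv : ∀ e, 0 ≤ v e ∧ v e ≤ 1) {r : ℝ} (h : ∀ e, |u e - v e| ≤ r) :
    |Gm l0 m ra a Z u - Gm l0 m ra a Z v| ≤ max (r / l0) (r / ra) := by
  unfold Gm
  refine (abs_max_sub_max_le_max _ _ _ _).trans (max_le_max ?_ ?_)
  · rw [← sub_div, abs_div, abs_of_pos hl]
    exact div_le_div_of_nonneg_right (Fm_sub_le hu hv h) hl.le
  · rw [← sub_div, abs_div, abs_of_pos hra]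
    refine div_le_div_of_nonneg_right ?_ hra.le
    refine (abs_abs_sub_abs_le _ _).trans ?_
    rw [show u a - m - (v a - m) = u a - v a by ring]
    exact h a

theorem Fm_le_Fs {N : Finset I} (hN : ∀ e, e ∉ N → dv a Z u e = 0)
    (hu : ∀ e, 0 ≤ u e ∧ u e ≤ 1) : Fm a Z u ≤ Fs N a Z u := by
  refine Fm_le fun e => ?_
  by_cases he : e ∈ N
  · exact Finset.single_le_sum (f := fun e => dv a Z u e) (fun e _ => (dv_mem hu e).1) he
  · rw [hN e he]
    exact Finset.sum_nonneg fun e _ => (dv_mem hu e).1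

end basic

/-- **a moat of the cell `c`** : axis `[b Z, b (Z ∪ a)]`, sides `p`, `m` -/
structure Mo (P : I → Set E) (c a : I) (Z : Set I) (p m : I) : Prop where
  cZ : c ∈ Z
  aZ : a ∉ Z
  pm : p ≠ m
  pa : p ≠ a
  ma : m ≠ a
  pc : p ≠ c
  mc : m ≠ c
  fcp : (fc P {e | e ∈ Z ∨ e = a ∨ e = p}).Nonempty
  fcm : (fc P {e | e ∈ Z ∨ e = a ∨ e = m}).Nonempty
  wp : ∃ d ∈ Z, d ≠ c ∧ d ≠ p
  wm : ∃ d ∈ Z, d ≠ c ∧ d ≠ m
  sur : ∀ u ∈ K P, u c = 0 → (∃ d, d ≠ c ∧ u d = 0) → 0 < u a → u a < 1 →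
    (∀ e, dv a Z u e < 1) → u = uu a Z p m (u a) (dv a Z u p - dv a Z u m)

section uu

variable {c a p m : I} {Z : Set I} {t w : ℝ}

theorem uu_a : uu a Z p m t w a = t := by unfold uu; rw [if_pos rfl]

open Classical in
theorem dv_uu (e : I) : dv a Z (uu a Z p m t w) e =
    if e = a then 0 else if e = p then max w 0 else if e = m then max (-w) 0 else 0 := by
  unfold dv uu
  by_cases h : e = a
  · simp only [if_pos h]
  · by_cases hZ : e ∈ Z
    · simp only [if_neg h, if_pos hZ]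
    · simp only [if_neg h, if_neg hZ]; ring

theorem max_sub_max (w : ℝ) : max w 0 - max (-w) 0 = w := by
  rcases le_total 0 w with h | h
  · rw [max_eq_left h, max_eq_right (by linarith)]; ring
  · rw [max_eq_right h, max_eq_left (by linarith)]; ring

theorem uu_mem_Icc (ht : t ∈ Icc (0 : ℝ) 1) (hw : w ∈ Icc (-1 : ℝ) 1) (e : I) :
    0 ≤ uu a Z p m t w e ∧ uu a Z p m t w e ≤ 1 := by
  have h1 : (0 : ℝ) ≤ max w 0 ∧ max w 0 ≤ 1 := ⟨le_max_right _ _, max_le hw.2 zero_le_one⟩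
  have h2 : (0 : ℝ) ≤ max (-w) 0 ∧ max (-w) 0 ≤ 1 :=
    ⟨le_max_right _ _, max_le (by linarith [hw.1]) zero_le_one⟩
  unfold uu
  split_ifs
  · exact ht
  · exact h1
  · exact h2
  · exact ⟨le_rfl, zero_le_one⟩
  · exact ⟨by linarith [h1.2], by linarith [h1.1]⟩
  · exact ⟨by linarith [h2.2], by linarith [h2.1]⟩
  · norm_num

theorem Fm_uu (hpa : p ≠ a) (hma : m ≠ a) (hpm : p ≠ m) (ht : t ∈ Icc (0 : ℝ) 1)
    (hw : w ∈ Icc (-1 : ℝ) 1) : Fm a Z (uu a Z p m t w) = |w| := by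
  classical
  apply le_antisymm
  · refine Fm_le fun e => ?_
    rw [dv_uu]
    split_ifs
    · exact abs_nonneg _
    · exact max_le (le_abs_self _) (abs_nonneg _)
    · exact max_le (neg_le_abs _) (abs_nonneg _)
    · exact abs_nonneg _
  · have hI := uu_mem_Icc (a := a) (Z := Z) (p := p) (m := m) ht hw
    rcases le_total 0 w with h | h
    · have := dv_le_Fm (a := a) (Z := Z) hI p
      rw [dv_uu, if_neg hpa, if_pos rfl, max_eq_left h] at this
      rwa [abs_of_nonneg h]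
    · have := dv_le_Fm (a := a) (Z := Z) hI m
      rw [dv_uu, if_neg hma, if_neg hpm.symm, if_pos rfl, max_eq_left (by linarith)] at this
      rwa [abs_of_nonpos h]

theorem Gm_uu {l0 mm ra : ℝ} (hpa : p ≠ a) (hma : m ≠ a) (hpm : p ≠ m) (ht : t ∈ Icc (0 : ℝ) 1)
    (hw : w ∈ Icc (-1 : ℝ) 1) :
    Gm l0 mm ra a Z (uu a Z p m t w) = max (|w| / l0) (|t - mm| / ra) := by
  unfold Gm
  rw [Fm_uu hpa hma hpm ht hw, uu_a]

theorem Fs_uu {N : Finset I} (hpa : p ≠ a) (hma : m ≠ a) (hpm : p ≠ m) (hp : p ∈ N) (hm : m ∈ N) :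
    Fs N a Z (uu a Z p m t w) = |w| := by
  classical
  unfold Fs
  have h1 : ∀ e ∈ N, dv a Z (uu a Z p m t w) e =
      (if e = p then max w 0 else 0) + (if e = m then max (-w) 0 else 0) := by
    intro e _
    rw [dv_uu]
    by_cases h1 : e = a
    · rw [if_pos h1, if_neg (by rw [h1]; exact hpa.symm), if_neg (by rw [h1]; exact hma.symm)]
      simp
    · rw [if_neg h1]
      by_cases h2 : e = p
      · rw [if_pos h2, if_pos h2, if_neg (by rw [h2]; exact hpm)]; simp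
      · rw [if_neg h2, if_neg h2]; simp
  rw [Finset.sum_congr rfl h1, Finset.sum_add_distrib, Finset.sum_ite_eq' N p,
    Finset.sum_ite_eq' N m, if_pos hp, if_pos hm]
  rcases le_total 0 w with h | h
  · rw [max_eq_left h, max_eq_right (by linarith), abs_of_nonneg h, add_zero]
  · rw [max_eq_right h, max_eq_left (by linarith), abs_of_nonpos h, zero_add]

end uu

/-! ### the patch -/

section patch

variable {La : Set E} {P : I → Set E} {b : Set I → E} {N : ℕ} {c a p m : I} {Z : Set I}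
  {t w : ℝ}

theorem Mo.uu_mem (h : Mo P c a Z p m) (ht : t ∈ Icc (0 : ℝ) 1) (hw : w ∈ Icc (-1 : ℝ) 1) :
    uu a Z p m t w ∈ K P := by
  classical
  have hca : c ≠ a := fun h' => h.aZ (h' ▸ h.cZ)
  refine ⟨uu_mem_Icc ht hw, ⟨c, ?_⟩, ?_⟩
  · unfold uu
    rw [if_neg hca, if_pos h.cZ, if_neg h.pc.symm, if_neg h.mc.symm]
  · rcases le_total 0 w with h0 | h0
    · refine h.fcp.mono (fc_anti ?_)
      intro e he
      by_contra hcon
      simp only [mem_setOf_eq, not_or] at hcon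
      obtain ⟨h1, h2, h3⟩ := hcon
      have he' : uu a Z p m t w e < 1 := he
      unfold uu at he'
      rw [if_neg h2, if_neg h1, if_neg h3, max_eq_right (by linarith), ite_self, sub_zero] at he'
      exact lt_irrefl _ he'
    · refine h.fcm.mono (fc_anti ?_)
      intro e he
      by_contra hcon
      simp only [mem_setOf_eq, not_or] at hcon
      obtain ⟨h1, h2, h3⟩ := hcon
      have he' : uu a Z p m t w e < 1 := he
      unfold uu at he'
      rw [if_neg h2, if_neg h1, if_neg h3, max_eq_right h0, ite_self, sub_zero] at he'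
      exact lt_irrefl _ he'

theorem Mo.uu_c (h : Mo P c a Z p m) : uu a Z p m t w c = 0 := by
  have hca : c ≠ a := fun h' => h.aZ (h' ▸ h.cZ)
  unfold uu
  rw [if_neg hca, if_pos h.cZ, if_neg h.pc.symm, if_neg h.mc.symm]

theorem Mo.uu_wall (h : Mo P c a Z p m) : ∃ d, d ≠ c ∧ uu a Z p m t w d = 0 := by
  rcases le_total 0 w with h0 | h0
  · obtain ⟨d, hd, hdc, hdm⟩ := h.wp
    refine ⟨d, hdc, ?_⟩
    have hda : d ≠ a := fun h' => h.aZ (h' ▸ hd)
    unfold uu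
    rw [if_neg hda, if_pos hd, if_neg hdm, max_eq_right (by linarith), ite_self]
  · obtain ⟨d, hd, hdc, hdm⟩ := h.wm
    refine ⟨d, hdc, ?_⟩
    have hda : d ≠ a := fun h' => h.aZ (h' ▸ hd)
    unfold uu
    rw [if_neg hda, if_pos hd, max_eq_right h0, if_neg hdm, ite_self]

/-- the parametrisation of the patch -/
noncomputable def gam (b : Set I → E) (a : I) (Z : Set I) (p m : I) (x : ℝ × ℝ) : E :=
  T b (uu a Z p m x.1 x.2)

/-- the domain of the parametrisation -/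
def Rct : Set (ℝ × ℝ) := Icc (0 : ℝ) 1 ×ˢ Icc (-1 : ℝ) 1

variable [CompleteSpace E] (F : Foam La P b N)
include F

theorem Mo.sc_gam (h : Mo P c a Z p m) {x : ℝ × ℝ} (hx : x ∈ Rct) :
    sc P b (gam b a Z p m x) = uu a Z p m x.1 x.2 := F.sc_T (h.uu_mem hx.1 hx.2)

theorem Mo.gam_mem (h : Mo P c a Z p m) {x : ℝ × ℝ} (hx : x ∈ Rct) :
    gam b a Z p m x ∈ P c ∧ ∃ d, d ≠ c ∧ gam b a Z p m x ∈ P d := by
  have h1 := F.act_T (h.uu_mem hx.1 hx.2)
  refine ⟨?_, ?_⟩
  · have h2 : c ∈ act P (T b (uu a Z p m x.1 x.2)) := by rw [h1]; exact h.uu_c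
    exact h2
  · obtain ⟨d, hdc, hd⟩ := h.uu_wall (t := x.1) (w := x.2)
    refine ⟨d, hdc, ?_⟩
    have h2 : d ∈ act P (T b (uu a Z p m x.1 x.2)) := by rw [h1]; exact hd
    exact h2

theorem Mo.gam_injOn (h : Mo P c a Z p m) : InjOn (gam b a Z p m) Rct := by
  classical
  intro x hx y hy hxy
  have h1 := h.sc_gam F hx
  rw [hxy, h.sc_gam F hy] at h1
  have h2 : x.1 = y.1 := by
    have := congrFun h1 a
    rw [uu_a, uu_a] at this
    exact this.symm
  have h3 : x.2 = y.2 := by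
    have e1 := dv_uu (a := a) (Z := Z) (p := p) (m := m) (t := x.1) (w := x.2)
    have e2 := dv_uu (a := a) (Z := Z) (p := p) (m := m) (t := y.1) (w := y.2)
    rw [← max_sub_max x.2, ← max_sub_max y.2]
    have a1 := e1 p
    have a2 := e2 p
    have a3 := e1 m
    have a4 := e2 m
    rw [h1] at a2 a4
    rw [if_neg h.pa, if_pos rfl] at a1 a2
    rw [if_neg h.ma, if_neg h.pm.symm, if_pos rfl] at a3 a4
    rw [← a1, ← a2, ← a3, ← a4]
  exact Prod.ext h2 h3

theorem continuous_uu : Continuous fun x : ℝ × ℝ => uu a Z p m x.1 x.2 := by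
  classical
  refine continuous_pi fun e => ?_
  unfold uu
  split_ifs <;> fun_prop

theorem Mo.continuousOn_gam (h : Mo P c a Z p m) : ContinuousOn (gam b a Z p m) Rct :=
  (continuousOn_T F).comp (continuous_uu (a := a) (Z := Z) (p := p) (m := m)
    F).continuousOn fun _ hx => h.uu_mem hx.1 hx.2

/-- **the patch is the image of the rectangle** -/
theorem Mo.eq_gam (h : Mo P c a Z p m) {q : E} (hq : q ∈ P c) (hq' : ∃ d, d ≠ c ∧ q ∈ P d)
    (h0 : 0 < sc P b q a) (h1 : sc P b q a < 1) (hF : Fm a Z (sc P b q) < 1) :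
    (sc P b q a, dv a Z (sc P b q) p - dv a Z (sc P b q) m) ∈ Rct ∧
      q = gam b a Z p m (sc P b q a, dv a Z (sc P b q) p - dv a Z (sc P b q) m) := by
  have hqL := F.sub c hq
  have hK := F.sc_mem_K hqL
  have hlt : ∀ e, dv a Z (sc P b q) e < 1 := fun e => (dv_le_Fm hK.1 e).trans_lt hF
  have e1 := h.sur (sc P b q) hK ((F.sc_eq_zero hqL).2 hq) (by
    obtain ⟨d, hdc, hd⟩ := hq'
    exact ⟨d, hdc, (F.sc_eq_zero hqL).2 hd⟩) h0 h1 hlt
  have a1 := dv_mem (a := a) (Z := Z) hK.1 p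
  have a2 := dv_mem (a := a) (Z := Z) hK.1 m
  refine ⟨⟨⟨h0.le, h1.le⟩, ?_, ?_⟩, ?_⟩
  · show -1 ≤ dv a Z (sc P b q) p - dv a Z (sc P b q) m
    linarith [a1.1, a2.2]
  · show dv a Z (sc P b q) p - dv a Z (sc P b q) m ≤ 1
    linarith [a1.2, a2.1]
  · unfold gam
    rw [← e1, F.T_sc hqL]

theorem Mo.Fm_gam (h : Mo P c a Z p m) {x : ℝ × ℝ} (hx : x ∈ Rct) :
    Fm a Z (sc P b (gam b a Z p m x)) = |x.2| := by
  rw [h.sc_gam F hx, Fm_uu h.pa h.ma h.pm hx.1 hx.2]

theorem Mo.Gm_gam (h : Mo P c a Z p m) {l0 mm ra : ℝ} {x : ℝ × ℝ} (hx : x ∈ Rct) :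
    Gm l0 mm ra a Z (sc P b (gam b a Z p m x)) = max (|x.2| / l0) (|x.1 - mm| / ra) := by
  rw [h.sc_gam F hx, Gm_uu h.pa h.ma h.pm hx.1 hx.2]

end patch

end Crest.Agent.R096.Bar_106
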