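import Crest.Agent.R096.Exa7_560
import Crest.Agent.R096.Bar1_106
import Crest.Agent.R096.Etg7_163

/-! Row 96 (helper438), DOORS, `DIn` for the barrier families, part 1: the function
`Fs (sb (θ x))` of a moat on the frontier of a tiny core -/

set_option autoImplicit false
set_option linter.unusedSectionVars false
set_option linter.style.longLine false

open Set Metric Module
open scoped Classical

namespace Crest.Agent.R096.Dib_438

open Crest.Agent.R096.Msh_715 Crest.Agent.R096.Agl5_543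
open Crest.Agent.R096.Brk1_582 Crest.Agent.R096.Brk3_582 Crest.Agent.R096.Brk5_582
open Crest.Agent.R096.Bsp_628 Crest.Agent.R096.Bar_106 Crest.Agent.R096.Exa_560
open Crest.Agent.R096.Mbf_337 (sb KJ Tiny gau)
open Crest.Agent.R096.SkC1_961 (E3 FoamD)
open Crest.Agent.R096.Ce_537 (PLEquiv IsBall)

section tiny

variable {δ κ0 R c0 : ℝ} {La Om : Set E3} {ι : Type} {Φ : FoamD δ κ0 R c0 La} {T : Tiling Om ι}
  {f : E3 → E3} {κ1 : ℝ} {c : Φ.F} {J0 J V : Set ι} {θ : E3 → E3} {φ : E3 → ℝ}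
  {a p m : Φ.F} {Z : Set Φ.F} {N : Finset Φ.F}

/-- the level function of a moat: affine on the 2-cells of the sphere -/
theorem fs_aff (H : Tiny Φ T f κ1 c J0 J V θ φ) (N : Finset Φ.F) (a : Φ.F) (Z : Set Φ.F) (F : C2 T)
    (hF : F.set ⊆ frontier (KJ T J)) :
    ∃ g : E3 →ᵃ[ℝ] ℝ, EqOn (fun x => Fs N a Z (sb Φ (θ x))) g F.set := by
  choose g hg using fun e => tiny_aff H e F hF
  induction N using Finset.induction_on with
  | empty =>
    exact ⟨AffineMap.const ℝ E3 0, fun x _ => by simp [Fs]⟩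
  | insert e N he ih =>
    obtain ⟨g', hg'⟩ := ih
    have h1 : ∃ g1 : E3 →ᵃ[ℝ] ℝ, EqOn (fun x => dv a Z (sb Φ (θ x)) e) g1 F.set := by
      by_cases hea : e = a
      · exact ⟨AffineMap.const ℝ E3 0, fun x _ => by simp [dv, hea]⟩
      · by_cases heZ : e ∈ Z
        · refine ⟨g e, fun x hx => ?_⟩
          show dv a Z (sb Φ (θ x)) e = _
          rw [dv_in hea heZ]
          exact hg e hx
        · refine ⟨AffineMap.const ℝ E3 1 - g e, fun x hx => ?_⟩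
          show dv a Z (sb Φ (θ x)) e = _
          rw [dv_out hea heZ]
          have := hg e hx
          simp only at this
          rw [this]
          simp
    obtain ⟨g1, hg1⟩ := h1
    refine ⟨g1 + g', fun x hx => ?_⟩
    have e1 := hg1 hx
    have e2 := hg' hx
    simp only at e1 e2
    show Fs (insert e N) a Z (sb Φ (θ x)) = g1 x + g' x
    unfold Fs at e2 ⊢
    rw [Finset.sum_insert he, e1, e2]

/-- a vertex near a point, in all coordinates -/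
theorem tiny_vertex' (hLa : IsOpen La) (hδ : 0 < δ) (hR : 0 < R) (hκ : Cn δ R * κ1 < 1)
    (H : Tiny Φ T f κ1 c J0 J V θ φ) {q : E3} (hq : q ∈ frontier c.1.set) :
    ∃ v ∈ frontier (KJ T J), T.dim v = 0 ∧
      ∀ a, |sb Φ (θ v) a - sb Φ q a| ≤ (2 * Cn δ R + 1) * κ1 := by
  obtain ⟨e, he⟩ := H.bij
  have h1 : e.g q ∈ frontier (KJ T J) := e.mg hq
  have h2 : θ (e.g q) = q := by rw [← he _ h1]; exact e.ri q hq
  obtain ⟨F, hF, hqF⟩ := exists_face (κ := Unit) (Kc := fun _ => KJ T J) (c := ()) (by simp)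
    (fun _ => coreH_tiny H) h1
  obtain ⟨v, hv, hv0⟩ := T.exists_vertex F.pt_mem
  rw [← F.set_eq] at hv
  refine ⟨v, hF hv, hv0, fun a => ?_⟩
  have h3 := tiny_osc hLa hδ hR hκ H hF hv hqF a
  rw [h2] at h3
  exact h3

/-- near the axis `Fs = Fm` -/
theorem fs_eq_fm (hLa : IsOpen La) (M : Mo (Pc Φ.F) c a Z p m) (hp : p ∈ N) (hm : m ∈ N) {q : E3}
    (hq : q ∈ frontier c.1.set) (h0 : 0 < sb Φ q a) (h1 : sb Φ q a < 1)
    (hF : Fm a Z (sb Φ q) < 1) : Fs N a Z (sb Φ q) = Fm a Z (sb Φ q) := by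
  have FF := foam Φ.bf hLa
  rw [frontier_c Φ hLa c] at hq
  obtain ⟨g1, g2⟩ := M.eq_gam FF hq.1 hq.2 h0 h1 hF
  have g3 := M.sc_gam FF g1
  have g4 := M.Fm_gam FF g1
  rw [← g2] at g3 g4
  exact ((congrArg (Fs N a Z) g3).trans (Fs_uu M.pa M.ma M.pm hp hm)).trans g4.symm

theorem sb_mem (hLa : IsOpen La) {q : E3} (hq : q ∈ frontier c.1.set) (e : Φ.F) :
    0 ≤ sb Φ q e ∧ sb Φ q e ≤ 1 := by
  have FF := foam Φ.bf hLa
  rw [frontier_c Φ hLa c] at hq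
  exact (FF.sc_mem_K (FF.sub c hq.1)).1 e

/-- **a vertex near the axis** -/
theorem fs_lo (hLa : IsOpen La) (hδ : 0 < δ) (hR : 0 < R) (hκ1 : 0 ≤ κ1)
    (hκ : (2 * Cn δ R + 1) * κ1 < 1 / 2)
    (H : Tiny Φ T f κ1 c J0 J V θ φ) (M : Mo (Pc Φ.F) c a Z p m) (hp : p ∈ N) (hm : m ∈ N) :
    ∃ v ∈ frontier (KJ T J), T.dim v = 0 ∧ Fs N a Z (sb Φ (θ v)) ≤ (2 * Cn δ R + 1) * κ1 := by
  have FF := foam Φ.bf hLa
  have hCn := Cn_nonneg hδ hR
  have hk : 0 ≤ Cn δ R * κ1 := mul_nonneg hCn hκ1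
  have hx : ((1 / 2 : ℝ), (0 : ℝ)) ∈ Rct := ⟨⟨by norm_num, by norm_num⟩, ⟨by norm_num, by norm_num⟩⟩
  have hq := M.gam_mem FF hx
  rw [show (gam (bc (F := Φ.F)) a Z p m (1 / 2, 0) ∈ Pc Φ.F c ∧
    ∃ d, d ≠ c ∧ gam (bc (F := Φ.F)) a Z p m (1 / 2, 0) ∈ Pc Φ.F d) ↔
    gam (bc (F := Φ.F)) a Z p m (1 / 2, 0) ∈ frontier c.1.set from by
      rw [frontier_c Φ hLa c]; rfl] at hq
  obtain ⟨v, hv, hv0, hvn⟩ := tiny_vertex' hLa hδ hR (by linarith) H hq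
  refine ⟨v, hv, hv0, ?_⟩
  have hsc := M.sc_gam FF hx
  have hFm := M.Fm_gam FF hx
  simp only [abs_zero] at hFm
  have e1 : sb Φ (gam (bc (F := Φ.F)) a Z p m (1 / 2, 0)) a = 1 / 2 := by
    show sc _ _ _ a = _
    rw [hsc, uu_a]
  have h1 := abs_le.1 (hvn a)
  rw [e1] at h1
  have hθ := th_mem H hv
  have h2 := Fm_sub_le (a := a) (Z := Z) (u := sb Φ (θ v))
    (v := sb Φ (gam (bc (F := Φ.F)) a Z p m (1 / 2, 0))) (sb_mem hLa hθ) (sb_mem hLa hq) hvn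
  have e2 : Fm a Z (sb Φ (gam (bc (F := Φ.F)) a Z p m (1 / 2, 0))) = 0 := hFm
  rw [e2, sub_zero] at h2
  have h3 := (abs_le.1 h2).2
  rw [fs_eq_fm hLa M hp hm hθ (by linarith [h1.1]) (by linarith [h1.2]) (by linarith)]
  exact h3

/-- `N` contains all cells which touch `c` -/
theorem dv_off (hLa : IsOpen La) (M : Mo (Pc Φ.F) c a Z p m) {q : E3}
    (hq : q ∈ frontier c.1.set) {e : Φ.F} (he : ¬ (Pc Φ.F c ∩ Pc Φ.F e).Nonempty) :
    dv a Z (sb Φ q) e = 0 := by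
  have FF := foam Φ.bf hLa
  rw [frontier_c Φ hLa c] at hq
  have hqL := FF.sub c hq.1
  -- `e ∉ Z`: the face `Z` contains `c`
  have heZ : e ∉ Z := by
    intro h
    obtain ⟨y, hy⟩ := M.fcp
    exact he ⟨y, mem_fc.1 hy c (Or.inl M.cZ), mem_fc.1 hy e (Or.inl h)⟩
  by_cases hea : e = a
  · rw [hea]; exact dv_self
  · rw [dv_out hea heZ]
    have h1 : sb Φ q e = 1 := by
      by_contra hcon
      have hK := FF.sc_mem_K hqL
      have hlt : sc (Pc Φ.F) (bc (F := Φ.F)) q e < 1 := lt_of_le_of_ne (hK.1 e).2 hcon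
      obtain ⟨y, hy⟩ := hK.2.2
      have h1 := mem_fc.1 hy e hlt
      have h2 := mem_fc.1 hy c (by
        show sc _ _ _ _ < 1
        rw [(FF.sc_eq_zero hqL).2 hq.1]; exact one_pos)
      exact he ⟨y, h2, h1⟩
    rw [h1, sub_self]

/-- **a vertex far from the axis** -/
theorem fs_hi (hLa : IsOpen La) (hδ : 0 < δ) (hR : 0 < R) (hκ1 : 0 ≤ κ1)
    (hκ : (2 * Cn δ R + 1) * κ1 < 1)
    (H : Tiny Φ T f κ1 c J0 J V θ φ) (M : Mo (Pc Φ.F) c a Z p m)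
    (hN : ∀ e, (Pc Φ.F c ∩ Pc Φ.F e).Nonempty → e ∈ N) :
    ∃ v ∈ frontier (KJ T J), T.dim v = 0 ∧ 1 - (2 * Cn δ R + 1) * κ1 ≤ Fs N a Z (sb Φ (θ v)) := by
  have FF := foam Φ.bf hLa
  have hCn := Cn_nonneg hδ hR
  have hk : 0 ≤ Cn δ R * κ1 := mul_nonneg hCn hκ1
  have hx : ((1 / 2 : ℝ), (1 : ℝ)) ∈ Rct := ⟨⟨by norm_num, by norm_num⟩, ⟨by norm_num, by norm_num⟩⟩
  have hq := M.gam_mem FF hx
  rw [show (gam (bc (F := Φ.F)) a Z p m (1 / 2, 1) ∈ Pc Φ.F c ∧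
    ∃ d, d ≠ c ∧ gam (bc (F := Φ.F)) a Z p m (1 / 2, 1) ∈ Pc Φ.F d) ↔
    gam (bc (F := Φ.F)) a Z p m (1 / 2, 1) ∈ frontier c.1.set from by
      rw [frontier_c Φ hLa c]; rfl] at hq
  obtain ⟨v, hv, hv0, hvn⟩ := tiny_vertex' hLa hδ hR (by linarith) H hq
  refine ⟨v, hv, hv0, ?_⟩
  have hFm := M.Fm_gam FF hx
  simp only [abs_one] at hFm
  have hθ := th_mem H hv
  have h2 := Fm_sub_le (a := a) (Z := Z) (u := sb Φ (θ v))
    (v := sb Φ (gam (bc (F := Φ.F)) a Z p m (1 / 2, 1))) (sb_mem hLa hθ) (sb_mem hLa hq) hvn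
  have e2 : Fm a Z (sb Φ (gam (bc (F := Φ.F)) a Z p m (1 / 2, 1))) = 1 := hFm
  rw [e2] at h2
  have h3 := (abs_le.1 h2).1
  have h4 := Fm_le_Fs (a := a) (Z := Z) (N := N) (u := sb Φ (θ v))
    (fun e he => dv_off hLa M hθ fun h => he (hN e h)) (sb_mem hLa hθ)
  linarith

/-- **truthful points of the moat on the sphere are near the axis** -/
theorem fs_low (hLa : IsOpen La) (hδ : 0 < δ) (hR : 0 < R) (hκ : Cn δ R * κ1 < 1)
    (H : Tiny Φ T f κ1 c J0 J V θ φ) (M : Mo (Pc Φ.F) c a Z p m) (hp : p ∈ N) (hm : m ∈ N)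
    {l0 mm ra hi : ℝ} (hl0 : 0 < l0) (hra : 0 < ra) (h1 : l0 * hi + Cn δ R * κ1 < 1)
    (h2 : 0 < mm - ra * hi - Cn δ R * κ1) (h3 : mm + ra * hi + Cn δ R * κ1 < 1) {w : E3}
    (hw : w ∈ frontier (KJ T J)) (hlev : ∀ e, 0 ≤ Φ.lev e (f w) ∧ Φ.lev e (f w) ≤ 1)
    (hG : Gm l0 mm ra a Z (fun e => Φ.lev e (f w)) ≤ hi) :
    Fs N a Z (sb Φ (θ w)) ≤ l0 * hi + Cn δ R * κ1 := by
  have hθ := th_mem H hw
  have hn := fun e => tiny_near hLa hδ hR hκ H hw e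
  have g1 : Fm a Z (fun e => Φ.lev e (f w)) ≤ l0 * hi := by
    have := (le_max_left _ _).trans hG
    rw [div_le_iff₀ hl0] at this
    linarith
  have g2 : |Φ.lev a (f w) - mm| ≤ ra * hi := by
    have := (le_max_right _ _).trans hG
    rw [div_le_iff₀ hra] at this
    linarith
  have g3 := (abs_le.1 (Fm_sub_le (a := a) (Z := Z) (u := sb Φ (θ w))
    (v := fun e => Φ.lev e (f w)) (sb_mem hLa hθ) hlev hn)).2
  have g4 := abs_le.1 g2
  have g5 := abs_le.1 (hn a)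
  rw [fs_eq_fm hLa M hp hm hθ (by linarith [g4.1, g5.1]) (by linarith [g4.2, g5.2])
    (by linarith)]
  linarith

/-- **the exact levels of a moat on the sphere are connected**, from the target -/
theorem fs_level (H : Tiny Φ T f κ1 c J0 J V θ φ) {t : ℝ}
    (h : IsPreconnected {q | q ∈ frontier c.1.set ∧ Fs N a Z (sb Φ q) = t} ∧
      IsCompact {q | q ∈ frontier c.1.set ∧ Fs N a Z (sb Φ q) = t} ∧
      {q | q ∈ frontier c.1.set ∧ Fs N a Z (sb Φ q) = t}.Nonempty) :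
    IsPreconnected {x | x ∈ frontier (KJ T J) ∧ Fs N a Z (sb Φ (θ x)) = t} ∧
      {x | x ∈ frontier (KJ T J) ∧ Fs N a Z (sb Φ (θ x)) = t}.Nonempty := by
  obtain ⟨u, hu⟩ := H.bij
  have h1 := Etg_163.pre_plEquiv u (fun q hq => hq.1) h
  have h2 : {x | x ∈ frontier (KJ T J) ∧ u.f x ∈ {q | q ∈ frontier c.1.set ∧
      Fs N a Z (sb Φ q) = t}} =
      {x | x ∈ frontier (KJ T J) ∧ Fs N a Z (sb Φ (θ x)) = t} := by
    ext x
    constructor
    · rintro ⟨h2, h3⟩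
      rw [hu x h2] at h3
      exact ⟨h2, h3.2⟩
    · rintro ⟨h2, h3⟩
      refine ⟨h2, u.mf h2, ?_⟩
      rw [hu x h2]; exact h3
  rw [h2] at h1
  exact ⟨h1.1, h1.2.2⟩

end tiny

end Crest.Agent.R096.Dib_438
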