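import Crest.Agent.R096.Ebr3_95
import Crest.Agent.R096.Bgf7_4
import Crest.Agent.R096.Dib1_438

/-!
# Row 96, DOORS, barriers (helper95), part 4: the function `Gm` of a moat

* `gm_moat` : 4's `GM` for `Gm l0 mm ra a Z (sb Φ q)` from 106's `Mo`;
* `gm_osc`, `gm_near` : oscillation on the tiles near a tiny core, distance of `θ` and `Psi ∘ f`;
* `moat_v0`, `moat_v1` : vertices near the middle of the moat / far from it.
-/

set_option autoImplicit false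
set_option linter.unusedSectionVars false

open Set Topology Filter Metric Module
open scoped Classical

namespace Crest.Agent.R096.Ebr4_95

open Crest.Agent.R096.Msh_715 Crest.Agent.R096.Coh_184 Crest.Agent.R096.Bsp_628
  Crest.Agent.R096.Brk1_582 Crest.Agent.R096.Brk2_582 Crest.Agent.R096.Brk3_582
  Crest.Agent.R096.Brk5_582 Crest.Agent.R096.Init_543 Crest.Agent.R096.Mbf_337
  Crest.Agent.R096.Exa_560 Crest.Agent.R096.Ess5_95 Crest.Agent.R096.Ess6_95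
  Crest.Agent.R096.Ebr1_95 Crest.Agent.R096.Ebr3_95 Crest.Agent.R096.Bar_106
  Crest.Agent.R096.Bgf_4 Crest.Agent.R096.Dib_438 Crest.Agent.R096.Lab_184
  Crest.Agent.R096.Agl5_543

open Crest.Agent.R096.SkC1_961 (E3 Hom3 IsPush FoamD)
open Crest.Agent.R096.Ce_537 (PLEquiv IsBall)

variable {δ κ0 R c0 : ℝ} {La : Set E3} {Φ : FoamD δ κ0 R c0 La} {c a p m : Φ.F} {Z : Set Φ.F}
  {l0 mm ra hi : ℝ}

/-- the function of the moat on the frontier of the brick -/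
noncomputable def gmf (Φ : FoamD δ κ0 R c0 La) (l0 mm ra : ℝ) (a : Φ.F) (Z : Set Φ.F) (q : E3) : ℝ :=
  Gm l0 mm ra a Z (sb Φ q)

/-- numbers of the chart -/
structure Nm (l0 mm ra hi : ℝ) : Prop where
  hl : 0 < l0
  hra : 0 < ra
  hhi : 0 < hi
  l1 : l0 * hi < 1
  m0 : 0 < mm - ra * hi
  m1 : mm + ra * hi < 1

theorem Nm.rct (h : Nm l0 mm ra hi) {x : ℝ × ℝ} (hx : Nr l0 mm ra x ≤ hi) : x ∈ Rct := by
  have h1 : |x.2| / l0 ≤ hi := (le_max_left _ _).trans hx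
  have h2 : |x.1 - mm| / ra ≤ hi := (le_max_right _ _).trans hx
  rw [div_le_iff₀ h.hl] at h1
  rw [div_le_iff₀ h.hra] at h2
  have h3 := abs_le.1 h1
  have h4 := abs_le.1 h2
  have h5 := h.l1
  have h6 := h.m0
  have h7 := h.m1
  have e1 : hi * l0 = l0 * hi := mul_comm _ _
  have e2 : hi * ra = ra * hi := mul_comm _ _
  rw [e1] at h3
  rw [e2] at h4
  exact ⟨⟨by linarith [h4.1], by linarith [h4.2]⟩, ⟨by linarith [h3.1], by linarith [h3.2]⟩⟩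

theorem gam_fr (hLa : IsOpen La) (M : Mo (Pc Φ.F) c a Z p m) {x : ℝ × ℝ} (hx : x ∈ Rct) :
    gam (bc (F := Φ.F)) a Z p m x ∈ frontier c.1.set := by
  rw [frontier_c Φ hLa c]
  exact M.gam_mem (foam Φ.bf hLa) hx

theorem gmf_gam (hLa : IsOpen La) (M : Mo (Pc Φ.F) c a Z p m) {x : ℝ × ℝ} (hx : x ∈ Rct) :
    gmf Φ l0 mm ra a Z (gam (bc (F := Φ.F)) a Z p m x) = Nr l0 mm ra x :=
  M.Gm_gam (foam Φ.bf hLa) hx

theorem gmf_sur (hLa : IsOpen La) (M : Mo (Pc Φ.F) c a Z p m) (h : Nm l0 mm ra hi) {q : E3}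
    (hq : q ∈ frontier c.1.set) (hG : gmf Φ l0 mm ra a Z q ≤ hi) :
    ∃ x, Nr l0 mm ra x ≤ hi ∧ gam (bc (F := Φ.F)) a Z p m x = q := by
  have FF := foam Φ.bf hLa
  have h1 : Fm a Z (sb Φ q) / l0 ≤ hi := (le_max_left _ _).trans hG
  have h2 : |sb Φ q a - mm| / ra ≤ hi := (le_max_right _ _).trans hG
  rw [div_le_iff₀ h.hl] at h1
  rw [div_le_iff₀ h.hra] at h2
  have h4 := abs_le.1 h2
  have h5 := h.l1
  have h6 := h.m0
  have h7 := h.m1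
  have e1 : hi * l0 = l0 * hi := mul_comm _ _
  have e2 : hi * ra = ra * hi := mul_comm _ _
  rw [e1] at h1
  rw [e2] at h4
  have hq' := hq
  rw [frontier_c Φ hLa c] at hq'
  obtain ⟨g1, g2⟩ := M.eq_gam FF hq'.1 hq'.2 (show 0 < sb Φ q a by linarith [h4.1])
    (show sb Φ q a < 1 by linarith [h4.2]) (show Fm a Z (sb Φ q) < 1 by linarith)
  refine ⟨_, ?_, g2.symm⟩
  have g3 := gmf_gam (l0 := l0) (mm := mm) (ra := ra) hLa M g1
  rw [← g2] at g3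
  rw [← g3]
  exact hG

/-- all coordinates are Lipschitz on the frontier of a brick -/
theorem sb_lip (hLa : IsOpen La) (hδ : 0 < δ) (hR : 0 < R) {q q' : E3}
    (hq : q ∈ frontier c.1.set) (hq' : q' ∈ frontier c.1.set) (e : Φ.F) :
    |sb Φ q e - sb Φ q' e| ≤ Cn δ R / c.1.sz * ‖q' - q‖ := by
  have hsz : 0 < c.1.sz := Bx.sz_pos (Φ.bf.pos _ c.2)
  have hCn := Cn_nonneg hδ hR
  have e1 : Cn δ R * (‖q' - q‖ / c.1.sz) = Cn δ R / c.1.sz * ‖q' - q‖ := by ring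
  rw [← e1]
  by_cases hlt : Cn δ R * (‖q' - q‖ / c.1.sz) < 1
  · have hqc : q ∈ Pc Φ.F c := by
      rw [frontier_c Φ hLa c] at hq; exact hq.1
    have h6 := Lsc_965.osc_le Φ.bf hLa hδ hR Φ.cmp (c0 := c) hqc (ε := ‖q' - q‖ / c.1.sz)
      (by rw [Fintype.card_fin]; exact hlt) (by rw [div_mul_cancel₀ _ hsz.ne']) e
    rw [Fintype.card_fin] at h6
    exact h6
  · refine le_trans ?_ (not_lt.1 hlt)
    have h1 := sb_mem hLa hq e
    have h2 := sb_mem hLa hq' e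
    rw [abs_le]
    constructor <;> linarith [h1.1, h1.2, h2.1, h2.2]

theorem gmf_lip (hLa : IsOpen La) (hδ : 0 < δ) (hR : 0 < R) (hl : 0 < l0) (hra : 0 < ra) :
    ∃ k : NNReal, LipschitzOnWith k (gmf Φ l0 mm ra a Z) (frontier c.1.set) := by
  have hsz : 0 < c.1.sz := Bx.sz_pos (Φ.bf.pos _ c.2)
  have hCn := Cn_nonneg hδ hR
  have hK : 0 ≤ Cn δ R / c.1.sz * max (1 / l0) (1 / ra) := by positivity
  refine ⟨Real.toNNReal (Cn δ R / c.1.sz * max (1 / l0) (1 / ra)),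
    LipschitzOnWith.of_dist_le_mul fun q hq q' hq' => ?_⟩
  rw [Real.dist_eq, dist_comm, dist_eq_norm, Real.coe_toNNReal _ hK]
  refine (Gm_sub_le hl hra (sb_mem hLa hq) (sb_mem hLa hq') (sb_lip hLa hδ hR hq hq')).trans ?_
  have h2 : 0 ≤ Cn δ R / c.1.sz * ‖q' - q‖ := by positivity
  refine max_le ?_ ?_
  · calc Cn δ R / c.1.sz * ‖q' - q‖ / l0 = Cn δ R / c.1.sz * ‖q' - q‖ * (1 / l0) := by ring
      _ ≤ Cn δ R / c.1.sz * ‖q' - q‖ * max (1 / l0) (1 / ra) :=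
        mul_le_mul_of_nonneg_left (le_max_left _ _) h2
      _ = _ := by ring
  · calc Cn δ R / c.1.sz * ‖q' - q‖ / ra = Cn δ R / c.1.sz * ‖q' - q‖ * (1 / ra) := by ring
      _ ≤ Cn δ R / c.1.sz * ‖q' - q‖ * max (1 / l0) (1 / ra) :=
        mul_le_mul_of_nonneg_left (le_max_right _ _) h2
      _ = _ := by ring

theorem isCompact_Nr (hl : 0 < l0) (hra : 0 < ra) (t : ℝ) :
    IsCompact {x | Nr l0 mm ra x ≤ t} := by
  rw [set_eq hl hra (fun x => x ≤ t)]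
  have : {v : ℝ × ℝ | ‖v‖ ≤ t} = closedBall 0 t := by
    ext v; simp
  rw [this]
  exact (isCompact_closedBall _ _).image (by fun_prop)

theorem convex_Nr (hl : 0 < l0) (hra : 0 < ra) (t : ℝ) : Convex ℝ {x | Nr l0 mm ra x ≤ t} := by
  have h1 : {x | Nr l0 mm ra x ≤ t} = {x : ℝ × ℝ | x.2 ∈ Icc (-(t * l0)) (t * l0)} ∩
      {x : ℝ × ℝ | x.1 ∈ Icc (mm - t * ra) (mm + t * ra)} := by
    ext x
    show max (|x.2| / l0) (|x.1 - mm| / ra) ≤ t ↔ _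
    rw [max_le_iff, div_le_iff₀ hl, div_le_iff₀ hra, abs_le, abs_le]
    constructor
    · rintro ⟨⟨h1, h2⟩, h3, h4⟩
      exact ⟨⟨h1, h2⟩, ⟨by linarith, by linarith⟩⟩
    · rintro ⟨⟨h1, h2⟩, h3, h4⟩
      exact ⟨⟨h1, h2⟩, ⟨by linarith, by linarith⟩⟩
  rw [h1]
  exact ((convex_Icc _ _).is_linear_preimage (LinearMap.snd ℝ ℝ ℝ).isLinear).inter
    ((convex_Icc _ _).is_linear_preimage (LinearMap.fst ℝ ℝ ℝ).isLinear)

/-- **4's `GM` for the moats** -/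
theorem gm_moat (hLa : IsOpen La) (hδ : 0 < δ) (hR : 0 < R) (M : Mo (Pc Φ.F) c a Z p m)
    (h : Nm l0 mm ra hi) : GM Φ c (gmf Φ l0 mm ra a Z) 0 hi := by
  have FF := foam Φ.bf hLa
  have hle : ∀ t ≤ hi, {q | q ∈ frontier c.1.set ∧ gmf Φ l0 mm ra a Z q ≤ t} =
      gam (bc (F := Φ.F)) a Z p m '' {x | Nr l0 mm ra x ≤ t} := by
    intro t ht
    ext q
    constructor
    · rintro ⟨h1, h2⟩
      obtain ⟨x, hx, rfl⟩ := gmf_sur hLa M h h1 (h2.trans ht)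
      rw [gmf_gam hLa M (h.rct hx)] at h2
      exact ⟨x, h2, rfl⟩
    · rintro ⟨x, hx, rfl⟩
      have hx' : Nr l0 mm ra x ≤ t := hx
      have hr := h.rct (hx'.trans ht)
      exact ⟨gam_fr hLa M hr, by rw [gmf_gam hLa M hr]; exact hx'⟩
  have heq : ∀ t ≤ hi, {q | q ∈ frontier c.1.set ∧ gmf Φ l0 mm ra a Z q = t} =
      gam (bc (F := Φ.F)) a Z p m '' {x | Nr l0 mm ra x = t} := by
    intro t ht
    ext q
    constructor
    · rintro ⟨h1, h2⟩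
      obtain ⟨x, hx, rfl⟩ := gmf_sur hLa M h h1 (h2.le.trans ht)
      rw [gmf_gam hLa M (h.rct hx)] at h2
      exact ⟨x, h2, rfl⟩
    · rintro ⟨x, hx, rfl⟩
      have hx' : Nr l0 mm ra x = t := hx
      have hr := h.rct (hx'.le.trans ht)
      exact ⟨gam_fr hLa M hr, by rw [gmf_gam hLa M hr]; exact hx'⟩
  have hc := M.continuousOn_gam FF
  have hnr : ∀ t : ℝ, 0 ≤ t → Nr l0 mm ra (mm, l0 * t) = t := by
    intro t ht
    unfold Nr
    simp only [sub_self, abs_zero, zero_div]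
    rw [abs_of_nonneg (mul_nonneg h.hl.le ht), mul_div_cancel_left₀ _ h.hl.ne',
      max_eq_left ht]
  refine ⟨le_rfl, h.hhi, gmf_lip hLa hδ hR h.hl h.hra, ?_, ?_, fun t ht => ?_, fun t ht => ?_⟩
  · have h1 := hnr 0 le_rfl
    have hr := h.rct (h1.le.trans h.hhi.le)
    exact ⟨_, gam_fr hLa M hr, by rw [gmf_gam hLa M hr]; exact h1.le⟩
  · have h1 := hnr hi h.hhi.le
    have hr := h.rct h1.le
    exact ⟨_, gam_fr hLa M hr, by rw [gmf_gam hLa M hr]; exact h1.ge⟩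
  · rw [heq t ht.2.le]
    exact (preconn_Nr_eq h.hl h.hra t).image _ (hc.mono fun x hx => h.rct (le_of_eq_of_le hx ht.2.le))
  · rw [hle t ht.2.le]
    exact trivF_convex (isCompact_Nr h.hl h.hra t) (convex_Nr h.hl h.hra t)
      (hc.mono fun x hx => h.rct (le_trans hx ht.2.le))
      ((M.gam_injOn FF).mono fun x hx => h.rct (le_trans hx ht.2.le))

/-- `GT` from 4's `GM` -/
theorem gt_of_gm {G : E3 → ℝ} {lo : ℝ} (hLa : IsOpen La) (hG : GM Φ c G lo hi)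
    {g0 z0 τ z1 g1 : ℝ} (h0 : lo < g0) (hgz : g0 ≤ z0) (hz : z0 ≤ τ) (hτ : τ ≤ z1)
    (hzg : z1 ≤ g1) (hg1 : g1 < hi) : GT Φ c G g0 z0 τ z1 g1 := by
  have hfr := preconn_frontier hLa c
  have hcl : IsClosed (frontier c.1.set) := isClosed_frontier
  have hGc : ContinuousOn G (frontier c.1.set) := by
    obtain ⟨k, hk⟩ := hG.lip
    exact hk.continuousOn
  have hio : ∀ t, g0 ≤ t → t ≤ g1 → t ∈ Ioo lo hi := fun t h1 h2 =>
    ⟨by linarith, by linarith⟩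
  have hne : ∀ t, g0 ≤ t → t ≤ g1 → {q | q ∈ frontier c.1.set ∧ G q = t}.Nonempty := by
    intro t h1 h2
    obtain ⟨q0, h3, h4⟩ := hG.low
    obtain ⟨q1, h5, h6⟩ := hG.high
    have h7 := hio t h1 h2
    obtain ⟨q, hq, he⟩ := hfr.intermediate_value h3 h5 hGc
      (show t ∈ Icc (G q0) (G q1) from ⟨h4.trans h7.1.le, h7.2.le.trans h6⟩)
    exact ⟨q, hq, he⟩
  exact {
    lo := Ebr3_95.preconn_le_of_eq hfr hcl hGc (hG.eq g0 (hio g0 le_rfl (by linarith)))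
    lon := (hne g0 le_rfl (by linarith)).mono fun q hq => ⟨hq.1, hq.2.le⟩
    zlo := Ebr3_95.preconn_le_of_eq hfr hcl hGc (hG.eq z0 (hio z0 hgz (by linarith)))
    le := Ebr3_95.preconn_le_of_eq hfr hcl hGc (hG.eq τ (hio τ (by linarith) (by linarith)))
    eq := hG.eq τ (hio τ (by linarith) (by linarith))
    eqn := hne τ (by linarith) (by linarith)
    zhi := Ebr3_95.preconn_ge_of_eq hfr hcl hGc (hG.eq z1 (hio z1 (by linarith) hzg))
    hi := Ebr3_95.preconn_ge_of_eq hfr hcl hGc (hG.eq g1 (hio g1 (by linarith) le_rfl))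
    hin := (hne g1 (by linarith) le_rfl).mono fun q hq => ⟨hq.1, hq.2.ge⟩ }

section tiny

variable {Om : Set E3} {ι : Type} {T : Tiling Om ι} {f : E3 → E3} {κ1 : ℝ} {J0 J V : Set ι}
  {θ : E3 → E3} {φ : E3 → ℝ} {ρ1 ρ2 ρ3 ρ4 d : ℝ}

/-- oscillation of `Gm ∘ Psi ∘ f` on the tiles near the core -/
theorem gm_osc (hLa : IsOpen La) (hl : 0 < l0) (hra : 0 < ra)
    (hr : Rm Φ T f c J0 J V θ ρ1 ρ2 ρ3 ρ4 d) (hG : GA Φ c ρ4) (hpt : (Φ.B c).lo = (Φ.B c).hi)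
    {q : ι} {x y : E3} (hx : x ∈ P (T.H q)) (h1 : ρ1 ≤ ga Φ c (f x)) (h4 : ga Φ c (f x) ≤ ρ4 - d)
    (hd : d < ρ1) (hy : y ∈ P (T.H q)) :
    |gmf Φ l0 mm ra a Z (Φ.Psi (f x)) - gmf Φ l0 mm ra a Z (Φ.Psi (f y))| ≤
      max (d / l0) (d / ra) := by
  have hr4 := hr.r4
  have hd0 := hr.d0
  obtain ⟨h5, -, h6⟩ := hr.tile_osc hx h1 (by linarith) hy
  have h7 := abs_le.1 h5
  have hxf := Psi_frontier hLa hG hpt ((hG.one _).1 (show ga Φ c (f x) ≤ 1 by linarith))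
    (by linarith [hr.r1])
  have hyf := Psi_frontier hLa hG hpt ((hG.one _).1 (show ga Φ c (f y) ≤ 1 by linarith [h7.1]))
    (by linarith [h7.2])
  exact Gm_sub_le hl hra (sb_mem hLa hxf) (sb_mem hLa hyf) h6

/-- `θ` against `Psi ∘ f` on the sphere -/
theorem gm_near (hLa : IsOpen La) (hδ : 0 < δ) (hR : 0 < R) (hκ : Cn δ R * κ1 < 1) (hl : 0 < l0)
    (hra : 0 < ra) (H : Tiny Φ T f κ1 c J0 J V θ φ)
    (hr : Rm Φ T f c J0 J V θ ρ1 ρ2 ρ3 ρ4 d) (hG : GA Φ c ρ4) {x : E3}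
    (hx : x ∈ frontier (KJ T J)) :
    |gmf Φ l0 mm ra a Z (θ x) - gmf Φ l0 mm ra a Z (Φ.Psi (f x))| ≤
      max (Cn δ R * κ1 / l0) (Cn δ R * κ1 / ra) := by
  have h0 := hr.fr x hx
  have h1 := hr.r1
  have h2 := hr.r12
  have h3 := hr.r34
  have h4 := hr.r4
  have h5 := hr.d0
  have hxf := Psi_frontier hLa hG H.pt ((hG.one _).1 (show ga Φ c (f x) ≤ 1 by linarith [h0.2]))
    (by linarith [h0.1])
  exact Gm_sub_le hl hra (sb_mem hLa (th_mem H hx)) (sb_mem hLa hxf)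
    fun e => tiny_near hLa hδ hR hκ H hx e

/-- **a vertex near a point of the patch**: all coordinates within `(2 Cn + 1) κ1` -/
theorem moat_v (hLa : IsOpen La) (hδ : 0 < δ) (hR : 0 < R) (hκ : Cn δ R * κ1 < 1)
    (H : Tiny Φ T f κ1 c J0 J V θ φ) (M : Mo (Pc Φ.F) c a Z p m) {x : ℝ × ℝ} (hx : x ∈ Rct) :
    ∃ v ∈ frontier (KJ T J), T.dim v = 0 ∧
      ∀ e, |sb Φ (θ v) e - uu a Z p m x.1 x.2 e| ≤ (2 * Cn δ R + 1) * κ1 := by
  obtain ⟨v, hv, hv0, hvn⟩ := tiny_vertex' hLa hδ hR hκ H (gam_fr hLa M hx)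
  refine ⟨v, hv, hv0, fun e => ?_⟩
  have h1 := congrFun (M.sc_gam (foam Φ.bf hLa) hx) e
  have h2 := hvn e
  rw [show sb Φ (gam (bc (F := Φ.F)) a Z p m x) e = uu a Z p m x.1 x.2 e from h1] at h2
  exact h2

/-- the values of `Gm` and `Fm` at such a vertex -/
theorem moat_val (hLa : IsOpen La) (hl : 0 < l0) (hra : 0 < ra) (M : Mo (Pc Φ.F) c a Z p m)
    {x : ℝ × ℝ} (hx : x ∈ Rct) {q : E3} (hq : q ∈ frontier c.1.set) {r : ℝ}
    (h : ∀ e, |sb Φ q e - uu a Z p m x.1 x.2 e| ≤ r) :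
    |gmf Φ l0 mm ra a Z q - max (|x.2| / l0) (|x.1 - mm| / ra)| ≤ max (r / l0) (r / ra) ∧
      |Fm a Z (sb Φ q) - abs x.2| ≤ r := by
  have hI := uu_mem_Icc (a := a) (Z := Z) (p := p) (m := m) hx.1 hx.2
  have h1 := Gm_sub_le (a := a) (Z := Z) (m := mm) hl hra (sb_mem hLa hq) hI h
  rw [Gm_uu M.pa M.ma M.pm hx.1 hx.2] at h1
  have h2 := Fm_sub_le (a := a) (Z := Z) (sb_mem hLa hq) hI h
  rw [Fm_uu M.pa M.ma M.pm hx.1 hx.2] at h2
  exact ⟨h1, h2⟩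

end tiny

end Crest.Agent.R096.Ebr4_95
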