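import Crest.Agent.R096.Rop7_441
import Crest.Agent.R096.Ebr4_95

/-!
# Row 96, DOORS: the numbers of record (helper698)

Numbers of 106 #11906 (1) = 337 #11931 = 539 #11955:
`b = 1/64`, `s₁ = μ/32`, `s' = σ = μ/4`, `l0 = μ/8`, `mm = 1/2`, `ra = 1/2 - 5μ/16`, `lo = 1`,
`hi = 1 + min (d/h) (μ/16)`, exact window of the barriers `(5μ/32, 3μ/16)`, `s_b = 7μ/32`,
machine window `(1 - μ + Cn κ1, 1 - μ/2)`, `σ₁ = 9μ/32`, NE zone `≤ 3μ/8` or `≥ 1 - 3μ/8`.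

* `NumD` : the smallness of `κ1`; **`exists_numD`**: such a `κd` exists;
* `NumD.base` : linear facts in the atoms `κ1`, `Cn δ R * κ1`, `μ`: every linear inequality of the
  leaves follows by `obtain ⟨n1, n2, n3, n4, n5, n6⟩ := hn.base; linarith`;
* literal forms of the hypotheses of the leaves (539, 471, 438, 95, 4, 560, 344, 422, 117, 662).
-/

set_option autoImplicit false

namespace Crest.Agent.R096.Nmd1_698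

open Crest.Agent.R096.Exa_560 (Cn Cn_nonneg)
open Crest.Agent.R096.Brk5_582 (Cs Cs_nonneg)
open Crest.Agent.R096.Rop_441 (η0F η0F_nonneg θN ηN Num)
open Crest.Agent.R096.Ebr4_95 (Nm)

/-- **the smallness of `κ1`** -/
structure NumD (δ κ0 R c0 κ2 μ κ1 : ℝ) : Prop where
  hδ : 0 < δ
  hR : 0 < R
  hμ : 0 < μ
  hμb : μ ≤ 1 / 64
  hκ : 0 < κ1
  sm : 65536 * ((Cn δ R + 1) * κ1) ≤ μ ^ 2
  et0 : 0 ≤ η0F δ κ0 R c0 κ2 κ1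
  et : 65536 * η0F δ κ0 R c0 κ2 κ1 ≤ μ ^ 2
  num : Num δ κ0 R c0 κ2 κ1 (μ / 32)

/-- **`κd` EXISTS** -/
theorem exists_numD {δ κ0 R c0 κ2 μ : ℝ} (hδ : 0 < δ) (hκ0 : 0 ≤ κ0) (hR : 0 < R)
    (hκ2 : 0 < κ2) (hμ : 0 < μ) (hμb : μ ≤ 1 / 64) :
    ∃ κd : ℝ, 0 < κd ∧ κd ≤ 1 ∧ ∀ κ1, 0 < κ1 → κ1 ≤ κd → NumD δ κ0 R c0 κ2 μ κ1 := by
  obtain ⟨κn, hκn, hN⟩ := Rop_441.exists_num (δ := δ) (κ0 := κ0) (R := R) (c0 := c0) (κ2 := κ2)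
    hδ hκ0 hR hκ2 (s₁ := μ / 32) (by linarith) (by linarith)
  set C := Cs 3 δ R * (54 * κ0 / (c0 ^ 2 * κ2)) + Cn δ R with hC
  have hC0 : 0 ≤ C := by
    have h1 := Cs_nonneg (n := 3) hδ hR
    have h2 := Cn_nonneg hδ hR
    positivity
  have hCn := Cn_nonneg hδ hR
  have q1 : 0 < μ ^ 2 / (65536 * (Cn δ R + 1)) := by positivity
  have q2 : 0 < μ ^ 2 / (65536 * (C + 1)) := by positivity
  refine ⟨min (min 1 κn) (min (μ ^ 2 / (65536 * (Cn δ R + 1))) (μ ^ 2 / (65536 * (C + 1)))),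
    lt_min (lt_min one_pos hκn) (lt_min q1 q2), (min_le_left _ _).trans (min_le_left _ _), ?_⟩
  intro κ1 h0 h1
  have a1 : κ1 ≤ κn := h1.trans ((min_le_left _ _).trans (min_le_right _ _))
  have a2 : κ1 ≤ μ ^ 2 / (65536 * (Cn δ R + 1)) :=
    h1.trans ((min_le_right _ _).trans (min_le_left _ _))
  have a3 : κ1 ≤ μ ^ 2 / (65536 * (C + 1)) :=
    h1.trans ((min_le_right _ _).trans (min_le_right _ _))
  rw [le_div_iff₀ (by positivity)] at a2 a3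
  have e : η0F δ κ0 R c0 κ2 κ1 = C * κ1 := by
    rw [hC]; unfold η0F; ring
  refine ⟨hδ, hR, hμ, hμb, h0, by linarith, η0F_nonneg hδ hR hκ0 h0.le hκ2.le, ?_,
    hN κ1 h0.le a1⟩
  rw [e]
  nlinarith

section facts

variable {δ κ0 R c0 κ2 μ κ1 : ℝ}

theorem NumD.cn0 (h : NumD δ κ0 R c0 κ2 μ κ1) : 0 ≤ Cn δ R * κ1 :=
  mul_nonneg (Cn_nonneg h.hδ h.hR) h.hκ.le

theorem NumD.sq (h : NumD δ κ0 R c0 κ2 μ κ1) : μ ^ 2 ≤ μ / 64 := by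
  nlinarith [h.hμ, h.hμb]

/-- **the linear facts**: atoms `κ1`, `Cn δ R * κ1`, `μ` -/
theorem NumD.base (h : NumD δ κ0 R c0 κ2 μ κ1) :
    0 < κ1 ∧ 0 ≤ Cn δ R * κ1 ∧ 4194304 * (Cn δ R * κ1 + κ1) ≤ μ ∧ 0 < μ ∧ μ ≤ 1 / 64 ∧
      65536 * (Cn δ R * κ1 + κ1) ≤ μ ^ 2 := by
  have h1 := h.sm
  have h2 := h.sq
  have e : (Cn δ R + 1) * κ1 = Cn δ R * κ1 + κ1 := by ring
  rw [e] at h1
  exact ⟨h.hκ, h.cn0, by linarith, h.hμ, h.hμb, h1⟩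

/-- the closeness of the boundary homeomorphisms -/
theorem NumD.eta (h : NumD δ κ0 R c0 κ2 μ κ1) :
    0 ≤ η0F δ κ0 R c0 κ2 κ1 ∧ 4194304 * η0F δ κ0 R c0 κ2 κ1 ≤ μ :=
  ⟨h.et0, by linarith [h.et, h.sq]⟩

/-! ### DoorsQb, Dff2 (539), Exa14 (560), Flb6 / Fcd1 (422 / 117), Frs3 (662) -/

theorem NumD.half (h : NumD δ κ0 R c0 κ2 μ κ1) : μ ≤ 1 / 2 := by linarith [h.hμb]
theorem NumD.mu1 (h : NumD δ κ0 R c0 κ2 μ κ1) : μ < 1 := by linarith [h.hμb]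
theorem NumD.k1 (h : NumD δ κ0 R c0 κ2 μ κ1) : κ1 < 1 := by
  obtain ⟨n1, n2, n3, n4, n5, -⟩ := h.base; linarith
theorem NumD.kmu (h : NumD δ κ0 R c0 κ2 μ κ1) : κ1 < μ := by
  obtain ⟨n1, n2, n3, n4, n5, -⟩ := h.base; linarith
theorem NumD.ks1 (h : NumD δ κ0 R c0 κ2 μ κ1) : κ1 < μ / 32 := by
  obtain ⟨n1, n2, n3, n4, n5, -⟩ := h.base; linarith
theorem NumD.ss' (h : NumD δ κ0 R c0 κ2 μ κ1) : μ / 32 + κ1 ≤ μ / 4 := by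
  obtain ⟨n1, n2, n3, n4, n5, -⟩ := h.base; linarith
theorem NumD.ks' (h : NumD δ κ0 R c0 κ2 μ κ1) : 2 * κ1 < μ / 4 := by
  obtain ⟨n1, n2, n3, n4, n5, -⟩ := h.base; linarith
theorem NumD.cn1 (h : NumD δ κ0 R c0 κ2 μ κ1) : Cn δ R * κ1 < 1 := by
  obtain ⟨n1, n2, n3, n4, n5, -⟩ := h.base; linarith
theorem NumD.cn21 (h : NumD δ κ0 R c0 κ2 μ κ1) : (2 * Cn δ R + 1) * κ1 < 1 := by
  obtain ⟨n1, n2, n3, n4, n5, -⟩ := h.base; linarith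
theorem NumD.cn21' (h : NumD δ κ0 R c0 κ2 μ κ1) : (2 * Cn δ R + 1) * κ1 < 1 / 2 := by
  obtain ⟨n1, n2, n3, n4, n5, -⟩ := h.base; linarith
/-- 539 `exists_s2`, 106 -/
theorem NumD.cn8 (h : NumD δ κ0 R c0 κ2 μ κ1) : 8 * ((Cn δ R + 1) * κ1) ≤ μ := by
  obtain ⟨n1, n2, n3, n4, n5, -⟩ := h.base; linarith
/-- 539 #11955 : `(4 Cn + 1) κ1 < μ / 32` -/
theorem NumD.cn4 (h : NumD δ κ0 R c0 κ2 μ κ1) : (4 * Cn δ R + 1) * κ1 < μ / 32 := by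
  obtain ⟨n1, n2, n3, n4, n5, -⟩ := h.base; linarith
/-- 471 `tiny_rgnI`, `pos_tiny` -/
theorem NumD.cn3 (h : NumD δ κ0 R c0 κ2 μ κ1) : (3 * Cn δ R + 1) * κ1 < μ / 2 := by
  obtain ⟨n1, n2, n3, n4, n5, -⟩ := h.base; linarith
/-- 471 `pos_tiny` : `σ₁ = 9μ/32` -/
theorem NumD.sg1 (h : NumD δ κ0 R c0 κ2 μ κ1) : 9 * μ / 32 + Cn δ R * κ1 ≤ μ / 2 := by
  obtain ⟨n1, n2, n3, n4, n5, -⟩ := h.base; linarith
/-- the lower end of the machine window -/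
theorem NumD.wA (h : NumD δ κ0 R c0 κ2 μ κ1) : μ / 2 ≤ 1 - μ + Cn δ R * κ1 := by
  obtain ⟨n1, n2, n3, n4, n5, -⟩ := h.base; linarith
theorem NumD.wA' (h : NumD δ κ0 R c0 κ2 μ κ1) : 1 - μ ≤ 1 - μ + Cn δ R * κ1 := by
  obtain ⟨n1, n2, n3, n4, n5, -⟩ := h.base; linarith
theorem NumD.wAB (h : NumD δ κ0 R c0 κ2 μ κ1) : 1 - μ + Cn δ R * κ1 < 1 - μ / 2 := by
  obtain ⟨n1, n2, n3, n4, n5, -⟩ := h.base; linarith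
/-- the vertex `v0` -/
theorem NumD.v0 (h : NumD δ κ0 R c0 κ2 μ κ1) : (2 * Cn δ R + 1) * κ1 ≤ μ / 2 := by
  obtain ⟨n1, n2, n3, n4, n5, -⟩ := h.base; linarith
/-- the vertex `v1` -/
theorem NumD.v1 (h : NumD δ κ0 R c0 κ2 μ κ1) : 1 - μ / 2 ≤ 1 - (2 * Cn δ R + 1) * κ1 := by
  obtain ⟨n1, n2, n3, n4, n5, -⟩ := h.base; linarith
/-- 560 `Exa14` -/
theorem NumD.ex1 (h : NumD δ κ0 R c0 κ2 μ κ1) : (Cn δ R + 1) * κ1 < μ / 32 := by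
  obtain ⟨n1, n2, n3, n4, n5, -⟩ := h.base; linarith
theorem NumD.ex2 (h : NumD δ κ0 R c0 κ2 μ κ1) : μ / 32 + Cn δ R * κ1 ≤ μ / 2 := by
  obtain ⟨n1, n2, n3, n4, n5, -⟩ := h.base; linarith

/-! ### the barriers: `Nm` (4, 95), windows (438, 471), boxes (344, 106) -/

/-- **`Nm` OF RECORD** up to `1 + s`, `s ≤ μ / 2` -/
theorem nm_rec {s : ℝ} (hμ : 0 < μ) (hμb : μ ≤ 1 / 64) (h0 : 0 ≤ s) (hs : s ≤ μ / 2) :
    Nm (μ / 8) (1 / 2) (1 / 2 - 5 * μ / 16) (1 + s) := by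
  have e1 : (1 / 2 - 5 * μ / 16) * (1 + s) ≤ (1 / 2 - 5 * μ / 16) * (1 + μ / 2) :=
    mul_le_mul_of_nonneg_left (by linarith) (by linarith)
  have e2 : (1 / 2 - 5 * μ / 16) * (1 + μ / 2) < 1 / 2 := by nlinarith
  exact ⟨by linarith, by linarith, by linarith, by nlinarith, by linarith, by linarith⟩

theorem NumD.nm (h : NumD δ κ0 R c0 κ2 μ κ1) :
    Nm (μ / 8) (1 / 2) (1 / 2 - 5 * μ / 16) (1 + μ / 16) :=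
  nm_rec h.hμ h.hμb (by linarith [h.hμ]) (by linarith [h.hμ])

theorem NumD.l0 (h : NumD δ κ0 R c0 κ2 μ κ1) : 0 < μ / 8 := by linarith [h.hμ]
theorem NumD.ra (h : NumD δ κ0 R c0 κ2 μ κ1) : 1 / 4 ≤ 1 / 2 - 5 * μ / 16 := by
  linarith [h.hμb]
theorem NumD.ra0 (h : NumD δ κ0 R c0 κ2 μ κ1) : 0 < 1 / 2 - 5 * μ / 16 := by
  linarith [h.hμb]
/-- 4 `exists_bars` : `hdl` -/
theorem NumD.dl (h : NumD δ κ0 R c0 κ2 μ κ1) {d : ℝ} (hd : d ≤ κ1) : d ≤ μ / 8 := by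
  obtain ⟨n1, n2, n3, n4, n5, -⟩ := h.base; linarith
/-- 4 `exists_bars` : `hdr` -/
theorem NumD.dr (h : NumD δ κ0 R c0 κ2 μ κ1) {d : ℝ} (hd : d ≤ κ1) : d ≤ 1 / 2 - 5 * μ / 16 := by
  obtain ⟨n1, n2, n3, n4, n5, -⟩ := h.base; linarith

/-- **the oscillation of the function of a moat** -/
theorem NumD.om (h : NumD δ κ0 R c0 κ2 μ κ1) {d : ℝ} (hd : d ≤ κ1) :
    max (d / (μ / 8)) (d / (1 / 2 - 5 * μ / 16)) ≤ μ / 4096 := by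
  obtain ⟨n1, n2, n3, n4, n5, n6⟩ := h.base
  have hr := h.ra
  have h0 := h.ra0
  refine max_le ?_ ?_
  · rw [div_le_iff₀ (by linarith)]
    nlinarith
  · rw [div_le_iff₀ h0]
    nlinarith

/-- the same for multiples of `(2 Cn + 1) κ1` -/
theorem NumD.om2 (h : NumD δ κ0 R c0 κ2 μ κ1) {r : ℝ} (hr : r ≤ (4 * Cn δ R + 4) * κ1) :
    max (r / (μ / 8)) (r / (1 / 2 - 5 * μ / 16)) ≤ μ / 1024 := by
  obtain ⟨n1, n2, n3, n4, n5, n6⟩ := h.base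
  have hr' := h.ra
  have h0 := h.ra0
  refine max_le ?_ ?_
  · rw [div_le_iff₀ (by linarith)]
    nlinarith
  · rw [div_le_iff₀ h0]
    nlinarith

/-- 95 : `(2 Cn + 1) κ1 ≤ μ / 64 * l0` -/
theorem NumD.cnl0 (h : NumD δ κ0 R c0 κ2 μ κ1) : (2 * Cn δ R + 1) * κ1 ≤ μ / 64 * (μ / 8) := by
  obtain ⟨n1, n2, n3, n4, n5, n6⟩ := h.base; nlinarith

variable {hi : ℝ}

/-- the low end of the window of the barriers -/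
theorem NumD.lh (h : NumD δ κ0 R c0 κ2 μ κ1) (hh : hi ≤ 1 + μ / 16) :
    μ / 8 * hi ≤ 129 * μ / 1024 := by
  have h1 : μ / 8 * hi ≤ μ / 8 * (1 + μ / 16) :=
    mul_le_mul_of_nonneg_left hh (by linarith [h.hμ])
  nlinarith [h.sq]
/-- 438 `fs_low` : `l0 hi + Cn κ1 ≤ AB = 5μ/32` -/
theorem NumD.bA (h : NumD δ κ0 R c0 κ2 μ κ1) (hh : hi ≤ 1 + μ / 16) :
    μ / 8 * hi + Cn δ R * κ1 ≤ 5 * μ / 32 := by
  have h1 := h.lh hh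
  obtain ⟨n1, n2, n3, n4, n5, -⟩ := h.base; linarith
theorem NumD.bA1 (h : NumD δ κ0 R c0 κ2 μ κ1) (hh : hi ≤ 1 + μ / 16) :
    μ / 8 * hi + Cn δ R * κ1 < 1 := by
  have h1 := h.bA hh
  linarith [h.hμb]
/-- 438 : `v0` of a barrier is below the window -/
theorem NumD.bv0 (h : NumD δ κ0 R c0 κ2 μ κ1) : (2 * Cn δ R + 1) * κ1 ≤ 5 * μ / 32 := by
  obtain ⟨n1, n2, n3, n4, n5, -⟩ := h.base; linarith
/-- 438 : `v1` of a barrier is above the window -/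
theorem NumD.bv1 (h : NumD δ κ0 R c0 κ2 μ κ1) :
    3 * μ / 16 ≤ 1 - (2 * Cn δ R + 1) * κ1 := by
  obtain ⟨n1, n2, n3, n4, n5, -⟩ := h.base; linarith
theorem NumD.bAB (h : NumD δ κ0 R c0 κ2 μ κ1) : 5 * μ / 32 < 3 * μ / 16 := by
  linarith [h.hμ]
theorem NumD.bA0 (h : NumD δ κ0 R c0 κ2 μ κ1) : 0 ≤ 5 * μ / 32 := by linarith [h.hμ]
theorem NumD.bB1 (h : NumD δ κ0 R c0 κ2 μ κ1) : 3 * μ / 16 ≤ 1 := by linarith [h.hμb]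
/-- 471 `not_rgn_bar`, `reg_tiny` : `l0 hi + (3 Cn + 1) κ1 < BB = 3μ/16` -/
theorem NumD.bB (h : NumD δ κ0 R c0 κ2 μ κ1) (hh : hi ≤ 1 + μ / 16) :
    μ / 8 * hi + (3 * Cn δ R + 1) * κ1 < 3 * μ / 16 := by
  have h1 := h.lh hh
  obtain ⟨n1, n2, n3, n4, n5, -⟩ := h.base; linarith
/-- the walls: `ra hi` -/
theorem NumD.rh (h : NumD δ κ0 R c0 κ2 μ κ1) (hh : hi ≤ 1 + μ / 16) :
    (1 / 2 - 5 * μ / 16) * hi ≤ 1 / 2 - 9 * μ / 32 := by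
  have h1 : (1 / 2 - 5 * μ / 16) * hi ≤ (1 / 2 - 5 * μ / 16) * (1 + μ / 16) :=
    mul_le_mul_of_nonneg_left hh h.ra0.le
  nlinarith [h.hμ]
/-- 471 `h2`, 438 `h2` -/
theorem NumD.m0 (h : NumD δ κ0 R c0 κ2 μ κ1) (hh : hi ≤ 1 + μ / 16) :
    0 < 1 / 2 - (1 / 2 - 5 * μ / 16) * hi - (3 * Cn δ R + 1) * κ1 := by
  have h1 := h.rh hh
  obtain ⟨n1, n2, n3, n4, n5, -⟩ := h.base; linarith
theorem NumD.m0' (h : NumD δ κ0 R c0 κ2 μ κ1) (hh : hi ≤ 1 + μ / 16) :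
    0 < 1 / 2 - (1 / 2 - 5 * μ / 16) * hi - Cn δ R * κ1 := by
  have h1 := h.rh hh
  obtain ⟨n1, n2, n3, n4, n5, -⟩ := h.base; linarith
/-- 471 `h4`, 438 `h3` -/
theorem NumD.m1 (h : NumD δ κ0 R c0 κ2 μ κ1) (hh : hi ≤ 1 + μ / 16) :
    1 / 2 + (1 / 2 - 5 * μ / 16) * hi + (3 * Cn δ R + 1) * κ1 < 1 := by
  have h1 := h.rh hh
  obtain ⟨n1, n2, n3, n4, n5, -⟩ := h.base; linarith
theorem NumD.m1' (h : NumD δ κ0 R c0 κ2 μ κ1) (hh : hi ≤ 1 + μ / 16) :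
    1 / 2 + (1 / 2 - 5 * μ / 16) * hi + Cn δ R * κ1 < 1 := by
  have h1 := h.rh hh
  obtain ⟨n1, n2, n3, n4, n5, -⟩ := h.base; linarith
/-- the levels of the truthful barrier points: `hbr` of 471's `pos_tiny` -/
theorem NumD.br (h : NumD δ κ0 R c0 κ2 μ κ1) (hh : hi ≤ 1 + μ / 16) {t : ℝ}
    (ht : |t - 1 / 2| ≤ (1 / 2 - 5 * μ / 16) * hi) : 9 * μ / 32 ≤ t ∧ t ≤ 1 - 9 * μ / 32 := by
  have h1 := h.rh hh
  have h2 := abs_le.1 ht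
  constructor <;> linarith [h2.1, h2.2]
/-- 344 : `l = 3μ/16 + Cn κ1` -/
theorem NumD.bx (h : NumD δ κ0 R c0 κ2 μ κ1) : 2 * ((3 * μ / 16 + Cn δ R * κ1) + κ1) < 1 := by
  obtain ⟨n1, n2, n3, n4, n5, -⟩ := h.base; linarith
theorem NumD.bx' (h : NumD δ κ0 R c0 κ2 μ κ1) (hh : hi ≤ 1 + μ / 16) :
    μ / 8 * hi ≤ 3 * μ / 16 + Cn δ R * κ1 := by
  have h1 := h.lh hh
  obtain ⟨n1, n2, n3, n4, n5, -⟩ := h.base; linarith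
/-- box level `< s_b = 7μ/32 < s' = μ/4` -/
theorem NumD.bxs (h : NumD δ κ0 R c0 κ2 μ κ1) :
    (3 * μ / 16 + Cn δ R * κ1) + κ1 < 7 * μ / 32 ∧ 7 * μ / 32 + 2 * κ1 < μ / 4 := by
  obtain ⟨n1, n2, n3, n4, n5, -⟩ := h.base; constructor <;> linarith
/-- `σ₁` is above `s'` with margin, the NE zone is below the points of the families -/
theorem NumD.ne (h : NumD δ κ0 R c0 κ2 μ κ1) :
    μ / 4 + (4 * Cn δ R + 1) * κ1 < 9 * μ / 32 ∧ 9 * μ / 32 + (4 * Cn δ R + 4) * κ1 < 3 * μ / 8 ∧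
      3 * μ / 8 + (4 * Cn δ R + 4) * κ1 < μ / 2 := by
  obtain ⟨n1, n2, n3, n4, n5, -⟩ := h.base
  refine ⟨?_, ?_, ?_⟩ <;> linarith
/-- 539 : `t = μ/4 + Cn κ1` -/
theorem NumD.tt (h : NumD δ κ0 R c0 κ2 μ κ1) :
    (2 * Cn δ R + 1) * κ1 ≤ μ / 4 + Cn δ R * κ1 ∧ μ / 4 + Cn δ R * κ1 < 1 := by
  obtain ⟨n1, n2, n3, n4, n5, -⟩ := h.base
  constructor <;> linarith

end facts

end Crest.Agent.R096.Nmd1_698
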