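import Crest.Agent.R096.Bar2_106
import Crest.Agent.R096.Mbf_337
import Crest.Agent.R096.Init3_543
import Crest.Agent.R096.Frn1_337

/-!
# Row 96, DOORS, barriers (helper106), part 4: all moats; the moat at a boundary point of a quad

* `BM Φ X` : the moats at the tiny cores, `co`, `am`, `Zm`; countable;
* `out_one` : over a quad all other coordinates are `1`;
* `Fm_hi`, `Fm_lo`, `Fs_hi`, `Fs_lo` : the two moats of a quad;
* `mo_hi`, `mo_lo` : they are moats;
* `sep_same`, `sep_ne` : two moats are separated by one coordinate.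
-/

set_option autoImplicit false
set_option linter.unusedSectionVars false

open Set Topology Filter

namespace Crest.Agent.R096.Bar_106

open Crest.Agent.R096.Brk1_582 Crest.Agent.R096.Brk2_582 Crest.Agent.R096.Etg_163
open Crest.Agent.R096.Bsp_628 Crest.Agent.R096.Brk3_582 Crest.Agent.R096.Exc_965
open Crest.Agent.R096.Init_543

section sep

variable {I : Type*} {a a' : I} {Z Z' : Set I} {u : I → ℝ}

/-- two moats of one family: the deviations are not both small -/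
theorem sep_same (haZ : a ∉ Z) (haZ' : a ∉ Z') (hne : Z ≠ Z') {l : ℝ} (hl : 2 * l < 1)
    (h : ∀ e, dv a Z u e ≤ l) (h' : ∀ e, dv a Z' u e ≤ l) : False := by
  obtain ⟨e, he⟩ : ∃ e, ¬ (e ∈ Z ↔ e ∈ Z') := by
    by_contra hcon
    push Not at hcon
    exact hne (Set.ext hcon)
  have hea : e ≠ a := by
    rintro rfl
    exact he ⟨fun h => absurd h haZ, fun h => absurd h haZ'⟩
  have h1 := h e
  have h2 := h' e
  by_cases hZ : e ∈ Z
  · have hZ' : e ∉ Z' := fun h3 => he ⟨fun _ => h3, fun _ => hZ⟩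
    rw [dv_in hea hZ] at h1
    rw [dv_out hea hZ'] at h2
    linarith
  · have hZ' : e ∈ Z' := by
      by_contra h3
      exact he ⟨fun h => absurd h hZ, fun h => absurd h h3⟩
    rw [dv_out hea hZ] at h1
    rw [dv_in hea hZ'] at h2
    linarith

/-- two moats of different families -/
theorem sep_ne (hne : a ≠ a') {l α β : ℝ} (hα : l < α) (hβ : β < 1 - l)
    (hu : α ≤ u a ∧ u a ≤ β) (h' : ∀ e, dv a' Z' u e ≤ l) : False := by
  have h1 := h' a
  by_cases hZ : a ∈ Z'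
  · rw [dv_in hne hZ] at h1; linarith [hu.1]
  · rw [dv_out hne hZ] at h1; linarith [hu.2]

end sep

section quad

variable {E : Type} [NormedAddCommGroup E] [NormedSpace ℝ E] [FiniteDimensional ℝ E]
  [CompleteSpace E] {I : Type}
variable {La : Set E} {P : I → Set E} {b : Set I → E} {u : I → ℝ} {k : QK P} {c a a' : I}

/-- over a quad all other coordinates are `1` -/
theorem out_one (FF : Foam La P b 4) (hu : u ∈ K P) (k : QK P) (hZ : ∀ e ∈ k.Z, u e < 1)
    (hB : ∀ e ∈ k.B, u e < 1) {e : I} (he : e ∉ k.B) (he' : e ∉ k.Z) : u e = 1 := by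
  by_contra hne
  have he1 : u e < 1 := lt_of_le_of_ne (hu.1 e).2 hne
  have hne' : ({e | u e < 1} : Set I).Nonempty := ⟨e, he1⟩
  have hf := FF.finite_of_fc hne' hu.2.2
  have hc := FF.ncard_le_of_fc hne' hu.2.2
  have hsub : insert e (k.B ∪ k.Z) ⊆ {e | u e < 1} := by
    rintro x (rfl | hx | hx)
    · exact he1
    · exact hB x hx
    · exact hZ x hx
  have h1 := Set.ncard_le_ncard hsub hf
  rw [Set.ncard_insert_of_notMem (by rintro (h | h); exacts [he h, he' h])
    (k.finB.union k.finZ), k.card_union] at h1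
  omega

open Classical in
/-- the deviations at the moat `Z = k.Z` -/
theorem dv_hi (FF : Foam La P b 4) (hu : u ∈ K P) (ha : a ∈ k.B) (ha' : a' ∈ k.B) (hne : a ≠ a')
    (hZ : ∀ e ∈ k.Z, u e = 0) (hB : ∀ e ∈ k.B, u e < 1) (e : I) :
    dv a k.Z u e = if e = a' then 1 - u a' else 0 := by
  have hda : a' ∉ k.Z := fun h => Set.disjoint_left.1 k.dis ha' h
  by_cases hea : e = a
  · rw [hea, dv_self, if_neg hne]
  · by_cases hea' : e = a'
    · rw [if_pos hea', hea', dv_out hne.symm hda]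
    · rw [if_neg hea']
      by_cases heZ : e ∈ k.Z
      · rw [dv_in hea heZ, hZ e heZ]
      · have heB : e ∉ k.B := by
          obtain ⟨x, hx1, hx2, hx3⟩ := k.exists_other ha
          rw [hx3] at ha' ⊢
          have hx' : x = a' := by
            rcases ha' with h | h
            · exact absurd h hne.symm
            · exact h.symm
          rintro (h | h)
          · exact hea h
          · exact hea' (h.trans hx')
        rw [dv_out hea heZ, out_one FF hu k (fun e he => by rw [hZ e he]; exact zero_lt_one) hB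
          heB heZ, sub_self]

open Classical in
/-- the deviations at the moat `Z = k.Z ∪ {a'}` -/
theorem dv_lo (FF : Foam La P b 4) (hu : u ∈ K P) (ha : a ∈ k.B) (ha' : a' ∈ k.B) (hne : a ≠ a')
    (hZ : ∀ e ∈ k.Z, u e = 0) (hB : ∀ e ∈ k.B, u e < 1) (e : I) :
    dv a (insert a' k.Z) u e = if e = a' then u a' else 0 := by
  by_cases hea : e = a
  · rw [hea, dv_self, if_neg hne]
  · by_cases hea' : e = a'
    · rw [if_pos hea', hea', dv_in hne.symm (mem_insert _ _)]
    · have h := dv_hi FF hu ha ha' hne hZ hB e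
      rw [if_neg hea'] at h ⊢
      rw [← h]
      by_cases heZ : e ∈ k.Z
      · rw [dv_in hea heZ, dv_in hea (mem_insert_of_mem _ heZ)]
      · rw [dv_out hea heZ, dv_out hea (by
          rintro (h' | h')
          · exact hea' h'
          · exact heZ h')]

theorem Fm_hi (FF : Foam La P b 4) (hu : u ∈ K P) (ha : a ∈ k.B) (ha' : a' ∈ k.B) (hne : a ≠ a')
    (hZ : ∀ e ∈ k.Z, u e = 0) (hB : ∀ e ∈ k.B, u e < 1) : Fm a k.Z u = 1 - u a' := by
  classical
  apply le_antisymm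
  · refine Fm_le fun e => ?_
    rw [dv_hi FF hu ha ha' hne hZ hB]
    split_ifs
    · exact le_rfl
    · linarith [(hu.1 a').2]
  · have h := dv_le_Fm (a := a) (Z := k.Z) hu.1 a'
    rwa [dv_hi FF hu ha ha' hne hZ hB, if_pos rfl] at h

theorem Fm_lo (FF : Foam La P b 4) (hu : u ∈ K P) (ha : a ∈ k.B) (ha' : a' ∈ k.B) (hne : a ≠ a')
    (hZ : ∀ e ∈ k.Z, u e = 0) (hB : ∀ e ∈ k.B, u e < 1) :
    Fm a (insert a' k.Z) u = u a' := by
  classical
  apply le_antisymm
  · refine Fm_le fun e => ?_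
    rw [dv_lo FF hu ha ha' hne hZ hB]
    split_ifs
    · exact le_rfl
    · exact (hu.1 a').1
  · have h := dv_le_Fm (a := a) (Z := insert a' k.Z) hu.1 a'
    rwa [dv_lo FF hu ha ha' hne hZ hB, if_pos rfl] at h

theorem Fs_hi_le {N : Finset I} (FF : Foam La P b 4) (hu : u ∈ K P) (ha : a ∈ k.B)
    (ha' : a' ∈ k.B) (hne : a ≠ a') (hZ : ∀ e ∈ k.Z, u e = 0) (hB : ∀ e ∈ k.B, u e < 1) :
    Fs N a k.Z u ≤ 1 - u a' := by
  classical
  unfold Fs
  rw [Finset.sum_congr rfl fun e _ => dv_hi FF hu ha ha' hne hZ hB e, Finset.sum_ite_eq']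
  split_ifs
  · exact le_rfl
  · linarith [(hu.1 a').2]

theorem Fs_lo_le {N : Finset I} (FF : Foam La P b 4) (hu : u ∈ K P) (ha : a ∈ k.B)
    (ha' : a' ∈ k.B) (hne : a ≠ a') (hZ : ∀ e ∈ k.Z, u e = 0) (hB : ∀ e ∈ k.B, u e < 1) :
    Fs N a (insert a' k.Z) u ≤ u a' := by
  classical
  unfold Fs
  rw [Finset.sum_congr rfl fun e _ => dv_lo FF hu ha ha' hne hZ hB e, Finset.sum_ite_eq']
  split_ifs
  · exact le_rfl
  · exact (hu.1 a').1

end quad

section boxfoam

variable {κ : Type} [Fintype κ] [Nonempty κ] {La : Set (κ → ℝ)} {F : Set (Bx κ)} {δ κ0 : ℝ} {c a a' : F}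

/-- the moat at the side `u_a' ≈ 1` of the quad -/
theorem mo_hi (BF : BoxFoam La F δ κ0) (hLa : IsOpen La) (h3 : Fintype.card κ = 3)
    (k : QK (Pc F)) (hc : c ∈ k.Z) (ha : a ∈ k.B) : ∃ p m, Mo (Pc F) c a k.Z p m := by
  refine exists_mo BF hLa h3 hc (fun h => Set.disjoint_left.1 k.dis ha h) (Or.inl k.cZ) ?_
  refine k.ne.mono (fc_anti ?_)
  rintro x (rfl | hx)
  · exact Or.inl ha
  · exact Or.inr hx

/-- the moat at the side `u_a' ≈ 0` of the quad -/
theorem mo_lo (BF : BoxFoam La F δ κ0) (hLa : IsOpen La) (h3 : Fintype.card κ = 3)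
    (k : QK (Pc F)) (hc : c ∈ k.Z) (ha : a ∈ k.B) (ha' : a' ∈ k.B) (hne : a ≠ a') :
    ∃ p m, Mo (Pc F) c a (insert a' k.Z) p m := by
  have h2 : a' ∉ k.Z := fun h => Set.disjoint_left.1 k.dis ha' h
  refine exists_mo BF hLa h3 (mem_insert_of_mem _ hc) ?_ (Or.inr ?_) ?_
  · rintro (h | h)
    · exact hne h
    · exact Set.disjoint_left.1 k.dis ha h
  · rw [Set.ncard_insert_of_notMem h2 k.finZ, k.cZ]
  · refine k.ne.mono (fc_anti ?_)
    rintro x (rfl | rfl | hx)
    · exact Or.inl ha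
    · exact Or.inl ha'
    · exact Or.inr hx

end boxfoam

section all

open Crest.Agent.R096.SkC1_961 (E3 FoamD)
open Crest.Agent.R096.Frn_337 (Ti)

variable {δ κ0 R c0 : ℝ} {La : Set E3}

/-- **the moats at the tiny cores** -/
def BM (Φ : FoamD δ κ0 R c0 La) (X : Set Φ.F) : Type :=
  {x : Ti X × Φ.F × Set Φ.F // ∃ p m, Mo (Pc Φ.F) x.1.1 x.2.1 x.2.2 p m}

variable {Φ : FoamD δ κ0 R c0 La} {X : Set Φ.F}

namespace BM

/-- the core of the moat -/
def co (m : BM Φ X) : Φ.F := m.1.1.1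

/-- the family of the moat -/
def am (m : BM Φ X) : Φ.F := m.1.2.1

/-- the cells at coordinate 0 -/
def Zm (m : BM Φ X) : Set Φ.F := m.1.2.2

theorem co_notMem (m : BM Φ X) : m.co ∉ X := m.1.1.2

theorem mo (m : BM Φ X) : ∃ p q, Mo (Pc Φ.F) m.co m.am m.Zm p q := m.2

theorem ext {m m' : BM Φ X} (h1 : m.co = m'.co) (h2 : m.am = m'.am) (h3 : m.Zm = m'.Zm) : m = m' :=
  Subtype.ext (Prod.ext (Subtype.ext h1) (Prod.ext h2 h3))

/-- the moat at the side `u_a' ≈ 1` of the quad -/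
theorem exists_hi (hLa : IsOpen La) (k : QK (Pc Φ.F)) {c a : Φ.F} (hcX : c ∉ X) (hc : c ∈ k.Z)
    (ha : a ∈ k.B) : ∃ m : BM Φ X, m.co = c ∧ m.am = a ∧ m.Zm = k.Z :=
  ⟨⟨⟨⟨c, hcX⟩, a, k.Z⟩, mo_hi Φ.bf hLa (by simp) k hc ha⟩, rfl, rfl, rfl⟩

/-- the moat at the side `u_a' ≈ 0` of the quad -/
theorem exists_lo (hLa : IsOpen La) (k : QK (Pc Φ.F)) {c a a' : Φ.F} (hcX : c ∉ X) (hc : c ∈ k.Z)
    (ha : a ∈ k.B) (ha' : a' ∈ k.B) (hne : a ≠ a') :
    ∃ m : BM Φ X, m.co = c ∧ m.am = a ∧ m.Zm = insert a' k.Z :=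
  ⟨⟨⟨⟨c, hcX⟩, a, insert a' k.Z⟩, mo_lo Φ.bf hLa (by simp) k hc ha ha' hne⟩, rfl, rfl, rfl⟩

theorem Zm_finite (hLa : IsOpen La) (m : BM Φ X) : m.Zm.Finite := by
  obtain ⟨p, q, h⟩ := m.mo
  have FF : Foam La (Pc Φ.F) (bc (F := Φ.F)) (Fintype.card (Fin 3) + 1) := foam Φ.bf hLa
  have h1 := FF.finite_of_fc (⟨m.co, Or.inl h.cZ⟩) h.fcp
  exact h1.subset fun e he => Or.inl he

theorem countable (hLa : IsOpen La) : Countable (BM Φ X) := by
  classical
  have h1 : Countable Φ.F := Φ.bf.countable.to_subtype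
  have h2 : Function.Injective fun m : BM Φ X =>
      ((m.co, m.am, (Zm_finite hLa m).toFinset) : Φ.F × Φ.F × Finset Φ.F) := by
    intro m m' h
    have h3 := Prod.mk.inj h
    have h4 := Prod.mk.inj h3.2
    refine BM.ext h3.1 h4.1 ?_
    have h5 := congrArg (fun s : Finset Φ.F => (s : Set Φ.F)) h4.2
    simpa using h5
  exact h2.countable

end BM

end all

end Crest.Agent.R096.Bar_106
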