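import Crest.Agent.R096.Dff1_539
import Crest.Agent.R096.Frs2_662

/-!
# R096 (row 96), DOORS_final, composition, part 2 (helper539): the state with layers and barriers
-/

set_option autoImplicit false
set_option linter.unusedSectionVars false
set_option linter.style.longLine false

open Set Topology Filter Metric Module
open scoped Classical

namespace Crest.Agent.R096.Dff_539

open Crest.Agent.R096.Msh_715 Crest.Agent.R096.Coh_184 Crest.Agent.R096.Lab_184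
  Crest.Agent.R096.Main_4 Crest.Agent.R096.Agl4_543 Crest.Agent.R096.Agl5_543
  Crest.Agent.R096.Agl6_543
  Crest.Agent.R096.Seq_213 Crest.Agent.R096.St_147 Crest.Agent.R096.Door_501
  Crest.Agent.R096.Twr_438 Crest.Agent.R096.Exa_560 Crest.Agent.R096.Qp_106
  Crest.Agent.R096.Ess3_95 Crest.Agent.R096.Ess4_95 Crest.Agent.R096.Ac_117 Crest.Agent.R096.Lm_117
  Crest.Agent.R096.Dfi_539 Crest.Agent.R096.Dfi_471 Crest.Agent.R096.Sla_184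
open Crest.Agent.R096.Mbf_337 (KJ Tiny Cores Fine sb)
open Crest.Agent.R096.SkC1_961 (E3 FoamD Hom3)
open Crest.Agent.R096.Frn_337 (Ti)
open Crest.Agent.R096.Init_543
open Crest.Agent.R096.Ess7_95 (KT Sh)
open Crest.Agent.R096.Dia_316 (nbT)
open Crest.Agent.R096.Brk1_582 Crest.Agent.R096.Brk2_582 Crest.Agent.R096.Brk3_582
  Crest.Agent.R096.Brk5_582 Crest.Agent.R096.Bsp_628
open Crest.Agent.R96.Push_899
open Crest.Agent.R096.Frs_662 (slC)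

variable {δ κ0 R c0 : ℝ} {La Om : Set E3} {ι : Type} {Φ : FoamD δ κ0 R c0 La} {T : Tiling Om ι}
  {f g : E3 → E3} {κ1 κ2 μ : ℝ} {X : Set Φ.F} {J0 Jt V : Φ.F → Set ι}
  {ct ct' : Φ.F → ι} {A : Φ.F → E3 ≃ᵃ[ℝ] E3} {lam : Φ.F → ℝ} {z : Φ.F → E3}
  {θ : Φ.F → E3 → E3} {φ : Φ.F → E3 → ℝ} {r₀ : Φ.F → ℝ}
  {L : Φ.F → Finset ℝ} [Nonempty (JJ Φ L)] {hG : GF Φ r₀ T f L} {bp : JJ Φ L → E3}

/-- families and barriers -/
abbrev fmB (Φ : FoamD δ κ0 R c0 La) (L : Φ.F → Finset ℝ) (Mo : Type) : JJ Φ L ⊕ Mo → Φ.F ⊕ Mo :=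
  Sum.map (fun j : JJ Φ L => j.1) id

/-- the truthful state of the families together with the barriers `sB` -/
noncomputable abbrev sJB (hG : GF Φ r₀ T f L) (bp : JJ Φ L → E3) {Mo : Type}
    (sB : GSt (meshC T fr3) (id : Mo → Mo)) (hd : ∀ w ∈ (st0 hG bp).P, w ∉ sB.P) :
    GSt (meshC T fr3) (fmB Φ L Mo) := Dis_184.gsum (st0 hG bp) sB hd

/-- vertices for the families and for the barriers -/
def vS {κ C1 C2 : Type} {Kc : κ → Set E3} (v : ∀ c, C1 → VxK T Kc c) (v' : ∀ c, C2 → VxK T Kc c) :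
    ∀ c, C1 ⊕ C2 → VxK T Kc c := fun c => Sum.elim (v c) (v' c)

/-- **the state with layers and barriers** : `D` over `T`, towers `Tw` over the slices -/
theorem exists_s2 (hLa : IsOpen La) (hLc : IsPreconnected La) (hf : Hom3 f Om La)
    (hδ : 0 < δ) (hR : 0 < R) (hκ0 : 0 < κ1) (hκ : 8 * ((Cn δ R + 1) * κ1) ≤ μ) (hμ1 : μ ≤ 1 / 2)
    (hC : Cores Φ T f κ1 κ2 X J0 Jt V ct A lam z θ φ) (hF : Fine Φ T f κ1 J0)
    {hI : InitR Φ T f g J0 ct' r₀} {ε s₁ : ℝ}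
    {hM : Mesh0 T (Pc Φ.F) (bc (F := Φ.F)) (RF Φ r₀) f (KorJ Φ J0) ε} {hε : ε < s₁} {hε1 : ε < 1}
    {D : Φ.F → Set E3} {lam₀ : JJ Φ L → E3 → ZMod 2} {v₀ v₁ : Φ.F → E3}
    (hS : InitS hLa hI hM hε hε1 hG D bp lam₀ v₀ v₁)
    (hm : ∀ c, ∀ t ∈ L c, μ ≤ t ∧ t ≤ 1 - μ)
    {Mo : Type} {sB : GSt (meshC T fr3) (id : Mo → Mo)} (hd : ∀ w ∈ (st0 hG bp).P, w ∉ sB.P)
    {rB : Mo → E3} {SfB : Mo → Set E3} {nbB : Ti X → Mo → Prop}
    {v0B v1B : ∀ c, Mo → VxK T (KT T Jt X) c} {uB : Ti X → Mo → E3 → ℝ} {AB BB : Ti X → Mo → ℝ}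
    (DB : DIn (fun c => Dia_316.coreH_KT hC c) sB rB SfB nbB v0B v1B uB AB BB) (m : Ti X → ℕ) :
    ∃ (r : JJ Φ L → E3) (v0 v1 : ∀ c, Φ.F → VxK T (KT T Jt X) c),
      (∀ j, (r j ∈ (st0 hG bp).P ∧ (st0 hG bp).lab (r j) = j) ∧
        ∃ q, r j ∈ P (T.H q) ∧ (∃ c, ∃ x ∈ P (T.H q), f x ∈ Lbp_438.Wl Φ c) ∧ ∀ c, q ∉ V c) ∧
      (∀ (c : {c : Φ.F // c ∉ X}) a, nbT Φ X c a →
        sb Φ (θ c.1 (v0 c a).1) a ≤ (2 * Cn δ R + 1) * κ1) ∧
      (∀ (c : {c : Φ.F // c ∉ X}) a, nbT Φ X c a →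
        1 - (2 * Cn δ R + 1) * κ1 ≤ sb Φ (θ c.1 (v1 c a).1) a) ∧
      DIn (fun c => Dia_316.coreH_KT hC c) (sJB hG bp sB hd) (Sum.elim r rB)
          (Sum.elim (fun j => Sh Om Φ r₀ f j) SfB) (fun c => Sum.elim (nbT Φ X c) (nbB c))
          (vS v0 v0B) (vS v1 v1B)
          (fun c => Sum.elim (fun a x => sb Φ (θ c.1 x) a) (uB c))
          (fun c => Sum.elim (fun _ => 1 - μ + Cn δ R * κ1) (AB c))
          (fun c => Sum.elim (fun _ => 1 - μ / 2) (BB c)) ∧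
      ∃ (n : Ti X → ℕ) (hn : ∀ c, 0 < n c), (∀ c, m c ≤ n c) ∧
        ∃ (Lv : ∀ c, Φ.F ⊕ Mo → Lev T (frontier ((slC hLa hC n hn).K c)) (JJ Φ L ⊕ Mo))
          (Tw : Twrs ((slC hLa hC n hn).sh fr3) (slC hLa hC n hn).n
            (outK (slC hLa hC n hn).hH (slC hLa hC n hn).dis (sJB hG bp sB hd) (Sum.elim r rB))),
          LevOut (sJB hG bp sB hd) (fun c => Sum.elim (nbT Φ X c) (nbB c))
            (fun c => Sum.elim (fun a x => sb Φ (θ c.1 x) a) (uB c))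
            (fun c => Sum.elim (fun _ => 1 - μ + Cn δ R * κ1) (AB c))
            (fun c => Sum.elim (fun _ => 1 - μ / 2) (BB c)) Lv ∧
          TwOut (slC hLa hC n hn) fr3 (sJB hG bp sB hd) (Sum.elim r rB)
            (vS v0 v0B) (vS v1 v1B) Lv Tw ∧
          Mon (slC hLa hC n hn) fr3 Lv Tw := by
  obtain ⟨r, v0, v1, h1, h2, h3, D1⟩ := Dia_316.exists_dIn_init (hH := fun c => Dia_316.coreH_KT hC c)
    hLa hLc hf hδ hR hκ0 hκ hμ1 hC hF hS hm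
  have D2 : DIn (fun c => Dia_316.coreH_KT hC c) (sJB hG bp sB hd) (Sum.elim r rB)
      (Sum.elim (fun j => Sh Om Φ r₀ f j) SfB) (fun c => Sum.elim (nbT Φ X c) (nbB c))
      (vS v0 v0B) (vS v1 v1B)
      (fun c => Sum.elim (fun a x => sb Φ (θ c.1 x) a) (uB c))
      (fun c => Sum.elim (fun _ => 1 - μ + Cn δ R * κ1) (AB c))
      (fun c => Sum.elim (fun _ => 1 - μ / 2) (BB c)) := by
    have h := Dis_184.din_sum (Dis_184.gsum_left (hd := hd)) (Dis_184.gsum_right (hd := hd)) D1 DB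
    refine Eq.mp ?_ h
    congr 1
    · funext c a; cases a <;> rfl
    · funext c a; cases a <;> rfl
  obtain ⟨n, hn, hmn, Lv, Tw, lo, tt, mon⟩ := exists_pipe hLa hC.tiny D2 m
  exact ⟨r, v0, v1, h1, h2, h3, D2, n, hn, hmn, Lv, Tw, lo, tt, mon⟩

end Crest.Agent.R096.Dff_539
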