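import Crest.Agent.R096.Ac6_117

/-!
# Row 96: the abstract layered mesh (337 #9683 (3)), part 1 (helper662)

`LMesh M` : a combinatorial mesh `M : MeshC ι Φ W` with its vertices and edges and
* `face` : a set which is even on a 2-cell has labels on its vertices, which describe the positions;
* `cell` : a set which is even on all 2-cells of a 3-cell has labels on the vertices of the 3-cell;
* `conn` : the vertices of a 2-cell are connected through its edges.
`LMesh.sphM` : `Ac_117.SphM M q` for every cell `q`.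
-/

set_option autoImplicit false
set_option linter.unusedSectionVars false

open Set

namespace Crest.Agent.R096.Lms_662

open St_147 Ac_117

open Classical in
/-- number mod 2 of the points of `y` in `A` -/
noncomputable def cn {W : Type} (y : Finset W) (A : Set W) : ZMod 2 :=
  ((y.filter (fun v => v ∈ A)).card : ZMod 2)

open Classical in
/-- **mesh with vertices and edges** -/
structure LMesh {ι Φ W : Type} (M : MeshC ι Φ W) where
  /-- vertices -/
  Vx : Type
  /-- edges -/
  Ed : Type
  /-- the two ends of an edge -/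
  en : Ed → Bool → Vx
  /-- the candidate points on an edge -/
  OnE : Ed → Set W
  /-- the edges of a face -/
  EF : Φ → Set Ed
  /-- position along the edge, from `en e false` to `en e true` -/
  t : W → ℝ
  /-- orientation of `pos F` against `t` at a point -/
  eps : Φ → W → ZMod 2
  on : ∀ F w, w ∈ M.On F ↔ ∃ e ∈ EF F, w ∈ OnE e
  uniq : ∀ e e' w, w ∈ OnE e → w ∈ OnE e' → e = e'
  tinj : ∀ e, InjOn t (OnE e)
  face : ∀ F (y : Finset W), Even (y.filter (fun v => v ∈ M.On F)).card → ∃ μ : Vx → ZMod 2,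
    (∀ e ∈ EF F, μ (en e true) = μ (en e false) + cn y (OnE e)) ∧
    ∀ e ∈ EF F, ∀ w ∈ OnE e, cntP M y F (M.pos F w) =
      μ (en e false) + cn y {v | v ∈ OnE e ∧ t v < t w} + (if w ∈ y then eps F w else 0)
  cell : ∀ q (y : Finset W), (∀ F, q ∈ M.side F → Even (y.filter (fun v => v ∈ M.On F)).card) →
    ∃ lam : Vx → ZMod 2, ∀ F, q ∈ M.side F → ∀ e ∈ EF F,
      lam (en e true) = lam (en e false) + cn y (OnE e)
  conn : ∀ F (X : Set Vx), (∀ e ∈ EF F, en e false ∈ X ↔ en e true ∈ X) →
    ∀ e ∈ EF F, ∀ e' ∈ EF F, en e false ∈ X ↔ en e' false ∈ X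

namespace LMesh

variable {ι Φ W : Type} {M : MeshC ι Φ W} (L : LMesh M)

theorem const_face {F : Φ} {φ : L.Vx → ZMod 2}
    (h : ∀ e ∈ L.EF F, φ (L.en e false) = φ (L.en e true)) :
    ∀ e ∈ L.EF F, ∀ e' ∈ L.EF F, φ (L.en e false) = φ (L.en e' false) := by
  intro e he e' he'
  have h1 := (L.conn F {v | φ v = φ (L.en e false)} (fun e₁ h₁ => by
    show φ (L.en e₁ false) = _ ↔ φ (L.en e₁ true) = _
    rw [h e₁ h₁]) e he e' he').1 rfl
  exact h1.symm

theorem faces_unique {q : ι} {w : W} {F F' G G' : Φ}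
    (hF : q ∈ M.side F) (hF' : q ∈ M.side F') (hG : q ∈ M.side G) (hG' : q ∈ M.side G')
    (wF : w ∈ M.On F) (wF' : w ∈ M.On F') (wG : w ∈ M.On G) (wG' : w ∈ M.On G') (hFF : F ≠ F')
    (hGG : G ≠ G') : (G = F ∧ G' = F') ∨ (G = F' ∧ G' = F) := by
  have hfin : {F | q ∈ M.side F ∧ w ∈ M.On F}.Finite := (M.fin w).subset fun F hF => hF.2
  rcases M.deg q w with h | h
  · exfalso
    rw [Set.ncard_eq_zero hfin] at h
    have : F ∈ (∅ : Set Φ) := h ▸ (⟨hF, wF⟩ : F ∈ {F | q ∈ M.side F ∧ w ∈ M.On F})
    exact this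
  · rw [Set.ncard_eq_two] at h
    obtain ⟨K, K', hne, h⟩ := h
    have key : ∀ L : Φ, q ∈ M.side L → w ∈ M.On L → L = K ∨ L = K' := by
      intro L h1 h2
      have : L ∈ {F | q ∈ M.side F ∧ w ∈ M.On F} := ⟨h1, h2⟩
      rw [h] at this
      simpa using this
    rcases key F hF wF with rfl | rfl <;> rcases key F' hF' wF' with rfl | rfl <;>
      rcases key G hG wG with rfl | rfl <;> rcases key G' hG' wG' with rfl | rfl <;> tauto

open Classical in
/-- **the boundary of every cell is a sphere** -/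
noncomputable def sphM (q : ι) : SphM M q where
  opp := fun w => decide (∃ F F' : Φ, q ∈ M.side F ∧ q ∈ M.side F' ∧ w ∈ M.On F ∧
    w ∈ M.On F' ∧ L.eps F w ≠ L.eps F' w)
  sph := by
    intro y hy
    obtain ⟨lam, hlam⟩ := L.cell q y hy
    have hμ : ∀ F : Φ, ∃ μ : L.Vx → ZMod 2, q ∈ M.side F →
        (∀ e ∈ L.EF F, μ (L.en e true) = μ (L.en e false) + cn y (L.OnE e)) ∧
        ∀ e ∈ L.EF F, ∀ w ∈ L.OnE e, cntP M y F (M.pos F w) =
          μ (L.en e false) + cn y {v | v ∈ L.OnE e ∧ L.t v < L.t w} +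
            (if w ∈ y then L.eps F w else 0) := by
      intro F
      by_cases h : q ∈ M.side F
      · obtain ⟨μ, h1⟩ := L.face F y (hy F h)
        exact ⟨μ, fun _ => h1⟩
      · exact ⟨fun _ => 0, fun h' => absurd h' h⟩
    choose μ hμ using hμ
    refine ⟨fun F => if h : ∃ e, e ∈ L.EF F then
      lam (L.en h.choose false) + μ F (L.en h.choose false) else 0, ?_⟩
    have main : ∀ F : Φ, q ∈ M.side F → ∀ e ∈ L.EF F, ∀ w ∈ L.OnE e,
        (if h : ∃ e, e ∈ L.EF F then
          lam (L.en h.choose false) + μ F (L.en h.choose false) else 0) +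
            cntP M y F (M.pos F w) = lam (L.en e false) +
              cn y {v | v ∈ L.OnE e ∧ L.t v < L.t w} + (if w ∈ y then L.eps F w else 0) := by
      intro F hF e he w hw
      obtain ⟨h1, h2⟩ := hμ F hF
      have h5 : ∃ e, e ∈ L.EF F := ⟨e, he⟩
      have hc := L.const_face (F := F) (φ := fun v => lam v + μ F v) (by
        intro e' he'
        show lam _ + μ F _ = lam _ + μ F _
        rw [hlam F hF e' he', h1 e' he']
        have : ∀ a b c : ZMod 2, a + b = a + c + (b + c) := by decide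
        exact this _ _ _) _ h5.choose_spec e he
      have hc' : lam (L.en h5.choose false) + μ F (L.en h5.choose false) =
        lam (L.en e false) + μ F (L.en e false) := hc
      rw [dif_pos h5, hc', h2 e he w hw]
      have : ∀ a b c d : ZMod 2, a + b + (b + c + d) = a + c + d := by decide
      exact this _ _ _ _
    intro F F' w hF hF' hne hw hw'
    obtain ⟨e, he, hwe⟩ := (L.on F w).1 hw
    obtain ⟨e', he', hwe'⟩ := (L.on F' w).1 hw'
    have := L.uniq e e' w hwe hwe'
    subst this
    have e1 := main F hF e he w hwe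
    have e2 := main F' hF' e he' w hwe'
    have e3 : (if w ∈ y then L.eps F w else 0) = (if w ∈ y then L.eps F' w else 0) +
        (if w ∈ y ∧ decide (∃ F F' : Φ, q ∈ M.side F ∧ q ∈ M.side F' ∧ w ∈ M.On F ∧
          w ∈ M.On F' ∧ L.eps F w ≠ L.eps F' w) = true then (1 : ZMod 2) else 0) := by
      by_cases hwy : w ∈ y
      · rw [if_pos hwy, if_pos hwy]
        have two : ∀ s t : ZMod 2, s ≠ t → s = t + 1 := by decide
        by_cases hc : L.eps F w = L.eps F' w
        · rw [if_neg, hc, add_zero]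
          rintro ⟨-, h6⟩
          obtain ⟨G, G', hG, hG', wG, wG', h7⟩ := of_decide_eq_true h6
          have hGG : G ≠ G' := fun h8 => h7 (by rw [h8])
          rcases faces_unique hF hF' hG hG' hw hw' wG wG' hne hGG with ⟨rfl, rfl⟩ | ⟨rfl, rfl⟩
          · exact h7 hc
          · exact h7 hc.symm
        · rw [if_pos ⟨hwy, decide_eq_true ⟨F, F', hF, hF', hw, hw', hc⟩⟩]
          exact two _ _ hc
      · rw [if_neg hwy, if_neg hwy, if_neg (fun h => hwy h.1), add_zero]
    refine Eq.trans e1 ?_
    rw [e3, ← add_assoc, ← e2]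

end LMesh

end Crest.Agent.R096.Lms_662
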