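import Crest.Agent.R096.Lm1_117
import Crest.Agent.R096.Lms1_662

/-!
# Row 96: `SphM` from helper117's `LM` (helper662)

`LM.sphM` : for every mesh with labels (`Lm_117.LM`), every tile `q` whose faces are the 2-cells
below a cell `c` : `SphM M q`.  No hypothesis on the cut points of the positions.
-/

set_option autoImplicit false
set_option linter.unusedSectionVars false

open Set

namespace Crest.Agent.R096.Lms_662

open Crest.Agent.R096.St_147 Crest.Agent.R096.Ac_117 Crest.Agent.R096.Lm_117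

variable {ι Φ W Q : Type} {M : MeshC ι Φ W} [PartialOrder Q] {dim : Q → ℕ}

open Classical in
/-- indicator in `ZMod 2` -/
noncomputable def bi (p : Prop) : ZMod 2 := if p then 1 else 0

open Classical in
/-- exchange of a point `w` of `y` by a point `u` outside `y` -/
noncomputable def exc (y : Finset W) (w u : W) : Finset W := insert u (y.erase w)

theorem nW_exc {y : Finset W} {w u : W} (hw : w ∈ y) (hu : u ∉ y) (X : Set W) :
    nW (exc y w u) X = nW y X + bi (w ∈ X) + bi (u ∈ X) := by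
  classical
  have hwu : u ∉ y.erase w := fun h => hu (Finset.mem_of_mem_erase h)
  unfold nW exc bi
  rw [Finset.sum_insert hwu, ← Finset.add_sum_erase y _ hw]
  have key : ∀ a b c : ZMod 2, a + b = c + b + c + a := by decide
  exact key _ _ _

theorem cntP_eq_nW (y : Finset W) (F : Φ) (s : ℝ) :
    cntP M y F s = nW y {v | v ∈ M.On F ∧ M.pos F v < s} := by
  classical
  rw [nW_card]
  unfold cntP
  congr 2
  ext v
  simp only [Finset.mem_filter, mem_ofPred_eq]

theorem nW_On (y : Finset W) (F : Φ) [DecidablePred fun v => v ∈ M.On F] :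
    Even (y.filter (fun v => v ∈ M.On F)).card ↔ nW y (M.On F) = 0 := by
  have e : nW y (M.On F) = ((y.filter (fun v => v ∈ M.On F)).card : ZMod 2) := by
    rw [nW_card]
    congr 2
    ext v
    simp only [Finset.mem_filter]
  rw [e, ZMod.natCast_eq_zero_iff, even_iff_two_dvd]

variable (L : LM M Q dim)

/-- the sign of the order of `u`, `w` on `F`, seen from the vertex `v` -/
noncomputable def dl (F : Φ) (v : Q) (u w : W) : ZMod 2 :=
  bi (M.pos F w < L.vpos F v) + bi (M.pos F u < L.vpos F v) + bi (M.pos F u < M.pos F w)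

variable {L}

theorem on_of_ed {F : Φ} {u w : W} (hw : w ∈ M.On F) (hu : u ∈ L.W1) (he : L.ed u = L.ed w) :
    u ∈ M.On F := (L.on_iff F u).2 ⟨hu, by rw [he]; exact ((L.on_iff F w).1 hw).2⟩

/-- main formula for `w ∉ y` -/
theorem formula_out {F : Φ} {c : Q} {y : Finset W} {lam : Q → ZMod 2} (hF : L.cf F ≤ c)
    (hy : nW y (M.On F) = 0) (hlam : L.toSk.XL y lam c) {w : W} (hw : w ∈ M.On F) (hwy : w ∉ y)
    {v : Q} (hv : v ≤ L.cf F) (h0 : dim v = 0) :
    lam v + cntP M y F (L.vpos F v) + cntP M y F (M.pos F w) = L.toSk.ext y lam w := by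
  obtain ⟨h1, h2⟩ := L.face F y hy
  rw [← h2 w hw hwy]
  have hin : w ∈ L.toSk.In (L.cf F) := ((L.on_iff F w).1 hw)
  have h3 := (hlam.mono hF).unique_ext h1 (fun _ _ => Iff.rfl) hv h0 hin
  have key : ∀ a b c : ZMod 2, a + b = c → c + b = a := by decide
  exact key _ _ _ h3

/-- main formula for `w ∈ y` -/
theorem formula_in {F : Φ} {c : Q} {y : Finset W} {lam : Q → ZMod 2} (hF : L.cf F ≤ c)
    (hy : nW y (M.On F) = 0) (hlam : L.toSk.XL y lam c) {w u : W} (hw : w ∈ M.On F) (hwy : w ∈ y)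
    (hu : u ∈ L.W1) (huw : L.ed u = L.ed w) (huy : u ∉ y)
    {v : Q} (hv : v ≤ L.cf F) (h0 : dim v = 0) :
    lam v + cntP M y F (L.vpos F v) + cntP M y F (M.pos F w) + dl L F v u w =
      L.toSk.ext (exc y w u) lam w := by
  classical
  have huF : u ∈ M.On F := on_of_ed hw hu huw
  have hwW : w ∈ L.W1 := ((L.on_iff F w).1 hw).1
  have hy' : nW (exc y w u) (M.On F) = 0 := by
    rw [nW_exc hwy huy, hy]
    unfold bi
    rw [if_pos hw, if_pos huF]
    decide
  have hne : u ≠ w := fun h => huy (h ▸ hwy)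
  have hlam' : L.toSk.XL (exc y w u) lam c := by
    intro e he h1
    rw [hlam e he h1, nW_exc hwy huy]
    have : (w ∈ L.toSk.On1 e) ↔ (u ∈ L.toSk.On1 e) := by
      constructor
      · rintro ⟨_, h⟩; exact ⟨hu, huw.trans h⟩
      · rintro ⟨_, h⟩; exact ⟨hwW, huw.symm.trans h⟩
    unfold bi
    by_cases h : w ∈ L.toSk.On1 e
    · rw [if_pos h, if_pos (this.1 h)]
      have key : ∀ a : ZMod 2, a = a + 1 + 1 := by decide
      exact key _
    · rw [if_neg h, if_neg (fun h' => h (this.2 h'))]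
      simp
  have hwy' : w ∉ exc y w u := by
    unfold exc
    rw [Finset.mem_insert, Finset.mem_erase]
    rintro (h | h)
    · exact hne h.symm
    · exact h.1 rfl
  have h1 := formula_out hF hy' hlam' hw hwy' hv h0
  rw [← h1, cntP_eq_nW, cntP_eq_nW, cntP_eq_nW, cntP_eq_nW, nW_exc hwy huy, nW_exc hwy huy]
  unfold dl
  have e1 : bi (w ∈ {v' | v' ∈ M.On F ∧ M.pos F v' < L.vpos F v}) =
      bi (M.pos F w < L.vpos F v) := by
    unfold bi; congr 1; simp [hw]
  have e2 : bi (u ∈ {v' | v' ∈ M.On F ∧ M.pos F v' < L.vpos F v}) =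
      bi (M.pos F u < L.vpos F v) := by
    unfold bi; congr 1; simp [huF]
  have e3 : bi (w ∈ {v' | v' ∈ M.On F ∧ M.pos F v' < M.pos F w}) = 0 := by
    unfold bi; simp
  have e4 : bi (u ∈ {v' | v' ∈ M.On F ∧ M.pos F v' < M.pos F w}) =
      bi (M.pos F u < M.pos F w) := by
    unfold bi; congr 1; simp [huF]
  rw [e1, e2, e3, e4]
  ring

/-- two points of a 1-cell: the change of `dl` does not depend on the face -/
theorem dl_add {F : Φ} {u u' w : W} (hw : w ∈ M.On F) (hu : u ∈ L.W1) (hu' : u' ∈ L.W1)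
    (he : L.ed u = L.ed w) (he' : L.ed u' = L.ed w) (huw : u ≠ w) (huw' : u' ≠ w) (huu : u ≠ u')
    {v : Q} (hv : v ≤ L.cf F) (h0 : dim v = 0) :
    dl L F v u w + dl L F v u' w = (open Classical in L.toSk.pre {u, u'} w) := by
  classical
  have huF : u ∈ M.On F := on_of_ed hw hu he
  have huF' : u' ∈ M.On F := on_of_ed hw hu' he'
  have hnW : ∀ X : Set W, nW {u, u'} X = bi (u ∈ X) + bi (u' ∈ X) := by
    intro X
    unfold nW bi
    rw [Finset.sum_pair huu]
  have hy : nW {u, u'} (M.On F) = 0 := by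
    rw [hnW]
    unfold bi
    rw [if_pos huF, if_pos huF']
    decide
  have hwy : w ∉ ({u, u'} : Finset W) := by
    rw [Finset.mem_insert, Finset.mem_singleton]
    rintro (h | h)
    · exact huw h.symm
    · exact huw' h.symm
  have hlam : L.toSk.XL {u, u'} (fun _ => 0) (L.cf F) := by
    intro e _ _
    rw [hnW]
    have : (u ∈ L.toSk.On1 e) ↔ (u' ∈ L.toSk.On1 e) := by
      constructor
      · rintro ⟨_, h⟩; exact ⟨hu', (he'.trans he.symm).trans h⟩
      · rintro ⟨_, h⟩; exact ⟨hu, (he.trans he'.symm).trans h⟩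
    unfold bi
    by_cases h : u ∈ L.toSk.On1 e
    · rw [if_pos h, if_pos (this.1 h)]
      show (0 : ZMod 2) + 0 = 1 + 1
      decide
    · rw [if_neg h, if_neg (fun h' => h (this.2 h'))]
  have h1 := formula_out (c := L.cf F) le_rfl hy hlam hw hwy hv h0
  have h2 : L.toSk.ext {u, u'} (fun _ => 0) w = L.toSk.pre {u, u'} w := by
    unfold Sk.ext
    rw [zero_add]
  rw [h2, cntP_eq_nW, cntP_eq_nW, hnW, hnW, zero_add] at h1
  have e1 : bi (u ∈ {v' | v' ∈ M.On F ∧ M.pos F v' < L.vpos F v}) =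
      bi (M.pos F u < L.vpos F v) := by
    unfold bi; congr 1; simp [huF]
  have e2 : bi (u' ∈ {v' | v' ∈ M.On F ∧ M.pos F v' < L.vpos F v}) =
      bi (M.pos F u' < L.vpos F v) := by
    unfold bi; congr 1; simp [huF']
  have e3 : bi (u ∈ {v' | v' ∈ M.On F ∧ M.pos F v' < M.pos F w}) =
      bi (M.pos F u < M.pos F w) := by
    unfold bi; congr 1; simp [huF]
  have e4 : bi (u' ∈ {v' | v' ∈ M.On F ∧ M.pos F v' < M.pos F w}) =
      bi (M.pos F u' < M.pos F w) := by
    unfold bi; congr 1; simp [huF']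
  rw [e1, e2, e3, e4] at h1
  rw [← h1]
  unfold dl
  have key : ∀ a b c d e : ZMod 2, a + b + c + (a + d + e) = b + d + (c + e) := by decide
  exact key _ _ _ _ _

/-- a vertex of the face -/
theorem exists_vtx (L : LM M Q dim) (F : Φ) : ∃ v, v ≤ L.cf F ∧ dim v = 0 := L.base (L.cf F)

/-- the chosen vertex of `F` -/
noncomputable def vt (L : LM M Q dim) (F : Φ) : Q := (exists_vtx L F).choose

theorem vt_le (L : LM M Q dim) (F : Φ) : vt L F ≤ L.cf F := (exists_vtx L F).choose_spec.1

theorem vt_dim (L : LM M Q dim) (F : Φ) : dim (vt L F) = 0 := (exists_vtx L F).choose_spec.2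

/-- `dl` at two faces, two auxiliary points -/
theorem dl_swap {F F' : Φ} {u u' w : W} (hw : w ∈ M.On F) (hw' : w ∈ M.On F') (hu : u ∈ L.W1)
    (hu' : u' ∈ L.W1) (he : L.ed u = L.ed w) (he' : L.ed u' = L.ed w) (huw : u ≠ w)
    (huw' : u' ≠ w) :
    dl L F (vt L F) u w + dl L F' (vt L F') u w =
      dl L F (vt L F) u' w + dl L F' (vt L F') u' w := by
  by_cases huu : u = u'
  · rw [huu]
  · have h1 := dl_add hw hu hu' he he' huw huw' huu (vt_le L F) (vt_dim L F)
    have h2 := dl_add hw' hu hu' he he' huw huw' huu (vt_le L F') (vt_dim L F')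
    have key : ∀ a b c d : ZMod 2, a + b = c + d → a + c = b + d := by decide
    exact key _ _ _ _ (h1.trans h2.symm)

open Classical in
/-- **`SphM` for every tile of a mesh with labels** -/
noncomputable def LM.sphM (L : LM M Q dim) (q : ι) (c : Q)
    (hc : ∀ F, q ∈ M.side F → L.cf F ≤ c) (hc' : ∀ F, L.cf F ≤ c → q ∈ M.side F) :
    SphM M q where
  opp := fun w => decide (∃ F F' : Φ, q ∈ M.side F ∧ q ∈ M.side F' ∧ w ∈ M.On F ∧ w ∈ M.On F' ∧
    ∃ u, u ∈ L.W1 ∧ L.ed u = L.ed w ∧ u ≠ w ∧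
      dl L F (vt L F) u w ≠ dl L F' (vt L F') u w)
  sph := by
    intro y hy
    have hyF : ∀ F, q ∈ M.side F → nW y (M.On F) = 0 := fun F hF => (nW_On y F).1 (hy F hF)
    obtain ⟨lam, hlam⟩ := L.cell c y fun F hF => hyF F (hc' F hF)
    refine ⟨fun F => lam (vt L F) + cntP M y F (L.vpos F (vt L F)), ?_⟩
    intro F F' w hF hF' hne hw hw'
    by_cases hwy : w ∈ y
    · -- an auxiliary point
      have hwW := (L.on_iff F w).1 hw
      obtain ⟨u, hu, huy⟩ : ∃ u, (u ∈ L.W1 ∧ L.ed u = L.ed w) ∧ u ∉ y := by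
        have h1 := (L.inf w hwW.1).sdiff y.finite_toSet
        obtain ⟨u, hu, hu'⟩ := h1.nonempty
        exact ⟨u, hu, fun h => hu' (Finset.mem_coe.2 h)⟩
      have huw : u ≠ w := fun h => huy (h ▸ hwy)
      have e1 := formula_in (hc F hF) (hyF F hF) hlam hw hwy hu.1 hu.2 huy (vt_le L F) (vt_dim L F)
      have e2 := formula_in (hc F' hF') (hyF F' hF') hlam hw' hwy hu.1 hu.2 huy (vt_le L F')
        (vt_dim L F')
      have e3 := e1.trans e2.symm
      have e4 : (if w ∈ y ∧ decide (∃ F F' : Φ, q ∈ M.side F ∧ q ∈ M.side F' ∧ w ∈ M.On F ∧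
          w ∈ M.On F' ∧ ∃ u, u ∈ L.W1 ∧ L.ed u = L.ed w ∧ u ≠ w ∧
            dl L F (vt L F) u w ≠ dl L F' (vt L F') u w) = true then (1 : ZMod 2) else 0) =
          dl L F (vt L F) u w + dl L F' (vt L F') u w := by
        have two : ∀ s t : ZMod 2, s ≠ t → s + t = 1 := by decide
        have two' : ∀ s t : ZMod 2, s = t → s + t = 0 := by decide
        by_cases hd : dl L F (vt L F) u w = dl L F' (vt L F') u w
        · rw [two' _ _ hd, if_neg]
          rintro ⟨-, h6⟩
          obtain ⟨G, G', hG, hG', wG, wG', u', h7, h8, h9, h10⟩ := of_decide_eq_true h6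
          have hGG : G ≠ G' := fun h11 => h10 (by rw [h11])
          have h12 := dl_swap (L := L) wG wG' hu.1 h7 hu.2 h8 huw h9
          rcases LMesh.faces_unique hF hF' hG hG' hw hw' wG wG' hne hGG with ⟨rfl, rfl⟩ | ⟨rfl, rfl⟩
          · rw [two' _ _ hd] at h12
            rw [two _ _ h10] at h12
            exact absurd h12 (by decide)
          · rw [two' _ _ hd.symm] at h12
            rw [two _ _ h10] at h12
            exact absurd h12 (by decide)
        · rw [two _ _ hd, if_pos]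
          exact ⟨hwy, decide_eq_true ⟨F, F', hF, hF', hw, hw', u, hu.1, hu.2, huw, hd⟩⟩
      refine Eq.trans ?_ (congrArg (fun z => lam (vt L F') + cntP M y F' (L.vpos F' (vt L F')) +
        cntP M y F' (M.pos F' w) + z) e4.symm)
      have key : ∀ a b c d : ZMod 2, a + c = b + d → a = b + (c + d) := by decide
      exact key _ _ _ _ e3
    · have e1 := formula_out (hc F hF) (hyF F hF) hlam hw hwy (vt_le L F) (vt_dim L F)
      have e2 := formula_out (hc F' hF') (hyF F' hF') hlam hw' hwy (vt_le L F') (vt_dim L F')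
      rw [if_neg (fun h => hwy h.1), add_zero]
      exact e1.trans e2.symm

end Crest.Agent.R096.Lms_662
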