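import Crest.Agent.R096.Lm13_117
import Crest.Agent.R096.Lms3_662

/-!
# Row 96, DOORS: arc pairings of a pair state (helper298)

`exists_rk` : ranks of the closed chord cycles of a tile of a labelled mesh with `Ord`;
`exists_arcs_st` : every pair state over a labelled mesh has arc pairings (`St.Arcs`) on every
set of tiles whose faces are the 2-cells below a cell.
-/

set_option autoImplicit false
set_option linter.unusedSectionVars false

open Set

namespace Crest.Agent.R096.Sgd3_298

open Crest.Agent.R096.St_147 Crest.Agent.R096.Ac_117 Crest.Agent.R096.Seq_213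
open Crest.Agent.R096.Lm_117 Crest.Agent.R096.Lms_662

variable {ι Φ W Q J C I : Type} {M : MeshC ι Φ W} [PartialOrder Q] {dim : Q → ℕ}
variable {L : LM M Q dim} {fam : J → C} {col : I → Bool}
variable {s : GSt M fam}

/-! ### ranks -/

/-- laminarity of the pieces of one family in a cell -/
lemma lam_pc (h : LF L s) {c : Q} {x x' : Pc L s c} (hne : x ≠ x')
    (hfam : fam (pcol L s c x) = fam (pcol L s c x')) (k1 : nlw h c x (rep h x') = 1) :
    nlw h c x' (rep h x) = 0 ∧ ∀ w ∈ L.toSk.In c, nlw h c x' w = 1 → nlw h c x w = 1 := by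
  have k2 := lam_skel (c := c) (Y := pts h c x) (Y' := pts h c x') (a := nl h c x)
    (b := nl h c x') (β := nlw h c x' (rep h x)) (nl_xl h c x) (nl_xl h c x')
    (fun w hw hw' => hne (pts_disj hw hw'))
    (fun w hw _ => (side_const (Ne.symm hne) hfam.symm hw (rep_mem h x')).trans k1)
    (fun w hw _ => side_const hne hfam hw (rep_mem h x)) (nl_bv h c x) (nl_bv h c x')
    ⟨rep h x', rep_mem h x', (pts_in (rep_mem h x')).2⟩
  exact ⟨k2.1, k2.2.2⟩

/-- the pieces of the family outside `x` -/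
def Dn (h : LF L s) (c : Q) (x : Pc L s c) : Set (Pc L s c) :=
  {y | y ≠ x ∧ fam (pcol L s c y) = fam (pcol L s c x) ∧ nlw h c y (rep h x) = 1}

lemma Dn_lt (h : LF L s) {c : Q} {x x' : Pc L s c} (hne : x ≠ x')
    (hfam : fam (pcol L s c x) = fam (pcol L s c x')) (k1 : nlw h c x (rep h x') = 1) :
    Dn h c x ⊂ Dn h c x' := by
  have hk := lam_pc h hne hfam k1
  refine ⟨?_, fun hs => ?_⟩
  · rintro y ⟨h1, h2, h3⟩
    refine ⟨?_, h2.trans hfam, ?_⟩
    · rintro rfl
      rw [hk.1] at h3
      exact absurd h3 (by decide)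
    · exact (lam_pc h h1 h2 h3).2 _ (pts_in (rep_mem h x')).2 k1
  · have hx : x ∈ Dn h c x' := ⟨hne, hfam, k1⟩
    exact (hs hx).1 rfl

/-- **ranks of the closed chord cycles** -/
theorem exists_rk (h : LF L s) (c : Q) :
    ∃ rk : Pc L s c → ℕ, Function.Injective rk ∧ Ord h c rk := by
  classical
  have := h.pc c
  have := Fintype.ofFinite (Pc L s c)
  let e := Fintype.equivFin (Pc L s c)
  let N := Fintype.card (Pc L s c)
  have he : ∀ x, (e x : ℕ) < N := fun x => (e x).2
  refine ⟨fun x => (Dn h c x).ncard * N + e x, ?_, ?_⟩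
  · intro x y hxy
    have hxy' : (Dn h c x).ncard * N + (e x : ℕ) = (Dn h c y).ncard * N + (e y : ℕ) := hxy
    have h1 : (e x : ℕ) = e y := by
      have h2 := congrArg (· % N) hxy'
      rw [Nat.add_comm, Nat.add_mul_mod_self_right, Nat.add_comm, Nat.add_mul_mod_self_right,
        Nat.mod_eq_of_lt (he x), Nat.mod_eq_of_lt (he y)] at h2
      exact h2
    exact e.injective (Fin.ext h1)
  · intro x x' hne hfam k1
    have h1 : (Dn h c x).ncard < (Dn h c x').ncard :=
      Set.ncard_lt_ncard (Dn_lt h hne hfam k1) (Set.toFinite _)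
    have h2 : (Dn h c x).ncard * N + N ≤ (Dn h c x').ncard * N := by
      have := Nat.mul_le_mul_right N (Nat.succ_le_of_lt h1)
      rwa [Nat.succ_mul] at this
    have h3 := he x
    show (Dn h c x).ncard * N + (e x : ℕ) < (Dn h c x').ncard * N + (e x' : ℕ)
    omega

/-! ### a pair state as a global state -/

/-- a pair state as a global state -/
def gOf (t : St M col) : GSt M col where
  P := ↑t.P
  lab := t.lab
  mu := t.mu
  mu_mem := fun h1 h2 => t.mu_mem (Finset.mem_coe.1 h1) h2
  mu_ne := fun h1 h2 => t.mu_ne (Finset.mem_coe.1 h1) h2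
  mu_mu := fun h1 h2 => t.mu_mu (Finset.mem_coe.1 h1) h2
  mu_lab := fun h1 h2 => t.mu_lab (Finset.mem_coe.1 h1) h2
  nc := fun h1 h2 h3 h4 h5 h6 h7 =>
    t.nc (Finset.mem_coe.1 h1) h2 (Finset.mem_coe.1 h3) h4 h5 h6 h7
  fin := fun _ => t.P.finite_toSet.subset fun _ hw => hw.1

lemma resOf_gOf (t : St M col) : ResOf (gOf t) t where
  sub := fun _ hw => hw
  mu := fun _ _ => rfl
  cl := fun _ _ _ hw' _ => hw'
  colr := fun _ _ _ _ => Iff.rfl

lemma lf_gOf (L : LM M Q dim) (t : St M col) : LF L (gOf t) :=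
  fun _ => t.P.finite_toSet.subset fun _ hw => hw.1

variable (L)

/-- **the arc pairing of a pair state over a labelled mesh** -/
theorem exists_arcs_st (t : St M col) (Act : Set ι) (tc : ι → Q)
    (htc : ∀ q ∈ Act, ∀ F, q ∈ M.side F ↔ L.cf F ≤ tc q) : Nonempty (t.Arcs Act) := by
  have hrk := fun q : ι => exists_rk (lf_gOf L t) (tc q)
  choose rk h1 h2 using hrk
  obtain ⟨A, -⟩ := exists_arcs (resOf_gOf t) (lf_gOf L t) Act tc htc
    (fun q hq => Lms_662.LM.sphM L q (tc q) (fun F hF => (htc q hq F).1 hF)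
      (fun F hF => (htc q hq F).2 hF)) rk (fun q _ => h1 q) (fun q _ => h2 q)
  exact ⟨A⟩

end Crest.Agent.R096.Sgd3_298
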