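import Crest.Agent.R096.Hdr1_334
import Crest.Agent.R096.Sgd3_298

/-!
# R096 (row 96), DOORS (helper334), part 2: `hdoor` of 298's `cl_sheet` and the giants of `s₃`

* `hdoor`      = the hypothesis `hdoor` of `cl_sheet` for the state with barriers;
* `giants_in`  = (T2) for the state after CUT: all points of a sheet on the giants are joined with
  the base point by chords which are not crossed in the quad `k`.
-/

set_option autoImplicit false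
set_option linter.unusedSectionVars false
set_option linter.unusedVariables false
set_option linter.style.longLine false

open Set Relation Module Topology Filter Metric

namespace Crest.Agent.R096.Hdr_334

open Crest.Agent.R096.Brk1_582 Crest.Agent.R096.Brk2_582 Crest.Agent.R096.Brk3_582
open Crest.Agent.R096.Brk5_582 Crest.Agent.R096.Bsp_628
open Crest.Agent.R096.St_147 Crest.Agent.R096.Seq_213 Crest.Agent.R096.Seq_213.GSt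
open Crest.Agent.R096.Lm_117 Crest.Agent.R096.Ac_117 Crest.Agent.R096.Msh_715
open Crest.Agent.R096.Agl5_543 Crest.Agent.R096.Init_543 Crest.Agent.R096.At_241
open Crest.Agent.R096.SkC1_961 (E3 Hom3 FoamD)
open Crest.Agent.R096.Mbf_337 (KJ sb)
open Crest.Agent.R096.Frn_337 (Ti cti Lay)
open Crest.Agent.R096.SkB_662 Crest.Agent.R096.Sgd_298 Crest.Agent.R096.Qdl_662
  Crest.Agent.R096.Dinv_106

section mach

variable {δ κ0 R c0 : ℝ} {La Om : Set E3} {ι ι3 : Type} {Φ : FoamD δ κ0 R c0 La}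
  {T : Tiling Om ι} {T3 : Tiling Om ι3} {f g : E3 → E3} {X : Set Φ.F} {J0 : Φ.F → Set ι}
  {ct' : Φ.F → ι} {r₀ : Φ.F → ℝ} {KK : Ti X → Set E3} {til : ι3 → ι}
  {ε s₁ : ℝ} {Zo : Ti X → Set ι} [Nonempty T3.Cell]
  {hH : ∀ k, CoreH T3 (KK k)} {hdis : ∀ k k', k ≠ k' → Disjoint (KK k) (KK k')}
  {hne : ∃ c, OutK T3 KK c}

/-- the 3-cell of a cell of the mesh -/
theorem cf_le (hne : ∃ c, OutK T3 KK c) (q : ι3 ⊕ Ti X) : ∃ c, ∀ F,
    q ∈ (mK fr3 hH hdis).side F → (lmK fr3 hH hdis hne).cf F ≤ c :=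
  ⟨tcK T3 KK q, fun F h => tcK_side fr3 hH hdis hne q F h⟩

section gen

variable {J C : Type} {fam : J → C} {s : GSt (mK fr3 hH hdis) fam}

/-- the points of the name `n` are away from the middle levels of all families but `a` -/
def PosM (T : Tiling Om ι) (f : E3 → E3) (J0 : Φ.F → Set ι) (til : ι3 → ι)
    (s : GSt (mK fr3 hH hdis) fam) (n : J) (a : Φ.F) (lam : ℝ) : Prop :=
  ∀ w ∈ s.P, s.lab w = n → ∀ p, (∀ k, ¬ P (T3.H p) ⊆ KK k) → w ∈ P (T3.H p) →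
    til p ∉ KorJ Φ J0 → ∀ e, e ≠ a → ∃ x ∈ P (T.H (til p)),
      Φ.lev e (f x) ≤ lam ∨ 1 - lam ≤ Φ.lev e (f x)

variable {hsub : ∀ p, P (T3.H p) ⊆ P (T.H (til p))} {hLa : IsOpen La}
  {hR : InitR Φ T f g J0 ct' r₀}
  {hM : Mesh0 T (Pc Φ.F) (bc (F := Φ.F)) (RF Φ r₀) f (KorJ Φ J0) ε} {hε : ε < s₁} {hε1 : ε < 1}

/-- **no barrier points of the family `a` on the faces of the region** -/
theorem door_nb (hLa : IsOpen La) (hR : InitR Φ T f g J0 ct' r₀)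
    (hM : Mesh0 T (Pc Φ.F) (bc (F := Φ.F)) (RF Φ r₀) f (KorJ Φ J0) ε)
    (hZ : Zon Φ T T3 f X J0 KK til Zo) {s' lam : ℝ} (hlam : lam + ε < s') {n' m : J}
    {a b : Φ.F} (hab : b ≠ a) (Pn' : Pos T f J0 til s n' b s') (Pm : PosM T f J0 til s m a lam)
    {A : Set (ι3 ⊕ Ti X)} {c : Ti X} {q : ι3 ⊕ Ti X} (hq : q ∈ RD s til Zo A c n')
    {F : {F : C2 T3 // ¬ (((meshC T3 fr3).side F).map (piK T3 KK)).IsDiag}}
    (hqF : q ∈ (mK fr3 hH hdis).side F) {h : E3} (hA : s.At F h) (hl : s.lab h = m) : False := by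
  obtain ⟨h1, -, F', y, hqF', hy, hyl⟩ := hq
  rcases q with p | c'
  swap
  · exact inr_ZC h1
  obtain ⟨g1, g2⟩ := inl_ZC.1 h1
  have hK := hZ.kor c p g1 g2
  obtain ⟨hyp, -⟩ := side_tile hy.2 hqF'
  obtain ⟨hhp, -⟩ := side_tile hA.2 hqF
  obtain ⟨x, hx, h2⟩ := Pn' y hy.1 hyl p g1 hyp hK
  obtain ⟨x', hx', h4⟩ := Pm h hA.1 hl p g1 hhp hK b hab
  have h5 := hM.osc _ hK _ hx _ hx' b
  rw [va_lev hLa hR hK hx, va_lev hLa hR hK hx'] at h5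
  have h6 := abs_le.1 h5
  rcases h4 with h4 | h4
  · linarith [h2.1, h2.2, h6.1, h6.2]
  · linarith [h2.1, h2.2, h6.1, h6.2]

end gen

variable {hsub : ∀ p, P (T3.H p) ⊆ P (T.H (til p))} {hLa : IsOpen La}
  {hR : InitR Φ T f g J0 ct' r₀}
  {hM : Mesh0 T (Pc Φ.F) (bc (F := Φ.F)) (RF Φ r₀) f (KorJ Φ J0) ε} {hε : ε < s₁} {hε1 : ε < 1}
  {L : Φ.F → Finset ℝ}

/-- the other element of a pair -/
theorem exists_other (k : QK (Pc Φ.F)) {a : Φ.F} (ha : a ∈ k.B) : ∃ b ∈ k.B, b ≠ a := by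
  have h1 : 1 < k.B.ncard := by rw [k.cB]; omega
  obtain ⟨x, y, hx, hy, hxy⟩ := (Set.one_lt_ncard_iff (Set.finite_of_ncard_ne_zero
    (by rw [k.cB]; omega))).1 h1
  by_cases h : x = a
  · exact ⟨y, hy, fun e => hxy (h.trans e.symm)⟩
  · exact ⟨x, hx, h⟩

/-- **`hdoor` of 298's `cl_sheet`** for the state with barriers -/
theorem hdoor {Mo : Type} {am : Mo → Φ.F}
    {s : GSt (mK fr3 hH hdis) (Sum.map (fun j : JJ Φ L => j.1) (id : Mo → Mo))}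
    (hne : ∃ c, OutK T3 KK c)
    (hZ : Zon Φ T T3 f X J0 KK til Zo) {s' lam : ℝ} (hs' : s₁ + ε ≤ s') (hlam : lam + ε < s')
    (hL : ∀ a, (L a).Nonempty)
    (hpos : ∀ j : JJ Φ L, Pos T f J0 til s (Sum.inl j) j.1 s')
    (hbar : ∀ m, PosM T f J0 til s (Sum.inr m) (am m) lam)
    (hnear : ∀ (c : Ti X) F w (j : JJ Φ L), Sum.inr c ∈ (mK fr3 hH hdis).side F → s.At F w →
      s.lab w = Sum.inl j → c.1 ≠ j.1 ∧ (Pc Φ.F c.1 ∩ Pc Φ.F j.1).Nonempty)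
    (hone : ∀ (c : Ti X) (j : JJ Φ L),
      One s {F | Sum.inr c ∈ (mK fr3 hH hdis).side F} (Sum.inl j))
    (htwo : ∀ (k : QK (Pc Φ.F)) (c : Ti X), c.1 ∈ k.Z → ∀ j j' : JJ Φ L, j.1 ∈ k.B → j'.1 ∈ k.B →
      j.1 ≠ j'.1 → Two s ((qdT til hsub KK hLa hR hM hε hε1).Act k) {Sum.inr c} (Sum.inl j)
        (Sum.inl j'))
    {Act : Set (ι3 ⊕ Ti X)} (hAct : ∀ p, (∀ k, ¬ P (T3.H p) ⊆ KK k) → Sum.inl p ∈ Act →
      ∃ c, til p ∈ Zo c) (j : JJ Φ L) :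
    ∀ g ∈ range (Sum.inr : Ti X → ι3 ⊕ Ti X),
      (∃ F w, g ∈ (mK fr3 hH hdis).side F ∧ s.At F w ∧ s.lab w = Sum.inl j) →
      One1 s (Sum.inl j) g ∧
      ∃ (n' : JJ Φ L ⊕ Mo) (R Zc : Set (ι3 ⊕ Ti X))
        (F₀ : {F : C2 T3 // ¬ (((meshC T3 fr3).side F).map (piK T3 KK)).IsDiag}) (w₀ x₀ : E3),
        (Sum.inl j : JJ Φ L ⊕ Mo) ≠ n' ∧
        OddDoor s (Sum.inl j) n' g R F₀ w₀ x₀ ∧
        (∀ q ∈ R, ∃ c, ∀ F, q ∈ (mK fr3 hH hdis).side F → (lmK fr3 hH hdis hne).cf F ≤ c) ∧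
        (∀ q, q ∈ Zc → q ∉ R → q ≠ g → ∀ F w x, q ∈ (mK fr3 hH hdis).side F →
          (∃ q' ∈ (mK fr3 hH hdis).side F, q' ∈ R) →
          s.At F w → s.lab w = Sum.inl j → s.At F x → s.lab x = n' →
          ¬ (mK fr3 hH hdis).Lace F w (s.mu F w) x (s.mu F x)) ∧
        (∀ q ∈ R, ∀ F, q ∈ (mK fr3 hH hdis).side F → NB s am j.1 F) ∧
        ∀ q, q ∉ Zc → ∀ F w, q ∈ (mK fr3 hH hdis).side F →
          (∃ q' ∈ (mK fr3 hH hdis).side F, q' ∈ R) → s.At F w → s.lab w = Sum.inl j →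
          ∃ F', w ∈ (mK fr3 hH hdis).On F' ∧ ∃ q' ∈ (mK fr3 hH hdis).side F', q' ∉ Act ∧
            q' ∉ range (Sum.inr : Ti X → ι3 ⊕ Ti X) := by
  rintro g' ⟨c, rfl⟩ ⟨F, w, hF, hA, hl⟩
  obtain ⟨hcj, hne2⟩ := hnear c F w j hF hA hl
  obtain ⟨k, -, -, ⟨hk1, hk2⟩, -⟩ := exists_two_quads Φ hLa (a := j.1) (c := c.1) hcj.symm hne2
  obtain ⟨b, hb, hbj⟩ := exists_other k hk1
  obtain ⟨t, ht⟩ := hL b
  let j' : JJ Φ L := ⟨b, t, ht⟩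
  have hjj : (Sum.inl j : JJ Φ L ⊕ Mo) ≠ Sum.inl j' := by
    intro e
    exact hbj (congrArg Sigma.fst (Sum.inl.inj e)).symm
  have h2 := htwo k c hk2 j j' hk1 hb hbj.symm
  obtain ⟨F₀, w₀, x₀, D⟩ := odd_door hZ hjj h2
  refine ⟨hone c j, Sum.inl j', _, insert (Sum.inr c) (ZC T3 KK til Zo c), F₀, w₀, x₀, hjj, D,
    fun q _ => cf_le hne q, ?_, ?_, ?_⟩
  · intro q hq hqR hqc F1 w1 x1 hqF hRF hw1 hwl hx1 hxl
    exact (door_bd hZ hs' hk1 hb hbj.symm (hpos j) (hpos j') hq hqR hqc hqF hRF hw1 hwl hx1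
      hxl).elim
  · intro q hq F1 hqF x m hx hxl ham
    exact door_nb hLa hR hM hZ hlam (b := b) (a := am m) (by rw [ham]; exact hbj) (hpos j')
      (hbar m) hq hqF hx hxl
  · intro q hq F1 w1 hqF hRF hw1 hwl
    obtain ⟨h3, h4, -⟩ := door_out hZ hq hqF hRF hw1.2
    refine ⟨F1, hw1.2, q, hqF, fun h => ?_, ?_⟩
    · rcases q with p | c1
      · obtain ⟨-, hpK⟩ := side_tile hw1.2 hqF
        obtain ⟨c1, hc1⟩ := hAct p hpK h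
        exact h4 c1 (inl_ZC.2 ⟨hpK, hc1⟩)
      · exact h3 c1 rfl
    · rintro ⟨c1, rfl⟩
      exact h3 c1 rfl

/-- **the giants of the state after CUT** : (T2) of `DoorInv.tr` -/
theorem giants_in {s : GSt (mK fr3 hH hdis) (fun j : JJ Φ L => j.1)}
    (hne : ∃ c, OutK T3 KK c)
    (hZ : Zon Φ T T3 f X J0 KK til Zo) {s' : ℝ} (hs' : s₁ + ε ≤ s')
    (hL : ∀ a, (L a).Nonempty)
    (hpos : ∀ j : JJ Φ L, Pos T f J0 til s j j.1 s')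
    (hnear : ∀ (c : Ti X) F w, Sum.inr c ∈ (mK fr3 hH hdis).side F → s.At F w →
      c.1 ≠ (s.lab w).1 ∧ (Pc Φ.F c.1 ∩ Pc Φ.F (s.lab w).1).Nonempty)
    (hone : ∀ (c : Ti X) (j : JJ Φ L), One s {F | Sum.inr c ∈ (mK fr3 hH hdis).side F} j)
    (htwo : ∀ (k : QK (Pc Φ.F)) (c : Ti X), c.1 ∈ k.Z → ∀ j j' : JJ Φ L, j.1 ∈ k.B → j'.1 ∈ k.B →
      j.1 ≠ j'.1 → Two s ((qdT til hsub KK hLa hR hM hε hε1).Act k) {Sum.inr c} j j')
    {j : JJ Φ L} {k : QK (Pc Φ.F)} {Y : Set E3}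
    (hY : KCl s (qdT til hsub KK hLa hR hM hε hε1) j k Y)
    (hout : ∀ F w, s.At F w → s.lab w = j → (∃ q ∈ (mK fr3 hH hdis).side F,
      (∀ c, q ≠ Sum.inr c) ∧ (∀ c, q ∉ ZC T3 KK til Zo c) ∧
        q ∉ (qdT til hsub KK hLa hR hM hε hε1).Act k) → w ∈ Y) :
    ∀ (c : Ti X) F w, Sum.inr c ∈ (mK fr3 hH hdis).side F → s.At F w → s.lab w = j → w ∈ Y := by
  intro c F w hF hA hl
  obtain ⟨hcj, hne2⟩ := hnear c F w hF hA
  rw [hl] at hcj hne2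
  obtain ⟨k1, k2, hk12, hk1, hk2⟩ := exists_two_quads Φ hLa (a := j.1) (c := c.1) hcj.symm hne2
  obtain ⟨k', hkk, hk'B, hk'Z⟩ : ∃ k', k' ≠ k ∧ j.1 ∈ k'.B ∧ c.1 ∈ k'.Z := by
    by_cases h : k1 = k
    · exact ⟨k2, fun e => hk12 (h.trans e.symm), hk2⟩
    · exact ⟨k1, h, hk1⟩
  obtain ⟨b, hb, hbj⟩ := exists_other k' hk'B
  obtain ⟨t, ht⟩ := hL b
  let j' : JJ Φ L := ⟨b, t, ht⟩
  have hjj : j ≠ j' := by
    intro e
    exact hbj (congrArg Sigma.fst e).symm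
  obtain ⟨F₀, w₀, x₀, D⟩ := odd_door hZ hjj (htwo k' c hk'Z j j' hk'B hb hbj.symm)
  refine giant_in (lmK fr3 hH hdis hne) hjj D (Zc := insert (Sum.inr c) (ZC T3 KK til Zo c))
    (hone c j) (fun q _ => cf_le hne q) ?_ ?_ ?_ F w hF hA hl
  · intro q hq hqR hqc F1 w1 x1 hqF hRF hw1 hwl hx1 hxl
    exact (door_bd hZ hs' hk'B hb hbj.symm (hpos j) (hpos j') hq hqR hqc hqF hRF hw1 hwl hx1
      hxl).elim
  · rintro F1 w1 (⟨q, hq1, hq2⟩ | hg) hw1 hA1 hl1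
    · refine hY F1 w1 hw1 hA1 hl1 (kfree_of_side hq1 fun h => ?_)
      exact disjoint_left.1 ((qdT til hsub KK hLa hR hM hε hε1).disj k' k hkk) hq2.2.1 h
    · exact hY F1 w1 hw1 hA1 hl1 (kfree_of_side hg inr_act)
  · intro q hq F1 w1 hqF hRF hw1 hwl
    obtain ⟨h3, h4, h5⟩ := door_out hZ hq hqF hRF hw1.2
    exact hout F1 w1 hw1 hwl ⟨q, hqF, h3, h4, h5 k hkk.symm⟩

end mach

end Crest.Agent.R096.Hdr_334
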