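import Crest.Agent.R096.Bse1_344
import Crest.Agent.R096.Bar4_106
import Crest.Agent.R096.Dib1_438
import Crest.Agent.R096.Hdr2_334
import Crest.Agent.R096.Dff2_539

/-!
# Row 96, DOORS (helper344): where the barriers are, machine instance

* `BoxP`      : a point is in the (enlarged) box of a moat: gauge `≤ ρ`, all deviations `≤ lam`;
* `box_ex`    : points of the frontier of the core with `Fs ≤ B` are in the box;
* `sep_tile`  : two moats of one family with points of one tile in their boxes are equal;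
* `box_s2`    : every point of a barrier of `s2` on a cell `p` has a point of its box in the `T`-tile;
* `kor_s2`    : the cells of the zones are not near the holes;
* `bsep_s2`   : `BSep`; `posM_s2` : 334's `PosM`.
-/

set_option autoImplicit false
set_option linter.unusedSectionVars false
set_option linter.unusedVariables false
set_option linter.style.longLine false

open Set Topology Filter Metric Module
open scoped Classical

namespace Crest.Agent.R096.Bse_344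

open Crest.Agent.R096.Msh_715 Crest.Agent.R096.Agl5_543 Crest.Agent.R096.St_147
  Crest.Agent.R096.Seq_213 Crest.Agent.R096.Door_501 Crest.Agent.R096.Sla_184
  Crest.Agent.R096.Twr_438 Crest.Agent.R096.Exa_560 Crest.Agent.R096.Ess3_95
  Crest.Agent.R096.Ess4_95 Crest.Agent.R096.Dfi_539 Crest.Agent.R096.Dfi_471
  Crest.Agent.R096.Cg_501 Crest.Agent.R096.Sgd_298
open Crest.Agent.R096.Brk1_582 Crest.Agent.R096.Brk2_582 Crest.Agent.R096.Brk3_582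
  Crest.Agent.R096.Brk5_582 Crest.Agent.R096.Bsp_628 Crest.Agent.R096.Init_543
  Crest.Agent.R096.Bar_106 Crest.Agent.R096.Dib_438
open Crest.Agent.R096.Mbf_337 (sb KJ Tiny gau Cores Fine)
open Crest.Agent.R096.SkC1_961 (E3 FoamD Hom3)
open Crest.Agent.R096.Frn_337 (Ti)
open Crest.Agent.R096.Ess7_95 (KT Sh)
open Crest.Agent.R096.Dia_316 (nbT)
open Crest.Agent.R096.Dff_539 (sJB fmB vS)
open Crest.Agent.R096.Frs_662 (slC)

variable {δ κ0 R c0 : ℝ} {La Om : Set E3} {ι : Type} {Φ : FoamD δ κ0 R c0 La} {T : Tiling Om ι}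
  {f g : E3 → E3} {κ1 κ2 μ : ℝ} {X : Set Φ.F} {J0 Jt V : Φ.F → Set ι}
  {ct ct' : Φ.F → ι} {A : Φ.F → E3 ≃ᵃ[ℝ] E3} {lam : Φ.F → ℝ} {z : Φ.F → E3}
  {θ : Φ.F → E3 → E3} {φ : Φ.F → E3 → ℝ} {r₀ : Φ.F → ℝ}

/-- the (enlarged) box of the moat `(c, a, Z)` -/
def BoxP (Φ : FoamD δ κ0 R c0 La) (f : E3 → E3) (c a : Φ.F) (Z : Set Φ.F) (ρ l : ℝ)
    (x : E3) : Prop :=
  gau c.1 (Φ.B c).lo (f x) ≤ ρ ∧ ∀ e, dv a Z (fun e => Φ.lev e (f x)) e ≤ l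

theorem BoxP.mono {c a : Φ.F} {Z : Set Φ.F} {ρ l ρ' l' : ℝ} {x : E3} (h : BoxP Φ f c a Z ρ l x)
    (hρ : ρ ≤ ρ') (hl : l ≤ l') : BoxP Φ f c a Z ρ' l' x :=
  ⟨h.1.trans hρ, fun e => (h.2 e).trans hl⟩

/-- `Fm` bounded: in the box -/
theorem boxP_of_fm {c a : Φ.F} {Z : Set Φ.F} {ρ l : ℝ} {x : E3}
    (hg : gau c.1 (Φ.B c).lo (f x) ≤ ρ)
    (hlev : ∀ e, 0 ≤ Φ.lev e (f x) ∧ Φ.lev e (f x) ≤ 1)
    (h : Fm a Z (fun e => Φ.lev e (f x)) ≤ l) : BoxP Φ f c a Z ρ l x :=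
  ⟨hg, fun e => (dv_le_Fm (u := fun e => Φ.lev e (f x)) hlev e).trans h⟩

/-- `Gm` bounded: in the box -/
theorem boxP_of_gm {c a : Φ.F} {Z : Set Φ.F} {ρ l0 mm ra t l : ℝ} {x : E3} (hl0 : 0 < l0)
    (hg : gau c.1 (Φ.B c).lo (f x) ≤ ρ)
    (hlev : ∀ e, 0 ≤ Φ.lev e (f x) ∧ Φ.lev e (f x) ≤ 1)
    (h : Gm l0 mm ra a Z (fun e => Φ.lev e (f x)) ≤ t) (ht : l0 * t ≤ l) :
    BoxP Φ f c a Z ρ l x := by
  refine boxP_of_fm hg hlev ?_
  have h1 := (le_max_left _ _).trans h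
  rw [div_le_iff₀ hl0] at h1
  linarith

/-- **points of the frontier of the core with small `Fs`** -/
theorem box_ex (hLa : IsOpen La) (hδ : 0 < δ) (hR : 0 < R) (hκ : Cn δ R * κ1 < 1)
    {c a p m : Φ.F} {Z : Set Φ.F} {N : Finset Φ.F} {J0 J V : Set ι} {θ : E3 → E3} {φ : E3 → ℝ}
    (H : Tiny Φ T f κ1 c J0 J V θ φ) (M : Mo (Pc Φ.F) c a Z p m)
    (hN : ∀ e, (Pc Φ.F c ∩ Pc Φ.F e).Nonempty → e ∈ N) {ρ B : ℝ}
    (hρ : ∀ x ∈ frontier (KJ T J), gau c.1 (Φ.B c).lo (f x) ≤ ρ) {x : E3}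
    (hx : x ∈ frontier (KJ T J)) (hB : Fs N a Z (sb Φ (θ x)) ≤ B) :
    BoxP Φ f c a Z ρ (B + Cn δ R * κ1) x := by
  refine ⟨hρ x hx, fun e => ?_⟩
  have hθ := th_mem H hx
  have h0 := fun e => (dv_mem (a := a) (Z := Z) (sb_mem hLa hθ) e).1
  have h1 : dv a Z (sb Φ (θ x)) e ≤ B := by
    by_cases he : (Pc Φ.F c ∩ Pc Φ.F e).Nonempty
    · exact (Finset.single_le_sum (f := fun e => dv a Z (sb Φ (θ x)) e) (fun e _ => h0 e)
        (hN e he)).trans hB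
    · rw [dv_off hLa M hθ he]
      exact (Finset.sum_nonneg fun e _ => h0 e).trans hB
  have h2 := (abs_le.1 (abs_dv_sub (a := a) (Z := Z) (u := fun e => Φ.lev e (f x))
    (v := sb Φ (θ x)) e)).2
  have h3 := tiny_near hLa hδ hR hκ H hx e
  rw [abs_sub_comm] at h3
  have h4 : |(fun e => Φ.lev e (f x)) e - sb Φ (θ x) e| ≤ Cn δ R * κ1 := h3
  linarith

/-- the radii of the zones of the tiny cores -/
structure RadV (Φ : FoamD δ κ0 R c0 La) (T : Tiling Om ι) (f : E3 → E3) (X : Set Φ.F)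
    (V : Φ.F → Set ι) (ρ : Φ.F → ℝ) : Prop where
  tile : ∀ c ∉ X, ∀ i, (∃ x ∈ P (T.H i), gau c.1 (Φ.B c).lo (f x) ≤ ρ c) → i ∈ V c

/-- **separation of the boxes on a tile** -/
theorem sep_tile (hC : Cores Φ T f κ1 κ2 X J0 Jt V ct A lam z θ φ) (hF : Fine Φ T f κ1 J0)
    {ρ : Φ.F → ℝ} (hρ : RadV Φ T f X V ρ) {l : ℝ} (hl : 2 * (l + κ1) < 1)
    {i : ι} (hi : (∃ c ∉ X, i ∈ V c) → ∀ c, i ∉ J0 c) {c c' a : Φ.F} {Z Z' : Set Φ.F}
    (hc : c ∉ X) (hc' : c' ∉ X) (haZ : a ∉ Z) (haZ' : a ∉ Z') {x x' : E3}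
    (hx : x ∈ P (T.H i)) (hx' : x' ∈ P (T.H i)) (h : BoxP Φ f c a Z (ρ c) l x)
    (h' : BoxP Φ f c' a Z' (ρ c') l x') : c = c' ∧ Z = Z' := by
  have h1 := hρ.tile c hc i ⟨x, hx, h.1⟩
  have h2 := hρ.tile c' hc' i ⟨x', hx', h'.1⟩
  have h3 : c = c' := by
    by_contra hne
    exact Set.disjoint_left.1 (hC.disj c c' hne) h1 h2
  refine ⟨h3, ?_⟩
  by_contra hne
  refine sep_same (u := fun e => Φ.lev e (f x)) haZ haZ' hne hl (fun e => ?_) (fun e => ?_)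
  · have h5 := h.2 e
    have h6 : 0 ≤ κ1 := (abs_nonneg _).trans (hF.lev i (hi ⟨c, hc, h1⟩) x hx x hx e)
    linarith
  · have h5 := (abs_le.1 (abs_dv_sub (a := a) (Z := Z') (u := fun e => Φ.lev e (f x))
      (v := fun e => Φ.lev e (f x')) e)).2
    have h6 : |Φ.lev e (f x) - Φ.lev e (f x')| ≤ κ1 := hF.lev i (hi ⟨c, hc, h1⟩) x' hx' x hx e
    have h7 := h'.2 e
    linarith

/-- cells outside the remaining cores over the zones of the tiny cores are not near the holes -/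
theorem kor_s2 (hLa : IsOpen La) (hC : Cores Φ T f κ1 κ2 X J0 Jt V ct A lam z θ φ)
    (n : Ti X → ℕ) (hn : ∀ c, 0 < n c) (p : T.RIdx (slC hLa hC n hn).HH)
    (hp : ∀ k, ¬ P ((slC hLa hC n hn).T3.H p) ⊆ (slC hLa hC n hn).KK k)
    (hV : ∃ c ∉ X, p.tile ∈ V c) : ∀ c, p.tile ∉ J0 c := by
  obtain ⟨c', hc'X, hc'⟩ := hV
  have hsub : ∀ c, J0 c ⊆ V c := fun c i hi => Nr_527.J_sub hC c (Nr_527.J0_sub hC c hi)
  have hfar : ∀ c, c ≠ c' → p.tile ∉ J0 c := fun c hne h =>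
    Set.disjoint_left.1 (hC.disj c c' hne) (hsub c h) hc'
  intro c
  by_cases hcc : c = c'
  swap
  · exact hfar c hcc
  subst hcc
  rcases (Lay_316.lay_sla hLa hC n hn).lay p hp with ⟨i, hpi, hi⟩ | ⟨k, i, hi, hi0, hs⟩
  · intro h
    have hK : ∀ k : Ti X, ¬ P (T.H i) ⊆ (slC hLa hC n hn).K k := fun k hk =>
      hi k (Slt_471.sub_KJ_iff.1 hk)
    rw [Lay_316.c3_of (S := slC hLa hC n hn) hK] at hpi
    rw [hpi] at h
    exact hi ⟨c, hc'X⟩ (Nr_527.J0_sub hC c h)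
  · obtain rfl : i = p.tile := Qdl_662.til_unique (Qdl_662.sla_sub (slC hLa hC n hn)) hs
    by_cases hkc : k.1 = c
    · rw [← hkc]; exact hi0
    · exact absurd hc' (Set.disjoint_left.1 (hC.disj k.1 c hkc) (Nr_527.J_sub hC k.1 hi))

section s2

variable {Mo : Type} {n : Ti X → ℕ} {hn : ∀ c, 0 < n c} {hLa : IsOpen La}
  {hC : Cores Φ T f κ1 κ2 X J0 Jt V ct A lam z θ φ}
  {JJ C : Type} {fam : JJ → C} [Nonempty (JJ ⊕ Mo)]
  {s : GSt (meshC T fr3) (Sum.map fam (id : Mo → Mo))} {r : JJ ⊕ Mo → E3}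
  {Sf : JJ ⊕ Mo → Set E3} {nb : Ti X → C ⊕ Mo → Prop}
  {v0 v1 : ∀ c, C ⊕ Mo → VxK T (slC hLa hC n hn).K c} {u : Ti X → C ⊕ Mo → E3 → ℝ}
  {Aw Bw : Ti X → C ⊕ Mo → ℝ}
  {L : ∀ c, C ⊕ Mo → Lev T (frontier ((slC hLa hC n hn).K c)) (JJ ⊕ Mo)}
  {Tw : Twrs ((slC hLa hC n hn).sh fr3) (slC hLa hC n hn).n
    (outK (slC hLa hC n hn).hH (slC hLa hC n hn).dis s r)} {l0 : E3 → JJ ⊕ Mo}
  {co am : Mo → Φ.F} {Zm : Mo → Set Φ.F} {ρ : Φ.F → ℝ} {l B : ℝ}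

/-- **the barrier points of `s2` are in their boxes** -/
theorem box_s2 (hδ : 0 < δ) (hR : 0 < R) (hκ : Cn δ R * κ1 < 1)
    (D : DIn (slC hLa hC n hn).hH s r Sf nb v0 v1 u Aw Bw)
    (lo : LevOut s nb u Aw Bw L) (tt : TwOut (slC hLa hC n hn) fr3 s r v0 v1 L Tw)
    (m : Mo)
    (hm : ∃ p q, Bar_106.Mo (Pc Φ.F) (co m) (am m) (Zm m) p q)
    (hco : ∀ c : Ti X, nb c (Sum.inr m) → c.1 = co m)
    (hρ : ∀ c : Ti X, nb c (Sum.inr m) → ∀ x ∈ frontier (KJ T (Jt c.1)),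
      gau c.1.1 (Φ.B c.1).lo (f x) ≤ ρ c.1)
    (htr : ∀ w ∈ s.P, s.lab w = Sum.inr m → BoxP Φ f (co m) (am m) (Zm m) (ρ (co m)) l w)
    {N : Finset Φ.F} (hN : ∀ e, (Pc Φ.F (co m) ∩ Pc Φ.F e).Nonempty → e ∈ N)
    (hu : ∀ c : Ti X, nb c (Sum.inr m) →
      u c (Sum.inr m) = fun x => Fs N (am m) (Zm m) (sb Φ (θ c.1 x)))
    (hB : ∀ c : Ti X, nb c (Sum.inr m) → Bw c (Sum.inr m) ≤ B)
    (hrg : ∀ c : Ti X, nb c (Sum.inr m) → ∀ v : (slC hLa hC n hn).Vx c,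
      Rgn ((slC hLa hC n hn).sh fr3 c) (v0 c (Sum.inr m)) (v1 c (Sum.inr m))
        (trc (slC hLa hC n hn).hH (slC hLa hC n hn).dis s r c (Sum.inr m))
        (exa fr3 (slC hLa hC n hn).hH (slC hLa hC n hn).dis (L c (Sum.inr m))) (Sum.inr m) v →
      Fs N (am m) (Zm m) (sb Φ (θ c.1 v.1)) ≤ Bw c (Sum.inr m))
    (hl : B + Cn δ R * κ1 ≤ l)
    {w : E3} (hw : w ∈ (s2 (slC hLa hC n hn) fr3 Tw l0).P)
    (hwl : (s2 (slC hLa hC n hn) fr3 Tw l0).lab w = Sum.inr m)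
    {p : T.RIdx (slC hLa hC n hn).HH} (hp : w ∈ P ((slC hLa hC n hn).T3.H p)) :
    ∃ x ∈ P (T.H p.tile), BoxP Φ f (co m) (am m) (Zm m) (ρ (co m)) l x := by
  obtain ⟨p', q', hM⟩ := hm
  have key : ∀ c : Ti X, nb c (Sum.inr m) → ∀ x ∈ frontier (KJ T (Jt c.1)),
      Fs N (am m) (Zm m) (sb Φ (θ c.1 x)) ≤ Bw c (Sum.inr m) →
      BoxP Φ f (co m) (am m) (Zm m) (ρ (co m)) l x := by
    intro c hc x hx hF
    have h1 := hco c hc
    have hM' : Bar_106.Mo (Pc Φ.F) c.1 (am m) (Zm m) p' q' := by rw [h1]; exact hM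
    have h2 := box_ex hLa hδ hR hκ (hC.tiny c.1 c.2) hM' (N := N) (by rw [h1]; exact hN)
      (hρ c hc) hx (hF.trans (hB c hc))
    rw [h1] at h2
    exact h2.mono le_rfl hl
  refine loc2 D lo tt (n := Sum.inr m) (BoxP Φ f (co m) (am m) (Zm m) (ρ (co m)) l) htr
    ?_ ?_ hw hwl hp
  · intro c hc x hx _ h2
    have h3 := hu c hc
    have h4 : u c (Sum.inr m) x < Bw c (Sum.inr m) := h2
    rw [h3] at h4
    exact key c hc x hx h4.le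
  · intro c hc v hv
    exact key c hc v.1 v.2.2 (hrg c hc v hv)

/-- **`BSep` for `s2`** -/
theorem bsep_s2 {s₂ : GSt ((slC hLa hC n hn).mn fr3) (Sum.map fam (id : Mo → Mo))}
    {fa : Mo → C} (hfa : ∀ m m', fa m = fa m' → am m = am m')
    (hF : Fine Φ T f κ1 J0) (hρ : RadV Φ T f X V ρ)
    (hl : 2 * (l + κ1) < 1) (hcX : ∀ m, co m ∉ X) (haZ : ∀ m, am m ∉ Zm m)
    (hinj : ∀ m m', co m = co m' → am m = am m' → Zm m = Zm m' → m = m')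
    (hbox : ∀ w ∈ s₂.P, ∀ m, s₂.lab w = Sum.inr m → ∀ p : T.RIdx (slC hLa hC n hn).HH,
      (∀ k, ¬ P ((slC hLa hC n hn).T3.H p) ⊆ (slC hLa hC n hn).KK k) →
      w ∈ P ((slC hLa hC n hn).T3.H p) →
      ∃ x ∈ P (T.H p.tile), BoxP Φ f (co m) (am m) (Zm m) (ρ (co m)) l x) :
    BSep s₂ fa := by
  refine bsep2 (S := slC hLa hC n hn) (h3 := fr3)
    (Bx := fun m x => BoxP Φ f (co m) (am m) (Zm m) (ρ (co m)) l x) hbox ?_
  intro p hp x hx x' hx' m m' h h' hmm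
  have h1 := hfa m m' hmm
  rw [← h1] at h'
  obtain ⟨e1, e2⟩ := sep_tile hC hF hρ hl (kor_s2 hLa hC n hn p hp) (hcX m) (hcX m') (haZ m)
    (by rw [h1]; exact haZ m') hx hx' h h'
  exact hinj m m' e1 h1 e2

/-- **334's `PosM` for the barriers of `s2`** -/
theorem posM_s2 {s₂ : GSt ((slC hLa hC n hn).mn fr3) (Sum.map fam (id : Mo → Mo))} {m : Mo}
    (hbox : ∀ w ∈ s₂.P, s₂.lab w = Sum.inr m → ∀ p : T.RIdx (slC hLa hC n hn).HH,
      (∀ k, ¬ P ((slC hLa hC n hn).T3.H p) ⊆ (slC hLa hC n hn).KK k) →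
      w ∈ P ((slC hLa hC n hn).T3.H p) →
      ∃ x ∈ P (T.H p.tile), BoxP Φ f (co m) (am m) (Zm m) (ρ (co m)) l x) :
    Hdr_334.PosM (hH := (Lay_316.lay_sla hLa hC n hn).core)
      (hdis := (Lay_316.lay_sla hLa hC n hn).disj) T f J0
      (fun p : T.RIdx (slC hLa hC n hn).HH => p.tile) s₂ (Sum.inr m) (am m) l := by
  intro w hw hwl p hp hwp _ e he
  obtain ⟨x, hx, h⟩ := hbox w hw hwl p hp hwp
  refine ⟨x, hx, ?_⟩
  have h1 := h.2 e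
  by_cases hZ : e ∈ Zm m
  · left
    rwa [dv_in he hZ] at h1
  · right
    rw [dv_out he hZ] at h1
    linarith

end s2

end Crest.Agent.R096.Bse_344
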