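import Crest.Agent.R096.Ess7_95
import Crest.Agent.R096.Etg7_163

/-!
# Row 96, DOORS, (E-S) (helper95), part 8: the facts `GA` on the straight gauge, and the gauge of the
retraction `RF` is the gauge of a push
-/

set_option autoImplicit false
set_option linter.unusedSectionVars false

open Set Topology Filter Metric Module
open scoped Classical

namespace Crest.Agent.R096.Ess8_95

open Crest.Agent.R096.Msh_715 Crest.Agent.R096.Coh_184 Crest.Agent.R096.Bsp_628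
  Crest.Agent.R096.Brk1_582 Crest.Agent.R096.Brk2_582 Crest.Agent.R096.Brk3_582
  Crest.Agent.R096.Brk5_582 Crest.Agent.R096.Init_543 Crest.Agent.R096.Mbf_337
  Crest.Agent.R96.Push_899 Crest.Agent.R096.Ess5_95 Crest.Agent.R096.Ess7_95
  Crest.Agent.R096.Exa_560 Crest.Agent.R096.Sphg_316

open Crest.Agent.R096.SkC1_961 (E3 Hom3 IsPush FoamD)
open Crest.Agent.R096.Vb_965 (Push pushD muD)

variable {δ κ0 R c0 : ℝ} {La : Set E3} {Φ : FoamD δ κ0 R c0 La}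

/-! ### the straight gauge -/

/-- **the facts `GA`** -/
theorem ga_of_ray (hLa : IsOpen La) {c : Φ.F} (hpt : (Φ.B c).lo = (Φ.B c).hi) {ρ : ℝ}
    (hρ0 : 0 < ρ) (hρ1 : ρ < 1) (hray : RayTo Φ c ρ) : GA Φ c ρ := by
  have F := foam4 Φ hLa
  have hp := pushD Φ hLa
  have hb : Bod (Φ.B c).lo (Pc Φ.F c) := Pse_316.bod_brick Φ c hpt
  have hgf : ga Φ c = Ng (Φ.B c).lo (Pc Φ.F c) := funext (Etg_163.gg_eq Φ c)
  have S := Etg_163.str_of Φ hLa hpt hρ0 hρ1 hray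
  have hfr : frontier c.1.set = {q | q ∈ Pc Φ.F c ∧ ∃ d, d ≠ c ∧ q ∈ Pc Φ.F d} :=
    frontier_c Φ hLa c
  have h3 : Module.finrank ℝ E3 = 3 := by simp [E3]
  have hfrc : IsPreconnected (frontier c.1.set) := by
    have hD := Vb_965.isPreconnected_Lset F h3 (Vb_965.cell_nonempty Φ c) le_rfl one_pos
    rw [Lset_zero F] at hD
    rw [hfr]
    exact hD
  refine ⟨?_, fun y => ?_, fun y hy k => ?_, fun r _ _ => ?_, fun r _ _ => ?_, fun r _ _ => ?_,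
    fun r hr0 _ => ?_, fun r hr y hy hlt => ?_, fun q hq r hr0 hr => ?_,
    fun A hA hAc r r' hr hrr hr' => ?_⟩
  · rw [hgf]; exact Ng_self _ _
  · rw [hgf]; exact hb.le_one_iff
  · rw [hgf, hb.lt_one_iff, interior_Pc] at hy
    exact hy k
  · rw [hgf]; exact hb.isCompact_le r
  · rw [hgf]; exact hb.convex_le r
  · rw [hgf]; exact (hb.convex_lt r).isPreconnected
  · rw [hgf]
    have h1 : {y | Ng (Φ.B c).lo (Pc Φ.F c) y = r} =
        (fun w => (Φ.B c).lo + r • (w - (Φ.B c).lo)) '' frontier (Pc Φ.F c) := by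
      ext y
      constructor
      · intro hy
        have hyz : y ≠ (Φ.B c).lo := hb.pos.1 (by rw [show Ng _ _ y = r from hy]; exact hr0)
        exact ⟨pj (Φ.B c).lo (Pc Φ.F c) y, hb.pj_mem hyz, (hb.eq_ray hr0 hy).symm⟩
      · rintro ⟨w, hw, rfl⟩
        show Ng _ _ _ = r
        rw [Ng_ray _ _ hr0.le, hb.eq_one_iff.2 hw, mul_one]
    rw [h1]
    exact hfrc.image _ (by fun_prop)
  · rw [hgf] at hlt ⊢
    have h0 : 0 < Ng (Φ.B c).lo (Pc Φ.F c) y := hr.trans hlt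
    have hyz := hb.pos.1 h0
    have h1 : Ng (Φ.B c).lo (Pc Φ.F c) y ≤ 1 := hb.le_one_iff.2 hy
    set m := Ng (Φ.B c).lo (Pc Φ.F c) y with hm
    have hm1 : 1 ≤ m⁻¹ := (one_le_inv₀ h0).2 h1
    refine ⟨(fun s : ℝ => (Φ.B c).lo + s • (y - (Φ.B c).lo)) '' Icc 1 m⁻¹,
      isPreconnected_Icc.image _ (by fun_prop), ?_, ⟨1, ⟨le_rfl, hm1⟩, ray_one y⟩,
      _, ⟨m⁻¹, ⟨hm1, le_rfl⟩, rfl⟩, hb.pj_mem hyz⟩
    rintro _ ⟨s, ⟨hs1, hs2⟩, rfl⟩
    have hs0 : 0 ≤ s := by linarith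
    have h2 : Ng (Φ.B c).lo (Pc Φ.F c) ((Φ.B c).lo + s • (y - (Φ.B c).lo)) = s * m :=
      Ng_ray _ _ hs0 y
    refine ⟨?_, ?_⟩
    · show (Φ.B c).lo + s • (y - (Φ.B c).lo) ∈ Pc Φ.F c
      rw [← hb.le_one_iff, h2]
      calc s * m ≤ m⁻¹ * m := mul_le_mul_of_nonneg_right hs2 h0.le
        _ = 1 := inv_mul_cancel₀ h0.ne'
    · show r < Ng (Φ.B c).lo (Pc Φ.F c) ((Φ.B c).lo + s • (y - (Φ.B c).lo))
      rw [h2]; nlinarith
  · rw [hfr] at hq
    obtain ⟨hq1, d, hdc, hqd⟩ := hq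
    have S' := S.mono hr0 hr
    obtain ⟨h1, h2⟩ := Etg_163.rp_spec F hp S' hdc hq1 hqd
    exact ⟨_, Etg_163.mem_of_Ng F hp S' h1.le, by rw [hgf]; exact h1, h2⟩
  · have hr'0 : 0 < r' := hr.trans_le hrr
    have S' := S.mono hr'0 hr'
    rw [hfr] at hA
    rw [hgf]
    have h1 : {y | y ∈ c.1.set ∧ r ≤ Ng (Φ.B c).lo (Pc Φ.F c) y ∧
        Ng (Φ.B c).lo (Pc Φ.F c) y ≤ r' ∧ Φ.Psi y ∈ A} =
        (fun p : E3 × ℝ => (Φ.B c).lo + (p.2 / r') •
          (Etg_163.rp (Pc Φ.F) Φ.Psi c (Φ.B c).lo r' p.1 - (Φ.B c).lo)) '' (A ×ˢ Icc r r') := by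
      ext y
      constructor
      · rintro ⟨-, h2, h3, h4⟩
        obtain ⟨h5, d, hdc, h6⟩ := hA h4
        obtain ⟨h7, h8⟩ := Etg_163.rp_spec F hp S' hdc h5 h6
        have hyz : y ≠ (Φ.B c).lo := hb.pos.1 (hr.trans_le h2)
        exact ⟨(Φ.Psi y, Ng (Φ.B c).lo (Pc Φ.F c) y), ⟨h4, h2, h3⟩,
          (Etg_163.eq_pt F hp S' h7 hyz h3 h8.symm).symm⟩
      · rintro ⟨⟨q, s⟩, ⟨h4, h2, h3⟩, rfl⟩
        obtain ⟨h5, d, hdc, h6⟩ := hA h4
        obtain ⟨h7, h8⟩ := Etg_163.rp_spec F hp S' hdc h5 h6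
        have hs0 : 0 < s := hr.trans_le h2
        obtain ⟨g1, g2, g3, -⟩ := Etg_163.ray_pt F hp S' h7 (div_pos hs0 hr'0)
          ((div_le_one hr'0).2 h3)
        rw [div_mul_cancel₀ _ hr'0.ne'] at g1
        refine ⟨g3, ?_, ?_, ?_⟩
        · show r ≤ Ng _ _ _
          rw [g1]; exact h2
        · show Ng _ _ _ ≤ r'
          rw [g1]; exact h3
        · show Φ.Psi _ ∈ A
          rw [g2, h8]; exact h4
    rw [h1]
    refine (hAc.prod isPreconnected_Icc).image _ ?_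
    have h5 : ContinuousOn (fun p : E3 × ℝ =>
        Etg_163.rp (Pc Φ.F) Φ.Psi c (Φ.B c).lo r' p.1) (A ×ˢ Icc r r') :=
      (Etg_163.continuousOn_rp F hp S').comp continuous_fst.continuousOn fun p hp' => hA hp'.1
    exact continuousOn_const.add (((continuous_snd.div_const r').continuousOn).smul
      (h5.sub continuousOn_const))

/-! ### the gauge of the retraction -/

/-- the glued radius -/
noncomputable def muR (Φ : FoamD δ κ0 R c0 La) (y : E3) : ℝ :=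
  if h : ∃ c : Φ.F, y ∈ Pc Φ.F c then max 0 (rdF Φ h.choose y) else 1

theorem muR_eq (hLa : IsOpen La) {c : Φ.F} {y : E3} (hy : y ∈ Pc Φ.F c) :
    muR Φ y = max 0 (rdF Φ c y) := by
  have h : ∃ c : Φ.F, y ∈ Pc Φ.F c := ⟨c, hy⟩
  have e : muR Φ y = max 0 (rdF Φ h.choose y) := dif_pos h
  rw [e]
  by_cases hc : h.choose = c
  · rw [hc]
  · rw [rad_bd (raysF Φ hLa) (bd_of_two hc h.choose_spec hy),
      rad_bd (raysF Φ hLa) (bd_of_two (Ne.symm hc) hy h.choose_spec)]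

theorem muR_pos (hLa : IsOpen La) {c : Φ.F} {y : E3} (hy : y ∈ Pc Φ.F c) :
    0 < muR Φ y ↔ y ∉ (Φ.B c).S := by
  have hR := raysF Φ hLa
  rw [muR_eq hLa hy]
  constructor
  · intro h hH
    rw [max_eq_left (hR.rad_hole c y hH)] at h
    exact lt_irrefl _ h
  · intro h
    exact lt_max_of_lt_right (hR.rad_mem c y ⟨hy, h⟩).1

theorem muR_off (hLa : IsOpen La) {c : Φ.F} {y : E3} (hy : y ∈ Pc Φ.F c)
    (h : y ∉ (Φ.B c).S) : muR Φ y = rdF Φ c y := by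
  rw [muR_eq hLa hy, max_eq_right ((raysF Φ hLa).rad_mem c y ⟨hy, h⟩).1.le]

/-- **`muR` is the gauge of a push** -/
theorem pushR (hLa : IsOpen La) : Push La (Pc Φ.F) Φ.Psi (muR Φ) := by
  have F := foam4 Φ hLa
  have hR := raysF Φ hLa
  have hp := pushD Φ hLa
  refine ⟨?_, ?_, ?_, ?_, ?_, ?_, ?_⟩
  · exact Vb_965.glue_cont F Subset.rfl (fun c y hy => muR_eq hLa hy) fun c =>
      ((continuous_const.max continuous_id).comp_continuousOn (hR.crad c)).mono inter_subset_left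
  · intro y hy
    obtain ⟨c, hc⟩ := F.cov y hy
    rw [muR_eq hLa hc]
    refine ⟨le_max_left _ _, max_le zero_le_one ?_⟩
    by_cases h : y ∈ (Φ.B c).S
    · exact (hR.rad_hole c y h).trans zero_le_one
    · exact (hR.rad_mem c y ⟨hc, h⟩).2
  · intro c c' hne y hy hy'
    refine ⟨?_, (hp.wall c c' hne y hy hy').2⟩
    rw [muR_eq hLa hy, rad_bd hR (bd_of_two (Ne.symm hne) hy hy'), max_eq_right zero_le_one]
  · refine hp.cont.mono ?_
    rintro y ⟨hy, h⟩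
    obtain ⟨c, hc⟩ := F.cov y hy
    exact ⟨hy, (Vb_965.muD_pos Φ hLa hc).2 ((muR_pos hLa hc).1 h)⟩
  · intro c y hy h
    exact hp.mem c y hy ((Vb_965.muD_pos Φ hLa hy).2 ((muR_pos hLa hy).1 h))
  · intro c y hy z hz h0 hm hΨ
    have h1 := (muR_pos hLa hy).1 h0
    have h2 := (muR_pos hLa hz).1 (hm ▸ h0)
    rw [muR_off hLa hy h1, muR_off hLa hz h2] at hm
    rw [Psi_eq Φ hLa hy, Psi_eq Φ hLa hz] at hΨ
    rw [← hR.ray_pu c y ⟨hy, h1⟩, ← hR.ray_pu c z ⟨hz, h2⟩, hm, hΨ]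
  · intro c c' hne p hp1 hp2 m hm
    have hg : p ∈ Bd (Pc Φ.F) c := bd_of_two (Ne.symm hne) hp1 hp2
    have h1 := hR.ray_mem c p hg m hm
    exact ⟨ryF Φ c p m, h1.1, by rw [Psi_eq Φ hLa h1.1, hR.pu_ray c p hg m hm],
      by rw [muR_off hLa h1.1 h1.2, hR.rad_ray c p hg m hm]⟩

/-- the retraction in terms of `muR` -/
theorem RF_form (hLa : IsOpen La) {r₀ : Φ.F → ℝ} (h0 : ∀ c, 0 < r₀ c) (h1 : ∀ c, r₀ c ≤ 1)
    {c : Φ.F} {y : E3} (hy : y ∈ Pc Φ.F c) : RF Φ r₀ y =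
      bc (F := Φ.F) {c} + min 1 (muR Φ y / r₀ c) • (Φ.Psi y - bc (F := Φ.F) {c}) := by
  have hR := raysF Φ hLa
  have e1 : RF Φ r₀ y = rc (bc (F := Φ.F)) Φ.pu (rdF Φ) r₀ c y := RR_eq hR h0 h1 hy
  rw [e1, rc_form, Psi_eq Φ hLa hy, muR_eq hLa hy]
  congr 2
  rcases le_total (rdF Φ c y) 0 with h | h
  · rw [cut_eq_one (h0 c) h, max_eq_left h, zero_div, min_eq_right zero_le_one, sub_self]
  · rw [max_eq_right h]
    rcases le_total (rdF Φ c y) (r₀ c) with h2 | h2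
    · rw [cut_eq (h0 c) h h2, min_eq_right ((div_le_one (h0 c)).2 h2)]
      ring
    · rw [cut_eq_zero (h0 c) h2, min_eq_left ((one_le_div (h0 c)).2 h2), sub_zero]

end Crest.Agent.R096.Ess8_95
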