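import Crest.Agent.R096.Dinv1_106

/-!
# Row 96, DOORS-INV (helper106), part 2: the star condition for the final state of DOORS

`DoorInv` : combinatorial data near the doors.  `U j` = door points of the sheet `j` (near the
cores), `V j m` = points of `j` over the middle of the moat `m` (inside the barrier of `m`).
`DoorInv.exists_inv` : the invariant.
-/

set_option autoImplicit false

namespace Crest.Agent.R096.Dinv_106

open Crest.Agent.R096.St_147 Crest.Agent.R096.Seq_213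

variable {ι Φ W J C K : Type} {M : MeshC ι Φ W} {fam : J → C}

/-- `X` is closed under the chords of `j` which are not crossed in the quad `k` -/
def KCl (s : GSt M fam) (Q : Quads ι C K) (j : J) (k : K) (X : Set W) : Prop :=
  ∀ F w, w ∈ X → s.At F w → s.lab w = j → KFree s Q k F w → s.mu F w ∈ X

theorem KFree.mu {s : GSt M fam} {Q : Quads ι C K} {k : K} {F : Φ} {w : W} (hA : s.At F w)
    (h : KFree s Q k F w) : KFree s Q k F (s.mu F w) := fun hin => (free_mu hA).2 (h hin)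

theorem KCl.iff {s : GSt M fam} {Q : Quads ι C K} {j : J} {k : K} {X : Set W}
    (h : KCl s Q j k X) {F : Φ} {w : W} (hA : s.At F w) (hl : s.lab w = j)
    (hf : KFree s Q k F w) : s.mu F w ∈ X ↔ w ∈ X := by
  constructor
  · intro hm
    have h1 := h F (s.mu F w) hm (s.mu_mem hA.1 hA.2) ((s.mu_lab hA.1 hA.2).trans hl)
      (KFree.mu hA hf)
    rwa [s.mu_mu hA.1 hA.2] at h1
  · intro hw
    exact h F w hw hA hl hf

/-- **Combinatorial data near the doors** -/
structure DoorInv (s : GSt M fam) (Q : Quads ι C K) (b : J → W) (U : J → Set W)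
    (Mt : J → Type) (V : ∀ j, Mt j → Set W) : Prop where
  h1 : ∀ j, s.H1 j
  conn : ∀ j, s.Conn j
  base : ∀ j, b j ∈ s.P ∧ s.lab (b j) = j
  /-- over a quad only the two families of the quad are present -/
  only : ∀ {k F w}, s.At F w → Inner M (Q.Act k) F → Q.In k (fam (s.lab w))
  /-- the truthful part: points which are not door points and not inside `k` are joined with the
  base point -/
  tr : ∀ j k, Q.In k (fam j) → ∀ X : Set W, b j ∈ X → KCl s Q j k X →
    ∀ w ∈ s.P, s.lab w = j → w ∉ U j → ¬ Int M (Q.Act k) w → w ∈ X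
  /-- the moat points are joined with the base point -/
  v_in : ∀ j m k, Q.In k (fam j) → ∀ X : Set W, b j ∈ X → KCl s Q j k X → V j m ⊆ X
  /-- the boundary of `Act k` near the doors runs over the moats -/
  dich : ∀ j k, Q.In k (fam j) → ∀ w ∈ U j, w ∈ s.P → s.lab w = j → (∀ m, w ∉ V j m) →
    Int M (Q.Act k) w ∨ ∀ F, w ∈ M.On F → ¬ Inner M (Q.Act k) F

namespace DoorInv

variable {s : GSt M fam} {Q : Quads ι C K} {b : J → W} {U : J → Set W} {Mt : J → Type}
  {V : ∀ j, Mt j → Set W}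

/-- **the star condition** -/
theorem star (D : DoorInv s Q b U Mt V) : Star s Q b := by
  classical
  intro j k hk X hb hX w hw hl hint
  have hX' : KCl s Q j k X := hX
  by_contra hwX
  -- the bad points
  let Y : Set W := {y | y ∈ s.P ∧ s.lab y = j ∧ y ∉ X ∧ ∀ F, y ∈ M.On F → ¬ Inner M (Q.Act k) F}
  have hbad : ∀ y, y ∈ s.P → s.lab y = j → y ∉ X → ¬ Int M (Q.Act k) y → y ∈ Y := by
    intro y hy hyl hyX hyi
    refine ⟨hy, hyl, hyX, ?_⟩
    have h1 : y ∈ U j := by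
      by_contra h
      exact hyX (D.tr j k hk X hb hX y hy hyl h hyi)
    have h2 : ∀ m, y ∉ V j m := fun m h => hyX (D.v_in j m k hk X hb hX' h)
    exact (D.dich j k hk y h1 hy hyl h2).resolve_left hyi
  have hcl : ∀ F y, y ∈ Y → s.At F y → s.lab y = j → s.mu F y ∈ Y := by
    intro F y hy hA hyl
    obtain ⟨_, _, hyX, hyF⟩ := hy
    have hnin : ¬ Inner M (Q.Act k) F := hyF F hA.2
    have h1 : s.mu F y ∉ X := fun h =>
      hyX ((hX'.iff hA hyl fun hin => absurd hin hnin).1 h)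
    have h2 := s.mu_mem hA.1 hA.2
    refine hbad _ h2.1 ((s.mu_lab hA.1 hA.2).trans hyl) h1 ?_
    intro hi
    exact hnin (hi.2 F h2.2)
  have h3 := (D.conn j).2 Y hcl w (hbad w hw hl hwX hint) hw hl (b j) (D.base j).1 (D.base j).2
  exact h3.2.2.1 hb

/-- **the invariant of the final state of DOORS** -/
theorem exists_inv (D : DoorInv s Q b U Mt V) : ∃ far : J → Set W, s.Inv Q far ∧ ∀ j, b j ∈ far j :=
  exists_inv_of_star D.h1 D.conn D.base D.only D.star

end DoorInv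

/-- **the truthful part** : `s₀` = truthful state on the old mesh `M₀`, `N` = cells near the blob
(door discs and crossings of `k`), `R` = cells meeting the blob; `o` = old faces in the new mesh. -/
theorem tr_of_locH1 {ι₀ Φ₀ : Type} {M₀ : MeshC ι₀ Φ₀ W} {s₀ : GSt M₀ fam} {s : GSt M fam}
    {Q : Quads ι C K} {b : J → W} {U : Set W} {j : J} {k : K} {N R : Set ι₀} (o : Φ₀ → Φ)
    (hconn : s₀.Conn j) (hloc : (Ginv_543.gSht s₀ j).LocH1 N R) (hNR : N ⊆ R)
    (hb : b j ∈ s₀.P ∧ s₀.lab (b j) = j ∧ ∃ F, b j ∈ M₀.On F ∧ ∃ q ∈ M₀.side F, q ∉ R)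
    (hC : ∀ F w, s₀.At F w → s₀.lab w = j → (∃ q ∈ M₀.side F, q ∉ N) → s.lab w = j →
      s.At (o F) w ∧ s.mu (o F) w = s₀.mu F w ∧ KFree s Q k (o F) w)
    (hl : s.lab (b j) = j)
    (hQ : ∀ w ∈ s.P, s.lab w = j → w ∉ U → ¬ Int M (Q.Act k) w →
      w ∈ s₀.P ∧ s₀.lab w = j ∧ ∃ F, w ∈ M₀.On F ∧ ∃ q ∈ M₀.side F, q ∉ R)
    (X : Set W) (hbX : b j ∈ X) (hX : KCl s Q j k X) :
    ∀ w ∈ s.P, s.lab w = j → w ∉ U → ¬ Int M (Q.Act k) w → w ∈ X := by
  classical
  obtain ⟨hbP, hbl, Fb, hbF, qb, hqb, hqR⟩ := hb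
  obtain ⟨far, f1, f2, f3, -, f5⟩ := (Ginv_543.gSht s₀ j).far (Ginv_543.gSht_cn hconn)
    (KK := ({()} : Finset Unit)) (N := fun _ => N) (Q := fun _ => R)
    (fun _ _ => hloc) (fun _ _ => hNR) (fun _ _ _ _ _ _ _ _ _ _ _ _ _ _ _ _ => rfl)
    (m := b j) (Ginv_543.mem_gSht.2 ⟨hbP, hbl⟩) (Fm := Fb) hbF hqb (fun _ _ => hqR)
  intro w hw hwl hwU hwi
  obtain ⟨hw0, hwl0, F, hwF, q, hqF, hqR'⟩ := hQ w hw hwl hwU hwi
  have hwfar : w ∈ far := by
    by_contra h
    obtain ⟨_, _, h6⟩ := f3 w (Ginv_543.mem_gSht.2 ⟨hw0, hwl0⟩) h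
    exact hqR' (h6 F hwF q hqF)
  have h7 := f5 {y | y ∈ X ∧ s.lab y = j} ?_ (b j) ⟨hbX, hl⟩ f1 hwfar
  · exact h7.1
  · rintro G y ⟨hyX, hyl⟩ hyf hyG hmf ⟨r, hr, hrN⟩
    have hy0 := Ginv_543.mem_gSht.1 (f2 y hyf)
    obtain ⟨h8, h9, h10⟩ := hC G y ⟨hy0.1, hyG⟩ hy0.2 ⟨r, hr, hrN () (Finset.mem_singleton_self _)⟩
      hyl
    have h11 := hX (o G) y hyX h8 hyl h10
    have h12 := s.mu_lab h8.1 h8.2
    rw [h9] at h11 h12
    exact ⟨h11, h12.trans hyl⟩

end Crest.Agent.R096.Dinv_106
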