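import Crest.Agent.R096.Dfi1_539

/-!
# Row 96, DOORS (helper184): the input of the towers for machine families + barriers

* `Part s1 s i` : the names `i j` of the state `s` carry exactly the state `s1`;
* `Part.h1`, `Part.conn`, `Part.car`, `Part.eg` : transfer;
* `gsum s1 s2`  : union of two states without common points, `gsum_left`, `gsum_right : Part`;
* **`din_sum`** : `DIn` for `s` from `DIn` for the two parts.
-/

set_option autoImplicit false
set_option linter.unusedSectionVars false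
set_option linter.style.longLine false

open Set Topology Filter Metric Module
open scoped Classical

namespace Crest.Agent.R096.Dis_184

open Crest.Agent.R096.Msh_715 Crest.Agent.R096.Coh_184 Crest.Agent.R096.Lab_184
  Crest.Agent.R096.Main_4 Crest.Agent.R096.Agl5_543
  Crest.Agent.R096.Seq_213 Crest.Agent.R096.St_147 Crest.Agent.R096.Door_501
  Crest.Agent.R096.Twr_438 Crest.Agent.R096.Exa_560
  Crest.Agent.R096.Ess3_95 Crest.Agent.R096.Ess4_95 Crest.Agent.R096.Dfi_539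

section mesh

variable {ι Φ W : Type} {M : MeshC ι Φ W} {J C J1 C1 J2 C2 : Type} {fam : J → C}
  {fam1 : J1 → C1} {fam2 : J2 → C2}

/-- the names `i j` of `s` carry exactly the state `s1` -/
structure Part (s1 : GSt M fam1) (s : GSt M fam) (i : J1 → J) : Prop where
  pts : ∀ w j, (w ∈ s.P ∧ s.lab w = i j) ↔ (w ∈ s1.P ∧ s1.lab w = j)
  mu : ∀ F w, w ∈ s1.P → w ∈ M.On F → s.mu F w = s1.mu F w

namespace Part

variable {s1 : GSt M fam1} {s : GSt M fam} {i : J1 → J}

theorem mem (h : Part s1 s i) {w : W} (hw : w ∈ s1.P) : w ∈ s.P ∧ s.lab w = i (s1.lab w) :=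
  (h.pts w _).2 ⟨hw, rfl⟩

theorem mem' (h : Part s1 s i) {w : W} {j : J1} (hw : w ∈ s.P) (hl : s.lab w = i j) :
    w ∈ s1.P ∧ s1.lab w = j := (h.pts w j).1 ⟨hw, hl⟩

theorem h1 (h : Part s1 s i) {j : J1} (hj : s1.H1 j) : s.H1 (i j) := by
  intro κ hκ
  obtain ⟨Ψ, hΨ⟩ := hj κ (by
    intro q
    obtain ⟨ψ, hψ⟩ := hκ q
    refine ⟨ψ, fun F w hq hw hl => ?_⟩
    obtain ⟨h1, h2⟩ := h.mem hw.1
    rw [hψ F w hq ⟨h1, hw.2⟩ (by rw [h2, hl]), h.mu F w hw.1 hw.2])
  refine ⟨Ψ, fun F w hw hl => ?_⟩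
  obtain ⟨h1, h2⟩ := h.mem' hw.1 hl
  rw [hΨ F w ⟨h1, hw.2⟩ h2, h.mu F w h1 hw.2]

theorem conn (h : Part s1 s i) {j : J1} (hj : s1.Conn j) : s.Conn (i j) := by
  obtain ⟨⟨w0, h0, h0'⟩, hc⟩ := hj
  refine ⟨⟨w0, (h.pts w0 j).2 ⟨h0, h0'⟩⟩, fun X hX w hwX hwP hwl w' hw'P hw'l => ?_⟩
  obtain ⟨a1, a2⟩ := h.mem' hwP hwl
  obtain ⟨b1, b2⟩ := h.mem' hw'P hw'l
  refine hc X (fun F x hx hxA hxl => ?_) w hwX a1 a2 w' b1 b2
  obtain ⟨c1, c2⟩ := h.mem hxA.1
  rw [← h.mu F x hxA.1 hxA.2]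
  exact hX F x hx ⟨c1, hxA.2⟩ (by rw [c2, hxl])

end Part

/-- union of two states without common points -/
noncomputable def gsum (s1 : GSt M fam1) (s2 : GSt M fam2) (hd : ∀ w ∈ s1.P, w ∉ s2.P) :
    GSt M (Sum.map fam1 fam2) where
  P := s1.P ∪ s2.P
  lab w := if w ∈ s1.P then Sum.inl (s1.lab w) else Sum.inr (s2.lab w)
  mu F w := if w ∈ s1.P then s1.mu F w else s2.mu F w
  mu_mem := by
    intro F w hw hF
    by_cases h : w ∈ s1.P
    · rw [if_pos h]
      exact ⟨Or.inl (s1.mu_mem h hF).1, (s1.mu_mem h hF).2⟩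
    · have h' := hw.resolve_left h
      rw [if_neg h]
      exact ⟨Or.inr (s2.mu_mem h' hF).1, (s2.mu_mem h' hF).2⟩
  mu_ne := by
    intro F w hw hF
    by_cases h : w ∈ s1.P
    · rw [if_pos h]; exact s1.mu_ne h hF
    · rw [if_neg h]; exact s2.mu_ne (hw.resolve_left h) hF
  mu_mu := by
    intro F w hw hF
    by_cases h : w ∈ s1.P
    · rw [if_pos h, if_pos (s1.mu_mem h hF).1]; exact s1.mu_mu h hF
    · have h' := hw.resolve_left h
      have h2 := (s2.mu_mem h' hF).1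
      rw [if_neg h, if_neg fun h3 => hd _ h3 h2]
      exact s2.mu_mu h' hF
  mu_lab := by
    intro F w hw hF
    by_cases h : w ∈ s1.P
    · simp only [if_pos h]
      rw [if_pos (s1.mu_mem h hF).1, s1.mu_lab h hF]
    · have h' := hw.resolve_left h
      have h2 := (s2.mu_mem h' hF).1
      simp only [if_neg h]
      rw [if_neg fun h3 => hd _ h3 h2, s2.mu_lab h' hF]
  nc := by
    intro F w x hw hF hx hF' hc hne hne'
    by_cases h : w ∈ s1.P
    · by_cases h' : x ∈ s1.P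
      · simp only [if_pos h, if_pos h'] at hc hne' ⊢
        exact s1.nc h hF h' hF' (Sum.inl_injective hc) hne hne'
      · simp only [if_pos h, if_neg h'] at hc
        cases hc
    · have hw2 := hw.resolve_left h
      by_cases h' : x ∈ s1.P
      · simp only [if_neg h, if_pos h'] at hc
        cases hc
      · have hx2 := hx.resolve_left h'
        simp only [if_neg h, if_neg h'] at hc hne' ⊢
        exact s2.nc hw2 hF hx2 hF' (Sum.inr_injective hc) hne hne'
  fin := by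
    rintro (c | c)
    · refine (s1.fin c).subset ?_
      rintro w ⟨hw, hl⟩
      by_cases h : w ∈ s1.P
      · rw [if_pos h] at hl
        exact ⟨h, Sum.inl_injective hl⟩
      · rw [if_neg h] at hl
        cases hl
    · refine (s2.fin c).subset ?_
      rintro w ⟨hw, hl⟩
      by_cases h : w ∈ s1.P
      · rw [if_pos h] at hl
        cases hl
      · rw [if_neg h] at hl
        exact ⟨hw.resolve_left h, Sum.inr_injective hl⟩

section gsum

variable {s1 : GSt M fam1} {s2 : GSt M fam2} {hd : ∀ w ∈ s1.P, w ∉ s2.P}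

theorem gsum_P : (gsum s1 s2 hd).P = s1.P ∪ s2.P := rfl

theorem gsum_left : Part s1 (gsum s1 s2 hd) Sum.inl where
  pts w j := by
    constructor
    · rintro ⟨h, hl⟩
      change (if w ∈ s1.P then Sum.inl (s1.lab w) else Sum.inr (s2.lab w)) = Sum.inl j at hl
      by_cases h1 : w ∈ s1.P
      · rw [if_pos h1] at hl
        exact ⟨h1, Sum.inl_injective hl⟩
      · rw [if_neg h1] at hl
        cases hl
    · rintro ⟨h, hl⟩
      refine ⟨Or.inl h, ?_⟩
      show (if w ∈ s1.P then Sum.inl (s1.lab w) else Sum.inr (s2.lab w)) = Sum.inl j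
      rw [if_pos h, hl]
  mu F w hw _ := if_pos hw

theorem gsum_right : Part s2 (gsum s1 s2 hd) Sum.inr where
  pts w j := by
    constructor
    · rintro ⟨h, hl⟩
      change (if w ∈ s1.P then Sum.inl (s1.lab w) else Sum.inr (s2.lab w)) = Sum.inr j at hl
      by_cases h1 : w ∈ s1.P
      · rw [if_pos h1] at hl
        cases hl
      · rw [if_neg h1] at hl
        exact ⟨h.resolve_left h1, Sum.inr_injective hl⟩
    · rintro ⟨h, hl⟩
      refine ⟨Or.inr h, ?_⟩
      show (if w ∈ s1.P then Sum.inl (s1.lab w) else Sum.inr (s2.lab w)) = Sum.inr j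
      rw [if_neg fun h1 => hd w h1 h, hl]
  mu F w hw _ := if_neg fun h1 => hd w h1 hw

end gsum

end mesh

variable {E : Type} [NormedAddCommGroup E] [NormedSpace ℝ E] [FiniteDimensional ℝ E]
variable {Om : Set E} {ι : Type} {T : Tiling Om ι}
variable {J C J1 C1 J2 C2 : Type} {fam : J → C} {fam1 : J1 → C1} {fam2 : J2 → C2}
variable {κ : Type} {Kc : κ → Set E} {h3 : finrank ℝ E = 3}

namespace Part

variable {s1 : GSt (meshC T h3) fam1} {s : GSt (meshC T h3) fam} {i : J1 → J}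

theorem gPts_eq (h : Part s1 s i) (j : J1) : gPts s (i j) = gPts s1 j := by
  ext w
  rw [mem_gPts, mem_gPts]
  exact h.pts w j

theorem car (h : Part s1 s i) {j : J1} {Sj : Set E} (hc : Car s1 j Sj) : Car s (i j) Sj := by
  intro G hG hGS w hw w' hw' hwP hwl hw'P hw'l
  obtain ⟨a1, a2⟩ := h.mem' hwP hwl
  obtain ⟨b1, b2⟩ := h.mem' hw'P hw'l
  have h0 := hc G hG hGS w hw w' hw' a1 a2 b1 b2
  clear hw'P hw'l b1 b2 hw'
  have key : Relation.ReflTransGen (GSt1 s G) w w' ∧ w' ∈ s1.P := by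
    induction h0 with
    | refl => exact ⟨Relation.ReflTransGen.refl, a1⟩
    | tail _ hbc ih =>
      obtain ⟨F, hF, hA, rfl⟩ := hbc
      refine ⟨ih.1.tail ⟨F, hF, ⟨(h.mem hA.1).1, hA.2⟩, (h.mu F _ hA.1 hA.2).symm⟩, ?_⟩
      exact (s1.mu_mem hA.1 hA.2).1
  exact key.1

/-- transfer of the geometric input -/
noncomputable def eg (h : Part s1 s i) {j : J1} {Sj : Set E} {c : κ} {v0 v1 : VxK T Kc c} {r : E}
    (e : EG s1 j Sj Kc c v0 v1 r) : EG s (i j) Sj Kc c v0 v1 r where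
  lam := e.lam
  hlam := by rw [h.gPts_eq]; exact e.hlam
  S0 := e.S0
  S0c := e.S0c
  S0O := e.S0O
  S0t := e.S0t
  L := e.L
  Lc := e.Lc
  LO := e.LO
  LS := e.LS
  Ln := fun b q hq u hu hl => e.Ln b q hq u (h.mem' hu hl).1 (h.mem' hu hl).2
  Ll := e.Ll
  Z := e.Z
  Zc := e.Zc
  Zf := e.Zf
  Zn := fun b q hq u hu hl => e.Zn b q hq u (h.mem' hu hl).1 (h.mem' hu hl).2
  LZ := e.LZ
  Z0 := e.Z0
  Z1 := e.Z1
  D := e.D
  Dc := e.Dc
  DO := e.DO
  DS := e.DS
  DK := e.DK
  LD := e.LD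
  F := e.F
  Fc := e.Fc
  FO := e.FO
  FS := e.FS
  FK := e.FK
  LF := e.LF
  Gd := e.Gd
  Gdc := e.Gdc
  GdS := e.GdS
  GdK := e.GdK
  GdD := fun q hq w hw hl => e.GdD q hq w (h.mem' hw hl).1 (h.mem' hw hl).2
  Go := e.Go
  Goc := e.Goc
  GoS := e.GoS
  GoK := e.GoK
  GoF := fun q hq w hw hl => e.GoF q hq w (h.mem' hw hl).1 (h.mem' hw hl).2
  Gor := e.Gor
  Gx := e.Gx
  Gxc := e.Gxc
  GxS := e.GxS
  Gxr := e.Gxr
  Gxd := e.Gxd
  GxK := e.GxK

end Part

/-- renaming of levels along an injection -/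
noncomputable def levMap {Sg : Set E} (L : Lev T Sg J1) (i : J1 ↪ J) (lv : J → ℝ)
    (h : ∀ j, lv (i j) = L.lv j) : Lev T Sg J where
  u := L.u
  aff := L.aff
  J0 := L.J0.map i
  lv := lv
  inj := by
    intro a ha b hb e
    obtain ⟨a', ha', rfl⟩ := Finset.mem_map.1 ha
    obtain ⟨b', hb', rfl⟩ := Finset.mem_map.1 hb
    rw [h, h] at e
    rw [L.inj a' ha' b' hb' e]
  vert := by
    intro v hv h0 b hb
    obtain ⟨b', hb', rfl⟩ := Finset.mem_map.1 hb
    rw [h]
    exact L.vert v hv h0 b' hb'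

/-- **the input of the towers for the union of two states** -/
theorem din_sum {hH : ∀ c, CoreH T (Kc c)} {s1 : GSt (meshC T h3) fam1}
    {s2 : GSt (meshC T h3) fam2} {s : GSt (meshC T h3) (Sum.map fam1 fam2)}
    {r1 : J1 → E} {Sf1 : J1 → Set E} {nb1 : κ → C1 → Prop} {v01 v11 : ∀ c, C1 → VxK T Kc c}
    {u1 : κ → C1 → E → ℝ} {A1 B1 : κ → C1 → ℝ}
    {r2 : J2 → E} {Sf2 : J2 → Set E} {nb2 : κ → C2 → Prop} {v02 v12 : ∀ c, C2 → VxK T Kc c}
    {u2 : κ → C2 → E → ℝ} {A2 B2 : κ → C2 → ℝ}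
    (p1 : Part s1 s Sum.inl) (p2 : Part s2 s Sum.inr)
    (D1 : DIn hH s1 r1 Sf1 nb1 v01 v11 u1 A1 B1) (D2 : DIn hH s2 r2 Sf2 nb2 v02 v12 u2 A2 B2) :
    DIn hH s (Sum.elim r1 r2) (Sum.elim Sf1 Sf2) (fun c => Sum.elim (nb1 c) (nb2 c))
      (fun c => fun | Sum.inl a => v01 c a | Sum.inr a => v02 c a)
      (fun c => fun | Sum.inl a => v11 c a | Sum.inr a => v12 c a)
      (fun c => Sum.elim (u1 c) (u2 c)) (fun c => Sum.elim (A1 c) (A2 c))
      (fun c => Sum.elim (B1 c) (B2 c)) where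
  h1 := by
    rintro (j | j)
    · exact p1.h1 (D1.h1 j)
    · exact p2.h1 (D2.h1 j)
  conn := by
    rintro (j | j)
    · exact p1.conn (D1.conn j)
    · exact p2.conn (D2.conn j)
  root := by
    rintro (j | j)
    · exact (p1.pts _ _).2 (D1.root j)
    · exact (p2.pts _ _).2 (D2.root j)
  out := by
    rintro (j | j)
    · exact D1.out j
    · exact D2.out j
  dim1 := by
    intro w hw
    rcases hl : s.lab w with j | j
    · exact D1.dim1 w (p1.mem' hw hl).1
    · exact D2.dim1 w (p2.mem' hw hl).1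
  car := by
    rintro (j | j)
    · exact p1.car (D1.car j)
    · exact p2.car (D2.car j)
  sub := by
    rintro (j | j)
    · exact D1.sub j
    · exact D2.sub j
  finJ := by
    rintro (a | a)
    · refine ((D1.finJ a).image Sum.inl).subset ?_
      rintro (j | j) hj
      · exact ⟨j, Sum.inl_injective hj, rfl⟩
      · cases hj
    · refine ((D2.finJ a).image Sum.inr).subset ?_
      rintro (j | j) hj
      · cases hj
      · exact ⟨j, Sum.inr_injective hj, rfl⟩
  nb_c := by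
    intro c
    refine (((D1.nb_c c).image Sum.inl).union ((D2.nb_c c).image Sum.inr)).subset ?_
    rintro (a | a) ha
    · exact Or.inl ⟨a, ha, rfl⟩
    · exact Or.inr ⟨a, ha, rfl⟩
  nb_a := by
    rintro (a | a)
    · exact D1.nb_a a
    · exact D2.nb_a a
  far := by
    intro c w hw hf
    rcases hl : s.lab w with j | j
    · obtain ⟨h1, h2⟩ := p1.mem' hw hl
      have := D1.far c w h1 hf
      rw [h2] at this
      exact this
    · obtain ⟨h1, h2⟩ := p2.mem' hw hl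
      have := D2.far c w h1 hf
      rw [h2] at this
      exact this
  eg := by
    rintro c (j | j) hn
    · exact (D1.eg c j hn).map p1.eg
    · exact (D2.eg c j hn).map p2.eg
  low := by
    intro c w hw hf
    rcases hl : s.lab w with j | j
    · obtain ⟨h1, h2⟩ := p1.mem' hw hl
      have := D1.low c w h1 hf
      rw [h2] at this
      exact this
    · obtain ⟨h1, h2⟩ := p2.mem' hw hl
      have := D2.low c w h1 hf
      rw [h2] at this
      exact this
  v0_lt := by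
    rintro c (a | a) hn
    · exact D1.v0_lt c a hn
    · exact D2.v0_lt c a hn
  v1_gt := by
    rintro c (a | a) hn
    · exact D1.v1_gt c a hn
    · exact D2.v1_gt c a hn
  lev := by
    intro c lvl hinj Q hQ
    obtain ⟨L1, a1, a2, a3, a4, a5, a6, a7⟩ := D1.lev c (fun j => lvl (Sum.inl j))
      (fun i j h e => Sum.inl_injective (hinj _ _ (congrArg Sum.inl h) e)) Q hQ
    -- the points of the first levels
    have hS := sgd h3 hH c
    have hQ2 : (Q ∪ ⋃ a ∈ {a | nb1 c a}, (L1 a).PS).Finite :=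
      hQ.union ((D1.nb_c c).biUnion fun a _ => (L1 a).finite_PS hS)
    obtain ⟨L2, b1, b2, b3, b4, b5, b6, b7⟩ := D2.lev c (fun j => lvl (Sum.inr j))
      (fun i j h e => Sum.inr_injective (hinj _ _ (congrArg Sum.inr h) e)) _ hQ2
    let L : C1 ⊕ C2 → Lev T (frontier (Kc c)) (J1 ⊕ J2) := fun
      | Sum.inl a => levMap (L1 a) ⟨Sum.inl, Sum.inl_injective⟩
          (Sum.elim (L1 a).lv fun _ => 0) fun _ => rfl
      | Sum.inr a => levMap (L2 a) ⟨Sum.inr, Sum.inr_injective⟩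
          (Sum.elim (fun _ => 0) (L2 a).lv) fun _ => rfl
    have hL1 : ∀ a j, j ∈ (L (Sum.inl a)).J0 ↔ ∃ j', j' ∈ (L1 a).J0 ∧ Sum.inl j' = j := fun a j =>
      Finset.mem_map
    have hL2 : ∀ a j, j ∈ (L (Sum.inr a)).J0 ↔ ∃ j', j' ∈ (L2 a).J0 ∧ Sum.inr j' = j := fun a j =>
      Finset.mem_map
    have hmix : ∀ a b, ∀ i ∈ (L1 a).J0, ∀ j ∈ (L2 b).J0, ∀ y ∈ frontier (Kc c), T.dim y = 1 →
        (L1 a).u y = (L1 a).lv i → (L2 b).u y ≠ (L2 b).lv j := by
      intro a b i hi j hj y hy hd e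
      refine b4 b j hj y (Or.inr ?_)
      exact mem_biUnion (x := a) ((a2 a i).1 hi).2 ⟨hy, hd, i, hi, e⟩
    refine ⟨L, ?_, ?_, ?_, ?_, ?_, ?_, ?_⟩
    · rintro (a | a)
      · exact a1 a
      · exact b1 a
    · rintro (a | a) j
      · rw [hL1]
        constructor
        · rintro ⟨j', hj', rfl⟩
          obtain ⟨h1, h2⟩ := (a2 a j').1 hj'
          exact ⟨congrArg Sum.inl h1, h2⟩
        · rintro ⟨h1, h2⟩
          rcases j with j | j
          · exact ⟨j, (a2 a j).2 ⟨Sum.inl_injective h1, h2⟩, rfl⟩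
          · cases h1
      · rw [hL2]
        constructor
        · rintro ⟨j', hj', rfl⟩
          obtain ⟨h1, h2⟩ := (b2 a j').1 hj'
          exact ⟨congrArg Sum.inr h1, h2⟩
        · rintro ⟨h1, h2⟩
          rcases j with j | j
          · cases h1
          · exact ⟨j, (b2 a j).2 ⟨Sum.inr_injective h1, h2⟩, rfl⟩
    · rintro (a | a) j hj
      · obtain ⟨j', hj', rfl⟩ := (hL1 a j).1 hj
        exact a3 a j' hj'
      · obtain ⟨j', hj', rfl⟩ := (hL2 a j).1 hj
        exact b3 a j' hj'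
    · rintro (a | a) j hj w hw
      · obtain ⟨j', hj', rfl⟩ := (hL1 a j).1 hj
        exact a4 a j' hj' w hw
      · obtain ⟨j', hj', rfl⟩ := (hL2 a j).1 hj
        exact b4 a j' hj' w (Or.inl hw)
    · rintro (a | a) i hi j hj
      · obtain ⟨i', hi', rfl⟩ := (hL1 a i).1 hi
        obtain ⟨j', hj', rfl⟩ := (hL1 a j).1 hj
        exact a5 a i' hi' j' hj'
      · obtain ⟨i', hi', rfl⟩ := (hL2 a i).1 hi
        obtain ⟨j', hj', rfl⟩ := (hL2 a j).1 hj
        exact b5 a i' hi' j' hj'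
    · rintro (a | a) (b | b) hab i hi j hj y hy hd e
      · obtain ⟨i', hi', rfl⟩ := (hL1 a i).1 hi
        obtain ⟨j', hj', rfl⟩ := (hL1 b j).1 hj
        exact a6 a b (fun h => hab (congrArg Sum.inl h)) i' hi' j' hj' y hy hd e
      · obtain ⟨i', hi', rfl⟩ := (hL1 a i).1 hi
        obtain ⟨j', hj', rfl⟩ := (hL2 b j).1 hj
        exact hmix a b i' hi' j' hj' y hy hd e
      · obtain ⟨i', hi', rfl⟩ := (hL2 a i).1 hi
        obtain ⟨j', hj', rfl⟩ := (hL1 b j).1 hj
        exact fun e' => hmix b a j' hj' i' hi' y hy hd e' e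
      · obtain ⟨i', hi', rfl⟩ := (hL2 a i).1 hi
        obtain ⟨j', hj', rfl⟩ := (hL2 b j).1 hj
        exact b6 a b (fun h => hab (congrArg Sum.inr h)) i' hi' j' hj' y hy hd e
    · rintro (a | a) j hj
      · obtain ⟨j', hj', rfl⟩ := (hL1 a j).1 hj
        exact a7 a j' hj'
      · obtain ⟨j', hj', rfl⟩ := (hL2 a j).1 hj
        exact b7 a j' hj'

end Crest.Agent.R096.Dis_184
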