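import Crest.Agent.R096.Dfi3_471
import Crest.Agent.R096.Dis1_184
import Crest.Agent.R096.Dinv2_106
import Crest.Agent.R096.Sgd2_298

/-!
# Row 96, DOORS (helper298): the outer points of `s₂` are joined with the root

`loc_in`   : one sheet of a global state, from `LocH1 N R`: a set which contains one point on a face
             with a cell outside `R` and is closed under the chords on the faces with a cell outside
             `N` contains all points on the faces with a cell outside `R`;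
`locH1_part` : `LocH1` for a name of 184's `Part`;
`out_in`   : the same for 471's state `s2` over the layers (outer faces only);
`hout_s2`  : the hypothesis `hout` of `cl_sheet` for `s2`, from `LocH1` for several regions.
-/

set_option autoImplicit false
set_option linter.unusedSectionVars false
set_option linter.style.longLine false

open Set Module
open scoped Classical

namespace Crest.Agent.R096.Sgo_298

open Crest.Agent.R096.St_147 Crest.Agent.R096.Seq_213 Crest.Agent.R096.Ginv_543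
  Crest.Agent.R096.Dis_184

section abstr

variable {ι Φ W J C J1 C1 : Type} {M : MeshC ι Φ W} {fam : J → C} {fam1 : J1 → C1}
  {s : GSt M fam} {i : J}

/-- **outer connectedness from `LocH1`** -/
theorem loc_in (hconn : s.Conn i) {N R : Set ι} (hloc : (gSht s i).LocH1 N R) (hNR : N ⊆ R)
    {b : W} (hb : b ∈ s.P ∧ s.lab b = i) (hbR : ∃ F, b ∈ M.On F ∧ ∃ q ∈ M.side F, q ∉ R)
    (X : Set W) (hbX : b ∈ X)
    (hX : ∀ F w, w ∈ X → s.At F w → s.lab w = i → (∃ q ∈ M.side F, q ∉ N) → s.mu F w ∈ X) :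
    ∀ F w, s.At F w → s.lab w = i → (∃ q ∈ M.side F, q ∉ R) → w ∈ X := by
  obtain ⟨Fb, hbF, qb, hqb, hqR⟩ := hbR
  obtain ⟨far, f1, f2, f3, -, f5⟩ := (gSht s i).far (gSht_cn hconn)
    (KK := ({()} : Finset Unit)) (N := fun _ => N) (Q := fun _ => R)
    (fun _ _ => hloc) (fun _ _ => hNR) (fun _ _ _ _ _ _ _ _ _ _ _ _ _ _ _ _ => rfl)
    (m := b) (mem_gSht.2 hb) (Fm := Fb) hbF hqb (fun _ _ => hqR)
  intro F w hA hl ⟨q, hqF, hqR'⟩
  have hwfar : w ∈ far := by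
    by_contra h
    obtain ⟨_, _, h6⟩ := f3 w (mem_gSht.2 ⟨hA.1, hl⟩) h
    exact hqR' (h6 F hA.2 q hqF)
  refine f5 X ?_ b hbX f1 hwfar
  rintro G y hyX hyf hyG hmf ⟨r, hr, hrN⟩
  have hy0 := mem_gSht.1 (f2 y hyf)
  exact hX G y hyX ⟨hy0.1, hyG⟩ hy0.2 ⟨r, hr, hrN () (Finset.mem_singleton_self _)⟩

/-- `LocH1` for a name of a part -/
theorem locH1_part {s1 : GSt M fam1} {f : J1 → J} (h : Part s1 s f) {j : J1} {N R : Set ι}
    (hl : (gSht s1 j).LocH1 N R) : (gSht s (f j)).LocH1 N R := by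
  intro κ hκ
  obtain ⟨Ψ, hΨ⟩ := hl κ (by
    intro q hq
    obtain ⟨ψ, hψ⟩ := hκ q hq
    refine ⟨ψ, fun F w hqF hw hF => ?_⟩
    obtain ⟨h1, h2⟩ := mem_gSht.1 hw
    obtain ⟨h4, h5⟩ := h.mem h1
    rw [h2] at h5
    have h6 := hψ F w hqF (mem_gSht.2 ⟨h4, h5⟩) hF
    rw [h6]
    show ψ w + ψ (s.mu F w) = ψ w + ψ (s1.mu F w)
    rw [h.mu F w h1 hF])
  refine ⟨Ψ, fun F w hw hF hq => ?_⟩
  obtain ⟨h1, h2⟩ := mem_gSht.1 hw
  obtain ⟨h4, h5⟩ := h.mem' h1 h2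
  have h6 := hΨ F w (mem_gSht.2 ⟨h4, h5⟩) hF hq
  rw [h6]
  show Ψ w + Ψ (s1.mu F w) = Ψ w + Ψ (s.mu F w)
  rw [h.mu F w h4 hF]

end abstr

open Crest.Agent.R096.Msh_715 Crest.Agent.R096.Agl5_543 Crest.Agent.R096.Door_501
  Crest.Agent.R096.Sla_184 Crest.Agent.R096.Twr_438 Crest.Agent.R096.Ess3_95
  Crest.Agent.R096.Dfi_539 Crest.Agent.R096.Dfi_471
  Crest.Agent.R096.Sec_892 Crest.Agent.R096.Cg_501 Crest.Agent.R096.Sgd_298
open Crest.Agent.R096.Sla_184.Sla (hf vf old tg F0 Fn Out OnS InL In)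

section s2

variable {E : Type} [NormedAddCommGroup E] [NormedSpace ℝ E] [FiniteDimensional ℝ E]
variable {Om : Set E} {ι : Type} {T : Tiling Om ι} {κ : Type} {S : Sla T κ}
  {h3 : finrank ℝ E = 3} {J C : Type} {fam : J → C} [Nonempty J]
  {s : GSt (meshC T h3) fam} {r : J → E}
  {Tw : Twrs (S.sh h3) S.n (outK S.hH S.dis s r)} {l0 : E → J} {i : J}

/-- **the outer points of a sheet of `s₂` are joined with the root by outer chords** -/
theorem out_in (hconn : s.Conn i) {N R : Set ι} (hloc : (gSht s i).LocH1 N R) (hNR : N ⊆ R)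
    (hKN : ∀ q, q ∉ N → ∀ c, ¬ P (T.H q) ⊆ S.K c)
    (hr : r i ∈ s.P ∧ s.lab (r i) = i)
    (hrR : ∃ F : C2 T, r i ∈ F.On ∧ ∃ q ∈ F.side h3, q ∉ R) (X : Set E) (hrX : r i ∈ X)
    (hX : ∀ (G : S.F0 h3) w, w ∈ X → (s2 S h3 Tw l0).At (old G) w →
      (s2 S h3 Tw l0).lab w = i → (∃ q ∈ G.1.side h3, q ∉ N) →
      (s2 S h3 Tw l0).mu (old G) w ∈ X) :
    ∀ w ∈ (s2 S h3 Tw l0).P, (s2 S h3 Tw l0).lab w = i →
      (∃ F : C2 T, w ∈ F.On ∧ ∃ q ∈ F.side h3, q ∉ R) → w ∈ X := by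
  have hroot : r i ∈ (outK S.hH S.dis s r).P := by
    refine ⟨hr.1, ?_⟩
    rw [hr.2]
  intro w hw hl ⟨F, hwF, q, hqF, hqR⟩
  have hqK := hKN q (fun h => hqR (hNR h))
  have hwq : w ∈ P (T.H q) := C2.sub_tile (h3 := h3) hqF hwF.1
  obtain ⟨h1, h2, h4⟩ := out2 (l0 := l0) hw (Sla.out_of_tile hqK hwq)
  have h5 : s.lab w = i := h2.symm.trans hl
  have key := loc_in hconn hloc hNR hr hrR
    {y | y ∈ X ∧ y ∈ (outK S.hH S.dis s r).P} ⟨hrX, hroot⟩ ?_ F w ⟨h1, hwF⟩ h5 ⟨q, hqF, hqR⟩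
  · exact key.1
  · rintro G y ⟨hyX, hyP⟩ hA hyl ⟨p, hpG, hpN⟩
    have hpK := hKN p hpN
    have : Nonempty T.Cell := ⟨T.cl (G.set_sub hA.2.1)⟩
    have hGd : ¬ (((meshC T h3).side G).map (piK T S.K)).IsDiag :=
      Lm_117.out_face h3 G ⟨p, hpK, C2.sub_tile (h3 := h3) hpG⟩
    obtain ⟨a1, a2, a3, a4⟩ := mu_out' (Tw := Tw) (l0 := l0) (F0 := ⟨G, hGd⟩) hyP hA.2
    have h6 := hX ⟨G, hGd⟩ y hyX ⟨a1, a2⟩ (a3.trans hyl) ⟨p, hpG, hpN⟩
    rw [a4] at h6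
    refine ⟨h6, ?_⟩
    have h7 := ((outK S.hH S.dis s r).mu_mem (F := ⟨G, hGd⟩) hyP hA.2).1
    exact h7

/-- sides of an old face -/
theorem side_old {G : S.F0 h3} {q : ι} (hq : q ∈ G.1.side h3) (hK : ∀ c, ¬ P (T.H q) ⊆ S.K c) :
    Sum.inl (S.ot q hK) ∈ (S.mn h3).side (old G) := by
  have hO : G.1.pt ∈ Om := G.1.pt_mem
  have h1 : (old G).1.pt ∈ S.T3.oc G.1.pt :=
    Slc_184.mk2_pt G.1.pt_mem ((Sla.F0.out G).dim.trans G.1.dim_pt)
  rw [(Sla.F0.out G).oc] at h1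
  refine Sla.mem_sideN.2 ⟨S.ot q hK, ?_, Sla.piK_ot hK⟩
  have h2 : q ∈ T.at_ (old G).1.pt := by
    rw [T.at_eq_of_mem_oc hO h1]
    exact C2.mem_side.1 hq
  have h4 : (old G).1.pt ∈ P (T.H q) := h2
  rw [← Sla.ot_P hK] at h4
  exact h4

end s2

/-! ### `hout` of `cl_sheet` -/

section hout

variable {E : Type} [NormedAddCommGroup E] [NormedSpace ℝ E] [FiniteDimensional ℝ E]
variable {Om : Set E} {ι : Type} {T : Tiling Om ι} {κ : Type} {S : Sla T κ}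
  {h3 : finrank ℝ E = 3} {J C Mo : Type} {fam : J → C} [Nonempty (J ⊕ Mo)]
  {s : GSt (meshC T h3) (Sum.map fam (id : Mo → Mo))} {r : J ⊕ Mo → E} {am : Mo → C} {a : C}
  {Tw : Twrs (S.sh h3) S.n (outK S.hH S.dis s r)} {l0 : E → J ⊕ Mo} {n : J ⊕ Mo}

/-- the cells over the tiles of `R` -/
def ActR (S : Sla T κ) (R : Set ι) : Set (T.RIdx S.HH ⊕ κ) :=
  {q | ∃ p : T.RIdx S.HH, q = Sum.inl p ∧ p.tile ∈ R}

theorem inl_ActR {R : Set ι} {p : T.RIdx S.HH} : Sum.inl p ∈ ActR S R ↔ p.tile ∈ R := by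
  constructor
  · rintro ⟨p', h, h'⟩
    cases h
    exact h'
  · intro h
    exact ⟨p, rfl, h⟩

theorem inr_ActR {R : Set ι} {c : κ} : Sum.inr c ∉ ActR S R := by
  rintro ⟨p', h, h'⟩
  cases h

/-- **`hout` of `cl_sheet` for `s₂`**, `Act := ActR S R` (the cells over the tiles of `R`),
`Gt := range inr`; `hbar` : every tile with a barrier point of `a` is in `N` -/
theorem hout_s2 (hconn : s.Conn n) (hdim : ∀ w ∈ s.P, w ∈ Om ∧ T.dim w = 1) {N R : Set ι}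
    (hloc : (gSht s n).LocH1 N R) (hNR : N ⊆ R)
    (hKN : ∀ q, q ∉ N → ∀ c, ¬ P (T.H q) ⊆ S.K c)
    (hr : r n ∈ s.P ∧ s.lab (r n) = n)
    (hrR : ∃ q, r n ∈ P (T.H q) ∧ q ∉ R)
    (hbar : ∀ w m, w ∈ s.P → s.lab w = Sum.inr m → am m = a → ∀ q, w ∈ P (T.H q) → q ∈ N)
    (X : Set E) (hrX : r n ∈ X)
    (hX : ∀ F w, (NB (s2 S h3 Tw l0) am a F ∨ St.Frozen (S.mn h3) (ActR S R) F) → w ∈ X →
      (s2 S h3 Tw l0).At F w → (s2 S h3 Tw l0).lab w = n → (s2 S h3 Tw l0).mu F w ∈ X) :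
    ∀ F w, (s2 S h3 Tw l0).At F w → (s2 S h3 Tw l0).lab w = n →
      (∃ q ∈ (S.mn h3).side F, q ∉ ActR S R ∧ q ∉ Set.range (Sum.inr : κ → T.RIdx S.HH ⊕ κ)) →
      w ∈ X := by
  rintro F w hA hl ⟨q, hqF, hqA, hqG⟩
  rcases q with p | c
  · have hpR : p.tile ∉ R := fun h => hqA (inl_ActR.2 h)
    have hpK := hKN p.tile fun h => hpR (hNR h)
    have hp := Sla.eq_ot hpK
    have hwp : w ∈ P (T.H p.tile) := by
      obtain ⟨F0, rfl, -, h2, h4⟩ := face_out F hpK (by rw [← hp]; exact hqF)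
      have h5 := mu_out hA.1 hA.2
      exact C2.sub_tile (h3 := h3) h4 h5.2.1.1
    obtain ⟨h1, h2, -⟩ := out2 (l0 := l0) hA.1 (Sla.out_of_tile hpK hwp)
    obtain ⟨hO, hd⟩ := hdim w h1
    obtain ⟨q0, hq0, hq0R⟩ := hrR
    obtain ⟨hO', hd'⟩ := hdim _ hr.1
    obtain ⟨G0, hG0, hG0'⟩ := Gm_298.exists_face_out (h3 := h3) hO' hd' hq0
    obtain ⟨G, hG, hG'⟩ := Gm_298.exists_face_out (h3 := h3) hO hd hwp
    refine out_in hconn hloc hNR hKN hr ⟨G0, hG0, q0, hG0', hq0R⟩ X hrX ?_ w hA.1 hl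
      ⟨G, hG, p.tile, hG', hpR⟩
    rintro G1 y hy hyA hyl ⟨t, ht, htN⟩
    refine hX (old G1) y ?_ hy hyA hyl
    by_cases htR : t ∈ R
    · left
      intro x m hx hxl hxm
      obtain ⟨g1, g2, g3, -, -⟩ := mu_out hx.1 hx.2
      exact htN (hbar x m g1 (g3.symm.trans hxl) hxm t (C2.sub_tile (h3 := h3) ht g2.1))
    · right
      have htK := hKN t htN
      exact ⟨_, side_old ht htK, fun h => htR (inl_ActR.1 h)⟩
  · exact absurd ⟨c, rfl⟩ hqG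

end hout

end Crest.Agent.R096.Sgo_298
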