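import Mathlib
import Crest.Agent.R096.Init4_543
import Crest.Agent.R096.Init6_543

/-! # Row 96, INIT (helper543), Tlh 1: **the blob of a quad and of the doors**: strip over a quad
together with the discs of the sheet in finitely many door sets -/

set_option autoImplicit false
set_option linter.unusedSectionVars false

open Set Filter Topology Metric

namespace Crest.Agent.R096.Init_543

open Crest.Agent.R096.Brk1_582 Crest.Agent.R096.Brk2_582 Crest.Agent.R096.Coh_184
  Crest.Agent.R096.Vb_965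

variable {V : Type} [NormedAddCommGroup V] [NormedSpace ℝ V] [FiniteDimensional ℝ V] {I : Type}
variable {La : Set V} {P : I → Set V} {b : Set I → V} {N : ℕ} {R : V → V}

/-- the part of the level `t` of the cell `a` in the cell `e` -/
def disc (P : I → Set V) (b : Set I → V) (e a : I) (t : ℝ) : Set V :=
  {z | z ∈ P e ∧ sc P b z a = t}

section disc

variable (F : Foam La P b N)
include F

theorem isCompact_disc1 {e a : I} {t : ℝ} : IsCompact (disc P b e a t) := by
  have h : disc P b e a t = P e ∩ (fun y => sc P b y a) ⁻¹' {t} := rfl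
  rw [h]
  exact (F.cpt e).of_isClosed_subset (((continuousOn_sc_apply F a).mono (F.sub e)
    ).preimage_isClosed_of_isClosed (F.cpt e).isClosed isClosed_singleton) inter_subset_left

theorem trivF_disc {e a : I} (hae : a ≠ e) {t : ℝ} (h0 : 0 ≤ t) (h1 : t < 1) :
    TrivF (ZMod 2) (disc P b e a t) := by
  classical
  have hL0 : ∀ y ∈ fc P {a, e}, y ∈ Lset La P b a 0 := by
    intro y hy
    rw [Lset_zero F]
    exact ⟨mem_fc.1 hy a (Or.inl rfl), e, hae.symm, mem_fc.1 hy e (Or.inr rfl)⟩
  have himg : disc P b e a t = mv P b a t '' (fc P {a, e}) := by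
    ext z
    constructor
    · rintro ⟨h2, h3⟩
      have hzL : z ∈ Lset La P b a t := ⟨F.sub e h2, h3, e, hae.symm, h2⟩
      have h4 := mv_mem F h1 le_rfl one_pos hzL
      have h5 := sc_mv F h1 le_rfl one_pos hzL
      refine ⟨mv P b a 0 z, ?_, mv_mv F h1 le_rfl one_pos hzL⟩
      rw [mem_fc]
      have ha : mv P b a 0 z ∈ P a := (F.sc_eq_zero h4.1).1 h4.2.1
      have he : mv P b a 0 z ∈ P e := by
        rw [← F.sc_eq_zero h4.1, h5, Function.update_of_ne hae.symm]
        exact (F.sc_eq_zero hzL.1).2 h2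
      rintro c (rfl | hc)
      · exact ha
      · rw [mem_singleton_iff.1 hc]; exact he
    · rintro ⟨y, hy, rfl⟩
      have hyL := hL0 y hy
      have h4 := mv_mem F one_pos h0 h1 hyL
      have h5 := sc_mv F one_pos h0 h1 hyL
      refine ⟨?_, h4.2.1⟩
      rw [← F.sc_eq_zero h4.1, h5, Function.update_of_ne hae.symm]
      exact (F.sc_eq_zero hyL.1).2 (mem_fc.1 hy e (Or.inr rfl))
  rw [himg]
  have hc : IsCompact (fc P {a, e}) := F.isCompact_fc ⟨a, Or.inl rfl⟩
  have ht : TrivF (ZMod 2) (fc P {a, e}) := fun n => trivAll_convex' hc F.convex_fc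
  refine ht.of_image hc hc.isClosed ((continuousOn_mv F one_pos h0 h1).mono hL0) ?_
  intro y hy y' hy' he
  have h2 := mv_mv F one_pos h0 h1 (hL0 y hy)
  have h3 := mv_mv F one_pos h0 h1 (hL0 y' hy')
  rw [he, h3] at h2
  exact h2.symm

end disc

/-! ### doors -/

/-- a door set in the cell `e`: the retraction is monotone from it onto the cell -/
structure Door (P : I → Set V) (R : V → V) (e : I) (G : Set V) : Prop where
  cpt : IsCompact G
  sub : G ⊆ P e
  ne : ∀ z ∈ P e, (G ∩ R ⁻¹' {z}).Nonempty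
  conn : ∀ z ∈ P e, IsPreconnected (G ∩ R ⁻¹' {z})
  triv : ∀ z ∈ P e, TrivF (ZMod 2) (G ∩ R ⁻¹' {z})

section door

variable (F : Foam La P b N) (hR : Ret La P R) {e : I} {G : Set V} (hG : Door P R e G)
include F hR hG

theorem Door.compact_pre {D : Set V} (hD : IsCompact D) : IsCompact (G ∩ R ⁻¹' D) :=
  hG.cpt.of_isClosed_subset ((hR.cont.mono fun _ hy => F.sub e (hG.sub hy)
    ).preimage_isClosed_of_isClosed hG.cpt.isClosed hD.isClosed) inter_subset_left

omit F hR in
theorem Door.image_pre {D : Set V} (hDP : D ⊆ P e) : R '' (G ∩ R ⁻¹' D) = D := by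
  ext z
  constructor
  · rintro ⟨y, hy, rfl⟩; exact hy.2
  · intro hz
    obtain ⟨y, hy, he⟩ := hG.ne z (hDP hz)
    exact ⟨y, ⟨hy, by show R y ∈ D; rw [show R y = z from he]; exact hz⟩, he⟩

omit F hR hG in
theorem door_fib {D : Set V} {z : V} (hz : z ∈ D) :
    (G ∩ R ⁻¹' D) ∩ R ⁻¹' {z} = G ∩ R ⁻¹' {z} := by
  ext y
  constructor
  · rintro ⟨h1, h2⟩; exact ⟨h1.1, h2⟩
  · rintro ⟨h1, h2⟩
    exact ⟨⟨h1, by show R y ∈ D; rw [show R y = z from h2]; exact hz⟩, h2⟩

theorem Door.preconn_pre {D : Set V} (hD : IsCompact D) (hDP : D ⊆ P e) (ht : IsPreconnected D) :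
    IsPreconnected (G ∩ R ⁻¹' D) := by
  refine preconn_of_fibres (hG.compact_pre F hR hD)
    (hR.cont.mono fun _ hy => F.sub e (hG.sub hy.1)) (hG.image_pre hDP) (fun z hz => ?_) ht
  rw [door_fib hz]; exact hG.conn z (hDP hz)

theorem Door.trivF_pre {D : Set V} (hD : IsCompact D) (hDP : D ⊆ P e)
    (ht : TrivF (ZMod 2) D) : TrivF (ZMod 2) (G ∩ R ⁻¹' D) := by
  have hc := hG.compact_pre F hR hD
  intro n
  refine TrivAll.of_fibres hc hc.isClosed (hR.cont.mono fun _ hy => F.sub e (hG.sub hy.1))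
    (hG.image_pre hDP) (fun z hz => ?_) (fun z hz => ?_) ht
  · rw [door_fib hz]; exact hG.conn z (hDP hz)
  · rw [door_fib hz]; exact hG.triv z (hDP hz) n

end door

/-! ### the blob in the target -/

/-- the disc of the sheet `(a, t)` in the door set `G` of the cell `e` -/
def dd (P : I → Set V) (b : Set I → V) (R : V → V) (G : I → Set V) (a : I) (t : ℝ) (e : I) :
    Set V := G e ∩ R ⁻¹' disc P b e a t

section blob

variable (F : Foam La P b 4) (hR : Ret La P R) {G : I → Set V}
include F hR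

theorem blob_triv {s : ℝ} (hs : 0 < s) {k : QK P} {a a' : I} (haa : a ≠ a') (hB : k.B = {a, a'})
    {t : ℝ} (ht : t ∈ Icc s (1 - s)) (Es : Finset I) (hG : ∀ e ∈ Es, Door P R e (G e))
    (hdis : ∀ e ∈ Es, ∀ e' ∈ Es, e ≠ e' → Disjoint (G e) (G e')) (hEa : a ∉ Es) :
    IsCompact (rpre La R (qarc La P b a a' k.Z t s (1 - s)) ∪ ⋃ e ∈ Es, dd P b R G a t e) ∧
    TrivF (ZMod 2)
      (rpre La R (qarc La P b a a' k.Z t s (1 - s)) ∪ ⋃ e ∈ Es, dd P b R G a t e) := by
  classical
  have ha : a ∈ k.B := by rw [hB]; exact Or.inl rfl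
  have ha' : a' ∈ k.B := by rw [hB]; exact Or.inr rfl
  have hU : insert a (insert a' k.Z) = k.B ∪ k.Z := by
    rw [hB]
    ext c
    simp [or_assoc]
  have haZ : a ∉ k.Z := fun h => disjoint_left.1 k.dis ha h
  have haZ' : a' ∉ k.Z := fun h => disjoint_left.1 k.dis ha' h
  have hN4 : (insert a (insert a' k.Z)).ncard = 4 := by rw [hU]; exact k.card_union
  have ht1 : t < 1 := by linarith [ht.2]
  have ht0 : 0 ≤ t := hs.le.trans ht.1
  obtain ⟨h1, h2, h3⟩ := qarc_props F (a := a) (a' := a') (Z := k.Z) (t := t) (l := s)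
    (r := 1 - s) hN4 ht0 ht1 hs.le
    (by linarith) haa haZ haZ' k.Z_nonempty (by rw [hU]; exact k.ne)
  set A := qarc La P b a a' k.Z t s (1 - s) with hA
  have hsub : A ⊆ La := fun y hy => hy.1
  have hAc := hR.isCompact_pre F h1 hsub
  have hAt := hR.trivF_pre F h1 hsub h2
  -- zero set on the arc
  have hzero : ∀ y ∈ A, ∀ e, sc P b y e = 0 → e ∈ k.Z := by
    intro y hy e he
    have h4 := sc_qarc F hN4 ht1 (by linarith) hy
    rw [h4] at he
    by_contra hne
    unfold qu at he
    by_cases c1 : e = a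
    · rw [if_pos c1] at he
      linarith [ht.1]
    · rw [if_neg c1] at he
      by_cases c2 : e = a'
      · rw [if_pos c2] at he
        linarith [hy.2.2.1.1]
      · rw [if_neg c2, if_neg hne] at he
        exact one_ne_zero he
  clear_value A
  induction Es using Finset.induction_on with
  | empty =>
    simp only [Finset.notMem_empty, iUnion_of_empty, iUnion_empty, union_empty]
    exact ⟨hAc, hAt⟩
  | insert e s' hes ih =>
    obtain ⟨i1, i2⟩ := ih (fun e he => hG e (Finset.mem_insert_of_mem he))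
      (fun e he e' he' => hdis e (Finset.mem_insert_of_mem he) e' (Finset.mem_insert_of_mem he'))
      (fun h => hEa (Finset.mem_insert_of_mem h))
    have he' : e ∈ insert e s' := Finset.mem_insert_self e s'
    have hGe := hG e he'
    have hae : a ≠ e := by
      rintro rfl
      exact hEa he'
    have hu : rpre La R A ∪ ⋃ c ∈ insert e s', dd P b R G a t c =
        (rpre La R A ∪ ⋃ c ∈ s', dd P b R G a t c) ∪ dd P b R G a t e := by
      ext x
      simp only [mem_union, mem_iUnion, Finset.mem_insert, exists_prop, exists_eq_or_imp]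
      constructor
      · rintro (h | h | h)
        · exact Or.inl (Or.inl h)
        · exact Or.inr h
        · exact Or.inl (Or.inr h)
      · rintro ((h | h) | h)
        · exact Or.inl h
        · exact Or.inr (Or.inr h)
        · exact Or.inr (Or.inl h)
    have hdc : IsCompact (dd P b R G a t e) := hGe.compact_pre F hR (isCompact_disc1 F)
    have hdt : TrivF (ZMod 2) (dd P b R G a t e) :=
      hGe.trivF_pre F hR (isCompact_disc1 F) (fun z hz => hz.1) (trivF_disc F hae ht0 ht1)
    rw [hu]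
    refine ⟨i1.union hdc, fun n => TrivAll.union i1.isClosed hdc.isClosed ?_ (i2 n) (hdt n)⟩
    -- the intersection
    have hI : (rpre La R A ∪ ⋃ c ∈ s', dd P b R G a t c) ∩ dd P b R G a t e =
        rpre La R A ∩ G e := by
      ext y
      constructor
      · rintro ⟨h5 | h5, h6⟩
        · exact ⟨h5, h6.1⟩
        · obtain ⟨c, hc, h7⟩ := mem_iUnion₂.1 h5
          have hce : c ≠ e := by rintro rfl; exact hes hc
          exact (disjoint_left.1 (hdis c (Finset.mem_insert_of_mem hc) e he' hce) h7.1 h6.1).elim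
      · rintro ⟨h5, h6⟩
        exact ⟨Or.inl h5, h6, hR.cell e (hGe.sub h6), by
          have : R y ∈ A := h5.2
          rw [hA] at this
          exact this.2.1⟩
    rw [hI]
    by_cases heZ : e ∈ k.Z
    · have h5 : rpre La R A ∩ G e = G e ∩ R ⁻¹' A := by
        ext y
        exact ⟨fun h => ⟨h.2, h.1.2⟩, fun h => ⟨⟨F.sub e (hGe.sub h.1), h.2⟩, h.1⟩⟩
      rw [h5]
      refine hGe.preconn_pre F hR h1 (fun y hy => ?_) h3
      have : y ∈ qarc La P b a a' k.Z t s (1 - s) := by rw [← hA]; exact hy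
      exact (F.sc_eq_zero this.1).1 (this.2.2.2 e heZ)
    · have h5 : rpre La R A ∩ G e = ∅ := by
        rw [eq_empty_iff_forall_notMem]
        rintro y ⟨⟨h6, h7⟩, h8⟩
        have h9 : R y ∈ P e := hR.cell e (hGe.sub h8)
        exact heZ (hzero (R y) h7 e ((F.sc_eq_zero (F.sub e h9)).2 h9))
      rw [h5]; exact isPreconnected_empty

end blob

end Crest.Agent.R096.Init_543
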