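import Mathlib
import Crest.Agent.R096.Tlh1_543
import Crest.Agent.R096.Init7_543
import Crest.Agent.R096.Pse2_316

/-! # Row 96, INIT (helper543), Tlh 2: door sets from rays; gauge balls are door sets -/

set_option autoImplicit false
set_option linter.unusedSectionVars false

open Set Filter Topology Metric

namespace Crest.Agent.R096.Init_543

open Crest.Agent.R096.Brk1_582 Crest.Agent.R096.Brk2_582 Crest.Agent.R096.Coh_184
  Crest.Agent.R096.Vb_965

section rays

variable {V : Type} [NormedAddCommGroup V] [NormedSpace ℝ V] [FiniteDimensional ℝ V] {I : Type}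
variable {La : Set V} {P : I → Set V} {b : Set I → V} {N : ℕ}

variable (F : Foam La P b N) {Ho : I → Set V} {pu : I → V → V} {rad : I → V → ℝ}
  {ray : I → V → ℝ → V} (hR : Rays P Ho pu rad ray) {r₀ : I → ℝ}
  (h0 : ∀ c, 0 < r₀ c) (h1 : ∀ c, r₀ c ≤ 1)
include F hR h0 h1

/-- **doors from rays**: a compact set which contains the cut-off region and is star-shaped along
the rays -/
theorem door_of_rays {e : I} {G : Set V} (hGc : IsCompact G) (hGs : G ⊆ P e)
    (hcap : ∀ y ∈ P e, rad e y < r₀ e → y ∈ G)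
    (hdown : ∀ z ∈ Bd P e, ∀ s ∈ Ioc (0 : ℝ) 1, ray e z s ∈ G → ∀ s' ∈ Ioc (0 : ℝ) s,
      ray e z s' ∈ G) :
    Door P (RR P b pu rad r₀) e G := by
  classical
  have hRet := ret_of_rays F hR h0 h1 (b := b)
  have key : ∀ z ∈ P e, (G ∩ RR P b pu rad r₀ ⁻¹' {z}).Nonempty ∧
      IsPreconnected (G ∩ RR P b pu rad r₀ ⁻¹' {z}) ∧
      TrivF (ZMod 2) (G ∩ RR P b pu rad r₀ ⁻¹' {z}) := by
    intro z hz
    by_cases hw : z ∈ Bd P e
    · -- the arc
      set S : Set ℝ := {s | s ∈ Icc (r₀ e) 1 ∧ ray e z s ∈ G} with hS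
      have hsub : Icc (r₀ e) 1 ⊆ Ioc (0 : ℝ) 1 := fun s hs => ⟨(h0 e).trans_le hs.1, hs.2⟩
      have hcont := (hR.cray e z hw).mono hsub
      have hSc : IsCompact S := by
        have h2 : S = Icc (r₀ e) 1 ∩ ray e z ⁻¹' G := rfl
        rw [h2]
        exact isCompact_Icc.of_isClosed_subset
          (hcont.preimage_isClosed_of_isClosed isClosed_Icc hGc.isClosed) inter_subset_left
      have hr0 : ray e z (r₀ e) ∈ G := by
        have h3 : Tendsto (ray e z) (𝓝[Ioo 0 (r₀ e)] (r₀ e)) (𝓝 (ray e z (r₀ e))) := by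
          have := (hR.cray e z hw) (r₀ e) ⟨h0 e, h1 e⟩
          exact this.mono_left (nhdsWithin_mono _ fun s hs => ⟨hs.1, hs.2.le.trans (h1 e)⟩)
        have h4 : (𝓝[Ioo 0 (r₀ e)] (r₀ e)).NeBot := by
          rw [← mem_closure_iff_nhdsWithin_neBot, closure_Ioo (h0 e).ne]
          exact right_mem_Icc.2 (h0 e).le
        refine hGc.isClosed.mem_of_tendsto h3 ?_
        filter_upwards [self_mem_nhdsWithin] with s hs
        have hs' : s ∈ Ioc (0 : ℝ) 1 := ⟨hs.1, hs.2.le.trans (h1 e)⟩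
        refine hcap _ (hR.ray_mem e z hw s hs').1 ?_
        rw [hR.rad_ray e z hw s hs']; exact hs.2
      have hSne : S.Nonempty := ⟨r₀ e, left_mem_Icc.2 (h1 e), hr0⟩
      have hS1 := hSc.sSup_mem hSne
      have hSI : S = Icc (r₀ e) (sSup S) := by
        apply Subset.antisymm
        · exact fun s hs => ⟨hs.1.1, le_csSup hSc.bddAbove hs⟩
        · intro s hs
          refine ⟨⟨hs.1, hs.2.trans hS1.1.2⟩, ?_⟩
          exact hdown z hw _ (hsub hS1.1) hS1.2 s ⟨(h0 e).trans_le hs.1, hs.2⟩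
      have hfib : G ∩ RR P b pu rad r₀ ⁻¹' {z} = ray e z '' S := by
        obtain ⟨-, c', hne, hc'⟩ := id hw
        ext y
        constructor
        · rintro ⟨hy, hyz⟩
          have hyz' : RR P b pu rad r₀ y = z := hyz
          have hye := hGs hy
          obtain ⟨h5, h6⟩ := rad_ge_of_bd F hR h0 h1 hye hne (by rw [hyz']; exact hc')
          have h7 : pu e y = z := by rw [← RR_pu hR h0 h1 hye h6, hyz']
          have h8 := hR.ray_pu e y ⟨hye, h5⟩
          rw [h7] at h8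
          exact ⟨rad e y, ⟨⟨h6, (hR.rad_mem e y ⟨hye, h5⟩).2⟩, by rw [h8]; exact hy⟩, h8⟩
        · rintro ⟨s, hs, rfl⟩
          refine ⟨hs.2, ?_⟩
          show RR P b pu rad r₀ (ray e z s) = z
          rw [RR_pu hR h0 h1 (hGs hs.2) (by rw [hR.rad_ray e z hw s (hsub hs.1)]; exact hs.1.1),
            hR.pu_ray e z hw s (hsub hs.1)]
      have hcS : ContinuousOn (ray e z) S := hcont.mono fun s hs => hs.1
      have hinj : InjOn (ray e z) S := by
        intro s hs s' hs' he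
        rw [← hR.rad_ray e z hw s (hsub hs.1), he, hR.rad_ray e z hw s' (hsub hs'.1)]
      rw [hfib]
      refine ⟨hSne.image _, ?_, ?_⟩
      · refine IsPreconnected.image ?_ _ hcS
        rw [hSI]; exact isPreconnected_Icc
      · have ht : TrivF (ZMod 2) S := by rw [hSI]; exact trivF_Icc
        exact ht.of_image hSc hSc.isClosed hcS hinj
    · -- an interior point of the cell
      have hzL := F.sub e hz
      have hfull : La ∩ RR P b pu rad r₀ ⁻¹' {z} = G ∩ RR P b pu rad r₀ ⁻¹' {z} := by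
        ext y
        constructor
        · rintro ⟨hy, hyz⟩
          have hyz' : RR P b pu rad r₀ y = z := hyz
          refine ⟨?_, hyz⟩
          obtain ⟨c, hc⟩ := F.cov y hy
          have hzc : z ∈ P c := by
            rw [← hyz']; exact hRet.cell c hc
          have hce : c = e := by
            by_contra hne
            exact hw (bd_of_two (Ne.symm hne) hz hzc)
          subst hce
          refine hcap y hc ?_
          by_contra hcon
          push Not at hcon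
          have hyH : y ∉ Ho c := by
            intro hyH
            have := hR.rad_hole c y hyH
            linarith [h0 c]
          rw [RR_pu hR h0 h1 hc hcon] at hyz'
          apply hw
          rw [← hyz']
          exact hR.pu_mem c y ⟨hc, hyH⟩
        · rintro ⟨hy, hyz⟩
          exact ⟨F.sub e (hGs hy), hyz⟩
      rw [← hfull]
      refine ⟨?_, hRet.conn z hzL, hRet.triv z hzL⟩
      obtain ⟨y, hy, he⟩ := hRet.surj z hzL
      exact ⟨y, hy, he⟩
  exact ⟨hGc, hGs, fun z hz => (key z hz).1, fun z hz => (key z hz).2.1,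
    fun z hz => (key z hz).2.2⟩

end rays

/-! ### gauge balls -/

section foamD

open Crest.Agent.R096.SkC1_961 Crest.Agent.R096.Bsp_628 Crest.Agent.R096.Brk3_582
  Crest.Agent.R096.Sphg_316 Crest.Agent.R096.Pse_316
open Crest.Agent.R96.Push_899 (Box)

variable {δ κ0 R c0 : ℝ} {La : Set E3} (Φ : FoamD δ κ0 R c0 La)

/-- the closed gauge ball of the brick `e` about its point hole -/
def gb (e : Φ.F) (r : ℝ) : Set E3 := {y | Mbf_337.gau e.1 (Φ.B e).lo y ≤ r}

theorem gb_eq (e : Φ.F) (r : ℝ) : gb Φ e r = {y | Ng (Φ.B e).lo e.1.set y ≤ r} := by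
  ext y
  show Mbf_337.gau e.1 (Φ.B e).lo y ≤ r ↔ Ng (Φ.B e).lo e.1.set y ≤ r
  rw [gau_eq]

theorem gb_compact {e : Φ.F} (hpt : (Φ.B e).lo = (Φ.B e).hi) (r : ℝ) : IsCompact (gb Φ e r) := by
  rw [gb_eq]; exact (bod_brick Φ e hpt).isCompact_le r

theorem gb_sub {e : Φ.F} (hpt : (Φ.B e).lo = (Φ.B e).hi) {r : ℝ} (hr : r ≤ 1) :
    gb Φ e r ⊆ Pc Φ.F e := by
  rw [gb_eq]; exact (bod_brick Φ e hpt).le_sub hr

theorem gb_open {e : Φ.F} (hpt : (Φ.B e).lo = (Φ.B e).hi) {r : ℝ} (hr : r < 1) :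
    gb Φ e r ⊆ interior (Pc Φ.F e) := by
  rw [gb_eq]
  intro y hy
  exact (bod_brick Φ e hpt).lt_one_iff.1 (lt_of_le_of_lt hy hr)

/-- **gauge balls are door sets** -/
theorem door_gau (hLa : IsOpen La) {r₀ : Φ.F → ℝ} (h0 : ∀ c, 0 < r₀ c) (h1 : ∀ c, r₀ c ≤ 1)
    {e : Φ.F} (hpt : (Φ.B e).lo = (Φ.B e).hi) {r ρ : ℝ} (hr : 0 < r) (hrρ : r ≤ ρ) (hρ : ρ < 1)
    (hray : Mbf_337.RayTo Φ e ρ)
    (hcap : ∀ y ∈ Pc Φ.F e, rdF Φ e y < r₀ e → Mbf_337.gau e.1 (Φ.B e).lo y ≤ r) :
    Door (Pc Φ.F) (RF Φ r₀) e (gb Φ e r) := by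
  have F := foam4 Φ hLa
  have hb := bod_brick Φ e hpt
  have hRR := raysF Φ hLa
  have hr1 : r < 1 := hrρ.trans_lt hρ
  refine door_of_rays F hRR h0 h1 (gb_compact Φ hpt r) (gb_sub Φ hpt hr1.le) hcap ?_
  intro z hz s hs hsG s' hs'
  set p := (Φ.B e).lo with hp
  set y := ryF Φ e z s with hy
  have hyP : y ∈ Pc Φ.F e \ (Φ.B e).S := hRR.ray_mem e z hz s hs
  have hNy : Ng p e.1.set y ≤ r := by
    have := hsG
    rw [gb_eq] at this
    exact this
  have hpS : p ∈ (Φ.B e).S := fun i => ⟨le_rfl, (Φ.B e).le i⟩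
  have hyp : y ≠ p := fun h => hyP.2 (h ▸ hpS)
  have hpos : 0 < Ng p e.1.set y := hb.pos.2 hyp
  -- the straight segment
  have hseg : ∀ τ ∈ Ioc (0 : ℝ) 1, Φ.Psi (p + τ • (y - p)) = z ∧
      Ng p e.1.set (p + τ • (y - p)) = τ * Ng p e.1.set y := by
    intro τ hτ
    have h2 : Ng p e.1.set (p + τ • (y - p)) = τ * Ng p e.1.set y := Ng_ray p _ hτ.1.le _
    have h3 : p + τ • (y - p) ≠ p := hb.pos.1 (by rw [h2]; exact mul_pos hτ.1 hpos)
    have h4 := hray (p + τ • (y - p)) h3 (by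
      rw [gau_eq, h2]
      nlinarith [hτ.1, hτ.2, hpos])
    have h5 := hray y hyp (by rw [gau_eq]; exact hNy.trans hrρ)
    rw [gau_eq] at h4 h5
    rw [h2, ray_ray] at h4
    have h6 : ρ / (τ * Ng p e.1.set y) * τ = ρ / Ng p e.1.set y := by
      field_simp [hτ.1.ne', hpos.ne']
    rw [h6, ← h5] at h4
    refine ⟨?_, h2⟩
    rw [h4, Psi_eq Φ hLa hyP.1]
    exact hRR.pu_ray e z hz s hs
  -- the radius along the segment
  have hcr : ContinuousOn (fun τ : ℝ => rdF Φ e (p + τ • (y - p))) (Icc 0 1) :=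
    ((braysF Φ e).crad.comp (by fun_prop)).continuousOn
  have hv : s' ∈ Icc (rdF Φ e (p + (0 : ℝ) • (y - p))) (rdF Φ e (p + (1 : ℝ) • (y - p))) := by
    rw [zero_smul, add_zero, ray_one]
    refine ⟨((braysF Φ e).rad_hole p hpS).trans hs'.1.le, ?_⟩
    rw [hy, hRR.rad_ray e z hz s hs]
    exact hs'.2
  obtain ⟨τ, hτ, he⟩ := intermediate_value_Icc zero_le_one hcr hv
  have he' : rdF Φ e (p + τ • (y - p)) = s' := he
  have hτ0 : 0 < τ := by
    rcases hτ.1.eq_or_lt with h | h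
    · rw [← h, zero_smul, add_zero] at he'
      have := (braysF Φ e).rad_hole p hpS
      rw [he'] at this
      exact absurd hs'.1 (not_lt.2 this)
    · exact h
  obtain ⟨h2, h3⟩ := hseg τ ⟨hτ0, hτ.2⟩
  set w := p + τ • (y - p) with hw
  have hwN : Ng p e.1.set w ≤ r := by
    rw [h3]
    nlinarith [hτ.2, hpos, hNy]
  have hwP : w ∈ Pc Φ.F e := hb.le_sub hr1.le hwN
  have hwp : w ≠ p := hb.pos.1 (by rw [h3]; exact mul_pos hτ0 hpos)
  have hwH : w ∉ (Φ.B e).S := by
    intro h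
    apply hwp
    funext k
    have h4 := h k
    have h5 := congrFun hpt k
    exact le_antisymm (by rw [← h5] at h4; exact h4.2) h4.1
  have h4 := hRR.ray_pu e w ⟨hwP, hwH⟩
  rw [← Psi_eq Φ hLa hwP, h2, he'] at h4
  rw [h4, gb_eq]
  exact hwN

end foamD

end Crest.Agent.R096.Init_543
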