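import Mathlib
import Crest.Agent.R096.Tlh2_543
import Crest.Agent.R096.Init12_543

/-! # Row 96, INIT (helper543), Tlh 3: **local `H1` of the sheets near a quad and the doors of all
tiny cores** (input of `Dinv_106.tr_of_locH1`) -/

set_option autoImplicit false
set_option linter.unusedSectionVars false

open Set Filter Topology Metric

namespace Crest.Agent.R096.Init_543

open Crest.Agent.R096.Coh_184 Crest.Agent.R096.Brk1_582 Crest.Agent.R096.Brk2_582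
  Crest.Agent.R096.Brk3_582 Crest.Agent.R096.Brk5_582 Crest.Agent.R096.Bsp_628
  Crest.Agent.R096.Msh_715 Crest.Agent.R096.Agl4_543 Crest.Agent.R096.Agl5_543
  Crest.Agent.R096.Agl6_543 Crest.Agent.R096.Ginv_543 Crest.Agent.R096.Seq_213
  Crest.Agent.R096.St_147 Crest.Agent.R96.Push_899

open Crest.Agent.R096.SkC1_961 (E3 Hom3 IsPush FoamD Cfg th)

/-! ### the blob -/

section blob

variable {E V : Type} [NormedAddCommGroup E] [NormedSpace ℝ E] [FiniteDimensional ℝ E]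
  [NormedAddCommGroup V] [NormedSpace ℝ V] [FiniteDimensional ℝ V]
variable {I ι J : Type} {Om : Set E} {La : Set V} {P : I → Set V} {b : Set I → V}
  {R : V → V} {f : E → V} {g : V → E}

/-- the strip of the sheet `(a, t)` over the quad `k` and the parts of the sheet in the door sets of
the cells of `Y` -/
def blob (Om : Set E) (P : I → Set V) (b : Set I → V) (R : V → V) (f : E → V) (G : I → Set V)
    (Y : Set I) (s : ℝ) (a : I) (t : ℝ) (k : QK P) : Set E :=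
  strip Om P b R f s a t k ∪ {x | x ∈ Om ∧ va P b R f a x = t ∧ ∃ e ∈ Y, f x ∈ G e}

variable (H : Hm f g Om La) (F : Foam La P b 4) (hR : Ret La P R)
include H F hR

theorem blob_props {G : I → Set V} {Y : Set I} (hG : ∀ e ∈ Y, Door P R e (G e))
    (hdis : ∀ e ∈ Y, ∀ e' ∈ Y, e ≠ e' → Disjoint (G e) (G e')) {s : ℝ} (hs : 0 < s) {k : QK P}
    {a : I} (ha : a ∈ k.B) {t : ℝ} (ht : t ∈ Icc s (1 - s)) :
    IsCompact (blob Om P b R f G Y s a t k) ∧ TrivF (ZMod 2) (blob Om P b R f G Y s a t k) := by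
  classical
  obtain ⟨a', haa, -, hB⟩ := k.exists_other ha
  have ht1 : t < 1 := by linarith [ht.2]
  have ht0 : 0 < t := by linarith [ht.1]
  have hfin : {c | (P c ∩ P a).Nonempty ∧ c ∈ Y ∧ c ≠ a}.Finite :=
    (finite_touch F a).subset fun c hc => hc.1
  set Es : Finset I := hfin.toFinset with hEs
  have hmE : ∀ c, c ∈ Es ↔ (P c ∩ P a).Nonempty ∧ c ∈ Y ∧ c ≠ a := fun c => by
    rw [hEs, hfin.mem_toFinset]; rfl
  have heq : blob Om P b R f G Y s a t k = Om ∩ f ⁻¹' (rpre La R (qarc La P b a a' k.Z t s (1 - s)) ∪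
      ⋃ e ∈ Es, dd P b R G a t e) := by
    unfold blob
    rw [strip_eq H F hR haa hB ht, preimage_union, inter_union_distrib_left]
    congr 1
    ext x
    constructor
    · rintro ⟨hx, hv, e, he, hfx⟩
      refine ⟨hx, ?_⟩
      have hfe := (hG e he).sub hfx
      have h1 : R (f x) ∈ P e := hR.cell e hfe
      have h2 : sc P b (R (f x)) a = t := hv
      have hL := F.sub e h1
      have h3 : sc P b (R (f x)) e = 0 := (F.sc_eq_zero hL).2 h1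
      have hne : e ≠ a := by
        rintro rfl
        rw [h3] at h2
        exact ht0.ne h2
      have htouch : (P e ∩ P a).Nonempty := by
        obtain ⟨y, hy⟩ := F.sc_lt_one_fc hL
        refine ⟨y, mem_fc.1 hy e ?_, mem_fc.1 hy a ?_⟩
        · show sc P b (R (f x)) e < 1
          rw [h3]; exact one_pos
        · show sc P b (R (f x)) a < 1
          rw [h2]; exact ht1
      exact mem_iUnion₂.2 ⟨e, (hmE e).2 ⟨htouch, he, hne⟩, hfx, h1, h2⟩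
    · rintro ⟨hx, hx2⟩
      obtain ⟨e, he, h1⟩ := mem_iUnion₂.1 hx2
      exact ⟨hx, h1.2.2, e, ((hmE e).1 he).2.1, h1.1⟩
  obtain ⟨h1, h2⟩ := blob_triv F hR (G := G) hs haa hB ht Es
    (fun e he => hG e ((hmE e).1 he).2.1)
    (fun e he e' he' => hdis e ((hmE e).1 he).2.1 e' ((hmE e').1 he').2.1)
    (fun h => ((hmE a).1 h).2.2 rfl)
  have hsub : rpre La R (qarc La P b a a' k.Z t s (1 - s)) ∪ ⋃ e ∈ Es, dd P b R G a t e ⊆ La := by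
    rintro y (hy | hy)
    · exact hy.1
    · obtain ⟨e, he, h3⟩ := mem_iUnion₂.1 hy
      exact F.sub e ((hG e ((hmE e).1 he).2.1).sub h3.1)
  rw [heq]
  exact ⟨H.isCompact_pre hsub h1, H.trivF_pre hsub h1 h2⟩

end blob

/-! ### leaf tiles -/

section leaf

variable {E : Type} [NormedAddCommGroup E] [NormedSpace ℝ E] [FiniteDimensional ℝ E]
variable {Om : Set E} {ι : Type} {T : Tiling Om ι}
variable {J C : Type} {u : J → E → ℝ} {c : J → ℝ} {S : J → Set E} {fam : J → C}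

/-- `Leaf` depends only on the part of the set in the tile -/
theorem leaf_congr [Nonempty J] (h : GFam T u c S fam) (h3 : Module.finrank ℝ E = 3) (i : J)
    {S' S'' : Set E} {q : ι} (he : S' ∩ Msh_715.P (T.H q) = S'' ∩ Msh_715.P (T.H q))
    (hl : h.Leaf h3 i S' q) : h.Leaf h3 i S'' q := by
  intro κ hκ
  obtain ⟨ψ, hψ⟩ := hl κ hκ
  refine ⟨ψ, fun F w hqF hw hF hi hm => hψ F w hqF hw hF hi ?_⟩
  have h1 : S' ∩ F.set = S'' ∩ F.set := by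
    ext x
    constructor
    · rintro ⟨hx, hxF⟩
      have h2 : x ∈ S' ∩ Msh_715.P (T.H q) := ⟨hx, C2.sub_tile (h3 := h3) hqF hxF⟩
      rw [he] at h2
      exact ⟨h2.1, hxF⟩
    · rintro ⟨hx, hxF⟩
      have h2 : x ∈ S'' ∩ Msh_715.P (T.H q) := ⟨hx, C2.sub_tile (h3 := h3) hqF hxF⟩
      rw [← he] at h2
      exact ⟨h2.1, hxF⟩
  rw [h1]; exact hm

end leaf

/-! ### the machine data -/

section mach

variable {δ κ0 R c0 : ℝ} {La Om : Set E3} {ι : Type} {Φ : FoamD δ κ0 R c0 La}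
  {T : Tiling Om ι} {f g : E3 → E3} {J0 : Φ.F → Set ι} {ct' : Φ.F → ι} {r₀ : Φ.F → ℝ}

/-- **radii of the doors**: `Y` = the tiny bricks, `r e` = radius, `d e` = oscillation of the gauge on
the tiles (not in `J0 e`) which meet the gauge ball -/
structure Tlr (Φ : FoamD δ κ0 R c0 La) (T : Tiling Om ι) (f : E3 → E3) (J0 : Φ.F → Set ι)
    (Y : Set Φ.F) (r d : Φ.F → ℝ) : Prop where
  pt : ∀ e ∈ Y, (Φ.B e).lo = (Φ.B e).hi
  pos : ∀ e ∈ Y, 0 < r e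
  ray : ∀ e ∈ Y, ∃ ρ, r e ≤ ρ ∧ ρ < 1 ∧ Mbf_337.RayTo Φ e ρ
  j0 : ∀ e ∈ Y, ∀ i ∈ J0 e, ∀ x ∈ Msh_715.P (T.H i), Mbf_337.gau e.1 (Φ.B e).lo (f x) ≤ r e
  dn : ∀ e ∈ Y, 0 ≤ d e
  osc : ∀ e ∈ Y, ∀ i, i ∉ J0 e →
    (∃ x ∈ Msh_715.P (T.H i), Mbf_337.gau e.1 (Φ.B e).lo (f x) ≤ r e) →
    ∀ x ∈ Msh_715.P (T.H i), ∀ y ∈ Msh_715.P (T.H i),
      Mbf_337.gau e.1 (Φ.B e).lo (f x) ≤ Mbf_337.gau e.1 (Φ.B e).lo (f y) + d e

/-- the radii of `Tiny.room` : every radius in `[ρ1, ρ4]` is a radius of a door -/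
theorem tlr_of_room {κ1 κ2 : ℝ} {X : Set Φ.F} {J V : Φ.F → Set ι}
    {ct : Φ.F → ι} {A : Φ.F → E3 ≃ᵃ[ℝ] E3} {lam : Φ.F → ℝ} {z : Φ.F → E3}
    {θ : Φ.F → E3 → E3} {φ : Φ.F → E3 → ℝ}
    (hC : Mbf_337.Cores Φ T f κ1 κ2 X J0 J V ct A lam z θ φ) {ρ1 ρ4 r d : Φ.F → ℝ}
    (h1 : ∀ e ∉ X, 0 < ρ1 e) (h4 : ∀ e ∉ X, ρ4 e < 1) (hd : ∀ e ∉ X, 0 < d e)
    (hray : ∀ e ∉ X, Mbf_337.RayTo Φ e (ρ4 e))
    (hJ0 : ∀ e ∉ X, ∀ x ∈ Mbf_337.KJ T (J0 e), Mbf_337.gau e.1 (Φ.B e).lo (f x) < ρ1 e)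
    (hV : ∀ e ∉ X, ∀ i, (∃ x ∈ Msh_715.P (T.H i),
      Mbf_337.gau e.1 (Φ.B e).lo (f x) ≤ ρ4 e) → i ∈ V e)
    (hosc : ∀ e ∉ X, ∀ i ∈ V e, i ∉ J0 e → ∀ x ∈ Msh_715.P (T.H i), ∀ y ∈ Msh_715.P (T.H i),
      |Mbf_337.gau e.1 (Φ.B e).lo (f x) - Mbf_337.gau e.1 (Φ.B e).lo (f y)| ≤ d e)
    (hr1 : ∀ e ∉ X, ρ1 e ≤ r e) (hr4 : ∀ e ∉ X, r e ≤ ρ4 e) : Tlr Φ T f J0 Xᶜ r d where
  pt := fun e he => (hC.tiny e he).pt
  pos := fun e he => (h1 e he).trans_le (hr1 e he)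
  ray := fun e he => ⟨ρ4 e, hr4 e he, h4 e he, hray e he⟩
  j0 := fun e he i hi x hx => (hJ0 e he x (mem_biUnion hi hx)).le.trans (hr1 e he)
  dn := fun e he => (hd e he).le
  osc := fun e he i hi ⟨x, hx, hxr⟩ y hy z hz => by
    have h5 := abs_le.1 (hosc e he i (hV e he i ⟨x, hx, hxr.trans (hr4 e he)⟩) hi y hy z hz)
    linarith [h5.2]

/-- tiles near the blob -/
def Rtl (r₀ : Φ.F → ℝ) (T : Tiling Om ι) (f : E3 → E3) (J0 : Φ.F → Set ι) (Y : Set Φ.F)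
    (r : Φ.F → ℝ) (s' : ℝ) (k : QK (Pc Φ.F)) : Set ι :=
  Act0 T (Pc Φ.F) (bc (F := Φ.F)) (RF Φ r₀) f (KorJ Φ J0) s' k ∪
    {q | ∃ e ∈ Y, ∃ x ∈ Msh_715.P (T.H q), Mbf_337.gau e.1 (Φ.B e).lo (f x) ≤ r e}

/-- tiles deep inside the blob -/
def Ntl (r₀ : Φ.F → ℝ) (T : Tiling Om ι) (f : E3 → E3) (J0 : Φ.F → Set ι) (Y : Set Φ.F)
    (r d : Φ.F → ℝ) (sN : ℝ) (k : QK (Pc Φ.F)) : Set ι :=
  Act0 T (Pc Φ.F) (bc (F := Φ.F)) (RF Φ r₀) f (KorJ Φ J0) sN k ∪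
    {q | ∃ e ∈ Y, q ∈ J0 e ∨ ∃ x ∈ Msh_715.P (T.H q),
      Mbf_337.gau e.1 (Φ.B e).lo (f x) ≤ r e - d e}

theorem Tlr.ntl_sub {Y : Set Φ.F} {r d : Φ.F → ℝ} (hT : Tlr Φ T f J0 Y r d) {s' sN : ℝ}
    (hs : s' ≤ sN) (k : QK (Pc Φ.F)) :
    Ntl r₀ T f J0 Y r d sN k ⊆ Rtl r₀ T f J0 Y r s' k := by
  rintro q (hq | ⟨e, he, hq | ⟨x, hx, hxr⟩⟩)
  · left
    obtain ⟨h1, x, h2, h4, h5⟩ := hq
    refine ⟨h1, x, h2, fun a ha => ?_, h5⟩
    have := h4 a ha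
    exact ⟨by linarith [this.1], by linarith [this.2]⟩
  · right
    obtain ⟨x, hx⟩ := T.ne q
    exact ⟨e, he, x, I_sub_P _ hx, hT.j0 e he q hq x (I_sub_P _ hx)⟩
  · right
    exact ⟨e, he, x, hx, by linarith [hT.dn e he]⟩

/-- **LOCAL `H1` NEAR A QUAD AND ALL DOORS.** `s'` = parameter of the strip, `sN ≥ s' + ε` = parameter
of the tiles of `Ntl`. -/
theorem locH1_tiny (hLa : IsOpen La) (hR : InitR Φ T f g J0 ct' r₀) {ε : ℝ}
    (hM : Mesh0 T (Pc Φ.F) (bc (F := Φ.F)) (RF Φ r₀) f (KorJ Φ J0) ε) (h0 : 0 ≤ ε)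
    (hε1 : ε < 1) {Y : Set Φ.F} {r d : Φ.F → ℝ} (hT : Tlr Φ T f J0 Y r d)
    {L : Φ.F → Finset ℝ} [Nonempty (JJ Φ L)] (hG : GF Φ r₀ T f L) (bp : JJ Φ L → E3)
    {s' sN : ℝ} (hs' : 0 < s') (hsN : s' + ε ≤ sN) (j : JJ Φ L) (k : QK (Pc Φ.F))
    (hk : j.1 ∈ k.B) (ht : j.2.1 ∈ Icc s' (1 - s'))
    (hleaf : ∀ q ∈ KorJ Φ J0, (∀ e ∈ Y, q ∉ J0 e) →
      (strip Om (Pc Φ.F) (bc (F := Φ.F)) (RF Φ r₀) f s' j.1 j.2.1 k ∩ Msh_715.P (T.H q)).Nonempty →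
      hG.Leaf fr3 j (strip Om (Pc Φ.F) (bc (F := Φ.F)) (RF Φ r₀) f s' j.1 j.2.1 k) q) :
    (gSht (st0 hG bp) j).LocH1 (Ntl r₀ T f J0 Y r d sN k) (Rtl r₀ T f J0 Y r s' k) := by
  classical
  have F := foam4 Φ hLa
  have hRt := retF Φ hLa hR.pos hR.le_one
  have hct : ∀ e ∈ Y, ∀ y ∈ Pc Φ.F e, rdF Φ e y < r₀ e →
      Mbf_337.gau e.1 (Φ.B e).lo y ≤ r e := by
    intro e he y hy hr
    have hyL : y ∈ La := Φ.bf.sub e.1 e.2 hy
    have hx := hR.hm.gm hyL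
    have hfg := hR.hm.fg y hyL
    by_contra hcon
    have hI : g y ∈ Msh_715.I (T.H (ct' e)) := by
      by_contra hI
      have := hR.out e (g y) hx (by rw [hfg]; exact hy) hI
      rw [hfg] at this
      linarith
    have := hT.j0 e he (ct' e) (hR.ct e) (g y) (I_sub_P _ hI)
    rw [hfg] at this
    exact hcon this
  have hdoor : ∀ e ∈ Y, Door (Pc Φ.F) (RF Φ r₀) e (gb Φ e (r e)) := by
    intro e he
    obtain ⟨ρ, h1, h2, h3⟩ := hT.ray e he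
    exact door_gau Φ hLa hR.pos hR.le_one (hT.pt e he) (hT.pos e he) h1 h2 h3 (hct e he)
  have hr1 : ∀ e ∈ Y, r e < 1 := fun e he => by
    obtain ⟨ρ, h1, h2, -⟩ := hT.ray e he
    exact h1.trans_lt h2
  have hdis : ∀ e ∈ Y, ∀ e' ∈ Y, e ≠ e' → Disjoint (gb Φ e (r e)) (gb Φ e' (r e')) := by
    intro e he e' he' hne
    rw [disjoint_left]
    intro y hy hy'
    have h1 := gb_open Φ (hT.pt e he) (hr1 e he) hy
    rw [interior_Pc] at h1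
    have h2 : y ∈ Bd (Pc Φ.F) e := bd_of_two hne
      (gb_sub Φ (hT.pt e he) (hr1 e he).le hy) (gb_sub Φ (hT.pt e' he') (hr1 e' he').le hy')
    rw [Bd_eq Φ hLa] at h2
    exact h2.2 h1
  obtain ⟨hcpt, htriv⟩ := blob_props hR.hm F hRt hdoor hdis hs' hk ht
  set S'' := blob Om (Pc Φ.F) (bc (F := Φ.F)) (RF Φ r₀) f (fun e => gb Φ e (r e)) Y s' j.1 j.2.1 k
    with hS''
  have hss : s' ≤ sN := by linarith
  have hloc : (gSht (hG.gst fr3) j).LocH1 (Ntl r₀ T f J0 Y r d sN k) (Rtl r₀ T f J0 Y r s' k) →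
      (gSht (st0 hG bp) j).LocH1 (Ntl r₀ T f J0 Y r d sN k) (Rtl r₀ T f J0 Y r s' k) :=
    fun h => locH1_restrict (hX := fun {F w} hw hF => gcomp_closed hw hF) h
  refine hloc (hG.locH1' fr3 j (S' := S'') hcpt ?_ htriv ?_ (hT.ntl_sub hss k) ?_)
  · rintro x (hx | hx)
    · exact ⟨hx.1, hx.2.1⟩
    · exact ⟨hx.1, hx.2.1⟩
  · intro q hq
    by_cases hdq : ∃ e ∈ Y, ∃ x ∈ Msh_715.P (T.H q), Mbf_337.gau e.1 (Φ.B e).lo (f x) ≤ r e
    · exact Or.inl (Or.inr hdq)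
    · have hsame : strip Om (Pc Φ.F) (bc (F := Φ.F)) (RF Φ r₀) f s' j.1 j.2.1 k ∩
          Msh_715.P (T.H q) = S'' ∩ Msh_715.P (T.H q) := by
        ext x
        constructor
        · exact fun h => ⟨Or.inl h.1, h.2⟩
        · rintro ⟨h | ⟨-, -, e, he, hx⟩, hxq⟩
          · exact ⟨h, hxq⟩
          · exact (hdq ⟨e, he, x, hxq, hx⟩).elim
      rw [← hsame] at hq
      by_cases hqK : q ∈ KorJ Φ J0
      · right
        refine leaf_congr hG fr3 j hsame (hleaf q hqK (fun e he hqe => ?_) hq)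
        obtain ⟨x, hx⟩ := T.ne q
        exact hdq ⟨e, he, x, I_sub_P _ hx, hT.j0 e he q hqe x (I_sub_P _ hx)⟩
      · left; left
        obtain ⟨x, ⟨hx, h1, h2, h4⟩, hxq⟩ := hq
        exact ⟨hqK, x, hxq, h2, h4⟩
  · rintro F2 w hwS hwF ⟨q, hqF, hqN⟩ x hx
    have hxm := connectedComponentIn_subset _ _ hx
    have hxq := C2.sub_tile (h3 := fr3) hqF hxm.2
    rcases hqN with hqN | ⟨e, he, hqN⟩
    · left
      obtain ⟨g1, x₀, g2, g3, g4⟩ := hqN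
      obtain ⟨a1, a2, -, -⟩ := key hR.hm F hRt hM (s := sN) (by linarith) hε1 g1 g2 hxq g3 g4
      refine ⟨hxm.1.1, hxm.1.2, fun a ha => ?_, a2⟩
      have := a1 a ha
      exact ⟨by linarith [this.1], by linarith [this.2]⟩
    · right
      refine ⟨hxm.1.1, hxm.1.2, e, he, ?_⟩
      show Mbf_337.gau e.1 (Φ.B e).lo (f x) ≤ r e
      by_cases hqJ : q ∈ J0 e
      · exact hT.j0 e he q hqJ x hxq
      · rcases hqN with hqN | ⟨x', hx', hxr⟩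
        · exact (hqJ hqN).elim
        · have h1 := hT.osc e he q hqJ ⟨x', hx', by linarith [hT.dn e he]⟩ x hxq x' hx'
          linarith

end mach

end Crest.Agent.R096.Init_543
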