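import Mathlib
import Crest.Agent.R096.Tlh3_543

/-! # Row 96, INIT (helper543), Tlh 4: **local `H1` of the sheets near the doors of all tiny cores**
(discs only, no quad) -/

set_option autoImplicit false
set_option linter.unusedSectionVars false

open Set Filter Topology Metric

namespace Crest.Agent.R096.Init_543

open Crest.Agent.R096.Coh_184 Crest.Agent.R096.Brk1_582 Crest.Agent.R096.Brk2_582
  Crest.Agent.R096.Brk3_582 Crest.Agent.R096.Brk5_582 Crest.Agent.R096.Bsp_628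
  Crest.Agent.R096.Msh_715 Crest.Agent.R096.Agl4_543 Crest.Agent.R096.Agl5_543
  Crest.Agent.R096.Agl6_543 Crest.Agent.R096.Ginv_543 Crest.Agent.R096.Seq_213
  Crest.Agent.R096.St_147 Crest.Agent.R96.Push_899 Crest.Agent.R096.Vb_965

open Crest.Agent.R096.SkC1_961 (E3 Hom3 IsPush FoamD Cfg th)

section blob

variable {E V : Type} [NormedAddCommGroup E] [NormedSpace ℝ E] [FiniteDimensional ℝ E]
  [NormedAddCommGroup V] [NormedSpace ℝ V] [FiniteDimensional ℝ V]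
variable {I ι J : Type} {Om : Set E} {La : Set V} {P : I → Set V} {b : Set I → V} {N : ℕ}
  {R : V → V} {f : E → V} {g : V → E}

/-- the parts of the sheet `(a, t)` in the door sets of the cells of `Y` -/
def discs (Om : Set E) (P : I → Set V) (b : Set I → V) (R : V → V) (f : E → V) (G : I → Set V)
    (Y : Set I) (a : I) (t : ℝ) : Set E := {x | x ∈ Om ∧ va P b R f a x = t ∧ ∃ e ∈ Y, f x ∈ G e}

variable (H : Hm f g Om La) (F : Foam La P b N) (hR : Ret La P R)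
include H F hR

theorem discs_props {G : I → Set V} {Y : Set I} (hG : ∀ e ∈ Y, Door P R e (G e))
    (hdis : ∀ e ∈ Y, ∀ e' ∈ Y, e ≠ e' → Disjoint (G e) (G e'))
    {a : I} {t : ℝ} (ht0 : 0 < t) (ht1 : t < 1) :
    IsCompact (discs Om P b R f G Y a t) ∧ TrivF (ZMod 2) (discs Om P b R f G Y a t) := by
  classical
  have hfin : {c | (P c ∩ P a).Nonempty ∧ c ∈ Y ∧ c ≠ a}.Finite :=
    (finite_touch F a).subset fun c hc => hc.1
  set Es : Finset I := hfin.toFinset with hEs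
  have hmE : ∀ c, c ∈ Es ↔ (P c ∩ P a).Nonempty ∧ c ∈ Y ∧ c ≠ a := fun c => by
    rw [hEs, hfin.mem_toFinset]; rfl
  have heq : discs Om P b R f G Y a t = Om ∩ f ⁻¹' (⋃ e ∈ Es, dd P b R G a t e) := by
    ext x
    constructor
    · rintro ⟨hx, hv, e, he, hfx⟩
      refine ⟨hx, ?_⟩
      have hfe := (hG e he).sub hfx
      have h1 : R (f x) ∈ P e := hR.cell e hfe
      have h2 : sc P b (R (f x)) a = t := hv
      have hL := F.sub e h1
      have h3 : sc P b (R (f x)) e = 0 := (F.sc_eq_zero hL).2 h1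
      have hne : e ≠ a := by
        rintro rfl
        rw [h3] at h2
        exact ht0.ne h2
      have htouch : (P e ∩ P a).Nonempty := by
        obtain ⟨y, hy⟩ := F.sc_lt_one_fc hL
        refine ⟨y, mem_fc.1 hy e ?_, mem_fc.1 hy a ?_⟩
        · show sc P b (R (f x)) e < 1
          rw [h3]; exact one_pos
        · show sc P b (R (f x)) a < 1
          rw [h2]; exact ht1
      exact mem_iUnion₂.2 ⟨e, (hmE e).2 ⟨htouch, he, hne⟩, hfx, h1, h2⟩
    · rintro ⟨hx, hx2⟩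
      obtain ⟨e, he, h1⟩ := mem_iUnion₂.1 hx2
      exact ⟨hx, h1.2.2, e, ((hmE e).1 he).2.1, h1.1⟩
  have key : ∀ s : Finset I, (∀ e ∈ s, e ∈ Y ∧ e ≠ a) →
      IsCompact (⋃ e ∈ s, dd P b R G a t e) ∧ TrivF (ZMod 2) (⋃ e ∈ s, dd P b R G a t e) := by
    intro s
    induction s using Finset.induction_on with
    | empty =>
      intro _
      simp only [Finset.notMem_empty, iUnion_of_empty, iUnion_empty]
      exact ⟨isCompact_empty, trivF_empty⟩
    | insert e s' hes ih =>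
      intro hs
      obtain ⟨i1, i2⟩ := ih fun c hc => hs c (Finset.mem_insert_of_mem hc)
      obtain ⟨heY, hea⟩ := hs e (Finset.mem_insert_self e s')
      have hGe := hG e heY
      have hdc : IsCompact (dd P b R G a t e) := hGe.compact_pre F hR (isCompact_disc1 F)
      have hdt : TrivF (ZMod 2) (dd P b R G a t e) :=
        hGe.trivF_pre F hR (isCompact_disc1 F) (fun z hz => hz.1)
          (trivF_disc F (Ne.symm hea) ht0.le ht1)
      rw [Finset.set_biUnion_insert]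
      refine ⟨hdc.union i1, fun n => TrivAll.union hdc.isClosed i1.isClosed ?_ (hdt n) (i2 n)⟩
      have h5 : dd P b R G a t e ∩ ⋃ c ∈ s', dd P b R G a t c = ∅ := by
        rw [eq_empty_iff_forall_notMem]
        rintro y ⟨h6, h7⟩
        obtain ⟨c, hc, h8⟩ := mem_iUnion₂.1 h7
        have hce : e ≠ c := by rintro rfl; exact hes hc
        exact disjoint_left.1 (hdis e heY c (hs c (Finset.mem_insert_of_mem hc)).1 hce) h6.1 h8.1
      rw [h5]; exact isPreconnected_empty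
  obtain ⟨h1, h2⟩ := key Es fun e he => ⟨((hmE e).1 he).2.1, ((hmE e).1 he).2.2⟩
  have hsub : (⋃ e ∈ Es, dd P b R G a t e) ⊆ La := by
    intro y hy
    obtain ⟨e, he, h3⟩ := mem_iUnion₂.1 hy
    exact F.sub e ((hG e ((hmE e).1 he).2.1).sub h3.1)
  rw [heq]
  exact ⟨H.isCompact_pre hsub h1, H.trivF_pre hsub h1 h2⟩

end blob

section mach

variable {δ κ0 R c0 : ℝ} {La Om : Set E3} {ι : Type} {Φ : FoamD δ κ0 R c0 La}
  {T : Tiling Om ι} {f g : E3 → E3} {J0 : Φ.F → Set ι} {ct' : Φ.F → ι} {r₀ : Φ.F → ℝ}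

/-- the caps lie in the gauge balls -/
theorem Tlr.cap (hR : InitR Φ T f g J0 ct' r₀) {Y : Set Φ.F} {r d : Φ.F → ℝ}
    (hT : Tlr Φ T f J0 Y r d) : ∀ e ∈ Y, ∀ y ∈ Pc Φ.F e, rdF Φ e y < r₀ e →
      Mbf_337.gau e.1 (Φ.B e).lo y ≤ r e := by
  intro e he y hy hr
  have hyL : y ∈ La := Φ.bf.sub e.1 e.2 hy
  have hx := hR.hm.gm hyL
  have hfg := hR.hm.fg y hyL
  by_contra hcon
  have hI : g y ∈ Msh_715.I (T.H (ct' e)) := by
    by_contra hI
    have := hR.out e (g y) hx (by rw [hfg]; exact hy) hI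
    rw [hfg] at this
    linarith
  have := hT.j0 e he (ct' e) (hR.ct e) (g y) (I_sub_P _ hI)
  rw [hfg] at this
  exact hcon this

theorem Tlr.door (hLa : IsOpen La) (hR : InitR Φ T f g J0 ct' r₀) {Y : Set Φ.F} {r d : Φ.F → ℝ}
    (hT : Tlr Φ T f J0 Y r d) : ∀ e ∈ Y, Door (Pc Φ.F) (RF Φ r₀) e (gb Φ e (r e)) := by
  intro e he
  obtain ⟨ρ, h1, h2, h3⟩ := hT.ray e he
  exact door_gau Φ hLa hR.pos hR.le_one (hT.pt e he) (hT.pos e he) h1 h2 h3 (hT.cap hR e he)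

theorem Tlr.dis (hLa : IsOpen La) {Y : Set Φ.F} {r d : Φ.F → ℝ}
    (hT : Tlr Φ T f J0 Y r d) :
    ∀ e ∈ Y, ∀ e' ∈ Y, e ≠ e' → Disjoint (gb Φ e (r e)) (gb Φ e' (r e')) := by
  have hr1 : ∀ e ∈ Y, r e < 1 := fun e he => by
    obtain ⟨ρ, h1, h2, -⟩ := hT.ray e he
    exact h1.trans_lt h2
  intro e he e' he' hne
  rw [disjoint_left]
  intro y hy hy'
  have h1 := gb_open Φ (hT.pt e he) (hr1 e he) hy
  rw [interior_Pc] at h1
  have h2 : y ∈ Bd (Pc Φ.F) e := bd_of_two hne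
    (gb_sub Φ (hT.pt e he) (hr1 e he).le hy) (gb_sub Φ (hT.pt e' he') (hr1 e' he').le hy')
  rw [Bd_eq Φ hLa] at h2
  exact h2.2 h1

/-- tiles near the doors -/
def Rdc (T : Tiling Om ι) (f : E3 → E3) (Y : Set Φ.F) (r : Φ.F → ℝ) : Set ι :=
  {q | ∃ e ∈ Y, ∃ x ∈ Msh_715.P (T.H q), Mbf_337.gau e.1 (Φ.B e).lo (f x) ≤ r e}

/-- tiles deep inside the doors -/
def Ndc (T : Tiling Om ι) (f : E3 → E3) (J0 : Φ.F → Set ι) (Y : Set Φ.F)
    (r d : Φ.F → ℝ) : Set ι :=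
  {q | ∃ e ∈ Y, q ∈ J0 e ∨ ∃ x ∈ Msh_715.P (T.H q),
      Mbf_337.gau e.1 (Φ.B e).lo (f x) ≤ r e - d e}

theorem Tlr.ndc_sub {Y : Set Φ.F} {r d : Φ.F → ℝ} (hT : Tlr Φ T f J0 Y r d) :
    Ndc T f J0 Y r d ⊆ Rdc T f Y r := by
  rintro q ⟨e, he, hq | ⟨x, hx, hxr⟩⟩
  · obtain ⟨x, hx⟩ := T.ne q
    exact ⟨e, he, x, I_sub_P _ hx, hT.j0 e he q hq x (I_sub_P _ hx)⟩
  · exact ⟨e, he, x, hx, by linarith [hT.dn e he]⟩

/-- **LOCAL `H1` NEAR ALL DOORS** (discs only) -/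
theorem locH1_doors (hLa : IsOpen La) (hR : InitR Φ T f g J0 ct' r₀)
    {Y : Set Φ.F} {r d : Φ.F → ℝ} (hT : Tlr Φ T f J0 Y r d)
    {L : Φ.F → Finset ℝ} [Nonempty (JJ Φ L)] (hG : GF Φ r₀ T f L) (bp : JJ Φ L → E3)
    (j : JJ Φ L) (ht0 : 0 < j.2.1) (ht1 : j.2.1 < 1) :
    (gSht (st0 hG bp) j).LocH1 (Ndc T f J0 Y r d) (Rdc T f Y r) := by
  classical
  have F := foam4 Φ hLa
  have hRt := retF Φ hLa hR.pos hR.le_one
  obtain ⟨hcpt, htriv⟩ := discs_props (b := bc (F := Φ.F)) hR.hm F hRt (hT.door hLa hR)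
    (hT.dis hLa) (a := j.1) ht0 ht1
  have hloc : (gSht (hG.gst fr3) j).LocH1 (Ndc T f J0 Y r d) (Rdc T f Y r) →
      (gSht (st0 hG bp) j).LocH1 (Ndc T f J0 Y r d) (Rdc T f Y r) :=
    fun h => locH1_restrict (hX := fun {F w} hw hF => gcomp_closed hw hF) h
  refine hloc (hG.locH1' fr3 j hcpt ?_ htriv ?_ hT.ndc_sub ?_)
  · rintro x hx
    exact ⟨hx.1, hx.2.1⟩
  · rintro q ⟨x, ⟨-, -, e, he, hx⟩, hxq⟩
    exact Or.inl ⟨e, he, x, hxq, hx⟩
  · rintro F2 w hwS hwF ⟨q, hqF, e, he, hqN⟩ x hx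
    have hxm := connectedComponentIn_subset _ _ hx
    have hxq := C2.sub_tile (h3 := fr3) hqF hxm.2
    refine ⟨hxm.1.1, hxm.1.2, e, he, ?_⟩
    show Mbf_337.gau e.1 (Φ.B e).lo (f x) ≤ r e
    by_cases hqJ : q ∈ J0 e
    · exact hT.j0 e he q hqJ x hxq
    · rcases hqN with hqN | ⟨x', hx', hxr⟩
      · exact (hqJ hqN).elim
      · have h1 := hT.osc e he q hqJ ⟨x', hx', by linarith [hT.dn e he]⟩ x hxq x' hx'
        linarith

/-- the disc of a sheet in one gauge ball: compact, connected, trivial torsors -/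
theorem disc_door (hLa : IsOpen La) (hR : InitR Φ T f g J0 ct' r₀)
    {Y : Set Φ.F} {r d : Φ.F → ℝ} (hT : Tlr Φ T f J0 Y r d) {e : Φ.F} (he : e ∈ Y) {a : Φ.F}
    (hae : a ≠ e) {t : ℝ} (ht0 : 0 < t) (ht1 : t < 1) :
    IsCompact {x | x ∈ Om ∧ va (Pc Φ.F) (bc (F := Φ.F)) (RF Φ r₀) f a x = t ∧
        Mbf_337.gau e.1 (Φ.B e).lo (f x) ≤ r e} ∧
      TrivF (ZMod 2) {x | x ∈ Om ∧ va (Pc Φ.F) (bc (F := Φ.F)) (RF Φ r₀) f a x = t ∧
        Mbf_337.gau e.1 (Φ.B e).lo (f x) ≤ r e} := by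
  have F := foam4 Φ hLa
  have hRt := retF Φ hLa hR.pos hR.le_one
  have hT1 : Tlr Φ T f J0 {e} r d :=
    ⟨fun c hc => by rw [mem_singleton_iff.1 hc]; exact hT.pt e he,
      fun c hc => by rw [mem_singleton_iff.1 hc]; exact hT.pos e he,
      fun c hc => by rw [mem_singleton_iff.1 hc]; exact hT.ray e he,
      fun c hc => by rw [mem_singleton_iff.1 hc]; exact hT.j0 e he,
      fun c hc => by rw [mem_singleton_iff.1 hc]; exact hT.dn e he,
      fun c hc => by rw [mem_singleton_iff.1 hc]; exact hT.osc e he⟩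
  obtain ⟨h1, h2⟩ := discs_props (b := bc (F := Φ.F)) hR.hm F hRt (hT1.door hLa hR)
    (hT1.dis hLa) (a := a) ht0 ht1
  have h3 : discs Om (Pc Φ.F) (bc (F := Φ.F)) (RF Φ r₀) f (fun e => gb Φ e (r e)) {e} a t =
      {x | x ∈ Om ∧ va (Pc Φ.F) (bc (F := Φ.F)) (RF Φ r₀) f a x = t ∧
        Mbf_337.gau e.1 (Φ.B e).lo (f x) ≤ r e} := by
    ext x
    constructor
    · rintro ⟨h4, h5, c, hc, h6⟩
      rw [mem_singleton_iff.1 hc] at h6
      exact ⟨h4, h5, h6⟩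
    · rintro ⟨h4, h5, h6⟩
      exact ⟨h4, h5, e, rfl, h6⟩
  rw [h3] at h1 h2
  exact ⟨h1, h2⟩

end mach

end Crest.Agent.R096.Init_543
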