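import Crest.Agent.R096.Hdr2_334
import Crest.Agent.R096.Lay2_316
import Crest.Agent.R096.Sgo1_298
import Crest.Agent.R096.Tlh4_543

/-!
# R096 (row 96), DOORS (helper334), part 3: the zones over 184's slices

`Zr f re c` = the tiles of `T` with a point in `{gau ≤ re c}`; `zon_sla` = `Zon` for them;
`cl_tiny` = the conclusion of 298's `cl_sheet` for the tiny giants.
-/

set_option autoImplicit false
set_option linter.unusedSectionVars false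
set_option linter.unusedVariables false
set_option linter.style.longLine false

open Set Relation Module Topology Filter Metric

namespace Crest.Agent.R096.Hdr_334

open Crest.Agent.R096.Brk1_582 Crest.Agent.R096.Brk2_582 Crest.Agent.R096.Brk3_582
open Crest.Agent.R096.Brk5_582 Crest.Agent.R096.Bsp_628
open Crest.Agent.R096.St_147 Crest.Agent.R096.Seq_213 Crest.Agent.R096.Seq_213.GSt
open Crest.Agent.R096.Lm_117 Crest.Agent.R096.Ac_117 Crest.Agent.R096.Msh_715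
open Crest.Agent.R096.Agl5_543 Crest.Agent.R096.Init_543 Crest.Agent.R096.At_241
open Crest.Agent.R096.SkC1_961 (E3 Hom3 FoamD)
open Crest.Agent.R096.Mbf_337 (KJ sb gau Cores Tiny)
open Crest.Agent.R096.Frn_337 (Ti cti Lay)
open Crest.Agent.R096.SkB_662 Crest.Agent.R096.Sgd_298 Crest.Agent.R096.Qdl_662
  Crest.Agent.R096.Dinv_106 Crest.Agent.R096.Sla_184

section zones

variable {δ κ0 R c0 : ℝ} {La Om : Set E3} {ι : Type} {Φ : FoamD δ κ0 R c0 La} {T : Tiling Om ι}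
  {f : E3 → E3} {κ1 κ2 : ℝ} {X : Set Φ.F} {J0 J V : Φ.F → Set ι} {ct : Φ.F → ι}
  {A : Φ.F → E3 ≃ᵃ[ℝ] E3} {lam : Φ.F → ℝ} {z : Φ.F → E3} {θ : Φ.F → E3 → E3} {φ : Φ.F → E3 → ℝ}

/-- the tiles with a point in `{gau ≤ re c}` -/
def Zr (T : Tiling Om ι) (f : E3 → E3) (re : Ti X → ℝ) (c : Ti X) : Set ι :=
  {i | ∃ x ∈ P (T.H i), gau c.1.1 (Φ.B c.1).lo (f x) ≤ re c}

/-- a tile of a core which is cut into layers meets the frontier of the core; all other tiles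
outside the remaining cores are uncut tiles outside the cores -/
theorem zon_sla (hC : Cores Φ T f κ1 κ2 X J0 J V ct A lam z θ φ) (S : Sla T (Ti X))
    (hK : ∀ k, S.K k = KJ T (J k.1)) {re : Ti X → ℝ}
    (h1 : ∀ c : Ti X, ∀ x ∈ frontier (KJ T (J c.1)), gau c.1.1 (Φ.B c.1).lo (f x) ≤ re c)
    (h2 : ∀ c : Ti X, ∀ i, (∃ x ∈ P (T.H i), gau c.1.1 (Φ.B c.1).lo (f x) ≤ re c) → i ∈ V c.1) :
    Zon Φ T S.T3 f X J0 S.KK Tiling.RIdx.tile (Zr T f re) where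
  kor := by
    rintro c p hp hpZ
    have hpV : p.tile ∈ V c.1 := h2 c _ hpZ
    refine notKor_of_lay (c3 := Lay_316.c3 S) (Lay_316.lay_of_sla hC S hK)
      (fun p => Sla.P3_sub p) ?_ hC hp ?_
    · intro i hi
      have h : ∀ c, ¬ P (T.H i) ⊆ S.K c := fun k hk => by
        rw [hK k] at hk
        exact hi k (Slt_471.sub_KJ_iff.1 hk)
      rw [Lay_316.c3_of h]
      rfl
    · intro c' hc' he
      rw [he] at hpV
      refine disjoint_left.1 (hC.disj c.1 c' ?_) hpV ?_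
      · rintro e
        exact c.2 (e ▸ hc')
      · rw [(hC.one c' hc').2.2]
        rfl
  ins := fun c i hi x hx => (hC.tiny c.1 c.2).inside x (mem_biUnion (x := i) (h2 c i hi) hx)
  insK := by
    intro c x hx
    have h3 : x ∈ S.K c := Sla.KK_K hx
    rw [hK c] at h3
    obtain ⟨i, hi, hxi⟩ := mem_iUnion₂.1 h3
    exact (hC.tiny c.1 c.2).inside x (mem_biUnion (x := i) ((hC.tiny c.1 c.2).sub hi) hxi)
  adj := by
    rintro c p hp ⟨x, hxp, hxK⟩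
    have hxt : x ∈ P (T.H p.tile) := Sla.P3_sub p hxp
    have hxK' : x ∈ S.K c := Sla.KK_K hxK
    have hin : S.In c x := by
      refine Sla.in_of_lt hxK' ?_
      exact (Sla.mem_KK.1 hxK).2.trans_lt (Sla.tn_lt S c)
    have hsub : P (T.H p.tile) ⊆ S.K c := hin.tile hxt
    obtain ⟨v, hv, hvf⟩ := Lay_316.layer_meets fr3 hsub hp
    rw [hK c] at hvf
    exact ⟨v, hv, h1 c v hvf⟩

/-- 543's `Rdc` is the union of the zones -/
theorem zr_of_rdc {r : Φ.F → ℝ} {q : ι} (h : q ∈ Init_543.Rdc T f Xᶜ r) :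
    ∃ c : Ti X, q ∈ Zr T f (fun c : Ti X => r c.1) c := by
  obtain ⟨e, he, x, hx, hr⟩ := h
  exact ⟨⟨e, he⟩, x, hx, hr⟩

/-- `hAct` of `hdoor` and `cl_tiny` for `Act := ActR S (Rdc T f Xᶜ r)` -/
theorem hAct_rdc (S : Sla T (Ti X)) {r : Φ.F → ℝ} (p : T.RIdx S.HH)
    (_ : ∀ k, ¬ P (S.T3.H p) ⊆ S.KK k)
    (h : Sum.inl p ∈ Sgo_298.ActR S (Init_543.Rdc T f Xᶜ r)) :
    ∃ c : Ti X, p.tile ∈ Zr T f (fun c : Ti X => r c.1) c :=
  zr_of_rdc (Sgo_298.inl_ActR.1 h)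

end zones

section mach

variable {δ κ0 R c0 : ℝ} {La Om : Set E3} {ι ι3 : Type} {Φ : FoamD δ κ0 R c0 La}
  {T : Tiling Om ι} {T3 : Tiling Om ι3} {f g : E3 → E3} {X : Set Φ.F} {J0 : Φ.F → Set ι}
  {ct' : Φ.F → ι} {r₀ : Φ.F → ℝ} {KK : Ti X → Set E3} {til : ι3 → ι}
  {ε s₁ : ℝ} {Zo : Ti X → Set ι} [Nonempty T3.Cell]
  {hH : ∀ k, CoreH T3 (KK k)} {hdis : ∀ k k', k ≠ k' → Disjoint (KK k) (KK k')}
  {hsub : ∀ p, P (T3.H p) ⊆ P (T.H (til p))} {hLa : IsOpen La}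
  {hR : InitR Φ T f g J0 ct' r₀}
  {hM : Mesh0 T (Pc Φ.F) (bc (F := Φ.F)) (RF Φ r₀) f (KorJ Φ J0) ε} {hε : ε < s₁} {hε1 : ε < 1}
  {L : Φ.F → Finset ℝ}

/-- **the condition `cl` of `good_pr` for a sheet** : the conclusion of `cl_sheet`, only the outer
part `hout` is left -/
theorem cl_tiny {Mo : Type} {am : Mo → Φ.F}
    {s : GSt (mK fr3 hH hdis) (Sum.map (fun j : JJ Φ L => j.1) (id : Mo → Mo))}
    (hne : ∃ c, OutK T3 KK c)
    (hZ : Zon Φ T T3 f X J0 KK til Zo) {s' lam : ℝ} (hs' : s₁ + ε ≤ s') (hlam : lam + ε < s')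
    (hL : ∀ a, (L a).Nonempty)
    (hpos : ∀ j : JJ Φ L, Pos T f J0 til s (Sum.inl j) j.1 s')
    (hbar : ∀ m, PosM T f J0 til s (Sum.inr m) (am m) lam)
    (hnear : ∀ (c : Ti X) F w (j : JJ Φ L), Sum.inr c ∈ (mK fr3 hH hdis).side F → s.At F w →
      s.lab w = Sum.inl j → c.1 ≠ j.1 ∧ (Pc Φ.F c.1 ∩ Pc Φ.F j.1).Nonempty)
    (hone : ∀ (c : Ti X) (j : JJ Φ L),
      One s {F | Sum.inr c ∈ (mK fr3 hH hdis).side F} (Sum.inl j))
    (htwo : ∀ (k : QK (Pc Φ.F)) (c : Ti X), c.1 ∈ k.Z → ∀ j j' : JJ Φ L, j.1 ∈ k.B → j'.1 ∈ k.B →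
      j.1 ≠ j'.1 → Two s ((qdT til hsub KK hLa hR hM hε hε1).Act k) {Sum.inr c} (Sum.inl j)
        (Sum.inl j'))
    {Act : Set (ι3 ⊕ Ti X)} (hAct : ∀ p, (∀ k, ¬ P (T3.H p) ⊆ KK k) → Sum.inl p ∈ Act →
      ∃ c, til p ∈ Zo c) (hAct0 : ∀ c, Sum.inr c ∉ Act) {j : JJ Φ L} {r : E3}
    (hout : ∀ Y : Set E3, r ∈ Y → (∀ F w, (NB s am j.1 F ∨ St.Frozen (mK fr3 hH hdis) Act F) →
      w ∈ Y → s.At F w → s.lab w = Sum.inl j → s.mu F w ∈ Y) → ∀ F w, s.At F w →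
      s.lab w = Sum.inl j → (∃ q ∈ (mK fr3 hH hdis).side F, q ∉ Act ∧
        q ∉ range (Sum.inr : Ti X → ι3 ⊕ Ti X)) → w ∈ Y)
    (Y : Set E3) (hrY : r ∈ Y)
    (hY : ∀ F w, (NB s am j.1 F ∨ St.Frozen (mK fr3 hH hdis) Act F) → w ∈ Y → s.At F w →
      s.lab w = Sum.inl j → s.mu F w ∈ Y) :
    ∀ F w, s.At F w → s.lab w = Sum.inl j → St.Frozen (mK fr3 hH hdis) Act F → w ∈ Y := by
  refine cl_sheet (am := am) (a := j.1) (lmK fr3 hH hdis hne)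
    (Gt := range (Sum.inr : Ti X → ι3 ⊕ Ti X)) ?_ hout
    (hdoor (hsub := hsub) (hLa := hLa) (hR := hR) (hM := hM) (hε := hε) (hε1 := hε1) hne hZ hs'
      hlam hL hpos hbar hnear hone htwo hAct j) Y hrY hY
  rintro _ ⟨c, rfl⟩ h
  exact hAct0 c h

end mach

end Crest.Agent.R096.Hdr_334
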