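import Crest.Agent.R096.Sgo2_298
import Crest.Agent.R096.Hdr3_334
import Crest.Agent.R096.Bse2_344
import Crest.Agent.R096.Dfn1_416
import Crest.Agent.R096.Sec13_892
import Crest.Agent.R096.Ess8_95

/-!
# Row 96, DOORS (helper298): `Good` for the pair states of `s₂`, machine instance

Radii: `rout ρ3 d c = ρ3 c + 16 d c` (a radius of a door by `Tiny.room`).

* `ga_core`, `tlr_out`, `core_ndc`, `notR`, `ndc_of`, `zon_out` : the geometry of the zones;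
* `two_s2m` : (E2) at the giants of `s₂` for 662's quads;
* `good_m`  : `Good` for 892's `prS` at all families, `Act := ActR S (Rdc T f Xᶜ (rout ρ3 d))`.
-/

set_option autoImplicit false
set_option linter.unusedSectionVars false
set_option linter.unusedVariables false
set_option linter.style.longLine false

open Set Topology Filter Metric Module
open scoped Classical

namespace Crest.Agent.R096.Sgo_298

open Crest.Agent.R096.Msh_715 Crest.Agent.R096.Agl5_543 Crest.Agent.R096.St_147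
  Crest.Agent.R096.Seq_213 Crest.Agent.R096.Ginv_543 Crest.Agent.R096.Door_501
  Crest.Agent.R096.Sla_184
  Crest.Agent.R096.Twr_438 Crest.Agent.R096.Exa_560 Crest.Agent.R096.Ess3_95
  Crest.Agent.R096.Dfi_539 Crest.Agent.R096.Dfi_471 Crest.Agent.R096.Dis_184
  Crest.Agent.R096.Cg_501 Crest.Agent.R096.Sgd_298 Crest.Agent.R096.Lm_117
  Crest.Agent.R096.SecW_892 Crest.Agent.R096.Sec_892
open Crest.Agent.R096.Brk1_582 Crest.Agent.R096.Brk2_582 Crest.Agent.R096.Brk3_582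
  Crest.Agent.R096.Brk5_582 Crest.Agent.R096.Bsp_628 Crest.Agent.R096.Init_543
  Crest.Agent.R096.Hdr_334 Crest.Agent.R096.Qdl_662 Crest.Agent.R096.Ess5_95
open Crest.Agent.R096.Mbf_337 (sb KJ Tiny gau Cores Fine)
open Crest.Agent.R096.SkC1_961 (E3 FoamD Hom3)
open Crest.Agent.R096.Frn_337 (Ti)
open Crest.Agent.R96.Push_899
open Crest.Agent.R096.Frs_662 (slC)
open Crest.Agent.R096.Sla_184.Sla (hf vf old tg F0 Fn Out OnS InL In)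

variable {δ κ0 R c0 : ℝ} {La Om : Set E3} {ι : Type} {Φ : FoamD δ κ0 R c0 La} {T : Tiling Om ι}
  {f g : E3 → E3} {κ1 κ2 μ : ℝ} {X : Set Φ.F} {J0 Jt V : Φ.F → Set ι}
  {ct ct' : Φ.F → ι} {A : Φ.F → E3 ≃ᵃ[ℝ] E3} {lam : Φ.F → ℝ} {z : Φ.F → E3}
  {θ : Φ.F → E3 → E3} {φ : Φ.F → E3 → ℝ} {r₀ : Φ.F → ℝ} {ρ1 ρ2 ρ3 ρ4 d : Φ.F → ℝ}

/-- the outer radius of the zones -/
def rout {F : Type} (ρ3 d : F → ℝ) (c : F) : ℝ := ρ3 c + 16 * d c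

/-- the radii of all tiny cores -/
abbrev RmA (Φ : FoamD δ κ0 R c0 La) (T : Tiling Om ι) (f : E3 → E3) (X : Set Φ.F)
    (J0 Jt V : Φ.F → Set ι) (θ : Φ.F → E3 → E3) (ρ1 ρ2 ρ3 ρ4 d : Φ.F → ℝ) : Prop :=
  ∀ c ∉ X, Rm Φ T f c (J0 c) (Jt c) (V c) (θ c) (ρ1 c) (ρ2 c) (ρ3 c) (ρ4 c) (d c)

/-- the cores lie in `{ga ≤ ρ3}` -/
theorem ga_core (hLa : IsOpen La) (H : Hm f g Om La)
    (hC : Cores Φ T f κ1 κ2 X J0 Jt V ct A lam z θ φ) (hRm : RmA Φ T f X J0 Jt V θ ρ1 ρ2 ρ3 ρ4 d)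
    {c : Φ.F} (hc : c ∉ X) {x : E3} (hx : x ∈ KJ T (Jt c)) : ga Φ c (f x) ≤ ρ3 c := by
  have hT := hC.tiny c hc
  have hr := hRm c hc
  have hG := Ess8_95.ga_of_ray hLa hT.pt (by linarith [hr.r1, hr.r12, hr.r23, hr.r34, hr.d0]) hr.r4
    hr.ray
  have hcl : IsClosed (KJ T (Jt c)) :=
    (hT.finV.subset hT.sub).isClosed_biUnion fun i _ => isClosed_P _
  exact K_loc H (Φ.bf.sub c.1 c.2) hG hr hT.sub hcl hT.inside hx

theorem tlr_out (hC : Cores Φ T f κ1 κ2 X J0 Jt V ct A lam z θ φ)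
    (hRm : RmA Φ T f X J0 Jt V θ ρ1 ρ2 ρ3 ρ4 d) : Tlr Φ T f J0 Xᶜ (rout ρ3 d) d :=
  tlr_of_room hC (fun e he => (hRm e he).r1) (fun e he => (hRm e he).r4) (fun e he => (hRm e he).d0)
    (fun e he => (hRm e he).ray) (fun e he => (hRm e he).j0) (fun e he => (hRm e he).v)
    (fun e he i hi hi0 x hx y hy => ((hRm e he).osc i hi hi0 x hx y hy).1)
    (fun e he => by
      have hr := hRm e he
      unfold rout
      linarith [hr.r12, hr.r23, hr.d0])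
    fun e he => (hRm e he).r34

/-- a tile near a core is in `Ndc` -/
theorem ndc_of {c : Φ.F} (hc : c ∉ X) {q : ι} {x : E3} (hx : x ∈ P (T.H q))
    (h : ga Φ c (f x) ≤ ρ3 c + 15 * d c) : q ∈ Ndc T f J0 Xᶜ (rout ρ3 d) d := by
  refine ⟨c, hc, Or.inr ⟨x, hx, ?_⟩⟩
  have h2 : gau c.1 (Φ.B c).lo (f x) ≤ ρ3 c + 15 * d c := h
  show gau c.1 (Φ.B c).lo (f x) ≤ ρ3 c + 16 * d c - d c
  linarith

/-- the tiles of the cores are in `Ndc` -/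
theorem core_ndc (hLa : IsOpen La) (H : Hm f g Om La)
    (hC : Cores Φ T f κ1 κ2 X J0 Jt V ct A lam z θ φ) (hRm : RmA Φ T f X J0 Jt V θ ρ1 ρ2 ρ3 ρ4 d)
    {q : ι} (hq : q ∉ Ndc T f J0 Xᶜ (rout ρ3 d) d) (c : Ti X) : ¬ P (T.H q) ⊆ KJ T (Jt c.1) := by
  intro hsub
  obtain ⟨x, hx⟩ := T.ne q
  have hxP := I_sub_P _ hx
  have h1 := ga_core hLa H hC hRm c.2 (hsub hxP)
  exact hq (ndc_of c.2 hxP (by linarith [(hRm c.1 c.2).d0]))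

/-- a tile in no `V c` is outside the zones -/
theorem notR (hRm : RmA Φ T f X J0 Jt V θ ρ1 ρ2 ρ3 ρ4 d) {q : ι} (hq : ∀ c ∉ X, q ∉ V c) :
    q ∉ Rdc T f Xᶜ (rout ρ3 d) := by
  rintro ⟨e, he, x, hx, hr⟩
  exact hq e he ((hRm e he).v q ⟨x, hx, hr.trans (hRm e he).r34⟩)

/-- the zones for 334 -/
theorem zon_out (hC : Cores Φ T f κ1 κ2 X J0 Jt V ct A lam z θ φ)
    (hRm : RmA Φ T f X J0 Jt V θ ρ1 ρ2 ρ3 ρ4 d) (S : Sla T (Ti X))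
    (hK : ∀ k, S.K k = KJ T (Jt k.1)) :
    Zon Φ T S.T3 f X J0 S.KK Tiling.RIdx.tile (Zr T f (fun c : Ti X => rout ρ3 d c.1)) :=
  zon_sla hC S hK (fun c x hx => by
    have hr := hRm c.1 c.2
    have h1 : gau c.1.1 (Φ.B c.1).lo (f x) ≤ ρ3 c.1 := (hr.fr x hx).2
    show gau c.1.1 (Φ.B c.1).lo (f x) ≤ ρ3 c.1 + 16 * d c.1
    linarith [hr.d0]) fun c i ⟨x, hx, h⟩ => (hRm c.1 c.2).v i ⟨x, hx, h.trans (hRm c.1 c.2).r34⟩


/-- 184's `Part` from 4's `Ext` -/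
theorem part_ext {ι' Φ' W J C C' Mo : Type} {M : MeshC ι' Φ' W} {fam1 : J → C}
    {fam2 : J ⊕ Mo → C'} {s1 : GSt M fam1} {s2 : GSt M fam2} (h : Bgf_4.Ext s1 s2) :
    Part s1 s2 Sum.inl :=
  ⟨fun w j => (h.pts w j).symm, fun F w hw hF => h.mu F w ⟨hw, hF⟩⟩

/-! ### (E2) at the giants -/

section two

variable {ε s₁ : ℝ} {hLa : IsOpen La} {hI : InitR Φ T f g J0 ct' r₀}
  {hM : Mesh0 T (Pc Φ.F) (bc (F := Φ.F)) (RF Φ r₀) f (KorJ Φ J0) ε} {hε : ε < s₁} {hε1 : ε < 1}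
  {hC : Cores Φ T f κ1 κ2 X J0 Jt V ct A lam z θ φ} {n : Ti X → ℕ} {hn : ∀ c, 0 < n c}

/-- the active cells at the remaining cores -/
theorem act_tg {m : Ti X} (G : ((slC hLa hC n hn).sh fr3 m).Fk) (Q : QK (Pc Φ.F)) :
    Sum.inl (tg G (n m - 1)) ∈ (qdT (fun p : T.RIdx (slC hLa hC n hn).HH => p.tile)
      (sla_sub (slC hLa hC n hn)) (slC hLa hC n hn).KK hLa hI hM hε hε1).Act Q ↔
      ∃ x ∈ P (T.H (tg G (n m - 1)).tile),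
        (∀ b ∈ Q.B, Φ.lev b (f x) ∈ Icc s₁ (1 - s₁)) ∧ ∀ e ∈ Q.Z, Φ.lev e (f x) = 0 := by
  have hn0 : n m - 1 < (slC hLa hC n hn).n m := Nat.sub_lt (hn m) Nat.one_pos
  have hj : n m - 1 + 1 = (slC hLa hC n hn).n m := Nat.sub_add_cancel (hn m)
  have hp : ∀ k, ¬ P ((slC hLa hC n hn).T3.H (tg G (n m - 1))) ⊆ (slC hLa hC n hn).KK k := by
    have h0 : Sum.inl (tg G (n m - 1)) ∈ ((slC hLa hC n hn).mn fr3).side
        (hf G ((slC hLa hC n hn).n m)) := by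
      rw [Sla.side_bot G hj]
      exact Sym2.mem_mk_left _ _
    have h1 : Sum.inl (tg G (n m - 1)) ∈ ((meshC (slC hLa hC n hn).T3 fr3).side
        (hf G ((slC hLa hC n hn).n m)).1).map
          (piK (slC hLa hC n hn).T3 (slC hLa hC n hn).KK) := h0
    rw [mem_map_iff] at h1
    obtain ⟨q', h2, h4⟩ := h1
    obtain ⟨rfl, h5⟩ := piK_inl.1 h4
    exact h5
  have hV : (tg G (n m - 1)).tile ∈ V m.1 := by
    have h2 := (tg_tile (S := slC hLa hC n hn) (G := G) hn0).2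
    exact Nr_527.J_sub hC m.1 (Slt_471.sub_KJ_iff.1 h2)
  have hk := Bse_344.kor_s2 hLa hC n hn (tg G (n m - 1)) hp ⟨m.1, m.2, hV⟩
  rw [inl_act, mem_act_iff hLa hI]
  exact ⟨fun h => h.1.2, fun h => ⟨⟨fun ⟨c, hc⟩ => hk c hc, h⟩, hp⟩⟩

variable {L : Φ.F → Finset ℝ} {Mo : Type} [Nonempty (JJ Φ L ⊕ Mo)]
  {s : GSt (meshC T fr3) (Sum.map (fun j : JJ Φ L => j.1) (id : Mo → Mo))}
  {r : JJ Φ L ⊕ Mo → E3} {nb : Ti X → Φ.F ⊕ Mo → Prop}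
  {v0 v1 : ∀ c, Φ.F ⊕ Mo → VxK T (slC hLa hC n hn).K c} {u : Ti X → Φ.F ⊕ Mo → E3 → ℝ}
  {Aw Bw : Ti X → Φ.F ⊕ Mo → ℝ}
  {Lv : ∀ c, Φ.F ⊕ Mo → Lev T (frontier ((slC hLa hC n hn).K c)) (JJ Φ L ⊕ Mo)}
  {Tw : Twrs ((slC hLa hC n hn).sh fr3) (slC hLa hC n hn).n
    (outK (slC hLa hC n hn).hH (slC hLa hC n hn).dis s r)} {l0 : E3 → JJ Φ L ⊕ Mo}

/-- **(E2) at the giants of `s₂`** for 662's quads -/
theorem two_s2m (hδ : 0 < δ) (hR : 0 < R) (LO : LevOut s nb u Aw Bw Lv)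
    (tt : TwOut (slC hLa hC n hn) fr3 s r v0 v1 Lv Tw)
    (hub : ∀ (c : Ti X) (a : Φ.F), ∀ x ∈ frontier (KJ T (Jt c.1)),
      u c (Sum.inl a) x = sb Φ (θ c.1 x) a)
    (hnb : ∀ (c : Ti X) (a : Φ.F), Dia_316.nbT Φ X c a → nb c (Sum.inl a))
    (hAw : ∀ (c : Ti X) (a : Φ.F), 1 - μ ≤ Aw c (Sum.inl a))
    (hBw : ∀ (c : Ti X) (a : Φ.F), Bw c (Sum.inl a) ≤ 1 - μ / 2) (hμ0 : 0 < μ) (hμ1 : μ ≤ 1 / 2)
    (hs : (Cn δ R + 1) * κ1 < s₁) (hs1 : s₁ + Cn δ R * κ1 ≤ μ / 2) (hκ1 : 0 ≤ κ1)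
    (k : QK (Pc Φ.F)) (c : Ti X) (hc : c.1 ∈ k.Z) (j j' : JJ Φ L) (hj : j.1 ∈ k.B)
    (hj' : j'.1 ∈ k.B) (hne : j.1 ≠ j'.1) :
    SkB_662.Two (s2 (slC hLa hC n hn) fr3 Tw l0)
      ((qdT (fun p : T.RIdx (slC hLa hC n hn).HH => p.tile)
        (sla_sub (slC hLa hC n hn)) (slC hLa hC n hn).KK hLa hI hM hε hε1).Act k)
      {Sum.inr c} (Sum.inl j) (Sum.inl j') :=
  s2_two_lev (hLa := hLa) (H := hC.tiny) (n := n) (hn := hn) (fa := Sum.inl) hδ hR (endsIn tt) LO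
    Sum.inl_injective hub (fun c a h1 h2 => hnb c a ⟨h1, h2⟩) hAw hBw hμ0 hμ1 hs hs1 hκ1 hc hj hj'
    hne rfl rfl inr_act fun G => act_tg G k


/-- **`Good` FOR THE PAIR STATES OF `s₂`, ALL FAMILIES** (892's `prS`), `Act := ActR S (Rdc ..)` -/
theorem good_m [Nonempty (JJ Φ L)] {hG : GF Φ r₀ T f L} {bp : JJ Φ L → E3}
    [Nonempty (slC hLa hC n hn).T3.Cell]
    (hnC : ∃ c, OutK (slC hLa hC n hn).T3 (slC hLa hC n hn).KK c) (hδ : 0 < δ) (hR : 0 < R)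
    (hI : InitR Φ T f g J0 ct' r₀)
    (hM : Mesh0 T (Pc Φ.F) (bc (F := Φ.F)) (RF Φ r₀) f (KorJ Φ J0) ε) (hε : ε < s₁) (hε1 : ε < 1)
    (hRm : RmA Φ T f X J0 Jt V θ ρ1 ρ2 ρ3 ρ4 d)
    (hLn : ∀ a, (L a).Nonempty) (hL : ∀ c, ∀ t ∈ L c, 0 < t ∧ t < 1)
    (hP : Part (st0 hG bp) s Sum.inl)
    {Sf : JJ Φ L ⊕ Mo → Set E3} (D : DIn (slC hLa hC n hn).hH s r Sf nb v0 v1 u Aw Bw)
    (LO : LevOut s nb u Aw Bw Lv) (tt : TwOut (slC hLa hC n hn) fr3 s r v0 v1 Lv Tw)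
    {am : Mo → Φ.F} {co : Mo → Ti X} (hnbM : ∀ c m, nb c (Sum.inr m) ↔ co m = c)
    (hnbF : ∀ (c : Ti X) (a : Φ.F), nb c (Sum.inl a) ↔ Dia_316.nbT Φ X c a)
    (hrV : ∀ j : JJ Φ L, ∃ q, r (Sum.inl j) ∈ P (T.H q) ∧ ∀ c ∉ X, q ∉ V c)
    (hga : ∀ w ∈ s.P, ∀ m, s.lab w = Sum.inr m →
      ga Φ (co m).1 (f w) ≤ ρ3 (co m).1 + 15 * d (co m).1)
    {s' lm : ℝ} (hs' : s₁ + ε ≤ s') (hlm : lm + ε < s')
    (hpos : ∀ j : JJ Φ L, Pos (hH := (Lay_316.lay_sla hLa hC n hn).core)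
      (hdis := (Lay_316.lay_sla hLa hC n hn).disj) T f J0
      (fun p : T.RIdx (slC hLa hC n hn).HH => p.tile) (s2 (slC hLa hC n hn) fr3 Tw l0)
      (Sum.inl j) j.1 s')
    (hbar : ∀ m, PosM (hH := (Lay_316.lay_sla hLa hC n hn).core)
      (hdis := (Lay_316.lay_sla hLa hC n hn).disj) T f J0
      (fun p : T.RIdx (slC hLa hC n hn).HH => p.tile) (s2 (slC hLa hC n hn) fr3 Tw l0)
      (Sum.inr m) (am m) lm)
    (htwo : ∀ (k : QK (Pc Φ.F)) (c : Ti X), c.1 ∈ k.Z → ∀ j j' : JJ Φ L, j.1 ∈ k.B → j'.1 ∈ k.B →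
      j.1 ≠ j'.1 → SkB_662.Two (s2 (slC hLa hC n hn) fr3 Tw l0)
        ((qdT (fun p : T.RIdx (slC hLa hC n hn).HH => p.tile)
        (sla_sub (slC hLa hC n hn)) (slC hLa hC n hn).KK hLa hI hM hε hε1).Act k)
        {Sum.inr c} (Sum.inl j) (Sum.inl j'))
    (hs : BSep (s2 (slC hLa hC n hn) fr3 Tw l0) am) (hm : ∀ a, {m | am m = a}.Finite)
    (j0 : Φ.F → JJ Φ L) (hj0 : ∀ a, (j0 a).1 = a) :
    ∃ far : ∀ a, PN (fun j : JJ Φ L => j.1) am a → Set E3,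
      (∀ a, (prS (s2 (slC hLa hC n hn) fr3 Tw l0) hs hm j0 hj0 a).Good
        (ActR (slC hLa hC n hn) (Rdc T f Xᶜ (rout ρ3 d))) (far a)) ∧
      (∀ j : JJ Φ L, r (Sum.inl j) ∈ far j.1 (nL am j)) ∧
      ∀ a i F w, w ∈ far a i → (prS (s2 (slC hLa hC n hn) fr3 Tw l0) hs hm j0 hj0 a).At F w →
        OKp (prS (s2 (slC hLa hC n hn) fr3 Tw l0) hs hm j0 hj0 a)
          (ActR (slC hLa hC n hn) (Rdc T f Xᶜ (rout ρ3 d))) F w →
        (s2 (slC hLa hC n hn) fr3 Tw l0).mu F w ∈ far a i := by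
  have hT := tlr_out hC hRm
  have hLay := Lay_316.lay_sla hLa hC n hn
  have key : ∀ a, _ := fun a => good_s2 (a := a) (hs := hs) (hm := hm)
    (i0 := ⟨Sum.inl (j0 a), hj0 a⟩) (am := am)
    (lmK fr3 hLay.core hLay.disj hnC)
    (fun q => cf_le (hH := hLay.core) (hdis := hLay.disj) hnC q) D LO tt (co := co) hnbM
    (N := Ndc T f J0 Xᶜ (rout ρ3 d) d) (R := Rdc T f Xᶜ (rout ρ3 d)) hT.ndc_sub
    (fun q hq c => core_ndc hLa hI.hm hC hRm hq c)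
    (fun j hj => locH1_part hP (locH1_doors hLa hI hT hG bp j (hL j.1 _ j.2.2).1
      (hL j.1 _ j.2.2).2))
    (fun j hj => by
      obtain ⟨q, h1, h2⟩ := hrV j
      exact ⟨q, h1, notR hRm h2⟩)
    (fun w m hw hl ham q hq => ndc_of (co m).2 hq (hga w hw m hl))
    (by
      intro j hj c hpt
      have h1 := hdoor (hsub := sla_sub (slC hLa hC n hn)) (hLa := hLa) (hR := hI) (hM := hM)
        (hε := hε) (hε1 := hε1) (hH := hLay.core) (hdis := hLay.disj) hnC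
        (zon_out hC hRm (slC hLa hC n hn) fun k => rfl) hs' hlm hLn hpos hbar
        (fun c F w j hF hA hl => by
          have h3 := giant_nb LO tt hF hA
          rw [hl] at h3
          have h4 := (hnbF c j.1).1 h3
          exact ⟨h4.1.symm, h4.2⟩)
        (fun c j => giant_one LO tt (Sum.inl j)) htwo
        (Act := ActR (slC hLa hC n hn) (Rdc T f Xᶜ (rout ρ3 d)))
        (fun p hp h => hAct_rdc (slC hLa hC n hn) p hp h) j (Sum.inr c) ⟨c, rfl⟩ hpt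
      obtain ⟨-, n', R', Zc, F₀, w₀, x₀, k1, k2, -, k4, k5, k6⟩ := h1
      rw [hj] at k5
      exact ⟨n', R', Zc, F₀, w₀, x₀, k1, k2, k4, k5, k6⟩)
  choose far h1 h2 h4 using key
  exact ⟨far, h1, fun j => h2 j.1 (nL am j) j rfl, h4⟩

end two

end Crest.Agent.R096.Sgo_298
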