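import Crest.Agent.R096.Hdr5_334
import Crest.Agent.R096.Sgo3_298
import Crest.Agent.R096.Dfg1_539
import Crest.Agent.R096.Dff5_539
import Crest.Agent.R096.Civ2_662
import Crest.Agent.R096.Nmd1_698

/-!
# R096 (row 96), DOORS (helper334): LEAF BC for the machine

`box_m`, `bsep_m`, `pos_m`, `posM_m`, `two_m` : the barriers and sheets of `s2` with the numbers of
record (`NumD`) over 539's record `BRec`;
`good_all` : `Good` for all families;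
`leafBC_m` : 662's `leafBC` for the machine: everything is discharged but `TrOut`, `VIn`, `Dich`.
-/

set_option autoImplicit false
set_option linter.unusedSectionVars false
set_option linter.unusedVariables false
set_option linter.style.longLine false

open Set Topology Filter Metric Module Relation
open scoped Classical

namespace Crest.Agent.R096.Lbc_334

open Crest.Agent.R096.Msh_715 Crest.Agent.R096.Coh_184 Crest.Agent.R096.Lab_184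
  Crest.Agent.R096.Main_4 Crest.Agent.R096.Agl5_543
  Crest.Agent.R096.Seq_213 Crest.Agent.R096.St_147 Crest.Agent.R096.Door_501
  Crest.Agent.R096.Twr_438 Crest.Agent.R096.Exa_560
  Crest.Agent.R096.Ess3_95 Crest.Agent.R096.Ess4_95 Crest.Agent.R096.Ac_117 Crest.Agent.R096.Lm_117
  Crest.Agent.R096.Dfi_539 Crest.Agent.R096.Dfi_471 Crest.Agent.R096.Dfo_539
  Crest.Agent.R096.Sla_184 Crest.Agent.R096.Gm_298
  Crest.Agent.R096.Brk1_582 Crest.Agent.R096.Brk2_582 Crest.Agent.R096.Brk3_582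
  Crest.Agent.R096.Brk5_582 Crest.Agent.R096.Bsp_628 Crest.Agent.R096.Init_543
  Crest.Agent.R096.Lv3_471 Crest.Agent.R096.Lv4_471 Crest.Agent.R096.Slt_471
  Crest.Agent.R096.Dib_438 Crest.Agent.R096.Rop_441 Crest.Agent.R096.Frk_441
  Crest.Agent.R096.Dff_539 Crest.Agent.R096.Frs_662 Crest.Agent.R096.Qdl_662
  Crest.Agent.R096.Cg_501 Crest.Agent.R096.SecW_892 Crest.Agent.R096.Sgd_298
  Crest.Agent.R096.Dfg_539 Crest.Agent.R096.Nmd1_698 Crest.Agent.R096.Civ_662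
open Crest.Agent.R096.Sgo_298 (RmA rout ActR)
open Crest.Agent.R096.Bse_344 (BoxP RadV)
open Crest.Agent.R096.Mbf_337 (KJ Tiny Cores Fine sb gau)
open Crest.Agent.R096.SkC1_961 (E3 FoamD Hom3)
open Crest.Agent.R096.Frn_337 (Ti)
open Crest.Agent.R096.Ess7_95 (KT)
open Crest.Agent.R096.Dia_316 (nbT)
open Crest.Agent.R096.Bar_106 (Fs Fm Gm)
open Crest.Agent.R096.Bgf_4 (Ext)

variable {δ κ0 R c0 : ℝ} {La Om : Set E3} {ι : Type} {Φ : FoamD δ κ0 R c0 La} {T : Tiling Om ι}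
  {f g : E3 → E3} {κ1 κ2 μ : ℝ} {X : Set Φ.F} {J0 J V : Φ.F → Set ι}
  {ct ct' : Φ.F → ι} {Aj : Φ.F → E3 ≃ᵃ[ℝ] E3} {lam : Φ.F → ℝ} {z : Φ.F → E3}
  {θ : Φ.F → E3 → E3} {φ : Φ.F → E3 → ℝ} {r₀ : Φ.F → ℝ} {ρ1 ρ2 ρ3 ρ4 d : Φ.F → ℝ}
  {L : Φ.F → Finset ℝ} [Nonempty (JJ Φ L)] {hG : GF Φ r₀ T f L} {bp : JJ Φ L → E3}
  {Mo : Type} {co : Mo → Ti X} {am : Mo → Φ.F} {Zm : Mo → Set Φ.F} [Nonempty (JJ Φ L ⊕ Mo)]
  {sB : GSt (meshC T fr3) (Sum.map (fun j : JJ Φ L => j.1) (id : Mo → Mo))}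
  {r : JJ Φ L ⊕ Mo → E3} {Sf : JJ Φ L ⊕ Mo → Set E3} {nb : Ti X → Φ.F ⊕ Mo → Prop}
  {hLa : IsOpen La} {hC : Cores Φ T f κ1 κ2 X J0 J V ct Aj lam z θ φ}
  {n : Ti X → ℕ} {hn : ∀ c, 0 < n c}
  {v0 v1 : ∀ c, Φ.F ⊕ Mo → VxK T (slC hLa hC n hn).K c} {u : Ti X → Φ.F ⊕ Mo → E3 → ℝ}
  {A B : Ti X → Φ.F ⊕ Mo → ℝ}
  {Lx : ∀ c, Φ.F ⊕ Mo → Lev T (frontier ((slC hLa hC n hn).K c)) (JJ Φ L ⊕ Mo)}
  {Tw : Twrs ((slC hLa hC n hn).sh fr3) (slC hLa hC n hn).n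
    (outK (slC hLa hC n hn).hH (slC hLa hC n hn).dis sB r)} {l0' : E3 → JJ Φ L ⊕ Mo}

/-- 539's record with the numbers of record -/
abbrev BR (hLa : IsOpen La) (s : GSt (meshC T fr3)
      (Sum.map (fun j : JJ Φ L => j.1) (id : Mo → Mo))) (f : E3 → E3) (X : Set Φ.F)
    (J : Φ.F → Set ι) (θ : Φ.F → E3 → E3)
    (co : Mo → Ti X) (am : Mo → Φ.F) (Zm : Mo → Set Φ.F) (nb : Ti X → Φ.F ⊕ Mo → Prop)
    (v0 v1 : ∀ c, Φ.F ⊕ Mo → VxK T (KT T J X) c) (u : Ti X → Φ.F ⊕ Mo → E3 → ℝ)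
    (A B : Ti X → Φ.F ⊕ Mo → ℝ) (μ κ1 : ℝ) : Prop :=
  BRec hLa s f X J θ co am Zm nb v0 v1 u A B μ (Cn δ R * κ1) (μ / 8) (1 / 2)
    (1 / 2 - 5 * μ / 16) (1 + μ / 16) (5 * μ / 32) (3 * μ / 16)

section s2

variable (N : NumD δ κ0 R c0 κ2 μ κ1)
  (hRm : RmA Φ T f X J0 J V θ ρ1 ρ2 ρ3 ρ4 d)
  (D : DIn (slC hLa hC n hn).hH sB r Sf nb v0 v1 u A B)
  (lo : LevOut (Kc := (slC hLa hC n hn).K) sB nb u A B Lx)
  (tt : TwOut (slC hLa hC n hn) fr3 sB r v0 v1 Lx Tw)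
  (rec : BR hLa sB f X J θ co am Zm nb v0 v1 u A B μ κ1)
include N hRm D lo tt rec

/-- **the barrier points of `s2` are in their boxes** -/
theorem box_m (hga : ∀ w ∈ sB.P, ∀ m, sB.lab w = Sum.inr m →
      Ess5_95.ga Φ (co m).1 (f w) ≤ ρ3 (co m).1 + 15 * d (co m).1) (m : Mo)
    {w : E3} (hw : w ∈ (s2 (slC hLa hC n hn) fr3 Tw l0').P)
    (hwl : (s2 (slC hLa hC n hn) fr3 Tw l0').lab w = Sum.inr m)
    {p : T.RIdx (slC hLa hC n hn).HH} (hp : w ∈ P ((slC hLa hC n hn).T3.H p)) :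
    ∃ x ∈ P (T.H p.tile), BoxP Φ f (co m).1 (am m) (Zm m) (rout ρ3 d (co m).1)
      (3 * μ / 16 + Cn δ R * κ1) x := by
  have hb1 : (1 : ℝ) + μ / 16 ≤ 1 + μ / 16 := le_rfl
  refine Bse_344.box_s2 (co := fun m => (co m).1) (am := am) (Zm := Zm) (ρ := rout ρ3 d)
    (N := Nb Φ hLa (co m).1) (B := 3 * μ / 16) N.hδ N.hR N.cn1 D lo tt m (rec.mo m)
    (fun c h => by rw [(rec.nbm c m).1 h]) ?_ ?_ (fun e he => mem_Nb.2 he) ?_ ?_ ?_ le_rfl hw hwl hp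
  · intro c _ x hx
    have hr := hRm c.1 c.2
    have h1 : gau c.1.1 (Φ.B c.1).lo (f x) ≤ ρ3 c.1 := (hr.fr x hx).2
    show gau c.1.1 (Φ.B c.1).lo (f x) ≤ ρ3 c.1 + 16 * d c.1
    linarith [hr.d0]
  · intro w hw hl
    have hr := hRm (co m).1 (co m).2
    have h1 : gau (co m).1.1 (Φ.B (co m).1).lo (f w) ≤ ρ3 (co m).1 + 15 * d (co m).1 :=
      hga w hw m hl
    obtain ⟨h2, h3⟩ := rec.trm w hw m hl
    refine Bse_344.boxP_of_gm N.l0 ?_ h2 h3 (N.bx' hb1)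
    show gau (co m).1.1 (Φ.B (co m).1).lo (f w) ≤ ρ3 (co m).1 + 16 * d (co m).1
    linarith [hr.d0]
  · intro c h
    funext x
    rw [rec.um c m x, (rec.nbm c m).1 h]
  · intro c _
    rw [rec.Bm c m]
  · intro c h v hv
    by_contra hcon
    have hco := (rec.nbm c m).1 h
    obtain ⟨p', q', hM⟩ := rec.mo m
    rw [hco] at hM hcon
    have hN : ∀ e, (Pc Φ.F c.1 ∩ Pc Φ.F e).Nonempty → e ∈ Nb Φ hLa c.1 := fun e he => mem_Nb.2 he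
    have hB0 : B c (Sum.inr m) = 3 * μ / 16 := rec.Bm c m
    refine not_rgn_bar (κ := Ti X) (cf := Subtype.val) (J := fun c => J c.1)
      (J0 := fun c => J0 c.1) (V := fun c => V c.1) (θ := fun c => θ c.1)
      (φ := fun c => φ c.1) (k := c) (a := am m) (b' := Sum.inr m) (N := Nb Φ hLa c.1)
      (Z := Zm m) hLa N.hδ N.hR N.hκ N.cn1
      (fun c => hC.tiny c.1 c.2) lo (rec.um c m) hM (mem_N_p hM hN) (mem_N_m hM hN) ?_
      (D.v0_lt c (Sum.inr m) h) (D.v1_gt c (Sum.inr m) h) N.l0 N.ra0 (hi := 1 + μ / 16)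
      (mm := 1 / 2) (by rw [hB0]; exact N.bB hb1) (by rw [hB0]; exact N.bB1) (N.m0 hb1)
      (N.m1 hb1) ?_ (not_le.1 hcon).le (Sum.inr m) hv
    · rw [hB0]
      exact (Bar_543.fs_ge_c hLa hM hN (t := 3 * μ / 16) (by linarith [N.hμ])
        (by linarith [N.hμb])).1
    · intro w hw hl _
      refine rec.trm w hw m ?_
      rcases hl' : sB.lab w with j | m'
      · rw [hl'] at hl; cases hl
      · rw [hl'] at hl
        have : m' = m := Sum.inr.inj hl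
        rw [this]

/-- **`PosM` of the barriers** -/
theorem posM_m (hga : ∀ w ∈ sB.P, ∀ m, sB.lab w = Sum.inr m →
      Ess5_95.ga Φ (co m).1 (f w) ≤ ρ3 (co m).1 + 15 * d (co m).1) (m : Mo) :
    Hdr_334.PosM (hH := (Lay_316.lay_sla hLa hC n hn).core)
      (hdis := (Lay_316.lay_sla hLa hC n hn).disj) T f J0
      (fun p : T.RIdx (slC hLa hC n hn).HH => p.tile) (s2 (slC hLa hC n hn) fr3 Tw l0')
      (Sum.inr m) (am m) (3 * μ / 16 + Cn δ R * κ1) :=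
  Bse_344.posM_s2 (co := fun m => (co m).1) (am := am) (Zm := Zm) (ρ := rout ρ3 d)
    fun w hw hwl p _ hp => box_m N hRm D lo tt rec hga m hw hwl hp

/-- **`BSep`** -/
theorem bsep_m (hF : Fine Φ T f κ1 J0)
    (hga : ∀ w ∈ sB.P, ∀ m, sB.lab w = Sum.inr m →
      Ess5_95.ga Φ (co m).1 (f w) ≤ ρ3 (co m).1 + 15 * d (co m).1)
    (hinj : ∀ m m', co m = co m' → am m = am m' → Zm m = Zm m' → m = m') :
    BSep (s2 (slC hLa hC n hn) fr3 Tw l0') am := by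
  refine Bse_344.bsep_s2 (co := fun m => (co m).1) (am := am) (Zm := Zm) (ρ := rout ρ3 d)
    (l := 3 * μ / 16 + Cn δ R * κ1) (fun _ _ h => h) hF ?_ N.bx (fun m => (co m).2) ?_ ?_
    fun w hw m hwl p _ hp => box_m N hRm D lo tt rec hga m hw hwl hp
  · refine ⟨fun c hc i hi => ?_⟩
    obtain ⟨x, hx, h⟩ := hi
    exact (hRm c hc).v i ⟨x, hx, h.trans (hRm c hc).r34⟩
  · intro m
    obtain ⟨p, q, hM⟩ := rec.mo m
    exact hM.aZ
  · intro m m' h1 h2 h3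
    exact hinj m m' (Subtype.ext h1) h2 h3

omit hRm in
/-- **(B) of the sheets of `s2`**, sharp margin -/
theorem pos_m (j : JJ Φ L) :
    Hdr_334.Pos (hH := (Lay_316.lay_sla hLa hC n hn).core)
      (hdis := (Lay_316.lay_sla hLa hC n hn).disj)
      T f J0 (fun p : T.RIdx (slC hLa hC n hn).HH => p.tile) (s2 (slC hLa hC n hn) fr3 Tw l0')
      (Sum.inl j) j.1 (μ / 2 - Cn δ R * κ1) :=
  Hdr_334.pos_s2 N.hδ N.hR N.hκ N.hμ N.half N.cn3 D lo tt (fun c a h => (rec.nbl c a).1 h) rec.ul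
    (fun c a => by rw [rec.Al c a]; exact N.wA) (fun c a => (rec.Bl c a).le) rec.v0l rec.v1l
    rec.trl j

omit D in
/-- **(E2) of `s2`** -/
theorem two_m {hI : InitR Φ T f g J0 ct' r₀}
    {hM : Mesh0 T (Pc Φ.F) (bc (F := Φ.F)) (RF Φ r₀) f (KorJ Φ J0) κ1} {h1 : κ1 < μ / 32}
    {h2 : κ1 < 1} (k : QK (Pc Φ.F)) (c : Ti X) (hc : c.1 ∈ k.Z) (j j' : JJ Φ L) (hj : j.1 ∈ k.B)
    (hj' : j'.1 ∈ k.B) (hjj : j.1 ≠ j'.1) :
    SkB_662.Two (s2 (slC hLa hC n hn) fr3 Tw l0')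
      ((qdT (fun p : T.RIdx (slC hLa hC n hn).HH => p.tile) (sla_sub (slC hLa hC n hn))
        (slC hLa hC n hn).KK hLa hI hM h1 h2).Act k) {Sum.inr c} (Sum.inl j) (Sum.inl j') :=
  Hdr_334.two_s2 (re := fun c : Ti X => rout ρ3 d c.1) N.hδ N.hR N.hμ N.half N.hκ.le N.ex1 N.ex2
    lo tt (fun c a h3 h4 => (rec.nbl c a).2 ⟨h3, h4⟩) rec.ul
    (fun c a => by rw [rec.Al c a]; exact N.wA') (fun c a => (rec.Bl c a).le)
    (fun c x hx => by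
      have hr := hRm c.1 c.2
      have h1 : gau c.1.1 (Φ.B c.1).lo (f x) ≤ ρ3 c.1 := (hr.fr x hx).2
      show gau c.1.1 (Φ.B c.1).lo (f x) ≤ ρ3 c.1 + 16 * d c.1
      linarith [hr.d0])
    (fun c i ⟨x, hx, h⟩ => (hRm c.1 c.2).v i ⟨x, hx, h.trans (hRm c.1 c.2).r34⟩)
    k c hc j j' hj hj' hjj

end s2

/-- **the points near the tiny cores are in the zones** -/
theorem hU_m (hC : Cores Φ T f κ1 κ2 X J0 J V ct Aj lam z θ φ)
    (hRm : RmA Φ T f X J0 J V θ ρ1 ρ2 ρ3 ρ4 d) (S : Sla T (Ti X)) {UT : Set E3}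
    (hUT : ∀ w ∈ UT, ∃ (c : Ti X) (i : ι), w ∈ P (T.H i) ∧
      ∃ x ∈ P (T.H i), Ess5_95.ga Φ c.1 (f x) ≤ ρ3 c.1 + 15 * d c.1)
    (p : T.RIdx S.HH) (hpZ : ∀ c, p.tile ∉ Hdr_334.Zr T f (fun c : Ti X => rout ρ3 d c.1) c)
    (x : E3) (hx : x ∈ P (S.T3.H p)) : x ∉ UT := by
  intro hxU
  obtain ⟨c, i, hxi, y, hy, hg⟩ := hUT x hxU
  have hr := hRm c.1 c.2
  have hiV : i ∈ V c.1 := hr.v i ⟨y, hy, by linarith [hr.r34, hr.d0]⟩
  have hxt : x ∈ P (T.H p.tile) := Sla.P3_sub p hx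
  refine hpZ c ⟨x, hxt, ?_⟩
  have key : Ess5_95.ga Φ c.1 (f x) ≤ ρ3 c.1 + 16 * d c.1 := by
    by_cases h0 : i ∈ J0 c.1
    · have := hr.j0 x (mem_biUnion (x := i) h0 hxi)
      linarith [hr.r12, hr.r23, hr.d0]
    · have := (abs_le.1 (hr.osc i hiV h0 x hxi y hy).1).2
      linarith
  exact key

/-- **LEAF BC FOR THE MACHINE** : the state after CUT with its invariant; open: `TrOut`, `VIn`,
`Dich` (hypothesis `H`) -/
theorem leafBC_m [Nonempty (slC hLa hC n hn).T3.Cell] (N : NumD δ κ0 R c0 κ2 μ κ1)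
    (hF : Fine Φ T f κ1 J0) (hRm : RmA Φ T f X J0 J V θ ρ1 ρ2 ρ3 ρ4 d)
    {hI : InitR Φ T f g J0 ct' r₀}
    {hM : Mesh0 T (Pc Φ.F) (bc (F := Φ.F)) (RF Φ r₀) f (KorJ Φ J0) κ1} {h1 : κ1 < μ / 32}
    {h2 : κ1 < 1}
    (hnC : ∃ c, OutK (slC hLa hC n hn).T3 (slC hLa hC n hn).KK c)
    (hLn : ∀ a, (L a).Nonempty) (hLm : ∀ c, ∀ t ∈ L c, μ ≤ t ∧ t ≤ 1 - μ)
    (hext : Ext (st0 hG bp) sB)
    (D : DIn (slC hLa hC n hn).hH sB r Sf nb v0 v1 u A B)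
    (lo : LevOut (Kc := (slC hLa hC n hn).K) sB nb u A B Lx)
    (tt : TwOut (slC hLa hC n hn) fr3 sB r v0 v1 Lx Tw)
    (mon : Mon (slC hLa hC n hn) fr3 Lx Tw)
    (rec : BR hLa sB f X J θ co am Zm nb v0 v1 u A B μ κ1)
    (hga : ∀ w ∈ sB.P, ∀ m, sB.lab w = Sum.inr m →
      Ess5_95.ga Φ (co m).1 (f w) ≤ ρ3 (co m).1 + 15 * d (co m).1)
    (hinj : ∀ m m', co m = co m' → am m = am m' → Zm m = Zm m' → m = m')
    (hmf : ∀ a, {m | am m = a}.Finite)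
    (hrV : ∀ j : JJ Φ L, ∃ q, r (Sum.inl j) ∈ P (T.H q) ∧ ∀ c ∉ X, q ∉ V c)
    (hfin : ∀ F : C2 T, (sB.P ∩ F.On).Finite)
    (j0 : Φ.F → JJ Φ L) (hj0 : ∀ a, (j0 a).1 = a) {UT : Set E3}
    (hUT : ∀ w ∈ UT, ∃ (c : Ti X) (i : ι), w ∈ P (T.H i) ∧
      ∃ x ∈ P (T.H i), Ess5_95.ga Φ c.1 (f x) ≤ ρ3 c.1 + 15 * d c.1)
    {sd : Mo → E3 → Prop}
    (H : ∀ (hs : BSep (s2 (slC hLa hC n hn) fr3 Tw l0') am)
      (far : ∀ a, PN (fun j : JJ Φ L => j.1) am a → Set E3)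
      (t : ∀ a, St ((slC hLa hC n hn).mn fr3) (pcol (fun j : JJ Φ L => j.1) am a))
      (Ph : Φ.F → Finset E3) (s₃ : GSt ((slC hLa hC n hn).mn fr3) (fun j : JJ Φ L => j.1)),
      (∀ a, (prS (s2 (slC hLa hC n hn) fr3 Tw l0') hs hmf j0 hj0 a).Good
        (ActR (slC hLa hC n hn) (Rdc T f Xᶜ (rout ρ3 d))) (far a)) →
      (∀ a, ∀ i : PN (fun j : JJ Φ L => j.1) am a, ∀ j, i.1 = Sum.inl j →
        r (Sum.inl j) ∈ far a i) →
      (∀ a i F w, w ∈ far a i →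
        (prS (s2 (slC hLa hC n hn) fr3 Tw l0') hs hmf j0 hj0 a).At F w →
        OKp (prS (s2 (slC hLa hC n hn) fr3 Tw l0') hs hmf j0 hj0 a)
          (ActR (slC hLa hC n hn) (Rdc T f Xᶜ (rout ρ3 d))) F w →
          (s2 (slC hLa hC n hn) fr3 Tw l0').mu F w ∈ far a i) →
      CutR (s2 (slC hLa hC n hn) fr3 Tw l0') hs hmf j0 hj0
        (fun _ => ActR (slC hLa hC n hn) (Rdc T f Xᶜ (rout ρ3 d))) far t Ph s₃ →
      PosS (hH := (Lay_316.lay_sla hLa hC n hn).core) Φ T f (μ / 4) J0 (slC hLa hC n hn) s₃ →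
      TrOut (hH := (Lay_316.lay_sla hLa hC n hn).core) (hdis := Sla.dis_KK)
        (qdT (fun p : T.RIdx (slC hLa hC n hn).HH => p.tile) (sla_sub (slC hLa hC n hn))
          (slC hLa hC n hn).KK hLa hI hM h1 h2) s₃ (fun j => r (Sum.inl j)) UT ∧
      VIn (hH := (Lay_316.lay_sla hLa hC n hn).core) (hdis := Sla.dis_KK)
        (qdT (fun p : T.RIdx (slC hLa hC n hn).HH => p.tile) (sla_sub (slC hLa hC n hn))
          (slC hLa hC n hn).KK hLa hI hM h1 h2) s₃ (fun j => r (Sum.inl j)) am sd ∧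
      Dich (hH := (Lay_316.lay_sla hLa hC n hn).core) (hdis := Sla.dis_KK)
        (qdT (fun p : T.RIdx (slC hLa hC n hn).HH => p.tile) (sla_sub (slC hLa hC n hn))
          (slC hLa hC n hn).KK hLa hI hM h1 h2) s₃ UT am sd) :
    ∃ (s₃ : GSt ((slC hLa hC n hn).mn fr3) (fun j : JJ Φ L => j.1)) (far₃ : JJ Φ L → Set E3),
      CutOut (s2 (slC hLa hC n hn) fr3 Tw l0') am
        (fun _ => ActR (slC hLa hC n hn) (Rdc T f Xᶜ (rout ρ3 d))) s₃ ∧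
      s₃.Inv (qdT (fun p : T.RIdx (slC hLa hC n hn).HH => p.tile) (sla_sub (slC hLa hC n hn))
        (slC hLa hC n hn).KK hLa hI hM h1 h2) far₃ ∧
      PosS (hH := (Lay_316.lay_sla hLa hC n hn).core) Φ T f (μ / 4) J0 (slC hLa hC n hn) s₃ ∧
      (∀ (c : Ti X) (j : JJ Φ L),
        SkB_662.One s₃ {F | Sum.inr c ∈ ((slC hLa hC n hn).mn fr3).side F} j) ∧
      ∀ (k : Init_543.QK (Pc Φ.F)) (c : Ti X), c.1 ∈ k.Z → ∀ j j' : JJ Φ L, j.1 ∈ k.B →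
        j'.1 ∈ k.B → j.1 ≠ j'.1 →
        SkB_662.Two s₃ ((qdT (fun p : T.RIdx (slC hLa hC n hn).HH => p.tile)
          (sla_sub (slC hLa hC n hn)) (slC hLa hC n hn).KK hLa hI hM h1 h2).Act k)
          {Sum.inr c} j j' := by
  have hcF : Countable Φ.F := Φ.bf.countable.to_subtype
  have hnF : Nonempty Φ.F := ⟨(Classical.arbitrary (JJ Φ L)).1⟩
  obtain ⟨n1, n2, n3, n4, n5, -⟩ := N.base
  have hs : BSep (s2 (slC hLa hC n hn) fr3 Tw l0') am := bsep_m N hRm D lo tt rec hF hga hinj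
  have hgood := Sgo_298.good_m (hG := hG) (bp := bp) (co := co) (l0 := l0') hnC N.hδ N.hR hI hM h1
    h2 hRm hLn (fun c t ht => ⟨by linarith [(hLm c t ht).1], by linarith [(hLm c t ht).2]⟩)
    (Sgo_298.part_ext hext) D lo tt rec.nbm rec.nbl hrV hga (s' := μ / 2 - Cn δ R * κ1)
    (lm := 3 * μ / 16 + Cn δ R * κ1) (by linarith) (by linarith)
    (fun j => pos_m N D lo tt rec j) (fun m => posM_m N hRm D lo tt rec hga m)
    (fun k c hc j j' hj hj' hjj => two_m N hRm lo tt rec k c hc j j' hj hj' hjj) hs hmf j0 hj0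
  obtain ⟨far0, g1, g2, g3⟩ := hgood
  refine leafBC (S := slC hLa hC n hn) (Rt := Rdc T f Xᶜ (rout ρ3 d)) (s' := μ / 4) (sd := sd)
    (Lay_316.lay_sla hLa hC n hn).core hnC (by linarith) N.ss' hLn lo tt
    (fun c a h => (rec.nbl c a).1 h) hs hmf j0 hj0 (fun a => ⟨far0 a, g1 a, ?_, g3 a⟩)
    (fun _ _ _ => True) ?_
    (Sgo_298.zon_out hC hRm (slC hLa hC n hn) fun _ => rfl)
    (fun p _ hpZ x hx => hU_m hC hRm (slC hLa hC n hn) hUT p hpZ x hx) ?_ ?_ ?_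
  · rintro ⟨i, hi⟩ j hij
    have hij' : i = Sum.inl j := hij
    subst hij'
    have hja : j.1 = a := hi
    subst hja
    exact g2 j
  · intro far hgf
    obtain ⟨t, Ph, s₃, hcut⟩ := exists_cutR (S := slC hLa hC n hn) (l0 := l0') D lo tt hs hmf j0 hj0
      (fun _ => ActR (slC hLa hC n hn) (Rdc T f Xᶜ (rout ρ3 d))) far hgf hfin
    exact ⟨t, Ph, s₃, hcut, fun _ => trivial⟩
  · intro s₃ D3
    exact posB_S3 (σ₁ := 9 * μ / 32) hLa N.hδ N.hR N.hκ N.hμ N.half hC n hn D lo tt mon rec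
      (by linarith) (by linarith) N.cn3 N.sg1 N.ne.1
      (by have := N.rh (hi := 1 + μ / 16) le_rfl; linarith)
      (by have := N.rh (hi := 1 + μ / 16) le_rfl; linarith) (by linarith) N.l0 N.ra0
      (by linarith) (N.bB le_rfl) N.bv1 D3 fun _ _ => Sgo_298.inr_ActR
  · intro s₃ D3
    refine fun k c hc j j' hj hj' hjj => D3.two ?_ (two_m N hRm lo tt rec k c hc j j' hj hj' hjj)
    rintro F ⟨q, hq, hqc⟩
    have e : q = Sum.inr c := hqc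
    subst e
    exact ⟨⟨_, hq, Sgo_298.inr_ActR⟩, ⟨_, hq, Sgo_298.inr_ActR⟩⟩
  · intro far t Ph s₃ k1 k2 k3 k4 _ k6
    exact H hs far t Ph s₃ k1 k2 k3 k4 k6

end Crest.Agent.R096.Lbc_334
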