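import Crest.Agent.R096.Sde4_422
import Crest.Agent.R096.Lbc1_334

/-!
# R096 (row 96), DOORS, NE1, leaf G3 (helper112): the tiles of a barrier over `lev ≤ 7μ/16` carry no
sheet of the family of the barrier

`afree_out` : outside the cores; `afree_in` : the columns of the layers.
-/

set_option autoImplicit false
set_option linter.unusedSectionVars false
set_option linter.unusedVariables false
set_option linter.style.longLine false

open Set Topology Filter Metric Module Relation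
open scoped Classical

namespace Crest.Agent.R096.Afr_112

open Crest.Agent.R096.Msh_715 Crest.Agent.R096.Agl5_543 Crest.Agent.R096.St_147
  Crest.Agent.R096.Seq_213 Crest.Agent.R096.Door_501 Crest.Agent.R096.Sla_184
  Crest.Agent.R096.Twr_438 Crest.Agent.R096.Exa_560 Crest.Agent.R096.Ess3_95
  Crest.Agent.R096.Ess4_95 Crest.Agent.R096.Dfi_539 Crest.Agent.R096.Dfi_471
  Crest.Agent.R096.Ac_117 Crest.Agent.R096.Lm_117 Crest.Agent.R096.Cp_298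
  Crest.Agent.R096.Coh_184 Crest.Agent.R096.Gm_298 Crest.Agent.R096.Cpo_642
  Crest.Agent.R096.Gl_422 Crest.Agent.R096.Flb_422 Crest.Agent.R096.Sid_422
  Crest.Agent.R096.Vrt_422 Crest.Agent.R096.Dfo_539
open Crest.Agent.R096.Brk1_582 Crest.Agent.R096.Brk2_582 Crest.Agent.R096.Brk3_582
  Crest.Agent.R096.Brk5_582 Crest.Agent.R096.Bsp_628 Crest.Agent.R096.Init_543
  Crest.Agent.R096.Bar_106 Crest.Agent.R096.Dib_438 Crest.Agent.R096.Lam_847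
  Crest.Agent.R096.Ess5_95 Crest.Agent.R096.Bgf_4 Crest.Agent.R096.Ebr1_95
  Crest.Agent.R096.Ebr4_95 Crest.Agent.R096.Rop_441 Crest.Agent.R096.Nmd1_698
  Crest.Agent.R096.Lbc_334 Crest.Agent.R096.Lv4_471
open Crest.Agent.R096.Mbf_337 (sb KJ Tiny gau Cores Fine)
open Crest.Agent.R096.SkC1_961 (E3 FoamD Hom3)
open Crest.Agent.R096.Frn_337 (Ti)
open Crest.Agent.R096.Frs_662 (slC)
open Crest.Agent.R096.Ess7_95 (KT Sh)
open Crest.Agent.R096.Dff_539 (vS)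
open Crest.Agent.R096.Bmf_416 (coT)

variable {δ κ0 R c0 : ℝ} {La Om : Set E3} {ι : Type} {Φ : FoamD δ κ0 R c0 La} {T : Tiling Om ι}
  {f g : E3 → E3} {κ1 κ2 μ : ℝ} {X : Set Φ.F} {J0 J V : Φ.F → Set ι}
  {ct ct' : Φ.F → ι} {A : Φ.F → E3 ≃ᵃ[ℝ] E3} {lam : Φ.F → ℝ} {z : Φ.F → E3}
  {θ : Φ.F → E3 → E3} {φ : Φ.F → E3 → ℝ} {r₀ : Φ.F → ℝ}
  {L : Φ.F → Finset ℝ} [Nonempty (JJ Φ L)] {hG : GF Φ r₀ T f L} {bp : JJ Φ L → E3}
  {N' : BM Φ X → Set ℝ} {ρ1 ρ2 ρ3 ρ4 d : Φ.F → ℝ} {q₀ : BM Φ X → E3} {ε : BM Φ X → ℝ}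
  {bm : BM Φ X → E3} {hGB : GFB Φ r₀ T f L (lRc Φ X μ ρ1 ρ3 d) ε}
  {v0F v1F : ∀ c, Φ.F → VxK T (KT T J X) c} {v0B v1B : ∀ c, BM Φ X → VxK T (KT T J X) c}
  {hLa : IsOpen La} {hC : Cores Φ T f κ1 κ2 X J0 J V ct A lam z θ φ}
  {n : Ti X → ℕ} {hn : ∀ c, 0 < n c} {r : JJ Φ L ⊕ BM Φ X → E3}
  {Sf : JJ Φ L ⊕ BM Φ X → Set E3}
  {Lv : ∀ c, Φ.F ⊕ BM Φ X → Lev T (frontier ((slC hLa hC n hn).K c)) (JJ Φ L ⊕ BM Φ X)}
  {Tw : Twrs ((slC hLa hC n hn).sh fr3) (slC hLa hC n hn).n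
    (outK (slC hLa hC n hn).hH (slC hLa hC n hn).dis (stB hGB bp bm) r)}
  {l0' : E3 → JJ Φ L ⊕ BM Φ X}

section s2

variable (N : NumD δ κ0 R c0 κ2 μ κ1) (H : Hm f g Om La)
  (bar : BarOut Φ T f κ1 μ X J0 J V θ hG bp N' ρ1 ρ2 ρ3 ρ4 d q₀ ε bm hGB v0B v1B)
  (D : DIn (slC hLa hC n hn).hH (stB hGB bp bm) r Sf (nbA Φ X) (vS v0F v0B) (vS v1F v1B)
    (uA Φ hLa X θ) (AA Φ X μ κ1) (BA Φ X μ))
  (lo : LevOut (Kc := (slC hLa hC n hn).K) (stB hGB bp bm) (nbA Φ X) (uA Φ hLa X θ)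
    (AA Φ X μ κ1) (BA Φ X μ) Lv)
  (tt : TwOut (slC hLa hC n hn) fr3 (stB hGB bp bm) r (vS v0F v0B) (vS v1F v1B) Lv Tw)
  (rec : BR hLa (stB hGB bp bm) f X J θ coT BM.am BM.Zm (nbA Φ X) (vS v0F v0B) (vS v1F v1B)
    (uA Φ hLa X θ) (AA Φ X μ κ1) (BA Φ X μ) μ κ1)
include N bar rec

/-- a tile with a point of level `≤ 7μ/16` at the core of `m` : all levels `< μ/2 - Cn κ1` -/
theorem lev_tile (m : BM Φ X) {q : ι} {x : E3} (hx : x ∈ P (T.H q))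
    (h1 : ρ1 m.co ≤ ga Φ m.co (f x)) (h2 : ga Φ m.co (f x) ≤ ρ4 m.co)
    (ha : Φ.lev m.am (f x) ≤ 7 * μ / 16) {y : E3} (hy : y ∈ P (T.H q)) :
    Φ.lev m.am (f y) < μ / 2 - Cn δ R * κ1 := by
  obtain ⟨hd, hr⟩ := bar.rm m.co m.co_notMem
  have h3 := (abs_le.1 ((hr.tile_osc hx h1 h2 hy).2.2 m.am)).1
  obtain ⟨n1, n2, n3, n4, n5, -⟩ := N.base
  linarith

/-- a tile with a point of level `≥ 1 - 7μ/16` at the core of `m` : all levels
`> 1 - μ/2 + Cn κ1` -/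
theorem lev_tile' (m : BM Φ X) {q : ι} {x : E3} (hx : x ∈ P (T.H q))
    (h1 : ρ1 m.co ≤ ga Φ m.co (f x)) (h2 : ga Φ m.co (f x) ≤ ρ4 m.co)
    (ha : 1 - 7 * μ / 16 ≤ Φ.lev m.am (f x)) {y : E3} (hy : y ∈ P (T.H q)) :
    1 - μ / 2 + Cn δ R * κ1 < Φ.lev m.am (f y) := by
  obtain ⟨hd, hr⟩ := bar.rm m.co m.co_notMem
  have h3 := (abs_le.1 ((hr.tile_osc hx h1 h2 hy).2.2 m.am)).2
  obtain ⟨n1, n2, n3, n4, n5, -⟩ := N.base
  linarith

/-- **a-free, outside** : both ends -/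
theorem afree_pt (m : BM Φ X) {q : ι} {x : E3} (hx : x ∈ P (T.H q))
    (h1 : ρ1 m.co ≤ ga Φ m.co (f x)) (h2 : ga Φ m.co (f x) ≤ ρ4 m.co)
    (ha : Φ.lev m.am (f x) ≤ 7 * μ / 16 ∨ 1 - 7 * μ / 16 ≤ Φ.lev m.am (f x)) {y : E3}
    (hy : y ∈ (stB hGB bp bm).P) (hyq : y ∈ P (T.H q)) {i : JJ Φ L}
    (hl : (stB hGB bp bm).lab y = Sum.inl i) : i.1 ≠ m.am := by
  intro hi
  have h3 := rec.trl y hy i hl
  obtain ⟨n1, n2, n3, n4, n5, -⟩ := N.base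
  rw [hi] at h3
  rcases ha with ha | ha
  · have h4 := lev_tile N bar rec m hx h1 h2 ha hyq
    linarith [h3.1]
  · have h4 := lev_tile' N bar rec m hx h1 h2 ha hyq
    linarith [h3.2]

/-- **(i) a-free, outside** (778 #12223) -/
theorem afree_out (m : BM Φ X) {q : ι} {x : E3} (hx : x ∈ P (T.H q))
    (h1 : ρ1 m.co ≤ ga Φ m.co (f x)) (h2 : ga Φ m.co (f x) ≤ ρ4 m.co)
    (ha : Φ.lev m.am (f x) ≤ 7 * μ / 16 ∨ 1 - 7 * μ / 16 ≤ Φ.lev m.am (f x)) :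
    ∀ F : C2 T, q ∈ F.side fr3 → ∀ y ∈ (stB hGB bp bm).P, y ∈ F.On →
      ∀ i, (stB hGB bp bm).lab y = Sum.inl i → i.1 ≠ m.am := by
  intro F hq y hy hF i hl
  exact afree_pt N bar rec m hx h1 h2 ha hy (C2.sub_tile hq hF.1) hl

include D lo tt

/-- **(ii) a-free, the columns of the layers** (778 #12223) -/
theorem afree_in (m : BM Φ X) {q : ι} {x : E3} (hx : x ∈ P (T.H q))
    (h1 : ρ1 m.co ≤ ga Φ m.co (f x)) (h2 : ga Φ m.co (f x) ≤ ρ4 m.co)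
    (ha : Φ.lev m.am (f x) ≤ 7 * μ / 16 ∨ 1 - 7 * μ / 16 ≤ Φ.lev m.am (f x))
    (k : Ti X) (e : (slC hLa hC n hn).Ed k) (he : e.1.set ⊆ P (T.H q)) (j : ℕ) :
    (∀ j', ∀ w ∈ ((Tw.tw k (Sum.inl m.am)).pat j').P, w ∉ e.1.opn) ∧
      ∀ b, ((slC hLa hC n hn).sh fr3 k).en e b ∉ ((Tw.tw k (Sum.inl m.am)).mv j).Qv := by
  obtain ⟨n1, n2, n3, n4, n5, -⟩ := N.base
  constructor
  · intro j' w hw hwe
    have hwq : w ∈ P (T.H q) := he (e.1.opn_sub hwe)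
    rcases tt.fits k (Sum.inl m.am) j' w hw with h | h
    · obtain ⟨g1, g2, g3⟩ := trc_P h.1
      rcases hl : (stB hGB bp bm).lab w with i | m'
      · rw [hl] at g3
        exact afree_pt N bar rec m hx h1 h2 ha g1 hwq hl (Sum.inl.inj g3)
      · rw [hl] at g3; cases g3
    · obtain ⟨g1, g2⟩ := exa_lab (Lv k (Sum.inl m.am)) h.1
      have g4 := lo.win k (Sum.inl m.am) _ g1
      have hnb := (exa_nb lo h.1).1
      have hwf : w ∈ frontier ((slC hLa hC n hn).K k) := e.2.2 (e.1.opn_sub hwe)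
      have h5 := abs_le.1 (tiny_near hLa N.hδ N.hR N.cn1 (hC.tiny k.1 k.2) hwf m.am)
      have g5 : (Lv k (Sum.inl m.am)).u w = sb Φ (θ k.1 w) m.am := by rw [lo.u]; rfl
      have g6 : AA Φ X μ κ1 k (Sum.inl m.am) = 1 - μ + Cn δ R * κ1 := rfl
      have g7 : BA Φ X μ k (Sum.inl m.am) = 1 - μ / 2 := rfl
      rw [g6, g7] at g4
      rw [g5] at g2
      rcases ha with ha | ha
      · have h4 := lev_tile N bar rec m hx h1 h2 ha hwq
        linarith [g4.1, g4.2, h5.1, h5.2, N.hμb]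
      · have h4 := lev_tile' N bar rec m hx h1 h2 ha hwq
        linarith [g4.1, g4.2, h5.1, h5.2]
  · intro b hb
    have hnb := qv_nb D tt hb
    have hrg := tt.rgn k (Sum.inl m.am) j _ hb
    have h := tiny_rgnI (κ := Ti X) (cf := Subtype.val) (J := fun c => J c.1)
      (J0 := fun c => J0 c.1) (V := fun c => V c.1) (θ := fun c => θ c.1)
      (φ := fun c => φ c.1) (k := k) (a := m.am) (a' := Sum.inl m.am) hLa N.hδ N.hR N.hκ N.hμ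
      N.half N.cn3
      (fun c => hC.tiny c.1 c.2) lo (fun x => rfl) hnb.1
      (show μ / 2 ≤ 1 - μ + Cn δ R * κ1 from N.wA) (le_refl (1 - μ / 2))
      (rec.v0l k m.am hnb) (rec.v1l k m.am hnb)
      (fun w hw hl => by
        rcases hl' : (stB hGB bp bm).lab w with i | m'
        · rw [hl'] at hl
          have h6 := rec.trl w hw i hl'
          rw [show i.1 = m.am from Sum.inl.inj hl] at h6
          exact h6
        · rw [hl'] at hl; cases hl) hrg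
    have hq : (((slC hLa hC n hn).sh fr3 k).en e b).1 ∈ P (T.H q) :=
      he ((endK_iff e _).1 ⟨b, rfl⟩)
    rcases ha with ha | ha
    · have h4 := lev_tile N bar rec m hx h1 h2 ha hq
      linarith [h.2.2.1]
    · have h4 := lev_tile' N bar rec m hx h1 h2 ha hq
      linarith [h.2.2.2]

end s2

end Crest.Agent.R096.Afr_112
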