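import Crest.Agent.R096.Rop2_441

/-!
# R096 (row 96), ROPES (helper441), part 3: the far side of the cell `a`

* `rho a y`      : move the coordinate `a` to `1`;
* `Fa a c η`     : the points of the boundary of the cell `c` with `s_a ≥ 1 - η`; it is preconnected
                   as soon as `bd P_c \ P_a` is preconnected;
* `exists_far`   : two points with `s_a = 1` lie in a compact preconnected subset of `{s_a = 1}`;
* `exists_Af`    : two points of `Om` outside the cores with `va a = 1` lie in a compact preconnected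
                   set outside the interiors of the cores with `va a ≥ 1 - η - η0`.
-/

set_option autoImplicit false
set_option linter.unusedSectionVars false

open Set Relation

namespace Crest.Agent.R096.Rop_441

open Crest.Agent.R096.Brk1_582 Crest.Agent.R096.Brk2_582 Crest.Agent.R096.Init_543
  Crest.Agent.R096.Vb_965

section foam

variable {V : Type} [NormedAddCommGroup V] [NormedSpace ℝ V] [FiniteDimensional ℝ V]
variable {I : Type} {La : Set V} {P : I → Set V} {b : Set I → V} {N : ℕ}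

open Classical in
/-- raising one coordinate keeps the cube complex -/
theorem raise_mem_K {u : I → ℝ} (hu : u ∈ K P) {a : I} {r : ℝ} (h0 : 0 < u a) (h1 : u a ≤ r)
    (h2 : r ≤ 1) : Function.update u a r ∈ K P := by
  obtain ⟨k1, ⟨c, k2⟩, k3⟩ := hu
  have hc : c ≠ a := by
    rintro rfl; rw [k2] at h0; exact lt_irrefl _ h0
  refine ⟨fun e => ?_, ⟨c, by rw [Function.update_of_ne hc]; exact k2⟩, ?_⟩
  · by_cases he : e = a
    · subst he
      rw [Function.update_self]
      exact ⟨h0.le.trans h1, h2⟩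
    · rw [Function.update_of_ne he]; exact k1 e
  · refine k3.mono (fc_anti ?_)
    intro e (he : Function.update u a r e < 1)
    show u e < 1
    by_cases hea : e = a
    · subst hea
      rw [Function.update_self] at he
      exact h1.trans_lt he
    · rwa [Function.update_of_ne hea] at he

open Classical in
/-- the path raising the coordinate `a` -/
noncomputable def rs (P : I → Set V) (b : Set I → V) (a : I) (r : ℝ) (y : V) : V :=
  T b (Function.update (sc P b y) a r)

/-- the points of the boundary of the cell `c` which are far from the cell `a` -/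
def Fa (La : Set V) (P : I → Set V) (b : Set I → V) (a c : I) (η : ℝ) : Set V :=
  {g | g ∈ Lset La P b c 0 ∧ 1 - η ≤ sc P b g a}

variable (F : Foam La P b N)
include F

theorem pos_of_notMem {y : V} (hy : y ∈ La) {a : I} (h : y ∉ P a) : 0 < sc P b y a :=
  lt_of_le_of_ne (F.sc_nonneg hy a) fun h' => h ((F.sc_eq_zero hy).1 h'.symm)

theorem rs_spec {y : V} (hy : y ∈ La) {a : I} (ha : y ∉ P a) {r : ℝ} (h1 : sc P b y a ≤ r)
    (h2 : r ≤ 1) : rs P b a r y ∈ La ∧ sc P b (rs P b a r y) a = r ∧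
      (∀ e, e ≠ a → sc P b (rs P b a r y) e = sc P b y e) := by
  classical
  have hK := raise_mem_K (F.sc_mem_K hy) (pos_of_notMem F hy ha) h1 h2
  have hL := F.T_mem_La hK
  have hs : sc P b (rs P b a r y) = Function.update (sc P b y) a r := F.sc_T hK
  refine ⟨hL, by rw [hs, Function.update_self], fun e he => by rw [hs, Function.update_of_ne he]⟩

theorem rs_self {y : V} (hy : y ∈ La) {a : I} : rs P b a (sc P b y a) y = y := by
  classical
  unfold rs
  rw [Function.update_eq_self, F.T_sc hy]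

theorem rs_Lset {y : V} {a c : I} (hc : c ≠ a) (hy : y ∈ Lset La P b c 0) (ha : y ∉ P a) {r : ℝ}
    (h1 : sc P b y a ≤ r) (h2 : r ≤ 1) : rs P b a r y ∈ Lset La P b c 0 := by
  obtain ⟨hyL, hyc, c', hc', hyc'⟩ := hy
  obtain ⟨k1, k2, k3⟩ := rs_spec F hyL ha h1 h2
  have hca : c' ≠ a := by
    rintro rfl; exact ha hyc'
  refine ⟨k1, by rw [k3 c hc]; exact hyc, c', hc', ?_⟩
  rw [← F.sc_eq_zero k1, k3 c' hca]
  exact (F.sc_eq_zero hyL).2 hyc'

/-- the path from `y` to the level `1` -/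
theorem rs_path {y : V} (hy : y ∈ La) {a : I} (ha : y ∉ P a) :
    IsPreconnected ((fun r => rs P b a r y) '' Icc (sc P b y a) 1) := by
  classical
  refine isPreconnected_Icc.image _ ?_
  refine (continuousOn_T F).comp (f := fun r => Function.update (sc P b y) a r) ?_ fun r hr => ?_
  · exact ((continuous_const : Continuous fun _ : ℝ => sc P b y).update a
      continuous_id).continuousOn
  · exact raise_mem_K (F.sc_mem_K hy) (pos_of_notMem F hy ha) hr.1 hr.2

theorem continuousOn_rs (a : I) : ContinuousOn (rs P b a 1) (La \ P a) := by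
  classical
  refine (continuousOn_T F).comp (f := fun y => Function.update (sc P b y) a 1) ?_ fun y hy => ?_
  · have h1 : Continuous (fun u : I → ℝ => Function.update u a 1) :=
      continuous_id.update a continuous_const
    exact h1.comp_continuousOn ((continuousOn_sc F).mono sdiff_subset)
  · exact raise_mem_K (F.sc_mem_K hy.1) (pos_of_notMem F hy.1 hy.2) (F.sc_le_one hy.1 a) le_rfl

/-- **the far part of the boundary of a cell is connected** -/
theorem preconn_Fa {a c : I} (hc : c ≠ a) {η : ℝ} (hη0 : 0 ≤ η) (hη : η < 1)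
    (hS : IsPreconnected (Lset La P b c 0 \ P a)) : IsPreconnected (Fa La P b a c η) := by
  have hna : ∀ y ∈ Fa La P b a c η, y ∉ P a := by
    rintro y ⟨hy, h1⟩ hya
    rw [(F.sc_eq_zero hy.1).2 hya] at h1
    linarith
  have hsub : Lset La P b c 0 \ P a ⊆ La \ P a := fun y hy => ⟨hy.1.1, hy.2⟩
  have hB : IsPreconnected (rs P b a 1 '' (Lset La P b c 0 \ P a)) :=
    hS.image _ ((continuousOn_rs F a).mono hsub)
  have hBsub : rs P b a 1 '' (Lset La P b c 0 \ P a) ⊆ Fa La P b a c η := by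
    rintro _ ⟨y, hy, rfl⟩
    refine ⟨rs_Lset F hc hy.1 hy.2 (F.sc_le_one hy.1.1 a) le_rfl, ?_⟩
    rw [(rs_spec F hy.1.1 hy.2 (F.sc_le_one hy.1.1 a) le_rfl).2.1]
    linarith
  rcases (Fa La P b a c η).eq_empty_or_nonempty with he | ⟨g₀, hg₀⟩
  · rw [he]; exact isPreconnected_empty
  refine isPreconnected_of_forall (rs P b a 1 g₀) fun y hy => ?_
  have hyL : y ∈ La := hy.1.1
  have hya := hna y hy
  have hle := F.sc_le_one hyL a
  refine ⟨rs P b a 1 '' (Lset La P b c 0 \ P a) ∪ (fun r => rs P b a r y) '' Icc (sc P b y a) 1,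
    union_subset hBsub ?_, Or.inl ⟨g₀, ⟨hg₀.1, hna g₀ hg₀⟩, rfl⟩,
    Or.inr ⟨sc P b y a, ⟨le_rfl, hle⟩, rs_self F hyL⟩, ?_⟩
  · rintro _ ⟨r, hr, rfl⟩
    refine ⟨rs_Lset F hc hy.1 hya hr.1 hr.2, ?_⟩
    show 1 - η ≤ sc P b (rs P b a r y) a
    rw [(rs_spec F hyL hya hr.1 hr.2).2.1]
    exact hy.2.trans hr.1
  · exact IsPreconnected.union (rs P b a 1 y) ⟨y, ⟨hy.1, hya⟩, rfl⟩ ⟨1, ⟨hle, le_rfl⟩, rfl⟩ hB
      (rs_path F hyL hya)

theorem isCompact_Fa (a c : I) (η : ℝ) : IsCompact (Fa La P b a c η) := by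
  have h0 : IsCompact (Lset La P b c 0) := isCompact_Lset F c le_rfl one_pos
  have h1 : Fa La P b a c η = Lset La P b c 0 ∩ (fun y => sc P b y a) ⁻¹' Ici (1 - η) := rfl
  rw [h1]
  exact h0.of_isClosed_subset (((continuousOn_sc_apply F a).mono
    fun y hy => hy.1).preimage_isClosed_of_isClosed h0.isClosed isClosed_Ici) inter_subset_left

/-- **two points with `s_a = 1` lie in a compact preconnected subset of `{s_a = 1}`** -/
theorem exists_far (hV : Module.finrank ℝ V = 3) (hLa : IsPreconnected La) {a : I} {y y' : V}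
    (hy : y ∈ La) (hy' : y' ∈ La) (h1 : sc P b y a = 1) (h1' : sc P b y' a = 1) :
    ∃ C : Set V, IsCompact C ∧ IsPreconnected C ∧ C ⊆ {z ∈ La | sc P b z a = 1} ∧ y ∈ C ∧ y' ∈ C := by
  -- a path in `La`
  have hcon : IsConnected La := ⟨⟨y, hy⟩, hLa⟩
  have hpc : IsPathConnected La := (F.op.isConnected_iff_isPathConnected).1 hcon
  obtain ⟨γ, hγ⟩ := hpc.joinedIn y hy y' hy'
  have hA : IsCompact (range γ) := isCompact_range γ.continuous
  have hAc : IsPreconnected (range γ) := isPreconnected_range γ.continuous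
  have hAL : range γ ⊆ La := by rintro _ ⟨t, rfl⟩; exact hγ t
  have hyA : y ∈ range γ := ⟨0, γ.source⟩
  have hyA' : y' ∈ range γ := ⟨1, γ.target⟩
  -- the neighbourhood of `P a`
  rcases (P a).eq_empty_or_nonempty with hPe | hPne
  · -- all of `La` is far
    have hall : ∀ z ∈ La, sc P b z a = 1 := by
      intro z hz
      by_contra hne
      have hlt : sc P b z a < 1 := lt_of_le_of_ne (F.sc_le_one hz a) hne
      obtain ⟨w, hw⟩ := F.sc_lt_one_fc hz
      have : w ∈ P a := mem_fc.1 hw a hlt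
      rw [hPe] at this
      exact this
    exact ⟨range γ, hA, hAc, fun z hz => ⟨hAL hz, hall z (hAL hz)⟩, hyA, hyA'⟩
  have hcl : ContinuousOn (fun z => sc P b z a) La := continuousOn_sc_apply F a
  let K : Unit → Set V := fun _ => {z | z ∈ La ∧ sc P b z a ≤ 1 / 2}
  let pat : Unit → Set V := fun _ => Lset La P b a (1 / 2)
  have hKc : IsClosed (K ()) := by
    have hfin : {d | (P d ∩ P a).Nonempty}.Finite := finite_touch F a
    have hU : IsCompact (⋃ d ∈ {d | (P d ∩ P a).Nonempty}, P d) :=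
      hfin.isCompact_biUnion fun d _ => F.cpt d
    have hUL : (⋃ d ∈ {d | (P d ∩ P a).Nonempty}, P d) ⊆ La := iUnion₂_subset fun d _ => F.sub d
    have e1 : K () = (⋃ d ∈ {d | (P d ∩ P a).Nonempty}, P d) ∩ (fun z => sc P b z a) ⁻¹' Iic (1 / 2) := by
      ext z
      constructor
      · rintro ⟨hz, hz2⟩
        refine ⟨?_, hz2⟩
        obtain ⟨d, hd⟩ := F.cov z hz
        obtain ⟨w, hw⟩ := F.sc_lt_one_fc hz
        refine mem_iUnion₂.2 ⟨d, ⟨w, mem_fc.1 hw d ?_, mem_fc.1 hw a ?_⟩, hd⟩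
        · show sc P b z d < 1
          rw [(F.sc_eq_zero hz).2 hd]; exact one_pos
        · show sc P b z a < 1
          linarith
      · rintro ⟨hz, hz2⟩
        exact ⟨hUL hz, hz2⟩
    rw [e1]
    exact (hcl.mono hUL).preimage_isClosed_of_isClosed hU.isClosed isClosed_Iic
  have hopen : IsOpen {z | z ∈ La ∧ sc P b z a < 1 / 2} := by
    have := hcl.isOpen_inter_preimage F.op (isOpen_Iio (a := (1 / 2 : ℝ)))
    exact this
  have hpat : (range γ ∩ K ()).Nonempty → (pat ()).Nonempty ∧ IsPreconnected (pat ()) := by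
    rintro ⟨z, hzA, hz, hz2⟩
    refine ⟨?_, isPreconnected_Lset F hV hPne (by norm_num) (by norm_num)⟩
    have h2 : Icc (sc P b z a) (sc P b y a) ⊆ (fun z => sc P b z a) '' range γ :=
      hAc.intermediate_value hzA hyA (hcl.mono hAL)
    obtain ⟨w, hw, hwe⟩ := h2 ⟨hz2, by rw [h1]; norm_num⟩
    exact ⟨w, mem_Lset_of_pos F (by norm_num) (hAL hw) hwe⟩
  have hfr : (range γ ∩ K ()) \ interior (K ()) ⊆ pat () := by
    rintro z ⟨⟨hzA, hz, hz2⟩, hzi⟩
    refine mem_Lset_of_pos F (by norm_num) hz (le_antisymm hz2 ?_)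
    by_contra hlt
    rw [not_le] at hlt
    exact hzi (mem_interior.2 ⟨{z | z ∈ La ∧ sc P b z a < 1 / 2}, fun w hw => ⟨hw.1, hw.2.le⟩,
      hopen, ⟨hz, hlt⟩⟩)
  have hC0 : IsPreconnected (det (range γ) K pat) :=
    detour hA hAc (fun _ => hKc) (fun c c' h => absurd (Subsingleton.elim c c') h)
      (Set.toFinite _) (fun _ h => hpat h) (fun _ => hfr)
  have hC0c : IsCompact (det (range γ) K pat) :=
    isCompact_det hA (Set.toFinite _) (fun _ _ => isCompact_Lset F a (by norm_num) (by norm_num))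
  have hsub : det (range γ) K pat ⊆ La \ P a := by
    rintro z (⟨hz, hzi⟩ | hz)
    · refine ⟨hAL hz, fun hza => hzi (mem_iUnion.2 ⟨(), mem_interior.2
        ⟨{z | z ∈ La ∧ sc P b z a < 1 / 2}, fun w hw => ⟨hw.1, hw.2.le⟩, hopen, hAL hz, ?_⟩⟩)⟩
      rw [(F.sc_eq_zero (hAL hz)).2 hza]; norm_num
    · obtain ⟨-, -, hz1, hz2, -⟩ := mem_iUnion₂.1 hz
      refine ⟨hz1, fun hza => ?_⟩
      rw [(F.sc_eq_zero hz1).2 hza] at hz2
      norm_num at hz2
  have hmem : ∀ z ∈ range γ, sc P b z a = 1 → z ∈ rs P b a 1 '' det (range γ) K pat := by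
    intro z hz hz1
    refine ⟨z, Or.inl ⟨hz, fun h => ?_⟩, ?_⟩
    · obtain ⟨_, hi⟩ := mem_iUnion.1 h
      have := (interior_subset hi).2
      rw [hz1] at this
      norm_num at this
    · have := rs_self F (hAL hz) (a := a)
      rwa [hz1] at this
  refine ⟨rs P b a 1 '' det (range γ) K pat,
    hC0c.image_of_continuousOn ((continuousOn_rs F a).mono hsub),
    hC0.image _ ((continuousOn_rs F a).mono hsub), ?_, hmem y hyA h1, hmem y' hyA' h1'⟩
  rintro _ ⟨z, hz, rfl⟩
  obtain ⟨k1, k2, -⟩ := rs_spec F (hsub hz).1 (hsub hz).2 (F.sc_le_one (hsub hz).1 a) le_rfl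
  exact ⟨k1, k2⟩

/-- **two points with `s_a ≥ 1 - θ` lie in a compact preconnected subset of `{s_a ≥ 1 - θ}`** -/
theorem exists_far' (hV : Module.finrank ℝ V = 3) (hLa : IsPreconnected La) {a : I} {y y' : V}
    {θ : ℝ} (hθ0 : 0 ≤ θ) (hθ : θ < 1) (hy : y ∈ La) (hy' : y' ∈ La) (h1 : 1 - θ ≤ sc P b y a)
    (h1' : 1 - θ ≤ sc P b y' a) :
    ∃ C : Set V, IsCompact C ∧ IsPreconnected C ∧ C ⊆ {z ∈ La | 1 - θ ≤ sc P b z a} ∧ y ∈ C ∧
      y' ∈ C := by
  classical
  have hn : ∀ z ∈ La, 1 - θ ≤ sc P b z a → z ∉ P a := by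
    intro z hz hz1 hza
    rw [(F.sc_eq_zero hz).2 hza] at hz1
    linarith
  have up : ∀ z ∈ La, 1 - θ ≤ sc P b z a → rs P b a 1 z ∈ La ∧ sc P b (rs P b a 1 z) a = 1 ∧
      IsCompact ((fun r => rs P b a r z) '' Icc (sc P b z a) 1) ∧
      IsPreconnected ((fun r => rs P b a r z) '' Icc (sc P b z a) 1) ∧
      (fun r => rs P b a r z) '' Icc (sc P b z a) 1 ⊆ {z ∈ La | 1 - θ ≤ sc P b z a} ∧
      z ∈ (fun r => rs P b a r z) '' Icc (sc P b z a) 1 ∧
      rs P b a 1 z ∈ (fun r => rs P b a r z) '' Icc (sc P b z a) 1 := by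
    intro z hz hz1
    have hza := hn z hz hz1
    have hle := F.sc_le_one hz a
    obtain ⟨k1, k2, -⟩ := rs_spec F hz hza hle le_rfl
    refine ⟨k1, k2, ?_, rs_path F hz hza, ?_, ⟨_, ⟨le_rfl, hle⟩, rs_self F hz⟩,
      ⟨1, ⟨hle, le_rfl⟩, rfl⟩⟩
    · refine isCompact_Icc.image_of_continuousOn ?_
      refine (continuousOn_T F).comp (f := fun r => Function.update (sc P b z) a r) ?_ fun r hr => ?_
      · exact ((continuous_const : Continuous fun _ : ℝ => sc P b z).update a
          continuous_id).continuousOn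
      · exact raise_mem_K (F.sc_mem_K hz) (pos_of_notMem F hz hza) hr.1 hr.2
    · rintro _ ⟨r, hr, rfl⟩
      obtain ⟨m1, m2, -⟩ := rs_spec F hz hza hr.1 hr.2
      exact ⟨m1, by rw [m2]; exact hz1.trans hr.1⟩
  obtain ⟨a1, a2, a3, a4, a5, a6, a7⟩ := up y hy h1
  obtain ⟨b1, b2, b3, b4, b5, b6, b7⟩ := up y' hy' h1'
  obtain ⟨C, c1, c2, c3, c4, c5⟩ := exists_far F hV hLa a1 b1 a2 b2
  refine ⟨((fun r => rs P b a r y) '' Icc (sc P b y a) 1 ∪ C) ∪
    (fun r => rs P b a r y') '' Icc (sc P b y' a) 1, (a3.union c1).union b3, ?_, ?_,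
    Or.inl (Or.inl a6), Or.inr b6⟩
  · exact IsPreconnected.union _ (Or.inr c5) b7 (IsPreconnected.union _ a7 c4 a4 c2) b4
  · refine union_subset (union_subset a5 ?_) b5
    intro z hz
    exact ⟨(c3 hz).1, by rw [(c3 hz).2]; linarith⟩

end foam

section az

variable {E V : Type} [NormedAddCommGroup E] [NormedSpace ℝ E] [FiniteDimensional ℝ E]
  [NormedAddCommGroup V] [NormedSpace ℝ V] [FiniteDimensional ℝ V]
variable {I : Type} {Om : Set E} {La : Set V} {P : I → Set V} {b : Set I → V} {N : ℕ}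
  {R : V → V} {f : E → V} {g : V → E}
variable {Kc : I → Set E} {th : I → E → V} {tau : I → V → E} {η0 η : ℝ}

theorem finite_cores' (H : Hm f g Om La) (F : Foam La P b N) (hC : CorT Om P b R f Kc th tau η0)
    {A : Set E} (hA : IsCompact A) (hAO : A ⊆ Om) : {c | (A ∩ Kc c).Nonempty}.Finite := by
  have h1 : IsCompact (f '' A) := hA.image_of_continuousOn (H.fc.mono hAO)
  have h2 : f '' A ⊆ La := by
    rintro _ ⟨x, hx, rfl⟩; exact H.fm (hAO hx)
  refine (F.finite_meet h1 h2).subset ?_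
  rintro c ⟨x, hx, hxc⟩
  exact ⟨f x, hC.cell c x hxc, mem_image_of_mem f hx⟩

/-- **two far points are joined outside the cores in the far region**; if `x` lies in a core, the
whole far part of its frontier is included -/
theorem exists_Af (H : Hm f g Om La) (F : Foam La P b N) (hR : Ret La P R)
    (hC : CorT Om P b R f Kc th tau η0) (hV : Module.finrank ℝ V = 3) {θ : ℝ} (hθ0 : 0 ≤ θ)
    (hη0 : 0 ≤ η0) (hη01 : θ + η0 ≤ η) (hη : η < 1) (hLa : IsPreconnected La) {a : I}
    (hS : ∀ c, c ≠ a → IsPreconnected (Lset La P b c 0 \ P a)) {x x' : E} (hx : x ∈ Om)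
    (hx1 : 1 - θ ≤ va P b R f a x) (hx' : x' ∈ Om)
    (hx1' : 1 - θ ≤ va P b R f a x') (hxi' : ∀ c, x' ∉ interior (Kc c)) :
    ∃ A : Set E, IsCompact A ∧ IsPreconnected A ∧ ((∀ c, x ∉ interior (Kc c)) → x ∈ A) ∧
      (∀ c, x ∈ Kc c → ∀ z ∈ frontier (Kc c), 1 - η + η0 ≤ va P b R f a z → z ∈ A) ∧ x' ∈ A ∧
      ∀ z ∈ A, z ∈ Om ∧ (∀ c, z ∉ interior (Kc c)) ∧ 1 - (η + η0) ≤ va P b R f a z := by
  have hyL := mem_La H F hR hx
  have hyL' := mem_La H F hR hx'
  have hθ : θ < 1 := by linarith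
  obtain ⟨C, hCc, hCp, hCs, hyC, hyC'⟩ := exists_far' F hV hLa hθ0 hθ hyL hyL' hx1 hx1'
  have hCL : C ⊆ La := fun z hz => (hCs hz).1
  set A0 : Set E := Om ∩ f ⁻¹' (rpre La R C) with hA0
  have hA0c : IsCompact A0 := H.isCompact_pre (fun y hy => hy.1) (hR.isCompact_pre F hCc hCL)
  have hA0p : IsPreconnected A0 := H.preconn_pre (fun y hy => hy.1) (hR.preconn_pre F hCc hCL hCp)
  have hA0s : A0 ⊆ Om := inter_subset_left
  have hval : ∀ z ∈ A0, 1 - θ ≤ va P b R f a z := fun z hz => (hCs hz.2.2).2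
  have hxA : x ∈ A0 := ⟨hx, H.fm hx, hyC⟩
  have hxA' : x' ∈ A0 := ⟨hx', H.fm hx', hyC'⟩
  have hca : ∀ c, (A0 ∩ Kc c).Nonempty → c ≠ a := by
    rintro c ⟨z, hz, hzc⟩ rfl
    have h1 : R (f z) ∈ P c := hR.cell c (hC.cell c z hzc)
    have h2 : va P b R f c z = 0 := (F.sc_eq_zero (mem_La H F hR hz.1)).2 h1
    have h4 := hval z hz
    rw [h2] at h4
    linarith
  have hFr : ∀ c, ∀ z ∈ A0, z ∈ frontier (Kc c) → th c z ∈ Fa La P b a c η := by
    intro c z hz hzf
    refine ⟨by rw [← frontier_cell F]; exact hC.thm c z hzf, ?_⟩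
    have h1 := hC.close c z hzf a
    have h2 := hval z hz
    rw [abs_le] at h1
    linarith [h1.1]
  have hfrc : ∀ c, ∀ z ∈ Kc c, z ∉ interior (Kc c) → z ∈ frontier (Kc c) := by
    intro c z hz hzi
    rw [(hC.cpt c).isClosed.frontier_eq]; exact ⟨hz, hzi⟩
  have htau : ∀ c, ContinuousOn (tau c) (Fa La P b a c η) := by
    intro c
    refine (hC.cont c).mono fun y hy => ?_
    rw [frontier_cell F]; exact hy.1
  have hfin := finite_cores' H F hC hA0c hA0s
  refine ⟨det A0 Kc (fun c => tau c '' Fa La P b a c η), ?_, ?_, ?_, ?_, ?_, ?_⟩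
  · exact isCompact_det hA0c hfin fun c _ => (isCompact_Fa F a c η).image_of_continuousOn (htau c)
  · refine detour hA0c hA0p (fun c => (hC.cpt c).isClosed) hC.disj hfin (fun c hc => ⟨?_, ?_⟩) ?_
    · -- a point of `A0` on the frontier of the core
      have : ∃ w ∈ A0, w ∈ frontier (Kc c) := by
        by_cases hxc : x' ∈ Kc c
        · exact ⟨x', hxA', hfrc c x' hxc (hxi' c)⟩
        · by_contra hno
          push Not at hno
          obtain ⟨z, hz, hzc⟩ := hc
          have hcov : A0 ⊆ interior (Kc c) ∪ (Kc c)ᶜ := by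
            intro w hw
            by_cases hwc : w ∈ Kc c
            · left
              by_contra hwi
              exact hno w hw (hfrc c w hwc hwi)
            · exact Or.inr hwc
          obtain ⟨w, -, hw1, hw2⟩ := hA0p (interior (Kc c)) (Kc c)ᶜ isOpen_interior
            (hC.cpt c).isClosed.isOpen_compl hcov
            ⟨z, hz, (hcov hz).resolve_right fun h => h hzc⟩ ⟨x', hxA', hxc⟩
          exact hw2 (interior_subset hw1)
      obtain ⟨w, hw, hwf⟩ := this
      exact ⟨_, _, hFr c w hw hwf, rfl⟩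
    · exact (preconn_Fa F (hca c hc) (by linarith) hη (hS c (hca c hc))).image _ (htau c)
    · rintro c z ⟨⟨hz, hzc⟩, hzi⟩
      have hzf := hfrc c z hzc hzi
      exact ⟨th c z, hFr c z hz hzf, hC.li c z hzf⟩
  · exact fun hxi => Or.inl ⟨hxA, fun h => by obtain ⟨c, hc⟩ := mem_iUnion.1 h; exact hxi c hc⟩
  · intro c hxc z hz h1
    refine Or.inr (mem_biUnion (show c ∈ {c | (A0 ∩ Kc c).Nonempty} from ⟨x, hxA, hxc⟩)
      ⟨th c z, ⟨by rw [← frontier_cell F]; exact hC.thm c z hz, ?_⟩, hC.li c z hz⟩)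
    have h2 := hC.close c z hz a
    rw [abs_le] at h2
    linarith [h2.1]
  · exact Or.inl ⟨hxA', fun h => by obtain ⟨c, hc⟩ := mem_iUnion.1 h; exact hxi' c hc⟩
  · rintro z (⟨hz, hzi⟩ | hz)
    · refine ⟨hz.1, fun c hc => hzi (mem_iUnion.2 ⟨c, hc⟩), ?_⟩
      have := hval z hz
      linarith
    · obtain ⟨c, -, y, ⟨hy1, hy2⟩, rfl⟩ := mem_iUnion₂.1 hz
      have hyf : y ∈ frontier (P c) := by rw [frontier_cell F]; exact hy1
      have hxf : tau c y ∈ frontier (Kc c) := hC.taum c hyf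
      have hxc : tau c y ∈ Kc c := (hC.cpt c).isClosed.frontier_subset hxf
      refine ⟨hC.sub c hxc, fun c' hc' => ?_, ?_⟩
      · by_cases hcc : c = c'
        · subst hcc
          exact hxf.2 hc'
        · exact Set.disjoint_left.1 (hC.disj c c' hcc) hxc (interior_subset hc')
      · have h1 := hC.close c _ hxf a
        rw [hC.ri c y hyf] at h1
        rw [abs_le] at h1
        linarith [h1.1, h1.2]

end az

end Crest.Agent.R096.Rop_441
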