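import Crest.Agent.R096.Nr2_527

/-!
# Row 96 (S0127), NEAR + PROPER, part 4 (helper527): adjacency, form independent of `Cores`

`adj_of2` : every point `x` of `Om` is of one of two kinds:
(i) `f x` in the open brick `c` and `G x ∈ P c` (all cores, exact or tiny, with everything inside them);
(ii) `x` in a tile `i` on which `Psi ∘ f` is defined and oscillates little (`FineAt`), and `G x` lies in
every brick which contains `Psi (f x0)`, for some `x0` of the same tile (= 441's `Ex` at `sc (Psi (f x0))`).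
-/

set_option autoImplicit false
set_option linter.unusedSectionVars false
set_option linter.style.haveILetI false

open Set Filter Topology Metric

namespace Crest.Agent.R096.Nr_527

open Crest.Agent.R096.Brk1_582 Crest.Agent.R096.Brk2_582 Crest.Agent.R096.Brk3_582
open Crest.Agent.R096.Brk4_582 Crest.Agent.R096.Brk5_582 Crest.Agent.R096.Bsp_628
open Crest.Agent.R096.SkC1_961 Crest.Agent.R096.Vb_965 Crest.Agent.R096.Msh_715
open Crest.Agent.R96.Push_899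

variable {δ κ0 R c0 : ℝ} {La Om : Set E3} {ι : Type}

/-- `f x` in the open brick: the only brick of `f x` -/
theorem open_only (Φ : FoamD δ κ0 R c0 La) (hLa : IsOpen La) {c : Φ.F} {y : E3}
    (h : ∀ k, c.1.lo k < y k ∧ y k < c.1.hi k) : y ∈ Pc Φ.F c ∧ ∀ c' : Φ.F, y ∈ Pc Φ.F c' → c' = c := by
  have h1 : y ∈ Pc Φ.F c := Bx.mem_set.2 fun k => ⟨(h k).1.le, (h k).2.le⟩
  refine ⟨h1, fun c' hc' => ?_⟩
  by_contra hne
  exact (wall_iff Φ hLa h1).1 ⟨c', hne, hc'⟩ h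

/-- a set on which the pushed map is defined and oscillates little relative to the bricks -/
structure FineAt (Φ : FoamD δ κ0 R c0 La) (f : E3 → E3) (ε : ℝ) (S : Set E3) : Prop where
  conn : IsPreconnected S
  hole : ∀ x ∈ S, ∀ c : Φ.F, f x ∉ (Φ.B c).S
  osc : ∀ x ∈ S, ∀ y ∈ S, ∀ c : Φ.F, Φ.Psi (f x) ∈ c.1.set →
    ‖Φ.Psi (f y) - Φ.Psi (f x)‖ ≤ ε * c.1.sz

variable {Φ : FoamD δ κ0 R c0 La} {f : E3 → E3}

/-- **fine sets** -/
theorem FineAt.touch {ε : ℝ} {S : Set E3} (h : FineAt Φ f ε S) (hLa : IsOpen La) (hδ : 0 < δ)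
    (hR : 0 < R) (hf : Hom3 f Om La) (hS : S ⊆ Om)
    (hε : Cs (Fintype.card (Fin 3)) δ R * R * ε < 1) {x x0 : E3} (hx : x ∈ S) (hx0 : x0 ∈ S)
    {c a : Φ.F} (hc : f x ∈ Pc Φ.F c) (ha : Φ.Psi (f x0) ∈ Pc Φ.F a) :
    (Pc Φ.F a ∩ Pc Φ.F c).Nonempty := by
  obtain ⟨fi, hm, -, -, -, hcf, -⟩ := hf
  have FF := foam Φ.bf hLa
  have hmem : ∀ y ∈ S, Φ.Psi (f y) ∈ La := by
    intro y hy
    obtain ⟨d, hd⟩ := FF.cov _ (hm (hS hy))
    exact FF.sub d (Psi_mem Φ hLa hd (h.hole y hy d))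
  have hcont : ContinuousOn (fun y => Φ.Psi (f y)) S :=
    (continuousOn_Psi Φ hLa).comp (hcf.mono hS) fun y hy => ⟨hm (hS hy), h.hole y hy⟩
  have hpx : Φ.Psi (f x) ∈ Pc Φ.F c := Psi_mem Φ hLa hc (h.hole x hx c)
  refine touch_of_conn Φ.bf hLa hδ hR Φ.cmp hε (S := (fun y => Φ.Psi (f y)) '' S)
    (h.conn.image _ hcont) (by rintro _ ⟨y, hy, rfl⟩; exact hmem y hy)
    ⟨_, ⟨x, hx, rfl⟩, hpx⟩ ?_ ⟨_, ⟨x0, hx0, rfl⟩, ha⟩
  rintro _ ⟨y, hy, rfl⟩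
  exact ⟨_, hpx, h.osc x hx y hy c hpx⟩

/-- **ADJACENCY, general form** -/
theorem adj_of2 (hLa : IsOpen La) (hδ : 0 < δ) (hR : 0 < R) (hf : Hom3 f Om La) {ε : ℝ}
    (hε : Cs (Fintype.card (Fin 3)) δ R * R * ε < 1) {G : E3 → E3}
    (hG : ∀ x ∈ Om, (∃ c : Φ.F, (∀ k, c.1.lo k < f x k ∧ f x k < c.1.hi k) ∧ G x ∈ Pc Φ.F c) ∨
      ∃ S : Set E3, S ⊆ Om ∧ FineAt Φ f ε S ∧ x ∈ S ∧ ∃ x0 ∈ S, ∀ a : Φ.F,
        Φ.Psi (f x0) ∈ Pc Φ.F a → G x ∈ Pc Φ.F a) : Adj Φ.F Om f G := by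
  intro x hx c hc
  rcases hG x hx with ⟨d, hfx, hGd⟩ | ⟨S, hSO, hS, hxS, x0, hx0, h0⟩
  · obtain ⟨h1, h2⟩ := open_only Φ hLa hfx
    refine ⟨d, hGd, ?_⟩
    rw [h2 c hc]
    exact ⟨_, h1, h1⟩
  · have hmap : f x0 ∈ La := by
      obtain ⟨fi, hm, -⟩ := hf
      exact hm (hSO hx0)
    obtain ⟨d, hd⟩ := (foam Φ.bf hLa).cov _ hmap
    have hpd : Φ.Psi (f x0) ∈ Pc Φ.F d := Psi_mem Φ hLa hd (hS.hole x0 hx0 d)
    exact ⟨d, h0 d hpd, hS.touch hLa hδ hR hf hSO hε hxS hx0 hc hpd⟩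

end Crest.Agent.R096.Nr_527
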