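import Crest.Agent.R096.Rop4_441
import Crest.Agent.R096.Nr4_527

/-!
# R096 (row 96), ROPES (helper441), part 5: the boundary of a brick minus another brick is connected
-/

set_option autoImplicit false
set_option linter.unusedSectionVars false

open Set Relation

namespace Crest.Agent.R096.Rop_441

section box

/-- the boundary of a box -/
def Bb (lo hi : Fin 3 → ℝ) : Set (Fin 3 → ℝ) :=
  {y | (∀ k, lo k ≤ y k ∧ y k ≤ hi k) ∧ ¬ ∀ k, lo k < y k ∧ y k < hi k}

/-- the closed box -/
def Cb (lo hi : Fin 3 → ℝ) : Set (Fin 3 → ℝ) := {y | ∀ k, lo k ≤ y k ∧ y k ≤ hi k}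

theorem mem_Bb_of {lo hi : Fin 3 → ℝ} {y : Fin 3 → ℝ} (h : ∀ k, lo k ≤ y k ∧ y k ≤ hi k) {k : Fin 3}
    (hk : y k = lo k ∨ y k = hi k) : y ∈ Bb lo hi := by
  refine ⟨h, fun h' => ?_⟩
  have := h' k
  rcases hk with hk | hk
  · rw [hk] at this; exact lt_irrefl _ this.1
  · rw [hk] at this; exact lt_irrefl _ this.2

theorem exists_coord {lo hi : Fin 3 → ℝ} {y : Fin 3 → ℝ} (h : y ∈ Bb lo hi) :
    ∃ k, y k = lo k ∨ y k = hi k := by
  obtain ⟨h1, h2⟩ := h
  push Not at h2
  obtain ⟨k, hk⟩ := h2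
  refine ⟨k, ?_⟩
  by_cases hl : lo k < y k
  · exact Or.inr (le_antisymm (h1 k).2 (hk hl))
  · exact Or.inl (le_antisymm (not_lt.1 hl) (h1 k).1)

/-- the line in the direction `k` -/
theorem preconn_line (y : Fin 3 → ℝ) (k : Fin 3) (p q : ℝ) :
    IsPreconnected ((fun t : ℝ => Function.update y k t) '' uIcc p q) :=
  (isPreconnected_uIcc).image _ ((continuous_const : Continuous fun _ : ℝ => y).update k
    continuous_id).continuousOn

theorem box_up {lo hi lo' hi' : Fin 3 → ℝ} (hlt : ∀ k, lo k < hi k) {k0 : Fin 3}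
    (hk0 : hi k0 ≤ lo' k0) : IsPreconnected (Bb lo hi \ Cb lo' hi') := by
  classical
  -- the opposite face
  set F0 : Set (Fin 3 → ℝ) := {y | (∀ k, lo k ≤ y k ∧ y k ≤ hi k) ∧ y k0 = lo k0} with hF0
  have hF0c : IsPreconnected F0 := by
    refine Convex.isPreconnected ?_
    intro x hx y hy a b ha hb hab
    refine ⟨fun k => ?_, ?_⟩
    · have h1 := hx.1 k
      have h2 := hy.1 k
      show lo k ≤ a * x k + b * y k ∧ a * x k + b * y k ≤ hi k
      constructor
      · have e : lo k = a * lo k + b * lo k := by rw [← add_mul, hab, one_mul]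
        have g1 := mul_le_mul_of_nonneg_left h1.1 ha
        have g2 := mul_le_mul_of_nonneg_left h2.1 hb
        linarith
      · have e : hi k = a * hi k + b * hi k := by rw [← add_mul, hab, one_mul]
        have g1 := mul_le_mul_of_nonneg_left h1.2 ha
        have g2 := mul_le_mul_of_nonneg_left h2.2 hb
        linarith
    · show a * x k0 + b * y k0 = lo k0
      rw [hx.2, hy.2, ← add_mul, hab, one_mul]
  have hout : ∀ y : Fin 3 → ℝ, y k0 < hi k0 → y ∉ Cb lo' hi' := by
    intro y hy h
    have := (h k0).1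
    linarith
  have hF0s : F0 ⊆ Bb lo hi \ Cb lo' hi' := fun y hy =>
    ⟨mem_Bb_of hy.1 (k := k0) (Or.inl hy.2), hout y (by rw [hy.2]; exact hlt k0)⟩
  have hloF : lo ∈ F0 := ⟨fun k => ⟨le_rfl, (hlt k).le⟩, rfl⟩
  -- going down from a point of a side face
  have down : ∀ y : Fin 3 → ℝ, (∀ k, lo k ≤ y k ∧ y k ≤ hi k) → ∀ k, k ≠ k0 →
      (y k = lo k ∨ y k = hi k) → (∀ t ∈ Icc (lo k0) (y k0), Function.update y k0 t ∉ Cb lo' hi') →
      ∃ S : Set (Fin 3 → ℝ), S ⊆ Bb lo hi \ Cb lo' hi' ∧ lo ∈ S ∧ y ∈ S ∧ IsPreconnected S := by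
    intro y hy k hk hyk hav
    have hle : lo k0 ≤ y k0 := (hy k0).1
    refine ⟨F0 ∪ (fun t : ℝ => Function.update y k0 t) '' uIcc (lo k0) (y k0),
      union_subset hF0s ?_, Or.inl hloF, Or.inr ⟨y k0, right_mem_uIcc, Function.update_eq_self _ _⟩,
      ?_⟩
    · rintro _ ⟨t, ht, rfl⟩
      rw [uIcc_of_le hle] at ht
      refine ⟨mem_Bb_of (k := k) (fun l => ?_) ?_, hav t ht⟩
      · by_cases hl : l = k0
        · subst hl
          show lo l ≤ Function.update y l t l ∧ Function.update y l t l ≤ hi l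
          rw [Function.update_self]
          exact ⟨ht.1, ht.2.trans (hy l).2⟩
        · show lo l ≤ Function.update y k0 t l ∧ Function.update y k0 t l ≤ hi l
          rw [Function.update_of_ne hl]; exact hy l
      · show Function.update y k0 t k = lo k ∨ Function.update y k0 t k = hi k
        rw [Function.update_of_ne hk]; exact hyk
    · refine IsPreconnected.union (Function.update y k0 (lo k0)) ⟨fun l => ?_, ?_⟩
        ⟨lo k0, left_mem_uIcc, rfl⟩ hF0c (preconn_line y k0 _ _)
      · by_cases hl : l = k0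
        · subst hl
          rw [Function.update_self]
          exact ⟨le_rfl, (hlt l).le⟩
        · rw [Function.update_of_ne hl]; exact hy l
      · rw [Function.update_self]
  refine isPreconnected_of_forall lo fun y hy => ?_
  obtain ⟨hyB, hyC⟩ := hy
  obtain ⟨k, hk⟩ := exists_coord hyB
  by_cases htop : y k0 = hi k0
  · -- the top face
    have hex : ∃ k, k ≠ k0 ∧ ∃ e, (e = lo k ∨ e = hi k) ∧ ∀ h : Fin 3 → ℝ, h k0 ≤ hi k0 →
        h k ∈ uIcc (y k) e → h ∉ Cb lo' hi' := by
      by_cases hemp : hi k0 < lo' k0 ∨ hi' k0 < lo' k0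
      · obtain ⟨k, hk⟩ : ∃ k : Fin 3, k ≠ k0 := exists_ne k0
        refine ⟨k, hk, hi k, Or.inr rfl, fun h h0 _ hC => ?_⟩
        have := hC k0
        rcases hemp with h1 | h1 <;> linarith [this.1, this.2]
      · push Not at hemp
        have hne : ∃ k, y k < lo' k ∨ hi' k < y k := by
          by_contra hcon
          push Not at hcon
          exact hyC fun k => hcon k
        obtain ⟨k, hk⟩ := hne
        have hkk : k ≠ k0 := by
          rintro rfl
          rcases hk with h | h
          · rw [htop] at h; linarith [hemp.1]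
          · rw [htop] at h; linarith [hemp.2]
        rcases hk with h | h
        · refine ⟨k, hkk, lo k, Or.inl rfl, fun w _ hw hC => ?_⟩
          rw [uIcc_of_ge (hyB.1 k).1] at hw
          have := (hC k).1
          linarith [hw.2]
        · refine ⟨k, hkk, hi k, Or.inr rfl, fun w _ hw hC => ?_⟩
          rw [uIcc_of_le (hyB.1 k).2] at hw
          have := (hC k).2
          linarith [hw.1]
    obtain ⟨k, hkk, e, he, hav⟩ := hex
    have he' : lo k ≤ e ∧ e ≤ hi k := by
      rcases he with h | h <;> rw [h]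
      · exact ⟨le_rfl, (hlt k).le⟩
      · exact ⟨(hlt k).le, le_rfl⟩
    set y1 : Fin 3 → ℝ := Function.update y k e with hy1
    have hy1b : ∀ l, lo l ≤ y1 l ∧ y1 l ≤ hi l := by
      intro l
      by_cases hl : l = k
      · subst hl
        rw [hy1, Function.update_self]; exact he'
      · rw [hy1, Function.update_of_ne hl]; exact hyB.1 l
    have hy1k : y1 k = e := by rw [hy1, Function.update_self]
    obtain ⟨S, hS1, hS2, hS3, hS4⟩ := down y1 hy1b k hkk (by rw [hy1k]; exact he) (by
      intro t ht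
      refine hav _ ?_ ?_
      · rw [Function.update_self]
        exact ht.2.trans (hy1b k0).2
      · rw [Function.update_of_ne hkk, hy1k]
        exact right_mem_uIcc)
    refine ⟨S ∪ (fun t : ℝ => Function.update y k t) '' uIcc (y k) e, union_subset hS1 ?_,
      Or.inl hS2, Or.inr ⟨y k, left_mem_uIcc, Function.update_eq_self _ _⟩, ?_⟩
    · rintro _ ⟨t, ht, rfl⟩
      refine ⟨mem_Bb_of (k := k0) (fun l => ?_) ?_, hav _ ?_ ?_⟩
      · by_cases hl : l = k
        · subst hl
          show lo l ≤ Function.update y l t l ∧ Function.update y l t l ≤ hi l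
          rw [Function.update_self]
          have h1 : lo l ≤ min (y l) e := le_min (hyB.1 l).1 he'.1
          have h2 : max (y l) e ≤ hi l := max_le (hyB.1 l).2 he'.2
          exact ⟨h1.trans ht.1, ht.2.trans h2⟩
        · show lo l ≤ Function.update y k t l ∧ Function.update y k t l ≤ hi l
          rw [Function.update_of_ne hl]; exact hyB.1 l
      · right
        show Function.update y k t k0 = hi k0
        rw [Function.update_of_ne hkk.symm]; exact htop
      · show Function.update y k t k0 ≤ hi k0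
        rw [Function.update_of_ne hkk.symm, htop]
      · show Function.update y k t k ∈ uIcc (y k) e
        rw [Function.update_self]; exact ht
    · exact IsPreconnected.union y1 hS3 ⟨e, right_mem_uIcc, rfl⟩ hS4 (preconn_line y k _ _)
  · -- below the top face
    have hlt0 : y k0 < hi k0 := lt_of_le_of_ne (hyB.1 k0).2 htop
    by_cases hkk : k = k0
    · -- bottom face
      subst hkk
      have hy0 : y ∈ F0 := ⟨hyB.1, by
        rcases hk with h | h
        · exact h
        · exact absurd h htop⟩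
      exact ⟨F0, hF0s, hloF, hy0, hF0c⟩
    · exact down y hyB.1 k hkk hk (fun t ht => hout _ (by
        rw [Function.update_self]; exact ht.2.trans_lt hlt0))

theorem box_down {lo hi lo' hi' : Fin 3 → ℝ} (hlt : ∀ k, lo k < hi k) {k0 : Fin 3}
    (hk0 : hi' k0 ≤ lo k0) : IsPreconnected (Bb lo hi \ Cb lo' hi') := by
  have h := box_up (lo := fun k => - hi k) (hi := fun k => - lo k) (lo' := fun k => - hi' k)
    (hi' := fun k => - lo' k) (fun k => neg_lt_neg (hlt k)) (k0 := k0) (neg_le_neg hk0)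
  have h2 := h.image (fun y : Fin 3 → ℝ => -y) continuous_neg.continuousOn
  have e1 : (fun y : Fin 3 → ℝ => -y) '' (Bb (fun k => - hi k) (fun k => - lo k) \
      Cb (fun k => - hi' k) (fun k => - lo' k)) = Bb lo hi \ Cb lo' hi' := by
    ext y
    constructor
    · rintro ⟨x, ⟨⟨h1, h2⟩, h3⟩, rfl⟩
      refine ⟨⟨fun k => ?_, fun h4 => h2 fun k => ?_⟩, fun h4 => h3 fun k => ?_⟩
      · have := h1 k
        show lo k ≤ - x k ∧ - x k ≤ hi k
        constructor <;> linarith [this.1, this.2]
      · have h5 : lo k < - x k ∧ - x k < hi k := h4 k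
        constructor <;> linarith [h5.1, h5.2]
      · have h5 : lo' k ≤ - x k ∧ - x k ≤ hi' k := h4 k
        constructor <;> linarith [h5.1, h5.2]
    · rintro ⟨⟨h1, h2⟩, h3⟩
      refine ⟨-y, ⟨⟨fun k => ?_, fun h4 => h2 fun k => ?_⟩, fun h4 => h3 fun k => ?_⟩, neg_neg y⟩
      · have := h1 k
        show - hi k ≤ - y k ∧ - y k ≤ - lo k
        constructor <;> linarith [this.1, this.2]
      · have h5 : - hi k < - y k ∧ - y k < - lo k := h4 k
        constructor <;> linarith [h5.1, h5.2]
      · have h5 : - hi' k ≤ - y k ∧ - y k ≤ - lo' k := h4 k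
        constructor <;> linarith [h5.1, h5.2]
  rwa [e1] at h2

end box

section foam

open Crest.Agent.R096.Brk1_582 Crest.Agent.R096.Brk2_582 Crest.Agent.R096.Brk3_582
  Crest.Agent.R096.Brk5_582 Crest.Agent.R096.Bsp_628
open Crest.Agent.R096.SkC1_961 (E3 FoamD)

/-- **`hS` for the foams of the machine** -/
theorem preconn_brick {δ κ0 R c0 : ℝ} {La : Set E3} (Φ : FoamD δ κ0 R c0 La) (hLa : IsOpen La)
    {a c : Φ.F} (hca : c ≠ a) :
    IsPreconnected (Lset La (Pc Φ.F) (bc (F := Φ.F)) c 0 \ Pc Φ.F a) := by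
  have hF := Brk3_582.foam Φ.bf hLa
  have e1 : Lset La (Pc Φ.F) (bc (F := Φ.F)) c 0 = Bb c.1.lo c.1.hi := by
    rw [Lset_zero hF]
    ext y
    constructor
    · rintro ⟨h1, h2⟩
      exact ⟨Bx.mem_set.1 h1, (Vb_965.wall_iff Φ hLa h1).1 h2⟩
    · rintro ⟨h1, h2⟩
      have h3 : y ∈ c.1.set := Bx.mem_set.2 h1
      exact ⟨h3, (Vb_965.wall_iff Φ hLa h3).2 h2⟩
  have e2 : Pc Φ.F a = Cb a.1.lo a.1.hi := by
    ext y
    exact Bx.mem_set
  have hpos := Φ.bf.pos c.1 c.2
  have hpos' := Φ.bf.pos a.1 a.2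
  have hsep : ∃ k, c.1.hi k ≤ a.1.lo k ∨ a.1.hi k ≤ c.1.lo k := by
    by_contra hcon
    push Not at hcon
    -- a common interior point
    set y : E3 := fun k => (max (c.1.lo k) (a.1.lo k) + min (c.1.hi k) (a.1.hi k)) / 2 with hy
    have hlt : ∀ k, max (c.1.lo k) (a.1.lo k) < min (c.1.hi k) (a.1.hi k) := fun k =>
      max_lt (lt_min (hpos k) (hcon k).2) (lt_min (hcon k).1 (hpos' k))
    have h1 : ∀ k, c.1.lo k < y k ∧ y k < c.1.hi k := by
      intro k
      have h2 := hlt k
      have h3 := le_max_left (c.1.lo k) (a.1.lo k)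
      have h4 := min_le_left (c.1.hi k) (a.1.hi k)
      show c.1.lo k < (max (c.1.lo k) (a.1.lo k) + min (c.1.hi k) (a.1.hi k)) / 2 ∧
        (max (c.1.lo k) (a.1.lo k) + min (c.1.hi k) (a.1.hi k)) / 2 < c.1.hi k
      constructor <;> linarith
    have h1' : y ∈ Pc Φ.F a := by
      rw [e2]
      intro k
      have h2 := hlt k
      have h3 := le_max_right (c.1.lo k) (a.1.lo k)
      have h4 := min_le_right (c.1.hi k) (a.1.hi k)
      show a.1.lo k ≤ (max (c.1.lo k) (a.1.lo k) + min (c.1.hi k) (a.1.hi k)) / 2 ∧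
        (max (c.1.lo k) (a.1.lo k) + min (c.1.hi k) (a.1.hi k)) / 2 ≤ a.1.hi k
      constructor <;> linarith
    exact hca ((Nr_527.open_only Φ hLa h1).2 a h1').symm
  rw [e1, e2]
  obtain ⟨k, hk | hk⟩ := hsep
  · exact box_up hpos hk
  · exact box_down hpos hk

end foam

end Crest.Agent.R096.Rop_441
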