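import Crest.Agent.R096.Rgl1_527
import Crest.Agent.R096.Rop5_441
import Crest.Agent.R096.Rop3_441

/-!
# Row 96 (S0127), RGN-LOC (helper527), part 2: the tiny cores of `Mbf_337`

`lo_set`, `hi_set` : the sublevel and superlevel sets of `s_a ∘ θ` on the frontier of a tiny core
are compact and connected; `tiny_rgn` : every vertex of a move of the tower `(c, a)` satisfies
`μ/2 - Cn κ1 < lev a (f v) < 1 - μ/2 + Cn κ1`.
-/

set_option autoImplicit false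
set_option linter.unusedSectionVars false
set_option linter.unusedVariables false

open Set Module

namespace Crest.Agent.R096.Rgl_527

open Crest.Agent.R096.Msh_715 Crest.Agent.R096.Agl5_543
  Crest.Agent.R096.Seq_213 Crest.Agent.R096.St_147 Crest.Agent.R096.Door_501
  Crest.Agent.R096.Twr_438 Crest.Agent.R096.Exa_560
  Crest.Agent.R096.Ess3_95 Crest.Agent.R096.Ce_537 Crest.Agent.R096.Rop_441
open Crest.Agent.R096.Brk1_582 Crest.Agent.R096.Brk2_582 Crest.Agent.R096.Brk3_582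
  Crest.Agent.R096.Brk5_582 Crest.Agent.R096.Bsp_628 Crest.Agent.R096.Dfi_539
open Crest.Agent.R096.Mbf_337 (sb KJ Tiny)
open Crest.Agent.R096.SkC1_961 (E3 FoamD)

open scoped Classical

/-- the frontier of a core has finitely many edges -/
theorem finite_EdK {E : Type} [NormedAddCommGroup E] [NormedSpace ℝ E] [FiniteDimensional ℝ E]
    {Om : Set E} {ι : Type} {T : Tiling Om ι} {κ : Type} {Kc : κ → Set E}
    (hH : ∀ c, CoreH T (Kc c)) (c : κ) : Finite (EdK T Kc c) := by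
  have hS : IsCompact (frontier (Kc c)) := (hH c).cpt.of_isClosed_subset isClosed_frontier
    (hH c).cpt.isClosed.frontier_subset
  have h1 := (Tiling.cplx (T := T)).finite_meet hS (fr_Om hH c)
  have h2 : {e : T.Cell | e.dim = 1 ∧ e.set ⊆ frontier (Kc c)}.Finite := by
    refine h1.subset fun e he => ?_
    have hp : e.pt ∈ e.set := e.opn_sub (T.self_mem_oc _)
    exact ⟨e.pt, hp, he.2 hp⟩
  exact h2.to_subtype

variable {δ κ0 R c0 : ℝ} {La Om : Set E3} {ι : Type} {Φ : FoamD δ κ0 R c0 La} {T : Tiling Om ι}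
  {f : E3 → E3} {κ1 μ : ℝ}

section one

variable {c : Φ.F} {J0 J V : Set ι} {θ : E3 → E3} {φ : E3 → ℝ}

theorem pre_eq (H : Tiny Φ T f κ1 c J0 J V θ φ) :
    ∃ e : PLEquiv (frontier (KJ T J)) (frontier c.1.set),
      (∀ x ∈ frontier (KJ T J), e.f x = θ x) ∧
      ∀ Y : Set E3, Y ⊆ frontier c.1.set → {x | x ∈ frontier (KJ T J) ∧ θ x ∈ Y} = e.g '' Y := by
  obtain ⟨e, he⟩ := H.bij
  refine ⟨e, he, fun Y hY => ?_⟩
  ext x
  constructor
  · rintro ⟨hx, hxY⟩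
    exact ⟨θ x, hxY, by rw [← he x hx]; exact e.li x hx⟩
  · rintro ⟨q, hq, rfl⟩
    have h1 : e.g q ∈ frontier (KJ T J) := e.mg (hY hq)
    refine ⟨h1, ?_⟩
    rw [← he _ h1, e.ri q (hY hq)]
    exact hq

theorem brick_ne (Φ : FoamD δ κ0 R c0 La) (c : Φ.F) : (Pc Φ.F c).Nonempty := by
  have hpos : ∀ k, c.1.lo k < c.1.hi k := Φ.bf.pos _ c.2
  exact ⟨c.1.lo, (⟨le_rfl, fun k => (hpos k).le⟩ : c.1.lo ∈ c.1.set)⟩

/-- **the low part of the frontier of a tiny core is connected** -/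
theorem lo_set (hLa : IsOpen La) (H : Tiny Φ T f κ1 c J0 J V θ φ) (a : Φ.F) {t : ℝ}
    (h0 : 0 ≤ t) (h1 : t < 1) :
    IsCompact {x | x ∈ frontier (KJ T J) ∧ sb Φ (θ x) a ≤ t} ∧
      IsPreconnected {x | x ∈ frontier (KJ T J) ∧ sb Φ (θ x) a ≤ t} := by
  have F := foam Φ.bf hLa
  obtain ⟨e, he, heq⟩ := pre_eq H
  have hN : Nb La (Pc Φ.F) (bc (F := Φ.F)) {a} c t ⊆ frontier c.1.set := by
    intro g hg
    have h := hg.1
    rw [← Vb_965.frontier_cell F c] at h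
    exact h
  have hset : {x | x ∈ frontier (KJ T J) ∧ sb Φ (θ x) a ≤ t} =
      e.g '' Nb La (Pc Φ.F) (bc (F := Φ.F)) {a} c t := by
    rw [← heq _ hN]
    ext x
    constructor
    · rintro ⟨hx, h⟩
      refine ⟨hx, ?_, fun a' ha' => by rw [mem_singleton_iff.1 ha']; exact h⟩
      rw [← Vb_965.frontier_cell F c]
      exact th_mem H hx
    · rintro ⟨hx, h⟩
      exact ⟨hx, h.2 a rfl⟩
  rw [hset]
  have hc : ContinuousOn e.g (Nb La (Pc Φ.F) (bc (F := Φ.F)) {a} c t) := e.pg.1.mono hN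
  exact ⟨(isCompact_Nb F c {a} t).image_of_continuousOn hc,
    (preconn_Nb F (by simp) (brick_ne Φ c) h0 h1 {a}).image _ hc⟩

/-- **the high part of the frontier of a tiny core is connected** -/
theorem hi_set (hLa : IsOpen La) (H : Tiny Φ T f κ1 c J0 J V θ φ) {a : Φ.F} (hac : a ≠ c) {t : ℝ}
    (h0 : 0 < t) (h1 : t ≤ 1) :
    IsCompact {x | x ∈ frontier (KJ T J) ∧ t ≤ sb Φ (θ x) a} ∧
      IsPreconnected {x | x ∈ frontier (KJ T J) ∧ t ≤ sb Φ (θ x) a} := by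
  have F := foam Φ.bf hLa
  obtain ⟨e, he, heq⟩ := pre_eq H
  have hN : Fa La (Pc Φ.F) (bc (F := Φ.F)) a c (1 - t) ⊆ frontier c.1.set := by
    intro g hg
    have h := hg.1
    rw [← Vb_965.frontier_cell F c] at h
    exact h
  have hset : {x | x ∈ frontier (KJ T J) ∧ t ≤ sb Φ (θ x) a} =
      e.g '' Fa La (Pc Φ.F) (bc (F := Φ.F)) a c (1 - t) := by
    rw [← heq _ hN]
    ext x
    constructor
    · rintro ⟨hx, h⟩
      refine ⟨hx, ?_, ?_⟩
      · rw [← Vb_965.frontier_cell F c]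
        exact th_mem H hx
      · show 1 - (1 - t) ≤ sc _ _ _ _
        rw [sub_sub_cancel]; exact h
    · rintro ⟨hx, h⟩
      refine ⟨hx, ?_⟩
      have h2 := h.2
      rw [sub_sub_cancel] at h2
      exact h2
  rw [hset]
  have hc : ContinuousOn e.g (Fa La (Pc Φ.F) (bc (F := Φ.F)) a c (1 - t)) := e.pg.1.mono hN
  exact ⟨(isCompact_Fa F a c (1 - t)).image_of_continuousOn hc,
    (preconn_Fa F hac.symm (by linarith) (by linarith) (preconn_brick Φ hLa hac.symm)).image _ hc⟩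

end one

section inst

variable {κ : Type} {cf : κ → Φ.F} {J0 J V : κ → Set ι} {θ : κ → E3 → E3} {φ : κ → E3 → ℝ}
variable {h3 : finrank ℝ E3 = 3} {hH : ∀ k, CoreH T (KJ T (J k))}
  {hdis : ∀ c c', c ≠ c' → Disjoint (KJ T (J c)) (KJ T (J c'))}
  {JJ : Type} {fam : JJ → Φ.F} [Nonempty JJ]

/-- **RGN-LOC for the tiny cores**: the vertices of the moves of the tower `(k, a)` -/
theorem tiny_rgn (hLa : IsOpen La) (hδ : 0 < δ) (hR : 0 < R) (hκ1 : 0 < κ1) (hμ0 : 0 < μ)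
    (hμ1 : μ ≤ 1 / 2) (hμ : (3 * Cn δ R + 1) * κ1 < μ / 2)
    (H : ∀ k, Tiny Φ T f κ1 (cf k) (J0 k) (J k) (V k) (θ k) (φ k))
    {s : GSt (meshC T h3) fam} {r : JJ → E3} {A B : κ → Φ.F → ℝ}
    {L : ∀ k, Φ.F → Lev T (frontier (KJ T (J k))) JJ}
    (LO : LevOut s (fun k a => a ∈ nbr Φ (cf k)) (fun k a x => sb Φ (θ k x) a) A B L)
    {v0 v1 : ∀ k, Φ.F → VxK T (fun k => KJ T (J k)) k} {k : κ} {a : Φ.F}
    (hA : μ / 2 ≤ A k a) (hB : B k a ≤ 1 - μ / 2)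
    (hv0 : a ∈ nbr Φ (cf k) → sb Φ (θ k (v0 k a).1) a ≤ μ / 2)
    (hv1 : a ∈ nbr Φ (cf k) → 1 - μ / 2 ≤ sb Φ (θ k (v1 k a).1) a)
    (htr : ∀ w ∈ s.P, w ∈ frontier (KJ T (J k)) →
      μ ≤ Φ.lev (fam (s.lab w)) (f w) ∧ Φ.lev (fam (s.lab w)) (f w) ≤ 1 - μ)
    {i : JJ} {v : VxK T (fun k => KJ T (J k)) k}
    (h : Rgn (shellH h3 hH hdis k) (v0 k a) (v1 k a) (trc hH hdis s r k a)
      (exa h3 hH hdis (L k a)) i v) :
    a ∈ nbr Φ (cf k) ∧ μ / 2 < sb Φ (θ k v.1) a ∧ sb Φ (θ k v.1) a < 1 - μ / 2 ∧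
      μ / 2 - Cn δ R * κ1 < Φ.lev a (f v.1) ∧ Φ.lev a (f v.1) < 1 - μ / 2 + Cn δ R * κ1 := by
  have := finite_EdK hH k
  have := Fintype.ofFinite (EdK T (fun k => KJ T (J k)) k)
  have hC := Cn_nonneg hδ hR
  have hCκ : 0 ≤ Cn δ R * κ1 := mul_nonneg hC hκ1.le
  have hκ : Cn δ R * κ1 < 1 := by nlinarith
  have hCμ : Cn δ R * κ1 < μ := by nlinarith
  have hpt : ∀ w ∈ (trc hH hdis s r k a).P, a ∈ nbr Φ (cf k) ∧
      μ - Cn δ R * κ1 ≤ sb Φ (θ k w) a ∧ sb Φ (θ k w) a ≤ 1 - μ + Cn δ R * κ1 := by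
    intro w hw
    obtain ⟨h1, h2, h4⟩ := trc_P hw
    obtain ⟨h5, h6⟩ := htr w h1 h2
    rw [h4] at h5 h6
    obtain ⟨g1, g2, g4⟩ := tiny_pt hLa hδ hR hκ hCμ (H k) h2 h5 h6
    exact ⟨g1, g4, g2⟩
  have hn : a ∈ nbr Φ (cf k) := by
    rcases h with ⟨w, hw, -⟩ | ⟨w, hw, -⟩
    · exact (hpt w hw).1
    · exact (hpt w hw).1
  have hosc : ∀ q : T.Cell, q.set ⊆ frontier (KJ T (J k)) → ∀ x ∈ q.set, ∀ y ∈ q.set,
      |sb Φ (θ k x) a - sb Φ (θ k y) a| ≤ (2 * Cn δ R + 1) * κ1 := by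
    intro q hq x hx y hy
    have hpq : q.pt ∈ q.set := q.opn_sub (T.self_mem_oc _)
    obtain ⟨F, hF, hpF⟩ := exists_face h3 hH (c := k) (hq hpq)
    have hsub : q.set ⊆ F.set := by
      rw [q.set_eq, F.set_eq]
      rw [F.set_eq] at hpF
      exact T.cc_sub_of_mem hpF
    exact tiny_osc hLa hδ hR hκ (H k) hF (hsub hx) (hsub hy) a
  have key := rgn_mid (h3 := h3) (hH := hH) (hdis := hdis) (c := k) (s := trc hH hdis s r k a)
    (fun w hw => (mem_trc.1 hw).2.2) (L := L k a) (u := fun x => sb Φ (θ k x) a) (LO.u k a)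
    (fun j hj => (LO.conn k a j hj).1) (lo := μ / 2) (hi := 1 - μ / 2)
    (ε := (2 * Cn δ R + 1) * κ1)
    (fun j hj => ⟨hA.trans_lt (LO.win k a j hj).1, (LO.win k a j hj).2.trans_le hB⟩)
    (hv0 hn) (hv1 hn) (lo_set hLa (H k) a (by linarith) (by linarith))
    (hi_set hLa (H k) hn.1 (by linarith) (by linarith)) hosc
    (fun w hw => by
      obtain ⟨-, g1, g2⟩ := hpt w hw
      constructor
      · show μ / 2 + _ < sb Φ (θ k w) a
        nlinarith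
      · show sb Φ (θ k w) a < _
        nlinarith) h
  have hnear := abs_le.1 (tiny_near hLa hδ hR hκ (H k) v.2.2 a)
  exact ⟨hn, key.1, key.2, by linarith [key.1, hnear.2], by linarith [key.2, hnear.1]⟩

end inst

end Crest.Agent.R096.Rgl_527
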