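import Crest.Agent.R096.Lv3_471
import Crest.Agent.R096.Dib1_438
import Crest.Agent.R096.Rgl2_527

/-!
# Row 96, DOORS (helper471): machine instances of the hypotheses `Pos` and `Reg` of `lev3`

* `tiny_rgnI` : RGN-LOC (527) at a tiny core for a family `a'` with coordinate `s_a` in a state with
  any names and families (machine families + barriers).
* `pos_tiny`  : `Pos` over 471's `sla`.
* `not_rgn_bar` : no vertex with `B ≤ Fs (sb (θ v))` is moved by the barrier.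
* `exists_vbar` : vertices with `s_a = 0` resp. `s_a = 1` (up to `(2 Cn + 1) κ1`) and `Fs` near `1`.
* `reg_tiny`  : `Reg` at a tiny core for a barrier.
-/

set_option autoImplicit false
set_option linter.unusedSectionVars false
set_option linter.unusedVariables false
set_option linter.style.longLine false

open Set Module
open scoped Classical

namespace Crest.Agent.R096.Lv4_471

open Crest.Agent.R096.Msh_715 Crest.Agent.R096.Agl5_543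
  Crest.Agent.R096.Seq_213 Crest.Agent.R096.St_147 Crest.Agent.R096.Door_501
  Crest.Agent.R096.Twr_438 Crest.Agent.R096.Exa_560
  Crest.Agent.R096.Ess3_95 Crest.Agent.R096.Ce_537 Crest.Agent.R096.Rop_441
  Crest.Agent.R096.Bar_106 Crest.Agent.R096.Dib_438 Crest.Agent.R096.Rgl_527
  Crest.Agent.R096.Lv3_471 Crest.Agent.R096.Dfi_471 Crest.Agent.R096.Slt_471
open Crest.Agent.R096.Brk1_582 Crest.Agent.R096.Brk2_582 Crest.Agent.R096.Brk3_582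
  Crest.Agent.R096.Brk5_582 Crest.Agent.R096.Bsp_628 Crest.Agent.R096.Dfi_539
open Crest.Agent.R096.Mbf_337 (sb KJ Tiny)
open Crest.Agent.R096.SkC1_961 (E3 FoamD)

variable {δ κ0 R c0 : ℝ} {La Om : Set E3} {ι : Type} {Φ : FoamD δ κ0 R c0 La} {T : Tiling Om ι}
  {f : E3 → E3} {κ1 μ : ℝ}

section inst

variable {κ : Type} {cf : κ → Φ.F} {J0 J V : κ → Set ι} {θ : κ → E3 → E3} {φ : κ → E3 → ℝ}
variable {h3 : finrank ℝ E3 = 3} {hH : ∀ k, CoreH T (KJ T (J k))}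
  {hdis : ∀ c c', c ≠ c' → Disjoint (KJ T (J c)) (KJ T (J c'))}
  {JJ C : Type} {fam : JJ → C} [Nonempty JJ]

/-- **RGN-LOC for the tiny cores**, any names: the family `a'` has the coordinate `s_a` -/
theorem tiny_rgnI (hLa : IsOpen La) (hδ : 0 < δ) (hR : 0 < R) (hκ1 : 0 < κ1) (hμ0 : 0 < μ)
    (hμ1 : μ ≤ 1 / 2) (hμ : (3 * Cn δ R + 1) * κ1 < μ / 2)
    (H : ∀ k, Tiny Φ T f κ1 (cf k) (J0 k) (J k) (V k) (θ k) (φ k))
    {s : GSt (meshC T h3) fam} {r : JJ → E3} {nb : κ → C → Prop} {u : κ → C → E3 → ℝ}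
    {A B : κ → C → ℝ} {L : ∀ k, C → Lev T (frontier (KJ T (J k))) JJ}
    (LO : LevOut s nb u A B L)
    {v0 v1 : ∀ k, C → VxK T (fun k => KJ T (J k)) k} {k : κ} {a : Φ.F} {a' : C}
    (hu : ∀ x, u k a' x = sb Φ (θ k x) a) (hn : a ≠ cf k)
    (hA : μ / 2 ≤ A k a') (hB : B k a' ≤ 1 - μ / 2)
    (hv0 : sb Φ (θ k (v0 k a').1) a ≤ μ / 2) (hv1 : 1 - μ / 2 ≤ sb Φ (θ k (v1 k a').1) a)
    (htr : ∀ w ∈ s.P, fam (s.lab w) = a' → μ ≤ Φ.lev a (f w) ∧ Φ.lev a (f w) ≤ 1 - μ)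
    {i : JJ} {v : VxK T (fun k => KJ T (J k)) k}
    (h : Rgn (shellH h3 hH hdis k) (v0 k a') (v1 k a') (trc hH hdis s r k a')
      (exa h3 hH hdis (L k a')) i v) :
    μ / 2 < sb Φ (θ k v.1) a ∧ sb Φ (θ k v.1) a < 1 - μ / 2 ∧
      μ / 2 - Cn δ R * κ1 < Φ.lev a (f v.1) ∧ Φ.lev a (f v.1) < 1 - μ / 2 + Cn δ R * κ1 := by
  have := finite_EdK hH k
  have := Fintype.ofFinite (EdK T (fun k => KJ T (J k)) k)
  have hC := Cn_nonneg hδ hR
  have hCκ : 0 ≤ Cn δ R * κ1 := mul_nonneg hC hκ1.le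
  have hκ : Cn δ R * κ1 < 1 := by nlinarith
  have hCμ : Cn δ R * κ1 < μ := by nlinarith
  have hpt : ∀ w ∈ (trc hH hdis s r k a').P,
      μ - Cn δ R * κ1 ≤ sb Φ (θ k w) a ∧ sb Φ (θ k w) a ≤ 1 - μ + Cn δ R * κ1 := by
    intro w hw
    obtain ⟨h1, h2, h4⟩ := trc_P hw
    obtain ⟨h5, h6⟩ := htr w h1 h4
    obtain ⟨-, g2, g4⟩ := tiny_pt hLa hδ hR hκ hCμ (H k) h2 h5 h6
    exact ⟨g4, g2⟩
  have hosc : ∀ q : T.Cell, q.set ⊆ frontier (KJ T (J k)) → ∀ x ∈ q.set, ∀ y ∈ q.set,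
      |sb Φ (θ k x) a - sb Φ (θ k y) a| ≤ (2 * Cn δ R + 1) * κ1 := by
    intro q hq x hx y hy
    have hpq : q.pt ∈ q.set := q.opn_sub (T.self_mem_oc _)
    obtain ⟨F, hF, hpF⟩ := exists_face h3 hH (c := k) (hq hpq)
    have hsub : q.set ⊆ F.set := by
      rw [q.set_eq, F.set_eq]
      rw [F.set_eq] at hpF
      exact T.cc_sub_of_mem hpF
    exact tiny_osc hLa hδ hR hκ (H k) hF (hsub hx) (hsub hy) a
  have hLu : (L k a').u = fun x => sb Φ (θ k x) a := by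
    rw [LO.u k a']
    funext x
    exact hu x
  have key := rgn_mid (h3 := h3) (hH := hH) (hdis := hdis) (c := k) (s := trc hH hdis s r k a')
    (fun w hw => (mem_trc.1 hw).2.2) (L := L k a') (u := fun x => sb Φ (θ k x) a) hLu
    (fun j hj => (LO.conn k a' j hj).1) (lo := μ / 2) (hi := 1 - μ / 2)
    (ε := (2 * Cn δ R + 1) * κ1)
    (fun j hj => ⟨hA.trans_lt (LO.win k a' j hj).1, (LO.win k a' j hj).2.trans_le hB⟩)
    hv0 hv1 (lo_set hLa (H k) a (by linarith) (by linarith))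
    (hi_set hLa (H k) hn (by linarith) (by linarith)) hosc
    (fun w hw => by
      obtain ⟨g1, g2⟩ := hpt w hw
      constructor
      · show μ / 2 + _ < sb Φ (θ k w) a
        nlinarith
      · show sb Φ (θ k w) a < _
        nlinarith) h
  have hnear := abs_le.1 (tiny_near hLa hδ hR hκ (H k) v.2.2 a)
  exact ⟨key.1, key.2, by linarith [key.1, hnear.2], by linarith [key.2, hnear.1]⟩

end inst

/-! ### the barriers -/

section fs

variable {c : Φ.F} {J0 J V : Set ι} {θ : E3 → E3} {φ : E3 → ℝ} {a p m : Φ.F} {Z : Set Φ.F}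
  {N : Finset Φ.F}

theorem continuousOn_fs (hLa : IsOpen La) (N : Finset Φ.F) (a : Φ.F) (Z : Set Φ.F) :
    ContinuousOn (fun q => Fs N a Z (sb Φ q)) La := by
  have FF := foam Φ.bf hLa
  unfold Fs
  refine continuousOn_finsetSum _ fun e _ => ?_
  have h := continuousOn_sc_apply FF e
  by_cases h1 : e = a
  · have : (fun q => dv a Z (sb Φ q) e) = fun _ => 0 := by
      funext q
      rw [h1]; exact dv_self
    rw [this]
    exact continuousOn_const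
  · by_cases h2 : e ∈ Z
    · have : (fun q => dv a Z (sb Φ q) e) = fun q => sb Φ q e := by
        funext q
        exact dv_in h1 h2
      rw [this]
      exact h
    · have : (fun q => dv a Z (sb Φ q) e) = fun q => 1 - sb Φ q e := by
        funext q
        exact dv_out h1 h2
      rw [this]
      exact continuousOn_const.sub h

theorem frontier_sub (hLa : IsOpen La) : frontier c.1.set ⊆ La := by
  have FF := foam Φ.bf hLa
  intro q hq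
  rw [frontier_c Φ hLa c] at hq
  exact FF.sub c hq.1

/-- the superlevel sets of a moat function on the sphere -/
theorem fs_hi_set (hLa : IsOpen La) (H : Tiny Φ T f κ1 c J0 J V θ φ) {t : ℝ}
    (hcon : IsPreconnected {q | q ∈ frontier c.1.set ∧ t ≤ Fs N a Z (sb Φ q)}) :
    IsCompact {x | x ∈ frontier (KJ T J) ∧ t ≤ Fs N a Z (sb Φ (θ x))} ∧
      IsPreconnected {x | x ∈ frontier (KJ T J) ∧ t ≤ Fs N a Z (sb Φ (θ x))} := by
  have FF := foam Φ.bf hLa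
  obtain ⟨e, he, heq⟩ := pre_eq H
  have hN : {q | q ∈ frontier c.1.set ∧ t ≤ Fs N a Z (sb Φ q)} ⊆ frontier c.1.set :=
    fun q hq => hq.1
  have hset : {x | x ∈ frontier (KJ T J) ∧ t ≤ Fs N a Z (sb Φ (θ x))} =
      e.g '' {q | q ∈ frontier c.1.set ∧ t ≤ Fs N a Z (sb Φ q)} := by
    rw [← heq _ hN]
    ext x
    constructor
    · rintro ⟨hx, h⟩
      exact ⟨hx, th_mem H hx, h⟩
    · rintro ⟨hx, h⟩
      exact ⟨hx, h.2⟩
  have hcpt : IsCompact {q | q ∈ frontier c.1.set ∧ t ≤ Fs N a Z (sb Φ q)} := by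
    have h1 : IsCompact (frontier c.1.set) :=
      (FF.cpt c).of_isClosed_subset isClosed_frontier (FF.cpt c).isClosed.frontier_subset
    exact h1.of_isClosed_subset (((continuousOn_fs hLa N a Z).mono
      (frontier_sub hLa)).preimage_isClosed_of_isClosed h1.isClosed isClosed_Ici) inter_subset_left
  rw [hset]
  have hc : ContinuousOn e.g {q | q ∈ frontier c.1.set ∧ t ≤ Fs N a Z (sb Φ q)} :=
    e.pg.1.mono hN
  exact ⟨hcpt.image_of_continuousOn hc, hcon.image _ hc⟩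

/-- **a vertex far from the axis**, with `s_a` near `t` (`t ∈ [0, 1]`) -/
theorem exists_vbar (hLa : IsOpen La) (hδ : 0 < δ) (hR : 0 < R) (hκ1 : 0 ≤ κ1)
    (hκ : (2 * Cn δ R + 1) * κ1 < 1)
    (H : Tiny Φ T f κ1 c J0 J V θ φ) (M : Mo (Pc Φ.F) c a Z p m)
    (hN : ∀ e, (Pc Φ.F c ∩ Pc Φ.F e).Nonempty → e ∈ N) {t : ℝ} (ht : t ∈ Icc (0 : ℝ) 1) :
    ∃ v ∈ frontier (KJ T J), T.dim v = 0 ∧ |sb Φ (θ v) a - t| ≤ (2 * Cn δ R + 1) * κ1 ∧
      1 - (2 * Cn δ R + 1) * κ1 ≤ Fs N a Z (sb Φ (θ v)) := by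
  have FF := foam Φ.bf hLa
  have hCn := Cn_nonneg hδ hR
  have hk : 0 ≤ Cn δ R * κ1 := mul_nonneg hCn hκ1
  have hx : (t, (1 : ℝ)) ∈ Rct := ⟨ht, ⟨by norm_num, by norm_num⟩⟩
  have hq := M.gam_mem FF hx
  rw [show (gam (bc (F := Φ.F)) a Z p m (t, 1) ∈ Pc Φ.F c ∧
    ∃ d, d ≠ c ∧ gam (bc (F := Φ.F)) a Z p m (t, 1) ∈ Pc Φ.F d) ↔
    gam (bc (F := Φ.F)) a Z p m (t, 1) ∈ frontier c.1.set from by
      rw [frontier_c Φ hLa c]; rfl] at hq
  obtain ⟨v, hv, hv0, hvn⟩ := tiny_vertex' hLa hδ hR (by linarith) H hq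
  have hsc := M.sc_gam FF hx
  have e1 : sb Φ (gam (bc (F := Φ.F)) a Z p m (t, 1)) a = t := by
    show sc _ _ _ a = _
    rw [hsc, uu_a]
  refine ⟨v, hv, hv0, ?_, ?_⟩
  · have := hvn a
    rwa [e1] at this
  have hFm := M.Fm_gam FF hx
  simp only [abs_one] at hFm
  have hθ := th_mem H hv
  have h2 := Fm_sub_le (a := a) (Z := Z) (u := sb Φ (θ v))
    (v := sb Φ (gam (bc (F := Φ.F)) a Z p m (t, 1))) (sb_mem hLa hθ) (sb_mem hLa hq) hvn
  have e2 : Fm a Z (sb Φ (gam (bc (F := Φ.F)) a Z p m (t, 1))) = 1 := hFm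
  rw [e2] at h2
  have h3 := (abs_le.1 h2).1
  have h4 := Fm_le_Fs (a := a) (Z := Z) (N := N) (u := sb Φ (θ v))
    (fun e he => dv_off hLa M hθ fun h => he (hN e h)) (sb_mem hLa hθ)
  linarith

theorem mem_N_p (M : Mo (Pc Φ.F) c a Z p m)
    (hN : ∀ e, (Pc Φ.F c ∩ Pc Φ.F e).Nonempty → e ∈ N) : p ∈ N := by
  obtain ⟨y, hy⟩ := M.fcp
  exact hN p ⟨y, mem_fc.1 hy c (Or.inl M.cZ), mem_fc.1 hy p (Or.inr (Or.inr rfl))⟩

theorem mem_N_m (M : Mo (Pc Φ.F) c a Z p m)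
    (hN : ∀ e, (Pc Φ.F c ∩ Pc Φ.F e).Nonempty → e ∈ N) : m ∈ N := by
  obtain ⟨y, hy⟩ := M.fcm
  exact hN m ⟨y, mem_fc.1 hy c (Or.inl M.cZ), mem_fc.1 hy m (Or.inr (Or.inr rfl))⟩

theorem mo_ac (M : Mo (Pc Φ.F) c a Z p m) : a ≠ c := fun h => M.aZ (h ▸ M.cZ)

end fs

section bar

variable {κ : Type} {cf : κ → Φ.F} {J0 J V : κ → Set ι} {θ : κ → E3 → E3} {φ : κ → E3 → ℝ}
variable {h3 : finrank ℝ E3 = 3} {hH : ∀ k, CoreH T (KJ T (J k))}
  {hdis : ∀ c c', c ≠ c' → Disjoint (KJ T (J c)) (KJ T (J c'))}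
  {JJ C : Type} {fam : JJ → C} [Nonempty JJ] {a p m : Φ.F} {Z : Set Φ.F} {N : Finset Φ.F}

/-- **the barrier does not move the vertices with `B ≤ Fs`** -/
theorem not_rgn_bar (hLa : IsOpen La) (hδ : 0 < δ) (hR : 0 < R) (hκ1 : 0 < κ1)
    (hκ : Cn δ R * κ1 < 1)
    (H : ∀ k, Tiny Φ T f κ1 (cf k) (J0 k) (J k) (V k) (θ k) (φ k))
    {s : GSt (meshC T h3) fam} {r : JJ → E3} {nb : κ → C → Prop} {u : κ → C → E3 → ℝ}
    {A B : κ → C → ℝ} {L : ∀ k, C → Lev T (frontier (KJ T (J k))) JJ}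
    (LO : LevOut s nb u A B L)
    {v0 v1 : ∀ k, C → VxK T (fun k => KJ T (J k)) k} {k : κ} {b' : C}
    (hu : ∀ x, u k b' x = Fs N a Z (sb Φ (θ k x)))
    (M : Mo (Pc Φ.F) (cf k) a Z p m) (hp : p ∈ N) (hm : m ∈ N)
    (hcon : IsPreconnected {q | q ∈ frontier (cf k).1.set ∧ B k b' ≤ Fs N a Z (sb Φ q)})
    (hv0 : u k b' (v0 k b').1 ≤ A k b') (hv1 : B k b' ≤ u k b' (v1 k b').1)
    {l0 mm ra hi : ℝ} (hl0 : 0 < l0) (hra : 0 < ra)
    (hB : l0 * hi + (3 * Cn δ R + 1) * κ1 < B k b') (hB1 : B k b' ≤ 1)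
    (h2 : 0 < mm - ra * hi - (3 * Cn δ R + 1) * κ1)
    (h4 : mm + ra * hi + (3 * Cn δ R + 1) * κ1 < 1)
    (htr : ∀ w ∈ s.P, fam (s.lab w) = b' → w ∈ frontier (KJ T (J k)) →
      (∀ e, 0 ≤ Φ.lev e (f w) ∧ Φ.lev e (f w) ≤ 1) ∧
      Gm l0 mm ra a Z (fun e => Φ.lev e (f w)) ≤ hi)
    {v : VxK T (fun k => KJ T (J k)) k} (hv : B k b' ≤ Fs N a Z (sb Φ (θ k v.1))) (i : JJ) :
    ¬ Rgn (shellH h3 hH hdis k) (v0 k b') (v1 k b') (trc hH hdis s r k b')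
      (exa h3 hH hdis (L k b')) i v := by
  have := finite_EdK hH k
  have := Fintype.ofFinite (EdK T (fun k => KJ T (J k)) k)
  have hC := Cn_nonneg hδ hR
  have hCκ : 0 ≤ Cn δ R * κ1 := mul_nonneg hC hκ1.le
  have hset := fs_hi_set (N := N) (a := a) (Z := Z) hLa (H k) hcon
  have hosc : ∀ q : T.Cell, q.set ⊆ frontier (KJ T (J k)) → ∀ x ∈ q.set, ∀ y ∈ q.set, ∀ e,
      |sb Φ (θ k x) e - sb Φ (θ k y) e| ≤ (2 * Cn δ R + 1) * κ1 := by
    intro q hq x hx y hy e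
    have hpq : q.pt ∈ q.set := q.opn_sub (T.self_mem_oc _)
    obtain ⟨F, hF, hpF⟩ := exists_face h3 hH (c := k) (hq hpq)
    have hsub : q.set ⊆ F.set := by
      rw [q.set_eq, F.set_eq]
      rw [F.set_eq] at hpF
      exact T.cc_sub_of_mem hpF
    exact tiny_osc hLa hδ hR hκ (H k) hF (hsub hx) (hsub hy) e
  refine not_rgn_hi (h3 := h3) (hH := hH) (hdis := hdis) (c := k)
    (s := trc hH hdis s r k b') (fun w hw => (mem_trc.1 hw).2.2) hset.1 hset.2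
    (fun x hx => hx.1) ?_ (v := v) ⟨(v1 k b').2.2, by rw [← hu]; exact hv1⟩ ⟨v.2.2, hv⟩ ?_ i
  · rintro w hw q hq hwq ⟨x, hxq, hxf, hx⟩
    obtain ⟨k1, k2, k4⟩ := trc_P hw
    obtain ⟨hlev, hG⟩ := htr w k1 k4 k2
    have hθ := th_mem (H k) k2
    have hθx := th_mem (H k) hxf
    have hn := fun e => tiny_near hLa hδ hR hκ (H k) k2 e
    have g1 : Fm a Z (fun e => Φ.lev e (f w)) ≤ l0 * hi := by
      have := (le_max_left _ _).trans hG
      rw [div_le_iff₀ hl0] at this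
      linarith
    have g2 : |Φ.lev a (f w) - mm| ≤ ra * hi := by
      have := (le_max_right _ _).trans hG
      rw [div_le_iff₀ hra] at this
      linarith
    have g3 := (abs_le.1 (Fm_sub_le (a := a) (Z := Z) (u := sb Φ (θ k w))
      (v := fun e => Φ.lev e (f w)) (sb_mem hLa hθ) hlev hn)).2
    have g4 := abs_le.1 g2
    have g5 := abs_le.1 (hn a)
    have g6 := (abs_le.1 (Fm_sub_le (a := a) (Z := Z) (u := sb Φ (θ k x))
      (v := sb Φ (θ k w)) (sb_mem hLa hθx) (sb_mem hLa hθ) (hosc q hq x hxq w hwq))).2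
    have g7 := abs_le.1 (hosc q hq x hxq w hwq a)
    have g8 : (3 * Cn δ R + 1) * κ1 = Cn δ R * κ1 + (2 * Cn δ R + 1) * κ1 := by ring
    rw [g8] at hB h2 h4
    rw [fs_eq_fm hLa M hp hm hθx (by linarith [g4.1, g5.1, g7.1]) (by linarith [g4.2, g5.2, g7.2])
      (by linarith)] at hx
    linarith
  · intro w hw
    obtain ⟨g1, g2⟩ := exa_lab (Kc := fun k => KJ T (J k)) (h3 := h3) (hH := hH) (hdis := hdis)
      (c := k) (L k b') hw
    have g4 := LO.win k b' _ g1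
    have e0 : (L k b').u (v0 k b').1 = u k b' (v0 k b').1 := by rw [LO.u]
    have e1 : (L k b').u v.1 = u k b' v.1 := by rw [LO.u]
    rw [exa_lbl (Kc := fun k => KJ T (J k)) (h3 := h3) (hH := hH) (hdis := hdis) (c := k)
      (L k b') g1 (LO.conn k b' _ g1).1 hw rfl (v0 k b') v
      (not_lt.2 (by rw [e0]; linarith [g4.1])),
      if_pos (by rw [e1, hu]; linarith [g4.2])]

end bar

section sla

variable {X : Set Φ.F} {J0 J V : Φ.F → Set ι} {θ : Φ.F → E3 → E3} {φ : Φ.F → E3 → ℝ}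
  {h3 : finrank ℝ E3 = 3} {JJ Mo : Type} {fam : JJ → Φ.F} [Nonempty (JJ ⊕ Mo)]
  {s : GSt (meshC T h3) (Sum.map fam (id : Mo → Mo))} {r : JJ ⊕ Mo → E3} {Sf : JJ ⊕ Mo → Set E3}

/-- **`Pos` for the machine** -/
theorem pos_tiny (hLa : IsOpen La) (hδ : 0 < δ) (hR : 0 < R) (hκ1 : 0 < κ1) (hμ0 : 0 < μ)
    (hμ1 : μ ≤ 1 / 2) (hμ : (3 * Cn δ R + 1) * κ1 < μ / 2)
    (H : ∀ c ∉ X, Tiny Φ T f κ1 c (J0 c) (J c) (V c) (θ c) (φ c))
    {n : {c : Φ.F // c ∉ X} → ℕ} {hn : ∀ c, 0 < n c}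
    {nb : {c : Φ.F // c ∉ X} → Φ.F ⊕ Mo → Prop}
    {v0 v1 : ∀ c, Φ.F ⊕ Mo → VxK T (sla hLa H n hn).K c}
    {u : {c : Φ.F // c ∉ X} → Φ.F ⊕ Mo → E3 → ℝ} {A B : {c : Φ.F // c ∉ X} → Φ.F ⊕ Mo → ℝ}
    {L : ∀ c, Φ.F ⊕ Mo → Lev T (frontier ((sla hLa H n hn).K c)) (JJ ⊕ Mo)}
    (LO : LevOut s nb u A B L) {am : Mo → Φ.F} {σ₁ : ℝ} (hσ : σ₁ + Cn δ R * κ1 ≤ μ / 2)
    (hnb : ∀ c a, nb c (Sum.inl a) → a ∈ nbr Φ c.1)
    (hu : ∀ c a x, u c (Sum.inl a) x = sb Φ (θ c.1 x) a)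
    (hA : ∀ c a, μ / 2 ≤ A c (Sum.inl a)) (hB : ∀ c a, B c (Sum.inl a) ≤ 1 - μ / 2)
    (hv0 : ∀ c a, nb c (Sum.inl a) → sb Φ (θ c.1 (v0 c (Sum.inl a)).1) a ≤ μ / 2)
    (hv1 : ∀ c a, nb c (Sum.inl a) → 1 - μ / 2 ≤ sb Φ (θ c.1 (v1 c (Sum.inl a)).1) a)
    (htr : ∀ w ∈ s.P, ∀ j, s.lab w = Sum.inl j →
      μ ≤ Φ.lev (fam j) (f w) ∧ Φ.lev (fam j) (f w) ≤ 1 - μ)
    (hbr : ∀ w ∈ s.P, ∀ m, s.lab w = Sum.inr m →
      σ₁ ≤ Φ.lev (am m) (f w) ∧ Φ.lev (am m) (f w) ≤ 1 - σ₁) :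
    Pos (S := sla hLa H n hn) s nb v0 v1 u A B L r (fun a x => Φ.lev a (f x)) am σ₁
      (Cn δ R * κ1) := by
  have hC := Cn_nonneg hδ hR
  have hCκ : 0 ≤ Cn δ R * κ1 := mul_nonneg hC hκ1.le
  have hκ : Cn δ R * κ1 < 1 := by nlinarith
  have htr' : ∀ w ∈ s.P, ∀ a, Sum.map fam (id : Mo → Mo) (s.lab w) = Sum.inl a →
      μ ≤ Φ.lev a (f w) ∧ Φ.lev a (f w) ≤ 1 - μ := by
    intro w hw a ha
    rcases hl : s.lab w with j | m
    · rw [hl] at ha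
      have : fam j = a := Sum.inl.inj ha
      rw [← this]
      exact htr w hw j hl
    · rw [hl] at ha
      cases ha
  exact
  { tr := fun w hw j hl => by
      obtain ⟨h1, h2⟩ := htr w hw j hl
      show σ₁ ≤ Φ.lev (fam j) (f w) ∧ Φ.lev (fam j) (f w) ≤ 1 - σ₁
      constructor <;> linarith
    br := hbr
    nr := fun c a hna x hx => by
      rw [hu]
      exact tiny_near hLa hδ hR hκ (H c.1 c.2) hx a
    win := fun c a _ => ⟨by linarith [hA c a], by linarith [hB c a]⟩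
    rg := fun c a hna i v hv => by
      have h := tiny_rgnI (κ := {c : Φ.F // c ∉ X}) (cf := Subtype.val) (J := fun c => J c.1)
        (J0 := fun c => J0 c.1) (V := fun c => V c.1) (θ := fun c => θ c.1)
        (φ := fun c => φ c.1) (k := c) (a := a) (a' := Sum.inl a) hLa hδ hR hκ1 hμ0 hμ1 hμ
        (fun c => H c.1 c.2) LO (hu c a) (hnb c a hna).1 (hA c a) (hB c a) (hv0 c a hna)
        (hv1 c a hna) (fun w hw hl => htr' w hw a hl) hv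
      show σ₁ ≤ Φ.lev a (f v.1) ∧ Φ.lev a (f v.1) ≤ 1 - σ₁
      exact ⟨by linarith [h.2.2.1], by linarith [h.2.2.2]⟩ }

/-- **`Reg` for the machine**: the tiny core `c`, the barrier `m` with moat `M` -/
theorem reg_tiny (hLa : IsOpen La) (hδ : 0 < δ) (hR : 0 < R) (hκ1 : 0 < κ1)
    (hκ : (2 * Cn δ R + 1) * κ1 < 1)
    (H : ∀ c ∉ X, Tiny Φ T f κ1 c (J0 c) (J c) (V c) (θ c) (φ c))
    {n : {c : Φ.F // c ∉ X} → ℕ} {hn : ∀ c, 0 < n c}
    {nb : {c : Φ.F // c ∉ X} → Φ.F ⊕ Mo → Prop}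
    {v0 v1 : ∀ c, Φ.F ⊕ Mo → VxK T (sla hLa H n hn).K c}
    {u : {c : Φ.F // c ∉ X} → Φ.F ⊕ Mo → E3 → ℝ} {A B : {c : Φ.F // c ∉ X} → Φ.F ⊕ Mo → ℝ}
    {L : ∀ c, Φ.F ⊕ Mo → Lev T (frontier ((sla hLa H n hn).K c)) (JJ ⊕ Mo)}
    (LO : LevOut s nb u A B L) {am : Mo → Φ.F} {c : {c : Φ.F // c ∉ X}} {m : Mo}
    {p q : Φ.F} {Z : Set Φ.F} {N : Finset Φ.F} (M : Bar_106.Mo (Pc Φ.F) c.1 (am m) Z p q)
    (hN : ∀ e, (Pc Φ.F c.1 ∩ Pc Φ.F e).Nonempty → e ∈ N)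
    (hu : ∀ x, u c (Sum.inr m) x = Fs N (am m) Z (sb Φ (θ c.1 x)))
    (hcon : IsPreconnected
      {y | y ∈ frontier c.1.1.set ∧ B c (Sum.inr m) ≤ Fs N (am m) Z (sb Φ y)})
    (hv0 : u c (Sum.inr m) (v0 c (Sum.inr m)).1 ≤ A c (Sum.inr m))
    (hv1 : B c (Sum.inr m) ≤ u c (Sum.inr m) (v1 c (Sum.inr m)).1)
    {l0 mm ra hi : ℝ} (hl0 : 0 < l0) (hra : 0 < ra)
    (hB : l0 * hi + (3 * Cn δ R + 1) * κ1 < B c (Sum.inr m))
    (hB1 : B c (Sum.inr m) ≤ 1 - (2 * Cn δ R + 1) * κ1)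
    (h2 : 0 < mm - ra * hi - (3 * Cn δ R + 1) * κ1)
    (h4 : mm + ra * hi + (3 * Cn δ R + 1) * κ1 < 1)
    (htr : ∀ w ∈ s.P, s.lab w = Sum.inr m → w ∈ frontier (KJ T (J c.1)) →
      (∀ e, 0 ≤ Φ.lev e (f w) ∧ Φ.lev e (f w) ≤ 1) ∧
      Gm l0 mm ra (am m) Z (fun e => Φ.lev e (f w)) ≤ hi)
    {t : ℝ} (ht : (2 * Cn δ R + 1) * κ1 ≤ t) (ht1 : t < 1) :
    Reg (S := sla hLa H n hn) s v0 v1 L r c m (fun x => sb Φ (θ c.1 x) (am m))
      (fun x => Φ.lev (am m) (f x)) t (Cn δ R * κ1) ((2 * Cn δ R + 1) * κ1) := by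
  have hC := Cn_nonneg hδ hR
  have hCκ : 0 ≤ Cn δ R * κ1 := mul_nonneg hC hκ1.le
  have hκ' : Cn δ R * κ1 < 1 := by nlinarith
  have ht0 : 0 < t := by nlinarith
  have hrgn : ∀ v : VxK T (sla hLa H n hn).K c,
      B c (Sum.inr m) ≤ Fs N (am m) Z (sb Φ (θ c.1 v.1)) → ∀ i,
      ¬ Rgn ((sla hLa H n hn).sh h3 c) (v0 c (Sum.inr m)) (v1 c (Sum.inr m))
        (trc (sla hLa H n hn).hH (sla hLa H n hn).dis s r c (Sum.inr m))
        (exa h3 (sla hLa H n hn).hH (sla hLa H n hn).dis (L c (Sum.inr m))) i v := by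
    intro v hv i
    exact not_rgn_bar (κ := {c : Φ.F // c ∉ X}) (cf := Subtype.val) (J := fun c => J c.1)
      (J0 := fun c => J0 c.1) (V := fun c => V c.1) (θ := fun c => θ c.1)
      (φ := fun c => φ c.1) (k := c) (a := am m) (b' := Sum.inr m) hLa hδ hR hκ1 hκ'
      (fun c => H c.1 c.2) LO hu M (mem_N_p M hN) (mem_N_m M hN) hcon hv0 hv1 hl0 hra hB
      (by linarith) h2 h4 (fun w hw hl => htr w hw (by
        rcases hl' : s.lab w with j | m'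
        · rw [hl'] at hl; cases hl
        · rw [hl'] at hl
          have : m' = m := Sum.inr.inj hl
          rw [this])) hv i
  exact
  { nr := fun x hx => tiny_near hLa hδ hR hκ' (H c.1 c.2) hx _
    osc := by
      intro q hq x hx y hy
      have hpq : q.pt ∈ q.set := q.opn_sub (T.self_mem_oc _)
      obtain ⟨F, hF, hpF⟩ := exists_face h3 (sla hLa H n hn).hH (c := c) (hq hpq)
      have hsub : q.set ⊆ F.set := by
        rw [q.set_eq, F.set_eq]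
        rw [F.set_eq] at hpF
        exact T.cc_sub_of_mem hpF
      exact tiny_osc hLa hδ hR hκ' (H c.1 c.2) hF (hsub hx) (hsub hy) _
    lo := lo_set hLa (H c.1 c.2) (am m) ht0.le ht1
    hi := hi_set hLa (H c.1 c.2) (mo_ac M) (by linarith) (by linarith)
    vlo := by
      obtain ⟨v, g1, g2, g3, g4⟩ := exists_vbar hLa hδ hR hκ1.le hκ (H c.1 c.2) M hN
        (t := 0) ⟨le_rfl, zero_le_one⟩
      refine ⟨⟨v, g2, g1⟩, ?_, hrgn ⟨v, g2, g1⟩ (hB1.trans g4)⟩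
      have := (abs_le.1 g3).2
      show sb Φ (θ c.1 v) (am m) ≤ t
      linarith
    vhi := by
      obtain ⟨v, g1, g2, g3, g4⟩ := exists_vbar hLa hδ hR hκ1.le hκ (H c.1 c.2) M hN
        (t := 1) ⟨zero_le_one, le_rfl⟩
      refine ⟨⟨v, g2, g1⟩, ?_, hrgn ⟨v, g2, g1⟩ (hB1.trans g4)⟩
      have := (abs_le.1 g3).1
      show 1 - t ≤ sb Φ (θ c.1 v) (am m)
      linarith }

end sla

end Crest.Agent.R096.Lv4_471
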