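import Crest.Agent.R096.Hdr3_334
import Crest.Agent.R096.Bse2_344
import Crest.Agent.R096.Sgo2_298
import Crest.Agent.R096.Lv4_471

/-!
# R096 (row 96), DOORS (helper334), part 4: `hdoor` for the real state with layers

* `pos_s2`  : (B) for the sheets of `s2` with the sharp margin `μ / 2 - Cn κ1`;
* `hAct_qd` : the active layer tiles at a giant (input `hAct` of 560's `s2_two_lev`);
* `two_s2`  : (E2) at the giants of `s2` with the quads `qdT`;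
* `hdoor_m` : the hypothesis `hdoor` of 298's `good_s2` for the machine.
-/

set_option autoImplicit false
set_option linter.unusedSectionVars false
set_option linter.unusedVariables false
set_option linter.style.longLine false

open Set Topology Filter Metric Module
open scoped Classical

namespace Crest.Agent.R096.Hdr_334

open Crest.Agent.R096.Msh_715 Crest.Agent.R096.Agl5_543 Crest.Agent.R096.St_147
  Crest.Agent.R096.Seq_213 Crest.Agent.R096.Door_501 Crest.Agent.R096.Sla_184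
  Crest.Agent.R096.Twr_438 Crest.Agent.R096.Exa_560 Crest.Agent.R096.Ess3_95
  Crest.Agent.R096.Ess4_95 Crest.Agent.R096.Dfi_539 Crest.Agent.R096.Dfi_471
  Crest.Agent.R096.Cg_501 Crest.Agent.R096.Sgd_298
open Crest.Agent.R096.Brk1_582 Crest.Agent.R096.Brk2_582 Crest.Agent.R096.Brk3_582
  Crest.Agent.R096.Brk5_582 Crest.Agent.R096.Bsp_628 Crest.Agent.R096.Init_543
open Crest.Agent.R096.Mbf_337 (sb KJ Tiny gau Cores Fine)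
open Crest.Agent.R096.SkC1_961 (E3 FoamD Hom3)
open Crest.Agent.R096.Frn_337 (Ti)
open Crest.Agent.R096.Frs_662 (slC)
open Crest.Agent.R096.Lm_117 Crest.Agent.R096.SkB_662 Crest.Agent.R096.Qdl_662

variable {δ κ0 R c0 : ℝ} {La Om : Set E3} {ι : Type} {Φ : FoamD δ κ0 R c0 La} {T : Tiling Om ι}
  {f g : E3 → E3} {κ1 κ2 μ : ℝ} {X : Set Φ.F} {J0 Jt V : Φ.F → Set ι}
  {ct ct' : Φ.F → ι} {A : Φ.F → E3 ≃ᵃ[ℝ] E3} {lam : Φ.F → ℝ} {z : Φ.F → E3}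
  {θ : Φ.F → E3 → E3} {φ : Φ.F → E3 → ℝ} {r₀ : Φ.F → ℝ} {ε s₁ : ℝ}

variable {Mo : Type} {n : Ti X → ℕ} {hn : ∀ c, 0 < n c} {hLa : IsOpen La}
  {hC : Cores Φ T f κ1 κ2 X J0 Jt V ct A lam z θ φ}
  {hR : InitR Φ T f g J0 ct' r₀}
  {hM : Mesh0 T (Pc Φ.F) (bc (F := Φ.F)) (RF Φ r₀) f (KorJ Φ J0) ε} {hε : ε < s₁} {hε1 : ε < 1}
  {L : Φ.F → Finset ℝ} [Nonempty (JJ Φ L ⊕ Mo)]
  {s : GSt (meshC T fr3) (Sum.map (fun j : JJ Φ L => j.1) (id : Mo → Mo))}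
  {r : JJ Φ L ⊕ Mo → E3} {Sf : JJ Φ L ⊕ Mo → Set E3} {nb : Ti X → Φ.F ⊕ Mo → Prop}
  {v0 v1 : ∀ c, Φ.F ⊕ Mo → VxK T (slC hLa hC n hn).K c} {u : Ti X → Φ.F ⊕ Mo → E3 → ℝ}
  {Aw Bw : Ti X → Φ.F ⊕ Mo → ℝ}
  {Lv : ∀ c, Φ.F ⊕ Mo → Lev T (frontier ((slC hLa hC n hn).K c)) (JJ Φ L ⊕ Mo)}
  {Tw : Twrs ((slC hLa hC n hn).sh fr3) (slC hLa hC n hn).n
    (outK (slC hLa hC n hn).hH (slC hLa hC n hn).dis s r)} {l0 : E3 → JJ Φ L ⊕ Mo}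

/-- **(B) for the sheets of `s2`**, sharp margin -/
theorem pos_s2 (hδ : 0 < δ) (hR0 : 0 < R) (hκ1 : 0 < κ1) (hμ0 : 0 < μ) (hμ1 : μ ≤ 1 / 2)
    (hμ : (3 * Cn δ R + 1) * κ1 < μ / 2)
    (D : DIn (slC hLa hC n hn).hH s r Sf nb v0 v1 u Aw Bw) (LO : LevOut s nb u Aw Bw Lv)
    (tt : TwOut (slC hLa hC n hn) fr3 s r v0 v1 Lv Tw)
    (hnb : ∀ c a, nb c (Sum.inl a) → a ∈ nbr Φ c.1)
    (hu : ∀ c a x, u c (Sum.inl a) x = sb Φ (θ c.1 x) a)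
    (hA : ∀ c a, μ / 2 ≤ Aw c (Sum.inl a)) (hB : ∀ c a, Bw c (Sum.inl a) ≤ 1 - μ / 2)
    (hv0 : ∀ c a, nb c (Sum.inl a) → sb Φ (θ c.1 (v0 c (Sum.inl a)).1) a ≤ μ / 2)
    (hv1 : ∀ c a, nb c (Sum.inl a) → 1 - μ / 2 ≤ sb Φ (θ c.1 (v1 c (Sum.inl a)).1) a)
    (htr : ∀ w ∈ s.P, ∀ j : JJ Φ L, s.lab w = Sum.inl j →
      μ ≤ Φ.lev j.1 (f w) ∧ Φ.lev j.1 (f w) ≤ 1 - μ) (j : JJ Φ L) :
    Pos (hH := (Lay_316.lay_sla hLa hC n hn).core) (hdis := (Lay_316.lay_sla hLa hC n hn).disj)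
      T f J0 (fun p : T.RIdx (slC hLa hC n hn).HH => p.tile) (s2 (slC hLa hC n hn) fr3 Tw l0)
      (Sum.inl j) j.1 (μ / 2 - Cn δ R * κ1) := by
  have hCn := Cn_nonneg hδ hR0
  have hCκ : 0 ≤ Cn δ R * κ1 := mul_nonneg hCn hκ1.le
  have hκ : Cn δ R * κ1 < 1 := by nlinarith
  intro w hw hwl p hp hwp _
  refine Bse_344.loc2 (S := slC hLa hC n hn) (h3 := fr3) D LO tt (n := Sum.inl j)
    (fun x => Φ.lev j.1 (f x) ∈ Icc (μ / 2 - Cn δ R * κ1) (1 - (μ / 2 - Cn δ R * κ1)))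
    ?_ ?_ ?_ hw hwl hwp
  · intro x hx hl
    obtain ⟨h1, h2⟩ := htr x hx j hl
    constructor <;> linarith
  · intro c hc x hx h1 h2
    have h1' : Aw c (Sum.inl j.1) < u c (Sum.inl j.1) x := h1
    have h2' : u c (Sum.inl j.1) x < Bw c (Sum.inl j.1) := h2
    rw [hu] at h1' h2'
    have h4 := abs_le.1 (tiny_near hLa hδ hR0 hκ (hC.tiny c.1 c.2) hx j.1)
    constructor <;> linarith [hA c j.1, hB c j.1, h4.1, h4.2]
  · intro c hc v hv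
    have h := Lv4_471.tiny_rgnI (κ := Ti X) (cf := Subtype.val) (J := fun c => Jt c.1)
      (J0 := fun c => J0 c.1) (V := fun c => V c.1) (θ := fun c => θ c.1)
      (φ := fun c => φ c.1) (k := c) (a := j.1) (a' := Sum.inl j.1) hLa hδ hR0 hκ1 hμ0 hμ1 hμ
      (fun c => hC.tiny c.1 c.2) LO (hu c j.1) (hnb c j.1 hc).1 (hA c j.1) (hB c j.1)
      (hv0 c j.1 hc) (hv1 c j.1 hc) (fun w hw hl => by
        rcases hl' : s.lab w with i | m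
        · rw [hl'] at hl
          have e : i.1 = j.1 := Sum.inl.inj hl
          rw [← e]
          exact htr w hw i hl'
        · rw [hl'] at hl
          cases hl) hv
    constructor <;> linarith [h.2.2.1, h.2.2.2]

/-- a side of a face which is a tile is outside the cores -/
theorem side_out {E : Type} [NormedAddCommGroup E] [NormedSpace ℝ E] [FiniteDimensional ℝ E]
    {Om : Set E} {ι κ : Type} {T : Tiling Om ι} {Kc : κ → Set E} {h3 : finrank ℝ E = 3}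
    {hH : ∀ c, CoreH T (Kc c)} {hdis : ∀ c c', c ≠ c' → Disjoint (Kc c) (Kc c')}
    {F : {F : C2 T // ¬ (((meshC T h3).side F).map (piK T Kc)).IsDiag}} {p : ι}
    (hp : Sum.inl p ∈ (mK h3 hH hdis).side F) : ∀ k, ¬ P (T.H p) ⊆ Kc k := by
  have h1 : Sum.inl p ∈ ((meshC T h3).side F.1).map (piK T Kc) := hp
  rw [mem_map_iff] at h1
  obtain ⟨q', h2, h4⟩ := h1
  obtain ⟨rfl, h5⟩ := piK_inl.1 h4
  exact h5

/-- **the active layer tiles at a giant** -/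
theorem hAct_qd {re : Ti X → ℝ}
    (h1 : ∀ c : Ti X, ∀ x ∈ frontier (KJ T (Jt c.1)), gau c.1.1 (Φ.B c.1).lo (f x) ≤ re c)
    (h2 : ∀ c : Ti X, ∀ i, (∃ x ∈ P (T.H i), gau c.1.1 (Φ.B c.1).lo (f x) ≤ re c) → i ∈ V c.1)
    (k : QK (Pc Φ.F)) (m : Ti X) (G : ((slC hLa hC n hn).sh fr3 m).Fk) :
    Sum.inl (Sla.tg G (n m - 1)) ∈ (qdT (fun p : T.RIdx (slC hLa hC n hn).HH => p.tile)
      (fun p => Sla.P3_sub p) (slC hLa hC n hn).KK hLa hR hM hε hε1).Act k ↔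
    ∃ x ∈ P (T.H (Sla.tg G (n m - 1)).tile),
      (∀ b ∈ k.B, Φ.lev b (f x) ∈ Icc s₁ (1 - s₁)) ∧ ∀ e ∈ k.Z, Φ.lev e (f x) = 0 := by
  have hnm : 0 < n m := hn m
  have hout : ∀ k', ¬ P ((slC hLa hC n hn).T3.H (Sla.tg G (n m - 1))) ⊆ (slC hLa hC n hn).KK k' := by
    have hside := ((slC hLa hC n hn).cols fr3 |>.cl m).side_bot G
      (j := n m - 1) (by show n m - 1 + 1 = n m; omega)
    refine side_out (h3 := fr3) (hH := (Lay_316.lay_sla hLa hC n hn).core)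
      (hdis := (Lay_316.lay_sla hLa hC n hn).disj)
      (F := ((slC hLa hC n hn).cols fr3 |>.cl m).hf G (n m)) ?_
    have e := hside
    show Sum.inl (Sla.tg G (n m - 1)) ∈ ((slC hLa hC n hn).mn fr3).side _
    rw [show ((slC hLa hC n hn).mn fr3).side (((slC hLa hC n hn).cols fr3 |>.cl m).hf G (n m)) =
      s(Sum.inl (Sla.tg G (n m - 1)), Sum.inr m) from e]
    exact Sym2.mem_mk_left _ _
  have htl := tg_tile (S := slC hLa hC n hn) (h3 := fr3) (c := m) (G := G) (j := n m - 1)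
    (by show n m - 1 < n m; omega)
  have hfr : G.1.1.pt ∈ frontier (KJ T (Jt m.1)) := Sla.fk_fr G
  have hK : (Sla.tg G (n m - 1)).tile ∉ KorJ Φ J0 :=
    (zon_sla hC (slC hLa hC n hn) (fun _ => rfl) h1 h2).kor m _ hout
      ⟨G.1.1.pt, htl.1, h1 m _ hfr⟩
  rw [inl_act]
  constructor
  · rintro ⟨⟨-, x, hx, h4, h5⟩, -⟩
    refine ⟨x, hx, fun b hb => ?_, fun e he => ?_⟩
    · rw [← At_241.va_lev hLa hR hK hx b]; exact h4 b hb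
    · rw [← At_241.va_lev hLa hR hK hx e]; exact h5 e he
  · rintro ⟨x, hx, h4, h5⟩
    refine ⟨⟨hK, x, hx, fun b hb => ?_, fun e he => ?_⟩, hout⟩
    · rw [At_241.va_lev hLa hR hK hx b]; exact h4 b hb
    · rw [At_241.va_lev hLa hR hK hx e]; exact h5 e he

/-- **(E2) at the giants of `s2`** -/
theorem two_s2 (hδ : 0 < δ) (hR0 : 0 < R) (hμ0 : 0 < μ) (hμ1 : μ ≤ 1 / 2) (hκ1 : 0 ≤ κ1)
    (hs : (Cn δ R + 1) * κ1 < s₁) (hs1 : s₁ + Cn δ R * κ1 ≤ μ / 2)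
    (LO : LevOut s nb u Aw Bw Lv) (tt : TwOut (slC hLa hC n hn) fr3 s r v0 v1 Lv Tw)
    (hnb : ∀ (c : Ti X) a, a ≠ c.1 → (Pc Φ.F c.1 ∩ Pc Φ.F a).Nonempty → nb c (Sum.inl a))
    (hu : ∀ c a x, u c (Sum.inl a) x = sb Φ (θ c.1 x) a)
    (hA : ∀ c a, 1 - μ ≤ Aw c (Sum.inl a)) (hB : ∀ c a, Bw c (Sum.inl a) ≤ 1 - μ / 2)
    {re : Ti X → ℝ}
    (h1 : ∀ c : Ti X, ∀ x ∈ frontier (KJ T (Jt c.1)), gau c.1.1 (Φ.B c.1).lo (f x) ≤ re c)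
    (h2 : ∀ c : Ti X, ∀ i, (∃ x ∈ P (T.H i), gau c.1.1 (Φ.B c.1).lo (f x) ≤ re c) → i ∈ V c.1)
    (k : QK (Pc Φ.F)) (c : Ti X) (hc : c.1 ∈ k.Z) (j j' : JJ Φ L) (hj : j.1 ∈ k.B)
    (hj' : j'.1 ∈ k.B) (hjj : j.1 ≠ j'.1) :
    Two (s2 (slC hLa hC n hn) fr3 Tw l0)
      ((qdT (fun p : T.RIdx (slC hLa hC n hn).HH => p.tile) (fun p => Sla.P3_sub p)
        (slC hLa hC n hn).KK hLa hR hM hε hε1).Act k) {Sum.inr c} (Sum.inl j) (Sum.inl j') := by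
  refine s2_two_lev (u := u) (Aw := Aw) (Bw := Bw) (nb := nb) (h3 := fr3) (H := hC.tiny)
    (sC := s) hδ hR0 tt.bot LO (fa := (Sum.inl : Φ.F → Φ.F ⊕ Mo)) Sum.inl_injective
    (fun c a x _ => hu c a x) hnb hA hB hμ0 hμ1 hs hs1 hκ1 hc hj hj' hjj rfl rfl inr_act ?_
  exact fun G => hAct_qd h1 h2 k c G

/-- **`hdoor` of 298's `good_s2` for the machine**, `Act := ActR S (Rdc T f Xᶜ ro)` -/
theorem hdoor_m (hδ : 0 < δ) (hR0 : 0 < R) (hκ1 : 0 < κ1) (hμ0 : 0 < μ) (hμ1 : μ ≤ 1 / 2)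
    (hμ : (3 * Cn δ R + 1) * κ1 < μ / 2) (hs : (Cn δ R + 1) * κ1 < s₁)
    (hs1 : s₁ + ε + Cn δ R * κ1 ≤ μ / 2) (hε0 : 0 ≤ ε) {l : ℝ} (hl : l + ε + Cn δ R * κ1 < μ / 2)
    (hL : ∀ a, (L a).Nonempty)
    (hR : InitR Φ T f g J0 ct' r₀)
    (hM : Mesh0 T (Pc Φ.F) (bc (F := Φ.F)) (RF Φ r₀) f (KorJ Φ J0) ε) (hε : ε < s₁) (hε1 : ε < 1)
    (D : DIn (slC hLa hC n hn).hH s r Sf nb v0 v1 u Aw Bw) (LO : LevOut s nb u Aw Bw Lv)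
    (tt : TwOut (slC hLa hC n hn) fr3 s r v0 v1 Lv Tw)
    (hnb : ∀ (c : Ti X) a, nb c (Sum.inl a) ↔ a ≠ c.1 ∧ (Pc Φ.F c.1 ∩ Pc Φ.F a).Nonempty)
    (hnb' : ∀ c a, nb c (Sum.inl a) → a ∈ nbr Φ c.1)
    (hu : ∀ c a x, u c (Sum.inl a) x = sb Φ (θ c.1 x) a)
    (hA : ∀ c a, 1 - μ ≤ Aw c (Sum.inl a)) (hB : ∀ c a, Bw c (Sum.inl a) ≤ 1 - μ / 2)
    (hv0 : ∀ c a, nb c (Sum.inl a) → sb Φ (θ c.1 (v0 c (Sum.inl a)).1) a ≤ μ / 2)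
    (hv1 : ∀ c a, nb c (Sum.inl a) → 1 - μ / 2 ≤ sb Φ (θ c.1 (v1 c (Sum.inl a)).1) a)
    (htr : ∀ w ∈ s.P, ∀ j : JJ Φ L, s.lab w = Sum.inl j →
      μ ≤ Φ.lev j.1 (f w) ∧ Φ.lev j.1 (f w) ≤ 1 - μ) {am : Mo → Φ.F}
    (hbar : ∀ m, PosM (hH := (Lay_316.lay_sla hLa hC n hn).core)
      (hdis := (Lay_316.lay_sla hLa hC n hn).disj) T f J0
      (fun p : T.RIdx (slC hLa hC n hn).HH => p.tile) (s2 (slC hLa hC n hn) fr3 Tw l0)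
      (Sum.inr m) (am m) l) {ro : Φ.F → ℝ}
    (h1 : ∀ c : Ti X, ∀ x ∈ frontier (KJ T (Jt c.1)), gau c.1.1 (Φ.B c.1).lo (f x) ≤ ro c.1)
    (h2 : ∀ c : Ti X, ∀ i, (∃ x ∈ P (T.H i), gau c.1.1 (Φ.B c.1).lo (f x) ≤ ro c.1) → i ∈ V c.1)
    (a : Φ.F) (j : JJ Φ L) (hja : j.1 = a) (c : Ti X)
    (hpt : ∃ F w, Sum.inr c ∈ ((slC hLa hC n hn).mn fr3).side F ∧
      (s2 (slC hLa hC n hn) fr3 Tw l0).At F w ∧
      (s2 (slC hLa hC n hn) fr3 Tw l0).lab w = Sum.inl j) :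
    ∃ (n' : JJ Φ L ⊕ Mo) (R' Zc : Set (T.RIdx (slC hLa hC n hn).HH ⊕ Ti X))
      (F₀ : (slC hLa hC n hn).Fn fr3) (w₀ x₀ : E3),
      Sum.inl j ≠ n' ∧
      OddDoor (s2 (slC hLa hC n hn) fr3 Tw l0) (Sum.inl j) n' (Sum.inr c) R' F₀ w₀ x₀ ∧
      (∀ q, q ∈ Zc → q ∉ R' → q ≠ Sum.inr c → ∀ F w x,
        q ∈ ((slC hLa hC n hn).mn fr3).side F →
        (∃ q' ∈ ((slC hLa hC n hn).mn fr3).side F, q' ∈ R') →
        (s2 (slC hLa hC n hn) fr3 Tw l0).At F w →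
        (s2 (slC hLa hC n hn) fr3 Tw l0).lab w = Sum.inl j →
        (s2 (slC hLa hC n hn) fr3 Tw l0).At F x →
        (s2 (slC hLa hC n hn) fr3 Tw l0).lab x = n' →
        ¬ ((slC hLa hC n hn).mn fr3).Lace F w ((s2 (slC hLa hC n hn) fr3 Tw l0).mu F w) x
          ((s2 (slC hLa hC n hn) fr3 Tw l0).mu F x)) ∧
      (∀ q ∈ R', ∀ F, q ∈ ((slC hLa hC n hn).mn fr3).side F →
        NB (s2 (slC hLa hC n hn) fr3 Tw l0) am a F) ∧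
      ∀ q, q ∉ Zc → ∀ F w, q ∈ ((slC hLa hC n hn).mn fr3).side F →
        (∃ q' ∈ ((slC hLa hC n hn).mn fr3).side F, q' ∈ R') →
        (s2 (slC hLa hC n hn) fr3 Tw l0).At F w →
        (s2 (slC hLa hC n hn) fr3 Tw l0).lab w = Sum.inl j →
        ∃ F', w ∈ ((slC hLa hC n hn).mn fr3).On F' ∧
          ∃ q' ∈ ((slC hLa hC n hn).mn fr3).side F',
            q' ∉ Sgo_298.ActR (slC hLa hC n hn) (Rdc T f Xᶜ ro) ∧
            q' ∉ Set.range (Sum.inr : Ti X → T.RIdx (slC hLa hC n hn).HH ⊕ Ti X) := by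
  subst hja
  have hCn := Cn_nonneg hδ hR0
  have hCκ : 0 ≤ Cn δ R * κ1 := mul_nonneg hCn hκ1.le
  obtain ⟨F1, w1, hF1, hA1, hl1⟩ := hpt
  have hcell : Nonempty (slC hLa hC n hn).T3.Cell :=
    ⟨(slC hLa hC n hn).T3.cl (F1.1.set_sub hA1.2.1)⟩
  obtain ⟨p1, hp1⟩ := Bse_344.exists_inl hA1.2
  have hne : ∃ c, OutK (slC hLa hC n hn).T3 (slC hLa hC n hn).KK c := by
    refine ⟨tcell _ p1, out_tcell ?_⟩
    rintro ⟨k, hk⟩
    exact (Bse_344.side_inl hA1.2 hp1).2 k hk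
  have hpos := fun j => pos_s2 (l0 := l0) hδ hR0 hκ1 hμ0 hμ1 hμ D LO tt hnb' hu
    (fun c a => by linarith [hA c a]) hB hv0 hv1 htr j
  have key := hdoor (hsub := fun p => Sla.P3_sub p) (hLa := hLa) (hR := hR) (hM := hM) (hε := hε)
    (hε1 := hε1) (am := am) (s := s2 (slC hLa hC n hn) fr3 Tw l0) (s' := μ / 2 - Cn δ R * κ1)
    (lam := l) (hH := (Lay_316.lay_sla hLa hC n hn).core)
    (hdis := (Lay_316.lay_sla hLa hC n hn).disj)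
    hne (zon_sla hC (slC hLa hC n hn) (fun _ => rfl) (re := fun c => ro c.1) h1 h2)
    (by linarith) (by linarith) hL hpos hbar ?_ ?_ ?_ (hAct_rdc (slC hLa hC n hn)) j (Sum.inr c)
    ⟨c, rfl⟩ ⟨F1, w1, hF1, hA1, hl1⟩
  · obtain ⟨-, n', R', Zc, F₀, w₀, x₀, k1, k2, -, k3, k4, k5⟩ := key
    exact ⟨n', R', Zc, F₀, w₀, x₀, k1, k2, k3, k4, k5⟩
  · intro c' F w i hF hA' hl'
    have h := Sgo_298.giant_nb LO tt hF hA'
    rw [hl'] at h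
    have h' := (hnb c' i.1).1 h
    exact ⟨fun e => h'.1 e.symm, h'.2⟩
  · intro c' i
    exact Sgo_298.giant_one LO tt (Sum.inl i)
  · intro k c' hc' i i' hi hi' hii
    exact two_s2 hδ hR0 hμ0 hμ1 hκ1.le hs (by linarith) LO tt
      (fun c a h3 h4 => (hnb c a).2 ⟨h3, h4⟩) hu hA hB (re := fun c => ro c.1) h1 h2 k c' hc' i i'
      hi hi' hii

end Crest.Agent.R096.Hdr_334
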