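import Crest.Agent.R096.Sde4_422
import Crest.Agent.R096.Hdr4_334
import Crest.Agent.R096.Lbc1_334

/-!
# R096 (row 96), DOORS, NE1 (helper224): **no sheets of `am m` over the end zones of the box of `m`**,
BOTH ENDS, wide zones: `lev am ≤ 7 μ / 16` or `1 - 7 μ / 16 ≤ lev am`.

* `far_lev`   : levels on a tile of an end zone;
* `afree_out` : no point of a sheet of the family `am m` on a face of the tile;
* `afree_in`  : the same for the patterns and the moved vertices at every core;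
* `afree_s2`  : the same for `s2`.
-/

set_option autoImplicit false
set_option linter.unusedSectionVars false
set_option linter.unusedVariables false
set_option linter.style.longLine false

open Set Topology Filter Metric Module Relation
open scoped Classical

namespace Crest.Agent.R096.Afr_224

open Crest.Agent.R096.Msh_715 Crest.Agent.R096.Agl5_543 Crest.Agent.R096.St_147
  Crest.Agent.R096.Seq_213 Crest.Agent.R096.Door_501 Crest.Agent.R096.Sla_184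
  Crest.Agent.R096.Twr_438 Crest.Agent.R096.Exa_560 Crest.Agent.R096.Ess3_95
  Crest.Agent.R096.Ess4_95 Crest.Agent.R096.Dfi_539 Crest.Agent.R096.Dfi_471
  Crest.Agent.R096.Ac_117 Crest.Agent.R096.Lm_117 Crest.Agent.R096.Cp_298
  Crest.Agent.R096.Coh_184 Crest.Agent.R096.Gm_298 Crest.Agent.R096.Cpo_642
  Crest.Agent.R096.Gl_422 Crest.Agent.R096.Flb_422 Crest.Agent.R096.Sid_422
  Crest.Agent.R096.Vrt_422 Crest.Agent.R096.Dfo_539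
open Crest.Agent.R096.Brk1_582 Crest.Agent.R096.Brk2_582 Crest.Agent.R096.Brk3_582
  Crest.Agent.R096.Brk5_582 Crest.Agent.R096.Bsp_628 Crest.Agent.R096.Init_543
  Crest.Agent.R096.Bar_106 Crest.Agent.R096.Dib_438 Crest.Agent.R096.Lam_847
  Crest.Agent.R096.Ess5_95 Crest.Agent.R096.Bgf_4 Crest.Agent.R096.Ebr1_95
  Crest.Agent.R096.Ebr4_95 Crest.Agent.R096.Rop_441 Crest.Agent.R096.Nmd1_698
open Crest.Agent.R096.Mbf_337 (sb KJ Tiny gau Cores Fine)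
open Crest.Agent.R096.SkC1_961 (E3 FoamD Hom3)
open Crest.Agent.R096.Frn_337 (Ti)
open Crest.Agent.R096.Frs_662 (slC)
open Crest.Agent.R096.Ess7_95 (KT Sh)
open Crest.Agent.R096.Dia_316 (nbT)
open Crest.Agent.R096.Dff_539 (vS)
open Crest.Agent.R096.Bmf_416 (coT)

variable {δ κ0 R c0 : ℝ} {La Om : Set E3} {ι : Type} {Φ : FoamD δ κ0 R c0 La} {T : Tiling Om ι}
  {f g : E3 → E3} {κ1 κ2 μ : ℝ} {X : Set Φ.F} {J0 J V : Φ.F → Set ι}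
  {ct ct' : Φ.F → ι} {A : Φ.F → E3 ≃ᵃ[ℝ] E3} {lam : Φ.F → ℝ} {z : Φ.F → E3}
  {θ : Φ.F → E3 → E3} {φ : Φ.F → E3 → ℝ} {r₀ : Φ.F → ℝ}
  {L : Φ.F → Finset ℝ} [Nonempty (JJ Φ L)] {hG : GF Φ r₀ T f L} {bp : JJ Φ L → E3}
  {N' : BM Φ X → Set ℝ} {ρ1 ρ2 ρ3 ρ4 d : Φ.F → ℝ} {q₀ : BM Φ X → E3} {ε : BM Φ X → ℝ}
  {bm : BM Φ X → E3} {hGB : GFB Φ r₀ T f L (lRc Φ X μ ρ1 ρ3 d) ε}
  {v0F v1F : ∀ c, Φ.F → VxK T (KT T J X) c} {v0B v1B : ∀ c, BM Φ X → VxK T (KT T J X) c}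
  {hLa : IsOpen La} {hC : Cores Φ T f κ1 κ2 X J0 J V ct A lam z θ φ}
  {n : Ti X → ℕ} {hn : ∀ c, 0 < n c} {r : JJ Φ L ⊕ BM Φ X → E3}
  {Sf : JJ Φ L ⊕ BM Φ X → Set E3}
  {Lv : ∀ c, Φ.F ⊕ BM Φ X → Lev T (frontier ((slC hLa hC n hn).K c)) (JJ Φ L ⊕ BM Φ X)}
  {Tw : Twrs ((slC hLa hC n hn).sh fr3) (slC hLa hC n hn).n
    (outK (slC hLa hC n hn).hH (slC hLa hC n hn).dis (stB hGB bp bm) r)}
  {l0' : E3 → JJ Φ L ⊕ BM Φ X}

/-- **the levels over an end zone** -/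
theorem far_lev (N : NumD δ κ0 R c0 κ2 μ κ1)
    (bar : BarOut Φ T f κ1 μ X J0 J V θ hG bp N' ρ1 ρ2 ρ3 ρ4 d q₀ ε bm hGB v0B v1B)
    (m : BM Φ X) {q : ι} {x y : E3} (hx : x ∈ P (T.H q)) (h1 : ρ1 m.co ≤ ga Φ m.co (f x))
    (h2 : ga Φ m.co (f x) ≤ ρ4 m.co)
    (ha : Φ.lev m.am (f x) ≤ 7 * μ / 16 ∨ 1 - 7 * μ / 16 ≤ Φ.lev m.am (f x))
    (hy : y ∈ P (T.H q)) (hl : μ / 2 - Cn δ R * κ1 ≤ Φ.lev m.am (f y))
    (hh : Φ.lev m.am (f y) ≤ 1 - μ / 2 + Cn δ R * κ1) : False := by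
  obtain ⟨hd, hr⟩ := bar.rm m.co m.co_notMem
  have h3 := abs_le.1 ((hr.tile_osc hx h1 h2 hy).2.2 m.am)
  obtain ⟨n1, n2, n3, n4, n5, -⟩ := N.base
  rcases ha with ha | ha
  · linarith [h3.1]
  · linarith [h3.2]

/-- **outside the cores** -/
theorem afree_out (N : NumD δ κ0 R c0 κ2 μ κ1)
    (bar : BarOut Φ T f κ1 μ X J0 J V θ hG bp N' ρ1 ρ2 ρ3 ρ4 d q₀ ε bm hGB v0B v1B)
    (htl : ∀ w ∈ (stB hGB bp bm).P, ∀ j, (stB hGB bp bm).lab w = Sum.inl j →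
      μ ≤ Φ.lev j.1 (f w) ∧ Φ.lev j.1 (f w) ≤ 1 - μ)
    (m : BM Φ X) {q : ι} {x : E3} (hx : x ∈ P (T.H q)) (h1 : ρ1 m.co ≤ ga Φ m.co (f x))
    (h2 : ga Φ m.co (f x) ≤ ρ4 m.co)
    (ha : Φ.lev m.am (f x) ≤ 7 * μ / 16 ∨ 1 - 7 * μ / 16 ≤ Φ.lev m.am (f x))
    {y : E3} (hy : y ∈ (stB hGB bp bm).P) (hyq : y ∈ P (T.H q)) {i : JJ Φ L}
    (hl : (stB hGB bp bm).lab y = Sum.inl i) : i.1 ≠ m.am := by
  intro he
  obtain ⟨h3, h4⟩ := htl y hy i hl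
  rw [he] at h3 h4
  obtain ⟨n1, n2, n3, n4, n5, -⟩ := N.base
  exact far_lev N bar m hx h1 h2 ha hyq (by linarith) (by linarith)

/-- 778's form (G3 (i)), both ends -/
theorem afree_outF (N : NumD δ κ0 R c0 κ2 μ κ1)
    (bar : BarOut Φ T f κ1 μ X J0 J V θ hG bp N' ρ1 ρ2 ρ3 ρ4 d q₀ ε bm hGB v0B v1B)
    (htl : ∀ w ∈ (stB hGB bp bm).P, ∀ j, (stB hGB bp bm).lab w = Sum.inl j →
      μ ≤ Φ.lev j.1 (f w) ∧ Φ.lev j.1 (f w) ≤ 1 - μ)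
    (m : BM Φ X) {q : ι} {x : E3} (hx : x ∈ P (T.H q)) (h1 : ρ1 m.co ≤ ga Φ m.co (f x))
    (h2 : ga Φ m.co (f x) ≤ ρ4 m.co)
    (ha : Φ.lev m.am (f x) ≤ 7 * μ / 16 ∨ 1 - 7 * μ / 16 ≤ Φ.lev m.am (f x))
    (F : C2 T) (hF : q ∈ F.side fr3) : ∀ y ∈ (stB hGB bp bm).P, y ∈ F.On →
      ∀ i, (stB hGB bp bm).lab y = Sum.inl i → i.1 ≠ m.am := by
  intro y hy hyF i hl
  have h4 : y ∈ T.cc F.pt := by rw [← F.set_eq]; exact hyF.1
  exact afree_out N bar htl m hx h1 h2 ha hy (T.cc_sub_tile (C2.mem_side.1 hF) h4) hl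

section s2

variable (N : NumD δ κ0 R c0 κ2 μ κ1)
  (bar : BarOut Φ T f κ1 μ X J0 J V θ hG bp N' ρ1 ρ2 ρ3 ρ4 d q₀ ε bm hGB v0B v1B)
  (D : DIn (slC hLa hC n hn).hH (stB hGB bp bm) r Sf (nbA Φ X) (vS v0F v0B) (vS v1F v1B)
    (uA Φ hLa X θ) (AA Φ X μ κ1) (BA Φ X μ))
  (lo : LevOut (Kc := (slC hLa hC n hn).K) (stB hGB bp bm) (nbA Φ X) (uA Φ hLa X θ)
    (AA Φ X μ κ1) (BA Φ X μ) Lv)
  (tt : TwOut (slC hLa hC n hn) fr3 (stB hGB bp bm) r (vS v0F v0B) (vS v1F v1B) Lv Tw)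
  (htl : ∀ w ∈ (stB hGB bp bm).P, ∀ j, (stB hGB bp bm).lab w = Sum.inl j →
    μ ≤ Φ.lev j.1 (f w) ∧ Φ.lev j.1 (f w) ≤ 1 - μ)
  (hv0 : ∀ (c : Ti X) a, nbT Φ X c a → sb Φ (θ c.1 (v0F c a).1) a ≤ (2 * Cn δ R + 1) * κ1)
  (hv1 : ∀ (c : Ti X) a, nbT Φ X c a → 1 - (2 * Cn δ R + 1) * κ1 ≤ sb Φ (θ c.1 (v1F c a).1) a)
include N D lo tt htl hv0 hv1

/-- **the moved vertices of a family** at any core -/
theorem rgn_lev (k : Ti X) (a : Φ.F) {j : ℕ} {v : (slC hLa hC n hn).Vx k}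
    (hv : v ∈ ((Tw.tw k (Sum.inl a)).mv j).Qv) :
    μ / 2 - Cn δ R * κ1 ≤ Φ.lev a (f v.1) ∧ Φ.lev a (f v.1) ≤ 1 - μ / 2 + Cn δ R * κ1 := by
  obtain ⟨n1, n2, n3, n4, n5, -⟩ := N.base
  have hnb' : nbA Φ X k (Sum.inl a) := qv_nb D tt hv
  have hnb : nbT Φ X k a := hnb'
  have h := Lv4_471.tiny_rgnI (κ := Ti X) (cf := Subtype.val) (J := fun c => J c.1)
    (J0 := fun c => J0 c.1) (V := fun c => V c.1) (θ := fun c => θ c.1)
    (φ := fun c => φ c.1) (k := k) (a := a) (a' := Sum.inl a) hLa N.hδ N.hR N.hκ N.hμ N.half N.cn3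
    (fun c => hC.tiny c.1 c.2) lo (v0 := vS v0F v0B) (v1 := vS v1F v1B) (fun x => rfl) hnb.1
    (show μ / 2 ≤ 1 - μ + Cn δ R * κ1 from N.wA) (show 1 - μ / 2 ≤ 1 - μ / 2 from le_rfl)
    ((hv0 k a hnb).trans N.v0) (N.v1.trans (hv1 k a hnb)) (fun w hw hl => by
      rcases hl' : (stB hGB bp bm).lab w with i | m
      · rw [hl'] at hl
        have e : i.1 = a := Sum.inl.inj hl
        rw [← e]
        exact htl w hw i hl'
      · rw [hl'] at hl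
        cases hl) (tt.rgn k (Sum.inl a) j v hv)
  exact ⟨h.2.2.1.le, h.2.2.2.le⟩

/-- **the pattern points of a family** at any core -/
theorem pat_lev (k : Ti X) (a : Φ.F) {j : ℕ} {w : E3}
    (hw : w ∈ ((Tw.tw k (Sum.inl a)).pat j).P) :
    μ / 2 - Cn δ R * κ1 ≤ Φ.lev a (f w) ∧ Φ.lev a (f w) ≤ 1 - μ / 2 + Cn δ R * κ1 := by
  obtain ⟨n1, n2, n3, n4, n5, -⟩ := N.base
  rcases tt.fits k (Sum.inl a) j w hw with ⟨h1, -, -⟩ | ⟨h1, -, -⟩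
  · obtain ⟨h3, h4, h5⟩ := trc_P h1
    rcases hl' : (stB hGB bp bm).lab w with i | m
    · rw [hl'] at h5
      have e : i.1 = a := Sum.inl.inj h5
      obtain ⟨g1, g2⟩ := htl w h3 i hl'
      rw [e] at g1 g2
      constructor <;> linarith
    · rw [hl'] at h5
      cases h5
  · obtain ⟨e, he⟩ := pat_onE hw
    have hwf : w ∈ frontier ((slC hLa hC n hn).K k) := Sla.ed_opn_fr e he
    obtain ⟨h3, h4⟩ := exa_lab (Lv k (Sum.inl a)) h1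
    obtain ⟨g1, g2⟩ := lo.win k (Sum.inl a) _ h3
    have h5 : sb Φ (θ k.1 w) a = (Lv k (Sum.inl a)).lv ((exa fr3 (slC hLa hC n hn).hH
        (slC hLa hC n hn).dis (Lv k (Sum.inl a))).lab w) := by
      rw [← h4, lo.u]
      rfl
    have g1' : 1 - μ + Cn δ R * κ1 < sb Φ (θ k.1 w) a := by rw [h5]; exact g1
    have g2' : sb Φ (θ k.1 w) a < 1 - μ / 2 := by rw [h5]; exact g2
    have h6 := abs_le.1 (tiny_near hLa N.hδ N.hR N.cn1 (hC.tiny k.1 k.2) hwf a)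
    constructor <;> linarith [h6.1, h6.2]

include bar

/-- **the layers over an end zone**, any core -/
theorem afree_in (m : BM Φ X) {q : ι} {x : E3} (hx : x ∈ P (T.H q))
    (h1 : ρ1 m.co ≤ ga Φ m.co (f x)) (h2 : ga Φ m.co (f x) ≤ ρ4 m.co)
    (ha : Φ.lev m.am (f x) ≤ 7 * μ / 16 ∨ 1 - 7 * μ / 16 ≤ Φ.lev m.am (f x))
    (k : Ti X) (e : (slC hLa hC n hn).Ed k) (he : e.1.set ⊆ P (T.H q)) (j : ℕ) :
    (∀ w ∈ ((Tw.tw k (Sum.inl m.am)).pat j).P, w ∉ e.1.opn) ∧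
      ∀ b, ((slC hLa hC n hn).sh fr3 k).en e b ∉ ((Tw.tw k (Sum.inl m.am)).mv j).Qv := by
  constructor
  · intro w hw hwe
    obtain ⟨g1, g2⟩ := pat_lev N D lo tt htl hv0 hv1 k m.am hw
    exact far_lev N bar m hx h1 h2 ha (he (e.1.opn_sub hwe)) g1 g2
  · intro b hb
    obtain ⟨g1, g2⟩ := rgn_lev N D lo tt htl hv0 hv1 k m.am hb
    refine far_lev N bar m hx h1 h2 ha (he ?_) g1 g2
    have h3 := (endK_iff e (((slC hLa hC n hn).sh fr3 k).en e b)).1 ⟨b, rfl⟩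
    exact h3

/-- **no point of a sheet of `am m` in `s2` on a cell over an end zone** -/
theorem afree_s2 (m : BM Φ X) {p : T.RIdx (slC hLa hC n hn).HH} {x : E3}
    (hx : x ∈ P (T.H p.tile)) (h1 : ρ1 m.co ≤ ga Φ m.co (f x)) (h2 : ga Φ m.co (f x) ≤ ρ4 m.co)
    (ha : Φ.lev m.am (f x) ≤ 7 * μ / 16 ∨ 1 - 7 * μ / 16 ≤ Φ.lev m.am (f x))
    {w : E3} (hw : w ∈ (s2 (slC hLa hC n hn) fr3 Tw l0').P)
    (hp : w ∈ P ((slC hLa hC n hn).T3.H p)) {i : JJ Φ L}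
    (hl : (s2 (slC hLa hC n hn) fr3 Tw l0').lab w = Sum.inl i) : i.1 ≠ m.am := by
  intro hi
  obtain ⟨n1, n2, n3, n4, n5, -⟩ := N.base
  obtain ⟨y, hy, g1, g2⟩ := Bse_344.loc2 (S := slC hLa hC n hn) (h3 := fr3) D lo tt
    (n := Sum.inl i)
    (fun x => μ / 2 - Cn δ R * κ1 ≤ Φ.lev i.1 (f x) ∧ Φ.lev i.1 (f x) ≤ 1 - μ / 2 + Cn δ R * κ1)
    (fun x hx hl => by
      obtain ⟨h1, h2⟩ := htl x hx i hl
      constructor <;> linarith)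
    (fun c hc x hx k1 k2 => by
      have h1' : 1 - μ + Cn δ R * κ1 < sb Φ (θ c.1 x) i.1 := k1
      have h2' : sb Φ (θ c.1 x) i.1 < 1 - μ / 2 := k2
      have h4 := abs_le.1 (tiny_near hLa N.hδ N.hR N.cn1 (hC.tiny c.1 c.2) hx i.1)
      constructor <;> linarith [h4.1, h4.2])
    (fun c hc v hv => by
      have h := Lv4_471.tiny_rgnI (κ := Ti X) (cf := Subtype.val) (J := fun c => J c.1)
        (J0 := fun c => J0 c.1) (V := fun c => V c.1) (θ := fun c => θ c.1)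
        (φ := fun c => φ c.1) (k := c) (a := i.1) (a' := Sum.inl i.1) hLa N.hδ N.hR N.hκ N.hμ
        N.half N.cn3 (fun c => hC.tiny c.1 c.2) lo (v0 := vS v0F v0B) (v1 := vS v1F v1B)
        (fun x => rfl) (show nbT Φ X c i.1 from hc).1
        (show μ / 2 ≤ 1 - μ + Cn δ R * κ1 from N.wA) (show 1 - μ / 2 ≤ 1 - μ / 2 from le_rfl)
        ((hv0 c i.1 hc).trans N.v0) (N.v1.trans (hv1 c i.1 hc)) (fun w hw hl => by
          rcases hl' : (stB hGB bp bm).lab w with i' | m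
          · rw [hl'] at hl
            have e : i'.1 = i.1 := Sum.inl.inj hl
            rw [← e]
            exact htl w hw i' hl'
          · rw [hl'] at hl
            cases hl) hv
      exact ⟨h.2.2.1.le, h.2.2.2.le⟩)
    hw hl hp
  rw [hi] at g1 g2
  exact far_lev N bar m hx h1 h2 ha hy g1 g2

end s2

end Crest.Agent.R096.Afr_224
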