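import Crest.Agent.R096.Exa12_560
import Crest.Agent.R096.Sgd2_298

/-!
# R096 (row 96), DOORS / EXA part 13 (helper560): 298's `OddDoor` from 662's `Two`
-/

set_option autoImplicit false
set_option linter.unusedSectionVars false

namespace Crest.Agent.R096.Exa_560

open Crest.Agent.R096.St_147 Crest.Agent.R096.Seq_213 Crest.Agent.R096.SkB_662
  Crest.Agent.R096.Sgd_298

variable {ι Φ W J C : Type} {M : MeshC ι Φ W} {fam : J → C} {s : GSt M fam}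

/-- an interlaced pair gives the pair of the low ends -/
theorem xp_of_lace {F : Φ} {w x : W} {j j' : J} (hj : j ≠ j') (hw : s.At F w) (hwl : s.lab w = j)
    (hx : s.At F x) (hxl : s.lab x = j') (hL : M.Lace F w (s.mu F w) x (s.mu F x)) :
    ∃ w1 x1, XP s F j j' w1 x1 ∧ (w1 = w ∨ w1 = s.mu F w) ∧ (x1 = x ∨ x1 = s.mu F x) := by
  obtain ⟨w1, g1, g2, g3, g4, g5⟩ := low_exists hw
  obtain ⟨x1, k1, k2, k3, k4, k5⟩ := low_exists hx
  refine ⟨w1, x1, ⟨g1, k1, g2.trans hwl, k2.trans hxl, g4, k4, ?_⟩, g3, k3⟩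
  rw [g5]
  rcases k3 with h | h
  · rw [h]; exact hL
  · rw [h, s.mu_mu hx.1 hx.2, lace_swap_right]; exact hL

/-- **`OddDoor` from `Two`** -/
theorem oddDoor_of_two {j j' : J} (hj : j ≠ j') {g : ι} {A : Set ι} (h : Two s A {g} j j') :
    ∃ F₀ w₀ x₀, OddDoor s j j' g A F₀ w₀ x₀ := by
  obtain ⟨⟨F₀, w₀, x₀⟩, ⟨hX, hA, q, hq, hqg⟩, hu⟩ := h
  have hqg' : q = g := hqg
  rw [hqg'] at hq
  refine ⟨F₀, w₀, x₀, ⟨hq, hA, hX.ax, hX.lx, hX.ay, hX.ly, hX.lace, ?_⟩⟩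
  intro F w x hF hR hw hwl hx hxl hL
  obtain ⟨w1, x1, hX1, h1, h2⟩ := xp_of_lace hj hw hwl hx hxl hL
  have h3 := hu (F, w1, x1) ⟨hX1, hR, g, hF, rfl⟩
  simp only [Prod.mk.injEq] at h3
  obtain ⟨rfl, rfl, rfl⟩ := h3
  refine ⟨rfl, ?_, ?_⟩
  · rcases h1 with h | h
    · exact Or.inl h.symm
    · right; rw [h, s.mu_mu hw.1 hw.2]
  · rcases h2 with h | h
    · exact Or.inl h.symm
    · right; rw [h, s.mu_mu hx.1 hx.2]

/-- the converse -/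
theorem two_of_oddDoor {j j' : J} (hj : j ≠ j') {g : ι} {A : Set ι} {F₀ : Φ} {w₀ x₀ : W}
    (h : OddDoor s j j' g A F₀ w₀ x₀) : Two s A {g} j j' := by
  obtain ⟨w1, x1, hX1, h1, h2⟩ := xp_of_lace hj h.aw h.lw h.ax h.lx h.lace
  refine ⟨(F₀, w1, x1), ⟨hX1, h.reg, g, h.side, rfl⟩, ?_⟩
  rintro ⟨F, y, z⟩ ⟨hX, hA, q, hq, hqg⟩
  simp only at hX hA hq
  have hqg' : q = g := hqg
  rw [hqg'] at hq
  obtain ⟨hF, hy, hz⟩ := h.uniq F y z hq hA hX.ax hX.lx hX.ay hX.ly hX.lace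
  subst hF
  have e1 : y = w1 := by
    refine low_unique hX1.ax hX1.px hX.px ?_
    rcases h1 with h1 | h1
    · rw [h1]; exact hy
    · rw [h1, s.mu_mu h.aw.1 h.aw.2]; exact hy.symm
  have e2 : z = x1 := by
    refine low_unique hX1.ay hX1.py hX.py ?_
    rcases h2 with h2 | h2
    · rw [h2]; exact hz
    · rw [h2, s.mu_mu h.ax.1 h.ax.2]; exact hz.symm
  rw [e1, e2]

end Crest.Agent.R096.Exa_560
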