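import Crest.Agent.R096.Cb6_609

/-!
# R096 (row 96), ARR-GLUE (helper422): exchange of boundary parts along core pieces

* `Compl k`: a `k`-ball in a `(k+1)`-dimensional sphere has a complementary ball (`k = 0, 1, 2`).
* `sphere_all`: replace in a PL `k`-sphere `S` the `k`-balls `R c` by the `k`-balls `D c`
  (`BallPair k (V c) (D c) (R c) (Q c)`, `V c ∩ S = R c`, the `V c` disjoint): a sphere again.
* `ball_all`: a `(k+1)`-ball `M0` whose boundary is that sphere, `M0 ∩ V c = D c`: then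
  `M0 ∪ ⋃ V c` is a `(k+1)`-ball with boundary `S`.
-/

set_option autoImplicit false

open Set Metric

namespace Crest.Agent.R096.Glu_422

open Ce_537 Cb_609 Pl

/-- set theory of the exchange -/
theorem exch_eq {E : Type*} {S R R' D Q : Set E} (hu : R ∪ R' = S) (hi : R ∩ R' = Q)
    (hQ : Q ⊆ D) : (S \ R) ∪ D = R' ∪ D := by
  ext x
  constructor
  · rintro (⟨h1, h2⟩ | h)
    · rw [← hu] at h1
      exact Or.inl (h1.resolve_left h2)
    · exact Or.inr h
  · rintro (h | h)
    · by_cases hx : x ∈ R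
      · exact Or.inr (hQ (hi ▸ ⟨hx, h⟩))
      · exact Or.inl ⟨hu ▸ Or.inr h, hx⟩
    · exact Or.inr h

/-- the exchanged sphere -/
def exch {E : Type*} {ι : Type*} (s : Finset ι) (S : Set E) (D R : ι → Set E) : Set E :=
  (S \ ⋃ c ∈ s, R c) ∪ ⋃ c ∈ s, D c

theorem mem_exch {E : Type*} {ι : Type*} {s : Finset ι} {S : Set E} {D R : ι → Set E} {x : E} :
    x ∈ exch s S D R ↔ (x ∈ S ∧ ∀ c ∈ s, x ∉ R c) ∨ ∃ c ∈ s, x ∈ D c := by
  simp only [exch, mem_union, mem_sdiff, mem_iUnion, exists_prop, not_exists, not_and]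

section

variable {E : Type*} [NormedAddCommGroup E] [NormedSpace ℝ E] {k : ℕ}

/-- a `k`-ball in the boundary of the cube has a complementary ball -/
def Compl (k : ℕ) : Prop := ∀ R Q : Set (Fin (k + 1) → ℝ), IsBall k R Q → R ⊆ sph (k + 1) →
  ∃ R', IsBall k R' Q ∧ R ∪ R' = sph (k + 1) ∧ R ∩ R' = Q

theorem sphere_of_ball {M Γ : Set E} (h : IsBall (k + 1) M Γ) :
    Nonempty (PLEquiv (sph (k + 1)) Γ) := by
  obtain ⟨e, he⟩ := h
  have h1 := e.restrImage (A' := sph (k + 1)) sph_subset_cube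
  rw [he] at h1
  exact ⟨h1⟩

/-- the complementary ball in any sphere -/
theorem Compl.sphere (hC : Compl k) {S R Q : Set E} (hS : Nonempty (PLEquiv (sph (k + 1)) S))
    (hR : IsBall k R Q) (hRS : R ⊆ S) : ∃ R', IsBall k R' Q ∧ R ∪ R' = S ∧ R ∩ R' = Q := by
  obtain ⟨e⟩ := hS
  have hQR : Q ⊆ R := hR.subset
  have h1 : IsBall k (e.g '' R) (e.g '' Q) := hR.map (e.symm.restrImage hRS)
  have h2 : e.g '' R ⊆ sph (k + 1) := by
    rintro _ ⟨x, hx, rfl⟩; exact e.mg (hRS hx)
  obtain ⟨B, h3, h4, h5⟩ := hC _ _ h1 h2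
  have hBs : B ⊆ sph (k + 1) := by rw [← h4]; exact subset_union_right
  have back : ∀ A : Set E, A ⊆ S → e.f '' (e.g '' A) = A := by
    intro A hA
    rw [image_image]
    exact (image_congr fun x hx => e.ri x (hA hx)).trans (image_id' _)
  have h6 : IsBall k (e.f '' B) (e.f '' (e.g '' Q)) := h3.map (e.restrImage hBs)
  rw [back Q (hQR.trans hRS)] at h6
  refine ⟨e.f '' B, h6, ?_, ?_⟩
  · rw [← back R hRS, ← image_union, h4, e.image_eq]
  · rw [← back R hRS, ← e.injOn.image_inter h2 hBs, h5, back Q (hQR.trans hRS)]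

/-- the union of two balls with common boundary is a sphere -/
theorem sphere_union {A A' Q : Set E} (hA : IsBall k A Q) (hA' : IsBall k A' Q)
    (hi : A ∩ A' = Q) : Nonempty (PLEquiv (sph (k + 1)) (A ∪ A')) := by
  obtain ⟨e, -⟩ := exists_equiv_union (ballPair_dbl k) hA hA' hi
  obtain ⟨c⟩ := sphere_of_ball (ballPair_dbl k).ball
  exact ⟨c.trans e⟩

/-- **one exchange in a sphere** -/
theorem step_sphere (hC : Compl k) {S V D R Q : Set E}
    (hS : Nonempty (PLEquiv (sph (k + 1)) S)) (h : BallPair k V D R Q) (hVS : V ∩ S = R) :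
    Nonempty (PLEquiv (sph (k + 1)) ((S \ R) ∪ D)) := by
  have hRS : R ⊆ S := by rw [← hVS]; exact inter_subset_right
  obtain ⟨R', h1, h2, h3⟩ := hC.sphere hS h.ball₂ hRS
  have hQD : Q ⊆ D := h.ball₁.subset
  rw [exch_eq h2 h3 hQD]
  refine sphere_union h1 h.ball₁ ?_
  apply Subset.antisymm
  · rintro x ⟨hx, hxD⟩
    have hxS : x ∈ S := h2 ▸ Or.inr hx
    have hxR : x ∈ R := hVS ▸ ⟨h.subset₁ hxD, hxS⟩
    rw [← h3]; exact ⟨hxR, hx⟩
  · intro x hx
    exact ⟨h1.subset hx, hQD hx⟩

/-- **one exchange in a ball** -/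
theorem step_ball (hC : Compl k) {M Γ V D R Q : Set E} (hM : IsBall (k + 1) M Γ)
    (h : BallPair k V D R Q) (hDΓ : D ⊆ Γ) (hMV : M ∩ V = D) :
    IsBall (k + 1) (M ∪ V) ((Γ \ D) ∪ R) := by
  obtain ⟨D', h1, h2, h3⟩ := hC.sphere (sphere_of_ball hM) h.ball₁ hDΓ
  have hP : BallPair k M D D' Q := ⟨by rw [h2]; exact hM, h.ball₁, h1, h3⟩
  rw [exch_eq h2 h3 h.ball₂.subset]
  exact (hP.glue h hMV).ball

/-- a finite family of core pieces -/
structure Pieces (k : ℕ) {ι : Type*} (s : Finset ι) (S : Set E) (V D R Q : ι → Set E) : Prop where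
  pair : ∀ c ∈ s, BallPair k (V c) (D c) (R c) (Q c)
  inter : ∀ c ∈ s, V c ∩ S = R c
  disj : ∀ c ∈ s, ∀ c' ∈ s, c ≠ c' → Disjoint (V c) (V c')

variable {ι : Type*} {s : Finset ι} {S : Set E} {V D R Q : ι → Set E}

theorem Pieces.sub [DecidableEq ι] {a : ι} (h : Pieces k (insert a s) S V D R Q) :
    Pieces k s S V D R Q :=
  ⟨fun c hc => h.pair c (Finset.mem_insert_of_mem hc),
    fun c hc => h.inter c (Finset.mem_insert_of_mem hc),
    fun c hc c' hc' => h.disj c (Finset.mem_insert_of_mem hc) c' (Finset.mem_insert_of_mem hc')⟩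

/-- **the exchanged sphere is a sphere** -/
theorem sphere_all (hC : Compl k) (hS : Nonempty (PLEquiv (sph (k + 1)) S))
    (h : Pieces k s S V D R Q) : Nonempty (PLEquiv (sph (k + 1)) (exch s S D R)) := by
  classical
  induction s using Finset.induction_on with
  | empty =>
    have : exch (∅ : Finset ι) S D R = S := by
      ext x; rw [mem_exch]; simp
    rw [this]; exact hS
  | @insert a s ha ih =>
    have h1 := ih h.sub
    have hpa := h.pair a (Finset.mem_insert_self _ _)
    have hva := h.inter a (Finset.mem_insert_self _ _)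
    have hdis : ∀ c ∈ s, ∀ x, x ∈ V a → x ∉ V c := fun c hc x hx hx' =>
      disjoint_left.1 (h.disj a (Finset.mem_insert_self _ _) c (Finset.mem_insert_of_mem hc)
        (fun e => ha (e ▸ hc))) hx hx'
    have e1 : V a ∩ exch s S D R = R a := by
      ext x
      constructor
      · rintro ⟨hx, hx'⟩
        rw [← hva]
        rcases mem_exch.1 hx' with h2 | ⟨c, hc, h2⟩
        · exact ⟨hx, h2.1⟩
        · exact absurd ((h.pair c (Finset.mem_insert_of_mem hc)).subset₁ h2) (hdis c hc x hx)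
      · intro hx
        have hx' : x ∈ V a ∩ S := by rw [hva]; exact hx
        refine ⟨hx'.1, mem_exch.2 (Or.inl ⟨hx'.2, fun c hc hxc => ?_⟩)⟩
        exact hdis c hc x hx'.1 ((h.pair c (Finset.mem_insert_of_mem hc)).subset₂ hxc)
    have h2 := step_sphere hC h1 hpa e1
    have e2 : (exch s S D R \ R a) ∪ D a = exch (insert a s) S D R := by
      ext x
      simp only [mem_union, mem_sdiff, mem_exch, Finset.forall_mem_insert, Finset.exists_mem_insert]
      constructor
      · rintro (⟨(⟨h3, h4⟩ | h3), h5⟩ | h3)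
        · exact Or.inl ⟨h3, h5, h4⟩
        · exact Or.inr (Or.inr h3)
        · exact Or.inr (Or.inl h3)
      · rintro (⟨h3, h5, h4⟩ | h3 | h3)
        · exact Or.inl ⟨Or.inl ⟨h3, h4⟩, h5⟩
        · exact Or.inr h3
        · refine Or.inl ⟨Or.inr h3, fun h5 => ?_⟩
          obtain ⟨c, hc, h6⟩ := h3
          exact hdis c hc x (hpa.subset₂ h5) ((h.pair c (Finset.mem_insert_of_mem hc)).subset₁ h6)
    rw [e2] at h2
    exact h2

/-- **gluing of the core pieces** -/
theorem ball_all (hC : Compl k) {M0 : Set E} (h : Pieces k s S V D R Q)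
    (hM : IsBall (k + 1) M0 (exch s S D R)) (hMV : ∀ c ∈ s, M0 ∩ V c = D c) :
    IsBall (k + 1) (M0 ∪ ⋃ c ∈ s, V c) S := by
  classical
  induction s using Finset.induction_on generalizing M0 with
  | empty =>
    have e1 : exch (∅ : Finset ι) S D R = S := by
      ext x; rw [mem_exch]; simp
    rw [e1] at hM
    have e2 : M0 ∪ ⋃ c ∈ (∅ : Finset ι), V c = M0 := by simp
    rw [e2]; exact hM
  | @insert a s ha ih =>
    have hpa := h.pair a (Finset.mem_insert_self _ _)
    have hva := h.inter a (Finset.mem_insert_self _ _)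
    have hdis : ∀ c ∈ s, ∀ x, x ∈ V a → x ∉ V c := fun c hc x hx hx' =>
      disjoint_left.1 (h.disj a (Finset.mem_insert_self _ _) c (Finset.mem_insert_of_mem hc)
        (fun e => ha (e ▸ hc))) hx hx'
    have hsub : D a ⊆ exch (insert a s) S D R := fun x hx =>
      mem_exch.2 (Or.inr ⟨a, Finset.mem_insert_self _ _, hx⟩)
    have h2 := step_ball hC hM hpa hsub (hMV a (Finset.mem_insert_self _ _))
    have e2 : (exch (insert a s) S D R \ D a) ∪ R a = exch s S D R := by
      ext x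
      simp only [mem_union, mem_sdiff, mem_exch, Finset.forall_mem_insert, Finset.exists_mem_insert]
      constructor
      · rintro (⟨(⟨h3, h4, h5⟩ | h3 | h3), h6⟩ | h3)
        · exact Or.inl ⟨h3, h5⟩
        · exact absurd h3 h6
        · exact Or.inr h3
        · have hx' : x ∈ V a ∩ S := by rw [hva]; exact h3
          exact Or.inl ⟨hx'.2, fun c hc hxc => hdis c hc x hx'.1
            ((h.pair c (Finset.mem_insert_of_mem hc)).subset₂ hxc)⟩
      · rintro (⟨h3, h4⟩ | h3)
        · by_cases hx : x ∈ R a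
          · exact Or.inr hx
          · refine Or.inl ⟨Or.inl ⟨h3, hx, h4⟩, fun h5 => hx ?_⟩
            rw [← hva]; exact ⟨hpa.subset₁ h5, h3⟩
        · refine Or.inl ⟨Or.inr (Or.inr h3), fun h5 => ?_⟩
          obtain ⟨c, hc, h6⟩ := h3
          exact hdis c hc x (hpa.subset₁ h5) ((h.pair c (Finset.mem_insert_of_mem hc)).subset₁ h6)
    rw [e2] at h2
    have h3 := ih (M0 := M0 ∪ V a) h.sub h2 (fun c hc => by
      rw [union_inter_distrib_right, hMV c (Finset.mem_insert_of_mem hc)]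
      have : V a ∩ V c = ∅ := by
        rw [← disjoint_iff_inter_eq_empty]
        exact h.disj a (Finset.mem_insert_self _ _) c (Finset.mem_insert_of_mem hc)
          (fun e => ha (e ▸ hc))
      rw [this, union_empty])
    rw [Finset.set_biUnion_insert, ← union_assoc]
    exact h3

end

/-! ### the complementary ball in dimensions 0, 1, 2 -/

section dims

variable {E : Type*} [NormedAddCommGroup E] [NormedSpace ℝ E]

theorem ball_zero {R Q : Set E} (h : IsBall 0 R Q) : ∃ r, R = {r} ∧ Q = ∅ := by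
  obtain ⟨e, he⟩ := h
  have h1 : cube 0 = {0} := by
    ext x
    simp only [mem_closedBall, mem_singleton_iff]
    exact ⟨fun _ => Subsingleton.elim _ _, fun h => by rw [h, dist_self]; exact zero_le_one⟩
  have h2 : sph 0 = ∅ := by
    ext x
    simp only [mem_sphere, mem_empty_iff_false, iff_false]
    rw [Subsingleton.elim x 0, dist_self]
    exact zero_ne_one
  have h3 : ∀ A : Set (Fin 0 → ℝ), A = {0} → e.f '' A = {e.f 0} := by
    rintro A rfl; exact image_singleton
  have h4 : ∀ A : Set (Fin 0 → ℝ), A = ∅ → e.f '' A = ∅ := by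
    rintro A rfl; exact image_empty _
  exact ⟨e.f 0, e.image_eq.symm.trans (h3 _ h1), he.symm.trans (h4 _ h2)⟩

theorem ball_one {R Q : Set E} (h : IsBall 1 R Q) : ∃ p q, Q = {p, q} := by
  obtain ⟨e, he⟩ := h
  rw [sph_one, image_pair] at he
  exact ⟨_, _, he.symm⟩

theorem compl_zero : Compl 0 := by
  intro R Q hR hRS
  obtain ⟨r, rfl, rfl⟩ := ball_zero hR
  have hr : r ∈ sph 1 := hRS rfl
  rw [sph_one] at hr
  have hne : (fun _ => (-1 : ℝ) : Fin 1 → ℝ) ≠ fun _ => (1 : ℝ) := by
    intro e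
    have := congrFun e 0
    norm_num at this
  rcases hr with rfl | hr
  · refine ⟨{fun _ => (1:ℝ)}, isBall_point _, ?_, ?_⟩
    · rw [sph_one]; rfl
    · rw [singleton_inter_eq_empty]; exact hne
  · rw [mem_singleton_iff] at hr
    subst hr
    refine ⟨{fun _ => (-1:ℝ)}, isBall_point _, ?_, ?_⟩
    · rw [sph_one, union_comm]; rfl
    · rw [singleton_inter_eq_empty]; exact hne.symm

theorem compl_one : Compl 1 := by
  intro R Q hR hRS
  obtain ⟨p, q, rfl⟩ := ball_one hR
  obtain ⟨B, h1, h2⟩ := exists_compl_arc (isBall_cube 2) hR hRS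
  exact ⟨B, h1.ball₂, h2, h1.inter⟩

theorem compl_two : Compl 2 := by
  intro R Q hR hRS
  obtain ⟨B, h1, h2⟩ := exists_compl_disc (isBall_cube 3) hR hRS
  exact ⟨B, h1.ball₂, h2, h1.inter⟩

end dims

end Crest.Agent.R096.Glu_422
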