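import Crest.Agent.R096.Shg4_334
import Crest.Agent.R096.Glu1_422

/-!
# R096 (row 96), (R4), part 17: the circle of a sheet on the boundary of a core (helper778)

* **`circ_giant`** : with the cores as giant cells (helper334), a sheet which has a piece on the
  boundary `S` of a core cuts `S` in a PL circle.
-/

set_option autoImplicit false
set_option linter.unusedSectionVars false

open Set Metric

namespace Crest.Agent.R096.Arc_778

open Crest.Agent.R096.Ce_537 Crest.Agent.R096.Bd_416 Crest.Agent.R096.Shp_334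
  Crest.Agent.R096.Seq_213 Crest.Agent.R096.St_147 Crest.Agent.R096.Shg_334 Crest.Agent.R096.Pl

variable {Q 𝒢 : Type} [PartialOrder Q] {dim : Q → ℕ} {J Fam : Type}
variable {E : Type*} [NormedAddCommGroup E] [NormedSpace ℝ E]
variable {C : Cmb Q dim J Fam} {K : Q → Set E} {g : Gd E J}
  {P : ∀ q, C.I q → Set E} {c : ∀ q, C.I q → E → ℝ} {j : J} {B : BdD Q 𝒢}
  {Kt : 𝒢 → Set E} {Ω0 Ω : Set E}
variable {ι Φ W : Type} {M : MeshC ι Φ W} {fam : J → Fam} {s : GSt M fam} {cf : Φ → Q}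
  {ord : ι → Prop} {tl : 𝒢 → ι}

/-- **the circle of a sheet on the boundary of a core** -/
theorem circ_giant [FiniteDimensional ℝ E] (H : Inv C K univ g P c) (X : Cplx Ω0 Q dim K)
    (G : GC Ω0 Ω dim K B Kt) (hB : Bls C K c j) (D : DicO C s j cf ord)
    (Gn : Gnt s j dim cf ord B tl) (k : 𝒢) (hne : ∃ q ∈ B.bq k, ∃ x : C.I q, C.col q x = j) :
    Nonempty (PLEquiv (sph 2) {z | z ∈ (⋃ q ∈ B.bq k, K q) ∧ g.G j z = 1/2}) := by
  classical
  obtain ⟨o, O⟩ := exists_GO (j := j) H X G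
  obtain ⟨g1, P1, c1, F⟩ := exists_fill H X G O
  have hL : ∀ (k : 𝒢) (x : (cmbG O).I (.big k)), Loop (cmbG O) (.big k) x :=
    fun k x => loopG D Gn O k x
  have X1 := cplxG X G
  have hE : ∀ e : GQ B, e ∈ OldS B → dimG B dim e = 1 → EdgeG (KG B K Kt e) (c1 e) := by
    rintro _ ⟨e, rfl⟩ he
    have he' : dim e = 1 := he
    constructor
    · intro x
      obtain ⟨z, hz⟩ := exists_pt (c := c) (K := K) hB ⟨⟨e, x.1⟩, he', x.2⟩
      exact ⟨z, (F.zer_old e x).trans hz⟩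
    · intro x x' hne
      refine disjoint_left.2 fun z hz hz' => hne ?_
      exact Zr_unique F.inv (q := .old e) rfl hz hz'
  have hF : ∀ f : GQ B, f ∈ OldS B → dimG B dim f = 2 → ∀ y,
      IsBall 1 (Zer (KG B K Kt f) (c1 f) y) (Gam (bdS (KG B K Kt) f) (c1 f) y) := by
    rintro _ ⟨f, rfl⟩ hf y
    have hf' : dim f = 2 := hf
    have h1 := hB f (by omega) y.1 y.2
    rw [hf'] at h1
    have e1 : Zer (K f) (c1 (.old f)) y = Zr c K f y.1 := F.zer_old f y
    have e2 : Gam (bdS (KG B K Kt) (.old f)) (c1 (.old f)) y = Zr c K f y.1 ∩ bdS K f := by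
      rw [bdS_old]
      ext z
      constructor
      · rintro ⟨h2, h3⟩
        have h4 : z ∈ K f := bdS_sub X h2
        exact ⟨⟨h4, (F.old f y z h4).1 h3⟩, h2⟩
      · rintro ⟨⟨h2, h3⟩, h4⟩
        exact ⟨h4, (F.old f y z h2).2 h3⟩
    show IsBall 1 (Zer (KG B K Kt (.old f)) (c1 (.old f)) y) _
    rw [e2]
    change IsBall 1 (Zer (K f) (c1 (.old f)) y) _
    rw [e1]
    exact h1
  have hold : ∀ e : GQ B, e < .big k → e ∈ OldS B := by
    intro e he
    cases e with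
    | old e => exact ⟨e, rfl⟩
    | big c => exact absurd he not_big_lt
  have hd : dimG B dim (.big k : GQ B) = 3 := rfl
  let x : (cmbG O).I (.big k) := PLift.up hne
  obtain ⟨e⟩ := circle_of_loop F.inv X1 hd (fun e he hde => hE e (hold e he) hde)
    (fun f hf hdf => hF f (hold f hf) hdf) (hL k x)
  obtain ⟨e0⟩ := Glu_422.sphere_of_ball Cb_609.isBall_plane
  have hset : Gam (bdS (KG B K Kt) (.big k)) (c1 (.big k)) x =
      {z | z ∈ (⋃ q ∈ B.bq k, K q) ∧ g.G j z = 1/2} := by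
    ext z
    have hkey : z ∈ (⋃ q ∈ B.bq k, K q) → (c1 (.big k) x z = 0 ↔ g.G j z = 1/2) := by
      intro hz
      obtain ⟨q, hq, hzq⟩ := mem_iUnion₂.1 hz
      have hzk : z ∈ KG B K Kt (.big k) := bdS_sub X1 (by rw [bdS_big]; exact hz)
      rw [← F.half H hzq, half_iff F.inv (q := .big k) (j := ()) hzk]
      constructor
      · intro h
        exact ⟨x, rfl, hzk, h⟩
      · rintro ⟨y, -, hy⟩
        have : x = y := gi_big_subsingleton _ _
        rw [this]; exact hy.2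
    constructor
    · rintro ⟨h1, h2⟩
      rw [bdS_big] at h1
      exact ⟨h1, (hkey h1).1 h2⟩
    · rintro ⟨h1, h2⟩
      refine ⟨?_, (hkey h1).2 h2⟩
      rw [bdS_big]; exact h1
  rw [← hset]
  exact ⟨e0.trans e⟩

/-- the same from a point of the sheet on a face of the core tile -/
theorem circ_giant' [FiniteDimensional ℝ E] (H : Inv C K univ g P c) (X : Cplx Ω0 Q dim K)
    (G : GC Ω0 Ω dim K B Kt) (hB : Bls C K c j) (D : DicO C s j cf ord)
    (Gn : Gnt s j dim cf ord B tl) (k : 𝒢) (hp : ∃ F w, tl k ∈ M.side F ∧ s.At F w ∧ s.lab w = j) :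
    Nonempty (PLEquiv (sph 2) {z | z ∈ (⋃ q ∈ B.bq k, K q) ∧ g.G j z = 1/2}) := by
  obtain ⟨F, w, h1, h2, h3⟩ := hp
  refine circ_giant H X G hB D Gn k ?_
  obtain ⟨y, hy⟩ := D.ch_ex F w h2 h3
  have h4 := D.ch_cf F w y hy
  refine ⟨cf F, (Gn.side k F).2 h1, ?_⟩
  rw [← h4]
  exact ⟨y.1.2, y.2.2⟩

end Crest.Agent.R096.Arc_778
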