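import Crest.Agent.R096.Ex1_914

/-!
# R096 (row 96), P2-GEN (EXIST), piece L3 of (X3) (helper702): small unit cubes meet one plane
-/

set_option autoImplicit false

open Set Metric Topology

namespace Crest.Agent.R096.Ex3_702

open Msh_715 Gp_702 Ex_914

/-- scaled box -/
def sb (m : ℕ) (b : Bx) : Bx := (fun j => (m : ℤ) * b.1 j, fun j => (m : ℤ) * b.2 j)

theorem mem_sb {m : ℕ} (hm : 0 < m) {b : Bx} {y : E3} :
    y ∈ zcl (sb m b).1 (sb m b).2 ↔ (m : ℝ)⁻¹ • y ∈ zcl b.1 b.2 := by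
  have hm' : (0 : ℝ) < m := by exact_mod_cast hm
  have key : ∀ j, (((((sb m b).1 j : ℤ) : ℝ) ≤ y j ∧ y j ≤ (((sb m b).2 j : ℤ) : ℝ)) ↔
      ((b.1 j : ℝ) ≤ ((m : ℝ)⁻¹ • y) j ∧ ((m : ℝ)⁻¹ • y) j ≤ (b.2 j : ℝ))) := by
    intro j
    have e1 : (((sb m b).1 j : ℤ) : ℝ) = m * (b.1 j : ℝ) := by
      simp only [sb, Int.cast_mul, Int.cast_natCast]
    have e2 : (((sb m b).2 j : ℤ) : ℝ) = m * (b.2 j : ℝ) := by
      simp only [sb, Int.cast_mul, Int.cast_natCast]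
    have e3 : ((m : ℝ)⁻¹ • y) j = y j / m := by
      show (m : ℝ)⁻¹ * y j = _
      rw [inv_mul_eq_div]
    rw [e1, e2, e3, le_div_iff₀' hm', div_le_iff₀' hm']
  exact forall_congr' key

theorem ev_scl' {m : ℕ} (hm : 0 < m) (f : Af) (y : E3) :
    ev (f.1, (m : ℝ) * f.2) y = m * ev f ((m : ℝ)⁻¹ • y) := by
  have hm' : (m : ℝ) ≠ 0 := by exact_mod_cast hm.ne'
  rw [← ev_scl, smul_smul, mul_inv_cancel₀ hm', one_smul]

theorem ev_scl_zero {m : ℕ} (hm : 0 < m) (f : Af) (y : E3) :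
    ev (f.1, (m : ℝ) * f.2) y = 0 ↔ ev f ((m : ℝ)⁻¹ • y) = 0 := by
  have hm' : (m : ℝ) ≠ 0 := by exact_mod_cast hm.ne'
  rw [ev_scl' hm, mul_eq_zero, or_iff_right hm']

theorem continuous_ev (f : Af) : Continuous (ev f) := by
  unfold ev
  fun_prop

/-- Lebesgue number: near every point of the big cube outside the macros all functions which
vanish are proportional -/
theorem lebesgue {F : Finset Af} {U : Set E3} {K : ℝ} (hU : IsOpen U)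
    (hc : ∀ f ∈ F, ∀ g ∈ F, ∀ x : E3, ev f x = 0 → ev g x = 0 →
      (∃ c : ℝ, c ≠ 0 ∧ g.1 = c • f.1 ∧ g.2 = c * f.2) ∨ (|x 2| ≤ K → x ∈ U)) :
    ∃ δ > 0, ∀ y : E3, (∀ j, |y j| ≤ K) → y ∉ U → ∀ f ∈ F, ∀ g ∈ F,
      (∃ w ∈ ball y δ, ev f w = 0) → (∃ w ∈ ball y δ, ev g w = 0) →
      ∃ c : ℝ, c ≠ 0 ∧ g.1 = c • f.1 ∧ g.2 = c * f.2 := by
  set C : Set E3 := {y | ∀ j, |y j| ≤ K} \ U with hC
  have hCc : IsCompact C := by
    have h1 : IsCompact (Icc (fun _ => -K : E3) (fun _ => K)) := isCompact_Icc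
    refine h1.of_isClosed_subset ?_ ?_
    · refine IsClosed.sdiff ?_ hU
      have : {y : E3 | ∀ j, |y j| ≤ K} = ⋂ j, {y : E3 | |y j| ≤ K} := by
        ext y; simp
      rw [this]
      exact isClosed_iInter fun j => isClosed_le (by fun_prop) continuous_const
    · rintro y ⟨hy, -⟩
      exact ⟨fun j => (abs_le.1 (hy j)).1, fun j => (abs_le.1 (hy j)).2⟩
  have hloc : ∀ x : E3, ∃ V : Set E3, IsOpen V ∧ x ∈ V ∧
      ∀ f ∈ F, ev f x ≠ 0 → ∀ w ∈ V, ev f w ≠ 0 := by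
    intro x
    have h1 : ∀ᶠ w in 𝓝 x, ∀ f ∈ F, ev f x ≠ 0 → ev f w ≠ 0 := by
      rw [Filter.eventually_all_finset]
      intro f _
      by_cases h : ev f x = 0
      · exact Filter.Eventually.of_forall fun w h' => absurd h h'
      · exact ((continuous_ev f).continuousAt.eventually_ne h).mono fun w hw _ => hw
    obtain ⟨V, hV1, hV2, hV3⟩ := _root_.mem_nhds_iff.1 h1
    exact ⟨V, hV2, hV3, fun f hf hfx w hw => hV1 hw f hf hfx⟩
  choose V hVo hVx hV using hloc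
  obtain ⟨δ', hδ', hL'⟩ := lebesgue_number_lemma_of_metric (s := C)
    (c := fun x : C => V x) hCc (fun x => hVo x) (fun x hx => mem_iUnion.2 ⟨⟨x, hx⟩, hVx x⟩)
  refine ⟨δ', hδ', ?_⟩
  rintro y hy hyU f hf g hg ⟨w, hw, hfw⟩ ⟨w', hw', hgw⟩
  obtain ⟨⟨x, hxC⟩, hx⟩ := hL' y ⟨hy, hyU⟩
  have h1 : ev f x = 0 := by
    by_contra h
    exact hV x f hf h w (hx hw) hfw
  have h2 : ev g x = 0 := by
    by_contra h
    exact hV x g hg h w' (hx hw') hgw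
  rcases hc f hf g hg x h1 h2 with h | h
  · exact h
  · exact absurd (h (hxC.1 2)) hxC.2

/-- **(L3)** -/
theorem small_of {F : Finset Af} {M : Finset Bx} {K : ℝ} (h0 : Mac0 F M)
    (_hne : ∀ f ∈ F, f.1 ≠ 0)
    (hc : ∀ f ∈ F, ∀ g ∈ F, ∀ x : E3, ev f x = 0 → ev g x = 0 →
      (∃ c : ℝ, c ≠ 0 ∧ g.1 = c • f.1 ∧ g.2 = c * f.2) ∨
        (|x 2| ≤ K + 1 → x ∈ interior (⋃ b ∈ M, zcl b.1 b.2))) :
    ∃ m : ℕ, 0 < m ∧ Mac (scl m F)
      (by classical exact M.image fun b => (fun j => (m : ℤ) * b.1 j, fun j => (m : ℤ) * b.2 j))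
      (m * K) := by
  classical
  obtain ⟨δ, hδ, hL⟩ := lebesgue (F := F) (K := K + 1) isOpen_interior hc
  obtain ⟨m, hm⟩ := exists_nat_gt (max 1 δ⁻¹)
  have hm1 : (1 : ℝ) < m := lt_of_le_of_lt (le_max_left _ _) hm
  have hm' : (0 : ℝ) < m := by linarith
  have hm0 : 0 < m := by exact_mod_cast hm'
  have hmZ : (0 : ℤ) < m := by exact_mod_cast hm0
  have hmδ : 1 / (m : ℝ) < δ := by
    rw [one_div]
    exact inv_lt_of_inv_lt₀ hδ (lt_of_le_of_lt (le_max_right _ _) hm)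
  refine ⟨m, hm0, ?_⟩
  have himg : ∀ b', b' ∈ M.image (fun b : Bx => ((fun j => (m : ℤ) * b.1 j,
      fun j => (m : ℤ) * b.2 j) : Bx)) → ∃ b ∈ M, b' = sb m b := by
    intro b' hb'
    obtain ⟨b, hb, rfl⟩ := Finset.mem_image.1 hb'
    exact ⟨b, hb, rfl⟩
  have hsF : ∀ f', f' ∈ scl m F → ∃ f ∈ F, f' = (f.1, (m : ℝ) * f.2) := by
    intro f' hf'
    obtain ⟨f, hf, rfl⟩ := Finset.mem_image.1 hf'
    exact ⟨f, hf, rfl⟩
  refine ⟨?_, ?_, ?_, ?_, ?_, ?_⟩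
  · intro b' hb' j
    obtain ⟨b, hb, rfl⟩ := himg b' hb'
    exact mul_lt_mul_of_pos_left (h0.nd b hb j) hmZ
  · intro b1 hb1 b2 hb2 hne
    obtain ⟨b, hb, rfl⟩ := himg b1 hb1
    obtain ⟨c, hc', rfl⟩ := himg b2 hb2
    obtain ⟨j, hj⟩ := h0.dis b hb c hc' (fun e => hne (by rw [e]))
    refine ⟨j, ?_⟩
    rcases hj with hj | hj
    · exact Or.inl (mul_le_mul_of_nonneg_left hj hmZ.le)
    · exact Or.inr (mul_le_mul_of_nonneg_left hj hmZ.le)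
  · intro b' hb'
    obtain ⟨b, hb, rfl⟩ := himg b' hb'
    obtain ⟨z, hz, hzf⟩ := h0.big b hb
    refine ⟨(m : ℝ) • z, fun j => ?_, ?_⟩
    · have := hz j
      simp only [sb, Int.cast_mul, Int.cast_natCast, Pi.smul_apply, smul_eq_mul]
      exact ⟨mul_lt_mul_of_pos_left this.1 hm', mul_lt_mul_of_pos_left this.2 hm'⟩
    · intro f' hf' ⟨y, hy, hfy⟩
      obtain ⟨f, hf, rfl⟩ := hsF f' hf'
      rw [ev_scl, hzf f hf ⟨_, (mem_sb hm0).1 hy, (ev_scl_zero hm0 f y).1 hfy⟩, mul_zero]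
  · intro b1 hb1 b2 hb2 hne hint
    obtain ⟨b, hb, rfl⟩ := himg b1 hb1
    obtain ⟨c, hc', rfl⟩ := himg b2 hb2
    obtain ⟨y, hy1, hy2⟩ := hint
    obtain ⟨j, z, d, hz, hj, hd, hf⟩ := h0.pair b hb c hc' (fun e => hne (by rw [e]))
      ⟨_, (mem_sb hm0).1 hy1, (mem_sb hm0).1 hy2⟩
    refine ⟨j, (m : ℝ) • z, d, fun i hi => ?_, ?_, hd, ?_⟩
    · obtain ⟨⟨h1, h2⟩, h3, h4⟩ := hz i hi
      simp only [sb, Int.cast_mul, Int.cast_natCast, Pi.smul_apply, smul_eq_mul]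
      exact ⟨⟨mul_lt_mul_of_pos_left h1 hm', mul_lt_mul_of_pos_left h2 hm'⟩,
        mul_lt_mul_of_pos_left h3 hm', mul_lt_mul_of_pos_left h4 hm'⟩
    · simp only [sb, Int.cast_mul, Int.cast_natCast, Pi.smul_apply, smul_eq_mul]
      rcases hj with ⟨h1, h2⟩ | ⟨h1, h2⟩
      · exact Or.inl ⟨by rw [h1], by rw [h2]⟩
      · exact Or.inr ⟨by rw [h1], by rw [h2]⟩
    · intro f' hf' ⟨y, hy, hfy⟩
      obtain ⟨f, hfF, rfl⟩ := hsF f' hf'
      obtain ⟨h1, h2⟩ := hf f hfF ⟨_, ⟨(mem_sb hm0).1 hy.1, (mem_sb hm0).1 hy.2⟩,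
        (ev_scl_zero hm0 f y).1 hfy⟩
      refine ⟨?_, h2⟩
      rw [ev_scl, h1, mul_zero]
  · intro b1 hb1 b2 hb2 b3 hb3 n12 n23 n13
    obtain ⟨b, hb, rfl⟩ := himg b1 hb1
    obtain ⟨c, hc', rfl⟩ := himg b2 hb2
    obtain ⟨d, hd, rfl⟩ := himg b3 hb3
    have := h0.triple b hb c hc' d hd (fun e => n12 (by rw [e])) (fun e => n23 (by rw [e]))
      (fun e => n13 (by rw [e]))
    rw [eq_empty_iff_forall_notMem]
    rintro y ⟨⟨hy1, hy2⟩, hy3⟩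
    rw [eq_empty_iff_forall_notMem] at this
    exact this _ ⟨⟨(mem_sb hm0).1 hy1, (mem_sb hm0).1 hy2⟩, (mem_sb hm0).1 hy3⟩
  · intro l hl hlK f' hf' g' hg' ⟨y, hy, hfy⟩ ⟨y', hy', hgy⟩
    obtain ⟨f, hf, rfl⟩ := hsF f' hf'
    obtain ⟨g, hg, rfl⟩ := hsF g' hg'
    -- the centre
    let ctr : E3 := fun j => ((l j : ℝ) + 1 / 2) / m
    have hctrU : ctr ∉ interior (⋃ b ∈ M, zcl b.1 b.2) := by
      intro hin
      have h1 := interior_subset hin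
      simp only [mem_iUnion, exists_prop] at h1
      obtain ⟨b, hb, hbc⟩ := h1
      apply hl (sb m b) (Finset.mem_image_of_mem _ hb)
      intro j
      obtain ⟨h2, h3⟩ := hbc j
      have h4 : (m : ℝ) * (b.1 j : ℝ) ≤ (l j : ℝ) + 1 / 2 := by
        have h2' : (b.1 j : ℝ) ≤ ((l j : ℝ) + 1 / 2) / m := h2
        rwa [le_div_iff₀' hm'] at h2'
      have h5 : (l j : ℝ) + 1 / 2 ≤ (m : ℝ) * (b.2 j : ℝ) := by
        have h3' : ((l j : ℝ) + 1 / 2) / m ≤ (b.2 j : ℝ) := h3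
        rwa [div_le_iff₀' hm'] at h3'
      have h6 : ((m : ℤ) * b.1 j : ℤ) < l j + 1 := by
        have : (((m : ℤ) * b.1 j : ℤ) : ℝ) < ((l j + 1 : ℤ) : ℝ) := by
          push_cast; linarith
        exact_mod_cast this
      have h7 : l j < ((m : ℤ) * b.2 j : ℤ) := by
        have : ((l j : ℤ) : ℝ) < (((m : ℤ) * b.2 j : ℤ) : ℝ) := by
          push_cast; linarith
        exact_mod_cast this
      show (m : ℤ) * b.1 j ≤ l j ∧ l j + 1 ≤ (m : ℤ) * b.2 j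
      omega
    have hctrK : ∀ j, |ctr j| ≤ K + 1 := by
      intro j
      have h1 := hlK j
      have h2 : |ctr j| = |(l j : ℝ) + 1 / 2| / m := by
        show |((l j : ℝ) + 1 / 2) / m| = _
        rw [abs_div, abs_of_pos hm']
      rw [h2, div_le_iff₀ hm']
      have h3 : |(l j : ℝ) + 1 / 2| ≤ |(l j : ℝ)| + 1 / 2 := by
        refine (abs_add_le _ _).trans ?_
        rw [abs_of_pos (by norm_num : (0 : ℝ) < 1 / 2)]
      nlinarith
    have hball : ∀ w : E3, w ∈ zcl l (fun j => l j + 1) → (m : ℝ)⁻¹ • w ∈ ball ctr δ := by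
      intro w hw
      rw [mem_ball, dist_pi_lt_iff hδ]
      intro j
      obtain ⟨h1, h2⟩ := hw j
      have h3 : dist (((m : ℝ)⁻¹ • w) j) (ctr j) = |w j - ((l j : ℝ) + 1 / 2)| / m := by
        rw [Real.dist_eq]
        show |(m : ℝ)⁻¹ * w j - ((l j : ℝ) + 1 / 2) / m| = _
        rw [inv_mul_eq_div, ← sub_div, abs_div, abs_of_pos hm']
      rw [h3]
      have h4 : |w j - ((l j : ℝ) + 1 / 2)| ≤ 1 := by
        push_cast at h2
        rw [abs_le]; constructor <;> linarith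
      calc |w j - ((l j : ℝ) + 1 / 2)| / m ≤ 1 / m := by gcongr
        _ < δ := hmδ
    obtain ⟨c, hc0, hc1, hc2⟩ := hL ctr hctrK hctrU f hf g hg
      ⟨_, hball y hy, (ev_scl_zero hm0 f y).1 hfy⟩ ⟨_, hball y' hy', (ev_scl_zero hm0 g y').1 hgy⟩
    refine ⟨c, hc0, hc1, ?_⟩
    show (m : ℝ) * g.2 = c * ((m : ℝ) * f.2)
    rw [hc2]; ring

end Crest.Agent.R096.Ex3_702
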