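import Crest.Agent.R096.Ex1_914

/-!
# R096 (row 96), P2-GEN, EXIST, (L1) (helper451): the lines of an arrangement in general position
-/

set_option autoImplicit false

open Set Topology Filter Metric Module

namespace Crest.Agent.R096.Ex_914

open Gp_702

theorem lin_eq (φ : E3 →L[ℝ] ℝ) (v : E3) :
    φ v = v 0 * φ (Pi.single 0 1) + v 1 * φ (Pi.single 1 1) + v 2 * φ (Pi.single 2 1) := by
  have h : v = v 0 • (Pi.single 0 1 : E3) + v 1 • (Pi.single 1 1 : E3) +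
      v 2 • (Pi.single 2 1 : E3) := by
    funext k
    fin_cases k <;> simp
  conv_lhs => rw [h]
  simp only [map_add, map_smul, smul_eq_mul]

/-- Cramer's rule for the intersection line of two planes -/
noncomputable def crm (f g : Af) : Ln :=
  (![(-f.2 * g.1 (Pi.single 1 1) + g.2 * f.1 (Pi.single 1 1)) /
      (f.1 (Pi.single 0 1) * g.1 (Pi.single 1 1) - f.1 (Pi.single 1 1) * g.1 (Pi.single 0 1)),
     (-g.2 * f.1 (Pi.single 0 1) + f.2 * g.1 (Pi.single 0 1)) /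
      (f.1 (Pi.single 0 1) * g.1 (Pi.single 1 1) - f.1 (Pi.single 1 1) * g.1 (Pi.single 0 1)), 0],
   ![(-f.1 (Pi.single 2 1) * g.1 (Pi.single 1 1) + g.1 (Pi.single 2 1) * f.1 (Pi.single 1 1)) /
      (f.1 (Pi.single 0 1) * g.1 (Pi.single 1 1) - f.1 (Pi.single 1 1) * g.1 (Pi.single 0 1)),
     (-g.1 (Pi.single 2 1) * f.1 (Pi.single 0 1) + f.1 (Pi.single 2 1) * g.1 (Pi.single 0 1)) /
      (f.1 (Pi.single 0 1) * g.1 (Pi.single 1 1) - f.1 (Pi.single 1 1) * g.1 (Pi.single 0 1)), 1])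

theorem eq_crm {f g : Af} {x : E3} (hf : ev f x = 0) (hg : ev g x = 0)
    (hD : f.1 (Pi.single 0 1) * g.1 (Pi.single 1 1) - f.1 (Pi.single 1 1) * g.1 (Pi.single 0 1) ≠ 0) :
    x = pt (crm f g) (x 2) := by
  unfold ev at hf hg
  rw [lin_eq] at hf hg
  set f0 := f.1 (Pi.single 0 1)
  set f1 := f.1 (Pi.single 1 1)
  set f2 := f.1 (Pi.single 2 1)
  set g0 := g.1 (Pi.single 0 1)
  set g1 := g.1 (Pi.single 1 1)
  set g2 := g.1 (Pi.single 2 1)
  funext k
  fin_cases k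
  · show x 0 = (-f.2 * g1 + g.2 * f1) / (f0 * g1 - f1 * g0) +
      x 2 * ((-f2 * g1 + g2 * f1) / (f0 * g1 - f1 * g0))
    rw [← mul_div_assoc, ← add_div, eq_div_iff hD]
    linear_combination g1 * hf - f1 * hg
  · show x 1 = (-g.2 * f0 + f.2 * g0) / (f0 * g1 - f1 * g0) +
      x 2 * ((-g2 * f0 + f2 * g0) / (f0 * g1 - f1 * g0))
    rw [← mul_div_assoc, ← add_div, eq_div_iff hD]
    linear_combination f0 * hg - g0 * hf
  · show x 2 = 0 + x 2 * 1
    ring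

/-- **(L1)** the lines -/
theorem lines {F : Finset Af} (hF : Gen F) : ∃ L : Finset Ln, (∀ u ∈ L, u.1 2 = 0) ∧
    (∀ u ∈ L, u.2 2 = 1) ∧ ∀ f ∈ F, ∀ g ∈ F, ∀ x : E3, ev f x = 0 → ev g x = 0 →
      (∃ c : ℝ, c ≠ 0 ∧ g.1 = c • f.1 ∧ g.2 = c * f.2) ∨ ∃ u ∈ L, x = pt u (x 2) := by
  classical
  refine ⟨(F ×ˢ F).image fun p => crm p.1 p.2, ?_, ?_, ?_⟩
  · intro u hu
    obtain ⟨p, -, rfl⟩ := Finset.mem_image.1 hu
    rfl
  · intro u hu
    obtain ⟨p, -, rfl⟩ := Finset.mem_image.1 hu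
    rfl
  · intro f hf g hg x hx hy
    by_cases hD : f.1 (Pi.single 0 1) * g.1 (Pi.single 1 1) -
        f.1 (Pi.single 1 1) * g.1 (Pi.single 0 1) = 0
    · left
      obtain ⟨c, hc⟩ := hF.hor f hf g hg (sub_eq_zero.1 hD)
      have hc0 : c ≠ 0 := by
        rintro rfl
        rw [zero_smul] at hc
        exact hF.ne g hg hc
      refine ⟨c, hc0, hc, ?_⟩
      unfold ev at hx hy
      rw [hc] at hy
      have e : (c • f.1) x = c * f.1 x := rfl
      rw [e] at hy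
      have h1 : f.1 x = -f.2 := by linarith
      rw [h1] at hy
      linarith
    · right
      exact ⟨crm f g, Finset.mem_image.2 ⟨(f, g), Finset.mem_product.2 ⟨hf, hg⟩, rfl⟩,
        eq_crm hx hy hD⟩

end Crest.Agent.R096.Ex_914
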