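import Crest.Agent.R096.Ex0_914

/-!
# R096 (row 96), P2-GEN (EXIST), (X12) `GenStmt` (helper458)

Polyhedral sets are determined by the signs of finitely many affine functions; general position
by a shear and a translation.
-/

set_option autoImplicit false

open Set Metric Topology

namespace Crest.Agent.R096.Gen_458

open Gp_702 Ex_914

/-! ### sign representation of simplices, polytopes, polyhedra -/

/-- the affine function as an `Af` -/
noncomputable def toAf (a : E3 →ᵃ[ℝ] ℝ) : Af := (LinearMap.toContinuousLinearMap a.linear, a 0)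

theorem ev_toAf (a : E3 →ᵃ[ℝ] ℝ) (x : E3) : ev (toAf a) x = a x := by
  have h := congrFun (AffineMap.decomp a) x
  simp only [ev, toAf, LinearMap.coe_toContinuousLinearMap']
  rw [h]; rfl

theorem det_simplex (t : Finset E3) (ht : AffineIndependent ℝ ((↑) : t → E3)) :
    ∃ F : Finset Af, Det F (convexHull ℝ (t : Set E3)) := by
  classical
  obtain ⟨u, htu, hu, hspan⟩ := exists_subset_affineIndependent_affineSpan_eq_top
    (s := (t : Set E3)) ht
  have : Finite u := finite_set_of_fin_dim_affineIndependent ℝ hu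
  have := Fintype.ofFinite u
  let b : AffineBasis u ℝ E3 := ⟨(↑), hu, by rw [Subtype.range_coe]; exact hspan⟩
  have hb : ∀ i : u, b i = i.1 := fun i => rfl
  have key : ∀ x, x ∈ convexHull ℝ (t : Set E3) ↔
      ∀ i : u, 0 ≤ b.coord i x ∧ (i.1 ∉ t → b.coord i x = 0) := by
    intro x
    constructor
    · intro hx
      have hc : Convex ℝ {x | ∀ i : u, 0 ≤ b.coord i x ∧ (i.1 ∉ t → b.coord i x = 0)} := by
        intro x hx y hy p q hp hq hpq i
        have e : b.coord i (p • x + q • y) = p * b.coord i x + q * b.coord i y :=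
          Pl.affine_comb (b.coord i) hpq
        rw [e]
        refine ⟨by have := (hx i).1; have := (hy i).1; positivity, fun hn => ?_⟩
        rw [(hx i).2 hn, (hy i).2 hn, mul_zero, mul_zero, add_zero]
      refine convexHull_min ?_ hc hx
      intro p hp i
      have hp' : p = b ⟨p, htu hp⟩ := rfl
      rw [hp', AffineBasis.coord_apply]
      split_ifs with h
      · exact ⟨zero_le_one, fun hn => absurd (by rw [h]; exact hp) hn⟩
      · exact ⟨le_refl _, fun _ => rfl⟩
    · intro hx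
      have h1 : ∑ i, b.coord i x • b i = x := b.linear_combination_coord_eq_self x
      have h2 : ∑ i, b.coord i x = 1 := b.sum_coord_apply_eq_one x
      have h3 : ∑ i ∈ Finset.univ.filter (fun i : u => i.1 ∈ t), b.coord i x • b i = x := by
        refine (Finset.sum_filter_of_ne fun i _ hi => ?_).trans h1
        by_contra hn
        exact hi (by rw [(hx i).2 hn, zero_smul])
      have h4 : ∑ i ∈ Finset.univ.filter (fun i : u => i.1 ∈ t), b.coord i x = 1 := by
        refine (Finset.sum_filter_of_ne fun i _ hi => ?_).trans h2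
        by_contra hn
        exact hi ((hx i).2 hn)
      rw [← h3]
      exact (convex_convexHull ℝ (t : Set E3)).sum_mem (fun i _ => (hx i).1) h4
        fun i hi => subset_convexHull ℝ _ (Finset.mem_filter.1 hi).2
  refine ⟨Finset.univ.image fun i : u => toAf (b.coord i), fun x y hxy hx => ?_⟩
  rw [key] at hx ⊢
  intro i
  have h := hxy _ (Finset.mem_image_of_mem _ (Finset.mem_univ i))
  rw [ev_toAf, ev_toAf] at h
  refine ⟨?_, fun hn => ?_⟩
  · have h1 := (hx i).1
    rw [← sign_nonneg_iff] at h1 ⊢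
    rwa [← h]
  · have h1 := (hx i).2 hn
    rw [← sign_eq_zero_iff] at h1 ⊢
    rwa [← h]

theorem det_mono {F G : Finset Af} {S : Set E3} (h : Det F S) (hFG : F ⊆ G) : Det G S :=
  fun x y hxy hx => h x y (fun f hf => hxy f (hFG hf)) hx

theorem det_sUnion {𝒞 : Set (Set E3)} (hf : 𝒞.Finite) (h : ∀ C ∈ 𝒞, ∃ F : Finset Af, Det F C) :
    ∃ F : Finset Af, Det F (⋃₀ 𝒞) := by
  classical
  choose! F hF using h
  refine ⟨hf.toFinset.biUnion F, ?_⟩
  rintro x y hxy ⟨C, hC, hx⟩
  exact ⟨C, hC, hF C hC x y (fun f hf' => hxy f (Finset.mem_biUnion.2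
    ⟨C, hf.mem_toFinset.2 hC, hf'⟩)) hx⟩

theorem det_vp {C : Set E3} (h : Pl.VP C) : ∃ F : Finset Af, Det F C := by
  classical
  obtain ⟨s, hs, rfl⟩ := h
  have e : convexHull ℝ s = ⋃₀ ((fun t : Finset E3 => convexHull ℝ (t : Set E3)) ''
      {t : Finset E3 | (t : Set E3) ⊆ s ∧ AffineIndependent ℝ ((↑) : t → E3)}) := by
    rw [convexHull_eq_union]
    ext x
    simp only [mem_iUnion, mem_sUnion, mem_image, mem_ofPred_eq, exists_prop]
    constructor
    · rintro ⟨t, h1, h2, h3⟩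
      exact ⟨_, ⟨t, ⟨h1, h2⟩, rfl⟩, h3⟩
    · rintro ⟨_, ⟨t, ⟨h1, h2⟩, rfl⟩, h3⟩
      exact ⟨t, h1, h2, h3⟩
  rw [e]
  refine det_sUnion (Set.Finite.image _ ?_) ?_
  · refine (hs.toFinset.powerset.finite_toSet).subset ?_
    rintro t ⟨ht, -⟩
    rw [Finset.mem_coe, Finset.mem_powerset]
    intro x hx
    exact hs.mem_toFinset.2 (ht hx)
  · rintro _ ⟨t, ⟨-, ht⟩, rfl⟩
    exact det_simplex t ht

theorem exists_det {S : Set E3} (h : Gp_702.Poly S) :
    ∃ F : Finset Af, (∀ f ∈ F, f.1 ≠ 0) ∧ Det F S := by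
  classical
  obtain ⟨𝒞, hf, hC, rfl⟩ := h
  obtain ⟨F, hF⟩ := det_sUnion hf fun C h => det_vp (hC C h)
  refine ⟨F.filter fun f => f.1 ≠ 0, fun f hf => (Finset.mem_filter.1 hf).2, ?_⟩
  intro x y hxy hx
  refine hF x y (fun f hf' => ?_) hx
  by_cases h0 : f.1 = 0
  · simp only [ev, h0, zero_apply]
  · exact hxy f (Finset.mem_filter.2 ⟨hf', h0⟩)

/-! ### generic numbers -/

theorem exists_avoid (P : Finset (Polynomial ℝ)) (h : ∀ p ∈ P, p ≠ 0) :
    ∃ t : ℝ, ∀ p ∈ P, p.eval t ≠ 0 := by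
  have h1 : ∏ p ∈ P, p ≠ 0 := Finset.prod_ne_zero_iff.2 h
  by_contra hn
  push Not at hn
  refine h1 (Polynomial.funext fun t => ?_)
  obtain ⟨p, hp, hpt⟩ := hn t
  rw [Polynomial.eval_prod, Polynomial.eval_zero]
  exact Finset.prod_eq_zero hp hpt

/-- the polynomial `a + b X + c X²` -/
noncomputable def qp (a b c : ℝ) : Polynomial ℝ :=
  Polynomial.C a + Polynomial.C b * Polynomial.X + Polynomial.C c * Polynomial.X ^ 2

theorem qp_eval (a b c t : ℝ) : (qp a b c).eval t = a + b * t + c * t ^ 2 := by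
  simp [qp]

theorem qp_ne {a b c : ℝ} (h : ¬ (a = 0 ∧ b = 0 ∧ c = 0)) : qp a b c ≠ 0 := by
  intro h0
  have e : ∀ t, a + b * t + c * t ^ 2 = 0 := fun t => by rw [← qp_eval, h0, Polynomial.eval_zero]
  have h1 := e 0
  have h2 := e 1
  have h3 := e (-1)
  refine h ⟨by linarith, ?_, ?_⟩ <;> nlinarith

/-! ### functionals on `E3` -/

theorem eq_sum (f : E3 →L[ℝ] ℝ) (x : E3) :
    f x = x 0 * f (Pi.single 0 1) + x 1 * f (Pi.single 1 1) + x 2 * f (Pi.single 2 1) := by
  have h : x = ∑ i, x i • (Pi.single i (1:ℝ) : E3) := by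
    funext j
    simp [Finset.sum_apply, Pi.single_apply]
  conv_lhs => rw [h]
  rw [map_sum, Fin.sum_univ_three]
  simp [map_smul]

theorem ext_single {f g : E3 →L[ℝ] ℝ} (h0 : f (Pi.single 0 1) = g (Pi.single 0 1))
    (h1 : f (Pi.single 1 1) = g (Pi.single 1 1)) (h2 : f (Pi.single 2 1) = g (Pi.single 2 1)) :
    f = g := by
  ext x
  rw [eq_sum f, eq_sum g, h0, h1, h2]

theorem parallel {f g : E3 →L[ℝ] ℝ} (hf : f ≠ 0)
    (h01 : f (Pi.single 0 1) * g (Pi.single 1 1) = f (Pi.single 1 1) * g (Pi.single 0 1))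
    (h02 : f (Pi.single 0 1) * g (Pi.single 2 1) = f (Pi.single 2 1) * g (Pi.single 0 1))
    (h12 : f (Pi.single 1 1) * g (Pi.single 2 1) = f (Pi.single 2 1) * g (Pi.single 1 1)) :
    ∃ c : ℝ, g = c • f := by
  by_cases a0 : f (Pi.single 0 1) = 0
  · by_cases a1 : f (Pi.single 1 1) = 0
    · by_cases a2 : f (Pi.single 2 1) = 0
      · exact absurd (ext_single (by simpa using a0) (by simpa using a1) (by simpa using a2)) hf
      · refine ⟨g (Pi.single 2 1) / f (Pi.single 2 1), ext_single ?_ ?_ ?_⟩ <;>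
          (simp only [smul_apply, smul_eq_mul]; field_simp; try linarith)
    · refine ⟨g (Pi.single 1 1) / f (Pi.single 1 1), ext_single ?_ ?_ ?_⟩ <;>
        (simp only [smul_apply, smul_eq_mul]; field_simp; try linarith)
  · refine ⟨g (Pi.single 0 1) / f (Pi.single 0 1), ext_single ?_ ?_ ?_⟩ <;>
      (simp only [smul_apply, smul_eq_mul]; field_simp; try linarith)

/-- the shear `x ↦ (x₀, x₁, x₂ + a x₀ + b x₁)` -/
noncomputable def shear (a b : ℝ) : E3 ≃L[ℝ] E3 :=
  LinearEquiv.toContinuousLinearEquiv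
  { toFun := fun x => ![x 0, x 1, x 2 + a * x 0 + b * x 1]
    map_add' := fun x y => by
      funext j; fin_cases j <;> simp <;> ring
    map_smul' := fun c x => by
      funext j; fin_cases j <;> simp <;> ring
    invFun := fun x => ![x 0, x 1, x 2 - a * x 0 - b * x 1]
    left_inv := fun x => by
      funext j; fin_cases j
      · simp
      · simp
      · simp; ring
    right_inv := fun x => by
      funext j; fin_cases j
      · simp
      · simp
      · simp; ring }

theorem shear_apply (a b : ℝ) (x : E3) :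
    shear a b x = ![x 0, x 1, x 2 + a * x 0 + b * x 1] := rfl

theorem shear_0 (a b : ℝ) (f : E3 →L[ℝ] ℝ) : f (shear a b (Pi.single 0 1)) =
    f (Pi.single 0 1) + a * f (Pi.single 2 1) := by
  rw [shear_apply, eq_sum f]; simp

theorem shear_1 (a b : ℝ) (f : E3 →L[ℝ] ℝ) : f (shear a b (Pi.single 1 1)) =
    f (Pi.single 1 1) + b * f (Pi.single 2 1) := by
  rw [shear_apply, eq_sum f]; simp

/-- the change of coordinates of an affine function -/
noncomputable def tra (B : E3 ≃L[ℝ] E3) (τ : E3) (f : Af) : Af :=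
  (f.1.comp (B : E3 →L[ℝ] E3), f.2 - f.1 (B τ))

theorem ev_tra (B : E3 ≃L[ℝ] E3) (τ : E3) (f : Af) (x : E3) :
    ev (tra B τ f) (B.symm x + τ) = ev f x := by
  simp only [ev, tra, ContinuousLinearMap.comp_apply, ContinuousLinearEquiv.coe_coe, map_add,
    ContinuousLinearEquiv.apply_symm_apply]
  ring

theorem ev_tra' (B : E3 ≃L[ℝ] E3) (τ : E3) (f : Af) (y : E3) :
    ev (tra B τ f) y = f.1 (B y) + f.2 - f.1 (B τ) := by
  simp only [ev, tra, ContinuousLinearMap.comp_apply, ContinuousLinearEquiv.coe_coe]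
  ring

/-- a shear which makes all intersections transversal to the horizontal planes -/
theorem exists_shear (F : Finset Af) (hF : ∀ f ∈ F, f.1 ≠ 0) : ∃ B : E3 ≃L[ℝ] E3,
    ∀ f ∈ F, ∀ g ∈ F, f.1 (B (Pi.single 0 1)) * g.1 (B (Pi.single 1 1)) =
      f.1 (B (Pi.single 1 1)) * g.1 (B (Pi.single 0 1)) → ∃ c : ℝ, g.1 = c • f.1 := by
  classical
  let e : Fin 3 → E3 := fun i => Pi.single i 1
  let D : Fin 3 → Fin 3 → Af × Af → ℝ := fun i j p =>
    p.1.1 (e i) * p.2.1 (e j) - p.1.1 (e j) * p.2.1 (e i)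
  let P : Finset (Polynomial ℝ) := ((F ×ˢ F).filter fun p => ¬ ∃ c : ℝ, p.2.1 = c • p.1.1).image
    fun p => qp (D 0 1 p) (D 2 1 p) (D 0 2 p)
  obtain ⟨t, ht⟩ := exists_avoid P (by
    intro p hp
    obtain ⟨⟨f, g⟩, hfg, rfl⟩ := Finset.mem_image.1 hp
    obtain ⟨h1, h2⟩ := Finset.mem_filter.1 hfg
    refine qp_ne fun h => h2 ?_
    refine parallel (hF f (Finset.mem_product.1 h1).1) ?_ ?_ ?_
    · have := h.1; simp only [D, e] at this; linarith
    · have := h.2.2; simp only [D, e] at this; linarith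
    · have := h.2.1; simp only [D, e] at this; linarith)
  refine ⟨shear t (t ^ 2), fun f hf g hg h => ?_⟩
  by_contra hn
  refine ht _ (Finset.mem_image_of_mem _ (Finset.mem_filter.2
    ⟨Finset.mem_product.2 ⟨hf, hg⟩, hn⟩ : (f, g) ∈ _)) ?_
  rw [shear_0, shear_0, shear_1, shear_1] at h
  rw [qp_eval]
  simp only [D, e]
  linarith

/-- a translation which moves all planes off the rational points -/
theorem exists_trans (F : Finset Af) (hF : ∀ f ∈ F, f.1 ≠ 0) (B : E3 ≃L[ℝ] E3) : ∃ τ : E3,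
    ∀ f ∈ F, ∀ q : Fin 3 → ℚ, ev (tra B τ f) (fun j => (q j : ℝ)) ≠ 0 := by
  classical
  let e : Fin 3 → E3 := fun i => Pi.single i 1
  let P : Finset (Polynomial ℝ) := F.image fun f => qp (f.1 (e 0)) (f.1 (e 1)) (f.1 (e 2))
  obtain ⟨t, ht⟩ := exists_avoid P (by
    intro p hp
    obtain ⟨f, hf, rfl⟩ := Finset.mem_image.1 hp
    refine qp_ne fun h => hF f hf ?_
    exact ext_single (by simpa [e] using h.1) (by simpa [e] using h.2.1) (by simpa [e] using h.2.2))
  let v : E3 := ![1, t, t ^ 2]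
  have hv : ∀ f ∈ F, f.1 v ≠ 0 := by
    intro f hf
    have h := ht _ (Finset.mem_image_of_mem _ hf)
    rw [qp_eval] at h
    rw [eq_sum]
    simp only [v, e] at h ⊢
    simp only [Matrix.cons_val_zero, Matrix.cons_val_one, Matrix.cons_val]
    intro h0
    apply h
    linarith
  let w : E3 := B.symm v
  have hw : ∀ f ∈ F, f.1 (B w) ≠ 0 := fun f hf => by
    simp only [w, ContinuousLinearEquiv.apply_symm_apply]; exact hv f hf
  have hc : (⋃ f ∈ F, range fun q : Fin 3 → ℚ =>
      (f.1 (B (fun j => (q j : ℝ))) + f.2) / f.1 (B w)).Countable :=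
    F.countable_toSet.biUnion fun f _ => countable_range _
  obtain ⟨s, hs⟩ := (hc.dense_compl ℝ).nonempty
  refine ⟨s • w, fun f hf q h => hs ?_⟩
  rw [ev_tra'] at h
  refine mem_biUnion hf ⟨q, ?_⟩
  show _ / _ = s
  rw [div_eq_iff (hw f hf)]
  rw [map_smul, map_smul, smul_eq_mul] at h
  linarith

/-- **(X12)** -/
theorem genStmt : GenStmt := by
  classical
  intro S hS
  obtain ⟨F, hne, hD⟩ := exists_det hS
  obtain ⟨B, hB⟩ := exists_shear F hne
  obtain ⟨τ, hτ⟩ := exists_trans F hne B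
  let L : E3 ≃ₜ E3 := B.symm.toHomeomorph.trans (Homeomorph.addRight τ)
  have hL : ∀ x, L x = B.symm x + τ := fun x => rfl
  refine ⟨L, (Pl.PLH_clm B.symm).trans (Pl.PLH_add τ), F.image (tra B τ), ⟨?_, ?_, ?_⟩, ?_⟩
  · intro f' hf'
    obtain ⟨f, hf, rfl⟩ := Finset.mem_image.1 hf'
    intro h0
    refine hne f hf ?_
    ext x
    have h1 := DFunLike.congr_fun h0 (B.symm x)
    simpa [tra] using h1
  · intro f' hf' q
    obtain ⟨f, hf, rfl⟩ := Finset.mem_image.1 hf'
    exact hτ f hf q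
  · intro f' hf' g' hg' h
    obtain ⟨f, hf, rfl⟩ := Finset.mem_image.1 hf'
    obtain ⟨g, hg, rfl⟩ := Finset.mem_image.1 hg'
    obtain ⟨c, hc⟩ := hB f hf g hg (by simpa [tra] using h)
    exact ⟨c, by simp only [tra]; rw [hc]; rfl⟩
  · rintro _ y hxy ⟨x, hx, rfl⟩
    refine ⟨L.symm y, hD x _ (fun f hf => ?_) hx, L.apply_symm_apply y⟩
    have h := hxy _ (Finset.mem_image_of_mem _ hf)
    have e1 : y = B.symm (L.symm y) + τ := by rw [← hL, L.apply_symm_apply]
    rw [hL, ev_tra] at h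
    conv at h => rhs; rw [e1, ev_tra]
    exact h

end Crest.Agent.R096.Gen_458
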