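import Crest.Agent.R096.Gp0_702

/-!
# R096 (row 96), P2-GEN (EXIST), part 0 (helper914): definitions and the Props of the split

The surface is forgotten: only a finite family of affine functions (planes) is used, which
determines `S` by signs.
-/

set_option autoImplicit false

open Set Metric Topology

namespace Crest.Agent.R096.Ex_914

open Msh_715 Gp_702

/-- an affine function `x ↦ f.1 x + f.2` -/
abbrev Af := (E3 →L[ℝ] ℝ) × ℝ

/-- value of an affine function -/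
def ev (f : Af) (x : E3) : ℝ := f.1 x + f.2

/-- `S` is determined by the signs of the functions of `F` -/
def Det (F : Finset Af) (S : Set E3) : Prop :=
  ∀ x y, (∀ f ∈ F, SignType.sign (ev f x) = SignType.sign (ev f y)) → x ∈ S → y ∈ S

/-- general position: no plane contains a rational point; two planes which are not parallel
do not meet in a horizontal line -/
structure Gen (F : Finset Af) : Prop where
  ne : ∀ f ∈ F, f.1 ≠ 0
  rat : ∀ f ∈ F, ∀ q : Fin 3 → ℚ, ev f (fun j => (q j : ℝ)) ≠ 0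
  hor : ∀ f ∈ F, ∀ g ∈ F,
    f.1 (Pi.single 0 1) * g.1 (Pi.single 1 1) = f.1 (Pi.single 1 1) * g.1 (Pi.single 0 1) →
    ∃ c : ℝ, g.1 = c • f.1

/-- **(X12)** polyhedral sets are determined by signs, in general position -/
def GenStmt : Prop := ∀ S : Set E3, Gp_702.Poly S → ∃ L : E3 ≃ₜ E3, Pl.PLH L ∧ ∃ F : Finset Af,
  Gen F ∧ Det F (L '' S)

/-- an integer box -/
abbrev Bx := (Fin 3 → ℤ) × (Fin 3 → ℤ)

/-- the unit cube with lower corner `l` is contained in `b` -/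
def Sub1 (l : Fin 3 → ℤ) (b : Bx) : Prop := ∀ j, b.1 j ≤ l j ∧ l j + 1 ≤ b.2 j

/-- good macros for the family `F` in the cube of half width `K` -/
structure Mac (F : Finset Af) (M : Finset Bx) (K : ℝ) : Prop where
  nd : ∀ b ∈ M, ∀ j, b.1 j < b.2 j
  dis : ∀ b ∈ M, ∀ b' ∈ M, b ≠ b' → ∃ j, b.2 j ≤ b'.1 j ∨ b'.2 j ≤ b.1 j
  big : ∀ b ∈ M, ∃ z : E3, (∀ j, (b.1 j : ℝ) < z j ∧ z j < (b.2 j : ℝ)) ∧
    ∀ f ∈ F, (∃ y ∈ zcl b.1 b.2, ev f y = 0) → ev f z = 0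
  pair : ∀ b ∈ M, ∀ b' ∈ M, b ≠ b' → (zcl b.1 b.2 ∩ zcl b'.1 b'.2).Nonempty →
    ∃ j, ∃ z d : E3, (∀ i, i ≠ j → ((b.1 i : ℝ) < z i ∧ z i < (b.2 i : ℝ)) ∧
        ((b'.1 i : ℝ) < z i ∧ z i < (b'.2 i : ℝ))) ∧
      ((b.2 j = b'.1 j ∧ z j = (b.2 j : ℝ)) ∨ (b'.2 j = b.1 j ∧ z j = (b'.2 j : ℝ))) ∧ d j ≠ 0 ∧
      ∀ f ∈ F, (∃ y ∈ zcl b.1 b.2 ∩ zcl b'.1 b'.2, ev f y = 0) → ev f z = 0 ∧ f.1 d = 0
  triple : ∀ b ∈ M, ∀ b' ∈ M, ∀ b'' ∈ M, b ≠ b' → b' ≠ b'' → b ≠ b'' →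
    zcl b.1 b.2 ∩ zcl b'.1 b'.2 ∩ zcl b''.1 b''.2 = ∅
  small : ∀ l : Fin 3 → ℤ, (∀ b ∈ M, ¬ Sub1 l b) → (∀ j, |(l j : ℝ)| ≤ K) →
    ∀ f ∈ F, ∀ g ∈ F, (∃ y ∈ zcl l (fun j => l j + 1), ev f y = 0) →
    (∃ y ∈ zcl l (fun j => l j + 1), ev g y = 0) → ∃ c : ℝ, c ≠ 0 ∧ g.1 = c • f.1 ∧ g.2 = c * f.2

/-- the family after scaling by `N` -/
noncomputable def scl (N : ℕ) (F : Finset Af) : Finset Af :=
  by classical exact F.image fun f => (f.1, (N : ℝ) * f.2)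

/-- **(X3)** good macros exist after scaling -/
def MacStmt : Prop := ∀ F : Finset Af, Gen F → ∀ K : ℝ, ∃ N : ℕ, 0 < N ∧ ∃ M : Finset Bx,
  Mac (scl N F) M (N * K)

/-- **(TR)** the two-ray lemma -/
def RayStmt : Prop := ∀ (S : Set E3) (F : Finset Af), Det F S → IsClosed S →
  (∀ x ∈ S, Ax_914.TwoSidedAt S x) → (∀ f ∈ F, ∀ q : Fin 3 → ℤ, ev f (fun j => (q j : ℝ)) ≠ 0) →
  ∀ (l h : Fin 3 → ℤ) (j : Fin 3), l j = h j → (∀ i, i ≠ j → l i < h i) →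
  ∀ z d : E3, z ∈ zop l h → z ∈ S → d j ≠ 0 →
  (∀ f ∈ F, (∃ y ∈ zcl l h, ev f y = 0) → ev f z = 0 ∧ f.1 d = 0) →
  ((zcl l h \ zop l h) ∩ S).ncard = 2

/-- **(X45)** the tiling of the macros is adapted -/
def TilStmt : Prop := ∀ (F : Finset Af) (M : Finset Bx) (K : ℝ) (S : Set E3), Mac F M K →
  (∀ f ∈ F, f.1 ≠ 0) → (∀ f ∈ F, ∀ q : Fin 3 → ℤ, ev f (fun j => (q j : ℝ)) ≠ 0) → Det F S →
  IsCompact S → (∀ x ∈ S, ∀ j, |x j| ≤ K - 1) → (∀ x ∈ S, Ax_914.TwoSidedAt S x) →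
  ∃ (ι : Type) (T : Tiling (univ : Set E3) ι), Bxs T ∧ Adapted T S

theorem poly_compact {S : Set E3} (h : Gp_702.Poly S) : IsCompact S := by
  obtain ⟨C, hf, hc, rfl⟩ := h
  exact hf.isCompact_sUnion fun c hC => (hc c hC).isCompact

/-- a two-sided set has empty interior -/
theorem not_open_of_twoSided {S U : Set E3} {x : E3} (hx : Ax_914.TwoSidedAt S x) (hU : IsOpen U)
    (hxU : x ∈ U) (hUS : U ⊆ S) : False := by
  obtain ⟨V, P, N, hV, hP, hN, hxV, -, -, -, -, hVS, hxP, -⟩ := hx 1 one_pos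
  obtain ⟨y, hyU, hyP⟩ := mem_closure_iff.1 hxP U hU hxU
  have h1 : y ∈ V \ S := by rw [hVS]; exact Or.inl hyP
  exact h1.2 (hUS hyU)

theorem ev_scl (N : ℕ) (f : Af) (x : E3) :
    ev (f.1, (N : ℝ) * f.2) ((N : ℝ) • x) = N * ev f x := by
  simp only [ev, map_smul, smul_eq_mul]; ring

theorem det_scl {N : ℕ} (hN : 0 < N) {F : Finset Af} {S : Set E3} (h : Det F S) :
    Det (scl N F) ((fun x => (N : ℝ) • x) '' S) := by
  classical
  have hN' : (0 : ℝ) < N := by exact_mod_cast hN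
  rintro _ y hs ⟨x, hx, rfl⟩
  refine ⟨(N : ℝ)⁻¹ • y, h x _ (fun f hf => ?_) hx, ?_⟩
  · have h1 := hs (f.1, (N : ℝ) * f.2) (Finset.mem_image_of_mem _ hf)
    have h2 : y = (N : ℝ) • ((N : ℝ)⁻¹ • y) := by rw [smul_smul, mul_inv_cancel₀ hN'.ne', one_smul]
    rw [ev_scl] at h1
    conv at h1 => rhs; rw [h2, ev_scl]
    rw [sign_mul, sign_mul, sign_pos hN', one_mul, one_mul] at h1
    exact h1
  · show (N : ℝ) • ((N : ℝ)⁻¹ • y) = y
    rw [smul_smul, mul_inv_cancel₀ hN'.ne', one_smul]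

/-- the homothety -/
noncomputable def homo (N : ℕ) (hN : 0 < N) : E3 ≃L[ℝ] E3 :=
  ContinuousLinearEquiv.smulLeft (Units.mk0 (N : ℝ) (by exact_mod_cast hN.ne'))

/-- **assembly** of (EXIST) -/
theorem exist_of (h12 : GenStmt) (h3 : MacStmt) (h45 : TilStmt) : ExistStmt := by
  classical
  intro S hS hne hT
  obtain ⟨L, hL, F, hF, hD⟩ := h12 S hS
  have hc : IsCompact (L '' S) := (poly_compact hS).image L.continuous
  obtain ⟨K, hK⟩ := hc.isBounded.exists_norm_le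
  obtain ⟨N, hN, M, hM⟩ := h3 F hF (K + 1)
  have hN1 : (1 : ℝ) ≤ N := by exact_mod_cast hN
  let H : E3 ≃ₜ E3 := (homo N hN).toHomeomorph
  have hH : ∀ x, H x = (N : ℝ) • x := fun x => rfl
  have hLH : (L.trans H) '' S = (fun x => (N : ℝ) • x) '' (L '' S) := by
    rw [image_image]; rfl
  refine ⟨L.trans H, hL.trans (Pl.PLH_clm (homo N hN)), ?_⟩
  refine h45 (scl N F) M (N * (K + 1)) _ hM ?_ ?_ ?_ ?_ ?_ ?_
  · intro f hf
    obtain ⟨g, hg, rfl⟩ := Finset.mem_image.1 hf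
    exact hF.ne g hg
  · intro f hf q
    obtain ⟨g, hg, rfl⟩ := Finset.mem_image.1 hf
    have h1 := hF.rat g hg (fun j => (q j : ℚ) / N)
    have h2 : (fun j => (q j : ℝ)) = (N : ℝ) • (fun j => ((((q j : ℚ) / N : ℚ)) : ℝ)) := by
      funext j
      simp only [Pi.smul_apply, smul_eq_mul]
      push_cast
      field_simp
    rw [h2, ev_scl]
    exact mul_ne_zero (by positivity) h1
  · rw [hLH]; exact det_scl hN hD
  · rw [hLH]; exact hc.image (continuous_const_smul _)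
  · rw [hLH]
    rintro _ ⟨x, hx, rfl⟩ j
    have h1 : |x j| ≤ K := (norm_le_pi_norm x j).trans (hK x hx)
    show |(N : ℝ) * x j| ≤ _
    rw [abs_mul, abs_of_nonneg (by positivity : (0 : ℝ) ≤ N)]
    nlinarith
  · rintro _ ⟨x, hx, rfl⟩
    exact (hT x hx).map (L.trans H)

end Crest.Agent.R096.Ex_914
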