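import Crest.Agent.R096.Rs1_161
import Crest.Agent.R096.Ex0_914

/-! # R096 (row 96), P2-GEN, (EXIST), (TR): the two-ray lemma `RayStmt` of `Ex0_914`. -/

set_option autoImplicit false

open Set Metric Topology Filter

namespace Crest.Agent.R096.Rs1_161

/-- there is at least one direction -/
theorem exists_dir {E : Type*} [NormedAddCommGroup E] [NormedSpace ℝ E] {S : Set E} {z : E}
    {r : ℝ} (hr : 0 < r) (Λ : E →L[ℝ] ℂ) (σ : ℂ →L[ℝ] E) (hΛσ : ∀ w, Λ (σ w) = w)
    (G : ℂ → Prop)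
    (key : ∀ y ∈ ball z r, ∀ w : ℂ, ∀ s : ℝ, 0 < s → Λ (y - z) = s • w → (y ∈ S ↔ G w))
    (hz : z ∈ S) (h2 : Ax_914.TwoSidedAt S z) : ∃ w, w ≠ 0 ∧ G w := by
  by_contra hcon
  push Not at hcon
  obtain ⟨U, P, N, hU, hPo, hNo, hzU, hUr, hPc, hNc, hdis, hUPN, hzP, hzN⟩ := h2 r hr
  obtain ⟨r', hr', hB⟩ := Metric.isOpen_iff.1 hU z hzU
  have hG0 : G 0 := (key z (mem_ball_self hr) 0 1 one_pos (by simp)).1 hz
  have hS : ∀ y ∈ ball z r, (y ∈ S ↔ Λ (y - z) = 0) := by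
    intro y hy
    rw [key y hy (Λ (y - z)) 1 one_pos (by rw [one_smul])]
    constructor
    · intro h
      by_contra h1
      exact hcon _ h1 h
    · intro h; rw [h]; exact hG0
  -- the half balls
  have hH : ∀ φ : ℂ →L[ℝ] ℝ, IsPreconnected {y | y ∈ ball z r' ∧ 0 < φ (Λ (y - z))} := by
    intro φ
    apply Convex.isPreconnected
    rintro y1 ⟨h1, e1⟩ y2 ⟨h2, e2⟩ a b ha hb hab
    refine ⟨convex_ball z r' h1 h2 ha hb hab, ?_⟩
    have e3 : a • y1 + b • y2 - z = a • (y1 - z) + b • (y2 - z) := by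
      have hz' : z = (a + b) • z := by rw [hab, one_smul]
      conv_lhs => rw [hz']
      module
    rw [e3, map_add, map_smul, map_smul, map_add, map_smul, map_smul, smul_eq_mul, smul_eq_mul]
    rcases eq_or_lt_of_le ha with h | h
    · have : b = 1 := by linarith
      rw [← h, this]; linarith
    · have : 0 ≤ b * φ (Λ (y2 - z)) := mul_nonneg hb e2.le
      have : 0 < a * φ (Λ (y1 - z)) := mul_pos h e1
      linarith
  set ε : ℝ := r' / (2 * ((‖σ‖ + 1) * 2)) with hε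
  have hσ0 : 0 ≤ ‖σ‖ := norm_nonneg σ
  have hε0 : 0 < ε := by positivity
  have hpt : ∀ w : ℂ, ‖w‖ ≤ 2 → z + ε • σ w ∈ ball z r' ∧ Λ (z + ε • σ w - z) = ε • w := by
    intro w hw
    constructor
    · rw [mem_ball, dist_eq_norm, add_sub_cancel_left, norm_smul, Real.norm_eq_abs,
        abs_of_pos hε0]
      have h1 : ‖σ w‖ ≤ ‖σ‖ * 2 := (σ.le_opNorm w).trans (by gcongr)
      calc ε * ‖σ w‖ ≤ ε * ((‖σ‖ + 1) * 2) := by gcongr; linarith
        _ = r' / 2 := by rw [hε]; field_simp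
        _ < r' := by linarith
    · rw [add_sub_cancel_left, map_smul, hΛσ]
  have hn : ∀ a b : ℝ, |a| ≤ 1 → |b| ≤ 1 → ‖(⟨a, b⟩ : ℂ)‖ ≤ 2 := by
    intro a b ha hb
    have h1 := Complex.norm_le_abs_re_add_abs_im ⟨a, b⟩
    simp only at h1
    linarith
  have hmem : ∀ (φ : ℂ →L[ℝ] ℝ) (a b : ℝ), |a| ≤ 1 → |b| ≤ 1 → 0 < φ ⟨a, b⟩ →
      z + ε • σ ⟨a, b⟩ ∈ {y | y ∈ ball z r' ∧ 0 < φ (Λ (y - z))} := by
    intro φ a b ha hb hφ
    obtain ⟨h1, h3⟩ := hpt ⟨a, b⟩ (hn a b ha hb)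
    refine ⟨h1, ?_⟩
    rw [h3, map_smul, smul_eq_mul]
    exact mul_pos hε0 hφ
  have hone : |(1 : ℝ)| ≤ 1 := by simp
  have hmone : |(-1 : ℝ)| ≤ 1 := by simp
  have hconn : IsPreconnected {y | y ∈ ball z r' ∧ Λ (y - z) ≠ 0} := by
    have h1 := (hH Complex.reCLM).union _
      (hmem Complex.reCLM 1 1 hone hone (by simp))
      (hmem Complex.imCLM 1 1 hone hone (by simp)) (hH Complex.imCLM)
    have h3 := (hH (-Complex.reCLM)).union _
      (hmem (-Complex.reCLM) (-1) (-1) hmone hmone (by simp))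
      (hmem (-Complex.imCLM) (-1) (-1) hmone hmone (by simp)) (hH (-Complex.imCLM))
    have h4 := IsPreconnected.union (z + ε • σ ⟨-1, 1⟩)
      (mem_union_right _ (hmem Complex.imCLM (-1) 1 hmone hone (by simp)))
      (mem_union_left _ (hmem (-Complex.reCLM) (-1) 1 hmone hone (by simp))) h1 h3
    convert h4 using 1
    ext y
    simp only [mem_union, mem_ofPred_eq, Complex.reCLM_apply, Complex.imCLM_apply,
      neg_apply, Left.neg_pos_iff]
    constructor
    · rintro ⟨h5, h6⟩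
      by_cases h7 : (Λ (y - z)).re = 0
      · have h8 : (Λ (y - z)).im ≠ 0 := fun h => h6 (Complex.ext h7 h)
        rcases lt_or_gt_of_ne h8 with h | h
        · exact Or.inr (Or.inr ⟨h5, h⟩)
        · exact Or.inl (Or.inr ⟨h5, h⟩)
      · rcases lt_or_gt_of_ne h7 with h | h
        · exact Or.inr (Or.inl ⟨h5, h⟩)
        · exact Or.inl (Or.inl ⟨h5, h⟩)
    · rintro ((⟨h5, h6⟩ | ⟨h5, h6⟩) | (⟨h5, h6⟩ | ⟨h5, h6⟩)) <;>
        refine ⟨h5, fun h => ?_⟩ <;> rw [h] at h6 <;> simp at h6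
  have hsub : {y | y ∈ ball z r' ∧ Λ (y - z) ≠ 0} ⊆ P ∪ N := by
    rintro y ⟨h1, h3⟩
    rw [← hUPN]
    exact ⟨hB h1, fun h => h3 ((hS y (hUr (hB h1))).1 h)⟩
  have hPm : ∀ {Q : Set E}, Q ⊆ P ∪ N → z ∈ closure Q →
      ({y | y ∈ ball z r' ∧ Λ (y - z) ≠ 0} ∩ Q).Nonempty := by
    intro Q hQ hzQ
    obtain ⟨y, hy1, hy2⟩ := mem_closure_iff.1 hzQ (ball z r') isOpen_ball (mem_ball_self hr')
    have h1 : y ∈ U \ S := by rw [hUPN]; exact hQ hy2
    exact ⟨y, ⟨hy1, fun h => h1.2 ((hS y (hUr h1.1)).2 h)⟩, hy2⟩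
  have h3 := hconn.subset_left_of_subset_union hPo hNo hdis hsub (hPm subset_union_left hzP)
  obtain ⟨y, hy1, hy2⟩ := hPm subset_union_right hzN
  exact Set.disjoint_left.1 hdis (h3 hy1) hy2

/-- **exactly two directions** -/
theorem two_dirs {E : Type*} [NormedAddCommGroup E] [NormedSpace ℝ E] {S : Set E} {z : E}
    {r : ℝ} (hr : 0 < r) (Λ : E →L[ℝ] ℂ) (σ : ℂ →L[ℝ] E) (hΛσ : ∀ w, Λ (σ w) = w)
    (G : ℂ → Prop)
    (key : ∀ y ∈ ball z r, ∀ w : ℂ, ∀ s : ℝ, 0 < s → Λ (y - z) = s • w → (y ∈ S ↔ G w))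
    (hz : z ∈ S) (h2 : ∀ x ∈ S, Ax_914.TwoSidedAt S x) :
    ∃ w₁ w₂ : ℂ, w₁ ≠ 0 ∧ w₂ ≠ 0 ∧ (∀ s : ℝ, 0 < s → w₁ ≠ s • w₂) ∧ G w₁ ∧ G w₂ ∧
      ∀ w, w ≠ 0 → G w → ∃ s : ℝ, 0 < s ∧ (w = s • w₁ ∨ w = s • w₂) := by
  obtain ⟨w₀, hw₀, hGw₀⟩ := exists_dir hr Λ σ hΛσ G key hz (h2 z hz)
  -- scaling
  have hscale : ∀ (w : ℂ) (s : ℝ), 0 < s → G w → G (s • w) := by
    intro w s hs hGw
    have hσ0 : 0 ≤ ‖σ w‖ := norm_nonneg _
    set τ : ℝ := r / (2 * (‖σ w‖ + 1)) with hτ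
    have hτ0 : 0 < τ := by positivity
    have hy : z + τ • σ w ∈ ball z r := by
      rw [mem_ball, dist_eq_norm, add_sub_cancel_left, norm_smul, Real.norm_eq_abs,
        abs_of_pos hτ0]
      calc τ * ‖σ w‖ ≤ τ * (‖σ w‖ + 1) := by gcongr; linarith
        _ = r / 2 := by rw [hτ]; field_simp
        _ < r := by linarith
    have h1 : Λ (z + τ • σ w - z) = τ • w := by rw [add_sub_cancel_left, map_smul, hΛσ]
    have h3 : Λ (z + τ • σ w - z) = (τ / s) • (s • w) := by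
      rw [h1, smul_smul, div_mul_cancel₀ _ hs.ne']
    exact (key _ hy _ _ (by positivity) h3).1 ((key _ hy _ _ hτ0 h1).2 hGw)
  set κ : ℂ := -w₀⁻¹ with hκ
  have hκ0 : κ ≠ 0 := neg_ne_zero.2 (inv_ne_zero hw₀)
  have hκ1 : κ⁻¹ * (-1) = w₀ := by rw [hκ, inv_neg, inv_inv]; ring
  let Λ' : E →L[ℝ] ℂ := (ContinuousLinearMap.mul ℝ ℂ κ).comp Λ
  let σ' : ℂ →L[ℝ] E := σ.comp (ContinuousLinearMap.mul ℝ ℂ κ⁻¹)
  have hΛ' : ∀ v, Λ' v = κ * Λ v := fun v => rfl
  have hσ' : ∀ w, σ' w = σ (κ⁻¹ * w) := fun w => rfl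
  obtain ⟨θ, hθ, hGθ, huniq⟩ := unique_angle hr Λ' σ'
    (fun w => by rw [hΛ', hσ', hΛσ, mul_inv_cancel_left₀ hκ0]) (fun w => G (κ⁻¹ * w))
    (fun y hy w s hs h => by
      refine key y hy (κ⁻¹ * w) s hs ?_
      rw [hΛ'] at h
      have h1 : Λ (y - z) = κ⁻¹ * (κ * Λ (y - z)) := by rw [inv_mul_cancel_left₀ hκ0]
      rw [h1, h, Complex.real_smul, Complex.real_smul]; ring)
    hz (by show G (κ⁻¹ * (-1)); rw [hκ1]; exact hGw₀) h2
  refine ⟨w₀, κ⁻¹ * Complex.exp (θ * Complex.I), hw₀,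
    mul_ne_zero (inv_ne_zero hκ0) (Complex.exp_ne_zero _), ?_, hGw₀, hGθ, ?_⟩
  · intro s hs h
    have h1 : (-1 : ℂ) = s * Complex.exp (θ * Complex.I) := by
      have h3 : κ * w₀ = κ * (s • (κ⁻¹ * Complex.exp (θ * Complex.I))) := by rw [← h]
      have h4 : κ * w₀ = -1 := by rw [← hκ1, mul_inv_cancel_left₀ hκ0]
      rw [h4, Complex.real_smul] at h3
      rw [h3]
      field_simp
    have h3 : Complex.arg (s * Complex.exp (θ * Complex.I)) = θ := by
      rw [Complex.arg_real_mul _ hs, Complex.exp_mul_I,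
        Complex.arg_cos_add_sin_mul_I ⟨hθ.1, hθ.2.le⟩]
    rw [← h1, Complex.arg_neg_one] at h3
    exact hθ.2.ne h3.symm
  · intro w hw hGw
    have hw' : κ * w ≠ 0 := mul_ne_zero hκ0 hw
    have hnp : 0 < ‖κ * w‖ := norm_pos_iff.2 hw'
    have hpol : (‖κ * w‖ : ℂ) * Complex.exp (Complex.arg (κ * w) * Complex.I) = κ * w :=
      Complex.norm_mul_exp_arg_mul_I _
    have hwe : w = ‖κ * w‖ • (κ⁻¹ * Complex.exp (Complex.arg (κ * w) * Complex.I)) := by
      rw [Complex.real_smul]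
      have h1 : w = κ⁻¹ * (κ * w) := by rw [inv_mul_cancel_left₀ hκ0]
      conv_lhs => rw [h1, ← hpol]
      ring
    refine ⟨‖κ * w‖, hnp, ?_⟩
    have hG1 : G (κ⁻¹ * Complex.exp (Complex.arg (κ * w) * Complex.I)) := by
      have h1 := hscale w (‖κ * w‖)⁻¹ (by positivity) hGw
      have h3 : (‖κ * w‖)⁻¹ • w = κ⁻¹ * Complex.exp (Complex.arg (κ * w) * Complex.I) :=
        (congrArg (fun x => (‖κ * w‖)⁻¹ • x) hwe).trans (by
          show (‖κ * w‖)⁻¹ • ‖κ * w‖ • (κ⁻¹ * Complex.exp (Complex.arg (κ * w) * Complex.I)) = _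
          rw [smul_smul, inv_mul_cancel₀ hnp.ne', one_smul])
      rwa [h3] at h1
    rcases eq_or_lt_of_le (Complex.arg_le_pi (κ * w)) with h | h
    · left
      rw [h, Complex.exp_pi_mul_I, hκ1] at hwe
      exact hwe
    · right
      have h1 := huniq _ ⟨Complex.neg_pi_lt_arg _, h⟩ hG1
      rw [h1] at hwe
      exact hwe

open Msh_715 Gp_702 Ex_914

theorem sign_eq_of_mul {a b c : ℝ} (ha : 0 < a * c) (hb : 0 < b * c) :
    SignType.sign a = SignType.sign b := by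
  rcases lt_trichotomy c 0 with h | h | h
  · have h1 : a < 0 := by nlinarith
    have h2 : b < 0 := by nlinarith
    rw [sign_neg h1, sign_neg h2]
  · rw [h] at ha; simp at ha
  · have h1 : 0 < a := by nlinarith
    have h2 : 0 < b := by nlinarith
    rw [sign_pos h1, sign_pos h2]

theorem others (j : Fin 3) : ∃ a b : Fin 3, a ≠ j ∧ b ≠ j ∧ a ≠ b ∧
    ∀ i, i = j ∨ i = a ∨ i = b := by
  revert j; decide

theorem convex_zcl (l h : Fin 3 → ℤ) : Convex ℝ (zcl l h) := by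
  have : zcl l h = Icc (fun j => (l j : ℝ)) (fun j => (h j : ℝ)) := by
    ext y
    exact ⟨fun hy => ⟨fun j => (hy j).1, fun j => (hy j).2⟩, fun hy j => ⟨hy.1 j, hy.2 j⟩⟩
  rw [this]; exact convex_Icc _ _

/-- exit of a rectangle along a ray -/
theorem exists_exit {l h : Fin 3 → ℤ} {j : Fin 3} (hj : l j = h j) (hi : ∀ i, i ≠ j → l i < h i)
    {z u : E3} (hz : z ∈ zop l h) (huj : u j = 0) (hu : u ≠ 0) :
    ∃ t : ℝ, 0 < t ∧ z + t • u ∈ zcl l h \ zop l h := by
  obtain ⟨a, b, haj, hbj, hab, hall⟩ := others j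
  have hzi : ∀ i, i ≠ j → (l i : ℝ) < z i ∧ z i < (h i : ℝ) := by
    intro i hij
    rcases hz i with h1 | h1
    · exact absurd h1.1 (hi i hij).ne
    · exact h1
  have hzj : z j = (l j : ℝ) := by
    rcases hz j with h1 | h1
    · exact h1.2
    · rw [hj] at h1; exact absurd (h1.1.trans h1.2) (lt_irrefl _)
  let m : ℝ → ℝ := fun t => min (min (z a + t * u a - l a) (h a - (z a + t * u a)))
    (min (z b + t * u b - l b) (h b - (z b + t * u b)))
  have hmc : Continuous m := by fun_prop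
  have hm0 : 0 < m 0 := by
    have h1 := hzi a haj
    have h2 := hzi b hbj
    simp only [m, zero_mul, add_zero, lt_min_iff]
    exact ⟨⟨by linarith, by linarith⟩, ⟨by linarith, by linarith⟩⟩
  -- a large time
  obtain ⟨i₀, hi₀j, hi₀⟩ : ∃ i, i ≠ j ∧ u i ≠ 0 := by
    by_contra hcon
    push Not at hcon
    apply hu
    funext i
    by_cases hij : i = j
    · rw [hij]; exact huj
    · exact hcon i hij
  have hbig : ∃ t : ℝ, 0 < t ∧ m t < 0 := by
    have hw : (0 : ℝ) < h i₀ - l i₀ := by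
      have := (hzi i₀ hi₀j); linarith
    have habs : 0 < |u i₀| := abs_pos.2 hi₀
    refine ⟨(h i₀ - l i₀ + 1) / |u i₀|, by positivity, ?_⟩
    have hzz := hzi i₀ hi₀j
    have key : (z i₀ + (h i₀ - l i₀ + 1) / |u i₀| * u i₀ - l i₀ < 0) ∨
        (h i₀ - (z i₀ + (h i₀ - l i₀ + 1) / |u i₀| * u i₀) < 0) := by
      rcases lt_or_gt_of_ne hi₀ with h1 | h1
      · left
        rw [abs_of_neg h1]
        have e : ((h i₀ : ℝ) - l i₀ + 1) / -u i₀ * u i₀ = -((h i₀ : ℝ) - l i₀ + 1) := by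
          field_simp
        rw [e]; linarith
      · right
        rw [abs_of_pos h1, div_mul_cancel₀ _ h1.ne']
        linarith
    rcases hall i₀ with h1 | h1 | h1
    · exact absurd h1 hi₀j
    · rw [h1] at key ⊢
      simp only [m]
      rcases key with h2 | h2
      · exact lt_of_le_of_lt ((min_le_left _ _).trans (min_le_left _ _)) h2
      · exact lt_of_le_of_lt ((min_le_left _ _).trans (min_le_right _ _)) h2
    · rw [h1] at key ⊢
      simp only [m]
      rcases key with h2 | h2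
      · exact lt_of_le_of_lt ((min_le_right _ _).trans (min_le_left _ _)) h2
      · exact lt_of_le_of_lt ((min_le_right _ _).trans (min_le_right _ _)) h2
  obtain ⟨t₁, ht₁, hmt₁⟩ := hbig
  obtain ⟨t, ht, hmt⟩ := intermediate_value_Icc' ht₁.le hmc.continuousOn ⟨hmt₁.le, hm0.le⟩
  have ht0 : 0 < t := by
    rcases eq_or_lt_of_le ht.1 with h1 | h1
    · rw [← h1] at hmt; linarith
    · exact h1
  refine ⟨t, ht0, ?_, ?_⟩
  · have h1 : 0 ≤ m t := hmt.ge
    simp only [m, le_min_iff] at h1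
    obtain ⟨⟨a1, a2⟩, b1, b2⟩ := h1
    intro i
    rcases hall i with rfl | rfl | rfl
    · simp only [Pi.add_apply, Pi.smul_apply, smul_eq_mul, huj, mul_zero, add_zero, hzj, hj,
        le_refl, and_self]
    · simp only [Pi.add_apply, Pi.smul_apply, smul_eq_mul]
      exact ⟨by linarith, by linarith⟩
    · simp only [Pi.add_apply, Pi.smul_apply, smul_eq_mul]
      exact ⟨by linarith, by linarith⟩
  · intro hmem
    have ha := hmem a
    have hb := hmem b
    have ha' : (l a : ℝ) < z a + t * u a ∧ z a + t * u a < h a := by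
      rcases ha with h1 | h1
      · exact absurd h1.1 (hi a haj).ne
      · exact h1
    have hb' : (l b : ℝ) < z b + t * u b ∧ z b + t * u b < h b := by
      rcases hb with h1 | h1
      · exact absurd h1.1 (hi b hbj).ne
      · exact h1
    have : 0 < m t := by
      simp only [m, lt_min_iff]
      exact ⟨⟨by linarith [ha'.1], by linarith [ha'.2]⟩, ⟨by linarith [hb'.1], by linarith [hb'.2]⟩⟩
    rw [hmt] at this
    exact lt_irrefl _ this

/-- uniqueness of the exit -/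
theorem exit_unique {l h : Fin 3 → ℤ} {z u : E3} (hz : z ∈ zop l h) {s t : ℝ} (hs : 0 < s)
    (ht : 0 < t) (h1 : z + s • u ∈ zcl l h \ zop l h) (h2 : z + t • u ∈ zcl l h \ zop l h) :
    s = t := by
  have key : ∀ s t : ℝ, 0 < s → s < t → z + s • u ∉ zop l h → z + t • u ∈ zcl l h → False := by
    intro s t hs hst hn hm
    apply hn
    intro i
    have h3 := hm i
    have ht : 0 < t := hs.trans hst
    have hlam : 0 < s / t := by positivity
    have hlam1 : s / t < 1 := (div_lt_one ht).2 hst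
    have e : (z + s • u) i = (1 - s / t) * z i + (s / t) * (z + t • u) i := by
      simp only [Pi.add_apply, Pi.smul_apply, smul_eq_mul]
      field_simp
      ring
    rcases hz i with ⟨h4, h5⟩ | ⟨h4, h5⟩
    · left
      refine ⟨h4, ?_⟩
      have h6 : (z + t • u) i = (l i : ℝ) := by
        rw [← h4] at h3
        exact le_antisymm h3.2 h3.1
      rw [e, h6, h5]; ring
    · right
      rw [e]
      constructor
      · nlinarith [h3.1]
      · nlinarith [h3.2]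
  rcases lt_trichotomy s t with h | h | h
  · exact (key s t hs h h1.2 h2.1).elim
  · exact h
  · exact (key t s ht h h2.2 h1.1).elim

/-- **(TR)** the two-ray lemma -/
theorem rayStmt : RayStmt := by
  intro S F hDet hScl hTS hrat l h j hj hi z d hz hzS hdj hF
  obtain ⟨a, b, haj, hbj, hab, hall⟩ := others j
  -- coordinates
  let Λ : E3 →L[ℝ] ℂ := (Complex.equivRealProdCLM.symm : (ℝ × ℝ) →L[ℝ] ℂ).comp
    (((ContinuousLinearMap.proj a : E3 →L[ℝ] ℝ) -
        (d a / d j) • (ContinuousLinearMap.proj j : E3 →L[ℝ] ℝ)).prod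
      ((ContinuousLinearMap.proj b : E3 →L[ℝ] ℝ) -
        (d b / d j) • (ContinuousLinearMap.proj j : E3 →L[ℝ] ℝ)))
  have hΛ : ∀ v : E3, Λ v = ⟨v a - d a / d j * v j, v b - d b / d j * v j⟩ := fun v => rfl
  let σ : ℂ →L[ℝ] E3 := Complex.reCLM.smulRight (Pi.single a 1) +
    Complex.imCLM.smulRight (Pi.single b 1)
  have hσ : ∀ w : ℂ, σ w = w.re • (Pi.single a 1 : E3) + w.im • (Pi.single b 1 : E3) :=
    fun w => rfl
  have hσa : ∀ w : ℂ, σ w a = w.re := by
    intro w; rw [hσ]; simp [hab]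
  have hσb : ∀ w : ℂ, σ w b = w.im := by
    intro w; rw [hσ]; simp [hab.symm]
  have hσj : ∀ w : ℂ, σ w j = 0 := by
    intro w; rw [hσ]; simp [haj.symm, hbj.symm]
  have hΛσ : ∀ w, Λ (σ w) = w := by
    intro w
    rw [hΛ, hσa, hσb, hσj, mul_zero, mul_zero, sub_zero, sub_zero]
  have hσΛ : ∀ v : E3, σ (Λ v) = v - (v j / d j) • d := by
    intro v
    funext i
    rcases hall i with rfl | rfl | rfl
    · rw [hσj]
      simp only [Pi.sub_apply, Pi.smul_apply, smul_eq_mul]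
      field_simp
      ring
    · rw [hσa, hΛ]
      simp only [Pi.sub_apply, Pi.smul_apply, smul_eq_mul]
      field_simp
    · rw [hσb, hΛ]
      simp only [Pi.sub_apply, Pi.smul_apply, smul_eq_mul]
      field_simp
  have hzR : z ∈ zcl l h := by
    intro i
    rcases hz i with h1 | h1
    · rw [h1.2, ← h1.1]; exact ⟨le_refl _, le_refl _⟩
    · exact ⟨h1.1.le, h1.2.le⟩
  have hFσ : ∀ f ∈ F, ev f z = 0 → ∀ v, f.1 (σ (Λ v)) = f.1 v := by
    intro f hf hfz v
    have h1 := (hF f hf ⟨z, hzR, hfz⟩).2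
    rw [hσΛ, map_sub, map_smul, h1, smul_zero, sub_zero]
  -- good points
  let Good : E3 → Prop := fun y => ∀ f ∈ F, ev f z ≠ 0 → 0 < ev f y * ev f z
  have hevc : ∀ f : Af, Continuous (ev f) := fun f => by
    unfold ev; fun_prop
  have hGR : ∀ y ∈ zcl l h, Good y := by
    intro y hy f hf hfz
    by_contra hcon
    push Not at hcon
    have hpre : IsPreconnected (zcl l h) := (convex_zcl l h).isPreconnected
    have h0 : (0 : ℝ) ∈ (fun y => ev f y * ev f z) '' zcl l h := by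
      refine hpre.intermediate_value hy hzR
        ((hevc f).mul continuous_const).continuousOn ⟨hcon, ?_⟩
      exact (mul_self_pos.2 hfz).le
    obtain ⟨p, hp, hp0⟩ := h0
    have hp1 : ev f p = 0 := (mul_eq_zero.1 hp0).resolve_right hfz
    exact hfz (hF f hf ⟨p, hp, hp1⟩).1
  obtain ⟨r, hr, hGB⟩ : ∃ r > 0, ∀ y ∈ ball z r, Good y := by
    have h1 : ∀ᶠ y in 𝓝 z, Good y := by
      show ∀ᶠ y in 𝓝 z, ∀ f ∈ F, ev f z ≠ 0 → 0 < ev f y * ev f z
      rw [Finset.eventually_all]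
      intro f _
      by_cases hfz : ev f z = 0
      · exact Eventually.of_forall fun y h => absurd hfz h
      · have h2 : Tendsto (fun y => ev f y * ev f z) (𝓝 z) (𝓝 (ev f z * ev f z)) :=
          ((hevc f).mul continuous_const).tendsto z
        filter_upwards [h2.eventually (lt_mem_nhds (mul_self_pos.2 hfz))] with y hy _
        exact hy
    obtain ⟨r, hr, h2⟩ := Metric.eventually_nhds_iff.1 h1
    exact ⟨r, hr, fun y hy => h2 hy⟩
  -- comparison
  have hcmp : ∀ (y y' : E3) (w : ℂ) (s s' : ℝ), Good y → Good y' → 0 < s → 0 < s' →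
      Λ (y - z) = s • w → Λ (y' - z) = s' • w → y ∈ S → y' ∈ S := by
    intro y y' w s s' hy hy' hs hs' e e' hyS
    refine hDet y y' (fun f hf => ?_) hyS
    by_cases hfz : ev f z = 0
    · have h1 : ∀ p : E3, ev f p = f.1 (p - z) := by
        intro p
        have : ev f p = f.1 (p - z) + ev f z := by
          simp only [ev, map_sub]; ring
        rw [this, hfz, add_zero]
      have h3 : ∀ (p : E3) (s : ℝ), Λ (p - z) = s • w → ev f p = s * f.1 (σ w) := by
        intro p s hp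
        rw [h1, ← hFσ f hf hfz, hp, map_smul, map_smul, smul_eq_mul]
      rw [h3 y s e, h3 y' s' e', sign_mul, sign_mul, sign_pos hs, sign_pos hs']
    · exact sign_eq_of_mul (hy f hf hfz) (hy' f hf hfz)
  let tau : ℂ → ℝ := fun w => r / (2 * (‖σ w‖ + 1))
  have htau : ∀ w, 0 < tau w := fun w => by
    have := norm_nonneg (σ w)
    simp only [tau]; positivity
  have htb : ∀ w, z + tau w • σ w ∈ ball z r := by
    intro w
    have h0 := norm_nonneg (σ w)
    rw [mem_ball, dist_eq_norm, add_sub_cancel_left, norm_smul, Real.norm_eq_abs,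
      abs_of_pos (htau w)]
    calc tau w * ‖σ w‖ ≤ tau w * (‖σ w‖ + 1) := by
          have := (htau w).le
          gcongr; linarith
      _ = r / 2 := by simp only [tau]; field_simp
      _ < r := by linarith
  let G : ℂ → Prop := fun w => z + tau w • σ w ∈ S
  have hkey : ∀ y, Good y → ∀ w : ℂ, ∀ s : ℝ, 0 < s → Λ (y - z) = s • w → (y ∈ S ↔ G w) := by
    intro y hy w s hs e
    have e' : Λ (z + tau w • σ w - z) = tau w • w := by
      rw [add_sub_cancel_left, map_smul, hΛσ]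
    exact ⟨hcmp _ _ w s (tau w) hy (hGB _ (htb w)) hs (htau w) e e',
      hcmp _ _ w (tau w) s (hGB _ (htb w)) hy (htau w) hs e' e⟩
  obtain ⟨w₁, w₂, hw₁, hw₂, hne, hG₁, hG₂, hall2⟩ := two_dirs hr Λ σ hΛσ G
    (fun y hy => hkey y (hGB y hy)) hzS hTS
  have hσ0 : ∀ w : ℂ, w ≠ 0 → σ w ≠ 0 := by
    intro w hw h1
    apply hw
    rw [← hΛσ w, h1, map_zero]
  obtain ⟨t₁, ht₁, hx₁⟩ := exists_exit hj hi hz (hσj w₁) (hσ0 w₁ hw₁)
  obtain ⟨t₂, ht₂, hx₂⟩ := exists_exit hj hi hz (hσj w₂) (hσ0 w₂ hw₂)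
  have hΛt : ∀ (t : ℝ) (w : ℂ), Λ (z + t • σ w - z) = t • w := by
    intro t w
    rw [add_sub_cancel_left, map_smul, hΛσ]
  have hzj : z j = (l j : ℝ) := by
    rcases hz j with h1 | h1
    · exact h1.2
    · rw [hj] at h1; exact absurd (h1.1.trans h1.2) (lt_irrefl _)
  have hRj : ∀ y ∈ zcl l h, y j = (l j : ℝ) := by
    intro y hy
    have h1 := hy j
    rw [← hj] at h1
    exact le_antisymm h1.2 h1.1
  have e : (zcl l h \ zop l h) ∩ S = {z + t₁ • σ w₁, z + t₂ • σ w₂} := by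
    apply Subset.antisymm
    · rintro y ⟨hy, hyS⟩
      have h1 : σ (Λ (y - z)) = y - z := by
        rw [hσΛ]
        have : (y - z) j = 0 := by rw [Pi.sub_apply, hRj y hy.1, hzj, sub_self]
        rw [this, zero_div, zero_smul, sub_zero]
      have h3 : Λ (y - z) ≠ 0 := by
        intro h4
        rw [h4, map_zero] at h1
        have : y = z := (sub_eq_zero.1 h1.symm)
        exact hy.2 (this ▸ hz)
      have h4 : G (Λ (y - z)) := (hkey y (hGR y hy.1) _ 1 one_pos (by rw [one_smul])).1 hyS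
      obtain ⟨s, hs, h5 | h5⟩ := hall2 _ h3 h4
      · left
        have h6 : y = z + s • σ w₁ := by
          rw [h5, map_smul] at h1
          rw [h1]; abel
        rw [h6] at hy ⊢
        rw [exit_unique hz hs ht₁ hy hx₁]
      · right
        have h6 : y = z + s • σ w₂ := by
          rw [h5, map_smul] at h1
          rw [h1]; abel
        rw [h6] at hy ⊢
        rw [exit_unique hz hs ht₂ hy hx₂]
        rfl
    · rintro y (rfl | rfl)
      · exact ⟨hx₁, (hkey _ (hGR _ hx₁.1) _ _ ht₁ (hΛt _ _)).2 hG₁⟩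
      · exact ⟨hx₂, (hkey _ (hGR _ hx₂.1) _ _ ht₂ (hΛt _ _)).2 hG₂⟩
  rw [e]
  apply Set.ncard_pair
  intro h1
  have h3 : t₁ • w₁ = t₂ • w₂ := by rw [← hΛt t₁ w₁, ← hΛt t₂ w₂, h1]
  refine hne (t₁⁻¹ * t₂) (by positivity) ?_
  rw [mul_smul, ← h3, smul_smul, inv_mul_cancel₀ ht₁.ne', one_smul]

end Crest.Agent.R096.Rs1_161
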