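import Crest.Agent.R096.Til2_324

/-!
# R096 (row 96), P2-GEN (X45), part 3 (helper324): `til : RayStmt → TilStmt`
-/

set_option autoImplicit false

open Set Metric Topology

namespace Crest.Agent.R096.Til_324

open Msh_715 Gp_702 Ex_914

section

variable {F : Finset Af} {S : Set E3} {ι : Type} {T : Tiling (univ : Set E3) ι}

/-- a zero-dimensional cell is an integer point -/
theorem int_of_dim0 (hB : Bxs T) {x : E3} (hd : T.dim x = 0) : ∃ q : Fin 3 → ℤ,
    x = fun j => (q j : ℝ) := by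
  obtain ⟨l, h, hl, hcc, hoc⟩ := hB x
  have h1 := dim_eq_card hl hcc hoc
  rw [hd] at h1
  have h2 : IsEmpty {j : Fin 3 // l j ≠ h j} := Fintype.card_eq_zero_iff.1 h1.symm
  refine ⟨l, ?_⟩
  funext j
  have h3 : l j = h j := by
    by_contra hne
    exact h2.false ⟨j, hne⟩
  have h4 : x ∈ zcl l h := hcc ▸ T.self_mem_cc x
  exact zcl_eq_of_eq h4 h3

/-- on a cell which is met by one plane only, `S` is the plane -/
theorem plane_of (hD : Det F S) (hT : ∀ x ∈ S, Ax_914.TwoSidedAt S x) {x : E3}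
    (hne : (T.cc x ∩ S).Nonempty)
    (h : ∀ f ∈ F, ∀ g ∈ F, (∃ y ∈ T.cc x, ev f y = 0) → (∃ y ∈ T.cc x, ev g y = 0) →
      ∃ c : ℝ, c ≠ 0 ∧ g.1 = c • f.1 ∧ g.2 = c * f.2) :
    ∃ f : Af, ∀ y ∈ T.cc x, y ∈ S ↔ f.1 y = -f.2 := by
  obtain ⟨y0, hy0, hy0S⟩ := hne
  have h1 : ∃ f ∈ F, ev f y0 = 0 := by
    by_contra hcon
    push Not at hcon
    exact rank0 hD hT hcon hy0S
  obtain ⟨f, hf, hf0⟩ := h1
  have key : ∀ g ∈ F, (∃ y ∈ T.cc x, ev g y = 0) → ∃ c : ℝ, c ≠ 0 ∧ ∀ y, ev g y = c * ev f y := by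
    intro g hg hy
    obtain ⟨c, hc, h2, h3⟩ := h f hf g hg ⟨y0, hy0, hf0⟩ hy
    refine ⟨c, hc, fun y => ?_⟩
    simp only [ev, h2, h3, ContinuousLinearMap.smul_apply, smul_eq_mul]
    ring
  refine ⟨f, fun y hy => ?_⟩
  have he : f.1 y = -f.2 ↔ ev f y = 0 := by
    unfold ev
    constructor <;> intro h <;> linarith
  rw [he]
  constructor
  · intro hyS
    by_contra hfy
    refine rank0 hD hT (fun g hg hg0 => ?_) hyS
    obtain ⟨c, hc, h2⟩ := key g hg ⟨y, hy, hg0⟩
    rw [h2] at hg0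
    rcases mul_eq_zero.1 hg0 with e | e
    · exact hc e
    · exact hfy e
  · intro hfy
    refine hD y0 y (fun g hg => ?_) hy0S
    by_cases hz : ∃ y ∈ T.cc x, ev g y = 0
    · obtain ⟨c, hc, h2⟩ := key g hg hz
      rw [h2, h2, hf0, hfy]
    · exact sign_const (T.convex_cc x) hz hy0 hy

end

/-- **(X45)** -/
theorem til (hR : RayStmt) : TilStmt := by
  classical
  intro F M K S hM hF1 hF hD hSc hK hT
  set hfam := fam_fam hM.nd hM.dis with hfamdef
  set T := boxTiling hfam with hTdef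
  have hB : Bxs T := bxs hfam
  have hrat : ∀ q : Fin 3 → ℤ, (fun j => (q j : ℝ)) ∉ S := fun q =>
    rank0 hD hT fun f hf => hF f hf q
  have hvert : ∀ x ∈ S, T.dim x ≠ 0 := by
    intro x hx hd
    obtain ⟨q, rfl⟩ := int_of_dim0 hB hd
    exact hrat q hx
  have hvert' : ∀ x : E3, ∀ v ∈ T.cc x, T.dim v = 0 → v ∉ S := fun x v _ hd hv => hvert v hv hd
  have hcen : ∀ x, (T.cc x ∩ S).Nonempty → ∃ z ∈ T.oc x, z ∈ S ∧
      ∀ y ∈ T.cc x \ T.oc x, ∀ t : ℝ, 0 < t → t ≤ 1 → (z + t • (y - z) ∈ S ↔ y ∈ S) := by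
    intro x hx
    have hfin : ∀ z ∈ T.oc x, (∀ f ∈ F, (∃ y ∈ T.cc x, ev f y = 0) → ev f z = 0) →
        ∃ z ∈ T.oc x, z ∈ S ∧
      ∀ y ∈ T.cc x \ T.oc x, ∀ t : ℝ, 0 < t → t ≤ 1 → (z + t • (y - z) ∈ S ↔ y ∈ S) :=
      fun z hz hzF => ⟨z, hz, zero_mem hD hSc.isClosed (T.convex_cc x) (T.oc_sub_cc x hz) hzF hx,
        fun y hy t ht ht1 => cone_of hD (T.convex_cc x) (T.oc_sub_cc x hz) hzF hy.1 ht ht1⟩
    rcases kinds hM hK hx with h | ⟨-, z, hz, hzF⟩ | ⟨j, z, d, hz, -, -, hzF⟩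
    · obtain ⟨f, hf⟩ := plane_of hD hT hx h
      exact Exl2_161.cen_of_plane f.1 (-f.2) hf (hvert' x) hx
    · exact hfin z hz hzF
    · exact hfin z hz fun f hf hy => (hzF f hf hy).1
  have htwo : ∀ x ∈ S, T.dim x = 2 → ((T.cc x \ T.oc x) ∩ S).ncard = 2 := by
    intro x hxS hd
    have hx : (T.cc x ∩ S).Nonempty := ⟨x, T.self_mem_cc x, hxS⟩
    rcases kinds hM hK hx with h | ⟨hi, -⟩ | ⟨j, z, d, hz, hdj, hj, hzF⟩
    · obtain ⟨f, hf⟩ := plane_of hD hT hx h
      exact Exl2_161.two_of_plane f.1 (-f.2) hf (hvert' x) hx hd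
    · exfalso
      have hV : T.V x = ⊤ := (T.V_eq_top_iff (mem_univ x)).2 hi
      have h1 : T.dim x = 3 := by
        show Module.finrank ℝ (T.V x) = 3
        rw [hV]
        simp
      omega
    · obtain ⟨l, h, hl, hcc, hoc⟩ := hB x
      have hzS : z ∈ S := zero_mem hD hSc.isClosed (T.convex_cc x) (T.oc_sub_cc x hz)
        (fun f hf hy => (hzF f hf hy).1) hx
      have hlj : l j = h j := by
        have h1 : (fun k => (l k : ℝ)) ∈ T.cc x := by
          rw [hcc]; intro k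
          have h0 : (l k : ℝ) ≤ h k := by exact_mod_cast hl k
          exact ⟨le_rfl, h0⟩
        have h2 : (fun k => (h k : ℝ)) ∈ T.cc x := by
          rw [hcc]; intro k
          have h0 : (l k : ℝ) ≤ h k := by exact_mod_cast hl k
          exact ⟨h0, le_rfl⟩
        have h3 : (l j : ℝ) = z j := hj _ h1
        have h4 : (h j : ℝ) = z j := hj _ h2
        exact_mod_cast h3.trans h4.symm
      have hli : ∀ i, i ≠ j → l i < h i := by
        intro i hij
        refine lt_of_le_of_ne (hl i) fun e => ?_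
        have h1 := dim_eq_card hl hcc hoc
        rw [hd] at h1
        have h2 : Fintype.card {k : Fin 3 // l k ≠ h k} ≤
            (({i, j} : Finset (Fin 3))ᶜ).card := by
          rw [Fintype.card_subtype]
          refine Finset.card_le_card fun k hk => ?_
          rw [Finset.mem_filter] at hk
          rw [Finset.mem_compl, Finset.mem_insert, Finset.mem_singleton]
          rintro (rfl | rfl)
          · exact hk.2 e
          · exact hk.2 hlj
        rw [Finset.card_compl, Finset.card_pair hij, Fintype.card_fin] at h2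
        omega
      have := hR S F hD hSc.isClosed hT hF l h j hlj hli z d (hoc ▸ hz) hzS hdj
        (fun f hf hy => hzF f hf (by rw [hcc]; exact hy))
      rw [hcc, hoc]
      exact this
  exact ⟨_, T, hB, Exl1_161.adapted_of hSc hvert hcen htwo hT⟩

end Crest.Agent.R096.Til_324
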