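import Crest.Agent.R096.Ex3_914
import Crest.Agent.R096.Ex3_702
import Crest.Agent.R096.Ex4_451
import Crest.Agent.R096.Gen1_458
import Crest.Agent.R096.Rs2_161
import Crest.Agent.R096.Til3_324

/-!
# R096 (row 96), P2-GEN (EXIST), part 5 (helper914): assembly, `existStmt : Gp_702.ExistStmt`
-/

set_option autoImplicit false

open Set Metric Topology

namespace Crest.Agent.R096.Ex_914

open Msh_715 Gp_702

theorem scl_scl (m G : ℕ) (F : Finset Af) : scl m (scl G F) = scl (m * G) F := by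
  classical
  ext g
  simp only [mem_scl]
  constructor
  · rintro ⟨f, ⟨f', hf', rfl⟩, rfl⟩
    refine ⟨f', hf', ?_⟩
    push_cast
    simp only [mul_assoc]
  · rintro ⟨f', hf', rfl⟩
    refine ⟨_, ⟨f', hf', rfl⟩, ?_⟩
    push_cast
    simp only [mul_assoc]

/-- **(X3)** -/
theorem macStmt : MacStmt := by
  classical
  intro F hF K
  obtain ⟨L, a2, b2, hL⟩ := lines hF
  obtain ⟨G, hG, σ, iσ, lo, hi, aw, τ, tw, H⟩ := slabs F L a2 b2 K
  have hG' : (0 : ℝ) < G := by exact_mod_cast hG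
  have hne : ∀ f ∈ scl G F, f.1 ≠ 0 := by
    intro f hf
    obtain ⟨g, hg, rfl⟩ := mem_scl.1 hf
    exact hF.ne g hg
  have hc : ∀ f ∈ scl G F, ∀ g ∈ scl G F, ∀ x : E3, ev f x = 0 → ev g x = 0 →
      (∃ c : ℝ, c ≠ 0 ∧ g.1 = c • f.1 ∧ g.2 = c * f.2) ∨
        (|x 2| ≤ G * K + 1 → x ∈ interior (⋃ b ∈ macs (sclL G L) lo hi aw τ, zcl b.1 b.2)) := by
    intro f hf g hg x h1 h2
    obtain ⟨f, hf', rfl⟩ := mem_scl.1 hf
    obtain ⟨g, hg', rfl⟩ := mem_scl.1 hg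
    have hx : x = (G : ℝ) • ((G : ℝ)⁻¹ • x) := by
      rw [smul_smul, mul_inv_cancel₀ hG'.ne', one_smul]
    have e1 : ev f ((G : ℝ)⁻¹ • x) = 0 := by
      rw [hx, ev_scl] at h1
      exact (mul_eq_zero.1 h1).resolve_left hG'.ne'
    have e2 : ev g ((G : ℝ)⁻¹ • x) = 0 := by
      rw [hx, ev_scl] at h2
      exact (mul_eq_zero.1 h2).resolve_left hG'.ne'
    rcases hL f hf' g hg' _ e1 e2 with ⟨c, hc0, hc1, hc2⟩ | ⟨u, hu, hxu⟩
    · refine Or.inl ⟨c, hc0, hc1, ?_⟩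
      show (G : ℝ) * g.2 = c * (G * f.2)
      rw [hc2]; ring
    · refine Or.inr fun hx2 => ?_
      have e3 : x = pt ((G : ℝ) • u.1, u.2) (x 2) := by
        rw [pt_scl hG]
        conv_lhs => rw [hx, hxu]
        congr 2
        simp only [Pi.smul_apply, smul_eq_mul]
        field_simp
      rw [e3]
      exact cover H (mem_sclL.2 ⟨u, hu, rfl⟩) hx2
  obtain ⟨m, hm, hM⟩ := Ex3_702.small_of (mac0_of_slb H) hne hc
  have e : ((m * G : ℕ) : ℝ) * K = m * (G * K) := by push_cast; ring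
  rw [scl_scl, ← e] at hM
  exact ⟨m * G, Nat.mul_pos hm hG, _, hM⟩

/-- **(EXIST)** -/
theorem existStmt : ExistStmt := exist_of Gen_458.genStmt macStmt (Til_324.til Rs1_161.rayStmt)

end Crest.Agent.R096.Ex_914

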