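import Crest.Agent.R096.GpU1_702

/-!
# R096 (row 96), P2-GEN (N7) (helper702): the boundary of a crossing cell of dimension 3
-/

set_option autoImplicit false

open Set Metric Topology Filter

namespace Crest.Agent.R096.Gp_702

open Ce_537 Msh_715

section Cells

variable {ι : Type} {T : Tiling (univ : Set E3) ι} {S R0 R1 : Set E3}

/-- radial exit -/
theorem exists_radial {x z w : E3} (hz : z ∈ T.oc x) (hw : w ∈ T.cc x) (hwz : w ≠ z) :
    ∃ y ∈ T.cc x \ T.oc x, ∃ r : ℝ, 0 < r ∧ r ≤ 1 ∧ w = z + r • (y - z) := by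
  have hv : w - z ∈ T.V z := by
    have h1 : w ∈ T.cc z := by rw [T.cc_eq_of_mem_oc (mem_univ x) hz]; exact hw
    exact T.sub_mem_V h1
  obtain ⟨t, ht0, ht1, ht2, ht3⟩ := T.exists_exit (mem_univ z) hv (sub_ne_zero.2 hwz)
  rw [T.cc_eq_of_mem_oc (mem_univ x) hz] at ht1
  rw [T.oc_eq_of_mem (mem_univ x) hz] at ht2 ht3
  have ht : 1 ≤ t := by
    by_contra hlt
    push Not at hlt
    apply ht2
    have h1 := T.move_mem_oc (x := z) (y := w) (by
      rw [T.cc_eq_of_mem_oc (mem_univ x) hz]; exact hw) (s := 1 - t) (by linarith)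
      (by linarith)
    rw [T.oc_eq_of_mem (mem_univ x) hz] at h1
    have h2 : z + t • (w - z) = w + (1 - t) • (z - w) := by module
    rw [h2]; exact h1
  have hwe : w = z + t⁻¹ • ((z + t • (w - z)) - z) := by
    rw [add_sub_cancel_left, smul_smul, inv_mul_cancel₀ ht0.ne', one_smul]
    abel
  exact ⟨z + t • (w - z), ⟨ht1, ht2⟩, t⁻¹, by positivity, inv_le_one_of_one_le₀ ht, hwe⟩

/-- uniqueness of the radial exit -/
theorem radial_unique {z p q : E3} (hp : p ∈ T.cc z \ T.oc z) (hq : q ∈ T.cc z \ T.oc z) {a b : ℝ}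
    (ha : 0 < a) (hb : 0 < b) (h : z + a • (p - z) = z + b • (q - z)) : p = q := by
  have aux : ∀ {p q : E3} {a b : ℝ}, p ∈ T.cc z \ T.oc z → q ∈ T.cc z \ T.oc z → 0 < a → 0 < b →
      z + a • (p - z) = z + b • (q - z) → a ≤ b → p = q := by
    intro p q a b hp hq ha hb h hab
    rcases hab.eq_or_lt with rfl | hlt
    · have h1 : a • (p - z) = a • (q - z) := add_left_cancel h
      have h2 := smul_right_injective E3 ha.ne' h1
      exact sub_left_injective h2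
    · exfalso
      apply hq.2
      have h1 : a • (p - z) = b • (q - z) := add_left_cancel h
      have h2 : q - z = (a / b) • (p - z) := by
        rw [div_eq_inv_mul, mul_smul, h1, smul_smul, inv_mul_cancel₀ hb.ne', one_smul]
      have h3 : q = p + (1 - a / b) • (z - p) := by
        have : q = z + (a / b) • (p - z) := by rw [← h2]; abel
        rw [this]; module
      rw [h3]
      exact T.move_mem_oc hp.1 (by rw [sub_pos, div_lt_one hb]; exact hlt)
        (by have : 0 < a / b := by positivity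
            linarith)
  rcases le_total a b with h1 | h1
  · exact aux hp hq ha hb h h1
  · exact (aux hq hp hb ha h.symm h1).symm

/-- the trace of `S` on a crossing 2-cell is an arc -/
theorem arc_cell (hA : Adapted T S) {w : E3} (hw : Cr T S w) (hd : T.dim w = 2) :
    ∃ z p q : E3, z ∈ S ∧ T.cc z = T.cc w ∧ T.dim z = 2 ∧ z ∈ T.oc w ∧
      IsBall 1 (T.cc z ∩ S) {p, q} ∧ (T.cc z \ T.oc z) ∩ S = {p, q} := by
  obtain ⟨z, hz1, hz2, hz3⟩ := hA.cen w hw
  have hcc := T.cc_eq_of_mem_oc (mem_univ w) hz1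
  have hoc := T.oc_eq_of_mem (mem_univ w) hz1
  have hdz : T.dim z = 2 := (T.dim_eq_of_mem_oc (mem_univ w) hz1).trans hd
  obtain ⟨p, q, hpq, hS⟩ := ncard_eq_two.1 (hA.two z hz2 hdz)
  rw [← hcc, ← hoc] at hz3
  have hp : p ∈ (T.cc z \ T.oc z) ∩ S := by rw [hS]; exact Or.inl rfl
  have hq : q ∈ (T.cc z \ T.oc z) ∩ S := by rw [hS]; exact Or.inr rfl
  have hzo : z ∈ T.oc z := T.self_mem_oc z
  have hne : ∀ y ∈ T.cc z \ T.oc z, z ≠ y := by
    rintro y hy rfl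
    exact hy.2 hzo
  have hseg : ∀ y, y ∈ (T.cc z \ T.oc z) ∩ S → segment ℝ z y ⊆ T.cc z ∩ S := by
    rintro y ⟨hy, hyS⟩ v hv
    rw [segment_eq_image'] at hv
    obtain ⟨t, ⟨ht0, ht1⟩, rfl⟩ := hv
    refine ⟨(T.convex_cc z).add_smul_sub_mem (T.self_mem_cc z) hy.1 ⟨ht0, ht1⟩, ?_⟩
    rcases ht0.eq_or_lt with rfl | ht
    · simpa using hz2
    · exact (hz3 y hy t ht ht1).2 hyS
  have hunion : T.cc z ∩ S = segment ℝ p z ∪ segment ℝ z q := by
    refine Subset.antisymm ?_ (union_subset ?_ (hseg q hq))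
    · rintro v ⟨hv1, hv2⟩
      by_cases hvz : v = z
      · rw [hvz]; exact Or.inr (left_mem_segment _ _ _)
      · obtain ⟨y, hy, r, hr0, hr1, hvr⟩ := exists_radial hzo hv1 hvz
        have hyS : y ∈ S := (hz3 y hy r hr0 hr1).1 (hvr ▸ hv2)
        have hy' : y ∈ ({p, q} : Set E3) := by rw [← hS]; exact ⟨hy, hyS⟩
        have hvs : v ∈ segment ℝ z y := by
          rw [segment_eq_image']
          exact ⟨r, ⟨hr0.le, hr1⟩, hvr.symm⟩
        rcases hy' with rfl | rfl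
        · left; rw [segment_symm]; exact hvs
        · right; exact hvs
    · rw [segment_symm]; exact hseg p hp
  have hinter : segment ℝ p z ∩ segment ℝ z q = {z} := by
    ext v
    constructor
    · rintro ⟨h1, h2⟩
      rw [segment_symm, segment_eq_image'] at h1
      rw [segment_eq_image'] at h2
      obtain ⟨a, ⟨ha0, -⟩, rfl⟩ := h1
      obtain ⟨b, ⟨hb0, -⟩, hb⟩ := h2
      rcases ha0.eq_or_lt with rfl | ha
      · simp
      · rcases hb0.eq_or_lt with rfl | hb'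
        · beta_reduce at hb ⊢
          rw [← hb]; simp
        · exact absurd (radial_unique hp.1 hq.1 ha hb' hb.symm) hpq
    · rintro rfl
      exact ⟨right_mem_segment _ _ _, left_mem_segment _ _ _⟩
  refine ⟨z, p, q, hz2, hcc, hdz, hz1, ?_, hS⟩
  rw [hunion]
  exact Cb_609.arc_glue (Cb_609.isBall_segment (hne p hp.1).symm)
    (Cb_609.isBall_segment (hne q hq.1)) hinter

/-- 3-dimensional cells are tiles -/
theorem exists_tile {x : E3} (hd : T.dim x = 3) : ∃ i, x ∈ I (T.H i) ∧ T.cc x = P (T.H i) ∧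
    T.oc x = I (T.H i) := by
  have h1 : T.V x = ⊤ := by
    apply Submodule.eq_top_of_finrank_eq
    have : Module.finrank ℝ E3 = 3 := by simp
    rw [this]; exact hd
  obtain ⟨i, hi⟩ := (T.V_eq_top_iff (mem_univ x)).1 h1
  exact ⟨i, hi, T.cc_eq_tile hi, T.oc_eq_tile hi⟩

/-- two faces at a 1-cell of the boundary of a 3-cell -/
theorem two_faces {x p : E3} (hd : T.dim x = 3) (hp : p ∈ T.cc x) (hdp : T.dim p = 1) :
    ∃ x₁ ∈ T.cc x \ T.oc x, ∃ x₂ ∈ T.cc x \ T.oc x, T.dim x₁ = 2 ∧ T.dim x₂ = 2 ∧ p ∈ T.cc x₁ ∧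
      p ∈ T.cc x₂ ∧ T.cc x₁ ≠ T.cc x₂ ∧ ∀ y ∈ T.cc x \ T.oc x, T.dim y = 2 → p ∈ T.cc y →
        T.cc y = T.cc x₁ ∨ T.cc y = T.cc x₂ := by
  obtain ⟨i, hi, hcc, hoc⟩ := exists_tile hd
  have h3 : Module.finrank ℝ E3 = 3 := by simp
  obtain ⟨x₁, -, x₂, -, d1, d2, i1, i2, p1, p2, hne, hall⟩ :=
    Agl3_543.two_cells (T := T) h3 (mem_univ p) hdp (q := i) (by
      show p ∈ P (T.H i)
      rw [← hcc]; exact hp)
  have hmem : ∀ y, i ∈ T.at_ y → T.dim y = 2 → y ∈ T.cc x \ T.oc x := by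
    intro y hy hdy
    refine ⟨by rw [hcc]; exact hy, fun h => ?_⟩
    have := T.dim_eq_of_mem_oc (mem_univ x) h
    omega
  refine ⟨x₁, hmem x₁ i1 d1, x₂, hmem x₂ i2 d2, d1, d2, p1, p2, hne, fun y hy hdy hpy => ?_⟩
  refine hall y (mem_univ y) hdy ?_ hpy
  show y ∈ P (T.H i)
  rw [← hcc]; exact hy.1

/-- a crossing 3-cell has a boundary point on `S` -/
theorem bd_nonempty (hR : Sides T S R0 R1) {x z : E3} (hz : Apex T S x z) (hd : T.dim x = 3)
    (hcon : IsPreconnected (T.cc x \ T.oc x)) : ((T.cc x \ T.oc x) ∩ S).Nonempty := by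
  by_contra hne
  rw [not_nonempty_iff_eq_empty] at hne
  obtain ⟨i, hi, hcc, hoc⟩ := exists_tile hd
  have hopen : IsOpen (T.oc x) := by rw [hoc]; exact isOpen_I _
  have hcov : T.cc x \ T.oc x ⊆ R0 ∪ R1 := by rw [hR.union]; exact subset_univ _
  have hR0 : IsClosed R0 := hR.cpt.isClosed
  have hsplit : (T.cc x \ T.oc x) ⊆ R0 ∨ ∀ y ∈ T.cc x \ T.oc x, y ∉ R0 := by
    by_contra hc
    push Not at hc
    obtain ⟨h1, y, hy, hy0⟩ := hc
    obtain ⟨y', hy', hy1⟩ := not_subset.1 h1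
    have hy1' : y' ∈ R1 := (hcov hy').resolve_left hy1
    obtain ⟨v, hv, hv0, hv1⟩ := (isPreconnected_closed_iff.1 hcon) R0 R1 hR0 hR.closed1 hcov
      ⟨y, hy, hy0⟩ ⟨y', hy', hy1'⟩
    have : v ∈ (T.cc x \ T.oc x) ∩ S := ⟨hv, by rw [← hR.inter]; exact ⟨hv0, hv1⟩⟩
    rw [hne] at this
    exact this
  rcases hsplit with h | h
  · have h1 : T.oc x ⊆ R0 := by
      intro w hw
      by_cases hwz : w = z
      · rw [hwz]; exact (S_sub hR).1 hz.2.1
      · obtain ⟨y, hy, r, hr0, hr1, rfl⟩ := exists_radial hz.1 (T.oc_sub_cc x hw) hwz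
        exact (hR.cone0 x z hz y hy r hr0 hr1).2 (h hy)
    have h2 : z ∈ interior R0 := mem_interior.2 ⟨T.oc x, h1, hopen, hz.1⟩
    have h3 : z ∈ frontier R0 := by rw [hR.front]; exact hz.2.1
    exact h3.2 h2
  · have h1 : ∀ w ∈ T.oc x, w ∈ R0 → w = z := by
      intro w hw hw0
      by_contra hwz
      obtain ⟨y, hy, r, hr0, hr1, rfl⟩ := exists_radial hz.1 (T.oc_sub_cc x hw) hwz
      exact h y hy ((hR.cone0 x z hz y hy r hr0 hr1).1 hw0)
    have h2 : z ∈ closure (interior R0) := by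
      rw [hR.reg]; exact (S_sub hR).1 hz.2.1
    obtain ⟨w, hw1, hw2⟩ := mem_closure_iff.1 h2 (T.oc x) hopen hz.1
    have h3 : T.oc x ∩ interior R0 ⊆ {z} := fun v hv => h1 v hv.1 (interior_subset hv.2)
    have h4 : w ∈ interior ({z} : Set E3) :=
      mem_interior.2 ⟨_, h3, hopen.inter isOpen_interior, ⟨hw1, hw2⟩⟩
    rw [interior_singleton] at h4
    exact h4

/-- **dimension 3** -/
theorem th_dim3 (h3 : CircStmt) (hT : Bxs T) (hA : Adapted T S) (hR : Sides T S R0 R1) {x : E3}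
    (hx : Cr T S x) (hd : T.dim x = 3) : ∃ th : PLEquiv (T.cc x \ T.oc x) (sph 3),
      th.f '' (R0 ∩ (T.cc x \ T.oc x)) = Hu (k := 3) three_pos ∧
      th.f '' (R1 ∩ (T.cc x \ T.oc x)) = Hd (k := 3) three_pos := by
  classical
  obtain ⟨l, h, hl, hcc, hoc⟩ := hT x
  obtain ⟨z, hz1, hz2, hz3⟩ := hA.cen x hx
  have hcard := dim_eq_card hl hcc hoc
  rw [hd] at hcard
  have hlt : ∀ j, l j ≠ h j := by
    have h1 : Fintype.card {j : Fin 3 // l j ≠ h j} = Fintype.card (Fin 3) := by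
      rw [← hcard]; simp
    by_contra hc
    push Not at hc
    obtain ⟨j, hj⟩ := hc
    have := Fintype.card_subtype_lt (p := fun j => l j ≠ h j) (x := j) (by simpa using hj)
    omega
  have hltR : ∀ j, ((l j : ℝ)) < (h j : ℝ) := fun j => by
    exact_mod_cast lt_of_le_of_ne (hl j) (hlt j)
  have hbb : T.cc x \ T.oc x = bb (fun j => (l j : ℝ)) (fun j => (h j : ℝ)) := by
    rw [hcc, hoc]
    ext y
    constructor
    · rintro ⟨h1, h2⟩
      refine ⟨⟨fun j => (h1 j).1, fun j => (h1 j).2⟩, ?_⟩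
      by_contra hc
      push Not at hc
      apply h2
      intro j
      exact Or.inr ⟨lt_of_le_of_ne (h1 j).1 (Ne.symm (hc j).1), lt_of_le_of_ne (h1 j).2 (hc j).2⟩
    · rintro ⟨⟨h1, h2⟩, j, hj⟩
      refine ⟨fun j => ⟨h1 j, h2 j⟩, fun h4 => ?_⟩
      have h5 := zop_lt h4 (hlt j)
      rcases hj with hj | hj
      · rw [hj] at h5; exact absurd h5.1 (lt_irrefl _)
      · rw [hj] at h5; exact absurd h5.2 (lt_irrefl _)
  have hball := Gn_296.isBall_box hltR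
  have hconB : IsPreconnected (T.cc x \ T.oc x) := by
    rw [hbb]
    obtain ⟨e, he⟩ := hball
    rw [← he]
    refine IsPreconnected.image ?_ _ (e.pf.1.mono sph_subset_cube)
    have hr : 1 < Module.rank ℝ (Fin 3 → ℝ) := by
      rw [← Module.finrank_eq_rank]
      simp
    exact (isPreconnected_sphere hr (0 : Fin 3 → ℝ) 1)
  -- the crossing 2-cells
  let FF : Set (Set E3) := {c | ∃ w ∈ T.cc x \ T.oc x, T.dim w = 2 ∧ Cr T S w ∧ c = T.cc w}
  have hFF : FF.Finite := by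
    refine (T.finite_below (mem_univ x)).subset ?_
    rintro c ⟨w, hw, -, -, rfl⟩
    exact ⟨⟨w, mem_univ w, rfl⟩, T.cc_sub_of_mem hw.1⟩
  have : Finite FF := hFF
  have hch : ∀ c : FF, ∃ z p q : E3, z ∈ S ∧ T.cc z = c.1 ∧ T.dim z = 2 ∧
      z ∈ T.cc x \ T.oc x ∧ IsBall 1 (T.cc z ∩ S) {p, q} ∧ (T.cc z \ T.oc z) ∩ S = {p, q} := by
    rintro ⟨c, w, hw, hdw, hCw, rfl⟩
    obtain ⟨z, p, q, h1, h2, h4, h5, h6, h7⟩ := arc_cell hA hCw hdw
    exact ⟨z, p, q, h1, h2, h4, mem_bd_cc hw (T.oc_sub_cc w h5), h6, h7⟩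
  choose zc pc qc hzS hzc hzd hzb hball1 hpq using hch
  -- every point of `S` on the boundary lies in a crossing 2-cell
  have hcover : ∀ y ∈ (T.cc x \ T.oc x) ∩ S, ∃ c : FF, y ∈ c.1 := by
    rintro y ⟨hy, hyS⟩
    have h1 := T.dim_lt hy.1 hy.2
    have h2 := hA.vert y hyS
    have h4 : T.dim y = 1 ∨ T.dim y = 2 := by omega
    rcases h4 with h4 | h4
    · obtain ⟨x₁, hx₁, -, -, d1, -, p1, -⟩ := two_faces hd hy.1 h4
      exact ⟨⟨T.cc x₁, x₁, hx₁, d1, ⟨y, p1, hyS⟩, rfl⟩, p1⟩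
    · exact ⟨⟨T.cc y, y, hy, h4, ⟨y, T.self_mem_cc y, hyS⟩, rfl⟩, T.self_mem_cc y⟩
  have hsubB : ∀ c : FF, ∀ y ∈ c.1, y ∈ T.cc x \ T.oc x := by
    intro c y hy
    rw [← hzc c] at hy
    exact mem_bd_cc (hzb c) hy
  -- different cells
  have hdiff : ∀ c c' : FF, c ≠ c' → ∀ y, y ∈ c.1 → y ∈ c'.1 → y ∈ T.cc (zc c) \ T.oc (zc c) := by
    intro c c' hne y hy hy'
    rw [← hzc c] at hy
    refine ⟨hy, fun hyo => hne ?_⟩
    rw [← hzc c'] at hy'
    have h1 : T.cc y = T.cc (zc c) := T.cc_eq_of_mem_oc (mem_univ _) hyo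
    have h2 : T.dim y = 2 := (T.dim_eq_of_mem_oc (mem_univ _) hyo).trans (hzd c)
    have h4 : y ∈ T.oc (zc c') := by
      by_contra h5
      have := T.dim_lt hy' h5
      rw [hzd c', h2] at this
      exact absurd this (lt_irrefl _)
    have h6 : T.cc y = T.cc (zc c') := T.cc_eq_of_mem_oc (mem_univ _) h4
    apply Subtype.ext
    rw [← hzc c, ← hzc c', ← h1, h6]
  -- uniqueness of the other cell
  have hother : ∀ c : FF, ∀ y ∈ (T.cc (zc c) \ T.oc (zc c)) ∩ S,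
      ∃! c' : FF, c' ≠ c ∧ y ∈ c'.1 ∩ S := by
    rintro c y ⟨hy, hyS⟩
    have hyx := mem_bd_cc (hzb c) hy.1
    have hd1 : T.dim y = 1 := by
      have h1 := T.dim_lt hy.1 hy.2
      have h2 := hA.vert y hyS
      rw [hzd c] at h1
      omega
    obtain ⟨x₁, hx₁, x₂, hx₂, d1, d2, p1, p2, hne, hall⟩ := two_faces hd hyx.1 hd1
    have hfin : ∀ x₁ x₂ : E3, x₁ ∈ T.cc x \ T.oc x → x₂ ∈ T.cc x \ T.oc x → T.dim x₂ = 2 →
        y ∈ T.cc x₂ → T.cc x₁ ≠ T.cc x₂ → (∀ w ∈ T.cc x \ T.oc x, T.dim w = 2 → y ∈ T.cc w →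
        T.cc w = T.cc x₁ ∨ T.cc w = T.cc x₂) → T.cc (zc c) = T.cc x₁ →
        ∃! c' : FF, c' ≠ c ∧ y ∈ c'.1 ∩ S := by
      intro x₁ x₂ hx₁ hx₂ d2 p2 hne hall hc1
      refine ⟨⟨T.cc x₂, x₂, hx₂, d2, ⟨y, p2, hyS⟩, rfl⟩, ⟨fun he => hne ?_, p2, hyS⟩, ?_⟩
      · have h1 : T.cc x₂ = c.1 := congrArg Subtype.val he
        rw [← hc1, hzc c, h1]
      · rintro c' ⟨hc', hyc', -⟩
        apply Subtype.ext
        show c'.1 = T.cc x₂
        rw [← hzc c'] at hyc' ⊢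
        rcases hall (zc c') (hzb c') (hzd c') hyc' with h1 | h1
        · exfalso
          apply hc'
          apply Subtype.ext
          rw [← hzc c, ← hzc c', h1, hc1]
        · exact h1
    rcases hall (zc c) (hzb c) (hzd c) hy.1 with h1 | h1
    · exact hfin x₁ x₂ hx₁ hx₂ d2 p2 hne hall h1
    · exact hfin x₂ x₁ hx₂ hx₁ d1 p1 hne.symm (fun w a b c => (hall w a b c).symm) h1
  -- nonempty
  have hApex : Apex T S x z := ⟨hz1, hz2, hz3⟩
  obtain ⟨y0, hy0⟩ := bd_nonempty hR hApex hd hconB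
  obtain ⟨c0, -⟩ := hcover y0 hy0
  -- enumeration
  let e : FF ≃ Fin (Nat.card FF) := Finite.equivFin FF
  have hn : 0 < Nat.card FF := by
    have : Nonempty FF := ⟨c0⟩
    exact Nat.card_pos
  have hUn : (⋃ i, ((e.symm i).1 ∩ S)) = (T.cc x \ T.oc x) ∩ S := by
    ext y
    simp only [mem_iUnion]
    constructor
    · rintro ⟨i, h1, h2⟩
      exact ⟨hsubB _ y h1, h2⟩
    · intro hy
      obtain ⟨c, hc⟩ := hcover y hy
      exact ⟨e c, by rw [e.symm_apply_apply]; exact ⟨hc, hy.2⟩⟩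
  have hmemp : ∀ c : FF, pc c ∈ (T.cc (zc c) \ T.oc (zc c)) ∩ S := fun c => by
    rw [hpq c]; exact Or.inl rfl
  have hmemq : ∀ c : FF, qc c ∈ (T.cc (zc c) \ T.oc (zc c)) ∩ S := fun c => by
    rw [hpq c]; exact Or.inr rfl
  have htrans : ∀ (i : Fin (Nat.card FF)) (y : E3), (∃! c' : FF, c' ≠ e.symm i ∧ y ∈ c'.1 ∩ S) →
      ∃! j, j ≠ i ∧ y ∈ (e.symm j).1 ∩ S := by
    rintro i y ⟨c', ⟨h1, h2⟩, h4⟩
    refine ⟨e c', ⟨fun h5 => h1 ?_, by rw [e.symm_apply_apply]; exact h2⟩, ?_⟩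
    · rw [← h5, e.symm_apply_apply]
    · rintro j ⟨h5, h6⟩
      have := h4 (e.symm j) ⟨fun h7 => h5 (e.symm.injective h7), h6⟩
      rw [← this, e.apply_symm_apply]
  have hconz := hA.con z hz2 ((T.dim_eq_of_mem_oc (mem_univ x) hz1).trans hd)
  rw [T.cc_eq_of_mem_oc (mem_univ x) hz1, T.oc_eq_of_mem (mem_univ x) hz1] at hconz
  have hbdcl : IsClosed (T.cc x \ T.oc x) := by rw [hbb]; exact isClosed_bb _ _
  -- a point of `S` in a 1-cell
  have hd1 : T.dim (pc c0) = 1 := by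
    have h1 := T.dim_lt (hmemp c0).1.1 (hmemp c0).1.2
    have h2 := hA.vert _ (hmemp c0).2
    rw [hzd c0] at h1
    omega
  obtain ⟨⟨a, ha, ha0, ha1⟩, ⟨b, hb, hb1, hb0⟩⟩ := sides_bd hA hR
    (mem_bd_cc (hzb c0) (hmemp c0).1.1) (hmemp c0).2 hd1
  have main := h3 (fun j => (l j : ℝ)) (fun j => (h j : ℝ)) hltR (Nat.card FF)
    (fun i => (e.symm i).1 ∩ S) (fun i => pc (e.symm i)) (fun i => qc (e.symm i)) hn
    (fun i => by
      have := hball1 (e.symm i)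
      rwa [hzc] at this)
    (fun i y hy => by rw [← hbb]; exact hsubB _ y hy.1)
    (fun i j hij y hy => by
      have hne : e.symm i ≠ e.symm j := fun h1 => hij (e.symm.injective h1)
      constructor
      · have h1 := hdiff _ _ hne y hy.1.1 hy.2.1
        rw [← hpq]
        exact ⟨h1, hy.1.2⟩
      · have h1 := hdiff _ _ hne.symm y hy.2.1 hy.1.1
        rw [← hpq]
        exact ⟨h1, hy.1.2⟩)
    (fun i => htrans i _ (hother _ _ (hmemp _)))
    (fun i => htrans i _ (hother _ _ (hmemq _)))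
    (by
      obtain ⟨P', N', h1, h2, h4⟩ := hconz
      refine ⟨P', N', ?_, h2, h4⟩
      rw [hUn, ← hbb, ← h1]
      ext y
      constructor
      · rintro ⟨h5, h6⟩
        exact ⟨h5, fun h7 => h6 ⟨h5, h7⟩⟩
      · rintro ⟨h5, h6⟩
        exact ⟨h5, fun h7 => h6 h7.2⟩)
    (R0 ∩ (T.cc x \ T.oc x)) (R1 ∩ (T.cc x \ T.oc x)) (hR.cpt.isClosed.inter hbdcl)
    (hR.closed1.inter hbdcl)
    (by
      rw [← union_inter_distrib_right, hR.union, univ_inter, hbb])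
    (by
      rw [hUn, ← hR.inter]
      ext y
      constructor
      · rintro ⟨⟨h1, h2⟩, h4, -⟩
        exact ⟨h2, h1, h4⟩
      · rintro ⟨h1, h2, h4⟩
        exact ⟨⟨h2, h1⟩, h4, h1⟩)
    (fun he => by
      have h1 : a ∈ R0 ∩ (T.cc x \ T.oc x) := ⟨ha0, ha⟩
      rw [he, hUn] at h1
      exact ha1 ((S_sub hR).2 h1.2))
    (fun he => by
      have h1 : b ∈ R1 ∩ (T.cc x \ T.oc x) := ⟨hb1, hb⟩
      rw [he, hUn] at h1
      exact hb0 ((S_sub hR).1 h1.2))
  rw [hbb] at main ⊢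
  exact main

end Cells

/-- **(N7)** -/
theorem th_of (h3 : CircStmt) (h2 : Circ2Stmt) : ThStmt := by
  intro ι T S hT hA R0 R1 hR x hx hk
  have hd : T.dim x ≤ 3 := by
    have := T.dim_le_finrank x
    simpa using this
  have h4 : T.dim x = 1 ∨ T.dim x = 2 ∨ T.dim x = 3 := by omega
  rcases h4 with h4 | h4 | h4
  · have := th_dim1 hA hR hx h4
    revert hk
    rw [h4]
    intro hk
    exact this
  · have := th_dim2 h2 hT hA hR hx h4
    revert hk
    rw [h4]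
    intro hk
    exact this
  · have := th_dim3 h3 hT hA hR hx h4
    revert hk
    rw [h4]
    intro hk
    exact this

end Crest.Agent.R096.Gp_702
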