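import Crest.Agent.R096.GpF_702
import Crest.Agent.R096.GpU2_702
import Crest.Agent.R096.Ex5_914

/-!
# R096 (row 96), P2-GEN, final file (helper702)

The Alexander theorem in dimension 3 for general polyhedral surfaces, without hypotheses.
-/

set_option autoImplicit false

open Set Metric Topology

namespace Crest.Agent.R096.Gp_702

/-- (N7) -/
theorem thStmt : ThStmt := th_of Gn_296.circStmt Gn_296.circ2Stmt

/-- **(NORM)** -/
theorem normStmt : NormStmt := norm_of_th thStmt

/-- **(EXIST)** -/
theorem existStmt : ExistStmt := Ex_914.existStmt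

/-- **Alexander's theorem in the PL category**: a connected two-sided polyhedral set in
`Fin 3 → ℝ` with trivial first cohomology is standard. -/
theorem alexander_poly {S : Set E3} (hp : Poly S) (hS : ∀ x ∈ S, Ax_914.TwoSidedAt S x)
    (hcon : IsConnected S) (htriv : ∀ n, Coh_184.TrivAll (Fin n) (ZMod 2) S) :
    Pl.StdC (F := ℝ × ℝ) (Pl.e3 ⁻¹' S) :=
  alexander_gen existStmt normStmt hp hS hcon htriv

end Crest.Agent.R096.Gp_702
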