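import Crest.Agent.R096.PlDefs_296

/-!
# Axis-parallel rectangles to lattice cells (helper914, row 96, P2-AXIS, part 1)

A finite union of axis-parallel boxes is, after an increasing PL change of every coordinate,
a finite union of cells of the cubical lattice.  Cells are written in doubled coordinates:
`c : ι → ℤ`, an even coordinate `2k` is the point `k`, an odd coordinate `2k+1` is `[k, k+1]`.
-/

set_option autoImplicit false

namespace Crest.Agent.R096.Ax_914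

open Set Crest.Agent.R096.Pl

/-! ### PL maps into products -/

theorem plMap_pi {V : Type*} [NormedAddCommGroup V] [NormedSpace ℝ V] {ι : Type*} [Fintype ι]
    {f : ι → V → ℝ} (hf : ∀ i, PLMap (f i)) : PLMap (fun x => fun i => f i x) := by
  refine ⟨continuous_pi fun i => (hf i).continuous, ?_⟩
  choose G hG hsel using fun i => (hf i).2
  refine ⟨(fun g : ι → (V →ᵃ[ℝ] ℝ) => AffineMap.pi g) '' (Set.univ.pi G),
    (Set.Finite.pi fun i => hG i).image _, fun x => ?_⟩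
  choose g hg hgx using fun i => hsel i x
  refine ⟨AffineMap.pi g, ⟨g, fun i _ => hg i, rfl⟩, ?_⟩
  funext i
  exact hgx i

theorem plMap_apply {ι : Type*} [Fintype ι] (i : ι) : PLMap (fun x : ι → ℝ => x i) :=
  PLMap.of_affine' ((LinearMap.proj i : (ι → ℝ) →ₗ[ℝ] ℝ).toAffineMap) (continuous_apply i)

/-! ### one coordinate -/

/-- stretch the half-line `[m, ∞)` by the factor `l` -/
noncomputable def fm (m l y : ℝ) : ℝ := min y m + l * max (y - m) 0

theorem fm_pl (m l : ℝ) : PLMap (fm m l) :=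
  (PLMap.id.min (PLMap.const m)).add
    (((PLMap.id.sub_const m).max (PLMap.const 0)).const_mul l)

theorem fm_of_le {m l y : ℝ} (h : y ≤ m) : fm m l y = y := by
  unfold fm
  rw [min_eq_left h, max_eq_right (by linarith)]
  ring

theorem fm_of_ge {m l y : ℝ} (h : m ≤ y) : fm m l y = m + l * (y - m) := by
  unfold fm
  rw [min_eq_right h, max_eq_left (by linarith)]

theorem fm_inv {m l : ℝ} (hl : 0 < l) (y : ℝ) : fm m l⁻¹ (fm m l y) = y := by
  rcases le_total y m with h | h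
  · rw [fm_of_le h, fm_of_le h]
  · rw [fm_of_ge h, fm_of_ge]
    · field_simp
      ring
    · have := mul_nonneg hl.le (sub_nonneg.2 h)
      linarith

theorem fm_strictMono {m l : ℝ} (hl : 0 < l) : StrictMono (fm m l) := by
  intro x y hxy
  rcases le_total y m with h | h
  · rw [fm_of_le h, fm_of_le (hxy.le.trans h)]
    exact hxy
  · rcases le_total x m with h' | h'
    · rw [fm_of_le h', fm_of_ge h]
      rcases eq_or_lt_of_le h with h1 | h1
      · subst h1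
        linarith
      · have := mul_pos hl (sub_pos.2 h1)
        linarith
    · rw [fm_of_ge h', fm_of_ge h]
      have := mul_pos hl (sub_pos.2 hxy)
      nlinarith

/-- the stretch as a homeomorphism of the line -/
noncomputable def fmH (m l : ℝ) (hl : 0 < l) : ℝ ≃ₜ ℝ :=
  mkH (fm m l) (fm m l⁻¹) (fm_pl _ _) (fm_pl _ _) (fm_inv hl)
    (fun y => by simpa using fm_inv (m := m) (inv_pos.2 hl) y)

theorem PLH_fmH (m l : ℝ) (hl : 0 < l) : PLH (fmH m l hl) := PLH_mkH _ _ _ _ _ _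

/-- finitely many points of the line can be moved to integers -/
theorem exists_coord (A : Finset ℝ) :
    ∃ φ : ℝ ≃ₜ ℝ, PLH φ ∧ StrictMono φ ∧ ∀ a ∈ A, ∃ n : ℤ, φ a = n := by
  induction A using Finset.induction_on_max with
  | empty => exact ⟨Homeomorph.refl ℝ, PLH.refl, strictMono_id, by simp⟩
  | insert a s has ih =>
    obtain ⟨φ, h1, h2, h3⟩ := ih
    have hc : ((⌈φ a⌉ - 1 : ℤ) : ℝ) < φ a := by
      have := Int.ceil_lt_add_one (φ a)
      push_cast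
      linarith
    have hl : 0 < (φ a - ((⌈φ a⌉ - 1 : ℤ) : ℝ))⁻¹ := inv_pos.2 (sub_pos.2 hc)
    refine ⟨φ.trans (fmH ((⌈φ a⌉ - 1 : ℤ) : ℝ) _ hl), h1.trans (PLH_fmH _ _ hl),
      (fm_strictMono hl).comp h2, fun x hx => ?_⟩
    rw [Finset.mem_insert] at hx
    have happ : ∀ y, (φ.trans (fmH ((⌈φ a⌉ - 1 : ℤ) : ℝ) _ hl)) y = fm ((⌈φ a⌉ - 1 : ℤ) : ℝ)
      (φ a - ((⌈φ a⌉ - 1 : ℤ) : ℝ))⁻¹ (φ y) := fun y => rfl
    rcases hx with rfl | hx
    · refine ⟨⌈φ x⌉, ?_⟩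
      rw [happ, fm_of_ge hc.le, inv_mul_cancel₀ (sub_pos.2 hc).ne']
      push_cast
      ring
    · obtain ⟨n, hn⟩ := h3 x hx
      refine ⟨n, ?_⟩
      rw [happ, fm_of_le, hn]
      rw [hn]
      have h4 : φ x < φ a := h2 (has x hx)
      rw [hn] at h4
      have h5 : (n : ℝ) < (⌈φ a⌉ : ℤ) := h4.trans_le (Int.le_ceil _)
      have h6 : n ≤ ⌈φ a⌉ - 1 := by
        have : n < ⌈φ a⌉ := by exact_mod_cast h5
        omega
      exact_mod_cast h6

/-! ### all coordinates -/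

variable {ι : Type*}

/-- a coordinatewise increasing PL homeomorphism -/
def Coordwise [Fintype ι] (Φ : (ι → ℝ) ≃ₜ (ι → ℝ)) : Prop :=
  PLH Φ ∧ ∃ φ : ι → ℝ ≃ₜ ℝ, (∀ i, StrictMono (φ i)) ∧ ∀ x i, Φ x i = φ i (x i)

theorem exists_coordwise [Fintype ι] (A : Finset (ι → ℝ)) :
    ∃ Φ : (ι → ℝ) ≃ₜ (ι → ℝ), Coordwise Φ ∧ ∀ a ∈ A, ∃ n : ι → ℤ, Φ a = fun i => (n i : ℝ) := by
  classical
  choose φ h1 h2 h3 using fun i => exists_coord (A.image fun a => a i)
  have hpl : PLMap (fun (x : ι → ℝ) => fun i => φ i (x i)) :=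
    plMap_pi fun i => (h1 i).1.comp (plMap_apply i)
  have hpl' : PLMap (fun (x : ι → ℝ) => fun i => (φ i).symm (x i)) :=
    plMap_pi fun i => (h1 i).2.comp (plMap_apply i)
  refine ⟨mkH _ _ hpl hpl' (fun x => by funext i; simp) (fun x => by funext i; simp),
    ⟨PLH_mkH _ _ _ _ _ _, φ, h2, fun x i => rfl⟩, fun a ha => ?_⟩
  choose n hn using fun i => h3 i (a i) (Finset.mem_image_of_mem _ ha)
  exact ⟨n, funext fun i => hn i⟩

theorem Coordwise.le_iff [Fintype ι] {Φ : (ι → ℝ) ≃ₜ (ι → ℝ)} (h : Coordwise Φ) (x y : ι → ℝ) :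
    Φ x ≤ Φ y ↔ x ≤ y := by
  obtain ⟨_, φ, h1, h2⟩ := h
  simp only [Pi.le_def, h2, (h1 _).le_iff_le]

theorem Coordwise.eq_iff [Fintype ι] {Φ : (ι → ℝ) ≃ₜ (ι → ℝ)} (h : Coordwise Φ) (x y : ι → ℝ)
    (i : ι) : Φ x i = Φ y i ↔ x i = y i := by
  obtain ⟨_, φ, h1, h2⟩ := h
  simp only [h2, (h1 _).injective.eq_iff]

theorem Coordwise.image_Icc [Fintype ι] {Φ : (ι → ℝ) ≃ₜ (ι → ℝ)} (h : Coordwise Φ)
    (a b : ι → ℝ) : Φ '' Icc a b = Icc (Φ a) (Φ b) := by
  ext y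
  constructor
  · rintro ⟨x, hx, rfl⟩
    exact ⟨(h.le_iff _ _).2 hx.1, (h.le_iff _ _).2 hx.2⟩
  · intro hy
    refine ⟨Φ.symm y, ⟨?_, ?_⟩, by simp⟩
    · rw [← h.le_iff]; simpa using hy.1
    · rw [← h.le_iff]; simpa using hy.2

/-! ### lattice cells in doubled coordinates -/

/-- the closed lattice cell with doubled coordinates `c` -/
def cel (c : ι → ℤ) : Set (ι → ℝ) :=
  {x | ∀ i, ((c i / 2 : ℤ) : ℝ) ≤ x i ∧ x i ≤ (((c i + 1) / 2 : ℤ) : ℝ)}

/-- the union of the closed cells of `Q` -/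
def car (Q : Finset (ι → ℤ)) : Set (ι → ℝ) := ⋃ c ∈ Q, cel c

theorem mem_car {Q : Finset (ι → ℤ)} {x : ι → ℝ} : x ∈ car Q ↔ ∃ c ∈ Q, x ∈ cel c := by
  simp [car]

theorem cel_eq_Icc (c : ι → ℤ) :
    cel c = Icc (fun i => ((c i / 2 : ℤ) : ℝ)) (fun i => (((c i + 1) / 2 : ℤ) : ℝ)) := by
  ext x
  simp only [cel, mem_ofPred_eq, mem_Icc, Pi.le_def]
  exact ⟨fun h => ⟨fun i => (h i).1, fun i => (h i).2⟩, fun h i => ⟨h.1 i, h.2 i⟩⟩

/-- the cells of top dimension of the interval `[m, n]` -/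
noncomputable def seg (m n : ℤ) : Finset ℤ := if m = n then {2 * m} else (Finset.Ico m n).image fun k => 2 * k + 1

theorem mem_seg_iff {m n : ℤ} (h : m ≤ n) {k : ℤ} :
    k ∈ seg m n ↔ m ≤ k / 2 ∧ (k + 1) / 2 ≤ n ∧ (k % 2 = 0 ↔ m = n) := by
  unfold seg
  split_ifs with h1
  · subst h1
    rw [Finset.mem_singleton]
    constructor
    · rintro rfl
      omega
    · intro h2
      omega
  · simp only [Finset.mem_image, Finset.mem_Ico]
    constructor
    · rintro ⟨j, h2, rfl⟩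
      omega
    · intro h2
      exact ⟨k / 2, by omega, by omega⟩

theorem exists_seg {m n : ℤ} (h : m ≤ n) {x : ℝ} (h1 : (m : ℝ) ≤ x) (h2 : x ≤ n) :
    ∃ k ∈ seg m n, ((k / 2 : ℤ) : ℝ) ≤ x ∧ x ≤ (((k + 1) / 2 : ℤ) : ℝ) := by
  rcases eq_or_lt_of_le h with h3 | h3
  · subst h3
    refine ⟨2 * m, (mem_seg_iff h).2 (by omega), ?_, ?_⟩
    · rw [show (2 * m / 2 : ℤ) = m by omega]; exact h1
    · rw [show ((2 * m + 1) / 2 : ℤ) = m by omega]; exact h2
  · rcases eq_or_lt_of_le h2 with h4 | h4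
    · refine ⟨2 * n - 1, (mem_seg_iff h).2 (by omega), ?_, ?_⟩
      · rw [show ((2 * n - 1) / 2 : ℤ) = n - 1 by omega, h4]; push_cast; linarith
      · rw [show ((2 * n - 1 + 1) / 2 : ℤ) = n by omega]; exact h2
    · have h5 : ⌊x⌋ < n := by
        have : ((⌊x⌋ : ℤ) : ℝ) < n := (Int.floor_le x).trans_lt h4
        exact_mod_cast this
      have h6 : m ≤ ⌊x⌋ := Int.le_floor.2 h1
      refine ⟨2 * ⌊x⌋ + 1, (mem_seg_iff h).2 (by omega), ?_, ?_⟩
      · rw [show ((2 * ⌊x⌋ + 1) / 2 : ℤ) = ⌊x⌋ by omega]; exact Int.floor_le x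
      · rw [show ((2 * ⌊x⌋ + 1 + 1) / 2 : ℤ) = ⌊x⌋ + 1 by omega]
        push_cast
        exact (Int.lt_floor_add_one x).le

variable [Fintype ι] [DecidableEq ι]

/-- the cells of top dimension of the integer box -/
noncomputable def bcells (m n : ι → ℤ) : Finset (ι → ℤ) := Fintype.piFinset fun i => seg (m i) (n i)

theorem mem_bcells {m n : ι → ℤ} (h : m ≤ n) {c : ι → ℤ} :
    c ∈ bcells m n ↔ ∀ i, m i ≤ c i / 2 ∧ (c i + 1) / 2 ≤ n i ∧ (c i % 2 = 0 ↔ m i = n i) := by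
  simp only [bcells, Fintype.mem_piFinset, mem_seg_iff (h _)]

theorem car_bcells {m n : ι → ℤ} (h : m ≤ n) :
    car (bcells m n) = Icc (fun i => (m i : ℝ)) (fun i => (n i : ℝ)) := by
  ext x
  rw [mem_car]
  constructor
  · rintro ⟨c, hc, hx⟩
    rw [mem_bcells h] at hc
    refine ⟨fun i => ?_, fun i => ?_⟩
    · have h1 : ((m i : ℤ) : ℝ) ≤ ((c i / 2 : ℤ) : ℝ) := by exact_mod_cast (hc i).1
      exact h1.trans (hx i).1
    · have h1 : (((c i + 1) / 2 : ℤ) : ℝ) ≤ ((n i : ℤ) : ℝ) := by exact_mod_cast (hc i).2.1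
      exact (hx i).2.trans h1
  · rintro ⟨h1, h2⟩
    choose k hk hk2 using fun i => exists_seg (h i) (h1 i) (h2 i)
    exact ⟨k, by rw [bcells, Fintype.mem_piFinset]; exact hk, hk2⟩

/-- **AX1**: a finite union of boxes becomes a finite union of lattice cells; a cell has the
same degenerate directions as one of the boxes -/
theorem exists_cubical (B : Finset ((ι → ℝ) × (ι → ℝ))) (hB : ∀ p ∈ B, p.1 ≤ p.2) :
    ∃ Φ : (ι → ℝ) ≃ₜ (ι → ℝ), Coordwise Φ ∧ ∃ Q : Finset (ι → ℤ),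
      Φ '' (⋃ p ∈ B, Icc p.1 p.2) = car Q ∧
      ∀ c ∈ Q, ∃ p ∈ B, ∀ i, c i % 2 = 0 ↔ p.1 i = p.2 i := by
  classical
  obtain ⟨Φ, hΦ, hint⟩ := exists_coordwise (B.image Prod.fst ∪ B.image Prod.snd)
  have h1 : ∀ p ∈ B, ∃ n : ι → ℤ, Φ p.1 = fun i => (n i : ℝ) := fun p hp =>
    hint p.1 (Finset.mem_union_left _ (Finset.mem_image_of_mem _ hp))
  have h2 : ∀ p ∈ B, ∃ n : ι → ℤ, Φ p.2 = fun i => (n i : ℝ) := fun p hp =>
    hint p.2 (Finset.mem_union_right _ (Finset.mem_image_of_mem _ hp))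
  choose! m hm using h1
  choose! n hn using h2
  have hle : ∀ p ∈ B, m p ≤ n p := by
    intro p hp i
    have := (hΦ.le_iff p.1 p.2).2 (hB p hp) i
    rw [hm p hp, hn p hp] at this
    have h3 : ((m p i : ℤ) : ℝ) ≤ ((n p i : ℤ) : ℝ) := this
    exact_mod_cast h3
  refine ⟨Φ, hΦ, B.biUnion fun p => bcells (m p) (n p), ?_, ?_⟩
  · rw [image_iUnion₂]
    ext x
    simp only [mem_iUnion, exists_prop, mem_car, Finset.mem_biUnion]
    constructor
    · rintro ⟨p, hp, hx⟩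
      rw [hΦ.image_Icc, hm p hp, hn p hp, ← car_bcells (hle p hp), mem_car] at hx
      obtain ⟨c, hc, hx⟩ := hx
      exact ⟨c, ⟨p, hp, hc⟩, hx⟩
    · rintro ⟨c, ⟨p, hp, hc⟩, hx⟩
      refine ⟨p, hp, ?_⟩
      rw [hΦ.image_Icc, hm p hp, hn p hp, ← car_bcells (hle p hp), mem_car]
      exact ⟨c, hc, hx⟩
  · intro c hc
    rw [Finset.mem_biUnion] at hc
    obtain ⟨p, hp, hc⟩ := hc
    refine ⟨p, hp, fun i => ?_⟩
    rw [mem_bcells (hle p hp)] at hc
    rw [(hc i).2.2, ← hΦ.eq_iff p.1 p.2 i, hm p hp, hn p hp]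
    exact Int.cast_inj.symm

end Crest.Agent.R096.Ax_914
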