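import Crest.Agent.R096.Cb6_609
import Crest.Agent.R096.Ax1_914

/-!
# R096/Gn1_296 (helper296, row 96, P2-GEN, N3)

* `circle_of_arcs`: a finite 2-regular connected family of arcs is a PL circle.
* `sides`: the two closed sides of a circle on the boundary of a 3-ball are discs, in standard position.
-/

set_option autoImplicit false
set_option linter.unusedSectionVars false

namespace Crest.Agent.R096.Gn_296

open Set Metric Crest.Agent.R096.Ce_537 Crest.Agent.R096.Cb_609 Crest.Agent.R096.Pl

variable {E : Type*} [NormedAddCommGroup E] [NormedSpace ℝ E]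
  {F : Type*} [NormedAddCommGroup F] [NormedSpace ℝ F]

/-- the double of two balls is unique -/
theorem exists_double {k : ℕ} {M T Q : Set E} {M' T' Q' : Set F} (h1 : IsBall k M Q)
    (h2 : IsBall k T Q) (hi : M ∩ T = Q) (h1' : IsBall k M' Q') (h2' : IsBall k T' Q')
    (hi' : M' ∩ T' = Q') :
    ∃ e : PLEquiv (M ∪ T) (M' ∪ T'), e.f '' M = M' ∧ e.f '' T = T' := by
  obtain ⟨e, he, he'⟩ := h1.exists_equiv h1'
  have hQM : Q ⊆ M := h1.subset
  have hQT : Q ⊆ T := h2.subset
  have hQM' : Q' ⊆ M' := h1'.subset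
  let r : PLEquiv Q Q' := e.restr hQM hQM' (fun x hx => by rw [← he]; exact ⟨x, hx, rfl⟩)
    (fun x hx => by rw [← he']; exact ⟨x, hx, rfl⟩)
  obtain ⟨t, ht1, ht2⟩ := h2.extend h2' r
  have hf : EqOn e.f t.f (M ∩ T) := by
    intro x hx
    rw [hi] at hx
    exact (ht1 hx).symm
  have hg : EqOn e.g t.g (M' ∩ T') := by
    intro x hx
    rw [hi'] at hx
    exact (ht2 hx).symm
  refine ⟨glue e t h1.isClosed h2.isClosed h1'.isClosed h2'.isClosed hf hg, ?_, ?_⟩
  · exact (image_congr fun x hx => glue_f₁ e t _ _ _ _ hf hg hx).trans e.image_eq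
  · exact (image_congr fun x hx => glue_f₂ e t _ _ _ _ hf hg hx).trans t.image_eq

/-- two arcs with the same end points form a circle -/
theorem circle_of_two {A B D : Set E} (hA : IsBall 1 A D) (hB : IsBall 1 B D) (h : A ∩ B = D) :
    Nonempty (PLEquiv (S1 ℝ) (A ∪ B)) := by
  obtain ⟨e, -, -⟩ := exists_double ballPair_real.ball₁ ballPair_real.ball₂ ballPair_real.inter
    hA hB h
  rw [Kp_union_Km] at e
  exact ⟨e⟩

/-- the ends of an arc -/
theorem exists_ends {A D : Set E} (h : IsBall 1 A D) : ∃ a b, a ≠ b ∧ D = {a, b} := by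
  obtain ⟨e, he⟩ := h
  have h1 : D = {e.f fun _ => (-1 : ℝ), e.f fun _ => (1 : ℝ)} := by
    rw [← he, sph_one, image_pair]
  have h2 : IsBall 1 A {e.f fun _ => (-1 : ℝ), e.f fun _ => (1 : ℝ)} := ⟨e, by rw [he, h1]⟩
  exact ⟨_, _, arc_ne h2, h1⟩

theorem circle_aux {ι : Type*} [DecidableEq ι] : ∀ (n : ℕ) (s : Finset ι) (A d : ι → Set E),
    s.card = n → s.Nonempty → (∀ i ∈ s, IsBall 1 (A i) (d i)) →
    (∀ i ∈ s, ∀ j ∈ s, i ≠ j → A i ∩ A j ⊆ d i ∩ d j) →
    (∀ i ∈ s, ∀ x ∈ d i, ∃ j ∈ s, j ≠ i ∧ x ∈ d j ∧ ∀ k ∈ s, x ∈ d k → k = i ∨ k = j) →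
    IsPreconnected (⋃ i ∈ s, A i) → Nonempty (PLEquiv (S1 ℝ) (⋃ i ∈ s, A i)) := by
  intro n
  induction n with
  | zero =>
    intro s A d hn hne
    exact absurd (Finset.card_eq_zero.1 hn) hne.ne_empty
  | succ n ih =>
    intro s A d hn hne hb hint hreg hcon
    obtain ⟨i, hi⟩ := hne
    obtain ⟨x0, x1, h01, hdi⟩ := exists_ends (hb i hi)
    have hx1 : x1 ∈ d i := by rw [hdi]; simp
    have hx0 : x0 ∈ d i := by rw [hdi]; simp
    obtain ⟨j, hj, hji, hxj, hju⟩ := hreg i hi x1 hx1
    obtain ⟨y, hy1, hdj⟩ : ∃ y, x1 ≠ y ∧ d j = {x1, y} := by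
      obtain ⟨a, b, hab, hd⟩ := exists_ends (hb j hj)
      rw [hd] at hxj
      rcases hxj with h | h
      · exact ⟨b, by rw [h]; exact hab, by rw [hd, h]⟩
      · rw [mem_singleton_iff] at h
        exact ⟨a, by rw [h]; exact hab.symm, by rw [hd, h, pair_comm]⟩
    have hyj : y ∈ d j := by rw [hdj]; simp
    have hsub : ∀ k ∈ s, d k ⊆ A k := fun k hk => (hb k hk).subset
    by_cases hy0 : y = x0
    · -- the two arcs form a circle
      have hdd : d i = d j := by rw [hdi, hdj, hy0, pair_comm]
      have hAB : A i ∩ A j = d i := by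
        apply Subset.antisymm
        · exact (hint i hi j hj hji.symm).trans inter_subset_left
        · intro z hz
          exact ⟨hsub i hi hz, hsub j hj (hdd ▸ hz)⟩
      have hcirc := circle_of_two (hb i hi) (by rw [hdd]; exact hb j hj) hAB
      -- nothing else
      have hkey : ∀ k ∈ s, k ≠ i → k ≠ j → ∀ z ∈ d i, z ∉ d k := by
        intro k hk hki hkj z hz hzk
        obtain ⟨m, hm, hmi, hzm, hu⟩ := hreg i hi z hz
        have hjm : j = m := (hu j hj (hdd ▸ hz)).resolve_left hji
        rcases hu k hk hzk with h | h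
        · exact hki h
        · exact hkj (h.trans hjm.symm)
      have hall : ∀ k ∈ s, k = i ∨ k = j := by
        by_contra hcon'
        push Not at hcon'
        obtain ⟨k, hk, hki, hkj⟩ := hcon'
        have hC1 : IsClosed (A i ∪ A j) := (hb i hi).isClosed.union (hb j hj).isClosed
        have hC2 : IsClosed (⋃ k ∈ (s.erase i).erase j, A k) :=
          ((s.erase i).erase j).finite_toSet.isClosed_biUnion fun m hm =>
            (hb m (Finset.mem_of_mem_erase (Finset.mem_of_mem_erase hm))).isClosed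
        have hcov : (⋃ k ∈ s, A k) ⊆ (A i ∪ A j) ∪ ⋃ k ∈ (s.erase i).erase j, A k := by
          intro z hz
          obtain ⟨m, hm, hzm⟩ := mem_iUnion₂.1 hz
          by_cases h1 : m = i
          · exact Or.inl (Or.inl (h1 ▸ hzm))
          · by_cases h2 : m = j
            · exact Or.inl (Or.inr (h2 ▸ hzm))
            · exact Or.inr (mem_iUnion₂.2 ⟨m, Finset.mem_erase.2 ⟨h2, Finset.mem_erase.2 ⟨h1, hm⟩⟩,
                hzm⟩)
        obtain ⟨z1, hz1⟩ := (hb i hi).nonempty
        obtain ⟨z2, hz2⟩ := (hb k hk).nonempty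
        have := isPreconnected_closed_iff.1 hcon _ _ hC1 hC2 hcov
          ⟨z1, mem_iUnion₂.2 ⟨i, hi, hz1⟩, Or.inl hz1⟩
          ⟨z2, mem_iUnion₂.2 ⟨k, hk, hz2⟩, mem_iUnion₂.2 ⟨k, Finset.mem_erase.2
            ⟨hkj, Finset.mem_erase.2 ⟨hki, hk⟩⟩, hz2⟩⟩
        obtain ⟨z, -, hz3, hz4⟩ := this
        obtain ⟨m, hm, hzm⟩ := mem_iUnion₂.1 hz4
        have hm1 := Finset.mem_erase.1 hm
        have hm2 := Finset.mem_erase.1 hm1.2
        rcases hz3 with hz3 | hz3
        · have h := hint i hi m hm2.2 hm2.1.symm ⟨hz3, hzm⟩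
          exact hkey m hm2.2 hm2.1 hm1.1 z h.1 h.2
        · have h := hint j hj m hm2.2 hm1.1.symm ⟨hz3, hzm⟩
          exact hkey m hm2.2 hm2.1 hm1.1 z (hdd ▸ h.1) h.2
      have hU : (⋃ k ∈ s, A k) = A i ∪ A j := by
        apply Subset.antisymm
        · intro z hz
          obtain ⟨m, hm, hzm⟩ := mem_iUnion₂.1 hz
          rcases hall m hm with rfl | rfl
          · exact Or.inl hzm
          · exact Or.inr hzm
        · rintro z (hz | hz)
          · exact mem_iUnion₂.2 ⟨i, hi, hz⟩
          · exact mem_iUnion₂.2 ⟨j, hj, hz⟩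
      rw [hU]
      exact hcirc
    · -- merge the two arcs
      have hAB : A i ∩ A j = {x1} := by
        apply Subset.antisymm
        · intro z hz
          obtain ⟨h1, h2⟩ := hint i hi j hj hji.symm hz
          rw [hdi] at h1
          rw [hdj] at h2
          rcases h1 with h1 | h1
          · rcases h2 with h2 | h2
            · exact h2
            · rw [mem_singleton_iff] at h2
              exact absurd (h2.symm.trans h1) hy0
          · exact h1
        · rintro z rfl
          exact ⟨hsub i hi hx1, hsub j hj hxj⟩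
      have hx1u : ∀ k ∈ s, k ≠ i → k ≠ j → x1 ∉ d k := by
        intro k hk hki hkj h
        rcases hju k hk h with h | h
        · exact hki h
        · exact hkj h
      let A' : ι → Set E := Function.update A i (A i ∪ A j)
      let d' : ι → Set E := Function.update d i {x0, y}
      have hA'i : A' i = A i ∪ A j := Function.update_self _ _ _
      have hd'i : d' i = {x0, y} := Function.update_self _ _ _
      have hA' : ∀ k, k ≠ i → A' k = A k := fun k hk => Function.update_of_ne hk _ _
      have hd' : ∀ k, k ≠ i → d' k = d k := fun k hk => Function.update_of_ne hk _ _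
      have hU : (⋃ k ∈ s.erase j, A' k) = ⋃ k ∈ s, A k := by
        apply Subset.antisymm
        · intro z hz
          obtain ⟨m, hm, hzm⟩ := mem_iUnion₂.1 hz
          have hm' := Finset.mem_of_mem_erase hm
          by_cases h1 : m = i
          · subst h1
            rw [hA'i] at hzm
            rcases hzm with h | h
            · exact mem_iUnion₂.2 ⟨m, hm', h⟩
            · exact mem_iUnion₂.2 ⟨j, hj, h⟩
          · rw [hA' m h1] at hzm
            exact mem_iUnion₂.2 ⟨m, hm', hzm⟩
        · intro z hz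
          obtain ⟨m, hm, hzm⟩ := mem_iUnion₂.1 hz
          by_cases h1 : m = i
          · subst h1
            exact mem_iUnion₂.2 ⟨m, Finset.mem_erase.2 ⟨hji.symm, hm⟩, by rw [hA'i]; exact Or.inl hzm⟩
          · by_cases h2 : m = j
            · subst h2
              exact mem_iUnion₂.2 ⟨i, Finset.mem_erase.2 ⟨hji.symm, hi⟩, by
                rw [hA'i]; exact Or.inr hzm⟩
            · exact mem_iUnion₂.2 ⟨m, Finset.mem_erase.2 ⟨h2, hm⟩, by rw [hA' m h1]; exact hzm⟩
      rw [← hU]
      refine ih (s.erase j) A' d' ?_ ⟨i, Finset.mem_erase.2 ⟨hji.symm, hi⟩⟩ ?_ ?_ ?_ ?_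
      · rw [Finset.card_erase_of_mem hj, hn]; rfl
      · intro k hk
        have hk' := Finset.mem_of_mem_erase hk
        by_cases h1 : k = i
        · subst h1
          rw [hA'i, hd'i]
          have ha := hb k hk'
          have hb' := hb j hj
          rw [hdi] at ha
          rw [hdj] at hb'
          exact arc_glue ha hb' hAB
        · rw [hA' k h1, hd' k h1]
          exact hb k hk'
      · -- intersections
        have hone : ∀ l ∈ s, l ≠ i → l ≠ j → (A i ∪ A j) ∩ A l ⊆ {x0, y} ∩ d l := by
          intro l hl hli hlj z hz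
          obtain ⟨hz1 | hz1, hz2⟩ := hz
          · obtain ⟨h1, h2⟩ := hint i hi l hl hli.symm ⟨hz1, hz2⟩
            refine ⟨?_, h2⟩
            rw [hdi] at h1
            rcases h1 with h1 | h1
            · exact Or.inl h1
            · rw [mem_singleton_iff] at h1
              subst h1
              exact absurd h2 (hx1u l hl hli hlj)
          · obtain ⟨h1, h2⟩ := hint j hj l hl hlj.symm ⟨hz1, hz2⟩
            refine ⟨?_, h2⟩
            rw [hdj] at h1
            rcases h1 with h1 | h1
            · subst h1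
              exact absurd h2 (hx1u l hl hli hlj)
            · exact Or.inr h1
        intro k hk l hl hkl
        have hk' := Finset.mem_erase.1 hk
        have hl' := Finset.mem_erase.1 hl
        by_cases h1 : k = i
        · subst h1
          have hlk : l ≠ k := hkl.symm
          rw [hA'i, hd'i, hA' l hlk, hd' l hlk]
          exact hone l hl'.2 hlk hl'.1
        · by_cases h2 : l = i
          · subst h2
            rw [hA'i, hd'i, hA' k h1, hd' k h1, inter_comm, inter_comm (d k)]
            exact hone k hk'.2 h1 hk'.1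
          · rw [hA' k h1, hA' l h2, hd' k h1, hd' l h2]
            exact hint k hk'.2 l hl'.2 hkl
      · -- regularity
        intro k hk x hx
        have hk' := Finset.mem_erase.1 hk
        by_cases h1 : k = i
        · subst h1
          rw [hd'i] at hx
          rcases hx with hx | hx
          · subst hx
            obtain ⟨m, hm, hmk, hxm, hu⟩ := hreg k hk'.2 x hx0
            have hmj : m ≠ j := by
              rintro rfl
              rw [hdj] at hxm
              rcases hxm with h | h
              · exact h01 h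
              · exact hy0 (mem_singleton_iff.1 h).symm
            refine ⟨m, Finset.mem_erase.2 ⟨hmj, hm⟩, hmk, by rw [hd' m hmk]; exact hxm, ?_⟩
            intro l hl hxl
            by_cases h3 : l = k
            · exact Or.inl h3
            · rw [hd' l h3] at hxl
              exact hu l (Finset.mem_of_mem_erase hl) hxl
          · rw [mem_singleton_iff] at hx
            subst hx
            obtain ⟨m, hm, hmj, hxm, hu⟩ := hreg j hj x hyj
            have hmk : m ≠ k := by
              rintro rfl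
              rw [hdi] at hxm
              rcases hxm with h | h
              · exact hy0 h
              · exact hy1 (mem_singleton_iff.1 h).symm
            refine ⟨m, Finset.mem_erase.2 ⟨hmj, hm⟩, hmk, by rw [hd' m hmk]; exact hxm, ?_⟩
            intro l hl hxl
            by_cases h3 : l = k
            · exact Or.inl h3
            · rw [hd' l h3] at hxl
              have hl' := Finset.mem_erase.1 hl
              rcases hu l hl'.2 hxl with h | h
              · exact absurd h hl'.1
              · exact Or.inr h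
        · rw [hd' k h1] at hx
          obtain ⟨m, hm, hmk, hxm, hu⟩ := hreg k hk'.2 x hx
          by_cases h2 : m = j
          · subst h2
            have hxy : x = y := by
              rw [hdj] at hxm
              rcases hxm with h | h
              · exfalso
                subst h
                rcases hu i hi hx1 with h3 | h3
                · exact h1 h3.symm
                · exact hji h3.symm
              · exact h
            refine ⟨i, Finset.mem_erase.2 ⟨hji.symm, hi⟩, fun h => h1 h.symm,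
              by rw [hd'i, hxy]; simp, ?_⟩
            intro l hl hxl
            by_cases h3 : l = i
            · exact Or.inr h3
            · rw [hd' l h3] at hxl
              have hl' := Finset.mem_erase.1 hl
              rcases hu l hl'.2 hxl with h | h
              · exact Or.inl h
              · exact absurd h hl'.1
          · by_cases h4 : m = i
            · subst h4
              have hxx : x = x0 := by
                rw [hdi] at hxm
                rcases hxm with h | h
                · exact h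
                · exfalso
                  rw [mem_singleton_iff] at h
                  subst h
                  rcases hu j hj hxj with h3 | h3
                  · exact hk'.1 h3.symm
                  · exact hji h3
              refine ⟨m, Finset.mem_erase.2 ⟨hji.symm, hm⟩, hmk, by rw [hd'i, hxx]; simp, ?_⟩
              intro l hl hxl
              by_cases h3 : l = m
              · exact Or.inr h3
              · rw [hd' l h3] at hxl
                exact hu l (Finset.mem_of_mem_erase hl) hxl
            · refine ⟨m, Finset.mem_erase.2 ⟨h2, hm⟩, hmk, by rw [hd' m h4]; exact hxm, ?_⟩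
              intro l hl hxl
              by_cases h3 : l = i
              · exfalso
                subst h3
                rw [hd'i] at hxl
                rcases hxl with h | h
                · subst h
                  rcases hu l hi hx0 with h5 | h5
                  · exact h1 h5.symm
                  · exact h4 h5.symm
                · rw [mem_singleton_iff] at h
                  subst h
                  rcases hu j hj hyj with h5 | h5
                  · exact hk'.1 h5.symm
                  · exact h2 h5.symm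
              · rw [hd' l h3] at hxl
                exact hu l (Finset.mem_of_mem_erase hl) hxl
      · rw [hU]; exact hcon

/-- **a finite 2-regular connected family of arcs is a circle** -/
theorem circle_of_arcs {ι : Type*} (s : Finset ι) (A d : ι → Set E) (hne : s.Nonempty)
    (hb : ∀ i ∈ s, IsBall 1 (A i) (d i))
    (hint : ∀ i ∈ s, ∀ j ∈ s, i ≠ j → A i ∩ A j ⊆ d i ∩ d j)
    (hreg : ∀ i ∈ s, ∀ x ∈ d i, ∃ j ∈ s, j ≠ i ∧ x ∈ d j ∧ ∀ k ∈ s, x ∈ d k → k = i ∨ k = j)
    (hcon : IsPreconnected (⋃ i ∈ s, A i)) : Nonempty (PLEquiv (S1 ℝ) (⋃ i ∈ s, A i)) := by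
  classical
  exact circle_aux s.card s A d rfl hne hb hint hreg hcon

/-! ### sides -/

/-- two closed sets which cut a sphere along `Q` are the two sides -/
theorem sides_unique {k : ℕ} {A B Q S R0 R1 : Set E} (hA : IsBall k A Q) (hB : IsBall k B Q)
    (hS : A ∪ B = S) (h0 : IsClosed R0) (h1 : IsClosed R1) (hR : R0 ∪ R1 = S) (hi : R0 ∩ R1 = Q)
    (hn0 : (R0 \ Q).Nonempty) (hn1 : (R1 \ Q).Nonempty) :
    (R0 = A ∧ R1 = B) ∨ (R0 = B ∧ R1 = A) := by
  have key : ∀ {C : Set E}, IsBall k C Q → C ⊆ S → C \ Q ⊆ R0 ∨ C \ Q ⊆ R1 := by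
    intro C hC hCS
    have hpre := hC.isPreconnected_diff
    have hcov : C \ Q ⊆ R0 ∪ R1 := by rw [hR]; exact sdiff_subset.trans hCS
    by_cases c0 : ((C \ Q) ∩ R0).Nonempty
    · by_cases c1 : ((C \ Q) ∩ R1).Nonempty
      · obtain ⟨x, hx, hx'⟩ := isPreconnected_closed_iff.1 hpre R0 R1 h0 h1 hcov c0 c1
        rw [hi] at hx'
        exact absurd hx' hx.2
      · left
        intro x hx
        exact (hcov hx).resolve_right fun h => c1 ⟨x, hx, h⟩
    · right
      intro x hx
      exact (hcov hx).resolve_left fun h => c0 ⟨x, hx, h⟩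
  have hAS : A ⊆ S := by rw [← hS]; exact subset_union_left
  have hBS : B ⊆ S := by rw [← hS]; exact subset_union_right
  have hQ0 : Q ⊆ R0 := by rw [← hi]; exact inter_subset_left
  have hQ1 : Q ⊆ R1 := by rw [← hi]; exact inter_subset_right
  -- the conclusion from the positions
  have fin : ∀ {A B R0 R1 : Set E}, A ∪ B = S → R0 ∪ R1 = S → R0 ∩ R1 = Q → Q ⊆ A → Q ⊆ R0 →
      A \ Q ⊆ R0 → B \ Q ⊆ R1 → R0 = A := by
    intro A B R0 R1 hS hR hi hQA hQR a b
    apply Subset.antisymm
    · intro x hx
      have hxS : x ∈ A ∪ B := by rw [hS, ← hR]; exact Or.inl hx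
      rcases hxS with h | h
      · exact h
      · by_cases hq : x ∈ Q
        · exact hQA hq
        · exact hQA (by rw [← hi]; exact ⟨hx, b ⟨h, hq⟩⟩)
    · intro x hx
      by_cases hq : x ∈ Q
      · exact hQR hq
      · exact a ⟨hx, hq⟩
  have hne : ∀ {R0 R1 : Set E}, R0 ∪ R1 = S → R0 ∩ R1 = Q → (R1 \ Q).Nonempty →
      A \ Q ⊆ R0 → B \ Q ⊆ R0 → False := by
    rintro R0 R1 hR hi ⟨x, hx, hxq⟩ a b
    have hxS : x ∈ A ∪ B := by rw [hS, ← hR]; exact Or.inr hx
    apply hxq
    rw [← hi]
    refine ⟨?_, hx⟩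
    rcases hxS with h | h
    · exact a ⟨h, hxq⟩
    · exact b ⟨h, hxq⟩
  have hR' : R1 ∪ R0 = S := by rw [union_comm]; exact hR
  have hi' : R1 ∩ R0 = Q := by rw [inter_comm]; exact hi
  have hS' : B ∪ A = S := by rw [union_comm]; exact hS
  rcases key hA hAS with a | a
  · rcases key hB hBS with b | b
    · exact (hne hR hi hn1 a b).elim
    · left
      exact ⟨fin hS hR hi hA.subset hQ0 a b, fin hS' hR' hi' hB.subset hQ1 b a⟩
  · rcases key hB hBS with b | b
    · right
      exact ⟨fin hS' hR hi hB.subset hQ0 b a, fin hS hR' hi' hA.subset hQ1 a b⟩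
    · exact (hne hR' hi' hn0 a b).elim

/-- **the closed sides of a circle on the boundary of a 3-ball are discs** -/
theorem ballPair_sides {K S Γ R0 R1 : Set E} (hK : IsBall 3 K S)
    (hΓ : Nonempty (PLEquiv (S1 ℝ) Γ)) (hΓS : Γ ⊆ S) (h0 : IsClosed R0) (h1 : IsClosed R1)
    (hR : R0 ∪ R1 = S) (hi : R0 ∩ R1 = Γ) (hn0 : (R0 \ Γ).Nonempty) (hn1 : (R1 \ Γ).Nonempty) :
    BallPair 2 K R0 R1 Γ := by
  obtain ⟨A, B, hP, hAB⟩ := sphere_sides hK hΓ hΓS
  rcases sides_unique hP.ball₁ hP.ball₂ hAB h0 h1 hR hi hn0 hn1 with ⟨rfl, rfl⟩ | ⟨rfl, rfl⟩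
  · exact hP
  · exact hP.symm

/-! ### the model halves of the boundary of the cube, in every dimension -/

theorem exists_norm_eq {k : ℕ} (x : Fin k → ℝ) : (∃ i, ‖x‖ = |x i|) ∨ k = 0 := by
  rcases Nat.eq_zero_or_pos k with h | h
  · exact Or.inr h
  · left
    have : Nonempty (Fin k) := ⟨⟨0, h⟩⟩
    obtain ⟨i, -, hi⟩ := Finset.exists_max_image (Finset.univ : Finset (Fin k)) (fun i => |x i|)
      Finset.univ_nonempty
    refine ⟨i, le_antisymm ?_ (norm_le_pi_norm x i)⟩
    exact (pi_norm_le_iff_of_nonneg (abs_nonneg _)).2 fun j => hi j (Finset.mem_univ j)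

/-- the sup norm of a coordinatewise monotone function -/
theorem norm_map {k : ℕ} {x y : Fin k → ℝ} {g : ℝ → ℝ} (hg : ∀ s t, s ≤ t → g s ≤ g t)
    (h0 : g 0 = 0) (h : ∀ i, |y i| = g |x i|) : ‖y‖ = g ‖x‖ := by
  have hnn : 0 ≤ g ‖x‖ := by rw [← h0]; exact hg _ _ (norm_nonneg x)
  apply le_antisymm
  · refine (pi_norm_le_iff_of_nonneg hnn).2 fun i => ?_
    rw [Real.norm_eq_abs, h]
    exact hg _ _ (norm_le_pi_norm x i)
  · rcases exists_norm_eq x with ⟨i, hi⟩ | rfl
    · rw [hi, ← h]
      exact norm_le_pi_norm y i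
    · have : x = 0 := Subsingleton.elim _ _
      rw [this, norm_zero, h0]
      exact norm_nonneg y

/-- clamps on `ℝ^k` -/
noncomputable def kopPi (k : ℕ) : KOp (Fin k → ℝ) where
  K x c := fun i => cl c (x i)
  pl := by
    refine Ax_914.plMap_pi fun i => ?_
    have h1 : PLMap (fun p : (Fin k → ℝ) × ℝ => p.1 i) :=
      (Ax_914.plMap_apply i).comp PLMap.id.fst
    exact PLMap.id.snd.neg.max (PLMap.id.snd.min h1)
  k1 x c h := by
    ext i
    exact cl_of_abs_le ((norm_le_pi_norm x i).trans h)
  k2 x c hc := by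
    refine norm_map (g := fun s => s + min c s) (fun s t h => add_le_add h (min_le_min le_rfl h))
      (by simp [hc]) fun i => ?_
    exact cl_k2 hc (x i)
  k3 x c hc := by
    ext i
    exact cl_k3 hc (x i)
  k4 y c hc := by
    ext i
    exact cl_k4 hc (y i)
  k5 y c hc := by
    refine norm_map (g := fun s => s - min c s / 2) (fun s t h => ?_) (by simp [hc]) fun i => ?_
    · show s - min c s / 2 ≤ t - min c t / 2
      rcases le_total c s with h1 | h1 <;> rcases le_total c t with h2 | h2 <;>
        simp only [min_eq_left h1, min_eq_right h1, min_eq_left h2, min_eq_right h2] <;> linarith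
    · exact cl_k5 hc (y i)

/-- sign of `z + cl c z` -/
theorem sign_cl {c z : ℝ} (hc : 0 ≤ c) : (0 ≤ z + cl c z ↔ 0 ≤ z) ∧ (z + cl c z ≤ 0 ↔ z ≤ 0) := by
  rcases cl_cases hc z with ⟨h, h'⟩ | ⟨h, h'⟩ | ⟨h, h'⟩
  · rw [h']; constructor <;> constructor <;> intro h2 <;> linarith
  · rw [h']; constructor <;> constructor <;> intro h2
    · linarith
    · linarith
    · have : z = 0 := le_antisymm (by linarith) (by linarith)
      rw [this]
    · have : z = 0 := le_antisymm h2 (by linarith)
      subst this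
      have : c = 0 := le_antisymm h hc
      rw [this]; simp
  · rw [h']; constructor <;> constructor <;> intro h2
    · have : z = 0 := le_antisymm (by linarith) (by linarith)
      rw [this]
    · have : z = 0 := le_antisymm (by linarith) h2
      subst this
      have : c = 0 := le_antisymm (by linarith) hc
      rw [this]; simp
    · linarith
    · linarith

/-- `(ℝ^k) × ℝ ≃ ℝ^(k+1)`, the last coordinate becomes the first one -/
noncomputable def consL (k : ℕ) : ((Fin k → ℝ) × ℝ) ≃ₗ[ℝ] (Fin (k + 1) → ℝ) where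
  toFun p := Fin.cons p.2 p.1
  invFun y := (Fin.tail y, y 0)
  map_add' p q := by
    ext i
    refine Fin.cases ?_ (fun j => ?_) i <;> simp
  map_smul' c p := by
    ext i
    refine Fin.cases ?_ (fun j => ?_) i <;> simp
  left_inv p := by simp
  right_inv y := by simp

theorem consL_zero {k : ℕ} (p : (Fin k → ℝ) × ℝ) : consL k p 0 = p.2 := rfl

theorem consL_succ {k : ℕ} (p : (Fin k → ℝ) × ℝ) (i : Fin k) : consL k p i.succ = p.1 i := rfl

theorem norm_consL {k : ℕ} (p : (Fin k → ℝ) × ℝ) : ‖consL k p‖ = ‖p‖ := by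
  apply le_antisymm
  · rw [pi_norm_le_iff_of_nonneg (norm_nonneg _)]
    intro i
    refine Fin.cases ?_ (fun j => ?_) i
    · exact norm_snd_le p
    · exact (norm_le_pi_norm p.1 j).trans (norm_fst_le p)
  · refine norm_prod_le_iff.2 ⟨(pi_norm_le_iff_of_nonneg (norm_nonneg _)).2 fun i => ?_, ?_⟩
    · exact norm_le_pi_norm (consL k p) i.succ
    · exact norm_le_pi_norm (consL k p) 0

/-- upper and lower half, equator -/
def Hp (k : ℕ) : Set (Fin (k + 1) → ℝ) := {y | y ∈ sph (k + 1) ∧ 0 ≤ y 0}
def Hm (k : ℕ) : Set (Fin (k + 1) → ℝ) := {y | y ∈ sph (k + 1) ∧ y 0 ≤ 0}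
def He (k : ℕ) : Set (Fin (k + 1) → ℝ) := {y | y ∈ sph (k + 1) ∧ y 0 = 0}

/-- **the model pair** -/
theorem ballPair_cube (k : ℕ) : BallPair k (cube (k + 1)) (Hp k) (Hm k) (He k) := by
  let G := cubeH (kopPi k) (plMap_norm k)
  have hG : PLH G := PLH_cubeH _ _
  let L : ((Fin k → ℝ) × ℝ) ≃L[ℝ] (Fin (k + 1) → ℝ) := (consL k).toContinuousLinearEquiv
  have hL : PLH L.toHomeomorph := PLH_clm L
  have h := (ballPair_dbl k).plh (hG.trans hL)
  have happ : ∀ p, (G.trans L.toHomeomorph) p = consL k (phiUp (kopPi k) p) := fun p => rfl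
  have hnorm : ∀ p, ‖(G.trans L.toHomeomorph) p‖ = N1 p := by
    intro p
    rw [happ, norm_consL, norm_phiUp]
  have hz : ∀ p : (Fin k → ℝ) × ℝ, (G.trans L.toHomeomorph) p 0 = p.2 + cl ‖p.1‖ p.2 := fun p => rfl
  have himg : ∀ (P : ℝ → Prop) (Q : ℝ → Prop)
      (_ : ∀ p : (Fin k → ℝ) × ℝ, Q (p.2 + cl ‖p.1‖ p.2) ↔ Q p.2),
      (G.trans L.toHomeomorph) '' {p | P (N1 p) ∧ Q p.2} = {y | P ‖y‖ ∧ Q (y 0)} := by
    intro P Q hQ
    ext y
    constructor
    · rintro ⟨p, ⟨h1, h2⟩, rfl⟩
      refine ⟨by rw [hnorm]; exact h1, ?_⟩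
      rw [hz]
      exact (hQ p).2 h2
    · rintro ⟨h1, h2⟩
      obtain ⟨p, rfl⟩ := (G.trans L.toHomeomorph).surjective y
      refine ⟨p, ⟨by rw [← hnorm]; exact h1, ?_⟩, rfl⟩
      rw [hz] at h2
      exact (hQ p).1 h2
  have e1 : (G.trans L.toHomeomorph) '' Kp (Fin k → ℝ) = Hp k := by
    have := himg (fun s => s = 1) (fun s => 0 ≤ s) fun p => (sign_cl (norm_nonneg _)).1
    have e : Kp (Fin k → ℝ) = {p | N1 p = 1 ∧ 0 ≤ p.2} := by
      ext p; exact and_comm
    rw [e, this]
    ext y
    show ‖y‖ = 1 ∧ _ ↔ y ∈ sphere 0 1 ∧ _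
    rw [mem_sphere_zero_iff_norm]
  have e2 : (G.trans L.toHomeomorph) '' Km (Fin k → ℝ) = Hm k := by
    have := himg (fun s => s = 1) (fun s => s ≤ 0) fun p => (sign_cl (norm_nonneg _)).2
    have e : Km (Fin k → ℝ) = {p | N1 p = 1 ∧ p.2 ≤ 0} := by
      ext p; exact and_comm
    rw [e, this]
    ext y
    show ‖y‖ = 1 ∧ _ ↔ y ∈ sphere 0 1 ∧ _
    rw [mem_sphere_zero_iff_norm]
  have e3 : (G.trans L.toHomeomorph) '' {p | N1 p ≤ 1} = cube (k + 1) := by
    have := himg (fun s => s ≤ 1) (fun _ => True) fun p => Iff.rfl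
    have e : {p : (Fin k → ℝ) × ℝ | N1 p ≤ 1} = {p | N1 p ≤ 1 ∧ True} := by
      ext p; simp
    rw [e, this]
    ext y
    show ‖y‖ ≤ 1 ∧ True ↔ y ∈ closedBall 0 1
    rw [mem_closedBall_zero_iff, and_true]
  have e4 : (G.trans L.toHomeomorph) '' Eqt (Fin k → ℝ) = He k := by
    rw [← Kp_inter_Km, image_inter (G.trans L.toHomeomorph).injective, e1, e2]
    ext y
    constructor
    · rintro ⟨⟨h1, h2⟩, _, h3⟩; exact ⟨h1, le_antisymm h3 h2⟩
    · rintro ⟨h1, h2⟩; exact ⟨⟨h1, h2.ge⟩, h1, h2.le⟩
  rw [e1, e2, e3, e4] at h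
  exact h

theorem Hp_union_Hm (k : ℕ) : Hp k ∪ Hm k = sph (k + 1) := by
  ext y
  constructor
  · rintro (h | h) <;> exact h.1
  · intro h
    rcases le_total 0 (y 0) with h1 | h1
    · exact Or.inl ⟨h, h1⟩
    · exact Or.inr ⟨h, h1⟩

/-- **standard position of a ball pair on the boundary of the cube** -/
theorem exists_theta {k : ℕ} {K R0 R1 Γ : Set E} (h : BallPair k K R0 R1 Γ) :
    ∃ th : PLEquiv (R0 ∪ R1) (sph (k + 1)), th.f '' R0 = Hp k ∧ th.f '' R1 = Hm k := by
  have hm := ballPair_cube k
  rw [← Hp_union_Hm k]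
  exact exists_double h.ball₁ h.ball₂ h.inter hm.ball₁ hm.ball₂ hm.inter

end Crest.Agent.R096.Gn_296
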