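import Crest.Agent.R096.Gp0_702
import Crest.Agent.R096.Tws4_662
import Crest.Agent.R096.Gn1_296
import Crest.Agent.R096.Glu1_422

/-!
# From P2-GEN to the PL Schoenflies theorem for two discs (helper812, row 96)

`stdC_of_sphere`: every PL 2-sphere of `Fin 3 → ℝ` is standard (from `Gp_702.alexander_gen`).
`stdS_of_discs`: two PL discs of `(ℝ × ℝ) × ℝ` meeting exactly in their common rim are standard.
-/

namespace Crest.Agent.R096.Pb_812

open Set Metric Crest.Agent.R096.Pl Crest.Agent.R096.Ce_537 Crest.Agent.R096.Coh_184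
open Crest.Agent.R096.Gp_702 Crest.Agent.R096.Cb_609

/-! ### polyhedra -/

section Poly

variable {E : Type*} [NormedAddCommGroup E] [NormedSpace ℝ E]

/-- a finite union of polytopes -/
def PolyE (S : Set E) : Prop := ∃ 𝒞 : Set (Set E), 𝒞.Finite ∧ (∀ C ∈ 𝒞, VP C) ∧ ⋃₀ 𝒞 = S

theorem PolyE.union {S T : Set E} (hS : PolyE S) (hT : PolyE T) : PolyE (S ∪ T) := by
  obtain ⟨a, ha, ha1, rfl⟩ := hS
  obtain ⟨b, hb, hb1, rfl⟩ := hT
  refine ⟨a ∪ b, ha.union hb, ?_, sUnion_union a b⟩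
  rintro C (h | h)
  exacts [ha1 C h, hb1 C h]

/-- the retraction of space onto the cube -/
noncomputable def clampC (k : ℕ) (x : Fin k → ℝ) : Fin k → ℝ := fun i => max (-1) (min 1 (x i))

theorem plMap_clampC (k : ℕ) : PLMap (clampC k) := by
  have h : clampC k = fun x => ∑ i : Fin k, (max (-1) (min 1 (x i))) • Pi.single i (1 : ℝ) := by
    funext x
    ext j
    simp [clampC, Finset.sum_apply, Pi.single_apply]
  rw [h]
  refine PLMap.finset_sum _ fun i _ => PLMap.smul_const ?_ _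
  exact (PLMap.const (-1)).max ((PLMap.const 1).min
    (PLMap.of_affine (LinearMap.proj i : (Fin k → ℝ) →ₗ[ℝ] ℝ).toAffineMap))

theorem clampC_mem (k : ℕ) (x : Fin k → ℝ) : clampC k x ∈ cube k := by
  show clampC k x ∈ closedBall (0 : Fin k → ℝ) 1
  rw [mem_closedBall, dist_zero_right, pi_norm_le_iff_of_nonneg zero_le_one]
  intro i
  rw [Real.norm_eq_abs, abs_le]
  exact ⟨le_max_left _ _, max_le (by norm_num) (min_le_left _ _)⟩

theorem clampC_eq {k : ℕ} {x : Fin k → ℝ} (hx : x ∈ cube k) : clampC k x = x := by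
  have hx' : x ∈ closedBall (0 : Fin k → ℝ) 1 := hx
  rw [mem_closedBall, dist_zero_right, pi_norm_le_iff_of_nonneg zero_le_one] at hx'
  ext i
  have h1 := hx' i
  rw [Real.norm_eq_abs, abs_le] at h1
  simp only [clampC]
  rw [min_eq_right h1.2, max_eq_right h1.1]

/-- a PL map on the cube extends to the whole space -/
theorem exists_plMap {k : ℕ} {f : (Fin k → ℝ) → E} (hf : PLOn f (cube k)) :
    ∃ g : (Fin k → ℝ) → E, PLMap g ∧ EqOn g f (cube k) := by
  refine ⟨fun x => f (clampC k x), plMap_of_plOn ?_, fun x hx => ?_⟩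
  · exact hf.comp ((plMap_clampC k).plOn univ) fun x _ => clampC_mem k x
  · show f (clampC k x) = f x
    rw [clampC_eq hx]

theorem polyE_image_cube [FiniteDimensional ℝ E] {k : ℕ} {f : (Fin k → ℝ) → E}
    (hf : PLOn f (cube k)) : PolyE (f '' cube k) := by
  obtain ⟨g, hg, hgf⟩ := exists_plMap hf
  obtain ⟨𝒞, h1, h2, h3, h4, -⟩ := hg.cells (vp_cube k) (A := ∅) finite_empty
  rw [← hgf.image_eq]
  refine ⟨image g '' 𝒞, h1.image _, ?_, ?_⟩
  · rintro _ ⟨C, hC, rfl⟩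
    obtain ⟨a, ha⟩ := h4 C hC
    obtain ⟨s, hs, hsC⟩ := h2 C hC
    refine ⟨a '' s, hs.image _, ?_⟩
    have e1 : g '' C = a '' C := image_congr ha
    rw [e1, hsC]
    exact a.image_convexHull s
  · have e2 : g '' cube k = g '' ⋃₀ 𝒞 := by rw [h3]
    rw [e2, image_sUnion]

theorem polyE_ball [FiniteDimensional ℝ E] {k : ℕ} {K dK : Set E} (h : IsBall k K dK) :
    PolyE K := by
  obtain ⟨e, -⟩ := h
  rw [← e.image_eq]
  exact polyE_image_cube e.pf

end Poly

/-! ### balls and spheres -/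

section Top

variable {E : Type*} [NormedAddCommGroup E] [NormedSpace ℝ E]

theorem trivAll_ball {ι A : Type*} [AddCommGroup A] [Finite ι] {k : ℕ} {K dK : Set E}
    (h : IsBall k K dK) : TrivAll ι A K := by
  obtain ⟨e, -⟩ := h
  have h1 : TrivAll ι A (cube k) :=
    trivAll_convex (isCompact_closedBall (0 : Fin k → ℝ) 1) (convex_closedBall _ _)
  have h2 := TrivAll.of_image h1 (isCompact_closedBall (0 : Fin k → ℝ) 1).isClosed
    (g := e.f) (π := e.g) e.pf.1 (by rw [e.image_eq]; exact e.pg.1) e.li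
  rwa [e.image_eq] at h2

theorem isConnected_rim {K dK : Set E} {k : ℕ} (hk : 2 ≤ k) (h : IsBall k K dK) :
    IsConnected dK := by
  obtain ⟨e, rfl⟩ := h
  have h1 : 1 < Module.rank ℝ (Fin k → ℝ) := by
    rw [rank_fin_fun]; exact_mod_cast hk
  exact (isConnected_sphere h1 0 zero_le_one).image _ (e.pf.1.mono sph_subset_cube)

/-- a PL 2-sphere is the union of two discs -/
theorem exists_discs [FiniteDimensional ℝ E] {S : Set E} (φ : PLEquiv (sph 3) S) :
    ∃ A B Γ, IsBall 2 A Γ ∧ IsBall 2 B Γ ∧ A ∩ B = Γ ∧ A ∪ B = S := by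
  have h := Gn_296.ballPair_cube 2
  have hU := Gn_296.Hp_union_Hm 2
  have hp : Gn_296.Hp 2 ⊆ sph 3 := fun x hx => hx.1
  have hm : Gn_296.Hm 2 ⊆ sph 3 := fun x hx => hx.1
  refine ⟨φ.f '' Gn_296.Hp 2, φ.f '' Gn_296.Hm 2, φ.f '' Gn_296.He 2,
    h.ball₁.image_injOn (φ.pf.mono hp) (φ.injOn.mono hp),
    h.ball₂.image_injOn (φ.pf.mono hm) (φ.injOn.mono hm), ?_, ?_⟩
  · rw [← φ.injOn.image_inter hp hm, h.inter]
  · rw [← image_union, hU, φ.image_eq]

end Top

/-! ### the bridge -/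

theorem poly_of_polyE {S : Set E3} (h : PolyE S) : Gp_702.Poly S := h

/-- **every PL 2-sphere of `Fin 3 → ℝ` is standard** -/
theorem stdC_of_sphere (hE : ExistStmt) (hN : NormStmt) {S : Set E3} (φ : PLEquiv (sph 3) S) :
    StdC (F := ℝ × ℝ) (e3 ⁻¹' S) := by
  obtain ⟨A, B, Γ, hA, hB, hAB, hS⟩ := exists_discs φ
  have hΓ := isConnected_rim le_rfl hA
  refine alexander_gen hE hN ?_ ?_ ?_ ?_
  · rw [← hS]; exact (polyE_ball hA).union (polyE_ball hB)
  · exact Tws_662.twoSided_of_sphere (by simp) φ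
  · rw [← hS]
    refine ⟨hA.nonempty.mono subset_union_left, ?_⟩
    refine IsPreconnected.union' ?_ hA.isPreconnected hB.isPreconnected
    rw [hAB]; exact hΓ.nonempty
  · intro n
    rw [← hS]
    refine TrivAll.union hA.isClosed hB.isClosed ?_ (trivAll_ball hA) (trivAll_ball hB)
    rw [hAB]; exact hΓ.isPreconnected

/-- **every PL 2-sphere of `(ℝ × ℝ) × ℝ` is standard** -/
theorem stdC_of_sphere' (hE : ExistStmt) (hN : NormStmt) {S : Set ((ℝ × ℝ) × ℝ)}
    (φ : PLEquiv (sph 3) S) : StdC S := by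
  have hL : PLH e3.toHomeomorph := PLH_clm e3
  have h := stdC_of_sphere hE hN (φ.trans (ofPLH hL S))
  rwa [show e3 ⁻¹' (e3.toHomeomorph '' S) = S from preimage_image_eq _ e3.injective] at h

/-- a PL 2-sphere of `(ℝ × ℝ) × ℝ` bounds a PL ball -/
theorem ball_of_sphere' (hE : ExistStmt) (hN : NormStmt) {S : Set ((ℝ × ℝ) × ℝ)}
    (φ : PLEquiv (sph 3) S) : ∃ K, IsBall 3 K S := stdC_isBall_real2 (stdC_of_sphere' hE hN φ)

/-- a PL 2-sphere of `Fin 3 → ℝ` bounds a PL ball -/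
theorem ball_of_sphere (hE : ExistStmt) (hN : NormStmt) {S : Set E3}
    (φ : PLEquiv (sph 3) S) : ∃ K, IsBall 3 K S := by
  obtain ⟨K, hK⟩ := stdC_isBall_real2 (stdC_of_sphere hE hN φ)
  refine ⟨e3.toHomeomorph '' K, ?_⟩
  have h := hK.plh (PLH_clm e3)
  rwa [show e3.toHomeomorph '' (e3 ⁻¹' S) = S from image_preimage_eq _ e3.surjective] at h

/-- **the PL Schoenflies theorem for two discs** -/
theorem stdS_of_discs (hE : ExistStmt) (hN : NormStmt) :
    ∀ A B Γ : Set ((ℝ × ℝ) × ℝ), IsBall 2 A Γ → IsBall 2 B Γ → A ∩ B = Γ → StdS A B := by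
  intro A B Γ hA hB hAB
  obtain ⟨φ⟩ := Glu_422.sphere_union hA hB hAB
  obtain ⟨c⟩ := circle_of_disc hA
  obtain ⟨ψ, hψ, hψc⟩ := extend_circle c.pf
  have hψΓ : ψ '' S1 ℝ = Γ := by rw [hψc.image_eq, c.image_eq]
  refine (stdC_of_sphere' hE hN φ).pair_plane hψ ?_ hA.isClosed hB.isClosed rfl
    (by rw [hAB, hψΓ]) (by rw [hψΓ]; exact hA.nonempty_diff) (by rw [hψΓ]; exact hB.nonempty_diff)
  intro x hx y hy h
  rw [hψc hx, hψc hy] at h
  exact c.injOn hx hy h

end Crest.Agent.R096.Pb_812
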