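import Crest.Agent.R096.Ar6_241
import Crest.Agent.R096.Pb1_812
import Crest.Agent.R096.GpZ_702

/-!
# R096 (row 96), ARR (helper241): `P2` in dimension 3, unconditional
-/

set_option autoImplicit false

open Set Metric Topology Module

namespace Crest.Agent.R096.Ar_241

open Crest.Agent.R096.Ar_241.Tr0 (P2)

/-- every PL 2-sphere of `Fin 3 → ℝ` is standard -/
theorem p2_fin : P2 (Fin 3 → ℝ) 3 :=
  p2_of_stdC fun _ ⟨φ⟩ => Pb_812.stdC_of_sphere Gp_702.existStmt Gp_702.normStmt φ

/-- every PL 2-sphere of a three dimensional normed space is standard -/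
theorem p2_of_finrank {E : Type*} [NormedAddCommGroup E] [NormedSpace ℝ E] [FiniteDimensional ℝ E]
    (h : finrank ℝ E = 3) : P2 E 3 :=
  P2.transfer p2_fin (ContinuousLinearEquiv.ofFinrankEq (by rw [h]; simp))

end Crest.Agent.R096.Ar_241
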