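import Crest.Agent.R096.Fin3_147
import Crest.Agent.R096.Oa4_527
import Crest.Agent.R096.P2f_241

/-!
# R096 (row 96), bottom assembly, part 4 (helper147): [F8] -> [F10] for given data

`Charts` : the charts of the cores, indexed by the families.  `Charts.giants` : `Giants`.
`fin_gout` : from the band structure of the mesh, the charts of the cores, arcs, sheets and the metric
clauses to the conclusion `GOut` of `Oa_527.MachG`.
-/

set_option autoImplicit false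
set_option linter.unusedSectionVars false
set_option linter.unusedVariables false
set_option linter.style.longLine false

open Set Filter Topology Metric Module MeasureTheory
open scoped ENNReal

namespace Crest.Agent.R096.Fin_147

open Crest.Agent.R096.Ce_537 (PLOn PLEquiv cube sph IsBall Cplx)
open Crest.Agent.R096.Bd_416 Crest.Agent.R096.Grd_714 Crest.Agent.R096.Mg_441
open Crest.Agent.R096.Xp_537
open Crest.Agent.R096.Ar_241 (Tr0 TopC Exact cod SheetData)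
open Crest.Agent.R096.Ar_241.Tr0 (P2)
open Crest.Agent.R096.Shp_334 (OnMesh)

section charts

variable {Q : Type} [PartialOrder Q] {dim : Q → ℕ} {J Fam : Type}
variable {E' : Type*} [NormedAddCommGroup E'] [NormedSpace ℝ E']
variable {E : Type*} [NormedAddCommGroup E] [NormedSpace ℝ E] {Pf : Fam → Set E}

/-- **the charts of the cores** (indexed by the families) -/
structure Charts {Cc : Cmb Q dim J Fam} (hfin : ∀ a, {j | Cc.fam j = a}.Finite)
    (hm : ∀ a, 0 < mm hfin a) (q0 : Cel Pf (mm hfin)) (Ω : Set E') (g : Gd E' J) {Λ : Set E}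
    (C : CC Λ (Cel Pf (mm hfin))) (T : (Fam → ℝ) → E) (co : E → Fam → ℝ)
    (κf : ℝ) (Kc : Fam → Set E')
    (Th : ∀ a, PLEquiv (Kc a) (coreF C κf (.top a) 0)) : Prop where
  κpos : 0 < κf ∧ κf < 1
  sub : ∀ a, Kc a ⊆ Ω
  closed : ∀ a, IsClosed (Kc a)
  disj : ∀ a a', a ≠ a' → Disjoint (Kc a) (Kc a')
  lf : ∀ x ∈ Ω, ∃ U ∈ 𝓝 x, {a | (Kc a ∩ U).Nonempty}.Finite
  bd : ∀ a, ∀ x ∈ Kc a, x ∈ frontier (Kc a) ↔ sl C κf ((Th a).f x) (.top a) = 0
  agG : ∀ a, ∀ x ∈ frontier (Kc a), gG T (merge hfin g) x = cG C κf (Th a).f x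
  agT : ∀ a, ∀ x ∈ frontier (Kc a), gtop hm q0 (merge hfin g) x = ctop C κf (.top a) (Th a).f x
  agt : ∀ a, ∀ x ∈ frontier (Kc a), ∀ t ∈ C.cell (gtop hm q0 (merge hfin g) x),
    gtr co (merge hfin g) x t = ctr C κf (Th a).f (Th a).g x t

variable [FiniteDimensional ℝ E]

/-- the part outside the open cores -/
def Xout (Kc : Fam → Set E') : Set E' := (⋃ a, interior (Kc a))ᶜ

lemma isClosed_Xout (Kc : Fam → Set E') : IsClosed (Xout Kc) :=
  (isOpen_iUnion fun _ => isOpen_interior).isClosed_compl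

variable {Cc : Cmb Q dim J Fam} {K : Q → Set E'} {g : Gd E' J}
variable {hfin : ∀ a, {j | Cc.fam j = a}.Finite} {hm : ∀ a, 0 < mm hfin a}
  {q0 : Cel Pf (mm hfin)} {Ω : Set E'} {Λ : Set E} {C : CC Λ (Cel Pf (mm hfin))}
  {T : (Fam → ℝ) → E} {co : E → Fam → ℝ} {κf : ℝ} {Kc : Fam → Set E'}
  {Th : ∀ a, PLEquiv (Kc a) (coreF C κf (.top a) 0)}

/-- change of the name of the cell -/
def castTh {K0 : Set E'} {q q' : Cel Pf (mm hfin)} (h : q = q')
    (e : PLEquiv K0 (coreF C κf q' 0)) : PLEquiv K0 (coreF C κf q 0) :=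
  e.restr (A' := K0) (B' := coreF C κf q 0) subset_rfl (by rw [h])
    (by rw [h]; exact e.mf) (by rw [h]; exact e.mg)

lemma castTh_f {K0 : Set E'} {q q' : Cel Pf (mm hfin)} (h : q = q')
    (e : PLEquiv K0 (coreF C κf q' 0)) : (castTh h e).f = e.f := rfl

lemma castTh_g {K0 : Set E'} {q q' : Cel Pf (mm hfin)} (h : q = q')
    (e : PLEquiv K0 (coreF C κf q' 0)) : (castTh h e).g = e.g := rfl

/-- the cores indexed by the top cells -/
noncomputable def Ktc (Kc : Fam → Set E') (c : TopC (Cel Pf (mm hfin))) : Set E' := Kc (tix c)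

/-- the charts indexed by the top cells -/
noncomputable def Thc (Th : ∀ a, PLEquiv (Kc a) (coreF C κf (.top a) 0))
    (c : TopC (Cel Pf (mm hfin))) : PLEquiv (Ktc Kc c) (coreF C κf c.1 0) :=
  castTh (tix_spec c) (Th (tix c))

omit [FiniteDimensional ℝ E] in
lemma tix_inj [FiniteDimensional ℝ E] {c c' : TopC (Cel Pf (mm hfin))} (h : tix c = tix c') :
    c = c' :=
  Subtype.ext (by rw [tix_spec c, tix_spec c', h])

lemma iUnion_Ktc : ⋃ c, Ktc (hfin := hfin) (Pf := Pf) Kc c = ⋃ a, Kc a := by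
  ext x
  simp only [mem_iUnion]
  constructor
  · rintro ⟨c, hc⟩; exact ⟨_, hc⟩
  · rintro ⟨a, ha⟩
    refine ⟨topc a, ?_⟩
    show x ∈ Kc (tix (topc a))
    rw [tix_topc]; exact ha

lemma Charts.mem_Xout (h : Charts hfin hm q0 Ω g C T co κf Kc Th) {a : Fam} {x : E'}
    (hx : x ∈ Kc a) : x ∈ Xout Kc ↔ x ∈ frontier (Kc a) := by
  have h1 : x ∈ Xout Kc ↔ x ∉ interior (Kc a) := by
    unfold Xout
    constructor
    · intro h1 h2
      exact h1 (mem_iUnion.2 ⟨a, h2⟩)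
    · intro h1 h2
      obtain ⟨a', ha'⟩ := mem_iUnion.1 h2
      by_cases e : a = a'
      · subst e; exact h1 ha'
      · exact Set.disjoint_left.1 (h.disj a a' e) hx (interior_subset ha')
  rw [h1, (h.closed a).frontier_eq]
  exact ⟨fun h2 => ⟨hx, h2⟩, fun h2 => h2.2⟩

/-- **the giants** -/
theorem Charts.giants (h : Charts hfin hm q0 Ω g C T co κf Kc Th) :
    Giants hfin hm q0 Ω (Xout Kc) g C T co (fun _ => κf) (Ktc Kc) (Thc Th) where
  κpos := fun _ => h.κpos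
  sub := fun c => h.sub _
  cov := fun x hx => by
    by_cases h1 : x ∈ Xout Kc
    · exact Or.inl h1
    · right
      rw [iUnion_Ktc]
      unfold Xout at h1
      rw [mem_compl_iff, not_not] at h1
      obtain ⟨a, ha⟩ := mem_iUnion.1 h1
      exact mem_iUnion.2 ⟨a, interior_subset ha⟩
  disj := fun c c' hne => h.disj _ _ (fun e => hne (tix_inj e))
  lf := fun x hx => by
    obtain ⟨U, hU, hf⟩ := h.lf x hx
    exact ⟨U, hU, hf.preimage (f := fun c : TopC (Cel Pf (mm hfin)) => tix c)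
      (fun c _ c' _ e => tix_inj e)⟩
  bd := fun c x hx => by
    rw [h.mem_Xout hx, h.bd _ x hx]
    show _ ↔ (sl C κf ((Th (tix c)).f x)) c.1 = 0
    rw [tix_spec c]
  agG := fun c x hx hx0 => h.agG _ x ((h.mem_Xout hx).1 hx0)
  agT := fun c x hx hx0 => by
    show _ = ctop C κf c.1 (Th (tix c)).f x
    rw [tix_spec c]; exact h.agT _ x ((h.mem_Xout hx).1 hx0)
  agt := fun c x hx hx0 t ht => h.agt _ x ((h.mem_Xout hx).1 hx0) t ht

end charts

/-! ### [F8] -> [F10] -/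

section main

open Crest.Agent.R096.Brk1_582 Crest.Agent.R096.Brk3_582 Crest.Agent.R096.Brk5_582
open Crest.Agent.R096.Bsp_628
open Crest.Agent.R096.SkC1_961 (E3 Hom3 FoamD Cfg th NN)
open Crest.Agent.R096.Msh_715 Crest.Agent.R096.Nr_527 Crest.Agent.R096.Oa_527
open Crest.Agent.R096.Mbf_337 (KJ sb gau)

variable {δ κ0 R c0 : ℝ} {La Om : Set E3} {ι : Type} {Φ : FoamD δ κ0 R c0 La} {Tl : Tiling Om ι}
  {f : E3 → E3} {κ1 κ2 : ℝ} {X : Set Φ.F} {J0 J V : Φ.F → Set ι} {ct : Φ.F → ι}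
  {A : Φ.F → E3 ≃ᵃ[ℝ] E3} {lam : Φ.F → ℝ} {z : Φ.F → E3} {θ : Φ.F → E3 → E3} {φ : Φ.F → E3 → ℝ}

/-- the grid complex of the foam -/
noncomputable abbrev gr (Φ : FoamD δ κ0 R c0 La) (hLa : IsOpen La) {m : Φ.F → ℕ}
    (hne : ∀ c : Φ.F, (Pc Φ.F c).Nonempty) (hm : ∀ a, 0 < m a) : CC La (Cel (Pc Φ.F) m) :=
  grid (foam Φ.bf hLa) (quads_box Φ.bf (by simp)) hne hm

/-- the cores do not touch -/
lemma disjoint_cores (hLa : IsOpen La)
    (hC : Mbf_337.Cores Φ Tl f κ1 κ2 X J0 J V ct A lam z θ φ) {Kc : Φ.F → Set E3}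
    (hK : ∀ a, Kc a ⊆ KJ Tl (V a)) {a a' : Φ.F} (hne : a ≠ a') : Disjoint (Kc a) (Kc a') := by
  rw [Set.disjoint_left]
  intro x hx hx'
  obtain ⟨h1, h2⟩ := open_only Φ hLa (V_inside hC (hK a hx))
  obtain ⟨h1', h2'⟩ := open_only Φ hLa (V_inside hC (hK a' hx'))
  exact hne (h2' a h1)

/-- the cores are locally finite -/
lemma lf_cores (hC : Mbf_337.Cores Φ Tl f κ1 κ2 X J0 J V ct A lam z θ φ) {Kc : Φ.F → Set E3}
    (hK : ∀ a, Kc a ⊆ KJ Tl (V a)) {x : E3} (hx : x ∈ Om) :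
    ∃ U ∈ 𝓝 x, {a | (Kc a ∩ U).Nonempty}.Finite := by
  obtain ⟨r, hr, hf⟩ := Tl.lf x hx
  obtain ⟨U, hU, hUe⟩ : ∃ U ∈ 𝓝 x, U = ball x r := ⟨_, ball_mem_nhds x hr, rfl⟩
  rw [← hUe] at hf
  refine ⟨U, hU, ?_⟩
  have h1 : ∀ a : Φ.F, (Kc a ∩ U).Nonempty → ∃ i, i ∈ V a ∧ (P (Tl.H i) ∩ U).Nonempty := by
    rintro a ⟨y, hy, hyU⟩
    obtain ⟨i, hi, hyi⟩ := mem_KJ.1 (hK a hy)
    exact ⟨i, hi, y, hyi, hyU⟩
  rcases isEmpty_or_nonempty ι with hι | hι
  · have : {a | (Kc a ∩ U).Nonempty} = ∅ := by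
      ext a
      simp only [mem_ofPred_eq, mem_empty_iff_false, iff_false]
      intro ha
      obtain ⟨i, -⟩ := h1 a ha
      exact hι.elim i
    rw [this]; exact Set.finite_empty
  choose! F hF1 hF2 using h1
  refine Set.Finite.of_finite_image (f := F) (hf.subset ?_) ?_
  · rintro _ ⟨a, ha, rfl⟩
    exact hF2 a ha
  · intro a ha a' ha' e
    by_contra hne
    exact Set.disjoint_left.1 (hC.disj a a' hne) (hF1 a ha) (by rw [e]; exact hF1 a' ha')

/-- **[F8] -> [F10] for given data**: `H` = band structure of the mesh outside the cores (416),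
`hex` = (K4) with base points (441 / 662), `chart` = charts of the cores (type R: `bg_R` /
`base_agree`, type D: `exists_Th_mesh` / `exists_ThD`), `arcs` (241 / 778 / 422), `sheets` (334),
`met` (835 / 199 / 487; 609 / 714 / 628). -/
theorem fin_gout (hOm : IsOpen Om) (hLa : IsOpen La) (hf : Hom3 f Om La)
    (hs : Small δ κ0 R κ1 κ2)
    (hC : Mbf_337.Cores Φ Tl f κ1 κ2 X J0 J V ct A lam z θ φ) (hF : Mbf_337.Fine Φ Tl f κ1 J0)
    {Q : Type} [PartialOrder Q] [Nonempty Q] {dim : Q → ℕ} {Jc : Type}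
    {Cc : Cmb Q dim Jc Φ.F} {K : Q → Set E3} {g : Gd E3 Jc}
    {Pp : ∀ q, Cc.I q → Set E3} {cc : ∀ q, Cc.I q → E3 → ℝ}
    (H : Inv Cc K univ g Pp cc) {hfin : ∀ a, {j | Cc.fam j = a}.Finite}
    (hm : ∀ a, 0 < mm hfin a) (hex : MeshEx Φ Tl f J0 Cc K univ)
    (hne : ∀ c : Φ.F, (Pc Φ.F c).Nonempty)
    {Kc : Φ.F → Set E3} (Xc : Cplx (Om ∩ Xout Kc) Q dim K)
    (hKJ : ∀ a, Kc a ⊆ KJ Tl (J a)) (hKc : ∀ a, IsClosed (Kc a))
    (q0 : Cel (Pc Φ.F) (mm hfin)) {κf : ℝ} (hκf : 0 < κf ∧ κf < 1) (Rr : Φ.F → E3 → E3)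
    (chart : ∀ a, ∃ Th : PLEquiv (Kc a) (coreF (gr Φ hLa hne hm) κf (.top a) 0),
      (a ∈ X → ∀ x ∈ Kc a, Th.f x = Rr a (th (A a) (lam a) (z a) x)) ∧
      (∀ x ∈ Kc a, x ∈ frontier (Kc a) ↔ sl (gr Φ hLa hne hm) κf (Th.f x) (.top a) = 0) ∧
      ∀ x ∈ frontier (Kc a),
        gG (Tq (bc (F := Φ.F)) (mm hfin)) (merge hfin g) x = cG (gr Φ hLa hne hm) κf Th.f x ∧
        gtop hm q0 (merge hfin g) x = ctop (gr Φ hLa hne hm) κf (.top a) Th.f x ∧
        ∀ t ∈ (gr Φ hLa hne hm).cell (gtop hm q0 (merge hfin g) x),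
          gtr (co (Pc Φ.F) (bc (F := Φ.F)) (mm hfin)) (merge hfin g) x t =
            ctr (gr Φ hLa hne hm) κf Th.f Th.g x t)
    (arcs : ∀ (G : E3 → E3) (Y : Tr0 Om (gr Φ hLa hne hm) G),
      OnMesh Y K g (Tq (bc (F := Φ.F)) (mm hfin)) (XM Om K) →
      Nonempty (Exact Y (fun _ => κf) (fun _ => 0) (Ktc Kc) (XM Om K)) →
      ∀ q, cod (gr Φ hLa hne hm) q = 1 →
      IsBall 1 (Y.F q ∩ XM Om K) (Y.F q ∩ XM Om K ∩ ⋃ c : TopC (Cel (Pc Φ.F) (mm hfin)), Ktc Kc c))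
    (sheets : ∀ (G : E3 → E3) (Y : Tr0 Om (gr Φ hLa hne hm) G),
      OnMesh Y K g (Tq (bc (F := Φ.F)) (mm hfin)) (XM Om K) →
      Nonempty (Exact Y (fun _ => κf) (fun _ => 0) (Ktc Kc) (XM Om K)) →
      ∀ q, cod (gr Φ hLa hne hm) q = 2 →
        SheetData Y (Ktc Kc : TopC (Cel (Pc Φ.F) (mm hfin)) → Set E3) (XM Om K) q)
    {C0 e : ℝ} {Cs : Set (Set E3) → ℝ} {κw : Φ.F → ℕ} {L : Φ.F → Finset ℝ}
    (met : ∀ G : E3 → E3, ContinuousOn G Om →
      (∀ q, ∀ x ∈ K q, G x = gG (Tq (bc (F := Φ.F)) (mm hfin)) (merge hfin g) x) →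
      (∀ a ∈ X, ∀ x ∈ Kc a, G x = st (gr Φ hLa hne hm) κf (Rr a (th (A a) (lam a) (z a) x))) →
      OutG C0 Cs e Φ Tl f X V ct A lam κw L G) :
    ∃ G : E3 → E3, GOut C0 Cs e Φ Tl f X J0 V ct A lam κw L G := by
  have OK : GridOK (gr Φ hLa hne hm) (Tq (bc (F := Φ.F)) (mm hfin))
      (co (Pc Φ.F) (bc (F := Φ.F)) (mm hfin)) := gridOK _ _ hne hm
  choose Th hTh1 hTh2 hTh3 using chart
  have hKV : ∀ a, Kc a ⊆ KJ Tl (V a) := fun a x hx => by
    obtain ⟨i, hi, hxi⟩ := mem_KJ.1 (hKJ a hx)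
    exact mem_KJ.2 ⟨i, J_sub hC a hi, hxi⟩
  have hKOm : ∀ a, Kc a ⊆ Om := fun a x hx => by
    obtain ⟨i, hi, hxi⟩ := mem_KJ.1 (hKJ a hx)
    exact Tl.sub i hxi
  have hCh : Charts hfin hm q0 Om g (gr Φ hLa hne hm) (Tq (bc (F := Φ.F)) (mm hfin))
      (co (Pc Φ.F) (bc (F := Φ.F)) (mm hfin)) κf Kc Th :=
    { κpos := hκf
      sub := hKOm
      closed := hKc
      disj := fun a a' h => disjoint_cores hLa hC hKV h
      lf := fun x hx => lf_cores hC hKV hx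
      bd := hTh2
      agG := fun a x hx => (hTh3 a x hx).1
      agT := fun a x hx => (hTh3 a x hx).2.1
      agt := fun a x hx => (hTh3 a x hx).2.2 }
  have hG := hCh.giants
  have hT := hT_Tq (Φ := Φ) hLa hm
  have hprop := MeshEx.prop hLa hf hs hC hF hex H hfin hm hT (gr Φ hLa hne hm)
  have hE3 : finrank ℝ E3 = 3 := by simp
  have hX0 := isClosed_Xout Kc
  have htrn := hG.trn hX0 Xc H OK (fun q => hex.ex (mem_univ q)) hprop hLa hOm hE3
    (Ar_241.p2_of_finrank hE3) (fun q => grid_dim_le _ _ hne hm q)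
    (fun c x hx hx0 ε hε => by
      have h1 := (hCh.mem_Xout hx).1 hx0
      rw [(hKc _).frontier_eq] at h1
      by_contra hcon
      push Not at hcon
      exact h1.2 (mem_interior_iff_mem_nhds.2 (mem_nhds_iff.2 ⟨ε, hε, hcon⟩))) arcs sheets
  refine gout_of hLa hf hs hC hex H hm hT (fun a => grid_cell_top _ _ hne hm a) (fun _ => hκf)
    (fun c => hKJ _) (fun x hx => ?_) htrn ?_
  · by_cases h1 : x ∈ Xout Kc
    · left; exact Xc.cover x ⟨hx, h1⟩
    · right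
      unfold Xout at h1
      rw [mem_compl_iff, not_not] at h1
      obtain ⟨a, ha⟩ := mem_iUnion.1 h1
      refine ⟨topc a, ?_⟩
      show x ∈ Kc (tix (topc a))
      rw [tix_topc]; exact interior_subset ha
  · intro G hGc hG1 hG2
    refine met G hGc hG1 (fun a ha x hx => ?_)
    have h1 := hG2 (topc a) x (by
      show x ∈ Kc (tix (topc a))
      rw [tix_topc]; exact hx)
    rw [h1]
    show st (gr Φ hLa hne hm) κf ((Th (tix (topc a))).f x) = _
    rw [tix_topc, hTh1 a ha x hx]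

end main

end Crest.Agent.R096.Fin_147
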