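import Crest.Agent.R096.Gia4_537
import Crest.Agent.R096.Fin4_147

/-!
# R096 (row 96), GIANTS-INST, part 5 (helper537): the clause `chart` of `Fin_147.fin_gout`

* `chart_R` : type R core (`Rr a = R.f`, `R` = 150's PL homeomorphism of the brick which is `rcR` on
  the boundary);
* `chart_D` : type D core (241's `exists_Th_mesh`).
-/

set_option autoImplicit false
set_option linter.unusedSectionVars false
set_option linter.unusedVariables false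
set_option linter.deprecated false
set_option linter.style.longLine false

open Set Filter Topology Metric Module

namespace Crest.Agent.R096.Gia_537

open Crest.Agent.R096.Ce_537 (PLOn PLEquiv cube sph IsBall Cplx)
open Crest.Agent.R096.Bd_416 Crest.Agent.R096.Mg_441
open Crest.Agent.R096.Brk1_582 Crest.Agent.R096.Brk2_582 Crest.Agent.R096.Brk3_582
open Crest.Agent.R096.Brk5_582 Crest.Agent.R096.Brk6_582
open Crest.Agent.R096.Bsp_628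
open Crest.Agent.R096.Grd_714
open Crest.Agent.R096.Xp_537 Crest.Agent.R096.Xr_537
open Crest.Agent.R096.SkC1_961 (E3 Hom3 FoamD Cfg th NN)
open Crest.Agent.R096.Msh_715
open Crest.Agent.R096.Mbf_337 (KJ)
open Crest.Agent.R096.Nr_527
open Crest.Agent.R096.Fin_147 (gr Xout)

variable {δ κ0 R c0 : ℝ} {La Om : Set E3} {ι : Type} {Φ : FoamD δ κ0 R c0 La}
  {T : Tiling Om ι} {f : E3 → E3} {κ1 κ2 : ℝ} {X : Set Φ.F}
variable {Q : Type} [PartialOrder Q] {dim : Q → ℕ} {Jf : Type} {Cc : Cmb Q dim Jf Φ.F}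
  {K : Q → Set E3} {g : Gd E3 Jf} {Pp : ∀ q, Cc.I q → Set E3} {cc : ∀ q, Cc.I q → E3 → ℝ}
  {hfin : ∀ a, {j | Cc.fam j = a}.Finite}

/-- the clause `chart` of `fin_gout` for the core `a`; `Rr` only matters for `hX : Prop` -/
def Chart (hLa : IsOpen La) (hne : ∀ c : Φ.F, (Pc Φ.F c).Nonempty)
    (hm : ∀ a, 0 < mm hfin a) (q0 : Cel (Pc Φ.F) (mm hfin)) (κf : ℝ) (g : Gd E3 Jf) (a : Φ.F)
    (K0 : Set E3) (hX : Prop) (t Rr : E3 → E3) : Prop :=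
  ∃ Th : PLEquiv K0 (coreF (gr Φ hLa hne hm) κf (.top a) 0),
      (hX → ∀ x ∈ K0, Th.f x = Rr (t x)) ∧
      (∀ x ∈ K0, x ∈ frontier K0 ↔ sl (gr Φ hLa hne hm) κf (Th.f x) (.top a) = 0) ∧
      ∀ x ∈ frontier K0,
        gG (Tq (bc (F := Φ.F)) (mm hfin)) (merge hfin g) x = cG (gr Φ hLa hne hm) κf Th.f x ∧
        gtop hm q0 (merge hfin g) x = ctop (gr Φ hLa hne hm) κf (.top a) Th.f x ∧
        ∀ t ∈ (gr Φ hLa hne hm).cell (gtop hm q0 (merge hfin g) x),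
          gtr (co (Pc Φ.F) (bc (F := Φ.F)) (mm hfin)) (merge hfin g) x t =
            ctr (gr Φ hLa hne hm) κf Th.f Th.g x t

/-- **type R core** -/
theorem chart_R (hLa : IsOpen La) {a : Φ.F} {i : ι} {A : E3 ≃ᵃ[ℝ] E3} {lam : ℝ} {z : E3}
    (hE : Mbf_337.Exact Φ T f κ1 κ2 a i A lam z)
    (H : Inv Cc K univ g Pp cc) (hm : ∀ a, 0 < mm hfin a) (hne : ∀ c : Φ.F, (Pc Φ.F c).Nonempty)
    (q0 : Cel (Pc Φ.F) (mm hfin)) (ex : ∀ q, ∃ y, Ex Cc (Pc Φ.F) q y) (hcl : ∀ q, IsClosed (K q))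
    {K0 : Set E3} (hK0 : K0 = P (T.H i)) (hKX : ∀ q, ∀ x ∈ K q, x ∉ interior K0)
    {D : Set Q} (hD : ∀ x ∈ frontier K0, ∃ q ∈ D, x ∈ K q)
    {κb : ℝ} (hκb : 0 < κb ∧ κb < 1) {lv : Jf → ℕ}
    (hinj : ∀ j j', Cc.fam j = Cc.fam j' → lv j = lv j' → j = j')
    (hlt : ∀ j, lv j < mm hfin (Cc.fam j))
    (hsur : ∀ a k, k < mm hfin a → ∃ j, Cc.fam j = a ∧ lv j = k)
    {β : ℕ → ℝ} (hb0 : ∀ n, 0 < β n) (hb2 : ∀ n, β n < 1/2)
    {κf : ℝ} (hκfd : κf = 1 - (1 - κb) * bet β 4)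
    {n : Φ.F → ℕ → ℝ} {m' : Φ.F → ℕ} (hN : ∀ a, StrictMono (n a)) (hN0 : ∀ a, n a 0 = 0)
    (hNm : ∀ a, n a (m' a) = mm hfin a) (hm' : ∀ c, 0 < m' c)
    (F : Foam La (Pc Φ.F) (bc (F := Φ.F)) 4) (hQ : Quads (Pc Φ.F) (bc (F := Φ.F)))
    {S : Set E3} (hS : S = frontier K0)
    (th0 : PLEquiv S (Bin_181.bdP (Pc Φ.F) (bc (F := Φ.F)) m' a))
    (hth0 : ∀ x ∈ S, th0.f x = th A lam z x)
    (R : PLEquiv (Pc Φ.F a) (Pc Φ.F a))
    (hR : ∀ y ∈ Bin_181.bdP (Pc Φ.F) (bc (F := Φ.F)) m' a, R.f y =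
      (Bin_181.rcR hN hN0 hNm F hQ hm' hm a).f y) {g0 : Gd E3 Jf}
    (h0 : ∀ q ∈ D, ∀ z ∈ K q, EqAt (Bin_181.ekS (grid F hQ hne hm) (bc (F := Φ.F)) κb (.top a)
      Cc.fam lv (th0.trans (Bin_181.rcR hN hN0 hNm F hQ hm' hm a))) g0 z)
    (hg : ∀ q ∈ D, ∀ z ∈ K q, EqAt (sqs g0 β 4) g z) :
    Chart hLa hne hm q0 κf g a K0 (a ∈ X) (th A lam z) R.f := by
  have hcl0 : IsClosed K0 := by rw [hK0]; exact (T.cpt i).isClosed
  have hfr : ∀ x ∈ K0, (x ∈ (interior K0)ᶜ ↔ x ∈ frontier K0) := fun x hx => by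
    rw [hcl0.frontier_eq]
    exact ⟨fun h => ⟨hx, h⟩, fun h => h.2⟩
  have hS' : K0 ∩ (interior K0)ᶜ = S := by
    rw [hS, hcl0.frontier_eq]; rfl
  set rc := Bin_181.rcR hN hN0 hNm F hQ hm' hm a with hrc
  let e0 : PLEquiv S (bdP (grid F hQ hne hm) a) :=
    castT (th0.trans rc) (bdP_grid F hQ hne hm a).symm
  let e : PLEquiv (K0 ∩ (interior K0)ᶜ) (bdP (grid F hQ hne hm) a) :=
    { f := e0.f, g := e0.g, pf := by rw [hS']; exact e0.pf, pg := e0.pg,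
      mf := by rw [hS']; exact e0.mf, mg := by rw [hS']; exact e0.mg,
      li := by rw [hS']; exact e0.li, ri := e0.ri }
  have hSK : ∀ x ∈ S, x ∈ P (T.H i) := fun x hx => by
    rw [hS, hK0] at hx
    exact (T.cpt i).isClosed.frontier_subset hx
  let Th : PLEquiv K0 ((grid F hQ hne hm).cell (.top a)) :=
    { f := (ThR hE R).f, g := (ThR hE R).g, pf := by rw [hK0]; exact (ThR hE R).pf,
      pg := (ThR hE R).pg, mf := by rw [hK0]; exact (ThR hE R).mf,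
      mg := by rw [hK0]; exact (ThR hE R).mg, li := by rw [hK0]; exact (ThR hE R).li,
      ri := (ThR hE R).ri }
  have hthm : ∀ x ∈ S, th A lam z x ∈ Bin_181.bdP (Pc Φ.F) (bc (F := Φ.F)) m' a := fun x hx => by
    rw [← hth0 x hx]; exact th0.mf hx
  have he : ∀ x ∈ K0 ∩ (interior K0)ᶜ, e.f x = Th.f x := by
    intro x hx
    rw [hS'] at hx
    show rc.f (th0.f x) = R.f (th A lam z x)
    rw [hth0 x hx, hR _ (hthm x hx)]
  have hei : ∀ y ∈ bdP (grid F hQ hne hm) a, e.g y = Th.g y := by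
    intro y hy
    have hy' : y ∈ Bin_181.bdP (Pc Φ.F) (bc (F := Φ.F)) (mm hfin) a := by
      rw [← bdP_grid F hQ hne hm a]; exact hy
    have h1 : rc.g y ∈ Bin_181.bdP (Pc Φ.F) (bc (F := Φ.F)) m' a := rc.mg hy'
    have h2 : rc.g y ∈ Pc Φ.F a := ((Set.ext_iff.1 (Bin_181.bdP_eq F hQ hm') (rc.g y)).1 h1).1
    have h3 : R.f (rc.g y) = y := by rw [hR _ h1, rc.ri y hy']
    have h4 : R.g y = rc.g y := by rw [← h3, R.li _ h2, h3]
    have h5 : th0.g (rc.g y) = thi A lam z (rc.g y) := by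
      have h6 : th A lam z (th0.g (rc.g y)) = rc.g y := by
        rw [← hth0 _ (th0.mg h1), th0.ri _ h1]
      rw [← h6, thi_th hE.lam0, h6]
    show th0.g (rc.g y) = thi A lam z (R.g y)
    rw [h4, h5]
  have hκf : 0 < κf ∧ κf < 1 := by
    rw [hκfd]; exact kf_pos hκb (bet_pos hb0 4) (bet_le hb0 hb2 4)
  have hz := coreF_zero (grid F hQ hne hm) hκf (.top a)
  let Th' : PLEquiv K0 (coreF (grid F hQ hne hm) κf (.top a) 0) :=
    { f := Th.f, g := Th.g, pf := Th.pf, pg := by rw [hz]; exact Th.pg,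
      mf := by rw [hz]; exact Th.mf, mg := by rw [hz]; exact Th.mg,
      li := Th.li, ri := by rw [hz]; exact Th.ri }
  obtain ⟨h1, h2⟩ := giant_R F hQ hne hm q0 (gridOK F hQ hne hm) H ex hcl a (K0 := K0)
    (X0 := (interior K0)ᶜ) hcl0 (fun q x hx => hKX q x hx)
    (fun x hx => by
      obtain ⟨q, -, hq⟩ := hD x ((hfr x hx.1).1 hx.2)
      exact ⟨q, hq⟩) hκb hinj hlt hsur hb0 hb2 3 hκfd Th' e he hei (g0 := g0)
    (fun x hx => by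
      obtain ⟨q, hqD, hq⟩ := hD x ((hfr x hx.1).1 hx.2)
      exact h0 q hqD x hq)
    (fun x hx => by
      obtain ⟨q, hqD, hq⟩ := hD x ((hfr x hx.1).1 hx.2)
      exact hg q hqD x hq)
  refine ⟨Th', fun _ x _ => rfl, fun x hx => ?_, fun x hx => ?_⟩
  · rw [← hfr x hx]; exact h1 x hx
  · have hxK : x ∈ K0 := hcl0.frontier_subset hx
    exact h2 x hxK ((hfr x hxK).2 hx)

/-- **type D core** -/
theorem chart_D (hLa : IsOpen La) {a : Φ.F} (H : Inv Cc K univ g Pp cc)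
    (hm : ∀ a, 0 < mm hfin a) (hne : ∀ c : Φ.F, (Pc Φ.F c).Nonempty)
    (q0 : Cel (Pc Φ.F) (mm hfin)) {ℓ : Jf → ℝ} (hO : Ord Cc ℓ)
    (hℓ : ∀ j j', j ≠ j' → Cc.fam j = Cc.fam j' → ℓ j ≠ ℓ j')
    {K0 : Set E3} (hcl0 : IsClosed K0) (hK0 : IsBall 3 K0 (frontier K0))
    {ι' : Type} [Finite ι'] (Ks : ι' → Q) (hS : frontier K0 = ⋃ i, K (Ks i))
    (hcl : ∀ i, IsClosed (K (Ks i)))
    (hx : ∀ i, ∃ y, Ex Cc (Pc Φ.F) (Ks i) y ∧ y a = 0)
    (circ : ∀ j, Cc.fam j ≠ a → (Pc Φ.F (Cc.fam j) ∩ Pc Φ.F a).Nonempty →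
      Nonempty (PLEquiv (sph 2) {x | x ∈ frontier K0 ∧ g.G j x = 1/2}))
    (sq : ∀ q : Gx (Pc Φ.F) (mm hfin), q.free.ncard = 2 → q.hi a = 0 →
      ∃ x, {w | w ∈ frontier K0 ∧ gG (Tq (bc (F := Φ.F)) (mm hfin)) (merge hfin g) w =
        (gr Φ hLa hne hm).b (.gr q)} = {x})
    {κf : ℝ} (hκf : 0 < κf ∧ κf < 1) {hX : Prop} (hnX : ¬ hX) (t Rr : E3 → E3) :
    Chart hLa hne hm q0 κf g a K0 hX t Rr := by
  obtain ⟨Th, h1, h2⟩ := At_241.exists_Th_mesh hLa (by simp) (foam4 Φ hLa) hm H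
    (gridOK (foam4 Φ hLa) (quads4 Φ) hne hm) hO hℓ q0 hK0 Ks hS hcl hx circ sq
    hκf le_rfl zero_lt_one
  refine ⟨Th, fun h => absurd h hnX, h1, fun x hx => ?_⟩
  obtain ⟨a1, a2, a3⟩ := h2 x hx
  exact ⟨a1.symm, a2.symm, fun t ht => (a3 t ht).symm⟩

end Crest.Agent.R096.Gia_537
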