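import Crest.Agent.R096.At9_241
import Crest.Agent.R096.Arc17_778
import Crest.Agent.R096.Gia5_537

/-!
# R096 (row 96), GIANTS-INST, part 6 (helper537): a sheet meets the boundary of every core next to
its family

* `exists_fc_succ`, **`exists_four`** : two bricks of a box foam in dimension 3 which meet lie in a
  set of four bricks with a common point;
* `exists_gx` : a square of the grid at the zero colour `a`, free in `c` at a given level;
* **`exists_piece`** : one point of the fibre of every square on `S` (241's `sq_sto`) gives a piece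
  of every sheet of a family next to `a` on `S` (hypothesis `hne` of 778's `circ_giant`).
-/

set_option autoImplicit false
set_option linter.unusedSectionVars false
set_option linter.unusedVariables false
set_option linter.style.longLine false

open Set Filter Topology Metric Module

namespace Crest.Agent.R096.Gia_537

open Crest.Agent.R096.Ce_537 (PLOn PLEquiv cube sph IsBall Cplx)
open Crest.Agent.R096.Bd_416 Crest.Agent.R096.Mg_441
open Crest.Agent.R096.Brk1_582 Crest.Agent.R096.Brk2_582 Crest.Agent.R096.Brk3_582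
open Crest.Agent.R096.Bsp_628
open Crest.Agent.R096.Grd_714
open Crest.Agent.R096.Xp_537 hiding bc
open Crest.Agent.R096.At_241 (OnS IsSh mid_free piece_of_half)

section foam

variable {κ : Type*} [Fintype κ] [Nonempty κ] {La : Set (κ → ℝ)} {F : Set (Bx κ)} {δ κ0 : ℝ}

/-- a face of a box foam with at most `card κ` bricks is not a point: one more brick -/
theorem exists_fc_succ (BF : BoxFoam La F δ κ0) (hLa : IsOpen La) {A : Set F} (hA : A.Nonempty)
    (hn : A.ncard ≤ Fintype.card κ) (hx : (fc (Pc F) A).Nonempty) :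
    ∃ c, c ∉ A ∧ (fc (Pc F) (insert c A)).Nonempty := by
  classical
  have Fo := foam BF hLa
  have fA : A.Finite := Fo.finite_of_fc hA hx
  have hd := deg_count BF fA hA hx
  obtain ⟨k, hk⟩ : ∃ k, loA A k ≠ hiA A k := by
    by_contra hcon
    push Not at hcon
    have h1 : {k | loA A k = hiA A k} = univ := Set.eq_univ_of_forall hcon
    rw [h1, Set.ncard_univ, Nat.card_eq_fintype_card] at hd
    omega
  obtain ⟨x, hx'⟩ := hx
  have hle : ∀ i, loA A i ≤ hiA A i := fun i =>
    ((mem_fc_iff fA hA).1 hx' i).1.trans ((mem_fc_iff fA hA).1 hx' i).2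
  have hlt : loA A k < hiA A k := lt_of_le_of_ne (hle k) hk
  have hy : hiA A ∈ fc (Pc F) A := (mem_fc_iff fA hA).2 fun i => ⟨hle i, le_rfl⟩
  obtain ⟨c0, hc0⟩ := hA
  have hyL : hiA A ∈ La := Fo.sub c0 (mem_fc.1 hy c0 hc0)
  have hsub : A ⊆ act (Pc F) (hiA A) := mem_fc'.1 hy
  by_cases he : act (Pc F) (hiA A) = A
  · exfalso
    have hne : hiA A ≠ bc (act (Pc F) (hiA A)) := by
      rw [he]
      intro h
      have h1 := congrFun h k
      unfold bc at h1
      linarith
    obtain ⟨t, ht, h1⟩ := Fo.exit _ hyL hne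
    rw [he] at h1
    have h2 := ((mem_fc_iff fA ⟨c0, hc0⟩).1 h1 k).2
    have h3 : (bc A + t • (hiA A - bc A)) k = bc A k + t * (hiA A k - bc A k) := rfl
    rw [h3] at h2
    have h4 : bc A k < hiA A k := by unfold bc; linarith
    nlinarith
  · obtain ⟨c, hc, hcA⟩ := Set.not_subset.1 (fun h => he (Subset.antisymm h hsub))
    refine ⟨c, hcA, hiA A, mem_fc.2 ?_⟩
    rintro c' (rfl | hc')
    · exact hc
    · exact mem_fc.1 hy c' hc'

/-- **two bricks which meet are two of four bricks with a common point** -/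
theorem exists_four (BF : BoxFoam La F δ κ0) (hLa : IsOpen La) (h3 : Fintype.card κ = 3)
    {a c : F} (hac : a ≠ c) (h : (Pc F c ∩ Pc F a).Nonempty) :
    ∃ A : Set F, a ∈ A ∧ c ∈ A ∧ A.ncard = 4 ∧ (fc (Pc F) A).Nonempty := by
  have h0 : (fc (Pc F) {a, c}).Nonempty := by
    obtain ⟨y, h1, h2⟩ := h
    refine ⟨y, mem_fc.2 ?_⟩
    rintro x (rfl | hx)
    · exact h2
    · rw [mem_singleton_iff.1 hx]; exact h1
  have n0 : ({a, c} : Set F).ncard = 2 := Set.ncard_pair hac
  obtain ⟨d, hd, h1⟩ := exists_fc_succ BF hLa ⟨a, Or.inl rfl⟩ (by rw [n0, h3]; norm_num) h0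
  have n1 : (insert d ({a, c} : Set F)).ncard = 3 := by
    rw [Set.ncard_insert_of_notMem hd (Set.toFinite _), n0]
  obtain ⟨e, he, h2⟩ := exists_fc_succ BF hLa ⟨d, Or.inl rfl⟩ (by rw [n1, h3]) h1
  refine ⟨insert e (insert d {a, c}), ?_, ?_, ?_, h2⟩
  · exact Or.inr (Or.inr (Or.inl rfl))
  · exact Or.inr (Or.inr (Or.inr rfl))
  · rw [Set.ncard_insert_of_notMem he (Set.toFinite _), n1]

end foam

section gx

variable {Fam : Type} {E : Type*} [NormedAddCommGroup E] [NormedSpace ℝ E] {Pf : Fam → Set E}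
  {m : Fam → ℕ}

/-- a square at the zero colour `a`, free in `c` at the level `n` -/
theorem exists_gx (hm : ∀ a, 0 < m a) {a c : Fam} (hac : a ≠ c) {A : Set Fam} (ha : a ∈ A)
    (hc : c ∈ A) (h4 : A.ncard = 4) (hA : (fc Pf A).Nonempty) {n : ℕ} (hn : n < m c) :
    ∃ q : Gx Pf m, q.free.ncard = 2 ∧ c ∈ q.free ∧ q.lo c = n ∧ q.hi a = 0 := by
  classical
  have fA : A.Finite := Set.finite_of_ncard_ne_zero (by rw [h4]; norm_num)
  have h2 : (A \ {a, c}).ncard = 2 := by
    rw [Set.ncard_sdiff (by
      rintro x (rfl | hx)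
      · exact ha
      · rw [mem_singleton_iff.1 hx]; exact hc) (Set.toFinite _), h4, Set.ncard_pair hac]
  obtain ⟨d, e, hde, hs⟩ := Set.ncard_eq_two.1 h2
  have hd : d ∈ A \ {a, c} := by rw [hs]; exact Or.inl rfl
  have he : e ∈ A \ {a, c} := by rw [hs]; exact Or.inr rfl
  have hda : d ≠ a := fun h => hd.2 (Or.inl h)
  have hdc : d ≠ c := fun h => hd.2 (Or.inr h)
  have hea : e ≠ a := fun h => he.2 (Or.inl h)
  have hec : e ≠ c := fun h => he.2 (Or.inr h)
  let q : Gx Pf m :=
    { lo := fun x => if x = c then n else if x = d ∨ x = a ∨ x = e then 0 else m x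
      hi := fun x => if x = c then n + 1 else if x = d then 1 else if x = a ∨ x = e then 0 else m x
      le := fun x => by
        show (if x = c then n else if x = d ∨ x = a ∨ x = e then 0 else m x) ≤
          (if x = c then n + 1 else if x = d then 1 else if x = a ∨ x = e then 0 else m x)
        by_cases h1 : x = c
        · rw [if_pos h1, if_pos h1]; omega
        · rw [if_neg h1, if_neg h1]
          by_cases h2 : x = d
          · rw [if_pos (Or.inl h2), if_pos h2]; omega
          · rw [if_neg h2]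
            by_cases h3 : x = a ∨ x = e
            · rw [if_pos (Or.inr h3), if_pos h3]
            · rw [if_neg h3, if_neg (by tauto)]
      le1 := fun x => by
        show (if x = c then n + 1 else if x = d then 1 else if x = a ∨ x = e then 0 else m x) ≤
          (if x = c then n else if x = d ∨ x = a ∨ x = e then 0 else m x) + 1
        by_cases h1 : x = c
        · rw [if_pos h1, if_pos h1]
        · rw [if_neg h1, if_neg h1]
          by_cases h2 : x = d
          · rw [if_pos (Or.inl h2), if_pos h2]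
          · rw [if_neg h2]
            by_cases h3 : x = a ∨ x = e
            · rw [if_pos (Or.inr h3), if_pos h3]; omega
            · rw [if_neg h3, if_neg (by tauto)]; omega
      him := fun x => by
        show (if x = c then n + 1 else if x = d then 1 else if x = a ∨ x = e then 0 else m x) ≤ m x
        by_cases h1 : x = c
        · rw [if_pos h1, h1]; exact hn
        · rw [if_neg h1]
          by_cases h2 : x = d
          · rw [if_pos h2]; exact hm x
          · rw [if_neg h2]
            by_cases h3 : x = a ∨ x = e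
            · rw [if_pos h3]; exact Nat.zero_le _
            · rw [if_neg h3]
      two := ⟨a, e, hea.symm, by
        show (if a = c then n + 1 else if a = d then 1 else if a = a ∨ a = e then 0 else m a) = 0
        rw [if_neg hac, if_neg hda.symm, if_pos (Or.inl rfl)], by
        show (if e = c then n + 1 else if e = d then 1 else if e = a ∨ e = e then 0 else m e) = 0
        rw [if_neg hec, if_neg hde.symm, if_pos (Or.inr rfl)]⟩
      face := by
        refine hA.mono (fc_anti ?_)
        intro x hx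
        have hx' : (if x = c then n else if x = d ∨ x = a ∨ x = e then 0 else m x) < m x := hx
        by_cases h1 : x = c
        · rw [h1]; exact hc
        · rw [if_neg h1] at hx'
          by_cases h2 : x = d ∨ x = a ∨ x = e
          · rcases h2 with rfl | rfl | rfl
            · exact hd.1
            · exact ha
            · exact he.1
          · rw [if_neg h2] at hx'
            exact absurd hx' (lt_irrefl _) }
  have hfree : q.free = {c, d} := by
    ext x
    show (if x = c then n else if x = d ∨ x = a ∨ x = e then 0 else m x) <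
          (if x = c then n + 1 else if x = d then 1 else if x = a ∨ x = e then 0 else m x) ↔ _
    by_cases h1 : x = c
    · rw [if_pos h1, if_pos h1]
      exact ⟨fun _ => Or.inl h1, fun _ => Nat.lt_succ_self n⟩
    · rw [if_neg h1, if_neg h1]
      by_cases h2 : x = d
      · rw [if_pos (Or.inl h2), if_pos h2]
        exact ⟨fun _ => Or.inr h2, fun _ => Nat.one_pos⟩
      · rw [if_neg h2]
        constructor
        · intro h
          exfalso
          by_cases h3 : x = a ∨ x = e
          · rw [if_pos (Or.inr h3), if_pos h3] at h; exact lt_irrefl _ h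
          · rw [if_neg h3, if_neg (by tauto)] at h; exact lt_irrefl _ h
        · rintro (h | h)
          · exact absurd h h1
          · exact absurd h h2
  refine ⟨q, ?_, ?_, ?_, ?_⟩
  · rw [hfree, Set.ncard_pair hdc.symm]
  · rw [hfree]; exact Or.inl rfl
  · show (if c = c then n else _) = n
    rw [if_pos rfl]
  · show (if a = c then n + 1 else if a = d then 1 else if a = a ∨ a = e then 0 else m a) = 0
    rw [if_neg hac, if_neg hda.symm, if_pos (Or.inl rfl)]

end gx

section piece

variable {Q : Type} [PartialOrder Q] {dim : Q → ℕ} {J Fam : Type} {Cc : Cmb Q dim J Fam}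
variable {E' : Type*} [NormedAddCommGroup E'] [NormedSpace ℝ E']
variable {K : Q → Set E'} {g : Gd E' J} {P : ∀ q, Cc.I q → Set E'} {c : ∀ q, Cc.I q → E' → ℝ}
variable {E : Type*} [NormedAddCommGroup E] [NormedSpace ℝ E] [FiniteDimensional ℝ E]
  {Λ : Set E} {hfin : ∀ a, {j | Cc.fam j = a}.Finite} {Pf : Fam → Set E}
  {C : CC Λ (Cel Pf (Mg_441.mm hfin))} {T : (Fam → ℝ) → E} {co : E → Fam → ℝ} {G : E' → E}
  {S : Set E'} {ℓ : J → ℝ}

/-- **a sheet next to `a` has a point on `S`** -/
theorem exists_half_pt (H : Inv Cc K univ g P c) (OK : GridOK C T co) (hO : Ord Cc ℓ)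
    (hℓ : ∀ j j', j ≠ j' → Cc.fam j = Cc.fam j' → ℓ j ≠ ℓ j')
    (hm : ∀ a, 0 < Mg_441.mm hfin a) (h : OnS hfin Pf K g T (gG T (merge hfin g)) S) {a : Fam}
    (sq : ∀ q : Gx Pf (Mg_441.mm hfin), q.free.ncard = 2 → q.hi a = 0 →
      ∃ x, {w | w ∈ S ∧ gG T (merge hfin g) w = C.b (.gr q)} = {x})
    {j : J} (hj : Cc.fam j ≠ a)
    (h4 : ∃ A : Set Fam, a ∈ A ∧ Cc.fam j ∈ A ∧ A.ncard = 4 ∧ (fc Pf A).Nonempty) :
    ∃ z ∈ S, g.G j z = 1/2 := by
  obtain ⟨A, ha, hc, hA4, hA⟩ := h4
  have hn : num hfin ℓ j < Mg_441.mm hfin (Cc.fam j) := num_lt hfin ℓ j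
  obtain ⟨q, hq, hcf, hlo, hhi⟩ := exists_gx hm hj.symm ha hc hA4 hA hn
  obtain ⟨x, hx⟩ := sq q hq hhi
  have hxm : x ∈ {w | w ∈ S ∧ gG T (merge hfin g) w = C.b (.gr q)} := by rw [hx]; rfl
  refine ⟨x, hxm.1, ?_⟩
  have hsh : IsSh hfin ℓ q j := ⟨hcf, hlo.symm⟩
  exact (h.half_mid H hO hℓ hxm.1 hsh).1 ((h.fibre OK hxm.1 q).1 hxm.2 _)

/-- **a piece of the sheet on `S = ⋃ q ∈ B, K q`** -/
theorem exists_piece (H : Inv Cc K univ g P c) (OK : GridOK C T co) (hO : Ord Cc ℓ)
    (hℓ : ∀ j j', j ≠ j' → Cc.fam j = Cc.fam j' → ℓ j ≠ ℓ j')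
    (hm : ∀ a, 0 < Mg_441.mm hfin a) (h : OnS hfin Pf K g T (gG T (merge hfin g)) S) {a : Fam}
    (sq : ∀ q : Gx Pf (Mg_441.mm hfin), q.free.ncard = 2 → q.hi a = 0 →
      ∃ x, {w | w ∈ S ∧ gG T (merge hfin g) w = C.b (.gr q)} = {x})
    {j : J} (hj : Cc.fam j ≠ a)
    (h4 : ∃ A : Set Fam, a ∈ A ∧ Cc.fam j ∈ A ∧ A.ncard = 4 ∧ (fc Pf A).Nonempty)
    {B : Set Q} (hS : S = ⋃ q ∈ B, K q) : ∃ q ∈ B, ∃ x : Cc.I q, Cc.col q x = j := by
  obtain ⟨z, hz, hG⟩ := exists_half_pt H OK hO hℓ hm h sq hj h4
  rw [hS] at hz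
  obtain ⟨q, hq, hzq⟩ := mem_iUnion₂.1 hz
  obtain ⟨x, hx, -⟩ := piece_of_half H hzq hG
  exact ⟨q, hq, x, hx⟩

end piece

end Crest.Agent.R096.Gia_537
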