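import Crest.Agent.R096.Qdl1_662
import Crest.Agent.R096.Exa13_560
import Crest.Agent.R096.Gia6_537

/-!
# R096 (row 96), DOORS (helper334): the odd doors at the tiny giants

Data: the refined tiling `T3` with the remaining cores `KK`, zones `Zo c` = tiles of `T` near the
tiny core `c`, quads `qdT` of 662.  `hdoor` = the hypothesis `hdoor` of 298's `cl_sheet`;
`giants_in` = (T2) for the state after CUT.
-/

set_option autoImplicit false
set_option linter.unusedSectionVars false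
set_option linter.unusedVariables false
set_option linter.style.longLine false

open Set Relation Module Topology Filter Metric

namespace Crest.Agent.R096.Hdr_334

open Crest.Agent.R096.Brk1_582 Crest.Agent.R096.Brk2_582 Crest.Agent.R096.Brk3_582
open Crest.Agent.R096.Brk5_582 Crest.Agent.R096.Bsp_628
open Crest.Agent.R096.St_147 Crest.Agent.R096.Seq_213 Crest.Agent.R096.Seq_213.GSt
open Crest.Agent.R096.Lm_117 Crest.Agent.R096.Ac_117 Crest.Agent.R096.Msh_715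
open Crest.Agent.R096.Agl5_543 Crest.Agent.R096.Init_543 Crest.Agent.R096.At_241
open Crest.Agent.R096.SkC1_961 (E3 Hom3 FoamD)
open Crest.Agent.R096.Mbf_337 (KJ sb)
open Crest.Agent.R096.Frn_337 (Ti cti Lay)
open Crest.Agent.R096.SkB_662 Crest.Agent.R096.Sgd_298 Crest.Agent.R096.Qdl_662
  Crest.Agent.R096.Dinv_106

section mesh

variable {E : Type} [NormedAddCommGroup E] [NormedSpace ℝ E] [FiniteDimensional ℝ E]
variable {Om : Set E} {ι κ : Type} {T : Tiling Om ι} {Kc : κ → Set E} {h3 : finrank ℝ E = 3}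
  {hH : ∀ c, CoreH T (Kc c)} {hdis : ∀ c c', c ≠ c' → Disjoint (Kc c) (Kc c')}

/-- a point on a face lies in the tiles at the face -/
theorem side_tile {F : {F : C2 T // ¬ (((meshC T h3).side F).map (piK T Kc)).IsDiag}} {w : E}
    (hw : w ∈ (mK h3 hH hdis).On F) {p : ι} (hp : Sum.inl p ∈ (mK h3 hH hdis).side F) :
    w ∈ P (T.H p) ∧ ∀ k, ¬ P (T.H p) ⊆ Kc k := by
  have h1 : Sum.inl p ∈ ((meshC T h3).side F.1).map (piK T Kc) := hp
  rw [mem_map_iff] at h1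
  obtain ⟨q', h2, h4⟩ := h1
  obtain ⟨rfl, h5⟩ := piK_inl.1 h4
  exact ⟨C2.sub_tile (h3 := h3) h2 hw.1, h5⟩

/-- a point on a face lies in the cores at the face -/
theorem side_core {F : {F : C2 T // ¬ (((meshC T h3).side F).map (piK T Kc)).IsDiag}} {w : E}
    (hw : w ∈ (mK h3 hH hdis).On F) {c : κ} (hc : Sum.inr c ∈ (mK h3 hH hdis).side F) :
    w ∈ Kc c := by
  have h1 : Sum.inr c ∈ ((meshC T h3).side F.1).map (piK T Kc) := hc
  rw [mem_map_iff] at h1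
  obtain ⟨q', h2, h4⟩ := h1
  exact (piK_inr hdis).1 h4 (C2.sub_tile (h3 := h3) h2 hw.1)

end mesh

/-! ### two quads at a pair of touching bricks -/

section quads

variable {δ κ0 R c0 : ℝ} {La : Set E3} (Φ : FoamD δ κ0 R c0 La)

/-- a pair of touching bricks has two quads -/
theorem exists_two_quads (hLa : IsOpen La) {a c : Φ.F} (hac : a ≠ c)
    (h : (Pc Φ.F c ∩ Pc Φ.F a).Nonempty) :
    ∃ k k' : QK (Pc Φ.F), k ≠ k' ∧ (a ∈ k.B ∧ c ∈ k.Z) ∧ a ∈ k'.B ∧ c ∈ k'.Z := by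
  classical
  obtain ⟨A, ha, hc, h4, hne⟩ := Gia_537.exists_four Φ.bf hLa (by simp) hac h
  have hfin : A.Finite := Set.finite_of_ncard_ne_zero (by omega)
  have h2 : (A \ {a, c}).ncard = 2 := by
    have h5 := Set.ncard_sdiff_add_ncard_of_subset (s := ({a, c} : Set Φ.F)) (t := A)
      (by rintro x (rfl | hx)
          · exact ha
          · rw [mem_singleton_iff.1 hx]; exact hc) hfin
    rw [Set.ncard_pair hac] at h5
    omega
  obtain ⟨b, d, hbd, hA⟩ := Set.ncard_eq_two.1 h2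
  have hb : b ∈ A \ {a, c} := by rw [hA]; exact Or.inl rfl
  have hd : d ∈ A \ {a, c} := by rw [hA]; exact Or.inr rfl
  have hba : b ≠ a := fun e => hb.2 (Or.inl e)
  have hbc : b ≠ c := fun e => hb.2 (Or.inr e)
  have hda : d ≠ a := fun e => hd.2 (Or.inl e)
  have hdc : d ≠ c := fun e => hd.2 (Or.inr e)
  have hmk : ∀ x y, x ∈ A → y ∈ A → x ≠ a → x ≠ c → y ≠ a → y ≠ c → x ≠ y →
      ∃ k : QK (Pc Φ.F), k.B = {a, x} ∧ k.Z = {c, y} := by
    intro x y hx hy hxa hxc hya hyc hxy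
    refine ⟨⟨{a, x}, {c, y}, Set.ncard_pair hxa.symm, Set.ncard_pair hyc.symm, ?_, ?_⟩, rfl, rfl⟩
    · rw [Set.disjoint_left]
      rintro z (rfl | rfl) (h1 | h1)
      · exact hac h1
      · exact hya h1.symm
      · exact hxc h1
      · exact hxy h1
    · refine hne.mono (fc_anti ?_)
      rintro z ((rfl | rfl) | (rfl | rfl))
      · exact ha
      · exact hx
      · exact hc
      · exact hy
  obtain ⟨k, k1, k2⟩ := hmk b d hb.1 hd.1 hba hbc hda hdc hbd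
  obtain ⟨k', l1, l2⟩ := hmk d b hd.1 hb.1 hda hdc hba hbc hbd.symm
  refine ⟨k, k', ?_, ⟨by rw [k1]; exact Or.inl rfl, by rw [k2]; exact Or.inl rfl⟩,
    by rw [l1]; exact Or.inl rfl, by rw [l2]; exact Or.inl rfl⟩
  intro e
  have h5 : b ∈ k'.B := by rw [← e, k1]; exact Or.inr rfl
  rw [l1] at h5
  rcases h5 with h5 | h5
  · exact hba h5
  · exact hbd h5

end quads

/-! ### the machine -/

section mach

variable {δ κ0 R c0 : ℝ} {La Om : Set E3} {ι ι3 : Type} {Φ : FoamD δ κ0 R c0 La}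
  {T : Tiling Om ι} {T3 : Tiling Om ι3} {f g : E3 → E3} {X : Set Φ.F} {J0 Jt V : Φ.F → Set ι}
  {ct : Φ.F → ι} {ct' : Φ.F → ι} {r₀ : Φ.F → ℝ} {KK : Ti X → Set E3} {c3 : ι → ι3} {til : ι3 → ι}
  {ε s₁ : ℝ}

/-- the cells of `meshK T3 KK` outside the remaining cores over the tiles `Zo c` -/
def ZC (T3 : Tiling Om ι3) (KK : Ti X → Set E3) (til : ι3 → ι) (Zo : Ti X → Set ι) (c : Ti X) :
    Set (ι3 ⊕ Ti X) :=
  Sum.inl '' {p | (∀ k, ¬ P (T3.H p) ⊆ KK k) ∧ til p ∈ Zo c}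

/-- the cells in which the family `a` may be changed: the zones of the tiny cores with `nb c` -/
def ActD (T3 : Tiling Om ι3) (KK : Ti X → Set E3) (til : ι3 → ι) (Zo : Ti X → Set ι)
    (nb : Ti X → Prop) : Set (ι3 ⊕ Ti X) := ⋃ c ∈ {c | nb c}, ZC T3 KK til Zo c

variable {Zo : Ti X → Set ι}

theorem inl_ZC {c : Ti X} {p : ι3} : (Sum.inl p : ι3 ⊕ Ti X) ∈ ZC T3 KK til Zo c ↔
    (∀ k, ¬ P (T3.H p) ⊆ KK k) ∧ til p ∈ Zo c := by
  constructor
  · rintro ⟨p', hp, he⟩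
    obtain rfl : p' = p := Sum.inl.inj he
    exact hp
  · intro h; exact ⟨p, h, rfl⟩

theorem inr_ZC {c c' : Ti X} : (Sum.inr c' : ι3 ⊕ Ti X) ∉ ZC T3 KK til Zo c := by
  rintro ⟨p, -, he⟩
  cases he

theorem mem_ActD {nb : Ti X → Prop} {q : ι3 ⊕ Ti X} : q ∈ ActD T3 KK til Zo nb ↔
    ∃ c, nb c ∧ q ∈ ZC T3 KK til Zo c := by
  unfold ActD
  simp only [mem_iUnion₂, mem_ofPred_eq, exists_prop]

theorem inr_ActD {nb : Ti X → Prop} {c : Ti X} : (Sum.inr c : ι3 ⊕ Ti X) ∉ ActD T3 KK til Zo nb := by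
  intro h
  obtain ⟨c', -, h'⟩ := mem_ActD.1 h
  exact inr_ZC h'

/-- **facts on the zones** -/
structure Zon (Φ : FoamD δ κ0 R c0 La) (T : Tiling Om ι) (T3 : Tiling Om ι3) (f : E3 → E3)
    (X : Set Φ.F) (J0 : Φ.F → Set ι) (KK : Ti X → Set E3) (til : ι3 → ι) (Zo : Ti X → Set ι) :
    Prop where
  /-- the cells of the zones are not near the holes -/
  kor : ∀ c p, (∀ k, ¬ P (T3.H p) ⊆ KK k) → til p ∈ Zo c → til p ∉ KorJ Φ J0
  /-- the zone of `c` is mapped into the open brick -/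
  ins : ∀ c : Ti X, ∀ i ∈ Zo c, ∀ x ∈ P (T.H i), ∀ k, c.1.1.lo k < f x k ∧ f x k < c.1.1.hi k
  insK : ∀ c : Ti X, ∀ x ∈ KK c, ∀ k, c.1.1.lo k < f x k ∧ f x k < c.1.1.hi k
  /-- the cells at the remaining core are in its zone -/
  adj : ∀ c p, (∀ k, ¬ P (T3.H p) ⊆ KK k) → (P (T3.H p) ∩ KK c).Nonempty → til p ∈ Zo c

theorem brick_disj (Φ : FoamD δ κ0 R c0 La) {c c' : Φ.F} {y : E3}
    (h : ∀ k, c.1.lo k < y k ∧ y k < c.1.hi k) (h' : ∀ k, c'.1.lo k < y k ∧ y k < c'.1.hi k) :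
    c = c' := by
  by_contra hne
  obtain ⟨k, hk⟩ := Φ.bf.inv.disj c.2 c'.2 (Φ.bf.pos _ c.2) (Φ.bf.pos _ c'.2)
    (fun h => hne (Subtype.ext h))
  have h1 := h k
  have h2 := h' k
  rcases hk with hk | hk <;> linarith [h1.1, h1.2, h2.1, h2.2]

variable {hH : ∀ k, CoreH T3 (KK k)} {hdis : ∀ k k', k ≠ k' → Disjoint (KK k) (KK k')}
  {J C : Type} {fam : J → C} {s : GSt (mK fr3 hH hdis) fam}

/-- (B) for the points of the name `n`: near the levels in `[s', 1 - s']` of the family `a` -/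
def Pos (T : Tiling Om ι) (f : E3 → E3) (J0 : Φ.F → Set ι) (til : ι3 → ι)
    (s : GSt (mK fr3 hH hdis) fam) (n : J) (a : Φ.F) (s' : ℝ) : Prop :=
  ∀ w ∈ s.P, s.lab w = n → ∀ p, (∀ k, ¬ P (T3.H p) ⊆ KK k) → w ∈ P (T3.H p) →
    til p ∉ KorJ Φ J0 → ∃ x ∈ P (T.H (til p)), Φ.lev a (f x) ∈ Icc s' (1 - s')

/-- the region of the quad `k`: active cells of the zone of `c` with a point of the name `n'` -/
def RD (s : GSt (mK fr3 hH hdis) fam) (til : ι3 → ι) (Zo : Ti X → Set ι)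
    (A : Set (ι3 ⊕ Ti X)) (c : Ti X) (n' : J) : Set (ι3 ⊕ Ti X) :=
  {x | x ∈ ZC T3 KK til Zo c ∧ x ∈ A ∧
    ∃ F y, x ∈ (mK fr3 hH hdis).side F ∧ s.At F y ∧ s.lab y = n'}

variable {hsub : ∀ p, P (T3.H p) ⊆ P (T.H (til p))} {hLa : IsOpen La}
  {hR : InitR Φ T f g J0 ct' r₀}
  {hM : Mesh0 T (Pc Φ.F) (bc (F := Φ.F)) (RF Φ r₀) f (KorJ Φ J0) ε} {hε : ε < s₁} {hε1 : ε < 1}

theorem pair_B {k : QK (Pc Φ.F)} {a b : Φ.F} (ha : a ∈ k.B) (hb : b ∈ k.B) (hab : a ≠ b) {e : Φ.F}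
    (he : e ∈ k.B) : e = a ∨ e = b := by
  have h1 : ({a, b} : Set Φ.F) = k.B := by
    refine Set.eq_of_subset_of_ncard_le ?_ ?_ (Set.finite_of_ncard_ne_zero (by rw [k.cB]; omega))
    · rintro x (rfl | rfl)
      · exact ha
      · exact hb
    · rw [k.cB, Set.ncard_pair hab]
  rw [← h1] at he
  exact he

/-- **a cell of the zone outside the region has no points of both families on a common face with
the region** -/
theorem door_bd (hZ : Zon Φ T T3 f X J0 KK til Zo) {s' : ℝ} (hs' : s₁ + ε ≤ s') {n n' : J}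
    {a b : Φ.F} {k : QK (Pc Φ.F)} (ha : a ∈ k.B) (hb : b ∈ k.B) (hab : a ≠ b)
    (Pn : Pos T f J0 til s n a s') (Pn' : Pos T f J0 til s n' b s') {c : Ti X} {q : ι3 ⊕ Ti X}
    (hq : q ∈ insert (Sum.inr c) (ZC T3 KK til Zo c))
    (hqR : q ∉ RD s til Zo ((qdT til hsub KK hLa hR hM hε hε1).Act k) c n')
    (hqc : q ≠ Sum.inr c) {F : {F : C2 T3 // ¬ (((meshC T3 fr3).side F).map (piK T3 KK)).IsDiag}}
    {w x : E3} (hqF : q ∈ (mK fr3 hH hdis).side F)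
    (hRF : ∃ q' ∈ (mK fr3 hH hdis).side F,
      q' ∈ RD s til Zo ((qdT til hsub KK hLa hR hM hε hε1).Act k) c n')
    (hw : s.At F w) (hwl : s.lab w = n) (hx : s.At F x) (hxl : s.lab x = n') : False := by
  rcases hq with rfl | hq
  · exact hqc rfl
  rcases q with p | c'
  swap
  · exact inr_ZC hq
  obtain ⟨h1, h2⟩ := inl_ZC.1 hq
  refine hqR ⟨hq, ?_, F, x, hqF, hx, hxl⟩
  have hK := hZ.kor c p h1 h2
  obtain ⟨hwp, -⟩ := side_tile hw.2 hqF
  obtain ⟨hxp, -⟩ := side_tile hx.2 hqF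
  obtain ⟨q', hq'F, hq'R⟩ := hRF
  rcases q' with p' | c'
  swap
  · exact absurd hq'R.1 inr_ZC
  obtain ⟨hwp', -⟩ := side_tile hw.2 hq'F
  have h4 := actP k p' hq'R.2.1 (til p') (hsub p') w (hsub p' hwp')
  refine inl_act.2 ⟨act_of_vals hM hs' hK (hsub p hwp) (fun e he => ?_) (fun e he => ?_), h1⟩
  · rcases pair_B ha hb hab he with rfl | rfl
    · obtain ⟨y, hy, h5⟩ := Pn w hw.1 hwl p h1 hwp hK
      exact ⟨y, hy, by rw [va_lev hLa hR hK hy]; exact h5⟩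
    · obtain ⟨y, hy, h5⟩ := Pn' x hx.1 hxl p h1 hxp hK
      exact ⟨y, hy, by rw [va_lev hLa hR hK hy]; exact h5⟩
  · rw [va_lev hLa hR hK (hsub p hwp)]
    exact h4.2 e he

/-- **the outer cells of the zone** -/
theorem door_out (hZ : Zon Φ T T3 f X J0 KK til Zo) {n' : J} {k : QK (Pc Φ.F)} {c : Ti X}
    {q : ι3 ⊕ Ti X} (hq : q ∉ insert (Sum.inr c) (ZC T3 KK til Zo c))
    {F : {F : C2 T3 // ¬ (((meshC T3 fr3).side F).map (piK T3 KK)).IsDiag}} {w : E3}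
    (hqF : q ∈ (mK fr3 hH hdis).side F)
    (hRF : ∃ q' ∈ (mK fr3 hH hdis).side F,
      q' ∈ RD s til Zo ((qdT til hsub KK hLa hR hM hε hε1).Act k) c n')
    (hw : w ∈ (mK fr3 hH hdis).On F) :
    (∀ c1, q ≠ Sum.inr c1) ∧ (∀ c1, q ∉ ZC T3 KK til Zo c1) ∧
      ∀ k', k' ≠ k → q ∉ (qdT til hsub KK hLa hR hM hε hε1).Act k' := by
  obtain ⟨q', hq'F, hq'R⟩ := hRF
  rcases q' with p' | c'
  swap
  · exact absurd hq'R.1 inr_ZC
  obtain ⟨g1, g2⟩ := inl_ZC.1 hq'R.1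
  obtain ⟨hwp', -⟩ := side_tile hw hq'F
  have hin := hZ.ins c (til p') g2 w (hsub p' hwp')
  refine ⟨?_, ?_, ?_⟩
  · rintro c1 rfl
    have h1 := hZ.insK c1 w (side_core hw hqF)
    have h2 : c = c1 := Subtype.ext (brick_disj Φ hin h1)
    exact hq (Or.inl (by rw [h2]))
  · intro c1 h1
    rcases q with p | c'
    swap
    · exact inr_ZC h1
    obtain ⟨h2, h4⟩ := inl_ZC.1 h1
    obtain ⟨hwp, -⟩ := side_tile hw hqF
    have h5 := hZ.ins c1 (til p) h4 w (hsub p hwp)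
    obtain rfl : c = c1 := Subtype.ext (brick_disj Φ hin h5)
    exact hq (Or.inr h1)
  · intro k' hk' h1
    rcases q with p | c'
    swap
    · exact inr_act h1
    obtain ⟨hwp, -⟩ := side_tile hw hqF
    exact hk' (quad_unique hR.hm (foam4 Φ hLa) (retF Φ hLa hR.pos hR.le_one) hM hε hε1
      (inl_act.1 h1).1 (inl_act.1 hq'R.2.1).1 (hsub p hwp) (hsub p' hwp'))

/-- **the odd door into the region** -/
theorem odd_door (hZ : Zon Φ T T3 f X J0 KK til Zo) {n n' : J} (hne : n ≠ n') {k : QK (Pc Φ.F)}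
    {c : Ti X}
    (h2 : Two s ((qdT til hsub KK hLa hR hM hε hε1).Act k) {Sum.inr c} n n') :
    ∃ F₀ w₀ x₀, OddDoor s n n' (Sum.inr c)
      (RD s til Zo ((qdT til hsub KK hLa hR hM hε hε1).Act k) c n') F₀ w₀ x₀ := by
  obtain ⟨F₀, w₀, x₀, D⟩ := Exa_560.oddDoor_of_two hne h2
  refine ⟨F₀, w₀, x₀, ⟨D.side, ?_, D.aw, D.lw, D.ax, D.lx, D.lace, ?_⟩⟩
  · obtain ⟨q, hqF, hqA⟩ := D.reg
    rcases q with p | c'
    swap
    · exact absurd hqA inr_act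
    obtain ⟨hxp, hpK⟩ := side_tile D.ax.2 hqF
    exact ⟨Sum.inl p, hqF, inl_ZC.2 ⟨hpK, hZ.adj c p hpK ⟨x₀, hxp, side_core D.ax.2 D.side⟩⟩, hqA,
      F₀, x₀, hqF, D.ax, D.lx⟩
  · intro F w x hF hRF
    obtain ⟨q, hqF, hqR⟩ := hRF
    exact D.uniq F w x hF ⟨q, hqF, hqR.2.1⟩

end mach

end Crest.Agent.R096.Hdr_334
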