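import Crest.Agent.R096.Pb1_416
import Crest.Agent.R096.Hdr1_334

/-!
# R096 (row 96), DOORS_final (helper416): joint 16, positions of the families in the state with layers

`pos_S2` : 334's `Pos` for every sheet of `s₂` with the sharp margin `μ / 2 - Cn κ1`.
-/

set_option autoImplicit false
set_option linter.unusedSectionVars false
set_option linter.unusedVariables false
set_option linter.style.longLine false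

open Set Topology Filter Metric Module Relation
open scoped Classical

namespace Crest.Agent.R096.Dfn_416

open Crest.Agent.R096.Msh_715 Crest.Agent.R096.Coh_184 Crest.Agent.R096.Lab_184
  Crest.Agent.R096.Main_4 Crest.Agent.R096.Agl5_543
  Crest.Agent.R096.Seq_213 Crest.Agent.R096.St_147 Crest.Agent.R096.Door_501
  Crest.Agent.R096.Twr_438 Crest.Agent.R096.Exa_560
  Crest.Agent.R096.Ess3_95 Crest.Agent.R096.Ess4_95 Crest.Agent.R096.Ac_117 Crest.Agent.R096.Lm_117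
  Crest.Agent.R096.Dfi_539 Crest.Agent.R096.Dfi_471 Crest.Agent.R096.Dfo_539
  Crest.Agent.R096.Sla_184 Crest.Agent.R096.Gm_298 Crest.Agent.R096.Rop_441 Crest.Agent.R096.Frk_441
  Crest.Agent.R096.Brk1_582 Crest.Agent.R096.Brk2_582 Crest.Agent.R096.Brk3_582
  Crest.Agent.R096.Brk5_582 Crest.Agent.R096.Bsp_628 Crest.Agent.R096.Init_543
  Crest.Agent.R096.Lv4_471
open Crest.Agent.R096.Mbf_337 (KJ Tiny Cores sb)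
open Crest.Agent.R096.SkC1_961 (E3 FoamD Hom3)
open Crest.Agent.R096.Frn_337 (Ti)
open Crest.Agent.R096.Frs_662 (slC)

variable {δ κ0 R c0 : ℝ} {La Om : Set E3} {ι : Type} {Φ : FoamD δ κ0 R c0 La} {T : Tiling Om ι}
  {f g : E3 → E3} {κ1 κ2 μ : ℝ} {X : Set Φ.F} {J0 J V : Φ.F → Set ι}
  {ct ct' : Φ.F → ι} {A : Φ.F → E3 ≃ᵃ[ℝ] E3} {lam : Φ.F → ℝ} {z : Φ.F → E3}
  {θ : Φ.F → E3 → E3} {φ : Φ.F → E3 → ℝ} {r₀ : Φ.F → ℝ}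
  {L : Φ.F → Finset ℝ} [Nonempty (JJ Φ L)] {hG : GF Φ r₀ T f L} {bp : JJ Φ L → E3}
  {Mo : Type} {co : Mo → Ti X}

variable [Nonempty (JJ Φ L ⊕ Mo)]
  {sB : GSt (meshC T fr3) (Sum.map (fun j : JJ Φ L => j.1) (id : Mo → Mo))}
  {r : JJ Φ L ⊕ Mo → E3} {Sf : JJ Φ L ⊕ Mo → Set E3} {nb : Ti X → Φ.F ⊕ Mo → Prop}

/-- **the sheets in the state with layers**, sharp margin -/
theorem lev_S2 (hLa : IsOpen La) (hδ : 0 < δ) (hR0 : 0 < R) (hκ1 : 0 < κ1) (hμ0 : 0 < μ)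
    (hμ1 : μ ≤ 1 / 2) (hR : InitR Φ T f g J0 ct' r₀)
    (hC : Cores Φ T f κ1 κ2 X J0 J V ct A lam z θ φ)
    (hm : ∀ c, ∀ t ∈ L c, μ ≤ t ∧ t ≤ 1 - μ)
    {n : Ti X → ℕ} {hn : ∀ c, 0 < n c}
    (hB : BarS hG bp V co sB)
    {v0 v1 : ∀ c, Φ.F ⊕ Mo → VxK T (slC hLa hC n hn).K c} {u : Ti X → Φ.F ⊕ Mo → E3 → ℝ}
    {Al Bl : Ti X → Φ.F ⊕ Mo → ℝ}
    {Lx : ∀ c, Φ.F ⊕ Mo → Lev T (frontier ((slC hLa hC n hn).K c)) (JJ Φ L ⊕ Mo)}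
    {Tw : Twrs ((slC hLa hC n hn).sh fr3) (slC hLa hC n hn).n
      (outK (slC hLa hC n hn).hH (slC hLa hC n hn).dis sB r)} {l0 : E3 → JJ Φ L ⊕ Mo}
    (Dn : DIn (slC hLa hC n hn).hH sB r Sf nb v0 v1 u Al Bl)
    (lo : LevOut (Kc := (slC hLa hC n hn).K) sB nb u Al Bl Lx)
    (tt : TwOut (slC hLa hC n hn) fr3 sB r v0 v1 Lx Tw)
    (hnb : ∀ c a, nb c (Sum.inl a) → a ∈ nbr Φ c.1)
    (hu : ∀ c a x, u c (Sum.inl a) x = sb Φ (θ c.1 x) a)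
    (hA : ∀ c a, μ / 2 ≤ Al c (Sum.inl a)) (hB1 : ∀ c a, Bl c (Sum.inl a) ≤ 1 - μ / 2)
    (hv0 : ∀ c a, nb c (Sum.inl a) → sb Φ (θ c.1 (v0 c (Sum.inl a)).1) a ≤ μ / 2)
    (hv1 : ∀ c a, nb c (Sum.inl a) → 1 - μ / 2 ≤ sb Φ (θ c.1 (v1 c (Sum.inl a)).1) a)
    (hn1 : (3 * Cn δ R + 1) * κ1 < μ / 2) {j : JJ Φ L} {w : E3}
    (hw : w ∈ (s2 (slC hLa hC n hn) fr3 Tw l0).P)
    (hl : (s2 (slC hLa hC n hn) fr3 Tw l0).lab w = Sum.inl j)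
    {p : T.RIdx (slC hLa hC n hn).HH} (hp : w ∈ P ((slC hLa hC n hn).T3.H p)) :
    ∃ x ∈ P (T.H p.tile), μ / 2 - Cn δ R * κ1 ≤ Φ.lev j.1 (f x) ∧
      Φ.lev j.1 (f x) ≤ 1 - (μ / 2 - Cn δ R * κ1) := by
  have hCn := Cn_nonneg hδ hR0
  have hCκ : 0 ≤ Cn δ R * κ1 := mul_nonneg hCn hκ1.le
  have e1 : (3 * Cn δ R + 1) * κ1 = 3 * (Cn δ R * κ1) + κ1 := by ring
  have hκ : Cn δ R * κ1 < 1 := by linarith
  have htr : ∀ w ∈ sB.P, ∀ a, Sum.map (fun j : JJ Φ L => j.1) (id : Mo → Mo) (sB.lab w) = Sum.inl a →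
      μ ≤ Φ.lev a (f w) ∧ Φ.lev a (f w) ≤ 1 - μ := by
    intro w hw a ha
    rcases hl : sB.lab w with j | m
    · rw [hl] at ha
      have h0 : j.1 = a := Sum.inl.inj ha
      obtain ⟨h1, h2, h4⟩ := hB.mem hLa hR hw hl
      rw [← h0, h4]
      exact hm j.1 j.2.1 j.2.2
    · rw [hl] at ha
      cases ha
  have key := lev2 (l0 := l0) (σ := μ / 2 - Cn δ R * κ1) (e := Cn δ R * κ1) Dn lo tt
    (fun a => ∃ a', a = Sum.inl a') (Sum.elim (fun a x => Φ.lev a (f x)) fun _ _ => 0)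
    (w := w) (p := p) ?_ ?_ ?_ ?_ hw ?_ hp
  · rw [hl] at key
    exact key
  · rintro w' hw' ⟨a', ha'⟩
    rw [ha']
    obtain ⟨h1, h2⟩ := htr w' hw' a' ha'
    show _ ≤ Φ.lev a' (f w') ∧ Φ.lev a' (f w') ≤ _
    constructor <;> linarith
  · rintro c a hnn ⟨a', rfl⟩ x hx
    show |u c (Sum.inl a') x - Φ.lev a' (f x)| ≤ _
    rw [hu]
    exact tiny_near hLa hδ hR0 hκ (hC.tiny c.1 c.2) hx a'
  · rintro c a hnn ⟨a', rfl⟩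
    exact ⟨by linarith [hA c a'], by linarith [hB1 c a']⟩
  · rintro c a hnn ⟨a', rfl⟩ i v hv
    have h := tiny_rgnI (κ := Ti X) (cf := Subtype.val) (J := fun c => J c.1)
      (J0 := fun c => J0 c.1) (V := fun c => V c.1) (θ := fun c => θ c.1)
      (φ := fun c => φ c.1) (k := c) (a := a') (a' := Sum.inl a') hLa hδ hR0 hκ1 hμ0 hμ1 hn1
      (fun c => hC.tiny c.1 c.2) lo (hu c a') (hnb c a' hnn).1 (hA c a') (hB1 c a')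
      (hv0 c a' hnn) (hv1 c a' hnn) (fun w hw hl => htr w hw a' hl) hv
    show _ ≤ Φ.lev a' (f v.1) ∧ Φ.lev a' (f v.1) ≤ _
    exact ⟨by linarith [h.2.2.1], by linarith [h.2.2.2]⟩
  · rw [hl]
    exact ⟨_, rfl⟩

/-- **334's `Pos` for the sheets of `s₂`** -/
theorem pos_S2 (hLa : IsOpen La) (hδ : 0 < δ) (hR0 : 0 < R) (hκ1 : 0 < κ1) (hμ0 : 0 < μ)
    (hμ1 : μ ≤ 1 / 2) (hR : InitR Φ T f g J0 ct' r₀)
    (hC : Cores Φ T f κ1 κ2 X J0 J V ct A lam z θ φ)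
    (hm : ∀ c, ∀ t ∈ L c, μ ≤ t ∧ t ≤ 1 - μ)
    {n : Ti X → ℕ} {hn : ∀ c, 0 < n c}
    (hB : BarS hG bp V co sB)
    {v0 v1 : ∀ c, Φ.F ⊕ Mo → VxK T (slC hLa hC n hn).K c} {u : Ti X → Φ.F ⊕ Mo → E3 → ℝ}
    {Al Bl : Ti X → Φ.F ⊕ Mo → ℝ}
    {Lx : ∀ c, Φ.F ⊕ Mo → Lev T (frontier ((slC hLa hC n hn).K c)) (JJ Φ L ⊕ Mo)}
    {Tw : Twrs ((slC hLa hC n hn).sh fr3) (slC hLa hC n hn).n
      (outK (slC hLa hC n hn).hH (slC hLa hC n hn).dis sB r)} {l0 : E3 → JJ Φ L ⊕ Mo}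
    (Dn : DIn (slC hLa hC n hn).hH sB r Sf nb v0 v1 u Al Bl)
    (lo : LevOut (Kc := (slC hLa hC n hn).K) sB nb u Al Bl Lx)
    (tt : TwOut (slC hLa hC n hn) fr3 sB r v0 v1 Lx Tw)
    (hnb : ∀ c a, nb c (Sum.inl a) → a ∈ nbr Φ c.1)
    (hu : ∀ c a x, u c (Sum.inl a) x = sb Φ (θ c.1 x) a)
    (hA : ∀ c a, μ / 2 ≤ Al c (Sum.inl a)) (hB1 : ∀ c a, Bl c (Sum.inl a) ≤ 1 - μ / 2)
    (hv0 : ∀ c a, nb c (Sum.inl a) → sb Φ (θ c.1 (v0 c (Sum.inl a)).1) a ≤ μ / 2)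
    (hv1 : ∀ c a, nb c (Sum.inl a) → 1 - μ / 2 ≤ sb Φ (θ c.1 (v1 c (Sum.inl a)).1) a)
    (hn1 : (3 * Cn δ R + 1) * κ1 < μ / 2) {s' : ℝ} (hs' : s' ≤ μ / 2 - Cn δ R * κ1) (j : JJ Φ L) :
    Hdr_334.Pos (hH := (Lay_316.lay_sla hLa hC n hn).core)
      (hdis := (Lay_316.lay_sla hLa hC n hn).disj) T f J0 (fun p => p.tile)
      (s2 (slC hLa hC n hn) fr3 Tw l0) (Sum.inl j) j.1 s' := by
  intro w hw hl p hpK hwp hKor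
  obtain ⟨x, hx, g1, g2⟩ := lev_S2 hLa hδ hR0 hκ1 hμ0 hμ1 hR hC hm hB Dn lo tt hnb hu hA hB1 hv0 hv1
    hn1 hw hl hwp
  exact ⟨x, hx, by linarith, by linarith⟩

end Crest.Agent.R096.Dfn_416
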