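import Crest.Agent.R096.Sde4_422
import Crest.Agent.R096.Pb2_416

/-!
# R096 (row 96), DOORS, NE1 (helper543): **G3 of helper778's #12223**, tiles near a tiny core on which
the family of the barrier has low level carry no point of this family

* `pat_lev`, `qv_lev` : the levels of the pattern points and of the moved vertices of a family;
* `afree_out` : no point of the family `m.am` on the faces of the tile `q`;
* `afree_in`  : no pattern point and no moved vertex of the tower of `m.am` on an edge of the sphere of a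
  core which lies in the tile `q`.
-/

set_option autoImplicit false
set_option linter.unusedSectionVars false
set_option linter.unusedVariables false
set_option linter.style.longLine false

open Set Topology Filter Metric Module Relation
open scoped Classical

namespace Crest.Agent.R096.Afr_543

open Crest.Agent.R096.Msh_715 Crest.Agent.R096.Agl5_543 Crest.Agent.R096.St_147
  Crest.Agent.R096.Seq_213 Crest.Agent.R096.Door_501 Crest.Agent.R096.Sla_184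
  Crest.Agent.R096.Twr_438 Crest.Agent.R096.Exa_560 Crest.Agent.R096.Ess3_95
  Crest.Agent.R096.Ess4_95 Crest.Agent.R096.Dfi_539 Crest.Agent.R096.Dfi_471
  Crest.Agent.R096.Lv4_471
open Crest.Agent.R096.Brk1_582 Crest.Agent.R096.Brk2_582 Crest.Agent.R096.Brk3_582
  Crest.Agent.R096.Brk5_582 Crest.Agent.R096.Bsp_628 Crest.Agent.R096.Init_543
  Crest.Agent.R096.Bar_106 Crest.Agent.R096.Dib_438
  Crest.Agent.R096.Ess5_95 Crest.Agent.R096.Bgf_4 Crest.Agent.R096.Ebr1_95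
  Crest.Agent.R096.Ebr4_95 Crest.Agent.R096.Rop_441 Crest.Agent.R096.Nmd1_698
open Crest.Agent.R096.Mbf_337 (sb KJ Tiny gau Cores Fine)
open Crest.Agent.R096.SkC1_961 (E3 FoamD Hom3)
open Crest.Agent.R096.Frn_337 (Ti)
open Crest.Agent.R096.Frs_662 (slC)
open Crest.Agent.R096.Ess7_95 (KT Sh)
open Crest.Agent.R096.Dff_539 (vS)
open Crest.Agent.R096.Bmf_416 (coT)
open Crest.Agent.R096.Dfn_416 (BarS)
open Crest.Agent.R096.Dia_316 (nbT)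

variable {δ κ0 R c0 : ℝ} {La Om : Set E3} {ι : Type} {Φ : FoamD δ κ0 R c0 La} {T : Tiling Om ι}
  {f g : E3 → E3} {κ1 κ2 μ : ℝ} {X : Set Φ.F} {J0 J V : Φ.F → Set ι}
  {ct ct' : Φ.F → ι} {A : Φ.F → E3 ≃ᵃ[ℝ] E3} {lam : Φ.F → ℝ} {z : Φ.F → E3}
  {θ : Φ.F → E3 → E3} {φ : Φ.F → E3 → ℝ} {r₀ : Φ.F → ℝ}
  {L : Φ.F → Finset ℝ} [Nonempty (JJ Φ L)] {hG : GF Φ r₀ T f L} {bp : JJ Φ L → E3}
  {N' : BM Φ X → Set ℝ} {ρ1 ρ2 ρ3 ρ4 d : Φ.F → ℝ} {q₀ : BM Φ X → E3} {ε : BM Φ X → ℝ}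
  {bm : BM Φ X → E3} {hGB : GFB Φ r₀ T f L (lRc Φ X μ ρ1 ρ3 d) ε}
  {v0F v1F : ∀ c, Φ.F → VxK T (KT T J X) c} {v0B v1B : ∀ c, BM Φ X → VxK T (KT T J X) c}
  {hLa : IsOpen La} {hC : Cores Φ T f κ1 κ2 X J0 J V ct A lam z θ φ}
  {n : Ti X → ℕ} {hn : ∀ c, 0 < n c} {r : JJ Φ L ⊕ BM Φ X → E3}
  {Sf : JJ Φ L ⊕ BM Φ X → Set E3}
  {Lv : ∀ c, Φ.F ⊕ BM Φ X → Lev T (frontier ((slC hLa hC n hn).K c)) (JJ Φ L ⊕ BM Φ X)}
  {Tw : Twrs ((slC hLa hC n hn).sh fr3) (slC hLa hC n hn).n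
    (outK (slC hLa hC n hn).hH (slC hLa hC n hn).dis (stB hGB bp bm) r)}

/-- the levels of the points of the families in the state with barriers -/
theorem stB_lev (hI : InitR Φ T f g J0 ct' r₀) (hLa : IsOpen La)
    (barS : BarS hG bp V coT (stB hGB bp bm)) (hm : ∀ c, ∀ t ∈ L c, μ ≤ t ∧ t ≤ 1 - μ)
    {w : E3} (hw : w ∈ (stB hGB bp bm).P) {j : JJ Φ L} (hl : (stB hGB bp bm).lab w = Sum.inl j) :
    μ ≤ Φ.lev j.1 (f w) ∧ Φ.lev j.1 (f w) ≤ 1 - μ := by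
  obtain ⟨-, -, h⟩ := barS.mem hLa hI hw hl
  rw [h]
  exact hm j.1 j.2.1 j.2.2

/-- the same for the families of the names -/
theorem stB_lev' (hI : InitR Φ T f g J0 ct' r₀) (hLa : IsOpen La)
    (barS : BarS hG bp V coT (stB hGB bp bm)) (hm : ∀ c, ∀ t ∈ L c, μ ≤ t ∧ t ≤ 1 - μ)
    {w : E3} (hw : w ∈ (stB hGB bp bm).P) {a : Φ.F}
    (ha : Sum.map (fun j : JJ Φ L => j.1) (id : BM Φ X → BM Φ X) ((stB hGB bp bm).lab w) =
      Sum.inl a) :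
    μ ≤ Φ.lev a (f w) ∧ Φ.lev a (f w) ≤ 1 - μ := by
  rcases hl : (stB hGB bp bm).lab w with j | m
  · rw [hl] at ha
    have h0 : j.1 = a := Sum.inl.inj ha
    rw [← h0]
    exact stB_lev hI hLa barS hm hw hl
  · rw [hl] at ha
    cases ha

section s2

variable (N : NumD δ κ0 R c0 κ2 μ κ1)
  (bar : BarOut Φ T f κ1 μ X J0 J V θ hG bp N' ρ1 ρ2 ρ3 ρ4 d q₀ ε bm hGB v0B v1B)
  (D : DIn (slC hLa hC n hn).hH (stB hGB bp bm) r Sf (nbA Φ X) (vS v0F v0B) (vS v1F v1B)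
    (uA Φ hLa X θ) (AA Φ X μ κ1) (BA Φ X μ))
  (lo : LevOut (Kc := (slC hLa hC n hn).K) (stB hGB bp bm) (nbA Φ X) (uA Φ hLa X θ)
    (AA Φ X μ κ1) (BA Φ X μ) Lv)
  (tt : TwOut (slC hLa hC n hn) fr3 (stB hGB bp bm) r (vS v0F v0B) (vS v1F v1B) Lv Tw)
  (hI : InitR Φ T f g J0 ct' r₀) (barS : BarS hG bp V coT (stB hGB bp bm))
  (hm : ∀ c, ∀ t ∈ L c, μ ≤ t ∧ t ≤ 1 - μ)
include N D lo tt hI barS hm

/-- **the levels of the pattern points of a family** -/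
theorem pat_lev {k : Ti X} {a : Φ.F} {j : ℕ} {w : E3}
    (hw : w ∈ ((Tw.tw k (Sum.inl a)).pat j).P) :
    μ ≤ Φ.lev a (f w) ∧ Φ.lev a (f w) ≤ 1 - μ / 2 + Cn δ R * κ1 ∧
      w ∈ frontier (KJ T (J k.1)) := by
  have hκ : Cn δ R * κ1 < 1 := N.cn1
  obtain ⟨p1, p2, p3, p4, p5, p6⟩ := N.base
  rcases tt.fits k _ j w hw with ⟨g1, -, -⟩ | ⟨g1, -, -⟩
  · obtain ⟨k1, k2, k3⟩ := trc_P g1
    obtain ⟨h1, h2⟩ := stB_lev' hI hLa barS hm k1 k3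
    exact ⟨h1, by linarith, k2⟩
  · obtain ⟨k1, k2⟩ := exa_lab (Lv k _) g1
    have k4 := lo.win k _ _ k1
    have k5 : w ∈ frontier (KJ T (J k.1)) := ((mem_P (Lv k _)).1 g1).1
    have k6 := abs_le.1 (tiny_near hLa N.hδ N.hR hκ (hC.tiny k.1 k.2) k5 a)
    rw [← k2, lo.u k] at k4
    have k7 : 1 - μ + Cn δ R * κ1 < sb Φ (θ k.1 w) a := k4.1
    have k8 : sb Φ (θ k.1 w) a < 1 - μ / 2 := k4.2
    exact ⟨by linarith [k6.2], by linarith [k6.1], k5⟩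

/-- **the levels of the moved vertices of a family** -/
theorem qv_lev (hv0 : ∀ (c : Ti X) a, nbT Φ X c a →
      sb Φ (θ c.1 (v0F c a).1) a ≤ (2 * Cn δ R + 1) * κ1)
    (hv1 : ∀ (c : Ti X) a, nbT Φ X c a →
      1 - (2 * Cn δ R + 1) * κ1 ≤ sb Φ (θ c.1 (v1F c a).1) a)
    {k : Ti X} {a : Φ.F} {j : ℕ} {v : (slC hLa hC n hn).Vx k}
    (hv : v ∈ ((Tw.tw k (Sum.inl a)).mv j).Qv) :
    μ / 2 - Cn δ R * κ1 < Φ.lev a (f v.1) ∧ Φ.lev a (f v.1) < 1 - μ / 2 + Cn δ R * κ1 := by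
  have b1 := N.base
  have hnb : nbT Φ X k a := qv_nb (c := k) (a := Sum.inl a) (j := j) D tt hv
  have e1 : (3 * Cn δ R + 1) * κ1 = 3 * (Cn δ R * κ1) + κ1 := by ring
  have e2 : (2 * Cn δ R + 1) * κ1 = 2 * (Cn δ R * κ1) + κ1 := by ring
  have h0 := hv0 k a hnb
  have h1 := hv1 k a hnb
  rw [e2] at h0 h1
  obtain ⟨p1, p2, p3, p4, p5, p6⟩ := b1
  have h := tiny_rgnI (κ := Ti X) (cf := Subtype.val) (J := fun c => J c.1)
    (J0 := fun c => J0 c.1) (V := fun c => V c.1) (θ := fun c => θ c.1)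
    (φ := fun c => φ c.1) (k := k) (a := a) (a' := Sum.inl a) hLa N.hδ N.hR N.hκ N.hμ
    (by linarith) (by rw [e1]; linarith) (fun c => hC.tiny c.1 c.2) lo (fun _ => rfl) hnb.1
    (show μ / 2 ≤ 1 - μ + Cn δ R * κ1 by linarith) (show 1 - μ / 2 ≤ 1 - μ / 2 from le_rfl)
    (show sb Φ (θ k.1 (v0F k a).1) a ≤ μ / 2 by linarith)
    (show 1 - μ / 2 ≤ sb Φ (θ k.1 (v1F k a).1) a by linarith)
    (fun w hw hl => stB_lev' hI hLa barS hm hw hl) (tt.rgn k _ j v hv)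
  exact ⟨h.2.2.1, h.2.2.2⟩

end s2

/-- the levels on a tile near the core of a barrier -/
theorem tile_lev (bar : BarOut Φ T f κ1 μ X J0 J V θ hG bp N' ρ1 ρ2 ρ3 ρ4 d q₀ ε bm hGB v0B v1B)
    (m : BM Φ X) {q : ι} {x y : E3} (hx : x ∈ P (T.H q)) (h1 : ρ1 m.co ≤ ga Φ m.co (f x))
    (h2 : ga Φ m.co (f x) ≤ ρ4 m.co) (hy : y ∈ P (T.H q)) (a : Φ.F) :
    |Φ.lev a (f x) - Φ.lev a (f y)| ≤ κ1 := by
  obtain ⟨g1, g2⟩ := bar.rm m.co m.co_notMem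
  exact ((g2.tile_osc hx h1 h2 hy).2.2 a).trans g1

/-- **G3 (i)**: no point of the family of the barrier on the faces of a tile near the core on which
this family has a level near `0` or `1` -/
theorem afree_out' (N : NumD δ κ0 R c0 κ2 μ κ1)
    (bar : BarOut Φ T f κ1 μ X J0 J V θ hG bp N' ρ1 ρ2 ρ3 ρ4 d q₀ ε bm hGB v0B v1B)
    (hI : InitR Φ T f g J0 ct' r₀) (hLa : IsOpen La)
    (barS : BarS hG bp V coT (stB hGB bp bm)) (hm : ∀ c, ∀ t ∈ L c, μ ≤ t ∧ t ≤ 1 - μ)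
    {m : BM Φ X} {q : ι} {x : E3} (hx : x ∈ P (T.H q)) (h1 : ρ1 m.co ≤ ga Φ m.co (f x))
    (h2 : ga Φ m.co (f x) ≤ ρ4 m.co) {α : ℝ} (hα : α ≤ 15 * μ / 32)
    (ha : Φ.lev m.am (f x) ≤ α ∨ 1 - α ≤ Φ.lev m.am (f x)) (F : C2 T)
    (hF : q ∈ F.side fr3) {y : E3} (hy : y ∈ (stB hGB bp bm).P) (hyF : y ∈ F.On) {i : JJ Φ L}
    (hl : (stB hGB bp bm).lab y = Sum.inl i) : i.1 ≠ m.am := by
  intro he
  have hyq : y ∈ P (T.H q) := by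
    have h3 : F.pt ∈ P (T.H q) := C2.mem_side.1 hF
    have h4 := hyF.1
    rw [F.set_eq] at h4
    exact T.cc_sub_tile h3 h4
  have h3 := abs_le.1 (tile_lev bar m hx h1 h2 hyq m.am)
  have h4 := stB_lev hI hLa barS hm hy hl
  rw [he] at h4
  obtain ⟨p1, p2, p3, p4, p5, p6⟩ := N.base
  rcases ha with ha | ha
  · linarith [h3.1, h4.1]
  · linarith [h3.2, h4.2]

/-- **G3 (i)**, low end -/
theorem afree_out (N : NumD δ κ0 R c0 κ2 μ κ1)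
    (bar : BarOut Φ T f κ1 μ X J0 J V θ hG bp N' ρ1 ρ2 ρ3 ρ4 d q₀ ε bm hGB v0B v1B)
    (hI : InitR Φ T f g J0 ct' r₀) (hLa : IsOpen La)
    (barS : BarS hG bp V coT (stB hGB bp bm)) (hm : ∀ c, ∀ t ∈ L c, μ ≤ t ∧ t ≤ 1 - μ)
    {m : BM Φ X} {q : ι} {x : E3} (hx : x ∈ P (T.H q)) (h1 : ρ1 m.co ≤ ga Φ m.co (f x))
    (h2 : ga Φ m.co (f x) ≤ ρ4 m.co) (ha : Φ.lev m.am (f x) ≤ 3 * μ / 8) (F : C2 T)
    (hF : q ∈ F.side fr3) (y : E3) (hy : y ∈ (stB hGB bp bm).P) (hyF : y ∈ F.On) (i : JJ Φ L)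
    (hl : (stB hGB bp bm).lab y = Sum.inl i) : i.1 ≠ m.am :=
  afree_out' N bar hI hLa barS hm hx h1 h2 (α := 3 * μ / 8) (by linarith [N.hμ]) (Or.inl ha) F hF hy
    hyF hl

/-- **G3 (ii)**: no pattern point and no moved vertex of the family of the barrier on an edge of the
sphere of a core in a tile near the core of the barrier on which this family has a level near `0` or
`1` -/
theorem afree_in' (N : NumD δ κ0 R c0 κ2 μ κ1)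
    (bar : BarOut Φ T f κ1 μ X J0 J V θ hG bp N' ρ1 ρ2 ρ3 ρ4 d q₀ ε bm hGB v0B v1B)
    (D : DIn (slC hLa hC n hn).hH (stB hGB bp bm) r Sf (nbA Φ X) (vS v0F v0B) (vS v1F v1B)
      (uA Φ hLa X θ) (AA Φ X μ κ1) (BA Φ X μ))
    (lo : LevOut (Kc := (slC hLa hC n hn).K) (stB hGB bp bm) (nbA Φ X) (uA Φ hLa X θ)
      (AA Φ X μ κ1) (BA Φ X μ) Lv)
    (tt : TwOut (slC hLa hC n hn) fr3 (stB hGB bp bm) r (vS v0F v0B) (vS v1F v1B) Lv Tw)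
    (hI : InitR Φ T f g J0 ct' r₀) (barS : BarS hG bp V coT (stB hGB bp bm))
    (hm : ∀ c, ∀ t ∈ L c, μ ≤ t ∧ t ≤ 1 - μ)
    (hv0 : ∀ (c : Ti X) a, nbT Φ X c a →
      sb Φ (θ c.1 (v0F c a).1) a ≤ (2 * Cn δ R + 1) * κ1)
    (hv1 : ∀ (c : Ti X) a, nbT Φ X c a →
      1 - (2 * Cn δ R + 1) * κ1 ≤ sb Φ (θ c.1 (v1F c a).1) a)
    {m : BM Φ X} {q : ι} {x : E3} (hx : x ∈ P (T.H q)) (h1 : ρ1 m.co ≤ ga Φ m.co (f x))
    (h2 : ga Φ m.co (f x) ≤ ρ4 m.co) {α : ℝ} (hα : α ≤ 15 * μ / 32)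
    (ha : Φ.lev m.am (f x) ≤ α ∨ 1 - α ≤ Φ.lev m.am (f x)) (k : Ti X)
    (e : (slC hLa hC n hn).Ed k) (he : e.1.set ⊆ P (T.H q)) (j : ℕ) :
    (∀ j', ∀ w ∈ ((Tw.tw k (Sum.inl m.am)).pat j').P, w ∉ e.1.opn) ∧
      ∀ b, ((slC hLa hC n hn).sh fr3 k).en e b ∉ ((Tw.tw k (Sum.inl m.am)).mv j).Qv := by
  obtain ⟨p1, p2, p3, p4, p5, p6⟩ := N.base
  constructor
  · intro j' w hw hwe
    have h3 := abs_le.1 (tile_lev bar m hx h1 h2 (he (e.1.opn_sub hwe)) m.am)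
    obtain ⟨h4, h5, -⟩ := pat_lev N D lo tt hI barS hm hw
    rcases ha with ha | ha
    · linarith [h3.1]
    · linarith [h3.2]
  · intro b hb
    have h5 : (((slC hLa hC n hn).sh fr3 k).en e b).1 ∈ e.1.set := (endK_iff e _).1 ⟨b, rfl⟩
    have h3 := abs_le.1 (tile_lev bar m hx h1 h2 (he h5) m.am)
    have h4 := qv_lev N D lo tt hI barS hm hv0 hv1 hb
    rcases ha with ha | ha
    · linarith [h3.1, h4.1]
    · linarith [h3.2, h4.2]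

/-- **G3 (ii)**, low end -/
theorem afree_in (N : NumD δ κ0 R c0 κ2 μ κ1)
    (bar : BarOut Φ T f κ1 μ X J0 J V θ hG bp N' ρ1 ρ2 ρ3 ρ4 d q₀ ε bm hGB v0B v1B)
    (D : DIn (slC hLa hC n hn).hH (stB hGB bp bm) r Sf (nbA Φ X) (vS v0F v0B) (vS v1F v1B)
      (uA Φ hLa X θ) (AA Φ X μ κ1) (BA Φ X μ))
    (lo : LevOut (Kc := (slC hLa hC n hn).K) (stB hGB bp bm) (nbA Φ X) (uA Φ hLa X θ)
      (AA Φ X μ κ1) (BA Φ X μ) Lv)
    (tt : TwOut (slC hLa hC n hn) fr3 (stB hGB bp bm) r (vS v0F v0B) (vS v1F v1B) Lv Tw)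
    (hI : InitR Φ T f g J0 ct' r₀) (barS : BarS hG bp V coT (stB hGB bp bm))
    (hm : ∀ c, ∀ t ∈ L c, μ ≤ t ∧ t ≤ 1 - μ)
    (hv0 : ∀ (c : Ti X) a, nbT Φ X c a →
      sb Φ (θ c.1 (v0F c a).1) a ≤ (2 * Cn δ R + 1) * κ1)
    (hv1 : ∀ (c : Ti X) a, nbT Φ X c a →
      1 - (2 * Cn δ R + 1) * κ1 ≤ sb Φ (θ c.1 (v1F c a).1) a)
    {m : BM Φ X} {q : ι} {x : E3} (hx : x ∈ P (T.H q)) (h1 : ρ1 m.co ≤ ga Φ m.co (f x))
    (h2 : ga Φ m.co (f x) ≤ ρ4 m.co) (ha : Φ.lev m.am (f x) ≤ 3 * μ / 8) (k : Ti X)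
    (e : (slC hLa hC n hn).Ed k) (he : e.1.set ⊆ P (T.H q)) (j : ℕ) (hj : j < n k) :
    (∀ j' ≤ n k, ∀ w ∈ ((Tw.tw k (Sum.inl m.am)).pat j').P, w ∉ e.1.opn) ∧
      ∀ b, ((slC hLa hC n hn).sh fr3 k).en e b ∉ ((Tw.tw k (Sum.inl m.am)).mv j).Qv := by
  have h := afree_in' N bar D lo tt hI barS hm hv0 hv1 hx h1 h2 (α := 3 * μ / 8)
    (by linarith [N.hμ]) (Or.inl ha) k e he j
  exact ⟨fun j' _ => h.1 j', h.2⟩

end Crest.Agent.R096.Afr_543
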