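import Crest.Agent.R096.Lc1_451

/-!
# R096/Al1_63 (helper63, row 96, P2-ALEX, dimension 2, part 1)

Plane `ZMod 2` homology on the integer grid (index form): Poincare lemma, and the lemma
`no_diag`: a connected hole-free finite set of squares has no diagonal pattern at a vertex.
-/

set_option autoImplicit false

namespace Crest.Agent.R096.Al_63

open Crest.Agent.R096.Lc_451

/-- discrete primitive on `ℤ` with values in `ZMod 2` -/
theorem prim (h : ℤ → ZMod 2) : ∃ U : ℤ → ZMod 2, U 0 = 0 ∧ ∀ k, U k + U (k - 1) = h k := by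
  let Up : ℕ → ZMod 2 := fun n => ∑ i ∈ Finset.range n, h (i + 1)
  let Un : ℕ → ZMod 2 := fun n => ∑ i ∈ Finset.range n, h (-(i : ℤ))
  have two : ∀ a : ZMod 2, a + a = 0 := by decide
  refine ⟨fun k => if 0 ≤ k then Up k.toNat else Un (-k).toNat, by simp [Up], ?_⟩
  intro k
  rcases lt_trichotomy k 0 with hk | rfl | hk
  · obtain ⟨n, rfl⟩ : ∃ n : ℕ, k = -(n : ℤ) - 1 := ⟨(-k - 1).toNat, by omega⟩
    have h1 : ¬ (0 ≤ -(n : ℤ) - 1) := by omega
    have h2 : ¬ (0 ≤ -(n : ℤ) - 1 - 1) := by omega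
    have h3 : (-(-(n : ℤ) - 1)).toNat = n + 1 := by omega
    have h4 : (-(-(n : ℤ) - 1 - 1)).toNat = n + 1 + 1 := by omega
    simp only [if_neg h1, if_neg h2, h3, h4, Un]
    rw [Finset.sum_range_succ (n := n + 1), ← add_assoc, two, zero_add]
    congr 1
    push_cast
    ring
  · have h2 : ¬ (0 ≤ (0 : ℤ) - 1) := by omega
    simp only [if_neg h2, le_refl, if_true, Up, Un]
    simp
  · obtain ⟨n, rfl⟩ : ∃ n : ℕ, k = (n : ℤ) + 1 := ⟨(k - 1).toNat, by omega⟩
    have h1 : 0 ≤ (n : ℤ) + 1 := by omega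
    have h2 : 0 ≤ (n : ℤ) + 1 - 1 := by omega
    have h3 : ((n : ℤ) + 1).toNat = n + 1 := by omega
    have h4 : ((n : ℤ) + 1 - 1).toNat = n := by omega
    simp only [if_pos h1, if_pos h2, h3, h4, Up]
    rw [Finset.sum_range_succ (n := n), add_assoc, add_comm (h _), ← add_assoc, two, zero_add]

/-- boundary at the vertex `(i, j)` -/
def dv (fh fv : ℤ → ℤ → ZMod 2) (i j : ℤ) : ZMod 2 :=
  fh i j + fh (i - 1) j + fv i j + fv i (j - 1)

/-- Poincare lemma in the plane -/
theorem poin (fh fv : ℤ → ℤ → ZMod 2) (h : ∀ i j, dv fh fv i j = 0) :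
    ∃ u : ℤ → ℤ → ZMod 2, (∀ i j, u i j + u (i - 1) j = fv i j) ∧
      (∀ i j, u i j + u i (j - 1) = fh i j) := by
  have two : ∀ a : ZMod 2, a + a = 0 := by decide
  obtain ⟨a, _, ha⟩ := prim (fun i => fv i 0)
  choose b hb0 hb using fun i => prim (fun j => fh i j)
  refine ⟨fun i j => a i + b i j, ?_, ?_⟩
  · intro i
    have key : ∀ j, (a i + b i j) + (a (i - 1) + b (i - 1) j) = fv i j ↔
        (a i + b i (j - 1)) + (a (i - 1) + b (i - 1) (j - 1)) = fv i (j - 1) := by
      intro j
      have h1 := h i j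
      unfold dv at h1
      have h2 := hb i j
      have h3 := hb (i - 1) j
      have h4 : ((a i + b i j) + (a (i - 1) + b (i - 1) j)) + fv i j =
          ((a i + b i (j - 1)) + (a (i - 1) + b (i - 1) (j - 1))) + fv i (j - 1) := by
        rw [← h2, ← h3] at h1
        generalize b i j = x1 at *
        generalize b i (j - 1) = x2 at *
        generalize b (i - 1) j = x3 at *
        generalize b (i - 1) (j - 1) = x4 at *
        generalize fv i j = y1 at *
        generalize fv i (j - 1) = y2 at *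
        generalize a i = z1
        generalize a (i - 1) = z2
        clear h2 h3
        revert h1
        revert x1 x2 x3 x4 y1 y2 z1 z2
        decide
      generalize (a i + b i j) + (a (i - 1) + b (i - 1) j) = p at *
      generalize (a i + b i (j - 1)) + (a (i - 1) + b (i - 1) (j - 1)) = q at *
      generalize fv i j = r at *
      generalize fv i (j - 1) = s at *
      clear h1 h2 h3
      revert h4
      revert p q r s
      decide
    intro j
    induction j using Int.induction_on with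
    | zero => simp only [hb0, add_zero]; exact ha i
    | succ n ih =>
      rw [key]
      have : (n : ℤ) + 1 - 1 = n := by ring
      rw [this]; exact ih
    | pred n ih =>
      exact (key (-(n : ℤ))).1 ih
  · intro i j
    have := hb i j
    simp only
    rw [← this]
    generalize b i j = x
    generalize b i (j - 1) = y
    generalize a i = z
    revert x y z
    decide

section ND

variable (P : ℤ → ℤ → Prop)

/-- the vertex `w` can be joined to infinity along edges which are not interior to `P` and do not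
touch the origin -/
def GG (w : ℤ × ℤ) : Prop := ∃ fh fv : ℤ → ℤ → ZMod 2,
  (∀ i j, dv fh fv i j = if (i, j) = w then 1 else 0) ∧
  (∀ i j, P i j → P i (j - 1) → fh i j = 0) ∧ (∀ i j, P i j → P (i - 1) j → fv i j = 0) ∧
  fh 0 0 = 0 ∧ fh (-1) 0 = 0 ∧ fv 0 0 = 0 ∧ fv 0 (-1) = 0

variable {P}

theorem GG.step {w w' : ℤ × ℤ} (eh ev : ℤ → ℤ → ZMod 2)
    (he : ∀ i j, dv eh ev i j = (if (i, j) = w then 1 else 0) + (if (i, j) = w' then 1 else 0))
    (h1 : ∀ i j, P i j → P i (j - 1) → eh i j = 0) (h2 : ∀ i j, P i j → P (i - 1) j → ev i j = 0)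
    (h3 : eh 0 0 = 0) (h4 : eh (-1) 0 = 0) (h5 : ev 0 0 = 0) (h6 : ev 0 (-1) = 0)
    (h : GG P w) : GG P w' := by
  obtain ⟨fh, fv, g0, g1, g2, g3, g4, g5, g6⟩ := h
  refine ⟨fun i j => fh i j + eh i j, fun i j => fv i j + ev i j, ?_, ?_, ?_, ?_, ?_, ?_, ?_⟩
  · intro i j
    have a := g0 i j
    have b := he i j
    unfold dv at *
    have e : fh i j + eh i j + (fh (i - 1) j + eh (i - 1) j) + (fv i j + ev i j) +
        (fv i (j - 1) + ev i (j - 1)) =
        (fh i j + fh (i - 1) j + fv i j + fv i (j - 1)) +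
        (eh i j + eh (i - 1) j + ev i j + ev i (j - 1)) := by ring
    rw [e, a, b, ← add_assoc]
    have two : ∀ a : ZMod 2, a + a = 0 := by decide
    rw [two, zero_add]
  · intro i j p q; simp only [g1 i j p q, h1 i j p q, add_zero]
  · intro i j p q; simp only [g2 i j p q, h2 i j p q, add_zero]
  · simp only [g3, h3, add_zero]
  · simp only [g4, h4, add_zero]
  · simp only [g5, h5, add_zero]
  · simp only [g6, h6, add_zero]

theorem GG.moveh {i j : ℤ} (hal : ¬ (P i j ∧ P i (j - 1))) (h1 : (i, j) ≠ ((0, 0) : ℤ × ℤ))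
    (h2 : (i + 1, j) ≠ ((0, 0) : ℤ × ℤ)) : GG P (i, j) ↔ GG P (i + 1, j) := by
  have key : ∀ w w' : ℤ × ℤ, ((w = (i, j) ∧ w' = (i + 1, j)) ∨ (w' = (i, j) ∧ w = (i + 1, j))) →
      GG P w → GG P w' := by
    intro w w' hw
    refine GG.step (fun x y => if x = i ∧ y = j then 1 else 0) (fun _ _ => 0) ?_ ?_ ?_ ?_ ?_ ?_ ?_
    · intro x y
      unfold dv
      rcases hw with ⟨rfl, rfl⟩ | ⟨rfl, rfl⟩
      · simp only [Prod.mk.injEq, add_zero]
        by_cases hy : y = j
        · by_cases hx : x = i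
          · have : ¬ (x = i + 1) := by omega
            have h' : ¬ (x - 1 = i) := by omega
            simp [hx, hy]
          · by_cases hx' : x = i + 1
            · simp [hx', hy]
            · have h' : ¬ (x - 1 = i) := by omega
              simp [hx, hx', hy, h']
        · simp [hy]
      · simp only [Prod.mk.injEq, add_zero]
        by_cases hy : y = j
        · by_cases hx : x = i
          · have : ¬ (x = i + 1) := by omega
            have h' : ¬ (x - 1 = i) := by omega
            simp [hx, hy]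
          · by_cases hx' : x = i + 1
            · simp [hx', hy]
            · have h' : ¬ (x - 1 = i) := by omega
              simp [hx, hx', hy, h']
        · simp [hy]
    · intro x y p q
      by_cases hxy : x = i ∧ y = j
      · obtain ⟨rfl, rfl⟩ := hxy
        exact absurd ⟨p, q⟩ hal
      · simp [hxy]
    · intros; rfl
    · have : ¬ ((0 : ℤ) = i ∧ (0 : ℤ) = j) := by
        rintro ⟨rfl, rfl⟩; exact h1 rfl
      simp only [if_neg this]
    · have : ¬ ((-1 : ℤ) = i ∧ (0 : ℤ) = j) := by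
        rintro ⟨rfl, rfl⟩; exact h2 (by simp)
      simp only [if_neg this]
    · rfl
    · rfl
  exact ⟨key _ _ (Or.inl ⟨rfl, rfl⟩), key _ _ (Or.inr ⟨rfl, rfl⟩)⟩

theorem GG.movev {i j : ℤ} (hal : ¬ (P i j ∧ P (i - 1) j)) (h1 : (i, j) ≠ ((0, 0) : ℤ × ℤ))
    (h2 : (i, j + 1) ≠ ((0, 0) : ℤ × ℤ)) : GG P (i, j) ↔ GG P (i, j + 1) := by
  have key : ∀ w w' : ℤ × ℤ, ((w = (i, j) ∧ w' = (i, j + 1)) ∨ (w' = (i, j) ∧ w = (i, j + 1))) →
      GG P w → GG P w' := by
    intro w w' hw
    refine GG.step (fun _ _ => 0) (fun x y => if x = i ∧ y = j then 1 else 0) ?_ ?_ ?_ ?_ ?_ ?_ ?_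
    · intro x y
      unfold dv
      rcases hw with ⟨rfl, rfl⟩ | ⟨rfl, rfl⟩
      · simp only [Prod.mk.injEq, add_zero, zero_add]
        by_cases hx : x = i
        · by_cases hy : y = j
          · have : ¬ (y = j + 1) := by omega
            have h' : ¬ (y - 1 = j) := by omega
            simp [hx, hy]
          · by_cases hy' : y = j + 1
            · simp [hx, hy']
            · have h' : ¬ (y - 1 = j) := by omega
              simp [hx, hy, hy', h']
        · simp [hx]
      · simp only [Prod.mk.injEq, add_zero, zero_add]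
        by_cases hx : x = i
        · by_cases hy : y = j
          · have : ¬ (y = j + 1) := by omega
            have h' : ¬ (y - 1 = j) := by omega
            simp [hx, hy]
          · by_cases hy' : y = j + 1
            · simp [hx, hy']
            · have h' : ¬ (y - 1 = j) := by omega
              simp [hx, hy, hy', h']
        · simp [hx]
    · intros; rfl
    · intro x y p q
      by_cases hxy : x = i ∧ y = j
      · obtain ⟨rfl, rfl⟩ := hxy
        exact absurd ⟨p, q⟩ hal
      · simp [hxy]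
    · rfl
    · rfl
    · have : ¬ ((0 : ℤ) = i ∧ (0 : ℤ) = j) := by
        rintro ⟨rfl, rfl⟩; exact h1 rfl
      simp only [if_neg this]
    · have : ¬ ((0 : ℤ) = i ∧ (-1 : ℤ) = j) := by
        rintro ⟨rfl, rfl⟩; exact h2 (by simp)
      simp only [if_neg this]
  exact ⟨key _ _ (Or.inl ⟨rfl, rfl⟩), key _ _ (Or.inr ⟨rfl, rfl⟩)⟩

/-- all corners different from the origin of a square outside `P` are equivalent -/
theorem GG.square {i j : ℤ} (hP : ¬ P i j) {w w' : ℤ × ℤ}
    (hw : w = (i, j) ∨ w = (i + 1, j) ∨ w = (i, j + 1) ∨ w = (i + 1, j + 1))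
    (hw' : w' = (i, j) ∨ w' = (i + 1, j) ∨ w' = (i, j + 1) ∨ w' = (i + 1, j + 1))
    (h0 : w ≠ (0, 0)) (h0' : w' ≠ (0, 0)) : GG P w → GG P w' := by
  have bot : (i, j) ≠ ((0, 0) : ℤ × ℤ) → (i + 1, j) ≠ ((0, 0) : ℤ × ℤ) →
      (GG P (i, j) ↔ GG P (i + 1, j)) := GG.moveh (fun h => hP h.1)
  have top : (i, j + 1) ≠ ((0, 0) : ℤ × ℤ) → (i + 1, j + 1) ≠ ((0, 0) : ℤ × ℤ) →
      (GG P (i, j + 1) ↔ GG P (i + 1, j + 1)) := GG.moveh (fun h => hP (by
        have := h.2; rwa [show j + 1 - 1 = j by ring] at this))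
  have lef : (i, j) ≠ ((0, 0) : ℤ × ℤ) → (i, j + 1) ≠ ((0, 0) : ℤ × ℤ) →
      (GG P (i, j) ↔ GG P (i, j + 1)) := GG.movev (fun h => hP h.1)
  have rig : (i + 1, j) ≠ ((0, 0) : ℤ × ℤ) → (i + 1, j + 1) ≠ ((0, 0) : ℤ × ℤ) →
      (GG P (i + 1, j) ↔ GG P (i + 1, j + 1)) := GG.movev (fun h => hP (by
        have := h.2; rwa [show i + 1 - 1 = i by ring] at this))
  have e00 : (i, j) = ((0, 0) : ℤ × ℤ) ↔ i = 0 ∧ j = 0 := by simp
  have e10 : (i + 1, j) = ((0, 0) : ℤ × ℤ) ↔ i = -1 ∧ j = 0 := by
    simp; omega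
  have e01 : (i, j + 1) = ((0, 0) : ℤ × ℤ) ↔ i = 0 ∧ j = -1 := by
    simp; omega
  have e11 : (i + 1, j + 1) = ((0, 0) : ℤ × ℤ) ↔ i = -1 ∧ j = -1 := by
    simp; omega
  simp only [ne_eq, e00, e10, e01, e11] at bot top lef rig
  rcases hw with rfl | rfl | rfl | rfl <;> rcases hw' with rfl | rfl | rfl | rfl <;>
    simp only [ne_eq, e00, e10, e01, e11] at h0 h0' <;> intro h
  · exact h
  · exact (bot h0 h0').1 h
  · exact (lef h0 h0').1 h
  · by_cases hc : i = -1 ∧ j = 0
    · exact (top (by omega) h0').1 ((lef h0 (by omega)).1 h)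
    · exact (rig hc h0').1 ((bot h0 hc).1 h)
  · exact (bot h0' h0).2 h
  · exact h
  · by_cases hc : i = 0 ∧ j = 0
    · exact (top h0' (by omega)).2 ((rig h0 (by omega)).1 h)
    · exact (lef hc h0').1 ((bot hc h0).2 h)
  · exact (rig h0 h0').1 h
  · exact (lef h0' h0).2 h
  · by_cases hc : i = 0 ∧ j = 0
    · exact (rig h0' (by omega)).2 ((top h0 (by omega)).1 h)
    · exact (bot hc h0').1 ((lef hc h0).2 h)
  · exact h
  · exact (top h0 h0').1 h
  · by_cases hc : i = -1 ∧ j = 0
    · exact (lef h0' (by omega)).2 ((top (by omega) h0).2 h)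
    · exact (bot h0' hc).2 ((rig hc h0).2 h)
  · exact (rig h0' h0).2 h
  · exact (top h0' h0).2 h
  · exact h

theorem GG.right {N i0 j0 : ℤ} (hN : 0 ≤ N) (hP : ∀ i j, N < i → ¬ P i j) (hi : N < i0) :
    GG P (i0, j0) := by
  refine ⟨fun i j => if i0 ≤ i ∧ j = j0 then 1 else 0, fun _ _ => 0, ?_, ?_, ?_, ?_, ?_, rfl, rfl⟩
  · intro i j
    unfold dv
    simp only [Prod.mk.injEq, add_zero]
    by_cases hj : j = j0
    · rcases lt_trichotomy i i0 with h | h | h
      · have h1 : ¬ i0 ≤ i := by omega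
        have h2 : ¬ i0 ≤ i - 1 := by omega
        have h3 : ¬ i = i0 := by omega
        simp [hj, h1, h2, h3]
      · have h1 : i0 ≤ i := by omega
        have h2 : ¬ i0 ≤ i - 1 := by omega
        subst h
        simp [hj]
      · have h1 : i0 ≤ i := by omega
        have h2 : i0 ≤ i - 1 := by omega
        have h3 : ¬ i = i0 := by omega
        simp only [hj, h1, h2, h3, and_self, if_true, false_and, if_false]
        decide
    · simp [hj]
  · intro i j p _
    have : ¬ (i0 ≤ i ∧ j = j0) := fun h => hP i j (by omega) p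
    simp only [if_neg this]
  · intros; rfl
  · have : ¬ (i0 ≤ 0 ∧ 0 = j0) := by omega
    simp only [if_neg this]
  · have : ¬ (i0 ≤ -1 ∧ 0 = j0) := by omega
    simp only [if_neg this]

theorem GG.left {N i0 j0 : ℤ} (hN : 0 < N) (hP : ∀ i j, i < -N → ¬ P i j) (hi : i0 ≤ -N) :
    GG P (i0, j0) := by
  refine ⟨fun i j => if i < i0 ∧ j = j0 then 1 else 0, fun _ _ => 0, ?_, ?_, ?_, ?_, ?_, rfl, rfl⟩
  · intro i j
    unfold dv
    simp only [Prod.mk.injEq, add_zero]
    by_cases hj : j = j0
    · rcases lt_trichotomy i i0 with h | h | h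
      · have h2 : i - 1 < i0 := by omega
        have h3 : ¬ i = i0 := by omega
        simp only [hj, h, h2, h3, and_self, if_true, false_and, if_false]
        decide
      · have h2 : i - 1 < i0 := by omega
        subst h
        simp [hj]
      · have h1 : ¬ i < i0 := by omega
        have h2 : ¬ i - 1 < i0 := by omega
        have h3 : ¬ i = i0 := by omega
        simp [hj, h1, h2, h3]
    · simp [hj]
  · intro i j p _
    have : ¬ (i < i0 ∧ j = j0) := fun h => hP i j (by omega) p
    simp only [if_neg this]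
  · intros; rfl
  · have : ¬ (0 < i0 ∧ 0 = j0) := by omega
    simp only [if_neg this]
  · have : ¬ (-1 < i0 ∧ 0 = j0) := by omega
    simp only [if_neg this]

theorem GG.up {N i0 j0 : ℤ} (hN : 0 ≤ N) (hP : ∀ i j, N < j → ¬ P i j) (hj : N < j0) :
    GG P (i0, j0) := by
  refine ⟨fun _ _ => 0, fun i j => if j0 ≤ j ∧ i = i0 then 1 else 0, ?_, ?_, ?_, rfl, rfl, ?_, ?_⟩
  · intro i j
    unfold dv
    simp only [Prod.mk.injEq, add_zero, zero_add]
    by_cases hi : i = i0
    · rcases lt_trichotomy j j0 with h | h | h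
      · have h1 : ¬ j0 ≤ j := by omega
        have h2 : ¬ j0 ≤ j - 1 := by omega
        have h3 : ¬ j = j0 := by omega
        simp [hi, h1, h2, h3]
      · have h1 : j0 ≤ j := by omega
        have h2 : ¬ j0 ≤ j - 1 := by omega
        subst h
        simp [hi]
      · have h1 : j0 ≤ j := by omega
        have h2 : j0 ≤ j - 1 := by omega
        have h3 : ¬ j = j0 := by omega
        simp only [hi, h1, h2, h3, and_self, if_true, and_false, if_false]
        decide
    · simp [hi]
  · intros; rfl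
  · intro i j p _
    have : ¬ (j0 ≤ j ∧ i = i0) := fun h => hP i j (by omega) p
    simp only [if_neg this]
  · have : ¬ (j0 ≤ 0 ∧ 0 = i0) := by omega
    simp only [if_neg this]
  · have : ¬ (j0 ≤ -1 ∧ 0 = i0) := by omega
    simp only [if_neg this]

theorem GG.down {N i0 j0 : ℤ} (hN : 0 < N) (hP : ∀ i j, j < -N → ¬ P i j) (hj : j0 ≤ -N) :
    GG P (i0, j0) := by
  refine ⟨fun _ _ => 0, fun i j => if j < j0 ∧ i = i0 then 1 else 0, ?_, ?_, ?_, rfl, rfl, ?_, ?_⟩
  · intro i j
    unfold dv
    simp only [Prod.mk.injEq, add_zero, zero_add]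
    by_cases hi : i = i0
    · rcases lt_trichotomy j j0 with h | h | h
      · have h2 : j - 1 < j0 := by omega
        have h3 : ¬ j = j0 := by omega
        simp only [hi, h, h2, h3, and_self, if_true, and_false, if_false]
        decide
      · have h2 : j - 1 < j0 := by omega
        subst h
        simp [hi]
      · have h1 : ¬ j < j0 := by omega
        have h2 : ¬ j - 1 < j0 := by omega
        have h3 : ¬ j = j0 := by omega
        simp [hi, h1, h2, h3]
    · simp [hi]
  · intros; rfl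
  · intro i j p _
    have : ¬ (j < j0 ∧ i = i0) := fun h => hP i j (by omega) p
    simp only [if_neg this]
  · have : ¬ (0 < j0 ∧ 0 = i0) := by omega
    simp only [if_neg this]
  · have : ¬ (-1 < j0 ∧ 0 = i0) := by omega
    simp only [if_neg this]

end ND

/-- index of a square relative to the vertex `(a, b)` -/
def ix (a b i j : ℤ) : Pt := (a + 1 + 2 * i, b + 1 + 2 * j)

theorem nb_ix {a b i j : ℤ} {t : Pt} : nb (ix a b i j) t ↔
    t = ix a b (i + 1) j ∨ t = ix a b (i - 1) j ∨ t = ix a b i (j + 1) ∨ t = ix a b i (j - 1) := by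
  unfold nb ix
  simp only [Prod.ext_iff]
  constructor
  · rintro (h | h | h | h) <;> omega
  · rintro (h | h | h | h) <;> omega

theorem ix_inj {a b i j i' j' : ℤ} : ix a b i j = ix a b i' j' ↔ i = i' ∧ j = j' := by
  unfold ix
  rw [Prod.ext_iff]
  simp only
  omega

/-- a hole-free set: every corner of an outside square (except the vertex `(a, b)`) escapes -/
theorem HF.gg {A : Finset Pt} (hA : HF A) (a b : ℤ) {i j : ℤ} (hij : ix a b i j ∉ A) {w : ℤ × ℤ}
    (hw : w = (i, j) ∨ w = (i + 1, j) ∨ w = (i, j + 1) ∨ w = (i + 1, j + 1)) (h0 : w ≠ (0, 0)) :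
    GG (fun i j => ix a b i j ∈ A) w := by
  classical
  set P : ℤ → ℤ → Prop := fun i j => ix a b i j ∈ A with hPdef
  obtain ⟨N, hN, hPN⟩ : ∃ N : ℤ, 0 < N ∧ ∀ i j, P i j → (-N ≤ i ∧ i ≤ N) ∧ (-N ≤ j ∧ j ≤ N) := by
    refine ⟨1 + ∑ s ∈ A, (|s.1 - a| + |s.2 - b| + 1), ?_, ?_⟩
    · have : 0 ≤ ∑ s ∈ A, (|s.1 - a| + |s.2 - b| + 1) :=
        Finset.sum_nonneg fun i _ => by positivity
      linarith
    · intro i j h
      have h1 := Finset.single_le_sum (f := fun s : Pt => |s.1 - a| + |s.2 - b| + 1)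
        (fun i _ => by positivity) h
      simp only [ix] at h1
      have h2 := abs_nonneg (a + 1 + 2 * i - a)
      have h3 := abs_nonneg (b + 1 + 2 * j - b)
      have h4 := neg_abs_le (a + 1 + 2 * i - a)
      have h5 := neg_abs_le (b + 1 + 2 * j - b)
      have h6 := le_abs_self (a + 1 + 2 * i - a)
      have h7 := le_abs_self (b + 1 + 2 * j - b)
      refine ⟨⟨?_, ?_⟩, ?_, ?_⟩ <;> linarith
  have hright : ∀ i j, N < i → ¬ P i j := fun i j h p => by have := (hPN i j p).1.2; omega
  have hleft : ∀ i j, i < -N → ¬ P i j := fun i j h p => by have := (hPN i j p).1.1; omega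
  have hup : ∀ i j, N < j → ¬ P i j := fun i j h p => by have := (hPN i j p).2.2; omega
  have hdown : ∀ i j, j < -N → ¬ P i j := fun i j h p => by have := (hPN i j p).2.1; omega
  let good : ℤ → ℤ → Prop := fun i j => ∀ w : ℤ × ℤ,
    (w = (i, j) ∨ w = (i + 1, j) ∨ w = (i, j + 1) ∨ w = (i + 1, j + 1)) → w ≠ (0, 0) → GG P w
  let T : Finset Pt := ((Finset.Icc (-N) N ×ˢ Finset.Icc (-N) N).filter
    (fun q : ℤ × ℤ => ¬ P q.1 q.2 ∧ ¬ good q.1 q.2)).image (fun q => ix a b q.1 q.2)
  have hT : ∀ i j, ix a b i j ∈ T ↔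
      ((-N ≤ i ∧ i ≤ N) ∧ (-N ≤ j ∧ j ≤ N)) ∧ ¬ P i j ∧ ¬ good i j := by
    intro i j
    simp only [T, Finset.mem_image, Finset.mem_filter, Finset.mem_product, Finset.mem_Icc]
    constructor
    · rintro ⟨q, hq, h⟩
      obtain ⟨h1, h2⟩ := ix_inj.1 h
      rw [← h1, ← h2]; exact hq
    · intro h
      exact ⟨(i, j), h, rfl⟩
  -- squares outside the box are good
  have hbox : ∀ i j, ¬ ((-N ≤ i ∧ i ≤ N) ∧ (-N ≤ j ∧ j ≤ N)) → good i j := by
    intro i j h w hw _
    by_cases h1 : N < i
    · rcases hw with rfl | rfl | rfl | rfl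
      · exact GG.right hN.le hright h1
      · exact GG.right hN.le hright (by omega)
      · exact GG.right hN.le hright h1
      · exact GG.right hN.le hright (by omega)
    by_cases h2 : i < -N
    · rcases hw with rfl | rfl | rfl | rfl
      · exact GG.left hN hleft (by omega)
      · exact GG.left hN hleft (by omega)
      · exact GG.left hN hleft (by omega)
      · exact GG.left hN hleft (by omega)
    by_cases h3 : N < j
    · rcases hw with rfl | rfl | rfl | rfl
      · exact GG.up hN.le hup h3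
      · exact GG.up hN.le hup h3
      · exact GG.up hN.le hup (by omega)
      · exact GG.up hN.le hup (by omega)
    · have h4 : j < -N := by omega
      rcases hw with rfl | rfl | rfl | rfl
      · exact GG.down hN hdown (by omega)
      · exact GG.down hN hdown (by omega)
      · exact GG.down hN hdown (by omega)
      · exact GG.down hN hdown (by omega)
  -- transfer between adjacent outside squares
  have htrans : ∀ i j i' j', ¬ P i j → ((i' = i + 1 ∧ j' = j) ∨ (i' = i - 1 ∧ j' = j) ∨
      (i' = i ∧ j' = j + 1) ∨ (i' = i ∧ j' = j - 1)) → good i' j' → good i j := by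
    intro i j i' j' hP' hadj hg w hw hw0
    have pick : ∀ c c' : ℤ × ℤ, c ≠ c' →
        (c = (i, j) ∨ c = (i + 1, j) ∨ c = (i, j + 1) ∨ c = (i + 1, j + 1)) →
        (c = (i', j') ∨ c = (i' + 1, j') ∨ c = (i', j' + 1) ∨ c = (i' + 1, j' + 1)) →
        (c' = (i, j) ∨ c' = (i + 1, j) ∨ c' = (i, j + 1) ∨ c' = (i + 1, j + 1)) →
        (c' = (i', j') ∨ c' = (i' + 1, j') ∨ c' = (i', j' + 1) ∨ c' = (i' + 1, j' + 1)) →
        GG P w := by
      intro c c' hne h1 h2 h3 h4
      by_cases hc : c = (0, 0)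
      · have hc' : c' ≠ (0, 0) := fun h => hne (hc.trans h.symm)
        exact GG.square hP' h3 hw hc' hw0 (hg c' h4 hc')
      · exact GG.square hP' h1 hw hc hw0 (hg c h2 hc)
    rcases hadj with ⟨rfl, rfl⟩ | ⟨rfl, rfl⟩ | ⟨rfl, rfl⟩ | ⟨rfl, rfl⟩
    · exact pick (i + 1, j') (i + 1, j' + 1) (by simp) (by simp) (by simp) (by simp) (by simp)
    · exact pick (i, j') (i, j' + 1) (by simp) (by simp) (by simp) (by simp) (by simp)
    · exact pick (i', j + 1) (i' + 1, j + 1) (by simp) (by simp) (by simp) (by simp) (by simp)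
    · exact pick (i', j) (i' + 1, j) (by simp) (by simp) (by simp) (by simp) (by simp)
  have hTe : T = ∅ := by
    apply hA T
    · rw [Finset.disjoint_left]
      intro s hs hsA
      simp only [T, Finset.mem_image, Finset.mem_filter] at hs
      obtain ⟨q, hq, rfl⟩ := hs
      exact hq.2.1 hsA
    · intro s hs t hst
      have hs' := hs
      simp only [T, Finset.mem_image, Finset.mem_filter] at hs
      obtain ⟨q, _, rfl⟩ := hs
      have hq := (hT q.1 q.2).1 hs'
      by_contra hcon
      push Not at hcon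
      have main : ∀ i' j', t = ix a b i' j' → ((i' = q.1 + 1 ∧ j' = q.2) ∨ (i' = q.1 - 1 ∧ j' = q.2) ∨
          (i' = q.1 ∧ j' = q.2 + 1) ∨ (i' = q.1 ∧ j' = q.2 - 1)) → False := by
        intro i' j' ht hadj
        apply hq.2.2
        refine htrans q.1 q.2 i' j' hq.2.1 hadj ?_
        by_contra hg
        apply hcon.1
        rw [ht, hT]
        refine ⟨?_, ?_, hg⟩
        · by_contra hb; exact hg (hbox i' j' hb)
        · intro hp; apply hcon.2; rw [ht]; exact hp
      rcases nb_ix.1 hst with h | h | h | h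
      · exact main _ _ h (Or.inl ⟨rfl, rfl⟩)
      · exact main _ _ h (Or.inr (Or.inl ⟨rfl, rfl⟩))
      · exact main _ _ h (Or.inr (Or.inr (Or.inl ⟨rfl, rfl⟩)))
      · exact main _ _ h (Or.inr (Or.inr (Or.inr ⟨rfl, rfl⟩)))
  by_contra hcon
  have hgood : ¬ good i j := fun h => hcon (h w hw h0)
  have : ix a b i j ∈ T := by
    rw [hT]
    refine ⟨?_, hij, hgood⟩
    by_contra hb; exact hgood (hbox i j hb)
  rw [hTe] at this
  exact absurd this (Finset.notMem_empty _)

/-- **no diagonal pattern** in a connected hole-free set -/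
theorem no_diag {A : Finset Pt} (hA : HF A) (hC : Con A) {a b : ℤ} (h1 : (a + 1, b + 1) ∈ A)
    (h2 : (a - 1, b - 1) ∈ A) (h3 : (a - 1, b + 1) ∉ A) (h4 : (a + 1, b - 1) ∉ A) : False := by
  classical
  have e1 : ((a + 1, b + 1) : Pt) = ix a b 0 0 := by unfold ix; ext <;> simp
  have e2 : ((a - 1, b - 1) : Pt) = ix a b (-1) (-1) := by unfold ix; ext <;> simp <;> ring
  have e3 : ((a - 1, b + 1) : Pt) = ix a b (-1) 0 := by unfold ix; ext <;> simp; ring
  have e4 : ((a + 1, b - 1) : Pt) = ix a b 0 (-1) := by unfold ix; ext <;> simp; ring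
  rw [e1] at h1
  rw [e2] at h2
  rw [e3] at h3
  rw [e4] at h4
  obtain ⟨gh, gv, g0, g1, g2, g3, g4, g5, g6⟩ :=
    HF.gg hA a b h3 (w := (0, 1)) (by simp) (by simp)
  obtain ⟨kh, kv, k0, k1, k2, k3, k4, k5, k6⟩ :=
    HF.gg hA a b h4 (w := (1, 0)) (by simp) (by simp)
  have two : ∀ a : ZMod 2, a + a = 0 := by decide
  let fh : ℤ → ℤ → ZMod 2 := fun i j => gh i j + kh i j + if i = 0 ∧ j = 0 then 1 else 0
  let fv : ℤ → ℤ → ZMod 2 := fun i j => gv i j + kv i j + if i = 0 ∧ j = 0 then 1 else 0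
  have hcl : ∀ i j, dv fh fv i j = 0 := by
    intro i j
    have a1 := g0 i j
    have a2 := k0 i j
    unfold dv at *
    have e : fh i j + fh (i - 1) j + fv i j + fv i (j - 1) =
        (gh i j + gh (i - 1) j + gv i j + gv i (j - 1)) +
        (kh i j + kh (i - 1) j + kv i j + kv i (j - 1)) +
        ((if i = 0 ∧ j = 0 then 1 else 0) + (if i - 1 = 0 ∧ j = 0 then 1 else 0) +
        (if i = 0 ∧ j = 0 then 1 else 0) + (if i = 0 ∧ j - 1 = 0 then 1 else 0)) := by
      simp only [fh, fv]; ring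
    rw [e, a1, a2]
    have c1 : (i - 1 = 0 ∧ j = 0) ↔ (i, j) = ((1, 0) : ℤ × ℤ) := by
      rw [Prod.ext_iff]; simp only; omega
    have c2 : (i = 0 ∧ j - 1 = 0) ↔ (i, j) = ((0, 1) : ℤ × ℤ) := by
      rw [Prod.ext_iff]; simp only; omega
    simp only [c1, c2]
    generalize (if (i, j) = ((0, 1) : ℤ × ℤ) then (1 : ZMod 2) else 0) = x
    generalize (if (i, j) = ((1, 0) : ℤ × ℤ) then (1 : ZMod 2) else 0) = y
    generalize (if (i = 0 ∧ j = 0) then (1 : ZMod 2) else 0) = z
    revert x y z
    decide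
  obtain ⟨u, hu1, hu2⟩ := poin fh fv hcl
  -- `u` is constant along `A`
  have hconst1 : ∀ i j, ix a b i j ∈ A → ix a b (i - 1) j ∈ A → u i j = u (i - 1) j := by
    intro i j p q
    have h := hu1 i j
    have hz : ¬ (i = 0 ∧ j = 0) := by
      rintro ⟨rfl, rfl⟩
      exact h3 (by simpa using q)
    simp only [fv, g2 i j p q, k2 i j p q, if_neg hz, add_zero] at h
    generalize u i j = x at *
    generalize u (i - 1) j = y at *
    revert h; clear hu1 hu2; revert x y; decide
  have hconst2 : ∀ i j, ix a b i j ∈ A → ix a b i (j - 1) ∈ A → u i j = u i (j - 1) := by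
    intro i j p q
    have h := hu2 i j
    have hz : ¬ (i = 0 ∧ j = 0) := by
      rintro ⟨rfl, rfl⟩
      exact h4 (by simpa using q)
    simp only [fh, g1 i j p q, k1 i j p q, if_neg hz, add_zero] at h
    generalize u i j = x at *
    generalize u i (j - 1) = y at *
    revert h; clear hu1 hu2; revert x y; decide
  -- the values at the two diagonal squares differ
  have v1 : u 0 0 + u (-1) 0 = 1 := by
    have h := hu1 0 0
    simp only [fv, g5, k5, and_self, if_true, zero_add] at h
    simpa using h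
  have v2 : u (-1) 0 + u (-1) (-1) = 0 := by
    have h := hu2 (-1) 0
    simp only [fh, g4, k4, zero_add] at h
    simpa using h
  have hne : u 0 0 ≠ u (-1) (-1) := by
    intro h
    rw [← h] at v2
    generalize u 0 0 = x at *
    generalize u (-1) 0 = y at *
    clear h hconst1 hconst2 hu1 hu2
    revert v1 v2; revert x y; decide
  let T : Finset Pt := A.filter (fun t => ∃ i j, t = ix a b i j ∧ u i j = u 0 0)
  have hT : ∀ i j, ix a b i j ∈ T ↔ ix a b i j ∈ A ∧ u i j = u 0 0 := by
    intro i j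
    simp only [T, Finset.mem_filter]
    constructor
    · rintro ⟨h, i', j', he, h'⟩
      obtain ⟨rfl, rfl⟩ := ix_inj.1 he
      exact ⟨h, h'⟩
    · rintro ⟨h, h'⟩
      exact ⟨h, i, j, rfl, h'⟩
  have hTc : ∀ s ∈ T, ∀ t ∈ A, nb s t → t ∈ T := by
    intro s hs t ht hst
    have hs' := hs
    simp only [T, Finset.mem_filter] at hs
    obtain ⟨hsA, i, j, rfl, hu⟩ := hs
    rcases nb_ix.1 hst with h | h | h | h
    · rw [h] at ht ⊢
      rw [hT]
      have hk := hconst1 (i + 1) j ht (by rwa [show i + 1 - 1 = i by ring])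
      rw [show i + 1 - 1 = i by ring] at hk
      exact ⟨ht, hk.trans hu⟩
    · rw [h] at ht ⊢
      rw [hT]
      exact ⟨ht, (hconst1 i j hsA ht).symm.trans hu⟩
    · rw [h] at ht ⊢
      rw [hT]
      have hk := hconst2 i (j + 1) ht (by rwa [show j + 1 - 1 = j by ring])
      rw [show j + 1 - 1 = j by ring] at hk
      exact ⟨ht, hk.trans hu⟩
    · rw [h] at ht ⊢
      rw [hT]
      exact ⟨ht, (hconst2 i j hsA ht).symm.trans hu⟩
  rcases hC T (Finset.filter_subset _ _) hTc with h | h
  · have : ix a b 0 0 ∈ T := (hT 0 0).2 ⟨h1, rfl⟩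
    rw [h] at this
    exact absurd this (Finset.notMem_empty _)
  · have : ix a b (-1) (-1) ∈ T := by rw [h]; exact h2
    exact hne ((hT _ _).1 this).2.symm

/-- the other diagonal -/
theorem no_diag' {A : Finset Pt} (hA : HF A) (hC : Con A) {a b : ℤ} (h1 : (a + 1, b + 1) ∉ A)
    (h2 : (a - 1, b - 1) ∉ A) (h3 : (a - 1, b + 1) ∈ A) (h4 : (a + 1, b - 1) ∈ A) : False := by
  classical
  -- reflect the first coordinate about `a`
  let r : Pt ↪ Pt := ⟨fun p => (2 * a - p.1, p.2), fun p q h => by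
    simp only [Prod.mk.injEq] at h; ext <;> omega⟩
  have hr : ∀ (B : Finset Pt) (p : Pt), p ∈ B.map r ↔ (2 * a - p.1, p.2) ∈ B := by
    intro B p
    rw [Finset.mem_map]
    have hrq : ∀ q : Pt, r q = (2 * a - q.1, q.2) := fun _ => rfl
    constructor
    · rintro ⟨q, hq, rfl⟩
      rw [hrq]
      simpa using hq
    · intro h
      refine ⟨_, h, ?_⟩
      rw [hrq]
      ext <;> simp
  have hnb : ∀ s t : Pt, nb (2 * a - s.1, s.2) (2 * a - t.1, t.2) ↔ nb s t := by
    intro s t
    unfold nb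
    simp only [Prod.ext_iff]
    omega
  have hHF : HF (A.map r) := by
    intro T hT1 hT2
    have h := hA (T.map r) ?_ ?_
    · exact Finset.map_eq_empty.1 h
    · rw [Finset.disjoint_left] at hT1 ⊢
      intro p hp hpA
      rw [hr] at hp
      refine hT1 hp ?_
      rw [hr]
      simpa using hpA
    · intro s hs t hst
      rw [hr] at hs
      have := hT2 _ hs (2 * a - t.1, t.2) ((hnb s t).2 hst)
      rw [hr] at this ⊢
      rcases this with h' | h'
      · exact Or.inl h'
      · right; simpa using h'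
  have hCon : Con (A.map r) := by
    intro T hT1 hT2
    have h := hC (T.map r) ?_ ?_
    · rcases h with h | h
      · exact Or.inl (Finset.map_eq_empty.1 h)
      · right
        ext p
        rw [hr, ← h, hr]
        simp
    · intro p hp
      rw [hr] at hp
      have := hT1 hp
      rw [hr] at this
      simpa using this
    · intro s hs t ht hst
      rw [hr] at hs
      rw [hr]
      refine hT2 _ hs _ ?_ ((hnb s t).2 hst)
      rw [hr]
      simpa using ht
  refine no_diag hHF hCon (a := a) (b := b) ?_ ?_ ?_ ?_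
  · rw [hr]; simpa [show 2 * a - (a + 1) = a - 1 by ring] using h3
  · rw [hr]; simpa [show 2 * a - (a - 1) = a + 1 by ring] using h4
  · rw [hr]; simpa [show 2 * a - (a - 1) = a + 1 by ring] using h1
  · rw [hr]; simpa [show 2 * a - (a + 1) = a - 1 by ring] using h2

end Crest.Agent.R096.Al_63
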