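import Mathlib

/-!
# R096/Lc1_451 (helper451, row 96, P2-CUBE)

Planar region lemma: finite sets of lattice squares (doubled coordinates, neighbours at distance 2),
hole-free sets, islands, and the choice of a flat hole-free region for a cubical solid.
-/

set_option autoImplicit false

namespace Crest.Agent.R096.Lc_451

abbrev Pt := ℤ × ℤ

/-- neighbouring squares (doubled coordinates) -/
def nb (s t : Pt) : Prop :=
  t = (s.1 + 2, s.2) ∨ t = (s.1 - 2, s.2) ∨ t = (s.1, s.2 + 2) ∨ t = (s.1, s.2 - 2)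

theorem nb.symm {s t : Pt} (h : nb s t) : nb t s := by
  unfold nb at *
  rcases h with h | h | h | h
  · right; left; subst h; ext <;> simp
  · left; subst h; ext <;> simp
  · right; right; right; subst h; ext <;> simp
  · right; right; left; subst h; ext <;> simp

/-- hole-free: the complement has no finite nonempty union of components -/
def HF (V : Finset Pt) : Prop :=
  ∀ T : Finset Pt, Disjoint T V → (∀ s ∈ T, ∀ t, nb s t → t ∈ T ∨ t ∈ V) → T = ∅

/-- connected -/
def Con (V : Finset Pt) : Prop :=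
  ∀ T : Finset Pt, T ⊆ V → (∀ s ∈ T, ∀ t ∈ V, nb s t → t ∈ T) → T = ∅ ∨ T = V

theorem exists_out {U : Finset Pt} (hU : U.Nonempty) : ∃ s ∈ U, ∃ t, t ∉ U ∧ nb s t := by
  obtain ⟨s, hs, hmax⟩ := Finset.exists_max_image U (fun p => p.1) hU
  refine ⟨s, hs, (s.1 + 2, s.2), fun ht => ?_, Or.inl rfl⟩
  have := hmax _ ht
  simp at this

theorem exists_fill (V0 : Finset Pt) :
    ∃ V : Finset Pt, V0 ⊆ V ∧ HF V ∧ ∀ s ∈ V, s ∉ V0 → ∀ t, nb s t → t ∈ V := by
  classical
  obtain ⟨N, hN⟩ : ∃ N : ℤ, ∀ s ∈ V0, -N ≤ s.1 ∧ s.1 ≤ N ∧ -N ≤ s.2 ∧ s.2 ≤ N := by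
    refine ⟨∑ s ∈ V0, (|s.1| + |s.2|), fun s hs => ?_⟩
    have h1 : |s.1| + |s.2| ≤ ∑ s ∈ V0, (|s.1| + |s.2|) :=
      Finset.single_le_sum (f := fun s : Pt => |s.1| + |s.2|)
        (fun i _ => add_nonneg (abs_nonneg _) (abs_nonneg _)) hs
    have h2 := abs_nonneg s.1
    have h3 := abs_nonneg s.2
    have h4 := neg_abs_le s.1
    have h5 := neg_abs_le s.2
    have h6 := le_abs_self s.1
    have h7 := le_abs_self s.2
    refine ⟨?_, ?_, ?_, ?_⟩ <;> linarith
  let Box : Finset Pt := Finset.Icc (-N) N ×ˢ Finset.Icc (-N) N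
  have hbox : ∀ s : Pt, s ∈ Box ↔ -N ≤ s.1 ∧ s.1 ≤ N ∧ -N ≤ s.2 ∧ s.2 ≤ N := by
    intro s
    simp only [Box, Finset.mem_product, Finset.mem_Icc]
    tauto
  let Fam : Finset (Finset Pt) := Box.powerset.filter
    (fun V => V0 ⊆ V ∧ ∀ s ∈ V, s ∉ V0 → ∀ t, nb s t → t ∈ V)
  have hmem : ∀ V, V ∈ Fam ↔ V ⊆ Box ∧ V0 ⊆ V ∧ ∀ s ∈ V, s ∉ V0 → ∀ t, nb s t → t ∈ V := by
    intro V
    simp only [Fam, Finset.mem_filter, Finset.mem_powerset]
  have hne : Fam.Nonempty := by
    refine ⟨V0, (hmem V0).2 ⟨fun s hs => (hbox s).2 (hN s hs), fun s hs => hs, fun s hs h => absurd hs h⟩⟩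
  obtain ⟨V, hV, hmax⟩ := Finset.exists_max_image Fam Finset.card hne
  obtain ⟨hVB, hV0, hVc⟩ := (hmem V).1 hV
  refine ⟨V, hV0, ?_, hVc⟩
  intro T hTV hT
  by_contra hTne
  have hTne' : T.Nonempty := Finset.nonempty_iff_ne_empty.2 hTne
  have hTB : T ⊆ Box := by
    intro s hs
    rw [hbox]
    obtain ⟨a, ha, hamax⟩ := Finset.exists_max_image T (fun p => p.1) hTne'
    obtain ⟨b, hb, hbmin⟩ := Finset.exists_min_image T (fun p => p.1) hTne'
    obtain ⟨c, hc, hcmax⟩ := Finset.exists_max_image T (fun p => p.2) hTne'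
    obtain ⟨d, hd, hdmin⟩ := Finset.exists_min_image T (fun p => p.2) hTne'
    have h1 : a.1 ≤ N := by
      rcases hT a ha (a.1 + 2, a.2) (Or.inl rfl) with h | h
      · have := hamax _ h; simp at this
      · have := ((hbox _).1 (hVB h)).2.1
        simp only at this
        linarith
    have h2 : -N ≤ b.1 := by
      rcases hT b hb (b.1 - 2, b.2) (Or.inr (Or.inl rfl)) with h | h
      · have := hbmin _ h; simp at this
      · have := ((hbox _).1 (hVB h)).1
        simp only at this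
        linarith
    have h3 : c.2 ≤ N := by
      rcases hT c hc (c.1, c.2 + 2) (Or.inr (Or.inr (Or.inl rfl))) with h | h
      · have := hcmax _ h; simp at this
      · have := ((hbox _).1 (hVB h)).2.2.2
        simp only at this
        linarith
    have h4 : -N ≤ d.2 := by
      rcases hT d hd (d.1, d.2 - 2) (Or.inr (Or.inr (Or.inr rfl))) with h | h
      · have := hdmin _ h; simp at this
      · have := ((hbox _).1 (hVB h)).2.2.1
        simp only at this
        linarith
    exact ⟨h2.trans (hbmin s hs), (hamax s hs).trans h1, h4.trans (hdmin s hs), (hcmax s hs).trans h3⟩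
  have hU : V ∪ T ∈ Fam := by
    rw [hmem]
    refine ⟨Finset.union_subset hVB hTB, hV0.trans Finset.subset_union_left, ?_⟩
    intro s hs hs0 t hst
    rcases Finset.mem_union.1 hs with h | h
    · exact Finset.mem_union_left _ (hVc s h hs0 t hst)
    · rcases hT s h t hst with h' | h'
      · exact Finset.mem_union_right _ h'
      · exact Finset.mem_union_left _ h'
  have hc := hmax _ hU
  rw [Finset.card_union_of_disjoint hTV.symm] at hc
  have := Finset.card_pos.2 hTne'
  omega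

/-- a hole-free set containing `V0` contains the filling -/
theorem fill_subset {U V0 V : Finset Pt} (hU : HF U) (h0 : V0 ⊆ U)
    (hV : ∀ s ∈ V, s ∉ V0 → ∀ t, nb s t → t ∈ V) : V ⊆ U := by
  classical
  have : V \ U = ∅ := by
    apply hU (V \ U) Finset.sdiff_disjoint
    intro s hs t hst
    rw [Finset.mem_sdiff] at hs
    have ht := hV s hs.1 (fun h => hs.2 (h0 h)) t hst
    by_cases htU : t ∈ U
    · exact Or.inr htU
    · exact Or.inl (Finset.mem_sdiff.2 ⟨ht, htU⟩)
  exact Finset.sdiff_eq_empty_iff_subset.1 this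

variable (X : Pt → ℤ → ZMod 2)

/-- the square `s` is flat of colour `a` at height `h`: same colour `a` below and above -/
def Fl (h : ℤ) (a : ZMod 2) (s : Pt) : Prop := X s (h - 1) = a ∧ X s (h + 1) = a

def Isl (h : ℤ) (a : ZMod 2) (U : Finset Pt) : Prop :=
  U.Nonempty ∧ ∀ s ∈ U, ∀ t, t ∉ U → nb s t → Fl X h a s ∧ ¬ Fl X h a t

theorem zmod2_cases (a : ZMod 2) : a = 0 ∨ a = 1 := by
  revert a; decide

theorem zmod2_ne {a b : ZMod 2} (h : a ≠ b) : a = b + 1 := by
  revert a b; decide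

theorem zmod2_ne_iff {a b : ZMod 2} : a ≠ b ↔ a = b + 1 := by
  revert a b; decide

theorem zmod2_self (a : ZMod 2) : a + a = 0 := by
  revert a; decide

theorem zmod2_add_one_ne (a : ZMod 2) : a + 1 ≠ a := by
  revert a; decide

theorem zmod2_ne_one {a : ZMod 2} (h : a ≠ 1) : a = 0 := by
  revert a; decide

theorem zmod2_ne_zero {a : ZMod 2} (h : a ≠ 0) : a = 1 := by
  revert a; decide

variable {X}

theorem Isl.fill {h : ℤ} {a : ZMod 2} {V0 : Finset Pt} (hV0 : Isl X h a V0) :
    ∃ V : Finset Pt, V0 ⊆ V ∧ HF V ∧ Isl X h a V ∧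
      (∀ s ∈ V, s ∉ V0 → ∀ t, nb s t → t ∈ V) := by
  obtain ⟨V, h1, h2, h3⟩ := exists_fill V0
  refine ⟨V, h1, h2, ⟨hV0.1.mono h1, ?_⟩, h3⟩
  intro s hs t ht hst
  have hs0 : s ∈ V0 := by
    by_contra hs0
    exact ht (h3 s hs hs0 t hst)
  exact hV0.2 s hs0 t (fun h => ht (h1 h)) hst

/-- **Lemma A**: a flat, connected, hole-free region. -/
theorem regA
    (m1 : ∀ (h : ℤ) (s t : Pt), nb s t → X s (h - 1) ≠ X s (h + 1) → X t (h - 1) ≠ X t (h + 1) →
      X s (h + 1) = X t (h + 1))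
    (c : ∀ (z : ℤ) (a : ZMod 2) (Q : Finset Pt), Q.Nonempty →
      (∀ s ∈ Q, X s z = a ∧ X s (z + 2) = a + 1 ∧ X s (z - 2) = a + 1) →
      (∀ s ∈ Q, ∀ t, t ∉ Q → nb s t → X t z = a + 1) →
      a = 1 ∧ ∀ s z', X s z' = 1 ↔ (z' = z ∧ s ∈ Q))
    {h0 : ℤ} {a0 : ZMod 2} {U0 : Finset Pt} (hU0 : Isl X h0 a0 U0) :
    ∃ (h : ℤ) (a : ZMod 2) (W : Finset Pt), W.Nonempty ∧ Con W ∧ HF W ∧ (∀ s ∈ W, Fl X h a s) ∧
      (∀ s ∈ W, ∀ t, t ∉ W → nb s t → ¬ Fl X h a t) := by
  classical
  -- minimal hole-free island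
  have hex : ∃ n : ℕ, ∃ (h : ℤ) (a : ZMod 2) (U : Finset Pt), HF U ∧ Isl X h a U ∧ U.card = n := by
    obtain ⟨V, _, hV, hVI, _⟩ := hU0.fill
    exact ⟨_, h0, a0, V, hV, hVI, rfl⟩
  obtain ⟨h, a, U, hHF, hI, hcard⟩ := Nat.find_spec hex
  have hmin : ∀ (h' : ℤ) (a' : ZMod 2) (U' : Finset Pt), HF U' → Isl X h' a' U' →
      U.card ≤ U'.card := by
    intro h' a' U' h1 h2
    rw [hcard]
    exact Nat.find_min' hex ⟨h', a', U', h1, h2, rfl⟩
  obtain ⟨s1, hs1, t1, ht1, hst1⟩ := exists_out hI.1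
  have hs1f : Fl X h a s1 := (hI.2 s1 hs1 t1 ht1 hst1).1
  have ht1f : ¬ Fl X h a t1 := (hI.2 s1 hs1 t1 ht1 hst1).2
  -- no smaller island inside
  have key : ∀ (h' : ℤ) (a' : ZMod 2) (V0 : Finset Pt), V0 ⊆ U → Isl X h' a' V0 → s1 ∉ V0 →
      False := by
    intro h' a' V0 hV0 hI0 hs0
    obtain ⟨V, hV0V, hVHF, hVI, hVc⟩ := hI0.fill
    have hVU : V ⊆ U := fill_subset hHF hV0 hVc
    have hVs : s1 ∉ V := by
      intro hs
      exact ht1 (hVU (hVc s1 hs hs0 t1 hst1))
    have hlt : V.card < U.card := Finset.card_lt_card ⟨hVU, fun hUV => hVs (hUV hs1)⟩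
    exact absurd (hmin h' a' V hVHF hVI) (not_le.2 hlt)
  -- (ii) flat squares of `U` have colour `a`
  have hflat : ∀ s ∈ U, ∀ a', Fl X h a' s → a' = a := by
    intro s hs a' hf
    by_contra hne
    refine key h a' (U.filter (fun s => Fl X h a' s)) (Finset.filter_subset _ _) ⟨⟨s, ?_⟩, ?_⟩ ?_
    · exact Finset.mem_filter.2 ⟨hs, hf⟩
    · intro u hu t ht hut
      rw [Finset.mem_filter] at hu
      refine ⟨hu.2, fun hft => ht ?_⟩
      rw [Finset.mem_filter]
      refine ⟨?_, hft⟩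
      by_contra htU
      have := (hI.2 u hu.1 t htU hut).1
      exact hne (hu.2.1.symm.trans this.1)
    · intro hs1'
      rw [Finset.mem_filter] at hs1'
      exact hne (hs1'.2.1.symm.trans hs1f.1)
  -- (iii) all squares of `U` are flat
  have hall : ∀ s ∈ U, Fl X h a s := by
    by_contra hcon
    push Not at hcon
    obtain ⟨s0, hs0, hs0f⟩ := hcon
    have hnf : X s0 (h - 1) ≠ X s0 (h + 1) := by
      intro he
      have hf : Fl X h (X s0 (h + 1)) s0 := ⟨he, rfl⟩
      have := hflat s0 hs0 _ hf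
      rw [this] at hf
      exact hs0f hf
    set b := X s0 (h + 1) with hb
    -- the horizontal piece
    let Q1 : Finset Pt := U.filter (fun s => X s (h + 1) = b ∧ X s (h - 1) = b + 1)
    have hQ1 : ∀ s, s ∈ Q1 ↔ s ∈ U ∧ X s (h + 1) = b ∧ X s (h - 1) = b + 1 := by
      intro s
      simp only [Q1, Finset.mem_filter]
    have hs0Q : s0 ∈ Q1 := (hQ1 s0).2 ⟨hs0, rfl, zmod2_ne hnf⟩
    have hQne : Q1.Nonempty := ⟨s0, hs0Q⟩
    have hs1Q : s1 ∉ Q1 := by
      intro hh
      have := (hQ1 s1).1 hh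
      have h2 := hs1f.1.symm.trans this.2.2
      have h3 := hs1f.2.symm.trans this.2.1
      rw [h3] at h2
      exact zmod2_add_one_ne b h2.symm
    -- neighbours of `Q1` are flat
    have hnbr : ∀ s ∈ Q1, ∀ t, t ∉ Q1 → nb s t → X t (h - 1) = a ∧ X t (h + 1) = a := by
      intro s hs t ht hst
      obtain ⟨hsU, hsa, hsb⟩ := (hQ1 s).1 hs
      have htU : t ∈ U := by
        by_contra htU
        have hf := (hI.2 s hsU t htU hst).1
        have : b = b + 1 := by
          rw [← hsb, ← hsa, hf.1, hf.2]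
        exact zmod2_add_one_ne b this.symm
      by_cases hft : X t (h - 1) = X t (h + 1)
      · have hf : Fl X h (X t (h + 1)) t := ⟨hft, rfl⟩
        have := hflat t htU _ hf
        rw [this] at hf
        exact hf
      · exfalso
        have hne : X s (h - 1) ≠ X s (h + 1) := by
          rw [hsa, hsb]; exact zmod2_add_one_ne b
        have := m1 h s t hst hne hft
        apply ht
        rw [hQ1]
        refine ⟨htU, this.symm.trans hsa, ?_⟩
        have h5 := zmod2_ne hft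
        rw [h5, ← this, hsa]
    -- the two cases for the side of the wall, treated uniformly
    have main : ∀ (e : ℤ), (e = 1 ∨ e = -1) → ∀ a' : ZMod 2,
        (∀ s ∈ Q1, X s (h + e) = a' ∧ X s (h - e) = a' + 1) →
        (∀ s ∈ Q1, ∀ t, t ∉ Q1 → nb s t → X t (h + e) = a' + 1) → False := by
      intro e he a' hA hB
      -- beyond the wall
      have hbey : ∀ s ∈ Q1, X s (h + 3 * e) = a' + 1 := by
        by_contra hcon
        push Not at hcon
        obtain ⟨s, hs, hsn⟩ := hcon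
        have hsn' : X s (h + 3 * e) = a' := by
          have := zmod2_ne hsn
          rw [this]
          have h1 : (1 : ZMod 2) + 1 = 0 := by decide
          rw [add_assoc, h1, add_zero]
        have hFl : ∀ t, Fl X (h + 2 * e) a' t ↔ X t (h + e) = a' ∧ X t (h + 3 * e) = a' := by
          intro t
          unfold Fl
          rcases he with rfl | rfl
          · rw [show h + 2 * 1 - 1 = h + 1 by ring, show h + 2 * 1 + 1 = h + 3 * 1 by ring]
          · rw [show h + 2 * (-1) - 1 = h + 3 * (-1) by ring, show h + 2 * (-1) + 1 = h + -1 by ring]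
            exact and_comm
        refine key (h + 2 * e) a' (Q1.filter (fun s => X s (h + 3 * e) = a'))
          ((Finset.filter_subset _ _).trans (Finset.filter_subset _ _)) ⟨⟨s, ?_⟩, ?_⟩ ?_
        · exact Finset.mem_filter.2 ⟨hs, hsn'⟩
        · intro u hu t ht hut
          rw [Finset.mem_filter] at hu
          refine ⟨(hFl u).2 ⟨(hA u hu.1).1, hu.2⟩, fun hft => ht ?_⟩
          rw [hFl] at hft
          rw [Finset.mem_filter]
          refine ⟨?_, hft.2⟩
          by_contra htQ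
          have := hB u hu.1 t htQ hut
          rw [hft.1] at this
          exact zmod2_add_one_ne a' this.symm
        · intro hh
          exact hs1Q (Finset.mem_filter.1 hh).1
      have hc := c (h + e) a' Q1 hQne ?_ hB
      · obtain ⟨ha', hX⟩ := hc
        -- `X = Q1 × layer`
        have hX0 : ∀ s z', s ∉ Q1 → X s z' = 0 := by
          intro s z' hs
          by_contra hne
          exact hs (((hX s z').1 (zmod2_ne_zero hne)).2)
        have ha0 : a = 0 := by
          rw [← hs1f.1]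
          exact hX0 s1 _ hs1Q
        apply ht1f
        have ht1Q : t1 ∉ Q1 := fun hh => ht1 ((hQ1 t1).1 hh).1
        rw [ha0]
        exact ⟨hX0 t1 _ ht1Q, hX0 t1 _ ht1Q⟩
      · intro s hs
        refine ⟨(hA s hs).1, ?_, ?_⟩
        · rcases he with rfl | rfl
          · rw [show h + 1 + 2 = h + 3 * 1 by ring]; exact hbey s hs
          · rw [show h + -1 + 2 = h - -1 by ring]; exact (hA s hs).2
        · rcases he with rfl | rfl
          · rw [show h + 1 - 2 = h - 1 by ring]; exact (hA s hs).2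
          · rw [show h + -1 - 2 = h + 3 * (-1) by ring]; exact hbey s hs
    by_cases hab : a = b
    · refine main (-1) (Or.inr rfl) (b + 1) ?_ ?_
      · intro s hs
        obtain ⟨_, h1, h2⟩ := (hQ1 s).1 hs
        refine ⟨?_, ?_⟩
        · rw [show h + -1 = h - 1 by ring]; exact h2
        · rw [show h - -1 = h + 1 by ring, h1]
          have h1 : (1 : ZMod 2) + 1 = 0 := by decide
          rw [add_assoc, h1, add_zero]
      · intro s hs t ht hst
        rw [show h + -1 = h - 1 by ring, (hnbr s hs t ht hst).1, hab]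
        have h1 : (1 : ZMod 2) + 1 = 0 := by decide
        rw [add_assoc, h1, add_zero]
    · refine main 1 (Or.inl rfl) b ?_ ?_
      · intro s hs
        obtain ⟨_, h1, h2⟩ := (hQ1 s).1 hs
        exact ⟨h1, h2⟩
      · intro s hs t ht hst
        rw [(hnbr s hs t ht hst).2]
        exact zmod2_ne hab
  refine ⟨h, a, U, hI.1, ?_, hHF, hall, fun s hs t ht hst => (hI.2 s hs t ht hst).2⟩
  -- connected
  intro T hTU hT
  by_contra hcon
  push Not at hcon
  obtain ⟨hTne, hTneU⟩ := hcon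
  have hTI : Isl X h a T := by
    refine ⟨hTne, ?_⟩
    intro s hs t ht hst
    have htU : t ∉ U := fun hh => ht (hT s hs t hh hst)
    exact hI.2 s (hTU hs) t htU hst
  have hTHF : HF T := by
    intro T' hdis hT'
    have h1 : T' \ U = ∅ := by
      apply hHF _ Finset.sdiff_disjoint
      intro s hs t hst
      rw [Finset.mem_sdiff] at hs
      by_cases htU : t ∈ U
      · exact Or.inr htU
      · left
        rw [Finset.mem_sdiff]
        rcases hT' s hs.1 t hst with h' | h'
        · exact ⟨h', htU⟩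
        · exact absurd (hTU h') htU
    have h2 : T' ⊆ U := Finset.sdiff_eq_empty_iff_subset.1 h1
    by_contra hne
    obtain ⟨s, hs, t, ht, hst⟩ := exists_out (Finset.nonempty_iff_ne_empty.2 hne)
    rcases hT' s hs t hst with h' | h'
    · exact ht h'
    · have := hT t h' s (h2 hs) hst.symm
      exact Finset.disjoint_left.1 hdis hs this
  have hlt : T.card < U.card := Finset.card_lt_card ⟨hTU, fun hUT => hTneU (Finset.Subset.antisymm hTU hUT)⟩
  exact absurd (hmin h a T hTHF hTI) (not_le.2 hlt)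

/-- **Lemma B**: no island at all: one connected hole-free layer. -/
theorem regB
    (hfin : ∀ z, {s : Pt | X s z = 1}.Finite) (hne : ∃ s z, X s z = 1)
    (c : ∀ (z : ℤ) (a : ZMod 2) (Q : Finset Pt), Q.Nonempty →
      (∀ s ∈ Q, X s z = a ∧ X s (z + 2) = a + 1 ∧ X s (z - 2) = a + 1) →
      (∀ s ∈ Q, ∀ t, t ∉ Q → nb s t → X t z = a + 1) →
      a = 1 ∧ ∀ s z', X s z' = 1 ↔ (z' = z ∧ s ∈ Q))
    (hno : ∀ (h : ℤ) (a : ZMod 2) (U : Finset Pt), ¬ Isl X h a U) :
    ∃ (z : ℤ) (A : Finset Pt), A.Nonempty ∧ Con A ∧ HF A ∧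
      ∀ s z', X s z' = 1 ↔ (z' = z ∧ s ∈ A) := by
  classical
  obtain ⟨s0, z, hs0⟩ := hne
  have hex : ∃ n : ℕ, ∃ A : Finset Pt, A.Nonempty ∧ (∀ s ∈ A, X s z = 1) ∧
      (∀ s ∈ A, ∀ t, nb s t → X t z = 1 → t ∈ A) ∧ A.card = n := by
    refine ⟨_, (hfin z).toFinset, ⟨s0, ?_⟩, ?_, ?_, rfl⟩
    · simpa using hs0
    · intro s hs; simpa using hs
    · intro s _ t _ ht; simpa using ht
  obtain ⟨A, hAne, hA1, hAc, hcard⟩ := Nat.find_spec hex
  have hmin : ∀ A' : Finset Pt, A'.Nonempty → (∀ s ∈ A', X s z = 1) →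
      (∀ s ∈ A', ∀ t, nb s t → X t z = 1 → t ∈ A') → A.card ≤ A'.card := by
    intro A' h1 h2 h3
    rw [hcard]
    exact Nat.find_min' hex ⟨A', h1, h2, h3, rfl⟩
  have h11 : (1 : ZMod 2) + 1 = 0 := by decide
  have hup : ∀ s ∈ A, X s (z + 2) = 1 + 1 := by
    rw [h11]
    by_contra hcon
    push Not at hcon
    obtain ⟨s, hs, hsn⟩ := hcon
    refine hno (z + 1) 1 (A.filter (fun s => X s (z + 2) = 1)) ⟨⟨s, ?_⟩, ?_⟩
    · exact Finset.mem_filter.2 ⟨hs, zmod2_ne_zero hsn⟩
    · intro u hu t ht hut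
      rw [Finset.mem_filter] at hu
      refine ⟨⟨?_, ?_⟩, fun hf => ht ?_⟩
      · rw [show z + 1 - 1 = z by ring]; exact hA1 u hu.1
      · rw [show z + 1 + 1 = z + 2 by ring]; exact hu.2
      · unfold Fl at hf
        rw [show z + 1 - 1 = z by ring, show z + 1 + 1 = z + 2 by ring] at hf
        exact Finset.mem_filter.2 ⟨hAc u hu.1 t hut hf.1, hf.2⟩
  have hdn : ∀ s ∈ A, X s (z - 2) = 1 + 1 := by
    rw [h11]
    by_contra hcon
    push Not at hcon
    obtain ⟨s, hs, hsn⟩ := hcon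
    refine hno (z - 1) 1 (A.filter (fun s => X s (z - 2) = 1)) ⟨⟨s, ?_⟩, ?_⟩
    · exact Finset.mem_filter.2 ⟨hs, zmod2_ne_zero hsn⟩
    · intro u hu t ht hut
      rw [Finset.mem_filter] at hu
      refine ⟨⟨?_, ?_⟩, fun hf => ht ?_⟩
      · rw [show z - 1 - 1 = z - 2 by ring]; exact hu.2
      · rw [show z - 1 + 1 = z by ring]; exact hA1 u hu.1
      · unfold Fl at hf
        rw [show z - 1 - 1 = z - 2 by ring, show z - 1 + 1 = z by ring] at hf
        exact Finset.mem_filter.2 ⟨hAc u hu.1 t hut hf.2, hf.1⟩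
  obtain ⟨_, hX⟩ := c z 1 A hAne (fun s hs => ⟨hA1 s hs, hup s hs, hdn s hs⟩) (by
    intro s hs t ht hst
    rw [h11]
    by_contra hne'
    exact ht (hAc s hs t hst (zmod2_ne_zero hne')))
  refine ⟨z, A, hAne, ?_, ?_, hX⟩
  · intro T hTA hT
    by_contra hcon
    push Not at hcon
    obtain ⟨hTne, hTneA⟩ := hcon
    have h1 := hmin T hTne (fun s hs => hA1 s (hTA hs)) (by
      intro s hs t hst ht
      exact hT s hs t (hAc s (hTA hs) t hst ht) hst)
    have hlt : T.card < A.card :=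
      Finset.card_lt_card ⟨hTA, fun hh => hTneA (Finset.Subset.antisymm hTA hh)⟩
    omega
  · intro T hdis hT
    by_contra hTne
    refine hno (z + 1) 0 T ⟨Finset.nonempty_iff_ne_empty.2 hTne, ?_⟩
    intro s hs t ht hst
    have hsA : s ∉ A := Finset.disjoint_left.1 hdis hs
    have h0 : ∀ z', X s z' = 0 := by
      intro z'
      by_contra hne'
      exact hsA ((hX s z').1 (zmod2_ne_zero hne')).2
    refine ⟨⟨h0 _, h0 _⟩, ?_⟩
    intro hf
    unfold Fl at hf
    rw [show z + 1 - 1 = z by ring] at hf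
    rcases hT s hs t hst with h' | h'
    · exact ht h'
    · have := hA1 t h'
      rw [hf.1] at this
      exact absurd this (by decide)

end Crest.Agent.R096.Lc_451
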