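import Mathlib
import Crest.Agent.R096.Lc1_451

/-!
# R096/Lc2_451 (helper451, row 96, P2-CUBE)

Mod 2 chains on the cubical complex of `ℤ × ℤ` and `(ℤ × ℤ) × ℤ` in doubled coordinates:
integration in the last direction, plane homology, irreducibility of the boundary of a connected
hole-free set of squares.
-/

set_option autoImplicit false

namespace Crest.Agent.R096.Lc_451

theorem zmod2_two : (1 : ZMod 2) + 1 = 0 := by decide

/-- a coboundary type operator which is additive -/
structure AddOp (P : Type) where
  /-- the operator -/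
  op : (P → ZMod 2) → P → ZMod 2
  add : ∀ a b p, op (fun q => a q + b q) p = op a p + op b p

theorem AddOp.zero {P : Type} (B : AddOp P) (p : P) : B.op (fun _ => 0) p = 0 := by
  have := B.add (fun _ => 0) (fun _ => 0) p
  simp only [add_zero] at this
  have h2 := zmod2_self (B.op (fun _ => 0) p)
  rw [← this] at h2
  exact h2

theorem AddOp.congr {P : Type} (B : AddOp P) {a b : P → ZMod 2} (h : ∀ q, a q = b q) (p : P) :
    B.op a p = B.op b p := by
  have : a = b := funext h
  rw [this]

/-- prefix sums -/
def pre (N : ℤ) (f : ℤ → ZMod 2) (y : ℤ) : ZMod 2 :=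
  ∑ k ∈ Finset.range (y + N).toNat, f (-N + k)

theorem pre_zero {N : ℤ} {f : ℤ → ZMod 2} {y : ℤ} (h : y ≤ -N) : pre N f y = 0 := by
  unfold pre
  rw [show (y + N).toNat = 0 by omega]
  simp

theorem pre_succ {N : ℤ} {f : ℤ → ZMod 2} (hf : ∀ y < -N, f y = 0) (y : ℤ) :
    pre N f (y + 1) = pre N f y + f y := by
  by_cases h : y < -N
  · rw [pre_zero (by omega), pre_zero (by omega), hf y h, add_zero]
  · unfold pre
    rw [show (y + 1 + N).toNat = (y + N).toNat + 1 by omega, Finset.sum_range_succ]
    congr 2
    have : ((y + N).toNat : ℤ) = y + N := Int.toNat_of_nonneg (by omega)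
    rw [this]; ring

theorem pre_eq_zero {N : ℤ} {f : ℤ → ZMod 2} (hf : ∀ y, f y = 0) (y : ℤ) : pre N f y = 0 := by
  unfold pre
  apply Finset.sum_eq_zero
  intro k _
  exact hf _

theorem const_of_succ {F : ℤ → ZMod 2} (h : ∀ y, F (y + 1) = F y) {y0 : ℤ} (h0 : F y0 = 0)
    (y : ℤ) : F y = 0 := by
  have key : ∀ n : ℕ, F (y0 + n) = 0 ∧ F (y0 - n) = 0 := by
    intro n
    induction n with
    | zero => simp [h0]
    | succ n ih =>
      constructor
      · have := h (y0 + n)
        push_cast
        rw [show y0 + ((n : ℤ) + 1) = y0 + n + 1 by ring, this, ih.1]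
      · have := h (y0 - (n + 1))
        push_cast
        rw [show y0 - ((n : ℤ) + 1) + 1 = y0 - n by ring, ih.2] at this
        exact this.symm
  rcases le_total y0 y with h' | h'
  · have := (key (y - y0).toNat).1
    rw [Int.toNat_of_nonneg (by omega)] at this
    rwa [show y0 + (y - y0) = y by ring] at this
  · have := (key (y0 - y).toNat).2
    rw [Int.toNat_of_nonneg (by omega)] at this
    rwa [show y0 - (y0 - y) = y by ring] at this

/-- extension of an operator by one more direction -/
def ext {P : Type} (B : AddOp P) (A : P → ℤ → ZMod 2) (p : P) (z : ℤ) : ZMod 2 :=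
  B.op (fun q => A q z) p + (if z % 2 = 0 then A p (z + 1) + A p (z - 1) else 0)

/-- integration in the last direction -/
def prim {P : Type} (N : ℤ) (A : P → ℤ → ZMod 2) (p : P) (z : ℤ) : ZMod 2 :=
  if z % 2 = 0 then 0 else pre N (fun z' => if z' % 2 = 0 then A p z' else 0) z

theorem ext_prim {P : Type} (B : AddOp P) {N : ℤ} {A : P → ℤ → ZMod 2}
    (hN : ∀ p, ∀ z < -N, A p z = 0) (hcl : ∀ p z, z % 2 = 0 → ext B A p z = 0) (p : P) (z : ℤ) :
    ext B (prim N A) p z = A p z := by
  have hf : ∀ q, ∀ y < -N, (fun z' => if z' % 2 = 0 then A q z' else 0) y = 0 := by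
    intro q y hy
    simp only
    split_ifs
    · exact hN q y hy
    · rfl
  unfold ext
  by_cases hz : z % 2 = 0
  · rw [if_pos hz]
    have h1 : B.op (fun q => prim N A q z) p = 0 := by
      rw [B.congr (b := fun _ => 0) (fun q => by simp [prim, hz]), B.zero]
    rw [h1, zero_add]
    unfold prim
    rw [if_neg (by omega), if_neg (by omega), pre_succ (hf p)]
    have h2 := pre_succ (hf p) (z - 1)
    rw [show z - 1 + 1 = z by ring] at h2
    rw [h2]
    rw [if_pos hz, if_neg (by omega : ¬ (z - 1) % 2 = 0), add_zero, add_right_comm, zmod2_self, zero_add]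
  · rw [if_neg hz, add_zero]
    -- telescoping
    have key : ∀ y, B.op (fun q => pre N (fun z' => if z' % 2 = 0 then A q z' else 0) y) p
        + (if y % 2 = 0 then A p (y - 1) else A p y) = 0 := by
      intro y
      refine const_of_succ (F := fun y => B.op (fun q => pre N (fun z' => if z' % 2 = 0 then A q z' else 0) y) p
        + (if y % 2 = 0 then A p (y - 1) else A p y)) ?_ (y0 := -N - 1) ?_ y
      · intro y
        have e0 : B.op (fun q => pre N (fun z' => if z' % 2 = 0 then A q z' else 0) (y + 1)) p
            = B.op (fun q => pre N (fun z' => if z' % 2 = 0 then A q z' else 0) y) p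
              + B.op (fun q => if y % 2 = 0 then A q y else 0) p := by
          rw [B.congr (fun q => pre_succ (hf q) y), B.add]
        rw [e0]
        by_cases hy : y % 2 = 0
        · have e1 : B.op (fun q => if y % 2 = 0 then A q y else 0) p = B.op (fun q => A q y) p :=
            B.congr (fun q => if_pos hy) p
          rw [if_pos hy, if_neg (by omega), e1]
          have h3 := hcl p y hy
          unfold ext at h3
          rw [if_pos hy] at h3
          have h6 := zmod2_self (A p (y + 1))
          have h5 := zmod2_self (A p (y - 1))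
          linear_combination h3 - h5
        · have e1 : B.op (fun q => if y % 2 = 0 then A q y else 0) p = 0 := by
            rw [B.congr (b := fun _ => 0) (fun q => if_neg hy), B.zero]
          rw [if_neg hy, if_pos (by omega), e1, add_zero, show y + 1 - 1 = y by ring]
      · rw [B.congr (b := fun _ => 0) (fun q => pre_zero (by omega)), B.zero, zero_add]
        split_ifs
        · exact hN p _ (by omega)
        · exact hN p _ (by omega)
    have h7 := key z
    rw [if_neg hz] at h7
    rw [B.congr (a := fun q => prim N A q z)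
      (b := fun q => pre N (fun z' => if z' % 2 = 0 then A q z' else 0) z) (fun q => if_neg hz)]
    have h8 := zmod2_self (A p z)
    linear_combination h7 - h8

theorem prim_eq_zero_of {P : Type} {N : ℤ} {A : P → ℤ → ZMod 2} {p : P} (h : ∀ z, A p z = 0) (z : ℤ) :
    prim N A p z = 0 := by
  unfold prim
  split_ifs
  · rfl
  · exact pre_eq_zero (fun y => by simp [h]) z

theorem prim_neg {P : Type} {N : ℤ} {A : P → ℤ → ZMod 2} {p : P} {z : ℤ} (h : z ≤ -N) :
    prim N A p z = 0 := by
  unfold prim
  split_ifs
  · rfl
  · exact pre_zero h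

/-- beyond the support the primitive vanishes, if finite top cycles vanish -/
theorem prim_top {P : Type} (B : AddOp P) {N : ℤ} {A : P → ℤ → ZMod 2}
    (hN : ∀ p, ∀ z < -N, A p z = 0) (hcl : ∀ p z, z % 2 = 0 → ext B A p z = 0)
    (htop : ∀ z, z % 2 ≠ 0 → (∀ p, B.op (fun q => prim N A q z) p = 0) → ∀ p, prim N A p z = 0)
    {z : ℤ} (hz : ∀ p, A p z = 0) (p : P) : prim N A p z = 0 := by
  by_cases h : z % 2 = 0
  · simp [prim, h]
  · refine htop z h (fun q => ?_) p
    have := ext_prim B hN hcl q z
    unfold ext at this
    rw [if_neg h, add_zero, hz] at this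
    exact this

theorem zmod2_eq_of_add {a b : ZMod 2} (h : a + b = 0) : a = b := by
  revert a b; decide

/-- top cycles vanish in the last direction -/
theorem top_ext {P : Type} (B : AddOp P) {A : P → ℤ → ZMod 2} (hz : ∀ p z, z % 2 = 0 → A p z = 0)
    (hA : ∀ p z, z % 2 = 0 → ext B A p z = 0) {p : P} {z0 : ℤ} (h0 : ∀ z, z0 < z → A p z = 0)
    (z : ℤ) : A p z = 0 := by
  have key : ∀ z, (if z % 2 = 0 then A p (z - 1) else A p z) = 0 := by
    intro z
    refine const_of_succ (F := fun z => if z % 2 = 0 then A p (z - 1) else A p z) ?_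
      (y0 := z0 + 2) ?_ z
    · intro y
      by_cases hy : y % 2 = 0
      · have h1 := hA p y hy
        unfold ext at h1
        rw [B.congr (b := fun _ => 0) (fun q => hz q y hy), B.zero, if_pos hy, zero_add] at h1
        have h2 := zmod2_eq_of_add h1
        rw [if_neg (by omega), if_pos hy, h2]
      · rw [if_pos (by omega), if_neg hy, show y + 1 - 1 = y by ring]
    · split_ifs
      · exact h0 _ (by omega)
      · exact h0 _ (by omega)
  by_cases h : z % 2 = 0
  · exact hz p z h
  · have := key z
    rwa [if_neg h] at this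

/-! ### the plane -/

/-- the operator on the line -/
def op1 : AddOp ℤ where
  op u x := if x % 2 = 0 then u (x + 1) + u (x - 1) else 0
  add := by
    intro a b p
    split_ifs
    · ring
    · ring

/-- sum over the cofaces in the plane -/
def bd2 (a : Pt → ZMod 2) (p : Pt) : ZMod 2 :=
  (if p.1 % 2 = 0 then a (p.1 + 1, p.2) + a (p.1 - 1, p.2) else 0) +
    (if p.2 % 2 = 0 then a (p.1, p.2 + 1) + a (p.1, p.2 - 1) else 0)

theorem bd2_eq_ext (a : Pt → ZMod 2) (p : Pt) : bd2 a p = ext op1 (fun x y => a (x, y)) p.1 p.2 := rfl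

def op2 : AddOp Pt where
  op := bd2
  add := by
    intro a b p
    unfold bd2
    split_ifs <;> ring

def Sq (p : Pt) : Prop := p.1 % 2 = 1 ∧ p.2 % 2 = 1
def Vx (p : Pt) : Prop := p.1 % 2 = 0 ∧ p.2 % 2 = 0
def Ed (p : Pt) : Prop := (p.1 % 2 = 0 ∧ p.2 % 2 = 1) ∨ (p.1 % 2 = 1 ∧ p.2 % 2 = 0)

/-- finite support, as a bound -/
def Bd (N : ℤ) (a : Pt → ZMod 2) : Prop := ∀ p, a p ≠ 0 → |p.1| ≤ N ∧ |p.2| ≤ N

theorem exists_Bd {a : Pt → ZMod 2} (h : {p | a p ≠ 0}.Finite) : ∃ N, 0 ≤ N ∧ Bd N a := by
  classical
  refine ⟨∑ s ∈ h.toFinset, (|s.1| + |s.2|), Finset.sum_nonneg (fun i _ => by positivity), ?_⟩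
  intro p hp
  have h1 : |p.1| + |p.2| ≤ ∑ s ∈ h.toFinset, (|s.1| + |s.2|) :=
    Finset.single_le_sum (f := fun s : Pt => |s.1| + |s.2|)
      (fun i _ => add_nonneg (abs_nonneg _) (abs_nonneg _)) (h.mem_toFinset.2 hp)
  have h2 := abs_nonneg p.1
  have h3 := abs_nonneg p.2
  constructor <;> linarith

theorem Bd.finite {N : ℤ} {a : Pt → ZMod 2} (h : Bd N a) : {p | a p ≠ 0}.Finite := by
  refine Set.Finite.subset (Finset.finite_toSet (Finset.Icc (-N) N ×ˢ Finset.Icc (-N) N)) ?_
  intro p hp
  obtain ⟨h1, h2⟩ := h p hp
  rw [abs_le] at h1 h2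
  simp only [Finset.coe_product, Finset.coe_Icc, Set.mem_prod, Set.mem_Icc]
  exact ⟨h1, h2⟩

theorem top2 {a : Pt → ZMod 2} (hfin : {p | a p ≠ 0}.Finite) (hsq : ∀ p, a p ≠ 0 → Sq p)
    (h : ∀ p, Ed p → bd2 a p = 0) (p : Pt) : a p = 0 := by
  obtain ⟨N, _, hN⟩ := exists_Bd hfin
  by_contra hne
  have hp := hsq p hne
  have key : ∀ z, z % 2 = 1 → a (p.1, z) = 0 := by
    intro z hz
    by_contra h'
    have hAz : ∀ (x : ℤ) (z : ℤ), z % 2 = 0 → a (x, z) = 0 := by
      intro x z hz
      by_contra h1
      have := (hsq _ h1).2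
      simp only at this
      omega
    have := top_ext (B := ⟨fun _ _ => 0, fun _ _ _ => by simp⟩) (A := fun x z => a (x, z))
      hAz (fun x z hz => by
        unfold ext
        simp only
        rw [if_pos hz, zero_add]
        by_cases hx : x % 2 = 1
        · have h1 := h (x, z) (Or.inr ⟨hx, hz⟩)
          unfold bd2 at h1
          simp only at h1
          rw [if_neg (by omega), if_pos hz, zero_add] at h1
          exact h1
        · have h1 : ∀ y, a (x, y) = 0 := by
            intro y
            by_contra h1
            exact hx (hsq _ h1).1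
          rw [h1, h1, add_zero]) (p := p.1) (z0 := N) (fun z hz => by
        by_contra h1
        have := (hN _ h1).2
        simp only at this
        rw [abs_le] at this
        omega) z
    exact h' this
  exact hne (key p.2 hp.2)

/-- **PL1**: every finite even set of edges of the plane is a boundary. -/
theorem plane_H1 {γ : Pt → ZMod 2} (hfin : {p | γ p ≠ 0}.Finite) (hE : ∀ p, γ p ≠ 0 → Ed p)
    (hV : ∀ p, Vx p → bd2 γ p = 0) :
    ∃ g : Pt → ZMod 2, {p | g p ≠ 0}.Finite ∧ (∀ p, g p ≠ 0 → Sq p) ∧ ∀ p, bd2 g p = γ p := by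
  obtain ⟨N, hN0, hN⟩ := exists_Bd hfin
  have hA : ∀ x : ℤ, ∀ z < -(N + 1), γ (x, z) = 0 := by
    intro x z hz
    by_contra h1
    have := (hN _ h1).2
    simp only at this
    rw [abs_le] at this
    omega
  have hcl : ∀ (x z : ℤ), z % 2 = 0 → ext op1 (fun x y => γ (x, y)) x z = 0 := by
    intro x z hz
    by_cases hx : x % 2 = 0
    · exact hV (x, z) ⟨hx, hz⟩
    · unfold ext op1
      simp only
      rw [if_neg hx, if_pos hz, zero_add]
      have h1 : ∀ y, y % 2 = 1 → γ (x, y) = 0 := by
        intro y hy
        by_contra h1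
        rcases hE _ h1 with h2 | h2
        · simp only at h2; omega
        · simp only at h2; omega
      rw [h1 _ (by omega), h1 _ (by omega), add_zero]
  have hg : ∀ x z, prim (N + 1) (fun x y => γ (x, y)) x z ≠ 0 → x % 2 = 1 ∧ z % 2 = 1 := by
    intro x z h
    constructor
    · by_contra hx
      apply h
      unfold prim
      split_ifs with h0
      · rfl
      · apply pre_eq_zero
        intro y
        split_ifs with hy
        · by_contra h1
          rcases hE _ h1 with h2 | h2
          · simp only at h2; omega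
          · simp only at h2; omega
        · rfl
    · by_contra hz
      apply h
      unfold prim
      rw [if_pos (by omega)]
  have hbig : ∀ x z, N < |x| → prim (N + 1) (fun x y => γ (x, y)) x z = 0 := by
    intro x z hx
    apply prim_eq_zero_of
    intro y
    by_contra h1
    have := (hN _ h1).1
    simp only at this
    omega
  refine ⟨fun p => prim (N + 1) (fun x y => γ (x, y)) p.1 p.2, ?_, fun p hp => hg p.1 p.2 hp, ?_⟩
  · apply Bd.finite (N := N + 1)
    intro p hp
    constructor
    · by_contra h1
      exact hp (hbig p.1 p.2 (by omega))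
    · by_contra h1
      apply hp
      simp only
      rcases lt_abs.1 (not_le.1 h1) with h2 | h2
      · refine prim_top op1 hA hcl ?_ (z := p.2) ?_ p.1
        · intro z hz hop
          intro x
          have h : (if x % 2 = 0 then prim (N + 1) (fun x y => γ (x, y)) (x - 1) z
            else prim (N + 1) (fun x y => γ (x, y)) x z) = 0 := by
            refine const_of_succ (F := fun x => if x % 2 = 0 then prim (N + 1) (fun x y => γ (x, y)) (x - 1) z
              else prim (N + 1) (fun x y => γ (x, y)) x z) ?_ (y0 := N + 2) ?_ x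
            · intro y
              by_cases hy : y % 2 = 0
              · have h1 := hop y
                unfold op1 at h1
                simp only at h1
                rw [if_pos hy] at h1
                have h2 := zmod2_eq_of_add h1
                rw [if_neg (by omega), if_pos hy, h2]
              · rw [if_pos (by omega), if_neg hy, show y + 1 - 1 = y by ring]
            · split_ifs
              · exact hbig _ _ (lt_of_lt_of_le (by omega) (le_abs_self _))
              · exact hbig _ _ (lt_of_lt_of_le (by omega) (le_abs_self _))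
          by_cases hx : x % 2 = 0
          · by_contra h1
            have := (hg x z h1).1
            omega
          · rwa [if_neg hx] at h
        · intro x
          by_contra h1
          have := (hN _ h1).2
          simp only at this
          rw [abs_le] at this
          omega
      · exact prim_neg (by omega)
  · intro p
    rw [bd2_eq_ext]
    exact ext_prim op1 hA hcl p.1 p.2

end Crest.Agent.R096.Lc_451
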