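import Crest.Agent.R096.PlExt_296

/-!
# Set versions of the cut lemma without connectedness hypotheses (helper296, row 96, P2-Y)
-/

namespace Crest.Agent.R096.Pl

open Set Metric Topology

set_option linter.unusedSectionVars false

variable {F : Type*} [NormedAddCommGroup F] [NormedSpace ℝ F]

theorem isPreconnected_Km_diff : IsPreconnected (Km F \ Eqt F) := by
  have : Km F \ Eqt F = refl F '' (Kp F \ Eqt F) := by
    rw [image_sdiff (refl F).injective, refl_image_Kp, refl_image_Eqt]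
  rw [this]
  exact isPreconnected_Kp_diff.image _ (refl F).continuous.continuousOn

theorem S1_diff : S1 F \ Eqt F = (Kp F \ Eqt F) ∪ (Km F \ Eqt F) := by
  rw [← Kp_union_Km, union_sdiff_distrib]

/-- if `H` maps the double cone sphere onto `S` and the equator onto `Γ`, then any decomposition
of `S` into two closed pieces meeting in `Γ`, none equal to `Γ`, is a standard pair -/
theorem StdS_of_closed {S E D Γ : Set (F × ℝ)} {H : (F × ℝ) ≃ₜ (F × ℝ)} (hH : PLH H)
    (hS : H '' S1 F = S) (hΓ : H '' Eqt F = Γ) (hED : E ∪ D = S) (hi : E ∩ D = Γ)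
    (hEc : IsClosed E) (hDc : IsClosed D) (hEn : (E \ Γ).Nonempty) (hDn : (D \ Γ).Nonempty) :
    StdS E D := by
  set P := H '' (Kp F \ Eqt F) with hP
  set M := H '' (Km F \ Eqt F) with hM
  have hPc : IsPreconnected P := isPreconnected_Kp_diff.image _ H.continuous.continuousOn
  have hMc : IsPreconnected M := isPreconnected_Km_diff.image _ H.continuous.continuousOn
  have hPM : P ∪ M = S \ Γ := by
    rw [hP, hM, ← image_union, ← S1_diff, image_sdiff H.injective, hS, hΓ]
  have hPs : P ⊆ S \ Γ := by rw [← hPM]; exact subset_union_left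
  have hMs : M ⊆ S \ Γ := by rw [← hPM]; exact subset_union_right
  have split : ∀ X : Set (F × ℝ), IsPreconnected X → X ⊆ S \ Γ → X ⊆ E ∨ X ⊆ D := by
    intro X hX hXs
    refine isPreconnected_iff_subset_of_disjoint_closed.1 hX E D hEc hDc ?_ ?_
    · rw [hED]; exact hXs.trans sdiff_subset
    · rw [hi]
      ext x
      simp only [mem_inter_iff, mem_empty_iff_false, iff_false, not_and]
      exact fun hx => (hXs hx).2
  have concl : ∀ A B : Set (F × ℝ), A ∪ B = S → A ∩ B = Γ → P ⊆ A → M ⊆ B → StdS A B := by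
    intro A B hAB hiAB hPA hMB
    have hΓA : Γ ⊆ A := by rw [← hiAB]; exact inter_subset_left
    have hΓB : Γ ⊆ B := by rw [← hiAB]; exact inter_subset_right
    have hAS : A ⊆ S := by rw [← hAB]; exact subset_union_left
    have hBS : B ⊆ S := by rw [← hAB]; exact subset_union_right
    have e1 : A \ Γ = P := by
      apply Subset.antisymm
      · rintro x ⟨hx, hxΓ⟩
        have : x ∈ P ∪ M := by rw [hPM]; exact ⟨hAS hx, hxΓ⟩
        rcases this with h | h
        · exact h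
        · exact absurd (hiAB ▸ ⟨hx, hMB h⟩ : x ∈ Γ) hxΓ
      · exact fun x hx => ⟨hPA hx, (hPs hx).2⟩
    have e2 : B \ Γ = M := by
      apply Subset.antisymm
      · rintro x ⟨hx, hxΓ⟩
        have : x ∈ P ∪ M := by rw [hPM]; exact ⟨hBS hx, hxΓ⟩
        rcases this with h | h
        · exact absurd (hiAB ▸ ⟨hPA h, hx⟩ : x ∈ Γ) hxΓ
        · exact h
      · exact fun x hx => ⟨hMB hx, (hMs hx).2⟩
    refine ⟨H, hH, ?_, ?_⟩
    · rw [← sdiff_union_of_subset Eqt_subset_Kp, image_union, ← hP, ← e1, hΓ,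
        sdiff_union_of_subset hΓA]
    · rw [← sdiff_union_of_subset Eqt_subset_Km, image_union, ← hM, ← e2, hΓ,
        sdiff_union_of_subset hΓB]
  have hSsplit : S \ Γ = (E \ Γ) ∪ (D \ Γ) := by rw [← hED, union_sdiff_distrib]
  rcases split P hPc hPs with h1 | h1 <;> rcases split M hMc hMs with h2 | h2
  · exfalso
    obtain ⟨x, hx, hxΓ⟩ := hDn
    have : x ∈ P ∪ M := by rw [hPM, hSsplit]; exact Or.inr ⟨hx, hxΓ⟩
    exact hxΓ (hi ▸ ⟨this.elim (fun h => h1 h) (fun h => h2 h), hx⟩)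
  · exact concl E D hED hi h1 h2
  · exact (concl D E (by rw [union_comm]; exact hED) (by rw [inter_comm]; exact hi) h1 h2).symm
  · exfalso
    obtain ⟨x, hx, hxΓ⟩ := hEn
    have : x ∈ P ∪ M := by rw [hPM, hSsplit]; exact Or.inl ⟨hx, hxΓ⟩
    exact hxΓ (hi ▸ ⟨hx, this.elim (fun h => h1 h) (fun h => h2 h)⟩)

/-- a standard plane curve decomposed into two closed pieces meeting in two points -/
theorem StdC.pair_real' {S E D : Set (ℝ × ℝ)} {p q : ℝ × ℝ} (hS : StdC S) (hpq : p ≠ q)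
    (hED : E ∪ D = S) (hi : E ∩ D = {p, q}) (hEc : IsClosed E) (hDc : IsClosed D)
    (hEn : (E \ {p, q}).Nonempty) (hDn : (D \ {p, q}).Nonempty) : StdS E D := by
  obtain ⟨H, hH, hHS⟩ := hS
  have hmp : p ∈ E ∩ D := by rw [hi]; simp
  have hmq : q ∈ E ∩ D := by rw [hi]; simp
  have hp : p ∈ S := by rw [← hED]; exact Or.inl hmp.1
  have hq : q ∈ S := by rw [← hED]; exact Or.inl hmq.1
  rw [← hHS] at hp hq
  obtain ⟨p', hp', rfl⟩ := hp
  obtain ⟨q', hq', rfl⟩ := hq
  obtain ⟨M, hM, hMS, h1, h2⟩ := mk_all hp' hq' (fun h => hpq (by rw [h]))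
  have h1' : M.symm (1, 0) = p' := by rw [← h1]; simp
  have h2' : M.symm (-1, 0) = q' := by rw [← h2]; simp
  refine StdS_of_closed (H := M.symm.trans H) (hM.symm.trans hH) (S := S) (Γ := {H p', H q'})
    ?_ ?_ hED hi hEc hDc hEn hDn
  · rw [trans_image, ← hHS]
    congr 1
    nth_rewrite 1 [← hMS]
    exact symm_image_image' M _
  · rw [trans_image, Eqt_real, image_pair, image_pair, h1', h2']

/-- **2-dimensional cut lemma, set version.** -/
theorem StdC.cut_real {E₁ E₂ D : Set (ℝ × ℝ)} {p q : ℝ × ℝ} (hpq : p ≠ q)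
    (hc1 : IsClosed E₁) (hc2 : IsClosed E₂) (hcD : IsClosed D)
    (h12 : E₁ ∩ E₂ = {p, q}) (h1D : E₁ ∩ D = {p, q}) (h2D : E₂ ∩ D = {p, q})
    (hn1 : (E₁ \ {p, q}).Nonempty) (hn2 : (E₂ \ {p, q}).Nonempty) (hnD : (D \ {p, q}).Nonempty)
    (hA : StdC (E₁ ∪ D)) (hB : StdC (E₂ ∪ D)) : StdC (E₁ ∪ E₂) :=
  ((hA.pair_real' hpq rfl h1D hc1 hcD hn1 hnD).cut polyNorm_real
    (hB.pair_real' hpq rfl h2D hc2 hcD hn2 hnD) (by rw [h12, h1D]) (by rw [h2D, h1D])).stdC

end Crest.Agent.R096.Pl
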