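import Crest.Agent.R096.Al1_63
import Crest.Agent.R096.Lc2_451
import Crest.Agent.R096.PlSet_296

/-!
# R096/Al2_63 (helper63, row 96, P2-ALEX, dimension 2, part 2)

Realisation of finite sets of lattice squares (doubled coordinates) in the plane, their boundary,
and the 2-dimensional cut lemma in combinatorial form.
-/

set_option autoImplicit false

namespace Crest.Agent.R096.Al_63

open Set Crest.Agent.R096.Lc_451 Crest.Agent.R096.Pl

/-- closed square with centre `s / 2` -/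
def sq (s : Pt) : Set (ℝ × ℝ) := {x | |2 * x.1 - s.1| ≤ 1 ∧ |2 * x.2 - s.2| ≤ 1}

/-- union of the closed squares -/
def area (W : Finset Pt) : Set (ℝ × ℝ) := ⋃ s ∈ W, sq s

/-- `x` lies in a lattice square outside `W` -/
def touch (W : Finset Pt) (x : ℝ × ℝ) : Prop := ∃ t, Sq t ∧ t ∉ W ∧ x ∈ sq t

/-- the boundary -/
def bdr (W : Finset Pt) : Set (ℝ × ℝ) := {x | x ∈ area W ∧ touch W x}

theorem mem_area {W : Finset Pt} {x : ℝ × ℝ} : x ∈ area W ↔ ∃ s ∈ W, x ∈ sq s := by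
  simp [area]

theorem isClosed_sq (s : Pt) : IsClosed (sq s) := by
  have h1 : IsClosed {x : ℝ × ℝ | |2 * x.1 - s.1| ≤ 1} :=
    isClosed_le (by fun_prop) continuous_const
  have h2 : IsClosed {x : ℝ × ℝ | |2 * x.2 - s.2| ≤ 1} :=
    isClosed_le (by fun_prop) continuous_const
  exact h1.inter h2

theorem isClosed_area (W : Finset Pt) : IsClosed (area W) :=
  W.finite_toSet.isClosed_biUnion fun s _ => isClosed_sq s

theorem sq_eq (s : Pt) : sq s = Icc (((s.1 : ℝ) - 1) / 2) ((s.1 + 1) / 2) ×ˢ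
    Icc (((s.2 : ℝ) - 1) / 2) ((s.2 + 1) / 2) := by
  ext x
  simp only [sq, mem_ofPred_eq, mem_prod, mem_Icc, abs_le]
  constructor
  · rintro ⟨⟨h1, h2⟩, h3, h4⟩
    refine ⟨⟨?_, ?_⟩, ?_, ?_⟩ <;> linarith
  · rintro ⟨⟨h1, h2⟩, h3, h4⟩
    refine ⟨⟨?_, ?_⟩, ?_, ?_⟩ <;> linarith

theorem isCompact_sq (s : Pt) : IsCompact (sq s) := by
  rw [sq_eq]; exact isCompact_Icc.prod isCompact_Icc

theorem isCompact_area (W : Finset Pt) : IsCompact (area W) :=
  W.isCompact_biUnion fun s _ => isCompact_sq s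

theorem loc1 (x : ℝ) : ∃ ε > 0, ∀ y, |y - x| < ε → ∀ a : ℤ, a % 2 = 1 → |2 * y - a| ≤ 1 →
    |2 * x - a| ≤ 1 := by
  rcases eq_or_lt_of_le (Int.floor_le x) with h | h
  · refine ⟨1, one_pos, fun y hy a ha h2 => ?_⟩
    set k := ⌊x⌋
    rw [abs_lt] at hy
    rw [abs_le] at h2
    have e1 : (2 * k - 3 : ℝ) < a := by linarith [hy.1, h2.2]
    have e2 : (a : ℝ) < 2 * k + 3 := by linarith [hy.2, h2.1]
    have e1' : 2 * k - 3 < a := by exact_mod_cast e1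
    have e2' : a < 2 * k + 3 := by exact_mod_cast e2
    have : a = 2 * k - 1 ∨ a = 2 * k + 1 := by omega
    rw [← h]
    rcases this with rfl | rfl
    · push_cast; rw [abs_le]; constructor <;> linarith
    · push_cast; rw [abs_le]; constructor <;> linarith
  · set k := ⌊x⌋
    have h' : x < k + 1 := Int.lt_floor_add_one x
    refine ⟨min (x - k) (k + 1 - x), lt_min (by linarith) (by linarith), fun y hy a ha h2 => ?_⟩
    rw [lt_min_iff, abs_lt, abs_lt] at hy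
    rw [abs_le] at h2
    have e1 : (2 * k - 1 : ℝ) < a := by linarith [hy.1.1, h2.2]
    have e2 : (a : ℝ) < 2 * k + 3 := by linarith [hy.2.2, h2.1]
    have e1' : 2 * k - 1 < a := by exact_mod_cast e1
    have e2' : a < 2 * k + 3 := by exact_mod_cast e2
    have : a = 2 * k + 1 := by omega
    rw [this]
    push_cast; rw [abs_le]; constructor <;> linarith

theorem loc2 (x : ℝ × ℝ) : ∃ ε > 0, ∀ y ∈ Metric.ball x ε, ∀ s, Sq s → y ∈ sq s → x ∈ sq s := by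
  obtain ⟨e1, h1, h1'⟩ := loc1 x.1
  obtain ⟨e2, h2, h2'⟩ := loc1 x.2
  refine ⟨min e1 e2, lt_min h1 h2, fun y hy s hs hys => ?_⟩
  rw [Metric.mem_ball, Prod.dist_eq, Real.dist_eq, Real.dist_eq, max_lt_iff, lt_min_iff,
    lt_min_iff] at hy
  exact ⟨h1' y.1 hy.1.1 s.1 hs.1 hys.1, h2' y.2 hy.2.2 s.2 hs.2 hys.2⟩

theorem exists_sq (x : ℝ × ℝ) : ∃ s, Sq s ∧ x ∈ sq s := by
  refine ⟨(2 * ⌊x.1⌋ + 1, 2 * ⌊x.2⌋ + 1), ⟨by simp only; omega, by simp only; omega⟩, ?_, ?_⟩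
  · have h1 := Int.floor_le x.1
    have h2 := (Int.lt_floor_add_one x.1).le
    push_cast; rw [abs_le]; constructor <;> linarith
  · have h1 := Int.floor_le x.2
    have h2 := (Int.lt_floor_add_one x.2).le
    push_cast; rw [abs_le]; constructor <;> linarith

theorem isClosed_touch (W : Finset Pt) : IsClosed {x | touch W x} := by
  rw [← isOpen_compl_iff, Metric.isOpen_iff]
  intro x hx
  obtain ⟨ε, hε, h⟩ := loc2 x
  refine ⟨ε, hε, fun y hy => ?_⟩
  rintro ⟨t, ht, htW, hyt⟩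
  exact hx ⟨t, ht, htW, h y hy t ht hyt⟩

/-- two closed lattice intervals -/
theorem two1 {a b : ℤ} {x : ℝ} (ha : a % 2 = 1) (hb : b % 2 = 1) (h1 : |2 * x - a| ≤ 1)
    (h2 : |2 * x - b| ≤ 1) : a = b ∨ (b = a + 2 ∧ 2 * x = a + 1) ∨ (b = a - 2 ∧ 2 * x = a - 1) := by
  rw [abs_le] at h1 h2
  have e1 : (b : ℝ) ≤ a + 2 := by linarith
  have e2 : (a : ℝ) - 2 ≤ b := by linarith
  have e1' : b ≤ a + 2 := by exact_mod_cast e1
  have e2' : a - 2 ≤ b := by exact_mod_cast e2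
  have : b = a ∨ b = a + 2 ∨ b = a - 2 := by omega
  rcases this with rfl | rfl | rfl
  · exact Or.inl rfl
  · right; left
    refine ⟨rfl, ?_⟩
    push_cast at h2
    linarith
  · right; right
    refine ⟨rfl, ?_⟩
    push_cast at h2
    linarith

/-- interior points of a square lie in no other square -/
theorem sq_interior {s t : Pt} (hs : Sq s) (ht : Sq t) {x : ℝ × ℝ} (h1 : |2 * x.1 - s.1| < 1)
    (h2 : |2 * x.2 - s.2| < 1) (hx : x ∈ sq t) : s = t := by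
  have a1 := two1 hs.1 ht.1 h1.le hx.1
  have a2 := two1 hs.2 ht.2 h2.le hx.2
  rw [abs_lt] at h1 h2
  ext
  · rcases a1 with h | ⟨_, h⟩ | ⟨_, h⟩
    · exact h
    · linarith
    · linarith
  · rcases a2 with h | ⟨_, h⟩ | ⟨_, h⟩
    · exact h
    · linarith
    · linarith

theorem touch_subset_closure {W : Finset Pt} (hW : ∀ s ∈ W, Sq s) {x : ℝ × ℝ} (h : touch W x) :
    x ∈ closure (area W)ᶜ := by
  obtain ⟨t, ht, htW, hx⟩ := h
  -- the points `x + r (c - x)`, `c` the centre of `t`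
  have hmem : ∀ r : ℝ, 0 < r → r ≤ 1 →
      ((1 - r) * x.1 + r * (t.1 / 2), (1 - r) * x.2 + r * (t.2 / 2)) ∈ (area W)ᶜ := by
    intro r h0 h1 hc
    rw [mem_area] at hc
    obtain ⟨s, hs, hxs⟩ := hc
    have := sq_interior ht (hW s hs) (x := ((1 - r) * x.1 + r * (t.1 / 2),
      (1 - r) * x.2 + r * (t.2 / 2))) ?_ ?_ hxs
    · rw [this] at htW; exact htW hs
    · have e : 2 * ((1 - r) * x.1 + r * ((t.1 : ℝ) / 2)) - t.1 = (1 - r) * (2 * x.1 - t.1) := by ring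
      simp only
      rw [e, abs_mul, abs_of_nonneg (by linarith : (0 : ℝ) ≤ 1 - r)]
      have := hx.1
      nlinarith [abs_nonneg (2 * x.1 - (t.1 : ℝ))]
    · have e : 2 * ((1 - r) * x.2 + r * ((t.2 : ℝ) / 2)) - t.2 = (1 - r) * (2 * x.2 - t.2) := by ring
      simp only
      rw [e, abs_mul, abs_of_nonneg (by linarith : (0 : ℝ) ≤ 1 - r)]
      have := hx.2
      nlinarith [abs_nonneg (2 * x.2 - (t.2 : ℝ))]
  have hlim : Filter.Tendsto (fun r : ℝ => ((1 - r) * x.1 + r * ((t.1 : ℝ) / 2),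
      (1 - r) * x.2 + r * ((t.2 : ℝ) / 2))) (nhdsWithin 0 (Set.Ioi 0)) (nhds x) := by
    have hc : Continuous (fun r : ℝ => ((1 - r) * x.1 + r * ((t.1 : ℝ) / 2),
      (1 - r) * x.2 + r * ((t.2 : ℝ) / 2))) := by fun_prop
    have := (hc.tendsto 0).mono_left (nhdsWithin_le_nhds (s := Set.Ioi 0))
    simpa using this
  refine mem_closure_of_tendsto hlim ?_
  filter_upwards [Ioc_mem_nhdsGT (zero_lt_one' ℝ)] with r hr
  exact hmem r hr.1 hr.2

theorem interior_area {W : Finset Pt} (hW : ∀ s ∈ W, Sq s) :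
    interior (area W) = {x | x ∈ area W ∧ ¬ touch W x} := by
  ext x
  constructor
  · intro h
    refine ⟨interior_subset h, fun ht => ?_⟩
    have := touch_subset_closure hW ht
    rw [closure_compl] at this
    exact this h
  · rintro ⟨h1, h2⟩
    obtain ⟨ε, hε, h⟩ := loc2 x
    rw [mem_interior_iff_mem_nhds, Metric.mem_nhds_iff]
    refine ⟨ε, hε, fun y hy => ?_⟩
    obtain ⟨s, hs, hys⟩ := exists_sq y
    rw [mem_area]
    refine ⟨s, ?_, hys⟩
    by_contra hsW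
    exact h2 ⟨s, hs, hsW, h y hy s hs hys⟩

theorem frontier_area {W : Finset Pt} (hW : ∀ s ∈ W, Sq s) : frontier (area W) = bdr W := by
  rw [(isClosed_area W).frontier_eq, interior_area hW]
  ext x
  simp only [bdr, mem_sdiff, mem_ofPred_eq, not_and, not_not]
  constructor
  · rintro ⟨h1, h2⟩; exact ⟨h1, h2 h1⟩
  · rintro ⟨h1, h2⟩; exact ⟨h1, fun _ => h2⟩

theorem interior_area_nonempty {W : Finset Pt} (hW : ∀ s ∈ W, Sq s) (hne : W.Nonempty) :
    (interior (area W)).Nonempty := by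
  obtain ⟨s, hs⟩ := hne
  refine ⟨(s.1 / 2, s.2 / 2), ?_⟩
  rw [interior_area hW]
  have e1 : |2 * ((s.1 : ℝ) / 2) - s.1| < 1 := by
    rw [show 2 * ((s.1 : ℝ) / 2) - s.1 = 0 by ring]; simp
  have e2 : |2 * ((s.2 : ℝ) / 2) - s.2| < 1 := by
    rw [show 2 * ((s.2 : ℝ) / 2) - s.2 = 0 by ring]; simp
  refine ⟨mem_area.2 ⟨s, hs, e1.le, e2.le⟩, ?_⟩
  rintro ⟨t, ht, htW, hx⟩
  have := sq_interior (hW s hs) ht (x := (s.1 / 2, s.2 / 2)) e1 e2 hx
  rw [← this] at htW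
  exact htW hs

/-- **the cut lemma in dimension 2, combinatorial form** -/
theorem cut2 {W1 W2 W : Finset Pt} (h1 : ∀ s ∈ W1, Sq s) (h2 : ∀ s ∈ W2, Sq s)
    (hU : ∀ s, s ∈ W ↔ s ∈ W1 ∨ s ∈ W2) (hn1 : W1.Nonempty) (hn2 : W2.Nonempty)
    (LC : ∀ a ∈ W1, ((a.1 - 2, a.2) : Pt) ∉ W2) (hd : ∀ a ∈ W1, a ∉ W2)
    {p q : ℝ × ℝ} (hpq : p ≠ q)
    (hpz : ∃ m : ℤ, p.2 = m) (hqz : ∃ m : ℤ, q.2 = m)
    (hD : ∀ x, x ∈ area W1 → x ∈ area W2 → touch W x → x = p ∨ x = q)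
    (hp : p ∈ area W1 ∧ p ∈ area W2 ∧ touch W p) (hq : q ∈ area W1 ∧ q ∈ area W2 ∧ touch W q)
    (hmid : ∃ x, x ∈ area W1 ∧ x ∈ area W2 ∧ x ≠ p ∧ x ≠ q)
    (H1 : StdC (bdr W1)) (H2 : StdC (bdr W2)) : StdC (bdr W) := by
  set E1 : Set (ℝ × ℝ) := {x | x ∈ area W1 ∧ touch W x} with hE1
  set E2 : Set (ℝ × ℝ) := {x | x ∈ area W2 ∧ touch W x} with hE2
  set D : Set (ℝ × ℝ) := area W1 ∩ area W2 with hDdef
  have hb1 : bdr W1 = E1 ∪ D := by
    ext x
    simp only [bdr, hE1, hDdef, mem_ofPred_eq, mem_union, mem_inter_iff]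
    constructor
    · rintro ⟨hx, t, ht, htW, hxt⟩
      by_cases h : t ∈ W2
      · exact Or.inr ⟨hx, mem_area.2 ⟨t, h, hxt⟩⟩
      · exact Or.inl ⟨hx, t, ht, fun hh => ((hU t).1 hh).elim htW h, hxt⟩
    · rintro (⟨hx, t, ht, htW, hxt⟩ | ⟨hx, hx2⟩)
      · exact ⟨hx, t, ht, fun hh => htW ((hU t).2 (Or.inl hh)), hxt⟩
      · obtain ⟨t, ht, hxt⟩ := mem_area.1 hx2
        exact ⟨hx, t, h2 t ht, fun hh => hd t hh ht, hxt⟩
  have hb2 : bdr W2 = E2 ∪ D := by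
    ext x
    simp only [bdr, hE2, hDdef, mem_ofPred_eq, mem_union, mem_inter_iff]
    constructor
    · rintro ⟨hx, t, ht, htW, hxt⟩
      by_cases h : t ∈ W1
      · exact Or.inr ⟨mem_area.2 ⟨t, h, hxt⟩, hx⟩
      · exact Or.inl ⟨hx, t, ht, fun hh => ((hU t).1 hh).elim h htW, hxt⟩
    · rintro (⟨hx, t, ht, htW, hxt⟩ | ⟨hx2, hx⟩)
      · exact ⟨hx, t, ht, fun hh => htW ((hU t).2 (Or.inr hh)), hxt⟩
      · obtain ⟨t, ht, hxt⟩ := mem_area.1 hx2
        exact ⟨hx, t, h1 t ht, fun hh => hd t ht hh, hxt⟩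
  have hb : bdr W = E1 ∪ E2 := by
    ext x
    simp only [bdr, hE1, hE2, mem_ofPred_eq, mem_union, mem_area]
    constructor
    · rintro ⟨⟨s, hs, hxs⟩, ht⟩
      rcases (hU s).1 hs with h | h
      · exact Or.inl ⟨⟨s, h, hxs⟩, ht⟩
      · exact Or.inr ⟨⟨s, h, hxs⟩, ht⟩
    · rintro (⟨⟨s, hs, hxs⟩, ht⟩ | ⟨⟨s, hs, hxs⟩, ht⟩)
      · exact ⟨⟨s, (hU s).2 (Or.inl hs), hxs⟩, ht⟩
      · exact ⟨⟨s, (hU s).2 (Or.inr hs), hxs⟩, ht⟩
  have hc1 : IsClosed E1 := (isClosed_area W1).inter (isClosed_touch W)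
  have hc2 : IsClosed E2 := (isClosed_area W2).inter (isClosed_touch W)
  have hcD : IsClosed D := (isClosed_area W1).inter (isClosed_area W2)
  have h12 : E1 ∩ E2 = {p, q} := by
    ext x
    simp only [hE1, hE2, mem_inter_iff, mem_ofPred_eq, mem_insert_iff, mem_singleton_iff]
    constructor
    · rintro ⟨⟨a, b⟩, c, _⟩; exact hD x a c b
    · rintro (rfl | rfl)
      · exact ⟨⟨hp.1, hp.2.2⟩, hp.2.1, hp.2.2⟩
      · exact ⟨⟨hq.1, hq.2.2⟩, hq.2.1, hq.2.2⟩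
  have h1D : E1 ∩ D = {p, q} := by
    ext x
    simp only [hE1, hDdef, mem_inter_iff, mem_ofPred_eq, mem_insert_iff, mem_singleton_iff]
    constructor
    · rintro ⟨⟨a, b⟩, c, d⟩; exact hD x a d b
    · rintro (rfl | rfl)
      · exact ⟨⟨hp.1, hp.2.2⟩, hp.1, hp.2.1⟩
      · exact ⟨⟨hq.1, hq.2.2⟩, hq.1, hq.2.1⟩
  have h2D : E2 ∩ D = {p, q} := by
    ext x
    simp only [hE2, hDdef, mem_inter_iff, mem_ofPred_eq, mem_insert_iff, mem_singleton_iff]
    constructor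
    · rintro ⟨⟨a, b⟩, c, d⟩; exact hD x c d b
    · rintro (rfl | rfl)
      · exact ⟨⟨hp.2.1, hp.2.2⟩, hp.1, hp.2.1⟩
      · exact ⟨⟨hq.2.1, hq.2.2⟩, hq.1, hq.2.1⟩
  -- a point with half-integer second coordinate is neither `p` nor `q`
  have hhalf : ∀ (m : Pt), Sq m → ∀ r : ℝ, ((r, (m.2 : ℝ) / 2) : ℝ × ℝ) ∉ ({p, q} : Set (ℝ × ℝ)) := by
    intro m hm r hmem
    have key : ∀ z : ℝ × ℝ, (∃ k : ℤ, z.2 = k) → ((r, (m.2 : ℝ) / 2) : ℝ × ℝ) ≠ z := by
      rintro z ⟨k, hk⟩ rfl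
      simp only at hk
      have e : (m.2 : ℝ) = 2 * k := by linarith
      have e' : m.2 = 2 * k := by exact_mod_cast e
      have := hm.2
      omega
    rcases hmem with h | h
    · exact key p hpz h
    · exact key q hqz h
  have hn1' : (E1 \ {p, q}).Nonempty := by
    obtain ⟨m, hm, hmin⟩ := Finset.exists_min_image W1 (fun s => s.1) hn1
    refine ⟨(((m.1 : ℝ) - 1) / 2, (m.2 : ℝ) / 2), ⟨?_, ?_⟩, hhalf m (h1 m hm) _⟩
    · refine mem_area.2 ⟨m, hm, ?_, ?_⟩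
      · simp only; rw [show 2 * (((m.1 : ℝ) - 1) / 2) - m.1 = -1 by ring]; simp
      · simp only; rw [show 2 * ((m.2 : ℝ) / 2) - m.2 = 0 by ring]; simp
    · refine ⟨(m.1 - 2, m.2), ?_, ?_, ?_, ?_⟩
      · have := h1 m hm
        refine ⟨?_, this.2⟩
        have h := this.1
        simp only; omega
      · intro hW
        rcases (hU _).1 hW with h | h
        · have := hmin _ h
          simp only at this
          omega
        · exact LC m hm h
      · simp only; push_cast; rw [show 2 * (((m.1 : ℝ) - 1) / 2) - (m.1 - 2) = 1 by ring]; simp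
      · simp only; rw [show 2 * ((m.2 : ℝ) / 2) - m.2 = 0 by ring]; simp
  have hn2' : (E2 \ {p, q}).Nonempty := by
    obtain ⟨m, hm, hmax⟩ := Finset.exists_max_image W2 (fun s => s.1) hn2
    refine ⟨(((m.1 : ℝ) + 1) / 2, (m.2 : ℝ) / 2), ⟨?_, ?_⟩, hhalf m (h2 m hm) _⟩
    · refine mem_area.2 ⟨m, hm, ?_, ?_⟩
      · simp only; rw [show 2 * (((m.1 : ℝ) + 1) / 2) - m.1 = 1 by ring]; simp
      · simp only; rw [show 2 * ((m.2 : ℝ) / 2) - m.2 = 0 by ring]; simp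
    · refine ⟨(m.1 + 2, m.2), ?_, ?_, ?_, ?_⟩
      · have := h2 m hm
        refine ⟨?_, this.2⟩
        have h := this.1
        simp only; omega
      · intro hW
        rcases (hU _).1 hW with h | h
        · apply LC _ h
          simpa using hm
        · have := hmax _ h
          simp only at this
          omega
      · simp only; push_cast; rw [show 2 * (((m.1 : ℝ) + 1) / 2) - (m.1 + 2) = -1 by ring]; simp
      · simp only; rw [show 2 * ((m.2 : ℝ) / 2) - m.2 = 0 by ring]; simp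
  have hnD' : (D \ {p, q}).Nonempty := by
    obtain ⟨x, hx1, hx2, hxp, hxq⟩ := hmid
    refine ⟨x, ⟨hx1, hx2⟩, ?_⟩
    rintro (h | h)
    · exact hxp h
    · exact hxq h
  rw [hb]
  rw [hb1] at H1
  rw [hb2] at H2
  exact StdC.cut_real hpq hc1 hc2 hcD h12 h1D h2D hn1' hn2' hnD' H1 H2

end Crest.Agent.R096.Al_63
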