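import Crest.Agent.R096.PlMark_296

/-!
# Coning a PL bijection of the double cone sphere; marks on the plane curve `S1 ℝ`
(helper296, row 96, P2-Y)
-/

namespace Crest.Agent.R096.Pl

open Set Metric Filter Topology

set_option linter.unusedSectionVars false

variable {F : Type*} [NormedAddCommGroup F] [NormedSpace ℝ F]

/-- the positively homogeneous extension -/
noncomputable def coneExt (g : F × ℝ → F × ℝ) (x : F × ℝ) : F × ℝ := N1 x • g ((N1 x)⁻¹ • x)

theorem N1_pos {x : F × ℝ} (hx : x ≠ 0) : 0 < N1 x :=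
  lt_of_le_of_ne (N1_nonneg x) (fun h => hx (N1_eq_zero.1 h.symm))

theorem normalize_mem {x : F × ℝ} (hx : x ≠ 0) : (N1 x)⁻¹ • x ∈ S1 F := by
  show N1 _ = 1
  have := N1_pos hx
  rw [N1_smul, abs_of_pos (by positivity)]
  field_simp

theorem coneExt_zero (g : F × ℝ → F × ℝ) : coneExt g 0 = 0 := by
  unfold coneExt; rw [N1_zero]; simp

theorem coneExt_of_mem {g : F × ℝ → F × ℝ} {x : F × ℝ} (hx : x ∈ S1 F) : coneExt g x = g x := by
  have : N1 x = 1 := hx
  unfold coneExt; rw [this]; simp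

theorem N1_coneExt {g : F × ℝ → F × ℝ} (hg : MapsTo g (S1 F) (S1 F)) (x : F × ℝ) :
    N1 (coneExt g x) = N1 x := by
  by_cases hx : x = 0
  · rw [hx, coneExt_zero]
  · have h := hg (normalize_mem hx)
    have h' : N1 (g ((N1 x)⁻¹ • x)) = 1 := h
    unfold coneExt
    rw [N1_smul, h', abs_of_nonneg (N1_nonneg x), mul_one]

theorem coneExt_leftInv {g g' : F × ℝ → F × ℝ} (hg : MapsTo g (S1 F) (S1 F))
    (h : ∀ x ∈ S1 F, g' (g x) = x) (x : F × ℝ) : coneExt g' (coneExt g x) = x := by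
  by_cases hx : x = 0
  · rw [hx, coneExt_zero, coneExt_zero]
  · have hp := N1_pos hx
    have e : (N1 (coneExt g x))⁻¹ • coneExt g x = g ((N1 x)⁻¹ • x) := by
      rw [N1_coneExt hg]
      unfold coneExt
      rw [smul_smul, inv_mul_cancel₀ hp.ne', one_smul]
    have e2 : coneExt g' (coneExt g x) = N1 (coneExt g x) • g' ((N1 (coneExt g x))⁻¹ •
      coneExt g x) := rfl
    rw [e2, e, h _ (normalize_mem hx), N1_coneExt hg, smul_smul, mul_inv_cancel₀ hp.ne', one_smul]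

theorem PLMap_coneExt (hF : PolyNorm F) [FiniteDimensional ℝ F] {g : F × ℝ → F × ℝ}
    (hc : ContinuousOn g (S1 F)) (hsel : SelOn g (S1 F)) : PLMap (coneExt g) := by
  obtain ⟨G, hG, hsel⟩ := hsel
  have hne : G.Nonempty := by
    have h0 : ((0 : F), (1 : ℝ)) ∈ S1 F := by show N1 _ = 1; simp [N1]
    obtain ⟨a, ha, -⟩ := hsel _ h0
    exact ⟨a, ha⟩
  let T : ((F × ℝ) →ᵃ[ℝ] (F × ℝ)) → F × ℝ → F × ℝ := fun a x => a.linear x + N1 x • a 0
  have hT : ∀ a, PLMap (T a) := fun a =>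
    (PLMap.of_affine a.linear.toAffineMap).add ((N1_pl hF).smul_const _)
  have hT0 : ∀ a, T a 0 = 0 := fun a => by simp [T, N1_zero]
  have key : ∀ x, ∃ a ∈ G, coneExt g x = T a x := by
    intro x
    by_cases hx : x = 0
    · obtain ⟨a, ha⟩ := hne
      exact ⟨a, ha, by rw [hx, coneExt_zero, hT0]⟩
    · obtain ⟨a, ha, h⟩ := hsel _ (normalize_mem hx)
      refine ⟨a, ha, ?_⟩
      have hp := N1_pos hx
      have hdec : a ((N1 x)⁻¹ • x) = a.linear ((N1 x)⁻¹ • x) + a 0 := by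
        have := congrFun (AffineMap.decomp a) ((N1 x)⁻¹ • x)
        simpa using this
      show N1 x • g ((N1 x)⁻¹ • x) = a.linear x + N1 x • a 0
      rw [h, hdec, smul_add, map_smul, smul_smul, mul_inv_cancel₀ hp.ne', one_smul]
  refine PLMap.of_finite ?_ (F := T '' G) (hG.image _) ?_ ?_
  · rw [continuous_iff_continuousAt]
    intro x
    by_cases hx : x = 0
    · subst hx
      have hsum : Tendsto (fun x => ∑ a ∈ hG.toFinset, ‖T a x‖) (𝓝 0) (𝓝 0) := by
        have : Tendsto (fun x => ∑ a ∈ hG.toFinset, ‖T a x‖) (𝓝 0)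
            (𝓝 (∑ a ∈ hG.toFinset, ‖T a 0‖)) :=
          (continuous_finsetSum _ fun a _ => (hT a).continuous.norm).tendsto 0
        simpa [hT0] using this
      show Tendsto (coneExt g) (𝓝 0) (𝓝 (coneExt g 0))
      rw [coneExt_zero]
      refine squeeze_zero_norm (fun x => ?_) hsum
      obtain ⟨a, ha, h⟩ := key x
      rw [h]
      exact Finset.single_le_sum (f := fun a => ‖T a x‖) (fun a _ => norm_nonneg _)
        (hG.mem_toFinset.2 ha)
    · have hopen : IsOpen ({0}ᶜ : Set (F × ℝ)) := isOpen_compl_singleton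
      refine ContinuousOn.continuousAt (s := {0}ᶜ) ?_ (hopen.mem_nhds hx)
      have h1 : ContinuousOn (fun x : F × ℝ => (N1 x)⁻¹ • x) {0}ᶜ :=
        (N1_continuous.continuousOn.inv₀ fun y hy => (N1_pos hy).ne').smul continuousOn_id
      exact N1_continuous.continuousOn.smul
        (hc.comp h1 fun y hy => normalize_mem hy)
  · rintro _ ⟨a, _, rfl⟩
    exact hT a
  · intro x
    obtain ⟨a, ha, h⟩ := key x
    exact ⟨T a, mem_image_of_mem _ ha, h⟩

/-- **coning**: a PL bijection of the double cone sphere extends to a PL homeo of `F × ℝ` -/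
theorem exists_cone (hF : PolyNorm F) [FiniteDimensional ℝ F] {g g' : F × ℝ → F × ℝ}
    (hc : ContinuousOn g (S1 F)) (hsel : SelOn g (S1 F))
    (hc' : ContinuousOn g' (S1 F)) (hsel' : SelOn g' (S1 F))
    (hm : MapsTo g (S1 F) (S1 F)) (hm' : MapsTo g' (S1 F) (S1 F))
    (hl : ∀ x ∈ S1 F, g' (g x) = x) (hr : ∀ x ∈ S1 F, g (g' x) = x) :
    ∃ H : (F × ℝ) ≃ₜ (F × ℝ), PLH H ∧ (∀ x ∈ S1 F, H x = g x) ∧ (∀ x, N1 (H x) = N1 x) ∧
      H '' S1 F = S1 F := by
  refine ⟨mkH (coneExt g) (coneExt g') (PLMap_coneExt hF hc hsel) (PLMap_coneExt hF hc' hsel')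
    (coneExt_leftInv hm hl) (coneExt_leftInv hm' hr), PLH_mkH _ _ _ _ _ _,
    fun x hx => coneExt_of_mem hx, fun x => N1_coneExt hm x, ?_⟩
  apply Subset.antisymm
  · rintro _ ⟨x, hx, rfl⟩
    show N1 _ = 1
    rw [mkH_apply, N1_coneExt hm]; exact hx
  · intro y hy
    refine ⟨g' y, hm' hy, ?_⟩
    rw [mkH_apply, coneExt_of_mem (hm' hy), hr y hy]

/-! ### `F = ℝ` -/

theorem polyNorm_real : PolyNorm ℝ where
  pl := PLMap.id.abs
  vp := by
    refine ⟨{-1, 1}, by simp, ?_⟩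
    rw [convexHull_pair, segment_eq_Icc (by norm_num), Real.closedBall_eq_Icc]
    norm_num

/-- the slide of `[-1,1]` which fixes `±1` and moves `s` to `0` -/
noncomputable def sl (s x : ℝ) : ℝ := if x ≤ s then (x - s) / (1 + s) else (x - s) / (1 - s)

/-- inverse of the slide -/
noncomputable def sli (s y : ℝ) : ℝ := if y ≤ 0 then s + (1 + s) * y else s + (1 - s) * y

theorem sli_sl {s : ℝ} (h1 : -1 < s) (h2 : s < 1) (x : ℝ) : sli s (sl s x) = x := by
  have h3 : 0 < 1 + s := by linarith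
  have h4 : 0 < 1 - s := by linarith
  unfold sl sli
  by_cases h : x ≤ s
  · rw [if_pos h, if_pos (div_nonpos_of_nonpos_of_nonneg (by linarith) h3.le)]
    field_simp; ring
  · have h' : s < x := not_le.1 h
    rw [if_neg h, if_neg (not_le.2 (div_pos (by linarith) h4))]
    field_simp; ring

theorem sl_sli {s : ℝ} (h1 : -1 < s) (h2 : s < 1) (y : ℝ) : sl s (sli s y) = y := by
  have h3 : 0 < 1 + s := by linarith
  have h4 : 0 < 1 - s := by linarith
  unfold sl sli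
  by_cases h : y ≤ 0
  · rw [if_pos h, if_pos (by nlinarith)]
    field_simp; ring
  · have h' : 0 < y := not_le.1 h
    rw [if_neg h, if_neg (by nlinarith)]
    field_simp; ring

theorem sl_mem {s : ℝ} (h1 : -1 < s) (h2 : s < 1) {x : ℝ} (hx : |x| ≤ 1) : |sl s x| ≤ 1 := by
  have h3 : 0 < 1 + s := by linarith
  have h4 : 0 < 1 - s := by linarith
  rw [abs_le] at hx ⊢
  unfold sl
  split_ifs with h
  · constructor
    · rw [le_div_iff₀ h3]; linarith
    · rw [div_le_iff₀ h3]; linarith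
  · constructor
    · rw [le_div_iff₀ h4]; linarith
    · rw [div_le_iff₀ h4]; linarith

theorem sli_mem {s : ℝ} (h1 : -1 < s) (h2 : s < 1) {x : ℝ} (hx : |x| ≤ 1) : |sli s x| ≤ 1 := by
  have h3 : 0 < 1 + s := by linarith
  have h4 : 0 < 1 - s := by linarith
  rw [abs_le] at hx ⊢
  unfold sli
  split_ifs with h
  · constructor <;> nlinarith
  · constructor <;> nlinarith

theorem sl_pl {s : ℝ} (h1 : -1 < s) (h2 : s < 1) : PLMap (sl s) := by
  have hc : Continuous (sl s) := by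
    unfold sl
    refine Continuous.if_le (by fun_prop) (by fun_prop) continuous_id continuous_const ?_
    intro x hx
    rw [hx]; simp
  refine PLMap.of_two hc (g₁ := fun x => (x - s) / (1 + s)) (g₂ := fun x => (x - s) / (1 - s))
    ((PLMap.id.sub_const s).div_const _) ((PLMap.id.sub_const s).div_const _) fun x => ?_
  unfold sl; split_ifs
  · left; rfl
  · right; rfl

theorem sli_pl (s : ℝ) : PLMap (sli s) := by
  have hc : Continuous (sli s) := by
    unfold sli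
    refine Continuous.if_le (by fun_prop) (by fun_prop) continuous_id continuous_const ?_
    intro x hx
    rw [hx]; simp
  refine PLMap.of_two hc (g₁ := fun x => s + (1 + s) * x) (g₂ := fun x => s + (1 - s) * x)
    ((PLMap.const s).add (PLMap.id.const_mul _)) ((PLMap.const s).add (PLMap.id.const_mul _))
    fun x => ?_
  unfold sli; split_ifs
  · left; rfl
  · right; rfl

theorem sl_end {s : ℝ} (h1 : -1 < s) (h2 : s < 1) : sl s (-1) = -1 ∧ sl s 1 = 1 := by
  have h3 : 0 < 1 + s := by linarith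
  have h4 : 0 < 1 - s := by linarith
  unfold sl
  rw [if_pos h1.le, if_neg (not_le.2 h2)]
  constructor <;> field_simp
  ring

theorem sli_end {s : ℝ} : sli s (-1) = -1 ∧ sli s 1 = 1 := by
  unfold sli
  rw [if_pos (by norm_num), if_neg (by norm_num)]
  constructor <;> ring

/-- transfer of a PL self map `f` of `[-1,1]` to the upper half of `S1 ℝ` -/
noncomputable def onUp (f : ℝ → ℝ) (p : ℝ × ℝ) : ℝ × ℝ :=
  if 0 ≤ p.2 then (f p.1, 1 - |f p.1|) else p

theorem onUp_mapsTo {f : ℝ → ℝ} (hf : ∀ x, |x| ≤ 1 → |f x| ≤ 1) : MapsTo (onUp f) (S1 ℝ) (S1 ℝ) := by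
  intro p hp
  have hp' : |p.1| + |p.2| = 1 := hp
  unfold onUp
  split_ifs with h
  · have : |f p.1| ≤ 1 := hf _ (by have := abs_nonneg p.2; linarith)
    show |f p.1| + abs (1 - |f p.1|) = 1
    rw [abs_of_nonneg (by linarith : 0 ≤ 1 - |f p.1|)]; ring
  · exact hp

theorem onUp_continuousOn {f : ℝ → ℝ} (hf : Continuous f) (h1 : f 1 = 1) (h2 : f (-1) = -1) :
    ContinuousOn (onUp f) (S1 ℝ) := by
  have hS : S1 ℝ = Kp ℝ ∪ Km ℝ := Kp_union_Km.symm
  have hKp : IsClosed (Kp ℝ) := by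
    have : Kp ℝ = {p : ℝ × ℝ | 0 ≤ p.2} ∩ {p | N1 p = 1} := rfl
    rw [this]
    exact (isClosed_le continuous_const continuous_snd).inter
      (isClosed_eq N1_continuous continuous_const)
  have hKm : IsClosed (Km ℝ) := by
    have : Km ℝ = {p : ℝ × ℝ | p.2 ≤ 0} ∩ {p | N1 p = 1} := rfl
    rw [this]
    exact (isClosed_le continuous_snd continuous_const).inter
      (isClosed_eq N1_continuous continuous_const)
  have hup : ContinuousOn (onUp f) (Kp ℝ) := by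
    have : Continuous fun p : ℝ × ℝ => (f p.1, 1 - |f p.1|) := by fun_prop
    refine this.continuousOn.congr fun p hp => ?_
    unfold onUp; rw [if_pos hp.1]
  have hlo : ContinuousOn (onUp f) (Km ℝ) := by
    refine continuousOn_id.congr fun p hp => ?_
    unfold onUp
    split_ifs with h
    · have h0 : p.2 = 0 := le_antisymm hp.1 h
      have hN : |p.1| + |p.2| = 1 := hp.2
      rw [h0, abs_zero, add_zero] at hN
      rcases eq_or_eq_neg_of_abs_eq hN with h | h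
      · rw [h, h1]; ext
        · simp [h]
        · simp [h0]
      · rw [h, h2]; ext
        · simp [h]
        · simp [h0]
    · rfl
  rw [hS]
  exact hup.union_of_isClosed hlo hKp hKm

theorem onUp_sel {f : ℝ → ℝ} (hf : PLMap f) : SelOn (onUp f) (S1 ℝ) := by
  have h1 : PLMap fun p : ℝ × ℝ => (f p.1, 1 - |f p.1|) :=
    (hf.comp PLMap.id.fst).prodMk ((PLMap.const 1).sub (hf.comp PLMap.id.fst).abs)
  obtain ⟨G, hG, hG'⟩ := h1.selOn univ
  refine ⟨insert (AffineMap.id ℝ _) G, hG.insert _, fun p _ => ?_⟩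
  unfold onUp
  split_ifs
  · obtain ⟨a, ha, h⟩ := hG' p (mem_univ _)
    exact ⟨a, Or.inr ha, h⟩
  · exact ⟨_, Or.inl rfl, rfl⟩

theorem onUp_leftInv {f f' : ℝ → ℝ} (hf : ∀ x, |x| ≤ 1 → |f x| ≤ 1)
    (h : ∀ x, f' (f x) = x) : ∀ p ∈ S1 ℝ, onUp f' (onUp f p) = p := by
  intro p hp
  have hp' : |p.1| + |p.2| = 1 := hp
  by_cases h0 : 0 ≤ p.2
  · have h1 : |f p.1| ≤ 1 := hf _ (by have := abs_nonneg p.2; linarith)
    have e : onUp f p = (f p.1, 1 - |f p.1|) := by unfold onUp; rw [if_pos h0]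
    rw [e]
    unfold onUp
    rw [if_pos (by simpa using h1)]
    simp only [h]
    rw [abs_of_nonneg h0] at hp'
    ext
    · rfl
    · simp only; linarith
  · unfold onUp
    rw [if_neg h0, if_neg h0]

/-- the slide homeomorphism -/
theorem exists_slide {s : ℝ} (h1 : -1 < s) (h2 : s < 1) :
    ∃ M : (ℝ × ℝ) ≃ₜ (ℝ × ℝ), PLH M ∧ M '' S1 ℝ = S1 ℝ ∧ (∀ p ∈ Km ℝ, M p = p) ∧
      (∀ p ∈ Kp ℝ, M p = (sl s p.1, 1 - |sl s p.1|)) := by
  obtain ⟨H, hH, hHg, -, hHS⟩ := exists_cone polyNorm_real (g := onUp (sl s)) (g' := onUp (sli s))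
    (onUp_continuousOn (sl_pl h1 h2).continuous (sl_end h1 h2).2 (sl_end h1 h2).1)
    (onUp_sel (sl_pl h1 h2))
    (onUp_continuousOn (sli_pl s).continuous sli_end.2 sli_end.1)
    (onUp_sel (sli_pl s))
    (onUp_mapsTo fun x => sl_mem h1 h2) (onUp_mapsTo fun x => sli_mem h1 h2)
    (onUp_leftInv (fun x => sl_mem h1 h2) (sli_sl h1 h2))
    (onUp_leftInv (fun x => sli_mem h1 h2) (sl_sli h1 h2))
  refine ⟨H, hH, hHS, fun p hp => ?_, fun p hp => ?_⟩
  · rw [hHg p (by rw [← Kp_union_Km]; exact Or.inr hp)]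
    unfold onUp
    split_ifs with h
    · have h0 : p.2 = 0 := le_antisymm hp.1 h
      have hN : |p.1| + |p.2| = 1 := hp.2
      rw [h0, abs_zero, add_zero] at hN
      rcases eq_or_eq_neg_of_abs_eq hN with h | h
      · rw [h, (sl_end h1 h2).2]; ext
        · simp [h]
        · simp [h0]
      · rw [h, (sl_end h1 h2).1]; ext
        · simp [h]
        · simp [h0]
    · rfl
  · rw [hHg p (by rw [← Kp_union_Km]; exact Or.inl hp)]
    unfold onUp
    rw [if_pos hp.1]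

/-- swap of coordinates -/
def swp : (ℝ × ℝ) ≃ₜ (ℝ × ℝ) := Homeomorph.prodComm ℝ ℝ

theorem swp_apply (p : ℝ × ℝ) : swp p = (p.2, p.1) := rfl

theorem PLH_swp : PLH swp :=
  ⟨PLMap.id.snd.prodMk PLMap.id.fst, PLMap.id.snd.prodMk PLMap.id.fst⟩

theorem mem_S1_real {p : ℝ × ℝ} : p ∈ S1 ℝ ↔ |p.1| + |p.2| = 1 := Iff.rfl

theorem image_S1_of_invol {M : (ℝ × ℝ) ≃ₜ (ℝ × ℝ)} (h : ∀ p, M (M p) = p)
    (h' : ∀ p ∈ S1 ℝ, M p ∈ S1 ℝ) : M '' S1 ℝ = S1 ℝ := by
  apply Subset.antisymm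
  · rintro _ ⟨p, hp, rfl⟩; exact h' p hp
  · intro p hp; exact ⟨M p, h' p hp, h p⟩

theorem swp_S1 : swp '' S1 ℝ = S1 ℝ :=
  image_S1_of_invol (fun p => by simp [swp_apply])
    (fun p hp => by rw [mem_S1_real] at *; rw [swp_apply]; simpa [add_comm] using hp)

theorem refl_S1 : refl ℝ '' S1 ℝ = S1 ℝ :=
  image_S1_of_invol (fun p => refl_refl p)
    (fun p hp => by rw [mem_S1_real] at *; rw [refl_apply]; simpa using hp)

/-- ordered marks: `(p, q)` can be moved to `((1,0), (-1,0))` -/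
def Mk (p q : ℝ × ℝ) : Prop :=
  ∃ M : (ℝ × ℝ) ≃ₜ (ℝ × ℝ), PLH M ∧ M '' S1 ℝ = S1 ℝ ∧ M p = (1, 0) ∧ M q = (-1, 0)

theorem Mk.of_map {p q : ℝ × ℝ} {K : (ℝ × ℝ) ≃ₜ (ℝ × ℝ)} (hK : PLH K) (hKS : K '' S1 ℝ = S1 ℝ)
    (h : Mk (K p) (K q)) : Mk p q := by
  obtain ⟨M, hM, hMS, h1, h2⟩ := h
  exact ⟨K.trans M, hK.trans hM, by rw [trans_image, hKS, hMS], h1, h2⟩

theorem mk_right {p : ℝ × ℝ} (hp : p ∈ S1 ℝ) (hpos : 0 < p.1) : Mk p (-1, 0) := by
  have hp' : |p.1| + |p.2| = 1 := hp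
  rw [abs_of_pos hpos] at hp'
  have hlt : |p.2| < 1 := by linarith
  rw [abs_lt] at hlt
  obtain ⟨M, hM, hMS, hfix, hup⟩ := exists_slide hlt.1 hlt.2
  refine ⟨swp.trans (M.trans swp), PLH_swp.trans (hM.trans PLH_swp), ?_, ?_, ?_⟩
  · rw [trans_image, trans_image, swp_S1, hMS, swp_S1]
  · have hK : (p.2, p.1) ∈ Kp ℝ := ⟨hpos.le, by
      show |p.2| + |p.1| = 1
      rw [abs_of_pos hpos]; linarith⟩
    show swp (M (p.2, p.1)) = (1, 0)
    rw [hup _ hK, swp_apply]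
    simp [sl]
  · show swp (M (0, -1)) = (-1, 0)
    rw [hfix (0, -1) ⟨by norm_num, by show |(0:ℝ)| + |(-1:ℝ)| = 1; norm_num⟩, swp_apply]

theorem mk_neg_one {p : ℝ × ℝ} (hp : p ∈ S1 ℝ) (hne : p ≠ (-1, 0)) : Mk p (-1, 0) := by
  have hp' : |p.1| + |p.2| = 1 := hp
  -- the case `0 < p.2`
  have up : ∀ p : ℝ × ℝ, p ∈ S1 ℝ → 0 < p.2 → Mk p (-1, 0) := by
    intro p hp hpos
    have hp' : |p.1| + |p.2| = 1 := hp
    rw [abs_of_pos hpos] at hp'
    have hlt : |p.1| < 1 := by linarith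
    rw [abs_lt] at hlt
    obtain ⟨M, hM, hMS, hfix, hup⟩ := exists_slide (s := (p.1 - 1) / 2) (by linarith [hlt.1])
      (by linarith [hlt.2])
    have hfx : M (-1, 0) = (-1, 0) :=
      hfix _ ⟨le_rfl, by show |(-1:ℝ)| + |(0:ℝ)| = 1; norm_num⟩
    refine Mk.of_map hM hMS ?_
    rw [hfx]
    refine mk_right (by rw [← hMS]; exact mem_image_of_mem _ hp) ?_
    rw [hup p ⟨hpos.le, hp⟩]
    have h1 : (p.1 - 1) / 2 < p.1 := by linarith [hlt.1]
    simp only [sl]
    rw [if_neg (not_le.2 h1)]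
    apply div_pos <;> linarith [hlt.1, hlt.2]
  rcases lt_trichotomy p.2 0 with h | h | h
  · refine Mk.of_map PLH_refl refl_S1 ?_
    have e : refl ℝ (-1, 0) = (-1, 0) := by simp [refl_apply]
    rw [e]
    exact up _ (by rw [← refl_S1]; exact mem_image_of_mem _ hp) (by simpa [refl_apply] using h)
  · refine mk_right hp ?_
    rw [h, abs_zero, add_zero] at hp'
    rcases eq_or_eq_neg_of_abs_eq hp' with h' | h'
    · rw [h']; norm_num
    · exact absurd (Prod.ext h' h) hne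
  · exact up p hp h

/-- any point of `S1 ℝ` can be moved to `(-1,0)` -/
theorem exists_move {q : ℝ × ℝ} (hq : q ∈ S1 ℝ) :
    ∃ M : (ℝ × ℝ) ≃ₜ (ℝ × ℝ), PLH M ∧ M '' S1 ℝ = S1 ℝ ∧ M q = (-1, 0) := by
  by_cases h : q = (-1, 0)
  · exact ⟨Homeomorph.refl _, PLH.refl, by simp, by simp [h]⟩
  · obtain ⟨M, hM, hMS, h1, -⟩ := mk_neg_one hq h
    -- reflect `x ↦ -x`
    let R : (ℝ × ℝ) ≃ₜ (ℝ × ℝ) := swp.trans ((refl ℝ).trans swp)
    have hR : PLH R := PLH_swp.trans (PLH_refl.trans PLH_swp)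
    have hRS : R '' S1 ℝ = S1 ℝ := by
      rw [trans_image, trans_image, swp_S1, refl_S1, swp_S1]
    refine ⟨M.trans R, hM.trans hR, by rw [trans_image, hMS, hRS], ?_⟩
    show R (M q) = _
    rw [h1]
    show swp (refl ℝ (swp (1, 0))) = _
    simp [swp_apply, refl_apply]

theorem mk_all {p q : ℝ × ℝ} (hp : p ∈ S1 ℝ) (hq : q ∈ S1 ℝ) (hne : p ≠ q) : Mk p q := by
  obtain ⟨M, hM, hMS, h1⟩ := exists_move hq
  refine Mk.of_map hM hMS ?_
  rw [h1]
  refine mk_neg_one (by rw [← hMS]; exact mem_image_of_mem _ hp) ?_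
  rw [← h1]
  exact fun h => hne (M.injective h)

theorem Eqt_real : Eqt ℝ = {((1:ℝ), (0:ℝ)), ((-1:ℝ), (0:ℝ))} := by
  ext p
  simp only [Eqt, mem_ofPred_eq, mem_insert_iff, mem_singleton_iff, Prod.ext_iff]
  constructor
  · rintro ⟨h1, h2⟩
    rcases eq_or_eq_neg_of_abs_eq h2 with h | h
    · exact Or.inl ⟨h, h1⟩
    · exact Or.inr ⟨h, h1⟩
  · rintro (⟨h1, h2⟩ | ⟨h1, h2⟩)
    · exact ⟨h2, by rw [h1]; norm_num⟩
    · exact ⟨h2, by rw [h1]; norm_num⟩

/-- a standard curve in the plane, cut at two points into two arcs: standard pair -/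
theorem StdC.pair_real {S E D : Set (ℝ × ℝ)} {p q : ℝ × ℝ} (hS : StdC S) (hpq : p ≠ q)
    (hED : E ∪ D = S) (hi : E ∩ D = {p, q})
    (hE : IsPreconnected (E \ {p, q})) (hD : IsPreconnected (D \ {p, q})) : StdS E D := by
  obtain ⟨H, hH, hHS⟩ := hS
  have hp : p ∈ S := by
    rw [← hED]; exact Or.inl ((hi ▸ (by simp : p ∈ ({p, q} : Set (ℝ × ℝ))) : p ∈ E ∩ D).1)
  have hq : q ∈ S := by
    rw [← hED]; exact Or.inl ((hi ▸ (by simp : q ∈ ({p, q} : Set (ℝ × ℝ))) : q ∈ E ∩ D).1)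
  rw [← hHS] at hp hq
  obtain ⟨p', hp', rfl⟩ := hp
  obtain ⟨q', hq', rfl⟩ := hq
  obtain ⟨M, hM, hMS, h1, h2⟩ := mk_all hp' hq' (fun h => hpq (by rw [h]))
  have h1' : M.symm (1, 0) = p' := by rw [← h1]; simp
  have h2' : M.symm (-1, 0) = q' := by rw [← h2]; simp
  refine StdS_of_equator (H := M.symm.trans H) (hM.symm.trans hH) (S := S) (Γ := {H p', H q'})
    ?_ ?_ hED hi hE hD
  · rw [trans_image, ← hHS]
    congr 1
    nth_rewrite 1 [← hMS]
    exact symm_image_image' M _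
  · rw [trans_image, Eqt_real, image_pair, image_pair, h1', h2']

end Crest.Agent.R096.Pl
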