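import Crest.Agent.R096.PlCan1_458
import Crest.Agent.R096.PlExt_296

/-!
# Cans and boxes are standard PL spheres (helper458, row 96, P2-CAN)

* `StdC.can`: `A` compact with nonempty interior and `StdC (frontier A)` gives
  `StdC (frontier (A ×ˢ Icc a b))`, and `frontier (A ×ˢ Icc a b) = A ×ˢ {a, b} ∪ frontier A ×ˢ Icc a b`.
* `StdC.box2`, `StdC.box3`: boxes.
* `StdC.solid`: the closed inside of a standard sphere.
* `StdC.transport`: the model boundary is the unit sphere of any isometric copy of `F × ℝ`.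
-/

namespace Crest.Agent.R096.Pl

open Set Metric

set_option linter.unusedSectionVars false

section Prod

variable {V V' W W' : Type*} [NormedAddCommGroup V] [NormedSpace ℝ V] [NormedAddCommGroup V']
  [NormedSpace ℝ V'] [NormedAddCommGroup W] [NormedSpace ℝ W] [NormedAddCommGroup W']
  [NormedSpace ℝ W']

theorem PLH.prodCongr {h : V ≃ₜ V'} {g : W ≃ₜ W'} (hh : PLH h) (hg : PLH g) :
    PLH (h.prodCongr g) :=
  ⟨(hh.1.comp PLMap.id.fst).prodMk (hg.1.comp PLMap.id.snd),
    (hh.2.comp PLMap.id.fst).prodMk (hg.2.comp PLMap.id.snd)⟩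

theorem prodCongr_image (h : V ≃ₜ V') (g : W ≃ₜ W') (A : Set V) (B : Set W) :
    h.prodCongr g '' (A ×ˢ B) = (h '' A) ×ˢ (g '' B) := by
  rw [Homeomorph.coe_prodCongr]
  exact (prodMap_image_prod _ _ _ _)

/-- a continuous linear equivalence is a PL homeomorphism -/
theorem PLH_clm (e : V ≃L[ℝ] W) : PLH e.toHomeomorph :=
  ⟨PLMap.of_affine' e.toContinuousLinearMap.toLinearMap.toAffineMap e.continuous,
    PLMap.of_affine' e.symm.toContinuousLinearMap.toLinearMap.toAffineMap e.symm.continuous⟩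

theorem PLH_add (c : V) : PLH (Homeomorph.addRight c) :=
  ⟨PLMap.id.add_const c, PLMap.id.add_const (-c)⟩

/-- the product of two polyhedral norms -/
theorem PolyNorm.prod (hV : PolyNorm V) (hW : PolyNorm W) : PolyNorm (V × W) where
  pl := (hV.pl.comp PLMap.id.fst).max (hW.pl.comp PLMap.id.snd)
  vp := by
    obtain ⟨s, hs, h1⟩ := hV.vp
    obtain ⟨t, ht, h2⟩ := hW.vp
    refine ⟨s ×ˢ t, hs.prod ht, ?_⟩
    rw [convexHull_prod, ← h1, ← h2, closedBall_prod_same]
    rfl

theorem polyNorm_plane : PolyNorm (ℝ × ℝ) := polyNorm_real.prod polyNorm_real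

end Prod

/-- the affine map of the line with `[-1, 1] ↦ [a, b]` -/
noncomputable def lineH (a b : ℝ) (h : a < b) : ℝ ≃ₜ ℝ :=
  mkH (fun t => (b - a) / 2 * t + (a + b) / 2) (fun s => (s - (a + b) / 2) / ((b - a) / 2))
    ((PLMap.const_mul _ PLMap.id).add_const _) ((PLMap.id.sub_const _).div_const _)
    (fun t => by
      have : (b - a) / 2 ≠ 0 := by linarith
      rw [add_sub_cancel_right, mul_div_cancel_left₀ _ this])
    (fun s => by
      have : (b - a) / 2 ≠ 0 := by linarith
      rw [mul_div_cancel₀ _ this, sub_add_cancel])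

theorem PLH_lineH {a b : ℝ} (h : a < b) : PLH (lineH a b h) := PLH_mkH _ _ _ _ _ _

theorem lineH_apply {a b : ℝ} (h : a < b) (t : ℝ) :
    lineH a b h t = (b - a) / 2 * t + (a + b) / 2 := rfl

theorem lineH_symm_apply {a b : ℝ} (h : a < b) (s : ℝ) :
    (lineH a b h).symm s = (s - (a + b) / 2) / ((b - a) / 2) := rfl

theorem lineH_image {a b : ℝ} (h : a < b) : lineH a b h '' closedBall 0 1 = Icc a b := by
  ext s
  constructor
  · rintro ⟨t, ht, rfl⟩
    rw [mem_closedBall_zero_iff, Real.norm_eq_abs, abs_le] at ht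
    rw [lineH_apply]
    constructor <;> nlinarith [ht.1, ht.2]
  · intro hs
    refine ⟨(lineH a b h).symm s, ?_, (lineH a b h).apply_symm_apply s⟩
    have h2 : 0 < (b - a) / 2 := by linarith
    rw [mem_closedBall_zero_iff, Real.norm_eq_abs, abs_le, lineH_symm_apply,
      le_div_iff₀ h2, div_le_iff₀ h2]
    obtain ⟨h3, h4⟩ := hs
    constructor <;> linarith

variable {F : Type*} [NormedAddCommGroup F] [NormedSpace ℝ F]

/-- the can over the PL image of the unit ball -/
theorem StdC.can_ball (k : KOp F) (hN : PLMap (fun x : F => ‖x‖)) {H : F ≃ₜ F} (hH : PLH H)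
    {a b : ℝ} (h : a < b) :
    StdC (frontier ((H '' closedBall (0 : F) 1) ×ˢ Icc a b)) := by
  rw [stdC_iff_sphere k hN]
  refine ⟨H.prodCongr (lineH a b h), hH.prodCongr (PLH_lineH h), ?_⟩
  rw [← lineH_image h, ← prodCongr_image, ← Homeomorph.image_frontier, closedBall_prod_same]
  congr 1
  exact (frontier_closedBall (0 : F × ℝ) one_ne_zero).symm

theorem frontier_le (k : KOp F) (hN : PLMap (fun x : F => ‖x‖)) :
    frontier {p : F × ℝ | N1 p ≤ 1} = S1 F := by
  apply (cubeH k hN).injective.image_injective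
  rw [Homeomorph.image_frontier, cubeH_closed, cubeH_S1]
  exact frontier_closedBall (0 : F × ℝ) one_ne_zero

/-- the can over a standard cell -/
theorem StdC.can_le (k : KOp F) (hN : PLMap (fun x : F => ‖x‖)) {H : (F × ℝ) ≃ₜ (F × ℝ)}
    (hH : PLH H) {a b : ℝ} (h : a < b) :
    StdC (frontier ((H '' {p | N1 p ≤ 1}) ×ˢ Icc a b)) := by
  have h1 := StdC.can_ball (F := F × ℝ) (k.prod KOp.real)
    ((hN.comp PLMap.id.fst).max (PLMap.id.snd.abs)) (H := (cubeH k hN).symm.trans H)
    ((PLH_cubeH k hN).symm.trans hH) h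
  rwa [trans_image, ← cubeH_closed k hN, symm_image_image'] at h1

/-- the closed inside of a standard sphere is a standard cell; a compact set with nonempty interior
whose frontier is a standard sphere is that cell -/
theorem StdC.solid [FiniteDimensional ℝ F] [Nontrivial F] {A : Set (F × ℝ)} (hA : IsCompact A)
    (hi : (interior A).Nonempty) (h : StdC (frontier A)) :
    ∃ H : (F × ℝ) ≃ₜ (F × ℝ), PLH H ∧ H '' {p | N1 p ≤ 1} = A ∧ H '' S1 F = frontier A ∧
      H '' U1 F = interior A := by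
  obtain ⟨H, hH, hS⟩ := h
  have hle : {p : F × ℝ | N1 p ≤ 1} = U1 F ∪ S1 F := by
    ext p
    show N1 p ≤ 1 ↔ N1 p < 1 ∨ N1 p = 1
    exact le_iff_lt_or_eq
  have hcompl : (frontier A)ᶜ = H '' U1 F ∪ H '' X1 F := by
    rw [← hS, ← image_union, ← univ_diff_S1, H.image_compl]
  have hopU : IsOpen (H '' U1 F) := H.isOpenMap _ isOpen_U1
  have hopX : IsOpen (H '' X1 F) := H.isOpenMap _ isOpen_X1
  have hdA : Disjoint (H '' U1 F) (H '' X1 F) := by
    rw [disjoint_image_iff H.injective, disjoint_left]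
    intro p hp hp'
    exact absurd (show N1 p < 1 from hp) (not_lt.2 (le_of_lt hp'))
  have hcov : (frontier A)ᶜ = interior A ∪ Aᶜ := by
    rw [← closure_sdiff_interior, hA.isClosed.closure_eq]
    ext p
    simp only [mem_compl_iff, mem_sdiff, mem_union]
    constructor
    · intro h1
      by_cases h2 : p ∈ A
      · left; by_contra h3; exact h1 ⟨h2, h3⟩
      · exact Or.inr h2
    · rintro (h1 | h1) h2
      · exact h2.2 h1
      · exact h1 h2.1
  have hdI : Disjoint (interior A) Aᶜ :=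
    disjoint_left.2 fun p hp hp' => hp' (interior_subset hp)
  have hXp : IsPreconnected (H '' X1 F) :=
    (isConnected_X1.isPreconnected).image _ H.continuous.continuousOn
  have hX : H '' X1 F ⊆ Aᶜ := by
    rcases hXp.subset_or_subset isOpen_interior hA.isClosed.isOpen_compl hdI
      (by rw [← hcov, hcompl]; exact subset_union_right) with h' | h'
    · exfalso
      refine X1_unbounded (F := F) ⟨H.symm '' A, hA.image H.symm.continuous, ?_⟩
      intro p hp
      exact ⟨H p, interior_subset (h' (mem_image_of_mem H hp)), H.symm_apply_apply p⟩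
    · exact h'
  have hU1c : IsPreconnected (U1 F) := by
    refine isPreconnected_of_forall (0 : F × ℝ) fun p hp => ?_
    refine ⟨segment ℝ 0 p, ?_, left_mem_segment ℝ 0 p, right_mem_segment ℝ 0 p,
      (convex_segment (0 : F × ℝ) p).isPreconnected⟩
    rw [segment_eq_image]
    rintro _ ⟨t, ht, rfl⟩
    show N1 ((1 - t) • 0 + t • p) < 1
    rw [smul_zero, zero_add, N1_smul, abs_of_nonneg ht.1]
    have h1 : N1 p < 1 := hp
    have h2 := N1_nonneg p
    have h3 := ht.2
    nlinarith [ht.1]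
  have hUp : IsPreconnected (H '' U1 F) := hU1c.image _ H.continuous.continuousOn
  have hUI : H '' U1 F ⊆ interior A := by
    rcases hUp.subset_or_subset isOpen_interior hA.isClosed.isOpen_compl hdI
      (by rw [← hcov, hcompl]; exact subset_union_left) with h' | h'
    · exact h'
    · exfalso
      obtain ⟨p, hp⟩ := hi
      have h1 : p ∈ (frontier A)ᶜ := by rw [hcov]; exact Or.inl hp
      rw [hcompl] at h1
      rcases h1 with h1 | h1
      · exact h' h1 (interior_subset hp)
      · exact hX h1 (interior_subset hp)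
  have hIU : interior A = H '' U1 F := by
    apply Subset.antisymm ?_ hUI
    intro p hp
    have h1 : p ∈ (frontier A)ᶜ := by rw [hcov]; exact Or.inl hp
    rw [hcompl] at h1
    rcases h1 with h1 | h1
    · exact h1
    · exact absurd (interior_subset hp) (hX h1)
  refine ⟨H, hH, ?_, hS, hIU.symm⟩
  rw [hle, image_union, hS, ← hIU, ← closure_eq_interior_union_frontier, hA.isClosed.closure_eq]

/-- **CAN**: over a compact solid with standard frontier -/
theorem StdC.can (k : KOp F) (hN : PLMap (fun x : F => ‖x‖)) [FiniteDimensional ℝ F] [Nontrivial F]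
    {A : Set (F × ℝ)} (hA : IsCompact A) (hi : (interior A).Nonempty) (h : StdC (frontier A))
    {a b : ℝ} (hab : a < b) : StdC (frontier (A ×ˢ Icc a b)) := by
  obtain ⟨H, hH, rfl, -, -⟩ := h.solid hA hi
  exact StdC.can_le k hN hH hab

theorem frontier_can {X : Type*} [TopologicalSpace X] {A : Set X} (hA : IsClosed A) {a b : ℝ}
    (hab : a ≤ b) :
    frontier (A ×ˢ Icc a b) = A ×ˢ {a, b} ∪ frontier A ×ˢ Icc a b := by
  rw [frontier_prod_eq, hA.closure_eq, frontier_Icc hab, isClosed_Icc.closure_eq]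

/-- **CAN** for `ℝ³ = (ℝ × ℝ) × ℝ` -/
theorem StdC.can3 {A : Set (ℝ × ℝ)} (hA : IsCompact A) (hi : (interior A).Nonempty)
    (h : StdC (frontier A)) {a b : ℝ} (hab : a < b) : StdC (frontier (A ×ˢ Icc a b)) :=
  StdC.can KOp.real polyNorm_real.pl hA hi h hab

/-- **CAN** for `ℝ³ = (ℝ × ℝ) × ℝ`, boundary written out -/
theorem StdC.can3' {A : Set (ℝ × ℝ)} (hA : IsCompact A) (hi : (interior A).Nonempty)
    (h : StdC (frontier A)) {a b : ℝ} (hab : a < b) :
    StdC (A ×ˢ {a, b} ∪ frontier A ×ˢ Icc a b) := by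
  rw [← frontier_can hA.isClosed hab.le]
  exact StdC.can3 hA hi h hab

/-- **rectangles** -/
theorem StdC.box2 {a₁ b₁ a₂ b₂ : ℝ} (h₁ : a₁ < b₁) (h₂ : a₂ < b₂) :
    StdC (frontier (Icc a₁ b₁ ×ˢ Icc a₂ b₂)) := by
  have := StdC.can_ball KOp.real polyNorm_real.pl (PLH_lineH h₁) h₂
  rwa [lineH_image] at this

/-- **boxes** -/
theorem StdC.box3 {a₁ b₁ a₂ b₂ a₃ b₃ : ℝ} (h₁ : a₁ < b₁) (h₂ : a₂ < b₂) (h₃ : a₃ < b₃) :
    StdC (frontier ((Icc a₁ b₁ ×ˢ Icc a₂ b₂) ×ˢ Icc a₃ b₃)) := by
  refine StdC.can3 (isCompact_Icc.prod isCompact_Icc) ?_ (StdC.box2 h₁ h₂) h₃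
  rw [interior_prod_eq, interior_Icc, interior_Icc]
  exact (nonempty_Ioo.2 h₁).prod (nonempty_Ioo.2 h₂)

/-- the closed inside does not depend on the homeomorphism -/
theorem inside_unique [FiniteDimensional ℝ F] [Nontrivial F] {H H' : (F × ℝ) ≃ₜ (F × ℝ)}
    (h : H '' S1 F = H' '' S1 F) :
    H '' U1 F = H' '' U1 F ∧ H '' {p | N1 p ≤ 1} = H' '' {p | N1 p ≤ 1} := by
  have hle : {p : F × ℝ | N1 p ≤ 1} = U1 F ∪ S1 F := by
    ext p
    show N1 p ≤ 1 ↔ N1 p < 1 ∨ N1 p = 1
    exact le_iff_lt_or_eq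
  have h1 : H '' U1 F = H' '' U1 F := by
    apply Subset.antisymm
    · apply inside_subset; rw [h]; exact image_mono S1_subset_le
    · apply inside_subset; rw [← h]; exact image_mono S1_subset_le
  exact ⟨h1, by rw [hle, image_union, image_union, h1, h]⟩

/-- the solid whose frontier is the given standard sphere -/
theorem StdC.exists_solid (k : KOp F) (hN : PLMap (fun x : F => ‖x‖)) [FiniteDimensional ℝ F]
    {S : Set (F × ℝ)} (h : StdC S) :
    ∃ A : Set (F × ℝ), IsCompact A ∧ (interior A).Nonempty ∧ frontier A = S := by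
  obtain ⟨H, hH, rfl⟩ := h
  refine ⟨H '' {p | N1 p ≤ 1}, isCompact_le.image H.continuous, ?_, ?_⟩
  · rw [← H.image_interior, interior_le]
    exact ⟨H 0, mem_image_of_mem _ (show N1 (0 : F × ℝ) < 1 by rw [N1_zero]; norm_num)⟩
  · rw [← H.image_frontier, frontier_le k hN]

/-- transport to an isometric copy of `F × ℝ`, in which the model is the unit sphere -/
theorem StdC.transport (k : KOp F) (hN : PLMap (fun x : F => ‖x‖)) [FiniteDimensional ℝ F]
    [Nontrivial F] {E : Type*} [NormedAddCommGroup E] [NormedSpace ℝ E] (e : (F × ℝ) ≃L[ℝ] E)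
    (he : ∀ x, ‖e x‖ = ‖x‖) {A : Set E} (hA : IsCompact A) (hi : (interior A).Nonempty)
    (h : StdC (e ⁻¹' frontier A)) :
    ∃ H : E ≃ₜ E, PLH H ∧ H '' closedBall 0 1 = A ∧ H '' sphere 0 1 = frontier A ∧
      H '' ball 0 1 = interior A := by
  have hpre : ∀ B : Set E, e ⁻¹' B = e.toHomeomorph.symm '' B := fun B =>
    (congrFun e.toHomeomorph.image_symm B).symm
  have hA' : IsCompact (e ⁻¹' A) := by
    rw [hpre]; exact hA.image e.toHomeomorph.symm.continuous
  have hi' : (interior (e ⁻¹' A)).Nonempty := by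
    rw [hpre, ← Homeomorph.image_interior]; exact hi.image _
  have h' : StdC (frontier (e ⁻¹' A)) := by
    have : frontier (e ⁻¹' A) = e ⁻¹' frontier A := by
      rw [hpre, hpre, ← Homeomorph.image_frontier]
    rwa [this]
  obtain ⟨H, hH, h1, h2, h3⟩ := h'.solid hA' hi'
  have hcb : e.symm '' closedBall (0 : E) 1 = closedBall 0 1 := by
    ext p
    rw [mem_closedBall_zero_iff]
    constructor
    · rintro ⟨q, hq, rfl⟩
      rw [← he, e.apply_symm_apply]; exact mem_closedBall_zero_iff.1 hq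
    · intro hp
      exact ⟨e p, mem_closedBall_zero_iff.2 (by rwa [he]), e.symm_apply_apply p⟩
  have hb : e.symm '' ball (0 : E) 1 = ball 0 1 := by
    ext p
    rw [mem_ball_zero_iff]
    constructor
    · rintro ⟨q, hq, rfl⟩
      rw [← he, e.apply_symm_apply]; exact mem_ball_zero_iff.1 hq
    · intro hp
      exact ⟨e p, mem_ball_zero_iff.2 (by rwa [he]), e.symm_apply_apply p⟩
  have hs : e.symm '' sphere (0 : E) 1 = sphere 0 1 := by
    ext p
    rw [mem_sphere_zero_iff_norm]
    constructor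
    · rintro ⟨q, hq, rfl⟩
      rw [← he, e.apply_symm_apply]; exact mem_sphere_zero_iff_norm.1 hq
    · intro hp
      exact ⟨e p, mem_sphere_zero_iff_norm.2 (by rwa [he]), e.symm_apply_apply p⟩
  have key : ∀ (B : Set E) (C : Set (F × ℝ)) (D : Set E), e.symm '' B = cubeH k hN '' C →
      H '' C = e ⁻¹' D →
      (((e.toHomeomorph.symm.trans (cubeH k hN).symm).trans H).trans e.toHomeomorph) '' B = D := by
    intro B C D hB hC
    rw [trans_image, trans_image, trans_image]
    have : e.toHomeomorph.symm '' B = cubeH k hN '' C := hB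
    rw [this, symm_image_image', hC]
    exact image_preimage_eq _ e.surjective
  refine ⟨((e.toHomeomorph.symm.trans (cubeH k hN).symm).trans H).trans e.toHomeomorph,
    (((PLH_clm e).symm.trans (PLH_cubeH k hN).symm).trans hH).trans (PLH_clm e), ?_, ?_, ?_⟩
  · exact key _ _ _ (by rw [cubeH_closed, hcb]) h1
  · refine key _ _ _ (by rw [cubeH_S1, hs]) ?_
    rw [h2, hpre, hpre, ← Homeomorph.image_frontier]
  · refine key _ _ _ (by rw [cubeH_open, hb]) ?_
    rw [h3, hpre, hpre, ← Homeomorph.image_interior]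

end Crest.Agent.R096.Pl
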