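import Crest.Agent.R096.Al2_63
import Crest.Agent.R096.PlCan2_458

/-!
# R096/Al3_63 (helper63, row 96, P2-ALEX, dimension 2, part 3)

`std2`: a finite nonempty connected hole-free set of lattice squares is a PL disc.
Induction: remove the last square of the top row, or cut below it.
-/

set_option autoImplicit false

namespace Crest.Agent.R096.Al_63

open Set Crest.Agent.R096.Lc_451 Crest.Agent.R096.Pl

theorem std_single {s : Pt} (hs : Sq s) : StdC (bdr {s}) := by
  have h : area {s} = sq s := by simp [area]
  rw [← frontier_area (W := {s}) (by simpa using hs), h, sq_eq]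
  exact StdC.box2 (by linarith) (by linarith)

/-- nothing of `W` above `s` -/
def Top (W : Finset Pt) (s : Pt) : Prop := ∀ t ∈ W, t.2 ≤ s.2

/-- a finite set which is closed relative to `V` and contains `s` cannot exist if nothing above `s`
is in `V` -/
theorem no_top {V T : Finset Pt} {s : Pt} (hV : ∀ t ∈ V, t.2 ≤ s.2)
    (hT : ∀ t ∈ T, ∀ t', nb t t' → t' ∈ T ∨ t' ∈ V) : s ∉ T := by
  intro hs
  obtain ⟨m, hm, hmax⟩ := Finset.exists_max_image T (fun p => p.2) ⟨s, hs⟩
  have h1 := hmax s hs
  rcases hT m hm (m.1, m.2 + 2) (Or.inr (Or.inr (Or.inl rfl))) with h | h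
  · have := hmax _ h
    simp only at this
    omega
  · have := hV _ h
    simp only at this h1
    omega

theorem HF_erase {W : Finset Pt} {s : Pt} (hHF : HF W) (ht : Top W s) : HF (W.erase s) := by
  intro T hdis hT
  have hsT : s ∉ T := no_top (V := W.erase s) (fun t h => ht t (Finset.mem_of_mem_erase h)) hT
  apply hHF T
  · rw [Finset.disjoint_left] at hdis ⊢
    intro t htT htW
    have : t ≠ s := fun h => hsT (h ▸ htT)
    exact hdis htT (Finset.mem_erase.2 ⟨this, htW⟩)
  · intro t htT t' htt
    rcases hT t htT t' htt with h | h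
    · exact Or.inl h
    · exact Or.inr (Finset.mem_of_mem_erase h)

/-- if all neighbours of `s` in `W` lie in every closed set meeting one of them, `W - s` is
connected -/
theorem Con_erase {W : Finset Pt} {s : Pt} (hC : Con W) (hs : s ∈ W)
    (key : ∀ B ⊆ W.erase s, (∀ x ∈ B, ∀ t ∈ W.erase s, nb x t → t ∈ B) →
      (∀ x ∈ B, ¬ nb x s) ∨ (∀ x ∈ W.erase s, nb x s → x ∈ B)) : Con (W.erase s) := by
  intro B hB hcl
  have fin : ∀ B ⊆ W.erase s, (∀ x ∈ B, ∀ t ∈ W.erase s, nb x t → t ∈ B) →
      (∀ x ∈ B, ¬ nb x s) → B = ∅ := by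
    intro B hB hcl hn
    have hcl' : ∀ x ∈ B, ∀ t ∈ W, nb x t → t ∈ B := by
      intro x hx t ht hxt
      by_cases hts : t = s
      · rw [hts] at hxt
        exact absurd hxt (hn x hx)
      · exact hcl x hx t (Finset.mem_erase.2 ⟨hts, ht⟩) hxt
    rcases hC B (hB.trans (Finset.erase_subset _ _)) hcl' with h | h
    · exact h
    · have : s ∈ B := by rw [h]; exact hs
      exact absurd (hB this) (Finset.notMem_erase _ _)
  rcases key B hB hcl with h | h
  · exact Or.inl (fin B hB hcl h)
  · right
    have hc : W.erase s \ B = ∅ := by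
      apply fin _ Finset.sdiff_subset
      · intro x hx t ht hxt
        rw [Finset.mem_sdiff] at hx ⊢
        refine ⟨ht, fun htB => hx.2 (hcl t htB x hx.1 hxt.symm)⟩
      · intro x hx hxs
        rw [Finset.mem_sdiff] at hx
        exact hx.2 (h x hx.1 hxs)
    exact Finset.Subset.antisymm hB (Finset.sdiff_eq_empty_iff_subset.1 hc)

/-- the component of `d` in `V` -/
theorem exists_comp {V : Finset Pt} {d : Pt} (hd : d ∈ V) : ∃ B ⊆ V, d ∈ B ∧
    (∀ x ∈ B, ∀ t ∈ V, nb x t → t ∈ B) ∧ Con B := by
  classical
  let Fam := V.powerset.filter (fun B => d ∈ B ∧ ∀ x ∈ B, ∀ t ∈ V, nb x t → t ∈ B)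
  have hmem : ∀ B, B ∈ Fam ↔ B ⊆ V ∧ d ∈ B ∧ ∀ x ∈ B, ∀ t ∈ V, nb x t → t ∈ B := by
    intro B; simp only [Fam, Finset.mem_filter, Finset.mem_powerset]
  obtain ⟨B, hB, hmin⟩ := Finset.exists_min_image Fam Finset.card
    ⟨V, (hmem V).2 ⟨Finset.Subset.refl _, hd, fun _ _ t ht _ => ht⟩⟩
  obtain ⟨h1, h2, h3⟩ := (hmem B).1 hB
  refine ⟨B, h1, h2, h3, ?_⟩
  intro T hT hcl
  have closed : ∀ x ∈ T, ∀ t ∈ V, nb x t → t ∈ T := fun x hx t ht hxt =>
    hcl x hx t (h3 x (hT hx) t ht hxt) hxt
  by_cases hdT : d ∈ T
  · right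
    have hf : T ∈ Fam := (hmem T).2 ⟨hT.trans h1, hdT, closed⟩
    exact Finset.eq_of_subset_of_card_le hT (hmin T hf)
  · left
    have hf : B \ T ∈ Fam := by
      rw [hmem]
      refine ⟨Finset.sdiff_subset.trans h1, Finset.mem_sdiff.2 ⟨h2, hdT⟩, ?_⟩
      intro x hx t ht hxt
      rw [Finset.mem_sdiff] at hx ⊢
      exact ⟨h3 x hx.1 t ht hxt, fun htT => hx.2 (closed t htT x (h1 hx.1) hxt.symm)⟩
    have := Finset.eq_of_subset_of_card_le Finset.sdiff_subset (hmin _ hf)
    rw [Finset.sdiff_eq_self_iff_disjoint] at this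
    rw [← Finset.disjoint_self_iff_empty]
    exact Finset.disjoint_of_subset_left hT this

theorem hmemW_aux {W : Finset Pt} {t t' : Pt} (h : t = t') (ht : t ∈ W) : t' ∈ W := h ▸ ht

theorem std2_aux : ∀ (n : ℕ) (W : Finset Pt), W.card = n → (∀ s ∈ W, Sq s) → W.Nonempty →
    Con W → HF W → StdC (bdr W) := by
  intro n
  induction n using Nat.strong_induction_on with
  | _ n IH =>
  intro W hcard hW hne hC hHF
  classical
  -- the last square of the top row
  obtain ⟨s, hsW, hTop, hlast⟩ : ∃ s ∈ W, Top W s ∧ ∀ t ∈ W, t.2 = s.2 → t.1 ≤ s.1 := by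
    obtain ⟨s0, hs0, hmax0⟩ := Finset.exists_max_image W (fun p => p.2) hne
    obtain ⟨s, hs, hmax⟩ := Finset.exists_max_image (W.filter (fun t => t.2 = s0.2)) (fun p => p.1)
      ⟨s0, Finset.mem_filter.2 ⟨hs0, rfl⟩⟩
    rw [Finset.mem_filter] at hs
    refine ⟨s, hs.1, fun t ht => by rw [hs.2]; exact hmax0 t ht, fun t ht h => ?_⟩
    exact hmax t (Finset.mem_filter.2 ⟨ht, h.trans hs.2⟩)
  have hsS := hW s hsW
  obtain ⟨x0, y0⟩ := s
  simp only [Top] at hTop
  simp only at hlast
  have hsS1 : x0 % 2 = 1 := hsS.1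
  have hsS2 : y0 % 2 = 1 := hsS.2
  have hR : ((x0 + 2, y0) : Pt) ∉ W := fun h => by have := hlast _ h rfl; simp only at this; omega
  have hU : ((x0, y0 + 2) : Pt) ∉ W := fun h => by have := hTop _ h; simp only at this; omega
  have sqR : Sq (x0 + 2, y0) := ⟨by simp only; omega, hsS2⟩
  have sqU : Sq (x0, y0 + 2) := ⟨hsS1, by simp only; omega⟩
  have sqL : Sq (x0 - 2, y0) := ⟨by simp only; omega, hsS2⟩
  have sqD : Sq (x0, y0 - 2) := ⟨hsS1, by simp only; omega⟩
  have sqDL : Sq (x0 - 2, y0 - 2) := ⟨by simp only; omega, by simp only; omega⟩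
  have hmemW : ∀ (t : Pt) (a b : ℤ), t.1 = a → t.2 = b → ((a, b) : Pt) ∈ W → t ∈ W := by
    intro t a b h1 h2 h
    have : t = (a, b) := Prod.ext h1 h2
    rw [this]; exact h
  -- points of the bottom edge of `s`
  have bottom : ∀ x : ℝ × ℝ, 2 * x.2 = y0 - 1 → x ∈ sq (x0, y0) → ((x0, y0 - 2) : Pt) ∈ W →
      touch W x → 2 * x.1 = x0 - 1 ∨ 2 * x.1 = x0 + 1 := by
    rintro x hx hxs hd ⟨t, ht, htW, hxt⟩
    rcases two1 hsS1 ht.1 hxs.1 hxt.1 with h | ⟨_, h⟩ | ⟨_, h⟩
    · exfalso
      rcases two1 hsS2 ht.2 hxs.2 hxt.2 with h' | ⟨h'', h'⟩ | ⟨h'', h'⟩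
      · exact htW (hmemW t _ _ h.symm h'.symm hsW)
      · linarith
      · exact htW (hmemW t _ _ h.symm h'' hd)
    · exact Or.inr h
    · exact Or.inl h
  -- points of the left edge of `s`
  have leftE : ∀ x : ℝ × ℝ, 2 * x.1 = x0 - 1 → x ∈ sq (x0, y0) → ((x0 - 2, y0) : Pt) ∈ W →
      touch W x → 2 * x.2 = y0 - 1 ∨ 2 * x.2 = y0 + 1 := by
    rintro x hx hxs hd ⟨t, ht, htW, hxt⟩
    rcases two1 hsS2 ht.2 hxs.2 hxt.2 with h | ⟨_, h⟩ | ⟨_, h⟩
    · exfalso
      rcases two1 hsS1 ht.1 hxs.1 hxt.1 with h' | ⟨h'', h'⟩ | ⟨h'', h'⟩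
      · exact htW (hmemW t _ _ h'.symm h.symm hsW)
      · linarith
      · exact htW (hmemW t _ _ h'' h.symm hd)
    · exact Or.inr h
    · exact Or.inl h
  -- integer second coordinates
  have hint1 : ∃ m : ℤ, ((y0 : ℝ) - 1) / 2 = m := by
    refine ⟨y0 / 2, ?_⟩
    have h : y0 = 2 * (y0 / 2) + 1 := by omega
    have : (y0 : ℝ) = 2 * ((y0 / 2 : ℤ) : ℝ) + 1 := by exact_mod_cast h
    rw [this]; ring
  have hint2 : ∃ m : ℤ, ((y0 : ℝ) + 1) / 2 = m := by
    obtain ⟨m, hm⟩ := hint1
    refine ⟨m + 1, ?_⟩
    push_cast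
    rw [← hm]; ring
  -- squares of `W` touching `s`
  have around : ∀ (x : ℝ × ℝ) (r : Pt), r ∈ W → r ≠ (x0, y0) → x ∈ sq (x0, y0) → x ∈ sq r →
      (r = (x0 - 2, y0) ∧ 2 * x.1 = x0 - 1) ∨
      (2 * x.2 = y0 - 1 ∧ (r = (x0, y0 - 2) ∨ (r = (x0 - 2, y0 - 2) ∧ 2 * x.1 = x0 - 1) ∨
        (r = (x0 + 2, y0 - 2) ∧ 2 * x.1 = x0 + 1))) := by
    intro x r hr hne' hxs hxr
    have h1 := hTop r hr
    rcases two1 hsS2 (hW r hr).2 hxs.2 hxr.2 with h | ⟨h', h⟩ | ⟨h', h⟩
    · left
      have h2 := hlast r hr h.symm
      rcases two1 hsS1 (hW r hr).1 hxs.1 hxr.1 with k | ⟨k', k⟩ | ⟨k', k⟩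
      · exact absurd (Prod.ext k.symm h.symm) hne'
      · omega
      · exact ⟨Prod.ext k' h.symm, k⟩
    · omega
    · right
      refine ⟨h, ?_⟩
      rcases two1 hsS1 (hW r hr).1 hxs.1 hxr.1 with k | ⟨k', k⟩ | ⟨k', k⟩
      · exact Or.inl (Prod.ext k.symm h')
      · exact Or.inr (Or.inr ⟨Prod.ext k' h', k⟩)
      · exact Or.inr (Or.inl ⟨Prod.ext k' h', k⟩)
  -- neighbours of `s` in `W`
  have nbs : ∀ x ∈ W, nb x (x0, y0) → x = (x0 - 2, y0) ∨ x = (x0, y0 - 2) := by
    intro x hx h
    rcases h.symm with h | h | h | h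
    · rw [h] at hx; exact absurd hx hR
    · exact Or.inl h
    · rw [h] at hx; exact absurd hx hU
    · exact Or.inr h
  -- the cut off of the single square `s`
  have single : ∀ p q : ℝ × ℝ, p ≠ q → (∃ m : ℤ, p.2 = m) → (∃ m : ℤ, q.2 = m) →
      Con (W.erase (x0, y0)) → (W.erase (x0, y0)).Nonempty →
      (∀ x, x ∈ area (W.erase (x0, y0)) → x ∈ sq (x0, y0) → touch W x → x = p ∨ x = q) →
      (p ∈ area (W.erase (x0, y0)) ∧ p ∈ sq (x0, y0) ∧ touch W p) →
      (q ∈ area (W.erase (x0, y0)) ∧ q ∈ sq (x0, y0) ∧ touch W q) →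
      (∃ x, x ∈ area (W.erase (x0, y0)) ∧ x ∈ sq (x0, y0) ∧ x ≠ p ∧ x ≠ q) → StdC (bdr W) := by
    intro p q hpq hpz hqz hCe hnee hD hp hq hmid
    have harea : area {((x0, y0) : Pt)} = sq (x0, y0) := by simp [area]
    refine cut2 (W1 := W.erase (x0, y0)) (W2 := {(x0, y0)}) (W := W)
      (fun t ht => hW t (Finset.mem_of_mem_erase ht)) (by simpa using hsS) ?_ hnee (by simp) ?_ ?_
      hpq hpz hqz (by rw [harea]; exact hD) (by rw [harea]; exact hp) (by rw [harea]; exact hq)
      (by rw [harea]; exact hmid) ?_ (std_single hsS)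
    · intro t
      rw [Finset.mem_erase, Finset.mem_singleton]
      constructor
      · intro h
        by_cases hh : t = (x0, y0)
        · exact Or.inr hh
        · exact Or.inl ⟨hh, h⟩
      · rintro (h | h)
        · exact h.2
        · rw [h]; exact hsW
    · intro t ht h
      rw [Finset.mem_singleton, Prod.ext_iff] at h
      simp only at h
      apply hR
      refine hmemW_aux ?_ (Finset.mem_of_mem_erase ht)
      exact Prod.ext (by simp only; omega) (by simp only; omega)
    · intro t ht h
      rw [Finset.mem_singleton] at h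
      rw [h] at ht
      exact absurd ht (Finset.notMem_erase _ _)
    · refine IH _ ?_ (W.erase (x0, y0)) rfl (fun t ht => hW t (Finset.mem_of_mem_erase ht)) hnee hCe
        (HF_erase hHF hTop)
      rw [← hcard]
      exact Finset.card_erase_lt_of_mem hsW
  -- membership of special points
  have pBL : (((x0 : ℝ) - 1) / 2, ((y0 : ℝ) - 1) / 2) ∈ sq (x0, y0) := by
    refine ⟨?_, ?_⟩ <;> simp only <;> rw [abs_le] <;> constructor <;> linarith
  have pBR : (((x0 : ℝ) + 1) / 2, ((y0 : ℝ) - 1) / 2) ∈ sq (x0, y0) := by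
    refine ⟨?_, ?_⟩ <;> simp only <;> rw [abs_le] <;> constructor <;> linarith
  have pTL : (((x0 : ℝ) - 1) / 2, ((y0 : ℝ) + 1) / 2) ∈ sq (x0, y0) := by
    refine ⟨?_, ?_⟩ <;> simp only <;> rw [abs_le] <;> constructor <;> linarith
  have inD : ∀ r : ℝ, (((x0 : ℝ) + r) / 2, ((y0 : ℝ) - 1) / 2) ∈ sq (x0, y0 - 2) ↔ |r| ≤ 1 := by
    intro r
    unfold sq
    simp only [mem_ofPred_eq]
    push_cast
    rw [show 2 * (((x0 : ℝ) + r) / 2) - x0 = r by ring,
      show 2 * (((y0 : ℝ) - 1) / 2) - (y0 - 2) = 1 by ring]
    simp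
  have inD' : ∀ r : ℝ, (((x0 : ℝ) + r) / 2, ((y0 : ℝ) - 1) / 2) ∈ sq (x0, y0) ↔ |r| ≤ 1 := by
    intro r
    unfold sq
    simp only [mem_ofPred_eq]
    rw [show 2 * (((x0 : ℝ) + r) / 2) - x0 = r by ring,
      show 2 * (((y0 : ℝ) - 1) / 2) - y0 = -1 by ring]
    simp
  have inL : ∀ r : ℝ, (((x0 : ℝ) - 1) / 2, ((y0 : ℝ) + r) / 2) ∈ sq (x0 - 2, y0) ↔ |r| ≤ 1 := by
    intro r
    unfold sq
    simp only [mem_ofPred_eq]
    push_cast
    rw [show 2 * (((y0 : ℝ) + r) / 2) - y0 = r by ring,
      show 2 * (((x0 : ℝ) - 1) / 2) - (x0 - 2) = 1 by ring]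
    simp
  have inL' : ∀ r : ℝ, (((x0 : ℝ) - 1) / 2, ((y0 : ℝ) + r) / 2) ∈ sq (x0, y0) ↔ |r| ≤ 1 := by
    intro r
    unfold sq
    simp only [mem_ofPred_eq]
    rw [show 2 * (((y0 : ℝ) + r) / 2) - y0 = r by ring,
      show 2 * (((x0 : ℝ) - 1) / 2) - x0 = -1 by ring]
    simp
  have one : |(1 : ℝ)| ≤ 1 := by simp
  have mone : |(-1 : ℝ)| ≤ 1 := by simp
  have zer : |(0 : ℝ)| ≤ 1 := by simp
  have tTL : touch W (((x0 : ℝ) - 1) / 2, ((y0 : ℝ) + 1) / 2) := by
    refine ⟨(x0, y0 + 2), sqU, hU, ?_, ?_⟩ <;> simp only <;> push_cast <;> rw [abs_le] <;>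
      constructor <;> linarith
  have tBR : touch W (((x0 : ℝ) + 1) / 2, ((y0 : ℝ) - 1) / 2) := by
    refine ⟨(x0 + 2, y0), sqR, hR, ?_, ?_⟩ <;> simp only <;> push_cast <;> rw [abs_le] <;>
      constructor <;> linarith
  by_cases hL : ((x0 - 2, y0) : Pt) ∈ W
  · have hLe : ((x0 - 2, y0) : Pt) ∈ W.erase (x0, y0) :=
      Finset.mem_erase.2 ⟨fun h => by rw [Prod.ext_iff] at h; simp only at h; omega, hL⟩
    by_cases hDn : ((x0, y0 - 2) : Pt) ∈ W
    · have hDe : ((x0, y0 - 2) : Pt) ∈ W.erase (x0, y0) :=
        Finset.mem_erase.2 ⟨fun h => by rw [Prod.ext_iff] at h; simp only at h; omega, hDn⟩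
      by_cases hDL : ((x0 - 2, y0 - 2) : Pt) ∈ W
      · -- case 2
        have hDLe : ((x0 - 2, y0 - 2) : Pt) ∈ W.erase (x0, y0) :=
          Finset.mem_erase.2 ⟨fun h => by rw [Prod.ext_iff] at h; simp only at h; omega, hDL⟩
        have n1 : nb ((x0 - 2, y0) : Pt) (x0 - 2, y0 - 2) := by
          right; right; right; rfl
        have n2 : nb ((x0, y0 - 2) : Pt) (x0 - 2, y0 - 2) := by
          right; left; rfl
        refine single (((x0 : ℝ) - 1) / 2, ((y0 : ℝ) + 1) / 2) (((x0 : ℝ) + 1) / 2, ((y0 : ℝ) - 1) / 2)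
          ?_ hint2 hint1 ?_ ⟨_, hLe⟩ ?_ ⟨?_, pTL, tTL⟩ ⟨?_, pBR, tBR⟩ ?_
        · intro h
          rw [Prod.ext_iff] at h
          simp only at h
          linarith [h.1]
        · apply Con_erase hC hsW
          intro B hB hcl
          by_cases hb : ((x0 - 2, y0 - 2) : Pt) ∈ B
          · right
            intro x hx hxs
            rcases nbs x (Finset.mem_of_mem_erase hx) hxs with rfl | rfl
            · exact hcl _ hb _ hLe n1.symm
            · exact hcl _ hb _ hDe n2.symm
          · left
            intro x hx hxs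
            apply hb
            rcases nbs x (Finset.mem_of_mem_erase (hB hx)) hxs with rfl | rfl
            · exact hcl _ hx _ hDLe n1
            · exact hcl _ hx _ hDLe n2
        · intro x hx hxs htx
          obtain ⟨r, hr, hxr⟩ := mem_area.1 hx
          have hcorner : 2 * x.1 = x0 - 1 → 2 * x.2 = y0 - 1 → False := by
            intro k1 k2
            obtain ⟨t, ht, htW, hxt⟩ := htx
            rcases two1 hsS1 ht.1 hxs.1 hxt.1 with h | ⟨_, h⟩ | ⟨h, _⟩
            · rcases two1 hsS2 ht.2 hxs.2 hxt.2 with h' | ⟨_, h'⟩ | ⟨h', _⟩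
              · exact htW (hmemW t _ _ h.symm h'.symm hsW)
              · linarith
              · exact htW (hmemW t _ _ h.symm h' hDn)
            · linarith
            · rcases two1 hsS2 ht.2 hxs.2 hxt.2 with h' | ⟨_, h'⟩ | ⟨h', _⟩
              · exact htW (hmemW t _ _ h h'.symm hL)
              · linarith
              · exact htW (hmemW t _ _ h h' hDL)
          rcases around x r (Finset.mem_of_mem_erase hr) (Finset.ne_of_mem_erase hr) hxs hxr with
            ⟨_, h⟩ | ⟨h, h' | ⟨_, h'⟩ | ⟨_, h'⟩⟩
          · rcases leftE x h hxs hL htx with k | k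
            · exact absurd k (fun k => hcorner h k)
            · left; exact Prod.ext (by simp only; linarith) (by simp only; linarith)
          · rcases bottom x h hxs hDn htx with k | k
            · exact absurd h (fun h => hcorner k h)
            · right; exact Prod.ext (by simp only; linarith) (by simp only; linarith)
          · exact absurd h (fun h => hcorner h' h)
          · right; exact Prod.ext (by simp only; linarith) (by simp only; linarith)
        · exact mem_area.2 ⟨_, hLe, (inL 1).2 one⟩
        · exact mem_area.2 ⟨_, hDe, (inD 1).2 one⟩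
        · refine ⟨(((x0 : ℝ) - 1) / 2, ((y0 : ℝ) + 0) / 2), mem_area.2 ⟨_, hLe, (inL 0).2 zer⟩,
            (inL' 0).2 zer, ?_, ?_⟩
          · intro h
            rw [Prod.ext_iff] at h
            simp only at h
            linarith [h.2]
          · intro h
            rw [Prod.ext_iff] at h
            simp only at h
            linarith [h.2]
      · -- case 3
        obtain ⟨B, hB, hdB, hcl, hBC⟩ := exists_comp hDe
        have hBW : B ⊆ W := hB.trans (Finset.erase_subset _ _)
        have hsB : ((x0, y0) : Pt) ∉ B := fun h => absurd (hB h) (Finset.notMem_erase _ _)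
        have hlB : ((x0 - 2, y0) : Pt) ∉ B := by
          intro hlB
          have hall : B = W.erase (x0, y0) := by
            have hcl' : ∀ x ∈ insert ((x0, y0) : Pt) B, ∀ t ∈ W, nb x t →
                t ∈ insert ((x0, y0) : Pt) B := by
              intro x hx t ht hxt
              rw [Finset.mem_insert] at hx ⊢
              by_cases hts : t = (x0, y0)
              · exact Or.inl hts
              right
              rcases hx with rfl | hx
              · rcases nbs t ht hxt.symm with rfl | rfl
                · exact hlB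
                · exact hdB
              · exact hcl x hx t (Finset.mem_erase.2 ⟨hts, ht⟩) hxt
            rcases hC (insert ((x0, y0) : Pt) B)
              (Finset.insert_subset hsW hBW) hcl' with h | h
            · exact absurd h (Finset.insert_ne_empty _ _)
            · rw [← h, Finset.erase_insert hsB]
          rw [hall] at hBC
          refine no_diag' (HF_erase (s := (x0, y0)) hHF hTop) hBC (a := x0 - 1) (b := y0 - 1)
            ?_ ?_ ?_ ?_
          · rw [show x0 - 1 + 1 = x0 by ring, show y0 - 1 + 1 = y0 by ring]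
            exact Finset.notMem_erase _ _
          · rw [show x0 - 1 - 1 = x0 - 2 by ring, show y0 - 1 - 1 = y0 - 2 by ring]
            exact fun h => hDL (Finset.mem_of_mem_erase h)
          · rw [show x0 - 1 - 1 = x0 - 2 by ring, show y0 - 1 + 1 = y0 by ring]
            exact hLe
          · rw [show x0 - 1 + 1 = x0 by ring, show y0 - 1 - 1 = y0 - 2 by ring]
            exact hDe
        have pair : ∀ a ∈ W, a ∉ B → ∀ b ∈ B, nb a b → a = (x0, y0) ∧ b = (x0, y0 - 2) := by
          intro a ha haB b hb hab
          have h1 : a = (x0, y0) := by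
            by_contra hne'
            exact haB (hcl b hb a (Finset.mem_erase.2 ⟨hne', ha⟩) hab.symm)
          refine ⟨h1, ?_⟩
          rw [h1] at hab
          rcases nbs b (hBW hb) hab.symm with h | h
          · rw [h] at hb; exact absurd hb hlB
          · exact h
        have meet : ∀ (x : ℝ × ℝ) (r1 r2 : Pt), r1 ∈ W → r1 ∉ B → r2 ∈ B → x ∈ sq r1 → x ∈ sq r2 →
            x ∈ sq (x0, y0) ∧ x ∈ sq (x0, y0 - 2) := by
          intro x r1 r2 h1 h1B h2 hx1 hx2
          have h2W := hBW h2
          -- a square `u` of `W` containing `x` and adjacent to both or equal to one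
          have viaU : ∀ u ∈ W, x ∈ sq u → (u = r1 ∨ nb r1 u) → (u = r2 ∨ nb u r2) →
              x ∈ sq (x0, y0) ∧ x ∈ sq (x0, y0 - 2) := by
            intro u hu hxu ha hb
            by_cases huB : u ∈ B
            · rcases ha with ha | ha
              · rw [ha] at huB; exact absurd huB h1B
              · obtain ⟨e1, e2⟩ := pair r1 h1 h1B u huB ha
                rw [← e2, ← e1]
                exact ⟨hx1, hxu⟩
            · rcases hb with hb | hb
              · rw [hb] at huB; exact absurd h2 huB
              · obtain ⟨e1, e2⟩ := pair u hu huB r2 h2 hb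
                rw [← e2, ← e1]
                exact ⟨hxu, hx2⟩
          have m1 : x ∈ sq (r2.1, r1.2) := ⟨hx2.1, hx1.2⟩
          have m2 : x ∈ sq (r1.1, r2.2) := ⟨hx1.1, hx2.2⟩
          obtain ⟨a1, b1⟩ := r1
          obtain ⟨a2, b2⟩ := r2
          simp only at m1 m2
          have e1 := two1 (hW _ h1).1 (hW _ h2W).1 hx1.1 hx2.1
          have e2 := two1 (hW _ h1).2 (hW _ h2W).2 hx1.2 hx2.2
          simp only at e1 e2
          have c1 : a1 = a2 ∨ a2 = a1 + 2 ∨ a2 = a1 - 2 := by
            rcases e1 with h | h | h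
            · exact Or.inl h
            · exact Or.inr (Or.inl h.1)
            · exact Or.inr (Or.inr h.1)
          have c2 : b1 = b2 ∨ b2 = b1 + 2 ∨ b2 = b1 - 2 := by
            rcases e2 with h | h | h
            · exact Or.inl h
            · exact Or.inr (Or.inl h.1)
            · exact Or.inr (Or.inr h.1)
          by_cases hu1 : ((a2, b1) : Pt) ∈ W
          · refine viaU _ hu1 m1 ?_ ?_
            · rcases c1 with h | h | h
              · left; rw [h]
              · right; left; rw [h]
              · right; right; left; rw [h]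
            · rcases c2 with h | h | h
              · left; rw [h]
              · right; right; right; left; rw [h]
              · right; right; right; right; rw [h]
          by_cases hu2 : ((a1, b2) : Pt) ∈ W
          · refine viaU _ hu2 m2 ?_ ?_
            · rcases c2 with h | h | h
              · left; rw [h]
              · right; right; right; left; rw [h]
              · right; right; right; right; rw [h]
            · rcases c1 with h | h | h
              · left; rw [h]
              · right; left; rw [h]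
              · right; right; left; rw [h]
          exfalso
          rcases c1 with rfl | rfl | rfl
          · exact hu1 h1
          · rcases c2 with rfl | rfl | rfl
            · exact hu2 h1
            · refine no_diag hHF hC (a := a1 + 1) (b := b1 + 1) ?_ ?_ ?_ ?_
              · rw [show a1 + 1 + 1 = a1 + 2 by ring, show b1 + 1 + 1 = b1 + 2 by ring]; exact h2W
              · rw [show a1 + 1 - 1 = a1 by ring, show b1 + 1 - 1 = b1 by ring]; exact h1
              · rw [show a1 + 1 - 1 = a1 by ring, show b1 + 1 + 1 = b1 + 2 by ring]; exact hu2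
              · rw [show a1 + 1 + 1 = a1 + 2 by ring, show b1 + 1 - 1 = b1 by ring]; exact hu1
            · refine no_diag' hHF hC (a := a1 + 1) (b := b1 - 1) ?_ ?_ ?_ ?_
              · rw [show a1 + 1 + 1 = a1 + 2 by ring, show b1 - 1 + 1 = b1 by ring]; exact hu1
              · rw [show a1 + 1 - 1 = a1 by ring, show b1 - 1 - 1 = b1 - 2 by ring]; exact hu2
              · rw [show a1 + 1 - 1 = a1 by ring, show b1 - 1 + 1 = b1 by ring]; exact h1
              · rw [show a1 + 1 + 1 = a1 + 2 by ring, show b1 - 1 - 1 = b1 - 2 by ring]; exact h2W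
          · rcases c2 with rfl | rfl | rfl
            · exact hu2 h1
            · refine no_diag' hHF hC (a := a1 - 1) (b := b1 + 1) ?_ ?_ ?_ ?_
              · rw [show a1 - 1 + 1 = a1 by ring, show b1 + 1 + 1 = b1 + 2 by ring]; exact hu2
              · rw [show a1 - 1 - 1 = a1 - 2 by ring, show b1 + 1 - 1 = b1 by ring]; exact hu1
              · rw [show a1 - 1 - 1 = a1 - 2 by ring, show b1 + 1 + 1 = b1 + 2 by ring]; exact h2W
              · rw [show a1 - 1 + 1 = a1 by ring, show b1 + 1 - 1 = b1 by ring]; exact h1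
            · refine no_diag hHF hC (a := a1 - 1) (b := b1 - 1) ?_ ?_ ?_ ?_
              · rw [show a1 - 1 + 1 = a1 by ring, show b1 - 1 + 1 = b1 by ring]; exact h1
              · rw [show a1 - 1 - 1 = a1 - 2 by ring, show b1 - 1 - 1 = b1 - 2 by ring]; exact h2W
              · rw [show a1 - 1 - 1 = a1 - 2 by ring, show b1 - 1 + 1 = b1 by ring]; exact hu1
              · rw [show a1 - 1 + 1 = a1 by ring, show b1 - 1 - 1 = b1 - 2 by ring]; exact hu2
        -- the complementary part is connected and hole-free, so is `B`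
        have hs1 : ((x0, y0) : Pt) ∈ W \ B := Finset.mem_sdiff.2 ⟨hsW, hsB⟩
        have hC1 : Con (W \ B) := by
          have small : ∀ T ⊆ W \ B, (∀ x ∈ T, ∀ t ∈ W \ B, nb x t → t ∈ T) →
              ((x0, y0) : Pt) ∉ T → T = ∅ := by
            intro T hT hTc hsT
            have hcl' : ∀ x ∈ T, ∀ t ∈ W, nb x t → t ∈ T := by
              intro x hx t ht hxt
              have hx' := Finset.mem_sdiff.1 (hT hx)
              by_cases htB : t ∈ B
              · obtain ⟨e1, _⟩ := pair x hx'.1 hx'.2 t htB hxt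
                rw [e1] at hx
                exact absurd hx hsT
              · exact hTc x hx t (Finset.mem_sdiff.2 ⟨ht, htB⟩) hxt
            rcases hC T (hT.trans Finset.sdiff_subset) hcl' with h | h
            · exact h
            · rw [h] at hsT; exact absurd hsW hsT
          intro T hT hTc
          by_cases hsT : ((x0, y0) : Pt) ∈ T
          · right
            have : (W \ B) \ T = ∅ := by
              apply small _ Finset.sdiff_subset
              · intro x hx t ht hxt
                rw [Finset.mem_sdiff] at hx ⊢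
                exact ⟨ht, fun htT => hx.2 (hTc t htT x hx.1 hxt.symm)⟩
              · intro h
                exact (Finset.mem_sdiff.1 h).2 hsT
            exact Finset.Subset.antisymm hT (Finset.sdiff_eq_empty_iff_subset.1 this)
          · exact Or.inl (small T hT hTc hsT)
        have hHF1 : HF (W \ B) := by
          intro T hdis hTc
          -- the part outside `W` is empty
          have h0 : T \ W = ∅ := by
            apply hHF _ Finset.sdiff_disjoint
            intro t ht t' htt
            rw [Finset.mem_sdiff] at ht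
            by_cases h' : t' ∈ W
            · exact Or.inr h'
            · rcases hTc t ht.1 t' htt with h | h
              · exact Or.inl (Finset.mem_sdiff.2 ⟨h, h'⟩)
              · exact absurd (Finset.mem_sdiff.1 h).1 h'
          have hTW : T ⊆ W := Finset.sdiff_eq_empty_iff_subset.1 h0
          by_contra hTne
          obtain ⟨m, hm, hmin⟩ := Finset.exists_min_image T (fun p => p.1)
            (Finset.nonempty_iff_ne_empty.2 hTne)
          have hmB : m ∈ B := by
            by_contra h
            exact Finset.disjoint_left.1 hdis hm (Finset.mem_sdiff.2 ⟨hTW hm, h⟩)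
          have hnbm : nb m (m.1 - 2, m.2) := Or.inr (Or.inl rfl)
          rcases hTc m hm _ hnbm with h | h
          · have := hmin _ h
            simp only at this
            omega
          · rw [Finset.mem_sdiff] at h
            obtain ⟨e1, e2⟩ := pair _ h.1 h.2 m hmB hnbm.symm
            rw [Prod.ext_iff] at e1 e2
            simp only at e1 e2
            omega
        have hHF2 : HF B := by
          intro T hdis hTc
          have hsT : ((x0, y0) : Pt) ∉ T := no_top (V := B) (fun t h => hTop t (hBW h)) hTc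
          have h0 : T ∩ W = ∅ := by
            have ha1 : T ∩ W ⊆ W \ B := by
              intro t ht
              rw [Finset.mem_inter] at ht
              exact Finset.mem_sdiff.2 ⟨ht.2, fun h => Finset.disjoint_left.1 hdis ht.1 h⟩
            have ha2 : ∀ t ∈ T ∩ W, ∀ t' ∈ W \ B, nb t t' → t' ∈ T ∩ W := by
              intro t ht t' ht' htt
              rw [Finset.mem_inter] at ht ⊢
              rw [Finset.mem_sdiff] at ht'
              rcases hTc t ht.1 t' htt with h | h
              · exact ⟨h, ht'.1⟩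
              · exact absurd h ht'.2
            rcases hC1 (T ∩ W) ha1 ha2 with h | h
            · exact h
            · rw [← h] at hs1
              exact absurd (Finset.mem_inter.1 hs1).1 hsT
          apply hHF T
          · rw [Finset.disjoint_iff_inter_eq_empty]; exact h0
          · intro t ht t' htt
            rcases hTc t ht t' htt with h | h
            · exact Or.inl h
            · exact Or.inr (hBW h)
        refine cut2 (W1 := W \ B) (W2 := B) (W := W) (fun t ht => hW t (Finset.mem_sdiff.1 ht).1)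
          (fun t ht => hW t (hBW ht)) ?_ ⟨_, hs1⟩ ⟨_, hdB⟩ ?_ (fun a ha => (Finset.mem_sdiff.1 ha).2)
          (p := (((x0 : ℝ) - 1) / 2, ((y0 : ℝ) - 1) / 2)) (q := (((x0 : ℝ) + 1) / 2, ((y0 : ℝ) - 1) / 2))
          ?_ hint1 hint1 ?_ ⟨mem_area.2 ⟨_, hs1, pBL⟩, mem_area.2 ⟨_, hdB, ?_⟩, ?_⟩
          ⟨mem_area.2 ⟨_, hs1, pBR⟩, mem_area.2 ⟨_, hdB, (inD 1).2 one⟩, tBR⟩ ?_ ?_ ?_
        · intro t
          rw [Finset.mem_sdiff]
          constructor
          · intro h
            by_cases hh : t ∈ B
            · exact Or.inr hh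
            · exact Or.inl ⟨h, hh⟩
          · rintro (h | h)
            · exact h.1
            · exact hBW h
        · intro a ha h
          rw [Finset.mem_sdiff] at ha
          have hn : nb a (a.1 - 2, a.2) := Or.inr (Or.inl rfl)
          obtain ⟨e1, e2⟩ := pair a ha.1 ha.2 _ h hn
          rw [Prod.ext_iff] at e1 e2
          simp only at e1 e2
          omega
        · intro h
          rw [Prod.ext_iff] at h
          simp only at h
          linarith [h.1]
        · intro x hx1 hx2 htx
          obtain ⟨r1, hr1, hxr1⟩ := mem_area.1 hx1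
          obtain ⟨r2, hr2, hxr2⟩ := mem_area.1 hx2
          rw [Finset.mem_sdiff] at hr1
          obtain ⟨hxs, hxd⟩ := meet x r1 r2 hr1.1 hr1.2 hr2 hxr1 hxr2
          have hx2' : 2 * x.2 = y0 - 1 := by
            rcases two1 hsS2 sqD.2 hxs.2 hxd.2 with h | ⟨h, _⟩ | ⟨_, h⟩
            · simp only at h; omega
            · simp only at h; omega
            · exact h
          rcases bottom x hx2' hxs hDn htx with k | k
          · left; exact Prod.ext (by simp only; linarith) (by simp only; linarith)
          · right; exact Prod.ext (by simp only; linarith) (by simp only; linarith)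
        · have := (inD (-1)).2 mone
          rwa [show (x0 : ℝ) + -1 = x0 - 1 by ring] at this
        · refine ⟨(x0 - 2, y0 - 2), sqDL, hDL, ?_, ?_⟩ <;> simp only <;> push_cast <;>
            rw [abs_le] <;> constructor <;> linarith
        · refine ⟨(((x0 : ℝ) + 0) / 2, ((y0 : ℝ) - 1) / 2), mem_area.2 ⟨_, hs1, (inD' 0).2 zer⟩,
            mem_area.2 ⟨_, hdB, (inD 0).2 zer⟩, ?_, ?_⟩
          · intro h
            rw [Prod.ext_iff] at h
            simp only at h
            linarith [h.1]
          · intro h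
            rw [Prod.ext_iff] at h
            simp only at h
            linarith [h.1]
        · refine IH _ ?_ (W \ B) rfl (fun t ht => hW t (Finset.mem_sdiff.1 ht).1) ⟨_, hs1⟩ hC1 hHF1
          rw [← hcard]
          refine Finset.card_lt_card ⟨Finset.sdiff_subset, fun h => ?_⟩
          exact (Finset.mem_sdiff.1 (h (hBW hdB))).2 hdB
        · refine IH _ ?_ B rfl (fun t ht => hW t (hBW ht)) ⟨_, hdB⟩ hBC hHF2
          rw [← hcard]
          exact Finset.card_lt_card ⟨hBW, fun h => hsB (h hsW)⟩
    · -- only the left neighbour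
      refine single (((x0 : ℝ) - 1) / 2, ((y0 : ℝ) - 1) / 2) (((x0 : ℝ) - 1) / 2, ((y0 : ℝ) + 1) / 2)
        ?_ hint1 hint2 ?_ ⟨_, hLe⟩ ?_ ⟨?_, pBL, ?_⟩ ⟨?_, pTL, tTL⟩ ?_
      · intro h
        rw [Prod.ext_iff] at h
        simp only at h
        linarith [h.2]
      · apply Con_erase hC hsW
        intro B hB hcl
        by_cases hb : ((x0 - 2, y0) : Pt) ∈ B
        · right
          intro x hx hxs
          rcases nbs x (Finset.mem_of_mem_erase hx) hxs with rfl | rfl
          · exact hb
          · exact absurd (Finset.mem_of_mem_erase hx) hDn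
        · left
          intro x hx hxs
          rcases nbs x (Finset.mem_of_mem_erase (hB hx)) hxs with rfl | rfl
          · exact hb hx
          · exact hDn (Finset.mem_of_mem_erase (hB hx))
      · intro x hx hxs htx
        obtain ⟨r, hr, hxr⟩ := mem_area.1 hx
        rcases around x r (Finset.mem_of_mem_erase hr) (Finset.ne_of_mem_erase hr) hxs hxr with
          ⟨_, h⟩ | ⟨h, h' | ⟨_, h'⟩ | ⟨h'', h'⟩⟩
        · rcases leftE x h hxs hL htx with k | k
          · left; exact Prod.ext (by simp only; linarith) (by simp only; linarith)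
          · right; exact Prod.ext (by simp only; linarith) (by simp only; linarith)
        · rw [h'] at hr
          exact absurd (Finset.mem_of_mem_erase hr) hDn
        · left; exact Prod.ext (by simp only; linarith) (by simp only; linarith)
        · exfalso
          rw [h''] at hr
          refine no_diag' hHF hC (a := x0 + 1) (b := y0 - 1) ?_ ?_ ?_ ?_
          · rw [show x0 + 1 + 1 = x0 + 2 by ring, show y0 - 1 + 1 = y0 by ring]; exact hR
          · rw [show x0 + 1 - 1 = x0 by ring, show y0 - 1 - 1 = y0 - 2 by ring]; exact hDn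
          · rw [show x0 + 1 - 1 = x0 by ring, show y0 - 1 + 1 = y0 by ring]; exact hsW
          · rw [show x0 + 1 + 1 = x0 + 2 by ring, show y0 - 1 - 1 = y0 - 2 by ring]
            exact Finset.mem_of_mem_erase hr
      · have := (inL (-1)).2 mone
        rw [show (y0 : ℝ) + -1 = y0 - 1 by ring] at this
        exact mem_area.2 ⟨_, hLe, this⟩
      · refine ⟨(x0, y0 - 2), sqD, hDn, ?_, ?_⟩ <;> simp only <;> push_cast <;>
          rw [abs_le] <;> constructor <;> linarith
      · exact mem_area.2 ⟨_, hLe, (inL 1).2 one⟩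
      · refine ⟨(((x0 : ℝ) - 1) / 2, ((y0 : ℝ) + 0) / 2), mem_area.2 ⟨_, hLe, (inL 0).2 zer⟩,
          (inL' 0).2 zer, ?_, ?_⟩
        · intro h
          rw [Prod.ext_iff] at h
          simp only at h
          linarith [h.2]
        · intro h
          rw [Prod.ext_iff] at h
          simp only at h
          linarith [h.2]
  · by_cases hDn : ((x0, y0 - 2) : Pt) ∈ W
    · -- only the lower neighbour
      have hDe : ((x0, y0 - 2) : Pt) ∈ W.erase (x0, y0) :=
        Finset.mem_erase.2 ⟨fun h => by rw [Prod.ext_iff] at h; simp only at h; omega, hDn⟩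
      refine single (((x0 : ℝ) - 1) / 2, ((y0 : ℝ) - 1) / 2) (((x0 : ℝ) + 1) / 2, ((y0 : ℝ) - 1) / 2)
        ?_ hint1 hint1 ?_ ⟨_, hDe⟩ ?_ ⟨?_, pBL, ?_⟩ ⟨?_, pBR, tBR⟩ ?_
      · intro h
        rw [Prod.ext_iff] at h
        simp only at h
        linarith [h.1]
      · apply Con_erase hC hsW
        intro B hB hcl
        by_cases hb : ((x0, y0 - 2) : Pt) ∈ B
        · right
          intro x hx hxs
          rcases nbs x (Finset.mem_of_mem_erase hx) hxs with rfl | rfl
          · exact absurd (Finset.mem_of_mem_erase hx) hL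
          · exact hb
        · left
          intro x hx hxs
          rcases nbs x (Finset.mem_of_mem_erase (hB hx)) hxs with rfl | rfl
          · exact hL (Finset.mem_of_mem_erase (hB hx))
          · exact hb hx
      · intro x hx hxs htx
        obtain ⟨r, hr, hxr⟩ := mem_area.1 hx
        rcases around x r (Finset.mem_of_mem_erase hr) (Finset.ne_of_mem_erase hr) hxs hxr with
          ⟨h', _⟩ | ⟨h, h' | ⟨_, h'⟩ | ⟨_, h'⟩⟩
        · rw [h'] at hr
          exact absurd (Finset.mem_of_mem_erase hr) hL
        · rcases bottom x h hxs hDn htx with k | k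
          · left; exact Prod.ext (by simp only; linarith) (by simp only; linarith)
          · right; exact Prod.ext (by simp only; linarith) (by simp only; linarith)
        · left; exact Prod.ext (by simp only; linarith) (by simp only; linarith)
        · right; exact Prod.ext (by simp only; linarith) (by simp only; linarith)
      · have := (inD (-1)).2 mone
        rw [show (x0 : ℝ) + -1 = x0 - 1 by ring] at this
        exact mem_area.2 ⟨_, hDe, this⟩
      · refine ⟨(x0 - 2, y0), sqL, hL, ?_, ?_⟩ <;> simp only <;> push_cast <;>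
          rw [abs_le] <;> constructor <;> linarith
      · exact mem_area.2 ⟨_, hDe, (inD 1).2 one⟩
      · refine ⟨(((x0 : ℝ) + 0) / 2, ((y0 : ℝ) - 1) / 2), mem_area.2 ⟨_, hDe, (inD 0).2 zer⟩,
          (inD' 0).2 zer, ?_, ?_⟩
        · intro h
          rw [Prod.ext_iff] at h
          simp only at h
          linarith [h.1]
        · intro h
          rw [Prod.ext_iff] at h
          simp only at h
          linarith [h.1]
    · -- no neighbour
      have hWs : W = {(x0, y0)} := by
        have hcl' : ∀ x ∈ ({(x0, y0)} : Finset Pt), ∀ t ∈ W, nb x t → t ∈ ({(x0, y0)} : Finset Pt) := by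
          intro x hx t ht hxt
          rw [Finset.mem_singleton] at hx
          rw [hx] at hxt
          rcases nbs t ht hxt.symm with rfl | rfl
          · exact absurd ht hL
          · exact absurd ht hDn
        rcases hC {(x0, y0)} (Finset.singleton_subset_iff.2 hsW) hcl' with h | h
        · exact absurd h (Finset.singleton_ne_empty _)
        · exact h.symm
      rw [hWs]
      exact std_single hsS

/-- **dimension 2**: a finite nonempty connected hole-free set of lattice squares is bounded by a
standard curve -/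
theorem std2 {W : Finset Pt} (hW : ∀ s ∈ W, Sq s) (hne : W.Nonempty) (hC : Con W) (hHF : HF W) :
    StdC (frontier (area W)) := by
  rw [frontier_area hW]
  exact std2_aux _ W rfl hW hne hC hHF

end Crest.Agent.R096.Al_63
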