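import Mathlib
import Crest.Agent.R096.Lc6_451

/-!
# R096/Lc7_451 (helper451, row 96, P2-CUBE)

Cutting a cubical Sep-surface `S` along a flat region `W × {h}`: if `E ⊆ S` has boundary `∂W × {h}` then
`E ∪ W × {h}` is again a cubical Sep-surface.
-/

set_option autoImplicit false

namespace Crest.Agent.R096.Lc_451

/-- the four cofaces of an edge -/
theorem four {p : Pt} {z : ℤ} (hD : D1 p z) : ∃ (q1 q2 q3 q4 : Pt) (z1 z2 z3 z4 : ℤ),
    (∀ A : Pt → ℤ → ZMod 2, bd A p z = A q1 z1 + A q2 z2 + (A q3 z3 + A q4 z4)) ∧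
    ∀ q z', Cf p z q z' ↔ (q = q1 ∧ z' = z1) ∨ (q = q2 ∧ z' = z2) ∨ (q = q3 ∧ z' = z3) ∨
      (q = q4 ∧ z' = z4) := by
  rcases hD with ⟨hed, hz⟩ | ⟨hv, hz⟩
  · obtain ⟨s, t, hs, ht, hst, hm, hb, hcf⟩ := sides' hed
    refine ⟨s, t, p, p, z, z, z + 1, z - 1, ?_, ?_⟩
    · intro A
      rw [bd_even hz, hb]
    · intro q z'
      rw [hcf z q z' hz]
      tauto
  · refine ⟨(p.1 + 1, p.2), (p.1 - 1, p.2), (p.1, p.2 + 1), (p.1, p.2 - 1), z, z, z, z, ?_, ?_⟩
    · intro A
      rw [bd_odd hz, bd2_vx hv]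
    · intro q z'
      unfold Cf
      have h1 := hv.1
      have h2 := hv.2
      constructor
      · rintro (⟨_, h | h, h'⟩ | ⟨_, h | h, h'⟩ | ⟨h, _, _⟩)
        · exact Or.inl ⟨h, h'⟩
        · exact Or.inr (Or.inl ⟨h, h'⟩)
        · exact Or.inr (Or.inr (Or.inl ⟨h, h'⟩))
        · exact Or.inr (Or.inr (Or.inr ⟨h, h'⟩))
        · omega
      · rintro (⟨h, h'⟩ | ⟨h, h'⟩ | ⟨h, h'⟩ | ⟨h, h'⟩)
        · exact Or.inl ⟨h1, Or.inl h, h'⟩
        · exact Or.inl ⟨h1, Or.inr h, h'⟩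
        · exact Or.inr (Or.inl ⟨h2, Or.inl h, h'⟩)
        · exact Or.inr (Or.inl ⟨h2, Or.inr h, h'⟩)

set_option synthInstance.maxSize 2000 in
set_option synthInstance.maxHeartbeats 2000000 in
set_option maxRecDepth 20000 in
theorem zz : ∀ s1 s2 s3 s4 u1 u2 u3 u4 : ZMod 2, s1 + s2 + (s3 + s4) = 0 →
    u1 + u2 + (u3 + u4) = 0 → (u1 ≠ 0 → s1 ≠ 0) → (u2 ≠ 0 → s2 ≠ 0) → (u3 ≠ 0 → s3 ≠ 0) →
    (u4 ≠ 0 → s4 ≠ 0) → (s1 = 0 ∨ s2 = 0 ∨ s3 = 0 ∨ s4 = 0) →
    (u1 = 0 ∧ u2 = 0 ∧ u3 = 0 ∧ u4 = 0) ∨ (u1 = s1 ∧ u2 = s2 ∧ u3 = s3 ∧ u4 = s4) := by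
  decide

/-- at an edge where `U ⊆ S` has no boundary, `U` contains all or none of the squares of `S` -/
theorem edge_all_none {S U : Pt → ℤ → ZMod 2} (hS : Surf S) (hU : ∀ p z, U p z ≠ 0 → S p z ≠ 0)
    {p : Pt} {z : ℤ} (hD : D1 p z) (hb : bd U p z = 0) :
    (∀ q z', Cf p z q z' → U q z' = 0) ∨ (∀ q z', Cf p z q z' → U q z' = S q z') := by
  obtain ⟨q1, q2, q3, q4, z1, z2, z3, z4, h4, hc⟩ := four hD
  have h1 := hS.cl p z hD
  rw [h4] at h1 hb
  obtain ⟨q0, z0, hc0, h0⟩ := hS.m1 p z hD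
  have hz : S q1 z1 = 0 ∨ S q2 z2 = 0 ∨ S q3 z3 = 0 ∨ S q4 z4 = 0 := by
    rw [hc] at hc0
    rcases hc0 with ⟨e1, e2⟩ | ⟨e1, e2⟩ | ⟨e1, e2⟩ | ⟨e1, e2⟩
    · rw [e1, e2] at h0; exact Or.inl h0
    · rw [e1, e2] at h0; exact Or.inr (Or.inl h0)
    · rw [e1, e2] at h0; exact Or.inr (Or.inr (Or.inl h0))
    · rw [e1, e2] at h0; exact Or.inr (Or.inr (Or.inr h0))
  rcases zz _ _ _ _ _ _ _ _ h1 hb (hU q1 z1) (hU q2 z2) (hU q3 z3) (hU q4 z4) hz with
    ⟨g1, g2, g3, g4⟩ | ⟨g1, g2, g3, g4⟩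
  · left
    intro q z' hc'
    rw [hc] at hc'
    rcases hc' with ⟨e1, e2⟩ | ⟨e1, e2⟩ | ⟨e1, e2⟩ | ⟨e1, e2⟩ <;> rw [e1, e2] <;> assumption
  · right
    intro q z' hc'
    rw [hc] at hc'
    rcases hc' with ⟨e1, e2⟩ | ⟨e1, e2⟩ | ⟨e1, e2⟩ | ⟨e1, e2⟩ <;> rw [e1, e2] <;> assumption

theorem add_ne_left {a b : ZMod 2} (ha : a ≠ 0) (hb : b = 0) : a + b ≠ 0 := by
  rw [hb, add_zero]; exact ha

theorem add_ne_right {a b : ZMod 2} (ha : a = 0) (hb : b ≠ 0) : a + b ≠ 0 := by
  rw [ha, zero_add]; exact hb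

theorem or_of_add_ne {a b : ZMod 2} (h : a + b ≠ 0) : a ≠ 0 ∨ b ≠ 0 := by
  by_contra hcon
  push Not at hcon
  rw [hcon.1, hcon.2] at h
  exact h (by decide)

/-- `E ∪ W × {h}` -/
def glue (E : Pt → ℤ → ZMod 2) (W : Finset Pt) (h : ℤ) (p : Pt) (z : ℤ) : ZMod 2 :=
  E p z + layer W h p z

section half

variable {S X : Pt → ℤ → ZMod 2} (hS : Surf S)
  (hXd : ∀ p z, X p z ≠ 0 → Sq p ∧ z % 2 = 1) (hX : ∀ p z, bd X p z = S p z)
  {h : ℤ} {a : ZMod 2} {W : Finset Pt} (R : Reg X h a W)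
  {E : Pt → ℤ → ZMod 2} (hE : ∀ p z, E p z ≠ 0 → S p z ≠ 0)
  (hbE : ∀ p z, D1 p z → bd E p z = bd (layer W h) p z)

theorem glue_or {E : Pt → ℤ → ZMod 2} {W : Finset Pt} {h : ℤ} {p : Pt} {z : ℤ}
    (hne : glue E W h p z ≠ 0) : E p z ≠ 0 ∨ (z = h ∧ p ∈ W) := by
  rcases or_of_add_ne hne with h1 | h1
  · exact Or.inl h1
  · exact Or.inr (layer_ne h1)

include hXd hX R hE in
theorem E_on_W {s : Pt} (hs : s ∈ W) : E s h = 0 := by
  by_contra h1
  exact hE s h h1 (S_on_W hXd hX R hs)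

include hXd hX R hE in
theorem glue_of_W {s : Pt} (hs : s ∈ W) : glue E W h s h = 1 := by
  unfold glue layer
  rw [E_on_W hXd hX R hE hs, if_pos ⟨rfl, hs⟩, zero_add]

include hXd hX R hE in
theorem glue_of_E {p : Pt} {z : ℤ} (hp : E p z ≠ 0) : glue E W h p z ≠ 0 := by
  unfold glue
  apply add_ne_left hp
  by_contra h1
  obtain ⟨h2, h3⟩ := layer_ne h1
  rw [h2] at hp
  exact hp (E_on_W hXd hX R hE h3)

include hS hXd R hE in
theorem glue_dim : ∀ p z, glue E W h p z ≠ 0 → D2 p z := by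
  intro p z hne
  rcases glue_or hne with h1 | ⟨h1, h2⟩
  · exact hS.dim p z (hE p z h1)
  · rw [h1]
    exact Or.inl ⟨reg_sq hXd R p h2, reg_even hXd R⟩

include hbE in
theorem glue_cl : ∀ p z, D1 p z → bd (glue E W h) p z = 0 := by
  intro p z hD
  have : bd (glue E W h) p z = bd E p z + bd (layer W h) p z := bd_add _ _ p z
  rw [this, hbE p z hD, zmod2_self]

include hS hXd hX R hE in
theorem glue_m1 : ∀ p z, D1 p z → ∃ q z', Cf p z q z' ∧ glue E W h q z' = 0 := by
  intro p z hD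
  by_contra hcon
  push Not at hcon
  have he := reg_even hXd R
  obtain ⟨q0, z0, hc0, h0⟩ := hS.m1 p z hD
  have hE0 : E q0 z0 = 0 := by
    by_contra h1
    exact hE _ _ h1 h0
  rcases glue_or (hcon q0 z0 hc0) with h1 | ⟨h1, h2⟩
  · exact h1 hE0
  · subst h1
    have hqs := reg_sq hXd R q0 h2
    have hz : z = z0 ∧ Ed p := by
      unfold Cf at hc0
      unfold Sq at hqs
      rcases hc0 with ⟨h1, h2, h3⟩ | ⟨h1, h2, h3⟩ | ⟨h1, h2, h3⟩
      · refine ⟨h3.symm, Or.inl ⟨h1, ?_⟩⟩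
        rcases h2 with rfl | rfl
        · exact hqs.2
        · exact hqs.2
      · refine ⟨h3.symm, Or.inr ⟨?_, h1⟩⟩
        rcases h2 with rfl | rfl
        · exact hqs.1
        · exact hqs.1
      · omega
    obtain ⟨rfl, hed⟩ := hz
    obtain ⟨s, t, hs, ht, hst, hm, hb, hcf⟩ := sides' hed
    have hup : Cf p z p (z + 1) := (hcf _ _ _ he).2 (Or.inr ⟨rfl, Or.inl rfl⟩)
    have hdn : Cf p z p (z - 1) := (hcf _ _ _ he).2 (Or.inr ⟨rfl, Or.inr rfl⟩)
    have hcs : Cf p z s z := (hcf _ _ _ he).2 (Or.inl ⟨Or.inl rfl, rfl⟩)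
    have hct : Cf p z t z := (hcf _ _ _ he).2 (Or.inl ⟨Or.inr rfl, rfl⟩)
    have hS1 : ∀ w, (w = z + 1 ∨ w = z - 1) → S p w ≠ 0 := by
      intro w hw
      have hcw : Cf p z p w := by
        rcases hw with rfl | rfl
        · exact hup
        · exact hdn
      rcases glue_or (hcon p w hcw) with h3 | ⟨h3, _⟩
      · exact hE _ _ h3
      · omega
    have hu := hS1 _ (Or.inl rfl)
    have hd := hS1 _ (Or.inr rfl)
    obtain ⟨_, hc1⟩ := F3 hXd hX R hc0 h2 hup hu hD
    rw [hb] at hc1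
    have hcl := hS.cl p z hD
    rw [bd_even he, hb] at hcl
    rw [zmod2_ne_zero hu, zmod2_ne_zero hd] at hcl
    by_cases hsW : s ∈ W
    · have htW : t ∉ W := by
        intro htW
        rw [ind_mem hsW, ind_mem htW] at hc1
        exact absurd hc1 (by decide)
      rcases glue_or (hcon t z hct) with h3 | ⟨_, h3⟩
      · rw [S_on_W hXd hX R hsW, zmod2_ne_zero (hE _ _ h3)] at hcl
        exact absurd hcl (by decide)
      · exact htW h3
    · have htW : t ∈ W := by
        by_contra htW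
        rw [ind_not hsW, ind_not htW] at hc1
        exact absurd hc1 (by decide)
      rcases glue_or (hcon s z hcs) with h3 | ⟨_, h3⟩
      · rw [S_on_W hXd hX R htW, zmod2_ne_zero (hE _ _ h3)] at hcl
        exact absurd hcl (by decide)
      · exact hsW h3

include hXd hX R hE in
/-- `T ⊆ E ∪ W` closed at an interior edge of `W` is equal on both sides -/
theorem T_adj {T : Pt → ℤ → ZMod 2} (hT : ∀ p z, T p z ≠ 0 → glue E W h p z ≠ 0) {s t : Pt}
    (hs : s ∈ W) (ht : t ∈ W) (hst : nb s t) (hcl : bd T (mid s t) h = 0) : T s h + T t h = 0 := by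
  have he := reg_even hXd R
  have h0 : ∀ w, (w = h + 1 ∨ w = h - 1) → T (mid s t) w = 0 := by
    intro w hw
    by_contra h1
    rcases glue_or (hT _ _ h1) with h2 | ⟨h2, _⟩
    · exact hE _ _ h2 (S_int hXd hX R hs ht hst hw)
    · omega
  rw [bd_even he, (bd2_mid (reg_sq hXd R s hs) hst).2.2, h0 _ (Or.inl rfl), h0 _ (Or.inr rfl)] at hcl
  simp only [add_zero] at hcl
  exact hcl

include hS hXd hX R hE in
theorem T_const_near {T : Pt → ℤ → ZMod 2} (hT : ∀ p z, T p z ≠ 0 → glue E W h p z ≠ 0) {x y : ℤ}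
    (hx : x % 2 = 0) (hy : y % 2 = 0)
    (hcl : ∀ p z, D1 p z → Nr (x, y) h p z → bd T p z = 0) :
    (∀ s ∈ W, Nr (x, y) h s h → T s h = 0) ∨ (∀ s ∈ W, Nr (x, y) h s h → T s h = 1) := by
  have he := reg_even hXd R
  have hadj : ∀ s t, s ∈ W → t ∈ W → nb s t → Nr (x, y) h s h → Nr (x, y) h t h → T s h = T t h := by
    intro s t hs ht hst hns hnt
    apply zmod2_eq_of_add
    apply T_adj hXd hX R hE hT hs ht hst
    apply hcl
    · exact Or.inl ⟨(bd2_mid (reg_sq hXd R s hs) hst).1, he⟩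
    · unfold Nr mid at *
      simp only at *
      rw [abs_le, abs_le, abs_le] at *
      omega
  have n1 : Nr (x, y) h (x + 1, y + 1) h := by unfold Nr; simp
  have n2 : Nr (x, y) h (x - 1, y + 1) h := by unfold Nr; simp
  have n3 : Nr (x, y) h (x - 1, y - 1) h := by unfold Nr; simp
  have n4 : Nr (x, y) h (x + 1, y - 1) h := by unfold Nr; simp
  have a12 : nb (x + 1, y + 1) (x - 1, y + 1) := by right; left; ext <;> simp only; ring
  have a23 : nb (x - 1, y + 1) (x - 1, y - 1) := by right; right; right; ext <;> simp only; ring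
  have a34 : nb (x - 1, y - 1) (x + 1, y - 1) := by left; ext <;> simp only; ring
  have a41 : nb (x + 1, y - 1) (x + 1, y + 1) := by right; right; left; ext <;> simp only; ring
  have e12 : (x + 1, y + 1) ∈ W → (x - 1, y + 1) ∈ W → T (x + 1, y + 1) h = T (x - 1, y + 1) h :=
    fun u v => hadj _ _ u v a12 n1 n2
  have e23 : (x - 1, y + 1) ∈ W → (x - 1, y - 1) ∈ W → T (x - 1, y + 1) h = T (x - 1, y - 1) h :=
    fun u v => hadj _ _ u v a23 n2 n3
  have e34 : (x - 1, y - 1) ∈ W → (x + 1, y - 1) ∈ W → T (x - 1, y - 1) h = T (x + 1, y - 1) h :=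
    fun u v => hadj _ _ u v a34 n3 n4
  have e41 : (x + 1, y - 1) ∈ W → (x + 1, y + 1) ∈ W → T (x + 1, y - 1) h = T (x + 1, y + 1) h :=
    fun u v => hadj _ _ u v a41 n4 n1
  have d13 : (x + 1, y + 1) ∈ W → (x - 1, y - 1) ∈ W → T (x + 1, y + 1) h = T (x - 1, y - 1) h := by
    intro u v
    by_cases h2 : (x - 1, y + 1) ∈ W
    · exact (e12 u h2).trans (e23 h2 v)
    · by_cases h4 : (x + 1, y - 1) ∈ W
      · exact (e41 h4 u).symm.trans (e34 v h4).symm
      · exact (no_pinch hS hXd hX R hx hy (Or.inl rfl) u v h2 h4).elim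
  have d24 : (x - 1, y + 1) ∈ W → (x + 1, y - 1) ∈ W → T (x - 1, y + 1) h = T (x + 1, y - 1) h := by
    intro u v
    by_cases h3 : (x - 1, y - 1) ∈ W
    · exact (e23 u h3).trans (e34 h3 v)
    · by_cases h1 : (x + 1, y + 1) ∈ W
      · exact (e12 h1 u).symm.trans (e41 v h1).symm
      · exfalso
        refine no_pinch hS hXd hX R hx hy (σ := -1) (Or.inr rfl) ?_ ?_ ?_ ?_
        · exact u
        · rw [show x - -1 = x + 1 by ring]; exact v
        · rw [show x - -1 = x + 1 by ring]; exact h1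
        · exact h3
  have hall : ∀ s ∈ W, ∀ t ∈ W, Nr (x, y) h s h → Nr (x, y) h t h → T s h = T t h := by
    intro s hs t ht hns hnt
    rcases near_sq hx hy hns (reg_sq hXd R s hs) with rfl | rfl | rfl | rfl <;>
    rcases near_sq hx hy hnt (reg_sq hXd R t ht) with rfl | rfl | rfl | rfl <;>
    first
    | rfl
    | exact e12 hs ht
    | exact (e12 ht hs).symm
    | exact e23 hs ht
    | exact (e23 ht hs).symm
    | exact e34 hs ht
    | exact (e34 ht hs).symm
    | exact e41 hs ht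
    | exact (e41 ht hs).symm
    | exact d13 hs ht
    | exact (d13 ht hs).symm
    | exact d24 hs ht
    | exact (d24 ht hs).symm
  by_cases hex : ∃ s ∈ W, Nr (x, y) h s h ∧ T s h = 1
  · obtain ⟨s, hs, hns, h1⟩ := hex
    right
    intro t ht hnt
    rw [← hall s hs t ht hns hnt]
    exact h1
  · left
    intro s hs hns
    by_contra h1
    exact hex ⟨s, hs, hns, zmod2_ne_zero h1⟩

include hS hXd hX R hE hbE in
theorem T_zero_near {T : Pt → ℤ → ZMod 2} (hT : ∀ p z, T p z ≠ 0 → glue E W h p z ≠ 0) {x y : ℤ}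
    (hx : x % 2 = 0) (hy : y % 2 = 0)
    (hcl : ∀ p z, D1 p z → Nr (x, y) h p z → bd T p z = 0)
    (hT0 : ∀ s ∈ W, Nr (x, y) h s h → T s h = 0) {q0 : Pt} (hq0 : q0 ∈ W) (hn0 : Nr (x, y) h q0 h) :
    ∀ p z, Nr (x, y) h p z → T p z = 0 := by
  classical
  have he := reg_even hXd R
  have hv : Vx (x, y) := ⟨hx, hy⟩
  let T' : Pt → ℤ → ZMod 2 := fun p z => if Nr (x, y) h p z then T p z else 0
  have hT'n : ∀ p z, Nr (x, y) h p z → T' p z = T p z := fun p z hn => if_pos hn
  have hTE : ∀ p z, Nr (x, y) h p z → T p z ≠ 0 → E p z ≠ 0 := by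
    intro p z hn hne
    rcases glue_or (hT p z hne) with h1 | ⟨h1, h2⟩
    · exact h1
    · subst h1
      exact absurd (hT0 p h2 hn) hne
  have hle : ∀ p z, T' p z ≠ 0 → S p z ≠ 0 := by
    intro p z hne
    have hn : Nr (x, y) h p z := by
      by_contra hn
      exact hne (if_neg hn)
    rw [hT'n p z hn] at hne
    exact hE _ _ (hTE p z hn hne)
  have hcl' : ∀ p z, D1 p z → Nr (x, y) h p z → bd T' p z = 0 := by
    intro p z hD hn
    rw [bd_congr (B := T) (fun q z' hc => hT'n q z' (Nr_cf hv he hn hc))]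
    exact hcl p z hD hn
  rcases hS.m2 (x, y) h hv he T' hle hcl' with hc | hc
  · intro p z hn
    rw [← hT'n p z hn]
    exact hc p z hn
  · by_cases hon : OnC (bd2 (ind W)) (x, y)
    · exfalso
      obtain ⟨e, hne, hnr, hee⟩ : ∃ e : Pt, bd2 (ind W) e ≠ 0 ∧ Nr (x, y) h e h ∧ Ed e := by
        rcases hon.2 with h1 | h1 | h1 | h1
        · exact ⟨_, h1, by unfold Nr; simp, Or.inr ⟨by simp only; omega, hy⟩⟩
        · exact ⟨_, h1, by unfold Nr; simp, Or.inr ⟨by simp only; omega, hy⟩⟩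
        · exact ⟨_, h1, by unfold Nr; simp, Or.inl ⟨hx, by simp only; omega⟩⟩
        · exact ⟨_, h1, by unfold Nr; simp, Or.inl ⟨hx, by simp only; omega⟩⟩
      have hD : D1 e h := Or.inl ⟨hee, he⟩
      have hb : bd (fun p z => E p z + S p z) e h ≠ 0 := by
        rw [bd_add, hbE e h hD, hS.cl e h hD, bd_layer W he, if_pos rfl, add_zero]
        exact hne
      obtain ⟨q, z', hcf, hne'⟩ := exists_cf_of_bd hb
      have hnq := Nr_cf hv he hnr hcf
      have hSq : S q z' ≠ 0 := by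
        intro h1
        apply hne'
        have : E q z' = 0 := by
          by_contra h2
          exact hE _ _ h2 h1
        show E q z' + S q z' = 0
        rw [h1, this, add_zero]
      have hEq : E q z' = 0 := by
        by_contra h2
        apply hne'
        show E q z' + S q z' = 0
        rw [zmod2_ne_zero h2, zmod2_ne_zero hSq]
        decide
      have h3 := hc q z' hnq
      rw [hT'n q z' hnq] at h3
      exact hTE q z' hnq (by rw [h3]; exact hSq) hEq
    · obtain ⟨_, hS0⟩ := F4 hS hXd hX R hx hy hon hq0 hn0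
      intro p z hn
      rw [← hT'n p z hn, hc p z hn]
      exact hS0 p z hn

include hS hXd hX R hE hbE in
theorem glue_m2 : ∀ v z, Vx v → z % 2 = 0 → ∀ T : Pt → ℤ → ZMod 2,
    (∀ p z', T p z' ≠ 0 → glue E W h p z' ≠ 0) →
    (∀ p z', D1 p z' → Nr v z p z' → bd T p z' = 0) →
    (∀ p z', Nr v z p z' → T p z' = 0) ∨ (∀ p z', Nr v z p z' → T p z' = glue E W h p z') := by
  rintro ⟨x, y⟩ z hv hz T hT hcl
  classical
  have he := reg_even hXd R
  obtain ⟨hx, hy⟩ := hv
  simp only at hx hy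
  have hv : Vx (x, y) := ⟨hx, hy⟩
  by_cases hex : ∃ q ∈ W, Nr (x, y) z q h
  · obtain ⟨q0, hq0, hn0⟩ := hex
    have hzh : z = h := by
      have := hn0.2.2
      rw [abs_le] at this
      omega
    subst hzh
    rcases T_const_near hS hXd hX R hE hT hx hy hcl with hk | hk
    · left
      exact T_zero_near hS hXd hX R hE hbE hT hx hy hcl hk hq0 hn0
    · right
      have hgoal := T_zero_near hS hXd hX R hE hbE (T := fun p w => T p w + glue E W z p w) (by
        intro p w hne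
        by_contra h1
        apply hne
        have : T p w = 0 := by
          by_contra h2
          exact hT p w h2 h1
        show T p w + glue E W z p w = 0
        rw [this, h1, add_zero]) hx hy (by
        intro p w hD hn
        rw [bd_add, hcl p w hD hn, glue_cl hbE p w hD, add_zero]) (by
        intro s hs hn
        show T s z + glue E W z s z = 0
        rw [hk s hs hn, glue_of_W hXd hX R hE hs]
        decide) hq0 hn0
      intro p w hn
      exact zmod2_eq_of_add (hgoal p w hn)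
  · have hlay : ∀ p w, Nr (x, y) z p w → glue E W h p w = E p w := by
      intro p w hn
      unfold glue
      have : layer W h p w = 0 := by
        by_contra h1
        obtain ⟨h2, h3⟩ := layer_ne h1
        subst h2
        exact hex ⟨p, h3, hn⟩
      rw [this, add_zero]
    let T' : Pt → ℤ → ZMod 2 := fun p w => if Nr (x, y) z p w then T p w else 0
    have hT'n : ∀ p w, Nr (x, y) z p w → T' p w = T p w := fun p w hn => if_pos hn
    have hTE : ∀ p w, Nr (x, y) z p w → T p w ≠ 0 → E p w ≠ 0 := by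
      intro p w hn hne
      rw [← hlay p w hn]
      exact hT p w hne
    have hle : ∀ p w, T' p w ≠ 0 → S p w ≠ 0 := by
      intro p w hne
      have hn : Nr (x, y) z p w := by
        by_contra hn
        exact hne (if_neg hn)
      rw [hT'n p w hn] at hne
      exact hE _ _ (hTE p w hn hne)
    rcases hS.m2 (x, y) z hv hz T' hle (by
      intro p w hD hn
      rw [bd_congr (B := T) (fun q z' hc => hT'n q z' (Nr_cf hv hz hn hc))]
      exact hcl p w hD hn) with hc | hc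
    · left
      intro p w hn
      rw [← hT'n p w hn]
      exact hc p w hn
    · right
      intro p w hn
      rw [hlay p w hn]
      have h1 := hc p w hn
      rw [hT'n p w hn] at h1
      by_cases h2 : S p w = 0
      · rw [h1, h2]
        by_contra h3
        exact hE p w (fun h4 => h3 h4.symm) h2
      · have h3 : T p w ≠ 0 := by rw [h1]; exact h2
        rw [zmod2_ne_zero h3, zmod2_ne_zero (hTE p w hn h3)]

include hXd R in
theorem c_ne : ∃ p, Ed p ∧ bd2 (ind W) p = 1 := by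
  obtain ⟨s, hs, t, ht, hst⟩ := exists_out R.ne
  exact ⟨mid s t, (bd2_mid (reg_sq hXd R s hs) hst).1, c_mid hXd R hs ht hst⟩

include hS hXd hX R hE hbE in
theorem glue_conn : ∀ T : Pt → ℤ → ZMod 2, (∀ p z, T p z ≠ 0 → glue E W h p z ≠ 0) →
    (∀ p z, D1 p z → bd T p z = 0) → (∀ p z, T p z = 0) ∨ (∀ p z, T p z = glue E W h p z) := by
  have he := reg_even hXd R
  -- case `T = 0` on `W`
  have key : ∀ T : Pt → ℤ → ZMod 2, (∀ p z, T p z ≠ 0 → glue E W h p z ≠ 0) →
      (∀ p z, D1 p z → bd T p z = 0) → (∀ s ∈ W, T s h = 0) → ∀ p z, T p z = 0 := by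
    intro T hT hcl hT0
    have hTE : ∀ p z, T p z ≠ 0 → E p z ≠ 0 := by
      intro p z hne
      rcases glue_or (hT p z hne) with h1 | ⟨h1, h2⟩
      · exact h1
      · subst h1
        exact absurd (hT0 p h2) hne
    rcases hS.conn T (fun p z hne => hE _ _ (hTE p z hne)) hcl with hc | hc
    · exact hc
    · exfalso
      obtain ⟨p, hed, hp⟩ := c_ne hXd R
      have hD : D1 p h := Or.inl ⟨hed, he⟩
      have h1 := hbE p h hD
      rw [bd_layer W he, if_pos rfl, hp] at h1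
      have h2 : bd E p h = bd S p h := by
        apply bd_congr
        intro q z' _
        by_cases h3 : S q z' = 0
        · rw [h3]
          by_contra h4
          exact hE _ _ h4 h3
        · have h5 : T q z' ≠ 0 := by rw [hc]; exact h3
          rw [zmod2_ne_zero h3, zmod2_ne_zero (hTE _ _ h5)]
      rw [h2, hS.cl p h hD] at h1
      exact absurd h1 (by decide)
  intro T hT hcl
  rcases const_inside R.con (g := fun s => T s h) (by
    intro s t hs ht hst
    exact T_adj hXd hX R hE hT hs ht hst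
      (hcl _ _ (Or.inl ⟨(bd2_mid (reg_sq hXd R s hs) hst).1, he⟩))) with hk | hk
  · left
    exact key T hT hcl hk
  · right
    have := key (fun p z => T p z + glue E W h p z) (by
      intro p w hne
      by_contra h1
      apply hne
      have : T p w = 0 := by
        by_contra h2
        exact hT p w h2 h1
      show T p w + glue E W h p w = 0
      rw [this, h1, add_zero]) (by
      intro p w hD
      rw [bd_add, hcl p w hD, glue_cl hbE p w hD, add_zero]) (by
      intro s hs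
      show T s h + glue E W h s h = 0
      rw [hk s hs, glue_of_W hXd hX R hE hs]
      decide)
    intro p z
    exact zmod2_eq_of_add (this p z)

end half

end Crest.Agent.R096.Lc_451
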