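import Mathlib
import Crest.Agent.R096.Lc7_451

/-!
# R096/Lc8_451 (helper451, row 96, P2-CUBE)

Cutting a cubical Sep-surface along a flat region: the separation property of the two parts, and the
theorem `surf_glue`: both parts, closed by the disc, are cubical Sep-surfaces.
-/

set_option autoImplicit false

namespace Crest.Agent.R096.Lc_451

/-- a flat plane chain -/
def flat (F : Pt → ZMod 2) (h : ℤ) (p : Pt) (z : ℤ) : ZMod 2 := if z = h then F p else 0

theorem bd_flat (F : Pt → ZMod 2) {h : ℤ} (hh : h % 2 = 0) (p : Pt) (z : ℤ) (hD : D1 p z) (hF : ∀ q, F q ≠ 0 → Sq q) :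
    bd (flat F h) p z = if z = h then bd2 F p else 0 := by
  by_cases hz : z = h
  · subst hz
    rw [bd_even hh, if_pos rfl]
    have e : (fun q => flat F z q z) = F := by
      funext q
      exact if_pos rfl
    rw [e]
    unfold flat
    rw [if_neg (by omega), if_neg (by omega)]
    simp
  · rw [if_neg hz]
    by_contra hne
    obtain ⟨q, z', hc, h1⟩ := exists_cf_of_bd hne
    have h2 : z' = h ∧ F q ≠ 0 := by
      unfold flat at h1
      by_cases h3 : z' = h
      · rw [if_pos h3] at h1; exact ⟨h3, h1⟩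
      · rw [if_neg h3] at h1; exact absurd rfl h1
    have hq := hF q h2.2
    rcases hc with ⟨_, _, h4⟩ | ⟨_, _, h4⟩ | ⟨h4, h5, h6⟩
    · omega
    · omega
    · subst h5
      rcases hD with ⟨h7, h8⟩ | ⟨h7, h8⟩
      · unfold Ed at h7
        unfold Sq at hq
        omega
      · omega

section half

variable {S X : Pt → ℤ → ZMod 2} (hS : Surf S)
  (hXd : ∀ p z, X p z ≠ 0 → Sq p ∧ z % 2 = 1) (hX : ∀ p z, bd X p z = S p z)
  {h : ℤ} {a : ZMod 2} {W : Finset Pt} (R : Reg X h a W)
  {E : Pt → ℤ → ZMod 2} (hE : ∀ p z, E p z ≠ 0 → S p z ≠ 0)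
  (hbE : ∀ p z, D1 p z → bd E p z = bd (layer W h) p z)

include hS hXd hX R hE hbE in
theorem glue_sep : ∀ γ : Pt → ℤ → ZMod 2,
    (∀ p z, γ p z ≠ 0 → D1 p z ∧ ∃ q z', Cf p z q z' ∧ glue E W h q z' ≠ 0) →
    (∀ p z, Vx p → z % 2 = 0 → bd γ p z = 0) →
    ∃ F : Pt → ℤ → ZMod 2, (∀ p z, F p z ≠ 0 → glue E W h p z ≠ 0) ∧
      ∀ p z, D1 p z → bd F p z = γ p z := by
  intro γ hγ hγc
  classical
  have he := reg_even hXd R
  have hW := reg_sq hXd R
  -- `γ` is finite
  have hSf := hS.fin
  have hgf : {q : Pt × ℤ | glue E W h q.1 q.2 ≠ 0}.Finite := by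
    refine (hSf.union (layer_finite W h)).subset ?_
    intro q hq
    rcases glue_or hq with h1 | ⟨h1, h2⟩
    · exact Or.inl (hE _ _ h1)
    · right
      show layer W h q.1 q.2 ≠ 0
      unfold layer
      rw [if_pos ⟨h1, h2⟩]
      decide
  obtain ⟨N, hN0, hN⟩ := exists_Bd3 hgf
  have hγfin : {p | γ p h ≠ 0}.Finite := by
    apply Bd.finite (N := N + 1)
    intro p hp
    obtain ⟨_, q, z', hc, hg⟩ := hγ p h hp
    have h1 := hN q z' hg
    rcases hc with ⟨_, h2, _⟩ | ⟨_, h2, _⟩ | ⟨_, h2, _⟩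
    · rcases h2 with rfl | rfl
      · simp only at h1
        rw [abs_le] at h1 ⊢
        rw [abs_le] at h1 ⊢
        omega
      · simp only at h1
        rw [abs_le] at h1 ⊢
        rw [abs_le] at h1 ⊢
        omega
    · rcases h2 with rfl | rfl
      · simp only at h1
        rw [abs_le] at h1 ⊢
        rw [abs_le] at h1 ⊢
        omega
      · simp only at h1
        rw [abs_le] at h1 ⊢
        rw [abs_le] at h1 ⊢
        omega
    · subst h2
      rw [abs_le] at h1 ⊢
      rw [abs_le] at h1 ⊢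
      omega
  obtain ⟨F0, hF0W, hF0⟩ := stepA hW R.con R.hf (γ := fun p => γ p h) hγfin (by
    intro p hp
    rcases (hγ p h hp).1 with h1 | h1
    · exact h1.1
    · have := h1.2; omega) (by
    intro x y hx hy h1 h2 h3 h4
    have h5 := hγc (x, y) h ⟨hx, hy⟩ he
    rw [bd_even he] at h5
    have h6 : ∀ w, (w = h + 1 ∨ w = h - 1) → γ (x, y) w = 0 := by
      intro w hw
      by_contra hne
      obtain ⟨_, q, z', hc, hg⟩ := hγ _ _ hne
      have hz' : z' = w ∧ (q = (x + 1, y) ∨ q = (x - 1, y) ∨ q = (x, y + 1) ∨ q = (x, y - 1)) := by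
        rcases hc with ⟨_, h7 | h7, h8⟩ | ⟨_, h7 | h7, h8⟩ | ⟨h7, _, _⟩
        · exact ⟨h8, Or.inl h7⟩
        · exact ⟨h8, Or.inr (Or.inl h7)⟩
        · exact ⟨h8, Or.inr (Or.inr (Or.inl h7))⟩
        · exact ⟨h8, Or.inr (Or.inr (Or.inr h7))⟩
        · omega
      obtain ⟨rfl, hq⟩ := hz'
      rcases glue_or hg with h7 | ⟨h7, _⟩
      · have hSq := hE _ _ h7
        rcases hq with rfl | rfl | rfl | rfl
        · obtain ⟨s, hs, t, ht, hst, hm⟩ := (IntE_h hW (by omega : (x + 1) % 2 = 1) hy).2 ⟨h1, h2⟩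
          rw [← hm] at hSq
          exact hSq (S_int hXd hX R hs ht hst hw)
        · obtain ⟨s, hs, t, ht, hst, hm⟩ := (IntE_h hW (by omega : (x - 1) % 2 = 1) hy).2 ⟨h3, h4⟩
          rw [← hm] at hSq
          exact hSq (S_int hXd hX R hs ht hst hw)
        · obtain ⟨s, hs, t, ht, hst, hm⟩ := (IntE_v hW hx (by omega : (y + 1) % 2 = 1)).2 ⟨h1, h3⟩
          rw [← hm] at hSq
          exact hSq (S_int hXd hX R hs ht hst hw)
        · obtain ⟨s, hs, t, ht, hst, hm⟩ := (IntE_v hW hx (by omega : (y - 1) % 2 = 1)).2 ⟨h2, h4⟩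
          rw [← hm] at hSq
          exact hSq (S_int hXd hX R hs ht hst hw)
      · omega
    rw [h6 _ (Or.inl rfl), h6 _ (Or.inr rfl), add_zero, add_zero] at h5
    exact h5)
  have hF0sq : ∀ q, F0 q ≠ 0 → Sq q := fun q hq => hW q (hF0W q hq)
  let FD := flat F0 h
  have hFD : ∀ p z, FD p z ≠ 0 → z = h ∧ p ∈ W := by
    intro p z hne
    by_cases h1 : z = h
    · refine ⟨h1, hF0W p ?_⟩
      have : FD p z = F0 p := if_pos h1
      rw [this] at hne
      exact hne
    · exact absurd (if_neg h1) hne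
  let γ1 : Pt → ℤ → ZMod 2 := fun p z => γ p z + bd FD p z
  -- `γ1` vanishes at an edge without coface in `E`
  have hγ1 : ∀ p z, D1 p z → (∀ q z', Cf p z q z' → E q z' = 0) → ¬ (z = h ∧ bd2 (ind W) p ≠ 0) →
      γ1 p z = 0 := by
    intro p z hD hE0 hnc
    show γ p z + bd FD p z = 0
    by_cases hex : ∃ q z', Cf p z q z' ∧ glue E W h q z' ≠ 0
    · obtain ⟨q, z', hc, hg⟩ := hex
      rcases glue_or hg with h1 | ⟨h1, h2⟩
      · exact absurd (hE0 q z' hc) h1
      · subst h1
        have hqs := hW q h2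
        have hz : z = z' ∧ Ed p := by
          unfold Cf at hc
          unfold Sq at hqs
          rcases hc with ⟨h1, h2, h3⟩ | ⟨h1, h2, h3⟩ | ⟨h1, h2, h3⟩
          · refine ⟨h3.symm, Or.inl ⟨h1, ?_⟩⟩
            rcases h2 with rfl | rfl
            · exact hqs.2
            · exact hqs.2
          · refine ⟨h3.symm, Or.inr ⟨?_, h1⟩⟩
            rcases h2 with rfl | rfl
            · exact hqs.1
            · exact hqs.1
          · omega
        obtain ⟨rfl, hed⟩ := hz
        obtain ⟨s, t, hs, ht, hst, hm, hb, hcf⟩ := sides' hed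
        have hnc' : ¬ bd2 (ind W) p ≠ 0 := fun h3 => hnc ⟨rfl, h3⟩
        rw [not_not, hb] at hnc'
        have hboth : s ∈ W ∧ t ∈ W := by
          rw [hcf _ _ _ he] at hc
          rcases hc with ⟨h1 | h1, _⟩ | ⟨_, h1⟩
          · subst h1
            refine ⟨h2, ?_⟩
            by_contra h3
            rw [ind_mem h2, ind_not h3] at hnc'
            exact absurd hnc' (by decide)
          · subst h1
            refine ⟨?_, h2⟩
            by_contra h3
            rw [ind_mem h2, ind_not h3] at hnc'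
            exact absurd hnc' (by decide)
          · omega
        have h5 : bd FD p z = F0 s + F0 t := by
          rw [show bd FD p z = bd (flat F0 z) p z from rfl, bd_flat F0 he p z hD hF0sq, if_pos rfl, hb]
        rw [h5, hF0 s t hboth.1 hboth.2 hst, hm]
        exact zmod2_self _
    · have h1 : γ p z = 0 := by
        by_contra h1
        exact hex (hγ p z h1).2
      have h2 : bd FD p z = 0 := by
        by_contra h2
        obtain ⟨q, z', hc, h3⟩ := exists_cf_of_bd h2
        obtain ⟨h4, h5⟩ := hFD q z' h3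
        subst h4
        apply hex
        refine ⟨q, z', hc, ?_⟩
        rw [glue_of_W hXd hX R hE h5]
        decide
      rw [h1, h2, add_zero]
  obtain ⟨F', hF'S, hF'⟩ := hS.sep γ1 (by
    intro p z hne
    have hD : D1 p z := by
      rcases or_of_add_ne (show γ p z + bd FD p z ≠ 0 from hne) with h1 | h1
      · exact (hγ p z h1).1
      · apply bd_dim (A := FD) _ h1
        intro q w hq
        obtain ⟨h2, h3⟩ := hFD q w hq
        rw [h2]
        exact Or.inl ⟨hW q h3, he⟩
    refine ⟨hD, ?_⟩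
    by_cases hc : z = h ∧ bd2 (ind W) p ≠ 0
    · obtain ⟨hz, hc⟩ := hc
      subst hz
      obtain ⟨s, t, hs, ht, hst, hm⟩ := c_sides hW hc
      obtain ⟨w, hw, hSw⟩ := S_bdry hXd hX R hs ht hst
      rw [hm] at hSw
      exact ⟨p, w, Or.inr (Or.inr ⟨he, rfl, hw⟩), hSw⟩
    · by_contra hcon
      push Not at hcon
      apply hne
      apply hγ1 p z hD _ hc
      intro q z' hcf
      by_contra h1
      exact hE _ _ h1 (hcon q z' hcf)) (by
    intro p z hp hz
    show bd (fun p z => γ p z + bd FD p z) p z = 0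
    rw [bd_add γ (bd FD), hγc p z hp hz, bd_bd, add_zero])
  let F1 : Pt → ℤ → ZMod 2 := fun p z => if E p z ≠ 0 then F' p z else 0
  let F2 : Pt → ℤ → ZMod 2 := fun p z => if E p z ≠ 0 then 0 else F' p z
  have hF12 : ∀ p z, F' p z = F1 p z + F2 p z := by
    intro p z
    by_cases h1 : E p z ≠ 0
    · simp only [F1, F2, if_pos h1, add_zero]
    · simp only [F1, F2, if_neg h1, zero_add]
  have hbF12 : ∀ p z, bd F' p z = bd F1 p z + bd F2 p z := by
    intro p z
    rw [← bd_add]
    exact bd_congr (fun q z' _ => hF12 q z')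
  -- `∂F2` is contained in the curve
  have hF2c : ∀ p z, D1 p z → ¬ (z = h ∧ bd2 (ind W) p ≠ 0) → bd F2 p z = 0 := by
    intro p z hD hnc
    have hbE0 : bd E p z = 0 := by
      rw [hbE p z hD, bd_layer W he]
      split_ifs with h1
      · by_contra h2
        exact hnc ⟨h1, h2⟩
      · rfl
    rcases edge_all_none hS hE hD hbE0 with hall | hall
    · have h1 : bd F2 p z = bd F' p z := by
        apply bd_congr
        intro q z' hc
        have h2 : ¬ E q z' ≠ 0 := by rw [not_not]; exact hall q z' hc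
        exact if_neg h2
      rw [h1, hF' p z hD]
      exact hγ1 p z hD hall hnc
    · rw [bd_congr (B := fun _ _ => 0), bd_zero]
      intro q z' hc
      by_cases h2 : E q z' ≠ 0
      · exact if_pos h2
      · have h3 : F' q z' = 0 := by
          by_contra h3
          have h4 := hF'S _ _ h3
          rw [← hall q z' hc] at h4
          exact h2 h4
        show (if E q z' ≠ 0 then 0 else F' q z') = 0
        rw [if_neg h2]
        exact h3
  -- irreducibility
  let c2 : Pt → ZMod 2 := fun p => if bd2 (ind W) p ≠ 0 then bd F2 p h else 0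
  have hedc : ∀ p, bd2 (ind W) p ≠ 0 → Ed p := fun p hp => bd2_ed (fun p hp => hW p (ind_ne hp)) hp
  have hc2 : ∀ p, Ed p → c2 p = bd F2 p h := by
    intro p hp
    by_cases h1 : bd2 (ind W) p ≠ 0
    · exact if_pos h1
    · rw [show c2 p = 0 from if_neg h1, hF2c p h (Or.inl ⟨hp, he⟩) (fun h2 => h1 h2.2)]
  have hirr := irred hW R.con R.hf (c2 := c2) (by
    intro p hp h1
    apply hp
    exact if_neg (fun h2 => h2 h1)) (by
    rintro ⟨x, y⟩ ⟨hx, hy⟩
    simp only at hx hy
    have h1 := bd_bd F2 (x, y) h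
    rw [bd_even he, hF2c (x, y) (h + 1) (Or.inr ⟨⟨hx, hy⟩, by omega⟩) (by omega),
      hF2c (x, y) (h - 1) (Or.inr ⟨⟨hx, hy⟩, by omega⟩) (by omega), add_zero, add_zero,
      bd2_vx ⟨hx, hy⟩] at h1
    rw [bd2_vx ⟨hx, hy⟩]
    simp only at h1 ⊢
    rw [hc2 _ (Or.inr ⟨by simp only; omega, hy⟩), hc2 _ (Or.inr ⟨by simp only; omega, hy⟩),
      hc2 _ (Or.inl ⟨hx, by simp only; omega⟩), hc2 _ (Or.inl ⟨hx, by simp only; omega⟩)]
    exact h1)
  have hF1g : ∀ p z, F1 p z ≠ 0 → glue E W h p z ≠ 0 := by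
    intro p z hne
    have h1 : E p z ≠ 0 := by
      by_contra h1
      exact hne (if_neg (fun h2 => h2 h1))
    exact glue_of_E hXd hX R hE h1
  have hFDg : ∀ p z, FD p z ≠ 0 → glue E W h p z ≠ 0 := by
    intro p z hne
    obtain ⟨h1, h2⟩ := hFD p z hne
    subst h1
    rw [glue_of_W hXd hX R hE h2]
    decide
  rcases hirr with h1 | h1
  · -- `∂F2 = 0`
    have h2 : ∀ p z, D1 p z → bd F2 p z = 0 := by
      intro p z hD
      by_cases hc : z = h ∧ bd2 (ind W) p ≠ 0
      · rw [hc.1, ← hc2 p (hedc p hc.2)]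
        exact h1 p
      · exact hF2c p z hD hc
    refine ⟨fun p z => F1 p z + FD p z, ?_, ?_⟩
    · intro p z hne
      rcases or_of_add_ne hne with h3 | h3
      · exact hF1g p z h3
      · exact hFDg p z h3
    · intro p z hD
      have h3 := hF' p z hD
      rw [hbF12, h2 p z hD, add_zero] at h3
      rw [bd_add, h3]
      show γ p z + bd FD p z + bd FD p z = γ p z
      rw [add_assoc, zmod2_self, add_zero]
  · have h2 : ∀ p z, D1 p z → bd F2 p z = bd (layer W h) p z := by
      intro p z hD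
      rw [bd_layer W he]
      by_cases hc : z = h ∧ bd2 (ind W) p ≠ 0
      · rw [hc.1, if_pos rfl, ← hc2 p (hedc p hc.2)]
        exact h1 p
      · rw [hF2c p z hD hc]
        split_ifs with h3
        · by_contra h4
          exact hc ⟨h3, fun h5 => h4 h5.symm⟩
        · rfl
    refine ⟨fun p z => (F1 p z + FD p z) + layer W h p z, ?_, ?_⟩
    · intro p z hne
      rcases or_of_add_ne hne with h3 | h3
      · rcases or_of_add_ne h3 with h3 | h3
        · exact hF1g p z h3
        · exact hFDg p z h3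
      · obtain ⟨h4, h5⟩ := layer_ne h3
        subst h4
        rw [glue_of_W hXd hX R hE h5]
        decide
    · intro p z hD
      have h3 := hF' p z hD
      rw [hbF12, h2 p z hD] at h3
      have e : bd (fun p z => (F1 p z + FD p z) + layer W h p z) p z
          = bd F1 p z + bd FD p z + bd (layer W h) p z := by
        rw [bd_add (fun p z => F1 p z + FD p z) (layer W h), bd_add F1 FD]
      rw [e]
      have h4 : bd F1 p z + bd (layer W h) p z = γ p z + bd FD p z := h3
      have h5 := zmod2_self (bd FD p z)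
      linear_combination h4 + h5

include hS hXd hX R hE hbE in
/-- **the cut parts are cubical Sep-surfaces** -/
theorem surf_glue : Surf (glue E W h) where
  fin := by
    refine (hS.fin.union (layer_finite W h)).subset ?_
    intro q hq
    rcases glue_or hq with h1 | ⟨h1, h2⟩
    · exact Or.inl (hE _ _ h1)
    · right
      show layer W h q.1 q.2 ≠ 0
      unfold layer
      rw [if_pos ⟨h1, h2⟩]
      decide
  dim := glue_dim hS hXd R hE
  cl := glue_cl hbE
  ne := by
    obtain ⟨s, hs⟩ := R.ne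
    refine ⟨s, h, ?_⟩
    rw [glue_of_W hXd hX R hE hs]
    decide
  m1 := glue_m1 hS hXd hX R hE
  m2 := glue_m2 hS hXd hX R hE hbE
  conn := glue_conn hS hXd hX R hE hbE
  sep := glue_sep hS hXd hX R hE hbE

end half

end Crest.Agent.R096.Lc_451
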