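import Mathlib
import Crest.Agent.R096.Lc8_451

/-!
# R096/Lc9_451 (helper451, row 96, P2-CUBE)

**The induction**: every property of cubical Sep-surfaces which holds for cans (boundaries of one layer
over a connected hole-free set of squares) and is inherited by `E₁ ∪ E₂` from `E₁ ∪ D`, `E₂ ∪ D` for
flat discs `D = W × {h}`, holds for every cubical Sep-surface.
-/

set_option autoImplicit false

namespace Crest.Agent.R096.Lc_451

/-- all the data of a cut of the surface `E1 + E2` along the flat disc `W × {h}` -/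
structure CutData (E1 E2 : Pt → ℤ → ZMod 2) (W : Finset Pt) (h : ℤ) : Prop where
  even : h % 2 = 0
  ne : W.Nonempty
  sq : ∀ s ∈ W, Sq s
  con : Con W
  hf : HF W
  surf : Surf (fun p z => E1 p z + E2 p z)
  surf1 : Surf (glue E1 W h)
  surf2 : Surf (glue E2 W h)
  dim1 : ∀ p z, E1 p z ≠ 0 → D2 p z
  dim2 : ∀ p z, E2 p z ≠ 0 → D2 p z
  disj : ∀ p z, E1 p z = 0 ∨ E2 p z = 0
  disjD : ∀ s ∈ W, E1 s h = 0 ∧ E2 s h = 0
  bd1 : ∀ p z, D1 p z → bd E1 p z = bd (layer W h) p z
  bd2 : ∀ p z, D1 p z → bd E2 p z = bd (layer W h) p z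
  /-- an edge common to `E1` and `E2` lies on the curve -/
  edge12 : ∀ p z, D1 p z → (∃ q z', Cf p z q z' ∧ E1 q z' ≠ 0) → (∃ q z', Cf p z q z' ∧ E2 q z' ≠ 0) →
    z = h ∧ Lc_451.bd2 (ind W) p ≠ 0
  /-- an edge common to the disc and `E1` or `E2` lies on the curve -/
  edgeD : ∀ p z, D1 p z → (∃ q, Cf p z q h ∧ q ∈ W) →
    (∃ q z', Cf p z q z' ∧ (E1 q z' ≠ 0 ∨ E2 q z' ≠ 0)) → z = h ∧ Lc_451.bd2 (ind W) p ≠ 0
  /-- a vertex common to `E1` and `E2` lies on the curve -/
  vert12 : ∀ v z, Vx v → z % 2 = 0 → (∃ p z', Nr v z p z' ∧ E1 p z' ≠ 0) →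
    (∃ p z', Nr v z p z' ∧ E2 p z' ≠ 0) → z = h ∧ OnC (Lc_451.bd2 (ind W)) v
  /-- a vertex common to the disc and `E1` or `E2` lies on the curve -/
  vertD : ∀ v z, Vx v → z % 2 = 0 → (∃ p ∈ W, Nr v z p h) →
    (∃ p z', Nr v z p z' ∧ (E1 p z' ≠ 0 ∨ E2 p z' ≠ 0)) → z = h ∧ OnC (Lc_451.bd2 (ind W)) v

/-- the vertical squares -/
def vert (A : Pt → ℤ → ZMod 2) : Set (Pt × ℤ) := {q | A q.1 q.2 ≠ 0 ∧ q.2 % 2 = 1}

theorem vert_ne {A : Pt → ℤ → ZMod 2} (hA : Surf A) : ∃ p z, A p z ≠ 0 ∧ z % 2 = 1 := by
  by_contra hcon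
  push Not at hcon
  obtain ⟨p, z, hne⟩ := hA.ne
  have h0 : ∀ q w, w % 2 = 1 → A q w = 0 := by
    intro q w hw
    by_contra h1
    exact hcon q w h1 hw
  have hz : z % 2 = 0 := by
    by_contra hz
    exact hne (h0 p z (by omega))
  apply hne
  refine top2 (a := fun q => A q z) (sec_finite hA.fin z) ?_ ?_ p
  · intro q hq
    rcases hA.dim q z hq with h1 | h1
    · exact h1.1
    · have := h1.2; omega
  · intro q hq
    have h1 := hA.cl q z (Or.inl ⟨hq, hz⟩)
    rw [bd_even hz, h0 q _ (by omega), h0 q _ (by omega), add_zero, add_zero] at h1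
    exact h1

/-- **the cut** -/
theorem exists_cut {S X : Pt → ℤ → ZMod 2} (hS : Surf S)
    (hXd : ∀ p z, X p z ≠ 0 → Sq p ∧ z % 2 = 1) (hX : ∀ p z, bd X p z = S p z)
    {h : ℤ} {a : ZMod 2} {W : Finset Pt} (R : Reg X h a W) :
    ∃ E1 E2 : Pt → ℤ → ZMod 2, (∀ p z, E1 p z + E2 p z = S p z) ∧ CutData E1 E2 W h := by
  have he := reg_even hXd R
  have hW := reg_sq hXd R
  obtain ⟨E1, hE1, hb1⟩ := hS.sep (bd (layer W h)) (by
    intro p z hne
    rw [bd_layer W he] at hne
    have hz : z = h := by
      by_contra hz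
      rw [if_neg hz] at hne
      exact hne rfl
    subst hz
    rw [if_pos rfl] at hne
    have hed := bd2_ed (fun p hp => hW p (ind_ne hp)) hne
    refine ⟨Or.inl ⟨hed, he⟩, ?_⟩
    obtain ⟨s, t, hs, ht, hst, hm⟩ := c_sides hW hne
    obtain ⟨w, hw, hSw⟩ := S_bdry hXd hX R hs ht hst
    rw [hm] at hSw
    exact ⟨p, w, Or.inr (Or.inr ⟨he, rfl, hw⟩), hSw⟩) (fun p z _ _ => bd_bd _ p z)
  let E2 : Pt → ℤ → ZMod 2 := fun p z => S p z + E1 p z
  have hE2 : ∀ p z, E2 p z ≠ 0 → S p z ≠ 0 := by
    intro p z hne h0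
    apply hne
    have : E1 p z = 0 := by
      by_contra h1
      exact hE1 _ _ h1 h0
    show S p z + E1 p z = 0
    rw [h0, this, add_zero]
  have hb2 : ∀ p z, D1 p z → bd E2 p z = bd (layer W h) p z := by
    intro p z hD
    show bd (fun p z => S p z + E1 p z) p z = _
    rw [bd_add S E1, hS.cl p z hD, hb1 p z hD, zero_add]
  have hsum : ∀ p z, E1 p z + E2 p z = S p z := by
    intro p z
    show E1 p z + (S p z + E1 p z) = S p z
    have := zmod2_self (E1 p z)
    linear_combination this
  have hdisj : ∀ p z, E1 p z = 0 ∨ E2 p z = 0 := by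
    intro p z
    by_contra hcon
    push Not at hcon
    have h1 := hE1 p z hcon.1
    apply hcon.2
    show S p z + E1 p z = 0
    rw [zmod2_ne_zero hcon.1, zmod2_ne_zero h1]
    decide
  refine ⟨E1, E2, hsum, ?_⟩
  have hfun : (fun p z => E1 p z + E2 p z) = S := by
    funext p z
    exact hsum p z
  refine ⟨he, R.ne, hW, R.con, R.hf, by rw [hfun]; exact hS, surf_glue hS hXd hX R hE1 hb1,
    surf_glue hS hXd hX R hE2 hb2, fun p z hne => hS.dim p z (hE1 p z hne),
    fun p z hne => hS.dim p z (hE2 p z hne), hdisj,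
    fun s hs => ⟨E_on_W hXd hX R hE1 hs, E_on_W hXd hX R hE2 hs⟩, hb1, hb2, ?_, ?_, ?_, ?_⟩
  · rintro p z hD ⟨q, w, hc, hq⟩ ⟨q', w', hc', hq'⟩
    by_contra hnc
    have hb0 : bd E1 p z = 0 := by
      rw [hb1 p z hD, bd_layer W he]
      split_ifs with h1
      · by_contra h2
        exact hnc ⟨h1, h2⟩
      · rfl
    rcases edge_all_none hS hE1 hD hb0 with hall | hall
    · exact hq (hall q w hc)
    · have h1 := hall q' w' hc'
      rcases hdisj q' w' with h2 | h2
      · rw [h2] at h1
        exact hE2 _ _ hq' h1.symm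
      · exact hq' h2
  · rintro p z hD ⟨q, hc, hq⟩ ⟨q', w', hc', hq'⟩
    have hSq : S q' w' ≠ 0 := by
      rcases hq' with h1 | h1
      · exact hE1 _ _ h1
      · exact hE2 _ _ h1
    obtain ⟨h1, h2⟩ := F3 hXd hX R hc hq hc' hSq hD
    refine ⟨h1, ?_⟩
    rw [h2]
    decide
  · rintro ⟨x, y⟩ z ⟨hx, hy⟩ hz ⟨p, w, hn, hp⟩ ⟨p', w', hn', hp'⟩
    simp only at hx hy
    by_contra hnc
    have hcl : ∀ p z', D1 p z' → Nr (x, y) z p z' → bd E1 p z' = 0 := by
      intro q w'' hD hnq
      rw [hb1 q w'' hD, bd_layer W he]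
      split_ifs with h1
      · by_contra h2
        subst h1
        have hzh : z = w'' := by
          have := hnq.2.2
          rw [abs_le] at this
          omega
        subst hzh
        apply hnc
        refine ⟨rfl, ⟨hx, hy⟩, ?_⟩
        have hed := bd2_ed (fun p hp => hW p (ind_ne hp)) h2
        rcases near_ed hx hy hnq hed with h3 | h3 | h3 | h3
        · subst h3; exact Or.inl h2
        · subst h3; exact Or.inr (Or.inl h2)
        · subst h3; exact Or.inr (Or.inr (Or.inl h2))
        · subst h3; exact Or.inr (Or.inr (Or.inr h2))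
      · rfl
    rcases hS.m2 (x, y) z ⟨hx, hy⟩ hz E1 hE1 hcl with hall | hall
    · exact hp (hall p w hn)
    · have h1 := hall p' w' hn'
      rcases hdisj p' w' with h2 | h2
      · rw [h2] at h1
        exact hE2 _ _ hp' h1.symm
      · exact hp' h2
  · rintro ⟨x, y⟩ z ⟨hx, hy⟩ hz ⟨q, hq, hn⟩ ⟨p', w', hn', hp'⟩
    simp only at hx hy
    have hzh : z = h := by
      have := hn.2.2
      rw [abs_le] at this
      omega
    subst hzh
    refine ⟨rfl, ?_⟩
    by_contra hnc
    have hSq : S p' w' ≠ 0 := by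
      rcases hp' with h1 | h1
      · exact hE1 _ _ h1
      · exact hE2 _ _ h1
    exact hSq ((F4 hS hXd hX R hx hy hnc hq hn).2 p' w' hn')

/-- **THE INDUCTION THEOREM.** -/
theorem surf_ind (P : (Pt → ℤ → ZMod 2) → Prop)
    (can : ∀ (A : Finset Pt) (z : ℤ), z % 2 = 1 → A.Nonempty → (∀ s ∈ A, Sq s) → Con A → HF A →
      P (bd (layer A z)))
    (cut : ∀ (E1 E2 : Pt → ℤ → ZMod 2) (W : Finset Pt) (h : ℤ), CutData E1 E2 W h →
      P (glue E1 W h) → P (glue E2 W h) → P (fun p z => E1 p z + E2 p z))
    {S : Pt → ℤ → ZMod 2} (hS : Surf S) : P S := by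
  have key : ∀ n : ℕ, ∀ S, Surf S → (vert S).ncard = n → P S := by
    intro n
    induction n using Nat.strong_induction_on with
    | _ n ih =>
      intro S hS hn
      obtain ⟨X, hXf, hXd, hX⟩ := exists_fill3 hS.fin hS.dim hS.cl
      by_cases hisl : ∃ (h0 : ℤ) (a0 : ZMod 2) (U0 : Finset Pt), Isl X h0 a0 U0
      · obtain ⟨h0, a0, U0, hU0⟩ := hisl
        obtain ⟨h, a, W, hne, hcon, hHF, hfl, hout⟩ :=
          regA (hyp_m1 hS hXd hX) (hyp_c hS hXf hXd hX) hU0
        have R : Reg X h a W := ⟨hne, hcon, hHF, hfl, hout⟩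
        obtain ⟨E1, E2, hsum, C⟩ := exists_cut hS hXd hX R
        have hfun : (fun p z => E1 p z + E2 p z) = S := by
          funext p z
          exact hsum p z
        have hvf : (vert S).Finite := hS.fin.subset (fun q hq => hq.1)
        have hlt : ∀ (A B : Pt → ℤ → ZMod 2), Surf (glue B W h) → (∀ p z, A p z ≠ 0 → S p z ≠ 0) →
            (∀ p z, B p z ≠ 0 → S p z ≠ 0) → (∀ p z, A p z = 0 ∨ B p z = 0) →
            (vert (glue A W h)).ncard < n := by
          intro A B hB hA' hB' hAB
          rw [← hn]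
          apply Set.ncard_lt_ncard _ hvf
          refine ⟨?_, ?_⟩
          · intro q hq
            refine ⟨?_, hq.2⟩
            rcases glue_or hq.1 with h1 | ⟨h1, _⟩
            · exact hA' _ _ h1
            · exfalso
              have := hq.2
              have := C.even
              omega
          · intro hsub
            obtain ⟨p, z, h1, h2⟩ := vert_ne hB
            have hBp : B p z ≠ 0 := by
              rcases glue_or h1 with h3 | ⟨h3, _⟩
              · exact h3
              · exfalso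
                have := C.even
                omega
            have h3 : (p, z) ∈ vert (glue A W h) := hsub ⟨hB' p z hBp, h2⟩
            have hAp : A p z ≠ 0 := by
              rcases glue_or h3.1 with h4 | ⟨h4, _⟩
              · exact h4
              · exfalso
                have := C.even
                simp only at h4
                omega
            rcases hAB p z with h4 | h4
            · exact hAp h4
            · exact hBp h4
        have hS1 : ∀ p z, E1 p z ≠ 0 → S p z ≠ 0 := by
          intro p z h1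
          rw [← hsum]
          apply add_ne_left h1
          rcases C.disj p z with h2 | h2
          · exact absurd h2 h1
          · exact h2
        have hS2 : ∀ p z, E2 p z ≠ 0 → S p z ≠ 0 := by
          intro p z h1
          rw [← hsum]
          apply add_ne_right _ h1
          rcases C.disj p z with h2 | h2
          · exact h2
          · exact absurd h2 h1
        have h1 := ih _ (hlt E1 E2 C.surf2 hS1 hS2 C.disj) _ C.surf1 rfl
        have h2 := ih _ (hlt E2 E1 C.surf1 hS2 hS1 (fun p z => (C.disj p z).symm)) _ C.surf2 rfl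
        have h3 := cut E1 E2 W h C h1 h2
        rw [hfun] at h3
        exact h3
      · have hno : ∀ (h : ℤ) (a : ZMod 2) (U : Finset Pt), ¬ Isl X h a U :=
          fun h a U hU => hisl ⟨h, a, U, hU⟩
        have hone : ∀ s z, X s z = 1 ↔ X s z ≠ 0 := by
          intro s z
          constructor
          · intro h h'
            rw [h] at h'
            exact absurd h' (by decide)
          · exact zmod2_ne_zero
        obtain ⟨z, A, hAne, hAc, hAh, hXA⟩ := regB (X := X) (by
          intro z
          refine (sec_finite hXf z).subset ?_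
          intro s hs
          exact (hone s z).1 hs) (by
          obtain ⟨p, z, hne⟩ := hS.ne
          rw [← hX] at hne
          obtain ⟨q, w, _, hq⟩ := exists_cf_of_bd hne
          exact ⟨q, w, (hone q w).2 hq⟩) (hyp_c hS hXf hXd hX) hno
        have hXe : ∀ s w, X s w = layer A z s w := by
          intro s w
          by_cases h1 : X s w = 1
          · rw [h1]
            exact (if_pos ((hXA s w).1 h1)).symm
          · have h2 : X s w = 0 := zmod2_ne_one h1
            rw [h2]
            exact (if_neg (fun h3 => h1 ((hXA s w).2 h3))).symm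
        have hSe : S = bd (layer A z) := by
          funext p w
          rw [← hX]
          exact bd_congr (fun q z' _ => hXe q z')
        have hAsq : ∀ s ∈ A, Sq s ∧ z % 2 = 1 := by
          intro s hs
          apply hXd
          rw [← hone]
          exact (hXA s z).2 ⟨rfl, hs⟩
        rw [hSe]
        obtain ⟨s, hs⟩ := hAne
        exact can A z (hAsq s hs).2 ⟨s, hs⟩ (fun s hs => (hAsq s hs).1) hAc hAh
  exact key _ S hS rfl

end Crest.Agent.R096.Lc_451
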