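import Crest.Agent.R096.Al3_63
import Crest.Agent.R096.Lc9_451

/-!
# Row 96, P2: cells as sets, the frontier of a region is its boundary curve, the can
(helper63, part 4)

`K1 c` = the cell of the line (doubled coordinate `c`), `cel2`, `cel3` the cells in the plane and in
`(ℝ × ℝ) × ℝ`, `car3 S` the carrier of a 2-chain.
-/

set_option autoImplicit false

namespace Crest.Agent.R096.Al_63

open Set Crest.Agent.R096.Lc_451

/-- the cell of the line with doubled coordinate `c` -/
def K1 (c : ℤ) : Set ℝ := {x | |2 * x - c| ≤ ((c % 2 : ℤ) : ℝ)}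

theorem K1_odd {c : ℤ} (hc : c % 2 = 1) {x : ℝ} : x ∈ K1 c ↔ |2 * x - c| ≤ 1 := by
  unfold K1
  rw [hc]
  simp

theorem K1_even {c : ℤ} (hc : c % 2 = 0) {x : ℝ} : x ∈ K1 c ↔ 2 * x = c := by
  unfold K1
  rw [hc]
  simp only [Int.cast_zero, mem_ofPred_eq, abs_nonpos_iff, sub_eq_zero]

theorem K1_odd' {c : ℤ} (hc : c % 2 = 1) : K1 c = Icc (((c : ℝ) - 1) / 2) (((c : ℝ) + 1) / 2) := by
  ext x
  rw [K1_odd hc, abs_le, mem_Icc]
  constructor
  · rintro ⟨h1, h2⟩
    constructor <;> linarith
  · rintro ⟨h1, h2⟩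
    constructor <;> linarith

theorem K1_even' {c : ℤ} (hc : c % 2 = 0) : K1 c = {(c : ℝ) / 2} := by
  ext x
  rw [K1_even hc, mem_singleton_iff]
  constructor
  · intro h
    linarith
  · intro h
    linarith

theorem isClosed_K1 (c : ℤ) : IsClosed (K1 c) :=
  isClosed_le (by fun_prop) continuous_const

/-- cells of the plane -/
def cel2 (p : Pt) : Set (ℝ × ℝ) := K1 p.1 ×ˢ K1 p.2

/-- cells of the space -/
def cel3 (p : Pt) (z : ℤ) : Set ((ℝ × ℝ) × ℝ) := cel2 p ×ˢ K1 z

/-- the carrier of a chain -/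
def car3 (S : Pt → ℤ → ZMod 2) : Set ((ℝ × ℝ) × ℝ) := {x | ∃ p z, S p z ≠ 0 ∧ x ∈ cel3 p z}

theorem cel2_sq {s : Pt} (hs : Sq s) : cel2 s = sq s := by
  ext x
  unfold cel2 sq
  rw [mem_prod, K1_odd hs.1, K1_odd hs.2]
  rfl

theorem isClosed_cel3 (p : Pt) (z : ℤ) : IsClosed (cel3 p z) :=
  ((isClosed_K1 _).prod (isClosed_K1 _)).prod (isClosed_K1 _)

theorem isClosed_car3 {S : Pt → ℤ → ZMod 2} (h : {q : Pt × ℤ | S q.1 q.2 ≠ 0}.Finite) :
    IsClosed (car3 S) := by
  have e : car3 S = ⋃ q ∈ {q : Pt × ℤ | S q.1 q.2 ≠ 0}, cel3 q.1 q.2 := by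
    ext x
    simp only [car3, mem_ofPred_eq, mem_iUnion, exists_prop, Prod.exists]
  rw [e]
  exact h.isClosed_biUnion fun q _ => isClosed_cel3 _ _

/-- odd neighbours of an odd coordinate which share a point -/
theorem K1_two {a b : ℤ} {x : ℝ} (ha : a % 2 = 1) (hb : b % 2 = 1) (h1 : |2 * x - a| ≤ 1)
    (h2 : |2 * x - b| ≤ 1) : a = b ∨ (a = b + 2 ∧ 2 * x = ((b + 1 : ℤ) : ℝ)) ∨
      (b = a + 2 ∧ 2 * x = ((a + 1 : ℤ) : ℝ)) := by
  rw [abs_le] at h1 h2
  have e1 : (a : ℝ) ≤ b + 2 := by linarith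
  have e2 : (b : ℝ) ≤ a + 2 := by linarith
  have e1' : a ≤ b + 2 := by exact_mod_cast e1
  have e2' : b ≤ a + 2 := by exact_mod_cast e2
  have h3 : a = b ∨ a = b + 2 ∨ b = a + 2 := by omega
  rcases h3 with h | h | h
  · exact Or.inl h
  · refine Or.inr (Or.inl ⟨h, ?_⟩)
    subst h
    push_cast at *
    linarith
  · refine Or.inr (Or.inr ⟨h, ?_⟩)
    subst h
    push_cast at *
    linarith

/-- two neighbouring squares meet in the cell of their common edge -/
theorem mem_cel2_mid {s t : Pt} (hs : Sq s) (hst : nb s t) {x : ℝ × ℝ} :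
    x ∈ cel2 (mid s t) ↔ x ∈ sq s ∧ x ∈ sq t := by
  obtain ⟨a, b⟩ := s
  obtain ⟨ha, hb⟩ := hs
  simp only at ha hb
  unfold nb at hst
  simp only at hst
  unfold sq
  simp only [mem_ofPred_eq]
  rcases hst with rfl | rfl | rfl | rfl
  · have e1 : mid (a, b) (a + 2, b) = (a + 1, b) := by
      unfold mid; simp only; ext <;> simp only <;> omega
    rw [e1, cel2, mem_prod]
    simp only
    rw [K1_even (by omega), K1_odd hb]
    push_cast
    rw [abs_le, abs_le, abs_le]
    constructor
    · rintro ⟨h1, h2⟩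
      exact ⟨⟨⟨by linarith, by linarith⟩, h2⟩, ⟨by linarith, by linarith⟩, h2⟩
    · rintro ⟨⟨h1, h2⟩, h3, -⟩
      exact ⟨by linarith, h2⟩
  · have e1 : mid (a, b) (a - 2, b) = (a - 1, b) := by
      unfold mid; simp only; ext <;> simp only <;> omega
    rw [e1, cel2, mem_prod]
    simp only
    rw [K1_even (by omega), K1_odd hb]
    push_cast
    rw [abs_le, abs_le, abs_le]
    constructor
    · rintro ⟨h1, h2⟩
      exact ⟨⟨⟨by linarith, by linarith⟩, h2⟩, ⟨by linarith, by linarith⟩, h2⟩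
    · rintro ⟨⟨h1, h2⟩, h3, -⟩
      exact ⟨by linarith, h2⟩
  · have e1 : mid (a, b) (a, b + 2) = (a, b + 1) := by
      unfold mid; simp only; ext <;> simp only <;> omega
    rw [e1, cel2, mem_prod]
    simp only
    rw [K1_even (c := b + 1) (by omega), K1_odd ha]
    push_cast
    rw [abs_le, abs_le, abs_le]
    constructor
    · rintro ⟨h1, h2⟩
      exact ⟨⟨h1, by linarith, by linarith⟩, h1, by linarith, by linarith⟩
    · rintro ⟨⟨h1, h2⟩, -, h3⟩
      exact ⟨h1, by linarith⟩
  · have e1 : mid (a, b) (a, b - 2) = (a, b - 1) := by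
      unfold mid; simp only; ext <;> simp only <;> omega
    rw [e1, cel2, mem_prod]
    simp only
    rw [K1_even (c := b - 1) (by omega), K1_odd ha]
    push_cast
    rw [abs_le, abs_le, abs_le]
    constructor
    · rintro ⟨h1, h2⟩
      exact ⟨⟨h1, by linarith, by linarith⟩, h1, by linarith, by linarith⟩
    · rintro ⟨⟨h1, h2⟩, -, h3⟩
      exact ⟨h1, by linarith⟩

/-- **the frontier of a region is the carrier of its boundary curve** -/
theorem mem_frontier_area {W : Finset Pt} (hW : ∀ s ∈ W, Sq s) {x : ℝ × ℝ} :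
    x ∈ frontier (area W) ↔ ∃ e, bd2 (ind W) e ≠ 0 ∧ x ∈ cel2 e := by
  rw [frontier_area hW]
  constructor
  · rintro ⟨h1, t, ht, htW, hxt⟩
    obtain ⟨s, hs, hxs⟩ := mem_area.1 h1
    have key : ∀ s' t' : Pt, s' ∈ W → Sq t' → t' ∉ W → nb s' t' → x ∈ sq s' → x ∈ sq t' →
        ∃ e, bd2 (ind W) e ≠ 0 ∧ x ∈ cel2 e := by
      intro s' t' hs' _ ht' hn h1 h2
      refine ⟨mid s' t', ?_, (mem_cel2_mid (hW _ hs') hn).2 ⟨h1, h2⟩⟩
      rw [(bd2_mid (hW _ hs') hn).2.2, ind_mem hs', ind_not ht']
      decide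
    have hs1 := hW s hs
    obtain ⟨a, b⟩ := s
    obtain ⟨c, d⟩ := t
    rcases K1_two hs1.1 ht.1 hxs.1 hxt.1 with h | ⟨h, e⟩ | ⟨h, e⟩
    · rcases K1_two hs1.2 ht.2 hxs.2 hxt.2 with h' | ⟨h', e'⟩ | ⟨h', e'⟩
      · exact absurd (by rw [show ((c, d) : Pt) = (a, b) from Prod.ext h.symm h'.symm]; exact hs) htW
      · refine key _ _ hs ht htW (Or.inr (Or.inr (Or.inr ?_))) hxs hxt
        simp only at h h'
        exact Prod.ext h.symm (by simp only; omega)
      · refine key _ _ hs ht htW (Or.inr (Or.inr (Or.inl ?_))) hxs hxt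
        simp only at h h'
        exact Prod.ext h.symm (by simp only; omega)
    all_goals
      rcases K1_two hs1.2 ht.2 hxs.2 hxt.2 with h' | ⟨h', e'⟩ | ⟨h', e'⟩
      · refine key _ _ hs ht htW ?_ hxs hxt
        simp only at h h'
        unfold nb
        simp only [Prod.mk.injEq]
        omega
      all_goals
        have hr : x ∈ sq (a, d) := ⟨hxs.1, hxt.2⟩
        have hrs : Sq (a, d) := ⟨hs1.1, ht.2⟩
        simp only at h h'
        by_cases hrW : ((a, d) : Pt) ∈ W
        · refine key _ _ hrW ht htW ?_ hr hxt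
          unfold nb
          simp only [Prod.mk.injEq, and_true, true_and]
          omega
        · refine key _ _ hs hrs hrW ?_ hxs hr
          unfold nb
          simp only [Prod.mk.injEq, and_true, true_and]
          omega
  · rintro ⟨e, he, hx⟩
    obtain ⟨s, t, hs, ht, hst, rfl⟩ := c_sides hW he
    rw [mem_cel2_mid (hW s hs) hst] at hx
    exact ⟨mem_area.2 ⟨s, hs, hx.1⟩, t, (bd2_mid (hW s hs) hst).2.1, ht, hx.2⟩

/-- **the can** -/
theorem car3_can {A : Finset Pt} (hA : ∀ s ∈ A, Sq s) {z : ℤ} (hz : z % 2 = 1) :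
    car3 (bd (layer A z)) = area A ×ˢ {((z : ℝ) - 1) / 2, ((z : ℝ) + 1) / 2} ∪
      frontier (area A) ×ˢ Icc (((z : ℝ) - 1) / 2) (((z : ℝ) + 1) / 2) := by
  have hval : ∀ p w, bd (layer A z) p w = (if w = z then bd2 (ind A) p else 0) +
      (if w = z + 1 ∨ w = z - 1 then ind A p else 0) := by
    intro p w
    by_cases h1 : w = z
    · subst h1
      rw [bd_odd hz, layer_eq, if_pos rfl, if_neg (by omega), add_zero]
    · rw [if_neg h1]
      by_cases h2 : w % 2 = 0
      · rw [bd_even h2, layer_other A h1, bd2_zero]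
        unfold layer ind
        by_cases h3 : w = z + 1
        · subst h3
          rw [if_neg (by omega), if_pos (Or.inl rfl)]
          by_cases h4 : p ∈ A
          · rw [if_pos ⟨by omega, h4⟩, if_pos h4]
            ring
          · rw [if_neg (fun h => h4 h.2), if_neg h4]
            ring
        · by_cases h4 : w = z - 1
          · subst h4
            rw [if_neg (c := z - 1 - 1 = z ∧ p ∈ A) (by omega), if_pos (Or.inr rfl)]
            by_cases h4 : p ∈ A
            · rw [if_pos ⟨by omega, h4⟩, if_pos h4]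
              ring
            · rw [if_neg (fun h => h4 h.2), if_neg h4]
              ring
          · rw [if_neg (by omega), if_neg (by omega), if_neg (by omega)]
            ring
      · rw [bd_odd (by omega), layer_other A h1, bd2_zero, if_neg (by omega), add_zero]
  ext x
  rw [mem_union, mem_prod, mem_prod]
  unfold car3 cel3
  simp only [mem_ofPred_eq, mem_insert_iff, mem_singleton_iff, mem_prod]
  constructor
  · rintro ⟨p, w, hne, h2, h3⟩
    rw [hval] at hne
    by_cases hw : w = z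
    · subst hw
      rw [if_pos rfl, if_neg (by omega), add_zero] at hne
      right
      exact ⟨(mem_frontier_area hA).2 ⟨p, hne, h2⟩, by rw [← K1_odd' hz]; exact h3⟩
    · rw [if_neg hw, zero_add] at hne
      left
      by_cases hw2 : w = z + 1 ∨ w = z - 1
      · rw [if_pos hw2] at hne
        have hp := ind_ne hne
        refine ⟨mem_area.2 ⟨p, hp, by rw [← cel2_sq (hA p hp)]; exact h2⟩, ?_⟩
        rcases hw2 with rfl | rfl
        · right
          rw [K1_even (by omega)] at h3
          push_cast at h3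
          linarith
        · left
          rw [K1_even (by omega)] at h3
          push_cast at h3
          linarith
      · rw [if_neg hw2] at hne
        exact absurd rfl hne
  · rintro (⟨h1, h2⟩ | ⟨h1, h2⟩)
    · obtain ⟨s, hs, hxs⟩ := mem_area.1 h1
      rw [← cel2_sq (hA s hs)] at hxs
      rcases h2 with h2 | h2
      · refine ⟨s, z - 1, ?_, hxs, ?_⟩
        · rw [hval, if_neg (by omega), if_pos (Or.inr rfl), ind_mem hs]
          decide
        · rw [K1_even (by omega)]
          push_cast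
          linarith
      · refine ⟨s, z + 1, ?_, hxs, ?_⟩
        · rw [hval, if_neg (by omega), if_pos (Or.inl rfl), ind_mem hs]
          decide
        · rw [K1_even (by omega)]
          push_cast
          linarith
    · obtain ⟨e, he, hx⟩ := (mem_frontier_area hA).1 h1
      refine ⟨e, z, ?_, hx, by rw [K1_odd' hz]; exact h2⟩
      rw [hval, if_pos rfl, if_neg (by omega), add_zero]
      exact he

end Crest.Agent.R096.Al_63
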