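import Crest.Agent.R096.Cut2_874
import Crest.Agent.R096.Msh2_715

/-!
# Row 96, library (MESH-AL), part 1: replacing tiles of a tiling by another family of polytopes

`patch T A H R`: the tiles `i ∈ A` of `T` are replaced by the polytopes `P (H k)`, which have the same
union.  `blocks`: the replacement family consists of tiles of other tilings.
-/

set_option autoImplicit false

open Set Filter Topology Metric

namespace Crest.Agent.R096.Mal_874

open Msh_715 Cut_874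

variable {E : Type*} [NormedAddCommGroup E] [NormedSpace ℝ E]
variable {Om : Set E} {ι κ : Type*}

/-- the closed cell at `x` of a family of polytopes -/
def fcc (H : κ → Finset ((E →L[ℝ] ℝ) × ℝ)) (x : E) : Set E :=
  {y | ∀ k, x ∈ P (H k) → ∀ h ∈ H k, h.1 y ≤ h.2 ∧ (h.1 x = h.2 → h.1 y = h.2)}

/-- the open cell at `x` of a family of polytopes -/
def foc (H : κ → Finset ((E →L[ℝ] ℝ) × ℝ)) (x : E) : Set E :=
  {y | ∀ k, x ∈ P (H k) → ∀ h ∈ H k, h.1 y ≤ h.2 ∧ (h.1 y = h.2 ↔ h.1 x = h.2)}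

/-- the directions at `x` of a family of polytopes -/
def fV (H : κ → Finset ((E →L[ℝ] ℝ) × ℝ)) (x : E) : Set E :=
  {v | ∀ k, x ∈ P (H k) → ∀ h ∈ H k, h.1 x = h.2 → h.1 v = 0}

theorem cc_eq_fcc (T : Tiling Om ι) (x : E) : T.cc x = fcc T.H x := rfl

theorem oc_eq_foc (T : Tiling Om ι) (x : E) : T.oc x = foc T.H x := rfl

theorem V_eq_fV (T : Tiling Om ι) (x : E) : (T.V x : Set E) = fV T.H x := rfl

/-- the polytopes `P (H k)` replace the tiles `i ∈ A` of `T` -/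
structure Repl (T : Tiling Om ι) (A : Set ι) (H : κ → Finset ((E →L[ℝ] ℝ) × ℝ)) : Prop where
  cpt : ∀ k, IsCompact (P (H k))
  ne : ∀ k, (I (H k)).Nonempty
  dis : ∀ k l, k ≠ l → Disjoint (I (H k)) (I (H l))
  lf : ∀ x ∈ Om, ∃ r > 0, {k | (P (H k) ∩ ball x r).Nonempty}.Finite
  eq : ⋃ k, P (H k) = ⋃ i ∈ A, P (T.H i)

theorem Repl.dis' {T : Tiling Om ι} {A : Set ι} {H : κ → Finset ((E →L[ℝ] ℝ) × ℝ)}
    (R : Repl T A H) {i : ι} (hi : i ∉ A) (k : κ) : Disjoint (I (T.H i)) (I (H k)) := by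
  rw [Set.disjoint_left]
  intro y hy hyk
  have h1 : y ∈ ⋃ i ∈ A, P (T.H i) := R.eq ▸ Set.mem_iUnion.2 ⟨k, I_sub_P _ hyk⟩
  obtain ⟨j, hj⟩ := Set.mem_iUnion.1 h1
  obtain ⟨hjA, hj⟩ := Set.mem_iUnion.1 hj
  have hne : j ≠ i := fun h => hi (h ▸ hjA)
  exact Set.disjoint_left.1 (disjoint_P_I (T.ne j) (T.dis j i hne)) hj hy

/-- **the patched tiling** -/
noncomputable def patch (T : Tiling Om ι) (A : Set ι) (H : κ → Finset ((E →L[ℝ] ℝ) × ℝ))
    (R : Repl T A H) : Tiling Om ({i // i ∉ A} ⊕ κ) where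
  H := Sum.elim (fun i => T.H i.1) H
  cpt := by
    rintro (i | k)
    · exact T.cpt i.1
    · exact R.cpt k
  ne := by
    rintro (i | k)
    · exact T.ne i.1
    · exact R.ne k
  sub := by
    rintro (i | k)
    · exact T.sub i.1
    · intro y hy
      have h1 : y ∈ ⋃ i ∈ A, P (T.H i) := R.eq ▸ Set.mem_iUnion.2 ⟨k, hy⟩
      obtain ⟨j, hj⟩ := Set.mem_iUnion.1 h1
      obtain ⟨hjA, hj⟩ := Set.mem_iUnion.1 hj
      exact T.sub j hj
  cov x hx := by
    obtain ⟨i, hi⟩ := T.cov x hx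
    by_cases hA : i ∈ A
    · have h1 : x ∈ ⋃ k, P (H k) := R.eq ▸ Set.mem_iUnion.2 ⟨i, Set.mem_iUnion.2 ⟨hA, hi⟩⟩
      obtain ⟨k, hk⟩ := Set.mem_iUnion.1 h1
      exact ⟨Sum.inr k, hk⟩
    · exact ⟨Sum.inl ⟨i, hA⟩, hi⟩
  dis := by
    rintro (i | k) (j | l) h
    · exact T.dis _ _ fun h' => h (by rw [Subtype.ext h'])
    · exact R.dis' i.2 l
    · exact (R.dis' j.2 k).symm
    · exact R.dis _ _ fun h' => h (by rw [h'])
  lf x hx := by
    obtain ⟨r, hr, hf⟩ := T.lf x hx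
    obtain ⟨s, hs, hg⟩ := R.lf x hx
    refine ⟨min r s, lt_min hr hs, ?_⟩
    have h1 : {i : {i // i ∉ A} | (P (T.H i.1) ∩ ball x r).Nonempty}.Finite := by
      refine Set.Finite.of_finite_image (f := Subtype.val) (hf.subset ?_)
        Subtype.val_injective.injOn
      rintro _ ⟨i, hi, rfl⟩
      exact hi
    refine ((h1.image Sum.inl).union (hg.image Sum.inr)).subset ?_
    rintro (i | k) ⟨y, hy, hyb⟩
    · exact Or.inl ⟨i, ⟨y, hy, ball_subset_ball (min_le_left _ _) hyb⟩, rfl⟩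
    · exact Or.inr ⟨k, ⟨y, hy, ball_subset_ball (min_le_right _ _) hyb⟩, rfl⟩
  op := T.op

section

variable {T : Tiling Om ι} {A : Set ι} {H : κ → Finset ((E →L[ℝ] ℝ) × ℝ)} {R : Repl T A H}

theorem patch_inl (i : {i // i ∉ A}) : (patch T A H R).H (Sum.inl i) = T.H i.1 := rfl

theorem patch_inr (k : κ) : (patch T A H R).H (Sum.inr k) = H k := rfl

theorem inl_mem_at {x : E} {i : {i // i ∉ A}} :
    Sum.inl i ∈ (patch T A H R).at_ x ↔ i.1 ∈ T.at_ x := Iff.rfl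

theorem inr_mem_at {x : E} {k : κ} : Sum.inr k ∈ (patch T A H R).at_ x ↔ x ∈ P (H k) := Iff.rfl

/-- the closed cells of the patched tiling -/
theorem mem_cc_patch {x y : E} : y ∈ (patch T A H R).cc x ↔
    (∀ i ∈ T.at_ x, i ∉ A → ∀ h ∈ T.H i, h.1 y ≤ h.2 ∧ (h.1 x = h.2 → h.1 y = h.2)) ∧
      y ∈ fcc H x := by
  constructor
  · intro hy
    exact ⟨fun i hi hA h hh => hy (Sum.inl ⟨i, hA⟩) hi h hh, fun k hk h hh => hy (Sum.inr k) hk h hh⟩
  · rintro ⟨h1, h2⟩ (i | k) hi h hh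
    · exact h1 i.1 hi i.2 h hh
    · exact h2 k hi h hh

theorem mem_oc_patch {x y : E} : y ∈ (patch T A H R).oc x ↔
    (∀ i ∈ T.at_ x, i ∉ A → ∀ h ∈ T.H i, h.1 y ≤ h.2 ∧ (h.1 y = h.2 ↔ h.1 x = h.2)) ∧
      y ∈ foc H x := by
  constructor
  · intro hy
    exact ⟨fun i hi hA h hh => hy (Sum.inl ⟨i, hA⟩) hi h hh, fun k hk h hh => hy (Sum.inr k) hk h hh⟩
  · rintro ⟨h1, h2⟩ (i | k) hi h hh
    · exact h1 i.1 hi i.2 h hh
    · exact h2 k hi h hh

theorem mem_V_patch {x v : E} : v ∈ (patch T A H R).V x ↔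
    (∀ i ∈ T.at_ x, i ∉ A → ∀ h ∈ T.H i, h.1 x = h.2 → h.1 v = 0) ∧ v ∈ fV H x := by
  constructor
  · intro hy
    exact ⟨fun i hi hA h hh => hy (Sum.inl ⟨i, hA⟩) hi h hh, fun k hk h hh => hy (Sum.inr k) hk h hh⟩
  · rintro ⟨h1, h2⟩ (i | k) hi h hh
    · exact h1 i.1 hi i.2 h hh
    · exact h2 k hi h hh

/-- off the replaced region nothing changes -/
theorem patch_off {x : E} (hx : ∀ i ∈ T.at_ x, i ∉ A) :
    (patch T A H R).cc x = T.cc x ∧ (patch T A H R).oc x = T.oc x ∧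
      (patch T A H R).V x = T.V x := by
  have hk : ∀ k, x ∉ P (H k) := by
    intro k hk
    have h1 : x ∈ ⋃ i ∈ A, P (T.H i) := R.eq ▸ Set.mem_iUnion.2 ⟨k, hk⟩
    obtain ⟨j, hj⟩ := Set.mem_iUnion.1 h1
    obtain ⟨hjA, hj⟩ := Set.mem_iUnion.1 hj
    exact hx j hj hjA
  refine ⟨?_, ?_, ?_⟩
  · ext y
    rw [mem_cc_patch]
    exact ⟨fun h i hi => h.1 i hi (hx i hi), fun h => ⟨fun i hi _ => h i hi,
      fun k hk' => absurd hk' (hk k)⟩⟩
  · ext y
    rw [mem_oc_patch]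
    exact ⟨fun h i hi => h.1 i hi (hx i hi), fun h => ⟨fun i hi _ => h i hi,
      fun k hk' => absurd hk' (hk k)⟩⟩
  · ext y
    rw [mem_V_patch]
    exact ⟨fun h i hi => h.1 i hi (hx i hi), fun h => ⟨fun i hi _ => h i hi,
      fun k hk' => absurd hk' (hk k)⟩⟩

/-- inside the replaced region only the new family counts -/
theorem patch_in {x : E} (hx : ∀ i ∈ T.at_ x, i ∈ A) :
    (patch T A H R).cc x = fcc H x ∧ (patch T A H R).oc x = foc H x ∧
      ((patch T A H R).V x : Set E) = fV H x := by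
  refine ⟨?_, ?_, ?_⟩
  · ext y
    rw [mem_cc_patch]
    exact ⟨fun h => h.2, fun h => ⟨fun i hi hn => absurd (hx i hi) hn, h⟩⟩
  · ext y
    rw [mem_oc_patch]
    exact ⟨fun h => h.2, fun h => ⟨fun i hi hn => absurd (hx i hi) hn, h⟩⟩
  · ext y
    rw [SetLike.mem_coe, mem_V_patch]
    exact ⟨fun h => h.2, fun h => ⟨fun i hi hn => absurd (hx i hi) hn, h⟩⟩

end

/-! ### Unions of tiles -/

/-- `N` is a union of tiles -/
def IsUn (T : Tiling Om ι) (N : Set E) : Prop := ∀ x ∈ N, ∃ i ∈ T.at_ x, P (T.H i) ⊆ N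

theorem IsUn.eq {T : Tiling Om ι} {N : Set E} (h : IsUn T N) :
    ⋃ i ∈ {i | P (T.H i) ⊆ N}, P (T.H i) = N := by
  ext x
  simp only [Set.mem_iUnion, Set.mem_ofPred_eq]
  constructor
  · rintro ⟨i, hi, hx⟩; exact hi hx
  · intro hx
    obtain ⟨i, hi, hN⟩ := h x hx
    exact ⟨i, hN, hi⟩

theorem IsUn.iUnion {J : Type*} {T : Tiling Om ι} {N : J → Set E} (h : ∀ j, IsUn T (N j)) :
    IsUn T (⋃ j, N j) := by
  intro x hx
  obtain ⟨j, hj⟩ := Set.mem_iUnion.1 hx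
  obtain ⟨i, hi, hN⟩ := h j x hj
  exact ⟨i, hi, hN.trans (Set.subset_iUnion N j)⟩

/-- criterion: regular closed set, every tile is inside or outside -/
theorem IsUn.of_side {T : Tiling Om ι} {N : Set E} (hN : N ⊆ closure (interior N)) (hO : N ⊆ Om)
    (h : ∀ i, P (T.H i) ⊆ N ∨ Disjoint (I (T.H i)) (interior N)) : IsUn T N := by
  intro x hx
  by_contra hcon
  push Not at hcon
  obtain ⟨r, hr, hrO, hat⟩ := T.exists_ball (hO hx)
  obtain ⟨y, hy, hyr⟩ : ∃ y ∈ interior N, y ∈ ball x r := by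
    have := mem_closure_iff.1 (hN hx) (ball x r) isOpen_ball (mem_ball_self hr)
    obtain ⟨y, h1, h2⟩ := this
    exact ⟨y, h2, h1⟩
  obtain ⟨i, hi⟩ := T.at_nonempty (hrO hyr)
  have hix := hat y hyr hi
  rcases h i with h' | h'
  · exact hcon i hix h'
  · obtain ⟨z, hz⟩ := T.ne i
    have h1 := (isOpen_interior.mem_nhds hy)
    have hc : Tendsto (fun s : ℝ => y + s • (z - y)) (𝓝 0) (𝓝 (y + (0 : ℝ) • (z - y))) := by
      apply Continuous.tendsto
      fun_prop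
    rw [zero_smul, add_zero] at hc
    have h2 := (hc.eventually h1).filter_mono (nhdsWithin_le_nhds (s := Ioi (0 : ℝ)))
    have h3 : ∀ᶠ s in 𝓝[>] (0 : ℝ), s < 1 :=
      (gt_mem_nhds (zero_lt_one' ℝ)).filter_mono nhdsWithin_le_nhds
    obtain ⟨s, ⟨hs1, hs2⟩, hs3⟩ := ((h2.and h3).and self_mem_nhdsWithin).exists
    exact Set.disjoint_left.1 h' (mem_I_of_move hi hz hs3 hs2.le) hs1

/-- tiles at an interior point of a union of tiles are inside it -/
theorem IsUn.at_sub {T : Tiling Om ι} {N : Set E} (h : IsUn T N) {x : E}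
    (hx : x ∈ interior N) {i : ι} (hi : i ∈ T.at_ x) : P (T.H i) ⊆ N := by
  obtain ⟨z, hz⟩ := T.ne i
  have h1 := (isOpen_interior.mem_nhds hx)
  have hc : Tendsto (fun s : ℝ => x + s • (z - x)) (𝓝 0) (𝓝 (x + (0 : ℝ) • (z - x))) := by
    apply Continuous.tendsto
    fun_prop
  rw [zero_smul, add_zero] at hc
  have h2 := (hc.eventually h1).filter_mono (nhdsWithin_le_nhds (s := Ioi (0 : ℝ)))
  have h3 : ∀ᶠ s in 𝓝[>] (0 : ℝ), s < 1 :=
    (gt_mem_nhds (zero_lt_one' ℝ)).filter_mono nhdsWithin_le_nhds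
  obtain ⟨s, ⟨hs1, hs2⟩, hs3⟩ := ((h2.and h3).and self_mem_nhdsWithin).exists
  have hsI := mem_I_of_move hi hz hs3 hs2.le
  obtain ⟨j, hj, hjN⟩ := h _ (interior_subset hs1)
  by_cases hij : j = i
  · exact hij ▸ hjN
  · exact absurd hsI (Set.disjoint_left.1 (disjoint_P_I (T.ne j) (T.dis j i hij)) hj)

/-- a tile which is not inside a union of tiles has its interior outside -/
theorem IsUn.disjoint {T : Tiling Om ι} {N : Set E} (h : IsUn T N) {i : ι}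
    (hi : ¬ P (T.H i) ⊆ N) : Disjoint (I (T.H i)) N := by
  rw [Set.disjoint_left]
  intro x hx hxN
  obtain ⟨j, hj, hjN⟩ := h x hxN
  by_cases hij : j = i
  · exact hi (hij ▸ hjN)
  · exact absurd hx (Set.disjoint_left.1 (disjoint_P_I (T.ne j) (T.dis j i hij)) hj)

/-! ### Blocks -/

/-- the replacement family made of the tiles of `S j` inside `N j` -/
def blkH {J : Type*} {Om' : J → Set E} {ι' : J → Type*} (S : ∀ j, Tiling (Om' j) (ι' j))
    (N : J → Set E) (p : Σ j, {i : ι' j // P ((S j).H i) ⊆ N j}) :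
    Finset ((E →L[ℝ] ℝ) × ℝ) := (S p.1).H p.2.1

theorem blk_repl {J : Type*} (T : Tiling Om ι) {Om' : J → Set E} {ι' : J → Type*}
    (S : ∀ j, Tiling (Om' j) (ι' j)) {N : J → Set E} (hT : ∀ j, IsUn T (N j))
    (hS : ∀ j, IsUn (S j) (N j)) (hc : ∀ j, IsCompact (N j)) (hO : ∀ j, N j ⊆ Om' j)
    (hd : ∀ j l, j ≠ l → Disjoint (N j) (N l))
    (hlf : ∀ x ∈ Om, ∃ r > 0, {j | (N j ∩ ball x r).Nonempty}.Finite) :
    Repl T {i | P (T.H i) ⊆ ⋃ j, N j} (blkH S N) where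
  cpt p := (S p.1).cpt _
  ne p := (S p.1).ne _
  dis := by
    rintro ⟨j, i⟩ ⟨l, m⟩ h
    by_cases hjl : j = l
    · subst hjl
      refine (S j).dis _ _ fun h' => h ?_
      have h2 : i = m := Subtype.ext h'
      rw [h2]
    · refine Disjoint.mono ?_ ?_ (hd j l hjl)
      · exact (I_sub_P _).trans i.2
      · exact (I_sub_P _).trans m.2
  lf x hx := by
    have hfin : ∀ j, Finite {i : ι' j // P ((S j).H i) ⊆ N j} := by
      intro j
      refine (((S j).finite_tiles (hc j) (hO j)).subset ?_).to_subtype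
      intro i hi
      obtain ⟨z, hz⟩ := (S j).ne i
      exact ⟨z, I_sub_P _ hz, hi (I_sub_P _ hz)⟩
    obtain ⟨r, hr, hf⟩ := hlf x hx
    refine ⟨r, hr, ?_⟩
    have h1 : (⋃ j ∈ {j | (N j ∩ ball x r).Nonempty}, Set.range
        (fun i : {i : ι' j // P ((S j).H i) ⊆ N j} =>
          (⟨j, i⟩ : Σ j, {i : ι' j // P ((S j).H i) ⊆ N j}))).Finite :=
      hf.biUnion fun j _ => Set.finite_range _
    refine h1.subset ?_
    rintro ⟨j, i⟩ ⟨y, hy, hyb⟩
    simp only [Set.mem_iUnion]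
    exact ⟨j, ⟨y, i.2 hy, hyb⟩, i, rfl⟩
  eq := by
    rw [(IsUn.iUnion hT).eq]
    ext x
    simp only [Set.mem_iUnion]
    constructor
    · rintro ⟨⟨j, i⟩, hx⟩
      exact ⟨j, i.2 hx⟩
    · rintro ⟨j, hx⟩
      obtain ⟨i, hi, hN⟩ := hS j x hx
      exact ⟨⟨j, ⟨i, hN⟩⟩, hi⟩

/-- **the tiling `T` with the tiles in `⋃ N j` replaced by the tiles of `S j` in `N j`** -/
noncomputable def blocks {J : Type*} (T : Tiling Om ι) {Om' : J → Set E}
    {ι' : J → Type*} (S : ∀ j, Tiling (Om' j) (ι' j)) {N : J → Set E} (hT : ∀ j, IsUn T (N j))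
    (hS : ∀ j, IsUn (S j) (N j)) (hc : ∀ j, IsCompact (N j)) (hO : ∀ j, N j ⊆ Om' j)
    (hd : ∀ j l, j ≠ l → Disjoint (N j) (N l))
    (hlf : ∀ x ∈ Om, ∃ r > 0, {j | (N j ∩ ball x r).Nonempty}.Finite) :=
  patch T {i | P (T.H i) ⊆ ⋃ j, N j} (blkH S N) (blk_repl T S hT hS hc hO hd hlf)

section

variable {J : Type*} {T : Tiling Om ι} {Om' : J → Set E} {ι' : J → Type*}
  {S : ∀ j, Tiling (Om' j) (ι' j)} {N : J → Set E} {hT : ∀ j, IsUn T (N j)}
  {hS : ∀ j, IsUn (S j) (N j)} {hc : ∀ j, IsCompact (N j)} {hO : ∀ j, N j ⊆ Om' j}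
  {hd : ∀ j l, j ≠ l → Disjoint (N j) (N l)}
  {hlf : ∀ x ∈ Om, ∃ r > 0, {j | (N j ∩ ball x r).Nonempty}.Finite}

/-- off the blocks -/
theorem blocks_off {x : E} (hx : x ∉ ⋃ j, N j) :
    (blocks T S hT hS hc hO hd hlf).cc x = T.cc x ∧ (blocks T S hT hS hc hO hd hlf).oc x = T.oc x ∧
      (blocks T S hT hS hc hO hd hlf).V x = T.V x :=
  patch_off fun _ hi h => hx (h hi)

/-- inside a block -/
theorem blocks_in {x : E} {j : J} (hx : x ∈ interior (N j)) :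
    (blocks T S hT hS hc hO hd hlf).cc x = (S j).cc x ∧
      (blocks T S hT hS hc hO hd hlf).oc x = (S j).oc x ∧
      (blocks T S hT hS hc hO hd hlf).V x = (S j).V x := by
  have h1 : ∀ i ∈ T.at_ x, i ∈ {i | P (T.H i) ⊆ ⋃ j, N j} := by
    intro i hi
    exact ((hT j).at_sub hx hi).trans (Set.subset_iUnion N j)
  have h2 := patch_in (R := blk_repl T S hT hS hc hO hd hlf) h1
  -- a block through `x` is the block `j`
  have h3 : ∀ p : Σ j, {i : ι' j // P ((S j).H i) ⊆ N j}, x ∈ P (blkH S N p) → p.1 = j := by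
    rintro ⟨l, i⟩ hp
    by_contra hne
    exact Set.disjoint_left.1 (hd l j hne) (i.2 hp) (interior_subset hx)
  refine ⟨?_, ?_, ?_⟩
  · refine h2.1.trans ?_
    ext y
    constructor
    · intro hy i hi h hh
      exact hy ⟨j, ⟨i, (hS j).at_sub hx hi⟩⟩ hi h hh
    · rintro hy ⟨l, i⟩ hp h hh
      obtain rfl : l = j := h3 _ hp
      exact hy i.1 hp h hh
  · refine h2.2.1.trans ?_
    ext y
    constructor
    · intro hy i hi h hh
      exact hy ⟨j, ⟨i, (hS j).at_sub hx hi⟩⟩ hi h hh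
    · rintro hy ⟨l, i⟩ hp h hh
      obtain rfl : l = j := h3 _ hp
      exact hy i.1 hp h hh
  · apply SetLike.coe_injective
    refine h2.2.2.trans ?_
    ext y
    constructor
    · intro hy i hi h hh
      exact hy ⟨j, ⟨i, (hS j).at_sub hx hi⟩⟩ hi h hh
    · rintro hy ⟨l, i⟩ hp h hh
      obtain rfl : l = j := h3 _ hp
      exact hy i.1 hp h hh

/-- at a point of a block, in general -/
theorem mem_blocks_cc {x y : E} {j : J} (hx : x ∈ N j) :
    y ∈ (blocks T S hT hS hc hO hd hlf).cc x ↔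
      (∀ i ∈ T.at_ x, ¬ P (T.H i) ⊆ ⋃ j, N j →
        ∀ h ∈ T.H i, h.1 y ≤ h.2 ∧ (h.1 x = h.2 → h.1 y = h.2)) ∧
      (∀ i ∈ (S j).at_ x, P ((S j).H i) ⊆ N j →
        ∀ h ∈ (S j).H i, h.1 y ≤ h.2 ∧ (h.1 x = h.2 → h.1 y = h.2)) := by
  unfold blocks
  rw [mem_cc_patch]
  refine and_congr Iff.rfl ?_
  constructor
  · intro hy i hi hN h hh
    exact hy ⟨j, ⟨i, hN⟩⟩ hi h hh
  · rintro hy ⟨l, i⟩ hp h hh
    obtain rfl : l = j := by
      by_contra hne
      exact Set.disjoint_left.1 (hd l j hne) (i.2 hp) hx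
    exact hy i.1 hp i.2 h hh

end

end Crest.Agent.R096.Mal_874
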