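import Crest.Agent.R096.Mbf_337
import Crest.Agent.R096.Mal1_874
import Crest.Agent.R096.Msh6_810

/-!
# Row 96, TMESH (helper582), part 1: interface of the meshes with tiny cores

`trH w H` = translated inequalities; `LatRepl` = a finite family of polytopes which replaces finitely
many cubes of the lattice of scale `k`; `InZone` = in the ball `closedBall x₀ R` the tiling is the
lattice with this replacement, everything translated by `w`; `TinyLoc` = the local statement for one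
tiny core (target of T2).
-/

set_option autoImplicit false
set_option linter.style.longLine false
set_option linter.unusedSectionVars false

open MeasureTheory Set Filter Topology Metric
open scoped ENNReal

namespace Crest.Agent.R096.Tms_582

open Crest.Agent.R096.Bsp_628 Crest.Agent.R096.Brk1_582 Crest.Agent.R096.Brk3_582
open Crest.Agent.R096.Brk5_582
open Crest.Agent.R096.Msh_715
open Crest.Agent.R096.Msh_810 (Cu Hc ps)
open Crest.Agent.R096.SkC1_961 (E3 Hom3 FoamD Cfg)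
open Crest.Agent.R096.Mbf_337

noncomputable section

section tr

variable {E : Type*} [NormedAddCommGroup E] [NormedSpace ℝ E]

/-- the inequality `h`, translated by `w` -/
def trh (w : E) (h : (E →L[ℝ] ℝ) × ℝ) : (E →L[ℝ] ℝ) × ℝ := (h.1, h.2 + h.1 w)

open Classical in
/-- the system of inequalities `H`, translated by `w` -/
def trH (w : E) (H : Finset ((E →L[ℝ] ℝ) × ℝ)) : Finset ((E →L[ℝ] ℝ) × ℝ) := H.image (trh w)

theorem forall_trH {w : E} {H : Finset ((E →L[ℝ] ℝ) × ℝ)} {Q : (E →L[ℝ] ℝ) × ℝ → Prop} :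
    (∀ h ∈ trH w H, Q h) ↔ ∀ h ∈ H, Q (trh w h) := by
  classical
  unfold trH
  constructor
  · intro h a ha; exact h _ (Finset.mem_image_of_mem _ ha)
  · intro h a ha
    obtain ⟨b, hb, rfl⟩ := Finset.mem_image.1 ha
    exact h b hb

theorem trh_le {w x : E} {h : (E →L[ℝ] ℝ) × ℝ} :
    (trh w h).1 x ≤ (trh w h).2 ↔ h.1 (x - w) ≤ h.2 := by
  unfold trh
  rw [map_sub, sub_le_iff_le_add]

theorem trh_lt {w x : E} {h : (E →L[ℝ] ℝ) × ℝ} :
    (trh w h).1 x < (trh w h).2 ↔ h.1 (x - w) < h.2 := by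
  unfold trh
  rw [map_sub, sub_lt_iff_lt_add]

theorem trh_eq {w x : E} {h : (E →L[ℝ] ℝ) × ℝ} :
    (trh w h).1 x = (trh w h).2 ↔ h.1 (x - w) = h.2 := by
  unfold trh
  rw [map_sub, sub_eq_iff_eq_add]

theorem mem_P_trH {w x : E} {H : Finset ((E →L[ℝ] ℝ) × ℝ)} : x ∈ P (trH w H) ↔ x - w ∈ P H := by
  show (∀ h ∈ trH w H, h.1 x ≤ h.2) ↔ ∀ h ∈ H, h.1 (x - w) ≤ h.2
  rw [forall_trH]
  simp only [trh_le]

theorem mem_I_trH {w x : E} {H : Finset ((E →L[ℝ] ℝ) × ℝ)} : x ∈ I (trH w H) ↔ x - w ∈ I H := by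
  show (∀ h ∈ trH w H, h.1 x < h.2) ↔ ∀ h ∈ H, h.1 (x - w) < h.2
  rw [forall_trH]
  simp only [trh_lt]

end tr

/-- the identity frame of `E3` -/
def idE : E3 ≃L[ℝ] (Fin 3 → ℝ) := ContinuousLinearEquiv.refl ℝ E3

/-- **the finite family `H` replaces the cubes `z ∈ Zc` of the lattice of scale `k`** -/
structure LatRepl (k : ℕ) (Zc : Finset (Fin 3 → ℤ)) {κ : Type} (H : κ → Finset ((E3 →L[ℝ] ℝ) × ℝ)) :
    Prop where
  fin : Finite κ
  cpt : ∀ j, IsCompact (P (H j))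
  ne : ∀ j, (I (H j)).Nonempty
  dis : ∀ i j, i ≠ j → Disjoint (I (H i)) (I (H j))
  eq : ⋃ j, P (H j) = ⋃ z ∈ Zc, Cu (0 : E3) k z

/-- **in `closedBall x₀ R` the tiling `T` is the lattice of scale `k` with the cubes `Zc` replaced by
the family `H`, everything translated by `w`** -/
structure InZone {Om : Set E3} {ι : Type} (T : Tiling Om ι) (x₀ : E3) (R : ℝ) (k : ℕ) (w : E3)
    (Zc : Finset (Fin 3 → ℤ)) {κ : Type} (H : κ → Finset ((E3 →L[ℝ] ℝ) × ℝ)) (e : κ → ι) : Prop where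
  inj : Function.Injective e
  loc : ∀ j, T.H (e j) = trH w (H j)
  lat : ∀ i, (P (T.H i) ∩ closedBall x₀ R).Nonempty → i ∉ range e → ∃ z, z ∉ Zc ∧ T.H i = Hc idE w k z

/-- `f` is regular on the closed 1-cells in the tiles of `V` (true for a.e. translate, ACL) -/
def RegV {Om : Set E3} {ι : Type} (T : Tiling Om ι) (f : E3 → E3) (V : Set ι) : Prop :=
  ∀ x ∈ KJ T V, T.dim x = 1 → ∀ ℓ : E3 → ℝ, (∃ k, LipschitzWith k ℓ) →
    ∀ᵐ t : ℝ, {y ∈ T.cc x | ℓ (f y) = t}.Finite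

/-- **one tiny core, local form** (target of T2): for all large scales `k` there is a finite mesh
replacing finitely many cubes near `x₀` such that for every translate `w` in the cube of side `2^-k`
and every tiling which looks like this in `closedBall x₀ R`, and every set `V` of tiles in
`closedBall x₀ R` which contains the new tiles and all tiles meeting `closedBall x₀ (R/2)`, the clauses
`Tiny` and `Fine` hold (provided that `f` is regular on the 1-cells in `V` and `x₀` lies in an open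
tile). -/
def TinyLoc {δ κ0 R0 c0 : ℝ} {La : Set E3} (Φ : FoamD δ κ0 R0 c0 La) (Om : Set E3) (f : E3 → E3)
    (κ1 : ℝ) (c : Φ.F) (x₀ : E3) (R : ℝ) : Prop :=
  ∃ k0 : ℕ, ∀ k : ℕ, k0 ≤ k → ∃ (Zc : Finset (Fin 3 → ℤ)) (κ : Type)
    (H : κ → Finset ((E3 →L[ℝ] ℝ) × ℝ)) (J0 J : Set κ) (θ : E3 → E3) (φ : E3 → ℝ),
    LatRepl k Zc H ∧ (∀ z ∈ Zc, Cu (0 : E3) k z ⊆ ball x₀ (R / 4)) ∧
    ∀ w : E3, (∀ i, 0 ≤ w i ∧ w i ≤ (2 : ℝ)⁻¹ ^ k) → ∀ (ι : Type) (T : Tiling Om ι) (e : κ → ι),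
      InZone T x₀ R k w Zc H e → ∀ V : Set ι, range e ⊆ V →
      (∀ i ∈ V, P (T.H i) ⊆ closedBall x₀ R) →
      (∀ i, (P (T.H i) ∩ closedBall x₀ (R / 2)).Nonempty → i ∈ V) →
      RegV T f V → (∃ i, x₀ ∈ I (T.H i)) →
      Tiny Φ T f κ1 c (e '' J0) (e '' J) V (fun x => θ (x - w)) (fun x => φ (x - w)) ∧
      ∀ i ∈ V, i ∉ e '' J0 → ∀ x ∈ P (T.H i), ∀ y ∈ P (T.H i), ∀ c' : Φ.F,
        (Φ.Psi (f x) ∈ c'.1.set → ‖Φ.Psi (f y) - Φ.Psi (f x)‖ ≤ κ1 * c'.1.sz) ∧
        |Φ.lev c' (f y) - Φ.lev c' (f x)| ≤ κ1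

end

end Crest.Agent.R096.Tms_582
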