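/-
helper232, row 96, ACLT (582 #10709 (4)), part 1: the closed 1-cells of all tilings whose
inequalities are translates by ONE vector `a` of the inequalities of a countable set `S` are
translates by `a` of segments of ONE countable list.
-/
import Crest.Agent.R096.Tms1_582
import Crest.Agent.R096.Ls4_222
import Crest.Agent.R096.Msh3_715

set_option autoImplicit false
set_option linter.unusedSectionVars false
set_option linter.style.longLine false

open MeasureTheory Set Filter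
open scoped Topology ENNReal

namespace Crest.Agent.R096.Alt_232

open Crest.Agent.R096.Msh_715 Crest.Agent.R96.Sg1_199 Crest.Agent.R096.Tms_582
open Crest.Agent.R096.Ls_222

noncomputable section

variable {E : Type*} [NormedAddCommGroup E] [NormedSpace ℝ E]

/-! ### segments -/

theorem sgm_inj {x v x' v' : E} (hv : v ≠ 0) (h : sgm x v = sgm x' v') :
    (x' = x ∧ v' = v) ∨ (x' = x + v ∧ v' = -v) := by
  have a1 : x' ∈ sgm x v := by rw [h]; exact ⟨0, by simp, by simp⟩
  have a2 : x' + v' ∈ sgm x v := by rw [h]; exact ⟨1, by simp, by simp⟩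
  have a3 : x ∈ sgm x' v' := by rw [← h]; exact ⟨0, by simp, by simp⟩
  have a4 : x + v ∈ sgm x' v' := by rw [← h]; exact ⟨1, by simp, by simp⟩
  obtain ⟨s, hs, es⟩ := a1
  obtain ⟨t, ht, et⟩ := a2
  obtain ⟨r, hr, er⟩ := a3
  obtain ⟨q, hq, eq⟩ := a4
  simp only at es et er eq
  have ev : v' = (t - s) • v := by
    have : x' + v' - x' = (x + t • v) - (x + s • v) := by rw [et, es]
    rw [add_sub_cancel_left] at this
    rw [this, sub_smul]; abel
  have inj : ∀ c d : ℝ, x + c • v = x + d • v → c = d := by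
    intro c d hcd
    have := add_left_cancel hcd
    exact smul_left_injective ℝ hv this
  have e1 : s + r * (t - s) = 0 := by
    apply inj
    rw [zero_smul, add_zero, add_smul, mul_smul, ← ev, ← add_assoc, es, er]
  have e2 : s + q * (t - s) = 1 := by
    apply inj
    rw [one_smul, add_smul, mul_smul, ← ev, ← add_assoc, es, eq]
  have f1 : (1 - r) * s + r * t = 0 := by linarith
  have f2 : (1 - q) * s + q * t = 1 := by linarith
  have g1 : 0 ≤ (1 - r) * s := mul_nonneg (by linarith [hr.2]) hs.1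
  have g2 : 0 ≤ r * t := mul_nonneg hr.1 ht.1
  have g3 : (1 - r) * s = 0 := by linarith
  have g4 : r * t = 0 := by linarith
  rcases mul_eq_zero.1 g4 with h0 | h0
  · left
    have hs0 : s = 0 := by rw [h0] at g3; linarith
    rw [hs0] at f2
    have ht1 : t = 1 := by nlinarith [hq.1, hq.2, ht.1, ht.2]
    constructor
    · rw [← es, hs0, zero_smul, add_zero]
    · rw [ev, hs0, ht1, sub_zero, one_smul]
  · right
    rw [h0] at f2
    have hs1 : s = 1 := by nlinarith [hq.1, hq.2, hs.1, hs.2]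
    constructor
    · rw [← es, hs1, one_smul]
    · rw [ev, h0, hs1, zero_sub, neg_smul, one_smul]

theorem sgm_swap (x v : E) : sgm (x + v) (-v) = sgm x v := by
  ext z
  constructor
  · rintro ⟨τ, hτ, rfl⟩
    refine ⟨1 - τ, ⟨by linarith [hτ.2], by linarith [hτ.1]⟩, ?_⟩
    simp only [sub_smul, one_smul, smul_neg]; abel
  · rintro ⟨τ, hτ, rfl⟩
    refine ⟨1 - τ, ⟨by linarith [hτ.2], by linarith [hτ.1]⟩, ?_⟩
    simp only [sub_smul, one_smul, smul_neg]; abel

theorem mem_sgm_sub {x v a z : E} : z - a ∈ sgm x v ↔ z ∈ sgm (x + a) v := by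
  constructor
  · rintro ⟨τ, hτ, e⟩
    refine ⟨τ, hτ, ?_⟩
    simp only at e ⊢
    have : z = x + τ • v + a := by rw [e]; abel
    rw [this]; abel
  · rintro ⟨τ, hτ, rfl⟩
    refine ⟨τ, hτ, ?_⟩
    simp only
    abel

/-! ### systems -/

/-- all inequalities of the tiles of `T` are translates by `a` of inequalities in `S` -/
def Sys {Om : Set E} {ι : Type*} (S : Set ((E →L[ℝ] ℝ) × ℝ)) (a : E) (T : Tiling Om ι) : Prop :=
  ∀ i, ∀ h ∈ T.H i, ∃ s ∈ S, h = trh a s

theorem trh_injective (a : E) : Function.Injective (trh a) := by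
  intro h h' e
  have e' : (h.1, h.2 + h.1 a) = (h'.1, h'.2 + h'.1 a) := e
  have e1 : h.1 = h'.1 := (Prod.mk.injEq _ _ _ _ ▸ e').1
  have e2 : h.2 + h.1 a = h'.2 + h'.1 a := (Prod.mk.injEq _ _ _ _ ▸ e').2
  rw [e1] at e2
  exact Prod.ext e1 (by linarith)

/-- the face with active set `A` of the system `G` -/
def FF (S : Set ((E →L[ℝ] ℝ) × ℝ)) (G A : Finset S) : Set E :=
  {z | (∀ h ∈ G, h.1.1 z ≤ h.1.2) ∧ ∀ h ∈ A, h.1.1 z = h.1.2}

open Classical in
/-- **every closed cell is a translate by `a` of one of countably many sets** -/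
theorem cc_eq_FF {S : Set ((E →L[ℝ] ℝ) × ℝ)} {a : E} {Om : Set E} {ι : Type*} {T : Tiling Om ι}
    (hT : Sys S a T) {y : E} (hy : y ∈ Om) :
    ∃ G A : Finset S, ∀ z, z ∈ T.cc y ↔ z - a ∈ FF S G A := by
  have hinj : Function.Injective fun s : S => trh a s.1 := fun s s' e =>
    Subtype.ext (trh_injective a e)
  refine ⟨(T.Hx hy).preimage (fun s : S => trh a s.1) hinj.injOn,
    ((T.Hx hy).filter fun h => h.1 y = h.2).preimage (fun s : S => trh a s.1) hinj.injOn, ?_⟩
  intro z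
  rw [← T.fc_Hx hy]
  constructor
  · intro hz
    constructor
    · intro s hs
      exact trh_le.1 (hz _ (Finset.mem_preimage.1 hs)).1
    · intro s hs
      have h1 := Finset.mem_filter.1 (Finset.mem_preimage.1 hs)
      exact trh_eq.1 ((hz _ h1.1).2 h1.2)
  · rintro ⟨hz1, hz2⟩ h hh
    obtain ⟨i, -, hi⟩ := (T.mem_Hx hy).1 hh
    obtain ⟨s, hs, rfl⟩ := hT i h hi
    refine ⟨trh_le.2 (hz1 ⟨s, hs⟩ (Finset.mem_preimage.2 hh)), fun e => trh_eq.2 ?_⟩
    exact hz2 ⟨s, hs⟩ (Finset.mem_preimage.2 (Finset.mem_filter.2 ⟨hh, e⟩))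

/-- **ONE COUNTABLE LIST for all 1-cells** (both orientations) of all tilings with systems in
`S + a`, for all `a` at once. -/
theorem exists_list {S : Set ((E →L[ℝ] ℝ) × ℝ)} (hS : S.Countable) : ∃ xj vj : ℕ → E,
    ∀ (a : E) (Om : Set E) (ι : Type) (T : Tiling Om ι), Sys S a T → ∀ y ∈ Om, ∀ x v : E, v ≠ 0 →
      T.cc y = sgm x v → ∃ j, x = xj j + a ∧ v = vj j := by
  classical
  have : Countable S := hS.to_subtype
  -- the list, indexed by `Finset S × Finset S × Bool`
  let p : Finset S × Finset S → E × E := fun GA =>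
    if h : ∃ p : E × E, p.2 ≠ 0 ∧ FF S GA.1 GA.2 = sgm p.1 p.2 then h.choose else (0, 0)
  have hp : ∀ G A : Finset S, ∀ x v : E, v ≠ 0 → FF S G A = sgm x v →
      (p (G, A)).2 ≠ 0 ∧ FF S G A = sgm (p (G, A)).1 (p (G, A)).2 := by
    intro G A x v hv e
    have h : ∃ p : E × E, p.2 ≠ 0 ∧ FF S (G, A).1 (G, A).2 = sgm p.1 p.2 := ⟨(x, v), hv, e⟩
    have e1 : p (G, A) = h.choose := dif_pos h
    rw [e1]
    exact h.choose_spec
  let q : (Finset S × Finset S) × Bool → E × E := fun c =>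
    if c.2 then p c.1 else ((p c.1).1 + (p c.1).2, -(p c.1).2)
  obtain ⟨f, hf⟩ := exists_surjective_nat ((Finset S × Finset S) × Bool)
  refine ⟨fun j => (q (f j)).1, fun j => (q (f j)).2, ?_⟩
  intro a Om ι T hT y hy x v hv hcc
  obtain ⟨G, A, hGA⟩ := cc_eq_FF hT hy
  have h1 : FF S G A = sgm (x - a) v := by
    ext z
    have h2 := hGA (z + a)
    rw [add_sub_cancel_right] at h2
    rw [← h2, hcc]
    have h3 : z + a - a ∈ sgm (x - a) v ↔ z + a ∈ sgm (x - a + a) v := mem_sgm_sub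
    rw [add_sub_cancel_right, sub_add_cancel] at h3
    exact h3.symm
  obtain ⟨h2, h3⟩ := hp G A _ _ hv h1
  rw [h1] at h3
  rcases sgm_inj hv h3 with ⟨e1, e2⟩ | ⟨e1, e2⟩
  · obtain ⟨j, hj⟩ := hf ((G, A), true)
    refine ⟨j, ?_, ?_⟩
    · show x = (q (f j)).1 + a
      rw [hj]
      show x = (p (G, A)).1 + a
      rw [e1, sub_add_cancel]
    · show v = (q (f j)).2
      rw [hj]
      exact e2.symm
  · obtain ⟨j, hj⟩ := hf ((G, A), false)
    refine ⟨j, ?_, ?_⟩
    · show x = (q (f j)).1 + a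
      rw [hj]
      show x = (p (G, A)).1 + (p (G, A)).2 + a
      rw [e1, e2]
      abel
    · show v = (q (f j)).2
      rw [hj]
      show v = -(p (G, A)).2
      rw [e2, neg_neg]

/-- the same for the edges `Edg T` with the parametrisation of 222 -/
theorem exists_list_edg [FiniteDimensional ℝ E] {S : Set ((E →L[ℝ] ℝ) × ℝ)} (hS : S.Countable) :
    ∃ xj vj : ℕ → E,
    ∀ (a : E) (Om : Set E) (ι : Type) (T : Tiling Om ι), Sys S a T →
      (∀ e : Edg T, ∃ j, ea e = xj j + a ∧ ev e = vj j) ∧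
      (∀ y ∈ Om, ∀ x v : E, v ≠ 0 → T.cc y = sgm x v → ∃ j, x = xj j + a ∧ v = vj j) := by
  obtain ⟨xj, vj, h⟩ := exists_list hS
  refine ⟨xj, vj, fun a Om ι T hT => ⟨?_, h a Om ι T hT⟩⟩
  intro e
  have h1 := ev_ne e
  have h2 := sgm_edg e
  obtain ⟨e', x, hx, hd, he⟩ := id e
  have : ∃ x ∈ Om, T.dim x = 1 ∧ e.1 = T.cc x := e.2
  obtain ⟨x, hx, hd, he⟩ := this
  exact h a Om ι T hT x hx _ _ h1 (by rw [← he, h2])

/-! ### systems of the usual meshes -/

theorem trh_trh (a b : E) (h : (E →L[ℝ] ℝ) × ℝ) : trh a (trh b h) = trh (a + b) h := by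
  unfold trh
  simp only [map_add, Prod.mk.injEq, true_and]
  ring

theorem trH_trH (a b : E) (H : Finset ((E →L[ℝ] ℝ) × ℝ)) : trH a (trH b H) = trH (a + b) H := by
  classical
  unfold trH
  rw [Finset.image_image]
  congr 1
  funext h
  exact trh_trh a b h

theorem trH_zero (H : Finset ((E →L[ℝ] ℝ) × ℝ)) : trH 0 H = H := by
  classical
  unfold trH
  have : trh (0 : E) = id := by
    funext h
    unfold trh
    simp
  rw [this, Finset.image_id]

theorem mem_trH {a : E} {H : Finset ((E →L[ℝ] ℝ) × ℝ)} {h : (E →L[ℝ] ℝ) × ℝ} :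
    h ∈ trH a H ↔ ∃ s ∈ H, h = trh a s := by
  classical
  unfold trH
  simp only [Finset.mem_image, eq_comm]

/-- inequalities of a countable family of systems -/
def SU {𝒦 : Type*} (HH : 𝒦 → Finset ((E →L[ℝ] ℝ) × ℝ)) : Set ((E →L[ℝ] ℝ) × ℝ) :=
  ⋃ k, (HH k : Set ((E →L[ℝ] ℝ) × ℝ))

theorem countable_SU {𝒦 : Type*} [Countable 𝒦] (HH : 𝒦 → Finset ((E →L[ℝ] ℝ) × ℝ)) :
    (SU HH).Countable := countable_iUnion fun k => (HH k).countable_toSet

/-- systems which are translates of the systems of a countable family -/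
theorem sys_of {𝒦 : Type*} {HH : 𝒦 → Finset ((E →L[ℝ] ℝ) × ℝ)} {a : E} {Om : Set E} {ι : Type*}
    {T : Tiling Om ι} (h : ∀ i, ∃ k, T.H i = trH a (HH k)) : Sys (SU HH) a T := by
  intro i g hg
  obtain ⟨k, hk⟩ := h i
  rw [hk] at hg
  obtain ⟨s, hs, e⟩ := mem_trH.1 hg
  exact ⟨s, mem_iUnion.2 ⟨k, hs⟩, e⟩

theorem Sys.mono {S S' : Set ((E →L[ℝ] ℝ) × ℝ)} (h : S ⊆ S') {a : E} {Om : Set E} {ι : Type*}
    {T : Tiling Om ι} (hT : Sys S a T) : Sys S' a T := fun i g hg => by
  obtain ⟨s, hs, e⟩ := hT i g hg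
  exact ⟨s, h hs, e⟩

end

end Crest.Agent.R096.Alt_232
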