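/-
helper232, row 96, ACLT (582 #10709 (4)), part 2: almost every translation vector `a` is good for ALL
tilings with systems in `S + a`: absolute continuity on all 1-cells, a.e. properties of all vertices,
countably many prescribed points are in open tiles, finite level sets on the 1-cells (`RegV`).
-/
import Crest.Agent.R096.Alt1_232
import Crest.Agent.R96.Sg5_199

set_option autoImplicit false
set_option linter.unusedSectionVars false
set_option linter.style.longLine false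

open MeasureTheory Set Filter
open scoped Topology ENNReal

namespace Crest.Agent.R096.Alt_232

open Crest.Agent.R096.Msh_715 Crest.Agent.R96.Sg1_199 Crest.Agent.R096.Tms_582
open Crest.Agent.R096.Ls_222 Crest.Agent.R096.Bas_731 Crest.Agent.R96.En2_199
open Crest.Agent.R96.Acl_392 Crest.Agent.R96.Sob2_199 Crest.Agent.R96.Sob3_199
open Crest.Agent.R96.Sg5_199
open Crest.Agent.R096.Mbf_337 (KJ)
open Crest.Agent.R096.SkC1_961 (E3)

noncomputable section

section General

variable {E : Type*} [NormedAddCommGroup E] [NormedSpace ℝ E] [FiniteDimensional ℝ E]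
  [MeasurableSpace E] [BorelSpace E] {μ : Measure E} [μ.IsAddHaarMeasure]

/-- **every a.e. property of segments with given direction holds on all 1-cells, for almost every
translation vector** -/
theorem ae_edges {Q : E → E → Prop} (hQ : ∀ v, ∀ᵐ x ∂μ, Q x v) {S : Set ((E →L[ℝ] ℝ) × ℝ)}
    (hS : S.Countable) : ∀ᵐ a ∂μ, ∀ (Om : Set E) (ι : Type) (T : Tiling Om ι), Sys S a T →
      (∀ e : Edg T, Q (ea e) (ev e)) ∧
      (∀ y ∈ Om, ∀ x v : E, v ≠ 0 → T.cc y = sgm x v → Q x v) := by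
  obtain ⟨xj, vj, h⟩ := exists_list_edg hS
  have h1 : ∀ᵐ a ∂μ, ∀ j, Q (xj j + a) (vj j) := by
    rw [ae_all_iff]
    intro j
    exact (measurePreserving_add_left μ (xj j)).quasiMeasurePreserving.ae (hQ (vj j))
  filter_upwards [h1] with a ha Om ι T hT
  obtain ⟨h2, h3⟩ := h a Om ι T hT
  refine ⟨fun e => ?_, fun y hy x v hv hcc => ?_⟩
  · obtain ⟨j, e1, e2⟩ := h2 e
    rw [e1, e2]
    exact ha j
  · obtain ⟨j, e1, e2⟩ := h3 y hy x v hv hcc
    rw [e1, e2]
    exact ha j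

/-- **ACLT**: for almost every `a` all functions are absolutely continuous on all closed 1-cells of
all tilings with systems in `S + a` -/
theorem ae_aclat {Ω : Set E} (hΩ : IsOpen Ω) {𝒞 : Type*} [Countable 𝒞] {u : 𝒞 → E → ℝ}
    (hu : ∀ c, ContinuousOn (u c) Ω) {g : 𝒞 → E → E → ℝ} (hg : ∀ c v, WD Ω μ (u c) (g c v) v)
    {S : Set ((E →L[ℝ] ℝ) × ℝ)} (hS : S.Countable) :
    ∀ᵐ a ∂μ, ∀ (Om : Set E) (ι : Type) (T : Tiling Om ι), Sys S a T →
      (∀ (e : Edg T) (c : 𝒞), ACLat Ω (u c) (g c (ev e)) (ev e) (ea e)) ∧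
      (∀ y ∈ Om, ∀ x v : E, v ≠ 0 → T.cc y = sgm x v → ∀ c, ACLat Ω (u c) (g c v) v x) :=
  ae_edges (Q := fun x v => ∀ c, ACLat Ω (u c) (g c v) v x)
    (fun v => ae_all_iff.2 fun c => acl hΩ (hg c v) (hu c)) hS

/-- one countable list of points for all vertices -/
theorem exists_pts {S : Set ((E →L[ℝ] ℝ) × ℝ)} (hS : S.Countable) : ∃ pj : ℕ → E,
    ∀ (a : E) (Om : Set E) (ι : Type) (T : Tiling Om ι), Sys S a T → ∀ y ∈ Om, T.dim y = 0 →
      ∃ j, y = pj j + a := by
  classical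
  have : Countable S := hS.to_subtype
  let p : Finset S × Finset S → E := fun GA =>
    if h : ∃ p : E, FF S GA.1 GA.2 = {p} then h.choose else 0
  have hp : ∀ G A : Finset S, ∀ x : E, FF S G A = {x} → p (G, A) = x := by
    intro G A x e
    have h : ∃ p : E, FF S (G, A).1 (G, A).2 = {p} := ⟨x, e⟩
    have e1 : p (G, A) = h.choose := dif_pos h
    have e2 : FF S G A = {h.choose} := h.choose_spec
    rw [e1]
    exact (singleton_injective (e.symm.trans e2)).symm
  obtain ⟨f, hf⟩ := exists_surjective_nat (Finset S × Finset S)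
  refine ⟨fun j => p (f j), ?_⟩
  intro a Om ι T hT y hy hd
  obtain ⟨G, A, hGA⟩ := cc_eq_FF hT hy
  have h0 := T.cc_eq_singleton (T.dim_eq_zero_iff.1 hd)
  have h1 : FF S G A = {y - a} := by
    ext z
    have h2 := hGA (z + a)
    rw [add_sub_cancel_right] at h2
    rw [← h2, h0, mem_singleton_iff, mem_singleton_iff, eq_sub_iff_add_eq]
  obtain ⟨j, hj⟩ := hf (G, A)
  refine ⟨j, ?_⟩
  show y = p (f j) + a
  rw [hj, hp G A _ h1, sub_add_cancel]

/-- a.e. properties of all vertices -/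
theorem ae_vertices {Q : E → Prop} (hQ : ∀ᵐ x ∂μ, Q x) {S : Set ((E →L[ℝ] ℝ) × ℝ)}
    (hS : S.Countable) : ∀ᵐ a ∂μ, ∀ (Om : Set E) (ι : Type) (T : Tiling Om ι), Sys S a T →
      ∀ y ∈ Om, T.dim y = 0 → Q y := by
  obtain ⟨pj, h⟩ := exists_pts hS
  have h1 : ∀ᵐ a ∂μ, ∀ j, Q (pj j + a) := by
    rw [ae_all_iff]
    intro j
    exact (measurePreserving_add_left μ (pj j)).quasiMeasurePreserving.ae hQ
  filter_upwards [h1] with a ha Om ι T hT y hy hd
  obtain ⟨j, e⟩ := h a Om ι T hT y hy hd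
  rw [e]
  exact ha j

/-- a level of a nonzero functional is null -/
theorem ae_ne {h : E →L[ℝ] ℝ} (h0 : h ≠ 0) (c : ℝ) : ∀ᵐ a ∂μ, h a ≠ c := by
  have hk : LinearMap.ker (h : E →ₗ[ℝ] ℝ) ≠ ⊤ := by
    intro e
    apply h0
    ext x
    have : x ∈ LinearMap.ker (h : E →ₗ[ℝ] ℝ) := by rw [e]; trivial
    exact this
  have h1 := Measure.addHaar_submodule μ _ hk
  by_cases hne : ∃ a₀, h a₀ = c
  · obtain ⟨a₀, ha₀⟩ := hne
    have h2 : {a | ¬ h a ≠ c} = (fun a => a + (-a₀)) ⁻¹' (LinearMap.ker (h : E →ₗ[ℝ] ℝ) : Set E) := by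
      ext a
      simp only [ne_eq, not_not, mem_ofPred_eq, mem_preimage, SetLike.mem_coe, LinearMap.mem_ker]
      show h a = c ↔ h (a + -a₀) = 0
      rw [map_add, map_neg, ha₀, ← sub_eq_add_neg, sub_eq_zero]
    rw [ae_iff, h2, measure_preimage_add_right]
    exact h1
  · push Not at hne
    exact ae_of_all _ hne

/-- **countably many prescribed points are in open tiles** for almost every `a` -/
theorem ae_mem_I {X : Set E} (hX : X.Countable) {S : Set ((E →L[ℝ] ℝ) × ℝ)}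
    (hS : S.Countable) : ∀ᵐ a ∂μ, ∀ (Om : Set E) (ι : Type) (T : Tiling Om ι), Sys S a T →
      ∀ x ∈ X, ∀ i, x ∈ P (T.H i) → x ∈ I (T.H i) := by
  have h1 : ∀ᵐ a ∂μ, ∀ x ∈ X, ∀ s ∈ S, s.1 ≠ 0 → s.1 a ≠ s.1 x - s.2 := by
    rw [ae_ball_iff hX]
    intro x _
    rw [ae_ball_iff hS]
    intro s _
    by_cases h0 : s.1 = 0
    · exact ae_of_all _ fun a h => absurd h0 h
    · filter_upwards [ae_ne h0 (s.1 x - s.2)] with a ha _ using ha
  filter_upwards [h1] with a ha Om ι T hT x hx i hi h hh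
  obtain ⟨s, hs, rfl⟩ := hT i h hh
  by_cases h0 : s.1 = 0
  · obtain ⟨z, hz⟩ := T.ne i
    have h2 := trh_lt.1 (hz _ hh)
    rw [trh_lt]
    rw [h0] at h2 ⊢
    simpa using h2
  · refine lt_of_le_of_ne (hi _ hh) fun e => ha x hx s hs h0 ?_
    have h2 := trh_eq.1 e
    rw [map_sub] at h2
    linarith

theorem ae_exists_mem_I {X : Set E} (hX : X.Countable) {S : Set ((E →L[ℝ] ℝ) × ℝ)}
    (hS : S.Countable) : ∀ᵐ a ∂μ, ∀ (Om : Set E) (ι : Type) (T : Tiling Om ι), Sys S a T →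
      ∀ x ∈ X, x ∈ Om → ∃ i, x ∈ I (T.H i) := by
  filter_upwards [ae_mem_I (μ := μ) hX hS] with a ha Om ι T hT x hx hxO
  obtain ⟨i, hi⟩ := T.cov x hxO
  exact ⟨i, ha Om ι T hT x hx i hi⟩

omit [MeasurableSpace E] [BorelSpace E] in
/-- a point of an open tile has full dimension -/
theorem dim_of_mem_I {Om : Set E} {ι : Type*} (T : Tiling Om ι) {x : E} {i : ι}
    (hx : x ∈ I (T.H i)) : T.dim x = Module.finrank ℝ E := by
  have h1 : T.V x = ⊤ := by
    rw [eq_top_iff]
    intro v _ j hj h hh e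
    by_cases hji : j = i
    · subst hji
      exact absurd e (hx h hh).ne
    · exact absurd hx ((Set.disjoint_left.1 (disjoint_P_I (T.ne j) (T.dis j i hji))) hj)
  unfold Tiling.dim
  rw [h1, finrank_top]

/-! ### finite level sets on a segment -/

omit [MeasurableSpace E] [BorelSpace E] [FiniteDimensional ℝ E] in
theorem cr_facts' {u : E → ℝ} {g : E → ℝ≥0∞} {x v : E} (hv : v ≠ 0)
    (hu : ContinuousOn u (sgm x v)) (hug : UGs u g x v) (hli : li g x v ≠ ∞) :
    ∀ᵐ t : ℝ, {y ∈ sgm x v | u y = t}.Finite := by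
  have h0 : cr u x v = cnt (fun τ => u (x + τ • v)) (Icc (0:ℝ) 1) :=
    funext fun y => cr_eq hv y
  have hcont : ContinuousOn (fun τ : ℝ => u (x + τ • v)) (Icc (0:ℝ) 1) := by
    refine hu.comp (Continuous.continuousOn (by fun_prop)) ?_
    intro s hs
    exact ⟨s, hs, rfl⟩
  have hm : AEMeasurable (cr u x v) volume := by
    rw [h0]
    exact aemeasurable_cnt_Icc hcont
  have hI : ∫⁻ y, cr u x v y ≤ li g x v := by
    rw [h0]
    have hdom : Dom (fun τ : ℝ => u (x + τ • v))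
        ((volume.restrict (Icc (0:ℝ) 1)).withDensity
          fun τ => g (x + τ • v)) 0 1 := by
      intro s t hs hst ht
      have hsub : Ioc s t ⊆ Icc (0:ℝ) 1 := fun τ hτ =>
        ⟨hs.trans hτ.1.le, hτ.2.trans ht⟩
      rw [withDensity_apply _ measurableSet_Ioc, Measure.restrict_restrict measurableSet_Ioc,
        inter_eq_self_of_subset_left hsub]
      exact hug s t hs hst ht
    refine (lintegral_cnt_Icc_le hcont hdom).trans ?_
    rw [withDensity_apply _ measurableSet_Ioc, Measure.restrict_restrict measurableSet_Ioc,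
      inter_eq_self_of_subset_left Ioc_subset_Icc_self]
    exact lintegral_mono_set Ioc_subset_Icc_self
  have h1 := ae_lt_top' hm (ne_top_of_le_ne_top hli hI)
  filter_upwards [h1] with t ht
  have h2 : (sgm x v ∩ u ⁻¹' {t}).encard ≠ ⊤ := by
    intro e
    unfold cr at ht
    rw [e] at ht
    simp at ht
  have h3 := Set.encard_ne_top_iff.1 h2
  exact h3.subset fun y hy => ⟨hy.1, hy.2⟩

end General

/-! ### `RegV` -/

/-- Lipschitz functions of a map with absolutely continuous components on a segment have finite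
level sets for almost every level -/
theorem finite_levels {Ω : Set E3} {f : E3 → E3} (hf : ContinuousOn f Ω) {g : Fin 3 → E3 → ℝ}
    {x v : E3} (hv : v ≠ 0) (hsub : sgm x v ⊆ Ω)
    (h : ∀ k, ACLat Ω (fun y => f y k) (g k) v x) {ℓ : E3 → ℝ} {K : NNReal}
    (hℓ : LipschitzWith K ℓ) : ∀ᵐ t : ℝ, {y ∈ sgm x v | ℓ (f y) = t}.Finite := by
  have hug : UGs (fun y => ℓ (f y)) (fun y => K * ∑ k, ‖g k y‖ₑ) x v := by
    intro s t hs hst ht
    have h1 : ENNReal.ofReal |ℓ (f (x + t • v)) - ℓ (f (x + s • v))| ≤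
        K * ‖f (x + t • v) - f (x + s • v)‖ₑ := by
      rw [← Real.norm_eq_abs, ofReal_norm]
      have := hℓ (f (x + t • v)) (f (x + s • v))
      rwa [edist_eq_enorm_sub, edist_eq_enorm_sub] at this
    refine h1.trans ?_
    rw [lintegral_const_mul' _ _ ENNReal.coe_ne_top]
    gcongr
    have h2 : ‖f (x + t • v) - f (x + s • v)‖ₑ ≤
        ∑ k, ‖(f (x + t • v) - f (x + s • v)) k‖ₑ := by
      have h3 : ∀ w : E3, ‖w‖ₑ ≤ ∑ k, ‖w k‖ₑ := by
        intro w
        have : ‖w‖ ≤ ∑ k, ‖w k‖ := by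
          refine (pi_norm_le_iff_of_nonneg (Finset.sum_nonneg fun k _ => norm_nonneg _)).2
            fun k => ?_
          exact Finset.single_le_sum (f := fun k => ‖w k‖) (fun k _ => norm_nonneg _)
            (Finset.mem_univ k)
        calc ‖w‖ₑ = ENNReal.ofReal ‖w‖ := (ofReal_norm w).symm
          _ ≤ ENNReal.ofReal (∑ k, ‖w k‖) := ENNReal.ofReal_le_ofReal this
          _ = ∑ k, ENNReal.ofReal ‖w k‖ := ENNReal.ofReal_sum_of_nonneg fun k _ => norm_nonneg _
          _ = ∑ k, ‖w k‖ₑ := by simp only [ofReal_norm]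
      exact h3 _
    refine h2.trans ?_
    have h4 : ∀ k, ‖(f (x + t • v) - f (x + s • v)) k‖ₑ ≤
        ∫⁻ τ in Ioc s t, ‖g k (x + τ • v)‖ₑ := by
      intro k
      have h5 := ugs_of_acl hsub (h k) s t hs hst ht
      rwa [← Real.norm_eq_abs, ofReal_norm] at h5
    refine (Finset.sum_le_sum fun k _ => h4 k).trans ?_
    have hm : ∀ k, AEMeasurable (fun τ : ℝ => ‖g k (x + τ • v)‖ₑ) (volume.restrict (Ioc s t)) := by
      intro k
      have hseg : x ∈ segIn Ω v s t := by
        intro τ hτ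
        exact hsub ⟨τ, ⟨hs.trans hτ.1, hτ.2.trans ht⟩, rfl⟩
      obtain ⟨h6, -⟩ := h k s t hst hseg
      exact ((h6.mono_set Ioc_subset_Icc_self).aestronglyMeasurable.enorm)
    rw [lintegral_finsetSum' _ fun k _ => hm k]
  have hseg : x ∈ segIn Ω v 0 1 := by
    intro τ hτ
    exact hsub ⟨τ, hτ, rfl⟩
  have hli : li (fun y => K * ∑ k, ‖g k y‖ₑ) x v ≠ ∞ := by
    unfold li
    rw [lintegral_const_mul' _ _ ENNReal.coe_ne_top, lintegral_finsetSum']
    · refine ENNReal.mul_ne_top ENNReal.coe_ne_top (ENNReal.sum_ne_top.2 fun k _ => ?_)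
      exact (h k 0 1 zero_le_one hseg).1.hasFiniteIntegral.ne
    · intro k _
      exact (h k 0 1 zero_le_one hseg).1.aestronglyMeasurable.enorm
  exact cr_facts' hv (hℓ.continuous.comp_continuousOn (hf.mono hsub)) hug hli

/-- `RegV` from absolute continuity on the 1-cells in `V` -/
theorem regV_of_acl {Om Ω : Set E3} {ι : Type} {T : Tiling Om ι} {f : E3 → E3}
    (hf : ContinuousOn f Ω) {g : Fin 3 → E3 → E3 → ℝ} {V : Set ι} (hV : KJ T V ⊆ Ω)
    (h : ∀ y ∈ Om, ∀ x v : E3, v ≠ 0 → T.cc y = sgm x v → ∀ k,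
      ACLat Ω (fun y => f y k) (g k v) v x) : RegV T f V := by
  intro y hy hd ℓ ⟨K, hℓ⟩
  obtain ⟨i, hi, hyi⟩ := mem_iUnion₂.1 hy
  have hyO : y ∈ Om := T.sub i hyi
  obtain ⟨p, q, hpq, hcc, -, -⟩ := T.edge_eq hyO hd
  have hv : q - p ≠ 0 := sub_ne_zero.2 (Ne.symm hpq)
  have hs : T.cc y = sgm p (q - p) := by
    rw [sgm_eq_segment, add_sub_cancel]; exact hcc
  have hsub : sgm p (q - p) ⊆ Ω := by
    rw [← hs]
    exact (T.cc_sub_tile hyi).trans ((subset_biUnion_of_mem (u := fun i => P (T.H i)) hi).trans hV)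
  have h1 := finite_levels hf hv hsub (h y hyO p (q - p) hv hs) hℓ
  rw [hs]
  exact h1

/-- **`RegV` for almost every translation**: components of `f` with weak derivatives in the three
coordinate directions (199's form) -/
theorem ae_regV {Ω : Set E3} (hΩ : IsOpen Ω) {f : E3 → E3} (hf : ContinuousOn f Ω)
    {g : Fin 3 → Fin 3 → E3 → ℝ}
    (hg : ∀ k l, WD Ω volume (fun y => f y k) (g k l) (Pi.single l (1:ℝ)))
    {S : Set ((E3 →L[ℝ] ℝ) × ℝ)} (hS : S.Countable) :
    ∀ᵐ a : E3, ∀ (Om : Set E3) (ι : Type) (T : Tiling Om ι), Sys S a T →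
      ∀ V : Set ι, KJ T V ⊆ Ω → RegV T f V := by
  have h1 := ae_aclat (μ := (volume : Measure E3)) hΩ (u := fun (k : Fin 3) y => f y k)
    (fun k => (continuous_apply k).comp_continuousOn hf) (g := fun k v => gdir (g k) v)
    (fun k v => wd_dir (hg k) v) hS
  filter_upwards [h1] with a ha Om ι T hT V hV
  exact regV_of_acl hf (g := fun k v => gdir (g k) v) hV (ha Om ι T hT).2

end

end Crest.Agent.R096.Alt_232
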