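import Crest.Agent.R096.Ce2_537

/-!
# R096 (row 96), ARR part 1 (helper241): the frontier trick and finite complexes

`dichotomy`: a closed set `Z` with `frontier Z ⊆ S` contains or misses every preconnected set
disjoint from `S`.
`eq_filling`: if `S` is the image of the sphere under a homeomorphism `H` of the whole space and
`Z` is compact, has interior points and `frontier Z ⊆ S`, then `Z` is the closed ball bounded by
`S` (`isBall_of_frontier` in PL form): no connectedness of `Z` has to be known.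
`eq_side`: the same on a sphere (two sides).
`Cplx.exists_equiv`: two finite complexes with the same poset are PL equivalent.
-/

set_option autoImplicit false

open Set Metric Topology

namespace Crest.Agent.R096.Ar_241

open Crest.Agent.R096.Ce_537

section Top

variable {X : Type*} [TopologicalSpace X]

/-- a set `Z` with `frontier Z ⊆ S` contains or misses a preconnected set disjoint from `S`. -/
theorem dichotomy {S Z A : Set X} (hA : IsPreconnected A) (hd : Disjoint A S)
    (hf : frontier Z ⊆ S) : A ⊆ interior Z ∨ Disjoint A (closure Z) := by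
  have hcov : A ⊆ interior Z ∪ (closure Z)ᶜ := by
    intro x hx
    by_contra hcon
    rw [mem_union, not_or, notMem_compl_iff] at hcon
    exact (disjoint_left.1 hd hx) (hf ⟨hcon.2, hcon.1⟩)
  by_cases h1 : (A ∩ interior Z).Nonempty
  · left
    by_cases h2 : (A ∩ (closure Z)ᶜ).Nonempty
    · obtain ⟨x, -, hx1, hx2⟩ := hA _ _ isOpen_interior isClosed_closure.isOpen_compl hcov h1 h2
      exact absurd (subset_closure (interior_subset hx1)) hx2
    · intro x hx
      rcases hcov hx with h | h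
      · exact h
      · exact absurd ⟨x, hx, h⟩ h2
  · right
    rw [disjoint_left]
    intro x hx hxc
    rcases hcov hx with h | h
    · exact h1 ⟨x, hx, h⟩
    · exact h hxc

/-- **Frontier trick, one unbounded side.** `Sᶜ = A ∪ B`, `A`, `B` preconnected, `B` is not
contained in `Z`. A closed set `Z` with `frontier Z ⊆ S` which is not contained in `S` satisfies
`A ⊆ Z ⊆ A ∪ S`. -/
theorem eq_side {S Z A B : Set X} (hA : IsPreconnected A) (hB : IsPreconnected B)
    (hS : Sᶜ = A ∪ B) (hZ : IsClosed Z) (hf : frontier Z ⊆ S) (hB' : ¬ B ⊆ Z)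
    (hne : ¬ Z ⊆ S) : A ⊆ interior Z ∧ Z ⊆ A ∪ S ∧ Disjoint B Z := by
  have dA : Disjoint A S := by
    rw [disjoint_left]
    intro x hx hxS
    have : x ∈ Sᶜ := hS.ge (Or.inl hx)
    exact this hxS
  have dB : Disjoint B S := by
    rw [disjoint_left]
    intro x hx hxS
    have : x ∈ Sᶜ := hS.ge (Or.inr hx)
    exact this hxS
  have hBd : Disjoint B Z := by
    rcases dichotomy hB dB hf with h | h
    · exact absurd (h.trans interior_subset) hB'
    · rwa [hZ.closure_eq] at h
  have hsub : Z ⊆ A ∪ S := by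
    intro x hx
    by_cases hxS : x ∈ S
    · exact Or.inr hxS
    · have : x ∈ A ∪ B := hS.le hxS
      rcases this with h | h
      · exact Or.inl h
      · exact absurd hx (disjoint_left.1 hBd h)
  refine ⟨?_, hsub, hBd⟩
  rcases dichotomy hA dA hf with h | h
  · exact h
  · exfalso
    apply hne
    intro x hx
    rcases hsub hx with h' | h'
    · exact absurd (subset_closure hx) (disjoint_left.1 h h')
    · exact h'

end Top

section Fill

variable {E : Type*} [NormedAddCommGroup E] [NormedSpace ℝ E] {k : ℕ}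

lemma sph_compl (k : ℕ) : (sph k)ᶜ = ball (0 : Fin k → ℝ) 1 ∪ (closedBall (0 : Fin k → ℝ) 1)ᶜ := by
  ext x
  simp only [sph, mem_compl_iff, mem_sphere, mem_union, mem_ball, mem_closedBall, not_le]
  constructor
  · intro h
    rcases lt_or_gt_of_ne h with h | h
    · exact Or.inl h
    · exact Or.inr h
  · rintro (h | h)
    · exact h.ne
    · exact h.ne'

lemma isPreconnected_compl_cube (hk : 2 ≤ k) :
    IsPreconnected ((closedBall (0 : Fin k → ℝ) 1)ᶜ) := by
  have hr : 1 < Module.rank ℝ (Fin k → ℝ) := by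
    rw [rank_fin_fun]
    exact_mod_cast hk
  have h1 : IsPreconnected (sphere (0 : Fin k → ℝ) 1 ×ˢ Ioi (1 : ℝ)) :=
    (isPreconnected_sphere hr 0 1).prod isPreconnected_Ioi
  have h2 : (closedBall (0 : Fin k → ℝ) 1)ᶜ =
      (fun p : (Fin k → ℝ) × ℝ => p.2 • p.1) '' (sphere (0 : Fin k → ℝ) 1 ×ˢ Ioi (1 : ℝ)) := by
    ext x
    simp only [mem_compl_iff, mem_closedBall, dist_zero_right, not_le, mem_image, mem_prod,
      mem_sphere, mem_Ioi, Prod.exists]
    constructor
    · intro hx
      have hx0 : ‖x‖ ≠ 0 := by linarith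
      refine ⟨‖x‖⁻¹ • x, ‖x‖, ⟨?_, hx⟩, ?_⟩
      · rw [norm_smul, norm_inv, norm_norm, inv_mul_cancel₀ hx0]
      · rw [smul_smul, mul_inv_cancel₀ hx0, one_smul]
    · rintro ⟨y, t, ⟨hy, ht⟩, rfl⟩
      rw [norm_smul, hy, mul_one, Real.norm_eq_abs, abs_of_pos (by linarith)]
      exact ht
  rw [h2]
  exact h1.image _ (by fun_prop)

omit [NormedSpace ℝ E] in
/-- **Frontier trick for a sphere of the whole space.** -/
theorem eq_filling (hk : 2 ≤ k) (H : (Fin k → ℝ) ≃ₜ E) {Z : Set E} (hZ : IsCompact Z)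
    (hf : frontier Z ⊆ H '' sph k) (hne : ¬ Z ⊆ H '' sph k) :
    Z = H '' cube k := by
  have hcl : IsClosed Z := hZ.isClosed
  have hA : IsPreconnected (H '' ball (0 : Fin k → ℝ) 1) :=
    ((convex_ball _ _).isPreconnected).image _ H.continuous.continuousOn
  have hB : IsPreconnected (H '' (closedBall (0 : Fin k → ℝ) 1)ᶜ) :=
    (isPreconnected_compl_cube hk).image _ H.continuous.continuousOn
  have hS : (H '' sph k)ᶜ = H '' ball (0 : Fin k → ℝ) 1 ∪ H '' (closedBall (0 : Fin k → ℝ) 1)ᶜ := by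
    rw [← image_union, ← sph_compl, image_compl_eq H.bijective]
  have hB' : ¬ H '' (closedBall (0 : Fin k → ℝ) 1)ᶜ ⊆ Z := by
    intro hsub
    have h1 : H '' (univ : Set (Fin k → ℝ)) ⊆ Z ∪ H '' closedBall (0 : Fin k → ℝ) 1 := by
      rintro _ ⟨x, -, rfl⟩
      by_cases hx : x ∈ closedBall (0 : Fin k → ℝ) 1
      · exact Or.inr ⟨x, hx, rfl⟩
      · exact Or.inl (hsub ⟨x, hx, rfl⟩)
    have h2 : IsCompact (Z ∪ H '' closedBall (0 : Fin k → ℝ) 1) :=
      hZ.union ((isCompact_closedBall _ _).image H.continuous)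
    have h3 : IsCompact (univ : Set (Fin k → ℝ)) := by
      have h4 : (univ : Set (Fin k → ℝ)) = H ⁻¹' (Z ∪ H '' closedBall (0 : Fin k → ℝ) 1) := by
        ext x
        simp only [mem_univ, true_iff]
        exact h1 ⟨x, mem_univ _, rfl⟩
      rw [h4]
      exact (H.isCompact_preimage).2 h2
    have : Nonempty (Fin k) := ⟨⟨0, by omega⟩⟩
    have : NoncompactSpace (Fin k → ℝ) := by infer_instance
    exact noncompact_univ _ h3
  obtain ⟨h1, h2, -⟩ := eq_side hA hB hS hcl hf hB' hne
  apply Subset.antisymm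
  · refine h2.trans ?_
    rintro x (⟨y, hy, rfl⟩ | ⟨y, hy, rfl⟩)
    · exact ⟨y, ball_subset_closedBall hy, rfl⟩
    · exact ⟨y, sphere_subset_closedBall hy, rfl⟩
  · have h3 : H '' cube k = closure (H '' ball (0 : Fin k → ℝ) 1) := by
      rw [← H.image_closure, closure_ball (0 : Fin k → ℝ) one_ne_zero]
    rw [h3]
    exact closure_minimal (h1.trans interior_subset) hcl

/-- PL form: `Z` is a PL ball with boundary the sphere. -/
theorem isBall_of_frontier (hk : 2 ≤ k) (H : (Fin k → ℝ) ≃ₜ E) (hH : PLOn H (cube k))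
    (hH' : PLOn H.symm (H '' cube k)) {Z : Set E} (hZ : IsCompact Z)
    (hf : frontier Z ⊆ H '' sph k) (hne : ¬ Z ⊆ H '' sph k) :
    IsBall k Z (H '' sph k) := by
  have e := eq_filling hk H hZ hf hne
  subst e
  exact ⟨⟨H, H.symm, hH, hH', mapsTo_image _ _, by rintro _ ⟨x, hx, rfl⟩; simpa using hx,
    fun x _ => H.symm_apply_apply x, fun y _ => H.apply_symm_apply y⟩, rfl⟩

end Fill

section Finite

variable {E F : Type*} [NormedAddCommGroup E] [NormedSpace ℝ E]
  [NormedAddCommGroup F] [NormedSpace ℝ F]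
  {I : Type*} [PartialOrder I] {dim : I → ℕ} {Ω : Set E} {Λ : Set F}
  {K : I → Set E} {K' : I → Set F}

/-- two finite complexes with the same poset are PL equivalent, cell by cell -/
theorem Cplx.exists_equiv [Finite I] (C : Cplx Ω I dim K) (C' : Cplx Λ I dim K') :
    ∃ e : PLEquiv Ω Λ, ∀ i, e.f '' K i = K' i := by
  classical
  have hb1 := C.isBall
  have hb2 := C'.isBall
  choose a ha using hb1
  choose b hb using hb2
  set H := Hf dim K K' a b ∅ (0 : E → F) with hH
  set H' := Hf dim K' K b a ∅ (0 : F → E) with hH'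
  have hG : ∀ i, Good K K' H H' i :=
    good_all C C' a b ha hb ∅ (by simp) 0 0 (by simp) (by simp) (by simp) (by simp)
      (by simp) (by simp)
  set h := glob K H with hh
  set g := glob K' H' with hg
  have eh : ∀ i, ∀ x ∈ K i, h x = H i x := fun i x hx =>
    glob_eq C H hx (fun j hj hxj => (hG i).cf j hj x hxj)
  have eg : ∀ i, ∀ y ∈ K' i, g y = H' i y := fun i y hy =>
    glob_eq C' H' hy (fun j hj hyj => (hG i).cg j hj y hyj)
  have mh : ∀ i, MapsTo h (K i) (K' i) := fun i x hx => by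
    rw [eh i x hx]; exact (hG i).mf hx
  have mg' : ∀ i, MapsTo g (K' i) (K i) := fun i y hy => by
    rw [eg i y hy]; exact (hG i).mg hy
  have lh : ∀ i, ∀ x ∈ K i, g (h x) = x := fun i x hx => by
    rw [eg i _ (mh i hx), eh i x hx]; exact (hG i).li x hx
  have rh : ∀ i, ∀ y ∈ K' i, h (g y) = y := fun i y hy => by
    rw [eh i _ (mg' i hy), eg i y hy]; exact (hG i).ri y hy
  have ph : ∀ i, PLOn h (K i) := fun i => (hG i).pf.congr (eh i)
  have pg2 : ∀ i, PLOn g (K' i) := fun i => (hG i).pg.congr (eg i)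
  have hΩ : Ω ⊆ ⋃ i ∈ (univ : Set I), K i := fun x hx => by
    obtain ⟨i, hi⟩ := C.cover x hx
    exact mem_biUnion (mem_univ i) hi
  have hΛ : Λ ⊆ ⋃ i ∈ (univ : Set I), K' i := fun x hx => by
    obtain ⟨i, hi⟩ := C'.cover x hx
    exact mem_biUnion (mem_univ i) hi
  refine ⟨⟨h, g,
    (plOn_biUnion univ finite_univ (fun i _ => ph i) (fun i _ => C.isClosed i)).mono hΩ,
    (plOn_biUnion univ finite_univ (fun i _ => pg2 i) (fun i _ => C'.isClosed i)).mono hΛ,
    fun x hx => ?_, fun y hy => ?_, fun x hx => ?_, fun y hy => ?_⟩, fun i => ?_⟩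
  · obtain ⟨i, hi⟩ := C.cover x hx
    exact C'.sub i (mh i hi)
  · obtain ⟨i, hi⟩ := C'.cover y hy
    exact C.sub i (mg' i hi)
  · obtain ⟨i, hi⟩ := C.cover x hx
    exact lh i x hi
  · obtain ⟨i, hi⟩ := C'.cover y hy
    exact rh i y hi
  · ext y
    constructor
    · rintro ⟨x, hx, rfl⟩; exact mh i hx
    · intro hy; exact ⟨g y, mg' i hy, rh i y hy⟩

end Finite

end Crest.Agent.R096.Ar_241
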