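import Crest.Agent.R096.Xp8_537

/-!
# R096 (row 96), ARR part 2 (helper241): the conic decomposition at a barycentre

For a convex cell complex `C : CC Λ Q` of an open set `Λ`: `dirW C q` = span of `cell q - b q`
(every direction of it is absorbed by the cell), and every vector `w` is uniquely
`u + ∑ l r • (b r - b q)`, `u ∈ dirW`, `l ≥ 0` supported on a chain of cells `r > q`
(`exists_rep`, `rep_uniq`).
-/

set_option autoImplicit false
set_option linter.unusedSectionVars false
set_option linter.unusedVariables false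

open Set Metric Topology

namespace Crest.Agent.R096.Ar_241

open Crest.Agent.R096.Xp_537

variable {E : Type*} [NormedAddCommGroup E] [NormedSpace ℝ E]
  {Q : Type*} [PartialOrder Q] {Λ : Set E}

lemma segA {a b c : E} {w : ℝ} : (1 - w) • (a + b) + w • (a + c) = a + ((1 - w) • b + w • c) := by
  module

/-- near the barycentre all cells are above `q` -/
lemma exists_near (C : CC Λ Q) (hΛ : IsOpen Λ) (q : Q) :
    ∃ r > (0:ℝ), ball (C.b q) r ⊆ Λ ∧ ∀ y ∈ ball (C.b q) r, ∀ ρ, y ∈ C.cell ρ → q ≤ ρ := by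
  have hb : C.b q ∈ Λ := C.sub q (C.bmem q)
  obtain ⟨r0, hr0, h0⟩ := Metric.isOpen_iff.1 hΛ _ hb
  obtain ⟨r1, hr1, hf⟩ := C.lf _ hb
  set S : Set Q := {ρ | (C.cell ρ ∩ ball (C.b q) r1).Nonempty} with hS
  have hfin : (S ∩ {ρ | ¬ q ≤ ρ}).Finite := hf.subset inter_subset_left
  have hcl : IsClosed (⋃ ρ ∈ S ∩ {ρ | ¬ q ≤ ρ}, C.cell ρ) :=
    hfin.isClosed_biUnion fun ρ _ => (C.cpt ρ).isClosed
  have hnot : C.b q ∉ ⋃ ρ ∈ S ∩ {ρ | ¬ q ≤ ρ}, C.cell ρ := by
    intro h
    obtain ⟨ρ, hρ, hx⟩ := mem_iUnion₂.1 h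
    exact hρ.2 (C.le_of_b hx)
  obtain ⟨r2, hr2, h2⟩ := Metric.isOpen_iff.1 hcl.isOpen_compl _ hnot
  refine ⟨min r0 (min r1 r2), lt_min hr0 (lt_min hr1 hr2),
    (ball_subset_ball (min_le_left _ _)).trans h0, fun y hy ρ hρ => ?_⟩
  by_contra hq
  have hy1 : y ∈ ball (C.b q) r1 :=
    ball_subset_ball ((min_le_right _ _).trans (min_le_left _ _)) hy
  have hy2 : y ∈ ball (C.b q) r2 :=
    ball_subset_ball ((min_le_right _ _).trans (min_le_right _ _)) hy
  exact h2 hy2 (mem_biUnion (show ρ ∈ S ∩ {ρ | ¬ q ≤ ρ} from ⟨⟨y, hρ, hy1⟩, hq⟩) hρ)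

/-- a proper face does not meet the open segments from an open cell to the cell -/
lemma face_seg (C : CC Λ Q) {ρ : Q} {z y : E} (hz : z ∈ C.cell ρ) (hzo : ∀ p < ρ, z ∉ C.cell p)
    (hy : y ∈ C.cell ρ) {s : ℝ} (hs0 : 0 ≤ s) (hs1 : s < 1) :
    ∀ p < ρ, (1 - s) • z + s • y ∉ C.cell p := by
  intro p hp hx
  -- `z = (1 - w) z' + w b`, `w > 0`
  obtain ⟨z', hz', w, hw0, hw1, hzw⟩ : ∃ z' ∈ C.cell ρ, ∃ w : ℝ, 0 < w ∧ w ≤ 1 ∧
      z = (1 - w) • z' + w • C.b ρ := by
    rcases C.rad ρ z hz with h | ⟨p', hp', y', hy', w, hw, h⟩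
    · exact ⟨z, hz, 1, one_pos, le_rfl, by rw [h]; simp⟩
    · refine ⟨y', C.mono hp' hy', w, lt_of_le_of_ne hw.1 ?_, hw.2.le, h⟩
      rintro rfl
      apply hzo p' hp'
      rw [h]
      simpa using hy'
  set c : ℝ := (1 - s) * w with hc
  have hc0 : 0 < c := mul_pos (by linarith) hw0
  have hc1 : c ≤ 1 := by
    have : (1 - s) * w ≤ 1 * 1 := mul_le_mul (by linarith) hw1 hw0.le zero_le_one
    simpa using this
  -- the point is `(1 - c) y1 + c b`
  obtain ⟨y1, hy1, h1⟩ : ∃ y1 ∈ C.cell ρ, (1 - s) • z + s • y = (1 - c) • y1 + c • C.b ρ := by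
    rcases hc1.lt_or_eq with hlt | heq
    · refine ⟨(1 - c)⁻¹ • (((1 - s) * (1 - w)) • z' + s • y), ?_, ?_⟩
      · have h2 : (1 - c)⁻¹ • (((1 - s) * (1 - w)) • z' + s • y) =
            ((1 - c)⁻¹ * ((1 - s) * (1 - w))) • z' + ((1 - c)⁻¹ * s) • y := by module
        rw [h2]
        have h3 : 0 < 1 - c := by linarith
        refine C.conv ρ hz' hy ?_ ?_ ?_
        · exact mul_nonneg (inv_nonneg.2 h3.le) (mul_nonneg (by linarith) (by linarith))
        · exact mul_nonneg (inv_nonneg.2 h3.le) hs0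
        · rw [← mul_add, inv_mul_eq_div, div_eq_one_iff_eq h3.ne']
          rw [hc]; ring
      · have h3 : (1 - c) ≠ 0 := by linarith
        rw [smul_smul, mul_inv_cancel₀ h3, one_smul, hzw, hc]
        module
    · have hs : s = 0 := by
        by_contra hne
        have : 0 < s := lt_of_le_of_ne hs0 (Ne.symm hne)
        have : (1 - s) * w < 1 := by nlinarith
        linarith
      have hw : w = 1 := by rw [hs] at hc; linarith
      refine ⟨y, hy, ?_⟩
      rw [hzw, heq, hs, hw]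
      module
  -- contradiction with radial uniqueness
  obtain ⟨y2, p2, hp2, hy2, c2, hc2, h2⟩ : ∃ y2 : E, ∃ p2, p2 < ρ ∧ y2 ∈ C.cell p2 ∧
      ∃ c2 : ℝ, c2 ∈ Ioo (0:ℝ) 1 ∧ (1 - s) • z + s • y = (1 - c2) • y2 + c2 • C.b ρ := by
    rcases C.rad ρ y1 hy1 with h | ⟨p', hp', y', hy', w', hw', h⟩
    · exfalso
      rw [h1, h] at hx
      have : (1 - c) • C.b ρ + c • C.b ρ = C.b ρ := by module
      rw [this] at hx
      exact C.b_notMem hp hx
    · rcases hc1.lt_or_eq with hlt | heq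
      · refine ⟨y', p', hp', hy', c + (1 - c) * w', ⟨?_, ?_⟩, ?_⟩
        · have := mul_nonneg (sub_nonneg.2 hc1) hw'.1
          linarith
        · have : (1 - c) * w' < (1 - c) * 1 := mul_lt_mul_of_pos_left hw'.2 (by linarith)
          linarith
        · rw [h1, h]; module
      · exfalso
        rw [h1, heq] at hx
        have : (1 - (1:ℝ)) • y1 + (1:ℝ) • C.b ρ = C.b ρ := by module
        rw [this] at hx
        exact C.b_notMem hp hx
  have h3 : (1 - (0:ℝ)) • ((1 - s) • z + s • y) + (0:ℝ) • C.b ρ = (1 - c2) • y2 + c2 • C.b ρ := by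
    rw [← h2]; module
  have h4 := (C.rad_uniq hp hp2 hx hy2 ⟨le_rfl, one_pos⟩ ⟨hc2.1.le, hc2.2⟩ h3).2
  exact hc2.1.ne h4

/-- the direction space of a cell -/
def dirW (C : CC Λ Q) (q : Q) : Submodule ℝ E :=
  Submodule.span ℝ ((fun y => y - C.b q) '' C.cell q)

lemma abs_mono (C : CC Λ Q) {q : Q} {v : E} {τ τ' : ℝ} (h : C.b q + τ • v ∈ C.cell q)
    (h0 : 0 < τ) (h1 : 0 ≤ τ') (h2 : τ' ≤ τ) : C.b q + τ' • v ∈ C.cell q := by
  have h3 := C.conv q (C.bmem q) h (a := 1 - τ' / τ) (b := τ' / τ)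
    (sub_nonneg.2 ((div_le_one h0).2 h2)) (div_nonneg h1 h0.le) (by ring)
  have h4 : (1 - τ' / τ) • C.b q + (τ' / τ) • (C.b q + τ • v) = C.b q + τ' • v := by
    have : (τ' / τ) * τ = τ' := div_mul_cancel₀ _ h0.ne'
    calc _ = C.b q + ((τ' / τ) * τ) • v := by module
      _ = _ := by rw [this]
  rwa [h4] at h3

lemma exists_smul_near {x v : E} {r : ℝ} (hr : 0 < r) : ∃ τ0 > (0:ℝ), ∀ τ, 0 ≤ τ → τ ≤ τ0 →
    x + τ • v ∈ ball x r := by
  refine ⟨r / (2 * (‖v‖ + 1)), by positivity, fun τ h0 h1 => ?_⟩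
  rw [mem_ball, dist_eq_norm, add_sub_cancel_left, norm_smul, Real.norm_eq_abs, abs_of_nonneg h0]
  have h2 : 0 < ‖v‖ + 1 := by positivity
  have h3 : τ * (2 * (‖v‖ + 1)) ≤ r := by rwa [le_div_iff₀ (by positivity)] at h1
  nlinarith [norm_nonneg v]

/-- the opposite direction is absorbed as well -/
lemma abs_neg (C : CC Λ Q) (hΛ : IsOpen Λ) {q : Q} {v : E} {τ : ℝ} (h0 : 0 < τ)
    (h : C.b q + τ • v ∈ C.cell q) : ∃ τ' > (0:ℝ), C.b q + τ' • (-v) ∈ C.cell q := by
  obtain ⟨r, hr, hsub, hup⟩ := exists_near C hΛ q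
  obtain ⟨t, ht, hball⟩ := exists_smul_near (x := C.b q) (v := -v) hr
  have h1 := hball t ht.le le_rfl
  obtain ⟨ρ0, hρ0⟩ := C.cover _ (hsub h1)
  obtain ⟨ρ, -, hρ, hρo⟩ := C.exists_opn hρ0
  have hle := hup _ h1 ρ hρ
  rcases hle.eq_or_lt with rfl | hlt
  · exact ⟨t, ht, hρ⟩
  · exfalso
    -- `b q` is between `b q - t v` (open cell `ρ`) and `b q + τ v`
    have hy : C.b q + τ • v ∈ C.cell ρ := C.mono hlt h
    have hs : t / (t + τ) < 1 := by rw [div_lt_one (by positivity)]; linarith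
    have h2 := face_seg C hρ hρo hy (s := t / (t + τ)) (by positivity) hs q hlt
    apply h2
    have h3 : (1 - t / (t + τ)) • (C.b q + t • -v) + (t / (t + τ)) • (C.b q + τ • v) = C.b q := by
      have e1 : (1 - t / (t + τ)) * t = (t / (t + τ)) * τ := by field_simp; ring
      calc _ = C.b q + (((t / (t + τ)) * τ) - ((1 - t / (t + τ)) * t)) • v := by module
        _ = _ := by rw [e1]; simp
    rw [h3]
    exact C.bmem q

/-- every direction of the cell is absorbed -/
lemma absorb (C : CC Λ Q) (hΛ : IsOpen Λ) {q : Q} {v : E} (hv : v ∈ dirW C q) :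
    ∃ τ0 > (0:ℝ), ∀ τ, 0 ≤ τ → τ ≤ τ0 → C.b q + τ • v ∈ C.cell q := by
  have key : ∃ τ > (0:ℝ), C.b q + τ • v ∈ C.cell q := by
    unfold dirW at hv
    induction hv using Submodule.span_induction with
    | mem x hx =>
      obtain ⟨y, hy, rfl⟩ := hx
      exact ⟨1, one_pos, by simpa using hy⟩
    | zero => exact ⟨1, one_pos, by simpa using C.bmem q⟩
    | add x y _ _ ihx ihy =>
      obtain ⟨τ1, h1, m1⟩ := ihx
      obtain ⟨τ2, h2, m2⟩ := ihy
      have hm : 0 < min τ1 τ2 := lt_min h1 h2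
      have n1 := abs_mono C m1 h1 hm.le (min_le_left _ _)
      have n2 := abs_mono C m2 h2 hm.le (min_le_right _ _)
      refine ⟨min τ1 τ2 / 2, by positivity, ?_⟩
      have h3 := C.conv q n1 n2 (a := 1 / 2) (b := 1 / 2) (by norm_num) (by norm_num) (by norm_num)
      convert h3 using 1
      module
    | smul a x _ ih =>
      obtain ⟨τ, h, m⟩ := ih
      rcases lt_trichotomy a 0 with ha | ha | ha
      · obtain ⟨τ', h', m'⟩ := abs_neg C hΛ h m
        refine ⟨τ' / (-a), div_pos h' (by linarith), ?_⟩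
        convert m' using 2
        rw [smul_smul, smul_neg]
        have : τ' / -a * a = -τ' := by rw [div_neg, neg_mul, div_mul_cancel₀ _ ha.ne]
        rw [this]; module
      · exact ⟨1, one_pos, by simpa [ha] using C.bmem q⟩
      · refine ⟨τ / a, div_pos h ha, ?_⟩
        convert m using 2
        rw [smul_smul, div_mul_cancel₀ _ ha.ne']
  obtain ⟨τ, h, m⟩ := key
  exact ⟨τ, h, fun τ' h0 h1 => abs_mono C m h h0 h1⟩

lemma sub_mem_dirW (C : CC Λ Q) {q : Q} {y : E} (hy : y ∈ C.cell q) : y - C.b q ∈ dirW C q :=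
  Submodule.subset_span ⟨y, hy, rfl⟩

/-- the cells above `q` -/
abbrev Up (q : Q) : Type _ := {r : Q // q < r}

lemma finite_up (C : CC Λ Q) (q : Q) : Finite (Up q) := by
  have h := C.finite_meet (T := {C.b q}) isCompact_singleton
    (by simpa using C.sub q (C.bmem q))
  refine (h.subset ?_ : {r : Q | q < r}.Finite).to_subtype
  intro r hr
  exact ⟨C.b q, C.mono hr (C.bmem q), rfl⟩

/-- weights on chains -/
structure Chn {I : Type*} [PartialOrder I] (l : I → ℝ) : Prop where
  nn : ∀ i, 0 ≤ l i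
  ch : ∀ i j, l i ≠ 0 → l j ≠ 0 → i ≤ j ∨ j ≤ i

lemma chn_zero {I : Type*} [PartialOrder I] : Chn (0 : I → ℝ) :=
  ⟨fun _ => le_rfl, fun _ _ h => absurd rfl h⟩

section rep

variable (C : CC Λ Q) (hΛ : IsOpen Λ) (q : Q)

/-- the directions -/
def β (i : Up q) : E := C.b i.1 - C.b q

open Classical in
/-- **existence of the conic representation** -/
lemma exists_rep_cell [Fintype (Up q)] : ∀ {ρ : Q}, q ≤ ρ → ∀ y ∈ C.cell ρ, ∃ u ∈ dirW C q,
    ∃ l : Up q → ℝ, Chn l ∧ (∀ i, l i ≠ 0 → i.1 ≤ ρ) ∧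
      y - C.b q = u + ∑ i, l i • β C q i := by
  intro ρ
  induction hd : C.dim ρ using Nat.strong_induction_on generalizing ρ with
  | _ d ih =>
    intro hle y hy
    rcases hle.eq_or_lt with rfl | hlt
    · exact ⟨y - C.b q, sub_mem_dirW C hy, 0, chn_zero, by simp, by simp⟩
    -- radius
    obtain ⟨r, hr, hrad⟩ : ∃ r > (0:ℝ), ∀ p < ρ, ¬ q ≤ p → ∀ y' ∈ C.cell p, ∀ w ∈ Ico (0:ℝ) 1,
        (1 - w) • y' + w • C.b ρ ∉ ball (C.b q) r := by
      have hfin : {p | p ≤ ρ}.Finite := C.finite_le ρ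
      have hfin2 : ({p | p < ρ ∧ ¬ q ≤ p} : Set Q).Finite := hfin.subset fun p hp => hp.1.le
      have hcomp : ∀ p, IsCompact ((fun z : E × ℝ => (1 - z.2) • z.1 + z.2 • C.b ρ) ''
          (C.cell p ×ˢ Icc (0:ℝ) 1)) := fun p =>
        ((C.cpt p).prod isCompact_Icc).image (by fun_prop)
      have hcl : IsClosed (⋃ p ∈ {p | p < ρ ∧ ¬ q ≤ p},
          ((fun z : E × ℝ => (1 - z.2) • z.1 + z.2 • C.b ρ) '' (C.cell p ×ˢ Icc (0:ℝ) 1))) :=
        hfin2.isClosed_biUnion fun p _ => (hcomp p).isClosed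
      have hnot : C.b q ∉ ⋃ p ∈ {p | p < ρ ∧ ¬ q ≤ p},
          ((fun z : E × ℝ => (1 - z.2) • z.1 + z.2 • C.b ρ) '' (C.cell p ×ˢ Icc (0:ℝ) 1)) := by
        intro h
        obtain ⟨p, hp, ⟨⟨y', w⟩, ⟨hy', hw⟩, he⟩⟩ := mem_iUnion₂.1 h
        simp only at hy' hw he
        rcases hw.2.lt_or_eq with hw1 | hw1
        · have h1 : (1 - w) • y' + w • C.b ρ = (1 - (0:ℝ)) • C.b q + (0:ℝ) • C.b ρ := by
            rw [he]; module
          have h2 := (C.rad_uniq hp.1 hlt hy' (C.bmem q) ⟨hw.1, hw1⟩ ⟨le_rfl, one_pos⟩ h1).1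
          exact hp.2 (C.le_of_b (h2 ▸ hy'))
        · rw [hw1] at he
          have h1 : C.b ρ = C.b q := by rw [← he]; module
          exact C.b_notMem hlt (h1 ▸ C.bmem q)
      obtain ⟨r, hr, h⟩ := Metric.isOpen_iff.1 hcl.isOpen_compl _ hnot
      refine ⟨r, hr, fun p hp hq y' hy' w hw hmem => ?_⟩
      exact h hmem (mem_biUnion (show p ∈ {p | p < ρ ∧ ¬ q ≤ p} from ⟨hp, hq⟩)
        ⟨(y', w), ⟨hy', hw.1, hw.2.le⟩, rfl⟩)
    -- scale
    obtain ⟨τ0, hτ0, hball⟩ := exists_smul_near (x := C.b q) (v := y - C.b q) hr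
    set τ := min τ0 1 with hτ
    have hτp : 0 < τ := lt_min hτ0 one_pos
    have hz : C.b q + τ • (y - C.b q) ∈ C.cell ρ := by
      have h1 := C.conv ρ (C.mono hlt (C.bmem q)) hy (a := 1 - τ) (b := τ)
        (sub_nonneg.2 (min_le_right _ _)) hτp.le (by ring)
      convert h1 using 1
      module
    have hzr := hball τ hτp.le (min_le_left _ _)
    rcases C.rad ρ _ hz with h | ⟨p, hp, y', hy', w, hw, h⟩
    · refine ⟨0, Submodule.zero_mem _, Pi.single ⟨ρ, hlt⟩ τ⁻¹, ⟨fun i => ?_, ?_⟩, ?_, ?_⟩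
      · by_cases hi : i = ⟨ρ, hlt⟩
        · subst hi; simp [hτp.le]
        · simp [hi]
      · intro i j hi hj
        have hi' : i = ⟨ρ, hlt⟩ := by
          by_contra hne
          exact hi (Pi.single_eq_of_ne hne _)
        have hj' : j = ⟨ρ, hlt⟩ := by
          by_contra hne
          exact hj (Pi.single_eq_of_ne hne _)
        rw [hi', hj']; exact Or.inl le_rfl
      · intro i hi
        have hi' : i = ⟨ρ, hlt⟩ := by
          by_contra hne
          exact hi (Pi.single_eq_of_ne hne _)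
        rw [hi']
      · rw [Finset.sum_eq_single ⟨ρ, hlt⟩]
        · rw [Pi.single_eq_same, zero_add, β, ← h, add_sub_cancel_left, smul_smul,
            inv_mul_cancel₀ hτp.ne', one_smul]
        · intro j _ hj
          rw [Pi.single_eq_of_ne hj, zero_smul]
        · intro h'; exact absurd (Finset.mem_univ _) h'
    · have hqp : q ≤ p := by
        by_contra hq
        exact hrad p hp hq y' hy' w hw (h ▸ hzr)
      obtain ⟨u, hu, l, hl, hlp, he⟩ := ih (C.dim p) (hd ▸ C.dim_lt hp) rfl hqp y' hy'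
      have hρ0 : l ⟨ρ, hlt⟩ = 0 := by
        by_contra hne
        exact absurd (hlp _ hne) (not_le_of_gt hp)
      refine ⟨(τ⁻¹ * (1 - w)) • u, Submodule.smul_mem _ _ hu,
        fun i => (τ⁻¹ * (1 - w)) * l i + (τ⁻¹ * w) * (if i = ⟨ρ, hlt⟩ then 1 else 0),
        ⟨fun i => ?_, fun i j hi hj => ?_⟩, fun i hi => ?_, ?_⟩
      · have h1 : 0 ≤ τ⁻¹ := inv_nonneg.2 hτp.le
        have h2 : 0 ≤ 1 - w := by linarith [hw.2]
        have h3 : (0:ℝ) ≤ if i = ⟨ρ, hlt⟩ then 1 else 0 := by split_ifs <;> norm_num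
        exact add_nonneg (mul_nonneg (mul_nonneg h1 h2) (hl.nn i))
          (mul_nonneg (mul_nonneg h1 hw.1) h3)
      · have haux : ∀ i : Up q, (τ⁻¹ * (1 - w)) * l i +
            (τ⁻¹ * w) * (if i = ⟨ρ, hlt⟩ then 1 else 0) ≠ 0 → i = ⟨ρ, hlt⟩ ∨ l i ≠ 0 := by
          intro i hi
          by_contra hcon
          push Not at hcon
          apply hi
          simp [hcon.1, hcon.2]
        rcases haux i hi with h1 | h1 <;> rcases haux j hj with h2 | h2
        · rw [h1, h2]; exact Or.inl le_rfl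
        · right; rw [h1]; exact ((hlp j h2).trans_lt hp).le
        · left; rw [h2]; exact ((hlp i h1).trans_lt hp).le
        · exact hl.ch i j h1 h2
      · by_cases h1 : i = ⟨ρ, hlt⟩
        · rw [h1]
        · have h2 : l i ≠ 0 := by
            intro h0
            apply hi
            show (τ⁻¹ * (1 - w)) * l i + (τ⁻¹ * w) * (if i = ⟨ρ, hlt⟩ then 1 else 0) = 0
            rw [if_neg h1, h0]; ring
          exact ((hlp i h2).trans_lt hp).le
      · have e1 : τ • (y - C.b q) = (1 - w) • (y' - C.b q) + w • (C.b ρ - C.b q) := by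
          have h5 : τ • (y - C.b q) = (1 - w) • y' + w • C.b ρ - C.b q := by
            rw [← h]; abel
          rw [h5]; module
        have e2 : y - C.b q = (τ⁻¹ * (1 - w)) • (y' - C.b q) + (τ⁻¹ * w) • (C.b ρ - C.b q) := by
          have h6 : y - C.b q = τ⁻¹ • (τ • (y - C.b q)) := by
            rw [smul_smul, inv_mul_cancel₀ hτp.ne', one_smul]
          rw [h6, e1, smul_add, smul_smul, smul_smul]
        rw [e2, he]
        simp only [add_smul, Finset.sum_add_distrib, smul_add, Finset.smul_sum, mul_smul]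
        have h7 : ∑ i : Up q, τ⁻¹ • w • (if i = ⟨ρ, hlt⟩ then (1:ℝ) else 0) • β C q i =
            τ⁻¹ • w • (C.b ρ - C.b q) := by
          rw [Finset.sum_eq_single ⟨ρ, hlt⟩]
          · simp [β]
          · intro j _ hj; simp [hj]
          · intro h'; exact absurd (Finset.mem_univ _) h'
        rw [h7]
        simp only [smul_smul]
        abel

/-- **every vector has a conic representation** -/
theorem exists_rep (hΛ : IsOpen Λ) [Fintype (Up q)] (w : E) : ∃ u ∈ dirW C q,
    ∃ l : Up q → ℝ, Chn l ∧ w = u + ∑ i, l i • β C q i := by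
  obtain ⟨r, hr, hsub, hup⟩ := exists_near C hΛ q
  obtain ⟨t, ht, hball⟩ := exists_smul_near (x := C.b q) (v := w) hr
  have h1 := hball t ht.le le_rfl
  obtain ⟨ρ, hρ⟩ := C.cover _ (hsub h1)
  obtain ⟨u, hu, l, hl, -, he⟩ := exists_rep_cell C q (hup _ h1 ρ hρ) _ hρ
  rw [add_sub_cancel_left] at he
  refine ⟨t⁻¹ • u, Submodule.smul_mem _ _ hu, fun i => t⁻¹ * l i, ⟨fun i => ?_, fun i j hi hj => ?_⟩,
    ?_⟩
  · exact mul_nonneg (inv_nonneg.2 ht.le) (hl.nn i)
  · exact hl.ch i j (right_ne_zero_of_mul hi) (right_ne_zero_of_mul hj)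
  · have h2 : w = t⁻¹ • (t • w) := by rw [smul_smul, inv_mul_cancel₀ ht.ne', one_smul]
    rw [h2, he, smul_add, Finset.smul_sum]
    simp only [smul_smul]

open Classical in
/-- restriction of a weight off one index -/
noncomputable def off (l : Up q → ℝ) (i : Up q) : Up q → ℝ := fun j => if j = i then 0 else l j

lemma off_self (l : Up q → ℝ) (i : Up q) : off q l i i = 0 := if_pos rfl

lemma off_of_ne {l : Up q → ℝ} {i j : Up q} (h : j ≠ i) : off q l i j = l j := if_neg h

lemma off_ne {l : Up q → ℝ} {i j : Up q} (h : off q l i j ≠ 0) : j ≠ i ∧ l j ≠ 0 := by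
  have hj : j ≠ i := by
    rintro rfl
    exact h (off_self q l j)
  refine ⟨hj, ?_⟩
  rwa [off_of_ne q hj] at h

lemma off_chn {l : Up q → ℝ} (hl : Chn l) (i : Up q) : Chn (off q l i) where
  nn j := by
    by_cases hj : j = i
    · subst hj; rw [off_self]
    · rw [off_of_ne q hj]; exact hl.nn j
  ch j k hj hk := hl.ch j k (off_ne q hj).2 (off_ne q hk).2

lemma off_sum [Fintype (Up q)] (l : Up q → ℝ) (i : Up q) :
    ∑ j, l j • β C q j = ∑ j, off q l i j • β C q j + l i • β C q i := by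
  classical
  rw [← Finset.add_sum_erase Finset.univ (fun j => l j • β C q j) (Finset.mem_univ i),
    ← Finset.add_sum_erase Finset.univ (fun j => off q l i j • β C q j) (Finset.mem_univ i)]
  have h2 : ∑ j ∈ Finset.univ.erase i, off q l i j • β C q j =
      ∑ j ∈ Finset.univ.erase i, l j • β C q j := by
    refine Finset.sum_congr rfl fun j hj => ?_
    rw [off_of_ne q (Finset.ne_of_mem_erase hj)]
  simp only [h2, off_self, zero_smul, zero_add]
  rw [add_comm]

/-- the top of the support -/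
structure Top (l : Up q → ℝ) (t : Q) : Prop where
  ge : q ≤ t
  le : ∀ i, l i ≠ 0 → i.1 ≤ t
  att : t = q ∨ ∃ i, l i ≠ 0 ∧ i.1 = t

lemma exists_top [Fintype (Up q)] {l : Up q → ℝ} (hl : Chn l) : ∃ t, Top q l t := by
  classical
  by_cases h : ∃ i, l i ≠ 0
  · obtain ⟨i, hi⟩ := h
    obtain ⟨m, hm, hmax⟩ := (Finset.univ.filter fun i => l i ≠ 0).exists_maximal ⟨i, by simp [hi]⟩
    have hm' : l m ≠ 0 := by simpa using hm
    refine ⟨m.1, m.2.le, fun j hj => ?_, Or.inr ⟨m, hm', rfl⟩⟩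
    rcases hl.ch j m hj hm' with h1 | h1
    · exact h1
    · exact hmax (by simpa using hj) h1
  · push Not at h
    exact ⟨q, le_rfl, fun i hi => absurd (h i) hi, Or.inl rfl⟩

lemma cone_step {x v u : E} {τ c : ℝ} (h : τ * c ≠ 1) :
    (1 - τ * c) • (x + (τ / (1 - τ * c)) • u) + (τ * c) • (x + v) = x + τ • (u + c • v) := by
  have h1 : (1 - τ * c) * (τ / (1 - τ * c)) = τ := by
    have : 1 - τ * c ≠ 0 := fun h' => h (by linarith)
    field_simp
  calc _ = x + ((1 - τ * c) * (τ / (1 - τ * c))) • u + (τ * c) • v := by module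
    _ = _ := by rw [h1]; module

/-- small multiples of a represented vector lie in the open cell of the top -/
lemma top_opn (hΛ : IsOpen Λ) [Fintype (Up q)] {u : E} (hu : u ∈ dirW C q) :
    ∀ (n : ℕ) (l : Up q → ℝ), {i | l i ≠ 0}.ncard ≤ n → Chn l → ∀ t, Top q l t →
      ∃ τ0 > (0:ℝ), ∀ τ, 0 < τ → τ ≤ τ0 →
        C.b q + τ • (u + ∑ i, l i • β C q i) ∈ C.cell t ∧
        ∀ p < t, C.b q + τ • (u + ∑ i, l i • β C q i) ∉ C.cell p := by
  classical
  obtain ⟨r, hr, hsub, hup⟩ := exists_near C hΛ q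
  intro n
  induction n with
  | zero =>
    intro l hn hl t ht
    have hl0 : l = 0 := by
      ext i
      by_contra hne
      have : {i | l i ≠ 0}.ncard = 0 := Nat.le_zero.1 hn
      rw [Set.ncard_eq_zero] at this
      exact absurd (show i ∈ {i | l i ≠ 0} from hne) (by rw [this]; simp)
    subst hl0
    have htq : t = q := by
      rcases ht.att with h | ⟨i, hi, -⟩
      · exact h
      · exact absurd rfl hi
    subst htq
    obtain ⟨τ1, h1, m1⟩ := absorb C hΛ hu
    obtain ⟨τ2, h2, m2⟩ := exists_smul_near (x := C.b t) (v := u) hr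
    refine ⟨min τ1 τ2, lt_min h1 h2, fun τ h0 hle => ?_⟩
    simp only [Pi.zero_apply, zero_smul, Finset.sum_const_zero, add_zero]
    refine ⟨m1 τ h0.le (hle.trans (min_le_left _ _)), fun p hp hmem => ?_⟩
    have := hup _ (m2 τ h0.le (hle.trans (min_le_right _ _))) p hmem
    exact absurd hp (not_lt_of_ge this)
  | succ n ih =>
    intro l hn hl t ht
    rcases ht.att with h | ⟨i, hi, hit⟩
    · -- no support
      have hl0 : l = 0 := by
        ext i
        by_contra hne
        exact absurd (ht.le i hne) (not_le_of_gt (h ▸ i.2))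
      exact ih l (by rw [hl0]; simp) hl t ht
    · subst hit
      have hcard : {j | off q l i j ≠ 0}.ncard ≤ n := by
        have h1 : {j | off q l i j ≠ 0} ⊆ {j | l j ≠ 0} \ {i} := fun j hj =>
          ⟨(off_ne q hj).2, (off_ne q hj).1⟩
        have h2 := Set.ncard_le_ncard h1 (Set.toFinite _)
        have h3 : ({j | l j ≠ 0} \ {i}).ncard + 1 = {j | l j ≠ 0}.ncard :=
          Set.ncard_diff_singleton_add_one hi (Set.toFinite _)
        omega
      obtain ⟨t', ht'⟩ := exists_top q (off_chn q hl i)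
      have htlt : t' < i.1 := by
        rcases ht'.att with h | ⟨j, hj, hjt⟩
        · rw [h]; exact i.2
        · rw [← hjt]
          have h1 := off_ne q hj
          exact lt_of_le_of_ne (ht.le j h1.2) fun h => h1.1 (Subtype.ext h)
      obtain ⟨τ1, h1, m1⟩ := ih _ hcard (off_chn q hl i) t' ht'
      have hli : 0 < l i := lt_of_le_of_ne (hl.nn i) (Ne.symm hi)
      set c := l i with hc
      refine ⟨min (τ1 / 2) (1 / (2 * c)), lt_min (by positivity) (by positivity), fun τ h0 hle => ?_⟩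
      have hτc : τ * c ≤ 1 / 2 := by
        have := hle.trans (min_le_right _ _)
        rw [le_div_iff₀ (by positivity)] at this
        linarith
      have hτc0 : 0 < τ * c := mul_pos h0 hli
      have hτ' : τ / (1 - τ * c) ≤ τ1 := by
        rw [div_le_iff₀ (by linarith)]
        have h2 := hle.trans (min_le_left _ _)
        have h3 : τ1 * (1 / 2) ≤ τ1 * (1 - τ * c) :=
          mul_le_mul_of_nonneg_left (by linarith) h1.le
        linarith
      obtain ⟨hy, -⟩ := m1 (τ / (1 - τ * c)) (div_pos h0 (by linarith)) hτ'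
      have e1 : C.b q + τ • (u + ∑ j, l j • β C q j) =
          (1 - τ * c) • (C.b q + (τ / (1 - τ * c)) • (u + ∑ j, off q l i j • β C q j)) +
            (τ * c) • C.b i.1 := by
        have h4 : C.b i.1 = C.b q + β C q i := by simp [β]
        rw [h4, cone_step (by linarith), off_sum C q l i]
        rw [add_assoc]
      rw [e1]
      refine ⟨C.conv i.1 (C.mono htlt hy) (C.bmem i.1) (by linarith) hτc0.le (by ring),
        fun p hp hmem => ?_⟩
      have h5 := (C.rad_uniq (y := _) (y' := _) (w := 0) (w' := τ * c) hp htlt hmem hy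
        ⟨le_rfl, one_pos⟩ ⟨hτc0.le, by linarith⟩ (by module)).2
      exact hτc0.ne h5

/-- **uniqueness of the conic representation** -/
theorem rep_uniq (hΛ : IsOpen Λ) [Fintype (Up q)] :
    ∀ (n : ℕ) (l l' : Up q → ℝ), {i | l i ≠ 0}.ncard ≤ n → Chn l → Chn l' →
      ∀ u ∈ dirW C q, ∀ u' ∈ dirW C q,
      u + ∑ i, l i • β C q i = u' + ∑ i, l' i • β C q i → l = l' := by
  classical
  intro n
  induction n with
  | zero =>
    intro l l' hn hl hl' u hu u' hu' he
    have hl0 : l = 0 := by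
      ext i
      by_contra hne
      have : {i | l i ≠ 0}.ncard = 0 := Nat.le_zero.1 hn
      rw [Set.ncard_eq_zero] at this
      exact absurd (show i ∈ {i | l i ≠ 0} from hne) (by rw [this]; simp)
    obtain ⟨t', ht'⟩ := exists_top q hl'
    obtain ⟨τ1, h1, m1⟩ := top_opn C q hΛ hu _ l le_rfl hl q
      ⟨le_rfl, fun i hi => absurd (by rw [hl0]; rfl) hi, Or.inl rfl⟩
    obtain ⟨τ2, h2, m2⟩ := top_opn C q hΛ hu' _ l' le_rfl hl' t' ht'
    have hm : 0 < min τ1 τ2 := lt_min h1 h2
    have a1 := m1 _ hm (min_le_left _ _)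
    have a2 := m2 _ hm (min_le_right _ _)
    rw [← he] at a2
    have h3 := C.disj a1.1 a1.2 a2.1 a2.2
    ext i
    rw [hl0]
    by_contra hne
    exact absurd (ht'.le i (Ne.symm hne)) (not_le_of_gt (h3 ▸ i.2))
  | succ n ih =>
    intro l l' hn hl hl' u hu u' hu' he
    obtain ⟨t, ht⟩ := exists_top q hl
    obtain ⟨t', ht'⟩ := exists_top q hl'
    obtain ⟨τ1, h1, m1⟩ := top_opn C q hΛ hu _ l le_rfl hl t ht
    obtain ⟨τ2, h2, m2⟩ := top_opn C q hΛ hu' _ l' le_rfl hl' t' ht'
    have htt : t = t' := by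
      have hm : 0 < min τ1 τ2 := lt_min h1 h2
      have a1 := m1 _ hm (min_le_left _ _)
      have a2 := m2 _ hm (min_le_right _ _)
      rw [← he] at a2
      exact C.disj a1.1 a1.2 a2.1 a2.2
    subst htt
    rcases ht.att with h | ⟨i, hi, hit⟩
    · ext j
      have e1 : l j = 0 := by
        by_contra hne
        exact absurd (ht.le j hne) (not_le_of_gt (h ▸ j.2))
      have e2 : l' j = 0 := by
        by_contra hne
        exact absurd (ht'.le j hne) (not_le_of_gt (h ▸ j.2))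
      rw [e1, e2]
    · have hi' : l' i ≠ 0 := by
        rcases ht'.att with h | ⟨j, hj, hjt⟩
        · exact absurd i.2 (by rw [hit, h]; exact lt_irrefl _)
        · have : j = i := Subtype.ext (hjt.trans hit.symm)
          exact this ▸ hj
      subst hit
      have hlt : ∀ {l : Up q → ℝ}, Top q l i.1 → ∀ t', Top q (off q l i) t' → t' < i.1 := by
        intro l ht t' ht'
        rcases ht'.att with h | ⟨j, hj, hjt⟩
        · rw [h]; exact i.2
        · rw [← hjt]
          have h1 := off_ne q hj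
          exact lt_of_le_of_ne (ht.le j h1.2) fun h => h1.1 (Subtype.ext h)
      obtain ⟨s, hs⟩ := exists_top q (off_chn q hl i)
      obtain ⟨s', hs'⟩ := exists_top q (off_chn q hl' i)
      have hslt := hlt ht s hs
      have hslt' := hlt ht' s' hs'
      obtain ⟨σ1, g1, k1⟩ := top_opn C q hΛ hu _ _ le_rfl (off_chn q hl i) s hs
      obtain ⟨σ2, g2, k2⟩ := top_opn C q hΛ hu' _ _ le_rfl (off_chn q hl' i) s' hs'
      have hli : 0 < l i := lt_of_le_of_ne (hl.nn i) (Ne.symm hi)
      have hli' : 0 < l' i := lt_of_le_of_ne (hl'.nn i) (Ne.symm hi')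
      set c := l i with hc
      set c' := l' i with hc'
      set τ := min (min (σ1 / 2) (σ2 / 2)) (min (1 / (2 * c)) (1 / (2 * c'))) with hτ
      have hτ0 : 0 < τ := lt_min (lt_min (by positivity) (by positivity))
        (lt_min (by positivity) (by positivity))
      have hτc : τ * c ≤ 1 / 2 := by
        have : τ ≤ 1 / (2 * c) := (min_le_right _ _).trans (min_le_left _ _)
        rw [le_div_iff₀ (by positivity)] at this
        linarith
      have hτc' : τ * c' ≤ 1 / 2 := by
        have : τ ≤ 1 / (2 * c') := (min_le_right _ _).trans (min_le_right _ _)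
        rw [le_div_iff₀ (by positivity)] at this
        linarith
      have hp1 : 0 < τ * c := mul_pos hτ0 hli
      have hp2 : 0 < τ * c' := mul_pos hτ0 hli'
      have b1 : τ / (1 - τ * c) ≤ σ1 := by
        rw [div_le_iff₀ (by linarith)]
        have h2 : τ ≤ σ1 / 2 := (min_le_left _ _).trans (min_le_left _ _)
        have h3 : σ1 * (1 / 2) ≤ σ1 * (1 - τ * c) :=
          mul_le_mul_of_nonneg_left (by linarith) g1.le
        linarith
      have b2 : τ / (1 - τ * c') ≤ σ2 := by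
        rw [div_le_iff₀ (by linarith)]
        have h2 : τ ≤ σ2 / 2 := (min_le_left _ _).trans (min_le_right _ _)
        have h3 : σ2 * (1 / 2) ≤ σ2 * (1 - τ * c') :=
          mul_le_mul_of_nonneg_left (by linarith) g2.le
        linarith
      have y1 := (k1 _ (div_pos hτ0 (by linarith)) b1).1
      have y2 := (k2 _ (div_pos hτ0 (by linarith)) b2).1
      have h4 : C.b i.1 = C.b q + β C q i := by simp [β]
      have e1 : C.b q + τ • (u + ∑ j, l j • β C q j) =
          (1 - τ * c) • (C.b q + (τ / (1 - τ * c)) • (u + ∑ j, off q l i j • β C q j)) +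
            (τ * c) • C.b i.1 := by
        rw [h4, cone_step (by linarith), off_sum C q l i]
        rw [add_assoc]
      have e2 : C.b q + τ • (u' + ∑ j, l' j • β C q j) =
          (1 - τ * c') • (C.b q + (τ / (1 - τ * c')) • (u' + ∑ j, off q l' i j • β C q j)) +
            (τ * c') • C.b i.1 := by
        rw [h4, cone_step (by linarith), off_sum C q l' i]
        rw [add_assoc]
      have e3 := C.rad_uniq hslt hslt' y1 y2 ⟨hp1.le, by linarith⟩ ⟨hp2.le, by linarith⟩
        (by rw [← e1, ← e2, he])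
      have hcc : c = c' := mul_left_cancel₀ hτ0.ne' e3.2
      have hrest : u + ∑ j, off q l i j • β C q j = u' + ∑ j, off q l' i j • β C q j := by
        have h5 := e3.1
        rw [hcc] at h5
        have h6 := add_left_cancel h5
        have h7 : τ / (1 - τ * c') ≠ 0 := (div_pos hτ0 (by linarith)).ne'
        exact smul_right_injective E h7 h6
      have hcard : {j | off q l i j ≠ 0}.ncard ≤ n := by
        have h1 : {j | off q l i j ≠ 0} ⊆ {j | l j ≠ 0} \ {i} := fun j hj =>
          ⟨(off_ne q hj).2, (off_ne q hj).1⟩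
        have h2 := Set.ncard_le_ncard h1 (Set.toFinite _)
        have h3 : ({j | l j ≠ 0} \ {i}).ncard + 1 = {j | l j ≠ 0}.ncard :=
          Set.ncard_diff_singleton_add_one hi (Set.toFinite _)
        omega
      have h8 := ih _ _ hcard (off_chn q hl i) (off_chn q hl' i) u hu u' hu' hrest
      ext j
      by_cases hj : j = i
      · rw [hj]; exact hcc
      · have h9 := congrFun h8 j
        rwa [off_of_ne q hj, off_of_ne q hj] at h9

end rep

end Crest.Agent.R096.Ar_241
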