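/-
helper609, row 96, leaf P1-CELL, part 2: cone extension over the cube, PL balls, extension of a PL
homeomorphism between the boundaries of two PL balls.
-/
import Mathlib
import Crest.Agent.R096.Cx1_609

set_option autoImplicit false
set_option linter.unusedSectionVars false

open Set Metric

namespace Crest.Agent.R096.Cx_609

noncomputable section

variable {E F G : Type*} [NormedAddCommGroup E] [NormedSpace ℝ E]
  [NormedAddCommGroup F] [NormedSpace ℝ F] [NormedAddCommGroup G] [NormedSpace ℝ G]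

/-- the cone extension (Alexander trick) -/
def cone {k : ℕ} (h : (Fin k → ℝ) → F) (x : Fin k → ℝ) : F := ‖x‖ • h (‖x‖⁻¹ • x)

theorem cone_zero {k : ℕ} (h : (Fin k → ℝ) → F) : cone h 0 = 0 := by simp [cone]

theorem cone_of_sphere {k : ℕ} (h : (Fin k → ℝ) → F) {x : Fin k → ℝ} (hx : x ∈ sphere (0 : Fin k → ℝ) 1) :
    cone h x = h x := by
  rw [mem_sphere_zero_iff_norm] at hx
  simp [cone, hx]

theorem norm_smul_inv {k : ℕ} {x : Fin k → ℝ} (hx : x ≠ 0) : ‖x‖⁻¹ • x ∈ sphere (0 : Fin k → ℝ) 1 := by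
  rw [mem_sphere_zero_iff_norm, norm_smul, norm_inv, norm_norm]
  exact inv_mul_cancel₀ (norm_ne_zero_iff.2 hx)

theorem cone_smul {k : ℕ} (h : (Fin k → ℝ) → F) {t : ℝ} (ht : 0 ≤ t) (x : Fin k → ℝ) :
    cone h (t • x) = t • cone h x := by
  rcases ht.eq_or_lt with rfl | ht
  · simp [cone]
  · unfold cone
    rw [norm_smul, Real.norm_eq_abs, abs_of_pos ht, smul_smul, smul_smul]
    congr 2
    rw [mul_inv, mul_comm t⁻¹, mul_assoc, inv_mul_cancel₀ ht.ne', mul_one]

theorem exists_abs_eq_norm {k : ℕ} {x : Fin k → ℝ} (hx : x ≠ 0) :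
    ∃ i : Fin k, ∃ s : ℝ, (s = 1 ∨ s = -1) ∧ ‖x‖ = s * x i := by
  have hpos : 0 < ‖x‖ := norm_pos_iff.2 hx
  by_contra hcon
  push Not at hcon
  have h1 : ‖x‖ < ‖x‖ := by
    rw [pi_norm_lt_iff hpos]
    intro i
    refine lt_of_le_of_ne (norm_le_pi_norm x i) ?_
    intro h
    rcases abs_choice (x i) with h2 | h2
    · exact hcon i 1 (Or.inl rfl) (by rw [← h, Real.norm_eq_abs, h2, one_mul])
    · exact hcon i (-1) (Or.inr rfl) (by rw [← h, Real.norm_eq_abs, h2]; ring)
  exact lt_irrefl _ h1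

theorem PLOn.cone {k : ℕ} {h : (Fin k → ℝ) → F} (hh : PLOn (sphere (0 : Fin k → ℝ) 1) h) :
    PLOn univ (cone h) := by
  obtain ⟨hc, A, hA, hhA⟩ := hh
  refine ⟨?_, ?_⟩
  · rw [continuousOn_univ, continuous_iff_continuousAt]
    intro x
    by_cases hx : x = 0
    · subst hx
      obtain ⟨M, hM⟩ := (isCompact_sphere (0 : Fin k → ℝ) 1).exists_bound_of_continuousOn hc
      have h1 : ∀ y : Fin k → ℝ, ‖Cx_609.cone h y‖ ≤ |M| * ‖y‖ := by
        intro y
        by_cases hy : y = 0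
        · subst hy
          simp [cone_zero]
        · unfold Cx_609.cone
          rw [norm_smul, norm_norm, mul_comm]
          exact mul_le_mul_of_nonneg_right ((hM _ (norm_smul_inv hy)).trans (le_abs_self M))
            (norm_nonneg y)
      rw [ContinuousAt, cone_zero]
      rw [tendsto_zero_iff_norm_tendsto_zero]
      refine squeeze_zero (fun y => norm_nonneg _) h1 ?_
      have h2 : Continuous fun y : Fin k → ℝ => |M| * ‖y‖ := by fun_prop
      have h3 := h2.tendsto 0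
      simpa using h3
    · have h1 : ContinuousOn (fun y : Fin k → ℝ => ‖y‖⁻¹ • y) {0}ᶜ := by
        refine ContinuousOn.smul (ContinuousOn.inv₀ continuous_norm.continuousOn ?_)
          continuousOn_id
        intro y hy
        exact norm_ne_zero_iff.2 hy
      have h2 : ContinuousOn (Cx_609.cone h) {0}ᶜ := by
        refine ContinuousOn.smul continuous_norm.continuousOn ?_
        exact hc.comp h1 fun y hy => norm_smul_inv hy
      exact h2.continuousAt (isOpen_compl_singleton.mem_nhds hx)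
  · let m : (((Fin k → ℝ) →ᵃ[ℝ] F) × Fin k × ℝ) → ((Fin k → ℝ) →ᵃ[ℝ] F) := fun p =>
      (p.1.linear + ((p.2.2 • (LinearMap.proj p.2.1 : (Fin k → ℝ) →ₗ[ℝ] ℝ)).smulRight
        (p.1 0))).toAffineMap
    refine ⟨{AffineMap.const ℝ _ 0} ∪ m '' (A ×ˢ ((univ : Set (Fin k)) ×ˢ ({1, -1} : Set ℝ))),
      (finite_singleton _).union ((hA.prod (finite_univ.prod (by simp))).image m), ?_⟩
    intro x _
    by_cases hx : x = 0
    · subst hx
      exact ⟨_, Or.inl rfl, by simp [cone_zero]⟩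
    · obtain ⟨g, hg, hxg⟩ := hhA _ (norm_smul_inv hx)
      obtain ⟨i, s, hs, hxs⟩ := exists_abs_eq_norm hx
      refine ⟨m (g, i, s), Or.inr ⟨(g, i, s), ⟨hg, mem_univ _, ?_⟩, rfl⟩, ?_⟩
      · rcases hs with rfl | rfl <;> simp
      · have hn : ‖x‖ ≠ 0 := norm_ne_zero_iff.2 hx
        have e : ∀ y, g y = g.linear y + g 0 := fun y => congrFun g.decomp y
        unfold Cx_609.cone
        rw [hxg, e (‖x‖⁻¹ • x)]
        simp only [m, LinearMap.coe_toAffineMap, LinearMap.add_apply, LinearMap.smulRight_apply,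
          LinearMap.smul_apply, LinearMap.proj_apply, smul_eq_mul,
          smul_add, map_smul, smul_smul, mul_inv_cancel₀ hn, one_smul, ← hxs]

/-- a PL ball of dimension `k` with its boundary -/
def IsPLBall (k : ℕ) (c bd : Set E) : Prop :=
  ∃ φ : (Fin k → ℝ) → E, PLOn (closedBall 0 1) φ ∧ InjOn φ (closedBall 0 1) ∧
    φ '' closedBall 0 1 = c ∧ φ '' sphere 0 1 = bd

theorem finConv_closedBall (k : ℕ) : FinConv (closedBall (0 : Fin k → ℝ) 1) :=
  (convex_closedBall 0 1).finConv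

theorem finConv_sphere (k : ℕ) : FinConv (sphere (0 : Fin k → ℝ) 1) := by
  have h1 : sphere (0 : Fin k → ℝ) 1 =
      ⋃ p ∈ ((univ : Set (Fin k)) ×ˢ ({1, -1} : Set ℝ)),
        (closedBall (0 : Fin k → ℝ) 1 ∩ {x | x p.1 = p.2}) := by
    ext x
    simp only [mem_sphere_zero_iff_norm, mem_iUnion, mem_prod, mem_univ, true_and, mem_inter_iff,
      mem_closedBall_zero_iff, mem_ofPred_eq, Prod.exists, exists_prop]
    constructor
    · intro hx
      have hx0 : x ≠ 0 := by
        rintro rfl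
        simp at hx
      obtain ⟨i, s, hs, hxs⟩ := exists_abs_eq_norm hx0
      refine ⟨i, s, ?_, hx.le, ?_⟩
      · rcases hs with rfl | rfl <;> simp
      · rw [hx] at hxs
        rcases hs with rfl | rfl
        · linarith
        · linarith
    · rintro ⟨i, s, hs, hx, hxi⟩
      refine le_antisymm hx ?_
      have h2 := norm_le_pi_norm x i
      have h3 : ‖x i‖ = 1 := by
        rw [hxi]
        rcases hs with rfl | hs
        · simp
        · rw [mem_singleton_iff.1 hs]; simp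
      linarith
  rw [h1]
  refine FinConv.biUnion (finite_univ.prod (by simp)) ?_
  rintro ⟨i, s⟩ _
  refine ((convex_closedBall _ _).inter ?_).finConv
  have : {x : Fin k → ℝ | x i = s} = (LinearMap.proj i : (Fin k → ℝ) →ₗ[ℝ] ℝ) ⁻¹' {s} := rfl
  rw [this]
  exact (convex_singleton s).linear_preimage _

section

variable {k : ℕ} {c bd : Set E}

theorem IsPLBall.bd_subset (h : IsPLBall k c bd) : bd ⊆ c := by
  obtain ⟨φ, _, _, rfl, rfl⟩ := h
  exact image_mono sphere_subset_closedBall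

theorem IsPLBall.isCompact (h : IsPLBall k c bd) : IsCompact c := by
  obtain ⟨φ, h1, _, rfl, rfl⟩ := h
  exact (isCompact_closedBall _ _).image_of_continuousOn h1.1

theorem IsPLBall.isCompact_bd (h : IsPLBall k c bd) : IsCompact bd := by
  obtain ⟨φ, h1, _, rfl, rfl⟩ := h
  exact (isCompact_sphere _ _).image_of_continuousOn (h1.1.mono sphere_subset_closedBall)

theorem IsPLBall.isClosed (h : IsPLBall k c bd) : IsClosed c := h.isCompact.isClosed

theorem IsPLBall.isClosed_bd (h : IsPLBall k c bd) : IsClosed bd := h.isCompact_bd.isClosed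

theorem IsPLBall.nonempty (h : IsPLBall k c bd) : c.Nonempty := by
  obtain ⟨φ, _, _, rfl, _⟩ := h
  exact ⟨φ 0, mem_image_of_mem _ (by simp)⟩

variable [FiniteDimensional ℝ E] [FiniteDimensional ℝ F]

theorem IsPLBall.finConv (h : IsPLBall k c bd) : FinConv c := by
  obtain ⟨φ, h1, _, rfl, rfl⟩ := h
  exact h1.finConv_image (finConv_closedBall k)

theorem IsPLBall.finConv_bd (h : IsPLBall k c bd) : FinConv bd := by
  obtain ⟨φ, h1, _, rfl, rfl⟩ := h
  exact (h1.mono sphere_subset_closedBall).finConv_image (finConv_sphere k)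

/-- images of PL balls -/
theorem IsPLBall.image (h : IsPLBall k c bd) {f : E → F} (hf : PLOn c f) (hi : InjOn f c) :
    IsPLBall k (f '' c) (f '' bd) := by
  obtain ⟨φ, h1, h2, rfl, rfl⟩ := h
  refine ⟨f ∘ φ, hf.comp h1 (mapsTo_image φ _), ?_, ?_, ?_⟩
  · exact hi.comp h2 (mapsTo_image φ _)
  · rw [image_comp]
  · rw [image_comp]

/-- a chart of a PL ball with PL inverse -/
theorem IsPLBall.exists_chart (h : IsPLBall k c bd) : ∃ (φ : (Fin k → ℝ) → E) (r : E → (Fin k → ℝ)),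
    PLOn (closedBall 0 1) φ ∧ PLOn c r ∧ InvOn r φ (closedBall 0 1) c ∧
    MapsTo φ (closedBall 0 1) c ∧ MapsTo r c (closedBall 0 1) ∧
    MapsTo φ (sphere 0 1) bd ∧ MapsTo r bd (sphere 0 1) := by
  obtain ⟨φ, h1, h2, rfl, rfl⟩ := h
  let r := Function.invFunOn φ (closedBall (0 : Fin k → ℝ) 1)
  have hr : LeftInvOn r φ (closedBall 0 1) := h2.leftInvOn_invFunOn
  have hr' : MapsTo r (φ '' closedBall 0 1) (closedBall (0 : Fin k → ℝ) 1) := by
    rintro _ ⟨x, hx, rfl⟩
    rw [hr hx]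
    exact hx
  refine ⟨φ, r, h1, h1.inv (finConv_closedBall k) (isCompact_closedBall _ _) hr, ⟨hr, ?_⟩,
    mapsTo_image _ _, hr', mapsTo_image _ _, ?_⟩
  · rintro _ ⟨x, hx, rfl⟩
    rw [hr hx]
  · rintro _ ⟨x, hx, rfl⟩
    rw [hr (sphere_subset_closedBall hx)]
    exact hx

end

theorem norm_cone {k : ℕ} {ψ : (Fin k → ℝ) → (Fin k → ℝ)}
    (hm : MapsTo ψ (sphere 0 1) (sphere 0 1)) (x : Fin k → ℝ) : ‖cone ψ x‖ = ‖x‖ := by
  by_cases hx : x = 0
  · subst hx
    rw [cone_zero]
  · unfold cone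
    rw [norm_smul, norm_norm, mem_sphere_zero_iff_norm.1 (hm (norm_smul_inv hx)), mul_one]

theorem bijOn_cone {k : ℕ} {ψ : (Fin k → ℝ) → (Fin k → ℝ)}
    (hm : BijOn ψ (sphere 0 1) (sphere 0 1)) : BijOn (cone ψ) (closedBall 0 1) (closedBall 0 1) := by
  refine ⟨?_, ?_, ?_⟩
  · intro x hx
    rw [mem_closedBall_zero_iff] at hx ⊢
    rwa [norm_cone hm.mapsTo]
  · intro x _ y _ hxy
    have hn : ‖x‖ = ‖y‖ := by rw [← norm_cone hm.mapsTo x, ← norm_cone hm.mapsTo y, hxy]
    by_cases hx : x = 0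
    · subst hx
      rw [norm_zero] at hn
      exact (norm_eq_zero.1 hn.symm).symm
    · have hy : y ≠ 0 := by
        rintro rfl
        rw [norm_zero] at hn
        exact hx (norm_eq_zero.1 hn)
      have hnx : ‖x‖ ≠ 0 := norm_ne_zero_iff.2 hx
      unfold cone at hxy
      rw [← hn] at hxy
      have h1 := smul_right_injective _ hnx hxy
      have h2 := hm.injOn (norm_smul_inv hx) (by rw [hn]; exact norm_smul_inv hy) h1
      exact smul_right_injective _ (inv_ne_zero hnx) h2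
  · intro y hy
    by_cases hy0 : y = 0
    · subst hy0
      exact ⟨0, hy, cone_zero ψ⟩
    · obtain ⟨z, hz, hzy⟩ := hm.surjOn (norm_smul_inv hy0)
      rw [mem_closedBall_zero_iff] at hy
      refine ⟨‖y‖ • z, ?_, ?_⟩
      · rw [mem_closedBall_zero_iff, norm_smul, norm_norm, mem_sphere_zero_iff_norm.1 hz, mul_one]
        exact hy
      · rw [cone_smul ψ (norm_nonneg y), cone_of_sphere ψ hz, hzy, smul_smul,
          mul_inv_cancel₀ (norm_ne_zero_iff.2 hy0), one_smul]

/-- **Alexander trick for PL balls**: a PL homeomorphism between the boundaries of two PL balls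
extends. -/
theorem ball_ext [FiniteDimensional ℝ E] [FiniteDimensional ℝ F] {k : ℕ} {c bd : Set E}
    {c' bd' : Set F} (hc : IsPLBall k c bd) (hc' : IsPLBall k c' bd') {h : E → F}
    (hh : PLOn bd h) (hb : BijOn h bd bd') :
    ∃ H : E → F, PLOn c H ∧ BijOn H c c' ∧ EqOn H h bd := by
  obtain ⟨φ, r, h1, h2, h3, h4, h5, h6, h7⟩ := hc.exists_chart
  obtain ⟨φ', r', h1', h2', h3', h4', h5', h6', h7'⟩ := hc'.exists_chart
  have hsub : (sphere (0 : Fin k → ℝ) 1) ⊆ closedBall 0 1 := sphere_subset_closedBall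
  let ψ : (Fin k → ℝ) → (Fin k → ℝ) := r' ∘ h ∘ φ
  have hψ : PLOn (sphere 0 1) ψ :=
    (h2'.mono hc'.bd_subset).comp (hh.comp (h1.mono hsub) h6) (hb.mapsTo.comp h6)
  have hψb : BijOn ψ (sphere 0 1) (sphere 0 1) := by
    refine ⟨h7'.comp (hb.mapsTo.comp h6), ?_, ?_⟩
    · intro x hx y hy hxy
      have e1 : h (φ x) = h (φ y) := by
        have := congrArg φ' hxy
        simp only [ψ, Function.comp] at this
        rwa [h3'.2 (hc'.bd_subset (hb.mapsTo (h6 hx))),
          h3'.2 (hc'.bd_subset (hb.mapsTo (h6 hy)))] at this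
      have e2 := hb.injOn (h6 hx) (h6 hy) e1
      rw [← h3.1 (hsub hx), ← h3.1 (hsub hy), e2]
    · intro y hy
      obtain ⟨x, hx, hxy⟩ := hb.surjOn (h6' hy)
      refine ⟨r x, h7 hx, ?_⟩
      simp only [ψ, Function.comp]
      rw [h3.2 (hc.bd_subset hx), hxy, h3'.1 (hsub hy)]
  have hκ := bijOn_cone hψb
  refine ⟨φ' ∘ cone ψ ∘ r, ?_, ?_, ?_⟩
  · exact h1'.comp ((hψ.cone.mono (subset_univ _)).comp h2 h5) (hκ.mapsTo.comp h5)
  · have hr : BijOn r c (closedBall 0 1) := by
      refine ⟨h5, h3.2.injOn, ?_⟩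
      intro x hx
      exact ⟨φ x, h4 hx, h3.1 hx⟩
    have hφ' : BijOn φ' (closedBall 0 1) c' := by
      refine ⟨h4', h3'.1.injOn, ?_⟩
      intro y hy
      exact ⟨r' y, h5' hy, h3'.2 hy⟩
    exact hφ'.comp (hκ.comp hr)
  · intro x hx
    simp only [Function.comp]
    rw [cone_of_sphere ψ (h7 hx)]
    simp only [ψ, Function.comp]
    rw [h3.2 (hc.bd_subset hx), h3'.2 (hc'.bd_subset (hb.mapsTo hx))]

end

end Crest.Agent.R096.Cx_609
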