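/-
helper609, row 96, leaf P1-CELL, part 3: inverses on closed sets (no compactness), and the bridge to
537's `PLOn`, `PLEquiv`, `IsBall` (R096/Ce1_537): an injective PL map on a cube is a ball, no inverse
has to be exhibited.
-/
import Mathlib
import Crest.Agent.R096.Cx2_609
import Crest.Agent.R096.Ce1_537

set_option autoImplicit false
set_option linter.unusedSectionVars false

open Set Metric

namespace Crest.Agent.R096.Cx_609

noncomputable section

variable {E F G : Type*} [NormedAddCommGroup E] [NormedSpace ℝ E]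
  [NormedAddCommGroup F] [NormedSpace ℝ F] [NormedAddCommGroup G] [NormedSpace ℝ G]
  [FiniteDimensional ℝ E] [FiniteDimensional ℝ F]

/-- closed convex pieces -/
theorem PLOn.closed_pieces {s : Set E} (hs : FinConv s) (hsc : IsClosed s) {f : E → F}
    (hf : PLOn s f) :
    ∃ 𝒞 : Set (Set E), 𝒞.Finite ∧
      (∀ K ∈ 𝒞, Convex ℝ K ∧ IsClosed K ∧ ∃ g : E →ᵃ[ℝ] F, EqOn f g K) ∧ ⋃₀ 𝒞 = s := by
  obtain ⟨𝒞, hfin, h1, h2⟩ := hf.pieces hs
  refine ⟨closure '' 𝒞, hfin.image _, ?_, ?_⟩
  · rintro _ ⟨K, hK, rfl⟩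
    obtain ⟨hc, g, hg⟩ := h1 K hK
    have hKs : K ⊆ s := by rw [← h2]; exact subset_sUnion_of_mem hK
    refine ⟨hc.closure, isClosed_closure, g, ?_⟩
    have h3 := PLOn.closure_inter hf.1 hKs hg
    rwa [inter_eq_self_of_subset_left (closure_minimal hKs hsc)] at h3
  · apply Subset.antisymm
    · rintro x ⟨_, ⟨K, hK, rfl⟩, hx⟩
      have hKs : K ⊆ s := by rw [← h2]; exact subset_sUnion_of_mem hK
      exact closure_minimal hKs hsc hx
    · rw [← h2]
      rintro x ⟨K, hK, hx⟩
      exact ⟨closure K, ⟨K, hK, rfl⟩, subset_closure hx⟩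

/-- the image of a closed finite union of convex sets under an injective PL map is closed, and the
inverse is PL -/
theorem PLOn.inv_closed {s : Set E} (hs : FinConv s) (hsc : IsClosed s) {f : E → F}
    (hf : PLOn s f) {r : F → E} (hr : LeftInvOn r f s) : IsClosed (f '' s) ∧ PLOn (f '' s) r := by
  obtain ⟨𝒞, hfin, h1, h2⟩ := hf.closed_pieces hs hsc
  have h3 : ∀ K ∈ 𝒞, IsClosed (f '' K) ∧ PLOn (f '' K) r := by
    intro K hK
    obtain ⟨hc, hcl, g, hg⟩ := h1 K hK
    have hKs : K ⊆ s := by rw [← h2]; exact subset_sUnion_of_mem hK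
    obtain ⟨b', hb'⟩ := factor hc g (AffineMap.id ℝ E) (by
      intro x hx y hy hxy
      rw [← hg hx, ← hg hy] at hxy
      exact hr.injOn (hKs hx) (hKs hy) hxy)
    have hb'' : ∀ x ∈ K, b' (f x) = x := fun x hx => by rw [hg hx]; exact (hb' x hx).symm
    constructor
    · have h4 : f '' K = {y | b' y ∈ K ∧ g (b' y) = y} := by
        ext y
        constructor
        · rintro ⟨x, hx, rfl⟩
          refine ⟨by rw [hb'' x hx]; exact hx, by rw [hb'' x hx, hg hx]⟩
        · rintro ⟨h5, h6⟩
          exact ⟨b' y, h5, by rw [hg h5, h6]⟩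
      rw [h4]
      have hb'c := b'.continuous_of_finiteDimensional
      exact (hcl.preimage hb'c).inter
        (isClosed_eq (g.continuous_of_finiteDimensional.comp hb'c) continuous_id)
    · refine (plOn_affine (f '' K) b').congr ?_
      rintro _ ⟨x, hx, rfl⟩
      rw [hr (hKs hx), hb'' x hx]
  have h4 : f '' s = ⋃ K ∈ 𝒞, f '' K := by
    rw [← h2, image_sUnion, sUnion_image]
  rw [h4]
  exact ⟨hfin.isClosed_biUnion fun K hK => (h3 K hK).1,
    PLOn.biUnion hfin (fun K hK => (h3 K hK).1) (fun K hK => (h3 K hK).2)⟩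

/-- a bijective PL map of vector spaces has a PL (in particular continuous) inverse -/
theorem PLOn.inv_univ {f : E → F} (hf : PLOn univ f) {r : F → E}
    (hr : Function.LeftInverse r f) (hr' : Function.RightInverse r f) : PLOn univ r := by
  have h1 := (hf.inv_closed convex_univ.finConv isClosed_univ (r := r) (fun x _ => hr x)).2
  rwa [image_univ, hr'.surjective.range_eq] at h1

/-! ### the bridge to 537 -/

theorem plOn_iff {s : Set E} {f : E → F} : PLOn s f ↔ Ce_537.PLOn f s := by
  constructor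
  · rintro ⟨h1, A, hA, h2⟩
    refine ⟨h1, hA.toFinset, fun x hx => ?_⟩
    obtain ⟨g, hg, e⟩ := h2 x hx
    exact ⟨g, hA.mem_toFinset.2 hg, e⟩
  · rintro ⟨h1, A, h2⟩
    exact ⟨h1, (A : Set _), A.finite_toSet, fun x hx => h2 x hx⟩

/-- an injective PL map on a closed finite union of convex sets is a PL equivalence onto its image -/
def equivOfInjOn {s : Set E} (hs : FinConv s) (hsc : IsClosed s) {f : E → F}
    (hf : Ce_537.PLOn f s) (hi : InjOn f s) : Ce_537.PLEquiv s (f '' s) where
  f := f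
  g := by
    classical
    exact fun y => if h : ∃ x ∈ s, f x = y then h.choose else 0
  pf := hf
  pg := by
    classical
    refine plOn_iff.1 ((plOn_iff.2 hf).inv_closed hs hsc ?_).2
    intro x hx
    have h : ∃ x' ∈ s, f x' = f x := ⟨x, hx, rfl⟩
    show (if h : ∃ x' ∈ s, f x' = f x then h.choose else 0) = x
    rw [dif_pos h]
    exact hi h.choose_spec.1 hx h.choose_spec.2
  mf := mapsTo_image f s
  mg := by
    classical
    rintro _ ⟨x, hx, rfl⟩
    have h : ∃ x' ∈ s, f x' = f x := ⟨x, hx, rfl⟩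
    simp only [dif_pos h]
    exact h.choose_spec.1
  li := by
    classical
    intro x hx
    have h : ∃ x' ∈ s, f x' = f x := ⟨x, hx, rfl⟩
    simp only [dif_pos h]
    exact hi h.choose_spec.1 hx h.choose_spec.2
  ri := by
    classical
    rintro _ ⟨x, hx, rfl⟩
    have h : ∃ x' ∈ s, f x' = f x := ⟨x, hx, rfl⟩
    simp only [dif_pos h]
    exact h.choose_spec.2

@[simp] theorem equivOfInjOn_f {s : Set E} (hs : FinConv s) (hsc : IsClosed s) {f : E → F}
    (hf : Ce_537.PLOn f s) (hi : InjOn f s) : (equivOfInjOn hs hsc hf hi).f = f := rfl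

/-- a bijective PL map between sets, domain a closed finite union of convex sets -/
def equivOfBijOn {s : Set E} {t : Set F} (hs : FinConv s) (hsc : IsClosed s) {f : E → F}
    (hf : Ce_537.PLOn f s) (hb : BijOn f s t) : Ce_537.PLEquiv s t :=
  hb.image_eq ▸ equivOfInjOn hs hsc hf hb.injOn

theorem exists_equiv_of_bijOn {s : Set E} {t : Set F} (hs : FinConv s) (hsc : IsClosed s) {f : E → F}
    (hf : Ce_537.PLOn f s) (hb : BijOn f s t) : ∃ e : Ce_537.PLEquiv s t, e.f = f := by
  obtain rfl := hb.image_eq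
  exact ⟨equivOfInjOn hs hsc hf hb.injOn, rfl⟩

/-- **an injective PL map on the cube is a ball** (no inverse has to be given) -/
theorem isBall_of_injOn {k : ℕ} {φ : (Fin k → ℝ) → E} (h : Ce_537.PLOn φ (Ce_537.cube k))
    (hi : InjOn φ (Ce_537.cube k)) :
    Ce_537.IsBall k (φ '' Ce_537.cube k) (φ '' Ce_537.sph k) :=
  ⟨equivOfInjOn (finConv_closedBall k) isClosed_closedBall h hi, rfl⟩

theorem isBall_iff {k : ℕ} {K dK : Set E} : Ce_537.IsBall k K dK ↔ IsPLBall k K dK := by
  constructor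
  · rintro ⟨e, he⟩
    exact ⟨e.f, plOn_iff.2 e.pf, e.injOn, e.image_eq, he⟩
  · rintro ⟨φ, h1, h2, rfl, rfl⟩
    exact isBall_of_injOn (plOn_iff.1 h1) h2

theorem _root_.Crest.Agent.R096.Ce_537.PLEquiv.finConv {A : Set E} {B : Set F}
    (e : Ce_537.PLEquiv A B) (hA : FinConv A) : FinConv B := by
  rw [← e.image_eq]
  exact (plOn_iff.2 e.pf).finConv_image hA

/-- images of balls under injective PL maps -/
theorem _root_.Crest.Agent.R096.Ce_537.IsBall.image_injOn {k : ℕ} {K dK : Set E}
    (h : Ce_537.IsBall k K dK) {f : E → F} (hf : Ce_537.PLOn f K) (hi : InjOn f K) :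
    Ce_537.IsBall k (f '' K) (f '' dK) :=
  isBall_iff.2 ((isBall_iff.1 h).image (plOn_iff.2 hf) hi)

end

end Crest.Agent.R096.Cx_609
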