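import Crest.Agent.R096.FpDefs_812

/-!
Row 96, P5-FANPATH (helper812): Lipschitz estimates for fan maps and the path lemma.
-/

set_option autoImplicit false

open Module Set Filter
open scoped Topology

namespace Crest.Agent.R096.Fp_812

/-- a map which is `K`-Lipschitz on each of finitely many closed sets covering the space
is `K`-Lipschitz -/
theorem dist_le_of_cover {E F' ι : Type*} [NormedAddCommGroup E] [NormedSpace ℝ E]
    [PseudoMetricSpace F'] [Finite ι] (C : ι → Set E) (hC : ∀ j, IsClosed (C j))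
    (hcov : ∀ x, ∃ j, x ∈ C j) (f : E → F') (K : ℝ)
    (hf : ∀ j, ∀ x ∈ C j, ∀ y ∈ C j, dist (f x) (f y) ≤ K * dist x y) :
    ∀ x y, dist (f x) (f y) ≤ K * dist x y := by
  have hK : ∀ j, ∀ x ∈ C j, ∀ y ∈ C j, dist (f x) (f y) ≤ |K| * dist x y := fun j x hx y hy =>
    (hf j x hx y hy).trans (mul_le_mul_of_nonneg_right (le_abs_self K) dist_nonneg)
  have hcont : Continuous f := by
    have hlf : LocallyFinite C := locallyFinite_of_finite C
    refine hlf.continuous (by ext x; simpa using hcov x) hC fun j => ?_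
    have : LipschitzOnWith (Real.toNNReal |K|) f (C j) := by
      refine LipschitzOnWith.of_dist_le_mul fun x hx y hy => ?_
      rw [Real.coe_toNNReal _ (abs_nonneg K)]
      exact hK j x hx y hy
    exact this.continuousOn
  intro x y
  -- path from x to y
  let γ : ℝ → E := fun t => x + t • (y - x)
  have hγ : Continuous γ := by fun_prop
  have hd : ∀ s t : ℝ, dist (γ s) (γ t) = |s - t| * dist x y := by
    intro s t
    simp only [γ, dist_eq_norm]
    rw [add_sub_add_left_eq_sub, ← sub_smul, norm_smul, Real.norm_eq_abs, norm_sub_rev x y]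
  set S : Set ℝ := {t | dist (f (γ t)) (f (γ 0)) ≤ K * (t * dist x y)} with hS
  have hSc : IsClosed S := by
    refine isClosed_le ?_ ?_
    · exact ((hcont.comp hγ).dist continuous_const)
    · fun_prop
  have h0 : (0 : ℝ) ∈ S := by simp [hS]
  have hsub : Icc (0 : ℝ) 1 ⊆ S := by
    refine IsClosed.Icc_subset_of_forall_exists_gt (hSc.inter isClosed_Icc) h0 ?_
    rintro t ⟨htS, ht⟩ y' hy'
    have hy'' : t < y' := hy'
    have h1 : ∀ᶠ s in 𝓝[>] t, ∀ j, γ s ∈ C j → γ t ∈ C j := by
      rw [Filter.eventually_all]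
      intro j
      by_cases hj : γ t ∈ C j
      · exact Filter.Eventually.of_forall fun s _ => hj
      · have : ∀ᶠ s in 𝓝 t, γ s ∉ C j :=
          hγ.continuousAt.eventually ((hC j).isOpen_compl.mem_nhds hj)
        filter_upwards [nhdsWithin_le_nhds this] with s hs hs'
        exact absurd hs' hs
    have h2 : ∀ᶠ s in 𝓝[>] t, s ∈ Ioc t y' := Ioc_mem_nhdsGT hy''
    obtain ⟨s, hs1, hs2⟩ := (h1.and h2).exists
    refine ⟨s, ?_, hs2⟩
    obtain ⟨j, hj⟩ := hcov (γ s)
    have htj := hs1 j hj
    have e1 := hf j _ hj _ htj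
    rw [hd, abs_of_nonneg (by linarith [hs2.1])] at e1
    have e2 : dist (f (γ t)) (f (γ 0)) ≤ K * (t * dist x y) := htS
    show dist (f (γ s)) (f (γ 0)) ≤ K * (s * dist x y)
    calc dist (f (γ s)) (f (γ 0)) ≤ dist (f (γ s)) (f (γ t)) + dist (f (γ t)) (f (γ 0)) :=
          dist_triangle _ _ _
      _ ≤ K * ((s - t) * dist x y) + K * (t * dist x y) := add_le_add e1 e2
      _ = K * (s * dist x y) := by ring
  have h3 := hsub (right_mem_Icc.2 zero_le_one)
  simp only [hS, mem_ofPred_eq, γ, one_smul, zero_smul, add_zero, add_sub_cancel, one_mul] at h3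
  rw [dist_comm]
  exact h3

namespace Fan

variable {V E : Type*} [Fintype V] [NormedAddCommGroup E] [NormedSpace ℝ E]
  [FiniteDimensional ℝ E] (F : Fan V E)

/-- the basis given by a cell -/
noncomputable def bas {c : Finset V} (hc : c ∈ F.T) : Basis c ℝ E :=
  basisOfLinearIndependentOfCardEqFinrank' _ (F.li hc) (by simp [F.card c hc])

@[simp] theorem bas_apply {c : Finset V} (hc : c ∈ F.T) (i : c) : F.bas hc i = F.v i := by
  simp [bas]

/-- the linear map of a cell -/
noncomputable def lin {G : Type*} [NormedAddCommGroup G] [NormedSpace ℝ G]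
    (c : Finset V) (w : V → G) : E →L[ℝ] G :=
  open Classical in
  if hc : c ∈ F.T then LinearMap.toContinuousLinearMap ((F.bas hc).constr ℝ fun i : c => w i)
  else 0

theorem lin_vertex {G : Type*} [NormedAddCommGroup G] [NormedSpace ℝ G]
    {c : Finset V} (hc : c ∈ F.T) (w : V → G) {i : V} (hi : i ∈ c) : F.lin c w (F.v i) = w i := by
  have h := (F.bas hc).constr_basis ℝ (fun i : c => w i) ⟨i, hi⟩
  rw [bas_apply] at h
  simpa [lin, hc] using h

theorem map_eq_lin {G : Type*} [NormedAddCommGroup G] [NormedSpace ℝ G]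
    {c : Finset V} (hc : c ∈ F.T) (w : V → G) {x : E} (hx : x ∈ F.cone c) :
    F.map w x = F.lin c w x := by
  obtain ⟨a, ha⟩ := hx
  rw [F.map_of_rep w hc ha]
  conv_rhs => rw [← ha.sum]
  rw [map_sum]
  refine Finset.sum_congr rfl fun i _ => ?_
  by_cases hi : i ∈ c
  · rw [ContinuousLinearMap.map_smul, F.lin_vertex hc w hi]
  · simp [ha.off i hi]

theorem ext_cell {G : Type*} [NormedAddCommGroup G] [NormedSpace ℝ G]
    {c : Finset V} (hc : c ∈ F.T) {A B : E →L[ℝ] G} (h : ∀ i ∈ c, A (F.v i) = B (F.v i)) :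
    A = B := by
  have : (A : E →ₗ[ℝ] G) = B := (F.bas hc).ext fun i => by simpa using h i i.2
  ext x
  exact congrArg (fun L : E →ₗ[ℝ] G => L x) this

theorem lin_add {G : Type*} [NormedAddCommGroup G] [NormedSpace ℝ G]
    {c : Finset V} (hc : c ∈ F.T) (w w' : V → G) : F.lin c (w + w') = F.lin c w + F.lin c w' :=
  F.ext_cell hc fun i hi => by simp [F.lin_vertex hc _ hi]

theorem lin_sub {G : Type*} [NormedAddCommGroup G] [NormedSpace ℝ G]
    {c : Finset V} (hc : c ∈ F.T) (w w' : V → G) : F.lin c (w - w') = F.lin c w - F.lin c w' :=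
  F.ext_cell hc fun i hi => by simp [F.lin_vertex hc _ hi]

theorem lin_smul {G : Type*} [NormedAddCommGroup G] [NormedSpace ℝ G]
    {c : Finset V} (hc : c ∈ F.T) (t : ℝ) (w : V → G) : F.lin c (t • w) = t • F.lin c w :=
  F.ext_cell hc fun i hi => by simp [F.lin_vertex hc _ hi]

/-- composition on the left by a linear map -/
theorem lin_comp {G G' : Type*} [NormedAddCommGroup G] [NormedSpace ℝ G]
    [NormedAddCommGroup G'] [NormedSpace ℝ G']
    {c : Finset V} (hc : c ∈ F.T) (w : V → G) (L : G →L[ℝ] G') :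
    F.lin c (fun i => L (w i)) = L.comp (F.lin c w) :=
  F.ext_cell hc fun i hi => by simp [F.lin_vertex hc _ hi]

/-- the linear map of a cell depends continuously on the images of the vertices -/
theorem continuous_lin {G : Type*} [NormedAddCommGroup G] [NormedSpace ℝ G]
    [FiniteDimensional ℝ G] (c : Finset V) : Continuous fun w : V → G => F.lin c w := by
  classical
  by_cases hc : c ∈ F.T
  · let Φ : (V → G) →ₗ[ℝ] (E →L[ℝ] G) :=
      { toFun := fun w => F.lin c w
        map_add' := fun w w' => F.lin_add hc w w'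
        map_smul' := fun t w => F.lin_smul hc t w }
    exact Φ.continuous_of_finiteDimensional
  · have : (fun w : V → G => F.lin c w) = fun _ => 0 := by
      funext w; simp [lin, hc]
    rw [this]; exact continuous_const

/-- cones of cells are closed -/
theorem isClosed_cone {c : Finset V} (hc : c ∈ F.T) : IsClosed (F.cone c) := by
  classical
  have : F.cone c = ⋂ i : c, {x : E | 0 ≤ (F.bas hc).repr x i} := by
    ext x
    simp only [mem_iInter, mem_ofPred_eq]
    constructor
    · rintro ⟨a, ha⟩ i
      have h1 : x = ∑ j : c, a j • F.bas hc j := by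
        rw [← ha.sum, ← Finset.sum_subset (Finset.subset_univ c)]
        · rw [← Finset.sum_coe_sort]
          exact Finset.sum_congr rfl fun j _ => by simp
        · intro j _ hj; simp [ha.off j hj]
      rw [h1, Basis.repr_sum_self]
      exact ha.nonneg i
    · intro h
      refine ⟨fun j => if hj : j ∈ c then (F.bas hc).repr x ⟨j, hj⟩ else 0, ?_, ?_, ?_⟩
      · intro j
        by_cases hj : j ∈ c
        · simpa [hj] using h ⟨j, hj⟩
        · simp [hj]
      · intro j hj; simp [hj]
      · conv_rhs => rw [← (F.bas hc).sum_repr x]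
        rw [← Finset.sum_subset (Finset.subset_univ c)]
        · rw [← Finset.sum_coe_sort]
          exact Finset.sum_congr rfl fun j _ => by simp
        · intro j _ hj; simp [hj]
  rw [this]
  refine isClosed_iInter fun i => isClosed_le continuous_const ?_
  have : Continuous ((F.bas hc).coord i) := LinearMap.continuous_of_finiteDimensional _
  exact this

/-- Lipschitz bound of a fan map -/
theorem dist_map_le {G : Type*} [NormedAddCommGroup G] [NormedSpace ℝ G] (w : V → G) (K : ℝ)
    (hK : ∀ c ∈ F.T, ‖F.lin c w‖ ≤ K) (x y : E) :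
    dist (F.map w x) (F.map w y) ≤ K * dist x y := by
  refine dist_le_of_cover (fun c : F.T => F.cone c.1) (fun c => F.isClosed_cone c.2)
    (fun x => ?_) (F.map w) K (fun c x hx y hy => ?_) x y
  · obtain ⟨c, hc, hx⟩ := F.exists_cone x
    exact ⟨⟨c, hc⟩, hx⟩
  · rw [F.map_eq_lin c.2 w hx, F.map_eq_lin c.2 w hy, dist_eq_norm, ← map_sub, dist_eq_norm]
    exact ((F.lin c.1 w).le_opNorm _).trans
      (mul_le_mul_of_nonneg_right (hK c.1 c.2) (norm_nonneg _))

theorem continuous_map {G : Type*} [NormedAddCommGroup G] [NormedSpace ℝ G] (w : V → G) :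
    Continuous (F.map w) := by
  obtain ⟨K, hK⟩ : ∃ K : ℝ, ∀ c ∈ F.T, ‖F.lin c w‖ ≤ K :=
    ⟨∑ c ∈ F.T, ‖F.lin c w‖, fun c hc =>
      Finset.single_le_sum (f := fun c => ‖F.lin c w‖) (fun _ _ => norm_nonneg _) hc⟩
  have : LipschitzWith (Real.toNNReal K) (F.map w) := by
    refine LipschitzWith.of_dist_le_mul fun x y => ?_
    refine (F.dist_map_le w K hK x y).trans ?_
    exact mul_le_mul_of_nonneg_right (Real.le_coe_toNNReal K) dist_nonneg
  exact this.continuous

/-- a bijective fan map is antilipschitz, with the norms of the inverses on the cells -/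
theorem dist_le_map (w : V → E) (hb : Function.Bijective (F.map w)) (m : ℝ)
    (hm : ∀ c ∈ F.T, ∀ x, m * ‖x‖ ≤ ‖F.lin c w x‖) (hm0 : 0 < m) (x y : E) :
    m * dist x y ≤ dist (F.map w x) (F.map w y) := by
  let e := Equiv.ofBijective _ hb
  have he : ∀ x, e x = F.map w x := fun x => rfl
  have key : ∀ p q : E, dist (e.symm p) (e.symm q) ≤ m⁻¹ * dist p q := by
    refine dist_le_of_cover (fun c : F.T => F.map w '' F.cone c.1) (fun c => ?_) (fun p => ?_)
      e.symm m⁻¹ (fun c p hp q hq => ?_)
    · -- closed: linear image of a closed cone by an injective linear map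
      have h1 : F.map w '' F.cone c.1 = F.lin c.1 w '' F.cone c.1 :=
        image_congr fun x hx => F.map_eq_lin c.2 w hx
      simp only [h1]
      have hinj : Function.Injective (F.lin c.1 w) := by
        rw [injective_iff_map_eq_zero]
        intro x hx
        have := hm c.1 c.2 x
        rw [hx, norm_zero] at this
        have h2 : ‖x‖ ≤ 0 := by
          by_contra h; push Not at h
          have := mul_pos hm0 h
          linarith
        simpa using h2
      exact (LinearMap.isClosedEmbedding_of_injective (f := (F.lin c.1 w : E →ₗ[ℝ] E))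
        (LinearMap.ker_eq_bot.2 hinj)).isClosedMap _ (F.isClosed_cone c.2)
    · obtain ⟨x, rfl⟩ := hb.2 p
      obtain ⟨c, hc, hx⟩ := F.exists_cone x
      exact ⟨⟨c, hc⟩, x, hx, rfl⟩
    · obtain ⟨x, hx, rfl⟩ := hp
      obtain ⟨y, hy, rfl⟩ := hq
      rw [← he, ← he, e.symm_apply_apply, e.symm_apply_apply, he, he, F.map_eq_lin c.2 w hx,
        F.map_eq_lin c.2 w hy, dist_eq_norm, dist_eq_norm, ← map_sub]
      have := hm c.1 c.2 (x - y)
      rw [inv_mul_eq_div, le_div_iff₀ hm0]
      linarith
  have := key (F.map w x) (F.map w y)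
  rw [← he, ← he, e.symm_apply_apply, e.symm_apply_apply] at this
  rw [inv_mul_eq_div, le_div_iff₀ hm0] at this
  rw [he, he] at this
  linarith

end Fan

end Crest.Agent.R096.Fp_812
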