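import Crest.Agent.R096.Fan4_696
import Crest.Agent.R096.Fp1_812
import Crest.Agent.R096.Cx3_609

/-!
# R096 (row 96), POLYBALL, part 1: compact convex polytopes are PL balls (helper715)

`isBall_core`: `K = {y | y - x ∈ W, l (y - x) ≤ 1 for l ∈ N}` bounded is a PL ball of dimension
`finrank W` whose boundary sphere is the set where some `l ∈ N` has the value `1`.
-/

set_option autoImplicit false

open Set Metric Module
open scoped Classical

namespace Crest.Agent.R096.Pb_715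

open Fp_812 Ce_537

section fan

variable {V E : Type*} [Fintype V] [NormedAddCommGroup E] [NormedSpace ℝ E]
  [FiniteDimensional ℝ E] (F : Fan V E)

/-- the value of a function which is linear on the cells, in coordinates -/
theorem val_of_rep {p : E → ℝ} (hp : ∀ c ∈ F.T, ∃ L : E →L[ℝ] ℝ, ∀ x ∈ F.cone c, p x = L x)
    {c : Finset V} (hc : c ∈ F.T) {a : V → ℝ} {x : E} (h : Rep F.v c a x) :
    p x = ∑ i, a i * p (F.v i) := by
  obtain ⟨L, hL⟩ := hp c hc
  have h1 : p x = L x := hL x ⟨a, h⟩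
  rw [h1, ← h.sum, map_sum]
  refine Finset.sum_congr rfl fun i _ => ?_
  by_cases hi : i ∈ c
  · have h2 : p (F.v i) = L (F.v i) := hL _ ⟨_, Rep.self hi⟩
    rw [map_smul, h2, smul_eq_mul]
  · rw [h.off i hi]; simp

/-- `F.map w` is PL on every set -/
theorem plOn_map {G : Type*} [NormedAddCommGroup G] [NormedSpace ℝ G] (w : V → G) (K : Set E) :
    PLOn (F.map w) K := by
  refine ⟨(F.continuous_map w).continuousOn,
    F.T.image fun c => (F.lin c w : E →ₗ[ℝ] G).toAffineMap, fun x _ => ?_⟩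
  obtain ⟨c, hc, hx⟩ := F.exists_cone x
  exact ⟨_, Finset.mem_image_of_mem _ hc, F.map_eq_lin hc w hx⟩

/-- scaling the generators by nonnegative factors -/
theorem rep_scale {r : V → ℝ} (hr : ∀ i, 0 ≤ r i) {c : Finset V} {a : V → ℝ} {x : E}
    (h : Rep F.v c a x) :
    Rep F.v c (fun i => a i * r i) (∑ i, a i • (r i • F.v i)) where
  nonneg i := mul_nonneg (h.nonneg i) (hr i)
  off i hi := by simp [h.off i hi]
  sum := by simp [mul_smul]

variable {p q : E → ℝ}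

/-- **radial rescaling, interpolated**: for two positive functions which are linear on the cells
there is a PL bijection which transports one to the other -/
theorem exists_rescale (hv : ∀ i, F.v i ≠ 0)
    (hp : ∀ c ∈ F.T, ∃ L : E →L[ℝ] ℝ, ∀ x ∈ F.cone c, p x = L x)
    (hq : ∀ c ∈ F.T, ∃ L : E →L[ℝ] ℝ, ∀ x ∈ F.cone c, q x = L x)
    (hp0 : ∀ x, x ≠ 0 → 0 < p x) (hq0 : ∀ x, x ≠ 0 → 0 < q x) :
    ∃ f g : E → E, (∀ K, PLOn f K) ∧ (∀ K, PLOn g K) ∧ (∀ x, g (f x) = x) ∧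
      (∀ x, f (g x) = x) ∧ ∀ x, p (f x) = q x := by
  have key : ∀ (p q : E → ℝ), (∀ x, x ≠ 0 → 0 < p x) → (∀ x, x ≠ 0 → 0 < q x) →
      ∀ x, F.map (fun i => (p (F.v i) / q (F.v i)) • F.v i)
        (F.map (fun i => (q (F.v i) / p (F.v i)) • F.v i) x) = x := by
    intro p q hp0 hq0 x
    have h := F.co_rep x
    have hr : ∀ i, 0 ≤ q (F.v i) / p (F.v i) := fun i =>
      div_nonneg (hq0 _ (hv i)).le (hp0 _ (hv i)).le
    have h2 := rep_scale F hr h
    have e1 : F.map (fun i => (q (F.v i) / p (F.v i)) • F.v i) x =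
        ∑ i, F.co x i • ((q (F.v i) / p (F.v i)) • F.v i) := rfl
    rw [e1, F.map_of_rep _ (F.cell_mem x) h2]
    conv_rhs => rw [← h.sum]
    refine Finset.sum_congr rfl fun i _ => ?_
    have h3 := (hp0 _ (hv i)).ne'
    have h4 := (hq0 _ (hv i)).ne'
    rw [smul_smul]
    congr 1
    field_simp
  refine ⟨F.map (fun i => (q (F.v i) / p (F.v i)) • F.v i),
    F.map (fun i => (p (F.v i) / q (F.v i)) • F.v i), fun K => plOn_map F _ K,
    fun K => plOn_map F _ K, key p q hp0 hq0, key q p hq0 hp0, fun x => ?_⟩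
  have h := F.co_rep x
  have hr : ∀ i, 0 ≤ q (F.v i) / p (F.v i) := fun i =>
    div_nonneg (hq0 _ (hv i)).le (hp0 _ (hv i)).le
  have h2 := rep_scale F hr h
  have e1 : F.map (fun i => (q (F.v i) / p (F.v i)) • F.v i) x =
      ∑ i, F.co x i • ((q (F.v i) / p (F.v i)) • F.v i) := rfl
  rw [e1, val_of_rep F hp (F.cell_mem x) h2, val_of_rep F hq (F.cell_mem x) h]
  refine Finset.sum_congr rfl fun i _ => ?_
  have h3 := (hp0 _ (hv i)).ne'
  field_simp

/-- a finite set of forms whose differences have constant signs on the cell has a maximum on the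
cell -/
theorem exists_max {N : Finset (E →L[ℝ] ℝ)} (hN : N.Nonempty) {c : Finset V}
    (hsign : ∀ l ∈ N, ∀ l' ∈ N, (∀ i ∈ c, 0 ≤ (l - l') (F.v i)) ∨ (∀ i ∈ c, (l - l') (F.v i) ≤ 0)) :
    ∃ m ∈ N, ∀ l ∈ N, ∀ x ∈ F.cone c, l x ≤ m x := by
  -- on the generators first
  have h1 : ∃ m ∈ N, ∀ l ∈ N, ∀ i ∈ c, l (F.v i) ≤ m (F.v i) := by
    induction hN using Finset.Nonempty.cons_induction with
    | singleton a => exact ⟨a, by simp, by simp⟩
    | cons a s ha hs ih =>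
      obtain ⟨m, hm, hmm⟩ := ih fun l hl l' hl' =>
        hsign l (Finset.mem_cons_of_mem hl) l' (Finset.mem_cons_of_mem hl')
      rcases hsign a (Finset.mem_cons_self a s) m (Finset.mem_cons_of_mem hm) with h | h
      · refine ⟨a, Finset.mem_cons_self a s, fun l hl i hi => ?_⟩
        rcases Finset.mem_cons.1 hl with rfl | hl
        · exact le_rfl
        · have := h i hi
          simp only [ContinuousLinearMap.sub_apply] at this
          have h2 := hmm l hl i hi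
          linarith
      · refine ⟨m, Finset.mem_cons_of_mem hm, fun l hl i hi => ?_⟩
        rcases Finset.mem_cons.1 hl with rfl | hl
        · have := h i hi
          simp only [ContinuousLinearMap.sub_apply] at this
          linarith
        · exact hmm l hl i hi
  obtain ⟨m, hm, hmm⟩ := h1
  refine ⟨m, hm, fun l hl x hx => ?_⟩
  obtain ⟨a, ha⟩ := hx
  rw [← ha.sum, map_sum, map_sum]
  refine Finset.sum_le_sum fun i _ => ?_
  rw [map_smul, map_smul, smul_eq_mul, smul_eq_mul]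
  by_cases hi : i ∈ c
  · exact mul_le_mul_of_nonneg_left (hmm l hl i hi) (ha.nonneg i)
  · rw [ha.off i hi]; simp

end fan

section model

variable {E : Type*} [NormedAddCommGroup E] [NormedSpace ℝ E] [FiniteDimensional ℝ E]

/-- two positive maxima of finitely many forms are related by a PL bijection of the space -/
theorem exists_rescale_max {p q : E → ℝ} {N M : Finset (E →L[ℝ] ℝ)}
    (hp : ∀ x, ∀ l ∈ N, l x ≤ p x) (hp' : ∀ x, ∃ l ∈ N, p x = l x)
    (hq : ∀ x, ∀ l ∈ M, l x ≤ q x) (hq' : ∀ x, ∃ l ∈ M, q x = l x)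
    (hp0 : ∀ x, x ≠ 0 → 0 < p x) (hq0 : ∀ x, x ≠ 0 → 0 < q x) :
    ∃ f g : E → E, (∀ K, PLOn f K) ∧ (∀ K, PLOn g K) ∧ (∀ x, g (f x) = x) ∧
      (∀ x, f (g x) = x) ∧ ∀ x, p (f x) = q x := by
  have hid : Str_696.Conic (fun x : E => x) {ContinuousLinearMap.id ℝ E} :=
    ⟨continuous_id, fun _ _ _ => rfl, fun v => ⟨_, Finset.mem_singleton_self _, rfl⟩⟩
  obtain ⟨V, hV, F, -, -, hv, hsign⟩ := Fan_696.exists_Fan hid
    (((N ×ˢ N).image fun r => r.1 - r.2) ∪ ((M ×ˢ M).image fun r => r.1 - r.2))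
  have hsN : ∀ c ∈ F.T, ∀ l ∈ N, ∀ l' ∈ N,
      (∀ i ∈ c, 0 ≤ (l - l') (F.v i)) ∨ (∀ i ∈ c, (l - l') (F.v i) ≤ 0) :=
    fun c hc l hl l' hl' => hsign c hc (l - l') (Finset.mem_union_left _
      (Finset.mem_image.2 ⟨(l, l'), Finset.mem_product.2 ⟨hl, hl'⟩, rfl⟩))
  have hsM : ∀ c ∈ F.T, ∀ l ∈ M, ∀ l' ∈ M,
      (∀ i ∈ c, 0 ≤ (l - l') (F.v i)) ∨ (∀ i ∈ c, (l - l') (F.v i) ≤ 0) :=
    fun c hc l hl l' hl' => hsign c hc (l - l') (Finset.mem_union_right _
      (Finset.mem_image.2 ⟨(l, l'), Finset.mem_product.2 ⟨hl, hl'⟩, rfl⟩))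
  have hlin : ∀ {p : E → ℝ} {N : Finset (E →L[ℝ] ℝ)}, (∀ x, ∀ l ∈ N, l x ≤ p x) →
      (∀ x, ∃ l ∈ N, p x = l x) → (∀ c ∈ F.T, ∀ l ∈ N, ∀ l' ∈ N,
      (∀ i ∈ c, 0 ≤ (l - l') (F.v i)) ∨ (∀ i ∈ c, (l - l') (F.v i) ≤ 0)) →
      ∀ c ∈ F.T, ∃ L : E →L[ℝ] ℝ, ∀ x ∈ F.cone c, p x = L x := by
    intro p N hp hp' hs c hc
    have hNe : N.Nonempty := by
      obtain ⟨l, hl, -⟩ := hp' 0
      exact ⟨l, hl⟩
    obtain ⟨m, hm, hmm⟩ := exists_max F hNe (hs c hc)
    refine ⟨m, fun x hx => le_antisymm ?_ (hp x m hm)⟩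
    obtain ⟨l, hl, e⟩ := hp' x
    rw [e]
    exact hmm l hl x hx
  exact exists_rescale F hv (hlin hp hp' hsN) (hlin hq hq' hsM) hp0 hq0

/-- the maximum of finitely many forms and of `0` -/
noncomputable def mx (N : Finset (E →L[ℝ] ℝ)) (x : E) : ℝ :=
  (insert 0 N).sup' (Finset.insert_nonempty 0 N) fun l => l x

theorem le_mx (N : Finset (E →L[ℝ] ℝ)) (x : E) : ∀ l ∈ insert 0 N, l x ≤ mx N x :=
  fun _ hl => Finset.le_sup' (fun l : E →L[ℝ] ℝ => l x) hl

theorem exists_mx (N : Finset (E →L[ℝ] ℝ)) (x : E) : ∃ l ∈ insert 0 N, mx N x = l x := by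
  obtain ⟨l, hl, e⟩ := Finset.exists_mem_eq_sup' (Finset.insert_nonempty 0 N)
    (fun l : E →L[ℝ] ℝ => l x)
  exact ⟨l, hl, e⟩

theorem mx_nonneg (N : Finset (E →L[ℝ] ℝ)) (x : E) : 0 ≤ mx N x := by
  have := le_mx N x 0 (Finset.mem_insert_self _ _)
  simpa using this

theorem mx_le_iff (N : Finset (E →L[ℝ] ℝ)) (x : E) : mx N x ≤ 1 ↔ ∀ l ∈ N, l x ≤ 1 := by
  constructor
  · intro h l hl
    exact (le_mx N x l (Finset.mem_insert_of_mem hl)).trans h
  · intro h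
    obtain ⟨l, hl, e⟩ := exists_mx N x
    rw [e]
    rcases Finset.mem_insert.1 hl with rfl | hl
    · simp
    · exact h l hl

theorem mx_eq_iff (N : Finset (E →L[ℝ] ℝ)) (x : E) :
    mx N x = 1 ↔ (∀ l ∈ N, l x ≤ 1) ∧ ∃ l ∈ N, l x = 1 := by
  constructor
  · intro h
    refine ⟨(mx_le_iff N x).1 h.le, ?_⟩
    obtain ⟨l, hl, e⟩ := exists_mx N x
    rcases Finset.mem_insert.1 hl with rfl | hl
    · rw [h] at e; simp at e
    · exact ⟨l, hl, by rw [← e, h]⟩
  · rintro ⟨h1, l, hl, e⟩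
    refine le_antisymm ((mx_le_iff N x).2 h1) ?_
    rw [← e]
    exact le_mx N x l (Finset.mem_insert_of_mem hl)

theorem mx_smul (N : Finset (E →L[ℝ] ℝ)) {t : ℝ} (ht : 0 ≤ t) (x : E) :
    mx N (t • x) = t * mx N x := by
  apply le_antisymm
  · obtain ⟨l, hl, e⟩ := exists_mx N (t • x)
    rw [e, map_smul, smul_eq_mul]
    exact mul_le_mul_of_nonneg_left (le_mx N x l hl) ht
  · obtain ⟨l, hl, e⟩ := exists_mx N x
    rw [e, ← smul_eq_mul, ← map_smul]
    exact le_mx N (t • x) l hl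

theorem mx_pos {N : Finset (E →L[ℝ] ℝ)} (hb : Bornology.IsBounded {x : E | ∀ l ∈ N, l x ≤ 1})
    {x : E} (hx : x ≠ 0) : 0 < mx N x := by
  by_contra hcon
  have h0 : mx N x = 0 := le_antisymm (not_lt.1 hcon) (mx_nonneg N x)
  obtain ⟨R, hR⟩ := hb.subset_closedBall (0 : E)
  have hxn : 0 < ‖x‖ := norm_pos_iff.2 hx
  have h1 : ((|R| + 1) / ‖x‖) • x ∈ closedBall (0 : E) R := by
    apply hR
    have : mx N (((|R| + 1) / ‖x‖) • x) ≤ 1 := by
      rw [mx_smul N (by positivity), h0, mul_zero]; norm_num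
    exact (mx_le_iff N _).1 this
  rw [mem_closedBall_zero_iff, norm_smul, Real.norm_eq_abs, abs_of_nonneg (by positivity),
    div_mul_cancel₀ _ hxn.ne'] at h1
  linarith [le_abs_self R]

/-- the model: a bounded polytope of `Fin k → ℝ` around `0` -/
theorem isBall_model {k : ℕ} {N : Finset ((Fin k → ℝ) →L[ℝ] ℝ)}
    (hb : Bornology.IsBounded {x : Fin k → ℝ | ∀ l ∈ N, l x ≤ 1}) :
    IsBall k {x : Fin k → ℝ | ∀ l ∈ N, l x ≤ 1}
      {x : Fin k → ℝ | (∀ l ∈ N, l x ≤ 1) ∧ ∃ l ∈ N, l x = 1} := by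
  -- the forms of the cube
  let M : Finset ((Fin k → ℝ) →L[ℝ] ℝ) :=
    insert 0 ((Finset.univ : Finset (Fin k × Bool)).image fun r =>
      (if r.2 then (1 : ℝ) else -1) • ContinuousLinearMap.proj (R := ℝ) (φ := fun _ : Fin k => ℝ) r.1)
  have hq : ∀ x : Fin k → ℝ, ∀ l ∈ M, l x ≤ ‖x‖ := by
    intro x l hl
    rcases Finset.mem_insert.1 hl with rfl | hl
    · simp
    · obtain ⟨⟨i, b⟩, -, rfl⟩ := Finset.mem_image.1 hl
      have h1 : |x i| ≤ ‖x‖ := by
        rw [← Real.norm_eq_abs]; exact norm_le_pi_norm x i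
      cases b
      · have : -x i ≤ |x i| := neg_le_abs _
        simpa using this.trans h1
      · have : x i ≤ |x i| := le_abs_self _
        simpa using this.trans h1
  have hq' : ∀ x : Fin k → ℝ, ∃ l ∈ M, ‖x‖ = l x := by
    intro x
    by_cases hx : x = 0
    · exact ⟨0, Finset.mem_insert_self _ _, by simp [hx]⟩
    · obtain ⟨i, hi⟩ := exists_coord hx
      refine ⟨(if decide (0 ≤ x i) then (1 : ℝ) else -1) •
        ContinuousLinearMap.proj (R := ℝ) (φ := fun _ : Fin k => ℝ) i,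
        Finset.mem_insert_of_mem (Finset.mem_image.2 ⟨(i, decide (0 ≤ x i)), Finset.mem_univ _,
          rfl⟩), ?_⟩
      rw [hi]
      by_cases h0 : 0 ≤ x i
      · simp [h0, abs_of_nonneg h0]
      · simp [h0, abs_of_neg (not_le.1 h0)]
  obtain ⟨f, g, hf, hg, hgf, hfg, hpf⟩ := exists_rescale_max (p := mx N) (q := fun x => ‖x‖)
    (N := insert 0 N) (M := M) (le_mx N) (exists_mx N) hq hq' (fun x hx => mx_pos hb hx)
    (fun x hx => norm_pos_iff.2 hx)
  have hpg : ∀ x, ‖g x‖ = mx N x := fun x => by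
    have := hpf (g x)
    rw [hfg] at this
    exact this.symm
  refine ⟨⟨f, g, hf _, hg _, ?_, ?_, fun x _ => hgf x, fun x _ => hfg x⟩, ?_⟩
  · intro x hx
    show ∀ l ∈ N, l (f x) ≤ 1
    rw [← mx_le_iff, hpf]
    simpa using hx
  · intro x hx
    have : mx N x ≤ 1 := (mx_le_iff N x).2 hx
    rw [cube, mem_closedBall_zero_iff, hpg]
    exact this
  · ext y
    constructor
    · rintro ⟨x, hx, rfl⟩
      show (∀ l ∈ N, l (f x) ≤ 1) ∧ ∃ l ∈ N, l (f x) = 1
      rw [← mx_eq_iff, hpf]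
      simpa using hx
    · intro hy
      have : mx N y = 1 := (mx_eq_iff N y).2 hy
      refine ⟨g y, ?_, hfg y⟩
      rw [sph, mem_sphere_zero_iff_norm, hpg]
      exact this

/-- **compact convex polytopes are PL balls**, working form -/
theorem isBall_core (x : E) (W : Submodule ℝ E) (N : Finset (E →L[ℝ] ℝ)) {K dK : Set E}
    (hK : ∀ y, y ∈ K ↔ y - x ∈ W ∧ ∀ l ∈ N, l (y - x) ≤ 1)
    (hdK : ∀ y, y ∈ dK ↔ y ∈ K ∧ ∃ l ∈ N, l (y - x) = 1) (hb : Bornology.IsBounded K) :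
    IsBall (finrank ℝ W) K dK := by
  let b : W ≃L[ℝ] (Fin (finrank ℝ W) → ℝ) :=
    ((finBasis ℝ W).equivFun : W ≃ₗ[ℝ] (Fin (finrank ℝ W) → ℝ)).toContinuousLinearEquiv
  let j : (Fin (finrank ℝ W) → ℝ) →L[ℝ] E := W.subtypeL.comp b.symm.toContinuousLinearMap
  have hj : ∀ v, j v ∈ W := fun v => (b.symm v).2
  have hji : Function.Injective j := fun v w e => b.symm.injective (Subtype.ext e)
  have hjs : ∀ w ∈ W, ∃ v, j v = w := fun w hw => ⟨b ⟨w, hw⟩, by
    show ((b.symm (b ⟨w, hw⟩) : W) : E) = w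
    rw [b.symm_apply_apply]⟩
  let φ : (Fin (finrank ℝ W) → ℝ) →ᵃ[ℝ] E :=
    (j : (Fin (finrank ℝ W) → ℝ) →ₗ[ℝ] E).toAffineMap + AffineMap.const ℝ _ x
  have hφ : ∀ v, φ v = j v + x := fun v => rfl
  have hφi : Function.Injective φ := fun v w e => by
    rw [hφ, hφ] at e
    exact hji (add_right_cancel e)
  let N' : Finset ((Fin (finrank ℝ W) → ℝ) →L[ℝ] ℝ) := N.image fun l => l.comp j
  have e1 : φ '' {v | ∀ l ∈ N', l v ≤ 1} = K := by
    ext y
    rw [hK]
    constructor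
    · rintro ⟨v, hv, rfl⟩
      rw [hφ, add_sub_cancel_right]
      exact ⟨hj v, fun l hl => hv _ (Finset.mem_image_of_mem _ hl)⟩
    · rintro ⟨h1, h2⟩
      obtain ⟨v, hv⟩ := hjs _ h1
      refine ⟨v, ?_, by rw [hφ, hv]; abel⟩
      intro l hl
      obtain ⟨l', hl', rfl⟩ := Finset.mem_image.1 hl
      show l' (j v) ≤ 1
      rw [hv]
      exact h2 l' hl'
  have e2 : φ '' {v | (∀ l ∈ N', l v ≤ 1) ∧ ∃ l ∈ N', l v = 1} = dK := by
    ext y
    rw [hdK, hK]
    constructor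
    · rintro ⟨v, ⟨hv, l, hl, e⟩, rfl⟩
      rw [hφ, add_sub_cancel_right]
      obtain ⟨l', hl', rfl⟩ := Finset.mem_image.1 hl
      exact ⟨⟨hj v, fun l hl => hv _ (Finset.mem_image_of_mem _ hl)⟩, l', hl', e⟩
    · rintro ⟨⟨h1, h2⟩, l', hl', e⟩
      obtain ⟨v, hv⟩ := hjs _ h1
      refine ⟨v, ⟨?_, _, Finset.mem_image_of_mem _ hl', ?_⟩, by rw [hφ, hv]; abel⟩
      · intro l hl
        obtain ⟨l', hl', rfl⟩ := Finset.mem_image.1 hl
        show l' (j v) ≤ 1
        rw [hv]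
        exact h2 l' hl'
      · show l' (j v) = 1
        rw [hv]
        exact e
  have hb' : Bornology.IsBounded {v : Fin (finrank ℝ W) → ℝ | ∀ l ∈ N', l v ≤ 1} := by
    have h1 : {v : Fin (finrank ℝ W) → ℝ | ∀ l ∈ N', l v ≤ 1} = φ ⁻¹' K := by
      rw [← e1, preimage_image_eq _ hφi]
    obtain ⟨C, hC0, hC⟩ : ∃ C : ℝ, 0 < C ∧ ∀ v, ‖v‖ ≤ C * ‖j v‖ := by
      obtain ⟨C, hC⟩ := b.toContinuousLinearMap.bound
      refine ⟨C, hC.1, fun v => ?_⟩
      have := hC.2 (b.symm v)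
      have h3 : b.toContinuousLinearMap (b.symm v) = v := b.apply_symm_apply v
      rw [h3] at this
      exact this
    obtain ⟨R, hR⟩ := hb.subset_closedBall x
    rw [h1]
    refine (isBounded_closedBall (x := (0 : Fin (finrank ℝ W) → ℝ)) (r := C * R)).subset ?_
    intro v hv
    have h2 := hR hv
    rw [mem_closedBall, dist_eq_norm, hφ, add_sub_cancel_right] at h2
    rw [mem_closedBall_zero_iff]
    exact (hC v).trans (mul_le_mul_of_nonneg_left h2 hC0.le)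
  have h1 := isBall_model hb'
  have h2 := h1.image_injOn (plOn_affine φ _) hφi.injOn
  have e1' : (fun v => φ v) '' {v | ∀ l ∈ N', l v ≤ 1} = K := e1
  have e2' : (fun v => φ v) '' {v | (∀ l ∈ N', l v ≤ 1) ∧ ∃ l ∈ N', l v = 1} = dK := e2
  rw [e1', e2'] at h2
  exact h2

end model

end Crest.Agent.R096.Pb_715
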