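import Crest.Agent.R096.Ar2_241
import Crest.Agent.R096.Pb1_715

/-!
# R096 (row 96), ARR part 3 (helper241): chain cones over a linear model are balls

`ball_of_model`: `L : (I → ℝ) → ℝ^m` linear such that every vector is the image of exactly one chain
weight.  Then `{l chain weight, ∑ l ≤ 1}` is a PL `m`-ball with boundary `{∑ l = 1}`.
`link`: for a convex cell complex of an open set: the order complex of the cells above `q` is a PL
sphere of dimension `n - dim q - 1` (`finrank E - finrank (dirW C q)`).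
-/

set_option autoImplicit false
set_option linter.unusedSectionVars false
set_option linter.unusedVariables false

open Set Metric Topology Module
open scoped Classical

namespace Crest.Agent.R096.Ar_241

open Crest.Agent.R096.Xp_537
open Crest.Agent.R096.Ce_537 (PLOn PLEquiv cube sph IsBall plOn_affine plOn_biUnion)

section model

variable {I : Type*} [PartialOrder I] [Fintype I]

lemma chn_iff (l : I → ℝ) : Chn l ↔ (∀ i, 0 ≤ l i) ∧ ∀ i j, ¬ (i ≤ j ∨ j ≤ i) → l i * l j = 0 := by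
  constructor
  · intro h
    refine ⟨h.nn, fun i j hij => ?_⟩
    by_contra hne
    exact hij (h.ch i j (left_ne_zero_of_mul hne) (right_ne_zero_of_mul hne))
  · rintro ⟨h1, h2⟩
    refine ⟨h1, fun i j hi hj => ?_⟩
    by_contra hne
    exact mul_ne_zero hi hj (h2 i j hne)

lemma isClosed_chn : IsClosed {l : I → ℝ | Chn l} := by
  have : {l : I → ℝ | Chn l} = (⋂ i, {l | 0 ≤ l i}) ∩
      ⋂ i, ⋂ j, ⋂ (_ : ¬ (i ≤ j ∨ j ≤ i)), {l | l i * l j = 0} := by
    ext l
    simp only [mem_setOf_eq, chn_iff, mem_inter_iff, mem_iInter]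
  rw [this]
  refine (isClosed_iInter fun i => isClosed_le continuous_const (continuous_apply i)).inter
    (isClosed_iInter fun i => isClosed_iInter fun j => isClosed_iInter fun _ =>
      isClosed_eq (by fun_prop) continuous_const)

lemma Chn.smul {l : I → ℝ} (h : Chn l) {t : ℝ} (ht : 0 ≤ t) : Chn (t • l) where
  nn i := mul_nonneg ht (h.nn i)
  ch i j hi hj := h.ch i j (right_ne_zero_of_mul hi) (right_ne_zero_of_mul hj)

lemma Chn.eq_zero {l : I → ℝ} (h : Chn l) (hs : ∑ i, l i = 0) : l = 0 := by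
  funext i
  exact (Finset.sum_eq_zero_iff_of_nonneg fun i _ => h.nn i).1 hs i (Finset.mem_univ i)

variable {m : ℕ} (L : (I → ℝ) →ₗ[ℝ] (Fin m → ℝ))
  (hL : ∀ a, ∃ l, Chn l ∧ L l = a) (hU : ∀ l l', Chn l → Chn l' → L l = L l' → l = l')

include hU in
/-- linear left inverses on the chains -/
lemma exists_inv (c : Finset I) (hc : ∀ i ∈ c, ∀ j ∈ c, i ≤ j ∨ j ≤ i) :
    ∃ A : (Fin m → ℝ) →L[ℝ] (I → ℝ), ∀ l : I → ℝ, (∀ i, i ∉ c → l i = 0) → A (L l) = l := by
  set S : Submodule ℝ (I → ℝ) :=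
    { carrier := {l | ∀ i, i ∉ c → l i = 0}
      add_mem' := fun {a b} ha hb i hi => by simp [ha i hi, hb i hi]
      zero_mem' := fun i _ => rfl
      smul_mem' := fun t a ha i hi => by simp [ha i hi] } with hS
  have hmem : ∀ l : I → ℝ, l ∈ S ↔ ∀ i, i ∉ c → l i = 0 := fun l => Iff.rfl
  have hinj : LinearMap.ker (L.comp S.subtype) = ⊥ := by
    rw [LinearMap.ker_eq_bot']
    rintro ⟨l, hl⟩ h0
    have h0' : L l = 0 := h0
    have hp : Chn (fun i => max (l i) 0) := by
      refine ⟨fun i => le_max_right _ _, fun i j hi hj => ?_⟩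
      refine hc i ?_ j ?_
      · by_contra h; exact hi (by simp [hl i h])
      · by_contra h; exact hj (by simp [hl j h])
    have hn : Chn (fun i => max (-l i) 0) := by
      refine ⟨fun i => le_max_right _ _, fun i j hi hj => ?_⟩
      refine hc i ?_ j ?_
      · by_contra h; exact hi (by simp [hl i h])
      · by_contra h; exact hj (by simp [hl j h])
    have hd : (fun i => max (l i) 0) - (fun i => max (-l i) 0) = l := by
      funext i
      simp only [Pi.sub_apply]
      rcases le_total (l i) 0 with h | h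
      · rw [max_eq_right h, max_eq_left (by linarith)]; ring
      · rw [max_eq_left h, max_eq_right (by linarith)]; ring
    have h1 : L (fun i => max (l i) 0) = L (fun i => max (-l i) 0) := by
      rw [← sub_eq_zero, ← map_sub, hd, h0']
    have h2 := hU _ _ hp hn h1
    apply Subtype.ext
    funext i
    have h3 : max (l i) 0 = max (-l i) 0 := congrFun h2 i
    show l i = 0
    rcases le_total (l i) 0 with h | h
    · rw [max_eq_right h, max_eq_left (by linarith)] at h3; linarith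
    · rw [max_eq_left h, max_eq_right (by linarith)] at h3; linarith
  obtain ⟨g, hg⟩ := LinearMap.exists_leftInverse_of_injective _ hinj
  refine ⟨LinearMap.toContinuousLinearMap (S.subtype.comp g), fun l hl => ?_⟩
  have h1 := LinearMap.congr_fun hg ⟨l, hl⟩
  have h2 : g (L l) = ⟨l, hl⟩ := h1
  show S.subtype (g (L l)) = l
  rw [h2]; rfl

include hL hU in
/-- the conic inverse -/
lemma exists_lam : ∃ lam : (Fin m → ℝ) → (I → ℝ), ∃ S : Finset ((Fin m → ℝ) →L[ℝ] (I → ℝ)),
    (∀ a, Chn (lam a)) ∧ (∀ a, L (lam a) = a) ∧ (∀ l, Chn l → lam (L l) = l) ∧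
    (∀ K, PLOn lam K) ∧ Str_696.Conic lam S := by
  choose lam h1 h2 using hL
  have h3 : ∀ l, Chn l → lam (L l) = l := fun l hl => hU _ _ (h1 _) hl (h2 _)
  have hA : ∀ c : Finset I, ∃ A : (Fin m → ℝ) →L[ℝ] (I → ℝ),
      (∀ i ∈ c, ∀ j ∈ c, i ≤ j ∨ j ≤ i) → ∀ l : I → ℝ, (∀ i, i ∉ c → l i = 0) → A (L l) = l := by
    intro c
    by_cases hc : ∀ i ∈ c, ∀ j ∈ c, i ≤ j ∨ j ≤ i
    · obtain ⟨A, hA⟩ := exists_inv L hU c hc
      exact ⟨A, fun _ => hA⟩
    · exact ⟨0, fun h => absurd h hc⟩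
  choose A hA using hA
  have hsel : ∀ a, lam a = A (Finset.univ.filter fun i => lam a i ≠ 0) a := by
    intro a
    have h4 := hA (Finset.univ.filter fun i => lam a i ≠ 0)
      (fun i hi j hj => (h1 a).ch i j (by simpa using hi) (by simpa using hj)) (lam a)
      (fun i hi => by simpa using hi)
    rw [h2] at h4
    exact h4.symm
  have hLc : Continuous L := LinearMap.continuous_of_finiteDimensional L
  set R : Finset I → Set (Fin m → ℝ) := fun c => {a | Chn (A c a) ∧ L (A c a) = a} with hR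
  have hRc : ∀ c, IsClosed (R c) := fun c =>
    (isClosed_chn.preimage (A c).continuous).inter
      (isClosed_eq (hLc.comp (A c).continuous) continuous_id)
  have hRe : ∀ c, ∀ a ∈ R c, lam a = A c a := fun c a ha => by
    have := h3 _ ha.1
    rwa [ha.2] at this
  have hpl : ∀ c, PLOn lam (R c) := fun c =>
    (plOn_affine ((A c : (Fin m → ℝ) →ₗ[ℝ] (I → ℝ)).toAffineMap) (R c)).congr (hRe c)
  have hcov : ∀ a, a ∈ ⋃ c ∈ (univ : Set (Finset I)), R c := by
    intro a
    refine mem_biUnion (mem_univ (Finset.univ.filter fun i => lam a i ≠ 0)) ?_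
    show Chn _ ∧ _
    rw [← hsel a]
    exact ⟨h1 a, h2 a⟩
  have hall : ∀ K, PLOn lam K := fun K =>
    (plOn_biUnion (univ : Set (Finset I)) (Set.toFinite _) (fun c _ => hpl c)
      fun c _ => hRc c).mono fun a _ => hcov a
  refine ⟨lam, Finset.univ.image A, h1, h2, h3, hall, ⟨?_, ?_, ?_⟩⟩
  · exact continuousOn_univ.1 (hall univ).1
  · intro t v ht
    apply hU _ _ (h1 _) ((h1 v).smul ht)
    rw [h2, map_smul, h2]
  · intro v
    exact ⟨_, Finset.mem_image_of_mem _ (Finset.mem_univ _), hsel v⟩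

include hL hU in
/-- **the chain cone over a linear model is a ball** -/
theorem ball_of_model :
    IsBall m {l : I → ℝ | Chn l ∧ ∑ i, l i ≤ 1} {l : I → ℝ | Chn l ∧ ∑ i, l i = 1} := by
  obtain ⟨lam, S, h1, h2, h3, hpl, hcon⟩ := exists_lam L hL hU
  -- the conic map `(lam, norm)`
  set H : (Fin m → ℝ) → (I → ℝ) × ℝ := fun a => (lam a, ‖a‖) with hH
  set N : Finset ((Fin m → ℝ) →L[ℝ] ℝ) :=
    insert 0 ((Finset.univ.image fun i : Fin m => ContinuousLinearMap.proj i) ∪
      (Finset.univ.image fun i : Fin m => -ContinuousLinearMap.proj i)) with hN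
  have hnorm : ∀ v : Fin m → ℝ, ∃ B ∈ N, ‖v‖ = B v := by
    intro v
    by_cases hv : v = 0
    · exact ⟨0, Finset.mem_insert_self _ _, by simp [hv]⟩
    · obtain ⟨i, hi⟩ := Ce_537.exists_coord hv
      rcases le_total 0 (v i) with h | h
      · refine ⟨ContinuousLinearMap.proj i, ?_, by rw [hi, abs_of_nonneg h]; rfl⟩
        exact Finset.mem_insert_of_mem (Finset.mem_union_left _
          (Finset.mem_image_of_mem _ (Finset.mem_univ i)))
      · refine ⟨-ContinuousLinearMap.proj i, ?_, by rw [hi, abs_of_nonpos h]; rfl⟩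
        exact Finset.mem_insert_of_mem (Finset.mem_union_right _
          (Finset.mem_image_of_mem _ (Finset.mem_univ i)))
  have hHc : Str_696.Conic H ((S ×ˢ N).image fun r => r.1.prod r.2) := by
    refine ⟨hcon.1.prodMk continuous_norm, fun t v ht => ?_, fun v => ?_⟩
    · have e1 := hcon.2 t v ht
      simp only [hH]
      rw [e1, norm_smul, Real.norm_eq_abs, abs_of_nonneg ht]
      rfl
    · obtain ⟨A, hA, eA⟩ := hcon.3 v
      obtain ⟨B, hB, eB⟩ := hnorm v
      refine ⟨A.prod B, Finset.mem_image.2 ⟨(A, B), Finset.mem_product.2 ⟨hA, hB⟩, rfl⟩, ?_⟩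
      show (lam v, ‖v‖) = (A v, B v)
      rw [eA, eB]
  obtain ⟨V, hV, F, hlin, -, hv, -⟩ := Fan_696.exists_Fan hHc ∅
  -- the two gauges
  have hp : ∀ c ∈ F.T, ∃ B : (Fin m → ℝ) →L[ℝ] ℝ, ∀ x ∈ F.cone c, (∑ i, lam x i) = B x := by
    intro c hc
    obtain ⟨A, -, hA⟩ := hlin c hc
    refine ⟨∑ i, (ContinuousLinearMap.proj i).comp ((ContinuousLinearMap.fst ℝ _ _).comp A), ?_⟩
    rintro x ⟨a, ha⟩
    have h5 := hA a x ha
    have h6 : lam x = (A x).1 := congrArg Prod.fst h5
    rw [h6]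
    simp [ContinuousLinearMap.sum_apply]
  have hq : ∀ c ∈ F.T, ∃ B : (Fin m → ℝ) →L[ℝ] ℝ, ∀ x ∈ F.cone c, ‖x‖ = B x := by
    intro c hc
    obtain ⟨A, -, hA⟩ := hlin c hc
    refine ⟨(ContinuousLinearMap.snd ℝ _ _).comp A, ?_⟩
    rintro x ⟨a, ha⟩
    exact congrArg Prod.snd (hA a x ha)
  have hp0 : ∀ x : Fin m → ℝ, x ≠ 0 → 0 < ∑ i, lam x i := by
    intro x hx
    refine lt_of_le_of_ne (Finset.sum_nonneg fun i _ => (h1 x).nn i) fun h => hx ?_
    have := (h1 x).eq_zero h.symm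
    rw [← h2 x, this, map_zero]
  obtain ⟨f, g, pf, pg, gf, fg, hfg⟩ := Pb_715.exists_rescale F hv hp hq hp0
    (fun x hx => norm_pos_iff.2 hx)
  have hgn : ∀ y, ‖g y‖ = ∑ i, lam y i := fun y => by rw [← hfg (g y), fg]
  refine ⟨⟨fun x => lam (f x), fun l => g (L l), ?_, ?_, ?_, ?_, ?_, ?_⟩, ?_⟩
  · exact (hpl univ).comp (pf _) (mapsTo_univ _ _)
  · exact (pg univ).comp (plOn_affine L.toAffineMap _) (mapsTo_univ _ _)
  · intro x hx
    refine ⟨h1 _, ?_⟩
    rw [hfg]
    simpa [cube] using hx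
  · rintro l ⟨hl, hs⟩
    simp only [cube, mem_closedBall_zero_iff]
    rw [hgn, h3 l hl]
    exact hs
  · intro x _
    show g (L (lam (f x))) = x
    rw [h2, gf]
  · rintro l ⟨hl, -⟩
    show lam (f (g (L l))) = l
    rw [fg, h3 l hl]
  · ext l
    constructor
    · rintro ⟨x, hx, rfl⟩
      refine ⟨h1 _, ?_⟩
      rw [hfg]
      simpa [sph] using hx
    · rintro ⟨hl, hs⟩
      refine ⟨g (L l), ?_, ?_⟩
      · simp only [sph, mem_sphere_zero_iff_norm]
        rw [hgn, h3 l hl]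
        exact hs
      · show lam (f (g (L l))) = l
        rw [fg, h3 l hl]

end model

section link

variable {E : Type*} [NormedAddCommGroup E] [NormedSpace ℝ E] [FiniteDimensional ℝ E]
  {Q : Type*} [PartialOrder Q] {Λ : Set E}

/-- the codimension of a cell -/
noncomputable def cod (C : CC Λ Q) (q : Q) : ℕ := finrank ℝ E - finrank ℝ (dirW C q)

/-- **LINK.** The order complex of the cells above `q` -/
theorem link (C : CC Λ Q) (hΛ : IsOpen Λ) (q : Q) [Fintype (Up q)] :
    IsBall (cod C q) {l : Up q → ℝ | Chn l ∧ ∑ i, l i ≤ 1}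
      {l : Up q → ℝ | Chn l ∧ ∑ i, l i = 1} := by
  have hdim : finrank ℝ (E ⧸ dirW C q) = cod C q := by
    have := Submodule.finrank_quotient_add_finrank (dirW C q)
    unfold cod; omega
  have hdim' : finrank ℝ (E ⧸ dirW C q) = finrank ℝ (Fin (cod C q) → ℝ) := by
    rw [hdim, finrank_fin_fun]
  let φ : (E ⧸ dirW C q) ≃ₗ[ℝ] (Fin (cod C q) → ℝ) := LinearEquiv.ofFinrankEq _ _ hdim'
  let π : E →ₗ[ℝ] (Fin (cod C q) → ℝ) := φ.toLinearMap.comp (dirW C q).mkQ
  have hker : ∀ x, π x = 0 ↔ x ∈ dirW C q := by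
    intro x
    show φ ((dirW C q).mkQ x) = 0 ↔ _
    rw [LinearEquiv.map_eq_zero_iff, Submodule.mkQ_apply, Submodule.Quotient.mk_eq_zero]
  have hsurj : ∀ a, ∃ x, π x = a := by
    intro a
    obtain ⟨x, hx⟩ := Submodule.mkQ_surjective (dirW C q) (φ.symm a)
    exact ⟨x, by show φ ((dirW C q).mkQ x) = a; rw [hx, LinearEquiv.apply_symm_apply]⟩
  let L : (Up q → ℝ) →ₗ[ℝ] (Fin (cod C q) → ℝ) :=
    π.comp (∑ i, (LinearMap.proj i : (Up q → ℝ) →ₗ[ℝ] ℝ).smulRight (β C q i))
  have hLe : ∀ l, L l = π (∑ i, l i • β C q i) := by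
    intro l
    show π ((∑ i, (LinearMap.proj i : (Up q → ℝ) →ₗ[ℝ] ℝ).smulRight (β C q i)) l) = _
    congr 1
    simp [LinearMap.sum_apply]
  refine ball_of_model L (fun a => ?_) (fun l l' hl hl' he => ?_)
  · obtain ⟨x, rfl⟩ := hsurj a
    obtain ⟨u, hu, l, hl, e⟩ := exists_rep C q hΛ x
    refine ⟨l, hl, ?_⟩
    rw [hLe, e, map_add, (hker u).2 hu, zero_add]
  · rw [hLe, hLe, ← sub_eq_zero, ← map_sub, hker] at he
    refine rep_uniq C q hΛ _ l l' le_rfl hl hl' 0 (Submodule.zero_mem _) _ he ?_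
    abel

end link

end Crest.Agent.R096.Ar_241
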