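import Crest.Agent.R096.Ar1_241
import Crest.Agent.R096.Ar3_241

/-!
# R096 (row 96), ARR part 4 (helper241): the boundary of the exploded cell is a PL sphere

`cplx_oc`: the order complex `OC C q` of the cells above `q` is a complex with the dual cells
`D q r` (`r > q`), poset reversed, dimensions `cod`.
`bdry_sphere` (ARR-GEN): if `T r`, `r > q`, are PL balls of dimension `cod r` with boundary
`⋃_{r' > r} T r'` which form a decomposition of `S` (`x ∈ S` has a largest `r` with `x ∈ T r`),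
then `S` is PL equivalent to `sph (cod q)`.
-/

set_option autoImplicit false
set_option linter.unusedSectionVars false
set_option linter.unusedVariables false

open Set Metric Topology Module
open scoped Classical

namespace Crest.Agent.R096.Ar_241

open Crest.Agent.R096.Xp_537
open Crest.Agent.R096.Ce_537 (PLOn PLEquiv cube sph IsBall plOn_affine plOn_biUnion Cplx Opn)

variable {E : Type*} [NormedAddCommGroup E] [NormedSpace ℝ E] [FiniteDimensional ℝ E]
  {Q : Type*} [PartialOrder Q] {Λ : Set E}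

/-- strict monotonicity of the direction spaces -/
lemma dirW_le (C : CC Λ Q) {q r : Q} (h : q ≤ r) : dirW C q ≤ dirW C r := by
  unfold dirW
  rw [Submodule.span_le]
  rintro _ ⟨y, hy, rfl⟩
  have h1 := sub_mem_dirW C (C.mono_le h hy)
  have h2 := sub_mem_dirW C (C.mono_le h (C.bmem q))
  have h3 : y - C.b q = (y - C.b r) - (C.b q - C.b r) := by abel
  show y - C.b q ∈ dirW C r
  rw [h3]
  exact Submodule.sub_mem _ h1 h2

lemma finrank_dirW_lt (C : CC Λ Q) (hΛ : IsOpen Λ) {q r : Q} (h : q < r) :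
    finrank ℝ (dirW C q) < finrank ℝ (dirW C r) := by
  refine Submodule.finrank_lt_finrank_of_lt (lt_of_le_of_ne (dirW_le C h.le) fun he => ?_)
  -- otherwise `b q - τ (b r - b q)` is in `cell q`
  have hv : C.b q - C.b r ∈ dirW C q := by
    rw [he]
    exact sub_mem_dirW C (C.mono h (C.bmem q))
  obtain ⟨τ, hτ, ha⟩ := absorb C hΛ hv
  have hy := ha τ hτ.le le_rfl
  have hs : (1:ℝ) / (1 + τ) < 1 := by rw [div_lt_one (by positivity)]; linarith
  have h2 := face_seg C (C.bmem r) (fun p hp => C.b_notMem hp) (C.mono h hy)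
    (s := 1 / (1 + τ)) (by positivity) hs q h
  apply h2
  have h3 : (1 - 1 / (1 + τ)) • C.b r + (1 / (1 + τ)) • (C.b q + τ • (C.b q - C.b r)) = C.b q := by
    have e1 : (1:ℝ) - 1 / (1 + τ) = τ * (1 / (1 + τ)) := by field_simp; ring
    have e2 : (1 / (1 + τ)) * (1 + τ) = (1:ℝ) := by field_simp
    rw [e1]
    calc _ = ((1 / (1 + τ)) * (1 + τ)) • C.b q := by module
      _ = _ := by rw [e2, one_smul]
  rw [h3]
  exact C.bmem q

lemma cod_lt (C : CC Λ Q) (hΛ : IsOpen Λ) {q r : Q} (h : q < r) : cod C r < cod C q := by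
  have h1 := finrank_dirW_lt C hΛ h
  have h2 : finrank ℝ (dirW C r) ≤ finrank ℝ E := Submodule.finrank_le _
  unfold cod
  omega

/-- the order complex above `q` -/
def OC (q : Q) [Fintype (Up q)] : Set (Up q → ℝ) := {l | Chn l ∧ ∑ i, l i = 1}

/-- the dual cell of `r > q` in it -/
def DC (q : Q) [Fintype (Up q)] (r : Up q) : Set (Up q → ℝ) :=
  {l | Chn l ∧ ∑ i, l i = 1 ∧ ∀ i, l i ≠ 0 → r ≤ i}

/-- re-indexing -/
def up' {q : Q} (r : Up q) (i : Up r.1) : Up q := ⟨i.1, r.2.trans i.2⟩

lemma up'_inj {q : Q} (r : Up q) : Function.Injective (up' r) := fun i j h =>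
  Subtype.ext (congrArg (fun x : Up q => x.1) h)

/-- cone coordinates to the dual cell -/
noncomputable def toDC {q : Q} (r : Up q) [Fintype (Up r.1)] (l : Up r.1 → ℝ) : Up q → ℝ := fun i =>
  if h : r.1 < i.1 then l ⟨i.1, h⟩ else if i = r then 1 - ∑ j, l j else 0

lemma toDC_up {q : Q} (r : Up q) [Fintype (Up r.1)] (l : Up r.1 → ℝ) (j : Up r.1) :
    toDC r l (up' r j) = l j := by
  unfold toDC
  have h : r.1 < (up' r j).1 := j.2
  rw [dif_pos h]
  rfl

lemma toDC_self {q : Q} (r : Up q) [Fintype (Up r.1)] (l : Up r.1 → ℝ) :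
    toDC r l r = 1 - ∑ j, l j := by
  unfold toDC
  rw [dif_neg (lt_irrefl _), if_pos rfl]

lemma toDC_off {q : Q} (r : Up q) [Fintype (Up r.1)] (l : Up r.1 → ℝ) {i : Up q}
    (h1 : ¬ r.1 < i.1) (h2 : i ≠ r) : toDC r l i = 0 := by
  unfold toDC
  rw [dif_neg h1, if_neg h2]

lemma sum_up {q : Q} [Fintype (Up q)] (r : Up q) [Fintype (Up r.1)] (l : Up q → ℝ)
    (h : ∀ i, l i ≠ 0 → r ≤ i) : ∑ i, l i = l r + ∑ j, l (up' r j) := by
  have h1 : ∑ j, l (up' r j) = ∑ i ∈ Finset.univ.image (up' r), l i := by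
    rw [Finset.sum_image fun i _ j _ hij => up'_inj r hij]
  have h2 : r ∉ Finset.univ.image (up' r) := by
    intro hr
    obtain ⟨j, -, hj⟩ := Finset.mem_image.1 hr
    have : j.1 = r.1 := congrArg (fun x : Up q => x.1) hj
    exact absurd j.2 (by rw [this]; exact lt_irrefl _)
  rw [h1, ← Finset.sum_insert h2]
  symm
  refine Finset.sum_subset (Finset.subset_univ _) fun i _ hi => ?_
  by_contra hne
  apply hi
  rcases (h i hne).eq_or_lt with he | hlt
  · exact Finset.mem_insert.2 (Or.inl he.symm)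
  · exact Finset.mem_insert_of_mem (Finset.mem_image.2 ⟨⟨i.1, hlt⟩, Finset.mem_univ _, rfl⟩)

lemma toDC_ne {q : Q} (r : Up q) [Fintype (Up r.1)] {l : Up r.1 → ℝ} {i : Up q}
    (h : toDC r l i ≠ 0) : i = r ∨ ∃ j, i = up' r j ∧ l j ≠ 0 := by
  by_cases h1 : i = r
  · exact Or.inl h1
  · by_cases h2 : r.1 < i.1
    · refine Or.inr ⟨⟨i.1, h2⟩, rfl, ?_⟩
      have h3 : i = up' r ⟨i.1, h2⟩ := rfl
      rw [h3, toDC_up] at h
      exact h
    · exact absurd (toDC_off r l h2 h1) h

/-- the affine map -/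
lemma plOn_toDC {q : Q} [Fintype (Up q)] (r : Up q) [Fintype (Up r.1)]
    (K : Set (Up r.1 → ℝ)) : PLOn (toDC r) K := by
  let A : (Up r.1 → ℝ) →ₗ[ℝ] (Up q → ℝ) := LinearMap.pi fun i =>
    if h : r.1 < i.1 then LinearMap.proj ⟨i.1, h⟩ else
      if i = r then -∑ j, LinearMap.proj j else 0
  let B : (Up r.1 → ℝ) →ᵃ[ℝ] (Up q → ℝ) :=
    A.toAffineMap + AffineMap.const ℝ _ (fun i => if i = r then (1:ℝ) else 0)
  refine (plOn_affine B K).congr fun l _ => ?_
  funext i
  show toDC r l i = A l i + if i = r then (1:ℝ) else 0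
  have hA : A l i = (if h : r.1 < i.1 then LinearMap.proj ⟨i.1, h⟩ else
      if i = r then -∑ j, LinearMap.proj j else 0 : (Up r.1 → ℝ) →ₗ[ℝ] ℝ) l := rfl
  rw [hA]
  unfold toDC
  by_cases h : r.1 < i.1
  · have hne : i ≠ r := by rintro rfl; exact lt_irrefl _ h
    simp [h, hne]
  · by_cases h2 : i = r
    · subst h2
      simp [LinearMap.sum_apply]
      ring
    · simp [h, h2]

/-- **the dual cells are balls** -/
theorem isBall_DC (C : CC Λ Q) (hΛ : IsOpen Λ) (q : Q) [Fintype (Up q)] (r : Up q) :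
    IsBall (cod C r.1) (DC q r) (⋃ r' ∈ {r' | r < r'}, DC q r') := by
  have : Finite (Up r.1) := finite_up C r.1
  let _ : Fintype (Up r.1) := Fintype.ofFinite _
  have hb := link C hΛ r.1
  have hto : ∀ l : Up r.1 → ℝ, Chn l → ∑ i, l i ≤ 1 → toDC r l ∈ DC q r := by
    intro l hl hs
    have hsup : ∀ i, toDC r l i ≠ 0 → r ≤ i := by
      intro i hi
      rcases toDC_ne r hi with h | ⟨j, h, -⟩
      · rw [h]
      · rw [h]; exact j.2.le
    refine ⟨⟨fun i => ?_, fun i j hi hj => ?_⟩, ?_, hsup⟩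
    · by_cases h : toDC r l i = 0
      · rw [h]
      · rcases toDC_ne r h with h | ⟨j, h, -⟩
        · rw [h, toDC_self]; linarith
        · rw [h, toDC_up]; exact hl.nn j
    · rcases toDC_ne r hi with h | ⟨a, h, ha⟩
      · left; rw [h]; exact hsup j hj
      · rcases toDC_ne r hj with h' | ⟨b, h', hb'⟩
        · right; rw [h']; exact hsup i hi
        · rw [h, h']; exact hl.ch a b ha hb'
    · rw [sum_up r _ hsup, toDC_self]
      simp only [toDC_up]
      ring
  have hback : ∀ l ∈ DC q r, Chn (fun j => l (up' r j)) ∧ ∑ j, l (up' r j) ≤ 1 ∧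
      toDC r (fun j => l (up' r j)) = l := by
    rintro l ⟨hl, hs, hsup⟩
    have h1 := sum_up r l hsup
    refine ⟨⟨fun j => hl.nn _, fun i j hi hj => hl.ch _ _ hi hj⟩, ?_, ?_⟩
    · have := hl.nn r; linarith
    · funext i
      by_cases h2 : r.1 < i.1
      · have h3 : i = up' r ⟨i.1, h2⟩ := rfl
        conv_lhs => rw [h3, toDC_up]
        rfl
      · by_cases h4 : i = r
        · rw [h4, toDC_self]; linarith
        · rw [toDC_off r _ h2 h4]
          by_contra hne
          exact h2 (lt_of_le_of_ne (hsup i (Ne.symm hne)) fun h => h4 (Subtype.ext h.symm))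
  let R : (Up q → ℝ) →ₗ[ℝ] (Up r.1 → ℝ) := LinearMap.pi fun j => LinearMap.proj (up' r j)
  let e : PLEquiv {l : Up r.1 → ℝ | Chn l ∧ ∑ i, l i ≤ 1} (DC q r) :=
    { f := toDC r
      g := fun l j => l (up' r j)
      pf := plOn_toDC r _
      pg := plOn_affine R.toAffineMap _
      mf := fun l hl => hto l hl.1 hl.2
      mg := fun l hl => ⟨(hback l hl).1, (hback l hl).2.1⟩
      li := fun l _ => by funext j; exact toDC_up r l j
      ri := fun l hl => (hback l hl).2.2 }
  have h1 := hb.map e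
  have h2 : e.f '' {l : Up r.1 → ℝ | Chn l ∧ ∑ i, l i = 1} = ⋃ r' ∈ {r' | r < r'}, DC q r' := by
    ext l
    simp only [mem_image, mem_iUnion, mem_setOf_eq, exists_prop]
    constructor
    · rintro ⟨k, ⟨hk, hks⟩, rfl⟩
      have h3 := hto k hk hks.le
      -- the support has a least element
      have hne : ∃ i, toDC r k i ≠ 0 := by
        by_contra hcon
        push Not at hcon
        have := h3.2.1
        simp [hcon] at this
      obtain ⟨i, hi⟩ := hne
      obtain ⟨m, hm, hmin⟩ :=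
        (Finset.univ.filter fun i => toDC r k i ≠ 0).exists_minimal ⟨i, by simpa using hi⟩
      have hm' : toDC r k m ≠ 0 := by simpa using hm
      refine ⟨m, lt_of_le_of_ne (h3.2.2 m hm') ?_, h3.1, h3.2.1, fun j hj => ?_⟩
      · rintro rfl
        apply hm'
        rw [toDC_self, hks]; ring
      · rcases h3.1.ch j m hj hm' with h | h
        · exact hmin (by simpa using hj) h
        · exact h
    · rintro ⟨r', hr', hl⟩
      have h3 : l ∈ DC q r := ⟨hl.1, hl.2.1, fun i hi => hr'.le.trans (hl.2.2 i hi)⟩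
      obtain ⟨a, b, c⟩ := hback l h3
      refine ⟨fun j => l (up' r j), ⟨a, ?_⟩, c⟩
      have h4 := sum_up r l h3.2.2
      have h5 : l r = 0 := by
        by_contra hne
        exact absurd hr' (not_lt_of_ge (hl.2.2 r hne))
      rw [h5, zero_add] at h4
      rw [← h4]; exact h3.2.1
  rwa [h2] at h1

/-- the complex of the dual cells -/
theorem cplx_oc (C : CC Λ Q) (hΛ : IsOpen Λ) (q : Q) [Fintype (Up q)] :
    Cplx (OC q) (Up q)ᵒᵈ (fun r => cod C (OrderDual.ofDual r).1)
      (fun r => DC q (OrderDual.ofDual r)) where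
  isBall r := by
    have h := isBall_DC C hΛ q (OrderDual.ofDual r)
    convert h using 1
    ext x
    simp only [mem_iUnion, exists_prop]
    constructor
    · rintro ⟨j, hj, hx⟩; exact ⟨OrderDual.ofDual j, hj, hx⟩
    · rintro ⟨j, hj, hx⟩; exact ⟨OrderDual.toDual j, hj, hx⟩
  mono i j hij := cod_lt C hΛ (show (OrderDual.ofDual i).1 < (OrderDual.ofDual j).1 from hij)
  disj i j x hi hj := by
    have key : ∀ i j : (Up q)ᵒᵈ, Opn (fun r : (Up q)ᵒᵈ => DC q (OrderDual.ofDual r)) i x →
        Opn (fun r : (Up q)ᵒᵈ => DC q (OrderDual.ofDual r)) j x →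
        OrderDual.ofDual i ≤ OrderDual.ofDual j := by
      intro i j hi hj
      have h1 : x (OrderDual.ofDual j) ≠ 0 := by
        intro h0
        -- then all of the support is above `j`, so `x` is in a smaller dual cell
        have hne : ∃ i, x i ≠ 0 := by
          by_contra hcon
          push Not at hcon
          have := hj.1.2.1
          simp [hcon] at this
        obtain ⟨a, ha⟩ := hne
        obtain ⟨m, hm, hmin⟩ :=
          (Finset.univ.filter fun i => x i ≠ 0).exists_minimal ⟨a, by simpa using ha⟩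
        have hm' : x m ≠ 0 := by simpa using hm
        have h2 : OrderDual.ofDual j < m :=
          lt_of_le_of_ne (hj.1.2.2 m hm') (by rintro h; exact hm' (h ▸ h0))
        refine hj.2 (OrderDual.toDual m) h2 ⟨hj.1.1, hj.1.2.1, fun b hb => ?_⟩
        rcases hj.1.1.ch b m hb hm' with h | h
        · exact hmin (by simpa using hb) h
        · exact h
      exact hi.1.2.2 _ h1
    exact le_antisymm (key j i hj hi) (key i j hi hj)
  sub r l hl := ⟨hl.1, hl.2.1⟩
  cover l hl := by
    have hne : ∃ i, l i ≠ 0 := by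
      by_contra hcon
      push Not at hcon
      have := hl.2
      simp [hcon] at this
    obtain ⟨a, ha⟩ := hne
    obtain ⟨m, hm, hmin⟩ :=
      (Finset.univ.filter fun i => l i ≠ 0).exists_minimal ⟨a, by simpa using ha⟩
    have hm' : l m ≠ 0 := by simpa using hm
    refine ⟨OrderDual.toDual m, hl.1, hl.2, fun b hb => ?_⟩
    rcases hl.1.ch b m hb hm' with h | h
    · exact hmin (by simpa using hb) h
    · exact h
  lf x _ := ⟨1, one_pos, Set.toFinite _⟩

section gen

variable {E' : Type*} [NormedAddCommGroup E'] [NormedSpace ℝ E']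

/-- **ARR-GEN.** -/
theorem bdry_sphere' (C : CC Λ Q) (hΛ : IsOpen Λ) (q : Q) {S : Set E'} {T : Up q → Set E'}
    (hball : ∀ r, IsBall (cod C r.1) (T r) (⋃ r' ∈ {r' | r < r'}, T r'))
    (hsub : ∀ r, T r ⊆ S) (htop : ∀ x ∈ S, ∃ t : Up q, ∀ r, x ∈ T r ↔ r ≤ t) :
    Nonempty (PLEquiv (sph (cod C q)) S) := by
  have : Finite (Up q) := finite_up C q
  let _ : Fintype (Up q) := Fintype.ofFinite _
  have hC : Cplx S (Up q)ᵒᵈ (fun r => cod C (OrderDual.ofDual r).1)
      (fun r => T (OrderDual.ofDual r)) :=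
    { isBall := fun r => by
        have h := hball (OrderDual.ofDual r)
        convert h using 1
        ext x
        simp only [mem_iUnion, exists_prop]
        constructor
        · rintro ⟨j, hj, hx⟩; exact ⟨OrderDual.ofDual j, hj, hx⟩
        · rintro ⟨j, hj, hx⟩; exact ⟨OrderDual.toDual j, hj, hx⟩
      mono := fun i j hij =>
        cod_lt C hΛ (show (OrderDual.ofDual i).1 < (OrderDual.ofDual j).1 from hij)
      disj := fun i j x hi hj => by
        obtain ⟨t, ht⟩ := htop x (hsub _ hi.1)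
        have key : ∀ i : (Up q)ᵒᵈ, Opn (fun r : (Up q)ᵒᵈ => T (OrderDual.ofDual r)) i x →
            OrderDual.ofDual i = t := by
          intro i hi
          have h1 := (ht _).1 hi.1
          by_contra hne
          have h2 : OrderDual.ofDual i < t := lt_of_le_of_ne h1 hne
          exact hi.2 (OrderDual.toDual t) h2 ((ht _).2 le_rfl)
        have h1 := key i hi
        have h2 := key j hj
        exact OrderDual.ofDual.injective (h1.trans h2.symm)
      sub := fun r => hsub _
      cover := fun x hx => by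
        obtain ⟨t, ht⟩ := htop x hx
        exact ⟨OrderDual.toDual t, (ht _).2 le_rfl⟩
      lf := fun x _ => ⟨1, one_pos, Set.toFinite _⟩ }
  have : Finite (Up q)ᵒᵈ := inferInstanceAs (Finite (Up q))
  obtain ⟨e, -⟩ := Cplx.exists_equiv (cplx_oc C hΛ q) hC
  obtain ⟨a, ha⟩ := link C hΛ q
  have h1 : a.f '' sph (cod C q) = OC q := ha
  have b : PLEquiv (sph (cod C q)) (a.f '' sph (cod C q)) :=
    a.restrImage sphere_subset_closedBall
  rw [h1] at b
  exact ⟨b.trans e⟩

/-- **ARR-GEN**, with a top function -/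
theorem bdry_sphere (C : CC Λ Q) (hΛ : IsOpen Λ) (q : Q) {S : Set E'} {T : Up q → Set E'}
    (hball : ∀ r, IsBall (cod C r.1) (T r) (⋃ r' ∈ {r' | r < r'}, T r'))
    (hsub : ∀ r, T r ⊆ S) (top : E' → Up q) (htop : ∀ x ∈ S, ∀ r, x ∈ T r ↔ r ≤ top x) :
    Nonempty (PLEquiv (sph (cod C q)) S) :=
  bdry_sphere' C hΛ q hball hsub fun x hx => ⟨top x, htop x hx⟩

end gen

end Crest.Agent.R096.Ar_241
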