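import Crest.Agent.R096.PlOct_296

/-!
# The PL Schoenflies theorem on the octahedral sphere and the 3-dimensional set cut lemma
(helper296, row 96, P2-Y)
-/

namespace Crest.Agent.R096.Pl

open Set Metric Topology

set_option linter.unusedSectionVars false

/-! ### generalities on finite selections and inverses -/

section gen

variable {V W U : Type*}
  [NormedAddCommGroup V] [NormedSpace ℝ V]
  [NormedAddCommGroup W] [NormedSpace ℝ W]
  [NormedAddCommGroup U] [NormedSpace ℝ U]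

theorem SelOn.comp {f : W → U} {g : V → W} {S : Set V} {T : Set W} (hf : SelOn f T)
    (hg : SelOn g S) (h : MapsTo g S T) : SelOn (fun x => f (g x)) S := by
  obtain ⟨F, hF, hf⟩ := hf
  obtain ⟨G, hG, hg⟩ := hg
  refine ⟨image2 (fun a b => a.comp b) F G, hF.image2 _ hG, fun x hx => ?_⟩
  obtain ⟨b, hb, hb'⟩ := hg x hx
  obtain ⟨a, ha, ha'⟩ := hf (g x) (h hx)
  refine ⟨a.comp b, mem_image2_of_mem ha hb, ?_⟩
  beta_reduce; rw [ha', hb']; rfl

theorem SelOn.congr {f g : V → W} {S : Set V} (hf : SelOn f S) (h : ∀ x ∈ S, g x = f x) :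
    SelOn g S := by
  obtain ⟨F, hF, hf⟩ := hf
  refine ⟨F, hF, fun x hx => ?_⟩
  rw [h x hx]; exact hf x hx

theorem continuousOn_leftInv {X Y : Type*} [TopologicalSpace X] [TopologicalSpace Y] [T2Space Y]
    {b : X → Y} {K : Set X} (hK : IsCompact K) (hb : ContinuousOn b K) {g : Y → X}
    (hg : ∀ x ∈ K, g (b x) = x) : ContinuousOn g (b '' K) := by
  rw [continuousOn_iff_isClosed]
  intro C hC
  refine ⟨b '' (K ∩ C), ((hK.inter_right hC).image_of_continuousOn
    (hb.mono inter_subset_left)).isClosed, ?_⟩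
  ext y
  constructor
  · rintro ⟨hy1, x, hx, rfl⟩
    have : g (b x) ∈ C := hy1
    rw [hg x hx] at this
    exact ⟨mem_image_of_mem _ ⟨hx, this⟩, mem_image_of_mem _ hx⟩
  · rintro ⟨⟨x, ⟨hx, hxC⟩, rfl⟩, -⟩
    refine ⟨?_, mem_image_of_mem _ hx⟩
    show g (b x) ∈ C
    rw [hg x hx]; exact hxC

end gen

section glue

variable {F : Type*} [NormedAddCommGroup F] [NormedSpace ℝ F]

/-- **gluing two PL discs to a homeo of the sphere.** -/
theorem exists_glue (hF : PolyNorm F) [FiniteDimensional ℝ F] {gp gm : F → F × ℝ}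
    (hgp : PLMap gp) (hgm : PLMap gm) (hag : ∀ x, ‖x‖ = 1 → gp x = gm x)
    (hip : InjOn gp (closedBall 0 1)) (him : InjOn gm (closedBall 0 1)) {D E : Set (F × ℝ)}
    (hD : gp '' closedBall 0 1 = D) (hE : gm '' closedBall 0 1 = E) (hDE : D ∪ E = S1 F)
    (hint : D ∩ E = gp '' sphere 0 1) :
    ∃ H : (F × ℝ) ≃ₜ (F × ℝ), PLH H ∧ H '' S1 F = S1 F ∧ H '' Kp F = D ∧ H '' Km F = E ∧
      (∀ x ∈ closedBall (0 : F) 1, H (ep x) = gp x) ∧
      (∀ x ∈ closedBall (0 : F) 1, H (em x) = gm x) := by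
  classical
  have hprop : ProperSpace F := FiniteDimensional.proper ℝ F
  have hQ : IsCompact (closedBall (0 : F) 1) := isCompact_closedBall 0 1
  let ip : F × ℝ → F := Function.invFunOn gp (closedBall 0 1)
  let im : F × ℝ → F := Function.invFunOn gm (closedBall 0 1)
  have hipg : ∀ x ∈ closedBall (0 : F) 1, ip (gp x) = x := fun x hx =>
    hip.leftInvOn_invFunOn hx
  have himg : ∀ x ∈ closedBall (0 : F) 1, im (gm x) = x := fun x hx =>
    him.leftInvOn_invFunOn hx
  have hgmS : gm '' sphere 0 1 = gp '' sphere 0 1 :=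
    image_congr fun x hx => (hag x (by simpa using hx)).symm
  have hDc : IsClosed D := by rw [← hD]; exact (hQ.image hgp.continuous).isClosed
  have hEc : IsClosed E := by rw [← hE]; exact (hQ.image hgm.continuous).isClosed
  -- on the interface the two inverses agree
  have hinv : ∀ q ∈ D ∩ E, ∃ x, ‖x‖ = 1 ∧ ip q = x ∧ im q = x ∧ q = gp x := by
    intro q hq
    rw [hint] at hq
    obtain ⟨x, hx, rfl⟩ := hq
    have hx1 : ‖x‖ = 1 := by simpa using hx
    have hxQ : x ∈ closedBall (0 : F) 1 := by simp [hx1]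
    exact ⟨x, hx1, hipg x hxQ, by rw [hag x hx1, himg x hxQ], rfl⟩
  let g : F × ℝ → F × ℝ := fun p => if 0 ≤ p.2 then gp p.1 else gm p.1
  let g' : F × ℝ → F × ℝ := fun q => if q ∈ D then ep (ip q) else em (im q)
  have hfstQ : ∀ p ∈ S1 F, p.1 ∈ closedBall (0 : F) 1 := by
    intro p hp
    have : ‖p.1‖ + |p.2| = 1 := hp
    have := abs_nonneg p.2
    rw [mem_closedBall, dist_zero_right]; linarith
  have hgKp : ∀ p ∈ Kp F, g p = gp p.1 := fun p hp => if_pos hp.1
  have hgKm : ∀ p ∈ Km F, g p = gm p.1 := by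
    intro p hp
    show (if 0 ≤ p.2 then gp p.1 else gm p.1) = gm p.1
    split_ifs with h
    · have h0 : p.2 = 0 := le_antisymm hp.1 h
      have hN : ‖p.1‖ + |p.2| = 1 := hp.2
      rw [h0, abs_zero, add_zero] at hN
      exact hag _ hN
    · rfl
  have hg'D : ∀ q ∈ D, g' q = ep (ip q) := fun q hq => if_pos hq
  have hg'E : ∀ q ∈ E, g' q = em (im q) := by
    intro q hq
    show (if q ∈ D then ep (ip q) else em (im q)) = em (im q)
    split_ifs with h
    · obtain ⟨x, hx1, e1, e2, -⟩ := hinv q ⟨h, hq⟩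
      rw [e1, e2]
      simp [ep, em, hx1]
    · rfl
  have hep : ∀ p ∈ Kp F, ep p.1 = p := by
    intro p hp
    have hN : ‖p.1‖ + |p.2| = 1 := hp.2
    rw [abs_of_nonneg hp.1] at hN
    unfold ep; ext
    · rfl
    · simp only; linarith
  have hem : ∀ p ∈ Km F, em p.1 = p := by
    intro p hp
    have hN : ‖p.1‖ + |p.2| = 1 := hp.2
    rw [abs_of_nonpos hp.1] at hN
    unfold em; ext
    · rfl
    · simp only; linarith
  have hS : S1 F = Kp F ∪ Km F := Kp_union_Km.symm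
  have hc : ContinuousOn g (S1 F) := by
    rw [hS]
    refine ContinuousOn.union_of_isClosed ?_ ?_ isClosed_Kp isClosed_Km
    · exact (hgp.continuous.comp continuous_fst).continuousOn.congr fun p hp => hgKp p hp
    · exact (hgm.continuous.comp continuous_fst).continuousOn.congr fun p hp => hgKm p hp
  have hsel : SelOn g (S1 F) := by
    rw [hS]
    refine SelOn.union ?_ ?_
    · exact ((hgp.comp PLMap.id.fst).selOn _).congr fun p hp => hgKp p hp
    · exact ((hgm.comp PLMap.id.fst).selOn _).congr fun p hp => hgKm p hp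
  have hipc : ContinuousOn ip D := by
    rw [← hD]; exact continuousOn_leftInv hQ hgp.continuous.continuousOn hipg
  have himc : ContinuousOn im E := by
    rw [← hE]; exact continuousOn_leftInv hQ hgm.continuous.continuousOn himg
  have hc' : ContinuousOn g' (S1 F) := by
    rw [← hDE]
    refine ContinuousOn.union_of_isClosed ?_ ?_ hDc hEc
    · exact ((ep_pl hF).continuous.comp_continuousOn hipc).congr fun q hq => hg'D q hq
    · exact ((em_pl hF).continuous.comp_continuousOn himc).congr fun q hq => hg'E q hq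
  have hipsel : SelOn ip D := by rw [← hD]; exact hgp.selOn_inverse hF.vp hip hipg
  have himsel : SelOn im E := by rw [← hE]; exact hgm.selOn_inverse hF.vp him himg
  have hsel' : SelOn g' (S1 F) := by
    rw [← hDE]
    refine SelOn.union ?_ ?_
    · exact (((ep_pl hF).selOn univ).comp hipsel (mapsTo_univ _ _)).congr fun q hq => hg'D q hq
    · exact (((em_pl hF).selOn univ).comp himsel (mapsTo_univ _ _)).congr fun q hq => hg'E q hq
  have hm : MapsTo g (S1 F) (S1 F) := by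
    intro p hp
    rw [← hDE]
    have hpS := hp
    rw [hS] at hp
    rcases hp with hp | hp
    · rw [hgKp p hp]; left; rw [← hD]; exact mem_image_of_mem _ (hfstQ p hpS)
    · rw [hgKm p hp]; right; rw [← hE]; exact mem_image_of_mem _ (hfstQ p hpS)
  have hepK : ∀ x ∈ closedBall (0 : F) 1, ep x ∈ Kp F := fun x hx => by
    rw [← ep_image]; exact mem_image_of_mem _ hx
  have hemK : ∀ x ∈ closedBall (0 : F) 1, em x ∈ Km F := fun x hx => by
    rw [← em_image]; exact mem_image_of_mem _ hx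
  have hm' : MapsTo g' (S1 F) (S1 F) := by
    intro q hq
    rw [← hDE] at hq
    rw [hS]
    rcases hq with hq | hq
    · rw [hg'D q hq]; left
      rw [← hD] at hq
      obtain ⟨x, hx, rfl⟩ := hq
      rw [hipg x hx]; exact hepK x hx
    · rw [hg'E q hq]; right
      rw [← hE] at hq
      obtain ⟨x, hx, rfl⟩ := hq
      rw [himg x hx]; exact hemK x hx
  have hl : ∀ p ∈ S1 F, g' (g p) = p := by
    intro p hp
    have hpQ := hfstQ p hp
    rw [hS] at hp
    rcases hp with hp | hp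
    · rw [hgKp p hp, hg'D _ (by rw [← hD]; exact mem_image_of_mem _ hpQ), hipg _ hpQ, hep p hp]
    · rw [hgKm p hp, hg'E _ (by rw [← hE]; exact mem_image_of_mem _ hpQ), himg _ hpQ, hem p hp]
  have hr : ∀ q ∈ S1 F, g (g' q) = q := by
    intro q hq
    rw [← hDE] at hq
    rcases hq with hq | hq
    · rw [hg'D q hq]
      rw [← hD] at hq
      obtain ⟨x, hx, rfl⟩ := hq
      rw [hipg x hx, hgKp _ (hepK x hx)]; rfl
    · rw [hg'E q hq]
      rw [← hE] at hq
      obtain ⟨x, hx, rfl⟩ := hq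
      rw [himg x hx, hgKm _ (hemK x hx)]; rfl
  obtain ⟨H, hH, hHg, -, hHS⟩ := exists_cone hF hc hsel hc' hsel' hm hm' hl hr
  have h1 : ∀ x ∈ closedBall (0 : F) 1, H (ep x) = gp x := fun x hx => by
    rw [hHg _ (by rw [hS]; exact Or.inl (hepK x hx)), hgKp _ (hepK x hx)]; rfl
  have h2 : ∀ x ∈ closedBall (0 : F) 1, H (em x) = gm x := fun x hx => by
    rw [hHg _ (by rw [hS]; exact Or.inr (hemK x hx)), hgKm _ (hemK x hx)]; rfl
  refine ⟨H, hH, hHS, ?_, ?_, h1, h2⟩
  · rw [← ep_image, ← image_comp, ← hD]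
    exact image_congr fun x hx => h1 x hx
  · rw [← em_image, ← image_comp, ← hE]
    exact image_congr fun x hx => h2 x hx

end glue

/-! ### bounded regions of a standard curve complement -/

/-- a bounded closed set `E ⊇ γ` whose part off the standard sphere `γ = H '' S1` is open and
nonempty is the closed inside of `γ` -/
theorem eq_inside {F : Type*} [NormedAddCommGroup F] [NormedSpace ℝ F] [FiniteDimensional ℝ F]
    [Nontrivial F] {H : (F × ℝ) ≃ₜ (F × ℝ)} {E : Set (F × ℝ)}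
    (hEc : IsCompact E) (hγ : H '' S1 F ⊆ E) (hop : IsOpen (E \ H '' S1 F))
    (hne : (E \ H '' S1 F).Nonempty) : E = H '' {p | N1 p ≤ 1} := by
  have hcompl : (H '' S1 F)ᶜ = H '' U1 F ∪ H '' X1 F := by
    rw [← image_union, ← univ_diff_S1, H.image_compl]
  have hopU : IsOpen (H '' U1 F) := H.isOpenMap _ isOpen_U1
  have hopX : IsOpen (H '' X1 F) := H.isOpenMap _ isOpen_X1
  have hXc : IsPreconnected (H '' X1 F) :=
    (isConnected_X1.isPreconnected).image _ H.continuous.continuousOn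
  have hUc : IsPreconnected (H '' U1 F) := by
    refine IsPreconnected.image ?_ _ H.continuous.continuousOn
    -- star-shaped about the origin
    refine isPreconnected_of_forall (0 : F × ℝ) fun p hp => ?_
    refine ⟨(fun t : ℝ => t • p) '' Icc 0 1, ?_, ⟨0, by simp, by simp⟩, ⟨1, by simp, by simp⟩, ?_⟩
    · rintro _ ⟨t, ht, rfl⟩
      show N1 _ < 1
      simp only [N1_smul]
      rw [abs_of_nonneg ht.1]
      have hp' : N1 p < 1 := hp
      have := N1_nonneg p
      have := mul_le_mul_of_nonneg_right ht.2 this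
      linarith
    · exact isPreconnected_Icc.image _ (by fun_prop)
  have hdUX : Disjoint (H '' U1 F) (H '' X1 F) := by
    rw [disjoint_image_iff H.injective, disjoint_left]
    intro p hp hp'
    exact absurd (show N1 p < 1 from hp) (not_lt.2 (le_of_lt hp'))
  have hopE' : IsOpen Eᶜ := hEc.isClosed.isOpen_compl
  have hdE : Disjoint (E \ H '' S1 F) Eᶜ := disjoint_left.2 fun p hp hp' => hp' hp.1
  have hcov : ∀ X : Set (F × ℝ), X ⊆ (H '' S1 F)ᶜ → X ⊆ (E \ H '' S1 F) ∪ Eᶜ := by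
    intro X hX p hp
    by_cases h : p ∈ E
    · exact Or.inl ⟨h, hX hp⟩
    · exact Or.inr h
  have hXE : H '' X1 F ⊆ Eᶜ := by
    rcases hXc.subset_or_subset hop hopE' hdE
      (hcov _ (by rw [hcompl]; exact subset_union_right)) with h | h
    · exfalso
      refine X1_unbounded (F := F) ⟨H.symm '' E, hEc.image H.symm.continuous, ?_⟩
      intro p hp
      exact ⟨H p, (h (mem_image_of_mem H hp)).1, H.symm_apply_apply p⟩
    · exact h
  have hUE : H '' U1 F ⊆ E \ H '' S1 F := by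
    rcases hUc.subset_or_subset hop hopE' hdE
      (hcov _ (by rw [hcompl]; exact subset_union_left)) with h | h
    · exact h
    · exfalso
      obtain ⟨p, hp⟩ := hne
      have : p ∈ (H '' S1 F)ᶜ := hp.2
      rw [hcompl] at this
      rcases this with h' | h'
      · exact h h' hp.1
      · exact hXE h' hp.1
  have hle : {p : F × ℝ | N1 p ≤ 1} = U1 F ∪ S1 F := by
    ext p
    show N1 p ≤ 1 ↔ N1 p < 1 ∨ N1 p = 1
    exact le_iff_lt_or_eq
  rw [hle, image_union]
  apply Subset.antisymm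
  · intro p hp
    by_cases h : p ∈ H '' S1 F
    · exact Or.inr h
    · have : p ∈ (H '' S1 F)ᶜ := h
      rw [hcompl] at this
      rcases this with h' | h'
      · exact Or.inl h'
      · exact absurd hp (hXE h')
  · exact union_subset (fun p hp => (hUE hp).1) hγ

/-! ### each side of a PL curve on the octahedral sphere is a PL disc -/

/-- the closed unit ball of `N1` on the plane -/
theorem vp_ball_real : VP {p : ℝ × ℝ | N1 p ≤ 1} := by
  have h : {p : ℝ × ℝ | N1 p ≤ 1} = rotH.symm '' closedBall (0 : ℝ × ℝ) 1 := by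
    ext p
    constructor
    · intro hp
      refine ⟨rotH p, ?_, rotH.symm_apply_apply p⟩
      rw [mem_closedBall, dist_zero_right, norm_rotH']; exact hp
    · rintro ⟨x, hx, rfl⟩
      show N1 _ ≤ 1
      rw [← norm_rotH', rotH.apply_symm_apply]
      simpa using hx
  obtain ⟨s, hs, hs'⟩ := polyNorm_plane.vp
  let L : (ℝ × ℝ) →ₗ[ℝ] (ℝ × ℝ) :=
    { toFun := fun p => ((p.1 + p.2) / 2, (p.1 - p.2) / 2)
      map_add' := fun p q => by ext <;> simp <;> ring
      map_smul' := fun c p => by ext <;> simp <;> ring }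
  refine ⟨L '' s, hs.image _, ?_⟩
  rw [h, ← LinearMap.image_convexHull, ← hs']
  rfl

theorem image_rotH_ball : rotH '' {p : ℝ × ℝ | N1 p ≤ 1} = closedBall (0 : ℝ × ℝ) 1 := by
  ext x
  constructor
  · rintro ⟨p, hp, rfl⟩
    rw [mem_closedBall, dist_zero_right, norm_rotH']; exact hp
  · intro hx
    refine ⟨rotH.symm x, ?_, rotH.apply_symm_apply x⟩
    show N1 _ ≤ 1
    rw [← norm_rotH', rotH.apply_symm_apply]
    simpa using hx

theorem image_rotH_S1 : rotH '' S1 ℝ = sphere (0 : ℝ × ℝ) 1 := by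
  ext x
  constructor
  · rintro ⟨p, hp, rfl⟩
    rw [mem_sphere, dist_zero_right, norm_rotH']; exact hp
  · intro hx
    refine ⟨rotH.symm x, ?_, rotH.apply_symm_apply x⟩
    show N1 _ = 1
    rw [← norm_rotH', rotH.apply_symm_apply]
    simpa using hx

theorem em_of_mem_Km {F : Type*} [NormedAddCommGroup F] [NormedSpace ℝ F] {p : F × ℝ}
    (hp : p ∈ Km F) : em p.1 = p := by
  have hN : ‖p.1‖ + |p.2| = 1 := hp.2
  rw [abs_of_nonpos hp.1] at hN
  unfold em; ext
  · rfl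
  · simp only; linarith

/-- one side of a PL curve on the octahedral sphere is a PL disc -/
theorem exists_disc {φ : ℝ × ℝ → (ℝ × ℝ) × ℝ} (hφ : PLMap φ) (hinj : InjOn φ (S1 ℝ))
    {D E : Set ((ℝ × ℝ) × ℝ)} (hDc : IsClosed D) (hEc : IsClosed E)
    (hDE : D ∪ E = S1 (ℝ × ℝ)) (hi : D ∩ E = φ '' S1 ℝ)
    (hDn : (D \ φ '' S1 ℝ).Nonempty) (hEn : (E \ φ '' S1 ℝ).Nonempty) :
    ∃ ψ : ℝ × ℝ → (ℝ × ℝ) × ℝ, PLMap ψ ∧ Function.Injective ψ ∧
      ψ '' {p | N1 p ≤ 1} = D ∧ ψ '' S1 ℝ = φ '' S1 ℝ := by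
  have hDS : D ⊆ S1 (ℝ × ℝ) := by rw [← hDE]; exact subset_union_left
  have hES : E ⊆ S1 (ℝ × ℝ) := by rw [← hDE]; exact subset_union_right
  have hΓD : φ '' S1 ℝ ⊆ D := by rw [← hi]; exact inter_subset_left
  have hΓE : φ '' S1 ℝ ⊆ E := by rw [← hi]; exact inter_subset_right
  have hne : D ≠ S1 (ℝ × ℝ) := by
    intro h
    obtain ⟨x, hx, hxΓ⟩ := hEn
    exact hxΓ (hi ▸ ⟨h ▸ hES hx, hx⟩)
  obtain ⟨K, hK, hKS, hKD⟩ := push_off hDc hDS hne
  have hKS' : ∀ p ∈ S1 (ℝ × ℝ), K p ∈ S1 (ℝ × ℝ) := fun p hp => by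
    rw [← hKS]; exact mem_image_of_mem _ hp
  -- points of `K '' D` are on the lower disc
  have hDm : ∀ p ∈ D, K p ∈ Km (ℝ × ℝ) := fun p hp => ⟨(hKD p hp).le, hKS' p (hDS hp)⟩
  have hD1 : ∀ p ∈ D, ‖(K p).1‖ < 1 := by
    intro p hp
    have h1 : ‖(K p).1‖ + |(K p).2| = 1 := hKS' p (hDS hp)
    have h2 := abs_pos_of_neg (hKD p hp)
    linarith
  have hemD : ∀ p ∈ D, em (K p).1 = K p := fun p hp => em_of_mem_Km (hDm p hp)
  -- the planar curve
  let c : ℝ × ℝ → ℝ × ℝ := fun y => (K (φ y)).1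
  have hc : PLMap c := (hK.1.comp hφ).fst
  have hcD : ∀ y ∈ S1 ℝ, φ y ∈ D := fun y hy => hΓD (mem_image_of_mem _ hy)
  have hcinj : InjOn c (S1 ℝ) := by
    intro y hy y' hy' h
    apply hinj hy hy'
    apply K.injective
    rw [← hemD _ (hcD y hy), ← hemD _ (hcD y' hy')]
    exact congrArg em h
  obtain ⟨H, hH, hHS⟩ := stdC_of_injOn hc hcinj
  -- the planar region
  let E' : Set (ℝ × ℝ) := (fun p => (K p).1) '' D
  have hDcomp : IsCompact D := isCompact_S1.of_isClosed_subset hDc hDS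
  have hE'c : IsCompact E' := hDcomp.image (continuous_fst.comp K.continuous)
  have hγE : H '' S1 ℝ ⊆ E' := by
    rw [hHS]
    rintro _ ⟨y, hy, rfl⟩
    exact ⟨φ y, hcD y hy, rfl⟩
  have hdiff : E' \ H '' S1 ℝ = {x | ‖x‖ < 1 ∧ em x ∉ K '' E} := by
    rw [hHS]
    ext x
    constructor
    · rintro ⟨⟨p, hp, rfl⟩, hx⟩
      refine ⟨hD1 p hp, ?_⟩
      show em (K p).1 ∉ K '' E
      rw [hemD p hp]
      rintro ⟨q, hq, hqp⟩
      rw [K.injective hqp] at hq
      have : p ∈ φ '' S1 ℝ := hi ▸ ⟨hp, hq⟩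
      obtain ⟨y, hy, rfl⟩ := this
      exact hx ⟨y, hy, rfl⟩
    · rintro ⟨hx1, hx2⟩
      have hemS : em x ∈ S1 (ℝ × ℝ) := by
        have : em x ∈ Km (ℝ × ℝ) := by
          rw [← em_image]; exact mem_image_of_mem _ (by simpa using hx1.le)
        exact this.2
      rw [← hKS, ← hDE, image_union] at hemS
      rcases hemS with h | h
      · obtain ⟨p, hp, hp'⟩ := h
        have hxe : (K p).1 = x := by rw [hp']; rfl
        refine ⟨⟨p, hp, hxe⟩, ?_⟩
        rintro ⟨y, hy, hyx⟩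
        apply hx2
        refine ⟨φ y, hΓE (mem_image_of_mem _ hy), ?_⟩
        rw [← hemD _ (hcD y hy)]
        exact congrArg em hyx
      · exact absurd h hx2
  have hop : IsOpen (E' \ H '' S1 ℝ) := by
    rw [hdiff]
    refine (isOpen_lt continuous_norm continuous_const).inter ?_
    exact ((K.isClosedMap _ hEc).isOpen_compl).preimage (em_pl polyNorm_plane).continuous
  have hnonempty : (E' \ H '' S1 ℝ).Nonempty := by
    obtain ⟨p, hp, hpΓ⟩ := hDn
    refine ⟨(K p).1, ⟨p, hp, rfl⟩, ?_⟩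
    rw [hHS]
    rintro ⟨y, hy, hyp⟩
    apply hpΓ
    refine ⟨y, hy, ?_⟩
    apply K.injective
    rw [← hemD _ (hcD y hy), ← hemD _ hp]
    exact congrArg em hyp
  have hE' := eq_inside hE'c hγE hop hnonempty
  have heminj : Function.Injective (em : ℝ × ℝ → (ℝ × ℝ) × ℝ) := fun x y h => congrArg Prod.fst h
  refine ⟨fun y => K.symm (em (H y)), hK.2.comp ((em_pl polyNorm_plane).comp hH.1), ?_, ?_, ?_⟩
  · intro y y' h
    exact H.injective (heminj (K.symm.injective h))
  · have e1 : (fun y => K.symm (em (H y))) '' {p | N1 p ≤ 1} = (fun x => K.symm (em x)) '' E' := by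
      rw [hE', ← image_comp]; rfl
    rw [e1, ← image_comp]
    conv_rhs => rw [← image_id D]
    refine image_congr fun p hp => ?_
    show K.symm (em (K p).1) = p
    rw [hemD p hp, K.symm_apply_apply]
  · have e1 : (fun y => K.symm (em (H y))) '' S1 ℝ = (fun x => K.symm (em x)) '' (c '' S1 ℝ) := by
      rw [← hHS, ← image_comp]; rfl
    rw [e1, ← image_comp]
    refine image_congr fun y hy => ?_
    show K.symm (em (K (φ y)).1) = φ y
    rw [hemD _ (hcD y hy), K.symm_apply_apply]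

/-- **PL Schoenflies theorem on the octahedral sphere**: two closed sets covering the sphere and
meeting in a PL circle form a standard pair -/
theorem StdS_of_curve {φ : ℝ × ℝ → (ℝ × ℝ) × ℝ} (hφ : PLMap φ) (hinj : InjOn φ (S1 ℝ))
    {D E : Set ((ℝ × ℝ) × ℝ)} (hDc : IsClosed D) (hEc : IsClosed E)
    (hDE : D ∪ E = S1 (ℝ × ℝ)) (hi : D ∩ E = φ '' S1 ℝ)
    (hDn : (D \ φ '' S1 ℝ).Nonempty) (hEn : (E \ φ '' S1 ℝ).Nonempty) :
    ∃ H : ((ℝ × ℝ) × ℝ) ≃ₜ ((ℝ × ℝ) × ℝ), PLH H ∧ H '' S1 (ℝ × ℝ) = S1 (ℝ × ℝ) ∧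
      H '' Kp (ℝ × ℝ) = D ∧ H '' Km (ℝ × ℝ) = E := by
  classical
  obtain ⟨a, ha, hainj, haD, haS⟩ := exists_disc hφ hinj hDc hEc hDE hi hDn hEn
  obtain ⟨b, hb, hbinj, hbE, hbS⟩ := exists_disc hφ hinj hEc hDc
    (by rw [union_comm]; exact hDE) (by rw [inter_comm]; exact hi) hEn hDn
  -- the change of parametrisation on `S1 ℝ`
  have hSB : S1 ℝ ⊆ {p : ℝ × ℝ | N1 p ≤ 1} := S1_subset_le
  have hBc : IsCompact {p : ℝ × ℝ | N1 p ≤ 1} := isCompact_le
  let ia : (ℝ × ℝ) × ℝ → ℝ × ℝ := Function.invFun a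
  let ib : (ℝ × ℝ) × ℝ → ℝ × ℝ := Function.invFun b
  have hia : ∀ y, ia (a y) = y := Function.leftInverse_invFun hainj
  have hib : ∀ y, ib (b y) = y := Function.leftInverse_invFun hbinj
  have key : ∀ (f g : ℝ × ℝ → (ℝ × ℝ) × ℝ) (g' : (ℝ × ℝ) × ℝ → ℝ × ℝ), PLMap f → PLMap g →
      Function.Injective g → (∀ y, g' (g y) = y) → f '' S1 ℝ = g '' S1 ℝ →
      ContinuousOn (fun y => g' (f y)) (S1 ℝ) ∧ SelOn (fun y => g' (f y)) (S1 ℝ) ∧
        MapsTo (fun y => g' (f y)) (S1 ℝ) (S1 ℝ) ∧ ∀ y ∈ S1 ℝ, g (g' (f y)) = f y := by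
    intro f g g' hf hg hginj hg' hfg
    have hmap : ∀ y ∈ S1 ℝ, f y ∈ g '' S1 ℝ := fun y hy => by
      rw [← hfg]; exact mem_image_of_mem _ hy
    refine ⟨?_, ?_, ?_, ?_⟩
    · have h1 : ContinuousOn g' (g '' S1 ℝ) :=
        continuousOn_leftInv isCompact_S1 hg.continuous.continuousOn fun x _ => hg' x
      exact h1.comp hf.continuous.continuousOn hmap
    · have h1 : SelOn g' (g '' {p : ℝ × ℝ | N1 p ≤ 1}) :=
        hg.selOn_inverse vp_ball_real hginj.injOn fun x _ => hg' x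
      exact h1.comp (hf.selOn _) fun y hy => image_mono hSB (hmap y hy)
    · intro y hy
      obtain ⟨y', hy', h⟩ := hmap y hy
      show g' (f y) ∈ S1 ℝ
      rw [← h, hg']; exact hy'
    · intro y hy
      obtain ⟨y', hy', h⟩ := hmap y hy
      rw [← h, hg']
  have hab : a '' S1 ℝ = b '' S1 ℝ := haS.trans hbS.symm
  obtain ⟨k1, k2, k3, k4⟩ := key a b ib ha hb hbinj hib hab
  obtain ⟨l1, l2, l3, l4⟩ := key b a ia hb ha hainj hia hab.symm
  obtain ⟨C, hC, hCg, hCN, hCS⟩ := exists_cone polyNorm_real k1 k2 l1 l2 k3 l3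
    (fun y hy => by show ia (b (ib (a y))) = y; rw [k4 y hy, hia])
    (fun y hy => by show ib (a (ia (b y))) = y; rw [l4 y hy, hib])
  have hCB : C '' {p : ℝ × ℝ | N1 p ≤ 1} = {p : ℝ × ℝ | N1 p ≤ 1} := by
    apply Subset.antisymm
    · rintro _ ⟨p, hp, rfl⟩
      show N1 (C p) ≤ 1
      rw [hCN]; exact hp
    · intro p hp
      refine ⟨C.symm p, ?_, C.apply_symm_apply p⟩
      show N1 (C.symm p) ≤ 1
      rw [← hCN, C.apply_symm_apply]; exact hp
  -- the two discs in terms of the unit square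
  let gp : ℝ × ℝ → (ℝ × ℝ) × ℝ := fun x => a (rotH.symm x)
  let gm : ℝ × ℝ → (ℝ × ℝ) × ℝ := fun x => b (C (rotH.symm x))
  have hsym : rotH.symm '' closedBall (0 : ℝ × ℝ) 1 = {p : ℝ × ℝ | N1 p ≤ 1} := by
    rw [← image_rotH_ball, symm_image_image']
  have hsymS : rotH.symm '' sphere (0 : ℝ × ℝ) 1 = S1 ℝ := by
    rw [← image_rotH_S1, symm_image_image']
  obtain ⟨H, hH, hHS, hHp, hHm, -, -⟩ := exists_glue polyNorm_plane (gp := gp) (gm := gm)
    (D := D) (E := E) (ha.comp PLH_rotH.2) (hb.comp (hC.1.comp PLH_rotH.2)) (by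
      intro x hx
      have hx' : rotH.symm x ∈ S1 ℝ := by
        rw [← hsymS]; exact mem_image_of_mem _ (by simpa using hx)
      show a (rotH.symm x) = b (C (rotH.symm x))
      rw [hCg _ hx', k4 _ hx'])
    (fun x _ y _ h => rotH.symm.injective (hainj h))
    (fun x _ y _ h => rotH.symm.injective (C.injective (hbinj h)))
    (by
      have : gp '' closedBall 0 1 = a '' (rotH.symm '' closedBall 0 1) := by
        rw [← image_comp]; rfl
      rw [this, hsym, haD])
    (by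
      have : gm '' closedBall 0 1 = b '' (C '' (rotH.symm '' closedBall 0 1)) := by
        rw [← image_comp, ← image_comp]; rfl
      rw [this, hsym, hCB, hbE])
    hDE
    (by
      have : gp '' sphere 0 1 = a '' (rotH.symm '' sphere 0 1) := by
        rw [← image_comp]; rfl
      rw [this, hsymS, haS, hi])
  exact ⟨H, hH, hHS, hHp, hHm⟩

/-- a standard sphere in space, decomposed into two closed pieces meeting in a PL circle -/
theorem StdC.pair_plane {S E D : Set ((ℝ × ℝ) × ℝ)} (hS : StdC S)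
    {φ : ℝ × ℝ → (ℝ × ℝ) × ℝ} (hφ : PLMap φ) (hinj : InjOn φ (S1 ℝ))
    (hEc : IsClosed E) (hDc : IsClosed D) (hED : E ∪ D = S) (hi : E ∩ D = φ '' S1 ℝ)
    (hEn : (E \ φ '' S1 ℝ).Nonempty) (hDn : (D \ φ '' S1 ℝ).Nonempty) : StdS E D := by
  obtain ⟨H, hH, hHS⟩ := hS
  let φ' : ℝ × ℝ → (ℝ × ℝ) × ℝ := fun y => H.symm (φ y)
  have hφ' : φ' '' S1 ℝ = H.symm '' (φ '' S1 ℝ) := by rw [← image_comp]; rfl
  obtain ⟨G, hG, hGS, hGE, hGD⟩ := StdS_of_curve (φ := φ') (hH.2.comp hφ)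
    (fun x hx y hy h => hinj hx hy (H.symm.injective h))
    (D := H.symm '' E) (E := H.symm '' D) (H.symm.isClosedMap _ hEc) (H.symm.isClosedMap _ hDc)
    (by rw [← image_union, hED, ← hHS, symm_image_image'])
    (by rw [← image_inter H.symm.injective, hi, hφ'])
    (by rw [hφ', ← image_sdiff H.symm.injective]; exact hEn.image _)
    (by rw [hφ', ← image_sdiff H.symm.injective]; exact hDn.image _)
  refine ⟨G.trans H, hG.trans hH, ?_, ?_⟩
  · rw [trans_image, hGE, image_symm_image']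
  · rw [trans_image, hGD, image_symm_image']

/-- **3-DIMENSIONAL CUT LEMMA, SET VERSION.** -/
theorem StdC.cut_plane {E₁ E₂ D : Set ((ℝ × ℝ) × ℝ)} {φ : ℝ × ℝ → (ℝ × ℝ) × ℝ} (hφ : PLMap φ)
    (hinj : InjOn φ (S1 ℝ)) (hc1 : IsClosed E₁) (hc2 : IsClosed E₂) (hcD : IsClosed D)
    (h12 : E₁ ∩ E₂ = φ '' S1 ℝ) (h1D : E₁ ∩ D = φ '' S1 ℝ) (h2D : E₂ ∩ D = φ '' S1 ℝ)
    (hn1 : (E₁ \ φ '' S1 ℝ).Nonempty) (hn2 : (E₂ \ φ '' S1 ℝ).Nonempty)
    (hnD : (D \ φ '' S1 ℝ).Nonempty)
    (hA : StdC (E₁ ∪ D)) (hB : StdC (E₂ ∪ D)) : StdC (E₁ ∪ E₂) :=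
  ((hA.pair_plane hφ hinj hc1 hcD rfl h1D hn1 hnD).cut polyNorm_plane
    (hB.pair_plane hφ hinj hc2 hcD rfl h2D hn2 hnD) (by rw [h12, h1D]) (by rw [h2D, h1D])).stdC

end Crest.Agent.R096.Pl
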