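import Crest.Agent.R096.Cb5_609
import Crest.Agent.R096.PlSph_296

/-!
# R096 (row 96), CE3 ball calculus, part 6: closed curves on a 2-sphere (helper609)

* `exists_sides`: a PL circle on the octahedral sphere is the common boundary of two discs.
* `sphere_sides`: a PL circle on the boundary of a 3-ball (any ambient space).
* `exists_compl_disc`: the complementary disc of a disc in the boundary of a 3-ball.
* `glue_ball3`: gluing of two 3-balls along a disc, no hypothesis on the complements.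
-/

set_option autoImplicit false
set_option linter.unusedSectionVars false

open Set Metric MeasureTheory

namespace Crest.Agent.R096.Cb_609

open Ce_537 Pl
open scoped Pointwise

/-! ### extension of a PL map from the circle to the plane -/

/-- a norm preserving linear identification -/
noncomputable def fin2 : (ℝ × ℝ) ≃ₗ[ℝ] (Fin 2 → ℝ) := (LinearEquiv.finTwoArrow ℝ ℝ).symm

theorem norm_fin2 (p : ℝ × ℝ) : ‖fin2 p‖ = ‖p‖ := by
  have h0 : fin2 p 0 = p.1 := rfl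
  have h1 : fin2 p 1 = p.2 := rfl
  apply le_antisymm
  · rw [pi_norm_le_iff_of_nonneg (norm_nonneg _)]
    intro i
    fin_cases i
    · show ‖fin2 p 0‖ ≤ _
      rw [h0]; exact norm_fst_le p
    · show ‖fin2 p 1‖ ≤ _
      rw [h1]; exact norm_snd_le p
  · rw [Prod.norm_def]
    refine max_le ?_ ?_
    · have := norm_le_pi_norm (fin2 p) 0
      rwa [h0] at this
    · have := norm_le_pi_norm (fin2 p) 1
      rwa [h1] at this

theorem plMap_of_plOn {V W : Type*} [NormedAddCommGroup V] [NormedSpace ℝ V]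
    [NormedAddCommGroup W] [NormedSpace ℝ W] {f : V → W} (h : PLOn f univ) : PLMap f := by
  obtain ⟨h1, S, h2⟩ := h
  exact ⟨continuousOn_univ.1 h1, (S : Set _), S.finite_toSet, fun x => h2 x (mem_univ x)⟩

theorem extend_circle {V : Type*} [NormedAddCommGroup V] [NormedSpace ℝ V]
    [FiniteDimensional ℝ V] {φ : ℝ × ℝ → V}
    (h : PLOn φ (S1 ℝ)) : ∃ ψ : ℝ × ℝ → V, PLMap ψ ∧ EqOn ψ φ (S1 ℝ) := by
  have hm : ∀ x ∈ sphere (0 : Fin 2 → ℝ) 1, rotH.symm (fin2.symm x) ∈ S1 ℝ := by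
    intro x hx
    show N1 _ = 1
    rw [← norm_rotH', rotH.apply_symm_apply, ← norm_fin2, LinearEquiv.apply_symm_apply]
    simpa using hx
  have hL : PLMap (fun x => rotH.symm (fin2.symm x)) :=
    PLH_rotH.2.comp (PLMap.of_affine (fin2.symm : (Fin 2 → ℝ) →ₗ[ℝ] ℝ × ℝ).toAffineMap)
  have h1 : PLOn (fun x => φ (rotH.symm (fin2.symm x))) (sphere (0 : Fin 2 → ℝ) 1) :=
    h.comp (hL.plOn _) hm
  have h2 : PLMap (Cx_609.cone fun x => φ (rotH.symm (fin2.symm x))) :=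
    plMap_of_plOn (Cx_609.plOn_iff.1 (Cx_609.PLOn.cone (Cx_609.plOn_iff.2 h1)))
  have hR : PLMap (fun x => fin2 (rotH x)) :=
    (PLMap.of_affine (fin2 : ℝ × ℝ →ₗ[ℝ] (Fin 2 → ℝ)).toAffineMap).comp PLH_rotH.1
  refine ⟨_, h2.comp hR, fun x hx => ?_⟩
  have hx' : fin2 (rotH x) ∈ sphere (0 : Fin 2 → ℝ) 1 := by
    rw [mem_sphere, dist_zero_right, norm_fin2, norm_rotH']; exact hx
  show Cx_609.cone (fun x => φ (rotH.symm (fin2.symm x))) (fin2 (rotH x)) = φ x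
  rw [Cx_609.cone_of_sphere _ hx', LinearEquiv.symm_apply_apply, rotH.symm_apply_apply]

/-! ### a circle does not cover the sphere -/

theorem range_affine_null (g : ℝ →ᵃ[ℝ] ℝ × ℝ) : volume (range g) = 0 := by
  have h1 : (((⊤ : AffineSubspace ℝ ℝ).map g : AffineSubspace ℝ (ℝ × ℝ)) : Set (ℝ × ℝ)) =
      range g := by
    rw [AffineSubspace.coe_map, AffineSubspace.top_coe, image_univ]
  rw [← h1]
  refine Measure.addHaar_affineSubspace _ _ ?_
  intro htop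
  have hsurj : Function.Surjective g := by
    rw [← range_eq_univ, ← h1, htop, AffineSubspace.top_coe]
  have h2 : Function.Surjective g.linear := g.linear_surjective_iff.2 hsurj
  have h3 := LinearMap.finrank_le_finrank_of_surjective (f := g.linear) h2
  rw [Module.finrank_prod, Module.finrank_self] at h3
  omega

theorem circle_ne_sphere {φ : ℝ × ℝ → (ℝ × ℝ) × ℝ} (h : PLOn φ (S1 ℝ)) :
    φ '' S1 ℝ ≠ S1 (ℝ × ℝ) := by
  intro heq
  have h1 : PLOn (fun t : ℝ => (φ (th t)).1) (Icc 0 4) := by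
    have h2 := h.comp (th_pl.plOn (Icc 0 4)) (fun t ht => by
      rw [← th_image]; exact mem_image_of_mem _ ht)
    have h3 : PLMap (fun p : (ℝ × ℝ) × ℝ => p.1) := PLMap.id.fst
    exact (h3.plOn univ).comp h2 (fun _ _ => mem_univ _)
  obtain ⟨-, S, hS⟩ := h1
  have hcov : closedBall (0 : ℝ × ℝ) 1 ⊆ ⋃ g ∈ S, range g := by
    intro x hx
    rw [mem_closedBall, dist_zero_right] at hx
    have h2 : ep x ∈ S1 (ℝ × ℝ) := by
      rw [← Kp_union_Km, ← ep_image]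
      left
      exact mem_image_of_mem _ (by simpa using hx)
    rw [← heq, ← th_image] at h2
    obtain ⟨_, ⟨t, ht, rfl⟩, e⟩ := h2
    obtain ⟨g, hg, e'⟩ := hS t ht
    refine mem_biUnion hg ⟨t, ?_⟩
    have e2 : (φ (th t)).1 = g t := e'
    rw [← e2, e]; rfl
  have h0 : volume (⋃ g ∈ S, range g) = 0 :=
    (measure_biUnion_null_iff S.countable_toSet).2 fun g _ => range_affine_null g
  have h4 := measure_mono_null hcov h0
  exact (measure_closedBall_pos volume (0 : ℝ × ℝ) one_pos).ne' h4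

/-! ### the sides of a circle -/

theorem em_mem {x : ℝ × ℝ} (hx : ‖x‖ ≤ 1) : em x ∈ S1 (ℝ × ℝ) := by
  rw [← Kp_union_Km, ← em_image]
  right
  exact mem_image_of_mem _ (by simpa using hx)

/-- scaled rotation: the double cone disc onto the square of radius `r` -/
noncomputable def rotR (r : ℝ) (hr : r ≠ 0) : (ℝ × ℝ) ≃ₜ (ℝ × ℝ) :=
  rotH.trans (Homeomorph.smulOfNeZero r hr)

theorem rotR_ball (r : ℝ) (hr : 0 < r) :
    rotR r hr.ne' '' {p : ℝ × ℝ | N1 p ≤ 1} = closedBall 0 r := by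
  have : rotR r hr.ne' '' {p : ℝ × ℝ | N1 p ≤ 1} = r • (rotH '' {p : ℝ × ℝ | N1 p ≤ 1}) := by
    unfold rotR
    rw [trans_image]; rfl
  rw [this, image_rotH_ball, _root_.smul_closedBall _ _ zero_le_one, smul_zero, Real.norm_eq_abs,
    abs_of_pos hr, mul_one]

/-- **the two sides of a circle on the octahedral sphere** -/
theorem exists_sides {φ : ℝ × ℝ → (ℝ × ℝ) × ℝ} (hφ : PLOn φ (S1 ℝ)) (hinj : InjOn φ (S1 ℝ))
    (hS : φ '' S1 ℝ ⊆ S1 (ℝ × ℝ)) :
    ∃ D E, StdS D E ∧ D ∪ E = S1 (ℝ × ℝ) ∧ D ∩ E = φ '' S1 ℝ := by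
  classical
  have hcpt : IsCompact (S1 ℝ) := isCompact_S1
  have hΓc : IsCompact (φ '' S1 ℝ) := hcpt.image_of_continuousOn hφ.1
  obtain ⟨K, hK, hKS, hKneg⟩ := push_off hΓc.isClosed hS (circle_ne_sphere hφ)
  have hKmem : ∀ x ∈ S1 ℝ, K (φ x) ∈ S1 (ℝ × ℝ) := fun x hx => by
    rw [← hKS]; exact mem_image_of_mem _ (hS (mem_image_of_mem _ hx))
  have hKm : ∀ x ∈ S1 ℝ, K (φ x) ∈ Km (ℝ × ℝ) := fun x hx =>
    ⟨(hKneg _ (mem_image_of_mem _ hx)).le, hKmem x hx⟩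
  -- the plane curve
  let γ : ℝ × ℝ → ℝ × ℝ := fun x => (K (φ x)).1
  have hem : ∀ x ∈ S1 ℝ, em (γ x) = K (φ x) := fun x hx => em_of_mem_Km (hKm x hx)
  have hγ : PLOn γ (S1 ℝ) := by
    have h1 : PLMap (fun p : (ℝ × ℝ) × ℝ => (K p).1) := PLMap.fst hK.1
    exact (h1.plOn univ).comp hφ (fun _ _ => mem_univ _)
  have hγi : InjOn γ (S1 ℝ) := by
    intro x hx y hy e
    apply hinj hx hy
    apply K.injective
    rw [← hem x hx, ← hem y hy, e]
  have hγn : ∀ x ∈ S1 ℝ, ‖γ x‖ < 1 := by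
    intro x hx
    have h1 : ‖(K (φ x)).1‖ + |(K (φ x)).2| = 1 := hKmem x hx
    have h2 := hKneg _ (mem_image_of_mem _ hx)
    rw [abs_of_neg h2] at h1
    show ‖(K (φ x)).1‖ < 1
    linarith
  obtain ⟨H, hH, hHS⟩ := stdC_of_plOn hγ hγi
  -- the inside lies in the open square
  have hne : (S1 ℝ).Nonempty := ⟨(1, 0), by show |(1:ℝ)| + |(0:ℝ)| = 1; norm_num⟩
  obtain ⟨x0, hx0, hmax⟩ := hcpt.exists_isMaxOn hne (hγ.1.norm)
  set r : ℝ := (1 + ‖γ x0‖) / 2 with hr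
  have hr0 : 0 < r := by have := norm_nonneg (γ x0); linarith
  have hr1 : r < 1 := by have := hγn x0 hx0; linarith
  have hcurve : H '' S1 ℝ ⊆ rotR r hr0.ne' '' {p : ℝ × ℝ | N1 p ≤ 1} := by
    rw [rotR_ball r hr0, hHS]
    rintro _ ⟨x, hx, rfl⟩
    have h1 : ‖γ x‖ ≤ ‖γ x0‖ := hmax hx
    have h2 := hγn x0 hx0
    rw [mem_closedBall, dist_zero_right]
    linarith
  have hU := inside_subset hcurve
  have hin : H '' {p : ℝ × ℝ | N1 p ≤ 1} ⊆ closedBall 0 r := by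
    rw [image_le_eq, ← rotR_ball r hr0]
    refine union_subset (hU.trans (image_mono U1_subset_le)) hcurve
  have hlt : ∀ y ∈ H '' {p : ℝ × ℝ | N1 p ≤ 1}, ‖y‖ < 1 := by
    intro y hy
    have := hin hy
    rw [mem_closedBall, dist_zero_right] at this
    linarith
  -- the two sides
  let D : Set ((ℝ × ℝ) × ℝ) := em '' (H '' {p : ℝ × ℝ | N1 p ≤ 1})
  let W : Set ((ℝ × ℝ) × ℝ) := {p | p.2 < 0} ∩ Prod.fst ⁻¹' (H '' U1 ℝ)
  let E : Set ((ℝ × ℝ) × ℝ) := S1 (ℝ × ℝ) \ W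
  have hemc : Continuous (em : ℝ × ℝ → (ℝ × ℝ) × ℝ) := (em_pl polyNorm_plane).continuous
  have hDc : IsClosed D := ((isCompact_le.image H.continuous).image hemc).isClosed
  have hWo : IsOpen W := (isOpen_lt continuous_snd continuous_const).inter
    ((H.isOpenMap _ isOpen_U1).preimage continuous_fst)
  have hEc : IsClosed E := isCompact_S1.isClosed.sdiff hWo
  have hDS : D ⊆ S1 (ℝ × ℝ) := by
    rintro _ ⟨y, hy, rfl⟩; exact em_mem (hlt y hy).le
  have hWD : ∀ p ∈ S1 (ℝ × ℝ), p ∈ W → p ∈ em '' (H '' U1 ℝ) := by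
    intro p hp hpW
    exact ⟨p.1, hpW.2, em_of_mem_Km ⟨(show p.2 < 0 from hpW.1).le, hp⟩⟩
  have hemW : ∀ y, ‖y‖ < 1 → y ∈ H '' U1 ℝ → em y ∈ W := by
    intro y hy1 hy
    refine ⟨?_, hy⟩
    show -(1 - ‖y‖) < 0
    linarith
  have hDE : D ∪ E = S1 (ℝ × ℝ) := by
    apply Subset.antisymm (union_subset hDS sdiff_subset)
    intro p hp
    by_cases h : p ∈ W
    · left
      obtain ⟨y, hy, e⟩ := hWD p hp h
      exact ⟨y, image_mono U1_subset_le hy, e⟩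
    · exact Or.inr ⟨hp, h⟩
  have hΓ : K '' (φ '' S1 ℝ) = em '' (H '' S1 ℝ) := by
    rw [hHS, image_image, image_image]
    exact image_congr fun x hx => (hem x hx).symm
  have hi : D ∩ E = K '' (φ '' S1 ℝ) := by
    rw [hΓ]
    apply Subset.antisymm
    · rintro _ ⟨⟨y, hy, rfl⟩, -, hnW⟩
      have h1 := hy
      rw [image_le_eq] at h1
      rcases h1 with h1 | h1
      · exact absurd (hemW y (hlt y hy) h1) hnW
      · exact ⟨y, h1, rfl⟩
    · rintro _ ⟨y, hy, rfl⟩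
      have hy' : y ∈ H '' {p : ℝ × ℝ | N1 p ≤ 1} := image_mono S1_subset_le hy
      refine ⟨⟨y, hy', rfl⟩, em_mem (hlt y hy').le, ?_⟩
      rintro ⟨-, h2⟩
      exact disjoint_left.1 (disjoint_U1_S1 H) h2 hy
  -- pull back
  have hpull : ∀ A : Set ((ℝ × ℝ) × ℝ), K.symm '' (K '' A) = A := fun A => symm_image_image' K A
  have hKsS : K.symm '' S1 (ℝ × ℝ) = S1 (ℝ × ℝ) := by
    nth_rewrite 1 [← hKS]
    exact hpull _
  have hi' : K.symm '' D ∩ K.symm '' E = φ '' S1 ℝ := by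
    rw [← image_inter K.symm.injective, hi, hpull]
  obtain ⟨ψ, hψ, hψe⟩ := extend_circle hφ
  have hψi : ψ '' S1 ℝ = φ '' S1 ℝ := image_congr hψe
  have hψinj : InjOn ψ (S1 ℝ) := fun x hx y hy e => hinj hx hy (by rw [← hψe hx, ← hψe hy, e])
  refine ⟨K.symm '' D, K.symm '' E, ?_, by rw [← image_union, hDE, hKsS], hi'⟩
  have hstd : StdC (S1 (ℝ × ℝ)) := ⟨Homeomorph.refl _, PLH.refl, by simp⟩
  refine hstd.pair_plane hψ hψinj (K.symm.isClosedMap _ hDc) (K.symm.isClosedMap _ hEc)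
    (by rw [← image_union, hDE, hKsS]) (by rw [hi', hψi]) ?_ ?_
  · rw [hψi, ← hpull (φ '' S1 ℝ), ← image_sdiff K.symm.injective]
    refine Set.Nonempty.image _ ?_
    refine ⟨em (H 0), ⟨H 0, ⟨0, by simp [N1], rfl⟩, rfl⟩, ?_⟩
    rw [hΓ]
    rintro ⟨y, hy, e⟩
    have e1 : y = H 0 := congrArg Prod.fst e
    rw [e1] at hy
    obtain ⟨z, hz, e2⟩ := hy
    rw [H.injective e2] at hz
    have : N1 (0 : ℝ × ℝ) = 1 := hz
    rw [N1_zero] at this
    exact zero_ne_one this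
  · rw [hψi, ← hpull (φ '' S1 ℝ), ← image_sdiff K.symm.injective]
    refine Set.Nonempty.image _ ?_
    refine ⟨(0, 1), ⟨by simp [S1, N1], ?_⟩, ?_⟩
    · rintro ⟨h1, -⟩
      have : (1:ℝ) < 0 := h1
      linarith
    · rintro ⟨_, ⟨x, hx, rfl⟩, e⟩
      have h1 := hKneg _ (mem_image_of_mem _ hx)
      rw [e] at h1
      have : (1:ℝ) < 0 := h1
      linarith

/-! ### the boundary of an abstract 3-ball -/

section Abstract

variable {E : Type*} [NormedAddCommGroup E] [NormedSpace ℝ E]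

theorem isBall_space : IsBall 3 {p : (ℝ × ℝ) × ℝ | N1 p ≤ 1} (S1 (ℝ × ℝ)) := by
  have := ballPair_real2.ball
  rwa [Kp_union_Km] at this

/-- the boundary of a 2-ball is a circle -/
theorem circle_of_disc {A Γ : Set E} (h : IsBall 2 A Γ) : Nonempty (PLEquiv (S1 ℝ) Γ) := by
  obtain ⟨e, he, he'⟩ := isBall_plane.exists_equiv h
  exact ⟨e.restr isBall_plane.subset h.subset (fun x hx => by rw [← he]; exact ⟨x, hx, rfl⟩)
    (fun x hx => by rw [← he']; exact ⟨x, hx, rfl⟩)⟩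

/-- **a circle on the boundary of a 3-ball bounds two complementary discs** -/
theorem sphere_sides {K S Γ : Set E} (hK : IsBall 3 K S) (hΓ : Nonempty (PLEquiv (S1 ℝ) Γ))
    (hΓS : Γ ⊆ S) : ∃ A B, BallPair 2 K A B Γ ∧ A ∪ B = S := by
  obtain ⟨c⟩ := hΓ
  obtain ⟨e, he, he'⟩ := isBall_space.exists_equiv hK
  have hSK : S ⊆ K := hK.subset
  let φ : ℝ × ℝ → (ℝ × ℝ) × ℝ := fun x => e.g (c.f x)
  have hφ : PLOn φ (S1 ℝ) := (e.pg.mono (hΓS.trans hSK)).comp c.pf c.mf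
  have hgi : InjOn e.g K := e.symm.injOn
  have hφi : InjOn φ (S1 ℝ) := by
    intro x hx y hy h
    exact c.injOn hx hy (hgi (hSK (hΓS (c.mf hx))) (hSK (hΓS (c.mf hy))) h)
  have himg : φ '' S1 ℝ = e.g '' Γ := by
    rw [← c.image_eq, image_image]
  have hφS : φ '' S1 ℝ ⊆ S1 (ℝ × ℝ) := by
    rw [himg, ← he']; exact image_mono hΓS
  obtain ⟨D, E', hDE, h1, h2⟩ := exists_sides hφ hφi hφS
  obtain ⟨H, hH, a1, a2⟩ := hDE
  have a3 := StdS.inter a1 a2
  have P := ballPair_real2.plh hH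
  rw [a1, a2, a3, h2] at P
  have P' : BallPair 2 {p : (ℝ × ℝ) × ℝ | N1 p ≤ 1} D E' (φ '' S1 ℝ) :=
    ⟨by rw [h1]; exact isBall_space, P.ball₁, P.ball₂, P.inter⟩
  have Q := P'.map e
  have hΓ' : e.f '' (φ '' S1 ℝ) = Γ := by
    rw [himg, image_image]
    exact (image_congr fun x hx => e.ri x (hSK (hΓS hx))).trans (image_id' _)
  rw [hΓ'] at Q
  exact ⟨_, _, Q, by rw [← image_union, h1, he]⟩

/-- **the complementary disc** -/
theorem exists_compl_disc {K S A Γ : Set E} (hK : IsBall 3 K S) (hA : IsBall 2 A Γ)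
    (hAS : A ⊆ S) : ∃ B, BallPair 2 K A B Γ ∧ A ∪ B = S := by
  obtain ⟨A₁, B₁, h1, h2⟩ := sphere_sides hK (circle_of_disc hA) (hA.subset.trans hAS)
  have key : ∀ {A₁ B₁ : Set E}, BallPair 2 K A₁ B₁ Γ → A \ Γ ⊆ A₁ → A = A₁ := by
    intro A₁ B₁ h1 h3
    refine ball_eq_of_subset hA h1.ball₁ ?_
    intro x hx
    by_cases hx' : x ∈ Γ
    · exact h1.ball₁.subset hx'
    · exact h3 ⟨hx, hx'⟩
  have hcov : A \ Γ ⊆ A₁ ∪ B₁ := by rw [h2]; exact sdiff_subset.trans hAS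
  have hpre := hA.isPreconnected_diff
  have hdis : (A \ Γ) ∩ (A₁ ∩ B₁) = ∅ := by
    rw [h1.inter]
    ext x
    constructor
    · rintro ⟨⟨-, h3⟩, h4⟩; exact h3 h4
    · simp
  have h3 := isPreconnected_closed_iff.1 hpre A₁ B₁ h1.ball₁.isClosed h1.ball₂.isClosed hcov
  by_cases c1 : ((A \ Γ) ∩ A₁).Nonempty
  · by_cases c2 : ((A \ Γ) ∩ B₁).Nonempty
    · have := h3 c1 c2
      rw [hdis] at this
      exact absurd this (by simp)
    · have h4 : A \ Γ ⊆ A₁ := by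
        intro x hx
        rcases hcov hx with h5 | h5
        · exact h5
        · exact absurd ⟨x, hx, h5⟩ c2
      have e := key h1 h4
      rw [e]
      exact ⟨B₁, h1, h2⟩
  · have h4 : A \ Γ ⊆ B₁ := by
      intro x hx
      rcases hcov hx with h5 | h5
      · exact absurd ⟨x, hx, h5⟩ c1
      · exact h5
    have e := key h1.symm h4
    rw [e]
    exact ⟨A₁, h1.symm, by rw [union_comm]; exact h2⟩

/-- **gluing of two 3-balls along a disc** -/
theorem glue_ball3 {K₁ K₂ S₁ S₂ D Γ : Set E} (h₁ : IsBall 3 K₁ S₁) (h₂ : IsBall 3 K₂ S₂)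
    (hD : IsBall 2 D Γ) (hD1 : D ⊆ S₁) (hD2 : D ⊆ S₂) (hK : K₁ ∩ K₂ = D) :
    ∃ D₁ D₂, BallPair 2 (K₁ ∪ K₂) D₁ D₂ Γ ∧ D ∪ D₁ = S₁ ∧ D ∪ D₂ = S₂ ∧
      D ∩ D₁ = Γ ∧ D ∩ D₂ = Γ := by
  obtain ⟨D₁, a1, a2⟩ := exists_compl_disc h₁ hD hD1
  obtain ⟨D₂, b1, b2⟩ := exists_compl_disc h₂ hD hD2
  exact ⟨D₁, D₂, a1.glue b1 hK, a2, b2, a1.inter, b1.inter⟩

end Abstract

end Crest.Agent.R096.Cb_609
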