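import Crest.Agent.R096.Ar4_241
import Crest.Agent.R096.Cb6_609

/-!
# R096 (row 96), ARR part 5 (helper241): the fibres of a transport structure

`Tr0` = 537's `Trn` without the ball condition.  `Tr0.sphere`: if the fibres over all larger cells
are balls then the boundary `S q` of the fibre `F q` over `b q` is a PL sphere of the right
dimension.  `Tr0.chamber`: the fibre over a vertex is a 3-ball (P2 = PL Schoenflies in dimension 3
is a hypothesis).  `Tr0.balls`: all fibres are balls if the fibres over the cells of codimension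
0, 1, 2 are.
-/

set_option autoImplicit false
set_option linter.unusedSectionVars false
set_option linter.unusedVariables false

open Set Metric Topology Module
open scoped Classical

namespace Crest.Agent.R096.Ar_241

open Crest.Agent.R096.Xp_537
open Crest.Agent.R096.Ce_537 (PLOn PLEquiv cube sph IsBall plOn_affine plOn_biUnion Cplx Opn plOn_id
  plOn_const)

variable {E : Type*} [NormedAddCommGroup E] [NormedSpace ℝ E] [FiniteDimensional ℝ E]
  {Q : Type*} [PartialOrder Q] {Λ : Set E}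
  {E' : Type*} [NormedAddCommGroup E'] [NormedSpace ℝ E']

/-- transport structure without the ball condition -/
structure Tr0 (Ω : Set E') (C : CC Λ Q) (G : E' → E) where
  top : E' → Q
  tr : E' → E → E'
  G_mem : ∀ x ∈ Ω, G x ∈ C.cell (top x)
  tr_mem : ∀ x ∈ Ω, ∀ t ∈ C.cell (top x), tr x t ∈ Ω
  tr_G : ∀ x ∈ Ω, ∀ t ∈ C.cell (top x), G (tr x t) = t
  tr_top : ∀ x ∈ Ω, ∀ t ∈ C.cell (top x), top x ≤ top (tr x t)
  tr_self : ∀ x ∈ Ω, tr x (G x) = x
  tr_tr : ∀ x ∈ Ω, ∀ t ∈ C.cell (top x), ∀ s ∈ C.cell (top x), tr (tr x t) s = tr x s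
  plG : ∀ q, PLOn G {x | x ∈ Ω ∧ q ≤ top x ∧ G x ∈ C.cell q}
  plc : ∀ q, PLOn (fun x => tr x (C.b q)) {x | x ∈ Ω ∧ q ≤ top x ∧ G x ∈ C.cell q}
  pltr : ∀ q, PLOn (fun p : E' × E => tr p.1 p.2) ({x | x ∈ Ω ∧ G x = C.b q} ×ˢ C.cell q)
  lf : ∀ x ∈ Ω, ∃ r > 0,
    {q | ({x | x ∈ Ω ∧ q ≤ top x ∧ G x ∈ C.cell q} ∩ Metric.ball x r).Nonempty}.Finite

namespace Tr0

variable {Ω : Set E'} {C : CC Λ Q} {G : E' → E} (X : Tr0 Ω C G)

/-- the fibre over the centre of `q` -/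
def F (_X : Tr0 Ω C G) (q : Q) : Set E' := {x | x ∈ Ω ∧ G x = C.b q}

/-- its boundary -/
def S (X : Tr0 Ω C G) (q : Q) : Set E' := {x | x ∈ Ω ∧ G x = C.b q ∧ X.top x ≠ q}

/-- the piece of `q` -/
def P (X : Tr0 Ω C G) (q : Q) : Set E' := {x | x ∈ Ω ∧ q ≤ X.top x ∧ G x ∈ C.cell q}

/-- the boundary cells -/
def T (X : Tr0 Ω C G) (q : Q) (r : Up q) : Set E' := {x | x ∈ Ω ∧ G x = C.b q ∧ r.1 ≤ X.top x}

/-- the completed transport structure -/
def trn (n : ℕ) (d : Q → ℕ) (hn : ∀ q, C.dim q ≤ n)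
    (h : ∀ q, IsBall (d q) (X.F q) (X.S q)) : Trn Ω C G where
  top := X.top
  tr := X.tr
  d := d
  n := n
  dim_le := hn
  G_mem := X.G_mem
  tr_mem := X.tr_mem
  tr_G := X.tr_G
  tr_top := X.tr_top
  tr_self := X.tr_self
  tr_tr := X.tr_tr
  plG := X.plG
  plc := X.plc
  pltr := X.pltr
  ball := h
  lf := X.lf

lemma F_top {q : Q} {x : E'} (hx : x ∈ X.F q) : q ≤ X.top x :=
  C.le_of_b (by rw [← hx.2]; exact X.G_mem x hx.1)

lemma S_sub (q : Q) : X.S q ⊆ X.F q := fun x hx => ⟨hx.1, hx.2.1⟩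

lemma top_tr {x : E'} (hx : x ∈ Ω) {t : E} (ht : t ∈ C.cell (X.top x)) :
    X.top (X.tr x t) = X.top x := by
  have h1 := X.tr_top x hx t ht
  refine le_antisymm ?_ h1
  have h2 := X.tr_top (X.tr x t) (X.tr_mem x hx t ht) (G x) (C.mono_le h1 (X.G_mem x hx))
  rwa [X.tr_tr x hx t ht (G x) (X.G_mem x hx), X.tr_self x hx] at h2

lemma F_cell {q : Q} {x : E'} (hx : x ∈ X.F q) {t : E} (ht : t ∈ C.cell q) :
    t ∈ C.cell (X.top x) := C.mono_le (X.F_top hx) ht

/-- the fibre over `r` is transported into the boundary of the fibre over `q` -/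
def eT (q : Q) (r : Up q) : PLEquiv (X.F r.1) (X.T q r) where
  f := fun x => X.tr x (C.b q)
  g := fun x => X.tr x (C.b r.1)
  pf := by
    have h1 : PLOn (fun x : E' => (x, C.b q)) (X.F r.1) :=
      Bd_416.pl_pair (plOn_id _) (plOn_const _ _)
    exact (X.pltr r.1).comp h1 fun x hx => ⟨hx, C.mono r.2 (C.bmem q)⟩
  pg := (X.plc r.1).mono fun x hx =>
    ⟨hx.1, hx.2.2, by rw [hx.2.1]; exact C.mono r.2 (C.bmem q)⟩
  mf := fun x hx => by
    have h1 : C.b q ∈ C.cell (X.top x) := X.F_cell hx (C.mono r.2 (C.bmem q))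
    refine ⟨X.tr_mem x hx.1 _ h1, X.tr_G x hx.1 _ h1, ?_⟩
    rw [X.top_tr hx.1 h1]
    exact X.F_top hx
  mg := fun x hx => by
    have h1 : C.b r.1 ∈ C.cell (X.top x) := C.mono_le hx.2.2 (C.bmem _)
    exact ⟨X.tr_mem x hx.1 _ h1, X.tr_G x hx.1 _ h1⟩
  li := fun x hx => by
    have h1 : C.b q ∈ C.cell (X.top x) := X.F_cell hx (C.mono r.2 (C.bmem q))
    have h2 : C.b r.1 ∈ C.cell (X.top x) := X.F_cell hx (C.bmem _)
    show X.tr (X.tr x (C.b q)) (C.b r.1) = x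
    rw [X.tr_tr x hx.1 _ h1 _ h2, ← hx.2, X.tr_self x hx.1]
  ri := fun x hx => by
    have h1 : C.b r.1 ∈ C.cell (X.top x) := C.mono_le hx.2.2 (C.bmem _)
    have h2 : C.b q ∈ C.cell (X.top x) := C.mono_le hx.2.2 (C.mono r.2 (C.bmem q))
    show X.tr (X.tr x (C.b r.1)) (C.b q) = x
    rw [X.tr_tr x hx.1 _ h1 _ h2, ← hx.2.1, X.tr_self x hx.1]

lemma eT_bdry (q : Q) (r : Up q) : (X.eT q r).f '' X.S r.1 = ⋃ r' ∈ {r' | r < r'}, X.T q r' := by
  ext y
  simp only [mem_image, mem_iUnion, exists_prop]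
  constructor
  · rintro ⟨x, hx, rfl⟩
    have hF : x ∈ X.F r.1 := X.S_sub _ hx
    have h1 : C.b q ∈ C.cell (X.top x) := X.F_cell hF (C.mono r.2 (C.bmem q))
    have h2 : r.1 < X.top x := lt_of_le_of_ne (X.F_top hF) (Ne.symm hx.2.2)
    refine ⟨⟨X.top x, r.2.trans h2⟩, h2, X.tr_mem x hx.1 _ h1, X.tr_G x hx.1 _ h1, ?_⟩
    show X.top x ≤ X.top (X.tr x (C.b q))
    rw [X.top_tr hx.1 h1]
  · rintro ⟨r', hr', hy⟩
    have hyr : y ∈ X.T q r := ⟨hy.1, hy.2.1, (show r.1 ≤ r'.1 from hr'.le).trans hy.2.2⟩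
    have h1 : C.b r.1 ∈ C.cell (X.top y) := C.mono_le hyr.2.2 (C.bmem _)
    refine ⟨X.tr y (C.b r.1), ⟨X.tr_mem y hy.1 _ h1, X.tr_G y hy.1 _ h1, ?_⟩,
      (X.eT q r).ri y hyr⟩
    rw [X.top_tr hy.1 h1]
    exact ((show r.1 < r'.1 from hr').trans_le hy.2.2).ne'

/-- the boundary cells are balls -/
lemma isBall_T {q : Q} {r : Up q} (h : IsBall (cod C r.1) (X.F r.1) (X.S r.1)) :
    IsBall (cod C r.1) (X.T q r) (⋃ r' ∈ {r' | r < r'}, X.T q r') := by
  rw [← X.eT_bdry]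
  exact h.map _

/-- **the boundary of the fibre is a PL sphere** -/
theorem sphere (hΛ : IsOpen Λ) (q : Q)
    (h : ∀ r : Up q, IsBall (cod C r.1) (X.F r.1) (X.S r.1)) :
    Nonempty (PLEquiv (sph (cod C q)) (X.S q)) := by
  refine bdry_sphere' C hΛ q (T := X.T q) (fun r => X.isBall_T (h r)) (fun r x hx => ?_)
    (fun x hx => ?_)
  · exact ⟨hx.1, hx.2.1, fun he => absurd r.2 (not_lt_of_ge (he ▸ hx.2.2))⟩
  · have h1 : q < X.top x := lt_of_le_of_ne (X.F_top (X.S_sub _ hx)) (Ne.symm hx.2.2)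
    exact ⟨⟨X.top x, h1⟩, fun r => ⟨fun hr => hr.2.2, fun hr => ⟨hx.1, hx.2.1, hr⟩⟩⟩

/-- compact fibres give compact pieces -/
lemma isCompact_P (hc : ∀ q, IsCompact (X.F q)) (q : Q) : IsCompact (X.P q) := by
  have h1 : X.P q = (fun p : E' × E => X.tr p.1 p.2) '' (X.F q ×ˢ C.cell q) := by
    ext x
    constructor
    · rintro ⟨hx, hq, hG⟩
      have h2 : C.b q ∈ C.cell (X.top x) := C.mono_le hq (C.bmem q)
      refine ⟨(X.tr x (C.b q), G x), ⟨⟨X.tr_mem x hx _ h2, X.tr_G x hx _ h2⟩, hG⟩, ?_⟩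
      show X.tr (X.tr x (C.b q)) (G x) = x
      rw [X.tr_tr x hx _ h2 _ (X.G_mem x hx), X.tr_self x hx]
    · rintro ⟨⟨m, t⟩, ⟨hm, ht⟩, rfl⟩
      have h2 := X.F_cell hm ht
      refine ⟨X.tr_mem m hm.1 t h2, ?_, ?_⟩
      · show q ≤ X.top (X.tr m t)
        rw [X.top_tr hm.1 h2]
        exact X.F_top hm
      · show G (X.tr m t) ∈ C.cell q
        rw [X.tr_G m hm.1 t h2]
        exact ht
  rw [h1]
  exact ((hc q).prod (C.cpt q)).image_of_continuousOn (X.pltr q).1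

/-- near a point only the pieces containing it occur -/
lemma near (hΩ : IsOpen Ω) (hc : ∀ q, IsCompact (X.F q)) {x : E'} (hx : x ∈ Ω) :
    ∃ r > (0:ℝ), ball x r ⊆ Ω ∧ ∀ z ∈ ball x r, X.top z ≤ X.top x ∧ G x ∈ C.cell (X.top z) := by
  obtain ⟨r0, hr0, h0⟩ := Metric.isOpen_iff.1 hΩ x hx
  obtain ⟨r1, hr1, hf⟩ := X.lf x hx
  set A : Set Q := {q | (X.P q ∩ ball x r1).Nonempty} ∩ {q | x ∉ X.P q} with hA
  have hfin : A.Finite := hf.subset inter_subset_left
  have hcl : IsClosed (⋃ q ∈ A, X.P q) :=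
    hfin.isClosed_biUnion fun q _ => (X.isCompact_P hc q).isClosed
  have hnot : x ∉ ⋃ q ∈ A, X.P q := by
    intro h
    obtain ⟨q, hq, hxq⟩ := mem_iUnion₂.1 h
    exact hq.2 hxq
  obtain ⟨r2, hr2, h2⟩ := Metric.isOpen_iff.1 hcl.isOpen_compl _ hnot
  refine ⟨min r0 (min r1 r2), lt_min hr0 (lt_min hr1 hr2),
    (ball_subset_ball (min_le_left _ _)).trans h0, fun z hz => ?_⟩
  have hz1 : z ∈ ball x r1 := ball_subset_ball ((min_le_right _ _).trans (min_le_left _ _)) hz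
  have hz2 : z ∈ ball x r2 := ball_subset_ball ((min_le_right _ _).trans (min_le_right _ _)) hz
  have hzΩ : z ∈ Ω := h0 (ball_subset_ball (min_le_left _ _) hz)
  have hzP : z ∈ X.P (X.top z) := ⟨hzΩ, le_rfl, X.G_mem z hzΩ⟩
  have hxP : x ∈ X.P (X.top z) := by
    by_contra hcon
    exact h2 hz2 (mem_biUnion (show X.top z ∈ A from ⟨⟨z, hzP, hz1⟩, hcon⟩) hzP)
  exact ⟨hxP.2.1, hxP.2.2⟩

/-- a vertex -/
lemma cell_vertex {q : Q} (hq : cod C q = finrank ℝ E) (y : E) (hy : y ∈ C.cell q) :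
    y = C.b q := by
  by_cases h0 : finrank ℝ E = 0
  · have : Subsingleton E := finrank_zero_iff.1 h0
    exact Subsingleton.elim _ _
  · have h1 : finrank ℝ (dirW C q) = 0 := by
      unfold cod at hq; omega
    have h2 : dirW C q = ⊥ := Submodule.finrank_eq_zero.1 h1
    have h3 := sub_mem_dirW C hy
    rw [h2, Submodule.mem_bot] at h3
    exact sub_eq_zero.1 h3

/-- the frontier of a chamber -/
lemma frontier_F (hΩ : IsOpen Ω) (hc : ∀ q, IsCompact (X.F q)) {q : Q}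
    (hq : cod C q = finrank ℝ E) : frontier (X.F q) ⊆ X.S q := by
  intro x hx
  have hxF : x ∈ X.F q := (hc q).isClosed.frontier_subset hx
  refine ⟨hxF.1, hxF.2, fun he => ?_⟩
  obtain ⟨r, hr, hsub, hn⟩ := X.near hΩ hc hxF.1
  have hint : x ∈ interior (X.F q) := by
    rw [mem_interior]
    refine ⟨ball x r, fun z hz => ?_, isOpen_ball, mem_ball_self hr⟩
    obtain ⟨h1, h2⟩ := hn z hz
    have h3 : q ≤ X.top z := C.le_of_b (hxF.2 ▸ h2)
    have h4 : X.top z = q := le_antisymm (he ▸ h1) h3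
    have h5 := X.G_mem z (hsub hz)
    rw [h4] at h5
    exact ⟨hsub hz, cell_vertex hq _ h5⟩
  exact hx.2 hint

/-- the barycentre of a vertex is an extreme point of the cells which cover it -/
lemma convex_diff (hΛ : IsOpen Λ) {q : Q} (hq : cod C q = finrank ℝ E) {r : Q} (hqr : q < r)
    (hmin : ∀ s, q < s → s ≤ r → s = r) : Convex ℝ (C.cell r \ {C.b q}) := by
  -- points of the cell near `b q`, `≠ b q`, are in the open cell
  obtain ⟨ε, hε, hsubε, hnear⟩ := exists_near C hΛ q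
  have key : ∀ z ∈ C.cell r, z ≠ C.b q → z ∈ ball (C.b q) ε → ∀ p < r, z ∉ C.cell p := by
    intro z hz hne hzε p hp hzp
    obtain ⟨s, hs, hzs, hso⟩ := C.exists_opn hzp
    have h1 := hnear z hzε s hzs
    rcases h1.eq_or_lt with rfl | h1
    · exact hne (cell_vertex hq z hzs)
    · exact absurd (hmin s h1 (hs.trans hp.le)) ((hs.trans_lt hp).ne)
  intro x hx y hy a b ha hb hab
  refine ⟨C.conv r hx.1 hy.1 ha hb hab, fun he => ?_⟩
  have he' : a • x + b • y = C.b q := he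
  rcases ha.eq_or_lt with ha0 | ha0
  · rw [← ha0] at he' hab
    have : b = 1 := by linarith
    rw [this] at he'
    exact hy.2 (by simpa using he')
  rcases hb.eq_or_lt with hb0 | hb0
  · rw [← hb0] at he' hab
    have : a = 1 := by linarith
    rw [this] at he'
    exact hx.2 (by simpa using he')
  -- a point `z` near `b q` on the segment to `x`
  obtain ⟨τ0, hτ0, hball⟩ := exists_smul_near (x := C.b q) (v := x - C.b q) hε
  set τ := min τ0 1 with hτ
  have hτp : 0 < τ := lt_min hτ0 one_pos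
  have hτ1 : τ ≤ 1 := min_le_right _ _
  set z := C.b q + τ • (x - C.b q) with hz
  have hzc : z ∈ C.cell r := by
    have h1 := C.conv r (C.mono hqr (C.bmem q)) hx.1 (a := 1 - τ) (b := τ)
      (sub_nonneg.2 hτ1) hτp.le (by ring)
    convert h1 using 1
    rw [hz]; module
  have hzne : z ≠ C.b q := by
    intro h
    have h2 : τ • (x - C.b q) = 0 := by
      have := h
      rw [hz] at this
      simpa using this
    rcases smul_eq_zero.1 h2 with h3 | h3
    · exact hτp.ne' h3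
    · exact hx.2 (sub_eq_zero.1 h3)
  have hzo := key z hzc hzne (hball τ hτp.le (min_le_left _ _))
  -- `b q` is on the segment from `z` to `y`
  have hden : 0 < b * τ + a := by positivity
  have hs1 : b * τ / (b * τ + a) < 1 := by rw [div_lt_one hden]; linarith
  have hfin := face_seg C hzc hzo hy.1 (s := b * τ / (b * τ + a)) (by positivity) hs1 q hqr
  apply hfin
  have h4 : (1 - b * τ / (b * τ + a)) • z + (b * τ / (b * τ + a)) • y = C.b q := by
    have e1 : 1 - b * τ / (b * τ + a) = a / (b * τ + a) := by field_simp; ring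
    have e2 : x - C.b q = (b / a) • (C.b q - y) := by
      have h5 : a • x = C.b q - b • y := by rw [← he']; abel
      have h6 : a • (x - C.b q) = b • (C.b q - y) := by
        rw [smul_sub, h5, smul_sub]
        have : b • C.b q = C.b q - a • C.b q := by
          have : b = 1 - a := by linarith
          rw [this]; module
        rw [this]; abel
      calc x - C.b q = a⁻¹ • (a • (x - C.b q)) := by
            rw [smul_smul, inv_mul_cancel₀ ha0.ne', one_smul]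
        _ = _ := by rw [h6, smul_smul]; congr 1; field_simp
    rw [e1, hz, e2]
    have e3 : (a / (b * τ + a)) * (τ * (b / a)) = b * τ / (b * τ + a) := by field_simp
    have e4 : a / (b * τ + a) + b * τ / (b * τ + a) = 1 := by field_simp; ring
    calc _ = (a / (b * τ + a)) • C.b q + ((a / (b * τ + a)) * (τ * (b / a))) • (C.b q - y) +
          (b * τ / (b * τ + a)) • y := by module
      _ = (a / (b * τ + a) + b * τ / (b * τ + a)) • C.b q := by rw [e3]; module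
      _ = _ := by rw [e4, one_smul]
  rw [h4]
  exact C.bmem q

/-- the fibre of a vertex is not contained in its boundary sphere -/
lemma not_sub (hΛ : IsOpen Λ) (hΩ : IsOpen Ω) (hc : ∀ q, IsCompact (X.F q)) {q : Q}
    (hq : cod C q = finrank ℝ E) {k : ℕ} (hk : 1 ≤ k) (H : (Fin k → ℝ) ≃ₜ E')
    (hS : H '' sph k = X.S q) (h : ∀ r : Up q, IsBall (cod C r.1) (X.F r.1) (X.S r.1)) :
    ¬ X.F q ⊆ X.S q := by
  intro hsub
  have : Finite (Up q) := finite_up C q
  -- a minimal cell above `q`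
  have hne : (X.S q).Nonempty := by
    rw [← hS]
    have : (sph k).Nonempty := by
      have : Nontrivial (Fin k → ℝ) := by
        have : Nonempty (Fin k) := ⟨⟨0, by omega⟩⟩
        infer_instance
      exact (NormedSpace.sphere_nonempty (x := (0 : Fin k → ℝ)) (r := 1)).2 zero_le_one
    exact this.image _
  obtain ⟨x0, hx0⟩ := hne
  have h0 : q < X.top x0 := lt_of_le_of_ne (X.F_top (X.S_sub _ hx0)) (Ne.symm hx0.2.2)
  obtain ⟨r, -, hr⟩ := (Set.toFinite (univ : Set (Up q))).exists_minimal ⟨⟨X.top x0, h0⟩, trivial⟩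
  have hmin : ∀ s : Q, q < s → s ≤ r.1 → s = r.1 := fun s hs hle =>
    le_antisymm hle (hr (y := ⟨s, hs⟩) trivial hle)
  -- a point of the boundary with top `r`
  obtain ⟨x, hxT, hxn⟩ := (X.isBall_T (q := q) (h r)).nonempty_diff
  have hxr : X.top x = r.1 := by
    by_contra hne'
    have h1 : r.1 < X.top x := lt_of_le_of_ne hxT.2.2 (Ne.symm hne')
    exact hxn (mem_iUnion₂.2 ⟨⟨X.top x, r.2.trans h1⟩, h1, hxT.1, hxT.2.1, le_rfl⟩)
  have hxS : x ∈ X.S q := ⟨hxT.1, hxT.2.1, by rw [hxr]; exact r.2.ne'⟩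
  obtain ⟨ε, hε, hsubε, hn⟩ := X.near hΩ hc hxT.1
  have htop : ∀ z ∈ ball x ε, X.top z = r.1 := by
    intro z hz
    obtain ⟨h1, h2⟩ := hn z hz
    have h3 : q ≤ X.top z := C.le_of_b (hxT.2.1 ▸ h2)
    rw [hxr] at h1
    rcases h3.eq_or_lt with h4 | h4
    · exfalso
      have h5 := X.G_mem z (hsubε hz)
      rw [← h4] at h5
      have h6 : z ∈ X.F q := ⟨hsubε hz, cell_vertex hq _ h5⟩
      exact (hsub h6).2.2 h4.symm
    · exact hmin _ h4 h1
  -- the connected set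
  set A : Set E' := (fun p : E' × E => X.tr p.1 p.2) '' ((X.F r.1 \ X.S r.1) ×ˢ (C.cell r.1 \ {C.b q}))
    with hA
  have hApre : IsPreconnected A := by
    refine ((h r).isPreconnected_diff.prod
      (convex_diff hΛ hq r.2 hmin).isPreconnected).image _ ?_
    exact (X.pltr r.1).1.mono (prod_mono diff_subset diff_subset)
  have hAS : ∀ y ∈ A, y ∉ X.S q := by
    rintro _ ⟨⟨m, t⟩, ⟨hm, ht⟩, rfl⟩ hy
    have h1 := X.tr_G m hm.1.1 t (X.F_cell hm.1 ht.1)
    exact ht.2 (h1.symm.trans hy.2.1)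
  have hUA : ∀ z ∈ ball x ε, z ∉ X.S q → z ∈ A := by
    intro z hz hzS
    have hzΩ := hsubε hz
    have h1 := htop z hz
    have h2 : C.b r.1 ∈ C.cell (X.top z) := by rw [h1]; exact C.bmem _
    have hG : G z ∈ C.cell r.1 := h1 ▸ X.G_mem z hzΩ
    refine ⟨(X.tr z (C.b r.1), G z), ⟨⟨⟨X.tr_mem z hzΩ _ h2, X.tr_G z hzΩ _ h2⟩, fun hS' => ?_⟩,
      hG, fun hGq => ?_⟩, ?_⟩
    · exact hS'.2.2 ((X.top_tr hzΩ h2).trans h1)
    · exact hzS (hsub ⟨hzΩ, hGq⟩)
    · show X.tr (X.tr z (C.b r.1)) (G z) = z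
      rw [X.tr_tr z hzΩ _ h2 _ (X.G_mem z hzΩ), X.tr_self z hzΩ]
  -- both sides are near `x`
  obtain ⟨y, hy, rfl⟩ : x ∈ H '' sph k := by rw [hS]; exact hxS
  have hU : IsOpen (H ⁻¹' ball (H y) ε) := isOpen_ball.preimage H.continuous
  have hyU : y ∈ H ⁻¹' ball (H y) ε := mem_ball_self hε
  have hin : ∃ a ∈ ball (0 : Fin k → ℝ) 1, H a ∈ ball (H y) ε := by
    have h1 : y ∈ closure (ball (0 : Fin k → ℝ) 1) := by
      rw [closure_ball _ one_ne_zero]
      exact sphere_subset_closedBall hy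
    obtain ⟨a, ha, ha'⟩ := mem_closure_iff.1 h1 _ hU hyU
    exact ⟨a, ha', ha⟩
  have hout : ∃ b ∈ (closedBall (0 : Fin k → ℝ) 1)ᶜ, H b ∈ ball (H y) ε := by
    obtain ⟨τ0, hτ0, hb⟩ := Metric.isOpen_iff.1 hU y hyU
    have hny : ‖y‖ = 1 := by simpa [sph] using hy
    refine ⟨(1 + τ0 / 2) • y, ?_, hb ?_⟩
    · simp only [mem_compl_iff, mem_closedBall_zero_iff, not_le, norm_smul, hny, mul_one,
        Real.norm_eq_abs]
      rw [abs_of_pos (by positivity)]
      linarith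
    · rw [mem_ball, dist_eq_norm]
      have : (1 + τ0 / 2) • y - y = (τ0 / 2) • y := by module
      rw [this, norm_smul, hny, mul_one, Real.norm_eq_abs, abs_of_pos (by positivity)]
      linarith
  obtain ⟨a, ha, haU⟩ := hin
  obtain ⟨b, hb, hbU⟩ := hout
  have hns : ∀ c, c ∉ sph k → H c ∉ X.S q := by
    intro c hc hcS
    rw [← hS] at hcS
    obtain ⟨d, hd, hde⟩ := hcS
    exact hc (H.injective hde ▸ hd)
  have haA : H a ∈ A := hUA _ haU (hns a fun h' => by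
    have : ‖a‖ = 1 := by simpa [sph] using h'
    have : ‖a‖ < 1 := by simpa using ha
    linarith)
  have hbA : H b ∈ A := hUA _ hbU (hns b fun h' => hb (sphere_subset_closedBall h'))
  have hsplit : A ⊆ H '' ball (0 : Fin k → ℝ) 1 ∪ H '' (closedBall (0 : Fin k → ℝ) 1)ᶜ := by
    intro w hw
    have h1 : w ∈ (H '' sph k)ᶜ := by
      rw [hS]
      exact hAS w hw
    rw [← image_compl_eq H.bijective, sph_compl, image_union] at h1
    exact h1
  have o1 : IsOpen (H '' ball (0 : Fin k → ℝ) 1) := H.isOpenMap _ isOpen_ball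
  have o2 : IsOpen (H '' (closedBall (0 : Fin k → ℝ) 1)ᶜ) :=
    H.isOpenMap _ isClosed_closedBall.isOpen_compl
  obtain ⟨w, -, ⟨c, hc1, rfl⟩, ⟨d, hd1, hd2⟩⟩ :=
    hApre _ _ o1 o2 hsplit ⟨_, haA, a, ha, rfl⟩ ⟨_, hbA, b, hb, rfl⟩
  have := H.injective hd2
  subst this
  exact hd1 (ball_subset_closedBall hc1)

/-- PL Schoenflies in `E'` (every PL sphere is standard) -/
def P2 (E' : Type*) [NormedAddCommGroup E'] [NormedSpace ℝ E'] (k : ℕ) : Prop :=
  ∀ S : Set E', Nonempty (PLEquiv (sph k) S) → ∃ H : (Fin k → ℝ) ≃ₜ E',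
    PLOn H (cube k) ∧ PLOn H.symm (H '' cube k) ∧ H '' sph k = S

/-- **(R7) the fibre over a vertex is a ball** -/
theorem chamber (hΛ : IsOpen Λ) (hΩ : IsOpen Ω) (hc : ∀ q, IsCompact (X.F q))
    (hn : 2 ≤ finrank ℝ E) (hP : P2 E' (finrank ℝ E)) {q : Q} (hq : cod C q = finrank ℝ E)
    (h : ∀ r : Up q, IsBall (cod C r.1) (X.F r.1) (X.S r.1)) :
    IsBall (cod C q) (X.F q) (X.S q) := by
  have h1 := X.sphere hΛ q h
  rw [hq] at h1
  obtain ⟨H, p1, p2, p3⟩ := hP _ h1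
  have h2 := isBall_of_frontier hn H p1 p2 (hc q)
    (by rw [p3]; exact X.frontier_F hΩ hc hq)
    (by rw [p3]; exact X.not_sub hΛ hΩ hc hq (by omega) H p3 h)
  rw [p3] at h2
  rwa [hq]

/-- top cells: if the fibre is one point it is a 0-ball -/
theorem point (hΛ : IsOpen Λ) {q : Q} (hq : cod C q = 0) (h : ∃ x, X.F q = {x}) :
    IsBall (cod C q) (X.F q) (X.S q) := by
  obtain ⟨x, hx⟩ := h
  have hS : X.S q = ∅ := by
    rw [eq_empty_iff_forall_notMem]
    intro y hy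
    have h1 : q < X.top y := lt_of_le_of_ne (X.F_top (X.S_sub _ hy)) (Ne.symm hy.2.2)
    have := cod_lt C hΛ h1
    omega
  rw [hq, hS, hx]
  exact Cb_609.isBall_point x

/-- **All fibres are balls**, from the cells of positive dimension.  In the steps of positive
dimension one may use that the boundary is a PL sphere and that the larger fibres are balls. -/
theorem balls (hΛ : IsOpen Λ) (hΩ : IsOpen Ω) (hc : ∀ q, IsCompact (X.F q))
    (hn : 2 ≤ finrank ℝ E) (hP : P2 E' (finrank ℝ E))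
    (h0 : ∀ q, cod C q < finrank ℝ E →
      (∀ r : Up q, IsBall (cod C r.1) (X.F r.1) (X.S r.1)) →
      Nonempty (PLEquiv (sph (cod C q)) (X.S q)) → IsBall (cod C q) (X.F q) (X.S q)) :
    ∀ q, IsBall (cod C q) (X.F q) (X.S q) := by
  intro q
  induction hd : cod C q using Nat.strong_induction_on generalizing q with
  | _ d ih =>
    have h1 : ∀ r : Up q, IsBall (cod C r.1) (X.F r.1) (X.S r.1) := fun r =>
      ih (cod C r.1) (hd ▸ cod_lt C hΛ r.2) r.1 rfl
    rw [← hd]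
    by_cases hq : cod C q = finrank ℝ E
    · exact X.chamber hΛ hΩ hc hn hP hq h1
    · have : cod C q ≤ finrank ℝ E := Nat.sub_le _ _
      exact h0 q (by omega) h1 (X.sphere hΛ q h1)

end Tr0

/-! ### strips: the frontier trick on a PL 2-sphere -/

/-- **(R6), abstract.** `S'` a PL 2-sphere, `Γ ⊆ S'` a PL circle, `M` compact with relative frontier
in `Γ`, `M ⊄ Γ`, `S' ⊄ M`: then `M` is a disc with boundary `Γ`. -/
theorem isBall_side {S' Γ M : Set E'} (hS : Nonempty (PLEquiv (sph 3) S'))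
    (hΓ : Nonempty (PLEquiv (sph 2) Γ)) (hΓM : Γ ⊆ M) (hMS : M ⊆ S') (hM : IsCompact M)
    (hfr : ∀ x ∈ M, x ∉ Γ → ∃ ε > (0:ℝ), S' ∩ ball x ε ⊆ M) (h1 : ¬ M ⊆ Γ) (h2 : ¬ S' ⊆ M) :
    IsBall 2 M Γ := by
  obtain ⟨e⟩ := hS
  obtain ⟨c⟩ := hΓ
  -- transport to the boundary of the cube
  set Γ0 : Set (Fin 3 → ℝ) := e.g '' Γ with hΓ0
  have eΓ : PLEquiv Γ Γ0 := e.symm.restrImage (hΓM.trans hMS)
  have hΓ0S : Γ0 ⊆ sph 3 := by
    rintro _ ⟨x, hx, rfl⟩
    exact e.mg (hMS (hΓM hx))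
  obtain ⟨a, ha, -⟩ := Cb_609.isBall_plane.exists_equiv (Ce_537.isBall_cube 2)
  have a' : PLEquiv (Pl.S1 ℝ) (a.f '' Pl.S1 ℝ) := a.restrImage Cb_609.isBall_plane.subset
  rw [ha] at a'
  have hcirc : Nonempty (PLEquiv (Pl.S1 ℝ) Γ0) := ⟨(a'.trans c).trans eΓ⟩
  obtain ⟨A, B, hAB, hU⟩ := Cb_609.sphere_sides (Ce_537.isBall_cube 3) hcirc hΓ0S
  have hAs : A ⊆ sph 3 := by rw [← hU]; exact subset_union_left
  have hBs : B ⊆ sph 3 := by rw [← hU]; exact subset_union_right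
  have hfg : ∀ x ∈ S', e.f (e.g x) = x := e.ri
  have hback : e.f '' Γ0 = Γ := by
    rw [hΓ0, image_image]
    ext x
    constructor
    · rintro ⟨y, hy, rfl⟩
      show e.f (e.g y) ∈ Γ
      rwa [hfg y (hMS (hΓM hy))]
    · intro hx; exact ⟨x, hx, hfg x (hMS (hΓM hx))⟩
  -- images of the sides
  have key : ∀ D, D ⊆ sph 3 → IsBall 2 D Γ0 → IsBall 2 (e.f '' D) Γ := by
    intro D hD hb
    have h3 := hb.map (e.restrImage hD)
    have h4 : (e.restrImage hD).f '' Γ0 = Γ := hback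
    rwa [h4] at h3
  have bA := key A hAs hAB.ball₁
  have bB := key B hBs hAB.ball₂
  have hUn : e.f '' A ∪ e.f '' B = S' := by
    rw [← image_union, hU, e.image_eq]
  -- dichotomy
  have hdich : ∀ A0 : Set E', IsPreconnected A0 → A0 ⊆ S' → (∀ x ∈ A0, x ∉ Γ) →
      A0 ⊆ M ∨ ∀ x ∈ A0, x ∉ M := by
    intro A0 hpre hsub hd
    choose! ε hε hεM using hfr
    by_contra hcon
    push Not at hcon
    obtain ⟨hn1, x, hxA, hxM⟩ := hcon
    obtain ⟨y, hyA, hyM⟩ := not_subset.1 hn1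
    have oU : IsOpen (⋃ z ∈ M \ Γ, ball z (ε z)) := isOpen_biUnion fun _ _ => isOpen_ball
    obtain ⟨w, hwA, hwU, hwV⟩ := hpre _ _ oU hM.isClosed.isOpen_compl (fun z hz => by
        by_cases hzM : z ∈ M
        · exact Or.inl (mem_biUnion (show z ∈ M \ Γ from ⟨hzM, hd z hz⟩)
            (mem_ball_self (hε z hzM (hd z hz))))
        · exact Or.inr hzM)
      ⟨x, hxA, mem_biUnion (show x ∈ M \ Γ from ⟨hxM, hd x hxA⟩)
        (mem_ball_self (hε x hxM (hd x hxA)))⟩ ⟨y, hyA, hyM⟩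
    obtain ⟨z, hz, hwz⟩ := mem_iUnion₂.1 hwU
    exact hwV (hεM z hz.1 hz.2 ⟨hsub hwA, hwz⟩)
  have hA' : e.f '' A ⊆ S' := subset_union_left.trans hUn.subset
  have hB' : e.f '' B ⊆ S' := subset_union_right.trans hUn.subset
  have dA := hdich _ bA.isPreconnected_diff (diff_subset.trans hA') fun x hx => hx.2
  have dB := hdich _ bB.isPreconnected_diff (diff_subset.trans hB') fun x hx => hx.2
  have hfin : ∀ D D' : Set E', IsBall 2 D Γ → D ∪ D' = S' → (D \ Γ ⊆ M) → (∀ x ∈ D' \ Γ, x ∉ M) →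
      IsBall 2 M Γ := by
    intro D D' hD hun h3 h4
    have : M = D := by
      apply Subset.antisymm
      · intro x hx
        by_cases hxΓ : x ∈ Γ
        · exact hD.subset hxΓ
        · rcases hun.ge (hMS hx) with h5 | h5
          · exact h5
          · exact absurd hx (h4 x ⟨h5, hxΓ⟩)
      · intro x hx
        by_cases hxΓ : x ∈ Γ
        · exact hΓM hxΓ
        · exact h3 ⟨hx, hxΓ⟩
    rwa [this]
  rcases dA with hA1 | hA1 <;> rcases dB with hB1 | hB1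
  · exfalso
    apply h2
    intro x hx
    by_cases hxΓ : x ∈ Γ
    · exact hΓM hxΓ
    · rcases hUn.ge hx with h5 | h5
      · exact hA1 ⟨h5, hxΓ⟩
      · exact hB1 ⟨h5, hxΓ⟩
  · exact hfin _ _ bA hUn hA1 hB1
  · exact hfin _ _ bB (by rw [union_comm]; exact hUn) hB1 hA1
  · exfalso
    apply h1
    intro x hx
    by_contra hxΓ
    rcases hUn.ge (hMS hx) with h5 | h5
    · exact hA1 x ⟨h5, hxΓ⟩ hx
    · exact hB1 x ⟨h5, hxΓ⟩ hx

end Crest.Agent.R096.Ar_241
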