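import Crest.Agent.R096.PlCan2_458

/-!
# Standard PL spheres in `Fin 3 → ℝ` (helper458, row 96, P2-CAN)
-/

namespace Crest.Agent.R096.Pl

open Set Metric

/-- `(ℝ × ℝ) × ℝ ≃ (Fin 3 → ℝ)` -/
noncomputable def e3 : ((ℝ × ℝ) × ℝ) ≃L[ℝ] (Fin 3 → ℝ) :=
  LinearEquiv.toContinuousLinearEquiv
    { toFun := fun p => ![p.1.1, p.1.2, p.2]
      invFun := fun v => ((v 0, v 1), v 2)
      map_add' := fun p q => by ext i; fin_cases i <;> rfl
      map_smul' := fun c p => by ext i; fin_cases i <;> rfl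
      left_inv := fun p => rfl
      right_inv := fun v => by ext i; fin_cases i <;> rfl }

theorem e3_apply (p : (ℝ × ℝ) × ℝ) : e3 p = ![p.1.1, p.1.2, p.2] := rfl

theorem e3_symm_apply (v : Fin 3 → ℝ) : e3.symm v = ((v 0, v 1), v 2) := rfl

theorem norm_e3 (p : (ℝ × ℝ) × ℝ) : ‖e3 p‖ = ‖p‖ := by
  apply le_antisymm
  · rw [pi_norm_le_iff_of_nonneg (norm_nonneg _)]
    have h1 : ‖p.1‖ ≤ ‖p‖ := norm_fst_le p
    intro i
    fin_cases i
    · exact (norm_fst_le p.1).trans h1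
    · exact (norm_snd_le p.1).trans h1
    · exact norm_snd_le p
  · refine norm_prod_le_iff.2 ⟨norm_prod_le_iff.2 ⟨?_, ?_⟩, ?_⟩
    · exact norm_le_pi_norm (e3 p) 0
    · exact norm_le_pi_norm (e3 p) 1
    · exact norm_le_pi_norm (e3 p) 2

/-- a compact set `A ⊆ Fin 3 → ℝ` with nonempty interior and standard frontier is the image of the
cube under a PL homeomorphism of the space -/
theorem StdC.fin3 {A : Set (Fin 3 → ℝ)} (hA : IsCompact A) (hi : (interior A).Nonempty)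
    (h : StdC (F := ℝ × ℝ) (e3 ⁻¹' frontier A)) :
    ∃ H : (Fin 3 → ℝ) ≃ₜ (Fin 3 → ℝ), PLH H ∧ H '' closedBall 0 1 = A ∧
      H '' sphere 0 1 = frontier A ∧ H '' ball 0 1 = interior A :=
  StdC.transport (KOp.real.prod KOp.real) polyNorm_plane.pl e3 norm_e3 hA hi h

/-- the same for the surface only -/
theorem StdC.fin3' {S : Set (Fin 3 → ℝ)} (h : StdC (F := ℝ × ℝ) (e3 ⁻¹' S)) :
    ∃ (A : Set (Fin 3 → ℝ)) (H : (Fin 3 → ℝ) ≃ₜ (Fin 3 → ℝ)), IsCompact A ∧ frontier A = S ∧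
      PLH H ∧ H '' closedBall 0 1 = A ∧ H '' sphere 0 1 = S ∧ H '' ball 0 1 = interior A := by
  obtain ⟨A, hA, hi, hf⟩ := h.exists_solid (KOp.real.prod KOp.real) polyNorm_plane.pl
  have hf' : frontier (e3 '' A) = S := by
    have h1 : frontier (e3 '' A) = e3 '' frontier A := (e3.toHomeomorph.image_frontier A).symm
    rw [h1, hf]
    exact image_preimage_eq _ e3.surjective
  have hi' : (interior (e3 '' A)).Nonempty := by
    have h1 : interior (e3 '' A) = e3 '' interior A := (e3.toHomeomorph.image_interior A).symm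
    rw [h1]; exact hi.image _
  obtain ⟨H, hH, h1, h2, h3⟩ := StdC.fin3 (hA.image e3.continuous) hi' (by rwa [hf'])
  exact ⟨e3 '' A, H, hA.image e3.continuous, hf', hH, h1, by rwa [hf'] at h2, h3⟩

end Crest.Agent.R096.Pl
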