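import Crest.Agent.R096.Ar5_241
import Crest.Agent.R096.PlCan3_458

/-!
# R096 (row 96), ARR part 6 (helper241): forms of P2

`p2_of_stdC`: if every PL 2-sphere of `Fin 3 → ℝ` is `StdC` (read in `(ℝ × ℝ) × ℝ`) then
`P2 (Fin 3 → ℝ) 3`.  `P2.transfer`: along a linear isomorphism.
-/

set_option autoImplicit false
set_option linter.unusedSectionVars false
set_option linter.unusedVariables false

open Set Metric Topology Module

namespace Crest.Agent.R096.Ar_241

open Crest.Agent.R096.Ce_537 (PLOn PLEquiv cube sph IsBall plOn_affine)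
open Crest.Agent.R096.Pl (StdC e3 PLH)

open Tr0 in
theorem p2_of_stdC
    (h : ∀ S : Set (Fin 3 → ℝ), Nonempty (PLEquiv (sph 3) S) → StdC (F := ℝ × ℝ) (e3 ⁻¹' S)) :
    P2 (Fin 3 → ℝ) 3 := by
  intro S hS
  obtain ⟨A, H, -, -, hH, -, h2, -⟩ := (h S hS).fin3'
  exact ⟨H, hH.1.plOn _, hH.2.plOn _, h2⟩

open Tr0 in
theorem P2.transfer {E' E'' : Type*} [NormedAddCommGroup E'] [NormedSpace ℝ E']
    [NormedAddCommGroup E''] [NormedSpace ℝ E''] [FiniteDimensional ℝ E']
    [FiniteDimensional ℝ E''] {k : ℕ} (h : P2 E' k) (e : E' ≃L[ℝ] E'') : P2 E'' k := by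
  intro S hS
  obtain ⟨a⟩ := hS
  -- pull back
  let b : PLEquiv S (e ⁻¹' S) :=
    { f := e.symm
      g := e
      pf := plOn_affine (e.symm : E'' →ₗ[ℝ] E').toAffineMap S
      pg := plOn_affine (e : E' →ₗ[ℝ] E'').toAffineMap _
      mf := fun x hx => by simpa using hx
      mg := fun x hx => hx
      li := fun x _ => e.apply_symm_apply x
      ri := fun x _ => e.symm_apply_apply x }
  obtain ⟨H, p1, p2, p3⟩ := h _ ⟨a.trans b⟩
  refine ⟨H.trans e.toHomeomorph, ?_, ?_, ?_⟩
  · exact (plOn_affine (e : E' →ₗ[ℝ] E'').toAffineMap univ).comp p1 (mapsTo_univ _ _)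
  · have h1 : (fun y => H.symm (e.symm y)) = (H.trans e.toHomeomorph).symm := rfl
    have h2 : PLOn (fun y => H.symm (e.symm y)) ((H.trans e.toHomeomorph) '' cube k) := by
      refine p2.comp (plOn_affine (e.symm : E'' →ₗ[ℝ] E').toAffineMap _) ?_
      rintro _ ⟨x, hx, rfl⟩
      refine ⟨x, hx, ?_⟩
      show H x = e.symm (e (H x))
      rw [e.symm_apply_apply]
    exact h2
  · have h1 : (H.trans e.toHomeomorph) '' sph k = e '' (H '' sph k) := by
      rw [image_image]; rfl
    rw [h1, p3]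
    exact image_preimage_eq _ e.surjective

end Crest.Agent.R096.Ar_241
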