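import Crest.Agent.R096.Ar6_241
import Crest.Agent.R096.Glu1_422

/-!
# R096 (row 96), ARR part 7 (helper241): strips (R6) for a transport structure with cores

`Cores X Kc X0`: closed disjoint saturated cores `Kc c`, `X0` = the rest (closed), `X0 ∩ Kc c` in the
frontier of `Kc c`.
`Tr0.strip`: the fibre over an edge is a disc, if its truncation lies in a PL 2-sphere `S'`.
`Tr0.square`: the fibre over a square is an arc, from the truncated arc.
-/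

set_option autoImplicit false
set_option linter.unusedSectionVars false
set_option linter.unusedVariables false

open Set Metric Topology Module
open scoped Classical

namespace Crest.Agent.R096.Ar_241

open Crest.Agent.R096.Xp_537
open Crest.Agent.R096.Ce_537 (PLOn PLEquiv cube sph IsBall)
open Crest.Agent.R096.Glu_422 (Pieces exch mem_exch sphere_all ball_all compl_zero compl_one)

variable {E : Type*} [NormedAddCommGroup E] [NormedSpace ℝ E] [FiniteDimensional ℝ E]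
  {Q : Type*} [PartialOrder Q] {Λ : Set E}
  {E' : Type*} [NormedAddCommGroup E'] [NormedSpace ℝ E']
  {Ω : Set E'} {C : CC Λ Q} {G : E' → E}

/-- closed, disjoint, saturated cores and the closed complement -/
structure Cores (X : Tr0 Ω C G) {ι : Type*} (Kc : ι → Set E') (X0 : Set E') : Prop where
  closed : ∀ c, IsClosed (Kc c)
  X0closed : IsClosed X0
  cov : Ω ⊆ X0 ∪ ⋃ c, Kc c
  disj : ∀ c c', c ≠ c' → Disjoint (Kc c) (Kc c')
  lf : ∀ x ∈ Ω, ∃ ε > (0:ℝ), {c | (Kc c ∩ ball x ε).Nonempty}.Finite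
  bd : ∀ c, ∀ x ∈ Kc c, x ∈ X0 → ∀ ε > (0:ℝ), ∃ z ∈ ball x ε, z ∉ Kc c
  sat : ∀ c, ∀ x ∈ Kc c, x ∈ Ω → ∀ t ∈ C.cell (X.top x), X.tr x t ∈ Kc c

namespace Cores

variable {X : Tr0 Ω C G} {ι : Type*} {Kc : ι → Set E'} {X0 : Set E'}

/-- a neighbourhood meets only the cores which contain the point -/
lemma near (h : Cores X Kc X0) {x : E'} (hx : x ∈ Ω) :
    ∃ ε > (0:ℝ), ∀ c, (Kc c ∩ ball x ε).Nonempty → x ∈ Kc c := by
  obtain ⟨ε1, h1, hf⟩ := h.lf x hx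
  set A : Set ι := {c | (Kc c ∩ ball x ε1).Nonempty} ∩ {c | x ∉ Kc c} with hA
  have hfin : A.Finite := hf.subset inter_subset_left
  have hcl : IsClosed (⋃ c ∈ A, Kc c) := hfin.isClosed_biUnion fun c _ => h.closed c
  have hnot : x ∉ ⋃ c ∈ A, Kc c := by
    intro hh
    obtain ⟨c, hc, hxc⟩ := mem_iUnion₂.1 hh
    exact hc.2 hxc
  obtain ⟨ε2, h2, hb⟩ := Metric.isOpen_iff.1 hcl.isOpen_compl _ hnot
  refine ⟨min ε1 ε2, lt_min h1 h2, ?_⟩
  rintro c ⟨z, hzc, hz⟩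
  by_contra hcon
  exact hb (ball_subset_ball (min_le_right _ _) hz)
    (mem_biUnion (show c ∈ A from ⟨⟨z, hzc, ball_subset_ball (min_le_left _ _) hz⟩, hcon⟩) hzc)

end Cores

namespace Tr0

variable (X : Tr0 Ω C G)

/-- **(R6) strips.** `q` an edge (codimension 2), `S q` a circle. -/
theorem strip (hΩ : IsOpen Ω) (hc : ∀ q, IsCompact (X.F q)) {ι : Type*} {Kc : ι → Set E'}
    {X0 : Set E'} (hK : Cores X Kc X0) {q : Q} (hS : Nonempty (PLEquiv (sph 2) (X.S q)))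
    {s : Finset ι} (hs : s.Nonempty) (hKq : ∀ c, (X.F q ∩ Kc c).Nonempty → c ∈ s)
    {R Qc : ι → Set E'}
    (hP : Pieces 1 s (X.S q) (fun c => X.F q ∩ Kc c) (fun c => X.F q ∩ Kc c ∩ X0) R Qc)
    {S' : Set E'} (hS' : Nonempty (PLEquiv (sph 3) S')) (hS'Ω : S' ⊆ Ω)
    (h1 : X.F q ∩ X0 ⊆ S')
    (h2 : ∀ z ∈ S', (∀ c, z ∉ Kc c) → G z ∈ C.cell q → G z = C.b q)
    (h3 : ∃ z ∈ S', z ∉ X.F q) :
    IsBall 2 (X.F q) (X.S q) := by
  set M0 : Set E' := X.F q ∩ X0 with hM0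
  set Γ : Set E' := exch s (X.S q) (fun c => X.F q ∩ Kc c ∩ X0) R with hΓ
  have hΓc : Nonempty (PLEquiv (sph 2) Γ) := sphere_all compl_one hS hP
  have hRsub : ∀ c ∈ s, R c = (X.F q ∩ Kc c) ∩ X.S q := fun c hcs => (hP.inter c hcs).symm
  have hX0 : ∀ x ∈ Ω, (∀ c, x ∉ Kc c) → x ∈ X0 := by
    intro x hx hcs
    rcases hK.cov hx with h | h
    · exact h
    · obtain ⟨c, hc'⟩ := mem_iUnion.1 h
      exact absurd hc' (hcs c)
  have hΓM : Γ ⊆ M0 := by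
    intro x hx
    rcases mem_exch.1 hx with ⟨hxS, hxR⟩ | ⟨c, -, hxc⟩
    · have hxF := X.S_sub q hxS
      refine ⟨hxF, hX0 x hxF.1 fun c hxc => ?_⟩
      have hcs := hKq c ⟨x, hxF, hxc⟩
      apply hxR c hcs
      rw [hRsub c hcs]
      exact ⟨⟨hxF, hxc⟩, hxS⟩
    · exact ⟨hxc.1.1, hxc.2⟩
  -- points of `M0` off `Γ`
  have hoff : ∀ x ∈ M0, x ∉ Γ → X.top x = q ∧ ∀ c, x ∉ Kc c := by
    intro x hx hxΓ
    have hcs : ∀ c, x ∉ Kc c := by
      intro c hxc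
      exact hxΓ (mem_exch.2 (Or.inr ⟨c, hKq c ⟨x, hx.1, hxc⟩, ⟨hx.1, hxc⟩, hx.2⟩))
    refine ⟨?_, hcs⟩
    by_contra hne
    apply hxΓ
    refine mem_exch.2 (Or.inl ⟨⟨hx.1.1, hx.1.2, hne⟩, fun c hcs' hxR => ?_⟩)
    rw [hRsub c hcs'] at hxR
    exact hcs c hxR.1.2
  have hfr : ∀ x ∈ M0, x ∉ Γ → ∃ ε > (0:ℝ), S' ∩ ball x ε ⊆ M0 := by
    intro x hx hxΓ
    obtain ⟨htop, hcs⟩ := hoff x hx hxΓ
    obtain ⟨ε1, e1, hsub, hn⟩ := X.near hΩ hc hx.1.1
    obtain ⟨ε2, e2, hk⟩ := hK.near hx.1.1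
    refine ⟨min ε1 ε2, lt_min e1 e2, ?_⟩
    rintro z ⟨hzS, hz⟩
    have hz1 : z ∈ ball x ε1 := ball_subset_ball (min_le_left _ _) hz
    have hz2 : z ∈ ball x ε2 := ball_subset_ball (min_le_right _ _) hz
    have hzc : ∀ c, z ∉ Kc c := fun c hzc => hcs c (hk c ⟨z, hzc, hz2⟩)
    obtain ⟨a1, a2⟩ := hn z hz1
    rw [hx.1.2] at a2
    have a3 : X.top z = q := le_antisymm (htop ▸ a1) (C.le_of_b a2)
    have a4 : G z ∈ C.cell q := a3 ▸ X.G_mem z (hsub hz1)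
    exact ⟨⟨hsub hz1, h2 z hzS hzc a4⟩, hX0 z (hsub hz1) hzc⟩
  have hn1 : ¬ M0 ⊆ Γ := by
    intro hsubΓ
    -- an interior point of `D c`
    obtain ⟨c, hcs⟩ := hs
    have hb := (hP.pair c hcs).ball₁
    obtain ⟨x, hxD, hxQ⟩ := hb.nonempty_diff
    have hxS : x ∉ X.S q := by
      intro hxS
      have hxR : x ∈ R c := by rw [hRsub c hcs]; exact ⟨hxD.1, hxS⟩
      have hi := (hP.pair c hcs).inter
      exact hxQ (hi ▸ ⟨hxD, hxR⟩)
    have hxF : x ∈ X.F q := hxD.1.1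
    have htop : X.top x = q := by
      by_contra hne
      exact hxS ⟨hxF.1, hxF.2, hne⟩
    obtain ⟨ε1, e1, hsub, hn⟩ := X.near hΩ hc hxF.1
    obtain ⟨ε2, e2, hk⟩ := hK.near hxF.1
    -- near `x` everything is in the piece of `q`
    have hPz : ∀ z ∈ ball x ε1, z ∈ X.P q ∧ X.top z = q := by
      intro z hz
      obtain ⟨a1, a2⟩ := hn z hz
      rw [hxF.2] at a2
      have a3 : X.top z = q := le_antisymm (htop ▸ a1) (C.le_of_b a2)
      exact ⟨⟨hsub hz, a3.ge, a3 ▸ X.G_mem z (hsub hz)⟩, a3⟩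
    have hcont : ContinuousWithinAt (fun z => X.tr z (C.b q)) (X.P q) x :=
      (X.plc q).1 x (hPz x (mem_ball_self e1)).1
    have hself : X.tr x (C.b q) = x := by
      have := X.tr_self x hxF.1
      rwa [hxF.2] at this
    obtain ⟨δ, hδ, hd⟩ := Metric.continuousWithinAt_iff.1 hcont ε2 e2
    obtain ⟨z, hz, hzK⟩ := hK.bd c x hxD.1.2 hxD.2 (min ε1 δ) (lt_min e1 hδ)
    have hz1 : z ∈ ball x ε1 := ball_subset_ball (min_le_left _ _) hz
    have hz2 : dist z x < δ := lt_of_lt_of_le hz (min_le_right _ _)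
    obtain ⟨hzP, hzt⟩ := hPz z hz1
    have hm := hd hzP hz2
    rw [hself] at hm
    set m := X.tr z (C.b q) with hmdef
    have hbz : C.b q ∈ C.cell (X.top z) := by rw [hzt]; exact C.bmem q
    have hmΩ : m ∈ Ω := X.tr_mem z hzP.1 _ hbz
    have hmF : m ∈ X.F q := ⟨hmΩ, X.tr_G z hzP.1 _ hbz⟩
    have hmt : X.top m = q := (X.top_tr hzP.1 hbz).trans hzt
    have hmK : ∀ c', m ∉ Kc c' := by
      intro c' hmc
      have hxc' : x ∈ Kc c' := hk c' ⟨m, hmc, hm⟩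
      have hcc : c' = c := by
        by_contra hne
        exact disjoint_left.1 (hK.disj c' c hne) hxc' hxD.1.2
      subst hcc
      have h4 := hK.sat c' m hmc hmΩ (G z) (by rw [hmt, ← hzt]; exact X.G_mem z hzP.1)
      rw [X.tr_tr z hzP.1 _ hbz _ (X.G_mem z hzP.1), X.tr_self z hzP.1] at h4
      exact hzK h4
    have hmΓ := hsubΓ ⟨hmF, hX0 m hmΩ hmK⟩
    rcases mem_exch.1 hmΓ with ⟨h5, -⟩ | ⟨c', -, h5⟩
    · exact h5.2.2 hmt
    · exact hmK c' h5.1.2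
  have hn2 : ¬ S' ⊆ M0 := by
    obtain ⟨z, hz, hzF⟩ := h3
    exact fun h => hzF (h hz).1
  have hball : IsBall 2 M0 Γ :=
    isBall_side hS' hΓc hΓM h1 ((hc q).inter_right hK.X0closed) hfr hn1 hn2
  have hfin := ball_all compl_one hP hball (fun c hcs => by
    ext x
    constructor
    · rintro ⟨ha, hb⟩; exact ⟨hb, ha.2⟩
    · rintro ⟨ha, hb⟩; exact ⟨⟨ha.1, hb⟩, ha⟩)
  have hun : M0 ∪ ⋃ c ∈ s, X.F q ∩ Kc c = X.F q := by
    ext x
    simp only [mem_union, mem_iUnion, exists_prop]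
    constructor
    · rintro (h | ⟨c, -, h⟩)
      · exact h.1
      · exact h.1
    · intro hx
      by_cases hxc : ∃ c, x ∈ Kc c
      · obtain ⟨c, hxc⟩ := hxc
        exact Or.inr ⟨c, hKq c ⟨x, hx, hxc⟩, hx, hxc⟩
      · push Not at hxc
        exact Or.inl ⟨hx, hX0 x hx.1 hxc⟩
  rwa [hun] at hfin

/-- **squares**: from the truncated arc -/
theorem square {ι : Type*} {Kc : ι → Set E'} {X0 : Set E'} (hK : Cores X Kc X0) {q : Q}
    {s : Finset ι} (hKq : ∀ c, (X.F q ∩ Kc c).Nonempty → c ∈ s) {R Qc : ι → Set E'}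
    (hP : Pieces 0 s (X.S q) (fun c => X.F q ∩ Kc c) (fun c => X.F q ∩ Kc c ∩ X0) R Qc)
    (h : IsBall 1 (X.F q ∩ X0) (exch s (X.S q) (fun c => X.F q ∩ Kc c ∩ X0) R)) :
    IsBall 1 (X.F q) (X.S q) := by
  have hfin := ball_all compl_zero hP h (fun c hcs => by
    ext x
    constructor
    · rintro ⟨ha, hb⟩; exact ⟨hb, ha.2⟩
    · rintro ⟨ha, hb⟩; exact ⟨⟨ha.1, hb⟩, ha⟩)
  have hun : (X.F q ∩ X0) ∪ ⋃ c ∈ s, X.F q ∩ Kc c = X.F q := by
    ext x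
    simp only [mem_union, mem_iUnion, exists_prop]
    constructor
    · rintro (h | ⟨c, -, h⟩)
      · exact h.1
      · exact h.1
    · intro hx
      rcases hK.cov hx.1 with h' | h'
      · exact Or.inl ⟨hx, h'⟩
      · obtain ⟨c, hxc⟩ := mem_iUnion.1 h'
        exact Or.inr ⟨c, hKq c ⟨x, hx, hxc⟩, hx, hxc⟩
  rwa [hun] at hfin

end Tr0

end Crest.Agent.R096.Ar_241
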