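import Crest.Agent.R096.Ar7_241

/-!
# R096 (row 96), ARR part 8 (helper241): assembly in dimension 3

`Tr0.balls3`: all fibres are balls, from
* `hc` compact fibres, `P2 E' 3`, `Cores X Kc X0`;
* top cells: one point;
* `CoreData`: the pieces of the fibres of squares and edges in the cores (BallPairs);
* squares: the truncated fibre is an arc whose end points are its points in the cores;
* edges: the truncated fibre lies in a PL 2-sphere `S'` (sheet).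
-/

set_option autoImplicit false
set_option linter.unusedSectionVars false
set_option linter.unusedVariables false

open Set Metric Topology Module
open scoped Classical

namespace Crest.Agent.R096.Ar_241

open Crest.Agent.R096.Xp_537
open Crest.Agent.R096.Ce_537 (PLOn PLEquiv cube sph IsBall)
open Crest.Agent.R096.Glu_422 (Pieces exch mem_exch)

variable {E : Type*} [NormedAddCommGroup E] [NormedSpace ℝ E] [FiniteDimensional ℝ E]
  {Q : Type*} [PartialOrder Q] {Λ : Set E}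
  {E' : Type*} [NormedAddCommGroup E'] [NormedSpace ℝ E']
  {Ω : Set E'} {C : CC Λ Q} {G : E' → E}

/-- the pieces of the fibre over `q` in the cores are BallPairs -/
def CoreData (X : Tr0 Ω C G) {ι : Type*} (Kc : ι → Set E') (X0 : Set E') (k : ℕ) (q : Q) : Prop :=
  ∃ (s : Finset ι) (R Qc : ι → Set E'), s.Nonempty ∧ (∀ c, (X.F q ∩ Kc c).Nonempty → c ∈ s) ∧
    Pieces k s (X.S q) (fun c => X.F q ∩ Kc c) (fun c => X.F q ∩ Kc c ∩ X0) R Qc

/-- the sheet of an edge -/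
def SheetData (X : Tr0 Ω C G) {ι : Type*} (Kc : ι → Set E') (X0 : Set E') (q : Q) : Prop :=
  ∃ S' : Set E', Nonempty (PLEquiv (sph 3) S') ∧ S' ⊆ Ω ∧ X.F q ∩ X0 ⊆ S' ∧
    (∀ z ∈ S', (∀ c, z ∉ Kc c) → G z ∈ C.cell q → G z = C.b q) ∧ ∃ z ∈ S', z ∉ X.F q

namespace Tr0

variable (X : Tr0 Ω C G)

/-- **ARR in dimension 3.** -/
theorem balls3 (hΛ : IsOpen Λ) (hΩ : IsOpen Ω) (hE : finrank ℝ E = 3) (hP : P2 E' 3)
    (hc : ∀ q, IsCompact (X.F q)) {ι : Type*} {Kc : ι → Set E'} {X0 : Set E'}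
    (hK : Cores X Kc X0)
    (i0 : ∀ q, cod C q = 0 → ∃ x, X.F q = {x})
    (i1 : ∀ q, cod C q = 1 → CoreData X Kc X0 0 q)
    (i1' : ∀ q, cod C q = 1 → X.S q ⊆ ⋃ c, Kc c)
    (i1'' : ∀ q, cod C q = 1 → IsBall 1 (X.F q ∩ X0) (X.F q ∩ X0 ∩ ⋃ c, Kc c))
    (i2 : ∀ q, cod C q = 2 → CoreData X Kc X0 1 q)
    (i2' : ∀ q, cod C q = 2 → SheetData X Kc X0 q) :
    ∀ q, IsBall (cod C q) (X.F q) (X.S q) := by
  refine X.balls hΛ hΩ hc (by omega) (by rw [hE]; exact hP) fun q hq hr hS => ?_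
  rw [hE] at hq
  have hcases : cod C q = 0 ∨ cod C q = 1 ∨ cod C q = 2 := by omega
  rcases hcases with h | h | h
  · exact X.point hΛ h (i0 q h)
  · rw [h]
    obtain ⟨s, R, Qc, -, hKq, hPi⟩ := i1 q h
    refine X.square hK hKq hPi ?_
    have h1 : exch s (X.S q) (fun c => X.F q ∩ Kc c ∩ X0) R = X.F q ∩ X0 ∩ ⋃ c, Kc c := by
      ext x
      rw [mem_exch]
      constructor
      · rintro (⟨hxS, hxR⟩ | ⟨c, hcs, hx⟩)
        · exfalso
          obtain ⟨c, hxc⟩ := mem_iUnion.1 (i1' q h hxS)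
          have hxF := X.S_sub q hxS
          have hcs := hKq c ⟨x, hxF, hxc⟩
          apply hxR c hcs
          have := hPi.inter c hcs
          rw [← this]
          exact ⟨⟨hxF, hxc⟩, hxS⟩
        · exact ⟨⟨hx.1.1, hx.2⟩, mem_iUnion.2 ⟨c, hx.1.2⟩⟩
      · rintro ⟨⟨hxF, hx0⟩, hx⟩
        obtain ⟨c, hxc⟩ := mem_iUnion.1 hx
        exact Or.inr ⟨c, hKq c ⟨x, hxF, hxc⟩, ⟨hxF, hxc⟩, hx0⟩
    rw [h1]
    exact i1'' q h
  · rw [h] at hS ⊢
    obtain ⟨s, R, Qc, hs, hKq, hPi⟩ := i2 q h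
    obtain ⟨S', a1, a2, a3, a4, a5⟩ := i2' q h
    exact X.strip hΩ hc hK hS hs hKq hPi a1 a2 a3 a4 a5

/-- the transport structure of 537 -/
noncomputable def trn3 (hΛ : IsOpen Λ) (hΩ : IsOpen Ω) (hE : finrank ℝ E = 3) (hP : P2 E' 3)
    (hdim : ∀ q, C.dim q ≤ 3)
    (hc : ∀ q, IsCompact (X.F q)) {ι : Type*} {Kc : ι → Set E'} {X0 : Set E'}
    (hK : Cores X Kc X0)
    (i0 : ∀ q, cod C q = 0 → ∃ x, X.F q = {x})
    (i1 : ∀ q, cod C q = 1 → CoreData X Kc X0 0 q)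
    (i1' : ∀ q, cod C q = 1 → X.S q ⊆ ⋃ c, Kc c)
    (i1'' : ∀ q, cod C q = 1 → IsBall 1 (X.F q ∩ X0) (X.F q ∩ X0 ∩ ⋃ c, Kc c))
    (i2 : ∀ q, cod C q = 2 → CoreData X Kc X0 1 q)
    (i2' : ∀ q, cod C q = 2 → SheetData X Kc X0 q) : Trn Ω C G :=
  X.trn 3 (cod C) hdim (X.balls3 hΛ hΩ hE hP hc hK i0 i1 i1' i1'' i2 i2')

end Tr0

end Crest.Agent.R096.Ar_241
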