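import Crest.Agent.R096.Arc1_422
import Crest.Agent.R096.Cb3_609

/-!
# R096 / ARR (AR)(b): the arcs of a `Chn` glue to ONE PL arc (helper422)
-/

set_option autoImplicit false
set_option linter.unusedSectionVars false

namespace Crest.Agent.R096.Arc_422

open Ce_537 Cb_609

variable {Z ι : Type*} {E : Type*} [NormedAddCommGroup E] [NormedSpace ℝ E]

/-- realisation of a chain by PL arcs -/
structure Real (C : Chn Z ι) (v : Z → E) (Ar : ι → Z → Set E) : Prop where
  inj : Function.Injective v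
  sym : ∀ {q z}, q ∈ C.S z → Ar q (C.arc q z) = Ar q z
  ball : ∀ {q z}, q ∈ C.S z → IsBall 1 (Ar q z) {v z, v (C.arc q z)}
  disj : ∀ {q z z'}, q ∈ C.S z → q ∈ C.S z' → z' ≠ z → z' ≠ C.arc q z →
    Disjoint (Ar q z) (Ar q z')
  inter : ∀ {q q' z z'}, q ∈ C.S z → q' ∈ C.S z' → q ≠ q' →
    Ar q z ∩ Ar q' z' ⊆ {v z, v (C.arc q z)} ∩ {v z', v (C.arc q' z')}

variable {C : Chn Z ι} {v : Z → E} {Ar : ι → Z → Set E}

/-- union of the arcs used before the step `(z, q)` -/
def UU (C : Chn Z ι) (Ar : ι → Z → Set E) (Q : Set Z) (z : Z) (q : ι) : Set E :=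
  {x | ∃ u ∈ Q, ∃ r ∈ C.S u, (u, r) ≠ (z, q) ∧ x ∈ Ar r u}

theorem UU_first {q : ι} (hq : q ∈ C.S C.e) : UU C Ar {C.e} C.e q = ∅ := by
  ext x
  constructor
  · rintro ⟨u, hu, r, hr, hne, -⟩
    obtain ⟨q₀, h0⟩ := C.one
    rw [Set.mem_singleton_iff] at hu
    subst hu
    rw [h0, Set.mem_singleton_iff] at hq hr
    exact (hne (by rw [hq, hr])).elim
  · intro h; exact h.elim

theorem UU_glue (hR : Real C v Ar) {Q : Set Z} {z : Z} {q : ι} (h : C.Inv Q z q)
    (hU : v z ∈ UU C Ar Q z q) : UU C Ar Q z q ∩ Ar q z = {v z} := by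
  have hn := h.notMem
  ext x
  constructor
  · rintro ⟨⟨u, hu, r, hr, hne, hx⟩, hx'⟩
    by_cases hrq : r = q
    · subst hrq
      exfalso
      have h1 : u ≠ z := fun h' => hne (by rw [h'])
      have h2 : u ≠ C.arc r z := fun h' => hn (h' ▸ hu)
      exact Set.disjoint_left.1 (hR.disj h.hq hr h1 h2) hx' hx
    · have h1 := hR.inter hr h.hq hrq ⟨hx, hx'⟩
      have h2 := (h.cl u hu r hr hne).1
      rcases h1.2 with h3 | h3
      · exact h3
      · exfalso
        rw [Set.mem_singleton_iff] at h3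
        rcases h1.1 with h4 | h4
        · exact hn ((hR.inj (h4.symm.trans h3)) ▸ hu)
        · rw [Set.mem_singleton_iff] at h4
          exact hn ((hR.inj (h4.symm.trans h3)) ▸ h2)
  · intro hx
    rw [Set.mem_singleton_iff] at hx
    subst hx
    exact ⟨hU, (hR.ball h.hq).subset (by simp)⟩

theorem UU_step (hR : Real C v Ar) {Q : Set Z} {z : Z} {q q' : ι} (h : C.Inv Q z q)
    (hq' : q' ∈ C.S (C.arc q z)) (hne : q' ≠ q) :
    UU C Ar (insert (C.arc q z) Q) (C.arc q z) q' = UU C Ar Q z q ∪ Ar q z := by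
  have hI := h.step hq' hne
  ext x
  constructor
  · rintro ⟨u, hu, r, hr, hur, hx⟩
    rcases Set.mem_insert_iff.1 hu with rfl | hu
    · right
      have h1 := hI.cl _ (Set.mem_insert _ _) r hr hur
      have hrq : r = q := by
        by_contra hrq
        -- both `r` and `q` are different from `q'`: at most two sides
        have hm : q ∈ C.S (C.arc q z) := C.mem h.hq
        have hrq' : r ≠ q' := fun h => hur (by rw [h])
        have hz' : C.arc q z ≠ C.e := fun he => h.notMem (he ▸ h.he)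
        by_cases he' : C.arc q z = C.e'
        · obtain ⟨q₀, h0⟩ := C.one'
          rw [he', h0, Set.mem_singleton_iff] at hr hm
          exact hrq (hr.trans hm.symm)
        · obtain ⟨a, b, -, hab⟩ := C.two _ hz' he'
          rw [hab, Set.mem_insert_iff, Set.mem_singleton_iff] at hr hq' hm
          rcases hr with h1 | h1 <;> rcases hq' with h2 | h2 <;> rcases hm with h3 | h3
          · exact hrq (h1.trans h3.symm)
          · exact hrq' (h1.trans h2.symm)
          · exact hrq (h1.trans h3.symm)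
          · exact hne (h2.trans h3.symm)
          · exact hne (h2.trans h3.symm)
          · exact hrq (h1.trans h3.symm)
          · exact hrq' (h1.trans h2.symm)
          · exact hrq (h1.trans h3.symm)
      subst hrq
      rwa [hR.sym h.hq] at hx
    · by_cases hz : (u, r) = (z, q)
      · obtain ⟨rfl, rfl⟩ := Prod.mk.inj hz
        exact Or.inr hx
      · exact Or.inl ⟨u, hu, r, hr, hz, hx⟩
  · rintro (⟨u, hu, r, hr, hur, hx⟩ | hx)
    · refine ⟨u, Set.mem_insert_of_mem _ hu, r, hr, fun he => ?_, hx⟩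
      have h1 : u = C.arc q z := congrArg Prod.fst he
      exact h.notMem (h1 ▸ hu)
    · refine ⟨z, Set.mem_insert_of_mem _ h.hz, q, h.hq, fun he => ?_, hx⟩
      exact hne (congrArg Prod.snd he).symm

/-- **ONE ARC** -/
theorem Real.isBall [Finite Z] (hR : Real C v Ar) :
    IsBall 1 {x | ∃ z, ∃ q ∈ C.S z, x ∈ Ar q z} {v C.e, v C.e'} := by
  refine C.path_ind (fun Q z q => (z = C.e ∧ UU C Ar Q z q = ∅) ∨
    (IsBall 1 (UU C Ar Q z q) {v C.e, v z})) _ ?_ ?_ ?_
  · intro q hq
    exact Or.inl ⟨rfl, UU_first hq⟩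
  · intro Q z q hI hP q' hq' hne
    right
    rw [UU_step hR hI hq' hne]
    rcases hP with ⟨rfl, h⟩ | h
    · rw [h, Set.empty_union]
      exact hR.ball hI.hq
    · exact arc_glue h (hR.ball hI.hq) (UU_glue hR hI (h.subset (by simp)))
  · intro Q z q hI hP he hu
    have hT : {x | ∃ z, ∃ q ∈ C.S z, x ∈ Ar q z} = UU C Ar Q z q ∪ Ar q z := by
      ext x
      constructor
      · rintro ⟨u, r, hr, hx⟩
        have hu' : u ∈ insert (C.arc q z) Q := by rw [hu]; trivial
        rcases Set.mem_insert_iff.1 hu' with rfl | hu'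
        · right
          obtain ⟨q₀, h0⟩ := C.one'
          have hm : q ∈ C.S (C.arc q z) := C.mem hI.hq
          have hrq : r = q := by
            rw [he, h0, Set.mem_singleton_iff] at hr hm
            exact hr.trans hm.symm
          subst hrq
          rwa [hR.sym hI.hq] at hx
        · by_cases hz : (u, r) = (z, q)
          · obtain ⟨rfl, rfl⟩ := Prod.mk.inj hz
            exact Or.inr hx
          · exact Or.inl ⟨u, hu', r, hr, hz, hx⟩
      · rintro (⟨u, hu, r, hr, hur, hx⟩ | hx)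
        · exact ⟨u, r, hr, hx⟩
        · exact ⟨z, q, hI.hq, hx⟩
    rw [hT, ← he]
    rcases hP with ⟨rfl, h⟩ | h
    · rw [h, Set.empty_union]
      exact hR.ball hI.hq
    · exact arc_glue h (hR.ball hI.hq) (UU_glue hR hI (h.subset (by simp)))

end Crest.Agent.R096.Arc_422
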