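import Crest.Agent.R096.Arc8_778
import Crest.Agent.R096.Arc2_422

/-!
# R096 (row 96), (R4), part 10: the double arcs of two sheets over a chain of 3-cells form ONE arc
(helper778): assembly of (R4.2) with 422's `Chn` / `Real`

* `SqD` : the dictionary between the nodes of a chain and the crossing points of the chords of the
  sheets `nm true`, `nm false`; `run` = 117's `run_tile`.
* `SqD.real : Real Ch v Ar`, `SqD.isBall` :
  `IsBall 1 {x | ∃ q ∈ Act, x ∈ K (cell q) ∧ ∀ b, g.G (nm b) x = 1/2} {v e, v e'}`.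
-/

set_option autoImplicit false
set_option linter.unusedSectionVars false

open Set Metric

namespace Crest.Agent.R096.Arc_778

open Crest.Agent.R096.Ce_537 Crest.Agent.R096.Bd_416 Crest.Agent.R096.Cb_609 Crest.Agent.R096.Pl
open Crest.Agent.R096.Arc_422 (Chn Real)
open Crest.Agent.R096.Shp_334 (Zr_min half_iff)

open scoped Classical

section tile

variable {E : Type*} [NormedAddCommGroup E] [NormedSpace ℝ E] {I : Type*}

/-- both orders of the pair -/
theorem TileG.all {K S : Set E} {c : I → E → ℝ} {rk : I → ℕ} (T : TileG K S c rk) (x y : I)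
    (hne : x ≠ y) : ∃ nx Ar, Pairs K S c x y nx Ar ∧
      (rk y < rk x → ∀ z ∈ Gam S c x ∩ Gam S c y, ∀ A ⊆ {ω | ω ∈ Gam S c y ∧ 0 ≤ c x ω},
        IsPreconnected A → z ∈ A → ∀ z' ∈ A, z' ∈ Gam S c x → z' = z ∨ z' = nx z) ∧
      (rk x < rk y → ∀ z ∈ Gam S c x ∩ Gam S c y, ∀ A ⊆ {ω | ω ∈ Gam S c x ∧ 0 ≤ c y ω},
        IsPreconnected A → z ∈ A → ∀ z' ∈ A, z' ∈ Gam S c y → z' = z ∨ z' = nx z) := by
  rcases lt_or_gt_of_ne (fun h => hne (T.inj h) : rk x ≠ rk y) with h | h
  · obtain ⟨nx, Ar, h1, h2⟩ := T.pair y x h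
    refine ⟨nx, Ar, h1.symm, fun h' => absurd h' (lt_asymm h), fun _ z hz => ?_⟩
    exact h2 z ⟨hz.2, hz.1⟩
  · obtain ⟨nx, Ar, h1, h2⟩ := T.pair x y h
    exact ⟨nx, Ar, h1, fun _ => h2, fun h' => absurd h' (lt_asymm h)⟩

end tile

variable {Q : Type} [PartialOrder Q] {dim : Q → ℕ} {J Fam : Type}
variable {E : Type*} [NormedAddCommGroup E] [NormedSpace ℝ E] [FiniteDimensional ℝ E]
variable {C : Cmb Q dim J Fam} {K : Q → Set E} {g : Gd E J}
  {P : ∀ q, C.I q → Set E} {c : ∀ q, C.I q → E → ℝ} {Ω : Set E}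
variable {Z ι : Type*} {Ch : Chn Z ι}

/-- **dictionary** between the nodes of a chain and the crossing points of two sheets -/
structure SqD (C : Cmb Q dim J Fam) (K : Q → Set E) (c : ∀ q, C.I q → E → ℝ) (Ch : Chn Z ι)
    (Act : Set ι) (cell : ι → Q) (nm : Bool → J) (rk : ∀ q, C.I (cell q) → ℕ)
    (F : Z → Q) (a : ∀ z, Bool → C.I (F z)) (v : Z → E) : Prop where
  nm_ne : nm true ≠ nm false
  cell_inj : ∀ q ∈ Act, ∀ q' ∈ Act, cell q = cell q' → q = q'
  cell_dim : ∀ q ∈ Act, dim (cell q) = 3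
  act : ∀ {z q}, q ∈ Ch.S z → q ∈ Act
  dimF : ∀ z, dim (F z) = 2
  col : ∀ z b, C.col (F z) (a z b) = nm b
  ext : ∀ z z', F z = F z' → (∀ b, HEq (a z b) (a z' b)) → z = z'
  mem : ∀ z b, v z ∈ Zer (K (F z)) (c (F z)) (a z b)
  lt : ∀ {z q}, q ∈ Ch.S z → F z < cell q
  cyc : ∀ {z q} (h : q ∈ Ch.S z) b, C.up (lt (Ch.mem h)) (a (Ch.arc q z) b) = C.up (lt h) (a z b)
  run : ∀ {z q} (h : q ∈ Ch.S z) b,
    rk q (C.up (lt h) (a z b)) < rk q (C.up (lt h) (a z (!b))) →
    ∃ A ⊆ {ω | ω ∈ Gam (bdS K (cell q)) (c (cell q)) (C.up (lt h) (a z b)) ∧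
        0 ≤ c (cell q) (C.up (lt h) (a z (!b))) ω},
      IsPreconnected A ∧ v z ∈ A ∧ v (Ch.arc q z) ∈ A
  sur : ∀ q ∈ Act, ∀ F', dim F' = 2 → F' < cell q → ∀ α : Bool → C.I F',
    (∀ b, C.col F' (α b) = nm b) → ∀ ζ, (∀ b, ζ ∈ Zer (K F') (c F') (α b)) →
    ∃ z, q ∈ Ch.S z ∧ v z = ζ

section real

variable (H : Inv C K univ g P c) (X : Cplx Ω Q dim K)
variable {Act : Set ι} {cell : ι → Q} {nm : Bool → J} {rk : ∀ q, C.I (cell q) → ℕ}
  {F : Z → Q} {a : ∀ z, Bool → C.I (F z)} {v : Z → E}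
variable (D : SqD C K c Ch Act cell nm rk F a v)
variable (hE : ∀ e, dim e = 1 → EdgeG (K e) (c e))
include H X D hE

/-- a crossing point of two sheets on a 2-cell lies in the open 2-cell -/
lemma opn_face {F' : Q} (hd : dim F' = 2) {α α' : C.I F'} (hne : α ≠ α') {ζ : E}
    (h : ζ ∈ Zer (K F') (c F') α) (h' : ζ ∈ Zer (K F') (c F') α') : Opn K F' ζ := by
  obtain ⟨m, hm, hdm, y, hy, -, h1⟩ := Zr_min H X (q := F') (x := α) h
  rcases h1 with ⟨e', -⟩ | ⟨hlt, -⟩
  · rwa [e'] at hm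
  · exfalso
    have hb : ζ ∈ bdS K F' := mem_biUnion (show m ∈ {j | j < F'} from hlt) hm.1
    have h2 := gam_dis H X hd (fun e _ he => hE e he) α α' hne
    have h3 : ζ ∈ Gam (bdS K F') (c F') α ∩ Gam (bdS K F') (c F') α' :=
      ⟨⟨hb, h.2⟩, ⟨hb, h'.2⟩⟩
    rw [h2] at h3
    exact h3.elim

lemma SqD.opn (z : Z) : Opn K (F z) (v z) := by
  refine opn_face H X D hE (D.dimF z) (α := a z true) (α' := a z false) ?_ (D.mem z true)
    (D.mem z false)
  intro h
  have h1 := D.col z true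
  rw [h, D.col z false] at h1
  exact D.nm_ne h1.symm

/-- a node is determined by its point -/
lemma SqD.node {z : Z} {F' : Q} (hd : dim F' = 2) {α : Bool → C.I F'}
    (hcol : ∀ b, C.col F' (α b) = nm b) (h : ∀ b, v z ∈ Zer (K F') (c F') (α b)) :
    F z = F' ∧ ∀ b, HEq (a z b) (α b) := by
  have h1 : Opn K F' (v z) := by
    refine opn_face H X D hE hd (α := α true) (α' := α false) ?_ (h true) (h false)
    intro h2
    have h3 := hcol true
    rw [h2, hcol false] at h3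
    exact D.nm_ne h3.symm
  have h2 : F z = F' := X.disj _ _ _ (D.opn H X hE z) h1
  subst h2
  refine ⟨rfl, fun b => heq_of_eq ?_⟩
  exact zer_unique H (by rw [D.col z b, hcol b]) (D.mem z b) (h b)

lemma SqD.inj : Function.Injective v := by
  intro z z' hz
  have h1 := D.node H X hE (z := z) (F' := F z') (D.dimF z') (α := a z') (D.col z')
    (fun b => by rw [hz]; exact D.mem z' b)
  exact D.ext z z' h1.1 h1.2

/-- the point on the two curves of the cell -/
lemma SqD.gam {z : Z} {q : ι} (h : q ∈ Ch.S z) (b : Bool) :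
    v z ∈ Gam (bdS K (cell q)) (c (cell q)) (C.up (D.lt h) (a z b)) :=
  zer_up H X (D.lt h) (D.mem z b)

lemma SqD.cy_ne {z : Z} {q : ι} (h : q ∈ Ch.S z) :
    C.up (D.lt h) (a z true) ≠ C.up (D.lt h) (a z false) := by
  intro h1
  have h2 := congrArg (C.col (cell q)) h1
  rw [C.col_up, C.col_up, D.col z true, D.col z false] at h2
  exact D.nm_ne h2

/-- **`Real` for the chain of double arcs** and the set of the arcs -/
theorem SqD.real (T : ∀ q ∈ Act, TileG (K (cell q)) (bdS K (cell q)) (c (cell q)) (rk q)) :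
    ∃ Ar : ι → Z → Set E, Real Ch v Ar ∧
      {x | ∃ z, ∃ q ∈ Ch.S z, x ∈ Ar q z}
        = {x | ∃ q ∈ Act, x ∈ K (cell q) ∧ ∀ b, g.G (nm b) x = 1/2} := by
  have hall : ∀ (q : ι) (x y : C.I (cell q)), ∃ (nx : E → E) (Ar : E → Set E), q ∈ Act → x ≠ y →
      Pairs (K (cell q)) (bdS K (cell q)) (c (cell q)) x y nx Ar ∧
      (rk q y < rk q x → ∀ z ∈ Gam (bdS K (cell q)) (c (cell q)) x ∩
          Gam (bdS K (cell q)) (c (cell q)) y,
        ∀ A ⊆ {ω | ω ∈ Gam (bdS K (cell q)) (c (cell q)) y ∧ 0 ≤ c (cell q) x ω},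
        IsPreconnected A → z ∈ A → ∀ z' ∈ A, z' ∈ Gam (bdS K (cell q)) (c (cell q)) x →
          z' = z ∨ z' = nx z) ∧
      (rk q x < rk q y → ∀ z ∈ Gam (bdS K (cell q)) (c (cell q)) x ∩
          Gam (bdS K (cell q)) (c (cell q)) y,
        ∀ A ⊆ {ω | ω ∈ Gam (bdS K (cell q)) (c (cell q)) x ∧ 0 ≤ c (cell q) y ω},
        IsPreconnected A → z ∈ A → ∀ z' ∈ A, z' ∈ Gam (bdS K (cell q)) (c (cell q)) y →
          z' = z ∨ z' = nx z) := by
    intro q x y
    by_cases h : q ∈ Act ∧ x ≠ y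
    · obtain ⟨nx, Ar, h1⟩ := (T q h.1).all x y h.2
      exact ⟨nx, Ar, fun _ _ => h1⟩
    · exact ⟨id, fun _ => ∅, fun h1 h2 => absurd ⟨h1, h2⟩ h⟩
  choose nx Arr hA using hall
  let Ar : ι → Z → Set E := fun q z =>
    if h : F z < cell q then Arr q (C.up h (a z true)) (C.up h (a z false)) (v z) else ∅
  have hAr : ∀ {q : ι} {z : Z} (h : q ∈ Ch.S z),
      Ar q z = Arr q (C.up (D.lt h) (a z true)) (C.up (D.lt h) (a z false)) (v z) :=
    fun h => dif_pos (D.lt h)
  have hP : ∀ {q : ι} {z : Z} (h : q ∈ Ch.S z), Pairs (K (cell q)) (bdS K (cell q)) (c (cell q))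
      (C.up (D.lt h) (a z true)) (C.up (D.lt h) (a z false))
      (nx q (C.up (D.lt h) (a z true)) (C.up (D.lt h) (a z false)))
      (Arr q (C.up (D.lt h) (a z true)) (C.up (D.lt h) (a z false))) := fun {q z} h =>
    (hA q _ _ (D.act h) (D.cy_ne H X hE h)).1
  have hv := D.inj H X hE
  have hgz : ∀ {q : ι} {z : Z} (h : q ∈ Ch.S z), v z ∈
      Gam (bdS K (cell q)) (c (cell q)) (C.up (D.lt h) (a z true)) ∩
      Gam (bdS K (cell q)) (c (cell q)) (C.up (D.lt h) (a z false)) := fun h =>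
    ⟨D.gam H X hE h true, D.gam H X hE h false⟩
  -- the other end
  have hnx : ∀ {q : ι} {z : Z} (h : q ∈ Ch.S z),
      nx q (C.up (D.lt h) (a z true)) (C.up (D.lt h) (a z false)) (v z) = v (Ch.arc q z) := by
    intro q z h
    have hne := D.cy_ne H X hE h
    obtain ⟨-, h1, h2⟩ := hA q _ _ (D.act h) hne
    have hne' : v (Ch.arc q z) ≠ v z := fun h3 => Ch.ne h (hv h3)
    have hg' : ∀ b, v (Ch.arc q z) ∈
        Gam (bdS K (cell q)) (c (cell q)) (C.up (D.lt h) (a z b)) := fun b => by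
      rw [← D.cyc h b]
      exact D.gam H X hE (Ch.mem h) b
    rcases lt_or_gt_of_ne (fun h3 => hne ((T q (D.act h)).inj h3)) with h4 | h4
    · obtain ⟨A, hA1, hA2, hA3, hA4⟩ := D.run h true h4
      rcases h2 h4 (v z) (hgz h) A hA1 hA2 hA3 _ hA4 (hg' false) with h5 | h5
      · exact absurd h5 hne'
      · exact h5.symm
    · obtain ⟨A, hA1, hA2, hA3, hA4⟩ := D.run h false h4
      rcases h1 h4 (v z) (hgz h) A hA1 hA2 hA3 _ hA4 (hg' true) with h5 | h5
      · exact absurd h5 hne'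
      · exact h5.symm
  have hsub : ∀ {q : ι} {z : Z} (h : q ∈ Ch.S z), ∀ x ∈ Ar q z, ∀ b,
      x ∈ Zer (K (cell q)) (c (cell q)) (C.up (D.lt h) (a z b)) := by
    intro q z h x hx b
    rw [hAr h] at hx
    have h1 : x ∈ Zer (K (cell q)) (c (cell q)) (C.up (D.lt h) (a z true)) ∩
        Zer (K (cell q)) (c (cell q)) (C.up (D.lt h) (a z false)) := by
      rw [(hP h).eq]
      exact mem_biUnion (hgz h) hx
    cases b
    · exact h1.2
    · exact h1.1
  have hbd : ∀ {q : ι} {z : Z} (h : q ∈ Ch.S z), Ar q z ∩ bdS K (cell q)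
      = {v z, v (Ch.arc q z)} := by
    intro q z h
    rw [hAr h, (hP h).bd _ (hgz h), hnx h]
  refine ⟨Ar, ⟨hv, ?_, ?_, ?_, ?_⟩, ?_⟩
  · intro q z h
    have h1 := hAr (Ch.mem h)
    rw [D.cyc h true, D.cyc h false] at h1
    rw [h1, hAr h, ← hnx h]
    exact (hP h).sym _ (hgz h)
  · intro q z h
    rw [hAr h, ← hnx h]
    exact (hP h).ball _ (hgz h)
  · intro q z z' h h' hne hne'
    by_cases hc : ∀ b, C.up (D.lt h') (a z' b) = C.up (D.lt h) (a z b)
    · have hg' := hgz h'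
      rw [hc true, hc false] at hg'
      rw [hAr h, hAr h', hc true, hc false]
      refine (hP h).disj _ (hgz h) _ hg' (fun h1 => hne (hv h1)) ?_
      rw [hnx h]
      exact fun h1 => hne' (hv h1)
    · push Not at hc
      obtain ⟨b, hb⟩ := hc
      refine Set.disjoint_left.2 fun x hx hx' => hb ?_
      refine zer_unique H ?_ (hsub h' x hx' b) (hsub h x hx b)
      rw [C.col_up, C.col_up, D.col, D.col]
  · intro q q' z z' h h' hqq x hx
    have hK : x ∈ K (cell q) := (hsub h x hx.1 true).1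
    have hK' : x ∈ K (cell q') := (hsub h' x hx.2 true).1
    have hd := D.cell_dim q (D.act h)
    have hd' := D.cell_dim q' (D.act h')
    obtain ⟨m, hm, hmo⟩ := X.exists_opn hK
    have hm' := X.opn_le hmo hK'
    have hmq : m < cell q := by
      rcases hm.eq_or_lt with h1 | h1
      · exfalso
        subst h1
        rcases hm'.eq_or_lt with h2 | h2
        · exact hqq (D.cell_inj _ (D.act h) _ (D.act h') h2)
        · have := X.mono _ _ h2
          omega
      · exact h1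
    have hmq' : m < cell q' := by
      rcases hm'.eq_or_lt with h1 | h1
      · exfalso
        subst h1
        have := X.mono _ _ hmq
        omega
      · exact h1
    constructor
    · rw [← hbd h]
      exact ⟨hx.1, mem_biUnion (show m ∈ {j | j < cell q} from hmq) hmo.1⟩
    · rw [← hbd h']
      exact ⟨hx.2, mem_biUnion (show m ∈ {j | j < cell q'} from hmq') hmo.1⟩
  · ext x
    constructor
    · rintro ⟨z, q, h, hx⟩
      refine ⟨q, D.act h, (hsub h x hx true).1, fun b => ?_⟩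
      refine (half_iff H (hsub h x hx true).1).2 ⟨C.up (D.lt h) (a z b), ?_, hsub h x hx b⟩
      rw [C.col_up, D.col]
    · rintro ⟨q, hq, hK, hG⟩
      have hpc : ∀ b, ∃ y, C.col (cell q) y = nm b ∧ x ∈ Zer (K (cell q)) (c (cell q)) y :=
        fun b => (half_iff H hK).1 (hG b)
      choose y hy1 hy2 using hpc
      have hyne : y true ≠ y false := by
        intro h1
        have h2 := hy1 true
        rw [h1, hy1 false] at h2
        exact D.nm_ne h2.symm
      have hPy := (hA q (y true) (y false) hq hyne).1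
      have h1 : x ∈ Zer (K (cell q)) (c (cell q)) (y true) ∩
        Zer (K (cell q)) (c (cell q)) (y false) := ⟨hy2 true, hy2 false⟩
      rw [hPy.eq] at h1
      obtain ⟨ζ, hζ, hxζ⟩ := mem_iUnion₂.1 h1
      -- the face of `ζ`
      obtain ⟨m, hm, hmo, hdm, w, hw, hwy⟩ := min_bd H X hζ.1
      obtain ⟨m', hm', hmo', hdm', w', hw', hwy'⟩ := min_bd H X hζ.2
      obtain rfl : m = m' := X.disj _ _ _ hmo hmo'
      have hww : w ≠ w' := by
        rintro rfl
        exact hyne (hwy.symm.trans hwy')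
      have h3 := X.mono _ _ hm
      have h4 := D.cell_dim q hq
      have h5 : dim m = 2 := by
        have : dim m ≠ 1 := fun h6 =>
          Set.disjoint_left.1 ((hE m h6).dis w w' hww) hw hw'
        omega
      let α : Bool → C.I m := fun b => if b then w else w'
      have hα : ∀ b, C.up hm (α b) = y b := by
        intro b; cases b
        · exact hwy'
        · exact hwy
      obtain ⟨z, hz, hvz⟩ := D.sur q hq m h5 hm α (fun b => by
        rw [← C.col_up hm, hα b, hy1 b]) ζ (fun b => by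
        cases b
        · exact hw'
        · exact hw)
      refine ⟨z, q, hz, ?_⟩
      rw [hAr hz]
      have hcy : ∀ b, C.up (D.lt hz) (a z b) = y b := by
        intro b
        refine zer_unique (K := K) H ?_ (z := ζ) ?_ ?_
        · rw [C.col_up, D.col, hy1]
        · have h6 := D.gam H X hE hz b
          rw [hvz] at h6
          exact ⟨bdS_sub X h6.1, h6.2⟩
        · cases b
          · exact ⟨bdS_sub X hζ.2.1, hζ.2.2⟩
          · exact ⟨bdS_sub X hζ.1.1, hζ.1.2⟩
      rw [hcy true, hcy false, hvz]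
      exact hxζ

/-- **THE DOUBLE ARCS OF TWO SHEETS ARE ONE ARC** -/
theorem SqD.isBall [Finite Z]
    (T : ∀ q ∈ Act, TileG (K (cell q)) (bdS K (cell q)) (c (cell q)) (rk q)) :
    IsBall 1 {x | ∃ q ∈ Act, x ∈ K (cell q) ∧ ∀ b, g.G (nm b) x = 1/2} {v Ch.e, v Ch.e'} := by
  obtain ⟨Ar, hR, hS⟩ := D.real H X hE T
  rw [← hS]
  exact hR.isBall

end real

end Crest.Agent.R096.Arc_778
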