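import Crest.Agent.R096.Arc8_778

/-!
# R096 (row 96), (R4), part 11: signs at the edge points from the labels; paths (helper778)

* `EdgeO K c k` : order of the points of an edge (`k` small = near the base vertex).
* `lblN` : the label of an edge point with respect to a piece; `sign_pnt` : it is the sign of the
  band function (`1` = inside = positive).
* `exists_path` : an arc `IsBall 1 A {p, p'}` as an injective path from `p` to `p'`.
* `chord_one`, `chord_non` : (R4.3) with labels.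
-/

set_option autoImplicit false
set_option linter.unusedSectionVars false

open Set Metric

namespace Crest.Agent.R096.Arc_778

open Crest.Agent.R096.Ce_537 Crest.Agent.R096.Bd_416 Crest.Agent.R096.Cb_609 Crest.Agent.R096.Pl

open scoped Classical

/-- order of the points of an edge -/
def EdgeO {E I : Type*} (K : Set E) (c : I → E → ℝ) (k : I → ℕ) : Prop :=
  ∀ u u₀ : I, ∀ z ∈ Zer K c u₀, (k u < k u₀ → 0 < c u z) ∧ (k u₀ < k u → c u z < 0)

section path

variable {E : Type*} [NormedAddCommGroup E] [NormedSpace ℝ E]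

/-- an arc as a path -/
theorem exists_path {A : Set E} {p p' : E} (h : IsBall 1 A {p, p'}) :
    ∃ γ : ℝ → E, ContinuousOn γ (Icc 0 1) ∧ InjOn γ (Icc 0 1) ∧ γ '' Icc 0 1 = A ∧
      γ 0 = p ∧ γ 1 = p' := by
  have hne := arc_ne h
  obtain ⟨e, he⟩ := h
  -- the two orientations
  have key : ∀ σ : ℝ, σ = 1 ∨ σ = -1 → ∃ γ : ℝ → E, ContinuousOn γ (Icc 0 1) ∧
      InjOn γ (Icc 0 1) ∧ γ '' Icc 0 1 = A ∧ γ 0 = e.f (fun _ => -σ) ∧ γ 1 = e.f (fun _ => σ) := by
    intro σ hσ
    have hm : ∀ t ∈ Icc (0:ℝ) 1, (fun _ => σ * (2 * t - 1) : Fin 1 → ℝ) ∈ cube 1 := by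
      intro t ht
      rw [mem_cube1, abs_le]
      rcases hσ with rfl | rfl <;> constructor <;> linarith [ht.1, ht.2]
    refine ⟨fun t => e.f (fun _ => σ * (2 * t - 1)), ?_, ?_, ?_, ?_, ?_⟩
    · exact e.pf.1.comp (by fun_prop) hm
    · intro t ht t' ht' heq
      have h1 := congrFun (e.injOn (hm t ht) (hm t' ht') heq) 0
      have h1' : σ * (2 * t - 1) = σ * (2 * t' - 1) := h1
      rcases hσ with rfl | rfl <;> linarith
    · ext z
      constructor
      · rintro ⟨t, ht, rfl⟩; exact e.mf (hm t ht)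
      · intro hz
        have h1 := e.mg hz
        have h2 := abs_le.1 (mem_cube1.1 h1)
        have hσ2 : σ * σ = 1 := by rcases hσ with rfl | rfl <;> norm_num
        refine ⟨(σ * e.g z 0 + 1) / 2, ?_, ?_⟩
        · rcases hσ with rfl | rfl <;> constructor <;> linarith [h2.1, h2.2]
        · have h3 : (fun _ => σ * (2 * ((σ * e.g z 0 + 1) / 2) - 1) : Fin 1 → ℝ) = e.g z := by
            funext j
            rw [Subsingleton.elim j 0]
            linear_combination (e.g z 0) * hσ2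
          show e.f _ = z
          rw [h3]; exact e.ri z hz
    · show e.f (fun _ => σ * (2 * 0 - 1)) = e.f (fun _ => -σ)
      congr 1; funext j; ring
    · show e.f (fun _ => σ * (2 * 1 - 1)) = e.f (fun _ => σ)
      congr 1; funext j; ring
  have hm1 : (fun _ => -1 : Fin 1 → ℝ) ∈ sph 1 := mem_sph1.2 (by norm_num)
  have hp1 : (fun _ => 1 : Fin 1 → ℝ) ∈ sph 1 := mem_sph1.2 (by norm_num)
  have ha : e.f (fun _ => -1) ∈ ({p, p'} : Set E) := by rw [← he]; exact ⟨_, hm1, rfl⟩
  have hb : e.f (fun _ => 1) ∈ ({p, p'} : Set E) := by rw [← he]; exact ⟨_, hp1, rfl⟩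
  have hab : e.f (fun _ => (-1:ℝ)) ≠ e.f (fun _ => (1:ℝ)) := by
    intro h1
    have := congrFun (e.injOn (sph_subset_cube hm1) (sph_subset_cube hp1) h1) 0
    norm_num at this
  rcases ha with ha | ha
  · have hb' : e.f (fun _ => 1) = p' := by
      rcases hb with hb | hb
      · exact absurd (ha.trans hb.symm) hab
      · exact hb
    obtain ⟨γ, h1, h2, h3, h4, h5⟩ := key 1 (Or.inl rfl)
    exact ⟨γ, h1, h2, h3, h4.trans ha, h5.trans hb'⟩
  · have ha' : e.f (fun _ => -1) = p' := ha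
    have hb' : e.f (fun _ => 1) = p := by
      rcases hb with hb | hb
      · exact hb
      · exact absurd (ha'.trans (mem_singleton_iff.1 hb).symm) hab
    obtain ⟨γ, h1, h2, h3, h4, h5⟩ := key (-1) (Or.inr rfl)
    refine ⟨γ, h1, h2, h3, ?_, h5.trans ha'⟩
    rw [h4, neg_neg]; exact hb'

end path

variable {Q : Type} [PartialOrder Q] {dim : Q → ℕ} {J Fam : Type}
variable {E : Type*} [NormedAddCommGroup E] [NormedSpace ℝ E]
variable {C : Cmb Q dim J Fam} {K : Q → Set E} {g : Gd E J}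
  {P : ∀ q, C.I q → Set E} {c : ∀ q, C.I q → E → ℝ} {Ω : Set E}

/-- an `ECell` is ordered -/
theorem ECell.edgeO {I : Type*} {K S : Set E} {o : E} {k : I → ℕ} {c : I → E → ℝ}
    (h : ECell K S o k c) : EdgeO K c k := by
  obtain ⟨e, p, h1, h2, h3, h4, h5⟩ := h
  intro u u₀ z hz
  have h6 : e.g z 0 = p u₀ := by
    have := h5 u₀ z hz.1
    rw [hz.2, sign_zero, eq_comm, sign_eq_zero_iff, sub_eq_zero] at this
    exact this
  have h7 := h5 u z hz.1
  rw [h6] at h7
  constructor
  · intro hk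
    rw [← sign_eq_one_iff, h7, sign_eq_one_iff, sub_pos]
    exact h4 _ _ hk
  · intro hk
    rw [← sign_eq_neg_one_iff, h7, sign_eq_neg_one_iff, sub_neg]
    exact h4 _ _ hk

/-- the label of the point `u₀` of the edge `e` with respect to the piece `x` of `q` -/
noncomputable def lblN (C : Cmb Q dim J Fam) (k : ∀ q, C.I q → ℕ) {e q : Q} (h : e < q)
    (u₀ : C.I e) (x : C.I q) : ZMod 2 :=
  C.s h x + ∑ u : C.I e with C.up h u = x, (if k e u < k e u₀ then 1 else 0)

lemma sg_inj {a b : ZMod 2} (h : sg a = sg b) : a = b := by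
  rcases z2 a with rfl | rfl <;> rcases z2 b with rfl | rfl
  · rfl
  · rw [sg_zero, sg_one] at h; norm_num at h
  · rw [sg_zero, sg_one] at h; norm_num at h
  · rfl

section sign

variable (H : Inv C K univ g P c)
include H

/-- **the sign of a band function at an edge point is the label** -/
theorem sign_pnt {k : ∀ q, C.I q → ℕ} {e q : Q} (h : e < q) (hk : Function.Injective (k e))
    (hE : EdgeG (K e) (c e)) (hO : EdgeO (K e) (c e) (k e)) (u₀ : C.I e) (x : C.I q)
    (hne : C.up h u₀ ≠ x) :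
    (lblN C k h u₀ x = 1 → 0 < c q x (pnt K c ⟨e, u₀⟩)) ∧
    (lblN C k h u₀ x = 0 → c q x (pnt K c ⟨e, u₀⟩) < 0) := by
  have hz : pnt K c ⟨e, u₀⟩ ∈ Zer (K e) (c e) u₀ := pnt_mem (v := ⟨e, u₀⟩) hE
  set z := pnt K c ⟨e, u₀⟩ with hzd
  have h2 := H.r2 h (mem_univ q) x z hz.1
  have key : 0 < sg (lblN C k h u₀ x) * (-2 * c q x z) := by
    rw [h2]
    unfold lblN
    rw [sg_add, sg_sum]
    have e1 : sg (C.s h x) * (∏ u : C.I e with C.up h u = x,
        sg (if k e u < k e u₀ then 1 else 0)) *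
        (sg (C.s h x) * ∏ u : C.I e with C.up h u = x, (-2 * c e u z))
        = (sg (C.s h x) * sg (C.s h x)) * ∏ u : C.I e with C.up h u = x,
          (sg (if k e u < k e u₀ then 1 else 0) * (-2 * c e u z)) := by
      rw [Finset.prod_mul_distrib (f := fun u : C.I e => sg (if k e u < k e u₀ then 1 else 0))
        (g := fun u : C.I e => -2 * c e u z)]
      generalize (∏ u : C.I e with C.up h u = x, sg (if k e u < k e u₀ then 1 else 0)) = A
      generalize (∏ u : C.I e with C.up h u = x, (-2 * c e u z)) = B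
      ring
    rw [e1, sg_sq, one_mul]
    refine Finset.prod_pos fun u hu => ?_
    have hu' : C.up h u = x := (Finset.mem_filter.1 hu).2
    have huu : u ≠ u₀ := by rintro rfl; exact hne hu'
    have hkk : k e u ≠ k e u₀ := fun h' => huu (hk h')
    obtain ⟨h3, h4⟩ := hO u u₀ z hz
    rcases lt_or_gt_of_ne hkk with h5 | h5
    · rw [if_pos h5, sg_one]
      have := h3 h5
      linarith
    · rw [if_neg (not_lt.2 h5.le), sg_zero]
      have := h4 h5
      linarith
  constructor
  · intro hN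
    rw [hN, sg_one] at key
    linarith
  · intro hN
    rw [hN, sg_zero] at key
    linarith

end sign

section chord

variable (H : Inv C K univ g P c) (X : Cplx Ω Q dim K)

include H X in
/-- **(R4.3) with labels**: different labels at the two ends of `y'` with respect to `y` -/
theorem chord_one {k : ∀ q, C.I q → ℕ} {F : Q}
    (hE : ∀ e < F, dim e = 1 → EdgeG (K e) (c e) ∧ EdgeO (K e) (c e) (k e) ∧
      Function.Injective (k e))
    (hCh : Chords (K F) (bdS K F) (c F)) {y y' : C.I F} (hne : y ≠ y')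
    {a b : Σ e, C.I e} (ha : a.1 < F) (hb : b.1 < F) (hda : dim a.1 = 1) (hdb : dim b.1 = 1)
    (ha' : C.up ha a.2 = y') (hb' : C.up hb b.2 = y')
    (hl : lblN C k ha a.2 y ≠ lblN C k hb b.2 y) :
    ∃ p, Zer (K F) (c F) y ∩ Zer (K F) (c F) y' = {p} := by
  have hEa := hE _ ha hda
  have hEb := hE _ hb hdb
  have h1 := sign_pnt H ha hEa.2.2 hEa.1 hEa.2.1 a.2 y (by rw [ha']; exact Ne.symm hne)
  have h2 := sign_pnt H hb hEb.2.2 hEb.1 hEb.2.1 b.2 y (by rw [hb']; exact Ne.symm hne)
  have ga : pnt K c a ∈ Gam (bdS K F) (c F) y' := by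
    rw [← ha']; exact zer_up H X ha (pnt_mem hEa.1)
  have gb : pnt K c b ∈ Gam (bdS K F) (c F) y' := by
    rw [← hb']; exact zer_up H X hb (pnt_mem hEb.1)
  rcases z2 (lblN C k ha a.2 y) with h3 | h3 <;> rcases z2 (lblN C k hb b.2 y) with h4 | h4
  · exact absurd (h3.trans h4.symm) hl
  · exact hCh.cross y y' hne ⟨_, gb, h2.1 h4⟩ ⟨_, ga, h1.2 h3⟩
  · exact hCh.cross y y' hne ⟨_, ga, h1.1 h3⟩ ⟨_, gb, h2.2 h4⟩
  · exact absurd (h3.trans h4.symm) hl

include H X in
/-- equal labels: no common point -/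
theorem chord_non {k : ∀ q, C.I q → ℕ} {F : Q} (hd : dim F = 2)
    (hE : ∀ e < F, dim e = 1 → EdgeG (K e) (c e) ∧ EdgeO (K e) (c e) (k e) ∧
      Function.Injective (k e))
    (hCh : Chords (K F) (bdS K F) (c F)) {y y' : C.I F} (hne : y ≠ y')
    {a b : Σ e, C.I e} (hB : Blw C F y' = {a, b}) (ha : a.1 < F) (hb : b.1 < F)
    (hl : lblN C k ha a.2 y = lblN C k hb b.2 y) :
    Zer (K F) (c F) y ∩ Zer (K F) (c F) y' = ∅ := by
  have hma : a ∈ Blw C F y' := by rw [hB]; simp
  have hmb : b ∈ Blw C F y' := by rw [hB]; simp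
  have hEa := hE _ ha hma.1
  have hEb := hE _ hb hmb.1
  have h1 := sign_pnt H ha hEa.2.2 hEa.1 hEa.2.1 a.2 y
    (by obtain ⟨_, _, h⟩ := hma; rw [h]; exact Ne.symm hne)
  have h2 := sign_pnt H hb hEb.2.2 hEb.1 hEb.2.1 b.2 y
    (by obtain ⟨_, _, h⟩ := hmb; rw [h]; exact Ne.symm hne)
  have hG : Gam (bdS K F) (c F) y' = {pnt K c a, pnt K c b} := by
    rw [gam_face H X hd (fun e he hde => (hE e he hde).1) y', hB, image_pair]
  refine hCh.none y y' hne ?_
  rw [hG]
  rcases z2 (lblN C k ha a.2 y) with h3 | h3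
  · right
    rintro ω (rfl | hω)
    · exact h1.2 h3
    · rw [mem_singleton_iff.1 hω]; exact h2.2 (hl ▸ h3)
  · left
    rintro ω (rfl | hω)
    · exact h1.1 h3
    · rw [mem_singleton_iff.1 hω]; exact h2.1 (hl ▸ h3)

end chord

end Crest.Agent.R096.Arc_778
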