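import Crest.Agent.R096.Lm7_117
import Crest.Agent.R096.Arc11_778

/-!
# R096 (row 96), (R4), part 12: the geometric facts on a face over the CMB of a labelled mesh (I1)
(helper778)

Over 117's `cmb h Lam hLam` (labelled mesh `L : LM M Q dim`, state `s`) with `k = ek h`:
* `ptW` : the point of `w`; `ptW_mem`, `ptW_inj`, `ptW_zero`.
* `lblN_eq`, **`sign_w`** : sign of a band function at a point = normalised label `nlw`.
* **`path_w`** : the chord of `w` on a face as a path from `w` to its partner.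
* **`one_w`**, **`non_w`** : (R4.3) with `nlw`.
-/

set_option autoImplicit false
set_option linter.unusedSectionVars false

open Set Metric

namespace Crest.Agent.R096.Arc_778

open Crest.Agent.R096.Ce_537 Crest.Agent.R096.Bd_416 Crest.Agent.R096.Cb_609 Crest.Agent.R096.Pl
open Crest.Agent.R096.St_147 Crest.Agent.R096.Ac_117 Crest.Agent.R096.Seq_213
open Crest.Agent.R096.Lm_117

open scoped Classical

variable {ι Φ W Q J Fm : Type} {M : MeshC ι Φ W} [PartialOrder Q] {dim : Q → ℕ}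
variable {L : LM M Q dim} {fam : J → Fm} {s : GSt M fam}
variable (h : LF L s) (Lam : J → Q → ZMod 2) (hLam : ∀ j c, L.toSk.XL (gP s j) (Lam j) c)
variable {E : Type*} [NormedAddCommGroup E] [NormedSpace ℝ E]

/-- the piece of a point -/
def mkP {q : Q} {w : W} (hw : w ∈ s.P ∧ w ∈ L.toSk.In q) : Pc L s q := Quot.mk _ ⟨w, hw⟩

lemma mem_mkP {q : Q} {w : W} (hw : w ∈ s.P ∧ w ∈ L.toSk.In q) : w ∈ pts h q (mkP hw) :=
  mem_pts.2 ⟨hw, rfl⟩

lemma mkP_eq {q : Q} {x : Pc L s q} {w : W} (hw : w ∈ pts h q x) : mkP (pts_in hw) = x := by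
  obtain ⟨h', e⟩ := mem_pts.1 hw
  exact e

lemma in_ed {q : Q} {w : W} (hw : w ∈ s.P ∧ w ∈ L.toSk.In q) :
    w ∈ s.P ∧ w ∈ L.toSk.In (L.ed w) := ⟨hw.1, hw.2.1, le_rfl⟩

lemma ed_lt {q : Q} (hq : 2 ≤ dim q) {w : W} (hw : w ∈ L.toSk.In q) : L.ed w < q := by
  refine lt_of_le_of_ne hw.2 fun h => ?_
  have := L.ed_dim w hw.1
  rw [h] at this
  omega

/-- the edge piece of a point -/
noncomputable def sgW (w : W) (hw : w ∈ s.P ∧ w ∈ L.toSk.In (L.ed w)) :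
    Σ e, (cmb h Lam hLam).I e := ⟨L.ed w, mkP hw⟩

/-- the place of a point -/
noncomputable def ptW (K : Q → Set E) (c : ∀ q, (cmb h Lam hLam).I q → E → ℝ) (w : W) : E :=
  if hw : w ∈ s.P ∧ w ∈ L.toSk.In (L.ed w) then pnt (C := cmb h Lam hLam) K c (sgW h Lam hLam w hw)
  else 0

lemma up_mk {p q : Q} (hpq : p < q) {w : W} (hw : w ∈ s.P ∧ w ∈ L.toSk.In p) :
    (cmb h Lam hLam).up hpq (mkP hw) = mkP ⟨hw.1, Sk.In_mono hpq.le hw.2⟩ := rfl

variable {h Lam hLam}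

lemma ptW_eq {K : Q → Set E} {c : ∀ q, (cmb h Lam hLam).I q → E → ℝ} {w : W}
    (hw : w ∈ s.P ∧ w ∈ L.toSk.In (L.ed w)) :
    ptW h Lam hLam K c w = pnt (C := cmb h Lam hLam) K c (sgW h Lam hLam w hw) := dif_pos hw

/-- the edge point is a point of the piece -/
lemma ptW_mem {K : Q → Set E} {c : ∀ q, (cmb h Lam hLam).I q → E → ℝ} {w : W}
    (hw : w ∈ s.P ∧ w ∈ L.toSk.In (L.ed w)) (hE : EdgeG (K (L.ed w)) (c (L.ed w))) :
    ptW h Lam hLam K c w ∈ Zer (K (L.ed w)) (c (L.ed w)) (mkP hw) := by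
  rw [ptW_eq hw]
  exact pnt_mem (v := sgW h Lam hLam w hw) hE

/-- **the label of an edge point is `nlw`** -/
theorem lblN_eq {e q : Q} (he : e < q) (hd : dim e = 1) {w : W}
    (hw : w ∈ s.P ∧ w ∈ L.toSk.In e) (x : Pc L s q) (hne : w ∉ pts h q x) :
    lblN (cmb h Lam hLam) (ek h) he (mkP hw) x = nlw h q x w := by
  classical
  have := h.pc e
  let _ : Fintype (Pc L s e) := Fintype.ofFinite _
  have h1 := nlw_coc (h := h) he.le x (Finset.univ.filter (fun y => pup L s he.le y = x))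
      (fun y => ⟨fun h => (Finset.mem_filter.1 h).2,
        fun h => Finset.mem_filter.2 ⟨Finset.mem_univ _, h⟩⟩) hw.2
  rw [h1]
  unfold lblN
  congr 1
  refine Finset.sum_congr ?_ ?_
  · ext u
    constructor
    · intro hu
      exact Finset.mem_filter.2 ⟨Finset.mem_univ _, (Finset.mem_filter.1 hu).2⟩
    · intro hu
      exact Finset.mem_filter.2 ⟨Finset.mem_univ _, (Finset.mem_filter.1 hu).2⟩
  · intro u hu
    have hu' : pup L s he.le u = x := (Finset.mem_filter.1 hu).2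
    have hne' : (mkP hw : Pc L s e) ≠ u := by
      rintro rfl
      exact hne ((mem_pts_pup he.le hw.2).2 ⟨_, hu', mem_mkP h hw⟩)
    have hr : rep h (mkP hw : Pc L s e) = w :=
      pts_edge hd (mkP hw) (rep_mem h _) (mem_mkP h hw)
    have h2 := nlw_edge h e hd hne'
    rw [hr] at h2
    exact h2.symm

lemma sgW_inj {w w' : W} (hw : w ∈ s.P ∧ w ∈ L.toSk.In (L.ed w))
    (hw' : w' ∈ s.P ∧ w' ∈ L.toSk.In (L.ed w'))
    (he : sgW h Lam hLam w hw = sgW h Lam hLam w' hw') : w = w' := by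
  have key : ∀ v : Σ e, (cmb h Lam hLam).I e, v = sgW h Lam hLam w' hw' →
      w' ∈ pts h v.1 (show Pc L s v.1 from v.2) := by
    rintro v rfl
    exact mem_mkP h hw'
  exact pts_edge (L.ed_dim w hw.2.1) _ (mem_mkP h hw) (key _ he)

/-- the edge points of a piece -/
lemma mem_blwW {q : Q} (hq : 2 ≤ dim q) {x : Pc L s q} {v : Σ e, (cmb h Lam hLam).I e} :
    v ∈ Blw (cmb h Lam hLam) q x ↔
      ∃ w, ∃ hw : w ∈ pts h q x, v = sgW h Lam hLam w (in_ed (pts_in hw)) := by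
  constructor
  · rintro ⟨h1, h2, h3⟩
    obtain ⟨e, y⟩ := v
    obtain ⟨⟨w, hw⟩, rfl⟩ := Quot.exists_rep y
    have h3' : pup L s (le_of_lt h2) (mkP hw) = x := h3
    have hwq : w ∈ pts h q x := (mem_pts_pup (le_of_lt h2) hw.2).2 ⟨_, h3', mem_mkP h hw⟩
    have h4 : L.ed w = e := eq_of_dim L.toSk hw.2.2 (by
      have h1' : dim e = 1 := h1
      rw [h1', L.ed_dim _ hw.2.1])
    subst h4
    exact ⟨w, hwq, rfl⟩
  · rintro ⟨w, hw, rfl⟩
    have h1 := pts_in hw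
    exact ⟨L.ed_dim w h1.2.1, ed_lt hq h1.2, mkP_eq h hw⟩

/-- the points of a piece of a face -/
lemma pts_face {F : Φ} {w w' : W} (hw : w ∈ s.P ∧ w ∈ L.toSk.In (L.cf F)) :
    w' ∈ pts h (L.cf F) (mkP hw) ↔ w' = w ∨ w' = s.mu F w := by
  have hwF := on_of_in hw.2
  constructor
  · intro hw'
    obtain ⟨h', e⟩ := mem_pts.1 hw'
    refine quot_inv (L := L) (s := s) (c := L.cf F) (a := ⟨w, hw⟩) (b := ⟨w', h'⟩)
      (fun x => x = w ∨ x = s.mu F w) ?_ e.symm (Or.inl rfl)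
    intro G hG u hu huG hh
    have hGF : G = F := L.cf_inj _ _ (eq_of_dim L.toSk hG (by rw [L.cf_dim, L.cf_dim]))
    subst hGF
    rcases hh with rfl | rfl
    · exact Or.inr rfl
    · exact Or.inl (s.mu_mu hw.1 hwF)
  · rintro (rfl | rfl)
    · exact mem_mkP h hw
    · exact mu_pts (mem_mkP h hw) le_rfl hwF

lemma mu_in {F : Φ} {w : W} (hw : w ∈ s.P ∧ w ∈ L.toSk.In (L.cf F)) :
    s.mu F w ∈ s.P ∧ s.mu F w ∈ L.toSk.In (L.cf F) := by
  have := s.mu_mem hw.1 (on_of_in hw.2)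
  exact ⟨this.1, on_in le_rfl this.2⟩

lemma blw_w {F : Φ} {w : W} (hw : w ∈ s.P ∧ w ∈ L.toSk.In (L.cf F)) :
    Blw (cmb h Lam hLam) (L.cf F) (mkP hw) =
      {sgW h Lam hLam w (in_ed hw), sgW h Lam hLam (s.mu F w) (in_ed (mu_in hw))} := by
  ext v
  rw [mem_blwW (L.cf_dim F).ge]
  constructor
  · rintro ⟨w', hw', rfl⟩
    rcases (pts_face hw).1 hw' with rfl | rfl
    · exact Or.inl rfl
    · exact Or.inr rfl
  · rintro (rfl | rfl)
    · exact ⟨w, (pts_face hw).2 (Or.inl rfl), rfl⟩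
    · exact ⟨_, (pts_face hw).2 (Or.inr rfl), rfl⟩

lemma sg_ne {F : Φ} {w : W} (hw : w ∈ s.P ∧ w ∈ L.toSk.In (L.cf F)) :
    sgW h Lam hLam w (in_ed hw) ≠ sgW h Lam hLam (s.mu F w) (in_ed (mu_in hw)) := fun he =>
  s.mu_ne hw.1 (on_of_in hw.2) (sgW_inj _ _ he).symm

/-- all edges are ordered -/
theorem edgeGO [FiniteDimensional ℝ E] {K : Q → Set E} {c : ∀ q, (cmb h Lam hLam).I q → E → ℝ}
    {R : Set Q} {k : ∀ q, (cmb h Lam hLam).I q → ℕ}
    (G : Geo (cmb h Lam hLam) K c R k) (GR : GeoR (cmb h Lam hLam) K c R)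
    (C : CmbG (cmb h Lam hLam) R k) (hk : ∀ e ∉ R, dim e = 1 → k e = ek h e)
    (GO : ∀ e ∈ R, dim e = 1 → EdgeO (K e) (c e) (ek h e)) (e : Q) (he : dim e = 1) :
    EdgeG (K e) (c e) ∧ EdgeO (K e) (c e) (ek h e) := by
  refine ⟨edgeG G GR C e he, ?_⟩
  by_cases hR : e ∈ R
  · exact GO e hR he
  · obtain ⟨o, -, h1⟩ := G.edge e hR he
    rw [← hk e hR he]
    exact h1.edgeO

section geo

variable {K : Q → Set E} {g : Gd E J} {P : ∀ q, (cmb h Lam hLam).I q → Set E}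
  {c : ∀ q, (cmb h Lam hLam).I q → E → ℝ} {Ω : Set E}
  (H : Inv (cmb h Lam hLam) K univ g P c) (X : Cplx Ω Q dim K)

include H in
/-- **sign at a point = normalised label** -/
theorem sign_w {q : Q} {w : W} (hw : w ∈ s.P ∧ w ∈ L.toSk.In q) (hlt : L.ed w < q)
    (hE : EdgeG (K (L.ed w)) (c (L.ed w))) (hO : EdgeO (K (L.ed w)) (c (L.ed w)) (ek h (L.ed w)))
    (x : Pc L s q) (hne : w ∉ pts h q x) :
    (nlw h q x w = 1 → 0 < c q x (ptW h Lam hLam K c w)) ∧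
    (nlw h q x w = 0 → c q x (ptW h Lam hLam K c w) < 0) := by
  have hd := L.ed_dim w hw.2.1
  have h1 := sign_pnt (C := cmb h Lam hLam) (k := ek h) H hlt (ek_inj h _ hd) hE hO
    (mkP (in_ed hw)) x (by
      intro h'
      have h3 : pup L s hlt.le (mkP (in_ed hw)) = x := h'
      exact hne ((mem_pts_pup hlt.le (in_ed hw).2).2 ⟨_, h3, mem_mkP h (in_ed hw)⟩))
  rw [lblN_eq hlt hd (in_ed hw) x hne] at h1
  rw [ptW_eq (in_ed hw)]
  exact h1

include H X in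
lemma ptW_inj {w w' : W} (hw : w ∈ s.P ∧ w ∈ L.toSk.In (L.ed w))
    (hw' : w' ∈ s.P ∧ w' ∈ L.toSk.In (L.ed w'))
    (hE : EdgeG (K (L.ed w)) (c (L.ed w))) (hE' : EdgeG (K (L.ed w')) (c (L.ed w')))
    (he : ptW h Lam hLam K c w = ptW h Lam hLam K c w') : w = w' := by
  rw [ptW_eq hw, ptW_eq hw'] at he
  exact sgW_inj hw hw' (pnt_inj H X (L.ed_dim w hw.2.1) (L.ed_dim w' hw'.2.1) hE hE' he)

include H X in
/-- the boundary points of the chord of `w` -/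
theorem gam_w {F : Φ} (hE : ∀ e < L.cf F, dim e = 1 → EdgeG (K e) (c e)) {w : W}
    (hw : w ∈ s.P ∧ w ∈ L.toSk.In (L.cf F)) :
    Gam (bdS K (L.cf F)) (c (L.cf F)) (mkP hw) =
      {ptW h Lam hLam K c w, ptW h Lam hLam K c (s.mu F w)} ∧
    ptW h Lam hLam K c w ≠ ptW h Lam hLam K c (s.mu F w) := by
  rw [ptW_eq (in_ed hw), ptW_eq (in_ed (mu_in hw))]
  exact gam_pair (C := cmb h Lam hLam) H X (L.cf_dim F) hE (mkP hw) (sg_ne hw) (blw_w hw)

include H X in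
/-- **the chord of `w` as a path** -/
theorem path_w {F : Φ} (hE : ∀ e < L.cf F, dim e = 1 → EdgeG (K e) (c e))
    (hCh : Chords (K (L.cf F)) (bdS K (L.cf F)) (c (L.cf F))) {w : W}
    (hw : w ∈ s.P ∧ w ∈ L.toSk.In (L.cf F)) :
    ∃ γ : ℝ → E, ContinuousOn γ (Icc 0 1) ∧ InjOn γ (Icc 0 1) ∧
      γ '' Icc 0 1 = Zer (K (L.cf F)) (c (L.cf F)) (mkP hw) ∧
      γ 0 = ptW h Lam hLam K c w ∧ γ 1 = ptW h Lam hLam K c (s.mu F w) := by
  have h1 := hCh.ball (mkP hw)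
  rw [(gam_w H X hE hw).1] at h1
  exact exists_path h1

include H X in
/-- **(R4.3)** different labels at the two ends of the chord of `w'`: one common point -/
theorem one_w {F : Φ} (hE : ∀ e < L.cf F, dim e = 1 → EdgeG (K e) (c e) ∧
      EdgeO (K e) (c e) (ek h e))
    (hCh : Chords (K (L.cf F)) (bdS K (L.cf F)) (c (L.cf F))) {y : Pc L s (L.cf F)} {w' : W}
    (hw' : w' ∈ s.P ∧ w' ∈ L.toSk.In (L.cf F)) (hne : w' ∉ pts h (L.cf F) y)
    (hl : nlw h (L.cf F) y w' ≠ nlw h (L.cf F) y (s.mu F w')) :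
    ∃ p, Zer (K (L.cf F)) (c (L.cf F)) y ∩ Zer (K (L.cf F)) (c (L.cf F)) (mkP hw') = {p} := by
  have hm := mu_in hw'
  have hlt := ed_lt (L.cf_dim F).ge hw'.2
  have hlt' := ed_lt (L.cf_dim F).ge hm.2
  have hd := L.ed_dim w' hw'.2.1
  have hd' := L.ed_dim _ hm.2.1
  have hyy : y ≠ mkP hw' := by
    rintro rfl; exact hne (mem_mkP h hw')
  have hne' : s.mu F w' ∉ pts h (L.cf F) y := fun h' => hyy
    (pts_disj h' ((pts_face hw').2 (Or.inr rfl)))
  refine chord_one (C := cmb h Lam hLam) (k := ek h) H X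
    (fun e he hde => ⟨(hE e he hde).1, (hE e he hde).2, ek_inj h e hde⟩) hCh hyy
    (a := sgW h Lam hLam w' (in_ed hw')) (b := sgW h Lam hLam (s.mu F w') (in_ed hm))
    hlt hlt' hd hd' rfl ?_ ?_
  · exact mkP_eq h (show s.mu F w' ∈ pts h (L.cf F) (mkP hw') from (pts_face hw').2 (Or.inr rfl))
  · show lblN (cmb h Lam hLam) (ek h) hlt (mkP (in_ed hw')) y ≠
      lblN (cmb h Lam hLam) (ek h) hlt' (mkP (in_ed hm)) y
    rw [lblN_eq hlt hd (in_ed hw') y hne, lblN_eq hlt' hd' (in_ed hm) y hne']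
    exact hl

include H X in
/-- **(R4.3)** equal labels: no common point -/
theorem non_w {F : Φ} (hE : ∀ e < L.cf F, dim e = 1 → EdgeG (K e) (c e) ∧
      EdgeO (K e) (c e) (ek h e))
    (hCh : Chords (K (L.cf F)) (bdS K (L.cf F)) (c (L.cf F))) {y : Pc L s (L.cf F)} {w' : W}
    (hw' : w' ∈ s.P ∧ w' ∈ L.toSk.In (L.cf F)) (hne : w' ∉ pts h (L.cf F) y)
    (hl : nlw h (L.cf F) y w' = nlw h (L.cf F) y (s.mu F w')) :
    Zer (K (L.cf F)) (c (L.cf F)) y ∩ Zer (K (L.cf F)) (c (L.cf F)) (mkP hw') = ∅ := by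
  have hm := mu_in hw'
  have hlt := ed_lt (L.cf_dim F).ge hw'.2
  have hlt' := ed_lt (L.cf_dim F).ge hm.2
  have hd := L.ed_dim w' hw'.2.1
  have hd' := L.ed_dim _ hm.2.1
  have hyy : y ≠ mkP hw' := by
    rintro rfl; exact hne (mem_mkP h hw')
  have hne' : s.mu F w' ∉ pts h (L.cf F) y := fun h' => hyy
    (pts_disj h' ((pts_face hw').2 (Or.inr rfl)))
  refine chord_non (C := cmb h Lam hLam) (k := ek h) H X (L.cf_dim F)
    (fun e he hde => ⟨(hE e he hde).1, (hE e he hde).2, ek_inj h e hde⟩) hCh hyy (blw_w hw')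
    hlt hlt' ?_
  show lblN (cmb h Lam hLam) (ek h) hlt (mkP (in_ed hw')) y =
      lblN (cmb h Lam hLam) (ek h) hlt' (mkP (in_ed hm)) y
  rw [lblN_eq hlt hd (in_ed hw') y hne, lblN_eq hlt' hd' (in_ed hm) y hne']
  exact hl

end geo

end Crest.Agent.R096.Arc_778
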