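import Crest.Agent.R096.Arc12_778
import Crest.Agent.R096.Lm15_117

/-!
# R096 (row 96), (R4), part 13: **`bg_lm`** = 117's geometric facts `BG` on every face for 416's
recursion over a labelled mesh; `r2_lm` = his `R2` (helper778)
-/

set_option autoImplicit false
set_option linter.unusedSectionVars false

open Set Metric


namespace Crest.Agent.R096.Arc_778

open Crest.Agent.R096.Ce_537 Crest.Agent.R096.Bd_416 Crest.Agent.R096.Cb_609 Crest.Agent.R096.Pl
open Crest.Agent.R096.St_147 Crest.Agent.R096.Ac_117 Crest.Agent.R096.Seq_213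
open Crest.Agent.R096.Lm_117 Crest.Agent.R096.Wk_689 Crest.Agent.R096.Fx_689
open Crest.Agent.R096.Gr_117 (GeoD FG)

variable {ι Φ W Q J Fm I : Type} {M : MeshC ι Φ W} [PartialOrder Q] {dim : Q → ℕ}
variable {L : LM M Q dim} {fam : J → Fm} {col : I → Bool}
variable {s : GSt M fam} {r : St M col} {q : ι} {c : Q}

/-! ### the chords of a face as pieces -/

lemma ch_in (R : ResOf s r) {F : Φ} {w : W} (hw : r.At F w) :
    w ∈ s.P ∧ w ∈ L.toSk.In (L.cf F) := ⟨R.sub _ hw.1, on_in le_rfl hw.2⟩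

variable (R : ResOf s r)

/-- every piece of the restriction on a face is a chord -/
lemma exists_ch (h : LF L s) {F : Φ} {w : W} (hw : w ∈ s.P ∧ w ∈ L.toSk.In (L.cf F))
    (hr : w ∈ r.P) : ∃ a : Ch r F, (chP R a : Pc L s (L.cf F)) = mkP hw ∧ (a.1 = w ∨ a.1 = r.mu F w) := by
  have hat : r.At F w := ⟨hr, on_of_in hw.2⟩
  by_cases hlt : M.pos F w < M.pos F (r.mu F w)
  · exact ⟨⟨w, hat, hlt⟩, rfl, Or.inl rfl⟩
  · have hne : M.pos F w ≠ M.pos F (r.mu F w) :=
      pos_ne r hat (At.mu r hat) (fun h' => r.mu_ne hat.1 hat.2 h'.symm)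
    have hlt' : M.pos F (r.mu F w) < M.pos F (r.mu F (r.mu F w)) := by
      rw [r.mu_mu hat.1 hat.2]
      exact lt_of_le_of_ne (not_lt.1 hlt) (Ne.symm hne)
    let a : Ch r F := ⟨r.mu F w, At.mu r hat, hlt'⟩
    refine ⟨a, ?_, Or.inr rfl⟩
    have h1 : w ∈ pts h (L.cf F) (chP R a) := by
      rw [mem_pts_ch R a]
      right
      show w = r.mu F (r.mu F w)
      rw [r.mu_mu hat.1 hat.2]
    exact (mkP_eq h h1).symm

lemma inn_same {F : Φ} {a b : Ch r F} (hab : a ≠ b) (h : ¬ (dg r F).X a b) :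
    (dg r F).inn b ((dg r F).hi a) = (dg r F).inn b ((dg r F).lo a) := by
  have hl := (dg r F).lt a
  have hl1 := (dg r F).lt b
  have q1 := (dg r F).ne a b
  have q2 := (dg r F).ne b a
  have q7 : (dg r F).lo a ≠ (dg r F).lo b := fun h => hab ((dg r F).lo_inj _ _ h)
  have q8 : (dg r F).hi a ≠ (dg r F).hi b := fun h => hab ((dg r F).hi_inj _ _ h)
  unfold Dg.X at h
  unfold Dg.inn
  split_ifs <;> first | rfl | (exfalso; omega)

variable {E : Type*} [NormedAddCommGroup E] [NormedSpace ℝ E]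

section geo

open scoped Classical

variable {h : LF L s} {Lam : J → Q → ZMod 2} {hLam : ∀ j c, L.toSk.XL (gP s j) (Lam j) c}
variable {K : Q → Set E} {g : Gd E J} {P : ∀ q, (cmb h Lam hLam).I q → Set E}
  {cb : ∀ q, (cmb h Lam hLam).I q → E → ℝ} {Ω : Set E}
  (H : Inv (cmb h Lam hLam) K univ g P cb) (X : Cplx Ω Q dim K)

include H X in
/-- **(I1)** the geometric facts on a face for 416's recursion -/
theorem bg_lm {F : Φ} (hE : ∀ e < L.cf F, dim e = 1 → EdgeG (K e) (cb e) ∧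
      EdgeO (K e) (cb e) (ek h e))
    (hCh : Chords (K (L.cf F)) (bdS K (L.cf F)) (cb (L.cf F))) :
    BG h R K cb (ptW h Lam hLam K cb) F where
  cont a := (H.pc _ (mem_univ _) _).1
  arc a := by
    have h1 := path_w H X (fun e he hd => (hE e he hd).1) hCh (ch_in R a.2.1)
    obtain ⟨γ, g1, g2, g3, g4, g5⟩ := h1
    exact ⟨γ, g1, g2, g3, g4, by rw [g5, R.mu]⟩
  one a b hX := by
    have hab := (dg r F).X_ne hX
    have h1 := one_w H X hE hCh (y := chP R b) (ch_in R a.2.1) (not_ch hab) (by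
      rw [nl_kp b a.2.1 (not_ch hab), ← R.mu, nl_kp b (At.mu r a.2.1) (not_ch' hab)]
      have h2 : (dg r F).inn b (rk r F (M.pos F (r.mu F a.1))) =
        (dg r F).inn b (rk r F (M.pos F a.1)) + 1 := (dg r F).inn_flip hX
      rw [h2]
      intro h3
      have h4 : ∀ k l : ZMod 2, k + l ≠ k + (l + 1) := by decide
      exact h4 _ _ h3)
    obtain ⟨p, hp⟩ := h1
    refine ⟨p, ?_⟩
    rw [← hp]
    ext z
    exact ⟨fun h => ⟨⟨h.1, h.2.2⟩, ⟨h.1, h.2.1⟩⟩, fun h => ⟨h.1.1, h.2.2, h.1.2⟩⟩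
  non a b hab hX := by
    have h1 := non_w H X hE hCh (y := chP R b) (ch_in R a.2.1) (not_ch hab) (by
      rw [nl_kp b a.2.1 (not_ch hab), ← R.mu, nl_kp b (At.mu r a.2.1) (not_ch' hab)]
      have h2 : (dg r F).inn b (rk r F (M.pos F (r.mu F a.1))) =
        (dg r F).inn b (rk r F (M.pos F a.1)) := inn_same hab hX
      rw [h2])
    rw [← h1]
    ext z
    exact ⟨fun h => ⟨⟨h.1, h.2.2⟩, ⟨h.1, h.2.1⟩⟩, fun h => ⟨h.1.1, h.2.2, h.1.2⟩⟩
  sign w hw b hne := by
    have hlt := ed_lt (L.cf_dim F).ge (ch_in R hw).2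
    have h1 := hE _ hlt (L.ed_dim w (ch_in (L := L) R hw).2.1)
    exact sign_w H (ch_in R hw) hlt h1.1 h1.2 _ hne

include H in
/-- 117's `R2` -/
theorem r2_lm (hd : dim c = 3) (q : ι) : R2 h q c K cb := by
  intro F hF _ x Y hY z hz
  have hlt : L.cf F < c := lt_of_le_of_ne hF fun h' => by
    have := L.cf_dim F
    rw [h', hd] at this
    omega
  have h1 := H.r2 hlt (mem_univ c) x z hz
  rw [h1]
  show sg (nl h c x (bv L.toSk (L.cf F))) * _ = _
  congr 1
  refine Finset.prod_congr ?_ fun _ _ => rfl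
  ext y
  exact ⟨fun h' => (hY y).2 (Finset.mem_filter.1 h').2, fun h' =>
    Finset.mem_filter.2 ⟨Finset.mem_univ _, (hY y).1 h'⟩⟩

end geo

end Crest.Agent.R096.Arc_778
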