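import Crest.Agent.R096.Arc13_778
import Crest.Agent.R096.Arc10_778

/-!
# R096 (row 96), (R4), part 14: **(I2)** the dictionary `SqD` over a labelled mesh (helper778)

* `exists_rk` : ranks of the pieces of all 3-cells outside the base: `TileG` and 117's `Ord`.
* `vz0` : place of a double point; `vz0_mem`, `vz0_unique`.
* **`sqd_lm`** : for every chain whose arcs are 117's, `SqD`.
-/

set_option autoImplicit false
set_option linter.unusedSectionVars false

open Set Metric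

namespace Crest.Agent.R096.Arc_778

open Crest.Agent.R096.Ce_537 Crest.Agent.R096.Bd_416 Crest.Agent.R096.Cb_609 Crest.Agent.R096.Pl
open Crest.Agent.R096.St_147 Crest.Agent.R096.Ac_117 Crest.Agent.R096.Seq_213
open Crest.Agent.R096.Lm_117 Crest.Agent.R096.Wk_689 Crest.Agent.R096.Fx_689
open Crest.Agent.R096.Gr_117 (GeoD FG exists_dbl)
open Crest.Agent.R096.Arc_422 (Chn Real)

open scoped Classical

variable {ι Φ W Q J Fm I : Type} {M : MeshC ι Φ W} [PartialOrder Q] {dim : Q → ℕ}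
variable {L : LM M Q dim} {fam : J → Fm} {col : I → Bool}
variable {s : GSt M fam} {r : St M col}
variable {E : Type*} [NormedAddCommGroup E] [NormedSpace ℝ E] [FiniteDimensional ℝ E]
variable {h : LF L s} {Lam : J → Q → ZMod 2} {hLam : ∀ j c, L.toSk.XL (gP s j) (Lam j) c}
variable {K : Q → Set E} {g : Gd E J} {P : ∀ q, (cmb h Lam hLam).I q → Set E}
  {cb : ∀ q, (cmb h Lam hLam).I q → E → ℝ} {Ω : Set E}
  (H : Inv (cmb h Lam hLam) K univ g P cb) (X : Cplx Ω Q dim K)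
variable {B : Set Q} {k : ∀ q, (cmb h Lam hLam).I q → ℕ}
  (G : Geo (cmb h Lam hLam) K cb B k) (GR : GeoR (cmb h Lam hLam) K cb B)
  (CG : CmbG (cmb h Lam hLam) B k)

include H X G GR CG

/-- **the ranks of the pieces of the 3-cells outside the base** -/
theorem exists_rk : ∃ rk : ∀ c : Q, Pc L s c → ℕ, ∀ c, dim c = 3 → c ∉ B →
    TileG (K c) (bdS K c) (cb c) (rk c) ∧ Ord h c (rk c) := by
  have key : ∀ c : Q, ∃ rk : Pc L s c → ℕ, dim c = 3 → c ∉ B →
      TileG (K c) (bdS K c) (cb c) rk ∧ Ord h c rk := by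
    intro c
    by_cases hc : dim c = 3 ∧ c ∉ B
    · obtain ⟨rk, hT⟩ := tileG H X G GR CG c hc.1 hc.2
      refine ⟨rk, fun _ _ => ⟨hT, ?_⟩⟩
      intro x x' hne hfam hl
      have hne' : (Gam (bdS K c) (cb c) x').Nonempty :=
        (circ_nontrivial (circle H X G GR CG c hc.1 x')).nonempty
      exact rk_of_side H X (by omega) hT.inc (x := x') (x' := x) (Ne.symm hne) hfam.symm hne' hl
    · exact ⟨fun _ => 0, fun h1 h2 => absurd ⟨h1, h2⟩ hc⟩
  choose rk hrk using key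
  exact ⟨rk, hrk⟩

/-- the geometric facts on all faces -/
theorem bg_all (hk : ∀ e ∉ B, dim e = 1 → k e = ek h e)
    (GO : ∀ e ∈ B, dim e = 1 → EdgeO (K e) (cb e) (ek h e)) (R : ResOf s r) (F : Φ) :
    BG h R K cb (ptW h Lam hLam K cb) F :=
  bg_lm R H X (fun e _ he => edgeGO G GR CG hk GO e he) (chords H X G GR CG _ (L.cf_dim F))

omit H X G GR CG

/-- the place of a double point -/
noncomputable def vz0 {R : ResOf s r} {pt : W → E} {c : ∀ q, Pc L s q → E → ℝ}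
    (hB : ∀ F, BG h R K c pt F) (z : r.Dbl) : E :=
  (geoD (hB z.F)).γ (cz z true) ((geoD (hB z.F)).cr (cz z true) (cz z false))

section vz

variable {R : ResOf s r} {pt : W → E} {c : ∀ q, Pc L s q → E → ℝ} (hB : ∀ F, BG h R K c pt F)

omit [FiniteDimensional ℝ E] in
lemma vz0_eq {q : ι} (z : Zq r q) : (fg (q := q) (fun F _ => hB F)).vz z = vz0 hB z.1 := rfl

omit [FiniteDimensional ℝ E] in
lemma vz0_mem (z : r.Dbl) (b : Bool) :
    vz0 hB z ∈ Zer (K (L.cf z.F)) (c (L.cf z.F)) (chP R (cz z b)) := by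
  obtain ⟨q, hq⟩ : ∃ q, q ∈ M.side z.F := by
    obtain ⟨a, b, hab⟩ : ∃ a b, M.side z.F = s(a, b) := ⟨_, _, (Quot.out_eq _).symm⟩
    exact ⟨a, by rw [hab]; simp⟩
  exact vz_mem (q := q) (fun F _ => hB F) ⟨z, hq⟩ b

omit [FiniteDimensional ℝ E] in
lemma vz0_unique (z : r.Dbl) {v : E}
    (hv : ∀ b, v ∈ Zer (K (L.cf z.F)) (c (L.cf z.F)) (chP R (cz z b))) : v = vz0 hB z := by
  obtain ⟨q, hq⟩ : ∃ q, q ∈ M.side z.F := by
    obtain ⟨a, b, hab⟩ : ∃ a b, M.side z.F = s(a, b) := ⟨_, _, (Quot.out_eq _).symm⟩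
    exact ⟨a, by rw [hab]; simp⟩
  exact vz_unique (q := q) (fun F _ => hB F) ⟨z, hq⟩ (hv true).1 fun b => (hv b).2

omit [NormedAddCommGroup E] [NormedSpace ℝ E] [FiniteDimensional ℝ E] in
lemma heq_chP {d d' : r.Dbl} (h : LF L s) (hF : d.F = d'.F) {b : Bool}
    (he : HEq (chP (L := L) R (cz d b)) (chP (L := L) R (cz d' b))) : d.e b = d'.e b := by
  obtain ⟨F, e, h1, h2, h3, h4⟩ := d
  obtain ⟨F', e', h1', h2', h3', h4'⟩ := d'
  have hF' : F = F' := hF
  subst hF'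
  have h5 := chP_inj R h (eq_of_heq he)
  exact congrArg Subtype.val h5

end vz

section sqd

variable (R : ResOf s r) {pt : W → E} {c : ∀ q, Pc L s q → E → ℝ} (hB : ∀ F, BG h R K c pt F)
  {Act : Set ι} {tc : ι → Q}
  (htc : ∀ q ∈ Act, ∀ F, q ∈ M.side F ↔ L.cf F ≤ tc q)
  (tc3 : ∀ q ∈ Act, dim (tc q) = 3)

omit [NormedAddCommGroup E] [NormedSpace ℝ E] [FiniteDimensional ℝ E] in
include htc tc3 in
lemma cf_lt {q : ι} (hq : q ∈ Act) {F : Φ} (hF : q ∈ M.side F) : L.cf F < tc q := by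
  refine lt_of_le_of_ne ((htc q hq F).1 hF) fun h' => ?_
  have := L.cf_dim F
  rw [h', tc3 q hq] at this
  omega

omit [FiniteDimensional ℝ E] in
include tc3 in
/-- **(I2) the dictionary over a labelled mesh** -/
theorem sqd_lm (Lam : J → Q → ZMod 2) (hLam : ∀ j c, L.toSk.XL (gP s j) (Lam j) c)
    (tcinj : ∀ q ∈ Act, ∀ q' ∈ Act, tc q = tc q' → q = q')
    (hr2 : ∀ q ∈ Act, R2 h q (tc q) K c)
    (S : ∀ q ∈ Act, SphM M q) {rk : ∀ q, Pc L s (tc q) → ℕ}
    (hinj : ∀ q ∈ Act, Function.Injective (rk q)) (hord : ∀ q ∈ Act, Ord h (tc q) (rk q))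
    (hcf : ∀ F' : Q, dim F' = 2 → ∃ F, L.cf F = F')
    {Z : Type*} (Cn : Chn Z ι) (nd : Z → r.Dbl) (nj : Bool → J) (hnj : nj true ≠ nj false)
    (nd_inj : Function.Injective nd)
    (hS : ∀ z q, q ∈ Cn.S z ↔ q ∈ M.side (nd z).F ∧ q ∈ Act)
    (harc : ∀ z q (hq : q ∈ Act) (hz : q ∈ M.side (nd z).F), nd (Cn.arc q z) =
      ((depC (S q hq) R (htc q hq) h (rk q) (hinj q hq) (hord q hq)).arc ⟨nd z, hz⟩).1)
    (hlab : ∀ z b, s.lab ((nd z).e b) = nj b)
    (hsur : ∀ d : r.Dbl, (∀ b, s.lab (d.e b) = nj b) → (∃ q ∈ Act, q ∈ M.side d.F) →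
      ∃ z, nd z = d)
    (hr : ∀ w ∈ s.P, ∀ b, s.lab w = nj b → w ∈ r.P ∧ col (r.lab w) = b) :
    SqD (cmb h Lam hLam) K c Cn Act tc nj rk (fun z => L.cf (nd z).F)
      (fun z b => chP R (cz (nd z) b)) (fun z => vz0 hB (nd z)) where
  nm_ne := hnj
  cell_inj := tcinj
  cell_dim := tc3
  act hq := ((hS _ _).1 hq).2
  dimF z := L.cf_dim _
  col z b := hlab z b
  ext z z' hF ha := by
    have hF' : (nd z).F = (nd z').F := L.cf_inj _ _ hF
    refine nd_inj (Dbl.ext' hF' ?_)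
    funext b
    exact heq_chP h hF' (ha b)
  mem z b := vz0_mem hB (nd z) b
  lt hq := by
    have h1 := (hS _ _).1 hq
    exact cf_lt htc tc3 h1.2 h1.1
  cyc {z q} hq b := by
    obtain ⟨h1, h2⟩ := (hS _ _).1 hq
    obtain ⟨h3, -⟩ := (hS _ _).1 (Cn.mem hq)
    have e1 := harc z q h2 h1
    have e2 : (⟨nd (Cn.arc q z), h3⟩ : Zq r q) =
        (depC (S q h2) R (htc q h2) h (rk q) (hinj q h2) (hord q h2)).arc ⟨nd z, h1⟩ :=
      Subtype.ext e1
    have e3 := cyZ_arc (S q h2) (htc q h2) (hinj q h2) (hord q h2) (R := R) ⟨nd z, h1⟩ b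
    rw [← e2] at e3
    exact e3
  run {z q} hq b hb := by
    obtain ⟨h1, h2⟩ := (hS _ _).1 hq
    obtain ⟨h3, -⟩ := (hS _ _).1 (Cn.mem hq)
    have e1 := harc z q h2 h1
    have e2 : (⟨nd (Cn.arc q z), h3⟩ : Zq r q) =
        (depC (S q h2) R (htc q h2) h (rk q) (hinj q h2) (hord q h2)).arc ⟨nd z, h1⟩ :=
      Subtype.ext e1
    obtain ⟨A, a1, a2, a3, a4⟩ := run_tile (q := q) (S q h2) (htc q h2) (hinj q h2) (hord q h2)
      (fun F _ => hB F) (hr2 q h2) (⟨nd z, h1⟩ : Zq r q) (b := b) hb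
    rw [← e2] at a4
    refine ⟨A, fun ω hω => ?_, a2, a3, a4⟩
    obtain ⟨⟨F, hF, hFK⟩, b1, b2⟩ := a1 hω
    refine ⟨⟨mem_biUnion (show L.cf F ∈ {j | j < tc q} from cf_lt htc tc3 h2 hF) hFK, b1⟩, b2⟩
  sur q hq F' hd hlt α hα ζ hζ := by
    obtain ⟨F, rfl⟩ := hcf F' hd
    have hqF : q ∈ M.side F := (htc q hq F).2 hlt.le
    have key : ∀ b, ∃ a : Ch r F, (chP R a : Pc L s (L.cf F)) = α b ∧ col (r.lab a.1) = b := by
      intro b
      obtain ⟨⟨w, hw⟩, he⟩ := Quot.exists_rep (α b : Pc L s (L.cf F))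
      have hl : s.lab w = nj b := by
        rw [← hα b, ← he]; rfl
      obtain ⟨h1, h2⟩ := hr w hw.1 b hl
      obtain ⟨a, h3, h4⟩ := exists_ch R h hw h1
      refine ⟨a, h3.trans he, ?_⟩
      rcases h4 with h4 | h4
      · rw [h4]; exact h2
      · rw [h4, r.mu_lab h1 (on_of_in hw.2)]; exact h2
    choose a ha1 ha2 using key
    have hne : a true ≠ a false := by
      intro h1
      have h2 := ha2 true
      rw [h1, ha2 false] at h2
      exact absurd h2 (by decide)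
    have hX : (dg r F).X (a true) (a false) := by
      by_contra hX
      have h1 := (hB F).non _ _ hne hX
      have h2 : ζ ∈ {z | z ∈ K (L.cf F) ∧ c (L.cf F) (chP R (a true)) z = 0 ∧
          c (L.cf F) (chP R (a false)) z = 0} := by
        refine ⟨(hζ true).1, ?_, ?_⟩
        · rw [ha1 true]; exact (hζ true).2
        · rw [ha1 false]; exact (hζ false).2
      rw [h1] at h2
      exact h2
    obtain ⟨d, d1, d2, d3, -⟩ := exists_dbl (a true) (a false) hX (ha2 true)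
    subst d1
    have hcz : ∀ b, cz d b = a b := by
      intro b
      apply Subtype.ext
      cases b
      · exact d3
      · exact d2
    have hdl : ∀ b, s.lab (d.e b) = nj b := by
      intro b
      have h1 : (chP R (cz d b) : Pc L s (L.cf d.F)) = α b := by rw [hcz b, ha1 b]
      rw [← hα b, ← h1]
      rfl
    obtain ⟨z, rfl⟩ := hsur d hdl ⟨q, hq, hqF⟩
    refine ⟨z, (hS _ _).2 ⟨hqF, hq⟩, (vz0_unique hB (nd z) fun b => ?_).symm⟩
    rw [hcz b, ha1 b]
    exact hζ b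

end sqd

section fin

include H X G GR CG

/-- **ARCS**: from the geometric structure over a labelled mesh (416's recursion): ranks with
`TileG`; for every two-colour restriction the arcs of 117 and the places of the double points; for
every chain made of these arcs the dictionary `SqD` (hence `SqD.isBall`, `SqD.real`) -/
theorem arcs_all (hk : ∀ e ∉ B, dim e = 1 → k e = ek h e)
    (GO : ∀ e ∈ B, dim e = 1 → EdgeO (K e) (cb e) (ek h e))
    (hcf : ∀ F' : Q, dim F' = 2 → ∃ F, L.cf F = F') :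
    ∃ rk : ∀ c : Q, Pc L s c → ℕ,
      (∀ c, dim c = 3 → c ∉ B → TileG (K c) (bdS K c) (cb c) (rk c)) ∧
      ∀ {I : Type} {col : I → Bool} (r : St M col) (R : ResOf s r) (Act : Set ι) (tc : ι → Q)
        (_ : ∀ q ∈ Act, ∀ F, q ∈ M.side F ↔ L.cf F ≤ tc q)
        (_ : ∀ q ∈ Act, dim (tc q) = 3 ∧ tc q ∉ B)
        (_ : ∀ q ∈ Act, ∀ q' ∈ Act, tc q = tc q' → q = q')
        (_ : ∀ q ∈ Act, Nonempty (SphM M q)),
        ∃ (A : r.Arcs Act) (v : r.Dbl → E),
          (∀ z b, v z ∈ Zer (K (L.cf z.F)) (cb (L.cf z.F)) (chP R (cz z b))) ∧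
          ∀ (Z : Type) (Cn : Chn Z ι) (nd : Z → r.Dbl) (nj : Bool → J), nj true ≠ nj false →
            Function.Injective nd →
            (∀ z q, q ∈ Cn.S z ↔ q ∈ M.side (nd z).F ∧ q ∈ Act) →
            (∀ z q, q ∈ Cn.S z → nd (Cn.arc q z) = A.arc q (nd z)) →
            (∀ z b, s.lab ((nd z).e b) = nj b) →
            (∀ d : r.Dbl, (∀ b, s.lab (d.e b) = nj b) → (∃ q ∈ Act, q ∈ M.side d.F) →
              ∃ z, nd z = d) →
            (∀ w ∈ s.P, ∀ b, s.lab w = nj b → w ∈ r.P ∧ col (r.lab w) = b) →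
            SqD (cmb h Lam hLam) K cb Cn Act tc nj (fun q => rk (tc q))
              (fun z => L.cf (nd z).F) (fun z b => chP R (cz (nd z) b)) (fun z => v (nd z)) := by
  obtain ⟨rk, hrk⟩ := exists_rk H X G GR CG
  refine ⟨rk, fun c hc hB => (hrk c hc hB).1, ?_⟩
  intro I col r R Act tc htc tc3 tcinj hS
  have S : ∀ q ∈ Act, SphM M q := fun q hq => (hS q hq).some
  have hB := bg_all H X G GR CG hk GO R
  have hinj : ∀ q ∈ Act, Function.Injective (rk (tc q)) := fun q hq =>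
    (hrk _ (tc3 q hq).1 (tc3 q hq).2).1.inj
  have hord : ∀ q ∈ Act, Ord h (tc q) (rk (tc q)) := fun q hq =>
    (hrk _ (tc3 q hq).1 (tc3 q hq).2).2
  obtain ⟨A, hA⟩ := exists_arcs R h Act tc htc S (fun q => rk (tc q)) hinj hord
  refine ⟨A, vz0 hB, fun z b => vz0_mem hB z b, ?_⟩
  intro Z Cn nd nj hnj nd_inj hCS hCa hlab hsur hr
  refine sqd_lm R hB htc (fun q hq => (tc3 q hq).1) Lam hLam tcinj
    (fun q hq => r2_lm H (tc3 q hq).1 q) S hinj hord hcf Cn nd nj hnj nd_inj hCS ?_ hlab hsur hr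
  intro z q hq hz
  rw [hCa z q ((hCS z q).2 ⟨hz, hq⟩), hA q hq (nd z) hz]

end fin

end Crest.Agent.R096.Arc_778
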