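import Crest.Agent.R096.Arc14_778
import Crest.Agent.R096.Be2_416

/-!
# R096 (row 96), (R4), part 15: order on the edges of the base (input `GO` of `arcs_all`): all
pieces of a base edge are in one family (helper778)
-/

set_option autoImplicit false
set_option linter.unusedSectionVars false

open Set Metric

namespace Crest.Agent.R096.Arc_778

open Crest.Agent.R096.Ce_537 Crest.Agent.R096.Bd_416 Crest.Agent.R096.Cb_609 Crest.Agent.R096.Pl
open Crest.Agent.R096.St_147 Crest.Agent.R096.Ac_117 Crest.Agent.R096.Seq_213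
open Crest.Agent.R096.Lm_117

open scoped Classical

section one

variable {Q : Type} [PartialOrder Q] {dim : Q → ℕ} {J Fam : Type}
variable {E : Type*} [NormedAddCommGroup E] [NormedSpace ℝ E]
variable {C : Cmb Q dim J Fam} {K : Q → Set E} {g : Gd E J} {D : Set Q}
  {P : ∀ q, C.I q → Set E} {c : ∀ q, C.I q → E → ℝ}

/-- on an edge all of whose pieces are in one family the sides give the order -/
theorem edgeO_of_fam (H : Inv C K D g P c) {e : Q} (he : e ∈ D) {k : C.I e → ℕ}
    (hf : ∀ x x', C.fam (C.col e x) = C.fam (C.col e x'))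
    (ord : ∀ x x', x ≠ x' → (k x' < k x → C.side e x x' = 1) ∧ (k x < k x' → C.side e x x' = 0)) :
    EdgeO (K e) (c e) k := by
  intro u u₀ z hz
  have hzP : z ∈ P e u₀ := H.cn e he u₀ z hz.1 (by rw [hz.2, abs_zero]; norm_num)
  have key : ∀ hne : u₀ ≠ u, -2 * c e u z = sg (C.side e u₀ u) := fun hne =>
    H.sd e he u₀ u hne (hf _ _) z hzP
  constructor
  · intro hk
    have hne : u₀ ≠ u := by rintro rfl; exact lt_irrefl _ hk
    have h1 := key hne
    rw [(ord u₀ u hne).1 hk, sg_one] at h1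
    linarith
  · intro hk
    have hne : u₀ ≠ u := by rintro rfl; exact lt_irrefl _ hk
    have h1 := key hne
    rw [(ord u₀ u hne).2 hk, sg_zero] at h1
    linarith

end one

section lm

variable {ι Φ W Q J Fm : Type} {M : MeshC ι Φ W} [PartialOrder Q] {dim : Q → ℕ}
variable {L : LM M Q dim} {fam : J → Fm} {s : GSt M fam}
variable {E : Type*} [NormedAddCommGroup E] [NormedSpace ℝ E]
variable {h : LF L s} {Lam : J → Q → ZMod 2} {hLam : ∀ j c, L.toSk.XL (gP s j) (Lam j) c}
variable {K : Q → Set E} {g : Gd E J} {P : ∀ q, (cmb h Lam hLam).I q → Set E}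
  {cb : ∀ q, (cmb h Lam hLam).I q → E → ℝ} {D : Set Q}

/-- **`GO` of `arcs_all`** -/
theorem go_of_fam (H : Inv (cmb h Lam hLam) K D g P cb) {B : Set Q} (hBD : B ⊆ D)
    (hf : ∀ e ∈ B, dim e = 1 → ∀ x x' : Pc L s e, fam (pcol L s e x) = fam (pcol L s e x')) :
    ∀ e ∈ B, dim e = 1 → EdgeO (K e) (cb e) (ek h e) := fun e he hd =>
  edgeO_of_fam H (hBD he) (hf e he hd) fun x x' hne => cmb_ord h Lam hLam e hd x x' hne

end lm

end Crest.Agent.R096.Arc_778


namespace Crest.Agent.R096.Be_416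

open Crest.Agent.R096.Ce_537 Crest.Agent.R096.Bd_416 Crest.Agent.R096.Xp_537
open Crest.Agent.R096.Brk1_582 Crest.Agent.R096.Brk2_582 Crest.Agent.R096.Brk6_582
open Crest.Agent.R096.Grd_714 Crest.Agent.R096.Bin_181

variable {E : Type*} [NormedAddCommGroup E] [NormedSpace ℝ E] {I : Type*}
variable {b : Set I → E} {P : I → Set E} {m : I → ℕ}
variable {V : Type*} [NormedAddCommGroup V] [NormedSpace ℝ V] [FiniteDimensional ℝ V]
  {Q : Type} [PartialOrder Q]
  {dim : Q → ℕ} {J Fam : Type} {Cm : Cmb Q dim J Fam} {K : Q → Set V} {D : Set Q}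
  {fa : J → I} {lv : J → ℕ} {S : Set V} {T : Set E}

/-- **all pieces of a 1-cell of the base belong to one family** -/
theorem BoxG.fam1 {κ : ℝ} {e : PLEquiv S T} {L H : Q → I → ℝ} {rL rH : Q → I → ℕ}
    (X : BoxG Cm K D P b m κ fa lv e L H rL rH) (hκ : κ ≤ 1) {q : Q} (hq : q ∈ D)
    (hd : dim q = 1) (x x' : Cm.I q) : fa (Cm.col q x) = fa (Cm.col q x') := by
  obtain ⟨a, ha⟩ := X.fr1 q hq hd
  have key : ∀ x : Cm.I q, fa (Cm.col q x) = a := by
    intro x
    by_contra hne
    have h1 := ha _ hne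
    obtain ⟨h2, h3⟩ := X.rng q hq x
    have h4 := abs_lt.1 (X.aL q hq (fa (Cm.col q x)))
    have h5 := abs_lt.1 (X.aH q hq (fa (Cm.col q x)))
    have h6 : rL q (fa (Cm.col q x)) < rH q (fa (Cm.col q x)) := lt_of_le_of_lt h2 h3
    have h7 : (rL q (fa (Cm.col q x)) : ℝ) + 1 ≤ rH q (fa (Cm.col q x)) := by exact_mod_cast h6
    rw [h1] at h4
    linarith [h4.1, h4.2, h5.1, h5.2]
  rw [key x, key x']

end Crest.Agent.R096.Be_416
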