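import Crest.Agent.R096.Arc15_778
import Crest.Agent.R096.At6_241

/-!
# R096 (row 96), (R4), part 16: the dictionary `SqD` for 241's chains over the quads of 213
(helper778)

* **`quad_sqd`** : `SqD` for `Ends.chn` (all quads, all pairs of sheets with `Ends`).
* `quad_ball` : the double arcs of two sheets over one quad are one arc.
-/

set_option autoImplicit false
set_option linter.unusedSectionVars false

open Set Metric

namespace Crest.Agent.R096.Arc_778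

open Crest.Agent.R096.Ce_537 Crest.Agent.R096.Bd_416 Crest.Agent.R096.Cb_609 Crest.Agent.R096.Pl
open Crest.Agent.R096.St_147 Crest.Agent.R096.Ac_117 Crest.Agent.R096.Seq_213
open Crest.Agent.R096.Lm_117 Crest.Agent.R096.Wk_689 Crest.Agent.R096.Fx_689
open Crest.Agent.R096.Arc_422 (Chn)
open Crest.Agent.R096.At_241 (NdT Ends)

variable {ι Φ W Q J Fm Kq : Type} {M : MeshC ι Φ W} [PartialOrder Q] {dim : Q → ℕ}
variable {L : LM M Q dim} {fam : J → Fm}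
variable {s : GSt M fam}

lemma ends_cl {Qd : Quads ι Fm Kq} {k : Kq} {i0 : Qd.Nm fam k} {nm : Bool → Qd.Nm fam k}
    (z : NdT (s.res Qd k i0) (Qd.Act k) nm) (b : Bool) : Qd.cl fam k (nm b) = b := by
  rw [← z.2.1 b]; exact z.1.colr b

lemma ends_ne {Qd : Quads ι Fm Kq} {k : Kq} {i0 : Qd.Nm fam k} {nm : Bool → Qd.Nm fam k}
    (z : NdT (s.res Qd k i0) (Qd.Act k) nm) : (nm true).1 ≠ (nm false).1 := by
  intro h
  have h1 := ends_cl z true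
  rw [Subtype.ext h, ends_cl z false] at h1
  exact absurd h1 (by decide)

variable {E : Type*} [NormedAddCommGroup E] [NormedSpace ℝ E] [FiniteDimensional ℝ E]
variable {h : LF L s} {Lam : J → Q → ZMod 2} {hLam : ∀ j c, L.toSk.XL (gP s j) (Lam j) c}
variable {K : Q → Set E} {g : Gd E J} {P : ∀ q, (cmb h Lam hLam).I q → Set E}
  {cb : ∀ q, (cmb h Lam hLam).I q → E → ℝ} {Ω : Set E}
  (H : Inv (cmb h Lam hLam) K univ g P cb) (X : Cplx Ω Q dim K)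
variable {B : Set Q} {k : ∀ q, (cmb h Lam hLam).I q → ℕ}
  (G : Geo (cmb h Lam hLam) K cb B k) (GR : GeoR (cmb h Lam hLam) K cb B)
  (CG : CmbG (cmb h Lam hLam) B k)

include H X G GR CG

/-- **the dictionary for the quads**: one rank function for all quads and all pairs of sheets -/
theorem quad_sqd (hk : ∀ e ∉ B, dim e = 1 → k e = ek h e)
    (GO : ∀ e ∈ B, dim e = 1 → EdgeO (K e) (cb e) (ek h e))
    (hcf : ∀ F' : Q, dim F' = 2 → ∃ F, L.cf F = F') :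
    ∃ rk : ∀ c : Q, Pc L s c → ℕ,
      (∀ c, dim c = 3 → c ∉ B → TileG (K c) (bdS K c) (cb c) (rk c)) ∧
      ∀ (Qd : Quads ι Fm Kq) (κ : Kq) (i0 : Qd.Nm fam κ) (tc : ι → Q)
        (_ : ∀ q ∈ Qd.Act κ, ∀ F, q ∈ M.side F ↔ L.cf F ≤ tc q)
        (_ : ∀ q ∈ Qd.Act κ, dim (tc q) = 3 ∧ tc q ∉ B)
        (_ : ∀ q ∈ Qd.Act κ, ∀ q' ∈ Qd.Act κ, tc q = tc q' → q = q')
        (_ : ∀ q ∈ Qd.Act κ, Nonempty (SphM M q))
        (_ : NoClosed (s.res Qd κ i0) (Qd.Act κ)),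
        ∃ v : (s.res Qd κ i0).Dbl → E,
          (∀ z b, v z ∈ Zer (K (L.cf z.F)) (cb (L.cf z.F)) (chP (resOf s Qd κ i0) (cz z b))) ∧
          ∀ (nm : Bool → Qd.Nm fam κ) (A0 A1 : Set ι) (En : Ends s Qd κ i0 nm A0 A1),
            ∃ Cn : Chn (NdT (s.res Qd κ i0) (Qd.Act κ) nm) ι,
              Cn.e = En.e ∧ Cn.e' = En.e' ∧
              (∀ z, Cn.S z = {q | q ∈ M.side z.1.F ∧ q ∈ Qd.Act κ}) ∧
              SqD (cmb h Lam hLam) K cb Cn (Qd.Act κ) tc (fun b => (nm b).1)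
                (fun q => rk (tc q)) (fun z => L.cf z.1.F)
                (fun z b => chP (resOf s Qd κ i0) (cz z.1 b)) (fun z => v z.1) := by
  obtain ⟨rk, h1, h2⟩ := arcs_all H X G GR CG hk GO hcf
  refine ⟨rk, h1, ?_⟩
  intro Qd κ i0 tc htc tc3 tcinj hS hno
  obtain ⟨A, v, hv, hA⟩ := h2 (s.res Qd κ i0) (resOf s Qd κ i0) (Qd.Act κ) tc htc tc3 tcinj hS
  refine ⟨v, hv, ?_⟩
  intro nm A0 A1 En
  refine ⟨En.chn A hno, rfl, rfl, fun z => rfl, ?_⟩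
  have hlab : ∀ (z : NdT (s.res Qd κ i0) (Qd.Act κ) nm) (b : Bool),
      s.lab (z.1.e b) = (nm b).1 := fun z b =>
    (GSt.res_lab_iff (GSt.res_at.1 (z.1.at_ b)).2).1 (z.2.1 b)
  refine hA _ (En.chn A hno) (fun z => z.1) (fun b => (nm b).1) (ends_ne En.e)
    Subtype.val_injective (fun z q => Iff.rfl) (fun z q hq => En.chn_arc A hno hq.1 hq.2) hlab ?_ ?_
  · rintro d hd ⟨q, hq, hqF⟩
    refine ⟨⟨d, fun x => ?_, ⟨q, hqF, hq⟩⟩, rfl⟩
    exact (GSt.res_lab_iff (GSt.res_at.1 (d.at_ x)).2).2 (hd x)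
  · intro w hw b hl
    have hin : Qd.In κ (fam (s.lab w)) := by rw [hl]; exact (nm b).2
    refine ⟨GSt.mem_res.2 ⟨hw, hin⟩, ?_⟩
    rw [(GSt.res_lab_iff hin).2 hl]
    exact ends_cl En.e b

/-- **the double arcs of two sheets over one quad are one arc**, whose two ends lie on the faces of
the two frozen double points -/
theorem quad_ball (hk : ∀ e ∉ B, dim e = 1 → k e = ek h e)
    (GO : ∀ e ∈ B, dim e = 1 → EdgeO (K e) (cb e) (ek h e))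
    (hcf : ∀ F' : Q, dim F' = 2 → ∃ F, L.cf F = F')
    (Qd : Quads ι Fm Kq) (κ : Kq) (i0 : Qd.Nm fam κ) (tc : ι → Q)
    (htc : ∀ q ∈ Qd.Act κ, ∀ F, q ∈ M.side F ↔ L.cf F ≤ tc q)
    (tc3 : ∀ q ∈ Qd.Act κ, dim (tc q) = 3 ∧ tc q ∉ B)
    (tcinj : ∀ q ∈ Qd.Act κ, ∀ q' ∈ Qd.Act κ, tc q = tc q' → q = q')
    (hS : ∀ q ∈ Qd.Act κ, Nonempty (SphM M q))
    (hno : NoClosed (s.res Qd κ i0) (Qd.Act κ))
    (nm : Bool → Qd.Nm fam κ) (A0 A1 : Set ι) (En : Ends s Qd κ i0 nm A0 A1) :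
    ∃ x x' : E, x ∈ K (L.cf En.e.1.F) ∧ x' ∈ K (L.cf En.e'.1.F) ∧
      IsBall 1 {z | ∃ q ∈ Qd.Act κ, z ∈ K (tc q) ∧ ∀ b, g.G (nm b).1 z = 1/2} {x, x'} := by
  obtain ⟨rk, h1, h2⟩ := quad_sqd (Kq := Kq) H X G GR CG hk GO hcf
  obtain ⟨v, hv, h3⟩ := h2 Qd κ i0 tc htc tc3 tcinj hS hno
  obtain ⟨Cn, e1, e2, -, D⟩ := h3 nm A0 A1 En
  have h4 := D.isBall H X (fun e he => edgeG G GR CG e he)
    (fun q hq => h1 _ (tc3 q hq).1 (tc3 q hq).2)
  rw [e1, e2] at h4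
  exact ⟨_, _, (hv _ true).1, (hv _ true).1, h4⟩

end Crest.Agent.R096.Arc_778
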