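import Crest.Agent.R096.As5_241

/-!
# R096 (row 96), ARR2 part 6 (helper241): the tiny core

`exists_Th`: a transport structure with ball fibres on the boundary sphere `S` of a PL ball `K` over
the proper faces of the top cell `c` extends to the exact structure on `K` : there is
`Th : PLEquiv K (coreF C κ c θ)`, `S = {sl (Th x) c = θ}`, and on `S` the exact structure of `Th` is
the given one.
-/

set_option autoImplicit false
set_option linter.unusedSectionVars false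
set_option linter.unusedVariables false
set_option linter.deprecated false

open Set Metric Topology Module
open scoped Classical

namespace Crest.Agent.R096.As_241

open Crest.Agent.R096.Xp_537
open Crest.Agent.R096.Ce_537 (PLOn PLEquiv cube sph IsBall plOn_affine plOn_id plOn_const
  plOn_biUnion)
open Crest.Agent.R096.Bd_416 (pl_add pl_smul pl_sum pl_clm)
open Crest.Agent.R096.Ar_241
open Crest.Agent.R096.Dl_609 (lc tot tot_eq lc_single tot_single lc_eq_bs tot_wt wt_top bs_top')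

variable {E : Type*} [NormedAddCommGroup E] [NormedSpace ℝ E] [FiniteDimensional ℝ E]
  {E' : Type*} [NormedAddCommGroup E'] [NormedSpace ℝ E'] [FiniteDimensional ℝ E']
  {Q : Type*} [PartialOrder Q] {Λ : Set E} {C : CC Λ Q} {c : Q} {κ θ : ℝ}
  {S K : Set E'} {G : E' → E}

/-- weights on the proper faces as weights on all cells -/
noncomputable def emb (c : Q) (l : {q : Q // q < c} →₀ ℝ) : Q →₀ ℝ :=
  l.embDomain ⟨Subtype.val, Subtype.val_injective⟩

lemma emb_apply (l : {q : Q // q < c} →₀ ℝ) (q : {q : Q // q < c}) : emb c l q.1 = l q :=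
  Finsupp.embDomain_apply_self ⟨Subtype.val, Subtype.val_injective⟩ l q

lemma emb_off (l : {q : Q // q < c} →₀ ℝ) {ρ : Q} (h : ¬ ρ < c) : emb c l ρ = 0 := by
  refine Finsupp.embDomain_of_notMem_range _ _ _ ?_
  rintro ⟨q, rfl⟩
  exact h q.2

lemma emb_supp (l : {q : Q // q < c} →₀ ℝ) {ρ : Q} (h : ρ ∈ (emb c l).support) :
    ∃ q : {q : Q // q < c}, q.1 = ρ ∧ q ∈ l.support := by
  rw [Finsupp.mem_support_iff] at h
  by_cases h1 : ρ < c
  · refine ⟨⟨ρ, h1⟩, rfl, ?_⟩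
    rw [Finsupp.mem_support_iff, ← emb_apply l ⟨ρ, h1⟩]
    exact h
  · exact absurd (emb_off l h1) h

lemma emb_inj : Function.Injective (emb c) := Finsupp.embDomain_injective _

lemma emb_sum {M : Type*} [AddCommMonoid M] (l : {q : Q // q < c} →₀ ℝ) (g : Q → ℝ → M)
    : ∑ ρ ∈ (emb c l).support, g ρ (emb c l ρ) = ∑ q ∈ l.support, g q.1 (l q) := by
  unfold emb
  rw [Finsupp.support_embDomain, Finset.sum_map]
  refine Finset.sum_congr rfl fun q _ => ?_
  rw [Finsupp.embDomain_apply_self]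
  rfl

lemma emb_wt {l : {q : Q // q < c} →₀ ℝ} (h : Wt l) : Wt (emb c l) where
  nn ρ := by
    by_cases h1 : ρ < c
    · rw [emb_apply l ⟨ρ, h1⟩]; exact h.nn _
    · rw [emb_off l h1]
  sum := by
    rw [emb_sum l (fun _ x => x)]; exact h.sum
  chain ρ hρ σ hσ := by
    obtain ⟨q, rfl, hq⟩ := emb_supp l hρ
    obtain ⟨r, rfl, hr⟩ := emb_supp l hσ
    exact h.chain q hq r hr

lemma emb_state {l : {q : Q // q < c} →₀ ℝ} {t : E} (h : State (below C c) l t) :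
    State C (emb c l) t := by
  have h1 := emb_wt h.wt
  refine ⟨h1.nn, h1.sum, h1.chain, fun ρ hρ => ?_⟩
  obtain ⟨q, rfl, hq⟩ := emb_supp l hρ
  exact h.mem q hq

lemma bs_emb (l : {q : Q // q < c} →₀ ℝ) : bs C.b (emb c l) = bs (below C c).b l := by
  unfold bs
  rw [emb_sum l (fun ρ x => x • C.b ρ)]
  rfl

section T

variable (T : Trn S (below C c) G)

/-- the weights on the core -/
noncomputable def Mw (θ : ℝ) (x : E') : Q →₀ ℝ :=
  (1 - θ) • emb c (T.expl.LAM x) + Finsupp.single c θ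

/-- the boundary homeomorphism -/
noncomputable def thS (κ θ : ℝ) (x : E') : E := pk C κ (Mw T θ x) (G x)

variable {T}

lemma Mw_state (h0 : 0 ≤ θ) (hθ : θ < 1) {x : E'} (hx : x ∈ S) :
    State C (Mw T θ x) (G x) ∧ (∀ ρ ∈ (Mw T θ x).support, ρ ≤ c) ∧ Mw T θ x c = θ := by
  have h1 := emb_state (T.expl.LAM_state hx)
  obtain ⟨a, b, d⟩ := mix_state (c := c) (θ := θ) h1 (fun ρ hρ => by
    obtain ⟨q, rfl, -⟩ := emb_supp _ hρ
    exact q.2.le) h0 hθ
  refine ⟨a, b, ?_⟩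
  have h2 : emb c (T.expl.LAM x) c = 0 := emb_off _ (lt_irrefl c)
  rw [h2] at d
  simpa [Mw] using d

lemma thS_sl (hκ : 0 < κ ∧ κ < 1) (h0 : 0 ≤ θ) (hθ : θ < 1) {x : E'} (hx : x ∈ S) :
    sl C κ (thS T κ θ x) = Mw T θ x ∧ st C κ (thS T κ θ x) = G x := by
  obtain ⟨a, b, d⟩ := Mw_state (T := T) h0 hθ hx
  exact ⟨sl_pk C hκ a, st_pk C hκ a⟩

lemma thS_mem (hκ : 0 < κ ∧ κ < 1) (h0 : 0 ≤ θ) (hθ : θ < 1) {x : E'} (hx : x ∈ S) :
    thS T κ θ x ∈ coreF C κ c θ ∧ sl C κ (thS T κ θ x) c = θ := by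
  obtain ⟨a, b, d⟩ := Mw_state (T := T) h0 hθ hx
  have h1 := (thS_sl (T := T) hκ h0 hθ hx).1
  refine ⟨⟨pk_mem C hκ a b, ?_⟩, ?_⟩
  · rw [h1, d]
  · rw [h1, d]

lemma thS_inj (hκ : 0 < κ ∧ κ < 1) (h0 : 0 ≤ θ) (hθ : θ < 1) : InjOn (thS T κ θ) S := by
  intro x hx y hy he
  obtain ⟨a1, a2⟩ := thS_sl (T := T) hκ h0 hθ hx
  obtain ⟨b1, b2⟩ := thS_sl (T := T) hκ h0 hθ hy
  have h1 : Mw T θ x = Mw T θ y := by rw [← a1, ← b1, he]
  have h2 : G x = G y := by rw [← a2, ← b2, he]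
  exact T.expl.LAM_inj hx hy (emb_inj (mix_inj hθ h1)) h2

lemma thS_surj (hκ : 0 < κ ∧ κ < 1) (h0 : 0 ≤ θ) (hθ : θ < 1) {y : E}
    (hy : y ∈ coreF C κ c θ) (hyθ : sl C κ y c = θ) : ∃ x ∈ S, thS T κ θ x = y := by
  obtain ⟨k1, k2, k3⟩ := st_spec C hκ hy.1
  obtain ⟨l, l1, l2, l3, l4⟩ := exists_unmix k1.wt h0 hθ hyθ.ge
  have hlc : l c = 0 := by rw [l4, hyθ]; ring
  have hlt : ∀ ρ ∈ l.support, ρ < c := fun ρ hρ => lt_of_le_of_ne (k3 ρ (l3 ρ hρ)) (by
    rintro rfl; exact Finsupp.mem_support_iff.1 hρ hlc)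
  set l' : {q : Q // q < c} →₀ ℝ := l.subtypeDomain (fun q => q < c) with hl'
  have hl'v : ∀ q : {q : Q // q < c}, l' q = l q.1 := fun q => rfl
  have he : emb c l' = l := by
    ext ρ
    by_cases h1 : ρ < c
    · rw [emb_apply l' ⟨ρ, h1⟩]; rfl
    · rw [emb_off l' h1]
      by_contra hne
      exact h1 (hlt ρ (Finsupp.mem_support_iff.2 (Ne.symm hne)))
  have hsup : ∀ q, q ∈ l'.support → q.1 ∈ l.support := fun q hq =>
    Finsupp.mem_support_iff.2 (by rw [← hl'v]; exact Finsupp.mem_support_iff.1 hq)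
  have hst : State (below C c) l' (st C κ y) := by
    refine ⟨fun q => l1.nn _, ?_, fun q hq r hr => l1.chain _ (hsup q hq) _ (hsup r hr),
      fun q hq => k1.mem _ (l3 _ (hsup q hq))⟩
    have h2 := emb_sum l' (fun _ x => x)
    rw [he] at h2
    rw [← h2]; exact l1.sum
  obtain ⟨q, -, x, hx, hL, hG⟩ := T.expl.LAM_surj hst
  refine ⟨x, T.expl.sub q hx, ?_⟩
  unfold thS Mw
  rw [hL, hG, he, ← l2, k2]

lemma thS_pl (hκ : 0 < κ ∧ κ < 1) : PLOn (thS T κ θ) S := by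
  have := finite_dwn C c
  let _ : Fintype (Dwn c) := Fintype.ofFinite _
  have hfin : (univ : Set {q : Q // q < c}).Finite := Set.finite_univ
  have h1 : ∀ q, PLOn (thS T κ θ) (T.expl.P q) := by
    intro q
    have h2 : PLOn (fun x => ∑ ρ : {q : Q // q < c}, T.expl.LAM x ρ • C.b ρ.1) (T.expl.P q) :=
      pl_sum _ fun ρ _ => pl_clm (T.expl.plOn_LAM q ρ)
        ((ContinuousLinearMap.id ℝ ℝ).smulRight (C.b ρ.1))
    refine (pl_add (pl_smul (1 - κ) (T.expl.plOn_G q)) (pl_smul κ (pl_add (pl_smul (1 - θ) h2)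
      (plOn_const (θ • C.b c) _)))).congr fun x hx => ?_
    show thS T κ θ x = (1 - κ) • G x + κ • ((1 - θ) • (∑ ρ : {q : Q // q < c},
      T.expl.LAM x ρ • C.b ρ.1) + θ • C.b c)
    unfold thS pk Mw
    rw [bs_top', bs_emb]
    have h3 : bs (below C c).b (T.expl.LAM x) = ∑ ρ : {q : Q // q < c}, T.expl.LAM x ρ • C.b ρ.1 :=
      bs_eq_of (Finset.subset_univ _)
    rw [h3]
  have h2 := plOn_biUnion (K := fun q => T.expl.P q) univ hfin (fun q _ => h1 q)
    (fun q _ => (T.expl.isCompact_P q).isClosed)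
  refine h2.mono fun x hx => ?_
  obtain ⟨q, hq⟩ := T.expl.cover x hx
  exact mem_biUnion (mem_univ q) hq

/-- the min of the weights is the top -/
lemma Mw_mn (h0 : 0 ≤ θ) (hθ : θ < 1) {x : E'} (hx : x ∈ S) :
    mn c (Mw T θ x) = (T.top x).1 := by
  have htop : T.expl.IsTop x (T.top x) :=
    ⟨⟨hx, le_rfl, T.G_mem x hx⟩, fun q hq => hq.2.1⟩
  obtain ⟨h1, h2⟩ := T.expl.LAM_top htop
  obtain ⟨a, b, d⟩ := Mw_state (T := T) h0 hθ hx
  have hval : ∀ q : {q : Q // q < c}, Mw T θ x q.1 = (1 - θ) * T.expl.LAM x q := by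
    intro q
    unfold Mw
    rw [Finsupp.add_apply, Finsupp.smul_apply, smul_eq_mul, emb_apply,
      Finsupp.single_eq_of_ne q.2.ne, add_zero]
  refine mn_eq c a.wt ?_ ?_
  · rw [Finsupp.mem_support_iff, hval]
    exact mul_ne_zero (by linarith) (Finsupp.mem_support_iff.1 h1)
  · intro ρ hρ
    by_cases hρc : ρ < c
    · have h3 : (⟨ρ, hρc⟩ : {q : Q // q < c}) ∈ (T.expl.LAM x).support := by
        rw [Finsupp.mem_support_iff]
        intro h4
        apply Finsupp.mem_support_iff.1 hρ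
        rw [hval ⟨ρ, hρc⟩, h4, mul_zero]
      exact h2 _ h3
    · have h3 : ρ = c := (b ρ hρ).lt_or_eq.resolve_left hρc
      rw [h3]; exact (T.top x).2.le

/-- the weights are invariant under the transports -/
lemma LAM_tr {x : E'} (hx : x ∈ S) {t : E} (ht : t ∈ C.cell (T.top x).1) :
    T.expl.LAM (T.tr x t) = T.expl.LAM x := by
  have htop : x ∈ T.expl.P (T.top x) := ⟨hx, le_rfl, T.G_mem x hx⟩
  have h1 : T.tr x t ∈ T.expl.P (T.top x) :=
    ⟨T.tr_mem x hx t ht, T.tr_top x hx t ht, by rw [T.tr_G x hx t ht]; exact ht⟩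
  rw [T.expl.LAM_eq htop, T.expl.LAM_eq h1]
  congr 1
  show T.tr (T.tr x t) _ = T.tr x _
  exact T.tr_tr x hx t ht _ (C.bmem _)

variable (T)

/-- **the tiny core**: extension of the structure on the boundary sphere to the exact structure -/
theorem exists_Th (hΛ : IsOpen Λ) (hc : ∀ ρ, c ≤ ρ → ρ = c) (hκ : 0 < κ ∧ κ < 1) (h0 : 0 ≤ θ)
    (hθ : θ < 1) (hK : IsBall (finrank ℝ E) K S) :
    ∃ Th : PLEquiv K (coreF C κ c θ), (∀ x ∈ K, x ∈ S ↔ sl C κ (Th.f x) c = θ) ∧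
      (∀ x ∈ S, Th.f x = thS T κ θ x) ∧
      ∀ x ∈ S, cG C κ Th.f x = G x ∧ ctop C κ c Th.f x = (T.top x).1 ∧
        ∀ s ∈ C.cell (T.top x).1, ctr C κ Th.f Th.g x s = T.tr x s := by
  -- the boundary equivalence
  have hfc : Cx_609.FinConv S := (Cx_609.isBall_iff.1 hK).finConv_bd
  let e0 := Cx_609.equivOfInjOn hfc hK.isClosed_bdry (thS_pl (T := T) (θ := θ) hκ)
    (thS_inj (T := T) hκ h0 hθ)
  have himg : thS T κ θ '' S = {y | y ∈ coreF C κ c θ ∧ sl C κ y c = θ} := by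
    ext y
    constructor
    · rintro ⟨x, hx, rfl⟩; exact thS_mem (T := T) hκ h0 hθ hx
    · rintro ⟨hy, hy'⟩
      obtain ⟨x, hx, he⟩ := thS_surj (T := T) hκ h0 hθ hy hy'
      exact ⟨x, hx, he⟩
  have hex : ∃ e1 : PLEquiv S {y | y ∈ coreF C κ c θ ∧ sl C κ y c = θ},
      ∀ x ∈ S, e1.f x = thS T κ θ x := by
    rw [← himg]
    exact ⟨e0, fun x _ => rfl⟩
  obtain ⟨e, he⟩ := hex
  obtain ⟨Th, t1, t2⟩ := hK.extend (isBall_coreF hΛ hc hκ h0 hθ) e
  have hTS : ∀ x ∈ S, Th.f x = thS T κ θ x := fun x hx => (t1 hx).trans (he x hx)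
  refine ⟨Th, fun x hx => ⟨fun hxS => ?_, fun h => ?_⟩, hTS, fun x hx => ⟨?_, ?_, fun s hs => ?_⟩⟩
  · rw [hTS x hxS]; exact (thS_mem (T := T) hκ h0 hθ hxS).2
  · obtain ⟨z, hz, hze⟩ := thS_surj (T := T) hκ h0 hθ (Th.mf hx) h
    have : z = x := Th.injOn (hK.subset hz) hx ((hTS z hz).trans hze)
    rwa [← this]
  · show st C κ (Th.f x) = G x
    rw [hTS x hx]; exact (thS_sl (T := T) hκ h0 hθ hx).2
  · show mn c (sl C κ (Th.f x)) = _
    rw [hTS x hx, (thS_sl (T := T) hκ h0 hθ hx).1]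
    exact Mw_mn (T := T) h0 hθ hx
  · show Th.g (pk C κ (sl C κ (Th.f x)) s) = _
    rw [hTS x hx, (thS_sl (T := T) hκ h0 hθ hx).1]
    have hxs : T.tr x s ∈ S := T.tr_mem x hx s hs
    have h2 : thS T κ θ (T.tr x s) = pk C κ (Mw T θ x) s := by
      unfold thS Mw
      rw [LAM_tr (T := T) hx hs, T.tr_G x hx s hs]
    rw [← h2, ← hTS _ hxs]
    exact Th.li _ (hK.subset hxs)

end T

end Crest.Agent.R096.As_241
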