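import Crest.Agent.R096.Mg4_441

/-!
# R096 (row 96), NO-LABELS (helper441), part 1: label coordinates and numbers of pieces

* `nP C q a`        : number of the pieces of the family `a` in the cell `q`;
* `merge_G_sub`     : `|G_a y - G_a y'| ≤ nP C q a` for `y, y'` in the cell `q`;
* `uu hfin g y a`   : the label coordinate `G_a y / m_a`;
* `uu_sub`, `uu_path` : `|u_a y - u_a y'| ≤ nP / m_a` in a cell, along a path of cells;
* `uu_memK2`, `uu_zero`, `uu_one` : values in 582's complex, exact labels on whole cells;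
* `uu_mono`         : number of levels between two points.
-/

set_option autoImplicit false
set_option linter.unusedSectionVars false

open Set Relation

namespace Crest.Agent.R096.On_441

open Crest.Agent.R096.Ce_537
open Crest.Agent.R096.Bd_416
open Crest.Agent.R096.Mg_441
open Crest.Agent.R096.Grd_714
open Crest.Agent.R096.Brk1_582 (fc fc_anti)

/-- telescoping for products of numbers of absolute value `≤ 1` -/
theorem prod_sub_le {ι : Type*} (t : Finset ι) (f h : ι → ℝ) (hf : ∀ i ∈ t, |f i| ≤ 1)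
    (hh : ∀ i ∈ t, |h i| ≤ 1) : |∏ i ∈ t, f i - ∏ i ∈ t, h i| ≤ ∑ i ∈ t, |f i - h i| := by
  classical
  induction t using Finset.induction_on with
  | empty => simp
  | insert a t ha ih =>
    rw [Finset.prod_insert ha, Finset.prod_insert ha, Finset.sum_insert ha]
    have h1 := ih (fun i hi => hf i (Finset.mem_insert_of_mem hi))
      (fun i hi => hh i (Finset.mem_insert_of_mem hi))
    have h2 : |∏ i ∈ t, f i| ≤ 1 := by
      rw [Finset.abs_prod]
      exact Finset.prod_le_one (fun i _ => abs_nonneg _)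
        (fun i hi => hf i (Finset.mem_insert_of_mem hi))
    have h3 := hh a (Finset.mem_insert_self a t)
    have e : f a * ∏ i ∈ t, f i - h a * ∏ i ∈ t, h i =
        (f a - h a) * ∏ i ∈ t, f i + h a * (∏ i ∈ t, f i - ∏ i ∈ t, h i) := by ring
    rw [e]
    refine (abs_add_le _ _).trans (add_le_add ?_ ?_)
    · rw [abs_mul]
      exact mul_le_of_le_one_right (abs_nonneg _) h2
    · rw [abs_mul]
      exact (mul_le_of_le_one_left (abs_nonneg _) h3).trans h1

variable {Q : Type} [PartialOrder Q] {dim : Q → ℕ} {J Fam : Type}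
variable {E : Type*} [NormedAddCommGroup E] [NormedSpace ℝ E]
variable {C : Cmb Q dim J Fam} {K : Q → Set E} {D : Set Q} {g : Gd E J}
  {P : ∀ q, C.I q → Set E} {c : ∀ q, C.I q → E → ℝ}

open Classical in
/-- the number of the pieces of the family `a` in the cell `q` -/
noncomputable def nP (C : Cmb Q dim J Fam) (q : Q) (a : Fam) : ℕ :=
  (Finset.univ.filter fun x : C.I q => C.fam (C.col q x) = a).card

open Classical in
/-- one sheet -/
theorem G_sub (H : Inv C K D g P c) {q : Q} (hq : q ∈ D) (j : J) {y y' : E} (hy : y ∈ K q)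
    (hy' : y' ∈ K q) :
    |g.G j y - g.G j y'| ≤ ∑ x : C.I q with C.col q x = j, |c q x y - c q x y'| := by
  rw [H.PF q hq j y hy, H.PF q hq j y' hy']
  have h1 := prod_sub_le (Finset.univ.filter fun x : C.I q => C.col q x = j)
    (fun x => -2 * c q x y) (fun x => -2 * c q x y')
    (fun x _ => abs_two_le (H.cm q hq x y hy)) (fun x _ => abs_two_le (H.cm q hq x y' hy'))
  have h2 : ∑ x : C.I q with C.col q x = j, |(-2 * c q x y) - (-2 * c q x y')|
      = 2 * ∑ x : C.I q with C.col q x = j, |c q x y - c q x y'| := by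
    rw [Finset.mul_sum]
    refine Finset.sum_congr rfl fun x _ => ?_
    have : (-2 * c q x y) - (-2 * c q x y') = -2 * (c q x y - c q x y') := by ring
    rw [this, abs_mul]
    norm_num
  have h3 : |sg (C.Lab j q) / 2| = 1 / 2 := by
    rcases z2 (C.Lab j q) with h | h <;> rw [h] <;> simp [abs_div]
  have e : ∀ a b s : ℝ, 1 / 2 - s * a - (1 / 2 - s * b) = -(s * (a - b)) := fun a b s => by ring
  rw [e, abs_neg, abs_mul, h3]
  rw [h2] at h1
  linarith

open Classical in
/-- one family -/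
theorem merge_G_sub_sum (H : Inv C K D g P c) (hfin : ∀ a, {j | C.fam j = a}.Finite) {q : Q}
    (hq : q ∈ D) (a : Fam) {y y' : E} (hy : y ∈ K q) (hy' : y' ∈ K q) :
    |(merge hfin g).G a y - (merge hfin g).G a y'| ≤
      ∑ x : C.I q with C.fam (C.col q x) = a, |c q x y - c q x y'| := by
  rw [merge_G, merge_G, ← Finset.sum_sub_distrib]
  refine (Finset.abs_sum_le_sum_abs _ _).trans ?_
  refine (Finset.sum_le_sum fun j _ => G_sub H hq j hy hy').trans ?_
  rw [← Finset.sum_biUnion]
  · refine le_of_eq (Finset.sum_congr ?_ fun _ _ => rfl)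
    ext x
    simp only [Finset.mem_biUnion, Finset.mem_filter, Finset.mem_univ, true_and, mem_sh]
    constructor
    · rintro ⟨j, hj, rfl⟩; exact hj
    · intro h; exact ⟨_, h, rfl⟩
  · intro j _ j' _ hne
    simp only [Function.onFun]
    rw [Finset.disjoint_left]
    intro x hx hx'
    rw [Finset.mem_filter] at hx hx'
    exact hne (hx.2.symm.trans hx'.2)

/-- **one family crosses one level per piece** -/
theorem merge_G_sub (H : Inv C K D g P c) (hfin : ∀ a, {j | C.fam j = a}.Finite) {q : Q}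
    (hq : q ∈ D) (a : Fam) {y y' : E} (hy : y ∈ K q) (hy' : y' ∈ K q) :
    |(merge hfin g).G a y - (merge hfin g).G a y'| ≤ nP C q a := by
  classical
  refine (merge_G_sub_sum H hfin hq a hy hy').trans ?_
  unfold nP
  rw [Finset.card_eq_sum_ones, Nat.cast_sum]
  refine Finset.sum_le_sum fun x _ => ?_
  have h1 := H.cm q hq x y hy
  have h2 := H.cm q hq x y' hy'
  rw [Nat.cast_one, abs_le]
  constructor <;> linarith [h1.1, h1.2, h2.1, h2.2]

/-- the label coordinate -/
noncomputable def uu {fam : J → Fam} (hfin : ∀ a, {j | fam j = a}.Finite) (g : Gd E J) (z : E)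
    (a : Fam) : ℝ := (merge hfin g).G a z / mm hfin a

theorem uu_eq_lv {fam : J → Fam} (hfin : ∀ a, {j | fam j = a}.Finite) (g : Gd E J) (z : E) :
    uu hfin g z = lv (mm hfin) (fun a => (merge hfin g).G a z) := rfl

theorem uu_sub (H : Inv C K D g P c) (hfin : ∀ a, {j | C.fam j = a}.Finite) {q : Q}
    (hq : q ∈ D) (a : Fam) {y y' : E} (hy : y ∈ K q) (hy' : y' ∈ K q) :
    |uu hfin g y a - uu hfin g y' a| ≤ nP C q a / mm hfin a := by
  unfold uu
  rw [← sub_div, abs_div, Nat.abs_cast]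
  exact div_le_div_of_nonneg_right (merge_G_sub H hfin hq a hy hy') (Nat.cast_nonneg _)

/-- along a path of cells -/
theorem uu_path (H : Inv C K D g P c) (hfin : ∀ a, {j | C.fam j = a}.Finite) (a : Fam)
    (q : ℕ → Q) (y : ℕ → E) (n : ℕ) (hq : ∀ i < n, q i ∈ D) (hy : ∀ i < n, y i ∈ K (q i))
    (hy' : ∀ i < n, y (i + 1) ∈ K (q i)) :
    |uu hfin g (y 0) a - uu hfin g (y n) a| ≤ (∑ i ∈ Finset.range n, (nP C (q i) a : ℝ)) /
      mm hfin a := by
  induction n with
  | zero => simp
  | succ n ih =>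
    have h1 := ih (fun i hi => hq i (by omega)) (fun i hi => hy i (by omega))
      (fun i hi => hy' i (by omega))
    have h2 := uu_sub H hfin (hq n (by omega)) a (hy n (by omega)) (hy' n (by omega))
    rw [Finset.sum_range_succ, add_div]
    have e : uu hfin g (y 0) a - uu hfin g (y (n + 1)) a =
        (uu hfin g (y 0) a - uu hfin g (y n) a) + (uu hfin g (y n) a - uu hfin g (y (n + 1)) a) := by
      ring
    rw [e]
    exact (abs_add_le _ _).trans (add_le_add h1 h2)

theorem uu_nonneg (H : Inv C K D g P c) (hfin : ∀ a, {j | C.fam j = a}.Finite) {q : Q}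
    (hq : q ∈ D) (a : Fam) {z : E} (hz : z ∈ K q) : 0 ≤ uu hfin g z a :=
  div_nonneg (merge_G_nonneg H hfin hq a hz) (Nat.cast_nonneg _)

theorem uu_le_one (H : Inv C K D g P c) (hfin : ∀ a, {j | C.fam j = a}.Finite) {q : Q}
    (hq : q ∈ D) (a : Fam) {z : E} (hz : z ∈ K q) : uu hfin g z a ≤ 1 :=
  div_le_one_of_le₀ (merge_G_le H hfin hq a hz) (Nat.cast_nonneg _)

/-- **an inactive family, outside: exact label `0` on the whole cell** -/
theorem uu_zero (H : Inv C K D g P c) (hfin : ∀ a, {j | C.fam j = a}.Finite) {q : Q}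
    (hq : q ∈ D) {a : Fam} (ha : ∀ x : C.I q, C.fam (C.col q x) ≠ a)
    (h0 : ∀ j, C.fam j = a → C.Lab j q = 0) {z : E} (hz : z ∈ K q) : uu hfin g z a = 0 := by
  unfold uu
  rw [merge_inact H hfin hq ha hz]
  have h3 : ∑ j ∈ sh hfin a, val (C.Lab j q) = 0 :=
    Finset.sum_eq_zero fun j hj => by rw [h0 j ((mem_sh hfin).1 hj), val_zero]
  rw [h3, zero_div]

/-- **an inactive family, inside: exact label `1` on the whole cell** -/
theorem uu_one (H : Inv C K D g P c) (hfin : ∀ a, {j | C.fam j = a}.Finite) {q : Q}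
    (hq : q ∈ D) {a : Fam} (ha : ∀ x : C.I q, C.fam (C.col q x) ≠ a)
    (h1 : ∀ j, C.fam j = a → C.Lab j q = 1) (hm : 0 < mm hfin a) {z : E} (hz : z ∈ K q) :
    uu hfin g z a = 1 := by
  unfold uu
  rw [merge_inact H hfin hq ha hz]
  have h4 : ∑ j ∈ sh hfin a, val (C.Lab j q) = mm hfin a := by
    rw [Finset.sum_congr rfl fun j hj => by rw [h1 j ((mem_sh hfin).1 hj), val_one]]
    unfold mm
    simp
  rw [h4, div_self]
  exact_mod_cast hm.ne'

variable {E' : Type*} [NormedAddCommGroup E'] [NormedSpace ℝ E'] {Pf : Fam → Set E'}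

/-- the exact families of (K4) -/
theorem Ex.uu_zero (H : Inv C K D g P c) (hfin : ∀ a, {j | C.fam j = a}.Finite) {q : Q}
    (hq : q ∈ D) {y : Fam → ℝ} (hy : Ex C Pf q y) {a : Fam} (ha : y a = 0) {z : E}
    (hz : z ∈ K q) : uu hfin g z a = 0 :=
  On_441.uu_zero H hfin hq (hy.zero a ha).1 (hy.zero a ha).2 hz

theorem Ex.uu_one (H : Inv C K D g P c) (hfin : ∀ a, {j | C.fam j = a}.Finite) {q : Q}
    (hq : q ∈ D) {y : Fam → ℝ} (hy : Ex C Pf q y) {a : Fam} (ha : y a = 1)
    (hm : 0 < mm hfin a) {z : E} (hz : z ∈ K q) : uu hfin g z a = 1 :=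
  On_441.uu_one H hfin hq (hy.one a ha).1 (hy.one a ha).2 hm hz

/-- no exact family has pieces in the cell -/
theorem Ex.nP_zero {q : Q} {y : Fam → ℝ} (hy : Ex C Pf q y) {a : Fam} (ha : y a = 0 ∨ y a = 1) :
    nP C q a = 0 := by
  classical
  unfold nP
  rw [Finset.card_eq_zero, Finset.filter_eq_empty_iff]
  intro x _
  rcases ha with ha | ha
  · exact (hy.zero a ha).1 x
  · exact (hy.one a ha).1 x

/-- **values in the grid complex** -/
theorem G_memG2 (H : Inv C K D g P c) (hfin : ∀ a, {j | C.fam j = a}.Finite)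
    (hm : ∀ a, 0 < mm hfin a) {q : Q} (hq : q ∈ D) {z : E} (hz : z ∈ K q) {y : Fam → ℝ}
    (hy : Ex C Pf q y) : (fun a => (merge hfin g).G a z) ∈ G2 Pf (mm hfin) := by
  obtain ⟨b, -, -, h⟩ := exists_box H hfin hq hz hy
  exact b.bx_sub hm h

/-- **values in 582's complex** -/
theorem uu_memK2 (H : Inv C K D g P c) (hfin : ∀ a, {j | C.fam j = a}.Finite)
    (hm : ∀ a, 0 < mm hfin a) {q : Q} (hq : q ∈ D) {z : E} (hz : z ∈ K q) {y : Fam → ℝ}
    (hy : Ex C Pf q y) : uu hfin g z ∈ K2 Pf :=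
  G_memG2 H hfin hm hq hz hy

theorem uu_memK (H : Inv C K D g P c) (hfin : ∀ a, {j | C.fam j = a}.Finite)
    (hm : ∀ a, 0 < mm hfin a) {q : Q} (hq : q ∈ D) {z : E} (hz : z ∈ K q) {y : Fam → ℝ}
    (hy : Ex C Pf q y) : uu hfin g z ∈ Brk1_582.K Pf :=
  (uu_memK2 H hfin hm hq hz hy).1

end Crest.Agent.R096.On_441
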