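import Crest.Agent.R096.At3_241
import Crest.Agent.R096.As6_241
import Crest.Agent.R096.Xq8_537
import Crest.Agent.R096.On1_441

/-!
# R096 (row 96), ARR-INST part 4 (helper241): the tiny core from the mesh

* `trnOn_below` : restriction to the complex of the proper faces of a cell;
* `exists_Th_mesh` : the mesh structure on `S = bd K_c` extends to an exact structure of `K_c`:
  inputs `sq` (one point over every square, `sq_of`) and `circ` (one circle of every sheet);
* `exists_Th_mesh'` : the same with 778's chains.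
-/

set_option autoImplicit false
set_option linter.unusedSectionVars false
set_option linter.unusedVariables false
set_option linter.deprecated false

open Set Metric Topology Module
open scoped Classical

namespace Crest.Agent.R096.At_241

open Crest.Agent.R096.Ce_537 Crest.Agent.R096.Bd_416 Crest.Agent.R096.Mg_441
  Crest.Agent.R096.Xp_537 Crest.Agent.R096.Grd_714
open Crest.Agent.R096.Ar_241 (dirW cod Exact TopC Tr0 CoreData)
open Crest.Agent.R096.As_241 (EdgeData below bdc exists_Th trn_below balls_below)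
open Crest.Agent.R096.Shp_334 (half_merge exists_num OnMesh)
open Crest.Agent.R096.Brk1_582 (Foam fc)
open Crest.Agent.R096.Arc_422 (Chn)
open Crest.Agent.R096.Arc_778 (SqD TileG EdgeG Zer Gam)

section below

variable {E : Type*} [NormedAddCommGroup E] [NormedSpace ℝ E]
  {E' : Type*} [NormedAddCommGroup E'] [NormedSpace ℝ E']
  {Q : Type*} [PartialOrder Q] {Λ : Set E} {C : CC Λ Q} {c : Q} {Z : Set E'} {G : E' → E}
  {top : E' → Q} {tr : E' → E → E'}

/-- the top cell as a proper face of `c` -/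
noncomputable def tpb (q0 : {q : Q // q < c}) (top : E' → Q) (x : E') : {q : Q // q < c} :=
  if h : top x < c then ⟨top x, h⟩ else q0

lemma tpb_val {q0 : {q : Q // q < c}} {x : E'} (h : top x < c) : (tpb q0 top x).1 = top x := by
  unfold tpb; rw [dif_pos h]

/-- **restriction to the complex of the proper faces of `c`** -/
theorem trnOn_below (h : TrnOn Z C G top tr) (hlt : ∀ x ∈ Z, top x < c)
    (q0 : {q : Q // q < c}) : TrnOn Z (below C c) G (tpb q0 top) tr := by
  have hv : ∀ x ∈ Z, (tpb q0 top x).1 = top x := fun x hx => tpb_val (hlt x hx)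
  have hcell : ∀ x ∈ Z, (below C c).cell (tpb q0 top x) = C.cell (top x) := fun x hx => by
    show C.cell (tpb q0 top x).1 = _
    rw [hv x hx]
  have hset : ∀ q : {q : Q // q < c}, {x | x ∈ Z ∧ q ≤ tpb q0 top x ∧ G x ∈ (below C c).cell q} =
      {x | x ∈ Z ∧ q.1 ≤ top x ∧ G x ∈ C.cell q.1} := fun q => by
    ext x
    simp only [mem_setOf_eq]
    refine and_congr_right fun hx => ?_
    have : q ≤ tpb q0 top x ↔ q.1 ≤ top x := by
      rw [← hv x hx]; exact Iff.rfl
    rw [this]; exact Iff.rfl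
  refine ⟨fun x hx => ?_, fun x hx t ht => ?_, fun x hx t ht => ?_, fun x hx t ht => ?_,
    h.tr_self, fun x hx t ht s hs => ?_, fun q => ?_, fun q => ?_, fun q => h.pltr q.1⟩
  · rw [hcell x hx]; exact h.G_mem x hx
  · rw [hcell x hx] at ht; exact h.tr_mem x hx t ht
  · rw [hcell x hx] at ht; exact h.tr_G x hx t ht
  · rw [hcell x hx] at ht
    show (tpb q0 top x).1 ≤ (tpb q0 top (tr x t)).1
    rw [hv x hx, hv _ (h.tr_mem x hx t ht)]
    exact h.tr_top x hx t ht
  · rw [hcell x hx] at ht hs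
    exact h.tr_tr x hx t ht s hs
  · rw [hset q]; exact h.plG q.1
  · rw [hset q]; exact h.plc q.1

end below

variable {Q : Type} [PartialOrder Q] {dim : Q → ℕ} {J Fam : Type} {Cc : Cmb Q dim J Fam}
variable {E' : Type*} [NormedAddCommGroup E'] [NormedSpace ℝ E'] [FiniteDimensional ℝ E']
variable {K : Q → Set E'} {g : Gd E' J} {P : ∀ q, Cc.I q → Set E'} {c : ∀ q, Cc.I q → E' → ℝ}
variable {E : Type*} [NormedAddCommGroup E] [NormedSpace ℝ E] [FiniteDimensional ℝ E]
  {Λ : Set E} {hfin : ∀ a, {j | Cc.fam j = a}.Finite} {Pf : Fam → Set E} {b : Set Fam → E}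
  {C : CC Λ (Cel Pf (Mg_441.mm hfin))} {T : (Fam → ℝ) → E} {co : E → Fam → ℝ}
  {S K0 : Set E'} {ℓ : J → ℝ}

/-- **the exact structure of a tiny core from the mesh structure on its boundary** -/
theorem exists_Th_mesh (hΛ : IsOpen Λ) (hE3 : finrank ℝ E = 3) (F : Foam Λ Pf b 4)
    (hm : ∀ a, 0 < Mg_441.mm hfin a) (H : Inv Cc K univ g P c) (OK : GridOK C T co)
    (hO : Ord Cc ℓ) (hℓ : ∀ j j', j ≠ j' → Cc.fam j = Cc.fam j' → ℓ j ≠ ℓ j')
    (q0 : Cel Pf (Mg_441.mm hfin)) {c0 : Fam} (hK0 : IsBall 3 K0 S)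
    {ι : Type} [Finite ι] (Ks : ι → Q) (hS : S = ⋃ i, K (Ks i))
    (hcl : ∀ i, IsClosed (K (Ks i)))
    (hx : ∀ i, ∃ y, Ex Cc Pf (Ks i) y ∧ y c0 = 0)
    (circ : ∀ j, Cc.fam j ≠ c0 → (Pf (Cc.fam j) ∩ Pf c0).Nonempty →
      Nonempty (PLEquiv (sph 2) {x | x ∈ S ∧ g.G j x = 1/2}))
    (sq : ∀ q : Gx Pf (Mg_441.mm hfin), q.free.ncard = 2 → q.hi c0 = 0 →
      ∃ x, {z | z ∈ S ∧ gG T (merge hfin g) z = C.b (.gr q)} = {x})
    {κ θ : ℝ} (hκ : 0 < κ ∧ κ < 1) (h0 : 0 ≤ θ) (hθ : θ < 1) :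
    ∃ Th : PLEquiv K0 (coreF C κ (.top c0) θ),
      (∀ x ∈ K0, x ∈ S ↔ sl C κ (Th.f x) (.top c0) = θ) ∧
      ∀ x ∈ S, cG C κ Th.f x = gG T (merge hfin g) x ∧
        ctop C κ (.top c0) Th.f x = gtop hm q0 (merge hfin g) x ∧
        ∀ s ∈ C.cell (gtop hm q0 (merge hfin g) x),
          ctr C κ Th.f Th.g x s = gtr co (merge hfin g) x s := by
  set gm := merge hfin g with hgm
  have hsub : ∀ i, K (Ks i) ⊆ S := fun i => by rw [hS]; exact subset_iUnion (fun i => K (Ks i)) i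
  have hcov : ∀ x ∈ S, ∃ i, x ∈ K (Ks i) := fun x hx => by rw [hS] at hx; exact mem_iUnion.1 hx
  have his : ∀ i, gm.Is (K (Ks i)) := fun i => inv_merge_is H hfin (mem_univ _)
  choose y hy hy0 using hx
  have hG2 : ∀ i, ∀ x ∈ K (Ks i), (fun a => gm.G a x) ∈ G2 Pf (Mg_441.mm hfin) := fun i x hx =>
    On_441.G_memG2 H hfin hm (mem_univ _) hx (hy i)
  have hfc : ∀ i, (cols gm (Mg_441.mm hfin) (K (Ks i))).Finite := by
    intro i
    have h1 : {a | y i a < 1}.Finite := F.K_finite (hy i).mem.1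
    refine h1.subset ?_
    rintro a ⟨x, hx, hne⟩
    by_contra hcon
    apply hne
    have h2 : ¬ y i a < 1 := hcon
    have h3 : y i a = 1 := le_antisymm ((hy i).mem.1.1 a).2 (not_lt.1 h2)
    have h4 := (hy i).one a h3
    obtain ⟨e1, e2⟩ := box_one H hfin (mem_univ _) hx h4.1 h4.2
    have hbx := G_mem_box H hfin (mem_univ _) hx a
    rw [e1, e2] at hbx
    exact le_antisymm hbx.2 hbx.1
  have hfB : ∀ i, ∀ x ∈ K (Ks i), {a | x ∈ gm.B a}.Finite := fun i x hx =>
    fin_B (his i) (hfc i) hx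
  have hon : ∀ i, TrnOn (K (Ks i)) C (gG T gm) (gtop hm q0 gm) (gtr co gm) := fun i =>
    mesh_trnOn OK hm q0 (his i) (hfB i) (hG2 i)
  -- the top cells are proper faces of the core cell
  have hlt : ∀ x ∈ S, gtop hm q0 gm x < .top c0 := by
    intro x hx
    obtain ⟨i, hi⟩ := hcov x hx
    obtain ⟨r, h1, h2, h3, h4⟩ := gtop_spec (hm := hm) (q0 := q0) (his i) (hfB i) (hG2 i) hi
    rw [h1]
    rw [Cel.gr_lt_top]
    have hz := (hy i).zero c0 (hy0 i)
    obtain ⟨e1, e2⟩ := box_zero H hfin (mem_univ _) hi hz.1 hz.2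
    have hB : x ∉ gm.B c0 := notMem_band H hfin (mem_univ _) hi hz.1
    have hbx := G_mem_box H hfin (mem_univ _) hi c0
    rw [e1, e2] at hbx
    have h5 : ((r.hi c0 : ℕ) : ℝ) = ((0 : ℕ) : ℝ) := by
      rw [(h4 c0 hB).2]; exact le_antisymm hbx.2 hbx.1
    exact_mod_cast h5
  have hSne : S.Nonempty := by
    obtain ⟨e, he⟩ := hK0
    rw [← he]
    exact ⟨_, mem_image_of_mem _ (show (fun _ => (1:ℝ)) ∈ sph 3 by
      rw [sph, mem_sphere, dist_zero_right, pi_norm_const]; simp)⟩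
  obtain ⟨x0, hx0⟩ := hSne
  have hne : Nonempty ι := ⟨(hcov x0 hx0).choose⟩
  let q1 : {q : Cel Pf (Mg_441.mm hfin) // q < .top c0} := ⟨_, hlt x0 hx0⟩
  have hScpt : IsCompact S := hK0.isCompact_bdry
  -- the pieces
  have hpc : Pcs S (below C (.top c0)) (fun i => K (Ks i)) (fun _ => gG T gm)
      (fun _ => tpb q1 (gtop hm q0 gm)) (fun _ => gtr co gm) :=
    { closed := hcl
      sub := hsub
      cov := hcov
      on := fun i => trnOn_below (hon i) (fun x hx => hlt x (hsub i hx)) q1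
      cont := fun i => (plOn_gG OK hm (his i) (hcl i) (hfc i) (hG2 i)).1
      agG := fun _ _ _ _ _ => rfl
      agT := fun _ _ _ _ _ => rfl
      agt := fun _ _ _ _ _ _ _ => rfl
      lf := fun x hx => ⟨univ, Filter.univ_mem, Set.toFinite _⟩
      prop := fun q => ⟨S, Subset.rfl, hScpt, fun i x hx _ => hsub i hx⟩ }
  set X := hpc.tr0 with hX
  have hGe : ∀ x ∈ S, gluG (fun i => K (Ks i)) (fun _ : ι => gG T gm) x = gG T gm x := fun x hx => rfl
  have htop : ∀ x, X.top x = tpb q1 (gtop hm q0 gm) x := fun x => rfl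
  have hOn : OnS hfin Pf K g T (gG T gm) S := by
    refine OnS.of_ex H (fun z hz => ?_) fun z _ => rfl
    obtain ⟨i, hi⟩ := hcov z hz
    exact ⟨Ks i, y i, hi, hy i⟩
  have hmax : ∀ ρ : Cel Pf (Mg_441.mm hfin), Cel.top c0 ≤ ρ → ρ = .top c0 := top_max c0
  have hSph : Nonempty (PLEquiv (sph 3) S) := Glu_422.sphere_of_ball hK0
  have hball := balls_below hΛ hE3 hmax X hSph hpc.contOn
    (fun q hq => by
      obtain ⟨q, hqc⟩ := q
      cases q with
      | top d => exact absurd hqc Cel.not_top_lt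
      | gr q =>
        have h1 := cod_gr OK hΛ hE3 q
        have h2 : cod C (.gr q) = 1 := hq
        rw [h2] at h1
        obtain ⟨x, hx⟩ := sq q (by omega) (Cel.gr_lt_top.1 hqc)
        exact ⟨x, hx⟩)
    (fun q hq => edgeData hΛ hE3 OK hOn H hO hℓ circ hm hq)
  obtain ⟨Th, t1, -, t3⟩ := exists_Th (trn_below X hball) hΛ hmax hκ h0 hθ (by rw [hE3]; exact hK0)
  refine ⟨Th, t1, fun x hx => ?_⟩
  obtain ⟨a1, a2, a3⟩ := t3 x hx
  have e1 : ((trn_below X hball).top x).1 = gtop hm q0 gm x := tpb_val (hlt x hx)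
  rw [e1] at a2 a3
  exact ⟨a1, a2, a3⟩

end Crest.Agent.R096.At_241
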