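import Mathlib
import Crest.Agent.R96.Nu8_199
import Crest.Agent.R096.Mrg2_715

/-!
# R096 (row 96), helper487.  Subcomplexes of a complex of 537, `tile_piece` for the cells of a tiling
which are not inside the giant cores (199 #10196 (L1)).

* `cplx_down` : the cells of a down-closed set form a `Cplx` of their union.
* `DK T Kc` : the cells of `T` which miss the interiors of the sets `Kc k`; `cplx_DK` : they form a
  `Cplx` of `Om \ ⋃ interior (Kc k)`; `tile_mem_DK` : the tiles not inside a core are in `DK`.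
* `tile_piece_D`, `tile_fam_D` : 199's `tile_piece_T`, `tile_fam_T` for the cells of any down-closed
  set of cells of a tiling.
-/

set_option autoImplicit false
set_option linter.unusedSectionVars false

open Set Metric Filter Topology

namespace Crest.Agent.R096.Csub_487

open Crest.Agent.R096.Ce_537 Crest.Agent.R096.Bd_416 Crest.Agent.R096.Msh_715
open Crest.Agent.R96.Nu3_199 Crest.Agent.R96.Nu5_199 Crest.Agent.R96.Nu6_199
open Crest.Agent.R96.Nu7_199 Crest.Agent.R96.Nu8_199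

open scoped Classical

noncomputable section

section Down

variable {E : Type*} [NormedAddCommGroup E] [NormedSpace ℝ E]
variable {Ω Ω' : Set E} {I : Type*} [PartialOrder I] {dim : I → ℕ} {K : I → Set E}

/-- **SUBCOMPLEX**: the cells of a down-closed set form a complex of their union. -/
theorem cplx_down (X : Cplx Ω I dim K) {D : Set I} (hD : ∀ q ∈ D, ∀ r, r ≤ q → r ∈ D)
    (hΩ : Ω' = ⋃ q ∈ D, K q) :
    Cplx Ω' {q // q ∈ D} (fun q => dim q.1) (fun q => K q.1) where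
  isBall q := by
    have h : (⋃ j ∈ {j : {q // q ∈ D} | j < q}, K j.1) = ⋃ j ∈ {j : I | j < q.1}, K j := by
      ext x
      simp only [mem_iUnion, mem_ofPred_eq, exists_prop]
      constructor
      · rintro ⟨j, hj, hx⟩
        exact ⟨j.1, hj, hx⟩
      · rintro ⟨j, hj, hx⟩
        exact ⟨⟨j, hD q.1 q.2 j hj.le⟩, hj, hx⟩
    rw [h]
    exact X.isBall q.1
  mono q j h := X.mono q.1 j.1 h
  disj q j x h1 h2 := by
    have key : ∀ q : {q // q ∈ D}, Opn (fun q : {q // q ∈ D} => K q.1) q x → Opn K q.1 x :=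
      fun q h => ⟨h.1, fun j hj => h.2 ⟨j, hD q.1 q.2 j hj.le⟩ hj⟩
    exact Subtype.ext (X.disj q.1 j.1 x (key q h1) (key j h2))
  sub q := by
    rw [hΩ]
    exact subset_biUnion_of_mem q.2
  cover x hx := by
    rw [hΩ] at hx
    simp only [mem_iUnion, exists_prop] at hx
    obtain ⟨q, hq, hx⟩ := hx
    exact ⟨⟨q, hq⟩, hx⟩
  lf x hx := by
    have hx' : x ∈ Ω := by
      rw [hΩ] at hx
      simp only [mem_iUnion, exists_prop] at hx
      obtain ⟨q, hq, hx⟩ := hx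
      exact X.sub q hx
    obtain ⟨r, hr, hf⟩ := X.lf x hx'
    refine ⟨r, hr, Set.Finite.of_finite_image (f := Subtype.val) (hf.subset ?_)
      Subtype.val_injective.injOn⟩
    rintro _ ⟨q, hq, rfl⟩
    exact hq

end Down

section Tile

variable {E : Type} [NormedAddCommGroup E] [NormedSpace ℝ E] [FiniteDimensional ℝ E]
variable {Om : Set E} {ι : Type} {κ : Type*} {T : Tiling Om ι}

/-- the cells which miss the interiors of the cores -/
def DK (T : Tiling Om ι) (Kc : κ → Set E) : Set T.Cell :=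
  {c | ∀ k, Disjoint c.set (interior (Kc k))}

variable {Kc : κ → Set E}

theorem DK_down : ∀ q ∈ DK T Kc, ∀ r, r ≤ q → r ∈ DK T Kc := fun _ hq _ hr k =>
  (hq k).mono_left (Tiling.Cell.le_def.1 hr)

/-- a closed cell through a point off the interior of a core misses this interior -/
theorem cc_disj {K : Set E} (hcl : IsClosed K) (hs : ∀ x ∈ frontier K, T.cc x ⊆ frontier K)
    {x : E} (hx : x ∈ Om) (hxK : x ∉ interior K) : Disjoint (T.cc x) (interior K) := by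
  rw [Set.disjoint_left]
  intro y hy hyK
  apply hxK
  obtain ⟨r, hr, hO, hb⟩ := T.exists_ball hx
  refine interior_maximal ?_ isOpen_ball (mem_ball_self hr)
  intro w hw
  obtain ⟨q, hq⟩ := T.at_nonempty (hO hw)
  have hqx : q ∈ T.at_ x := hb w hw hq
  have hyq : y ∈ P (T.H q) := T.cc_sub_tile hqx hy
  exact T.sub_of_mem_interior hcl hs hyq hyK hq

/-- **THE COMPLEX OUTSIDE THE CORES** -/
theorem cplx_DK (hcl : ∀ k, IsClosed (Kc k))
    (hs : ∀ k, ∀ x ∈ frontier (Kc k), T.cc x ⊆ frontier (Kc k)) :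
    Cplx (Om \ ⋃ k, interior (Kc k)) {q // q ∈ DK T Kc} (fun q => q.1.dim) (fun q => q.1.set) := by
  refine cplx_down T.cplx DK_down ?_
  ext x
  simp only [Set.mem_sdiff, mem_iUnion, not_exists, exists_prop]
  constructor
  · rintro ⟨hx, hxK⟩
    refine ⟨T.cl hx, fun k => ?_, ?_⟩
    · rw [T.cl_set hx]
      exact cc_disj (hcl k) (hs k) hx (hxK k)
    · rw [T.cl_set hx]
      exact T.self_mem_cc x
  · rintro ⟨q, hq, hx⟩
    exact ⟨T.cplx.sub q hx, fun k hk => Set.disjoint_left.1 (hq k) hx hk⟩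

/-- the tiles which are not inside a core are cells of `DK` -/
theorem tile_mem_DK (hcl : ∀ k, IsClosed (Kc k))
    (hs : ∀ k, ∀ x ∈ frontier (Kc k), T.cc x ⊆ frontier (Kc k)) {i : ι}
    (hi : ∀ k, ¬ P (T.H i) ⊆ Kc k) {q : T.Cell} (hq : q.set = P (T.H i)) : q ∈ DK T Kc := by
  intro k
  rw [hq]
  rcases T.tile_dich (hcl k) (hs k) i with h | h
  · exact absurd h.1 (hi k)
  · exact h.2.2

/-- a tile of `DK` is not inside a core -/
theorem not_sub_of_mem_DK {i : ι} {q : T.Cell} (hq : q.set = P (T.H i)) (h : q ∈ DK T Kc) (k : κ) :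
    ¬ P (T.H i) ⊆ Kc k := by
  intro hP
  obtain ⟨z, hz⟩ := T.ne i
  have h1 : z ∈ interior (Kc k) := interior_maximal ((I_sub_P _).trans hP) (isOpen_I _) hz
  exact Set.disjoint_left.1 (h k) (hq ▸ I_sub_P _ hz) h1

/-- the cells of the frontier of a core are cells of `DK` -/
theorem frontier_mem_DK (hcl : ∀ k, IsClosed (Kc k))
    (hdis : ∀ k l, k ≠ l → Disjoint (Kc k) (Kc l)) {k : κ} {c : T.Cell}
    (hc : c.set ⊆ frontier (Kc k)) : c ∈ DK T Kc := by
  intro l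
  by_cases hkl : k = l
  · subst hkl
    exact disjoint_interior_frontier.symm.mono_left hc
  · exact (hdis k l hkl).mono (hc.trans (hcl k).frontier_subset) interior_subset

variable {J Fam : Type} {D : Set T.Cell}
  {C : Cmb {q // q ∈ D} (fun c => c.1.dim) J Fam} {R : Set {q // q ∈ D}} {K₀ ε : ℝ}
  {b : ℕ → ℝ} {wt : J → ℝ} {δ : {q // q ∈ D} → ℝ} {g0 : Gd E J}
  {P0 : ∀ q, C.I q → Set E} {c0 : ∀ q, C.I q → E → ℝ} {Ω' : Set E}

/-- **THE PIECES OF A TILE IN THE FRAME `B`, for the cells of a down-closed set `D`** (for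
`D = DK T Kc`: the complex `X = cplx_DK`). -/
theorem tile_piece_D (X : Cplx Ω' {q // q ∈ D} (fun c => c.1.dim) (fun c => c.1.set))
    (h2 : 2 ≤ Module.finrank ℝ E) (hw : ∀ j, 0 < wt j) (hb0 : ∀ n, 0 < b n)
    (hK : 0 ≤ K₀) (hδ : ∀ q, 0 < δ q)
    (hδ2 : ∀ q, 0 < WE X C wt q → ∀ σ ≤ q, δ σ ≤ WE X C wt q)
    {i : ι} {q : {q // q ∈ D}} (hqi : q.1.set = P (T.H i)) (hqd : q.1.dim = Module.finrank ℝ E)
    (hne : ∀ σ ≤ q, 2 ≤ σ.1.dim → ∀ x : C.I σ, ∃ e, ∃ h : e < σ, e.1.dim = 1 ∧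
      ∃ y : C.I e, C.up h y = x)
    {Spec : ∀ q : {q // q ∈ D}, Lam q.1.set (C.I q) → Prop} {g : Gd E J} {P : C.I q → Set E}
    {c : C.I q → E → ℝ}
    (hT : Trk C (fun c : {q // q ∈ D} => c.1.set) R g0 P0 c0 b Spec (fun _ => FrA E) wt
      (LamS X C K₀ ε b wt δ) (Module.finrank ℝ E + 1) q g P c)
    (B : E ≃ᵃ[ℝ] E) (x : C.I q) {z : E} (hz : z ∈ q.1.set) :
    LB B (2 * C𝒦 K₀ ε b (Module.finrank ℝ E) (CfgB T i B) * WE X C wt q / wt (C.col q x))
      (c x) q.1.set z := by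
  refine tile_piece (dim := fun c : {q // q ∈ D} => c.1.dim)
    (K := fun c : {q // q ∈ D} => c.1.set) X hw hb0 hK
    hδ hδ2 (by rw [hqd]; exact h2) hqd.le (finite_CfgB T i B) (fun σ hσ => ?_)
    (fun σ _ σ' _ h => Subtype.ext (Tiling.Cell.ext h)) hne hT x hz
  have hσ' : σ.1 ≤ q.1 := hσ
  exact mem_image_of_mem _ (mem_Cfg (hqi ▸ Tiling.Cell.le_def.1 hσ'))

/-- **THE FAMILIES OF A TILE IN THE FRAME `B`, for the cells of a down-closed set `D`** -/
theorem tile_fam_D (X : Cplx Ω' {q // q ∈ D} (fun c => c.1.dim) (fun c => c.1.set))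
    (h2 : 2 ≤ Module.finrank ℝ E) (hw : ∀ j, 0 < wt j) (hb0 : ∀ n, 0 < b n)
    (hK : 0 ≤ K₀) (hδ : ∀ q, 0 < δ q)
    (hδ2 : ∀ q, 0 < WE X C wt q → ∀ σ ≤ q, δ σ ≤ WE X C wt q)
    {i : ι} {q : {q // q ∈ D}} (hqi : q.1.set = P (T.H i)) (hqd : q.1.dim = Module.finrank ℝ E)
    (hne : ∀ σ ≤ q, 2 ≤ σ.1.dim → ∀ x : C.I σ, ∃ e, ∃ h : e < σ, e.1.dim = 1 ∧
      ∃ y : C.I e, C.up h y = x)
    {Spec : ∀ q : {q // q ∈ D}, Lam q.1.set (C.I q) → Prop} {D' : Set {q // q ∈ D}} {g : Gd E J}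
    {P : ∀ q, C.I q → Set E} {c : ∀ q, C.I q → E → ℝ}
    (H : Inv C (fun c : {q // q ∈ D} => c.1.set) D' g P c) (hqD : q ∈ D')
    (hT : Trk C (fun c : {q // q ∈ D} => c.1.set) R g0 P0 c0 b Spec (fun _ => FrA E) wt
      (LamS X C K₀ ε b wt δ) (Module.finrank ℝ E + 1) q g (P q) (c q))
    (S : Finset J) (hS : ∀ j ∈ S, ∀ j' ∈ S, C.fam j = C.fam j') (B : E ≃ᵃ[ℝ] E) {z : E}
    (hz : z ∈ q.1.set) :
    LB B (2 * C𝒦 K₀ ε b (Module.finrank ℝ E) (CfgB T i B) * WE X C wt q)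
      (fun w => ∑ j ∈ S, wt j * g.G j w) q.1.set z := by
  refine tile_fam (dim := fun c : {q // q ∈ D} => c.1.dim)
    (K := fun c : {q // q ∈ D} => c.1.set) X hw hb0 hK
    hδ hδ2 (by rw [hqd]; exact h2) hqd.le (finite_CfgB T i B) (fun σ hσ => ?_)
    (fun σ _ σ' _ h => Subtype.ext (Tiling.Cell.ext h)) hne H hqD hT S hS hz
  have hσ' : σ.1 ≤ q.1 := hσ
  exact mem_image_of_mem _ (mem_Cfg (hqi ▸ Tiling.Cell.le_def.1 hσ'))

end Tile

end

end Crest.Agent.R096.Csub_487
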