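import Mathlib
import Crest.Agent.R096.Csub1_487
import Crest.Agent.R096.Mrg5_715

/-!
# R096 (row 96), helper487.  A complex with extra (giant) cells (117 #10271 (2)).

* `cplx_glue` : if `X` is a complex (537) and `Kc k` are pairwise disjoint 3-balls the boundaries of
  which are unions of cells `B k q`, the cells of `X` together with the `Kc k` form a complex, for
  every index type `Q'` with `il : Q → Q'`, `ir : κ → Q'` (in particular `Q ⊕ κ`).
* `cplx_core` : the instance for a tiling: cells outside the cores and the cores themselves.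
-/

set_option autoImplicit false
set_option linter.unusedSectionVars false

open Set Metric Filter Topology Module

namespace Crest.Agent.R096.Csub_487

open Crest.Agent.R096.Ce_537 Crest.Agent.R096.Msh_715

open scoped Classical

noncomputable section

section Glue

variable {E : Type*} [NormedAddCommGroup E] [NormedSpace ℝ E]

/-- **EXTRA CELLS** -/
theorem cplx_glue {Q κ Q' : Type*} [PartialOrder Q] [PartialOrder Q'] {Ω' Ω : Set E}
    {dim : Q → ℕ} {K : Q → Set E} (X : Cplx Ω' Q dim K) (Kc : κ → Set E) (B : κ → Q → Prop)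
    {il : Q → Q'} {ir : κ → Q'} (hall : ∀ j, (∃ q, j = il q) ∨ ∃ k, j = ir k)
    (hil : ∀ q q', il q < il q' ↔ q < q') (hir : ∀ k j, ¬ ir k < j)
    (hB : ∀ q k, il q < ir k ↔ B k q)
    {dim' : Q' → ℕ} {K' : Q' → Set E} (d1 : ∀ q, dim' (il q) = dim q) {n : ℕ}
    (d2 : ∀ k, dim' (ir k) = n) (k1 : ∀ q, K' (il q) = K q) (k2 : ∀ k, K' (ir k) = Kc k)
    (ball_ : ∀ k, IsBall n (Kc k) (⋃ q ∈ {q | B k q}, K q))
    (dlt : ∀ k q, B k q → dim q < n)
    (sep : ∀ k q x, x ∈ K q → x ∈ Kc k → ∃ q', B k q' ∧ x ∈ K q')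
    (dis : ∀ k l, k ≠ l → Disjoint (Kc k) (Kc l))
    (sub1 : Ω' ⊆ Ω) (sub2 : ∀ k, Kc k ⊆ Ω) (cov : ∀ x ∈ Ω, x ∈ Ω' ∨ ∃ k, x ∈ Kc k)
    (lf : ∀ x ∈ Ω, ∃ r > 0, {q | (K q ∩ ball x r).Nonempty}.Finite ∧
      {k | (Kc k ∩ ball x r).Nonempty}.Finite) :
    Cplx Ω Q' dim' K' where
  isBall j := by
    rcases hall j with ⟨q, rfl⟩ | ⟨k, rfl⟩
    · have h : (⋃ j ∈ {j : Q' | j < il q}, K' j) = ⋃ j ∈ {j : Q | j < q}, K j := by
        ext x
        simp only [mem_iUnion, mem_ofPred_eq, exists_prop]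
        constructor
        · rintro ⟨j, hj, hx⟩
          rcases hall j with ⟨q', rfl⟩ | ⟨k, rfl⟩
          · exact ⟨q', (hil q' q).1 hj, by rwa [k1] at hx⟩
          · exact absurd hj (hir k _)
        · rintro ⟨q', hj, hx⟩
          exact ⟨il q', (hil q' q).2 hj, by rwa [k1]⟩
      rw [h, d1, k1]
      exact X.isBall q
    · have h : (⋃ j ∈ {j : Q' | j < ir k}, K' j) = ⋃ q ∈ {q | B k q}, K q := by
        ext x
        simp only [mem_iUnion, mem_ofPred_eq, exists_prop]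
        constructor
        · rintro ⟨j, hj, hx⟩
          rcases hall j with ⟨q', rfl⟩ | ⟨l, rfl⟩
          · exact ⟨q', (hB q' k).1 hj, by rwa [k1] at hx⟩
          · exact absurd hj (hir l _)
        · rintro ⟨q', hj, hx⟩
          exact ⟨il q', (hB q' k).2 hj, by rwa [k1]⟩
      rw [h, d2, k2]
      exact ball_ k
  mono j i h := by
    rcases hall i with ⟨q', rfl⟩ | ⟨l, rfl⟩
    · rcases hall j with ⟨q, rfl⟩ | ⟨k, rfl⟩
      · rw [d1, d1]
        exact X.mono _ _ ((hil _ _).1 h)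
      · rw [d1, d2]
        exact dlt k q' ((hB q' k).1 h)
    · exact absurd h (hir l _)
  disj i j x h1 h2 := by
    have key : ∀ q, Opn K' (il q) x → Opn K q x := fun q h =>
      ⟨k1 q ▸ h.1, fun j hj hx => h.2 (il j) ((hil _ _).2 hj) (by rwa [k1])⟩
    have mix : ∀ q k, Opn K' (il q) x → Opn K' (ir k) x → False := by
      intro q k h h'
      obtain ⟨q', hq', hx⟩ := sep k q x (k1 q ▸ h.1) (k2 k ▸ h'.1)
      exact h'.2 (il q') ((hB q' k).2 hq') (by rwa [k1])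
    rcases hall i with ⟨q, rfl⟩ | ⟨k, rfl⟩ <;> rcases hall j with ⟨q', rfl⟩ | ⟨l, rfl⟩
    · rw [X.disj q q' x (key q h1) (key q' h2)]
    · exact absurd (mix q l h1 h2) id
    · exact absurd (mix q' k h2 h1) id
    · by_cases hkl : k = l
      · rw [hkl]
      · exact absurd (k2 l ▸ h2.1) (Set.disjoint_left.1 (dis k l hkl) (k2 k ▸ h1.1))
  sub j := by
    rcases hall j with ⟨q, rfl⟩ | ⟨k, rfl⟩
    · rw [k1]; exact (X.sub q).trans sub1
    · rw [k2]; exact sub2 k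
  cover x hx := by
    rcases cov x hx with h | ⟨k, h⟩
    · obtain ⟨q, hq⟩ := X.cover x h
      exact ⟨il q, by rwa [k1]⟩
    · exact ⟨ir k, by rwa [k2]⟩
  lf x hx := by
    obtain ⟨r, hr, h1, h2⟩ := lf x hx
    refine ⟨r, hr, ((h1.image il).union (h2.image ir)).subset ?_⟩
    intro j hj
    rcases hall j with ⟨q, rfl⟩ | ⟨k, rfl⟩
    · left
      exact ⟨q, by simpa only [mem_ofPred_eq, k1] using hj, rfl⟩
    · right
      exact ⟨k, by simpa only [mem_ofPred_eq, k2] using hj, rfl⟩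

end Glue

section Tile

variable {E : Type} [NormedAddCommGroup E] [NormedSpace ℝ E] [FiniteDimensional ℝ E]
variable {Om : Set E} {ι : Type} {κ : Type*} {T : Tiling Om ι} {Kc : κ → Set E}

/-- the cells outside the cores are exactly the cells of the tiles outside the cores -/
theorem mem_DK_iff (hcl : ∀ k, IsClosed (Kc k))
    (hs : ∀ k, ∀ x ∈ frontier (Kc k), T.cc x ⊆ frontier (Kc k))
    (hKO : ∀ k, Kc k ⊆ Om) (hdis : ∀ k l, k ≠ l → Disjoint (Kc k) (Kc l)) {c : T.Cell} :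
    c ∈ DK T Kc ↔ ∃ i, (∀ k, ¬ P (T.H i) ⊆ Kc k) ∧ c.set ⊆ P (T.H i) := by
  constructor
  · intro hc
    by_cases h : ∃ k, c.pt ∈ Kc k
    · obtain ⟨k, hk⟩ := h
      have hfr : c.pt ∈ frontier (Kc k) := by
        rw [(hcl k).frontier_eq]
        refine ⟨hk, fun hi => ?_⟩
        have h1 : c.pt ∈ c.set := by rw [c.set_eq]; exact T.self_mem_cc _
        exact Set.disjoint_left.1 (hc k) h1 hi
      obtain ⟨i, hi, hiK⟩ := T.exists_outer (hcl k) (hKO k) hfr
      refine ⟨i, fun l hl => ?_, ?_⟩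
      · by_cases hkl : k = l
        · subst hkl; exact hiK hl
        · exact Set.disjoint_left.1 (hdis k l hkl) hk (hl hi)
      · rw [c.set_eq]
        exact T.cc_sub_tile hi
    · push Not at h
      obtain ⟨i, hi⟩ := T.at_nonempty c.pt_mem
      exact ⟨i, fun k hk => h k (hk hi), by rw [c.set_eq]; exact T.cc_sub_tile hi⟩
  · rintro ⟨i, hi, hc⟩ k
    rcases T.tile_dich (hcl k) (hs k) i with h | h
    · exact absurd h.1 (hi k)
    · exact h.2.2.mono_left hc

/-- the cells of the frontier of a core cover it -/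
theorem biUnion_frontier (hcl : ∀ k, IsClosed (Kc k))
    (hs : ∀ k, ∀ x ∈ frontier (Kc k), T.cc x ⊆ frontier (Kc k))
    (hKO : ∀ k, Kc k ⊆ Om) (hdis : ∀ k l, k ≠ l → Disjoint (Kc k) (Kc l)) (k : κ) :
    (⋃ q ∈ {q : {q // q ∈ DK T Kc} | q.1.set ⊆ frontier (Kc k)}, q.1.set) = frontier (Kc k) := by
  ext x
  simp only [mem_iUnion, mem_ofPred_eq, exists_prop]
  constructor
  · rintro ⟨q, hq, hx⟩
    exact hq hx
  · intro hx
    have hxO : x ∈ Om := hKO k ((hcl k).frontier_subset hx)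
    have h1 : (T.cl hxO).set ⊆ frontier (Kc k) := by
      rw [T.cl_set hxO]; exact hs k x hx
    refine ⟨⟨T.cl hxO, frontier_mem_DK hcl hdis h1⟩, h1, ?_⟩
    rw [T.cl_set hxO]
    exact T.self_mem_cc x

/-- only finitely many cores near a point -/
theorem lf_core (hc : ∀ k, Core (Kc k))
    (hs : ∀ k, ∀ x ∈ frontier (Kc k), T.cc x ⊆ frontier (Kc k))
    (hKO : ∀ k, Kc k ⊆ Om) (hdis : ∀ k l, k ≠ l → Disjoint (Kc k) (Kc l)) {x : E} (hx : x ∈ Om) :
    ∃ r > 0, {k | (Kc k ∩ ball x r).Nonempty}.Finite := by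
  obtain ⟨r, hr, hf⟩ := T.lf x hx
  refine ⟨r, hr, ?_⟩
  have h1 : ∀ k, (Kc k ∩ ball x r).Nonempty → ∃ q, P (T.H q) ⊆ Kc k ∧
      (P (T.H q) ∩ ball x r).Nonempty := by
    rintro k ⟨y, hy, hyb⟩
    obtain ⟨q, hq, hqK⟩ := T.exists_inner (hc k) (hKO k) (hs k) hy
    exact ⟨q, hqK, y, hq, hyb⟩
  obtain ⟨q0, -⟩ := T.cov x hx
  have : Nonempty ι := ⟨q0⟩
  choose! q hq using h1
  refine Set.Finite.of_finite_image (f := q) (hf.subset ?_) ?_
  · rintro _ ⟨k, hk, rfl⟩
    exact (hq k hk).2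
  · intro k hk l hl hkl
    by_contra hne
    obtain ⟨z, hz⟩ := T.ne (q k)
    have h2 : z ∈ Kc k := (hq k hk).1 (I_sub_P _ hz)
    have h3 : z ∈ Kc l := (hq l hl).1 (by rw [← hkl]; exact I_sub_P _ hz)
    exact Set.disjoint_left.1 (hdis k l hne) h2 h3

/-- **THE COMPLEX OF A TILING WITH GIANT CELLS** : `Q'` any index type over the cells outside the
cores and the cores (`QK` of 117). -/
theorem cplx_core (h3 : finrank ℝ E = 3) (hc : ∀ k, Core (Kc k))
    (hs : ∀ k, ∀ x ∈ frontier (Kc k), T.cc x ⊆ frontier (Kc k))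
    (hKO : ∀ k, Kc k ⊆ Om) (hdis : ∀ k l, k ≠ l → Disjoint (Kc k) (Kc l))
    (hball : ∀ k, IsBall 3 (Kc k) (frontier (Kc k)))
    {Q' : Type*} [PartialOrder Q'] {il : {q // q ∈ DK T Kc} → Q'} {ir : κ → Q'}
    (hall : ∀ j, (∃ q, j = il q) ∨ ∃ k, j = ir k)
    (hil : ∀ q q', il q < il q' ↔ q < q') (hir : ∀ k j, ¬ ir k < j)
    (hB : ∀ q k, il q < ir k ↔ q.1.set ⊆ frontier (Kc k))
    {dim' : Q' → ℕ} {K' : Q' → Set E} (d1 : ∀ q, dim' (il q) = q.1.dim)
    (d2 : ∀ k, dim' (ir k) = 3) (k1 : ∀ q, K' (il q) = q.1.set) (k2 : ∀ k, K' (ir k) = Kc k) :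
    Cplx Om Q' dim' K' := by
  have hcl : ∀ k, IsClosed (Kc k) := fun k => (hc k).closed
  refine cplx_glue (cplx_DK hcl hs) Kc (fun k q => q.1.set ⊆ frontier (Kc k)) hall hil hir hB d1 d2
    k1 k2 (fun k => ?_) (fun k q hq => ?_) (fun k q x hx hxk => ?_) hdis Set.sdiff_subset hKO
    (fun x hx => ?_) (fun x hx => ?_)
  · rw [biUnion_frontier hcl hs hKO hdis k]
    exact hball k
  · have h1 : q.1.pt ∈ frontier (Kc k) := hq (by rw [q.1.set_eq]; exact T.self_mem_cc _)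
    have h2 := dim_le_two (T := T) h3 (hc k) (hKO k) (hs k) h1
    have h4 : q.1.dim = T.dim q.1.pt := rfl
    omega
  · have hfr : x ∈ frontier (Kc k) := by
      rw [(hcl k).frontier_eq]
      exact ⟨hxk, fun hi => Set.disjoint_left.1 (q.2 k) hx hi⟩
    have h1 := (biUnion_frontier hcl hs hKO hdis k).ge hfr
    simp only [mem_iUnion, mem_ofPred_eq, exists_prop] at h1
    exact h1
  · by_cases h : ∃ k, x ∈ Kc k
    · exact Or.inr h
    · left
      refine ⟨hx, fun h' => h ?_⟩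
      simp only [mem_iUnion] at h'
      obtain ⟨k, hk⟩ := h'
      exact ⟨k, interior_subset hk⟩
  · obtain ⟨r1, hr1, h1⟩ := T.cplx.lf x hx
    obtain ⟨r2, hr2, h2⟩ := lf_core hc hs hKO hdis hx
    refine ⟨min r1 r2, lt_min hr1 hr2, ?_, ?_⟩
    · refine Set.Finite.of_finite_image (f := Subtype.val) (h1.subset ?_)
        Subtype.val_injective.injOn
      rintro _ ⟨q, ⟨y, hy1, hy2⟩, rfl⟩
      exact ⟨y, hy1, ball_subset_ball (min_le_left _ _) hy2⟩
    · refine h2.subset ?_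
      rintro k ⟨y, hy1, hy2⟩
      exact ⟨y, hy1, ball_subset_ball (min_le_right _ _) hy2⟩

end Tile

end

end Crest.Agent.R096.Csub_487
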