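import Crest.Agent.R096.Lm6_117

/-!
# R096 (row 96), LMesh, part 9: a labelled mesh with extra (giant) 3-cells (helper117)

`Bel Q κ` : for every extra cell `k` the set of cells on its boundary.  `QK b` : the poset of the
cells of `Q` and the extra cells.  `LM.glue` : labelled mesh over `QK b`.
-/

set_option autoImplicit false
set_option linter.unusedSectionVars false

open Set

namespace Crest.Agent.R096.Lm_117

open Crest.Agent.R096.St_147 Crest.Agent.R096.Ac_117

/-- the boundaries of the extra cells -/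
structure Bel (Q κ : Type) [PartialOrder Q] where
  B : κ → Q → Prop
  down : ∀ k c d, c ≤ d → B k d → B k c

variable {Q κ : Type} [PartialOrder Q]

/-- the cells of `Q` and the extra cells -/
def QK (_ : Bel Q κ) : Type := Q ⊕ κ

/-- the order of `QK` -/
def QK.le (b : Bel Q κ) : QK b → QK b → Prop
  | Sum.inl c, Sum.inl d => c ≤ d
  | Sum.inl c, Sum.inr k => b.B k c
  | Sum.inr _, Sum.inl _ => False
  | Sum.inr k, Sum.inr k' => k = k'

instance (b : Bel Q κ) : PartialOrder (QK b) where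
  le := QK.le b
  le_refl x := by
    rcases x with x | x
    · exact le_refl x
    · exact rfl
  le_trans x y z hxy hyz := by
    rcases x with x | x <;> rcases y with y | y <;> rcases z with z | z
    · exact le_trans (α := Q) hxy hyz
    · exact b.down z x y hxy hyz
    · exact False.elim hyz
    · have h : y = z := hyz
      subst h; exact hxy
    · exact False.elim hxy
    · exact False.elim hxy
    · exact False.elim hyz
    · exact Eq.trans (α := κ) hxy hyz
  le_antisymm x y hxy hyx := by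
    rcases x with x | x <;> rcases y with y | y
    · exact congrArg Sum.inl (le_antisymm (α := Q) hxy hyx)
    · exact False.elim hyx
    · exact False.elim hxy
    · exact congrArg Sum.inr (show x = y from hxy)

variable {b : Bel Q κ}

/-- a cell of `Q` -/
def QK.c (b : Bel Q κ) (c : Q) : QK b := Sum.inl c

/-- an extra cell -/
def QK.k (b : Bel Q κ) (k : κ) : QK b := Sum.inr k

@[simp] lemma QK.cc_le {c d : Q} : QK.c b c ≤ QK.c b d ↔ c ≤ d := Iff.rfl
@[simp] lemma QK.ck_le {c : Q} {k : κ} : QK.c b c ≤ QK.k b k ↔ b.B k c := Iff.rfl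
@[simp] lemma QK.kc_le {c : Q} {k : κ} : QK.k b k ≤ QK.c b c ↔ False := Iff.rfl
@[simp] lemma QK.kk_le {k k' : κ} : QK.k b k ≤ QK.k b k' ↔ k = k' := Iff.rfl

lemma QK.cc_lt {c d : Q} : QK.c b c < QK.c b d ↔ c < d := by
  rw [lt_iff_le_not_ge, lt_iff_le_not_ge, QK.cc_le, QK.cc_le]

lemma QK.ck_lt {c : Q} {k : κ} : QK.c b c < QK.k b k ↔ b.B k c := by
  rw [lt_iff_le_not_ge, QK.ck_le, QK.kc_le]
  exact ⟨fun h => h.1, fun h => ⟨h, fun h' => h'⟩⟩

lemma QK.le_c {x : QK b} {c : Q} (h : x ≤ QK.c b c) : ∃ d, x = QK.c b d ∧ d ≤ c := by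
  rcases x with x | x
  · exact ⟨x, rfl, h⟩
  · exact False.elim h

lemma QK.lt_k {x : QK b} {k : κ} (h : x < QK.k b k) : ∃ d, x = QK.c b d ∧ b.B k d := by
  rcases x with x | x
  · exact ⟨x, rfl, h.le⟩
  · have : x = k := h.le
    subst this
    exact absurd h (lt_irrefl _)

/-- the dimension -/
def dimK (b : Bel Q κ) (dim : Q → ℕ) : QK b → ℕ
  | Sum.inl c => dim c
  | Sum.inr _ => 3

variable {dim : Q → ℕ}

@[simp] lemma dimK_c (c : Q) : dimK b dim (QK.c b c) = dim c := rfl
@[simp] lemma dimK_k (k : κ) : dimK b dim (QK.k b k) = 3 := rfl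

variable {ι Φ W : Type} {M : MeshC ι Φ W}

/-- the hypotheses on the extra cells -/
structure BelH (L : Sk W Q dim) (M : MeshC ι Φ W) (cf : Φ → Q) (b : Bel Q κ) : Prop where
  dim_lt : ∀ k c, b.B k c → dim c < 3
  base : ∀ k, ∃ v, b.B k v ∧ dim v = 0
  conn : ∀ k (φ : Q → ZMod 2), (∀ e, b.B k e → dim e = 1 → φ (L.en e false) = φ (L.en e true)) →
    ∀ v v', b.B k v → b.B k v' → dim v = 0 → dim v' = 0 → φ v = φ v'
  cell : ∀ k (Y : Finset W), (∀ F, b.B k (cf F) → nW Y (M.On F) = 0) →
    ∃ lam : Q → ZMod 2, ∀ e, b.B k e → dim e = 1 →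
      lam (L.en e false) + lam (L.en e true) = nW Y (L.On1 e)

/-- the ends of the 1-cells -/
def glEn (L : Sk W Q dim) (b : Bel Q κ) : QK b → Bool → QK b
  | Sum.inl e, i => Sum.inl (L.en e i)
  | Sum.inr k, _ => Sum.inr k

/-- the 1-skeleton with extra cells -/
noncomputable def Sk.glue (L : Sk W Q dim) (b : Bel Q κ) {cf : Φ → Q} (H : BelH L M cf b) :
    Sk W (QK b) (dimK b dim) where
  W1 := L.W1
  ed w := QK.c b (L.ed w)
  en := glEn L b
  t := L.t
  ed_dim w hw := L.ed_dim w hw
  inf w hw := by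
    refine (L.inf w hw).mono ?_
    rintro w' ⟨h1, h2⟩
    exact ⟨h1, congrArg (QK.c b) h2⟩
  t_inj w hw w' hw' he ht := L.t_inj w hw w' hw' (Sum.inl_injective he) ht
  en_dim e h i := by
    rcases e with e | k
    · exact L.en_dim e h i
    · exact absurd (show (3:ℕ) = 1 from h) (by norm_num)
  en_lt e h i := by
    rcases e with e | k
    · exact QK.cc_lt.2 (L.en_lt e h i)
    · exact absurd (show (3:ℕ) = 1 from h) (by norm_num)
  en_all e h v hv := by
    rcases e with e | k
    · obtain ⟨d, rfl, hd⟩ := QK.le_c hv.le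
      rcases L.en_all e h d (QK.cc_lt.1 hv) with h1 | h1
      · left; exact congrArg (QK.c b) h1
      · right; exact congrArg (QK.c b) h1
    · exact absurd (show (3:ℕ) = 1 from h) (by norm_num)
  en_ne e h h' := by
    rcases e with e | k
    · exact L.en_ne e h (Sum.inl_injective h')
    · exact absurd (show (3:ℕ) = 1 from h) (by norm_num)
  dim_lt c d h := by
    rcases d with d | k
    · obtain ⟨c', rfl, -⟩ := QK.le_c h.le
      exact L.dim_lt c' d (QK.cc_lt.1 h)
    · obtain ⟨c', rfl, hc⟩ := QK.lt_k h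
      exact H.dim_lt k c' hc
  base c := by
    rcases c with c | k
    · obtain ⟨v, h1, h2⟩ := L.base c
      exact ⟨QK.c b v, h1, h2⟩
    · obtain ⟨v, h1, h2⟩ := H.base k
      exact ⟨QK.c b v, h1, h2⟩
  conn := by
    intro c φ hφ v v' hv hv' h0 h0'
    rcases c with c | k
    · obtain ⟨u, rfl, hu⟩ := QK.le_c hv
      obtain ⟨u', rfl, hu'⟩ := QK.le_c hv'
      exact L.conn c (fun x => φ (QK.c b x)) (fun e he h1 => hφ (QK.c b e) he h1) u u' hu hu' h0 h0'
    · have aux : ∀ v : QK b, v ≤ QK.k b k → dimK b dim v = 0 → ∃ u, v = QK.c b u ∧ b.B k u := by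
        intro v hv h0
        rcases v with v | v
        · exact ⟨v, rfl, hv⟩
        · exact absurd (show (3:ℕ) = 0 from h0) (by norm_num)
      obtain ⟨u, rfl, hu⟩ := aux v hv h0
      obtain ⟨u', rfl, hu'⟩ := aux v' hv' h0'
      exact H.conn k (fun x => φ (QK.c b x)) (fun e he h1 => hφ (QK.c b e) he h1) u u' hu hu' h0 h0'

lemma glue_On1 (L : Sk W Q dim) {cf : Φ → Q} (H : BelH L M cf b) (e : Q) :
    (L.glue b H).On1 (QK.c b e) = L.On1 e := by
  ext w
  constructor
  · rintro ⟨h1, h2⟩; exact ⟨h1, Sum.inl_injective h2⟩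
  · rintro ⟨h1, h2⟩; exact ⟨h1, congrArg (QK.c b) h2⟩

lemma glue_XL (L : Sk W Q dim) {cf : Φ → Q} (H : BelH L M cf b) {Y : Finset W}
    {lam : QK b → ZMod 2} {c : Q} :
    (L.glue b H).XL Y lam (QK.c b c) ↔ L.XL Y (fun v => lam (QK.c b v)) c := by
  constructor
  · intro h e he h1
    rw [← glue_On1 L H]
    exact h (QK.c b e) he h1
  · intro h e he h1
    obtain ⟨d, rfl, hd⟩ := QK.le_c he
    rw [glue_On1 L H]
    exact h d hd h1

lemma glue_ext (L : Sk W Q dim) {cf : Φ → Q} (H : BelH L M cf b) {Y : Finset W}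
    {lam : QK b → ZMod 2} {w : W} :
    (L.glue b H).ext Y lam w = L.ext Y (fun v => lam (QK.c b v)) w := by
  have h3 : (L.glue b H).pre Y w = L.pre Y w := by
    apply nW_congr
    intro x _
    constructor
    · rintro ⟨a1, a2, a3⟩
      exact ⟨a1, Sum.inl_injective a2, a3⟩
    · rintro ⟨a1, a2, a3⟩
      exact ⟨a1, congrArg (QK.c b) a2, a3⟩
  unfold Sk.ext
  rw [h3]
  rfl

/-- **a labelled mesh with extra 3-cells** -/
noncomputable def LM.glue (L : LM M Q dim) (b : Bel Q κ) (H : BelH L.toSk M L.cf b) :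
    LM M (QK b) (dimK b dim) where
  toSk := L.toSk.glue b H
  cf F := QK.c b (L.cf F)
  cf_dim F := L.cf_dim F
  cf_inj F F' h := L.cf_inj F F' (Sum.inl_injective h)
  on_iff F w := L.on_iff F w
  vpos F v := Sum.elim (fun v => L.vpos F v) (fun _ => 0) v
  face := by
    intro F Y hY
    obtain ⟨h1, h2⟩ := L.face F Y hY
    refine ⟨(glue_XL L.toSk H).2 h1, ?_⟩
    intro w hw hwY
    rw [glue_ext]
    exact h2 w hw hwY
  cell := by
    intro c Y hY
    rcases c with c | k
    · obtain ⟨lam, h1⟩ := L.cell c Y (fun F hF => hY F hF)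
      exact ⟨Sum.elim lam (fun _ => 0), (glue_XL L.toSk H).2 h1⟩
    · obtain ⟨lam, h1⟩ := H.cell k Y (fun F hF => hY F hF)
      refine ⟨Sum.elim lam (fun _ => 0), ?_⟩
      intro e he hd
      rcases e with e | k'
      · have h2 := h1 e he hd
        have h3 := glue_On1 L.toSk H e
        exact h2.trans (by rw [← h3]; rfl)
      · exact absurd (show (3:ℕ) = 1 from hd) (by norm_num)

/-- 2-cells and 3-cells with the extra cells -/
theorem Top3.glue {L : LM M Q dim} (X : Top3 L) (b : Bel Q κ) (H : BelH L.toSk M L.cf b)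
    (htile : ∀ k, ∃ q : ι, ∀ F, q ∈ M.side F ↔ b.B k (L.cf F))
    (hmid : ∀ k e, dim e = 1 → b.B k e → ∃ F, e ≤ L.cf F ∧ b.B k (L.cf F)) :
    Top3 (L.glue b H) where
  dim_le c := by
    rcases c with c | k
    · exact X.dim_le c
    · exact le_rfl
  cf_sur c hc := by
    rcases c with c | k
    · obtain ⟨F, hF⟩ := X.cf_sur c hc
      exact ⟨F, congrArg (QK.c b) hF⟩
    · exact absurd (show (3:ℕ) = 2 from hc) (by norm_num)
  tile c hc := by
    rcases c with c | k
    · exact X.tile c hc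
    · exact htile k
  mid c hc e he hec := by
    rcases c with c | k
    · obtain ⟨d, rfl, hd⟩ := QK.le_c hec.le
      exact X.mid c hc d he (QK.cc_lt.1 hec)
    · obtain ⟨d, rfl, hd⟩ := QK.lt_k hec
      exact hmid k d he hd

end Crest.Agent.R096.Lm_117
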