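import Mathlib
import Crest.Agent.R096.Csub2_487
import Crest.Agent.R096.Lm9_117

/-!
# R096 (row 96), helper487.  The complex over 117's index type `QK b` (cells and giant cells).

* `setK b K Kc` : the sets of the cells of `QK b`;
* `cplx_QK` : a complex over `Q` and extra balls give a complex over `QK b`;
* `cplx_QK_tile` : the instance for a tiling with cores.
-/

set_option autoImplicit false
set_option linter.unusedSectionVars false

open Set Metric Filter Topology Module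

namespace Crest.Agent.R096.Csub_487

open Crest.Agent.R096.Ce_537 Crest.Agent.R096.Msh_715 Crest.Agent.R096.Lm_117

open scoped Classical

noncomputable section

/-- the sets of the cells of `QK b` -/
def setK {E : Type*} {Q κ : Type} [PartialOrder Q] (b : Bel Q κ) (K : Q → Set E) (Kc : κ → Set E) :
    QK b → Set E
  | Sum.inl c => K c
  | Sum.inr k => Kc k

section

variable {E : Type*} {Q κ : Type} [PartialOrder Q] {b : Bel Q κ} {K : Q → Set E}
  {Kc : κ → Set E}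

@[simp] theorem setK_c (c : Q) : setK b K Kc (QK.c b c) = K c := rfl
@[simp] theorem setK_k (k : κ) : setK b K Kc (QK.k b k) = Kc k := rfl

theorem QK.all (j : QK b) : (∃ q, j = QK.c b q) ∨ ∃ k, j = QK.k b k := by
  rcases j with q | k
  · exact Or.inl ⟨q, rfl⟩
  · exact Or.inr ⟨k, rfl⟩

theorem QK.not_k_lt (k : κ) (j : QK b) : ¬ QK.k b k < j := by
  intro h
  rcases QK.all j with ⟨q, rfl⟩ | ⟨l, rfl⟩
  · exact QK.kc_le.1 h.le
  · have h1 : k = l := QK.kk_le.1 h.le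
    subst h1
    exact lt_irrefl _ h

end

section Glue

variable {E : Type*} [NormedAddCommGroup E] [NormedSpace ℝ E]

/-- **THE COMPLEX OVER `QK b`** -/
theorem cplx_QK {Q κ : Type} [PartialOrder Q] {Ω' Ω : Set E} {dim : Q → ℕ} {K : Q → Set E}
    (X : Cplx Ω' Q dim K) (Kc : κ → Set E) (b : Bel Q κ)
    (ball_ : ∀ k, IsBall 3 (Kc k) (⋃ q ∈ {q | b.B k q}, K q))
    (dlt : ∀ k q, b.B k q → dim q < 3)
    (sep : ∀ k q x, x ∈ K q → x ∈ Kc k → ∃ q', b.B k q' ∧ x ∈ K q')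
    (dis : ∀ k l, k ≠ l → Disjoint (Kc k) (Kc l))
    (sub1 : Ω' ⊆ Ω) (sub2 : ∀ k, Kc k ⊆ Ω) (cov : ∀ x ∈ Ω, x ∈ Ω' ∨ ∃ k, x ∈ Kc k)
    (lf : ∀ x ∈ Ω, ∃ r > 0, {q | (K q ∩ ball x r).Nonempty}.Finite ∧
      {k | (Kc k ∩ ball x r).Nonempty}.Finite) :
    Cplx Ω (QK b) (dimK b dim) (setK b K Kc) :=
  cplx_glue X Kc b.B (il := QK.c b) (ir := QK.k b) QK.all (fun _ _ => QK.cc_lt) QK.not_k_lt
    (fun _ _ => QK.ck_lt) (fun _ => rfl) (fun _ => rfl) (fun _ => rfl) (fun _ => rfl) ball_ dlt sep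
    dis sub1 sub2 cov lf

end Glue

section Tile

variable {E : Type} [NormedAddCommGroup E] [NormedSpace ℝ E] [FiniteDimensional ℝ E]
variable {Om : Set E} {ι κ : Type} {T : Tiling Om ι} {Kc : κ → Set E}

/-- **THE COMPLEX OF A TILING WITH CORES OVER `QK b`**: `p c` = the cell `c` lies in a tile outside
the cores (`mem_DK_iff`) -/
theorem cplx_QK_tile (h3 : finrank ℝ E = 3) (hc : ∀ k, Core (Kc k))
    (hs : ∀ k, ∀ x ∈ frontier (Kc k), T.cc x ⊆ frontier (Kc k))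
    (hKO : ∀ k, Kc k ⊆ Om) (hdis : ∀ k l, k ≠ l → Disjoint (Kc k) (Kc l))
    (hball : ∀ k, IsBall 3 (Kc k) (frontier (Kc k)))
    {p : T.Cell → Prop} (hp : ∀ c, p c ↔ c ∈ DK T Kc) (b : Bel {c : T.Cell // p c} κ)
    (hb : ∀ k c, b.B k c ↔ c.1.set ⊆ frontier (Kc k)) :
    Cplx Om (QK b) (dimK b fun c => c.1.dim) (setK b (fun c => c.1.set) Kc) := by
  have hp' : p = fun c => c ∈ DK T Kc := funext fun c => propext (hp c)
  subst hp'
  exact cplx_core h3 hc hs hKO hdis hball (il := QK.c b) (ir := QK.k b) QK.all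
    (fun _ _ => QK.cc_lt) QK.not_k_lt (fun q k => QK.ck_lt.trans (hb k q)) (fun _ => rfl)
    (fun _ => rfl) (fun _ => rfl) (fun _ => rfl)

/-- the same with the predicate `the cell is in a tile outside the cores` -/
theorem cplx_QK_tile' (h3 : finrank ℝ E = 3) (hc : ∀ k, Core (Kc k))
    (hs : ∀ k, ∀ x ∈ frontier (Kc k), T.cc x ⊆ frontier (Kc k))
    (hKO : ∀ k, Kc k ⊆ Om) (hdis : ∀ k l, k ≠ l → Disjoint (Kc k) (Kc l))
    (hball : ∀ k, IsBall 3 (Kc k) (frontier (Kc k)))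
    {p : T.Cell → Prop} (hp : ∀ c, p c ↔ ∃ i, (∀ k, ¬ P (T.H i) ⊆ Kc k) ∧ c.set ⊆ P (T.H i))
    (b : Bel {c : T.Cell // p c} κ) (hb : ∀ k c, b.B k c ↔ c.1.set ⊆ frontier (Kc k)) :
    Cplx Om (QK b) (dimK b fun c => c.1.dim) (setK b (fun c => c.1.set) Kc) :=
  cplx_QK_tile h3 hc hs hKO hdis hball
    (fun c => (hp c).trans (mem_DK_iff (fun k => (hc k).closed) hs hKO hdis).symm) b hb

end Tile

end

end Crest.Agent.R096.Csub_487
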