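import Crest.Agent.R096.Shp2_334
import Crest.Agent.R096.St1_147
import Crest.Agent.R096.Seq2_213

/-!
# R096 (row 96), ARR-SH (helper334), GIANT part 0: the dictionary with ordinary tiles only

`DicO C s j cf ord` : dictionary between the pieces of the sheet `j` of a `Cmb` over the cells outside
the cores and the points, chords and ORDINARY tiles (`ord q`) of a global state `s` over the merged
mesh `M` (the giant tiles `¬ ord q` are no cells of `Q`).
-/

set_option autoImplicit false

open Set

namespace Crest.Agent.R096.Shg_334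

open Crest.Agent.R096.Bd_416 Crest.Agent.R096.Seq_213 Crest.Agent.R096.St_147
  Crest.Agent.R096.Shp_334

/-- **dictionary for one sheet, ordinary tiles only** -/
structure DicO {Q : Type} [PartialOrder Q] {dim : Q → ℕ} {J Fam : Type} {ι Φ W : Type}
    {M : MeshC ι Φ W} {fam : J → Fam} (C : Cmb Q dim J Fam) (s : GSt M fam) (j : J)
    (cf : Φ → Q) (ord : ι → Prop) where
  pt : Pce C j 1 → W
  inj : Function.Injective pt
  mem : ∀ a, pt a ∈ s.P ∧ s.lab (pt a) = j
  sur : ∀ w ∈ s.P, s.lab w = j → ∃ a, pt a = w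
  /-- incidence of points and 2-cells -/
  on : ∀ a F, a.1.1 < cf F ↔ pt a ∈ M.On F
  /-- `y` is the chord `(F,w)` -/
  ch : Φ → W → Pce C j 2 → Prop
  ch_cf : ∀ F w y, ch F w y → y.1.1 = cf F
  ch_ex : ∀ F w, s.At F w → s.lab w = j → ∃ y, ch F w y
  ch_un : ∀ F w y y', ch F w y → ch F w y' → y = y'
  ch_sur : ∀ y, ∃ F w, s.At F w ∧ s.lab w = j ∧ ch F w y
  sub : ∀ F w y, s.At F w → s.lab w = j → ch F w y → ∀ a,
    (Sub C a y ↔ pt a = w ∨ pt a = s.mu F w)
  /-- the tile piece `t` of the ordinary cell `q` contains the point `w` -/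
  In : ι → W → Pce C j 3 → Prop
  in_un : ∀ q, ord q → ∀ w t t', In q w t → In q w t' → t = t'
  tile : ∀ q, ord q → ∀ F w y, q ∈ M.side F → s.At F w → s.lab w = j → ch F w y →
    ∃ t, In q w t ∧ In q (s.mu F w) t ∧ Sub C y t

end Crest.Agent.R096.Shg_334
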