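import Crest.Agent.R096.Lm5_117
import Crest.Agent.R096.Shg0_334

/-!
# R096 (row 96), ARR-SH, GIANT part 2 (helper914 for helper334): the dictionary `DicO` for helper117's
`cmb` over a labelled mesh `L : LM M Q dim`

`cmbO` : `DicO (cmb h Lam hLam) s j L.cf ord`.
Inputs: the points of the state lie on 1-cells (`hon`), the 2-cells of `Q` with a point of the sheet
`j` are faces of the mesh (`hcf`), the 3-cells `ci q` of the ordinary tiles `q`, with
`L.cf F < ci q` for the faces `F` of `q` (`hside`).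
-/

set_option autoImplicit false
set_option linter.unusedSectionVars false

open Set

namespace Crest.Agent.R096.Shg2_914

open Crest.Agent.R096.Bd_416 Crest.Agent.R096.Seq_213 Crest.Agent.R096.St_147
  Crest.Agent.R096.Shp_334 Crest.Agent.R096.Shg_334 Crest.Agent.R096.Lm_117

variable {ι Φ W Q J Fam : Type} {M : MeshC ι Φ W} [PartialOrder Q] {dim : Q → ℕ}
variable {L : LM M Q dim} {fam : J → Fam} {s : GSt M fam}

/-- a cell of dimension one in which a point lies is the 1-cell of the point -/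
lemma ed_eq {c : Q} {w : W} (hc : dim c = 1) (hw : w ∈ L.toSk.In c) : L.ed w = c :=
  eq_of_dim L.toSk hw.2 (by rw [hc, L.ed_dim _ hw.1])

/-- the pieces of a 2-cell are the chords -/
lemma piece_two {F : Φ} {w w' : Pt L s (L.cf F)}
    (h : (Quot.mk _ w : Pc L s (L.cf F)) = Quot.mk _ w') : w'.1 = w.1 ∨ w'.1 = s.mu F w.1 := by
  let g : Pc L s (L.cf F) → Set W := Quot.lift (fun a => ({a.1, s.mu F a.1} : Set W)) (by
    rintro a b ⟨F', hF', haF, hb⟩
    have hFF : F' = F := L.cf_inj _ _ (eq_of_dim L.toSk hF' (by rw [L.cf_dim, L.cf_dim]))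
    subst hFF
    have hmm := s.mu_mu a.2.1 haF
    show ({a.1, s.mu F' a.1} : Set W) = {b.1, s.mu F' b.1}
    rw [hb, hmm]
    exact Set.pair_comm _ _)
  have h1 : ({w.1, s.mu F w.1} : Set W) = {w'.1, s.mu F w'.1} := congrArg g h
  have h2 : w'.1 ∈ ({w.1, s.mu F w.1} : Set W) := by rw [h1]; exact Or.inl rfl
  exact h2

variable (h : LF L s) (Lam : J → Q → ZMod 2) (hLam : ∀ j c, L.toSk.XL (gP s j) (Lam j) c) (j : J)
variable (hon : ∀ w ∈ s.P, s.lab w = j → w ∈ L.toSk.W1)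
variable (hcf : ∀ c, dim c = 2 → (∃ w ∈ s.P, s.lab w = j ∧ w ∈ L.toSk.In c) → ∃ F, L.cf F = c)
variable (ord : ι → Prop) (ci : ι → Q) (hci : ∀ q, ord q → dim (ci q) = 3)
variable (hside : ∀ q, ord q → ∀ F, q ∈ M.side F → L.cf F < ci q)

/-- **the dictionary for helper117's `cmb` over a labelled mesh** -/
noncomputable def cmbO : DicO (cmb h Lam hLam) s j L.cf ord where
  pt a := rep h (c := a.1.1) a.1.2
  inj := by
    rintro ⟨⟨e, x⟩, he, hx⟩ ⟨⟨e', x'⟩, he', hx'⟩ hab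
    have h1 := rep_mem h (c := e) x
    have h2 := rep_mem h (c := e') x'
    have hab' : rep h (c := e) x = rep h (c := e') x' := hab
    rw [← hab'] at h2
    have he0 : dim e = 1 := he
    have he0' : dim e' = 1 := he'
    have e3 : e = e' := (ed_eq he0 (pts_in h1).2).symm.trans (ed_eq he0' (pts_in h2).2)
    subst e3
    have e4 : x = x' := pts_disj h1 h2
    subst e4
    rfl
  mem a := by
    obtain ⟨⟨e, x⟩, he, hx⟩ := a
    have g := rep_mem h (c := e) x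
    refine ⟨(pts_in g).1, ?_⟩
    have h2 : pcol L s e x = j := hx
    rw [pcol_pts g] at h2
    exact h2
  sur w hw hj := by
    have hW := hon w hw hj
    let W0 : Pt L s (L.ed w) := ⟨w, hw, hW, le_rfl⟩
    refine ⟨⟨⟨L.ed w, (Quot.mk _ W0 : Pc L s (L.ed w))⟩, L.ed_dim w hW, hj⟩, ?_⟩
    exact pts_edge (L.ed_dim w hW) (Quot.mk _ W0 : Pc L s (L.ed w)) (rep_mem h _)
      (mem_pts.2 ⟨W0.2, rfl⟩)
  on := by
    rintro ⟨⟨e, x⟩, he, hx⟩ F
    have he0 : dim e = 1 := he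
    have g := pts_in (rep_mem h (c := e) x)
    have e1 := ed_eq he0 g.2
    show e < L.cf F ↔ rep h (c := e) x ∈ M.On F
    rw [L.on_iff, e1]
    constructor
    · intro hlt
      exact ⟨g.2.1, hlt.le⟩
    · rintro ⟨-, hle⟩
      refine lt_of_le_of_ne hle fun h' => ?_
      have := L.cf_dim F
      rw [← h', he0] at this
      omega
  ch F w y := ∃ h' : w ∈ s.P ∧ w ∈ L.toSk.In (L.cf F),
    y.1 = ⟨L.cf F, (Quot.mk _ ⟨w, h'⟩ : Pc L s (L.cf F))⟩
  ch_cf := by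
    rintro F w y ⟨h', e⟩
    rw [e]
  ch_ex F w hAt hj := by
    have h' : w ∈ s.P ∧ w ∈ L.toSk.In (L.cf F) := ⟨hAt.1, on_in le_rfl hAt.2⟩
    exact ⟨⟨⟨L.cf F, (Quot.mk _ ⟨w, h'⟩ : Pc L s (L.cf F))⟩, L.cf_dim F, hj⟩, h', rfl⟩
  ch_un := by
    rintro F w y y' ⟨h1, e1⟩ ⟨h2, e2⟩
    exact Subtype.ext (e1.trans e2.symm)
  ch_sur := by
    rintro ⟨⟨c, x⟩, hc, hx⟩
    obtain ⟨w, rfl⟩ := Quot.exists_rep x
    have hx' : s.lab w.1 = j := hx
    obtain ⟨F, rfl⟩ := hcf c hc ⟨w.1, w.2.1, hx', w.2.2⟩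
    exact ⟨F, w.1, ⟨w.2.1, on_of_in w.2.2⟩, hx', w.2, rfl⟩
  sub := by
    rintro F w ⟨⟨c, x⟩, hc, hx⟩ hAt hj ⟨h', e⟩ ⟨⟨e', u⟩, he', hu⟩
    obtain ⟨rfl, e⟩ := Sigma.mk.inj e
    have e := eq_of_heq e
    subst e
    obtain ⟨u0, rfl⟩ := Quot.exists_rep u
    have he0 : dim e' = 1 := he'
    have hrep : rep h (c := e') (Quot.mk _ u0) = u0.1 :=
      pts_edge he' _ (rep_mem h _) (mem_pts.2 ⟨u0.2, rfl⟩)
    have hcell : L.ed u0.1 = e' := ed_eq he0 u0.2.2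
    constructor
    · rintro ⟨hlt, hup⟩
      have hup' : (Quot.mk _ (pin L s (le_of_lt hlt) u0) : Pc L s (L.cf F)) = Quot.mk _ ⟨w, h'⟩ :=
        hup
      rcases piece_two hup'.symm with h2 | h2
      · left; exact hrep.trans h2
      · right; exact hrep.trans h2
    · intro h2
      have h2' : u0.1 = w ∨ u0.1 = s.mu F w := by
        rcases h2 with h2 | h2
        · exact Or.inl (hrep.symm.trans h2)
        · exact Or.inr (hrep.symm.trans h2)
      have hmem : u0.1 ∈ L.toSk.In (L.cf F) := by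
        rcases h2' with h2 | h2
        · rw [h2]; exact h'.2
        · rw [h2]; exact on_in le_rfl (s.mu_mem hAt.1 hAt.2).2
      have hle : e' ≤ L.cf F := hcell ▸ hmem.2
      have hlt : e' < L.cf F := lt_of_le_of_ne hle (fun h4 => by
        have := L.cf_dim F
        rw [← h4, he0] at this
        omega)
      refine ⟨hlt, ?_⟩
      show (Quot.mk _ (pin L s (le_of_lt hlt) u0) : Pc L s (L.cf F)) = Quot.mk _ ⟨w, h'⟩
      rcases h2' with h2 | h2
      · congr 1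
        exact Subtype.ext h2
      · exact (Quot.sound ⟨F, le_rfl, on_of_in h'.2, h2⟩).symm
  In q w t := t.1.1 = ci q ∧ w ∈ pts h t.1.1 t.1.2
  in_un := by
    rintro q - w ⟨⟨c, x⟩, hc, hx⟩ ⟨⟨c', x'⟩, hc', hx'⟩ ⟨h1, h2⟩ ⟨h1', h2'⟩
    obtain rfl : c = c' := h1.trans h1'.symm
    obtain rfl : x = x' := pts_disj h2 h2'
    rfl
  tile := by
    rintro q hq0 F w ⟨⟨c, x⟩, hc, hx⟩ hq hAt hj ⟨h', e⟩
    obtain ⟨rfl, e⟩ := Sigma.mk.inj e
    have e := eq_of_heq e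
    subst e
    have hlt := hside q hq0 F hq
    have hm := s.mu_mem hAt.1 hAt.2
    let w0 : Pt L s (L.cf F) := ⟨w, h'⟩
    let w1 : Pt L s (L.cf F) := ⟨s.mu F w, hm.1, on_in le_rfl hm.2⟩
    have hrel : (Quot.mk _ w0 : Pc L s (L.cf F)) = Quot.mk _ w1 :=
      Quot.sound ⟨F, le_rfl, hAt.2, rfl⟩
    refine ⟨⟨⟨ci q, pup L s hlt.le (Quot.mk _ w0)⟩, hci q hq0, ?_⟩, ⟨rfl, ?_⟩,
      ⟨rfl, ?_⟩, hlt, rfl⟩
    · exact (pcol_pup L s hlt.le (Quot.mk _ w0)).trans hx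
    · exact (mem_pts_pup hlt.le h'.2).2 ⟨_, rfl, mem_pts.2 ⟨w0.2, rfl⟩⟩
    · refine (mem_pts_pup hlt.le w1.2.2).2 ⟨Quot.mk _ w1, ?_, mem_pts.2 ⟨w1.2, rfl⟩⟩
      show pup L s hlt.le (Quot.mk _ w1) = pup L s hlt.le (Quot.mk _ w0)
      rw [hrel]

end Crest.Agent.R096.Shg2_914
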