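import Crest.Agent.R096.Shg4_334
import Crest.Agent.R096.Shg2_914
import Crest.Agent.R096.Lm10_117
import Crest.Agent.R096.Csub3_487

/-!
# R096 (row 96), ARR-SH (helper334), GIANT part 5: labelled meshes and tilings with cores

* `gnt_lm` : `Gnt` over a labelled mesh `L : LM M Q dim` (117);
* `gcO`, `top3O'`, `gntO`, `dicO` : the inputs of `sheet_giant` for a tiling with cores
  (715's `meshK`, 117's `lmO`, 487's complex outside the cores, 914's `cmbO`);
* `sheet_tiling` : the sheets over `meshK`, (E1) = `One1` as input.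
-/

set_option autoImplicit false
set_option linter.unusedSectionVars false

open Set Metric Topology Module

namespace Crest.Agent.R096.Shg_334

open Crest.Agent.R096.Ce_537 Crest.Agent.R096.Bd_416 Crest.Agent.R096.Shp_334
  Crest.Agent.R096.Seq_213 Crest.Agent.R096.St_147 Crest.Agent.R096.Lm_117

/-- **(E1)** at the tile `q`: the sheet `j` has at most one cycle on the boundary of the tile -/
def One1 {ι Φ W J Fam : Type} {M : MeshC ι Φ W} {fam : J → Fam} (s : GSt M fam) (j : J) (q : ι) :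
    Prop :=
  ∀ Z : Set W, (∀ F w, q ∈ M.side F → w ∈ Z → s.At F w → s.lab w = j → s.mu F w ∈ Z) →
    ∀ F w F' w', q ∈ M.side F → q ∈ M.side F' → s.At F w → s.At F' w' →
      s.lab w = j → s.lab w' = j → w ∈ Z → w' ∈ Z

section lm

variable {ι Φ W Q J Fam κ : Type} {M : MeshC ι Φ W} [PartialOrder Q] {dim : Q → ℕ}
variable {L : LM M Q dim} {fam : J → Fam} {s : GSt M fam}

/-- 117's `Bel` as `BdD` -/
def bdB (b : Bel Q κ) : BdD Q κ where
  bq k := {q | b.B k q}
  down k p q h hq := b.down k p q h hq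

/-- **`Gnt` over a labelled mesh** -/
theorem gnt_lm (X : Lm_117.Top3 L) (b : Bel Q κ) (hdl : ∀ k q, b.B k q → dim q < 3)
    (tl : κ → ι) (hinj : Function.Injective tl)
    (hside : ∀ k F, tl k ∈ M.side F ↔ b.B k (L.cf F))
    (hmid : ∀ k e, dim e = 1 → b.B k e → ∃ F, e ≤ L.cf F ∧ b.B k (L.cf F))
    {ord : ι → Prop} (nord : ∀ k, ¬ ord (tl k))
    (giant : ∀ q F, q ∈ M.side F → ¬ ord q → ∃ k, q = tl k) {j : J}
    (one : ∀ k, One1 s j (tl k)) : Gnt s j dim L.cf ord (bdB b) tl where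
  side k F := (hside k F).symm
  cf_inj := L.cf_inj
  cell2 _ f _ h2 := X.cf_sur f h2
  dim2 := L.cf_dim
  dlt := hdl
  edge k e he h1 := by
    obtain ⟨F, h2, h3⟩ := hmid k e h1 he
    refine ⟨L.cf F, h3, L.cf_dim F, lt_of_le_of_ne h2 fun h => ?_⟩
    have := L.cf_dim F
    rw [← h] at this
    omega
  tl_inj k k' h := hinj h
  nord := nord
  giant := giant
  one := one

end lm

/-! ### tilings with cores -/

section tiling

open Crest.Agent.R096.Ac_117
open Crest.Agent.R096.Msh_715 Crest.Agent.R096.Lab_184 Crest.Agent.R096.Agl5_543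
  Crest.Agent.R096.Pat5_543 Crest.Agent.R096.Coh_184

variable {E : Type} [NormedAddCommGroup E] [NormedSpace ℝ E] [FiniteDimensional ℝ E]
variable {Om : Set E} {ι : Type} {T : Tiling Om ι} {κ : Type} {Kc : κ → Set E}
variable [Nonempty T.Cell]

/-- the cells outside the cores -/
abbrev QO (T : Tiling Om ι) (Kc : κ → Set E) : Type := {c : T.Cell // OutK T Kc c}

lemma outK_iff (hH : ∀ c, CoreH T (Kc c)) (hdis : ∀ c c', c ≠ c' → Disjoint (Kc c) (Kc c'))
    (c : T.Cell) : OutK T Kc c ↔ c ∈ Csub_487.DK T Kc :=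
  (Csub_487.mem_DK_iff (fun k => (hH k).core.closed) (fun k => (hH k).cc) (fun k => (hH k).sub)
    hdis).symm

/-- **the complex outside the cores** -/
theorem cplxO (hH : ∀ c, CoreH T (Kc c)) (hdis : ∀ c c', c ≠ c' → Disjoint (Kc c) (Kc c')) :
    Cplx (Om \ ⋃ k, interior (Kc k)) (QO T Kc) (fun c => c.1.dim) (fun c => c.1.set) := by
  have hp : OutK T Kc = fun c => c ∈ Csub_487.DK T Kc :=
    funext fun c => propext (outK_iff hH hdis c)
  have h := Csub_487.cplx_DK (T := T) (Kc := Kc) (fun k => (hH k).core.closed)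
    (fun k => (hH k).cc)
  unfold QO
  rw [hp]
  exact h

lemma biO (hH : ∀ c, CoreH T (Kc c)) (hdis : ∀ c c', c ≠ c' → Disjoint (Kc c) (Kc c')) (k : κ) :
    (⋃ q ∈ (bdB (belK T Kc)).bq k, q.1.set) = frontier (Kc k) := by
  ext x
  simp only [mem_iUnion, exists_prop]
  constructor
  · rintro ⟨q, hq, hx⟩
    exact hq hx
  · intro hx
    have hxO : x ∈ Om := (hH k).sub ((hH k).core.closed.frontier_subset hx)
    have h1 : (T.cl hxO).set ⊆ frontier (Kc k) := by
      rw [T.cl_set hxO]; exact (hH k).cc x hx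
    refine ⟨⟨T.cl hxO, out_of_frontier hH hdis h1⟩, h1, ?_⟩
    show x ∈ (T.cl hxO).set
    rw [T.cl_set hxO]
    exact T.self_mem_cc x

/-- **the geometric input of the giant cells** -/
theorem gcO (h3 : finrank ℝ E = 3) (hH : ∀ c, CoreH T (Kc c))
    (hdis : ∀ c c', c ≠ c' → Disjoint (Kc c) (Kc c'))
    (hball : ∀ k, IsBall 3 (Kc k) (frontier (Kc k))) :
    GC (Om \ ⋃ k, interior (Kc k)) Om (fun c : QO T Kc => c.1.dim) (fun c => c.1.set)
      (bdB (belK T Kc)) Kc where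
  sub0 := Set.sdiff_subset
  sub k := (hH k).sub
  cov := by
    intro x hx
    by_cases h : x ∈ ⋃ k, interior (Kc k)
    · obtain ⟨k, hk⟩ := mem_iUnion.1 h
      exact Or.inr (mem_iUnion.2 ⟨k, interior_subset hk⟩)
    · exact Or.inl ⟨hx, h⟩
  ball k := by
    rw [biO hH hdis k]
    exact hball k
  dim_lt k c hc := by
    have : c.1.dim ≤ 2 := cell_le_two h3 hH hc
    show c.1.dim < 3
    omega
  inter k := by
    rw [biO hH hdis k]
    rintro x ⟨hx, -, hx'⟩
    rw [(hH k).core.closed.frontier_eq]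
    exact ⟨hx, fun h => hx' (mem_iUnion.2 ⟨k, h⟩)⟩
  disj k k' hne x hx := (Set.disjoint_left.1 (hdis k k' hne) hx.1 hx.2).elim
  near x hx hx0 := by
    have h : x ∈ ⋃ k, interior (Kc k) := by
      by_contra h
      exact hx0 ⟨hx, h⟩
    obtain ⟨k, hk⟩ := mem_iUnion.1 h
    obtain ⟨r, hr, hb⟩ := Metric.isOpen_iff.1 isOpen_interior x hk
    refine ⟨r, hr, disjoint_left.2 fun y hy hyb => ?_⟩
    exact hy.2 (mem_iUnion.2 ⟨k, hb hyb⟩)
  lf x hx := Csub_487.lf_core (fun k => (hH k).core) (fun k => (hH k).cc) (fun k => (hH k).sub)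
    hdis hx

/-- every cell outside lies in a 3-cell outside -/
theorem top3GO (h3 : finrank ℝ E = 3) (b : BdD (QO T Kc) κ) :
    Top3G b (fun c : QO T Kc => c.1.dim) := by
  rintro ⟨c, q, h1, h2⟩
  refine Or.inl ⟨⟨Lm_117.tcell T q, q, h1, (Lm_117.tcell_set q).le⟩, ?_, Lm_117.tcell_dim h3 q⟩
  show c.set ⊆ (Lm_117.tcell T q).set
  rw [Lm_117.tcell_set]
  exact h2

variable (h3 : finrank ℝ E = 3) (hH : ∀ c, CoreH T (Kc c))
  (hdis : ∀ c c', c ≠ c' → Disjoint (Kc c) (Kc c')) (hne : ∃ c, OutK T Kc c)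

/-- the ordinary tiles -/
def ordO (T : Tiling Om ι) (Kc : κ → Set E) (q : ι ⊕ κ) : Prop :=
  ∃ i, q = Sum.inl i ∧ ∀ k, ¬ P (T.H i) ⊆ Kc k

lemma side_out {i : ι} {F : {F : C2 T // ¬ (((meshC T h3).side F).map (piK T Kc)).IsDiag}}
    (h : Sum.inl i ∈ (mK h3 hH hdis).side F) :
    i ∈ (meshC T h3).side F.1 ∧ ∀ k, ¬ P (T.H i) ⊆ Kc k := by
  have h1 : Sum.inl i ∈ ((meshC T h3).side F.1).map (piK T Kc) := h
  rw [mem_map_iff] at h1
  obtain ⟨q', h2, h4⟩ := h1
  obtain ⟨rfl, h5⟩ := piK_inl.1 h4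
  exact ⟨h2, h5⟩

variable {J Fam : Type} {fam : J → Fam} {s : GSt (mK h3 hH hdis) fam}

/-- **the giant tiles of `meshK`** -/
theorem gntO {j : J} (one : ∀ k, One1 s j (Sum.inr k)) :
    Gnt s j (fun c : QO T Kc => c.1.dim) (lmO h3 hH hdis hne).cf (ordO T Kc)
      (bdB (belK T Kc)) Sum.inr := by
  refine gnt_lm (top3O h3 hH hdis hne) (belK T Kc) ?_ Sum.inr Sum.inr_injective ?_ ?_ ?_ ?_ one
  · intro k c hc
    have : c.1.dim ≤ 2 := cell_le_two h3 hH hc
    show c.1.dim < 3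
    omega
  · exact fun k F => giant_side h3 hH hdis k F
  · intro k e he hek
    have h1 : e.1.pt ∈ frontier (Kc k) := hek (set_ne e.1)
    have h2 := T.two_faces h3 (hH k).core (hH k).sub (hH k).cc h1 he
    obtain ⟨F, hF1, hF2⟩ : {F : C2 T | e.1.pt ∈ F.On ∧ F.set ⊆ frontier (Kc k)}.Nonempty := by
      apply Set.nonempty_of_ncard_ne_zero
      rw [h2]; norm_num
    have hout := out_face h3 F (out_of_frontier hH hdis hF2)
    refine ⟨⟨F, hout⟩, ?_, hF2⟩
    show e.1.set ⊆ F.set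
    rw [e.1.set_eq, F.set_eq]
    have h4 : e.1.pt ∈ T.cc F.pt := by rw [← F.set_eq]; exact hF1.1
    exact T.cc_sub_of_mem h4
  · rintro k ⟨i, hi, -⟩
    cases hi
  · rintro (i | k) F hF hno
    · exact absurd ⟨i, rfl, (side_out h3 hH hdis hF).2⟩ hno
    · exact ⟨k, rfl⟩

/-- the 3-cell of an ordinary tile -/
noncomputable def ciO (T : Tiling Om ι) (Kc : κ → Set E) (hne : ∃ c, OutK T Kc c) :
    ι ⊕ κ → QO T Kc := by
  classical
  exact fun q => if h : ordO T Kc q then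
    ⟨Lm_117.tcell T h.choose, h.choose, h.choose_spec.2, (Lm_117.tcell_set _).le⟩ else ⟨hne.choose, hne.choose_spec⟩

lemma ciO_inl {i : ι} (h : ∀ k, ¬ P (T.H i) ⊆ Kc k) :
    (ciO T Kc hne (Sum.inl i)).1 = Lm_117.tcell T i := by
  have h' : ordO T Kc (Sum.inl i) := ⟨i, rfl, h⟩
  unfold ciO
  rw [dif_pos h']
  have : h'.choose = i := (Sum.inl_injective h'.choose_spec.1).symm
  show Lm_117.tcell T h'.choose = Lm_117.tcell T i
  rw [this]

/-- **914's dictionary over the cells outside the cores** -/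
noncomputable def dicO (h : LF (lmO h3 hH hdis hne) s) (Lam : J → QO T Kc → ZMod 2)
    (hLam : ∀ j c, (lmO h3 hH hdis hne).toSk.XL (gP s j) (Lam j) c) (j : J)
    (hon : ∀ w ∈ s.P, s.lab w = j → w ∈ (lmO h3 hH hdis hne).toSk.W1) :
    DicO (cmb h Lam hLam) s j (lmO h3 hH hdis hne).cf (ordO T Kc) :=
  Shg2_914.cmbO h Lam hLam j hon (fun c hc _ => (top3O h3 hH hdis hne).cf_sur c hc) (ordO T Kc)
    (ciO T Kc hne)
    (by
      rintro _ ⟨i, rfl, hi⟩
      show (ciO T Kc hne (Sum.inl i)).1.dim = 3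
      rw [ciO_inl hne hi]
      exact Lm_117.tcell_dim h3 i)
    (by
      rintro _ ⟨i, rfl, hi⟩ F hF
      refine lt_of_le_of_ne ?_ fun h => ?_
      · show ((lmO h3 hH hdis hne).cf F).1.set ⊆ (ciO T Kc hne (Sum.inl i)).1.set
        rw [ciO_inl hne hi, Lm_117.tcell_set]
        exact C2.sub_tile (h3 := h3) (side_out h3 hH hdis hF).1
      · have h1 := (lmO h3 hH hdis hne).cf_dim F
        rw [h] at h1
        have h2 : (ciO T Kc hne (Sum.inl i)).1.dim = 3 := by
          rw [ciO_inl hne hi]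
          exact Lm_117.tcell_dim h3 i
        have h4 : (ciO T Kc hne (Sum.inl i)).1.dim = 2 := h1
        omega)

/-- **THE SHEETS OVER A TILING WITH CORES**: `X0 = Om \ ⋃ int K_c`; no input inside a core except
(E1) -/
theorem sheet_tiling (hOm : IsOpen Om) (hball : ∀ k, IsBall 3 (Kc k) (frontier (Kc k)))
    (h : LF (lmO h3 hH hdis hne) s) (Lam : J → QO T Kc → ZMod 2)
    (hLam : ∀ j c, (lmO h3 hH hdis hne).toSk.XL (gP s j) (Lam j) c)
    {g : Gd E J} {P' : ∀ q, (cmb h Lam hLam).I q → Set E} {c : ∀ q, (cmb h Lam hLam).I q → E → ℝ}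
    (H : Inv (cmb h Lam hLam) (fun q : QO T Kc => q.1.set) univ g P' c) {j : J}
    (hB : Bls (cmb h Lam hLam) (fun q : QO T Kc => q.1.set) c j)
    (hon : ∀ w ∈ s.P, s.lab w = j → w ∈ (lmO h3 hH hdis hne).toSk.W1)
    (one : ∀ k, One1 s j (Sum.inr k)) (h1 : s.H1 j) (hc : s.Conn j) :
    ∃ S : Set E, Nonempty (PLEquiv (sph 3) S) ∧ S ⊆ Om ∧
      ∀ z ∈ Om \ ⋃ k, interior (Kc k), (z ∈ S ↔ g.G j z = 1/2) :=
  sheet_giant h3 hOm H (cplxO hH hdis) (gcO h3 hH hdis hball) hB (top3GO h3 _)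
    (dicO h3 hH hdis hne h Lam hLam j hon) (gntO h3 hH hdis hne one) h1 hc

end tiling

end Crest.Agent.R096.Shg_334
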