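import Crest.Agent.R096.Arc17_778
import Crest.Agent.R096.SkB1d_662
import Crest.Agent.R096.SkB1b_662
import Crest.Agent.R096.Shg5_334
import Crest.Agent.R096.At4_241

/-!
# R096 (row 96), (R4), part 18: type D cores over the final state (helper778)

* `fin_bq` : finitely many cells on the boundary of a core;
* **`circ_out`** : the input `circ` of 241's `exists_Th_mesh` for the final state `StO`, from (E1) of
  the state `s₀` ("at most one cycle, at least one point" on the faces of the core tile);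
* **`chart_D`** : the chart of a type D core (147's `chart`), from `circ` and `sq`.
-/

set_option autoImplicit false
set_option linter.unusedSectionVars false
set_option linter.style.longLine false

open Set Metric Module

namespace Crest.Agent.R096.Arc_778

open Crest.Agent.R096.Ce_537 Crest.Agent.R096.Bd_416 Crest.Agent.R096.Shp_334
  Crest.Agent.R096.Seq_213 Crest.Agent.R096.St_147 Crest.Agent.R096.Shg_334 Crest.Agent.R096.Pl
  Crest.Agent.R096.Lm_117 Crest.Agent.R096.Cp_298 Crest.Agent.R096.SkB_662 Crest.Agent.R096.Xp_537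
  Crest.Agent.R096.Mg_441 Crest.Agent.R096.Grd_714
open Crest.Agent.R096.Brk1_582 (Foam)

section circ

variable {ι Φ W Q J Fm Kq 𝒢 : Type} {M : MeshC ι Φ W} [PartialOrder Q] {dim : Q → ℕ}
variable {L : LM M Q dim} {O : Ori M} {σ : Q → ZMod 2} {Rel : W → W → Prop} {V : Set W}
  {Qd : Quads ι Fm Kq} {κ : Fm → ℕ} {fam : J → Fm} {s₀ : GSt M fam} {far₀ : J → Set W}
  {Z : Fm → Set Q} {lam₀ : J → Q → ZMod 2} {v₀ v₁ : Fm → Q}
  {hfin : ∀ a, {j | fam j = a}.Finite} {kap : Fm → ℕ} {s : GSt M (fam' fam (Rk κ kap))}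
  {far : Nm' fam (Rk κ kap) → Set W} {β : W → W} {lam : Nm' fam (Rk κ kap) → Q → ZMod 2}
variable {E' : Type*} [NormedAddCommGroup E'] [NormedSpace ℝ E'] [FiniteDimensional ℝ E']
variable {K : Q → Set E'} {g : Gd E' (Nm' fam (Rk κ kap))} {B : BdD Q 𝒢} {Kt : 𝒢 → Set E'}
  {Ω0 Ω : Set E'} {ord : ι → Prop} {tl : 𝒢 → ι} {Pf : Fm → Set E'}

/-- (E1) for the final state on the faces of a core tile -/
theorem one_out (h : StO L O σ Rel V Qd κ s₀ far₀ Z lam₀ v₀ v₁ hfin kap s far β lam)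
    (hI₀ : s₀.Inv Qd far₀) {a0 : ι} (hA : ∀ k, a0 ∉ Qd.Act k) {y : Nm' fam (Rk κ kap)}
    (h1 : One s₀ {F | a0 ∈ M.side F} y.1) : One1 s y a0 :=
  h.one hI₀ (D := {F | a0 ∈ M.side F}) (fun _ hF k hin => hA k (hin a0 hF)) h1

/-- a point of a copy on the faces of a core tile -/
theorem pt_out (h : StO L O σ Rel V Qd κ s₀ far₀ Z lam₀ v₀ v₁ hfin kap s far β lam)
    (hI₀ : s₀.Inv Qd far₀) {a0 : ι} (hA : ∀ k, a0 ∉ Qd.Act k) {y : Nm' fam (Rk κ kap)}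
    (h1 : ∃ F w, a0 ∈ M.side F ∧ s₀.At F w ∧ s₀.lab w = y.1) :
    ∃ F w, a0 ∈ M.side F ∧ s.At F w ∧ s.lab w = y := by
  obtain ⟨F, w, hF, hw, hl⟩ := h1
  obtain ⟨F', hF', x, hx, hxl⟩ := (ne_cps h.cps hI₀ h.inv (D := {F | a0 ∈ M.side F})
    (fun _ hF k hin => hA k (hin a0 hF)) (y := y)).2 ⟨F, hF, w, hw, hl⟩
  exact ⟨F', x, hF', hx, hxl⟩

/-- **the input `circ` of `exists_Th_mesh` for the final state** -/
theorem circ_out (h : StO L O σ Rel V Qd κ s₀ far₀ Z lam₀ v₀ v₁ hfin kap s far β lam)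
    (hI₀ : s₀.Inv Qd far₀) {P : ∀ q, h.cmb.I q → Set E'} {c : ∀ q, h.cmb.I q → E' → ℝ}
    (H : Inv h.cmb K univ g P c) (X : Cplx Ω0 Q dim K) (G : GC Ω0 Ω dim K B Kt)
    (hB : ∀ j, Bls h.cmb K c j) (D : ∀ j, DicO h.cmb s j L.cf ord)
    (Gn : ∀ j, (∀ k, One1 s j (tl k)) → Gnt s j dim L.cf ord B tl)
    (hA : ∀ k k', tl k ∉ Qd.Act k') (one : ∀ k j, One s₀ {F | tl k ∈ M.side F} j)
    (k : 𝒢) {c0 : Fm}
    (ex : ∀ j, fam j ≠ c0 → (Pf (fam j) ∩ Pf c0).Nonempty →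
      ∃ F w, tl k ∈ M.side F ∧ s₀.At F w ∧ s₀.lab w = j) :
    ∀ y, h.cmb.fam y ≠ c0 → (Pf (h.cmb.fam y) ∩ Pf c0).Nonempty →
      Nonempty (PLEquiv (sph 2) {x | x ∈ (⋃ q ∈ B.bq k, K q) ∧ g.G y x = 1/2}) := by
  intro y hy hne
  exact circ_giant' H X G (hB y) (D y)
    (Gn y fun k' => one_out h hI₀ (hA k') (one k' y.1)) k
    (pt_out h hI₀ (hA k) (ex y.1 hy hne))

end circ

section chart

variable {Q 𝒢 : Type} [PartialOrder Q] {dim : Q → ℕ} {J Fam : Type} {Cc : Cmb Q dim J Fam}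
variable {E' : Type*} [NormedAddCommGroup E'] [NormedSpace ℝ E'] [FiniteDimensional ℝ E']
variable {K : Q → Set E'} {g : Gd E' J} {P : ∀ q, Cc.I q → Set E'} {c : ∀ q, Cc.I q → E' → ℝ}
variable {E : Type*} [NormedAddCommGroup E] [NormedSpace ℝ E] [FiniteDimensional ℝ E]
  {Λ : Set E} {hfin : ∀ a, {j | Cc.fam j = a}.Finite} {Pf : Fam → Set E} {b : Set Fam → E}
  {C : CC Λ (Cel Pf (Mg_441.mm hfin))} {T : (Fam → ℝ) → E} {co : E → Fam → ℝ} {ℓ : J → ℝ}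
  {B : BdD Q 𝒢} {Kt : 𝒢 → Set E'} {Ω0 Ω : Set E'}

/-- finitely many cells on the boundary of a core -/
theorem fin_bq (X : Cplx Ω0 Q dim K) (G : GC Ω0 Ω dim K B Kt) (k : 𝒢) : (B.bq k).Finite := by
  have h1 := (cplxG X G).finite_below (.big k)
  refine (h1.preimage (f := GQ.old) fun a _ b _ h => GQ.old.inj h).subset ?_
  intro q hq
  exact old_lt_big.2 hq

/-- **the chart of a type D core** -/
theorem chart_D (hΛ : IsOpen Λ) (hE3 : finrank ℝ E = 3) (F : Foam Λ Pf b 4)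
    (hm : ∀ a, 0 < Mg_441.mm hfin a) (H : Inv Cc K univ g P c) (OK : GridOK C T co)
    (hO : Ord Cc ℓ) (hℓ : ∀ j j', j ≠ j' → Cc.fam j = Cc.fam j' → ℓ j ≠ ℓ j')
    (q0 : Cel Pf (Mg_441.mm hfin)) (X : Cplx Ω0 Q dim K) (G : GC Ω0 Ω dim K B Kt) (k : 𝒢)
    {a : Fam} (hfr : (⋃ q ∈ B.bq k, K q) = frontier (Kt k))
    (hx : ∀ q ∈ B.bq k, ∃ y, Ex Cc Pf q y ∧ y a = 0)
    (circ : ∀ j, Cc.fam j ≠ a → (Pf (Cc.fam j) ∩ Pf a).Nonempty →
      Nonempty (PLEquiv (sph 2) {x | x ∈ (⋃ q ∈ B.bq k, K q) ∧ g.G j x = 1/2}))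
    (sq : ∀ q : Gx Pf (Mg_441.mm hfin), q.free.ncard = 2 → q.hi a = 0 →
      ∃ x, {z | z ∈ (⋃ q ∈ B.bq k, K q) ∧ gG T (merge hfin g) z = C.b (.gr q)} = {x})
    {κ : ℝ} (hκ : 0 < κ ∧ κ < 1) :
    ∃ Th : PLEquiv (Kt k) (coreF C κ (.top a) 0),
      (∀ x ∈ Kt k, x ∈ frontier (Kt k) ↔ sl C κ (Th.f x) (.top a) = 0) ∧
      ∀ x ∈ frontier (Kt k), gG T (merge hfin g) x = cG C κ Th.f x ∧
        gtop hm q0 (merge hfin g) x = ctop C κ (.top a) Th.f x ∧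
        ∀ t ∈ C.cell (gtop hm q0 (merge hfin g) x),
          gtr co (merge hfin g) x t = ctr C κ Th.f Th.g x t := by
  have : Finite {q // q ∈ B.bq k} := (fin_bq X G k).to_subtype
  have hS : (⋃ q ∈ B.bq k, K q) = ⋃ i : {q // q ∈ B.bq k}, K i.1 := by
    rw [biUnion_eq_iUnion]
  obtain ⟨Th, h1, h2⟩ := At_241.exists_Th_mesh hΛ hE3 F hm H OK hO hℓ q0 (G.ball k)
    (fun i : {q // q ∈ B.bq k} => i.1) hS (fun i => X.isClosed i.1) (fun i => hx i.1 i.2) circ sq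
    hκ le_rfl zero_lt_one
  refine ⟨Th, fun x hxK => ?_, fun x hxf => ?_⟩
  · rw [← hfr]; exact h1 x hxK
  · rw [← hfr] at hxf
    obtain ⟨a1, a2, a3⟩ := h2 x hxf
    exact ⟨a1.symm, a2.symm, fun t ht => (a3 t ht).symm⟩

end chart

end Crest.Agent.R096.Arc_778
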