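import Crest.Agent.R096.Spm1_662
import Crest.Agent.R096.Ac6_117

/-! Row 96, SPHM (helper662), part 2: **the boundary of a tile is a sphere** in the form
`Ac_117.SphM (Agl5_543.meshC T h3) q`, from the labels of helper184 on the tile. -/

set_option autoImplicit false
set_option linter.unusedSectionVars false

open Set Topology Filter Metric

namespace Crest.Agent.R096.Spm_662

open Crest.Agent.R096.Msh_715 Crest.Agent.R096.Agl1_543 Crest.Agent.R096.Agl5_543
  Crest.Agent.R096.Pat5_543 Crest.Agent.R096.Lab_184 Crest.Agent.R096.St_147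
  Crest.Agent.R096.Ac_117

variable {E : Type} [NormedAddCommGroup E] [NormedSpace ℝ E] [FiniteDimensional ℝ E]
  {Om : Set E} {ι : Type} {T : Tiling Om ι}

open Classical in
/-- the points of `y` on the boundary of `F` -/
noncomputable def yF (y : Finset E) (F : C2 T) : Finset E := y.filter (fun v => v ∈ F.On)

theorem mem_yF {y : Finset E} {F : C2 T} {v : E} : v ∈ yF y F ↔ v ∈ y ∧ v ∈ F.On := by
  classical
  unfold yF
  rw [Finset.mem_filter]

theorem yF_sub (y : Finset E) (F : C2 T) : (yF y F : Set E) ⊆ F.bd :=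
  fun _ hv => F.on_sub_bd (mem_yF.1 (Finset.mem_coe.1 hv)).2

open Classical in
/-- `cntP` in terms of the loop -/
theorem cntP_eq (h3 : Module.finrank ℝ E = 3) (y : Finset E) (F : C2 T)
    (he : Even (yF y F).card) {w : E} (hw : w ∈ F.bd) :
    cntP (meshC T h3) y F (F.pos w) =
      (cnt (gam F) (yF y F) w : ℕ) + (if w ∈ yF y F then 1 else 0) := by
  rw [← count_above (loop_gam F) (yF_sub y F) he hw]
  have e1 : (y.filter (fun v => v ∈ (meshC T h3).On F ∧ (meshC T h3).pos F v < F.pos w)) =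
      (yF y F).filter (fun v => lpos (gam F) w < lpos (gam F) v) := by
    ext v
    rw [Finset.mem_filter, Finset.mem_filter, mem_yF]
    constructor
    · rintro ⟨h1, h2, h4⟩
      exact ⟨⟨h1, h2⟩, (pos_lt_iff F (F.on_sub_bd h2) hw).1 h4⟩
    · rintro ⟨⟨h1, h2⟩, h4⟩
      exact ⟨h1, h2, (pos_lt_iff F (F.on_sub_bd h2) hw).2 h4⟩
  unfold cntP
  rw [e1]

/-- a chosen end point of the 1-cell of `w` -/
theorem exists_end {w : E} (hw : w ∈ Om) (hd : T.dim w = 1) :
    ∃ a : E, T.dim a = 0 ∧ a ∈ T.cc w ∧ a ≠ w ∧ segment ℝ a w ⊆ T.cc w ∧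
      ∀ v ∈ segment ℝ a w, v ≠ a → T.dim v = 1 := by
  obtain ⟨a, b, hab, h1, h2, h3, h4, h5, h6⟩ := T.edge_eq hw hd
  have hseg : segment ℝ a w ⊆ T.cc w := (T.convex_cc w).segment_subset h5 (T.self_mem_cc w)
  have haw : a ≠ w := by
    rintro rfl
    omega
  refine ⟨a, h3, h5, haw, hseg, fun v hv hva => ?_⟩
  have hwo : w ∈ openSegment ℝ a b := by rw [← h2]; exact T.self_mem_oc w
  have hvo : v ∈ openSegment ℝ a b := by
    rw [← insert_endpoints_openSegment] at hv
    rcases hv with hv | hv | hv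
    · exact absurd hv hva
    · rw [hv]; exact hwo
    · obtain ⟨c, d, hc, hd', hcd, rfl⟩ := hv
      obtain ⟨s, t, hs, ht, hst, rfl⟩ := hwo
      refine ⟨c + d * s, d * t, by positivity, by positivity, ?_, ?_⟩
      · have : c + d * s + d * t = c + d * (s + t) := by ring
        rw [this, hst, mul_one, hcd]
      · rw [smul_add, smul_smul, smul_smul, add_smul, add_assoc]
  rw [← h2] at hvo
  rw [T.dim_eq_of_mem_oc hw hvo, hd]

open Classical in
/-- the chosen end point -/
noncomputable def en (T : Tiling Om ι) (w : E) : E :=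
  if h : w ∈ Om ∧ T.dim w = 1 then (exists_end h.1 h.2).choose else w

theorem en_spec {w : E} (hw : w ∈ Om) (hd : T.dim w = 1) :
    T.dim (en T w) = 0 ∧ en T w ∈ T.cc w ∧ en T w ≠ w ∧ segment ℝ (en T w) w ⊆ T.cc w ∧
      ∀ v ∈ segment ℝ (en T w) w, v ≠ en T w → T.dim v = 1 := by
  unfold en
  rw [dif_pos ⟨hw, hd⟩]
  exact (exists_end hw hd).choose_spec

theorem cc_sub_bd (F : C2 T) {w : E} (hw : w ∈ F.On) : T.cc w ⊆ F.bd := by
  have h1 : T.cc w ⊆ T.cc F.pt := T.cc_sub_of_mem (by rw [← F.set_eq]; exact hw.1)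
  intro v hv
  have h2 : v ∈ F.set := by rw [F.set_eq]; exact h1 hv
  rw [F.mem_bd_iff h2]
  have := T.dim_le hv
  have := hw.2
  omega

open Classical in
/-- **counting from the chosen vertex to `w`** -/
theorem exists_eps (F : C2 T) {w : E} (hw : w ∈ F.On) :
    ∃ ε : ZMod 2, ∀ (h3 : Module.finrank ℝ E = 3) (y : Finset E), Even (yF y F).card →
      cntP (meshC T h3) y F (F.pos (en T w)) + cntP (meshC T h3) y F (F.pos w) =
        ((y.filter (fun v => v ∈ segment ℝ (en T w) w ∧ T.dim v = 1)).card : ZMod 2) +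
          (if w ∈ y then ε else 0) := by
  have hwO : w ∈ Om := F.set_sub hw.1
  obtain ⟨h1, h2, h3, h4, h5⟩ := en_spec (T := T) hwO hw.2
  have hJ : segment ℝ (en T w) w ⊆ F.bd := h4.trans (cc_sub_bd F hw)
  have hop : segment ℝ (en T w) w \ {en T w, w} = openSegment ℝ (en T w) w := by
    rw [← insert_endpoints_openSegment]
    ext v
    simp only [Set.mem_sdiff, mem_insert_iff, mem_singleton_iff]
    constructor
    · rintro ⟨h7 | h7 | h7, h8⟩
      · exact absurd (Or.inl h7) h8
      · exact absurd (Or.inr h7) h8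
      · exact h7
    · intro h7
      refine ⟨Or.inr (Or.inr h7), ?_⟩
      rintro (rfl | rfl)
      · exact h3 (left_mem_openSegment_iff.1 h7)
      · exact h3 (right_mem_openSegment_iff.1 h7)
  obtain ⟨ε, hε⟩ := arc_count_end (loop_gam F) h3 (convex_segment _ _).isPreconnected
    (left_mem_segment ℝ _ _) (right_mem_segment ℝ _ _) hJ
    (by rw [hop]; exact (convex_openSegment _ _).isPreconnected)
  refine ⟨ε + 1, fun hfr y he => ?_⟩
  have ha : en T w ∉ yF y F := fun h => by
    have := (mem_yF.1 h).2.2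
    omega
  have hwy : w ∈ yF y F ↔ w ∈ y := by
    rw [mem_yF]
    exact ⟨fun h => h.1, fun h => ⟨h, hw⟩⟩
  have e1 := hε (yF y F) (yF_sub y F) he ha
  rw [cntP_eq hfr y F he (hJ (left_mem_segment ℝ _ _)),
    cntP_eq hfr y F he (hJ (right_mem_segment ℝ _ _)), if_neg ha, add_zero, ← add_assoc, e1]
  have e2 : ((yF y F).filter (· ∈ segment ℝ (en T w) w)) =
      y.filter (fun v => v ∈ segment ℝ (en T w) w ∧ T.dim v = 1) := by
    ext v
    rw [Finset.mem_filter, Finset.mem_filter, mem_yF]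
    constructor
    · rintro ⟨⟨h6, h7⟩, h8⟩
      exact ⟨h6, h8, h7.2⟩
    · rintro ⟨h6, h7, h8⟩
      exact ⟨⟨h6, F.bd_sub (hJ h7), h8⟩, h7⟩
  rw [e2, if_congr hwy rfl rfl, if_congr hwy rfl rfl, add_assoc]
  congr 1
  by_cases h6 : w ∈ y
  · rw [if_pos h6, if_pos h6, if_pos h6]
  · rw [if_neg h6, if_neg h6, if_neg h6, add_zero]

open Classical in
/-- the orientation bit of the 1-cell of `w` on `F` -/
noncomputable def eps (F : C2 T) (w : E) : ZMod 2 :=
  if h : w ∈ F.On then (exists_eps F h).choose else 0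

open Classical in
theorem eps_spec (F : C2 T) {w : E} (hw : w ∈ F.On) (h3 : Module.finrank ℝ E = 3)
    (y : Finset E) (he : Even (yF y F).card) :
    cntP (meshC T h3) y F (F.pos (en T w)) + cntP (meshC T h3) y F (F.pos w) =
      ((y.filter (fun v => v ∈ segment ℝ (en T w) w ∧ T.dim v = 1)).card : ZMod 2) +
        (if w ∈ y then eps F w else 0) := by
  unfold eps
  rw [dif_pos hw]
  exact (exists_eps F hw).choose_spec h3 y he

open Classical in
/-- counting along a full 1-cell -/
theorem cntP_edge (h3 : Module.finrank ℝ E = 3) (y : Finset E) (F : C2 T)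
    (he : Even (yF y F).card) {e a b : E} (heF : e ∈ F.set) (hd : T.dim e = 1)
    (hab : T.cc e = segment ℝ a b) :
    cntP (meshC T h3) y F (F.pos a) + cntP (meshC T h3) y F (F.pos b) =
      ((y.filter (fun v => v ∈ T.cc e ∧ T.dim v = 1)).card : ZMod 2) := by
  have hOn : e ∈ F.On := ⟨heF, hd⟩
  have heO : e ∈ Om := F.set_sub heF
  obtain ⟨hne, ha0, hb0, hop⟩ := ends_of_segment heO hd hab
  have hsub : T.cc e ⊆ F.bd := cc_sub_bd F hOn
  have ham : a ∈ T.cc e := by rw [hab]; exact left_mem_segment ℝ a b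
  have hbm : b ∈ T.cc e := by rw [hab]; exact right_mem_segment ℝ a b
  have ha : a ∉ yF y F := fun h => by
    have := (mem_yF.1 h).2.2
    omega
  have hb : b ∉ yF y F := fun h => by
    have := (mem_yF.1 h).2.2
    omega
  rw [cntP_eq h3 y F he (hsub ham), cntP_eq h3 y F he (hsub hbm), if_neg ha, if_neg hb, add_zero,
    add_zero, (loop_gam F).arc_count (yF_sub y F) he hne (T.convex_cc e).isPreconnected ham hbm
      ha hb hsub (by rw [hop]; exact (convex_openSegment a b).isPreconnected)]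
  congr 2
  ext v
  rw [Finset.mem_filter, Finset.mem_filter, mem_yF]
  constructor
  · rintro ⟨⟨h6, h7⟩, h8⟩
    exact ⟨h6, h8, h7.2⟩
  · rintro ⟨h6, h7, h8⟩
    exact ⟨⟨h6, F.bd_sub (hsub h7), h8⟩, h7⟩

/-- the faces of `q` at `w` -/
theorem faces_unique (h3 : Module.finrank ℝ E = 3) {q : ι} {w : E} {F F' G G' : C2 T}
    (hF : q ∈ F.side h3) (hF' : q ∈ F'.side h3) (hG : q ∈ G.side h3) (hG' : q ∈ G'.side h3)
    (wF : w ∈ F.On) (wF' : w ∈ F'.On) (wG : w ∈ G.On) (wG' : w ∈ G'.On) (hFF : F ≠ F')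
    (hGG : G ≠ G') : (G = F ∧ G' = F') ∨ (G = F' ∧ G' = F) := by
  have hfin : {F | q ∈ (meshC T h3).side F ∧ w ∈ (meshC T h3).On F}.Finite :=
    ((meshC T h3).fin w).subset fun F hF => hF.2
  rcases (meshC T h3).deg q w with h | h
  · exfalso
    rw [Set.ncard_eq_zero hfin] at h
    have : F ∈ (∅ : Set (C2 T)) := h ▸
      (⟨hF, wF⟩ : F ∈ {F | q ∈ (meshC T h3).side F ∧ w ∈ (meshC T h3).On F})
    exact this
  · rw [Set.ncard_eq_two] at h
    obtain ⟨K, K', hne, h⟩ := h
    have key : ∀ L : C2 T, q ∈ L.side h3 → w ∈ L.On → L = K ∨ L = K' := by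
      intro L h1 h2
      have : L ∈ {F | q ∈ (meshC T h3).side F ∧ w ∈ (meshC T h3).On F} := ⟨h1, h2⟩
      rw [h] at this
      simpa using this
    rcases key F hF wF with rfl | rfl <;> rcases key F' hF' wF' with rfl | rfl <;>
      rcases key G hG wG with rfl | rfl <;> rcases key G' hG' wG' with rfl | rfl <;> tauto

open Classical in
/-- **SPHM** (task 2178): the boundary of every tile is a sphere -/
noncomputable def sphM (T : Tiling Om ι) (h3 : Module.finrank ℝ E = 3) (q : ι) :
    SphM (meshC T h3) q where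
  opp := fun w => decide (∃ F F' : C2 T, q ∈ F.side h3 ∧ q ∈ F'.side h3 ∧ w ∈ F.On ∧
    w ∈ F'.On ∧ eps F w ≠ eps F' w)
  sph := by
    intro y hy
    have hev : ∀ F : C2 T, q ∈ F.side h3 → Even (yF y F).card := fun F hF => hy F hF
    -- labels on the tile
    obtain ⟨lam, hlam⟩ := exact_tile2 (T := T) h3 (Q := y.filter (fun v => T.dim v = 1))
      (fun w hw => (Finset.mem_filter.1 hw).2) q (by
        intro x hx hd
        have hF : q ∈ (mk2 T (T.sub q hx) hd).side h3 := by
          rw [C2.mem_side]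
          have h5 : (mk2 T (T.sub q hx) hd).pt ∈ T.oc x := T.pt_cl (T.sub q hx)
          rw [T.at_eq_of_mem_oc (T.sub q hx) h5]
          exact hx
        have h1 := hev _ hF
        rw [← Set.ncard_coe_finset] at h1
        have h2 : ((yF y (mk2 T (T.sub q hx) hd) : Finset E) : Set E) =
            ((y.filter (fun v => T.dim v = 1) : Finset E) : Set E) ∩ T.cc x := by
          ext v
          rw [Finset.mem_coe, mem_yF, mem_inter_iff, Finset.mem_coe, Finset.mem_filter]
          constructor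
          · rintro ⟨h6, h7, h8⟩
            exact ⟨⟨h6, h8⟩, h7⟩
          · rintro ⟨⟨h6, h8⟩, h7⟩
            exact ⟨h6, h7, h8⟩
        rwa [h2] at h1)
    have hlam' : ∀ e ∈ P (T.H q), T.dim e = 1 → ∀ a b, T.cc e = segment ℝ a b →
        lam a + lam b = ((y.filter (fun v => v ∈ T.cc e ∧ T.dim v = 1)).card : ZMod 2) := by
      intro e he h1 a b hab
      rw [exact_kap_iff.1 hlam e he h1 a b hab, ← Set.ncard_coe_finset]
      congr 2
      ext v
      rw [mem_inter_iff, Finset.mem_coe, Finset.mem_coe, Finset.mem_filter, Finset.mem_filter]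
      constructor
      · rintro ⟨⟨h6, h8⟩, h7⟩
        exact ⟨h6, h7, h8⟩
      · rintro ⟨h6, h7, h8⟩
        exact ⟨⟨h6, h8⟩, h7⟩
    -- constancy on the vertices of a face
    have hconst : ∀ F : C2 T, q ∈ F.side h3 → ∀ v ∈ F.set, ∀ v' ∈ F.set, T.dim v = 0 →
        T.dim v' = 0 → lam v + cntP (meshC T h3) y F (F.pos v) =
          lam v' + cntP (meshC T h3) y F (F.pos v') := by
      intro F hF
      refine T.const_of_preconnected (φ := fun v => lam v + cntP (meshC T h3) y F (F.pos v))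
        (by rw [F.set_eq]; exact (T.convex_cc _).isPreconnected) F.set_sub
        (fun x hx => by rw [F.set_eq] at hx ⊢; exact T.cc_sub_of_mem hx) ?_
      intro e he h1 a b hab
      have e1 := hlam' e (C2.sub_tile hF he) h1 a b hab
      have e2 := cntP_edge h3 y F (hev F hF) he h1 hab
      have e4 : ∀ a b c d : ZMod 2, a + b = c + d → a + c = b + d := by decide
      exact e4 _ _ _ _ (e1.trans e2.symm)
    refine ⟨fun F => if h : ∃ v, v ∈ F.set ∧ T.dim v = 0 then
      lam h.choose + cntP (meshC T h3) y F (F.pos h.choose) else 0, ?_⟩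
    have main : ∀ F : C2 T, q ∈ F.side h3 → ∀ w ∈ F.On,
        (if h : ∃ v, v ∈ F.set ∧ T.dim v = 0 then
          lam h.choose + cntP (meshC T h3) y F (F.pos h.choose) else 0) +
            cntP (meshC T h3) y F (F.pos w) = lam (en T w) +
        (((y.filter (fun v => v ∈ segment ℝ (en T w) w ∧ T.dim v = 1)).card : ZMod 2) +
          (if w ∈ y then eps F w else 0)) := by
      intro F hF w hw
      obtain ⟨h1, h2, -, -, -⟩ := en_spec (T := T) (F.set_sub hw.1) hw.2
      have h4 : en T w ∈ F.set := F.bd_sub (cc_sub_bd F hw h2)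
      have h5 : ∃ v, v ∈ F.set ∧ T.dim v = 0 := ⟨_, h4, h1⟩
      rw [dif_pos h5, hconst F hF _ h5.choose_spec.1 _ h4 h5.choose_spec.2 h1, add_assoc,
        eps_spec F hw h3 y (hev F hF)]
    intro F F' w hF hF' hne hw hw'
    have e1 := main F hF w hw
    have e2 := main F' hF' w hw'
    have e3 : (if w ∈ y then eps F w else 0) = (if w ∈ y then eps F' w else 0) +
        (if w ∈ y ∧ decide (∃ F F' : C2 T, q ∈ F.side h3 ∧ q ∈ F'.side h3 ∧ w ∈ F.On ∧
          w ∈ F'.On ∧ eps F w ≠ eps F' w) = true then (1 : ZMod 2) else 0) := by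
      by_cases hwy : w ∈ y
      · rw [if_pos hwy, if_pos hwy]
        have two : ∀ s t : ZMod 2, s ≠ t → s = t + 1 := by decide
        by_cases hc : eps F w = eps F' w
        · rw [if_neg, hc, add_zero]
          rintro ⟨-, h6⟩
          obtain ⟨G, G', hG, hG', wG, wG', h7⟩ := of_decide_eq_true h6
          have hGG : G ≠ G' := fun h8 => h7 (by rw [h8])
          rcases faces_unique h3 hF hF' hG hG' hw hw' wG wG' hne hGG with ⟨rfl, rfl⟩ | ⟨rfl, rfl⟩
          · exact h7 hc
          · exact h7 hc.symm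
        · rw [if_pos ⟨hwy, decide_eq_true ⟨F, F', hF, hF', hw, hw', hc⟩⟩]
          exact two _ _ hc
      · rw [if_neg hwy, if_neg hwy, if_neg (fun h => hwy h.1), add_zero]
    refine Eq.trans e1 ?_
    rw [e3, ← add_assoc, ← add_assoc, add_assoc (lam (en T w)), ← e2]
    rfl

end Crest.Agent.R096.Spm_662
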