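import Crest.Agent.R096.At9_241
import Crest.Agent.R096.Be7_416
import Crest.Agent.R096.Spm2_662
import Crest.Agent.R096.Lm10_117

/-!
# R096 (row 96), (R4), part 19: 241's `GeoIn` from the output of the mesh (helper778)

* `sphM_K` : the boundary of an uncut tile of `meshK` is a sphere;
* **`geoIn_of`** : `At_241.GeoIn` from the output `Inv`, `MGeo` of 416's `StO.mesh`.
-/

set_option autoImplicit false
set_option linter.unusedSectionVars false
set_option linter.style.longLine false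

open Set Metric Module

namespace Crest.Agent.R096.Arc_778

open Crest.Agent.R096.Ce_537 Crest.Agent.R096.Bd_416
  Crest.Agent.R096.Seq_213 Crest.Agent.R096.St_147
  Crest.Agent.R096.Lm_117 Crest.Agent.R096.Cp_298 Crest.Agent.R096.SkB_662
  Crest.Agent.R096.Ac_117 Crest.Agent.R096.Msh_715 Crest.Agent.R096.Agl5_543
open Crest.Agent.R096.Mi_117 (MGeo)
open Crest.Agent.R096.On_441 (Lf xlf)

section sph

variable {E : Type} [NormedAddCommGroup E] [NormedSpace ℝ E] [FiniteDimensional ℝ E]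
variable {Om : Set E} {ι : Type} {T : Tiling Om ι} {κ : Type} {Kc : κ → Set E}

/-- **the boundary of an uncut tile of `meshK` is a sphere** -/
theorem sphM_K [Nonempty T.Cell] {h3 : finrank ℝ E = 3} {hH : ∀ c, CoreH T (Kc c)}
    {hdis : ∀ c c', c ≠ c' → Disjoint (Kc c) (Kc c')} {i : ι} (hi : ∀ c, ¬ P (T.H i) ⊆ Kc c) :
    Nonempty (SphM (mK h3 hH hdis) (Sum.inl i)) := by
  have h1 : piK T Kc i = Sum.inl i := piK_inl.2 ⟨rfl, hi⟩
  have h2 : Ordi (piK T Kc) i := by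
    intro q' hq'
    rw [h1] at hq'
    exact (piK_inl.1 hq').1
  have h4 := sphM_merge (h := connAt_piK h3 (fun c => (hH c).core) (fun c => (hH c).cc) hdis) h2
    (Spm_662.sphM T h3 i)
  rw [h1] at h4
  exact ⟨h4⟩

end sph

section geo

variable {ι Φ W Q J Fm Kq : Type} {M : MeshC ι Φ W} [PartialOrder Q] {dim : Q → ℕ}
variable {L : LM M Q dim} {O : Ori M} {σ : Q → ZMod 2} {Rel : W → W → Prop} {V : Set W}
  {Qd : Quads ι Fm Kq} {κ : Fm → ℕ} {fam : J → Fm} {s₀ : GSt M fam} {far₀ : J → Set W}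
  {Z : Fm → Set Q} {lam₀ : J → Q → ZMod 2} {v₀ v₁ : Fm → Q}
  {hfin : ∀ a, {j | fam j = a}.Finite} {kap : Fm → ℕ} {s : GSt M (fam' fam (Rk κ kap))}
  {far : Nm' fam (Rk κ kap) → Set W} {β : W → W} {lam : Nm' fam (Rk κ kap) → Q → ZMod 2}
variable {E' : Type*} [NormedAddCommGroup E'] [NormedSpace ℝ E'] [FiniteDimensional ℝ E']
variable {K : Q → Set E'} {g : Gd E' (Nm' fam (Rk κ kap))} {Ω0 : Set E'} {R : Set Q}

/-- **`GeoIn` from the output of 416's `StO.mesh`** -/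
theorem geoIn_of (h : StO L O σ Rel V Qd κ s₀ far₀ Z lam₀ v₀ v₁ hfin kap s far β lam)
    {P : ∀ q, h.cmb.I q → Set E'} {c : ∀ q, h.cmb.I q → E' → ℝ}
    (H : Inv h.cmb K univ g P c) (X : Cplx Ω0 Q dim K)
    (m : MGeo h.lfs (Lf lam) (xlf h.lab.lab) K R c) (hR : ∀ q ∈ R, dim q ≤ 2)
    (hS : ∀ τ, (∃ k, τ ∈ Qd.Act k) → Nonempty (SphM M τ)) :
    At_241.GeoIn h Ω0 K g P c R (ek h.lfs) where
  inv := H
  cplx := X
  geo := m.geo
  geoR := m.geoR
  cmbG := m.cmbG
  hk := fun _ _ _ => rfl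
  GO := fun e _ he => (m.edge e he).2
  B2 := hR
  sph := hS

end geo

end Crest.Agent.R096.Arc_778
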