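import Mathlib

/-!
# R096 / ARR (AR)(b): a finite graph of arcs without closed curves and with two ends is one path
(helper422).  Abstract induction principle `Chn.path_ind`.
-/

set_option autoImplicit false

namespace Crest.Agent.R096.Arc_422

variable {Z ι : Type*}

/-- Nodes `Z`, active sides `S z`, arcs `z — arc q z` for `q ∈ S z`; two end nodes `e ≠ e'` with
one active side, all other nodes have two; no closed curve. -/
structure Chn (Z ι : Type*) where
  S : Z → Set ι
  arc : ι → Z → Z
  e : Z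
  e' : Z
  ne : ∀ {q z}, q ∈ S z → arc q z ≠ z
  mem : ∀ {q z}, q ∈ S z → q ∈ S (arc q z)
  inv : ∀ {q z}, q ∈ S z → arc q (arc q z) = z
  one : ∃ q, S e = {q}
  one' : ∃ q, S e' = {q}
  ee : e ≠ e'
  two : ∀ z, z ≠ e → z ≠ e' → ∃ q q', q ≠ q' ∧ S z = {q, q'}
  no : ∀ G : Set Z, (∀ z ∈ G, z ≠ e ∧ z ≠ e' ∧ ∀ q ∈ S z, arc q z ∈ G) → G = ∅

variable (C : Chn Z ι)

/-- the nodes `Q` have been visited, the next step goes from `z` through the cell `q` -/
structure Chn.Inv (Q : Set Z) (z : Z) (q : ι) : Prop where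
  hz : z ∈ Q
  hq : q ∈ C.S z
  he : C.e ∈ Q
  cl : ∀ u ∈ Q, ∀ r ∈ C.S u, (u, r) ≠ (z, q) → C.arc r u ∈ Q ∧ (C.arc r u, r) ≠ (z, q)

variable {C}

theorem Chn.Inv.notMem {Q : Set Z} {z : Z} {q : ι} (h : C.Inv Q z q) : C.arc q z ∉ Q := by
  intro hQ
  have h1 := h.cl (C.arc q z) hQ q (C.mem h.hq) (by
    intro he
    exact C.ne h.hq (congrArg Prod.fst he))
  rw [C.inv h.hq] at h1
  exact h1.2 rfl

theorem Chn.Inv.first {q : ι} (hq : q ∈ C.S C.e) : C.Inv {C.e} C.e q where
  hz := rfl
  hq := hq
  he := rfl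
  cl := by
    intro u hu r hr hne
    obtain ⟨q₀, h0⟩ := C.one
    rw [Set.mem_singleton_iff] at hu
    subst hu
    rw [h0, Set.mem_singleton_iff] at hq hr
    exact (hne (by rw [hq, hr])).elim

theorem Chn.Inv.step {Q : Set Z} {z : Z} {q q' : ι} (h : C.Inv Q z q)
    (hq' : q' ∈ C.S (C.arc q z)) (hne : q' ≠ q) :
    C.Inv (insert (C.arc q z) Q) (C.arc q z) q' where
  hz := Set.mem_insert _ _
  hq := hq'
  he := Set.mem_insert_of_mem _ h.he
  cl := by
    have hn := h.notMem
    have hz' : C.arc q z ≠ C.e := fun he => hn (he ▸ h.he)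
    have hm : q ∈ C.S (C.arc q z) := C.mem h.hq
    intro u hu r hr hur
    rcases Set.mem_insert_iff.1 hu with rfl | hu
    · -- `r = q`
      have hrq : r = q := by
        by_cases he' : C.arc q z = C.e'
        · obtain ⟨q₀, h0⟩ := C.one'
          rw [he', h0, Set.mem_singleton_iff] at hr hq' hm
          exact (hne (hq'.trans hm.symm)).elim
        · obtain ⟨a, b, -, hab⟩ := C.two _ hz' he'
          rw [hab, Set.mem_insert_iff, Set.mem_singleton_iff] at hr hq' hm
          by_contra hrq
          have hrq' : r ≠ q' := fun h => hur (by rw [h])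
          rcases hr with h1 | h1 <;> rcases hq' with h2 | h2 <;> rcases hm with h3 | h3
          · exact hrq (h1.trans h3.symm)
          · exact hrq' (h1.trans h2.symm)
          · exact hrq (h1.trans h3.symm)
          · exact hne (h2.trans h3.symm)
          · exact hne (h2.trans h3.symm)
          · exact hrq (h1.trans h3.symm)
          · exact hrq' (h1.trans h2.symm)
          · exact hrq (h1.trans h3.symm)
      subst hrq
      rw [C.inv h.hq]
      refine ⟨Set.mem_insert_of_mem _ h.hz, fun he => ?_⟩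
      have h1 : z = C.arc r z := congrArg Prod.fst he
      apply hn
      rw [← h1]
      exact h.hz
    · by_cases hz : (u, r) = (z, q)
      · obtain ⟨rfl, rfl⟩ := Prod.mk.inj hz
        exact ⟨Set.mem_insert _ _, fun he => hne (congrArg Prod.snd he).symm⟩
      · have h1 := h.cl u hu r hr hz
        refine ⟨Set.mem_insert_of_mem _ h1.1, fun he => ?_⟩
        have h2 : C.arc r u = C.arc q z := congrArg Prod.fst he
        exact hn (h2 ▸ h1.1)

theorem Chn.Inv.last {Q : Set Z} {z : Z} {q : ι} (h : C.Inv Q z q) (he : C.arc q z = C.e') :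
    insert (C.arc q z) Q = Set.univ := by
  have hcl : ∀ u ∈ insert (C.arc q z) Q, ∀ r ∈ C.S u, C.arc r u ∈ insert (C.arc q z) Q := by
    intro u hu r hr
    rcases Set.mem_insert_iff.1 hu with rfl | hu
    · obtain ⟨q₀, h0⟩ := C.one'
      have hm : q ∈ C.S (C.arc q z) := C.mem h.hq
      have hrq : r = q := by
        rw [he, h0, Set.mem_singleton_iff] at hr hm
        exact hr.trans hm.symm
      subst hrq
      rw [C.inv h.hq]
      exact Set.mem_insert_of_mem _ h.hz
    · by_cases hz : (u, r) = (z, q)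
      · obtain ⟨rfl, rfl⟩ := Prod.mk.inj hz
        exact Set.mem_insert _ _
      · exact Set.mem_insert_of_mem _ (h.cl u hu r hr hz).1
  have h1 := C.no (insert (C.arc q z) Q)ᶜ (by
    intro w hw
    refine ⟨fun h' => hw ?_, fun h' => hw ?_, fun r hr h' => hw ?_⟩
    · rw [h']; exact Set.mem_insert_of_mem _ h.he
    · rw [h', ← he]; exact Set.mem_insert _ _
    · have h2 := hcl _ h' r (C.mem hr)
      rwa [C.inv hr] at h2)
  exact Set.compl_empty_iff.1 h1

/-- **induction along the path** -/
theorem Chn.path_ind [Finite Z] (P : Set Z → Z → ι → Prop) (P' : Prop)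
    (h0 : ∀ q ∈ C.S C.e, P {C.e} C.e q)
    (step : ∀ Q z q, C.Inv Q z q → P Q z q → ∀ q' ∈ C.S (C.arc q z), q' ≠ q →
      P (insert (C.arc q z) Q) (C.arc q z) q')
    (fin : ∀ Q z q, C.Inv Q z q → P Q z q → C.arc q z = C.e' →
      insert (C.arc q z) Q = Set.univ → P') : P' := by
  have key : ∀ n : ℕ, ∀ Q z q, C.Inv Q z q → P Q z q → Qᶜ.ncard = n → P' := by
    intro n
    induction n using Nat.strong_induction_on with
    | _ n ih =>
      intro Q z q hI hP hn
      by_cases he : C.arc q z = C.e'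
      · exact fin Q z q hI hP he (hI.last he)
      · have hz' : C.arc q z ≠ C.e := fun h => hI.notMem (h ▸ hI.he)
        obtain ⟨a, b, hab, hS⟩ := C.two _ hz' he
        have hm : q ∈ C.S (C.arc q z) := C.mem hI.hq
        obtain ⟨q', hq', hne⟩ : ∃ q' ∈ C.S (C.arc q z), q' ≠ q := by
          rw [hS] at hm ⊢
          rcases hm with h | h
          · exact ⟨b, by simp, fun h' => hab (h ▸ h'.symm)⟩
          · rw [Set.mem_singleton_iff] at h
            exact ⟨a, by simp, fun h' => hab (h ▸ h')⟩
        refine ih _ ?_ _ _ _ (hI.step hq' hne) (step Q z q hI hP q' hq' hne) rfl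
        rw [← hn]
        apply Set.ncard_lt_ncard _ (Set.toFinite _)
        refine ⟨fun w hw h => hw (Set.mem_insert_of_mem _ h), fun hsub => ?_⟩
        exact hsub (show C.arc q z ∈ Qᶜ from hI.notMem) (Set.mem_insert _ _)
  obtain ⟨q, hq⟩ := C.one
  have hq' : q ∈ C.S C.e := by rw [hq]; rfl
  exact key _ _ _ _ (Chn.Inv.first hq') (h0 q hq') rfl

/-- every node is joined with `e`: a function constant along the arcs is constant -/
theorem Chn.const [Finite Z] {α : Type*} (f : Z → α)
    (h : ∀ z, ∀ q ∈ C.S z, f (C.arc q z) = f z) (z z' : Z) : f z = f z' := by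
  have h1 : ∀ z, f z = f C.e := by
    refine C.path_ind (fun Q _ _ => ∀ u ∈ Q, f u = f C.e) _ ?_ ?_ ?_
    · intro q _ u hu
      rw [Set.mem_singleton_iff.1 hu]
    · intro Q z q hI hP q' _ _ u hu
      rcases Set.mem_insert_iff.1 hu with rfl | hu
      · rw [h z q hI.hq]; exact hP z hI.hz
      · exact hP u hu
    · intro Q z q hI hP _ hu w
      have hw : w ∈ insert (C.arc q z) Q := by rw [hu]; trivial
      rcases Set.mem_insert_iff.1 hw with rfl | hw
      · rw [h z q hI.hq]; exact hP z hI.hz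
      · exact hP w hw
  rw [h1 z, h1 z']

end Crest.Agent.R096.Arc_422
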