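import Crest.Agent.R096.Bd6_416
import Crest.Agent.R096.Cx3_609

/-!
# R096 (row 96), (R4) CELL GEOMETRY, part 1: the lid over a ball; cells filled by the cone rule
(helper778)

* `lid` : `Γ × [r₀,r₁] ∪ Δ × {r₀}` is a ball with boundary `Γ × {r₁}` if `Δ` is a ball with
  boundary `Γ`.
* `ConeCell e c ρ` : sign information of the band functions in a cell filled by the cone rule.
* `ConeCell.ball` : the sheet piece `{c i = 0}` is a ball with boundary `{c i = 0} ∩ ∂`.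
* `ConeCell.inter` : the intersection of two sheet pieces.
-/

set_option autoImplicit false

open Set Metric

namespace Crest.Agent.R096.Arc_778

open Crest.Agent.R096.Ce_537 Crest.Agent.R096.Bd_416

section Lid

variable {E : Type*} [NormedAddCommGroup E] [NormedSpace ℝ E] [FiniteDimensional ℝ E]

lemma cf_half (t : ℝ) : cf (1/2) t = 2 * t := by
  unfold cf
  rcases le_total 0 t with h | h
  · rw [max_eq_right (by linarith), max_eq_left (by linarith)]; ring
  · rw [max_eq_left (by linarith), max_eq_right (by linarith)]; ring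

/-- the lid map in the model -/
lemma lid_norm {k : ℕ} (x : Fin k → ℝ) (hx : ‖x‖ ≤ 1) :
    ‖fun j => cf (max ‖x‖ (1/2)) (x j)‖ ≤ 1 ∧
      (1/2 ≤ ‖x‖ → ‖fun j => cf (max ‖x‖ (1/2)) (x j)‖ = 1) ∧
      (‖x‖ ≤ 1/2 → (fun j => cf (max ‖x‖ (1/2)) (x j)) = (2:ℝ) • x) := by
  have h1 : 1/2 ≤ ‖x‖ → ‖fun j => cf (max ‖x‖ (1/2)) (x j)‖ = 1 := by
    intro h
    rw [max_eq_left h]
    exact norm_cf (x := x) ⟨h, hx⟩
  have h2 : ‖x‖ ≤ 1/2 → (fun j => cf (max ‖x‖ (1/2)) (x j)) = (2:ℝ) • x := by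
    intro h
    rw [max_eq_right h]
    funext j
    rw [cf_half]; rfl
  refine ⟨?_, h1, h2⟩
  rcases le_total (1/2) ‖x‖ with h | h
  · exact (h1 h).le
  · rw [h2 h, norm_smul, Real.norm_eq_abs, abs_of_pos two_pos]; linarith

/-- **the lid over a ball is a ball** -/
theorem lid {k : ℕ} {Δ Γ : Set E} (h : IsBall k Δ Γ) {r0 r1 : ℝ} (hr : r0 < r1) :
    IsBall k (Γ ×ˢ Icc r0 r1 ∪ Δ ×ˢ {r0}) (Γ ×ˢ {r1}) := by
  obtain ⟨a, rfl⟩ := h
  set φ : (Fin k → ℝ) → E × ℝ := fun x =>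
    (a.f (fun j => cf (max ‖x‖ (1/2)) (x j)), r0 + (r1 - r0) * (2 * max ‖x‖ (1/2) - 1)) with hφ
  have hd : 0 < r1 - r0 := by linarith
  have hpm : PLOn (fun x : Fin k → ℝ => max ‖x‖ (1/2)) (cube k) :=
    pl_max (pl_norm _) (plOn_const _ _)
  have hpl : PLOn φ (cube k) := by
    refine pl_pair (a.pf.comp (pl_pi fun i => pl_cf hpm (pl_apply (plOn_id _) i)) ?_) ?_
    · intro x hx
      have hx' : ‖x‖ ≤ 1 := by simpa using hx
      have := (lid_norm x hx').1
      simpa using this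
    · exact pl_add (plOn_const _ _) (pl_mul _ (pl_sub_const (pl_mul 2 hpm) 1))
  have hinj : InjOn φ (cube k) := by
    intro x hx y hy hxy
    have hx' : ‖x‖ ≤ 1 := by simpa using hx
    have hy' : ‖y‖ ≤ 1 := by simpa using hy
    have e1 : a.f (fun j => cf (max ‖x‖ (1/2)) (x j)) = a.f (fun j => cf (max ‖y‖ (1/2)) (y j)) :=
      congrArg Prod.fst hxy
    have e2 : r0 + (r1 - r0) * (2 * max ‖x‖ (1/2) - 1) = r0 + (r1 - r0) * (2 * max ‖y‖ (1/2) - 1) :=
      congrArg Prod.snd hxy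
    have e3 : max ‖x‖ (1/2) = max ‖y‖ (1/2) := by
      have h1 : (r1 - r0) * (2 * max ‖x‖ (1/2) - 1) = (r1 - r0) * (2 * max ‖y‖ (1/2) - 1) := by
        linarith
      have h2 := mul_left_cancel₀ hd.ne' h1
      linarith
    have e4 := a.injOn (by simpa using (lid_norm x hx').1) (by simpa using (lid_norm y hy').1) e1
    funext j
    have e5 : cf (max ‖x‖ (1/2)) (x j) = cf (max ‖x‖ (1/2)) (y j) := by
      have h7 : cf (max ‖x‖ (1/2)) (x j) = cf (max ‖y‖ (1/2)) (y j) := congrFun e4 j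
      rw [h7, e3]
    have e6 : 1/2 ≤ max ‖x‖ (1/2) := le_max_right _ _
    rw [← cg_cf (x := x j) e6, e5, cg_cf e6]
  have hb := Cx_609.isBall_of_injOn hpl hinj
  have im1 : φ '' cube k = (a.f '' sph k) ×ˢ Icc r0 r1 ∪ Δ ×ˢ {r0} := by
    apply Subset.antisymm
    · rintro _ ⟨x, hx, rfl⟩
      have hx' : ‖x‖ ≤ 1 := by simpa using hx
      obtain ⟨h1, h2, h3⟩ := lid_norm x hx'
      rcases le_total (1/2) ‖x‖ with h | h
      · left
        refine ⟨⟨_, by simpa using h2 h, rfl⟩, ?_⟩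
        show r0 + (r1 - r0) * (2 * max ‖x‖ (1/2) - 1) ∈ Icc r0 r1
        rw [max_eq_left h]
        constructor <;> nlinarith
      · right
        refine ⟨a.mf (by simpa using h1), ?_⟩
        show r0 + (r1 - r0) * (2 * max ‖x‖ (1/2) - 1) = r0
        rw [max_eq_right h]; ring
    · rintro ⟨ω, r⟩ (⟨⟨u, hu, hω⟩, hr'⟩ | ⟨hω, hr'⟩)
      · have hω' : a.f u = ω := hω
        have hr1 : r0 ≤ r := hr'.1
        have hr2 : r ≤ r1 := hr'.2
        set s : ℝ := (1 + (r - r0) / (r1 - r0)) / 2 with hs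
        have hs0 : 0 ≤ (r - r0) / (r1 - r0) := div_nonneg (by linarith) hd.le
        have hs1 : (r - r0) / (r1 - r0) ≤ 1 := by rw [div_le_one hd]; linarith
        have hsI : s ∈ Icc (1/2:ℝ) 1 := by
          constructor
          · rw [hs]; linarith
          · rw [hs]; linarith
        have hn := norm_cg (n := k) (ω := u) hu hsI
        refine ⟨fun j => cg s (u j), ?_, ?_⟩
        · rw [mem_closedBall, dist_zero_right, hn]; exact hsI.2
        · have hm : max ‖fun j => cg s (u j)‖ (1/2) = s := by rw [hn]; exact max_eq_left hsI.1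
          apply Prod.ext
          · show a.f (fun j => cf (max ‖fun j => cg s (u j)‖ (1/2)) (cg s (u j))) = ω
            rw [hm, ← hω']
            congr 1
            funext j
            exact cf_cg hsI.1
          · show r0 + (r1 - r0) * (2 * max ‖fun j => cg s (u j)‖ (1/2) - 1) = r
            rw [hm, hs]
            field_simp
            ring
      · have hr'' : r = r0 := hr'
        have hΔ : ω ∈ a.f '' cube k := by rw [a.image_eq]; exact hω
        obtain ⟨u, hu, rfl⟩ := hΔ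
        have hu' : ‖u‖ ≤ 1 := by simpa using hu
        have hn : ‖(1/2:ℝ) • u‖ ≤ 1/2 := by
          rw [norm_smul, Real.norm_eq_abs, abs_of_pos (by norm_num : (0:ℝ) < 1/2)]; linarith
        refine ⟨(1/2:ℝ) • u, by rw [mem_closedBall, dist_zero_right]; linarith, ?_⟩
        apply Prod.ext
        · show a.f (fun j => cf (max ‖(1/2:ℝ) • u‖ (1/2)) (((1/2:ℝ) • u) j)) = a.f u
          rw [(lid_norm ((1/2:ℝ) • u) (by linarith)).2.2 hn, smul_smul]
          norm_num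
        · show r0 + (r1 - r0) * (2 * max ‖(1/2:ℝ) • u‖ (1/2) - 1) = r
          rw [max_eq_right hn, hr'']; ring
  have im2 : φ '' sph k = (a.f '' sph k) ×ˢ {r1} := by
    have key : ∀ x ∈ sph k, φ x = (a.f x, r1) := by
      intro x hx
      have hx' : ‖x‖ = 1 := by simpa using hx
      have hm : max ‖x‖ (1/2) = 1 := by rw [hx']; norm_num
      apply Prod.ext
      · show a.f (fun j => cf (max ‖x‖ (1/2)) (x j)) = a.f x
        rw [hm]
        congr 1
        funext j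
        exact cf_one (by rw [← hx']; exact abs_apply_le x j)
      · show r0 + (r1 - r0) * (2 * max ‖x‖ (1/2) - 1) = r1
        rw [hm]; ring
    ext p
    constructor
    · rintro ⟨x, hx, rfl⟩
      rw [key x hx]
      exact ⟨⟨x, hx, rfl⟩, rfl⟩
    · rintro ⟨⟨x, hx, h1⟩, h2⟩
      refine ⟨x, hx, ?_⟩
      rw [key x hx]
      exact Prod.ext h1 h2.symm
  rw [im1, im2] at hb
  exact hb

end Lid

section Cone

variable {E : Type*} [NormedAddCommGroup E] [NormedSpace ℝ E] {ι : Type*} {n : ℕ} {K dK : Set E}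

/-- the radius of a point of the cell -/
noncomputable def rad (e : PLEquiv (cube n) K) (z : E) : ℝ := ‖e.g z‖

/-- the projection to the boundary along the collar -/
noncomputable def prj (e : PLEquiv (cube n) K) (z : E) : E := e.f ((collar n).f (e.g z)).1

/-- the outer part of the cell -/
def Out (e : PLEquiv (cube n) K) : Set E := {z | z ∈ K ∧ 1/2 ≤ rad e z}

lemma rad_le (e : PLEquiv (cube n) K) {z : E} (hz : z ∈ K) : rad e z ≤ 1 := by
  simpa [rad] using e.mg hz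

lemma mem_ann (e : PLEquiv (cube n) K) {z : E} (hz : z ∈ Out e) : e.g z ∈ Ann n :=
  ⟨hz.2, rad_le e hz.1⟩

variable (e : PLEquiv (cube n) K) (he : e.f '' sph n = dK)
include he

lemma bd_sph {ω : E} (hω : ω ∈ dK) : e.g ω ∈ sph n ∧ e.f (e.g ω) = ω := g_sph e he hω

lemma bd_sub : dK ⊆ K := dq_subset e he

lemma rad_bd {ω : E} (hω : ω ∈ dK) : rad e ω = 1 := by
  simpa [rad] using (bd_sph e he hω).1

lemma prj_bd {ω : E} (hω : ω ∈ dK) : prj e ω = ω := by
  obtain ⟨h1, h2⟩ := bd_sph e he hω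
  unfold prj
  rw [collar_f_sph h1]; exact h2

lemma prj_mem {z : E} (hz : z ∈ Out e) : prj e z ∈ dK := by
  rw [← he]
  exact ⟨_, ((collar n).mf (mem_ann e hz)).1, rfl⟩

lemma bd_out : dK ⊆ Out e := fun ω hω => ⟨bd_sub e he hω, by rw [rad_bd e he hω]; norm_num⟩

/-- the collar of the cell -/
noncomputable def Th : PLEquiv (dK ×ˢ Icc (1/2 : ℝ) 1) (Out e) where
  f p := e.f ((collar n).g (e.g p.1, p.2))
  g z := (prj e z, rad e z)
  pf := by
    refine e.pf.comp ((collar n).pg.comp (pl_pair (e.pg.comp (pl_fst (plOn_id _)) ?_)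
      (pl_snd (plOn_id _))) ?_) ?_
    · intro p hp; exact bd_sub e he hp.1
    · intro p hp; exact ⟨(bd_sph e he hp.1).1, hp.2⟩
    · intro p hp
      have := (collar n).mg (show ((e.g p.1, p.2) : (Fin n → ℝ) × ℝ) ∈ PS (sph n) from
        ⟨(bd_sph e he hp.1).1, hp.2⟩)
      rw [mem_closedBall, dist_zero_right]; exact this.2
  pg := by
    refine pl_pair (e.pf.comp (pl_fst ((collar n).pf.comp (e.pg.mono (fun z hz => hz.1)) ?_)) ?_)
      ((pl_norm _).comp (e.pg.mono (fun z hz => hz.1)) (fun z _ => mem_univ _))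
    · intro z hz; exact mem_ann e hz
    · intro z hz
      exact sph_subset_cube ((collar n).mf (mem_ann e hz)).1
  mf p hp := by
    have h1 : ((e.g p.1, p.2) : (Fin n → ℝ) × ℝ) ∈ PS (sph n) := ⟨(bd_sph e he hp.1).1, hp.2⟩
    have h2 := (collar n).mg h1
    have h3 : (collar n).g (e.g p.1, p.2) ∈ cube n := by
      rw [mem_closedBall, dist_zero_right]; exact h2.2
    refine ⟨e.mf h3, ?_⟩
    unfold rad
    rw [e.li _ h3]; exact h2.1
  mg z hz := ⟨prj_mem e he hz, hz.2, rad_le e hz.1⟩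
  li p hp := by
    have h1 : ((e.g p.1, p.2) : (Fin n → ℝ) × ℝ) ∈ PS (sph n) := ⟨(bd_sph e he hp.1).1, hp.2⟩
    have h2 := (collar n).mg h1
    have h3 : (collar n).g (e.g p.1, p.2) ∈ cube n := by
      rw [mem_closedBall, dist_zero_right]; exact h2.2
    have h4 := (collar n).ri _ h1
    apply Prod.ext
    · show e.f ((collar n).f (e.g (e.f ((collar n).g (e.g p.1, p.2))))).1 = p.1
      rw [e.li _ h3, h4]
      exact (bd_sph e he hp.1).2
    · show ‖e.g (e.f ((collar n).g (e.g p.1, p.2)))‖ = p.2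
      rw [e.li _ h3]
      exact congrArg Prod.snd h4
  ri z hz := by
    have h1 := mem_ann e hz
    have h2 := (collar n).mf h1
    show e.f ((collar n).g (e.g (e.f ((collar n).f (e.g z)).1), ‖e.g z‖)) = z
    rw [e.li _ (sph_subset_cube h2.1)]
    have h3 : (((collar n).f (e.g z)).1, ‖e.g z‖) = (collar n).f (e.g z) := rfl
    rw [h3, (collar n).li _ h1]
    exact e.ri z hz.1

lemma Th_rad {p : E × ℝ} (hp : p ∈ dK ×ˢ Icc (1/2 : ℝ) 1) : rad e ((Th e he).f p) = p.2 :=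
  congrArg Prod.snd ((Th e he).li p hp)

lemma Th_prj {p : E × ℝ} (hp : p ∈ dK ×ˢ Icc (1/2 : ℝ) 1) : prj e ((Th e he).f p) = p.1 :=
  congrArg Prod.fst ((Th e he).li p hp)

lemma Th_ri {z : E} (hz : z ∈ Out e) : (Th e he).f (prj e z, rad e z) = z := (Th e he).ri z hz

lemma Th_one {ω : E} (hω : ω ∈ dK) : (Th e he).f (ω, 1) = ω := by
  have h := Th_ri e he (bd_out e he hω)
  rwa [prj_bd e he hω, rad_bd e he hω] at h

omit he in
/-- **sign information of the band functions in a cell filled by the cone rule** -/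
structure ConeCell (e : PLEquiv (cube n) K) (c : ι → E → ℝ) (ρ : ι → ℝ) : Prop where
  lo : ∀ i, 1/2 < ρ i
  hi : ∀ i, ρ i < 1
  low : ∀ i, ∀ z ∈ K, rad e z ≤ 1/2 → c i z < 0
  sgn : ∀ i, ∀ z ∈ K, 1/2 ≤ rad e z →
    SignType.sign (c i z) = SignType.sign (min (c i (prj e z)) (rad e z - ρ i))

/-- the curve (end points) of `i` on the boundary -/
def Gam (dK : Set E) (c : ι → E → ℝ) (i : ι) : Set E := {ω | ω ∈ dK ∧ c i ω = 0}

/-- the inside of `i` on the boundary -/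
def Dlt (dK : Set E) (c : ι → E → ℝ) (i : ι) : Set E := {ω | ω ∈ dK ∧ 0 ≤ c i ω}

/-- the sheet piece -/
def Zer (K : Set E) (c : ι → E → ℝ) (i : ι) : Set E := {z | z ∈ K ∧ c i z = 0}

namespace ConeCell

variable {e he} {c : ι → E → ℝ} {ρ : ι → ℝ} (H : ConeCell e c ρ)
include H

omit he

lemma nonneg_iff {i : ι} {z : E} (hz : z ∈ K) :
    0 ≤ c i z ↔ 1/2 ≤ rad e z ∧ 0 ≤ c i (prj e z) ∧ ρ i ≤ rad e z := by
  rcases le_or_gt (1/2) (rad e z) with h | h
  · have h1 := H.sgn i z hz h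
    have h2 : 0 ≤ c i z ↔ 0 ≤ min (c i (prj e z)) (rad e z - ρ i) := by
      rw [← sign_nonneg_iff, h1, sign_nonneg_iff]
    rw [h2, le_min_iff, sub_nonneg]
    exact ⟨fun h3 => ⟨h, h3⟩, fun h3 => h3.2⟩
  · constructor
    · intro h1; exact absurd h1 (not_le.2 (H.low i z hz h.le))
    · intro h1; exact absurd h1.1 (not_le.2 h)

lemma pos_iff {i : ι} {z : E} (hz : z ∈ K) :
    0 < c i z ↔ 1/2 ≤ rad e z ∧ 0 < c i (prj e z) ∧ ρ i < rad e z := by
  rcases le_or_gt (1/2) (rad e z) with h | h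
  · have h1 := H.sgn i z hz h
    have h2 : 0 < c i z ↔ 0 < min (c i (prj e z)) (rad e z - ρ i) := by
      rw [← sign_eq_one_iff, h1, sign_eq_one_iff]
    rw [h2, lt_min_iff, sub_pos]
    exact ⟨fun h3 => ⟨h, h3⟩, fun h3 => h3.2⟩
  · constructor
    · intro h1; exact absurd h1 (not_lt.2 (H.low i z hz h.le).le)
    · intro h1; exact absurd h1.1 (not_le.2 h)

lemma zero_iff {i : ι} {z : E} (hz : z ∈ K) :
    c i z = 0 ↔ 1/2 ≤ rad e z ∧ ((c i (prj e z) = 0 ∧ ρ i ≤ rad e z) ∨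
      (0 ≤ c i (prj e z) ∧ rad e z = ρ i)) := by
  have h1 : c i z = 0 ↔ 0 ≤ c i z ∧ ¬ 0 < c i z :=
    ⟨fun h => ⟨h.ge, h.not_gt⟩, fun h => le_antisymm (not_lt.1 h.2) h.1⟩
  rw [h1, H.nonneg_iff hz, H.pos_iff hz]
  constructor
  · rintro ⟨⟨h2, h3, h4⟩, h5⟩
    refine ⟨h2, ?_⟩
    by_cases h6 : ρ i < rad e z
    · left
      refine ⟨le_antisymm (not_lt.1 fun h7 => h5 ⟨h2, h7, h6⟩) h3, h4⟩
    · right; exact ⟨h3, le_antisymm (not_lt.1 h6) h4⟩
  · rintro ⟨h2, ⟨h3, h4⟩ | ⟨h3, h4⟩⟩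
    · exact ⟨⟨h2, h3.ge, h4⟩, fun h5 => h5.2.1.ne' h3⟩
    · exact ⟨⟨h2, h3, h4.ge⟩, fun h5 => h5.2.2.ne' h4⟩

end ConeCell

variable {e he} {c : ι → E → ℝ} {ρ : ι → ℝ}

omit [NormedAddCommGroup E] [NormedSpace ℝ E] he in
lemma lid_subset {Δ Γ : Set E} (h1 : Δ ⊆ dK) (h2 : Γ ⊆ dK) {r : ℝ} (hr : 1/2 < r) (hr1 : r < 1) :
    Γ ×ˢ Icc r 1 ∪ Δ ×ˢ {r} ⊆ dK ×ˢ Icc (1/2 : ℝ) 1 := by
  rintro ⟨ω, t⟩ (⟨h3, h4⟩ | ⟨h3, h4⟩)
  · exact ⟨h2 h3, hr.le.trans h4.1, h4.2⟩
  · have : t = r := h4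
    subst this
    exact ⟨h1 h3, hr.le, hr1.le⟩

/-- the zero set -/
theorem ConeCell.zer_eq (H : ConeCell e c ρ) (i : ι) :
    Zer K c i = (Th e he).f '' (Gam dK c i ×ˢ Icc (ρ i) 1 ∪ Dlt dK c i ×ˢ {ρ i}) := by
  have hl := H.lo i
  have hh := H.hi i
  ext z
  constructor
  · rintro ⟨hz, h0⟩
    obtain ⟨h1, h2⟩ := (H.zero_iff hz).1 h0
    have hO : z ∈ Out e := ⟨hz, h1⟩
    refine ⟨(prj e z, rad e z), ?_, Th_ri e he hO⟩
    rcases h2 with ⟨h2, h3⟩ | ⟨h2, h3⟩
    · left; exact ⟨⟨prj_mem e he hO, h2⟩, h3, rad_le e hz⟩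
    · right; exact ⟨⟨prj_mem e he hO, h2⟩, h3⟩
  · rintro ⟨p, hp, rfl⟩
    have hp' := lid_subset (dK := dK) (fun ω h => h.1) (fun ω h => h.1) hl hh hp
    have hm := (Th e he).mf hp'
    refine ⟨hm.1, (H.zero_iff hm.1).2 ⟨hm.2, ?_⟩⟩
    rw [Th_rad e he hp', Th_prj e he hp']
    rcases hp with ⟨h1, h2⟩ | ⟨h1, h2⟩
    · left; exact ⟨h1.2, h2.1⟩
    · right; exact ⟨h1.2, h2⟩

/-- **the intersection of two sheet pieces** (`j` deeper) -/
theorem ConeCell.inter_eq (H : ConeCell e c ρ) {i j : ι} (hij : ρ j < ρ i) :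
    Zer K c i ∩ Zer K c j = (Th e he).f '' ((Gam dK c i ∩ Gam dK c j) ×ˢ Icc (ρ i) 1 ∪
      (Dlt dK c i ∩ Gam dK c j) ×ˢ {ρ i}) := by
  have hl := H.lo i
  have hh := H.hi i
  ext z
  constructor
  · rintro ⟨⟨hz, h0⟩, -, h0'⟩
    obtain ⟨h1, h2⟩ := (H.zero_iff hz).1 h0
    obtain ⟨-, h2'⟩ := (H.zero_iff hz).1 h0'
    have hO : z ∈ Out e := ⟨hz, h1⟩
    refine ⟨(prj e z, rad e z), ?_, Th_ri e he hO⟩
    rcases h2 with ⟨h2, h3⟩ | ⟨h2, h3⟩
    · rcases h2' with ⟨h4, h5⟩ | ⟨h4, h5⟩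
      · left; exact ⟨⟨⟨prj_mem e he hO, h2⟩, prj_mem e he hO, h4⟩, h3, rad_le e hz⟩
      · rw [h5] at h3; exact absurd h3 (not_le.2 hij)
    · rcases h2' with ⟨h4, h5⟩ | ⟨h4, h5⟩
      · right; exact ⟨⟨⟨prj_mem e he hO, h2⟩, prj_mem e he hO, h4⟩, h3⟩
      · rw [h5] at h3; exact absurd h3 hij.ne
  · rintro ⟨p, hp, rfl⟩
    have hp' := lid_subset (dK := dK) (Δ := Dlt dK c i ∩ Gam dK c j)
      (Γ := Gam dK c i ∩ Gam dK c j) (fun ω h => h.1.1) (fun ω h => h.1.1) hl hh hp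
    have hm := (Th e he).mf hp'
    refine ⟨⟨hm.1, (H.zero_iff hm.1).2 ⟨hm.2, ?_⟩⟩, hm.1, (H.zero_iff hm.1).2 ⟨hm.2, ?_⟩⟩
    · rw [Th_rad e he hp', Th_prj e he hp']
      rcases hp with ⟨h1, h2⟩ | ⟨h1, h2⟩
      · left; exact ⟨h1.1.2, h2.1⟩
      · right; exact ⟨h1.1.2, h2⟩
    · rw [Th_rad e he hp', Th_prj e he hp']
      left
      rcases hp with ⟨h1, h2⟩ | ⟨h1, h2⟩
      · exact ⟨h1.2.2, hij.le.trans h2.1⟩
      · have h2' : p.2 = ρ i := h2
        exact ⟨h1.2.2, by rw [h2']; exact hij.le⟩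

/-- the lid over a part `A` of the boundary with boundary `Q`, of depth `r` -/
def Lidd (e : PLEquiv (cube n) K) (he : e.f '' sph n = dK) (r : ℝ) (A Q : Set E) : Set E :=
  (Th e he).f '' (Q ×ˢ Icc r 1 ∪ A ×ˢ {r})

/-- **the lid is a ball** -/
theorem isBall_lidd [FiniteDimensional ℝ E] {k : ℕ} {A Q : Set E} (h : IsBall k A Q)
    (hA : A ⊆ dK) {r : ℝ} (hr : 1/2 < r) (hr1 : r < 1) : IsBall k (Lidd e he r A Q) Q := by
  have h1 := lid h hr1
  have hQ : Q ⊆ dK := h.subset.trans hA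
  have h2 := h1.map ((Th e he).restrImage (lid_subset hA hQ hr hr1))
  have h3 : ((Th e he).restrImage (lid_subset hA hQ hr hr1)).f '' (Q ×ˢ {(1:ℝ)}) = Q := by
    ext ω
    constructor
    · rintro ⟨⟨ω', t⟩, ⟨h4, h5⟩, rfl⟩
      have h5' : t = 1 := h5
      subst h5'
      show (Th e he).f (ω', 1) ∈ Q
      rw [Th_one e he (hQ h4)]; exact h4
    · intro hω
      exact ⟨(ω, 1), ⟨hω, rfl⟩, Th_one e he (hQ hω)⟩
  rw [h3] at h2
  exact h2

/-- **the sheet piece is a ball** with boundary on the boundary of the cell -/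
theorem ConeCell.ball [FiniteDimensional ℝ E] (H : ConeCell e c ρ) {k : ℕ} {i : ι}
    (h : IsBall k (Dlt dK c i) (Gam dK c i)) : IsBall k (Zer K c i) (Gam dK c i) := by
  rw [H.zer_eq (he := he)]
  exact isBall_lidd (he := he) h (fun ω h => h.1) (H.lo i) (H.hi i)

lemma lidd_inter_bd {A Q : Set E} (hA : A ⊆ dK) (hQ : Q ⊆ dK) {r : ℝ} (hr : 1/2 < r)
    (hr1 : r < 1) : Lidd e he r A Q ∩ dK = Q := by
  ext z
  constructor
  · rintro ⟨⟨p, hp, rfl⟩, hz⟩
    have hp' := lid_subset hA hQ hr hr1 hp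
    have h1 := rad_bd e he hz
    have h2 := prj_bd e he hz
    rw [Th_rad e he hp'] at h1
    rw [Th_prj e he hp'] at h2
    rw [← h2]
    rcases hp with ⟨h3, h4⟩ | ⟨h3, h4⟩
    · exact h3
    · have h4' : p.2 = r := h4
      rw [h1] at h4'; exact absurd h4' hr1.ne'
  · intro hz
    exact ⟨⟨(z, 1), Or.inl ⟨hz, hr1.le, le_rfl⟩, Th_one e he (hQ hz)⟩, hQ hz⟩

lemma lidd_subset {A Q : Set E} (hA : A ⊆ dK) (hQ : Q ⊆ dK) {r : ℝ} (hr : 1/2 < r)
    (hr1 : r < 1) : Lidd e he r A Q ⊆ K := by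
  rintro _ ⟨p, hp, rfl⟩
  exact ((Th e he).mf (lid_subset hA hQ hr hr1 hp)).1

/-- lids of the same depth over disjoint sets are disjoint -/
lemma lidd_disjoint {A Q A' Q' : Set E} (hA : A ⊆ dK) (hQ : Q ⊆ A) (hA' : A' ⊆ dK)
    (hQ' : Q' ⊆ A') {r : ℝ} (hr : 1/2 < r) (hr1 : r < 1) (hd : Disjoint A A') :
    Disjoint (Lidd e he r A Q) (Lidd e he r A' Q') := by
  refine Set.disjoint_left.2 ?_
  rintro _ ⟨p, hp, rfl⟩ ⟨p', hp', heq⟩
  have h1 := lid_subset hA (hQ.trans hA) hr hr1 hp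
  have h2 := lid_subset hA' (hQ'.trans hA') hr hr1 hp'
  have h3 : p' = p := (Th e he).injOn h2 h1 heq
  subst h3
  have h4 : p'.1 ∈ A := by
    rcases hp with h | h
    · exact hQ h.1
    · exact h.1
  have h5 : p'.1 ∈ A' := by
    rcases hp' with h | h
    · exact hQ' h.1
    · exact h.1
  exact Set.disjoint_left.1 hd h4 h5

/-- the intersection of two sheet pieces is the union of the lids over the parts of
`Dlt i ∩ Gam j` -/
theorem ConeCell.inter_iUnion (H : ConeCell e c ρ) {i j : ι} (hij : ρ j < ρ i) {M : Type*}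
    {A Q : M → Set E} (hA : Dlt dK c i ∩ Gam dK c j = ⋃ m, A m)
    (hQ : Gam dK c i ∩ Gam dK c j = ⋃ m, Q m) :
    Zer K c i ∩ Zer K c j = ⋃ m, Lidd e he (ρ i) (A m) (Q m) := by
  rw [H.inter_eq (he := he) hij, hA, hQ]
  unfold Lidd
  rw [← image_iUnion]
  congr 1
  rw [iUnion_union_distrib, iUnion_prod_const, iUnion_prod_const]

/-- **two sheet pieces meet in one point** if the curve of the deeper one meets the inside of the
other one in exactly one point (dimension 2) -/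
theorem ConeCell.inter_point (H : ConeCell e c ρ) {i j : ι} (hij : ρ j < ρ i) {p : E}
    (h1 : Gam dK c i ∩ Gam dK c j = ∅) (h2 : Dlt dK c i ∩ Gam dK c j = {p}) :
    Zer K c i ∩ Zer K c j = {(Th e he).f (p, ρ i)} := by
  rw [H.inter_eq (he := he) hij, h1, h2]
  simp

/-- no intersection -/
theorem ConeCell.inter_empty (H : ConeCell e c ρ) {i j : ι} (hij : ρ j < ρ i)
    (h2 : Dlt dK c i ∩ Gam dK c j = ∅) : Zer K c i ∩ Zer K c j = ∅ := by
  have h1 : Gam dK c i ∩ Gam dK c j = ∅ := by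
    rw [← subset_empty_iff, ← h2]
    exact fun ω h => ⟨⟨h.1.1, h.1.2.ge⟩, h.2⟩
  rw [H.inter_eq (he := he) hij, h1, h2]
  simp

end Cone

/-! ### the cone rule of 416 -/

section Fill

variable {E : Type*} [NormedAddCommGroup E] [NormedSpace ℝ E] {n : ℕ} {q dq : Set E} {I : Type*}
  {e : PLEquiv (cube n) q} {he : e.f '' sph n = dq} {L : Lam dq I} {K b : ℝ} {h ρ : I → ℝ}

lemma sign_cl {b : ℝ} (h0 : 0 < b) (t : ℝ) :
    SignType.sign (cl (t / (2 * b))) = SignType.sign t := by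
  have h2 : 0 < 2 * b := by linarith
  rcases lt_trichotomy t 0 with h | h | h
  · have h3 : t / (2 * b) < 0 := div_neg_of_neg_of_pos h h2
    have h4 : cl (t / (2 * b)) < 0 := by
      unfold cl
      exact max_lt (by norm_num) (lt_of_le_of_lt (min_le_left _ _) h3)
    rw [sign_neg h, sign_neg h4]
  · subst h
    have : cl (0 / (2 * b)) = 0 := by
      rw [zero_div]; exact cl_of_mem ⟨by norm_num, by norm_num⟩
    rw [this]
  · have h3 : 0 < t / (2 * b) := div_pos h h2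
    have h4 : 0 < cl (t / (2 * b)) := by
      unfold cl
      exact lt_max_of_lt_right (lt_min h3 (by norm_num))
    rw [sign_pos h, sign_pos h4]

lemma sign_ramp {h ρ r : ℝ} (hh : 0 < h) :
    SignType.sign (ramp h ρ r) = SignType.sign (r - ρ) := by
  have h1 : ramp h ρ r = cl ((r - ρ) / (2 * (h / 2))) := by
    unfold ramp; congr 2; ring
  rw [h1, sign_cl (by linarith)]

lemma sign_min (a b : ℝ) : SignType.sign (min a b) = min (SignType.sign a) (SignType.sign b) :=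
  (SignType.sign.monotone).map_min

/-- **a cell filled by the cone rule is a `ConeCell`** -/
theorem coneCell_fillBall (D : Dep L K b h ρ) : ConeCell e (D.fillBall e he).c ρ where
  lo i := by have := D.lo i; have := D.h0 i; linarith
  hi i := by have := D.hi i; have := D.h0 i; linarith
  low i z hz hr := by
    rw [D.fillBall_c, (D.pull e he).fill_c_low i hr]; norm_num
  sgn i z hz hr := by
    have hb := D.cst.b0
    have hO : z ∈ Out e := ⟨hz, hr⟩
    have hp := prj_mem e he hO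
    rw [D.fillBall_c_bd e he i hp, D.fillBall_c, (D.pull e he).fill_c_ann i (mem_ann e hO),
      sign_cl hb, sign_min, sign_cl hb, Af, sign_min]
    congr 1
    exact sign_ramp (D.h0 i)

/-- squeezing does not change the signs -/
theorem ConeCell.congr {c c' : I → E → ℝ} {e : PLEquiv (cube n) q} (H : ConeCell e c ρ)
    (he : e.f '' sph n = dq)
    (hs : ∀ i, ∀ z ∈ q, SignType.sign (c' i z) = SignType.sign (c i z)) : ConeCell e c' ρ where
  lo := H.lo
  hi := H.hi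
  low i z hz hr := by
    have h1 := H.low i z hz hr
    rw [← sign_eq_neg_one_iff] at h1 ⊢
    rw [hs i z hz, h1]
  sgn i z hz hr := by
    have hp := bd_sub e he (prj_mem e he (show z ∈ Out e from ⟨hz, hr⟩))
    rw [hs i z hz, H.sgn i z hz hr, sign_min, sign_min, hs i _ hp]

end Fill

end Crest.Agent.R096.Arc_778
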