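import Crest.Agent.R096.Bd13_416

/-!
# R096 (row 96), P4-MESH, part 7: edges (helper416)

On an edge the bands are intervals around the crossing points.
-/

set_option autoImplicit false

open Set Metric

namespace Crest.Agent.R096.Bd_416

open Crest.Agent.R096.Ce_537

open scoped Classical

/-! ### the model edge -/

section model

variable {ι : Type*}

/-- positions and widths of the bands on an edge -/
structure Ed (w p : ι → ℝ) : Prop where
  w0 : ∀ i, 0 < w i
  lo : ∀ i, -1 < p i - w i / 2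
  hi : ∀ i, p i + w i / 2 < 1
  sep : ∀ i j, i ≠ j → (w i + w j) / 2 < |p i - p j|

/-- existence of widths -/
theorem Ed.exists [Finite ι] (p : ι → ℝ) (hp : Function.Injective p)
    (hl : ∀ i, -1 < p i) (hh : ∀ i, p i < 1) : ∃ w0 > 0, ∀ w : ι → ℝ, (∀ i, 0 < w i) →
      (∀ i, w i ≤ w0) → Ed w p := by
  have h1 : ∃ d > 0, ∀ i, d < p i + 1 ∧ d < 1 - p i := by
    have := Fintype.ofFinite ι
    by_cases hne : Nonempty ι
    · obtain ⟨i, -, hi⟩ := Finset.exists_min_image (Finset.univ : Finset ι)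
        (fun i => min (p i + 1) (1 - p i)) Finset.univ_nonempty
      refine ⟨min (p i + 1) (1 - p i) / 2, ?_, fun j => ?_⟩
      · have := hl i; have := hh i
        have : 0 < min (p i + 1) (1 - p i) := lt_min (by linarith) (by linarith)
        linarith
      · have h2 := hi j (Finset.mem_univ _)
        have h3 := min_le_left (p j + 1) (1 - p j)
        have h4 := min_le_right (p j + 1) (1 - p j)
        have : 0 < min (p i + 1) (1 - p i) := lt_min (by linarith [hl i]) (by linarith [hh i])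
        constructor <;> linarith
    · exact ⟨1, one_pos, fun i => (hne ⟨i⟩).elim⟩
  have h2 : ∃ d > 0, ∀ i j, i ≠ j → d < |p i - p j| := by
    have := Fintype.ofFinite ι
    by_cases hne : ((Finset.univ : Finset (ι × ι)).filter fun q => q.1 ≠ q.2).Nonempty
    · obtain ⟨q, hq, hi⟩ := Finset.exists_min_image _ (fun q : ι × ι => |p q.1 - p q.2|) hne
      have hq' : q.1 ≠ q.2 := (Finset.mem_filter.1 hq).2
      have h0 : 0 < |p q.1 - p q.2| := abs_pos.2 (sub_ne_zero.2 fun h => hq' (hp h))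
      refine ⟨|p q.1 - p q.2| / 2, by linarith, fun i j hij => ?_⟩
      have h3 := hi (i, j) (Finset.mem_filter.2 ⟨Finset.mem_univ _, hij⟩)
      simp only at h3
      linarith
    · exact ⟨1, one_pos, fun i j hij =>
        (hne ⟨(i, j), Finset.mem_filter.2 ⟨Finset.mem_univ _, hij⟩⟩).elim⟩
  obtain ⟨d1, hd1, h1⟩ := h1
  obtain ⟨d2, hd2, h2⟩ := h2
  refine ⟨min d1 d2, lt_min hd1 hd2, fun w hw hwle => ⟨hw, fun i => ?_, fun i => ?_,
    fun i j hij => ?_⟩⟩
  · have := hwle i; have := min_le_left d1 d2; have := (h1 i).1; have := hw i; linarith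
  · have := hwle i; have := min_le_left d1 d2; have := (h1 i).2; have := hw i; linarith
  · have := hwle i; have := hwle j; have := min_le_right d1 d2; have := h2 i j hij; linarith

variable {w p : ι → ℝ}

lemma mem_cube1 {z : Fin 1 → ℝ} : z ∈ cube 1 ↔ |z 0| ≤ 1 := by
  rw [mem_closedBall_zero_iff, pi_norm_le_iff_of_nonneg zero_le_one]
  constructor
  · intro h; exact h 0
  · intro h i; rw [Subsingleton.elim i 0]; exact h

lemma mem_sph1 {z : Fin 1 → ℝ} : z ∈ sph 1 ↔ |z 0| = 1 := by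
  have : ‖z‖ = |z 0| := by
    apply le_antisymm
    · rw [pi_norm_le_iff_of_nonneg (abs_nonneg _)]
      intro i; rw [Subsingleton.elim i 0]; exact le_rfl
    · exact norm_le_pi_norm z 0
  rw [mem_sphere_zero_iff_norm, this]

/-- the band of a piece -/
def edB (w p : ι → ℝ) (i : ι) : Set (Fin 1 → ℝ) := {z | z ∈ cube 1 ∧ |z 0 - p i| ≤ w i / 2}

lemma ramp_far {w p t : ℝ} (hw : 0 < w) (h : w / 2 ≤ |t - p|) :
    (t ≤ p - w/2 ∧ ramp w p t = -1/2) ∨ (p + w/2 ≤ t ∧ ramp w p t = 1/2) := by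
  rcases le_abs.1 h with h1 | h1
  · exact Or.inr ⟨by linarith, ramp_high hw (by linarith)⟩
  · exact Or.inl ⟨by linarith, ramp_low hw (by linarith)⟩

lemma abs_ramp_lt {w p t : ℝ} (hw : 0 < w) (h : |ramp w p t| < 1/2) : |t - p| ≤ w / 2 := by
  by_contra hc
  rcases ramp_far hw (not_le.1 hc).le with h1 | h1
  · rw [h1.2] at h; norm_num [abs_of_neg] at h
  · rw [h1.2] at h; norm_num at h

lemma Ed.tr_mem (h : Ed w p) (i : ι) {s : ℝ} (hs : s ∈ I2) :
    (fun _ => p i + w i * s : Fin 1 → ℝ) ∈ edB w p i := by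
  have h0 := h.w0 i
  have h1 := h.lo i
  have h2 := h.hi i
  have h3 : w i * s ≤ w i * (1/2) := mul_le_mul_of_nonneg_left hs.2 h0.le
  have h4 : w i * (-1/2) ≤ w i * s := mul_le_mul_of_nonneg_left hs.1 h0.le
  refine ⟨mem_cube1.2 (abs_le.2 ⟨by linarith, by linarith⟩), ?_⟩
  show |p i + w i * s - p i| ≤ w i / 2
  rw [add_sub_cancel_left, abs_le]
  constructor <;> linarith

lemma Ed.disj (h : Ed w p) {i j : ι} (hij : i ≠ j) {t t' : ℝ} (ht : |t - p i| ≤ w i / 2)
    (ht' : |t' - p j| ≤ w j / 2) : t ≠ t' := by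
  rintro rfl
  have h1 := h.sep i j hij
  have : |p i - p j| ≤ |t - p i| + |t - p j| := by
    have : p i - p j = -(t - p i) + (t - p j) := by ring
    rw [this]
    exact (abs_add_le _ _).trans (by rw [abs_neg])
  linarith

/-- the value of another band function on a band -/
lemma Ed.other (h : Ed w p) {i j : ι} (hij : i ≠ j) {t : ℝ} (ht : |t - p i| ≤ w i / 2) :
    (p j < p i ∧ ramp (w j) (p j) t = 1/2) ∨ (p i < p j ∧ ramp (w j) (p j) t = -1/2) := by
  have h1 := h.sep i j hij
  obtain ⟨h2, h3⟩ := abs_le.1 ht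
  have h4 := h.w0 i
  have h5 := h.w0 j
  rcases lt_abs.1 h1 with h6 | h6
  · exact Or.inl ⟨by linarith, ramp_high h5 (by linarith)⟩
  · exact Or.inr ⟨by linarith, ramp_low h5 (by linarith)⟩

/-- **the LAM-structure of the model edge** -/
noncomputable def edgeLam (h : Ed w p) : Lam (cube 1) ι where
  c i z := ramp (w i) (p i) (z 0)
  B := edB w p
  tr i q := fun _ => p i + w i * q.2
  pc i := pl_ramp (w i) (p i) (pl_apply (plOn_id _) 0)
  cm i z _ := ramp_mem
  Bc i := by
    have h1 : IsClosed {z : Fin 1 → ℝ | |z 0 - p i| ≤ w i / 2} :=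
      isClosed_le (by fun_prop) continuous_const
    exact isClosed_closedBall.inter h1
  BZ i z hz := hz.1
  Bm i z hz hc := ⟨hz, abs_ramp_lt (h.w0 i) hc⟩
  pt i := pl_pi fun _ => by
    have h1 : PLOn (fun q : (Fin 1 → ℝ) × ℝ => w i * q.2 + p i) (edB w p i ×ˢ I2) :=
      pl_add_const (pl_mul (w i) (pl_snd (plOn_id _))) (p i)
    exact h1.congr fun q _ => add_comm _ _
  trB i z _ s hs := h.tr_mem i hs
  ctr i z _ s hs := by
    have h0 := h.w0 i
    show cl ((p i + w i * s - p i) / w i) = s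
    have : (p i + w i * s - p i) / w i = s := by field_simp; ring
    rw [this, cl_of_mem hs]
  tr_self i z hz := by
    have h0 := h.w0 i
    funext k
    rw [Subsingleton.elim k 0]
    show p i + w i * ramp (w i) (p i) (z 0) = z 0
    obtain ⟨h1, h2⟩ := abs_le.1 hz.2
    have : (z 0 - p i) / w i ∈ I2 := by
      constructor
      · rw [le_div_iff₀ h0]; linarith
      · rw [div_le_iff₀ h0]; linarith
    rw [ramp, cl_of_mem this]
    field_simp; ring
  tr_tr i z _ s _ s' _ := rfl
  co i j hij z hz s hs := by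
    show ramp (w j) (p j) (p i + w i * s) = ramp (w j) (p j) (z 0)
    rcases h.other hij hz.2 with h1 | h1 <;>
      rcases h.other hij (h.tr_mem i hs).2 with h2 | h2
    · rw [h1.2, h2.2]
    · exact absurd h1.1 (not_lt.2 h2.1.le)
    · exact absurd h1.1 (not_lt.2 h2.1.le)
    · rw [h1.2, h2.2]
  Bo i j hij z hz hz' s _ := (h.disj hij hz.2 hz'.2 rfl).elim
  comm i j hij z hz hz' s _ t _ := (h.disj hij hz.2 hz'.2 rfl).elim

end model

/-! ### new edges -/

section rule

variable {Q : Type} [PartialOrder Q] {dim : Q → ℕ} {J Fam : Type}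
variable {E : Type*} [NormedAddCommGroup E] [NormedSpace ℝ E]
variable {C : Cmb Q dim J Fam} {K : Q → Set E} {D : Set Q} {g : Gd E J}
  {P : ∀ q, C.I q → Set E} {c : ∀ q, C.I q → E → ℝ} {b : ℝ} {Ω : Set E}

lemma vertex_subsingleton (X : Cplx Ω Q dim K) {v : Q} (hv : dim v = 0) {z z' : E}
    (hz : z ∈ K v) (hz' : z' ∈ K v) : z = z' := by
  obtain ⟨e, -⟩ := X.isBall v
  rw [hv] at e
  rw [← e.ri z hz, ← e.ri z' hz']
  congr 1
  exact Subsingleton.elim _ _

lemma vertex_unique (X : Cplx Ω Q dim K) {v v' : Q} (hv : dim v = 0) (hv' : dim v' = 0) {z : E}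
    (hz : z ∈ K v) (hz' : z ∈ K v') : v = v' := by
  refine X.disj v v' z ⟨hz, fun j hj => ?_⟩ ⟨hz', fun j hj => ?_⟩
  · have := X.mono v j hj; omega
  · have := X.mono v' j hj; omega

section

variable (H : Inv C K D g P c) (X : Cplx Ω Q dim K) {τ : Q} (hτ : ∀ σ < τ, σ ∈ D)
  (hd : dim τ = 1)
include H X hτ hd

lemma cbd_edge {z : E} (hz : z ∈ bdS K τ) (x : C.I τ) :
    (z ∈ K (C.o τ) ∧ cbd C K c τ x z = -1/2) ∨ (z ∉ K (C.o τ) ∧ cbd C K c τ x z = 1/2) := by
  obtain ⟨σ, h, hzσ⟩ := exists_of_mem_bdS hz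
  have hσ : dim σ = 0 := by have := X.mono τ σ h; omega
  have := C.vert σ hσ
  have h1 := cbd_eq H X h hτ x hzσ
  rw [Finset.prod_eq_one (fun y _ => isEmptyElim y), mul_one] at h1
  have ho := C.o_dim τ hd.ge
  by_cases he : σ = C.o τ
  · subst he
    left
    refine ⟨hzσ, ?_⟩
    have h2 : C.s h x = 0 := C.s_o τ hd.ge x
    rw [h2, sg_zero] at h1
    linarith
  · right
    refine ⟨fun hc => he (vertex_unique X hσ ho hzσ hc), ?_⟩
    rw [C.s_edge h hd he x, sg_one] at h1
    linarith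

/-- **new edges** -/
theorem newCell_edge (h0 : 0 < b) (h2 : b < 1/2) (e : PLEquiv (cube 1) (K τ))
    (he : e.f '' sph 1 = bdS K τ) (hbase : e.f (fun _ => -1) ∈ K (C.o τ))
    {w p : C.I τ → ℝ} (hE : Ed w p)
    (ord : ∀ x x', x ≠ x' → C.fam (C.col τ x) = C.fam (C.col τ x') →
      (p x' < p x → C.side τ x x' = 1) ∧ (p x < p x' → C.side τ x x' = 0)) :
    NewCell C K g c b τ ((edgeLam hE).pull e.symm (X.isClosed τ)) := by
  have hends : ∀ z ∈ bdS K τ, ∀ x : C.I τ,
      ((edgeLam hE).pull e.symm (X.isClosed τ)).c x z = cbd C K c τ x z ∧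
      z ∉ ((edgeLam hE).pull e.symm (X.isClosed τ)).B x := by
    intro z hz x
    have hz' := hz
    rw [← he] at hz
    obtain ⟨v, hv, rfl⟩ := hz
    have hvc : v ∈ cube 1 := sph_subset_cube hv
    have hg : e.g (e.f v) = v := e.li v hvc
    have h3 := hE.w0 x
    have h4 := hE.lo x
    have h5 := hE.hi x
    have hm : (fun _ => -1 : Fin 1 → ℝ) ∈ cube 1 := mem_cube1.2 (by norm_num)
    have hcase : v 0 = -1 ∨ v 0 = 1 := by
      have := mem_sph1.1 hv
      rcases (abs_eq zero_le_one).1 this with h | h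
      · exact Or.inr h
      · exact Or.inl h
    have hc : ((edgeLam hE).pull e.symm (X.isClosed τ)).c x (e.f v)
        = ramp (w x) (p x) (v 0) := by
      show ramp (w x) (p x) (e.g (e.f v) 0) = _
      rw [hg]
    constructor
    · rw [hc]
      rcases hcase with h | h
      · have hv' : v = fun _ => -1 := by funext k; rw [Subsingleton.elim k 0]; exact h
        rcases cbd_edge H X hτ hd hz' x with h6 | h6
        · rw [h6.2, h, ramp_low h3 (by linarith)]
        · exact (h6.1 (by rw [hv']; exact hbase)).elim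
      · rcases cbd_edge H X hτ hd hz' x with h6 | h6
        · exfalso
          have h7 := vertex_subsingleton X (C.o_dim τ hd.ge) h6.1 hbase
          have h8 := congrArg e.g h7
          rw [e.li _ hvc, e.li _ hm] at h8
          rw [h8] at h
          norm_num at h
        · rw [h6.2, h, ramp_high h3 (by linarith)]
    · rintro ⟨-, h6, h7⟩
      have h7' : |e.g (e.f v) 0 - p x| ≤ w x / 2 := h7
      rw [hg] at h7'
      obtain ⟨h8, h9⟩ := abs_le.1 h7'
      rcases hcase with h | h <;> rw [h] at h8 h9 <;> linarith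
  have hhalf : ∀ z ∈ bdS K τ, ∀ x : C.I τ, cbd C K c τ x z = -1/2 ∨ cbd C K c τ x z = 1/2 := by
    intro z hz x
    rcases cbd_edge H X hτ hd hz x with h6 | h6
    · exact Or.inl h6.2
    · exact Or.inr h6.2
  have hb : ∀ z ∈ bdS K τ, ∀ x : C.I τ, ¬ |cbd C K c τ x z| ≤ b := by
    intro z hz x hc
    rcases hhalf z hz x with h6 | h6 <;> rw [h6] at hc <;> norm_num [abs_of_neg] at hc <;> linarith
  refine ⟨fun x z hz => ?_, fun x z hz => ?_, fun x z hz hc => (hb z hz x hc).elim,
    fun x x' hne _ => ?_, fun x x' hne hf z hz => ?_⟩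
  · rw [(hends z hz x).1]
    rcases hhalf z hz x with h6 | h6
    · rw [h6, cl_low h0 h2]
    · rw [h6, cl_of_ge]
      rw [le_div_iff₀ (by linarith)]; linarith
  · exact iff_of_false (hends z hz x).2 (hb z hz x)
  · refine Set.disjoint_left.2 fun z hz hz' => ?_
    exact hE.disj hne hz.2.2 hz'.2.2 rfl
  · have h6 : |e.g z 0 - p x| ≤ w x / 2 := hz.2.2
    show -2 * ramp (w x') (p x') (e.g z 0) = _
    rcases hE.other hne h6 with h7 | h7
    · rw [h7.2, (ord x x' hne hf).1 h7.1, sg_one]; norm_num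
    · rw [h7.2, (ord x x' hne hf).2 h7.1, sg_zero]; norm_num

end

/-- the reversal of the model edge -/
def negE : PLEquiv (cube 1) (cube 1) where
  f z := -z
  g z := -z
  pf := pl_neg (plOn_id _)
  pg := pl_neg (plOn_id _)
  mf z hz := by
    rw [mem_closedBall_zero_iff] at hz ⊢; rwa [norm_neg]
  mg z hz := by
    rw [mem_closedBall_zero_iff] at hz ⊢; rwa [norm_neg]
  li z _ := neg_neg z
  ri z _ := neg_neg z

/-- a chart of an edge with the base vertex at `-1` -/
theorem exists_edge_chart (X : Cplx Ω Q dim K) {τ : Q} (hd : dim τ = 1) :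
    ∃ e : PLEquiv (cube 1) (K τ), e.f '' sph 1 = bdS K τ ∧ e.f (fun _ => -1) ∈ K (C.o τ) := by
  have hb : IsBall 1 (K τ) (bdS K τ) := by
    have := X.isBall τ
    rwa [hd] at this
  obtain ⟨e, he⟩ := hb
  obtain ⟨z, hz⟩ := (X.isBall (C.o τ)).nonempty
  have hzS : z ∈ bdS K τ := mem_biUnion (show C.o τ ∈ {j | j < τ} from C.o_lt τ hd.ge) hz
  have hzS' := hzS
  rw [← he] at hzS'
  obtain ⟨v, hv, rfl⟩ := hzS'
  rcases (abs_eq zero_le_one).1 (mem_sph1.1 hv) with h | h
  · refine ⟨negE.trans e, ?_, ?_⟩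
    · rw [← he]
      apply Set.Subset.antisymm
      · rintro _ ⟨u, hu, rfl⟩
        refine ⟨-u, mem_sph1.2 ?_, rfl⟩
        show |-(u 0)| = 1
        rw [abs_neg]; exact mem_sph1.1 hu
      · rintro _ ⟨u, hu, rfl⟩
        refine ⟨-u, mem_sph1.2 ?_, ?_⟩
        · show |-(u 0)| = 1
          rw [abs_neg]; exact mem_sph1.1 hu
        · show e.f (- -u) = e.f u
          rw [neg_neg]
    · show e.f (-(fun _ => -1)) ∈ _
      have hv' : (-(fun _ => -1) : Fin 1 → ℝ) = v := by
        funext k; rw [Subsingleton.elim k 0, h]; simp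
      rw [hv']; exact hz
  · refine ⟨e, he, ?_⟩
    have hv' : (fun _ => -1 : Fin 1 → ℝ) = v := by
      funext k; rw [Subsingleton.elim k 0, h]
    rw [hv']; exact hz

end rule

end Crest.Agent.R096.Bd_416
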