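import Crest.Agent.R096.Arc1_778
import Crest.Agent.R096.Cb6_609
import Crest.Agent.R096.Bd14_416

/-!
# R096 (row 96), (R4) CELL GEOMETRY, part 2: sides; components of a superlevel set on a circle
(helper778)

* `sides` : a function on a sphere `A ∪ B` whose zero set is the common boundary of the balls
  `A`, `B`, and which has both signs: `{0 ≤ c}` is `A` or `B`.
* `interval_comp` : components of `{0 ≤ g}` on an interval.
* `circ_comp` : components of `{0 ≤ f}` on a PL circle are arcs with end points in `{f = 0}`.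
-/

set_option autoImplicit false

open Set Metric

namespace Crest.Agent.R096.Arc_778

open Crest.Agent.R096.Ce_537 Crest.Agent.R096.Bd_416 Crest.Agent.R096.Cb_609 Crest.Agent.R096.Pl

section Sides

variable {E : Type*} [NormedAddCommGroup E] [NormedSpace ℝ E]

/-- a continuous function without zeros on a preconnected set has a constant sign -/
lemma sign_const {X : Type*} [TopologicalSpace X] {T : Set X} (hT : IsPreconnected T)
    {c : X → ℝ} (hc : ContinuousOn c T) (h0 : ∀ x ∈ T, c x ≠ 0) :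
    (∀ x ∈ T, c x < 0) ∨ (∀ x ∈ T, 0 < c x) := by
  by_contra hcon
  rw [not_or] at hcon
  obtain ⟨h1, h2⟩ := hcon
  push Not at h1 h2
  obtain ⟨x, hx, hx'⟩ := h1
  obtain ⟨y, hy, hy'⟩ := h2
  obtain ⟨z, hz, hz0⟩ := hT.intermediate_value hy hx hc (show (0:ℝ) ∈ Icc (c y) (c x) from
    ⟨hy', hx'⟩)
  exact h0 z hz hz0

/-- **the two sides of the zero set** -/
theorem sides {k : ℕ} {K A B Γ S : Set E} (h : BallPair k K A B Γ) (hAB : A ∪ B = S)
    {c : E → ℝ} (hc : ContinuousOn c S) (hz : ∀ ω ∈ S, (c ω = 0 ↔ ω ∈ Γ))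
    (hneg : ∃ ω ∈ S, c ω < 0) (hpos : ∃ ω ∈ S, 0 < c ω) :
    {ω | ω ∈ S ∧ 0 ≤ c ω} = A ∨ {ω | ω ∈ S ∧ 0 ≤ c ω} = B := by
  have hA : A ⊆ S := hAB ▸ subset_union_left
  have hB : B ⊆ S := hAB ▸ subset_union_right
  have sA : (∀ x ∈ A \ Γ, c x < 0) ∨ (∀ x ∈ A \ Γ, 0 < c x) :=
    sign_const h.ball₁.isPreconnected_diff (hc.mono (sdiff_subset.trans hA))
      (fun x hx h0 => hx.2 ((hz x (hA hx.1)).1 h0))
  have sB : (∀ x ∈ B \ Γ, c x < 0) ∨ (∀ x ∈ B \ Γ, 0 < c x) :=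
    sign_const h.ball₂.isPreconnected_diff (hc.mono (sdiff_subset.trans hB))
      (fun x hx h0 => hx.2 ((hz x (hB hx.1)).1 h0))
  have hΓA : Γ ⊆ A := h.ball₁.subset
  have hΓB : Γ ⊆ B := h.ball₂.subset
  have key : ∀ {A B : Set E}, A ∪ B = S → Γ ⊆ A → (∀ x ∈ A \ Γ, 0 < c x) →
      (∀ x ∈ B \ Γ, c x < 0) → {ω | ω ∈ S ∧ 0 ≤ c ω} = A := by
    intro A B hAB hΓA h1 h2
    ext ω
    constructor
    · rintro ⟨hω, h0⟩
      by_cases hωΓ : ω ∈ Γ
      · exact hΓA hωΓ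
      · rw [← hAB] at hω
        rcases hω with hω | hω
        · exact hω
        · exact absurd h0 (not_le.2 (h2 ω ⟨hω, hωΓ⟩))
    · intro hω
      have hS : ω ∈ S := by rw [← hAB]; exact Or.inl hω
      refine ⟨hS, ?_⟩
      by_cases hωΓ : ω ∈ Γ
      · exact ((hz ω hS).2 hωΓ).ge
      · exact (h1 ω ⟨hω, hωΓ⟩).le
  rcases sA with sA | sA <;> rcases sB with sB | sB
  · exfalso
    obtain ⟨ω, hω, h0⟩ := hpos
    have hn : ω ∉ Γ := fun hc' => h0.ne' ((hz ω hω).2 hc')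
    rw [← hAB] at hω
    rcases hω with hω | hω
    · exact lt_asymm h0 (sA ω ⟨hω, hn⟩)
    · exact lt_asymm h0 (sB ω ⟨hω, hn⟩)
  · right; exact key (by rw [union_comm]; exact hAB) hΓB sB sA
  · left; exact key hAB hΓA sA sB
  · exfalso
    obtain ⟨ω, hω, h0⟩ := hneg
    have hn : ω ∉ Γ := fun hc' => h0.ne ((hz ω hω).2 hc')
    rw [← hAB] at hω
    rcases hω with hω | hω
    · exact lt_asymm h0 (sA ω ⟨hω, hn⟩)
    · exact lt_asymm h0 (sB ω ⟨hω, hn⟩)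

/-- the inside of a pair of points on the boundary of a 2-ball is an arc -/
theorem isBall_dlt1 {ι : Type*} {K S : Set E} (hK : IsBall 2 K S) {c : ι → E → ℝ} {i : ι}
    (hc : ContinuousOn (c i) S) {a b : E} (hab : a ≠ b) (hG : Gam S c i = {a, b})
    (hneg : ∃ ω ∈ S, c i ω < 0) (hpos : ∃ ω ∈ S, 0 < c i ω) :
    IsBall 1 (Dlt S c i) (Gam S c i) := by
  have ha : a ∈ Gam S c i := by rw [hG]; simp
  have hb : b ∈ Gam S c i := by rw [hG]; simp
  obtain ⟨A, B, h1, h2⟩ := two_marks hK ha.1 hb.1 hab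
  rw [← hG] at h1
  rcases sides h1 h2 hc (fun ω hω => ⟨fun h => ⟨hω, h⟩, fun h => h.2⟩) hneg hpos with h3 | h3
  · show IsBall 1 {ω | ω ∈ S ∧ 0 ≤ c i ω} (Gam S c i)
    rw [h3]; exact h1.ball₁
  · show IsBall 1 {ω | ω ∈ S ∧ 0 ≤ c i ω} (Gam S c i)
    rw [h3]; exact h1.ball₂

/-- the inside of a circle on the boundary of a 3-ball is a disc -/
theorem isBall_dlt2 [FiniteDimensional ℝ E] {ι : Type*} {K S : Set E} (hK : IsBall 3 K S)
    {c : ι → E → ℝ} {i : ι}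
    (hc : ContinuousOn (c i) S) (hG : Nonempty (PLEquiv (S1 ℝ) (Gam S c i)))
    (hneg : ∃ ω ∈ S, c i ω < 0) (hpos : ∃ ω ∈ S, 0 < c i ω) :
    IsBall 2 (Dlt S c i) (Gam S c i) := by
  obtain ⟨A, B, h1, h2⟩ := sphere_sides hK hG (fun ω h => h.1)
  rcases sides h1 h2 hc (fun ω hω => ⟨fun h => ⟨hω, h⟩, fun h => h.2⟩) hneg hpos with h3 | h3
  · show IsBall 2 {ω | ω ∈ S ∧ 0 ≤ c i ω} (Gam S c i)
    rw [h3]; exact h1.ball₁
  · show IsBall 2 {ω | ω ∈ S ∧ 0 ≤ c i ω} (Gam S c i)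
    rw [h3]; exact h1.ball₂

end Sides

section Interval

/-- **components of `{0 ≤ g}` on an interval** -/
theorem interval_comp {g : ℝ → ℝ} {u v : ℝ} (hg : ContinuousOn g (Icc u v)) (hu : g u < 0)
    (hv : g v < 0)
    (hN : ∀ t ∈ Ioo u v, g t = 0 → t ∈ closure {t' | t' ∈ Icc u v ∧ g t' < 0})
    (hP : ∀ t ∈ Icc u v, g t = 0 →
      ∃ T ⊆ {t' | t' ∈ Icc u v ∧ 0 ≤ g t'}, IsPreconnected T ∧ t ∈ T ∧ T.Nontrivial)
    {t0 : ℝ} (ht0 : t0 ∈ Icc u v) (hg0 : 0 ≤ g t0) :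
    ∃ a b, a < b ∧ u < a ∧ b < v ∧ t0 ∈ Icc a b ∧ g a = 0 ∧ g b = 0 ∧
      (∀ t ∈ Ioo a b, 0 < g t) ∧
      ∀ C ⊆ {t' | t' ∈ Icc u v ∧ 0 ≤ g t'}, IsPreconnected C → t0 ∈ C → C ⊆ Icc a b := by
  set X : Set ℝ := {t' | t' ∈ Icc u v ∧ 0 ≤ g t'} with hX
  have hXc : IsClosed X := hg.preimage_isClosed_of_isClosed isClosed_Icc isClosed_Ici
  have h0X : t0 ∈ X := ⟨ht0, hg0⟩
  set C0 : Set ℝ := connectedComponentIn X t0 with hC0
  have hC0X : C0 ⊆ X := connectedComponentIn_subset X t0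
  have hC0p : IsPreconnected C0 := isPreconnected_connectedComponentIn
  have h0C : t0 ∈ C0 := mem_connectedComponentIn h0X
  have hC0c : IsClosed C0 := by
    have h1 : IsPreconnected (closure C0) := hC0p.closure
    have h2 : closure C0 ⊆ X := closure_minimal hC0X hXc
    have h3 : closure C0 ⊆ C0 := h1.subset_connectedComponentIn (subset_closure h0C) h2
    exact closure_subset_iff_isClosed.1 h3
  have hmax : ∀ C ⊆ X, IsPreconnected C → t0 ∈ C → C ⊆ C0 := fun C hC hCp h0 =>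
    hCp.subset_connectedComponentIn h0 hC
  have hbd : C0 ⊆ Icc u v := fun t ht => (hC0X ht).1
  have hbb : BddBelow C0 := ⟨u, fun t ht => (hbd ht).1⟩
  have hba : BddAbove C0 := ⟨v, fun t ht => (hbd ht).2⟩
  set a := sInf C0 with ha
  set b := sSup C0 with hb
  have haC : a ∈ C0 := hC0c.csInf_mem ⟨t0, h0C⟩ hbb
  have hbC : b ∈ C0 := hC0c.csSup_mem ⟨t0, h0C⟩ hba
  have hord := hC0p.ordConnected
  have hC0eq : C0 = Icc a b := by
    apply Subset.antisymm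
    · intro t ht; exact ⟨csInf_le hbb ht, le_csSup hba ht⟩
    · exact hord.out haC hbC
  have hga0 : 0 ≤ g a := (hC0X haC).2
  have hgb0 : 0 ≤ g b := (hC0X hbC).2
  have hua : u < a := by
    rcases (hbd haC).1.lt_or_eq with h | h
    · exact h
    · rw [← h] at hga0; exact absurd hga0 (not_le.2 hu)
  have hbv : b < v := by
    rcases (hbd hbC).2.lt_or_eq with h | h
    · exact h
    · rw [h] at hgb0; exact absurd hgb0 (not_le.2 hv)
  have hab' : a ≤ b := csInf_le hbb hbC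
  have hbu : u < b := hua.trans_le hab'
  have hav : a < v := hab'.trans_lt hbv
  have hga : g a = 0 := by
    by_contra hne
    have hpos : 0 < g a := lt_of_le_of_ne hga0 (Ne.symm hne)
    have hcont : ContinuousAt g a := hg.continuousAt (Icc_mem_nhds hua hav)
    have hev : ∀ᶠ t in nhds a, 0 < g t := hcont.eventually (lt_mem_nhds hpos)
    obtain ⟨ε, hε, hball⟩ := Metric.eventually_nhds_iff_ball.1 hev
    set δ := min ε (a - u) / 2 with hδ
    have hδ0 : 0 < δ := by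
      have : 0 < min ε (a - u) := lt_min hε (by linarith)
      linarith
    have hδε : δ < ε := by
      have := min_le_left ε (a - u)
      linarith
    have hδu : δ < a - u := by
      have := min_le_right ε (a - u)
      linarith
    have h1 : IsPreconnected (C0 ∪ Icc (a - δ) a) :=
      hC0p.union a haC (right_mem_Icc.2 (by linarith)) isPreconnected_Icc
    have h2 : C0 ∪ Icc (a - δ) a ⊆ X := by
      rintro t (ht | ht)
      · exact hC0X ht
      · refine ⟨⟨by linarith [ht.1], by linarith [ht.2]⟩, (hball t ?_).le⟩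
        rw [Metric.mem_ball, Real.dist_eq, abs_lt]
        constructor <;> linarith [ht.1, ht.2]
    have h3 := hmax _ h2 h1 (Or.inl h0C)
    have h4 : a - δ ∈ C0 := h3 (Or.inr (left_mem_Icc.2 (by linarith)))
    have h5 := csInf_le hbb h4
    linarith
  have hgb : g b = 0 := by
    by_contra hne
    have hpos : 0 < g b := lt_of_le_of_ne hgb0 (Ne.symm hne)
    have hcont : ContinuousAt g b := hg.continuousAt (Icc_mem_nhds hbu hbv)
    have hev : ∀ᶠ t in nhds b, 0 < g t := hcont.eventually (lt_mem_nhds hpos)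
    obtain ⟨ε, hε, hball⟩ := Metric.eventually_nhds_iff_ball.1 hev
    set δ := min ε (v - b) / 2 with hδ
    have hδ0 : 0 < δ := by
      have : 0 < min ε (v - b) := lt_min hε (by linarith)
      linarith
    have hδε : δ < ε := by
      have := min_le_left ε (v - b)
      linarith
    have hδu : δ < v - b := by
      have := min_le_right ε (v - b)
      linarith
    have h1 : IsPreconnected (C0 ∪ Icc b (b + δ)) :=
      hC0p.union b hbC (left_mem_Icc.2 (by linarith)) isPreconnected_Icc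
    have h2 : C0 ∪ Icc b (b + δ) ⊆ X := by
      rintro t (ht | ht)
      · exact hC0X ht
      · refine ⟨⟨by linarith [ht.1], by linarith [ht.2]⟩, (hball t ?_).le⟩
        rw [Metric.mem_ball, Real.dist_eq, abs_lt]
        constructor <;> linarith [ht.1, ht.2]
    have h3 := hmax _ h2 h1 (Or.inl h0C)
    have h4 : b + δ ∈ C0 := h3 (Or.inr (right_mem_Icc.2 (by linarith)))
    have h5 := le_csSup hba h4
    linarith
  have hab : a < b := by
    rcases hab'.lt_or_eq with h | h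
    · exact h
    · exfalso
      have h1 : C0 = {a} := by rw [hC0eq, ← h, Icc_self]
      have h2 : t0 = a := by
        have := h0C
        rw [h1] at this; exact this
      obtain ⟨T, hT, hTp, htT, hTn⟩ := hP t0 ht0 (by rw [h2]; exact hga)
      have h3 := hmax T hT hTp htT
      rw [h1] at h3
      exact hTn.not_subset_singleton h3
  refine ⟨a, b, hab, hua, hbv, by rw [← hC0eq]; exact h0C, hga, hgb, ?_, ?_⟩
  · intro t ht
    have htC : t ∈ C0 := by rw [hC0eq]; exact ⟨ht.1.le, ht.2.le⟩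
    have h1 := (hC0X htC).2
    rcases h1.lt_or_eq with h2 | h2
    · exact h2
    · exfalso
      have h3 := hN t ⟨hua.trans ht.1, ht.2.trans hbv⟩ h2.symm
      rw [Metric.mem_closure_iff] at h3
      have hpos : 0 < min (t - a) (b - t) := lt_min (by linarith [ht.1]) (by linarith [ht.2])
      obtain ⟨t', ht', hd⟩ := h3 _ hpos
      rw [Real.dist_eq, abs_lt] at hd
      have h4 := min_le_left (t - a) (b - t)
      have h5 := min_le_right (t - a) (b - t)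
      have h6 : t' ∈ C0 := by
        rw [hC0eq]; constructor <;> linarith [hd.1, hd.2]
      exact absurd (hC0X h6).2 (not_le.2 ht'.2)
  · intro C hC hCp h0
    rw [← hC0eq]
    exact hmax C hC hCp h0

end Interval

section Circle

variable {E : Type*} [NormedAddCommGroup E] [NormedSpace ℝ E]

/-- a PL circle is cut into two arcs by two points -/
theorem circ_two_marks {Γ : Set E} (hΓ : Nonempty (PLEquiv (S1 ℝ) Γ)) {p q : E} (hp : p ∈ Γ)
    (hq : q ∈ Γ) (hne : p ≠ q) : ∃ A B, IsBall 1 A {p, q} ∧ IsBall 1 B {p, q} ∧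
      A ∩ B = {p, q} ∧ A ∪ B = Γ := by
  obtain ⟨c⟩ := hΓ
  have hp' : c.g p ∈ S1 ℝ := c.mg hp
  have hq' : c.g q ∈ S1 ℝ := c.mg hq
  have hne' : c.g p ≠ c.g q := fun h => hne (c.symm.injOn hp hq h)
  obtain ⟨A, B, h1, h2⟩ := two_marks isBall_plane hp' hq' hne'
  have hA : A ⊆ S1 ℝ := h2 ▸ subset_union_left
  have hB : B ⊆ S1 ℝ := h2 ▸ subset_union_right
  have him : c.f '' {c.g p, c.g q} = {p, q} := by
    rw [image_pair, c.ri p hp, c.ri q hq]
  refine ⟨c.f '' A, c.f '' B, ?_, ?_, ?_, ?_⟩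
  · have := h1.ball₁.map (c.restrImage hA)
    have h3 : (c.restrImage hA).f '' {c.g p, c.g q} = {p, q} := him
    rwa [h3] at this
  · have := h1.ball₂.map (c.restrImage hB)
    have h3 : (c.restrImage hB).f '' {c.g p, c.g q} = {p, q} := him
    rwa [h3] at this
  · rw [← him, ← h1.inter]
    exact ((c.injOn.image_inter hA hB)).symm
  · rw [← image_union, h2]; exact c.image_eq

lemma circ_isPreconnected {Γ : Set E} (hΓ : Nonempty (PLEquiv (S1 ℝ) Γ)) : IsPreconnected Γ := by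
  obtain ⟨c⟩ := hΓ
  obtain ⟨p, hp, q, hq, hne⟩ : ∃ p ∈ S1 ℝ, ∃ q ∈ S1 ℝ, p ≠ q := by
    refine ⟨((1:ℝ), (0:ℝ)), ?_, ((-1:ℝ), (0:ℝ)), ?_, ?_⟩
    · show N1 _ = 1; simp [N1]
    · show N1 _ = 1; simp [N1]
    · intro h; have := congrArg Prod.fst h; norm_num at this
  obtain ⟨A, B, h1, h2⟩ := two_marks isBall_plane hp hq hne
  have h3 : IsPreconnected (S1 ℝ) := by
    rw [← h2]
    exact h1.ball₁.isPreconnected.union p (h1.ball₁.subset (by simp))
      (h1.ball₂.subset (by simp)) h1.ball₂.isPreconnected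
  rw [← c.image_eq]
  exact h3.image _ c.pf.1

lemma circ_nontrivial {Γ : Set E} (hΓ : Nonempty (PLEquiv (S1 ℝ) Γ)) : Γ.Nontrivial := by
  obtain ⟨c⟩ := hΓ
  have hp : ((1:ℝ), (0:ℝ)) ∈ S1 ℝ := by show N1 _ = 1; simp [N1]
  have hq : ((-1:ℝ), (0:ℝ)) ∈ S1 ℝ := by show N1 _ = 1; simp [N1]
  refine ⟨_, c.mf hp, _, c.mf hq, fun h => ?_⟩
  have h1 := c.injOn hp hq h
  have := congrArg Prod.fst h1; norm_num at this

lemma circ_isCompact {Γ : Set E} (hΓ : Nonempty (PLEquiv (S1 ℝ) Γ)) : IsCompact Γ := by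
  obtain ⟨c⟩ := hΓ
  rw [← c.image_eq]
  exact isCompact_S1.image_of_continuousOn c.pf.1

/-- a subarc of a chart -/
lemma isBall_subarc {A : Set E} (e : PLEquiv (cube 1) A) {a b : ℝ} (hab : a < b) (ha : -1 ≤ a)
    (hb : b ≤ 1) : IsBall 1 ((fun t : ℝ => e.f (fun _ => t)) '' Icc a b)
      {e.f (fun _ => a), e.f (fun _ => b)} := by
  have hne : (fun _ => a : Fin 1 → ℝ) ≠ fun _ => b := fun h => hab.ne (congrFun h 0)
  have h1 := isBall_segment hne
  have h2 : segment ℝ (fun _ => a : Fin 1 → ℝ) (fun _ => b) = (fun t : ℝ => (fun _ => t : Fin 1 → ℝ)) '' Icc a b := by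
    rw [segment_eq_image_lineMap]
    ext x
    constructor
    · rintro ⟨s, hs, rfl⟩
      refine ⟨a + s * (b - a), ⟨by nlinarith [hs.1], by nlinarith [hs.2]⟩, ?_⟩
      funext j
      simp [AffineMap.lineMap_apply]; ring
    · rintro ⟨t, ht, rfl⟩
      refine ⟨(t - a) / (b - a), ⟨div_nonneg (by linarith [ht.1]) (by linarith),
        by rw [div_le_one (by linarith)]; linarith [ht.2]⟩, ?_⟩
      funext j
      simp only [AffineMap.lineMap_apply, vsub_eq_sub, vadd_eq_add, Pi.add_apply, Pi.smul_apply,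
        Pi.sub_apply, smul_eq_mul]
      field_simp [show b - a ≠ 0 by linarith]
      ring
  have hsub : segment ℝ (fun _ => a : Fin 1 → ℝ) (fun _ => b) ⊆ cube 1 := by
    rw [h2]
    rintro _ ⟨t, ht, rfl⟩
    rw [mem_cube1, abs_le]
    exact ⟨by linarith [ht.1], by linarith [ht.2]⟩
  have h3 := h1.map (e.restrImage hsub)
  have h4 : e.f '' segment ℝ (fun _ => a : Fin 1 → ℝ) (fun _ => b)
      = (fun t : ℝ => e.f (fun _ => t)) '' Icc a b := by
    rw [h2, image_image]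
  have h5 : (e.restrImage hsub).f '' {(fun _ => a : Fin 1 → ℝ), fun _ => b}
      = {e.f (fun _ => a), e.f (fun _ => b)} := by
    rw [image_pair]; rfl
  rw [h5] at h3
  have h6 : (e.f '' segment ℝ (fun _ => a : Fin 1 → ℝ) (fun _ => b)) =
    (fun t : ℝ => e.f (fun _ => t)) '' Icc a b := h4
  rw [← h6]
  exact h3

/-- **components of `{0 ≤ f}` on an arc** with `f < 0` at both ends -/
theorem arc_comp {A : Set E} {p q : E} (hA : IsBall 1 A {p, q}) {f : E → ℝ}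
    (hf : ContinuousOn f A) (hp : f p < 0) (hq : f q < 0)
    (hN : ∀ ω ∈ A, ω ≠ p → ω ≠ q → f ω = 0 → ω ∈ closure {ω' | ω' ∈ A ∧ f ω' < 0})
    (hP : ∀ ω ∈ A, f ω = 0 → ∃ T ⊆ {ω' | ω' ∈ A ∧ 0 ≤ f ω'},
      IsPreconnected T ∧ ω ∈ T ∧ T.Nontrivial)
    {ω0 : E} (h0 : ω0 ∈ A) (h0' : 0 ≤ f ω0) :
    ∃ B z z', IsBall 1 B {z, z'} ∧ B ⊆ A ∧ ω0 ∈ B ∧ f z = 0 ∧ f z' = 0 ∧
      (∀ ω ∈ B, ω ≠ z → ω ≠ z' → 0 < f ω) ∧
      ∀ C ⊆ {ω' | ω' ∈ A ∧ 0 ≤ f ω'}, IsPreconnected C → ω0 ∈ C → C ⊆ B := by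
  obtain ⟨e, he⟩ := hA
  set γ : ℝ → E := fun t => e.f (fun _ => t) with hγ
  set τ : E → ℝ := fun ω => e.g ω 0 with hτ
  have hIc : ∀ t ∈ Icc (-1:ℝ) 1, (fun _ => t : Fin 1 → ℝ) ∈ cube 1 := fun t ht =>
    mem_cube1.2 (abs_le.2 ht)
  have hγm : ∀ t ∈ Icc (-1:ℝ) 1, γ t ∈ A := fun t ht => e.mf (hIc t ht)
  have hγc : ContinuousOn γ (Icc (-1) 1) :=
    e.pf.1.comp (by fun_prop) (fun t ht => hIc t ht)
  have hτc : ContinuousOn τ A := (continuous_apply 0).comp_continuousOn e.pg.1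
  have hτm : ∀ ω ∈ A, τ ω ∈ Icc (-1:ℝ) 1 := fun ω hω => abs_le.1 (mem_cube1.1 (e.mg hω))
  have hγτ : ∀ ω ∈ A, γ (τ ω) = ω := by
    intro ω hω
    have : (fun _ => e.g ω 0 : Fin 1 → ℝ) = e.g ω := by funext j; rw [Subsingleton.elim j 0]
    show e.f (fun _ => e.g ω 0) = ω
    rw [this]; exact e.ri ω hω
  have hτγ : ∀ t ∈ Icc (-1:ℝ) 1, τ (γ t) = t := by
    intro t ht
    show e.g (e.f (fun _ => t)) 0 = t
    rw [e.li _ (hIc t ht)]
  have hm1 : (fun _ => -1 : Fin 1 → ℝ) ∈ sph 1 := mem_sph1.2 (by norm_num)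
  have hp1 : (fun _ => 1 : Fin 1 → ℝ) ∈ sph 1 := mem_sph1.2 (by norm_num)
  have hends : ∀ ω ∈ ({p, q} : Set E), f ω < 0 := by
    rintro ω (rfl | rfl)
    · exact hp
    · exact hq
  have hu : f (γ (-1)) < 0 := hends _ (by rw [← he]; exact ⟨_, hm1, rfl⟩)
  have hv : f (γ 1) < 0 := hends _ (by rw [← he]; exact ⟨_, hp1, rfl⟩)
  have hg : ContinuousOn (fun t => f (γ t)) (Icc (-1) 1) := hf.comp hγc hγm
  have hne : ∀ t ∈ Ioo (-1:ℝ) 1, γ t ≠ p ∧ γ t ≠ q := by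
    intro t ht
    have ht' : t ∈ Icc (-1:ℝ) 1 := ⟨ht.1.le, ht.2.le⟩
    have key : γ t ∉ ({p, q} : Set E) := by
      rw [← he]
      rintro ⟨x, hx, hxe⟩
      have h1 : x = fun _ => t := e.injOn (sph_subset_cube hx) (hIc t ht') hxe
      rw [h1, mem_sph1] at hx
      have h2 : |t| < 1 := abs_lt.2 ht
      exact h2.ne hx
    exact ⟨fun h => key (by rw [h]; simp), fun h => key (by rw [h]; simp)⟩
  have hτimg : ∀ T ⊆ {ω' | ω' ∈ A ∧ 0 ≤ f ω'}, IsPreconnected T →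
      IsPreconnected (τ '' T) ∧ τ '' T ⊆ {t' | t' ∈ Icc (-1:ℝ) 1 ∧ 0 ≤ f (γ t')} := by
    intro T hT hTp
    refine ⟨hTp.image _ (hτc.mono fun ω h => (hT h).1), ?_⟩
    rintro _ ⟨ω, hω, rfl⟩
    refine ⟨hτm ω (hT hω).1, ?_⟩
    rw [hγτ ω (hT hω).1]; exact (hT hω).2
  obtain ⟨a, b, hab, hua, hbv, h0ab, hga, hgb, hpos, hmax⟩ := interval_comp (g := fun t => f (γ t))
    (u := -1) (v := 1) hg hu hv (by
      intro t ht h0
      have ht' : t ∈ Icc (-1:ℝ) 1 := ⟨ht.1.le, ht.2.le⟩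
      have h1 := hN (γ t) (hγm t ht') (hne t ht).1 (hne t ht).2 h0
      have h2 : τ (γ t) ∈ closure (τ '' {ω' | ω' ∈ A ∧ f ω' < 0}) := by
        have hcw : ContinuousWithinAt τ {ω' | ω' ∈ A ∧ f ω' < 0} (γ t) :=
          (hτc (γ t) (hγm t ht')).mono fun ω h => h.1
        exact hcw.mem_closure_image h1
      rw [hτγ t ht'] at h2
      refine closure_mono ?_ h2
      rintro _ ⟨ω, hω, rfl⟩
      refine ⟨hτm ω hω.1, ?_⟩
      rw [hγτ ω hω.1]; exact hω.2) (by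
      intro t ht h0
      obtain ⟨T, hT, hTp, hTt, hTn⟩ := hP (γ t) (hγm t ht) h0
      obtain ⟨h1, h2⟩ := hτimg T hT hTp
      refine ⟨τ '' T, h2, h1, ⟨γ t, hTt, hτγ t ht⟩, ?_⟩
      refine hTn.image_of_injOn ?_
      intro x hx y hy hxy
      rw [← hγτ x (hT hx).1, ← hγτ y (hT hy).1, hxy])
    (hτm ω0 h0) (by rw [hγτ ω0 h0]; exact h0')
  have hIab : Icc a b ⊆ Icc (-1:ℝ) 1 := Icc_subset_Icc hua.le hbv.le
  refine ⟨γ '' Icc a b, γ a, γ b, isBall_subarc e hab hua.le hbv.le, ?_, ?_, hga, hgb, ?_, ?_⟩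
  · rintro _ ⟨t, ht, rfl⟩; exact hγm t (hIab ht)
  · exact ⟨τ ω0, h0ab, hγτ ω0 h0⟩
  · rintro _ ⟨t, ht, rfl⟩ h1 h2
    refine hpos t ⟨lt_of_le_of_ne ht.1 ?_, lt_of_le_of_ne ht.2 ?_⟩
    · rintro rfl; exact h1 rfl
    · rintro rfl; exact h2 rfl
  · intro C hC hCp h0C ω hω
    obtain ⟨h1, h2⟩ := hτimg C hC hCp
    have h3 := hmax (τ '' C) h2 h1 ⟨ω0, h0C, rfl⟩ ⟨ω, hω, rfl⟩
    exact ⟨τ ω, h3, hγτ ω (hC hω).1⟩

/-- **components of `{0 ≤ f}` on a PL circle are arcs with end points in `{f = 0}`** -/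
theorem circ_comp {Γ : Set E} (hΓ : Nonempty (PLEquiv (S1 ℝ) Γ)) {f : E → ℝ}
    (hf : ContinuousOn f Γ) (hneg : ∃ ω ∈ Γ, f ω < 0)
    (hN : ∀ ω ∈ Γ, f ω = 0 → ω ∈ closure {ω' | ω' ∈ Γ ∧ f ω' < 0})
    (hP : ∀ ω ∈ Γ, f ω = 0 → ∃ T ⊆ {ω' | ω' ∈ Γ ∧ 0 ≤ f ω'},
      IsPreconnected T ∧ ω ∈ T ∧ T.Nontrivial)
    {ω0 : E} (h0 : ω0 ∈ Γ) (h0' : 0 ≤ f ω0) :
    ∃ B z z', IsBall 1 B {z, z'} ∧ B ⊆ Γ ∧ ω0 ∈ B ∧ f z = 0 ∧ f z' = 0 ∧
      (∀ ω ∈ B, ω ≠ z → ω ≠ z' → 0 < f ω) ∧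
      ∀ C ⊆ {ω' | ω' ∈ Γ ∧ 0 ≤ f ω'}, IsPreconnected C → ω0 ∈ C → C ⊆ B := by
  have hΓc := circ_isCompact hΓ
  -- two negative points
  obtain ⟨p, hp, q, hq, hpq, hfp, hfq⟩ : ∃ p ∈ Γ, ∃ q ∈ Γ, p ≠ q ∧ f p < 0 ∧ f q < 0 := by
    obtain ⟨p, hp, hfp⟩ := hneg
    by_contra hcon
    push Not at hcon
    have h1 : ∀ q ∈ Γ, q ≠ p → 0 ≤ f q := fun q hq hne => hcon p hp q hq (Ne.symm hne) hfp
    have hpre := circ_isPreconnected hΓ
    obtain ⟨y, hy, hyp⟩ : ∃ y ∈ Γ, y ≠ p := (circ_nontrivial hΓ).exists_ne p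
    -- intermediate value: values in `(f p, 0)`
    obtain ⟨x, hx, hx0⟩ := hpre.intermediate_value hp hy hf
      (show f p / 2 ∈ Icc (f p) (f y) from ⟨by linarith, by linarith [h1 y hy hyp]⟩)
    by_cases hxp : x = p
    · rw [hxp] at hx0; linarith
    · have := h1 x hx hxp; linarith
  obtain ⟨A, B, hA, hB, hAB, hU⟩ := circ_two_marks hΓ hp hq hpq
  -- both arcs are treated in the same way
  have key : ∀ {A B : Set E}, IsBall 1 A {p, q} → IsBall 1 B {p, q} → A ∩ B = {p, q} →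
      A ∪ B = Γ → ω0 ∈ A → ∃ B' z z', IsBall 1 B' {z, z'} ∧ B' ⊆ Γ ∧ ω0 ∈ B' ∧ f z = 0 ∧
        f z' = 0 ∧ (∀ ω ∈ B', ω ≠ z → ω ≠ z' → 0 < f ω) ∧
        ∀ C ⊆ {ω' | ω' ∈ Γ ∧ 0 ≤ f ω'}, IsPreconnected C → ω0 ∈ C → C ⊆ B' := by
    intro A B hA hB hAB hU h0A
    have hAΓ : A ⊆ Γ := hU ▸ subset_union_left
    have hnot : ∀ ω, 0 ≤ f ω → ω ∉ ({p, q} : Set E) := by
      rintro ω hω (rfl | rfl)
      · exact absurd hω (not_le.2 hfp)
      · exact absurd hω (not_le.2 hfq)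
    -- a preconnected set in `{0 ≤ f}` which meets `A` lies in `A`
    have hin : ∀ C ⊆ {ω' | ω' ∈ Γ ∧ 0 ≤ f ω'}, IsPreconnected C → ∀ x ∈ C, x ∈ A → C ⊆ A := by
      intro C hC hCp x hx hxA
      by_contra hcon
      rw [not_subset] at hcon
      obtain ⟨y, hy, hyA⟩ := hcon
      have hyB : y ∈ B := by
        have := (hC hy).1
        rw [← hU] at this
        exact this.resolve_left hyA
      obtain ⟨w, hwC, hwA, hwB⟩ := isPreconnected_closed_iff.1 hCp A B hA.isClosed hB.isClosed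
        (by rw [hU]; exact fun ω h => (hC h).1) ⟨x, hx, hxA⟩ ⟨y, hy, hyB⟩
      refine hnot w (hC hwC).2 ?_
      rw [← hAB]; exact ⟨hwA, hwB⟩
    obtain ⟨B', z, z', h1, h2, h3, h4, h5, h6, h7⟩ := arc_comp hA (hf.mono hAΓ) hfp hfq (by
      intro ω hω hω1 hω2 hω0
      have h1 := hN ω (hAΓ hω) hω0
      have hωB : ω ∉ B := fun hB' => by
        have : ω ∈ ({p, q} : Set E) := by rw [← hAB]; exact ⟨hω, hB'⟩
        rcases this with h | h
        · exact hω1 h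
        · exact hω2 h
      have hopen : Bᶜ ∈ nhds ω := hB.isClosed.isOpen_compl.mem_nhds hωB
      rw [mem_closure_iff_nhds] at h1 ⊢
      intro U hU'
      obtain ⟨y, ⟨hyU, hyB⟩, hy1, hy2⟩ := h1 (U ∩ Bᶜ) (Filter.inter_mem hU' hopen)
      refine ⟨y, hyU, ?_, hy2⟩
      rw [← hU] at hy1
      exact hy1.resolve_right hyB) (by
      intro ω hω hω0
      obtain ⟨T, hT, hTp, hωT, hTn⟩ := hP ω (hAΓ hω) hω0
      exact ⟨T, fun y hy => ⟨hin T hT hTp ω hωT hω hy, (hT hy).2⟩, hTp, hωT, hTn⟩) h0A h0'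
    refine ⟨B', z, z', h1, h2.trans hAΓ, h3, h4, h5, h6, fun C hC hCp h0C => ?_⟩
    exact h7 C (fun y hy => ⟨hin C hC hCp ω0 h0C h0A hy, (hC hy).2⟩) hCp h0C
  rw [← hU] at h0
  rcases h0 with h0 | h0
  · exact key hA hB hAB hU h0
  · exact key hB hA (by rw [inter_comm]; exact hAB) (by rw [union_comm]; exact hU) h0

end Circle

end Crest.Agent.R096.Arc_778
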