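import Crest.Agent.R096.St4_147

/-!
# R096 / P3 / P3D-D : the inner discs `DD` of the closed double curves from refined Sep

`exists_DD` : `Good s Act far`, `RefStmt A τ` ⟹ `∃ D, DD A τ A.mx far D`.
-/

set_option autoImplicit false

namespace Crest.Agent.R096.Sd1_161

open Wk_689 St_147

variable {ι Φ W I : Type} {M : MeshC ι Φ W} {col : I → Bool} {s : St M col} {Act : Set ι}

/-! ### curves -/

theorem cv_self (A : s.Arcs Act) (z : s.Dbl) : z ∈ A.cv z := Relation.ReflTransGen.refl

theorem cv_sub {A : s.Arcs Act} {z u : s.Dbl} (hz : z ∈ A.mx) (hu : u ∈ A.cv z) : u ∈ A.mx := by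
  induction hu with
  | refl => exact hz
  | tail _ h ih =>
    obtain ⟨q, hq, rfl⟩ := h
    exact (A.mx_closed _ ih q hq).2

theorem cv_step {A : s.Arcs Act} {z u : s.Dbl} (hu : u ∈ A.cv z) {q : ι} (hq : q ∈ M.side u.F) :
    A.arc q u ∈ A.cv z := Relation.ReflTransGen.tail hu ⟨q, hq, rfl⟩

theorem cv_back {A : s.Arcs Act} {z u : s.Dbl} {q : ι} (hq : q ∈ Act) (hqu : q ∈ M.side u.F)
    (hu : A.arc q u ∈ A.cv z) : u ∈ A.cv z := by
  have := cv_step hu (A.mem hq hqu)
  rwa [A.inv hq hqu] at this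

theorem cv_symm {A : s.Arcs Act} {z u : s.Dbl} (hz : z ∈ A.mx) (hu : u ∈ A.cv z) :
    z ∈ A.cv u := by
  induction hu with
  | refl => exact cv_self A z
  | @tail b c hb h ih =>
    obtain ⟨q, hq, rfl⟩ := h
    have hbG : b ∈ A.mx := cv_sub hz hb
    have hqA : q ∈ Act := (A.mx_closed _ hbG q hq).1
    have h1 : b ∈ A.cv (A.arc q b) := by
      have := cv_step (cv_self A (A.arc q b)) (A.mem hqA hq)
      rwa [A.inv hqA hq] at this
    exact Relation.ReflTransGen.trans h1 ih

theorem cv_eq {A : s.Arcs Act} {z u : s.Dbl} (hz : z ∈ A.mx) (hu : u ∈ A.cv z) :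
    A.cv u = A.cv z := by
  ext v
  constructor
  · intro hv
    exact Relation.ReflTransGen.trans hu hv
  · intro hv
    exact Relation.ReflTransGen.trans (cv_symm hz hu) hv

theorem mx_back {A : s.Arcs Act} {u : s.Dbl} {q : ι} (hq : q ∈ Act) (hqu : q ∈ M.side u.F)
    (hu : A.arc q u ∈ A.mx) : u ∈ A.mx := by
  have := (A.mx_closed _ hu q (A.mem hq hqu)).2
  rwa [A.inv hq hqu] at this

/-! ### labels -/

theorem lab_dz (u : s.Dbl) (x b : Bool) : s.lab (pt (dz u x b)) = s.lab (u.e x) := by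
  rw [lab_pt]
  cases b
  · rfl
  · show s.lab (chd (bel u x)).2 = _
    rw [below_chd (bel_spec u x)]

theorem lab_arc (A : s.Arcs Act) (x : Bool) {q : ι} {u : s.Dbl} (hq : q ∈ Act)
    (hu : q ∈ M.side u.F) : s.lab ((A.arc q u).e x) = s.lab (u.e x) := by
  classical
  have h := A.same x hq hu (fun p => if s.lab (chd p).2 = s.lab (u.e x) then 1 else 0) (by
      intro F F' w p p' _ _ he he'
      have key : ∀ (F : Φ) (p : s.Sub x), p.End F w → s.lab (chd p).2 = s.lab w := by
        intro F p he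
        obtain ⟨hat, h | h⟩ := he
        · obtain ⟨_, b, rfl, hb⟩ := h
          simp only [chd, hb]
        · obtain ⟨_, h⟩ := h
          rcases p with b | z
          · simp only [chd]
            rw [h.1]
            exact s.mu_lab hat.1 hat.2
          · simp only [chd]
            rw [h.2.1]
            exact s.mu_lab hat.1 hat.2
      simp only [key F p he, key F' p' he']) (by
      intro v p p' _ hb ha
      rw [below_chd hb, ha]
      rfl)
  have e1 : (chd (Sum.inr u : s.Sub x)).2 = u.e x := rfl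
  have e2 : (chd (Sum.inr (A.arc q u) : s.Sub x)).2 = (A.arc q u).e x := rfl
  simp only [e1, e2, if_true] at h
  by_contra hne
  rw [if_neg hne] at h
  exact one_ne_zero h

theorem lab_cv {A : s.Arcs Act} {z u : s.Dbl} (hz : z ∈ A.mx) (hu : u ∈ A.cv z) (x : Bool) :
    s.lab (u.e x) = s.lab (z.e x) := by
  induction hu with
  | refl => rfl
  | @tail b c hb h ih =>
    obtain ⟨q, hq, rfl⟩ := h
    have hqA : q ∈ Act := (A.mx_closed _ (cv_sub hz hb) q hq).1
    rw [lab_arc A x hqA hq, ih]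

/-! ### functions on pieces with prescribed jumps -/

structure CC (A : s.Arcs Act) (τ : Bool → ι → s.Dbl → ZMod 2) (γ : Set s.Dbl)
    (C : Dart s → ZMod 2) : Prop where
  fl : ∀ d, C (flip d) = C d
  cont : ∀ (F F' : Φ) (w : W) (h : s.At F w) (h' : s.At F' w), C (ed h) = C (ed h')
  jin : ∀ u ∈ γ, ∀ x, C (dz u x true) + C (dz u x false) = 1
  jout : ∀ u ∉ γ, ∀ x, C (dz u x true) = C (dz u x false)
  along : ∀ u ∉ γ, ∀ x q, q ∈ Act → q ∈ M.side u.F →
    C (dz u x false) = C (dz (A.arc q u) x false)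
  tau : ∀ u ∈ γ, ∀ x q, q ∈ M.side u.F →
    C (dz u x false) + C (dz (A.arc q u) x false) = τ x q u

/-- functions which are equal on both sides of every face and continuous inside the cells are
continuous at the points -/
theorem cont_of_link {C : Dart s → ZMod 2} {c : ι → Dart s → ZMod 2}
    (hC : ∀ q d, q ∈ M.side (fc d) → c q d = C d)
    (hc : ∀ (q : ι) (F F' : Φ) (w : W) (h : s.At F w) (h' : s.At F' w), q ∈ M.side F →
      q ∈ M.side F' → c q (ed h) = c q (ed h'))
    (F F' : Φ) (w : W) (h : s.At F w) (h' : s.At F' w) : C (ed h) = C (ed h') := by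
  obtain ⟨q, hq⟩ : ∃ q, q ∈ M.side F := ⟨_, Sym2.out_fst_mem _⟩
  obtain ⟨q', hq'⟩ : ∃ q, q ∈ M.side F' := ⟨_, Sym2.out_fst_mem _⟩
  have key := M.link w {r | ∀ F1 (h1 : s.At F1 w), r ∈ M.side F1 → c r (ed h1) = C (ed h)} (by
      intro F1 hF1 r hr r' hr' hrA F2 h2 hr2
      have h1 : s.At F1 w := ⟨h.1, hF1⟩
      have e1 := hrA F1 h1 hr
      rw [hc r' F2 F1 w h2 h1 hr2 hr', hC r' (ed h1) (by rw [fc_ed]; exact hr'),
        ← hC r (ed h1) (by rw [fc_ed]; exact hr), e1])
    F h.2 q hq (by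
      intro F1 h1 hq1
      rw [hc q F1 F w h1 h hq1 hq, hC q (ed h) (by rw [fc_ed]; exact hq)])
    F' h'.2 q' hq'
  have := key F' h' hq'
  rw [hC q' (ed h') (by rw [fc_ed]; exact hq')] at this
  exact this.symm

open Classical in
theorem exists_CC {A : s.Arcs Act} {τ : Bool → ι → s.Dbl → ZMod 2} (hR : RefStmt A τ)
    {z : s.Dbl} (hz : z ∈ A.mx) : ∃ C, CC A τ (A.cv z) C := by
  set a : Bool → ι → s.Dbl → ZMod 2 := fun _ q u => if u ∈ A.cv z ∧ q ∈ Act then 1 else 0 with ha
  have hact : ∀ u ∈ A.cv z, ∀ q ∈ M.side u.F, q ∈ Act := fun u hu q hq =>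
    (A.mx_closed _ (cv_sub hz hu) q hq).1
  have ha1 : ∀ x q u, u ∈ A.cv z → q ∈ M.side u.F → a x q u = 1 := by
    intro x q u hu hq
    simp only [ha]
    rw [if_pos ⟨hu, hact u hu q hq⟩]
  have ha0 : ∀ x q u, u ∉ A.cv z → a x q u = 0 := by
    intro x q u hu
    simp only [ha]
    rw [if_neg (fun h => hu h.1)]
  obtain ⟨c, hc⟩ := hR (fun _ => 0) a
    ⟨fun _ => rfl, fun w _ => Finset.sum_eq_zero (fun F _ => by unfold edv; split_ifs <;> rfl)⟩
    ⟨fun x q u hq => by simp only [ha]; rw [if_neg (fun h => hq h.2)],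
      fun x q u hq hu => by
        have : (A.arc q u ∈ A.cv z ∧ q ∈ Act) ↔ (u ∈ A.cv z ∧ q ∈ Act) :=
          ⟨fun h => ⟨cv_back hq hu h.1, h.2⟩, fun h => ⟨cv_step h.1 hu, h.2⟩⟩
        simp only [ha]
        exact if_congr this rfl rfl⟩
    (by
      intro x u q q' hs
      have hq : q ∈ M.side u.F := by rw [hs]; exact Sym2.mem_mk_left _ _
      have hq' : q' ∈ M.side u.F := by rw [hs]; exact Sym2.mem_mk_right _ _
      by_cases hu : u ∈ A.cv z
      · rw [ha1 x q u hu hq, ha1 x q' u hu hq']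
        decide
      · rw [ha0 x q u hu, ha0 x q' u hu])
  -- the common value on both sides of a face
  have hside : ∀ F : Φ, ∃ q, q ∈ M.side F := fun F => ⟨_, Sym2.out_fst_mem _⟩
  choose q0 hq0 using hside
  have hC : ∀ q d, q ∈ M.side (fc d) → c q d = c (q0 (fc d)) d := by
    intro q d hq
    by_cases h : q = q0 (fc d)
    · rw [← h]
    · have hs : M.side (fc d) = s(q, q0 (fc d)) :=
        (Sym2.mem_and_mem_iff h).1 ⟨hq, hq0 _⟩
      exact eq_of_add2 (hc.bd d _ _ hs).symm
  refine ⟨fun d => c (q0 (fc d)) d, ?_, ?_, ?_, ?_, ?_, ?_⟩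
  · intro d
    show c (q0 (fc (flip d))) (flip d) = _
    rw [fc_flip, hc.fl]
  · exact cont_of_link hC hc.cont
  · intro u hu x
    have hq := hq0 u.F
    show c (q0 (fc (dz u x true))) (dz u x true) + c (q0 (fc (dz u x false))) (dz u x false) = 1
    rw [fc_dz, fc_dz, hc.jump _ x u hq, ha1 x _ u hu hq]
  · intro u hu x
    have hq := hq0 u.F
    show c (q0 (fc (dz u x true))) (dz u x true) = c (q0 (fc (dz u x false))) (dz u x false)
    rw [fc_dz, fc_dz]
    apply eq_of_add2
    rw [hc.jump _ x u hq, ha0 x _ u hu]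
  · intro u hu x q hqA hq
    have h := hc.arc q x u hqA hq
    rw [ha0 x q u hu, zero_mul] at h
    have h' := eq_of_add2 h
    rw [hC q (dz u x false) (by rw [fc_dz]; exact hq),
      hC q (dz (A.arc q u) x false) (by rw [fc_dz]; exact A.mem hqA hq)] at h'
    exact h'
  · intro u hu x q hq
    have hqA := hact u hu q hq
    have h := hc.arc q x u hqA hq
    rw [ha1 x q u hu hq, one_mul, hC q (dz u x false) (by rw [fc_dz]; exact hq),
      hC q (dz (A.arc q u) x false) (by rw [fc_dz]; exact A.mem hqA hq)] at h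
    exact h

/-! ### functions without jumps are constant on a sheet -/

/-- every dart has the value of the end darts of its chord when there is no jump on the chord -/
theorem val_dart {α : Type} {g : Dart s → α} (hfl : ∀ d, g (flip d) = g d)
    (d : Dart s) (hj : ∀ z : s.Dbl, z.F = fc d → z.e d.x = (chd d.p).2 →
      g (dz z d.x true) = g (dz z d.x false)) {w : W} (h : s.At (fc d) w)
    (hw : s.lo (fc d) w = (chd d.p).2) : g d = g (ed h) := by
  have hlab : s.lab w = s.lab (chd d.p).2 := by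
    rw [← hw]
    unfold St.lo
    split_ifs
    · rfl
    · exact (s.mu_lab h.1 h.2).symm
  refine chord_const hfl hj (F := fc d) (a := (chd d.p).2) rfl ?_ rfl ?_
  · rw [chd_ed h, hw]
  · rw [x_ed h, hlab]
    exact chd_col d.p

theorem const_sheet {i : I} (hconn : s.Conn i) {g : Dart s → ZMod 2}
    (hfl : ∀ d, g (flip d) = g d)
    (hcont : ∀ (F F' : Φ) (w : W) (h : s.At F w) (h' : s.At F' w), g (ed h) = g (ed h'))
    (hj : ∀ u : s.Dbl, s.lab (u.e (col i)) = i → g (dz u (col i) true) = g (dz u (col i) false))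
    {d d' : Dart s} (hd : s.lab (pt d) = i) (hd' : s.lab (pt d') = i) : g d = g d' := by
  have key : ∀ d : Dart s, s.lab (pt d) = i → g d = g (ed (pt_at d)) := by
    intro d hd
    have hx : d.x = col i := by rw [x_eq, hd]
    refine val_dart hfl d ?_ (pt_at d) (lo_pt d)
    intro z hz hz2
    have hl : s.lab (z.e d.x) = i := by rw [hz2, ← lab_pt, hd]
    have h1 := hj z (by rw [← hx]; exact hl)
    rw [← hx] at h1
    exact h1
  rw [key d hd, key d' hd']
  have hX := hconn.2 {w | s.lab w = i ∧ ∀ F (h : s.At F w), g (ed h) = g (ed (pt_at d))} (by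
      rintro F w ⟨hl, hw⟩ hat _
      refine ⟨(s.mu_lab hat.1 hat.2).trans hl, ?_⟩
      intro F' h'
      have h1 : s.At F (s.mu F w) := s.mu_mem hat.1 hat.2
      rw [hcont F' F (s.mu F w) h' h1, ← hw F hat]
      symm
      apply ed_mu_eq hfl hat h1
      intro z hz hz2
      rw [hl] at hz2 ⊢
      apply hj
      rw [hz2]
      unfold St.lo
      split_ifs
      · exact hl
      · exact (s.mu_lab hat.1 hat.2).trans hl) (pt d)
    ⟨hd, fun F h => hcont F (fc d) (pt d) h (pt_at d)⟩ (pt_at d).1 hd (pt d') (pt_at d').1 hd'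
  exact (hX.2 _ (pt_at d')).symm

/-! ### the normalised functions -/

/-- value at a point of the state -/
theorem exists_val {C : Dart s → ZMod 2}
    (hcont : ∀ (F F' : Φ) (w : W) (h : s.At F w) (h' : s.At F' w), C (ed h) = C (ed h')) :
    ∃ v : W → ZMod 2, ∀ F w (h : s.At F w), C (ed h) = v w := by
  classical
  refine ⟨fun w => if h : ∃ F, s.At F w then C (ed h.choose_spec) else 0, ?_⟩
  intro F w h
  have hex : ∃ F, s.At F w := ⟨F, h⟩
  show C (ed h) = dite _ _ _
  rw [dif_pos hex]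
  exact hcont _ _ _ _ _

/-- the value at the marked points of a sheet is constant -/
theorem far_const {far : I → Set W} (hg : s.Good Act far) {A : s.Arcs Act}
    {τ : Bool → ι → s.Dbl → ZMod 2} {z : s.Dbl} (hz : z ∈ A.mx) {C : Dart s → ZMod 2}
    (hC : CC A τ (A.cv z) C) {v : W → ZMod 2} (hv : ∀ F w (h : s.At F w), C (ed h) = v w)
    {i : I} {w w' : W} (hw : w ∈ far i) (hw' : w' ∈ far i) : v w' = v w := by
  have hX := hg.far_conn i {u | v u = v w} (by
      intro F u hu _ hat _ hfr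
      have h1 : s.At F (s.mu F u) := s.mu_mem hat.1 hat.2
      show v (s.mu F u) = v w
      rw [← hv F _ h1, ← show v u = v w from hu, ← hv F u hat]
      symm
      apply ed_mu_eq hC.fl hat h1
      intro y hy hy2
      apply hC.jout
      intro hyc
      rcases hfr with hfr | ⟨q, hq, hqn⟩
      · exact hfr y hy _ hy2
      · apply hqn
        exact (A.mx_closed _ (cv_sub hz hyc) q (by rw [hy]; exact hq)).1) w rfl hw
  exact hX hw'

open Classical in
/-- a function with the jumps of the curve `γ` -/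
noncomputable def Cf (A : s.Arcs Act) (τ : Bool → ι → s.Dbl → ZMod 2) (γ : Set s.Dbl) :
    Dart s → ZMod 2 := if h : ∃ C, CC A τ γ C then h.choose else 0

theorem Cf_spec {A : s.Arcs Act} {τ : Bool → ι → s.Dbl → ZMod 2} (hR : RefStmt A τ)
    {z : s.Dbl} (hz : z ∈ A.mx) : CC A τ (A.cv z) (Cf A τ (A.cv z)) := by
  unfold Cf
  rw [dif_pos (exists_CC hR hz)]
  exact (exists_CC hR hz).choose_spec

open Classical in
/-- value of `C` at the marked points of sheet `i` -/
noncomputable def fv (far : I → Set W) (C : Dart s → ZMod 2) (i : I) : ZMod 2 :=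
  if h : ∃ (F : Φ) (w : W), w ∈ far i ∧ s.At F w then C (ed h.choose_spec.choose_spec.2) else 0

theorem fv_spec {far : I → Set W} (hg : s.Good Act far) {A : s.Arcs Act}
    {τ : Bool → ι → s.Dbl → ZMod 2} {z : s.Dbl} (hz : z ∈ A.mx) {C : Dart s → ZMod 2}
    (hC : CC A τ (A.cv z) C) {i : I} {F : Φ} {w : W} (hw : w ∈ far i) (h : s.At F w) :
    C (ed h) = fv far C i := by
  obtain ⟨v, hv⟩ := exists_val hC.cont
  have hex : ∃ (F : Φ) (w : W), w ∈ far i ∧ s.At F w := ⟨F, w, hw, h⟩
  unfold fv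
  rw [dif_pos hex, hv _ _ h, hv]
  exact far_const hg hz hC hv hex.choose_spec.choose_spec.1 hw

open Classical in
/-- the inner disc of the curve of `z` on the sheet of colour `x` -/
noncomputable def Df (far : I → Set W) (A : s.Arcs Act) (τ : Bool → ι → s.Dbl → ZMod 2)
    (z : s.Dbl) (x : Bool) (d : Dart s) : ZMod 2 :=
  if s.lab (pt d) = s.lab (z.e x) then
    Cf A τ (A.cv z) d + fv far (Cf A τ (A.cv z)) (s.lab (z.e x)) else 0

variable {far : I → Set W} {A : s.Arcs Act} {τ : Bool → ι → s.Dbl → ZMod 2}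

theorem Df_on {z : s.Dbl} {x : Bool} {d : Dart s} (h : s.lab (pt d) = s.lab (z.e x)) :
    Df far A τ z x d = Cf A τ (A.cv z) d + fv far (Cf A τ (A.cv z)) (s.lab (z.e x)) := by
  unfold Df
  rw [if_pos h]

theorem Df_off {z : s.Dbl} {x : Bool} {d : Dart s} (h : s.lab (pt d) ≠ s.lab (z.e x)) :
    Df far A τ z x d = 0 := by
  unfold Df
  rw [if_neg h]

theorem add_add2 (a b c : ZMod 2) : (a + c) + (b + c) = a + b := by
  have := add_self2 c
  linear_combination this

/-- there is a marked end dart on every sheet which has a double point -/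
theorem exists_far (hg : s.Good Act far) (z : s.Dbl) (x : Bool) :
    ∃ (F : Φ) (w : W), w ∈ far (s.lab (z.e x)) ∧ s.At F w := by
  obtain ⟨w, hw⟩ := hg.far_ne (s.lab (z.e x))
  obtain ⟨hwP, hwl⟩ := hg.far_mem hw
  by_cases h : ∃ F, s.At F w
  · obtain ⟨F, hF⟩ := h
    exact ⟨F, w, hw, hF⟩
  · have h1 := (hg.conn (s.lab (z.e x))).2 {w} (by
      intro F w' hw' hat _
      rw [Set.mem_singleton_iff] at hw'
      subst hw'
      exact absurd ⟨F, hat⟩ h) w rfl hwP hwl (z.e x) (z.at_ x).1 rfl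
    rw [Set.mem_singleton_iff] at h1
    exact absurd ⟨z.F, h1 ▸ z.at_ x⟩ h

end Crest.Agent.R096.Sd1_161
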