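import Crest.Agent.R096.Arc1_422
import Crest.Agent.R096.Sd1_161

/-!
# R096 / ARR (AR)(b) = R3, instance: the double arcs of two sheets `i`, `j` of the final state over
one quad form a `Chn` (helper422)
-/

set_option autoImplicit false

namespace Crest.Agent.R096.Arc_422

open Crest.Agent.R096.St_147 Crest.Agent.R096.Wk_689

variable {ι Φ W I : Type} {M : MeshC ι Φ W} {col : I → Bool} {s : St M col} {Act : Set ι}

/-- the double points of the sheets `nm true`, `nm false` -/
abbrev Nd (s : St M col) (nm : Bool → I) : Type := {z : s.Dbl // ∀ x, s.lab (z.e x) = nm x}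

/-- the sides of the face of `z` which are active -/
def sid (Act : Set ι) {nm : Bool → I} (z : Nd s nm) : Set ι := {q | q ∈ M.side z.1.F ∧ q ∈ Act}

open Classical in
/-- the other end of the double arc -/
noncomputable def narc (A : s.Arcs Act) {nm : Bool → I} (q : ι) (z : Nd s nm) : Nd s nm :=
  if h : q ∈ M.side z.1.F ∧ q ∈ Act then
    ⟨A.arc q z.1, fun x => by rw [Sd1_161.lab_arc A x h.2 h.1]; exact z.2 x⟩ else z

theorem narc_val (A : s.Arcs Act) {nm : Bool → I} {q : ι} {z : Nd s nm} (h : q ∈ sid Act z) :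
    (narc A q z).1 = A.arc q z.1 := by
  unfold narc
  rw [dif_pos (show q ∈ M.side z.1.F ∧ q ∈ Act from h)]

/-- **the chain of the double arcs of two sheets**: no closed set of double arcs, two ends on
frozen faces with one active side, all other double points on faces with two active sides -/
noncomputable def stChn (A : s.Arcs Act) (hno : ∀ G : Set s.Dbl, A.Closed G → G = ∅)
    (nm : Bool → I) (e e' : Nd s nm) (hee : e ≠ e')
    (he : ∃! q, q ∈ M.side e.1.F ∧ q ∈ Act) (he' : ∃! q, q ∈ M.side e'.1.F ∧ q ∈ Act)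
    (hin : ∀ z : Nd s nm, z ≠ e → z ≠ e' → ∀ q ∈ M.side z.1.F, q ∈ Act) :
    Chn (Nd s nm) ι where
  S := sid Act
  arc := narc A
  e := e
  e' := e'
  ne {q z} h h1 := by
    have h2 := congrArg Subtype.val h1
    rw [narc_val A h] at h2
    exact A.ne h.2 h.1 h2
  mem {q z} h := by
    refine ⟨?_, h.2⟩
    rw [narc_val A h]
    exact A.mem h.2 h.1
  inv {q z} h := by
    have hm : q ∈ sid Act (narc A q z) := by
      refine ⟨?_, h.2⟩
      rw [narc_val A h]
      exact A.mem h.2 h.1
    apply Subtype.ext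
    rw [narc_val A hm, narc_val A h]
    exact A.inv h.2 h.1
  one := by
    obtain ⟨q, hq, hu⟩ := he
    exact ⟨q, Set.ext fun r => ⟨fun h => hu r h, fun h => by
      rw [Set.mem_singleton_iff] at h; rw [h]; exact hq⟩⟩
  one' := by
    obtain ⟨q, hq, hu⟩ := he'
    exact ⟨q, Set.ext fun r => ⟨fun h => hu r h, fun h => by
      rw [Set.mem_singleton_iff] at h; rw [h]; exact hq⟩⟩
  ee := hee
  two z h1 h2 := by
    obtain ⟨a, b, hab⟩ : ∃ a b, M.side z.1.F = s(a, b) := ⟨_, _, (Quot.out_eq _).symm⟩
    refine ⟨a, b, ?_, ?_⟩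
    · rintro rfl
      exact M.side_nd z.1.F (by rw [hab]; rfl)
    · ext q
      constructor
      · intro h
        have := h.1
        rw [hab, Sym2.mem_iff] at this
        exact this
      · intro h
        have h3 : q ∈ M.side z.1.F := by rw [hab, Sym2.mem_iff]; exact h
        exact ⟨h3, hin z h1 h2 q h3⟩
  no G hG := by
    have h1 := hno (Subtype.val '' G) (by
      rintro _ ⟨z, hz, rfl⟩ q hq
      obtain ⟨h1, h2, h3⟩ := hG z hz
      have hqA := hin z h1 h2 q hq
      refine ⟨hqA, narc A q z, h3 q ⟨hq, hqA⟩, narc_val A ⟨hq, hqA⟩⟩)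
    exact Set.image_eq_empty.1 h1

end Crest.Agent.R096.Arc_422
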