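import Crest.Agent.R096.Bd2_416

/-!
# R096 / WDEPTH (helper298): weighted depths for the cone placement (gap LEVEL RATIO, (F2))

`ι` finite, `k : ι → ℕ` an injective depth number (117's `exists_depth`), weights `w i > 0`:
heights `h i = u * w i` and centres `ρ i` with pairwise disjoint ramps `[ρ i - h i/2, ρ i + h i/2]`
in `[1/2, 1]`, ordered by `k`.
-/

set_option autoImplicit false

namespace Crest.Agent.R096.Cw_298

open Finset

/-- **weighted depths** -/
theorem exists_wdepth {ι : Type*} [Fintype ι] (k : ι → ℕ) (hk : Function.Injective k)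
    (w : ι → ℝ) (hw : ∀ i, 0 < w i) {u : ℝ} (hu : 0 < u) (hs : u * ∑ i, w i ≤ 1/2) :
    ∃ ρ : ι → ℝ, (∀ i, 1/2 ≤ ρ i - u * w i / 2) ∧ (∀ i, ρ i + u * w i / 2 ≤ 1) ∧
      (∀ i j, k j < k i → ρ j + u * w j / 2 ≤ ρ i - u * w i / 2) ∧
      (∀ i j, i ≠ j → (u * w i + u * w j) / 2 ≤ |ρ i - ρ j|) := by
  classical
  let S : ι → ℝ := fun i => ∑ l ∈ univ.filter (fun l => k l < k i), u * w l
  have hpos : ∀ l, 0 < u * w l := fun l => mul_pos hu (hw l)
  have hS0 : ∀ i, 0 ≤ S i := fun i => sum_nonneg fun l _ => (hpos l).le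
  have hstep : ∀ i j, k j < k i → S j + u * w j ≤ S i := by
    intro i j h
    have h1 : S j + u * w j = ∑ l ∈ insert j (univ.filter (fun l => k l < k j)), u * w l := by
      rw [sum_insert (by simp), add_comm]
    rw [h1]
    refine sum_le_sum_of_subset_of_nonneg ?_ (fun l _ _ => (hpos l).le)
    intro l hl
    rw [mem_insert, mem_filter] at hl
    rw [mem_filter]
    refine ⟨mem_univ _, ?_⟩
    rcases hl with rfl | ⟨_, hl⟩
    · exact h
    · exact hl.trans h
  have htop : ∀ i, S i + u * w i ≤ 1/2 := by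
    intro i
    have h1 : S i + u * w i = ∑ l ∈ insert i (univ.filter (fun l => k l < k i)), u * w l := by
      rw [sum_insert (by simp), add_comm]
    rw [h1]
    refine (sum_le_sum_of_subset_of_nonneg (subset_univ _) (fun l _ _ => (hpos l).le)).trans ?_
    rw [← mul_sum]; exact hs
  let ρ : ι → ℝ := fun i => 1/2 + S i + u * w i / 2
  have hord : ∀ i j, k j < k i → ρ j + u * w j / 2 ≤ ρ i - u * w i / 2 := by
    intro i j h
    have := hstep i j h
    show 1/2 + S j + u * w j / 2 + u * w j / 2 ≤ 1/2 + S i + u * w i / 2 - u * w i / 2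
    linarith
  refine ⟨ρ, fun i => ?_, fun i => ?_, hord, fun i j hij => ?_⟩
  · show 1/2 ≤ 1/2 + S i + u * w i / 2 - u * w i / 2
    have := hS0 i
    linarith
  · show 1/2 + S i + u * w i / 2 + u * w i / 2 ≤ 1
    have := htop i
    linarith
  · rcases lt_or_gt_of_ne (fun e => hij (hk e)) with h | h
    · have := hord j i h
      rw [abs_sub_comm]
      refine le_trans ?_ (le_abs_self _)
      linarith
    · have := hord i j h
      refine le_trans ?_ (le_abs_self _)
      linarith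

end Crest.Agent.R096.Cw_298

namespace Crest.Agent.R096.Cw_298

variable {E : Type*} [NormedAddCommGroup E] [NormedSpace ℝ E]

/-- **weighted `Dep`** of 416's recursion -/
theorem exists_dep {S : Set E} {ι : Type*} [Fintype ι] (L : Bd_416.Lam S ι) {K b : ℝ}
    (hC : Bd_416.Cst K b) (k : ι → ℕ) (hk : Function.Injective k) (w : ι → ℝ)
    (hw : ∀ i, 0 < w i) {u : ℝ} (hu : 0 < u) (hs : u * ∑ i, w i ≤ 1/2) :
    ∃ ρ : ι → ℝ, Bd_416.Dep L K b (fun i => u * w i) ρ ∧
      ∀ i j, k j < k i → ρ j + u * w j / 2 ≤ ρ i - u * w i / 2 := by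
  obtain ⟨ρ, h1, h2, h3, h4⟩ := exists_wdepth k hk w hw hu hs
  exact ⟨ρ, ⟨hC, fun i => mul_pos hu (hw i), h1, h2, fun i j hij _ => h4 i j hij⟩, h3⟩

/-- the standard choice `u = 1 / (2 Σ w)`: `h i = w i / (2 Σ w)` -/
theorem exists_dep_std {S : Set E} {ι : Type*} [Fintype ι] [Nonempty ι] (L : Bd_416.Lam S ι)
    {K b : ℝ} (hC : Bd_416.Cst K b) (k : ι → ℕ) (hk : Function.Injective k) (w : ι → ℝ)
    (hw : ∀ i, 0 < w i) :
    ∃ ρ : ι → ℝ, Bd_416.Dep L K b (fun i => 1 / (2 * ∑ l, w l) * w i) ρ ∧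
      ∀ i j, k j < k i → ρ j < ρ i := by
  have hsum : 0 < ∑ l, w l := Finset.sum_pos (fun i _ => hw i) Finset.univ_nonempty
  have hu : 0 < 1 / (2 * ∑ l, w l) := by positivity
  obtain ⟨ρ, h1, h2⟩ := exists_dep L hC k hk w hw hu (by field_simp; exact le_rfl)
  refine ⟨ρ, h1, fun i j h => ?_⟩
  have := h2 i j h
  have h3 := mul_pos hu (hw i)
  have h4 := mul_pos hu (hw j)
  linarith

end Crest.Agent.R096.Cw_298
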