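import Crest.Agent.R096.Bd14_416
import Crest.Agent.R096.Cw1_298

/-!
# R096 (row 96), P4-MESH, part 8: vertices, depths, the recursion over the mesh (helper416)
-/

set_option autoImplicit false

open Set Metric

namespace Crest.Agent.R096.Bd_416

open Crest.Agent.R096.Ce_537

open scoped Classical

variable {Q : Type} [PartialOrder Q] {dim : Q → ℕ} {J Fam : Type}
variable {E : Type*} [NormedAddCommGroup E] [NormedSpace ℝ E]
variable {C : Cmb Q dim J Fam} {K : Q → Set E} {D : Set Q} {g : Gd E J}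
  {P : ∀ q, C.I q → Set E} {c : ∀ q, C.I q → E → ℝ} {b : ℝ} {Ω : Set E}

/-! ### vertices -/

/-- the structure without pieces -/
def emptyLam (Z : Set E) (ι : Type*) [IsEmpty ι] : Lam Z ι where
  c i := isEmptyElim i
  B i := isEmptyElim i
  tr i := isEmptyElim i
  pc i := isEmptyElim i
  cm i := isEmptyElim i
  Bc i := isEmptyElim i
  BZ i := isEmptyElim i
  Bm i := isEmptyElim i
  pt i := isEmptyElim i
  trB i := isEmptyElim i
  ctr i := isEmptyElim i
  tr_self i := isEmptyElim i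
  tr_tr i := isEmptyElim i
  co i := isEmptyElim i
  Bo i := isEmptyElim i
  comm i := isEmptyElim i

/-- **cells without pieces** (vertices) -/
theorem newCell_empty {τ : Q} [IsEmpty (C.I τ)] (M : Lam (K τ) (C.I τ)) :
    NewCell C K g c b τ M :=
  ⟨fun x => isEmptyElim x, fun x => isEmptyElim x, fun x => isEmptyElim x,
    fun x => isEmptyElim x, fun x => isEmptyElim x⟩

theorem exists_newCell_vertex {τ : Q} (hd : dim τ = 0) :
    ∃ M : Lam (K τ) (C.I τ), NewCell C K g c b τ M := by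
  have := C.vert τ hd
  exact ⟨emptyLam (K τ) (C.I τ), newCell_empty _⟩

/-! ### depths -/

section rank

variable (H : Inv C K D g P c) (X : Cplx Ω Q dim K) {τ : Q} (hτ : ∀ σ < τ, σ ∈ D)

/-- `x` lies inside `x'` -/
def Ins (C : Cmb Q dim J Fam) (K : Q → Set E) (c : ∀ q, C.I q → E → ℝ) (τ : Q)
    (x x' : C.I τ) : Prop :=
  x ≠ x' ∧ C.fam (C.col τ x) = C.fam (C.col τ x') ∧ C.side τ x x' = 1 ∧ C.side τ x' x = 0 ∧
    ∃ z ∈ bdS K τ, cbd C K c τ x z ≠ -1/2

include H X hτ in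
/-- a piece which has only the values `±1/2` is empty -/
lemma empty_of_half (hd : 2 ≤ dim τ) (x : C.I τ)
    (hh : ∀ z ∈ bdS K τ, -1/2 < cbd C K c τ x z → cbd C K c τ x z = 1/2) :
    ∀ z ∈ bdS K τ, cbd C K c τ x z = -1/2 := by
  obtain ⟨o, ho, hoc⟩ := exists_base_pt H X hτ (by omega)
  have hoS : o ∈ bdS K τ :=
    mem_biUnion (show C.o τ ∈ {j | j < τ} from C.o_lt τ (by omega)) ho
  intro z hz
  by_contra hne
  have hm : cbd C K c τ x z ∈ I2 := (bdPcs H X τ hτ).cm x z hz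
  have hz1 : cbd C K c τ x z = 1/2 := hh z hz (lt_of_le_of_ne hm.1 (Ne.symm hne))
  have hcont : ContinuousOn (cbd C K c τ x) (bdS K τ) := ((bdPcs H X τ hτ).pc x).1
  have h1 := (preconn_bd X hd).intermediate_value hoS hz hcont
  have h0 : (0:ℝ) ∈ Icc (cbd C K c τ x o) (cbd C K c τ x z) := by
    rw [hoc x, hz1]; constructor <;> norm_num
  obtain ⟨y, hy, hy0⟩ := h1 h0
  have h2 := hh y hy (by rw [hy0]; norm_num)
  rw [hy0] at h2
  norm_num at h2

include H X hτ in
lemma Ins.geo (hd : 2 ≤ dim τ) {x x' : C.I τ} (h : Ins C K c τ x x') :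
    ∀ z ∈ bdS K τ, -1/2 < cbd C K c τ x z → cbd C K c τ x' z = 1/2 := by
  obtain ⟨hne, hf, h1, h2, z, hz, hzn⟩ := h
  have h01 : (0 : ZMod 2) ≠ 1 := by decide
  rcases bd_laminar H X hτ hd hne hf with h3 | h3 | h3 | h3
  · rw [h3.1] at h1; exact absurd h1 h01
  · exact h3.2.2
  · rw [h3.1] at h1; exact absurd h1 h01
  · exact absurd (h3.2.2 z hz).1 hzn

include H X hτ in
lemma Ins.trans (hd : 2 ≤ dim τ) {x x' x'' : C.I τ} (h : Ins C K c τ x x')
    (h' : Ins C K c τ x' x'') : Ins C K c τ x x'' := by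
  have g1 := h.geo H X hτ hd
  have g2 := h'.geo H X hτ hd
  have g3 : ∀ z ∈ bdS K τ, -1/2 < cbd C K c τ x z → cbd C K c τ x'' z = 1/2 := by
    intro z hz hc
    exact g2 z hz (by rw [g1 z hz hc]; norm_num)
  obtain ⟨hne, hf, h1, h2, z, hz, hzn⟩ := h
  have hm : ∀ y, ∀ z ∈ bdS K τ, cbd C K c τ y z ∈ I2 := fun y z hz =>
    (bdPcs H X τ hτ).cm y z hz
  have hzl : -1/2 < cbd C K c τ x z := lt_of_le_of_ne (hm x z hz).1 (Ne.symm hzn)
  have hne' : x ≠ x'' := by
    rintro rfl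
    exact hzn (empty_of_half H X hτ hd x g3 z hz)
  have hf' := hf.trans h'.2.1
  rcases bd_laminar H X hτ hd hne' hf' with h3 | h3 | h3 | h3
  · rcases h3.2.2 z hz with h4 | h4
    · exact absurd h4 hzn
    · have h5 := g3 z hz hzl
      rw [h4] at h5; norm_num at h5
  · exact ⟨hne', hf', h3.1, h3.2.1, z, hz, hzn⟩
  · exfalso
    refine hzn (empty_of_half H X hτ hd x (fun z hz hc => ?_) z hz)
    exact h3.2.2 z hz (by rw [g3 z hz hc]; norm_num)
  · exact absurd (h3.2.2 z hz).1 hzn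

omit [NormedSpace ℝ E] in
lemma Ins.irrefl {x : C.I τ} : ¬ Ins C K c τ x x := fun h => h.1 rfl

include H X hτ in
/-- **depth numbers**: injective, growing inwards -/
theorem exists_rank (hd : 2 ≤ dim τ) : ∃ k : C.I τ → ℕ, Function.Injective k ∧
    ∀ x x', Ins C K c τ x x' → k x' < k x := by
  let N : C.I τ → ℕ := fun x => (Finset.univ.filter fun y => Ins C K c τ x y).card
  have hN : ∀ x x', Ins C K c τ x x' → N x' < N x := by
    intro x x' h
    refine Finset.card_lt_card (Finset.ssubset_iff_subset_ne.2 ⟨?_, ?_⟩)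
    · intro y hy
      rw [Finset.mem_filter] at hy ⊢
      exact ⟨hy.1, h.trans H X hτ hd hy.2⟩
    · intro he
      have h1 : x' ∈ Finset.univ.filter fun y => Ins C K c τ x y :=
        Finset.mem_filter.2 ⟨Finset.mem_univ _, h⟩
      rw [← he] at h1
      exact Ins.irrefl (Finset.mem_filter.1 h1).2
  let m := Fintype.card (C.I τ)
  let f : C.I τ ≃ Fin m := Fintype.equivFin _
  refine ⟨fun x => N x * (m + 1) + f x, fun x y hxy => ?_, fun x x' h => ?_⟩
  · have h1 : N x * (m + 1) + f x = N y * (m + 1) + f y := hxy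
    have hx := (f x).isLt
    have hy := (f y).isLt
    have h2 : N x = N y := by
      have : (N x * (m + 1) + f x) / (m + 1) = (N y * (m + 1) + f y) / (m + 1) := by rw [h1]
      rw [Nat.add_comm (N x * (m+1)), Nat.add_comm (N y * (m+1)),
        Nat.add_mul_div_right _ _ (by omega), Nat.add_mul_div_right _ _ (by omega),
        Nat.div_eq_of_lt (by omega), Nat.div_eq_of_lt (by omega)] at this
      omega
    rw [h2] at h1
    have h3 : f x = f y := Fin.ext (by omega)
    exact f.injective h3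
  · have h1 := hN x x' h
    have hx := (f x).isLt
    have hx' := (f x').isLt
    show N x' * (m + 1) + f x' < N x * (m + 1) + f x
    have h2 : (N x' + 1) * (m + 1) ≤ N x * (m + 1) := Nat.mul_le_mul_right _ h1
    have h3 : (N x' + 1) * (m + 1) = N x' * (m + 1) + (m + 1) := by ring
    omega

/-- **the cone rule with weights** -/
theorem exists_newCell_cone (hd : 2 ≤ dim τ) {n : ℕ} (e : PLEquiv (cube n) (K τ))
    (he : e.f '' sph n = bdS K τ) {κ : ℝ} (hC : Cst κ b) (w : C.I τ → ℝ) (hw : ∀ x, 0 < w x)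
    {u : ℝ} (hu : 0 < u) (hs : u * ∑ x, w x ≤ 1/2) :
    ∃ (ρ : C.I τ → ℝ) (Dp : Dep (bdLam H X τ hτ) κ b (fun x => u * w x) ρ),
      NewCell C K g c b τ (Dp.fillBall e he) := by
  obtain ⟨k, hk, hkI⟩ := exists_rank H X hτ hd
  obtain ⟨ρ, Dp, hρ⟩ := Cw_298.exists_dep (bdLam H X τ hτ) hC k hk w hw hu hs
  refine ⟨ρ, Dp, newCell_cone H X hτ hd e he Dp fun x x' hne hf h1 h2 h3 => ?_⟩
  have h4 := hρ x x' (hkI x x' ⟨hne, hf, h1, h2, h3⟩)
  have h5 := mul_pos hu (hw x)
  have h6 := mul_pos hu (hw x')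
  linarith

end rank

/-! ### the recursion -/

section rec

/-- **THE RECURSION OVER THE MESH**, with a tracked property `Ψ n q` of the structure on `q`
before stage `n` (stage `n` fills the `n`-cells outside the given part `R`) -/
theorem mesh_rec (X : Cplx Ω Q dim K) {R : Set Q} (hR : ∀ q ∈ R, ∀ p < q, p ∈ R)
    {g0 : Gd E J} {P0 : ∀ q, C.I q → Set E} {c0 : ∀ q, C.I q → E → ℝ}
    (H0 : Inv C K R g0 P0 c0) (b : ℕ → ℝ) (hb0 : ∀ n, 0 < b n) (hb2 : ∀ n, b n < 1/2)
    (Ψ : ℕ → ∀ q, Gd E J → (C.I q → Set E) → (C.I q → E → ℝ) → Prop)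
    (hΨ0 : ∀ q ∈ R, Ψ 0 q g0 (P0 q) (c0 q))
    (hsq : ∀ n q g g' P c, Ψ n q g P c → (∀ z ∈ K q, EqAt (g.sq (b n)) g' z) →
      Ψ (n + 1) q g' (fun x => {z | z ∈ P x ∧ |c x z| ≤ b n})
        (fun x z => Bd_416.cl (c x z / (2 * b n))))
    (rule : ∀ n D g P c (_ : Inv C K D g P c), (∀ q ∈ D, Ψ n q g (P q) (c q)) →
      ∀ τ, dim τ = n → τ ∉ R → (∀ σ < τ, σ ∈ D) →
      ∃ M : Lam (K τ) (C.I τ), NewCell C K g c (b n) τ M ∧
        ∀ g', (∀ z ∈ K τ, EqAt (newGd C M) g' z) → Ψ (n + 1) τ g' M.B M.c)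
    (n : ℕ) : ∃ g P c, Inv C K (R ∪ {q | dim q < n}) g P c ∧
      ∀ q ∈ R ∪ {q | dim q < n}, Ψ n q g (P q) (c q) := by
  induction n with
  | zero =>
    have h1 : R ∪ {q | dim q < 0} = R := by
      rw [Set.union_eq_left]
      intro q hq; exact absurd hq (Nat.not_lt_zero _)
    rw [h1]
    exact ⟨g0, P0, c0, H0, hΨ0⟩
  | succ n ih =>
    obtain ⟨g, P, c, H, hΨ⟩ := ih
    set D : Set Q := R ∪ {q | dim q < n} with hDdef
    let N : Set Q := {q | dim q = n ∧ q ∉ R}
    have hD : ∀ q ∈ D, ∀ p < q, p ∈ D := by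
      rintro q (hq | hq) p hp
      · exact Or.inl (hR q hq p hp)
      · exact Or.inr ((X.mono q p hp).trans hq)
    have hDN : ∀ q ∈ N, q ∉ D := by
      rintro q ⟨hq1, hq2⟩ (hq | hq)
      · exact hq2 hq
      · exact absurd hq1 (ne_of_lt hq)
    have hN : ∀ τ ∈ N, ∀ σ < τ, σ ∈ D := by
      rintro τ ⟨h1, -⟩ σ hσ
      exact Or.inr (h1 ▸ X.mono τ σ hσ)
    have hr := fun τ (h : τ ∈ N) => rule n D g P c H hΨ τ h.1 h.2 (hN τ h)
    choose M hM hMΨ using hr
    have hfin : R ∪ {q | dim q < n + 1} = D ∪ N := by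
      ext q
      constructor
      · rintro (hq | hq)
        · exact Or.inl (Or.inl hq)
        · rcases Nat.lt_succ_iff_lt_or_eq.1 hq with h | h
          · exact Or.inl (Or.inr h)
          · by_cases hqR : q ∈ R
            · exact Or.inl (Or.inl hqR)
            · exact Or.inr ⟨h, hqR⟩
      · rintro ((hq | hq) | hq)
        · exact Or.inl hq
        · exact Or.inr (Nat.lt_succ_of_lt hq)
        · exact Or.inr (show dim q < n + 1 by rw [hq.1]; exact Nat.lt_succ_self n)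
    rw [hfin]
    refine ⟨_, _, _, stage H X hD hDN hN (hb0 n) (hb2 n) hM, ?_⟩
    rintro q (hq | hq)
    · have hqN : q ∉ N := fun h => hDN q h hq
      have e1 : stP C K N P c (b n) M q = fun x => {z | z ∈ P q x ∧ |c q x z| ≤ b n} := by
        funext x; exact stP_old hqN x
      have e2 : stc C K N c (b n) M q = fun x z => Bd_416.cl (c q x z / (2 * b n)) := by
        funext x z; exact stc_old hqN x z
      rw [e1, e2]
      exact hsq n q _ _ _ _ (hΨ q hq) fun z hz => st_old_eqAt X hD hDN hq hz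
    · have e1 : stP C K N P c (b n) M q = (M q hq).B := by
        funext x; exact stP_new hq x
      have e2 : stc C K N c (b n) M q = (M q hq).c := by
        funext x z; exact stc_new hq x z
      rw [e1, e2]
      exact hMΨ q hq _ fun z hz => st_new_eqAt H X hD hDN hN (hb0 n) (hb2 n) hM hq hz

end rec

end Crest.Agent.R096.Bd_416
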