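import Crest.Agent.R096.Arc2_778
import Crest.Agent.R096.Bd15_416

/-!
# R096 (row 96), (R4) CELL GEOMETRY, part 3: two pieces on a sphere; depth numbers for ALL pairs
(helper778)

* `Two S f` : `{0 ≤ f}` and `{f ≤ 0}` are preconnected, `f` has a zero.
* `Two.swap` : alternation is symmetric.  `Two.lam4` : no alternation ⟹ disjoint or nested.
* `Inc C K c τ x x'` : `x` lies inside `x'` (any two families).  `Ins.inc` : contains 416's `Ins`.
* `exists_rank_all` : depth numbers for `Inc` = requirement (N).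
-/

set_option autoImplicit false

open Set Metric

namespace Crest.Agent.R096.Arc_778

open Crest.Agent.R096.Ce_537 Crest.Agent.R096.Bd_416 Crest.Agent.R096.Cb_609 Crest.Agent.R096.Pl

open scoped Classical

/-! ### two functions on a sphere -/

section two

variable {X : Type*} [TopologicalSpace X] {S : Set X} {f g : X → ℝ}

/-- a function with two sides -/
structure Two (S : Set X) (f : X → ℝ) : Prop where
  cont : ContinuousOn f S
  pos : IsPreconnected {ω | ω ∈ S ∧ 0 ≤ f ω}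
  neg : IsPreconnected {ω | ω ∈ S ∧ f ω ≤ 0}
  zero : ∃ ω ∈ S, f ω = 0

/-- **alternation is symmetric** -/
theorem Two.swap (hf : Two S f) (hg : Two S g) (hd : ∀ ω ∈ S, f ω = 0 → g ω ≠ 0)
    (h1 : ∃ ω ∈ S, f ω = 0 ∧ 0 < g ω) (h2 : ∃ ω ∈ S, f ω = 0 ∧ g ω < 0) :
    (∃ ω ∈ S, g ω = 0 ∧ 0 < f ω) ∧ (∃ ω ∈ S, g ω = 0 ∧ f ω < 0) := by
  obtain ⟨u, hu, hu0, hug⟩ := h1
  obtain ⟨v, hv, hv0, hvg⟩ := h2
  have hd' : ∀ ω ∈ S, g ω = 0 → f ω ≠ 0 := fun ω hω h h' => hd ω hω h' h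
  constructor
  · obtain ⟨z, hz, hz0⟩ := hf.pos.intermediate_value (a := v) (b := u) ⟨hv, hv0.ge⟩ ⟨hu, hu0.ge⟩
      (hg.cont.mono fun ω h => h.1) (show (0:ℝ) ∈ Icc (g v) (g u) from ⟨hvg.le, hug.le⟩)
    exact ⟨z, hz.1, hz0, lt_of_le_of_ne hz.2 (Ne.symm (hd' z hz.1 hz0))⟩
  · obtain ⟨z, hz, hz0⟩ := hf.neg.intermediate_value (a := v) (b := u) ⟨hv, hv0.le⟩ ⟨hu, hu0.le⟩
      (hg.cont.mono fun ω h => h.1) (show (0:ℝ) ∈ Icc (g v) (g u) from ⟨hvg.le, hug.le⟩)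
    exact ⟨z, hz.1, hz0, lt_of_le_of_ne hz.2 (hd' z hz.1 hz0)⟩

/-- **no alternation: disjoint or nested** -/
theorem Two.lam4 (hf : Two S f) (hg : Two S g) (hd : ∀ ω ∈ S, f ω = 0 → g ω ≠ 0)
    (hs : (∀ ω ∈ S, f ω = 0 → 0 < g ω) ∨ (∀ ω ∈ S, f ω = 0 → g ω < 0))
    {o : X} (ho : o ∈ S) (hof : f o < 0) (hog : g o < 0) :
    (∀ ω ∈ S, 0 ≤ f ω → g ω < 0) ∨ (∀ ω ∈ S, 0 ≤ f ω → 0 < g ω) ∨
      (∀ ω ∈ S, 0 ≤ g ω → 0 < f ω) := by
  have hd' : ∀ ω ∈ S, g ω = 0 → f ω ≠ 0 := fun ω hω h h' => hd ω hω h' h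
  -- the sign of `f` on the zeros of `g`
  have hs' : (∀ ω ∈ S, g ω = 0 → 0 < f ω) ∨ (∀ ω ∈ S, g ω = 0 → f ω < 0) := by
    by_contra hcon
    rw [not_or] at hcon
    obtain ⟨h1, h2⟩ := hcon
    push Not at h1 h2
    obtain ⟨u, hu, hu0, huf⟩ := h1
    obtain ⟨v, hv, hv0, hvf⟩ := h2
    obtain ⟨⟨a, ha, ha0, hag⟩, ⟨b, hb, hb0, hbg⟩⟩ := hg.swap hf hd'
      ⟨v, hv, hv0, lt_of_le_of_ne hvf (Ne.symm (hd' v hv hv0))⟩
      ⟨u, hu, hu0, lt_of_le_of_ne huf (hd' u hu hu0)⟩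
    rcases hs with hs | hs
    · exact lt_asymm hbg (hs b hb hb0)
    · exact lt_asymm hag (hs a ha ha0)
  obtain ⟨u, hu, hu0⟩ := hf.zero
  obtain ⟨v, hv, hv0⟩ := hg.zero
  have hgc : ContinuousOn g {ω | ω ∈ S ∧ 0 ≤ f ω} := hg.cont.mono fun ω h => h.1
  rcases hs' with hs' | hs'
  · rcases hs with hs | hs
    · -- impossible
      exfalso
      obtain ⟨z, hz, hz0⟩ := hf.neg.intermediate_value (a := o) (b := u) ⟨ho, hof.le⟩
        ⟨hu, hu0.le⟩ (hg.cont.mono fun ω h => h.1)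
        (show (0:ℝ) ∈ Icc (g o) (g u) from ⟨hog.le, (hs u hu hu0).le⟩)
      exact absurd (hs' z hz.1 hz0) (not_lt.2 hz.2)
    · -- `{0 ≤ g}` inside `{0 < f}`
      right; right
      have h0 : ∀ ω ∈ {ω | ω ∈ S ∧ 0 ≤ g ω}, f ω ≠ 0 := fun ω hω h =>
        absurd (hs ω hω.1 h) (not_lt.2 hω.2)
      rcases sign_const hg.pos (hf.cont.mono fun ω h => h.1) h0 with h | h
      · exact absurd (h v ⟨hv, hv0.ge⟩) (not_lt.2 (hs' v hv hv0).le)
      · exact fun ω hω h1 => h ω ⟨hω, h1⟩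
  · have h0 : ∀ ω ∈ {ω | ω ∈ S ∧ 0 ≤ f ω}, g ω ≠ 0 := fun ω hω h =>
      absurd (hs' ω hω.1 h) (not_lt.2 hω.2)
    rcases sign_const hf.pos hgc h0 with h | h
    · left; exact fun ω hω h1 => h ω ⟨hω, h1⟩
    · right; left; exact fun ω hω h1 => h ω ⟨hω, h1⟩

end two

/-! ### depth numbers for all pairs -/

section rank

variable {Q : Type} [PartialOrder Q] {dim : Q → ℕ} {J Fam : Type}
variable {E : Type*} [NormedAddCommGroup E] [NormedSpace ℝ E]
variable {C : Cmb Q dim J Fam} {K : Q → Set E} {D : Set Q} {g : Gd E J}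
  {P : ∀ q, C.I q → Set E} {c : ∀ q, C.I q → E → ℝ} {b : ℝ} {Ω : Set E} {τ : Q}

/-- `x` lies inside `x'` (any two families); `f x` = the band function on the boundary `S` -/
def Inc {X I : Type*} (S : Set X) (f : I → X → ℝ) (x x' : I) : Prop :=
  x ≠ x' ∧ (∃ z ∈ S, 0 ≤ f x z) ∧ ∀ z ∈ S, 0 ≤ f x z → 0 < f x' z

/-- signs are enough -/
lemma Inc.congr {X I : Type*} {S : Set X} {f f' : I → X → ℝ} {x x' : I} (h : Inc S f x x')
    (hs : ∀ i, ∀ z ∈ S, SignType.sign (f' i z) = SignType.sign (f i z)) : Inc S f' x x' := by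
  obtain ⟨h1, ⟨z, hz, h2⟩, h3⟩ := h
  have e1 : ∀ i, ∀ z ∈ S, (0 ≤ f' i z ↔ 0 ≤ f i z) := fun i z hz => by
    rw [← sign_nonneg_iff, hs i z hz, sign_nonneg_iff]
  have e2 : ∀ i, ∀ z ∈ S, (0 < f' i z ↔ 0 < f i z) := fun i z hz => by
    rw [← sign_eq_one_iff, hs i z hz, sign_eq_one_iff]
  exact ⟨h1, ⟨z, hz, (e1 _ z hz).2 h2⟩, fun z hz h => (e2 _ z hz).2 (h3 z hz ((e1 _ z hz).1 h))⟩

/-- `Inc` is transitive -/
lemma Inc.trans {X I : Type*} [TopologicalSpace X] {S : Set X} {f : I → X → ℝ}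
    (hS : IsPreconnected S) (hc : ∀ x, ContinuousOn (f x) S) {o : X} (ho : o ∈ S)
    (hof : ∀ x, f x o < 0) {x x' x'' : I} (h : Inc S f x x') (h' : Inc S f x' x'') :
    Inc S f x x'' := by
  obtain ⟨h1, ⟨z, hz, h2⟩, h3⟩ := h
  obtain ⟨-, -, h4⟩ := h'
  have h5 : ∀ z ∈ S, 0 ≤ f x z → 0 < f x'' z := fun z hz h => h4 z hz (h3 z hz h).le
  refine ⟨?_, ⟨z, hz, h2⟩, h5⟩
  rintro rfl
  obtain ⟨y, hy, hy0⟩ := hS.intermediate_value ho hz (hc x)
    (show (0:ℝ) ∈ Icc (f x o) (f x z) from ⟨(hof x).le, h2⟩)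
  have := h5 y hy hy0.ge
  rw [hy0] at this
  exact lt_irrefl _ this

/-- numbers which respect a transitive irreflexive relation -/
lemma exists_rank_of {I : Type*} [Fintype I] (R : I → I → Prop) (ht : ∀ x y z, R x y → R y z → R x z)
    (hi : ∀ x, ¬ R x x) : ∃ k : I → ℕ, Function.Injective k ∧ ∀ x x', R x x' → k x' < k x := by
  let N : I → ℕ := fun x => (Finset.univ.filter fun y => R x y).card
  have hN : ∀ x x', R x x' → N x' < N x := by
    intro x x' h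
    refine Finset.card_lt_card (Finset.ssubset_iff_subset_ne.2 ⟨?_, ?_⟩)
    · intro y hy
      rw [Finset.mem_filter] at hy ⊢
      exact ⟨hy.1, ht _ _ _ h hy.2⟩
    · intro he
      have h1 : x' ∈ Finset.univ.filter fun y => R x y :=
        Finset.mem_filter.2 ⟨Finset.mem_univ _, h⟩
      rw [← he] at h1
      exact hi _ (Finset.mem_filter.1 h1).2
  let m := Fintype.card I
  let f : I ≃ Fin m := Fintype.equivFin _
  refine ⟨fun x => N x * (m + 1) + f x, fun x y hxy => ?_, fun x x' h => ?_⟩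
  · have h1 : N x * (m + 1) + f x = N y * (m + 1) + f y := hxy
    have hx := (f x).isLt
    have hy := (f y).isLt
    have h2 : N x = N y := by
      have : (N x * (m + 1) + f x) / (m + 1) = (N y * (m + 1) + f y) / (m + 1) := by rw [h1]
      rw [Nat.add_comm (N x * (m+1)), Nat.add_comm (N y * (m+1)),
        Nat.add_mul_div_right _ _ (by omega), Nat.add_mul_div_right _ _ (by omega),
        Nat.div_eq_of_lt (by omega), Nat.div_eq_of_lt (by omega)] at this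
      omega
    rw [h2] at h1
    have h3 : f x = f y := Fin.ext (by omega)
    exact f.injective h3
  · have h1 := hN x x' h
    have hx := (f x).isLt
    have hx' := (f x').isLt
    show N x' * (m + 1) + f x' < N x * (m + 1) + f x
    have h2 : (N x' + 1) * (m + 1) ≤ N x * (m + 1) := Nat.mul_le_mul_right _ h1
    have h3 : (N x' + 1) * (m + 1) = N x' * (m + 1) + (m + 1) := by ring
    omega

variable (H : Inv C K D g P c) (X : Cplx Ω Q dim K) (hτ : ∀ σ < τ, σ ∈ D)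

include H X hτ in
/-- every piece which is not `-1/2` everywhere has a zero on the boundary, and the band runs
through it -/
lemma exists_zero_of_ne {x : C.I τ} {z : E} (hz : z ∈ bdS K τ)
    (h : cbd C K c τ x z ≠ -1/2) : ∃ y ∈ bdS K τ, 0 ≤ cbd C K c τ x y := by
  have hm : cbd C K c τ x z ∈ I2 := (bdPcs H X τ hτ).cm x z hz
  by_cases h1 : |cbd C K c τ x z| < 1/2
  · have hB : z ∈ (bdLam H X τ hτ).B x := (bdLam H X τ hτ).Bm x z hz h1
    have h0 : (0:ℝ) ∈ I2 := ⟨by norm_num, by norm_num⟩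
    refine ⟨(bdLam H X τ hτ).tr x (z, 0), (bdLam H X τ hτ).BZ x
      ((bdLam H X τ hτ).trB x z hB 0 h0), ?_⟩
    have := (bdLam H X τ hτ).ctr x z hB 0 h0
    exact this.ge
  · refine ⟨z, hz, ?_⟩
    rcases half_of_I2 hm h1 with h2 | h2
    · exact absurd h2 h
    · rw [h2]; norm_num

include H X hτ in
/-- `Ins` (same family) is a special case of `Inc` -/
lemma Ins_inc (hd : 2 ≤ dim τ) {x x' : C.I τ} (h : Ins C K c τ x x') :
    Inc (bdS K τ) (cbd C K c τ) x x' := by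
  have hg := h.geo H X hτ hd
  obtain ⟨hne, hf, h1, h2, z, hz, hzn⟩ := h
  refine ⟨hne, exists_zero_of_ne H X hτ hz hzn, fun y hy hy0 => ?_⟩
  rw [hg y hy (by linarith)]; norm_num

include H X hτ in
/-- **depth numbers for all pairs** (requirement (N)) -/
theorem exists_rank_all (hd : 2 ≤ dim τ) : ∃ k : C.I τ → ℕ, Function.Injective k ∧
    (∀ x x', Ins C K c τ x x' → k x' < k x) ∧
    ∀ x x', Inc (bdS K τ) (cbd C K c τ) x x' → k x' < k x := by
  obtain ⟨o, ho, hoc⟩ := exists_base_pt H X hτ (by omega)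
  have hoS : o ∈ bdS K τ :=
    mem_biUnion (show C.o τ ∈ {j | j < τ} from C.o_lt τ (by omega)) ho
  have hc : ∀ x, ContinuousOn (cbd C K c τ x) (bdS K τ) := fun x =>
    ((bdPcs H X τ hτ).pc x).1
  obtain ⟨k, hk, hkI⟩ := exists_rank_of (Inc (bdS K τ) (cbd C K c τ))
    (fun x y z h h' => h.trans (preconn_bd X hd) hc hoS
      (fun x => by rw [hoc x]; norm_num) h') (fun x h => h.1 rfl)
  exact ⟨k, hk, fun x x' h => hkI x x' (Ins_inc H X hτ hd h), hkI⟩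

end rank

end Crest.Agent.R096.Arc_778
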