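import Crest.Agent.R096.Arc2_422
import Crest.Agent.R096.Cb6_609

/-!
# R096 (row 96), (R4) CELL GEOMETRY, part 4: the arcs of a closed cycle glue to ONE PL circle
(helper778).  Closed version of 422's `Chn` / `Real`.
-/

set_option autoImplicit false

open Set Metric

namespace Crest.Agent.R096.Arc_778

open Crest.Agent.R096.Ce_537 Crest.Agent.R096.Cb_609 Crest.Agent.R096.Pl Crest.Agent.R096.Arc_422

variable {Z ι : Type*}

/-- Nodes `Z`, sides `S z`, arcs `z — arc q z` for `q ∈ S z`; every node has two sides;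
connected. -/
structure Cyc (Z ι : Type*) where
  S : Z → Set ι
  arc : ι → Z → Z
  ne : ∀ {q z}, q ∈ S z → arc q z ≠ z
  mem : ∀ {q z}, q ∈ S z → q ∈ S (arc q z)
  inv : ∀ {q z}, q ∈ S z → arc q (arc q z) = z
  two : ∀ z, ∃ q q', q ≠ q' ∧ S z = {q, q'}
  conn : ∀ G : Set Z, G.Nonempty → (∀ z ∈ G, ∀ q ∈ S z, arc q z ∈ G) → G = univ

/-- cut the cycle at the arc `(q, z)` -/
def Cyc.cut (C : Cyc Z ι) (q₀ : ι) (z₀ : Z) (h : q₀ ∈ C.S z₀) : Chn Z ι where
  S z := {q | q ∈ C.S z ∧ ¬ (q = q₀ ∧ (z = z₀ ∨ z = C.arc q₀ z₀))}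
  arc := C.arc
  e := z₀
  e' := C.arc q₀ z₀
  ne h := C.ne h.1
  mem {q z} hq := by
    refine ⟨C.mem hq.1, ?_⟩
    rintro ⟨rfl, h1 | h1⟩
    · refine hq.2 ⟨rfl, Or.inr ?_⟩
      rw [← h1, C.inv hq.1]
    · refine hq.2 ⟨rfl, Or.inl ?_⟩
      have := congrArg (C.arc q) h1
      rwa [C.inv hq.1, C.inv h] at this
  inv h := C.inv h.1
  one := by
    obtain ⟨q, q', hne, hS⟩ := C.two z₀
    rw [hS] at h
    rcases h with rfl | h
    · refine ⟨q', ?_⟩
      ext r
      constructor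
      · rintro ⟨h1, h2⟩
        rw [hS] at h1
        rcases h1 with rfl | h1
        · exact absurd ⟨rfl, Or.inl rfl⟩ h2
        · exact h1
      · intro h1
        have h1' : r = q' := h1
        subst h1'
        exact ⟨by rw [hS]; right; rfl, fun h2 => hne h2.1.symm⟩
    · have h' : q₀ = q' := h
      subst h'
      refine ⟨q, ?_⟩
      ext r
      constructor
      · rintro ⟨h1, h2⟩
        rw [hS] at h1
        rcases h1 with h1 | h1
        · exact h1
        · have h1' : r = q₀ := h1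
          subst h1'
          exact absurd ⟨rfl, Or.inl rfl⟩ h2
      · intro h1
        have h1' : r = q := h1
        subst h1'
        exact ⟨by rw [hS]; left; rfl, fun h2 => hne h2.1⟩
  one' := by
    obtain ⟨q, q', hne, hS⟩ := C.two (C.arc q₀ z₀)
    have h0 := C.mem h
    rw [hS] at h0
    rcases h0 with h0 | h0
    · have h' : q₀ = q := h0
      subst h'
      refine ⟨q', ?_⟩
      ext r
      constructor
      · rintro ⟨h1, h2⟩
        rw [hS] at h1
        rcases h1 with h1 | h1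
        · have h1' : r = q₀ := h1
          subst h1'
          exact absurd ⟨rfl, Or.inr rfl⟩ h2
        · exact h1
      · intro h1
        have h1' : r = q' := h1
        subst h1'
        exact ⟨by rw [hS]; right; rfl, fun h2 => hne h2.1.symm⟩
    · have h' : q₀ = q' := h0
      subst h'
      refine ⟨q, ?_⟩
      ext r
      constructor
      · rintro ⟨h1, h2⟩
        rw [hS] at h1
        rcases h1 with h1 | h1
        · exact h1
        · have h1' : r = q₀ := h1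
          subst h1'
          exact absurd ⟨rfl, Or.inr rfl⟩ h2
      · intro h1
        have h1' : r = q := h1
        subst h1'
        exact ⟨by rw [hS]; left; rfl, fun h2 => hne h2.1⟩
  ee := (C.ne h).symm
  two z h1 h2 := by
    obtain ⟨q, q', hne, hS⟩ := C.two z
    refine ⟨q, q', hne, ?_⟩
    rw [← hS]
    ext r
    exact ⟨fun h3 => h3.1, fun h3 => ⟨h3, fun h4 => by
      rcases h4.2 with h5 | h5
      · exact h1 h5
      · exact h2 h5⟩⟩
  no G hG := by
    by_contra hne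
    have h1 := C.conn G (nonempty_iff_ne_empty.2 hne) (fun z hz q hq =>
      (hG z hz).2.2 q ⟨hq, fun h4 => by
        rcases h4.2 with h5 | h5
        · exact (hG z hz).1 h5
        · exact (hG z hz).2.1 h5⟩)
    have h2 : z₀ ∈ G := by rw [h1]; trivial
    exact (hG z₀ h2).1 rfl

variable {E : Type*} [NormedAddCommGroup E] [NormedSpace ℝ E]

/-- realisation of a cycle by PL arcs -/
structure CReal (C : Cyc Z ι) (v : Z → E) (Ar : ι → Z → Set E) : Prop where
  inj : Function.Injective v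
  sym : ∀ {q z}, q ∈ C.S z → Ar q (C.arc q z) = Ar q z
  ball : ∀ {q z}, q ∈ C.S z → IsBall 1 (Ar q z) {v z, v (C.arc q z)}
  disj : ∀ {q z z'}, q ∈ C.S z → q ∈ C.S z' → z' ≠ z → z' ≠ C.arc q z →
    Disjoint (Ar q z) (Ar q z')
  inter : ∀ {q q' z z'}, q ∈ C.S z → q' ∈ C.S z' → q ≠ q' →
    Ar q z ∩ Ar q' z' ⊆ {v z, v (C.arc q z)} ∩ {v z', v (C.arc q' z')}

/-- **ONE CIRCLE** -/
theorem CReal.circle [Finite Z] [Nonempty Z] {C : Cyc Z ι} {v : Z → E} {Ar : ι → Z → Set E}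
    (hR : CReal C v Ar) :
    Nonempty (PLEquiv (S1 ℝ) {x | ∃ z, ∃ q ∈ C.S z, x ∈ Ar q z}) := by
  obtain ⟨z₀⟩ := ‹Nonempty Z›
  obtain ⟨q₀, q₁, hne, hS⟩ := C.two z₀
  have h0 : q₀ ∈ C.S z₀ := by rw [hS]; left; rfl
  have hR' : Real (C.cut q₀ z₀ h0) v Ar := by
    refine ⟨hR.inj, fun hq => hR.sym hq.1, fun hq => hR.ball hq.1, fun hq hq' => hR.disj hq.1 hq'.1,
      fun hq hq' h => hR.inter hq.1 hq'.1 h⟩
  have hU : IsBall 1 {x | ∃ z, ∃ q ∈ (C.cut q₀ z₀ h0).S z, x ∈ Ar q z}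
    {v z₀, v (C.arc q₀ z₀)} := hR'.isBall
  have hA : IsBall 1 (Ar q₀ z₀) {v z₀, v (C.arc q₀ z₀)} := hR.ball h0
  have hi : {x | ∃ z, ∃ q ∈ (C.cut q₀ z₀ h0).S z, x ∈ Ar q z} ∩ Ar q₀ z₀
      = {v z₀, v (C.arc q₀ z₀)} := by
    apply Subset.antisymm
    · rintro x ⟨⟨z, q, hq, hx⟩, hx'⟩
      by_cases hqq : q = q₀
      · subst hqq
        have h1 : z ≠ z₀ := fun h => hq.2 ⟨rfl, Or.inl h⟩
        have h2 : z ≠ C.arc q z₀ := fun h => hq.2 ⟨rfl, Or.inr h⟩
        exact absurd hx (Set.disjoint_left.1 (hR.disj h0 hq.1 h1 h2) hx')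
      · exact (hR.inter hq.1 h0 hqq ⟨hx, hx'⟩).2
    · intro x hx
      exact ⟨hU.subset hx, hA.subset hx⟩
  obtain ⟨e, -, -, -⟩ := exists_equiv_union ballPair_real hU hA hi
  have hT : {x | ∃ z, ∃ q ∈ C.S z, x ∈ Ar q z}
      = {x | ∃ z, ∃ q ∈ (C.cut q₀ z₀ h0).S z, x ∈ Ar q z} ∪ Ar q₀ z₀ := by
    ext x
    constructor
    · rintro ⟨z, q, hq, hx⟩
      by_cases h : q = q₀ ∧ (z = z₀ ∨ z = C.arc q₀ z₀)
      · right
        obtain ⟨rfl, rfl | rfl⟩ := h
        · exact hx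
        · rwa [hR.sym h0] at hx
      · left; exact ⟨z, q, ⟨hq, h⟩, hx⟩
    · rintro (⟨z, q, hq, hx⟩ | hx)
      · exact ⟨z, q, hq.1, hx⟩
      · exact ⟨z₀, q₀, h0, hx⟩
  rw [hT, ← Kp_union_Km]
  exact ⟨e⟩

end Crest.Agent.R096.Arc_778
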