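import Crest.Agent.R096.Bd21_416

/-!
# R096 (row 96), P4-MESH, part 11: the structure theorem with tracked data (helper416)
-/

set_option autoImplicit false

open Set Metric Filter Topology

namespace Crest.Agent.R096.Bd_416

open Crest.Agent.R096.Ce_537

open scoped Classical

set_option linter.unusedSectionVars false

/-! ### iterated squeezes -/

section sq

variable {E : Type*} [NormedAddCommGroup E] [NormedSpace ℝ E] {κ : Type*}

/-- iterated squeeze -/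
noncomputable def sqs (g : Gd E κ) (b : ℕ → ℝ) : ℕ → Gd E κ
  | 0 => g
  | n + 1 => (sqs g b n).sq (b n)

/-- the factor of the iterated squeeze -/
noncomputable def bet (b : ℕ → ℝ) (n : ℕ) : ℝ := ∏ i ∈ Finset.range n, (2 * b i)

lemma bet_zero (b : ℕ → ℝ) : bet b 0 = 1 := by simp [bet]

lemma bet_succ (b : ℕ → ℝ) (n : ℕ) : bet b (n + 1) = 2 * b n * bet b n := by
  unfold bet; rw [Finset.prod_range_succ, mul_comm]

lemma bet_pos {b : ℕ → ℝ} (hb : ∀ n, 0 < b n) (n : ℕ) : 0 < bet b n :=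
  Finset.prod_pos fun i _ => by have := hb i; linarith

lemma bet_le {b : ℕ → ℝ} (hb : ∀ n, 0 < b n) (hb2 : ∀ n, b n < 1/2) (n : ℕ) : bet b n ≤ 1 :=
  Finset.prod_le_one (fun i _ => by have := hb i; linarith)
    (fun i _ => by have := hb2 i; linarith)

lemma EqAt.sq {g g' : Gd E κ} {z : E} (h : EqAt g g' z) {b : ℝ} (h0 : 0 < b) (h2 : b < 1/2) :
    EqAt (g.sq b) (g'.sq b) z where
  G a := by
    by_cases hB : z ∈ g.B a
    · rw [Gd.sq_G_mem hB, Gd.sq_G_mem ((h.B a).2 hB), h.lev a hB, h.G a]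
    · rw [Gd.sq_G_notMem hB, Gd.sq_G_notMem (fun hc => hB ((h.B a).1 hc)), h.G a]
  B a := by
    constructor
    · rintro ⟨h1, h2⟩
      have hB := (h.B a).1 h1
      rw [h.lev a hB, h.G a] at h2
      exact ⟨hB, h2⟩
    · rintro ⟨hB, h2⟩
      refine ⟨(h.B a).2 hB, ?_⟩
      rw [h.lev a hB, h.G a]; exact h2
  lev a hB := h.lev a hB.1
  tr a hB s hs := h.tr a hB.1 _ (mem_scale h0 h2 hs)

lemma cl_cl {b : ℝ} (h0 : 0 < b) (h2 : b < 1/2) (t : ℝ) : cl (cl t / (2 * b)) = cl (t / (2 * b)) := by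
  have hb : 0 < 2 * b := by linarith
  rcases le_total t (-1/2) with h | h
  · rw [cl_of_le h, cl_low h0 h2, cl_of_le]
    rw [div_le_iff₀ hb]; nlinarith
  · rcases le_total t (1/2) with h' | h'
    · rw [cl_of_mem ⟨h, h'⟩]
    · rw [cl_of_ge h', cl_half h0 h2 (Or.inr rfl), cl_of_ge]
      rw [le_div_iff₀ hb]; nlinarith

lemma abs_cl_le_iff {b : ℝ} (_ : 0 < b) (h2 : b < 1/2) (t : ℝ) : |cl t| ≤ b ↔ |t| ≤ b := by
  constructor
  · intro h
    have := (abs_cl_lt (lt_of_le_of_lt h h2)).1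
    rw [this]; exact h
  · intro h
    obtain ⟨h3, h4⟩ := abs_le.1 h
    rw [cl_of_mem ⟨by linarith, by linarith⟩]; exact h

end sq

section trk

variable {Q : Type} [PartialOrder Q] {dim : Q → ℕ} {J Fam : Type}
variable {E Y : Type*} [NormedAddCommGroup E] [NormedSpace ℝ E] [PseudoMetricSpace Y]
variable {C : Cmb Q dim J Fam} {K : Q → Set E}

/-- the structure on `q` is that of `M`, squeezed by the factor `β` -/
structure Sqd (C : Cmb Q dim J Fam) (K : Q → Set E) (q : Q) (β : ℝ) (M : Lam (K q) (C.I q))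
    (g : Gd E J) (P : C.I q → Set E) (c : C.I q → E → ℝ) : Prop where
  β0 : 0 < β
  β1 : β ≤ 1
  mc : ∀ x, ∀ z ∈ K q, c x z = Bd_416.cl (M.c x z / β)
  mP : ∀ x, ∀ z ∈ K q, (z ∈ P x ↔ z ∈ M.B x ∧ |M.c x z| ≤ β / 2)
  tr : ∀ x, ∀ z ∈ K q, z ∈ P x → ∀ s ∈ I2,
    g.tr (C.col q x) (z, s) = M.tr x (z, sg (C.eps q x) * (β * s))

lemma Sqd.init {q : Q} {M : Lam (K q) (C.I q)} (dj : M.Dj (C.col q)) {g : Gd E J}
    (hg : ∀ z ∈ K q, EqAt (newGd C M) g z) : Sqd C K q 1 M g M.B M.c where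
  β0 := one_pos
  β1 := le_rfl
  mc x z hz := by rw [div_one, cl_of_mem (M.cm x z hz)]
  mP x z hz := by
    refine ⟨fun h => ⟨h, abs_le.2 ?_⟩, fun h => h.1⟩
    have := M.cm x z hz
    exact ⟨by linarith [this.1], by linarith [this.2]⟩
  tr x z hz hB s hs := by
    have h1 : z ∈ (newGd C M).B (C.col q x) := ⟨x, rfl, hB⟩
    rw [(hg z hz).tr _ h1 s hs, one_mul]
    exact dj.tr _ _ rfl hB s

lemma Sqd.step {q : Q} {β : ℝ} {M : Lam (K q) (C.I q)} {g g' : Gd E J}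
    {P : C.I q → Set E} {c : C.I q → E → ℝ} (h : Sqd C K q β M g P c) {b : ℝ} (h0 : 0 < b)
    (h2 : b < 1/2) (hPB : ∀ x, ∀ z ∈ K q, z ∈ P x → z ∈ g.B (C.col q x))
    (hc : ∀ x, ∀ z ∈ K q, z ∈ P x → |g.G (C.col q x) z - g.lev (C.col q x) z - 1/2| = |c x z|)
    (hg : ∀ z ∈ K q, EqAt (g.sq b) g' z) :
    Sqd C K q (2 * b * β) M g' (fun x => {z | z ∈ P x ∧ |c x z| ≤ b})
      (fun x z => Bd_416.cl (c x z / (2 * b))) where
  β0 := by have := h.β0; positivity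
  β1 := by have := h.β0; have := h.β1; nlinarith
  mc x z hz := by
    show Bd_416.cl (c x z / (2 * b)) = _
    rw [h.mc x z hz, cl_cl h0 h2, div_div, mul_comm β]
  mP x z hz := by
    have hβ := h.β0
    show (z ∈ P x ∧ |c x z| ≤ b) ↔ _
    rw [h.mP x z hz, h.mc x z hz, abs_cl_le_iff h0 h2, abs_div, abs_of_pos hβ, div_le_iff₀ hβ]
    constructor
    · rintro ⟨⟨h3, -⟩, h4⟩; exact ⟨h3, by linarith⟩
    · rintro ⟨h3, h4⟩; exact ⟨⟨h3, by nlinarith⟩, by linarith⟩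
  tr x z hz hP s hs := by
    have hP' : z ∈ P x := hP.1
    have hb : |c x z| ≤ b := hP.2
    have hB : z ∈ (g.sq b).B (C.col q x) := ⟨hPB x z hz hP', by rw [hc x z hz hP']; exact hb⟩
    rw [(hg z hz).tr _ hB s hs]
    show g.tr (C.col q x) (z, 2 * b * s) = _
    rw [h.tr x z hz hP' _ (mem_scale h0 h2 hs)]
    congr 2; ring

/-- **the tracked data** before stage `n`: exact description on the given part `R`, rule and factor
on the other cells, Lipschitz constants with weights in all frames `B ∈ Fr q` of the cell -/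
structure Trk (C : Cmb Q dim J Fam) (K : Q → Set E) (R : Set Q) (g0 : Gd E J)
    (P0 : ∀ q, C.I q → Set E) (c0 : ∀ q, C.I q → E → ℝ) (b : ℕ → ℝ)
    (Spec : ∀ q, Lam (K q) (C.I q) → Prop) (Fr : Q → Set (E → Y)) (wt : J → ℝ)
    (Λ : ℕ → Q → (E → Y) → ℝ) (n : ℕ) (q : Q)
    (g : Gd E J) (P : C.I q → Set E) (c : C.I q → E → ℝ) : Prop where
  eqR : q ∈ R → ∀ z ∈ K q, EqAt (sqs g0 b n) g z
  cR : q ∈ R → ∀ x, ∀ z ∈ K q, c x z = Bd_416.cl (c0 q x z / bet b n)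
  PR : q ∈ R → ∀ x, ∀ z ∈ K q, (z ∈ P x ↔ z ∈ P0 q x ∧ |c0 q x z| ≤ bet b n / 2)
  new : q ∉ R → ∃ β M, β = bet b n / bet b (dim q + 1) ∧ Spec q M ∧ Sqd C K q β M g P c
  PB : ∀ x, ∀ z ∈ K q, z ∈ P x → z ∈ g.B (C.col q x)
  Pc : ∀ x, ∀ z ∈ K q, z ∈ P x → |g.G (C.col q x) z - g.lev (C.col q x) z - 1/2| = |c x z|
  ll : ∀ B ∈ Fr q, ∀ x, ∀ z ∈ K q, LB B (Λ n q B / wt (C.col q x)) (c x) (K q) z

variable {R : Set Q} {g0 : Gd E J} {P0 : ∀ q, C.I q → Set E} {c0 : ∀ q, C.I q → E → ℝ}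
  {b : ℕ → ℝ} {Spec : ∀ q, Lam (K q) (C.I q) → Prop} {Fr : Q → Set (E → Y)} {wt : J → ℝ}
  {Λ : ℕ → Q → (E → Y) → ℝ}

lemma abs_c_eq {D : Set Q} {g : Gd E J} {P : ∀ q, C.I q → Set E} {c : ∀ q, C.I q → E → ℝ}
    (H : Inv C K D g P c) {q : Q} (hq : q ∈ D) {x : C.I q} {z : E} (hz : z ∈ P q x) :
    |g.G (C.col q x) z - g.lev (C.col q x) z - 1/2| = |c q x z| := by
  rw [H.lev0 hq _ (H.PK q hq x hz) (H.PB q hq x hz), sub_zero, H.cP hq hz, abs_mul, abs_sg,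
    one_mul]

/-- **THE STRUCTURE THEOREM** -/
theorem mesh_spec {Ω : Set E} (X : Cplx Ω Q dim K) (hR : ∀ q ∈ R, ∀ p < q, p ∈ R)
    (H0 : Inv C K R g0 P0 c0) (hb0 : ∀ n, 0 < b n) (hb2 : ∀ n, b n < 1/2)
    (hw : ∀ j, 0 < wt j) (hΛs : ∀ n q, ∀ B ∈ Fr q, Λ n q B / (2 * b n) ≤ Λ (n + 1) q B)
    (hΛR : ∀ q ∈ R, ∀ B ∈ Fr q, ∀ x, ∀ z ∈ K q,
      LB B (Λ 0 q B / wt (C.col q x)) (c0 q x) (K q) z)
    (rule : ∀ n D g P c (_ : Inv C K D g P c),
      (∀ q ∈ D, Trk C K R g0 P0 c0 b Spec Fr wt Λ n q g (P q) (c q)) →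
      ∀ τ, dim τ = n → τ ∉ R → (∀ σ < τ, σ ∈ D) →
      ∃ M : Lam (K τ) (C.I τ), NewCell C K g c (b n) τ M ∧ Spec τ M ∧
        ∀ B ∈ Fr τ, ∀ x, ∀ z ∈ K τ, LB B (Λ (n + 1) τ B / wt (C.col τ x)) (M.c x) (K τ) z)
    (n : ℕ) : ∃ g P c, Inv C K (R ∪ {q | dim q < n}) g P c ∧
      ∀ q ∈ R ∪ {q | dim q < n}, Trk C K R g0 P0 c0 b Spec Fr wt Λ n q g (P q) (c q) := by
  refine mesh_rec X hR H0 b hb0 hb2 (Trk C K R g0 P0 c0 b Spec Fr wt Λ) (fun q hq => ?_)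
    (fun n q g g' P c h hg => ?_) (fun n D g P c H hT τ hd hτR hτ => ?_) n
  · refine ⟨fun _ z _ => ⟨fun _ => rfl, fun _ => Iff.rfl, fun _ _ => rfl, fun _ _ _ _ => rfl⟩,
      fun _ x z hz => ?_, fun _ x z hz => ?_, fun h => (h hq).elim,
      fun x z _ hP => H0.PB q hq x hP, fun x z _ hP => abs_c_eq H0 hq hP, hΛR q hq⟩
    · rw [bet_zero, div_one, cl_of_mem (H0.cm q hq x z hz)]
    · rw [bet_zero]
      refine ⟨fun h => ⟨h, abs_le.2 ?_⟩, fun h => h.1⟩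
      have := H0.cm q hq x z hz
      exact ⟨by linarith [this.1], by linarith [this.2]⟩
  · have hβ := bet_pos hb0 n
    have h0 := hb0 n
    have h2 := hb2 n
    have hB' : ∀ x, ∀ z ∈ K q, z ∈ P x → |c x z| ≤ b n → z ∈ (g.sq (b n)).B (C.col q x) :=
      fun x z hz hP hb => ⟨h.PB x z hz hP, by rw [h.Pc x z hz hP]; exact hb⟩
    refine ⟨fun hq z hz => ((h.eqR hq z hz).sq h0 h2).trans (hg z hz), fun hq x z hz => ?_,
      fun hq x z hz => ?_, fun hq => ?_, fun x z hz hP => ?_, fun x z hz hP => ?_,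
      fun B hB x z hz => ?_⟩
    · show Bd_416.cl (c x z / (2 * b n)) = _
      rw [h.cR hq x z hz, cl_cl h0 h2, div_div, bet_succ, mul_comm (bet b n)]
    · show (z ∈ P x ∧ |c x z| ≤ b n) ↔ _
      rw [h.PR hq x z hz, h.cR hq x z hz, abs_cl_le_iff h0 h2, abs_div, abs_of_pos hβ,
        div_le_iff₀ hβ, bet_succ]
      constructor
      · rintro ⟨⟨h3, -⟩, h4⟩; exact ⟨h3, by linarith⟩
      · rintro ⟨h3, h4⟩; exact ⟨⟨h3, by nlinarith⟩, by linarith⟩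
    · obtain ⟨β, M, hβe, hS, hM⟩ := h.new hq
      refine ⟨2 * b n * β, M, ?_, hS, hM.step h0 h2 h.PB h.Pc hg⟩
      rw [hβe, bet_succ b n, mul_div_assoc]
    · exact ((hg z hz).B _).2 (hB' x z hz hP.1 hP.2)
    · have hPx : z ∈ P x := hP.1
      have hB := hB' x z hz hPx hP.2
      show _ = |Bd_416.cl (c x z / (2 * b n))|
      rw [(hg z hz).G, (hg z hz).lev _ hB, Gd.sq_G_mem (h.PB x z hz hPx)]
      show |g.lev (C.col q x) z + 1/2 + Bd_416.cl _ - g.lev (C.col q x) z - 1/2| = _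
      have e : ∀ t : ℝ, g.lev (C.col q x) z + 1/2 + t - g.lev (C.col q x) z - 1/2 = t :=
        fun t => by ring
      rw [e]
      have h3 := h.Pc x z hz hPx
      rcases abs_eq_abs.1 h3 with h4 | h4
      · rw [h4]
      · rw [h4, neg_div, cl_neg, abs_neg]
    · refine (LB.squeeze h0 (h.ll B hB x z hz)).mono ?_
      rw [div_right_comm]
      exact div_le_div_of_nonneg_right (hΛs n q B hB) (hw _).le
  · obtain ⟨M, hM, hS, hL⟩ := rule n D g P c H hT τ hd hτR hτ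
    refine ⟨M, hM, fun g' hg => ?_⟩
    have hIs := newGd_is hM
    have hG := fun (z : E) (hz : z ∈ K τ) (j : J) =>
      newGd_G_mem H X hτ (hb0 n) (hb2 n) hM j hz
    refine ⟨fun h => (hτR h).elim, fun h => (hτR h).elim, fun h => (hτR h).elim,
      fun _ => ⟨1, M, ?_, hS, Sqd.init hM.dj hg⟩, fun x z hz hP => ?_, fun x z hz hP => ?_, hL⟩
    · rw [hd, div_self (bet_pos hb0 _).ne']
    · exact ((hg z hz).B _).2 ⟨x, rfl, hP⟩
    · have hB : z ∈ (newGd C M).B (C.col τ x) := ⟨x, rfl, hP⟩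
      rw [(hg z hz).G, (hg z hz).lev _ hB]
      have h3 := hM.dj.lev (fun x => sg (C.eps τ x)) (fun j => lab0 (C.Lab j τ)) rfl hP
      have h4 : (newGd C M).G (C.col τ x) z - (newGd C M).lev (C.col τ x) z - 1/2
          = sg (C.eps τ x) * M.c x z := by
        have h5 : (newGd C M).lev (C.col τ x) z = _ := h3
        rw [h5]
        show ((lab0 (C.Lab (C.col τ x) τ) : ℝ) + stp (C.col τ) (fun x => sg (C.eps τ x))
          (C.col τ x) (fun x => M.c x z)) - _ - 1/2 = _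
        ring
      rw [h4, abs_mul, abs_sg, one_mul]

end trk

end Crest.Agent.R096.Bd_416
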