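import Crest.Agent.R096.Arc3_778
import Crest.Agent.R096.Bd18_416

/-!
# R096 (row 96), (R4) CELL GEOMETRY, part 5: the boundary of a cell; chords of a 2-cell (R4.3)
(helper778)

`H : Inv C K univ g P c` = 416's final band structure.  `FCell K S c` = the cell is filled by the
cone rule, seen through signs only (416's `Spec` + squeezing, see `FCell.of_fill`, `FCell.sqd`).

* `Chords` = (R4.3): chords are arcs, laced chords meet in exactly one point, the others do not.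
* `chords_of_cone` : (R4.3) for a 2-cell filled by the cone rule.
-/

set_option autoImplicit false
set_option linter.unusedSectionVars false

open Set Metric

namespace Crest.Agent.R096.Arc_778

open Crest.Agent.R096.Ce_537 Crest.Agent.R096.Bd_416 Crest.Agent.R096.Cb_609 Crest.Agent.R096.Pl

open scoped Classical

/-! ### cells seen through signs -/

section sgn

variable {E : Type*} [NormedAddCommGroup E] [NormedSpace ℝ E] {I : Type*}

/-- pieces which meet have different depths -/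
def Spd (S : Set E) (c : I → E → ℝ) (ρ : I → ℝ) : Prop :=
  ∀ x x', x ≠ x' → (∃ z ∈ S, 0 ≤ c x z ∧ 0 ≤ c x' z) → ρ x ≠ ρ x'

/-- **a cell filled by the cone rule** with depths respecting (N), seen through signs -/
def FCell (K S : Set E) (c : I → E → ℝ) : Prop :=
  ∃ (n : ℕ) (e : PLEquiv (cube n) K) (_ : e.f '' sph n = S) (ρ : I → ℝ),
    ConeCell e c ρ ∧ Spd S c ρ ∧ ∀ x x', Inc S c x x' → ρ x' < ρ x

/-- **an edge**: positions `p` in the order `k`, seen through signs (`s₀` = the base vertex) -/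
def ECell (K S : Set E) (o : E) (k : I → ℕ) (c : I → E → ℝ) : Prop :=
  ∃ (e : PLEquiv (cube 1) K) (p : I → ℝ), e.f '' sph 1 = S ∧ e.f (fun _ => -1) = o ∧
    (∀ x, p x ∈ Ioo (-1:ℝ) 1) ∧ (∀ x x', k x < k x' → p x < p x') ∧
    ∀ x, ∀ z ∈ K, SignType.sign (c x z) = SignType.sign (e.g z 0 - p x)

lemma FCell.congr {K S : Set E} {c c' : I → E → ℝ} (h : FCell K S c)
    (hs : ∀ i, ∀ z ∈ K, SignType.sign (c' i z) = SignType.sign (c i z)) : FCell K S c' := by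
  obtain ⟨n, e, he, ρ, h1, h2, h3⟩ := h
  have hsub : S ⊆ K := bd_sub e he
  have e1 : ∀ i, ∀ z ∈ S, (0 ≤ c' i z ↔ 0 ≤ c i z) := fun i z hz => by
    rw [← sign_nonneg_iff, hs i z (hsub hz), sign_nonneg_iff]
  refine ⟨n, e, he, ρ, h1.congr he hs, fun x x' hne => ?_,
    fun x x' h => h3 x x' (h.congr fun i z hz => ?_)⟩
  · rintro ⟨z, hz, ha, hb⟩
    exact h2 x x' hne ⟨z, hz, (e1 x z hz).1 ha, (e1 x' z hz).1 hb⟩
  · exact (hs i z (hsub hz)).symm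

lemma ECell.congr {K S : Set E} {o : E} {k : I → ℕ} {c c' : I → E → ℝ} (h : ECell K S o k c)
    (hs : ∀ i, ∀ z ∈ K, SignType.sign (c' i z) = SignType.sign (c i z)) : ECell K S o k c' := by
  obtain ⟨e, p, h1, h2, h3, h4, h5⟩ := h
  exact ⟨e, p, h1, h2, h3, h4, fun x z hz => (hs x z hz).trans (h5 x z hz)⟩

/-- a `Dep`-filling is an `FCell` -/
theorem FCell.of_fill {K S : Set E} {n : ℕ} (e : PLEquiv (cube n) K) (he : e.f '' sph n = S)
    {L : Lam S I} {κ b : ℝ} {h ρ : I → ℝ} (D : Dep L κ b h ρ)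
    (hN : ∀ x x', Inc S L.c x x' → ρ x' < ρ x) : FCell K S (D.fillBall e he).c := by
  have hs : ∀ i, ∀ z ∈ S, SignType.sign ((D.fillBall e he).c i z) = SignType.sign (L.c i z) := by
    intro i z hz
    rw [D.fillBall_c_bd e he i hz]
    exact sign_cl (by have := D.cst.b0; linarith) _
  have e1 : ∀ i, ∀ z ∈ S, (0 ≤ (D.fillBall e he).c i z ↔ 0 ≤ L.c i z) := fun i z hz => by
    rw [← sign_nonneg_iff, hs i z hz, sign_nonneg_iff]
  refine ⟨n, e, he, ρ, coneCell_fillBall D, fun x x' hne => ?_,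
    fun x x' h => hN x x' (h.congr fun i z hz => (hs i z hz).symm)⟩
  rintro ⟨z, hz, ha, hb⟩ heq
  have h1 := D.sep x x' hne ⟨z, hz, by linarith [(e1 x z hz).1 ha], by linarith [(e1 x' z hz).1 hb]⟩
  rw [heq, sub_self, abs_zero] at h1
  linarith [D.h0 x, D.h0 x']

end sgn

/-! ### a sphere with two sides -/

section sides

variable {E : Type*} [NormedAddCommGroup E] [NormedSpace ℝ E]

lemma two_of_pair {k : ℕ} {K A B Γ S : Set E} (h : BallPair k K A B Γ) (hAB : A ∪ B = S)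
    {c : E → ℝ} (hc : ContinuousOn c S) (hz : ∀ ω ∈ S, (c ω = 0 ↔ ω ∈ Γ)) (hΓ : Γ.Nonempty)
    (hneg : ∃ ω ∈ S, c ω < 0) (hpos : ∃ ω ∈ S, 0 < c ω) : Two S c where
  cont := hc
  pos := by
    rcases sides h hAB hc hz hneg hpos with h1 | h1 <;> rw [h1]
    · exact h.ball₁.isPreconnected
    · exact h.ball₂.isPreconnected
  neg := by
    have h1 := sides h hAB (c := fun ω => - c ω) hc.neg
      (fun ω hω => by rw [neg_eq_zero]; exact hz ω hω)
      (by obtain ⟨ω, hω, h⟩ := hpos; exact ⟨ω, hω, by linarith⟩)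
      (by obtain ⟨ω, hω, h⟩ := hneg; exact ⟨ω, hω, by linarith⟩)
    have h2 : {ω | ω ∈ S ∧ c ω ≤ 0} = {ω | ω ∈ S ∧ 0 ≤ - c ω} := by
      ext ω; simp
    rw [h2]
    rcases h1 with h1 | h1 <;> rw [h1]
    · exact h.ball₁.isPreconnected
    · exact h.ball₂.isPreconnected
  zero := by
    obtain ⟨ω, hω⟩ := hΓ
    have hS : ω ∈ S := hAB ▸ Or.inl (h.ball₁.subset hω)
    exact ⟨ω, hS, (hz ω hS).2 hω⟩

/-- the boundary of a 2-ball with two zeros -/
lemma two_dim2 {ι : Type*} {K S : Set E} (hK : IsBall 2 K S) {c : ι → E → ℝ} {i : ι}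
    (hc : ContinuousOn (c i) S) {a b : E} (hab : a ≠ b) (hG : Gam S c i = {a, b})
    (hneg : ∃ ω ∈ S, c i ω < 0) (hpos : ∃ ω ∈ S, 0 < c i ω) : Two S (c i) := by
  have ha : a ∈ Gam S c i := by rw [hG]; simp
  have hb : b ∈ Gam S c i := by rw [hG]; simp
  obtain ⟨A, B, h1, h2⟩ := two_marks hK ha.1 hb.1 hab
  rw [← hG] at h1
  exact two_of_pair h1 h2 hc (fun ω hω => ⟨fun h => ⟨hω, h⟩, fun h => h.2⟩) ⟨a, ha⟩ hneg hpos

/-- the boundary of a 3-ball with a circle of zeros -/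
lemma two_dim3 [FiniteDimensional ℝ E] {ι : Type*} {K S : Set E} (hK : IsBall 3 K S)
    {c : ι → E → ℝ} {i : ι} (hc : ContinuousOn (c i) S)
    (hG : Nonempty (PLEquiv (S1 ℝ) (Gam S c i)))
    (hneg : ∃ ω ∈ S, c i ω < 0) (hpos : ∃ ω ∈ S, 0 < c i ω) : Two S (c i) := by
  obtain ⟨A, B, h1, h2⟩ := sphere_sides hK hG (fun ω h => h.1)
  exact two_of_pair h1 h2 hc (fun ω hω => ⟨fun h => ⟨hω, h⟩, fun h => h.2⟩)
    (circ_nontrivial hG).nonempty hneg hpos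

/-- **(N) at work: pieces which do not alternate on the boundary do not meet** -/
theorem ConeCell.none {ι : Type*} {n : ℕ} {K S : Set E} {e : PLEquiv (cube n) K}
    (he : e.f '' sph n = S) {c : ι → E → ℝ} {ρ : ι → ℝ} (H : ConeCell e c ρ)
    (hN : ∀ x x', Inc S c x x' → ρ x' < ρ x) {x x' : ι} (hne : x ≠ x')
    (hx : Two S (c x)) (hx' : Two S (c x')) {o : E} (ho : o ∈ S) (hox : c x o < 0)
    (hox' : c x' o < 0) (hd : Gam S c x ∩ Gam S c x' = ∅)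
    (hs : (∀ ω ∈ Gam S c x', 0 < c x ω) ∨ (∀ ω ∈ Gam S c x', c x ω < 0)) :
    Zer K c x ∩ Zer K c x' = ∅ := by
  have hd' : ∀ ω ∈ S, c x' ω = 0 → c x ω ≠ 0 := fun ω hω h h' => by
    have : ω ∈ Gam S c x ∩ Gam S c x' := ⟨⟨hω, h'⟩, hω, h⟩
    rw [hd] at this; exact this.elim
  have h4 := hx'.lam4 hx hd' (hs.imp (fun h ω hω h0 => h ω ⟨hω, h0⟩)
    (fun h ω hω h0 => h ω ⟨hω, h0⟩)) ho hox' hox
  obtain ⟨u, hu, hu0⟩ := hx.zero
  obtain ⟨v, hv, hv0⟩ := hx'.zero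
  rcases h4 with h | h | h
  · refine eq_empty_iff_forall_notMem.2 ?_
    rintro z ⟨⟨hz, h1⟩, -, h2⟩
    obtain ⟨a1, a2, a3⟩ := (H.nonneg_iff hz).1 h1.ge
    obtain ⟨b1, b2, b3⟩ := (H.nonneg_iff hz).1 h2.ge
    exact absurd a2 (not_le.2 (h _ (prj_mem e he ⟨hz, a1⟩) b2))
  · -- `x'` inside `x`
    have h1 : ρ x < ρ x' := hN x' x ⟨Ne.symm hne, ⟨v, hv, hv0.ge⟩, h⟩
    rw [inter_comm]
    refine H.inter_empty (he := he) h1 (eq_empty_iff_forall_notMem.2 ?_)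
    rintro ω ⟨⟨hω, h1⟩, -, h2⟩
    exact (h ω hω h1).ne' h2
  · have h1 : ρ x' < ρ x := hN x x' ⟨hne, ⟨u, hu, hu0.ge⟩, h⟩
    refine H.inter_empty (he := he) h1 (eq_empty_iff_forall_notMem.2 ?_)
    rintro ω ⟨⟨hω, h1⟩, -, h2⟩
    exact (h ω hω h1).ne' h2

lemma dlt_point {ι : Type*} {S : Set E} {c : ι → E → ℝ} {x x' : ι} {a b : E}
    (hG : Gam S c x' = {a, b}) (h1 : ∃ ω ∈ Gam S c x', 0 < c x ω)
    (h2 : ∃ ω ∈ Gam S c x', c x ω < 0) : ∃ p, Dlt S c x ∩ Gam S c x' = {p} := by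
  obtain ⟨u, hu, hu0⟩ := h1
  obtain ⟨v, hv, hv0⟩ := h2
  have huv : u ≠ v := by rintro rfl; exact lt_asymm hu0 hv0
  have key : ∀ w ∈ Gam S c x', w = u ∨ w = v := by
    intro w hw
    rw [hG] at hu hv hw
    simp only [mem_insert_iff, mem_singleton_iff] at hu hv hw
    rcases hu with rfl | rfl <;> rcases hv with rfl | rfl
    · exact absurd rfl huv
    · exact hw
    · exact hw.symm
    · exact absurd rfl huv
  refine ⟨u, ?_⟩
  ext w
  constructor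
  · rintro ⟨⟨hw, hw0⟩, hw'⟩
    rcases key w hw' with rfl | rfl
    · rfl
    · exact absurd hw0 (not_le.2 hv0)
  · intro hw
    have hw' : w = u := hw
    subst hw'
    exact ⟨⟨hu.1, hu0.le⟩, hu⟩

/-- **laced chords meet in exactly one point** -/
theorem ConeCell.cross {ι : Type*} {n : ℕ} {K S : Set E} {e : PLEquiv (cube n) K}
    (he : e.f '' sph n = S) {c : ι → E → ℝ} {ρ : ι → ℝ} (H : ConeCell e c ρ)
    (hρ : Spd S c ρ) {x x' : ι} (hne : x ≠ x')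
    (hx : Two S (c x)) (hx' : Two S (c x')) (hd : Gam S c x ∩ Gam S c x' = ∅)
    (hG : ∃ a b, Gam S c x = {a, b}) (hG' : ∃ a b, Gam S c x' = {a, b})
    (h1 : ∃ ω ∈ Gam S c x', 0 < c x ω) (h2 : ∃ ω ∈ Gam S c x', c x ω < 0) :
    ∃ p, Zer K c x ∩ Zer K c x' = {p} := by
  have hd' : ∀ ω ∈ S, c x' ω = 0 → c x ω ≠ 0 := fun ω hω h h' => by
    have : ω ∈ Gam S c x ∩ Gam S c x' := ⟨⟨hω, h'⟩, hω, h⟩
    rw [hd] at this; exact this.elim
  obtain ⟨a, b, hab⟩ := hG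
  obtain ⟨a', b', hab'⟩ := hG'
  have hr : ρ x' ≠ ρ x := by
    obtain ⟨ω, hω, h⟩ := h1
    exact (hρ x x' hne ⟨ω, hω.1, h.le, hω.2.ge⟩).symm
  rcases lt_or_gt_of_ne hr with ho | ho
  · obtain ⟨p, hp⟩ := dlt_point hab' h1 h2
    exact ⟨_, H.inter_point (he := he) ho hd hp⟩
  · obtain ⟨⟨u, hu, hu0, hu1⟩, ⟨v, hv, hv0, hv1⟩⟩ := hx'.swap hx hd'
      (by obtain ⟨ω, hω, h⟩ := h1; exact ⟨ω, hω.1, hω.2, h⟩)
      (by obtain ⟨ω, hω, h⟩ := h2; exact ⟨ω, hω.1, hω.2, h⟩)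
    obtain ⟨p, hp⟩ := dlt_point (x := x') hab ⟨u, ⟨hu, hu0⟩, hu1⟩ ⟨v, ⟨hv, hv0⟩, hv1⟩
    rw [inter_comm] at hd ⊢
    exact ⟨_, H.inter_point (he := he) ho hd hp⟩

end sides

/-! ### the boundary of a cell in 416's structure -/

section bd

variable {Q : Type} [PartialOrder Q] {dim : Q → ℕ} {J Fam : Type}
variable {E : Type*} [NormedAddCommGroup E] [NormedSpace ℝ E]
variable {C : Cmb Q dim J Fam} {K : Q → Set E} {g : Gd E J}
  {P : ∀ q, C.I q → Set E} {c : ∀ q, C.I q → E → ℝ} {Ω : Set E}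
variable (H : Inv C K univ g P c) (X : Cplx Ω Q dim K) {q : Q}

lemma bdS_sub (X : Cplx Ω Q dim K) {q : Q} : bdS K q ⊆ K q := by
  intro z hz
  obtain ⟨σ, h, hz⟩ := exists_of_mem_bdS hz
  exact X.subset h.le hz

include H X in
lemma c_eq_cbd (x : C.I q) {z : E} (hz : z ∈ bdS K q) : c q x z = cbd C K c q x z := by
  obtain ⟨σ, h, hzσ⟩ := exists_of_mem_bdS hz
  have h1 := cbd_eq H X h (fun _ _ => mem_univ _) x hzσ
  have h2 := H.r2 h (mem_univ q) x z hzσ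
  linarith

/-- the band structure on the boundary of `q` -/
noncomputable abbrev bL (H : Inv C K univ g P c) (X : Cplx Ω Q dim K) (q : Q) :
    Lam (bdS K q) (C.I q) := bdLam H X q (fun _ _ => mem_univ _)

lemma bL_c (x : C.I q) {z : E} (hz : z ∈ bdS K q) : (bL H X q).c x z = c q x z :=
  (c_eq_cbd H X x hz).symm

include H X in
lemma bd_cont (x : C.I q) : ContinuousOn (c q x) (bdS K q) :=
  (H.pc q (mem_univ q) x).1.mono (bdS_sub X)

include H X in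
lemma bd_base (hd : 1 ≤ dim q) : ∃ o ∈ bdS K q, ∀ x, c q x o < 0 := by
  obtain ⟨o, ho, hoc⟩ := exists_base_pt H X (τ := q) (fun _ _ => mem_univ _) hd
  have hoS : o ∈ bdS K q := mem_biUnion (show C.o q ∈ {j | j < q} from C.o_lt q hd) ho
  exact ⟨o, hoS, fun x => by rw [c_eq_cbd H X x hoS, hoc x]; norm_num⟩

/-- moving in the band of `x` from a zero of `x` -/
lemma bd_move {x : C.I q} {z : E} (hz : z ∈ Gam (bdS K q) (c q) x) :
    z ∈ (bL H X q).B x ∧ ContinuousOn (fun s => (bL H X q).tr x (z, s)) I2 ∧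
      (bL H X q).tr x (z, 0) = z ∧
      (∀ s ∈ I2, (bL H X q).tr x (z, s) ∈ bdS K q ∧ c q x ((bL H X q).tr x (z, s)) = s) ∧
      ∀ x', x' ≠ x → ∀ s ∈ I2, c q x' ((bL H X q).tr x (z, s)) = c q x' z := by
  have h0 : (bL H X q).c x z = 0 := by rw [bL_c H X x hz.1]; exact hz.2
  have hB : z ∈ (bL H X q).B x := (bL H X q).Bm x z hz.1 (by rw [h0]; norm_num)
  have hS : ∀ s ∈ I2, (bL H X q).tr x (z, s) ∈ bdS K q := fun s hs =>
    (bL H X q).BZ x ((bL H X q).trB x z hB s hs)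
  refine ⟨hB, ?_, ?_, fun s hs => ⟨hS s hs, ?_⟩, fun x' hne s hs => ?_⟩
  · exact ((bL H X q).pt x).1.comp (by fun_prop) (fun s hs => ⟨hB, hs⟩)
  · have := (bL H X q).tr_self x z hB
    rwa [h0] at this
  · rw [← bL_c H X x (hS s hs)]
    exact (bL H X q).ctr x z hB s hs
  · rw [← bL_c H X x' (hS s hs), ← bL_c H X x' hz.1]
    exact (bL H X q).co x x' (Ne.symm hne) z hB s hs

include H X in
lemma bd_pos {x : C.I q} (h : (Gam (bdS K q) (c q) x).Nonempty) :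
    ∃ ω ∈ bdS K q, 0 < c q x ω := by
  obtain ⟨z, hz⟩ := h
  obtain ⟨-, -, -, h1, -⟩ := bd_move H X hz
  have hs : (1/4 : ℝ) ∈ I2 := ⟨by norm_num, by norm_num⟩
  exact ⟨_, (h1 _ hs).1, by rw [(h1 _ hs).2]; norm_num⟩

include H X in
/-- near a crossing with `x'`, the curve of `x'` runs to the negative side of `x` -/
lemma bd_closure {x x' : C.I q} (hne : x ≠ x') {z : E}
    (hz : z ∈ Gam (bdS K q) (c q) x) (hz' : z ∈ Gam (bdS K q) (c q) x') :
    z ∈ closure {ω | ω ∈ Gam (bdS K q) (c q) x' ∧ c q x ω < 0} := by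
  obtain ⟨-, hcont, h0, h1, h2⟩ := bd_move H X hz
  have hs : Ico (-1/4 : ℝ) 0 ⊆ I2 := fun s hs => ⟨by linarith [hs.1], by linarith [hs.2]⟩
  have hc : (0:ℝ) ∈ closure (Ico (-1/4 : ℝ) 0) := by
    rw [closure_Ico (by norm_num)]; exact ⟨by norm_num, le_rfl⟩
  have hw : ContinuousWithinAt (fun s => (bL H X q).tr x (z, s)) (Ico (-1/4 : ℝ) 0) 0 :=
    (hcont 0 ⟨by norm_num, by norm_num⟩).mono hs
  have h3 := hw.mem_closure_image hc
  simp only [h0] at h3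
  refine closure_mono ?_ h3
  rintro _ ⟨s, hs', rfl⟩
  refine ⟨⟨(h1 s (hs hs')).1, ?_⟩, ?_⟩
  · show c q x' _ = 0
    rw [h2 x' (Ne.symm hne) s (hs hs')]; exact hz'.2
  · show c q x _ < 0
    rw [(h1 s (hs hs')).2]; exact hs'.2

include H X in
/-- ... and to the positive side -/
lemma bd_run {x x' : C.I q} (hne : x ≠ x') {z : E}
    (hz : z ∈ Gam (bdS K q) (c q) x) (hz' : z ∈ Gam (bdS K q) (c q) x') :
    ∃ T ⊆ {ω | ω ∈ Gam (bdS K q) (c q) x' ∧ 0 ≤ c q x ω}, IsPreconnected T ∧ z ∈ T ∧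
      T.Nontrivial := by
  obtain ⟨-, hcont, h0, h1, h2⟩ := bd_move H X hz
  have hs : Icc (0 : ℝ) (1/4) ⊆ I2 := fun s hs => ⟨by linarith [hs.1], by linarith [hs.2]⟩
  have e0 : (0:ℝ) ∈ Icc (0 : ℝ) (1/4) := ⟨le_rfl, by norm_num⟩
  have e1 : (1/4:ℝ) ∈ Icc (0 : ℝ) (1/4) := ⟨by norm_num, le_rfl⟩
  refine ⟨(fun s => (bL H X q).tr x (z, s)) '' Icc 0 (1/4), ?_, ?_, ⟨0, e0, h0⟩, ?_⟩
  · rintro _ ⟨s, hs', rfl⟩
    refine ⟨⟨(h1 s (hs hs')).1, ?_⟩, ?_⟩
    · show c q x' _ = 0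
      rw [h2 x' (Ne.symm hne) s (hs hs')]; exact hz'.2
    · show 0 ≤ c q x _
      rw [(h1 s (hs hs')).2]; exact hs'.1
  · exact isPreconnected_Icc.image _ (hcont.mono hs)
  · refine ⟨_, ⟨0, e0, rfl⟩, _, ⟨1/4, e1, rfl⟩, fun h => ?_⟩
    have h3 := congrArg (c q x) h
    simp only [(h1 0 (hs e0)).2, (h1 _ (hs e1)).2] at h3
    norm_num at h3

/-! ### (R4.3) -/

/-- **(R4.3)**: geometry of the chords of a 2-cell -/
structure Chords {I : Type*} (K S : Set E) (c : I → E → ℝ) : Prop where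
  ball : ∀ x, IsBall 1 (Zer K c x) (Gam S c x)
  cross : ∀ x x', x ≠ x' → (∃ ω ∈ Gam S c x', 0 < c x ω) → (∃ ω ∈ Gam S c x', c x ω < 0) →
    ∃ p, Zer K c x ∩ Zer K c x' = {p}
  none : ∀ x x', x ≠ x' → ((∀ ω ∈ Gam S c x', 0 < c x ω) ∨ (∀ ω ∈ Gam S c x', c x ω < 0)) →
    Zer K c x ∩ Zer K c x' = ∅

include H X in
/-- **(R4.3) for a 2-cell filled by the cone rule** -/
theorem chords_of_cone [FiniteDimensional ℝ E] (hd : dim q = 2)
    (hq : FCell (K q) (bdS K q) (c q))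
    (hends : ∀ x, ∃ a b, a ≠ b ∧ Gam (bdS K q) (c q) x = {a, b})
    (hdis : ∀ x x', x ≠ x' → Gam (bdS K q) (c q) x ∩ Gam (bdS K q) (c q) x' = ∅) :
    Chords (K q) (bdS K q) (c q) := by
  obtain ⟨n, e, he, ρ, h1, h2, h3⟩ := hq
  have hK : IsBall 2 (K q) (bdS K q) := by
    have := X.isBall q
    rw [hd] at this
    exact this
  obtain ⟨o, ho, hoc⟩ := bd_base H X (q := q) (by omega)
  have hne : ∀ x, (Gam (bdS K q) (c q) x).Nonempty := fun x => by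
    obtain ⟨a, b, -, h⟩ := hends x
    rw [h]; exact ⟨a, by simp⟩
  have htwo : ∀ x, Two (bdS K q) (c q x) := fun x => by
    obtain ⟨a, b, hab, h⟩ := hends x
    exact two_dim2 hK (bd_cont H X x) hab h ⟨o, ho, hoc x⟩ (bd_pos H X (hne x))
  refine ⟨fun x => ?_, fun x x' hxx h4 h5 => ?_, fun x x' hxx h4 => ?_⟩
  · obtain ⟨a, b, hab, h⟩ := hends x
    exact h1.ball (he := he) (isBall_dlt1 hK (bd_cont H X x) hab h ⟨o, ho, hoc x⟩
      (bd_pos H X (hne x)))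
  · refine h1.cross he h2 hxx (htwo x) (htwo x') (hdis x x' hxx) ?_ ?_ h4 h5
    · obtain ⟨a, b, -, h⟩ := hends x; exact ⟨a, b, h⟩
    · obtain ⟨a, b, -, h⟩ := hends x'; exact ⟨a, b, h⟩
  · exact h1.none he h3 hxx (htwo x) (htwo x') ho (hoc x) (hoc x') (hdis x x' hxx) h4

end bd

end Crest.Agent.R096.Arc_778
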