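import Crest.Agent.R096.Coh6_184

/-!
# R096 (row 96), ARR-SH (helper334), part 1: `TrivF` and connectedness of a cellular surface

`Cw X V Y T` : points `V`, chords `Y`, tiles `T` realised as closed sets of a space `X`.
Every chord has exactly two points; two different tiles meet only in common chords and points;
the boundary of every tile is connected through chords.

* `Cw.triv_of_h1` : every locally constant cocycle which is trivial on the tiles is trivial, if
  `H¹ = 0` in the tile free form of helper147;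
* `Cw.isPreconnected`.
-/

set_option autoImplicit false

open Set Topology Filter

namespace Crest.Agent.R096.Shp_334

open Coh_184

variable {X : Type*} [TopologicalSpace X] {V Y T : Type*}

/-- a finite cellular surface realised in `X` -/
structure Cw (X : Type*) [TopologicalSpace X] (V Y T : Type*) where
  p : V → X
  KY : Y → Set X
  KT : T → Set X
  /-- the ends of a chord -/
  a : Y → V
  b : Y → V
  /-- chord in a tile, point in a tile -/
  yt : Y → T → Prop
  vt : V → T → Prop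
  ends : ∀ y t, yt y t → vt (a y) t ∧ vt (b y) t
  pa : ∀ y, p (a y) ∈ KY y
  pb : ∀ y, p (b y) ∈ KY y
  sub : ∀ y t, yt y t → KY y ⊆ KT t
  mem : ∀ v t, vt v t → p v ∈ KT t
  clY : ∀ y, IsClosed (KY y)
  conY : ∀ y, IsPreconnected (KY y)
  clT : ∀ t, IsClosed (KT t)
  /-- different tiles meet in common chords and points -/
  inter : ∀ t t', t ≠ t' → ∀ x, x ∈ KT t → x ∈ KT t' →
    (∃ y, yt y t ∧ yt y t' ∧ x ∈ KY y) ∨ (∃ v, vt v t ∧ vt v t' ∧ x = p v)
  /-- the boundary of a tile is connected -/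
  bdc : ∀ t (Z : Set V), (∀ y, yt y t → (a y ∈ Z ↔ b y ∈ Z)) →
    ∀ v v', vt v t → vt v' t → v ∈ Z → v' ∈ Z

lemma zA : ∀ k a b c d : ZMod 2, k = a + b → k = c + d → a + c = b + d := by decide

lemma zB : ∀ a b c d : ZMod 2, a - b = c - d → a + c = b + d := by decide

lemma zC : ∀ x y a b c : ZMod 2, x - y = a - b → x + (a + c) = y + (b + c) := by decide

/-- difference of two trivialisations over a preconnected set -/
lemma diff_const {ι : Type*} [Finite ι] {C : ι → Set X} {d : ι → ι → X → ZMod 2} {K : Set X}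
    (hC : ∀ i, IsClosed (C i)) (hcov : K ⊆ ⋃ i, C i) (hK : IsPreconnected K) (hKc : IsClosed K)
    {χ ω : ι → X → ZMod 2} (h1 : ∀ i, LC (χ i) (C i ∩ K))
    (h2 : ∀ i j x, x ∈ C i → x ∈ C j → x ∈ K → χ i x - χ j x = d i j x)
    (h3 : ∀ i, LC (ω i) (C i ∩ K))
    (h4 : ∀ i j x, x ∈ C i → x ∈ C j → x ∈ K → ω i x - ω j x = d i j x)
    {x y : X} (hx : x ∈ K) (hy : y ∈ K) {i j : ι} (hi : x ∈ C i) (hj : y ∈ C j) :
    χ i x - ω i x = χ j y - ω j y := by
  classical
  have hex : ∀ x ∈ K, ∃ i, x ∈ C i := fun x hx => mem_iUnion.1 (hcov hx)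
  let ε : X → ZMod 2 := fun x => if h : ∃ i, x ∈ C i then χ h.choose x - ω h.choose x else 0
  have hε : ∀ i x, x ∈ C i → x ∈ K → ε x = χ i x - ω i x := by
    intro i x hi hy
    have h : ∃ i, x ∈ C i := ⟨i, hi⟩
    have e1 : ε x = χ h.choose x - ω h.choose x := by simp only [ε]; rw [dif_pos h]
    have a := h2 h.choose i x h.choose_spec hi hy
    have b := h4 h.choose i x h.choose_spec hi hy
    rw [e1]
    linear_combination a - b
  have hLC : LC ε K := by
    have hEq : K = ⋃ i, (C i ∩ K) := by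
      rw [← iUnion_inter]
      exact (inter_eq_self_of_subset_right hcov).symm
    rw [hEq]
    apply LC.iUnion
    · intro i; exact (hC i).inter hKc
    · intro i
      have a : LC (fun x => χ i x - ω i x) (C i ∩ K) :=
        LC.comp₂ (F := fun a b => a - b) (h1 i) (h3 i)
      exact a.congr fun x hx => hε i x hx.1 hx.2
  have := hLC.eq_of_preconnected hK hx hy
  rw [hε i x hi hx, hε j y hj hy] at this
  exact this

namespace Cw

variable (S : Cw X V Y T)

/-- the surface -/
def car : Set X := ⋃ t, S.KT t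

/-- `H¹ = 0`, tile free form -/
def H1 : Prop :=
  ∀ κ : Y → ZMod 2, (∀ t, ∃ ψ : V → ZMod 2, ∀ y, S.yt y t → κ y = ψ (S.a y) + ψ (S.b y)) →
    ∃ Ψ : V → ZMod 2, ∀ y t, S.yt y t → κ y = Ψ (S.a y) + Ψ (S.b y)

/-- **the cocycle is trivial on the whole surface** -/
theorem triv_of_h1 [Finite T] {ι : Type*} [Finite ι] {C : ι → Set X} {d : ι → ι → X → ZMod 2}
    (hc : Coc C d S.car) (hT : ∀ t, Triv C d (S.KT t)) (h : S.H1) :
    Triv C d S.car := by
  classical
  choose χ hχ hχd using hT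
  have hsubT : ∀ t, S.KT t ⊆ S.car := fun t => subset_iUnion _ t
  have hcovT : ∀ t, S.KT t ⊆ ⋃ i, C i := fun t => (hsubT t).trans hc.cov
  -- value at a point
  let ψ : T → V → ZMod 2 := fun t v => if h : ∃ i, S.p v ∈ C i then χ t h.choose (S.p v) else 0
  have hidx : ∀ v t, S.vt v t → ∃ i, S.p v ∈ C i := fun v t hv =>
    mem_iUnion.1 (hcovT t (S.mem v t hv))
  have hψ : ∀ v t t' i, S.vt v t → S.vt v t' → S.p v ∈ C i →
      ψ t v - ψ t' v = χ t i (S.p v) - χ t' i (S.p v) := by
    intro v t t' i hv hv' hi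
    have h : ∃ i, S.p v ∈ C i := ⟨i, hi⟩
    have e1 : ∀ t, ψ t v = χ t h.choose (S.p v) := fun t => by simp only [ψ]; rw [dif_pos h]
    have a := hχd t h.choose i (S.p v) h.choose_spec hi (S.mem v t hv)
    have b := hχd t' h.choose i (S.p v) h.choose_spec hi (S.mem v t' hv')
    rw [e1, e1]
    linear_combination a - b
  -- two tiles along a chord
  have hchord : ∀ y t t' x i, S.yt y t → S.yt y t' → x ∈ S.KY y → x ∈ C i →
      χ t i x - χ t' i x = ψ t (S.a y) - ψ t' (S.a y) ∧
      χ t i x - χ t' i x = ψ t (S.b y) - ψ t' (S.b y) := by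
    intro y t t' x i hy hy' hx hi
    have hsub1 : S.KY y ⊆ S.KT t := S.sub y t hy
    have hsub2 : S.KY y ⊆ S.KT t' := S.sub y t' hy'
    have key : ∀ x' ∈ S.KY y, ∀ i', x' ∈ C i' → χ t i x - χ t' i x = χ t i' x' - χ t' i' x' := by
      intro x' hx' i' hi'
      exact diff_const (K := S.KY y) hc.closed (hsub1.trans (hcovT t)) (S.conY y) (S.clY y)
        (fun k => (hχ t k).mono (inter_subset_inter_right _ hsub1))
        (fun k l z hk hl hz => hχd t k l z hk hl (hsub1 hz))
        (fun k => (hχ t' k).mono (inter_subset_inter_right _ hsub2))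
        (fun k l z hk hl hz => hχd t' k l z hk hl (hsub2 hz)) hx hx' hi hi'
    constructor
    · obtain ⟨i', hi'⟩ := hidx _ t (S.ends y t hy).1
      rw [key _ (S.pa y) i' hi', hψ _ t t' i' (S.ends y t hy).1 (S.ends y t' hy').1 hi']
    · obtain ⟨i', hi'⟩ := hidx _ t (S.ends y t hy).2
      rw [key _ (S.pb y) i' hi', hψ _ t t' i' (S.ends y t hy).2 (S.ends y t' hy').2 hi']
  -- the cochain
  let κ : Y → ZMod 2 := fun y =>
    if h : ∃ t, S.yt y t then ψ h.choose (S.a y) + ψ h.choose (S.b y) else 0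
  have hκ : ∀ y t, S.yt y t → κ y = ψ t (S.a y) + ψ t (S.b y) := by
    intro y t hy
    have h : ∃ t, S.yt y t := ⟨t, hy⟩
    have e1 : κ y = ψ h.choose (S.a y) + ψ h.choose (S.b y) := by
      simp only [κ]; rw [dif_pos h]
    obtain ⟨i', hi'⟩ := hidx _ t (S.ends y t hy).1
    have a := hchord y h.choose t _ i' h.choose_spec hy (S.pa y) hi'
    have e2 : ψ h.choose (S.a y) - ψ t (S.a y) = ψ h.choose (S.b y) - ψ t (S.b y) :=
      a.1.symm.trans a.2
    rw [e1]
    exact zB _ _ _ _ e2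
  obtain ⟨Ψ, hΨ⟩ := h κ (fun t => ⟨ψ t, fun y hy => hκ y t hy⟩)
  -- the constants of the tiles
  let w : T → ZMod 2 := fun t =>
    if h : ∃ v, S.vt v t then ψ t h.choose + Ψ h.choose else 0
  have hw : ∀ v t, S.vt v t → w t = ψ t v + Ψ v := by
    intro v t hv
    have h : ∃ v, S.vt v t := ⟨v, hv⟩
    have e1 : w t = ψ t h.choose + Ψ h.choose := by simp only [w]; rw [dif_pos h]
    rw [e1]
    have := S.bdc t {u | ψ t h.choose + Ψ h.choose = ψ t u + Ψ u} ?_ h.choose v h.choose_spec hv rfl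
    · exact this
    · intro y hy
      have a := hκ y t hy
      have b := hΨ y t hy
      have c : ψ t (S.a y) + Ψ (S.a y) = ψ t (S.b y) + Ψ (S.b y) := zA _ _ _ _ _ a b
      change (ψ t h.choose + Ψ h.choose = ψ t (S.a y) + Ψ (S.a y)) ↔
        (ψ t h.choose + Ψ h.choose = ψ t (S.b y) + Ψ (S.b y))
      rw [c]
  have hagree : ∀ t t' x i, x ∈ S.KT t → x ∈ S.KT t' → x ∈ C i →
      χ t i x + w t = χ t' i x + w t' := by
    intro t t' x i hx hx' hi
    by_cases htt : t = t'
    · rw [htt]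
    rcases S.inter t t' htt x hx hx' with ⟨y, hy, hy', hxy⟩ | ⟨v, hv, hv', rfl⟩
    · have a := (hchord y t t' x i hy hy' hxy hi).1
      have b := hw _ t (S.ends y t hy).1
      have c := hw _ t' (S.ends y t' hy').1
      rw [b, c]
      exact zC _ _ _ _ _ a
    · have a := hψ v t t' i hv hv' hi
      have b := hw _ t hv
      have c := hw _ t' hv'
      rw [b, c]
      exact zC _ _ _ _ _ a.symm
  -- glue
  let χ' : ι → X → ZMod 2 := fun i x =>
    if h : ∃ t, x ∈ S.KT t then χ h.choose i x + w h.choose else 0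
  have hχ' : ∀ t i x, x ∈ S.KT t → x ∈ C i → χ' i x = χ t i x + w t := by
    intro t i x hx hi
    have h : ∃ t, x ∈ S.KT t := ⟨t, hx⟩
    have e1 : χ' i x = χ h.choose i x + w h.choose := by simp only [χ']; rw [dif_pos h]
    rw [e1]
    exact hagree _ _ x i h.choose_spec hx hi
  refine ⟨χ', fun i => ?_, ?_⟩
  · have hEq : C i ∩ S.car = ⋃ t, (C i ∩ S.KT t) := by
      rw [car, inter_iUnion]
    rw [hEq]
    apply LC.iUnion
    · intro t; exact (hc.closed i).inter (S.clT t)
    · intro t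
      have a : LC (fun x => χ t i x + w t) (C i ∩ S.KT t) :=
        LC.comp₂ (hχ t i) (LC_const (w t) _) (fun a b => a + b)
      exact a.congr fun x hx => hχ' t i x hx.2 hx.1
  · intro i j x hi hj hx
    obtain ⟨t, ht⟩ := mem_iUnion.1 hx
    rw [hχ' t i x ht hi, hχ' t j x ht hj, ← hχd t i j x hi hj ht]
    ring

/-- `TrivAll` of the surface -/
theorem trivAll [Finite T] {ι : Type*} [Finite ι]
    (hT : ∀ t, TrivAll ι (ZMod 2) (S.KT t)) (h : S.H1) : TrivAll ι (ZMod 2) S.car := by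
  intro C d hc
  exact S.triv_of_h1 hc (fun t => hT t C d (hc.mono (subset_iUnion _ t))) h

/-- `TrivF` of the surface -/
theorem trivF [Finite T] (hT : ∀ t, TrivF (ZMod 2) (S.KT t)) (h : S.H1) :
    TrivF (ZMod 2) S.car := fun n => S.trivAll (fun t => hT t n) h

/-- the surface is preconnected: the tiles are preconnected, every tile has a point, and the
points are connected through chords -/
theorem isPreconnected (hT : ∀ t, IsPreconnected (S.KT t)) (hv : ∀ t, ∃ v, S.vt v t)
    (hcon : ∀ Z : Set V, (∀ y t, S.yt y t → (S.a y ∈ Z ↔ S.b y ∈ Z)) →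
      ∀ v v' t t', S.vt v t → S.vt v' t' → v ∈ Z → v' ∈ Z) : IsPreconnected S.car := by
  classical
  refine isPreconnected_of_forall_pair fun x hx x' hx' => ?_
  obtain ⟨t, ht⟩ := mem_iUnion.1 hx
  obtain ⟨t', ht'⟩ := mem_iUnion.1 hx'
  obtain ⟨v, hvt⟩ := hv t
  obtain ⟨v', hvt'⟩ := hv t'
  -- points connected to `p v` inside the surface
  let Z : Set V := {u | ∃ K, K ⊆ S.car ∧ S.p v ∈ K ∧ S.p u ∈ K ∧ IsPreconnected K}
  have hZ : ∀ y t, S.yt y t → (S.a y ∈ Z ↔ S.b y ∈ Z) := by
    intro y t hy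
    have hs : S.KY y ⊆ S.car := (S.sub y t hy).trans (subset_iUnion _ t)
    constructor
    · rintro ⟨K, hK, h1, h2, h3⟩
      exact ⟨K ∪ S.KY y, union_subset hK hs, Or.inl h1, Or.inr (S.pb y),
        h3.union (S.p (S.a y)) h2 (S.pa y) (S.conY y)⟩
    · rintro ⟨K, hK, h1, h2, h3⟩
      exact ⟨K ∪ S.KY y, union_subset hK hs, Or.inl h1, Or.inr (S.pa y),
        h3.union (S.p (S.b y)) h2 (S.pb y) (S.conY y)⟩
  have hvZ : v ∈ Z := ⟨{S.p v}, by
    rintro _ rfl; exact mem_iUnion.2 ⟨t, S.mem v t hvt⟩, rfl, rfl, isPreconnected_singleton⟩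
  obtain ⟨K, hK, h1, h2, h3⟩ := hcon Z hZ v v' t t' hvt hvt' hvZ
  refine ⟨(S.KT t ∪ K) ∪ S.KT t', ?_, Or.inl (Or.inl ht), Or.inr ht', ?_⟩
  · exact union_subset (union_subset (subset_iUnion _ t) hK) (subset_iUnion _ t')
  · exact (((hT t).union (S.p v) (S.mem v t hvt) h1 h3)).union (S.p v') (Or.inr h2)
      (S.mem v' t' hvt') (hT t')

end Cw

end Crest.Agent.R096.Shp_334
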