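import Crest.Agent.R096.Bd13_416
import Crest.Agent.R096.Cb3_609
import Crest.Agent.R096.Shp1_334

/-!
# R096 (row 96), ARR-SH (helper334), part 2: the sheet `{G_j = 1/2}` of 416's band structure is a
cellular surface

`X : Cplx Ω Q dim K` (537), `H : Inv C K univ g P c` (416).  `Zr c K q x = {z ∈ K q | c q x z = 0}` =
the piece `x` in the cell `q`.  Geometric input: `Zr` is a PL ball of dimension `dim q - 1` with
boundary its part on `bdS K q` (for the pieces of sheet `j`).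
Combinatorial input: `SH1`, `SConn` (H¹ = 0 and connectedness of the sheet, tile free form).

Output: `Inv.sheet_trivF`, `Inv.sheet_isConnected`, `Inv.sheet_isCompact`.
-/

set_option autoImplicit false

open Set Metric

namespace Crest.Agent.R096.Shp_334

open Crest.Agent.R096.Ce_537 Crest.Agent.R096.Bd_416 Crest.Agent.R096.Coh_184 Crest.Agent.R096.Cb_609

open scoped Classical

variable {Q : Type} [PartialOrder Q] {dim : Q → ℕ} {J Fam : Type}
variable {E : Type*} [NormedAddCommGroup E] [NormedSpace ℝ E]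
variable {C : Cmb Q dim J Fam} {K : Q → Set E} {g : Gd E J}
  {P : ∀ q, C.I q → Set E} {c : ∀ q, C.I q → E → ℝ} {Ω : Set E}

/-! ### combinatorial sheets -/

/-- the `k`-dimensional pieces plus one of the sheet `j` -/
abbrev Pce (C : Cmb Q dim J Fam) (j : J) (k : ℕ) : Type :=
  {v : Σ e, C.I e // dim v.1 = k ∧ C.col v.1 v.2 = j}

/-- the piece `v` lies in the piece `y` of a bigger cell -/
def Sub (C : Cmb Q dim J Fam) {j : J} {k l : ℕ} (v : Pce C j k) (y : Pce C j l) : Prop :=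
  ∃ h : v.1.1 < y.1.1, C.up h v.1.2 = y.1.2

/-- `H¹ = 0` for the sheet `j`, tile free form -/
def SH1 (C : Cmb Q dim J Fam) (j : J) : Prop :=
  ∀ κ : Pce C j 2 → ZMod 2,
    (∀ t : Pce C j 3, ∃ ψ : Pce C j 1 → ZMod 2, ∀ y, Sub C y t → ∀ a b, Sub C a y → Sub C b y →
      a ≠ b → κ y = ψ a + ψ b) →
    ∃ Ψ : Pce C j 1 → ZMod 2, ∀ y a b, Sub C a y → Sub C b y → a ≠ b → κ y = Ψ a + Ψ b

/-- connectedness of the sheet `j` -/
def SConn (C : Cmb Q dim J Fam) (j : J) : Prop :=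
  Nonempty (Pce C j 1) ∧ ∀ Z : Set (Pce C j 1), (∀ (y : Pce C j 2) a b, Sub C a y → Sub C b y →
    a ∈ Z → b ∈ Z) → ∀ a b, a ∈ Z → b ∈ Z

lemma Sub.trans {j : J} {k l m : ℕ} {v : Pce C j k} {y : Pce C j l} {t : Pce C j m}
    (h : Sub C v y) (h' : Sub C y t) : Sub C v t := by
  obtain ⟨h1, e1⟩ := h
  obtain ⟨h2, e2⟩ := h'
  exact ⟨h1.trans h2, by rw [C.up_up h1 h2, e1, e2]⟩

/-! ### zero sets -/

/-- the piece `x` of the cell `q` as a set -/
def Zr (c : ∀ q, C.I q → E → ℝ) (K : Q → Set E) (q : Q) (x : C.I q) : Set E :=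
  {z | z ∈ K q ∧ c q x z = 0}

section zero

variable (H : Inv C K univ g P c)
include H

lemma mem_P_of_zero {q : Q} {x : C.I q} {z : E} (h : z ∈ Zr c K q x) : z ∈ P q x :=
  H.cn q (mem_univ _) x z h.1 (by rw [h.2]; norm_num)

lemma Zr_unique {q : Q} {x x' : C.I q} (hc : C.col q x = C.col q x') {z : E}
    (h : z ∈ Zr c K q x) (h' : z ∈ Zr c K q x') : x = x' := by
  by_contra hne
  exact Set.disjoint_left.1 (H.fd q (mem_univ _) x x' hne (by rw [hc]))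
    (mem_P_of_zero H h) (mem_P_of_zero H h')

/-- the piece on a smaller cell -/
lemma Zr_down {p q : Q} (h : p < q) {x : C.I q} {z : E} (hz : z ∈ K p) :
    c q x z = 0 ↔ ∃ y, C.up h y = x ∧ z ∈ Zr c K p y := by
  have h1 := H.r2 h (mem_univ q) x z hz
  constructor
  · intro h0
    rw [h0, mul_zero] at h1
    rcases mul_eq_zero.1 h1.symm with h2 | h2
    · exact absurd h2 (sg_ne _)
    · obtain ⟨y, hy, hy0⟩ := Finset.prod_eq_zero_iff.1 h2
      exact ⟨y, (Finset.mem_filter.1 hy).2, hz, by linarith⟩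
  · rintro ⟨y, hy, hzy⟩
    have h2 : ∏ y : C.I p with C.up h y = x, (-2 * c p y z) = 0 :=
      Finset.prod_eq_zero (Finset.mem_filter.2 ⟨Finset.mem_univ y, hy⟩) (by rw [hzy.2]; ring)
    rw [h2, mul_zero] at h1
    linarith

/-- the level `1/2` in a cell -/
lemma half_iff {q : Q} {j : J} {z : E} (hz : z ∈ K q) :
    g.G j z = 1/2 ↔ ∃ x, C.col q x = j ∧ z ∈ Zr c K q x := by
  have h1 := H.PF q (mem_univ q) j z hz
  constructor
  · intro h0
    rw [h0] at h1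
    have h2 : sg (C.Lab j q) / 2 * ∏ x : C.I q with C.col q x = j, (-2 * c q x z) = 0 := by
      linarith
    rcases mul_eq_zero.1 h2 with h2 | h2
    · exact absurd (by linarith : sg (C.Lab j q) = 0) (sg_ne _)
    · obtain ⟨y, hy, hy0⟩ := Finset.prod_eq_zero_iff.1 h2
      exact ⟨y, (Finset.mem_filter.1 hy).2, hz, by linarith⟩
  · rintro ⟨x, hx, hzx⟩
    have h2 : ∏ x : C.I q with C.col q x = j, (-2 * c q x z) = 0 :=
      Finset.prod_eq_zero (Finset.mem_filter.2 ⟨Finset.mem_univ x, hx⟩) (by rw [hzx.2]; ring)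
    rw [h1, h2]; ring

variable (X : Cplx Ω Q dim K)
include X

/-- the smallest piece at a point -/
lemma Zr_min {q : Q} {x : C.I q} {z : E} (h : z ∈ Zr c K q x) :
    ∃ m, Opn K m z ∧ 1 ≤ dim m ∧ ∃ y : C.I m, z ∈ Zr c K m y ∧ C.col m y = C.col q x ∧
      ((∃ e : m = q, e ▸ y = x) ∨ ∃ hm : m < q, C.up hm y = x) := by
  obtain ⟨m, hm, hmo⟩ := X.exists_opn h.1
  have key : ∃ y : C.I m, z ∈ Zr c K m y ∧ C.col m y = C.col q x ∧
      ((∃ e : m = q, e ▸ y = x) ∨ ∃ hm : m < q, C.up hm y = x) := by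
    rcases hm.eq_or_lt with rfl | hlt
    · exact ⟨x, h, rfl, Or.inl ⟨rfl, rfl⟩⟩
    · obtain ⟨y, hy, hzy⟩ := (Zr_down H hlt hmo.1).1 h.2
      exact ⟨y, hzy, by rw [← hy, C.col_up], Or.inr ⟨hlt, hy⟩⟩
  refine ⟨m, hmo, ?_, key⟩
  by_contra h0
  obtain ⟨y, -⟩ := key
  exact (C.vert m (by omega)).false y

end zero

/-! ### the sheet -/

/-- the geometric input: the pieces of the sheet `j` are balls -/
def Bls (C : Cmb Q dim J Fam) (K : Q → Set E) (c : ∀ q, C.I q → E → ℝ) (j : J) : Prop :=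
  ∀ q, 1 ≤ dim q → ∀ x : C.I q, C.col q x = j →
    IsBall (dim q - 1) (Zr c K q x) (Zr c K q x ∩ bdS K q)

section sheet

variable (H : Inv C K univ g P c) (X : Cplx Ω Q dim K) {j : J} (hB : Bls C K c j)

/-- the set of a piece -/
abbrev Zs' (c : ∀ q, C.I q → E → ℝ) (K : Q → Set E) {j : J} {k : ℕ} (y : Pce C j k) : Set E :=
  Zr c K y.1.1 y.1.2

include H in
lemma Zs'_mono {k l : ℕ} {v : Pce C j k} {y : Pce C j l} (X : Cplx Ω Q dim K)
    (h : Sub C v y) : Zs' c K v ⊆ Zs' c K y := by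
  obtain ⟨hlt, e⟩ := h
  intro z hz
  exact ⟨X.subset hlt.le hz.1, (Zr_down H hlt hz.1).2 ⟨_, e, hz⟩⟩

include hB in
lemma exists_pt (v : Pce C j 1) : ∃ z, Zs' c K v = {z} := by
  obtain ⟨e, -⟩ := hB v.1.1 v.2.1.ge v.1.2 v.2.2
  have h0 : dim v.1.1 - 1 = 0 := by rw [v.2.1]
  rw [h0] at e
  refine ⟨e.f 0, e.image_eq.symm.trans ?_⟩
  ext z
  constructor
  · rintro ⟨w, hw, rfl⟩
    rw [mem_singleton_iff]
    congr 1
    exact Subsingleton.elim _ _
  · rintro rfl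
    exact ⟨0, by simp [cube], rfl⟩

/-- the point -/
noncomputable def pt (hB : Bls C K c j) (v : Pce C j 1) : E := (exists_pt hB v).choose

lemma pt_eq (v : Pce C j 1) : Zs' c K v = {pt hB v} := (exists_pt hB v).choose_spec

lemma pt_mem (v : Pce C j 1) : pt hB v ∈ Zs' c K v := by rw [pt_eq hB]; rfl

include H X in
/-- comparison of pieces at a common point: the smallest common piece -/
lemma Zr_inter {k l : ℕ} {y : Pce C j k} {y' : Pce C j l} {z : E} (hz : z ∈ Zs' c K y)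
    (hz' : z ∈ Zs' c K y') : ∃ (m : Q) (w : C.I m), z ∈ Zr c K m w ∧ 1 ≤ dim m ∧ Opn K m z ∧
      C.col m w = j ∧
      ((∃ e : m = y.1.1, e ▸ w = y.1.2) ∨ ∃ hm : m < y.1.1, C.up hm w = y.1.2) ∧
      ((∃ e : m = y'.1.1, e ▸ w = y'.1.2) ∨ ∃ hm : m < y'.1.1, C.up hm w = y'.1.2) := by
  obtain ⟨m, hm, hd, w, hw, hc, h1⟩ := Zr_min H X hz
  obtain ⟨m', hm', hd', w', hw', hc', h1'⟩ := Zr_min H X hz'
  have he : m = m' := X.disj m m' z hm hm'
  subst he
  have hww : w = w' := Zr_unique H (by rw [hc, hc', y.2.2, y'.2.2]) hw hw'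
  subst hww
  exact ⟨m, w, hw, hd, hm, by rw [hc, y.2.2], h1, h1'⟩

lemma pce_ext {k : ℕ} {y y' : Pce C j k} {m : Q} {w : C.I m} (e : m = y.1.1)
    (h : e ▸ w = y.1.2) (e' : m = y'.1.1) (h' : e' ▸ w = y'.1.2) : y = y' := by
  obtain ⟨⟨q, x⟩, h1, h2⟩ := y
  obtain ⟨⟨q', x'⟩, h1', h2'⟩ := y'
  simp only at e e' h h'
  subst e
  subst e'
  simp only at h h'
  subst h
  subst h'
  rfl

include H X in
/-- two different pieces of the same dimension meet in smaller pieces -/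
lemma Zr_inter_ne {k : ℕ} {y y' : Pce C j k} (hne : y ≠ y') {z : E} (hz : z ∈ Zs' c K y)
    (hz' : z ∈ Zs' c K y') : ∃ l, 1 ≤ l ∧ l < k ∧ ∃ w : Pce C j l, Sub C w y ∧ Sub C w y' ∧
      z ∈ Zs' c K w := by
  obtain ⟨m, w, hw, hd, hm, hc, h1, h1'⟩ := Zr_inter H X hz hz'
  rcases h1 with ⟨e, h⟩ | ⟨hlt, h⟩
  · rcases h1' with ⟨e', h'⟩ | ⟨hlt', h'⟩
    · exact absurd (pce_ext e h e' h') hne
    · have h2 := X.mono _ _ hlt'
      rw [y'.2.1, e, y.2.1] at h2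
      exact absurd h2 (lt_irrefl _)
  · rcases h1' with ⟨e', h'⟩ | ⟨hlt', h'⟩
    · have h2 := X.mono _ _ hlt
      rw [y.2.1, e', y'.2.1] at h2
      exact absurd h2 (lt_irrefl _)
    · have h2 := X.mono _ _ hlt
      rw [y.2.1] at h2
      exact ⟨dim m, hd, h2, ⟨⟨m, w⟩, rfl, hc⟩, ⟨hlt, h⟩, ⟨hlt', h'⟩, hw⟩

include H X in
/-- the boundary of a piece consists of smaller pieces -/
lemma Zr_bd {k : ℕ} {y : Pce C j k} {z : E} (hz : z ∈ Zs' c K y) (hb : z ∈ bdS K y.1.1) :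
    ∃ l, 1 ≤ l ∧ l < k ∧ ∃ w : Pce C j l, Sub C w y ∧ z ∈ Zs' c K w := by
  obtain ⟨σ, hσ, hzσ⟩ := exists_of_mem_bdS hb
  obtain ⟨w0, hw0, hzw0⟩ := (Zr_down H hσ hzσ).1 hz.2
  obtain ⟨m, hm, hd, w, hw, hc, h1⟩ := Zr_min H X hzw0
  have hmy : ∃ hm : m < y.1.1, C.up hm w = y.1.2 := by
    rcases h1 with ⟨e, h⟩ | ⟨hlt, h⟩
    · subst e
      simp only at h
      subst h
      exact ⟨hσ, hw0⟩
    · exact ⟨hlt.trans hσ, by rw [C.up_up hlt hσ, h, hw0]⟩
  obtain ⟨hlt, h⟩ := hmy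
  have h2 := X.mono _ _ hlt
  rw [y.2.1] at h2
  refine ⟨dim m, hd, h2, ⟨⟨m, w⟩, rfl, ?_⟩, ⟨hlt, h⟩, hw⟩
  have h3 := C.col_up hlt w
  rw [h, y.2.2] at h3
  exact h3.symm

include H X in
lemma pt_inj {v v' : Pce C j 1} (h : pt hB v = pt hB v') : v = v' := by
  by_contra hne
  have h1 := pt_mem hB v
  have h2 := pt_mem hB v'
  rw [← h] at h2
  obtain ⟨l, hl, hl', -⟩ := Zr_inter_ne H X hne h1 h2
  omega

lemma sub_bd (X : Cplx Ω Q dim K) {k l : ℕ} {v : Pce C j k} {y : Pce C j l} (h : Sub C v y) :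
    Zs' c K v ⊆ bdS K y.1.1 := by
  obtain ⟨hlt, -⟩ := h
  intro z hz
  exact mem_biUnion (show v.1.1 ∈ {j | j < y.1.1} from hlt) hz.1

include H X hB in
/-- **a chord has exactly two ends** -/
lemma exists_ends (y : Pce C j 2) : ∃ a b : Pce C j 1, a ≠ b ∧ Sub C a y ∧ Sub C b y ∧
    ∀ v, Sub C v y → v = a ∨ v = b := by
  have h1 : IsBall 1 (Zs' c K y) (Zs' c K y ∩ bdS K y.1.1) := by
    have := hB y.1.1 (by rw [y.2.1]; norm_num) y.1.2 y.2.2
    rwa [y.2.1] at this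
  obtain ⟨e, he⟩ := h1
  rw [sph_one, image_pair] at he
  set u : Fin 1 → ℝ := fun _ => -1
  set w : Fin 1 → ℝ := fun _ => 1
  have hu : u ∈ cube 1 := sph_subset_cube (by rw [sph_one]; exact Or.inl rfl)
  have hw : w ∈ cube 1 := sph_subset_cube (by rw [sph_one]; exact Or.inr rfl)
  have huw : e.f u ≠ e.f w := by
    intro h
    have := congrArg e.g h
    rw [e.li u hu, e.li w hw] at this
    have := congrFun this 0
    norm_num [u, w] at this
  have key : ∀ z ∈ Zs' c K y ∩ bdS K y.1.1, ∃ v : Pce C j 1, Sub C v y ∧ pt hB v = z := by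
    rintro z ⟨hz, hb⟩
    obtain ⟨l, hl, hl', v, hv, hzv⟩ := Zr_bd H X hz hb
    obtain rfl : l = 1 := by omega
    rw [pt_eq hB v] at hzv
    exact ⟨v, hv, hzv.symm⟩
  obtain ⟨a, ha, hau⟩ := key (e.f u) (by rw [← he]; exact Or.inl rfl)
  obtain ⟨b, hb, hbw⟩ := key (e.f w) (by rw [← he]; exact Or.inr rfl)
  refine ⟨a, b, ?_, ha, hb, fun v hv => ?_⟩
  · rintro rfl
    exact huw (hau.symm.trans hbw)
  · have h2 : pt hB v ∈ Zs' c K y ∩ bdS K y.1.1 :=
      ⟨Zs'_mono H X hv (pt_mem hB v), sub_bd X hv (pt_mem hB v)⟩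
    rw [← he] at h2
    rcases h2 with h2 | h2
    · left; exact pt_inj H X hB (h2.trans hau.symm)
    · right; exact pt_inj H X hB (h2.trans hbw.symm)

/-- first end -/
noncomputable def ea (H : Inv C K univ g P c) (X : Cplx Ω Q dim K) (hB : Bls C K c j)
    (y : Pce C j 2) : Pce C j 1 := (exists_ends H X hB y).choose

/-- second end -/
noncomputable def eb (H : Inv C K univ g P c) (X : Cplx Ω Q dim K) (hB : Bls C K c j)
    (y : Pce C j 2) : Pce C j 1 := (exists_ends H X hB y).choose_spec.choose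

lemma ends_spec (y : Pce C j 2) : ea H X hB y ≠ eb H X hB y ∧ Sub C (ea H X hB y) y ∧
    Sub C (eb H X hB y) y ∧ ∀ v, Sub C v y → v = ea H X hB y ∨ v = eb H X hB y :=
  (exists_ends H X hB y).choose_spec.choose_spec

lemma finite_sub (X : Cplx Ω Q dim K) {k l : ℕ} (t : Pce C j l) :
    {y : Pce C j k | Sub C y t}.Finite := by
  have h1 := X.finite_below t.1.1
  have h2 : (⋃ q ∈ {q | q < t.1.1}, ((fun x : C.I q => (⟨q, x⟩ : Σ e, C.I e)) '' univ)).Finite :=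
    h1.biUnion fun q _ => finite_univ.image _
  refine Set.Finite.of_finite_image (f := fun y : Pce C j k => y.1) (h2.subset ?_)
    (Subtype.val_injective.injOn)
  rintro _ ⟨y, ⟨hlt, -⟩, rfl⟩
  exact mem_biUnion (show y.1.1 ∈ {q | q < t.1.1} from hlt) ⟨y.1.2, mem_univ _, rfl⟩

include H X in
/-- **the boundary of a tile is connected through chords** -/
lemma tile_bdc (t : Pce C j 3) (Z : Set (Pce C j 1))
    (hZ : ∀ y, Sub C y t → (ea H X hB y ∈ Z ↔ eb H X hB y ∈ Z)) {v v' : Pce C j 1}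
    (hv : Sub C v t) (hv' : Sub C v' t) (hvZ : v ∈ Z) : v' ∈ Z := by
  by_contra hv'Z
  -- the boundary circle
  have hcon : IsPreconnected (Zs' c K t ∩ bdS K t.1.1) := by
    have h1 : IsBall 2 (Zs' c K t) (Zs' c K t ∩ bdS K t.1.1) := by
      have := hB t.1.1 (by rw [t.2.1]; norm_num) t.1.2 t.2.2
      rwa [t.2.1] at this
    obtain ⟨e, he⟩ := h1
    rw [← he]
    have h1 : 1 < Module.rank ℝ (Fin 2 → ℝ) := by
      rw [rank_fin_fun]; norm_num
    exact (isPreconnected_sphere h1 0 1).image _ (e.pf.1.mono sph_subset_cube)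
  let A : Set (Pce C j 1) → Set E := fun W =>
    (⋃ y ∈ {y : Pce C j 2 | Sub C y t ∧ ea H X hB y ∈ W}, Zs' c K y) ∪
      (⋃ u ∈ {u : Pce C j 1 | Sub C u t ∧ u ∈ W}, Zs' c K u)
  have hcl : ∀ W, IsClosed (A W) := by
    intro W
    refine IsClosed.union ?_ ?_
    · refine ((finite_sub X t).subset fun y hy => hy.1).isClosed_biUnion fun y _ => ?_
      exact (hB y.1.1 (by rw [y.2.1]; norm_num) y.1.2 y.2.2).isClosed
    · refine ((finite_sub X t).subset fun y hy => hy.1).isClosed_biUnion fun y _ => ?_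
      exact (hB y.1.1 (by rw [y.2.1]) y.1.2 y.2.2).isClosed
  have hcov : Zs' c K t ∩ bdS K t.1.1 ⊆ A Z ∪ A Zᶜ := by
    rintro z ⟨hz, hb⟩
    obtain ⟨l, hl, hl', w, hw, hzw⟩ := Zr_bd H X hz hb
    have hl2 : l = 1 ∨ l = 2 := by omega
    rcases hl2 with rfl | rfl
    · by_cases hwZ : w ∈ Z
      · exact Or.inl (Or.inr (mem_biUnion (show w ∈ {u : Pce C j 1 | Sub C u t ∧ u ∈ Z} from
          ⟨hw, hwZ⟩) hzw))
      · exact Or.inr (Or.inr (mem_biUnion (show w ∈ {u : Pce C j 1 | Sub C u t ∧ u ∈ Zᶜ} from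
          ⟨hw, hwZ⟩) hzw))
    · by_cases hwZ : ea H X hB w ∈ Z
      · exact Or.inl (Or.inl (mem_biUnion (show w ∈ {y : Pce C j 2 | Sub C y t ∧
          ea H X hB y ∈ Z} from ⟨hw, hwZ⟩) hzw))
      · exact Or.inr (Or.inl (mem_biUnion (show w ∈ {y : Pce C j 2 | Sub C y t ∧
          ea H X hB y ∈ Zᶜ} from ⟨hw, hwZ⟩) hzw))
  -- an end of a chord has the type of the chord
  have hend : ∀ (y : Pce C j 2) (u : Pce C j 1), Sub C y t → Sub C u y →
      (u ∈ Z ↔ ea H X hB y ∈ Z) := by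
    intro y u hy hu
    rcases (ends_spec H X hB y).2.2.2 u hu with rfl | rfl
    · rfl
    · exact (hZ y hy).symm
  have hmemA : ∀ W z, z ∈ A W → (∃ y : Pce C j 2, Sub C y t ∧ ea H X hB y ∈ W ∧
      z ∈ Zs' c K y) ∨ (∃ u : Pce C j 1, Sub C u t ∧ u ∈ W ∧ z ∈ Zs' c K u) := by
    rintro W z (h | h)
    · obtain ⟨y, ⟨h1, h2⟩, h3⟩ := mem_iUnion₂.1 h
      exact Or.inl ⟨y, h1, h2, h3⟩
    · obtain ⟨y, ⟨h1, h2⟩, h3⟩ := mem_iUnion₂.1 h
      exact Or.inr ⟨y, h1, h2, h3⟩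
  have hpc : ∀ (y : Pce C j 2) (u : Pce C j 1) z, z ∈ Zs' c K y → z ∈ Zs' c K u → Sub C u y := by
    intro y u z hz hz'
    obtain ⟨m, w, hw, hd, hm, hc, h1, h1'⟩ := Zr_inter H X hz hz'
    rcases h1' with ⟨e', h'⟩ | ⟨hlt', h'⟩
    · rcases h1 with ⟨e, h⟩ | ⟨hlt, h⟩
      · exfalso
        have h2 := y.2.1
        rw [← e, e', u.2.1] at h2
        norm_num at h2
      · subst e'
        simp only at h'
        subst h'
        exact ⟨hlt, h⟩
    · have h2 := X.mono _ _ hlt'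
      rw [u.2.1] at h2
      omega
  have hdis : ∀ z, z ∈ A Z → z ∈ A Zᶜ → False := by
    intro z hz hz'
    rcases hmemA _ z hz with ⟨y, hy, hyZ, hzy⟩ | ⟨u, hu, huZ, hzu⟩ <;>
      rcases hmemA _ z hz' with ⟨y', hy', hyZ', hzy'⟩ | ⟨u', hu', huZ', hzu'⟩
    · by_cases hyy : y = y'
      · subst hyy; exact hyZ' hyZ
      · obtain ⟨l, hl, hl', w, hw, hw', -⟩ := Zr_inter_ne H X hyy hzy hzy'
        obtain rfl : l = 1 := by omega
        exact hyZ' ((hend y' w hy' hw').1 ((hend y w hy hw).2 hyZ))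
    · exact huZ' ((hend y u' hy (hpc y u' z hzy hzu')).2 hyZ)
    · exact hyZ' ((hend y' u hy' (hpc y' u z hzy' hzu)).1 huZ)
    · by_cases huu : u = u'
      · subst huu; exact huZ' huZ
      · obtain ⟨l, hl, hl', -⟩ := Zr_inter_ne H X huu hzu hzu'
        omega
  have hmem : ∀ u : Pce C j 1, Sub C u t → pt hB u ∈ Zs' c K t ∩ bdS K t.1.1 := fun u hu =>
    ⟨Zs'_mono H X hu (pt_mem hB u), sub_bd X hu (pt_mem hB u)⟩
  obtain ⟨z, -, hzA, hzB⟩ := isPreconnected_closed_iff.1 hcon (A Z) (A Zᶜ) (hcl _) (hcl _) hcov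
    ⟨pt hB v, hmem v hv, Or.inr (mem_biUnion (show v ∈ {u : Pce C j 1 | Sub C u t ∧ u ∈ Z} from
      ⟨hv, hvZ⟩) (pt_mem hB v))⟩
    ⟨pt hB v', hmem v' hv', Or.inr (mem_biUnion (show v' ∈ {u : Pce C j 1 | Sub C u t ∧ u ∈ Zᶜ}
      from ⟨hv', hv'Z⟩) (pt_mem hB v'))⟩
  exact hdis z hzA hzB

/-- **the sheet as a cellular surface** -/
noncomputable def cw (H : Inv C K univ g P c) (X : Cplx Ω Q dim K) (hB : Bls C K c j) :
    Cw E (Pce C j 1) (Pce C j 2) (Pce C j 3) where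
  p := pt hB
  KY := Zs' c K
  KT := Zs' c K
  a := ea H X hB
  b := eb H X hB
  yt := Sub C
  vt := Sub C
  ends y t h := ⟨(ends_spec H X hB y).2.1.trans h, (ends_spec H X hB y).2.2.1.trans h⟩
  pa y := Zs'_mono H X (ends_spec H X hB y).2.1 (pt_mem hB _)
  pb y := Zs'_mono H X (ends_spec H X hB y).2.2.1 (pt_mem hB _)
  sub y t h := Zs'_mono H X h
  mem v t h := Zs'_mono H X h (pt_mem hB _)
  clY y := (hB y.1.1 (by rw [y.2.1]; norm_num) y.1.2 y.2.2).isClosed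
  conY y := (hB y.1.1 (by rw [y.2.1]; norm_num) y.1.2 y.2.2).isPreconnected
  clT y := (hB y.1.1 (by rw [y.2.1]; norm_num) y.1.2 y.2.2).isClosed
  inter t t' hne z hz hz' := by
    obtain ⟨l, hl, hl', w, hw, hw', hzw⟩ := Zr_inter_ne H X hne hz hz'
    have hl2 : l = 1 ∨ l = 2 := by omega
    rcases hl2 with rfl | rfl
    · right
      rw [pt_eq hB w] at hzw
      exact ⟨w, hw, hw', hzw⟩
    · left
      exact ⟨w, hw, hw', hzw⟩
  bdc t Z hZ v v' hv hv' hvZ := tile_bdc H X hB t Z hZ hv hv' hvZ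

include X hB in
/-- the tile free `H¹ = 0` -/
lemma cw_h1 (h1 : SH1 C j) : (cw H X hB).H1 := by
  intro κ hκ
  have hends : ∀ (y : Pce C j 2) (ψ : Pce C j 1 → ZMod 2) a b, Sub C a y → Sub C b y → a ≠ b →
      ψ (ea H X hB y) + ψ (eb H X hB y) = ψ a + ψ b := by
    intro y ψ a b ha hb hab
    rcases (ends_spec H X hB y).2.2.2 a ha with rfl | rfl <;>
      rcases (ends_spec H X hB y).2.2.2 b hb with rfl | rfl
    · exact absurd rfl hab
    · rfl
    · exact add_comm _ _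
    · exact absurd rfl hab
  obtain ⟨Ψ, hΨ⟩ := h1 κ (fun t => by
    obtain ⟨ψ, hψ⟩ := hκ t
    exact ⟨ψ, fun y hy a b ha hb hab => (hψ y hy).trans (hends y ψ a b ha hb hab)⟩)
  exact ⟨Ψ, fun y t _ => hΨ y _ _ (ends_spec H X hB y).2.1 (ends_spec H X hB y).2.2.1
    (ends_spec H X hB y).1⟩

/-- every cell lies in a 3-cell -/
def Top3 (Q : Type) [PartialOrder Q] (dim : Q → ℕ) : Prop := ∀ q : Q, ∃ q', q ≤ q' ∧ dim q' = 3

include H X in
/-- **the sheet is the union of its tiles** -/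
theorem sheet_eq (htop : Top3 Q dim) (hB : Bls C K c j) :
    (cw H X hB).car = {z | z ∈ Ω ∧ g.G j z = 1/2} := by
  ext z
  constructor
  · intro hz
    obtain ⟨t, ht⟩ := mem_iUnion.1 hz
    have ht' : z ∈ Zr c K t.1.1 t.1.2 := ht
    exact ⟨X.sub _ ht'.1, (half_iff H ht'.1).2 ⟨t.1.2, t.2.2, ht'⟩⟩
  · rintro ⟨hz, hG⟩
    obtain ⟨q, hq⟩ := X.cover z hz
    obtain ⟨q', hle, hd⟩ := htop q
    obtain ⟨x, hx, hzx⟩ := (half_iff H (X.subset hle hq)).1 hG
    exact mem_iUnion.2 ⟨⟨⟨q', x⟩, hd, hx⟩, hzx⟩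

include H X hB in
/-- **`TrivF` of the sheet** -/
theorem sheet_trivF (htop : Top3 Q dim) [Finite (Pce C j 3)] (h1 : SH1 C j) :
    TrivF (ZMod 2) {z | z ∈ Ω ∧ g.G j z = 1/2} := by
  rw [← sheet_eq H X htop hB]
  refine (cw H X hB).trivF (fun t => ?_) (cw_h1 H X hB h1)
  obtain ⟨e, -⟩ := hB t.1.1 (by rw [t.2.1]; norm_num) t.1.2 t.2.2
  have h2 : (cw H X hB).KT t = e.f '' cube (dim t.1.1 - 1) := e.image_eq.symm
  rw [h2]
  exact trivF_convex_image (isCompact_closedBall _ _) (convex_closedBall _ _) e.pf.1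
    (fun u hu v hv huv => by rw [← e.li u hu, ← e.li v hv, huv])

include H X in
lemma exists_sub_pt (hB : Bls C K c j) (t : Pce C j 3) : ∃ v : Pce C j 1, Sub C v t := by
  have h1 : IsBall 2 (Zs' c K t) (Zs' c K t ∩ bdS K t.1.1) := by
    have := hB t.1.1 (by rw [t.2.1]; norm_num) t.1.2 t.2.2
    rwa [t.2.1] at this
  obtain ⟨e, he⟩ := h1
  have h2 : (fun _ => 1 : Fin 2 → ℝ) ∈ sph 2 := by
    rw [mem_sphere_zero_iff_norm, pi_norm_const]
    exact norm_one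
  have h3 : e.f (fun _ => 1) ∈ Zs' c K t ∩ bdS K t.1.1 := by rw [← he]; exact ⟨_, h2, rfl⟩
  obtain ⟨l, hl, hl', w, hw, hzw⟩ := Zr_bd H X h3.1 h3.2
  have hl2 : l = 1 ∨ l = 2 := by omega
  rcases hl2 with rfl | rfl
  · exact ⟨w, hw⟩
  · exact ⟨_, (ends_spec H X hB w).2.1.trans hw⟩

include H X in
/-- **connectedness of the sheet** -/
theorem sheet_isConnected (htop : Top3 Q dim) (hB : Bls C K c j) (hc : SConn C j) :
    IsConnected {z | z ∈ Ω ∧ g.G j z = 1/2} := by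
  rw [← sheet_eq H X htop hB]
  have hin : ∀ {k : ℕ}, k < 3 → ∀ y : Pce C j k, ∃ t : Pce C j 3, Sub C y t := by
    intro k hk y
    obtain ⟨q', hle, hd⟩ := htop y.1.1
    have hlt : y.1.1 < q' := lt_of_le_of_ne hle (fun h => by
      have h2 := y.2.1
      rw [h, hd] at h2
      omega)
    exact ⟨⟨⟨q', C.up hlt y.1.2⟩, hd, by
      show C.col q' _ = j
      rw [C.col_up, y.2.2]⟩, hlt, rfl⟩
  constructor
  · obtain ⟨v⟩ := hc.1
    obtain ⟨t, ht⟩ := hin (by norm_num) v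
    exact ⟨pt hB v, mem_iUnion.2 ⟨t, Zs'_mono H X ht (pt_mem hB v)⟩⟩
  · refine (cw H X hB).isPreconnected (fun t => ?_) (fun t => exists_sub_pt H X hB t) ?_
    · exact (hB t.1.1 (by rw [t.2.1]; norm_num) t.1.2 t.2.2).isPreconnected
    · intro Z hZ v v' t t' _ _ hvZ
      refine hc.2 Z (fun y a b ha hb haZ => ?_) v v' hvZ
      obtain ⟨t, ht⟩ := hin (by norm_num) y
      have h1 := hZ y t ht
      have h2 : ∀ u, Sub C u y → (u ∈ Z ↔ ea H X hB y ∈ Z) := by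
        intro u hu
        rcases (ends_spec H X hB y).2.2.2 u hu with rfl | rfl
        · rfl
        · exact h1.symm
      exact (h2 b hb).2 ((h2 a ha).1 haZ)

include H X hB in
/-- compactness of the sheet -/
theorem sheet_isCompact (htop : Top3 Q dim) [Finite (Pce C j 3)] :
    IsCompact {z | z ∈ Ω ∧ g.G j z = 1/2} := by
  rw [← sheet_eq H X htop hB]
  refine isCompact_iUnion fun t => ?_
  exact (hB t.1.1 (by rw [t.2.1]; norm_num) t.1.2 t.2.2).isCompact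

end sheet

end Crest.Agent.R096.Shp_334
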