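import Crest.Agent.R096.Arc4_778
import Crest.Agent.R096.Arc5_778
import Crest.Agent.R096.Shp2_334

/-!
# R096 (row 96), (R4) CELL GEOMETRY, part 6: points on edges, chords of faces, the curve of a piece
on the boundary of a 3-cell is a PL circle (helper778)

* `Blw C q x` = the edge points of the piece `x` of `q`.
* `EdgeG` : on an edge every piece is one point, different pieces different points.
* `Loop C q x` : combinatorial input (two ends of a chord, two faces at an edge, connected).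
* `circle_of_loop` : `Gam (bdS K q) (c q) x` is a PL circle.
-/

set_option autoImplicit false
set_option linter.unusedSectionVars false

open Set Metric

namespace Crest.Agent.R096.Arc_778

open Crest.Agent.R096.Ce_537 Crest.Agent.R096.Bd_416 Crest.Agent.R096.Cb_609 Crest.Agent.R096.Pl
open Crest.Agent.R096.Shp_334 (Zr Zr_down Zr_min Zr_unique mem_P_of_zero)

open scoped Classical

variable {Q : Type} [PartialOrder Q] {dim : Q → ℕ} {J Fam : Type}
variable {E : Type*} [NormedAddCommGroup E] [NormedSpace ℝ E]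
variable {C : Cmb Q dim J Fam} {K : Q → Set E} {g : Gd E J}
  {P : ∀ q, C.I q → Set E} {c : ∀ q, C.I q → E → ℝ} {Ω : Set E}

/-- the edge points of a piece -/
def Blw (C : Cmb Q dim J Fam) (q : Q) (x : C.I q) : Set (Σ e, C.I e) :=
  {v | dim v.1 = 1 ∧ ∃ h : v.1 < q, C.up h v.2 = x}

/-- the pieces of an edge are different points -/
structure EdgeG {I : Type*} (K : Set E) (c : I → E → ℝ) : Prop where
  pt : ∀ x, ∃ z, Zer K c x = {z}
  dis : ∀ x x', x ≠ x' → Disjoint (Zer K c x) (Zer K c x')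

/-- an `ECell` has the points `e.f (p x)` -/
theorem ECell.edgeG {I : Type*} {K S : Set E} {o : E} {k : I → ℕ} (hk : Function.Injective k)
    {c : I → E → ℝ} (h : ECell K S o k c) : EdgeG K c := by
  obtain ⟨e, p, h1, h2, h3, h4, h5⟩ := h
  have hp : Function.Injective p := by
    intro x x' hxx
    rcases lt_trichotomy (k x) (k x') with h | h | h
    · exact absurd hxx (h4 _ _ h).ne
    · exact hk h
    · exact absurd hxx (h4 _ _ h).ne'
  have hz : ∀ x, ∀ z ∈ K, (c x z = 0 ↔ e.g z 0 = p x) := by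
    intro x z hz
    rw [← sign_eq_zero_iff, h5 x z hz, sign_eq_zero_iff, sub_eq_zero]
  constructor
  · intro x
    have hm : (fun _ => p x : Fin 1 → ℝ) ∈ cube 1 :=
      mem_cube1.2 (abs_le.2 ⟨(h3 x).1.le, (h3 x).2.le⟩)
    refine ⟨e.f (fun _ => p x), ?_⟩
    ext z
    constructor
    · rintro ⟨h6, h7⟩
      have h8 := (hz x z h6).1 h7
      have h9 : e.g z = fun _ => p x := by
        funext j; rw [Subsingleton.elim j 0]; exact h8
      rw [mem_singleton_iff, ← h9]; exact (e.ri z h6).symm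
    · intro h6
      rw [mem_singleton_iff] at h6
      subst h6
      refine ⟨e.mf hm, (hz x _ (e.mf hm)).2 ?_⟩
      rw [e.li _ hm]
  · intro x x' hne
    refine Set.disjoint_left.2 fun z h6 h7 => hne (hp ?_)
    rw [← (hz x z h6.1).1 h6.2, ← (hz x' z h7.1).1 h7.2]

/-- the point of a piece of an edge -/
noncomputable def pnt (K : Q → Set E) (c : ∀ q, C.I q → E → ℝ) (v : Σ e, C.I e) : E :=
  if h : (Zer (K v.1) (c v.1) v.2).Nonempty then h.some else 0

lemma zer_pnt {v : Σ e, C.I e} (h : EdgeG (K v.1) (c v.1)) :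
    Zer (K v.1) (c v.1) v.2 = {pnt K c v} := by
  obtain ⟨z, hz⟩ := h.pt v.2
  have hn : (Zer (K v.1) (c v.1) v.2).Nonempty := by rw [hz]; exact ⟨z, rfl⟩
  have h1 : pnt K c v ∈ Zer (K v.1) (c v.1) v.2 := by
    unfold pnt; rw [dif_pos hn]; exact hn.some_mem
  rw [hz] at h1 ⊢
  rw [mem_singleton_iff.1 h1]

lemma pnt_mem {v : Σ e, C.I e} (h : EdgeG (K v.1) (c v.1)) :
    pnt K c v ∈ Zer (K v.1) (c v.1) v.2 := by rw [zer_pnt h]; rfl

section struct

variable (H : Inv C K univ g P c) (X : Cplx Ω Q dim K) {q : Q}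

include H X in
/-- the smallest piece at a boundary point -/
lemma min_bd {x : C.I q} {z : E} (hz : z ∈ Gam (bdS K q) (c q) x) :
    ∃ (m : Q) (hm : m < q), Opn K m z ∧ 1 ≤ dim m ∧ ∃ y : C.I m,
      z ∈ Zer (K m) (c m) y ∧ C.up hm y = x := by
  obtain ⟨σ, h, hzσ⟩ := exists_of_mem_bdS hz.1
  obtain ⟨y0, hy0, hz0⟩ := (Zr_down H h hzσ).1 hz.2
  obtain ⟨m, hm, hd, y, hy, -, h1⟩ := Zr_min H X hz0
  rcases h1 with ⟨e, h1⟩ | ⟨hlt, h1⟩
  · subst e
    simp only at h1
    subst h1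
    exact ⟨m, h, hm, hd, y, hy, hy0⟩
  · exact ⟨m, hlt.trans h, hm, hd, y, hy, by rw [C.up_up hlt h, h1, hy0]⟩

include H X in
/-- points of edges lie in the open edge -/
lemma opn_edge {e : Q} (hd : dim e = 1) {u : C.I e} {z : E} (hz : z ∈ Zer (K e) (c e) u) :
    Opn K e z := by
  obtain ⟨m, hm, hdm, y, hy, -, h1⟩ := Zr_min H X (q := e) (x := u) hz
  rcases h1 with ⟨e', -⟩ | ⟨hlt, -⟩
  · rwa [e'] at hm
  · have := X.mono _ _ hlt
    omega

include H X in
lemma pnt_inj {v v' : Σ e, C.I e} (hd : dim v.1 = 1) (hd' : dim v'.1 = 1)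
    (h : EdgeG (K v.1) (c v.1)) (h' : EdgeG (K v'.1) (c v'.1)) (he : pnt K c v = pnt K c v') :
    v = v' := by
  have h1 := pnt_mem h
  have h2 := pnt_mem h'
  rw [← he] at h2
  obtain ⟨e, u⟩ := v
  obtain ⟨e', u'⟩ := v'
  have h3 := opn_edge H X hd h1
  have h4 := opn_edge H X hd' h2
  obtain rfl : e = e' := X.disj _ _ _ h3 h4
  by_contra hne
  have hu : u ≠ u' := by rintro rfl; exact hne rfl
  exact Set.disjoint_left.1 (h.dis u u' hu) h1 h2

include H X in
/-- a piece of a smaller cell lies in the piece of the bigger cell -/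
lemma zer_up {p : Q} (h : p < q) {y : C.I p} {z : E} (hz : z ∈ Zer (K p) (c p) y) :
    z ∈ Gam (bdS K q) (c q) (C.up h y) :=
  ⟨mem_biUnion (show p ∈ {j | j < q} from h) hz.1, (Zr_down H h hz.1).2 ⟨y, rfl, hz⟩⟩

include H in
/-- the piece at a point is determined by its sheet -/
lemma zer_unique {x x' : C.I q} (hc : C.col q x = C.col q x') {z : E}
    (h : z ∈ Zer (K q) (c q) x) (h' : z ∈ Zer (K q) (c q) x') : x = x' :=
  Zr_unique H hc h h'

include H X in
lemma gam_face (hd : dim q = 2) (hE : ∀ e < q, dim e = 1 → EdgeG (K e) (c e)) (y : C.I q) :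
    Gam (bdS K q) (c q) y = pnt K c '' Blw C q y := by
  ext z
  constructor
  · intro hz
    obtain ⟨m, hm, hmo, hdm, w, hw, hwy⟩ := min_bd H X hz
    have h1 := X.mono _ _ hm
    have h2 : dim m = 1 := by omega
    refine ⟨⟨m, w⟩, ⟨h2, hm, hwy⟩, ?_⟩
    have h3 := zer_pnt (v := ⟨m, w⟩) (hE m hm h2)
    have h4 : z ∈ ({pnt K c ⟨m, w⟩} : Set E) := by rw [← h3]; exact hw
    exact h4.symm
  · rintro ⟨v, ⟨h1, h2, h3⟩, rfl⟩
    rw [← h3]
    exact zer_up H X h2 (pnt_mem (hE _ h2 h1))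

include H X in
lemma gam_dis (hd : dim q = 2) (hE : ∀ e < q, dim e = 1 → EdgeG (K e) (c e)) (y y' : C.I q)
    (hne : y ≠ y') : Gam (bdS K q) (c q) y ∩ Gam (bdS K q) (c q) y' = ∅ := by
  refine eq_empty_iff_forall_notMem.2 ?_
  rintro z ⟨hz, hz'⟩
  obtain ⟨m, hm, hmo, hdm, w, hw, hwy⟩ := min_bd H X hz
  obtain ⟨m', hm', hmo', hdm', w', hw', hwy'⟩ := min_bd H X hz'
  obtain rfl : m = m' := X.disj _ _ _ hmo hmo'
  have h1 := X.mono _ _ hm
  have h2 : dim m = 1 := by omega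
  by_cases hww : w = w'
  · subst hww; exact hne (hwy.symm.trans hwy')
  · exact Set.disjoint_left.1 ((hE m hm h2).dis w w' hww) hw hw'

include H X in
lemma gam_pair (hd : dim q = 2) (hE : ∀ e < q, dim e = 1 → EdgeG (K e) (c e)) (y : C.I q)
    {a b : Σ e, C.I e} (hab : a ≠ b) (h : Blw C q y = {a, b}) :
    Gam (bdS K q) (c q) y = {pnt K c a, pnt K c b} ∧ pnt K c a ≠ pnt K c b := by
  refine ⟨by rw [gam_face H X hd hE y, h, image_pair], fun he => hab ?_⟩
  have ha : a ∈ Blw C q y := by rw [h]; simp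
  have hb : b ∈ Blw C q y := by rw [h]; simp
  exact pnt_inj H X ha.1 hb.1 (hE _ ha.2.1 ha.1) (hE _ hb.2.1 hb.1) he

include H X in
/-- **(R4.3) for a 2-cell filled by the cone rule, with combinatorial input** -/
theorem chords_face [FiniteDimensional ℝ E] (hd : dim q = 2)
    (hE : ∀ e < q, dim e = 1 → EdgeG (K e) (c e)) (hq : FCell (K q) (bdS K q) (c q))
    (hends : ∀ y : C.I q, ∃ a b, a ≠ b ∧ Blw C q y = {a, b}) :
    Chords (K q) (bdS K q) (c q) := by
  refine chords_of_cone H X hd hq (fun x => ?_) (gam_dis H X hd hE)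
  obtain ⟨a, b, hab, h⟩ := hends x
  obtain ⟨h1, h2⟩ := gam_pair H X hd hE x hab h
  exact ⟨_, _, h2, h1⟩

/-- **combinatorial input for the curve of the piece `x` on the boundary of a 3-cell** -/
structure Loop (C : Cmb Q dim J Fam) (q : Q) (x : C.I q) : Prop where
  ends : ∀ F, dim F = 2 → F < q → ∀ y : C.I F, ∃ a b, a ≠ b ∧ Blw C F y = {a, b}
  two : ∀ e, dim e = 1 → e < q → Nonempty (C.I e) →
    ∃ F F', F ≠ F' ∧ {F | dim F = 2 ∧ e < F ∧ F < q} = {F, F'}
  ne : (Blw C q x).Nonempty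
  conn : ∀ G ⊆ Blw C q x, G.Nonempty →
    (∀ v ∈ G, ∀ F, dim F = 2 → ∀ h : v.1 < F, F < q → Blw C F (C.up h v.2) ⊆ G) → G = Blw C q x

/-- the other end of a chord -/
lemma Loop.oth {q : Q} {x : C.I q} (L : Loop C q x) (F : Q) (v : {v // v ∈ Blw C q x})
    (h : dim F = 2 ∧ v.1.1 < F ∧ F < q) :
    ∃ v' : {v // v ∈ Blw C q x}, v' ≠ v ∧ Blw C F (C.up h.2.1 v.1.2) = {v.1, v'.1} := by
  obtain ⟨hd, h1, h2⟩ := h
  obtain ⟨a, b, hab, hB⟩ := L.ends F hd h2 (C.up h1 v.1.2)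
  have hv : v.1 ∈ Blw C F (C.up h1 v.1.2) := ⟨v.2.1, h1, rfl⟩
  have hup : ∀ w ∈ Blw C F (C.up h1 v.1.2), w ∈ Blw C q x := by
    rintro w ⟨h3, h4, h5⟩
    refine ⟨h3, h4.trans h2, ?_⟩
    rw [C.up_up h4 h2, h5, ← C.up_up h1 h2]
    exact v.2.2.2
  have ha := hup a (by rw [hB]; simp)
  have hb := hup b (by rw [hB]; simp)
  rw [hB] at hv
  rcases hv with hv | hv
  · refine ⟨⟨b, hb⟩, ?_, ?_⟩
    · intro h; exact hab (hv.symm.trans (congrArg Subtype.val h).symm)
    · rw [hB, hv]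
  · have hv' : v.1 = b := hv
    refine ⟨⟨a, ha⟩, ?_, ?_⟩
    · intro h; exact hab ((congrArg Subtype.val h).trans hv')
    · rw [hB, hv', pair_comm]

/-- the arc to the other end -/
noncomputable def Loop.arc {q : Q} {x : C.I q} (L : Loop C q x) (F : Q)
    (v : {v // v ∈ Blw C q x}) : {v // v ∈ Blw C q x} :=
  if h : dim F = 2 ∧ v.1.1 < F ∧ F < q then (L.oth F v h).choose else v

lemma Loop.arc_spec {q : Q} {x : C.I q} (L : Loop C q x) {F : Q} {v : {v // v ∈ Blw C q x}}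
    (h : dim F = 2 ∧ v.1.1 < F ∧ F < q) :
    L.arc F v ≠ v ∧ Blw C F (C.up h.2.1 v.1.2) = {v.1, (L.arc F v).1} := by
  have h1 : L.arc F v = (L.oth F v h).choose := by unfold Loop.arc; rw [dif_pos h]
  rw [h1]
  exact (L.oth F v h).choose_spec

lemma Loop.arc_mem {q : Q} {x : C.I q} (L : Loop C q x) {F : Q} {v : {v // v ∈ Blw C q x}}
    (h : dim F = 2 ∧ v.1.1 < F ∧ F < q) :
    ∃ h' : (L.arc F v).1.1 < F, C.up h' (L.arc F v).1.2 = C.up h.2.1 v.1.2 := by
  have h1 : (L.arc F v).1 ∈ Blw C F (C.up h.2.1 v.1.2) := by rw [(L.arc_spec h).2]; simp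
  exact h1.2

lemma Loop.arc_inv {q : Q} {x : C.I q} (L : Loop C q x) {F : Q} {v : {v // v ∈ Blw C q x}}
    (h : dim F = 2 ∧ v.1.1 < F ∧ F < q) : L.arc F (L.arc F v) = v := by
  obtain ⟨h', he⟩ := L.arc_mem h
  have h2 := L.arc_spec h
  have h3 := L.arc_spec (F := F) (v := L.arc F v) ⟨h.1, h', h.2.2⟩
  rw [he, h2.2] at h3
  obtain ⟨h3, h4⟩ := h3
  have h5 : (v.1) ∈ ({(L.arc F v).1, (L.arc F (L.arc F v)).1} : Set (Σ e, C.I e)) := by
    rw [← h4]; simp
  rcases h5 with h5 | h5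
  · exact absurd (Subtype.ext h5.symm) h2.1
  · exact (Subtype.ext h5).symm

/-- the cycle of the chords of `x` -/
noncomputable def Loop.cyc {q : Q} {x : C.I q} (L : Loop C q x) :
    Cyc {v // v ∈ Blw C q x} Q where
  S v := {F | dim F = 2 ∧ v.1.1 < F ∧ F < q}
  arc := L.arc
  ne h := (L.arc_spec h).1
  mem h := ⟨h.1, (L.arc_mem h).1, h.2.2⟩
  inv h := L.arc_inv h
  two v := L.two v.1.1 v.2.1 v.2.2.1 ⟨v.1.2⟩
  conn G hG hcl := by
    have h1 := L.conn (Subtype.val '' G) (by rintro _ ⟨v, -, rfl⟩; exact v.2) (hG.image _) (by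
      rintro _ ⟨v, hv, rfl⟩ F hd h h'
      rw [(L.arc_spec (F := F) (v := v) ⟨hd, h, h'⟩).2]
      rintro w (hw | hw)
      · exact ⟨v, hv, hw.symm⟩
      · exact ⟨L.arc F v, hcl v hv F ⟨hd, h, h'⟩, hw.symm⟩)
    ext v
    refine ⟨fun _ => trivial, fun _ => ?_⟩
    have h2 : v.1 ∈ Subtype.val '' G := by rw [h1]; exact v.2
    obtain ⟨w, hw, he⟩ := h2
    rwa [← Subtype.ext he]

lemma finite_blw (X : Cplx Ω Q dim K) (q : Q) (x : C.I q) : (Blw C q x).Finite := by
  have h2 : (⋃ p ∈ {p | p < q}, ((fun y : C.I p => (⟨p, y⟩ : Σ e, C.I e)) '' univ)).Finite :=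
    (X.finite_below q).biUnion fun p _ => finite_univ.image _
  refine h2.subset ?_
  rintro ⟨p, y⟩ ⟨-, h, -⟩
  exact mem_biUnion (show p ∈ {p | p < q} from h) ⟨y, mem_univ _, rfl⟩

include H X in
/-- **the curve of a piece on the boundary of a 3-cell is a PL circle** -/
theorem circle_of_loop (hd : dim q = 3) (hE : ∀ e < q, dim e = 1 → EdgeG (K e) (c e))
    (hF : ∀ F < q, dim F = 2 → ∀ y, IsBall 1 (Zer (K F) (c F) y) (Gam (bdS K F) (c F) y))
    {x : C.I q} (L : Loop C q x) : Nonempty (PLEquiv (S1 ℝ) (Gam (bdS K q) (c q) x)) := by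
  have hfin : Finite {v // v ∈ Blw C q x} := (finite_blw X q x).to_subtype
  have hne : Nonempty {v // v ∈ Blw C q x} := L.ne.to_subtype
  have hEv : ∀ v : {v // v ∈ Blw C q x}, EdgeG (K v.1.1) (c v.1.1) := fun v =>
    hE _ v.2.2.1 v.2.1
  let vv : {v // v ∈ Blw C q x} → E := fun v => pnt K c v.1
  let Ar : Q → {v // v ∈ Blw C q x} → Set E := fun F v =>
    if h : v.1.1 < F then Zer (K F) (c F) (C.up h v.1.2) else ∅
  have hAr : ∀ {F : Q} {v : {v // v ∈ Blw C q x}} (h : dim F = 2 ∧ v.1.1 < F ∧ F < q),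
      Ar F v = Zer (K F) (c F) (C.up h.2.1 v.1.2) := fun h => dif_pos h.2.1
  have hEF : ∀ {F : Q}, F < q → ∀ e < F, dim e = 1 → EdgeG (K e) (c e) :=
    fun h e he hd => hE e (he.trans h) hd
  have hupx : ∀ {F : Q} {v : {v // v ∈ Blw C q x}} (h : dim F = 2 ∧ v.1.1 < F ∧ F < q),
      C.up h.2.2 (C.up h.2.1 v.1.2) = x := by
    intro F v h
    rw [← C.up_up h.2.1 h.2.2]; exact v.2.2.2
  have hR : CReal L.cyc vv Ar := by
    refine ⟨?_, ?_, ?_, ?_, ?_⟩
    · intro v v' h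
      exact Subtype.ext (pnt_inj H X v.2.1 v'.2.1 (hEv v) (hEv v') h)
    · intro F v h
      obtain ⟨h1, h2⟩ := L.arc_mem h
      have h3 : Ar F (L.arc F v) = Ar F v := by
        rw [hAr (v := L.arc F v) ⟨h.1, h1, h.2.2⟩, hAr h, h2]
      exact h3
    · intro F v h
      rw [hAr h]
      have h1 := hF F h.2.2 h.1 (C.up h.2.1 v.1.2)
      have h2 := L.arc_spec h
      have h3 := (gam_pair H X h.1 (hEF h.2.2) (C.up h.2.1 v.1.2)
        (fun h4 => h2.1 (Subtype.ext h4.symm)) h2.2).1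
      rw [h3] at h1
      exact h1
    · intro F v v' h h' h1 h2
      have h3 : C.up h.2.1 v.1.2 ≠ C.up h'.2.1 v'.1.2 := by
        intro h4
        have h5 : v'.1 ∈ Blw C F (C.up h.2.1 v.1.2) := ⟨v'.2.1, h'.2.1, h4.symm⟩
        rw [(L.arc_spec h).2] at h5
        rcases h5 with h5 | h5
        · exact h1 (Subtype.ext h5)
        · exact h2 (Subtype.ext h5)
      rw [hAr h, hAr h']
      refine Set.disjoint_left.2 fun z hz hz' => h3 (zer_unique H ?_ hz hz')
      rw [← C.col_up h.2.2, ← C.col_up h.2.2, hupx h, hupx h']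
    · intro F F' v v' h h' hne
      rw [hAr h, hAr h']
      rintro z ⟨hz, hz'⟩
      -- the smallest piece
      obtain ⟨m, hm, hdm, w, hw, -, h1⟩ := Zr_min H X (q := F) (x := C.up h.2.1 v.1.2) hz
      obtain ⟨m', hm', hdm', w', hw', -, h1'⟩ :=
        Zr_min H X (q := F') (x := C.up h'.2.1 v'.1.2) hz'
      obtain rfl : m = m' := X.disj _ _ _ hm hm'
      have hmF : m < F ∧ m < F' := by
        rcases h1 with ⟨e, -⟩ | ⟨hlt, -⟩
        · exfalso
          rcases h1' with ⟨e', -⟩ | ⟨hlt', -⟩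
          · exact hne (e.symm.trans e')
          · have := X.mono _ _ hlt'
            rw [e, h.1, h'.1] at this
            exact lt_irrefl _ this
        · rcases h1' with ⟨e', -⟩ | ⟨hlt', -⟩
          · have := X.mono _ _ hlt
            rw [e', h.1, h'.1] at this
            exact absurd this (lt_irrefl _)
          · exact ⟨hlt, hlt'⟩
      have hup : C.up hmF.1 w = C.up h.2.1 v.1.2 := by
        rcases h1 with ⟨e, -⟩ | ⟨hlt, h1⟩
        · exact absurd hmF.1 (by rw [e]; exact lt_irrefl _)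
        · exact h1
      have hup' : C.up hmF.2 w' = C.up h'.2.1 v'.1.2 := by
        rcases h1' with ⟨e, -⟩ | ⟨hlt, h1⟩
        · exact absurd hmF.2 (by rw [e]; exact lt_irrefl _)
        · exact h1
      have hcw : C.col m w = C.col m w' := by
        rw [← C.col_up hmF.1 w, ← C.col_up hmF.2 w', hup, hup', ← C.col_up h.2.2,
          ← C.col_up h'.2.2, hupx h, hupx h']
      obtain rfl : w = w' := zer_unique H hcw hw hw'
      have hdm1 : dim m = 1 := by
        have := X.mono _ _ hmF.1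
        rw [h.1] at this; omega
      have hEm : EdgeG (K m) (c m) := hE m (hmF.1.trans h.2.2) hdm1
      have hzp : z = pnt K c ⟨m, w⟩ := by
        have h4 : z ∈ Zer (K (⟨m, w⟩ : Σ e, C.I e).1) (c (⟨m, w⟩ : Σ e, C.I e).1)
          (⟨m, w⟩ : Σ e, C.I e).2 := hw
        rw [zer_pnt (v := ⟨m, w⟩) hEm] at h4
        exact h4
      have h5 : (⟨m, w⟩ : Σ e, C.I e) ∈ Blw C F (C.up h.2.1 v.1.2) := ⟨hdm1, hmF.1, hup⟩
      have h6 : (⟨m, w⟩ : Σ e, C.I e) ∈ Blw C F' (C.up h'.2.1 v'.1.2) := ⟨hdm1, hmF.2, hup'⟩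
      rw [(L.arc_spec h).2] at h5
      rw [(L.arc_spec h').2] at h6
      constructor
      · rcases h5 with h5 | h5
        · left; rw [hzp, h5]
        · right
          have h5' : (⟨m, w⟩ : Σ e, C.I e) = (L.arc F v).1 := h5
          show z = pnt K c (L.arc F v).1
          rw [hzp, h5']
      · rcases h6 with h6 | h6
        · left; rw [hzp, h6]
        · right
          have h6' : (⟨m, w⟩ : Σ e, C.I e) = (L.arc F' v').1 := h6
          show z = pnt K c (L.arc F' v').1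
          rw [hzp, h6']
  have hT : Gam (bdS K q) (c q) x = {z | ∃ v, ∃ F ∈ L.cyc.S v, z ∈ Ar F v} := by
    ext z
    constructor
    · intro hz
      obtain ⟨m, hm, hmo, hdm, w, hw, hwx⟩ := min_bd H X hz
      have h1 := X.mono _ _ hm
      have h2 : dim m = 1 ∨ dim m = 2 := by omega
      rcases h2 with h2 | h2
      · have hv : (⟨m, w⟩ : Σ e, C.I e) ∈ Blw C q x := ⟨h2, hm, hwx⟩
        obtain ⟨F, F', -, hS⟩ := L.two m h2 hm ⟨w⟩
        have hFS : F ∈ {F | dim F = 2 ∧ m < F ∧ F < q} := by rw [hS]; simp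
        refine ⟨⟨_, hv⟩, F, hFS, ?_⟩
        rw [hAr (v := ⟨_, hv⟩) hFS]
        have h3 := zer_up H X hFS.2.1 hw
        exact ⟨bdS_sub X h3.1, h3.2⟩
      · obtain ⟨a, b, hab, hB⟩ := L.ends m h2 hm w
        have ha : a ∈ Blw C m w := by rw [hB]; simp
        obtain ⟨ha1, ha2, ha3⟩ := ha
        have hv : a ∈ Blw C q x := ⟨ha1, ha2.trans hm, by rw [C.up_up ha2 hm, ha3, hwx]⟩
        refine ⟨⟨a, hv⟩, m, ⟨h2, ha2, hm⟩, ?_⟩
        rw [hAr (v := ⟨a, hv⟩) ⟨h2, ha2, hm⟩]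
        show z ∈ Zer (K m) (c m) (C.up ha2 a.2)
        rw [ha3]; exact hw
    · rintro ⟨v, F, h, hz⟩
      rw [hAr h] at hz
      have h1 := zer_up H X h.2.2 hz
      rwa [hupx h] at h1
  rw [hT]
  exact hR.circle

end struct

end Crest.Agent.R096.Arc_778
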