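import Crest.Agent.R096.Arc6_778

/-!
# R096 (row 96), (R4) CELL GEOMETRY, part 7: (R4.1) sheet pieces in 3-cells are discs; `Bls` of 334
(helper778)

* `Tile` : the facts (R4.1) about a 3-cell filled by the cone rule.
* `Geo C K c R k` : what 416's recursion gives, seen through signs (edges `ECell`, other cells
  `FCell`, outside the given part `R`).
* `bls` : 334's `Bls` for all sheets.
-/

set_option autoImplicit false
set_option linter.unusedSectionVars false

open Set Metric

namespace Crest.Agent.R096.Arc_778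

open Crest.Agent.R096.Ce_537 Crest.Agent.R096.Bd_416 Crest.Agent.R096.Cb_609 Crest.Agent.R096.Pl
open Crest.Agent.R096.Shp_334 (Zr Bls)

open scoped Classical

variable {Q : Type} [PartialOrder Q] {dim : Q → ℕ} {J Fam : Type}
variable {E : Type*} [NormedAddCommGroup E] [NormedSpace ℝ E] [FiniteDimensional ℝ E]
variable {C : Cmb Q dim J Fam} {K : Q → Set E} {g : Gd E J}
  {P : ∀ q, C.I q → Set E} {c : ∀ q, C.I q → E → ℝ} {Ω : Set E}

section tile

variable (H : Inv C K univ g P c) (X : Cplx Ω Q dim K) {q : Q}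

include H X in
lemma two_of_circle (hd : dim q = 3) {x : C.I q}
    (hG : Nonempty (PLEquiv (S1 ℝ) (Gam (bdS K q) (c q) x))) : Two (bdS K q) (c q x) := by
  have hK : IsBall 3 (K q) (bdS K q) := by
    have := X.isBall q
    rw [hd] at this
    exact this
  obtain ⟨o, ho, hoc⟩ := bd_base H X (q := q) (by omega)
  exact two_dim3 hK (bd_cont H X x) hG ⟨o, ho, hoc x⟩ (bd_pos H X (circ_nontrivial hG).nonempty)

include H X in
/-- the inside of a curve is a disc -/
theorem dlt_disc (hd : dim q = 3) {x : C.I q}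
    (hG : Nonempty (PLEquiv (S1 ℝ) (Gam (bdS K q) (c q) x))) :
    IsBall 2 (Dlt (bdS K q) (c q) x) (Gam (bdS K q) (c q) x) := by
  have hK : IsBall 3 (K q) (bdS K q) := by
    have := X.isBall q
    rw [hd] at this
    exact this
  obtain ⟨o, ho, hoc⟩ := bd_base H X (q := q) (by omega)
  exact isBall_dlt2 hK (bd_cont H X x) hG ⟨o, ho, hoc x⟩
    (bd_pos H X (circ_nontrivial hG).nonempty)

include H X in
/-- **(R4.1)** -/
theorem zer_disc (hd : dim q = 3) (hq : FCell (K q) (bdS K q) (c q)) {x : C.I q}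
    (hG : Nonempty (PLEquiv (S1 ℝ) (Gam (bdS K q) (c q) x))) :
    IsBall 2 (Zer (K q) (c q) x) (Gam (bdS K q) (c q) x) := by
  obtain ⟨n, e, he, ρ, h1, -, -⟩ := hq
  exact h1.ball (he := he) (dlt_disc H X hd hG)

include H X in
/-- pieces whose curves do not meet do not meet -/
theorem zer_empty (hd : dim q = 3) (hq : FCell (K q) (bdS K q) (c q)) {x x' : C.I q}
    (hne : x ≠ x') (hG : Nonempty (PLEquiv (S1 ℝ) (Gam (bdS K q) (c q) x)))
    (hG' : Nonempty (PLEquiv (S1 ℝ) (Gam (bdS K q) (c q) x')))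
    (hi : Gam (bdS K q) (c q) x ∩ Gam (bdS K q) (c q) x' = ∅) :
    Zer (K q) (c q) x ∩ Zer (K q) (c q) x' = ∅ := by
  obtain ⟨n, e, he, ρ, h1, h2, h3⟩ := hq
  obtain ⟨o, ho, hoc⟩ := bd_base H X (q := q) (by omega)
  refine h1.none he h3 hne (two_of_circle H X hd hG) (two_of_circle H X hd hG') ho (hoc x)
    (hoc x') hi ?_
  have h4 : ∀ ω ∈ Gam (bdS K q) (c q) x', c q x ω ≠ 0 := fun ω hω h => by
    have : ω ∈ Gam (bdS K q) (c q) x ∩ Gam (bdS K q) (c q) x' := ⟨⟨hω.1, h⟩, hω⟩
    rw [hi] at this; exact this.elim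
  exact (sign_const (circ_isPreconnected hG')
    ((bd_cont H X x).mono fun ω h => h.1) h4).symm

end tile

/-! ### all cells -/

/-- **416's recursion seen through signs**: edges and cone-filled cells outside `R` -/
structure Geo (C : Cmb Q dim J Fam) (K : Q → Set E) (c : ∀ q, C.I q → E → ℝ) (R : Set Q)
    (k : ∀ q, C.I q → ℕ) : Prop where
  edge : ∀ q ∉ R, dim q = 1 → ∃ o ∈ K (C.o q), ECell (K q) (bdS K q) o (k q) (c q)
  cone : ∀ q ∉ R, 2 ≤ dim q → FCell (K q) (bdS K q) (c q)

/-- the same facts on the given part `R` (exact cores) -/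
structure GeoR (C : Cmb Q dim J Fam) (K : Q → Set E) (c : ∀ q, C.I q → E → ℝ) (R : Set Q) :
    Prop where
  edge : ∀ q ∈ R, dim q = 1 → EdgeG (K q) (c q)
  face : ∀ q ∈ R, dim q = 2 → Chords (K q) (bdS K q) (c q)
  cell : ∀ q ∈ R, dim q = 3 → ∀ x, IsBall 2 (Zer (K q) (c q) x) (Gam (bdS K q) (c q) x)

/-- **combinatorial input** -/
structure CmbG (C : Cmb Q dim J Fam) (R : Set Q) (k : ∀ q, C.I q → ℕ) : Prop where
  dim_le : ∀ q, dim q ≤ 3
  inj : ∀ q ∉ R, dim q = 1 → Function.Injective (k q)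
  ends : ∀ F ∉ R, dim F = 2 → ∀ y : C.I F, ∃ a b, a ≠ b ∧ Blw C F y = {a, b}
  loop : ∀ q ∉ R, dim q = 3 → ∀ x : C.I q, Loop C q x

section all

variable (H : Inv C K univ g P c) (X : Cplx Ω Q dim K) {R : Set Q} {k : ∀ q, C.I q → ℕ}
  (G : Geo C K c R k) (GR : GeoR C K c R) (L : CmbG C R k)
include H X G GR L

omit [FiniteDimensional ℝ E] H X in
theorem edgeG (q : Q) (hd : dim q = 1) : EdgeG (K q) (c q) := by
  by_cases hR : q ∈ R
  · exact GR.edge q hR hd
  · obtain ⟨o, -, h⟩ := G.edge q hR hd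
    exact h.edgeG (L.inj q hR hd)

/-- **(R4.3) for all 2-cells** -/
theorem chords (q : Q) (hd : dim q = 2) : Chords (K q) (bdS K q) (c q) := by
  by_cases hR : q ∈ R
  · exact GR.face q hR hd
  · exact chords_face H X hd (fun e _ he => edgeG G GR L e he) (G.cone q hR hd.ge)
      (L.ends q hR hd)

/-- the curve of a piece on the boundary of a 3-cell is a circle -/
theorem circle (q : Q) (hd : dim q = 3) (x : C.I q) :
    Nonempty (PLEquiv (S1 ℝ) (Gam (bdS K q) (c q) x)) := by
  by_cases hR : q ∈ R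
  · exact circle_of_disc (GR.cell q hR hd x)
  · exact circle_of_loop H X hd (fun e _ he => edgeG G GR L e he)
      (fun F _ hF y => (chords H X G GR L F hF).ball y) (L.loop q hR hd x)

/-- **(R4.1) for all 3-cells** -/
theorem disc (q : Q) (hd : dim q = 3) (x : C.I q) :
    IsBall 2 (Zer (K q) (c q) x) (Gam (bdS K q) (c q) x) := by
  by_cases hR : q ∈ R
  · exact GR.cell q hR hd x
  · exact zer_disc H X hd (G.cone q hR (by omega)) (circle H X G GR L q hd x)

/-- **334's input** -/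
theorem bls (j : J) : Bls C K c j := by
  intro q hq x hx
  have h1 : Zr c K q x = Zer (K q) (c q) x := rfl
  have h2 : Zr c K q x ∩ bdS K q = Gam (bdS K q) (c q) x := by
    ext z
    exact ⟨fun h => ⟨h.2, h.1.2⟩, fun h => ⟨⟨bdS_sub X h.1, h.2⟩, h.1⟩⟩
  rw [h2, h1]
  have hle := L.dim_le q
  have h3 : dim q = 1 ∨ dim q = 2 ∨ dim q = 3 := by omega
  rcases h3 with h3 | h3 | h3
  · have hE := edgeG G GR L q h3
    obtain ⟨z, hz⟩ := hE.pt x
    have h4 : Gam (bdS K q) (c q) x = ∅ := by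
      refine eq_empty_iff_forall_notMem.2 fun y hy => ?_
      obtain ⟨m, hm, -, hdm, -⟩ := min_bd H X hy
      have := X.mono _ _ hm
      omega
    rw [h4, hz]
    have h5 : dim q - 1 = 0 := by omega
    rw [h5]
    exact isBall_point z
  · have h5 : dim q - 1 = 1 := by omega
    rw [h5]
    exact (chords H X G GR L q h3).ball x
  · have h5 : dim q - 1 = 2 := by omega
    rw [h5]
    exact disc H X G GR L q h3 x

end all

end Crest.Agent.R096.Arc_778
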