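import Crest.Agent.R096.Arc7_778

/-!
# R096 (row 96), (R4) CELL GEOMETRY, part 8: (R4.2) two sheet pieces of a 3-cell meet in disjoint
arcs (helper778)

* `Pairs K S c x y nx Ar` : `Zer x ∩ Zer y` = disjoint arcs `Ar z` from `z` to `nx z`.
* `TileG K S c rk` : the whole geometry of a 3-cell; `rk` = depth number (smaller = deeper).
* `tileG` : for every 3-cell filled by the cone rule.
-/

set_option autoImplicit false
set_option linter.unusedSectionVars false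

open Set Metric

namespace Crest.Agent.R096.Arc_778

open Crest.Agent.R096.Ce_537 Crest.Agent.R096.Bd_416 Crest.Agent.R096.Cb_609 Crest.Agent.R096.Pl

open scoped Classical

section abs

variable {E : Type*} [NormedAddCommGroup E] [NormedSpace ℝ E] {I : Type*}

/-- **(R4.2)**: the arcs in which the pieces `x`, `y` of a 3-cell meet -/
structure Pairs (K S : Set E) (c : I → E → ℝ) (x y : I) (nx : E → E) (Ar : E → Set E) : Prop where
  mem : ∀ z ∈ Gam S c x ∩ Gam S c y, nx z ∈ Gam S c x ∩ Gam S c y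
  ne : ∀ z ∈ Gam S c x ∩ Gam S c y, nx z ≠ z
  inv : ∀ z ∈ Gam S c x ∩ Gam S c y, nx (nx z) = z
  sym : ∀ z ∈ Gam S c x ∩ Gam S c y, Ar (nx z) = Ar z
  ball : ∀ z ∈ Gam S c x ∩ Gam S c y, IsBall 1 (Ar z) {z, nx z}
  bd : ∀ z ∈ Gam S c x ∩ Gam S c y, Ar z ∩ S = {z, nx z}
  disj : ∀ z ∈ Gam S c x ∩ Gam S c y, ∀ z' ∈ Gam S c x ∩ Gam S c y, z' ≠ z → z' ≠ nx z →
    Disjoint (Ar z) (Ar z')
  eq : Zer K c x ∩ Zer K c y = ⋃ z ∈ Gam S c x ∩ Gam S c y, Ar z

lemma Pairs.symm {K S : Set E} {c : I → E → ℝ} {x y : I} {nx : E → E} {Ar : E → Set E}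
    (h : Pairs K S c x y nx Ar) : Pairs K S c y x nx Ar := by
  obtain ⟨h1, h2, h3, h4, h5, h6, h7, h8⟩ := h
  rw [inter_comm] at h1 h2 h3 h4 h5 h6 h7
  refine ⟨h1, h2, h3, h4, h5, h6, h7, ?_⟩
  rw [inter_comm (Zer K c y), h8, inter_comm (Gam S c x)]

/-- **the arcs in the abstract**: `y` is the deeper piece -/
theorem exists_pairs [FiniteDimensional ℝ E] {n : ℕ} {K S : Set E} {e : PLEquiv (cube n) K}
    (he : e.f '' sph n = S) {c : I → E → ℝ} {ρ : I → ℝ} (H : ConeCell e c ρ) {x y : I}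
    (hxy : ρ y < ρ x) (hc : ContinuousOn (c x) S)
    (hΓ : Nonempty (PLEquiv (S1 ℝ) (Gam S c y))) (hneg : ∃ ω ∈ Gam S c y, c x ω < 0)
    (hN : ∀ ω ∈ Gam S c y, c x ω = 0 → ω ∈ closure {ω' | ω' ∈ Gam S c y ∧ c x ω' < 0})
    (hP : ∀ ω ∈ Gam S c y, c x ω = 0 → ∃ T ⊆ {ω' | ω' ∈ Gam S c y ∧ 0 ≤ c x ω'},
      IsPreconnected T ∧ ω ∈ T ∧ T.Nontrivial) :
    ∃ nx Ar, Pairs K S c x y nx Ar ∧ ∀ z ∈ Gam S c x ∩ Gam S c y,
      ∀ A ⊆ {ω | ω ∈ Gam S c y ∧ 0 ≤ c x ω}, IsPreconnected A → z ∈ A → ∀ z' ∈ A,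
        z' ∈ Gam S c x → z' = z ∨ z' = nx z := by
  set D : Set E := Gam S c x ∩ Gam S c y with hD
  have hcΓ : ContinuousOn (c x) (Gam S c y) := hc.mono fun ω h => h.1
  have hΓS : Gam S c y ⊆ S := fun ω h => h.1
  -- the component at a crossing
  have key : ∀ z ∈ D, ∃ (B : Set E) (z' : E), IsBall 1 B {z, z'} ∧ B ⊆ Gam S c y ∧ c x z' = 0 ∧
      (∀ ω ∈ B, ω ≠ z → ω ≠ z' → 0 < c x ω) ∧
      ∀ A ⊆ {ω' | ω' ∈ Gam S c y ∧ 0 ≤ c x ω'}, IsPreconnected A → z ∈ A → A ⊆ B := by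
    rintro z ⟨hzx, hzy⟩
    obtain ⟨B, u, u', h1, h2, h3, h4, h5, h6, h7⟩ := circ_comp hΓ hcΓ hneg hN hP hzy hzx.2.ge
    by_cases hu : z = u
    · subst hu; exact ⟨B, u', h1, h2, h5, h6, h7⟩
    · by_cases hu' : z = u'
      · subst hu'
        exact ⟨B, u, by rw [pair_comm]; exact h1, h2, h4, fun ω hω a b => h6 ω hω b a, h7⟩
      · exact absurd hzx.2 (h6 z h3 hu hu').ne'
  choose! A nx hb hsub h0 hpos hmax using key
  have hzA : ∀ z ∈ D, z ∈ A z := fun z hz => (hb z hz).subset (by simp)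
  have hnA : ∀ z ∈ D, nx z ∈ A z := fun z hz => (hb z hz).subset (by simp)
  have hne : ∀ z ∈ D, nx z ≠ z := fun z hz => (arc_ne (hb z hz)).symm
  have hmem : ∀ z ∈ D, nx z ∈ D := fun z hz =>
    ⟨⟨hΓS (hsub z hz (hnA z hz)), h0 z hz⟩, hsub z hz (hnA z hz)⟩
  have hA0 : ∀ z ∈ D, A z ⊆ {ω' | ω' ∈ Gam S c y ∧ 0 ≤ c x ω'} := by
    intro z hz ω hω
    refine ⟨hsub z hz hω, ?_⟩
    by_cases h1 : ω = z
    · rw [h1]; exact hz.1.2.ge
    · by_cases h2 : ω = nx z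
      · rw [h2]; exact (h0 z hz).ge
      · exact (hpos z hz ω hω h1 h2).le
  have hzero : ∀ z ∈ D, ∀ ω ∈ A z, c x ω = 0 → ω = z ∨ ω = nx z := by
    intro z hz ω hω h1
    by_contra hcon
    rw [not_or] at hcon
    exact (hpos z hz ω hω hcon.1 hcon.2).ne' h1
  have hsame : ∀ z ∈ D, ∀ z' ∈ D, z' ∈ A z → A z' = A z := by
    intro z hz z' hz' h1
    have h2 : A z ⊆ A z' := hmax z' hz' _ (hA0 z hz) (hb z hz).isPreconnected h1
    refine Subset.antisymm ?_ h2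
    exact hmax z hz _ (hA0 z' hz') (hb z' hz').isPreconnected (h2 (hzA z hz))
  have hinv : ∀ z ∈ D, nx (nx z) = z := by
    intro z hz
    have h1 := hmem z hz
    have h2 := hsame z hz (nx z) h1 (hnA z hz)
    have h3 : nx (nx z) ∈ A z := by rw [← h2]; exact hnA _ h1
    rcases hzero z hz _ h3 (h0 _ h1) with h4 | h4
    · exact h4
    · exact absurd h4 (hne _ h1)
  have hdis : ∀ z ∈ D, ∀ z' ∈ D, z' ≠ z → z' ≠ nx z → Disjoint (A z) (A z') := by
    intro z hz z' hz' h1 h2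
    refine Set.disjoint_left.2 fun w hw hw' => ?_
    have h3 : IsPreconnected (A z ∪ A z') :=
      (hb z hz).isPreconnected.union w hw hw' (hb z' hz').isPreconnected
    have h4 := hmax z hz _ (union_subset (hA0 z hz) (hA0 z' hz')) h3 (Or.inl (hzA z hz))
    rcases hzero z hz z' (h4 (Or.inr (hzA z' hz'))) hz'.1.2 with h5 | h5
    · exact h1 h5
    · exact h2 h5
  have hl := H.lo x
  have hh := H.hi x
  have hAS : ∀ z ∈ D, A z ⊆ S := fun z hz => (hsub z hz).trans hΓS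
  have hQ : ∀ z ∈ D, ({z, nx z} : Set E) ⊆ A z := fun z hz => (hb z hz).subset
  refine ⟨nx, fun z => Lidd e he (ρ x) (A z) {z, nx z}, ⟨hmem, hne, hinv, ?_, ?_, ?_, ?_, ?_⟩, ?_⟩
  · intro z hz
    show Lidd e he (ρ x) (A (nx z)) {nx z, nx (nx z)} = Lidd e he (ρ x) (A z) {z, nx z}
    rw [hsame z hz _ (hmem z hz) (hnA z hz), hinv z hz, pair_comm]
  · intro z hz
    exact isBall_lidd (he := he) (hb z hz) (hAS z hz) hl hh
  · intro z hz
    exact lidd_inter_bd (hAS z hz) ((hQ z hz).trans (hAS z hz)) hl hh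
  · intro z hz z' hz' h1 h2
    exact lidd_disjoint (hAS z hz) (hQ z hz) (hAS z' hz') (hQ z' hz') hl hh
      (hdis z hz z' hz' h1 h2)
  · have e1 : Dlt S c x ∩ Gam S c y = ⋃ z : D, A z := by
      ext ω
      constructor
      · rintro ⟨h1, h2⟩
        obtain ⟨B, u, u', h3, h4, h5, h6, h7, h8, h9⟩ := circ_comp hΓ hcΓ hneg hN hP h2 h1.2
        have huB : u ∈ B := h3.subset (by simp)
        have huD : u ∈ D := ⟨⟨hΓS (h4 huB), h6⟩, h4 huB⟩
        refine mem_iUnion.2 ⟨⟨u, huD⟩, ?_⟩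
        refine hmax u huD B (fun w hw => ⟨h4 hw, ?_⟩) h3.isPreconnected huB h5
        by_cases a1 : w = u
        · rw [a1]; exact h6.ge
        · by_cases a2 : w = u'
          · rw [a2]; exact h7.ge
          · exact (h8 w hw a1 a2).le
      · intro h1
        obtain ⟨z, hz⟩ := mem_iUnion.1 h1
        have h2 := hA0 z.1 z.2 hz
        exact ⟨⟨h2.1.1, h2.2⟩, h2.1⟩
    have e2 : Gam S c x ∩ Gam S c y = ⋃ z : D, ({z.1, nx z.1} : Set E) := by
      ext ω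
      constructor
      · intro h1
        exact mem_iUnion.2 ⟨⟨ω, h1⟩, by simp⟩
      · intro h1
        obtain ⟨z, hz⟩ := mem_iUnion.1 h1
        rcases hz with h2 | h2
        · rw [h2]; exact z.2
        · rw [mem_singleton_iff.1 h2]; exact hmem z.1 z.2
    rw [H.inter_iUnion (he := he) hxy e1 e2, ← hD, biUnion_eq_iUnion]
  · intro z hz B hB hBp hzB z' hz' hz'0
    exact hzero z hz z' (hmax z hz B hB hBp hzB hz') hz'0.2

/-- **the geometry of a 3-cell** : `rk` = depth number, smaller = deeper -/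
structure TileG (K S : Set E) (c : I → E → ℝ) (rk : I → ℕ) : Prop where
  inj : Function.Injective rk
  inc : ∀ x x', Inc S c x x' → rk x' < rk x
  disc : ∀ x, IsBall 2 (Zer K c x) (Gam S c x)
  pair : ∀ x y, rk y < rk x → ∃ nx Ar, Pairs K S c x y nx Ar ∧
    ∀ z ∈ Gam S c x ∩ Gam S c y, ∀ A ⊆ {ω | ω ∈ Gam S c y ∧ 0 ≤ c x ω}, IsPreconnected A →
      z ∈ A → ∀ z' ∈ A, z' ∈ Gam S c x → z' = z ∨ z' = nx z

/-- numbers in the order of real numbers -/
lemma exists_num {I : Type*} [Fintype I] (ρ : I → ℝ) :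
    ∃ rk : I → ℕ, Function.Injective rk ∧ ∀ x y, ρ x < ρ y → rk x < rk y := by
  obtain ⟨rk, h1, h2⟩ := exists_rank_of (fun x y : I => ρ y < ρ x)
    (fun x y z h h' => lt_trans h' h) (fun x h => lt_irrefl _ h)
  exact ⟨rk, h1, fun x y h => h2 y x h⟩

end abs

variable {Q : Type} [PartialOrder Q] {dim : Q → ℕ} {J Fam : Type}
variable {E : Type*} [NormedAddCommGroup E] [NormedSpace ℝ E] [FiniteDimensional ℝ E]
variable {C : Cmb Q dim J Fam} {K : Q → Set E} {g : Gd E J}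
  {P : ∀ q, C.I q → Set E} {c : ∀ q, C.I q → E → ℝ} {Ω : Set E}

section tile

variable (H : Inv C K univ g P c) (X : Cplx Ω Q dim K) {q : Q}

include H X in
/-- **(R4.2) for a 3-cell filled by the cone rule** -/
theorem exists_tileG (hd : dim q = 3) (hq : FCell (K q) (bdS K q) (c q))
    (hG : ∀ x, Nonempty (PLEquiv (S1 ℝ) (Gam (bdS K q) (c q) x))) :
    ∃ rk : C.I q → ℕ, TileG (K q) (bdS K q) (c q) rk := by
  obtain ⟨n, e, he, ρ, h1, h2, h3⟩ := hq
  obtain ⟨rk, hr1, hr2⟩ := exists_num ρ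
  refine ⟨rk, hr1, fun x x' h => hr2 _ _ (h3 x x' h), fun x =>
    h1.ball (he := he) (dlt_disc H X hd (hG x)), fun x y hxy => ?_⟩
  have hne : x ≠ y := by rintro rfl; exact lt_irrefl _ hxy
  by_cases hi : Gam (bdS K q) (c q) x ∩ Gam (bdS K q) (c q) y = ∅
  · have h4 := zer_empty H X hd ⟨n, e, he, ρ, h1, h2, h3⟩ hne (hG x) (hG y) hi
    refine ⟨id, fun _ => ∅, ⟨?_, ?_, ?_, ?_, ?_, ?_, ?_, ?_⟩, ?_⟩ <;> try rw [hi]
    · exact fun z hz => hz
    · exact fun z hz => hz.elim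
    · exact fun z hz => hz.elim
    · exact fun z hz => hz.elim
    · exact fun z hz => hz.elim
    · exact fun z hz => hz.elim
    · exact fun z hz => hz.elim
    · rw [h4]; simp
    · exact fun z hz => hz.elim
  · obtain ⟨z, hz⟩ := nonempty_iff_ne_empty.2 hi
    have hρ : ρ y < ρ x := by
      rcases lt_or_gt_of_ne (h2 x y hne ⟨z, hz.1.1, hz.1.2.ge, hz.2.2.ge⟩) with h | h
      · exact absurd (hr2 _ _ h) (not_lt.2 hxy.le)
      · exact h
    have hneg : ∃ ω ∈ Gam (bdS K q) (c q) y, c q x ω < 0 := by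
      have h5 := bd_closure H X hne hz.1 hz.2
      obtain ⟨ω, hω⟩ := closure_nonempty_iff.1 ⟨z, h5⟩
      exact ⟨ω, hω.1, hω.2⟩
    exact exists_pairs he h1 hρ (bd_cont H X x) (hG y) hneg
      (fun ω hω h => bd_closure H X hne ⟨hω.1, h⟩ hω)
      (fun ω hω h => bd_run H X hne ⟨hω.1, h⟩ hω)

variable {R : Set Q} {k : ∀ q, C.I q → ℕ}
  (G : Geo C K c R k) (GR : GeoR C K c R) (L : CmbG C R k)

include H X G GR L in
/-- **(R4.2) for all 3-cells outside `R`** -/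
theorem tileG (q : Q) (hd : dim q = 3) (hR : q ∉ R) :
    ∃ rk : C.I q → ℕ, TileG (K q) (bdS K q) (c q) rk :=
  exists_tileG H X hd (G.cone q hR (by omega)) fun x => circle H X G GR L q hd x

end tile

section side

variable (H : Inv C K univ g P c) (X : Cplx Ω Q dim K) {q : Q}

include H X in
/-- depth numbers respect 416's `side` (117's `Ord`) -/
theorem rk_of_side (hd : 2 ≤ dim q) {rk : C.I q → ℕ}
    (hinc : ∀ x x', Inc (bdS K q) (c q) x x' → rk x' < rk x)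
    {x x' : C.I q} (hne : x ≠ x') (hf : C.fam (C.col q x) = C.fam (C.col q x'))
    (hx : (Gam (bdS K q) (c q) x).Nonempty) (hs : C.side q x x' = 1) : rk x' < rk x := by
  have h01 : (0 : ZMod 2) ≠ 1 := by decide
  obtain ⟨z, hz, hz0⟩ := hx
  have hcb : ∀ (x : C.I q) (ω : E), ω ∈ bdS K q → cbd C K c q x ω = c q x ω := fun x ω hω =>
    (c_eq_cbd H X x hω).symm
  rcases bd_laminar H X (τ := q) (fun _ _ => mem_univ _) hd hne hf with h | h | h | h
  · rw [h.1] at hs; exact absurd hs h01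
  · refine hinc x x' ⟨hne, ⟨z, hz, hz0.ge⟩, fun ω hω h0 => ?_⟩
    have h1 := h.2.2 ω hω (by rw [hcb x ω hω]; linarith)
    rw [hcb x' ω hω] at h1
    rw [h1]; norm_num
  · rw [h.1] at hs; exact absurd hs h01
  · have h1 := (h.2.2 z hz).1
    rw [hcb x z hz, hz0] at h1
    norm_num at h1

end side

end Crest.Agent.R096.Arc_778
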