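import Crest.Agent.R096.Arc8_778
import Crest.Agent.R096.Bd19_416

/-!
# R096 (row 96), (R4) CELL GEOMETRY, part 9: the sign data `Geo` from 416's recursion (helper778)

* `RlG` : the relation for 416's `mesh_cone` (`Rl`), `rlG_rank` (its `hRl`), `rlG_ins` (its `hRI`).
* `SpecG` : the predicate for 416's `Spec`; `specG0`, `specG1`, `specG2` (its `hS0`, `hS1`, `hS2`).
* `Geo.of_trk` : `Geo` for the final structure.
-/

set_option autoImplicit false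
set_option linter.unusedSectionVars false

open Set Metric

namespace Crest.Agent.R096.Arc_778

open Crest.Agent.R096.Ce_537 Crest.Agent.R096.Bd_416 Crest.Agent.R096.Cb_609 Crest.Agent.R096.Pl

open scoped Classical

variable {Q : Type} [PartialOrder Q] {dim : Q → ℕ} {J Fam : Type}
variable {E : Type*} [NormedAddCommGroup E] [NormedSpace ℝ E]
variable {C : Cmb Q dim J Fam} {K : Q → Set E} {D : Set Q} {g : Gd E J}
  {P : ∀ q, C.I q → Set E} {c : ∀ q, C.I q → E → ℝ} {Ω : Set E} {b : ℝ}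

/-- the relation which forces `ρ x' < ρ x` (requirement (N)) -/
def RlG (C : Cmb Q dim J Fam) (K : Q → Set E) (c : ∀ q, C.I q → E → ℝ) (τ : Q)
    (x x' : C.I τ) : Prop :=
  Ins C K c τ x x' ∨ Inc (bdS K τ) (cbd C K c τ) x x'

/-- 416's `hRI` -/
theorem rlG_ins (c : ∀ q, C.I q → E → ℝ) (τ : Q) (x x' : C.I τ) (h : Ins C K c τ x x') :
    RlG C K c τ x x' := Or.inl h

/-- 416's `hRl` -/
theorem rlG_rank (X : Cplx Ω Q dim K) (D : Set Q) (g : Gd E J) (P : ∀ q, C.I q → Set E)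
    (c : ∀ q, C.I q → E → ℝ) (H : Inv C K D g P c) (τ : Q) (hd : 2 ≤ dim τ)
    (hτ : ∀ σ < τ, σ ∈ D) :
    ∃ kk : C.I τ → ℕ, Function.Injective kk ∧ ∀ x x', RlG C K c τ x x' → kk x' < kk x := by
  obtain ⟨k, h1, h2, h3⟩ := exists_rank_all H X hτ hd
  exact ⟨k, h1, fun x x' h => h.elim (h2 x x') (h3 x x')⟩

/-- the predicate for 416's `Spec` -/
def SpecG (C : Cmb Q dim J Fam) (K : Q → Set E) (k : ∀ q, C.I q → ℕ) (q : Q)
    (M : Lam (K q) (C.I q)) : Prop :=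
  (dim q = 1 → ∃ o ∈ K (C.o q), ECell (K q) (bdS K q) o (k q) M.c) ∧
  (2 ≤ dim q → FCell (K q) (bdS K q) M.c)

/-- 416's `hS0` -/
theorem specG0 {k : ∀ q, C.I q → ℕ} {τ : Q} (hd : dim τ = 0) (M : Lam (K τ) (C.I τ)) :
    SpecG C K k τ M := ⟨fun h => by omega, fun h => by omega⟩

/-- 416's `hS1` -/
theorem specG1 (X : Cplx Ω Q dim K) {k : ∀ q, C.I q → ℕ} {τ : Q} (hd : dim τ = 1)
    (e : PLEquiv (cube 1) (K τ)) (he : e.f '' sph 1 = bdS K τ)
    (hb : e.f (fun _ => -1) ∈ K (C.o τ)) {p w : C.I τ → ℝ} (hE : Ed w p)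
    (hord : ∀ i j, k τ j < k τ i → p j < p i) :
    SpecG C K k τ ((edgeLam hE).pull e.symm (X.isClosed τ)) := by
  refine ⟨fun _ => ⟨_, hb, e, p, he, rfl, fun x => ?_, fun x x' h => hord x' x h,
    fun x z hz => ?_⟩, fun h => by omega⟩
  · have h1 := hE.lo x
    have h2 := hE.hi x
    have h3 := hE.w0 x
    constructor <;> linarith
  · show SignType.sign (ramp (w x) (p x) (e.g z 0)) = _
    exact sign_ramp (hE.w0 x)

/-- 416's `hS2` -/
theorem specG2 (H : Inv C K D g P c) (X : Cplx Ω Q dim K) {k : ∀ q, C.I q → ℕ} {τ : Q}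
    (hd : 2 ≤ dim τ) (hτ : ∀ σ < τ, σ ∈ D) {κ : ℝ} {h ρ : C.I τ → ℝ}
    (Dp : Dep (bdLam H X τ hτ) κ b h ρ) (hρ : ∀ x x', RlG C K c τ x x' → ρ x' < ρ x)
    {n : ℕ} (e : PLEquiv (cube n) (K τ)) (he : e.f '' sph n = bdS K τ) :
    SpecG C K k τ (Dp.fillBall e he) :=
  ⟨fun h => by omega, fun _ => FCell.of_fill e he Dp fun x x' h => hρ x x' (Or.inr h)⟩

/-- squeezing keeps the signs -/
theorem SpecG.sqd {k : ∀ q, C.I q → ℕ} {q : Q} {M : Lam (K q) (C.I q)} (h : SpecG C K k q M)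
    {β : ℝ} {P : C.I q → Set E} {c : C.I q → E → ℝ} (hS : Sqd C K q β M g P c) :
    (dim q = 1 → ∃ o ∈ K (C.o q), ECell (K q) (bdS K q) o (k q) c) ∧
    (2 ≤ dim q → FCell (K q) (bdS K q) c) := by
  have hs : ∀ i, ∀ z ∈ K q, SignType.sign (c i z) = SignType.sign (M.c i z) := by
    intro i z hz
    rw [hS.mc i z hz]
    have h1 := sign_cl (b := β / 2) (by have := hS.β0; linarith) (M.c i z)
    rwa [show 2 * (β / 2) = β by ring] at h1
  refine ⟨fun hd => ?_, fun hd => (h.2 hd).congr hs⟩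
  obtain ⟨o, ho, hE⟩ := h.1 hd
  exact ⟨o, ho, hE.congr hs⟩

/-- **`Geo` from 416's tracked data** -/
theorem Geo.of_trk {Y : Type*} [PseudoMetricSpace Y] {R : Set Q} {g0 : Gd E J}
    {P0 : ∀ q, C.I q → Set E} {c0 : ∀ q, C.I q → E → ℝ} {bb : ℕ → ℝ} {k : ∀ q, C.I q → ℕ}
    {Spec : ∀ q, Lam (K q) (C.I q) → Prop} {Fr : Q → Set (E → Y)} {wt : J → ℝ}
    {Λ : ℕ → Q → (E → Y) → ℝ} {n : ℕ} (hSp : ∀ q M, Spec q M → SpecG C K k q M)
    (hT : ∀ q, q ∉ R → Trk C K R g0 P0 c0 bb Spec Fr wt Λ n q g (P q) (c q)) :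
    Geo C K c R k where
  edge q hq hd := by
    obtain ⟨β, M, -, h1, h2⟩ := (hT q hq).new hq
    exact ((hSp q M h1).sqd h2).1 hd
  cone q hq hd := by
    obtain ⟨β, M, -, h1, h2⟩ := (hT q hq).new hq
    exact ((hSp q M h1).sqd h2).2 hd

end Crest.Agent.R096.Arc_778
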