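import Crest.Agent.R096.Ar9_241

/-!
# R096 (row 96), ARR2 part 1 (helper241): the complex of the proper faces of a top cell

`below C c` = the `CC` of the cells `< c`; `sphere_below` = the boundary of the fibre over `b q`
of a transport structure over `below C c` is a PL sphere of dimension `cod q - 2`
(`PLEquiv (sph (cod C q - 1)) S`).
-/

set_option autoImplicit false
set_option linter.unusedSectionVars false
set_option linter.unusedVariables false
set_option linter.deprecated false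

open Set Metric Topology Module
open scoped Classical

namespace Crest.Agent.R096.As_241

open Crest.Agent.R096.Xp_537
open Crest.Agent.R096.Ce_537 (PLOn PLEquiv cube sph IsBall Cplx Opn)
open Crest.Agent.R096.Ar_241
open Crest.Agent.R096.Dl_609 (KK KK_congr isBall_KK)

variable {E : Type*} [NormedAddCommGroup E] [NormedSpace ℝ E]
  {Q : Type*} [PartialOrder Q] {Λ : Set E}

/-- the union of the proper faces of `c` -/
def bdc (C : CC Λ Q) (c : Q) : Set E := ⋃ q : {q : Q // q < c}, C.cell q.1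

/-- **the complex of the proper faces of `c`** -/
def below (C : CC Λ Q) (c : Q) : CC (bdc C c) {q : Q // q < c} where
  cell q := C.cell q.1
  b q := C.b q.1
  dim q := C.dim q.1
  conv q := C.conv q.1
  cpt q := C.cpt q.1
  bmem q := C.bmem q.1
  mono h := C.mono h
  dim_lt h := C.dim_lt h
  b_notMem h := C.b_notMem h
  rad q y hy := by
    rcases C.rad q.1 y hy with h | ⟨p, hp, y', hy', w, hw, e⟩
    · exact Or.inl h
    · exact Or.inr ⟨⟨p, hp.trans q.2⟩, hp, y', hy', w, hw, e⟩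
  rad_uniq h1 h2 h3 h4 h5 h6 h7 := C.rad_uniq h1 h2 h3 h4 h5 h6 h7
  disj {p q y} h1 h2 h3 h4 := Subtype.ext (C.disj h1 (fun r hr => h2 ⟨r, hr.trans p.2⟩ hr) h3
    (fun r hr => h4 ⟨r, hr.trans q.2⟩ hr))
  sub q := subset_iUnion (fun q : {q : Q // q < c} => C.cell q.1) q
  cover y hy := mem_iUnion.1 hy
  lf y hy := by
    obtain ⟨q, hq⟩ := mem_iUnion.1 hy
    obtain ⟨r, hr, hf⟩ := C.lf y (C.sub q.1 hq)
    exact ⟨r, hr, Set.Finite.preimage (f := (Subtype.val : {q : Q // q < c} → Q))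
      (s := {q | (C.cell q ∩ Metric.ball y r).Nonempty}) (Subtype.val_injective.injOn) hf⟩

@[simp] lemma below_cell (C : CC Λ Q) (c : Q) (q : {q : Q // q < c}) :
    (below C c).cell q = C.cell q.1 := rfl

@[simp] lemma below_b (C : CC Λ Q) (c : Q) (q : {q : Q // q < c}) :
    (below C c).b q = C.b q.1 := rfl

/-- barycentric combinations and their smallest element -/
lemma KK_min {C : CC Λ Q} {q c : Q} {x : E} (hx : x ∈ KK C fun ρ => q ≤ ρ ∧ ρ < c) :
    ∃ l, Wt l ∧ bs C.b l = x ∧ ∃ m ∈ l.support, (∀ ρ ∈ l.support, m ≤ ρ ∧ ρ < c) ∧ q ≤ m := by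
  obtain ⟨l, hl, hs, he⟩ := hx
  obtain ⟨m, hm, hmin⟩ := hl.exists_min
  exact ⟨l, hl, he, m, hm, fun ρ hρ => ⟨hmin ρ hρ, (hs ρ hρ).2⟩, (hs m hm).1⟩

lemma KK_bdry (C : CC Λ Q) (q c : Q) : KK C (fun ρ => q < ρ ∧ ρ < c) =
    ⋃ r ∈ {r | q < r ∧ r < c}, KK C (fun ρ => r ≤ ρ ∧ ρ < c) := by
  ext x
  simp only [mem_iUnion, mem_setOf_eq, exists_prop]
  constructor
  · rintro ⟨l, hl, hs, he⟩
    obtain ⟨m, hm, hmin⟩ := hl.exists_min
    exact ⟨m, hs m hm, l, hl, fun ρ hρ => ⟨hmin ρ hρ, (hs ρ hρ).2⟩, he⟩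
  · rintro ⟨r, hr, l, hl, hs, he⟩
    exact ⟨l, hl, fun ρ hρ => ⟨hr.1.trans_le (hs ρ hρ).1, (hs ρ hρ).2⟩, he⟩

/-- the smallest element of an interior point -/
lemma KK_opn {C : CC Λ Q} {r c : Q} {x : E} (hx : x ∈ KK C fun ρ => r ≤ ρ ∧ ρ < c)
    (h : ∀ r', r < r' → r' < c → x ∉ KK C fun ρ => r' ≤ ρ ∧ ρ < c) :
    ∃ l, Wt l ∧ bs C.b l = x ∧ r ∈ l.support ∧ ∀ ρ ∈ l.support, r ≤ ρ := by
  obtain ⟨l, hl, he, m, hm, hs, hrm⟩ := KK_min hx
  have : r = m := by
    by_contra hne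
    exact h m (lt_of_le_of_ne hrm hne) (hs m hm).2 ⟨l, hl, hs, he⟩
  subst this
  exact ⟨l, hl, he, hm, fun ρ hρ => (hs ρ hρ).1⟩

section sphere

variable [FiniteDimensional ℝ E] {E' : Type*} [NormedAddCommGroup E'] [NormedSpace ℝ E']

lemma cod_pos (C : CC Λ Q) (hΛ : IsOpen Λ) {q c : Q} (h : q < c) :
    cod C q = (cod C q - 1) + 1 := by
  have := cod_lt C hΛ h
  omega

/-- the model complex -/
theorem cplx_KK (C : CC Λ Q) (hΛ : IsOpen Λ) {c : Q} (hc : ∀ ρ, c ≤ ρ → ρ = c)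
    (q : {q : Q // q < c}) :
    Cplx (KK C fun ρ => q.1 < ρ ∧ ρ < c) (Up q)ᵒᵈ
      (fun r => cod C (OrderDual.ofDual r).1.1 - 1)
      (fun r => KK C fun ρ => (OrderDual.ofDual r).1.1 ≤ ρ ∧ ρ < c) where
  isBall r := by
    have h := isBall_KK C hΛ (OrderDual.ofDual r).1.2 hc (cod_pos C hΛ (OrderDual.ofDual r).1.2)
    rw [KK_bdry] at h
    convert h using 1
    ext x
    simp only [mem_iUnion, exists_prop]
    constructor
    · rintro ⟨j, hj, hx⟩
      exact ⟨(OrderDual.ofDual j).1.1, ⟨hj, (OrderDual.ofDual j).1.2⟩, hx⟩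
    · rintro ⟨j, hj, hx⟩
      exact ⟨OrderDual.toDual ⟨⟨j, hj.2⟩, (OrderDual.ofDual r).2.trans
        (show (OrderDual.ofDual r).1 < (⟨j, hj.2⟩ : {q : Q // q < c}) from hj.1)⟩, hj.1, hx⟩
  mono i j hij := by
    have h1 := cod_lt C hΛ (show (OrderDual.ofDual i).1.1 < (OrderDual.ofDual j).1.1 from hij)
    have h2 := cod_pos C hΛ (OrderDual.ofDual i).1.2
    have h3 := cod_pos C hΛ (OrderDual.ofDual j).1.2
    omega
  disj i j x hi hj := by
    obtain ⟨l, h1, h2, h3, h4⟩ := KK_opn hi.1 fun r' hr' hc' hx =>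
      hi.2 (OrderDual.toDual ⟨⟨r', hc'⟩, (OrderDual.ofDual i).2.trans
        (show (OrderDual.ofDual i).1 < (⟨r', hc'⟩ : {q : Q // q < c}) from hr')⟩) hr' hx
    obtain ⟨l', h1', h2', h3', h4'⟩ := KK_opn hj.1 fun r' hr' hc' hx =>
      hj.2 (OrderDual.toDual ⟨⟨r', hc'⟩, (OrderDual.ofDual j).2.trans
        (show (OrderDual.ofDual j).1 < (⟨r', hc'⟩ : {q : Q // q < c}) from hr')⟩) hr' hx
    have he : l = l' := bs_inj C h1 h1' (h2.trans h2'.symm)
    subst he
    have h5 : (OrderDual.ofDual i).1.1 = (OrderDual.ofDual j).1.1 :=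
      le_antisymm (h4 _ h3') (h4' _ h3)
    apply OrderDual.ofDual.injective
    exact Subtype.ext (Subtype.ext h5)
  sub r := by
    rintro x ⟨l, hl, hs, he⟩
    exact ⟨l, hl, fun ρ hρ => ⟨(show q.1 < (OrderDual.ofDual r).1.1 from
      (OrderDual.ofDual r).2).trans_le (hs ρ hρ).1, (hs ρ hρ).2⟩, he⟩
  cover x hx := by
    rw [KK_bdry] at hx
    obtain ⟨r, hr, hx⟩ := mem_iUnion₂.1 hx
    exact ⟨OrderDual.toDual ⟨⟨r, hr.2⟩, hr.1⟩, hx⟩
  lf x _ := by
    have : Finite (Up q) := by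
      have h1 : ({r : Q | q.1 < r}).Finite := finite_up C q.1
      have h2 : ({r : {q : Q // q < c} | q < r}).Finite :=
        Set.Finite.preimage (f := Subtype.val) (Subtype.val_injective.injOn) h1
      exact h2
    have : Finite (Up q)ᵒᵈ := this
    exact ⟨1, one_pos, Set.toFinite _⟩

lemma finite_up' (C : CC Λ Q) {c : Q} (q : {q : Q // q < c}) : Finite (Up q) := by
  have h1 : ({r : Q | q.1 < r}).Finite := finite_up C q.1
  have h2 : ({r : {q : Q // q < c} | q < r}).Finite :=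
    Set.Finite.preimage (f := Subtype.val) (Subtype.val_injective.injOn) h1
  exact h2

/-- **ARR-GEN for the proper faces of a top cell** -/
theorem bdry_below (C : CC Λ Q) (hΛ : IsOpen Λ) {c : Q} (hc : ∀ ρ, c ≤ ρ → ρ = c)
    (q : {q : Q // q < c}) {S : Set E'} {T : Up q → Set E'}
    (hball : ∀ r, IsBall (cod C r.1.1 - 1) (T r) (⋃ r' ∈ {r' | r < r'}, T r'))
    (hsub : ∀ r, T r ⊆ S) (htop : ∀ x ∈ S, ∃ t : Up q, ∀ r, x ∈ T r ↔ r ≤ t) :
    Nonempty (PLEquiv (sph (cod C q.1 - 1)) S) := by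
  have := finite_up' C q
  have hC : Cplx S (Up q)ᵒᵈ (fun r => cod C (OrderDual.ofDual r).1.1 - 1)
      (fun r => T (OrderDual.ofDual r)) :=
    { isBall := fun r => by
        have h := hball (OrderDual.ofDual r)
        convert h using 1
        ext x
        simp only [mem_iUnion, exists_prop]
        constructor
        · rintro ⟨j, hj, hx⟩; exact ⟨OrderDual.ofDual j, hj, hx⟩
        · rintro ⟨j, hj, hx⟩; exact ⟨OrderDual.toDual j, hj, hx⟩
      mono := (cplx_KK C hΛ hc q).mono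
      disj := fun i j x hi hj => by
        obtain ⟨t, ht⟩ := htop x (hsub _ hi.1)
        have key : ∀ i : (Up q)ᵒᵈ, Opn (fun r : (Up q)ᵒᵈ => T (OrderDual.ofDual r)) i x →
            OrderDual.ofDual i = t := by
          intro i hi
          have h1 := (ht _).1 hi.1
          by_contra hne
          have h2 : OrderDual.ofDual i < t := lt_of_le_of_ne h1 hne
          exact hi.2 (OrderDual.toDual t) h2 ((ht _).2 le_rfl)
        have h1 := key i hi
        have h2 := key j hj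
        exact OrderDual.ofDual.injective (h1.trans h2.symm)
      sub := fun r => hsub _
      cover := fun x hx => by
        obtain ⟨t, ht⟩ := htop x hx
        exact ⟨OrderDual.toDual t, (ht _).2 le_rfl⟩
      lf := fun x _ => ⟨1, one_pos, by
        have : Finite (Up q)ᵒᵈ := inferInstanceAs (Finite (Up q))
        exact Set.toFinite _⟩ }
  have : Finite (Up q)ᵒᵈ := inferInstanceAs (Finite (Up q))
  obtain ⟨e, -⟩ := Cplx.exists_equiv (cplx_KK C hΛ hc q) hC
  obtain ⟨a, ha⟩ := isBall_KK C hΛ q.2 hc (cod_pos C hΛ q.2)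
  have b : PLEquiv (sph (cod C q.1 - 1)) (a.f '' sph (cod C q.1 - 1)) :=
    a.restrImage sphere_subset_closedBall
  rw [ha] at b
  exact ⟨b.trans e⟩

/-- **the boundary of the fibre is a PL sphere** -/
theorem sphere_below {C : CC Λ Q} (hΛ : IsOpen Λ) {c : Q} (hc : ∀ ρ, c ≤ ρ → ρ = c) {S : Set E'}
    {G : E' → E} (X : Tr0 S (below C c) G) (q : {q : Q // q < c})
    (h : ∀ r : Up q, IsBall (cod C r.1.1 - 1) (X.F r.1) (X.S r.1)) :
    Nonempty (PLEquiv (sph (cod C q.1 - 1)) (X.S q)) := by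
  refine bdry_below C hΛ hc q (T := X.T q) (fun r => ?_) (fun r x hx => ?_) (fun x hx => ?_)
  · rw [← X.eT_bdry]
    exact (h r).map _
  · exact ⟨hx.1, hx.2.1, fun he => absurd r.2 (not_lt_of_ge (he ▸ hx.2.2))⟩
  · have h1 : q < X.top x := lt_of_le_of_ne (X.F_top (X.S_sub _ hx)) (Ne.symm hx.2.2)
    exact ⟨⟨X.top x, h1⟩, fun r => ⟨fun hr => hr.2.2, fun hr => ⟨hx.1, hx.2.1, hr⟩⟩⟩

end sphere

end Crest.Agent.R096.As_241
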