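import Crest.Agent.R096.As1_241

/-!
# R096 (row 96), ARR2 part 2 (helper241): sides

`exists_sides'` : two points on a PL circle, a PL circle on a PL 2-sphere;
`Tr0.side_ball`: the fibre over `b q` is a ball if it lies in a PL sphere `{G x ∈ L}`, one dimension
higher than its boundary sphere.
-/

set_option autoImplicit false
set_option linter.unusedSectionVars false
set_option linter.unusedVariables false
set_option linter.deprecated false

open Set Metric Topology Module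
open scoped Classical

namespace Crest.Agent.R096.As_241

open Crest.Agent.R096.Xp_537
open Crest.Agent.R096.Ce_537 (PLOn PLEquiv cube sph IsBall)
open Crest.Agent.R096.Ar_241

variable {E : Type*} [NormedAddCommGroup E] [NormedSpace ℝ E]
  {E' : Type*} [NormedAddCommGroup E'] [NormedSpace ℝ E']

/-- **sides**: `k = 1`: two points of a circle; `k = 2`: a circle on a 2-sphere -/
theorem exists_sides' {k : ℕ} (hk : k = 1 ∨ k = 2) {S' Γ : Set E'}
    (hS : Nonempty (PLEquiv (sph (k + 1)) S')) (hΓ : Nonempty (PLEquiv (sph k) Γ)) (hsub : Γ ⊆ S') :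
    ∃ A B, IsBall k A Γ ∧ IsBall k B Γ ∧ A ∪ B = S' ∧ A ∩ B = Γ := by
  obtain ⟨e⟩ := hS
  obtain ⟨c⟩ := hΓ
  set Γ0 : Set (Fin (k + 1) → ℝ) := e.g '' Γ with hΓ0
  have hΓ0S : Γ0 ⊆ sph (k + 1) := by
    rintro _ ⟨x, hx, rfl⟩
    exact e.mg (hsub hx)
  have hback : e.f '' Γ0 = Γ := by
    rw [hΓ0, image_image]
    ext x
    constructor
    · rintro ⟨y, hy, rfl⟩
      show e.f (e.g y) ∈ Γ
      rwa [e.ri y (hsub hy)]
    · intro hx; exact ⟨x, hx, e.ri x (hsub hx)⟩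
  have key : ∀ D, D ⊆ sph (k + 1) → IsBall k D Γ0 → IsBall k (e.f '' D) Γ := by
    intro D hD hb
    have h3 := hb.map (e.restrImage hD)
    have h4 : (e.restrImage hD).f '' Γ0 = Γ := hback
    rwa [h4] at h3
  have hAB : ∃ A B, IsBall k A Γ0 ∧ IsBall k B Γ0 ∧ A ∪ B = sph (k + 1) ∧ A ∩ B = Γ0 := by
    have eΓ : PLEquiv Γ Γ0 := e.symm.restrImage hsub
    rcases hk with rfl | rfl
    · -- two points
      have e1 := (c.trans eΓ)
      have hpt : Γ0 = {e1.f (fun _ => -1), e1.f (fun _ => 1)} :=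
        e1.image_eq.symm.trans ((congrArg (fun s => e1.f '' s) Cb_609.sph_one).trans
          (image_pair _ _ _))
      have hp1 : e1.f (fun _ => -1) ∈ Γ0 := e1.mf (by rw [Cb_609.sph_one]; simp)
      have hp2 : e1.f (fun _ => 1) ∈ Γ0 := e1.mf (by rw [Cb_609.sph_one]; simp)
      have hne : e1.f (fun _ => (-1:ℝ)) ≠ e1.f (fun _ => (1:ℝ)) := by
        intro h
        have h1 : (fun _ : Fin 1 => (-1:ℝ)) ∈ sph 1 := by rw [Cb_609.sph_one]; simp
        have h2 : (fun _ : Fin 1 => (1:ℝ)) ∈ sph 1 := by rw [Cb_609.sph_one]; simp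
        have h3 := congrFun (e1.injOn h1 h2 h) 0
        norm_num at h3
      obtain ⟨A, B, h1, h2⟩ := Cb_609.two_marks (Ce_537.isBall_cube 2)
        (hΓ0S hp1) (hΓ0S hp2) hne
      rw [← hpt] at h1
      exact ⟨A, B, h1.ball₁, h1.ball₂, h2, h1.inter⟩
    · obtain ⟨a, ha, -⟩ := Cb_609.isBall_plane.exists_equiv (Ce_537.isBall_cube 2)
      have a' : PLEquiv (Pl.S1 ℝ) (a.f '' Pl.S1 ℝ) := a.restrImage Cb_609.isBall_plane.subset
      rw [ha] at a'
      have hcirc : Nonempty (PLEquiv (Pl.S1 ℝ) Γ0) := ⟨(a'.trans c).trans eΓ⟩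
      obtain ⟨A, B, h1, h2⟩ := Cb_609.sphere_sides (Ce_537.isBall_cube 3) hcirc hΓ0S
      exact ⟨A, B, h1.ball₁, h1.ball₂, h2, h1.inter⟩
  obtain ⟨A, B, hA, hB, hU, hI⟩ := hAB
  have hAs : A ⊆ sph (k + 1) := by rw [← hU]; exact subset_union_left
  have hBs : B ⊆ sph (k + 1) := by rw [← hU]; exact subset_union_right
  refine ⟨e.f '' A, e.f '' B, key A hAs hA, key B hBs hB, ?_, ?_⟩
  · rw [← image_union, hU, e.image_eq]
  · rw [← e.injOn.image_inter hAs hBs, hI, hback]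

/-- **one of the two sides** -/
theorem ball_of_sides {k : ℕ} {M Γ S' A B : Set E'} (bA : IsBall k A Γ) (bB : IsBall k B Γ)
    (hUn : A ∪ B = S') (hΓM : Γ ⊆ M) (hMS : M ⊆ S') (hM : IsClosed M)
    (hfr : ∀ x ∈ M, x ∉ Γ → ∃ ε > (0:ℝ), S' ∩ ball x ε ⊆ M) (h1 : ¬ M ⊆ Γ) (h2 : ¬ S' ⊆ M) :
    IsBall k M Γ := by
  have hdich : ∀ A0 : Set E', IsPreconnected A0 → A0 ⊆ S' → (∀ x ∈ A0, x ∉ Γ) →
      A0 ⊆ M ∨ ∀ x ∈ A0, x ∉ M := by
    intro A0 hpre hsub hd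
    choose! ε hε hεM using hfr
    by_contra hcon
    push Not at hcon
    obtain ⟨hn1, x, hxA, hxM⟩ := hcon
    obtain ⟨y, hyA, hyM⟩ := not_subset.1 hn1
    have oU : IsOpen (⋃ z ∈ M \ Γ, ball z (ε z)) := isOpen_biUnion fun _ _ => isOpen_ball
    obtain ⟨w, hwA, hwU, hwV⟩ := hpre _ _ oU hM.isOpen_compl (fun z hz => by
        by_cases hzM : z ∈ M
        · exact Or.inl (mem_biUnion (show z ∈ M \ Γ from ⟨hzM, hd z hz⟩)
            (mem_ball_self (hε z hzM (hd z hz))))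
        · exact Or.inr hzM)
      ⟨x, hxA, mem_biUnion (show x ∈ M \ Γ from ⟨hxM, hd x hxA⟩)
        (mem_ball_self (hε x hxM (hd x hxA)))⟩ ⟨y, hyA, hyM⟩
    obtain ⟨z, hz, hwz⟩ := mem_iUnion₂.1 hwU
    exact hwV (hεM z hz.1 hz.2 ⟨hsub hwA, hwz⟩)
  have hA' : A ⊆ S' := subset_union_left.trans hUn.subset
  have hB' : B ⊆ S' := subset_union_right.trans hUn.subset
  have dA := hdich _ bA.isPreconnected_diff (diff_subset.trans hA') fun x hx => hx.2
  have dB := hdich _ bB.isPreconnected_diff (diff_subset.trans hB') fun x hx => hx.2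
  have hfin : ∀ D D' : Set E', IsBall k D Γ → D ∪ D' = S' → (D \ Γ ⊆ M) → (∀ x ∈ D' \ Γ, x ∉ M) →
      IsBall k M Γ := by
    intro D D' hD hun h3 h4
    have : M = D := by
      apply Subset.antisymm
      · intro x hx
        by_cases hxΓ : x ∈ Γ
        · exact hD.subset hxΓ
        · rcases hun.ge (hMS hx) with h5 | h5
          · exact h5
          · exact absurd hx (h4 x ⟨h5, hxΓ⟩)
      · intro x hx
        by_cases hxΓ : x ∈ Γ
        · exact hΓM hxΓ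
        · exact h3 ⟨hx, hxΓ⟩
    rwa [this]
  rcases dA with hA1 | hA1 <;> rcases dB with hB1 | hB1
  · exfalso
    apply h2
    intro x hx
    by_cases hxΓ : x ∈ Γ
    · exact hΓM hxΓ
    · rcases hUn.ge hx with h5 | h5
      · exact hA1 ⟨h5, hxΓ⟩
      · exact hB1 ⟨h5, hxΓ⟩
  · exact hfin _ _ bA hUn hA1 hB1
  · exact hfin _ _ bB (by rw [union_comm]; exact hUn) hB1 hA1
  · exfalso
    apply h1
    intro x hx
    by_contra hxΓ
    rcases hUn.ge (hMS hx) with h5 | h5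
    · exact hA1 x ⟨h5, hxΓ⟩ hx
    · exact hB1 x ⟨h5, hxΓ⟩ hx

variable [FiniteDimensional ℝ E] {Q : Type*} [PartialOrder Q] {Λ : Set E} {Ω : Set E'} {C : CC Λ Q} {G : E' → E}

/-- near a point only the pieces containing it occur (relative form, `Ω` arbitrary) -/
lemma near' (X : Tr0 Ω C G) (hc : ∀ q, IsCompact (X.F q)) {x : E'} (hx : x ∈ Ω) :
    ∃ r > (0:ℝ), ∀ z ∈ Ω, z ∈ ball x r → X.top z ≤ X.top x ∧ G x ∈ C.cell (X.top z) := by
  obtain ⟨r1, hr1, hf⟩ := X.lf x hx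
  set A : Set Q := {q | (X.P q ∩ ball x r1).Nonempty} ∩ {q | x ∉ X.P q} with hA
  have hfin : A.Finite := hf.subset inter_subset_left
  have hcl : IsClosed (⋃ q ∈ A, X.P q) :=
    hfin.isClosed_biUnion fun q _ => (X.isCompact_P hc q).isClosed
  have hnot : x ∉ ⋃ q ∈ A, X.P q := by
    intro h
    obtain ⟨q, hq, hxq⟩ := mem_iUnion₂.1 h
    exact hq.2 hxq
  obtain ⟨r2, hr2, h2⟩ := Metric.isOpen_iff.1 hcl.isOpen_compl _ hnot
  refine ⟨min r1 r2, lt_min hr1 hr2, fun z hzΩ hz => ?_⟩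
  have hz1 : z ∈ ball x r1 := ball_subset_ball (min_le_left _ _) hz
  have hz2 : z ∈ ball x r2 := ball_subset_ball (min_le_right _ _) hz
  have hzP : z ∈ X.P (X.top z) := ⟨hzΩ, le_rfl, X.G_mem z hzΩ⟩
  have hxP : x ∈ X.P (X.top z) := by
    by_contra hcon
    exact h2 hz2 (mem_biUnion (show X.top z ∈ A from ⟨⟨z, hzP, hz1⟩, hcon⟩) hzP)
  exact ⟨hxP.2.1, hxP.2.2⟩

/-- **SIDE THEOREM.** -/
theorem side_ball (X : Tr0 Ω C G) (hc : ∀ q, IsCompact (X.F q)) {q : Q} (hfin : Finite (Up q))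
    {d : Q → ℕ} (hb : ∀ r : Up q, IsBall (d r.1) (X.F r.1) (X.S r.1)) {k : ℕ}
    (hk : k = 1 ∨ k = 2) (hS : Nonempty (PLEquiv (sph k) (X.S q))) {L : Set E}
    (hL : Nonempty (PLEquiv (sph (k + 1)) {x | x ∈ Ω ∧ G x ∈ L})) (hbL : C.b q ∈ L)
    (hqL : ∀ t ∈ C.cell q, t ∈ L → t = C.b q)
    (hr : ∀ r, q < r → (∀ s, q < s → s ≤ r → s = r) →
      IsPreconnected ((C.cell r ∩ L) \ {C.b q}) ∧ ((C.cell r ∩ L) \ {C.b q}).Nonempty) :
    IsBall k (X.F q) (X.S q) := by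
  set Sg : Set E' := {x | x ∈ Ω ∧ G x ∈ L} with hSg
  have hFL : X.F q ⊆ Sg := fun x hx => ⟨hx.1, by rw [hx.2]; exact hbL⟩
  obtain ⟨A, B, hA, hB, hU, hI⟩ := exists_sides' hk hL hS ((X.S_sub q).trans hFL)
  -- a minimal cell above `q`
  have hne : (X.S q).Nonempty := by
    obtain ⟨c⟩ := hS
    have : (sph k).Nonempty := by
      have hk1 : 0 < k := by omega
      have : Nontrivial (Fin k → ℝ) := by
        have : Nonempty (Fin k) := ⟨⟨0, hk1⟩⟩
        infer_instance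
      exact (NormedSpace.sphere_nonempty (x := (0 : Fin k → ℝ)) (r := 1)).2 zero_le_one
    obtain ⟨x, hx⟩ := this
    exact ⟨_, c.mf hx⟩
  obtain ⟨x0, hx0⟩ := hne
  have h0 : q < X.top x0 := lt_of_le_of_ne (X.F_top (X.S_sub _ hx0)) (Ne.symm hx0.2.2)
  obtain ⟨r, -, hrm⟩ := (Set.toFinite (univ : Set (Up q))).exists_minimal ⟨⟨X.top x0, h0⟩, trivial⟩
  have hmin : ∀ s : Q, q < s → s ≤ r.1 → s = r.1 := fun s hs hle =>
    le_antisymm hle (hrm (y := ⟨s, hs⟩) trivial hle)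
  obtain ⟨hpre, ⟨t0, ⟨ht0, ht0L⟩, ht0b⟩⟩ := hr r.1 r.2 hmin
  refine ball_of_sides hA hB hU (X.S_sub q) hFL (hc q).isClosed (fun x hx hxS => ?_) ?_ ?_
  · -- relative frontier
    have htop : X.top x = q := by
      by_contra hne
      exact hxS ⟨hx.1, hx.2, hne⟩
    obtain ⟨ε, hε, hn⟩ := near' X hc hx.1
    refine ⟨ε, hε, ?_⟩
    rintro z ⟨⟨hzΩ, hzL⟩, hz⟩
    obtain ⟨a1, a2⟩ := hn z hzΩ hz
    rw [hx.2] at a2
    have a3 : X.top z = q := le_antisymm (htop ▸ a1) (C.le_of_b a2)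
    exact ⟨hzΩ, hqL _ (a3 ▸ X.G_mem z hzΩ) hzL⟩
  · -- not contained in the boundary
    intro hsub
    obtain ⟨x, hxT, hxn⟩ := ((by rw [← X.eT_bdry]; exact (hb r).map _ :
      IsBall (d r.1) (X.T q r) (⋃ r' ∈ {r' | r < r'}, X.T q r'))).nonempty_diff
    have hxr : X.top x = r.1 := by
      by_contra hne'
      have h1 : r.1 < X.top x := lt_of_le_of_ne hxT.2.2 (Ne.symm hne')
      exact hxn (mem_iUnion₂.2 ⟨⟨X.top x, r.2.trans h1⟩, h1, hxT.1, hxT.2.1, le_rfl⟩)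
    have hxS : x ∈ X.S q := ⟨hxT.1, hxT.2.1, by rw [hxr]; exact r.2.ne'⟩
    obtain ⟨ε, hε, hn⟩ := near' X hc hxT.1
    have htop : ∀ z ∈ Sg, z ∈ ball x ε → X.top z = r.1 := by
      rintro z ⟨hzΩ, hzL⟩ hz
      obtain ⟨h1, h2⟩ := hn z hzΩ hz
      have h3 : q ≤ X.top z := C.le_of_b (hxT.2.1 ▸ h2)
      rw [hxr] at h1
      rcases h3.eq_or_lt with h4 | h4
      · exfalso
        have h5 := X.G_mem z hzΩ
        rw [← h4] at h5
        have h6 : z ∈ X.F q := ⟨hzΩ, hqL _ h5 hzL⟩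
        exact (hsub h6).2.2 h4.symm
      · exact hmin _ h4 h1
    set A' : Set E' := (fun p : E' × E => X.tr p.1 p.2) ''
      ((X.F r.1 \ X.S r.1) ×ˢ ((C.cell r.1 ∩ L) \ {C.b q})) with hA'
    have hApre : IsPreconnected A' := by
      refine ((hb r).isPreconnected_diff.prod hpre).image _ ?_
      exact (X.pltr r.1).1.mono (prod_mono diff_subset (diff_subset.trans inter_subset_left))
    have hAS : ∀ y ∈ A', y ∈ Sg ∧ y ∉ X.S q := by
      rintro _ ⟨⟨m, t⟩, ⟨hm, ht⟩, rfl⟩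
      have h0 := X.F_cell hm.1 ht.1.1
      have h1 := X.tr_G m hm.1.1 t h0
      refine ⟨⟨X.tr_mem m hm.1.1 t h0, ?_⟩, fun hy => ht.2 (h1.symm.trans hy.2.1)⟩
      show G (X.tr m t) ∈ L
      rw [h1]; exact ht.1.2
    have hUA : ∀ z ∈ Sg, z ∈ ball x ε → z ∉ X.S q → z ∈ A' := by
      intro z hzS hz hzn
      have hzΩ := hzS.1
      have h1 := htop z hzS hz
      have h2 : C.b r.1 ∈ C.cell (X.top z) := by rw [h1]; exact C.bmem _
      have hG : G z ∈ C.cell r.1 := h1 ▸ X.G_mem z hzΩ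
      refine ⟨(X.tr z (C.b r.1), G z), ⟨⟨⟨X.tr_mem z hzΩ _ h2, X.tr_G z hzΩ _ h2⟩,
        fun hS' => ?_⟩, ⟨hG, hzS.2⟩, fun hGq => ?_⟩, ?_⟩
      · exact hS'.2.2 ((X.top_tr hzΩ h2).trans h1)
      · exact hzn (hsub ⟨hzΩ, hGq⟩)
      · show X.tr (X.tr z (C.b r.1)) (G z) = z
        rw [X.tr_tr z hzΩ _ h2 _ (X.G_mem z hzΩ), X.tr_self z hzΩ]
    have hAsub : A ⊆ Sg := subset_union_left.trans hU.subset
    have hBsub : B ⊆ Sg := subset_union_right.trans hU.subset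
    have hside : ∀ D : Set E', IsBall k D (X.S q) → D ⊆ Sg → ∃ a ∈ A', a ∈ D := by
      intro D hD hDs
      have h1 : x ∈ closure (D \ X.S q) := by
        have h2 := hD.closure_diff
        rw [h2]; exact hD.subset hxS
      obtain ⟨a, ha, hax⟩ := Metric.mem_closure_iff.1 h1 ε hε
      refine ⟨a, hUA a (hDs ha.1) (by rwa [mem_ball, dist_comm]) ha.2, ha.1⟩
    obtain ⟨a, haA', haA⟩ := hside A hA hAsub
    obtain ⟨b, hbA', hbB⟩ := hside B hB hBsub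
    have hcl := (isPreconnected_closed_iff.1 hApre) A B hA.isClosed hB.isClosed
      (fun y hy => hU.ge (hAS y hy).1) ⟨a, haA', haA⟩ ⟨b, hbA', hbB⟩
    obtain ⟨w, hw, hwA, hwB⟩ := hcl
    exact (hAS w hw).2 (hI.le ⟨hwA, hwB⟩)
  · -- not everything
    intro hsub
    obtain ⟨m, hm⟩ := (hb r).nonempty
    have h1 := X.F_cell hm ht0
    have h2 := X.tr_G m hm.1 t0 h1
    have h3 : X.tr m t0 ∈ Sg := ⟨X.tr_mem m hm.1 t0 h1, by rw [h2]; exact ht0L⟩
    exact ht0b (h2.symm.trans (hsub h3).2)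

end Crest.Agent.R096.As_241
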