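import Crest.Agent.R096.As2_241

/-!
# R096 (row 96), ARR2 part 3 (helper241): all fibres on the boundary sphere of a tiny core are balls

`balls_below`: `X : Tr0 S (below C c) G` on a PL 2-sphere `S`: squares one point, edges
`{G ∈ L}` a PL circle.  `trn_below` = 537's `Trn`.
-/

set_option autoImplicit false
set_option linter.unusedSectionVars false
set_option linter.unusedVariables false
set_option linter.deprecated false

open Set Metric Topology Module
open scoped Classical

namespace Crest.Agent.R096.As_241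

open Crest.Agent.R096.Xp_537
open Crest.Agent.R096.Ce_537 (PLOn PLEquiv cube sph IsBall)
open Crest.Agent.R096.Ar_241

variable {E : Type*} [NormedAddCommGroup E] [NormedSpace ℝ E] [FiniteDimensional ℝ E]
  {E' : Type*} [NormedAddCommGroup E'] [NormedSpace ℝ E']
  {Q : Type*} [PartialOrder Q] {Λ : Set E} {C : CC Λ Q} {c : Q} {S : Set E'} {G : E' → E}

lemma isCompact_of_sphere {k : ℕ} (hS : Nonempty (PLEquiv (sph k) S)) : IsCompact S := by
  obtain ⟨e⟩ := hS
  rw [← e.image_eq]
  exact (isCompact_sphere (0 : Fin k → ℝ) 1).image_of_continuousOn e.pf.1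

lemma isCompact_F' {Λ' : Set E} {Q' : Type*} [PartialOrder Q'] {C' : CC Λ' Q'}
    (X : Tr0 S C' G) (hS : IsCompact S) (hG : ContinuousOn G S) (q : Q') : IsCompact (X.F q) := by
  have h1 : IsClosed (S ∩ G ⁻¹' {C'.b q}) :=
    hG.preimage_isClosed_of_isClosed hS.isClosed isClosed_singleton
  exact hS.of_isClosed_subset h1 (fun x hx => hx.1)

/-- **all fibres are balls**, edges as a hypothesis -/
theorem balls_below' (hΛ : IsOpen Λ) (hE : finrank ℝ E = 3) (hc : ∀ ρ, c ≤ ρ → ρ = c)
    (X : Tr0 S (below C c) G) (hS : Nonempty (PLEquiv (sph 3) S)) (hG : ContinuousOn G S)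
    (sq : ∀ q : {q : Q // q < c}, cod C q.1 = 1 → ∃ x, X.F q = {x})
    (edge : ∀ q : {q : Q // q < c}, cod C q.1 = 2 →
      (∀ r : Up q, IsBall (cod C r.1.1 - 1) (X.F r.1) (X.S r.1)) →
      Nonempty (PLEquiv (sph 1) (X.S q)) → IsBall 1 (X.F q) (X.S q)) :
    ∀ q, IsBall (cod C q.1 - 1) (X.F q) (X.S q) := by
  have hcF : ∀ q, IsCompact (X.F q) := isCompact_F' X (isCompact_of_sphere hS) hG
  intro q
  induction hd : cod C q.1 using Nat.strong_induction_on generalizing q with
  | _ d ih =>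
    have hr : ∀ r : Up q, IsBall (cod C r.1.1 - 1) (X.F r.1) (X.S r.1) := fun r =>
      ih (cod C r.1.1) (hd ▸ cod_lt C hΛ (show q.1 < r.1.1 from r.2)) r.1 rfl
    have hpos := cod_pos C hΛ q.2
    have hle : cod C q.1 ≤ 3 := by rw [← hE]; exact Nat.sub_le _ _
    have hsph := sphere_below hΛ hc X q hr
    rw [hd] at hpos hle hsph
    have h3 : d = 1 ∨ d = 2 ∨ d = 3 := by omega
    rcases h3 with h | h | h
    · subst h
      obtain ⟨x, hx⟩ := sq q hd
      have hSe : X.S q = ∅ := by
        rw [eq_empty_iff_forall_notMem]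
        intro y hy
        have h1 : q < X.top y := lt_of_le_of_ne (X.F_top (X.S_sub _ hy)) (Ne.symm hy.2.2)
        have h2 := cod_lt C hΛ (show q.1 < (X.top y).1 from h1)
        have h3 := cod_pos C hΛ (X.top y).2
        omega
      rw [hSe, hx]
      exact Cb_609.isBall_point x
    · subst h
      exact edge q hd hr hsph
    · subst h
      have hq : cod C q.1 = finrank ℝ E := by rw [hE]; exact hd
      refine side_ball X hcF (finite_up' C q) (d := fun r => cod C r.1 - 1) hr (k := 2)
        (Or.inr rfl) hsph (L := univ) ?_ (mem_univ _) ?_ ?_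
      · have : {x | x ∈ S ∧ G x ∈ (univ : Set E)} = S := by ext x; simp
        rw [this]; exact hS
      · intro t ht _
        exact Tr0.cell_vertex hq t ht
      · intro r hqr hmin
        have hqr' : q.1 < r.1 := hqr
        have h1 := Tr0.convex_diff hΛ hq hqr' fun s hs hsr =>
          congrArg Subtype.val (hmin ⟨s, hsr.trans_lt r.2⟩ hs hsr)
        rw [inter_univ]
        exact ⟨h1.isPreconnected, C.b r.1, C.bmem r.1, fun he =>
          C.b_notMem hqr' (by rw [mem_singleton_iff.1 he]; exact C.bmem q.1)⟩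

/-- the data of an edge: the fibre is cut out of a PL circle `{G ∈ L}` -/
def EdgeData (C : CC Λ Q) (c : Q) (S : Set E') (G : E' → E) (q : {q : Q // q < c}) : Prop :=
  ∃ L : Set E, C.b q.1 ∈ L ∧ (∀ t ∈ C.cell q.1, t ∈ L → t = C.b q.1) ∧
    (∀ r : {q : Q // q < c}, q < r → IsPreconnected ((C.cell r.1 ∩ L) \ {C.b q.1}) ∧
      ((C.cell r.1 ∩ L) \ {C.b q.1}).Nonempty) ∧
    Nonempty (PLEquiv (sph 2) {x | x ∈ S ∧ G x ∈ L})

/-- **ARR2: all fibres are balls** -/
theorem balls_below (hΛ : IsOpen Λ) (hE : finrank ℝ E = 3) (hc : ∀ ρ, c ≤ ρ → ρ = c)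
    (X : Tr0 S (below C c) G) (hS : Nonempty (PLEquiv (sph 3) S)) (hG : ContinuousOn G S)
    (sq : ∀ q : {q : Q // q < c}, cod C q.1 = 1 → ∃ x, X.F q = {x})
    (edge : ∀ q : {q : Q // q < c}, cod C q.1 = 2 → EdgeData C c S G q) :
    ∀ q, IsBall (cod C q.1 - 1) (X.F q) (X.S q) := by
  have hcF : ∀ q, IsCompact (X.F q) := isCompact_F' X (isCompact_of_sphere hS) hG
  refine balls_below' hΛ hE hc X hS hG sq fun q hq hr hsph => ?_
  obtain ⟨L, h1, h2, h3, h4⟩ := edge q hq
  exact side_ball X hcF (finite_up' C q) (d := fun r => cod C r.1 - 1) hr (k := 1)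
    (Or.inl rfl) hsph h4 h1 h2 (fun r hqr _ => h3 r hqr)

/-- 537's transport structure -/
noncomputable def trn_below (X : Tr0 S (below C c) G)
    (h : ∀ q, IsBall (cod C q.1 - 1) (X.F q) (X.S q)) : Trn S (below C c) G :=
  X.trn (C.dim c) (fun q => cod C q.1 - 1) (fun q => (C.dim_lt q.2).le) h

end Crest.Agent.R096.As_241
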