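import Crest.Agent.R096.As3_241

/-!
# R096 (row 96), ARR2 part 4 (helper241): top cells and exact cores are balls

`isBall_topcell : IsBall n (C.cell c) (bdc C c)`; `isBall_coreF : IsBall n (coreF C κ c θ)
{y ∈ coreF | sl y c = θ}`.
-/

set_option autoImplicit false
set_option linter.unusedSectionVars false
set_option linter.unusedVariables false
set_option linter.deprecated false

open Set Metric Topology Module
open scoped Classical

namespace Crest.Agent.R096.As_241

open Crest.Agent.R096.Xp_537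
open Crest.Agent.R096.Ce_537 (PLOn PLEquiv cube sph IsBall plOn_affine)
open Crest.Agent.R096.Ar_241
open Crest.Agent.R096.Dl_609 (lc tot tot_eq lc_single tot_single lc_eq_bs tot_wt wt_top bs_top')

variable {E : Type*} [NormedAddCommGroup E] [NormedSpace ℝ E] [FiniteDimensional ℝ E]
  {Q : Type*} [PartialOrder Q] {Λ : Set E}

/-- injective PL images of balls -/
theorem isBall_image_injOn {V W : Type*} [NormedAddCommGroup V] [NormedSpace ℝ V]
    [NormedAddCommGroup W] [NormedSpace ℝ W] [FiniteDimensional ℝ V] [FiniteDimensional ℝ W]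
    {k : ℕ} {X M : Set V} (h : IsBall k X M) {f : V → W} (hf : PLOn f X) (hi : InjOn f X) :
    IsBall k (f '' X) (f '' M) :=
  h.map (Cx_609.equivOfInjOn (Cx_609.isBall_iff.1 h).finConv h.isClosed hf hi)

section top

variable (C : CC Λ Q) (c : Q)

/-- the indices of the proper faces -/
abbrev Dwn (c : Q) := {r : Q // r < c}

lemma finite_dwn (C : CC Λ Q) (c : Q) : Finite (Dwn c) := by
  have : ({r : Q | r < c}).Finite := (C.dn c).finite_toSet.subset fun r hr => by
    exact Finset.mem_coe.2 (C.mem_dn.2 (le_of_lt hr))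
  exact this

/-- weights below `c` completed to total mass one -/
noncomputable def wtc [Fintype (Dwn c)] (l : Dwn c → ℝ) : Q →₀ ℝ :=
  (∑ i, Finsupp.single i.1 (l i)) + Finsupp.single c (1 - ∑ i, l i)

variable {c} [Fintype (Dwn c)]

lemma wtc_lt (l : Dwn c → ℝ) (i : Dwn c) : wtc c l i.1 = l i := by
  unfold wtc
  rw [Finsupp.add_apply, Finsupp.finsetSum_apply, Finsupp.single_eq_of_ne i.2.ne, add_zero]
  rw [Finset.sum_eq_single i]
  · simp
  · intro j _ hj
    rw [Finsupp.single_eq_of_ne]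
    intro h
    exact hj (Subtype.ext h.symm)
  · intro h; exact absurd (Finset.mem_univ i) h

lemma wtc_top (l : Dwn c → ℝ) : wtc c l c = 1 - ∑ i, l i := by
  unfold wtc
  rw [Finsupp.add_apply, Finsupp.finsetSum_apply]
  rw [Finset.sum_eq_zero fun j _ => ?_]
  · simp
  · rw [Finsupp.single_eq_of_ne j.2.ne']

lemma wtc_off (l : Dwn c → ℝ) {ρ : Q} (h1 : ¬ ρ < c) (h2 : ρ ≠ c) : wtc c l ρ = 0 := by
  unfold wtc
  rw [Finsupp.add_apply, Finsupp.finsetSum_apply, Finsupp.single_eq_of_ne h2, add_zero]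
  refine Finset.sum_eq_zero fun j _ => ?_
  rw [Finsupp.single_eq_of_ne]
  intro h
  exact h1 (h ▸ j.2)

lemma tot_wtc (l : Dwn c → ℝ) : tot (wtc c l) = 1 := by
  unfold wtc
  rw [map_add, map_sum, tot_single]
  simp

lemma supp_wtc (l : Dwn c → ℝ) {ρ : Q} (h : ρ ∈ (wtc c l).support) :
    ρ = c ∨ ∃ i : Dwn c, ρ = i.1 ∧ l i ≠ 0 := by
  rw [Finsupp.mem_support_iff] at h
  by_cases h1 : ρ < c
  · right
    refine ⟨⟨ρ, h1⟩, rfl, ?_⟩
    rw [← wtc_lt l ⟨ρ, h1⟩]
    exact h
  · by_cases h2 : ρ = c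
    · exact Or.inl h2
    · exact absurd (wtc_off l h1 h2) h

lemma wt_wtc {l : Dwn c → ℝ} (hl : Chn l) (hs : ∑ i, l i ≤ 1) : Wt (wtc c l) where
  nn ρ := by
    by_cases h1 : ρ < c
    · rw [wtc_lt l ⟨ρ, h1⟩]; exact hl.nn _
    · by_cases h2 : ρ = c
      · rw [h2, wtc_top]; linarith
      · rw [wtc_off l h1 h2]
  sum := by rw [← tot_eq, tot_wtc]
  chain ρ hρ σ hσ := by
    rcases supp_wtc l hρ with rfl | ⟨i, rfl, hi⟩ <;> rcases supp_wtc l hσ with rfl | ⟨j, rfl, hj⟩
    · exact Or.inl le_rfl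
    · exact Or.inr j.2.le
    · exact Or.inl i.2.le
    · exact hl.ch i j hi hj

/-- the linear map of the differences -/
noncomputable def dif (C : CC Λ Q) (c : Q) [Fintype (Dwn c)] : (Dwn c → ℝ) →ₗ[ℝ] E :=
  ∑ i, (LinearMap.proj i : (Dwn c → ℝ) →ₗ[ℝ] ℝ).smulRight (C.b i.1 - C.b c)

lemma dif_apply (l : Dwn c → ℝ) : dif C c l = ∑ i, l i • (C.b i.1 - C.b c) := by
  simp [dif, LinearMap.sum_apply]

lemma bs_wtc (l : Dwn c → ℝ) : bs C.b (wtc c l) = C.b c + dif C c l := by
  rw [← lc_eq_bs, dif_apply]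
  unfold wtc
  rw [map_add, map_sum, lc_single]
  simp only [lc_single]
  simp only [smul_sub, Finset.sum_sub_distrib, ← Finset.sum_smul]
  module

/-- every point of the cell is a combination -/
lemma exists_dif {y : E} (hy : y ∈ C.cell c) : ∃ l : Dwn c → ℝ, Chn l ∧ ∑ i, l i ≤ 1 ∧
    C.b c + dif C c l = y ∧ (y ∈ bdc C c → ∑ i, l i = 1) := by
  obtain ⟨h1, h2, h3⟩ := bc_spec C hy
  have hl : wtc c (fun i : Dwn c => bc C y i.1) = bc C y := by
    have hsum : ∑ i : Dwn c, bc C y i.1 + bc C y c = 1 := by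
      have h5 := tot_wt h1
      have h6 : bc C y = (∑ i : Dwn c, Finsupp.single i.1 (bc C y i.1)) +
          Finsupp.single c (bc C y c) := by
        ext ρ
        rw [Finsupp.add_apply, Finsupp.finsetSum_apply]
        by_cases h7 : ρ < c
        · rw [Finsupp.single_eq_of_ne h7.ne, add_zero, Finset.sum_eq_single ⟨ρ, h7⟩]
          · simp
          · intro j _ hj
            rw [Finsupp.single_eq_of_ne]
            intro h
            exact hj (Subtype.ext h.symm)
          · intro h; exact absurd (Finset.mem_univ _) h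
        · have h8 : ∑ i : Dwn c, (Finsupp.single i.1 (bc C y i.1)) ρ = 0 := by
            refine Finset.sum_eq_zero fun j _ => ?_
            rw [Finsupp.single_eq_of_ne]
            intro h
            exact h7 (h ▸ j.2)
          rw [h8, zero_add]
          by_cases h9 : ρ = c
          · subst h9; simp
          · rw [Finsupp.single_eq_of_ne h9]
            by_contra hne
            exact h7 (lt_of_le_of_ne (h3 ρ (Finsupp.mem_support_iff.2 hne)) h9)
      rw [h6, map_add, map_sum, tot_single] at h5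
      simpa using h5
    ext ρ
    by_cases h7 : ρ < c
    · rw [wtc_lt _ ⟨ρ, h7⟩]
    · by_cases h9 : ρ = c
      · rw [h9, wtc_top]; linarith
      · rw [wtc_off _ h7 h9]
        by_contra hne
        exact h7 (lt_of_le_of_ne (h3 ρ (Finsupp.mem_support_iff.2 (Ne.symm hne))) h9)
  refine ⟨fun i => bc C y i.1, ⟨fun i => h1.nn _, fun i j hi hj => ?_⟩, ?_, ?_, ?_⟩
  · exact h1.chain _ (Finsupp.mem_support_iff.2 hi) _ (Finsupp.mem_support_iff.2 hj)
  · have h4 := wtc_top (c := c) (fun i : Dwn c => bc C y i.1)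
    rw [hl] at h4
    have := h1.nn c
    linarith
  · rw [← bs_wtc, hl, h2]
  · intro hyb
    obtain ⟨p, hp⟩ := mem_iUnion.1 hyb
    have h4 := wtc_top (c := c) (fun i : Dwn c => bc C y i.1)
    rw [hl] at h4
    have h5 : bc C y c = 0 := by
      by_contra hne
      have h6 := (bc_spec C hp).2.2 c (Finsupp.mem_support_iff.2 hne)
      exact absurd p.2 (not_lt_of_ge h6)
    linarith

lemma dif_mem {l : Dwn c → ℝ} (hl : Chn l) (hs : ∑ i, l i ≤ 1) :
    C.b c + dif C c l ∈ C.cell c ∧ (∑ i, l i = 1 → C.b c + dif C c l ∈ bdc C c) := by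
  have h1 := wt_wtc hl hs
  have hle : ∀ ρ ∈ (wtc c l).support, ρ ≤ c := by
    intro ρ hρ
    rcases supp_wtc l hρ with rfl | ⟨i, rfl, hi⟩
    · exact le_rfl
    · exact i.2.le
  refine ⟨by rw [← bs_wtc]; exact bs_mem C h1 hle, fun h2 => ?_⟩
  obtain ⟨p, hp, hpm⟩ := h1.exists_max
  have hpc : p < c := by
    rcases supp_wtc l hp with h3 | ⟨i, rfl, hi⟩
    · exfalso
      apply Finsupp.mem_support_iff.1 hp
      rw [h3, wtc_top, h2]; ring
    · exact i.2
  rw [← bs_wtc]
  exact mem_iUnion.2 ⟨⟨p, hpc⟩, bs_mem C h1 hpm⟩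

lemma dif_inj {l l' : Dwn c → ℝ} (hl : Chn l) (hl' : Chn l') (hs : ∑ i, l i ≤ 1)
    (hs' : ∑ i, l' i ≤ 1) (h : dif C c l = dif C c l') : l = l' := by
  have h1 : wtc c l = wtc c l' := bs_inj C (wt_wtc hl hs) (wt_wtc hl' hs') (by
    rw [bs_wtc, bs_wtc, h])
  funext i
  rw [← wtc_lt l i, h1, wtc_lt]

/-- **top cells are balls** -/
theorem isBall_topcell (hΛ : IsOpen Λ) (hc : ∀ ρ, c ≤ ρ → ρ = c) :
    IsBall (finrank ℝ E) (C.cell c) (bdc C c) := by
  set n := finrank ℝ E with hn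
  let b : E ≃ₗ[ℝ] (Fin n → ℝ) := (finBasis ℝ E).equivFun
  let L : (Dwn c → ℝ) →ₗ[ℝ] (Fin n → ℝ) := b.toLinearMap.comp (dif C c)
  have hLe : ∀ l, L l = b (dif C c l) := fun l => rfl
  have hsmall : ∀ l l' : Dwn c → ℝ, Chn l → Chn l' → ∃ τ > (0:ℝ), ∑ i, (τ • l) i ≤ 1 ∧
      ∑ i, (τ • l') i ≤ 1 := by
    intro l l' hl hl'
    have h1 : 0 ≤ ∑ i, l i := Finset.sum_nonneg fun i _ => hl.nn i
    have h2 : 0 ≤ ∑ i, l' i := Finset.sum_nonneg fun i _ => hl'.nn i
    refine ⟨(1 + ∑ i, l i + ∑ i, l' i)⁻¹, by positivity, ?_, ?_⟩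
    · simp only [Pi.smul_apply, smul_eq_mul, ← Finset.mul_sum]
      rw [inv_mul_le_iff₀ (by positivity)]; linarith
    · simp only [Pi.smul_apply, smul_eq_mul, ← Finset.mul_sum]
      rw [inv_mul_le_iff₀ (by positivity)]; linarith
  have hL : ∀ a, ∃ l, Chn l ∧ L l = a := by
    intro a
    obtain ⟨ε, hε, hsub, hnear⟩ := exists_near C hΛ c
    obtain ⟨τ, hτ, hball⟩ := exists_smul_near (x := C.b c) (v := b.symm a) hε
    have h1 := hball τ hτ.le le_rfl
    obtain ⟨s, hs⟩ := C.cover _ (hsub h1)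
    have h2 : s = c := hc s (hnear _ h1 s hs)
    rw [h2] at hs
    obtain ⟨l, hl, -, he, -⟩ := exists_dif C hs
    refine ⟨τ⁻¹ • l, hl.smul (inv_nonneg.2 hτ.le), ?_⟩
    rw [hLe, map_smul, add_left_cancel he, smul_smul, inv_mul_cancel₀ hτ.ne', one_smul,
      b.apply_symm_apply]
  have hU : ∀ l l', Chn l → Chn l' → L l = L l' → l = l' := by
    intro l l' hl hl' he
    obtain ⟨τ, hτ, h1, h2⟩ := hsmall l l' hl hl'
    rw [hLe, hLe] at he
    have h3 := b.injective he
    have h4 := dif_inj C (hl.smul hτ.le) (hl'.smul hτ.le) h1 h2 (by rw [map_smul, map_smul, h3])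
    exact smul_right_injective _ hτ.ne' h4
  have hb := ball_of_model L hL hU
  let A : (Dwn c → ℝ) →ᵃ[ℝ] E := (dif C c).toAffineMap + AffineMap.const ℝ _ (C.b c)
  have hA : ∀ l, A l = C.b c + dif C c l := fun l => by
    show dif C c l + C.b c = _
    rw [add_comm]
  have h1 := isBall_image_injOn hb (plOn_affine A _) (fun l hl l' hl' he => by
    have he' : A l = A l' := he
    rw [hA, hA] at he'
    exact dif_inj C hl.1 hl'.1 hl.2 hl'.2 (add_left_cancel he'))
  have e1 : (fun x => A x) '' {l : Dwn c → ℝ | Chn l ∧ ∑ i, l i ≤ 1} = C.cell c := by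
    ext y
    constructor
    · rintro ⟨l, hl, rfl⟩
      show A l ∈ _
      rw [hA]; exact (dif_mem C hl.1 hl.2).1
    · intro hy
      obtain ⟨l, hl, hs, he, -⟩ := exists_dif C hy
      exact ⟨l, ⟨hl, hs⟩, by show A l = y; rw [hA]; exact he⟩
  have e2 : (fun x => A x) '' {l : Dwn c → ℝ | Chn l ∧ ∑ i, l i = 1} = bdc C c := by
    ext y
    constructor
    · rintro ⟨l, hl, rfl⟩
      show A l ∈ _
      rw [hA]; exact (dif_mem C hl.1 hl.2.le).2 hl.2
    · intro hy
      obtain ⟨p, hp⟩ := mem_iUnion.1 hy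
      obtain ⟨l, hl, hs, he, h2⟩ := exists_dif C (C.mono p.2 hp)
      exact ⟨l, ⟨hl, h2 hy⟩, by show A l = y; rw [hA]; exact he⟩
  rwa [e1, e2] at h1

end top

end Crest.Agent.R096.As_241
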