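import Crest.Agent.R096.As4_241

/-!
# R096 (row 96), ARR2 part 5 (helper241): the exact core is a ball

`isBall_coreF : IsBall n (coreF C κ c θ) {y ∈ coreF | sl y c = θ}` for a top cell `c`.
-/

set_option autoImplicit false
set_option linter.unusedSectionVars false
set_option linter.unusedVariables false
set_option linter.deprecated false

open Set Metric Topology Module
open scoped Classical

namespace Crest.Agent.R096.As_241

open Crest.Agent.R096.Xp_537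
open Crest.Agent.R096.Ce_537 (PLOn PLEquiv cube sph IsBall plOn_affine plOn_id plOn_const)
open Crest.Agent.R096.Bd_416 (pl_add pl_smul)
open Crest.Agent.R096.Ar_241
open Crest.Agent.R096.Dl_609 (lc tot tot_eq lc_single tot_single lc_eq_bs tot_wt wt_top bs_top')

variable {E : Type*} [NormedAddCommGroup E] [NormedSpace ℝ E] [FiniteDimensional ℝ E]
  {Q : Type*} [PartialOrder Q] {Λ : Set E} {C : CC Λ Q} {c : Q} {κ θ : ℝ}

/-- removing mass at the top -/
lemma exists_unmix {m : Q →₀ ℝ} (hm : Wt m) (h0 : 0 ≤ θ) (hθ : θ < 1) (h : θ ≤ m c) :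
    ∃ l, Wt l ∧ m = (1 - θ) • l + Finsupp.single c θ ∧ (∀ ρ ∈ l.support, ρ ∈ m.support) ∧
      l c = (1 - θ)⁻¹ * (m c - θ) := by
  have h1' : 0 < 1 - θ := by linarith
  set l : Q →₀ ℝ := (1 - θ)⁻¹ • (m - Finsupp.single c θ) with hl
  have hlc : l c = (1 - θ)⁻¹ * (m c - θ) := by simp [hl]
  have hlne : ∀ ρ, ρ ≠ c → l ρ = (1 - θ)⁻¹ * m ρ := fun ρ h => by
    simp [hl, Finsupp.single_eq_of_ne h]
  have hsub : ∀ ρ ∈ l.support, ρ ∈ m.support := by
    intro ρ hρ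
    by_cases h2 : ρ = c
    · subst h2
      rw [Finsupp.mem_support_iff]
      intro h3
      apply Finsupp.mem_support_iff.1 hρ
      have h4 : θ = 0 := le_antisymm (by rw [← h3]; exact h) h0
      rw [hlc, h3, h4]; ring
    · rw [Finsupp.mem_support_iff]
      intro h3
      apply Finsupp.mem_support_iff.1 hρ
      rw [hlne ρ h2, h3, mul_zero]
  refine ⟨l, ⟨fun ρ => ?_, ?_, fun ρ hρ σ hσ => hm.chain ρ (hsub ρ hρ) σ (hsub σ hσ)⟩, ?_,
    hsub, hlc⟩
  · by_cases h2 : ρ = c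
    · subst h2; rw [hlc]
      exact mul_nonneg (inv_nonneg.2 h1'.le) (by linarith)
    · rw [hlne ρ h2]
      exact mul_nonneg (inv_nonneg.2 h1'.le) (hm.nn ρ)
  · rw [← tot_eq, hl, map_smul, map_sub, tot_single, tot_wt hm, smul_eq_mul,
      inv_mul_cancel₀ h1'.ne']
  · rw [hl, smul_smul, mul_inv_cancel₀ h1'.ne', one_smul, sub_add_cancel]

/-- adding mass at the top of a state -/
lemma mix_state {l : Q →₀ ℝ} {t : E} (h : State C l t) (hle : ∀ ρ ∈ l.support, ρ ≤ c)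
    (h0 : 0 ≤ θ) (hθ : θ < 1) : State C ((1 - θ) • l + Finsupp.single c θ) t ∧
      (∀ ρ ∈ ((1 - θ) • l + Finsupp.single c θ).support, ρ ≤ c) ∧
      ((1 - θ) • l + Finsupp.single c θ) c = (1 - θ) * l c + θ := by
  have hwt := wt_top h.wt hle h0 hθ.le
  have hs : ∀ ρ ∈ ((1 - θ) • l + Finsupp.single c θ).support, ρ = c ∨ ρ ∈ l.support := by
    intro ρ hρ
    by_contra hcon
    push Not at hcon
    apply Finsupp.mem_support_iff.1 hρ
    simp [Finsupp.notMem_support_iff.1 hcon.2, Finsupp.single_eq_of_ne hcon.1]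
  obtain ⟨p, hp⟩ := h.wt.nonempty
  have htc : t ∈ C.cell c := C.mono_le (hle p hp) (h.mem p hp)
  refine ⟨⟨hwt.nn, hwt.sum, hwt.chain, fun ρ hρ => ?_⟩, fun ρ hρ => ?_, by simp⟩
  · rcases hs ρ hρ with rfl | h2
    · exact htc
    · exact h.mem ρ h2
  · rcases hs ρ hρ with rfl | h2
    · exact le_rfl
    · exact hle ρ h2

lemma mix_inj {l l' : Q →₀ ℝ} (hθ : θ < 1)
    (h : (1 - θ) • l + Finsupp.single c θ = (1 - θ) • l' + Finsupp.single c θ) : l = l' := by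
  have h1 := add_right_cancel h
  exact smul_right_injective _ (by linarith : (1 - θ) ≠ 0) h1

/-- `sl y c = 0` iff `y` is in the boundary -/
lemma sl_zero_iff (hκ : 0 < κ ∧ κ < 1) {y : E} (hy : y ∈ C.cell c) :
    sl C κ y c = 0 ↔ y ∈ bdc C c := by
  obtain ⟨k1, k2, k3⟩ := st_spec C hκ hy
  constructor
  · intro h
    obtain ⟨p, hp, hpm⟩ := k1.wt.exists_max
    have hpc : p < c := lt_of_le_of_ne (k3 p hp) (by
      rintro rfl; exact Finsupp.mem_support_iff.1 hp h)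
    refine mem_iUnion.2 ⟨⟨p, hpc⟩, ?_⟩
    show y ∈ C.cell p
    rw [← k2]
    exact pk_mem C hκ k1 hpm
  · intro h
    obtain ⟨p, hp⟩ := mem_iUnion.1 h
    by_contra hne
    have := (st_spec C hκ hp).2.2 c (Finsupp.mem_support_iff.2 hne)
    exact absurd p.2 (not_lt_of_ge this)

/-- the retraction of the cell onto the core -/
noncomputable def shr (C : CC Λ Q) (κ θ : ℝ) (c : Q) (y : E) : E :=
  pk C κ ((1 - θ) • sl C κ y + Finsupp.single c θ) (st C κ y)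

lemma shr_eq (hκ : 0 < κ ∧ κ < 1) {y : E} (hy : y ∈ C.cell c) : shr C κ θ c y =
    ((1 - θ) • y + (θ * (1 - κ)) • st C κ y) + (κ * θ) • C.b c := by
  obtain ⟨k1, k2, k3⟩ := st_spec C hκ hy
  have h2 : (1 - θ) • y = (1 - θ) • ((1 - κ) • st C κ y + κ • bs C.b (sl C κ y)) :=
    congrArg (fun z => (1 - θ) • z) k2.symm
  rw [h2]
  unfold shr pk
  rw [bs_top']
  module

lemma shr_spec (hκ : 0 < κ ∧ κ < 1) (h0 : 0 ≤ θ) (hθ : θ < 1) {y : E} (hy : y ∈ C.cell c) :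
    shr C κ θ c y ∈ coreF C κ c θ ∧
      sl C κ (shr C κ θ c y) = (1 - θ) • sl C κ y + Finsupp.single c θ ∧
      st C κ (shr C κ θ c y) = st C κ y ∧ sl C κ (shr C κ θ c y) c = (1 - θ) * sl C κ y c + θ := by
  obtain ⟨k1, k2, k3⟩ := st_spec C hκ hy
  obtain ⟨m1, m2, m3⟩ := mix_state (θ := θ) k1 k3 h0 hθ
  have e1 : sl C κ (shr C κ θ c y) = (1 - θ) • sl C κ y + Finsupp.single c θ := sl_pk C hκ m1
  refine ⟨⟨pk_mem C hκ m1 m2, ?_⟩, e1, st_pk C hκ m1, by rw [e1]; exact m3⟩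
  rw [e1, m3]
  have := mul_nonneg (sub_nonneg.2 hθ.le) (k1.nn c)
  linarith

/-- **the exact core is a ball** -/
theorem isBall_coreF (hΛ : IsOpen Λ) (hc : ∀ ρ, c ≤ ρ → ρ = c) (hκ : 0 < κ ∧ κ < 1)
    (h0 : 0 ≤ θ) (hθ : θ < 1) :
    IsBall (finrank ℝ E) (coreF C κ c θ) {y | y ∈ coreF C κ c θ ∧ sl C κ y c = θ} := by
  have := finite_dwn C c
  let _ : Fintype (Dwn c) := Fintype.ofFinite _
  have hb := isBall_topcell C hΛ hc
  have hpl : PLOn (shr C κ θ c) (C.cell c) := by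
    refine (pl_add (pl_add (pl_smul (1 - θ) (plOn_id _)) (pl_smul (θ * (1 - κ))
      (plOn_st C hκ c))) (plOn_const ((κ * θ) • C.b c) _)).congr fun y hy => ?_
    exact shr_eq hκ hy
  have hinj : InjOn (shr C κ θ c) (C.cell c) := by
    intro y hy y' hy' he
    obtain ⟨-, a2, a3, -⟩ := shr_spec hκ h0 hθ hy
    obtain ⟨-, b2, b3, -⟩ := shr_spec hκ h0 hθ hy'
    have h1 : sl C κ y = sl C κ y' := mix_inj hθ (by rw [← a2, ← b2, he])
    have h2 : st C κ y = st C κ y' := by rw [← a3, ← b3, he]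
    rw [← (st_spec C hκ hy).2.1, ← (st_spec C hκ hy').2.1, h1, h2]
  have h1 := isBall_image_injOn hb hpl hinj
  have hpre : ∀ z ∈ coreF C κ c θ, ∃ y ∈ C.cell c, shr C κ θ c y = z := by
    rintro z ⟨hz, hzθ⟩
    obtain ⟨k1, k2, k3⟩ := st_spec C hκ hz
    obtain ⟨l, l1, l2, l3, l4⟩ := exists_unmix k1.wt h0 hθ hzθ
    have hst : State C l (st C κ z) := ⟨l1.nn, l1.sum, l1.chain, fun ρ hρ => k1.mem ρ (l3 ρ hρ)⟩
    refine ⟨pk C κ l (st C κ z), pk_mem C hκ hst fun ρ hρ => k3 ρ (l3 ρ hρ), ?_⟩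
    unfold shr
    rw [sl_pk C hκ hst, st_pk C hκ hst, ← l2, k2]
  have e1 : shr C κ θ c '' C.cell c = coreF C κ c θ := by
    ext z
    constructor
    · rintro ⟨y, hy, rfl⟩; exact (shr_spec hκ h0 hθ hy).1
    · intro hz
      obtain ⟨y, hy, he⟩ := hpre z hz
      exact ⟨y, hy, he⟩
  have e2 : shr C κ θ c '' bdc C c = {y | y ∈ coreF C κ c θ ∧ sl C κ y c = θ} := by
    ext z
    constructor
    · rintro ⟨y, hy, rfl⟩
      obtain ⟨p, hp⟩ := mem_iUnion.1 hy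
      have hyc : y ∈ C.cell c := C.mono p.2 hp
      obtain ⟨s1, -, -, s4⟩ := shr_spec hκ h0 hθ hyc
      refine ⟨s1, ?_⟩
      rw [s4, (sl_zero_iff hκ hyc).2 hy]; ring
    · rintro ⟨hz, hz'⟩
      obtain ⟨y, hy, rfl⟩ := hpre z hz
      refine ⟨y, (sl_zero_iff hκ hy).1 ?_, rfl⟩
      have h4 := (shr_spec hκ h0 hθ hy).2.2.2
      rw [hz'] at h4
      have h5 : (1 - θ) * sl C κ y c = 0 := by linarith
      exact (mul_eq_zero.1 h5).resolve_left (by linarith)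
  rwa [e1, e2] at h1

end Crest.Agent.R096.As_241
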