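import Crest.Agent.R096.Mo7_119

/-!
# P5-ASM-B, part 1 (helper119, row 96): measure theoretic choice lemmas
-/

set_option autoImplicit false
set_option linter.unusedSectionVars false

open MeasureTheory Metric Set Filter Topology
open scoped ENNReal NNReal ContDiff

namespace Crest.Agent.R096.Asm_119

open Crest.Agent.R096.Mo_119

variable {E : Type*} [NormedAddCommGroup E] [NormedSpace ℝ E] [FiniteDimensional ℝ E]
  [MeasurableSpace E] [BorelSpace E] {μ : Measure E}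

/-- on the set where two maps agree their derivatives agree a.e. -/
theorem ae_fderiv_eq_of_eq [μ.IsAddHaarMeasure] {f g : E → E} {s : Set E} (hs : MeasurableSet s)
    (hfg : ∀ x ∈ s, f x = g x) (hf : ∀ᵐ x ∂μ, x ∈ s → DifferentiableAt ℝ f x)
    (hg : ∀ᵐ x ∂μ, x ∈ s → DifferentiableAt ℝ g x) :
    ∀ᵐ x ∂μ, x ∈ s → fderiv ℝ f x = fderiv ℝ g x := by
  set s' : Set E := s ∩ ({x | DifferentiableAt ℝ f x} ∩ {x | DifferentiableAt ℝ g x}) with hs'
  have hms : MeasurableSet s' := hs.inter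
    ((measurableSet_of_differentiableAt ℝ f).inter (measurableSet_of_differentiableAt ℝ g))
  have happ : ApproximatesLinearOn (fun x => f x - g x) (0 : E →L[ℝ] E) s' 0 := by
    intro x hx y hy
    simp [hfg x hx.1, hfg y hy.1]
  have key := happ.norm_fderiv_sub_le μ hms (fun x => fderiv ℝ f x - fderiv ℝ g x)
    (fun x hx => (hx.2.1.hasFDerivAt.sub hx.2.2.hasFDerivAt).hasFDerivWithinAt)
  rw [ae_restrict_iff' hms] at key
  filter_upwards [key, hf, hg] with x hx hfx hgx hxs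
  have h1 := hx ⟨hxs, hfx hxs, hgx hxs⟩
  have h2 : ‖fderiv ℝ f x - fderiv ℝ g x‖₊ ≤ 0 := by simpa using h1
  have h3 : fderiv ℝ f x - fderiv ℝ g x = 0 := by
    rw [← nnnorm_eq_zero]; exact le_antisymm h2 zero_le
  exact sub_eq_zero.1 h3

omit [FiniteDimensional ℝ E] [MeasurableSpace E] [BorelSpace E] [NormedSpace ℝ E] in
/-- a locally bounded function is bounded on compact sets -/
theorem exists_sup_compact {Ω K : Set E} {W : E → ℝ≥0∞}
    (hW : ∀ x ∈ Ω, ∃ r > 0, ∃ M : ℝ≥0∞, M ≠ ⊤ ∧ ∀ y ∈ ball x r ∩ Ω, W y ≤ M) (hK : IsCompact K)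
    (hKΩ : K ⊆ Ω) : ∃ M : ℝ≥0∞, M ≠ ⊤ ∧ ∀ x ∈ K, W x ≤ M := by
  classical
  have h1 : ∀ x ∈ K, ∃ r > 0, ∃ M : ℝ≥0∞, M ≠ ⊤ ∧ ∀ y ∈ ball x r ∩ Ω, W y ≤ M :=
    fun x hx => hW x (hKΩ hx)
  choose! r hr M hM hWM using h1
  obtain ⟨t, htK, ht⟩ := hK.elim_nhds_subcover (fun x => ball x (r x))
    (fun x hx => ball_mem_nhds x (hr x hx))
  refine ⟨∑ x ∈ t, M x, ENNReal.sum_ne_top.2 fun x hx => hM x (htK x hx), fun x hx => ?_⟩
  obtain ⟨y, hy, hxy⟩ := mem_iUnion₂.1 (ht hx)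
  exact (hWM y (htK y hy) x ⟨hxy, hKΩ hx⟩).trans
    (Finset.single_le_sum (f := M) (fun _ _ => zero_le) hy)

omit [FiniteDimensional ℝ E] [MeasurableSpace E] [BorelSpace E] [NormedSpace ℝ E] in
/-- a locally bounded below function below a given sequence along an exhaustion -/
theorem exists_lbb_le {Ω : Set E} {m : E → ℕ} (hmb : LBB Ω (fun x => 1 / ((m x : ℝ) + 1)))
    {T : ℕ → ℝ} (hT0 : ∀ n, 0 < T n) : ∃ b : E → ℝ, LBB Ω b ∧ ∀ x, b x ≤ T (m x) := by
  have hne : ∀ n : ℕ, (Finset.range (n + 1)).Nonempty := fun n => ⟨0, by simp⟩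
  set T' : ℕ → ℝ := fun n => (Finset.range (n + 1)).inf' (hne n) T with hT'
  have hT'0 : ∀ n, 0 < T' n := fun n =>
    (Finset.lt_inf'_iff (hne n)).2 fun k _ => hT0 k
  have hT'anti : ∀ n k, n ≤ k → T' k ≤ T' n := fun n k hnk => by
    refine Finset.inf'_mono _ (fun j hj => ?_) _
    simp only [Finset.mem_range] at hj ⊢; omega
  refine ⟨fun x => T' (m x), ?_, fun x => Finset.inf'_le _ (by simp)⟩
  intro x hx
  obtain ⟨c, hc, hcy⟩ := hmb x hx
  obtain ⟨M, hM⟩ := exists_nat_gt (1 / c)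
  refine ⟨T' M, hT'0 M, hcy.mono fun y hy hyΩ => hT'anti _ _ ?_⟩
  have h2 := hy hyΩ
  rw [le_div_iff₀ (by positivity)] at h2
  rw [div_lt_iff₀ hc] at hM
  have h3 : ((m y : ℕ) : ℝ) + 1 < (M : ℝ) + 1 := by
    by_contra hcon
    push Not at hcon
    nlinarith
  have h4 : ((m y : ℕ) : ℝ) ≤ (M : ℝ) := by linarith
  exact_mod_cast h4

/-- small neighbourhoods of a relatively closed null set -/
theorem exists_small_nbhd [μ.IsAddHaarMeasure] {Ω Z : Set E} (hΩ : IsOpen Ω)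
    (hZne : Z.Nonempty) (hZc : ∀ x ∈ Ω, x ∉ Z → ∃ r > 0, ∀ y ∈ ball x r, y ∉ Z) (hZ0 : μ Z = 0)
    {W : E → ℝ≥0∞}
    (hW : ∀ x ∈ Ω, ∃ r > 0, ∃ M : ℝ≥0∞, M ≠ ⊤ ∧ ∀ y ∈ ball x r ∩ Ω, W y ≤ M)
    {ε : ℝ≥0∞} (hε : ε ≠ 0) :
    ∃ b : E → ℝ, LBB Ω b ∧ ∀ (D : Set E) (f : E → ℝ≥0∞),
      (∀ x ∈ D, x ∈ Ω ∧ infDist x Z ≤ b x ∧ f x ≤ W x) → ∫⁻ x in D, f x ∂μ ≤ ε := by
  have hprop : ProperSpace E := FiniteDimensional.proper_real E
  obtain ⟨K, hKc, hKΩ, m, hmK, hmb⟩ := exists_exhaustion hΩ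
  obtain ⟨ε', hε', hsum⟩ := ENNReal.exists_pos_sum_of_countable' hε ℕ
  have h1 : ∀ n, ∃ t : ℝ, 0 < t ∧ ∃ M : ℝ≥0∞, (∀ x ∈ K n, W x ≤ M) ∧
      M * μ (cthickening t Z ∩ K n) ≤ ε' n := by
    intro n
    obtain ⟨M, hM, hWM⟩ := exists_sup_compact hW (hKc n) (hKΩ n)
    obtain ⟨d, hd, hdM⟩ := ENNReal.exists_nnreal_pos_mul_lt hM (hε' n).ne'
    have hfin : IsFiniteMeasure (μ.restrict (K n)) := ⟨by
      rw [Measure.restrict_apply_univ]; exact (hKc n).measure_lt_top⟩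
    have ht : Tendsto (fun r => (μ.restrict (K n)) (cthickening r Z)) (𝓝 0)
        (𝓝 ((μ.restrict (K n)) (closure Z))) :=
      tendsto_measure_cthickening ⟨1, one_pos, measure_ne_top _ _⟩
    have h0 : (μ.restrict (K n)) (closure Z) = 0 := by
      rw [Measure.restrict_apply isClosed_closure.measurableSet]
      refine measure_mono_null ?_ hZ0
      rintro x ⟨hx1, hx2⟩
      by_contra hxZ
      obtain ⟨r, hr, hball⟩ := hZc x (hKΩ n hx2) hxZ
      obtain ⟨y, hy, hxy⟩ := Metric.mem_closure_iff.1 hx1 r hr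
      exact hball y (by rw [mem_ball, dist_comm]; exact hxy) hy
    rw [h0] at ht
    have hd' : (0 : ℝ≥0∞) < (d : ℝ≥0∞) := by exact_mod_cast hd
    have h2 : ∀ᶠ t : ℝ in 𝓝 0, (μ.restrict (K n)) (cthickening t Z) < d :=
      ht.eventually_lt_const hd'
    obtain ⟨t, ht1, ht2⟩ := ((h2.filter_mono nhdsWithin_le_nhds).and
      (self_mem_nhdsWithin : Ioi (0:ℝ) ∈ 𝓝[>] 0)).exists
    refine ⟨t, ht2, M, hWM, ?_⟩
    rw [Measure.restrict_apply isClosed_cthickening.measurableSet] at ht1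
    calc M * μ (cthickening t Z ∩ K n) ≤ M * d := by gcongr
      _ = d * M := mul_comm _ _
      _ ≤ ε' n := hdM.le
  choose t ht M hWM hMt using h1
  obtain ⟨b, hb, hbT⟩ := exists_lbb_le hmb ht
  refine ⟨b, hb, fun D f hD => ?_⟩
  set S : ℕ → Set E := fun n => {x | x ∈ D ∧ m x = n} with hS
  have hcov : D ⊆ ⋃ n, S n := fun x hx => mem_iUnion.2 ⟨m x, hx, rfl⟩
  calc ∫⁻ x in D, f x ∂μ ≤ ∫⁻ x in ⋃ n, S n, f x ∂μ := lintegral_mono_set hcov
    _ ≤ ∑' n, ∫⁻ x in S n, f x ∂μ := lintegral_iUnion_le _ _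
    _ ≤ ∑' n, ε' n := by
        refine ENNReal.tsum_le_tsum fun n => ?_
        calc ∫⁻ x in S n, f x ∂μ ≤ ∫⁻ x in S n, M n ∂μ := by
              refine setLIntegral_mono_ae aemeasurable_const (Eventually.of_forall fun x hx => ?_)
              obtain ⟨hxΩ, -, hfW⟩ := hD x hx.1
              have : x ∈ K n := by rw [← hx.2]; exact hmK x hxΩ
              exact hfW.trans (hWM n x this)
          _ = M n * μ (S n) := setLIntegral_const _ _
          _ ≤ M n * μ (cthickening (t n) Z ∩ K n) := by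
              gcongr
              intro x hx
              obtain ⟨hxΩ, hdist, -⟩ := hD x hx.1
              refine ⟨?_, by rw [← hx.2]; exact hmK x hxΩ⟩
              have h5 : infDist x Z ≤ t n := by rw [← hx.2]; exact hdist.trans (hbT x)
              rw [mem_cthickening_iff, ← ENNReal.ofReal_toReal (infEDist_ne_top hZne)]
              exact ENNReal.ofReal_le_ofReal h5
          _ ≤ ε' n := hMt n
    _ ≤ ε := hsum.le

/-- a locally finite (discrete, relatively closed) set is countable -/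
theorem countable_of_discrete {Ω V : Set E} (hV : V ⊆ Ω)
    (hVd : ∀ x ∈ Ω, ∃ r > 0, ball x r ∩ V ⊆ {x}) : V.Countable := by
  have hprop : ProperSpace E := FiniteDimensional.proper_real E
  have hdisc : DiscreteTopology V := by
    rw [discreteTopology_subtype_iff]
    intro x hx
    obtain ⟨r, hr, h⟩ := hVd x (hV hx)
    rw [← disjoint_iff]
    rw [disjoint_principal_right]
    rw [mem_nhdsWithin]
    refine ⟨ball x r, isOpen_ball, mem_ball_self hr, ?_⟩
    rintro y ⟨hy1, hy2⟩ hyV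
    exact hy2 (h ⟨hy1, hyV⟩)
  have : SecondCountableTopology E := inferInstance
  have : Countable V := TopologicalSpace.separableSpace_iff_countable.1 inferInstance
  exact this.to_set

/-- small neighbourhoods of a discrete set -/
theorem exists_small_pts [Nontrivial E] [μ.IsAddHaarMeasure] {Ω V : Set E} (hV : V ⊆ Ω)
    (hVd : ∀ x ∈ Ω, ∃ r > 0, ball x r ∩ V ⊆ {x}) {W : E → E → ℝ≥0∞}
    (hW : ∀ v ∈ V, ∃ r > 0, ∃ M : ℝ≥0∞, M ≠ ⊤ ∧ ∀ y ∈ ball v r, W v y ≤ M)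
    {ε : ℝ≥0∞} (hε : ε ≠ 0) :
    ∃ b : E → ℝ, LBB Ω b ∧ ∀ (D : Set E) (f : E → ℝ≥0∞),
      (∀ x ∈ D, ∃ v ∈ V, ‖x - v‖ ≤ b v ∧ f x ≤ W v x) → ∫⁻ x in D, f x ∂μ ≤ ε := by
  classical
  have hprop : ProperSpace E := FiniteDimensional.proper_real E
  have hVc : V.Countable := countable_of_discrete hV hVd
  have : Countable V := hVc.to_subtype
  obtain ⟨ε', hε', hsum⟩ := ENNReal.exists_pos_sum_of_countable' hε V
  have h1 : ∀ v : V, ∃ t : ℝ, 0 < t ∧ ∃ M : ℝ≥0∞, (∀ y ∈ closedBall (v : E) t, W v y ≤ M) ∧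
      M * μ (closedBall (v : E) t) ≤ ε' v := by
    intro v
    obtain ⟨r, hr, M, hM, hWM⟩ := hW v v.2
    obtain ⟨d, hd, hdM⟩ := ENNReal.exists_nnreal_pos_mul_lt hM (hε' v).ne'
    have ht : Tendsto (fun r => μ (cthickening r {(v : E)})) (𝓝 0) (𝓝 (μ (closure {(v : E)}))) :=
      tendsto_measure_cthickening ⟨1, one_pos, by
        rw [cthickening_singleton _ zero_le_one]; exact measure_closedBall_lt_top.ne⟩
    rw [closure_singleton, measure_singleton] at ht
    have hd' : (0 : ℝ≥0∞) < (d : ℝ≥0∞) := by exact_mod_cast hd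
    have h2 : ∀ᶠ t : ℝ in 𝓝 0, μ (cthickening t {(v : E)}) < d := ht.eventually_lt_const hd'
    have h3 : ∀ᶠ t : ℝ in 𝓝 0, t < r := eventually_lt_nhds hr
    obtain ⟨t, ⟨ht1, ht3⟩, ht2⟩ := (((h2.and h3).filter_mono nhdsWithin_le_nhds).and
      (self_mem_nhdsWithin : Ioi (0:ℝ) ∈ 𝓝[>] 0)).exists
    refine ⟨t, ht2, M, fun y hy => hWM y (closedBall_subset_ball ht3 hy), ?_⟩
    rw [cthickening_singleton _ (le_of_lt ht2)] at ht1
    calc M * μ (closedBall (v : E) t) ≤ M * d := by gcongr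
      _ = d * M := mul_comm _ _
      _ ≤ ε' v := hdM.le
  choose t ht M hWM hMt using h1
  refine ⟨fun x => if hx : x ∈ V then t ⟨x, hx⟩ else 1, ?_, fun D f hD => ?_⟩
  · intro x hx
    obtain ⟨r, hr, hrV⟩ := hVd x hx
    refine ⟨if hx : x ∈ V then min (t ⟨x, hx⟩) 1 else 1, ?_, ?_⟩
    · split_ifs with h
      · exact lt_min (ht _) one_pos
      · exact one_pos
    · filter_upwards [ball_mem_nhds x hr] with y hy _
      by_cases hyV : y ∈ V
      · have hyx : y = x := hrV ⟨hy, hyV⟩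
        subst hyx
        simp only [hyV, dif_pos]
        exact min_le_left _ _
      · simp only [hyV, dif_neg, not_false_eq_true]
        split_ifs with h
        · exact min_le_right _ _
        · exact le_rfl
  · set S : V → Set E := fun v => {x | x ∈ D ∧ ‖x - v‖ ≤ t v ∧ f x ≤ W v x} with hS
    have hcov : D ⊆ ⋃ v, S v := fun x hx => by
      obtain ⟨v, hv, h5, h6⟩ := hD x hx
      simp only [hv, dif_pos] at h5
      exact mem_iUnion.2 ⟨⟨v, hv⟩, hx, h5, h6⟩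
    calc ∫⁻ x in D, f x ∂μ ≤ ∫⁻ x in ⋃ n, S n, f x ∂μ := lintegral_mono_set hcov
      _ ≤ ∑' n, ∫⁻ x in S n, f x ∂μ := lintegral_iUnion_le _ _
      _ ≤ ∑' n, ε' n := by
          refine ENNReal.tsum_le_tsum fun n => ?_
          calc ∫⁻ x in S n, f x ∂μ ≤ ∫⁻ x in S n, M n ∂μ := by
                refine setLIntegral_mono_ae aemeasurable_const
                  (Eventually.of_forall fun x hx => ?_)
                refine hx.2.2.trans (hWM n x ?_)
                rw [mem_closedBall, dist_eq_norm]; exact hx.2.1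
            _ = M n * μ (S n) := setLIntegral_const _ _
            _ ≤ M n * μ (closedBall (n : E) (t n)) := by
                gcongr
                intro x hx
                rw [mem_closedBall, dist_eq_norm]; exact hx.2.1
            _ ≤ ε' n := hMt n
      _ ≤ ε := hsum.le

end Crest.Agent.R096.Asm_119
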