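import Crest.Agent.R096.Asm1_119
import Crest.Agent.R096.Fp1_812

/-!
# P5-ASM-B, part 2 (helper119, row 96): GERM + StageEdge + StageVertex + MOLL ⟹ P5 (raw form)
-/

set_option autoImplicit false
set_option linter.unusedSectionVars false

open MeasureTheory Metric Set Filter Topology
open scoped ENNReal NNReal ContDiff

namespace Crest.Agent.R096.Asm_119

open Crest.Agent.R096.Mo_119
open Crest.Agent.R096.P5Spec_205 (HomeoOn Germs StageEdge StageVertex Conic)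

section
variable {E : Type*} [NormedAddCommGroup E] [NormedSpace ℝ E]

/-- a continuous selection of finitely many linear maps is Lipschitz -/
theorem lip_of_sel {H : E → E} (hc : Continuous H) {S : Finset (E →L[ℝ] E)}
    (hS : ∀ x, ∃ A ∈ S, H x = A x) : ∃ M : ℝ≥0, LipschitzWith M H := by
  refine ⟨∑ A ∈ S, ‖A‖₊, LipschitzWith.of_dist_le_mul ?_⟩
  have key := Fp_812.dist_le_of_cover (fun A : S => {x | H x = A.1 x})
    (fun A => isClosed_eq hc A.1.continuous) (fun x => by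
      obtain ⟨A, hA, h⟩ := hS x
      exact ⟨⟨A, hA⟩, h⟩) H (∑ A ∈ S, ‖A‖) (fun A x hx y hy => by
      simp only [mem_ofPred_eq] at hx hy
      rw [hx, hy, dist_eq_norm, ← map_sub, dist_eq_norm]
      refine (A.1.le_opNorm _).trans (mul_le_mul_of_nonneg_right ?_ (norm_nonneg _))
      exact Finset.single_le_sum (f := fun A : E →L[ℝ] E => ‖A‖) (fun _ _ => norm_nonneg _) A.2)
  intro x y
  refine (key x y).trans (le_of_eq ?_)
  congr 1
  push_cast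
  rfl

end

section
variable {E : Type*} [NormedAddCommGroup E] [InnerProductSpace ℝ E] [FiniteDimensional ℝ E]
  [MeasureSpace E] [BorelSpace E] [(volume : Measure E).IsAddHaarMeasure]

theorem ae_diff_of_moll {h : E → E} {Om V : Set E}
    (hm : ∀ x ∈ Om, x ∉ V → P5Spec_205.MollAt h x) (hV : volume V = 0) :
    ∀ᵐ x ∂(volume : Measure E), x ∈ Om → DifferentiableAt ℝ h x := by
  set N : Set E := {x | x ∈ Om ∧ x ∉ V ∧ ¬ DifferentiableAt ℝ h x} with hN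
  have h0 : volume N = 0 := by
    refine measure_null_of_locally_null N fun x hx => ?_
    obtain ⟨r, hr, hae⟩ := (mollAt_iff.2 (hm x hx.1 hx.2.1)).ae_differentiable
    refine ⟨ball x r ∩ N, inter_mem (mem_nhdsWithin_of_mem_nhds (ball_mem_nhds x hr))
      self_mem_nhdsWithin, ?_⟩
    refine measure_mono_null ?_ (ae_iff.1 hae)
    rintro y ⟨hy1, hy2⟩
    simp only [mem_ofPred_eq, Classical.not_imp]
    exact ⟨hy1, hy2.2.2⟩
  have h1 : ∀ᵐ x ∂(volume : Measure E), x ∉ N := measure_eq_zero_iff_ae_notMem.1 h0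
  have h2 : ∀ᵐ x ∂(volume : Measure E), x ∉ V := measure_eq_zero_iff_ae_notMem.1 hV
  filter_upwards [h1, h2] with x hx1 hx2 hx
  by_contra hcon
  exact hx1 ⟨hx, hx2, hcon⟩

/-- local Lipschitz bound from the germs -/
theorem germs_lip {h : E → E} {Om V Z : Set E} {G : E → E → E} {e : E → E}
    (hG : Germs h Om V Z G e) : ∀ x ∈ Om, ∃ r > 0, ∃ M : ℝ≥0, LipschitzOnWith M h (ball x r) := by
  intro p hp
  obtain ⟨r, hr, hball, hr2⟩ := hG.germ p hp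
  obtain ⟨S, hS⟩ := hG.pl p hp
  obtain ⟨M, hM⟩ := lip_of_sel (hG.homeo p hp).continuous hS
  refine ⟨r, hr, M, LipschitzOnWith.of_dist_le_mul fun y hy z hz => ?_⟩
  have h1 := hr2 (y - p) (by rw [← dist_eq_norm]; exact hy)
  have h2 := hr2 (z - p) (by rw [← dist_eq_norm]; exact hz)
  rw [add_sub_cancel] at h1 h2
  rw [h1, h2, dist_add_left]
  refine (hM.dist_le_mul _ _).trans (le_of_eq ?_)
  rw [dist_sub_right]

theorem germs_discrete {h : E → E} {Om V Z : Set E} {G : E → E → E} {e : E → E}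
    (hG : Germs h Om V Z G e) : ∀ x ∈ Om, ∃ r > 0, ball x r ∩ V ⊆ {x} := by
  intro q hq
  obtain ⟨r, hr, hball, hr2⟩ := hG.germ q hq
  refine ⟨r, hr, ?_⟩
  rintro y ⟨hy1, hy2⟩
  by_contra hne
  have hne' : y - q ≠ 0 := sub_ne_zero.2 hne
  have := (hG.cone q hq r hr hball hr2 (y - q) hne' (by rw [← dist_eq_norm]; exact hy1)).1
  rw [add_sub_cancel] at this
  exact this hy2

theorem volume_countable [Nontrivial E] {V : Set E} (hV : V.Countable) :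
    volume V = 0 := hV.measure_zero _

theorem germs_null (hdim : 2 ≤ Module.finrank ℝ E) {h : E → E} {Om V Z : Set E}
    {G : E → E → E} {e : E → E} (hG : Germs h Om V Z G e) : volume Z = 0 := by
  have : Nontrivial E := Module.nontrivial_of_finrank_pos (R := ℝ) (by omega)
  have hV0 : volume V = 0 :=
    (countable_of_discrete (hG.V_sub.trans hG.Z_sub) (germs_discrete hG)).measure_zero _
  have h1 : volume (Z \ V) = 0 := by
    refine measure_null_of_locally_null _ fun p hp => ?_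
    have hpO := hG.Z_sub hp.1
    obtain ⟨r, hr, hball, hr2⟩ := hG.germ p hpO
    refine ⟨ball p r ∩ (Z \ V), inter_mem (mem_nhdsWithin_of_mem_nhds (ball_mem_nhds p hr))
      self_mem_nhdsWithin, ?_⟩
    set A : AffineSubspace ℝ E := AffineSubspace.mk' p (Submodule.span ℝ {e p}) with hA
    have hAt : A ≠ ⊤ := by
      intro htop
      have h3 : A.direction = ⊤ := by rw [htop]; exact AffineSubspace.direction_top ℝ E E
      rw [hA, AffineSubspace.direction_mk'] at h3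
      have h4 : Module.finrank ℝ (Submodule.span ℝ {e p}) ≤ 1 := by
        have := finrank_span_le_card (R := ℝ) ({e p} : Set E)
        simpa using this
      rw [h3, finrank_top] at h4
      omega
    refine measure_mono_null ?_ (Measure.addHaar_affineSubspace volume A hAt)
    rintro y ⟨hy1, hy2⟩
    have h5 := (hG.edge_line p hp.1 hp.2 r hr hball hr2 (y - p)
      (by rw [← dist_eq_norm]; exact hy1)).1
    rw [add_sub_cancel] at h5
    obtain ⟨s, hs⟩ := h5.1 hy2.1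
    rw [hA, SetLike.mem_coe, AffineSubspace.mem_mk', vsub_eq_sub, hs]
    exact Submodule.smul_mem _ _ (Submodule.mem_span_singleton_self _)
  exact measure_mono_null (fun x hx => by
    by_cases hxV : x ∈ V
    · exact Or.inl hxV
    · exact Or.inr ⟨hx, hxV⟩) (measure_union_null hV0 h1)

omit [FiniteDimensional ℝ E] [MeasureSpace E] [BorelSpace E]
  [(volume : Measure E).IsAddHaarMeasure] in
theorem enorm_fderiv_le {f : E → E} {x : E} {C : ℝ}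
    (h : ∃ r > 0, ∀ y ∈ ball x r, ∀ z ∈ ball x r, ‖f y - f z‖ ≤ C * ‖y - z‖) :
    ‖fderiv ℝ f x‖ₑ ≤ ENNReal.ofReal C := by
  obtain ⟨r, hr, h⟩ := h
  have hL : LipschitzOnWith C.toNNReal f (ball x r) := by
    refine LipschitzOnWith.of_dist_le_mul fun y hy z hz => ?_
    rw [dist_eq_norm, dist_eq_norm]
    exact (h y hy z hz).trans (mul_le_mul_of_nonneg_right (Real.le_coe_toNNReal C) (norm_nonneg _))
  have h1 := norm_fderiv_le_of_lipschitzOn ℝ (ball_mem_nhds x hr) hL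
  rw [← ofReal_norm]
  exact ENNReal.ofReal_le_ofReal_iff'.2 (by
    rw [Real.coe_toNNReal'] at h1
    rcases le_max_iff.1 h1 with h2 | h2
    · exact Or.inl h2
    · exact Or.inr h2)

omit [FiniteDimensional ℝ E] [MeasureSpace E] [BorelSpace E]
  [(volume : Measure E).IsAddHaarMeasure] in
theorem enorm_sub_rpow_le {p : ℝ} (hp : 1 ≤ p) (a b c : E →L[ℝ] E) :
    ‖a - c‖ₑ ^ p ≤ 2 ^ (p - 1) * (‖a - b‖ₑ ^ p + ‖b - c‖ₑ ^ p) := by
  have h1 : ‖a - c‖ₑ ≤ ‖a - b‖ₑ + ‖b - c‖ₑ := by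
    have : a - c = (a - b) + (b - c) := by abel
    rw [this]; exact enorm_add_le (a - b) (b - c)
  exact (ENNReal.rpow_le_rpow h1 (by linarith)).trans
    (ENNReal.rpow_add_le_mul_rpow_add_rpow _ _ hp)

/-- integral of the difference of the derivatives is carried by the set where the maps differ -/
theorem lintegral_diff_le {f g : E → E} {Om : Set E} (hOm : IsOpen Om)
    (hf : ContinuousOn f Om) (hg : ContinuousOn g Om)
    (hfd : ∀ᵐ x ∂(volume : Measure E), x ∈ Om → DifferentiableAt ℝ f x)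
    (hgd : ∀ᵐ x ∂(volume : Measure E), x ∈ Om → DifferentiableAt ℝ g x) {p : ℝ} (hp : 1 ≤ p) :
    ∫⁻ x in Om, ‖fderiv ℝ f x - fderiv ℝ g x‖ₑ ^ p ≤
      ∫⁻ x in {x | x ∈ Om ∧ f x ≠ g x}, ‖fderiv ℝ f x - fderiv ℝ g x‖ₑ ^ p := by
  set D : Set E := {x | x ∈ Om ∧ f x ≠ g x} with hD
  set D' : Set E := {x | x ∈ Om ∧ f x = g x} with hD'
  have hDo : IsOpen D := by
    have h1 : IsOpen (Om ∩ (fun x => (f x, g x)) ⁻¹' {q : E × E | q.1 ≠ q.2}) :=
      (hf.prodMk hg).isOpen_inter_preimage hOm (isOpen_ne_fun continuous_fst continuous_snd)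
    exact h1
  have hD'm : MeasurableSet D' := by
    have : D' = Om \ D := by
      ext x; simp only [hD', hD, mem_ofPred_eq, Set.mem_sdiff, ne_eq, not_and, not_not]
      tauto
    rw [this]; exact hOm.measurableSet.diff hDo.measurableSet
  have hun : Om ⊆ D' ∪ D := fun x hx => by
    by_cases h : f x = g x
    · exact Or.inl ⟨hx, h⟩
    · exact Or.inr ⟨hx, h⟩
  have h0 : ∫⁻ x in D', ‖fderiv ℝ f x - fderiv ℝ g x‖ₑ ^ p = 0 := by
    have h1 := ae_fderiv_eq_of_eq (μ := volume) hD'm (fun x hx => hx.2)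
      (hfd.mono fun x hx hx' => hx hx'.1) (hgd.mono fun x hx hx' => hx hx'.1)
    rw [setLIntegral_congr_fun_ae hD'm (g := fun _ => 0) (h1.mono fun x hx hx' => by
      rw [hx hx', sub_self, enorm_zero, ENNReal.zero_rpow_of_pos (by linarith)])]
    simp
  calc ∫⁻ x in Om, ‖fderiv ℝ f x - fderiv ℝ g x‖ₑ ^ p
      ≤ ∫⁻ x in D' ∪ D, ‖fderiv ℝ f x - fderiv ℝ g x‖ₑ ^ p := lintegral_mono_set hun
    _ ≤ (∫⁻ x in D', ‖fderiv ℝ f x - fderiv ℝ g x‖ₑ ^ p) +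
        ∫⁻ x in D, ‖fderiv ℝ f x - fderiv ℝ g x‖ₑ ^ p := lintegral_union_le _ _ _
    _ = _ := by rw [h0, zero_add]

/-- the conclusion of `StageEdge` for one homeomorphism with germ data -/
def EdgeOut (h : E → E) (Om La V Z : Set E) : Prop :=
    ∃ (C : E → ℝ) (K : E → E → E), (∀ x ∈ Om, ∃ r > 0, ∃ M, ∀ y ∈ ball x r ∩ Om, C y ≤ M) ∧
    ∀ η : E → ℝ, ContinuousOn η Om → (∀ x ∈ Om, 0 < η x) →
      ∃ h₂ : E → E, HomeoOn h₂ Om La ∧
        (∀ x ∈ Om, x ∉ V → P5Spec_205.MollAt h₂ x) ∧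
        (∀ v ∈ V, ∃ r > 0, ball v r ⊆ Om ∧ ∀ u, ‖u‖ < r → h₂ (v + u) = h₂ v + K v u) ∧
        (∀ v ∈ V, IsHomeomorph (K v) ∧ Conic (K v) ∧
          ∀ x, x ≠ 0 → P5Spec_205.MollAt (K v) x) ∧
        (∀ x ∈ Om, ‖h₂ x - h x‖ ≤ η x) ∧
        (∀ x ∈ Om, h₂ x ≠ h x → infDist x Z ≤ η x) ∧
        (∀ x ∈ Om, ∃ r > 0, ∀ y ∈ ball x r, ∀ z ∈ ball x r, ‖h₂ y - h₂ z‖ ≤ C x * ‖y - z‖)

/-- **P5-ASM-B, core form**: the edge stage is only needed for the given homeomorphism. -/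
theorem asm_core (hSV : StageVertex E) (hdim : 2 ≤ Module.finrank ℝ E)
    {h : E → E} {Om La V Z : Set E} {G : E → E → E} {e : E → E}
    (hOm : IsOpen Om) (hLa : IsOpen La) (hLc : IsPreconnected La) (hh : HomeoOn h Om La)
    (hG : Germs h Om V Z G e) (hZc : ∀ x ∈ Om, x ∉ Z → ∃ r > 0, ∀ y ∈ ball x r, y ∉ Z)
    (hEO : EdgeOut h Om La V Z)
    {δ : E → ℝ} (hδc : ContinuousOn δ Om) (hδ : ∀ x ∈ Om, 0 < δ x) {p : ℝ} (hp : 1 ≤ p)
    {ε : ℝ≥0∞} (hε : ε ≠ 0) :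
    ∃ g : E → E, ContDiffOn ℝ ∞ g Om ∧ (∀ x ∈ Om, 0 < (fderiv ℝ g x).det) ∧ BijOn g Om La ∧
      (∀ x ∈ Om, ‖g x - h x‖ ≤ δ x) ∧
      ∫⁻ x in Om, ‖fderiv ℝ g x - fderiv ℝ h x‖ₑ ^ p ≤ ε := by
  have hNt : Nontrivial E := Module.nontrivial_of_finrank_pos (R := ℝ) (by omega)
  have hp0 : 0 < p := by linarith
  -- the tolerance
  set κ : ℝ≥0∞ := 2 ^ (p - 1) with hκ
  have hκt : κ ≠ ⊤ := ENNReal.rpow_ne_top_of_nonneg (by linarith) (by norm_num)
  have hκ' : κ * (1 + κ * 2) ≠ ⊤ := by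
    refine ENNReal.mul_ne_top hκt (ENNReal.add_ne_top.2 ⟨ENNReal.one_ne_top,
      ENNReal.mul_ne_top hκt (by norm_num)⟩)
  obtain ⟨t, ht, htε⟩ := ENNReal.exists_nnreal_pos_mul_lt hκ' hε
  have ht0 : (t : ℝ≥0∞) ≠ 0 := by exact_mod_cast ht.ne'
  have hδ3c : ContinuousOn (fun x => δ x / 3) Om := hδc.div_const 3
  have hδ3 : ∀ x ∈ Om, 0 < δ x / 3 := fun x hx => by have := hδ x hx; positivity
  have hVO : V ⊆ Om := hG.V_sub.trans hG.Z_sub
  have hVd := germs_discrete hG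
  have hV0 : volume V = 0 := (countable_of_discrete hVO hVd).measure_zero _
  have hZ0 : volume Z = 0 := germs_null hdim hG
  by_cases hZne : Z.Nonempty
  swap
  · rw [not_nonempty_iff_eq_empty] at hZne
    exact moll_homeoOn hOm hLa hLc hh (fun x hx => hG.moll x hx (by rw [hZne]; exact notMem_empty x))
      hδc hδ hp hε
  -- stage 1: edges
  obtain ⟨C, K, hC, hη⟩ := hEO
  have hC' : ∀ x ∈ Om, ∃ r > 0, ∃ M : ℝ≥0∞, M ≠ ⊤ ∧ ∀ y ∈ ball x r ∩ Om,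
      ENNReal.ofReal (C y) ≤ M := by
    intro x hx
    obtain ⟨r, hr, M, hM⟩ := hC x hx
    exact ⟨r, hr, ENNReal.ofReal M, ENNReal.ofReal_ne_top, fun y hy =>
      ENNReal.ofReal_le_ofReal (hM y hy)⟩
  have hDh : ∀ x ∈ Om, ∃ r > 0, ∃ M : ℝ≥0, ∀ y ∈ ball x r, ‖fderiv ℝ h y‖ₑ ≤ M := by
    intro x hx
    obtain ⟨r, hr, M, hM⟩ := germs_lip hG x hx
    refine ⟨r, hr, M, fun y hy => ?_⟩
    have h1 := norm_fderiv_le_of_lipschitzOn ℝ (isOpen_ball.mem_nhds hy) hM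
    rw [← ofReal_norm, ← ENNReal.ofReal_coe_nnreal]
    exact ENNReal.ofReal_le_ofReal h1
  have stage1 : ∃ h₂ : E → E, HomeoOn h₂ Om La ∧
        (∀ x ∈ Om, x ∉ V → P5Spec_205.MollAt h₂ x) ∧
        (∀ v ∈ V, ∃ r > 0, ball v r ⊆ Om ∧ ∀ u, ‖u‖ < r → h₂ (v + u) = h₂ v + K v u) ∧
        (∀ v ∈ V, IsHomeomorph (K v) ∧ Conic (K v) ∧
          ∀ x, x ≠ 0 → P5Spec_205.MollAt (K v) x) ∧
        (∀ x ∈ Om, ‖h₂ x - h x‖ ≤ δ x / 3) ∧
        (∀ x ∈ Om, ‖fderiv ℝ h₂ x‖ₑ ≤ ENNReal.ofReal (C x)) ∧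
        ∫⁻ x in Om, ‖fderiv ℝ h₂ x - fderiv ℝ h x‖ₑ ^ p ≤ t := by
    have hdh : ∀ᵐ x ∂(volume : Measure E), x ∈ Om → DifferentiableAt ℝ h x :=
      ae_diff_of_moll hG.moll hZ0
    set W : E → ℝ≥0∞ := fun x => (ENNReal.ofReal (C x) + ‖fderiv ℝ h x‖ₑ) ^ p with hW
    have hWb : ∀ x ∈ Om, ∃ r > 0, ∃ M : ℝ≥0∞, M ≠ ⊤ ∧ ∀ y ∈ ball x r ∩ Om, W y ≤ M := by
      intro x hx
      obtain ⟨r₁, hr₁, M₁, hM₁, h1⟩ := hC' x hx
      obtain ⟨r₂, hr₂, M₂, h2⟩ := hDh x hx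
      refine ⟨min r₁ r₂, lt_min hr₁ hr₂, (M₁ + M₂) ^ p,
        ENNReal.rpow_ne_top_of_nonneg hp0.le (ENNReal.add_ne_top.2 ⟨hM₁, ENNReal.coe_ne_top⟩),
        fun y hy => ?_⟩
      have h3 := h1 y ⟨ball_subset_ball (min_le_left _ _) hy.1, hy.2⟩
      have h4 := h2 y (ball_subset_ball (min_le_right _ _) hy.1)
      simp only [hW]
      gcongr
    obtain ⟨b, hb, hbD⟩ := exists_small_nbhd (μ := volume) hOm hZne hZc hZ0 hWb ht0
    obtain ⟨η, hηs, -, hηpos, hηb, -, -⟩ := exists_radius hOm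
      (hb.inf_min (LBB.of_continuousOn hOm hδ3c hδ3))
    obtain ⟨h₂, k1, k2, k3, k4, k5, k6, k7⟩ := hη η hηs.continuous.continuousOn hηpos
    have k7' : ∀ x ∈ Om, ‖fderiv ℝ h₂ x‖ₑ ≤ ENNReal.ofReal (C x) := fun x hx =>
      enorm_fderiv_le (k7 x hx)
    refine ⟨h₂, k1, k2, k3, k4, fun x hx => (k5 x hx).trans ((hηb x hx).trans
      (min_le_right _ _)), k7', ?_⟩
    refine (lintegral_diff_le hOm k1.cont hh.cont (ae_diff_of_moll k2 hV0) hdh hp).trans ?_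
    refine hbD _ _ fun x hx => ⟨hx.1, (k6 x hx.1 hx.2).trans ((hηb x hx.1).trans
      (min_le_left _ _)), ?_⟩
    simp only [hW]
    gcongr
    exact enorm_sub_le.trans (add_le_add (k7' x hx.1) le_rfl)
  obtain ⟨h₂, k1, k2, k3, k4, k5, k6, k7⟩ := stage1
  -- stage 2: vertices
  obtain ⟨C₃, hC₃⟩ := hSV h₂ Om La V K hOm hLa k1 hVO hVd k2 k3 k4
  obtain ⟨b, hb, hbD⟩ := exists_small_pts (μ := volume) hVO hVd
    (W := fun v x => (ENNReal.ofReal (C₃ v) + (ENNReal.ofReal (C x) + indicator Omᶜ (fun _ => ⊤) x)) ^ p)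
    (fun v hv => by
      obtain ⟨r, hr, M, hM, h1⟩ := hC' v (hVO hv)
      obtain ⟨s, hs, hsO⟩ := Metric.isOpen_iff.1 hOm v (hVO hv)
      refine ⟨min r s, lt_min hr hs, (ENNReal.ofReal (C₃ v) + (M + 0)) ^ p,
        ENNReal.rpow_ne_top_of_nonneg hp0.le (ENNReal.add_ne_top.2 ⟨ENNReal.ofReal_ne_top,
          ENNReal.add_ne_top.2 ⟨hM, ENNReal.zero_ne_top⟩⟩), fun y hy => ?_⟩
      have hyO : y ∈ Om := hsO (ball_subset_ball (min_le_right _ _) hy)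
      have h3 := h1 y ⟨ball_subset_ball (min_le_left _ _) hy, hyO⟩
      rw [indicator_of_notMem (by simpa using hyO)]
      gcongr) ht0
  obtain ⟨η, hηs, -, hηpos, hηb, -, -⟩ := exists_radius hOm
    (hb.inf_min (LBB.of_continuousOn hOm hδ3c hδ3))
  obtain ⟨h₃, l1, l2, l3, l4⟩ := hC₃ η hηs.continuous.continuousOn hηpos
  have l5 : ∫⁻ x in Om, ‖fderiv ℝ h₃ x - fderiv ℝ h₂ x‖ₑ ^ p ≤ t := by
    refine (lintegral_diff_le hOm l1.cont k1.cont
      (ae_diff_of_moll (V := ∅) (fun x hx _ => l2 x hx) measure_empty)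
      (ae_diff_of_moll k2 hV0) hp).trans ?_
    refine hbD _ _ fun x hx => ?_
    obtain ⟨v, hv, -, h2, h3⟩ := l4 x hx.1 hx.2
    refine ⟨v, hv, h2.trans ((hηb v (hVO hv)).trans (min_le_left _ _)), ?_⟩
    rw [indicator_of_notMem (by simpa using hx.1), add_zero]
    gcongr
    exact enorm_sub_le.trans (add_le_add (enorm_fderiv_le h3) (k6 x hx.1))
  -- stage 3: mollification
  obtain ⟨g, g1, g2, g3, g4, g5⟩ := moll_homeoOn hOm hLa hLc l1 l2 hδ3c hδ3 hp ht0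
  refine ⟨g, g1, g2, g3, fun x hx => ?_, ?_⟩
  · have e1 := g4 x hx
    have e2 := (l3 x hx).trans ((hηb x hx).trans (min_le_right _ _))
    have e3 := k5 x hx
    calc ‖g x - h x‖ = ‖(g x - h₃ x) + (h₃ x - h₂ x) + (h₂ x - h x)‖ := by congr 1; abel
      _ ≤ ‖g x - h₃ x‖ + ‖h₃ x - h₂ x‖ + ‖h₂ x - h x‖ := norm_add₃_le
      _ ≤ δ x / 3 + δ x / 3 + δ x / 3 := by gcongr
      _ = δ x := by ring
  · have hm : ∀ f : E → E, Measurable fun x => fderiv ℝ f x := fun f => measurable_fderiv ℝ f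
    have hm2 : ∀ f₁ f₂ : E → E, Measurable fun x => ‖fderiv ℝ f₁ x - fderiv ℝ f₂ x‖ₑ ^ p :=
      fun f₁ f₂ => ((hm f₁).sub (hm f₂)).enorm.pow_const p
    calc ∫⁻ x in Om, ‖fderiv ℝ g x - fderiv ℝ h x‖ₑ ^ p
        ≤ ∫⁻ x in Om, κ * (‖fderiv ℝ g x - fderiv ℝ h₃ x‖ₑ ^ p +
            κ * (‖fderiv ℝ h₃ x - fderiv ℝ h₂ x‖ₑ ^ p +
              ‖fderiv ℝ h₂ x - fderiv ℝ h x‖ₑ ^ p)) := by
          refine lintegral_mono fun x => ?_
          refine (enorm_sub_rpow_le hp _ (fderiv ℝ h₃ x) _).trans ?_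
          gcongr
          exact enorm_sub_rpow_le hp _ (fderiv ℝ h₂ x) _
      _ = κ * ((∫⁻ x in Om, ‖fderiv ℝ g x - fderiv ℝ h₃ x‖ₑ ^ p) +
            κ * ((∫⁻ x in Om, ‖fderiv ℝ h₃ x - fderiv ℝ h₂ x‖ₑ ^ p) +
              ∫⁻ x in Om, ‖fderiv ℝ h₂ x - fderiv ℝ h x‖ₑ ^ p)) := by
          rw [lintegral_const_mul' _ _ hκt, lintegral_add_left (hm2 _ _),
            lintegral_const_mul' _ _ hκt, lintegral_add_left (hm2 _ _)]
      _ ≤ κ * (t + κ * (t + t)) := by gcongr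
      _ = t * (κ * (1 + κ * 2)) := by ring
      _ ≤ ε := htε.le

/-- **P5-ASM-B**: the P5 step from the germs, the two stages and the mollification theorem. -/
theorem asm (hSE : StageEdge E) (hSV : StageVertex E) (hdim : 2 ≤ Module.finrank ℝ E)
    {h : E → E} {Om La V Z : Set E} {G : E → E → E} {e : E → E}
    (hOm : IsOpen Om) (hLa : IsOpen La) (hLc : IsPreconnected La) (hh : HomeoOn h Om La)
    (hG : Germs h Om V Z G e) (hZc : ∀ x ∈ Om, x ∉ Z → ∃ r > 0, ∀ y ∈ ball x r, y ∉ Z)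
    {δ : E → ℝ} (hδc : ContinuousOn δ Om) (hδ : ∀ x ∈ Om, 0 < δ x) {p : ℝ} (hp : 1 ≤ p)
    {ε : ℝ≥0∞} (hε : ε ≠ 0) :
    ∃ g : E → E, ContDiffOn ℝ ∞ g Om ∧ (∀ x ∈ Om, 0 < (fderiv ℝ g x).det) ∧ BijOn g Om La ∧
      (∀ x ∈ Om, ‖g x - h x‖ ≤ δ x) ∧
      ∫⁻ x in Om, ‖fderiv ℝ g x - fderiv ℝ h x‖ₑ ^ p ≤ ε :=
  asm_core hSV hdim hOm hLa hLc hh hG hZc (hSE h Om La V Z G e hOm hLa hh hG) hδc hδ hp hε

end

end Crest.Agent.R096.Asm_119
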