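import Crest.Agent.R096.Str4_696

/-!
Row 96 (S0127), helper696.  ORIENT: a locally PL injective map of a connected open set has
determinants of one sign.
-/

set_option autoImplicit false
set_option linter.unusedSectionVars false
set_option linter.style.longLine false

namespace Crest.Agent.R096.Str_696

open Set Filter Topology Metric Module MeasureTheory
open scoped Classical

variable {E : Type*} [NormedAddCommGroup E] [NormedSpace ℝ E] [FiniteDimensional ℝ E]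

/-- all affine points near `q` have `0 < σ * det`. -/
def Sg (σ : ℝ) (h : E → E) : Set E := {q | ∀ᶠ y in 𝓝 q, ∀ A, AffAt h y A → 0 < σ * A.det}

lemma isOpen_Sg (σ : ℝ) (h : E → E) : IsOpen (Sg σ h) := isOpen_setOfPred_eventually_nhds

/-- affine points are dense. -/
lemma LocPL.frequently_aff {F : Type*} [NormedAddCommGroup F] [NormedSpace ℝ F]
    [FiniteDimensional ℝ F] {h : E → F} {Ω : Set E} (hh : LocPL h Ω) {x : E} (hx : x ∈ Ω) :
    ∃ᶠ y in 𝓝 x, ∃ A, AffAt h y A := by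
  obtain ⟨r, S, H, L, hr, hH, hh', hL⟩ := hh.germ hx
  set T := L.filter fun f => f ≠ 0 with hT
  have hd := dense_diff (C := ball (0 : E) r) isOpen_ball T
    (fun f => LinearMap.ker (f : E →ₗ[ℝ] ℝ)) (by
      intro f hf htop
      have hf0 : f ≠ 0 := (Finset.mem_filter.1 hf).2
      apply hf0
      ext z
      have : z ∈ LinearMap.ker (f : E →ₗ[ℝ] ℝ) := by rw [htop]; trivial
      simpa using this) (mem_ball_self hr)
  have h1 : ∃ᶠ v in 𝓝 (0 : E), v ∈ ball (0 : E) r \ ⋃ f ∈ T,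
      ((LinearMap.ker (f : E →ₗ[ℝ] ℝ) : Submodule ℝ E) : Set E) := mem_closure_iff_frequently.1 hd
  have h2 : ∃ᶠ v in 𝓝 (0 : E), ∃ A, AffAt h (x + v) A := by
    refine h1.mono fun v hv => ?_
    have hv1 : ‖v‖ < r := mem_ball_zero_iff.1 hv.1
    obtain ⟨A, -, hA⟩ := affAt_of_forms hH hL (v := v) (by
      intro f hf hf0 hfv
      apply hv.2
      simp only [mem_iUnion]
      exact ⟨f, Finset.mem_filter.2 ⟨hf, hf0⟩, by simpa using hfv⟩)
    exact ⟨A, hA.of_germ hh' hv1⟩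
  have h3 : Tendsto (fun v : E => x + v) (𝓝 0) (𝓝 x) := by
    have : Continuous fun v : E => x + v := continuous_const.add continuous_id
    have := this.tendsto 0
    simpa using this
  exact h3.frequently h2

/-- `Sg 1` and `Sg (-1)` are disjoint on `Ω`. -/
lemma Sg_disj {h : E → E} {Ω : Set E} (hh : LocPL h Ω) {x : E} (hx : x ∈ Ω)
    (h1 : x ∈ Sg 1 h) (h2 : x ∈ Sg (-1) h) : False := by
  obtain ⟨y, ⟨A, hA⟩, hy1, hy2⟩ := ((hh.frequently_aff hx).and_eventually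
    ((show ∀ᶠ y in 𝓝 x, ∀ A, AffAt h y A → 0 < 1 * A.det from h1).and
      (show ∀ᶠ y in 𝓝 x, ∀ A, AffAt h y A → 0 < (-1) * A.det from h2))).exists
  have e1 := hy1 A hA
  have e2 := hy2 A hA
  linarith

lemma mem_Sg_of_aff {h : E → E} {Ω : Set E} (hΩ : IsOpen Ω) (hi : InjOn h Ω) {x : E}
    (hx : x ∈ Ω) {A : E →L[ℝ] E} (hA : AffAt h x A) : x ∈ Sg 1 h ∪ Sg (-1) h := by
  have hdet := hA.det_ne (hΩ.mem_nhds hx) hi
  have hev : ∀ᶠ y in 𝓝 x, ∀ A', AffAt h y A' → A' = A := by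
    filter_upwards [hA.eventually] with y hy A' hA'
    exact hA'.unique hy
  rcases lt_or_gt_of_ne hdet with h0 | h0
  · right
    show ∀ᶠ y in 𝓝 x, ∀ A, AffAt h y A → 0 < (-1) * A.det
    filter_upwards [hev] with y hy A' hA'
    rw [hy A' hA']; linarith
  · left
    show ∀ᶠ y in 𝓝 x, ∀ A, AffAt h y A → 0 < 1 * A.det
    filter_upwards [hev] with y hy A' hA'
    rw [hy A' hA']; linarith

lemma mem_Sg_of_two {h : E → E} {Ω : Set E} (hΩ : IsOpen Ω) (hi : InjOn h Ω) {x : E}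
    (hx : x ∈ Ω) {f : E →L[ℝ] ℝ} (hf : f ≠ 0) {A B : E →L[ℝ] E} (hT : TwoAt h x f A B) :
    x ∈ Sg 1 h ∪ Sg (-1) h := by
  obtain ⟨hdet, lam, hlam, hseg⟩ := hT.det hf (hΩ.mem_nhds hx) hi
  have hB : B.det = A.det * lam := by
    have := hseg 1
    simp only [sub_self, zero_smul, one_smul, zero_add, one_mul] at this
    rw [this]; ring
  rcases lt_or_gt_of_ne hdet with h0 | h0
  · right
    show ∀ᶠ y in 𝓝 x, ∀ A, AffAt h y A → 0 < (-1) * A.det
    filter_upwards [hT.mem_pair hf] with y hy A' hA'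
    rcases hy A' hA' with rfl | rfl
    · linarith
    · rw [hB]; nlinarith
  · left
    show ∀ᶠ y in 𝓝 x, ∀ A, AffAt h y A → 0 < 1 * A.det
    filter_upwards [hT.mem_pair hf] with y hy A' hA'
    rcases hy A' hA' with rfl | rfl
    · linarith
    · rw [hB]; nlinarith

/-- every point of `Ω` has a sign. -/
lemma mem_Sg {h : E → E} {Ω : Set E} (hΩ : IsOpen Ω) (hh : LocPL h Ω) (hi : InjOn h Ω) {x : E}
    (hx : x ∈ Ω) : x ∈ Sg 1 h ∪ Sg (-1) h := by
  obtain ⟨r₀, S, H, L, hr₀, hH, hh', hL⟩ := hh.germ hx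
  obtain ⟨T, hT, hTv⟩ := exists_codim_two hH hL
  obtain ⟨r₁, hr₁, hsub⟩ := Metric.isOpen_iff.1 hΩ x hx
  set r := min r₀ r₁ with hr
  have hr0 : 0 < r := lt_min hr₀ hr₁
  have hxv : ∀ v ∈ ball (0 : E) r, ‖v‖ < r₀ ∧ x + v ∈ Ω := by
    intro v hv
    have hv1 : ‖v‖ < r := mem_ball_zero_iff.1 hv
    refine ⟨hv1.trans_le (min_le_left _ _), hsub ?_⟩
    rw [mem_ball_iff_norm, add_sub_cancel_left]
    exact hv1.trans_le (min_le_right _ _)
  set C : Set E := ball (0 : E) r \ ⋃ W ∈ T, (W : Set E) with hC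
  have hCpre : IsPreconnected C :=
    isPreconnected_diff_codim_two (convex_ball 0 r) isOpen_ball T (fun W => W) hT
  have hmem : ∀ v ∈ C, x + v ∈ Sg 1 h ∪ Sg (-1) h := by
    intro v hv
    obtain ⟨hv1, hv2⟩ := hxv v hv.1
    rcases hTv v hv.2 with ⟨A, -, hA⟩ | ⟨f, hf, A, -, B, -, hAB⟩
    · exact mem_Sg_of_aff hΩ hi hv2 (hA.of_germ hh' hv1)
    · exact mem_Sg_of_two hΩ hi hv2 hf (hAB.of_germ hh' hv1)
  have hcont : Continuous fun v : E => x + v := continuous_const.add continuous_id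
  have hpre : ∀ σ : ℝ, IsOpen ((fun v : E => x + v) ⁻¹' Sg σ h) := fun σ =>
    (isOpen_Sg σ h).preimage hcont
  -- `C` has one sign
  have hone : (∀ v ∈ C, x + v ∈ Sg 1 h) ∨ (∀ v ∈ C, x + v ∈ Sg (-1) h) := by
    by_contra hcon
    push Not at hcon
    obtain ⟨⟨v, hv, hv'⟩, ⟨w, hw, hw'⟩⟩ := hcon
    have hv'' : x + v ∈ Sg (-1) h := (hmem v hv).resolve_left hv'
    have hw'' : x + w ∈ Sg 1 h := (hmem w hw).resolve_right hw'
    obtain ⟨z, hz, hz1, hz2⟩ := hCpre _ _ (hpre 1) (hpre (-1)) (fun v hv => hmem v hv)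
      ⟨w, hw, hw''⟩ ⟨v, hv, hv''⟩
    exact Sg_disj hh (hxv z hz.1).2 hz1 hz2
  have hTtop : ∀ W ∈ T, W ≠ ⊤ := by
    intro W hW htop
    have := hT W hW
    rw [htop, finrank_top] at this
    omega
  -- extend to `x`
  have hext : ∀ σ : ℝ, (∀ v ∈ C, x + v ∈ Sg σ h) → x ∈ Sg σ h := by
    intro σ hσ
    show ∀ᶠ y in 𝓝 x, ∀ A, AffAt h y A → 0 < σ * A.det
    filter_upwards [ball_mem_nhds x hr0] with y hy A hA
    have hyv : y - x ∈ ball (0 : E) r := by
      rw [mem_ball_zero_iff]; exact mem_ball_iff_norm.1 hy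
    have hd := dense_diff (C := ball (0 : E) r) isOpen_ball T (fun W => W) hTtop hyv
    have h1 : ∃ᶠ v in 𝓝 (y - x), v ∈ C := mem_closure_iff_frequently.1 hd
    have h2 : Tendsto (fun v : E => x + v) (𝓝 (y - x)) (𝓝 y) := by
      have := hcont.tendsto (y - x)
      simpa using this
    obtain ⟨v, hv, hvA⟩ := (h1.and_eventually (h2.eventually hA.eventually)).exists
    have h3 : ∀ᶠ y in 𝓝 (x + v), ∀ A, AffAt h y A → 0 < σ * A.det := hσ v hv
    exact h3.self_of_nhds A hvA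
  rcases hone with h1 | h1
  · exact Or.inl (hext 1 h1)
  · exact Or.inr (hext (-1) h1)

/-- **ORIENT.** -/
theorem orient {h : E → E} {Ω : Set E} (hΩ : IsOpen Ω) (hΩc : IsPreconnected Ω)
    (hh : LocPL h Ω) (hi : InjOn h Ω) :
    (∀ x ∈ Ω, ∀ A, AffAt h x A → 0 < A.det) ∨ (∀ x ∈ Ω, ∀ A, AffAt h x A → A.det < 0) := by
  have hone : (Ω ⊆ Sg 1 h) ∨ (Ω ⊆ Sg (-1) h) := by
    by_contra hcon
    push Not at hcon
    obtain ⟨h1, h2⟩ := hcon
    rw [not_subset] at h1 h2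
    obtain ⟨v, hv, hv'⟩ := h1
    obtain ⟨w, hw, hw'⟩ := h2
    obtain ⟨z, hz, hz1, hz2⟩ := hΩc _ _ (isOpen_Sg 1 h) (isOpen_Sg (-1) h)
      (fun v hv => mem_Sg hΩ hh hi hv)
      ⟨w, hw, (mem_Sg hΩ hh hi hw).resolve_right hw'⟩
      ⟨v, hv, (mem_Sg hΩ hh hi hv).resolve_left hv'⟩
    exact Sg_disj hh hz hz1 hz2
  rcases hone with h1 | h1
  · left
    intro x hx A hA
    have h2 : ∀ᶠ y in 𝓝 x, ∀ A, AffAt h y A → 0 < 1 * A.det := h1 hx
    have := h2.self_of_nhds A hA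
    linarith
  · right
    intro x hx A hA
    have h2 : ∀ᶠ y in 𝓝 x, ∀ A, AffAt h y A → 0 < (-1) * A.det := h1 hx
    have := h2.self_of_nhds A hA
    linarith

end Crest.Agent.R096.Str_696
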