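import Crest.Agent.R096.GermS_879
import Crest.Agent.R096.Str5_696
import Crest.Prelude.Def_SobolevMap

/-!
Row 96 (S0127), helper879.  P5-GERM: bridge from helper696's selection language (`LocPL`, `AffAt`) to the
locally conical language, and the germ data of a locally PL homeomorphism of open subsets of `R3`.
-/

set_option autoImplicit false
set_option linter.unusedSectionVars false
set_option linter.style.longLine false

open Set Metric MeasureTheory Filter Topology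
open scoped NNReal

namespace Crest.Agent.R096.Germ_879

open Crest.Agent.R096.Str_696 (LocPL AffAt)

section bridge

variable {E F : Type*} [NormedAddCommGroup E] [NormedSpace ℝ E] [NormedAddCommGroup F] [NormedSpace ℝ F]

/-- locally PL maps are locally conical. -/
theorem locConical_of_locPL [FiniteDimensional ℝ E] {h : E → F} {Ω : Set E} (hh : LocPL h Ω) : LocConical h Ω := by
  intro x hx
  obtain ⟨r, S, H, hr, hH, hv⟩ := hh.conic hx
  exact ⟨r, hr, conR_of_eq (H := H) (fun c hc v => hH.homog c v hc) hv⟩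

theorem continuousOn_of_locPL {h : E → F} {Ω : Set E} (hh : LocPL h Ω) : ContinuousOn h Ω := by
  intro x hx
  obtain ⟨r, hr, S, hc, -⟩ := hh x hx
  exact (hc.continuousAt (ball_mem_nhds x hr)).continuousWithinAt

/-- `AffAt` in terms of the germ. -/
theorem ConAt.affAt_iff {h : E → F} {x : E} (hx : ConAt h x) {A : E →L[ℝ] F} : AffAt h x A ↔ germ h x = A := by
  constructor
  · intro hA
    obtain ⟨r, hr, hball⟩ := Metric.eventually_nhds_iff_ball.1 hA
    refine germ_eq_of hr (fun c _ v => by rw [map_smul]) fun v hv => ?_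
    have := hball (x + v) (by rwa [mem_ball, dist_eq_norm, add_sub_cancel_left])
    rwa [add_sub_cancel_left] at this
  · intro e
    have := hx.eventually
    rw [e] at this
    exact this

end bridge

section main

variable {E : Type*} [NormedAddCommGroup E] [InnerProductSpace ℝ E] [MeasureSpace E] [BorelSpace E]
  [FiniteDimensional ℝ E] [(volume : Measure E).IsAddHaarMeasure]

/-- **GERM** for helper696's locally PL homeomorphisms. -/
theorem germs_of_locPL {h : E → E} {Ω Λ : Set E} (hfin : Module.finrank ℝ E = 3) (hΩ : IsOpen Ω) (hΛ : IsOpen Λ)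
    (H : P5Spec_205.HomeoOn h Ω Λ) (hh : LocPL h Ω)
    (hdet : ∀ y ∈ Ω, ∀ A : E →L[ℝ] E, AffAt h y A → 0 < A.det) :
    P5Spec_205.Germs h Ω (VSet h Ω) (ZSet h Ω) (germ h) (fun p => dir (germ h p)) ∧
      (∀ x ∈ Ω, x ∉ ZSet h Ω → ∃ r > 0, ∀ y ∈ ball x r, y ∉ ZSet h Ω) ∧ volume (ZSet h Ω) = 0 ∧
      (∀ x ∈ Ω, ∃ r > 0, ball x r ∩ VSet h Ω ⊆ {x}) := by
  have hc := locConical_of_locPL hh
  exact germs_of hfin hΩ hΛ H hc fun y hy A hA => hdet y hy A ((hc.conAt hy).affAt_iff.2 hA)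

/-- every point of a locally PL homeomorphism off `ZSet` is in the class `MollAt`. -/
theorem mollAt_of_locPL {h : E → E} {Ω : Set E} (hfin : Module.finrank ℝ E = 3) (hΩ : IsOpen Ω)
    (hh : LocPL h Ω) (hdet : ∀ y ∈ Ω, ∀ A : E →L[ℝ] E, AffAt h y A → 0 < A.det) {x : E} (hx : x ∈ Ω)
    (hxZ : x ∉ ZSet h Ω) : P5Spec_205.MollAt h x := by
  have hc := locConical_of_locPL hh
  refine mollAt_of_codim_le_one hΩ hc (continuousOn_of_locPL hh)
    (fun y hy A hA => hdet y hy A ((hc.conAt hy).affAt_iff.2 hA)) hx ?_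
  by_contra hcon
  exact hxZ ⟨hx, by omega⟩

end main

open Crest.AnalysisR.Sobolev in
theorem homeoOn_of_isHomeomorphOn {h : Crest.AnalysisR.VecCalc3.R3 → Crest.AnalysisR.VecCalc3.R3}
    {Ω Λ : Set Crest.AnalysisR.VecCalc3.R3} (H : IsHomeomorphOn h Ω Λ) : P5Spec_205.HomeoOn h Ω Λ := by
  obtain ⟨k, h1, h2, h3, h4, h5, h6⟩ := H
  refine ⟨⟨h1, fun x hx y hy e => ?_, fun y hy => ⟨k y, h2 hy, h4 y hy⟩⟩, h5, k, h6, h3⟩
  rw [← h3 x hx, ← h3 y hy, e]

open Crest.AnalysisR.Sobolev in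
theorem isHomeomorphOn_of_homeoOn {h : Crest.AnalysisR.VecCalc3.R3 → Crest.AnalysisR.VecCalc3.R3}
    {Ω Λ : Set Crest.AnalysisR.VecCalc3.R3} (H : P5Spec_205.HomeoOn h Ω Λ) : IsHomeomorphOn h Ω Λ := by
  obtain ⟨hb, hcont, k, hk, hkl⟩ := H
  have hkr : ∀ y ∈ Λ, k y ∈ Ω ∧ h (k y) = y := by
    intro y hy
    obtain ⟨x, hx, rfl⟩ := hb.surjOn hy
    rw [hkl x hx]
    exact ⟨hx, rfl⟩
  exact ⟨k, hb.mapsTo, fun y hy => (hkr y hy).1, hkl, fun y hy => (hkr y hy).2, hcont, hk⟩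

open Crest.AnalysisR.Sobolev Crest.AnalysisR.VecCalc3 in
/-- **GERM on `R3`**: literal output for P5-ASM. -/
theorem exists_germs_R3 {h : R3 → R3} {Ω Λ : Set R3} (hΩ : IsOpen Ω) (hΛ : IsOpen Λ)
    (H : IsHomeomorphOn h Ω Λ) (hh : LocPL h Ω) (hdet : ∀ y ∈ Ω, ∀ A : R3 →L[ℝ] R3, AffAt h y A → 0 < A.det) :
    P5Spec_205.HomeoOn h Ω Λ ∧
    P5Spec_205.Germs h Ω (VSet h Ω) (ZSet h Ω) (germ h) (fun p => dir (germ h p)) ∧
      (∀ x ∈ Ω, x ∉ ZSet h Ω → ∃ r > 0, ∀ y ∈ ball x r, y ∉ ZSet h Ω) ∧ volume (ZSet h Ω) = 0 ∧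
      (∀ x ∈ Ω, ∃ r > 0, ball x r ∩ VSet h Ω ⊆ {x}) :=
  ⟨homeoOn_of_isHomeomorphOn H, germs_of_locPL (finrank_euclideanSpace_fin) hΩ hΛ (homeoOn_of_isHomeomorphOn H) hh hdet⟩

end Crest.Agent.R096.Germ_879
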