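import Mathlib

/-!
Row 96, P5-GLOB (205 #7463): global bijectivity of a locally injective open map which is
C⁰-close to a homeomorphism between open sets.
-/

set_option autoImplicit false
open Set Filter Topology

namespace Crest.Agent.R096.Glob_816

section top

variable {X Y : Type*} [TopologicalSpace X] [TopologicalSpace Y]

/-- the preimage (in `Om`) of a compact subset of `La` is compact -/
def Prop' (g : X → Y) (Om : Set X) (La : Set Y) : Prop :=
  ∀ K : Set Y, K ⊆ La → IsCompact K → IsCompact (Om ∩ g ⁻¹' K)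

/-- local injectivity at every point of `Om` -/
def LocInj (g : X → Y) (Om : Set X) : Prop :=
  ∀ x ∈ Om, ∃ U ∈ 𝓝 x, InjOn g U

/-- open subsets of `Om` have open images -/
def OpenOn (g : X → Y) (Om : Set X) : Prop :=
  ∀ U : Set X, U ⊆ Om → IsOpen U → IsOpen (g '' U)

/-- a proper map is closed (local form) -/
theorem exists_nhds_avoid [LocallyCompactSpace Y] [T2Space Y] {g : X → Y} {Om : Set X} {La : Set Y}
    (hLa : IsOpen La) (hg : ContinuousOn g Om) (hP : Prop' g Om La)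
    {C : Set X} (hC : IsClosed C) {y : Y} (hy : y ∈ La) (hyC : ∀ x ∈ Om ∩ C, g x ≠ y) :
    ∃ W ∈ 𝓝 y, W ⊆ La ∧ ∀ x ∈ Om ∩ C, g x ∉ W := by
  obtain ⟨K, hK, hyK, hKL⟩ := exists_compact_subset hLa hy
  have h1 : IsCompact (Om ∩ g ⁻¹' K ∩ C) := (hP K hKL hK).inter_right hC
  have h2 : IsCompact (g '' (Om ∩ g ⁻¹' K ∩ C)) :=
    h1.image_of_continuousOn (hg.mono (fun x hx => hx.1.1))
  have h3 : y ∉ g '' (Om ∩ g ⁻¹' K ∩ C) := by
    rintro ⟨x, hx, hxy⟩
    exact hyC x ⟨hx.1.1, hx.2⟩ hxy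
  refine ⟨interior K ∩ (g '' (Om ∩ g ⁻¹' K ∩ C))ᶜ,
    inter_mem (isOpen_interior.mem_nhds hyK) (h2.isClosed.isOpen_compl.mem_nhds h3),
    (inter_subset_left.trans interior_subset).trans hKL, ?_⟩
  rintro x ⟨hx, hxC⟩ ⟨ha, hb⟩
  exact hb ⟨x, ⟨⟨hx, show g x ∈ K from interior_subset ha⟩, hxC⟩, rfl⟩

/-- the set of points of `La` with exactly one preimage is open -/
theorem isOpen_one [LocallyCompactSpace Y] [T2Space Y] {g : X → Y} {Om : Set X} {La : Set Y}
    (hOm : IsOpen Om) (hLa : IsOpen La) (hg : ContinuousOn g Om) (hP : Prop' g Om La)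
    (hi : LocInj g Om) (ho : OpenOn g Om) :
    IsOpen {y | y ∈ La ∧ ∃! x, x ∈ Om ∧ g x = y} := by
  rw [isOpen_iff_mem_nhds]
  rintro y ⟨hy, x, ⟨hx, hxy⟩, hu⟩
  obtain ⟨U, hU, hinj⟩ := hi x hx
  obtain ⟨V, hVU, hV, hxV⟩ := mem_nhds_iff.1 (inter_mem hU (hOm.mem_nhds hx))
  obtain ⟨W, hW, hWL, hWa⟩ := exists_nhds_avoid hLa hg hP (C := Vᶜ) hV.isClosed_compl hy (by
    rintro z ⟨hz, hzV⟩ hzy
    exact hzV (hu z ⟨hz, hzy⟩ ▸ hxV))
  have hgV : IsOpen (g '' V) := ho V (fun z hz => (hVU hz).2) hV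
  have hyV : y ∈ g '' V := ⟨x, hxV, hxy⟩
  filter_upwards [hW, hgV.mem_nhds hyV] with w hwW hwV
  obtain ⟨z, hzV, hzw⟩ := hwV
  refine ⟨hWL hwW, z, ⟨(hVU hzV).2, hzw⟩, ?_⟩
  rintro z' ⟨hz', hz'w⟩
  have hz'V : z' ∈ V := by
    by_contra hcon
    exact hWa z' ⟨hz', hcon⟩ (by rw [hz'w]; exact hwW)
  exact hinj (hVU hz'V).1 (hVU hzV).1 (hz'w.trans hzw.symm)

/-- the set of points of `La` which do not have exactly one preimage is open -/
theorem isOpen_not_one [LocallyCompactSpace Y] [T2Space Y] [T2Space X]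
    {g : X → Y} {Om : Set X} {La : Set Y}
    (hOm : IsOpen Om) (hLa : IsOpen La) (hg : ContinuousOn g Om) (hP : Prop' g Om La)
    (ho : OpenOn g Om) :
    IsOpen {y | y ∈ La ∧ ¬ ∃! x, x ∈ Om ∧ g x = y} := by
  rw [isOpen_iff_mem_nhds]
  rintro y ⟨hy, hne⟩
  by_cases h0 : ∃ x, x ∈ Om ∧ g x = y
  · obtain ⟨x, hx, hxy⟩ := h0
    have : ∃ x', (x' ∈ Om ∧ g x' = y) ∧ x' ≠ x := by
      by_contra hcon
      push Not at hcon
      exact hne ⟨x, ⟨hx, hxy⟩, fun z hz => hcon z hz⟩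
    obtain ⟨x', ⟨hx', hx'y⟩, hxx'⟩ := this
    obtain ⟨U, V, hU, hV, hxU, hxV, hUV⟩ := t2_separation hxx'
    have h1 : IsOpen (g '' (U ∩ Om)) := ho _ inter_subset_right (hU.inter hOm)
    have h2 : IsOpen (g '' (V ∩ Om)) := ho _ inter_subset_right (hV.inter hOm)
    filter_upwards [h1.mem_nhds ⟨x', ⟨hxU, hx'⟩, hx'y⟩, h2.mem_nhds ⟨x, ⟨hxV, hx⟩, hxy⟩,
      hLa.mem_nhds hy] with w hw1 hw2 hw3
    refine ⟨hw3, ?_⟩
    rintro ⟨z, -, hz⟩
    obtain ⟨a, ha, haw⟩ := hw1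
    obtain ⟨b, hb, hbw⟩ := hw2
    have e1 := hz a ⟨ha.2, haw⟩
    have e2 := hz b ⟨hb.2, hbw⟩
    exact (Set.disjoint_left.1 hUV ha.1) (by rw [e1, ← e2]; exact hb.1)
  · obtain ⟨W, hW, hWL, hWa⟩ := exists_nhds_avoid hLa hg hP (C := univ) isClosed_univ hy (by
      rintro z ⟨hz, -⟩ hzy
      exact h0 ⟨z, hz, hzy⟩)
    filter_upwards [hW] with w hw
    refine ⟨hWL hw, ?_⟩
    rintro ⟨z, ⟨hz, hzw⟩, -⟩
    exact hWa z ⟨hz, mem_univ _⟩ (by rw [hzw]; exact hw)

/-- A proper, locally injective and open map of an open set into an open set, with exactly one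
preimage over some point of every component of the target, is a bijection. -/
theorem bijOn_of_proper [LocallyCompactSpace Y] [T2Space Y] [T2Space X]
    {g : X → Y} {Om : Set X} {La : Set Y}
    (hOm : IsOpen Om) (hLa : IsOpen La) (hg : ContinuousOn g Om) (hm : MapsTo g Om La)
    (hP : Prop' g Om La) (hi : LocInj g Om) (ho : OpenOn g Om)
    (hone : ∀ y ∈ La, ∃ y' ∈ connectedComponentIn La y, ∃! x, x ∈ Om ∧ g x = y') :
    BijOn g Om La := by
  have key : ∀ y ∈ La, ∃! x, x ∈ Om ∧ g x = y := by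
    intro y hy
    obtain ⟨y', hy', h1⟩ := hone y hy
    have hpre : IsPreconnected (connectedComponentIn La y) := isPreconnected_connectedComponentIn
    by_contra hcon
    have hsub : connectedComponentIn La y ⊆
        {y | y ∈ La ∧ ∃! x, x ∈ Om ∧ g x = y} ∪ {y | y ∈ La ∧ ¬ ∃! x, x ∈ Om ∧ g x = y} := by
      intro z hz
      have hzL := connectedComponentIn_subset La y hz
      by_cases h : ∃! x, x ∈ Om ∧ g x = z
      · exact Or.inl ⟨hzL, h⟩
      · exact Or.inr ⟨hzL, h⟩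
    obtain ⟨z, -, ⟨-, hz1⟩, ⟨-, hz2⟩⟩ := hpre _ _ (isOpen_one hOm hLa hg hP hi ho)
      (isOpen_not_one hOm hLa hg hP ho) hsub
      ⟨y', hy', connectedComponentIn_subset La y hy', h1⟩
      ⟨y, mem_connectedComponentIn hy, hy, hcon⟩
    exact hz2 hz1
  refine ⟨hm, ?_, ?_⟩
  · intro a ha b hb hab
    obtain ⟨z, -, hz⟩ := key (g b) (hm hb)
    rw [hz a ⟨ha, hab⟩, hz b ⟨hb, rfl⟩]
  · intro y hy
    obtain ⟨x, ⟨hx, hxy⟩, -⟩ := key y hy
    exact ⟨x, hx, hxy⟩

end top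

section metric

variable {X : Type*} [TopologicalSpace X] {E : Type*} [NormedAddCommGroup E]

/-- the closeness hypothesis: `|g - h| ≤ 1` and at most half of the distance to the complement -/
def Close (g h : X → E) (Om : Set X) (La : Set E) : Prop :=
  ∀ x ∈ Om, ‖g x - h x‖ ≤ 1 ∧ ∀ z ∉ La, 2 * ‖g x - h x‖ ≤ ‖h x - z‖

omit [TopologicalSpace X] in
theorem mapsTo_of_close {g h : X → E} {Om : Set X} {La : Set E}
    (hh : MapsTo h Om La) (hc : Close g h Om La) : MapsTo g Om La := by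
  intro x hx
  by_contra hcon
  have h1 := (hc x hx).2 (g x) hcon
  have h2 : ‖h x - g x‖ = ‖g x - h x‖ := norm_sub_rev _ _
  have h3 : ‖g x - h x‖ ≤ 0 := by linarith
  have h4 : g x - h x = 0 := norm_le_zero_iff.1 h3
  exact hcon (sub_eq_zero.1 h4 ▸ hh hx)

/-- closeness to a proper map gives properness -/
theorem proper_of_close [T2Space X] [ProperSpace E] {g h : X → E} {Om : Set X} {La : Set E}
    (hg : ContinuousOn g Om) (hhP : Prop' h Om La) (hc : Close g h Om La) : Prop' g Om La := by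
  intro K hKL hK
  -- the compact set which contains `h x` as soon as `g x ∈ K`
  obtain ⟨R, hR⟩ := hK.isBounded.exists_norm_le
  let C : Set E := {w | ∀ z ∉ La, Metric.infDist z K ≤ 2 * ‖w - z‖}
  have hCcl : IsClosed C := by
    have : C = ⋂ z ∈ Laᶜ, {w | Metric.infDist z K ≤ 2 * ‖w - z‖} := by
      ext w; simp [C]
    rw [this]
    refine isClosed_biInter fun z _ => isClosed_le continuous_const ?_
    fun_prop
  let K' : Set E := Metric.closedBall 0 (R + 1) ∩ C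
  have hK'c : IsCompact K' := (isCompact_closedBall 0 (R + 1)).inter_right hCcl
  rcases K.eq_empty_or_nonempty with rfl | hKne
  · simp
  have hK'L : K' ⊆ La := by
    rintro w ⟨-, hwC⟩
    by_contra hcon
    have h1 := hwC w hcon
    rw [sub_self, norm_zero, mul_zero] at h1
    have h2 : Metric.infDist w K = 0 := le_antisymm h1 Metric.infDist_nonneg
    have h3 : w ∈ K := (hK.isClosed.mem_iff_infDist_zero hKne).2 h2
    exact hcon (hKL h3)
  have hsub : Om ∩ g ⁻¹' K ⊆ Om ∩ h ⁻¹' K' := by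
    rintro x ⟨hx, hxK⟩
    refine ⟨hx, ?_, ?_⟩
    · rw [mem_closedBall_zero_iff]
      have h1 := (hc x hx).1
      have h2 := hR _ hxK
      calc ‖h x‖ = ‖g x - (g x - h x)‖ := by congr 1; abel
        _ ≤ ‖g x‖ + ‖g x - h x‖ := norm_sub_le _ _
        _ ≤ R + 1 := add_le_add h2 h1
    · intro z hz
      have h1 := (hc x hx).2 z hz
      have h2 : Metric.infDist z K ≤ dist z (g x) := Metric.infDist_le_dist_of_mem hxK
      rw [dist_eq_norm] at h2
      have h3 : ‖z - g x‖ ≤ ‖h x - z‖ + ‖g x - h x‖ := by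
        calc ‖z - g x‖ = ‖-(h x - z) - (g x - h x)‖ := by congr 1; abel
          _ ≤ ‖-(h x - z)‖ + ‖g x - h x‖ := norm_sub_le _ _
          _ = _ := by rw [norm_neg]
      have h4 : 0 ≤ ‖h x - z‖ := norm_nonneg _
      linarith
  -- `Om ∩ g ⁻¹' K` is closed in the compact set `Om ∩ h ⁻¹' K'`
  have hcomp := hhP K' hK'L hK'c
  have : Om ∩ g ⁻¹' K = (Om ∩ h ⁻¹' K') ∩ g ⁻¹' K := by
    ext x
    constructor
    · intro hx; exact ⟨hsub hx, hx.2⟩
    · intro hx; exact ⟨hx.1.1, hx.2⟩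
  rw [this]
  exact hcomp.of_isClosed_subset
    ((hg.mono inter_subset_left).preimage_isClosed_of_isClosed hcomp.isClosed hK.isClosed)
    inter_subset_left

/-- **P5-GLOB.** `h : Om → La` proper (e.g. a homeomorphism onto `La`), `g` continuous, locally
injective, open and C⁰-close to `h`; exactly one preimage over one point of every component. -/
theorem bijOn_of_close [T2Space X] [ProperSpace E] {g h : X → E} {Om : Set X} {La : Set E}
    (hOm : IsOpen Om) (hLa : IsOpen La) (hg : ContinuousOn g Om)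
    (hh : MapsTo h Om La) (hhP : Prop' h Om La) (hc : Close g h Om La)
    (hi : LocInj g Om) (ho : OpenOn g Om)
    (hone : ∀ y ∈ La, ∃ y' ∈ connectedComponentIn La y, ∃! x, x ∈ Om ∧ g x = y') :
    BijOn g Om La :=
  bijOn_of_proper hOm hLa hg (mapsTo_of_close hh hc) (proper_of_close hg hhP hc) hi ho hone

/-- a homeomorphism onto `La` is proper -/
theorem proper_of_homeo [T2Space X] {h : X → E} {k : E → X} {Om : Set X} {La : Set E}
    (hk : MapsTo k La Om) (hkh : ∀ x ∈ Om, k (h x) = x) (hhk : ∀ y ∈ La, h (k y) = y)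
    (hkc : ContinuousOn k La) : Prop' h Om La := by
  intro K hKL hK
  have : Om ∩ h ⁻¹' K = k '' K := by
    ext x
    constructor
    · rintro ⟨hx, hxK⟩
      exact ⟨h x, hxK, hkh x hx⟩
    · rintro ⟨y, hy, rfl⟩
      exact ⟨hk (hKL hy), show h (k y) ∈ K by rw [hhk y (hKL hy)]; exact hy⟩
  rw [this]
  exact hK.image_of_continuousOn (hkc.mono hKL)

omit [TopologicalSpace X] in
/-- a sufficient condition for `hone`: `g = h` wherever `h x` is at least as close to `y'` as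
`g x` to `h x` (e.g. `g = h` on `h ⁻¹' (closedBall y' δ)` and `‖g - h‖ ≤ δ` everywhere) -/
theorem one_of_eq {g h : X → E} {k : E → X} {Om : Set X} {La : Set E}
    (hk : MapsTo k La Om) (hkh : ∀ x ∈ Om, k (h x) = x) (hhk : ∀ y ∈ La, h (k y) = y)
    (hloc : ∀ y ∈ La, ∃ y' ∈ connectedComponentIn La y,
      ∀ x ∈ Om, ‖h x - y'‖ ≤ ‖g x - h x‖ → g x = h x) :
    ∀ y ∈ La, ∃ y' ∈ connectedComponentIn La y, ∃! x, x ∈ Om ∧ g x = y' := by
  intro y hy
  obtain ⟨y', hy', h1⟩ := hloc y hy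
  have hy'L := connectedComponentIn_subset La y hy'
  refine ⟨y', hy', k y', ⟨hk hy'L, ?_⟩, ?_⟩
  · rw [h1 _ (hk hy'L) (by rw [hhk _ hy'L, sub_self, norm_zero]; exact norm_nonneg _), hhk _ hy'L]
  · rintro x ⟨hx, hxy⟩
    have h2 := h1 x hx (by rw [hxy, norm_sub_rev])
    rw [← hkh x hx, ← h2, hxy]

end metric

section smooth

variable {E F : Type*} [NormedAddCommGroup E] [NormedSpace ℝ E] [NormedAddCommGroup F]
  [NormedSpace ℝ F] [CompleteSpace E]

theorem locInj_of_contDiffOn {g : E → F} {Om : Set E} (hOm : IsOpen Om)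
    (hg : ContDiffOn ℝ 1 g Om) (hd : ∀ x ∈ Om, (fderiv ℝ g x).IsInvertible) : LocInj g Om := by
  intro x hx
  obtain ⟨L, hL⟩ := hd x hx
  have h1 : ContDiffAt ℝ 1 g x := hg.contDiffAt (hOm.mem_nhds hx)
  have h2 : HasStrictFDerivAt g (L : E →L[ℝ] F) x := by
    rw [hL]; exact h1.hasStrictFDerivAt one_ne_zero
  have h3 := h2.mem_toOpenPartialHomeomorph_source
  refine ⟨(h2.toOpenPartialHomeomorph g).source, (h2.toOpenPartialHomeomorph g).open_source.mem_nhds h3, ?_⟩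
  exact (h2.toOpenPartialHomeomorph g).injOn

theorem openOn_of_contDiffOn {g : E → F} {Om : Set E} (hOm : IsOpen Om)
    (hg : ContDiffOn ℝ 1 g Om) (hd : ∀ x ∈ Om, (fderiv ℝ g x).IsInvertible) : OpenOn g Om := by
  intro U hU hUo
  rw [isOpen_iff_mem_nhds]
  rintro y ⟨x, hx, rfl⟩
  obtain ⟨L, hL⟩ := hd x (hU hx)
  have h1 : ContDiffAt ℝ 1 g x := hg.contDiffAt (hOm.mem_nhds (hU hx))
  have h2 : HasStrictFDerivAt g (L : E →L[ℝ] F) x := by
    rw [hL]; exact h1.hasStrictFDerivAt one_ne_zero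
  have h3 := h2.map_nhds_eq_of_equiv
  rw [← h3]
  exact image_mem_map (hUo.mem_nhds hx)

/-- the inverse of a bijective smooth local diffeomorphism is smooth -/
theorem contDiffOn_inv {g : E → F} {k : F → E} {Om : Set E} {La : Set F} {n : WithTop ℕ∞}
    (hn : n ≠ 0) (hOm : IsOpen Om) (hg : ContDiffOn ℝ n g Om)
    (hd : ∀ x ∈ Om, (fderiv ℝ g x).IsInvertible)
    (hk : MapsTo k La Om) (hkg : ∀ x ∈ Om, k (g x) = x) (hgk : ∀ y ∈ La, g (k y) = y) :
    ContDiffOn ℝ n k La := by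
  intro y hy
  have hx := hk hy
  obtain ⟨L, hL⟩ := hd (k y) hx
  have h1 : ContDiffAt ℝ n g (k y) := hg.contDiffAt (hOm.mem_nhds hx)
  have h2 : HasFDerivAt g (L : E →L[ℝ] F) (k y) := by
    rw [hL]; exact (h1.differentiableAt hn).hasFDerivAt
  have hs : HasStrictFDerivAt g (L : E →L[ℝ] F) (k y) := h1.hasStrictFDerivAt' h2 hn
  have h3 := h1.to_localInverse h2 hn
  have h5 := hs.eventually_right_inverse
  have h6 := hs.localInverse_tendsto
  rw [hgk y hy] at h3 h5 h6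
  refine (h3.congr_of_eventuallyEq ?_).contDiffWithinAt
  filter_upwards [h5, h6 (hOm.mem_nhds hx)] with z hz1 hz2
  change k z = hs.localInverse g L (k y) z
  conv_lhs => rw [← hz1]
  exact hkg _ hz2

variable [FiniteDimensional ℝ F]

/-- **P5-GLOB, smooth form.** `h` a homeomorphism of `Om` onto `La`, `g` of class `Cⁿ` with
invertible derivative and C⁰-close to `h`, one preimage over one point of every component of `La`:
then `g` is a `Cⁿ` diffeomorphism of `Om` onto exactly `La`. -/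
theorem diffeo_of_close {g h : E → F} {k : F → E} {Om : Set E} {La : Set F} {n : WithTop ℕ∞}
    (hn : 1 ≤ n) (hOm : IsOpen Om) (hLa : IsOpen La)
    (hh : MapsTo h Om La) (hk : MapsTo k La Om) (hkh : ∀ x ∈ Om, k (h x) = x)
    (hhk : ∀ y ∈ La, h (k y) = y) (hkc : ContinuousOn k La)
    (hg : ContDiffOn ℝ n g Om) (hd : ∀ x ∈ Om, (fderiv ℝ g x).IsInvertible)
    (hc : Close g h Om La)
    (hone : ∀ y ∈ La, ∃ y' ∈ connectedComponentIn La y, ∃! x, x ∈ Om ∧ g x = y') :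
    ∃ ginv : F → E, MapsTo g Om La ∧ MapsTo ginv La Om ∧ (∀ x ∈ Om, ginv (g x) = x) ∧
      (∀ y ∈ La, g (ginv y) = y) ∧ ContDiffOn ℝ n g Om ∧ ContDiffOn ℝ n ginv La := by
  have : ProperSpace F := FiniteDimensional.proper_real F
  have hn0 : n ≠ 0 := by rintro rfl; simp at hn
  have hb : BijOn g Om La := bijOn_of_close hOm hLa hg.continuousOn hh
    (proper_of_homeo hk hkh hhk hkc) hc (locInj_of_contDiffOn hOm (hg.of_le hn) hd)
    (openOn_of_contDiffOn hOm (hg.of_le hn) hd) hone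
  rcases Om.eq_empty_or_nonempty with rfl | ⟨x0, hx0⟩
  · have hLe : La = ∅ := by
      have := hb.surjOn
      rw [SurjOn, image_empty, subset_empty_iff] at this
      exact this
    subst hLe
    exact ⟨fun _ => 0, by simp [MapsTo], by simp [MapsTo], by simp, by simp, hg, by simp⟩
  have : Nonempty E := ⟨x0⟩
  have h1 : MapsTo (Function.invFunOn g Om) La Om := hb.surjOn.mapsTo_invFunOn
  have h2 : ∀ x ∈ Om, Function.invFunOn g Om (g x) = x := fun x hx =>
    hb.injOn.leftInvOn_invFunOn hx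
  have h3 : ∀ y ∈ La, g (Function.invFunOn g Om y) = y := fun y hy =>
    hb.surjOn.rightInvOn_invFunOn hy
  exact ⟨Function.invFunOn g Om, hb.mapsTo, h1, h2, h3, hg,
    contDiffOn_inv hn0 hOm hg hd h1 h2 h3⟩

/-- the same with `g = h` near one point of every component -/
theorem diffeo_of_close' {g h : E → F} {k : F → E} {Om : Set E} {La : Set F} {n : WithTop ℕ∞}
    (hn : 1 ≤ n) (hOm : IsOpen Om) (hLa : IsOpen La)
    (hh : MapsTo h Om La) (hk : MapsTo k La Om) (hkh : ∀ x ∈ Om, k (h x) = x)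
    (hhk : ∀ y ∈ La, h (k y) = y) (hkc : ContinuousOn k La)
    (hg : ContDiffOn ℝ n g Om) (hd : ∀ x ∈ Om, (fderiv ℝ g x).IsInvertible)
    (hc : Close g h Om La)
    (hloc : ∀ y ∈ La, ∃ y' ∈ connectedComponentIn La y,
      ∀ x ∈ Om, ‖h x - y'‖ ≤ ‖g x - h x‖ → g x = h x) :
    ∃ ginv : F → E, MapsTo g Om La ∧ MapsTo ginv La Om ∧ (∀ x ∈ Om, ginv (g x) = x) ∧
      (∀ y ∈ La, g (ginv y) = y) ∧ ContDiffOn ℝ n g Om ∧ ContDiffOn ℝ n ginv La :=
  diffeo_of_close hn hOm hLa hh hk hkh hhk hkc hg hd hc (one_of_eq hk hkh hhk hloc)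

end smooth

end Crest.Agent.R096.Glob_816
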