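import Crest.Agent.R096.Top1_696
import Crest.Agent.R096.Str5_696
import Crest.Agent.R096.Glob1_816

/-!
Row 96 (S0127), helper696.  `P5 p` from `Raw p` (positively oriented locally PL homeomorphisms,
derivative form, `C⁰` tolerance a constant).
-/

set_option autoImplicit false
set_option linter.unusedSectionVars false
set_option linter.style.longLine false

open MeasureTheory Set Filter Topology Metric
open scoped ContDiff ENNReal Gradient NNReal
open Crest.AnalysisR.VecCalc3 Crest.AnalysisR.Sobolev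
open Crest.Agent.R096.Sk_962 Crest.Agent.R096.Str_696

namespace Crest.Agent.R096.Top_696

/-- output of the smoothing theorem for positively oriented locally PL homeomorphisms. -/
def Raw (p : ℝ) : Prop :=
  ∀ (Om La : Set R3) (h : R3 → R3),
    IsOpen Om → Bornology.IsBounded Om → IsConnected Om →
    IsOpen La → Bornology.IsBounded La → IsConnected La →
    IsHomeomorphOn h Om La → LocPL h Om →
    (∀ x ∈ Om, ∀ A, AffAt h x A → 0 < A.det) →
    ∀ δ : ℝ, 0 < δ → ∀ ε : ℝ≥0∞, 0 < ε →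
    ∃ g : R3 → R3, ContDiffOn ℝ ∞ g Om ∧ (∀ x ∈ Om, 0 < (fderiv ℝ g x).det) ∧ InjOn g Om ∧
      g '' Om = La ∧ (∀ x ∈ Om, ‖g x - h x‖ ≤ δ) ∧
      ∫⁻ x in Om, ‖fderiv ℝ g x - fderiv ℝ h x‖ₑ ^ p ≤ ε

lemma fderiv_comp_apply {g : R3 → R3} {x : R3} (hg : DifferentiableAt ℝ g x) (j : Fin 3) :
    fderiv ℝ (fun y => g y j) x = (EuclideanSpace.proj j : R3 →L[ℝ] ℝ).comp (fderiv ℝ g x) := by
  have h1 : HasFDerivAt (fun y => g y j)
      ((EuclideanSpace.proj j : R3 →L[ℝ] ℝ).comp (fderiv ℝ g x)) x :=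
    (EuclideanSpace.proj j : R3 →L[ℝ] ℝ).hasFDerivAt.comp x hg.hasFDerivAt
  exact h1.fderiv

lemma enorm_Gr_sub_le {g h : R3 → R3} {x : R3} (hg : DifferentiableAt ℝ g x)
    (hh : DifferentiableAt ℝ h x) (j : Fin 3) :
    ‖Gr g j x - Gr h j x‖ₑ ≤ ‖fderiv ℝ g x - fderiv ℝ h x‖ₑ := by
  rw [enorm_le_iff_norm_le]
  have h1 : Gr g j x - Gr h j x = (InnerProductSpace.toDual ℝ R3).symm
      ((EuclideanSpace.proj j : R3 →L[ℝ] ℝ).comp (fderiv ℝ g x - fderiv ℝ h x)) := by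
    unfold Gr gradient
    rw [fderiv_comp_apply hg, fderiv_comp_apply hh, ← map_sub]
    congr 1
  rw [h1, LinearIsometryEquiv.norm_map]
  refine ContinuousLinearMap.opNorm_le_bound _ (norm_nonneg _) fun v => ?_
  have h2 : ‖(fderiv ℝ g x - fderiv ℝ h x) v‖ ≤ ‖fderiv ℝ g x - fderiv ℝ h x‖ * ‖v‖ :=
    ContinuousLinearMap.le_opNorm _ _
  refine le_trans ?_ h2
  exact PiLp.norm_apply_le ((fderiv ℝ g x - fderiv ℝ h x) v) j

lemma isInvertible_of_det {A : R3 →L[ℝ] R3} (hA : A.det ≠ 0) : A.IsInvertible := by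
  refine ⟨A.toContinuousLinearEquivOfDetNeZero hA, ?_⟩
  ext v
  rfl

/-- the smooth inverse. -/
lemma isSmoothDiffeoOn_of {g : R3 → R3} {Om La : Set R3} (hOm : IsOpen Om)
    (hg : ContDiffOn ℝ ∞ g Om) (hdet : ∀ x ∈ Om, (fderiv ℝ g x).det ≠ 0) (hi : InjOn g Om)
    (him : g '' Om = La) : IsSmoothDiffeoOn g Om La := by
  by_cases hne : Om.Nonempty
  · have hm : MapsTo g Om La := fun x hx => him ▸ mem_image_of_mem g hx
    have hk : MapsTo (Function.invFunOn g Om) La Om := by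
      intro y hy
      rw [← him] at hy
      exact Function.invFunOn_mem hy
    have hgk : ∀ y ∈ La, g (Function.invFunOn g Om y) = y := by
      intro y hy
      rw [← him] at hy
      exact Function.invFunOn_eq hy
    have hkg : ∀ x ∈ Om, Function.invFunOn g Om (g x) = x := by
      intro x hx
      exact hi (hk (hm hx)) hx (hgk _ (hm hx))
    refine ⟨Function.invFunOn g Om, hm, hk, hkg, hgk, hg, ?_⟩
    exact Glob_816.contDiffOn_inv (by simp) hOm hg (fun x hx => isInvertible_of_det (hdet x hx))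
      hk hkg hgk
  · have h0 : Om = ∅ := not_nonempty_iff_eq_empty.1 hne
    subst h0
    rw [image_empty] at him
    subst him
    exact ⟨id, by simp, by simp, by simp, by simp, contDiffOn_empty, contDiffOn_empty⟩

/-- positively oriented case, `ε` finite. -/
lemma p5_pos' {p : ℝ} (hp : 1 ≤ p) (hR : Raw p) (Om La : Set R3) (h : R3 → R3)
    (hOm : IsOpen Om) (hOmb : Bornology.IsBounded Om) (hOmc : IsConnected Om)
    (hLa : IsOpen La) (hLab : Bornology.IsBounded La) (hLac : IsConnected La)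
    (hh : IsHomeomorphOn h Om La) (hPL : LocPL h Om)
    (hor : ∀ x ∈ Om, ∀ A, AffAt h x A → 0 < A.det) (ε : ℝ≥0∞) (hε : 0 < ε) (hεt : ε ≠ ⊤) :
    ∃ g : R3 → R3, IsSmoothDiffeoOn g Om La ∧
      ∫⁻ x in Om, (‖g x - h x‖ₑ ^ p + ∑ j : Fin 3, ‖Gr g j x - Gr h j x‖ₑ ^ p) < ε := by
  have hp0 : 0 < p := by linarith
  have hvol : volume Om < ⊤ := hOmb.measure_lt_top
  -- the tolerance
  obtain ⟨δ, hδ, hδε⟩ : ∃ δ : ℝ, 0 < δ ∧ ENNReal.ofReal δ ^ p * volume Om < ε / 2 := by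
    have hlim : Tendsto (fun δ : ℝ => ENNReal.ofReal δ ^ p * volume Om) (𝓝[>] 0) (𝓝 0) := by
      have h1 : Tendsto (fun δ : ℝ => ENNReal.ofReal δ ^ p) (𝓝[>] 0) (𝓝 0) := by
        have h2 : Continuous fun δ : ℝ => ENNReal.ofReal δ ^ p :=
          (ENNReal.continuous_rpow_const).comp ENNReal.continuous_ofReal
        have h3 := h2.tendsto 0
        simp only [ENNReal.ofReal_zero, ENNReal.zero_rpow_of_pos hp0] at h3
        exact h3.mono_left nhdsWithin_le_nhds
      have h4 := ENNReal.Tendsto.mul_const h1 (Or.inr hvol.ne) (b := volume Om)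
      simpa using h4
    have hε2 : (0 : ℝ≥0∞) < ε / 2 := ENNReal.div_pos hε.ne' (by norm_num)
    obtain ⟨δ, h1, h2⟩ := ((hlim.eventually (gt_mem_nhds hε2)).and self_mem_nhdsWithin).exists
    exact ⟨δ, h2, h1⟩
  obtain ⟨ε', hε', hε'ε⟩ : ∃ ε' : ℝ≥0∞, 0 < ε' ∧ 3 * ε' ≤ ε / 2 := by
    refine ⟨ε / 2 / 3, ?_, ?_⟩
    · exact ENNReal.div_pos (ENNReal.div_pos hε.ne' (by norm_num)).ne' (by norm_num)
    · rw [ENNReal.mul_div_cancel (by norm_num) (by norm_num)]
  obtain ⟨g, hg, hdet, hi, him, hC0, hLp⟩ :=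
    hR Om La h hOm hOmb hOmc hLa hLab hLac hh hPL hor δ hδ ε' hε'
  refine ⟨g, isSmoothDiffeoOn_of hOm hg (fun x hx => (hdet x hx).ne') hi him, ?_⟩
  -- a.e. differentiability of `h`
  have hae : ∀ᵐ x ∂(volume.restrict Om), DifferentiableAt ℝ h x := by
    rw [ae_restrict_iff' hOm.measurableSet]
    filter_upwards [hPL.ae_affine volume] with x hx hxO
    obtain ⟨A, hA⟩ := hx hxO
    exact hA.hasFDerivAt.differentiableAt
  have hgd : ∀ x ∈ Om, DifferentiableAt ℝ g x := fun x hx =>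
    (hg.contDiffAt (hOm.mem_nhds hx)).differentiableAt (by simp)
  have hm : Measurable fun x => ‖fderiv ℝ g x - fderiv ℝ h x‖ₑ ^ p :=
    ((measurable_fderiv ℝ g).sub (measurable_fderiv ℝ h)).enorm.pow_const p
  have hle : ∫⁻ x in Om, (‖g x - h x‖ₑ ^ p + ∑ j : Fin 3, ‖Gr g j x - Gr h j x‖ₑ ^ p) ≤
      ∫⁻ x in Om, (ENNReal.ofReal δ ^ p + 3 * ‖fderiv ℝ g x - fderiv ℝ h x‖ₑ ^ p) := by
    refine lintegral_mono_ae ?_
    filter_upwards [hae, ae_restrict_mem hOm.measurableSet] with x hx hxO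
    refine add_le_add ?_ ?_
    · refine ENNReal.rpow_le_rpow ?_ hp0.le
      rw [← ofReal_norm]
      exact ENNReal.ofReal_le_ofReal (hC0 x hxO)
    · calc ∑ j : Fin 3, ‖Gr g j x - Gr h j x‖ₑ ^ p
          ≤ ∑ _j : Fin 3, ‖fderiv ℝ g x - fderiv ℝ h x‖ₑ ^ p :=
            Finset.sum_le_sum fun j _ =>
              ENNReal.rpow_le_rpow (enorm_Gr_sub_le (hgd x hxO) hx j) hp0.le
        _ = 3 * ‖fderiv ℝ g x - fderiv ℝ h x‖ₑ ^ p := by
            rw [Finset.sum_const, Finset.card_univ, Fintype.card_fin, nsmul_eq_mul]; norm_num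
  refine hle.trans_lt ?_
  rw [lintegral_add_left measurable_const, lintegral_const_mul _ hm, lintegral_const,
    Measure.restrict_apply_univ]
  calc ENNReal.ofReal δ ^ p * volume Om + 3 * ∫⁻ x in Om, ‖fderiv ℝ g x - fderiv ℝ h x‖ₑ ^ p
      < ε / 2 + ε / 2 := by
        refine ENNReal.add_lt_add_of_lt_of_le ?_ hδε ?_
        · exact ne_top_of_le_ne_top (ENNReal.div_ne_top hεt (by norm_num))
            ((mul_le_mul_right hLp 3).trans hε'ε)
        · exact (mul_le_mul_right hLp 3).trans hε'ε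
    _ = ε := ENNReal.add_halves ε

/-- positively oriented case. -/
lemma p5_pos {p : ℝ} (hp : 1 ≤ p) (hR : Raw p) (Om La : Set R3) (h : R3 → R3)
    (hOm : IsOpen Om) (hOmb : Bornology.IsBounded Om) (hOmc : IsConnected Om)
    (hLa : IsOpen La) (hLab : Bornology.IsBounded La) (hLac : IsConnected La)
    (hh : IsHomeomorphOn h Om La) (hPL : LocPL h Om)
    (hor : ∀ x ∈ Om, ∀ A, AffAt h x A → 0 < A.det) (ε : ℝ≥0∞) (hε : 0 < ε) :
    ∃ g : R3 → R3, IsSmoothDiffeoOn g Om La ∧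
      ∫⁻ x in Om, (‖g x - h x‖ₑ ^ p + ∑ j : Fin 3, ‖Gr g j x - Gr h j x‖ₑ ^ p) < ε := by
  obtain ⟨g, hg, hlt⟩ := p5_pos' hp hR Om La h hOm hOmb hOmc hLa hLab hLac hh hPL hor (min ε 1)
    (lt_min hε (by norm_num)) ((min_le_right ε 1).trans_lt ENNReal.one_lt_top).ne
  exact ⟨g, hg, hlt.trans_le (min_le_left _ _)⟩

lemma locPL_neg {h : R3 → R3} {Om : Set R3} (hh : LocPL h Om) : LocPL (fun x => -h x) Om := by
  classical
  intro x hx
  obtain ⟨r, hr, S, hc, hsel⟩ := hh x hx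
  refine ⟨r, hr, S.image fun g => -g, hc.neg, fun y hy => ?_⟩
  obtain ⟨g, hg, hgy⟩ := hsel y hy
  exact ⟨-g, Finset.mem_image_of_mem _ hg, by show -h y = -(g y); rw [hgy]⟩

lemma affAt_neg {h : R3 → R3} {x : R3} {A : R3 →L[ℝ] R3} (hA : AffAt (fun x => -h x) x A) :
    AffAt h x (-A) := by
  unfold AffAt at *
  filter_upwards [hA] with y hy
  have h1 : h y = -(-h x + A (y - x)) := by rw [← hy]; simp
  rw [h1]
  simp only [neg_add_rev, neg_neg, neg_apply]
  abel

lemma det_neg_R3 (A : R3 →L[ℝ] R3) : (-A).det = -A.det := by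
  have h1 : ((-A : R3 →L[ℝ] R3) : R3 →ₗ[ℝ] R3) = (-1 : ℝ) • (A : R3 →ₗ[ℝ] R3) := by
    ext v; simp
  show LinearMap.det ((-A : R3 →L[ℝ] R3) : R3 →ₗ[ℝ] R3) = -LinearMap.det (A : R3 →ₗ[ℝ] R3)
  rw [h1, LinearMap.det_smul]
  have h2 : Module.finrank ℝ R3 = 3 := by simp
  rw [h2]; ring

lemma homeo_neg {h : R3 → R3} {Om La : Set R3} (hh : IsHomeomorphOn h Om La) :
    IsHomeomorphOn (fun x => -h x) Om (-La) := by
  obtain ⟨k, h1, h2, h3, h4, h5, h6⟩ := hh
  refine ⟨fun y => k (-y), ?_, ?_, ?_, ?_, h5.neg, ?_⟩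
  · intro x hx; simpa using h1 hx
  · intro y hy; exact h2 hy
  · intro x hx; simpa using h3 x hx
  · intro y hy
    have : -y ∈ La := hy
    simp [h4 _ this]
  · exact h6.comp continuous_neg.continuousOn (fun y hy => hy)

lemma diffeo_neg {h : R3 → R3} {Om La : Set R3} (hh : IsSmoothDiffeoOn h Om (-La)) :
    IsSmoothDiffeoOn (fun x => -h x) Om La := by
  obtain ⟨k, h1, h2, h3, h4, h5, h6⟩ := hh
  refine ⟨fun y => k (-y), ?_, ?_, ?_, ?_, h5.neg, ?_⟩
  · intro x hx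
    have := h1 hx
    exact this
  · intro y hy
    exact h2 (by simpa using hy)
  · intro x hx; simpa using h3 x hx
  · intro y hy
    have : -y ∈ -La := by simpa using hy
    simp [h4 _ this]
  · exact h6.comp contDiff_neg.contDiffOn (fun y hy => by simpa using hy)

lemma Gr_neg (g : R3 → R3) (j : Fin 3) (x : R3) : Gr (fun y => -g y) j x = -Gr g j x := by
  unfold Gr gradient
  have : (fun y => (-g y) j) = fun y => -(g y j) := by funext y; simp
  rw [this, fderiv_fun_neg, map_neg]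

/-- **`P5 p` from `Raw p`.** -/
theorem p5_of_raw {p : ℝ} (hp : 1 ≤ p) (hR : Raw p) : P5 p := by
  intro Om La h hOm hOmb hOmc hLa hLab hLac hh hPL ε hε
  have hi : InjOn h Om := by
    obtain ⟨k, -, -, h3, -, -, -⟩ := hh
    intro x hx y hy hxy
    rw [← h3 x hx, ← h3 y hy, hxy]
  rcases orient hOm hOmc.isPreconnected hPL hi with hor | hor
  · exact p5_pos hp hR Om La h hOm hOmb hOmc hLa hLab hLac hh hPL hor ε hε
  · have hLa' : IsOpen (-La) := hLa.neg
    have hLab' : Bornology.IsBounded (-La) := by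
      obtain ⟨C, hC⟩ := hLab.exists_norm_le
      refine isBounded_iff_forall_norm_le.2 ⟨C, fun y hy => ?_⟩
      have := hC (-y) hy
      simpa using this
    have hLac' : IsConnected (-La) := by
      have : -La = (fun y => -y) '' La := by simp
      rw [this]
      exact hLac.image _ continuous_neg.continuousOn
    obtain ⟨g, hg, hlt⟩ := p5_pos hp hR Om (-La) (fun x => -h x) hOm hOmb hOmc hLa' hLab' hLac'
      (homeo_neg hh) (locPL_neg hPL) (by
        intro x hx A hA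
        have h1 := hor x hx (-A) (affAt_neg hA)
        rw [det_neg_R3] at h1
        linarith) ε hε
    refine ⟨fun x => -g x, diffeo_neg hg, ?_⟩
    refine lt_of_le_of_lt (lintegral_mono fun x => ?_) hlt
    have e1 : ‖-g x - h x‖ₑ = ‖g x - -h x‖ₑ := by
      rw [← enorm_neg (-g x - h x)]
      congr 1
      abel
    have e2 : ∀ j : Fin 3, ‖Gr (fun y => -g y) j x - Gr h j x‖ₑ =
        ‖Gr g j x - Gr (fun y => -h y) j x‖ₑ := by
      intro j
      rw [Gr_neg, Gr_neg, ← enorm_neg (-Gr g j x - Gr h j x)]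
      congr 1
      abel
    show ‖-g x - h x‖ₑ ^ p + ∑ j : Fin 3, ‖Gr (fun y => -g y) j x - Gr h j x‖ₑ ^ p ≤
      ‖g x - -h x‖ₑ ^ p + ∑ j : Fin 3, ‖Gr g j x - Gr (fun y => -h y) j x‖ₑ ^ p
    rw [e1]
    simp only [e2]
    exact le_rfl

end Crest.Agent.R096.Top_696
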