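import Mathlib

/-!
Row 96, P5 (PL homeomorphism ⟹ smooth diffeomorphism), design B ("edges first"):
definitions and literal target statements (as `Prop`s) for the leaves
EDGE-B, CORE3, MOLL and for the assembly P5d-B.  No proofs here.
-/

open Set Metric MeasureTheory Filter Topology
open scoped ContDiff NNReal

namespace Crest.Agent.R096.P5Spec_205

variable {E : Type*} [NormedAddCommGroup E] [InnerProductSpace ℝ E] [MeasureSpace E]

/-- `h` is Lipschitz near `x` and its a.e. derivative near `x` stays in a compact convex set of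
linear maps of positive determinant (class `Moll` of 119 at one point). -/
def MollAt (h : E → E) (x : E) : Prop :=
  ∃ r > 0, ∃ K : Set (E →L[ℝ] E), Convex ℝ K ∧ IsCompact K ∧ (∀ A ∈ K, 0 < A.det) ∧
    (∃ L : ℝ≥0, LipschitzOnWith L h (ball x r)) ∧
    ∀ᵐ y ∂(volume : Measure E), y ∈ ball x r → fderiv ℝ h y ∈ K

/-- positively homogeneous of degree one -/
def Conic (H : E → E) : Prop := ∀ c : ℝ, 0 ≤ c → ∀ x, H (c • x) = c • H x

/-- `h` is conical around `p` in the ball of radius `r` -/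
def ConicOn (h : E → E) (p : E) (r : ℝ) : Prop :=
  ∀ v, ‖v‖ < r → ∀ t : ℝ, 0 ≤ t → t ≤ 1 → h (p + t • v) = h p + t • (h (p + v) - h p)

/-- A germ at a point of an edge with unit direction `e`. -/
structure EdgeGerm (H : E → E) (e : E) : Prop where
  unit : ‖e‖ = 1
  homeo : IsHomeomorph H
  conic : Conic H
  inv : ∀ (x : E) (s : ℝ), H (x + s • e) = H x + s • H e
  pl : ∃ S : Finset (E →L[ℝ] E), ∀ x, ∃ A ∈ S, H x = A x
  moll : ∀ x, (∀ s : ℝ, x ≠ s • e) → MollAt H x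

/-- the edge `ℝ e` is rounded off in the tube of radius `R (s)`, `s = ⟪e, x⟫` -/
noncomputable def tubeMap (H Q : E → E) (e : E) (R : ℝ → ℝ) (x : E) : E :=
  if R (inner ℝ e x) = 0 then H x else
    (inner ℝ e x : ℝ) • H e +
      R (inner ℝ e x) • Q ((R (inner ℝ e x))⁻¹ • (x - (inner ℝ e x : ℝ) • e))

/-- EDGE-B -/
def EdgeB (E : Type*) [NormedAddCommGroup E] [InnerProductSpace ℝ E] [MeasureSpace E] : Prop :=
  ∀ (H : E → E) (e : E), EdgeGerm H e → ∃ ε₀ > 0, ∃ C : ℝ≥0, ∃ Q : E → E,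
    (∀ y, inner ℝ e y = 0 → 1 ≤ ‖y‖ → Q y = H y) ∧
    ∀ R : ℝ → ℝ, (∀ s, 0 ≤ R s) → (∀ s t, |R s - R t| ≤ ε₀ * |s - t|) →
      IsHomeomorph (tubeMap H Q e R) ∧ LipschitzWith C (tubeMap H Q e R) ∧
      ∀ x, 0 < R (inner ℝ e x) → MollAt (tubeMap H Q e R) x

/-- CORE3 (stated in any `E`; needed for `EuclideanSpace ℝ (Fin 3)`) -/
def Core (E : Type*) [NormedAddCommGroup E] [InnerProductSpace ℝ E] [MeasureSpace E] : Prop :=
  ∀ K : E → E, IsHomeomorph K → Conic K → (∀ x, x ≠ 0 → MollAt K x) →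
    ∃ Φ : E → E, IsHomeomorph Φ ∧ (∀ x, 1 ≤ ‖x‖ → Φ x = K x) ∧ (∀ x, MollAt Φ x) ∧
      ∃ C : ℝ≥0, LipschitzWith C Φ

/-- The germ data of a locally conical homeomorphism `h : Om → La` (output of STR/GERM).
`V` = vertices, `Z` = vertices and edge points, `G p` = germ at `p`, `e p` = unit direction of the
edge through `p ∈ Z \ V`. -/
structure Germs (h : E → E) (Om V Z : Set E) (G : E → E → E) (e : E → E) : Prop where
  V_sub : V ⊆ Z
  Z_sub : Z ⊆ Om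
  /-- conical structure at every point -/
  germ : ∀ p ∈ Om, ∃ r > 0, ball p r ⊆ Om ∧ ∀ v, ‖v‖ < r → h (p + v) = h p + G p v
  homeo : ∀ p ∈ Om, IsHomeomorph (G p)
  conic : ∀ p ∈ Om, Conic (G p)
  pl : ∀ p ∈ Om, ∃ S : Finset (E →L[ℝ] E), ∀ x, ∃ A ∈ S, G p x = A x
  moll : ∀ p ∈ Om, p ∉ Z → MollAt h p
  edge : ∀ p ∈ Z, p ∉ V → EdgeGerm (G p) (e p)
  /-- in the conical ball of an edge point `p`, `Z` is the line through `p`, and there is no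
  vertex -/
  edge_line : ∀ p ∈ Z, p ∉ V → ∀ r > 0, ball p r ⊆ Om → (∀ v, ‖v‖ < r → h (p + v) = h p + G p v) →
    ∀ v, ‖v‖ < r → (p + v ∈ Z ↔ ∃ s : ℝ, v = s • e p) ∧ p + v ∉ V
  /-- germs and directions are constant along edges -/
  edge_const : ∀ p ∈ Z, p ∉ V → ∀ r > 0, ball p r ⊆ Om →
    (∀ v, ‖v‖ < r → h (p + v) = h p + G p v) →
    ∀ s : ℝ, |s| < r → G (p + s • e p) = G p ∧ e (p + s • e p) = e p
  /-- in a conical ball of any point `q`, `Z \ {q}`, `V \ {q}` and the germs are invariant under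
  dilations about `q`; a vertex is isolated -/
  cone : ∀ q ∈ Om, ∀ r > 0, ball q r ⊆ Om → (∀ v, ‖v‖ < r → h (q + v) = h q + G q v) →
    ∀ v, v ≠ 0 → ‖v‖ < r → q + v ∉ V ∧ ∀ t : ℝ, 0 < t → t ≤ 1 →
      (q + t • v ∈ Z ↔ q + v ∈ Z) ∧ G (q + t • v) = G (q + v) ∧ e (q + t • v) = e (q + v)

/-- homeomorphism between open sets -/
structure HomeoOn (h : E → E) (Om La : Set E) : Prop where
  bij : BijOn h Om La
  cont : ContinuousOn h Om
  inv : ∃ k : E → E, ContinuousOn k La ∧ ∀ x ∈ Om, k (h x) = x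

/-- P5d-B, first half (edges): `h₂` is Moll off `V`, conical at `V`. `bnd : E → ℝ` is a bound for
the derivative which does NOT depend on `η`. -/
def StageEdge (E : Type*) [NormedAddCommGroup E] [InnerProductSpace ℝ E] [MeasureSpace E] : Prop :=
  ∀ (h : E → E) (Om La V Z : Set E) (G : E → E → E) (e : E → E),
    IsOpen Om → IsOpen La → HomeoOn h Om La → Germs h Om V Z G e →
    ∃ (C : E → ℝ) (K : E → E → E), (∀ x ∈ Om, ∃ r > 0, ∃ M, ∀ y ∈ ball x r ∩ Om, C y ≤ M) ∧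
    ∀ η : E → ℝ, ContinuousOn η Om → (∀ x ∈ Om, 0 < η x) →
      ∃ h₂ : E → E, HomeoOn h₂ Om La ∧
        (∀ x ∈ Om, x ∉ V → MollAt h₂ x) ∧
        (∀ v ∈ V, ∃ r > 0, ball v r ⊆ Om ∧ ∀ u, ‖u‖ < r → h₂ (v + u) = h₂ v + K v u) ∧
        (∀ v ∈ V, IsHomeomorph (K v) ∧ Conic (K v) ∧ ∀ x, x ≠ 0 → MollAt (K v) x) ∧
        (∀ x ∈ Om, ‖h₂ x - h x‖ ≤ η x) ∧
        (∀ x ∈ Om, h₂ x ≠ h x → infDist x Z ≤ η x) ∧
        (∀ x ∈ Om, ∃ r > 0, ∀ y ∈ ball x r, ∀ z ∈ ball x r, ‖h₂ y - h₂ z‖ ≤ C x * ‖y - z‖)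

/-- P5d-B, second half (vertices), same format; the output is Moll everywhere. -/
def StageVertex (E : Type*) [NormedAddCommGroup E] [InnerProductSpace ℝ E] [MeasureSpace E] :
    Prop :=
  ∀ (h : E → E) (Om La V : Set E) (K : E → E → E),
    IsOpen Om → IsOpen La → HomeoOn h Om La → V ⊆ Om →
    (∀ x ∈ Om, ∃ r > 0, ball x r ∩ V ⊆ {x}) →
    (∀ x ∈ Om, x ∉ V → MollAt h x) →
    (∀ v ∈ V, ∃ r > 0, ball v r ⊆ Om ∧ ∀ u, ‖u‖ < r → h (v + u) = h v + K v u) →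
    (∀ v ∈ V, IsHomeomorph (K v) ∧ Conic (K v) ∧ ∀ x, x ≠ 0 → MollAt (K v) x) →
    ∃ C : E → ℝ, ∀ η : E → ℝ, ContinuousOn η Om → (∀ x ∈ Om, 0 < η x) →
      ∃ h₃ : E → E, HomeoOn h₃ Om La ∧ (∀ x ∈ Om, MollAt h₃ x) ∧
        (∀ x ∈ Om, ‖h₃ x - h x‖ ≤ η x) ∧
        (∀ x ∈ Om, h₃ x ≠ h x → ∃ v ∈ V, ‖x - v‖ ≤ η x ∧ ‖x - v‖ ≤ η v ∧
          ∃ r > 0, ∀ y ∈ ball x r, ∀ z ∈ ball x r, ‖h₃ y - h₃ z‖ ≤ C v * ‖y - z‖)

end Crest.Agent.R096.P5Spec_205
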