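import Mathlib
import Crest.Agent.R096.P5Spec_205

/-!
Row 96, P5, `StageEdge` (205's P5Spec), part 1: conical radius, lines, selection of the edge data.
-/

set_option autoImplicit false
set_option linter.unusedSectionVars false
open Set Metric MeasureTheory Filter Topology
open scoped NNReal
open Crest.Agent.R096.P5Spec_205

namespace Crest.Agent.R096.StE_816

variable {E : Type*} [NormedAddCommGroup E] [InnerProductSpace ℝ E] [MeasureSpace E]

/-- the conical radius `r` is admissible at `p` -/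
def Good (h : E → E) (Om : Set E) (G : E → E → E) (p : E) (r : ℝ) : Prop :=
  0 < r ∧ ball p r ⊆ Om ∧ ∀ v, ‖v‖ < r → h (p + v) = h p + G p v

/-- the conical radius (at most one) -/
noncomputable def rho (h : E → E) (Om : Set E) (G : E → E → E) (p : E) : ℝ :=
  sSup {r | r ≤ 1 ∧ Good h Om G p r}

section radius

variable {h : E → E} {Om V Z : Set E} {G : E → E → E} {e : E → E}

theorem Good.mono {p : E} {r r' : ℝ} (hr : Good h Om G p r) (h0 : 0 < r') (hle : r' ≤ r) :
    Good h Om G p r' :=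
  ⟨h0, (ball_subset_ball hle).trans hr.2.1, fun v hv => hr.2.2 v (hv.trans_le hle)⟩

theorem bdd (p : E) : BddAbove {r | r ≤ 1 ∧ Good h Om G p r} := ⟨1, fun _ hr => hr.1⟩

theorem le_rho {p : E} {r : ℝ} (hr : Good h Om G p r) (h1 : r ≤ 1) : r ≤ rho h Om G p :=
  le_csSup (bdd p) ⟨h1, hr⟩

theorem rho_good (H : Germs h Om V Z G e) {p : E} (hp : p ∈ Om) :
    Good h Om G p (rho h Om G p) := by
  obtain ⟨r, hr0, hrO, hr⟩ := H.germ p hp
  have hne : ({r | r ≤ 1 ∧ Good h Om G p r} : Set ℝ).Nonempty :=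
    ⟨min r 1, min_le_right _ _, Good.mono (h := h) (G := G) ⟨hr0, hrO, hr⟩
      (lt_min hr0 one_pos) (min_le_left _ _)⟩
  have hpos : 0 < rho h Om G p :=
    lt_of_lt_of_le (lt_min hr0 one_pos) (le_rho (Good.mono (h := h) (G := G) ⟨hr0, hrO, hr⟩
      (lt_min hr0 one_pos) (min_le_left _ _)) (min_le_right _ _))
  refine ⟨hpos, ?_, ?_⟩
  · intro y hy
    obtain ⟨s, hs, hys⟩ := exists_lt_of_lt_csSup hne (mem_ball.1 hy)
    exact hs.2.2.1 (mem_ball.2 hys)
  · intro v hv
    obtain ⟨s, hs, hys⟩ := exists_lt_of_lt_csSup hne hv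
    exact hs.2.2.2 v hys

theorem rho_pos (H : Germs h Om V Z G e) {p : E} (hp : p ∈ Om) : 0 < rho h Om G p :=
  (rho_good H hp).1

theorem rho_le_one (H : Germs h Om V Z G e) {p : E} (hp : p ∈ Om) : rho h Om G p ≤ 1 := by
  obtain ⟨r, hr0, hrO, hr⟩ := H.germ p hp
  have hne : ({r | r ≤ 1 ∧ Good h Om G p r} : Set ℝ).Nonempty :=
    ⟨min r 1, min_le_right _ _, Good.mono (h := h) (G := G) ⟨hr0, hrO, hr⟩
      (lt_min hr0 one_pos) (min_le_left _ _)⟩
  exact csSup_le hne fun _ hr => hr.1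

/-- edge points -/
def EP (V Z : Set E) (p : E) : Prop := p ∈ Z ∧ p ∉ V

theorem EP.om (H : Germs h Om V Z G e) {p : E} (hp : EP V Z p) : p ∈ Om := H.Z_sub hp.1

theorem EP.germ (H : Germs h Om V Z G e) {p : E} (hp : EP V Z p) : EdgeGerm (G p) (e p) :=
  H.edge p hp.1 hp.2

theorem conic_zero {K : E → E} (hK : Conic K) : K 0 = 0 := by
  have := hK 0 le_rfl 0
  rwa [zero_smul, zero_smul] at this

theorem eg_line {K : E → E} {u : E} (hK : EdgeGerm K u) (s : ℝ) : K (s • u) = s • K u := by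
  have := hK.inv 0 s
  rwa [zero_add, conic_zero hK.conic, zero_add] at this

theorem norm_smul_e {K : E → E} {u : E} (hK : EdgeGerm K u) (s : ℝ) : ‖s • u‖ = |s| := by
  rw [norm_smul, hK.unit, mul_one, Real.norm_eq_abs]

theorem edge_shift (H : Germs h Om V Z G e) {p : E} (hp : EP V Z p) {r : ℝ}
    (hr : Good h Om G p r) {s : ℝ} (hs : |s| < r) :
    EP V Z (p + s • e p) ∧ G (p + s • e p) = G p ∧ e (p + s • e p) = e p ∧
      Good h Om G (p + s • e p) (r - |s|) := by
  have hg := EP.germ H hp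
  have h1 := H.edge_line p hp.1 hp.2 r hr.1 hr.2.1 hr.2.2 (s • e p)
    (by rw [norm_smul_e hg]; exact hs)
  have h2 := H.edge_const p hp.1 hp.2 r hr.1 hr.2.1 hr.2.2 s hs
  refine ⟨⟨h1.1.2 ⟨s, rfl⟩, h1.2⟩, h2.1, h2.2, sub_pos.2 hs, ?_, ?_⟩
  · intro y hy
    refine hr.2.1 ?_
    rw [mem_ball, dist_eq_norm] at hy ⊢
    have e1 : y - p = (y - (p + s • e p)) + s • e p := by abel
    rw [e1]
    refine (norm_add_le _ _).trans_lt ?_
    rw [norm_smul_e hg]
    linarith
  · intro v hv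
    have e1 : p + s • e p + v = p + (v + s • e p) := by abel
    have hn : ‖v + s • e p‖ < r := by
      refine (norm_add_le _ _).trans_lt ?_
      rw [norm_smul_e hg]
      linarith
    rw [e1, hr.2.2 _ hn, hg.inv, hr.2.2 _ (by rw [norm_smul_e hg]; exact hs), eg_line hg, h2.1]
    abel

theorem rho_shift (H : Germs h Om V Z G e) {p : E} (hp : EP V Z p) {s : ℝ}
    (hs : |s| < rho h Om G p) :
    EP V Z (p + s • e p) ∧ G (p + s • e p) = G p ∧ e (p + s • e p) = e p ∧
      rho h Om G p - |s| ≤ rho h Om G (p + s • e p) := by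
  obtain ⟨h1, h2, h3, h4⟩ := edge_shift H hp (rho_good H (EP.om H hp)) hs
  refine ⟨h1, h2, h3, le_rho h4 ?_⟩
  have := rho_le_one H (EP.om H hp)
  have := abs_nonneg s
  linarith

theorem rho_lip_aux (H : Germs h Om V Z G e) {p : E} (hp : EP V Z p) {s s' : ℝ}
    (hs : |s| ≤ rho h Om G p / 4) (hs' : |s'| ≤ rho h Om G p / 4) :
    rho h Om G (p + s • e p) ≤ rho h Om G (p + s' • e p) + |s - s'| := by
  have hpos := rho_pos H (EP.om H hp)
  obtain ⟨h1, h2, h3, h4⟩ := rho_shift H hp (s := s) (by linarith)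
  have h5 : |s' - s| ≤ rho h Om G p / 2 := by
    have := abs_sub s' s
    linarith
  have h6 := rho_shift H h1 (s := s' - s) (by linarith)
  rw [h3] at h6
  have e1 : p + s • e p + (s' - s) • e p = p + s' • e p := by
    rw [add_assoc, ← add_smul]; congr 2; ring
  rw [e1] at h6
  have h7 := h6.2.2.2
  rw [abs_sub_comm s' s] at h7
  linarith

theorem rho_lip (H : Germs h Om V Z G e) {p : E} (hp : EP V Z p) {s s' : ℝ}
    (hs : |s| ≤ rho h Om G p / 4) (hs' : |s'| ≤ rho h Om G p / 4) :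
    |rho h Om G (p + s • e p) - rho h Om G (p + s' • e p)| ≤ |s - s'| := by
  rw [abs_le]
  have h1 := rho_lip_aux H hp hs hs'
  have h2 := rho_lip_aux H hp hs' hs
  rw [abs_sub_comm] at h2
  constructor <;> linarith

theorem rho_upper (H : Germs h Om V Z G e) {p : E} (hp : EP V Z p) {s : ℝ}
    (hs : |s| ≤ rho h Om G p / 4) : rho h Om G (p + s • e p) ≤ 5 / 4 * rho h Om G p := by
  have hpos := rho_pos H (EP.om H hp)
  have := rho_lip_aux H hp hs (s' := 0) (by rw [abs_zero]; linarith)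
  rw [zero_smul, add_zero, sub_zero] at this
  linarith

theorem same_line (H : Germs h Om V Z G e) {p p' : E} (hp : EP V Z p) (hp' : EP V Z p')
    (hd : ‖p' - p‖ < max (rho h Om G p) (rho h Om G p')) :
    ∃ s : ℝ, p' = p + s • e p ∧ e p' = e p ∧ G p' = G p := by
  rcases lt_max_iff.1 hd with h1 | h1
  · have hg := rho_good H (EP.om H hp)
    have h2 := H.edge_line p hp.1 hp.2 _ hg.1 hg.2.1 hg.2.2 (p' - p) h1
    have e1 : p + (p' - p) = p' := by abel
    rw [e1] at h2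
    obtain ⟨s, hs⟩ := h2.1.1 hp'.1
    have h3 : |s| < rho h Om G p := by rw [← norm_smul_e (EP.germ H hp), ← hs]; exact h1
    have h4 := rho_shift H hp h3
    rw [← hs, e1] at h4
    exact ⟨s, by rw [← hs, e1], h4.2.2.1, h4.2.1⟩
  · have hg := rho_good H (EP.om H hp')
    have h1' : ‖p - p'‖ < rho h Om G p' := by rwa [norm_sub_rev]
    have h2 := H.edge_line p' hp'.1 hp'.2 _ hg.1 hg.2.1 hg.2.2 (p - p') h1'
    have e1 : p' + (p - p') = p := by abel
    rw [e1] at h2
    obtain ⟨s, hs⟩ := h2.1.1 hp.1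
    have h3 : |s| < rho h Om G p' := by rw [← norm_smul_e (EP.germ H hp'), ← hs]; exact h1'
    have h4 := rho_shift H hp' h3
    rw [← hs, e1] at h4
    refine ⟨-s, ?_, h4.2.2.1.symm, h4.2.1.symm⟩
    rw [h4.2.2.1, neg_smul, ← hs]
    abel

theorem no_vertex (H : Germs h Om V Z G e) {p v : E} (hp : EP V Z p) (hv : v ∈ V) :
    rho h Om G p ≤ ‖p - v‖ := by
  by_contra hcon
  rw [not_le, norm_sub_rev] at hcon
  have hg := rho_good H (EP.om H hp)
  have h2 := (H.edge_line p hp.1 hp.2 _ hg.1 hg.2.1 hg.2.2 (v - p) hcon).2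
  have e1 : p + (v - p) = v := by abel
  rw [e1] at h2
  exact h2 hv

end radius

/-! ## selection of the edge data -/

/-- the properties of the chosen data of an edge germ -/
structure EProp (H : E → E) (e : E) (C : ℝ≥0) (Q Hi : E → E) (B sg : ℝ) : Prop where
  Q_eq : ∀ y, inner ℝ e y = (0 : ℝ) → 1 ≤ ‖y‖ → Q y = H y
  left : ∀ x, Hi (H x) = x
  right : ∀ x, H (Hi x) = x
  Hi_homeo : IsHomeomorph Hi
  sg_pos : 0 < sg
  sg_le : sg ≤ 1 / 16
  B_nonneg : 0 ≤ B
  sgB : sg * B ≤ 1 / 32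
  dispH : ∀ y, inner ℝ e y = (0 : ℝ) → ‖y‖ ≤ 1 → ‖Hi (Q y) - y‖ ≤ B
  dispQ : ∀ y, inner ℝ e y = (0 : ℝ) → ‖y‖ ≤ 1 → ‖Q y - H y‖ ≤ B
  tube : ∀ R : ℝ → ℝ, (∀ s, 0 ≤ R s) → (∀ s t, |R s - R t| ≤ sg * |s - t|) →
      IsHomeomorph (tubeMap H Q e R) ∧ LipschitzWith C (tubeMap H Q e R) ∧
      ∀ x, 0 < R (inner ℝ e x) → MollAt (tubeMap H Q e R) x

variable (E) in
/-- a selection of the data for all germs -/
structure Sel where
  C : (E → E) → E → ℝ≥0
  Q : (E → E) → E → E → E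
  Hi : (E → E) → E → E → E
  B : (E → E) → E → ℝ
  sg : (E → E) → E → ℝ
  spec : ∀ H e, EdgeGerm H e → EProp H e (C H e) (Q H e) (Hi H e) (B H e) (sg H e)

theorem exists_eprop [FiniteDimensional ℝ E] (hB : EdgeB E) {H : E → E} {e : E}
    (hg : EdgeGerm H e) : ∃ (C : ℝ≥0) (Q Hi : E → E) (B sg : ℝ), EProp H e C Q Hi B sg := by
  obtain ⟨ε₀, hε, C, Q, hQ, hT⟩ := hB H e hg
  have : ProperSpace E := FiniteDimensional.proper_real E
  obtain ⟨Hh, hHh⟩ : ∃ f : E ≃ₜ E, ∀ x, f x = H x := ⟨hg.homeo.homeomorph H, fun x => rfl⟩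
  -- the model with `R = 1`
  have hM := (hT (fun _ => 1) (fun _ => zero_le_one) (fun s t => by
    rw [sub_self, abs_zero]; positivity)).1.continuous
  set M := tubeMap H Q e (fun _ => 1) with hMdef
  have hMQ : ∀ y, inner ℝ e y = (0 : ℝ) → M y = Q y := by
    intro y hy
    simp only [hMdef, tubeMap, hy, zero_smul, sub_zero, inv_one, one_smul, zero_add,
      one_ne_zero, if_false]
  have hc1 : Continuous fun y => ‖Hh.symm (M y) - y‖ := by
    exact ((Hh.symm.continuous.comp hM).sub continuous_id).norm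
  have hc2 : Continuous fun y => ‖M y - H y‖ := (hM.sub hg.homeo.continuous).norm
  obtain ⟨B1, hB1⟩ := (isCompact_closedBall (0 : E) 1).exists_bound_of_continuousOn
    hc1.continuousOn
  obtain ⟨B2, hB2⟩ := (isCompact_closedBall (0 : E) 1).exists_bound_of_continuousOn
    hc2.continuousOn
  have hB1n : 0 ≤ B1 := (norm_nonneg _).trans (hB1 0 (by simp))
  have hpos : 0 < 1 / (32 * (max B1 B2 + 1)) := by
    have : 0 ≤ max B1 B2 := hB1n.trans (le_max_left _ _)
    positivity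
  refine ⟨C, Q, Hh.symm, max B1 B2, min (1 / 16) (min ε₀ (1 / (32 * (max B1 B2 + 1)))),
    hQ, fun x => ?_, fun x => ?_, Hh.symm.isHomeomorph, ?_, min_le_left _ _,
    hB1n.trans (le_max_left _ _), ?_, fun y hy hy1 => ?_, fun y hy hy1 => ?_, fun R hR0 hR => ?_⟩
  · rw [← hHh]; exact Hh.symm_apply_apply x
  · rw [← hHh]; exact Hh.apply_symm_apply x
  · exact lt_min (by norm_num) (lt_min hε hpos)
  · have h0 : 0 ≤ max B1 B2 := hB1n.trans (le_max_left _ _)
    calc min (1 / 16) (min ε₀ (1 / (32 * (max B1 B2 + 1)))) * max B1 B2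
        ≤ 1 / (32 * (max B1 B2 + 1)) * max B1 B2 :=
          mul_le_mul_of_nonneg_right ((min_le_right _ _).trans (min_le_right _ _)) h0
      _ ≤ 1 / 32 := by
          rw [one_div, inv_mul_eq_div, div_le_iff₀ (by positivity)]
          linarith
  · have := hB1 y (by rwa [mem_closedBall_zero_iff])
    rw [norm_norm, hMQ y hy] at this
    exact this.trans (le_max_left _ _)
  · have := hB2 y (by rwa [mem_closedBall_zero_iff])
    rw [norm_norm, hMQ y hy] at this
    exact this.trans (le_max_right _ _)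
  · exact hT R hR0 fun s t => (hR s t).trans
      (mul_le_mul_of_nonneg_right ((min_le_right _ _).trans (min_le_left _ _)) (abs_nonneg _))

theorem exists_sel [FiniteDimensional ℝ E] (hB : EdgeB E) : Nonempty (Sel E) := by
  have key : ∀ (H : E → E) (e : E), ∃ (C : ℝ≥0) (Q Hi : E → E) (B sg : ℝ),
      EdgeGerm H e → EProp H e C Q Hi B sg := by
    intro H e
    by_cases hg : EdgeGerm H e
    · obtain ⟨C, Q, Hi, B, sg, hh⟩ := exists_eprop hB hg
      exact ⟨C, Q, Hi, B, sg, fun _ => hh⟩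
    · exact ⟨0, id, id, 0, 0, fun h => absurd h hg⟩
  choose C Q Hi B sg hspec using key
  exact ⟨⟨C, Q, Hi, B, sg, hspec⟩⟩

end Crest.Agent.R096.StE_816
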