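import Mathlib
import Crest.Agent.R096.P5Spec_205
import Crest.Agent.R096.StE1_816

/-!
Row 96, P5, `StageEdge`, part 2: the push `W` of the domain, its local model.
-/

set_option autoImplicit false
set_option linter.unusedSectionVars false
open Set Metric MeasureTheory Filter Topology
open scoped NNReal
open Crest.Agent.R096.P5Spec_205

namespace Crest.Agent.R096.StE_816

/-- admissible sizes of the tubes -/
structure MOK {E : Type*} [NormedAddCommGroup E] [InnerProductSpace ℝ E] [MeasureSpace E]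
    (h : E → E) (Om V Z : Set E) (G : E → E → E) (e : E → E) (m : E → ℝ) : Prop where
  pos : ∀ p, EP V Z p → 0 < m p
  le : ∀ p, EP V Z p → m p ≤ rho h Om G p
  lip : ∀ p, EP V Z p → ∀ s s' : ℝ, |s| ≤ rho h Om G p / 4 → |s'| ≤ rho h Om G p / 4 →
    |m (p + s • e p) - m (p + s' • e p)| ≤ |s - s'|

/-- all the data -/
structure Dat (E : Type*) [NormedAddCommGroup E] [InnerProductSpace ℝ E] [MeasureSpace E] where
  h : E → E
  Om : Set E
  V : Set E
  Z : Set E
  G : E → E → E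
  e : E → E
  m : E → ℝ
  S : Sel E
  H : Germs h Om V Z G e
  mok : MOK h Om V Z G e m
  hOm : IsOpen Om
  hZ : ∀ x ∈ Om, x ∉ Z → ∃ r > 0, ∀ y ∈ ball x r, y ∉ Z

variable {E : Type*} [NormedAddCommGroup E] [InnerProductSpace ℝ E] [MeasureSpace E]

namespace Dat

variable (D : Dat E)

/-- edge point -/
def ep (p : E) : Prop := EP D.V D.Z p
/-- conical radius -/
noncomputable def ro (p : E) : ℝ := rho D.h D.Om D.G p
/-- slope -/
def sg (p : E) : ℝ := D.S.sg (D.G p) (D.e p)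
/-- displacement -/
def B (p : E) : ℝ := D.S.B (D.G p) (D.e p)
/-- Lipschitz bound -/
def C (p : E) : ℝ≥0 := D.S.C (D.G p) (D.e p)
/-- the rounded map on the normal disc -/
def Q (p : E) : E → E := D.S.Q (D.G p) (D.e p)
/-- the inverse of the germ -/
def Hi (p : E) : E → E := D.S.Hi (D.G p) (D.e p)
/-- radius of the tube -/
def rad (p : E) : ℝ := D.sg p * D.m p
/-- `x` lies in the normal disc of the tube at `p` -/
def InT (p x : E) : Prop :=
  D.ep p ∧ inner ℝ (D.e p) (x - p) = (0 : ℝ) ∧ ‖x - p‖ ≤ D.rad p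

variable {D}

theorem spec {p : E} (hp : D.ep p) :
    EProp (D.G p) (D.e p) (D.C p) (D.Q p) (D.Hi p) (D.B p) (D.sg p) :=
  D.S.spec _ _ (EP.germ D.H hp)

theorem eg {p : E} (hp : D.ep p) : EdgeGerm (D.G p) (D.e p) := EP.germ D.H hp

theorem om {p : E} (hp : D.ep p) : p ∈ D.Om := EP.om D.H hp

theorem ro_pos {p : E} (hp : D.ep p) : 0 < D.ro p := rho_pos D.H (om hp)

theorem m_pos {p : E} (hp : D.ep p) : 0 < D.m p := D.mok.pos p hp

theorem m_le {p : E} (hp : D.ep p) : D.m p ≤ D.ro p := D.mok.le p hp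

theorem rad_pos {p : E} (hp : D.ep p) : 0 < D.rad p := mul_pos (spec hp).sg_pos (m_pos hp)

theorem rad_le_m {p : E} (hp : D.ep p) : D.rad p ≤ D.m p / 16 := by
  have h1 := (spec hp).sg_le
  have h2 := m_pos hp
  have : D.sg p * D.m p ≤ 1 / 16 * D.m p := mul_le_mul_of_nonneg_right h1 h2.le
  unfold rad
  linarith

theorem rad_le {p : E} (hp : D.ep p) : D.rad p ≤ D.ro p / 16 := by
  have := rad_le_m hp
  have := m_le hp
  linarith

theorem radB_le_m {p : E} (hp : D.ep p) : D.rad p * D.B p ≤ D.m p / 32 := by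
  have h1 := (spec hp).sgB
  have h2 := m_pos hp
  have : D.sg p * D.B p * D.m p ≤ 1 / 32 * D.m p := mul_le_mul_of_nonneg_right h1 h2.le
  unfold rad
  calc D.sg p * D.m p * D.B p = D.sg p * D.B p * D.m p := by ring
    _ ≤ D.m p / 32 := by linarith

theorem radB_le {p : E} (hp : D.ep p) : D.rad p * D.B p ≤ D.ro p / 32 := by
  have := radB_le_m hp
  have := m_le hp
  linarith

theorem inner_e_self {p : E} (hp : D.ep p) : inner ℝ (D.e p) (D.e p) = (1 : ℝ) := by
  rw [real_inner_self_eq_norm_sq, (eg hp).unit, one_pow]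

theorem inT_line {p0 p x : E} (hp0 : D.ep p0) (hx : D.InT p x)
    (hd : ‖x - p0‖ < 15 / 16 * max (D.ro p0) (D.ro p)) :
    p = p0 + (inner ℝ (D.e p0) (x - p0) : ℝ) • D.e p0 ∧ D.e p = D.e p0 ∧ D.G p = D.G p0 := by
  have h1 : ‖p - p0‖ < max (D.ro p0) (D.ro p) := by
    have e1 : p - p0 = (x - p0) - (x - p) := by abel
    rw [e1]
    refine (norm_sub_le _ _).trans_lt ?_
    have h2 := hx.2.2
    have h3 := rad_le hx.1
    have h4 := le_max_right (D.ro p0) (D.ro p)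
    linarith
  obtain ⟨s, hs1, hs2, hs3⟩ := same_line D.H hp0 hx.1 h1
  refine ⟨?_, hs2, hs3⟩
  have h5 := hx.2.1
  rw [hs2, hs1] at h5
  have e2 : x - (p0 + s • D.e p0) = (x - p0) - s • D.e p0 := by abel
  rw [e2, inner_sub_right, inner_smul_right, inner_e_self hp0, mul_one, sub_eq_zero] at h5
  rw [hs1, h5]

theorem inT_unique {p p' x : E} (hx : D.InT p x) (hx' : D.InT p' x) : p' = p := by
  have h1 := inT_line hx.1 hx' ?_
  · rw [h1.1, hx.2.1, zero_smul, add_zero]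
  · have := hx.2.2
    have := rad_le hx.1
    have := ro_pos hx.1
    have := le_max_left (D.ro p) (D.ro p')
    linarith

variable (D) in
open Classical in
/-- the push in the domain -/
noncomputable def W (x : E) : E :=
  if hx : ∃ p, D.InT p x then
    hx.choose + D.rad hx.choose • D.Hi hx.choose
      (D.Q hx.choose ((D.rad hx.choose)⁻¹ • (x - hx.choose)))
  else x

theorem W_of_inT {p x : E} (hx : D.InT p x) :
    D.W x = p + D.rad p • D.Hi p (D.Q p ((D.rad p)⁻¹ • (x - p))) := by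
  have hex : ∃ p, D.InT p x := ⟨p, hx⟩
  have h1 : hex.choose = p := inT_unique hx hex.choose_spec
  rw [W, dif_pos hex, h1]

theorem W_of_not {x : E} (hx : ¬ ∃ p, D.InT p x) : D.W x = x := dif_neg hx

theorem disp {p x : E} (hx : D.InT p x) : ‖D.W x - x‖ ≤ D.rad p * D.B p := by
  have hr := rad_pos hx.1
  set y := (D.rad p)⁻¹ • (x - p) with hy
  have hxy : x - p = D.rad p • y := by
    rw [hy, smul_smul, mul_inv_cancel₀ hr.ne', one_smul]
  have h1 : inner ℝ (D.e p) y = (0 : ℝ) := by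
    rw [hy, inner_smul_right, hx.2.1, mul_zero]
  have h2 : ‖y‖ ≤ 1 := by
    rw [hy, norm_smul, norm_inv, Real.norm_of_nonneg hr.le, inv_mul_le_iff₀ hr, mul_one]
    exact hx.2.2
  have h3 : D.W x - x = D.rad p • (D.Hi p (D.Q p y) - y) := by
    rw [W_of_inT hx, ← hy, smul_sub, ← hxy]
    abel
  rw [h3, norm_smul, Real.norm_of_nonneg hr.le]
  exact mul_le_mul_of_nonneg_left ((spec hx.1).dispH y h1 h2) hr.le

theorem disp_ro {p x : E} (hx : D.InT p x) : ‖D.W x - x‖ ≤ D.ro p / 32 :=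
  (disp hx).trans (radB_le hx.1)

/-! ### the local model -/

/-- clamp -/
noncomputable def cl (r s : ℝ) : ℝ := max (-(r / 4)) (min s (r / 4))

theorem abs_cl_le {r : ℝ} (hr : 0 ≤ r) (s : ℝ) : |cl r s| ≤ r / 4 := by
  rw [abs_le, cl]
  exact ⟨le_max_left _ _, max_le (by linarith) (min_le_right _ _)⟩

theorem cl_of_abs_le {r s : ℝ} (hs : |s| ≤ r / 4) : cl r s = s := by
  rw [abs_le] at hs
  rw [cl, min_eq_left hs.2, max_eq_right hs.1]

theorem cl_lip (r s t : ℝ) : |cl r s - cl r t| ≤ |s - t| := by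
  rw [cl, cl]
  refine (abs_max_sub_max_le_max _ _ _ _).trans ?_
  refine max_le (by rw [sub_self, abs_zero]; positivity) ?_
  refine (abs_min_sub_min_le_max _ _ _ _).trans ?_
  exact max_le le_rfl (by rw [sub_self, abs_zero]; positivity)

variable (D) in
/-- radius of the model tube at `p0` -/
noncomputable def Rt (p0 : E) (s : ℝ) : ℝ := D.sg p0 * D.m (p0 + cl (D.ro p0) s • D.e p0)

theorem shift {p0 : E} (hp : D.ep p0) {s : ℝ} (hs : |s| ≤ D.ro p0 / 4) :
    D.ep (p0 + s • D.e p0) ∧ D.G (p0 + s • D.e p0) = D.G p0 ∧ D.e (p0 + s • D.e p0) = D.e p0 ∧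
      D.ro (p0 + s • D.e p0) ≤ 5 / 4 * D.ro p0 := by
  have h1 := ro_pos hp
  have h2 := rho_shift D.H hp (s := s) (by unfold ro at *; linarith)
  exact ⟨h2.1, h2.2.1, h2.2.2.1, rho_upper D.H hp hs⟩

theorem Rt_pos {p0 : E} (hp : D.ep p0) (s : ℝ) : 0 < D.Rt p0 s :=
  mul_pos (spec hp).sg_pos (m_pos (shift hp (abs_cl_le (ro_pos hp).le s)).1)

theorem Rt_lip {p0 : E} (hp : D.ep p0) (s t : ℝ) :
    |D.Rt p0 s - D.Rt p0 t| ≤ D.sg p0 * |s - t| := by
  rw [Rt, Rt, ← mul_sub, abs_mul, abs_of_pos (spec hp).sg_pos]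
  refine mul_le_mul_of_nonneg_left ?_ (spec hp).sg_pos.le
  exact (D.mok.lip p0 hp _ _ (abs_cl_le (ro_pos hp).le s) (abs_cl_le (ro_pos hp).le t)).trans
    (cl_lip _ _ _)

theorem Rt_le {p0 : E} (hp : D.ep p0) (s : ℝ) : D.Rt p0 s ≤ D.sg p0 * (5 / 4 * D.ro p0) := by
  have h1 := shift hp (abs_cl_le (ro_pos hp).le s)
  exact mul_le_mul_of_nonneg_left ((m_le h1.1).trans h1.2.2.2) (spec hp).sg_pos.le

variable (D) in
/-- the model tube map -/
noncomputable def T (p0 : E) : E → E := tubeMap (D.G p0) (D.Q p0) (D.e p0) (D.Rt p0)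

variable (D) in
/-- the model push -/
noncomputable def N (p0 : E) (x : E) : E := D.Hi p0 (D.T p0 x)

theorem T_spec {p0 : E} (hp : D.ep p0) : IsHomeomorph (D.T p0) ∧ LipschitzWith (D.C p0) (D.T p0) ∧
    ∀ x, MollAt (D.T p0) x := by
  have h1 := (spec hp).tube (D.Rt p0) (fun s => (Rt_pos hp s).le) (Rt_lip hp)
  exact ⟨h1.1, h1.2.1, fun x => h1.2.2 x (Rt_pos hp _)⟩

theorem N_homeo {p0 : E} (hp : D.ep p0) : IsHomeomorph (D.N p0) :=
  (spec hp).Hi_homeo.comp (T_spec hp).1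

theorem G_N {p0 : E} (hp : D.ep p0) (x : E) : D.G p0 (D.N p0 x) = D.T p0 x := (spec hp).right _

theorem N_eq {p0 : E} (hp : D.ep p0) (x : E) :
    D.N p0 x = (inner ℝ (D.e p0) x : ℝ) • D.e p0 + D.Rt p0 (inner ℝ (D.e p0) x) •
      D.Hi p0 (D.Q p0 ((D.Rt p0 (inner ℝ (D.e p0) x))⁻¹ •
        (x - (inner ℝ (D.e p0) x : ℝ) • D.e p0))) := by
  set s : ℝ := inner ℝ (D.e p0) x
  set w := D.Hi p0 (D.Q p0 ((D.Rt p0 s)⁻¹ • (x - s • D.e p0))) with hw
  have hR := Rt_pos hp s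
  have h1 : D.T p0 x = D.G p0 (s • D.e p0 + D.Rt p0 s • w) := by
    rw [T, tubeMap, if_neg hR.ne', add_comm (s • D.e p0), (eg hp).inv, (eg hp).conic _ hR.le, hw,
      (spec hp).right, add_comm]
  rw [N, h1, (spec hp).left]

theorem perp {p0 : E} (hp : D.ep p0) (x : E) :
    inner ℝ (D.e p0) (x - (inner ℝ (D.e p0) x : ℝ) • D.e p0) = (0 : ℝ) := by
  rw [inner_sub_right, inner_smul_right, inner_e_self hp, mul_one, sub_self]

theorem N_out {p0 : E} (hp : D.ep p0) {x : E}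
    (hx : D.Rt p0 (inner ℝ (D.e p0) x) ≤ ‖x - (inner ℝ (D.e p0) x : ℝ) • D.e p0‖) :
    D.N p0 x = x := by
  rw [N_eq hp]
  have h1 := perp hp x
  set s : ℝ := inner ℝ (D.e p0) x
  have hR := Rt_pos hp s
  rw [(spec hp).Q_eq, (spec hp).left, smul_smul, mul_inv_cancel₀ hR.ne', one_smul]
  · abel
  · rw [inner_smul_right, h1, mul_zero]
  · rw [norm_smul, norm_inv, Real.norm_of_nonneg hR.le, ← div_eq_inv_mul, le_div_iff₀ hR, one_mul]
    exact hx

theorem N_disp {p0 : E} (hp : D.ep p0) (x : E) : ‖D.N p0 x - x‖ ≤ D.ro p0 / 16 := by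
  have h0 := ro_pos hp
  have hle := Rt_le hp (inner ℝ (D.e p0) x)
  rcases le_or_gt (D.Rt p0 (inner ℝ (D.e p0) x)) ‖x - (inner ℝ (D.e p0) x : ℝ) • D.e p0‖ with hx | hx
  · rw [N_out hp hx, sub_self, norm_zero]; linarith
  · have h1 := perp hp x
    rw [N_eq hp]
    set s : ℝ := inner ℝ (D.e p0) x
    have hR := Rt_pos hp s
    set y := (D.Rt p0 s)⁻¹ • (x - s • D.e p0) with hy
    have hxy : D.Rt p0 s • y = x - s • D.e p0 := by
      rw [hy, smul_smul, mul_inv_cancel₀ hR.ne', one_smul]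
    have h2 : inner ℝ (D.e p0) y = (0 : ℝ) := by rw [hy, inner_smul_right, h1, mul_zero]
    have h3 : ‖y‖ ≤ 1 := by
      rw [hy, norm_smul, norm_inv, Real.norm_of_nonneg hR.le, inv_mul_le_iff₀ hR, mul_one]
      exact hx.le
    have h4 : s • D.e p0 + D.Rt p0 s • D.Hi p0 (D.Q p0 y) - x =
        D.Rt p0 s • (D.Hi p0 (D.Q p0 y) - y) := by
      rw [smul_sub, hxy]; abel
    rw [h4, norm_smul, Real.norm_of_nonneg hR.le]
    have h5 := (spec hp).dispH y h2 h3
    have h6 := (spec hp).sgB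
    have h7 := (spec hp).B_nonneg
    calc D.Rt p0 s * ‖D.Hi p0 (D.Q p0 y) - y‖ ≤ D.Rt p0 s * D.B p0 :=
          mul_le_mul_of_nonneg_left h5 hR.le
      _ ≤ D.sg p0 * (5 / 4 * D.ro p0) * D.B p0 := mul_le_mul_of_nonneg_right hle h7
      _ = D.sg p0 * D.B p0 * (5 / 4 * D.ro p0) := by ring
      _ ≤ 1 / 32 * (5 / 4 * D.ro p0) := mul_le_mul_of_nonneg_right h6 (by positivity)
      _ ≤ D.ro p0 / 16 := by linarith

theorem W_model {p0 x : E} (hp : D.ep p0) (hx : ‖x - p0‖ < D.ro p0 / 4) :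
    D.W x = p0 + D.N p0 (x - p0) := by
  set s : ℝ := inner ℝ (D.e p0) (x - p0) with hs
  have hs1 : |s| ≤ D.ro p0 / 4 := by
    have := abs_real_inner_le_norm (D.e p0) (x - p0)
    rw [(eg hp).unit, one_mul] at this
    exact this.trans hx.le
  obtain ⟨h1, h2, h3, h4⟩ := shift hp hs1
  have hrad : D.rad (p0 + s • D.e p0) = D.Rt p0 s := by
    rw [rad, Rt, sg, sg, h2, h3, cl_of_abs_le hs1]
  have e1 : x - (p0 + s • D.e p0) = (x - p0) - s • D.e p0 := by abel
  rcases le_or_gt (‖x - (p0 + s • D.e p0)‖) (D.rad (p0 + s • D.e p0)) with hc | hc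
  · have hin : D.InT (p0 + s • D.e p0) x := by
      refine ⟨h1, ?_, hc⟩
      rw [h3, e1]; exact perp hp _
    rw [W_of_inT hin, N_eq hp, ← hs, hrad]
    have h5 : D.Hi (p0 + s • D.e p0) = D.Hi p0 := by rw [Hi, Hi, h2, h3]
    have h6 : D.Q (p0 + s • D.e p0) = D.Q p0 := by rw [Q, Q, h2, h3]
    rw [h5, h6, e1]
    abel
  · have hnot : ¬ ∃ p, D.InT p x := by
      rintro ⟨p, hpx⟩
      have h0 := ro_pos hp
      have := inT_line hp hpx (by
        have := le_max_left (D.ro p0) (D.ro p)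
        linarith)
      rw [← hs] at this
      rw [this.1] at hpx
      exact absurd hpx.2.2 (not_le.2 hc)
    rw [W_of_not hnot, N_out hp]
    · abel
    · rw [← hs, ← hrad, ← e1]; exact hc.le

theorem h2_model {p0 x : E} (hp : D.ep p0) (hx : ‖x - p0‖ < D.ro p0 / 4) :
    D.h (D.W x) = D.h p0 + D.T p0 (x - p0) := by
  rw [W_model hp hx, ← G_N hp]
  refine (rho_good D.H (om hp)).2.2 _ ?_
  have h1 := N_disp hp (x - p0)
  have h2 : D.N p0 (x - p0) = (D.N p0 (x - p0) - (x - p0)) + (x - p0) := by abel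
  rw [h2]
  refine (norm_add_le _ _).trans_lt ?_
  have := ro_pos hp
  change _ < D.ro p0
  linarith

end Dat

end Crest.Agent.R096.StE_816
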