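import Mathlib
import Crest.Agent.R096.P5Spec_205
import Crest.Agent.R096.StE1_816
import Crest.Agent.R096.StE2_816

/-!
Row 96, P5, `StageEdge`, part 3: the push `W` is a homeomorphism of `Om`.
-/

set_option autoImplicit false
set_option linter.unusedSectionVars false
open Set Metric MeasureTheory Filter Topology
open scoped NNReal
open Crest.Agent.R096.P5Spec_205

namespace Crest.Agent.R096.StE_816

section general

variable {E : Type*} [NormedAddCommGroup E] [NormedSpace ℝ E]

/-- `f` maps the neighbourhoods of `x` to the neighbourhoods of `f x` -/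
def LH (f : E → E) (x : E) : Prop := map f (𝓝 x) = 𝓝 (f x)

theorem LH.comp {f g : E → E} {x : E} (hg : LH g (f x)) (hf : LH f x) :
    LH (fun y => g (f y)) x := by
  unfold LH at *
  have : (fun y => g (f y)) = g ∘ f := rfl
  rw [this, ← map_map, hf, hg]
  rfl

theorem LH.congr {f g : E → E} {x : E} (hf : LH f x) (h : g =ᶠ[𝓝 x] f) : LH g x := by
  unfold LH at *
  rw [map_congr h, hf, h.self_of_nhds]

theorem lh_homeo {f : E → E} (hf : IsHomeomorph f) (x : E) : LH f x :=
  (hf.homeomorph f).map_nhds_eq x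

theorem lh_add (a x : E) : LH (fun y => a + y) x := (Homeomorph.addLeft a).map_nhds_eq x

theorem lh_sub (a x : E) : LH (fun y => y - a) x := (Homeomorph.subRight a).map_nhds_eq x

theorem lh_smul {c : ℝ} (hc : c ≠ 0) (x : E) : LH (fun y => c • y) x :=
  (Homeomorph.smulOfNeZero c hc).map_nhds_eq x

end general

section homeoOn

variable {E : Type*} [NormedAddCommGroup E]

theorem homeoOn_of_nhds {f : E → E} {A B : Set E} (hA : IsOpen A) (hf : BijOn f A B)
    (hn : ∀ x ∈ A, map f (𝓝 x) = 𝓝 (f x)) : HomeoOn f A B := by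
  classical
  refine ⟨hf, fun x hx => (tendsto_iff_comap.2 ?_ : Tendsto f _ _), Function.invFunOn f A, ?_, ?_⟩
  · rw [← tendsto_iff_comap]
    exact (show Tendsto f (𝓝 x) (𝓝 (f x)) from (hn x hx).le).mono_left inf_le_left
  · intro y hy
    obtain ⟨x, hx, rfl⟩ := hf.surjOn hy
    have h1 : ∀ z ∈ A, Function.invFunOn f A (f z) = z := fun z hz =>
      hf.injOn.leftInvOn_invFunOn hz
    have h2 : Tendsto (Function.invFunOn f A) (𝓝 (f x)) (𝓝 (Function.invFunOn f A (f x))) := by
      rw [← hn x hx, tendsto_map'_iff, h1 x hx]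
      refine Tendsto.congr' ?_ tendsto_id
      filter_upwards [hA.mem_nhds hx] with z hz using (h1 z hz).symm
    exact h2.mono_left inf_le_left
  · exact fun z hz => hf.injOn.leftInvOn_invFunOn hz

theorem nhds_of_homeoOn {f : E → E} {A B : Set E} (hA : IsOpen A) (hB : IsOpen B)
    (hf : HomeoOn f A B) {x : E} (hx : x ∈ A) : map f (𝓝 x) = 𝓝 (f x) := by
  refine le_antisymm (hf.cont.continuousAt (hA.mem_nhds hx)) ?_
  obtain ⟨k, hk, hkf⟩ := hf.inv
  have hfx : f x ∈ B := hf.bij.mapsTo hx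
  have hkc : ContinuousAt k (f x) := hk.continuousAt (hB.mem_nhds hfx)
  intro s hs
  rw [mem_map] at hs
  have h1 : k ⁻¹' (f ⁻¹' s) ∈ 𝓝 (f x) := by
    refine hkc.preimage_mem_nhds ?_
    rwa [hkf x hx]
  filter_upwards [h1, hB.mem_nhds hfx] with y hy hyB
  obtain ⟨z, hz, rfl⟩ := hf.bij.surjOn hyB
  have h2 : f (k (f z)) ∈ s := hy
  rwa [hkf z hz] at h2

theorem HomeoOn.comp' {f g : E → E} {A B C : Set E} (hg : HomeoOn g B C) (hf : HomeoOn f A B) :
    HomeoOn (fun x => g (f x)) A C := by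
  obtain ⟨k, hk, hkf⟩ := hf.inv
  obtain ⟨l, hl, hlg⟩ := hg.inv
  refine ⟨hg.bij.comp hf.bij, hg.cont.comp hf.cont hf.bij.mapsTo, fun y => k (l y), ?_, ?_⟩
  · refine hk.comp hl ?_
    intro y hy
    obtain ⟨z, hz, rfl⟩ := hg.bij.surjOn hy

    rwa [hlg z hz]
  · intro x hx
    change k (l (g (f x))) = x
    rw [hlg _ (hf.bij.mapsTo hx), hkf x hx]

end homeoOn

variable {E : Type*} [NormedAddCommGroup E] [InnerProductSpace ℝ E] [MeasureSpace E]

namespace Dat

variable {D : Dat E}

theorem near_open {p x : E} (hx : ‖x - p‖ < D.ro p / 4) : ∀ᶠ y in 𝓝 x, ‖y - p‖ < D.ro p / 4 := by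
  have h1 : Continuous fun y : E => ‖y - p‖ := by fun_prop
  exact h1.continuousAt.eventually_lt_const hx

theorem W_near {p x : E} (hp : D.ep p) (hx : ‖x - p‖ < D.ro p / 4) :
    D.W =ᶠ[𝓝 x] fun y => p + D.N p (y - p) :=
  (near_open hx).mono fun _ hy => W_model hp hy

theorem h2_near {p x : E} (hp : D.ep p) (hx : ‖x - p‖ < D.ro p / 4) :
    (fun y => D.h (D.W y)) =ᶠ[𝓝 x] fun y => D.h p + D.T p (y - p) :=
  (near_open hx).mono fun _ hy => h2_model hp hy

theorem not_Z {x : E} (hV : x ∉ D.V) (hfar : ∀ p, D.ep p → D.ro p / 4 ≤ ‖x - p‖) : x ∉ D.Z := by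
  intro hZ
  have h1 : D.ep x := ⟨hZ, hV⟩
  have h2 := hfar x h1
  rw [sub_self, norm_zero] at h2
  have := ro_pos h1
  linarith

theorem W_id_near {x : E} (hx : x ∈ D.Om) (hV : x ∉ D.V)
    (hfar : ∀ p, D.ep p → D.ro p / 4 ≤ ‖x - p‖) : D.W =ᶠ[𝓝 x] fun y => y := by
  obtain ⟨r, hr, hrZ⟩ := D.hZ x hx (not_Z hV hfar)
  have h1 : ball x (3 / 4 * r) ∈ 𝓝 x := ball_mem_nhds _ (by positivity)
  filter_upwards [h1] with y hy
  refine W_of_not ?_
  rintro ⟨p, hp⟩
  have h2 := hfar p hp.1
  have h3 := hp.2.2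
  have h4 := rad_le hp.1
  have h5 : r ≤ ‖x - p‖ := by
    by_contra hcon
    rw [not_le, ← dist_eq_norm, dist_comm] at hcon
    exact hrZ p (mem_ball.2 hcon) hp.1.1
  have h6 : ‖x - p‖ ≤ ‖y - x‖ + ‖y - p‖ := by
    rw [norm_sub_rev y x]
    have : x - p = (x - y) + (y - p) := by abel
    rw [this]; exact norm_add_le _ _
  rw [mem_ball, dist_eq_norm] at hy
  have h7 := ro_pos hp.1
  linarith

theorem vertex_close {v p x : E} (hv : v ∈ D.V) (hx : D.InT p x) :
    D.ro p ≤ ‖p - v‖ ∧ ‖p - v‖ ≤ 16 / 15 * ‖x - v‖ := by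
  have h1 : D.ro p ≤ ‖p - v‖ := no_vertex D.H hx.1 hv
  refine ⟨h1, ?_⟩
  have h2 := hx.2.2
  have h3 := rad_le hx.1
  have h4 : ‖p - v‖ ≤ ‖x - v‖ + ‖x - p‖ := by
    rw [norm_sub_rev x p, add_comm]
    have : p - v = (p - x) + (x - v) := by abel
    rw [this]; exact norm_add_le _ _
  linarith

theorem disp_vertex {v : E} (hv : v ∈ D.V) (x : E) : ‖D.W x - x‖ ≤ ‖x - v‖ / 30 := by
  by_cases hx : ∃ p, D.InT p x
  · obtain ⟨p, hp⟩ := hx
    have h1 := vertex_close hv hp
    have h2 := disp_ro hp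
    linarith
  · rw [W_of_not hx, sub_self, norm_zero]; positivity

theorem W_vertex {v : E} (hv : v ∈ D.V) : D.W v = v := by
  have := disp_vertex hv v
  rw [sub_self, norm_zero, zero_div] at this
  rw [← sub_eq_zero, ← norm_eq_zero]
  exact le_antisymm this (norm_nonneg _)

theorem W_mapsTo : MapsTo D.W D.Om D.Om := by
  intro x hx
  by_cases hex : ∃ p, D.InT p x
  · obtain ⟨p, hp⟩ := hex
    refine (rho_good D.H (om hp.1)).2.1 ?_
    rw [mem_ball, dist_eq_norm]
    have h1 := disp_ro hp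
    have h2 := hp.2.2
    have h3 := rad_le hp.1
    have h4 := ro_pos hp.1
    have e1 : D.W x - p = (D.W x - x) + (x - p) := by abel
    rw [e1]
    refine (norm_add_le _ _).trans_lt ?_
    change _ < D.ro p
    linarith
  · rwa [W_of_not hex]

theorem W_inj_aux {p x y : E} (hx : D.InT p x) (hxy : D.W x = D.W y)
    (hy : ‖D.W y - y‖ ≤ D.ro p / 32) : x = y := by
  have h1 := disp_ro hx
  have h2 := hx.2.2
  have h3 := rad_le hx.1
  have h4 := ro_pos hx.1
  have h5 : ‖x - p‖ < D.ro p / 4 := by linarith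
  have h6 : ‖y - p‖ < D.ro p / 4 := by
    have e1 : y - p = (D.W x - x) + (x - p) - (D.W y - y) := by rw [hxy]; abel
    rw [e1]
    refine (norm_sub_le _ _).trans_lt ?_
    have := norm_add_le (D.W x - x) (x - p)
    linarith
  have h7 := hxy
  rw [W_model hx.1 h5, W_model hx.1 h6] at h7
  have h8 := (N_homeo hx.1).injective (add_left_cancel h7)
  exact sub_left_injective h8

theorem W_inj : Function.Injective D.W := by
  intro x y hxy
  by_cases hx : ∃ p, D.InT p x
  · obtain ⟨p, hp⟩ := hx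
    by_cases hy : ∃ q, D.InT q y
    · obtain ⟨q, hq⟩ := hy
      rcases le_total (D.ro q) (D.ro p) with hle | hle
      · exact W_inj_aux hp hxy ((disp_ro hq).trans (by linarith))
      · exact (W_inj_aux hq hxy.symm ((disp_ro hp).trans (by linarith))).symm
    · have h4 := ro_pos hp.1
      exact W_inj_aux hp hxy (by rw [W_of_not hy, sub_self, norm_zero]; positivity)
  · by_cases hy : ∃ q, D.InT q y
    · obtain ⟨q, hq⟩ := hy
      have h4 := ro_pos hq.1
      exact (W_inj_aux hq hxy.symm (by rw [W_of_not hx, sub_self, norm_zero]; positivity)).symm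
    · rwa [W_of_not hx, W_of_not hy] at hxy

theorem W_surjOn : SurjOn D.W D.Om D.Om := by
  intro y hy
  by_cases hex : ∃ p, D.ep p ∧ ‖y - p‖ < 3 / 16 * D.ro p
  · obtain ⟨p, hp, hyp⟩ := hex
    obtain ⟨z, hz⟩ := (N_homeo hp).surjective (y - p)
    have h1 := N_disp hp z
    have h4 := ro_pos hp
    have h2 : ‖z‖ < D.ro p / 4 := by
      have e1 : z = (y - p) - (D.N p z - z) := by rw [hz]; abel
      rw [e1]
      refine (norm_sub_le _ _).trans_lt ?_
      linarith
    refine ⟨p + z, ?_, ?_⟩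
    · refine (rho_good D.H (om hp)).2.1 ?_
      rw [mem_ball, dist_eq_norm, add_sub_cancel_left]
      change _ < D.ro p
      linarith
    · rw [W_model hp (by rwa [add_sub_cancel_left]), add_sub_cancel_left, hz]
      abel
  · refine ⟨y, hy, W_of_not ?_⟩
    rintro ⟨p, hp⟩
    refine hex ⟨p, hp.1, ?_⟩
    have h2 := hp.2.2
    have h3 := rad_le hp.1
    have h4 := ro_pos hp.1
    linarith

theorem W_bijOn : BijOn D.W D.Om D.Om := ⟨W_mapsTo, W_inj.injOn, W_surjOn⟩

theorem W_nhds {x : E} (hx : x ∈ D.Om) : LH D.W x := by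
  by_cases hex : ∃ p, D.ep p ∧ ‖x - p‖ < D.ro p / 4
  · obtain ⟨p, hp, hxp⟩ := hex
    refine LH.congr ?_ (W_near hp hxp)
    exact LH.comp (lh_add _ _) (LH.comp (lh_homeo (N_homeo hp) _) (lh_sub _ _))
  · have hfar : ∀ p, D.ep p → D.ro p / 4 ≤ ‖x - p‖ := fun p hp =>
      not_lt.1 fun h => hex ⟨p, hp, h⟩
    by_cases hV : x ∈ D.V
    · unfold LH
      rw [W_vertex hV]
      refine le_antisymm ?_ ?_
      · rw [← Tendsto, tendsto_iff_norm_sub_tendsto_zero]
        have h1 : Tendsto (fun y => ‖y - x‖ * (31 / 30)) (𝓝 x) (𝓝 0) := by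
          have h2 : Continuous fun y : E => ‖y - x‖ * (31 / 30) := by fun_prop
          have h3 := h2.tendsto x
          simpa using h3
        refine squeeze_zero (fun y => norm_nonneg _) (fun y => ?_) h1
        have h3 := disp_vertex hV y
        have e1 : D.W y - x = (D.W y - y) + (y - x) := by abel
        rw [e1]
        refine (norm_add_le _ _).trans ?_
        linarith
      · intro s hs
        rw [mem_map] at hs
        obtain ⟨r, hr, hrs⟩ := Metric.mem_nhds_iff.1 hs
        have h1 : ball x (r / 2) ∈ 𝓝 x := ball_mem_nhds _ (by positivity)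
        filter_upwards [h1, D.hOm.mem_nhds hx] with y hy hyO
        obtain ⟨z, hz, rfl⟩ := W_surjOn hyO
        refine hrs ?_
        rw [mem_ball, dist_eq_norm] at *
        have h3 := disp_vertex hV z
        have e1 : z - x = (D.W z - x) - (D.W z - z) := by abel
        have h4 := norm_sub_le (D.W z - x) (D.W z - z)
        rw [← e1] at h4
        linarith
    · refine LH.congr ?_ (W_id_near hx hV hfar)
      exact Filter.map_id

theorem W_homeoOn : HomeoOn D.W D.Om D.Om :=
  homeoOn_of_nhds D.hOm W_bijOn fun _ hx => W_nhds hx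

variable (D) in
/-- the new map -/
noncomputable def h2 (x : E) : E := D.h (D.W x)

theorem h2_homeoOn {La : Set E} (hh : HomeoOn D.h D.Om La) : HomeoOn D.h2 D.Om La :=
  HomeoOn.comp' (f := D.W) (g := D.h) hh W_homeoOn

end Dat

end Crest.Agent.R096.StE_816
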