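import Mathlib
import Crest.Agent.R096.P5Spec_205
import Crest.Agent.R096.StE3_816

/-!
Row 96, P5, `StageEdge`, part 4: `MollAt` under affine changes, `h2` is Moll off the vertices,
error estimates.
-/

set_option autoImplicit false
set_option linter.unusedSectionVars false
open Set Metric MeasureTheory Filter Topology
open scoped NNReal
open Crest.Agent.R096.P5Spec_205

namespace Crest.Agent.R096.StE_816

section moll

variable {E : Type*} [NormedAddCommGroup E] [InnerProductSpace ℝ E] [MeasureSpace E]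

theorem MollAt.congr {f g : E → E} {x : E} (hf : MollAt f x) (h : g =ᶠ[𝓝 x] f) : MollAt g x := by
  obtain ⟨r, hr, K, hK1, hK2, hK3, ⟨L, hL⟩, hae⟩ := hf
  obtain ⟨r', hr', hr's⟩ := Metric.mem_nhds_iff.1 h
  have hs1 : ball x (min r r') ⊆ ball x r := ball_subset_ball (min_le_left _ _)
  have hs2 : ball x (min r r') ⊆ ball x r' := ball_subset_ball (min_le_right _ _)
  refine ⟨min r r', lt_min hr hr', K, hK1, hK2, hK3, ⟨L, ?_⟩, ?_⟩
  · intro y hy z hz
    have e1 : g y = f y := hr's (hs2 hy)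
    have e2 : g z = f z := hr's (hs2 hz)
    rw [e1, e2]
    exact hL (hs1 hy) (hs1 hz)
  · filter_upwards [hae] with y hy hyb
    have e1 : g =ᶠ[𝓝 y] f := by
      filter_upwards [isOpen_ball.mem_nhds (hs2 hyb)] with z hz using hr's hz
    rw [e1.fderiv_eq]
    exact hy (hs1 hyb)

variable [BorelSpace E] [FiniteDimensional ℝ E] [(volume : Measure E).IsAddHaarMeasure]

theorem ae_affine {P : E → Prop} (hP : ∀ᵐ z ∂(volume : Measure E), P z) (a : E) {c : ℝ}
    (hc : c ≠ 0) : ∀ᵐ y ∂(volume : Measure E), P (a + c • y) := by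
  have h1 : ∀ᵐ y ∂(volume : Measure E), P (a + y) := by
    have hq : Measure.QuasiMeasurePreserving (fun y : E => a + y) volume volume :=
      (measurePreserving_add_left volume a).quasiMeasurePreserving
    exact hq.ae hP
  have hq2 : Measure.QuasiMeasurePreserving (fun y : E => c • y) volume volume := by
    refine ⟨measurable_const_smul c, ?_⟩
    rw [Measure.map_addHaar_smul volume hc]
    exact Measure.smul_absolutelyContinuous
  exact hq2.ae h1

theorem MollAt.affine {f : E → E} {x a b : E} {c : ℝ} (hc : 0 < c) (hf : MollAt f (a + c • x)) :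
    MollAt (fun y => c⁻¹ • (f (a + c • y) - b)) x := by
  obtain ⟨r, hr, K, hK1, hK2, hK3, ⟨L, hL⟩, hae⟩ := hf
  have hmem : ∀ y ∈ ball x (r / c), a + c • y ∈ ball (a + c • x) r := by
    intro y hy
    rw [mem_ball, dist_eq_norm] at *
    have e1 : a + c • y - (a + c • x) = c • (y - x) := by rw [smul_sub]; abel
    rw [e1, norm_smul, Real.norm_of_nonneg hc.le]
    rwa [lt_div_iff₀' hc] at hy
  refine ⟨r / c, div_pos hr hc, K, hK1, hK2, hK3, ⟨L, ?_⟩, ?_⟩
  · refine LipschitzOnWith.of_dist_le_mul fun y hy z hz => ?_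
    have h1 := hL.dist_le_mul _ (hmem y hy) _ (hmem z hz)
    rw [dist_eq_norm, dist_eq_norm] at *
    have e1 : c⁻¹ • (f (a + c • y) - b) - c⁻¹ • (f (a + c • z) - b) =
        c⁻¹ • (f (a + c • y) - f (a + c • z)) := by
      rw [← smul_sub]; congr 1; abel
    have e2 : a + c • y - (a + c • z) = c • (y - z) := by rw [smul_sub]; abel
    rw [e2, norm_smul, Real.norm_of_nonneg hc.le] at h1
    rw [e1, norm_smul, norm_inv, Real.norm_of_nonneg hc.le, inv_mul_le_iff₀ hc]
    linarith
  · have h1 := ae_affine hae a hc.ne'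
    filter_upwards [h1] with y hy hyb
    have h2 : fderiv ℝ (fun y => c⁻¹ • (f (a + c • y) - b)) y = fderiv ℝ f (a + c • y) := by
      have e0 : (fun y => c⁻¹ • (f (a + c • y) - b)) = c⁻¹ • (fun y => f (a + c • y) - b) := rfl
      rw [e0, fderiv_const_smul_field, Pi.smul_apply]
      have e1 : fderiv ℝ (fun y => f (a + c • y) - b) y = c • fderiv ℝ f (a + c • y) := by
        rw [fderiv_sub_const]
        have e2 : (fun y => f (a + c • y)) = (fun y => (fun z => f (a + z)) (c • y)) := rfl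
        rw [e2, fderiv_comp_smul (f := fun z => f (a + z)), fderiv_comp_add_left]
      rw [e1, smul_smul, inv_mul_cancel₀ hc.ne', one_smul]
    rw [h2]
    exact hy (hmem y hyb)

theorem MollAt.shift {f : E → E} {x p b : E} (hf : MollAt f (x - p)) :
    MollAt (fun y => b + f (y - p)) x := by
  have h1 : MollAt f (-p + (1 : ℝ) • x) := by
    have : -p + (1 : ℝ) • x = x - p := by rw [one_smul]; abel
    rwa [this]
  have h2 := MollAt.affine (b := -b) one_pos h1
  have e1 : (fun y => (1 : ℝ)⁻¹ • (f (-p + (1 : ℝ) • y) - -b)) = fun y => b + f (y - p) := by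
    funext y
    rw [inv_one, one_smul, one_smul]
    have : -p + y = y - p := by abel
    rw [this]; abel
  rwa [e1] at h2

end moll

variable {E : Type*} [NormedAddCommGroup E] [InnerProductSpace ℝ E] [MeasureSpace E]

namespace Dat

variable {D : Dat E}

theorem h2_id_near {x : E} (hx : x ∈ D.Om) (hV : x ∉ D.V)
    (hfar : ∀ p, D.ep p → D.ro p / 4 ≤ ‖x - p‖) : D.h2 =ᶠ[𝓝 x] D.h :=
  (W_id_near hx hV hfar).mono fun y hy => by
    change D.h (D.W y) = D.h y
    rw [hy]

theorem h2_moll [BorelSpace E] [FiniteDimensional ℝ E] [(volume : Measure E).IsAddHaarMeasure]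
    {x : E} (hx : x ∈ D.Om) (hV : x ∉ D.V) : MollAt D.h2 x := by
  by_cases hex : ∃ p, D.ep p ∧ ‖x - p‖ < D.ro p / 4
  · obtain ⟨p, hp, hxp⟩ := hex
    exact MollAt.congr (MollAt.shift ((T_spec hp).2.2 _)) (h2_near hp hxp)
  · have hfar : ∀ p, D.ep p → D.ro p / 4 ≤ ‖x - p‖ := fun p hp =>
      not_lt.1 fun h => hex ⟨p, hp, h⟩
    exact MollAt.congr (D.H.moll x hx (not_Z hV hfar)) (h2_id_near hx hV hfar)

theorem h2_inT {p x : E} (hx : D.InT p x) :
    ‖D.h2 x - D.h x‖ ≤ D.m p / 32 ∧ ‖x - p‖ ≤ D.m p / 16 := by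
  refine ⟨?_, hx.2.2.trans (rad_le_m hx.1)⟩
  have hr := rad_pos hx.1
  have h0 := ro_pos hx.1
  have hle := rad_le hx.1
  set y := (D.rad p)⁻¹ • (x - p) with hy
  have hxy : x - p = D.rad p • y := by
    rw [hy, smul_smul, mul_inv_cancel₀ hr.ne', one_smul]
  have h1 : inner ℝ (D.e p) y = (0 : ℝ) := by
    rw [hy, inner_smul_right, hx.2.1, mul_zero]
  have h2 : ‖y‖ ≤ 1 := by
    rw [hy, norm_smul, norm_inv, Real.norm_of_nonneg hr.le, inv_mul_le_iff₀ hr, mul_one]
    exact hx.2.2
  have hg := rho_good D.H (om hx.1)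
  have h3 : D.h x = D.h p + D.rad p • D.G p y := by
    have e1 : x = p + (x - p) := by abel
    rw [e1, hg.2.2 (x - p) (by have := hx.2.2; change _ < D.ro p; linarith), hxy,
      (eg hx.1).conic _ hr.le]
  have h4 : D.h2 x = D.h p + D.rad p • D.Q p y := by
    have h5 := disp_ro hx
    change D.h (D.W x) = _
    rw [W_of_inT hx, ← hy, hg.2.2, (eg hx.1).conic _ hr.le, (spec hx.1).right]
    have e1 : D.rad p • D.Hi p (D.Q p y) = (D.W x - x) + (x - p) := by
      rw [W_of_inT hx, ← hy]; abel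
    rw [e1]
    refine (norm_add_le _ _).trans_lt ?_
    have := hx.2.2
    change _ < D.ro p
    linarith
  have h5 : D.h2 x - D.h x = D.rad p • (D.Q p y - D.G p y) := by
    rw [h3, h4, smul_sub]; abel
  rw [h5, norm_smul, Real.norm_of_nonneg hr.le]
  exact (mul_le_mul_of_nonneg_left ((spec hx.1).dispQ y h1 h2) hr.le).trans (radB_le_m hx.1)

theorem h2_of_not {x : E} (hx : ¬ ∃ p, D.InT p x) : D.h2 x = D.h x := by
  change D.h (D.W x) = D.h x
  rw [W_of_not hx]

end Dat

end Crest.Agent.R096.StE_816
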