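import Mathlib
import Crest.Agent.R096.P5Spec_205
import Crest.Agent.R096.StE4_816

/-!
Row 96, P5, `StageEdge`, part 5: the size functions; conical extension `K` at a vertex.
-/

set_option autoImplicit false
set_option linter.unusedSectionVars false
open Set Metric MeasureTheory Filter Topology
open scoped NNReal
open Crest.Agent.R096.P5Spec_205

namespace Crest.Agent.R096.StE_816

/-! ## infimal convolution -/

section infconv

variable {E : Type*} [NormedAddCommGroup E]

/-- the largest 1-Lipschitz function below `η` -/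
noncomputable def ic (Om : Set E) (η : E → ℝ) (p : E) : ℝ := sInf ((fun z => η z + ‖z - p‖) '' Om)

variable {Om : Set E} {η : E → ℝ}

theorem ic_le (hη : ∀ x ∈ Om, 0 < η x) {z : E} (hz : z ∈ Om) (p : E) :
    ic Om η p ≤ η z + ‖z - p‖ := by
  refine csInf_le ⟨0, ?_⟩ ⟨z, hz, rfl⟩
  rintro _ ⟨w, hw, rfl⟩
  have := hη w hw
  have := norm_nonneg (w - p)
  change 0 ≤ η w + ‖w - p‖
  linarith

theorem ic_lip (hη : ∀ x ∈ Om, 0 < η x) (hne : Om.Nonempty) (p q : E) :
    ic Om η p ≤ ic Om η q + ‖p - q‖ := by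
  rw [← sub_le_iff_le_add]
  refine le_csInf (hne.image _) ?_
  rintro _ ⟨w, hw, rfl⟩
  have h1 := ic_le hη hw p
  have h2 : ‖w - p‖ ≤ ‖w - q‖ + ‖p - q‖ := by
    rw [norm_sub_rev p q]
    have : w - p = (w - q) + (q - p) := by abel
    rw [this]; exact norm_add_le _ _
  change _ ≤ η w + ‖w - q‖
  linarith

theorem abs_ic_sub (hη : ∀ x ∈ Om, 0 < η x) (hne : Om.Nonempty) (p q : E) :
    |ic Om η p - ic Om η q| ≤ ‖p - q‖ := by
  have h1 := ic_lip hη hne p q
  have h2 := ic_lip hη hne q p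
  rw [norm_sub_rev] at h2
  rw [abs_le]; constructor <;> linarith

theorem ic_pos (hO : IsOpen Om) (hη : ∀ x ∈ Om, 0 < η x) (hc : ContinuousOn η Om) {p : E}
    (hp : p ∈ Om) : 0 < ic Om η p := by
  have h1 : ∀ᶠ z in 𝓝 p, η p / 2 < η z := by
    refine (hc.continuousAt (hO.mem_nhds hp)).eventually_const_lt ?_
    have := hη p hp
    linarith
  obtain ⟨δ, hδ, hs⟩ := Metric.eventually_nhds_iff.1 h1
  have h2 : min (η p / 2) δ ≤ ic Om η p := by
    refine le_csInf ⟨_, p, hp, rfl⟩ ?_
    rintro _ ⟨w, hw, rfl⟩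
    change _ ≤ η w + ‖w - p‖
    rcases lt_or_ge (dist w p) δ with hd | hd
    · have := hs hd
      have := norm_nonneg (w - p)
      have := min_le_left (η p / 2) δ
      linarith
    · rw [dist_eq_norm] at hd
      have := hη w hw
      have := min_le_right (η p / 2) δ
      linarith
  exact lt_of_lt_of_le (lt_min (by have := hη p hp; linarith) hδ) h2

end infconv

/-! ## conical extension -/

section ext

variable {E : Type*} [NormedAddCommGroup E] [InnerProductSpace ℝ E] [MeasureSpace E]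

/-- extension of a locally conical map to a conic one -/
noncomputable def ext (f : E → E) (v : E) (r : ℝ) (u : E) : E :=
  ((r / 2) / (1 + ‖u‖))⁻¹ • (f (v + ((r / 2) / (1 + ‖u‖)) • u) - f v)

variable {f : E → E} {v : E} {r : ℝ}

theorem conic_two (hf : ConicOn f v r) {u : E} {c c' : ℝ} (hc' : 0 < c') (hcc : c' ≤ c)
    (hcu : ‖c • u‖ < r) : c'⁻¹ • (f (v + c' • u) - f v) = c⁻¹ • (f (v + c • u) - f v) := by
  have hc : 0 < c := hc'.trans_le hcc
  have h1 := hf (c • u) hcu (c' / c) (by positivity) (by rw [div_le_one hc]; exact hcc)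
  rw [smul_smul, div_mul_cancel₀ _ hc.ne'] at h1
  rw [h1, add_sub_cancel_left, smul_smul]
  congr 1
  field_simp

theorem cnorm {u : E} (hr : 0 < r) {M : ℝ} (hM : ‖u‖ ≤ M) :
    0 < (r / 2) / (1 + M) ∧ ‖((r / 2) / (1 + M)) • u‖ < r := by
  have h0 := norm_nonneg u
  have h1 : 0 < 1 + M := by linarith
  have h2 : 0 < (r / 2) / (1 + M) := by positivity
  refine ⟨h2, ?_⟩
  rw [norm_smul, Real.norm_of_nonneg h2.le, div_mul_eq_mul_div, div_lt_iff₀ h1]
  nlinarith

theorem ext_eq (hr : 0 < r) (hf : ConicOn f v r) {u : E} {c : ℝ} (hc : 0 < c)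
    (hcu : ‖c • u‖ < r) : ext f v r u = c⁻¹ • (f (v + c • u) - f v) := by
  obtain ⟨h1, h2⟩ := cnorm (u := u) hr le_rfl
  unfold ext
  rcases le_total ((r / 2) / (1 + ‖u‖)) c with h | h
  · exact conic_two hf h1 h hcu
  · exact (conic_two hf hc h h2).symm

theorem ext_apply (hr : 0 < r) (hf : ConicOn f v r) {u : E} (hu : ‖u‖ < r) :
    f (v + u) = f v + ext f v r u := by
  rw [ext_eq hr hf one_pos (by rwa [one_smul]), inv_one, one_smul, one_smul]
  abel

theorem ext_conic (hr : 0 < r) (hf : ConicOn f v r) : Conic (ext f v r) := by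
  intro c hc x
  rcases hc.eq_or_lt with rfl | hc
  · rw [zero_smul, zero_smul, ext, smul_zero, add_zero, sub_self, smul_zero]
  · obtain ⟨h1, h2⟩ := cnorm (u := c • x) hr le_rfl
    rw [ext_eq hr hf h1 h2]
    rw [smul_smul] at h2
    rw [ext_eq hr hf (mul_pos h1 hc) h2, smul_smul, smul_smul]
    congr 1
    field_simp

theorem ext_near (hr : 0 < r) (hf : ConicOn f v r) (u : E) :
    ∃ c : ℝ, 0 < c ∧ ‖c • u‖ < r ∧ ext f v r =ᶠ[𝓝 u] fun y => c⁻¹ • (f (v + c • y) - f v) := by
  obtain ⟨h1, h2⟩ := cnorm (u := u) hr le_rfl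
  refine ⟨_, h1, h2, ?_⟩
  have h3 : Continuous fun y : E => ‖((r / 2) / (1 + ‖u‖)) • y‖ := by fun_prop
  filter_upwards [h3.continuousAt.eventually_lt_const h2] with y hy
  exact ext_eq hr hf h1 hy

theorem ext_lh (hr : 0 < r) (hf : ConicOn f v r) (hl : ∀ u, ‖u‖ < r → LH f (v + u)) (u : E) :
    LH (ext f v r) u := by
  obtain ⟨c, hc, hcu, hn⟩ := ext_near hr hf u
  refine LH.congr ?_ hn
  refine LH.comp (lh_smul (inv_ne_zero hc.ne') _) (LH.comp (lh_sub _ _) ?_)
  exact LH.comp (f := fun y => v + c • y) (hl _ hcu) (LH.comp (lh_add _ _) (lh_smul hc.ne' _))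

theorem ext_inj (hr : 0 < r) (hf : ConicOn f v r) (hi : InjOn f (ball v r)) :
    Function.Injective (ext f v r) := by
  intro u u' huu
  obtain ⟨h1, h2⟩ := cnorm (u := u) hr (le_max_left ‖u‖ ‖u'‖)
  obtain ⟨-, h3⟩ := cnorm (u := u') hr (le_max_right ‖u‖ ‖u'‖)
  set c := (r / 2) / (1 + max ‖u‖ ‖u'‖)
  rw [ext_eq hr hf h1 h2, ext_eq hr hf h1 h3] at huu
  have h4 := smul_right_injective E (inv_ne_zero h1.ne') huu
  have h5 : f (v + c • u) = f (v + c • u') := sub_left_injective h4
  have h6 := hi (by rwa [mem_ball, dist_eq_norm, add_sub_cancel_left])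
    (by rwa [mem_ball, dist_eq_norm, add_sub_cancel_left]) h5
  exact smul_right_injective E h1.ne' (add_left_cancel h6)

theorem ext_surj (hr : 0 < r) (hf : ConicOn f v r) (hl : LH f v) :
    Function.Surjective (ext f v r) := by
  intro y
  have h1 : f '' ball v r ∈ 𝓝 (f v) := by
    rw [← show map f (𝓝 v) = 𝓝 (f v) from hl]
    exact image_mem_map (ball_mem_nhds v hr)
  have h2 : Tendsto (fun t : ℝ => f v + t • y) (𝓝[>] 0) (𝓝 (f v)) := by
    have : Continuous fun t : ℝ => f v + t • y := by fun_prop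
    have h3 := this.tendsto 0
    rw [zero_smul, add_zero] at h3
    exact h3.mono_left nhdsWithin_le_nhds
  obtain ⟨t, ⟨x, hx, hxt⟩, ht⟩ := ((h2.eventually h1).and self_mem_nhdsWithin).exists
  have ht : 0 < t := ht
  refine ⟨t⁻¹ • (x - v), ?_⟩
  have h4 := ext_apply hr hf (u := x - v) (by rwa [mem_ball, dist_eq_norm] at hx)
  rw [add_sub_cancel, hxt] at h4
  rw [ext_conic hr hf _ (inv_nonneg.2 ht.le), ← add_left_cancel h4, smul_smul,
    inv_mul_cancel₀ ht.ne', one_smul]

theorem ext_homeo (hr : 0 < r) (hf : ConicOn f v r) (hi : InjOn f (ball v r))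
    (hl : ∀ u, ‖u‖ < r → LH f (v + u)) : IsHomeomorph (ext f v r) := by
  refine ⟨?_, ?_, ext_inj hr hf hi, ext_surj hr hf ?_⟩
  · rw [continuous_iff_continuousAt]
    exact fun u => (ext_lh hr hf hl u).le
  · exact IsOpenMap.of_nhds_le fun u => (ext_lh hr hf hl u).ge
  · have := hl 0 (by rwa [norm_zero])
    rwa [add_zero] at this

theorem ext_moll [BorelSpace E] [FiniteDimensional ℝ E] [(volume : Measure E).IsAddHaarMeasure]
    (hr : 0 < r) (hf : ConicOn f v r) (hm : ∀ u, u ≠ 0 → ‖u‖ < r → MollAt f (v + u)) {u : E}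
    (hu : u ≠ 0) : MollAt (ext f v r) u := by
  obtain ⟨c, hc, hcu, hn⟩ := ext_near hr hf u
  refine MollAt.congr ?_ hn
  exact MollAt.affine hc (hm _ (smul_ne_zero hc.ne' hu) hcu)

end ext

variable {E : Type*} [NormedAddCommGroup E] [InnerProductSpace ℝ E] [MeasureSpace E]

/-! ## the two size functions -/

theorem mok_rho {h : E → E} {Om V Z : Set E} {G : E → E → E} {e : E → E}
    (H : Germs h Om V Z G e) : MOK h Om V Z G e (rho h Om G) :=
  ⟨fun _ hp => rho_pos H (EP.om H hp), fun _ _ => le_rfl, fun _ hp _ _ hs hs' =>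
    rho_lip H hp hs hs'⟩

theorem mok_min {h : E → E} {Om V Z : Set E} {G : E → E → E} {e : E → E}
    (H : Germs h Om V Z G e) (hO : IsOpen Om) {η : E → ℝ} (hη : ∀ x ∈ Om, 0 < η x)
    (hc : ContinuousOn η Om) : MOK h Om V Z G e (fun p => min (rho h Om G p) (ic Om η p)) := by
  refine ⟨fun p hp => lt_min (rho_pos H (EP.om H hp)) (ic_pos hO hη hc (EP.om H hp)),
    fun p _ => min_le_left _ _, fun p hp s s' hs hs' => ?_⟩
  refine (abs_min_sub_min_le_max _ _ _ _).trans (max_le (rho_lip H hp hs hs') ?_)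
  refine (abs_ic_sub hη ⟨p, EP.om H hp⟩ _ _).trans_eq ?_
  have e1 : p + s • e p - (p + s' • e p) = (s - s') • e p := by rw [sub_smul]; abel
  rw [e1, norm_smul_e (EP.germ H hp)]

/-! ## vertices -/

namespace Dat

variable {D : Dat E}

theorem v_om {v : E} (hv : v ∈ D.V) : v ∈ D.Om := D.H.Z_sub (D.H.V_sub hv)

theorem ep_scale {v : E} (hv : v ∈ D.V) {u : E} (hu0 : u ≠ 0) (hu : ‖u‖ < D.ro v) {t : ℝ}
    (ht0 : 0 < t) (ht1 : t ≤ 1) : (D.ep (v + t • u) ↔ D.ep (v + u)) ∧
      D.G (v + t • u) = D.G (v + u) ∧ D.e (v + t • u) = D.e (v + u) := by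
  have hg := rho_good D.H (v_om hv)
  have h1 := D.H.cone v (v_om hv) _ hg.1 hg.2.1 hg.2.2 u hu0 hu
  have h2 := h1.2 t ht0 ht1
  have hn : ‖t • u‖ < D.ro v := by
    rw [norm_smul, Real.norm_of_nonneg ht0.le]
    exact (mul_le_of_le_one_left (norm_nonneg _) ht1).trans_lt hu
  have h3 := D.H.cone v (v_om hv) _ hg.1 hg.2.1 hg.2.2 (t • u) (smul_ne_zero ht0.ne' hu0) hn
  refine ⟨⟨fun h => ⟨h2.1.1 h.1, h1.1⟩, fun h => ⟨h2.1.2 h.1, h3.1⟩⟩, h2.2⟩

theorem ep_ne {v : E} (hv : v ∈ D.V) {u : E} (hu : D.ep (v + u)) : u ≠ 0 := by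
  rintro rfl
  rw [add_zero] at hu
  exact hu.2 hv

theorem ro_le_norm {v : E} (hv : v ∈ D.V) {u : E} (hu : D.ep (v + u)) : D.ro (v + u) ≤ ‖u‖ := by
  have := no_vertex D.H hu hv
  rwa [add_sub_cancel_left] at this

theorem ro_scale {v : E} (hv : v ∈ D.V) {u : E} (hep : D.ep (v + u)) (hu : ‖u‖ < D.ro v / 2)
    {t : ℝ} (ht0 : 0 < t) (ht1 : t ≤ 1) : D.ro (v + t • u) = t * D.ro (v + u) := by
  have hu0 := ep_ne hv hep
  have hun := norm_nonneg u
  have hro : 0 < D.ro v := rho_pos D.H (v_om hv)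
  have hro1 : D.ro v ≤ 1 := rho_le_one D.H (v_om hv)
  obtain ⟨h1, h2, h3⟩ := ep_scale hv hu0 (by linarith) ht0 ht1
  have hep' := h1.2 hep
  have hg := rho_good D.H (v_om hv)
  have hgu := rho_good D.H (om hep)
  have hgt := rho_good D.H (om hep')
  have hle := ro_le_norm hv hep
  have hlet := ro_le_norm hv hep'
  rw [norm_smul, Real.norm_of_nonneg ht0.le] at hlet
  have hcon : Conic (D.G v) := D.H.conic v (v_om hv)
  have hcon' : Conic (D.G (v + u)) := D.H.conic _ (om hep)
  have hhu : D.h (v + u) = D.h v + D.G v u := hg.2.2 _ (by change _ < D.ro v; linarith)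
  have hht : D.h (v + t • u) = D.h v + t • D.G v u := by
    rw [hg.2.2 _ (by
      rw [norm_smul, Real.norm_of_nonneg ht0.le]
      change _ < D.ro v
      have := mul_le_of_le_one_left hun ht1
      linarith), hcon _ ht0.le]
  apply le_antisymm
  · -- `ro (v + t u) / t` is admissible at `v + u`
    have key : Good D.h D.Om D.G (v + u) (D.ro (v + t • u) / t) := by
      refine ⟨div_pos hgt.1 ht0, ?_, ?_⟩
      · intro y hy
        refine hg.2.1 ?_
        rw [mem_ball, dist_eq_norm] at *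
        have e1 : y - v = (y - (v + u)) + u := by abel
        rw [e1]
        refine (norm_add_le _ _).trans_lt ?_
        change _ < D.ro v
        have : D.ro (v + t • u) / t ≤ ‖u‖ := by rw [div_le_iff₀ ht0]; linarith
        linarith
      · intro w hw
        rw [lt_div_iff₀' ht0] at hw
        have hw' : ‖w‖ ≤ ‖u‖ := by
          have : t * ‖w‖ ≤ t * ‖u‖ := by linarith
          exact le_of_mul_le_mul_left this ht0
        have huw : ‖u + w‖ < D.ro v := (norm_add_le _ _).trans_lt (by linarith)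
        have e1 : v + u + w = v + (u + w) := by abel
        rw [e1, hg.2.2 _ huw, hhu]
        have h5 := hgt.2.2 (t • w) (by rw [norm_smul, Real.norm_of_nonneg ht0.le]; exact hw)
        have e2 : v + t • u + t • w = v + t • (u + w) := by rw [smul_add]; abel
        rw [e2, hg.2.2 _ (by
          rw [norm_smul, Real.norm_of_nonneg ht0.le]
          exact (mul_le_of_le_one_left (norm_nonneg _) ht1).trans_lt huw), hcon _ ht0.le, hht, h2,
          hcon' _ ht0.le, add_assoc, ← smul_add] at h5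
        have h6 := smul_right_injective E ht0.ne' (add_left_cancel h5)
        have h7 : D.G v (u + w) = D.G v u + D.G (v + u) w := h6
        rw [h7]; abel
    have h8 := le_rho key (by
      rw [div_le_one ht0]
      nlinarith)
    rw [div_le_iff₀' ht0] at h8
    exact h8
  · have key : Good D.h D.Om D.G (v + t • u) (t * D.ro (v + u)) := by
      refine ⟨mul_pos ht0 hgu.1, ?_, ?_⟩
      · intro y hy
        refine hg.2.1 ?_
        rw [mem_ball, dist_eq_norm] at *
        have e1 : y - v = (y - (v + t • u)) + t • u := by abel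
        rw [e1]
        refine (norm_add_le _ _).trans_lt ?_
        rw [norm_smul, Real.norm_of_nonneg ht0.le]
        change _ < D.ro v
        have h4 := mul_le_of_le_one_left hun ht1
        have h5 : t * D.ro (v + u) ≤ 1 * D.ro (v + u) := mul_le_mul_of_nonneg_right ht1 hgu.1.le
        linarith
      · intro w hw
        have e0 : w = t • (t⁻¹ • w) := by rw [smul_smul, mul_inv_cancel₀ ht0.ne', one_smul]
        set w' := t⁻¹ • w with hw'
        have hwn : ‖w'‖ < D.ro (v + u) := by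
          rw [hw', norm_smul, norm_inv, Real.norm_of_nonneg ht0.le, inv_mul_lt_iff₀ ht0]
          exact hw
        have huw : ‖u + w'‖ < D.ro v := (norm_add_le _ _).trans_lt (by linarith)
        have h5 := hgu.2.2 w' hwn
        have e1 : v + u + w' = v + (u + w') := by abel
        rw [e1, hg.2.2 _ huw, hhu, add_assoc] at h5
        have h6 : D.G v (u + w') = D.G v u + D.G (v + u) w' := add_left_cancel h5
        rw [e0, h2]
        have e2 : v + t • u + t • w' = v + t • (u + w') := by rw [smul_add]; abel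
        rw [e2, hg.2.2 _ (by
          rw [norm_smul, Real.norm_of_nonneg ht0.le]
          exact (mul_le_of_le_one_left (norm_nonneg _) ht1).trans_lt huw), hcon _ ht0.le, hht, h6,
          hcon' _ ht0.le, smul_add]
        abel
    refine le_rho key ?_
    have : t * D.ro (v + u) ≤ 1 * D.ro (v + u) := mul_le_mul_of_nonneg_right ht1 hgu.1.le
    have := rho_le_one D.H (om hep)
    change D.ro (v + u) ≤ 1 at this
    linarith

end Dat

end Crest.Agent.R096.StE_816
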