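import Mathlib
import Crest.Agent.R096.P5Spec_205
import Crest.Agent.R096.StE5_816

/-!
Row 96, P5, `StageEdge`, part 6: `h2` is conical at the vertices; comparison with the size `rho`.
-/

set_option autoImplicit false
set_option linter.unusedSectionVars false
open Set Metric MeasureTheory Filter Topology
open scoped NNReal
open Crest.Agent.R096.P5Spec_205

namespace Crest.Agent.R096.StE_816

variable {E : Type*} [NormedAddCommGroup E] [InnerProductSpace ℝ E] [MeasureSpace E]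

namespace Dat

variable {D : Dat E}

theorem inT_scale {v : E} (hv : v ∈ D.V) {δ : ℝ} (hδ : δ ≤ D.ro v)
    (hm : ∀ u, ‖u‖ < δ → D.ep (v + u) → ∀ t : ℝ, 0 < t → t ≤ 1 →
      D.m (v + t • u) = t * D.m (v + u))
    {u w : E} (hu : ‖u‖ < δ) {t : ℝ} (ht0 : 0 < t) (ht1 : t ≤ 1) (hu0 : u ≠ 0) :
    D.InT (v + t • u) (v + t • w) ↔ D.InT (v + u) (v + w) := by
  obtain ⟨h1, h2, h3⟩ := ep_scale hv hu0 (hu.trans_le hδ) ht0 ht1
  have e1 : v + t • w - (v + t • u) = t • (w - u) := by rw [smul_sub]; abel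
  have e2 : v + w - (v + u) = w - u := by abel
  unfold InT
  rw [e1, e2, h3, inner_smul_right, norm_smul, Real.norm_of_nonneg ht0.le]
  constructor
  · rintro ⟨ha, hb, hc⟩
    have ha' := h1.1 ha
    refine ⟨ha', ?_, ?_⟩
    · rcases mul_eq_zero.1 hb with h | h
      · exact absurd h ht0.ne'
      · exact h
    · have h4 : D.rad (v + t • u) = t * D.rad (v + u) := by
        rw [rad, rad, sg, sg, h2, h3, hm u hu ha' t ht0 ht1]; ring
      rw [h4] at hc
      exact le_of_mul_le_mul_left hc ht0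
  · rintro ⟨ha, hb, hc⟩
    refine ⟨h1.2 ha, by rw [hb, mul_zero], ?_⟩
    have h4 : D.rad (v + t • u) = t * D.rad (v + u) := by
      rw [rad, rad, sg, sg, h2, h3, hm u hu ha t ht0 ht1]; ring
    rw [h4]
    exact mul_le_mul_of_nonneg_left hc ht0.le

theorem W_scale {v : E} (hv : v ∈ D.V) {δ : ℝ} (hδ : δ ≤ D.ro v)
    (hm : ∀ u, ‖u‖ < δ → D.ep (v + u) → ∀ t : ℝ, 0 < t → t ≤ 1 →
      D.m (v + t • u) = t * D.m (v + u))
    {w : E} (hw : ‖w‖ < 15 / 16 * δ) {t : ℝ} (ht0 : 0 < t) (ht1 : t ≤ 1) :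
    D.W (v + t • w) = v + t • (D.W (v + w) - v) := by
  by_cases hex : ∃ p, D.InT p (v + w)
  · obtain ⟨p, hp⟩ := hex
    obtain ⟨u, rfl⟩ : ∃ u, p = v + u := ⟨p - v, by abel⟩
    have hu0 := ep_ne hv hp.1
    have h1 := (vertex_close hv hp).2
    rw [add_sub_cancel_left, add_sub_cancel_left] at h1
    have hu : ‖u‖ < δ := by linarith
    have hp' := (inT_scale hv hδ hm (w := w) hu ht0 ht1 hu0).2 hp
    obtain ⟨-, h2, h3⟩ := ep_scale hv hu0 (hu.trans_le hδ) ht0 ht1
    rw [W_of_inT hp, W_of_inT hp']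
    have h4 : D.rad (v + t • u) = t * D.rad (v + u) := by
      rw [rad, rad, sg, sg, h2, h3, hm u hu hp.1 t ht0 ht1]; ring
    have h5 : D.Hi (v + t • u) = D.Hi (v + u) := by rw [Hi, Hi, h2, h3]
    have h6 : D.Q (v + t • u) = D.Q (v + u) := by rw [Q, Q, h2, h3]
    have e1 : v + t • w - (v + t • u) = t • (w - u) := by rw [smul_sub]; abel
    have e2 : v + w - (v + u) = w - u := by abel
    have hr := rad_pos hp.1
    rw [h4, h5, h6, e1, e2, smul_smul, mul_inv_rev, mul_assoc, inv_mul_cancel₀ ht0.ne', mul_one]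
    have e3 : ∀ x : E, v + u + x - v = u + x := fun x => by abel
    rw [e3, smul_add, smul_smul, add_assoc]
  · rw [W_of_not hex, add_sub_cancel_left, W_of_not]
    rintro ⟨p, hp⟩
    obtain ⟨u', rfl⟩ : ∃ u, p = v + u := ⟨p - v, by abel⟩
    obtain ⟨u, rfl⟩ : ∃ u, u' = t • u :=
      ⟨t⁻¹ • u', by rw [smul_smul, mul_inv_cancel₀ ht0.ne', one_smul]⟩
    have hu0' := ep_ne hv hp.1
    have hu0 : u ≠ 0 := fun h => hu0' (by rw [h, smul_zero])
    have h1 := (vertex_close hv hp).2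
    rw [add_sub_cancel_left, add_sub_cancel_left, norm_smul, norm_smul,
      Real.norm_of_nonneg ht0.le] at h1
    have h1' : ‖u‖ ≤ 16 / 15 * ‖w‖ := by
      have : t * ‖u‖ ≤ t * (16 / 15 * ‖w‖) := by linarith
      exact le_of_mul_le_mul_left this ht0
    have hu : ‖u‖ < δ := by linarith
    exact hex ⟨v + u, (inT_scale hv hδ hm (w := w) hu ht0 ht1 hu0).1 hp⟩

theorem h2_vertex {v : E} (hv : v ∈ D.V) : D.h2 v = D.h v := by
  change D.h (D.W v) = D.h v
  rw [W_vertex hv]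

theorem h2_conicOn {v : E} (hv : v ∈ D.V) {δ : ℝ} (hδ : δ ≤ D.ro v / 2)
    (hm : ∀ u, ‖u‖ < δ → D.ep (v + u) → ∀ t : ℝ, 0 < t → t ≤ 1 →
      D.m (v + t • u) = t * D.m (v + u)) : ConicOn D.h2 v (15 / 16 * δ) := by
  intro w hw t ht0 ht1
  have hro : 0 < D.ro v := rho_pos D.H (v_om hv)
  rcases ht0.eq_or_lt with rfl | ht0
  · rw [zero_smul, zero_smul, add_zero, add_zero]
  · have hg := rho_good D.H (v_om hv)
    have h1 := W_scale hv (by linarith) hm hw ht0 ht1
    have h2 := disp_vertex hv (v + w)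
    rw [add_sub_cancel_left] at h2
    have h3 : ‖D.W (v + w) - v‖ < D.ro v := by
      have e1 : D.W (v + w) - v = (D.W (v + w) - (v + w)) + w := by abel
      rw [e1]
      refine (norm_add_le _ _).trans_lt ?_
      have := norm_nonneg w
      linarith
    have h4 : D.h2 (v + w) = D.h v + D.G v (D.W (v + w) - v) := by
      change D.h (D.W (v + w)) = _
      rw [← hg.2.2 _ h3]
      congr 1; abel
    rw [h2_vertex hv, h4]
    change D.h (D.W (v + t • w)) = _
    rw [h1, hg.2.2, D.H.conic v (v_om hv) _ ht0.le, add_sub_cancel_left]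
    rw [norm_smul, Real.norm_of_nonneg ht0.le]
    exact (mul_le_of_le_one_left (norm_nonneg _) ht1).trans_lt h3

variable (D) in
/-- the same data with the largest size function -/
noncomputable def base : Dat E :=
  { D with m := rho D.h D.Om D.G, mok := mok_rho D.H }

theorem base_scale {v : E} (hv : v ∈ D.V) (u : E) (hu : ‖u‖ < D.ro v / 2)
    (hep : D.base.ep (v + u)) (t : ℝ) (ht0 : 0 < t) (ht1 : t ≤ 1) :
    D.base.m (v + t • u) = t * D.base.m (v + u) :=
  ro_scale (D := D) hv hep hu ht0 ht1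

theorem base_conicOn {v : E} (hv : v ∈ D.V) :
    ConicOn D.base.h2 v (15 / 16 * (D.ro v / 2)) :=
  h2_conicOn (D := D.base) hv (δ := D.ro v / 2) le_rfl (base_scale hv)

theorem W_base {v : E} (hv : v ∈ D.V) {δ : ℝ}
    (hm : ∀ p, D.ep p → ‖p - v‖ < δ → D.m p = D.ro p) {x : E} (hx : ‖x - v‖ < 15 / 16 * δ) :
    D.W x = D.base.W x := by
  have key : ∀ p, D.ep p → ‖p - v‖ < δ → D.base.rad p = D.rad p := by
    intro p hp hpv
    have := hm p hp hpv
    change D.sg p * D.ro p = D.sg p * D.m p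
    rw [this]
  by_cases hex : ∃ p, D.InT p x
  · obtain ⟨p, hp⟩ := hex
    have h1 := (vertex_close hv hp).2
    have h2 := key p hp.1 (by linarith)
    have hp' : D.base.InT p x := ⟨hp.1, hp.2.1, by rw [h2]; exact hp.2.2⟩
    rw [W_of_inT hp, W_of_inT hp', h2]
    rfl
  · rw [W_of_not hex, W_of_not]
    rintro ⟨p, hp⟩
    have h1 := (vertex_close (D := D.base) hv hp).2
    have h2 := key p hp.1 (by linarith)
    exact hex ⟨p, hp.1, hp.2.1, by rw [← h2]; exact hp.2.2⟩

theorem h2_base {v : E} (hv : v ∈ D.V) {δ : ℝ}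
    (hm : ∀ p, D.ep p → ‖p - v‖ < δ → D.m p = D.ro p) {x : E} (hx : ‖x - v‖ < 15 / 16 * δ) :
    D.h2 x = D.base.h2 x := by
  change D.h (D.W x) = D.h (D.base.W x)
  rw [W_base hv hm hx]

variable (D) in
/-- the conic germ of the new map at a vertex -/
noncomputable def K (v : E) : E → E := ext D.base.h2 v (15 / 16 * (D.ro v / 2))

theorem K_apply {v : E} (hv : v ∈ D.V) {δ : ℝ} (hδ : δ ≤ D.ro v / 2)
    (hm : ∀ p, D.ep p → ‖p - v‖ < δ → D.m p = D.ro p) {u : E} (hu : ‖u‖ < 15 / 16 * δ) :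
    D.h2 (v + u) = D.h2 v + D.K v u := by
  have hro : 0 < D.ro v := rho_pos D.H (v_om hv)
  have h1 : D.base.h2 v = D.h v := h2_vertex (D := D.base) hv
  rw [h2_base hv hm (by rwa [add_sub_cancel_left]), h2_vertex hv, ← h1]
  exact ext_apply (by positivity) (base_conicOn hv) (by linarith)

theorem K_conic {v : E} (hv : v ∈ D.V) : Conic (D.K v) := by
  have hro : 0 < D.ro v := rho_pos D.H (v_om hv)
  exact ext_conic (by positivity) (base_conicOn hv)

theorem h2_lh {La : Set E} (hh : HomeoOn D.h D.Om La) (hLa : IsOpen La) {x : E}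
    (hx : x ∈ D.Om) : LH D.h2 x :=
  LH.comp (f := D.W) (g := D.h) (nhds_of_homeoOn D.hOm hLa hh (W_mapsTo hx)) (W_nhds hx)

theorem ball_om {v : E} (hv : v ∈ D.V) {u : E} (hu : ‖u‖ < 15 / 16 * (D.ro v / 2)) :
    v + u ∈ D.Om := by
  have hro : 0 < D.ro v := rho_pos D.H (v_om hv)
  refine (rho_good D.H (v_om hv)).2.1 ?_
  rw [mem_ball, dist_eq_norm, add_sub_cancel_left]
  change _ < D.ro v
  linarith

theorem K_homeo {La : Set E} (hh : HomeoOn D.h D.Om La) (hLa : IsOpen La) {v : E}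
    (hv : v ∈ D.V) : IsHomeomorph (D.K v) := by
  have hro : 0 < D.ro v := rho_pos D.H (v_om hv)
  refine ext_homeo (by positivity) (base_conicOn hv) ?_ ?_
  · have h1 : HomeoOn D.base.h2 D.Om La := h2_homeoOn (D := D.base) hh
    refine h1.bij.injOn.mono ?_
    intro y hy
    rw [mem_ball, dist_eq_norm] at hy
    have := ball_om hv hy
    rwa [add_sub_cancel] at this
  · intro u hu
    exact h2_lh (D := D.base) hh hLa (ball_om hv hu)

theorem K_moll [BorelSpace E] [FiniteDimensional ℝ E] [(volume : Measure E).IsAddHaarMeasure]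
    {v : E} (hv : v ∈ D.V) {u : E} (hu : u ≠ 0) : MollAt (D.K v) u := by
  have hro : 0 < D.ro v := rho_pos D.H (v_om hv)
  refine ext_moll (by positivity) (base_conicOn hv) ?_ hu
  intro w hw0 hw
  refine h2_moll (D := D.base) (ball_om hv hw) ?_
  have hg := rho_good D.H (v_om hv)
  exact (D.H.cone v (v_om hv) _ hg.1 hg.2.1 hg.2.2 w hw0 (by change _ < D.ro v; linarith)).1

end Dat

end Crest.Agent.R096.StE_816
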