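import Mathlib
import Crest.Agent.R096.P5Spec_205
import Crest.Agent.R096.Fp1_812
import Crest.Agent.R096.StE6_816

/-!
Row 96, P5, `StageEdge`, part 7: the local Lipschitz bound and the final theorem.
-/

set_option autoImplicit false
set_option linter.unusedSectionVars false
open Set Metric MeasureTheory Filter Topology
open scoped NNReal
open Crest.Agent.R096.P5Spec_205

namespace Crest.Agent.R096.StE_816

section seg

variable {E F : Type*} [NormedAddCommGroup E] [NormedSpace ℝ E] [NormedAddCommGroup F]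

/-- locally `L`-Lipschitz at `x` -/
def LipAt (f : E → F) (x : E) (L : ℝ) : Prop :=
  ∃ r > 0, ∀ y ∈ ball x r, ∀ z ∈ ball x r, ‖f y - f z‖ ≤ L * ‖y - z‖

theorem LipAt.near {f : E → F} {x : E} {L : ℝ} (h : LipAt f x L) :
    ∀ᶠ y in 𝓝 x, LipAt f y L := by
  obtain ⟨r, hr, hf⟩ := h
  filter_upwards [ball_mem_nhds x hr] with y hy
  obtain ⟨s, hs, hsub⟩ := Metric.isOpen_iff.1 isOpen_ball y hy
  exact ⟨s, hs, fun a ha b hb => hf a (hsub ha) b (hsub hb)⟩

theorem LipAt.mono {f : E → F} {x : E} {L L' : ℝ} (h : LipAt f x L) (hL : L ≤ L') :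
    LipAt f x L' := by
  obtain ⟨r, hr, hf⟩ := h
  exact ⟨r, hr, fun a ha b hb => (hf a ha b hb).trans
    (mul_le_mul_of_nonneg_right hL (norm_nonneg _))⟩

theorem LipAt.congr {f g : E → F} {x : E} {L : ℝ} (h : LipAt f x L) (hg : g =ᶠ[𝓝 x] f) :
    LipAt g x L := by
  obtain ⟨r, hr, hf⟩ := h
  obtain ⟨r', hr', hs⟩ := Metric.mem_nhds_iff.1 hg
  refine ⟨min r r', lt_min hr hr', fun a ha b hb => ?_⟩
  have e1 : g a = f a := hs (ball_subset_ball (min_le_right _ _) ha)
  have e2 : g b = f b := hs (ball_subset_ball (min_le_right _ _) hb)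
  rw [e1, e2]
  exact hf a (ball_subset_ball (min_le_left _ _) ha) b (ball_subset_ball (min_le_left _ _) hb)

/-- one dimensional version: locally Lipschitz on `[a, b]`, no exceptional point -/
theorem lip_Icc {g : ℝ → F} {a b L : ℝ} (hg : ContinuousOn g (Icc a b)) (hab : a ≤ b)
    (hl : ∀ t ∈ Icc a b, ∃ r > 0, ∀ s ∈ Ioo t (t + r), s ≤ b → ‖g s - g t‖ ≤ L * (s - t)) :
    ‖g b - g a‖ ≤ L * (b - a) := by
  have key : Icc a b ⊆ {t | ‖g t - g a‖ ≤ L * (t - a)} := by
    refine IsClosed.Icc_subset_of_forall_mem_nhdsWithin ?_ ?_ ?_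
    · have h1 : ContinuousOn (fun t => L * (t - a) - ‖g t - g a‖) (Icc a b) := by
        exact (by fun_prop : ContinuousOn (fun t : ℝ => L * (t - a)) (Icc a b)).sub
          (hg.sub continuousOn_const).norm
      have h2 := h1.preimage_isClosed_of_isClosed isClosed_Icc (isClosed_Ici (a := (0 : ℝ)))
      convert h2 using 1
      ext t
      simp only [mem_inter_iff, mem_ofPred_eq, mem_preimage, mem_Ici, sub_nonneg]
      exact And.comm
    · simp
    · rintro t ⟨ht, ht2⟩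
      obtain ⟨r, hr, hrs⟩ := hl t ⟨ht2.1, ht2.2.le⟩
      have h1 : Ioo t (min (t + r) b) ∈ 𝓝[>] t :=
        Ioo_mem_nhdsGT (lt_min (by linarith) ht2.2)
      filter_upwards [h1] with s hs
      have h3 := hrs s ⟨hs.1, hs.2.trans_le (min_le_left _ _)⟩ (hs.2.le.trans (min_le_right _ _))
      have h4 : ‖g s - g a‖ ≤ ‖g s - g t‖ + ‖g t - g a‖ := by
        have : g s - g a = (g s - g t) + (g t - g a) := by abel
        rw [this]; exact norm_add_le _ _
      have h5 : ‖g t - g a‖ ≤ L * (t - a) := ht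
      change ‖g s - g a‖ ≤ L * (s - a)
      linarith
  exact key ⟨hab, le_rfl⟩

/-- a continuous map which is locally `L`-Lipschitz off one point is `L`-Lipschitz on balls -/
theorem lip_ball {f : E → F} {x : E} {r L : ℝ} (hc : ContinuousOn f (ball x r))
    (hl : ∀ q ∈ ball x r, q ≠ x → LipAt f q L) :
    ∀ y ∈ ball x r, ∀ z ∈ ball x r, ‖f y - f z‖ ≤ L * ‖y - z‖ := by
  -- segments avoiding `x`
  have h1 : ∀ y ∈ ball x r, ∀ z ∈ ball x r, (∀ t ∈ Icc (0 : ℝ) 1, z + t • (y - z) ≠ x) →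
      ‖f y - f z‖ ≤ L * ‖y - z‖ := by
    intro y hy z hz hne
    have hmem : ∀ t ∈ Icc (0 : ℝ) 1, z + t • (y - z) ∈ ball x r := by
      intro t ht
      have := (convex_ball x r) hz hy (sub_nonneg.2 ht.2) ht.1 (by ring : 1 - t + t = 1)
      convert this using 1
      rw [smul_sub, sub_smul, one_smul]; abel
    have h2 := lip_Icc (g := fun t => f (z + t • (y - z))) (a := 0) (b := 1)
      (L := L * ‖y - z‖) (hc.comp (by fun_prop) fun t ht => hmem t ht) zero_le_one ?_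
    · simpa using h2
    · intro t ht
      obtain ⟨s, hs, hf⟩ := hl _ (hmem t ht) (hne t ht)
      have h3 : ∀ᶠ t' in 𝓝 t, z + t' • (y - z) ∈ ball (z + t • (y - z)) s := by
        have : Continuous fun t' : ℝ => z + t' • (y - z) := by fun_prop
        exact this.continuousAt.preimage_mem_nhds (ball_mem_nhds _ hs)
      obtain ⟨ρ, hρ, hρs⟩ := Metric.eventually_nhds_iff.1 h3
      refine ⟨ρ, hρ, fun t' ht' _ => ?_⟩
      have h4 := hf _ (hρs (y := t') (by
        rw [Real.dist_eq, abs_of_pos (sub_pos.2 ht'.1)]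
        have := ht'.2; linarith)) _ (mem_ball_self hs)
      refine h4.trans_eq ?_
      have e1 : z + t' • (y - z) - (z + t • (y - z)) = (t' - t) • (y - z) := by
        rw [sub_smul]; abel
      rw [e1, norm_smul, Real.norm_of_nonneg (sub_nonneg.2 ht'.1.le)]
      ring
  -- from the centre
  have h2 : ∀ y ∈ ball x r, ‖f y - f x‖ ≤ L * ‖y - x‖ := by
    intro y hy
    by_cases hyx : y = x
    · rw [hyx]; simp
    have hr : 0 < r := pos_of_mem_ball hy
    have hcx : Tendsto (fun t : ℝ => f (x + t • (y - x))) (𝓝[>] 0) (𝓝 (f x)) := by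
      have h3 : ContinuousAt f x := hc.continuousAt (ball_mem_nhds x hr)
      have h4 : Tendsto (fun t : ℝ => x + t • (y - x)) (𝓝[>] 0) (𝓝 x) := by
        have : Continuous fun t : ℝ => x + t • (y - x) := by fun_prop
        have h5 := this.tendsto 0
        rw [zero_smul, add_zero] at h5
        exact h5.mono_left nhdsWithin_le_nhds
      exact h3.tendsto.comp h4
    have h6 : Tendsto (fun t : ℝ => ‖f y - f (x + t • (y - x))‖) (𝓝[>] 0) (𝓝 ‖f y - f x‖) :=
      (tendsto_const_nhds.sub hcx).norm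
    refine le_of_tendsto h6 ?_
    filter_upwards [Ioo_mem_nhdsGT (show (0 : ℝ) < 1 by norm_num)] with t ht
    have hmem : x + t • (y - x) ∈ ball x r := by
      rw [mem_ball, dist_eq_norm] at *
      rw [add_sub_cancel_left, norm_smul, Real.norm_of_nonneg ht.1.le]
      exact (mul_le_of_le_one_left (norm_nonneg _) ht.2.le).trans_lt hy
    have h7 := h1 y hy _ hmem ?_
    · refine h7.trans ?_
      have e1 : y - (x + t • (y - x)) = (1 - t) • (y - x) := by rw [sub_smul, one_smul]; abel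
      rw [e1, norm_smul, Real.norm_of_nonneg (by linarith [ht.2])]
      have h8 : 0 ≤ L * ‖y - x‖ := by
        have h9 := (norm_nonneg _).trans h7
        rw [e1, norm_smul, Real.norm_of_nonneg (by linarith [ht.2])] at h9
        have h10 : 0 < 1 - t := by linarith [ht.2]
        have h11 : 0 ≤ (1 - t) * (L * ‖y - x‖) := by linarith
        exact nonneg_of_mul_nonneg_right h11 h10
      calc L * ((1 - t) * ‖y - x‖) = (1 - t) * (L * ‖y - x‖) := by ring
        _ ≤ 1 * (L * ‖y - x‖) := mul_le_mul_of_nonneg_right (by linarith [ht.1]) h8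
        _ = L * ‖y - x‖ := one_mul _
    · intro s hs heq
      have e1 : x + t • (y - x) + s • (y - (x + t • (y - x))) = x + (t + s * (1 - t)) • (y - x) := by
        have : y - (x + t • (y - x)) = (1 - t) • (y - x) := by rw [sub_smul, one_smul]; abel
        rw [this, smul_smul, add_smul]; abel
      rw [e1, add_eq_left, smul_eq_zero] at heq
      rcases heq with h | h
      · have : 0 ≤ s * (1 - t) := mul_nonneg hs.1 (by linarith [ht.2])
        linarith [ht.1]
      · exact hyx (sub_eq_zero.1 h)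
  intro y hy z hz
  by_cases hex : ∃ t ∈ Icc (0 : ℝ) 1, z + t • (y - z) = x
  · obtain ⟨t, ht, htx⟩ := hex
    have h3 : y - x = (1 - t) • (y - z) := by
      rw [← htx, sub_smul, one_smul]; abel
    have h4 : z - x = -(t • (y - z)) := by rw [← htx]; abel
    have h5 := h2 y hy
    have h6 := h2 z hz
    rw [h3, norm_smul, Real.norm_of_nonneg (by linarith [ht.2])] at h5
    rw [h4, norm_neg, norm_smul, Real.norm_of_nonneg ht.1] at h6
    have h7 : ‖f y - f z‖ ≤ ‖f y - f x‖ + ‖f z - f x‖ := by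
      have : f y - f z = (f y - f x) - (f z - f x) := by abel
      rw [this]; exact norm_sub_le _ _
    calc ‖f y - f z‖ ≤ L * ((1 - t) * ‖y - z‖) + L * (t * ‖y - z‖) := by linarith
      _ = L * ‖y - z‖ := by ring
  · exact h1 y hy z hz fun t ht htx => hex ⟨t, ht, htx⟩

end seg

variable {E : Type*} [NormedAddCommGroup E] [InnerProductSpace ℝ E] [MeasureSpace E]

/-- a continuous selection of finitely many linear maps is Lipschitz -/
theorem pl_lip {K : E → E} (hK : Continuous K) {S : Finset (E →L[ℝ] E)}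
    (hS : ∀ x, ∃ A ∈ S, K x = A x) : ∃ L : ℝ, ∀ x y, ‖K x - K y‖ ≤ L * ‖x - y‖ := by
  refine ⟨∑ A ∈ S, ‖A‖, ?_⟩
  have h1 := Fp_812.dist_le_of_cover (ι := S) (fun A => {x | K x = A.1 x})
    (fun A => isClosed_eq hK A.1.continuous) (fun x => by
      obtain ⟨A, hA, hx⟩ := hS x
      exact ⟨⟨A, hA⟩, hx⟩) K (∑ A ∈ S, ‖A‖) (by
      rintro ⟨A, hA⟩ x hx y hy
      have hx' : K x = A x := hx
      have hy' : K y = A y := hy
      rw [hx', hy', dist_eq_norm, dist_eq_norm, ← map_sub]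
      refine (A.le_opNorm _).trans (mul_le_mul_of_nonneg_right ?_ (norm_nonneg _))
      exact Finset.single_le_sum (f := fun A : E →L[ℝ] E => ‖A‖) (fun _ _ => norm_nonneg _) hA)
  intro x y
  have := h1 x y
  rwa [dist_eq_norm, dist_eq_norm] at this

namespace Dat

variable {D : Dat E}

theorem h_lipAt {x : E} (hx : x ∈ D.Om) : ∃ L, LipAt D.h x L := by
  obtain ⟨S, hS⟩ := D.H.pl x hx
  obtain ⟨L, hL⟩ := pl_lip (D.H.homeo x hx).continuous hS
  have hg := rho_good D.H hx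
  refine ⟨L, _, hg.1, fun y hy z hz => ?_⟩
  rw [mem_ball, dist_eq_norm] at hy hz
  have e1 := hg.2.2 _ hy
  have e2 := hg.2.2 _ hz
  rw [add_sub_cancel] at e1 e2
  have h1 := hL (y - x) (z - x)
  rw [sub_sub_sub_cancel_right] at h1
  rw [e1, e2, add_sub_add_left_eq_sub]
  exact h1

variable (D) in
/-- bound for the Lipschitz constants near `x` -/
def Bd (x : E) (L : ℝ) : Prop :=
  ∃ r > 0, ball x r ⊆ D.Om ∧ ∀ q ∈ ball x r, LipAt D.h q L ∧
    ∀ p, D.ep p → ‖q - p‖ < D.ro p / 4 → (D.C p : ℝ) ≤ L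

theorem Bd.mono {x : E} {L L' : ℝ} (h : D.Bd x L) (hL : L ≤ L') : D.Bd x L' := by
  obtain ⟨r, hr, h1, h2⟩ := h
  exact ⟨r, hr, h1, fun q hq => ⟨(h2 q hq).1.mono hL, fun p hp hqp =>
    ((h2 q hq).2 p hp hqp).trans hL⟩⟩

theorem bd_of {x : E} (hx : x ∈ D.Om) (h : ∃ L : ℝ, ∃ r > 0, ∀ q ∈ ball x r,
    ∀ p, D.ep p → ‖q - p‖ < D.ro p / 4 → (D.C p : ℝ) ≤ L) : ∃ L, D.Bd x L := by
  obtain ⟨L1, hL1⟩ := h_lipAt hx
  obtain ⟨r1, hr1, h1⟩ := Metric.eventually_nhds_iff.1 hL1.near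
  obtain ⟨L2, r2, hr2, h2⟩ := h
  obtain ⟨r3, hr3, h3⟩ := Metric.isOpen_iff.1 D.hOm x hx
  refine ⟨max L1 L2, min (min r1 r2) r3, lt_min (lt_min hr1 hr2) hr3,
    (ball_subset_ball (min_le_right _ _)).trans h3, fun q hq => ⟨?_, fun p hp hqp => ?_⟩⟩
  · refine LipAt.mono (h1 ?_) (le_max_left _ _)
    exact (mem_ball.1 hq).trans_le ((min_le_left _ _).trans (min_le_left _ _))
  · refine (h2 q ?_ p hp hqp).trans (le_max_right _ _)
    exact (mem_ball.1 hq).trans_le ((min_le_left _ _).trans (min_le_right _ _))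

theorem C_eq {p p' : E} (hp : D.ep p) (hp' : D.ep p')
    (hd : ‖p' - p‖ < max (D.ro p) (D.ro p')) : D.C p' = D.C p := by
  obtain ⟨s, -, h2, h3⟩ := same_line D.H hp hp' hd
  rw [C, C, h2, h3]

theorem bd_aux {x : E} (hx : x ∈ D.Om) (hV : x ∉ D.V) : ∃ L : ℝ, ∃ r > 0, ∀ q ∈ ball x r,
    ∀ p, D.ep p → ‖q - p‖ < D.ro p / 4 → (D.C p : ℝ) ≤ L := by
  by_cases hZ : x ∈ D.Z
  · have hep : D.ep x := ⟨hZ, hV⟩
    have hro := ro_pos hep
    refine ⟨D.C x, D.ro x / 4, by positivity, fun q hq p hp hqp => ?_⟩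
    rw [mem_ball, dist_eq_norm] at hq
    rw [C_eq hep hp]
    have e1 : p - x = (q - x) - (q - p) := by abel
    rw [e1]
    refine (norm_sub_le _ _).trans_lt ?_
    have := le_max_left (D.ro x) (D.ro p)
    have := le_max_right (D.ro x) (D.ro p)
    linarith
  · obtain ⟨d, hd, hdZ⟩ := D.hZ x hx hZ
    have hd' : ∀ p, D.ep p → d ≤ ‖x - p‖ := by
      intro p hp
      by_contra hcon
      rw [not_le, norm_sub_rev, ← dist_eq_norm] at hcon
      exact hdZ p (mem_ball.2 hcon) hp.1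
    by_cases hex : ∃ q ∈ ball x (d / 4), ∃ p, D.ep p ∧ ‖q - p‖ < D.ro p / 4
    · obtain ⟨q, hq, p, hp, hqp⟩ := hex
      refine ⟨D.C p, d / 4, by positivity, fun q' hq' p' hp' hqp' => ?_⟩
      rw [mem_ball, dist_eq_norm] at hq hq'
      rw [C_eq hp hp']
      have h1 := hd' p hp
      have h1' := hd' p' hp'
      have h2 : ‖x - p‖ ≤ ‖q - p‖ + ‖q - x‖ := by
        have : x - p = (q - p) - (q - x) := by abel
        rw [this]; exact norm_sub_le _ _
      have h3 : ‖p' - p‖ ≤ ‖q - p‖ + ‖q - x‖ + ‖q' - x‖ + ‖q' - p'‖ := by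
        have : p' - p = ((q - p) - (q - x)) + (q' - x) - (q' - p') := by abel
        rw [this]
        refine (norm_sub_le _ _).trans ?_
        have := norm_add_le ((q - p) - (q - x)) (q' - x)
        have := norm_sub_le (q - p) (q - x)
        linarith
      have := le_max_left (D.ro p) (D.ro p')
      have := le_max_right (D.ro p) (D.ro p')
      linarith
    · refine ⟨0, d / 4, by positivity, fun q hq p hp hqp => ?_⟩
      exact absurd ⟨q, hq, p, hp, hqp⟩ hex

theorem bd_vertex [FiniteDimensional ℝ E] {v : E} (hv : v ∈ D.V) : ∃ L : ℝ, ∃ r > 0,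
    ∀ q ∈ ball v r, ∀ p, D.ep p → ‖q - p‖ < D.ro p / 4 → (D.C p : ℝ) ≤ L := by
  have : ProperSpace E := FiniteDimensional.proper_real E
  have hro : 0 < D.ro v := rho_pos D.H (v_om hv)
  have hg := rho_good D.H (v_om hv)
  set c := D.ro v / 4 with hc
  have hc0 : 0 < c := by positivity
  -- bound on the sphere
  have key : ∃ L : ℝ, ∀ θ ∈ sphere (0 : E) 1, D.ep (v + c • θ) → (D.C (v + c • θ) : ℝ) ≤ L := by
    refine (isCompact_sphere (0 : E) 1).induction_on (p := fun s => ∃ L : ℝ, ∀ θ ∈ s,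
      D.ep (v + c • θ) → (D.C (v + c • θ) : ℝ) ≤ L) ⟨0, fun θ h => absurd h (by simp)⟩ ?_ ?_ ?_
    · rintro s t hst ⟨L, hL⟩
      exact ⟨L, fun θ h => hL θ (hst h)⟩
    · rintro s t ⟨L, hL⟩ ⟨L', hL'⟩
      refine ⟨max L L', fun θ h hep => ?_⟩
      rcases h with h | h
      · exact (hL θ h hep).trans (le_max_left _ _)
      · exact (hL' θ h hep).trans (le_max_right _ _)
    · intro θ hθ
      rw [mem_sphere_zero_iff_norm] at hθ
      have hn : ‖c • θ‖ < D.ro v := by
        rw [norm_smul, hθ, mul_one, Real.norm_of_nonneg hc0.le]; linarith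
      have hθ0 : θ ≠ 0 := by rintro rfl; simp at hθ
      have hV := (D.H.cone v (v_om hv) _ hg.1 hg.2.1 hg.2.2 (c • θ)
        (smul_ne_zero hc0.ne' hθ0) hn).1
      have hO : v + c • θ ∈ D.Om := by
        refine hg.2.1 ?_
        rw [mem_ball, dist_eq_norm, add_sub_cancel_left]
        exact hn
      obtain ⟨L, r, hr, hL⟩ := bd_aux hO hV
      have h1 : ∀ᶠ θ' in 𝓝 θ, v + c • θ' ∈ ball (v + c • θ) r := by
        have : Continuous fun θ' : E => v + c • θ' := by fun_prop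
        exact this.continuousAt.preimage_mem_nhds (ball_mem_nhds _ hr)
      refine ⟨_, mem_nhdsWithin_of_mem_nhds h1, L, fun θ' hθ' hep => ?_⟩
      refine hL _ hθ' _ hep ?_
      rw [sub_self, norm_zero]
      have := ro_pos hep
      positivity
  obtain ⟨L, hL⟩ := key
  refine ⟨L, 3 / 16 * D.ro v, by positivity, fun q hq p hp hqp => ?_⟩
  obtain ⟨u, rfl⟩ : ∃ u, p = v + u := ⟨p - v, by abel⟩
  have hu0 := ep_ne hv hp
  have hun : 0 < ‖u‖ := norm_pos_iff.2 hu0
  have h1 := ro_le_norm hv hp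
  rw [mem_ball, dist_eq_norm] at hq
  have h2 : ‖u‖ ≤ ‖q - v‖ + ‖q - (v + u)‖ := by
    have : u = (q - v) - (q - (v + u)) := by abel
    nth_rewrite 1 [this]
    exact norm_sub_le _ _
  have h3 : ‖u‖ < D.ro v / 4 := by linarith
  -- `v + u` and `v + c θ` are on the same ray
  set θ := ‖u‖⁻¹ • u with hθ
  have hθn : ‖θ‖ = 1 := by rw [hθ, norm_smul, norm_inv, norm_norm, inv_mul_cancel₀ hun.ne']
  have e1 : u = (‖u‖ / c) • (c • θ) := by
    rw [smul_smul, div_mul_cancel₀ _ hc0.ne', hθ, smul_smul, mul_inv_cancel₀ hun.ne', one_smul]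
  have hn : ‖c • θ‖ < D.ro v := by
    rw [norm_smul, hθn, mul_one, Real.norm_of_nonneg hc0.le]; linarith
  have hθ0 : θ ≠ 0 := by
    intro h
    rw [h, norm_zero] at hθn
    exact zero_ne_one hθn
  obtain ⟨h4, h5, h6⟩ := ep_scale hv (smul_ne_zero hc0.ne' hθ0) hn (t := ‖u‖ / c)
    (by positivity) (by rw [div_le_one hc0]; exact h3.le)
  rw [← e1] at h4 h5 h6
  have h7 := hL θ (mem_sphere_zero_iff_norm.2 hθn) (h4.1 hp)
  have h8 : D.C (v + u) = D.C (v + c • θ) := by rw [C, C, h5, h6]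
  rw [h8]
  exact h7

theorem exists_bd [FiniteDimensional ℝ E] {x : E} (hx : x ∈ D.Om) : ∃ L, D.Bd x L := by
  by_cases hV : x ∈ D.V
  · exact bd_of hx (bd_vertex hV)
  · exact bd_of hx (bd_aux hx hV)

theorem h2_lipAt {q : E} (hq : q ∈ D.Om) (hV : q ∉ D.V) {L : ℝ} (h1 : LipAt D.h q L)
    (h2 : ∀ p, D.ep p → ‖q - p‖ < D.ro p / 4 → (D.C p : ℝ) ≤ L) : LipAt D.h2 q L := by
  by_cases hex : ∃ p, D.ep p ∧ ‖q - p‖ < D.ro p / 4
  · obtain ⟨p, hp, hqp⟩ := hex
    refine LipAt.congr ?_ (h2_near hp hqp)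
    refine ⟨1, one_pos, fun y _ z _ => ?_⟩
    have h3 := (T_spec hp).2.1.dist_le_mul (y - p) (z - p)
    rw [dist_eq_norm, dist_eq_norm, sub_sub_sub_cancel_right] at h3
    rw [add_sub_add_left_eq_sub]
    exact h3.trans (mul_le_mul_of_nonneg_right (h2 p hp hqp) (norm_nonneg _))
  · have hfar : ∀ p, D.ep p → D.ro p / 4 ≤ ‖q - p‖ := fun p hp =>
      not_lt.1 fun h => hex ⟨p, hp, h⟩
    exact LipAt.congr h1 (h2_id_near hq hV hfar)

theorem h2_lip {La : Set E} (hh : HomeoOn D.h D.Om La) {x : E} (hx : x ∈ D.Om) {L : ℝ}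
    (hL : D.Bd x L) : ∃ r > 0, ∀ y ∈ ball x r, ∀ z ∈ ball x r, ‖D.h2 y - D.h2 z‖ ≤
      L * ‖y - z‖ := by
  obtain ⟨r, hr, hO, hb⟩ := hL
  have hro : 0 < D.ro x := rho_pos D.H hx
  have hg := rho_good D.H hx
  refine ⟨min r (D.ro x), lt_min hr hro, lip_ball ?_ ?_⟩
  · exact (h2_homeoOn hh).cont.mono ((ball_subset_ball (min_le_left _ _)).trans hO)
  · intro q hq hqx
    have hq1 : q ∈ ball x r := ball_subset_ball (min_le_left _ _) hq
    have hq2 : ‖q - x‖ < D.ro x := by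
      rw [← dist_eq_norm]; exact (mem_ball.1 hq).trans_le (min_le_right _ _)
    have hV := (D.H.cone x hx _ hg.1 hg.2.1 hg.2.2 (q - x) (sub_ne_zero.2 hqx) hq2).1
    rw [add_sub_cancel] at hV
    exact h2_lipAt (hO hq1) hV (hb q hq1).1 (hb q hq1).2

end Dat

end Crest.Agent.R096.StE_816
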