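import Mathlib
import Crest.Agent.R096.P5Spec_205
import Crest.Agent.R096.StE7_816

/-!
Row 96, P5, `StageEdge`, part 8: the theorem.
-/

set_option autoImplicit false
set_option linter.unusedSectionVars false
open Set Metric MeasureTheory Filter Topology
open scoped NNReal
open Crest.Agent.R096.P5Spec_205

namespace Crest.Agent.R096.StE_816

variable {E : Type*} [NormedAddCommGroup E] [InnerProductSpace ℝ E] [MeasureSpace E]
  [BorelSpace E] [FiniteDimensional ℝ E] [(volume : Measure E).IsAddHaarMeasure]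

/-- **StageEdge from EdgeB** -/
theorem stageEdge (hB : EdgeB E) {h : E → E} {Om La V Z : Set E} {G : E → E → E} {e : E → E}
    (hOm : IsOpen Om) (hLa : IsOpen La) (hh : HomeoOn h Om La) (H : Germs h Om V Z G e)
    (hZ : ∀ x ∈ Om, x ∉ Z → ∃ r > 0, ∀ y ∈ ball x r, y ∉ Z) :
    ∃ (C : E → ℝ) (K : E → E → E), (∀ x ∈ Om, ∃ r > 0, ∃ M, ∀ y ∈ ball x r ∩ Om, C y ≤ M) ∧
    ∀ η : E → ℝ, ContinuousOn η Om → (∀ x ∈ Om, 0 < η x) →
      ∃ h₂ : E → E, HomeoOn h₂ Om La ∧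
        (∀ x ∈ Om, x ∉ V → MollAt h₂ x) ∧
        (∀ v ∈ V, ∃ r > 0, ball v r ⊆ Om ∧ ∀ u, ‖u‖ < r → h₂ (v + u) = h₂ v + K v u) ∧
        (∀ v ∈ V, IsHomeomorph (K v) ∧ Conic (K v) ∧ ∀ x, x ≠ 0 → MollAt (K v) x) ∧
        (∀ x ∈ Om, ‖h₂ x - h x‖ ≤ η x) ∧
        (∀ x ∈ Om, h₂ x ≠ h x → infDist x Z ≤ η x) ∧
        (∀ x ∈ Om, ∃ r > 0, ∀ y ∈ ball x r, ∀ z ∈ ball x r, ‖h₂ y - h₂ z‖ ≤ C x * ‖y - z‖) := by
  obtain ⟨S⟩ := exists_sel hB
  let D₀ : Dat E := ⟨h, Om, V, Z, G, e, rho h Om G, S, H, mok_rho H, hOm, hZ⟩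
  have hset : ∀ x ∈ Om, ({L | 0 ≤ L ∧ D₀.Bd x L} : Set ℝ).Nonempty := by
    intro x hx
    obtain ⟨L, hL⟩ := Dat.exists_bd (D := D₀) hx
    exact ⟨max L 0, le_max_right _ _, hL.mono (le_max_left _ _)⟩
  have hbdd : ∀ x, BddBelow ({L | 0 ≤ L ∧ D₀.Bd x L} : Set ℝ) := fun x => ⟨0, fun L hL => hL.1⟩
  have hCbd : ∀ x ∈ Om, D₀.Bd x (sInf {L | 0 ≤ L ∧ D₀.Bd x L} + 1) := by
    intro x hx
    obtain ⟨L, hL, hlt⟩ := exists_lt_of_csInf_lt (hset x hx) (lt_add_one _)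
    exact hL.2.mono hlt.le
  refine ⟨fun x => sInf {L | 0 ≤ L ∧ D₀.Bd x L} + 1, D₀.K, ?_, fun η hη hpos => ?_⟩
  · intro x hx
    obtain ⟨L, hL0, r, hr, hrO, hb⟩ := hset x hx
    refine ⟨r / 2, by positivity, L + 1, fun y hy => ?_⟩
    refine add_le_add_left (csInf_le (hbdd y) ⟨hL0, r / 2, by positivity, ?_, ?_⟩) 1
    · intro z hz
      refine hrO ?_
      rw [mem_ball] at *
      have := dist_triangle z y x
      have := mem_ball.1 hy.1
      linarith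
    · intro q hq
      refine hb q ?_
      rw [mem_ball] at *
      have := dist_triangle q y x
      have := mem_ball.1 hy.1
      linarith
  · let D : Dat E := ⟨h, Om, V, Z, G, e, fun p => min (rho h Om G p) (ic Om η p), S, H,
      mok_min H hOm hpos hη, hOm, hZ⟩
    have hDm : ∀ p, D.m p = min (D.ro p) (ic Om η p) := fun p => rfl
    have hmη : ∀ p x, D.InT p x → x ∈ Om → D.m p ≤ 16 / 15 * η x := by
      intro p x hp hx
      have h1 := (Dat.h2_inT hp).2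
      have h2 := ic_le hpos hx p
      have h3 : D.m p ≤ ic Om η p := min_le_right _ _
      linarith
    refine ⟨D.h2, Dat.h2_homeoOn (D := D) hh, fun x hx hV => Dat.h2_moll (D := D) hx hV,
      fun v hv => ?_, fun v hv => ⟨Dat.K_homeo (D := D₀) hh hLa hv, Dat.K_conic (D := D₀) hv,
        fun u hu => Dat.K_moll (D := D₀) hv hu⟩, fun x hx => ?_, fun x hx hne => ?_,
      fun x hx => Dat.h2_lip (D := D) hh hx (hCbd x hx)⟩
    · have hvO : v ∈ Om := H.Z_sub (H.V_sub hv)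
      have hro : 0 < D.ro v := rho_pos H hvO
      have hic := ic_pos hOm hpos hη hvO
      set δ := min (D.ro v / 2) (ic Om η v / 2) with hδ
      have hδ0 : 0 < δ := lt_min (by positivity) (by positivity)
      have hm : ∀ p, D.ep p → ‖p - v‖ < δ → D.m p = D.ro p := by
        intro p hp hpv
        rw [hDm, min_eq_left]
        have h1 : D.ro p ≤ ‖p - v‖ := no_vertex H hp hv
        have h2 : ‖p - v‖ < ic Om η v / 2 := hpv.trans_le (min_le_right _ _)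
        have h3 := ic_lip hpos ⟨v, hvO⟩ v p
        rw [norm_sub_rev] at h3
        linarith
      refine ⟨15 / 16 * δ, by positivity, ?_, fun u hu => ?_⟩
      · refine (ball_subset_ball ?_).trans (rho_good H hvO).2.1
        have h1 : δ ≤ D.ro v / 2 := min_le_left _ _
        change _ ≤ D.ro v
        linarith
      · exact Dat.K_apply (D := D) hv (min_le_left _ _) hm hu
    · by_cases hex : ∃ p, D.InT p x
      · obtain ⟨p, hp⟩ := hex
        have h1 : ‖D.h2 x - h x‖ ≤ D.m p / 32 := (Dat.h2_inT hp).1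
        have h2 := hmη p x hp hx
        have h3 := hpos x hx
        linarith
      · have h1 : D.h2 x = h x := Dat.h2_of_not hex
        rw [h1, sub_self, norm_zero]
        exact (hpos x hx).le
    · by_cases hex : ∃ p, D.InT p x
      · obtain ⟨p, hp⟩ := hex
        have h1 := (Dat.h2_inT hp).2
        have h2 := hmη p x hp hx
        have h3 := hpos x hx
        have h4 : infDist x Z ≤ dist x p := infDist_le_dist_of_mem hp.1.1
        rw [dist_eq_norm] at h4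
        linarith
      · exact absurd (Dat.h2_of_not hex) hne

/-- `StageEdge` with the hypothesis that `Z` is closed in `Om` -/
def StageEdgeZ (E : Type*) [NormedAddCommGroup E] [InnerProductSpace ℝ E] [MeasureSpace E] :
    Prop :=
  ∀ (h : E → E) (Om La V Z : Set E) (G : E → E → E) (e : E → E),
    IsOpen Om → IsOpen La → HomeoOn h Om La → Germs h Om V Z G e →
    (∀ x ∈ Om, x ∉ Z → ∃ r > 0, ∀ y ∈ ball x r, y ∉ Z) →
    ∃ (C : E → ℝ) (K : E → E → E), (∀ x ∈ Om, ∃ r > 0, ∃ M, ∀ y ∈ ball x r ∩ Om, C y ≤ M) ∧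
    ∀ η : E → ℝ, ContinuousOn η Om → (∀ x ∈ Om, 0 < η x) →
      ∃ h₂ : E → E, HomeoOn h₂ Om La ∧
        (∀ x ∈ Om, x ∉ V → MollAt h₂ x) ∧
        (∀ v ∈ V, ∃ r > 0, ball v r ⊆ Om ∧ ∀ u, ‖u‖ < r → h₂ (v + u) = h₂ v + K v u) ∧
        (∀ v ∈ V, IsHomeomorph (K v) ∧ Conic (K v) ∧ ∀ x, x ≠ 0 → MollAt (K v) x) ∧
        (∀ x ∈ Om, ‖h₂ x - h x‖ ≤ η x) ∧
        (∀ x ∈ Om, h₂ x ≠ h x → infDist x Z ≤ η x) ∧
        (∀ x ∈ Om, ∃ r > 0, ∀ y ∈ ball x r, ∀ z ∈ ball x r, ‖h₂ y - h₂ z‖ ≤ C x * ‖y - z‖)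

/-- **EdgeB implies StageEdgeZ** -/
theorem stageEdgeZ (hB : EdgeB E) : StageEdgeZ E :=
  fun _ _ _ _ _ _ _ hOm hLa hh H hZ => stageEdge hB hOm hLa hh H hZ

/-- `StageEdge` in 205's form, if `Z` is closed in `Om` for all germ data -/
theorem stageEdge' (hB : EdgeB E)
    (hZ : ∀ (h : E → E) (Om V Z : Set E) (G : E → E → E) (e : E → E), Germs h Om V Z G e →
      ∀ x ∈ Om, x ∉ Z → ∃ r > 0, ∀ y ∈ ball x r, y ∉ Z) : StageEdge E :=
  fun h Om _ V Z G e hOm hLa hh H => stageEdge hB hOm hLa hh H (hZ h Om V Z G e H)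

end Crest.Agent.R096.StE_816
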