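import Crest.Agent.R096.StV2_119

/-!
# P5 StageVertex, part 3 (helper119, row 96): `Core E → StageVertex E`
-/

set_option autoImplicit false
set_option linter.unusedSectionVars false

open Set Metric MeasureTheory Filter Topology
open scoped NNReal ContDiff
open Crest.Agent.R096.P5Spec_205

namespace Crest.Agent.R096.StV_119

variable {E : Type*} [NormedAddCommGroup E] [InnerProductSpace ℝ E] [MeasureSpace E]
  [BorelSpace E] [FiniteDimensional ℝ E] [(volume : Measure E).IsAddHaarMeasure]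

variable {h : E → E} {Om La V : Set E} {K Φ : E → E → E} {r ρ : E → ℝ}

namespace Ins

theorem moll_model (I : Ins h Om La V K Φ r ρ) {v : E} (hv : v ∈ V) (hm : ∀ x, MollAt (Φ v) x)
    (x : E) : MollAt (fun y => h v + mdl Φ ρ v (y - v)) x := by
  have h0 := I.pos hv
  have h1 : MollAt (mdl Φ ρ v) (x - v) := by
    have h2 : MollAt (Φ v) (0 + (ρ v)⁻¹ • (x - v)) := hm _
    have h3 := StE_816.MollAt.affine (b := 0) (inv_pos.2 h0) h2
    have e1 : (fun y : E => ((ρ v)⁻¹)⁻¹ • (Φ v (0 + (ρ v)⁻¹ • y) - 0)) = mdl Φ ρ v := by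
      funext y
      simp only [inv_inv, zero_add, sub_zero]
      rfl
    rwa [e1] at h3
  exact StE_816.MollAt.shift h1

theorem moll (I : Ins h Om La V K Φ r ρ) (hm : ∀ v ∈ V, ∀ x, MollAt (Φ v) x)
    (hh : ∀ x ∈ Om, x ∉ V → MollAt h x) : ∀ x ∈ Om, MollAt (h3 h V Φ ρ) x := by
  intro x hx
  by_cases hc : ∃ w ∈ V, ‖x - w‖ ≤ ρ w
  · obtain ⟨v, hv, hxv⟩ := hc
    exact StE_816.MollAt.congr (I.moll_model hv (hm v hv) x) (I.h3_model hv hxv)
  · push Not at hc
    have hxV : x ∉ V := fun hxV => by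
      have h1 := hc x hxV
      have h2 := I.ρ_pos x hx
      rw [sub_self, norm_zero] at h1
      linarith
    exact StE_816.MollAt.congr (hh x hx hxV) (I.h3_far hx hc)

/-- Lipschitz bound of the model -/
theorem lip_model (I : Ins h Om La V K Φ r ρ) {v : E} (hv : v ∈ V) {C : ℝ≥0}
    (hC : LipschitzWith C (Φ v)) (y z : E) :
    ‖(h v + mdl Φ ρ v (y - v)) - (h v + mdl Φ ρ v (z - v))‖ ≤ C * ‖y - z‖ := by
  have h0 := I.pos hv
  have h1 := hC.dist_le_mul ((ρ v)⁻¹ • (y - v)) ((ρ v)⁻¹ • (z - v))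
  rw [dist_eq_norm, dist_eq_norm, ← smul_sub, sub_sub_sub_cancel_right, norm_smul, norm_inv,
    Real.norm_of_nonneg h0.le] at h1
  rw [add_sub_add_left_eq_sub]
  unfold mdl
  rw [← smul_sub, norm_smul, Real.norm_of_nonneg h0.le]
  calc ρ v * ‖Φ v ((ρ v)⁻¹ • (y - v)) - Φ v ((ρ v)⁻¹ • (z - v))‖
      ≤ ρ v * (C * ((ρ v)⁻¹ * ‖y - z‖)) := by gcongr
    _ = C * ‖y - z‖ * (ρ v * (ρ v)⁻¹) := by ring
    _ = C * ‖y - z‖ := by rw [mul_inv_cancel₀ h0.ne', mul_one]

/-- `C⁰` bound inside a ball -/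
theorem sub_le (I : Ins h Om La V K Φ r ρ) {v : E} (hv : v ∈ V) {M : ℝ}
    (hM : ∀ w, ‖w‖ ≤ 1 → ‖Φ v w - K v w‖ ≤ M) {x : E} (hx : ‖x - v‖ < ρ v) :
    ‖h3 h V Φ ρ x - h x‖ ≤ ρ v * M := by
  have h0 := I.pos hv
  have e1 : h x = h v + K v (x - v) := by
    rw [← I.germ v hv _ (hx.trans (I.ρ_lt v hv)), add_sub_cancel]
  have e2 : K v (x - v) = ρ v • K v ((ρ v)⁻¹ • (x - v)) := by
    rw [← I.conic v hv (ρ v) h0.le, smul_smul, mul_inv_cancel₀ h0.ne', one_smul]
  rw [I.h3_in hv hx, e1, e2, add_sub_add_left_eq_sub]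
  unfold mdl
  rw [← smul_sub, norm_smul, Real.norm_of_nonneg h0.le]
  gcongr
  refine hM _ ?_
  rw [norm_smul, norm_inv, Real.norm_of_nonneg h0.le, inv_mul_le_iff₀ h0, mul_one]
  exact hx.le

end Ins

/-- **StageVertex from Core.** -/
theorem stageVertex (hCore : Core E) : StageVertex E := by
  intro h Om La V K hOm hLa hh hVO hVd hmoll hgerm hK
  have hprop : ProperSpace E := FiniteDimensional.proper_real E
  choose! r hr hrball hrgerm using hgerm
  have hC : ∀ v ∈ V, ∃ Φ : E → E, IsHomeomorph Φ ∧ (∀ x, 1 ≤ ‖x‖ → Φ x = K v x) ∧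
      (∀ x, MollAt Φ x) ∧ ∃ C : ℝ≥0, LipschitzWith C Φ := fun v hv =>
    hCore (K v) (hK v hv).1 (hK v hv).2.1 (hK v hv).2.2
  choose! Φ hΦh hΦout hΦm C hΦC using hC
  have hM : ∀ v ∈ V, ∃ M : ℝ, 0 ≤ M ∧ ∀ w, ‖w‖ ≤ 1 → ‖Φ v w - K v w‖ ≤ M := by
    intro v hv
    have hcont : Continuous fun w => ‖Φ v w - K v w‖ :=
      ((hΦh v hv).continuous.sub (hK v hv).1.continuous).norm
    obtain ⟨M, hM⟩ := (isCompact_closedBall (0 : E) 1).bddAbove_image hcont.continuousOn
    refine ⟨max M 0, le_max_right _ _, fun w hw => (hM ⟨w, ?_, rfl⟩).trans (le_max_left _ _)⟩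
    rwa [mem_closedBall, dist_zero_right]
  choose! M hM0 hM using hM
  refine ⟨fun v => C v, fun η hη hηpos => ?_⟩
  have ht : ∀ v ∈ V, ∃ t > 0, ∀ x, ‖x - v‖ < t → η v / 2 < η x := by
    intro v hv
    have h1 : ContinuousAt η v := hη.continuousAt (hOm.mem_nhds (hVO hv))
    have h2 : η v / 2 < η v := by have := hηpos v (hVO hv); linarith
    obtain ⟨t, ht, h3⟩ := Metric.eventually_nhds_iff.1 (h1.eventually_const_lt h2)
    exact ⟨t, ht, fun x hx => h3 (by rwa [dist_eq_norm])⟩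
  choose! t ht htη using ht
  set T : E → ℝ := fun v => min (min (r v / 2) (t v)) (min (η v / 2) (η v / (2 * (M v + 1))))
    with hT
  have hT0 : ∀ v ∈ V, 0 < T v := by
    intro v hv
    have h1 := hr v hv
    have h2 := ht v hv
    have h3 := hηpos v (hVO hv)
    have h4 := hM0 v hv
    exact lt_min (lt_min (by positivity) h2) (lt_min (by positivity) (by positivity))
  obtain ⟨ρ, hρpos, hρlip, hρT, hρsub⟩ := exists_rho hOm hVd hT0
  have hρT' : ∀ v ∈ V, ρ v ≤ T v := fun v hv => hρT v hv (hVO hv)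
  have I : Ins h Om La V K Φ r ρ :=
    { openOm := hOm
      openLa := hLa
      hh := hh
      sub := hVO
      r_ball := hrball
      germ := hrgerm
      Kh := fun v hv => (hK v hv).1
      conic := fun v hv => (hK v hv).2.1
      Φh := hΦh
      Φout := hΦout
      ρ_pos := hρpos
      ρ_lip := hρlip
      ρ_lt := fun v hv => by
        have h1 := hr v hv
        have h2 : ρ v ≤ r v / 2 := (hρT' v hv).trans ((min_le_left _ _).trans (min_le_left _ _))
        linarith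
      ρ_sub := hρsub }
  refine ⟨h3 h V Φ ρ, I.homeoOn, I.moll hΦm hmoll, fun x hx => ?_, fun x hx hne => ?_⟩
  · by_cases hc : ∃ w ∈ V, ‖x - w‖ < ρ w
    · obtain ⟨v, hv, hxv⟩ := hc
      have h1 := I.sub_le hv (hM v hv) hxv
      have h2 : ρ v ≤ t v := (hρT' v hv).trans ((min_le_left _ _).trans (min_le_right _ _))
      have h3 := htη v hv x (hxv.trans_le h2)
      have h4 : ρ v ≤ η v / (2 * (M v + 1)) :=
        (hρT' v hv).trans ((min_le_right _ _).trans (min_le_right _ _))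
      have h5 := hM0 v hv
      have h6 := hηpos v (hVO hv)
      have h7 : ρ v * M v ≤ η v / 2 := by
        calc ρ v * M v ≤ η v / (2 * (M v + 1)) * (M v + 1) := by
              gcongr
              linarith
          _ = η v / 2 := by field_simp
      linarith
    · rw [Ins.h3_out hc, sub_self, norm_zero]
      exact (hηpos x hx).le
  · by_cases hc : ∃ w ∈ V, ‖x - w‖ < ρ w
    · obtain ⟨v, hv, hxv⟩ := hc
      have h2 : ρ v ≤ t v := (hρT' v hv).trans ((min_le_left _ _).trans (min_le_right _ _))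
      have h3' := htη v hv x (hxv.trans_le h2)
      have h4 : ρ v ≤ η v / 2 := (hρT' v hv).trans ((min_le_right _ _).trans (min_le_left _ _))
      have h6 := hηpos v (hVO hv)
      refine ⟨v, hv, by linarith, by linarith, ?_⟩
      obtain ⟨s, hs, hse⟩ := Metric.eventually_nhds_iff_ball.1 (I.h3_model hv hxv.le)
      refine ⟨s, hs, fun y hy z hz => ?_⟩
      rw [hse y hy, hse z hz]
      exact I.lip_model hv (hΦC v hv) y z
    · exact absurd (Ins.h3_out hc) hne

end Crest.Agent.R096.StV_119
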