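import Crest.Agent.R096.Asm3_119
import Crest.Agent.R096.StE8_816
import Crest.Agent.R096.StV3_119

/-!
# P5-ASM-B, part 4 (helper119, row 96): `EdgeB R3 → Core R3 → P5 p`
-/

set_option autoImplicit false

open MeasureTheory Metric Set Filter Topology
open scoped ENNReal NNReal ContDiff
open Crest.AnalysisR.VecCalc3 Crest.AnalysisR.Sobolev

namespace Crest.Agent.R096.Asm_119

open Crest.Agent.R096.P5Spec_205 (StageVertex EdgeB Core)
open Crest.Agent.R096.StE_816 (StageEdgeZ stageEdgeZ)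

/-- **`Raw p` from the two stages**, with 816's form of the edge stage. -/
theorem raw_of_stagesZ (hSE : StageEdgeZ R3) (hSV : StageVertex R3) {p : ℝ} (hp : 1 ≤ p) :
    Top_696.Raw p := by
  intro Om La h hOm _ _ hLa _ hLc hh hPL hdet δ hδ ε hε
  obtain ⟨h1, h2, h3, -, -⟩ := Germ_879.exists_germs_R3 hOm hLa hh hPL hdet
  obtain ⟨g, g1, g2, g3, g4, g5⟩ := asm_core hSV
    (by rw [show Module.finrank ℝ R3 = 3 from finrank_euclideanSpace_fin]; norm_num)
    hOm hLa hLc.isPreconnected h1 h2 h3 (hSE _ _ _ _ _ _ _ hOm hLa h1 h2 h3) (δ := fun _ => δ)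
    continuousOn_const (fun _ _ => hδ) hp hε.ne'
  exact ⟨g, g1, g2, g3.injOn, g3.image_eq, g4, g5⟩

/-- **P5 from EDGE-B and CORE3.** -/
theorem p5_of_edgeB_core (hB : EdgeB R3) (hC : Core R3) {p : ℝ} (hp : 1 ≤ p) : Sk_962.P5 p :=
  Top_696.p5_of_raw hp (raw_of_stagesZ (stageEdgeZ hB) (StV_119.stageVertex hC) hp)

end Crest.Agent.R096.Asm_119
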