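import Crest.Agent.R096.BelE_205

/-!
Row 96, P5 / C3-BEL: assembly of the path, `theorem bel : Bel`.
-/

open Set Metric MeasureTheory Filter Topology
open scoped ContDiff NNReal Real ComplexConjugate
open Crest.Agent.R096.BelA_205 Crest.Agent.R096.BelB_205 Crest.Agent.R096.BelC_205
open Crest.Agent.R096.BelDefs_205 Crest.Agent.R096.BelD_205 Crest.Agent.R096.BelE_205

namespace Crest.Agent.R096.BelF_205

noncomputable section

/-- operator norm by the two basis vectors -/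
theorem norm_le_two (L : ℂ →L[ℝ] ℂ) {a b : ℝ} (ha : ‖L 1‖ ≤ a) (hb : ‖L Complex.I‖ ≤ b) :
    ‖L‖ ≤ a + b := by
  have ha0 : 0 ≤ a := (norm_nonneg _).trans ha
  have hb0 : 0 ≤ b := (norm_nonneg _).trans hb
  apply ContinuousLinearMap.opNorm_le_bound _ (by positivity)
  intro v
  have hv : v = v.re • (1:ℂ) + v.im • Complex.I := by
    simp [Complex.real_smul]
  have h1 : L v = v.re • L 1 + v.im • L Complex.I := by
    conv_lhs => rw [hv, map_add, map_smul, map_smul]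
  rw [h1]
  refine (norm_add_le _ _).trans ?_
  rw [norm_smul, norm_smul, Real.norm_eq_abs, Real.norm_eq_abs]
  have h2 := Complex.abs_re_le_norm v
  have h3 := Complex.abs_im_le_norm v
  calc |v.re| * ‖L 1‖ + |v.im| * ‖L Complex.I‖ ≤ ‖v‖ * a + ‖v‖ * b := by gcongr
    _ = (a + b) * ‖v‖ := by ring

/-! ### Lipschitz dependence on the parameter -/

theorem lip_aux {G : ℝ × ℂ → ℂ} (hG : ContDiff ℝ 1 G) {R : ℝ} (h0 : ∀ s z, R < ‖z‖ → G (s, z) = 0) :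
    ∃ M : ℝ, 0 ≤ M ∧ (∀ s ∈ Icc (0:ℝ) 1, ∀ z, ‖G (s, z)‖ ≤ M) ∧
      ∀ s ∈ Icc (0:ℝ) 1, ∀ t ∈ Icc (0:ℝ) 1, ∀ z, ‖G (s, z) - G (t, z)‖ ≤ M * |s - t| := by
  have hK : IsCompact (Icc (0:ℝ) 1 ×ˢ closedBall (0:ℂ) R) :=
    isCompact_Icc.prod (isCompact_closedBall _ _)
  have hKc : Convex ℝ (Icc (0:ℝ) 1 ×ˢ closedBall (0:ℂ) R) :=
    (convex_Icc _ _).prod (convex_closedBall _ _)
  obtain ⟨M1, hM1⟩ := hK.exists_bound_of_continuousOn hG.continuous.continuousOn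
  obtain ⟨M2, hM2⟩ := hK.exists_bound_of_continuousOn
    (hG.continuous_fderiv (by norm_num)).continuousOn
  refine ⟨max (max M1 M2) 0, le_max_right _ _, fun s hs z => ?_, fun s hs t ht z => ?_⟩
  · by_cases hz : R < ‖z‖
    · rw [h0 s z hz]; simp
    · exact (hM1 (s, z) ⟨hs, by simpa using hz⟩).trans ((le_max_left _ _).trans (le_max_left _ _))
  · by_cases hz : R < ‖z‖
    · rw [h0 s z hz, h0 t z hz]; simp
      positivity
    · have h1 := hKc.norm_image_sub_le_of_norm_fderiv_le (𝕜 := ℝ) (f := G) (C := M2)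
        (x := (t, z)) (y := (s, z))
        (fun x _ => hG.differentiable (by norm_num) x) (fun x hx => hM2 x hx)
        ⟨ht, by simpa using hz⟩ ⟨hs, by simpa using hz⟩
      have h2 : ‖((s, z) : ℝ × ℂ) - (t, z)‖ = |s - t| := by
        simp [Prod.norm_def]
      rw [h2] at h1
      refine h1.trans ?_
      apply mul_le_mul_of_nonneg_right _ (abs_nonneg _)
      exact (le_max_right _ _).trans (le_max_left _ _)

theorem dd_param {N : ℝ × ℂ → ℂ} (hN : ContDiff ℝ ∞ N) (v : ℂ) (s : ℝ) (z : ℂ) :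
    dd v (fun z => N (s, z)) z = fderiv ℝ N (s, z) (0, v) := by
  have h1 : HasFDerivAt (fun z : ℂ => ((s, z) : ℝ × ℂ)) (ContinuousLinearMap.inr ℝ ℝ ℂ) z :=
    hasFDerivAt_prodMk_right s z
  have h2 := (hN.differentiable (by simp) (s, z)).hasFDerivAt.comp z h1
  unfold dd
  have h3 : (N ∘ fun z : ℂ => ((s, z) : ℝ × ℂ)) = fun z => N (s, z) := rfl
  rw [h3] at h2
  rw [h2.fderiv]
  simp

/-- uniform `C¹` bounds and Lipschitz bounds for a smooth family of test functions -/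
theorem fam_bounds {N : ℝ × ℂ → ℂ} (hN : ContDiff ℝ ∞ N) {R : ℝ}
    (h0 : ∀ s z, R < ‖z‖ → N (s, z) = 0) :
    ∃ M : ℝ, 0 ≤ M ∧ (∀ s ∈ Icc (0:ℝ) 1, ∀ z, ‖N (s, z)‖ ≤ M) ∧
      (∀ s ∈ Icc (0:ℝ) 1, ∀ z, ‖dd 1 (fun z => N (s, z)) z‖ ≤ M) ∧
      (∀ s ∈ Icc (0:ℝ) 1, ∀ z, ‖dd Complex.I (fun z => N (s, z)) z‖ ≤ M) ∧
      (∀ s ∈ Icc (0:ℝ) 1, ∀ t ∈ Icc (0:ℝ) 1, ∀ z, ‖N (s, z) - N (t, z)‖ ≤ M * |s - t|) ∧
      (∀ s ∈ Icc (0:ℝ) 1, ∀ t ∈ Icc (0:ℝ) 1, ∀ z,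
        ‖dd 1 (fun z => N (s, z)) z - dd 1 (fun z => N (t, z)) z‖ ≤ M * |s - t|) ∧
      (∀ s ∈ Icc (0:ℝ) 1, ∀ t ∈ Icc (0:ℝ) 1, ∀ z,
        ‖dd Complex.I (fun z => N (s, z)) z - dd Complex.I (fun z => N (t, z)) z‖
          ≤ M * |s - t|) := by
  have hD : ∀ v : ℂ, ContDiff ℝ 1 fun p : ℝ × ℂ => fderiv ℝ N p ((0:ℝ), v) := by
    intro v
    have h1 : ContDiff ℝ 1 (fderiv ℝ N) := hN.fderiv_right (by
      have h2 : (2 : ℕ∞ω) ≤ ∞ := ENat.LEInfty.out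
      have : (1 : ℕ∞ω) + 1 ≤ ∞ := by norm_num; exact h2
      exact this)
    exact h1.clm_apply contDiff_const
  have hD0 : ∀ (v : ℂ) (s : ℝ) (z : ℂ), R < ‖z‖ → fderiv ℝ N (s, z) ((0:ℝ), v) = 0 := by
    intro v s z hz
    rw [← dd_param hN]
    unfold dd
    rw [fderiv_zero_of (h0 s) hz]; rfl
  obtain ⟨M0, p0, a0, b0⟩ := lip_aux (hN.of_le (by simp)) h0
  obtain ⟨M1, p1, a1, b1⟩ := lip_aux (hD 1) (hD0 1)
  obtain ⟨M2, p2, a2, b2⟩ := lip_aux (hD Complex.I) (hD0 Complex.I)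
  refine ⟨M0 + M1 + M2, by positivity, fun s hs z => ?_, fun s hs z => ?_, fun s hs z => ?_,
    fun s hs t ht z => ?_, fun s hs t ht z => ?_, fun s hs t ht z => ?_⟩
  · linarith [a0 s hs z]
  · rw [dd_param hN]; linarith [a1 s hs z]
  · rw [dd_param hN]; linarith [a2 s hs z]
  · refine (b0 s hs t ht z).trans ?_
    apply mul_le_mul_of_nonneg_right _ (abs_nonneg _); linarith
  · rw [dd_param hN, dd_param hN]
    refine (b1 s hs t ht z).trans ?_
    apply mul_le_mul_of_nonneg_right _ (abs_nonneg _); linarith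
  · rw [dd_param hN, dd_param hN]
    refine (b2 s hs t ht z).trans ?_
    apply mul_le_mul_of_nonneg_right _ (abs_nonneg _); linarith

/-- the family `ν n s` is jointly smooth -/
theorem joint {μ : ℂ → ℂ} {R : ℝ} (hμ : Tst R μ) (n : ℕ) :
    ContDiff ℝ ∞ fun p : ℝ × ℂ => ν μ n p.1 p.2 := by
  have e : (fun p : ℝ × ℂ => ν μ n p.1 p.2) = fun p : ℝ × ℂ => (p.1 : ℂ) * (μ p.2
      * Complex.exp (∑ j ∈ Finset.range n, (p.1:ℂ) ^ (j + 1) * P (δ μ j) p.2)) := by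
    ext p
    unfold ν
    rw [σ_eq hμ]
  rw [e]
  have h1 : ContDiff ℝ ∞ fun p : ℝ × ℂ => (p.1 : ℂ) := Complex.ofRealCLM.contDiff.comp contDiff_fst
  have h2 : ContDiff ℝ ∞ fun p : ℝ × ℂ => μ p.2 := hμ.smooth.comp contDiff_snd
  have h3 : ∀ j, ContDiff ℝ ∞ fun p : ℝ × ℂ => P (δ μ j) p.2 := fun j =>
    (P_smooth (tst_δ hμ j)).comp contDiff_snd
  exact h1.mul (h2.mul (ContDiff.sum fun j _ => (h1.pow _).mul (h3 j)).cexp)

/-! ### Cutoff -/

/-- a smooth cutoff: `1` on the ball of radius `L`, `0` outside the ball of radius `2 L`, with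
derivative bounded by an absolute constant (for `L ≥ 1`) -/
theorem exists_cutoff : ∃ Cχ : ℝ, 0 ≤ Cχ ∧ ∀ L : ℝ, 1 ≤ L → ∃ χ : ℂ → ℝ, ContDiff ℝ ∞ χ ∧
    (∀ z, ‖z‖ ≤ L → χ z = 1) ∧ (∀ z, 2 * L ≤ ‖z‖ → χ z = 0) ∧ (∀ z, 0 ≤ χ z ∧ χ z ≤ 1) ∧
    ∀ z, ‖fderiv ℝ χ z‖ ≤ Cχ := by
  let b : ContDiffBump (0:ℂ) := ⟨1, 2, one_pos, one_lt_two⟩
  have hb : ContDiff ℝ ∞ (b : ℂ → ℝ) := b.contDiff
  have hc : HasCompactSupport (b : ℂ → ℝ) := b.hasCompactSupport
  obtain ⟨C, hC⟩ := (hb.continuous_fderiv (by simp)).bounded_above_of_compact_support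
    (hc.fderiv ℝ)
  refine ⟨max C 0, le_max_right _ _, fun L hL => ⟨fun z => b ((L⁻¹ : ℝ) • z), ?_, ?_, ?_, ?_, ?_⟩⟩
  · exact hb.comp (contDiff_const_smul _)
  · intro z hz
    apply b.one_of_mem_closedBall
    have : ‖(L⁻¹ : ℝ) • z‖ ≤ 1 := by
      rw [norm_smul, Real.norm_of_nonneg (by positivity), inv_mul_le_iff₀ (by positivity)]
      linarith
    simpa using this
  · intro z hz
    apply b.zero_of_le_dist
    have : (2:ℝ) ≤ ‖(L⁻¹ : ℝ) • z‖ := by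
      rw [norm_smul, Real.norm_of_nonneg (by positivity), le_inv_mul_iff₀ (by positivity)]
      linarith
    simpa using this
  · intro z
    exact ⟨b.nonneg, b.le_one⟩
  · intro z
    have h1 : HasFDerivAt (fun z : ℂ => (L⁻¹ : ℝ) • z) ((L⁻¹ : ℝ) • ContinuousLinearMap.id ℝ ℂ) z :=
      ((L⁻¹ : ℝ) • ContinuousLinearMap.id ℝ ℂ).hasFDerivAt
    have h2 := (hb.differentiable (by simp) ((L⁻¹ : ℝ) • z)).hasFDerivAt.comp z h1
    have h3 : ((b : ℂ → ℝ) ∘ fun z : ℂ => (L⁻¹ : ℝ) • z) = fun z => b ((L⁻¹ : ℝ) • z) := rfl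
    rw [h3] at h2
    rw [h2.fderiv]
    refine (ContinuousLinearMap.opNorm_comp_le _ _).trans ?_
    have h4 : ‖(L⁻¹ : ℝ) • ContinuousLinearMap.id ℝ ℂ‖ ≤ 1 := by
      rw [norm_smul, Real.norm_of_nonneg (by positivity)]
      have : ‖ContinuousLinearMap.id ℝ ℂ‖ ≤ 1 := ContinuousLinearMap.norm_id_le
      have h5 : L⁻¹ ≤ 1 := inv_le_one_of_one_le₀ hL
      calc L⁻¹ * ‖ContinuousLinearMap.id ℝ ℂ‖ ≤ 1 * 1 := by gcongr
        _ = 1 := one_mul 1
    calc ‖fderiv ℝ b ((L⁻¹ : ℝ) • z)‖ * ‖(L⁻¹ : ℝ) • ContinuousLinearMap.id ℝ ℂ‖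
        ≤ max C 0 * 1 := by
          gcongr
          exact (hC _).trans (le_max_left _ _)
      _ = max C 0 := mul_one _

/-- the cut off correction -/
def Hh (χ : ℂ → ℝ) (w : ℂ → ℂ) (z : ℂ) : ℂ := z + (χ z : ℂ) * w z

theorem hasFDerivAt_cut {χ : ℂ → ℝ} (hχ : ContDiff ℝ ∞ χ) {w : ℂ → ℂ} (hw : ContDiff ℝ ∞ w)
    (z : ℂ) : HasFDerivAt (fun z => (χ z : ℂ) * w z)
      ((χ z) • fderiv ℝ w z + (fderiv ℝ χ z).smulRight (w z)) z := by
  have h1 := (hχ.differentiable (by simp) z).hasFDerivAt.smul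
    (hw.differentiable (by simp) z).hasFDerivAt
  have e : (fun z => (χ z : ℂ) * w z) = fun z => χ z • w z := by
    ext z; rw [Complex.real_smul]
  rw [e]
  exact h1

theorem norm_cut_le {χ : ℂ → ℝ} (hχ1 : ∀ z, 0 ≤ χ z ∧ χ z ≤ 1) {Cχ : ℝ}
    (hχd : ∀ z, ‖fderiv ℝ χ z‖ ≤ Cχ) {w : ℂ → ℂ} {z : ℂ} {a b : ℝ} (ha : ‖w z‖ ≤ a)
    (hb : ‖fderiv ℝ w z‖ ≤ b) :
    ‖(χ z) • fderiv ℝ w z + (fderiv ℝ χ z).smulRight (w z)‖ ≤ b + Cχ * a := by
  refine (norm_add_le _ _).trans (add_le_add ?_ ?_)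
  · rw [norm_smul, Real.norm_of_nonneg (hχ1 z).1]
    calc χ z * ‖fderiv ℝ w z‖ ≤ 1 * ‖fderiv ℝ w z‖ :=
          mul_le_mul_of_nonneg_right (hχ1 z).2 (norm_nonneg _)
      _ ≤ b := by rw [one_mul]; exact hb
  · rw [ContinuousLinearMap.norm_smulRight_apply]
    have h0 : 0 ≤ Cχ := (norm_nonneg _).trans (hχd z)
    exact mul_le_mul (hχd z) ha (norm_nonneg _) h0

/-! ### The path -/

theorem Adm.mono {R R' : ℝ} {f : ℂ → ℂ} (hf : Adm R f) (h : R ≤ R') : Adm R' f :=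
  ⟨hf.smooth, fun z hz => hf.out z (lt_of_le_of_lt h hz), hf.det⟩

theorem fderiv_out {R : ℝ} {f : ℂ → ℂ} (hf : Adm R f) {z : ℂ} (hz : R < ‖z‖) :
    fderiv ℝ f z = ContinuousLinearMap.id ℝ ℂ := by
  have h1 : f =ᶠ[𝓝 z] fun z => z := by
    filter_upwards [(isOpen_lt continuous_const continuous_norm).mem_nhds hz] with y hy
    exact hf.out y hy
  rw [h1.fderiv_eq, fderiv_fun_id]

/-- uniform stability of positive determinant -/
theorem exists_stab {R : ℝ} {f : ℂ → ℂ} (hf : Adm R f) :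
    ∃ d : ℝ, 0 < d ∧ ∀ z, ∀ A : ℂ →L[ℝ] ℂ, ‖A - fderiv ℝ f z‖ < d → 0 < A.det := by
  have hcont : Continuous (fderiv ℝ f) := hf.smooth.continuous_fderiv (by simp)
  set K : Set (ℂ →L[ℝ] ℂ) := fderiv ℝ f '' closedBall 0 (|R| + 1) with hK
  have hKc : IsCompact K := (isCompact_closedBall _ _).image hcont
  have hU : IsOpen {A : ℂ →L[ℝ] ℂ | 0 < A.det} :=
    isOpen_lt continuous_const ContinuousLinearMap.continuous_det
  have hsub : K ⊆ {A : ℂ →L[ℝ] ℂ | 0 < A.det} := by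
    rintro A ⟨z, -, rfl⟩
    exact hf.det z
  obtain ⟨d, hd, hth⟩ := hKc.exists_thickening_subset_open hU hsub
  refine ⟨d, hd, fun z A hA => ?_⟩
  apply hth
  rw [mem_thickening_iff]
  have hmem : fderiv ℝ f z ∈ K := by
    by_cases hz : ‖z‖ ≤ |R| + 1
    · exact ⟨z, by simpa using hz, rfl⟩
    · push Not at hz
      have h1 : R < ‖z‖ := by linarith [le_abs_self R]
      rw [fderiv_out hf h1]
      refine ⟨((|R| + 1 : ℝ) : ℂ), ?_, ?_⟩
      · rw [mem_closedBall_zero_iff, Complex.norm_real, Real.norm_of_nonneg (by positivity)]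
      · apply fderiv_out hf
        rw [Complex.norm_real, Real.norm_of_nonneg (by positivity)]
        linarith [le_abs_self R]
  exact ⟨_, hmem, by rw [dist_eq_norm]; exact hA⟩

/-- derivative bound for `P` -/
theorem fderiv_P_le {R : ℝ} {u : ℂ → ℂ} (h : Tst R u) {M : ℝ} (h1 : ∀ z, ‖dd 1 u z‖ ≤ M)
    (h2 : ∀ z, ‖dd Complex.I u z‖ ≤ M) (z : ℂ) : ‖fderiv ℝ (P u) z‖ ≤ 2 * (CP R * M) := by
  have e : ∀ v, fderiv ℝ (P u) z v = P (dd v u) z := fun v => congrFun (dd_P h v) z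
  have a1 : ‖fderiv ℝ (P u) z 1‖ ≤ CP R * M := by rw [e]; exact P_sup (h.dd 1) h1 z
  have a2 : ‖fderiv ℝ (P u) z Complex.I‖ ≤ CP R * M := by rw [e]; exact P_sup (h.dd _) h2 z
  have := norm_le_two _ a1 a2
  linarith

theorem fderiv_P_decay {R : ℝ} {u : ℂ → ℂ} (h : Tst R u) (hR : 0 < R) {M : ℝ}
    (h1 : ∀ z, ‖dd 1 u z‖ ≤ M) (h2 : ∀ z, ‖dd Complex.I u z‖ ≤ M) {z : ℂ} (hz : 2 * R ≤ ‖z‖) :
    ‖fderiv ℝ (P u) z‖ ≤ 2 * (2 * π⁻¹ * (volume.real (closedBall (0:ℂ) R) * M) * ‖z‖⁻¹) := by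
  have e : ∀ v, fderiv ℝ (P u) z v = P (dd v u) z := fun v => congrFun (dd_P h v) z
  have hM : ∀ v, (∀ z, ‖dd v u z‖ ≤ M) → ‖P (dd v u) z‖
      ≤ 2 * π⁻¹ * (volume.real (closedBall (0:ℂ) R) * M) * ‖z‖⁻¹ := by
    intro v hv
    refine (P_decay (h.dd v) hR hz).trans ?_
    gcongr
    exact int_norm_le (h.dd v) hv
  have a1 := hM 1 h1
  have a2 := hM Complex.I h2
  rw [← e] at a1 a2
  have := norm_le_two _ a1 a2
  linarith

/-- `C3-BEL` for `R > 0` -/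
theorem bel_pos {R : ℝ} (hR : 0 < R) {f : ℂ → ℂ} (hf : Adm R f) :
    ∃ (R' M : ℝ) (F G : ℝ → ℂ → ℂ), PathC R' M F ∧ PathC R' M G ∧ F 0 = id ∧ F 1 = G 0 ∧
      G 1 = f := by
  obtain ⟨k, hk1, hk⟩ := exists_k hf
  obtain ⟨C, ρ, h⟩ := exists_Bd (tst_mu hf) hk hk1
  obtain ⟨d, hd, hdet⟩ := exists_stab hf
  -- choose `n`
  obtain ⟨N1, hN1⟩ := close hf h (show (0:ℝ) < d / 2 by linarith)
  have hpos : 0 < (1 - k) * Real.exp (-Bd.Sg R C ρ) :=
    mul_pos (by linarith) (Real.exp_pos _)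
  obtain ⟨N2, hN2⟩ := (h.g_tendsto.eventually (gt_mem_nhds hpos)).exists_forall_of_atTop
  set n := max N1 N2 with hn
  have hclose := hN1 n (le_max_left _ _)
  have hdetF := fun s hs z => h.det_pos (hN2 n (le_max_right _ _)) (s := s) hs z
  -- the smooth family
  set μ := mu f with hμdef
  have hμ : Tst R μ := h.tst
  have hN := joint hμ n
  have hν0 : ∀ (s : ℝ) (z : ℂ), R < ‖z‖ → (fun p : ℝ × ℂ => ν μ n p.1 p.2) (s, z) = 0 :=
    fun s z hz => (tst_ν hμ n s).zero z hz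
  obtain ⟨M, hM0, b0, b1, b2, c0, c1, c2⟩ := fam_bounds hN hν0
  simp only at b0 b1 b2 c0 c1 c2
  -- choose `L`
  obtain ⟨Cχ, hCχ, hcut⟩ := exists_cutoff
  set V := volume.real (closedBall (0:ℂ) R) with hV
  have hV0 : 0 ≤ V := by positivity
  set D := 2 * (2 * π⁻¹ * (V * M)) + Cχ * (2 * π⁻¹ * (V * M)) with hD
  have hD0 : 0 ≤ D := by positivity
  obtain ⟨L, hL1, hL2, hL3⟩ : ∃ L : ℝ, 1 ≤ L ∧ 2 * R ≤ L ∧ D * L⁻¹ < d / 2 := by
    have h1 : Tendsto (fun L : ℝ => D * L⁻¹) atTop (𝓝 0) := by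
      simpa using tendsto_inv_atTop_zero.const_mul D
    have h2 := h1.eventually (gt_mem_nhds (show (0:ℝ) < d / 2 by linarith))
    obtain ⟨L, hL⟩ := ((eventually_ge_atTop (1:ℝ)).and ((eventually_ge_atTop (2 * R)).and h2)).exists
    exact ⟨L, hL.1, hL.2.1, hL.2.2⟩
  obtain ⟨χ, χs, χ1, χ0, χb, χd⟩ := hcut L hL1
  have hLR : R < L := by linarith
  -- the cut off maps
  have hPs : ∀ s, ContDiff ℝ ∞ (P (ν μ n s)) := fun s => P_smooth (tst_ν hμ n s)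
  have hχc : ContDiff ℝ ∞ (fun z => (χ z : ℂ)) := Complex.ofRealCLM.contDiff.comp χs
  have hHs : ∀ s, ContDiff ℝ ∞ (Hh χ (P (ν μ n s))) := fun s =>
    contDiff_id.add (hχc.mul (hPs s))
  have hHd : ∀ s z, HasFDerivAt (Hh χ (P (ν μ n s))) (ContinuousLinearMap.id ℝ ℂ
      + ((χ z) • fderiv ℝ (P (ν μ n s)) z + (fderiv ℝ χ z).smulRight (P (ν μ n s) z))) z :=
    fun s z => (hasFDerivAt_id z).add (hasFDerivAt_cut χs (hPs s) z)
  have hHfar : ∀ s ∈ Icc (0:ℝ) 1, ∀ z, L ≤ ‖z‖ →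
      ‖fderiv ℝ (Hh χ (P (ν μ n s))) z - ContinuousLinearMap.id ℝ ℂ‖ < d / 2 := by
    intro s hs z hz
    rw [(hHd s z).fderiv, add_sub_cancel_left]
    have hz2 : 2 * R ≤ ‖z‖ := hL2.trans hz
    have hzpos : 0 < ‖z‖ := by linarith
    have a1 : ‖P (ν μ n s) z‖ ≤ 2 * π⁻¹ * (V * M) * ‖z‖⁻¹ := by
      refine (P_decay (tst_ν hμ n s) hR hz2).trans ?_
      gcongr
      exact int_norm_le (tst_ν hμ n s) (b0 s hs)
    have a2 := fderiv_P_decay (tst_ν hμ n s) hR (b1 s hs) (b2 s hs) hz2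
    refine (norm_cut_le χb χd a1 a2).trans_lt ?_
    have a3 : ‖z‖⁻¹ ≤ L⁻¹ := inv_anti₀ (by linarith) hz
    calc 2 * (2 * π⁻¹ * (V * M) * ‖z‖⁻¹) + Cχ * (2 * π⁻¹ * (V * M) * ‖z‖⁻¹)
        = D * ‖z‖⁻¹ := by rw [hD]; ring
      _ ≤ D * L⁻¹ := mul_le_mul_of_nonneg_left a3 hD0
      _ < d / 2 := hL3
  have hHnear : ∀ s z, ‖z‖ < L → fderiv ℝ (Hh χ (P (ν μ n s))) z = fderiv ℝ (F μ n s) z := by
    intro s z hz
    have : Hh χ (P (ν μ n s)) =ᶠ[𝓝 z] F μ n s := by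
      filter_upwards [(isOpen_lt continuous_norm continuous_const).mem_nhds hz] with y hy
      unfold Hh F
      rw [χ1 y (le_of_lt hy)]; simp
    exact this.fderiv_eq
  have hHdet : ∀ s ∈ Icc (0:ℝ) 1, ∀ z, 0 < (fderiv ℝ (Hh χ (P (ν μ n s))) z).det := by
    intro s hs z
    rcases lt_or_ge ‖z‖ L with hz | hz
    · rw [hHnear s z hz]; exact hdetF s hs z
    · apply hdet z
      rw [fderiv_out hf (lt_of_lt_of_le hLR hz)]
      linarith [hHfar s hs z hz]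
  have hHout : ∀ s z, 2 * L < ‖z‖ → Hh χ (P (ν μ n s)) z = z := by
    intro s z hz
    unfold Hh
    rw [χ0 z hz.le]; simp
  -- Lipschitz dependence
  have hdiffT : ∀ s t, Tst R (fun z => ν μ n s z - ν μ n t z) := fun s t =>
    (tst_ν hμ n s).sub (tst_ν hμ n t)
  have hPsub : ∀ s t z, P (ν μ n s) z - P (ν μ n t) z = P (fun z => ν μ n s z - ν μ n t z) z :=
    fun s t z => (P_sub (tst_ν hμ n s) (tst_ν hμ n t) z).symm
  have hl0 : ∀ s ∈ Icc (0:ℝ) 1, ∀ t ∈ Icc (0:ℝ) 1, ∀ z,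
      ‖P (ν μ n s) z - P (ν μ n t) z‖ ≤ CP R * (M * |s - t|) := by
    intro s hs t ht z
    rw [hPsub]
    exact P_sup (hdiffT s t) (c0 s hs t ht) z
  have hl1 : ∀ s ∈ Icc (0:ℝ) 1, ∀ t ∈ Icc (0:ℝ) 1, ∀ z,
      ‖fderiv ℝ (P (ν μ n s)) z - fderiv ℝ (P (ν μ n t)) z‖ ≤ 2 * (CP R * (M * |s - t|)) := by
    intro s hs t ht z
    have e1 : fderiv ℝ (P (ν μ n s)) z - fderiv ℝ (P (ν μ n t)) z
        = fderiv ℝ (P (fun z => ν μ n s z - ν μ n t z)) z := by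
      have : P (fun z => ν μ n s z - ν μ n t z) = fun z => P (ν μ n s) z - P (ν μ n t) z := by
        ext z; rw [hPsub]
      rw [this, fderiv_fun_sub ((hPs s).differentiable (by simp) z)
        ((hPs t).differentiable (by simp) z)]
    rw [e1]
    apply fderiv_P_le (hdiffT s t)
    · intro z
      rw [dd_sub (tst_ν hμ n s).diff (tst_ν hμ n t).diff]
      exact c1 s hs t ht z
    · intro z
      rw [dd_sub (tst_ν hμ n s).diff (tst_ν hμ n t).diff]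
      exact c2 s hs t ht z
  set M1 := 2 * (CP R * M) + Cχ * (CP R * M) with hM1
  have hCP := CP_nonneg R
  have hM10 : 0 ≤ M1 := by positivity
  -- bounds for the second family
  have hdfs : ContDiff ℝ ∞ (fun z => Hh χ (P (ν μ n 1)) z - f z) := (hHs 1).sub hf.smooth
  have hdfc : HasCompactSupport (fun z => Hh χ (P (ν μ n 1)) z - f z) := by
    apply HasCompactSupport.intro (isCompact_closedBall (0:ℂ) (2 * L))
    intro z hz
    have hz' : 2 * L < ‖z‖ := by simpa using hz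
    rw [hHout 1 z hz', hf.out z (by linarith)]; simp
  obtain ⟨B0, hB0⟩ := hdfs.continuous.bounded_above_of_compact_support hdfc
  obtain ⟨B1, hB1⟩ := (hdfs.continuous_fderiv (by simp)).bounded_above_of_compact_support
    (hdfc.fderiv ℝ)
  set MM := max (max (CP R * M) M1) (max B0 B1) with hMM
  have h1I : (1:ℝ) ∈ Icc (0:ℝ) 1 := ⟨by norm_num, le_refl _⟩
  refine ⟨2 * L, MM, fun s => Hh χ (P (ν μ n s)),
    fun t z => (1 - t : ℝ) • Hh χ (P (ν μ n 1)) z + t • f z, ⟨?_, ?_, ?_⟩, ⟨?_, ?_, ?_⟩, ?_, ?_, ?_⟩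
  · intro s hs
    exact ⟨hHs s, hHout s, hHdet s hs⟩
  · intro s hs t ht z
    have e1 : Hh χ (P (ν μ n s)) z - Hh χ (P (ν μ n t)) z
        = (χ z : ℂ) * (P (ν μ n s) z - P (ν μ n t) z) := by unfold Hh; ring
    beta_reduce
    rw [e1, norm_mul, Complex.norm_real, Real.norm_of_nonneg (χb z).1]
    calc χ z * ‖P (ν μ n s) z - P (ν μ n t) z‖ ≤ 1 * (CP R * (M * |s - t|)) :=
          mul_le_mul (χb z).2 (hl0 s hs t ht z) (norm_nonneg _) zero_le_one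
      _ = (CP R * M) * |s - t| := by ring
      _ ≤ MM * |s - t| := by
          apply mul_le_mul_of_nonneg_right _ (abs_nonneg _)
          exact (le_max_left _ _).trans (le_max_left _ _)
  · intro s hs t ht z
    beta_reduce
    have e1 : fderiv ℝ (Hh χ (P (ν μ n s))) z - fderiv ℝ (Hh χ (P (ν μ n t))) z
        = (χ z) • fderiv ℝ (fun z => P (ν μ n s) z - P (ν μ n t) z) z
          + (fderiv ℝ χ z).smulRight ((fun z => P (ν μ n s) z - P (ν μ n t) z) z) := by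
      rw [(hHd s z).fderiv, (hHd t z).fderiv,
        fderiv_fun_sub ((hPs s).differentiable (by simp) z) ((hPs t).differentiable (by simp) z)]
      ext v
      simp only [ContinuousLinearMap.sub_apply, ContinuousLinearMap.add_apply,
        ContinuousLinearMap.smul_apply, ContinuousLinearMap.smulRight_apply,
        Complex.real_smul, ContinuousLinearMap.id_apply]
      ring
    rw [e1]
    have a1 := hl0 s hs t ht z
    have a2 := hl1 s hs t ht z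
    rw [← fderiv_fun_sub ((hPs s).differentiable (by simp) z)
      ((hPs t).differentiable (by simp) z)] at a2
    refine (norm_cut_le (w := fun z => P (ν μ n s) z - P (ν μ n t) z) χb χd a1 a2).trans ?_
    calc 2 * (CP R * (M * |s - t|)) + Cχ * (CP R * (M * |s - t|)) = M1 * |s - t| := by
          rw [hM1]; ring
      _ ≤ MM * |s - t| := by
          apply mul_le_mul_of_nonneg_right _ (abs_nonneg _)
          exact (le_max_right _ _).trans (le_max_left _ _)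
  · intro t ht
    refine ⟨?_, ?_, ?_⟩
    · exact ((hHs 1).const_smul (1 - t)).add (hf.smooth.const_smul t)
    · intro z hz
      beta_reduce
      rw [hHout 1 z hz, hf.out z (by linarith), ← add_smul]; simp
    · intro z
      apply hdet z
      have e1 : fderiv ℝ (fun z => (1 - t : ℝ) • Hh χ (P (ν μ n 1)) z + t • f z) z
          - fderiv ℝ f z = (1 - t : ℝ) • (fderiv ℝ (Hh χ (P (ν μ n 1))) z - fderiv ℝ f z) := by
        have d1 := ((hHs 1).differentiable (by simp) z).hasFDerivAt.const_smul (1 - t)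
        have d2 := (hf.smooth.differentiable (by simp) z).hasFDerivAt.const_smul t
        have d3 : HasFDerivAt (fun z => (1 - t : ℝ) • Hh χ (P (ν μ n 1)) z + t • f z)
          ((1 - t) • fderiv ℝ (Hh χ (P (ν μ n 1))) z + t • fderiv ℝ f z) z := d1.add d2
        rw [d3.fderiv]
        module
      rw [e1, norm_smul, Real.norm_of_nonneg (by linarith [ht.2])]
      have a1 : ‖fderiv ℝ (Hh χ (P (ν μ n 1))) z - fderiv ℝ f z‖ ≤ d / 2 := by
        rcases lt_or_ge ‖z‖ L with hz | hz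
        · rw [hHnear 1 z hz]; exact (hclose z).2
        · rw [fderiv_out hf (lt_of_lt_of_le hLR hz)]
          exact (hHfar 1 h1I z hz).le
      calc (1 - t) * ‖fderiv ℝ (Hh χ (P (ν μ n 1))) z - fderiv ℝ f z‖ ≤ 1 * (d / 2) :=
            mul_le_mul (by linarith [ht.1]) a1 (norm_nonneg _) zero_le_one
        _ < d := by linarith
  · intro s hs t ht z
    beta_reduce
    have e1 : ((1 - s : ℝ) • Hh χ (P (ν μ n 1)) z + s • f z)
        - ((1 - t : ℝ) • Hh χ (P (ν μ n 1)) z + t • f z)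
        = (t - s) • (Hh χ (P (ν μ n 1)) z - f z) := by module
    rw [e1, norm_smul, Real.norm_eq_abs, abs_sub_comm, mul_comm]
    apply mul_le_mul_of_nonneg_right _ (abs_nonneg _)
    exact (hB0 z).trans ((le_max_left _ _).trans (le_max_right _ _))
  · intro s hs t ht z
    beta_reduce
    have d3 : ∀ t : ℝ, HasFDerivAt (fun z => (1 - t : ℝ) • Hh χ (P (ν μ n 1)) z + t • f z)
        ((1 - t) • fderiv ℝ (Hh χ (P (ν μ n 1))) z + t • fderiv ℝ f z) z := fun t =>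
      (((hHs 1).differentiable (by simp) z).hasFDerivAt.const_smul (1 - t)).add
        ((hf.smooth.differentiable (by simp) z).hasFDerivAt.const_smul t)
    rw [(d3 s).fderiv, (d3 t).fderiv]
    have e1 : ((1 - s) • fderiv ℝ (Hh χ (P (ν μ n 1))) z + s • fderiv ℝ f z)
        - ((1 - t) • fderiv ℝ (Hh χ (P (ν μ n 1))) z + t • fderiv ℝ f z)
        = (t - s) • (fderiv ℝ (Hh χ (P (ν μ n 1))) z - fderiv ℝ f z) := by module
    rw [e1, norm_smul, Real.norm_eq_abs, abs_sub_comm, mul_comm]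
    apply mul_le_mul_of_nonneg_right _ (abs_nonneg _)
    have := hB1 z
    rw [fderiv_fun_sub ((hHs 1).differentiable (by simp) z)
      (hf.smooth.differentiable (by simp) z)] at this
    exact this.trans ((le_max_right _ _).trans (le_max_right _ _))
  · ext z
    have : ν μ n 0 = fun _ => 0 := by ext z; simp [ν]
    simp [Hh, this, P_zero]
  · ext z; simp
  · ext z; simp

/-- **C3-BEL** -/
theorem bel : Bel := by
  intro R f hf
  exact bel_pos (R := max R 1) (by positivity) (Adm.mono hf (le_max_left _ _))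

end

end Crest.Agent.R096.BelF_205
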