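/-
R096 / P5-EDGE (helper276), part 1: elementary lemmas.
* piecewise Lipschitz => Lipschitz (finite closed convex covers)
* the cross product on ℂ and determinants of real linear maps ℂ → ℂ, ℂ × ℝ → ℂ × ℝ
-/
import Mathlib

open Set Metric Filter Topology
open scoped ComplexConjugate

namespace Crest.Agent.R096.Ed_276

/-- propagation along an interval. -/
lemma real_prop {F : Type*} [NormedAddCommGroup F] {g : ℝ → F} {a b C : ℝ} (hab : a ≤ b)
    (hg : ContinuousOn g (Icc a b))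
    (h : ∀ t ∈ Ico a b, ∀ y > t, ∃ t' ∈ Ioc t y, t' ≤ b → ‖g t' - g t‖ ≤ C * (t' - t)) :
    ‖g b - g a‖ ≤ C * (b - a) := by
  set s : Set ℝ := {t | ‖g t - g a‖ ≤ C * (t - a)} with hs
  have hcl : IsClosed (s ∩ Icc a b) := by
    have : s ∩ Icc a b = {t ∈ Icc a b | ‖g t - g a‖ ≤ C * (t - a)} := by
      ext t; simp [hs, and_comm]
    rw [this]
    exact isClosed_Icc.isClosed_le ((hg.sub continuousOn_const).norm) (by fun_prop)
  have hsub : Icc a b ⊆ s := by
    refine hcl.Icc_subset_of_forall_exists_gt (by simp [hs]) ?_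
    rintro x ⟨hx, hxI⟩ y hy
    have hxb : x < min y b := lt_min hy hxI.2
    obtain ⟨t', ht', h'⟩ := h x hxI (min y b) hxb
    refine ⟨t', ?_, ht'.1, ht'.2.trans (min_le_left _ _)⟩
    have h1 := h' (ht'.2.trans (min_le_right _ _))
    have h2 : ‖g x - g a‖ ≤ C * (x - a) := hx
    show ‖g t' - g a‖ ≤ C * (t' - a)
    calc ‖g t' - g a‖ = ‖(g t' - g x) + (g x - g a)‖ := by congr 1; abel
      _ ≤ ‖g t' - g x‖ + ‖g x - g a‖ := norm_add_le _ _
      _ ≤ C * (t' - x) + C * (x - a) := add_le_add h1 h2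
      _ = C * (t' - a) := by ring
  exact hsub ⟨hab, le_rfl⟩

/-- A continuous map which is locally `M`-Lipschitz on each member of a finite closed cover is
`M`-Lipschitz (no convexity of the pieces). -/
lemma lip_cover {E F ι : Type*} [NormedAddCommGroup E] [NormedSpace ℝ E] [NormedAddCommGroup F]
    [Finite ι] {C : ι → Set E} (hcl : ∀ i, IsClosed (C i))
    (hcov : ∀ x, ∃ i, x ∈ C i) {f : E → F} {M : ℝ}
    (hf : ∀ i, ∀ x ∈ C i, ∀ᶠ y in 𝓝 x, y ∈ C i → ‖f y - f x‖ ≤ M * ‖y - x‖) (hc : Continuous f)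
    (x y : E) : ‖f x - f y‖ ≤ M * ‖x - y‖ := by
  set p : ℝ → E := fun t => y + t • (x - y) with hp
  have hpc : Continuous p := by fun_prop
  have key : ‖(f ∘ p) 1 - (f ∘ p) 0‖ ≤ (M * ‖x - y‖) * (1 - 0) := by
    refine real_prop (g := f ∘ p) zero_le_one (hc.comp hpc).continuousOn ?_
    intro t _ht u hu
    -- some `i` contains `p t'` for `t'` arbitrarily close to `t` from the right
    have hfr2 : ∃ i, ∃ᶠ t' in 𝓝[>] t, p t' ∈ C i := by
      by_contra hcon
      have : ∀ᶠ t' in 𝓝[>] t, ∀ i, p t' ∉ C i := by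
        rw [eventually_all]
        intro i
        exact not_frequently.mp (fun h => hcon ⟨i, h⟩)
      obtain ⟨t', ht'⟩ := this.exists
      obtain ⟨i, hi⟩ := hcov (p t')
      exact ht' i hi
    obtain ⟨i, hi⟩ := hfr2
    have hti : p t ∈ C i := by
      have h1 : ∃ᶠ t' in 𝓝 t, p t' ∈ C i := hi.filter_mono nhdsWithin_le_nhds
      have h2 : t ∈ closure (p ⁻¹' (C i)) := mem_closure_iff_frequently.mpr h1
      rw [((hcl i).preimage hpc).closure_eq] at h2
      exact h2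
    have h5 : ∀ᶠ t' in 𝓝[>] t, p t' ∈ C i → ‖f (p t') - f (p t)‖ ≤ M * ‖p t' - p t‖ :=
      (hpc.continuousAt.mono_left nhdsWithin_le_nhds).eventually (hf i (p t) hti)
    have h7 : ∀ᶠ t' in 𝓝[>] t, t' ∈ Ioc t u := Ioc_mem_nhdsGT hu
    obtain ⟨t', ht', hit', h6⟩ := (hi.and_eventually (h7.and h5)).exists
    refine ⟨t', hit', fun _ => ?_⟩
    have h3 := h6 ht'
    have h4 : p t' - p t = (t' - t) • (x - y) := by simp only [hp]; module
    rw [h4, norm_smul, Real.norm_eq_abs, abs_of_pos (sub_pos.mpr hit'.1)] at h3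
    calc ‖(f ∘ p) t' - (f ∘ p) t‖ ≤ M * ((t' - t) * ‖x - y‖) := h3
      _ = M * ‖x - y‖ * (t' - t) := by ring
  simpa [hp] using key

/-- cross product on `ℂ`. -/
def cr (u v : ℂ) : ℝ := u.re * v.im - u.im * v.re

lemma cr_mul (g u v : ℂ) : cr (g * u) (g * v) = ‖g‖ ^ 2 * cr u v := by
  simp only [cr, Complex.mul_re, Complex.mul_im, ← Complex.normSq_eq_norm_sq, Complex.normSq_apply]
  ring

lemma cr_add_right (u v w : ℂ) : cr u (v + w) = cr u v + cr u w := by
  simp only [cr, Complex.add_re, Complex.add_im]; ring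

lemma cr_add_left (u v w : ℂ) : cr (u + v) w = cr u w + cr v w := by
  simp only [cr, Complex.add_re, Complex.add_im]; ring

lemma cr_sub_left (u v w : ℂ) : cr (u - v) w = cr u w - cr v w := by
  simp only [cr, Complex.sub_re, Complex.sub_im]; ring

lemma cr_smul_right (r : ℝ) (u v : ℂ) : cr u (r • v) = r * cr u v := by
  simp only [cr, Complex.real_smul, Complex.mul_re, Complex.mul_im, Complex.ofReal_re,
    Complex.ofReal_im]; ring

lemma abs_cr_le (u v : ℂ) : |cr u v| ≤ ‖u‖ * ‖v‖ := by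
  have h : cr u v = (conj u * v).im := by
    simp only [cr, Complex.mul_im, Complex.conj_re, Complex.conj_im]; ring
  rw [h]
  calc |(conj u * v).im| ≤ ‖conj u * v‖ := Complex.abs_im_le_norm _
    _ = ‖u‖ * ‖v‖ := by rw [norm_mul, Complex.norm_conj]

/-- determinant of a real linear map of `ℂ`. -/
lemma det_eq (B : ℂ →L[ℝ] ℂ) : B.det = cr (B 1) (B Complex.I) := by
  rw [ContinuousLinearMap.det, ← LinearMap.det_toMatrix Complex.basisOneI, Matrix.det_fin_two]
  simp only [LinearMap.toMatrix_apply, Complex.coe_basisOneI_repr, Complex.coe_basisOneI,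
    Matrix.cons_val_zero, Matrix.cons_val_one, cr]
  simp
  ring

lemma lin_eq (B : ℂ →L[ℝ] ℂ) (z : ℂ) : B z = z.re • B 1 + z.im • B Complex.I := by
  have : z = z.re • (1:ℂ) + z.im • Complex.I := by
    apply Complex.ext <;> simp
  conv_lhs => rw [this]
  rw [map_add, map_smul, map_smul]

/-- `det B |z|^2 = cr (B z) (B (i z))`. -/
lemma cr_apply (B : ℂ →L[ℝ] ℂ) (z : ℂ) :
    cr (B z) (B (Complex.I * z)) = B.det * ‖z‖ ^ 2 := by
  rw [det_eq, lin_eq B z, lin_eq B (Complex.I * z), ← Complex.normSq_eq_norm_sq,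
    Complex.normSq_apply]
  simp only [cr, Complex.add_re, Complex.add_im, Complex.real_smul, Complex.mul_re, Complex.mul_im,
    Complex.ofReal_re, Complex.ofReal_im, Complex.I_re, Complex.I_im]
  ring

lemma det_mul_norm_le (B : ℂ →L[ℝ] ℂ) (z : ℂ) : B.det * ‖z‖ ≤ ‖B‖ * ‖B z‖ := by
  rcases eq_or_ne z 0 with rfl | hz
  · simp
  have hz' : 0 < ‖z‖ := norm_pos_iff.mpr hz
  have h1 := cr_apply B z
  have h2 : cr (B z) (B (Complex.I * z)) ≤ ‖B z‖ * ‖B (Complex.I * z)‖ :=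
    (le_abs_self _).trans (abs_cr_le _ _)
  have h3 : ‖B (Complex.I * z)‖ ≤ ‖B‖ * ‖z‖ := by
    refine (B.le_opNorm _).trans ?_
    simp
  have h4 : B.det * ‖z‖ ^ 2 ≤ ‖B z‖ * (‖B‖ * ‖z‖) := by
    rw [← h1]; exact h2.trans (mul_le_mul_of_nonneg_left h3 (norm_nonneg _))
  have h5 : (B.det * ‖z‖) * ‖z‖ ≤ (‖B‖ * ‖B z‖) * ‖z‖ := by nlinarith
  exact le_of_mul_le_mul_right h5 hz'

/-- `B (i z)/ B z` has imaginary part `det B |z|^2 / |B z|^2`. -/
lemma im_div (B : ℂ →L[ℝ] ℂ) (z : ℂ) :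
    (B (Complex.I * z) / B z).im = B.det * ‖z‖ ^ 2 / ‖B z‖ ^ 2 := by
  rw [← cr_apply, Complex.div_im, ← Complex.normSq_eq_norm_sq, cr]
  ring

abbrev M := ℂ × ℝ

/-- block triangular map `(v, r) ↦ (D v, r + l v)`. -/
noncomputable def tri (D : ℂ →L[ℝ] ℂ) (l : ℂ →L[ℝ] ℝ) : M →L[ℝ] M :=
  (D.comp (ContinuousLinearMap.fst ℝ ℂ ℝ)).prod
    (ContinuousLinearMap.snd ℝ ℂ ℝ + l.comp (ContinuousLinearMap.fst ℝ ℂ ℝ))

@[simp] lemma tri_apply (D : ℂ →L[ℝ] ℂ) (l : ℂ →L[ℝ] ℝ) (x : M) :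
    tri D l x = (D x.1, x.2 + l x.1) := rfl

/-- determinant of an endomorphism of `ℂ × ℝ` fixing the last basis vector. -/
lemma det_M (N : M →L[ℝ] M) (hN : N (0, 1) = (0, 1)) :
    N.det = cr (N (1, 0)).1 (N (Complex.I, 0)).1 := by
  set b := Complex.basisOneI.prod (Module.Basis.singleton Unit ℝ) with hb
  rw [ContinuousLinearMap.det, ← LinearMap.det_toMatrix b]
  have h : LinearMap.toMatrix b b (N : M →ₗ[ℝ] M) =
      Matrix.fromBlocks
        (Matrix.of fun i j => (![(N (![(1:ℂ), Complex.I] j, 0)).1.re,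
          (N (![(1:ℂ), Complex.I] j, 0)).1.im] : Fin 2 → ℝ) i)
        0 (Matrix.of fun _ j => (N (![(1:ℂ), Complex.I] j, 0)).2) 1 := by
    ext i j
    rcases i with i | i <;> rcases j with j | j
    · simp [LinearMap.toMatrix_apply, hb, Module.Basis.prod_apply]
    · simp [LinearMap.toMatrix_apply, hb, Module.Basis.prod_apply, hN]
    · simp [LinearMap.toMatrix_apply, hb, Module.Basis.prod_apply]
    · simp [LinearMap.toMatrix_apply, hb, Module.Basis.prod_apply, hN]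
  rw [h, Matrix.det_fromBlocks_zero₁₂, Matrix.det_one, mul_one, Matrix.det_fin_two]
  simp only [cr, Matrix.of_apply, Matrix.cons_val_zero, Matrix.cons_val_one]
  ring

end Crest.Agent.R096.Ed_276
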