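/-
R096 / P5-EDGE (helper276), part 2: planar conic selections `G`, the logarithm `L` of `G z / z`.
-/
import Crest.Agent.R096.Ed1_276

open Set Metric Filter Topology
open scoped ComplexConjugate

namespace Crest.Agent.R096.Ed_276

/-- conic continuous injective selection of finitely many real linear maps with positive
determinant of the plane, `= id` near `1`. -/
structure Pl {ι : Type*} (B : ι → ℂ →L[ℝ] ℂ) (G : ℂ → ℂ) : Prop where
  cont : Continuous G
  inj : Function.Injective G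
  hom : ∀ t : ℝ, 0 ≤ t → ∀ z, G (t * z) = t * G z
  sel : ∀ z, ∃ i, G z = B i z
  det : ∀ i, 0 < (B i).det
  idn : ∀ᶠ z in 𝓝 (1:ℂ), G z = z

variable {ι : Type*} {B : ι → ℂ →L[ℝ] ℂ} {G : ℂ → ℂ}

namespace Pl

lemma zero (h : Pl B G) : G 0 = 0 := by
  have := h.hom 0 le_rfl 0
  simpa using this

lemma ray (h : Pl B G) {r : ℝ} (hr : 0 ≤ r) : G r = r := by
  have h1 : G 1 = 1 := h.idn.self_of_nhds
  have := h.hom r hr 1
  simpa [h1] using this

lemma ne (h : Pl B G) {z : ℂ} (hz : z ≠ 0) : G z ≠ 0 := fun h0 =>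
  hz (h.inj (h0.trans h.zero.symm))

lemma not_slit {z : ℂ} (hz : -z ∉ Complex.slitPlane) : z = (z.re : ℂ) ∧ 0 ≤ z.re := by
  rw [Complex.mem_slitPlane_iff] at hz
  push Not at hz
  obtain ⟨h1, h2⟩ := hz
  simp only [Complex.neg_re, Complex.neg_im, neg_eq_zero] at h1 h2
  exact ⟨Complex.ext (by simp) (by simp [h2]), by linarith⟩

lemma slit (h : Pl B G) {z : ℂ} (hz : -z ∈ Complex.slitPlane) : -G z ∈ Complex.slitPlane := by
  by_contra hcon
  obtain ⟨h1, h2⟩ := not_slit hcon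
  have h3 : G z = G ((G z).re : ℂ) := by rw [h.ray h2]; exact h1
  have h4 := h.inj h3
  rw [h4, Complex.mem_slitPlane_iff] at hz
  simp only [Complex.neg_re, Complex.ofReal_re, Complex.neg_im, Complex.ofReal_im, neg_zero,
    ne_eq, not_true_eq_false, or_false] at hz
  linarith

lemma near_slit (h : Pl B G) {z : ℂ} (hz0 : z ≠ 0) (hz : -z ∉ Complex.slitPlane) :
    ∀ᶠ w in 𝓝 z, G w = w := by
  obtain ⟨h1, h2⟩ := not_slit hz
  have hr : 0 < z.re := lt_of_le_of_ne h2 (fun h0 => hz0 (by rw [h1, ← h0]; simp))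
  have ht : Tendsto (fun w : ℂ => w / (z.re : ℂ)) (𝓝 z) (𝓝 1) := by
    have : (1:ℂ) = z / (z.re : ℂ) := by
      rw [← h1, div_self hz0]
    rw [this]
    exact (continuous_id.div_const _).tendsto _
  filter_upwards [ht.eventually h.idn] with w hw
  have hr' : (z.re : ℂ) ≠ 0 := by exact_mod_cast hr.ne'
  have h3 : w = (z.re : ℂ) * (w / (z.re : ℂ)) := by
    rw [mul_div_cancel₀ _ hr']
  rw [h3, h.hom _ hr.le, hw]

end Pl

/-- logarithm of `G z / z`. -/
noncomputable def Lg (G : ℂ → ℂ) (z : ℂ) : ℂ :=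
  open Classical in
  if -z ∈ Complex.slitPlane then Complex.log (-G z) - Complex.log (-z) else 0

lemma Lg_of_slit {z : ℂ} (hz : -z ∈ Complex.slitPlane) :
    Lg G z = Complex.log (-G z) - Complex.log (-z) := by
  simp [Lg, hz]

lemma Lg_of_not {z : ℂ} (hz : -z ∉ Complex.slitPlane) : Lg G z = 0 := by
  simp [Lg, hz]

lemma Lg_of_eq {z : ℂ} (hz : G z = z) : Lg G z = 0 := by
  by_cases h : -z ∈ Complex.slitPlane
  · rw [Lg_of_slit h, hz, sub_self]
  · exact Lg_of_not h

lemma eventually_slit {z : ℂ} (hz : -z ∈ Complex.slitPlane) :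
    ∀ᶠ w in 𝓝 z, -w ∈ Complex.slitPlane :=
  (continuous_neg.tendsto z).eventually (Complex.isOpen_slitPlane.mem_nhds hz)

namespace Pl

lemma near_slit_Lg (h : Pl B G) {z : ℂ} (hz0 : z ≠ 0) (hz : -z ∉ Complex.slitPlane) :
    ∀ᶠ w in 𝓝 z, Lg G w = 0 := by
  filter_upwards [h.near_slit hz0 hz] with w hw
  exact Lg_of_eq hw

lemma continuousAt_Lg (h : Pl B G) {z : ℂ} (hz0 : z ≠ 0) : ContinuousAt (Lg G) z := by
  by_cases hz : -z ∈ Complex.slitPlane
  · have h1 : ContinuousAt (fun w => Complex.log (-G w) - Complex.log (-w)) z := by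
      refine ContinuousAt.sub ?_ ?_
      · exact ContinuousAt.clog (h.cont.neg.continuousAt) (h.slit hz)
      · exact ContinuousAt.clog (continuous_neg.continuousAt) hz
    refine h1.congr ?_
    filter_upwards [eventually_slit hz] with w hw
    exact (Lg_of_slit hw).symm
  · refine (continuousAt_const (y := (0:ℂ))).congr ?_
    filter_upwards [h.near_slit_Lg hz0 hz] with w hw
    exact hw.symm

lemma exp_Lg (h : Pl B G) {z : ℂ} (hz0 : z ≠ 0) : z * Complex.exp (Lg G z) = G z := by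
  by_cases hz : -z ∈ Complex.slitPlane
  · rw [Lg_of_slit hz, Complex.exp_sub, Complex.exp_log (neg_ne_zero.mpr (h.ne hz0)),
      Complex.exp_log (neg_ne_zero.mpr hz0)]
    field_simp
  · have := (h.near_slit hz0 hz).self_of_nhds
    rw [Lg_of_not hz, this]; simp

/-- real part of the logarithm. -/
lemma re_Lg (h : Pl B G) {z : ℂ} (hz0 : z ≠ 0) : (Lg G z).re = Real.log (‖G z‖ / ‖z‖) := by
  have h1 := h.exp_Lg hz0
  have h2 : ‖z‖ * Real.exp (Lg G z).re = ‖G z‖ := by
    rw [← h1, norm_mul, Complex.norm_exp]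
  have hz : ‖z‖ ≠ 0 := norm_ne_zero_iff.mpr hz0
  rw [← h2, mul_div_cancel_left₀ _ hz, Real.log_exp]

lemma abs_im_Lg (z : ℂ) : |(Lg G z).im| ≤ 2 * Real.pi := by
  by_cases hz : -z ∈ Complex.slitPlane
  · rw [Lg_of_slit hz, Complex.sub_im, Complex.log_im, Complex.log_im]
    have h1 := Complex.abs_arg_le_pi (-G z)
    have h2 := Complex.abs_arg_le_pi (-z)
    calc |Complex.arg (-G z) - Complex.arg (-z)| ≤ |Complex.arg (-G z)| + |Complex.arg (-z)| :=
          abs_sub _ _
      _ ≤ 2 * Real.pi := by linarith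
  · rw [Lg_of_not hz]; simp [Real.pi_nonneg]

end Pl

/-- homogeneity of the logarithm. -/
lemma Pl.Lg_hom (h : Pl B G) {t : ℝ} (ht : 0 < t) (z : ℂ) : Lg G (t * z) = Lg G z := by
  have ht' : (t : ℂ) ≠ 0 := by exact_mod_cast ht.ne'
  by_cases hz : -z ∈ Complex.slitPlane
  · have hz2 : -(t * z) ∈ Complex.slitPlane := by
      rw [Complex.mem_slitPlane_iff] at hz ⊢
      rcases hz with hz | hz
      · left; simp at hz ⊢; nlinarith
      · right; simp at hz ⊢; exact ⟨ht.ne', hz⟩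
    have hne : -z ≠ 0 := Complex.slitPlane_ne_zero hz
    have hne2 : -G z ≠ 0 := Complex.slitPlane_ne_zero (h.slit hz)
    rw [Lg_of_slit hz, Lg_of_slit hz2, h.hom t ht.le, ← mul_neg, ← mul_neg,
      Complex.log_ofReal_mul ht hne, Complex.log_ofReal_mul ht hne2]
    ring
  · have hz2 : -(t * z) ∉ Complex.slitPlane := by
      intro hcon
      apply hz
      rw [Complex.mem_slitPlane_iff] at hcon ⊢
      rcases hcon with hcon | hcon
      · left; simp at hcon ⊢
        nlinarith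
      · right; simp at hcon ⊢; exact hcon.2
    rw [Lg_of_not hz, Lg_of_not hz2]

/-- derivative of the logarithm where `G` is linear. -/
noncomputable def dL (B : ℂ →L[ℝ] ℂ) (z : ℂ) : ℂ →L[ℝ] ℂ :=
  (B z)⁻¹ • B - z⁻¹ • ContinuousLinearMap.id ℝ ℂ

lemma dL_apply (B : ℂ →L[ℝ] ℂ) (z v : ℂ) : dL B z v = B v / B z - v / z := by
  simp only [dL, sub_apply, smul_apply, smul_eq_mul,
    ContinuousLinearMap.id_apply]
  ring

lemma hasFDerivAt_log_lin (B : ℂ →L[ℝ] ℂ) {z : ℂ} (hz : -z ∈ Complex.slitPlane)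
    (hB : -(B z) ∈ Complex.slitPlane) :
    HasFDerivAt (fun w => Complex.log (-(B w)) - Complex.log (-w)) (dL B z) z := by
  have h1 : HasFDerivAt (fun w => -(B w)) (-B) z := B.hasFDerivAt.neg
  have h2 : HasFDerivAt (fun w : ℂ => -w) (-ContinuousLinearMap.id ℝ ℂ) z :=
    (hasFDerivAt_id z).neg
  have h3 : HasFDerivAt Complex.log
      ((ContinuousLinearMap.toSpanSingleton ℂ ((-(B z))⁻¹)).restrictScalars ℝ) (-(B z)) :=
    (Complex.hasDerivAt_log hB).hasFDerivAt.restrictScalars ℝ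
  have h4 : HasFDerivAt Complex.log
      ((ContinuousLinearMap.toSpanSingleton ℂ ((-z)⁻¹)).restrictScalars ℝ) (-z) :=
    (Complex.hasDerivAt_log hz).hasFDerivAt.restrictScalars ℝ
  have h5 := (h3.comp z h1).sub (h4.comp z h2)
  refine h5.congr_fderiv ?_
  ext v
  simp only [dL_apply, sub_apply, ContinuousLinearMap.comp_apply,
    neg_apply, ContinuousLinearMap.coe_restrictScalars',
    ContinuousLinearMap.toSpanSingleton_apply, ContinuousLinearMap.id_apply, smul_eq_mul, inv_neg]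
  ring

end Crest.Agent.R096.Ed_276
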