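/-
R096 / P5-EDGE (helper276), part 3: logarithmic cut-offs and the planar map `Gt`.
-/
import Crest.Agent.R096.Ed2_276

open Set Metric Filter Topology
open scoped ComplexConjugate

namespace Crest.Agent.R096.Ed_276

/-- `v ↦ Re (v / z)`. -/
noncomputable def dlz (z : ℂ) : ℂ →L[ℝ] ℝ := Complex.reCLM.comp (z⁻¹ • ContinuousLinearMap.id ℝ ℂ)

lemma dlz_apply (z v : ℂ) : dlz z v = (v / z).re := by
  simp only [dlz, ContinuousLinearMap.comp_apply, smul_apply, ContinuousLinearMap.id_apply,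
    smul_eq_mul, Complex.reCLM_apply]
  rw [mul_comm, div_eq_mul_inv]

lemma dlz_norm_le (z v : ℂ) : |dlz z v| ≤ ‖v‖ / ‖z‖ := by
  rw [dlz_apply, ← norm_div]
  exact Complex.abs_re_le_norm _

lemma hasFDerivAt_lz {z : ℂ} (hz : z ≠ 0) :
    HasFDerivAt (fun w : ℂ => Real.log ‖w‖) (dlz z) z := by
  have key : ∀ u : ℂ, u ∈ Complex.slitPlane →
      HasFDerivAt (fun w : ℂ => (Complex.log w).re) (dlz u) u := by
    intro u hu
    have h3 : HasFDerivAt Complex.log
        ((ContinuousLinearMap.toSpanSingleton ℂ (u⁻¹)).restrictScalars ℝ) u :=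
      (Complex.hasDerivAt_log hu).hasFDerivAt.restrictScalars ℝ
    have h4 := Complex.reCLM.hasFDerivAt.comp u h3
    refine h4.congr_fderiv ?_
    ext v
    simp only [dlz_apply, ContinuousLinearMap.comp_apply, ContinuousLinearMap.coe_restrictScalars',
      ContinuousLinearMap.toSpanSingleton_apply, smul_eq_mul, Complex.reCLM_apply]
    rw [div_eq_mul_inv]
  have hre : ∀ w : ℂ, Real.log ‖w‖ = (Complex.log w).re := fun w => (Complex.log_re w).symm
  by_cases h : z ∈ Complex.slitPlane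
  · simp_rw [hre]
    exact key z h
  · have h' : -z ∈ Complex.slitPlane := by
      rw [Complex.mem_slitPlane_iff] at h ⊢
      push Not at h
      left
      have h2 : z.re ≠ 0 := fun h0 => hz (Complex.ext h0 h.2)
      have := lt_of_le_of_ne h.1 h2
      simpa using this
    have hre' : ∀ w : ℂ, Real.log ‖w‖ = (Complex.log (-w)).re := fun w => by
      rw [Complex.log_re, norm_neg]
    simp_rw [hre']
    have h5 := (key (-z) h').comp z ((hasFDerivAt_id (𝕜 := ℝ) z).neg)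
    refine h5.congr_fderiv ?_
    ext v
    simp only [dlz_apply, ContinuousLinearMap.comp_apply, neg_apply, ContinuousLinearMap.id_apply]
    rw [neg_div_neg_eq]

/-- derivative of the smooth transition. -/
noncomputable def dst (x : ℝ) : ℝ := deriv Real.smoothTransition x

lemma hasDerivAt_st (x : ℝ) : HasDerivAt Real.smoothTransition (dst x) x :=
  ((Real.smoothTransition.contDiff (n := 1)).differentiable (by simp)).differentiableAt.hasDerivAt

lemma dst_of_neg {x : ℝ} (hx : x < 0) : dst x = 0 := by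
  have : Real.smoothTransition =ᶠ[𝓝 x] fun _ => (0:ℝ) := by
    filter_upwards [Iio_mem_nhds hx] with y hy
    exact Real.smoothTransition.zero_of_nonpos (le_of_lt hy)
  rw [dst, this.deriv_eq, deriv_const]

lemma dst_of_one_lt {x : ℝ} (hx : 1 < x) : dst x = 0 := by
  have : Real.smoothTransition =ᶠ[𝓝 x] fun _ => (1:ℝ) := by
    filter_upwards [Ioi_mem_nhds hx] with y hy
    exact Real.smoothTransition.one_of_one_le (le_of_lt hy)
  rw [dst, this.deriv_eq, deriv_const]

lemma continuous_dst : Continuous dst := by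
  have := (Real.smoothTransition.contDiff (n := 1)).continuous_deriv le_rfl
  exact this

lemma exists_dst_bound : ∃ D : ℝ, 0 < D ∧ ∀ x, |dst x| ≤ D := by
  obtain ⟨D, hD⟩ := (isCompact_Icc (a := (0:ℝ)) (b := 1)).exists_bound_of_continuousOn
    continuous_dst.continuousOn
  refine ⟨max D 1, lt_max_of_lt_right one_pos, fun x => ?_⟩
  rcases lt_or_ge x 0 with h | h
  · rw [dst_of_neg h, abs_zero]; positivity
  rcases lt_or_ge 1 x with h1 | h1
  · rw [dst_of_one_lt h1, abs_zero]; positivity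
  · exact (hD x ⟨h, h1⟩).trans (le_max_left _ _)

/-- the smooth transition is Lipschitz. -/
lemma st_lip {D : ℝ} (hD : ∀ x, |dst x| ≤ D) (x y : ℝ) :
    |Real.smoothTransition x - Real.smoothTransition y| ≤ D * |x - y| := by
  have := Convex.norm_image_sub_le_of_norm_hasDerivWithin_le (f := Real.smoothTransition)
    (f' := dst) (s := univ) (C := D) (x := y) (y := x)
    (fun u _ => (hasDerivAt_st u).hasDerivWithinAt) (fun u _ => hD u) convex_univ
    (mem_univ _) (mem_univ _)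
  simpa using this

/-- logarithmic cut-off: `0` for `log |z| ≤ c`, `1` for `k (log |z| - c) ≥ 1`. -/
noncomputable def cut (k c : ℝ) (z : ℂ) : ℝ := Real.smoothTransition (k * (Real.log ‖z‖ - c))

lemma cut_zero {k c : ℝ} (hk : 0 ≤ k) {z : ℂ} (h : Real.log ‖z‖ ≤ c) : cut k c z = 0 :=
  Real.smoothTransition.zero_of_nonpos (mul_nonpos_of_nonneg_of_nonpos hk (by linarith))

lemma cut_one {k c : ℝ} {z : ℂ} (h : 1 ≤ k * (Real.log ‖z‖ - c)) : cut k c z = 1 :=
  Real.smoothTransition.one_of_one_le h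

lemma cut_nonneg (k c : ℝ) (z : ℂ) : 0 ≤ cut k c z := Real.smoothTransition.nonneg _

lemma cut_le_one (k c : ℝ) (z : ℂ) : cut k c z ≤ 1 := Real.smoothTransition.le_one _

lemma abs_cut_le_one (k c : ℝ) (z : ℂ) : |cut k c z| ≤ 1 := by
  rw [abs_of_nonneg (cut_nonneg _ _ _)]; exact cut_le_one _ _ _

/-- radial derivative of the cut-off. -/
noncomputable def dcut (k c : ℝ) (z : ℂ) : ℝ := dst (k * (Real.log ‖z‖ - c)) * k

lemma hasFDerivAt_cut (k c : ℝ) {z : ℂ} (hz : z ≠ 0) :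
    HasFDerivAt (cut k c) (dcut k c z • dlz z) z := by
  have h1 : HasFDerivAt (fun w : ℂ => k * (Real.log ‖w‖ - c)) (k • dlz z) z :=
    ((hasFDerivAt_lz hz).sub_const c).const_mul k
  have h2 := (hasDerivAt_st (k * (Real.log ‖z‖ - c))).comp_hasFDerivAt z h1
  refine h2.congr_fderiv ?_
  rw [smul_smul, dcut]

lemma continuousAt_cut (k c : ℝ) {z : ℂ} (hz : z ≠ 0) : ContinuousAt (cut k c) z :=
  (hasFDerivAt_cut k c hz).continuousAt

lemma continuousAt_dcut (k c : ℝ) {z : ℂ} (hz : z ≠ 0) : ContinuousAt (dcut k c) z := by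
  have h1 : ContinuousAt (fun w : ℂ => k * (Real.log ‖w‖ - c)) z :=
    (((hasFDerivAt_lz hz).continuousAt).sub continuousAt_const).const_mul k
  exact (continuous_dst.continuousAt.comp h1).mul continuousAt_const

/-- exponent and planar map associated with a logarithm `L`. -/
noncomputable def Ex (ε : ℝ) (L : ℂ → ℂ) (z : ℂ) : ℂ :=
  ((cut ε (-1 - 1/ε) z * (L z).re : ℝ) : ℂ) + ((cut 1 (-2 - 1/ε) z * (L z).im : ℝ) : ℂ) * Complex.I

noncomputable def Gt (ε : ℝ) (L : ℂ → ℂ) (z : ℂ) : ℂ := z * Complex.exp (Ex ε L z)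

/-- derivative of the exponent. -/
noncomputable def dEx (ε : ℝ) (l : ℂ) (z : ℂ) (D : ℂ →L[ℝ] ℂ) : ℂ →L[ℝ] ℂ :=
  Complex.ofRealCLM.comp (cut ε (-1 - 1/ε) z • Complex.reCLM.comp D
      + l.re • (dcut ε (-1 - 1/ε) z • dlz z)) +
    Complex.I • Complex.ofRealCLM.comp (cut 1 (-2 - 1/ε) z • Complex.imCLM.comp D
      + l.im • (dcut 1 (-2 - 1/ε) z • dlz z))

noncomputable def dGt (ε : ℝ) (L : ℂ → ℂ) (z : ℂ) (D : ℂ →L[ℝ] ℂ) : ℂ →L[ℝ] ℂ :=
  Complex.exp (Ex ε L z) • (ContinuousLinearMap.id ℝ ℂ + z • dEx ε (L z) z D)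

lemma hasFDerivAt_Ex (ε : ℝ) {L : ℂ → ℂ} {z : ℂ} {D : ℂ →L[ℝ] ℂ} (hz : z ≠ 0)
    (hL : HasFDerivAt L D z) : HasFDerivAt (Ex ε L) (dEx ε (L z) z D) z := by
  have h1 : HasFDerivAt (fun w => (L w).re) (Complex.reCLM.comp D) z :=
    Complex.reCLM.hasFDerivAt.comp z hL
  have h2 : HasFDerivAt (fun w => (L w).im) (Complex.imCLM.comp D) z :=
    Complex.imCLM.hasFDerivAt.comp z hL
  have h3 := Complex.ofRealCLM.hasFDerivAt.comp z
    ((hasFDerivAt_cut ε (-1 - 1/ε) hz).mul h1)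
  have h4 := Complex.ofRealCLM.hasFDerivAt.comp z
    ((hasFDerivAt_cut 1 (-2 - 1/ε) hz).mul h2)
  have h5 := h3.add (h4.mul_const Complex.I)
  refine h5.congr_fderiv ?_
  ext v
  simp [dEx]

lemma hasFDerivAt_Gt (ε : ℝ) {L : ℂ → ℂ} {z : ℂ} {D : ℂ →L[ℝ] ℂ} (hz : z ≠ 0)
    (hL : HasFDerivAt L D z) : HasFDerivAt (Gt ε L) (dGt ε L z D) z := by
  have h1 := (hasFDerivAt_Ex ε hz hL).cexp
  have h2 := (hasFDerivAt_id (𝕜 := ℝ) z).mul h1
  refine h2.congr_fderiv ?_
  ext v
  simp [dGt]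
  ring

end Crest.Agent.R096.Ed_276
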