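/-
R096 / P5-EDGE (helper276), part 4: the planar map: values, derivative, cross product, bounds.
-/
import Crest.Agent.R096.Ed3_276

open Set Metric Filter Topology
open scoped ComplexConjugate

namespace Crest.Agent.R096.Ed_276

/-- constants of the planar data. -/
structure Par {ι : Type*} (B : ι → ℂ →L[ℝ] ℂ) (G : ℂ → ℂ) (Cb mb dm Λ ε : ℝ) : Prop where
  Cb0 : 0 < Cb
  hC : ∀ i z, ‖B i z‖ ≤ Cb * ‖z‖
  m0 : 0 < mb
  hm : ∀ i z, mb * ‖z‖ ≤ ‖B i z‖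
  d0 : 0 < dm
  hd : ∀ i, dm ≤ (B i).det
  L0 : 0 < Λ
  hΛ : ∀ z, ‖Lg G z‖ ≤ Λ
  ε0 : 0 < ε
  hε : ∀ x, |dst x| * ε * Λ ≤ 1 / 2

variable {ι : Type*} {B : ι → ℂ →L[ℝ] ℂ} {G : ℂ → ℂ}

lemma exists_par [Finite ι] (h : Pl B G) : ∃ Cb mb dm Λ ε : ℝ, Par B G Cb mb dm Λ ε := by
  cases nonempty_fintype ι
  obtain ⟨i0, _⟩ := h.sel 0
  have : Nonempty ι := ⟨i0⟩
  -- upper bound
  obtain ⟨C0, hC0⟩ : ∃ C, ∀ i, ‖B i‖ ≤ C := by
    obtain ⟨C, hC⟩ := (Set.finite_range fun i => ‖B i‖).bddAbove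
    exact ⟨C, fun i => hC ⟨i, rfl⟩⟩
  set Cb : ℝ := max C0 1 with hCb
  have hCb0 : 0 < Cb := lt_max_of_lt_right one_pos
  have hC : ∀ i z, ‖B i z‖ ≤ Cb * ‖z‖ := fun i z =>
    ((B i).le_opNorm z).trans (mul_le_mul_of_nonneg_right ((hC0 i).trans (le_max_left _ _))
      (norm_nonneg _))
  -- determinant
  obtain ⟨i1, hi1⟩ := Finite.exists_min fun i => (B i).det
  set dm := (B i1).det with hdm
  have hd0 : 0 < dm := h.det i1
  have hm : ∀ i z, dm / Cb * ‖z‖ ≤ ‖B i z‖ := by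
    intro i z
    have h1 := det_mul_norm_le (B i) z
    have h2 : dm * ‖z‖ ≤ (B i).det * ‖z‖ := mul_le_mul_of_nonneg_right (hi1 i) (norm_nonneg _)
    have h3 : ‖B i‖ * ‖B i z‖ ≤ Cb * ‖B i z‖ :=
      mul_le_mul_of_nonneg_right ((hC0 i).trans (le_max_left _ _)) (norm_nonneg _)
    rw [div_mul_eq_mul_div, div_le_iff₀ hCb0]
    linarith
  have hm0 : 0 < dm / Cb := div_pos hd0 hCb0
  -- bound of the logarithm
  obtain ⟨Λ, hΛ0, hΛ⟩ : ∃ Λ : ℝ, 0 < Λ ∧ ∀ z, ‖Lg G z‖ ≤ Λ := by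
    refine ⟨|Real.log Cb| + |Real.log (dm / Cb)| + 2 * Real.pi, by positivity, fun z => ?_⟩
    rcases eq_or_ne z 0 with rfl | hz
    · rw [Lg_of_not (by simp [Complex.mem_slitPlane_iff]), norm_zero]; positivity
    have hz' : 0 < ‖z‖ := norm_pos_iff.mpr hz
    have h1 : |(Lg G z).re| ≤ |Real.log Cb| + |Real.log (dm / Cb)| := by
      rw [h.re_Lg hz]
      obtain ⟨i, hi⟩ := h.sel z
      have hu : ‖G z‖ / ‖z‖ ≤ Cb := by
        rw [div_le_iff₀ hz', hi]; exact hC i z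
      have hl : dm / Cb ≤ ‖G z‖ / ‖z‖ := by
        rw [le_div_iff₀ hz', hi]; exact hm i z
      have hp : 0 < ‖G z‖ / ‖z‖ := hm0.trans_le hl
      have h2 := Real.log_le_log hp hu
      have h3 := Real.log_le_log hm0 hl
      rw [abs_le]
      constructor
      · have := neg_abs_le (Real.log (dm / Cb)); have := abs_nonneg (Real.log Cb); linarith
      · have := le_abs_self (Real.log Cb); have := abs_nonneg (Real.log (dm / Cb)); linarith
    have h2 := Pl.abs_im_Lg (G := G) z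
    have h3 := Complex.norm_le_abs_re_add_abs_im (Lg G z)
    linarith
  obtain ⟨D, hD0, hD⟩ := exists_dst_bound
  refine ⟨Cb, dm / Cb, dm, Λ, 1 / (2 * D * Λ), ⟨hCb0, hC, hm0, hm, hd0, hi1, hΛ0, hΛ,
    by positivity, fun x => ?_⟩⟩
  calc |dst x| * (1 / (2 * D * Λ)) * Λ ≤ D * (1 / (2 * D * Λ)) * Λ := by
        have := hD x
        gcongr
    _ = 1 / 2 := by field_simp

/-! ### pointwise formulas -/

lemma dGt_self (ε : ℝ) (L : ℂ → ℂ) {z : ℂ} (hz : z ≠ 0) {D : ℂ →L[ℝ] ℂ} (hD : D z = 0) :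
    dGt ε L z D z = Gt ε L z * (1 + ((dcut ε (-1 - 1/ε) z * (L z).re : ℝ) : ℂ)
      + ((dcut 1 (-2 - 1/ε) z * (L z).im : ℝ) : ℂ) * Complex.I) := by
  have h1 : dlz z z = 1 := by rw [dlz_apply, div_self hz, Complex.one_re]
  simp only [dGt, dEx, Gt, smul_apply, add_apply, ContinuousLinearMap.id_apply,
    ContinuousLinearMap.comp_apply, hD, h1, Complex.reCLM_apply, Complex.imCLM_apply,
    Complex.ofRealCLM_apply, smul_eq_mul, Complex.zero_re, Complex.zero_im]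
  push_cast
  ring

lemma dGt_I (ε : ℝ) (L : ℂ → ℂ) {z : ℂ} (hz : z ≠ 0) (D : ℂ →L[ℝ] ℂ) :
    dGt ε L z D (Complex.I * z) = Gt ε L z * (((cut ε (-1 - 1/ε) z * (D (Complex.I * z)).re : ℝ) : ℂ)
      + ((1 + cut 1 (-2 - 1/ε) z * (D (Complex.I * z)).im : ℝ) : ℂ) * Complex.I) := by
  have h1 : dlz z (Complex.I * z) = 0 := by
    rw [dlz_apply, mul_div_assoc, div_self hz, mul_one, Complex.I_re]
  simp only [dGt, dEx, Gt, smul_apply, add_apply, ContinuousLinearMap.id_apply,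
    ContinuousLinearMap.comp_apply, h1, Complex.reCLM_apply, Complex.imCLM_apply,
    Complex.ofRealCLM_apply, smul_eq_mul]
  push_cast
  ring

/-- the cut-off of the modulus is constant where the cut-off of the argument moves. -/
lemma dcut_mul_cut {ε : ℝ} (hε : 0 < ε) (z : ℂ) :
    dcut 1 (-2 - 1/ε) z * cut ε (-1 - 1/ε) z = 0 := by
  rcases le_or_gt (Real.log ‖z‖) (-1 - 1/ε) with h | h
  · rw [cut_zero hε.le h, mul_zero]
  · rw [dcut, dst_of_one_lt (by linarith), zero_mul, zero_mul]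

lemma norm_Gt (ε : ℝ) (L : ℂ → ℂ) (z : ℂ) :
    ‖Gt ε L z‖ = ‖z‖ * Real.exp (cut ε (-1 - 1/ε) z * (L z).re) := by
  rw [Gt, norm_mul, Complex.norm_exp]
  simp [Ex]

section bounds
variable {Cb mb dm Λ ε : ℝ} (P : Par B G Cb mb dm Λ ε)
include P

lemma Par.re_le (z : ℂ) : |(Lg G z).re| ≤ Λ := (Complex.abs_re_le_norm _).trans (P.hΛ z)
lemma Par.im_le (z : ℂ) : |(Lg G z).im| ≤ Λ := (Complex.abs_im_le_norm _).trans (P.hΛ z)

lemma Par.norm_Gt_le (z : ℂ) : ‖Gt ε (Lg G) z‖ ≤ Real.exp Λ * ‖z‖ := by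
  rw [norm_Gt, mul_comm]
  refine mul_le_mul_of_nonneg_right (Real.exp_le_exp.mpr ?_) (norm_nonneg _)
  calc cut ε (-1 - 1/ε) z * (Lg G z).re ≤ |cut ε (-1 - 1/ε) z * (Lg G z).re| := le_abs_self _
    _ = |cut ε (-1 - 1/ε) z| * |(Lg G z).re| := abs_mul _ _
    _ ≤ 1 * Λ := mul_le_mul (abs_cut_le_one _ _ _) (P.re_le z) (abs_nonneg _) zero_le_one
    _ = Λ := one_mul _

lemma Par.le_norm_Gt (z : ℂ) : Real.exp (-Λ) * ‖z‖ ≤ ‖Gt ε (Lg G) z‖ := by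
  rw [norm_Gt, mul_comm]
  refine mul_le_mul_of_nonneg_left (Real.exp_le_exp.mpr ?_) (norm_nonneg _)
  have : |cut ε (-1 - 1/ε) z * (Lg G z).re| ≤ Λ := by
    rw [abs_mul]
    calc |cut ε (-1 - 1/ε) z| * |(Lg G z).re| ≤ 1 * Λ :=
          mul_le_mul (abs_cut_le_one _ _ _) (P.re_le z) (abs_nonneg _) zero_le_one
      _ = Λ := one_mul _
  exact (abs_le.mp this).1

lemma Par.dcut_re (z w : ℂ) : |dcut ε (-1 - 1/ε) z * (Lg G w).re| ≤ 1 / 2 := by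
  rw [dcut, abs_mul, abs_mul, abs_of_pos P.ε0]
  exact (mul_le_mul_of_nonneg_left (P.re_le w) (mul_nonneg (abs_nonneg _) P.ε0.le)).trans (P.hε _)

/-- lower bound for the cross product of the derivative. -/
lemma Par.cr_dGt {z : ℂ} (hz : z ≠ 0) (i : ι) :
    Real.exp (-Λ) ^ 2 * (1 / 2 * min 1 (dm / Cb ^ 2)) * ‖z‖ ^ 2 ≤
      cr (dGt ε (Lg G) z (dL (B i) z) z) (dGt ε (Lg G) z (dL (B i) z) (Complex.I * z)) := by
  have hz' : 0 < ‖z‖ := norm_pos_iff.mpr hz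
  have hBz : B i z ≠ 0 := by
    intro h0
    have := P.hm i z
    rw [h0, norm_zero] at this
    have := mul_pos P.m0 hz'
    linarith
  have hD0 : dL (B i) z z = 0 := by rw [dL_apply, div_self hBz, div_self hz, sub_self]
  have hDI : dL (B i) z (Complex.I * z) = B i (Complex.I * z) / B i z - Complex.I := by
    rw [dL_apply, mul_div_assoc, div_self hz, mul_one]
  rw [dGt_self ε _ hz hD0, dGt_I ε _ hz, cr_mul, hDI]
  set a := cut ε (-1 - 1/ε) z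
  set b := cut 1 (-2 - 1/ε) z
  set a1 := dcut ε (-1 - 1/ε) z * (Lg G z).re
  set b1 := dcut 1 (-2 - 1/ε) z * (Lg G z).im with hb1
  set q := B i (Complex.I * z) / B i z
  have hab : b1 * a = 0 := by
    have := dcut_mul_cut P.ε0 z
    calc b1 * a = (dcut 1 (-2 - 1/ε) z * cut ε (-1 - 1/ε) z) * (Lg G z).im := by ring
      _ = 0 := by rw [this, zero_mul]
  have hq : dm / Cb ^ 2 ≤ q.im := by
    rw [im_div]
    have h1 : ‖B i z‖ ^ 2 ≤ Cb ^ 2 * ‖z‖ ^ 2 := by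
      rw [← mul_pow]; exact pow_le_pow_left₀ (norm_nonneg _) (P.hC i z) 2
    have h2 : 0 < ‖B i z‖ ^ 2 := by positivity
    have hC2 : 0 < Cb ^ 2 := pow_pos P.Cb0 2
    rw [div_le_div_iff₀ hC2 h2]
    calc dm * ‖B i z‖ ^ 2 ≤ dm * (Cb ^ 2 * ‖z‖ ^ 2) := mul_le_mul_of_nonneg_left h1 P.d0.le
      _ ≤ (B i).det * (Cb ^ 2 * ‖z‖ ^ 2) := mul_le_mul_of_nonneg_right (P.hd i) (by positivity)
      _ = (B i).det * ‖z‖ ^ 2 * Cb ^ 2 := by ring
  have hcr : cr (1 + (a1 : ℂ) + (b1 : ℂ) * Complex.I)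
      (((a * (q - Complex.I).re : ℝ) : ℂ) + ((1 + b * (q - Complex.I).im : ℝ) : ℂ) * Complex.I)
      = (1 + a1) * ((1 - b) + b * q.im) := by
    simp only [cr, Complex.add_re, Complex.add_im, Complex.one_re, Complex.one_im,
      Complex.ofReal_re, Complex.ofReal_im, Complex.mul_re, Complex.mul_im, Complex.I_re,
      Complex.I_im, Complex.sub_re, Complex.sub_im]
    linear_combination (-q.re) * hab
  rw [hcr]
  have h1 : 1 / 2 ≤ 1 + a1 := by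
    have := (abs_le.mp (P.dcut_re z z)).1
    linarith
  have hb0 : 0 ≤ b := cut_nonneg _ _ _
  have hb1' : b ≤ 1 := cut_le_one _ _ _
  have h2 : min 1 (dm / Cb ^ 2) ≤ (1 - b) + b * q.im := by
    have h3 : min 1 (dm / Cb ^ 2) ≤ 1 := min_le_left _ _
    have h4 : min 1 (dm / Cb ^ 2) ≤ q.im := (min_le_right _ _).trans hq
    nlinarith
  have hmin : 0 ≤ min 1 (dm / Cb ^ 2) := le_min zero_le_one (div_nonneg P.d0.le (by positivity))
  have h3 : 1 / 2 * min 1 (dm / Cb ^ 2) ≤ (1 + a1) * ((1 - b) + b * q.im) :=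
    mul_le_mul h1 h2 hmin (by linarith)
  have h4 : (Real.exp (-Λ) * ‖z‖) ^ 2 ≤ ‖Gt ε (Lg G) z‖ ^ 2 :=
    pow_le_pow_left₀ (by positivity) (P.le_norm_Gt z) 2
  calc Real.exp (-Λ) ^ 2 * (1 / 2 * min 1 (dm / Cb ^ 2)) * ‖z‖ ^ 2
      = (Real.exp (-Λ) * ‖z‖) ^ 2 * (1 / 2 * min 1 (dm / Cb ^ 2)) := by ring
    _ ≤ ‖Gt ε (Lg G) z‖ ^ 2 * ((1 + a1) * ((1 - b) + b * q.im)) :=
        mul_le_mul h4 h3 (by positivity) (by positivity)

end bounds

end Crest.Agent.R096.Ed_276
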