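/-
R096 / P5-EDGE (helper276), part 5: Lipschitz bounds of the planar map.
-/
import Crest.Agent.R096.Ed4_276

open Set Metric Filter Topology
open scoped ComplexConjugate

namespace Crest.Agent.R096.Ed_276

variable {ι : Type*} {B : ι → ℂ →L[ℝ] ℂ} {G : ℂ → ℂ}

section bounds
variable {Cb mb dm Λ ε : ℝ} (P : Par B G Cb mb dm Λ ε)

/-- Lipschitz constant of the planar map. -/
noncomputable def C1 (Cb mb Λ ε : ℝ) : ℝ :=
  Real.exp Λ * (1 + (2 * (Cb / mb + 1) + 1 / 2 + 1 / (2 * ε)))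

include P

lemma Par.norm_dL {z : ℂ} (hz : z ≠ 0) (i : ι) (v : ℂ) :
    ‖dL (B i) z v‖ ≤ (Cb / mb + 1) * (‖v‖ / ‖z‖) := by
  have hz' : 0 < ‖z‖ := norm_pos_iff.mpr hz
  rw [dL_apply]
  have h1 : ‖B i v / B i z‖ ≤ Cb / mb * (‖v‖ / ‖z‖) := by
    rw [norm_div]
    have h2 : 0 < mb * ‖z‖ := mul_pos P.m0 hz'
    calc ‖B i v‖ / ‖B i z‖ ≤ (Cb * ‖v‖) / (mb * ‖z‖) :=
          div_le_div₀ (mul_nonneg P.Cb0.le (norm_nonneg _)) (P.hC i v) h2 (P.hm i z)
      _ = Cb / mb * (‖v‖ / ‖z‖) := by rw [mul_div_mul_comm]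
  calc ‖B i v / B i z - v / z‖ ≤ ‖B i v / B i z‖ + ‖v / z‖ := norm_sub_le _ _
    _ ≤ Cb / mb * (‖v‖ / ‖z‖) + ‖v‖ / ‖z‖ := by rw [norm_div v z]; gcongr
    _ = (Cb / mb + 1) * (‖v‖ / ‖z‖) := by ring

lemma Par.abs_dst (x : ℝ) : |dst x| ≤ 1 / (2 * ε * Λ) := by
  have h := P.hε x
  have := P.ε0; have := P.L0
  rw [le_div_iff₀ (by positivity)]
  nlinarith

lemma Par.norm_dEx {z : ℂ} (hz : z ≠ 0) (i : ι) (v : ℂ) :
    ‖dEx ε (Lg G z) z (dL (B i) z) v‖ ≤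
      (2 * (Cb / mb + 1) + 1 / 2 + 1 / (2 * ε)) * (‖v‖ / ‖z‖) := by
  have hz' : 0 < ‖z‖ := norm_pos_iff.mpr hz
  have hq : 0 ≤ ‖v‖ / ‖z‖ := by positivity
  have hdl := dlz_norm_le z v
  have hD := P.norm_dL hz i v
  have ha := abs_cut_le_one ε (-1 - 1/ε) z
  have hb := abs_cut_le_one 1 (-2 - 1/ε) z
  have h1 : |cut ε (-1 - 1/ε) z * (dL (B i) z v).re| ≤ (Cb / mb + 1) * (‖v‖ / ‖z‖) := by
    rw [abs_mul]
    calc _ ≤ 1 * |(dL (B i) z v).re| := mul_le_mul_of_nonneg_right ha (abs_nonneg _)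
      _ ≤ _ := by rw [one_mul]; exact (Complex.abs_re_le_norm _).trans hD
  have h2 : |cut 1 (-2 - 1/ε) z * (dL (B i) z v).im| ≤ (Cb / mb + 1) * (‖v‖ / ‖z‖) := by
    rw [abs_mul]
    calc _ ≤ 1 * |(dL (B i) z v).im| := mul_le_mul_of_nonneg_right hb (abs_nonneg _)
      _ ≤ _ := by rw [one_mul]; exact (Complex.abs_im_le_norm _).trans hD
  have h3 : |(Lg G z).re * (dcut ε (-1 - 1/ε) z * dlz z v)| ≤ 1 / 2 * (‖v‖ / ‖z‖) := by
    have h4 := P.dcut_re z z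
    calc |(Lg G z).re * (dcut ε (-1 - 1/ε) z * dlz z v)|
        = |dcut ε (-1 - 1/ε) z * (Lg G z).re| * |dlz z v| := by rw [← abs_mul]; congr 1; ring
      _ ≤ 1 / 2 * (‖v‖ / ‖z‖) := mul_le_mul h4 hdl (abs_nonneg _) (by norm_num)
  have h4 : |(Lg G z).im * (dcut 1 (-2 - 1/ε) z * dlz z v)| ≤ 1 / (2 * ε) * (‖v‖ / ‖z‖) := by
    have h5 : |dcut 1 (-2 - 1/ε) z| ≤ 1 / (2 * ε * Λ) := by
      rw [dcut, mul_one]; exact P.abs_dst _
    have h6 := P.im_le z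
    have := P.ε0; have hL := P.L0
    calc |(Lg G z).im * (dcut 1 (-2 - 1/ε) z * dlz z v)|
        = |(Lg G z).im| * |dcut 1 (-2 - 1/ε) z| * |dlz z v| := by
          rw [← abs_mul, ← abs_mul]; congr 1; ring
      _ ≤ Λ * (1 / (2 * ε * Λ)) * (‖v‖ / ‖z‖) := by gcongr
      _ = 1 / (2 * ε) * (‖v‖ / ‖z‖) := by field_simp
  have hform : dEx ε (Lg G z) z (dL (B i) z) v =
      ((cut ε (-1 - 1/ε) z * (dL (B i) z v).re
        + (Lg G z).re * (dcut ε (-1 - 1/ε) z * dlz z v) : ℝ) : ℂ) +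
      Complex.I * ((cut 1 (-2 - 1/ε) z * (dL (B i) z v).im
        + (Lg G z).im * (dcut 1 (-2 - 1/ε) z * dlz z v) : ℝ) : ℂ) := by
    simp [dEx]
    ring
  rw [hform]
  have h7 : ∀ a b c d : ℝ, ‖((a + b : ℝ) : ℂ) + Complex.I * ((c + d : ℝ) : ℂ)‖ ≤
      |a| + |b| + (|c| + |d|) := by
    intro a b c d
    calc _ ≤ ‖((a + b : ℝ) : ℂ)‖ + ‖Complex.I * ((c + d : ℝ) : ℂ)‖ := norm_add_le _ _
      _ = |a + b| + |c + d| := by
          rw [norm_mul, Complex.norm_I, one_mul, Complex.norm_real, Complex.norm_real,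
            Real.norm_eq_abs, Real.norm_eq_abs]
      _ ≤ _ := add_le_add (abs_add_le _ _) (abs_add_le _ _)
  refine (h7 _ _ _ _).trans ?_
  linarith

lemma Par.norm_dGt {z : ℂ} (hz : z ≠ 0) (i : ι) (v : ℂ) :
    ‖dGt ε (Lg G) z (dL (B i) z) v‖ ≤ C1 Cb mb Λ ε * ‖v‖ := by
  have hz' : 0 < ‖z‖ := norm_pos_iff.mpr hz
  have h1 : ‖Complex.exp (Ex ε (Lg G) z)‖ ≤ Real.exp Λ := by
    rw [Complex.norm_exp]
    refine Real.exp_le_exp.mpr ?_
    have : (Ex ε (Lg G) z).re = cut ε (-1 - 1/ε) z * (Lg G z).re := by simp [Ex]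
    rw [this]
    calc cut ε (-1 - 1/ε) z * (Lg G z).re ≤ |cut ε (-1 - 1/ε) z * (Lg G z).re| := le_abs_self _
      _ = |cut ε (-1 - 1/ε) z| * |(Lg G z).re| := abs_mul _ _
      _ ≤ 1 * Λ := mul_le_mul (abs_cut_le_one _ _ _) (P.re_le z) (abs_nonneg _) zero_le_one
      _ = Λ := one_mul _
  have h2 : ‖v + z * dEx ε (Lg G z) z (dL (B i) z) v‖ ≤
      (1 + (2 * (Cb / mb + 1) + 1 / 2 + 1 / (2 * ε))) * ‖v‖ := by
    calc _ ≤ ‖v‖ + ‖z‖ * ‖dEx ε (Lg G z) z (dL (B i) z) v‖ := by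
          rw [← norm_mul]; exact norm_add_le _ _
      _ ≤ ‖v‖ + ‖z‖ * ((2 * (Cb / mb + 1) + 1 / 2 + 1 / (2 * ε)) * (‖v‖ / ‖z‖)) := by
          gcongr; exact P.norm_dEx hz i v
      _ = (1 + (2 * (Cb / mb + 1) + 1 / 2 + 1 / (2 * ε))) * ‖v‖ := by field_simp
  have h3 : dGt ε (Lg G) z (dL (B i) z) v =
      Complex.exp (Ex ε (Lg G) z) * (v + z * dEx ε (Lg G z) z (dL (B i) z) v) := by
    simp [dGt]
    ring
  rw [h3, norm_mul, C1, mul_assoc]
  exact mul_le_mul h1 h2 (norm_nonneg _) (Real.exp_pos _).le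

end bounds

/-! ### the map near `0`, near infinity and near the slit -/

lemma Gt_of_small {ε : ℝ} (hε : 0 < ε) (L : ℂ → ℂ) {z : ℂ}
    (h : Real.log ‖z‖ ≤ -2 - 1/ε) : Gt ε L z = z := by
  rw [Gt, Ex, cut_zero hε.le (by linarith), cut_zero zero_le_one h]
  simp

lemma Gt_of_large {ε : ℝ} (hε : 0 < ε) (h : Pl B G) {z : ℂ} (hz : z ≠ 0)
    (hl : -1 ≤ Real.log ‖z‖) : Gt ε (Lg G) z = G z := by
  have h1 : cut ε (-1 - 1/ε) z = 1 := by
    apply cut_one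
    have : ε * (1/ε) = 1 := by field_simp
    nlinarith
  have h2 : cut 1 (-2 - 1/ε) z = 1 := by
    apply cut_one
    have : 0 < 1/ε := by positivity
    linarith
  rw [Gt, Ex, h1, h2, one_mul, one_mul, Complex.re_add_im, h.exp_Lg hz]

lemma Gt_of_L {ε : ℝ} {L : ℂ → ℂ} {z : ℂ} (h : L z = 0) : Gt ε L z = z := by
  simp [Gt, Ex, h]

lemma log_small {z : ℂ} {c : ℝ} (hz : z ≠ 0) (h : ‖z‖ ≤ Real.exp c) : Real.log ‖z‖ ≤ c := by
  rw [← Real.log_exp c]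
  exact Real.log_le_log (norm_pos_iff.mpr hz) h

lemma Gt_near_zero {ε : ℝ} (hε : 0 < ε) (L : ℂ → ℂ) {z : ℂ}
    (h : ‖z‖ ≤ Real.exp (-2 - 1/ε)) : Gt ε L z = z := by
  rcases eq_or_ne z 0 with rfl | hz
  · simp [Gt]
  · exact Gt_of_small hε L (log_small hz h)

lemma eventually_small (c : ℝ) : ∀ᶠ z : ℂ in 𝓝 0, ‖z‖ ≤ Real.exp c := by
  have : Tendsto (fun z : ℂ => ‖z‖) (𝓝 0) (𝓝 0) := by
    simpa using (continuous_norm (E := ℂ)).tendsto 0
  exact (this.eventually (Iic_mem_nhds (Real.exp_pos c)))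

lemma Gt_congr {ε : ℝ} {L L' : ℂ → ℂ} {z : ℂ} (h : L z = L' z) : Gt ε L z = Gt ε L' z := by
  simp [Gt, Ex, h]

lemma dGt_congr {ε : ℝ} {L L' : ℂ → ℂ} {z : ℂ} (h : L z = L' z) (D : ℂ →L[ℝ] ℂ) :
    dGt ε L z D = dGt ε L' z D := by
  simp [dGt, Ex, h]

/-- general little lemma: linear bound from a derivative. -/
lemma eventually_of_fderiv {E F : Type*} [NormedAddCommGroup E] [NormedSpace ℝ E]
    [NormedAddCommGroup F] [NormedSpace ℝ F] {f : E → F} {f' : E →L[ℝ] F} {x : E} {C : ℝ}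
    (hf : HasFDerivAt f f' x) (hC : ∀ v, ‖f' v‖ ≤ C * ‖v‖) :
    ∀ᶠ y in 𝓝 x, ‖f y - f x‖ ≤ (C + 1) * ‖y - x‖ := by
  have h := hf.isLittleO.def one_pos
  filter_upwards [h] with y hy
  calc ‖f y - f x‖ = ‖(f y - f x - f' (y - x)) + f' (y - x)‖ := by congr 1; abel
    _ ≤ 1 * ‖y - x‖ + C * ‖y - x‖ := (norm_add_le _ _).trans (add_le_add hy (hC _))
    _ = (C + 1) * ‖y - x‖ := by ring

/-- the planar map on the pieces, near points off the slit. -/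
lemma Pl.log_piece (h : Pl B G) {z : ℂ} {i : ι} (hz : -z ∈ Complex.slitPlane)
    (hi : G z = B i z) :
    HasFDerivAt (fun w => Complex.log (-(B i w)) - Complex.log (-w)) (dL (B i) z) z ∧
    (fun w => Complex.log (-(B i w)) - Complex.log (-w)) z = Lg G z ∧
    ∀ᶠ w in 𝓝 z, G w = B i w →
      (fun w => Complex.log (-(B i w)) - Complex.log (-w)) w = Lg G w := by
  have h1 : -(B i z) ∈ Complex.slitPlane := by rw [← hi]; exact h.slit hz
  refine ⟨hasFDerivAt_log_lin (B i) hz h1, ?_, ?_⟩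
  · simp only [Lg_of_slit hz, hi]
  · filter_upwards [eventually_slit hz] with w hw hwi
    simp only [Lg_of_slit hw, hwi]

/-- `Gt` is continuous. -/
lemma Pl.continuous_Gt (h : Pl B G) {ε : ℝ} (hε : 0 < ε) : Continuous (Gt ε (Lg G)) := by
  rw [continuous_iff_continuousAt]
  intro z
  rcases eq_or_ne z 0 with rfl | hz
  · refine (continuous_id.continuousAt (x := (0:ℂ))).congr ?_
    filter_upwards [eventually_small (-2 - 1/ε)] with w hw
    exact (Gt_near_zero hε _ hw).symm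
  · have h1 := h.continuousAt_Lg hz
    have h2 : ContinuousAt (Ex ε (Lg G)) z := by
      refine ContinuousAt.add ?_ (ContinuousAt.mul ?_ continuousAt_const)
      · exact Complex.continuous_ofReal.continuousAt.comp
          ((continuousAt_cut _ _ hz).mul (Complex.continuous_re.continuousAt.comp h1))
      · exact Complex.continuous_ofReal.continuousAt.comp
          ((continuousAt_cut _ _ hz).mul (Complex.continuous_im.continuousAt.comp h1))
    exact continuousAt_id.mul h2.cexp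

/-- `Gt` is Lipschitz. -/
lemma Pl.lip_Gt [Finite ι] (h : Pl B G) {Cb mb dm Λ ε : ℝ} (P : Par B G Cb mb dm Λ ε) (z w : ℂ) :
    ‖Gt ε (Lg G) z - Gt ε (Lg G) w‖ ≤ (C1 Cb mb Λ ε + 1) * ‖z - w‖ := by
  have hC1 : 0 ≤ C1 Cb mb Λ ε := by
    have h1 := P.Cb0; have h2 := P.m0; have h3 := P.ε0
    unfold C1; positivity
  have hid : ∀ {z : ℂ}, (∀ᶠ w in 𝓝 z, Gt ε (Lg G) w = w) → ∀ᶠ w in 𝓝 z,
      ‖Gt ε (Lg G) w - Gt ε (Lg G) z‖ ≤ (C1 Cb mb Λ ε + 1) * ‖w - z‖ := by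
    intro z hz
    filter_upwards [hz] with w hw
    rw [hw, hz.self_of_nhds]
    nlinarith [norm_nonneg (w - z)]
  refine lip_cover (C := fun i => {z | G z = B i z})
    (fun i => isClosed_eq h.cont (B i).continuous) h.sel ?_ (h.continuous_Gt P.ε0) z w
  intro i z hzi
  rcases eq_or_ne z 0 with rfl | hz
  · refine (hid ?_).mono fun w hw _ => hw
    filter_upwards [eventually_small (-2 - 1/ε)] with w hw
    exact Gt_near_zero P.ε0 _ hw
  by_cases hs : -z ∈ Complex.slitPlane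
  · obtain ⟨h1, h2, h3⟩ := h.log_piece hs hzi
    have h4 := hasFDerivAt_Gt ε hz h1
    rw [dGt_congr h2] at h4
    have h5 := eventually_of_fderiv h4 (P.norm_dGt hz i)
    filter_upwards [h5, h3] with w hw hw3 hwi
    have e1 := Gt_congr (ε := ε) (L := fun w => Complex.log (-(B i w)) - Complex.log (-w))
      (L' := Lg G) (hw3 hwi)
    have e2 := Gt_congr (ε := ε) (L := fun w => Complex.log (-(B i w)) - Complex.log (-w))
      (L' := Lg G) h2
    rw [e1, e2] at hw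
    exact hw
  · refine (hid ?_).mono fun w hw _ => hw
    filter_upwards [h.near_slit_Lg hz hs] with w hw
    exact Gt_of_L hw

/-- derivative of `Gt` at points near which `G` is linear. -/
lemma Pl.hasFDerivAt_Gt (h : Pl B G) {ε : ℝ} {z : ℂ} (hz : z ≠ 0) {i : ι}
    (hi : ∀ᶠ w in 𝓝 z, G w = B i w) :
    HasFDerivAt (Gt ε (Lg G)) (dGt ε (Lg G) z (dL (B i) z)) z := by
  by_cases hs : -z ∈ Complex.slitPlane
  · obtain ⟨h1, h2, h3⟩ := h.log_piece hs hi.self_of_nhds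
    have h4 := Ed_276.hasFDerivAt_Gt ε hz h1
    rw [dGt_congr h2] at h4
    refine h4.congr_of_eventuallyEq ?_
    filter_upwards [h3, hi] with w hw hwi
    exact (Gt_congr (L := fun w => Complex.log (-(B i w)) - Complex.log (-w))
      (L' := Lg G) (hw hwi)).symm
  · -- `G = id = B i` near `z`
    have h1 : HasFDerivAt (fun w => w) (B i) z := by
      refine (B i).hasFDerivAt.congr_of_eventuallyEq ?_
      filter_upwards [hi, h.near_slit hz hs] with w hw hw2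
      rw [← hw, hw2]
    have h2 : B i = ContinuousLinearMap.id ℝ ℂ := h1.unique (hasFDerivAt_id z)
    have h3 : dL (B i) z = 0 := by
      ext v
      rw [dL_apply, h2]
      simp
    have h4 : HasFDerivAt (Lg G) (0 : ℂ →L[ℝ] ℂ) z := by
      refine (hasFDerivAt_const (0:ℂ) z).congr_of_eventuallyEq ?_
      filter_upwards [h.near_slit_Lg hz hs] with w hw
      exact hw
    rw [h3]
    exact Ed_276.hasFDerivAt_Gt ε hz h4

end Crest.Agent.R096.Ed_276
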