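/-
R096 / P5-EDGE (helper276), part 6: `G` and the planar map `Gt` are bijections of the plane.
-/
import Crest.Agent.R096.Ed5_276

open Set Metric Filter Topology
open scoped ComplexConjugate

namespace Crest.Agent.R096.Ed_276

variable {ι : Type*} {B : ι → ℂ →L[ℝ] ℂ} {G : ℂ → ℂ}

/-- the point of the unit circle with argument `φ` from the slit. -/
noncomputable def zp (φ : ℝ) : ℂ := -Complex.exp (φ * Complex.I)

lemma continuous_zp : Continuous zp := by unfold zp; fun_prop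

lemma norm_zp (φ : ℝ) : ‖zp φ‖ = 1 := by rw [zp, norm_neg, Complex.norm_exp_ofReal_mul_I]

lemma zp_ne (φ : ℝ) : zp φ ≠ 0 := by
  rw [← norm_ne_zero_iff, norm_zp]; exact one_ne_zero

lemma arg_neg_zp {φ : ℝ} (h : φ ∈ Ioo (-Real.pi) Real.pi) : Complex.arg (-zp φ) = φ := by
  rw [zp, neg_neg]
  have := Complex.log_exp (x := (φ : ℂ) * Complex.I) (by simpa using h.1) (by simpa using h.2.le)
  rw [← Complex.log_im, this]
  simp

lemma neg_zp_slit {φ : ℝ} (h : φ ∈ Ioo (-Real.pi) Real.pi) : -zp φ ∈ Complex.slitPlane := by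
  rw [Complex.mem_slitPlane_iff_arg]
  exact ⟨by rw [arg_neg_zp h]; exact h.2.ne, neg_ne_zero.mpr (zp_ne φ)⟩

/-- angular coordinate from the slit. -/
noncomputable def ph (z : ℂ) : ℝ := Complex.arg (-z)

lemma ph_mem {z : ℂ} (hz : -z ∈ Complex.slitPlane) : ph z ∈ Ioo (-Real.pi) Real.pi := by
  rw [Complex.mem_slitPlane_iff_arg] at hz
  exact ⟨Complex.neg_pi_lt_arg _, lt_of_le_of_ne (Complex.arg_le_pi _) hz.1⟩

lemma eq_polar (z : ℂ) : z = (‖z‖ : ℂ) * zp (ph z) := by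
  have := Complex.norm_mul_exp_arg_mul_I (-z)
  rw [norm_neg] at this
  rw [zp, ph, mul_neg, this, neg_neg]

lemma tendsto_zp_neg : Tendsto zp (𝓝 (-Real.pi)) (𝓝 1) := by
  have : zp (-Real.pi) = 1 := by
    rw [zp]; push_cast; rw [neg_mul, Complex.exp_neg, Complex.exp_pi_mul_I]; norm_num
  rw [← this]; exact continuous_zp.tendsto _

lemma tendsto_zp_pos : Tendsto zp (𝓝 Real.pi) (𝓝 1) := by
  have : zp Real.pi = 1 := by
    rw [zp, Complex.exp_pi_mul_I]; norm_num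
  rw [← this]; exact continuous_zp.tendsto _

/-- angular map. -/
noncomputable def ga (G : ℂ → ℂ) (φ : ℝ) : ℝ := ph (G (zp φ))

namespace Pl

lemma ph_G (h : Pl B G) {z : ℂ} (hz : z ≠ 0) : ph (G z) = ga G (ph z) := by
  have h0 : 0 < ‖z‖ := norm_pos_iff.mpr hz
  conv_lhs => rw [eq_polar z, h.hom _ h0.le]
  rw [ga, ph, ph, ← mul_neg, Complex.arg_real_mul _ h0]
  rfl

lemma ga_mem (h : Pl B G) {φ : ℝ} (hφ : φ ∈ Ioo (-Real.pi) Real.pi) :
    ga G φ ∈ Ioo (-Real.pi) Real.pi := ph_mem (h.slit (neg_zp_slit hφ))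

lemma continuousOn_ga (h : Pl B G) : ContinuousOn (ga G) (Ioo (-Real.pi) Real.pi) := by
  intro φ hφ
  have h1 : ContinuousAt (fun φ => -G (zp φ)) φ := (h.cont.comp continuous_zp).neg.continuousAt
  exact (ContinuousAt.comp (g := Complex.arg) (f := fun φ => -G (zp φ))
    (Complex.continuousAt_arg (h.slit (neg_zp_slit hφ))) h1).continuousWithinAt

lemma injOn_ga (h : Pl B G) : InjOn (ga G) (Ioo (-Real.pi) Real.pi) := by
  intro φ hφ ψ hψ heq
  have h1 := eq_polar (G (zp φ))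
  have h2 := eq_polar (G (zp ψ))
  have hn1 : 0 < ‖G (zp φ)‖ := norm_pos_iff.mpr (h.ne (zp_ne φ))
  have hn2 : 0 < ‖G (zp ψ)‖ := norm_pos_iff.mpr (h.ne (zp_ne ψ))
  have heq' : ph (G (zp φ)) = ph (G (zp ψ)) := heq
  rw [← heq'] at h2
  have hne : ((‖G (zp φ)‖ : ℝ) : ℂ) ≠ 0 := by exact_mod_cast hn1.ne'
  have h3 : G (zp ψ) = ((‖G (zp ψ)‖ / ‖G (zp φ)‖ : ℝ) : ℂ) * G (zp φ) := by
    calc G (zp ψ) = (‖G (zp ψ)‖ : ℂ) * zp (ph (G (zp φ))) := h2
      _ = ((‖G (zp ψ)‖ / ‖G (zp φ)‖ : ℝ) : ℂ) * ((‖G (zp φ)‖ : ℂ) * zp (ph (G (zp φ)))) := by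
          push_cast; field_simp
      _ = ((‖G (zp ψ)‖ / ‖G (zp φ)‖ : ℝ) : ℂ) * G (zp φ) := by rw [← h1]
  rw [← h.hom _ (div_nonneg hn2.le hn1.le)] at h3
  have h4 := h.inj h3
  have h5 : ‖G (zp ψ)‖ / ‖G (zp φ)‖ = 1 := by
    have := congrArg norm h4
    rw [norm_mul, norm_zp, norm_zp, mul_one, Complex.norm_real, Real.norm_eq_abs,
      abs_of_nonneg (div_nonneg hn2.le hn1.le)] at this
    exact this.symm
  rw [h5, Complex.ofReal_one, one_mul] at h4
  rw [← arg_neg_zp hφ, ← arg_neg_zp hψ, h4]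

lemma ga_end_neg (h : Pl B G) : ∀ᶠ φ in 𝓝 (-Real.pi), φ ∈ Ioo (-Real.pi) Real.pi → ga G φ = φ := by
  filter_upwards [tendsto_zp_neg.eventually h.idn] with φ hφ hI
  rw [ga, hφ]; exact arg_neg_zp hI

lemma ga_end_pos (h : Pl B G) : ∀ᶠ φ in 𝓝 Real.pi, φ ∈ Ioo (-Real.pi) Real.pi → ga G φ = φ := by
  filter_upwards [tendsto_zp_pos.eventually h.idn] with φ hφ hI
  rw [ga, hφ]; exact arg_neg_zp hI

lemma exists_neg (h : Pl B G) {u : ℝ} (hu : -Real.pi < u) :
    ∃ φ, -Real.pi < φ ∧ φ < u ∧ φ < Real.pi ∧ ga G φ = φ := by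
  have h1 : ∀ᶠ φ in 𝓝[>] (-Real.pi), φ ∈ Ioo (-Real.pi) Real.pi → ga G φ = φ :=
    h.ga_end_neg.filter_mono nhdsWithin_le_nhds
  have hpi : -Real.pi < min u Real.pi := lt_min hu (by have := Real.pi_pos; linarith)
  have h2 : ∀ᶠ φ in 𝓝[>] (-Real.pi), φ ∈ Ioo (-Real.pi) (min u Real.pi) :=
    Ioo_mem_nhdsGT hpi
  obtain ⟨φ, ha, hb⟩ := (h1.and h2).exists
  exact ⟨φ, hb.1, hb.2.trans_le (min_le_left _ _), hb.2.trans_le (min_le_right _ _),
    ha ⟨hb.1, hb.2.trans_le (min_le_right _ _)⟩⟩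

lemma exists_pos (h : Pl B G) {u : ℝ} (hu : u < Real.pi) :
    ∃ φ, -Real.pi < φ ∧ u < φ ∧ φ < Real.pi ∧ ga G φ = φ := by
  have h1 : ∀ᶠ φ in 𝓝[<] Real.pi, φ ∈ Ioo (-Real.pi) Real.pi → ga G φ = φ :=
    h.ga_end_pos.filter_mono nhdsWithin_le_nhds
  have hpi : max u (-Real.pi) < Real.pi := max_lt hu (by have := Real.pi_pos; linarith)
  have h2 : ∀ᶠ φ in 𝓝[<] Real.pi, φ ∈ Ioo (max u (-Real.pi)) Real.pi :=
    Ioo_mem_nhdsLT hpi
  obtain ⟨φ, ha, hb⟩ := (h1.and h2).exists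
  exact ⟨φ, (le_max_right _ _).trans_lt hb.1, (le_max_left _ _).trans_lt hb.1, hb.2,
    ha ⟨(le_max_right _ _).trans_lt hb.1, hb.2⟩⟩

lemma strictMonoOn_ga (h : Pl B G) : StrictMonoOn (ga G) (Ioo (-Real.pi) Real.pi) := by
  have hpi : -Real.pi < Real.pi := by have := Real.pi_pos; linarith
  rcases h.continuousOn_ga.strictMonoOn_of_injOn_Ioo hpi h.injOn_ga with hm | ha
  · exact hm
  · exfalso
    obtain ⟨φ, h1, -, h3, h4⟩ := h.exists_neg hpi
    obtain ⟨ψ, h5, h6, h7, h8⟩ := h.exists_neg h1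
    have := ha ⟨h5, h7⟩ ⟨h1, h3⟩ h6
    rw [h4, h8] at this
    linarith

/-- interpolated angular map. -/
lemma strictMonoOn_mix (h : Pl B G) {b : ℝ} (hb0 : 0 ≤ b) (hb1 : b ≤ 1) :
    StrictMonoOn (fun φ => φ + b * (ga G φ - φ)) (Ioo (-Real.pi) Real.pi) := by
  intro φ hφ ψ hψ hlt
  have h1 := h.strictMonoOn_ga hφ hψ hlt
  show φ + b * (ga G φ - φ) < ψ + b * (ga G ψ - ψ)
  rcases hb0.eq_or_lt with rfl | hb
  · linarith
  · nlinarith [mul_pos hb (sub_pos.mpr h1), mul_nonneg (sub_nonneg.mpr hb1) (sub_pos.mpr hlt).le]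

lemma mix_mem (h : Pl B G) {b : ℝ} (hb0 : 0 ≤ b) (hb1 : b ≤ 1) {φ : ℝ}
    (hφ : φ ∈ Ioo (-Real.pi) Real.pi) :
    φ + b * (ga G φ - φ) ∈ Ioo (-Real.pi) Real.pi := by
  have h1 := h.ga_mem hφ
  have : φ + b * (ga G φ - φ) = (1 - b) * φ + b * ga G φ := by ring
  rw [this]
  obtain ⟨h2, h3⟩ := hφ; obtain ⟨h4, h5⟩ := h1
  rcases hb0.eq_or_lt with rfl | hb
  · constructor <;> linarith
  · constructor
    · nlinarith [mul_pos hb (sub_pos.mpr h4), mul_nonneg (sub_nonneg.mpr hb1) (sub_pos.mpr h2).le]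
    · nlinarith [mul_pos hb (sub_pos.mpr h5), mul_nonneg (sub_nonneg.mpr hb1) (sub_pos.mpr h3).le]

lemma mix_surj (h : Pl B G) {b : ℝ} {ψ : ℝ} (hψ : ψ ∈ Ioo (-Real.pi) Real.pi) :
    ∃ φ ∈ Ioo (-Real.pi) Real.pi, φ + b * (ga G φ - φ) = ψ := by
  obtain ⟨φ1, h1, h2, h3, h4⟩ := h.exists_neg hψ.1
  obtain ⟨φ2, h5, h6, h7, h8⟩ := h.exists_pos hψ.2
  have hsub : Icc φ1 φ2 ⊆ Ioo (-Real.pi) Real.pi := fun x hx =>
    ⟨h1.trans_le hx.1, hx.2.trans_lt h7⟩
  have hc : ContinuousOn (fun φ => φ + b * (ga G φ - φ)) (Icc φ1 φ2) :=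
    continuousOn_id.add (continuousOn_const.mul ((h.continuousOn_ga.mono hsub).sub continuousOn_id))
  have := intermediate_value_Icc (h2.trans h6).le hc
  have hmem : ψ ∈ Icc (φ1 + b * (ga G φ1 - φ1)) (φ2 + b * (ga G φ2 - φ2)) := by
    rw [h4, h8]; constructor <;> linarith
  obtain ⟨φ, hφ, hφ2⟩ := this hmem
  exact ⟨φ, hsub hφ, hφ2⟩

end Pl

/-! ### polar form of `Gt` -/

noncomputable def ell (G : ℂ → ℂ) (φ : ℝ) : ℝ := (Lg G (zp φ)).re

noncomputable def Ax (ε x : ℝ) : ℝ := Real.smoothTransition (ε * (x - (-1 - 1/ε)))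
noncomputable def Bx (ε x : ℝ) : ℝ := Real.smoothTransition (1 * (x - (-2 - 1/ε)))

lemma cut_A (ε : ℝ) (z : ℂ) : cut ε (-1 - 1/ε) z = Ax ε (Real.log ‖z‖) := rfl
lemma cut_B (ε : ℝ) (z : ℂ) : cut 1 (-2 - 1/ε) z = Bx ε (Real.log ‖z‖) := rfl

lemma Pl.Lg_zp (h : Pl B G) {z : ℂ} (hz : z ≠ 0) : Lg G z = Lg G (zp (ph z)) := by
  have h0 : 0 < ‖z‖ := norm_pos_iff.mpr hz
  conv_lhs => rw [eq_polar z, h.Lg_hom h0]

lemma Pl.im_Lg (h : Pl B G) {z : ℂ} (hz : -z ∈ Complex.slitPlane) :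
    (Lg G z).im = ga G (ph z) - ph z := by
  have hz0 : z ≠ 0 := fun h0 => by simp [h0] at hz
  rw [Lg_of_slit hz, Complex.sub_im, Complex.log_im, Complex.log_im, ← h.ph_G hz0]
  rfl

/-- polar coordinates of `Gt z`. -/
lemma Pl.polar_Gt (h : Pl B G) {ε : ℝ} {z : ℂ} (hz : -z ∈ Complex.slitPlane) :
    -(Gt ε (Lg G) z) ∈ Complex.slitPlane ∧
    Real.log ‖Gt ε (Lg G) z‖ = Real.log ‖z‖ + Ax ε (Real.log ‖z‖) * ell G (ph z) ∧
    ph (Gt ε (Lg G) z) = ph z + Bx ε (Real.log ‖z‖) * (ga G (ph z) - ph z) := by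
  have hz0 : z ≠ 0 := fun h0 => by simp [h0] at hz
  have hn : -z ≠ 0 := neg_ne_zero.mpr hz0
  have hexp : -(Gt ε (Lg G) z) = Complex.exp (Complex.log (-z) + Ex ε (Lg G) z) := by
    rw [Complex.exp_add, Complex.exp_log hn, Gt]; ring
  have him : (Complex.log (-z) + Ex ε (Lg G) z).im =
      ph z + Bx ε (Real.log ‖z‖) * (ga G (ph z) - ph z) := by
    rw [← h.im_Lg hz, ← cut_B]
    simp [Ex, ph, Complex.log_im]
  have hb0 : 0 ≤ Bx ε (Real.log ‖z‖) := Real.smoothTransition.nonneg _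
  have hb1 : Bx ε (Real.log ‖z‖) ≤ 1 := Real.smoothTransition.le_one _
  have hmem := h.mix_mem hb0 hb1 (ph_mem hz)
  have hlog : Complex.log (-(Gt ε (Lg G) z)) = Complex.log (-z) + Ex ε (Lg G) z := by
    rw [hexp]
    apply Complex.log_exp
    · rw [him]; exact hmem.1
    · rw [him]; exact hmem.2.le
  have harg : ph (Gt ε (Lg G) z) = ph z + Bx ε (Real.log ‖z‖) * (ga G (ph z) - ph z) := by
    rw [← him, ← hlog, Complex.log_im]; rfl
  refine ⟨?_, ?_, harg⟩
  · rw [Complex.mem_slitPlane_iff_arg]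
    refine ⟨?_, ?_⟩
    · have h1 : Complex.arg (-(Gt ε (Lg G) z)) = ph (Gt ε (Lg G) z) := rfl
      rw [h1, harg]; exact hmem.2.ne
    · rw [hexp]; exact Complex.exp_ne_zero _
  · have h1 : Real.log ‖Gt ε (Lg G) z‖ = (Complex.log (-(Gt ε (Lg G) z))).re := by
      rw [Complex.log_re, norm_neg]
    rw [h1, hlog, Complex.add_re, Complex.log_re, norm_neg, ell, ← h.Lg_zp hz0, ← cut_A]
    simp [Ex]

lemma Gt_slit {ε : ℝ} {z : ℂ} (hz : -z ∉ Complex.slitPlane) : Gt ε (Lg G) z = z :=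
  Gt_of_L (Lg_of_not hz)

/-- two points with the same polar coordinates agree. -/
lemma polar_inj {z w : ℂ} (hz : z ≠ 0) (hw : w ≠ 0) (h1 : Real.log ‖z‖ = Real.log ‖w‖)
    (h2 : ph z = ph w) : z = w := by
  have h3 : ‖z‖ = ‖w‖ := Real.log_injOn_pos (norm_pos_iff.mpr hz) (norm_pos_iff.mpr hw) h1
  rw [eq_polar z, eq_polar w, h3, h2]

section
variable {Cb mb dm Λ ε : ℝ} (P : Par B G Cb mb dm Λ ε)
include P

lemma Par.Ax_mono {φ : ℝ} {x y : ℝ} (hxy : x < y) :
    x + Ax ε x * ell G φ < y + Ax ε y * ell G φ := by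
  have h1 := st_lip (D := 1 / (2 * ε * Λ)) P.abs_dst (ε * (y - (-1 - 1/ε))) (ε * (x - (-1 - 1/ε)))
  have h2 : |ell G φ| ≤ Λ := P.re_le _
  have he := P.ε0; have hL := P.L0
  have h3 : |Ax ε y - Ax ε x| ≤ (y - x) / (2 * Λ) := by
    have h4 : ε * (y - (-1 - 1/ε)) - ε * (x - (-1 - 1/ε)) = ε * (y - x) := by ring
    rw [h4, abs_of_pos (mul_pos he (sub_pos.mpr hxy))] at h1
    calc |Ax ε y - Ax ε x| ≤ 1 / (2 * ε * Λ) * (ε * (y - x)) := h1
      _ = (y - x) / (2 * Λ) := by field_simp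
  have h5 : |(Ax ε y - Ax ε x) * ell G φ| ≤ (y - x) / 2 := by
    rw [abs_mul]
    have h6 : 0 ≤ (y - x) / (2 * Λ) := div_nonneg (sub_pos.mpr hxy).le (by positivity)
    calc |Ax ε y - Ax ε x| * |ell G φ| ≤ (y - x) / (2 * Λ) * Λ :=
          mul_le_mul h3 h2 (abs_nonneg _) h6
      _ = (y - x) / 2 := by field_simp
  have h7 := (abs_le.mp h5).1
  nlinarith

lemma Ax_low {x : ℝ} (hx : x ≤ -1 - 1/ε) : Ax ε x = 0 :=
  Real.smoothTransition.zero_of_nonpos
    (mul_nonpos_of_nonneg_of_nonpos P.ε0.le (by linarith))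

omit P in
lemma Bx_high {x : ℝ} (hx : -1 - 1/ε ≤ x) : Bx ε x = 1 :=
  Real.smoothTransition.one_of_one_le (by linarith)

/-- `Gt` is injective. -/
lemma Par.inj_Gt (h : Pl B G) : Function.Injective (Gt ε (Lg G)) := by
  intro z w heq
  by_cases hz : -z ∈ Complex.slitPlane
  · by_cases hw : -w ∈ Complex.slitPlane
    · have hz0 : z ≠ 0 := fun h0 => by simp [h0] at hz
      have hw0 : w ≠ 0 := fun h0 => by simp [h0] at hw
      obtain ⟨-, h1, h2⟩ := h.polar_Gt (ε := ε) hz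
      obtain ⟨-, h3, h4⟩ := h.polar_Gt (ε := ε) hw
      rw [heq] at h1 h2
      have e1 := h1.symm.trans h3
      have e2 := h2.symm.trans h4
      have hpz := ph_mem hz
      have hpw := ph_mem hw
      rcases le_total (-1 - 1/ε) (Real.log ‖z‖) with hx | hx
      · rcases le_total (-1 - 1/ε) (Real.log ‖w‖) with hy | hy
        · -- both outer
          rw [Bx_high hx, Bx_high hy] at e2
          have e3 : ph z = ph w := h.strictMonoOn_ga.injOn hpz hpw (by linarith)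
          rw [e3] at e1
          have e4 : Real.log ‖z‖ = Real.log ‖w‖ := by
            rcases lt_trichotomy (Real.log ‖z‖) (Real.log ‖w‖) with hlt | heq' | hlt
            · exact absurd e1 (P.Ax_mono hlt).ne
            · exact heq'
            · exact absurd e1 (P.Ax_mono hlt).ne'
          exact polar_inj hz0 hw0 e4 e3
        · -- z outer, w inner
          rw [Ax_low P hy, zero_mul, add_zero] at e1
          rcases hx.eq_or_lt with hx' | hx'
          · have hx2 : Real.log ‖z‖ ≤ -1 - 1/ε := hx'.ge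
            rw [Ax_low P hx2, zero_mul, add_zero] at e1
            rw [e1] at e2
            have e3 := (h.strictMonoOn_mix (b := Bx ε (Real.log ‖w‖))
              (Real.smoothTransition.nonneg _) (Real.smoothTransition.le_one _)).injOn hpz hpw e2
            exact polar_inj hz0 hw0 e1 e3
          · have h5 := P.Ax_mono (φ := ph z) hx'
            rw [Ax_low P le_rfl, zero_mul, add_zero] at h5
            linarith
      · rcases le_total (-1 - 1/ε) (Real.log ‖w‖) with hy | hy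
        · -- z inner, w outer
          rw [Ax_low P hx, zero_mul, add_zero] at e1
          rcases hy.eq_or_lt with hy' | hy'
          · have hy2 : Real.log ‖w‖ ≤ -1 - 1/ε := hy'.ge
            rw [Ax_low P hy2, zero_mul, add_zero] at e1
            rw [e1] at e2
            have e3 := (h.strictMonoOn_mix (b := Bx ε (Real.log ‖w‖))
              (Real.smoothTransition.nonneg _) (Real.smoothTransition.le_one _)).injOn hpz hpw e2
            exact polar_inj hz0 hw0 e1 e3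
          · have h5 := P.Ax_mono (φ := ph w) hy'
            rw [Ax_low P le_rfl, zero_mul, add_zero] at h5
            linarith
        · -- both inner
          rw [Ax_low P hx, Ax_low P hy, zero_mul, add_zero, zero_mul, add_zero] at e1
          rw [e1] at e2
          have e3 := (h.strictMonoOn_mix (b := Bx ε (Real.log ‖w‖))
            (Real.smoothTransition.nonneg _) (Real.smoothTransition.le_one _)).injOn hpz hpw e2
          exact polar_inj hz0 hw0 e1 e3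
    · exfalso
      have h1 := (h.polar_Gt (ε := ε) hz).1
      rw [heq, Gt_slit hw] at h1
      exact hw h1
  · by_cases hw : -w ∈ Complex.slitPlane
    · exfalso
      have h1 := (h.polar_Gt (ε := ε) hw).1
      rw [← heq, Gt_slit hz] at h1
      exact hz h1
    · rwa [Gt_slit hz, Gt_slit hw] at heq

omit P in
lemma ph_mul_zp {r φ : ℝ} (hr : 0 < r) (hφ : φ ∈ Ioo (-Real.pi) Real.pi) :
    ph ((r : ℂ) * zp φ) = φ := by
  rw [ph, ← mul_neg, Complex.arg_real_mul _ hr, arg_neg_zp hφ]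

lemma Par.surj_Gt (h : Pl B G) : Function.Surjective (Gt ε (Lg G)) := by
  intro w
  by_cases hw : -w ∈ Complex.slitPlane
  · have hw0 : w ≠ 0 := fun h0 => by simp [h0] at hw
    have hpw := ph_mem hw
    -- it is enough to find polar coordinates
    suffices hs : ∃ x φ : ℝ, φ ∈ Ioo (-Real.pi) Real.pi ∧ x + Ax ε x * ell G φ = Real.log ‖w‖ ∧
        φ + Bx ε x * (ga G φ - φ) = ph w by
      obtain ⟨x, φ, hφ, h1, h2⟩ := hs
      set z : ℂ := ((Real.exp x : ℝ) : ℂ) * zp φ with hz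
      have hpz : ph z = φ := ph_mul_zp (Real.exp_pos x) hφ
      have hnz : ‖z‖ = Real.exp x := by
        rw [hz, norm_mul, norm_zp, mul_one, Complex.norm_real, Real.norm_eq_abs,
          abs_of_pos (Real.exp_pos x)]
      have hz0 : z ≠ 0 := by rw [← norm_ne_zero_iff, hnz]; exact (Real.exp_pos x).ne'
      have hzs : -z ∈ Complex.slitPlane := by
        rw [Complex.mem_slitPlane_iff_arg]
        refine ⟨?_, neg_ne_zero.mpr hz0⟩
        have : Complex.arg (-z) = φ := hpz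
        rw [this]; exact hφ.2.ne
      obtain ⟨h3, h4, h5⟩ := h.polar_Gt (ε := ε) hzs
      rw [hnz, Real.log_exp, hpz] at h4 h5
      refine ⟨z, polar_inj ?_ hw0 (h4.trans h1) (h5.trans h2)⟩
      intro h0
      rw [h0] at h3
      simp at h3
    rcases le_total (-1 - 1/ε) (Real.log ‖w‖) with hx | hx
    · obtain ⟨φ, hφ, h1⟩ := h.mix_surj (b := 1) hpw
      -- solve for x
      have hc : Continuous fun x => x + Ax ε x * ell G φ := by
        have : Continuous fun x => Ax ε x := by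
          unfold Ax
          exact Real.smoothTransition.continuous.comp (by fun_prop)
        fun_prop
      set N := Real.log ‖w‖ + |ell G φ| with hN
      have hle : -1 - 1/ε ≤ N := hx.trans (by have := abs_nonneg (ell G φ); linarith)
      have hiv := intermediate_value_Icc hle hc.continuousOn
      have hmem : Real.log ‖w‖ ∈ Icc ((-1 - 1/ε) + Ax ε (-1 - 1/ε) * ell G φ)
          (N + Ax ε N * ell G φ) := by
        rw [Ax_low P le_rfl, zero_mul, add_zero]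
        refine ⟨hx, ?_⟩
        have h3 : |Ax ε N * ell G φ| ≤ |ell G φ| := by
          rw [abs_mul]
          have : |Ax ε N| ≤ 1 := by
            rw [Ax, abs_of_nonneg (Real.smoothTransition.nonneg _)]
            exact Real.smoothTransition.le_one _
          calc |Ax ε N| * |ell G φ| ≤ 1 * |ell G φ| :=
                mul_le_mul_of_nonneg_right this (abs_nonneg _)
            _ = |ell G φ| := one_mul _
        have := (abs_le.mp h3).1
        linarith
      obtain ⟨x, hx1, hx2⟩ := hiv hmem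
      exact ⟨x, φ, hφ, hx2, by rw [Bx_high hx1.1]; exact h1⟩
    · obtain ⟨φ, hφ, h1⟩ := h.mix_surj (b := Bx ε (Real.log ‖w‖)) hpw
      exact ⟨Real.log ‖w‖, φ, hφ, by rw [Ax_low P hx]; ring, h1⟩
  · exact ⟨w, Gt_slit hw⟩

/-- `G` is surjective. -/
lemma Par.surj_G (h : Pl B G) : Function.Surjective G := by
  intro w
  rcases eq_or_ne w 0 with rfl | hw0
  · exact ⟨0, h.zero⟩
  -- scale so that the preimage is large
  have hw' : 0 < ‖w‖ := norm_pos_iff.mpr hw0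
  -- choose t large such that every preimage of t w under Gt has norm ≥ 1
  set t : ℝ := 2 * Real.exp Λ / ‖w‖ with ht
  have ht0 : 0 < t := by positivity
  obtain ⟨z, hz⟩ := P.surj_Gt h ((t : ℂ) * w)
  have h1 := P.norm_Gt_le z
  rw [hz, norm_mul, Complex.norm_real, Real.norm_eq_abs, abs_of_pos ht0] at h1
  have h2 : t * ‖w‖ = 2 * Real.exp Λ := by rw [ht]; field_simp
  have h3 : 2 ≤ ‖z‖ := by
    have := Real.exp_pos Λ
    rw [h2] at h1
    nlinarith
  have hz0 : z ≠ 0 := by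
    rw [← norm_ne_zero_iff]; linarith
  have h4 : -1 ≤ Real.log ‖z‖ := by
    have := Real.log_nonneg (by linarith : (1:ℝ) ≤ ‖z‖)
    linarith
  rw [Gt_of_large P.ε0 h hz0 h4] at hz
  refine ⟨((t⁻¹ : ℝ) : ℂ) * z, ?_⟩
  rw [h.hom _ (inv_nonneg.mpr ht0.le), hz]
  have : (t : ℂ) ≠ 0 := by exact_mod_cast ht0.ne'
  push_cast
  field_simp

end

end Crest.Agent.R096.Ed_276
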