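/-
R096 / P5-EDGE (helper276), part 7: the pair `(Gt, lt)`, scaling, the model map on `ℂ × ℝ`.
-/
import Crest.Agent.R096.Ed6_276

open Set Metric Filter Topology
open scoped ComplexConjugate

namespace Crest.Agent.R096.Ed_276

/-! ### scaling -/

section scaling
variable {V F : Type*} [NormedAddCommGroup V] [NormedSpace ℝ V] [NormedAddCommGroup F]
  [NormedSpace ℝ F]

structure ScD (Q g : V → F) (K : ℝ) : Prop where
  K0 : 0 ≤ K
  lip : ∀ x y, ‖Q x - Q y‖ ≤ K * ‖x - y‖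
  q0 : Q 0 = 0
  hom : ∀ t : ℝ, 0 ≤ t → ∀ x, g (t • x) = t • g x
  eq : ∀ x, 1 ≤ ‖x‖ → Q x = g x

/-- rescaled map. -/
noncomputable def sc (Q g : V → F) (R : ℝ) (x : V) : F :=
  open Classical in if R = 0 then g x else R • Q (R⁻¹ • x)

variable {Q g : V → F} {K : ℝ}

lemma sc_zero (x : V) : sc Q g 0 x = g x := by simp [sc]

lemma sc_pos {R : ℝ} (hR : R ≠ 0) (x : V) : sc Q g R x = R • Q (R⁻¹ • x) := by simp [sc, hR]

namespace ScD

lemma sc_of_le (h : ScD Q g K) {R : ℝ} (hR : 0 ≤ R) {x : V} (hx : R ≤ ‖x‖) : sc Q g R x = g x := by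
  rcases hR.eq_or_lt with rfl | hR'
  · exact sc_zero x
  · rw [sc_pos hR'.ne', h.eq, h.hom _ (inv_nonneg.mpr hR), smul_smul, mul_inv_cancel₀ hR'.ne',
      one_smul]
    rw [norm_smul, norm_inv, Real.norm_eq_abs, abs_of_pos hR', ← div_eq_inv_mul,
      le_div_iff₀ hR', one_mul]
    exact hx

lemma g0 (h : ScD Q g K) : g 0 = 0 := by
  have := h.hom 0 le_rfl 0
  simpa using this

lemma qnorm (h : ScD Q g K) (x : V) : ‖Q x‖ ≤ K * ‖x‖ := by
  have := h.lip x 0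
  simpa [h.q0] using this

lemma g_lip (h : ScD Q g K) (x y : V) : ‖g x - g y‖ ≤ K * ‖x - y‖ := by
  -- for `z ≠ 0` and large `t`, `g z = t⁻¹ Q (t z)`
  have key : ∀ z : V, ∃ T : ℝ, 0 < T ∧ ∀ t ≥ T, g z = t⁻¹ • Q (t • z) := by
    intro z
    rcases eq_or_ne z 0 with rfl | hz
    · refine ⟨1, one_pos, fun t _ => ?_⟩
      rw [smul_zero, h.q0, smul_zero, h.g0]
    · have hz' : 0 < ‖z‖ := norm_pos_iff.mpr hz
      refine ⟨1 / ‖z‖, by positivity, fun t ht => ?_⟩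
      have ht0 : 0 < t := lt_of_lt_of_le (by positivity) ht
      rw [h.eq, h.hom t ht0.le, smul_smul, inv_mul_cancel₀ ht0.ne', one_smul]
      rw [norm_smul, Real.norm_eq_abs, abs_of_pos ht0]
      have := (div_le_iff₀ hz').mp ht
      exact this
  obtain ⟨T1, hT1, h1⟩ := key x
  obtain ⟨T2, hT2, h2⟩ := key y
  set t := max T1 T2
  have ht0 : 0 < t := lt_max_of_lt_left hT1
  rw [h1 t (le_max_left _ _), h2 t (le_max_right _ _), ← smul_sub, norm_smul, norm_inv,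
    Real.norm_eq_abs, abs_of_pos ht0]
  have h3 := h.lip (t • x) (t • y)
  rw [← smul_sub, norm_smul, Real.norm_eq_abs, abs_of_pos ht0] at h3
  calc t⁻¹ * ‖Q (t • x) - Q (t • y)‖ ≤ t⁻¹ * (K * (t * ‖x - y‖)) := by gcongr
    _ = K * ‖x - y‖ := by field_simp

lemma sc_lipx (h : ScD Q g K) {R : ℝ} (hR : 0 ≤ R) (x y : V) :
    ‖sc Q g R x - sc Q g R y‖ ≤ K * ‖x - y‖ := by
  rcases hR.eq_or_lt with rfl | hR'
  · rw [sc_zero, sc_zero]; exact h.g_lip x y
  · rw [sc_pos hR'.ne', sc_pos hR'.ne', ← smul_sub, norm_smul, Real.norm_eq_abs, abs_of_pos hR']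
    have h3 := h.lip (R⁻¹ • x) (R⁻¹ • y)
    rw [← smul_sub, norm_smul, norm_inv, Real.norm_eq_abs, abs_of_pos hR'] at h3
    calc R * ‖Q (R⁻¹ • x) - Q (R⁻¹ • y)‖ ≤ R * (K * (R⁻¹ * ‖x - y‖)) := by gcongr
      _ = K * ‖x - y‖ := by field_simp

lemma sc_at0 (h : ScD Q g K) (R : ℝ) : sc Q g R 0 = 0 := by
  by_cases hR : R = 0
  · rw [hR, sc_zero, h.g0]
  · rw [sc_pos hR, smul_zero, h.q0, smul_zero]

lemma sc_norm (h : ScD Q g K) {R : ℝ} (hR : 0 ≤ R) (x : V) : ‖sc Q g R x‖ ≤ K * ‖x‖ := by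
  have := h.sc_lipx hR x 0
  simpa [h.sc_at0] using this

lemma sc_lipR_aux (h : ScD Q g K) {R R' : ℝ} (hR : 0 ≤ R) (hRR : R ≤ R') (x : V) :
    ‖sc Q g R x - sc Q g R' x‖ ≤ 2 * K * (R' - R) := by
  have hK := h.K0
  have hR' : 0 ≤ R' := hR.trans hRR
  rcases le_or_gt R' ‖x‖ with h1 | h1
  · rw [h.sc_of_le hR' h1, h.sc_of_le hR (hRR.trans h1), sub_self, norm_zero]
    exact mul_nonneg (by positivity) (sub_nonneg.mpr hRR)
  -- replace R by ρ = max R ‖x‖
  set ρ := max R ‖x‖ with hρ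
  have hρR : sc Q g R x = sc Q g ρ x := by
    rcases le_or_gt ‖x‖ R with h2 | h2
    · rw [hρ, max_eq_left h2]
    · rw [hρ, max_eq_right h2.le, h.sc_of_le hR h2.le, h.sc_of_le (norm_nonneg _) le_rfl]
  have hρ0 : 0 ≤ ρ := hR.trans (le_max_left _ _)
  have hρR' : ρ ≤ R' := max_le hRR h1.le
  have hxρ : ‖x‖ ≤ ρ := le_max_right _ _
  rw [hρR]
  rcases hρ0.eq_or_lt with h0 | hpos
  · have hx0 : x = 0 := by
      rw [← norm_le_zero_iff, h0]; exact hxρ
    rw [hx0, h.sc_at0, h.sc_at0, sub_self, norm_zero]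
    exact mul_nonneg (by positivity) (sub_nonneg.mpr hRR)
  have hR'pos : 0 < R' := hpos.trans_le hρR'
  rw [sc_pos hpos.ne', sc_pos hR'pos.ne']
  have e : ρ • Q (ρ⁻¹ • x) - R' • Q (R'⁻¹ • x) =
      ρ • (Q (ρ⁻¹ • x) - Q (R'⁻¹ • x)) - (R' - ρ) • Q (R'⁻¹ • x) := by module
  rw [e]
  have h3 : ‖ρ • (Q (ρ⁻¹ • x) - Q (R'⁻¹ • x))‖ ≤ K * (R' - ρ) := by
    rw [norm_smul, Real.norm_eq_abs, abs_of_pos hpos]
    have h4 := h.lip (ρ⁻¹ • x) (R'⁻¹ • x)
    rw [← sub_smul, norm_smul, Real.norm_eq_abs,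
      abs_of_nonneg (sub_nonneg.mpr (inv_anti₀ hpos hρR'))] at h4
    calc ρ * ‖Q (ρ⁻¹ • x) - Q (R'⁻¹ • x)‖ ≤ ρ * (K * ((ρ⁻¹ - R'⁻¹) * ‖x‖)) := by gcongr
      _ = K * ((R' - ρ) * (‖x‖ / R')) := by field_simp
      _ ≤ K * ((R' - ρ) * 1) := by
          have : ‖x‖ / R' ≤ 1 := (div_le_one hR'pos).mpr h1.le
          have h5 : 0 ≤ R' - ρ := sub_nonneg.mpr hρR'
          gcongr
      _ = K * (R' - ρ) := by ring
  have h6 : ‖(R' - ρ) • Q (R'⁻¹ • x)‖ ≤ K * (R' - ρ) := by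
    have h5 : 0 ≤ R' - ρ := sub_nonneg.mpr hρR'
    rw [norm_smul, Real.norm_eq_abs, abs_of_nonneg h5]
    have h7 := h.qnorm (R'⁻¹ • x)
    rw [norm_smul, norm_inv, Real.norm_eq_abs, abs_of_pos hR'pos] at h7
    calc (R' - ρ) * ‖Q (R'⁻¹ • x)‖ ≤ (R' - ρ) * (K * (R'⁻¹ * ‖x‖)) := by gcongr
      _ ≤ (R' - ρ) * (K * 1) := by
          have : R'⁻¹ * ‖x‖ ≤ 1 := by
            rw [← div_eq_inv_mul]; exact (div_le_one hR'pos).mpr h1.le
          gcongr
      _ = K * (R' - ρ) := by ring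
  have h8 : R ≤ ρ := le_max_left _ _
  calc _ ≤ K * (R' - ρ) + K * (R' - ρ) := (norm_sub_le _ _).trans (add_le_add h3 h6)
    _ = 2 * K * (R' - ρ) := by ring
    _ ≤ 2 * K * (R' - R) := by gcongr

lemma sc_lipR (h : ScD Q g K) {R R' : ℝ} (hR : 0 ≤ R) (hR' : 0 ≤ R') (x : V) :
    ‖sc Q g R x - sc Q g R' x‖ ≤ 2 * K * |R - R'| := by
  rcases le_total R R' with h1 | h1
  · have := h.sc_lipR_aux hR h1 x
    rwa [abs_sub_comm, abs_of_nonneg (sub_nonneg.mpr h1)]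
  · have := h.sc_lipR_aux hR' h1 x
    rwa [norm_sub_rev, abs_of_nonneg (sub_nonneg.mpr h1)]

end ScD

end scaling

/-! ### a real function close to the identity is bijective -/

lemma bij_real {f : ℝ → ℝ} (h : ∀ s t, |(f s - f t) - (s - t)| ≤ 1 / 2 * |s - t|) :
    Function.Bijective f := by
  have hmono : ∀ s t, t < s → (s - t) / 2 ≤ f s - f t := by
    intro s t hst
    have h1 := (abs_le.mp (h s t)).1
    rw [abs_of_pos (sub_pos.mpr hst)] at h1
    linarith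
  refine ⟨?_, ?_⟩
  · have : StrictMono f := fun t s hst => by
      have := hmono s t hst
      have h2 : 0 < (s - t) / 2 := by linarith
      linarith
    exact this.injective
  · intro c
    have hc : Continuous f := by
      have hl : LipschitzWith 2 f := by
        refine LipschitzWith.of_dist_le_mul fun s t => ?_
        rw [Real.dist_eq, Real.dist_eq]
        have h1 := h s t
        have h2 : |f s - f t| ≤ |(f s - f t) - (s - t)| + |s - t| := by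
          have := abs_add_le ((f s - f t) - (s - t)) (s - t)
          simpa using this
        have h3 : ((2 : NNReal) : ℝ) = 2 := rfl
        rw [h3]
        have := abs_nonneg (s - t)
        linarith
      exact hl.continuous
    set N := 2 * (|c| + |f 0|) + 1 with hN
    have hN0 : 0 < N := by positivity
    have h1 := hmono N 0 hN0
    have h2 := hmono 0 (-N) (by linarith)
    have hc1 := le_abs_self c; have hc2 := neg_abs_le c
    have hf1 := le_abs_self (f 0); have hf2 := neg_abs_le (f 0)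
    have hiv := intermediate_value_Icc (by linarith : -N ≤ N) hc.continuousOn
    have hmem : c ∈ Icc (f (-N)) (f N) := ⟨by linarith, by linarith⟩
    obtain ⟨x, -, hx⟩ := hiv hmem
    exact ⟨x, hx⟩

end Crest.Agent.R096.Ed_276
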