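/-
R096 / P5-EDGE (helper276), part 8: the pair `(Gt, lt)` and the model homeomorphism of `ℂ × ℝ`.
-/
import Crest.Agent.R096.Ed7_276

open Set Metric Filter Topology
open scoped ComplexConjugate

namespace Crest.Agent.R096.Ed_276

/-- planar data with the vertical component. -/
structure Pl2 {ι : Type*} (B : ι → ℂ →L[ℝ] ℂ) (l : ι → ℂ →L[ℝ] ℝ) (G : ℂ → ℂ) (lam : ℂ → ℝ) :
    Prop extends Pl B G where
  contl : Continuous lam
  homl : ∀ t : ℝ, 0 ≤ t → ∀ z, lam (t * z) = t * lam z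
  sel2 : ∀ z, ∃ i, G z = B i z ∧ lam z = l i z

/-- cut-off of the vertical component. -/
noncomputable def lt (lam : ℂ → ℝ) (z : ℂ) : ℝ := cut 1 (-1) z * lam z

noncomputable def dlt (lam : ℂ → ℝ) (z : ℂ) (l : ℂ →L[ℝ] ℝ) : ℂ →L[ℝ] ℝ :=
  cut 1 (-1) z • l + lam z • (dcut 1 (-1) z • dlz z)

noncomputable def Q2 (ε : ℝ) (G : ℂ → ℂ) (lam : ℂ → ℝ) (z : ℂ) : M := (Gt ε (Lg G) z, lt lam z)

noncomputable def g2 (G : ℂ → ℂ) (lam : ℂ → ℝ) (z : ℂ) : M := (G z, lam z)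

variable {ι : Type*} {B : ι → ℂ →L[ℝ] ℂ} {l : ι → ℂ →L[ℝ] ℝ} {G : ℂ → ℂ} {lam : ℂ → ℝ}

lemma lt_of_small {z : ℂ} (h : ‖z‖ ≤ Real.exp (-1)) (h0 : lam 0 = 0) : lt lam z = 0 := by
  rcases eq_or_ne z 0 with rfl | hz
  · rw [lt, h0, mul_zero]
  · rw [lt, cut_zero zero_le_one (log_small hz h), zero_mul]

lemma lt_of_large {z : ℂ} (h : 1 ≤ ‖z‖) : lt lam z = lam z := by
  have h1 : 0 ≤ Real.log ‖z‖ := Real.log_nonneg h
  rw [lt, cut_one (by linarith), one_mul]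

lemma Pl2.lam0 (h : Pl2 B l G lam) : lam 0 = 0 := by
  have := h.homl 0 le_rfl 0
  simpa using this

lemma Gt_of_ge {ε : ℝ} (hε : 0 < ε) (h : Pl B G) {z : ℂ} (hz : Real.exp (-1) ≤ ‖z‖) :
    Gt ε (Lg G) z = G z := by
  have h1 : 0 < ‖z‖ := (Real.exp_pos _).trans_le hz
  refine Gt_of_large hε h (norm_pos_iff.mp h1) ?_
  rw [← Real.log_exp (-1)]
  exact Real.log_le_log (Real.exp_pos _) hz

lemma hasFDerivAt_lt {z : ℂ} (hz : z ≠ 0) {l : ℂ →L[ℝ] ℝ} (hl : HasFDerivAt lam l z) :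
    HasFDerivAt (lt lam) (dlt lam z l) z :=
  (hasFDerivAt_cut 1 (-1) hz).mul hl

lemma norm_dlt {Cl D : ℝ} (hD : ∀ x, |dst x| ≤ D) {l : ℂ →L[ℝ] ℝ} (hCl : ∀ v, |l v| ≤ Cl * ‖v‖)
    (hCl0 : 0 ≤ Cl) {z : ℂ} (hz : z ≠ 0) (hlam : |lam z| ≤ Cl * ‖z‖) (v : ℂ) :
    ‖dlt lam z l v‖ ≤ (Cl + Cl * D) * ‖v‖ := by
  have hz' : 0 < ‖z‖ := norm_pos_iff.mpr hz
  have h1 : |cut 1 (-1) z * l v| ≤ Cl * ‖v‖ := by
    rw [abs_mul]
    calc |cut 1 (-1) z| * |l v| ≤ 1 * |l v| :=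
          mul_le_mul_of_nonneg_right (abs_cut_le_one _ _ _) (abs_nonneg _)
      _ ≤ Cl * ‖v‖ := by rw [one_mul]; exact hCl v
  have hd : |dcut 1 (-1) z| ≤ D := by rw [dcut, mul_one]; exact hD _
  have hD0 : 0 ≤ D := (abs_nonneg _).trans hd
  have h2 : |lam z * (dcut 1 (-1) z * dlz z v)| ≤ Cl * D * ‖v‖ := by
    rw [abs_mul, abs_mul]
    calc |lam z| * (|dcut 1 (-1) z| * |dlz z v|) ≤ (Cl * ‖z‖) * (D * (‖v‖ / ‖z‖)) := by
          have := dlz_norm_le z v
          gcongr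
      _ = Cl * D * ‖v‖ := by field_simp
  have h3 : dlt lam z l v = cut 1 (-1) z * l v + lam z * (dcut 1 (-1) z * dlz z v) := by
    simp [dlt]
  rw [h3, Real.norm_eq_abs]
  calc _ ≤ _ := abs_add_le _ _
    _ ≤ (Cl + Cl * D) * ‖v‖ := by linarith

lemma Pl2.lip_lt [Finite ι] (h : Pl2 B l G lam) {Cl D : ℝ} (hD : ∀ x, |dst x| ≤ D)
    (hCl : ∀ i v, |l i v| ≤ Cl * ‖v‖) (hCl0 : 0 ≤ Cl) (z w : ℂ) :
    ‖lt lam z - lt lam w‖ ≤ ((Cl + Cl * D) + 1) * ‖z - w‖ := by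
  have hD0 : 0 ≤ D := (abs_nonneg _).trans (hD 0)
  have hcont : Continuous (lt lam) := by
    rw [continuous_iff_continuousAt]
    intro z
    rcases eq_or_ne z 0 with rfl | hz
    · refine (continuousAt_const (y := (0:ℝ))).congr ?_
      filter_upwards [eventually_small (-1)] with w hw
      exact (lt_of_small hw h.lam0).symm
    · exact (continuousAt_cut _ _ hz).mul h.contl.continuousAt
  refine lip_cover (C := fun i => {z | G z = B i z ∧ lam z = l i z})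
    (fun i => (isClosed_eq h.cont (B i).continuous).inter (isClosed_eq h.contl (l i).continuous))
    h.sel2 ?_ hcont z w
  intro i z hzi
  rcases eq_or_ne z 0 with rfl | hz
  · filter_upwards [eventually_small (-1)] with w hw _
    rw [lt_of_small hw h.lam0, lt_of_small (by simpa using (Real.exp_pos _).le) h.lam0, sub_self,
      norm_zero]
    positivity
  · have h1 := hasFDerivAt_lt hz (l i).hasFDerivAt
    have hb : |(l i) z| ≤ Cl * ‖z‖ := hCl i z
    have h2 := eventually_of_fderiv h1 (norm_dlt hD (hCl i) hCl0 hz hb)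
    filter_upwards [h2] with w hw hwi
    have e1 : lt lam w = lt (fun x => l i x) w := by
      rw [lt, lt, hwi.2]
    have e2 : lt lam z = lt (fun x => l i x) z := by
      rw [lt, lt, hzi.2]
    rw [e1, e2]
    exact hw

/-- the scaling data of the pair. -/
lemma Pl2.exists_scD [Finite ι] (h : Pl2 B l G lam) {Cb mb dm Λ ε : ℝ} (P : Par B G Cb mb dm Λ ε) :
    ∃ K Cl : ℝ, 0 ≤ Cl ∧ (∀ i v, |l i v| ≤ Cl * ‖v‖) ∧ ScD (Q2 ε G lam) (g2 G lam) K := by
  obtain ⟨Cl, hCl0, hCl⟩ : ∃ C : ℝ, 0 ≤ C ∧ ∀ i v, |l i v| ≤ C * ‖v‖ := by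
    obtain ⟨C, hC⟩ := (Set.finite_range fun i => ‖l i‖).bddAbove
    refine ⟨max C 0, le_max_right _ _, fun i v => ?_⟩
    have := (l i).le_opNorm v
    rw [Real.norm_eq_abs] at this
    exact this.trans (mul_le_mul_of_nonneg_right ((hC ⟨i, rfl⟩).trans (le_max_left _ _))
      (norm_nonneg _))
  obtain ⟨D, hD0, hD⟩ := exists_dst_bound
  have hC1 : 0 ≤ C1 Cb mb Λ ε := by
    have h1 := P.Cb0; have h2 := P.m0; have h3 := P.ε0
    unfold C1; positivity
  set K : ℝ := (C1 Cb mb Λ ε + 1) + ((Cl + Cl * D) + 1) with hK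
  refine ⟨K, Cl, hCl0, hCl, ⟨by positivity, fun x y => ?_, ?_, fun t ht x => ?_, fun x hx => ?_⟩⟩
  · have h1 := h.toPl.lip_Gt P x y
    have h2 := h.lip_lt hD hCl hCl0 x y
    have h3 : ‖Q2 ε G lam x - Q2 ε G lam y‖ =
        max ‖Gt ε (Lg G) x - Gt ε (Lg G) y‖ ‖lt lam x - lt lam y‖ := rfl
    rw [h3]
    have hn := norm_nonneg (x - y)
    refine max_le (h1.trans ?_) (h2.trans ?_)
    · exact mul_le_mul_of_nonneg_right (by rw [hK]; nlinarith) hn
    · exact mul_le_mul_of_nonneg_right (by rw [hK]; nlinarith) hn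
  · have h1 : Gt ε (Lg G) 0 = 0 := by simp [Gt]
    have h2 : lt lam 0 = 0 := by rw [lt, h.lam0, mul_zero]
    rw [Q2, h1, h2]; rfl
  · simp only [g2, Complex.real_smul, h.hom t ht, h.homl t ht]
    rfl
  · have h1 : Real.exp (-1) ≤ ‖x‖ := by
      have : Real.exp (-1) ≤ 1 := Real.exp_le_one_iff.mpr (by norm_num)
      linarith
    rw [Q2, g2, Gt_of_ge P.ε0 h.toPl h1, lt_of_large hx]

/-! ### the model map -/

/-- model of the rounded edge map on `ℂ × ℝ`. -/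
noncomputable def TM (Q g : ℂ → M) (R : ℝ → ℝ) (x : M) : M := sc Q g (R x.2) x.1 + (0, x.2)

section
variable {Cb mb dm Λ ε K : ℝ} (P : Par B G Cb mb dm Λ ε) (h : Pl2 B l G lam)

include P h

lemma sc_fst_inj {R : ℝ} (_hR : 0 ≤ R) :
    Function.Injective fun z => (sc (Q2 ε G lam) (g2 G lam) R z).1 := by
  rcases eq_or_ne R 0 with rfl | hR'
  · intro z w hzw
    simp only [sc_zero, g2] at hzw
    exact h.inj hzw
  · intro z w hzw
    simp only [sc_pos hR', Q2, Prod.smul_fst] at hzw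
    have h1 := P.inj_Gt h.toPl (smul_right_injective ℂ hR' hzw)
    exact smul_right_injective ℂ (inv_ne_zero hR') h1

lemma sc_fst_surj {R : ℝ} (_hR : 0 ≤ R) :
    Function.Surjective fun z => (sc (Q2 ε G lam) (g2 G lam) R z).1 := by
  rcases eq_or_ne R 0 with rfl | hR'
  · intro w
    obtain ⟨z, hz⟩ := P.surj_G h.toPl w
    exact ⟨z, by simp only [sc_zero, g2]; exact hz⟩
  · intro w
    obtain ⟨z, hz⟩ := P.surj_Gt h.toPl (R⁻¹ • w)
    refine ⟨R • z, ?_⟩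
    simp only [sc_pos hR', Q2, Prod.smul_fst, smul_smul, inv_mul_cancel₀ hR', one_smul, hz,
      mul_inv_cancel₀ hR']

/-- the vertical component only depends on the horizontal image. -/
lemma sc_snd_eq {R : ℝ} (hR : 0 ≤ R) {z y : ℂ}
    (hzy : (sc (Q2 ε G lam) (g2 G lam) R z).1 = G y) :
    (sc (Q2 ε G lam) (g2 G lam) R z).2 = (sc (Q2 ε G lam) (g2 G lam) R y).2 := by
  rcases hR.eq_or_lt with rfl | hR'
  · simp only [sc_zero, g2] at hzy ⊢
    rw [h.inj hzy]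
  · have hR0 := hR'.ne'
    have hfst : ∀ w : ℂ, Real.exp (-1) * R ≤ ‖w‖ →
        (sc (Q2 ε G lam) (g2 G lam) R w).1 = G w := by
      intro w hw
      have h1 : Real.exp (-1) ≤ ‖R⁻¹ • w‖ := by
        rw [norm_smul, norm_inv, Real.norm_eq_abs, abs_of_pos hR', ← div_eq_inv_mul,
          le_div_iff₀ hR']
        exact hw
      simp only [sc_pos hR0, Q2, Prod.smul_fst]
      rw [Gt_of_ge P.ε0 h.toPl h1, Complex.real_smul, Complex.real_smul,
        h.hom _ (inv_nonneg.mpr hR)]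
      have : (R : ℂ) ≠ 0 := by exact_mod_cast hR0
      push_cast
      field_simp
    have hsnd : ∀ w : ℂ, ‖w‖ < Real.exp (-1) * R →
        (sc (Q2 ε G lam) (g2 G lam) R w).2 = 0 := by
      intro w hw
      have h1 : ‖R⁻¹ • w‖ ≤ Real.exp (-1) := by
        rw [norm_smul, norm_inv, Real.norm_eq_abs, abs_of_pos hR', ← div_eq_inv_mul,
          div_le_iff₀ hR']
        exact hw.le
      simp only [sc_pos hR0, Q2, Prod.smul_snd]
      rw [lt_of_small h1 h.lam0, smul_zero]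
    rcases le_or_gt (Real.exp (-1) * R) ‖z‖ with hz | hz
    · rw [hfst z hz] at hzy
      rw [h.inj hzy]
    · rcases le_or_gt (Real.exp (-1) * R) ‖y‖ with hy | hy
      · have := sc_fst_inj P h hR (a₁ := z) (a₂ := y) (hzy.trans (hfst y hy).symm)
        rw [this]
      · rw [hsnd z hz, hsnd y hy]

variable (hS : ScD (Q2 ε G lam) (g2 G lam) K) {R : ℝ → ℝ} {ε₀ : ℝ} (hR : ∀ s, 0 ≤ R s)
  (hRL : ∀ s t, |R s - R t| ≤ ε₀ * |s - t|) (hε₀ : 4 * K * ε₀ ≤ 1)

include hS hR hRL hε₀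

omit P h in
lemma vert_lip (y : ℂ) (s t : ℝ) :
    ‖sc (Q2 ε G lam) (g2 G lam) (R s) y - sc (Q2 ε G lam) (g2 G lam) (R t) y‖ ≤
      1 / 2 * |s - t| := by
  have h1 := hS.sc_lipR (hR s) (hR t) y
  have h2 := hRL s t
  have hK := hS.K0
  calc _ ≤ 2 * K * |R s - R t| := h1
    _ ≤ 2 * K * (ε₀ * |s - t|) := by gcongr
    _ = 1 / 2 * (4 * K * ε₀) * |s - t| := by ring
    _ ≤ 1 / 2 * 1 * |s - t| := by gcongr
    _ = 1 / 2 * |s - t| := by ring

omit P h in
lemma vert_bij (y : ℂ) :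
    Function.Bijective fun s => s + (sc (Q2 ε G lam) (g2 G lam) (R s) y).2 := by
  refine bij_real fun s t => ?_
  have h1 := vert_lip hS hR hRL hε₀ y s t
  have h2 : |(sc (Q2 ε G lam) (g2 G lam) (R s) y).2 - (sc (Q2 ε G lam) (g2 G lam) (R t) y).2| ≤
      ‖sc (Q2 ε G lam) (g2 G lam) (R s) y - sc (Q2 ε G lam) (g2 G lam) (R t) y‖ :=
    norm_snd_le (sc (Q2 ε G lam) (g2 G lam) (R s) y - sc (Q2 ε G lam) (g2 G lam) (R t) y)
  calc _ = |(sc (Q2 ε G lam) (g2 G lam) (R s) y).2 - (sc (Q2 ε G lam) (g2 G lam) (R t) y).2| := by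
        congr 1; ring
    _ ≤ _ := h2.trans h1

lemma TM_bij : Function.Bijective (TM (Q2 ε G lam) (g2 G lam) R) := by
  refine ⟨?_, ?_⟩
  · rintro ⟨z, s⟩ ⟨w, t⟩ heq
    have e1 : (sc (Q2 ε G lam) (g2 G lam) (R s) z).1 = (sc (Q2 ε G lam) (g2 G lam) (R t) w).1 := by
      have := congrArg Prod.fst heq
      simpa [TM] using this
    have e2 : (sc (Q2 ε G lam) (g2 G lam) (R s) z).2 + s =
        (sc (Q2 ε G lam) (g2 G lam) (R t) w).2 + t := by
      have := congrArg Prod.snd heq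
      simpa [TM] using this
    obtain ⟨y, hy⟩ := P.surj_G h.toPl (sc (Q2 ε G lam) (g2 G lam) (R s) z).1
    have e3 := sc_snd_eq P h (hR s) hy.symm
    have e4 := sc_snd_eq P h (hR t) (e1.symm.trans hy.symm)
    rw [e3, e4] at e2
    have e5 : s = t := (vert_bij hS hR hRL hε₀ y).injective
      (by show s + _ = t + _; linarith)
    subst e5
    have e6 : z = w := sc_fst_inj P h (hR s) e1
    rw [e6]
  · rintro ⟨ζ, c⟩
    obtain ⟨y, hy⟩ := P.surj_G h.toPl ζ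
    obtain ⟨s, hs⟩ := (vert_bij hS hR hRL hε₀ y).surjective c
    obtain ⟨z, hz⟩ := sc_fst_surj P h (hR s) ζ
    have e3 := sc_snd_eq P h (hR s) (z := z) (y := y) (by rw [hy]; exact hz)
    refine ⟨(z, s), ?_⟩
    have hs' : s + (sc (Q2 ε G lam) (g2 G lam) (R s) y).2 = c := hs
    have hz' : (sc (Q2 ε G lam) (g2 G lam) (R s) z).1 = ζ := hz
    apply Prod.ext
    · simpa [TM] using hz'
    · simp only [TM, Prod.snd_add]
      rw [e3]; linarith

omit P h in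
lemma TM_lip (x y : M) : ‖TM (Q2 ε G lam) (g2 G lam) R x - TM (Q2 ε G lam) (g2 G lam) R y‖ ≤
    (K + 2) * ‖x - y‖ := by
  have h1 := hS.sc_lipx (hR x.2) x.1 y.1
  have h2 := vert_lip hS hR hRL hε₀ y.1 x.2 y.2
  have h3 : ‖x.1 - y.1‖ ≤ ‖x - y‖ := norm_fst_le (x - y)
  have h4 : |x.2 - y.2| ≤ ‖x - y‖ := norm_snd_le (x - y)
  have e : TM (Q2 ε G lam) (g2 G lam) R x - TM (Q2 ε G lam) (g2 G lam) R y =
      (sc (Q2 ε G lam) (g2 G lam) (R x.2) x.1 - sc (Q2 ε G lam) (g2 G lam) (R x.2) y.1) +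
      (sc (Q2 ε G lam) (g2 G lam) (R x.2) y.1 - sc (Q2 ε G lam) (g2 G lam) (R y.2) y.1) +
      (0, x.2 - y.2) := by
    have : ((0 : ℂ), x.2 - y.2) = ((0:ℂ), x.2) - ((0:ℂ), y.2) := by simp
    rw [this, TM, TM]; abel
  have h5 : ‖((0 : ℂ), x.2 - y.2)‖ = |x.2 - y.2| := by
    simp [Prod.norm_def]
  rw [e]
  have hK := hS.K0
  calc _ ≤ ‖sc (Q2 ε G lam) (g2 G lam) (R x.2) x.1 - sc (Q2 ε G lam) (g2 G lam) (R x.2) y.1‖ +
        ‖sc (Q2 ε G lam) (g2 G lam) (R x.2) y.1 - sc (Q2 ε G lam) (g2 G lam) (R y.2) y.1‖ +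
        ‖((0 : ℂ), x.2 - y.2)‖ := (norm_add_le _ _).trans (by gcongr; exact norm_add_le _ _)
    _ ≤ K * ‖x - y‖ + 1 / 2 * ‖x - y‖ + ‖x - y‖ := by
        rw [h5]
        have := mul_le_mul_of_nonneg_left h3 hK
        gcongr
        · exact h1.trans this
        · exact h2.trans (by gcongr)
    _ ≤ (K + 2) * ‖x - y‖ := by nlinarith [norm_nonneg (x - y)]

lemma TM_homeo (hε1 : ε₀ ≤ 1) : IsHomeomorph (TM (Q2 ε G lam) (g2 G lam) R) := by
  have hc : Continuous (TM (Q2 ε G lam) (g2 G lam) R) := by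
    have : LipschitzWith (Real.toNNReal (K + 2)) (TM (Q2 ε G lam) (g2 G lam) R) := by
      refine LipschitzWith.of_dist_le_mul fun x y => ?_
      rw [dist_eq_norm, dist_eq_norm, Real.coe_toNNReal _ (by have := hS.K0; linarith)]
      exact TM_lip hS hR hRL hε₀ x y
    exact this.continuous
  rw [isHomeomorph_iff_continuous_isClosedMap_bijective]
  refine ⟨hc, ?_, TM_bij P h hS hR hRL hε₀⟩
  have hprop : IsProperMap (TM (Q2 ε G lam) (g2 G lam) R) := by
    rw [isProperMap_iff_tendsto_cocompact]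
    refine ⟨hc, Filter.tendsto_cocompact_cocompact_of_norm fun β => ?_⟩
    set b := max β 0 with hb
    have hb0 : 0 ≤ b := le_max_right _ _
    have hm := P.m0
    have hK := hS.K0
    refine ⟨b / mb + (b + K * (b / mb)) + R 0 + (b + K * (b / mb)), fun x hx => ?_⟩
    by_contra hcon
    have hle : ‖TM (Q2 ε G lam) (g2 G lam) R x‖ ≤ b := (not_lt.mp hcon).trans (le_max_left _ _)
    obtain ⟨z, s⟩ := x
    have h1 : ‖(sc (Q2 ε G lam) (g2 G lam) (R s) z).1‖ ≤ b := by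
      have := norm_fst_le (TM (Q2 ε G lam) (g2 G lam) R (z, s))
      have e : (TM (Q2 ε G lam) (g2 G lam) R (z, s)).1 =
          (sc (Q2 ε G lam) (g2 G lam) (R s) z).1 := by simp [TM]
      rw [e] at this
      exact this.trans hle
    have h2 : |(sc (Q2 ε G lam) (g2 G lam) (R s) z).2 + s| ≤ b := by
      have := norm_snd_le (TM (Q2 ε G lam) (g2 G lam) R (z, s))
      have e : (TM (Q2 ε G lam) (g2 G lam) R (z, s)).2 =
          (sc (Q2 ε G lam) (g2 G lam) (R s) z).2 + s := by simp [TM]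
      rw [e, Real.norm_eq_abs] at this
      exact this.trans hle
    obtain ⟨y, hy⟩ := P.surj_G h.toPl (sc (Q2 ε G lam) (g2 G lam) (R s) z).1
    have hyn : ‖y‖ ≤ b / mb := by
      obtain ⟨i, hi⟩ := h.sel y
      have h3 := P.hm i y
      rw [← hi, hy] at h3
      rw [le_div_iff₀ hm]
      linarith
    have e3 := sc_snd_eq P h (hR s) hy.symm
    have h4 : |(sc (Q2 ε G lam) (g2 G lam) (R s) z).2| ≤ K * (b / mb) := by
      rw [e3]
      have h5 := norm_snd_le (sc (Q2 ε G lam) (g2 G lam) (R s) y)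
      rw [Real.norm_eq_abs] at h5
      exact h5.trans ((hS.sc_norm (hR s) y).trans (by gcongr))
    have hs : |s| ≤ b + K * (b / mb) := by
      have h6 : s = ((sc (Q2 ε G lam) (g2 G lam) (R s) z).2 + s) -
        (sc (Q2 ε G lam) (g2 G lam) (R s) z).2 := by ring
      calc |s| = |((sc (Q2 ε G lam) (g2 G lam) (R s) z).2 + s) -
            (sc (Q2 ε G lam) (g2 G lam) (R s) z).2| := by rw [← h6]
        _ ≤ _ := abs_sub _ _
        _ ≤ b + K * (b / mb) := add_le_add h2 h4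
    have hRs : R s ≤ R 0 + (b + K * (b / mb)) := by
      have h7 := hRL s 0
      rw [sub_zero] at h7
      have h8 := (abs_le.mp h7).2
      have h9 : ε₀ * |s| ≤ 1 * |s| := mul_le_mul_of_nonneg_right hε1 (abs_nonneg _)
      linarith
    have hz : ‖z‖ ≤ b / mb + R 0 + (b + K * (b / mb)) := by
      have hR0 := hR 0
      have hbm : 0 ≤ b / mb := by positivity
      have hKb : 0 ≤ K * (b / mb) := by positivity
      rcases le_or_gt (R s) ‖z‖ with h10 | h10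
      · have h11 := hS.sc_of_le (hR s) h10
        rw [h11] at hy
        have h12 : y = z := h.inj hy
        rw [← h12]; linarith
      · linarith
    have hfin : ‖((z, s) : M)‖ ≤ b / mb + (b + K * (b / mb)) + R 0 + (b + K * (b / mb)) := by
      have hR0 := hR 0
      have hbm : 0 ≤ b / mb := by positivity
      have hKb : 0 ≤ K * (b / mb) := by positivity
      rw [Prod.norm_def]
      refine max_le ?_ ?_
      · show ‖z‖ ≤ _
        linarith
      · show ‖s‖ ≤ _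
        rw [Real.norm_eq_abs]; linarith
    linarith
  exact hprop.isClosedMap

end

end Crest.Agent.R096.Ed_276
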