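/-
R096 / P5-EDGE (helper276), part 9: the class Moll for the model map read in `E`.
-/
import Crest.Agent.R096.Ed8_276
import Crest.Agent.R096.P5Spec_205

open Set Metric Filter Topology MeasureTheory
open scoped ComplexConjugate NNReal

namespace Crest.Agent.R096.Ed_276

/-- selections of finitely many linear maps are locally linear off the coincidence set. -/
lemma sel_local {V F ι : Type*} [NormedAddCommGroup V] [NormedSpace ℝ V] [NormedAddCommGroup F]
    [NormedSpace ℝ F] [Finite ι] {A : ι → V →L[ℝ] F} {H : V → F} (hc : Continuous H)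
    (sel : ∀ x, ∃ i, H x = A i x) {x : V} (hx : ∀ i j, A i x = A j x → A i = A j) :
    ∃ i, ∀ᶠ y in 𝓝 x, H y = A i y := by
  obtain ⟨i, hi⟩ := sel x
  refine ⟨i, ?_⟩
  have h1 : ∀ᶠ y in 𝓝 x, ∀ j, H x ≠ A j x → H y ≠ A j y := by
    rw [eventually_all]
    intro j
    by_cases hj : H x = A j x
    · filter_upwards with y h; exact absurd hj h
    · have : IsOpen {y | H y ≠ A j y} := isOpen_ne_fun hc (A j).continuous
      filter_upwards [this.mem_nhds hj] with y hy _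
      exact hy
  filter_upwards [h1] with y hy
  obtain ⟨j, hj⟩ := sel y
  have h2 : H x = A j x := by
    by_contra h
    exact hy j h hj
  rw [hj, hx i j (hi.symm.trans h2)]

/-- a.e. point avoids the coincidence sets of finitely many linear maps. -/
lemma ae_sel {E F ι : Type*} [NormedAddCommGroup E] [NormedSpace ℝ E] [FiniteDimensional ℝ E]
    [MeasurableSpace E] [BorelSpace E] (μ : Measure E) [μ.IsAddHaarMeasure]
    [NormedAddCommGroup F] [NormedSpace ℝ F] [Finite ι] (A : ι → E →L[ℝ] F) :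
    ∀ᵐ x ∂μ, ∀ i j, A i x = A j x → A i = A j := by
  rw [ae_all_iff]; intro i
  rw [ae_all_iff]; intro j
  by_cases hij : A i = A j
  · exact Eventually.of_forall fun _ _ => hij
  · have h1 : (LinearMap.ker ((A i - A j : E →L[ℝ] F) : E →ₗ[ℝ] F)) ≠ ⊤ := by
      intro h
      apply hij
      rw [LinearMap.ker_eq_top] at h
      have : A i - A j = 0 := by
        ext x
        have := LinearMap.congr_fun h x
        simpa using this
      exact sub_eq_zero.mp this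
    have h2 := Measure.addHaar_submodule μ _ h1
    have h3 : ∀ᵐ x ∂μ, x ∉ ((LinearMap.ker ((A i - A j : E →L[ℝ] F) : E →ₗ[ℝ] F) : Submodule ℝ E) :
        Set E) := measure_eq_zero_iff_ae_notMem.mp h2
    filter_upwards [h3] with x hx heq
    exfalso
    apply hx
    simp [heq]

/-- stability of the positivity of the determinant. -/
lemma det_stable (C c : ℝ) (hc : 0 < c) : ∃ η > 0, ∀ N N' : M →L[ℝ] M, ‖N‖ ≤ C → c ≤ N.det →
    ‖N' - N‖ ≤ η → 0 < N'.det := by
  have hcomp : IsCompact (closedBall (0 : M →L[ℝ] M) (C + 1)) := isCompact_closedBall _ _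
  have hu := hcomp.uniformContinuousOn_of_continuous
    (ContinuousLinearMap.continuous_det (𝕜 := ℝ) (E := M)).continuousOn
  rw [Metric.uniformContinuousOn_iff] at hu
  obtain ⟨δ, hδ, h⟩ := hu c hc
  refine ⟨min (δ / 2) 1, by positivity, fun N N' hN hd hNN => ?_⟩
  have h1 : N ∈ closedBall (0 : M →L[ℝ] M) (C + 1) := by
    rw [mem_closedBall, dist_zero_right]; linarith
  have h2 : N' ∈ closedBall (0 : M →L[ℝ] M) (C + 1) := by
    rw [mem_closedBall, dist_zero_right]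
    calc ‖N'‖ = ‖(N' - N) + N‖ := by congr 1; abel
      _ ≤ ‖N' - N‖ + ‖N‖ := norm_add_le _ _
      _ ≤ 1 + C := add_le_add (hNN.trans (min_le_right _ _)) hN
      _ = C + 1 := by ring
  have h3 := h N' h2 N h1 (by
    rw [dist_eq_norm]
    calc ‖N' - N‖ ≤ δ / 2 := hNN.trans (min_le_left _ _)
      _ < δ := by linarith)
  rw [Real.dist_eq] at h3
  have := (abs_lt.mp h3).1
  linarith

section core

variable {E : Type*} [NormedAddCommGroup E] [InnerProductSpace ℝ E] [FiniteDimensional ℝ E]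
  [MeasureSpace E] [BorelSpace E] [(volume : Measure E).IsAddHaarMeasure]

variable {ι : Type*} {B : ι → ℂ →L[ℝ] ℂ} {l : ι → ℂ →L[ℝ] ℝ} {G : ℂ → ℂ} {lam : ℂ → ℝ}
  {Cb mb dm Λ ε K : ℝ}

lemma TM_shift_fst (Q g : ℂ → M) (R : ℝ → ℝ) (x : M) (w : ℂ) (t : ℝ) :
    TM Q g R (x + t • ((w, 0) : M)) = sc Q g (R x.2) (x.1 + t • w) + (0, x.2) := by
  simp [TM]

lemma TM_shift_snd (Q g : ℂ → M) (R : ℝ → ℝ) (x : M) (t : ℝ) :
    TM Q g R (x + t • ((0, 1) : M)) = sc Q g (R (x.2 + t)) x.1 + (0, x.2 + t) := by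
  simp [TM]

/-- the derivative of the model map at a point of differentiability. -/
lemma fderiv_TM (h : Pl2 B l G lam) (hS : ScD (Q2 ε G lam) (g2 G lam) K) {R : ℝ → ℝ} {ε₀ : ℝ}
    (hR : ∀ s, 0 ≤ R s) (hRL : ∀ s t, |R s - R t| ≤ ε₀ * |s - t|) {m : M}
    (hd : DifferentiableAt ℝ (TM (Q2 ε G lam) (g2 G lam) R) m) (hRm : 0 < R m.2) (hm : m.1 ≠ 0)
    {i : ι} (hi : ∀ᶠ w in 𝓝 ((R m.2)⁻¹ • m.1), G w = B i w ∧ lam w = l i w) :
    ‖fderiv ℝ (TM (Q2 ε G lam) (g2 G lam) R) m -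
      tri (dGt ε (Lg G) ((R m.2)⁻¹ • m.1) (dL (B i) ((R m.2)⁻¹ • m.1)))
        (dlt lam ((R m.2)⁻¹ • m.1) (l i))‖ ≤ 2 * K * ε₀ := by
  set ζ : ℂ := (R m.2)⁻¹ • m.1 with hζ
  have hζ0 : ζ ≠ 0 := smul_ne_zero (inv_ne_zero hRm.ne') hm
  set D := dGt ε (Lg G) ζ (dL (B i) ζ) with hD
  set ℓ := dlt lam ζ (l i) with hℓ
  set T := TM (Q2 ε G lam) (g2 G lam) R with hT
  set F := fderiv ℝ T m with hF
  have hfd : HasFDerivAt T F m := hd.hasFDerivAt
  have hK := hS.K0
  have hε₀ : 0 ≤ ε₀ := by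
    have := hRL 1 0
    have h2 := (abs_nonneg _).trans this
    simpa using h2
  -- horizontal directions
  have hhor : ∀ w : ℂ, F (w, 0) = (D w, ℓ w) := by
    intro w
    have h1 : HasDerivAt (fun t : ℝ => T (m + t • ((w, 0) : M))) (F (w, 0)) 0 := by
      have := hfd.hasLineDerivAt ((w, 0) : M)
      exact this
    have hG : HasFDerivAt (Gt ε (Lg G)) D ζ :=
      h.toPl.hasFDerivAt_Gt hζ0 (hi.mono fun _ h => h.1)
    have hl : HasFDerivAt lam (l i) ζ :=
      (l i).hasFDerivAt.congr_of_eventuallyEq (hi.mono fun _ h => h.2)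
    have hlt : HasFDerivAt (lt lam) ℓ ζ := hasFDerivAt_lt hζ0 hl
    have hQ : HasFDerivAt (Q2 ε G lam) (D.prod ℓ) ζ := hG.prodMk hlt
    have hline : HasDerivAt (fun t : ℝ => (R m.2)⁻¹ • (m.1 + t • w)) ((R m.2)⁻¹ • w) 0 := by
      have h3 : HasDerivAt (fun t : ℝ => m.1 + t • w) ((1:ℝ) • w) 0 :=
        ((hasDerivAt_id (0:ℝ)).smul_const w).const_add m.1
      rw [one_smul] at h3
      exact h3.const_smul ((R m.2)⁻¹ : ℝ)
    have hQ' : HasFDerivAt (Q2 ε G lam) (D.prod ℓ) ((R m.2)⁻¹ • (m.1 + (0:ℝ) • w)) := by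
      rw [zero_smul, add_zero]; exact hQ
    have h4 := hQ'.comp_hasDerivAt (0:ℝ) hline
    have h5 : HasDerivAt (fun t : ℝ => T (m + t • ((w, 0) : M)))
        (R m.2 • (D.prod ℓ) ((R m.2)⁻¹ • w)) 0 := by
      have h6 := (h4.const_smul (R m.2)).add_const ((0, m.2) : M)
      refine h6.congr_of_eventuallyEq (Eventually.of_forall fun t => ?_)
      show T (m + t • ((w, 0) : M)) = _
      rw [hT, TM_shift_fst, sc_pos hRm.ne']
      rfl
    have h7 := h1.unique h5
    rw [h7, map_smul, smul_smul, mul_inv_cancel₀ hRm.ne', one_smul]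
    rfl
  -- vertical direction
  have hver : ‖F (0, 1) - (0, 1)‖ ≤ 2 * K * ε₀ := by
    have h1 : HasDerivAt (fun t : ℝ => T (m + t • ((0, 1) : M))) (F (0, 1)) 0 :=
      hfd.hasLineDerivAt ((0, 1) : M)
    have h2 : HasDerivAt (fun t : ℝ => T (m + t • ((0, 1) : M)) - ((0 : ℂ), m.2 + t))
        (F (0, 1) - (0, 1)) 0 := by
      refine h1.sub ?_
      exact (hasDerivAt_const (0:ℝ) (0:ℂ)).prodMk ((hasDerivAt_id (0:ℝ)).const_add m.2)
    have h3 : ∀ t : ℝ, ‖(T (m + t • ((0, 1) : M)) - ((0 : ℂ), m.2 + t)) -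
        (T (m + (0:ℝ) • ((0, 1) : M)) - ((0 : ℂ), m.2 + 0))‖ ≤ (2 * K * ε₀) * ‖t - 0‖ := by
      intro t
      rw [hT, TM_shift_snd, TM_shift_snd, add_sub_cancel_right, add_sub_cancel_right]
      have h4 := hS.sc_lipR (hR (m.2 + t)) (hR (m.2 + 0)) m.1
      have h5 := hRL (m.2 + t) (m.2 + 0)
      have h6 : m.2 + t - (m.2 + 0) = t := by ring
      rw [h6] at h5
      calc _ ≤ 2 * K * |R (m.2 + t) - R (m.2 + 0)| := h4
        _ ≤ 2 * K * (ε₀ * |t|) := by gcongr
        _ = (2 * K * ε₀) * ‖t - 0‖ := by rw [sub_zero, Real.norm_eq_abs]; ring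
    have h4 := h2.hasFDerivAt.le_of_lip' (C := 2 * K * ε₀) (by positivity)
      (Eventually.of_forall h3)
    have h5 := (ContinuousLinearMap.toSpanSingleton ℝ (F (0, 1) - ((0:ℂ), (1:ℝ)))).le_opNorm 1
    rw [ContinuousLinearMap.toSpanSingleton_apply, one_smul, norm_one, mul_one] at h5
    exact h5.trans h4
  refine ContinuousLinearMap.opNorm_le_bound _ (by positivity) fun x => ?_
  obtain ⟨w, r⟩ := x
  have h1 : ((w, r) : M) = (w, 0) + r • ((0, 1) : M) := by simp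
  have h2 : (F - tri D ℓ) (w, r) = r • (F (0, 1) - (0, 1)) := by
    rw [sub_apply, h1, map_add, map_smul, hhor, map_add, map_smul]
    simp only [tri_apply, map_zero]
    apply Prod.ext
    · simp
    · simp
      ring
  rw [h2, norm_smul]
  have h3 : ‖r‖ ≤ ‖((w, r) : M)‖ := norm_snd_le ((w, r) : M)
  calc ‖r‖ * ‖F (0, 1) - (0, 1)‖ ≤ ‖((w, r) : M)‖ * (2 * K * ε₀) :=
        mul_le_mul h3 hver (norm_nonneg _) (norm_nonneg _)
    _ = 2 * K * ε₀ * ‖((w, r) : M)‖ := by ring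

end core

end Crest.Agent.R096.Ed_276
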