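/-
R096 / P5-EDGE (helper276), part 10: the class Moll for the model map read in `E`.
-/
import Crest.Agent.R096.Ed9_276

open Set Metric Filter Topology MeasureTheory
open scoped ComplexConjugate NNReal

namespace Crest.Agent.R096.Ed_276

section core

variable {E : Type*} [NormedAddCommGroup E] [InnerProductSpace ℝ E] [FiniteDimensional ℝ E]
  [MeasureSpace E] [BorelSpace E] [(volume : Measure E).IsAddHaarMeasure]

variable {ι : Type*} {B : ι → ℂ →L[ℝ] ℂ} {l : ι → ℂ →L[ℝ] ℝ} {G : ℂ → ℂ} {lam : ℂ → ℝ}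
  {Cb mb dm Λ ε K : ℝ}

omit [FiniteDimensional ℝ E] [MeasureSpace E] [BorelSpace E]
  [(volume : Measure E).IsAddHaarMeasure] in
lemma clm_det_comp (A B : E →L[ℝ] E) : (A.comp B).det = A.det * B.det :=
  LinearMap.det_comp (A : E →ₗ[ℝ] E) (B : E →ₗ[ℝ] E)

lemma moll_core [Finite ι] (h : Pl2 B l G lam) (hS : ScD (Q2 ε G lam) (g2 G lam) K) {R : ℝ → ℝ}
    {ε₀ : ℝ} (hR : ∀ s, 0 ≤ R s) (hRL : ∀ s t, |R s - R t| ≤ ε₀ * |s - t|)
    (hε₀ : 4 * K * ε₀ ≤ 1) (Φ 𝒜 : M ≃L[ℝ] E)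
    (hA : 0 < ((𝒜 : M →L[ℝ] E).comp (Φ.symm : E →L[ℝ] M)).det) {x₀ : E}
    (hx₀ : 0 < R (Φ.symm x₀).2) (K₀ : Set (M →L[ℝ] M)) (hcv : Convex ℝ K₀) (hcp : IsCompact K₀)
    (hdet : ∀ N ∈ K₀, ∀ N', ‖N' - N‖ ≤ 2 * K * ε₀ → 0 < N'.det)
    (hmem : ∀ᶠ ζ in 𝓝 ((R (Φ.symm x₀).2)⁻¹ • (Φ.symm x₀).1), ζ ≠ 0 → ∀ i,
      (∀ᶠ w in 𝓝 ζ, G w = B i w ∧ lam w = l i w) →
        tri (dGt ε (Lg G) ζ (dL (B i) ζ)) (dlt lam ζ (l i)) ∈ K₀) :
    P5Spec_205.MollAt (fun x => 𝒜 (TM (Q2 ε G lam) (g2 G lam) R (Φ.symm x))) x₀ := by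
  have hK := hS.K0
  have hε0 : 0 ≤ ε₀ := by
    have := hRL 1 0
    have h2 := (abs_nonneg _).trans this
    simpa using h2
  have hRc : Continuous R := by
    have : LipschitzWith (Real.toNNReal ε₀) R := by
      refine LipschitzWith.of_dist_le_mul fun s t => ?_
      rw [Real.dist_eq, Real.dist_eq, Real.coe_toNNReal _ hε0]
      exact hRL s t
    exact this.continuous
  set T : M → M := TM (Q2 ε G lam) (g2 G lam) R with hT
  -- Lipschitz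
  have hTL : LipschitzWith (Real.toNNReal (K + 2)) T := by
    refine LipschitzWith.of_dist_le_mul fun x y => ?_
    rw [dist_eq_norm, dist_eq_norm, Real.coe_toNNReal _ (by linarith)]
    exact TM_lip hS hR hRL hε₀ x y
  set f : E → E := fun x => 𝒜 (T (Φ.symm x)) with hf
  have hfL : LipschitzWith (‖(𝒜 : M →L[ℝ] E)‖₊ * (Real.toNNReal (K + 2) *
      ‖(Φ.symm : E →L[ℝ] M)‖₊)) f :=
    (𝒜 : M →L[ℝ] E).lipschitz.comp (hTL.comp (Φ.symm : E →L[ℝ] M).lipschitz)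
  -- the neighbourhood
  have hcont : ContinuousAt (fun x : E => (R (Φ.symm x).2)⁻¹ • (Φ.symm x).1) x₀ := by
    have h1 : ContinuousAt (fun x : E => R (Φ.symm x).2) x₀ :=
      (hRc.comp (continuous_snd.comp Φ.symm.continuous)).continuousAt
    exact (h1.inv₀ hx₀.ne').smul (continuous_fst.comp Φ.symm.continuous).continuousAt
  have hev1 := hcont.eventually hmem
  have hev2 : ∀ᶠ x in 𝓝 x₀, 0 < R (Φ.symm x).2 :=
    ((hRc.comp (continuous_snd.comp Φ.symm.continuous)).continuousAt).eventually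
      (Ioi_mem_nhds hx₀)
  obtain ⟨r, hr, hball⟩ := Metric.eventually_nhds_iff_ball.mp (hev1.and hev2)
  -- a.e. good points
  let A : ι → E →L[ℝ] M := fun i =>
    ((B i).prod (l i)).comp ((ContinuousLinearMap.fst ℝ ℂ ℝ).comp (Φ.symm : E →L[ℝ] M))
  have hae1 := ae_sel (volume : Measure E) A
  let A2 : Bool → E →L[ℝ] ℂ := fun b =>
    bif b then ((ContinuousLinearMap.fst ℝ ℂ ℝ).comp (Φ.symm : E →L[ℝ] M)) else 0
  have hae2 := ae_sel (volume : Measure E) A2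
  have hae3 : ∀ᵐ x ∂(volume : Measure E), DifferentiableAt ℝ f x := hfL.ae_differentiableAt
  have hA2 : A2 true ≠ A2 false := by
    intro h0
    have h1 := congrArg (fun L : E →L[ℝ] ℂ => L (Φ (1, 0))) h0
    simp [A2] at h1
  -- the compact set
  set KK : Set (E →L[ℝ] E) := (fun N' : M →L[ℝ] M =>
    (𝒜 : M →L[ℝ] E).comp (N'.comp (Φ.symm : E →L[ℝ] M))) '' (cthickening (2 * K * ε₀) K₀) with hKK
  have hη : 0 ≤ 2 * K * ε₀ := by positivity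
  refine ⟨r, hr, KK, ?_, ?_, ?_, ⟨_, hfL.lipschitzOnWith⟩, ?_⟩
  · -- convex
    rintro _ ⟨N, hN, rfl⟩ _ ⟨N', hN', rfl⟩ a b ha hb hab
    refine ⟨a • N + b • N', (hcv.cthickening _) hN hN' ha hb hab, ?_⟩
    ext x
    simp
  · refine (hcp.cthickening).image ?_
    have h1 : Continuous fun N' : M →L[ℝ] M => N'.comp (Φ.symm : E →L[ℝ] M) :=
      continuous_id.clm_comp continuous_const
    exact continuous_const.clm_comp h1
  · rintro _ ⟨N', hN', rfl⟩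
    rw [hcp.cthickening_eq_biUnion_closedBall hη] at hN'
    simp only [mem_iUnion, mem_closedBall, exists_prop] at hN'
    obtain ⟨N, hN, hd⟩ := hN'
    rw [dist_eq_norm] at hd
    have h1 := hdet N hN N' hd
    -- determinant of the conjugate
    have e1 : (𝒜 : M →L[ℝ] E).comp (N'.comp (Φ.symm : E →L[ℝ] M)) =
        ((𝒜 : M →L[ℝ] E).comp (Φ.symm : E →L[ℝ] M)).comp
          ((Φ : M →L[ℝ] E).comp (N'.comp (Φ.symm : E →L[ℝ] M))) := by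
      ext x; simp
    have e2 : ((Φ : M →L[ℝ] E).comp (N'.comp (Φ.symm : E →L[ℝ] M))).det = N'.det := by
      have := LinearMap.det_conj (N' : M →ₗ[ℝ] M) Φ.toLinearEquiv
      exact this
    show 0 < ((𝒜 : M →L[ℝ] E).comp (N'.comp (Φ.symm : E →L[ℝ] M))).det
    rw [e1, clm_det_comp, e2]
    exact mul_pos hA h1
  · filter_upwards [hae1, hae2, hae3] with x hx1 hx2 hx3 hxb
    obtain ⟨hm1, hRx⟩ := hball x hxb
    set m : M := Φ.symm x with hm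
    have hm0 : m.1 ≠ 0 := by
      intro h0
      apply hA2
      apply hx2
      simp only [A2, cond_true, cond_false]
      simpa using h0
    have hζ0 : (R m.2)⁻¹ • m.1 ≠ 0 := smul_ne_zero (inv_ne_zero hRx.ne') hm0
    -- local linearity
    have hloc : ∃ i, ∀ᶠ w in 𝓝 ((R m.2)⁻¹ • m.1), g2 G lam w = ((B i).prod (l i)) w := by
      refine sel_local (A := fun i => (B i).prod (l i)) ?_ ?_ ?_
      · exact h.cont.prodMk h.contl
      · intro w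
        obtain ⟨i, hi⟩ := h.sel2 w
        exact ⟨i, Prod.ext hi.1 hi.2⟩
      · intro i j hij
        have h1 : A i x = A j x := by
          show ((B i).prod (l i)) m.1 = ((B j).prod (l j)) m.1
          have h2 : m.1 = R m.2 • ((R m.2)⁻¹ • m.1) := by
            rw [smul_smul, mul_inv_cancel₀ hRx.ne', one_smul]
          have e : ∀ k, ((B k).prod (l k)) m.1 =
              R m.2 • ((B k).prod (l k)) ((R m.2)⁻¹ • m.1) := fun k => by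
            rw [← map_smul, ← h2]
          rw [e i, e j, hij]
        have h3 := hx1 i j h1
        ext w
        · have h4 := congrArg (fun L : E →L[ℝ] M => (L (Φ (w, 0))).1) h3
          simpa [A] using h4
        · have h4 := congrArg (fun L : E →L[ℝ] M => (L (Φ (w, 0))).2) h3
          simpa [A] using h4
    obtain ⟨i, hi⟩ := hloc
    have hi' : ∀ᶠ w in 𝓝 ((R m.2)⁻¹ • m.1), G w = B i w ∧ lam w = l i w := by
      filter_upwards [hi] with w hw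
      exact ⟨congrArg Prod.fst hw, congrArg Prod.snd hw⟩
    have hN := hm1 hζ0 i hi'
    -- differentiability of T at m
    have hTd : DifferentiableAt ℝ T m := by
      have h1 : T = fun y => 𝒜.symm (f (Φ y)) := by
        funext y; simp [hf]
      rw [h1]
      have h2 : DifferentiableAt ℝ f (Φ m) := by rw [hm, Φ.apply_symm_apply]; exact hx3
      exact (𝒜.symm.differentiableAt).comp m (h2.comp m Φ.differentiableAt)
    have hbound := fderiv_TM h hS hR hRL hTd hRx hm0 hi'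
    have hfd : fderiv ℝ f x = (𝒜 : M →L[ℝ] E).comp ((fderiv ℝ T m).comp (Φ.symm : E →L[ℝ] M)) := by
      have h1 : HasFDerivAt f ((𝒜 : M →L[ℝ] E).comp ((fderiv ℝ T m).comp
          (Φ.symm : E →L[ℝ] M))) x :=
        (𝒜 : M →L[ℝ] E).hasFDerivAt.comp x
          ((hTd.hasFDerivAt).comp x (Φ.symm : E →L[ℝ] M).hasFDerivAt)
      exact h1.fderiv
    rw [hfd]
    exact ⟨fderiv ℝ T m, mem_cthickening_of_dist_le _ _ _ _ hN (by rw [dist_eq_norm]; exact hbound),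
      rfl⟩

/-! ### the sets `K₀` -/

lemma K0_axis (h : Pl B G) (hlam0 : lam 0 = 0) (hε : 0 < ε) :
    ∀ᶠ ζ in 𝓝 (0:ℂ), ζ ≠ 0 → ∀ i,
      (∀ᶠ w in 𝓝 ζ, G w = B i w ∧ lam w = l i w) →
        tri (dGt ε (Lg G) ζ (dL (B i) ζ)) (dlt lam ζ (l i)) =
          ContinuousLinearMap.id ℝ M := by
  have h1 : ∀ᶠ ζ in 𝓝 (0:ℂ), ‖ζ‖ < min (Real.exp (-2 - 1/ε)) (Real.exp (-1)) := by
    have : Tendsto (fun z : ℂ => ‖z‖) (𝓝 0) (𝓝 0) := by
      simpa using (continuous_norm (E := ℂ)).tendsto 0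
    exact this.eventually (Iio_mem_nhds (lt_min (Real.exp_pos _) (Real.exp_pos _)))
  filter_upwards [h1] with ζ hζ hζ0 i hi
  have hnear : ∀ᶠ w in 𝓝 ζ, ‖w‖ < min (Real.exp (-2 - 1/ε)) (Real.exp (-1)) :=
    continuous_norm.continuousAt.eventually (Iio_mem_nhds hζ)
  have hG : HasFDerivAt (Gt ε (Lg G)) (dGt ε (Lg G) ζ (dL (B i) ζ)) ζ :=
    h.hasFDerivAt_Gt hζ0 (hi.mono fun _ h => h.1)
  have hG2 : HasFDerivAt (Gt ε (Lg G)) (ContinuousLinearMap.id ℝ ℂ) ζ := by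
    refine (hasFDerivAt_id ζ).congr_of_eventuallyEq ?_
    filter_upwards [hnear] with w hw
    exact Gt_near_zero hε _ (hw.le.trans (min_le_left _ _))
  have hl : HasFDerivAt lam (l i) ζ :=
    (l i).hasFDerivAt.congr_of_eventuallyEq (hi.mono fun _ h => h.2)
  have hlt : HasFDerivAt (lt lam) (dlt lam ζ (l i)) ζ := hasFDerivAt_lt hζ0 hl
  have hlt2 : HasFDerivAt (lt lam) (0 : ℂ →L[ℝ] ℝ) ζ := by
    refine (hasFDerivAt_const (0:ℝ) ζ).congr_of_eventuallyEq ?_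
    filter_upwards [hnear] with w hw
    exact lt_of_small (hw.le.trans (min_le_right _ _)) hlam0
  rw [hG.unique hG2, hlt.unique hlt2]
  ext x <;> simp

/-- radial derivative. -/
noncomputable def Vr (ε : ℝ) (G : ℂ → ℂ) (z : ℂ) : ℂ :=
  Gt ε (Lg G) z * (1 + ((dcut ε (-1 - 1/ε) z * (Lg G z).re : ℝ) : ℂ)
      + ((dcut 1 (-2 - 1/ε) z * (Lg G z).im : ℝ) : ℂ) * Complex.I)

lemma continuousAt_Vr (h : Pl B G) (hε : 0 < ε) {z : ℂ} (hz : z ≠ 0) :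
    ContinuousAt (Vr ε G) z := by
  have h1 := h.continuousAt_Lg hz
  refine (h.continuous_Gt hε).continuousAt.mul ?_
  refine (continuousAt_const.add ?_).add (ContinuousAt.mul ?_ continuousAt_const)
  · exact Complex.continuous_ofReal.continuousAt.comp
      ((continuousAt_dcut _ _ hz).mul (Complex.continuous_re.continuousAt.comp h1))
  · exact Complex.continuous_ofReal.continuousAt.comp
      ((continuousAt_dcut _ _ hz).mul (Complex.continuous_im.continuousAt.comp h1))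

/-- the convex compact set at `ζ₀`. -/
def KS (C2 c1 θ : ℝ) (ζ₀ V₀ : ℂ) : Set (M →L[ℝ] M) :=
  {N | N (0, 1) = (0, 1) ∧ ‖N‖ ≤ C2 ∧ ‖(N (ζ₀, 0)).1 - V₀‖ ≤ θ ∧
    3 / 4 * c1 * ‖ζ₀‖ ^ 2 ≤ cr V₀ (N (Complex.I * ζ₀, 0)).1}

lemma KS_convex (C2 c1 θ : ℝ) (ζ₀ V₀ : ℂ) : Convex ℝ (KS C2 c1 θ ζ₀ V₀) := by
  rintro N ⟨h1, h2, h3, h4⟩ N' ⟨h1', h2', h3', h4'⟩ a b ha hb hab
  refine ⟨?_, ?_, ?_, ?_⟩
  · rw [add_apply, smul_apply, smul_apply, h1, h1', ← add_smul, hab, one_smul]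
  · calc ‖a • N + b • N'‖ ≤ ‖a • N‖ + ‖b • N'‖ := norm_add_le _ _
      _ = a * ‖N‖ + b * ‖N'‖ := by
          rw [norm_smul, norm_smul, Real.norm_eq_abs, Real.norm_eq_abs, abs_of_nonneg ha,
            abs_of_nonneg hb]
      _ ≤ a * C2 + b * C2 := by gcongr
      _ = C2 := by rw [← add_mul, hab, one_mul]
  · have e : ((a • N + b • N') (ζ₀, 0)).1 - V₀ =
        a • ((N (ζ₀, 0)).1 - V₀) + b • ((N' (ζ₀, 0)).1 - V₀) := by
      have : V₀ = (a + b) • V₀ := by rw [hab, one_smul]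
      conv_lhs => rw [this]
      simp only [add_apply, smul_apply, Prod.fst_add, Prod.smul_fst]
      module
    rw [e]
    calc _ ≤ ‖a • ((N (ζ₀, 0)).1 - V₀)‖ + ‖b • ((N' (ζ₀, 0)).1 - V₀)‖ := norm_add_le _ _
      _ = a * ‖(N (ζ₀, 0)).1 - V₀‖ + b * ‖(N' (ζ₀, 0)).1 - V₀‖ := by
          rw [norm_smul, norm_smul, Real.norm_eq_abs, Real.norm_eq_abs, abs_of_nonneg ha,
            abs_of_nonneg hb]
      _ ≤ a * θ + b * θ := by gcongr
      _ = θ := by rw [← add_mul, hab, one_mul]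
  · have e : cr V₀ ((a • N + b • N') (Complex.I * ζ₀, 0)).1 =
        a * cr V₀ (N (Complex.I * ζ₀, 0)).1 + b * cr V₀ (N' (Complex.I * ζ₀, 0)).1 := by
      simp only [add_apply, smul_apply, Prod.fst_add, Prod.smul_fst]
      rw [cr_add_right, cr_smul_right, cr_smul_right]
    rw [e]
    calc 3 / 4 * c1 * ‖ζ₀‖ ^ 2 = a * (3 / 4 * c1 * ‖ζ₀‖ ^ 2) + b * (3 / 4 * c1 * ‖ζ₀‖ ^ 2) := by
          rw [← add_mul, hab, one_mul]
      _ ≤ _ := by gcongr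

lemma KS_compact (C2 c1 θ : ℝ) (ζ₀ V₀ : ℂ) : IsCompact (KS C2 c1 θ ζ₀ V₀) := by
  have hap : ∀ x : M, Continuous fun N : M →L[ℝ] M => N x := fun x =>
    (ContinuousLinearMap.apply ℝ M x).continuous
  refine (isCompact_closedBall (0 : M →L[ℝ] M) C2).of_isClosed_subset ?_ ?_
  · have hset : KS C2 c1 θ ζ₀ V₀ = {N : M →L[ℝ] M | N (0, 1) = (0, 1)} ∩
        ({N : M →L[ℝ] M | ‖N‖ ≤ C2} ∩ ({N : M →L[ℝ] M | ‖(N (ζ₀, 0)).1 - V₀‖ ≤ θ} ∩
        {N : M →L[ℝ] M | 3 / 4 * c1 * ‖ζ₀‖ ^ 2 ≤ cr V₀ (N (Complex.I * ζ₀, 0)).1})) := rfl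
    rw [hset]
    refine IsClosed.inter ?_ (IsClosed.inter ?_ (IsClosed.inter ?_ ?_))
    · exact isClosed_eq (f := fun N : M →L[ℝ] M => N (0, 1)) (hap _) continuous_const
    · exact isClosed_le (f := fun N : M →L[ℝ] M => ‖N‖) continuous_norm continuous_const
    · exact isClosed_le (f := fun N : M →L[ℝ] M => ‖(N (ζ₀, 0)).1 - V₀‖)
        (((continuous_fst.comp (hap _)).sub continuous_const).norm) continuous_const
    · refine isClosed_le continuous_const ?_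
      have h1 : Continuous fun N : M →L[ℝ] M => (N (Complex.I * ζ₀, 0)).1 :=
        continuous_fst.comp (hap _)
      unfold cr
      exact (continuous_const.mul (Complex.continuous_im.comp h1)).sub
        (continuous_const.mul (Complex.continuous_re.comp h1))
  · intro N hN
    rw [mem_closedBall, dist_zero_right]
    exact hN.2.1

lemma KS_det {C2 c1 : ℝ} (hC2 : 0 < C2) {ζ₀ V₀ : ℂ} (hζ : ζ₀ ≠ 0)
    {N : M →L[ℝ] M} (hN : N ∈ KS C2 c1 (c1 * ‖ζ₀‖ / (4 * C2)) ζ₀ V₀) : c1 / 2 ≤ N.det := by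
  obtain ⟨h1, h2, h3, h4⟩ := hN
  have hz' : 0 < ‖ζ₀‖ := norm_pos_iff.mpr hζ
  set D : ℂ →L[ℝ] ℂ := (ContinuousLinearMap.fst ℝ ℂ ℝ).comp
    (N.comp (ContinuousLinearMap.inl ℝ ℂ ℝ)) with hD
  have hDa : ∀ w, D w = (N (w, 0)).1 := fun w => rfl
  have hdet : N.det = D.det := by
    rw [det_M N h1, det_eq, hDa, hDa]
  have h5 := cr_apply D ζ₀
  have h6 : ‖D (Complex.I * ζ₀)‖ ≤ C2 * ‖ζ₀‖ := by
    rw [hDa]
    calc ‖(N (Complex.I * ζ₀, 0)).1‖ ≤ ‖N (Complex.I * ζ₀, 0)‖ := norm_fst_le _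
      _ ≤ ‖N‖ * ‖((Complex.I * ζ₀, 0) : M)‖ := N.le_opNorm _
      _ ≤ C2 * ‖ζ₀‖ := by
          have e : ‖((Complex.I * ζ₀, (0:ℝ)) : M)‖ = ‖ζ₀‖ := by
            simp [Prod.norm_def]
          rw [e]; gcongr
  have h7 : cr (D ζ₀) (D (Complex.I * ζ₀)) =
      cr V₀ (D (Complex.I * ζ₀)) + cr (D ζ₀ - V₀) (D (Complex.I * ζ₀)) := by
    rw [cr_sub_left]; ring
  have h8 : |cr (D ζ₀ - V₀) (D (Complex.I * ζ₀))| ≤ c1 * ‖ζ₀‖ / (4 * C2) * (C2 * ‖ζ₀‖) := by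
    refine (abs_cr_le _ _).trans ?_
    have h9 : 0 ≤ c1 * ‖ζ₀‖ / (4 * C2) := (norm_nonneg _).trans h3
    exact mul_le_mul h3 h6 (norm_nonneg _) h9
  have h10 : c1 * ‖ζ₀‖ / (4 * C2) * (C2 * ‖ζ₀‖) = c1 / 4 * ‖ζ₀‖ ^ 2 := by
    field_simp
  rw [h10] at h8
  have h11 := (abs_le.mp h8).1
  have h12 : c1 / 2 * ‖ζ₀‖ ^ 2 ≤ D.det * ‖ζ₀‖ ^ 2 := by
    rw [← h5, h7]
    have h4' : 3 / 4 * c1 * ‖ζ₀‖ ^ 2 ≤ cr V₀ (D (Complex.I * ζ₀)) := h4
    nlinarith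
  rw [hdet]
  exact le_of_mul_le_mul_right h12 (by positivity)

lemma K0_off (P : Par B G Cb mb dm Λ ε) (h : Pl B G) {C2 c1 θ : ℝ}
    (hθ : 0 < θ) (hc1 : c1 = Real.exp (-Λ) ^ 2 * (1 / 2 * min 1 (dm / Cb ^ 2)))
    (hC2 : ∀ ζ : ℂ, ζ ≠ 0 → ∀ i, (∀ᶠ w in 𝓝 ζ, G w = B i w ∧ lam w = l i w) →
      ‖tri (dGt ε (Lg G) ζ (dL (B i) ζ)) (dlt lam ζ (l i))‖ ≤ C2) {ζ₀ : ℂ} (hζ₀ : ζ₀ ≠ 0) :
    ∀ᶠ ζ in 𝓝 ζ₀, ζ ≠ 0 → ∀ i,
      (∀ᶠ w in 𝓝 ζ, G w = B i w ∧ lam w = l i w) →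
        tri (dGt ε (Lg G) ζ (dL (B i) ζ)) (dlt lam ζ (l i)) ∈ KS C2 c1 θ ζ₀ (Vr ε G ζ₀) := by
  have hc10 : 0 < c1 := by
    rw [hc1]
    have := P.Cb0; have := P.d0
    have : 0 < min 1 (dm / Cb ^ 2) := lt_min one_pos (by positivity)
    positivity
  have hz' : 0 < ‖ζ₀‖ := norm_pos_iff.mpr hζ₀
  have hV := continuousAt_Vr h P.ε0 hζ₀
  set C := C1 Cb mb Λ ε with hC
  have e1 : ∀ᶠ ζ in 𝓝 ζ₀, C * ‖ζ - ζ₀‖ + ‖Vr ε G ζ - Vr ε G ζ₀‖ < θ := by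
    have h1 : ContinuousAt (fun ζ => C * ‖ζ - ζ₀‖ + ‖Vr ε G ζ - Vr ε G ζ₀‖) ζ₀ :=
      (continuousAt_const.mul ((continuousAt_id.sub continuousAt_const).norm)).add
        ((hV.sub continuousAt_const).norm)
    refine h1.eventually (Iio_mem_nhds ?_)
    simpa using hθ
  have e2 : ∀ᶠ ζ in 𝓝 ζ₀, 3 / 4 * c1 * ‖ζ₀‖ ^ 2 <
      c1 * ‖ζ‖ ^ 2 - ‖Vr ε G ζ₀ - Vr ε G ζ‖ * (C * ‖ζ‖) - ‖Vr ε G ζ₀‖ * (C * ‖ζ - ζ₀‖) := by
    have h1 : ContinuousAt (fun ζ => c1 * ‖ζ‖ ^ 2 - ‖Vr ε G ζ₀ - Vr ε G ζ‖ * (C * ‖ζ‖) -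
        ‖Vr ε G ζ₀‖ * (C * ‖ζ - ζ₀‖)) ζ₀ := by
      refine ContinuousAt.sub (ContinuousAt.sub ?_ ?_) ?_
      · exact continuousAt_const.mul (continuousAt_id.norm.pow 2)
      · exact ((continuousAt_const.sub hV).norm).mul (continuousAt_const.mul continuousAt_id.norm)
      · exact continuousAt_const.mul (continuousAt_const.mul
          ((continuousAt_id.sub continuousAt_const).norm))
    refine h1.eventually (Ioi_mem_nhds ?_)
    simp only [sub_self, norm_zero, zero_mul, mul_zero, sub_zero]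
    have : 0 < c1 * ‖ζ₀‖ ^ 2 := by positivity
    linarith
  filter_upwards [e1, e2] with ζ h1 h2 hζ i hi
  have hzζ : 0 < ‖ζ‖ := norm_pos_iff.mpr hζ
  set D := dGt ε (Lg G) ζ (dL (B i) ζ) with hD
  have hBz : B i ζ ≠ 0 := by
    intro h0
    have := P.hm i ζ
    rw [h0, norm_zero] at this
    have := mul_pos P.m0 hzζ
    linarith
  have hD0 : dL (B i) ζ ζ = 0 := by rw [dL_apply, div_self hBz, div_self hζ, sub_self]
  have hDζ : D ζ = Vr ε G ζ := dGt_self ε _ hζ hD0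
  have hDn : ∀ v, ‖D v‖ ≤ C * ‖v‖ := P.norm_dGt hζ i
  refine ⟨?_, hC2 ζ hζ i hi, ?_, ?_⟩
  · simp
  · show ‖D ζ₀ - Vr ε G ζ₀‖ ≤ θ
    have e : D ζ₀ - Vr ε G ζ₀ = -(D (ζ - ζ₀)) + (Vr ε G ζ - Vr ε G ζ₀) := by
      rw [map_sub, hDζ]; ring
    rw [e]
    calc _ ≤ ‖-(D (ζ - ζ₀))‖ + ‖Vr ε G ζ - Vr ε G ζ₀‖ := norm_add_le _ _
      _ ≤ C * ‖ζ - ζ₀‖ + ‖Vr ε G ζ - Vr ε G ζ₀‖ := by rw [norm_neg]; gcongr; exact hDn _
      _ ≤ θ := h1.le
  · show 3 / 4 * c1 * ‖ζ₀‖ ^ 2 ≤ cr (Vr ε G ζ₀) (D (Complex.I * ζ₀))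
    have e : cr (Vr ε G ζ₀) (D (Complex.I * ζ₀)) = cr (D ζ) (D (Complex.I * ζ)) +
        cr (Vr ε G ζ₀ - Vr ε G ζ) (D (Complex.I * ζ)) -
        cr (Vr ε G ζ₀) (D (Complex.I * (ζ - ζ₀))) := by
      rw [hDζ, cr_sub_left, mul_sub, map_sub]
      have : cr (Vr ε G ζ₀) (D (Complex.I * ζ) - D (Complex.I * ζ₀)) =
          cr (Vr ε G ζ₀) (D (Complex.I * ζ)) - cr (Vr ε G ζ₀) (D (Complex.I * ζ₀)) := by
        simp only [cr, Complex.sub_re, Complex.sub_im]; ring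
      rw [this]; ring
    have h3 := P.cr_dGt hζ i
    rw [← hc1] at h3
    have h4 : |cr (Vr ε G ζ₀ - Vr ε G ζ) (D (Complex.I * ζ))| ≤
        ‖Vr ε G ζ₀ - Vr ε G ζ‖ * (C * ‖ζ‖) := by
      refine (abs_cr_le _ _).trans ?_
      gcongr
      refine (hDn _).trans ?_
      simp
    have h5 : |cr (Vr ε G ζ₀) (D (Complex.I * (ζ - ζ₀)))| ≤
        ‖Vr ε G ζ₀‖ * (C * ‖ζ - ζ₀‖) := by
      refine (abs_cr_le _ _).trans ?_
      gcongr
      refine (hDn _).trans ?_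
      simp
    have h6 := (abs_le.mp h4).1
    have h7 := (abs_le.mp h5).2
    rw [e]
    have h3' : c1 * ‖ζ‖ ^ 2 ≤ cr (D ζ) (D (Complex.I * ζ)) := h3
    linarith

end core

end Crest.Agent.R096.Ed_276
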