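/-
R096 / P5-EDGE (helper276), part 11: the edge theorem for normalised data.
-/
import Crest.Agent.R096.Ed10_276

open Set Metric Filter Topology MeasureTheory
open scoped ComplexConjugate NNReal

namespace Crest.Agent.R096.Ed_276

variable {E : Type*} [NormedAddCommGroup E] [InnerProductSpace ℝ E] [FiniteDimensional ℝ E]
  [MeasureSpace E] [BorelSpace E] [(volume : Measure E).IsAddHaarMeasure]

variable {ι : Type*} {B : ι → ℂ →L[ℝ] ℂ} {l : ι → ℂ →L[ℝ] ℝ} {G : ℂ → ℂ} {lam : ℂ → ℝ}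

/-- the edge theorem, normalised. -/
theorem edge_model [Finite ι] (h : Pl2 B l G lam) (Φ 𝒜 : M ≃L[ℝ] E)
    (hA : 0 < ((𝒜 : M →L[ℝ] E).comp (Φ.symm : E →L[ℝ] M)).det) :
    ∃ ε₀ > 0, ∃ C : ℝ≥0, ∃ Q : ℂ → M, (∀ z, 1 ≤ ‖z‖ → Q z = g2 G lam z) ∧
      ∀ R : ℝ → ℝ, (∀ s, 0 ≤ R s) → (∀ s t, |R s - R t| ≤ ε₀ * |s - t|) →
        IsHomeomorph (fun x => 𝒜 (TM Q (g2 G lam) R (Φ.symm x))) ∧
        LipschitzWith C (fun x => 𝒜 (TM Q (g2 G lam) R (Φ.symm x))) ∧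
        ∀ x, 0 < R (Φ.symm x).2 →
          P5Spec_205.MollAt (fun x => 𝒜 (TM Q (g2 G lam) R (Φ.symm x))) x := by
  obtain ⟨Cb, mb, dm, Λ, ε, P⟩ := exists_par h.toPl
  obtain ⟨K, Cl, hCl0, hCl, hS⟩ := h.exists_scD P
  obtain ⟨D, hD0, hD⟩ := exists_dst_bound
  have hK := hS.K0
  have hC1 : 0 ≤ C1 Cb mb Λ ε := by
    have h1 := P.Cb0; have h2 := P.m0; have h3 := P.ε0
    unfold C1; positivity
  set C2 : ℝ := C1 Cb mb Λ ε + 1 + (Cl + Cl * D) with hC2d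
  have hC20 : 0 < C2 := by positivity
  have hC2 : ∀ ζ : ℂ, ζ ≠ 0 → ∀ i, (∀ᶠ w in 𝓝 ζ, G w = B i w ∧ lam w = l i w) →
      ‖tri (dGt ε (Lg G) ζ (dL (B i) ζ)) (dlt lam ζ (l i))‖ ≤ C2 := by
    intro ζ hζ i hi
    refine ContinuousLinearMap.opNorm_le_bound _ hC20.le fun x => ?_
    have h1 := P.norm_dGt hζ i x.1
    have hlam : |lam ζ| ≤ Cl * ‖ζ‖ := by rw [hi.self_of_nhds.2]; exact hCl i ζ
    have h2 := norm_dlt hD (hCl i) hCl0 hζ hlam x.1
    have h3 : ‖x.1‖ ≤ ‖x‖ := norm_fst_le x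
    have h4 : ‖x.2‖ ≤ ‖x‖ := norm_snd_le x
    have hx := norm_nonneg x
    rw [tri_apply, Prod.norm_def]
    refine max_le ?_ ?_
    · calc _ ≤ C1 Cb mb Λ ε * ‖x.1‖ := h1
        _ ≤ C1 Cb mb Λ ε * ‖x‖ := by gcongr
        _ ≤ C2 * ‖x‖ := by
            refine mul_le_mul_of_nonneg_right ?_ hx
            rw [hC2d]; nlinarith
    · calc _ ≤ ‖x.2‖ + ‖dlt lam ζ (l i) x.1‖ := norm_add_le _ _
        _ ≤ ‖x‖ + (Cl + Cl * D) * ‖x‖ := by
            refine add_le_add h4 (h2.trans ?_)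
            gcongr
        _ ≤ C2 * ‖x‖ := by
            rw [hC2d]; nlinarith
  set c1 : ℝ := Real.exp (-Λ) ^ 2 * (1 / 2 * min 1 (dm / Cb ^ 2)) with hc1
  have hc10 : 0 < c1 := by
    rw [hc1]
    have := P.Cb0; have := P.d0
    have : 0 < min 1 (dm / Cb ^ 2) := lt_min one_pos (by positivity)
    positivity
  obtain ⟨η, hη, hdet⟩ := det_stable C2 (min (c1 / 2) 1) (lt_min (by positivity) one_pos)
  set ε₀ : ℝ := min 1 (min (1 / (4 * K + 1)) (η / (2 * K + 1))) with hε₀d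
  have hε₀0 : 0 < ε₀ := by positivity
  have hε₀1 : ε₀ ≤ 1 := min_le_left _ _
  have hε₀2 : 4 * K * ε₀ ≤ 1 := by
    have h1 : ε₀ ≤ 1 / (4 * K + 1) := (min_le_right _ _).trans (min_le_left _ _)
    calc 4 * K * ε₀ ≤ 4 * K * (1 / (4 * K + 1)) := by gcongr
      _ ≤ 1 := by
          rw [mul_one_div, div_le_one (by positivity)]; linarith
  have hε₀3 : 2 * K * ε₀ ≤ η := by
    have h1 : ε₀ ≤ η / (2 * K + 1) := (min_le_right _ _).trans (min_le_right _ _)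
    calc 2 * K * ε₀ ≤ 2 * K * (η / (2 * K + 1)) := by gcongr
      _ = η * (2 * K / (2 * K + 1)) := by ring
      _ ≤ η * 1 := by
          have : 2 * K / (2 * K + 1) ≤ 1 := by rw [div_le_one (by positivity)]; linarith
          gcongr
      _ = η := mul_one _
  refine ⟨ε₀, hε₀0, ‖(𝒜 : M →L[ℝ] E)‖₊ * (Real.toNNReal (K + 2) *
      ‖(Φ.symm : E →L[ℝ] M)‖₊), Q2 ε G lam, hS.eq, fun R hR hRL => ⟨?_, ?_, ?_⟩⟩
  · have h1 := TM_homeo P h hS hR hRL hε₀2 hε₀1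
    exact 𝒜.toHomeomorph.isHomeomorph.comp (h1.comp Φ.symm.toHomeomorph.isHomeomorph)
  · have hTL : LipschitzWith (Real.toNNReal (K + 2)) (TM (Q2 ε G lam) (g2 G lam) R) := by
      refine LipschitzWith.of_dist_le_mul fun x y => ?_
      rw [dist_eq_norm, dist_eq_norm, Real.coe_toNNReal _ (by linarith)]
      exact TM_lip hS hR hRL hε₀2 x y
    exact (𝒜 : M →L[ℝ] E).lipschitz.comp (hTL.comp (Φ.symm : E →L[ℝ] M).lipschitz)
  · intro x₀ hx₀
    set ζ₀ : ℂ := (R (Φ.symm x₀).2)⁻¹ • (Φ.symm x₀).1 with hζ₀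
    rcases eq_or_ne ζ₀ 0 with h0 | h0
    · refine moll_core h hS hR hRL hε₀2 Φ 𝒜 hA hx₀ {ContinuousLinearMap.id ℝ M}
        (convex_singleton _) isCompact_singleton ?_ ?_
      · rintro N hN N' hNN
        rw [mem_singleton_iff] at hN
        subst hN
        refine hdet _ _ ?_ ?_ (hNN.trans hε₀3)
        · refine ContinuousLinearMap.norm_id_le.trans ?_
          rw [hC2d]
          have : 0 ≤ Cl + Cl * D := by positivity
          linarith
        · refine (min_le_right _ _).trans ?_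
          rw [ContinuousLinearMap.det]
          simp
      · rw [← hζ₀, h0]
        filter_upwards [K0_axis (B := B) (l := l) h.toPl h.lam0 P.ε0] with ζ hζ hζ0 i hi
        rw [mem_singleton_iff]
        exact hζ hζ0 i hi
    · refine moll_core h hS hR hRL hε₀2 Φ 𝒜 hA hx₀
        (KS C2 c1 (c1 * ‖ζ₀‖ / (4 * C2)) ζ₀ (Vr ε G ζ₀)) (KS_convex _ _ _ _ _)
        (KS_compact _ _ _ _ _) ?_ ?_
      · intro N hN N' hNN
        exact hdet N N' hN.2.1 ((min_le_left _ _).trans (KS_det hC20 h0 hN)) (hNN.trans hε₀3)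
      · rw [← hζ₀]
        have hθ : 0 < c1 * ‖ζ₀‖ / (4 * C2) := by
          have := norm_pos_iff.mpr h0
          positivity
        exact K0_off P h.toPl hθ hc1 hC2 h0

end Crest.Agent.R096.Ed_276
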