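/-
R096 / P5-EDGE (helper276), part 12: from an edge germ to normalised planar data; EDGE-B.
-/
import Crest.Agent.R096.Ed11_276

open Set Metric Filter Topology MeasureTheory
open scoped ComplexConjugate NNReal

namespace Crest.Agent.R096.Ed_276

variable {E : Type*} [NormedAddCommGroup E] [InnerProductSpace ℝ E] [FiniteDimensional ℝ E]

/-! ### the frame -/

/-- the linear map `(z, s) ↦ Re z u + Im z u' + s e`. -/
noncomputable def frL (u u' e : E) : M →ₗ[ℝ] E where
  toFun x := x.1.re • u + x.1.im • u' + x.2 • e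
  map_add' x y := by
    simp only [Prod.fst_add, Prod.snd_add, Complex.add_re, Complex.add_im]; module
  map_smul' c x := by
    simp only [Prod.smul_fst, Prod.smul_snd, Complex.real_smul, Complex.mul_re, Complex.mul_im,
      Complex.ofReal_re, Complex.ofReal_im, smul_eq_mul, RingHom.id_apply]; module

omit [FiniteDimensional ℝ E] in
lemma frL_apply (u u' e : E) (x : M) : frL u u' e x = x.1.re • u + x.1.im • u' + x.2 • e := rfl

omit [FiniteDimensional ℝ E] in
lemma inner_frL_e {u u' e : E} (he : ‖e‖ = 1) (h1 : inner ℝ e u = 0) (h2 : inner ℝ e u' = 0)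
    (x : M) : inner ℝ e (frL u u' e x) = x.2 := by
  rw [frL_apply, inner_add_right, inner_add_right, inner_smul_right, inner_smul_right,
    inner_smul_right, h1, h2, real_inner_self_eq_norm_sq, he]
  ring

omit [FiniteDimensional ℝ E] in
lemma frL_inj {u u' e : E} (he : ‖e‖ = 1) (hu : ‖u‖ = 1) (hu' : ‖u'‖ = 1) (h1 : inner ℝ e u = 0)
    (h2 : inner ℝ e u' = 0) (h3 : inner ℝ u u' = 0) : Function.Injective (frL u u' e) := by
  rw [← LinearMap.ker_eq_bot, LinearMap.ker_eq_bot']
  intro x hx
  have e1 : x.2 = 0 := by rw [← inner_frL_e he h1 h2 x, hx, inner_zero_right]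
  have e2 : x.1.re = 0 := by
    have h1' : inner ℝ u e = 0 := by rw [real_inner_comm]; exact h1
    have : inner ℝ u (frL u u' e x) = x.1.re := by
      rw [frL_apply, inner_add_right, inner_add_right, inner_smul_right, inner_smul_right,
        inner_smul_right, h3, h1', real_inner_self_eq_norm_sq, hu]
      ring
    rw [← this, hx, inner_zero_right]
  have e3 : x.1.im = 0 := by
    have h3' : inner ℝ u' u = 0 := by rw [real_inner_comm]; exact h3
    have h2' : inner ℝ u' e = 0 := by rw [real_inner_comm]; exact h2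
    have : inner ℝ u' (frL u u' e x) = x.1.im := by
      rw [frL_apply, inner_add_right, inner_add_right, inner_smul_right, inner_smul_right,
        inner_smul_right, h3', h2', real_inner_self_eq_norm_sq, hu']
      ring
    rw [← this, hx, inner_zero_right]
  exact Prod.ext (Complex.ext e2 e3) e1

lemma exists_u' (h3 : Module.finrank ℝ E = 3) (u e : E) : ∃ u' : E, ‖u'‖ = 1 ∧ inner ℝ e u' = 0 ∧
    inner ℝ u u' = 0 := by
  classical
  set W : Submodule ℝ E := Submodule.span ℝ (({u, e} : Finset E) : Set E) with hW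
  have hWr : Module.finrank ℝ W ≤ 2 :=
    (finrank_span_finset_le_card ({u, e} : Finset E)).trans Finset.card_le_two
  have h4 := Submodule.finrank_add_finrank_orthogonal W
  have h5 : 0 < Module.finrank ℝ Wᗮ := by omega
  have h6 : Wᗮ ≠ ⊥ := by
    intro h0
    rw [h0, finrank_bot] at h5
    exact lt_irrefl _ h5
  obtain ⟨v, hv, hv0⟩ := Submodule.exists_mem_ne_zero_of_ne_bot h6
  have hvn : ‖v‖ ≠ 0 := norm_ne_zero_iff.mpr hv0
  have hu : inner ℝ u v = 0 :=
    (Submodule.mem_orthogonal W v).mp hv u (Submodule.subset_span (by simp))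
  have he : inner ℝ e v = 0 :=
    (Submodule.mem_orthogonal W v).mp hv e (Submodule.subset_span (by simp))
  refine ⟨‖v‖⁻¹ • v, ?_, ?_, ?_⟩
  · rw [norm_smul, norm_inv, norm_norm, inv_mul_cancel₀ hvn]
  · rw [inner_smul_right, he, mul_zero]
  · rw [inner_smul_right, hu, mul_zero]

/-- properties of the frame. -/
structure Frame (Φ : M ≃L[ℝ] E) (u e : E) : Prop where
  u_eq : Φ (1, 0) = u
  e_eq : Φ (0, 1) = e
  snd_eq : ∀ x, (Φ.symm x).2 = inner ℝ e x
  norm_eq : ∀ z : ℂ, ‖Φ (z, 0)‖ = ‖z‖

lemma exists_frame (h3 : Module.finrank ℝ E = 3) {u e : E} (he : ‖e‖ = 1) (hu : ‖u‖ = 1)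
    (h1 : inner ℝ e u = 0) : ∃ Φ : M ≃L[ℝ] E, Frame Φ u e := by
  obtain ⟨u', hu', h2, h4⟩ := exists_u' h3 u e
  have hdim : Module.finrank ℝ M = Module.finrank ℝ E := by
    rw [h3]; simp [M]
  set L := LinearMap.linearEquivOfInjective (frL u u' e)
    (frL_inj he hu hu' h1 h2 h4) hdim with hL
  have hLa : ∀ x, L x = frL u u' e x := fun x => by
    rw [hL]; rfl
  refine ⟨L.toContinuousLinearEquiv, ⟨?_, ?_, ?_, ?_⟩⟩
  · show L (1, 0) = u
    rw [hLa, frL_apply]; simp
  · show L (0, 1) = e
    rw [hLa, frL_apply]; simp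
  · intro x
    have : x = L (L.symm x) := (L.apply_symm_apply x).symm
    conv_rhs => rw [this, hLa, inner_frL_e he h1 h2]
    rfl
  · intro z
    show ‖L (z, 0)‖ = ‖z‖
    rw [hLa, frL_apply]
    have h5 : ‖z.re • u + z.im • u' + (0:ℝ) • e‖ ^ 2 = ‖z‖ ^ 2 := by
      rw [zero_smul, add_zero, ← real_inner_self_eq_norm_sq, inner_add_left, inner_add_right,
        inner_add_right, inner_smul_left, inner_smul_left, inner_smul_right, inner_smul_right,
        inner_smul_left, inner_smul_left, inner_smul_right, inner_smul_right, h4,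
        real_inner_comm u u', h4, real_inner_self_eq_norm_sq, real_inner_self_eq_norm_sq, hu, hu',
        ← Complex.normSq_eq_norm_sq, Complex.normSq_apply]
      simp
    exact (pow_left_inj₀ (norm_nonneg _) (norm_nonneg _) two_ne_zero).mp h5

end Crest.Agent.R096.Ed_276
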