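/-
R096 / P5-EDGE (helper276), part 13: EDGE-B (literal `P5Spec_205.EdgeB`).
-/
import Crest.Agent.R096.Ed12_276

open Set Metric Filter Topology MeasureTheory
open scoped ComplexConjugate NNReal

namespace Crest.Agent.R096.Ed_276

variable {E : Type*} [NormedAddCommGroup E] [InnerProductSpace ℝ E] [FiniteDimensional ℝ E]
  [MeasureSpace E] [BorelSpace E] [(volume : Measure E).IsAddHaarMeasure]

/-- the linear map corrected along the edge. -/
noncomputable def shp (A : E →L[ℝ] E) (e w : E) : E →L[ℝ] E :=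
  A.comp (ContinuousLinearMap.id ℝ E - (innerSL ℝ e).smulRight e) + (innerSL ℝ e).smulRight w

omit [FiniteDimensional ℝ E] [MeasureSpace E] [BorelSpace E]
  [(volume : Measure E).IsAddHaarMeasure] in
lemma shp_apply (A : E →L[ℝ] E) (e w x : E) :
    shp A e w x = A (x - (inner ℝ e x : ℝ) • e) + (inner ℝ e x : ℝ) • w := by
  simp [shp]

section

variable {H : E → E} {e : E} (g : P5Spec_205.EdgeGerm H e)
include g

omit [FiniteDimensional ℝ E] [BorelSpace E] [(volume : Measure E).IsAddHaarMeasure] in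
lemma H_split (x : E) : H x = H (x - (inner ℝ e x : ℝ) • e) + (inner ℝ e x : ℝ) • H e := by
  rw [← g.inv, sub_add_cancel]

omit [FiniteDimensional ℝ E] [BorelSpace E] [(volume : Measure E).IsAddHaarMeasure] in
lemma shp_e (A : E →L[ℝ] E) : shp A e (H e) e = H e := by
  rw [shp_apply, real_inner_self_eq_norm_sq, g.unit]
  simp

omit [FiniteDimensional ℝ E] [BorelSpace E] [(volume : Measure E).IsAddHaarMeasure] in
lemma shp_shift (A : E →L[ℝ] E) (x : E) (s : ℝ) :
    shp A e (H e) (x + s • e) = shp A e (H e) x + s • H e := by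
  rw [map_add, map_smul, shp_e g]

/-- a point near which `H` is `shp A`, orthogonal to `e` and of norm one. -/
lemma exists_good (S : Finset (E →L[ℝ] E)) (hS : ∀ x, ∃ A ∈ S, H x = A x) (h3 : 2 ≤ Module.finrank ℝ E) :
    ∃ A ∈ S, ∃ u : E, ‖u‖ = 1 ∧ inner ℝ e u = 0 ∧ ∀ᶠ x in 𝓝 u, H x = shp A e (H e) x := by
  have hc : Continuous H := g.homeo.continuous
  have hsel : ∀ x, ∃ i : S, H x = shp i.1 e (H e) x := by
    intro x
    obtain ⟨A, hA, h1⟩ := hS (x - (inner ℝ e x : ℝ) • e)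
    exact ⟨⟨A, hA⟩, by rw [H_split g x, h1, shp_apply]⟩
  have h1 := ae_sel (volume : Measure E) (fun i : S => shp i.1 e (H e))
  have h2 := ae_sel (volume : Measure E) (fun b : Bool => bif b then
    (ContinuousLinearMap.id ℝ E - (innerSL ℝ e).smulRight e) else 0)
  have hne : ((ContinuousLinearMap.id ℝ E - (innerSL ℝ e).smulRight e : E →L[ℝ] E)) ≠ 0 := by
    intro h0
    have h4 : ∀ x : E, x = (inner ℝ e x : ℝ) • e := by
      intro x
      have := congrArg (fun L : E →L[ℝ] E => L x) h0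
      simp only [sub_apply, ContinuousLinearMap.id_apply, ContinuousLinearMap.smulRight_apply,
        innerSL_apply_apply, zero_apply] at this
      exact sub_eq_zero.mp this
    have h5 : Module.finrank ℝ E ≤ 1 := by
      refine finrank_le_one e fun x => ⟨inner ℝ e x, (h4 x).symm⟩
    omega
  obtain ⟨x, hx1, hx2⟩ := (h1.and h2).exists
  obtain ⟨i, hi⟩ := sel_local hc hsel hx1
  set y : E := x - (inner ℝ e x : ℝ) • e with hy
  have hy0 : y ≠ 0 := by
    intro h0
    have := hx2 true false (by simpa [hy] using h0)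
    exact hne (by simpa using this)
  have hyn : 0 < ‖y‖ := norm_pos_iff.mpr hy0
  have hye : inner ℝ e y = 0 := by
    rw [hy, inner_sub_right, inner_smul_right, real_inner_self_eq_norm_sq, g.unit]; ring
  refine ⟨i.1, i.2, ‖y‖⁻¹ • y, ?_, ?_, ?_⟩
  · rw [norm_smul, norm_inv, norm_norm, inv_mul_cancel₀ hyn.ne']
  · rw [inner_smul_right, hye, mul_zero]
  · -- transport: `z ↦ ‖y‖ z + s e` maps `u` to `x`
    set s := (inner ℝ e x : ℝ) with hs
    have ht : Tendsto (fun z : E => ‖y‖ • z + s • e) (𝓝 (‖y‖⁻¹ • y)) (𝓝 x) := by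
      have h6 : x = ‖y‖ • (‖y‖⁻¹ • y) + s • e := by
        rw [smul_smul, mul_inv_cancel₀ hyn.ne', one_smul, hy, sub_add_cancel]
      conv_rhs => rw [h6]
      exact Continuous.tendsto (by fun_prop) _
    filter_upwards [ht.eventually hi] with z hz
    rw [g.inv, shp_shift g, add_left_inj, g.conic _ hyn.le, map_smul] at hz
    exact smul_right_injective E hyn.ne' hz

omit [FiniteDimensional ℝ E] [BorelSpace E] in
/-- active maps have positive determinant. -/
lemma det_pos_of_active (A : E →L[ℝ] E) {u : E} (hu : ∀ s : ℝ, u ≠ s • e)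
    (hA : ∀ᶠ x in 𝓝 u, H x = A x) : 0 < A.det := by
  obtain ⟨r, hr, K, -, -, hK, -, hae⟩ := g.moll u hu
  obtain ⟨r', hr', hb⟩ := Metric.eventually_nhds_iff_ball.mp hA
  have hpos : (volume : Measure E) (ball u (min r r')) ≠ 0 :=
    (isOpen_ball.measure_pos _ (nonempty_ball.mpr (lt_min hr hr'))).ne'
  -- there is a good point in the ball
  obtain ⟨y, hy, hyb⟩ : ∃ y, (y ∈ ball u r → fderiv ℝ H y ∈ K) ∧ y ∈ ball u (min r r') := by
    by_contra hcon
    push Not at hcon
    apply hpos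
    refine measure_mono_null (fun y hy => ?_) (ae_iff.mp hae)
    intro h
    exact hcon y h hy
  have hyr : y ∈ ball u r := ball_subset_ball (min_le_left _ _) hyb
  have hyr' : y ∈ ball u r' := ball_subset_ball (min_le_right _ _) hyb
  have h1 : fderiv ℝ H y = A := by
    have h2 : H =ᶠ[𝓝 y] A := by
      filter_upwards [isOpen_ball.mem_nhds hyr'] with z hz
      exact hb z hz
    rw [h2.fderiv_eq, ContinuousLinearMap.fderiv]
  rw [← h1]
  exact hK _ (hy hyr)

/-- **EDGE-B for one germ.** -/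
theorem edge_germ (h3 : Module.finrank ℝ E = 3) : ∃ ε₀ > 0, ∃ C : ℝ≥0, ∃ Q : E → E,
    (∀ y, inner ℝ e y = 0 → 1 ≤ ‖y‖ → Q y = H y) ∧
    ∀ R : ℝ → ℝ, (∀ s, 0 ≤ R s) → (∀ s t, |R s - R t| ≤ ε₀ * |s - t|) →
      IsHomeomorph (P5Spec_205.tubeMap H Q e R) ∧ LipschitzWith C (P5Spec_205.tubeMap H Q e R) ∧
      ∀ x, 0 < R (inner ℝ e x) → P5Spec_205.MollAt (P5Spec_205.tubeMap H Q e R) x := by
  obtain ⟨S, hS⟩ := g.pl
  have hc : Continuous H := g.homeo.continuous
  obtain ⟨A0', hA0S, u, hu, hue, hnear⟩ := exists_good g S hS (by omega)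
  have hu_off : ∀ s : ℝ, u ≠ s • e := by
    intro s h0
    have h1 : s = 0 := by
      have := hue
      rw [h0, inner_smul_right, real_inner_self_eq_norm_sq, g.unit] at this
      simpa using this
    rw [h0, h1, zero_smul, norm_zero] at hu
    exact zero_ne_one hu
  set A0 := shp A0' e (H e) with hA0
  have hdet0 : 0 < A0.det := det_pos_of_active g A0 hu_off hnear
  obtain ⟨Φ, hΦ⟩ := exists_frame h3 g.unit hu hue
  set A0e : E ≃L[ℝ] E := A0.toContinuousLinearEquivOfDetNeZero hdet0.ne' with hA0e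
  have hA0ea : ∀ x, A0e x = A0 x := fun x => by rw [hA0e]; rfl
  set 𝒜 : M ≃L[ℝ] E := Φ.trans A0e with h𝒜
  have h𝒜a : ∀ x, 𝒜 x = A0 (Φ x) := fun x => by rw [h𝒜]; exact hA0ea _
  have h𝒜e : 𝒜 (0, 1) = H e := by rw [h𝒜a, hΦ.e_eq, hA0, shp_e g]
  -- active index type
  let ι := {i : S // (interior {x | H x = shp i.1 e (H e) x}).Nonempty}
  have hfin : Finite ι := inferInstance
  let AA : ι → E →L[ℝ] E := fun i => shp i.1.1 e (H e)
  have hsel0 : ∀ x, ∃ i : S, H x = shp i.1 e (H e) x := by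
    intro x
    obtain ⟨A, hA, h1⟩ := hS (x - (inner ℝ e x : ℝ) • e)
    exact ⟨⟨A, hA⟩, by rw [H_split g x, h1, shp_apply]⟩
  have hselA : ∀ x, ∃ i : ι, H x = AA i x := by
    -- closed set containing a dense set
    have hcl : IsClosed (⋃ i : ι, {x | H x = AA i x}) :=
      isClosed_iUnion_of_finite fun i => isClosed_eq hc (AA i).continuous
    have hd : Dense {x : E | ∀ i j : S, shp i.1 e (H e) x = shp j.1 e (H e) x →
        shp i.1 e (H e) = shp j.1 e (H e)} :=
      Measure.dense_of_ae (ae_sel (volume : Measure E) (fun i : S => shp i.1 e (H e)))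
    have hsub : {x : E | ∀ i j : S, shp i.1 e (H e) x = shp j.1 e (H e) x →
        shp i.1 e (H e) = shp j.1 e (H e)} ⊆ ⋃ i : ι, {x | H x = AA i x} := by
      intro x hx
      obtain ⟨i, hi⟩ := sel_local hc hsel0 hx
      have h4 : x ∈ interior {x | H x = shp i.1 e (H e) x} := mem_interior_iff_mem_nhds.mpr hi
      exact mem_iUnion.mpr ⟨⟨i, ⟨x, h4⟩⟩, hi.self_of_nhds⟩
    have huniv : (⋃ i : ι, {x | H x = AA i x}) = univ := by
      rw [← hcl.closure_eq]
      exact (hd.mono hsub).closure_eq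
    intro x
    have : x ∈ ⋃ i : ι, {x | H x = AA i x} := by rw [huniv]; trivial
    exact mem_iUnion.mp this
  have hdetA : ∀ i : ι, 0 < (AA i).det := by
    rintro ⟨i, hi⟩
    -- a point of the interior off the line
    have hopen : IsOpen (interior {x | H x = shp i.1 e (H e) x}) := isOpen_interior
    have hne : ∃ x ∈ interior {x | H x = shp i.1 e (H e) x}, ∀ s : ℝ, x ≠ s • e := by
      obtain ⟨x, hx⟩ := hi
      by_cases h5 : ∀ s : ℝ, x ≠ s • e
      · exact ⟨x, hx, h5⟩
      · push Not at h5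
        obtain ⟨s, hs⟩ := h5
        -- move in direction u
        have ht : Tendsto (fun t : ℝ => x + t • u) (𝓝[>] 0) (𝓝 x) := by
          have h6 : Tendsto (fun t : ℝ => x + t • u) (𝓝 0) (𝓝 (x + (0:ℝ) • u)) :=
            Continuous.tendsto (by fun_prop) _
          rw [zero_smul, add_zero] at h6
          exact h6.mono_left nhdsWithin_le_nhds
        obtain ⟨t, ht1, ht2⟩ := ((ht.eventually (hopen.mem_nhds hx)).and
          (self_mem_nhdsWithin : Ioi (0:ℝ) ∈ 𝓝[>] 0)).exists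
        refine ⟨_, ht1, fun s' h7 => ?_⟩
        have ht0 : (0:ℝ) < t := ht2
        apply hu_off (t⁻¹ * (s' - s))
        have h8 : t • u = (s' - s) • e := by
          rw [sub_smul, ← h7, hs]; abel
        rw [mul_smul, ← h8, smul_smul, inv_mul_cancel₀ ht0.ne', one_smul]
    obtain ⟨x, hx, hxl⟩ := hne
    exact det_pos_of_active g _ hxl (mem_interior_iff_mem_nhds.mp hx)
  -- planar data
  set gg : ℂ → M := fun z => 𝒜.symm (H (Φ (z, 0))) with hgg
  let N : ι → M →L[ℝ] M := fun i =>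
    (𝒜.symm : E →L[ℝ] M).comp ((AA i).comp (Φ : M →L[ℝ] E))
  let B : ι → ℂ →L[ℝ] ℂ := fun i => (ContinuousLinearMap.fst ℝ ℂ ℝ).comp
    ((N i).comp (ContinuousLinearMap.inl ℝ ℂ ℝ))
  let l : ι → ℂ →L[ℝ] ℝ := fun i => (ContinuousLinearMap.snd ℝ ℂ ℝ).comp
    ((N i).comp (ContinuousLinearMap.inl ℝ ℂ ℝ))
  have hNe : ∀ i, N i (0, 1) = (0, 1) := by
    intro i
    show 𝒜.symm (AA i (Φ (0, 1))) = (0, 1)
    rw [hΦ.e_eq]
    show 𝒜.symm (shp i.1.1 e (H e) e) = (0, 1)
    rw [shp_e g, ← h𝒜e, 𝒜.symm_apply_apply]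
  have hggc : Continuous gg := by
    have : Continuous fun z : ℂ => ((z, 0) : M) := by fun_prop
    exact 𝒜.symm.continuous.comp (hc.comp (Φ.continuous.comp this))
  have hgsmul : ∀ (t : ℝ) (z : ℂ), ((((t : ℂ) * z, 0) : M)) = t • ((z, 0) : M) := by
    intro t z
    apply Prod.ext
    · simp
    · simp
  have hgghom : ∀ t : ℝ, 0 ≤ t → ∀ z : ℂ, gg (t * z) = t • gg z := by
    intro t ht z
    show 𝒜.symm (H (Φ ((t : ℂ) * z, 0))) = t • 𝒜.symm (H (Φ (z, 0)))
    rw [hgsmul, map_smul, g.conic t ht, map_smul]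
  have hP : Pl2 B l (fun z => (gg z).1) (fun z => (gg z).2) := by
    refine { cont := continuous_fst.comp hggc, inj := ?_, hom := ?_, sel := ?_, det := ?_,
             idn := ?_, contl := continuous_snd.comp hggc, homl := ?_, sel2 := ?_ }
    · intro z w hzw
      have h1 : gg z = gg w + ((gg z).2 - (gg w).2) • ((0, 1) : M) := by
        apply Prod.ext
        · have : (gg z).1 = (gg w).1 := hzw
          simp [this]
        · simp
      have h2 := congrArg 𝒜 h1
      rw [map_add, map_smul, h𝒜e] at h2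
      have h3' : ∀ z, 𝒜 (gg z) = H (Φ (z, 0)) := fun z => 𝒜.apply_symm_apply _
      rw [h3', h3', ← g.inv] at h2
      have h4 := g.homeo.injective h2
      rw [← hΦ.e_eq, ← map_smul, ← map_add] at h4
      have h5 := Φ.injective h4
      have h6 := congrArg Prod.fst h5
      simpa using h6
    · intro t ht z
      have := congrArg Prod.fst (hgghom t ht z)
      simpa using this
    · intro z
      obtain ⟨i, hi⟩ := hselA (Φ (z, 0))
      refine ⟨i, ?_⟩
      show (𝒜.symm (H (Φ (z, 0)))).1 = (𝒜.symm (AA i (Φ (z, 0)))).1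
      rw [hi]
    · intro i
      have h1 : (B i).det = (N i).det := by
        rw [det_M (N i) (hNe i), det_eq]
        rfl
      have h2 : (N i).det = ((A0e.symm : E →L[ℝ] E).comp (AA i)).det := by
        have e1 : N i = (Φ.symm : E →L[ℝ] M).comp
            (((A0e.symm : E →L[ℝ] E).comp (AA i)).comp (Φ : M →L[ℝ] E)) := by
          ext x <;> rfl
        rw [e1]
        have := LinearMap.det_conj (((A0e.symm : E →L[ℝ] E).comp (AA i) : E →L[ℝ] E) :
          E →ₗ[ℝ] E) Φ.symm.toLinearEquiv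
        exact this
      have h3' : A0.det * ((A0e.symm : E →L[ℝ] E).comp (AA i)).det = (AA i).det := by
        rw [← clm_det_comp]
        congr 1
        ext x
        show A0 (A0e.symm (AA i x)) = AA i x
        rw [← hA0ea, A0e.apply_symm_apply]
      rw [h1, h2]
      have h4 := hdetA i
      rw [← h3'] at h4
      exact (mul_pos_iff_of_pos_left hdet0).mp h4
    · have ht : Tendsto (fun z : ℂ => Φ (z, 0)) (𝓝 1) (𝓝 u) := by
        rw [← hΦ.u_eq]
        exact Continuous.tendsto (Φ.continuous.comp (by fun_prop)) _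
      filter_upwards [ht.eventually hnear] with z hz
      show (𝒜.symm (H (Φ (z, 0)))).1 = z
      rw [hz, ← h𝒜a, 𝒜.symm_apply_apply]
    · intro t ht z
      have := congrArg Prod.snd (hgghom t ht z)
      simpa using this
    · intro z
      obtain ⟨i, hi⟩ := hselA (Φ (z, 0))
      refine ⟨i, ?_, ?_⟩
      · show (𝒜.symm (H (Φ (z, 0)))).1 = (𝒜.symm (AA i (Φ (z, 0)))).1
        rw [hi]
      · show (𝒜.symm (H (Φ (z, 0)))).2 = (𝒜.symm (AA i (Φ (z, 0)))).2
        rw [hi]
  have hdetA𝒜 : 0 < ((𝒜 : M →L[ℝ] E).comp (Φ.symm : E →L[ℝ] M)).det := by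
    have : (𝒜 : M →L[ℝ] E).comp (Φ.symm : E →L[ℝ] M) = A0 := by
      ext x
      show 𝒜 (Φ.symm x) = A0 x
      rw [h𝒜a, Φ.apply_symm_apply]
    rw [this]; exact hdet0
  obtain ⟨ε₀, hε₀, C, Q, hQ1, hQ2⟩ := edge_model hP Φ 𝒜 hdetA𝒜
  have hg2 : ∀ z, g2 (fun z => (gg z).1) (fun z => (gg z).2) z = gg z := fun z => rfl
  refine ⟨ε₀, hε₀, C, fun y => 𝒜 (Q (Φ.symm y).1), ?_, fun R hR hRL => ?_⟩
  · intro y hy hy1
    have h1 : y = Φ ((Φ.symm y).1, 0) := by
      have h2 : ((Φ.symm y).1, (0:ℝ)) = Φ.symm y := by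
        apply Prod.ext
        · rfl
        · show (0:ℝ) = (Φ.symm y).2
          rw [hΦ.snd_eq, hy]
      rw [h2, Φ.apply_symm_apply]
    have h2 : 1 ≤ ‖(Φ.symm y).1‖ := by
      rw [← hΦ.norm_eq, ← h1]; exact hy1
    show 𝒜 (Q (Φ.symm y).1) = H y
    rw [hQ1 _ h2, hg2]
    show 𝒜 (𝒜.symm (H (Φ ((Φ.symm y).1, 0)))) = H y
    rw [𝒜.apply_symm_apply, ← h1]
  · have heq : P5Spec_205.tubeMap H (fun y => 𝒜 (Q (Φ.symm y).1)) e R =
        fun x => 𝒜 (TM Q (g2 (fun z => (gg z).1) (fun z => (gg z).2)) R (Φ.symm x)) := by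
      funext x
      set m := Φ.symm x with hm
      have hx : x = Φ m := by rw [hm, Φ.apply_symm_apply]
      have hs : (inner ℝ e x : ℝ) = m.2 := (hΦ.snd_eq x).symm
      have hxe : x - (inner ℝ e x : ℝ) • e = Φ (m.1, 0) := by
        rw [hs, ← hΦ.e_eq, ← map_smul, hx, ← map_sub]
        congr 1
        apply Prod.ext
        · simp
        · simp
      rw [TM, map_add]
      have h01 : ((0 : ℂ), m.2) = m.2 • ((0, 1) : M) := by simp
      rw [P5Spec_205.tubeMap, hxe, hs]
      by_cases h0 : R m.2 = 0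
      · rw [if_pos h0, h0, sc_zero, hg2, h01, map_smul, h𝒜e]
        show H x = 𝒜 (𝒜.symm (H (Φ (m.1, 0)))) + m.2 • H e
        rw [𝒜.apply_symm_apply, ← hxe, ← hs]
        exact H_split g x
      · rw [if_neg h0, sc_pos h0, h01, map_smul 𝒜 (R m.2), map_smul 𝒜 m.2, h𝒜e, add_comm,
          map_smul Φ.symm, Φ.symm_apply_apply]
        rfl
    rw [heq]
    obtain ⟨h1, h2, h4⟩ := hQ2 R hR hRL
    refine ⟨h1, h2, fun x hx => h4 x ?_⟩
    rw [hΦ.snd_eq]; exact hx

end

/-- **EDGE-B**, literal form of `P5Spec_205`. -/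
theorem edgeB : P5Spec_205.EdgeB (EuclideanSpace ℝ (Fin 3)) := by
  intro H e g
  exact edge_germ g (by simp)

end Crest.Agent.R096.Ed_276
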