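import Crest.Agent.R096.Rd5_695
import Crest.Agent.R096.P5Spec_205

/-!
# C3-RED, part 6 (helper695, row 96 P5): `Core` of `P5Spec_205` from `Bel`
-/

set_option autoImplicit false

open MeasureTheory

namespace Crest.Agent.R096.Rd_695

/-- `Core` in dimension three, granted `Bel` -/
theorem core_of_bel_spec (hB : BelDefs_205.Bel) :
    P5Spec_205.Core (EuclideanSpace ℝ (Fin 3)) := by
  intro K hK hc hM
  exact core_of_bel volume hB (by simp) hK hc hM

end Crest.Agent.R096.Rd_695
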