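import Crest.Agent.R096.Asm4_119
import Crest.Agent.R096.Rd6_695
import Crest.Agent.R096.BelF_205
import Crest.Agent.R096.Ed13_276

/-!
# P5 (row 96): `P5 p` for all `p ≥ 1` (assembly, helper119)
-/

set_option autoImplicit false

namespace Crest.Agent.R096.Asm_119

/-- **P5**: smoothing of locally PL homeomorphisms in `W^{1,p}`, dimension three. -/
theorem p5 {p : ℝ} (hp : 1 ≤ p) : Sk_962.P5 p :=
  p5_of_edgeB_core Ed_276.edgeB (Rd_695.core_of_bel_spec BelF_205.bel) hp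

open MeasureTheory Metric Set Filter Topology
open scoped ENNReal Gradient NNReal
open Crest.AnalysisR.VecCalc3 Crest.AnalysisR.Sobolev
open Crest.Agent.R096.Sk_962

/-- **S0127 from `PLA`.** -/
theorem s0127_of_pla (hPLA : ∀ p : ℝ, 1 ≤ p → PLA p)
    (Ω Λ : Set R3) (hΩo : IsOpen Ω) (hΩb : Bornology.IsBounded Ω) (hΩc : IsConnected Ω)
    (hΛo : IsOpen Λ) (hΛb : Bornology.IsBounded Λ) (hΛc : IsConnected Λ)
    (p : ℝ) (hp : 1 ≤ p) (f : R3 → R3) (hf : IsHomeomorphOn f Ω Λ)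
    (hfp : MemLp f (ENNReal.ofReal p) (volume.restrict Ω))
    (G : Fin 3 → R3 → R3) (hG : ∀ j : Fin 3, HasWeakGradOn Ω (fun x => f x j) (G j))
    (hGp : ∀ j : Fin 3, MemLp (G j) (ENNReal.ofReal p) (volume.restrict Ω))
    (ε : ℝ≥0∞) (hε : 0 < ε) :
    ∃ g : R3 → R3, IsSmoothDiffeoOn g Ω Λ ∧ MemLp g (ENNReal.ofReal p) (volume.restrict Ω) ∧
      (∀ j : Fin 3, MemLp (fun x => ∇ (fun y => g y j) x) (ENNReal.ofReal p) (volume.restrict Ω)) ∧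
      ∫⁻ x in Ω, (‖g x - f x‖ₑ ^ p + ∑ j : Fin 3, ‖∇ (fun y => g y j) x - G j x‖ₑ ^ p) < ε :=
  Top_696.s0127_of hPLA (fun _ h => p5 h) Ω Λ hΩo hΩb hΩc hΛo hΛb hΛc p hp f hf hfp G hG hGp ε hε

end Crest.Agent.R096.Asm_119
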