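import Crest.Agent.R096.Mfi5_290

/-!
# Row 96, helper222: [CM] of 365 #11372: the lists of shapes of the inner tiles are contained in ONE
finite list which depends on the bounds `Bn`, `R0` of the rational data only.
-/

set_option autoImplicit false
set_option linter.unusedSectionVars false

open MeasureTheory Set Filter Metric
open scoped Topology ENNReal

namespace Crest.Agent.R096.Cm_222

open Msh_715 Cut_874 Msh_810 Mal_874 Mfi_290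
open Crest.Agent.R096.SkC1_961 (E3 Cfg)

section mono

variable {n : ℕ}

theorem bnd_mono {𝒩 𝒩' : Finset (Fin n → ℝ)} (h : 𝒩 ⊆ 𝒩') (d : ℕ) {R R' : ℝ} (hR : |R| ≤ |R'|) :
    bnd 𝒩 d R ≤ bnd 𝒩' d R' := by
  unfold bnd
  have h1 : ∑ ν ∈ 𝒩, n1 ν ≤ ∑ ν ∈ 𝒩', n1 ν :=
    Finset.sum_le_sum_of_subset_of_nonneg h fun ν _ _ => n1_nonneg ν
  have h2 : 0 ≤ ∑ ν ∈ 𝒩, n1 ν := Finset.sum_nonneg fun ν _ => n1_nonneg ν
  have h3 : (0 : ℝ) ≤ d := Nat.cast_nonneg d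
  have h4 : 0 ≤ |R| := abs_nonneg R
  have h5 : 0 ≤ |R'| := abs_nonneg R'
  gcongr

theorem thr_mono {𝒩 𝒩' : Finset (Fin n → ℝ)} (h : 𝒩 ⊆ 𝒩') (d : ℕ) {B B' : ℝ} (hB : B ≤ B') :
    thr 𝒩 d B ⊆ thr 𝒩' d B' := by
  rintro p ⟨h1, t, h2, h3⟩
  exact ⟨h h1, t, h2.trans hB, h3⟩

theorem shapes_mono {𝒩 𝒩' : Finset (Fin n → ℝ)} (h : 𝒩 ⊆ 𝒩') (d : ℕ) {B B' : ℝ} (hB : B ≤ B') :
    shapes 𝒩 d B ⊆ shapes 𝒩' d B' := by
  rintro S ⟨C1, h1, C2, h2, h3⟩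
  exact ⟨C1, h1.trans (thr_mono h d hB), C2, h2.trans (thr_mono h d hB), h3⟩

theorem shpT_mono {𝒩 𝒩' : Finset (Fin n → ℝ)} (h : 𝒩 ⊆ 𝒩') (d : ℕ) {R R' : ℝ} (hR : |R| ≤ |R'|) :
    shpT 𝒩 d R ⊆ shpT 𝒩' d R' := by
  rintro S' ⟨S, hS, v, hv, e⟩
  exact ⟨S, shapes_mono h d (bnd_mono h d hR) hS, v, fun m => (hv m).trans (by linarith), e⟩

/-- **the lists are monotone in the normals and in the size** -/
theorem simL_mono {𝒩 𝒩' : Finset (Fin n → ℝ)} (h : 𝒩 ⊆ 𝒩') (d : ℕ) {R R' : ℝ} (hR : |R| ≤ |R'|) :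
    simL 𝒩 d R ⊆ simL 𝒩' d R' := fun _ hK => Subset.trans hK (shpT_mono h d hR)

theorem NB_mono {B B' : ℕ} (h : B ≤ B') : NB n B ⊆ NB n B' := by
  classical
  unfold NB
  refine Finset.image_subset_image ?_
  refine Fintype.piFinset_subset _ _ fun _ => ?_
  refine Finset.Icc_subset_Icc ?_ ?_
  · have : (B : ℤ) ≤ B' := by exact_mod_cast h
    omega
  · exact_mod_cast h

end mono

/-- **THE UNIVERSAL LIST** of the inner tiles -/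
def LL (Bn : ℕ) (R0 : ℝ) : Set (Set (Set E3)) := simL (N0 3) 1 2 ∪ simL (NB 3 Bn) 1 R0

theorem LL_finite (Bn : ℕ) (R0 : ℝ) : (LL Bn R0).Finite :=
  (simL_finite _ _ _).union (simL_finite _ _ _)

theorem LL_mono {B B' : ℕ} (hB : B ≤ B') {R R' : ℝ} (hR : |R| ≤ |R'|) : LL B R ⊆ LL B' R' :=
  union_subset_union_right _ (simL_mono (NB_mono hB) 1 hR)

theorem sub_LL {J : Type} {M : MD E3 3 J} (X : RD M) (j : J) {Bn : ℕ} {R0 : ℝ} (hB : X.B j ≤ Bn)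
    (hR : X.R j ≤ R0) : simL (N0 3) 1 2 ∪ simL (NB 3 (X.B j)) 1 (X.R j) ⊆ LL Bn R0 := by
  have h1 := X.R1 j
  refine LL_mono hB ?_
  rw [abs_of_nonneg (by linarith), abs_of_nonneg (by linarith)]
  exact hR

/-- **[CM]: all lists of shapes of the inner tiles are contained in the universal list** -/
theorem qSh_LL {J : Type} {M : MD E3 3 J} (X : RD M) (j : J) {Bn : ℕ} {R0 : ℝ} (hB : X.B j ≤ Bn)
    (hR : X.R j ≤ R0) (k0 : ℕ) (hk0 : (M.Q j).kc ≤ k0) (c : Pt (M.Q j) ⊕ ℕ) :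
    qSh M X j k0 hk0 c ⊆ LL Bn R0 :=
  (qSh_sub M X j k0 hk0 c).trans (sub_LL X j hB hR)

/-- the form with an existential list -/
theorem exists_L (Bn : ℕ) (R0 : ℝ) : ∃ L : Set (Set (Set E3)), L.Finite ∧
    ∀ {J : Type} (M : MD E3 3 J) (X : RD M) (j : J), X.B j ≤ Bn → X.R j ≤ R0 →
      ∀ (k0 : ℕ) (hk0 : (M.Q j).kc ≤ k0) (c : Pt (M.Q j) ⊕ ℕ), qSh M X j k0 hk0 c ⊆ L :=
  ⟨LL Bn R0, LL_finite Bn R0, fun _ X j hB hR k0 hk0 c => qSh_LL X j hB hR k0 hk0 c⟩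

/-- **one constant for all configurations of the inner tiles** (before the data) -/
theorem exists_Cs (C : Set (Set E3) → ℝ) (Bn : ℕ) (R0 : ℝ) : ∃ Cs : ℝ, 0 < Cs ∧
    (∀ 𝒞 ∈ LL Bn R0, C 𝒞 ≤ Cs) ∧ ∀ {J : Type} (M : MD E3 3 J) (X : RD M) (j : J), X.B j ≤ Bn →
      X.R j ≤ R0 → ∀ 𝒞 ∈ simL (N0 3) 1 2 ∪ simL (NB 3 (X.B j)) 1 (X.R j), C 𝒞 ≤ Cs := by
  obtain ⟨b, hb⟩ := ((LL_finite Bn R0).image C).bddAbove
  refine ⟨max b 1, lt_of_lt_of_le one_pos (le_max_right _ _), ?_, ?_⟩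
  · intro 𝒞 h
    exact (hb ⟨𝒞, h, rfl⟩).trans (le_max_left _ _)
  · intro J M X j hB hR 𝒞 h
    exact (hb ⟨𝒞, sub_LL X j hB hR h, rfl⟩).trans (le_max_left _ _)

/-- the energy classes: `Cm` of a class of `QI` -/
theorem exists_Cm (C : Set (Set E3) → ℝ) (Bn : ℕ) (R0 : ℝ) : ∃ Cs : ℝ, 0 < Cs ∧
    ∀ {J : Type} (M : MD E3 3 J) (X : RD M) (j : J), X.B j ≤ Bn → X.R j ≤ R0 →
      ∀ (k0 : ℕ) (hk0 : (M.Q j).kc ≤ k0) (c : (QI M X j k0 hk0).κ), ∀ 𝒞 ∈ (QI M X j k0 hk0).Sh c,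
        C 𝒞 ≤ Cs := by
  obtain ⟨Cs, h0, h1, -⟩ := exists_Cs C Bn R0
  exact ⟨Cs, h0, fun M X j hB hR k0 hk0 c 𝒞 h => h1 𝒞 (qSh_LL X j hB hR k0 hk0 c h)⟩

end Crest.Agent.R096.Cm_222
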