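import Crest.Agent.R096.Brk4_582

/-!
# Row 96, U1: bounded geometry of the coordinates of a box foam (corollaries of `lip_main`)
-/

set_option autoImplicit false
set_option linter.unusedSectionVars false
set_option linter.style.haveILetI false
open Set Filter Topology
open scoped NNReal

namespace Crest.Agent.R096.Brk5_582

open Crest.Agent.R096.Brk1_582 Crest.Agent.R096.Brk2_582 Crest.Agent.R096.Brk3_582
open Crest.Agent.R096.Brk4_582 Crest.Agent.R096.Bsp_628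

theorem Lc_scale {w S l : ℝ} (hl : 0 < l) (m : ℕ) : Lc (l * w) (l * S) m = Lc w S m / l := by
  induction m with
  | zero => simp [Lc]
  | succ m ih =>
    simp only [Lc, ih]
    have h1 : l * S / (l * w) = S / w := mul_div_mul_left _ _ hl.ne'
    have h2 : (2 : ℝ) / (l * w) = 2 / w / l := by rw [mul_comm, div_mul_eq_div_div]
    have h3 : (1 : ℝ) / (l * w) = 1 / w / l := by rw [mul_comm, div_mul_eq_div_div]
    have h4 : 2 * (Lc w S m / l) = (2 * Lc w S m) / l := by ring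
    rw [h1, h2, h3, h4, max_div_div_right hl.le]
    ring

/-- the universal constant of the coordinates: `δ` = quantitative simplicity, `R` = ratio of the
sizes of touching cells, `n` = dimension -/
noncomputable def Cs (n : ℕ) (δ R : ℝ) : ℝ := Lc (δ / R) 1 n

theorem Cs_nonneg {n : ℕ} {δ R : ℝ} (hδ : 0 < δ) (hR : 0 < R) : 0 ≤ Cs n δ R :=
  Lc_nonneg (by positivity) zero_le_one n

section main

variable {κ : Type*} [Fintype κ] [Nonempty κ] {La : Set (κ → ℝ)} {F : Set (Bx κ)} {δ κ0 : ℝ}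

/-- touching cells have comparable sizes -/
def Cmp (F : Set (Bx κ)) (R : ℝ) : Prop :=
  ∀ c c' : F, (Pc F c ∩ Pc F c').Nonempty → c.1.sz ≤ R * c'.1.sz

/-- **the coordinates are `Cs / size`-Lipschitz on every cell** (sup norm) -/
theorem lip_cell (BF : BoxFoam La F δ κ0) (hLa : IsOpen La) (hδ : 0 < δ) {R : ℝ} (hR : 0 < R)
    (hcmp : Cmp F R) (c0 : F) : ∀ y ∈ Pc F c0, ∀ y' ∈ Pc F c0, ∀ c : F,
      |sc (Pc F) (bc (F := F)) y c - sc (Pc F) (bc (F := F)) y' c| ≤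
        Cs (Fintype.card κ) δ R / c0.1.sz * ‖y - y'‖ := by
  have hsz : 0 < c0.1.sz := Bx.sz_pos (BF.pos _ c0.2)
  intro y hy y' hy' c
  have hfc : fc (Pc F) ({c0} : Set F) = Pc F c0 := by simp [fc]
  have h1 := lip_main BF hLa c0 (w := c0.1.sz * (δ / R)) (S := c0.1.sz * 1) (by positivity)
    (fun k => by rw [mul_one]; exact Bx.side_le_sz _ k) ?_ (Fintype.card κ) {c0}
    (finite_singleton c0) rfl (by rw [hfc]; exact ⟨y, hy⟩) (by rw [ncard_singleton]; omega)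
    y (by rw [hfc]; exact hy) y' (by rw [hfc]; exact hy') c
  · rw [Lc_scale hsz] at h1
    exact h1
  · intro A hA hc0 hne k hk
    obtain ⟨D, hD, h2⟩ := width_ge BF hA ⟨c0, hc0⟩ hne hk
    obtain ⟨x, hx⟩ := hne
    have h3 := hcmp c0 D ⟨x, mem_fc.1 hx c0 hc0, mem_fc.1 hx D hD⟩
    have h4 : c0.1.sz * (δ / R) ≤ δ * D.1.sz := by
      rw [mul_div_assoc', div_le_iff₀ hR]
      nlinarith
    linarith

/-- two points of a box -/
theorem norm_sub_le_sz {B : Bx κ} (hB : B.Pos) {x y : κ → ℝ} (hx : x ∈ B.set) (hy : y ∈ B.set) :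
    ‖x - y‖ ≤ B.sz := by
  refine (pi_norm_le_iff_of_nonneg (Bx.sz_pos hB).le).2 fun k => ?_
  have h1 := Bx.mem_set.1 hx k
  have h2 := Bx.mem_set.1 hy k
  have h3 := Bx.side_le_sz B k
  unfold Bx.side at h3
  rw [Pi.sub_apply, Real.norm_eq_abs, abs_le]
  constructor <;> linarith

/-- **`T` is `size`-Lipschitz on the part of the cube complex over a cell** (`ℓ¹` distance of the
coordinates) -/
theorem T_lip (BF : BoxFoam La F δ κ0) (hLa : IsOpen La) {u v : F → ℝ} (hu : u ∈ K (Pc F))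
    (hv : v ∈ K (Pc F)) {c0 : F} (hu0 : u c0 = 0) (hv0 : v c0 = 0) (S : Finset F)
    (hS : ∀ c, c ∉ S → u c = v c) :
    ‖T (bc (F := F)) u - T (bc (F := F)) v‖ ≤ c0.1.sz * ∑ c ∈ S, |u c - v c| := by
  have FF := foam BF hLa
  have hsz : 0 < c0.1.sz := Bx.sz_pos (BF.pos _ c0.2)
  refine norm_T_sub_le (FF.K_finite hu) (FF.K_finite hv) S hS hsz.le fun τ hτ => ?_
  have hb : ∀ u : F → ℝ, u ∈ K (Pc F) → u c0 = 0 → bc {c | u c ≤ τ} ∈ Pc F c0 := by
    intro u hu hu0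
    have h1 : c0 ∈ {c | u c ≤ τ} := by
      change u c0 ≤ τ
      rw [hu0]; exact hτ.1.le
    have h2 : (fc (Pc F) {c | u c ≤ τ}).Nonempty :=
      hu.2.2.mono (fc_anti fun c (hc : u c ≤ τ) => hc.trans_lt hτ.2)
    exact mem_fc.1 (FF.mem _ ⟨c0, h1⟩ h2) c0 h1
  exact norm_sub_le_sz (BF.pos _ c0.2) (hb u hu hu0) (hb v hv hv0)

/-- Lipschitz on convex sets covered by finitely many cells -/
theorem lip_convex (BF : BoxFoam La F δ κ0) (hLa : IsOpen La) (hδ : 0 < δ) {R : ℝ} (hR : 0 < R)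
    (hcmp : Cmp F R) {G : Set (κ → ℝ)} (hG : Convex ℝ G) {s : Set F} (hs : s.Finite)
    (hcov : G ⊆ ⋃ c ∈ s, Pc F c) {σ : ℝ} (hσ : 0 < σ) (hsz : ∀ c ∈ s, σ ≤ c.1.sz) (c : F) :
    ∀ x ∈ G, ∀ y ∈ G, |sc (Pc F) (bc (F := F)) x c - sc (Pc F) (bc (F := F)) y c| ≤
      Cs (Fintype.card κ) δ R / σ * ‖x - y‖ := by
  refine lip_of_cover hG hs (C := fun c => Pc F c) (fun c _ => isClosed_Icc) hcov
    (f := fun x => sc (Pc F) (bc (F := F)) x c) fun c0 hc0 x hx y hy => ?_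
  refine (lip_cell BF hLa hδ hR hcmp c0 x hx y hy c).trans ?_
  refine mul_le_mul_of_nonneg_right ?_ (norm_nonneg _)
  exact div_le_div_of_nonneg_left (Cs_nonneg hδ hR) hσ (hsz c0 hc0)

/-- the coordinates are locally Lipschitz on `La` -/
theorem locallyLipschitzOn_sc (BF : BoxFoam La F δ κ0) (hLa : IsOpen La) (hδ : 0 < δ) {R : ℝ}
    (hR : 0 < R) (hcmp : Cmp F R) (c : F) :
    LocallyLipschitzOn La (fun y => sc (Pc F) (bc (F := F)) y c) := by
  intro y hy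
  have FF := foam BF hLa
  obtain ⟨r, hr, hfin⟩ := FF.lf y hy
  obtain ⟨r', hr', hball⟩ := Metric.isOpen_iff.1 hLa y hy
  set ρ := min r r' with hρ
  have hρ0 : 0 < ρ := lt_min hr hr'
  have hne : {c | (Pc F c ∩ Metric.ball y r).Nonempty}.Nonempty := by
    obtain ⟨c, hc⟩ := FF.cov y hy
    exact ⟨c, y, hc, Metric.mem_ball_self hr⟩
  obtain ⟨c1, hc1, hmin⟩ := Set.exists_min_image _ (fun c : F => c.1.sz) hfin hne
  have hsz : 0 < c1.1.sz := Bx.sz_pos (BF.pos _ c1.2)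
  refine ⟨⟨Cs (Fintype.card κ) δ R / c1.1.sz, div_nonneg (Cs_nonneg hδ hR) hsz.le⟩,
    Metric.ball y ρ, mem_nhdsWithin_of_mem_nhds (Metric.ball_mem_nhds y hρ0), ?_⟩
  refine LipschitzOnWith.of_dist_le_mul fun x hx x' hx' => ?_
  rw [Real.dist_eq, dist_eq_norm]
  refine lip_convex BF hLa hδ hR hcmp (convex_ball y ρ) hfin ?_ hsz hmin c x hx x' hx'
  intro p hp
  obtain ⟨c', hc'⟩ := FF.cov p (hball (Metric.ball_subset_ball (min_le_right _ _) hp))
  exact mem_iUnion₂.2 ⟨c', ⟨p, hc', Metric.ball_subset_ball (min_le_left _ _) hp⟩, hc'⟩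

/-- comparability from a scale function -/
theorem cmp_of_scale {rho : (κ → ℝ) → ℝ} {R : ℝ} (h1 : ∀ C ∈ F, ∀ x ∈ C.set, C.sz ≤ rho x)
    (h2 : ∀ C ∈ F, ∀ x ∈ C.set, rho x ≤ R * C.sz) : Cmp F R := by
  rintro c c' ⟨x, hx, hx'⟩
  exact (h1 _ c.2 x hx).trans (h2 _ c'.2 x hx')

end main

end Crest.Agent.R096.Brk5_582
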