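import Crest.Agent.R096.Fbr1_628
import Crest.Agent.R096.Bsp9_628
import Crest.Agent.R096.Brk5_582

/-!
# Row 96, FAN-INT (helper447, for 628): the directions of the flags of a dyadic box foam

`dir_int`: on the half grid of the star of a cell `c` the three directions of every flag of `c` are
integer vectors bounded by `2 R M`; `cf_int`: so the coordinate functionals are, up to one positive
factor, integer vectors bounded by `2 (2 R M)^2`.
-/

set_option autoImplicit false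
set_option linter.unusedSectionVars false

open Set

namespace Crest.Agent.R096.Fni_447

open Crest.Agent.R096.Brk1_582 Crest.Agent.R096.Brk2_582 Crest.Agent.R096.Brk3_582
  Crest.Agent.R096.Brk5_582 Crest.Agent.R096.Bsp_628 Crest.Agent.R096.Fbr_628
  Crest.Agent.R096.Grd_714

section gen

variable {κ : Type*} [Fintype κ] [Nonempty κ] {La : Set (κ → ℝ)} {F : Set (Bx κ)} {δ κ0 : ℝ}

/-- centres of faces of `c`: on the half grid, within half a side of the centre of `c` -/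
theorem bc_int (BF : BoxFoam La F δ κ0) {c : F} {o : κ → ℝ} {W : ℝ} {z : κ → ℤ}
    (hg : ∀ c' : F, (Pc F c ∩ Pc F c').Nonempty → ∀ i, ∃ m n : ℤ,
      c'.1.lo i = o i + ((z i : ℝ) + m) * W ∧ c'.1.hi i = o i + ((z i : ℝ) + n) * W)
    {A : Set F} (hc : c ∈ A) (hne : (fc (Pc F) A).Nonempty) (i : κ) :
    (∃ n : ℤ, bc A i = o i + (2 * (z i : ℝ) + n) * (W / 2)) ∧
      |bc A i - bc {c} i| ≤ c.1.sz / 2 := by
  classical
  obtain ⟨y, hy⟩ := hne
  have hyc : y ∈ Pc F c := mem_fc.1 hy c hc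
  have hyLa : y ∈ La := BF.sub _ c.2 hyc
  have hA : A.Finite := (finite_act' BF hyLa).subset (mem_fc'.1 hy)
  have hAne : A.Nonempty := ⟨c, hc⟩
  obtain ⟨a, ha, ha'⟩ := (exists_loA hA hAne i).1
  obtain ⟨b, hb, hb'⟩ := (exists_hiA hA hAne i).1
  have hle1 := (exists_loA hA hAne i).2 c hc
  have hle2 := (exists_hiA hA hAne i).2 c hc
  have hyk := (mem_fc_iff hA hAne).1 hy i
  constructor
  · obtain ⟨m, _, hm, _⟩ := hg a ⟨y, hyc, mem_fc.1 hy a ha⟩ i
    obtain ⟨_, n, _, hn⟩ := hg b ⟨y, hyc, mem_fc.1 hy b hb⟩ i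
    refine ⟨m + n, ?_⟩
    unfold bc
    rw [← ha', ← hb', hm, hn]
    push_cast
    ring
  · have hb1 : bc ({c} : Set F) i = (c.1.lo i + c.1.hi i) / 2 := by
      unfold bc loA hiA
      simp
    have hs : c.1.hi i - c.1.lo i ≤ c.1.sz := c.1.side_le_sz i
    rw [hb1]
    unfold bc
    rw [abs_le]
    constructor <;> linarith [hyk.1, hyk.2]

end gen

variable {La : Set (Fin 3 → ℝ)} {F : Set (Bx (Fin 3))} {δ κ0 : ℝ}

/-- **FAN-INT, directions** -/
theorem dir_int (BF : BoxFoam La F δ κ0) (hLa : IsOpen La) {R : ℝ} (hR : 1 ≤ R)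
    (hcmp : Cmp F R) {o : Fin 3 → ℝ} {u M : ℝ} (hu : 0 < u) (hM : 0 < M)
    (hdy : ∀ C ∈ F, Dy o u M C) (c : F) :
    ∃ w > 0, (∃ z : Fin 3 → ℤ, ∀ i, bc (F := F) {c} i = o i + z i * w) ∧
      c.1.sz ≤ 2 * R * M * w ∧
      ∀ f : Flg (Pc F) c, ∃ D : Matrix (Fin 3) (Fin 3) ℤ, D.det ≠ 0 ∧
        (∀ i j, |(D i j : ℝ)| ≤ 2 * R * M) ∧ ∀ i j, dir (bc (F := F)) f j i = w * D i j := by
  classical
  obtain ⟨k, z, hs, hz, hst⟩ := Dy.star BF hR hcmp hu hM hdy c
  set W : ℝ := u * (2 : ℝ) ^ (-k) with hW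
  have hW0 : 0 < W := by positivity
  have hg : ∀ c' : F, (Pc F c ∩ Pc F c').Nonempty → ∀ i, ∃ m n : ℤ,
      c'.1.lo i = o i + ((z i : ℝ) + m) * W ∧ c'.1.hi i = o i + ((z i : ℝ) + n) * W := by
    intro c' hc' i
    obtain ⟨m, n, _, _, h1, h2⟩ := hst c' hc' i
    exact ⟨m, n, h1, h2⟩
  have hcc : (fc (Pc F) ({c} : Set F)).Nonempty :=
    ⟨c.1.lo, by
      rw [mem_fc]
      rintro x rfl
      exact Bx.mem_set.2 fun i => ⟨le_rfl, (BF.pos _ x.2 i).le⟩⟩
  refine ⟨W / 2, by positivity, ?_, ?_, ?_⟩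
  · choose n hn using fun i => (bc_int BF hg (mem_singleton c) hcc i).1
    refine ⟨fun i => 2 * z i + n i, fun i => ?_⟩
    rw [hn i]
    push_cast
    ring
  · have : 2 * R * M * (W / 2) = R * M * W := by ring
    rw [this]
    exact hs
  · intro f
    have hd : ∀ j i, ∃ d : ℤ, dir (bc (F := F)) f j i = (W / 2) * d ∧
        |dir (bc (F := F)) f j i| ≤ c.1.sz / 2 := by
      intro j i
      obtain ⟨⟨n0, hn0⟩, -⟩ := bc_int BF hg (mem_singleton c) hcc i
      have key : ∀ A : Set F, c ∈ A → (fc (Pc F) A).Nonempty →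
          ∃ d : ℤ, bc A i - bc {c} i = (W / 2) * d ∧ |bc A i - bc {c} i| ≤ c.1.sz / 2 := by
        intro A hcA hA
        obtain ⟨⟨n, hn⟩, h2⟩ := bc_int BF hg hcA hA i
        refine ⟨n - n0, ?_, h2⟩
        rw [hn, hn0]
        push_cast
        ring
      fin_cases j
      · exact key {c, f.a1} (by simp) f.ne1
      · exact key {c, f.a1, f.a2} (by simp) f.ne2
      · exact key {c, f.a1, f.a2, f.a3} (by simp) f.ne
    choose d hd1 hd2 using hd
    refine ⟨Matrix.of fun i j => d j i, ?_, ?_, ?_⟩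
    · intro hdet
      have hFo := foam BF hLa
      have hli := li hFo f
      have h1 : LinearIndependent ℝ (fun j => (W / 2) • fun i => (d j i : ℝ)) := by
        have : (fun j => (W / 2) • fun i => (d j i : ℝ)) = dir (bc (F := F)) f := by
          funext j i
          simp only [Pi.smul_apply, smul_eq_mul]
          exact (hd1 j i).symm
        rw [this]
        exact hli
      have h2 : LinearIndependent ℝ (fun j => fun i => (d j i : ℝ)) := by
        have h3 := h1.units_smul (fun _ => (Units.mk0 (W / 2) (by positivity))⁻¹)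
        convert h3 using 1
        funext j i
        simp only [Pi.smul_apply', Pi.smul_apply, Units.smul_def, Units.val_inv_eq_inv_val,
          Units.val_mk0, smul_eq_mul]
        field_simp
      have h3 : IsUnit (Matrix.of fun j i => (d j i : ℝ)) :=
        Matrix.linearIndependent_rows_iff_isUnit.1 h2
      have h4 : (Matrix.of fun j i => (d j i : ℝ)).det ≠ 0 := by
        have := (Matrix.isUnit_iff_isUnit_det _).1 h3
        exact this.ne_zero
      apply h4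
      have h5 : (Matrix.of fun j i => (d j i : ℝ)) =
          ((Matrix.of fun i j => d j i).map (Int.castRingHom ℝ)).transpose := by
        ext j i
        simp
      rw [h5, Matrix.det_transpose]
      have h6 := (Int.castRingHom ℝ).map_det (Matrix.of fun i j => d j i)
      rw [hdet] at h6
      simpa using h6.symm
    · intro i j
      have h1 := hd2 j i
      rw [hd1 j i, abs_mul, abs_of_pos (by positivity : 0 < W / 2)] at h1
      have h2 : W / 2 * |((d j i : ℤ) : ℝ)| ≤ W / 2 * (2 * R * M) := by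
        refine h1.trans ?_
        have h3 : 0 ≤ R * M * W := by positivity
        nlinarith
      exact le_of_mul_le_mul_left h2 (by positivity)
    · intro i j
      exact hd1 j i

/-- Cramer's rule for the coordinate functionals of a flag with integer directions -/
theorem cf_cramer {b : Set F → (Fin 3 → ℝ)} {N : ℕ} (FF : Foam La (Pc F) b N)
    (h3 : Module.finrank ℝ (Fin 3 → ℝ) = 3) {c : F} (f : Flg (Pc F) c) {w : ℝ}
    {D : Matrix (Fin 3) (Fin 3) ℤ} (hD : ∀ i j, dir b f j i = w * D i j) (k : Fin 3)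
    (x : Fin 3 → ℝ) :
    w * (D.det : ℝ) * cf FF h3 f k x = ∑ i, (D.adjugate k i : ℝ) * x i := by
  have h1 := cf_sum FF h3 f x
  have hx : ∀ i, x i = w * ∑ j, (D i j : ℝ) * cf FF h3 f j x := by
    intro i
    have h2 := congrFun h1 i
    simp only [Pi.add_apply, Pi.smul_apply, smul_eq_mul, hD] at h2
    rw [← h2, Fin.sum_univ_three]
    ring
  have h4 : ∀ j, ∑ i, (D.adjugate k i : ℝ) * (D i j : ℝ) = if k = j then (D.det : ℝ) else 0 := by
    intro j
    have h5 := congrFun (congrFun (Matrix.adjugate_mul D) k) j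
    rw [Matrix.mul_apply] at h5
    have h6 : ((∑ i, D.adjugate k i * D i j : ℤ) : ℝ) = ((D.det • (1 : Matrix (Fin 3) (Fin 3) ℤ)) k j : ℤ) := by
      rw [h5]
    rw [Matrix.smul_apply, Matrix.one_apply] at h6
    push_cast at h6
    rw [h6]
    split_ifs <;> simp
  calc w * (D.det : ℝ) * cf FF h3 f k x
      = w * ∑ j, (if k = j then (D.det : ℝ) else 0) * cf FF h3 f j x := by
        simp [mul_assoc]
    _ = w * ∑ j, (∑ i, (D.adjugate k i : ℝ) * (D i j : ℝ)) * cf FF h3 f j x := by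
        simp only [h4]
    _ = ∑ i, (D.adjugate k i : ℝ) * x i := by
        simp only [Finset.sum_mul, Finset.mul_sum]
        rw [Finset.sum_comm]
        apply Finset.sum_congr rfl
        intro i _
        rw [hx i]
        simp only [Finset.mul_sum]
        apply Finset.sum_congr rfl
        intro j _
        ring

theorem adj_bound {D : Matrix (Fin 3) (Fin 3) ℤ} {B : ℝ} (hB : ∀ i j, |(D i j : ℝ)| ≤ B)
    (k i : Fin 3) : |((D.adjugate k i : ℤ) : ℝ)| ≤ 2 * B ^ 2 := by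
  have hB0 : 0 ≤ B := (abs_nonneg _).trans (hB 0 0)
  have h2 : ∀ a b c d : Fin 3, |((D a b : ℝ) * (D c d : ℝ))| ≤ B ^ 2 := by
    intro a b c d
    rw [abs_mul, sq]
    exact mul_le_mul (hB a b) (hB c d) (abs_nonneg _) hB0
  have key : ∀ a b c d a' b' c' d' : Fin 3,
      |((D a b : ℝ) * (D c d : ℝ)) - ((D a' b' : ℝ) * (D c' d' : ℝ))| ≤ 2 * B ^ 2 := by
    intro a b c d a' b' c' d'
    refine (abs_sub _ _).trans ?_
    linarith [h2 a b c d, h2 a' b' c' d']
  have key2 : ∀ a b c d a' b' c' d' : Fin 3,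
      |-((D a b : ℝ) * (D c d : ℝ)) + ((D a' b' : ℝ) * (D c' d' : ℝ))| ≤ 2 * B ^ 2 := by
    intro a b c d a' b' c' d'
    have := key a' b' c' d' a b c d
    rw [show -((D a b : ℝ) * (D c d : ℝ)) + ((D a' b' : ℝ) * (D c' d' : ℝ)) =
      ((D a' b' : ℝ) * (D c' d' : ℝ)) - ((D a b : ℝ) * (D c d : ℝ)) by ring]
    exact this
  rw [Matrix.adjugate_fin_three]
  fin_cases k <;> fin_cases i <;> simp <;> first | exact key _ _ _ _ _ _ _ _ | exact key2 _ _ _ _ _ _ _ _

/-- the same functionals with one POSITIVE factor for the three of them -/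
theorem cf_int_of {b : Set F → (Fin 3 → ℝ)} {N : ℕ} (FF : Foam La (Pc F) b N)
    (h3 : Module.finrank ℝ (Fin 3 → ℝ) = 3) {c : F} (f : Flg (Pc F) c) {w B : ℝ} (hw : 0 < w)
    {D : Matrix (Fin 3) (Fin 3) ℤ} (h0 : D.det ≠ 0) (hB : ∀ i j, |(D i j : ℝ)| ≤ B)
    (hD : ∀ i j, dir b f j i = w * D i j) :
    0 < w * |(D.det : ℝ)| ∧ ∃ ν : Fin 3 → Fin 3 → ℤ, (∀ k i, |(ν k i : ℝ)| ≤ 2 * B ^ 2) ∧
      ∀ k x, w * |(D.det : ℝ)| * cf FF h3 f k x = ∑ i, (ν k i : ℝ) * x i := by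
  have hd0 : (D.det : ℝ) ≠ 0 := by exact_mod_cast h0
  refine ⟨mul_pos hw (abs_pos.2 hd0), fun k i => D.det.sign * D.adjugate k i, ?_, ?_⟩
  · intro k i
    have h1 : |((D.det.sign : ℤ) : ℝ)| = 1 := by
      rcases lt_or_gt_of_ne h0 with h | h
      · rw [Int.sign_eq_neg_one_of_neg h]; norm_num
      · rw [Int.sign_eq_one_of_pos h]; norm_num
    rw [Int.cast_mul, abs_mul, h1, one_mul]
    exact adj_bound hB k i
  · intro k x
    have h1 : |(D.det : ℝ)| = ((D.det.sign : ℤ) : ℝ) * (D.det : ℝ) := by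
      rcases lt_or_gt_of_ne h0 with h | h
      · rw [Int.sign_eq_neg_one_of_neg h, abs_of_neg (by exact_mod_cast h)]; push_cast; ring
      · rw [Int.sign_eq_one_of_pos h, abs_of_pos (by exact_mod_cast h)]; push_cast; ring
    have h2 := cf_cramer FF h3 f hD k x
    calc w * |(D.det : ℝ)| * cf FF h3 f k x
        = ((D.det.sign : ℤ) : ℝ) * (w * (D.det : ℝ) * cf FF h3 f k x) := by rw [h1]; ring
      _ = _ := by
        rw [h2, Finset.mul_sum]
        apply Finset.sum_congr rfl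
        intro i _
        push_cast
        ring

/-- integer combinations of the three functionals -/
theorem comb_int {g : Fin 3 → (Fin 3 → ℝ) → ℝ} {s B : ℝ} {ν : Fin 3 → Fin 3 → ℤ}
    (hν : ∀ k i, |(ν k i : ℝ)| ≤ 2 * B ^ 2)
    (h : ∀ k x, s * g k x = ∑ i, (ν k i : ℝ) * x i) {K : ℝ} {p : Fin 3 → ℤ}
    (hp : ∀ k, |(p k : ℝ)| ≤ K) :
    ∃ μ : Fin 3 → ℤ, (∀ i, |(μ i : ℝ)| ≤ 6 * K * B ^ 2) ∧
      ∀ x, s * (p 0 * g 0 x + p 1 * g 1 x + p 2 * g 2 x) = ∑ i, (μ i : ℝ) * x i := by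
  refine ⟨fun i => p 0 * ν 0 i + p 1 * ν 1 i + p 2 * ν 2 i, ?_, ?_⟩
  · intro i
    have hK : 0 ≤ K := (abs_nonneg _).trans (hp 0)
    have h1 : ∀ k, |(p k : ℝ) * (ν k i : ℝ)| ≤ K * (2 * B ^ 2) := by
      intro k
      rw [abs_mul]
      exact mul_le_mul (hp k) (hν k i) (abs_nonneg _) hK
    push_cast
    have h2 := abs_add_le ((p 0 : ℝ) * ν 0 i + p 1 * ν 1 i) (p 2 * ν 2 i)
    have h3 := abs_add_le ((p 0 : ℝ) * ν 0 i) (p 1 * ν 1 i)
    linarith [h1 0, h1 1, h1 2]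
  · intro x
    have h0 := h 0 x
    have h1 := h 1 x
    have h2 := h 2 x
    calc s * (p 0 * g 0 x + p 1 * g 1 x + p 2 * g 2 x)
        = p 0 * (s * g 0 x) + p 1 * (s * g 1 x) + p 2 * (s * g 2 x) := by ring
      _ = _ := by
        rw [h0, h1, h2, Finset.mul_sum, Finset.mul_sum, Finset.mul_sum, ← Finset.sum_add_distrib,
          ← Finset.sum_add_distrib]
        apply Finset.sum_congr rfl
        intro i _
        push_cast
        ring

/-- **FAN-INT, functionals** -/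
theorem cf_int (BF : BoxFoam La F δ κ0) (hLa : IsOpen La) {R : ℝ} (hR : 1 ≤ R)
    (hcmp : Cmp F R) {o : Fin 3 → ℝ} {u M : ℝ} (hu : 0 < u) (hM : 0 < M)
    (hdy : ∀ C ∈ F, Dy o u M C) {N : ℕ} (FF : Foam La (Pc F) (bc (F := F)) N)
    (h3 : Module.finrank ℝ (Fin 3 → ℝ) = 3) (c : F) :
    ∃ w > 0, (∃ z : Fin 3 → ℤ, ∀ i, bc (F := F) {c} i = o i + z i * w) ∧
      c.1.sz ≤ 2 * R * M * w ∧
      ∀ f : Flg (Pc F) c, ∃ D : Matrix (Fin 3) (Fin 3) ℤ, D.det ≠ 0 ∧
        (∀ i j, |(D i j : ℝ)| ≤ 2 * R * M) ∧ (∀ i j, dir (bc (F := F)) f j i = w * D i j) ∧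
        ∃ s > 0, s = w * |(D.det : ℝ)| ∧ ∃ ν : Fin 3 → Fin 3 → ℤ,
          (∀ k i, |(ν k i : ℝ)| ≤ 2 * (2 * R * M) ^ 2) ∧
          (∀ k x, s * cf FF h3 f k x = ∑ i, (ν k i : ℝ) * x i) ∧
          ∀ (K : ℝ) (p : Fin 3 → ℤ), (∀ k, |(p k : ℝ)| ≤ K) →
            ∃ μ : Fin 3 → ℤ, (∀ i, |(μ i : ℝ)| ≤ 6 * K * (2 * R * M) ^ 2) ∧
              ∀ x, s * (p 0 * cf FF h3 f 0 x + p 1 * cf FF h3 f 1 x + p 2 * cf FF h3 f 2 x) =
                ∑ i, (μ i : ℝ) * x i := by
  obtain ⟨w, hw, hz, hs, h⟩ := dir_int BF hLa hR hcmp hu hM hdy c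
  refine ⟨w, hw, hz, hs, fun f => ?_⟩
  obtain ⟨D, h0, hB, hD⟩ := h f
  obtain ⟨hpos, ν, hν, hcf⟩ := cf_int_of FF h3 f hw h0 hB hD
  exact ⟨D, h0, hB, hD, _, hpos, rfl, ν, hν, hcf, fun K p hp =>
    comb_int (g := fun k x => cf FF h3 f k x) hν hcf hp⟩

end Crest.Agent.R096.Fni_447
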