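import Crest.Agent.R096.Mal9_874
import Mathlib.Data.Sign.Basic

/-!
# Row 96, library (MESH-AL), part 10: integer polytopes, prism shells
-/

set_option autoImplicit false

open Set Filter Topology Metric

namespace Crest.Agent.R096.Mal_874

open Msh_715 Cut_874 Msh_810

variable {n : ℕ}

/-! ### integer polytopes in scaled coordinates -/

/-- the real vector of an integer vector -/
def rv (ν : Fin n → ℤ) : Fin n → ℝ := fun m => (ν m : ℝ)

/-- the closed polytope of integer inequalities -/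
def ZP (S : Finset ((Fin n → ℤ) × ℤ)) : Set (Fin n → ℝ) := {u | ∀ p ∈ S, dt (rv p.1) u ≤ p.2}

/-- the open polytope of integer inequalities -/
def ZI (S : Finset ((Fin n → ℤ) × ℤ)) : Set (Fin n → ℝ) := {u | ∀ p ∈ S, dt (rv p.1) u < p.2}

theorem ZI_sub_ZP (S : Finset ((Fin n → ℤ) × ℤ)) : ZI S ⊆ ZP S := fun _ hu p hp => (hu p hp).le

theorem continuous_dt (ν : Fin n → ℝ) : Continuous fun u : Fin n → ℝ => dt ν u := by
  unfold dt
  fun_prop

theorem isOpen_ZI (S : Finset ((Fin n → ℤ) × ℤ)) : IsOpen (ZI S) := by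
  have : ZI S = ⋂ p ∈ S, {u | dt (rv p.1) u < p.2} := by
    ext u; simp [ZI]
  rw [this]
  exact isOpen_biInter_finset fun p _ => isOpen_lt (continuous_dt _) continuous_const

theorem isClosed_ZP (S : Finset ((Fin n → ℤ) × ℤ)) : IsClosed (ZP S) := by
  have : ZP S = ⋂ p ∈ S, {u | dt (rv p.1) u ≤ p.2} := by
    ext u; simp [ZP]
  rw [this]
  exact isClosed_biInter fun p _ => isClosed_le (continuous_dt _) continuous_const

/-- the unit vectors -/
def ez (l : Fin n) : Fin n → ℤ := Pi.single l 1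

theorem dt_ez (l : Fin n) (u : Fin n → ℝ) : dt (rv (ez l)) u = u l := by
  unfold dt rv ez
  rw [Finset.sum_eq_single l]
  · simp
  · intro m _ hm
    simp [Pi.single_eq_of_ne hm]
  · intro h
    exact absurd (Finset.mem_univ l) h

theorem dt_neg_ez (l : Fin n) (u : Fin n → ℝ) : dt (rv (-ez l)) u = -u l := by
  have h : rv (-ez l) = fun m => -(rv (ez l) m) := by
    funext m
    simp [rv]
  rw [h, dt_neg, dt_ez]

theorem dt_congr_of_zero {ν : Fin n → ℤ} {u v : Fin n → ℝ} (h : ∀ l, ν l = 0 ∨ u l = v l) :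
    dt (rv ν) u = dt (rv ν) v := by
  unfold dt rv
  refine Finset.sum_congr rfl fun m _ => ?_
  rcases h m with h | h
  · simp [h]
  · rw [h]

/-! ### tilings of a face by integer polytopes -/

/-- a tiling of the face `{u | lo l ≤ u l ≤ hi l for σ l = 0}` by polytopes with integer inequalities
which do not see the coordinates with `σ l ≠ 0` -/
structure PF (n : ℕ) (lo hi : Fin n → ℤ) (σ : Fin n → SignType) where
  Tc : Type
  fin : Fintype Tc
  G : Tc → Finset ((Fin n → ℤ) × ℤ)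
  z : ∀ τ, ∀ p ∈ G τ, ∀ l, σ l ≠ 0 → p.1 l = 0
  sub : ∀ τ, ∀ u ∈ ZP (G τ), ∀ l, σ l = 0 → (lo l : ℝ) ≤ u l ∧ u l ≤ hi l
  cov : ∀ u : Fin n → ℝ, (∀ l, σ l = 0 → (lo l : ℝ) ≤ u l ∧ u l ≤ hi l) → ∃ τ, u ∈ ZP (G τ)
  ne : ∀ τ, (ZI (G τ)).Nonempty
  dis : ∀ τ τ', τ ≠ τ' → Disjoint (ZI (G τ)) (ZI (G τ'))

namespace PF

variable {lo hi : Fin n → ℤ} {σ : Fin n → SignType} (F : PF n lo hi σ)

theorem congr {τ : F.Tc} {u v : Fin n → ℝ} (h : ∀ l, σ l = 0 → u l = v l) :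
    (u ∈ ZP (F.G τ) ↔ v ∈ ZP (F.G τ)) ∧ (u ∈ ZI (F.G τ) ↔ v ∈ ZI (F.G τ)) := by
  have key : ∀ p ∈ F.G τ, dt (rv p.1) u = dt (rv p.1) v := by
    intro p hp
    refine dt_congr_of_zero fun l => ?_
    by_cases hl : σ l = 0
    · exact Or.inr (h l hl)
    · exact Or.inl (F.z τ p hp l hl)
  constructor
  · constructor
    · intro hu p hp
      rw [← key p hp]
      exact hu p hp
    · intro hu p hp
      rw [key p hp]
      exact hu p hp
  · constructor
    · intro hu p hp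
      rw [← key p hp]
      exact hu p hp
    · intro hu p hp
      rw [key p hp]
      exact hu p hp

theorem sub_lt {τ : F.Tc} {u : Fin n → ℝ} (hu : u ∈ ZI (F.G τ)) {l : Fin n} (hl : σ l = 0) :
    (lo l : ℝ) < u l ∧ u l < hi l := by
  obtain ⟨ε, hε, hb⟩ := Metric.isOpen_iff.1 (isOpen_ZI (F.G τ)) u hu
  have key : ∀ s : ℝ, |s| < ε → u + s • (Pi.single l (1 : ℝ) : Fin n → ℝ) ∈ ZP (F.G τ) := by
    intro s hs
    refine ZI_sub_ZP _ (hb ?_)
    rw [mem_ball, dist_eq_norm]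
    have e : u + s • (Pi.single l (1 : ℝ) : Fin n → ℝ) - u = s • Pi.single l (1 : ℝ) := by abel
    rw [e, norm_smul, Real.norm_eq_abs]
    have h1 : ‖(Pi.single l (1 : ℝ) : Fin n → ℝ)‖ ≤ 1 := by
      rw [pi_norm_le_iff_of_nonneg zero_le_one]
      intro m
      by_cases h : m = l
      · subst h; simp
      · simp [Pi.single_eq_of_ne h]
    nlinarith [abs_nonneg s]
  have h1 := F.sub τ _ (key (ε / 2) (by rw [abs_of_pos (by linarith)]; linarith)) l hl
  have h2 := F.sub τ _ (key (-(ε / 2)) (by rw [abs_neg, abs_of_pos (by linarith)]; linarith)) l hl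
  simp only [Pi.add_apply, Pi.smul_apply, Pi.single_eq_same, smul_eq_mul, mul_one] at h1 h2
  constructor <;> linarith [h1.2, h2.1]

end PF

/-- the inequalities of the face -/
def boxG (lo hi : Fin n → ℤ) (σ : Fin n → SignType) : Finset ((Fin n → ℤ) × ℤ) :=
  (Finset.univ.filter fun l => σ l = 0).biUnion fun l => {(ez l, hi l), (-ez l, -lo l)}

theorem forall_boxG {lo hi : Fin n → ℤ} {σ : Fin n → SignType} {Q : (Fin n → ℤ) × ℤ → Prop} :
    (∀ p ∈ boxG lo hi σ, Q p) ↔ ∀ l, σ l = 0 → Q (ez l, hi l) ∧ Q (-ez l, -lo l) := by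
  unfold boxG
  simp only [Finset.mem_biUnion, Finset.mem_filter, Finset.mem_univ, true_and, Finset.mem_insert,
    Finset.mem_singleton]
  constructor
  · intro h l hl
    exact ⟨h _ ⟨l, hl, Or.inl rfl⟩, h _ ⟨l, hl, Or.inr rfl⟩⟩
  · rintro h p ⟨l, hl, rfl | rfl⟩
    · exact (h l hl).1
    · exact (h l hl).2

theorem mem_ZP_boxG {lo hi : Fin n → ℤ} {σ : Fin n → SignType} {u : Fin n → ℝ} :
    u ∈ ZP (boxG lo hi σ) ↔ ∀ l, σ l = 0 → (lo l : ℝ) ≤ u l ∧ u l ≤ hi l := by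
  unfold ZP
  rw [mem_ofPred_eq, forall_boxG]
  refine forall_congr' fun l => imp_congr_right fun _ => ?_
  rw [dt_ez, dt_neg_ez]
  push_cast
  constructor
  · rintro ⟨h1, h2⟩
    exact ⟨by linarith, h1⟩
  · rintro ⟨h1, h2⟩
    exact ⟨h2, by linarith⟩

theorem mem_ZI_boxG {lo hi : Fin n → ℤ} {σ : Fin n → SignType} {u : Fin n → ℝ} :
    u ∈ ZI (boxG lo hi σ) ↔ ∀ l, σ l = 0 → (lo l : ℝ) < u l ∧ u l < hi l := by
  unfold ZI
  rw [mem_ofPred_eq, forall_boxG]
  refine forall_congr' fun l => imp_congr_right fun _ => ?_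
  rw [dt_ez, dt_neg_ez]
  push_cast
  constructor
  · rintro ⟨h1, h2⟩
    exact ⟨by linarith, h1⟩
  · rintro ⟨h1, h2⟩
    exact ⟨h2, by linarith⟩

/-- the face as one tile -/
def PF.triv {lo hi : Fin n → ℤ} (h : ∀ l, lo l < hi l) (σ : Fin n → SignType) : PF n lo hi σ where
  Tc := Unit
  fin := inferInstance
  G _ := boxG lo hi σ
  z := by
    intro _
    rw [forall_boxG]
    intro l hl
    constructor
    · intro m hm
      have : m ≠ l := fun e => hm (e ▸ hl)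
      simp [ez, Pi.single_eq_of_ne this]
    · intro m hm
      have : m ≠ l := fun e => hm (e ▸ hl)
      simp [ez, Pi.single_eq_of_ne this]
  sub _ u hu := mem_ZP_boxG.1 hu
  cov u hu := ⟨(), mem_ZP_boxG.2 hu⟩
  ne _ := by
    refine ⟨fun l => ((lo l : ℝ) + hi l) / 2, mem_ZI_boxG.2 fun l _ => ?_⟩
    have h1 : (lo l : ℝ) < hi l := by exact_mod_cast h l
    constructor <;> linarith
  dis _ _ h := absurd rfl h

/-! ### prism shells -/

/-- **prism shell**: box with corners `lo < hi`, thickness `t`, a tiling of every face -/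
structure PS (n : ℕ) where
  lo : Fin n → ℤ
  hi : Fin n → ℤ
  lt : ∀ l, lo l < hi l
  t : ℤ
  t0 : 0 < t
  F : ∀ σ : Fin n → SignType, PF n lo hi σ
  one : ∀ τ τ' : (F 0).Tc, τ = τ'

namespace PS

variable (S : PS n)

/-- the tiles of the shell (and the core) -/
abbrev Ix : Type := Σ σ : Fin n → SignType, (S.F σ).Tc

instance : Finite S.Ix := by
  have : ∀ σ, Fintype (S.F σ).Tc := fun σ => (S.F σ).fin
  infer_instance

/-- the slab inequalities -/
def slab (σ : Fin n → SignType) (l : Fin n) : Finset ((Fin n → ℤ) × ℤ) :=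
  if σ l = 1 then {(-ez l, -S.hi l), (ez l, S.hi l + S.t)}
  else if σ l = -1 then {(-ez l, -(S.lo l - S.t)), (ez l, S.lo l)} else ∅

/-- the inequalities of a tile -/
def GG (i : S.Ix) : Finset ((Fin n → ℤ) × ℤ) :=
  (S.F i.1).G i.2 ∪ Finset.univ.biUnion fun l => S.slab i.1 l

theorem forall_GG {i : S.Ix} {Q : (Fin n → ℤ) × ℤ → Prop} :
    (∀ p ∈ S.GG i, Q p) ↔ (∀ p ∈ (S.F i.1).G i.2, Q p) ∧ ∀ l,
      (i.1 l = 1 → Q (-ez l, -S.hi l) ∧ Q (ez l, S.hi l + S.t)) ∧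
      (i.1 l = -1 → Q (-ez l, -(S.lo l - S.t)) ∧ Q (ez l, S.lo l)) := by
  unfold GG
  simp only [Finset.mem_union, Finset.mem_biUnion, Finset.mem_univ, true_and]
  constructor
  · intro h
    refine ⟨fun p hp => h p (Or.inl hp), fun l => ⟨fun hl => ?_, fun hl => ?_⟩⟩
    · have e : S.slab i.1 l = {(-ez l, -S.hi l), (ez l, S.hi l + S.t)} := by
        unfold slab; rw [if_pos hl]
      exact ⟨h _ (Or.inr ⟨l, by rw [e]; simp⟩), h _ (Or.inr ⟨l, by rw [e]; simp⟩)⟩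
    · have e : S.slab i.1 l = {(-ez l, -(S.lo l - S.t)), (ez l, S.lo l)} := by
        unfold slab
        rw [if_neg (by rw [hl]; decide), if_pos hl]
      exact ⟨h _ (Or.inr ⟨l, by rw [e]; simp⟩), h _ (Or.inr ⟨l, by rw [e]; simp⟩)⟩
  · rintro ⟨h1, h2⟩ p (hp | ⟨l, hp⟩)
    · exact h1 p hp
    · unfold slab at hp
      split_ifs at hp with h3 h4
      · simp only [Finset.mem_insert, Finset.mem_singleton] at hp
        rcases hp with rfl | rfl
        · exact ((h2 l).1 h3).1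
        · exact ((h2 l).1 h3).2
      · simp only [Finset.mem_insert, Finset.mem_singleton] at hp
        rcases hp with rfl | rfl
        · exact ((h2 l).2 h4).1
        · exact ((h2 l).2 h4).2
      · exact absurd hp (Finset.notMem_empty _)

theorem mem_ZP {i : S.Ix} {u : Fin n → ℝ} : u ∈ ZP (S.GG i) ↔ u ∈ ZP ((S.F i.1).G i.2) ∧ ∀ l,
    (i.1 l = 1 → (S.hi l : ℝ) ≤ u l ∧ u l ≤ S.hi l + S.t) ∧
    (i.1 l = -1 → (S.lo l - S.t : ℝ) ≤ u l ∧ u l ≤ S.lo l) := by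
  unfold ZP
  rw [mem_ofPred_eq, S.forall_GG]
  refine and_congr Iff.rfl (forall_congr' fun l => ?_)
  rw [dt_ez, dt_neg_ez]
  push_cast
  constructor
  · rintro ⟨h1, h2⟩
    refine ⟨fun h => ?_, fun h => ?_⟩
    · obtain ⟨h3, h4⟩ := h1 h
      exact ⟨by linarith, h4⟩
    · obtain ⟨h3, h4⟩ := h2 h
      exact ⟨by linarith, h4⟩
  · rintro ⟨h1, h2⟩
    refine ⟨fun h => ?_, fun h => ?_⟩
    · obtain ⟨h3, h4⟩ := h1 h
      exact ⟨by linarith, h4⟩
    · obtain ⟨h3, h4⟩ := h2 h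
      exact ⟨by linarith, h4⟩

theorem mem_ZI {i : S.Ix} {u : Fin n → ℝ} : u ∈ ZI (S.GG i) ↔ u ∈ ZI ((S.F i.1).G i.2) ∧ ∀ l,
    (i.1 l = 1 → (S.hi l : ℝ) < u l ∧ u l < S.hi l + S.t) ∧
    (i.1 l = -1 → (S.lo l - S.t : ℝ) < u l ∧ u l < S.lo l) := by
  unfold ZI
  rw [mem_ofPred_eq, S.forall_GG]
  refine and_congr Iff.rfl (forall_congr' fun l => ?_)
  rw [dt_ez, dt_neg_ez]
  push_cast
  constructor
  · rintro ⟨h1, h2⟩
    refine ⟨fun h => ?_, fun h => ?_⟩
    · obtain ⟨h3, h4⟩ := h1 h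
      exact ⟨by linarith, h4⟩
    · obtain ⟨h3, h4⟩ := h2 h
      exact ⟨by linarith, h4⟩
  · rintro ⟨h1, h2⟩
    refine ⟨fun h => ?_, fun h => ?_⟩
    · obtain ⟨h3, h4⟩ := h1 h
      exact ⟨by linarith, h4⟩
    · obtain ⟨h3, h4⟩ := h2 h
      exact ⟨by linarith, h4⟩

/-- the enlarged box (in scaled coordinates) -/
def Bp : Set (Fin n → ℝ) := {u | ∀ l, (S.lo l - S.t : ℝ) ≤ u l ∧ u l ≤ S.hi l + S.t}

/-- the box (in scaled coordinates) -/
def B0 : Set (Fin n → ℝ) := {u | ∀ l, (S.lo l : ℝ) ≤ u l ∧ u l ≤ S.hi l}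

theorem t_pos : (0 : ℝ) < S.t := by exact_mod_cast S.t0

theorem lo_lt (l : Fin n) : (S.lo l : ℝ) < S.hi l := by exact_mod_cast S.lt l

theorem B0_sub : S.B0 ⊆ S.Bp := by
  intro u hu l
  have h := hu l
  have ht := S.t_pos
  constructor <;> linarith [h.1, h.2]

theorem sub_Bp (i : S.Ix) : ZP (S.GG i) ⊆ S.Bp := by
  intro u hu l
  obtain ⟨h1, h2⟩ := S.mem_ZP.1 hu
  have ht := S.t_pos
  have hlt := S.lo_lt l
  rcases hσ : i.1 l with _ | _ | _
  · have h3 := (S.F i.1).sub i.2 u h1 l hσ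
    constructor <;> linarith [h3.1, h3.2]
  · have h3 := (h2 l).2 hσ
    constructor <;> linarith [h3.1, h3.2]
  · have h3 := (h2 l).1 hσ
    constructor <;> linarith [h3.1, h3.2]

/-- the sign pattern of a point -/
noncomputable def sg (u : Fin n → ℝ) (l : Fin n) : SignType :=
  if (S.hi l : ℝ) < u l then 1 else if u l < S.lo l then -1 else 0

theorem cov {u : Fin n → ℝ} (hu : u ∈ S.Bp) : ∃ τ : (S.F (S.sg u)).Tc, u ∈ ZP (S.GG ⟨S.sg u, τ⟩) := by
  obtain ⟨τ, hτ⟩ := (S.F (S.sg u)).cov u (by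
    intro l hl
    unfold sg at hl
    split_ifs at hl with h1 h2
    push Not at h1 h2
    exact ⟨h2, h1⟩)
  refine ⟨τ, S.mem_ZP.2 ⟨hτ, fun l => ?_⟩⟩
  have h := hu l
  constructor
  · intro hl
    change S.sg u l = 1 at hl
    unfold sg at hl
    split_ifs at hl with h1 h2
    exact ⟨h1.le, h.2⟩
  · intro hl
    change S.sg u l = -1 at hl
    unfold sg at hl
    split_ifs at hl with h1 h2
    exact ⟨h.1, h2.le⟩

theorem iUnion_ZP : ⋃ i, ZP (S.GG i) = S.Bp := by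
  refine Set.Subset.antisymm (Set.iUnion_subset S.sub_Bp) ?_
  intro u hu
  obtain ⟨τ, h⟩ := S.cov hu
  exact Set.mem_iUnion.2 ⟨_, h⟩

theorem ne (i : S.Ix) : (ZI (S.GG i)).Nonempty := by
  obtain ⟨u, hu⟩ := (S.F i.1).ne i.2
  have ht := S.t_pos
  refine ⟨fun l => if i.1 l = 0 then u l else if i.1 l = 1 then S.hi l + S.t / 2 else S.lo l - S.t / 2,
    S.mem_ZI.2 ⟨?_, fun l => ⟨fun hl => ?_, fun hl => ?_⟩⟩⟩
  · refine ((S.F i.1).congr (u := u) ?_).2.1 hu
    intro l hl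
    rw [if_pos hl]
  · rw [if_neg (by rw [hl]; decide), if_pos hl]
    constructor <;> linarith
  · rw [if_neg (by rw [hl]; decide), if_neg (by rw [hl]; decide)]
    constructor <;> linarith

theorem dis {i j : S.Ix} (h : i ≠ j) : Disjoint (ZI (S.GG i)) (ZI (S.GG j)) := by
  rw [Set.disjoint_left]
  intro u hi hj
  obtain ⟨h1, h2⟩ := S.mem_ZI.1 hi
  obtain ⟨h3, h4⟩ := S.mem_ZI.1 hj
  by_cases hσ : i.1 = j.1
  · obtain ⟨σ, τ⟩ := i
    obtain ⟨σ', τ'⟩ := j
    obtain rfl : σ = σ' := hσ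
    refine Set.disjoint_left.1 ((S.F σ).dis τ τ' fun e => h (by rw [e])) h1 h3
  · obtain ⟨l, hl⟩ := Function.ne_iff.1 hσ
    have hlt := S.lo_lt l
    have ht := S.t_pos
    rcases hσ1 : i.1 l with _ | _ | _ <;> rcases hσ2 : j.1 l with _ | _ | _
    · exact hl (hσ1.trans hσ2.symm)
    · have a := (S.F i.1).sub_lt h1 hσ1
      have b := (h4 l).2 hσ2
      linarith [a.1, b.2]
    · have a := (S.F i.1).sub_lt h1 hσ1
      have b := (h4 l).1 hσ2
      linarith [a.2, b.1]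
    · have a := (h2 l).2 hσ1
      have b := (S.F j.1).sub_lt h3 hσ2
      linarith [a.2, b.1]
    · exact hl (hσ1.trans hσ2.symm)
    · have a := (h2 l).2 hσ1
      have b := (h4 l).1 hσ2
      linarith [a.2, b.1]
    · have a := (h2 l).1 hσ1
      have b := (S.F j.1).sub_lt h3 hσ2
      linarith [a.1, b.2]
    · have a := (h2 l).1 hσ1
      have b := (h4 l).2 hσ2
      linarith [a.1, b.2]
    · exact hl (hσ1.trans hσ2.symm)

/-- the core -/
noncomputable def core : S.Ix := ⟨0, ((S.F 0).cov (fun l => (S.lo l : ℝ)) fun l _ =>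
  ⟨le_rfl, (S.lo_lt l).le⟩).choose⟩

theorem ZP_core : ZP (S.GG S.core) = S.B0 := by
  ext u
  rw [S.mem_ZP]
  constructor
  · rintro ⟨h1, -⟩ l
    exact (S.F 0).sub _ u h1 l rfl
  · intro hu
    obtain ⟨τ, hτ⟩ := (S.F 0).cov u fun l _ => hu l
    refine ⟨?_, fun l => ⟨fun h => absurd h ?_, fun h => absurd h ?_⟩⟩
    · rw [S.one τ S.core.2] at hτ
      exact hτ
    · show (0 : SignType) ≠ 1
      decide
    · show (0 : SignType) ≠ -1
      decide

end PS

end Crest.Agent.R096.Mal_874
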