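import Crest.Agent.R096.Fbr3_628
import Crest.Agent.R096.Fni1_447
import Crest.Agent.R096.Mal10_874

/-!
# Row 96, FAN (helper628), part 4: the prism shell of a brick (`Mal10_874.PS`)

`BD`: integer data of a brick (unit `w`, centre `z`, half sides `h`, coordinate functionals `ν`);
`vec`: the integer inequality of a wall of an `M`-cell on a face of the brick; `faceF`: the tiling of
a facet by the `M`-cells; `edgeF`: the tiling of a box edge by the `M`-edges.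
-/

set_option autoImplicit false
set_option linter.unusedSectionVars false

open Set

namespace Crest.Agent.R096.Fbr_628

open Crest.Agent.R096.Brk1_582 Crest.Agent.R096.Brk2_582 Crest.Agent.R096.Grd_714
  Crest.Agent.R096.Brk3_582 Crest.Agent.R096.Brk5_582 Crest.Agent.R096.Bsp_628
  Crest.Agent.R096.Mal_874 Crest.Agent.R096.Cut_874

variable {La : Set (Fin 3 → ℝ)} {F : Set (Bx (Fin 3))} {δ κ0 : ℝ} {N : ℕ}

/-- integer data of a brick -/
structure BD (FF : Foam La (Pc F) (bc (F := F)) N) (h3 : Module.finrank ℝ (Fin 3 → ℝ) = 3)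
    (c : F) (o : Fin 3 → ℝ) (B : ℝ) where
  w : ℝ
  w0 : 0 < w
  z : Fin 3 → ℤ
  ctr : ∀ l, bc ({c} : Set F) l = o l + z l * w
  h : Fin 3 → ℤ
  h0 : ∀ l, 0 < h l
  side : ∀ l, hs c l = h l * w
  dle : ∀ (f : Flg (Pc F) c) j l, |dir (bc (F := F)) f j l| ≤ B * w
  s : Flg (Pc F) c → ℝ
  s0 : ∀ f, 0 < s f
  ν : Flg (Pc F) c → Fin 3 → Fin 3 → ℤ
  rep : ∀ f k x, s f * cf FF h3 f k x = ∑ i, (ν f k i : ℝ) * x i
  bnd : ∀ f k i, |(ν f k i : ℝ)| ≤ 2 * B ^ 2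

/-- **the integer data of the bricks of a dyadic box foam** -/
theorem exists_BD (BF : BoxFoam La F δ κ0) (hLa : IsOpen La) {R : ℝ} (hR : 1 ≤ R)
    (hcmp : Cmp F R) {o : Fin 3 → ℝ} {u Md : ℝ} (hu : 0 < u) (hMd : 0 < Md)
    (hdy : ∀ C ∈ F, Dy o u Md C) (FF : Foam La (Pc F) (bc (F := F)) N) (hN : N ≤ 4)
    (h3 : Module.finrank ℝ (Fin 3 → ℝ) = 3) (c : F) : Nonempty (BD FF h3 c o (2 * R * Md)) := by
  obtain ⟨w, hw, ⟨z, hz⟩, hsz, hf⟩ :=
    Fni_447.cf_int BF hLa hR hcmp hu hMd hdy FF h3 c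
  choose D hD0 hDB hD s hs0 hsw ν hν hrep hcomb using hf
  have hh : ∀ l, ∃ h : ℤ, hs c l = h * w := by
    intro l
    obtain ⟨f, -, hfl⟩ := exists_fct_flag FF h3 hN BF hLa (c := c) (l := l)
      (u := hs c l • (Pi.single l 1 : Fin 3 → ℝ)) (ε := 1) (by
        intro j
        rw [Pi.smul_apply, smul_eq_mul]
        by_cases hj : j = l
        · subst hj
          rw [Pi.single_eq_same, mul_one, abs_of_pos (hs_pos BF c j)]
        · rw [Pi.single_eq_of_ne hj, mul_zero, abs_zero]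
          exact (hs_pos BF c j).le) (Or.inl rfl) (by simp)
    refine ⟨D f l 0, ?_⟩
    have h1 := dir_coord FF hfl 0
    rw [hD, one_mul] at h1
    rw [← h1]; ring
  choose h hh using hh
  refine ⟨⟨w, hw, z, hz, h, fun l => ?_, hh, fun f j l => ?_, s, hs0, ν, hrep, hν⟩⟩
  · have h1 := hs_pos BF c l
    rw [hh l] at h1
    have : (0 : ℝ) < h l := pos_of_mul_pos_left h1 hw.le
    exact_mod_cast this
  · rw [hD, abs_mul, abs_of_pos hw, mul_comm]
    exact mul_le_mul_of_nonneg_right (hDB f l j) hw.le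

namespace BD

variable {FF : Foam La (Pc F) (bc (F := F)) N} {h3 : Module.finrank ℝ (Fin 3 → ℝ) = 3} {c : F}
  {o : Fin 3 → ℝ} {B : ℝ} (D : BD FF h3 c o B) (M : ℕ)

include D in
theorem hs_pos' (l : Fin 3) : 0 < hs c l := by
  rw [D.side]
  have h1 : (0 : ℝ) < D.h l := by exact_mod_cast D.h0 l
  exact mul_pos h1 D.w0

/-- lower corner -/
def lo : Fin 3 → ℤ := fun l => M * (D.z l - D.h l)

/-- upper corner -/
def hi : Fin 3 → ℤ := fun l => M * (D.z l + D.h l)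

/-- the point with integer coordinates `X` -/
noncomputable def pt (X : Fin 3 → ℝ) : Fin 3 → ℝ := fun l => o l + D.w / M * X l

/-- displacement from the centre of the point with integer coordinates `X`, projected on the face
`σ` of the brick -/
noncomputable def dsp (σ : Fin 3 → SignType) (X : Fin 3 → ℝ) : Fin 3 → ℝ :=
  fun l => if σ l = 0 then D.w / M * (X l - M * D.z l) else ((σ l : SignType) : ℝ) * hs c l

/-- the integer inequality of a wall -/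
def vec (σ : Fin 3 → SignType) (f : Flg (Pc F) c) (p0 p1 n : ℤ) : (Fin 3 → ℤ) × ℤ :=
  (fun l => if σ l = 0 then p0 * D.ν f 0 l + p1 * D.ν f 1 l else 0,
    ∑ l, if σ l = 0 then (p0 * D.ν f 0 l + p1 * D.ν f 1 l) * (M * D.z l) else
      -((M * (p0 * D.ν f 0 l + p1 * D.ν f 1 l) - n * (D.ν f 0 l + D.ν f 1 l + D.ν f 2 l)) *
        ((σ l : SignType) : ℤ) * D.h l))

/-- the functional of a wall -/
noncomputable def fun' (FF : Foam La (Pc F) (bc (F := F)) N)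
    (h3 : Module.finrank ℝ (Fin 3 → ℝ) = 3) (M : ℕ) (f : Flg (Pc F) c) (p0 p1 n : ℤ) :
    (Fin 3 → ℝ) →L[ℝ] ℝ :=
  (M : ℝ) • ((p0 : ℝ) • cf FF h3 f 0 + (p1 : ℝ) • cf FF h3 f 1) - (n : ℝ) • wf FF h3 f

variable {M}

theorem vec_eq (hM : 0 < M) {σ : Fin 3 → SignType} {f : Flg (Pc F) c}
    (hσ : ∀ l, σ l = 0 → D.ν f 0 l + D.ν f 1 l + D.ν f 2 l = 0) (p0 p1 n : ℤ) (X : Fin 3 → ℝ) :
    D.s f / D.w * fun' FF h3 M f p0 p1 n (D.dsp M σ X) =
      dt (rv (D.vec M σ f p0 p1 n).1) X - (D.vec M σ f p0 p1 n).2 := by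
  have hM' : (M : ℝ) ≠ 0 := by exact_mod_cast hM.ne'
  have hw := D.w0.ne'
  set u := D.dsp M σ X with hu
  have e1 : D.s f * fun' FF h3 M f p0 p1 n u =
      M * (p0 * (∑ i, (D.ν f 0 i : ℝ) * u i) + p1 * ∑ i, (D.ν f 1 i : ℝ) * u i) -
      n * ((∑ i, (D.ν f 0 i : ℝ) * u i) + (∑ i, (D.ν f 1 i : ℝ) * u i) +
        ∑ i, (D.ν f 2 i : ℝ) * u i) := by
    rw [← D.rep, ← D.rep, ← D.rep]
    have : fun' FF h3 M f p0 p1 n u = M * (p0 * cf FF h3 f 0 u + p1 * cf FF h3 f 1 u) -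
      n * (cf FF h3 f 0 u + cf FF h3 f 1 u + cf FF h3 f 2 u) := rfl
    rw [this]; ring
  have e2 : D.s f / D.w * fun' FF h3 M f p0 p1 n u =
      ∑ i, (1 / D.w * ((M * (p0 * D.ν f 0 i + p1 * D.ν f 1 i) -
        n * (D.ν f 0 i + D.ν f 1 i + D.ν f 2 i)) * u i)) := by
    rw [div_mul_eq_mul_div, e1, Fin.sum_univ_three, Fin.sum_univ_three, Fin.sum_univ_three,
      Fin.sum_univ_three]
    ring
  rw [e2]
  unfold dt vec
  simp only [Int.cast_sum, ← Finset.sum_sub_distrib, rv]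
  refine Finset.sum_congr rfl fun l _ => ?_
  by_cases hl : σ l = 0
  · have hn : ((D.ν f 0 l : ℝ) + D.ν f 1 l + D.ν f 2 l) = 0 := by exact_mod_cast hσ l hl
    rw [hn, hu]
    simp only [dsp, if_pos hl]
    push_cast
    field_simp
    ring
  · rw [hu]
    simp only [dsp, if_neg hl, D.side]
    push_cast
    field_simp
    ring

theorem null_of_fct {f : Flg (Pc F) c} {l0 : Fin 3} {ε : ℝ} (h : Fct c f.a1 l0 ε) {l : Fin 3}
    (hl : l ≠ l0) : D.ν f 0 l + D.ν f 1 l + D.ν f 2 l = 0 := by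
  have h1 := wf_of_fct FF h3 h (Pi.single l 1)
  rw [Pi.single_eq_of_ne hl.symm, mul_zero] at h1
  have h2 : wf FF h3 f (Pi.single l 1) = 0 := (mul_eq_zero.1 h1).resolve_left (D.hs_pos' l0).ne'
  have h4 : ∀ k, D.s f * cf FF h3 f k (Pi.single l 1) = D.ν f k l := by
    intro k
    rw [D.rep, Finset.sum_eq_single l]
    · simp
    · intro m _ hm
      simp [Pi.single_eq_of_ne hm]
    · intro h
      exact absurd (Finset.mem_univ l) h
  have h5 : ((D.ν f 0 l : ℝ) + D.ν f 1 l + D.ν f 2 l) = 0 := by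
    rw [← h4, ← h4, ← h4, ← mul_add, ← mul_add, ← wf_apply, h2, mul_zero]
  exact_mod_cast h5

theorem fac_pos (f : Flg (Pc F) c) : 0 < D.s f / D.w := div_pos (D.s0 f) D.w0

theorem vec_le (hM : 0 < M) {σ : Fin 3 → SignType} {f : Flg (Pc F) c} {l0 : Fin 3} {ε : ℝ}
    (h : Fct c f.a1 l0 ε) (h0 : σ l0 ≠ 0) {p0 p1 n : ℤ} {X : Fin 3 → ℝ} :
    dt (rv (D.vec M σ f p0 p1 n).1) X ≤ (D.vec M σ f p0 p1 n).2 ↔
      fun' FF h3 M f p0 p1 n (D.dsp M σ X) ≤ 0 := by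
  have h1 := D.vec_eq hM (σ := σ) (f := f)
    (fun l hl => D.null_of_fct h fun e => h0 (e ▸ hl)) p0 p1 n X
  have h2 := D.fac_pos f
  constructor
  · intro h5
    by_contra h6
    push Not at h6
    have := mul_pos h2 h6
    linarith
  · intro h5
    have := mul_nonpos_of_nonneg_of_nonpos h2.le h5
    linarith

theorem vec_lt (hM : 0 < M) {σ : Fin 3 → SignType} {f : Flg (Pc F) c} {l0 : Fin 3} {ε : ℝ}
    (h : Fct c f.a1 l0 ε) (h0 : σ l0 ≠ 0) {p0 p1 n : ℤ} {X : Fin 3 → ℝ} :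
    dt (rv (D.vec M σ f p0 p1 n).1) X < (D.vec M σ f p0 p1 n).2 ↔
      fun' FF h3 M f p0 p1 n (D.dsp M σ X) < 0 := by
  have h1 := D.vec_eq hM (σ := σ) (f := f)
    (fun l hl => D.null_of_fct h fun e => h0 (e ▸ hl)) p0 p1 n X
  have h2 := D.fac_pos f
  constructor
  · intro h5
    by_contra h6
    push Not at h6
    have := mul_nonneg h2.le h6
    linarith
  · intro h5
    have := mul_neg_of_pos_of_neg h2 h5
    linarith

theorem vec_zero (σ : Fin 3 → SignType) (f : Flg (Pc F) c) (p0 p1 n : ℤ) {l : Fin 3}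
    (hl : σ l ≠ 0) : (D.vec M σ f p0 p1 n).1 l = 0 := by
  simp only [vec, if_neg hl]

theorem vec_bnd (σ : Fin 3 → SignType) (f : Flg (Pc F) c) {p0 p1 : ℤ} (n : ℤ) (h0 : |p0| ≤ 1)
    (h1 : |p1| ≤ 1) (l : Fin 3) : |((D.vec M σ f p0 p1 n).1 l : ℝ)| ≤ 4 * B ^ 2 := by
  by_cases hl : σ l = 0
  · simp only [vec, if_pos hl]
    push_cast
    have a0 := D.bnd f 0 l
    have a1 := D.bnd f 1 l
    have b0 : |(p0 : ℝ)| ≤ 1 := by exact_mod_cast h0
    have b1 : |(p1 : ℝ)| ≤ 1 := by exact_mod_cast h1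
    have := abs_add_le ((p0 : ℝ) * D.ν f 0 l) (p1 * D.ν f 1 l)
    rw [abs_mul, abs_mul] at this
    have c0 : |(p0 : ℝ)| * |(D.ν f 0 l : ℝ)| ≤ 1 * (2 * B ^ 2) :=
      mul_le_mul b0 a0 (abs_nonneg _) zero_le_one
    have c1 : |(p1 : ℝ)| * |(D.ν f 1 l : ℝ)| ≤ 1 * (2 * B ^ 2) :=
      mul_le_mul b1 a1 (abs_nonneg _) zero_le_one
    linarith
  · rw [D.vec_zero σ f p0 p1 n hl, Int.cast_zero, abs_zero]
    positivity

/-- the range of a free coordinate -/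
theorem dsp_range (hM : 0 < M) {σ : Fin 3 → SignType} {X : Fin 3 → ℝ} {l : Fin 3} (hl : σ l = 0) :
    |D.dsp M σ X l| ≤ hs c l ↔ (D.lo M l : ℝ) ≤ X l ∧ X l ≤ D.hi M l := by
  have hM' : (0 : ℝ) < M := by exact_mod_cast hM
  have hw := D.w0
  simp only [dsp, if_pos hl, D.side, lo, hi]
  push_cast
  have e : D.w / M * (X l - M * D.z l) = D.w * ((X l - M * D.z l) / M) := by ring
  rw [e, abs_mul, abs_of_pos hw, mul_comm (D.h l : ℝ), mul_le_mul_iff_right₀ hw, abs_le,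
    le_div_iff₀ hM', div_le_iff₀ hM']
  constructor
  · rintro ⟨h1, h2⟩
    constructor <;> linarith
  · rintro ⟨h1, h2⟩
    constructor <;> linarith

theorem sign_cast {ε : SignType} (h : ε ≠ 0) : (ε : ℝ) = 1 ∨ (ε : ℝ) = -1 := by
  rcases ε with _ | _ | _
  · exact absurd rfl h
  · right; simp
  · left; simp

theorem dsp_abs {σ : Fin 3 → SignType} {X : Fin 3 → ℝ} {l : Fin 3} (hl : σ l ≠ 0) :
    |D.dsp M σ X l| ≤ hs c l := by
  simp only [dsp, if_neg hl]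
  rw [abs_mul, abs_of_pos (D.hs_pos' l)]
  rcases sign_cast hl with h | h <;> rw [h] <;> simp

theorem dsp_coord {σ : Fin 3 → SignType} {X : Fin 3 → ℝ} {l : Fin 3} (hl : σ l ≠ 0) :
    D.dsp M σ X l = ((σ l : SignType) : ℝ) * hs c l := by
  simp only [dsp, if_neg hl]

theorem abs_dsp_le (hM : 0 < M) {σ : Fin 3 → SignType} {X : Fin 3 → ℝ}
    (h : ∀ l, σ l = 0 → (D.lo M l : ℝ) ≤ X l ∧ X l ≤ D.hi M l) (l : Fin 3) :
    |D.dsp M σ X l| ≤ hs c l := by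
  by_cases hl : σ l = 0
  · exact (D.dsp_range hM hl).2 (h l hl)
  · exact D.dsp_abs hl

/-- a point of the face from its displacement -/
theorem exists_X (hM : 0 < M) {σ : Fin 3 → SignType} {u : Fin 3 → ℝ}
    (hu : ∀ l, σ l ≠ 0 → u l = ((σ l : SignType) : ℝ) * hs c l) : ∃ X, D.dsp M σ X = u := by
  have hM' : (M : ℝ) ≠ 0 := by exact_mod_cast hM.ne'
  have hw := D.w0.ne'
  refine ⟨fun l => M / D.w * u l + M * D.z l, funext fun l => ?_⟩
  by_cases hl : σ l = 0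
  · simp only [dsp, if_pos hl]
    field_simp
    ring
  · rw [D.dsp_coord hl, hu l hl]

/-- real points -/
theorem pt_eq (hM : 0 < M) {σ : Fin 3 → SignType} {X : Fin 3 → ℝ}
    (h1 : ∀ l, σ l = 1 → X l = D.hi M l) (h2 : ∀ l, σ l = -1 → X l = D.lo M l) :
    D.pt M X = bc ({c} : Set F) + D.dsp M σ X := by
  have hM' : (M : ℝ) ≠ 0 := by exact_mod_cast hM.ne'
  funext l
  rw [Pi.add_apply, D.ctr]
  simp only [pt, dsp]
  rcases hl : σ l with _ | _ | _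
  · have : (SignType.zero : SignType) = 0 := rfl
    rw [if_pos this]
    field_simp
    ring
  · have h3 := h2 l hl
    have : (SignType.neg : SignType) ≠ 0 := by decide
    rw [if_neg this, h3, D.side]
    simp only [lo]
    have e : ((SignType.neg : SignType) : ℝ) = -1 := by simp
    rw [e]
    push_cast
    field_simp
    ring
  · have h3 := h1 l hl
    have : (SignType.pos : SignType) ≠ 0 := by decide
    rw [if_neg this, h3, D.side]
    simp only [hi]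
    have e : ((SignType.pos : SignType) : ℝ) = 1 := by simp
    rw [e]
    push_cast
    field_simp
    ring

/-! ### the facets -/

theorem dat_a1 (t : Tc (Pc F) c M) (k : Fin 4) : (dat t k).1.a1 = t.1.1.a1 := by
  unfold dat
  split_ifs with h
  · fin_cases k <;> rfl
  · fin_cases k <;> rfl

theorem ineq_eq (t : Tc (Pc F) c M) (k : Fin 4) :
    ineq FF h3 t k = fun' FF h3 M (dat t k).1 (dat t k).2.1 (dat t k).2.2.1 (dat t k).2.2.2 := rfl

/-- the inequalities of an `M`-cell -/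
noncomputable def cellG (σ : Fin 3 → SignType) (t : Tc (Pc F) c M) :
    Finset ((Fin 3 → ℤ) × ℤ) :=
  Finset.univ.image fun k : Fin 4 =>
    D.vec M σ (dat t k).1 (dat t k).2.1 (dat t k).2.2.1 (dat t k).2.2.2

theorem forall_cellG {σ : Fin 3 → SignType} {t : Tc (Pc F) c M}
    {Q : (Fin 3 → ℤ) × ℤ → Prop} : (∀ p ∈ D.cellG σ t, Q p) ↔
      ∀ k, Q (D.vec M σ (dat t k).1 (dat t k).2.1 (dat t k).2.2.1 (dat t k).2.2.2) := by
  unfold cellG
  simp only [Finset.mem_image, Finset.mem_univ, true_and, forall_exists_index,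
    forall_apply_eq_imp_iff]

theorem mem_ZP_cell (hM : 0 < M) {σ : Fin 3 → SignType} {t : Tc (Pc F) c M} {l0 : Fin 3} {ε : ℝ}
    (h : Fct c t.1.1.a1 l0 ε) (h0 : σ l0 ≠ 0) {X : Fin 3 → ℝ} :
    X ∈ ZP (D.cellG σ t) ↔ ∀ k, ineq FF h3 t k (D.dsp M σ X) ≤ 0 := by
  unfold ZP
  rw [mem_ofPred_eq, D.forall_cellG]
  refine forall_congr' fun k => ?_
  rw [D.vec_le hM (l0 := l0) (ε := ε) (by rw [dat_a1]; exact h) h0, ineq_eq]

theorem mem_ZI_cell (hM : 0 < M) {σ : Fin 3 → SignType} {t : Tc (Pc F) c M} {l0 : Fin 3} {ε : ℝ}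
    (h : Fct c t.1.1.a1 l0 ε) (h0 : σ l0 ≠ 0) {X : Fin 3 → ℝ} :
    X ∈ ZI (D.cellG σ t) ↔ ∀ k, ineq FF h3 t k (D.dsp M σ X) < 0 := by
  unfold ZI
  rw [mem_ofPred_eq, D.forall_cellG]
  refine forall_congr' fun k => ?_
  rw [D.vec_lt hM (l0 := l0) (ε := ε) (by rw [dat_a1]; exact h) h0, ineq_eq]

include D in
theorem wf_one {f : Flg (Pc F) c} {l0 : Fin 3} {ε : ℝ} (h : Fct c f.a1 l0 ε) {u : Fin 3 → ℝ}
    (hu : u l0 = ε * hs c l0) : wf FF h3 f u = 1 := by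
  have h1 := wf_of_fct FF h3 h u
  rw [hu] at h1
  have h2 : ε * ε = 1 := by rcases h.eps with h | h <;> rw [h] <;> norm_num
  have h5 : hs c l0 * (wf FF h3 f u - 1) = 0 := by linear_combination h1 + hs c l0 * h2
  have := (mul_eq_zero.1 h5).resolve_left (D.hs_pos' l0).ne'
  linarith

include D in
theorem inC_of_cell (hQ : Quads (Pc F) (bc (F := F))) {t : Tc (Pc F) c M} {l0 : Fin 3} {ε : ℝ}
    (h : Fct c t.1.1.a1 l0 ε) {u : Fin 3 → ℝ} (hu : u l0 = ε * hs c l0)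
    (hi : ∀ k, ineq FF h3 t k u ≤ 0) :
    ∃ g, (g = t.1.1 ∨ g = t.1.1.sw ∧ t.1.2.1 = t.1.2.2) ∧ InC FF h3 g u ∧
      (t.1.2.1 : ℕ) ≤ M * cf FF h3 g 0 u ∧ M * cf FF h3 g 0 u ≤ (t.1.2.1 : ℕ) + 1 ∧
      (t.1.2.2 : ℕ) ≤ M * (cf FF h3 g 0 u + cf FF h3 g 1 u) ∧
      M * (cf FF h3 g 0 u + cf FF h3 g 1 u) ≤ (t.1.2.2 : ℕ) + 1 := by
  obtain ⟨g, hg, hw, g0, g1, g2, k1, k2, k3, k4⟩ := cone_cases FF h3 hQ hi
  have hwt := D.wf_one h hu
  rw [hwt] at hw
  rw [← hw] at k1 k2 k3 k4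
  rw [mul_one] at k1 k2 k3 k4
  refine ⟨g, hg, ⟨?_, hw.symm⟩, k1, k2, k3, k4⟩
  intro k
  fin_cases k
  · exact g0
  · exact g1
  · exact g2

variable (hN : N ≤ 4) (BF : BoxFoam La F δ κ0) (hLa : IsOpen La)
  (hQ : Quads (Pc F) (bc (F := F)))

/-- **the tiling of a facet by the `M`-cells** -/
noncomputable def faceF (hM : 0 < M) {σ : Fin 3 → SignType} {l0 : Fin 3} (h0 : σ l0 ≠ 0)
    (h1 : ∀ l, l ≠ l0 → σ l = 0) : PF 3 (D.lo M) (D.hi M) σ where
  Tc := {t : Tc (Pc F) c M // Fct c t.1.1.a1 l0 ((σ l0 : SignType) : ℝ)}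
  fin := by
    haveI := finite_Tc FF c M
    exact Fintype.ofFinite _
  G t := D.cellG σ t.1
  z t := D.forall_cellG.2 fun k l hl => D.vec_zero _ _ _ _ _ hl
  sub t X hX l hl := by
    rw [D.mem_ZP_cell hM t.2 h0] at hX
    obtain ⟨g, -, hi, -⟩ := D.inC_of_cell hQ t.2 (D.dsp_coord h0) hX
    exact (D.dsp_range hM hl).1 (mem_Pc.1 (hi.mem FF h3) l)
  cov X hX := by
    obtain ⟨f, hf, hfl⟩ := exists_fct_flag FF h3 hN BF hLa (D.abs_dsp_le hM hX) (sign_cast h0)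
      (D.dsp_coord h0)
    obtain ⟨t, ht, htf⟩ := exists_tc_of_flag FF h3 hQ hM f (hf.1 0) (hf.1 1) (hf.1 2)
    have hfc : Fct c t.1.1.a1 l0 ((σ l0 : SignType) : ℝ) := by
      rcases htf with h | h <;> rw [h] <;> exact hfl
    exact ⟨⟨t, hfc⟩, (D.mem_ZP_cell hM hfc h0).2 ht⟩
  ne t := by
    obtain ⟨hw, hi⟩ := vt_spec FF h3 hQ t.1
    have hu : ∀ l, σ l ≠ 0 → vt (bc (F := F)) t.1 l = ((σ l : SignType) : ℝ) * hs c l := by
      intro l hl
      have hll : l = l0 := by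
        by_contra h
        exact hl (h1 l h)
      subst hll
      have h5 := wf_of_fct FF h3 t.2 (vt (bc (F := F)) t.1)
      rw [hw, mul_one] at h5
      rw [h5, ← mul_assoc]
      have : ((σ l : SignType) : ℝ) * ((σ l : SignType) : ℝ) = 1 := by
        rcases sign_cast hl with h | h <;> rw [h] <;> norm_num
      rw [this, one_mul]
    obtain ⟨X, hX⟩ := D.exists_X hM hu
    refine ⟨X, (D.mem_ZI_cell hM t.2 h0).2 ?_⟩
    rw [hX]
    exact hi
  dis t t' hne := by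
    rw [Set.disjoint_left]
    intro X hX hX'
    rw [D.mem_ZI_cell hM t.2 h0] at hX
    rw [D.mem_ZI_cell hM t'.2 h0] at hX'
    exact hne (Subtype.ext (tc_dis FF h3 hQ hX hX'))

/-! ### the box edges -/

include D BF in
theorem edge_cf0 {f : Flg (Pc F) c} {l1 l2 : Fin 3} (hl : l1 ≠ l2) {ε1 ε2 : ℝ}
    (h1 : Fct c f.a1 l1 ε1) (h2 : Fct c f.a2 l2 ε2) {u : Fin 3 → ℝ}
    (hu1 : u l1 = ε1 * hs c l1) (hu2 : u l2 = ε2 * hs c l2) :
    cf FF h3 f 0 u = 0 ∧ cf FF h3 f 1 u + cf FF h3 f 2 u = 1 := by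
  have w1 := D.wf_one h1 hu1
  have w2 : wf FF h3 f.sv u = 1 := D.wf_one (f := f.sv) h2 hu2
  have key : ∀ v, wf FF h3 f.sv v = cf FF h3 f 0 v * wf FF h3 f.sv (dir (bc (F := F)) f 0) +
      cf FF h3 f 1 v + cf FF h3 f 2 v := by
    intro v
    have e1 : wf FF h3 f.sv (dir (bc (F := F)) f 1) = 1 := by
      rw [← dir_sv_one, wf_apply, cf_dir, cf_dir, cf_dir]; simp
    have e2 : wf FF h3 f.sv (dir (bc (F := F)) f 2) = 1 := by
      rw [← dir_sv_two, wf_apply, cf_dir, cf_dir, cf_dir]; simp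
    conv_lhs => rw [← cf_sum FF h3 f v]
    rw [map_add, map_add, map_smul, map_smul, map_smul, e1, e2]
    simp only [smul_eq_mul, mul_one]
  set κ := wf FF h3 f.sv (dir (bc (F := F)) f 0) with hκ
  have hκ1 : κ ≠ 1 := by
    intro h
    have k1 := wf_of_fct FF h3 h1 (Pi.single l1 1)
    have k2 := wf_of_fct FF h3 (f := f.sv) h2 (Pi.single l1 1)
    rw [Pi.single_eq_same, mul_one] at k1
    rw [Pi.single_eq_of_ne hl.symm, mul_zero] at k2
    have k3 := key (Pi.single l1 1)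
    rw [h, mul_one, ← wf_apply] at k3
    rw [k3] at k2
    have k4 := (mul_eq_zero.1 k2).resolve_left (D.hs_pos' l2).ne'
    rw [k4, mul_zero] at k1
    rcases h1.eps with h | h <;> rw [h] at k1 <;> norm_num at k1
  have k5 := key u
  rw [w2] at k5
  rw [wf_apply] at w1
  have h5 : cf FF h3 f 0 u * (κ - 1) = 0 := by linarith
  have h6 := (mul_eq_zero.1 h5).resolve_right (sub_ne_zero.2 hκ1)
  exact ⟨h6, by linarith⟩

theorem exists_fin (hM : 0 < M) {x : ℝ} (h0 : 0 ≤ x) (h1 : x ≤ 1) :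
    ∃ i : Fin M, ((i : ℕ) : ℝ) ≤ M * x ∧ M * x ≤ (i : ℕ) + 1 := by
  have hM' : (0 : ℝ) < M := by exact_mod_cast hM
  have hx : 0 ≤ M * x := by positivity
  rcases h1.eq_or_lt with rfl | h1
  · refine ⟨⟨M - 1, by omega⟩, ?_, ?_⟩
    · show (((M - 1 : ℕ) : ℝ)) ≤ _
      rw [Nat.cast_sub hM]; simp
    · show _ ≤ (((M - 1 : ℕ) : ℝ)) + 1
      rw [Nat.cast_sub hM]; simp
  · have h2 : M * x < M := by nlinarith
    refine ⟨⟨⌊M * x⌋₊, by rw [Nat.floor_lt hx]; exact h2⟩, Nat.floor_le hx,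
      (Nat.lt_floor_add_one _).le⟩

/-- the inequalities of an `M`-edge -/
noncomputable def edgG (σ : Fin 3 → SignType) (x : Flg (Pc F) c × Fin M) :
    Finset ((Fin 3 → ℤ) × ℤ) :=
  {D.vec M σ x.1 1 1 ((x.2 : ℕ) + 1), D.vec M σ x.1 (-1) (-1) (-(x.2 : ℕ))}

theorem forall_edgG {σ : Fin 3 → SignType} {x : Flg (Pc F) c × Fin M}
    {Q : (Fin 3 → ℤ) × ℤ → Prop} : (∀ p ∈ D.edgG σ x, Q p) ↔
      Q (D.vec M σ x.1 1 1 ((x.2 : ℕ) + 1)) ∧ Q (D.vec M σ x.1 (-1) (-1) (-(x.2 : ℕ))) := by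
  unfold edgG
  simp only [Finset.mem_insert, Finset.mem_singleton, forall_eq_or_imp, forall_eq]

include BF in
theorem mem_ZP_edg (hM : 0 < M) {σ : Fin 3 → SignType} {x : Flg (Pc F) c × Fin M} {l1 l2 : Fin 3}
    (hl : l1 ≠ l2) (h1 : Fct c x.1.a1 l1 ((σ l1 : SignType) : ℝ))
    (h2 : Fct c x.1.a2 l2 ((σ l2 : SignType) : ℝ)) (h01 : σ l1 ≠ 0) (h02 : σ l2 ≠ 0)
    {X : Fin 3 → ℝ} : X ∈ ZP (D.edgG σ x) ↔
      ((x.2 : ℕ) : ℝ) ≤ M * cf FF h3 x.1 1 (D.dsp M σ X) ∧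
        M * cf FF h3 x.1 1 (D.dsp M σ X) ≤ (x.2 : ℕ) + 1 := by
  unfold ZP
  rw [mem_ofPred_eq, D.forall_edgG, D.vec_le hM h1 h01, D.vec_le hM h1 h01]
  have w1 := D.wf_one h1 (D.dsp_coord h01 (M := M) (X := X))
  have w2 := (D.edge_cf0 BF hl h1 h2 (D.dsp_coord h01 (M := M) (X := X))
    (D.dsp_coord h02 (M := M) (X := X))).1
  have e : ∀ p0 p1 n : ℤ, fun' FF h3 M x.1 p0 p1 n (D.dsp M σ X) =
      M * (p0 * cf FF h3 x.1 0 (D.dsp M σ X) + p1 * cf FF h3 x.1 1 (D.dsp M σ X)) -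
      n * wf FF h3 x.1 (D.dsp M σ X) := fun _ _ _ => rfl
  rw [e, e, w1, w2]
  push_cast
  constructor
  · rintro ⟨h, h'⟩
    constructor <;> linarith
  · rintro ⟨h, h'⟩
    constructor <;> linarith

include BF in
theorem mem_ZI_edg (hM : 0 < M) {σ : Fin 3 → SignType} {x : Flg (Pc F) c × Fin M} {l1 l2 : Fin 3}
    (hl : l1 ≠ l2) (h1 : Fct c x.1.a1 l1 ((σ l1 : SignType) : ℝ))
    (h2 : Fct c x.1.a2 l2 ((σ l2 : SignType) : ℝ)) (h01 : σ l1 ≠ 0) (h02 : σ l2 ≠ 0)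
    {X : Fin 3 → ℝ} : X ∈ ZI (D.edgG σ x) ↔
      ((x.2 : ℕ) : ℝ) < M * cf FF h3 x.1 1 (D.dsp M σ X) ∧
        M * cf FF h3 x.1 1 (D.dsp M σ X) < (x.2 : ℕ) + 1 := by
  unfold ZI
  rw [mem_ofPred_eq, D.forall_edgG, D.vec_lt hM h1 h01, D.vec_lt hM h1 h01]
  have w1 := D.wf_one h1 (D.dsp_coord h01 (M := M) (X := X))
  have w2 := (D.edge_cf0 BF hl h1 h2 (D.dsp_coord h01 (M := M) (X := X))
    (D.dsp_coord h02 (M := M) (X := X))).1
  have e : ∀ p0 p1 n : ℤ, fun' FF h3 M x.1 p0 p1 n (D.dsp M σ X) =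
      M * (p0 * cf FF h3 x.1 0 (D.dsp M σ X) + p1 * cf FF h3 x.1 1 (D.dsp M σ X)) -
      n * wf FF h3 x.1 (D.dsp M σ X) := fun _ _ _ => rfl
  rw [e, e, w1, w2]
  push_cast
  constructor
  · rintro ⟨h, h'⟩
    constructor <;> linarith
  · rintro ⟨h, h'⟩
    constructor <;> linarith

include D BF in
/-- a point of a closed `M`-edge -/
theorem inC_of_edg {f : Flg (Pc F) c} {i : Fin M} {l1 l2 : Fin 3} (hl : l1 ≠ l2) {ε1 ε2 : ℝ}
    (h1 : Fct c f.a1 l1 ε1) (h2 : Fct c f.a2 l2 ε2) {u : Fin 3 → ℝ}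
    (hu1 : u l1 = ε1 * hs c l1) (hu2 : u l2 = ε2 * hs c l2)
    (k1 : ((i : ℕ) : ℝ) ≤ M * cf FF h3 f 1 u) (k2 : M * cf FF h3 f 1 u ≤ (i : ℕ) + 1) :
    InC FF h3 f u := by
  have hM : (0 : ℝ) < M := by
    have := i.pos
    exact_mod_cast this
  obtain ⟨e0, e1⟩ := D.edge_cf0 BF hl h1 h2 hu1 hu2
  have hi : (((i : ℕ) : ℝ)) + 1 ≤ M := by exact_mod_cast i.2
  have hi0 : (0 : ℝ) ≤ (i : ℕ) := Nat.cast_nonneg _
  have p1 : 0 ≤ cf FF h3 f 1 u := nonneg_of_mul_nonneg_right (hi0.trans k1) hM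
  have p2 : cf FF h3 f 1 u ≤ 1 := by
    by_contra h
    push Not at h
    nlinarith
  refine ⟨?_, by rw [wf_apply, e0]; linarith⟩
  intro k
  fin_cases k
  · exact e0.ge
  · exact p1
  · show 0 ≤ cf FF h3 f 2 u
    linarith

/-- **the tiling of a box edge by the `M`-edges** -/
noncomputable def edgeF (hM : 0 < M) {σ : Fin 3 → SignType} {l1 l2 : Fin 3} (hl : l1 ≠ l2)
    (h01 : σ l1 ≠ 0) (h02 : σ l2 ≠ 0) (h1 : ∀ l, l ≠ l1 → l ≠ l2 → σ l = 0) :
    PF 3 (D.lo M) (D.hi M) σ where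
  Tc := {x : Flg (Pc F) c × Fin M // Fct c x.1.a1 l1 ((σ l1 : SignType) : ℝ) ∧
    Fct c x.1.a2 l2 ((σ l2 : SignType) : ℝ)}
  fin := by
    haveI := finite_flg FF c
    exact Fintype.ofFinite _
  G x := D.edgG σ x.1
  z x := D.forall_edgG.2 ⟨fun l hl => D.vec_zero _ _ _ _ _ hl, fun l hl => D.vec_zero _ _ _ _ _ hl⟩
  sub x X hX l hl' := by
    rw [D.mem_ZP_edg BF hM hl x.2.1 x.2.2 h01 h02] at hX
    have hi := D.inC_of_edg BF hl x.2.1 x.2.2 (D.dsp_coord h01) (D.dsp_coord h02) hX.1 hX.2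
    exact (D.dsp_range hM hl').1 (mem_Pc.1 (hi.mem FF h3) l)
  cov X hX := by
    obtain ⟨f, hf, hf1, hf2, hf0⟩ := exists_fct_flag2 FF h3 hN BF hLa (D.abs_dsp_le hM hX) hl
      (sign_cast h01) (sign_cast h02) (D.dsp_coord h01) (D.dsp_coord h02)
    have hw := hf.2
    rw [wf_apply, hf0] at hw
    have p1 := hf.1 1
    have p2 := hf.1 2
    obtain ⟨i, hi1, hi2⟩ := exists_fin hM p1 (by linarith)
    exact ⟨⟨(f, i), hf1, hf2⟩, (D.mem_ZP_edg BF hM hl hf1 hf2 h01 h02).2 ⟨hi1, hi2⟩⟩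
  ne x := by
    obtain ⟨⟨f, i⟩, hf1, hf2⟩ := x
    have hM' : (0 : ℝ) < M := by exact_mod_cast hM
    set p : ℝ := (2 * (i : ℕ) + 1) / (2 * M) with hp
    obtain ⟨c0, c1, c2⟩ := cf_comb FF h3 f 0 p (1 - p)
    set u := (0 : ℝ) • dir (bc (F := F)) f 0 + p • dir (bc (F := F)) f 1 +
      (1 - p) • dir (bc (F := F)) f 2 with hu
    have hul : ∀ l, σ l ≠ 0 → u l = ((σ l : SignType) : ℝ) * hs c l := by
      intro l hll
      have : l = l1 ∨ l = l2 := by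
        by_contra h
        push Not at h
        exact hll (h1 l h.1 h.2)
      rcases this with rfl | rfl
      · rw [hu]
        simp only [Pi.add_apply, Pi.smul_apply, smul_eq_mul, dir_coord FF hf1]
        ring
      · have e1 := dir_coord FF (f := f.sv) hf2 1
        have e2 := dir_coord FF (f := f.sv) hf2 2
        rw [dir_sv_one] at e1
        rw [dir_sv_two] at e2
        rw [hu]
        simp only [Pi.add_apply, Pi.smul_apply, smul_eq_mul, e1, e2]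
        ring
    obtain ⟨X, hX⟩ := D.exists_X hM hul
    refine ⟨X, (D.mem_ZI_edg BF hM hl hf1 hf2 h01 h02).2 ?_⟩
    rw [hX, c1]
    have : M * p = (i : ℕ) + 1 / 2 := by rw [hp]; field_simp
    rw [this]
    constructor <;> linarith
  dis x x' hne := by
    rw [Set.disjoint_left]
    intro X hX hX'
    apply hne
    have hM' : (0 : ℝ) < M := by exact_mod_cast hM
    obtain ⟨⟨f, i⟩, hf1, hf2⟩ := x
    obtain ⟨⟨f', i'⟩, hf1', hf2'⟩ := x'
    rw [D.mem_ZI_edg BF hM hl hf1 hf2 h01 h02] at hX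
    rw [D.mem_ZI_edg BF hM hl hf1' hf2' h01 h02] at hX'
    set u := D.dsp M σ X with hu
    have hu1 : u l1 = ((σ l1 : SignType) : ℝ) * hs c l1 := D.dsp_coord h01
    have hu2 : u l2 = ((σ l2 : SignType) : ℝ) * hs c l2 := D.dsp_coord h02
    have I1 := D.inC_of_edg BF hl hf1 hf2 hu1 hu2 hX.1.le hX.2.le
    have I2 := D.inC_of_edg BF hl hf1' hf2' hu1 hu2 hX'.1.le hX'.2.le
    have z1 := (D.edge_cf0 BF hl hf1 hf2 hu1 hu2).1
    have z2 := (D.edge_cf0 BF hl hf1' hf2' hu1 hu2).1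
    obtain ⟨-, p0, p1, p2, p3, p4⟩ := I1.spec FF h3
    obtain ⟨-, q0, q1, q2, q3, q4⟩ := I2.spec FF h3
    simp only [z1] at p2 p3
    simp only [z2] at q2 q3
    rw [zero_add] at p3 q3
    simp only at hX hX'
    have hr : ∀ n : Fin M, (((n : ℕ) : ℝ)) + 1 ≤ M := fun n => by exact_mod_cast n.2
    have hr0 : ∀ n : Fin M, (0 : ℝ) ≤ (n : ℕ) := fun n => Nat.cast_nonneg _
    have c1 : 0 < cf FF h3 f 1 u := by
      by_contra h; push Not at h; nlinarith [hX.1, hr0 i]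
    have c2 : cf FF h3 f 1 u < 1 := by
      by_contra h; push Not at h; nlinarith [hX.2, hr i]
    have c1' : 0 < cf FF h3 f' 1 u := by
      by_contra h; push Not at h; nlinarith [hX'.1, hr0 i']
    have c2' : cf FF h3 f' 1 u < 1 := by
      by_contra h; push Not at h; nlinarith [hX'.2, hr i']
    -- the third label
    have e3 : f.a3 = f'.a3 := by
      by_contra h
      by_cases h1 : f.a3 = c
      · exact f.h3 h1
      by_cases h2 : f.a3 = f'.a1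
      · rw [h2, q1] at p3; linarith
      by_cases h4 : f.a3 = f'.a2
      · rw [h4, q2] at p3; linarith
      · rw [q4 _ h1 h2 h4 h] at p3; linarith
    have hsv : f'.sv.a1 = f'.a2 := rfl
    have e1 : f.a1 = f'.a1 := by
      by_contra h
      by_cases h4 : f.a1 = f'.a2
      · exact hl (fct_unique FF BF (f := f) (f' := f'.sv) h4 hf1 hf2').1
      · have h5 : f.a1 ≠ f'.a3 := by rw [← e3]; exact f.h13
        rw [q4 _ f.h1 h h4 h5] at p1
        exact one_ne_zero p1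
    have e2 : f.a2 = f'.a2 := by
      by_contra h
      have h4 : f.a2 ≠ f'.a1 := by rw [← e1]; exact f.h12.symm
      have h5 : f.a2 ≠ f'.a3 := by rw [← e3]; exact f.h23
      rw [q4 _ f.h2 h4 h h5] at p2
      exact one_ne_zero p2
    have hf : f = f' := by
      have : ∀ f f' : Flg (Pc F) c, f.a1 = f'.a1 → f.a2 = f'.a2 → f.a3 = f'.a3 → f = f' := by
        intro f f' h1 h2 h3
        cases f; cases f'
        simp only [Flg.mk.injEq]
        exact ⟨h1, h2, h3⟩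
      exact this _ _ e1 e2 e3
    subst hf
    have hii : i = i' := by
      have a1 := hX.1.trans hX'.2
      have a2 := hX'.1.trans hX.2
      have b1 : (i : ℕ) < (i' : ℕ) + 1 := by exact_mod_cast a1
      have b2 : (i' : ℕ) < (i : ℕ) + 1 := by exact_mod_cast a2
      exact Fin.ext (by omega)
    subst hii
    rfl

end BD

end Crest.Agent.R096.Fbr_628
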