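import Crest.Agent.R096.Mdd2_360
import Crest.Agent.R096.Fbr4_628

/-!
Row 96 (S0127), helper360.  MD-DATA, part 3: rational data (`RD`, `RP` of 874).

* `exists_den` : common denominators;  **`exists_rt`** : the frame of a core of a rational affine map is
  rational, with a denominator which also clears the corner;
* `Dy.rat_ctr`, `BD.w_rat` : the bricks and 628's lattice units are rational;
* **`mkCB_rt`** : the block `mkCB` is rational;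
* **`exists_RD`**, `rpOf` : `RD` and `RP`;  **`exists_cn_net`** : the constant of a finite net of frames.
-/

set_option autoImplicit false
set_option linter.style.longLine false
set_option linter.unusedSectionVars false

open MeasureTheory Set Filter Topology Metric

namespace Crest.Agent.R096.Mdd_360

open Crest.Agent.R096.Bsp_628 Crest.Agent.R096.Brk5_582 Crest.Agent.R096.Brk1_582
open Crest.Agent.R096.Brk2_582 Crest.Agent.R096.Brk3_582 Crest.Agent.R096.Grd_714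
open Crest.Agent.R096.SkC1_961 (E3 FoamD)
open Crest.Agent.R096.EaX_766 (cbx RatA)
open Crest.Agent.R096.Bxs_627 (ctr CoriE)
open Crest.Agent.R096.Mal_874 Crest.Agent.R096.Msh_810
open Crest.Agent.R096.Fns_360

noncomputable section

/-! ### common denominators -/

theorem exists_den {ι : Type*} [Fintype ι] (q : ι → ℚ) :
    ∃ d : ℕ, 0 < d ∧ ∀ i, ∃ z : ℤ, (d : ℝ) * q i = z := by
  classical
  refine ⟨∏ i, (q i).den, Finset.prod_pos fun i _ => (q i).den_pos, fun i => ?_⟩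
  obtain ⟨m, hm⟩ := Finset.dvd_prod_of_mem (fun i => (q i).den) (Finset.mem_univ i)
  refine ⟨m * (q i).num, ?_⟩
  have h1 : ((q i).den : ℝ) * (q i : ℝ) = (q i).num := by
    have h2 : ((q i).den : ℚ) * q i = (q i).num := by
      rw [mul_comm]
      exact Rat.mul_den_eq_num (q i)
    exact_mod_cast h2
  rw [hm]
  push_cast
  rw [mul_assoc, mul_left_comm, h1]

/-- **a rational frame with a denominator which clears the corner** -/
theorem exists_rt {A : E3 ≃ᵃ[ℝ] E3} {o : E3} {uE t : ℝ} (hA : RatA o uE A) (ht : t ≠ 0) {q : ℚ}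
    (hq : uE = q * t) {a' : Fin 3 → ℝ} (ha : ∀ l, ∃ r : ℚ, a' l = r) :
    ∃ (B : Fin 3 → Fin 3 → ℤ) (d : ℕ), 0 < d ∧
      Rt (ContinuousLinearEquiv.refl ℝ E3) (psA A t ht) B d ∧ ∀ m, ∃ c : ℤ, (d : ℝ) * a' m = c := by
  obtain ⟨L, v, hL⟩ := hA
  choose r hr using ha
  obtain ⟨d, hd, h⟩ := exists_den (ι := (Fin 3 × Fin 3) ⊕ Fin 3)
    (Sum.elim (fun p => q * L p.1 p.2) r)
  choose z hz using h
  refine ⟨fun k j => z (Sum.inl (k, j)), d, hd, fun y k => ?_, fun m => ⟨z (Sum.inr m), ?_⟩⟩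
  · rw [psA_apply, lin_val, hL, hL]
    have e : t⁻¹ * (o k + uE * (∑ j, (L k j : ℝ) * y j + v k) -
        (o k + uE * (∑ j, (L k j : ℝ) * (0 : E3) j + v k))) = ∑ j, ((q * L k j : ℚ) : ℝ) * y j := by
      have e1 : ∑ j, (L k j : ℝ) * (0 : E3) j = 0 := by simp
      have e2 : ∑ j, ((q * L k j : ℚ) : ℝ) * y j = q * ∑ j, (L k j : ℝ) * y j := by
        rw [Finset.mul_sum]
        refine Finset.sum_congr rfl fun j _ => ?_
        push_cast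
        ring
      rw [e1, e2, hq]
      field_simp
      ring
    rw [e, Finset.mul_sum]
    refine Finset.sum_congr rfl fun j _ => ?_
    have h1 := hz (Sum.inl (k, j))
    simp only [Sum.elim_inl] at h1
    rw [← h1]
    change _ = _ * (ContinuousLinearEquiv.refl ℝ E3) y j
    rw [ContinuousLinearEquiv.refl_apply]
    ring
  · rw [hr m, ← hz (Sum.inr m)]
    rfl

/-! ### rational bricks -/

theorem two_zpow_rat (k : ℤ) : ((2 : ℝ) ^ k) = (((2 : ℚ) ^ k : ℚ) : ℝ) := by push_cast; rfl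

/-- centre and sides of a dyadic brick are rational in the units `o, u` -/
theorem dy_rat {o : E3} {u M : ℝ} {Q : Bx (Fin 3)} (h : Dy o u M Q) (l : Fin 3) :
    (∃ r : ℚ, ctr Q l = o l + u * r) ∧ ∃ r : ℚ, Q.side l = u * r := by
  obtain ⟨k, -, h2⟩ := h
  obtain ⟨m, n, hm, hn⟩ := h2 l
  refine ⟨⟨(m + n) / 2 * (2 : ℚ) ^ (-k), ?_⟩, ⟨(n - m) * (2 : ℚ) ^ (-k), ?_⟩⟩
  · change (Q.lo l + Q.hi l) / 2 = _
    rw [hm, hn, two_zpow_rat]
    push_cast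
    ring
  · change Q.hi l - Q.lo l = _
    rw [hm, hn, two_zpow_rat]
    push_cast
    ring

section bd

variable {La : Set E3} {F : Set (Bx (Fin 3))} {N : ℕ} {FF : Foam La (Pc F) (bc (F := F)) N}
  {h3 : Module.finrank ℝ (Fin 3 → ℝ) = 3} {c : F} {o : E3} {B : ℝ}

/-- 628's lattice unit is a positive rational multiple of the unit of the foam -/
theorem bd_w_rat (D : Fbr_628.BD FF h3 c o B) {u M : ℝ} (hu : 0 < u) (h : Dy o u M c.1) :
    ∃ q : ℚ, 0 < q ∧ D.w = q * u := by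
  obtain ⟨r, hr⟩ := (dy_rat h 0).2
  have h1 := D.side 0
  have h2 : Fbr_628.hs c 0 = c.1.side 0 / 2 := rfl
  rw [h2, hr] at h1
  have hh : (0 : ℝ) < D.h 0 := by exact_mod_cast D.h0 0
  have e : D.w = ((r / 2 / D.h 0 : ℚ) : ℝ) * u := by
    push_cast
    field_simp
    linarith
  refine ⟨r / 2 / D.h 0, ?_, e⟩
  have h3 := D.w0
  rw [e] at h3
  have h4 := pos_of_mul_pos_left h3 hu.le
  exact_mod_cast h4

end bd

/-! ### the block `mkCB` is rational -/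

section mk

variable (Q : Bx (Fin 3)) (A : E3 ≃ᵃ[ℝ] E3) {lam u : ℝ} (hl : 0 < lam) (hu : 0 < u) (kc : ℕ)
  (hkc : 3 ≤ kc) (S : PS 3) (w : ℤ) (hw : S.t + 10 ≤ w)

/-- **the block of a rational core is rational** -/
theorem mkCB_rt {o : E3} {uE M : ℝ} (huE : 0 < uE) (hA : RatA o uE A) (hdy : Dy o uE M Q)
    (hlq : ∃ q : ℚ, lam = q) (huq : ∃ q : ℚ, u = q * uE) :
    ∃ (B : Fin 3 → Fin 3 → ℤ) (d : ℕ), 0 < d ∧
      Rt (ContinuousLinearEquiv.refl ℝ E3) (mkCB Q A hl hu kc hkc S w hw).ψ B d ∧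
      ∀ m, ∃ c : ℤ, (d : ℝ) * (mkCB Q A hl hu kc hkc S w hw).a' m = c := by
  obtain ⟨ql, hql⟩ := hlq
  obtain ⟨qu, hqu⟩ := huq
  have hqu0 : (qu : ℝ) ≠ 0 := by
    rintro h0
    rw [hqu, h0, zero_mul] at hu
    exact lt_irrefl _ hu
  have hql0 : (ql : ℝ) ≠ 0 := by
    rw [← hql]; exact hl.ne'
  refine exists_rt (q := 1 / (ql * qu)) hA (mul_pos hl hu).ne' ?_ fun l => ?_
  · rw [hql, hqu]
    push_cast
    field_simp
  · obtain ⟨⟨r1, hr1⟩, r2, hr2⟩ := dy_rat hdy l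
    obtain ⟨L, v, hL⟩ := hA
    refine ⟨(r1 - ql * r2 / 2 - v l) / (ql * qu) - S.lo l / 2 ^ kc, ?_⟩
    change (ctr Q l - lam * Q.side l / 2 - A 0 l) / (lam * u) - S.lo l / 2 ^ kc = _
    have e1 : A 0 l = o l + uE * v l := by
      rw [hL]
      simp
    rw [hr1, hr2, e1, hql, hqu]
    push_cast
    have huE' := huE.ne'
    field_simp
    ring

end mk

/-! ### `RD` and `RP` -/

/-- **rational data of the blocks**, `κ0` = dyadic part of the denominators of the corners -/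
theorem exists_RD {J : Type*} (M : MD E3 3 J) (κ0 : J → ℕ)
    (hrat : ∀ j, ∃ (B : Fin 3 → Fin 3 → ℤ) (d : ℕ), 0 < d ∧ Rt M.φ (M.Q j).ψ B d ∧
      ∀ m, ∃ c : ℤ, 2 ^ κ0 j * (d : ℝ) * (M.Q j).a' m = c)
    (Bn : J → ℕ) (B1 : ∀ j, 1 ≤ Bn j)
    (hB : ∀ j i, ∀ p ∈ (M.Q j).S.GG i, ∀ l, |p.1 l| ≤ Bn j)
    (R0 : J → ℝ) (R1 : ∀ j, 1 ≤ R0 j)
    (hR : ∀ j i, i ≠ (M.Q j).S.core → ∀ u ∈ ZP ((M.Q j).S.GG i), ∀ v ∈ ZP ((M.Q j).S.GG i), ∀ l,
      |v l - u l| ≤ R0 j) :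
    ∃ X : RD M, X.B = Bn ∧ X.R = R0 ∧ ∀ j m, ∃ c : ℤ, 2 ^ κ0 j * (X.d j : ℝ) * (M.Q j).a' m = c := by
  choose B d hd hBd ha using hrat
  choose c hc hc' using fun j => exists_cn M.φ (M.Q j).ψ
  exact ⟨⟨B, d, hd, hBd, c, hc, hc', Bn, B1, hB, R0, R1, hR⟩, rfl, rfl, ha⟩

/-- **the positions are rational** -/
def rpOf {J : Type*} {M : MD E3 3 J} (X : RD M) {κ0 : J → ℕ}
    (ha : ∀ j m, ∃ c : ℤ, 2 ^ κ0 j * (X.d j : ℝ) * (M.Q j).a' m = c) {a : Fin 3 → ℝ} {v : J → E3}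
    {k κ : J → ℕ} (h0 : ∀ j, κ0 j ≤ κ j) (hκ : ∀ j, κ j ≤ k j)
    (hv : ∀ j l, ∃ z : ℤ, 2 ^ κ j * (M.φ (v j) l - a l) = z) : RP X a v k where
  κ := κ
  hκ := hκ
  h0 j m := by
    obtain ⟨c, hc⟩ := ha j m
    refine ⟨2 ^ (κ j - κ0 j) * c, ?_⟩
    have e : (2 : ℝ) ^ κ j = 2 ^ (κ j - κ0 j) * 2 ^ κ0 j := by
      rw [← pow_add, Nat.sub_add_cancel (h0 j)]
    rw [e]
    push_cast
    rw [← hc]
    ring
  hv := hv

/-! ### the constant of a finite net of frames -/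

/-- the frame is determined by its matrix -/
theorem rt_unique {φ ψ ψ' : E3 ≃L[ℝ] (Fin 3 → ℝ)} {B : Fin 3 → Fin 3 → ℤ} {d : ℕ} (hd : 0 < d)
    (h : Rt φ ψ B d) (h' : Rt φ ψ' B d) : ψ = ψ' := by
  ext y m
  have hd' : (d : ℝ) ≠ 0 := by exact_mod_cast hd.ne'
  exact mul_left_cancel₀ hd' ((h y m).trans (h' y m).symm)

/-- **one constant for a finite net of frames** -/
theorem exists_cn_net (φ : E3 ≃L[ℝ] (Fin 3 → ℝ)) (Nn : ℕ) : ∃ c : ℝ, 1 ≤ c ∧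
    ∀ (ψ : E3 ≃L[ℝ] (Fin 3 → ℝ)) (B : Fin 3 → Fin 3 → ℤ) (d : ℕ), 0 < d → d ≤ Nn →
      (∀ i j, |B i j| ≤ (Nn : ℤ)) → Rt φ ψ B d → Cn φ ψ c := by
  classical
  have hfin : Set.Finite {ψ : E3 ≃L[ℝ] (Fin 3 → ℝ) | ∃ (B : Fin 3 → Fin 3 → ℤ) (d : ℕ), 0 < d ∧
      d ≤ Nn ∧ (∀ i j, |B i j| ≤ (Nn : ℤ)) ∧ Rt φ ψ B d} := by
    have h1 : Set.Finite {p : (Fin 3 → Fin 3 → ℤ) × ℕ |
        (∀ i j, |p.1 i j| ≤ (Nn : ℤ)) ∧ p.2 ≤ Nn} := by
      refine Set.Finite.subset (Set.Finite.prod (s := {B : Fin 3 → Fin 3 → ℤ |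
        ∀ i j, |B i j| ≤ (Nn : ℤ)}) (t := {d : ℕ | d ≤ Nn}) ?_ (Set.finite_le_nat Nn)) ?_
      · have h2 := Set.finite_Icc (fun _ _ => -(Nn : ℤ) : Fin 3 → Fin 3 → ℤ) (fun _ _ => (Nn : ℤ))
        refine h2.subset fun B hB => ?_
        exact ⟨fun i j => (abs_le.1 (hB i j)).1, fun i j => (abs_le.1 (hB i j)).2⟩
      · rintro p ⟨hp1, hp2⟩
        exact ⟨hp1, hp2⟩
    refine Set.Finite.subset (h1.biUnion (t := fun p => {ψ : E3 ≃L[ℝ] (Fin 3 → ℝ) |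
      0 < p.2 ∧ Rt φ ψ p.1 p.2}) fun p _ => ?_) ?_
    · refine Set.Subsingleton.finite ?_
      rintro ψ ⟨h2, h3⟩ ψ' ⟨-, h4⟩
      exact rt_unique h2 h3 h4
    · rintro ψ ⟨B, d, h2, h3, h4, h5⟩
      refine Set.mem_biUnion (x := (B, d)) ⟨h4, h3⟩ ⟨h2, h5⟩
  choose c hc hc' using fun ψ => exists_cn φ ψ
  obtain ⟨C, hC⟩ := (hfin.image c).bddAbove
  refine ⟨max 1 C, le_max_left _ _, fun ψ B d h2 h3 h4 h5 x y => ?_⟩
  refine (hc' ψ x y).trans (mul_le_mul_of_nonneg_right ?_ dist_nonneg)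
  exact (hC (mem_image_of_mem c ⟨B, d, h2, h3, h4, h5⟩)).trans (le_max_right _ _)

end

end Crest.Agent.R096.Mdd_360
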