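import Crest.Agent.R096.Mal2_874
import Crest.Agent.R096.Msh6_810

/-!
# Row 96, library (MESH-AL), part 3: exact scale of the Whitney mesh, polycubes
-/

set_option autoImplicit false

open Set Filter Topology Metric

namespace Crest.Agent.R096.Mal_874

open Msh_715 Cut_874 Msh_810

variable {n : ℕ}

/-! ### exact scale -/

/-- criterion for the scale of the Whitney mesh at `x` -/
theorem K_eq_of {D : Dat n} {x : Fin n → ℝ} {k : ℕ}
    (h1 : ∀ y, dist x y ≤ (2 ^ k)⁻¹ → D.C ≤ 2 ^ k * D.ρ y) (h2 : 2 ^ k * D.ρ x < 2 * D.C) :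
    K D x = k := by
  have hp : (0 : ℝ) < 2 ^ k := by positivity
  have hC := D.C_pos
  have hx0 : 0 < D.ρ x := by
    have := h1 x (by rw [dist_self]; positivity)
    by_contra hcon
    push Not at hcon
    nlinarith
  have hmem : k ∈ gd D x := by
    intro z hz y hy
    apply h1
    have := dist_le_of_mem_Cu hz hy
    rwa [← le_div_iff₀' hp, one_div] at this
  apply le_antisymm ((K_le_iff hx0).2 hmem)
  by_contra hcon
  push Not at hcon
  -- then `k - 1` is good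
  obtain ⟨k', rfl⟩ : ∃ k', k = k' + 1 := ⟨k - 1, by have := K_pos (D := D) hx0; omega⟩
  have h3 : k' ∈ gd D x := gd_mono (K_mem hx0) (by omega)
  have h4 := h3 (fun i => ⌊ps D.a k' x i⌋) (mem_Cu_floor _ _ _) x (mem_Cu_floor _ _ _)
  rw [pow_succ] at h2
  linarith

/-- upper bound of the scale -/
theorem K_le_of {D : Dat n} {x : Fin n → ℝ} {k : ℕ}
    (h1 : ∀ y, dist x y ≤ (2 ^ k)⁻¹ → D.C ≤ 2 ^ k * D.ρ y) : K D x ≤ k := by
  have hp : (0 : ℝ) < 2 ^ k := by positivity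
  have hC := D.C_pos
  have hx0 : 0 < D.ρ x := by
    have := h1 x (by rw [dist_self]; positivity)
    by_contra hcon
    push Not at hcon
    nlinarith
  refine (K_le_iff hx0).2 ?_
  intro z hz y hy
  apply h1
  have := dist_le_of_mem_Cu hz hy
  rwa [← le_div_iff₀' hp, one_div] at this

/-- lower bound of the scale -/
theorem le_K_of {D : Dat n} {x : Fin n → ℝ} (hx : 0 < D.ρ x) {κ : ℕ} (h : 2 ^ κ * D.ρ x ≤ D.C) :
    κ ≤ K D x := by
  have h1 := K_lower hx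
  by_contra hcon
  push Not at hcon
  have h2 : (2 : ℝ) ^ (K D x) < 2 ^ κ := pow_lt_pow_right₀ (by norm_num) hcon
  nlinarith

/-- the scale of a tile at a point is at most the scale of the point -/
theorem tile_k_le {E : Type*} [NormedAddCommGroup E] [NormedSpace ℝ E] {φ : E ≃L[ℝ] (Fin n → ℝ)}
    {D : Dat n} {x : E} {τ : Top D} (h : τ ∈ (tiling φ D).at_ x) : τ.1.1.k ≤ K D (φ x) :=
  τ.1.2.le_K (mem_at.1 h)

/-- if the scale is exactly `k` near `x` then every tile at `x` has scale `k` -/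
theorem tile_k_eq {E : Type*} [NormedAddCommGroup E] [NormedSpace ℝ E] {φ : E ≃L[ℝ] (Fin n → ℝ)}
    {D : Dat n} {x : E} {τ : Top D} (h : τ ∈ (tiling φ D).at_ x) {k : ℕ}
    (hk : ∀ᶠ y in 𝓝 (φ x), K D y = k) : τ.1.1.k = k := by
  obtain ⟨z, hz⟩ := (tiling φ D).ne τ
  have hc : Tendsto (fun s : ℝ => φ (x + s • (z - x))) (𝓝 0) (𝓝 (φ (x + (0 : ℝ) • (z - x)))) := by
    apply Continuous.tendsto
    fun_prop
  rw [zero_smul, add_zero] at hc
  have h2 := (hc.eventually hk).filter_mono (nhdsWithin_le_nhds (s := Ioi (0 : ℝ)))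
  have h3 : ∀ᶠ s in 𝓝[>] (0 : ℝ), s < 1 :=
    (gt_mem_nhds (zero_lt_one' ℝ)).filter_mono nhdsWithin_le_nhds
  obtain ⟨s, ⟨hs1, hs2⟩, hs3⟩ := ((h2.and h3).and self_mem_nhdsWithin).exists
  have hsI : x + s • (z - x) ∈ I (Hc φ D.a τ.1.1.k τ.1.1.z) := mem_I_of_move h hz hs3 hs2.le
  rw [I_Hc, ← Top.o_eq] at hsI
  have h4 := τ.1.2.K_eq hsI
  omega

/-! ### polycubes -/

/-- the open cube -/
def Co (a : Fin n → ℝ) (k : ℕ) (z : Fin n → ℤ) : Set (Fin n → ℝ) :=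
  {x | ∀ i, (z i : ℝ) < ps a k x i ∧ ps a k x i < z i + 1}

theorem Do_univ (a : Fin n → ℝ) (k : ℕ) (z : Fin n → ℤ) :
    Do a ⟨k, z, Finset.univ⟩ = Co a k z := by
  ext x
  simp [Do, Co]

theorem Co_sub_Cu (a : Fin n → ℝ) (k : ℕ) (z : Fin n → ℤ) : Co a k z ⊆ Cu a k z := fun _ hx =>
  mem_Cu.2 fun i => ⟨(hx i).1.le, (hx i).2.le⟩

theorem continuous_ps (a : Fin n → ℝ) (k : ℕ) (i : Fin n) : Continuous fun x => ps a k x i := by
  unfold ps
  fun_prop

theorem isOpen_Co (a : Fin n → ℝ) (k : ℕ) (z : Fin n → ℤ) : IsOpen (Co a k z) := by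
  have : Co a k z = ⋂ i, {x | (z i : ℝ) < ps a k x i ∧ ps a k x i < z i + 1} := by
    ext x; simp [Co]
  rw [this]
  refine isOpen_iInter_of_finite fun i => ?_
  exact (isOpen_lt continuous_const (continuous_ps a k i)).inter
    (isOpen_lt (continuous_ps a k i) continuous_const)

theorem Co_disjoint_Cu {a : Fin n → ℝ} {k : ℕ} {z z' : Fin n → ℤ} (h : z ≠ z') :
    Disjoint (Co a k z) (Cu a k z') := by
  rw [Set.disjoint_left]
  intro x hx hx'
  rw [mem_Cu] at hx'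
  apply h
  funext i
  obtain ⟨h1, h2⟩ := hx i
  obtain ⟨h3, h4⟩ := hx' i
  have h5 : (z' i : ℝ) < z i + 1 := by linarith
  have h6 : (z i : ℝ) < z' i + 1 := by linarith
  have h5' : z' i < z i + 1 := by exact_mod_cast h5
  have h6' : z i < z' i + 1 := by exact_mod_cast h6
  omega

theorem Cu_nest (a : Fin n → ℝ) {κ k : ℕ} (h : κ ≤ k) (z : Fin n → ℤ) :
    Cu a k z ⊆ Cu a κ (fun i => z i / 2 ^ (k - κ)) ∧
      Co a k z ⊆ Co a κ (fun i => z i / 2 ^ (k - κ)) := by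
  have hq : (0 : ℤ) < 2 ^ (k - κ) := by positivity
  have hqr : (0 : ℝ) < ((2 ^ (k - κ) : ℤ) : ℝ) := by exact_mod_cast hq
  have key : ∀ i, ((2 ^ (k - κ) : ℤ) : ℝ) * ((z i / 2 ^ (k - κ) : ℤ) : ℝ) ≤ z i ∧
      (z i : ℝ) + 1 ≤ ((2 ^ (k - κ) : ℤ) : ℝ) * (((z i / 2 ^ (k - κ) : ℤ) : ℝ) + 1) := by
    intro i
    have h1 := Int.mul_ediv_self_le (x := z i) hq.ne'
    have h2 := Int.lt_mul_ediv_self_add (x := z i) hq
    constructor
    · exact_mod_cast h1
    · have h3 : z i + 1 ≤ 2 ^ (k - κ) * (z i / 2 ^ (k - κ) + 1) := by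
        rw [mul_add, mul_one]
        omega
      exact_mod_cast h3
  constructor
  · intro x hx
    rw [mem_Cu] at hx ⊢
    intro i
    obtain ⟨h1, h2⟩ := hx i
    obtain ⟨h3, h4⟩ := key i
    rw [ps_mul a h] at h1 h2
    constructor
    · exact le_of_mul_le_mul_left (h3.trans h1) hqr
    · exact le_of_mul_le_mul_left (h2.trans h4) hqr
  · intro x hx i
    obtain ⟨h1, h2⟩ := hx i
    obtain ⟨h3, h4⟩ := key i
    rw [ps_mul a h] at h1 h2
    constructor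
    · exact lt_of_mul_lt_mul_left (h3.trans_lt h1) hqr.le
    · exact lt_of_mul_lt_mul_left (h2.trans_le h4) hqr.le

/-- the polycube -/
def pc (a : Fin n → ℝ) (κ : ℕ) (Z : Set (Fin n → ℤ)) : Set (Fin n → ℝ) := ⋃ z ∈ Z, Cu a κ z

theorem mem_pc {a : Fin n → ℝ} {κ : ℕ} {Z : Set (Fin n → ℤ)} {x : Fin n → ℝ} :
    x ∈ pc a κ Z ↔ ∃ z ∈ Z, x ∈ Cu a κ z := by
  simp [pc]

theorem pc_compact {a : Fin n → ℝ} {κ : ℕ} {Z : Set (Fin n → ℤ)} (hZ : Z.Finite) :
    IsCompact (pc a κ Z) := hZ.isCompact_biUnion fun _ _ => isCompact_Dc _ _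

theorem Co_disjoint_pc {a : Fin n → ℝ} {κ : ℕ} {Z : Set (Fin n → ℤ)} {z : Fin n → ℤ}
    (hz : z ∉ Z) : Disjoint (Co a κ z) (pc a κ Z) := by
  rw [Set.disjoint_left]
  intro x hx hx'
  obtain ⟨z', hz', hx'⟩ := mem_pc.1 hx'
  have hne : z ≠ z' := by
    rintro rfl
    exact hz hz'
  exact Set.disjoint_left.1 (Co_disjoint_Cu hne) hx hx'

/-- the centre of a cube -/
noncomputable def mid (a : Fin n → ℝ) (k : ℕ) (z : Fin n → ℤ) : Fin n → ℝ :=
  fun i => a i + (z i + 1 / 2) / 2 ^ k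

theorem ps_mid (a : Fin n → ℝ) (k : ℕ) (z : Fin n → ℤ) (i : Fin n) :
    ps a k (mid a k z) i = z i + 1 / 2 := by
  unfold ps mid
  have : (2 : ℝ) ^ k ≠ 0 := by positivity
  field_simp
  ring

theorem Cu_sub_closure (a : Fin n → ℝ) (k : ℕ) (z : Fin n → ℤ) :
    Cu a k z ⊆ closure (Co a k z) := by
  intro x hx
  rw [mem_Cu] at hx
  have hc : Tendsto (fun s : ℝ => x + s • (mid a k z - x)) (𝓝[>] 0) (𝓝 x) := by
    have : Tendsto (fun s : ℝ => x + s • (mid a k z - x)) (𝓝 0)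
        (𝓝 (x + (0 : ℝ) • (mid a k z - x))) := by
      apply Continuous.tendsto
      fun_prop
    rw [zero_smul, add_zero] at this
    exact this.mono_left nhdsWithin_le_nhds
  refine mem_closure_of_tendsto hc ?_
  have h1 : ∀ᶠ s : ℝ in 𝓝[>] 0, s < 1 := by
    have : ∀ᶠ s : ℝ in 𝓝 0, s < 1 := gt_mem_nhds one_pos
    exact this.filter_mono nhdsWithin_le_nhds
  filter_upwards [self_mem_nhdsWithin, h1] with s h0 h1 i
  have h0 : 0 < s := h0
  have e : ps a k (x + s • (mid a k z - x)) i = (1 - s) * ps a k x i + s * ps a k (mid a k z) i := by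
    unfold ps
    simp only [Pi.add_apply, Pi.smul_apply, Pi.sub_apply, smul_eq_mul]
    ring
  rw [e, ps_mid]
  obtain ⟨h2, h3⟩ := hx i
  constructor <;> nlinarith

theorem pc_regular (a : Fin n → ℝ) (κ : ℕ) (Z : Set (Fin n → ℤ)) :
    pc a κ Z ⊆ closure (interior (pc a κ Z)) := by
  intro x hx
  obtain ⟨z, hz, hx⟩ := mem_pc.1 hx
  refine closure_mono ?_ (Cu_sub_closure a κ z hx)
  refine interior_maximal ?_ (isOpen_Co a κ z)
  exact (Co_sub_Cu a κ z).trans fun y hy => mem_pc.2 ⟨z, hz, hy⟩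

/-- a set between an open and a closed cube is inside or outside the polycube -/
theorem pc_side {a : Fin n → ℝ} {κ : ℕ} {Z : Set (Fin n → ℤ)} {z : Fin n → ℤ} {S So : Set (Fin n → ℝ)}
    (hS : S ⊆ Cu a κ z) (hSo : So ⊆ Co a κ z) : S ⊆ pc a κ Z ∨ Disjoint So (pc a κ Z) := by
  by_cases hz : z ∈ Z
  · exact Or.inl fun x hx => mem_pc.2 ⟨z, hz, hS hx⟩
  · exact Or.inr ((Co_disjoint_pc hz).mono_left hSo)

end Crest.Agent.R096.Mal_874
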