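import Crest.Agent.R096.Msh1_715
import Crest.Agent.R96.Hole3_348

/-!
Row 96 (S0127), helper713.  Node EA-ASM, leaf (EA1): from the pointwise output bound of the machine
on one tile to the energy on the tile.
-/

set_option autoImplicit false
set_option linter.unusedSectionVars false
set_option linter.style.longLine false

open MeasureTheory Set Filter Topology Metric
open scoped ENNReal NNReal

namespace Crest.Agent.R096.Ea_713

open Crest.Agent.R096.Msh_715
open Crest.Agent.R96.Hole_348 (LLV)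

section Basic

variable {E : Type*} [NormedAddCommGroup E] [NormedSpace ℝ E]
variable {F : Type*} [NormedAddCommGroup F] [NormedSpace ℝ F]

theorem LLV.continuousAt {K : ℝ} {g : E → F} {x : E} (h : LLV K g x) : ContinuousAt g x := by
  have h1 : Tendsto (fun y => g y - g x) (𝓝 x) (𝓝 0) := by
    have h2 : Tendsto (fun y : E => K * ‖y - x‖) (𝓝 x) (𝓝 0) := by
      have : Tendsto (fun y : E => K * ‖y - x‖) (𝓝 x) (𝓝 (K * ‖x - x‖)) := by
        apply Continuous.tendsto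
        fun_prop
      simpa using this
    exact squeeze_zero_norm' h h2
  have h3 := h1.add_const (g x)
  simpa [ContinuousAt] using h3

/-- a pointwise Lipschitz constant on a segment bounds the increment -/
theorem seg_lip {φ : ℝ → F} {c : ℝ} (hφ : ∀ t ∈ Icc (0 : ℝ) 1, ContinuousAt φ t)
    (h : ∀ t ∈ Ico (0 : ℝ) 1, ∀ᶠ s in 𝓝[>] t, ‖φ s - φ t‖ ≤ c * (s - t)) :
    ‖φ 1 - φ 0‖ ≤ c := by
  set S : Set ℝ := {t | ‖φ t - φ 0‖ ≤ c * t} with hS
  have hcl : IsClosed (S ∩ Icc 0 1) := by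
    have h1 : ContinuousOn (fun t => ‖φ t - φ 0‖ - c * t) (Icc 0 1) := by
      intro t ht
      have := (hφ t ht).continuousWithinAt (s := Icc 0 1)
      exact ((this.sub continuousWithinAt_const).norm).sub
        (continuousWithinAt_const.mul continuousWithinAt_id)
    have h2 := h1.preimage_isClosed_of_isClosed isClosed_Icc (isClosed_Iic (a := (0:ℝ)))
    have h3 : S ∩ Icc 0 1 = Icc 0 1 ∩ (fun t => ‖φ t - φ 0‖ - c * t) ⁻¹' Iic 0 := by
      ext t
      simp only [hS, mem_inter_iff, mem_ofPred_eq, mem_preimage, mem_Iic, sub_nonpos]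
      tauto
    rw [h3]
    exact h2
  have h0 : (0 : ℝ) ∈ S := by simp [hS]
  have h1 := hcl.Icc_subset_of_forall_mem_nhdsWithin h0 (by
    rintro t ⟨ht, ht2⟩
    filter_upwards [h t ht2] with s hs
    have h4 : ‖φ s - φ 0‖ ≤ ‖φ s - φ t‖ + ‖φ t - φ 0‖ := by
      have : φ s - φ 0 = (φ s - φ t) + (φ t - φ 0) := by abel
      rw [this]
      exact norm_add_le _ _
    have h5 : ‖φ t - φ 0‖ ≤ c * t := ht
    change ‖φ s - φ 0‖ ≤ c * s
    linarith)
  have h2 : (1 : ℝ) ∈ S := h1 (right_mem_Icc.2 zero_le_one)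
  have h3 : ‖φ 1 - φ 0‖ ≤ c * 1 := h2
  linarith

/-- a pointwise Lipschitz constant on an open convex set is a Lipschitz constant -/
theorem lip_of_LLV {U : Set E} (hc : Convex ℝ U) {c : ℝ} {g : E → F}
    (h : ∀ x ∈ U, LLV c g x) {x y : E} (hx : x ∈ U) (hy : y ∈ U) :
    ‖g y - g x‖ ≤ c * ‖y - x‖ := by
  set φ : ℝ → F := fun t => g (x + t • (y - x)) with hφ
  have hm : ∀ t ∈ Icc (0 : ℝ) 1, x + t • (y - x) ∈ U := by
    intro t ht
    have := hc.add_smul_sub_mem hx hy ht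
    exact this
  have h1 := seg_lip (φ := φ) (c := c * ‖y - x‖)
    (by
      intro t ht
      have h2 := LLV.continuousAt (h _ (hm t ht))
      have h3 : ContinuousAt (fun t : ℝ => x + t • (y - x)) t := by fun_prop
      exact ContinuousAt.comp (g := g) (f := fun t : ℝ => x + t • (y - x)) h2 h3)
    (by
      intro t ht
      have h2 := h _ (hm t ⟨ht.1, ht.2.le⟩)
      have h3 : Tendsto (fun s : ℝ => x + s • (y - x)) (𝓝[>] t) (𝓝 (x + t • (y - x))) := by
        have : Continuous (fun s : ℝ => x + s • (y - x)) := by fun_prop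
        exact (this.tendsto t).mono_left nhdsWithin_le_nhds
      filter_upwards [h3.eventually h2, self_mem_nhdsWithin] with s hs hst
      have hst' : t < s := hst
      have e : x + s • (y - x) - (x + t • (y - x)) = (s - t) • (y - x) := by
        rw [sub_smul]; abel
      rw [e, norm_smul, Real.norm_eq_abs, abs_of_pos (by linarith)] at hs
      change ‖g (x + s • (y - x)) - g (x + t • (y - x))‖ ≤ c * ‖y - x‖ * (s - t)
      linarith)
  have e1 : φ 1 = g y := by simp [hφ]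
  have e0 : φ 0 = g x := by simp [hφ]
  rwa [e1, e0] at h1

theorem P_sub_closure_I {H : Finset ((E →L[ℝ] ℝ) × ℝ)} (hne : (I H).Nonempty) :
    P H ⊆ closure (I H) := by
  intro x hx
  obtain ⟨z, hz⟩ := hne
  have h1 : Tendsto (fun s : ℝ => x + s • (z - x)) (𝓝[>] 0) (𝓝 x) := by
    have h2 : Continuous (fun s : ℝ => x + s • (z - x)) := by fun_prop
    have h3 := (h2.tendsto 0).mono_left (nhdsWithin_le_nhds (s := Ioi (0:ℝ)))
    simpa using h3
  refine mem_closure_of_tendsto h1 ?_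
  filter_upwards [self_mem_nhdsWithin, (gt_mem_nhds (zero_lt_one' ℝ)).filter_mono
    nhdsWithin_le_nhds] with s hs hs1
  exact mem_I_of_move hx hz hs (le_of_lt hs1)

/-- (EA1)(d): a pointwise Lipschitz constant in the open tile and continuity on the closed tile
give a Lipschitz constant on the closed tile -/
theorem lip_tile {H : Finset ((E →L[ℝ] ℝ) × ℝ)} (hne : (I H).Nonempty) {c : ℝ} {g : E → F}
    (h : ∀ x ∈ I H, LLV c g x) (hg : ContinuousOn g (P H)) {x y : E} (hx : x ∈ P H)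
    (hy : y ∈ P H) : ‖g y - g x‖ ≤ c * ‖y - x‖ := by
  have h1 : ∀ x ∈ I H, ∀ y ∈ P H, ‖g y - g x‖ ≤ c * ‖y - x‖ := by
    intro x hx y hy
    have hcl : y ∈ closure (I H) := P_sub_closure_I hne hy
    have hcw : ContinuousWithinAt (fun z => ‖g z - g x‖ - c * ‖z - x‖) (I H) y := by
      have h2 : ContinuousWithinAt g (I H) y := (hg y hy).mono (I_sub_P H)
      exact ((h2.sub continuousWithinAt_const).norm).sub
        (continuousWithinAt_const.mul ((continuousWithinAt_id.sub continuousWithinAt_const).norm))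
    have : NeBot (𝓝[I H] y) := mem_closure_iff_nhdsWithin_neBot.1 hcl
    have h3 := le_of_tendsto hcw (b := (0:ℝ)) (by
      filter_upwards [self_mem_nhdsWithin] with z hz
      have := lip_of_LLV (convex_I H) h hx hz
      linarith)
    have h4 : ‖g y - g x‖ - c * ‖y - x‖ ≤ 0 := h3
    linarith
  have hcl : x ∈ closure (I H) := P_sub_closure_I hne hx
  have hcw : ContinuousWithinAt (fun z => ‖g y - g z‖ - c * ‖y - z‖) (I H) x := by
    have h2 : ContinuousWithinAt g (I H) x := (hg x hx).mono (I_sub_P H)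
    exact ((continuousWithinAt_const.sub h2).norm).sub
      (continuousWithinAt_const.mul ((continuousWithinAt_const.sub continuousWithinAt_id).norm))
  have : NeBot (𝓝[I H] x) := mem_closure_iff_nhdsWithin_neBot.1 hcl
  have h3 := le_of_tendsto hcw (b := (0:ℝ)) (by
    filter_upwards [self_mem_nhdsWithin] with z hz
    have := h1 z hz y hy
    linarith)
  have h4 : ‖g y - g x‖ - c * ‖y - x‖ ≤ 0 := h3
  linarith

/-- (EA1)(d), second half: at every point of `Om` the largest of the tile constants at that point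
is a pointwise Lipschitz constant -/
theorem LLV_of_tiles {Om : Set E} {ι : Type*} (T : Tiling Om ι) {c : ι → ℝ} {g : E → F}
    (h : ∀ i, ∀ x ∈ P (T.H i), ∀ y ∈ P (T.H i), ‖g y - g x‖ ≤ c i * ‖y - x‖)
    {x : E} (hx : x ∈ Om) {M : ℝ} (hM : ∀ i ∈ T.at_ x, c i ≤ M) : LLV M g x := by
  obtain ⟨r, hr, hrO, hra⟩ := T.exists_ball hx
  filter_upwards [ball_mem_nhds x hr] with y hy
  obtain ⟨i, hi⟩ := T.cov y (hrO hy)
  have hix : i ∈ T.at_ x := hra y hy hi
  calc ‖g y - g x‖ ≤ c i * ‖y - x‖ := h i x hix y hi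
    _ ≤ M * ‖y - x‖ := by gcongr; exact hM i hix

end Basic

section Measure

variable {E : Type*} [NormedAddCommGroup E] [NormedSpace ℝ E] [FiniteDimensional ℝ E]
  [MeasurableSpace E] [BorelSpace E] (μ : Measure E) [μ.IsAddHaarMeasure]
variable {F : Type*} [NormedAddCommGroup F] [NormedSpace ℝ F]

theorem null_diff {H : Finset ((E →L[ℝ] ℝ) × ℝ)} (hne : (I H).Nonempty) :
    μ (P H \ I H) = 0 := by
  refine measure_mono_null ?_ ((convex_I H).addHaar_frontier μ)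
  rintro x ⟨hx, hx2⟩
  rw [(isOpen_I H).frontier_eq]
  exact ⟨P_sub_closure_I hne hx, hx2⟩

theorem restrict_P {H : Finset ((E →L[ℝ] ℝ) × ℝ)} (hne : (I H).Nonempty) :
    μ.restrict (P H) = μ.restrict (I H) := by
  refine Measure.restrict_congr_set ?_
  rw [ae_eq_set]
  refine ⟨null_diff μ hne, ?_⟩
  rw [sdiff_eq_empty.2 (I_sub_P H)]
  exact measure_empty

/-- a bound in the open tile -/
theorem lint_tile {H : Finset ((E →L[ℝ] ℝ) × ℝ)} (hne : (I H).Nonempty) {w : E → ℝ≥0∞} {c : ℝ≥0∞}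
    (h : ∀ x ∈ I H, w x ≤ c) : ∫⁻ x in P H, w x ∂μ ≤ c * μ (P H) := by
  rw [restrict_P μ hne]
  calc ∫⁻ x in I H, w x ∂μ ≤ ∫⁻ _x in I H, c ∂μ :=
        setLIntegral_mono' (isOpen_I H).measurableSet h
    _ = c * μ (I H) := by rw [setLIntegral_const]
    _ ≤ c * μ (P H) := by gcongr; exact I_sub_P H

variable {Om : Set E} {ι : Type*} (T : Tiling Om ι)

include T in
theorem countable_ix : Countable ι := by
  have h1 : (univ : Set ι).Countable := by
    refine Set.PairwiseDisjoint.countable_of_isOpen (s := fun i => I (T.H i)) (a := univ) ?_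
      (fun i _ => isOpen_I _) (fun i _ => T.ne i)
    intro i _ j _ hij
    exact T.dis i j hij
  exact countable_univ_iff.1 h1

theorem iUnion_P : ⋃ i, P (T.H i) = Om := by
  apply Subset.antisymm
  · exact iUnion_subset fun i => T.sub i
  · intro x hx
    obtain ⟨i, hi⟩ := T.cov x hx
    exact mem_iUnion.2 ⟨i, hi⟩

theorem aedisj : Pairwise (Function.onFun (AEDisjoint μ) (fun i => P (T.H i))) := by
  intro i j hij
  change μ (P (T.H i) ∩ P (T.H j)) = 0
  refine measure_mono_null ?_ (measure_union_null (null_diff μ (T.ne i)) (null_diff μ (T.ne j)))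
  rintro x ⟨hx, hx2⟩
  by_cases h : x ∈ I (T.H i)
  · right
    refine ⟨hx2, fun h2 => ?_⟩
    exact (Set.disjoint_left.1 (T.dis i j hij)) h h2
  · exact Or.inl ⟨hx, h⟩

/-- (EA1)(c): the integral over `Om` is the sum over the tiles -/
theorem lint_Om (w : E → ℝ≥0∞) : ∫⁻ x in Om, w x ∂μ = ∑' i, ∫⁻ x in P (T.H i), w x ∂μ := by
  have := countable_ix T
  have h1 : ∫⁻ x in Om, w x ∂μ = ∫⁻ x in ⋃ i, P (T.H i), w x ∂μ :=
    congrArg (fun S : Set E => ∫⁻ x in S, w x ∂μ) (iUnion_P T).symm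
  rw [h1]
  exact lintegral_iUnion₀ (fun i => (isClosed_P _).measurableSet.nullMeasurableSet) (aedisj μ T) w

/-- (EA1)(c): the integral over a set of tiles -/
theorem lint_tiles (S : Set ι) {w : E → ℝ≥0∞} {c : ι → ℝ≥0∞}
    (h : ∀ i ∈ S, ∀ x ∈ I (T.H i), w x ≤ c i) :
    ∫⁻ x in ⋃ i ∈ S, P (T.H i), w x ∂μ ≤ ∑' i : S, c i * μ (P (T.H i)) := by
  have := countable_ix T
  rw [biUnion_eq_iUnion]
  refine (lintegral_iUnion_le _ _).trans ?_
  exact ENNReal.tsum_le_tsum fun i => lint_tile μ (T.ne i) (h i.1 i.2)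

end Measure

section Affine

variable {E : Type*} [NormedAddCommGroup E] [NormedSpace ℝ E] [FiniteDimensional ℝ E]
variable {F : Type*} [NormedAddCommGroup F] [NormedSpace ℝ F]

/-- the operator norm of the linear part of an affine isomorphism -/
noncomputable def lin (B : E ≃ᵃ[ℝ] E) : E →L[ℝ] E :=
  LinearMap.toContinuousLinearMap (B.linear : E →ₗ[ℝ] E)

theorem lin_sub (B : E ≃ᵃ[ℝ] E) (x y : E) : B y - B x = lin B (y - x) := by
  have h := B.toAffineMap.linearMap_vsub y x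
  simpa [lin] using h.symm

/-- (EA1)(a) -/
theorem LLV_of_affine {B : E ≃ᵃ[ℝ] E} {K tol : ℝ} (hK : 0 ≤ K) {g : E → F} {x : E}
    (h : ∀ᶠ y in 𝓝 x, ‖g y - g x‖ ≤ K * ‖B y - B x‖ + tol * ‖y - x‖) :
    LLV (K * ‖lin B‖ + tol) g x := by
  filter_upwards [h] with y hy
  refine hy.trans ?_
  have h1 : ‖B y - B x‖ ≤ ‖lin B‖ * ‖y - x‖ := by
    rw [lin_sub]
    exact (lin B).le_opNorm _
  have h2 : K * ‖B y - B x‖ ≤ K * (‖lin B‖ * ‖y - x‖) := by gcongr
  calc K * ‖B y - B x‖ + tol * ‖y - x‖ ≤ K * (‖lin B‖ * ‖y - x‖) + tol * ‖y - x‖ := by gcongr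
    _ = (K * ‖lin B‖ + tol) * ‖y - x‖ := by ring

theorem fderiv_le_of_LLV {c : ℝ} (hc : 0 ≤ c) {g : E → F} {x : E} (h : LLV c g x) :
    ‖fderiv ℝ g x‖ ≤ c := norm_fderiv_le_of_lip' ℝ hc h

theorem enorm_fderiv_rpow_le {c : ℝ} (hc : 0 ≤ c) {p : ℝ} (hp : 0 ≤ p) {g : E → F} {x : E}
    (h : LLV c g x) : ‖fderiv ℝ g x‖ₑ ^ p ≤ ENNReal.ofReal (c ^ p) := by
  rw [← ENNReal.ofReal_rpow_of_nonneg hc hp]
  refine ENNReal.rpow_le_rpow ?_ hp
  rw [← ofReal_norm]
  exact ENNReal.ofReal_le_ofReal (fderiv_le_of_LLV hc h)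

variable [MeasurableSpace E] [BorelSpace E] (μ : Measure E) [μ.IsAddHaarMeasure]

/-- **(EA1)(a),(b)**: the energy on one tile. -/
theorem tile_energy {H : Finset ((E →L[ℝ] ℝ) × ℝ)} (hne : (I H).Nonempty) (B : E ≃ᵃ[ℝ] E)
    {K tol : ℝ} (hK : 0 ≤ K) (ht : 0 ≤ tol) {g : E → F}
    (h : ∀ x ∈ I H, ∀ᶠ y in 𝓝 x, ‖g y - g x‖ ≤ K * ‖B y - B x‖ + tol * ‖y - x‖)
    {p : ℝ} (hp : 0 ≤ p) :
    (∀ x ∈ I H, LLV (K * ‖lin B‖ + tol) g x) ∧
    (∀ x ∈ I H, ‖fderiv ℝ g x‖ ≤ K * ‖lin B‖ + tol) ∧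
    ∫⁻ x in P H, ‖fderiv ℝ g x‖ₑ ^ p ∂μ ≤
      ENNReal.ofReal ((K * ‖lin B‖ + tol) ^ p) * μ (P H) := by
  have h0 : 0 ≤ K * ‖lin B‖ + tol := by positivity
  have h1 : ∀ x ∈ I H, LLV (K * ‖lin B‖ + tol) g x := fun x hx => LLV_of_affine hK (h x hx)
  refine ⟨h1, fun x hx => fderiv_le_of_LLV h0 (h1 x hx), ?_⟩
  exact lint_tile μ hne fun x hx => enorm_fderiv_rpow_le h0 hp (h1 x hx)

/-- **(EA1)(c)**: the energy on a set of tiles. -/
theorem tiles_energy {Om : Set E} {ι : Type*} (T : Tiling Om ι) (S : Set ι) (B : ι → E ≃ᵃ[ℝ] E)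
    {K tol : ι → ℝ} (hK : ∀ i ∈ S, 0 ≤ K i) (ht : ∀ i ∈ S, 0 ≤ tol i) {g : E → F}
    (h : ∀ i ∈ S, ∀ x ∈ I (T.H i), ∀ᶠ y in 𝓝 x,
      ‖g y - g x‖ ≤ K i * ‖B i y - B i x‖ + tol i * ‖y - x‖)
    {p : ℝ} (hp : 0 ≤ p) :
    ∫⁻ x in ⋃ i ∈ S, P (T.H i), ‖fderiv ℝ g x‖ₑ ^ p ∂μ ≤
      ∑' i : S, ENNReal.ofReal ((K i * ‖lin (B i)‖ + tol i) ^ p) * μ (P (T.H i)) := by
  refine lint_tiles μ T S (w := fun x => ‖fderiv ℝ g x‖ₑ ^ p)
    (c := fun i => ENNReal.ofReal ((K i * ‖lin (B i)‖ + tol i) ^ p)) fun i hi x hx => ?_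
  have h0 : 0 ≤ K i * ‖lin (B i)‖ + tol i := by
    have := hK i hi
    have := ht i hi
    positivity
  exact enorm_fderiv_rpow_le h0 hp (LLV_of_affine (hK i hi) (h i hi x hx))

end Affine

end Crest.Agent.R096.Ea_713
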