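import Crest.Agent.R096.No1_276

/-!
# Row 96, NO0 (helper276), part 3: the boundary clause of `NOS`

`bdry_clause` : `g` close to `S ∘ f ∘ RL` up to `C * dist to the complement of the target` has the
boundary values of `f`.
-/

set_option autoImplicit false
set_option linter.unusedSectionVars false

open Set Function MeasureTheory Filter Topology Metric
open scoped ENNReal
open Crest.AnalysisR.VecCalc3 Crest.AnalysisR.Sobolev

namespace Crest.Agent.R096.No_276

open Crest.Agent.R096.Sk_962 (Q0 Qc0)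
open Crest.Agent.R096.Sq_477
open Crest.Agent.R096.SkC1_961 (E3 Hom3)

noncomputable section

theorem Q0_open : IsOpen Q0 := by
  rw [Q0_eq]; exact isOpen_ball.preimage e3.continuous

theorem closure_Q0_subset : closure Q0 ⊆ Qc0 := by
  have h : IsClosed Qc0 := by
    have h1 : Qc0 = ⋂ i : Fin 3, {x : R3 | |x i| ≤ 1} := by
      ext x; simp [Qc0]
    rw [h1]
    refine isClosed_iInter fun i => ?_
    exact isClosed_le (by fun_prop) continuous_const
  refine h.closure_subset_iff.2 fun x hx i => (hx i).le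

/-- the boundary of the cube is mapped off the image of the open cube -/
theorem frontier_not_image {f : R3 → R3} {U W : Set R3} (hf : IsHomeomorphOn f U W) (hQ : Qc0 ⊆ U)
    {z : R3} (hz : z ∈ frontier Q0) : z ∈ U ∧ f z ∉ f '' Q0 := by
  obtain ⟨fi, h1, h2, h3, h4, h5, h6⟩ := hf
  have hzc : z ∈ closure Q0 := frontier_subset_closure hz
  have hzU : z ∈ U := hQ (closure_Q0_subset hzc)
  refine ⟨hzU, ?_⟩
  rintro ⟨x, hx, hxz⟩
  have hxU : x ∈ U := hQ (closure_Q0_subset (subset_closure hx))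
  have : x = z := by rw [← h3 x hxU, hxz, h3 z hzU]
  rw [this] at hx
  have hi : interior Q0 = Q0 := Q0_open.interior_eq
  exact hz.2 (by rw [hi]; exact hx)

/-- **boundary clause** -/
theorem bdry_clause {f : R3 → R3} {U W : Set R3} (hU : IsOpen U) (hf : IsHomeomorphOn f U W)
    (hQ : Qc0 ⊆ U) {K : Set E3} (hK : IsCompact K) (hKL : K ⊆ e3 '' (f '' Q0)) {S : E3 → E3}
    (hS : ∀ y, y ∉ K → S y = y) {L C : ℝ} (hL : L ≠ 0) (hC : 0 ≤ C) {g : E3 → E3}
    (hg : ∀ y ∈ QL L, ‖g y - S (e3 (f (e3.symm (RL L hL y))))‖ ≤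
      C * infDist (S (e3 (f (e3.symm (RL L hL y))))) (e3 '' (f '' Q0))ᶜ) :
    ∀ z ∈ frontier Q0, ∀ ε > 0, ∀ᶠ x in 𝓝[Q0] z, ∀ y ∈ QL L,
      y 0 = x 0 → y 1 = x 1 → L * y 2 = x 2 → ‖g y - e3 (f x)‖ ≤ ε := by
  intro z hz ε hε
  obtain ⟨hzU, hzf⟩ := frontier_not_image hf hQ hz
  obtain ⟨fi, h1, h2, h3, h4, h5, h6⟩ := hf
  have hcf : ContinuousAt (fun x => e3 (f x)) z :=
    e3.continuous.continuousAt.comp (h5.continuousAt (hU.mem_nhds hzU))
  have hz1 : e3 (f z) ∉ e3 '' (f '' Q0) := by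
    rintro ⟨y, hy, hyz⟩
    rw [e3.injective hyz] at hy
    exact hzf hy
  have hzK : e3 (f z) ∈ Kᶜ := fun h => hz1 (hKL h)
  have ev1 : ∀ᶠ x in 𝓝 z, e3 (f x) ∈ Kᶜ := hcf.preimage_mem_nhds (hK.isClosed.isOpen_compl.mem_nhds hzK)
  have ev2 : ∀ᶠ x in 𝓝 z, dist (e3 (f x)) (e3 (f z)) < ε / (C + 1) :=
    hcf.preimage_mem_nhds (ball_mem_nhds _ (by positivity))
  filter_upwards [nhdsWithin_le_nhds ev1, nhdsWithin_le_nhds ev2] with x hx1 hx2 y hy e0 e1 e2
  have hxy : e3.symm (RL L hL y) = x := by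
    ext i
    rw [e3_symm_apply, RL_apply]
    fin_cases i
    · simpa using e0
    · simpa using e1
    · simp only [Fin.reduceFinMk, if_true]
      rw [mul_comm]; exact e2
  have h7 := hg y hy
  rw [hxy, hS _ hx1] at h7
  refine h7.trans ?_
  have h8 : infDist (e3 (f x)) (e3 '' (f '' Q0))ᶜ ≤ dist (e3 (f x)) (e3 (f z)) :=
    infDist_le_dist_of_mem hz1
  calc C * infDist (e3 (f x)) (e3 '' (f '' Q0))ᶜ ≤ C * (ε / (C + 1)) := by
        apply mul_le_mul_of_nonneg_left _ hC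
        exact h8.trans hx2.le
    _ ≤ ε := by
        rw [mul_div_assoc', div_le_iff₀ (by positivity)]
        nlinarith

end

end Crest.Agent.R096.No_276
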