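import Crest.Agent.R96.Hf1_348
import Crest.Agent.R096.Ea1_713
import Crest.Agent.R096.No3_276

/-!
# Row 96, NO0 (helper276), part 4 = leaf (L6): energies after the hole squeeze (p < 3)

`Macro` : macro balls relative to a tiling with excluded tiles `Ex` (tiny cores).
`Macro.squeeze` : tilewise Lipschitz constants off `Ex` ⟹ after the hole squeeze of 348 (`hole_fam`)
the energy on EVERY measurable set `Z` is controlled by the energies of the tiles which meet `Z` or lie in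
a ring of a macro ball that meets `Z`.
-/

set_option autoImplicit false
set_option linter.unusedSectionVars false

open Set Function MeasureTheory Filter Topology Metric
open scoped ENNReal

namespace Crest.Agent.R096.No_276

open Crest.Agent.R096.Msh_715 Crest.Agent.R096.Ea_713 Crest.Agent.R96.Hole_348
open Crest.Agent.R096.SkC1_961 (E3 Hom3)

noncomputable section

section total

variable {Om La : Set E3} {ι : Type} {κ : Type*}

/-- macro balls around the excluded tiles: `S c` = the ordinary tiles in the ring of the ball `c`,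
`d` = diameters, `t` = ratio, `Cf` = fatness -/
structure Macro (T : Tiling Om ι) (Ex : Set ι) (a : κ → E3) (R0 R1 : κ → ℝ) (S : κ → Finset ι)
    (d : ι → ℝ) (t : ℝ) (Cf : ℝ≥0∞) : Prop where
  fam : RingFam Om a R0 R1
  rat : ∀ c, 2 * R1 c ≤ t * (R1 c - R0 c)
  ex : ∀ i ∈ Ex, ∃ c, P (T.H i) ⊆ closedBall (a c) (R0 c)
  ring : ∀ c i, (P (T.H i) ∩ (ball (a c) (R1 c) \ closedBall (a c) (R0 c))).Nonempty → i ∈ S c
  nex : ∀ c, ∀ i ∈ S c, i ∉ Ex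
  dS : Pairwise fun c c' => Disjoint (S c) (S c')
  d0 : ∀ c, ∀ i ∈ S c, 0 < d i
  dd : ∀ c, ∀ i ∈ S c, ∀ x ∈ P (T.H i), ∀ y ∈ P (T.H i), ‖x - y‖ ≤ d i
  fat : ∀ c, ∀ i ∈ S c, ENNReal.ofReal (d i ^ 3) ≤ Cf * volume (P (T.H i))

theorem Chr_mono {p t t' : ℝ} (hp3 : p < 3) (h : t ≤ t') : Chr 3 p t ≤ Chr 3 p t' := by
  unfold Chr
  have h1 : 0 ≤ Chv 3 p := Chv_nonneg (n := 3) (by exact_mod_cast hp3)
  nlinarith

theorem Chr_nonneg' {p t : ℝ} (hp3 : p < 3) (h : 0 ≤ t) : 0 ≤ Chr 3 p t := by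
  unfold Chr
  have h1 : 0 ≤ Chv 3 p := Chv_nonneg (n := 3) (by exact_mod_cast hp3)
  positivity

theorem Macro.squeeze {T : Tiling Om ι} {Ex : Set ι} {a : κ → E3} {R0 R1 : κ → ℝ}
    {S : κ → Finset ι} {d : ι → ℝ} {t : ℝ} {Cf : ℝ≥0∞} (M : Macro T Ex a R0 R1 S d t Cf) {p : ℝ}
    (hp0 : 0 < p) (hp3 : p < 3) {g : E3 → E3} (hg : Hom3 g Om La)
    (hgp : Crest.Agent.R096.Str_696.LocPL g Om) (Co : Set ι) (hCo : ∀ c, ∀ i ∈ S c, i ∉ Co)
    {Kt : ι → ℝ} (hK0 : ∀ i, i ∉ Ex → i ∉ Co → 0 ≤ Kt i)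
    (hK : ∀ i, i ∉ Ex → i ∉ Co → ∀ x ∈ I (T.H i), LLV (Kt i) g x) {ε : ℝ} (hε : 0 < ε) :
    ∃ g' : E3 → E3, Hom3 g' Om La ∧ Crest.Agent.R096.Str_696.LocPL g' Om ∧
      (∀ x, (∀ c, x ∉ closedBall (a c) (R1 c)) → g' x = g x) ∧
      (∀ x ∈ Om, (∀ c, x ∉ closedBall (a c) (R1 c)) → g' =ᶠ[𝓝 x] g) ∧
      (∀ c, ∀ x ∈ closedBall (a c) (R1 c), ∃ x' ∈ closedBall (a c) (R1 c), g' x = g x') ∧
      ∀ (Z : Set E3), MeasurableSet Z → Z ⊆ Om → ∀ IZ : Set ι, (∀ i ∈ IZ, i ∉ Co) →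
        (∀ x ∈ Z, (∀ c, x ∉ closedBall (a c) (R1 c)) → ∃ i ∈ IZ, i ∉ Ex ∧ x ∈ P (T.H i)) →
        (∀ c, (closedBall (a c) (R1 c) ∩ Z).Nonempty → ∀ i ∈ S c, i ∈ IZ) →
        ∫⁻ x in Z, ‖fderiv ℝ g' x‖ₑ ^ p ≤ (1 + ENNReal.ofReal (Chr 3 p t) * Cf) *
          (∑' i : {i // i ∈ IZ ∧ i ∉ Ex}, ENNReal.ofReal (Kt i ^ p) * volume (P (T.H i))) +
            ENNReal.ofReal ε := by
  have hκ : Countable κ := M.fam.countable
  obtain ⟨ε', hε'0, hε's⟩ := ENNReal.exists_pos_sum_of_countable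
    (ε := ENNReal.ofReal ε) (by simpa using hε) κ
  obtain ⟨g', h1, h2, h3, h4, h5, h6⟩ := hole_fam (n := 3) hp0 (by exact_mod_cast hp3) T M.fam hg
    hgp (d := d) (μ := fun _ i => Kt i) S M.ring M.d0 M.dd
    (fun c i hi => hK0 i (M.nex c i hi) (hCo c i hi))
    (fun c i hi x hx _ _ => hK i (M.nex c i hi) (hCo c i hi) x hx)
    (ε := fun c => (ε' c : ℝ)) (fun c => by exact_mod_cast hε'0 c)
  refine ⟨g', h1, h2, h3, h4, h5, ?_⟩
  intro Z hZ hZO IZ hI0 hI1 hI2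
  have hm : MeasurableSet (⋃ c, closedBall (a c) (R1 c)) :=
    MeasurableSet.iUnion fun c => isClosed_closedBall.measurableSet
  set F : ι → ℝ≥0∞ := fun i => ENNReal.ofReal (Kt i ^ p) * volume (P (T.H i)) with hF
  set Stt : ℝ≥0∞ := ∑' i : {i // i ∈ IZ ∧ i ∉ Ex}, F i with hStt
  have hR1 : ∀ c, 0 < R1 c := fun c => (M.fam.pos c).trans_lt (M.fam.lt c)
  -- outside the balls
  have q1 : ∫⁻ x in Z \ ⋃ c, closedBall (a c) (R1 c), ‖fderiv ℝ g' x‖ₑ ^ p ≤ Stt := by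
    have e1 : ∫⁻ x in Z \ ⋃ c, closedBall (a c) (R1 c), ‖fderiv ℝ g' x‖ₑ ^ p =
        ∫⁻ x in Z \ ⋃ c, closedBall (a c) (R1 c), ‖fderiv ℝ g x‖ₑ ^ p := by
      refine setLIntegral_congr_fun (hZ.diff hm) fun x hx => ?_
      have h7 := h4 x (hZO hx.1) fun c hc => hx.2 (mem_iUnion.2 ⟨c, hc⟩)
      simp only [h7.fderiv_eq]
    rw [e1]
    have hsub : Z \ ⋃ c, closedBall (a c) (R1 c) ⊆ ⋃ i ∈ {i | i ∈ IZ ∧ i ∉ Ex}, P (T.H i) := by
      rintro x ⟨hxZ, hxB⟩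
      obtain ⟨i, hiI, hiE, hi⟩ := hI1 x hxZ fun c hc => hxB (mem_iUnion.2 ⟨c, hc⟩)
      simp only [mem_iUnion]
      exact ⟨i, ⟨hiI, hiE⟩, hi⟩
    refine (lintegral_mono_set hsub).trans ?_
    refine (lint_tiles volume T {i | i ∈ IZ ∧ i ∉ Ex} (w := fun x => ‖fderiv ℝ g x‖ₑ ^ p)
      (c := fun i => ENNReal.ofReal (Kt i ^ p)) ?_).trans le_rfl
    intro i hi x hx
    exact enorm_fderiv_rpow_le (hK0 i hi.2 (hI0 i hi.1)) hp0.le (hK i hi.2 (hI0 i hi.1) x hx)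
  -- inside
  have q2 : ∫⁻ x in Z ∩ ⋃ c, closedBall (a c) (R1 c), ‖fderiv ℝ g' x‖ₑ ^ p ≤
      ENNReal.ofReal (Chr 3 p t) * Cf * Stt + ENNReal.ofReal ε := by
    set κZ : Set κ := {c | (closedBall (a c) (R1 c) ∩ Z).Nonempty} with hκZ
    have hsub : Z ∩ ⋃ c, closedBall (a c) (R1 c) ⊆ ⋃ c : κZ, closedBall (a c) (R1 c) := by
      rintro x ⟨hxZ, hxB⟩
      obtain ⟨c, hc⟩ := mem_iUnion.1 hxB
      exact mem_iUnion.2 ⟨⟨c, ⟨x, hc, hxZ⟩⟩, hc⟩
    refine (lintegral_mono_set hsub).trans ?_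
    refine (lintegral_iUnion_le _ _).trans ?_
    have e2 : ∀ c : κZ, ∫⁻ x in closedBall (a c) (R1 c), ‖fderiv ℝ g' x‖ₑ ^ p ≤
        ENNReal.ofReal (Chr 3 p t) * Cf * (∑ i ∈ S c, F i) + (ε' c : ℝ≥0∞) := by
      intro c
      refine ((h6 c).fderiv_le hp0).trans ?_
      have ht : 2 * R1 c / (R1 c - R0 c) ≤ t := by
        rw [div_le_iff₀ (by have := M.fam.lt c; linarith)]
        exact M.rat c
      have ht0 : 0 ≤ 2 * R1 c / (R1 c - R0 c) :=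
        div_nonneg (by have := hR1 c; linarith) (by have := M.fam.lt c; linarith)
      have hs0 : 0 ≤ ∑ i ∈ S c, d i ^ 3 * Kt i ^ p :=
        Finset.sum_nonneg fun i hi => mul_nonneg (pow_nonneg (M.d0 c i hi).le 3)
          (Real.rpow_nonneg (hK0 i (M.nex c i hi) (hCo c i hi)) p)
      have ha : Chr 3 p (2 * R1 c / (R1 c - R0 c)) * ∑ i ∈ S c, d i ^ 3 * Kt i ^ p ≤
          Chr 3 p t * ∑ i ∈ S c, d i ^ 3 * Kt i ^ p :=
        mul_le_mul_of_nonneg_right (Chr_mono hp3 ht) hs0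
      have hC0 : 0 ≤ Chr 3 p t := Chr_nonneg' hp3 (ht0.trans ht)
      calc ENNReal.ofReal (Chr 3 p (2 * R1 c / (R1 c - R0 c)) * ∑ i ∈ S c, d i ^ 3 * Kt i ^ p +
            (ε' c : ℝ))
          ≤ ENNReal.ofReal (Chr 3 p t * (∑ i ∈ S c, d i ^ 3 * Kt i ^ p) + (ε' c : ℝ)) :=
            ENNReal.ofReal_le_ofReal (by linarith)
        _ = ENNReal.ofReal (Chr 3 p t) * ENNReal.ofReal (∑ i ∈ S c, d i ^ 3 * Kt i ^ p) +
            (ε' c : ℝ≥0∞) := by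
            rw [ENNReal.ofReal_add (mul_nonneg hC0 hs0) (NNReal.coe_nonneg _),
              ENNReal.ofReal_mul hC0, ENNReal.ofReal_coe_nnreal]
        _ ≤ ENNReal.ofReal (Chr 3 p t) * (Cf * ∑ i ∈ S c, F i) + (ε' c : ℝ≥0∞) := by
            gcongr
            rw [ENNReal.ofReal_sum_of_nonneg fun i hi => mul_nonneg
              (pow_nonneg (M.d0 c i hi).le 3) (Real.rpow_nonneg (hK0 i (M.nex c i hi) (hCo c i hi)) p),
              Finset.mul_sum]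
            refine Finset.sum_le_sum fun i hi => ?_
            rw [ENNReal.ofReal_mul (pow_nonneg (M.d0 c i hi).le 3)]
            calc ENNReal.ofReal (d i ^ 3) * ENNReal.ofReal (Kt i ^ p) ≤
                (Cf * volume (P (T.H i))) * ENNReal.ofReal (Kt i ^ p) := by
                  gcongr
                  exact M.fat c i hi
              _ = Cf * F i := by rw [hF]; ring
        _ = _ := by ring
    refine (ENNReal.tsum_le_tsum e2).trans ?_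
    rw [ENNReal.tsum_add, ENNReal.tsum_mul_left]
    have e3 : ∑' c : κZ, ∑ i ∈ S c, F i ≤ Stt := by
      have e4 : ∀ c : κZ, ∑ i ∈ S c, F i = ∑' i : {i // i ∈ S (c : κ)}, F i := by
        intro c
        rw [tsum_fintype, Finset.sum_coe_sort (S (c : κ)) F]
      simp only [e4]
      rw [← ENNReal.tsum_sigma' (fun q : (Σ c : κZ, {i // i ∈ S (c : κ)}) => F q.2)]
      have hinj : Injective (fun q : (Σ c : κZ, {i // i ∈ S (c : κ)}) =>
          (⟨(q.2 : ι), hI2 q.1 q.1.2 _ q.2.2, M.nex q.1 _ q.2.2⟩ : {i // i ∈ IZ ∧ i ∉ Ex})) := by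
        rintro ⟨⟨c, hc⟩, ⟨i, hi⟩⟩ ⟨⟨c', hc'⟩, ⟨i', hi'⟩⟩ h
        simp only [Subtype.mk.injEq] at h
        subst h
        have hcc : c = c' := by
          by_contra hne
          exact Finset.disjoint_left.1 (M.dS hne) hi hi'
        subst hcc
        rfl
      exact ENNReal.tsum_comp_le_tsum_of_injective hinj (fun i : {i // i ∈ IZ ∧ i ∉ Ex} => F i)
    have e5 : ∑' c : κZ, (ε' c : ℝ≥0∞) ≤ ENNReal.ofReal ε :=
      (ENNReal.tsum_comp_le_tsum_of_injective Subtype.val_injective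
        (fun c => (ε' c : ℝ≥0∞))).trans hε's.le
    gcongr
  calc ∫⁻ x in Z, ‖fderiv ℝ g' x‖ₑ ^ p
      = ∫⁻ x in (Z ∩ ⋃ c, closedBall (a c) (R1 c)) ∪ (Z \ ⋃ c, closedBall (a c) (R1 c)),
          ‖fderiv ℝ g' x‖ₑ ^ p := by rw [inter_union_sdiff]
    _ ≤ (ENNReal.ofReal (Chr 3 p t) * Cf * Stt + ENNReal.ofReal ε) + Stt :=
        (lintegral_union_le _ _ _).trans (add_le_add q2 q1)
    _ = (1 + ENNReal.ofReal (Chr 3 p t) * Cf) * Stt + ENNReal.ofReal ε := by ring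

end total

end

end Crest.Agent.R096.No_276
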