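import Crest.Agent.R096.Tme1_234
import Crest.Agent.R096.No4_276
import Crest.Agent.R096.Mal3_874

/-!
# Row 96, TMESH (helper582), part 2: the patched tiling

`Zones T0 x R k w` = the base tiling is a lattice in every ball `closedBall (x c) (2 R c)`;
`tmesh` = the base tiling with all the local families put in (874's `patch`).
-/

set_option autoImplicit false
set_option linter.style.longLine false
set_option linter.unusedSectionVars false

open MeasureTheory Set Filter Topology Metric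
open scoped ENNReal

namespace Crest.Agent.R096.Tms_582

open Crest.Agent.R096.Bsp_628 Crest.Agent.R096.Brk1_582 Crest.Agent.R096.Brk3_582
open Crest.Agent.R096.Brk5_582
open Crest.Agent.R096.Msh_715
open Crest.Agent.R096.Mal_874 (Repl patch patch_inl patch_inr patch_off Co)
open Crest.Agent.R096.Msh_810 (Cu Hc ps P_Hc I_Hc Do Dc mem_Cu)
open Crest.Agent.R096.SkC1_961 (E3 Hom3 FoamD Cfg)
open Crest.Agent.R096.Mbf_337
open Crest.Agent.R096.Tme_234 (norm_sub_Cu zone_sub)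

noncomputable section

theorem pow_inv_mul (k : ℕ) : (2 : ℝ) ^ k * (2 : ℝ)⁻¹ ^ k = 1 := by
  rw [← mul_pow]; norm_num

/-- the cubes of the lattice `w + 2^-k Z^3` are translates of the standard ones -/
theorem mem_Cu_tr {w : E3} {k : ℕ} {z : Fin 3 → ℤ} {y : E3} :
    y ∈ Cu w k z ↔ y - w ∈ Cu (0 : E3) k z := by
  rw [mem_Cu, mem_Cu]
  simp only [ps, Pi.sub_apply, Pi.zero_apply, sub_zero]

theorem P_Hc_idE (w : E3) (k : ℕ) (z : Fin 3 → ℤ) : P (Hc idE w k z) = Cu w k z := by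
  rw [P_Hc]; rfl

theorem I_Hc_idE (w : E3) (k : ℕ) (z : Fin 3 → ℤ) : I (Hc idE w k z) = Co w k z := by
  rw [I_Hc, Crest.Agent.R096.Mal_874.Do_univ]; rfl

/-- **the base tiling is a lattice in the zones** -/
structure Zones {Om : Set E3} {ι0 : Type} (T0 : Tiling Om ι0) {𝒞 : Type} (x : 𝒞 → E3) (R : 𝒞 → ℝ)
    (k : 𝒞 → ℕ) (w : 𝒞 → E3) : Prop where
  R0 : ∀ c, 0 < R c
  sub : ∀ c, closedBall (x c) (2 * R c) ⊆ Om
  dis : ∀ c c', c ≠ c' → Disjoint (closedBall (x c) (2 * R c)) (closedBall (x c') (2 * R c'))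
  lf : ∀ y ∈ Om, ∃ r > 0, {c | (closedBall (x c) (2 * R c) ∩ ball y r).Nonempty}.Finite
  sm : ∀ c, (2 : ℝ)⁻¹ ^ k c ≤ R c / 16
  w01 : ∀ c i, 0 ≤ w c i ∧ w c i ≤ (2 : ℝ)⁻¹ ^ k c
  lat : ∀ c i, (P (T0.H i) ∩ closedBall (x c) (2 * R c)).Nonempty → ∃ z, T0.H i = Hc idE (w c) (k c) z

/-- the local families -/
structure LocF {𝒞 : Type} (x : 𝒞 → E3) (R : 𝒞 → ℝ) (k : 𝒞 → ℕ) (Zc : 𝒞 → Finset (Fin 3 → ℤ))
    {κ : 𝒞 → Type} (H : ∀ c, κ c → Finset ((E3 →L[ℝ] ℝ) × ℝ)) : Prop where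
  rep : ∀ c, LatRepl (k c) (Zc c) (H c)
  inb : ∀ c, ∀ z ∈ Zc c, Cu (0 : E3) (k c) z ⊆ ball (x c) (R c / 4)

variable {Om : Set E3} {ι0 : Type} {T0 : Tiling Om ι0} {𝒞 : Type} {x : 𝒞 → E3} {R : 𝒞 → ℝ}
  {k : 𝒞 → ℕ} {w : 𝒞 → E3} {Zc : 𝒞 → Finset (Fin 3 → ℤ)} {κ : 𝒞 → Type}
  {H : ∀ c, κ c → Finset ((E3 →L[ℝ] ℝ) × ℝ)}

/-- the replaced tiles -/
def Ar (T0 : Tiling Om ι0) (k : 𝒞 → ℕ) (w : 𝒞 → E3) (Zc : 𝒞 → Finset (Fin 3 → ℤ)) : Set ι0 :=
  {i | ∃ c, ∃ z ∈ Zc c, T0.H i = Hc idE (w c) (k c) z}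

/-- the replacing family -/
def HH' (w : 𝒞 → E3) (H : ∀ c, κ c → Finset ((E3 →L[ℝ] ℝ) × ℝ)) (p : Σ c, κ c) :
    Finset ((E3 →L[ℝ] ℝ) × ℝ) := trH (w p.1) (H p.1 p.2)

theorem norm_w_le (Z : Zones T0 x R k w) (c : 𝒞) : ‖w c‖ ≤ R c / 16 := by
  have h2k : (0 : ℝ) < (2 : ℝ)⁻¹ ^ k c := by positivity
  refine ((pi_norm_le_iff_of_nonneg h2k.le).2 fun i => ?_).trans (Z.sm c)
  rw [Real.norm_eq_abs, abs_of_nonneg (Z.w01 c i).1]
  exact (Z.w01 c i).2

theorem cube_in (Z : Zones T0 x R k w) (F : LocF x R k Zc H) {c : 𝒞} {z : Fin 3 → ℤ}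
    (hz : z ∈ Zc c) : Cu (w c) (k c) z ⊆ ball (x c) (R c / 2) := by
  intro y hy
  rw [mem_Cu_tr] at hy
  have h := F.inb c z hz hy
  rw [mem_ball_iff_norm] at h ⊢
  have h2 := norm_w_le Z c
  have h3 := Z.R0 c
  calc ‖y - x c‖ = ‖(y - w c - x c) + w c‖ := by congr 1; abel
    _ ≤ ‖y - w c - x c‖ + ‖w c‖ := norm_add_le _ _
    _ < R c / 2 := by linarith

theorem new_in (Z : Zones T0 x R k w) (F : LocF x R k Zc H) (p : Σ c, κ c) :
    P (HH' w H p) ⊆ ball (x p.1) (R p.1 / 2) := by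
  intro y hy
  unfold HH' at hy
  rw [mem_P_trH] at hy
  have h2 : y - w p.1 ∈ ⋃ j, P (H p.1 j) := mem_iUnion.2 ⟨p.2, hy⟩
  rw [(F.rep p.1).eq] at h2
  obtain ⟨z, hz, hz'⟩ := mem_iUnion₂.1 h2
  exact cube_in Z F hz (mem_Cu_tr.2 hz')

/-- the cubes of the zone are tiles of the base tiling -/
theorem exists_tile (Z : Zones T0 x R k w) {c : 𝒞} {z : Fin 3 → ℤ}
    (hz : (Co (w c) (k c) z ∩ closedBall (x c) (2 * R c)).Nonempty) :
    ∃ i, T0.H i = Hc idE (w c) (k c) z := by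
  obtain ⟨y, hy, hyb⟩ := hz
  obtain ⟨i, hi⟩ := T0.cov y (Z.sub c hyb)
  obtain ⟨z', hz'⟩ := Z.lat c i ⟨y, hi, hyb⟩
  refine ⟨i, ?_⟩
  rw [hz', P_Hc_idE] at hi
  by_cases h : z = z'
  · rw [hz', h]
  · exact absurd hi (Set.disjoint_left.1 (Crest.Agent.R096.Mal_874.Co_disjoint_Cu h) hy)

theorem Co_nonempty (a : E3) (m : ℕ) (z : Fin 3 → ℤ) : (Co a m z).Nonempty :=
  ⟨Crest.Agent.R096.Mal_874.mid a m z, fun i => by
    rw [Crest.Agent.R096.Mal_874.ps_mid]; constructor <;> linarith⟩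

theorem isCompact_P_trH {v : E3} {G : Finset ((E3 →L[ℝ] ℝ) × ℝ)} (h : IsCompact (P G)) :
    IsCompact (P (trH v G)) := by
  have : P (trH v G) = (fun y => y + v) '' P G := by
    ext y
    rw [mem_P_trH]
    constructor
    · intro hy; exact ⟨y - v, hy, by simp⟩
    · rintro ⟨u, hu, rfl⟩; simpa using hu
  rw [this]
  exact h.image (by fun_prop)

theorem repl_tm (Z : Zones T0 x R k w) (F : LocF x R k Zc H) :
    Repl T0 (Ar T0 k w Zc) (HH' w H) where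
  cpt p := isCompact_P_trH ((F.rep p.1).cpt p.2)
  ne p := by
    obtain ⟨y, hy⟩ := (F.rep p.1).ne p.2
    exact ⟨y + w p.1, mem_I_trH.2 (by simpa using hy)⟩
  dis := by
    rintro ⟨c, j⟩ ⟨c', j'⟩ h
    rw [Set.disjoint_left]
    intro y hy hy'
    by_cases hc : c = c'
    · subst hc
      have hj : j ≠ j' := fun e => h (by rw [e])
      unfold HH' at hy hy'
      rw [mem_I_trH] at hy hy'
      exact Set.disjoint_left.1 ((F.rep c).dis j j' hj) hy hy'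
    · have h1 := new_in Z F ⟨c, j⟩ (I_sub_P _ hy)
      have h2 := new_in Z F ⟨c', j'⟩ (I_sub_P _ hy')
      have h3 := Z.R0 c
      have h4 := Z.R0 c'
      exact Set.disjoint_left.1 (Z.dis c c' hc)
        ((ball_subset_closedBall.trans (closedBall_subset_closedBall (by
          show R c / 2 ≤ 2 * R c; linarith))) h1)
        ((ball_subset_closedBall.trans (closedBall_subset_closedBall (by
          show R c' / 2 ≤ 2 * R c'; linarith))) h2)
  lf y hy := by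
    obtain ⟨r, hr, hfin⟩ := Z.lf y hy
    refine ⟨r, hr, ?_⟩
    have : {p : Σ c, κ c | (P (HH' w H p) ∩ ball y r).Nonempty} ⊆
        ⋃ c ∈ {c | (closedBall (x c) (2 * R c) ∩ ball y r).Nonempty},
          (Set.range fun j : κ c => (⟨c, j⟩ : Σ c, κ c)) := by
      rintro ⟨c, j⟩ ⟨u, hu, hub⟩
      refine mem_iUnion₂.2 ⟨c, ⟨u, ?_, hub⟩, j, rfl⟩
      have h3 := Z.R0 c
      exact (ball_subset_closedBall.trans (closedBall_subset_closedBall (by
        show R c / 2 ≤ 2 * R c; linarith))) (new_in Z F ⟨c, j⟩ hu)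
    refine (Set.Finite.biUnion hfin fun c _ => ?_).subset this
    have := (F.rep c).fin
    exact Set.finite_range _
  eq := by
    ext y
    constructor
    · intro hy
      obtain ⟨⟨c, j⟩, hy⟩ := mem_iUnion.1 hy
      unfold HH' at hy
      rw [mem_P_trH] at hy
      have h2 : y - w c ∈ ⋃ j, P (H c j) := mem_iUnion.2 ⟨j, hy⟩
      rw [(F.rep c).eq] at h2
      obtain ⟨z, hz, hz'⟩ := mem_iUnion₂.1 h2
      have h3 := Z.R0 c
      obtain ⟨i, hi⟩ := exists_tile Z (c := c) (z := z) (by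
        obtain ⟨u, hu⟩ := Co_nonempty (w c) (k c) z
        refine ⟨u, hu, ?_⟩
        exact (ball_subset_closedBall.trans (closedBall_subset_closedBall (by
          show R c / 2 ≤ 2 * R c; linarith))) (cube_in Z F hz
            (Crest.Agent.R096.Mal_874.Co_sub_Cu _ _ _ hu)))
      refine mem_iUnion₂.2 ⟨i, ⟨c, z, hz, hi⟩, ?_⟩
      rw [hi, P_Hc_idE]
      exact mem_Cu_tr.2 hz'
    · intro hy
      obtain ⟨i, ⟨c, z, hz, hi⟩, hy⟩ := mem_iUnion₂.1 hy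
      rw [hi, P_Hc_idE, mem_Cu_tr] at hy
      have h2 : y - w c ∈ ⋃ z ∈ Zc c, Cu (0 : E3) (k c) z := mem_iUnion₂.2 ⟨z, hz, hy⟩
      rw [← (F.rep c).eq] at h2
      obtain ⟨j, hj⟩ := mem_iUnion.1 h2
      exact mem_iUnion.2 ⟨⟨c, j⟩, mem_P_trH.2 hj⟩

/-- **the tiling with the tiny zones** -/
def tmesh (Z : Zones T0 x R k w) (F : LocF x R k Zc H) :
    Tiling Om ({i // i ∉ Ar T0 k w Zc} ⊕ Σ c, κ c) := patch T0 (Ar T0 k w Zc) (HH' w H) (repl_tm Z F)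

/-- the new tiles of the zone `c` -/
def en (T0 : Tiling Om ι0) (k : 𝒞 → ℕ) (w : 𝒞 → E3) (Zc : 𝒞 → Finset (Fin 3 → ℤ)) (c : 𝒞)
    (j : κ c) : {i // i ∉ Ar T0 k w Zc} ⊕ Σ c, κ c := Sum.inr ⟨c, j⟩

theorem tmesh_inl (Z : Zones T0 x R k w) (F : LocF x R k Zc H) (i : {i // i ∉ Ar T0 k w Zc}) :
    (tmesh Z F).H (Sum.inl i) = T0.H i.1 := rfl

theorem tmesh_en (Z : Zones T0 x R k w) (F : LocF x R k Zc H) (c : 𝒞) (j : κ c) :
    (tmesh Z F).H (en T0 k w Zc c j) = trH (w c) (H c j) := rfl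

/-- the zones of the new tiling, radius `ρ ≤ 2 R c` -/
theorem tmesh_zone (Z : Zones T0 x R k w) (F : LocF x R k Zc H) (c : 𝒞) {ρ : ℝ}
    (hρ : ρ ≤ 2 * R c) :
    InZone (tmesh Z F) (x c) ρ (k c) (w c) (Zc c) (H c) (en T0 k w Zc c) where
  inj := by
    intro j j' h
    have h1 := Sum.inr_injective h
    simpa using h1
  loc j := rfl
  lat := by
    rintro (i | ⟨c', j⟩) hi hie
    · rw [tmesh_inl] at hi ⊢
      obtain ⟨z, hz⟩ := Z.lat c i.1 (hi.mono (inter_subset_inter_right _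
        (closedBall_subset_closedBall hρ)))
      exact ⟨z, fun h => i.2 ⟨c, z, h, hz⟩, hz⟩
    · exfalso
      by_cases h : c' = c
      · subst h; exact hie ⟨j, rfl⟩
      · obtain ⟨y, hy, hyb⟩ := hi
        have h1 := new_in Z F ⟨c', j⟩ hy
        have h3 := Z.R0 c'
        exact Set.disjoint_left.1 (Z.dis c' c h)
          ((ball_subset_closedBall.trans (closedBall_subset_closedBall (by
            show R c' / 2 ≤ 2 * R c'; linarith))) h1) (closedBall_subset_closedBall hρ hyb)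

/-- the tiles near the centre `c` -/
def Vc {ι : Type} (T : Tiling Om ι) (x : 𝒞 → E3) (R : 𝒞 → ℝ) (c : 𝒞) : Set ι :=
  {i | (P (T.H i) ∩ closedBall (x c) (R c / 2)).Nonempty}

theorem en_mem_Vc (Z : Zones T0 x R k w) (F : LocF x R k Zc H) (c : 𝒞) (j : κ c) :
    en T0 k w Zc c j ∈ Vc (tmesh Z F) x R c := by
  obtain ⟨p, hp⟩ := (tmesh Z F).ne (en T0 k w Zc c j)
  exact ⟨p, I_sub_P _ hp, ball_subset_closedBall (new_in Z F ⟨c, j⟩ (I_sub_P _ hp))⟩

/-- a tile of the new tiling off the zones is a tile of the base tiling, with all its neighbours -/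
theorem off_zones (Z : Zones T0 x R k w) (F : LocF x R k Zc H)
    {i : {i // i ∉ Ar T0 k w Zc} ⊕ Σ c, κ c} (hi : ∀ c, i ∉ Vc (tmesh Z F) x R c) :
    ∃ i0 : {i // i ∉ Ar T0 k w Zc}, i = Sum.inl i0 ∧
      ∀ c, Disjoint (P (T0.H i0.1)) (closedBall (x c) (R c / 2)) := by
  rcases i with i0 | ⟨c, j⟩
  · refine ⟨i0, rfl, fun c => ?_⟩
    by_contra h
    exact hi c (not_disjoint_iff_nonempty_inter.1 h)
  · exact absurd (en_mem_Vc Z F c j) (hi c)

/-- at a point off the half balls nothing changes -/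
theorem cells_off (Z : Zones T0 x R k w) (F : LocF x R k Zc H) {y : E3}
    (hy : ∀ c, y ∉ ball (x c) (R c / 2)) :
    (tmesh Z F).cc y = T0.cc y ∧ (tmesh Z F).oc y = T0.oc y ∧ (tmesh Z F).V y = T0.V y := by
  apply patch_off
  rintro i hi ⟨c, z, hz, h⟩
  have h1 : y ∈ P (T0.H i) := hi
  rw [h, P_Hc_idE] at h1
  exact hy c (cube_in Z F hz h1)

theorem dim_off (Z : Zones T0 x R k w) (F : LocF x R k Zc H) {y : E3}
    (hy : ∀ c, y ∉ ball (x c) (R c / 2)) : (tmesh Z F).dim y = T0.dim y := by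
  unfold Tiling.dim
  rw [(cells_off Z F hy).2.2]

theorem cfg_off (Z : Zones T0 x R k w) (F : LocF x R k Zc H) {i0 : {i // i ∉ Ar T0 k w Zc}}
    (hi : ∀ c, Disjoint (P (T0.H i0.1)) (closedBall (x c) (R c / 2))) :
    Cfg (tmesh Z F) (Sum.inl i0) = Cfg T0 i0.1 := by
  ext K
  constructor
  · rintro ⟨y, hy, rfl⟩
    refine ⟨y, hy, ?_⟩
    exact (cells_off Z F fun c hc => Set.disjoint_left.1 (hi c) hy (ball_subset_closedBall hc)).1
  · rintro ⟨y, hy, rfl⟩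
    refine ⟨y, hy, ?_⟩
    exact (cells_off Z F fun c hc => Set.disjoint_left.1 (hi c) hy (ball_subset_closedBall hc)).1.symm

end

end Crest.Agent.R096.Tms_582
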