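import Crest.Agent.R096.Zlt1_798
import Crest.Agent.R096.Tms2_582

/-!
# Row 96, EA p < 3, helper798: [ZLAT] of 348 #11024, part 2: 582's `Zones` for the mesh with zones
(`φ = idE`, zones = closed balls of radius `2 R c`)
-/

set_option autoImplicit false

open Set Filter Topology Metric

namespace Crest.Agent.R096.Zlt_798

open Msh_715 Cut_874 Msh_810 Mal_874
open Crest.Agent.R096.Tms_582 (idE Zones)
open Crest.Agent.R096.SkC1_961 (E3)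

noncomputable section

/-- the representative of the shift `a` modulo `2 ^ (-k)` -/
def wz (a : E3) (k : ℕ) : E3 := fun i => a i - ⌊2 ^ k * a i⌋ / 2 ^ k

theorem wz_mem (a : E3) (k : ℕ) (i : Fin 3) : 0 ≤ wz a k i ∧ wz a k i < (2 : ℝ)⁻¹ ^ k := by
  have hp : (0 : ℝ) < 2 ^ k := by positivity
  have h1 := Int.floor_le (2 ^ k * a i)
  have h2 := Int.lt_floor_add_one (2 ^ k * a i)
  have e : wz a k i = (2 ^ k * a i - ⌊2 ^ k * a i⌋) / 2 ^ k := by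
    unfold wz
    field_simp
  rw [e, inv_pow]
  constructor
  · apply div_nonneg _ hp.le
    linarith
  · rw [div_lt_iff₀ hp, inv_mul_cancel₀ hp.ne']
    linarith

/-- the two descriptions of the lattice -/
theorem Hc_wz (φ : E3 ≃L[ℝ] (Fin 3 → ℝ)) (a : E3) (k : ℕ) (z : Fin 3 → ℤ) :
    Hc φ a k z = Hc φ (wz a k) k (fun i => z i + ⌊2 ^ k * a i⌋) := by
  have hp : (2 : ℝ) ^ k ≠ 0 := by positivity
  unfold Hc
  congr 1
  funext p
  unfold hc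
  split_ifs
  · refine Prod.ext rfl ?_
    show a p.1 + ((z p.1 : ℝ) + 1) / 2 ^ k =
      (a p.1 - ⌊2 ^ k * a p.1⌋ / 2 ^ k) + (((z p.1 + ⌊2 ^ k * a p.1⌋ : ℤ) : ℝ) + 1) / 2 ^ k
    push_cast
    field_simp
    ring
  · refine Prod.ext rfl ?_
    show -(a p.1 + (z p.1 : ℝ) / 2 ^ k) =
      -((a p.1 - ⌊2 ^ k * a p.1⌋ / 2 ^ k) + ((z p.1 + ⌊2 ^ k * a p.1⌋ : ℤ) : ℝ) / 2 ^ k)
    push_cast
    field_simp
    ring

/-- zones = balls -/
structure ZBall {J : Type*} (M : MD E3 3 J) {𝒞 : Type*} (x : 𝒞 → E3) (R : 𝒞 → ℝ) : Prop where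
  id : M.φ = idE
  R0 : ∀ c, 0 < R c
  sub : ∀ c, closedBall (x c) (2 * R c) ⊆ M.D0.Om
  dis : ∀ c c', c ≠ c' → Disjoint (closedBall (x c) (2 * R c)) (closedBall (x c') (2 * R c'))
  disV : ∀ c j, Disjoint (closedBall (x c) (2 * R c)) (M.V j)
  lf : ∀ y ∈ M.D0.Om, ∃ r > 0, {c | (closedBall (x c) (2 * R c) ∩ ball y r).Nonempty}.Finite

theorem ZBall.zn {J : Type*} {M : MD E3 3 J} {𝒞 : Type*} {x : 𝒞 → E3} {R : 𝒞 → ℝ}
    (Z : ZBall M x R) : Zn M (fun c => closedBall (x c) (2 * R c)) where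
  cpt c := isCompact_closedBall _ _
  ne c := ⟨x c, mem_closedBall_self (by have := Z.R0 c; linarith)⟩
  sub := Z.sub
  dis := Z.dis
  disV := Z.disV
  lf := Z.lf

variable {J : Type} {M : MD E3 3 J} {𝒞 : Type} {x : 𝒞 → E3} {R : 𝒞 → ℝ}

/-- **[ZLAT]** 582's `Zones` for the mesh `zn` -/
theorem zones_of (Z : ZBall M x R) {kz : 𝒞 → ℕ} {m : 𝒞 → ℝ}
    (hm : Room M (fun c => closedBall (x c) (2 * R c)) m) (hz : Fin1 M m kz)
    (hs : ∀ c, (2 : ℝ)⁻¹ ^ kz c ≤ R c / 16) {k : J → ℕ} (hk : (zn Z.zn kz).Sc k) (a : E3)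
    {v : J → E3} (hv : (zn Z.zn kz).Adm v) :
    Zones ((zn Z.zn kz).mesh hk a hv) x R kz (fun c => wz a (kz c)) := by
  have hid : ∀ y : E3, M.φ y = y := by
    intro y
    rw [Z.id]
    rfl
  refine ⟨Z.R0, ?_, Z.dis, ?_, hs, fun c i => ⟨(wz_mem a (kz c) i).1, (wz_mem a (kz c) i).2.le⟩, ?_⟩
  · intro c y hy
    show M.φ y ∈ (zn Z.zn kz).D0.Om
    rw [zn_Om, hid]
    exact Z.sub c hy
  · intro y hy
    have hy' : y ∈ M.D0.Om := by
      have h1 : M.φ y ∈ (zn Z.zn kz).D0.Om := hy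
      rwa [zn_Om, hid] at h1
    exact Z.lf y hy'
  · intro c i hi
    obtain ⟨y, hy1, hy2⟩ := hi
    obtain ⟨z, hz'⟩ := lat Z.zn hm hz hk a hv (c := c) i ⟨y, hy1, by
      show M.φ y ∈ closedBall (x c) (2 * R c)
      rw [hid]
      exact hy2⟩
    refine ⟨fun l => z l + ⌊2 ^ kz c * a l⌋, ?_⟩
    rw [hz', Hc_wz, Z.id]

/-- **[ZLAT], with the choice of the scales**: `Zones` for all shifts -/
theorem exists_zones (Z : ZBall M x R) : ∃ kz0 : 𝒞 → ℕ, ∀ kz : 𝒞 → ℕ, (∀ c, kz0 c ≤ kz c) →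
    ∃ k0 : J → ℕ, ∀ k : J → ℕ, (∀ j, k0 j ≤ k j) → ∃ hk : (zn Z.zn kz).Sc k,
      ∀ (a : E3) (v : J → E3) (hv : (zn Z.zn kz).Adm v),
        Zones ((zn Z.zn kz).mesh hk a hv) x R kz (fun c => wz a (kz c)) := by
  obtain ⟨m, hm⟩ := exists_room Z.zn
  obtain ⟨kz0, hkz0⟩ := exists_fin1 (M := M) hm.pos
  have h : ∀ c, ∃ k : ℕ, (2 : ℝ)⁻¹ ^ k ≤ R c / 16 := by
    intro c
    have h0 : 0 < R c / 16 := by have := Z.R0 c; linarith
    obtain ⟨k, hk⟩ := exists_pow_lt_of_lt_one h0 (by norm_num : (2 : ℝ)⁻¹ < 1)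
    exact ⟨k, hk.le⟩
  choose k1 hk1 using h
  refine ⟨fun c => max (kz0 c) (k1 c), fun kz hkz => ?_⟩
  have hs : ∀ c, (2 : ℝ)⁻¹ ^ kz c ≤ R c / 16 := by
    intro c
    refine le_trans ?_ (hk1 c)
    exact pow_le_pow_of_le_one (by norm_num) (by norm_num) ((le_max_right _ _).trans (hkz c))
  have hz : Fin1 M m kz := hkz0 kz fun c => (le_max_left _ _).trans (hkz c)
  obtain ⟨k0, hk0⟩ := (zn Z.zn kz).exists_thr
  exact ⟨k0, fun k hk => ⟨hk0 k hk, fun a v hv => zones_of Z hm hz hs (hk0 k hk) a hv⟩⟩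

end

end Crest.Agent.R096.Zlt_798
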