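import Crest.Agent.R096.Mdd8_360
import Crest.Agent.R096.Mdd3_360
import Crest.Agent.R096.Zlt2_798
import Crest.Agent.R96.Eac3_348

/-!
# Row 96 (S0127), EA0 (helper663), part 1: the MESH DATA of `EA0` for 112's `pre_gen`

`KC` : the numerical conditions on the closeness `κ`;  `exists_KC`;
`Finer M M1` : same blocks, rooms and domain, smaller outer size function (798's `zn`);
**`ea0_data`** : from `Ea0_961.Blk`, `Ea0_961.InS` (given blocks) : mesh data `M : MD E3 3 X`, rational data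
`Y : RD M`, zones `ZBall`, `Tw ⊆ BxM`, and (B1) (`Exact` and `FineX`) for every finer `M1`.
-/

set_option autoImplicit false
set_option linter.style.longLine false
set_option linter.unusedSectionVars false

open MeasureTheory Set Filter Topology Metric
open scoped ENNReal NNReal

namespace Crest.Agent.R096.Eaz_663

open Crest.Agent.R096.Bsp_628 Crest.Agent.R096.Brk5_582 Crest.Agent.R096.Brk1_582
open Crest.Agent.R096.Brk2_582 Crest.Agent.R096.Brk3_582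
open Crest.Agent.R096.SkC1_961 (E3 FoamD Hom3)
open Crest.Agent.R096.EaX_766 (cbx lin)
open Crest.Agent.R096.Bxs_627 (ctr CoriE fD zz)
open Crest.Agent.R096.Mal_874 Crest.Agent.R096.Msh_810 Crest.Agent.R096.Msh_715
open Crest.Agent.R096.Fns_360
open Crest.Agent.R096.Ea0_961
open Crest.Agent.R096.Mdd_360
open Crest.Agent.R096.Zlt_798
open Crest.Agent.R96.EaP_899 (fX XD cm)
open Crest.Agent.R96.Eam_466 (OX FineX InB)
open Crest.Agent.R96.EaCore_348 (exact_mono)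

noncomputable section

/-! ### constants -/

/-- numerical conditions on the closeness `κ` (`κm` = closeness asked by the machine) -/
structure KC (δ κ0 R c0 κ2 lam1 κm κ : ℝ) : Prop where
  pos : 0 < κ
  m : 2 * κ ≤ κm
  k8 : 16 * (κ * κ0) ≤ 1
  lam : 16 * (κ * κ0) ≤ 1 - lam1
  k2 : 2 * κ ≤ κ2
  KI : 5 * (|KI δ κ0 R (cm κ0 c0)| * κ) ≤ κm

theorem KC.mono {δ κ0 R c0 κ2 lam1 κm κ κ' : ℝ} (hκ0 : 0 ≤ κ0) (h : KC δ κ0 R c0 κ2 lam1 κm κ)
    (h0 : 0 < κ') (h1 : κ' ≤ κ) : KC δ κ0 R c0 κ2 lam1 κm κ' where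
  pos := h0
  m := by linarith [h.m]
  k8 := by
    have := mul_le_mul_of_nonneg_right h1 hκ0
    linarith [h.k8]
  lam := by
    have := mul_le_mul_of_nonneg_right h1 hκ0
    linarith [h.lam]
  k2 := by linarith [h.k2]
  KI := by
    have := mul_le_mul_of_nonneg_left h1 (abs_nonneg (Fns_360.KI δ κ0 R (cm κ0 c0)))
    linarith [h.KI]

theorem exists_KC (δ R c0 : ℝ) {κ0 κ2 lam1 κm : ℝ} (hκ0 : 0 < κ0) (hκ2 : 0 < κ2) (hlam1 : lam1 < 1)
    (hκm : 0 < κm) : ∃ κ : ℝ, KC δ κ0 R c0 κ2 lam1 κm κ := by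
  set N := |Fns_360.KI δ κ0 R (cm κ0 c0)| with hN
  have hN0 : 0 ≤ N := abs_nonneg _
  set m := min (min (κm / 2) (κ2 / 2)) (min (min (1 / (16 * κ0)) ((1 - lam1) / (16 * κ0)))
    (κm / (5 * (N + 1)))) with hm
  have h1 : m ≤ κm / 2 := (min_le_left _ _).trans (min_le_left _ _)
  have h2 : m ≤ κ2 / 2 := (min_le_left _ _).trans (min_le_right _ _)
  have h3 : m ≤ 1 / (16 * κ0) := (min_le_right _ _).trans ((min_le_left _ _).trans (min_le_left _ _))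
  have h4 : m ≤ (1 - lam1) / (16 * κ0) :=
    (min_le_right _ _).trans ((min_le_left _ _).trans (min_le_right _ _))
  have h5 : m ≤ κm / (5 * (N + 1)) := (min_le_right _ _).trans (min_le_right _ _)
  have hpos : 0 < m := by
    refine lt_min (lt_min (by positivity) (by positivity)) (lt_min (lt_min (by positivity) ?_)
      (by positivity))
    exact div_pos (by linarith) (by positivity)
  refine ⟨m, hpos, by linarith, ?_, ?_, by linarith, ?_⟩
  · rw [le_div_iff₀ (by positivity)] at h3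
    linarith
  · rw [le_div_iff₀ (by positivity)] at h4
    linarith
  · rw [le_div_iff₀ (by positivity)] at h5
    rw [← hN]
    nlinarith

/-! ### finer mesh data -/

/-- same blocks and rooms, finer outer mesh -/
structure Finer {J : Type*} (M M1 : MD E3 3 J) : Prop where
  φ : M1.φ = M.φ
  Q : M1.Q = M.Q
  r : M1.r = M.r
  Om : M1.D0.Om = M.D0.Om
  ρ : ∀ y, M1.D0.ρ y ≤ M.D0.ρ y

theorem Finer.refl {J : Type*} (M : MD E3 3 J) : Finer M M := ⟨rfl, rfl, rfl, rfl, fun _ => le_rfl⟩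

theorem finer_zn {J : Type*} {𝒞 : Type*} {M : MD E3 3 J} {B : 𝒞 → Set (Fin 3 → ℝ)} (Z : Zn M B)
    (kz : 𝒞 → ℕ) : Finer M (zn Z kz) := ⟨rfl, rfl, rfl, zn_Om Z kz, zn_ρ_le Z kz⟩

/-! ### the mesh data -/

variable {La Om : Set E3} {f : E3 → E3} {F : Set (Bx (Fin 3))} {δ κ0 R c0 : ℝ} {X : Set F}

/-- **mesh data of EA0** -/
theorem ea0_data (hOm : IsOpen Om) (hLa : IsOpen La) (hf : Hom3 f Om La) (hδ : 0 < δ)
    (hκ0 : 1 ≤ κ0) (hR : 0 < R) (bf : BoxFoam La F δ κ0) (cmp : Cmp F R)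
    {κ2 lam1 κm κ τ u Cc κt κw K p : ℝ} {Bs M Nn : ℕ} (h2 : κ2 ≤ 1 / 4)
    (hKC : KC δ κ0 R c0 κ2 lam1 κm κ) (hlam1 : lam1 < 1) (hτ : 0 < τ) (hτκ : τ * κ0 ≤ κ)
    (hBs : 1 ≤ Bs) (hM0 : (Bs : ℝ) * Cc ≤ κ * M) (hM : 0 < M) (hu : 0 < u)
    (hK1 : 1 ≤ K) (hKt : K ^ 2 * κt ≤ 5 * τ)
    {D : E3 → E3 →L[ℝ] E3} {A : F → E3 ≃ᵃ[ℝ] E3} {lam : F → ℝ} {Q : F → CB E3 3} {k0 : F → ℕ}
    {hk : ∀ c, (Q c).kc ≤ k0 c} {er : F → ℝ≥0∞}
    (hK : ∀ c ∈ X, ∀ y, ‖(Q c).ψ y‖ ≤ K * ‖y‖ ∧ ‖y‖ ≤ K * ‖(Q c).ψ y‖)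
    (hlam : ∀ c ∈ X, c0 ≤ lam c ∧ lam c ≤ lam1)
    (hB : ∀ c ∈ X, Blk F u Cc κ2 κt Bs M Nn c (A c) (lam c) (Q c) (k0 c) (hk c))
    (hI : ∀ c ∈ X, InS p Om f D Cc κ κ2 κw M c.1 (A c) (lam c) (er c) (Q c) (k0 c) (hk c))
    {zc : F → E3} (H : XD bf c0 X lam zc) {fi : E3 → E3} (hfi : ∀ y ∈ Om, fi (f y) = y)
    (hfic : ContinuousOn fi La) {x : {c // c ∉ X} → E3} {Rz : {c // c ∉ X} → ℝ}
    (hx : ∀ c, x c ∈ Om ∧ f (x c) = zc c.1 ∧ 0 < Rz c)
    (hxs : ∀ c, closedBall (x c) (2 * Rz c) ⊆ Om)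
    (hxi : ∀ c, ∀ y ∈ closedBall (x c) (2 * Rz c), ∀ k, c.1.1.lo k < f y k ∧ f y k < c.1.1.hi k)
    (hxd : ∀ c c', c ≠ c' → Disjoint (closedBall (x c) (2 * Rz c)) (closedBall (x c') (2 * Rz c')))
    (hxl : ∀ y ∈ Om, ∃ r > 0, {c | (closedBall (x c) (2 * Rz c) ∩ ball y r).Nonempty}.Finite) :
    ∃ (M' : MD E3 3 X) (Y : RD M') (κd : X → ℕ),
      M'.φ = ContinuousLinearEquiv.refl ℝ E3 ∧ M'.D0.Om = Om ∧ M'.D0.C = 6 ∧
      (∀ y, M'.D0.ρ y ≤ 1) ∧ (M'.Q = fun c => Q c.1) ∧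
      (∀ j, Y.B j = Bs) ∧ (∀ j, Y.R j = Bs) ∧
      (∀ j m, ∃ c : ℤ, 2 ^ κd j * (Y.d j : ℝ) * (M'.Q j).a' m = c) ∧
      (∀ c : X, ∀ v ∈ Tw (Q c.1) (k0 c.1), ‖v‖ ≤ M'.r c) ∧
      (∀ (c : X) (v : E3), ‖v‖ ≤ M'.r c → ‖(A c).linear v‖ ≤ τ * (lam c * c.1.1.sz) / M) ∧
      (∀ (c : X), ∀ y ∈ cthickening (M'.r c) (Q c.1).N, y ∈ Om ∧
        (∀ k, c.1.1.lo k < f y k ∧ f y k < c.1.1.hi k) ∧
        ‖f y - A c y‖ ≤ κ * (lam c * c.1.1.sz)) ∧
      ZBall M' x Rz ∧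
      ∀ M1 : MD E3 3 X, Finer M' M1 → ∀ Y1 : RD M1, (∀ j, Y1.R j = Bs) →
        ∀ {k : X → ℕ} (hk : M1.Sc k) (a : Fin 3 → ℝ) {v : X → E3} (hv : M1.Adm v)
          {ct0 : F → M1.OIx hk a hv ⊕ Σ j, M1.IIx hk a hv j},
          (∀ c : X, ct0 c.1 = Sum.inr ⟨c, M1.core hk a hv c⟩) →
          (∀ c : X, Mbf_337.Exact (fX bf cmp H) (M1.mesh hk a hv) f κm (κ2 / 2) c.1
            (Sum.inr ⟨c, M1.core hk a hv c⟩) (trA (A c) (v c)) (lam c) (zz c.1.1 (lam c))) ∧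
          FineX (fX bf cmp H) (M1.mesh hk a hv) f κm X ct0 x Rz := by
  have hf1 : ContinuousOn f Om ∧ MapsTo f Om La := by
    obtain ⟨g, h1, h2, h3, h4, h5, h6⟩ := hf
    exact ⟨h5, h1⟩
  have hκp := hKC.pos
  have hκm : 0 < κm := by linarith [hKC.m]
  have hcor : ∀ c ∈ X, CoriE Om f (A c) c.1 (lam c) κ κ2 := fun c hc => cori_of_cor (hI c hc).cor
  have hlp : ∀ c ∈ X, 0 < lam c := fun c hc => H.hc.trans_le (hlam c hc).1
  obtain ⟨D0, hD1, hD2, hD3, hD4, hD5⟩ := exists_DatX hOm hLa hδ hR bf cmp H hf1.2 hf1.1 hfi hfic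
    hx hκm (σ := fun _ => 1) (fun y y' => by have := dist_nonneg (x := y) (y := y'); linarith)
    (fun _ => zero_le_one) (fun _ _ => one_pos) (C := 6) (by norm_num) 0
  obtain ⟨M', h1, h2', h3, h4, h5, h6, h7, h8⟩ := md_blk hOm hf bf (by linarith) (κ1 := κ)
    (κ2 := κ2) (τ := τ) (lam1 := lam1) hu hM
    (fun c hc => ⟨hlp c hc, (hlam c hc).2⟩) hlam1.le hκp.le hτ (by linarith [hKC.k2]) (by
      have := hKC.lam
      have h1 : (κ + τ) * κ0 ≤ 2 * (κ * κ0) := by nlinarith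
      nlinarith [hKC.k8]) hB hcor hK1 hK hKt (D0 := D0) hD3 (by rw [hD1])
  have hnet : ∀ j : X, ∃ κ : ℕ, ∃ (B : Fin 3 → Fin 3 → ℤ) (d : ℕ), 0 < d ∧
      Rt M'.φ (M'.Q j).ψ B d ∧ ∀ m, ∃ c : ℤ, 2 ^ κ * (d : ℝ) * (M'.Q j).a' m = c := by
    intro j
    obtain ⟨d, B, hd, -, -, hRt, κ, hz⟩ := (hB j.1 j.2).net
    rw [h1, h3]
    exact ⟨κ, B, d, hd, hRt, hz⟩
  choose κd hrat using hnet
  have hBs' : (1 : ℝ) ≤ Bs := by exact_mod_cast hBs
  have hGB : ∀ j : X, ∀ i, ∀ p ∈ (M'.Q j).S.GG i, ∀ l, |p.1 l| ≤ Bs := by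
    intro j
    rw [h3]
    exact (hB j.1 j.2).hB
  have hGR : ∀ j : X, ∀ i, i ≠ (M'.Q j).S.core → ∀ u ∈ ZP ((M'.Q j).S.GG i),
      ∀ v ∈ ZP ((M'.Q j).S.GG i), ∀ l, |v l - u l| ≤ (Bs : ℝ) := by
    intro j
    rw [h3]
    intro i hi u hu v hv l
    rw [abs_sub_comm]
    exact (hB j.1 j.2).hR i hi v hv u hu l
  obtain ⟨Y, hY1, hY2, hY3⟩ := exists_RD M' κd hrat (fun _ => Bs) (fun _ => hBs)
    (fun j => hGB j) (fun _ => (Bs : ℝ)) (fun _ => hBs') (fun j => hGR j)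
  have hOm' : M'.D0.Om = Om := by rw [h2', hD3]
  refine ⟨M', Y, κd, h1, hOm', by rw [h2', hD1], fun y => by rw [h2']; exact hD4 y, h3,
    fun j => by rw [hY1], fun j => by rw [hY2], hY3, fun c v hv => ?_, h7, fun c y hy => ?_, ?_, ?_⟩
  · have h9 := h6 c v hv
    have h10 := M'.r_pos c
    linarith
  · obtain ⟨-, h10, h11, h12⟩ := h8 c y hy
    exact ⟨h10, h11, h12⟩
  · refine ⟨h1, fun c => (hx c).2.2, fun c => by rw [hOm']; exact hxs c, hxd, fun c j => ?_,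
      fun y hy => hxl y (by rw [← hOm']; exact hy)⟩
    rw [Set.disjoint_left]
    intro y hy hyV
    have hV : y ∈ cthickening (M'.r j) (Q j.1).N := by
      have h9 : y ∈ cthickening (M'.r j) (M'.φ '' (M'.Q j).N) := hyV
      rw [h1, refl_image, h3] at h9
      exact h9
    obtain ⟨-, -, h11, -⟩ := h8 j y hV
    have h12 := hxi c y hy
    have hne : (j.1 : F).1 ≠ c.1.1 := fun h => c.2 (by
      have h13 : (j.1 : F) = c.1 := Subtype.ext h
      rw [← h13]; exact j.2)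
    obtain ⟨k, hk⟩ := bf.inv.disj j.1.2 c.1.2 (bf.pos _ j.1.2) (bf.pos _ c.1.2) hne
    have h3 := h11 k
    have h4 := h12 k
    rcases hk with hk | hk
    · linarith [h3.2, h4.1]
    · linarith [h3.1, h4.2]
  · intro M1 hF1 Y1 hY1R k hkS a v hv ct0 hct0
    have hφ1 : M1.φ = ContinuousLinearEquiv.refl ℝ E3 := by rw [hF1.φ, h1]
    have hQ1 : M1.Q = fun c : X => Q c.1 := by rw [hF1.Q, h3]
    have hO1 : M1.φ ⁻¹' M1.D0.Om = Om := by
      rw [hφ1, hF1.Om, hOm']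
      rfl
    have himg : Img M1 Om f A lam κ := by
      intro c y hy
      rw [hF1.r, hQ1] at hy
      obtain ⟨h10, h11, h12⟩ := (h8 c y hy).2
      exact ⟨h10, Bx.mem_set.2 fun i => ⟨(h11 i).1.le, (h11 i).2.le⟩, h12⟩
    have hsm : Sm M1 A lam (τ * κ0) := sm_blk bf hκ0 hlp hτ.le hM (fun c v hv => h7 c v (by
      rw [← hF1.r]; exact hv))
    have hq0 : 0 ≤ τ * κ0 := by positivity
    have hcor' : ∀ c ∈ X, CoriE Om f (A c) c.1 (lam c) κ (κ2 / 2 + τ * κ0) := fun c hc y hy => by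
      refine hcor c hc y (hy.imp id fun h k => (h k).trans ?_)
      have hs := Bx.side_pos (bf.pos _ c.2) k
      have hl := hlp c hc
      have hk2 := hKC.k2
      have : (1 / 2 + (κ2 / 2 + τ * κ0)) ≤ 1 / 2 + κ2 := by linarith
      exact mul_le_mul_of_nonneg_right this (by positivity)
    have hκ22 : κ2 / 2 + τ * κ0 ≤ 1 / 4 := by linarith [hKC.k2]
    have hu' : ∀ (c : X), ∀ y y', ‖A c y' - A c y‖ ≤ u * dist ((M1.Q c).ψ y) ((M1.Q c).ψ y') := by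
      intro c y y'
      have h9 := (A c.1).toAffineMap.linearMap_vsub y' y
      rw [vsub_eq_sub, vsub_eq_sub] at h9
      have h10 : A c y' - A c y = (A c).linear (y' - y) := h9.symm
      rw [h10, (hB c.1 c.2).lin_eq, norm_smul, Real.norm_eq_abs, abs_of_pos hu, hQ1, dist_comm,
        dist_eq_norm, ← map_sub]
    have hFin : ∀ y ∈ Om, FineS (fX bf cmp H) f κm (closedBall y (M1.D0.ρ y) ∩
        (Om ∩ offO f (OX X lam La fi x fun c => Rz c / 2))) := by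
      intro y hy
      obtain ⟨-, h10⟩ := hD5 y hy
      refine h10.mono (inter_subset_inter_left _ (closedBall_subset_closedBall ?_))
      have h11 := hF1.ρ y
      rw [h2'] at h11
      exact h11
    obtain ⟨hE, hFx⟩ := b1_gen hLa hδ hR bf cmp H hfi (κ1 := κ) (κ2 := κ2 / 2 + τ * κ0)
      (τ := τ * κ0) (η := κ) (ε := κm) hκp.le hq0 (by linarith [hKC.k2]) hκ22 (by
        have := hKC.k8
        nlinarith) (fun c hc => by
        have h9 := hKC.lam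
        have h10 := hlp c hc
        have h11 := (hlam c hc).2
        have h12 : (κ + τ * κ0) * κ0 ≤ (1 - lam1) / 8 := by nlinarith
        have h13 : (1 + 2 * ((κ + τ * κ0) * κ0)) * lam c ≤ (1 + (1 - lam1) / 4) * lam c :=
          mul_le_mul_of_nonneg_right (by linarith) h10.le
        nlinarith) hcor' M1 hφ1 hO1 (fun c => by rw [hQ1]; exact (hB c.1 c.2).core) himg hsm Y1
      (uA := fun _ => u) (fun _ => hu.le) hu' (fun c => by
        rw [hY1R, hQ1]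
        have h9 := (hB c.1 c.2).cell
        have h10 : (0:ℝ) < M := by exact_mod_cast hM
        have hs := Bx.sz_pos (bf.pos _ c.1.2)
        have hl := hlp c c.2
        have hl1 : lam c < 1 := H.hl1 c.1 c.2
        have h11 : u * ((Bs : ℝ) / 2 ^ (Q c.1).kc) = Bs * (u / 2 ^ (Q c.1).kc) := by ring
        rw [h11]
        calc (Bs : ℝ) * (u / 2 ^ (Q c.1).kc) ≤ Bs * (Cc * (lam c * c.1.1.sz) / M) :=
              mul_le_mul_of_nonneg_left h9 (by linarith)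
          _ = (Bs * Cc) / M * (lam c * c.1.1.sz) := by ring
          _ ≤ κ * (lam c * c.1.1.sz) := by
              refine mul_le_mul_of_nonneg_right ?_ (by positivity)
              rw [div_le_iff₀ h10]
              exact hM0
          _ ≤ κ * c.1.1.sz := by
              refine mul_le_mul_of_nonneg_left ?_ hκp.le
              nlinarith) (by
        have h9 := hKC.KI
        have h10 : Fns_360.KI δ κ0 R (cm κ0 c0) * (κ + 2 * (κ + τ * κ0)) ≤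
            |Fns_360.KI δ κ0 R (cm κ0 c0)| * (5 * κ) := by
          refine mul_le_mul (le_abs_self _) (by linarith) (by positivity) (abs_nonneg _)
        linarith) hFin hkS a hv hct0
    refine ⟨fun c => ?_, hFx⟩
    have h9 := hE c
    have h10 : κ2 / 2 + τ * κ0 - τ * κ0 = κ2 / 2 := by ring
    rw [h10] at h9
    exact exact_mono (by linarith [hKC.m]) h9

end

end Crest.Agent.R096.Eaz_663
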