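import Crest.Agent.R096.EaX1_766
import Crest.Agent.R096.Mbf_337
import Crest.Agent.R096.Mal15_874

/-!
Row 96 (S0127), helper961.  **The literal Prop `EA0 p`** (bounded factor with exact affine cores, `p < 3`,
input = (IN**) of #10071 / #10159 / #10411 (1') / #10516): one core block `Q c` (874's `CB`) per exact
core, inside its brick; the input map `f` (= `f₂`, after 2SK / CHI) is only known on the 1-cells of the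
tiling `(Q c).T (k0 c)` of the block (and their translates), not in energy inside the blocks.
Everything about the block is measured in the coordinates `ψ = (Q c).ψ`, `A.linear = u • ψ`.
Consumers: `BFk p`, `p ≤ 2`.  Definitions only.
Order: structural, `C`, `e`, `lam1`, `κ1`, `M`, `κw`, the net `Nn`, `CA` and `κt`, data.
-/

set_option autoImplicit false
set_option linter.style.longLine false
set_option linter.unusedSectionVars false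

open MeasureTheory Set Filter Topology Metric
open scoped ENNReal NNReal

namespace Crest.Agent.R096.Ea0_961

open Crest.Agent.R096.Bsp_628 Crest.Agent.R096.Brk1_582 Crest.Agent.R096.Brk3_582
open Crest.Agent.R096.Brk5_582
open Crest.Agent.R096.Msh_715 Crest.Agent.R096.Mal_874
open Crest.Agent.R096.SkC1_961 (E3 Hom3 th)
open Crest.Agent.R096.Er_594 (SH3)
open Crest.Agent.R096.EaX_766 (cbx lin Kor)
open Crest.Agent.R096.Bxs_627 (zz)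
open Crest.Agent.R096.Str_696 (LocPL)

noncomputable section

/-- the coordinates of the foam (`Mbf_337.sb` for a bare foam) -/
def sbF (F : Set (Bx (Fin 3))) (y : E3) (c : F) : ℝ := sc (Pc F) (bc (F := F)) y c

/-- **geometry of the core block**: frame in the finite net `Nn`, rational position, bounded shell, core =
`A⁻¹ (box)`, block inside the brick, cells small against `1 / M`, last scale `k0` small against `κt / M` (`κt` after the net),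
and the closed cells on the boundary of the core are the cells of the `M`-grid (as in `Mbf_337.Words`). -/
structure Blk (F : Set (Bx (Fin 3))) (u Cc κ2 κt : ℝ) (Bs : ℕ) (M Nn : ℕ) (c : F) (A : E3 ≃ᵃ[ℝ] E3)
    (lam : ℝ) (Q : CB E3 3) (k0 : ℕ) (hk : Q.kc ≤ k0) : Prop where
  lin_eq : ∀ x : E3, A.linear x = u • Q.ψ x
  net : ∃ (d : ℕ) (B : Fin 3 → Fin 3 → ℤ), 0 < d ∧ d ≤ Nn ∧ (∀ i j, |B i j| ≤ Nn) ∧
    Rt (ContinuousLinearEquiv.refl ℝ E3) Q.ψ B d ∧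
    ∃ κ : ℕ, ∀ m, ∃ z : ℤ, 2 ^ κ * (d : ℝ) * Q.a' m = z
  core : Q.Kc = A ⁻¹' cbx c.1 lam
  hB : ∀ i, ∀ p ∈ Q.S.GG i, ∀ l, |p.1 l| ≤ Bs
  hR : ∀ i, i ≠ Q.S.core → ∀ v ∈ ZP (Q.S.GG i), ∀ w ∈ ZP (Q.S.GG i), ∀ l, |w l - v l| ≤ Bs
  sub : ∀ x ∈ Q.N, A x ∈ cbx c.1 ((1 + κ2) * lam) ∧ A x ∈ cbx c.1 ((1 + lam) / 2)
  cell : u / 2 ^ Q.kc ≤ Cc * (lam * c.1.sz) / M
  cell' : lam * c.1.sz / M ≤ Cc * (u / 2 ^ Q.kc)
  thin : u / 2 ^ k0 ≤ κt * (lam * c.1.sz) / M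
  grid : ∀ x ∈ Q.Kc, x ∉ I ((Q.T k0 hk).H (Q.cix k0 hk)) →
    (Q.T k0 hk).cc x = {y | y ∈ Q.Kc ∧ ∀ a : F,
      (⌊M * sbF F (th A lam (zz c.1 lam) x) a⌋₊ : ℝ) ≤ M * sbF F (th A lam (zz c.1 lam) y) a ∧
      M * sbF F (th A lam (zz c.1 lam) y) a ≤ ⌈M * sbF F (th A lam (zz c.1 lam) x) a⌉₊} ∧
    (Q.T k0 hk).dim x = {a : F | ⌊M * sbF F (th A lam (zz c.1 lam) x) a⌋₊ <
      ⌈M * sbF F (th A lam (zz c.1 lam) x) a⌉₊}.ncard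

/-- the translations of the block -/
def Tw (Q : CB E3 3) (k0 : ℕ) : Set E3 := {w | ∀ l, 0 ≤ Q.ψ w l ∧ Q.ψ w l ≤ 1 / (10 * 2 ^ k0)}

/-- the 1-cells of the tiling of the block, as pairs of end points -/
def Ed (Q : CB E3 3) (k0 : ℕ) (hk : Q.kc ≤ k0) : Set (E3 × E3) :=
  {e | ∃ x, (Q.T k0 hk).dim x = 1 ∧ (Q.T k0 hk).cc x = segment ℝ e.1 e.2 ∧ segment ℝ e.1 e.2 ⊆ Q.N}

/-- the layer at the wall of the block -/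
def Ly (Q : CB E3 3) (k0 : ℕ) : Set E3 :=
  {y | ∃ z ∈ frontier Q.N, ‖Q.ψ y - Q.ψ z‖ ≤ 20 / 2 ^ k0}

/-- a core block (to fill the values of `Q` off `X`) -/
def cb0 : CB E3 3 where
  ψ := ContinuousLinearEquiv.refl ℝ E3
  a' := 0
  kc := 3
  S := { lo := 0, hi := 1, lt := fun _ => by simp, t := 1, t0 := one_pos,
         F := fun σ => PF.triv (fun _ => by simp) σ, one := fun _ _ => rfl }
  w := 11
  hkc := le_rfl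
  hw := by norm_num

/-- **(IN**)**: what is known about `f` near the core block.  `cor` = `C⁰`-closeness `κ1` (`κ1` before
`M`); `gam` = (1'), `C⁰`-closeness near the edges of the core; `tra` = (2a), (2b) for 3/4 of the
translations. -/
structure InS (p : ℝ) (Om : Set E3) (f : E3 → E3) (D : E3 → E3 →L[ℝ] E3) (Cc κ1 κ2 κw : ℝ) (M : ℕ)
    (c : Bx (Fin 3)) (A : E3 ≃ᵃ[ℝ] E3) (lam : ℝ) (er : ℝ≥0∞) (Q : CB E3 3) (k0 : ℕ) (hk : Q.kc ≤ k0) :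
    Prop where
  cor : ∀ x : E3, (x ∈ Om ∧ f x ∈ cbx c lam) ∨ A x ∈ cbx c ((1 + 2 * κ2) * lam) →
    x ∈ Om ∧ ‖f x - A x‖ ≤ κ1 * (lam * c.sz)
  gam : ∀ x ∈ Q.Kc, (Q.T k0 hk).dim x = 1 → ∀ y ∈ (Q.T k0 hk).cc x, ∀ w : E3,
    ‖Q.ψ w‖ ≤ 1 / (10 * 2 ^ k0) → ‖f (y + w) - A (y + w)‖ ≤ κw * (lam * c.sz) / M
  tra : ∃ G : Set E3, volume (Tw Q k0 \ G) ≤ ENNReal.ofReal (1 / 4) * volume (Tw Q k0) ∧
    ∀ w ∈ G, w ∈ Tw Q k0 →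
      (∀ e ∈ Ed Q k0 hk, segment ℝ e.1 e.2 ⊆ Q.Kc →
        ∫⁻ τ in Icc (0:ℝ) 1, ‖D (e.1 + w + τ • (e.2 - e.1)) (e.2 - e.1) - lin A (e.2 - e.1)‖ₑ ≤
          ENNReal.ofReal (κw * ‖lin A (e.2 - e.1)‖)) ∧
      ENNReal.ofReal (‖lin A‖ ^ p / |(lin A).det|) *
        (∑' e : Ed Q k0 hk, ENNReal.ofReal (‖lin A (e.1.2 - e.1.1)‖ ^ (3 - p)) *
          (∫⁻ τ in Icc (0:ℝ) 1, ‖D (e.1.1 + w + τ • (e.1.2 - e.1.1)) (e.1.2 - e.1.1)‖ₑ ^ p)) ≤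
        ENNReal.ofReal (Cc * ‖lin A‖ ^ p) * volume (Q.N \ Q.Kc) + er

/-- **bounded factor with exact cores, `p < 3`, input (IN**).** -/
def EA0 (p : ℝ) : Prop :=
  ∀ (δ κ0 R c0 κ2 Cc : ℝ) (Bs : ℕ), 0 < δ → 1 ≤ κ0 → 1 ≤ R → 0 < c0 → c0 * κ0 ≤ 1 → 0 < κ2 →
    κ2 ≤ 1 / 4 → 1 ≤ Cc → 1 ≤ Bs →
  ∃ C : ℝ≥0, 0 < C ∧ ∀ e : ℝ, 0 < e → ∀ lam1 : ℝ, lam1 < 1 → ∃ κ1 : ℝ, 0 < κ1 ∧ ∃ M0 : ℕ, ∀ M : ℕ, M0 ≤ M →
  ∃ κw : ℝ, 0 < κw ∧ ∀ Nn : ℕ, ∃ (CA : ℝ≥0) (κt : ℝ), 0 < κt ∧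
  ∀ (Om La : Set E3) (f : E3 → E3) (D : E3 → E3 →L[ℝ] E3), IsOpen Om → Bornology.IsBounded Om →
    IsConnected Om → IsOpen La → Bornology.IsBounded La → IsConnected La → SH3 p Om La f D →
  ∀ (u : ℝ), 0 < u →
  ∀ (F : Set (Bx (Fin 3))), BoxFoam La F δ κ0 → Cmp F R →
    (∀ c ∈ F, ∃ S : Set E3, IsCompact S ∧ Convex ℝ S ∧ S ⊆ La ∧
      ∀ c' ∈ F, (c'.set ∩ c.set).Nonempty → c'.set ⊆ interior S) →
  ∀ (X : Set F) (A : F → E3 ≃ᵃ[ℝ] E3) (lam : F → ℝ) (Q : F → CB E3 3) (k0 : F → ℕ)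
    (hk : ∀ c, (Q c).kc ≤ k0 c) (er : F → ℝ≥0∞),
    (∀ c ∈ X, c0 ≤ lam c ∧ lam c ≤ lam1) →
    (∀ c ∈ X, Blk F u Cc κ2 κt Bs M Nn c (A c) (lam c) (Q c) (k0 c) (hk c)) →
    (∀ c ∈ X, InS p Om f D Cc κ1 κ2 κw M c.1 (A c) (lam c) (er c) (Q c) (k0 c) (hk c)) →
  ∀ e' : ℝ≥0∞, 0 < e' →
  ∃ g : E3 → E3, Hom3 g Om La ∧ LocPL g Om ∧
    (∀ x ∈ Om, ∀ c : F, f x ∈ c.1.set → ‖g x - f x‖ ≤ C * c.1.sz) ∧
    (∫⁻ x in Om \ ⋃ c ∈ X, Kor F A lam c, ‖fderiv ℝ g x‖ₑ ^ p) ≤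
      C * (∫⁻ x in Om \ ⋃ c ∈ X, (Q c).N, (1 + ‖D x‖ₑ ^ p)) +
      C * (∑' c : X, (1 + ‖lin (A c)‖ₑ ^ p) * volume ((Q c).N \ Kor F A lam c)) +
      CA * (∑' c : X, ∫⁻ x in Ly (Q c) (k0 c), (1 + ‖D x‖ₑ ^ p)) +
      C * (∑' c : X, er c) +
      ENNReal.ofReal e * (∑' c : X, (1 + ‖lin (A c)‖ₑ ^ p) * volume (Kor F A lam c)) + e' ∧
    ∀ c ∈ X, (∫⁻ x in Kor F A lam c, ‖fderiv ℝ g x - (lam c)⁻¹ • lin (A c)‖ₑ ^ p) ≤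
      ENNReal.ofReal e * (‖lin (A c)‖ₑ ^ p * volume (Kor F A lam c)) +
      C * ((1 + ‖lin (A c)‖ₑ ^ p) * volume ((Q c).N \ Kor F A lam c)) + C * er c +
      CA * (∫⁻ x in Ly (Q c) (k0 c), (1 + ‖D x‖ₑ ^ p))

end

end Crest.Agent.R096.Ea0_961
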