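import Crest.Agent.R096.Mdd3_360
import Crest.Agent.R096.Ea0_961

/-!
Row 96 (S0127), helper360.  MD-DATA, part 6: the mesh data of `EA0` (leaf [E3] of 348 #11167 / [Z1] of
961 #11134): GIVEN blocks `Ea0_961.Blk`, rooms which contain the translations `Tw`.

* `finite_net`, **`exists_K_net`** : bounds for a finite net of frames;
* `cori_of_cor` : `InS.cor` in the form `CoriE`;
* `rooms_of` : `Rooms` from "the thickened blocks are mapped into the open bricks";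
* **`md_blk`** : the mesh data;  **`cor_blk`** : the core statement for every admissible translation.
-/

set_option autoImplicit false
set_option linter.style.longLine false
set_option linter.unusedSectionVars false

open MeasureTheory Set Filter Topology Metric

namespace Crest.Agent.R096.Mdd_360

open Crest.Agent.R096.Bsp_628 Crest.Agent.R096.Brk5_582
open Crest.Agent.R096.SkC1_961 (E3 FoamD Hom3)
open Crest.Agent.R096.EaX_766 (cbx RatA)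
open Crest.Agent.R096.Bxs_627 (ctr CoriE)
open Crest.Agent.R096.Mal_874 Crest.Agent.R096.Msh_810
open Crest.Agent.R096.Fns_360 Crest.Agent.R096.Ea0_961

noncomputable section

/-! ### finite nets of frames -/

/-- a net of frames is finite -/
theorem finite_net (φ : E3 ≃L[ℝ] (Fin 3 → ℝ)) (Nn : ℕ) :
    Set.Finite {ψ : E3 ≃L[ℝ] (Fin 3 → ℝ) | ∃ (B : Fin 3 → Fin 3 → ℤ) (d : ℕ), 0 < d ∧
      d ≤ Nn ∧ (∀ i j, |B i j| ≤ (Nn : ℤ)) ∧ Rt φ ψ B d} := by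
  have h1 : Set.Finite {p : (Fin 3 → Fin 3 → ℤ) × ℕ |
      (∀ i j, |p.1 i j| ≤ (Nn : ℤ)) ∧ p.2 ≤ Nn} := by
    refine Set.Finite.subset (Set.Finite.prod (s := {B : Fin 3 → Fin 3 → ℤ |
      ∀ i j, |B i j| ≤ (Nn : ℤ)}) (t := {d : ℕ | d ≤ Nn}) ?_ (Set.finite_le_nat Nn)) ?_
    · have h2 := Set.finite_Icc (fun _ _ => -(Nn : ℤ) : Fin 3 → Fin 3 → ℤ) (fun _ _ => (Nn : ℤ))
      refine h2.subset fun B hB => ?_
      exact ⟨fun i j => (abs_le.1 (hB i j)).1, fun i j => (abs_le.1 (hB i j)).2⟩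
    · rintro p ⟨hp1, hp2⟩
      exact ⟨hp1, hp2⟩
  refine Set.Finite.subset (h1.biUnion (t := fun p => {ψ : E3 ≃L[ℝ] (Fin 3 → ℝ) |
    0 < p.2 ∧ Rt φ ψ p.1 p.2}) fun p _ => ?_) ?_
  · refine Set.Subsingleton.finite ?_
    rintro ψ ⟨h2, h3⟩ ψ' ⟨-, h4⟩
    exact rt_unique h2 h3 h4
  · rintro ψ ⟨B, d, h2, h3, h4, h5⟩
    exact Set.mem_biUnion (x := (B, d)) ⟨h4, h3⟩ ⟨h2, h5⟩

/-- **one bound for the frames of a finite net and their inverses** -/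
theorem exists_K_net (φ : E3 ≃L[ℝ] (Fin 3 → ℝ)) (Nn : ℕ) : ∃ K : ℝ, 1 ≤ K ∧
    ∀ (ψ : E3 ≃L[ℝ] (Fin 3 → ℝ)) (d : ℕ) (B : Fin 3 → Fin 3 → ℤ), 0 < d → d ≤ Nn →
      (∀ i j, |B i j| ≤ (Nn : ℤ)) → Rt φ ψ B d → ∀ y, ‖ψ y‖ ≤ K * ‖y‖ ∧ ‖y‖ ≤ K * ‖ψ y‖ := by
  obtain ⟨C, hC⟩ := ((finite_net φ Nn).image fun ψ : E3 ≃L[ℝ] (Fin 3 → ℝ) =>
    max ‖(ψ : E3 →L[ℝ] (Fin 3 → ℝ))‖ ‖(ψ.symm : (Fin 3 → ℝ) →L[ℝ] E3)‖).bddAbove
  refine ⟨max 1 C, le_max_left _ _, fun ψ d B h2 h3 h4 h5 y => ?_⟩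
  have h6 : max ‖(ψ : E3 →L[ℝ] (Fin 3 → ℝ))‖ ‖(ψ.symm : (Fin 3 → ℝ) →L[ℝ] E3)‖ ≤ max 1 C :=
    (hC (mem_image_of_mem _ ⟨B, d, h2, h3, h4, h5⟩)).trans (le_max_right _ _)
  constructor
  · refine ((ψ : E3 →L[ℝ] (Fin 3 → ℝ)).le_opNorm y).trans ?_
    exact mul_le_mul_of_nonneg_right ((le_max_left _ _).trans h6) (norm_nonneg _)
  · have h7 := (ψ.symm : (Fin 3 → ℝ) →L[ℝ] E3).le_opNorm (ψ y)
    have e : (ψ.symm : (Fin 3 → ℝ) →L[ℝ] E3) (ψ y) = y := ψ.symm_apply_apply y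
    rw [e] at h7
    exact h7.trans (mul_le_mul_of_nonneg_right ((le_max_right _ _).trans h6) (norm_nonneg _))

/-! ### the core statement -/

/-- `InS.cor` / `ExIn.cor` in the form `CoriE` -/
theorem cori_of_cor {Om : Set E3} {f A : E3 → E3} {Q : Bx (Fin 3)} {lam κ1 κ2 : ℝ}
    (h : ∀ x : E3, (x ∈ Om ∧ f x ∈ cbx Q lam) ∨ A x ∈ cbx Q ((1 + 2 * κ2) * lam) →
      x ∈ Om ∧ ‖f x - A x‖ ≤ κ1 * (lam * Q.sz)) : CoriE Om f A Q lam κ1 κ2 := by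
  rintro x (h1 | h1)
  · exact h x (Or.inl h1)
  · exact h x (Or.inr fun k => (h1 k).trans (le_of_eq (by ring)))

/-- points of the box of ratio `μ` are mapped into the open brick -/
theorem img_open_of {Om : Set E3} {f : E3 → E3} {A : E3 ≃ᵃ[ℝ] E3} {Q : Bx (Fin 3)} (hQ : Q.Pos)
    {κ0 : ℝ} (hasp : ∀ i, Q.sz ≤ κ0 * Q.side i) {lam κ1 κ2 μ : ℝ} (hl : 0 < lam) (hκ1 : 0 ≤ κ1)
    (hμ : μ / 2 + κ1 * κ0 * lam < 1 / 2) (hcor : CoriE Om f A Q lam κ1 κ2) {x : E3}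
    (hx : A x ∈ cbx Q ((1 + 2 * κ2) * lam)) (hx' : A x ∈ cbx Q μ) :
    x ∈ Om ∧ (∀ k, Q.lo k < f x k ∧ f x k < Q.hi k) ∧ ‖f x - A x‖ ≤ κ1 * (lam * Q.sz) := by
  obtain ⟨h1, h2⟩ := hcor x (Or.inr fun k => (hx k).trans (le_of_eq (by ring)))
  refine ⟨h1, fun k => ?_, h2⟩
  have hs := Bx.side_pos hQ k
  have h3 : |f x k - A x k| ≤ κ1 * (lam * (κ0 * Q.side k)) := by
    have h4 : |f x k - A x k| ≤ ‖f x - A x‖ := by
      have := norm_le_pi_norm (f x - A x) k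
      rwa [Real.norm_eq_abs] at this
    refine h4.trans (h2.trans ?_)
    exact mul_le_mul_of_nonneg_left (mul_le_mul_of_nonneg_left (hasp k) hl.le) hκ1
  have h5 := hx' k
  have h6 : (μ / 2 + κ1 * κ0 * lam) * Q.side k < 1 / 2 * Q.side k :=
    mul_lt_mul_of_pos_right hμ hs
  have e1 : ctr Q k = (Q.lo k + Q.hi k) / 2 := rfl
  have e2 : Q.side k = Q.hi k - Q.lo k := rfl
  rw [abs_le] at h3 h5
  rw [e1] at h5
  constructor <;> nlinarith [h3.1, h3.2, h5.1, h5.2]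

/-! ### rooms -/

/-- **rooms**: the thickened blocks are mapped into the open bricks -/
theorem rooms_of {La Om : Set E3} {f : E3 → E3} (hOm : IsOpen Om) (hf : ContinuousOn f Om)
    (hfL : MapsTo f Om La) {F : Set (Bx (Fin 3))} {δ κ0 : ℝ} (bf : BoxFoam La F δ κ0)
    {J : Type*} {b : J → F} (hb : Function.Injective b) {Q : J → CB E3 3} {D0 : Dat 3}
    (hD : D0.Om = Om) {r : J → ℝ} (hr : ∀ j, 0 < r j)
    (himg : ∀ j, ∀ x ∈ cthickening (r j) (Q j).N, x ∈ Om ∧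
      ∀ k, (b j).1.lo k < f x k ∧ f x k < (b j).1.hi k) : Rooms D0 Q r := by
  refine ⟨hr, ?_, ?_, ?_⟩
  · intro j l hjl
    rw [Set.disjoint_left]
    intro x hx hx'
    have hne : (b j).1 ≠ (b l).1 := fun h => hjl (hb (Subtype.ext h))
    obtain ⟨k, hk⟩ := bf.inv.disj (b j).2 (b l).2 (bf.pos _ (b j).2) (bf.pos _ (b l).2) hne
    have h2 := (himg j x hx).2 k
    have h3 := (himg l x hx').2 k
    rcases hk with hk | hk
    · linarith [h2.2, h3.1]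
    · linarith [h2.1, h3.2]
  · intro j
    rw [hD]
    exact fun x hx => (himg j x hx).1
  · intro x hx
    rw [hD] at hx
    obtain ⟨s, hs, hfin⟩ := bf.lf _ (hfL hx)
    have h2 : f ⁻¹' ball (f x) s ∈ 𝓝 x := (hf.continuousAt (hOm.mem_nhds hx)) (ball_mem_nhds _ hs)
    obtain ⟨t, ht, ht'⟩ := Metric.mem_nhds_iff.1 h2
    refine ⟨t, ht, ?_⟩
    have h3 : Set.Finite {j | (b j).1 ∈ {C | C ∈ F ∧ (C.set ∩ ball (f x) s).Nonempty}} :=
      hfin.preimage fun j _ l _ h => hb (Subtype.ext h)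
    refine h3.subset ?_
    rintro j ⟨y, hy1, hy2⟩
    refine ⟨(b j).2, f y, ?_, ht' hy2⟩
    rw [Bx.mem_set]
    intro k
    have := (himg j y hy1).2 k
    exact ⟨this.1.le, this.2.le⟩

/-! ### the mesh data of `EA0` -/

/-- the translations of the block are short -/
theorem tw_le {Q : CB E3 3} {k0 : ℕ} {K : ℝ} (hK0 : 0 ≤ K) (hK : ∀ y, ‖y‖ ≤ K * ‖Q.ψ y‖) {v : E3}
    (hv : v ∈ Tw Q k0) : ‖v‖ ≤ K / (5 * 2 ^ k0) / 2 := by
  have h1 : ‖Q.ψ v‖ ≤ 1 / (10 * 2 ^ k0) := by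
    rw [pi_norm_le_iff_of_nonneg (by positivity)]
    intro l
    rw [Real.norm_eq_abs, abs_of_nonneg (hv l).1]
    exact (hv l).2
  refine (hK v).trans ((mul_le_mul_of_nonneg_left h1 hK0).trans (le_of_eq ?_))
  have hp : (2 : ℝ) ^ k0 ≠ 0 := by positivity
  field_simp
  ring

/-- small vectors in the coordinates of the target -/
theorem lin_small {A : E3 ≃ᵃ[ℝ] E3} {u : ℝ} (hu : 0 ≤ u) {Q : CB E3 3} {k0 : ℕ}
    (hA : ∀ x : E3, A.linear x = u • Q.ψ x) {K : ℝ} (hK0 : 0 ≤ K) (hK : ∀ y, ‖Q.ψ y‖ ≤ K * ‖y‖)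
    {v : E3} (hv : ‖v‖ ≤ K / (5 * 2 ^ k0)) : ‖A.linear v‖ ≤ K ^ 2 / 5 * (u / 2 ^ k0) := by
  rw [hA, norm_smul, Real.norm_eq_abs, abs_of_nonneg hu]
  have h1 := (hK v).trans (mul_le_mul_of_nonneg_left hv hK0)
  refine (mul_le_mul_of_nonneg_left h1 hu).trans (le_of_eq ?_)
  have hp : (2 : ℝ) ^ k0 ≠ 0 := by positivity
  field_simp

variable {La Om : Set E3} {f : E3 → E3} {F : Set (Bx (Fin 3))} {δ κ0 : ℝ}

/-- **the mesh data of `EA0`**: given blocks, rooms `K / (5 * 2 ^ k0)` which contain the translations. -/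
theorem md_blk (hOm : IsOpen Om) (hf : Hom3 f Om La) (bf : BoxFoam La F δ κ0) (hκ0 : 0 ≤ κ0)
    {u Cc κ1 κ2 κt τ lam1 : ℝ} {Bs M Nn : ℕ} (hu : 0 < u) (hM : 0 < M) {X : Set F}
    {A : F → E3 ≃ᵃ[ℝ] E3} {lam : F → ℝ} {Q : F → CB E3 3} {k0 : F → ℕ} {hk : ∀ c, (Q c).kc ≤ k0 c}
    (hl : ∀ c ∈ X, 0 < lam c ∧ lam c ≤ lam1) (hl1 : lam1 ≤ 1) (hκ1 : 0 ≤ κ1) (hτ : 0 < τ)
    (hτ2 : τ * κ0 ≤ κ2 / 2) (hsm : (κ1 + τ) * κ0 < (1 - lam1) / 4)
    (hB : ∀ c ∈ X, Blk F u Cc κ2 κt Bs M Nn c (A c) (lam c) (Q c) (k0 c) (hk c))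
    (hcor : ∀ c ∈ X, CoriE Om f (A c) c.1 (lam c) κ1 κ2) {K : ℝ} (hK1 : 1 ≤ K)
    (hK : ∀ c ∈ X, ∀ y, ‖(Q c).ψ y‖ ≤ K * ‖y‖ ∧ ‖y‖ ≤ K * ‖(Q c).ψ y‖) (hκt : K ^ 2 * κt ≤ 5 * τ)
    {D0 : Dat 3} (hD : D0.Om = Om) (hC : 6 ≤ D0.C) :
    ∃ M' : MD E3 3 X, M'.φ = ContinuousLinearEquiv.refl ℝ E3 ∧ M'.D0 = D0 ∧
      M'.Q = (fun c => Q c.1) ∧ M'.φ ⁻¹' M'.D0.Om = Om ∧
      (∀ c, M'.r c = K / (5 * 2 ^ k0 c.1)) ∧
      (∀ c, ∀ v ∈ Tw (Q c.1) (k0 c.1), ‖v‖ ≤ M'.r c / 2) ∧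
      (∀ (c : X) (v : E3), ‖v‖ ≤ M'.r c → ‖(A c).linear v‖ ≤ τ * (lam c * c.1.1.sz) / M) ∧
      ∀ (c : X), ∀ x ∈ cthickening (M'.r c) (Q c.1).N, A c x ∈ cbx c.1.1 ((1 + 2 * κ2) * lam c) ∧
        x ∈ Om ∧ (∀ k, c.1.1.lo k < f x k ∧ f x k < c.1.1.hi k) ∧
        ‖f x - A c x‖ ≤ κ1 * (lam c * c.1.1.sz) := by
  obtain ⟨-, hfL, -, -, -, hfc, -⟩ := id hf
  have hK0 : 0 ≤ K := by linarith
  have hM' : (1 : ℝ) ≤ M := by exact_mod_cast hM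
  set r : X → ℝ := fun c => K / (5 * 2 ^ k0 c.1) with hr
  have hlin : ∀ (c : X) (v : E3), ‖v‖ ≤ r c → ‖(A c).linear v‖ ≤ τ * (lam c * c.1.1.sz) / M := by
    intro c v hv
    have h1 := lin_small hu.le (hB c c.2).lin_eq hK0 (fun y => (hK c c.2 y).1) hv
    refine h1.trans ?_
    have h2 := (hB c c.2).thin
    have h3 : K ^ 2 / 5 * (u / 2 ^ k0 c.1) ≤ K ^ 2 / 5 * (κt * (lam c * c.1.1.sz) / M) :=
      mul_le_mul_of_nonneg_left h2 (by positivity)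
    refine h3.trans ?_
    have h4 : 0 ≤ lam c * c.1.1.sz := mul_nonneg (hl c c.2).1.le (Bx.sz_pos (bf.pos _ c.1.2)).le
    have e : K ^ 2 / 5 * (κt * (lam c * c.1.1.sz) / M) = (K ^ 2 * κt / 5) * (lam c * c.1.1.sz) / M := by
      ring
    rw [e]
    have h5 : K ^ 2 * κt / 5 ≤ τ := by linarith
    gcongr
  have hthick : ∀ (c : X), ∀ x ∈ cthickening (r c) (Q c.1).N,
      A c x ∈ cbx c.1.1 ((1 + 2 * κ2) * lam c) ∧
      x ∈ Om ∧ (∀ k, c.1.1.lo k < f x k ∧ f x k < c.1.1.hi k) ∧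
      ‖f x - A c x‖ ≤ κ1 * (lam c * c.1.1.sz) := by
    intro c x hx
    have hr0 : 0 ≤ r c := by positivity
    rw [(Q c.1).isCompact_N.cthickening_eq_biUnion_closedBall hr0] at hx
    simp only [Set.mem_iUnion, mem_closedBall] at hx
    obtain ⟨y, hy, hxy⟩ := hx
    rw [dist_eq_norm] at hxy
    have h1 := hlin c (x - y) hxy
    obtain ⟨h2, h3⟩ := (hB c c.2).sub y hy
    have hlc := (hl c c.2).1
    have hsz := Bx.sz_pos (bf.pos _ c.1.2)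
    have h4 : ∀ k, |A c x k - A c y k| ≤ τ * κ0 * (lam c * c.1.1.side k) := by
      intro k
      have h5 : |A c x k - A c y k| ≤ ‖(A c).linear (x - y)‖ := by
        rw [lin_dif]
        have := norm_le_pi_norm (A c x - A c y) k
        rwa [Real.norm_eq_abs] at this
      refine h5.trans (h1.trans ?_)
      have h6 : τ * (lam c * c.1.1.sz) / M ≤ τ * (lam c * c.1.1.sz) :=
        div_le_self (by positivity) hM'
      refine h6.trans ?_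
      have h7 := bf.asp _ c.1.2 k
      have h8 : τ * (lam c * c.1.1.sz) ≤ τ * (lam c * (κ0 * c.1.1.side k)) := by gcongr
      linarith
    have hs : ∀ k, 0 < c.1.1.side k := fun k => Bx.side_pos (bf.pos _ c.1.2) k
    have hx1 : A c x ∈ cbx c.1.1 ((1 + 2 * κ2) * lam c) := by
      intro k
      have h9 := h2 k
      have h10 := h4 k
      have e : A c x k - ctr c.1.1 k = (A c x k - A c y k) + (A c y k - ctr c.1.1 k) := by ring
      rw [e]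
      refine (abs_add_le _ _).trans ?_
      have h11 : τ * κ0 * (lam c * c.1.1.side k) ≤ κ2 / 2 * (lam c * c.1.1.side k) :=
        mul_le_mul_of_nonneg_right hτ2 (mul_pos hlc (hs k)).le
      linarith
    have hx2 : A c x ∈ cbx c.1.1 ((1 + lam c) / 2 + 2 * (τ * κ0 * lam c)) := by
      intro k
      have h9 := h3 k
      have h10 := h4 k
      have e : A c x k - ctr c.1.1 k = (A c x k - A c y k) + (A c y k - ctr c.1.1 k) := by ring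
      rw [e]
      refine (abs_add_le _ _).trans ?_
      linarith
    refine ⟨hx1, img_open_of (bf.pos _ c.1.2) (bf.asp _ c.1.2) hlc hκ1 ?_ (hcor c c.2) hx1 hx2⟩
    have h12 := (hl c c.2).2
    have h13 : (κ1 + τ) * κ0 * lam c ≤ (κ1 + τ) * κ0 :=
      mul_le_of_le_one_right (by positivity) (h12.trans hl1)
    nlinarith
  have hrooms : Rooms D0 (fun c : X => Q c.1) r :=
    rooms_of hOm hfc hfL bf (b := fun c : X => c.1) Subtype.val_injective hD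
      (fun c => by
        have : 0 < K := by linarith
        positivity) fun c x hx => ⟨(hthick c x hx).2.1, (hthick c x hx).2.2.1⟩
  refine ⟨mdR D0 hC (fun c : X => Q c.1) r hrooms, rfl, rfl, rfl, ?_, fun _ => rfl,
    fun c v hv => tw_le hK0 (fun y => (hK c c.2 y).2) hv, hlin, hthick⟩
  ext x
  rw [mem_preimage, ← hD]
  rfl

/-- **the core statement for the translated cores** -/
theorem cor_blk (bf : BoxFoam La F δ κ0) {κ1 κ2 τ : ℝ} {M : ℕ} (hM : 0 < M) (hτ : 0 ≤ τ)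
    (hκ0 : 1 ≤ κ0) {c : F} {A : E3 ≃ᵃ[ℝ] E3} {lam : ℝ} (hl : 0 < lam)
    (hcor : CoriE Om f A c.1 lam κ1 κ2) {v : E3}
    (hv : ‖A.linear v‖ ≤ τ * (lam * c.1.sz) / M) :
    CoriE Om f (trA A v) c.1 lam (κ1 + τ * κ0) (κ2 - τ * κ0) := by
  have hM' : (1 : ℝ) ≤ M := by exact_mod_cast hM
  have hsz := Bx.sz_pos (bf.pos _ c.2)
  have h1 : ‖A.linear v‖ ≤ τ * (lam * c.1.sz) := hv.trans (div_le_self (by positivity) hM')
  refine cor_tr hcor ⟨h1.trans ?_, fun k => ?_⟩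
  · have h2 : τ * (lam * c.1.sz) ≤ τ * κ0 * (lam * c.1.sz) := by
      have : τ ≤ τ * κ0 := le_mul_of_one_le_right hτ hκ0
      gcongr
    exact h2
  · have h0 : |A.linear v k| ≤ ‖A.linear v‖ := by
      have := norm_le_pi_norm (A.linear v) k
      rwa [Real.norm_eq_abs] at this
    refine h0.trans (h1.trans ?_)
    have h7 := bf.asp _ c.2 k
    have h8 : τ * (lam * c.1.sz) ≤ τ * (lam * (κ0 * c.1.side k)) := by gcongr
    linarith

end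

end Crest.Agent.R096.Mdd_360
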