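import Crest.Agent.R096.Ez4_748
import Crest.Agent.R096.Mdd6_360
import Crest.Agent.R096.Pmc4_112

/-!
# Row 96, EA0 [Z4] / [E7] and EaX (D4-FINE): means of the fine classes, final forms

`far0`: unscaled form (constant = condition number of the frame), any set of shifts `B ⊆ Bt Q r` with
`volume (Bt Q r) ≤ cB * volume B`; `far0_Tw`: `B = Tw Q k0`; `far0_S`: 874's small box.
`far_A`: A-form (365), `B = Wt A ρ`, universal constant `K3`.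
-/

set_option autoImplicit false
set_option linter.unusedSectionVars false
set_option linter.unusedVariables false
set_option linter.style.longLine false

open MeasureTheory Set Filter Metric
open scoped Topology ENNReal NNReal

namespace Crest.Agent.R096.Ez4_748

open Crest.Agent.R096.Msh_715 Crest.Agent.R096.Msh_810 Crest.Agent.R096.Mal_874
open Crest.Agent.R096.SkC1_961 (E3)
open Crest.Agent.R96.Wm3_748 Crest.Agent.R96.Wm4_748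
open Crest.Agent.R096.Mfa_880 (PT)
open Crest.Agent.R096.Mfi_290
open Crest.Agent.R096.EaX_766 (lin)
open Crest.Agent.R096.Exa_365 (Wt)
open Crest.Agent.R096.Pmc_112 (Gd')
open Crest.Agent.R096.Bsp_628 Crest.Agent.R096.Brk1_582 Crest.Agent.R096.Brk3_582 Crest.Agent.R096.Brk5_582

noncomputable section

/-! ### sets of shifts -/

/-- 874's set of translations (half open box of side `h`) -/
def TwS (Q : CB E3 3) (h : ℝ) : Set E3 := {v | ∀ l, 0 ≤ Q.ψ v l ∧ Q.ψ v l < h}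

theorem TwS_sub (Q : CB E3 3) (h : ℝ) : TwS Q h ⊆ Bt Q h :=
  fun _ hv => ⟨fun l => (hv l).1, fun l => (hv l).2.le⟩

theorem volume_TwS (Q : CB E3 3) (h : ℝ) : volume (TwS Q h) = volume (Bt Q h) := by
  obtain ⟨c, -, hc⟩ := exists_cst (μ := (volume : Measure E3)) Q.ψ
  have e : TwS Q h = Q.ψ ⁻¹' (univ.pi fun _ => Ico 0 h) := by
    ext v
    simp only [TwS, mem_ofPred_eq, mem_preimage, mem_univ_pi, mem_Ico]
  rw [e, Bt, hc _ (MeasurableSet.univ_pi fun _ => measurableSet_Ico), hc _ measurableSet_Icc,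
    Real.volume_Icc_pi, Real.volume_pi_Ico]
  simp

/-! ### unscaled form -/

/-- the constant of the unscaled form (`K` bounds the frame and its inverse) -/
def CF (K p t : ℝ) : ℝ≥0∞ :=
  ((nE : ℝ≥0∞) * (2 * ENNReal.ofReal K)) ^ p * (181 * ENNReal.ofReal ((2 * (1 + t)) ^ 3)) *
    ENNReal.ofReal K ^ p

theorem CF_ne_top {K p t : ℝ} (hp : 0 ≤ p) : CF K p t ≠ ∞ := by
  unfold CF
  refine ENNReal.mul_ne_top (ENNReal.mul_ne_top (ENNReal.rpow_ne_top_of_nonneg hp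
    (ENNReal.mul_ne_top (ENNReal.natCast_ne_top _) (ENNReal.mul_ne_top (by simp)
      ENNReal.ofReal_ne_top))) (ENNReal.mul_ne_top (by simp) ENNReal.ofReal_ne_top))
    (ENNReal.rpow_ne_top_of_nonneg hp ENNReal.ofReal_ne_top)

section far

variable {J : Type} (M : MD E3 3 J) (X : RD M) (j : J) (k0 : ℕ) (hk0 : (M.Q j).kc ≤ k0)

theorem bd_frame {ψ : E3 ≃L[ℝ] (Fin 3 → ℝ)} {K : ℝ} (hK0 : 0 ≤ K)
    (hK : ∀ y, ‖ψ y‖ ≤ K * ‖y‖ ∧ ‖y‖ ≤ K * ‖ψ y‖) :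
    ‖(ψ : E3 →L[ℝ] (Fin 3 → ℝ))‖ₑ ≤ ENNReal.ofReal K ∧
      ‖(ψ.symm : (Fin 3 → ℝ) →L[ℝ] E3)‖ₑ ≤ ENNReal.ofReal K := by
  constructor
  · rw [← ofReal_norm]
    exact ENNReal.ofReal_le_ofReal (ContinuousLinearMap.opNorm_le_bound _ hK0 fun y => (hK y).1)
  · rw [← ofReal_norm]
    refine ENNReal.ofReal_le_ofReal (ContinuousLinearMap.opNorm_le_bound _ hK0 fun y => ?_)
    have h := (hK (ψ.symm y)).2
    rw [ContinuousLinearEquiv.apply_symm_apply] at h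
    exact h

/-- **FINE CLASSES, UNSCALED FORM** ([Z4] / [E7] of EA0), weights `w m ≤ Cw` -/
theorem far0 (hlt : (M.Q j).kc < k0) {𝒦 : Set (Set E3)} {U : Set E3} (h𝒦 : 𝒦.Countable)
    (hU : U.Countable) {D' : E3 → E3 →L[ℝ] E3} (hD : ∀ w, Measurable fun z => D' z w)
    {r t : ℝ} (hr : 0 ≤ r) (ht : 0 ≤ t) (htr : 1 / 2 ^ k0 ≤ t * r)
    {K : ℝ} (hK0 : 0 ≤ K) (hK : ∀ y, ‖(M.Q j).ψ y‖ ≤ K * ‖y‖ ∧ ‖y‖ ≤ K * ‖(M.Q j).ψ y‖)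
    {S : Set E3} (hS : MeasurableSet S) (hSL : Lyr (M.Q j) (15 / 2 ^ k0 + r) ⊆ S)
    {B : Set E3} (hB : B ⊆ Bt (M.Q j) r) {cB : ℝ≥0∞} (hBv : volume (Bt (M.Q j) r) ≤ cB * volume B)
    {w : ℕ → ℝ≥0∞} {Cw : ℝ≥0∞} (hw : ∀ m, w m ≤ Cw) (hCw : Cw ≠ ∞) {p : ℝ} (hp : 1 ≤ p) :
    ∫⁻ v in B, ∑' m : ℕ, w m * ((QI M X j k0 hk0).toPT 𝒦 U h𝒦 hU).EnC (Gd' D') p (Sum.inr m) v ≤
      Cw * cB * CF K p t * (∫⁻ z in S, ‖D' z‖ₑ ^ p) * volume B := by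
  have hp0 : 0 ≤ p := by linarith
  obtain ⟨b1, b2⟩ := bd_frame hK0 hK
  set R : PT J := (QI M X j k0 hk0).toPT 𝒦 U h𝒦 hU with hR
  have e1 : ∫⁻ v in B, ∑' m : ℕ, w m * R.EnC (Gd' D') p (Sum.inr m) v ≤
      Cw * ∫⁻ v in Bt (M.Q j) r, ∑' m : ℕ, R.EnC (Gd' D') p (Sum.inr m) v := by
    refine (lintegral_mono_set hB).trans ?_
    rw [← lintegral_const_mul' _ _ hCw]
    refine lintegral_mono fun v => ?_
    rw [← ENNReal.tsum_mul_left]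
    exact ENNReal.tsum_le_tsum fun m => mul_le_mul' (hw m) le_rfl
  refine e1.trans ?_
  have e2 := fine_mean M X j k0 hk0 hlt (𝒦 := 𝒦) (U := U) h𝒦 hU hD hr hS hSL hp
  have e3 : ∫⁻ z in S, ‖(D' z).comp ((M.Q j).ψ.symm : (Fin 3 → ℝ) →L[ℝ] E3)‖ₑ ^ p ≤
      ENNReal.ofReal K ^ p * ∫⁻ z in S, ‖D' z‖ₑ ^ p := by
    rw [← lintegral_const_mul' _ _ (ENNReal.rpow_ne_top_of_nonneg hp0 ENNReal.ofReal_ne_top)]
    refine lintegral_mono fun z => ?_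
    rw [← ENNReal.mul_rpow_of_nonneg _ _ hp0]
    refine ENNReal.rpow_le_rpow ?_ hp0
    rw [mul_comm]
    exact (ContinuousLinearMap.opENorm_comp_le _ _).trans (mul_le_mul' le_rfl b2)
  have e4 : volume ((M.Q j).ψ ⁻¹' closedBall 0 (r + 1 / 2 ^ k0)) ≤
      ENNReal.ofReal ((2 * (1 + t)) ^ 3) * volume (Bt (M.Q j) r) :=
    ball_cube (μ := (volume : Measure E3)) (M.Q j).ψ hr ht htr
  have e5 : ENNReal.ofReal (2 * 1) = 2 := by simp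
  calc Cw * ∫⁻ v in Bt (M.Q j) r, ∑' m : ℕ, R.EnC (Gd' D') p (Sum.inr m) v
      ≤ Cw * (((nE : ℝ≥0∞) * (2 * ENNReal.ofReal K)) ^ p *
          (181 * (ENNReal.ofReal ((2 * (1 + t)) ^ 3) * (cB * volume B))) *
          (ENNReal.ofReal K ^ p * ∫⁻ z in S, ‖D' z‖ₑ ^ p)) := by
        refine mul_le_mul' le_rfl (e2.trans ?_)
        rw [e5]
        refine mul_le_mul' (mul_le_mul' (ENNReal.rpow_le_rpow ?_ hp0) ?_) e3
        · exact mul_le_mul' le_rfl (mul_le_mul' le_rfl b1)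
        · exact mul_le_mul' le_rfl (e4.trans (mul_le_mul' le_rfl hBv))
    _ = _ := by
        unfold CF
        ring

/-- `B = Tw Q k0` of `EA0` -/
theorem far0_Tw (hlt : (M.Q j).kc < k0) {𝒦 : Set (Set E3)} {U : Set E3} (h𝒦 : 𝒦.Countable)
    (hU : U.Countable) {D' : E3 → E3 →L[ℝ] E3} (hD : ∀ w, Measurable fun z => D' z w)
    {K : ℝ} (hK0 : 0 ≤ K) (hK : ∀ y, ‖(M.Q j).ψ y‖ ≤ K * ‖y‖ ∧ ‖y‖ ≤ K * ‖(M.Q j).ψ y‖)
    {w : ℕ → ℝ≥0∞} {Cw : ℝ≥0∞} (hw : ∀ m, w m ≤ Cw) (hCw : Cw ≠ ∞) {p : ℝ} (hp : 1 ≤ p) :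
    ∫⁻ v in Ea0_961.Tw (M.Q j) k0, ∑' m : ℕ,
        w m * ((QI M X j k0 hk0).toPT 𝒦 U h𝒦 hU).EnC (Gd' D') p (Sum.inr m) v ≤
      Cw * CF K p 10 * (∫⁻ z in Ea0_961.Ly (M.Q j) k0, ‖D' z‖ₑ ^ p) *
        volume (Ea0_961.Tw (M.Q j) k0) := by
  have h2 : (0 : ℝ) < 2 ^ k0 := by positivity
  have h := far0 M X j k0 hk0 hlt h𝒦 hU hD (r := 1 / (10 * 2 ^ k0)) (t := 10) (by positivity)
    (by norm_num) (le_of_eq (by field_simp)) hK0 hK (measurableSet_Ly (M.Q j) k0)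
    (Lyr_sub_Ly (M.Q j) k0 (by
      have : (1 : ℝ) / (10 * 2 ^ k0) = (1 / 10) / 2 ^ k0 := by field_simp
      rw [this, ← add_div]
      gcongr
      norm_num))
    (B := Ea0_961.Tw (M.Q j) k0) (Tw_eq_Bt (M.Q j) k0).le (cB := 1)
    (by rw [one_mul, Tw_eq_Bt]) hw hCw hp
  rwa [mul_one] at h

/-- `B` = 874's half open box of side `r = 1 / (10 * 2 ^ k0 * L)`; `S` = a layer of the original block -/
theorem far0_S (hlt : (M.Q j).kc < k0) {𝒦 : Set (Set E3)} {U : Set E3} (h𝒦 : 𝒦.Countable)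
    (hU : U.Countable) {D' : E3 → E3 →L[ℝ] E3} (hD : ∀ w, Measurable fun z => D' z w)
    {K : ℝ} (hK0 : 0 ≤ K) (hK : ∀ y, ‖(M.Q j).ψ y‖ ≤ K * ‖y‖ ∧ ‖y‖ ≤ K * ‖(M.Q j).ψ y‖)
    {L : ℝ} (hL : 1 ≤ L) {S : Set E3} (hS : MeasurableSet S)
    (hSL : ∀ y, infDist ((M.Q j).ψ y) (M.Q j).W ≤ 19 / 2 ^ k0 → y ∈ S)
    {w : ℕ → ℝ≥0∞} {Cw : ℝ≥0∞} (hw : ∀ m, w m ≤ Cw) (hCw : Cw ≠ ∞) {p : ℝ} (hp : 1 ≤ p) :
    ∫⁻ v in TwS (M.Q j) (1 / (10 * 2 ^ k0 * L)), ∑' m : ℕ,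
        w m * ((QI M X j k0 hk0).toPT 𝒦 U h𝒦 hU).EnC (Gd' D') p (Sum.inr m) v ≤
      Cw * CF K p (10 * L) * (∫⁻ z in S, ‖D' z‖ₑ ^ p) *
        volume (TwS (M.Q j) (1 / (10 * 2 ^ k0 * L))) := by
  have h2 : (0 : ℝ) < 2 ^ k0 := by positivity
  have hL0 : 0 < L := by linarith
  have hr1 : 1 / (10 * 2 ^ k0 * L) ≤ 4 / 2 ^ k0 := by
    rw [div_le_div_iff₀ (by positivity) h2]
    nlinarith [mul_le_mul_of_nonneg_left hL h2.le]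
  have h := far0 M X j k0 hk0 hlt h𝒦 hU hD (r := 1 / (10 * 2 ^ k0 * L)) (t := 10 * L)
    (by positivity) (by positivity) (le_of_eq (by field_simp)) hK0 hK hS
    (fun y hy => hSL y (le_trans (show infDist ((M.Q j).ψ y) (M.Q j).W ≤
      15 / 2 ^ k0 + 1 / (10 * 2 ^ k0 * L) from hy) (by
        calc (15 : ℝ) / 2 ^ k0 + 1 / (10 * 2 ^ k0 * L) ≤ 15 / 2 ^ k0 + 4 / 2 ^ k0 := by linarith
          _ = _ := by rw [← add_div]; norm_num)))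
    (B := TwS (M.Q j) (1 / (10 * 2 ^ k0 * L))) (TwS_sub (M.Q j) _) (cB := 1)
    (by rw [one_mul, volume_TwS]) hw hCw hp
  rwa [mul_one] at h

/-- from `D'` to `D` -/
theorem int_D' {D D' : E3 → E3 →L[ℝ] E3} {S : Set E3} (hS : MeasurableSet S) {k : ℝ} {p : ℝ}
    (hp : 0 ≤ p) (h : ∀ᵐ x, x ∈ S → ∀ v, ‖D' x v‖ ≤ k * ‖D x v‖) :
    ∫⁻ z in S, ‖D' z‖ₑ ^ p ≤ ENNReal.ofReal k ^ p * ∫⁻ z in S, ‖D z‖ₑ ^ p := by
  rw [← lintegral_const_mul' _ _ (ENNReal.rpow_ne_top_of_nonneg hp ENNReal.ofReal_ne_top)]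
  refine setLIntegral_mono_ae' hS ?_
  filter_upwards [h] with x hx hxS
  rw [← ENNReal.mul_rpow_of_nonneg _ _ hp]
  refine ENNReal.rpow_le_rpow ?_ hp
  by_cases hk : 0 ≤ k
  · rw [← ofReal_norm, ← ofReal_norm, ← ENNReal.ofReal_mul hk]
    refine ENNReal.ofReal_le_ofReal
      (ContinuousLinearMap.opNorm_le_bound _ (by positivity) fun v => ?_)
    refine (hx hxS v).trans ?_
    rw [mul_assoc]
    exact mul_le_mul_of_nonneg_left ((D x).le_opNorm v) hk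
  · have h0 : D' x = 0 := by
      ext1 v
      have h1 := hx hxS v
      have h2 : k * ‖D x v‖ ≤ 0 := mul_nonpos_of_nonpos_of_nonneg (by linarith) (norm_nonneg _)
      have h3 : ‖D' x v‖ = 0 := le_antisymm (h1.trans h2) (norm_nonneg _)
      rw [norm_eq_zero.1 h3]
      rfl
    have h1 : ‖(0 : E3 →L[ℝ] E3)‖ₑ = 0 := by
      rw [← ofReal_norm, norm_zero, ENNReal.ofReal_zero]
    rw [h0, h1]
    exact bot_le

/-- `kc < k0` from `thin` and `cell'` of `EA0` when `κt * Cc < 1` -/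
theorem kc_lt {F : Set (Bx (Fin 3))} {u Cc κ2 κt : ℝ} {Bs M Nn : ℕ} {c : F} {A : E3 ≃ᵃ[ℝ] E3}
    {lam : ℝ} {Q : CB E3 3} {k0 : ℕ} {hk : Q.kc ≤ k0}
    (h : Ea0_961.Blk F u Cc κ2 κt Bs M Nn c A lam Q k0 hk) (hu : 0 < u) (hκ : 0 ≤ κt)
    (hc : κt * Cc < 1) : Q.kc < k0 := by
  rcases hk.lt_or_eq with h1 | h1
  · exact h1
  · exfalso
    have h2 := h.thin
    have h3 := h.cell'
    rw [← h1] at h2
    set T := u / 2 ^ Q.kc with hT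
    have hT0 : 0 < T := by positivity
    have e : κt * (lam * c.1.sz) / M = κt * (lam * c.1.sz / M) := by ring
    rw [e] at h2
    have h4 : T ≤ κt * (Cc * T) := h2.trans (mul_le_mul_of_nonneg_left h3 hκ)
    nlinarith

/-! ### A-form -/

/-- **FINE CLASSES, A-FORM** (D4-FINE of EaX; `k0 > kc`; `s` = scale of the core): mean over `Wt A ρ` -/
theorem far_A (hlt : (M.Q j).kc < k0) {𝒦 : Set (Set E3)} {U : Set E3} (h𝒦 : 𝒦.Countable)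
    (hU : U.Countable) {A : E3 ≃ᵃ[ℝ] E3} {s : ℝ} (hs : 0 < s)
    (hψ : ∀ y, (M.Q j).ψ y = s⁻¹ • lin A y)
    {D' : E3 → E3 →L[ℝ] E3} (hD : ∀ w, Measurable fun z => D' z w) {ρ t : ℝ} (hρ : 0 ≤ ρ)
    (ht : 0 ≤ t) (hl : s * (1 / 2 ^ k0) ≤ t * ρ)
    {S : Set E3} (hS : MeasurableSet S) (hSL : Lyr (M.Q j) (15 / 2 ^ k0 + ρ / s) ⊆ S)
    {w : ℕ → ℝ≥0∞} {Cw : ℝ≥0∞} (hw : ∀ m, w m ≤ Cw) (hCw : Cw ≠ ∞) {p : ℝ} (hp : 1 ≤ p) :
    ∫⁻ v in Wt A ρ, ∑' m : ℕ,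
        w m * ((QI M X j k0 hk0).toPT 𝒦 U h𝒦 hU).EnC (Gd' D') p (Sum.inr m) v ≤
      (Cw * K3 p nE 2 1 t 181 * (‖lin A‖ₑ ^ p * ∫⁻ z in S, ‖(D' z).comp (lin A.symm)‖ₑ ^ p)) *
        volume (Wt A ρ) := by
  have hp0 : 0 ≤ p := by linarith
  have hW : Wt A ρ = Bt (M.Q j) (ρ / s) := Wt_eq hs hψ ρ
  set R : PT J := (QI M X j k0 hk0).toPT 𝒦 U h𝒦 hU with hR
  have e1 : ∫⁻ v in Wt A ρ, ∑' m : ℕ, w m * R.EnC (Gd' D') p (Sum.inr m) v ≤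
      Cw * ∫⁻ v in Wt A ρ, ∑' m : ℕ, R.EnC (Gd' D') p (Sum.inr m) v := by
    rw [← lintegral_const_mul' _ _ hCw]
    refine lintegral_mono fun v => ?_
    rw [← ENNReal.tsum_mul_left]
    exact ENNReal.tsum_le_tsum fun m => mul_le_mul' (hw m) le_rfl
  refine e1.trans ?_
  have e2 := fine_mean M X j k0 hk0 hlt (𝒦 := 𝒦) (U := U) h𝒦 hU hD (r := ρ / s) (by positivity)
    hS hSL hp
  rw [← hW] at e2
  have e4 : volume ((M.Q j).ψ ⁻¹' closedBall 0 (ρ / s + 1 / 2 ^ k0)) ≤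
      ENNReal.ofReal ((2 * (1 + t)) ^ 3) * volume (Wt A ρ) := by
    rw [hW]
    refine ball_cube (μ := (volume : Measure E3)) (M.Q j).ψ (by positivity) ht ?_
    rw [← mul_div_assoc, le_div_iff₀' hs]
    exact hl
  have hs1 : ‖s⁻¹‖ₑ * ‖s‖ₑ = 1 := by
    rw [← enorm_mul, inv_mul_cancel₀ hs.ne', enorm_one]
  have h2 : ∫⁻ z in S, ‖(D' z).comp ((M.Q j).ψ.symm : (Fin 3 → ℝ) →L[ℝ] E3)‖ₑ ^ p =
      ‖s‖ₑ ^ p * ∫⁻ z in S, ‖(D' z).comp (lin A.symm)‖ₑ ^ p := by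
    rw [← lintegral_const_mul' _ _ (ENNReal.rpow_ne_top_of_nonneg hp0 enorm_ne_top)]
    refine lintegral_congr fun z => ?_
    rw [enorm_comp hs hψ, ENNReal.mul_rpow_of_nonneg _ _ hp0]
  rw [h2, enorm_psi hψ] at e2
  set N := ‖lin A‖ₑ
  set I := ∫⁻ z in S, ‖(D' z).comp (lin A.symm)‖ₑ ^ p
  calc Cw * ∫⁻ v in Wt A ρ, ∑' m : ℕ, R.EnC (Gd' D') p (Sum.inr m) v
      ≤ Cw * (((nE : ℝ≥0∞) * (ENNReal.ofReal (2 * 1) * (‖s⁻¹‖ₑ * N))) ^ p *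
        (181 * (ENNReal.ofReal ((2 * (1 + t)) ^ 3) * volume (Wt A ρ))) * (‖s‖ₑ ^ p * I)) := by
        refine mul_le_mul' le_rfl (e2.trans ?_)
        exact mul_le_mul' (mul_le_mul' le_rfl (mul_le_mul' le_rfl e4)) le_rfl
    _ = Cw * ((((nE : ℝ≥0∞) * (ENNReal.ofReal (2 * 1) * (‖s⁻¹‖ₑ * N))) * ‖s‖ₑ) ^ p *
        (181 * (ENNReal.ofReal ((2 * (1 + t)) ^ 3) * volume (Wt A ρ))) * I) := by
        rw [ENNReal.mul_rpow_of_nonneg _ ‖s‖ₑ hp0]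
        ring
    _ = Cw * ((((nE : ℝ≥0∞) * ENNReal.ofReal (2 * 1)) * N) ^ p *
        (181 * (ENNReal.ofReal ((2 * (1 + t)) ^ 3) * volume (Wt A ρ))) * I) := by
        congr 4
        calc (nE : ℝ≥0∞) * (ENNReal.ofReal (2 * 1) * (‖s⁻¹‖ₑ * N)) * ‖s‖ₑ
            = (nE : ℝ≥0∞) * ENNReal.ofReal (2 * 1) * N * (‖s⁻¹‖ₑ * ‖s‖ₑ) := by ring
          _ = _ := by rw [hs1, mul_one]
    _ = _ := by
        rw [ENNReal.mul_rpow_of_nonneg _ N hp0]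
        unfold K3
        ring

end far

end

end Crest.Agent.R096.Ez4_748
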