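import Crest.Agent.R96.EaP3_899
import Crest.Agent.R096.Exa1_365
import Crest.Agent.R096.Pmc4_112

/-!
# Row 96 (S0127), helper746.  EA-D, part 1: **`ea_push_dir`**

899's `ea_push` with ONE measurable map `D' : E3 → E3 →L[ℝ] E3`, zero off `OmH`, and with the
**directional** bound `‖D' x v‖ ≤ KQ ‖D x v‖`.
-/

set_option autoImplicit false
set_option linter.unusedSectionVars false
set_option linter.unusedVariables false
set_option linter.style.longLine false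

open MeasureTheory Set Filter Topology
open scoped NNReal ENNReal

noncomputable section

namespace Crest.Agent.R096.Eds_746

open Crest.Agent.R096.Bsp_628 Crest.Agent.R096.Brk5_582 Crest.Agent.R096.SkC1_961
open Crest.Agent.R096.Bxs_627 hiding E3
open Crest.Agent.R96.Push_899 Crest.Agent.R096.EaX_766 Crest.Agent.R96.EaP_899
open Crest.Agent.R096.Msh_715
open Crest.Agent.R096.Er_594 (SH3)
open Crest.Agent.R096.Der_764 (OmH isOpen_OmH)
open Crest.Agent.R96.Acl_392 Crest.Agent.R96.Sob2_199 Crest.Agent.R96.Sob4_199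
  Crest.Agent.R96.Sob5_199 Crest.Agent.R96.En10_199
open Crest.Agent.R96.Sg5_199 (gdir wd_dir)
open Crest.Agent.R96.Sg1_199 (li sgm)
open Crest.Agent.R096.Pmc_112 (Gd')
open Crest.AnalysisR.VecCalc3 (R3)

/-! ### the linear map with given columns -/

/-- the linear map with the columns `w l x` -/
def colD (w : Fin 3 → E3 → E3) (x : E3) : E3 →L[ℝ] E3 :=
  ∑ l, (ContinuousLinearMap.proj (R := ℝ) (φ := fun _ : Fin 3 => ℝ) l).smulRight (w l x)

theorem colD_apply (w : Fin 3 → E3 → E3) (x v : E3) : colD w x v = ∑ l, v l • w l x := by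
  unfold colD
  rw [ContinuousLinearMap.sum_apply]
  rfl

theorem colD_single (w : Fin 3 → E3 → E3) (x : E3) (l : Fin 3) :
    colD w x (Pi.single l 1) = w l x := by
  rw [colD_apply, Finset.sum_eq_single l]
  · simp
  · intro b _ hb
    rw [Pi.single_eq_of_ne hb, zero_smul]
  · intro h; exact absurd (Finset.mem_univ l) h

theorem stronglyMeasurable_colD {w : Fin 3 → E3 → E3} (hw : ∀ l, StronglyMeasurable (w l)) :
    StronglyMeasurable (colD w) := by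
  unfold colD
  refine Finset.stronglyMeasurable_fun_sum _ fun l _ => ?_
  exact (ContinuousLinearMap.smulRightL ℝ E3 E3
    (ContinuousLinearMap.proj (R := ℝ) (φ := fun _ : Fin 3 => ℝ) l)).continuous.comp_stronglyMeasurable (hw l)

theorem norm_colD_le (w : Fin 3 → E3 → E3) (x : E3) : ‖colD w x‖ ≤ ∑ l, ‖w l x‖ := by
  refine ContinuousLinearMap.opNorm_le_bound _ (Finset.sum_nonneg fun _ _ => norm_nonneg _) fun v => ?_
  rw [colD_apply, Finset.sum_mul]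
  refine (norm_sum_le _ _).trans (Finset.sum_le_sum fun l _ => ?_)
  rw [norm_smul, mul_comm]
  exact mul_le_mul_of_nonneg_left (norm_le_pi_norm v l) (norm_nonneg _)

/-- `p`-th powers -/
theorem enorm_colD_rpow_le {p : ℝ} (hp : 0 ≤ p) (w : Fin 3 → E3 → E3) (x : E3) :
    ‖colD w x‖ₑ ^ p ≤ (3:ℝ≥0∞) ^ p * ∑ l, ‖w l x‖ₑ ^ p := by
  have h1 : ‖colD w x‖ₑ ≤ ∑ l, ‖w l x‖ₑ := by
    rw [← ofReal_norm]
    refine (ENNReal.ofReal_le_ofReal (norm_colD_le w x)).trans ?_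
    rw [ENNReal.ofReal_sum_of_nonneg fun _ _ => norm_nonneg _]
    exact Finset.sum_le_sum fun l _ => (ofReal_norm (w l x)).le
  obtain ⟨l, -, hl⟩ := Finset.exists_max_image (Finset.univ : Finset (Fin 3)) (fun l => ‖w l x‖ₑ)
    ⟨0, Finset.mem_univ _⟩
  have h2 : ∑ l, ‖w l x‖ₑ ≤ 3 * ‖w l x‖ₑ := by
    refine (Finset.sum_le_sum fun i _ => hl i (Finset.mem_univ i)).trans (le_of_eq ?_)
    rw [Finset.sum_const, Finset.card_univ, nsmul_eq_mul, Fintype.card_fin]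
    push_cast
    ring
  calc ‖colD w x‖ₑ ^ p ≤ (3 * ‖w l x‖ₑ) ^ p := ENNReal.rpow_le_rpow (h1.trans h2) hp
    _ = 3 ^ p * ‖w l x‖ₑ ^ p := ENNReal.mul_rpow_of_nonneg _ _ hp
    _ ≤ _ := by
        gcongr
        exact Finset.single_le_sum (f := fun l => ‖w l x‖ₑ ^ p) (fun _ _ => zero_le) (Finset.mem_univ l)

/-! ### directions -/

theorem P3_symm_apply (y : R3) (k : Fin 3) : P3.symm y k = y k := rfl

/-- weak derivatives in every direction -/
theorem vwd_dir {Ω : Set E3} {φ : E3 → R3} {D : E3 → E3 →L[ℝ] E3}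
    (h : ∀ l, VWD Ω volume φ (fun x => P3 (D x (Pi.single l 1))) (Pi.single l (1:ℝ))) (v : E3) :
    VWD Ω volume φ (fun x => P3 (D x v)) v := by
  intro k
  have h1 := wd_dir (fun l => h l k) v
  have e : gdir (fun l y => D y (Pi.single l 1) k) v = fun y => D y v k := by
    funext y
    show ∑ l, v l * D y (Pi.single l 1) k = D y v k
    have hv : v = ∑ l, v l • (Pi.single l (1:ℝ) : E3) := by
      funext j
      simp [Finset.sum_apply, Pi.single_apply]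
    conv_rhs => rw [hv, map_sum]
    rw [Finset.sum_apply]
    refine Finset.sum_congr rfl fun l _ => ?_
    rw [map_smul, Pi.smul_apply, smul_eq_mul]
  have h2 : (fun l (y : E3) => (P3 (D y (Pi.single l 1)) : R3) k) =
      fun l y => D y (Pi.single l 1) k := rfl
  rw [h2, e] at h1
  exact h1

/-- an inequality of the values of two linear maps in countably many dense directions -/
theorem dir_all {L L' : E3 →L[ℝ] E3} {K : ℝ} {S : Set E3} (hS : Dense S)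
    (h : ∀ v ∈ S, ‖L' v‖ ≤ K * ‖L v‖) (v : E3) : ‖L' v‖ ≤ K * ‖L v‖ := by
  have hcl : IsClosed {v : E3 | ‖L' v‖ ≤ K * ‖L v‖} :=
    isClosed_le (L'.continuous.norm) (continuous_const.mul L.continuous.norm)
  have h1 : closure S ⊆ {v : E3 | ‖L' v‖ ≤ K * ‖L v‖} := closure_minimal h hcl
  exact h1 (hS v)

variable {δ κ0 R c0 : ℝ} {La : Set E3} {F : Set (Bx (Fin 3))}

/-- the constant of the energy bounds of `ea_push_dir` -/
def KD (κ0 c0 p : ℝ) : ℝ≥0∞ := (3:ℝ≥0∞) ^ p * KE κ0 c0 p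

theorem KD_lt_top (κ0 c0 : ℝ) {p : ℝ} (hp : 0 ≤ p) : KD κ0 c0 p < ⊤ := by
  unfold KD
  exact ENNReal.mul_lt_top (ENNReal.rpow_lt_top_of_nonneg hp (by simp)) (KE_lt_top κ0 c0 p)

/-- **`ea_push_dir`.** -/
theorem ea_push_dir {p : ℝ} (hp0 : 0 < p) (hκ : 1 ≤ κ0) (hc : 0 < c0) (hc2 : c0 * κ0 ≤ 1)
    {Om : Set E3} (hOm : IsOpen Om) (hLa : IsOpen La) {f : E3 → E3} {D : E3 → E3 →L[ℝ] E3}
    (hf : Hom3 f Om La)
    (hD : ∀ i, VWD Om volume (fun x => P3 (f x)) (fun x => P3 (D x (Pi.single i 1)))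
      (Pi.single i 1))
    (bf : BoxFoam La F δ κ0) (cmp : Cmp F R) (X : Set F) (hpX : p < 3 ∨ X = univ) (lam : F → ℝ)
    (hl : ∀ c ∈ X, c0 ≤ lam c) (hl1 : ∀ c ∈ X, lam c < 1) {N : Set E3} (hN : volume N = 0) :
    ∃ (z : F → E3) (H : XD bf c0 X lam z), (∀ c, z c ∈ Mid (brk' bf c)) ∧ (∀ c, z c ∉ N) ∧
      ∃ D' : E3 → E3 →L[ℝ] E3, StronglyMeasurable D' ∧ (∀ v, Measurable fun y => D' y v) ∧
        (∀ x, x ∉ OmH (fX bf cmp H) f Om → D' x = 0) ∧
        (∀ l, VWD (OmH (fX bf cmp H) f Om) volume (fun x => P3 ((fX bf cmp H).Psi (f x)))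
          (fun x => P3 (D' x (Pi.single l 1))) (Pi.single l (1:ℝ))) ∧
        (∀ᵐ x, x ∈ OmH (fX bf cmp H) f Om →
          (∀ c, f x ∈ (coreBF (brk' bf c) (z c)).I → c ∈ X) →
          ∀ v, ‖D' x v‖ ≤ KQ κ0 c0 * ‖D x v‖) ∧
        (∀ c, c ∉ X → ∫⁻ x in {x | x ∈ OmH (fX bf cmp H) f Om ∧ f x ∈ c.1.set},
          ‖D' x‖ₑ ^ p ≤ KD κ0 c0 p * ∫⁻ x in {x | x ∈ Om ∧ f x ∈ c.1.set}, ‖D x‖ₑ ^ p) ∧
        ∀ S ⊆ Om, MeasurableSet S →
          (∀ c, c ∉ X → (∀ x ∈ Om, f x ∈ (brk' bf c).I → x ∈ S) ∨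
            (∀ x ∈ Om, f x ∈ (brk' bf c).I → x ∉ S)) →
          ∫⁻ x in S, ‖D' x‖ₑ ^ p ≤ KD κ0 c0 p * ∫⁻ x in S, ‖D x‖ₑ ^ p := by
  obtain ⟨z, H, hz, hzN, D0, hV, -, hb, hs⟩ := ea_push hp0.le hκ hc hc2 hOm hLa hf hD bf cmp X hpX
    lam hl hl1 hN
  have hcount : Countable F := bf.countable.to_subtype
  have hOH : IsOpen (OmH (fX bf cmp H) f Om) := isOpen_OmH hOm hLa hf
  obtain ⟨fi, hmap, -, -, -, hfc, -⟩ := id hf
  have hLE : IsOpen (LaE La) := isOpen_LaE hLa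
  have hF0 := foam0' bf
  have hA : ∀ c i j, (brk' bf c).W i ≤ κ0 * (brk' bf c).W j := fun c i j => asp' bf c i j
  have hG := giv (bf := bf) hκ hc hc2 hl hl1
  have hcm := cm_pos hκ hc
  have ha4 : 4 * κ0 ≤ aX κ0 c0 := le_max_right _ _
  have hK1 := K1_nonneg (c₁ := cm κ0 c0) (aX_nonneg (c0 := c0) hκ) (zero_le_two)
  set φ : E3 → R3 := fun x => P3 (f x) with hφd
  have hφ : ContinuousOn φ Om := P3.continuous.comp_continuousOn hfc
  have hOeq := OmH_eq bf cmp H hmap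
  have hOO := H.foamC.isOpen_dom hLE hOm hφ
  set O : Set E3 := OmH (fX bf cmp H) f Om with hO
  have hOm' : MeasurableSet O := hOH.measurableSet
  -- measurable versions of the columns
  have hae : ∀ l k, AEStronglyMeasurable (fun x => D0 l x k) (volume.restrict O) := fun l k =>
    (hV l k).lg.aestronglyMeasurable
  set W : Fin 3 → E3 → E3 := fun l x k => O.indicator ((hae l k).mk _) x with hW
  have hWm : ∀ l, StronglyMeasurable (W l) := by
    intro l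
    refine Measurable.stronglyMeasurable (measurable_pi_lambda _ fun k => ?_)
    exact ((hae l k).stronglyMeasurable_mk.measurable).indicator hOm'
  have hW0 : ∀ l x, x ∉ O → W l x = 0 := by
    intro l x hx
    funext k
    simp only [hW, Pi.zero_apply]
    exact indicator_of_notMem hx _
  have hWe : ∀ᵐ x, x ∈ O → ∀ l k, W l x k = D0 l x k := by
    have h1 : ∀ l k, ∀ᵐ x, x ∈ O → D0 l x k = (hae l k).mk _ x := fun l k =>
      (ae_restrict_iff' hOm').1 (hae l k).ae_eq_mk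
    have h2 : ∀ᵐ x, ∀ l k, x ∈ O → D0 l x k = (hae l k).mk _ x :=
      ae_all_iff.2 fun l => ae_all_iff.2 fun k => h1 l k
    filter_upwards [h2] with x hx hxO l k
    simp only [hW]
    rw [indicator_of_mem hxO]
    exact (hx l k hxO).symm
  have hWn : ∀ᵐ x, x ∈ O → ∀ l, ‖W l x‖ₑ ≤ ‖D0 l x‖ₑ := by
    filter_upwards [hWe] with x hx hxO l
    have h1 : W l x = P3.symm (D0 l x) := by
      funext k
      rw [hx hxO l k]
      rfl
    rw [h1, ← ofReal_norm, ← ofReal_norm]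
    exact ENNReal.ofReal_le_ofReal (Crest.Agent.R096.Er_594.norm_P3_symm_le _)
  set D' : E3 → E3 →L[ℝ] E3 := colD W with hD'
  have hD'0 : ∀ x, x ∉ O → D' x = 0 := by
    intro x hx
    ext v : 1
    rw [hD', colD_apply]
    simp [hW0 _ x hx]
  have hD'V : ∀ l, VWD O volume (fun x => P3 ((fX bf cmp H).Psi (f x)))
      (fun x => P3 (D' x (Pi.single l 1))) (Pi.single l (1:ℝ)) := by
    intro l k
    refine wd_congr hOH (hV l k) (Eventually.of_forall fun x _ => rfl) ?_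
    filter_upwards [hWe] with x hx hxO
    rw [hD', colD_single]
    exact (hx hxO l k).symm
  have hpow : ∀ᵐ x, x ∈ O → ‖D' x‖ₑ ^ p ≤ (3:ℝ≥0∞) ^ p * ∑ l, ‖D0 l x‖ₑ ^ p := by
    filter_upwards [hWn] with x hx hxO
    refine (enorm_colD_rpow_le hp0.le W x).trans ?_
    gcongr with l
    exact hx hxO l
  have h3p : (3:ℝ≥0∞) ^ p ≠ ∞ := ENNReal.rpow_ne_top_of_nonneg hp0.le (by simp)
  refine ⟨z, H, hz, hzN, D', stronglyMeasurable_colD hWm, ?_, hD'0, hD'V, ?_, ?_, ?_⟩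
  · intro v
    have e1 : (fun y => D' y v) = fun y => ∑ l, v l • W l y := by
      funext y; rw [hD', colD_apply]
    rw [e1]
    exact Finset.measurable_sum _ fun l _ => ((hWm l).measurable).const_smul (v l)
  · -- the directional bound
    obtain ⟨S, hSc, hSd⟩ := TopologicalSpace.exists_countable_dense E3
    have : Countable S := hSc.to_subtype
    have key : ∀ v : E3, ∀ᵐ x, x ∈ O →
        (∀ c, f x ∈ (coreBF (brk' bf c) (z c)).I → c ∈ X) → ‖D' x v‖ ≤ KQ κ0 c0 * ‖D x v‖ := by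
      intro v
      have hDv : VWD Om volume φ (fun x => P3 (D x v)) v := vwd_dir hD v
      have hD'v : VWD (Om ∩ φ ⁻¹' (Pun (LaE La) (mixB X (holeX bf lam) z))) volume
          (fun x => Psi (brk' bf) (mixC X (brk' bf) (coreX bf lam) z) (mixB X (holeX bf lam) z) (φ x))
          (fun x => P3 (D' x v)) v := by
        have h1 := vwd_dir hD'V v
        rw [hOeq] at h1
        exact vwd_congr' hOO h1 fun x hx => Psi_eq' bf cmp H hmap hx.1
      have h2 := mix_ptw2 (μ := (volume : Measure E3)) hκ hcm cm_le' ha4 (M := 2) (by norm_num) hLE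
        hF0 hA hG (fun c _ => hz c) hOm hφ hDv hD'v
      filter_upwards [h2] with x hx hx1 hx2
      rw [hOeq] at hx1
      have h3 := hx hx1 (by
        intro c hcx
        by_contra hcX
        rw [mixC_not hcX] at hcx
        exact hcX (hx2 c hcx))
      have h4 : ‖D' x v‖ ≤ ‖P3 (D' x v)‖ := by
        have h5 := Crest.Agent.R096.Er_594.norm_P3_symm_le (P3 (D' x v))
        rwa [ContinuousLinearEquiv.symm_apply_apply] at h5
      have h6 := Crest.Agent.R096.Er_594.norm_P3_le (D x v)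
      refine h4.trans (h3.trans ?_)
      unfold KQ
      calc K1 (Fin 3) (cm κ0 c0) (aX κ0 c0) 2 * ‖P3 (D x v)‖ ≤
            K1 (Fin 3) (cm κ0 c0) (aX κ0 c0) 2 * (2 * ‖D x v‖) :=
            mul_le_mul_of_nonneg_left h6 hK1
        _ = _ := by ring
    have h1 : ∀ᵐ x, ∀ v : S, x ∈ O →
        (∀ c, f x ∈ (coreBF (brk' bf c) (z c)).I → c ∈ X) → ‖D' x v‖ ≤ KQ κ0 c0 * ‖D x v‖ :=
      ae_all_iff.2 fun v => key v
    filter_upwards [h1] with x hx hx1 hx2 v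
    exact dir_all hSd (fun v hv => hx ⟨v, hv⟩ hx1 hx2) v
  · intro c hcX
    have hm : MeasurableSet {x | x ∈ O ∧ f x ∈ c.1.set} := by
      have e1 : {x | x ∈ O ∧ f x ∈ c.1.set} = O \ (O ∩ f ⁻¹' (c.1.set)ᶜ) := by
        ext x
        constructor
        · rintro ⟨h1, h2⟩
          exact ⟨h1, fun h => h.2 h2⟩
        · rintro ⟨h1, h2⟩
          refine ⟨h1, ?_⟩
          by_contra h3
          exact h2 ⟨h1, h3⟩
      rw [e1]
      have hcl : IsClosed c.1.set := isClosed_Icc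
      exact hOm'.diff ((hfc.mono fun x hx => hx.1).isOpen_inter_preimage hOH
        hcl.isOpen_compl).measurableSet
    calc ∫⁻ x in {x | x ∈ O ∧ f x ∈ c.1.set}, ‖D' x‖ₑ ^ p
        ≤ ∫⁻ x in {x | x ∈ O ∧ f x ∈ c.1.set}, (3:ℝ≥0∞) ^ p * ∑ l, ‖D0 l x‖ₑ ^ p := by
          apply lintegral_mono_ae
          refine (ae_restrict_iff' hm).2 ?_
          filter_upwards [hpow] with x hx hx2
          exact hx hx2.1
      _ = (3:ℝ≥0∞) ^ p * ∫⁻ x in {x | x ∈ O ∧ f x ∈ c.1.set}, ∑ l, ‖D0 l x‖ₑ ^ p :=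
          lintegral_const_mul' _ _ h3p
      _ ≤ (3:ℝ≥0∞) ^ p * (KE κ0 c0 p * ∫⁻ x in {x | x ∈ Om ∧ f x ∈ c.1.set}, ‖D x‖ₑ ^ p) := by
          gcongr
          exact hb c hcX
      _ = _ := by unfold KD; ring
  · intro S hS mS hsat
    have h1 : ∫⁻ x in S, ‖D' x‖ₑ ^ p = ∫⁻ x in S ∩ O, ‖D' x‖ₑ ^ p := by
      have e1 : ∀ x, ‖D' x‖ₑ ^ p = O.indicator (fun x => ‖D' x‖ₑ ^ p) x := by
        intro x
        by_cases hx : x ∈ O
        · rw [indicator_of_mem hx]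
        · rw [indicator_of_notMem hx, hD'0 x hx]
          have h0 : ‖(0 : E3 →L[ℝ] E3)‖ₑ = 0 := by rw [← ofReal_norm, norm_zero, ENNReal.ofReal_zero]
          rw [h0, ENNReal.zero_rpow_of_pos hp0]
      calc ∫⁻ x in S, ‖D' x‖ₑ ^ p = ∫⁻ x in S, O.indicator (fun x => ‖D' x‖ₑ ^ p) x :=
            lintegral_congr fun x => e1 x
        _ = ∫⁻ x in O, ‖D' x‖ₑ ^ p ∂(volume.restrict S) := lintegral_indicator hOm' _
        _ = _ := by rw [Measure.restrict_restrict hOm', inter_comm]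
    rw [h1]
    calc ∫⁻ x in S ∩ O, ‖D' x‖ₑ ^ p ≤ ∫⁻ x in S ∩ O, (3:ℝ≥0∞) ^ p * ∑ l, ‖D0 l x‖ₑ ^ p := by
          apply lintegral_mono_ae
          refine (ae_restrict_iff' (mS.inter hOm')).2 ?_
          filter_upwards [hpow] with x hx hx2
          exact hx hx2.2
      _ = (3:ℝ≥0∞) ^ p * ∫⁻ x in S ∩ O, ∑ l, ‖D0 l x‖ₑ ^ p := lintegral_const_mul' _ _ h3p
      _ ≤ (3:ℝ≥0∞) ^ p * (KE κ0 c0 p * ∫⁻ x in S, ‖D x‖ₑ ^ p) := by
          gcongr
          exact hs S hS mS hsat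
      _ = _ := by unfold KD; ring

/-! ### consequences of the directional bound -/

theorem enorm_le_of_norm_le {E' F' : Type*} [SeminormedAddCommGroup E'] [SeminormedAddCommGroup F']
    {a : E'} {b : F'} {K : ℝ} (hK : 0 ≤ K) (h : ‖a‖ ≤ K * ‖b‖) : ‖a‖ₑ ≤ ENNReal.ofReal K * ‖b‖ₑ := by
  rw [← ofReal_norm, ← ofReal_norm, ← ENNReal.ofReal_mul hK]
  exact ENNReal.ofReal_le_ofReal h

/-- composition with a linear map on the right -/
theorem norm_comp_le_of_dir {L L' B : E3 →L[ℝ] E3} {K : ℝ} (hK : 0 ≤ K)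
    (h : ∀ v, ‖L' v‖ ≤ K * ‖L v‖) : ‖L'.comp B‖ ≤ K * ‖L.comp B‖ := by
  refine ContinuousLinearMap.opNorm_le_bound _ (mul_nonneg hK (norm_nonneg _)) fun v => ?_
  calc ‖L' (B v)‖ ≤ K * ‖L (B v)‖ := h _
    _ ≤ K * (‖L.comp B‖ * ‖v‖) := mul_le_mul_of_nonneg_left ((L.comp B).le_opNorm v) hK
    _ = _ := by ring

theorem norm_le_of_dir {L L' : E3 →L[ℝ] E3} {K : ℝ} (hK : 0 ≤ K)
    (h : ∀ v, ‖L' v‖ ≤ K * ‖L v‖) : ‖L'‖ ≤ K * ‖L‖ := by
  refine ContinuousLinearMap.opNorm_le_bound _ (mul_nonneg hK (norm_nonneg _)) fun v => ?_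
  calc ‖L' v‖ ≤ K * ‖L v‖ := h _
    _ ≤ K * (‖L‖ * ‖v‖) := mul_le_mul_of_nonneg_left (L.le_opNorm v) hK
    _ = _ := by ring

/-- **line integrals**: for a.e. translate of a segment the line integral of `D'` is at most `K` times
the line integral of `D`. -/
theorem ae_li_dir {O : Set E3} {D D' : E3 → E3 →L[ℝ] E3} {K : ℝ} (hK : 0 ≤ K) {Pz : E3 → Prop}
    (h0 : ∀ x, x ∉ O → D' x = 0)
    (h : ∀ᵐ x, x ∈ O → Pz x → ∀ v, ‖D' x v‖ ≤ K * ‖D x v‖) (x v : E3) :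
    ∀ᵐ a : E3, (∀ y ∈ sgm (x + a) v, y ∈ O → Pz y) →
      (∀ᵐ τ ∂(volume.restrict (Icc (0:ℝ) 1)),
        ‖D' (x + a + τ • v) v‖ₑ ≤ ENNReal.ofReal K * ‖D (x + a + τ • v) v‖ₑ) ∧
      li (Gd' D' v) (x + a) v ≤ ENNReal.ofReal K * li (fun y => ‖D y v‖ₑ) (x + a) v := by
  set N : Set E3 := toMeasurable volume {x | ¬ (x ∈ O → Pz x → ∀ v, ‖D' x v‖ ≤ K * ‖D x v‖)} with hN
  have hN0 : volume N = 0 := by rw [hN, measure_toMeasurable]; exact ae_iff.1 h
  filter_upwards [Crest.Agent.R096.Exa_365.ae_miss hN0 (measurableSet_toMeasurable _ _) x v] with a ha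
    hP
  have h1 : ∀ᵐ τ ∂(volume.restrict (Icc (0:ℝ) 1)),
      ‖D' (x + a + τ • v) v‖ₑ ≤ ENNReal.ofReal K * ‖D (x + a + τ • v) v‖ₑ := by
    filter_upwards [ha, ae_restrict_mem measurableSet_Icc] with τ hτ hτ1
    have h2 : x + a + τ • v ∉ {x | ¬ (x ∈ O → Pz x → ∀ v, ‖D' x v‖ ≤ K * ‖D x v‖)} := fun h3 =>
      hτ (subset_toMeasurable _ _ h3)
    simp only [mem_setOf_eq, not_not] at h2
    by_cases hO : x + a + τ • v ∈ O
    · exact enorm_le_of_norm_le hK (h2 hO (hP _ ⟨τ, hτ1, rfl⟩ hO) v)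
    · rw [h0 _ hO]
      simp
  refine ⟨h1, ?_⟩
  unfold li Gd'
  rw [← lintegral_const_mul' _ _ ENNReal.ofReal_ne_top]
  exact lintegral_mono_ae h1

/-- all potential segments at once -/
theorem ae_li_dir_all {η : Type*} [Countable η] {O : Set E3} {D D' : E3 → E3 →L[ℝ] E3} {K : ℝ}
    (hK : 0 ≤ K) {Pz : E3 → Prop} (h0 : ∀ x, x ∉ O → D' x = 0)
    (h : ∀ᵐ x, x ∈ O → Pz x → ∀ v, ‖D' x v‖ ≤ K * ‖D x v‖) (x v : η → E3) :
    ∀ᵐ a : E3, ∀ j, (∀ y ∈ sgm (x j + a) (v j), y ∈ O → Pz y) →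
      (∀ᵐ τ ∂(volume.restrict (Icc (0:ℝ) 1)),
        ‖D' (x j + a + τ • v j) (v j)‖ₑ ≤ ENNReal.ofReal K * ‖D (x j + a + τ • v j) (v j)‖ₑ) ∧
      li (Gd' D' (v j)) (x j + a) (v j) ≤
        ENNReal.ofReal K * li (fun y => ‖D y (v j)‖ₑ) (x j + a) (v j) :=
  ae_all_iff.2 fun j => ae_li_dir hK h0 h (x j) (v j)

end Crest.Agent.R096.Eds_746
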