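/-
helper222, row 96, LEVSEL part 9: line integrals, crossing numbers and upper gradients do not depend
on the parametrisation of a segment.
-/
import Mathlib
import Crest.Agent.R096.Ls6_222

set_option autoImplicit false
set_option linter.unusedSectionVars false

open MeasureTheory Set Filter
open scoped Topology ENNReal

namespace Crest.Agent.R096.Ls_222

open Crest.Agent.R096.Bas_731 Crest.Agent.R96.En2_199 Crest.Agent.R96.Sg1_199
open Crest.Agent.R096.Msh_715
open Crest.Agent.R096.SkC1_961 (E3 Hom3 FoamD NN)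

noncomputable section

section gen

variable {E : Type*} [NormedAddCommGroup E] [NormedSpace ℝ E]

/-- a segment determines its parametrisation up to the orientation -/
theorem sgm_cases {x v x' v' : E} (hv : v ≠ 0) (h : sgm x v = sgm x' v') :
    (x' = x ∧ v' = v) ∨ (x' = x + v ∧ v' = -v) := by
  have h1 : x ∈ sgm x' v' := h ▸ ⟨0, by simp, by simp⟩
  have h2 : x + v ∈ sgm x' v' := h ▸ ⟨1, by simp, by simp⟩
  have h3 : x' ∈ sgm x v := h ▸ ⟨0, by simp, by simp⟩
  have h4 : x' + v' ∈ sgm x v := h ▸ ⟨1, by simp, by simp⟩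
  obtain ⟨τ, hτ, e1⟩ := h1
  obtain ⟨σ, hσ, e2⟩ := h2
  obtain ⟨τ', hτ', e3⟩ := h3
  obtain ⟨σ', hσ', e4⟩ := h4
  simp only at e1 e2 e3 e4
  have f1 : v = (σ - τ) • v' := by
    have : v = (x + v) - x := by abel
    rw [this, ← e2, ← e1, sub_smul]; abel
  have f2 : v' = (σ' - τ') • v := by
    have : v' = (x' + v') - x' := by abel
    rw [this, ← e4, ← e3, sub_smul]; abel
  have f3 : ((σ - τ) * (σ' - τ')) • v = v := by
    rw [mul_smul, ← f2, ← f1]
  have f4 : (σ - τ) * (σ' - τ') = 1 := by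
    have h5 : ((σ - τ) * (σ' - τ') - 1) • v = 0 := by rw [sub_smul, f3, one_smul, sub_self]
    rcases smul_eq_zero.1 h5 with h6 | h6
    · linarith
    · exact absurd h6 hv
  have hb : σ' - τ' = 1 ∨ σ' - τ' = -1 := by
    have a1 := hσ.1; have a2 := hσ.2; have a3 := hτ.1; have a4 := hτ.2
    have b1 := hσ'.1; have b2 := hσ'.2; have b3 := hτ'.1; have b4 := hτ'.2
    rcases le_total 0 (σ' - τ') with h5 | h5
    · left; nlinarith
    · right; nlinarith
  rcases hb with hb | hb
  · left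
    have a1 : σ' = 1 := by linarith [hσ'.2, hτ'.1]
    have a2 : τ' = 0 := by linarith
    refine ⟨?_, ?_⟩
    · rw [← e3, a2, zero_smul, add_zero]
    · rw [f2, hb, one_smul]
  · right
    have a1 : τ' = 1 := by linarith [hσ'.1, hτ'.2]
    refine ⟨?_, ?_⟩
    · rw [← e3, a1, one_smul]
    · rw [f2, hb, neg_smul, one_smul]

theorem lint_rev (G : ℝ → ℝ≥0∞) (s t : ℝ) :
    ∫⁻ τ in Ioc (1 - t) (1 - s), G τ = ∫⁻ τ in Ioc s t, G (1 - τ) := by
  have h1 : MeasurePreserving (fun τ : ℝ => 1 - τ) volume volume := Measure.measurePreserving_sub_left volume 1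
  have h2 : MeasurableEmbedding fun τ : ℝ => 1 - τ := (MeasurableEquiv.subLeft 1).measurableEmbedding
  have h3 := h1.setLIntegral_comp_preimage_emb h2 G (Ioc (1 - t) (1 - s))
  rw [← h3]
  have h4 : (fun τ : ℝ => 1 - τ) ⁻¹' Ioc (1 - t) (1 - s) = Ico s t := by
    ext τ
    simp only [mem_preimage, mem_Ioc, mem_Ico]
    constructor <;> rintro ⟨h5, h6⟩ <;> constructor <;> linarith
  rw [h4]
  exact setLIntegral_congr Ico_ae_eq_Ioc

theorem li_rev (G : E → ℝ≥0∞) (x v : E) : li G (x + v) (-v) = li G x v := by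
  have h1 := lint_rev (fun τ => G (x + τ • v)) 0 1
  rw [sub_self, sub_zero] at h1
  unfold li
  rw [setLIntegral_congr (Ioc_ae_eq_Icc (a := (0:ℝ)) (b := 1)).symm,
    setLIntegral_congr (Ioc_ae_eq_Icc (a := (0:ℝ)) (b := 1)).symm, h1]
  refine lintegral_congr fun τ => ?_
  congr 1
  rw [sub_smul, one_smul, smul_neg]; abel

theorem li_congr {G : E → ℝ≥0∞} {x v x' v' : E} (hv : v ≠ 0) (h : sgm x v = sgm x' v') :
    li G x v = li G x' v' := by
  rcases sgm_cases hv h with ⟨rfl, rfl⟩ | ⟨rfl, rfl⟩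
  · rfl
  · exact (li_rev G x v).symm

theorem cr_congr {u : E → ℝ} {x v x' v' : E} (h : sgm x v = sgm x' v') (t : ℝ) :
    cr u x v t = cr u x' v' t := by
  unfold cr; rw [h]

theorem ugs_rev {u : E → ℝ} {g : E → ℝ≥0∞} {x v : E} (h : UGs u g x v) :
    UGs u g (x + v) (-v) := by
  intro s t hs hst ht
  have h1 := h (1 - t) (1 - s) (by linarith) (by linarith) (by linarith)
  rw [lint_rev] at h1
  have e1 : x + v + t • -v = x + (1 - t) • v := by rw [sub_smul, one_smul, smul_neg]; abel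
  have e2 : x + v + s • -v = x + (1 - s) • v := by rw [sub_smul, one_smul, smul_neg]; abel
  rw [e1, e2, abs_sub_comm]
  refine h1.trans (le_of_eq (lintegral_congr fun τ => ?_))
  congr 1
  rw [sub_smul, one_smul, smul_neg]; abel

theorem ugs_congr {u : E → ℝ} {g : E → ℝ≥0∞} {x v x' v' : E} (hv : v ≠ 0)
    (h : sgm x v = sgm x' v') (hu : UGs u g x v) : UGs u g x' v' := by
  rcases sgm_cases hv h with ⟨rfl, rfl⟩ | ⟨rfl, rfl⟩
  · exact hu
  · exact ugs_rev hu

end gen

theorem ugv_rev {F : E3 → E3} {G : E3 → ℝ≥0∞} {x v : E3} (h : UGv F G x v) :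
    UGv F G (x + v) (-v) := by
  intro s t hs hst ht
  have h1 := h (1 - t) (1 - s) (by linarith) (by linarith) (by linarith)
  rw [lint_rev] at h1
  have e1 : x + v + t • -v = x + (1 - t) • v := by rw [sub_smul, one_smul, smul_neg]; abel
  have e2 : x + v + s • -v = x + (1 - s) • v := by rw [sub_smul, one_smul, smul_neg]; abel
  rw [e1, e2, ← enorm_neg, neg_sub]
  refine h1.trans (le_of_eq (lintegral_congr fun τ => ?_))
  congr 1
  rw [sub_smul, one_smul, smul_neg]; abel

theorem ugv_congr {F : E3 → E3} {G : E3 → ℝ≥0∞} {x v x' v' : E3} (hv : v ≠ 0)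
    (h : sgm x v = sgm x' v') (hu : UGv F G x v) : UGv F G x' v' := by
  rcases sgm_cases hv h with ⟨rfl, rfl⟩ | ⟨rfl, rfl⟩
  · exact hu
  · exact ugv_rev hu

end

end Crest.Agent.R096.Ls_222
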