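import Crest.Agent.R096.Bxs6_627
import Crest.Agent.R096.SkC1_961

/-!
Row 96 (S0127), helper627.  BOXES, part 7: the `FoamD` of a foam with concentric homothetic cores, and
`Exact` for its bricks.
-/

set_option autoImplicit false
set_option linter.unusedSectionVars false
set_option linter.style.longLine false
set_option linter.unusedVariables false

open MeasureTheory Set Filter Topology Metric

namespace Crest.Agent.R096.Bxs_627

open Crest.AnalysisR.VecCalc3 Crest.AnalysisR.Sobolev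
open Crest.Agent.R096.Bsp_628 Crest.Agent.R96.Push_899 Crest.Agent.R96.En10_199
open Crest.Agent.R096.Brk5_582 Crest.Agent.R096.Msh_715

noncomputable section

variable {La : Set E3} {F : Set (Bx (Fin 3))} {δ κ0 R c0 : ℝ}

/-- the `FoamD` with concentric homothetic cores of ratio `lam c`, holes of ratio `lam c / 2`. -/
def fD (bf : BoxFoam La F δ κ0) (cmp : Cmp F R) (hκ : 1 ≤ κ0) (hc : 0 < c0) (hc2 : c0 * κ0 ≤ 1)
    (lam : F → ℝ) (hl : ∀ c, c0 ≤ lam c) (hl1 : ∀ c, lam c < 1) : SkC1_961.FoamD δ κ0 R c0 La where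
  F := F
  bf := bf
  cmp := cmp
  B c := cb c.1 (bf.pos _ c.2) (lam c / 2) (half_pos (hc.trans_le (hl c))).le
  pu c := pus c.1 (bf.pos _ c.2) (lam c) (hc.trans_le (hl c))
  push c := Or.inr ⟨∅, 0, (1 - lam c) * c.1.sz / 2,
    cb c.1 (bf.pos _ c.2) (lam c) (hc.trans_le (hl c)).le,
    shape_cb' (bf.pos _ c.2) hκ (bf.asp _ c.2) (hc.trans_le (hl c)) (hl1 c) hc (hl c) hc2,
    inner_cb (bf.pos _ c.2) (hc.trans_le (hl c)), rfl⟩

/-- **`Exact`** for a brick of `fD`. -/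
theorem exact_fD (bf : BoxFoam La F δ κ0) (cmp : Cmp F R) (hκ : 1 ≤ κ0) (hc : 0 < c0)
    (hc2 : c0 * κ0 ≤ 1) (lam : F → ℝ) (hl : ∀ c, c0 ≤ lam c) (hl1 : ∀ c, lam c < 1)
    {Ω : Set R3} {f A : R3 → R3} {κ1 κ2 : ℝ} (h2 : κ2 ≤ 1 / 4) (hκ1 : 0 ≤ κ1) (hκ12 : κ1 * κ0 ≤ κ2)
    {ι : Type} {T : Tiling (P3 ⁻¹' Ω) ι} {c : F} {i : ι} {A3 : E3 ≃ᵃ[ℝ] E3}
    (hA : ∀ x, A3 x = m3 A x) (hcor : Cori Ω f A c.1 (lam c) κ1 κ2)
    (htile : P (T.H i) = A3 ⁻¹' {y | ∀ k, zz c.1 (lam c) k + lam c * c.1.lo k ≤ y k ∧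
      y k ≤ zz c.1 (lam c) k + lam c * c.1.hi k}) :
    SkC1_961.Exact (fD bf cmp hκ hc hc2 lam hl hl1) T (m3 f) κ1 κ2 c i A3 (lam c)
      (zz c.1 (lam c)) := by
  have hpos := bf.pos _ c.2
  have hlc : 0 < lam c := hc.trans_le (hl c)
  have hcl := Cori.clauses hpos hlc h2 (fun k => by
    have h3 := bf.asp _ c.2 k
    have h4 : 0 ≤ lam c * c.1.side k := (mul_pos hlc (Bx.side_pos hpos k)).le
    calc κ1 * (lam c * c.1.sz) ≤ κ1 * (lam c * (κ0 * c.1.side k)) := by gcongr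
      _ = κ1 * κ0 * (lam c * c.1.side k) := by ring
      _ ≤ κ2 * (lam c * c.1.side k) := mul_le_mul_of_nonneg_right hκ12 h4) hcor
  exact
    { lam0 := hlc
      lam1 := hl1 c
      box_in := cl_box_in hpos (hl1 c)
      hole := cl_hole hpos hlc h2
      ray := fun y hy hy' => pus_ray hpos hlc (hl1 c) y hy hy'
      tile := htile
      nbd := fun x hx => by
        have h5 := hcl.1 x (fun k => by rw [← hA]; exact hx k)
        rw [hA]
        exact h5
      miss := fun x hx hxt => hcl.2 x hx (fun h => hxt (by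
        rw [htile]
        intro k
        rw [hA]
        exact h k)) }

end

end Crest.Agent.R096.Bxs_627
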