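import Crest.Agent.R096.Er3_594
import Crest.Agent.R096.Bxs7_627
import Crest.Agent.R096.Bsp9_628

/-!
Row 96 (S0127), helper766.  **The literal Prop `EA p`**: bounded factor with exact affine cores, for
Sobolev homeomorphisms with `C⁰`- and `L^p`-closeness to (rational) affine maps over the core boxes.
Everything in `E3 = Fin 3 → ℝ`; no mesh, no words, no levels: they are inside the proof of `EA p` from
`Mbf_337.MachBF`.  Consumers: `BFs p`, `p ≥ 3` (`X` = all bricks, PREP3), `2 < p < 3`.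
Version of 09:05Z: parentheses (802 #10514), star hypothesis (747 #10578, = `Sta_161.StarF La F`).
Definitions only.
-/

set_option autoImplicit false
set_option linter.style.longLine false
set_option linter.unusedSectionVars false

open MeasureTheory Set Filter Topology Metric
open scoped ENNReal NNReal

namespace Crest.Agent.R096.EaX_766

open Crest.Agent.R096.Bsp_628 Crest.Agent.R096.Brk5_582
open Crest.Agent.R096.SkC1_961 (E3 Hom3)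
open Crest.Agent.R096.Er_594 (SH3)
open Crest.Agent.R096.Bxs_627 (ctr)
open Crest.Agent.R096.Str_696 (LocPL)

noncomputable section

/-- the box homothetic to the brick `Q`, same centre, ratio `lam` -/
def cbx (Q : Bx (Fin 3)) (lam : ℝ) : Set E3 := {y | ∀ k, |y k - ctr Q k| ≤ lam * Q.side k / 2}

/-- the linear part of an affine equivalence of `E3`, as a continuous linear map -/
def lin (A : E3 ≃ᵃ[ℝ] E3) : E3 →L[ℝ] E3 := LinearMap.toContinuousLinearMap (A.linear : E3 →ₗ[ℝ] E3)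

/-- rational affine map in the units `o, u` of the target -/
def RatA (o : E3) (u : ℝ) (A : E3 ≃ᵃ[ℝ] E3) : Prop :=
  ∃ (L : Fin 3 → Fin 3 → ℚ) (v : Fin 3 → ℚ), ∀ (x : E3) (k : Fin 3),
    A x k = o k + u * (∑ j, (L k j : ℝ) * x j + v k)

/-- **exact core** of the brick `Q`: ratio `lam`, rational affine map `A`. -/
structure ExIn (p : ℝ) (Om : Set E3) (f : E3 → E3) (D : E3 → E3 →L[ℝ] E3) (o : E3) (u κ1 κ2 : ℝ)
    (Q : Bx (Fin 3)) (A : E3 ≃ᵃ[ℝ] E3) (lam : ℝ) : Prop where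
  rat : RatA o u A
  /-- `f` is `C⁰`-close to `A` over the box enlarged by the factor `1 + 2 κ2`, and no other point is
  mapped by `f` into the core box -/
  cor : ∀ x : E3, (x ∈ Om ∧ f x ∈ cbx Q lam) ∨ A x ∈ cbx Q ((1 + 2 * κ2) * lam) →
    x ∈ Om ∧ ‖f x - A x‖ ≤ κ1 * (lam * Q.sz)
  /-- `L^p`-closeness of the derivatives, in the coordinates `A` -/
  lp : ENNReal.ofReal |(lin A).det| * (∫⁻ x in A ⁻¹' cbx Q ((1 + 2 * κ2) * lam),
      ‖(D x).comp (lin A.symm) - ContinuousLinearMap.id ℝ E3‖ₑ ^ p) ≤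
    ENNReal.ofReal (κ1 * (lam * Q.sz) ^ 3)

/-- the cores -/
def Kor (F : Set (Bx (Fin 3))) (A : F → E3 ≃ᵃ[ℝ] E3) (lam : F → ℝ) (c : F) : Set E3 :=
  A c ⁻¹' cbx c.1 (lam c)

/-- **bounded factor with exact cores.** -/
def EA (p : ℝ) : Prop :=
  ∀ δ κ0 R c0 κ2 M : ℝ, 0 < δ → 1 ≤ κ0 → 1 ≤ R → 0 < c0 → c0 * κ0 ≤ 1 → 0 < κ2 → κ2 ≤ 1 / 4 → 0 < M →
  ∃ C : ℝ≥0, 0 < C ∧ ∀ e : ℝ, 0 < e → ∀ lam1 : ℝ, lam1 < 1 → ∃ κ1 : ℝ, 0 < κ1 ∧
  ∀ (Om La : Set E3) (f : E3 → E3) (D : E3 → E3 →L[ℝ] E3), IsOpen Om → Bornology.IsBounded Om →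
    IsConnected Om → IsOpen La → Bornology.IsBounded La → IsConnected La → SH3 p Om La f D →
  ∀ (o : E3) (u : ℝ), 0 < u →
  ∀ (F : Set (Bx (Fin 3))), BoxFoam La F δ κ0 → Cmp F R → (∀ Q ∈ F, Dy o u M Q) →
    (∀ c : F, ∃ S : Set E3, IsCompact S ∧ Convex ℝ S ∧ S ⊆ La ∧
      ∀ c' : F, (c'.1.set ∩ c.1.set).Nonempty → c'.1.set ⊆ interior S) →
  ∀ (X : Set F), (p < 3 ∨ X = univ) →
  ∀ (A : F → E3 ≃ᵃ[ℝ] E3) (lam : F → ℝ), (∀ c ∈ X, c0 ≤ lam c ∧ lam c ≤ lam1 ∧ ∃ q : ℚ, lam c = q) →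
    (∀ c ∈ X, ExIn p Om f D o u κ1 κ2 c.1 (A c) (lam c)) →
  ∀ e' : ℝ≥0∞, 0 < e' →
  ∃ g : E3 → E3, Hom3 g Om La ∧ LocPL g Om ∧
    (∀ x ∈ Om, ∀ c : F, f x ∈ c.1.set → ‖g x - f x‖ ≤ C * c.1.sz) ∧
    ((∫⁻ x in Om \ ⋃ c ∈ X, Kor F A lam c, ‖fderiv ℝ g x‖ₑ ^ p) ≤
      C * (∫⁻ x in Om \ ⋃ c ∈ X, Kor F A lam c, (1 + ‖D x‖ₑ ^ p)) +
      ENNReal.ofReal e * (∑' c : X, (1 + ‖lin (A c)‖ₑ ^ p) * volume (Kor F A lam c)) + e') ∧
    ∀ c ∈ X, (∫⁻ x in Kor F A lam c, ‖fderiv ℝ g x - (lam c)⁻¹ • lin (A c)‖ₑ ^ p) ≤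
      ENNReal.ofReal e * (‖lin (A c)‖ₑ ^ p * volume (Kor F A lam c))

end

end Crest.Agent.R096.EaX_766
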