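import Crest.Agent.R096.Mal5_874
import Crest.Agent.R096.Ls4_222
import Crest.Agent.R096.EaX1_766

/-!
# Row 96 (S0127), helper476: [NC] of 324 #10731

A tile `i` of a tiling `T` with `(fun K => B '' K) '' cfg T i ⊆ 𝒮`, `𝒮` a finite list of sets:
* `cfg_finite`, `cfg_ncard_le`, `eIn_card_le` : at most `𝒮.ncard` closed cells / 1-cells in the tile;
* `Dsh 𝒮` : the sum of the diameters of the shapes; `dist_le` : every closed cell of the tile has
  diameter `≤ Dsh 𝒮` in the frame `B`; `frame_ev`, `norm_ev`, `beta_ev` : the same for the directions of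
  the edges, `‖B‖ * ‖v‖ ≤ ‖B‖ * ‖B⁻¹‖ * Dsh 𝒮` (hypothesis `hβ` of `tile_energy`).
-/

set_option autoImplicit false
set_option linter.style.longLine false
set_option linter.unusedSectionVars false

open Set Filter Topology Metric
open scoped ENNReal

namespace Crest.Agent.R096.Ncl_476

open Crest.Agent.R096.Msh_715 Crest.Agent.R096.Mal_874 Crest.Agent.R096.Ls_222
  Crest.Agent.R96.Sg1_199

noncomputable section

/-- the sum of the diameters of the sets of a (finite) list -/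
def Dsh {F : Type*} [PseudoMetricSpace F] (𝒮 : Set (Set F)) : ℝ := ∑ᶠ S ∈ 𝒮, diam S

theorem Dsh_nonneg {F : Type*} [PseudoMetricSpace F] (𝒮 : Set (Set F)) : 0 ≤ Dsh 𝒮 := by
  unfold Dsh
  exact finsum_nonneg fun S => finsum_nonneg fun _ => diam_nonneg

theorem diam_le_Dsh {F : Type*} [PseudoMetricSpace F] {𝒮 : Set (Set F)} (h𝒮 : 𝒮.Finite) {S : Set F}
    (hS : S ∈ 𝒮) : diam S ≤ Dsh 𝒮 := by
  unfold Dsh
  rw [finsum_mem_eq_finite_toFinset_sum _ h𝒮]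
  exact Finset.single_le_sum (f := fun S => diam S) (fun _ _ => diam_nonneg)
    (h𝒮.mem_toFinset.2 hS)

theorem Dsh_mono {F : Type*} [PseudoMetricSpace F] {𝒮 𝒮' : Set (Set F)} (h𝒮 : 𝒮'.Finite)
    (h : 𝒮 ⊆ 𝒮') : Dsh 𝒮 ≤ Dsh 𝒮' := by
  unfold Dsh
  rw [finsum_mem_eq_finite_toFinset_sum _ h𝒮, finsum_mem_eq_finite_toFinset_sum _ (h𝒮.subset h)]
  exact Finset.sum_le_sum_of_subset_of_nonneg (by
    intro S hS
    rw [Set.Finite.mem_toFinset] at hS ⊢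
    exact h hS) fun _ _ _ => diam_nonneg

section gen

variable {E F : Type*} [NormedAddCommGroup E] [NormedSpace ℝ E]
  [NormedAddCommGroup F] [NormedSpace ℝ F]
variable {Om : Set E} {ι : Type*} {T : Tiling Om ι} {i : ι} {B : E ≃ᵃ[ℝ] F} {𝒮 : Set (Set F)}

theorem image_injective (B : E ≃ᵃ[ℝ] F) : Function.Injective (fun K : Set E => B '' K) :=
  B.injective.image_injective

/-- finitely many closed cells in the tile -/
theorem cfg_finite (h𝒮 : 𝒮.Finite) (h : (fun K => B '' K) '' cfg T i ⊆ 𝒮) : (cfg T i).Finite :=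
  Set.Finite.of_finite_image (h𝒮.subset h) (image_injective B).injOn

/-- **the number of the closed cells of the tile** -/
theorem cfg_ncard_le (h𝒮 : 𝒮.Finite) (h : (fun K => B '' K) '' cfg T i ⊆ 𝒮) :
    (cfg T i).ncard ≤ 𝒮.ncard := by
  rw [← Set.ncard_image_of_injective (cfg T i) (image_injective B)]
  exact Set.ncard_le_ncard h h𝒮

theorem ncard_sub_cfg_le (h𝒮 : 𝒮.Finite) (h : (fun K => B '' K) '' cfg T i ⊆ 𝒮) {A : Set (Set E)}
    (hA : A ⊆ cfg T i) : A.ncard ≤ 𝒮.ncard :=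
  (Set.ncard_le_ncard hA (cfg_finite h𝒮 h)).trans (cfg_ncard_le h𝒮 h)

/-- the cells inside a tile are compact -/
theorem isCompact_cfg {K : Set E} (hK : K ∈ cfg T i) : IsCompact K := by
  obtain ⟨x, hx, rfl⟩ := hK
  exact T.isCompact_cc (T.sub i hx)

/-- the tile is one of its cells -/
theorem tile_mem_cfg (T : Tiling Om ι) (i : ι) : P (T.H i) ∈ cfg T i := by
  obtain ⟨x, hx⟩ := T.ne i
  exact ⟨x, I_sub_P _ hx, (T.cc_eq_tile hx).symm⟩

variable [FiniteDimensional ℝ E]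

/-- **every closed cell of the tile has diameter `≤ Dsh 𝒮` in the frame** -/
theorem dist_le (h𝒮 : 𝒮.Finite) (h : (fun K => B '' K) '' cfg T i ⊆ 𝒮) {K : Set E}
    (hK : K ∈ cfg T i) {x y : E} (hx : x ∈ K) (hy : y ∈ K) : dist (B x) (B y) ≤ Dsh 𝒮 := by
  have h1 : IsCompact (B '' K) :=
    (isCompact_cfg hK).image B.continuous_of_finiteDimensional
  exact (dist_le_diam_of_mem h1.isBounded (mem_image_of_mem _ hx) (mem_image_of_mem _ hy)).trans
    (diam_le_Dsh h𝒮 (h (mem_image_of_mem _ hK)))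

theorem tile_dist_le (h𝒮 : 𝒮.Finite) (h : (fun K => B '' K) '' cfg T i ⊆ 𝒮) {x y : E}
    (hx : x ∈ P (T.H i)) (hy : y ∈ P (T.H i)) : dist (B x) (B y) ≤ Dsh 𝒮 :=
  dist_le h𝒮 h (tile_mem_cfg T i) hx hy

theorem linear_le (h𝒮 : 𝒮.Finite) (h : (fun K => B '' K) '' cfg T i ⊆ 𝒮) {K : Set E}
    (hK : K ∈ cfg T i) {x v : E} (hx : x ∈ K) (hy : x + v ∈ K) : ‖B.linear v‖ ≤ Dsh 𝒮 := by
  have h1 := dist_le h𝒮 h hK hy hx
  rw [dist_eq_norm] at h1
  have h2 : B (x + v) - B x = B.linear v := by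
    have := B.toAffineMap.linearMap_vsub (x + v) x
    rw [vsub_eq_sub, vsub_eq_sub, add_sub_cancel_left] at this
    exact this.symm
  rwa [h2] at h1

/-! ### edges -/

theorem edg_mem_cfg {e : Edg T} (he : e ∈ eIn T i) : e.1 ∈ cfg T i := by
  have h1 := mem_eIn.1 he
  obtain ⟨e', x, hx, hd, rfl⟩ := e
  exact ⟨x, h1 (T.self_mem_cc x), rfl⟩

/-- **the number of the edges of the tile** -/
theorem eIn_card_le (h𝒮 : 𝒮.Finite) (h : (fun K => B '' K) '' cfg T i ⊆ 𝒮) :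
    (eIn T i).card ≤ 𝒮.ncard := by
  classical
  have h1 : (((eIn T i).image fun e => e.1 : Finset (Set E)) : Set (Set E)) ⊆ cfg T i := by
    intro K hK
    rw [Finset.mem_coe, Finset.mem_image] at hK
    obtain ⟨e, he, rfl⟩ := hK
    exact edg_mem_cfg he
  have h2 := ncard_sub_cfg_le h𝒮 h h1
  rw [Set.ncard_coe_finset] at h2
  refine le_trans (le_of_eq ?_) h2
  exact (Finset.card_image_of_injOn (s := eIn T i) (f := fun e : Edg T => e.1)
    fun a _ b _ hab => Subtype.ext hab).symm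

theorem ea_mem (e : Edg T) : ea e ∈ e.1 := by
  rw [← sgm_edg e, sgm_eq_segment]; exact left_mem_segment ℝ _ _

theorem eb_mem (e : Edg T) : ea e + ev e ∈ e.1 := by
  rw [← sgm_edg e, sgm_eq_segment]; exact right_mem_segment ℝ _ _

/-- the length of an edge in the frame -/
theorem frame_ev (h𝒮 : 𝒮.Finite) (h : (fun K => B '' K) '' cfg T i ⊆ 𝒮) {e : Edg T}
    (he : e ∈ eIn T i) : ‖B.linear (ev e)‖ ≤ Dsh 𝒮 :=
  linear_le h𝒮 h (edg_mem_cfg he) (ea_mem e) (eb_mem e)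

/-- the length of a segment with both ends in the tile, in the frame -/
theorem frame_seg (h𝒮 : 𝒮.Finite) (h : (fun K => B '' K) '' cfg T i ⊆ 𝒮) {x v : E}
    (hx : x ∈ P (T.H i)) (hy : x + v ∈ P (T.H i)) : ‖B.linear v‖ ≤ Dsh 𝒮 :=
  linear_le h𝒮 h (tile_mem_cfg T i) hx hy

end gen

/-! ### `simL` -/

section simL

variable {n : ℕ} {E : Type*} [NormedAddCommGroup E] [NormedSpace ℝ E] [FiniteDimensional ℝ E]
variable {Om : Set E} {ι : Type*} {T : Tiling Om ι} {i : ι} {B : E ≃ᵃ[ℝ] (Fin n → ℝ)}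
  {𝒩 : Finset (Fin n → ℝ)} {d : ℕ} {R : ℝ}

theorem simL_cfg_ncard (h : (fun K => B '' K) '' cfg T i ∈ simL 𝒩 d R) :
    (cfg T i).Finite ∧ (cfg T i).ncard ≤ (shpT 𝒩 d R).ncard :=
  ⟨cfg_finite (shpT_finite 𝒩 d R) h, cfg_ncard_le (shpT_finite 𝒩 d R) h⟩

/-- **[NC] number of 1-cells** -/
theorem simL_eIn_card (h : (fun K => B '' K) '' cfg T i ∈ simL 𝒩 d R) :
    (eIn T i).card ≤ (shpT 𝒩 d R).ncard :=
  eIn_card_le (shpT_finite 𝒩 d R) h

/-- **[NC] diameters in the frame** -/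
theorem simL_dist (h : (fun K => B '' K) '' cfg T i ∈ simL 𝒩 d R) {x y : E} (hx : x ∈ P (T.H i))
    (hy : y ∈ P (T.H i)) : dist (B x) (B y) ≤ Dsh (shpT 𝒩 d R) :=
  tile_dist_le (shpT_finite 𝒩 d R) h hx hy

theorem simL_ev (h : (fun K => B '' K) '' cfg T i ∈ simL 𝒩 d R) {e : Edg T} (he : e ∈ eIn T i) :
    ‖B.linear (ev e)‖ ≤ Dsh (shpT 𝒩 d R) :=
  frame_ev (shpT_finite 𝒩 d R) h he

theorem simL_seg (h : (fun K => B '' K) '' cfg T i ∈ simL 𝒩 d R) {x v : E} (hx : x ∈ P (T.H i))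
    (hy : x + v ∈ P (T.H i)) : ‖B.linear v‖ ≤ Dsh (shpT 𝒩 d R) :=
  frame_seg (shpT_finite 𝒩 d R) h hx hy

end simL

/-! ### operator norms -/

section norms

variable {E F : Type*} [NormedAddCommGroup E] [NormedSpace ℝ E] [FiniteDimensional ℝ E]
  [NormedAddCommGroup F] [NormedSpace ℝ F] [FiniteDimensional ℝ F]

/-- the linear part as a continuous linear map -/
def linC (B : E ≃ᵃ[ℝ] F) : E →L[ℝ] F := LinearMap.toContinuousLinearMap (B.linear : E →ₗ[ℝ] F)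

theorem linC_apply (B : E ≃ᵃ[ℝ] F) (v : E) : linC B v = B.linear v := rfl

theorem norm_le_symm (B : E ≃ᵃ[ℝ] F) (v : E) : ‖v‖ ≤ ‖linC B.symm‖ * ‖B.linear v‖ := by
  have h1 := (linC B.symm).le_opNorm (B.linear v)
  have h2 : linC B.symm (B.linear v) = v := by
    show B.symm.linear (B.linear v) = v
    rw [AffineEquiv.linear_symm]
    simp
  rwa [h2] at h1

/-- **`β * ‖v‖ ≤ K`**, `β` = norm of the frame, `v` a segment with both ends in the tile -/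
theorem beta_seg {Om : Set E} {ι : Type*} {T : Tiling Om ι} {i : ι} {B : E ≃ᵃ[ℝ] F}
    {𝒮 : Set (Set F)} (h𝒮 : 𝒮.Finite) (h : (fun K => B '' K) '' cfg T i ⊆ 𝒮) {x v : E}
    (hx : x ∈ P (T.H i)) (hy : x + v ∈ P (T.H i)) :
    ‖linC B‖ₑ * ‖v‖ₑ ≤ ENNReal.ofReal (‖linC B‖ * ‖linC B.symm‖ * Dsh 𝒮) := by
  rw [← ofReal_norm, ← ofReal_norm, ← ENNReal.ofReal_mul (norm_nonneg _)]
  apply ENNReal.ofReal_le_ofReal
  have h1 := norm_le_symm B v
  have h2 := frame_seg h𝒮 h hx hy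
  calc ‖linC B‖ * ‖v‖ ≤ ‖linC B‖ * (‖linC B.symm‖ * Dsh 𝒮) := by gcongr; exact h1.trans (by gcongr)
    _ = _ := by ring

theorem beta_ev {Om : Set E} {ι : Type*} {T : Tiling Om ι} {i : ι} {B : E ≃ᵃ[ℝ] F}
    {𝒮 : Set (Set F)} (h𝒮 : 𝒮.Finite) (h : (fun K => B '' K) '' cfg T i ⊆ 𝒮) {e : Edg T}
    (he : e ∈ eIn T i) :
    ‖linC B‖ₑ * ‖ev e‖ₑ ≤ ENNReal.ofReal (‖linC B‖ * ‖linC B.symm‖ * Dsh 𝒮) :=
  beta_seg h𝒮 h (mem_eIn.1 he (ea_mem e)) (mem_eIn.1 he (eb_mem e))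

end norms

/-! ### `E3` -/

theorem linC_eq_lin (A : (Fin 3 → ℝ) ≃ᵃ[ℝ] (Fin 3 → ℝ)) : linC A = EaX_766.lin A := rfl

end

end Crest.Agent.R096.Ncl_476
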