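import Crest.Agent.R096.Nr1_527
import Crest.Agent.R096.Vb9_965

/-!
# Row 96 (S0127), NEAR + PROPER, part 2 (helper527): adjacency from the data of `MachBF`

* `not_hole` : a tile which is not a core misses all holes (`Exact`: margins + `miss`; `Tiny`: `f`
  injective);
* `fine_touch` : on a fine tile every cell of `Psi (f x0)` touches every cell of `f x`;
* `exact_touch` : on an exact core of `c` every cell of `f x` touches `c`;
* `tiny_only` : on a tiny core of `c` the only cell of `f x` is `c`;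
* **`adj_of`** : the structure map `G` of the machine is adjacent to `f`.
-/

set_option autoImplicit false
set_option linter.unusedSectionVars false
set_option linter.style.haveILetI false

open Set Filter Topology Metric

namespace Crest.Agent.R096.Nr_527

open Crest.Agent.R096.Brk1_582 Crest.Agent.R096.Brk2_582 Crest.Agent.R096.Brk3_582
open Crest.Agent.R096.Brk4_582 Crest.Agent.R096.Brk5_582 Crest.Agent.R096.Bsp_628
open Crest.Agent.R096.SkC1_961 Crest.Agent.R096.Vb_965 Crest.Agent.R096.Msh_715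
open Crest.Agent.R96.Push_899

variable {δ κ0 R c0 : ℝ} {La Om : Set E3} {ι : Type} (Φ : FoamD δ κ0 R c0 La)

/-- the interior of a polyhedron with an interior point -/
theorem interior_P' {E : Type*} [NormedAddCommGroup E] [NormedSpace ℝ E]
    {H : Finset ((E →L[ℝ] ℝ) × ℝ)} (hne : (I H).Nonempty) : interior (P H) = I H := by
  apply Subset.antisymm
  · intro x hx h hh
    obtain ⟨z, hz⟩ := hne
    have hxP : x ∈ P H := interior_subset hx
    by_contra hcon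
    have e : h.1 x = h.2 := le_antisymm (hxP h hh) (not_lt.1 hcon)
    have hc : ContinuousAt (fun s : ℝ => x + s • (x - z)) 0 := by fun_prop
    have hev : ∀ᶠ s in 𝓝 (0 : ℝ), x + s • (x - z) ∈ interior (P H) := by
      refine hc.eventually_mem (isOpen_interior.mem_nhds ?_)
      simpa using hx
    obtain ⟨r, hr, hr'⟩ := Metric.eventually_nhds_iff.1 hev
    have h1 : x + (r / 2) • (x - z) ∈ P H := interior_subset (hr' (by
      rw [Real.dist_eq, sub_zero, abs_of_pos (by positivity)]; linarith))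
    have h2 := h1 h hh
    rw [map_add, map_smul, map_sub, e, smul_eq_mul] at h2
    have h3 := hz h hh
    have h4 : 0 < r / 2 * (h.2 - h.1 z) := by
      apply mul_pos (by positivity); linarith
    linarith
  · exact interior_maximal (I_sub_P H) (isOpen_I H)

/-- the push maps a point off the holes into its cells -/
theorem Psi_mem (hLa : IsOpen La) {c : Φ.F} {y : E3} (hy : y ∈ Pc Φ.F c)
    (hh : y ∉ (Φ.B c).S) : Φ.Psi y ∈ Pc Φ.F c :=
  ((pushD Φ hLa).mem c y hy ((muD_pos Φ hLa hy).2 hh)).1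

/-- the push is continuous off the holes -/
theorem continuousOn_Psi (hLa : IsOpen La) :
    ContinuousOn Φ.Psi {y | y ∈ La ∧ ∀ c, y ∉ (Φ.B c).S} := by
  refine (pushD Φ hLa).cont.mono ?_
  rintro y ⟨hy, hh⟩
  obtain ⟨c, hc⟩ := (foam Φ.bf hLa).cov y hy
  exact ⟨hy, (muD_pos Φ hLa hc).2 (hh c)⟩

variable {Φ} {T : Tiling Om ι} {f : E3 → E3} {κ1 κ2 : ℝ}

/-- the boundary of an exact core misses the hole -/
theorem exact_bd_not_hole (hκ1 : 0 ≤ κ1) (hκ : κ0 * κ1 < κ2) {c : Φ.F} {i : ι} {A : E3 ≃ᵃ[ℝ] E3}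
    {lam : ℝ} {z : E3} (hE : Exact Φ T f κ1 κ2 c i A lam z) {x : E3} (hx : x ∈ P (T.H i))
    (hxI : x ∉ I (T.H i)) : f x ∉ (Φ.B c).S := by
  have hside : ∀ k, 0 < c.1.side k := fun k => Bx.side_pos (Φ.bf.pos _ c.2) k
  have hsz : 0 < c.1.sz := Bx.sz_pos (Φ.bf.pos _ c.2)
  have hκ2 : 0 < κ2 := by
    have h0 : 0 ≤ κ0 := by
      have h1 := Φ.bf.asp _ c.2 0
      by_contra hneg
      have := mul_neg_of_neg_of_pos (not_le.1 hneg) (hside 0)
      linarith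
    exact (mul_nonneg h0 hκ1).trans_lt hκ
  have hbx : ∀ k, z k + lam * c.1.lo k ≤ A x k ∧ A x k ≤ z k + lam * c.1.hi k := by
    have := hx; rw [hE.tile] at this; exact this
  -- a coordinate on the boundary
  have hk : ∃ k, A x k = z k + lam * c.1.lo k ∨ A x k = z k + lam * c.1.hi k := by
    by_contra hcon
    push Not at hcon
    apply hxI
    rw [← interior_P' (T.ne i), hE.tile, mem_interior_iff_mem_nhds]
    have hc : ∀ k, ContinuousAt (fun y : E3 => A y k) x := fun k =>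
      (continuous_apply k).continuousAt.comp
        (AffineMap.continuous_of_finiteDimensional (A : E3 →ᵃ[ℝ] E3)).continuousAt
    have h1 : ∀ᶠ y in 𝓝 x, ∀ k, z k + lam * c.1.lo k < A y k ∧ A y k < z k + lam * c.1.hi k := by
      rw [eventually_all]
      intro k
      exact ((hc k).eventually (lt_mem_nhds
        (lt_of_le_of_ne (hbx k).1 fun h => (hcon k).1 h.symm))).and
        ((hc k).eventually (gt_mem_nhds (lt_of_le_of_ne (hbx k).2 (hcon k).2)))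
    filter_upwards [h1] with y hy
    exact fun k => ⟨(hy k).1.le, (hy k).2.le⟩
  have hfx : ‖f x - A x‖ ≤ κ1 * (lam * c.1.sz) := by
    refine (hE.nbd x fun k => ⟨?_, ?_⟩).2
    · have : 0 ≤ κ2 * (lam * c.1.side k) := by
        have := hside k; have := hE.lam0; positivity
      linarith [(hbx k).1]
    · have : 0 ≤ κ2 * (lam * c.1.side k) := by
        have := hside k; have := hE.lam0; positivity
      linarith [(hbx k).2]
  intro hS
  obtain ⟨k, hk⟩ := hk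
  have h2 : |f x k - A x k| < κ2 * (lam * c.1.side k) := by
    have h3 : |f x k - A x k| ≤ κ1 * (lam * c.1.sz) := by
      have := norm_le_pi_norm (f x - A x) k
      rw [Pi.sub_apply, Real.norm_eq_abs] at this
      exact this.trans hfx
    have h4 := Φ.bf.asp _ c.2 k
    have h5 : κ1 * (lam * c.1.sz) ≤ κ1 * (lam * (κ0 * c.1.side k)) :=
      mul_le_mul_of_nonneg_left (mul_le_mul_of_nonneg_left h4 hE.lam0.le) hκ1
    have h6 : 0 < lam * c.1.side k := mul_pos hE.lam0 (hside k)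
    have h7 : κ1 * (lam * (κ0 * c.1.side k)) < κ2 * (lam * c.1.side k) := by
      have : κ1 * (lam * (κ0 * c.1.side k)) = κ0 * κ1 * (lam * c.1.side k) := by ring
      rw [this]; exact mul_lt_mul_of_pos_right hκ h6
    linarith
  rw [abs_lt] at h2
  have h8 := hE.hole k
  have h9 := hS k
  rcases hk with h | h
  · rw [h] at h2; linarith [h2.2, h8.1, h9.1]
  · rw [h] at h2; linarith [h2.1, h8.2, h9.2]

/-- **a tile which is not a core misses the holes** -/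
theorem not_hole (hf : Hom3 f Om La) (hκ1 : 0 ≤ κ1) (hκ : κ0 * κ1 < κ2) {X : Set Φ.F}
    {ct : Φ.F → ι} {A : Φ.F → E3 ≃ᵃ[ℝ] E3} {lam : Φ.F → ℝ} {z : Φ.F → E3}
    (hC : Cores Φ T f κ1 κ2 X ct A lam z) {i : ι} (hi : i ∉ range ct) {x : E3}
    (hx : x ∈ P (T.H i)) (c : Φ.F) : f x ∉ (Φ.B c).S := by
  have hne : i ≠ ct c := fun h => hi ⟨c, h.symm⟩
  have hxO : x ∈ Om := T.sub i hx
  have hxI : x ∉ I (T.H (ct c)) := fun h =>
    (Set.disjoint_left.1 (disjoint_P_I (T.ne i) (T.dis i (ct c) hne))) hx h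
  by_cases hcX : c ∈ X
  · have hE := hC.exact_ c hcX
    by_cases hxc : x ∈ P (T.H (ct c))
    · exact exact_bd_not_hole hκ1 hκ hE hxc hxI
    · exact hE.miss x hxO hxc
  · have hT := hC.tiny c hcX
    intro hS
    obtain ⟨x', hx'I, hx'⟩ := hT.mem
    have h1 : f x = (Φ.B c).lo := by
      funext k
      have h2 := hS k
      have h3 := congrFun hT.pt k
      linarith [h2.1, h2.2]
    obtain ⟨fi, -, -, h4, -, -, -⟩ := hf
    have h5 : x = x' := by
      rw [← h4 x hxO, ← h4 x' (T.sub _ (I_sub_P _ hx'I)), h1, hx']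
    exact hxI (h5 ▸ hx'I)

/-- **fine tiles** -/
theorem fine_touch (hLa : IsOpen La) (hδ : 0 < δ) (hR : 0 < R) (hf : Hom3 f Om La)
    {ε : ℝ} (hε : Cs (Fintype.card (Fin 3)) δ R * R * ε < 1) {ct : Φ.F → ι} (hF : Fine Φ T f ε ct)
    {i : ι} (hi : i ∉ range ct) (hh : ∀ x ∈ P (T.H i), ∀ c, f x ∉ (Φ.B c).S) {x x0 : E3}
    (hx : x ∈ P (T.H i)) (hx0 : x0 ∈ P (T.H i)) {c a : Φ.F} (hc : f x ∈ Pc Φ.F c)
    (ha : Φ.Psi (f x0) ∈ Pc Φ.F a) : (Pc Φ.F a ∩ Pc Φ.F c).Nonempty := by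
  obtain ⟨fi, hm, -, -, -, hcf, -⟩ := hf
  have FF := foam Φ.bf hLa
  have hmem : ∀ y ∈ P (T.H i), Φ.Psi (f y) ∈ La := by
    intro y hy
    obtain ⟨d, hd⟩ := FF.cov _ (hm (T.sub i hy))
    exact FF.sub d (Psi_mem Φ hLa hd (hh y hy d))
  have hcont : ContinuousOn (fun y => Φ.Psi (f y)) (P (T.H i)) :=
    (continuousOn_Psi Φ hLa).comp (hcf.mono (T.sub i)) fun y hy => ⟨hm (T.sub i hy), hh y hy⟩
  have hpx : Φ.Psi (f x) ∈ Pc Φ.F c := Psi_mem Φ hLa hc (hh x hx c)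
  refine touch_of_conn Φ.bf hLa hδ hR Φ.cmp hε (S := (fun y => Φ.Psi (f y)) '' P (T.H i))
    ((convex_P (T.H i)).isPreconnected.image _ hcont) (by rintro _ ⟨y, hy, rfl⟩; exact hmem y hy)
    ⟨_, ⟨x, hx, rfl⟩, hpx⟩ ?_ ⟨_, ⟨x0, hx0, rfl⟩, ha⟩
  rintro _ ⟨y, hy, rfl⟩
  exact ⟨_, hpx, hF i hi x hx y hy c hpx⟩

/-- **exact cores** -/
theorem exact_touch (hLa : IsOpen La) (hδ : 0 < δ) (hR : 0 < R) (hf : Hom3 f Om La)
    (hκ1 : 0 ≤ κ1) (hκ2 : 0 ≤ κ2) (h1 : Cs (Fintype.card (Fin 3)) δ R * R * κ1 < 1)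
    (h2 : 2 * κ0 * κ1 ≤ 1) {c : Φ.F} {i : ι} {A : E3 ≃ᵃ[ℝ] E3} {lam : ℝ} {z : E3}
    (hE : Exact Φ T f κ1 κ2 c i A lam z) {x : E3} (hx : x ∈ P (T.H i)) {c' : Φ.F}
    (hc' : f x ∈ Pc Φ.F c') : (Pc Φ.F c ∩ Pc Φ.F c').Nonempty := by
  obtain ⟨fi, hm, -, -, -, hcf, -⟩ := hf
  have hside : ∀ k, 0 < c.1.side k := fun k => Bx.side_pos (Φ.bf.pos _ c.2) k
  have hsz : 0 < c.1.sz := Bx.sz_pos (Φ.bf.pos _ c.2)
  have hl := hE.lam0
  have hbx : ∀ y ∈ P (T.H i), ∀ k, z k + lam * c.1.lo k ≤ A y k ∧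
      A y k ≤ z k + lam * c.1.hi k := by
    intro y hy; rw [hE.tile] at hy; exact hy
  have hnb : ∀ y ∈ P (T.H i), ‖f y - A y‖ ≤ κ1 * (lam * c.1.sz) := by
    intro y hy
    refine (hE.nbd y fun k => ?_).2
    have : 0 ≤ κ2 * (lam * c.1.side k) := by
      have := hside k; positivity
    exact ⟨by linarith [(hbx y hy k).1], by linarith [(hbx y hy k).2]⟩
  have hAc : ∀ y ∈ P (T.H i), A y ∈ Pc Φ.F c := by
    intro y hy
    refine Bx.mem_set.2 fun k => ?_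
    have h3 := hbx y hy k
    have h4 := hE.box_in k
    exact ⟨by linarith [h3.1, h4.1], by linarith [h3.2, h4.2]⟩
  -- the centre
  have hctr : ∃ y ∈ P (T.H i), f y ∈ Pc Φ.F c := by
    obtain ⟨y, hy⟩ := A.surjective (fun k => z k + lam * ((c.1.lo k + c.1.hi k) / 2))
    have hyk : ∀ k, A y k = z k + lam * ((c.1.lo k + c.1.hi k) / 2) := fun k => congrFun hy k
    have hyP : y ∈ P (T.H i) := by
      rw [hE.tile]
      intro k
      have h3 := hside k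
      unfold Bx.side at h3
      rw [hyk k]
      constructor
      · have : lam * c.1.lo k ≤ lam * ((c.1.lo k + c.1.hi k) / 2) :=
          mul_le_mul_of_nonneg_left (by linarith) hl.le
        linarith
      · have : lam * ((c.1.lo k + c.1.hi k) / 2) ≤ lam * c.1.hi k :=
          mul_le_mul_of_nonneg_left (by linarith) hl.le
        linarith
    refine ⟨y, hyP, Bx.mem_set.2 fun k => ?_⟩
    have h3 : |f y k - A y k| ≤ κ1 * (lam * c.1.sz) := by
      have := norm_le_pi_norm (f y - A y) k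
      rw [Pi.sub_apply, Real.norm_eq_abs] at this
      exact this.trans (hnb y hyP)
    have h4 := Φ.bf.asp _ c.2 k
    have h5 : κ1 * (lam * c.1.sz) ≤ lam * (c.1.side k / 2) := by
      have e1 : κ1 * (lam * c.1.sz) ≤ κ1 * (lam * (κ0 * c.1.side k)) :=
        mul_le_mul_of_nonneg_left (mul_le_mul_of_nonneg_left h4 hl.le) hκ1
      have e2 : κ1 * (lam * (κ0 * c.1.side k)) = (2 * κ0 * κ1) * (lam * (c.1.side k / 2)) := by ring
      have e3 : (2 * κ0 * κ1) * (lam * (c.1.side k / 2)) ≤ 1 * (lam * (c.1.side k / 2)) :=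
        mul_le_mul_of_nonneg_right h2 (by have := hside k; positivity)
      linarith
    rw [hyk k] at h3
    have h6 := abs_le.1 (h3.trans h5)
    have h7 := hE.box_in k
    have h8 : lam * (c.1.side k / 2) = lam * c.1.hi k - lam * ((c.1.lo k + c.1.hi k) / 2) := by
      unfold Bx.side; ring
    have h9 : lam * (c.1.side k / 2) = lam * ((c.1.lo k + c.1.hi k) / 2) - lam * c.1.lo k := by
      unfold Bx.side; ring
    exact ⟨by linarith [h6.1, h7.1], by linarith [h6.2, h7.2]⟩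
  obtain ⟨y0, hy0, hy0c⟩ := hctr
  have key := touch_of_conn Φ.bf hLa hδ hR Φ.cmp h1 (c := c) (S := f '' P (T.H i))
    ((convex_P (T.H i)).isPreconnected.image _ (hcf.mono (T.sub i)))
    (by rintro _ ⟨y, hy, rfl⟩; exact hm (T.sub i hy)) ⟨_, ⟨y0, hy0, rfl⟩, hy0c⟩ ?_
    (a := c') ⟨_, ⟨x, hx, rfl⟩, hc'⟩
  · rw [inter_comm]; exact key
  · rintro _ ⟨y, hy, rfl⟩
    refine ⟨_, hAc y hy, (hnb y hy).trans ?_⟩
    refine mul_le_mul_of_nonneg_left ?_ hκ1
    have : lam * c.1.sz ≤ 1 * c.1.sz := mul_le_mul_of_nonneg_right hE.lam1.le hsz.le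
    linarith

/-- **tiny cores** -/
theorem tiny_only (hLa : IsOpen La) {c : Φ.F} {i : ι} (hT : Tiny Φ T f c i) {x : E3}
    (hx : x ∈ P (T.H i)) : f x ∈ Pc Φ.F c ∧ ∀ c' : Φ.F, f x ∈ Pc Φ.F c' → c' = c := by
  have h1 : f x ∈ Pc Φ.F c := Bx.mem_set.2 fun k => ⟨(hT.sub x hx k).1.le, (hT.sub x hx k).2.le⟩
  refine ⟨h1, fun c' hc' => ?_⟩
  by_contra hne
  exact (wall_iff Φ hLa h1).1 ⟨c', hne, hc'⟩ (fun k => hT.sub x hx k)

/-- smallness of `κ1` used here -/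
structure Small (δ κ0 R κ1 κ2 : ℝ) : Prop where
  δ0 : 0 < δ
  R0 : 0 < R
  k1 : 0 ≤ κ1
  k2 : 0 ≤ κ2
  a : Cs (Fintype.card (Fin 3)) δ R * R * κ1 < 1
  b : 2 * κ0 * κ1 ≤ 1
  c : κ0 * κ1 < κ2

/-- there is such a number -/
theorem exists_small {δ κ0 R κ2 : ℝ} (hδ : 0 < δ) (hR : 0 < R) (hκ0 : 0 ≤ κ0) (hκ2 : 0 < κ2) :
    ∃ κ : ℝ, 0 < κ ∧ ∀ κ1, 0 ≤ κ1 → κ1 ≤ κ → Small δ κ0 R κ1 κ2 := by
  set M : ℝ := Cs (Fintype.card (Fin 3)) δ R * R with hM
  have hM0 : 0 ≤ M := mul_nonneg (Cs_nonneg hδ hR) hR.le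
  refine ⟨min (1 / (2 * (M + 1))) (min (1 / (2 * (κ0 + 1))) (κ2 / (2 * (κ0 + 1)))), by positivity,
    fun κ1 h0 h1 => ⟨hδ, hR, h0, hκ2.le, ?_, ?_, ?_⟩⟩
  · have h2 : κ1 ≤ 1 / (2 * (M + 1)) := h1.trans (min_le_left _ _)
    rw [le_div_iff₀ (by positivity)] at h2
    nlinarith
  · have h2 : κ1 ≤ 1 / (2 * (κ0 + 1)) := h1.trans ((min_le_right _ _).trans (min_le_left _ _))
    rw [le_div_iff₀ (by positivity)] at h2
    nlinarith
  · have h2 : κ1 ≤ κ2 / (2 * (κ0 + 1)) := h1.trans ((min_le_right _ _).trans (min_le_right _ _))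
    rw [le_div_iff₀ (by positivity)] at h2
    nlinarith

/-- **ADJACENCY**: `G x` in the brick of a core for `x` in its tile; off the cores `G x` in every
brick which contains `Psi (f x0)`, `x0` some point of the same tile of `T`. -/
theorem adj_of (hLa : IsOpen La) (hf : Hom3 f Om La) (hs : Small δ κ0 R κ1 κ2) {X : Set Φ.F}
    {ct : Φ.F → ι} {A : Φ.F → E3 ≃ᵃ[ℝ] E3} {lam : Φ.F → ℝ} {z : Φ.F → E3}
    (hC : Cores Φ T f κ1 κ2 X ct A lam z) (hF : Fine Φ T f κ1 ct) {G : E3 → E3}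
    (hG : ∀ x ∈ Om, (∃ c : Φ.F, x ∈ P (T.H (ct c)) ∧ G x ∈ Pc Φ.F c) ∨
      ∃ i, i ∉ range ct ∧ x ∈ P (T.H i) ∧ ∃ x0 ∈ P (T.H i), ∀ a : Φ.F,
        Φ.Psi (f x0) ∈ Pc Φ.F a → G x ∈ Pc Φ.F a) : Adj Φ.F Om f G := by
  intro x hx c hc
  rcases hG x hx with ⟨d, hxd, hGd⟩ | ⟨i, hi, hxi, x0, hx0, h0⟩
  · refine ⟨d, hGd, ?_⟩
    by_cases hd : d ∈ X
    · exact exact_touch hLa hs.δ0 hs.R0 hf hs.k1 hs.k2 hs.a hs.b (hC.exact_ d hd) hxd hc
    · obtain ⟨h1, h2⟩ := tiny_only hLa (hC.tiny d hd) hxd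
      rw [h2 c hc]
      exact ⟨_, h1, h1⟩
  · have hh : ∀ y ∈ P (T.H i), ∀ c, f y ∉ (Φ.B c).S := fun y hy c =>
      not_hole hf hs.k1 hs.c hC hi hy c
    have hmap : f x0 ∈ La := by
      obtain ⟨fi, hm, -⟩ := hf
      exact hm (T.sub i hx0)
    have FF := foam Φ.bf hLa
    obtain ⟨d, hd⟩ := FF.cov _ hmap
    have hpd : Φ.Psi (f x0) ∈ Pc Φ.F d := Psi_mem Φ hLa hd (hh x0 hx0 d)
    exact ⟨d, h0 d hpd, fine_touch hLa hs.δ0 hs.R0 hf hs.a hF hi hh hxi hx0 hc hpd⟩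

/-- **`Out.near`** from adjacency and `‖g - G‖ ≤ η ∘ f` -/
theorem near_of_adj {G g : E3 → E3} (hA : Adj Φ.F Om f G) {η : E3 → ℝ}
    (hη : ∀ c : Φ.F, ∀ y ∈ Pc Φ.F c, η y ≤ c.1.sz) (hg : ∀ x ∈ Om, ‖g x - G x‖ ≤ η (f x)) :
    ∀ x ∈ Om, ∀ c : Φ.F, f x ∈ c.1.set → ‖g x - f x‖ ≤ (2 + R) * c.1.sz := by
  intro x hx c hc
  have h1 := hA.near Φ.bf Φ.cmp hx hc
  have h2 := (hg x hx).trans (hη c _ hc)
  calc ‖g x - f x‖ = ‖(g x - G x) + (G x - f x)‖ := by congr 1; abel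
    _ ≤ ‖g x - G x‖ + ‖G x - f x‖ := norm_add_le _ _
    _ ≤ (2 + R) * c.1.sz := by linarith

/-- **PROPERNESS for `Hom3`** -/
theorem proper_of_adj (hLa : IsOpen La) (hf : Hom3 f Om La) {G : E3 → E3}
    (hA : Adj Φ.F Om f G) (hG : ContinuousOn G Om) {Y : Set E3} (hY : IsCompact Y) (hYL : Y ⊆ La) :
    IsCompact {x | x ∈ Om ∧ G x ∈ Y} := by
  obtain ⟨fi, h1, h2, h3, -, -, h6⟩ := hf
  exact hA.proper Φ.bf hLa h1 h2 h3 h6 hG hY hYL

/-- finitely many members of a locally finite family meet `{G ∈ Y}` (= `hfin` of `Trn.ofPieces`) -/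
theorem finite_of_adj (hLa : IsOpen La) (hf : Hom3 f Om La) {G : E3 → E3}
    (hA : Adj Φ.F Om f G) (hG : ContinuousOn G Om) {Y : Set E3} (hY : IsCompact Y) (hYL : Y ⊆ La)
    {ν : Type*} {Ks : ν → Set E3} (hlf : ∀ x ∈ Om, ∃ r > 0, {n | (Ks n ∩ ball x r).Nonempty}.Finite) :
    {n | (Ks n ∩ {x | x ∈ Om ∧ G x ∈ Y}).Nonempty}.Finite := by
  have hK := proper_of_adj hLa hf hA hG hY hYL
  choose! r hr hfin using hlf
  obtain ⟨t, ht, hcov⟩ := hK.elim_nhds_subcover (fun y => ball y (r y))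
    (fun y hy => ball_mem_nhds y (hr y hy.1))
  refine (t.finite_toSet.biUnion fun y hy => hfin y (ht y hy).1).subset fun n hn => ?_
  obtain ⟨p, hp, hpY⟩ := hn
  obtain ⟨y, hy, hpy⟩ := mem_iUnion₂.1 (hcov hpY)
  exact mem_iUnion₂.2 ⟨y, hy, p, hp, hpy⟩

end Crest.Agent.R096.Nr_527
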