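/-
helper222, row 96, EA0 (p <= 2): energy of the coarse inner tiles of a block from (2b), part 1: a family
of tiles with frames proportional to one linear map and a finite list of shapes.
-/
import Mathlib
import Crest.Agent.R096.Ncl1_476
import Crest.Agent.R096.Ls9_222
import Crest.Agent.R096.Nr2_527

set_option autoImplicit false
set_option linter.unusedSectionVars false

open MeasureTheory Set Filter Metric
open scoped Topology ENNReal Pointwise

namespace Crest.Agent.R096.Ine_222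

open Crest.Agent.R096.Msh_715 Crest.Agent.R096.Mal_874 Crest.Agent.R096.Ncl_476
open Crest.Agent.R096.SkC1_961 (E3)
open Crest.Agent.R96.Sg1_199 (li sgm sgm_eq_segment)
open Crest.Agent.R096.Ls_222 (Edg ea ev eIn mem_eIn sgm_edg ev_ne)

noncomputable section

/-! ### finite lists -/

theorem exists_diam_lb {α : Type*} [PseudoMetricSpace α] {𝒮 : Set (Set α)} (h : 𝒮.Finite) :
    ∃ c : ℝ, 0 < c ∧ ∀ S ∈ 𝒮, 0 < diam S → c ≤ diam S := by
  induction 𝒮, h using Set.Finite.induction_on with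
  | empty => exact ⟨1, one_pos, fun S hS => absurd hS (notMem_empty _)⟩
  | @insert S 𝒮 _ _ ih =>
    obtain ⟨c, hc, h⟩ := ih
    by_cases hS : 0 < diam S
    · refine ⟨min c (diam S), lt_min hc hS, ?_⟩
      rintro S' (rfl | hS') h'
      · exact min_le_right _ _
      · exact (min_le_left _ _).trans (h S' hS' h')
    · refine ⟨c, hc, ?_⟩
      rintro S' (rfl | hS') h'
      · exact absurd h' hS
      · exact h S' hS' h'

theorem exists_vol_lb {α : Type*} [MeasurableSpace α] (μ : Measure α) {𝒮 : Set (Set α)}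
    (h : 𝒮.Finite) : ∃ c : ℝ, 0 < c ∧ ∀ S ∈ 𝒮, μ S ≠ 0 → ENNReal.ofReal c ≤ μ S := by
  induction 𝒮, h using Set.Finite.induction_on with
  | empty => exact ⟨1, one_pos, fun S hS => absurd hS (notMem_empty _)⟩
  | @insert S 𝒮 _ _ ih =>
    obtain ⟨c, hc, h⟩ := ih
    by_cases hS : μ S = 0
    · refine ⟨c, hc, ?_⟩
      rintro S' (rfl | hS') h'
      · exact absurd hS h'
      · exact h S' hS' h'
    · obtain ⟨d, hd0, hd⟩ : ∃ d : ℝ, 0 < d ∧ ENNReal.ofReal d ≤ μ S := by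
        by_cases ht : μ S = ∞
        · exact ⟨1, one_pos, by rw [ht]; exact le_top⟩
        · exact ⟨(μ S).toReal, ENNReal.toReal_pos hS ht, by rw [ENNReal.ofReal_toReal ht]⟩
      refine ⟨min c d, lt_min hc hd0, ?_⟩
      rintro S' (rfl | hS') h'
      · exact (ENNReal.ofReal_le_ofReal (min_le_right _ _)).trans hd
      · exact (ENNReal.ofReal_le_ofReal (min_le_left _ _)).trans (h S' hS' h')

/-! ### frames -/

/-- `B` is `L` in the scale `s` -/
def FrL (L : E3 →L[ℝ] E3) (s : ℝ) (B : E3 ≃ᵃ[ℝ] E3) : Prop := ∀ x y, s • (B x - B y) = L (x - y)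

theorem FrL.dist {L : E3 →L[ℝ] E3} {s : ℝ} {B : E3 ≃ᵃ[ℝ] E3} (h : FrL L s B) (hs : 0 < s) (x y : E3) :
    ‖L (x - y)‖ = s * dist (B x) (B y) := by
  rw [← h x y, norm_smul, Real.norm_eq_abs, abs_of_pos hs, dist_eq_norm]

theorem FrL.vol {L : E3 →L[ℝ] E3} {s : ℝ} {B : E3 ≃ᵃ[ℝ] E3} (h : FrL L s B) (hs : 0 < s) (S : Set E3) :
    ENNReal.ofReal |L.det| * volume S = ENNReal.ofReal (s ^ 3) * volume (B '' S) := by
  rw [← Measure.addHaar_image_continuousLinearMap]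
  have e : L '' S = s • ((fun y => y + (-B 0)) '' (B '' S)) := by
    ext y
    constructor
    · rintro ⟨x, hx, rfl⟩
      refine ⟨B x + (-B 0), ⟨B x, ⟨x, hx, rfl⟩, rfl⟩, ?_⟩
      have := h x 0
      rw [sub_zero] at this
      change s • (B x + (-B 0)) = _
      rw [← sub_eq_add_neg, this]
    · rintro ⟨_, ⟨_, ⟨x, hx, rfl⟩, rfl⟩, rfl⟩
      refine ⟨x, hx, ?_⟩
      have := h x 0
      rw [sub_zero] at this
      change _ = s • (B x + (-B 0))
      rw [← sub_eq_add_neg, this]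
  rw [e, Measure.addHaar_smul, image_add_right, measure_preimage_add_right]
  congr 2
  rw [Module.finrank_fin_fun, abs_of_pos (by positivity)]

/-- Jensen on `[0,1]` for arbitrary functions -/
theorem lint_rpow_le (f : ℝ → ℝ≥0∞) {p : ℝ} (hp : 1 ≤ p) :
    (∫⁻ τ in Icc (0:ℝ) 1, f τ) ^ p ≤ ∫⁻ τ in Icc (0:ℝ) 1, f τ ^ p := by
  have hp0 : 0 ≤ p := by linarith
  obtain ⟨g, hg, hgf, he⟩ := exists_measurable_le_lintegral_eq (volume.restrict (Icc (0:ℝ) 1)) f
  rw [he]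
  refine le_trans ?_ (lintegral_mono fun τ => ENNReal.rpow_le_rpow (hgf τ) hp0)
  have h1 := Crest.Agent.R96.En3_199.lintegral_rpow_le (ν := volume.restrict (Icc (0:ℝ) 1))
    hg.aemeasurable hp
  have h2 : (volume.restrict (Icc (0:ℝ) 1)) univ = 1 := by simp
  rw [h2, ENNReal.one_rpow, one_mul] at h1
  exact h1

/-! ### families of tiles -/

theorem vol_P_le {H : Finset ((E3 →L[ℝ] ℝ) × ℝ)} (hne : (I H).Nonempty) :
    volume (P H) ≤ volume (I H) := by
  have h1 : Convex ℝ (P H) := convex_P H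
  have h2 : volume (frontier (P H)) = 0 := h1.addHaar_frontier volume
  have h3 : P H ⊆ I H ∪ frontier (P H) := by
    rw [← Nr_527.interior_P' hne, ← closure_eq_interior_union_frontier]
    exact subset_closure
  calc volume (P H) ≤ volume (I H ∪ frontier (P H)) := measure_mono h3
    _ ≤ volume (I H) + volume (frontier (P H)) := measure_union_le _ _
    _ = volume (I H) := by rw [h2, add_zero]

variable {Om : Set E3} {ι : Type*} {T : Tiling Om ι}

/-- a family of tiles with frames proportional to `L` and shapes in the finite list `𝒮` -/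
structure Fam (T : Tiling Om ι) (L : E3 →L[ℝ] E3) (𝒮 : Set (Set E3)) (O : Set ι) (s : ι → ℝ) :
    Prop where
  fin : 𝒮.Finite
  det : L.det ≠ 0
  pos : ∀ t ∈ O, 0 < s t
  fr : ∀ t ∈ O, ∃ B : E3 ≃ᵃ[ℝ] E3, FrL L (s t) B ∧ (fun K => B '' K) '' cfg T t ⊆ 𝒮
  cmp : ∀ t ∈ O, ∀ r ∈ O, (P (T.H t) ∩ P (T.H r)).Nonempty → s t ≤ 2 * s r

namespace Fam

variable {L : E3 →L[ℝ] E3} {𝒮 : Set (Set E3)} {O : Set ι} {s : ι → ℝ}

theorem size (h : Fam T L 𝒮 O s) {t : ι} (ht : t ∈ O) {x y : E3} (hx : x ∈ P (T.H t))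
    (hy : y ∈ P (T.H t)) : ‖L (x - y)‖ ≤ s t * Dsh 𝒮 := by
  obtain ⟨B, hB, hS⟩ := h.fr t ht
  rw [hB.dist (h.pos t ht)]
  exact mul_le_mul_of_nonneg_left (tile_dist_le h.fin hS hx hy) (h.pos t ht).le

theorem vol_le (h : Fam T L 𝒮 O s) {t : ι} (ht : t ∈ O) :
    ENNReal.ofReal |L.det| * volume (P (T.H t)) ≤
      ENNReal.ofReal (s t ^ 3 * (2 * Dsh 𝒮) ^ 3) := by
  obtain ⟨B, hB, hS⟩ := h.fr t ht
  obtain ⟨x, hx⟩ := T.ne t
  rw [hB.vol (h.pos t ht), ENNReal.ofReal_mul (by have := h.pos t ht; positivity)]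
  refine mul_le_mul_right ?_ _
  have h1 : B '' P (T.H t) ⊆ closedBall (B x) (Dsh 𝒮) := by
    rintro _ ⟨y, hy, rfl⟩
    exact tile_dist_le h.fin hS hy (I_sub_P _ hx)
  refine (measure_mono h1).trans ?_
  rw [Real.volume_pi_closedBall _ (Dsh_nonneg 𝒮)]
  simp

theorem vol_ge (h : Fam T L 𝒮 O s) {v : ℝ} (hv : ∀ S ∈ 𝒮, volume S ≠ 0 → ENNReal.ofReal v ≤ volume S)
    {t : ι} (ht : t ∈ O) :
    ENNReal.ofReal (s t ^ 3 * v) ≤ ENNReal.ofReal |L.det| * volume (P (T.H t)) := by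
  obtain ⟨B, hB, hS⟩ := h.fr t ht
  rw [hB.vol (h.pos t ht), ENNReal.ofReal_mul (by have := h.pos t ht; positivity)]
  refine mul_le_mul_right ?_ _
  refine hv _ (hS (mem_image_of_mem _ (tile_mem_cfg T t))) fun h0 => ?_
  have h1 := hB.vol (h.pos t ht) (P (T.H t))
  rw [h0, mul_zero, mul_eq_zero] at h1
  rcases h1 with h1 | h1
  · rw [ENNReal.ofReal_eq_zero] at h1
    exact absurd h1 (not_le.2 (abs_pos.2 h.det))
  · have h2 : 0 < volume (I (T.H t)) := (isOpen_I _).measure_pos volume (T.ne t)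
    exact absurd (measure_mono_null (I_sub_P _) h1) h2.ne'

theorem edge_ge (h : Fam T L 𝒮 O s) {c : ℝ} (hc : ∀ S ∈ 𝒮, 0 < diam S → c ≤ diam S) {t : ι}
    (ht : t ∈ O) {e : Edg T} (he : e ∈ eIn T t) : s t * c ≤ ‖L (ev e)‖ := by
  obtain ⟨B, hB, hS⟩ := h.fr t ht
  have hs := h.pos t ht
  have h0 : ‖L (ev e)‖ = s t * dist (B (ea e + ev e)) (B (ea e)) := by
    rw [← hB.dist hs, add_sub_cancel_left]
  rw [h0]
  refine mul_le_mul_of_nonneg_left ?_ hs.le
  have hmem : (B '' e.1 : Set E3) ∈ 𝒮 := hS (mem_image_of_mem _ (edg_mem_cfg he))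
  have hle : diam (B '' e.1) ≤ dist (B (ea e + ev e)) (B (ea e)) := by
    refine diam_le_of_forall_dist_le dist_nonneg ?_
    rintro _ ⟨x, hx, rfl⟩ _ ⟨y, hy, rfl⟩
    rw [← sgm_edg e] at hx hy
    obtain ⟨τ, hτ, rfl⟩ := hx
    obtain ⟨σ, hσ, rfl⟩ := hy
    have h1 : s t * dist (B (ea e + τ • ev e)) (B (ea e + σ • ev e)) ≤
        s t * dist (B (ea e + ev e)) (B (ea e)) := by
      rw [← hB.dist hs, ← hB.dist hs]
      have e1 : ea e + τ • ev e - (ea e + σ • ev e) = (τ - σ) • ev e := by rw [sub_smul]; abel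
      rw [e1, add_sub_cancel_left, map_smul, norm_smul, Real.norm_eq_abs]
      have : |τ - σ| ≤ 1 := by
        rw [abs_le]; constructor <;> linarith [hτ.1, hτ.2, hσ.1, hσ.2]
      nlinarith [norm_nonneg (L (ev e))]
    exact le_of_mul_le_mul_left h1 hs
  refine le_trans (hc _ hmem ?_) hle
  have hb : Bornology.IsBounded (B '' e.1 : Set E3) :=
    ((isCompact_cfg (edg_mem_cfg he)).image B.continuous_of_finiteDimensional).isBounded
  have h2 := dist_le_diam_of_mem hb (mem_image_of_mem B (eb_mem e)) (mem_image_of_mem B (ea_mem e))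
  refine lt_of_lt_of_le (dist_pos.2 fun h3 => ev_ne e ?_) h2
  have h4 := B.injective h3
  simpa using h4

/-- **multiplicity**: number of tiles of the family at a point -/
theorem mult (h : Fam T L 𝒮 O s) {v : ℝ} (hv0 : 0 < v)
    (hv : ∀ S ∈ 𝒮, volume S ≠ 0 → ENNReal.ofReal v ≤ volume S) (x : E3) (F : Finset ι)
    (hF : ∀ t ∈ F, t ∈ O ∧ x ∈ P (T.H t)) : (F.card : ℝ) ≤ 512 * Dsh 𝒮 ^ 3 / v := by
  classical
  have hD := Dsh_nonneg 𝒮
  rcases F.eq_empty_or_nonempty with rfl | ⟨t0, ht0⟩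
  · simp; positivity
  obtain ⟨hO0, hx0⟩ := hF t0 ht0
  have hs0 := h.pos t0 hO0
  obtain ⟨B, hB, hS⟩ := h.fr t0 hO0
  set Z : Set E3 := {y | ‖L (y - x)‖ ≤ 2 * s t0 * Dsh 𝒮} with hZ
  have hsub : ∀ t ∈ F, I (T.H t) ⊆ Z := by
    intro t ht y hy
    have h1 := h.size (hF t ht).1 (I_sub_P _ hy) (hF t ht).2
    have h2 := h.cmp t (hF t ht).1 t0 hO0 ⟨x, (hF t ht).2, hx0⟩
    exact h1.trans (mul_le_mul_of_nonneg_right h2 hD)
  have hvZ : ENNReal.ofReal |L.det| * volume Z ≤ ENNReal.ofReal (s t0 ^ 3 * (4 * Dsh 𝒮) ^ 3) := by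
    rw [hB.vol hs0, ENNReal.ofReal_mul (by positivity)]
    refine mul_le_mul_right ?_ _
    have h1 : B '' Z ⊆ closedBall (B x) (2 * Dsh 𝒮) := by
      rintro _ ⟨y, hy, rfl⟩
      have hy' : ‖L (y - x)‖ ≤ 2 * s t0 * Dsh 𝒮 := hy
      rw [hB.dist hs0] at hy'
      refine le_of_mul_le_mul_left (hy'.trans (le_of_eq ?_)) hs0
      ring
    refine (measure_mono h1).trans ?_
    rw [Real.volume_pi_closedBall _ (by positivity)]
    simp only [Fintype.card_fin]
    refine ENNReal.ofReal_le_ofReal (le_of_eq ?_)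
    ring
  have hsum : ∑ t ∈ F, volume (P (T.H t)) ≤ volume Z := by
    calc ∑ t ∈ F, volume (P (T.H t)) ≤ ∑ t ∈ F, volume (I (T.H t)) :=
          Finset.sum_le_sum fun t _ => vol_P_le (T.ne t)
      _ = volume (⋃ t ∈ F, I (T.H t)) := (measure_biUnion_finset
          (fun a _ b _ hab => T.dis a b hab) fun t _ => (isOpen_I _).measurableSet).symm
      _ ≤ volume Z := measure_mono (iUnion₂_subset hsub)
  have hlow : ∀ t ∈ F, ENNReal.ofReal ((s t0 / 2) ^ 3 * v) ≤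
      ENNReal.ofReal |L.det| * volume (P (T.H t)) := by
    intro t ht
    refine le_trans (ENNReal.ofReal_le_ofReal ?_) (h.vol_ge hv (hF t ht).1)
    have h2 := h.cmp t0 hO0 t (hF t ht).1 ⟨x, hx0, (hF t ht).2⟩
    have h3 : s t0 / 2 ≤ s t := by linarith
    have := h.pos t (hF t ht).1
    gcongr
  have h4 : ENNReal.ofReal (F.card * ((s t0 / 2) ^ 3 * v)) ≤
      ENNReal.ofReal (s t0 ^ 3 * (4 * Dsh 𝒮) ^ 3) := by
    calc ENNReal.ofReal (F.card * ((s t0 / 2) ^ 3 * v))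
        = ∑ t ∈ F, ENNReal.ofReal ((s t0 / 2) ^ 3 * v) := by
          rw [Finset.sum_const, nsmul_eq_mul, ENNReal.ofReal_mul (Nat.cast_nonneg _),
            ENNReal.ofReal_natCast]
      _ ≤ ∑ t ∈ F, ENNReal.ofReal |L.det| * volume (P (T.H t)) := Finset.sum_le_sum hlow
      _ = ENNReal.ofReal |L.det| * ∑ t ∈ F, volume (P (T.H t)) := by rw [Finset.mul_sum]
      _ ≤ ENNReal.ofReal |L.det| * volume Z := by gcongr
      _ ≤ _ := hvZ
  rw [ENNReal.ofReal_le_ofReal_iff (by positivity)] at h4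
  rw [le_div_iff₀ hv0]
  have h5 : 0 < s t0 ^ 3 := by positivity
  refine le_of_mul_le_mul_left ?_ h5
  nlinarith [h4]

end Fam

end

end Crest.Agent.R096.Ine_222
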