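/-
helper222, row 96, EA0 (p <= 2): energy of the coarse inner tiles of a block from (2b), part 2: the sum.
-/
import Mathlib
import Crest.Agent.R096.Ine1_222

set_option autoImplicit false
set_option linter.unusedSectionVars false

open MeasureTheory Set Filter Metric
open scoped Topology ENNReal Pointwise

namespace Crest.Agent.R096.Ine_222

open Crest.Agent.R096.Msh_715 Crest.Agent.R096.Mal_874 Crest.Agent.R096.Ncl_476
open Crest.Agent.R096.SkC1_961 (E3)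
open Crest.Agent.R96.Sg1_199 (li sgm sgm_eq_segment)
open Crest.Agent.R096.Ls_222 (Edg ea ev eIn mem_eIn sgm_edg ev_ne)

noncomputable section

/-- power of a finite sum -/
theorem sum_rpow_le {η : Type*} (S : Finset η) (f : η → ℝ≥0∞) {n : ℕ} (hn : S.card ≤ n) {p : ℝ}
    (hp : 1 ≤ p) : (∑ j ∈ S, f j) ^ p ≤ (n : ℝ≥0∞) ^ (p - 1) * ∑ j ∈ S, f j ^ p := by
  rcases S.eq_empty_or_nonempty with rfl | hne
  · simp only [Finset.sum_empty]
    rw [ENNReal.zero_rpow_of_pos (by linarith)]; exact zero_le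
  refine (ENNReal.rpow_sum_le_const_mul_sum_rpow S f hp).trans ?_
  gcongr

variable {Om : Set E3} {ι : Type*} {T : Tiling Om ι}
variable {L : E3 →L[ℝ] E3} {𝒮 : Set (Set E3)} {O : Set ι} {s : ι → ℝ}

/-- the constant -/
def Cin (𝒮 : Set (Set E3)) (c v p : ℝ) : ℝ≥0∞ :=
  ((𝒮.ncard : ℕ) : ℝ≥0∞) ^ (p - 1) * ENNReal.ofReal ((2 * Dsh 𝒮) ^ 3 * c ^ (p - 3)) *
    ENNReal.ofReal (512 * Dsh 𝒮 ^ 3 / v)

namespace Fam

/-- volume times the power of the frame -/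
theorem vol_mul (h : Fam T L 𝒮 O s) {c : ℝ} (hc0 : 0 < c)
    (hc : ∀ S ∈ 𝒮, 0 < diam S → c ≤ diam S) {p : ℝ} (hp : 0 ≤ p) (hp3 : p ≤ 3) {t : ι} (ht : t ∈ O)
    {e : Edg T} (he : e ∈ eIn T t) :
    volume (P (T.H t)) * ENNReal.ofReal (‖L‖ / s t) ^ p ≤
      ENNReal.ofReal ((2 * Dsh 𝒮) ^ 3 * c ^ (p - 3)) *
        (ENNReal.ofReal (‖L‖ ^ p / |L.det|) * ENNReal.ofReal (‖L (ev e)‖ ^ (3 - p))) := by
  have hs := h.pos t ht
  have hD := Dsh_nonneg 𝒮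
  have hd : 0 < |L.det| := abs_pos.2 h.det
  have hd0 : ENNReal.ofReal |L.det| ≠ 0 := by
    rw [Ne, ENNReal.ofReal_eq_zero, not_le]; exact hd
  have h1 : volume (P (T.H t)) ≤ ENNReal.ofReal (s t ^ 3 * (2 * Dsh 𝒮) ^ 3 / |L.det|) := by
    rw [ENNReal.ofReal_div_of_pos hd, ENNReal.le_div_iff_mul_le (Or.inl hd0)
      (Or.inl ENNReal.ofReal_ne_top), mul_comm]
    exact h.vol_le ht
  have h2 := h.edge_ge hc ht he
  have h3 : s t ^ (3 - p) ≤ ‖L (ev e)‖ ^ (3 - p) * c ^ (p - 3) := by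
    have h4 : s t ≤ ‖L (ev e)‖ * c⁻¹ := by
      rw [← div_eq_mul_inv, le_div_iff₀ hc0]; exact h2
    calc s t ^ (3 - p) ≤ (‖L (ev e)‖ * c⁻¹) ^ (3 - p) :=
          Real.rpow_le_rpow hs.le h4 (by linarith)
      _ = ‖L (ev e)‖ ^ (3 - p) * c⁻¹ ^ (3 - p) :=
          Real.mul_rpow (norm_nonneg _) (inv_nonneg.2 hc0.le)
      _ = _ := by
          rw [Real.inv_rpow hc0.le, ← Real.rpow_neg hc0.le, neg_sub]
  have h5 : s t ^ 3 * (s t ^ p)⁻¹ = s t ^ (3 - p) := by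
    rw [Real.rpow_sub hs, div_eq_mul_inv]
    norm_cast
  calc volume (P (T.H t)) * ENNReal.ofReal (‖L‖ / s t) ^ p
      ≤ ENNReal.ofReal (s t ^ 3 * (2 * Dsh 𝒮) ^ 3 / |L.det|) * ENNReal.ofReal ((‖L‖ / s t) ^ p) := by
        rw [ENNReal.ofReal_rpow_of_nonneg (by positivity) hp]
        gcongr
    _ = ENNReal.ofReal ((s t ^ 3 * (2 * Dsh 𝒮) ^ 3 / |L.det|) * (‖L‖ / s t) ^ p) := by
        rw [ENNReal.ofReal_mul (by positivity)]
    _ ≤ ENNReal.ofReal (((2 * Dsh 𝒮) ^ 3 * c ^ (p - 3)) * ((‖L‖ ^ p / |L.det|) *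
          ‖L (ev e)‖ ^ (3 - p))) := by
        refine ENNReal.ofReal_le_ofReal ?_
        rw [Real.div_rpow (norm_nonneg _) hs.le]
        calc (s t ^ 3 * (2 * Dsh 𝒮) ^ 3 / |L.det|) * (‖L‖ ^ p / s t ^ p)
            = ((2 * Dsh 𝒮) ^ 3 * (‖L‖ ^ p / |L.det|)) * (s t ^ 3 * (s t ^ p)⁻¹) := by
              rw [div_eq_mul_inv, div_eq_mul_inv, div_eq_mul_inv]; ring
          _ ≤ ((2 * Dsh 𝒮) ^ 3 * (‖L‖ ^ p / |L.det|)) * (‖L (ev e)‖ ^ (3 - p) * c ^ (p - 3)) := by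
              rw [h5]
              exact mul_le_mul_of_nonneg_left h3 (by positivity)
          _ = _ := by ring
    _ = _ := by
        rw [← ENNReal.ofReal_mul (show 0 ≤ ‖L‖ ^ p / |L.det| by positivity),
          ← ENNReal.ofReal_mul (by positivity)]

/-- one tile -/
theorem one (h : Fam T L 𝒮 O s) {c : ℝ} (hc0 : 0 < c)
    (hc : ∀ S ∈ 𝒮, 0 < diam S → c ≤ diam S) {p : ℝ} (hp : 1 ≤ p) (hp3 : p ≤ 3) {t : ι} (ht : t ∈ O)
    (G : E3 → E3 → ℝ≥0∞) (w : E3) :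
    volume (P (T.H t)) * (ENNReal.ofReal (‖L‖ / s t) *
        ∑ e ∈ eIn T t, li (G (ev e)) (ea e + w) (ev e)) ^ p ≤
      ∑ e ∈ eIn T t, (((𝒮.ncard : ℕ) : ℝ≥0∞) ^ (p - 1) *
        ENNReal.ofReal ((2 * Dsh 𝒮) ^ 3 * c ^ (p - 3)) * ENNReal.ofReal (‖L‖ ^ p / |L.det|)) *
        (ENNReal.ofReal (‖L (ev e)‖ ^ (3 - p)) *
          li (fun y => G (ev e) y ^ p) (ea e + w) (ev e)) := by
  have hp0 : 0 ≤ p := by linarith
  obtain ⟨B, hB, hS⟩ := h.fr t ht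
  have hn : (eIn T t).card ≤ 𝒮.ncard := eIn_card_le h.fin hS
  rw [ENNReal.mul_rpow_of_nonneg _ _ hp0, ← mul_assoc]
  calc volume (P (T.H t)) * ENNReal.ofReal (‖L‖ / s t) ^ p *
        (∑ e ∈ eIn T t, li (G (ev e)) (ea e + w) (ev e)) ^ p
      ≤ volume (P (T.H t)) * ENNReal.ofReal (‖L‖ / s t) ^ p *
        (((𝒮.ncard : ℕ) : ℝ≥0∞) ^ (p - 1) *
          ∑ e ∈ eIn T t, li (fun y => G (ev e) y ^ p) (ea e + w) (ev e)) := by
        gcongr
        refine (sum_rpow_le _ _ hn hp).trans ?_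
        gcongr with e _
        exact lint_rpow_le _ hp
    _ = ∑ e ∈ eIn T t, ((𝒮.ncard : ℕ) : ℝ≥0∞) ^ (p - 1) *
          ((volume (P (T.H t)) * ENNReal.ofReal (‖L‖ / s t) ^ p) *
            li (fun y => G (ev e) y ^ p) (ea e + w) (ev e)) := by
        rw [Finset.mul_sum, Finset.mul_sum]
        refine Finset.sum_congr rfl fun e _ => ?_
        ring
    _ ≤ _ := by
        refine Finset.sum_le_sum fun e he => ?_
        refine (mul_le_mul_right (mul_le_mul_left (h.vol_mul hc0 hc hp0 hp3 ht he) _) _).trans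
          (le_of_eq ?_)
        ring

/-- sum over the tiles = sum over the edges, with multiplicity -/
theorem swap (h : Fam T L 𝒮 O s) {v : ℝ} (hv0 : 0 < v)
    (hv : ∀ S ∈ 𝒮, volume S ≠ 0 → ENNReal.ofReal v ≤ volume S) (f : Edg T → ℝ≥0∞) :
    ∑' t : O, ∑ e ∈ eIn T t.1, f e ≤
      ENNReal.ofReal (512 * Dsh 𝒮 ^ 3 / v) * ∑' e : {e : Edg T // ∃ t ∈ O, e ∈ eIn T t}, f e.1 := by
  classical
  have e1 : ∀ t : O, ∑ e ∈ eIn T t.1, f e = ∑' e : Edg T, if e ∈ eIn T t.1 then f e else 0 := by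
    intro t
    rw [tsum_eq_sum (s := eIn T t.1) (fun e he => if_neg he)]
    exact Finset.sum_congr rfl fun e he => (if_pos he).symm
  have e2 : ENNReal.ofReal (512 * Dsh 𝒮 ^ 3 / v) *
      ∑' e : {e : Edg T // ∃ t ∈ O, e ∈ eIn T t}, f e.1 =
      ∑' e : Edg T, {e : Edg T | ∃ t ∈ O, e ∈ eIn T t}.indicator
        (fun e => ENNReal.ofReal (512 * Dsh 𝒮 ^ 3 / v) * f e) e := by
    rw [← ENNReal.tsum_mul_left]
    exact tsum_subtype {e : Edg T | ∃ t ∈ O, e ∈ eIn T t}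
      (fun e => ENNReal.ofReal (512 * Dsh 𝒮 ^ 3 / v) * f e)
  rw [tsum_congr e1, ENNReal.tsum_comm, e2]
  refine ENNReal.tsum_le_tsum fun e => ?_
  by_cases hE : ∃ t ∈ O, e ∈ eIn T t
  · rw [indicator_of_mem (show e ∈ {e : Edg T | ∃ t ∈ O, e ∈ eIn T t} from hE)]
    rw [ENNReal.tsum_eq_iSup_sum]
    refine iSup_le fun F => ?_
    rw [← Finset.sum_filter, Finset.sum_const, nsmul_eq_mul]
    refine mul_le_mul_left ?_ _
    have h1 := h.mult hv0 hv (ea e) ((F.filter fun t => e ∈ eIn T t.1).map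
      (Function.Embedding.subtype _)) (by
        intro t ht
        rw [Finset.mem_map] at ht
        obtain ⟨t', ht', rfl⟩ := ht
        exact ⟨t'.2, mem_eIn.1 (Finset.mem_filter.1 ht').2 (ea_mem e)⟩)
    rw [Finset.card_map] at h1
    rw [← ENNReal.ofReal_natCast]
    exact ENNReal.ofReal_le_ofReal h1
  · rw [indicator_of_notMem (show e ∉ {e : Edg T | ∃ t ∈ O, e ∈ eIn T t} from hE)]
    refine le_of_eq (ENNReal.tsum_eq_zero.2 fun t => if_neg fun ht => hE ⟨t.1, t.2, ht⟩)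

/-- **energy of the tiles of the family** -/
theorem energy (h : Fam T L 𝒮 O s) {c v : ℝ} (hc0 : 0 < c)
    (hc : ∀ S ∈ 𝒮, 0 < diam S → c ≤ diam S) (hv0 : 0 < v)
    (hv : ∀ S ∈ 𝒮, volume S ≠ 0 → ENNReal.ofReal v ≤ volume S) {p : ℝ} (hp : 1 ≤ p) (hp3 : p ≤ 3)
    (G : E3 → E3 → ℝ≥0∞) (w : E3) :
    ∑' t : O, volume (P (T.H t.1)) * (ENNReal.ofReal (‖L‖ / s t.1) *
        ∑ e ∈ eIn T t.1, li (G (ev e)) (ea e + w) (ev e)) ^ p ≤
      Cin 𝒮 c v p * (ENNReal.ofReal (‖L‖ ^ p / |L.det|) *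
        ∑' e : {e : Edg T // ∃ t ∈ O, e ∈ eIn T t}, ENNReal.ofReal (‖L (ev e.1)‖ ^ (3 - p)) *
          li (fun y => G (ev e.1) y ^ p) (ea e.1 + w) (ev e.1)) := by
  refine (ENNReal.tsum_le_tsum fun t : O => h.one hc0 hc hp hp3 t.2 G w).trans ?_
  refine (h.swap hv0 hv _).trans (le_of_eq ?_)
  rw [ENNReal.tsum_mul_left]
  unfold Cin
  ring

end Fam

end

end Crest.Agent.R096.Ine_222
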