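/-
helper222, row 96, EA0 (p <= 2): energy of the coarse inner tiles of a block from (2b), part 3: the
tiling `Q.T k0` of a core block.
-/
import Mathlib
import Crest.Agent.R096.Ine2_222
import Crest.Agent.R096.Ea0_961

set_option autoImplicit false
set_option linter.unusedSectionVars false

open MeasureTheory Set Filter Metric
open scoped Topology ENNReal NNReal Pointwise

namespace Crest.Agent.R096.Ine_222

open Crest.Agent.R096.Msh_715 Crest.Agent.R096.Mal_874 Crest.Agent.R096.Ncl_476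
  Crest.Agent.R096.Msh_810
open Crest.Agent.R096.SkC1_961 (E3)
open Crest.Agent.R96.Sg1_199 (li sgm sgm_eq_segment)
open Crest.Agent.R096.Ls_222 (Edg ea ev eIn mem_eIn sgm_edg ev_ne)
open Crest.Agent.R096.EaX_766 (lin)
open Crest.Agent.R096.Ea0_961 (Ed)

noncomputable section

section blk

variable (Q : CB E3 3) (k : ℕ) (hk : Q.kc ≤ k)

/-- the tiles of the block mesh -/
abbrev Ix : Type := {i // i ∉ {i | P ((Q.T0 k hk).H i) ⊆ Q.S.bp Q.ψ Q.a' Q.kc}} ⊕ Q.S.Ix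

open Classical in
/-- scale of the frame of a tile -/
def kap : Ix Q k hk → ℕ
  | Sum.inl τ => if (P ((Q.T0 k hk).H τ.1) ∩ Q.S.bp Q.ψ Q.a' Q.kc).Nonempty then Q.kc
      else τ.1.1.1.k + 1
  | Sum.inr _ => Q.kc

theorem kap_inl_meet {τ} (h : (P ((Q.T0 k hk).H τ.1) ∩ Q.S.bp Q.ψ Q.a' Q.kc).Nonempty) :
    kap Q k hk (Sum.inl τ) = Q.kc := if_pos h

theorem kap_inl {τ} (h : ¬ (P ((Q.T0 k hk).H τ.1) ∩ Q.S.bp Q.ψ Q.a' Q.kc).Nonempty) :
    kap Q k hk (Sum.inl τ) = τ.1.1.1.k + 1 := if_neg h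

theorem kap_K {t : Ix Q k hk} {x : E3} (hx : x ∈ P ((Q.T k hk).H t)) :
    Crest.Agent.R096.Msh_810.K (Q.D k hk) (Q.ψ x) ≤ kap Q k hk t ∧
      kap Q k hk t ≤ Crest.Agent.R096.Msh_810.K (Q.D k hk) (Q.ψ x) + 1 := by
  rcases t with τ | i
  · by_cases h : (P ((Q.T0 k hk).H τ.1) ∩ Q.S.bp Q.ψ Q.a' Q.kc).Nonempty
    · rw [kap_inl_meet Q k hk h]
      obtain ⟨y, hy1, hy2⟩ := h
      have h1 : Q.near 1 x := by
        have := Q.near_tile k hk hy1 hx (Q.near_of_bp hy2)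
        rwa [zero_add] at this
      rw [(Q.near_K k hk h1).self_of_nhds]
      omega
    · rw [kap_inl Q k hk h]
      have hx' : τ.1 ∈ (tiling Q.ψ (Q.D k hk)).at_ x := hx
      have h1 := tile_k_le hx'
      have h2 := K_le_succ (Msh_810.mem_at.1 hx')
      omega
  · have h1 : Q.near 1 x := by
      have := Q.near_of_bp (Q.P_inr_sub k hk i hx)
      intro l
      have h := this l
      constructor <;> linarith [h.1, h.2]
    rw [(Q.near_K k hk h1).self_of_nhds]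
    change Q.kc ≤ Q.kc ∧ Q.kc ≤ Q.kc + 1
    omega

theorem mem_simL {𝒩 : Finset (Fin 3 → ℝ)} {d : ℕ} {R : ℝ} {K : Set (Set (Fin 3 → ℝ))} :
    K ∈ simL 𝒩 d R ↔ ∀ ⦃S⦄, S ∈ K → S ∈ shpT 𝒩 d R := Iff.rfl

/-- the list of the shapes -/
def SL (Bs : ℕ) : Set (Set E3) := shpT (NB 3 Bs) 1 Bs ∪ shpT (N0 3) 1 2

theorem SL_finite (Bs : ℕ) : (SL Bs).Finite := (shpT_finite _ _ _).union (shpT_finite _ _ _)

theorem frL_chi {A : E3 ≃ᵃ[ℝ] E3} {u : ℝ} (hA : ∀ x : E3, A.linear x = u • Q.ψ x) (m : ℕ)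
    (z : Fin 3 → ℤ) : FrL (lin A) (u / 2 ^ m) ((chi Q.ψ Q.a' m).trans (trz z)) := by
  intro x y
  have e : lin A (x - y) = u • Q.ψ (x - y) := hA (x - y)
  rw [e]
  ext l
  rw [AffineEquiv.trans_apply, AffineEquiv.trans_apply, trz_apply, trz_apply, Pi.smul_apply,
    Pi.sub_apply, Pi.smul_apply, chi_apply, chi_apply, map_sub, Pi.sub_apply, smul_eq_mul,
    smul_eq_mul]
  field_simp
  ring

theorem det_ne (A : E3 ≃ᵃ[ℝ] E3) : (lin A).det ≠ 0 :=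
  (LinearEquiv.isUnit_det' A.linear).ne_zero

/-- **the family of the tiles of the block** (without the core) -/
theorem fam {Bs : ℕ} (hB1 : 1 ≤ Bs) {A : E3 ≃ᵃ[ℝ] E3} {u : ℝ} (hu : 0 < u)
    (hA : ∀ x : E3, A.linear x = u • Q.ψ x)
    (hB : ∀ i, ∀ p ∈ Q.S.GG i, ∀ l, |p.1 l| ≤ Bs)
    (hR : ∀ i, i ≠ Q.S.core → ∀ v ∈ ZP (Q.S.GG i), ∀ w ∈ ZP (Q.S.GG i), ∀ l, |w l - v l| ≤ Bs) :
    Fam (Q.T k hk) (lin A) (SL Bs) {t | t ≠ Q.cix k hk} (fun t => u / 2 ^ kap Q k hk t) where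
  fin := SL_finite Bs
  det := det_ne A
  pos := fun t _ => by positivity
  fr := by
    intro t ht
    have hB1' : (1:ℝ) ≤ Bs := by exact_mod_cast hB1
    by_cases hb : (P ((Q.T k hk).H t) ∩ Q.S.bp Q.ψ Q.a' Q.kc).Nonempty
    · obtain ⟨z, hz⟩ := Q.near_sim k hk hB1 hB hB1' hR hb ht
      refine ⟨(chi Q.ψ Q.a' (kap Q k hk t)).trans (trz z), frL_chi Q hA _ z, ?_⟩
      have e : kap Q k hk t = Q.kc := by
        rcases t with τ | i
        · exact kap_inl_meet Q k hk hb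
        · rfl
      rw [e]
      intro K hK
      exact Or.inl (mem_simL.1 hz hK)
    · rcases t with τ | i
      · have h1 : Disjoint (P ((Q.T0 k hk).H τ.1)) (Q.S.bp Q.ψ Q.a' Q.kc) := by
          rw [Set.disjoint_iff_inter_eq_empty, ← Set.not_nonempty_iff_eq_empty]
          exact hb
        obtain ⟨z, hz⟩ := sim_univ Q.ψ (Q.D k hk) τ.1
        refine ⟨(chi Q.ψ Q.a' (kap Q k hk (Sum.inl τ))).trans (trz z), frL_chi Q hA _ z, ?_⟩
        rw [kap_inl Q k hk hb, Q.cfg_far k hk h1]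
        intro K hK
        exact Or.inr (mem_simL.1 hz hK)
      · exfalso
        apply hb
        obtain ⟨y, hy⟩ := (Q.T k hk).ne (Sum.inr i)
        exact ⟨y, I_sub_P _ hy, Q.P_inr_sub k hk i (I_sub_P _ hy)⟩
  cmp := by
    rintro t - r - ⟨x, hxt, hxr⟩
    have h1 := (kap_K Q k hk hxt).1
    have h2 := (kap_K Q k hk hxr).2
    have h3 : kap Q k hk r ≤ kap Q k hk t + 1 := by omega
    have h4 : (2:ℝ) ^ kap Q k hk r ≤ 2 * 2 ^ kap Q k hk t := by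
      calc (2:ℝ) ^ kap Q k hk r ≤ 2 ^ (kap Q k hk t + 1) := pow_le_pow_right₀ (by norm_num) h3
        _ = 2 * 2 ^ kap Q k hk t := by ring
    rw [← mul_div_assoc, div_le_div_iff₀ (by positivity) (by positivity)]
    nlinarith

end blk

theorem Fam.mono {Om : Set E3} {ι : Type*} {T : Tiling Om ι} {L : E3 →L[ℝ] E3} {𝒮 : Set (Set E3)}
    {O O' : Set ι} {s : ι → ℝ} (h : Fam T L 𝒮 O s) (hO : O' ⊆ O) : Fam T L 𝒮 O' s where
  fin := h.fin
  det := h.det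
  pos := fun t ht => h.pos t (hO ht)
  fr := fun t ht => h.fr t (hO ht)
  cmp := fun t ht r hr => h.cmp t (hO ht) r (hO hr)

/-- **[INE]: energy of the inner tiles of the block mesh, by (2b) of `Ea0_961.InS`.** -/
theorem ine {Bs : ℕ} (hB1 : 1 ≤ Bs) {p : ℝ} (hp : 1 ≤ p) (hp3 : p ≤ 3) : ∃ C : ℝ≥0, 0 < C ∧
    ∀ (Q : CB E3 3) (k : ℕ) (hk : Q.kc ≤ k) (A : E3 ≃ᵃ[ℝ] E3) (u : ℝ), 0 < u →
      (∀ x : E3, A.linear x = u • Q.ψ x) → (∀ i, ∀ p ∈ Q.S.GG i, ∀ l, |p.1 l| ≤ Bs) →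
      (∀ i, i ≠ Q.S.core → ∀ v ∈ ZP (Q.S.GG i), ∀ w ∈ ZP (Q.S.GG i), ∀ l, |w l - v l| ≤ Bs) →
    ∀ (D : E3 → E3 →L[ℝ] E3) (w : E3),
      ∑' t : {t // P ((Q.T k hk).H t) ⊆ Q.N ∧ t ≠ Q.cix k hk}, volume (P ((Q.T k hk).H t.1)) *
        (ENNReal.ofReal (‖lin A‖ / (u / 2 ^ kap Q k hk t.1)) *
          ∑ e ∈ eIn (Q.T k hk) t.1, li (fun y => ‖D y (ev e)‖ₑ) (ea e + w) (ev e)) ^ p ≤
      C * (ENNReal.ofReal (‖lin A‖ ^ p / |(lin A).det|) *
        ∑' e : Ed Q k hk, ENNReal.ofReal (‖lin A (e.1.2 - e.1.1)‖ ^ (3 - p)) *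
          (∫⁻ τ in Icc (0:ℝ) 1, ‖D (e.1.1 + w + τ • (e.1.2 - e.1.1)) (e.1.2 - e.1.1)‖ₑ ^ p)) := by
  obtain ⟨c, hc0, hc⟩ := exists_diam_lb (SL_finite Bs)
  obtain ⟨v, hv0, hv⟩ := exists_vol_lb (volume : Measure E3) (SL_finite Bs)
  have hCt : Cin (SL Bs) c v p ≠ ∞ := by
    unfold Cin
    refine ENNReal.mul_ne_top (ENNReal.mul_ne_top ?_ ENNReal.ofReal_ne_top) ENNReal.ofReal_ne_top
    exact ENNReal.rpow_ne_top_of_nonneg (by linarith) (ENNReal.natCast_ne_top _)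
  refine ⟨(Cin (SL Bs) c v p).toNNReal + 1, by positivity, ?_⟩
  intro Q k hk A u hu hA hB hR D w
  have hF := (fam Q k hk hB1 hu hA hB hR).mono
    (O' := {t | P ((Q.T k hk).H t) ⊆ Q.N ∧ t ≠ Q.cix k hk}) (fun t ht => ht.2)
  refine (hF.energy hc0 hc hv0 hv hp hp3 (fun v y => ‖D y v‖ₑ) w).trans ?_
  have hC : Cin (SL Bs) c v p ≤ (((Cin (SL Bs) c v p).toNNReal + 1 : ℝ≥0) : ℝ≥0∞) := by
    rw [ENNReal.coe_add, ENNReal.coe_toNNReal hCt]
    exact le_self_add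
  refine mul_le_mul' hC (mul_le_mul' le_rfl ?_)
  set E' := {e : Edg (Q.T k hk) // ∃ t ∈ {t | P ((Q.T k hk).H t) ⊆ Q.N ∧ t ≠ Q.cix k hk},
    e ∈ eIn (Q.T k hk) t} with hE'
  have hmem : ∀ e : E', (ea e.1, ea e.1 + ev e.1) ∈ Ed Q k hk := by
    rintro ⟨e, t, ht, he⟩
    have h1 : segment ℝ (ea e) (ea e + ev e) = e.1 := by rw [← sgm_eq_segment, sgm_edg]
    obtain ⟨x, hx, hd, hex⟩ := e.2
    refine ⟨x, hd, ?_, ?_⟩
    · change (Q.T k hk).cc x = segment ℝ (ea e) (ea e + ev e)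
      rw [h1, hex]
    · change segment ℝ (ea e) (ea e + ev e) ⊆ Q.N
      rw [h1]
      exact (mem_eIn.1 he).trans ht.1
  have hinj : Function.Injective (fun e : E' => (⟨(ea e.1, ea e.1 + ev e.1), hmem e⟩ :
      Ed Q k hk)) := by
    intro e e' hee
    have h1 := congrArg Subtype.val hee
    simp only [Prod.mk.injEq] at h1
    have h2 : ev e.1 = ev e'.1 := by
      have := h1.2
      rw [h1.1] at this
      exact add_left_cancel this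
    apply Subtype.ext
    apply Subtype.ext
    rw [← sgm_edg e.1, ← sgm_edg e'.1, h1.1, h2]
  have h3 := ENNReal.tsum_comp_le_tsum_of_injective hinj (fun e : Ed Q k hk =>
    ENNReal.ofReal (‖lin A (e.1.2 - e.1.1)‖ ^ (3 - p)) *
      (∫⁻ τ in Icc (0:ℝ) 1, ‖D (e.1.1 + w + τ • (e.1.2 - e.1.1)) (e.1.2 - e.1.1)‖ₑ ^ p))
  refine le_trans (le_of_eq ?_) h3
  refine tsum_congr fun e => ?_
  simp only [add_sub_cancel_left]
  rfl

end

end Crest.Agent.R096.Ine_222
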