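import Crest.Agent.R096.Mfi5_290

/-!
# Row 96, instance of `Pm_199.MF`, inner half, part 6: numbers of the record `QI`

Edges of the coarse classes are 1-cells of 874's tiling `(M.Q j).T k0`; sizes, frames, position of
the potential tiles; different potential tiles of one mesh are essentially disjoint.
-/

set_option autoImplicit false
set_option linter.unusedSectionVars false

open MeasureTheory Set Filter Metric
open scoped Topology ENNReal

namespace Crest.Agent.R096.Mfi_290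

open Msh_715 Cut_874 Msh_810 Mal_874
open Crest.Agent.R096.SkC1_961 (E3 Cfg)
open Crest.Agent.R96.Pm_199 (sh)
open Crest.Agent.R96.Sg1_199 (li sgm)

/-! ### a closed cell which is a segment is 1-dimensional -/

theorem mem_sgm_iff {E : Type*} [NormedAddCommGroup E] [NormedSpace ℝ E] {p v y : E} :
    y ∈ sgm p v ↔ ∃ t ∈ Icc (0 : ℝ) 1, y = p + t • v := by
  unfold sgm
  constructor
  · rintro ⟨t, ht, rfl⟩
    exact ⟨t, ht, rfl⟩
  · rintro ⟨t, ht, rfl⟩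
    exact ⟨t, ht, rfl⟩

theorem dim_of_sgm {E : Type*} [NormedAddCommGroup E] [NormedSpace ℝ E] {Om : Set E} {ι : Type*}
    {T : Tiling Om ι} {x p v : E} (hx : x ∈ Om) (hv : v ≠ 0) (h : T.cc x = sgm p v) :
    T.dim x = 1 := by
  have hV : T.V x = Submodule.span ℝ {v} := by
    rw [Mfe_161.V_eq_span T hx]
    obtain ⟨t0, ht0, e0⟩ := mem_sgm_iff.1 (h ▸ T.self_mem_cc x)
    apply le_antisymm
    · rw [Submodule.span_le]
      intro u hu
      have hu' : x + u ∈ T.cc x := hu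
      rw [h] at hu'
      obtain ⟨t, ht, e⟩ := mem_sgm_iff.1 hu'
      rw [SetLike.mem_coe, Submodule.mem_span_singleton]
      refine ⟨t - t0, ?_⟩
      have : u = (p + t • v) - x := by rw [← e]; abel
      rw [this, e0, sub_smul]
      abel
    · rw [Submodule.span_le, singleton_subset_iff]
      have h0 : -(t0 • v) ∈ Submodule.span ℝ {u | x + u ∈ T.cc x} := by
        refine Submodule.subset_span ?_
        show x + -(t0 • v) ∈ T.cc x
        rw [h]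
        refine mem_sgm_iff.2 ⟨0, ⟨le_rfl, zero_le_one⟩, ?_⟩
        rw [e0, zero_smul]
        abel
      have h1 : (1 - t0) • v ∈ Submodule.span ℝ {u | x + u ∈ T.cc x} := by
        refine Submodule.subset_span ?_
        show x + (1 - t0) • v ∈ T.cc x
        rw [h]
        refine mem_sgm_iff.2 ⟨1, ⟨zero_le_one, le_rfl⟩, ?_⟩
        rw [e0, one_smul, sub_smul, one_smul]
        abel
      have h2 := Submodule.sub_mem _ h1 h0
      have e : (1 - t0) • v - -(t0 • v) = v := by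
        rw [sub_neg_eq_add, ← add_smul, sub_add_cancel, one_smul]
      rw [e] at h2
      exact h2
  unfold Tiling.dim
  rw [hV]
  exact finrank_span_singleton hv

noncomputable section

variable {J : Type} (M : MD E3 3 J) (X : RD M) (j : J) (k0 : ℕ) (hk0 : (M.Q j).kc ≤ k0)

/-! ### edges of the coarse classes -/

/-- **the potential edges of a coarse tile are 1-cells of `(M.Q j).T k0`** -/
theorem edge_coarse {𝒦 : Set (Set E3)} {U : Set E3} (h𝒦 : 𝒦.Countable) (hU : U.Countable)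
    {t : Pt (M.Q j)} (hc : Coarse M k0 j t) {K : Sgt 𝒦 U}
    (hK : K ∈ ((QI M X j k0 hk0).toPT 𝒦 U h𝒦 hU).Ed t) :
    ∃ i0, P (((M.Q j).T k0 hk0).H i0) = til (M.Q j) t ∧
      ∃ x ∈ P (((M.Q j).T k0 hk0).H i0), ((M.Q j).T k0 hk0).cc x = K.1 ∧
        ((M.Q j).T k0 hk0).dim x = 1 := by
  obtain ⟨h1, -, h3⟩ := RT.mem_Ed (QI M X j k0 hk0) 𝒦 U h𝒦 hU hK
  obtain ⟨c, ⟨hc1, -⟩, hc2⟩ := h3
  have ecl : (QI M X j k0 hk0).cl t = Sum.inl t := if_pos hc
  rw [ecl] at hc1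
  obtain ⟨⟨i0, h4, h5⟩, -⟩ := hc1
  rw [h5] at hc2
  obtain ⟨_, ⟨x, hx, rfl⟩, h6⟩ := hc2
  refine ⟨i0, h4, x, hx, ?_, ?_⟩
  · rw [K.p_eq]
    exact (qfr M j t).injective.image_injective h6
  · refine dim_of_sgm (p := K.p.1) (((M.Q j).T k0 hk0).sub i0 hx) h1 ?_
    exact (qfr M j t).injective.image_injective h6

/-- the potential edges of one potential tile are different sets -/
theorem edge_inj {𝒦 : Set (Set E3)} {U : Set E3} {K K' : Sgt 𝒦 U} (h : K.1 = K'.1) : K = K' :=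
  Subtype.ext h

/-- the number of potential edges of a potential tile is bounded by a universal number -/
theorem card_QI {𝒦 : Set (Set E3)} {U : Set E3} (h𝒦 : 𝒦.Countable) (hU : U.Countable)
    (t : Pt (M.Q j)) : (((QI M X j k0 hk0).toPT 𝒦 U h𝒦 hU).Ed t).card ≤
      (shpT (N0 3) 1 2 ∪ shpT (NB 3 (X.B j)) 1 (X.R j)).ncard := by
  refine (RT.card_Ed_le (QI M X j k0 hk0) 𝒦 U h𝒦 hU t).trans ?_
  refine Set.ncard_le_ncard ?_ ((shpT_finite _ _ _).union (shpT_finite _ _ _))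
  rintro K ⟨c, ⟨hc, -⟩, hK⟩
  rcases qSh_sub M X j k0 hk0 _ hc with h | h
  · exact Or.inl (h hK)
  · exact Or.inr (h hK)

/-! ### sizes -/

/-- the frame of a potential cube in the coordinates `ψ` -/
theorem cube_dist {n : ℕ} {E : Type*} [NormedAddCommGroup E] [NormedSpace ℝ E] {Q : CB E n} {m : ℕ}
    {z : Fin n → ℤ} {x y : E} (hx : x ∈ cube Q m z) (hy : y ∈ cube Q m z) :
    dist (Q.ψ x) (Q.ψ y) ≤ 1 / 2 ^ m := dist_cube hx hy

/-- the size of a tile of the shell in the coordinates `ψ` -/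
theorem pol_dist (hX : ∀ s, s ≠ (M.Q j).S.core → ∀ u ∈ ZP ((M.Q j).S.GG s), ∀ v ∈ ZP ((M.Q j).S.GG s),
      ∀ l, |v l - u l| ≤ X.R j) {s : (M.Q j).S.Ix} (hs : s ≠ (M.Q j).S.core) {x y : E3}
    (hx : x ∈ pol (M.Q j) s) (hy : y ∈ pol (M.Q j) s) :
    dist ((M.Q j).ψ x) ((M.Q j).ψ y) ≤ X.R j / 2 ^ (M.Q j).kc := by
  have hR : 0 ≤ X.R j := zero_le_one.trans (X.R1 j)
  have hp : (0 : ℝ) < 2 ^ (M.Q j).kc := by positivity
  rw [dist_pi_le_iff (by positivity)]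
  intro l
  have h1 := hX s hs _ hy _ hx l
  have e : ps (M.Q j).a' (M.Q j).kc ((M.Q j).ψ x) l - ps (M.Q j).a' (M.Q j).kc ((M.Q j).ψ y) l =
      2 ^ (M.Q j).kc * ((M.Q j).ψ x l - (M.Q j).ψ y l) := by
    unfold ps
    ring
  rw [e, abs_mul, abs_of_pos hp] at h1
  rw [Real.dist_eq, le_div_iff₀' hp]
  exact h1

/-- **size of a used potential tile in the coordinates of the block** -/
theorem til_dist {t : Pt (M.Q j)} (hu : (qAc M j t).Nonempty) {x y : E3}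
    (hx : x ∈ til (M.Q j) t) (hy : y ∈ til (M.Q j) t) :
    dist ((M.Q j).ψ x) ((M.Q j).ψ y) ≤ X.R j / 2 ^ sca M j t := by
  rcases t with p | s
  · refine (cube_dist hx hy).trans ?_
    exact div_le_div_of_nonneg_right (X.R1 j) (by positivity)
  · obtain ⟨b, hb⟩ := hu
    exact pol_dist M X j (X.hR j) hb.2 hx hy

/-- scale of a used potential tile -/
theorem kc_le_sca {t : Pt (M.Q j)} (hu : (qAc M j t).Nonempty) : (M.Q j).kc ≤ sca M j t := by
  rcases t with p | s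
  · obtain ⟨b, -, ⟨⟨k, hk, hM⟩, -⟩, -⟩ := hu
    exact (M.Q j).kc_le k hk (τ := ⟨⟨⟨p.1, p.2, Finset.univ⟩, hM⟩, rfl⟩)
  · exact le_rfl

/-- **norm of the frame of a used potential tile** -/
theorem qβ_le {t : Pt (M.Q j)} (hu : (qAc M j t).Nonempty) :
    qβ M j t ≤ 2 * 2 ^ sca M j t * ‖((M.Q j).ψ : E3 →L[ℝ] (Fin 3 → ℝ))‖ := by
  have hk := kc_le_sca M j hu
  have h0 := norm_nonneg ((M.Q j).ψ : E3 →L[ℝ] (Fin 3 → ℝ))
  have h1 : (2 : ℝ) ^ (M.Q j).kc ≤ 2 ^ sca M j t := pow_le_pow_right₀ (by norm_num) hk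
  have h2 : (0 : ℝ) < 2 ^ sca M j t := by positivity
  have key : (2 : ℝ) ^ (M.Q j).kc * ‖((M.Q j).ψ : E3 →L[ℝ] (Fin 3 → ℝ))‖ ≤
      2 * 2 ^ sca M j t * ‖((M.Q j).ψ : E3 →L[ℝ] (Fin 3 → ℝ))‖ :=
    mul_le_mul_of_nonneg_right (by linarith) h0
  rcases t with p | s
  · by_cases h : kd M j (Sum.inl p) = Kd.far
    · have e : qβ M j (Sum.inl p) =
          2 ^ (p.1 + 1) * ‖((M.Q j).ψ : E3 →L[ℝ] (Fin 3 → ℝ))‖ := if_pos h
      rw [e, pow_succ, mul_comm ((2 : ℝ) ^ p.1) 2]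
      exact le_rfl
    · have e : qβ M j (Sum.inl p) =
          2 ^ (M.Q j).kc * ‖((M.Q j).ψ : E3 →L[ℝ] (Fin 3 → ℝ))‖ := if_neg h
      rw [e]
      exact key
  · exact key

/-- **`β · |ψ v| ≤ 2 R ‖ψ‖`** for the potential edges of a used potential tile -/
theorem beta_edge {t : Pt (M.Q j)} (hu : (qAc M j t).Nonempty) {x v : E3}
    (hsub : sgm x v ⊆ til (M.Q j) t) :
    qβ M j t * ‖(M.Q j).ψ v‖ ≤ 2 * X.R j * ‖((M.Q j).ψ : E3 →L[ℝ] (Fin 3 → ℝ))‖ := by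
  have h1 : x ∈ til (M.Q j) t := hsub (mem_sgm_iff.2 ⟨0, ⟨le_rfl, zero_le_one⟩, by simp⟩)
  have h2 : x + v ∈ til (M.Q j) t := hsub (mem_sgm_iff.2 ⟨1, ⟨zero_le_one, le_rfl⟩, by simp⟩)
  have h3 := til_dist M X j hu h2 h1
  rw [dist_eq_norm, ← map_sub, add_sub_cancel_left] at h3
  have hp : (0 : ℝ) < 2 ^ sca M j t := by positivity
  have hR : 0 ≤ X.R j := zero_le_one.trans (X.R1 j)
  have h0 := norm_nonneg ((M.Q j).ψ : E3 →L[ℝ] (Fin 3 → ℝ))
  calc qβ M j t * ‖(M.Q j).ψ v‖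
      ≤ (2 * 2 ^ sca M j t * ‖((M.Q j).ψ : E3 →L[ℝ] (Fin 3 → ℝ))‖) * (X.R j / 2 ^ sca M j t) :=
        mul_le_mul (qβ_le M j hu) h3 (norm_nonneg _) (by positivity)
    _ = 2 * X.R j * ‖((M.Q j).ψ : E3 →L[ℝ] (Fin 3 → ℝ))‖ := by field_simp

/-! ### position -/

/-- a used potential tile lies in the block -/
theorem til_sub {t : Pt (M.Q j)} (hu : (qAc M j t).Nonempty) : til (M.Q j) t ⊆ (M.Q j).N := by
  rcases t with p | s
  · obtain ⟨b, -, ⟨-, h, -⟩, -⟩ := hu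
    exact h
  · intro y hy
    have h2 : y ∈ P (((M.Q j).T (M.Q j).kc le_rfl).H (Sum.inr s)) := by
      rw [CB.T_inr, mem_P_iH]
      exact hy
    exact (M.Q j).bp_sub_N ((M.Q j).P_inr_sub _ le_rfl s h2)

/-- potential tiles are closed -/
theorem isClosed_til {n : ℕ} {E : Type*} [NormedAddCommGroup E] [NormedSpace ℝ E] (Q : CB E n)
    (t : Pt Q) : IsClosed (til Q t) := by
  rcases t with p | s
  · have h : til Q (Sum.inl p) = P (Hc Q.ψ Q.a' p.1 p.2) := (P_Hc Q.ψ Q.a' p.1 p.2).symm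
    rw [h]
    exact isClosed_P _
  · have h : til Q (Sum.inr s) = P (iH Q.ψ Q.a' Q.kc (Q.S.GG s)) := by
      ext y
      rw [mem_P_iH]
      rfl
    rw [h]
    exact isClosed_P _

/-- a used cube of scale `> kc` is near the wall -/
theorem use_near {n : ℕ} [NeZero n] {E : Type*} [NormedAddCommGroup E] [NormedSpace ℝ E]
    {Q : CB E n} {p : ℕ × (Fin n → ℤ)} (h : Use Q p) (hp : Q.kc < p.1) {x : E}
    (hx : x ∈ cube Q p.1 p.2) : infDist (Q.ψ x) Q.W ≤ 14 / 2 ^ p.1 := by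
  obtain ⟨⟨k, hk, hM⟩, -⟩ := h
  exact layer hM hp hx

/-- cubes of one scale have disjoint open cubes -/
theorem cube_disj {n : ℕ} {E : Type*} [NormedAddCommGroup E] [NormedSpace ℝ E] (Q : CB E n) (m : ℕ)
    {z z' : Fin n → ℤ} (h : z ≠ z') : Disjoint (I (Hc Q.ψ Q.a' m z)) (I (Hc Q.ψ Q.a' m z')) := by
  rw [I_Hc, I_Hc, Set.disjoint_left]
  intro x hx hx'
  apply h
  funext l
  have h1 := (hx l).1 (Finset.mem_univ l)
  have h2 := (hx' l).1 (Finset.mem_univ l)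
  have h3 : ⌊ps Q.a' m (Q.ψ x) l⌋ = z l := Int.floor_eq_iff.2 ⟨h1.1.le, h1.2⟩
  have h4 : ⌊ps Q.a' m (Q.ψ x) l⌋ = z' l := Int.floor_eq_iff.2 ⟨h2.1.le, h2.2⟩
  rw [← h3, h4]

end

end Crest.Agent.R096.Mfi_290
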