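/-
helper222, row 96, EA0 (p <= 2), [E6] COARSE0: the energy of the coarse classes of 290's `QI` is bounded by
(2b) of `Ea0_961.InS`.
-/
import Mathlib
import Crest.Agent.R096.Mfi6_290
import Crest.Agent.R096.Ine3_222
import Crest.Agent.R096.Eds1_746

set_option autoImplicit false
set_option linter.unusedSectionVars false

open MeasureTheory Set Filter Metric
open scoped Topology ENNReal NNReal

namespace Crest.Agent.R096.Qc_222

open Crest.Agent.R096.Msh_715 Crest.Agent.R096.Mal_874 Crest.Agent.R096.Ncl_476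
  Crest.Agent.R096.Msh_810 Crest.Agent.R096.Ine_222 Crest.Agent.R096.Mfi_290
open Crest.Agent.R096.SkC1_961 (E3 Cfg)
open Crest.Agent.R96.Sg1_199 (li sgm sgm_eq_segment)
open Crest.Agent.R096.Ls_222 (Edg ea ev eIn mem_eIn sgm_edg ev_ne sgm_cases)
open Crest.Agent.R096.EaX_766 (lin)
open Crest.Agent.R096.Ea0_961 (Ed InS Tw)
open Crest.Agent.R096.Pmc_112 (Gd')

noncomputable section

/-! ### cubes determine their names -/

theorem cube_inj (Q : CB E3 3) {m m' : ℕ} {z z' : Fin 3 → ℤ} (h : cube Q m z = cube Q m' z') :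
    m = m' ∧ z = z' := by
  have hp : ∀ m : ℕ, (0 : ℝ) < 2 ^ m := fun m => by positivity
  -- corners
  have hlo : ∀ (m : ℕ) (z : Fin 3 → ℤ) (ε : ℝ), 0 ≤ ε → ε ≤ 1 →
      Q.ψ.symm (fun i => Q.a' i + (z i + ε) / 2 ^ m) ∈ cube Q m z := by
    intro m z ε h0 h1
    change Q.ψ (Q.ψ.symm _) ∈ Cu Q.a' m z
    rw [ContinuousLinearEquiv.apply_symm_apply, mem_Cu]
    intro i
    have e : ps Q.a' m (fun i => Q.a' i + (z i + ε) / 2 ^ m) i = z i + ε := by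
      unfold ps
      have := (hp m).ne'
      field_simp
      ring
    rw [e]
    constructor <;> linarith
  have hin : ∀ (m m' : ℕ) (z z' : Fin 3 → ℤ), cube Q m z ⊆ cube Q m' z' → ∀ i,
      (z' i : ℝ) / 2 ^ m' ≤ z i / 2 ^ m ∧ (z i + 1 : ℝ) / 2 ^ m ≤ (z' i + 1) / 2 ^ m' := by
    intro m m' z z' hs i
    have key : ∀ ε : ℝ, 0 ≤ ε → ε ≤ 1 →
        (z' i : ℝ) / 2 ^ m' ≤ (z i + ε) / 2 ^ m ∧ (z i + ε) / 2 ^ m ≤ (z' i + 1) / 2 ^ m' := by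
      intro ε h0 h1
      have h2 : Q.ψ (Q.ψ.symm _) ∈ Cu Q.a' m' z' := hs (hlo m z ε h0 h1)
      rw [ContinuousLinearEquiv.apply_symm_apply, mem_Cu] at h2
      have h3 := h2 i
      have e : ps Q.a' m' (fun i => Q.a' i + (z i + ε) / 2 ^ m) i = 2 ^ m' * ((z i + ε) / 2 ^ m) := by
        unfold ps
        ring
      rw [e] at h3
      constructor
      · rw [div_le_iff₀ (hp m'), mul_comm]; exact h3.1
      · rw [le_div_iff₀ (hp m'), mul_comm]; exact h3.2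
    have k0 := key 0 le_rfl zero_le_one
    have k1 := key 1 zero_le_one le_rfl
    rw [add_zero] at k0
    exact ⟨k0.1, k1.2⟩
  have h1 := hin m m' z z' h.subset
  have h2 := hin m' m z' z h.symm.subset
  have e0 : ∀ i, (z i : ℝ) / 2 ^ m = z' i / 2 ^ m' := fun i => le_antisymm (h2 i).1 (h1 i).1
  have e1 : ∀ i, (z i + 1 : ℝ) / 2 ^ m = (z' i + 1) / 2 ^ m' := fun i =>
    le_antisymm (h1 i).2 (h2 i).2
  have e2 : (1 : ℝ) / 2 ^ m = 1 / 2 ^ m' := by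
    have a0 := e0 0
    have a1 := e1 0
    rw [add_div, add_div, a0] at a1
    linarith
  have e3 : (2 : ℝ) ^ m = 2 ^ m' := by
    rw [one_div, one_div] at e2
    exact inv_injective e2
  have em : m = m' := pow_right_injective₀ (by norm_num : (0:ℝ) < 2) (by norm_num) e3
  refine ⟨em, ?_⟩
  subst em
  funext i
  have := e0 i
  rw [div_left_inj' (hp m).ne'] at this
  exact_mod_cast this

/-- evenness and the ends of a segment -/
theorem li_even {G : E3 → E3 → ℝ≥0∞} (hG : ∀ v y, G (-v) y = G v y) {x v x' v' : E3} (hv : v ≠ 0)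
    (h : sgm x v = sgm x' v') (s : E3) : li (G v) (x + s) v = li (G v') (x' + s) v' := by
  rcases sgm_cases hv h with ⟨rfl, rfl⟩ | ⟨rfl, rfl⟩
  · rfl
  · have e : G (-v) = G v := funext (hG v)
    rw [e, show x + v + s = (x + s) + v by abel]
    exact (Ls_222.li_rev (G v) (x + s) v).symm

theorem norm_lin {Q : CB E3 3} {A : E3 ≃ᵃ[ℝ] E3} {u : ℝ} (hu : 0 < u)
    (hA : ∀ x : E3, A.linear x = u • Q.ψ x) : ‖lin A‖ = u * ‖(Q.ψ : E3 →L[ℝ] E3)‖ := by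
  have e : lin A = u • (Q.ψ : E3 →L[ℝ] E3) := by
    ext1 x
    exact hA x
  rw [e, norm_smul, Real.norm_eq_abs, abs_of_pos hu]

section main

variable {J : Type} (M : MD E3 3 J) (X : RD M) (j : J) (k0 : ℕ) (hk0 : (M.Q j).kc ≤ k0)

/-- the tile of `T k0` of a used coarse potential tile with an edge -/
theorem exists_tile {t : Pt (M.Q j)} (hu : (qAc M j t).Nonempty)
    {i0 : TIx (M.Q j) k0 hk0} (h : P (((M.Q j).T k0 hk0).H i0) = til (M.Q j) t) :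
    nm (M.Q j) k0 hk0 i0 = t ∧ P (((M.Q j).T k0 hk0).H i0) ⊆ (M.Q j).N ∧
      i0 ≠ (M.Q j).cix k0 hk0 := by
  have hN : P (((M.Q j).T k0 hk0).H i0) ⊆ (M.Q j).N := by
    rw [h]
    exact til_sub M j hu
  rcases t with p | s'
  · obtain ⟨b, -, ⟨-, -, hbp⟩, -⟩ := hu
    rcases i0 with τ | s
    · have h1 : cube (M.Q j) τ.1.1.1.k τ.1.1.1.z = cube (M.Q j) p.1 p.2 := by
        have h2 := P_nm (M.Q j) k0 hk0 (Sum.inl τ)
        exact h2.symm.trans h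
      obtain ⟨e1, e2⟩ := cube_inj (M.Q j) h1
      refine ⟨?_, hN, fun h3 => by cases h3⟩
      change Sum.inl (τ.1.1.1.k, τ.1.1.1.z) = Sum.inl p
      rw [e1, e2]
    · exfalso
      apply hbp
      have h1 := (M.Q j).P_inr_sub k0 hk0 s
      rw [h] at h1
      exact h1
  · obtain ⟨b, -, hcore⟩ := hu
    have h1 : P (((M.Q j).T k0 hk0).H (Sum.inr s')) = til (M.Q j) (Sum.inr s') :=
      P_nm (M.Q j) k0 hk0 (Sum.inr s')
    have e := Mfa_880.tile_inj ((M.Q j).T k0 hk0) (h.trans h1.symm)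
    subst e
    refine ⟨rfl, hN, fun h3 => hcore ?_⟩
    exact Sum.inr.inj h3

theorem qβ_far {p : ℕ × (Fin 3 → ℤ)} (h : kd M j (Sum.inl p) = Kd.far) :
    qβ M j (Sum.inl p) = 2 ^ (p.1 + 1) * ‖((M.Q j).ψ : E3 →L[ℝ] E3)‖ := by
  unfold qβ
  exact if_pos h

theorem qβ_near {p : ℕ × (Fin 3 → ℤ)} (h : kd M j (Sum.inl p) ≠ Kd.far) :
    qβ M j (Sum.inl p) = 2 ^ (M.Q j).kc * ‖((M.Q j).ψ : E3 →L[ℝ] E3)‖ := by
  unfold qβ
  exact if_neg h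

/-- norm of the frame -/
theorem qβ_le_kap {A : E3 ≃ᵃ[ℝ] E3} {u : ℝ} (hu : 0 < u)
    (hA : ∀ x : E3, A.linear x = u • (M.Q j).ψ x) {t : Pt (M.Q j)} {i0 : TIx (M.Q j) k0 hk0}
    (h : nm (M.Q j) k0 hk0 i0 = t) :
    qβ M j t ≤ ‖lin A‖ / (u / 2 ^ kap (M.Q j) k0 hk0 i0) := by
  have e : ‖lin A‖ / (u / 2 ^ kap (M.Q j) k0 hk0 i0) =
      2 ^ kap (M.Q j) k0 hk0 i0 * ‖((M.Q j).ψ : E3 →L[ℝ] E3)‖ := by
    rw [norm_lin hu hA]
    field_simp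
  rw [e]
  subst h
  rcases i0 with τ | s
  · by_cases hb : (P (((M.Q j).T0 k0 hk0).H τ.1) ∩ (M.Q j).S.bp (M.Q j).ψ (M.Q j).a' (M.Q j).kc).Nonempty
    · have hk : kd M j (Sum.inl (τ.1.1.1.k, τ.1.1.1.z)) ≠ Kd.far := by
        have hb' : (cube (M.Q j) τ.1.1.1.k τ.1.1.1.z ∩
            (M.Q j).S.bp (M.Q j).ψ (M.Q j).a' (M.Q j).kc).Nonempty := by
          have e1 : P (((M.Q j).T0 k0 hk0).H τ.1) = cube (M.Q j) τ.1.1.1.k τ.1.1.1.z :=
            P_nm (M.Q j) k0 hk0 (Sum.inl τ)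
          rw [← e1]; exact hb
        unfold kd
        simp only []
        rw [if_pos hb']
        exact fun h => by cases h
      rw [kap_inl_meet _ _ _ hb]
      exact le_of_eq (qβ_near M j hk)
    · rw [kap_inl _ _ _ hb]
      rcases Classical.em (kd M j (Sum.inl (τ.1.1.1.k, τ.1.1.1.z)) = Kd.far) with hk | hk
      · exact le_of_eq (qβ_far M j hk)
      · refine (le_of_eq (qβ_near M j hk)).trans ?_
        refine mul_le_mul_of_nonneg_right ?_ (norm_nonneg _)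
        refine pow_le_pow_right₀ (by norm_num) ?_
        have := (M.Q j).kc_le k0 hk0 (τ := τ.1)
        omega
  · exact le_rfl

/-- the sum over the potential edges -/
theorem sum_Ed_le {𝒦 : Set (Set E3)} {U : Set E3} (h𝒦 : 𝒦.Countable) (hU : U.Countable)
    {G : E3 → E3 → ℝ≥0∞} (hG : ∀ v y, G (-v) y = G v y) {t : Pt (M.Q j)} (hc : Coarse M k0 j t)
    {i0 : TIx (M.Q j) k0 hk0} (h : P (((M.Q j).T k0 hk0).H i0) = til (M.Q j) t) (s : E3) :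
    ∑ K ∈ ((QI M X j k0 hk0).toPT 𝒦 U h𝒦 hU).Ed t, li (G K.p.2) (K.p.1 + s) K.p.2 ≤
      ∑ e ∈ eIn ((M.Q j).T k0 hk0) i0, li (G (ev e)) (ea e + s) (ev e) := by
  classical
  set S : Finset (Sgt 𝒦 U) := ((QI M X j k0 hk0).toPT 𝒦 U h𝒦 hU).Ed t with hS
  have hex : ∀ K ∈ S,
      ∃ e ∈ eIn ((M.Q j).T k0 hk0) i0, e.1 = K.1 := by
    intro K hK
    obtain ⟨i1, hi1, x, hx, hcc, hd⟩ := edge_coarse M X j k0 hk0 h𝒦 hU hc hK
    have e := Mfa_880.tile_inj ((M.Q j).T k0 hk0) (hi1.trans h.symm)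
    subst e
    refine ⟨⟨((M.Q j).T k0 hk0).cc x, x, ((M.Q j).T k0 hk0).sub _ hx, hd, rfl⟩, ?_, hcc⟩
    exact mem_eIn.2 (((M.Q j).T k0 hk0).cc_sub_tile hx)
  have hex' : ∀ K : Sgt 𝒦 U, ∃ e : Option (Edg ((M.Q j).T k0 hk0)),
      K ∈ S →
        ∃ e' ∈ eIn ((M.Q j).T k0 hk0) i0, e = some e' ∧ e'.1 = K.1 := by
    intro K
    by_cases hK : K ∈ S
    · obtain ⟨e, he1, he2⟩ := hex K hK
      exact ⟨some e, fun _ => ⟨e, he1, rfl, he2⟩⟩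
    · exact ⟨none, fun h => absurd h hK⟩
  choose φ hφ using hex'
  set g : Option (Edg ((M.Q j).T k0 hk0)) → ℝ≥0∞ := fun o => o.elim 0 fun e =>
    li (G (ev e)) (ea e + s) (ev e) with hg
  have h1 : ∀ K ∈ S,
      li (G K.p.2) (K.p.1 + s) K.p.2 = g (φ K) := by
    intro K hK
    obtain ⟨e', -, he, hK1⟩ := hφ K hK
    rw [he]
    change _ = li (G (ev e')) (ea e' + s) (ev e')
    refine li_even hG K.p_ne ?_ s
    rw [← K.p_eq, sgm_edg, hK1]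
  have hinj : Set.InjOn φ (S : Set (Sgt 𝒦 U)) := by
    intro K hK K' hK' he
    obtain ⟨e1, -, h2, h3⟩ := hφ K hK
    obtain ⟨e2, -, h4, h5⟩ := hφ K' hK'
    apply edge_inj
    rw [h2, h4] at he
    rw [← h3, ← h5, Option.some.inj he]
  have h6 : ∑ e ∈ eIn ((M.Q j).T k0 hk0) i0, li (G (ev e)) (ea e + s) (ev e) =
      ∑ o ∈ (eIn ((M.Q j).T k0 hk0) i0).map Function.Embedding.some, g o := by
    rw [Finset.sum_map]
    rfl
  refine le_of_eq_of_le (Finset.sum_congr (s₁ := S) rfl h1) ?_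
  rw [h6, ← Finset.sum_image (s := S) (g := φ) (f := g) hinj]
  refine Finset.sum_le_sum_of_subset ?_
  intro o ho
  obtain ⟨K, hK, rfl⟩ := Finset.mem_image.1 ho
  obtain ⟨e', he1, he2, -⟩ := hφ K hK
  rw [he2]
  exact Finset.mem_map_of_mem _ he1

/-- **the coarse classes against the tiles of `T k0`** -/
theorem coarse_le {𝒦 : Set (Set E3)} {U : Set E3} (h𝒦 : 𝒦.Countable) (hU : U.Countable)
    {A : E3 ≃ᵃ[ℝ] E3} {u : ℝ} (hu : 0 < u) (hA : ∀ x : E3, A.linear x = u • (M.Q j).ψ x)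
    {G : E3 → E3 → ℝ≥0∞} (hG : ∀ v y, G (-v) y = G v y) {p : ℝ} (hp : 0 < p) (s : E3) :
    ∑' t : Pt (M.Q j), ((QI M X j k0 hk0).toPT 𝒦 U h𝒦 hU).EnC G p (Sum.inl t) s ≤
      ∑' i0 : {i // P (((M.Q j).T k0 hk0).H i) ⊆ (M.Q j).N ∧ i ≠ (M.Q j).cix k0 hk0},
        volume (P (((M.Q j).T k0 hk0).H i0.1)) *
          (ENNReal.ofReal (‖lin A‖ / (u / 2 ^ kap (M.Q j) k0 hk0 i0.1)) *
            ∑ e ∈ eIn ((M.Q j).T k0 hk0) i0.1, li (G (ev e)) (ea e + s) (ev e)) ^ p := by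
  classical
  set O := {i // P (((M.Q j).T k0 hk0).H i) ⊆ (M.Q j).N ∧ i ≠ (M.Q j).cix k0 hk0} with hO
  set F : O → ℝ≥0∞ := fun i0 => volume (P (((M.Q j).T k0 hk0).H i0.1)) *
          (ENNReal.ofReal (‖lin A‖ / (u / 2 ^ kap (M.Q j) k0 hk0 i0.1)) *
            ∑ e ∈ eIn ((M.Q j).T k0 hk0) i0.1, li (G (ev e)) (ea e + s) (ev e)) ^ p with hF
  have key : ∀ t : Pt (M.Q j), ((QI M X j k0 hk0).toPT 𝒦 U h𝒦 hU).EnC G p (Sum.inl t) s ≤
      ∑' i0 : O, if nm (M.Q j) k0 hk0 i0.1 = t then F i0 else 0 := by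
    intro t
    -- at most one potential tile in the class
    have hcl : ∀ t' : Pt (M.Q j), qcl M k0 j t' = Sum.inl t → t' = t ∧ Coarse M k0 j t := by
      intro t' ht'
      unfold qcl at ht'
      split_ifs at ht' with hc
      · have := Sum.inl.inj ht'
        subst this
        exact ⟨rfl, hc⟩
    change (∑' t' : {t' : Pt (M.Q j) // qcl M k0 j t' = Sum.inl t},
      (qAc M j t'.1).indicator (fun a => volume (til (M.Q j) t'.1) * (ENNReal.ofReal (qβ M j t'.1) *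
        ∑ K ∈ ((QI M X j k0 hk0).toPT 𝒦 U h𝒦 hU).Ed t'.1,
          li (G (Sgt.p K).2) ((Sgt.p K).1 + a) (Sgt.p K).2) ^ p) s) ≤ _
    by_cases hc : Coarse M k0 j t
    swap
    · refine le_of_eq_of_le (ENNReal.tsum_eq_zero.2 ?_) zero_le
      rintro ⟨t', ht'⟩
      exact absurd (hcl t' ht').2 hc
    have hct : qcl M k0 j t = Sum.inl t := if_pos hc
    rw [tsum_eq_single (⟨t, hct⟩ : {t' : Pt (M.Q j) // qcl M k0 j t' = Sum.inl t})]
    swap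
    · rintro ⟨t', ht'⟩ hne
      exact absurd (Subtype.ext (hcl t' ht').1) hne
    by_cases hs : s ∈ qAc M j t
    swap
    · rw [indicator_of_notMem hs]
      exact zero_le
    rw [indicator_of_mem hs]
    by_cases hEd : (((QI M X j k0 hk0).toPT 𝒦 U h𝒦 hU).Ed t).Nonempty
    swap
    · rw [Finset.not_nonempty_iff_eq_empty] at hEd
      rw [hEd, Finset.sum_empty, mul_zero, ENNReal.zero_rpow_of_pos hp, mul_zero]
      exact zero_le
    obtain ⟨K, hK⟩ := hEd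
    obtain ⟨i0, hi0, -⟩ := edge_coarse M X j k0 hk0 h𝒦 hU hc hK
    obtain ⟨h1, h2, h3⟩ := exists_tile M j k0 hk0 ⟨s, hs⟩ hi0
    refine le_trans ?_ (ENNReal.le_tsum (⟨i0, h2, h3⟩ : O))
    rw [if_pos h1]
    change volume (til (M.Q j) t) * (ENNReal.ofReal (qβ M j t) *
      ∑ K ∈ ((QI M X j k0 hk0).toPT 𝒦 U h𝒦 hU).Ed t,
        li (G (Sgt.p K).2) ((Sgt.p K).1 + s) (Sgt.p K).2) ^ p ≤ volume (P (((M.Q j).T k0 hk0).H i0)) *
          (ENNReal.ofReal (‖lin A‖ / (u / 2 ^ kap (M.Q j) k0 hk0 i0)) *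
            ∑ e ∈ eIn ((M.Q j).T k0 hk0) i0, li (G (ev e)) (ea e + s) (ev e)) ^ p
    rw [hi0]
    gcongr
    · exact qβ_le_kap M j k0 hk0 hu hA h1
    · exact sum_Ed_le M X j k0 hk0 h𝒦 hU hG hc hi0 s
  refine (ENNReal.tsum_le_tsum key).trans ?_
  rw [ENNReal.tsum_comm]
  refine ENNReal.tsum_le_tsum fun i0 => ?_
  rw [tsum_eq_single (nm (M.Q j) k0 hk0 i0.1) fun t ht => if_neg (Ne.symm ht), if_pos rfl]

end main

theorem gd_even (D : E3 → E3 →L[ℝ] E3) (v y : E3) : Gd' D (-v) y = Gd' D v y := by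
  unfold Gd'
  rw [map_neg, enorm_neg]

/-- **[E6] COARSE0**: the energy of all coarse classes of a block at the total shift `s`. -/
theorem coarse0 {Bs : ℕ} (hB1 : 1 ≤ Bs) {p : ℝ} (hp : 1 ≤ p) (hp3 : p ≤ 3) : ∃ C : ℝ≥0, 0 < C ∧
    ∀ {J : Type} (M : MD E3 3 J) (X : RD M) (j : J) (k0 : ℕ) (hk0 : (M.Q j).kc ≤ k0)
      (𝒦 : Set (Set E3)) (U : Set E3) (h𝒦 : 𝒦.Countable) (hU : U.Countable) (A : E3 ≃ᵃ[ℝ] E3)
      (u : ℝ), 0 < u → (∀ x : E3, A.linear x = u • (M.Q j).ψ x) →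
      (∀ i, ∀ p ∈ (M.Q j).S.GG i, ∀ l, |p.1 l| ≤ Bs) →
      (∀ i, i ≠ (M.Q j).S.core → ∀ v ∈ ZP ((M.Q j).S.GG i), ∀ w ∈ ZP ((M.Q j).S.GG i),
        ∀ l, |w l - v l| ≤ Bs) →
    ∀ (D D' : E3 → E3 →L[ℝ] E3) (Kq : ℝ≥0∞) (s : E3),
      (∀ e : Edg ((M.Q j).T k0 hk0), e.1 ⊆ (M.Q j).N → li (Gd' D' (ev e)) (ea e + s) (ev e) ≤
        Kq * li (Gd' D (ev e)) (ea e + s) (ev e)) →
    ∀ Cm E : ℝ≥0∞,
      ENNReal.ofReal (‖lin A‖ ^ p / |(lin A).det|) *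
        (∑' e : Ed (M.Q j) k0 hk0, ENNReal.ofReal (‖lin A (e.1.2 - e.1.1)‖ ^ (3 - p)) *
          (∫⁻ τ in Icc (0:ℝ) 1, ‖D (e.1.1 + s + τ • (e.1.2 - e.1.1)) (e.1.2 - e.1.1)‖ₑ ^ p)) ≤ E →
      ∑' t : Pt (M.Q j), Cm ^ p *
        ((QI M X j k0 hk0).toPT 𝒦 U h𝒦 hU).EnC (Gd' D') p (Sum.inl t) s ≤
        C * (Cm * Kq) ^ p * E := by
  have hp0 : 0 ≤ p := by linarith
  obtain ⟨C, hC, H⟩ := ine hB1 hp hp3
  refine ⟨C, hC, ?_⟩
  intro J M X j k0 hk0 𝒦 U h𝒦 hU A u hu hA hB hR D D' Kq s hD' Cm E hE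
  rw [ENNReal.tsum_mul_left]
  have h1 := coarse_le M X j k0 hk0 h𝒦 hU hu hA (gd_even D') (p := p) (by linarith) s
  have h2 : ∑' i0 : {i // P (((M.Q j).T k0 hk0).H i) ⊆ (M.Q j).N ∧ i ≠ (M.Q j).cix k0 hk0},
        volume (P (((M.Q j).T k0 hk0).H i0.1)) *
          (ENNReal.ofReal (‖lin A‖ / (u / 2 ^ kap (M.Q j) k0 hk0 i0.1)) *
            ∑ e ∈ eIn ((M.Q j).T k0 hk0) i0.1, li (Gd' D' (ev e)) (ea e + s) (ev e)) ^ p ≤
      Kq ^ p * ∑' i0 : {i // P (((M.Q j).T k0 hk0).H i) ⊆ (M.Q j).N ∧ i ≠ (M.Q j).cix k0 hk0},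
        volume (P (((M.Q j).T k0 hk0).H i0.1)) *
          (ENNReal.ofReal (‖lin A‖ / (u / 2 ^ kap (M.Q j) k0 hk0 i0.1)) *
            ∑ e ∈ eIn ((M.Q j).T k0 hk0) i0.1, li (Gd' D (ev e)) (ea e + s) (ev e)) ^ p := by
    rw [← ENNReal.tsum_mul_left]
    refine ENNReal.tsum_le_tsum fun i0 => ?_
    calc volume (P (((M.Q j).T k0 hk0).H i0.1)) *
          (ENNReal.ofReal (‖lin A‖ / (u / 2 ^ kap (M.Q j) k0 hk0 i0.1)) *
            ∑ e ∈ eIn ((M.Q j).T k0 hk0) i0.1, li (Gd' D' (ev e)) (ea e + s) (ev e)) ^ p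
        ≤ volume (P (((M.Q j).T k0 hk0).H i0.1)) *
          (Kq * (ENNReal.ofReal (‖lin A‖ / (u / 2 ^ kap (M.Q j) k0 hk0 i0.1)) *
            ∑ e ∈ eIn ((M.Q j).T k0 hk0) i0.1, li (Gd' D (ev e)) (ea e + s) (ev e))) ^ p := by
          refine mul_le_mul' le_rfl (ENNReal.rpow_le_rpow ?_ hp0)
          rw [mul_left_comm, Finset.mul_sum (s := eIn ((M.Q j).T k0 hk0) i0.1) (a := Kq)]
          refine mul_le_mul' le_rfl (Finset.sum_le_sum fun e he => ?_)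
          exact hD' e ((mem_eIn.1 he).trans i0.2.1)
      _ = _ := by
          rw [ENNReal.mul_rpow_of_nonneg _ _ hp0]
          ring
  have h3 := H (M.Q j) k0 hk0 A u hu hA hB hR D s
  calc Cm ^ p * ∑' t : Pt (M.Q j),
        ((QI M X j k0 hk0).toPT 𝒦 U h𝒦 hU).EnC (Gd' D') p (Sum.inl t) s
      ≤ Cm ^ p * (Kq ^ p * (C * E)) := by
        refine mul_le_mul' le_rfl (h1.trans (h2.trans (mul_le_mul' le_rfl ?_)))
        exact h3.trans (mul_le_mul' le_rfl hE)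
    _ = C * (Cm * Kq) ^ p * E := by
        rw [ENNReal.mul_rpow_of_nonneg _ _ hp0]
        ring

/-- the comparison of the line integrals of `D'` and `D` for almost every shift -/
theorem ae_cmp {Om : Set E3} {ι : Type} [Countable ι] (T : Tiling Om ι) (N : Set E3) {O : Set E3}
    {D D' : E3 → E3 →L[ℝ] E3} {K : ℝ} (hK : 0 ≤ K) {Pz : E3 → Prop} (h0 : ∀ x, x ∉ O → D' x = 0)
    (h : ∀ᵐ x, x ∈ O → Pz x → ∀ v, ‖D' x v‖ ≤ K * ‖D x v‖) :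
    ∀ᵐ s : E3, (∀ y ∈ N, y + s ∈ O → Pz (y + s)) → ∀ e : Edg T, e.1 ⊆ N →
      li (Gd' D' (ev e)) (ea e + s) (ev e) ≤
        ENNReal.ofReal K * li (Gd' D (ev e)) (ea e + s) (ev e) := by
  filter_upwards [Eds_746.ae_li_dir_all hK h0 h (fun e : Edg T => ea e) (fun e => ev e)] with s hs
    hN e he
  refine (hs e ?_).2
  rintro _ ⟨τ, hτ, rfl⟩ hy
  change ea e + s + τ • ev e ∈ O at hy
  change Pz (ea e + s + τ • ev e)
  have h1 : ea e + τ • ev e ∈ N := he (by rw [← sgm_edg e]; exact ⟨τ, hτ, rfl⟩)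
  have e1 : ea e + s + τ • ev e = ea e + τ • ev e + s := by abel
  rw [e1] at hy ⊢
  exact hN _ h1 hy

/-- **[E6] for `Ea0_961.InS`**: the right-hand side at the good shifts. -/
theorem coarse0_InS {p : ℝ} {Om : Set E3} {f : E3 → E3} {D : E3 → E3 →L[ℝ] E3} {Cc κ1 κ2 κw : ℝ}
    {Mg : ℕ} {c : Bsp_628.Bx (Fin 3)} {A : E3 ≃ᵃ[ℝ] E3} {lam : ℝ} {er : ℝ≥0∞} {Q : CB E3 3} {k0 : ℕ}
    {hk : Q.kc ≤ k0} (h : InS p Om f D Cc κ1 κ2 κw Mg c A lam er Q k0 hk) :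
    ∃ G : Set E3, volume (Tw Q k0 \ G) ≤ ENNReal.ofReal (1 / 4) * volume (Tw Q k0) ∧
      ∀ s ∈ G, s ∈ Tw Q k0 → ENNReal.ofReal (‖lin A‖ ^ p / |(lin A).det|) *
        (∑' e : Ed Q k0 hk, ENNReal.ofReal (‖lin A (e.1.2 - e.1.1)‖ ^ (3 - p)) *
          (∫⁻ τ in Icc (0:ℝ) 1, ‖D (e.1.1 + s + τ • (e.1.2 - e.1.1)) (e.1.2 - e.1.1)‖ₑ ^ p)) ≤
        ENNReal.ofReal (Cc * ‖lin A‖ ^ p) * volume (Q.N \ Q.Kc) + er := by
  obtain ⟨G, h1, h2⟩ := h.tra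
  exact ⟨G, h1, fun s hs hs' => (h2 s hs hs').2⟩

end

end Crest.Agent.R096.Qc_222
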