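/-
helper222, row 96, LEVSEL part 11 (LEN, 112 #10706): the line integrals over the 1-cells of a tile are
at most the line integrals over any finite family of segments which cover them.
-/
import Mathlib
import Crest.Agent.R096.Ls4_222

set_option autoImplicit false
set_option linter.unusedSectionVars false

open MeasureTheory Set Filter
open scoped Topology ENNReal

namespace Crest.Agent.R096.Ls_222

open Crest.Agent.R096.Msh_715 Crest.Agent.R96.Sg1_199

noncomputable section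

/-- affine change of variables on the line -/
theorem lint_affine (F : ℝ → ℝ≥0∞) {t : ℝ} (ht : t ≠ 0) (τ0 : ℝ) :
    ENNReal.ofReal |t| * ∫⁻ σ, F (τ0 + t * σ) = ∫⁻ τ, F τ := by
  have h1 : MeasurableEmbedding fun σ : ℝ => t * σ := (Homeomorph.mulLeft₀ t ht).measurableEmbedding
  have h2 := h1.lintegral_map (μ := volume) (fun u => F (τ0 + u))
  have h3 : Measure.map (fun σ : ℝ => t * σ) volume = ENNReal.ofReal |t⁻¹| • volume :=
    Real.map_volume_mul_left ht
  rw [h3, lintegral_smul_measure, smul_eq_mul] at h2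
  have h2' : ∫⁻ σ, F (τ0 + t * σ) = ENNReal.ofReal |t⁻¹| * ∫⁻ u, F (τ0 + u) := h2.symm
  rw [h2', lintegral_add_left_eq_self (fun u => F u) τ0, ← mul_assoc,
    ← ENNReal.ofReal_mul (abs_nonneg _), ← abs_mul, mul_inv_cancel₀ ht, abs_one, ENNReal.ofReal_one,
    one_mul]

variable {E : Type*} [NormedAddCommGroup E] [NormedSpace ℝ E] [FiniteDimensional ℝ E]
  [MeasurableSpace E] [BorelSpace E]

/-- the part of the segment `x, v` in the segment `x', v'` -/
theorem part_le {N : E → E → ℝ≥0∞} (hN : ∀ (t : ℝ) v y, N (t • v) y = ‖t‖ₑ * N v y)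
    {x v x' v' : E} (hv : v ≠ 0) :
    ∫⁻ τ in Icc (0:ℝ) 1, {τ : ℝ | x + τ • v ∈ sgm x' v'}.indicator (fun τ => N v (x + τ • v)) τ ≤
      ∫⁻ σ in Icc (0:ℝ) 1,
        {σ : ℝ | x' + σ • v' ∈ sgm x v}.indicator (fun σ => N v' (x' + σ • v')) σ := by
  by_cases hsub : {τ : ℝ | τ ∈ Icc (0:ℝ) 1 ∧ x + τ • v ∈ sgm x' v'}.Subsingleton
  · have h0 : ∫⁻ τ in Icc (0:ℝ) 1,
        {τ : ℝ | x + τ • v ∈ sgm x' v'}.indicator (fun τ => N v (x + τ • v)) τ = 0 := by
      rw [← lintegral_indicator measurableSet_Icc]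
      have h1 : ∀ᵐ τ : ℝ, τ ∉ {τ : ℝ | τ ∈ Icc (0:ℝ) 1 ∧ x + τ • v ∈ sgm x' v'} := by
        rw [ae_iff]
        simp only [not_not]
        exact hsub.finite.measure_zero _
      rw [lintegral_congr_ae (g := fun _ => 0) ?_, lintegral_zero]
      filter_upwards [h1] with τ hτ
      by_cases h2 : τ ∈ Icc (0:ℝ) 1
      · rw [indicator_of_mem h2]
        refine indicator_of_notMem ?_ _
        intro h3
        exact hτ ⟨h2, h3⟩
      · rw [indicator_of_notMem h2]
    rw [h0]; exact zero_le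
  · rw [Set.not_subsingleton_iff] at hsub
    obtain ⟨τ1, ⟨-, σ1, -, e1⟩, τ2, ⟨-, σ2, -, e2⟩, hne⟩ := hsub
    simp only at e1 e2
    -- the segments are collinear
    have h1 : (τ1 - τ2) • v = (σ1 - σ2) • v' := by
      rw [sub_smul, sub_smul]
      have : x + τ1 • v - (x + τ2 • v) = x' + σ1 • v' - (x' + σ2 • v') := by rw [e1, e2]
      have a : x + τ1 • v - (x + τ2 • v) = τ1 • v - τ2 • v := by abel
      have b : x' + σ1 • v' - (x' + σ2 • v') = σ1 • v' - σ2 • v' := by abel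
      rw [← a, this, b]
    have hτ : τ1 - τ2 ≠ 0 := sub_ne_zero.2 hne
    have hσ : σ1 - σ2 ≠ 0 := by
      intro h2
      rw [h2, zero_smul] at h1
      rcases smul_eq_zero.1 h1 with h3 | h3
      · exact hτ h3
      · exact hv h3
    set t : ℝ := (τ1 - τ2) / (σ1 - σ2) with ht
    have ht0 : t ≠ 0 := div_ne_zero hτ hσ
    have hvt : v' = t • v := by
      rw [ht, div_eq_inv_mul, mul_smul, h1, smul_smul, inv_mul_cancel₀ hσ, one_smul]
    set τ0 : ℝ := τ1 - σ1 * t with hτ0
    have hx' : ∀ σ : ℝ, x' + σ • v' = x + (τ0 + t * σ) • v := by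
      intro σ
      have h2 : x' = x + τ1 • v - σ1 • v' := by rw [← e1]; abel
      rw [h2, hvt, hτ0]
      simp only [smul_smul, add_smul, sub_smul]
      rw [mul_comm σ t]
      abel
    rw [← lintegral_indicator measurableSet_Icc, ← lintegral_indicator measurableSet_Icc,
      ← lint_affine _ ht0 τ0, ← lintegral_const_mul' _ _ ENNReal.ofReal_ne_top]
    refine lintegral_mono fun σ => ?_
    by_cases hb : (τ0 + t * σ) ∈ Icc (0:ℝ) 1 ∧ x + (τ0 + t * σ) • v ∈ sgm x' v'
    · have c1 : σ ∈ Icc (0:ℝ) 1 := by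
        obtain ⟨-, σ', hσ', e'⟩ := hb
        simp only at e'
        rw [hx' σ'] at e'
        have h3 : (τ0 + t * σ') • v = (τ0 + t * σ) • v := add_left_cancel e'
        have h4 : ((τ0 + t * σ') - (τ0 + t * σ)) • v = 0 := by rw [sub_smul, h3, sub_self]
        rcases smul_eq_zero.1 h4 with h5 | h5
        · have h6 : t * (σ' - σ) = 0 := by linarith
          rcases mul_eq_zero.1 h6 with h7 | h7
          · exact absurd h7 ht0
          · have : σ' = σ := by linarith
            rwa [← this]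
        · exact absurd h5 hv
      have c2 : x' + σ • v' ∈ sgm x v := by
        rw [hx' σ]; exact ⟨_, hb.1, rfl⟩
      rw [indicator_of_mem hb.1, indicator_of_mem (show (τ0 + t * σ) ∈
        {τ : ℝ | x + τ • v ∈ sgm x' v'} from hb.2), indicator_of_mem c1,
        indicator_of_mem (show σ ∈ {σ : ℝ | x' + σ • v' ∈ sgm x v} from c2)]
      rw [hx' σ]
      conv_rhs => rw [hvt, hN]
      rw [← Real.norm_eq_abs, ofReal_norm]
    · have h3 : (Icc (0:ℝ) 1).indicator ({τ : ℝ | x + τ • v ∈ sgm x' v'}.indicator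
          fun τ => N v (x + τ • v)) (τ0 + t * σ) = 0 := by
        by_cases h4 : (τ0 + t * σ) ∈ Icc (0:ℝ) 1
        · rw [indicator_of_mem h4]
          exact indicator_of_notMem (fun h5 => hb ⟨h4, h5⟩) _
        · rw [indicator_of_notMem h4]
      rw [h3, mul_zero]; exact zero_le

variable {Om : Set E} {ι : Type*} {T : Tiling Om ι}

/-- two different 1-cells meet only in vertices -/
theorem edg_inter {e e' : Edg T} (hne : e ≠ e') {y : E} (h : y ∈ e.1) (h' : y ∈ e'.1) :
    y ∈ Vt T := by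
  obtain ⟨e0, x, hx, hd, rfl⟩ := e
  obtain ⟨e0', x', hx', hd', rfl⟩ := e'
  have hyO : y ∈ Om := T.cc_sub_Om hx h
  refine ⟨hyO, ?_⟩
  by_contra hdy
  apply hne
  have h1 : y ∈ T.oc x := by
    by_contra hn
    have := T.dim_lt h hn
    omega
  have h2 : y ∈ T.oc x' := by
    by_contra hn
    have := T.dim_lt h' hn
    omega
  have h3 := T.cc_eq_of_mem_oc hx h1
  have h4 := T.cc_eq_of_mem_oc hx' h2
  exact Subtype.ext (h3.symm.trans h4)

/-- **LEN**: any finite set of 1-cells, covered by finitely many segments -/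
theorem sum_li_le' {N : E → E → ℝ≥0∞} (hN : ∀ (t : ℝ) v y, N (t • v) y = ‖t‖ₑ * N v y)
    (hNm : ∀ v, Measurable (N v)) {η : Type*} (S : Finset η) (x v : η → E)
    (hv : ∀ j ∈ S, v j ≠ 0) (Es : Finset (Edg T))
    (hcov : ∀ e ∈ Es, sgm (ea e) (ev e) ⊆ ⋃ j ∈ S, sgm (x j) (v j)) :
    ∑ e ∈ Es, li (N (ev e)) (ea e) (ev e) ≤ ∑ j ∈ S, li (N (v j)) (x j) (v j) := by
  classical
  have hline : ∀ x v : E, Continuous fun τ : ℝ => x + τ • v := fun x v => by fun_prop
  have hms : ∀ x v x' v' : E, MeasurableSet {τ : ℝ | x + τ • v ∈ sgm x' v'} := fun x v x' v' =>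
    ((isCompact_sgm x' v').isClosed.preimage (hline x v)).measurableSet
  have hmN : ∀ x v : E, Measurable fun τ : ℝ => N v (x + τ • v) := fun x v =>
    (hNm v).comp (hline x v).measurable
  -- the 1-cells by the segments
  have hB : ∀ e ∈ Es, li (N (ev e)) (ea e) (ev e) ≤ ∑ j ∈ S, ∫⁻ τ in Icc (0:ℝ) 1,
      {τ : ℝ | ea e + τ • ev e ∈ sgm (x j) (v j)}.indicator
        (fun τ => N (ev e) (ea e + τ • ev e)) τ := by
    intro e he
    rw [← lintegral_finsetSum _ (fun j _ => (hmN _ _).indicator (hms _ _ _ _))]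
    unfold li
    refine setLIntegral_mono' measurableSet_Icc fun τ hτ => ?_
    obtain ⟨j, hj, hjm⟩ := mem_iUnion₂.1 (hcov e he ⟨τ, hτ, rfl⟩)
    refine le_trans ?_ (Finset.single_le_sum (fun _ _ => zero_le) hj)
    rw [indicator_of_mem (show τ ∈ {τ : ℝ | ea e + τ • ev e ∈ sgm (x j) (v j)} from hjm)]
  -- each segment carries at most one 1-cell at almost every point
  have hC : ∀ j ∈ S, ∑ e ∈ Es, ∫⁻ σ in Icc (0:ℝ) 1,
      {σ : ℝ | x j + σ • v j ∈ sgm (ea e) (ev e)}.indicator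
        (fun σ => N (v j) (x j + σ • v j)) σ ≤ li (N (v j)) (x j) (v j) := by
    intro j hj
    rw [← lintegral_finsetSum _ (fun e _ => (hmN _ _).indicator (hms _ _ _ _))]
    unfold li
    refine lintegral_mono_ae ?_
    have hcount : {σ : ℝ | x j + σ • v j ∈ Vt T}.Countable :=
      (countable_Vt T).preimage_of_injOn (param_injective (hv j hj)).injOn
    have hae : ∀ᵐ σ : ℝ ∂(volume.restrict (Icc (0:ℝ) 1)), x j + σ • v j ∉ Vt T := by
      refine ae_restrict_of_ae ?_
      rw [ae_iff]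
      simp only [not_not]
      exact hcount.measure_zero _
    filter_upwards [hae] with σ hσ
    by_cases hex : ∃ e ∈ Es, x j + σ • v j ∈ sgm (ea e) (ev e)
    · obtain ⟨e, he, hm⟩ := hex
      rw [Finset.sum_eq_single_of_mem e he]
      · exact indicator_le_self _ _ _
      · intro e' he' hne
        refine indicator_of_notMem ?_ _
        intro h3
        apply hσ
        rw [sgm_edg] at hm
        have h3' : x j + σ • v j ∈ sgm (ea e') (ev e') := h3
        rw [sgm_edg] at h3'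
        exact edg_inter hne h3' hm
    · rw [Finset.sum_eq_zero]
      · exact zero_le
      · intro e he
        refine indicator_of_notMem ?_ _
        intro h3
        exact hex ⟨e, he, h3⟩
  calc ∑ e ∈ Es, li (N (ev e)) (ea e) (ev e)
      ≤ ∑ e ∈ Es, ∑ j ∈ S, ∫⁻ τ in Icc (0:ℝ) 1,
        {τ : ℝ | ea e + τ • ev e ∈ sgm (x j) (v j)}.indicator
          (fun τ => N (ev e) (ea e + τ • ev e)) τ := Finset.sum_le_sum hB
    _ ≤ ∑ e ∈ Es, ∑ j ∈ S, ∫⁻ σ in Icc (0:ℝ) 1,
        {σ : ℝ | x j + σ • v j ∈ sgm (ea e) (ev e)}.indicator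
          (fun σ => N (v j) (x j + σ • v j)) σ := by
        refine Finset.sum_le_sum fun e _ => Finset.sum_le_sum fun j hj => ?_
        exact part_le hN (ev_ne e)
    _ = ∑ j ∈ S, ∑ e ∈ Es, ∫⁻ σ in Icc (0:ℝ) 1,
        {σ : ℝ | x j + σ • v j ∈ sgm (ea e) (ev e)}.indicator
          (fun σ => N (v j) (x j + σ • v j)) σ := Finset.sum_comm
    _ ≤ _ := Finset.sum_le_sum hC

/-- **LEN** (112 #10706) -/
theorem sum_li_le (T : Tiling Om ι) (i : ι) {N : E → E → ℝ≥0∞}
    (hN : ∀ (t : ℝ) v y, N (t • v) y = ‖t‖ₑ * N v y)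
    (hNm : ∀ v, Measurable (N v)) {η : Type*} (S : Finset η) (x v : η → E)
    (hv : ∀ j ∈ S, v j ≠ 0)
    (hcov : ∀ e ∈ eIn T i, sgm (ea e) (ev e) ⊆ ⋃ j ∈ S, sgm (x j) (v j)) :
    ∑ e ∈ eIn T i, li (N (ev e)) (ea e) (ev e) ≤ ∑ j ∈ S, li (N (v j)) (x j) (v j) :=
  sum_li_le' hN hNm S x v hv (eIn T i) hcov

end

end Crest.Agent.R096.Ls_222
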