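import Crest.Agent.R096.Mfi4_290
import Crest.Agent.R96.Pm2_199

/-!
# Row 96 (S0127), instance of `MF` (helper663): UNIVERSAL potential edges

The potential edges of 290's `R.toPT 𝒦 U` depend on the lists `W` through the cells `𝒦`, `U`.  The sets `Gd` (good
total shifts, Chebyshev on the energies of the classes) have to be chosen BEFORE the lists `W`.

`RT.𝒦U R` : all sets `K` with `frr t '' K ∈ shs (cl t)` for some `t` (countable);
`RT.toPTU R := R.toPT (𝒦U R) {0}` : no `W`, no scale `k`; every lemma about `toPT` applies to it;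
**`RT.EnC_toPT_le`** : the energies of the classes of `R.toPT 𝒦 U` are at most those of `R.toPTU`.
-/

set_option autoImplicit false
set_option linter.unusedSectionVars false

open MeasureTheory Set Filter Metric
open scoped Topology ENNReal

namespace Crest.Agent.R096.Uni_663

open Crest.Agent.R096.Msh_715
open Crest.Agent.R096.SkC1_961 (E3 Cfg)
open Crest.Agent.R96.Sg1_199 (li sgm)
open Crest.Agent.R96.Sg8_199 (EnA)
open Crest.Agent.R96.Pm_199 (sh li_par)
open Crest.Agent.R096.Mfa_880 (PT)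
open Crest.Agent.R096.Mfi_290

noncomputable section

variable {J : Type}

/-- all potential cells of the lists of the potential tiles -/
def KU (R : RT J) : Set (Set E3) := {K | ∃ t, R.frr t '' K ∈ R.shs (R.cl t)}

theorem KU_countable (R : RT J) : (KU R).Countable := by
  have := R.cτ
  have h1 : KU R = ⋃ t, {K | R.frr t '' K ∈ R.shs (R.cl t)} := by
    ext K
    simp only [KU, mem_ofPred_eq, mem_iUnion]
  rw [h1]
  refine countable_iUnion fun t => Set.Finite.countable ?_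
  refine Set.Finite.of_finite_image (f := fun K => R.frr t '' K) ?_ ?_
  · refine (R.shs_finite (R.cl t)).subset ?_
    rintro _ ⟨K, hK, rfl⟩
    exact hK
  · intro K _ K' _ e
    exact (R.frr t).injective.image_injective e

theorem mem_KK_zero {𝒦 : Set (Set E3)} {K : Set E3} : K ∈ KK 𝒦 {0} ↔ K ∈ 𝒦 := by
  constructor
  · rintro ⟨K', hK', u, hu, rfl⟩
    rw [mem_singleton_iff.1 hu, neg_zero, Mfe_161.shf_zero]
    exact hK'
  · intro h
    refine ⟨K, h, 0, rfl, ?_⟩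
    rw [neg_zero, Mfe_161.shf_zero]

/-- **the potential tiles with the universal potential edges** -/
def toPTU (R : RT J) : PT J :=
  R.toPT (KU R) {0} (KU_countable R) (countable_singleton 0)

theorem card_EdU_le (R : RT J) (t : R.τ) :
    ((toPTU R).Ed t).card ≤ (R.shs (R.cl t)).ncard :=
  R.card_Ed_le _ _ _ _ t

theorem mem_EdU (R : RT J) {t : R.τ} {K : Sgt (KU R) {0}} (hK : K ∈ (toPTU R).Ed t) :
    K.p.2 ≠ 0 ∧ sgm K.p.1 K.p.2 ⊆ R.Til t ∧ R.frr t '' sgm K.p.1 K.p.2 ∈ R.shs (R.cl t) :=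
  R.mem_Ed _ _ _ _ hK

theorem mem_EdU_iff (R : RT J) {t : R.τ} {K : Sgt (KU R) {0}} :
    K ∈ (toPTU R).Ed t ↔ K.1 ⊆ R.Til t ∧ R.frr t '' K.1 ∈ R.shs (R.cl t) :=
  Set.Finite.mem_toFinset _

/-- the line integral over a segment (as a set) -/
def liK (G : E3 → E3 → ℝ≥0∞) (s : E3) (K : Set E3) : ℝ≥0∞ := by
  classical
  exact if h : ∃ p : E3 × E3, p.2 ≠ 0 ∧ K = sgm p.1 p.2 then
    li (G h.choose.2) (h.choose.1 + s) h.choose.2 else 0

theorem li_eq_liK {G : E3 → E3 → ℝ≥0∞} (hG : ∀ v y, G (-v) y = G v y) {x v : E3} (hv : v ≠ 0)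
    (s : E3) : li (G v) (x + s) v = liK G s (sgm x v) := by
  classical
  have h : ∃ p : E3 × E3, p.2 ≠ 0 ∧ sgm x v = sgm p.1 p.2 := ⟨(x, v), hv, rfl⟩
  unfold liK
  rw [dif_pos h]
  have h2 := h.choose_spec.2
  refine (li_par hG ?_)
  rw [← Mfe_161.shf_sgm, ← Mfe_161.shf_sgm, ← h2]

/-- the sum of the line integrals over the potential edges, in the structure `toPT` -/
def edS (R : RT J) (𝒦 : Set (Set E3)) (U : Set E3) (G : E3 → E3 → ℝ≥0∞) (t : R.τ) (s : E3) : ℝ≥0∞ :=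
  ∑ j ∈ (R.EdS_finite 𝒦 U t).toFinset, li (G j.p.2) (j.p.1 + s) j.p.2

/-- the segment -/
def seg1 {𝒦 : Set (Set E3)} {U : Set E3} (j : Sgt 𝒦 U) : Set E3 := j.1

/-- **the energy of a potential tile** -/
theorem sum_le (R : RT J) {𝒦 : Set (Set E3)} {U : Set E3}
    {G : E3 → E3 → ℝ≥0∞} (hG : ∀ v y, G (-v) y = G v y) (t : R.τ) (s : E3) :
    edS R 𝒦 U G t s ≤ edS R (KU R) {0} G t s := by
  classical
  have key : ∀ (𝒦' : Set (Set E3)) (U' : Set E3), edS R 𝒦' U' G t s =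
      ∑ K ∈ ((R.EdS_finite 𝒦' U' t).toFinset).image (seg1 (𝒦 := 𝒦') (U := U')), liK G s K := by
    intro 𝒦' U'
    have h1 := Finset.sum_image (f := liK G s) (g := seg1 (𝒦 := 𝒦') (U := U'))
      (s := (R.EdS_finite 𝒦' U' t).toFinset) (fun j _ j' _ h => Subtype.ext h)
    rw [h1]
    refine Finset.sum_congr rfl fun j _ => ?_
    rw [li_eq_liK hG j.p_ne, ← j.p_eq]
    rfl
  rw [key, key]
  refine Finset.sum_le_sum_of_subset ?_
  intro K hK
  obtain ⟨j, hj, rfl⟩ := Finset.mem_image.1 hK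
  have hj' : j ∈ R.EdS 𝒦 U t := (Set.Finite.mem_toFinset _).1 hj
  refine Finset.mem_image.2 ⟨⟨j.1, mem_KK_zero.2 ⟨t, hj'.2⟩, j.2.2⟩, ?_, rfl⟩
  exact (Set.Finite.mem_toFinset _).2 hj'

theorem EnC_toPT (R : RT J) {𝒦 : Set (Set E3)} {U : Set E3} (h𝒦 : 𝒦.Countable)
    (hU : U.Countable) (G : E3 → E3 → ℝ≥0∞) (p : ℝ) (k : R.κ) (s : E3) :
    (R.toPT 𝒦 U h𝒦 hU).EnC G p k s = ∑' t : {t : R.τ // R.cl t = k},
      (R.Ac t.1).indicator (fun s => volume (R.Til t.1) *
        (ENNReal.ofReal (R.β t.1) * edS R 𝒦 U G t.1 s) ^ p) s := rfl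

/-- **the energies of the classes, potential edges from a countable family: at most the universal
energies** -/
theorem EnC_toPT_le (R : RT J) {𝒦 : Set (Set E3)} {U : Set E3} (h𝒦 : 𝒦.Countable)
    (hU : U.Countable) {G : E3 → E3 → ℝ≥0∞} (hG : ∀ v y, G (-v) y = G v y) {p : ℝ} (hp : 0 ≤ p)
    (k : R.κ) (s : E3) : (R.toPT 𝒦 U h𝒦 hU).EnC G p k s ≤ (toPTU R).EnC G p k s := by
  unfold toPTU
  rw [EnC_toPT, EnC_toPT]
  refine ENNReal.tsum_le_tsum fun t => ?_
  by_cases hs : s ∈ R.Ac t.1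
  · rw [indicator_of_mem hs, indicator_of_mem hs]
    exact mul_le_mul_right (ENNReal.rpow_le_rpow (mul_le_mul_right (sum_le R hG t.1 s) _) hp) _
  · rw [indicator_of_notMem hs, indicator_of_notMem hs]

/-- the same for weighted sums of classes -/
theorem sum_EnC_toPT_le (R : RT J) {𝒦 : Set (Set E3)} {U : Set E3} (h𝒦 : 𝒦.Countable)
    (hU : U.Countable) {G : E3 → E3 → ℝ≥0∞} (hG : ∀ v y, G (-v) y = G v y) {p : ℝ} (hp : 0 ≤ p)
    {ν : Type*} (κ : ν → R.κ) (c : ν → ℝ≥0∞) (s : E3) :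
    ∑' m, c m * (R.toPT 𝒦 U h𝒦 hU).EnC G p (κ m) s ≤ ∑' m, c m * (toPTU R).EnC G p (κ m) s :=
  ENNReal.tsum_le_tsum fun m => mul_le_mul_right (EnC_toPT_le R h𝒦 hU hG hp (κ m) s) _

theorem measurable_EnCU (R : RT J) {G : E3 → E3 → ℝ≥0∞} (hGm : ∀ v, Measurable (G v)) (p : ℝ)
    (k : R.κ) : Measurable ((toPTU R).EnC G p k) := by
  have : Countable (toPTU R).τ := (toPTU R).cτ
  exact Crest.Agent.R96.Sg8_199.measurable_EnA (μ := volume)
    (fun t : {t // (toPTU R).cl t = k} => (toPTU R).Til t) (fun t => (toPTU R).Acm t)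
    (fun t => (toPTU R).Ed t) (fun t => ENNReal.ofReal ((toPTU R).β t)) (toPTU R).x (toPTU R).v
    (fun j => hGm ((toPTU R).v j)) p

/-- the universal structure covers every tile which is a potential tile -/
theorem cov_toPT (R : RT J) {a : E3} {w : J → E3} {Om : Set E3} {ι : Type} {T : Tiling Om ι}
    {i : ι} (h : R.Cov a w T i) : (toPTU R).Cov a w T i := by
  obtain ⟨t, ht⟩ := h
  refine ⟨t, ht.act, ht.tile, fun e he => ?_, ?_⟩
  · have hsub := Crest.Agent.R096.Ls_222.mem_eIn.1 he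
    set s := sh (R.bl (R.cl t)) a w with hsd
    have hin : Mfe_161.shf (-s) e.1 ⊆ R.Til t := by
      have h1 := ht.tile
      change _ = Mfe_161.shf s _ at h1
      rw [h1] at hsub
      have h2 := image_mono (f := fun y => y + -s) hsub
      change Mfe_161.shf _ _ ⊆ Mfe_161.shf _ (Mfe_161.shf _ _) at h2
      rwa [Mfe_161.shf_neg] at h2
    have hsh : R.frr t '' (Mfe_161.shf (-s) e.1) ∈ R.shs (R.cl t) := by
      refine mem_sUnion.2 ⟨_, ⟨ht.shp, ?_⟩, ?_⟩
      · refine Set.Finite.image _ ?_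
        refine (T.finite_cells (T.cpt i) (T.sub i)).subset ?_
        rintro _ ⟨x, hx, rfl⟩
        exact ⟨⟨x, T.sub i hx, rfl⟩, x, T.self_mem_cc x, hx⟩
      · obtain ⟨x, hx, -, hex⟩ := e.2
        refine ⟨e.1, ⟨x, hsub ?_, hex⟩, ?_⟩
        · rw [hex]
          exact T.self_mem_cc x
        · show ((shE s).trans (R.frr t)) '' e.1 = R.frr t '' (Mfe_161.shf (-s) e.1)
          unfold Mfe_161.shf
          rw [image_image]
          refine image_congr fun y _ => ?_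
          rw [AffineEquiv.trans_apply, shE_apply, sub_eq_add_neg]
    have hsg : Mfe_161.shf (-s) e.1 =
        sgm (Crest.Agent.R096.Ls_222.ea e + -s) (Crest.Agent.R096.Ls_222.ev e) := by
      rw [← Mfe_161.shf_sgm, Crest.Agent.R096.Ls_222.sgm_edg]
    set K : Sgt (KU R) {0} := ⟨Mfe_161.shf (-s) e.1, mem_KK_zero.2 ⟨t, hsh⟩,
      (Crest.Agent.R096.Ls_222.ea e + -s, Crest.Agent.R096.Ls_222.ev e),
      Crest.Agent.R096.Ls_222.ev_ne e, hsg⟩ with hK
    have hKe : e.1 = sgm (K.p.1 + s) K.p.2 := by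
      rw [← Mfe_161.shf_sgm, ← K.p_eq]
      show e.1 = Mfe_161.shf s (Mfe_161.shf (-s) e.1)
      rw [Mfe_161.shf_neg']
    rw [hKe]
    exact subset_iUnion₂_of_subset K ((mem_EdU_iff R).2 ⟨hin, hsh⟩) (subset_refl _)
  · refine ⟨(shE (sh (R.bl (R.cl t)) a w)).trans (R.frr t), fun y => ?_, ht.shp⟩
    rw [shE_trans_linear]
    exact R.frn t y

end

end Crest.Agent.R096.Uni_663
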