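import Crest.Agent.R096.Exa2_365

/-!
Row 96 (S0127), helper365.  **EXIN-AVG**, part 3: the version for `ExIn` with translates in a cube of
side `ρ` in the coordinates `A`; choice of a small lattice cube of translates with few bad points.
-/

set_option autoImplicit false
set_option linter.style.longLine false
set_option linter.unusedSectionVars false

open MeasureTheory Set Filter Topology Metric
open scoped ENNReal NNReal

namespace Crest.Agent.R096.Exa_365

open Crest.AnalysisR.VecCalc3 Crest.AnalysisR.Sobolev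
open Crest.Agent.R096.SkC1_961 (E3 Hom3)
open Crest.Agent.R096.Er_594 (SH3)
open Crest.Agent.R096.Bsp_628 Crest.Agent.R096.Brk5_582
open Crest.Agent.R096.Bxs_627 (ctr)
open Crest.Agent.R096.EaX_766 (lin cbx ExIn)
open Crest.Agent.R96.Sg1_199

noncomputable section

variable {p : ℝ} {Om La : Set E3} {f : E3 → E3} {D : E3 → E3 →L[ℝ] E3} {A : E3 ≃ᵃ[ℝ] E3}

theorem isClosed_cbx (Q : Bx (Fin 3)) (lam : ℝ) : IsClosed (cbx Q lam) := by
  unfold cbx
  simp only [Set.setOf_forall]
  exact isClosed_iInter fun k => isClosed_le (by fun_prop) continuous_const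

theorem continuous_aff (A : E3 ≃ᵃ[ℝ] E3) : Continuous A :=
  AffineMap.continuous_of_finiteDimensional A.toAffineMap

theorem det_lin_ne (A : E3 ≃ᵃ[ℝ] E3) : (lin A).det ≠ 0 := by
  have h1 : (lin A).det = LinearMap.det (A.linear : E3 →ₗ[ℝ] E3) := rfl
  rw [h1]
  exact (LinearEquiv.isUnit_det' A.linear).ne_zero

/-- the set of translates: `lin A w ∈ [0,ρ]^3` -/
def Wt (A : E3 ≃ᵃ[ℝ] E3) (ρ : ℝ) : Set E3 := lin A ⁻¹' Icc 0 (fun _ => ρ)

theorem measurableSet_Wt (A : E3 ≃ᵃ[ℝ] E3) (ρ : ℝ) : MeasurableSet (Wt A ρ) :=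
  (lin A).continuous.measurable measurableSet_Icc

theorem volume_Wt (A : E3 ≃ᵃ[ℝ] E3) {ρ : ℝ} (hρ : 0 ≤ ρ) :
    volume (Wt A ρ) = ENNReal.ofReal |(lin A).det|⁻¹ * ENNReal.ofReal (ρ ^ 3) := by
  unfold Wt
  have h1 := Measure.addHaar_preimage_continuousLinearMap (volume : Measure E3) (f := lin A)
    (det_lin_ne A) (Icc 0 (fun _ => ρ))
  rw [h1]
  congr 1
  · rw [abs_inv]
  · rw [Real.volume_Icc_pi]
    simp only [Pi.zero_apply, sub_zero, Finset.prod_const, Finset.card_univ, Fintype.card_fin]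
    rw [ENNReal.ofReal_pow hρ]

/-- **EXIN-AVG**: for most translates `w` (`lin A w ∈ [0,ρ]^3`), all segments of the family are good. -/
theorem exin_box (hO : IsOpen Om) (h : SH3 p Om La f D) {o : E3} {u κ1 κ2 : ℝ}
    {Q : Bx (Fin 3)} {lam : ℝ} (hE : ExIn p Om f D o u κ1 κ2 Q A lam)
    {J : Type*} [Fintype J] (x v : J → E3) {ρ : ℝ} (hρ : 0 < ρ)
    (hsub : ∀ j, ∀ y ∈ sgm (A (x j)) (lin A (v j)), ∀ b ∈ Icc (0 : E3) (fun _ => ρ),
      y + b ∈ cbx Q ((1 + 2 * κ2) * lam)) {η θ : ℝ} (hη : 0 < η) (hθ : 0 ≤ θ)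
    (hκ : (Fintype.card J : ℝ) * (κ1 * (lam * Q.sz) ^ 3) ≤ θ * η * ρ ^ 3) :
    volume {w | w ∈ Wt A ρ ∧ ¬ GoodW p Om f D A x v (ENNReal.ofReal η) w} ≤
      ENNReal.ofReal θ * volume (Wt A ρ) := by
  set V : Set E3 := A ⁻¹' cbx Q ((1 + 2 * κ2) * lam) with hVdef
  have hV : MeasurableSet V := ((isClosed_cbx Q _).preimage (continuous_aff A)).measurableSet
  have hVO : V ⊆ Om := fun y hy => (hE.cor y (Or.inr hy)).1
  refine exin_avg hO h x v (measurableSet_Wt A ρ) hV hVO ?_ (by simpa using hη) ENNReal.ofReal_ne_top ?_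
  · rintro w hw j y ⟨τ, hτ, rfl⟩
    have h1 : A (x j + w + τ • v j) = (A (x j) + τ • lin A (v j)) + lin A w := by
      rw [aff_add, aff_add, map_smul]
      abel
    simp only [hVdef, mem_preimage, h1]
    exact hsub j _ ⟨τ, hτ, rfl⟩ _ hw
  · have hd : 0 < |(lin A).det| := abs_pos.2 (det_lin_ne A)
    have h1 := hE.lp
    have h2 : ENNReal.ofReal |(lin A).det| * (ENNReal.ofReal |(lin A).det|⁻¹) = 1 := by
      rw [← ENNReal.ofReal_mul hd.le, mul_inv_cancel₀ hd.ne', ENNReal.ofReal_one]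
    have h3 : ∫⁻ z in V, Gd A D z ^ p ≤
        ENNReal.ofReal |(lin A).det|⁻¹ * ENNReal.ofReal (κ1 * (lam * Q.sz) ^ 3) := by
      calc ∫⁻ z in V, Gd A D z ^ p
          = (ENNReal.ofReal |(lin A).det| * ENNReal.ofReal |(lin A).det|⁻¹) * ∫⁻ z in V, Gd A D z ^ p := by
            rw [h2, one_mul]
        _ = ENNReal.ofReal |(lin A).det|⁻¹ * (ENNReal.ofReal |(lin A).det| * ∫⁻ z in V, Gd A D z ^ p) := by
            ring
        _ ≤ _ := by gcongr; exact h1
    rw [volume_Wt A hρ.le]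
    calc (Fintype.card J : ℝ≥0∞) * ∫⁻ z in V, Gd A D z ^ p
        ≤ (Fintype.card J : ℝ≥0∞) *
          (ENNReal.ofReal |(lin A).det|⁻¹ * ENNReal.ofReal (κ1 * (lam * Q.sz) ^ 3)) := by gcongr
      _ = ENNReal.ofReal |(lin A).det|⁻¹ *
          ENNReal.ofReal ((Fintype.card J : ℝ) * (κ1 * (lam * Q.sz) ^ 3)) := by
          rw [ENNReal.ofReal_mul (Nat.cast_nonneg _), ENNReal.ofReal_natCast]
          ring
      _ ≤ ENNReal.ofReal |(lin A).det|⁻¹ * ENNReal.ofReal (θ * η * ρ ^ 3) := by gcongr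
      _ = _ := by
          rw [ENNReal.ofReal_mul (mul_nonneg hθ hη.le), ENNReal.ofReal_mul hθ]
          ring

/-! ### density -/

/-- the closed cube of side `r` with the corner `z • r` -/
def Cz (r : ℝ) (z : Fin 3 → ℤ) : Set E3 := Icc (fun i => (z i : ℝ) * r) (fun i => (z i : ℝ) * r + r)

theorem volume_Cz {r : ℝ} (hr : 0 ≤ r) (z : Fin 3 → ℤ) : volume (Cz r z) = ENNReal.ofReal (r ^ 3) := by
  unfold Cz
  rw [Real.volume_Icc_pi]
  simp only [add_sub_cancel_left, Finset.prod_const, Finset.card_univ, Fintype.card_fin]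
  rw [ENNReal.ofReal_pow hr]

theorem Cz_subset {r : ℝ} (hr : 0 < r) {y : E3} {z : Fin 3 → ℤ} (hy : y ∈ Cz r z) :
    Cz r z ⊆ closedBall y r := by
  intro y' hy'
  rw [mem_closedBall, dist_pi_le_iff hr.le]
  intro i
  have h1 := hy.1 i
  have h2 := hy.2 i
  have h3 := hy'.1 i
  have h4 := hy'.2 i
  simp only at h1 h2 h3 h4
  rw [Real.dist_eq, abs_le]
  constructor <;> linarith

theorem exists_Cz {r : ℝ} (hr : 0 < r) (y : E3) : ∃ z : Fin 3 → ℤ, y ∈ Cz r z := by
  refine ⟨fun i => ⌊y i / r⌋, fun i => ?_, fun i => ?_⟩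
  · have h1 := Int.floor_le (y i / r)
    rwa [le_div_iff₀ hr] at h1
  · have h1 := (Int.lt_floor_add_one (y i / r)).le
    rw [div_le_iff₀ hr] at h1
    simp only
    linarith

/-- **density choice of the final cube of translates**: if the good set has positive measure in an open
set `B`, then at every small scale `r` some lattice cube inside `B` is almost filled by it. -/
theorem exists_good_cube {B G : Set E3} (hB : IsOpen B) (hG : MeasurableSet G)
    (hpos : volume (B ∩ G) ≠ 0) {ε : ℝ≥0∞} (hε : ε ≠ 0) :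
    ∃ r0 : ℝ, 0 < r0 ∧ ∀ r : ℝ, 0 < r → r ≤ r0 → ∃ z : Fin 3 → ℤ, Cz r z ⊆ B ∧
      volume (Cz r z \ G) ≤ ε * ENNReal.ofReal (r ^ 3) := by
  -- a density point
  have hmeas : MeasurableSet (B ∩ G) := hB.measurableSet.inter hG
  have hae := IsUnifLocDoublingMeasure.ae_tendsto_measure_inter_div (volume : Measure E3) (B ∩ G) 1
  have hex : ∃ y, y ∈ B ∩ G ∧ ∀ {ι : Type} {l : Filter ι} (w : ι → E3) (δ : ι → ℝ)
      (_ : Tendsto δ l (𝓝[>] 0)) (_ : ∀ᶠ j in l, y ∈ closedBall (w j) (1 * δ j)),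
      Tendsto (fun j => volume ((B ∩ G) ∩ closedBall (w j) (δ j)) / volume (closedBall (w j) (δ j)))
        l (𝓝 1) := by
    by_contra hcon
    push Not at hcon
    apply hpos
    have h1 : (volume.restrict (B ∩ G)) univ = 0 := by
      have h2 : ∀ᵐ y ∂(volume.restrict (B ∩ G)), False := by
        filter_upwards [hae, ae_restrict_mem hmeas] with y hy hyB
        obtain ⟨ι, l, w, δ, ha, hb, hc⟩ := hcon y hyB
        exact hc (hy w δ ha hb)
      rw [ae_iff] at h2
      simpa using h2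
    rwa [Measure.restrict_apply_univ] at h1
  obtain ⟨y, hy, hd⟩ := hex
  obtain ⟨ρ, hρ, hρB⟩ := Metric.isOpen_iff.1 hB y hy.1
  -- balls of radius `r` at `y` with factor 8 for the volume
  have hball : ∀ r : ℝ, 0 < r → volume (closedBall y r) = ENNReal.ofReal ((2 * r) ^ 3) := by
    intro r hr
    rw [Real.volume_pi_closedBall _ hr.le]
    simp
  have ht := hd (ι := ℝ) (l := 𝓝[>] (0:ℝ)) (fun _ => y) (fun r => r) tendsto_id
    (by
      filter_upwards [self_mem_nhdsWithin] with r hr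
      rw [one_mul]
      exact mem_closedBall_self (le_of_lt hr))
  -- eventually the ratio is > 1 - ε/8
  have hlt : (1:ℝ≥0∞) - ε / 8 < 1 := by
    apply ENNReal.sub_lt_self (by norm_num) (by norm_num)
    exact (ENNReal.div_pos hε (by norm_num)).ne'
  have hev := ht.eventually (lt_mem_nhds hlt)
  obtain ⟨r1, hr1, hr1'⟩ := (mem_nhdsGT_iff_exists_Ioc_subset).1 hev
  refine ⟨min r1 (ρ / 2), lt_min hr1 (half_pos hρ), fun r hr hr0 => ?_⟩
  obtain ⟨z, hz⟩ := exists_Cz hr y
  have hsub := Cz_subset hr hz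
  refine ⟨z, fun y' hy' => hρB ?_, ?_⟩
  · have h1 := hsub hy'
    rw [mem_closedBall] at h1
    rw [mem_ball]
    have h2 := hr0.trans (min_le_right _ _)
    linarith
  · have h1 : (1:ℝ≥0∞) - ε / 8 < volume ((B ∩ G) ∩ closedBall y r) / volume (closedBall y r) :=
      hr1' ⟨hr, hr0.trans (min_le_left _ _)⟩
    have hvpos : volume (closedBall y r) ≠ 0 := by
      rw [hball r hr]
      simp only [ne_eq, ENNReal.ofReal_eq_zero, not_le]
      positivity
    have hvfin : volume (closedBall y r) ≠ ∞ := by rw [hball r hr]; exact ENNReal.ofReal_ne_top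
    have h2 : (1 - ε / 8) * volume (closedBall y r) ≤ volume ((B ∩ G) ∩ closedBall y r) :=
      (ENNReal.le_div_iff_mul_le (Or.inl hvpos) (Or.inl hvfin)).1 h1.le
    have h3 : volume (closedBall y r \ (B ∩ G)) ≤ ε / 8 * volume (closedBall y r) := by
      have h4 : volume (closedBall y r) = volume (closedBall y r ∩ (B ∩ G)) +
          volume (closedBall y r \ (B ∩ G)) := (measure_inter_add_diff _ hmeas).symm
      rw [inter_comm] at h2
      have h6 : volume (closedBall y r ∩ (B ∩ G)) ≠ ∞ :=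
        ((measure_mono inter_subset_left).trans_lt hvfin.lt_top).ne
      have h7 : volume (closedBall y r \ (B ∩ G)) =
          volume (closedBall y r) - volume (closedBall y r ∩ (B ∩ G)) := by
        rw [h4, ENNReal.add_sub_cancel_left h6]
      rw [h7]
      calc volume (closedBall y r) - volume (closedBall y r ∩ (B ∩ G))
          ≤ volume (closedBall y r) - (1 - ε / 8) * volume (closedBall y r) := by gcongr
        _ ≤ ε / 8 * volume (closedBall y r) := by
            rw [tsub_le_iff_right, ← add_mul]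
            calc volume (closedBall y r) = 1 * volume (closedBall y r) := (one_mul _).symm
              _ ≤ _ := by gcongr; exact le_add_tsub
    calc volume (Cz r z \ G) ≤ volume (closedBall y r \ (B ∩ G)) := by
          apply measure_mono
          rintro y' ⟨h8, h9⟩
          exact ⟨hsub h8, fun h10 => h9 h10.2⟩
      _ ≤ ε / 8 * volume (closedBall y r) := h3
      _ = ε * ENNReal.ofReal (r ^ 3) := by
          rw [hball r hr, mul_pow, ENNReal.ofReal_mul (by norm_num)]
          have h8 : ENNReal.ofReal ((2:ℝ) ^ 3) = 8 := by norm_num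
          rw [h8, ← mul_assoc, ENNReal.div_mul_cancel (by norm_num) (by norm_num)]

end

end Crest.Agent.R096.Exa_365
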