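/-
helper222, row 96, EA0 (p <= 2), **[G0] = (B3) OF `pre_gen` FOR EA0, one block**: the set of good total
shifts of a block: [E6] (coarse classes by (2b)), [E7] (fine classes, mean over `Tw`, 748), [E10] (872).
-/
import Mathlib
import Crest.Agent.R096.Qc0_222
import Crest.Agent.R096.Ez5_748
import Crest.Agent.R096.Uni1_663
import Crest.Agent.R96.Gj3_872

set_option autoImplicit false
set_option linter.unusedSectionVars false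

open MeasureTheory Set Filter Metric
open scoped Topology ENNReal NNReal

namespace Crest.Agent.R096.Gz_222

open Crest.Agent.R096.Msh_715 Crest.Agent.R096.Mal_874 Crest.Agent.R096.Ncl_476
  Crest.Agent.R096.Msh_810 Crest.Agent.R096.Ine_222 Crest.Agent.R096.Mfi_290
open Crest.Agent.R096.Bsp_628 (Bx)
open Crest.Agent.R096.SkC1_961 (E3 Cfg)
open Crest.Agent.R96.Sg1_199 (li sgm sgm_eq_segment)
open Crest.Agent.R096.Ls_222 (Edg ea ev eIn mem_eIn sgm_edg ev_ne sgm_cases)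
open Crest.Agent.R096.EaX_766 (lin)
open Crest.Agent.R096.Ea0_961 (Ed InS Blk Tw Ly)
open Crest.Agent.R096.Pmc_112 (Gd')
open Crest.Agent.R096.Uni_663 (toPTU EnC_toPT_le measurable_EnCU)
open Crest.Agent.R096.Ez4_748 (CF far0_Tw int_D' measurableSet_Ly kc_lt)
open Crest.Agent.R96.Gj_872 (TraW volume_not_tra exists_good measurableSet_Tw volume_Tw_ne
  volume_Tw_ne_top)
open Crest.Agent.R096.Qc_222 (coarse0 ae_cmp gd_even)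

noncomputable section

/-- **[G0], one block: the good total shifts.** `Pz` = the points where `D'` is controlled by `D`. -/
theorem good_block {Bs : ℕ} (hB1 : 1 ≤ Bs) {p : ℝ} (hp : 1 ≤ p) (hp3 : p ≤ 3) :
    ∃ C : ℝ≥0, 0 < C ∧
    ∀ {J : Type} (M : MD E3 3 J) (X : RD M) (j : J) (k0 : ℕ) (hk0 : (M.Q j).kc ≤ k0)
      (A : E3 ≃ᵃ[ℝ] E3) (u : ℝ), (M.Q j).kc < k0 → 0 < u →
      (∀ x : E3, A.linear x = u • (M.Q j).ψ x) →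
      (∀ i, ∀ p ∈ (M.Q j).S.GG i, ∀ l, |p.1 l| ≤ Bs) →
      (∀ i, i ≠ (M.Q j).S.core → ∀ v ∈ ZP ((M.Q j).S.GG i), ∀ w ∈ ZP ((M.Q j).S.GG i),
        ∀ l, |w l - v l| ≤ Bs) →
    ∀ (D D' : E3 → E3 →L[ℝ] E3) (KQ : ℝ) (Pz : E3 → Prop), (∀ w, Measurable fun z => D' z w) →
      0 ≤ KQ → (∀ᵐ x, Pz x → ∀ v, ‖D' x v‖ ≤ KQ * ‖D x v‖) →
      (∀ y ∈ (M.Q j).N, ∀ s ∈ Tw (M.Q j) k0, Pz (y + s)) → (∀ x ∈ Ly (M.Q j) k0, Pz x) →
    ∀ K : ℝ, 0 ≤ K → (∀ y, ‖(M.Q j).ψ y‖ ≤ K * ‖y‖ ∧ ‖y‖ ≤ K * ‖(M.Q j).ψ y‖) →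
    ∀ (Cc κw : ℝ) (er : ℝ≥0∞),
      volume {w | w ∈ Tw (M.Q j) k0 ∧ ¬ TraW p D Cc κw A er (M.Q j) k0 hk0 w} ≤
        ENNReal.ofReal (1 / 4) * volume (Tw (M.Q j) k0) →
    ∀ P : E3 → Prop, (∀ᵐ v : E3, v ∈ Tw (M.Q j) k0 → P v) →
    ∃ Gd : Set E3, MeasurableSet Gd ∧ Gd ⊆ Tw (M.Q j) k0 ∧ volume Gd ≠ 0 ∧
      ∀ v ∈ Gd, P v ∧ TraW p D Cc κw A er (M.Q j) k0 hk0 v ∧
        ∀ (𝒦 : Set (Set E3)) (U : Set E3) (h𝒦 : 𝒦.Countable) (hU : U.Countable),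
          ∑' c, ((QI M X j k0 hk0).toPT 𝒦 U h𝒦 hU).EnC (Gd' D') p c v ≤
            C * ENNReal.ofReal KQ ^ p * (ENNReal.ofReal (Cc * ‖lin A‖ ^ p) *
              volume ((M.Q j).N \ (M.Q j).Kc) + er) +
            8 * CF K p 10 * ENNReal.ofReal KQ ^ p * ∫⁻ z in Ly (M.Q j) k0, ‖D z‖ₑ ^ p := by
  have hp0 : 0 ≤ p := by linarith
  obtain ⟨C, hC, HC⟩ := coarse0 hB1 hp hp3
  refine ⟨C, hC, ?_⟩
  intro J M X j k0 hk0 A u hlt hu hA hB hR D D' KQ Pz hDm hKQ hPz hN hL K hK0 hK Cc κw er htr P hP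
  -- the fine energy
  set F : E3 → ℝ≥0∞ := fun v => ∑' m : ℕ, (toPTU (QI M X j k0 hk0)).EnC (Gd' D') p (Sum.inr m) v
    with hF
  have hGm : ∀ v, Measurable (Gd' D' v) := fun v => (hDm v).enorm
  have hFm : Measurable F := Measurable.tsum fun m => measurable_EnCU _ hGm p _
  set m0 : ℝ≥0∞ := CF K p 10 * (ENNReal.ofReal KQ ^ p * ∫⁻ z in Ly (M.Q j) k0, ‖D z‖ₑ ^ p) with hm0
  have hmean : ∫⁻ v in Tw (M.Q j) k0, F v ≤ m0 * volume (Tw (M.Q j) k0) := by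
    have h1 := far0_Tw M X j k0 hk0 hlt (Uni_663.KU_countable (QI M X j k0 hk0))
      (countable_singleton 0) hDm hK0 hK (w := fun _ => 1) (Cw := 1) (fun _ => le_rfl) (by simp) hp
    have h2 : ∫⁻ z in Ly (M.Q j) k0, ‖D' z‖ₑ ^ p ≤
        ENNReal.ofReal KQ ^ p * ∫⁻ z in Ly (M.Q j) k0, ‖D z‖ₑ ^ p := by
      refine int_D' (measurableSet_Ly _ _) hp0 ?_
      filter_upwards [hPz] with x hx hxL
      exact hx (hL x hxL)
    calc ∫⁻ v in Tw (M.Q j) k0, F v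
        = ∫⁻ v in Tw (M.Q j) k0, ∑' m : ℕ,
            1 * (toPTU (QI M X j k0 hk0)).EnC (Gd' D') p (Sum.inr m) v := by
          simp only [one_mul]
          rfl
      _ ≤ 1 * CF K p 10 * (∫⁻ z in Ly (M.Q j) k0, ‖D' z‖ₑ ^ p) * volume (Tw (M.Q j) k0) := h1
      _ ≤ 1 * CF K p 10 * (ENNReal.ofReal KQ ^ p * ∫⁻ z in Ly (M.Q j) k0, ‖D z‖ₑ ^ p) *
            volume (Tw (M.Q j) k0) := by gcongr
      _ = m0 * volume (Tw (M.Q j) k0) := by rw [hm0, one_mul]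
  -- the a.e. properties
  have hz0 : m0 = 0 → ∀ᵐ v, v ∈ Tw (M.Q j) k0 → F v = 0 := by
    intro h0
    have h1 : ∫⁻ v in Tw (M.Q j) k0, F v = 0 := by
      have h2 := hmean
      rw [h0, zero_mul] at h2
      exact le_antisymm h2 zero_le
    rw [lintegral_eq_zero_iff hFm] at h1
    exact (ae_restrict_iff' (measurableSet_Tw _ _)).1 h1
  have hcmp : ∀ᵐ s : E3, (∀ y ∈ (M.Q j).N, y + s ∈ (univ : Set E3) → Pz (y + s)) →
      ∀ e : Edg ((M.Q j).T k0 hk0), e.1 ⊆ (M.Q j).N →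
      li (Gd' D' (ev e)) (ea e + s) (ev e) ≤
        ENNReal.ofReal KQ * li (Gd' D (ev e)) (ea e + s) (ev e) := by
    have : Countable (TIx (M.Q j) k0 hk0) := inferInstance
    refine ae_cmp ((M.Q j).T k0 hk0) (M.Q j).N (O := univ) hKQ (fun x hx => absurd (mem_univ x) hx) ?_
    filter_upwards [hPz] with x hx _ h
    exact hx h
  set P' : E3 → Prop := fun v => P v ∧ (m0 = 0 → F v = 0) ∧
    ∀ e : Edg ((M.Q j).T k0 hk0), e.1 ⊆ (M.Q j).N →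
      li (Gd' D' (ev e)) (ea e + v) (ev e) ≤
        ENNReal.ofReal KQ * li (Gd' D (ev e)) (ea e + v) (ev e) with hP'
  have hP'ae : ∀ᵐ v, v ∈ Tw (M.Q j) k0 → P' v := by
    by_cases h0 : m0 = 0
    · filter_upwards [hP, hz0 h0, hcmp] with v h1 h2 h3 hv
      exact ⟨h1 hv, fun _ => h2 hv, h3 fun y hy _ => hN y hy v hv⟩
    · filter_upwards [hP, hcmp] with v h1 h3 hv
      exact ⟨h1 hv, fun h => absurd h h0, h3 fun y hy _ => hN y hy v hv⟩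
  have hθ : (8:ℝ≥0∞)⁻¹ + ENNReal.ofReal (1 / 4) < 1 := by
    have h1 : (8:ℝ≥0∞)⁻¹ = ENNReal.ofReal (1 / 8) := by
      rw [one_div, ENNReal.ofReal_inv_of_pos (by norm_num)]
      norm_num
    rw [h1, ← ENNReal.ofReal_add (by norm_num) (by norm_num), ← ENNReal.ofReal_one]
    exact (ENNReal.ofReal_lt_ofReal_iff one_pos).2 (by norm_num)
  set m1 : ℝ≥0∞ := if m0 = 0 then 1 else m0 with hm1
  have hm10 : m1 ≠ 0 := by
    rw [hm1]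
    split_ifs with h
    · exact one_ne_zero
    · exact h
  have hm01 : m0 ≤ m1 := by
    rw [hm1]
    split_ifs with h
    · rw [h]; exact zero_le
    · exact le_rfl
  obtain ⟨G, hG1, hG2, hG3, -, hG4⟩ := exists_good (μ := volume) (ι' := Unit)
    (measurableSet_Tw (M.Q j) k0) (volume_Tw_ne _ _) (volume_Tw_ne_top _ _) (F := fun _ => F)
    (fun _ => hFm) (lam := fun _ => 8) (m := fun _ => m1) (fun _ => hm10) (fun _ => by norm_num)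
    (fun _ => by norm_num) (fun _ => hmean.trans (mul_le_mul' hm01 le_rfl)) (θ₁ := 8⁻¹)
    (by rw [tsum_fintype]; simp) hP'ae htr hθ
  refine ⟨G, hG2, hG1, hG3, fun v hv => ?_⟩
  obtain ⟨⟨h1, h2, h3⟩, h4, h5⟩ := hG4 v hv
  refine ⟨h1, h4, fun 𝒦 U h𝒦 hU => ?_⟩
  -- the coarse classes
  have hco := HC M X j k0 hk0 𝒦 U h𝒦 hU A u hu hA hB hR D D' (ENNReal.ofReal KQ) v h3 1 _ h4.b2
  -- the fine classes
  have hfi : ∑' m : ℕ, ((QI M X j k0 hk0).toPT 𝒦 U h𝒦 hU).EnC (Gd' D') p (Sum.inr m) v ≤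
      8 * m0 := by
    refine (ENNReal.tsum_le_tsum fun m => EnC_toPT_le (QI M X j k0 hk0) h𝒦 hU (gd_even D') hp0
      (Sum.inr m) v).trans ?_
    change F v ≤ _
    by_cases h0 : m0 = 0
    · rw [h2 h0]
      exact zero_le
    · have h6 := h5 ()
      rwa [hm1, if_neg h0] at h6
  have hsum : ∑' c, ((QI M X j k0 hk0).toPT 𝒦 U h𝒦 hU).EnC (Gd' D') p c v =
      ∑' t : Pt (M.Q j), ((QI M X j k0 hk0).toPT 𝒦 U h𝒦 hU).EnC (Gd' D') p (Sum.inl t) v +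
      ∑' m : ℕ, ((QI M X j k0 hk0).toPT 𝒦 U h𝒦 hU).EnC (Gd' D') p (Sum.inr m) v :=
    Summable.tsum_sum (f := fun c : Pt (M.Q j) ⊕ ℕ =>
      ((QI M X j k0 hk0).toPT 𝒦 U h𝒦 hU).EnC (Gd' D') p c v) ENNReal.summable ENNReal.summable
  rw [hsum]
  refine add_le_add ?_ ?_
  · refine le_trans (le_of_eq (tsum_congr fun t => ?_)) (hco.trans (le_of_eq ?_))
    · rw [ENNReal.one_rpow, one_mul]
    · rw [one_mul]
  · refine hfi.trans (le_of_eq ?_)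
    rw [hm0]
    ring

/-- **[G0] for `Ea0_961`: (B3) of `pre_gen`, and the data for (B2)** -/
theorem good_block0 {Bs : ℕ} (hB1 : 1 ≤ Bs) {p : ℝ} (hp : 1 ≤ p) (hp3 : p ≤ 3) :
    ∃ C : ℝ≥0, 0 < C ∧
    ∀ {Om : Set E3} {f : E3 → E3} {D : E3 → E3 →L[ℝ] E3} {F : Set (Bx (Fin 3))} {u Cc κ1 κ2 κw κt : ℝ}
      {Mg Nn : ℕ} {c : F} {A : E3 ≃ᵃ[ℝ] E3} {lam : ℝ} {er : ℝ≥0∞} {Q : CB E3 3} {k0 : ℕ}
      {hk : Q.kc ≤ k0}, 0 < u → 0 ≤ κt → κt * Cc < 1 → Blk F u Cc κ2 κt Bs Mg Nn c A lam Q k0 hk →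
      InS p Om f D Cc κ1 κ2 κw Mg c.1 A lam er Q k0 hk →
    ∀ (D' : E3 → E3 →L[ℝ] E3) (KQ : ℝ) (Pz : E3 → Prop), (∀ w, Measurable fun z => D' z w) →
      0 ≤ KQ → (∀ᵐ x, Pz x → ∀ v, ‖D' x v‖ ≤ KQ * ‖D x v‖) →
      (∀ y ∈ Q.N, ∀ s ∈ Tw Q k0, Pz (y + s)) → (∀ x ∈ Ly Q k0, Pz x) →
    ∀ K : ℝ, 0 ≤ K → (∀ y, ‖Q.ψ y‖ ≤ K * ‖y‖ ∧ ‖y‖ ≤ K * ‖Q.ψ y‖) →
    ∀ P : E3 → Prop, (∀ᵐ v : E3, v ∈ Tw Q k0 → P v) →
    ∀ {J : Type} (M : MD E3 3 J) (X : RD M) (j : J) (hQ : M.Q j = Q) (hk' : (M.Q j).kc ≤ k0),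
    ∃ Gd : Set E3, MeasurableSet Gd ∧ Gd ⊆ Tw Q k0 ∧ volume Gd ≠ 0 ∧
      ∀ v ∈ Gd, P v ∧ TraW p D Cc κw A er Q k0 hk v ∧
        ∀ (𝒦 : Set (Set E3)) (U : Set E3) (h𝒦 : 𝒦.Countable) (hU : U.Countable),
          ∑' c, ((QI M X j k0 hk').toPT 𝒦 U h𝒦 hU).EnC (Gd' D') p c v ≤
            C * ENNReal.ofReal KQ ^ p * (ENNReal.ofReal (Cc * ‖lin A‖ ^ p) *
              volume (Q.N \ Q.Kc) + er) +
            8 * CF K p 10 * ENNReal.ofReal KQ ^ p * ∫⁻ z in Ly Q k0, ‖D z‖ₑ ^ p := by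
  obtain ⟨C, hC, H⟩ := good_block hB1 hp hp3
  refine ⟨C, hC, ?_⟩
  intro Om f D F u Cc κ1 κ2 κw κt Mg Nn c A lam er Q k0 hk hu hκt hcc hB hI D' KQ Pz hDm hKQ hPz
    hN hL K hK0 hK P hP J M X j hQ hk'
  subst hQ
  exact H M X j k0 hk' A u (kc_lt hB hu hκt hcc) hu hB.lin_eq hB.hB hB.hR D D' KQ Pz hDm hKQ hPz hN
    hL K hK0 hK Cc κw er (volume_not_tra hI) P hP

end

end Crest.Agent.R096.Gz_222
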