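import Crest.Agent.R096.Cnt1_324
import Crest.Agent.R096.Mal15_874

/-!
# Row 96 (S0127), helper324: the inequalities of 874's mesh of core blocks, up to the shift

`Hfam M W` : countable family of inequalities (offsets `w ∈ W`); **`hs_mesh`** : for the shift `a` of the outer
grid and the translations `v j = φ.symm a + w j`, `w j ∈ W`, all inequalities of `M.mesh hk a hv` are those of
`Hfam M W` translated by `φ.symm a`.  `edge_md`, `ae_top_md` : the 1-cells; fixed points.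
-/

set_option autoImplicit false
set_option linter.unusedSectionVars false

open MeasureTheory Set Filter Topology Metric

namespace Crest.Agent.R096.Cnt_324

open Crest.Agent.R096.Msh_715 Crest.Agent.R96.Sg1_199 Crest.Agent.R096.Mal_874
open Crest.Agent.R096.Cut_874 Crest.Agent.R096.Msh_810

noncomputable section

variable {n : ℕ} {E : Type*} [NormedAddCommGroup E] [NormedSpace ℝ E]

/-! ### integer inequalities in a frame -/

theorem iq_shift (ψ : E ≃L[ℝ] (Fin n → ℝ)) (a' : Fin n → ℝ) (k : ℕ) (p : (Fin n → ℤ) × ℤ) (b : E) :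
    ((iq ψ (a' + ψ b) k p).1, (iq ψ (a' + ψ b) k p).2 - (iq ψ (a' + ψ b) k p).1 b) = iq ψ a' k p := by
  unfold iq
  refine Prod.ext rfl ?_
  show dt (rv p.1) (a' + ψ b) + p.2 / 2 ^ k - (∑ m, (p.1 m : ℝ) • co ψ m) b = _
  have e1 : (∑ m, (p.1 m : ℝ) • co ψ m) b = dt (rv p.1) (ψ b) := by
    rw [sum_apply]
    rfl
  have e2 : dt (rv p.1) (a' + ψ b) = dt (rv p.1) a' + dt (rv p.1) (ψ b) := by
    unfold dt
    rw [← Finset.sum_add_distrib]
    exact Finset.sum_congr rfl fun m _ => by rw [Pi.add_apply]; ring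
  rw [e1, e2]
  ring

theorem wall_eq_iq (ψ : E ≃L[ℝ] (Fin n → ℝ)) (a' : Fin n → ℝ) (k : ℕ) (m : Fin n) (t : ℤ) :
    ((co ψ m, a' m + t / 2 ^ k) : (E →L[ℝ] ℝ) × ℝ) = iq ψ a' k (ez m, t) := by
  unfold iq
  refine Prod.ext ?_ ?_
  · show co ψ m = ∑ l, ((ez m : Fin n → ℤ) l : ℝ) • co ψ l
    rw [Finset.sum_eq_single m]
    · simp [ez]
    · intro l _ hl
      simp [ez, Pi.single_eq_of_ne hl]
    · intro h
      exact absurd (Finset.mem_univ m) h
  · show a' m + t / 2 ^ k = dt (rv (ez m)) a' + t / 2 ^ k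
    rw [dt_ez]

theorem opp_eq_iq (ψ : E ≃L[ℝ] (Fin n → ℝ)) (a' : Fin n → ℝ) (k : ℕ) (m : Fin n) (t : ℤ) :
    (opp (co ψ m, a' m + t / 2 ^ k) : (E →L[ℝ] ℝ) × ℝ) = iq ψ a' k (-ez m, -t) := by
  unfold iq opp
  refine Prod.ext ?_ ?_
  · show -co ψ m = ∑ l, (((-ez m : Fin n → ℤ) l : ℤ) : ℝ) • co ψ l
    rw [Finset.sum_eq_single m]
    · have e : (((-ez m : Fin n → ℤ) m : ℤ) : ℝ) = -1 := by simp [ez]
      rw [e]
      ext y
      simp
    · intro l _ hl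
      simp [ez, Pi.single_eq_of_ne hl]
    · intro h
      exact absurd (Finset.mem_univ m) h
  · show -(a' m + t / 2 ^ k) = dt (rv (-ez m)) a' + ((-t : ℤ) : ℝ) / 2 ^ k
    rw [dt_neg_ez]
    push_cast
    ring

theorem hc_eq_iq (ψ : E ≃L[ℝ] (Fin n → ℝ)) (a' : Fin n → ℝ) (k : ℕ) (z : Fin n → ℤ) :
    ∀ h ∈ Hc ψ a' k z, ∃ p, h = iq ψ a' k p := by
  refine forall_Hc.2 fun i => ⟨?_, ?_⟩
  · refine ⟨(ez i, z i + 1), ?_⟩
    rw [← wall_eq_iq]
    push_cast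
    rfl
  · refine ⟨(-ez i, -(z i)), ?_⟩
    rw [← opp_eq_iq]
    rfl

/-! ### the family -/

section

variable {J : Type*}

/-- all integer inequalities of the outer grid at shift `0` and of the block grids at the offsets `w ∈ W` -/
def Hfam (M : MD E n J) (W : Set E) : Set ((E →L[ℝ] ℝ) × ℝ) :=
  {h | ∃ (k : ℕ) (p : (Fin n → ℤ) × ℤ), h = iq M.φ 0 k p} ∪
  {h | ∃ (j : J) (w : W) (k : ℕ) (p : (Fin n → ℤ) × ℤ),
    h = iq (M.Q j).ψ ((M.Q j).a' + (M.Q j).ψ (w : E)) k p}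

theorem countable_Hfam [Countable J] (M : MD E n J) {W : Set E} (hW : W.Countable) :
    (Hfam M W).Countable := by
  have : Countable W := hW.to_subtype
  unfold Hfam
  refine Set.Countable.union ?_ ?_
  · have h : {h | ∃ (k : ℕ) (p : (Fin n → ℤ) × ℤ), h = iq M.φ 0 k p} =
        range fun q : ℕ × ((Fin n → ℤ) × ℤ) => iq M.φ 0 q.1 q.2 := by
      ext h
      constructor
      · rintro ⟨k, p, rfl⟩
        exact ⟨(k, p), rfl⟩
      · rintro ⟨⟨k, p⟩, rfl⟩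
        exact ⟨k, p, rfl⟩
    rw [h]
    exact countable_range _
  · have h : {h | ∃ (j : J) (w : W) (k : ℕ) (p : (Fin n → ℤ) × ℤ),
        h = iq (M.Q j).ψ ((M.Q j).a' + (M.Q j).ψ (w : E)) k p} =
        range fun q : J × W × ℕ × ((Fin n → ℤ) × ℤ) =>
          iq (M.Q q.1).ψ ((M.Q q.1).a' + (M.Q q.1).ψ (q.2.1 : E)) q.2.2.1 q.2.2.2 := by
      ext h
      constructor
      · rintro ⟨j, w, k, p, rfl⟩
        exact ⟨(j, w, k, p), rfl⟩
      · rintro ⟨⟨j, w, k, p⟩, rfl⟩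
        exact ⟨j, w, k, p, rfl⟩
    rw [h]
    exact countable_range _

variable {M : MD E n J} {W : Set E} [NeZero n] {k : J → ℕ} (hk : M.Sc k) (a : Fin n → ℝ)
  {v : J → E} (hv : M.Adm v)

theorem mem_Hfam_outer (k : ℕ) (p : (Fin n → ℤ) × ℤ) :
    ((iq M.φ a k p).1, (iq M.φ a k p).2 - (iq M.φ a k p).1 (M.φ.symm a)) ∈ Hfam M W := by
  left
  refine ⟨k, p, ?_⟩
  have h := iq_shift M.φ 0 k p (M.φ.symm a)
  rw [ContinuousLinearEquiv.apply_symm_apply, zero_add] at h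
  exact h

theorem mem_Hfam_block {j : J} {w : E} (hw : w ∈ W) (hvj : v j = M.φ.symm a + w) (k : ℕ)
    (p : (Fin n → ℤ) × ℤ) :
    ((iq (M.Q j).ψ (M.Bk v j).a' k p).1, (iq (M.Q j).ψ (M.Bk v j).a' k p).2 -
      (iq (M.Q j).ψ (M.Bk v j).a' k p).1 (M.φ.symm a)) ∈ Hfam M W := by
  right
  refine ⟨j, ⟨w, hw⟩, k, p, ?_⟩
  have e : (M.Bk v j).a' = ((M.Q j).a' + (M.Q j).ψ w) + (M.Q j).ψ (M.φ.symm a) := by
    show (M.Q j).a' + (M.Q j).ψ (v j) = _
    rw [hvj, map_add]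
    abel
  rw [e]
  exact iq_shift (M.Q j).ψ ((M.Q j).a' + (M.Q j).ψ w) k p (M.φ.symm a)

/-- **all inequalities of the mesh of core blocks are those of the family, translated** -/
theorem hs_mesh (hw : ∀ j, ∃ w ∈ W, v j = M.φ.symm a + w) :
    HS (M.mesh hk a hv) (M.φ.symm a) (Hfam M W) := by
  rintro (p | ⟨j, i⟩) h hh
  · -- outer pieces
    have hh' : h ∈ (M.ad hk a hv).T1.H p.1 := hh
    rcases mem_cutH.1 hh' with h1 | h1 | ⟨b, h1, -, rfl⟩
    · obtain ⟨q, rfl⟩ := hc_eq_iq M.φ a _ _ h h1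
      exact mem_Hfam_outer a _ q
    · obtain ⟨j, -, m, t, rfl, -⟩ := of_mem_AF (p.1.2.1 h1)
      obtain ⟨w, hwW, hvj⟩ := hw j
      have e := wall_eq_iq (M.Q j).ψ (M.Bk v j).a' (M.Q j).kc m t
      have h2 := mem_Hfam_block a hwW hvj (M.Q j).kc (ez m, t)
      rw [← e] at h2
      exact h2
    · obtain ⟨j, -, m, t, rfl, -⟩ := of_mem_AF h1
      obtain ⟨w, hwW, hvj⟩ := hw j
      have e := opp_eq_iq (M.Q j).ψ (M.Bk v j).a' (M.Q j).kc m t
      have h2 := mem_Hfam_block a hwW hvj (M.Q j).kc (-ez m, -t)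
      rw [← e] at h2
      exact h2
  · -- inner tiles
    obtain ⟨w, hwW, hvj⟩ := hw j
    have hh' : h ∈ ((M.Bk v j).T (k j) (hk.kc j)).H i.1 := hh
    rcases hi : i.1 with τ | s
    · rw [hi, CB.T_inl] at hh'
      obtain ⟨q, rfl⟩ := hc_eq_iq (M.Q j).ψ (M.Bk v j).a' _ _ h hh'
      exact mem_Hfam_block a hwW hvj _ q
    · rw [hi, CB.T_inr] at hh'
      have key : ∀ h ∈ iH (M.Bk v j).ψ (M.Bk v j).a' (M.Bk v j).kc ((M.Bk v j).S.GG s),
          ((h.1, h.2 - h.1 (M.φ.symm a)) : (E →L[ℝ] ℝ) × ℝ) ∈ Hfam M W := by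
        rw [forall_iH (Q := fun h => ((h.1, h.2 - h.1 (M.φ.symm a)) : (E →L[ℝ] ℝ) × ℝ) ∈ Hfam M W)]
        exact fun q _ => mem_Hfam_block a hwW hvj _ q
      exact key h hh'

/-- **the 1-cells of the mesh of core blocks** -/
theorem edge_md [FiniteDimensional ℝ E] (hw : ∀ j, ∃ w ∈ W, v j = M.φ.symm a + w) {z : E}
    (hz : z ∈ M.φ ⁻¹' M.D0.Om) (hd : (M.mesh hk a hv).dim z = 1) :
    ∃ e : Eix (Hfam M W), (M.mesh hk a hv).cc z = sgm (ex e + M.φ.symm a) (ev e) :=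
  edge_code (hs_mesh hk a hv hw) hz hd

/-- **all closed cells of the mesh of core blocks** -/
theorem cell_md (hw : ∀ j, ∃ w ∈ W, v j = M.φ.symm a + w) {z : E} (hz : z ∈ M.φ ⁻¹' M.D0.Om) :
    ∃ F : Cod (Hfam M W), (M.mesh hk a hv).cc z = (fun y => y + M.φ.symm a) '' pol F :=
  cell_code' (hs_mesh hk a hv hw) hz

end

/-- dyadic offsets (in the outer frame) -/
def dyo {J : Type*} (M : MD E n J) : Set E := {w | ∃ κ : ℕ, ∀ l, ∃ z : ℤ, 2 ^ κ * M.φ w l = z}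

theorem countable_dyo {J : Type*} (M : MD E n J) : (dyo M).Countable := by
  have h : dyo M ⊆ range fun q : ℕ × (Fin n → ℤ) =>
      M.φ.symm (fun l => (q.2 l : ℝ) / 2 ^ q.1) := by
    rintro w ⟨κ, hκ⟩
    choose z hz using hκ
    refine ⟨(κ, z), ?_⟩
    show M.φ.symm (fun l => (z l : ℝ) / 2 ^ κ) = w
    rw [ContinuousLinearEquiv.symm_apply_eq]
    funext l
    rw [← hz l]
    field_simp
  exact (countable_range _).mono h

/-- the positions of 874's `RP` are dyadic offsets: `v j = φ.symm a + w`, `w ∈ dyo M` -/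
theorem exists_off {J : Type*} {M : MD E n J} {a : Fin n → ℝ} {vj : E} {κ : ℕ}
    (h : ∀ l, ∃ z : ℤ, 2 ^ κ * (M.φ vj l - a l) = z) : ∃ w ∈ dyo M, vj = M.φ.symm a + w := by
  refine ⟨vj - M.φ.symm a, ⟨κ, fun l => ?_⟩, by abel⟩
  obtain ⟨z, hz⟩ := h l
  refine ⟨z, ?_⟩
  rw [← hz, map_sub, ContinuousLinearEquiv.apply_symm_apply, Pi.sub_apply]

end

end Crest.Agent.R096.Cnt_324
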