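/-
helper880, row 96, PREMACH, MF-SUM (324 #10856 (3c)): potential tiles `PT` as a separate structure,
sums of such structures, and the record `Pm_199.MF` from a family of meshes and a covering by
potential tiles.  `pot` and `inj` of `MF` are automatic.
-/
import Mathlib
import Crest.Agent.R96.Pm2_199

set_option autoImplicit false
set_option linter.style.longLine false

open MeasureTheory Set Filter Metric
open scoped Topology ENNReal

namespace Crest.Agent.R096.Mfa_880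

open Crest.Agent.R096.Msh_715
open Crest.Agent.R096.SkC1_961 (E3 Cfg)
open Crest.Agent.R096.Ls_222 (Edg ea ev eIn)
open Crest.Agent.R96.Sg1_199 (li sgm)
open Crest.Agent.R96.Sg3_199 (EnF)
open Crest.Agent.R96.Sg8_199 (EnA)
open Crest.Agent.R96.Pm_199

noncomputable section

/-- decorated mesh without the frames of the tiles (= `Pm_199.Dec` without `fr`) -/
structure Dec0 (Om : Set E3) (F : Type) where
  ι : Type
  T : Tiling Om ι
  J0 : F → Set ι
  J : F → Set ι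
  V : F → Set ι
  ct : F → ι
  A : F → E3 ≃ᵃ[ℝ] E3
  lam : F → ℝ
  z : F → E3
  θ : F → E3 → E3
  φ : F → E3 → ℝ
  M : F → ℕ

/-- ordinary tiles -/
def Dec0.Ord {Om : Set E3} {F : Type} (D : Dec0 Om F) (i : D.ι) : Prop := ∀ c, i ∉ D.V c

/-- add the frames -/
def Dec0.wf {Om : Set E3} {F : Type} (D : Dec0 Om F) (fr : D.ι → E3 ≃ᵃ[ℝ] E3) : Dec Om F where
  ι := D.ι
  T := D.T
  J0 := D.J0
  J := D.J
  V := D.V
  ct := D.ct
  A := D.A
  lam := D.lam
  z := D.z
  θ := D.θ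
  φ := D.φ
  M := D.M
  fr := fr

/-- family of decorated meshes (= `Pm_199.MF` without the potential tiles and edges) -/
structure Fam (Om : Set E3) (F J : Type) where
  A : Set E3
  Am : MeasurableSet A
  A0 : volume A ≠ 0
  A1 : volume A ≠ ∞
  W : J → Set E3
  Wc : ∀ j, (W j).Countable
  Bx : J → Set E3
  cJ : Countable J
  md : ∀ (a : E3) (w : J → E3), (a ∈ A ∧ ∀ j, w j ∈ W j ∧ a + w j ∈ Bx j) → Dec0 Om F

/-- admissible shifts -/
def Fam.Ok {Om : Set E3} {F J : Type} (M : Fam Om F J) (a : E3) (w : J → E3) : Prop :=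
  a ∈ M.A ∧ ∀ j, w j ∈ M.W j ∧ a + w j ∈ M.Bx j

/-- **potential tiles and edges** (classes, activity sets, frames, shapes); `J` = blocks -/
structure PT (J : Type) where
  κ : Type
  τ : Type
  η : Type
  cκ : Countable κ
  cτ : Countable τ
  cη : Countable η
  cl : τ → κ
  bl : κ → Option J
  Til : τ → Set E3
  Ac : τ → Set E3
  Acm : ∀ t, MeasurableSet (Ac t)
  x : η → E3
  v : η → E3
  Ed : τ → Finset η
  sub : ∀ t, ∀ j ∈ Ed t, v j ≠ 0 ∧ sgm (x j) (v j) ⊆ Til t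
  β : τ → ℝ
  Sh : κ → Set (Set (Set E3))
  shf : ∀ k, (Sh k).Finite

/-- the tile `i` of `T` is the potential tile `t` at the shifts `a, w` -/
structure PT.Is {J : Type} (Q : PT J) (a : E3) (w : J → E3) {Om : Set E3} {ι : Type}
    (T : Tiling Om ι) (i : ι) (t : Q.τ) : Prop where
  act : sh (Q.bl (Q.cl t)) a w ∈ Q.Ac t
  tile : P (T.H i) = (fun y => y + sh (Q.bl (Q.cl t)) a w) '' Q.Til t
  tedge : ∀ e ∈ eIn T i, e.1 ⊆ ⋃ j ∈ Q.Ed t, sgm (Q.x j + sh (Q.bl (Q.cl t)) a w) (Q.v j)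
  frm : ∃ B : E3 ≃ᵃ[ℝ] E3, (∀ y : E3, ‖B.linear y‖ ≤ Q.β t * ‖y‖) ∧
    (fun K => B '' K) '' Cfg T i ∈ Q.Sh (Q.cl t)

/-- the tile `i` of `T` is a potential tile at the shifts `a, w` -/
def PT.Cov {J : Type} (Q : PT J) (a : E3) (w : J → E3) {Om : Set E3} {ι : Type}
    (T : Tiling Om ι) (i : ι) : Prop := ∃ t : Q.τ, Q.Is a w T i t

/-- the energy of the potential tiles of class `k` at the total shift `s` -/
def PT.EnC {J : Type} (Q : PT J) (G : E3 → E3 → ℝ≥0∞) (p : ℝ) (k : Q.κ) (s : E3) : ℝ≥0∞ :=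
  EnA volume (fun t : {t // Q.cl t = k} => Q.Til t) (fun t => Q.Ac t) (fun t => Q.Ed t)
    (fun t => ENNReal.ofReal (Q.β t)) (fun j => G (Q.v j)) Q.x Q.v p s

/-! ### tiles with the same set are equal -/

theorem tile_inj {Om : Set E3} {ι : Type} (T : Tiling Om ι) {i j : ι}
    (h : P (T.H i) = P (T.H j)) : i = j := by
  by_contra hne
  obtain ⟨x, hx⟩ := T.ne i
  have h1 : x ∈ P (T.H j) := h ▸ I_sub_P _ hx
  exact Set.disjoint_left.1 (disjoint_P_I (T.ne j) (T.dis j i (Ne.symm hne))) h1 hx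

/-! ### comparison of energies -/

theorem EnA_equiv {τ₁ τ₂ η₁ η₂ : Type} (e : τ₁ ≃ τ₂) {Til₁ : τ₁ → Set E3} {Til₂ : τ₂ → Set E3}
    {Ac₁ : τ₁ → Set E3} {Ac₂ : τ₂ → Set E3} {Ed₁ : τ₁ → Finset η₁} {Ed₂ : τ₂ → Finset η₂}
    {β₁ : τ₁ → ℝ≥0∞} {β₂ : τ₂ → ℝ≥0∞} {G₁ : η₁ → E3 → ℝ≥0∞} {G₂ : η₂ → E3 → ℝ≥0∞}
    {x₁ v₁ : η₁ → E3} {x₂ v₂ : η₂ → E3} {p : ℝ} {s : E3}
    (hT : ∀ t, Til₂ (e t) = Til₁ t) (hA : ∀ t, Ac₂ (e t) = Ac₁ t) (hβ : ∀ t, β₂ (e t) = β₁ t)
    (hE : ∀ t, ∑ j ∈ Ed₂ (e t), li (G₂ j) (x₂ j + s) (v₂ j) =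
      ∑ j ∈ Ed₁ t, li (G₁ j) (x₁ j + s) (v₁ j)) :
    EnA volume Til₂ Ac₂ Ed₂ β₂ G₂ x₂ v₂ p s = EnA volume Til₁ Ac₁ Ed₁ β₁ G₁ x₁ v₁ p s := by
  classical
  unfold EnA
  rw [← e.tsum_eq]
  refine tsum_congr fun t => ?_
  by_cases hs : s ∈ Ac₁ t
  · rw [indicator_of_mem hs, indicator_of_mem (by rw [hA]; exact hs), hT, hβ, hE]
  · rw [indicator_of_notMem hs, indicator_of_notMem (by rw [hA]; exact hs)]

namespace PT

variable {J : Type}

/-! ### two structures -/

/-- **sum of two structures** -/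
def sum (Q R : PT J) : PT J where
  κ := Q.κ ⊕ R.κ
  τ := Q.τ ⊕ R.τ
  η := Q.η ⊕ R.η
  cκ := by have := Q.cκ; have := R.cκ; infer_instance
  cτ := by have := Q.cτ; have := R.cτ; infer_instance
  cη := by have := Q.cη; have := R.cη; infer_instance
  cl := Sum.map Q.cl R.cl
  bl := Sum.elim Q.bl R.bl
  Til := Sum.elim Q.Til R.Til
  Ac := Sum.elim Q.Ac R.Ac
  Acm t := by
    rcases t with t | t
    · exact Q.Acm t
    · exact R.Acm t
  x := Sum.elim Q.x R.x
  v := Sum.elim Q.v R.v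
  Ed := Sum.elim (fun t => (Q.Ed t).map ⟨Sum.inl, Sum.inl_injective⟩)
    (fun t => (R.Ed t).map ⟨Sum.inr, Sum.inr_injective⟩)
  sub t j hj := by
    rcases t with t | t
    · obtain ⟨j', hj', rfl⟩ := Finset.mem_map.1 hj
      exact Q.sub t j' hj'
    · obtain ⟨j', hj', rfl⟩ := Finset.mem_map.1 hj
      exact R.sub t j' hj'
  β := Sum.elim Q.β R.β
  Sh := Sum.elim Q.Sh R.Sh
  shf k := by
    rcases k with k | k
    · exact Q.shf k
    · exact R.shf k

theorem Is.inl {Q R : PT J} {a : E3} {w : J → E3} {Om : Set E3} {ι : Type} {T : Tiling Om ι}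
    {i : ι} {t : Q.τ} (h : Q.Is a w T i t) : (Q.sum R).Is a w T i (Sum.inl t) where
  act := h.act
  tile := h.tile
  tedge e he := by
    refine (h.tedge e he).trans ?_
    refine iUnion₂_subset fun j hj => ?_
    refine subset_iUnion₂_of_subset (Sum.inl j) ?_ subset_rfl
    exact Finset.mem_map.2 ⟨j, hj, rfl⟩
  frm := h.frm

theorem Is.inr {Q R : PT J} {a : E3} {w : J → E3} {Om : Set E3} {ι : Type} {T : Tiling Om ι}
    {i : ι} {t : R.τ} (h : R.Is a w T i t) : (Q.sum R).Is a w T i (Sum.inr t) where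
  act := h.act
  tile := h.tile
  tedge e he := by
    refine (h.tedge e he).trans ?_
    refine iUnion₂_subset fun j hj => ?_
    refine subset_iUnion₂_of_subset (Sum.inr j) ?_ subset_rfl
    exact Finset.mem_map.2 ⟨j, hj, rfl⟩
  frm := h.frm

theorem Cov.inl {Q R : PT J} {a : E3} {w : J → E3} {Om : Set E3} {ι : Type} {T : Tiling Om ι}
    {i : ι} (h : Q.Cov a w T i) : (Q.sum R).Cov a w T i := by
  obtain ⟨t, ht⟩ := h
  exact ⟨_, ht.inl⟩

theorem Cov.inr {Q R : PT J} {a : E3} {w : J → E3} {Om : Set E3} {ι : Type} {T : Tiling Om ι}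
    {i : ι} (h : R.Cov a w T i) : (Q.sum R).Cov a w T i := by
  obtain ⟨t, ht⟩ := h
  exact ⟨_, ht.inr⟩

theorem EnC_inl (Q R : PT J) (G : E3 → E3 → ℝ≥0∞) (p : ℝ) (k : Q.κ) (s : E3) :
    (Q.sum R).EnC G p (Sum.inl k) s = Q.EnC G p k s := by
  refine EnA_equiv (τ₁ := {t // Q.cl t = k}) (τ₂ := {t // (Q.sum R).cl t = Sum.inl k})
    { toFun := fun t => ⟨Sum.inl t.1, congrArg Sum.inl t.2⟩
      invFun := fun t => match t with
        | ⟨Sum.inl t, h⟩ => ⟨t, Sum.inl_injective h⟩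
        | ⟨Sum.inr t, h⟩ => absurd h (by simp [PT.sum])
      left_inv := fun t => rfl
      right_inv := by
        rintro ⟨t | t, h⟩
        · rfl
        · exact absurd h (by simp [PT.sum]) } (fun t => rfl) (fun t => rfl) (fun t => rfl)
    (fun t => ?_)
  exact Finset.sum_map _ _ _

theorem EnC_inr (Q R : PT J) (G : E3 → E3 → ℝ≥0∞) (p : ℝ) (k : R.κ) (s : E3) :
    (Q.sum R).EnC G p (Sum.inr k) s = R.EnC G p k s := by
  refine EnA_equiv (τ₁ := {t // R.cl t = k}) (τ₂ := {t // (Q.sum R).cl t = Sum.inr k})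
    { toFun := fun t => ⟨Sum.inr t.1, congrArg Sum.inr t.2⟩
      invFun := fun t => match t with
        | ⟨Sum.inr t, h⟩ => ⟨t, Sum.inr_injective h⟩
        | ⟨Sum.inl t, h⟩ => absurd h (by simp [PT.sum])
      left_inv := fun t => rfl
      right_inv := by
        rintro ⟨t | t, h⟩
        · exact absurd h (by simp [PT.sum])
        · rfl } (fun t => rfl) (fun t => rfl) (fun t => rfl)
    (fun t => ?_)
  exact Finset.sum_map _ _ _

/-! ### countably many structures -/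

/-- **sum of countably many structures** -/
def sigma {B : Type} [Countable B] (Q : B → PT J) : PT J where
  κ := Σ b, (Q b).κ
  τ := Σ b, (Q b).τ
  η := Σ b, (Q b).η
  cκ := by have := fun b => (Q b).cκ; infer_instance
  cτ := by have := fun b => (Q b).cτ; infer_instance
  cη := by have := fun b => (Q b).cη; infer_instance
  cl t := ⟨t.1, (Q t.1).cl t.2⟩
  bl k := (Q k.1).bl k.2
  Til t := (Q t.1).Til t.2
  Ac t := (Q t.1).Ac t.2
  Acm t := (Q t.1).Acm t.2
  x j := (Q j.1).x j.2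
  v j := (Q j.1).v j.2
  Ed t := ((Q t.1).Ed t.2).map ⟨Sigma.mk t.1, sigma_mk_injective⟩
  sub t j hj := by
    obtain ⟨j', hj', rfl⟩ := Finset.mem_map.1 hj
    exact (Q t.1).sub t.2 j' hj'
  β t := (Q t.1).β t.2
  Sh k := (Q k.1).Sh k.2
  shf k := (Q k.1).shf k.2

theorem Is.sg {B : Type} [Countable B] {Q : B → PT J} {a : E3} {w : J → E3} {Om : Set E3}
    {ι : Type} {T : Tiling Om ι} {i : ι} {b : B} {t : (Q b).τ} (h : (Q b).Is a w T i t) :
    (sigma Q).Is a w T i ⟨b, t⟩ where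
  act := h.act
  tile := h.tile
  tedge e he := by
    refine (h.tedge e he).trans ?_
    refine iUnion₂_subset fun j hj => ?_
    refine subset_iUnion₂_of_subset (⟨b, j⟩ : Σ b, (Q b).η) ?_ subset_rfl
    exact Finset.mem_map.2 ⟨j, hj, rfl⟩
  frm := h.frm

theorem Cov.sg {B : Type} [Countable B] {Q : B → PT J} {a : E3} {w : J → E3} {Om : Set E3}
    {ι : Type} {T : Tiling Om ι} {i : ι} {b : B} (h : (Q b).Cov a w T i) :
    (sigma Q).Cov a w T i := by
  obtain ⟨t, ht⟩ := h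
  exact ⟨_, ht.sg⟩

theorem EnC_mk {B : Type} [Countable B] (Q : B → PT J) (G : E3 → E3 → ℝ≥0∞) (p : ℝ) (b : B)
    (k : (Q b).κ) (s : E3) : (sigma Q).EnC G p ⟨b, k⟩ s = (Q b).EnC G p k s := by
  have key : ∀ t : (sigma Q).τ, (sigma Q).cl t = ⟨b, k⟩ → ∃ h : t.1 = b, (Q b).cl (h ▸ t.2) = k := by
    rintro ⟨b', t⟩ h
    obtain ⟨rfl, h2⟩ := Sigma.mk.inj_iff.1 h
    exact ⟨rfl, eq_of_heq h2⟩
  refine EnA_equiv (τ₁ := {t // (Q b).cl t = k}) (τ₂ := {t // (sigma Q).cl t = ⟨b, k⟩})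
    { toFun := fun t => ⟨⟨b, t.1⟩, congrArg (fun q => (⟨b, q⟩ : Σ b, (Q b).κ)) t.2⟩
      invFun := fun t => ⟨(key t.1 t.2).choose ▸ t.1.2, (key t.1 t.2).choose_spec⟩
      left_inv := fun t => rfl
      right_inv := by
        rintro ⟨⟨b', t⟩, h⟩
        obtain ⟨rfl, h2⟩ := Sigma.mk.inj_iff.1 h
        rfl } (fun t => rfl) (fun t => rfl) (fun t => rfl)
    (fun t => ?_)
  exact Finset.sum_map _ _ _

end PT

/-! ### the record `MF` -/

section Rec

variable {Om : Set E3} {F J : Type} (M : Fam Om F J) (Q : PT J)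
  (cov : ∀ a w (h : M.Ok a w) i, (M.md a w h).Ord i → Q.Cov a w (M.md a w h).T i)

/-- the potential tile of a tile -/
def pot0 (a : E3) (w : J → E3) (h : M.Ok a w) (i : (M.md a w h).ι) : Option Q.τ := by
  classical
  exact if hi : (M.md a w h).Ord i then some (cov a w h i hi).choose else none

/-- the frame of a tile -/
def fr0 (a : E3) (w : J → E3) (h : M.Ok a w) (i : (M.md a w h).ι) : E3 ≃ᵃ[ℝ] E3 := by
  classical
  exact if hi : (M.md a w h).Ord i then (cov a w h i hi).choose_spec.frm.choose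
      else AffineEquiv.refl ℝ E3

variable {M Q}

theorem pot0_spec {a : E3} {w : J → E3} {h : M.Ok a w} {i : (M.md a w h).ι}
    (hi : (M.md a w h).Ord i) : ∃ t, pot0 M Q cov a w h i = some t ∧ Q.Is a w (M.md a w h).T i t ∧
      (∀ y : E3, ‖(fr0 M Q cov a w h i).linear y‖ ≤ Q.β t * ‖y‖) ∧
      (fun K => fr0 M Q cov a w h i '' K) '' Cfg (M.md a w h).T i ∈ Q.Sh (Q.cl t) := by
  refine ⟨(cov a w h i hi).choose, ?_, (cov a w h i hi).choose_spec, ?_⟩
  · unfold pot0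
    rw [dif_pos hi]
  · have e : fr0 M Q cov a w h i = (cov a w h i hi).choose_spec.frm.choose := by
      unfold fr0
      rw [dif_pos hi]
    rw [e]
    exact (cov a w h i hi).choose_spec.frm.choose_spec

end Rec

/-- **`MF` from a covering by potential tiles** -/
def toMF {Om : Set E3} {F J : Type} (M : Fam Om F J) (Q : PT J)
    (cov : ∀ a w (h : M.Ok a w) i, (M.md a w h).Ord i → Q.Cov a w (M.md a w h).T i)
    {η₀ : Type} (cη₀ : Countable η₀) (eb₀ : η₀ → Option J) (x₀ v₀ : η₀ → E3)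
    (edge₀ : ∀ a w (h : M.Ok a w), ∀ e : Edg (M.md a w h).T,
      ∃ j : η₀, e.1 = sgm (x₀ j + sh (eb₀ j) a w) (v₀ j)) : MF Om F J where
  A := M.A
  Am := M.Am
  A0 := M.A0
  A1 := M.A1
  W := M.W
  Wc := M.Wc
  Bx := M.Bx
  cJ := M.cJ
  md a w h := (M.md a w h).wf (fr0 M Q cov a w h)
  κ := Option Q.κ
  τ := Option Q.τ
  η := η₀ ⊕ Q.η
  cκ := by have := Q.cκ; infer_instance
  cτ := by have := Q.cτ; infer_instance
  cη := by have := Q.cη; infer_instance
  cl := Option.map Q.cl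
  bl k := k.elim none Q.bl
  Til t := t.elim ∅ Q.Til
  Ac t := t.elim ∅ Q.Ac
  Acm t := by
    rcases t with _ | t
    · exact MeasurableSet.empty
    · exact Q.Acm t
  eb := Sum.elim eb₀ fun _ => none
  x := Sum.elim x₀ Q.x
  v := Sum.elim v₀ Q.v
  Ed t := t.elim ∅ fun t => (Q.Ed t).map ⟨Sum.inr, Sum.inr_injective⟩
  sub t j hj := by
    rcases t with _ | t
    · exact absurd hj (Finset.notMem_empty _)
    · obtain ⟨j', hj', rfl⟩ := Finset.mem_map.1 hj
      exact Q.sub t j' hj'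
  β t := t.elim 0 Q.β
  Sh k := k.elim ∅ Q.Sh
  shf k := by
    rcases k with _ | k
    · exact finite_empty
    · exact Q.shf k
  edge a w h e := by
    obtain ⟨j, hj⟩ := edge₀ a w h e
    exact ⟨Sum.inl j, hj⟩
  pot a w h := pot0 M Q cov a w h
  inj a w h i hi i' hi' hii := by
    obtain ⟨t, h1, h2, -⟩ := pot0_spec cov (h := h) (i := i) hi
    obtain ⟨t', h1', h2', -⟩ := pot0_spec cov (h := h) (i := i') hi'
    rw [h1, h1'] at hii
    obtain rfl := Option.some_injective _ hii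
    exact tile_inj (M.md a w h).T (h2.tile.trans h2'.tile.symm)
  act a w h i hi := by
    obtain ⟨t, h1, h2, -⟩ := pot0_spec cov (h := h) (i := i) hi
    rw [h1]
    exact h2.act
  tile a w h i hi := by
    obtain ⟨t, h1, h2, -⟩ := pot0_spec cov (h := h) (i := i) hi
    rw [h1]
    exact h2.tile
  tedge a w h i hi e he := by
    obtain ⟨t, h1, h2, -⟩ := pot0_spec cov (h := h) (i := i) hi
    rw [h1, Ls_222.sgm_edg]
    refine (h2.tedge e he).trans ?_
    refine iUnion₂_subset fun j hj => ?_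
    refine subset_iUnion₂_of_subset (Sum.inr j) ?_ subset_rfl
    exact Finset.mem_map.2 ⟨j, hj, rfl⟩
  frn a w h i hi y := by
    obtain ⟨t, h1, -, h2, -⟩ := pot0_spec cov (h := h) (i := i) hi
    rw [h1]
    exact h2 y
  shp a w h i hi := by
    obtain ⟨t, h1, -, -, h2⟩ := pot0_spec cov (h := h) (i := i) hi
    rw [h1]
    exact h2

section Rec2

variable {Om : Set E3} {F J : Type} (M : Fam Om F J) (Q : PT J)
  (cov : ∀ a w (h : M.Ok a w) i, (M.md a w h).Ord i → Q.Cov a w (M.md a w h).T i)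
  {η₀ : Type} (cη₀ : Countable η₀) (eb₀ : η₀ → Option J) (x₀ v₀ : η₀ → E3)
  (edge₀ : ∀ a w (h : M.Ok a w), ∀ e : Edg (M.md a w h).T,
    ∃ j : η₀, e.1 = sgm (x₀ j + sh (eb₀ j) a w) (v₀ j))

/-- the dummy class has no energy -/
theorem EnC_none (G : E3 → E3 → ℝ≥0∞) (p : ℝ) (s : E3) :
    (toMF M Q cov cη₀ eb₀ x₀ v₀ edge₀).EnC G p none s = 0 := by
  unfold MF.EnC EnA
  rw [ENNReal.tsum_eq_zero]
  rintro ⟨t, ht⟩
  rcases t with _ | t
  · exact indicator_of_notMem (notMem_empty s) _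
  · exact absurd ht (by simp [toMF])

/-- the energy of the class `some k` -/
theorem EnC_some (G : E3 → E3 → ℝ≥0∞) (p : ℝ) (k : Q.κ) (s : E3) :
    (toMF M Q cov cη₀ eb₀ x₀ v₀ edge₀).EnC G p (some k) s = Q.EnC G p k s := by
  refine EnA_equiv (τ₁ := {t // Q.cl t = k})
    (τ₂ := {t // (toMF M Q cov cη₀ eb₀ x₀ v₀ edge₀).cl t = some k})
    { toFun := fun t => ⟨some t.1, congrArg some t.2⟩
      invFun := fun t => match t with
        | ⟨some t, h⟩ => ⟨t, Option.some_injective _ h⟩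
        | ⟨none, h⟩ => absurd h (by simp [toMF])
      left_inv := fun t => rfl
      right_inv := by
        rintro ⟨_ | t, h⟩
        · exact absurd h (by simp [toMF])
        · rfl } (fun t => rfl) (fun t => rfl) (fun t => rfl)
    (fun t => ?_)
  exact Finset.sum_map _ _ _

theorem ok_toMF {a : E3} {w : J → E3} :
    (toMF M Q cov cη₀ eb₀ x₀ v₀ edge₀).Ok a w ↔ M.Ok a w := Iff.rfl

theorem bl_some (k : Q.κ) : (toMF M Q cov cη₀ eb₀ x₀ v₀ edge₀).bl (some k) = Q.bl k := rfl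

theorem bl_none : (toMF M Q cov cη₀ eb₀ x₀ v₀ edge₀).bl none = none := rfl

end Rec2

end

end Crest.Agent.R096.Mfa_880
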