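/-
helper880, row 96, PREMACH, MF-SUM, part 2: covering by potential tiles is inherited by tilings with
the same tile and the same closed cells; the family of meshes `famMD` of 874's `MD.mesh` and its
record `MF` (exact cores only) from the two halves.
-/
import Mathlib
import Crest.Agent.R096.Mfa1_880
import Crest.Agent.R096.Cnt2_324

set_option autoImplicit false
set_option linter.style.longLine false

open MeasureTheory Set Filter Metric
open scoped Topology ENNReal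

namespace Crest.Agent.R096.Mfa_880

open Crest.Agent.R096.Msh_715 Crest.Agent.R096.Msh_810 Crest.Agent.R096.Cut_874
  Crest.Agent.R096.Mal_874
open Crest.Agent.R096.SkC1_961 (E3 Cfg)
open Crest.Agent.R096.Ls_222 (Edg ea eIn mem_eIn)
open Crest.Agent.R96.Sg1_199 (li sgm)
open Crest.Agent.R96.Pm_199
open Crest.Agent.R096.Cnt_324 (Hfam Eix ex countable_Hfam edge_md)

noncomputable section

/-! ### the span of a closed cell is determined by the cell -/

theorem V_le_of_cc {E : Type*} [NormedAddCommGroup E] [NormedSpace ℝ E] {Om Om' : Set E}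
    {ι ι' : Type*} {T : Tiling Om ι} {T' : Tiling Om' ι'} {x x' : E} (hx : x ∈ Om)
    (h : T'.cc x' = T.cc x) : T.V x ≤ T'.V x' := by
  intro v hv
  obtain ⟨r, hr, hb⟩ := T.exists_ball_oc hx
  obtain ⟨s, hs, hs2⟩ : ∃ s : ℝ, 0 < s ∧ ‖s • v‖ < r := by
    refine ⟨r / (2 * (‖v‖ + 1)), by positivity, ?_⟩
    rw [norm_smul, Real.norm_of_nonneg (by positivity)]
    have h1 : 0 ≤ ‖v‖ := norm_nonneg v
    rw [div_mul_eq_mul_div, div_lt_iff₀ (by positivity)]
    nlinarith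
  have h1 : x + s • v ∈ T'.cc x' := by
    rw [h]
    exact T.oc_sub_cc x (hb _ ((T.V x).smul_mem s hv) hs2)
  have h2 : x ∈ T'.cc x' := by
    rw [h]
    exact T.self_mem_cc x
  have h3 := T'.sub_mem_V' h1 h2
  rw [add_sub_cancel_left] at h3
  have h4 := (T'.V x').smul_mem s⁻¹ h3
  rwa [smul_smul, inv_mul_cancel₀ hs.ne', one_smul] at h4

theorem V_eq_of_cc {E : Type*} [NormedAddCommGroup E] [NormedSpace ℝ E] {Om Om' : Set E}
    {ι ι' : Type*} {T : Tiling Om ι} {T' : Tiling Om' ι'} {x x' : E} (hx : x ∈ Om) (hx' : x' ∈ Om')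
    (h : T'.cc x' = T.cc x) : T'.V x' = T.V x :=
  le_antisymm (V_le_of_cc hx' h.symm) (V_le_of_cc hx h)

theorem dim_eq_of_cc {E : Type*} [NormedAddCommGroup E] [NormedSpace ℝ E] {Om Om' : Set E}
    {ι ι' : Type*} {T : Tiling Om ι} {T' : Tiling Om' ι'} {x x' : E} (hx : x ∈ Om) (hx' : x' ∈ Om')
    (h : T'.cc x' = T.cc x) : T'.dim x' = T.dim x := by
  unfold Tiling.dim
  rw [V_eq_of_cc hx hx' h]

/-- the edges of a tile are determined by the closed cells of the tile -/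
theorem exists_edge {Om Om' : Set E3} {ι ι' : Type} {T : Tiling Om ι} {T' : Tiling Om' ι'} {i : ι}
    {i' : ι'} (hC : Cfg T' i' ⊆ Cfg T i) {e' : Edg T'} (he' : e' ∈ eIn T' i') :
    ∃ e ∈ eIn T i, e.1 = e'.1 := by
  rw [mem_eIn] at he'
  obtain ⟨K, x', hx', hd', rfl⟩ := e'
  have h1 : T'.cc x' ∈ Cfg T' i' := ⟨x', he' (T'.self_mem_cc x'), rfl⟩
  obtain ⟨x, hx, hK⟩ := hC h1
  have hxO := T.sub i hx
  have hd : T.dim x = 1 := by rw [← dim_eq_of_cc hxO hx' hK, hd']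
  exact ⟨⟨T.cc x, x, hxO, hd, rfl⟩, mem_eIn.2 (T.cc_sub_tile hx), hK.symm⟩

/-- **covering is inherited by tiles with the same closed cells** -/
theorem PT.Is.congr {J : Type} {Q : PT J} {a : E3} {w : J → E3} {Om Om' : Set E3} {ι ι' : Type}
    {T : Tiling Om ι} {T' : Tiling Om' ι'} {i : ι} {i' : ι'} {t : Q.τ} (h : Q.Is a w T i t)
    (hP : P (T'.H i') = P (T.H i)) (hC : Cfg T' i' = Cfg T i) : Q.Is a w T' i' t where
  act := h.act
  tile := hP.trans h.tile
  tedge e' he' := by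
    obtain ⟨e, he, h1⟩ := exists_edge hC.subset he'
    rw [← h1]
    exact h.tedge e he
  frm := by rw [hC]; exact h.frm

theorem PT.Cov.congr {J : Type} {Q : PT J} {a : E3} {w : J → E3} {Om Om' : Set E3} {ι ι' : Type}
    {T : Tiling Om ι} {T' : Tiling Om' ι'} {i : ι} {i' : ι'} (h : Q.Cov a w T i)
    (hP : P (T'.H i') = P (T.H i)) (hC : Cfg T' i' = Cfg T i) : Q.Cov a w T' i' := by
  obtain ⟨t, ht⟩ := h
  exact ⟨t, ht.congr hP hC⟩

/-! ### the family of meshes of 874 -/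

/-- decoration of the cores -/
structure Deco (F : Type) where
  A : F → E3 ≃ᵃ[ℝ] E3
  lam : F → ℝ
  z : F → E3
  θ : F → E3 → E3
  φ : F → E3 → ℝ
  M : F → ℕ

/-- exact cores on `X` only: `J0 c = J c = V c = {ct c}` for `c ∈ X`, empty for `c ∉ X` -/
def Deco.mkX {Om : Set E3} {F ι : Type} (D : Deco F) (X : Set F) (T : Tiling Om ι) (i0 : ι)
    (ct : X → ι) : Dec0 Om F where
  ι := ι
  T := T
  J0 c := {i | ∃ h : c ∈ X, i = ct ⟨c, h⟩}
  J c := {i | ∃ h : c ∈ X, i = ct ⟨c, h⟩}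
  V c := {i | ∃ h : c ∈ X, i = ct ⟨c, h⟩}
  ct := by
    classical
    exact fun c => if h : c ∈ X then ct ⟨c, h⟩ else i0
  A := D.A
  lam := D.lam
  z := D.z
  θ := D.θ
  φ := D.φ
  M := D.M

section Dx

variable {Om : Set E3} {F ι : Type} {D : Deco F} {X : Set F} {T : Tiling Om ι} {i0 : ι}
  {ct : X → ι}

theorem Deco.mkX_ct {c : F} (h : c ∈ X) : (D.mkX X T i0 ct).ct c = ct ⟨c, h⟩ := dif_pos h

theorem Deco.mkX_V {c : F} (h : c ∈ X) : (D.mkX X T i0 ct).V c = {(D.mkX X T i0 ct).ct c} := by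
  rw [Deco.mkX_ct h]
  ext i
  exact ⟨fun hi => hi.2, fun hi => ⟨h, hi⟩⟩

theorem Deco.mkX_J {c : F} (h : c ∈ X) : (D.mkX X T i0 ct).J c = {(D.mkX X T i0 ct).ct c} :=
  Deco.mkX_V h

theorem Deco.mkX_J0 {c : F} (h : c ∈ X) : (D.mkX X T i0 ct).J0 c = {(D.mkX X T i0 ct).ct c} :=
  Deco.mkX_V h

theorem Deco.mkX_V' {c : F} (h : c ∉ X) : (D.mkX X T i0 ct).V c = ∅ := by
  ext i
  exact ⟨fun hi => h hi.1, fun hi => hi.elim⟩

theorem Deco.mkX_J' {c : F} (h : c ∉ X) : (D.mkX X T i0 ct).J c = ∅ := Deco.mkX_V' h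

theorem Deco.mkX_J0' {c : F} (h : c ∉ X) : (D.mkX X T i0 ct).J0 c = ∅ := Deco.mkX_V' h

theorem Deco.ord {i : ι} : (D.mkX X T i0 ct).Ord i ↔ ∀ c : X, i ≠ ct c := by
  constructor
  · rintro h ⟨c, hc⟩ rfl
    exact h c ⟨hc, rfl⟩
  · rintro h c ⟨hc, hi⟩
    exact h ⟨c, hc⟩ hi

end Dx

/-! ### the meshes of 874, any index type of the blocks -/

section MDj

variable {J : Type} (M : MD E3 3 J) {k : J → ℕ} (hk : M.Sc k)

/-- admissible total shifts of the block `j` -/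
def BxM (j : J) : Set E3 := {s | ‖M.φ s‖ ≤ M.r j}

theorem adm_of {a : E3} {w : J → E3} (h : ∀ j, a + w j ∈ BxM M j) : M.Adm fun j => a + w j :=
  fun j => h j

theorem tile_ne (hOm : (M.φ ⁻¹' M.D0.Om).Nonempty) (a : Fin 3 → ℝ) {v : J → E3} (hv : M.Adm v) :
    Nonempty (M.OIx hk a hv ⊕ Σ j, M.IIx hk a hv j) := by
  obtain ⟨x, hx⟩ := hOm
  obtain ⟨i, -⟩ := (M.mesh hk a hv).cov x hx
  exact ⟨i⟩

/-- the inequalities of the mesh belong to one countable family -/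
theorem hs_famMD {W : J → Set E3} {a : E3} {w : J → E3} (hv : M.Adm fun j => a + w j)
    (hw : ∀ j, w j ∈ W j) : Cnt_324.HS (M.mesh hk (M.φ a) hv) a (Hfam M (⋃ j, W j)) := by
  have h := Cnt_324.hs_mesh (W := ⋃ j, W j) hk (M.φ a) hv
    (fun j => ⟨w j, mem_iUnion.2 ⟨j, hw j⟩, by rw [ContinuousLinearEquiv.symm_apply_apply]⟩)
  rwa [ContinuousLinearEquiv.symm_apply_apply] at h

/-- all 1-cells are shifted segments of one countable family -/
theorem edge_famMD {W : J → Set E3} {a : E3} {w : J → E3}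
    (hv : M.Adm fun j => a + w j) (hw : ∀ j, w j ∈ W j) (e : Edg (M.mesh hk (M.φ a) hv)) :
    ∃ j : Eix (Hfam M (⋃ j, W j)), e.1 = sgm (ex j + a) (Cnt_324.ev j) := by
  obtain ⟨K, x, hx, hd, rfl⟩ := e
  obtain ⟨j, hj⟩ := edge_md (W := ⋃ j, W j) hk (M.φ a) hv
    (fun j => ⟨w j, mem_iUnion.2 ⟨j, hw j⟩, by rw [ContinuousLinearEquiv.symm_apply_apply]⟩) hx hd
  rw [ContinuousLinearEquiv.symm_apply_apply] at hj
  exact ⟨j, hj⟩

end MDj

/-! ### the record -/

section MDm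

variable {F : Type} {X : Set F} (M : MD E3 3 X) {k : X → ℕ} (hk : M.Sc k)

/-- **the family of the aligned meshes**, shift `a` of the outer grid, `a + w j` of the block `j`
(exact cores for the bricks in `X`, nothing for the others) -/
def famMD [Countable X] (hOm : (M.φ ⁻¹' M.D0.Om).Nonempty) (A : Set E3) (Am : MeasurableSet A)
    (A0 : volume A ≠ 0) (A1 : volume A ≠ ∞) (W : X → Set E3) (Wc : ∀ j, (W j).Countable)
    (deco : E3 → (X → E3) → Deco F) : Fam (M.φ ⁻¹' M.D0.Om) F X where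
  A := A
  Am := Am
  A0 := A0
  A1 := A1
  W := W
  Wc := Wc
  Bx := BxM M
  cJ := inferInstance
  md a w h := (deco a w).mkX X (M.mesh hk (M.φ a) (adm_of M fun j => (h.2 j).2))
    (tile_ne M hk hOm (M.φ a) (adm_of M fun j => (h.2 j).2)).some
    fun c => Sum.inr ⟨c, M.core hk (M.φ a) (adm_of M fun j => (h.2 j).2) c⟩

/-- **THE RECORD `MF` OF THE ALIGNED MESH (exact cores on `X`)** from the outer and the inner half -/
def mfMD [Countable X] (hOm : (M.φ ⁻¹' M.D0.Om).Nonempty) (A : Set E3) (Am : MeasurableSet A)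
    (A0 : volume A ≠ 0) (A1 : volume A ≠ ∞) (W : X → Set E3) (Wc : ∀ j, (W j).Countable)
    (deco : E3 → (X → E3) → Deco F) (QO : PT X) (QI : X → PT X)
    (hO : ∀ (a : E3) (w : X → E3) (hv : M.Adm fun j => a + w j), a ∈ A → (∀ j, w j ∈ W j) →
      ∀ p : M.OIx hk (M.φ a) hv, QO.Cov a w (M.mesh hk (M.φ a) hv) (Sum.inl p))
    (hI : ∀ (a : E3) (w : X → E3) (hv : M.Adm fun j => a + w j), a ∈ A → (∀ j, w j ∈ W j) →
      ∀ (j : X) (i : M.IIx hk (M.φ a) hv j), i ≠ M.core hk (M.φ a) hv j →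
        (QO.sum (PT.sigma QI)).Cov a w (M.mesh hk (M.φ a) hv) (Sum.inr ⟨j, i⟩)) :
    MF (M.φ ⁻¹' M.D0.Om) F X :=
  toMF (famMD M hk hOm A Am A0 A1 W Wc deco) (QO.sum (PT.sigma QI))
    (fun a w h i hi => by
      have hv : M.Adm fun j => a + w j := adm_of M fun j => (h.2 j).2
      change M.OIx hk (M.φ a) hv ⊕ (Σ j, M.IIx hk (M.φ a) hv j) at i
      have hi' : ∀ c, i ≠ Sum.inr ⟨c, M.core hk (M.φ a) hv c⟩ := Deco.ord.1 hi
      rcases i with p | ⟨j, i⟩
      · exact (hO a w hv h.1 (fun j => (h.2 j).1) p).inl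
      · refine hI a w hv h.1 (fun j => (h.2 j).1) j i ?_
        rintro rfl
        exact hi' j rfl)
    (η₀ := Eix (Hfam M (⋃ j, W j)))
    (by
      have h1 : (⋃ j, W j).Countable := countable_iUnion Wc
      have : Countable (Hfam M (⋃ j, W j)) := (countable_Hfam M h1).to_subtype
      infer_instance)
    (fun _ => none) ex Cnt_324.ev
    (fun a w h e => edge_famMD M hk (adm_of M fun j => (h.2 j).2) (fun j => (h.2 j).1) e)

end MDm

end

end Crest.Agent.R096.Mfa_880
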