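/-
helper880, row 96, PREMACH, MF-SUM, part 3: rational positions from the lists of offsets.
-/
import Mathlib
import Crest.Agent.R096.Mfa2_880

set_option autoImplicit false
set_option linter.style.longLine false

open MeasureTheory Set Filter Metric
open scoped Topology ENNReal

namespace Crest.Agent.R096.Mfa_880

open Crest.Agent.R096.Msh_715 Crest.Agent.R096.Msh_810 Crest.Agent.R096.Cut_874
  Crest.Agent.R096.Mal_874
open Crest.Agent.R096.SkC1_961 (E3 Cfg)
open Crest.Agent.R096.Ls_222 (Edg ea eIn mem_eIn)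
open Crest.Agent.R96.Sg1_199 (li sgm)
open Crest.Agent.R96.Pm_199

noncomputable section

/-- **rational data of the offsets**: the offsets of the block `j` are in the grid of scale `κ j`,
and so are the corners of the block (in its own frame, with denominator `d j`) -/
structure RW {n : ℕ} {E : Type*} [NormedAddCommGroup E] [NormedSpace ℝ E] {J : Type*}
    {M : MD E n J} (X : RD M) (k : J → ℕ) (W : J → Set E) where
  κ : J → ℕ
  hκ : ∀ j, κ j ≤ k j
  h0 : ∀ j m, ∃ c : ℤ, 2 ^ κ j * (X.d j : ℝ) * (M.Q j).a' m = c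
  hW : ∀ j, ∀ w ∈ W j, ∀ l, ∃ z : ℤ, 2 ^ κ j * M.φ w l = z

/-- **rational positions** -/
def RW.rp {n : ℕ} {E : Type*} [NormedAddCommGroup E] [NormedSpace ℝ E] {J : Type*}
    {M : MD E n J} {X : RD M} {k : J → ℕ} {W : J → Set E} (H : RW X k W) (a : E) {w : J → E}
    (hw : ∀ j, w j ∈ W j) : RP X (M.φ a) (fun j => a + w j) k where
  κ := H.κ
  hκ := H.hκ
  h0 := H.h0
  hv j l := by
    obtain ⟨z, hz⟩ := H.hW j (w j) (hw j) l
    refine ⟨z, ?_⟩
    rw [← hz, map_add, Pi.add_apply, add_sub_cancel_left]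

end

end Crest.Agent.R096.Mfa_880
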