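/-
helper880, row 96, PREMACH, MF-SUM, part 5: **typed covering**: the record `Pm_199.MF` from a
covering of the ordinary tiles by potential tiles satisfying a relation `G` (as `toMF`, but the chosen
potential tile satisfies `G`).
-/
import Mathlib
import Crest.Agent.R096.Mfa1_880

set_option autoImplicit false
set_option linter.style.longLine false

open MeasureTheory Set Filter Metric
open scoped Topology ENNReal

namespace Crest.Agent.R096.Mfa_880

open Crest.Agent.R096.Msh_715
open Crest.Agent.R096.SkC1_961 (E3 Cfg)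
open Crest.Agent.R096.Ls_222 (Edg ea ev eIn)
open Crest.Agent.R96.Sg1_199 (li sgm)
open Crest.Agent.R96.Sg3_199 (EnF)
open Crest.Agent.R96.Sg8_199 (EnA)
open Crest.Agent.R96.Pm_199

noncomputable section

section Rec

variable {Om : Set E3} {F J : Type} (M : Fam Om F J) (Q : PT J)
  (G : ∀ a w (h : M.Ok a w), (M.md a w h).ι → Q.τ → Prop)
  (cov : ∀ a w (h : M.Ok a w) i, (M.md a w h).Ord i →
    ∃ t, Q.Is a w (M.md a w h).T i t ∧ G a w h i t)

/-- the potential tile of a tile -/
def potG (a : E3) (w : J → E3) (h : M.Ok a w) (i : (M.md a w h).ι) : Option Q.τ := by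
  classical
  exact if hi : (M.md a w h).Ord i then some (cov a w h i hi).choose else none

/-- the frame of a tile -/
def frG (a : E3) (w : J → E3) (h : M.Ok a w) (i : (M.md a w h).ι) : E3 ≃ᵃ[ℝ] E3 := by
  classical
  exact if hi : (M.md a w h).Ord i then (cov a w h i hi).choose_spec.1.frm.choose
      else AffineEquiv.refl ℝ E3

variable {M Q G}

theorem potG_spec {a : E3} {w : J → E3} {h : M.Ok a w} {i : (M.md a w h).ι}
    (hi : (M.md a w h).Ord i) : ∃ t, potG M Q G cov a w h i = some t ∧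
      Q.Is a w (M.md a w h).T i t ∧ G a w h i t ∧
      (∀ y : E3, ‖(frG M Q G cov a w h i).linear y‖ ≤ Q.β t * ‖y‖) ∧
      (fun K => frG M Q G cov a w h i '' K) '' Cfg (M.md a w h).T i ∈ Q.Sh (Q.cl t) := by
  refine ⟨(cov a w h i hi).choose, ?_, (cov a w h i hi).choose_spec.1,
    (cov a w h i hi).choose_spec.2, ?_⟩
  · unfold potG
    rw [dif_pos hi]
  · have e : frG M Q G cov a w h i = (cov a w h i hi).choose_spec.1.frm.choose := by
      unfold frG
      rw [dif_pos hi]
    rw [e]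
    exact (cov a w h i hi).choose_spec.1.frm.choose_spec

end Rec

/-- **`MF` from a typed covering by potential tiles** -/
def toMFG {Om : Set E3} {F J : Type} (M : Fam Om F J) (Q : PT J)
    (G : ∀ a w (h : M.Ok a w), (M.md a w h).ι → Q.τ → Prop)
    (cov : ∀ a w (h : M.Ok a w) i, (M.md a w h).Ord i →
      ∃ t, Q.Is a w (M.md a w h).T i t ∧ G a w h i t)
    {η₀ : Type} (cη₀ : Countable η₀) (eb₀ : η₀ → Option J) (x₀ v₀ : η₀ → E3)
    (edge₀ : ∀ a w (h : M.Ok a w), ∀ e : Edg (M.md a w h).T,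
      ∃ j : η₀, e.1 = sgm (x₀ j + sh (eb₀ j) a w) (v₀ j)) : MF Om F J where
  A := M.A
  Am := M.Am
  A0 := M.A0
  A1 := M.A1
  W := M.W
  Wc := M.Wc
  Bx := M.Bx
  cJ := M.cJ
  md a w h := (M.md a w h).wf (frG M Q G cov a w h)
  κ := Option Q.κ
  τ := Option Q.τ
  η := η₀ ⊕ Q.η
  cκ := by have := Q.cκ; infer_instance
  cτ := by have := Q.cτ; infer_instance
  cη := by have := Q.cη; infer_instance
  cl := Option.map Q.cl
  bl k := k.elim none Q.bl
  Til t := t.elim ∅ Q.Til
  Ac t := t.elim ∅ Q.Ac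
  Acm t := by
    rcases t with _ | t
    · exact MeasurableSet.empty
    · exact Q.Acm t
  eb := Sum.elim eb₀ fun _ => none
  x := Sum.elim x₀ Q.x
  v := Sum.elim v₀ Q.v
  Ed t := t.elim ∅ fun t => (Q.Ed t).map ⟨Sum.inr, Sum.inr_injective⟩
  sub t j hj := by
    rcases t with _ | t
    · exact absurd hj (Finset.notMem_empty _)
    · obtain ⟨j', hj', rfl⟩ := Finset.mem_map.1 hj
      exact Q.sub t j' hj'
  β t := t.elim 0 Q.β
  Sh k := k.elim ∅ Q.Sh
  shf k := by
    rcases k with _ | k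
    · exact finite_empty
    · exact Q.shf k
  edge a w h e := by
    obtain ⟨j, hj⟩ := edge₀ a w h e
    exact ⟨Sum.inl j, hj⟩
  pot a w h := potG M Q G cov a w h
  inj a w h i hi i' hi' hii := by
    obtain ⟨t, h1, h2, -⟩ := potG_spec cov (h := h) (i := i) hi
    obtain ⟨t', h1', h2', -⟩ := potG_spec cov (h := h) (i := i') hi'
    rw [h1, h1'] at hii
    obtain rfl := Option.some_injective _ hii
    exact tile_inj (M.md a w h).T (h2.tile.trans h2'.tile.symm)
  act a w h i hi := by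
    obtain ⟨t, h1, h2, -⟩ := potG_spec cov (h := h) (i := i) hi
    rw [h1]
    exact h2.act
  tile a w h i hi := by
    obtain ⟨t, h1, h2, -⟩ := potG_spec cov (h := h) (i := i) hi
    rw [h1]
    exact h2.tile
  tedge a w h i hi e he := by
    obtain ⟨t, h1, h2, -⟩ := potG_spec cov (h := h) (i := i) hi
    rw [h1, Ls_222.sgm_edg]
    refine (h2.tedge e he).trans ?_
    refine iUnion₂_subset fun j hj => ?_
    refine subset_iUnion₂_of_subset (Sum.inr j) ?_ subset_rfl
    exact Finset.mem_map.2 ⟨j, hj, rfl⟩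
  frn a w h i hi y := by
    obtain ⟨t, h1, -, -, h2, -⟩ := potG_spec cov (h := h) (i := i) hi
    rw [h1]
    exact h2 y
  shp a w h i hi := by
    obtain ⟨t, h1, -, -, -, h2⟩ := potG_spec cov (h := h) (i := i) hi
    rw [h1]
    exact h2

section Rec2

variable {Om : Set E3} {F J : Type} (M : Fam Om F J) (Q : PT J)
  (G : ∀ a w (h : M.Ok a w), (M.md a w h).ι → Q.τ → Prop)
  (cov : ∀ a w (h : M.Ok a w) i, (M.md a w h).Ord i →
    ∃ t, Q.Is a w (M.md a w h).T i t ∧ G a w h i t)
  {η₀ : Type} (cη₀ : Countable η₀) (eb₀ : η₀ → Option J) (x₀ v₀ : η₀ → E3)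
  (edge₀ : ∀ a w (h : M.Ok a w), ∀ e : Edg (M.md a w h).T,
    ∃ j : η₀, e.1 = sgm (x₀ j + sh (eb₀ j) a w) (v₀ j))

/-- the chosen potential tile satisfies the relation -/
theorem potG_some {a : E3} {w : J → E3} {h : M.Ok a w} {i : (M.md a w h).ι}
    (hi : (M.md a w h).Ord i) :
    ∃ t, (toMFG M Q G cov cη₀ eb₀ x₀ v₀ edge₀).pot a w h i = some t ∧
      Q.Is a w (M.md a w h).T i t ∧ G a w h i t := by
  obtain ⟨t, h1, h2, h3, -⟩ := potG_spec cov (h := h) (i := i) hi
  exact ⟨t, h1, h2, h3⟩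

/-- the dummy class has no energy -/
theorem EnCG_none (Ge : E3 → E3 → ℝ≥0∞) (p : ℝ) (s : E3) :
    (toMFG M Q G cov cη₀ eb₀ x₀ v₀ edge₀).EnC Ge p none s = 0 := by
  unfold MF.EnC EnA
  rw [ENNReal.tsum_eq_zero]
  rintro ⟨t, ht⟩
  rcases t with _ | t
  · exact indicator_of_notMem (notMem_empty s) _
  · exact absurd ht (by simp [toMFG])

/-- the energy of the class `some k` -/
theorem EnCG_some (Ge : E3 → E3 → ℝ≥0∞) (p : ℝ) (k : Q.κ) (s : E3) :
    (toMFG M Q G cov cη₀ eb₀ x₀ v₀ edge₀).EnC Ge p (some k) s = Q.EnC Ge p k s := by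
  refine EnA_equiv (τ₁ := {t // Q.cl t = k})
    (τ₂ := {t // (toMFG M Q G cov cη₀ eb₀ x₀ v₀ edge₀).cl t = some k})
    { toFun := fun t => ⟨some t.1, congrArg some t.2⟩
      invFun := fun t => match t with
        | ⟨some t, h⟩ => ⟨t, Option.some_injective _ h⟩
        | ⟨none, h⟩ => absurd h (by simp [toMFG])
      left_inv := fun t => rfl
      right_inv := by
        rintro ⟨_ | t, h⟩
        · exact absurd h (by simp [toMFG])
        · rfl } (fun t => rfl) (fun t => rfl) (fun t => rfl)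
    (fun t => ?_)
  exact Finset.sum_map _ _ _

end Rec2

end

end Crest.Agent.R096.Mfa_880
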