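import Crest.Agent.R096.Mal18_874

/-!
# Row 96, library (MESH-AL), part 19: the core tile is good; block tilings of two scales agree away
from the wall
-/

set_option autoImplicit false
set_option linter.unusedSectionVars false

open Set Filter Topology Metric

namespace Crest.Agent.R096.Mal_874

open Msh_715 Cut_874 Msh_810

variable {n : ℕ} {E : Type*} [NormedAddCommGroup E] [NormedSpace ℝ E]

/-! ### the core tile -/

namespace CB

variable (Q : CB E n) (k : ℕ) (hk : Q.kc ≤ k)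

theorem bp_int [NeZero n] : Q.S.bp Q.ψ Q.a' Q.kc ⊆ interior Q.N := by
  intro y hy
  have h1 : y ∉ frontier Q.N := by
    intro h
    rw [Q.frontier_N] at h
    have h2 := Q.near_infDist (y := y) (fun l => by
      have h3 := Q.near_of_bp hy l
      constructor <;> linarith [h3.1, h3.2])
    rw [infDist_zero_of_mem (show Q.ψ y ∈ Q.W from h)] at h2
    have h4 : (0 : ℝ) < (6 + 1) / 2 ^ Q.kc := by positivity
    linarith
  have h5 : y ∈ Q.N := Q.bp_sub_N hy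
  by_contra h6
  exact h1 ⟨subset_closure h5, h6⟩

end CB

namespace MD

variable {J : Type*} (M : MD E n J) [NeZero n] {k : J → ℕ} (hk : M.Sc k) (a : Fin n → ℝ)
  {v : J → E} (hv : M.Adm v)

/-- a tile which has only interior points of the block touches no outer piece -/
theorem no_outer {j : J} {i : M.IIx hk a hv j}
    (hi : P ((M.mesh hk a hv).H (Sum.inr ⟨j, i⟩)) ⊆ interior (M.Bk v j).N)
    {t : M.OIx hk a hv ⊕ Σ j, M.IIx hk a hv j}
    (ht : (P ((M.mesh hk a hv).H t) ∩ P ((M.mesh hk a hv).H (Sum.inr ⟨j, i⟩))).Nonempty) :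
    ∃ m : M.IIx hk a hv j, t = Sum.inr ⟨j, m⟩ ∧
      (P ((M.S hk (v := v) j).H m.1) ∩ P ((M.S hk (v := v) j).H i.1)).Nonempty := by
  obtain ⟨y, hy1, hy2⟩ := ht
  obtain ⟨m, rfl, hm⟩ := (M.at_in hk a hv (hi hy2)).1 hy1
  exact ⟨m, rfl, y, hy1, hy2⟩

/-- **the core tile is good** (with the size of the box) -/
theorem core_good {B : ℕ} {R : ℝ} (j : J) (hB1 : 1 ≤ B)
    (hB : ∀ i, ∀ p ∈ (M.Q j).S.GG i, ∀ l, |p.1 l| ≤ B)
    (hR : ∀ l, ((M.Q j).S.hi l : ℝ) - (M.Q j).S.lo l ≤ R) :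
    Good (M.mesh hk a hv) (Sum.inr ⟨j, M.core hk a hv j⟩) (chi (M.Q j).ψ (M.Bk v j).a' (M.Q j).kc)
      (M.Q j).kc (NB n B) 1 R := by
  have hsub : P ((M.mesh hk a hv).H (Sum.inr ⟨j, M.core hk a hv j⟩)) ⊆
      (M.Bk v j).S.bp (M.Bk v j).ψ (M.Bk v j).a' (M.Bk v j).kc :=
    (M.Bk v j).P_inr_sub (k j) (hk.kc j) _
  constructor
  · intro t ht
    obtain ⟨m, rfl, hm⟩ := M.no_outer hk a hv (hsub.trans (M.Bk v j).bp_int) ht
    refine (M.Bk v j).near_good (k j) (hk.kc j) hB1 hB (t := (M.core hk a hv j).1) ?_ hm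
    obtain ⟨y, -, hy⟩ := hm
    exact ⟨y, hy, hsub hy⟩
  · intro x hx y hy m
    rw [M.P_core hk a hv] at hx hy
    rw [chi_eq_ps, chi_eq_ps]
    have h1 : ((M.Q j).S.lo m : ℝ) ≤ ps (M.Bk v j).a' (M.Q j).kc ((M.Q j).ψ x) m ∧
      ps (M.Bk v j).a' (M.Q j).kc ((M.Q j).ψ x) m ≤ (M.Q j).S.hi m := hx m
    have h2 : ((M.Q j).S.lo m : ℝ) ≤ ps (M.Bk v j).a' (M.Q j).kc ((M.Q j).ψ y) m ∧
      ps (M.Bk v j).a' (M.Q j).kc ((M.Q j).ψ y) m ≤ (M.Q j).S.hi m := hy m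
    refine le_trans ?_ (hR m)
    rw [abs_le]
    constructor <;> linarith [h1.1, h1.2, h2.1, h2.2]

end MD

/-! ### two scales at the wall -/

theorem blkE_K_le_of {W : Set (Fin n → ℝ)} {C : ℝ} {hC : 1 < C} {kc k : ℕ} {a : Fin n → ℝ}
    {h : C ≤ 2 ^ kc} {hk : kc ≤ k} {κ : ℕ} (hκ : kc ≤ κ) {x : Fin n → ℝ}
    (hx : (C + 1) / 2 ^ κ ≤ infDist x W) : K (blkE W C hC kc k a h hk) x ≤ κ := by
  have h2 : 0 < C := by linarith
  have hp : (0 : ℝ) < 2 ^ κ := by positivity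
  refine K_le_of ?_
  intro y hy
  rw [blkE_ρ, blkE_C]
  have h3 := infDist_le_infDist_add_dist (s := W) (x := x) (y := y)
  have h4 : (C + 1) / 2 ^ κ = C / 2 ^ κ + (2 ^ κ)⁻¹ := by
    rw [add_div, one_div]
  have h6 : C / 2 ^ κ ≤ C / 2 ^ kc :=
    div_le_div_of_nonneg_left h2.le (by positivity) (pow_le_pow_right₀ (by norm_num) hκ)
  have h5 : C / 2 ^ κ ≤ max (C / 2 ^ k) (min (C / 2 ^ kc) (infDist y W)) := by
    refine (le_min h6 ?_).trans (le_max_right _ _)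
    linarith
  calc C = 2 ^ κ * (C / 2 ^ κ) := by field_simp
    _ ≤ _ := mul_le_mul_of_nonneg_left h5 (by positivity)

namespace CB

variable (Q : CB E n)

/-- the scale is at most `κ` at distance at least `7 / 2 ^ κ` from the wall -/
theorem K_le_far {k : ℕ} (hk : Q.kc ≤ k) {κ : ℕ} (hκ : Q.kc ≤ κ) {x : Fin n → ℝ}
    (hx : 7 / 2 ^ κ ≤ infDist x Q.W) : K (Q.D k hk) x ≤ κ := by
  refine blkE_K_le_of hκ ?_
  have e : ((6 : ℝ) + 1) / 2 ^ κ = 7 / 2 ^ κ := by norm_num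
  rw [e]
  exact hx

/-- a cube of scale `κ < k` is at distance at most `8 / 2 ^ (κ - 1)` from the wall, if `kc < κ` -/
theorem cube_wall {k : ℕ} (hk : Q.kc ≤ k) {τ : Top (Q.D k hk)} {κ : ℕ} (hκ : Q.kc ≤ κ)
    (hτ : κ < τ.1.1.k) {y : E} (hy : y ∈ P ((Q.T0 k hk).H τ)) :
    infDist (Q.ψ y) Q.W < 7 / 2 ^ κ := by
  by_contra hcon
  push Not at hcon
  have h1 := Q.K_le_far hk hκ hcon
  have h2 : τ.1.1.k ≤ K (Q.D k hk) (Q.ψ y) := tile_k_le (φ := Q.ψ) (D := Q.D k hk) hy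
  omega

/-- the graded cubes of the scales `k0 ≤ k` agree at distance more than `7 / 2 ^ k0` from the wall -/
theorem same_T0 {k0 k : ℕ} (hk0 : Q.kc ≤ k0) (hkk : k0 ≤ k) {p : E}
    (hp : 7 / 2 ^ k0 < infDist (Q.ψ p) Q.W) :
    Rg (Q.T0 k0 hk0) (Q.T0 k (hk0.trans hkk)) 0 p := by
  have hnear : ∀ᶠ y in 𝓝 (Q.ψ p), K (Q.D k (hk0.trans hkk)) y ≤ k0 := by
    have h1 : IsOpen {x : Fin n → ℝ | 7 / 2 ^ k0 < infDist x Q.W} :=
      isOpen_lt continuous_const (continuous_infDist_pt _)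
    filter_upwards [h1.mem_nhds hp] with x hx
    exact Q.K_le_far _ hk0 (le_of_lt hx)
  have hmin : ∀ x, K (Q.D k0 hk0) x = min (K (Q.D k (hk0.trans hkk)) x) k0 := fun x =>
    blkE_K_min (W := Q.W) (hC := by norm_num) (a := Q.a') (h := Q.six_le) (hk := hk0.trans hkk)
      (hk0 := hk0) hkk x
  have hpos : ∀ k' (hk' : Q.kc ≤ k') (x : Fin n → ℝ), 0 < (Q.D k' hk').ρ x := fun k' hk' x =>
    blkE_pos x
  have hle : ∀ τ : Top (Q.D k (hk0.trans hkk)), τ ∈ (Q.T0 k (hk0.trans hkk)).at_ p →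
      τ.1.1.k ≤ k0 := by
    intro τ hτ
    have h2 : τ.1.1.k ≤ K (Q.D k (hk0.trans hkk)) (Q.ψ p) :=
      tile_k_le (φ := Q.ψ) (D := Q.D k (hk0.trans hkk)) hτ
    exact h2.trans hnear.self_of_nhds
  constructor
  · intro τ hτ
    -- a cube of the scale `k0`
    have hτk : τ.1.1.k ≤ k0 := Q.le_k k0 hk0
    have hM : IsM (Q.D k (hk0.trans hkk)) τ.1.1 := by
      obtain ⟨x, hx, hx0, hxK⟩ := τ.1.2
      rcases lt_or_eq_of_le hτk with h1 | h1
      · refine ⟨x, hx, hpos _ _ _, ?_⟩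
        have h2 := hmin x
        rw [hxK] at h2
        rcases le_total (K (Q.D k (hk0.trans hkk)) x) k0 with h3 | h3
        · rw [min_eq_left h3] at h2
          exact h2.symm
        · rw [min_eq_right h3] at h2
          omega
      · -- points of the open cube near `p`
        have hz : Q.ψ p ∈ Cu Q.a' τ.1.1.k τ.1.1.z := (Q.tile_T0 k0 hk0).1 hτ
        have h2 := (mem_closure_iff_frequently.1 (Cu_sub_closure _ _ _ hz)).and_eventually hnear
        obtain ⟨y, hy1, hy2⟩ := h2.exists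
        have hyo : y ∈ Do (Q.D k0 hk0).a τ.1.1 := by
          have e : τ.1.1 = ⟨τ.1.1.k, τ.1.1.z, Finset.univ⟩ := by
            ext1
            · rfl
            · rfl
            · exact τ.2
          rw [e, Do_univ]
          exact hy1
        have h3 : K (Q.D k0 hk0) y = τ.1.1.k := τ.1.2.K_eq hyo
        refine ⟨y, hyo, hpos _ _ _, ?_⟩
        rw [hmin y, min_eq_left hy2] at h3
        exact h3
    refine ⟨⟨⟨τ.1.1, hM⟩, τ.2⟩, ?_, ?_⟩
    · rw [add_zero]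
      exact hτ
    · rw [trS_zero]
      rfl
  · intro τ hτ
    rw [add_zero] at hτ
    obtain ⟨τ', e⟩ := Q.same_coarse k (hk0.trans hkk) hk0 hkk τ (hle τ hτ)
    refine ⟨τ', ?_, ?_⟩
    · have h1 := (Q.tile_T0 k (hk0.trans hkk)).1 hτ
      refine (Q.tile_T0 k0 hk0).2 ?_
      rw [e]
      exact h1
    · rw [trS_zero]
      show Hc _ _ _ _ = Hc _ _ _ _
      rw [e]
      rfl

/-- **the block tilings of the scales `k0 ≤ k` agree at distance more than `7 / 2 ^ k0` from the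
wall** -/
theorem same_T {k0 k : ℕ} (hk0 : Q.kc ≤ k0) (hkk : k0 ≤ k) {p : E}
    (hp : 7 / 2 ^ k0 < infDist (Q.ψ p) Q.W) :
    Rg (Q.T k0 hk0) (Q.T k (hk0.trans hkk)) 0 p := by
  refine Rg.patch (Q.same_T0 hk0 hkk hp) ?_ ?_ ?_
  · intro i _ i' e
    exact P_sub_iff e fun y => by rw [add_zero]
  · intro i _
    exact ⟨i, (trS_zero _).symm⟩
  · intro i _
    exact ⟨i, (trS_zero _).symm⟩

end CB

/-- rigidity with `b = 0` -/
theorem Rg.eq0 {Om Om' : Set E} {ι ι' : Type*} {T : Tiling Om ι} {T' : Tiling Om' ι'} {p : E}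
    (h : Rg T T' 0 p) : T'.cc p = T.cc p ∧ T'.V p = T.V p ∧ T'.dim p = T.dim p ∧
      (fun j => T'.H j) '' T'.at_ p = (fun i => T.H i) '' T.at_ p := by
  refine ⟨?_, ?_, ?_, ?_⟩
  · ext y
    have := h.cc (y := y)
    rwa [add_zero, add_zero] at this
  · have := h.V
    rwa [add_zero] at this
  · have := h.dim
    rwa [add_zero] at this
  · ext G
    constructor
    · rintro ⟨j, hj, rfl⟩
      obtain ⟨i, hi, e⟩ := h.2 j (by rwa [add_zero])
      rw [trS_zero] at e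
      exact ⟨i, hi, e.symm⟩
    · rintro ⟨i, hi, rfl⟩
      obtain ⟨j, hj, e⟩ := h.1 i hi
      rw [trS_zero] at e
      rw [add_zero] at hj
      exact ⟨j, hj, e⟩

/-- composition -/
theorem Rg.trans {Om Om' Om'' : Set E} {ι ι' ι'' : Type*} {T : Tiling Om ι} {T' : Tiling Om' ι'}
    {T'' : Tiling Om'' ι''} {b c p : E} (h : Rg T T' b p) (h' : Rg T' T'' c (p + b)) :
    Rg T T'' (b + c) p := by
  constructor
  · intro i hi
    obtain ⟨i', hi', e⟩ := h.1 i hi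
    obtain ⟨i'', hi'', e'⟩ := h'.1 i' hi'
    refine ⟨i'', by rwa [← add_assoc], ?_⟩
    rw [e', e, trS_trS]
  · intro i'' hi''
    obtain ⟨i', hi', e'⟩ := h'.2 i'' (by rwa [add_assoc])
    obtain ⟨i, hi, e⟩ := h.2 i' hi'
    exact ⟨i, hi, by rw [e', e, trS_trS]⟩

/-- inverse -/
theorem Rg.symm {Om Om' : Set E} {ι ι' : Type*} {T : Tiling Om ι} {T' : Tiling Om' ι'} {b p : E}
    (h : Rg T T' b p) : Rg T' T (-b) (p + b) := by
  constructor
  · intro i' hi'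
    obtain ⟨i, hi, e⟩ := h.2 i' hi'
    refine ⟨i, by rwa [add_neg_cancel_right], ?_⟩
    rw [e, trS_trS, add_neg_cancel, trS_zero]
  · intro i hi
    rw [add_neg_cancel_right] at hi
    obtain ⟨i', hi', e⟩ := h.1 i hi
    refine ⟨i', hi', ?_⟩
    rw [e, trS_trS, add_neg_cancel, trS_zero]

namespace MD

variable {J : Type*} (M : MD E n J) [NeZero n] {k : J → ℕ} (hk : M.Sc k) (a : Fin n → ℝ)
  {v : J → E} (hv : M.Adm v)

/-- **inside a block the mesh is the block tiling** -/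
theorem rg_block {j : J} {p : E} (hp : p ∈ interior (M.Bk v j).N) :
    Rg ((M.Bk v j).T (k j) (hk.kc j)) (M.mesh hk a hv) 0 p := by
  constructor
  · intro i hi
    have h1 : P (((M.Bk v j).T (k j) (hk.kc j)).H i) ⊆ (M.Bk v j).N :=
      ((M.Bk v j).un_N (k j) (hk.kc j)).at_sub hp hi
    refine ⟨Sum.inr ⟨j, ⟨i, h1⟩⟩, ?_, (trS_zero _).symm⟩
    rw [add_zero]
    exact (M.at_in hk a hv hp).2 ⟨⟨i, h1⟩, rfl, hi⟩
  · intro t ht
    rw [add_zero] at ht
    obtain ⟨i, rfl, hi⟩ := (M.at_in hk a hv hp).1 ht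
    exact ⟨i.1, hi, (trS_zero _).symm⟩

/-- **inside a block, at distance more than `7 / 2 ^ k0` from the wall, the mesh is the translated
block tiling of scale `k0`** -/
theorem rg_k0 {j : J} {k0 : ℕ} (hk0 : (M.Q j).kc ≤ k0) (hkk : k0 ≤ k j) {p : E}
    (hp : p + v j ∈ interior (M.Bk v j).N) (hp2 : 7 / 2 ^ k0 < infDist ((M.Q j).ψ p) (M.Q j).W) :
    Rg ((M.Q j).T k0 hk0) (M.mesh hk a hv) (v j) p := by
  have h1 : Rg ((M.Q j).T k0 hk0) ((M.Q j).T (k j) (hk0.trans hkk)) 0 p :=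
    (M.Q j).same_T hk0 hkk hp2
  have h2 : Rg ((M.Q j).T (k j) (hk0.trans hkk)) ((M.Bk v j).T (k j) (hk.kc j)) (v j) (p + 0) :=
    (M.Q j).rg_tr (v j) (k j) _ _
  have h3 : Rg ((M.Q j).T k0 hk0) ((M.Bk v j).T (k j) (hk.kc j)) (0 + v j) p := h1.trans h2
  rw [zero_add] at h3
  have h4 := h3.trans (M.rg_block hk a hv hp)
  rwa [add_zero] at h4

end MD

end Crest.Agent.R096.Mal_874
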