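import Crest.Agent.R096.Mfi4_290
import Crest.Agent.R096.Mal19_874

/-!
# Row 96, instance of `Pm_199.MF`, inner half, part 5

`QI M X j k0` : the potential tiles of the block `j` (moving with the block): every coarse tile
(shell, cubes at the shell, cubes of scale `< k0`) is its own class, with its exact configuration in
874's tiling `(M.Q j).T k0`; the cubes of scale `m ≥ k0` are the class `m`.
`QW M X k j W` : the inner cubes at the wall of the block (moving with `a`).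
-/

set_option autoImplicit false
set_option linter.unusedSectionVars false

open MeasureTheory Set Filter Metric
open scoped Topology ENNReal

namespace Crest.Agent.R096.Mfi_290

open Msh_715 Cut_874 Msh_810 Mal_874
open Crest.Agent.R096.SkC1_961 (E3 Cfg)
open Crest.Agent.R96.Pm_199 (sh)

/-! ### coarse tiles are far from the wall -/

section far

variable {n : ℕ} {E : Type*} [NormedAddCommGroup E] [NormedSpace ℝ E]

theorem far_wall {Q : CB E n} {k : ℕ} {hk : Q.kc ≤ k} {σ : Idx n} (h : IsM (Q.D k hk) σ) {k0 : ℕ}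
    (hσ : σ.k < k0) (hkk : k0 ≤ k) {y : Fin n → ℝ} (hy : y ∈ Dc Q.a' σ) :
    7 / 2 ^ k0 < infDist y Q.W := by
  have h1 : (6 : ℝ) ≤ 2 ^ σ.k * max (6 / 2 ^ k) (min (6 / 2 ^ Q.kc) (infDist y Q.W)) :=
    h.lower hy
  have hp : (0 : ℝ) < 2 ^ σ.k := by positivity
  have h2 : (6 : ℝ) / 2 ^ σ.k ≤ max (6 / 2 ^ k) (min (6 / 2 ^ Q.kc) (infDist y Q.W)) := by
    rw [div_le_iff₀' hp]
    exact h1
  have h3 : (2 : ℝ) * 2 ^ σ.k ≤ 2 ^ k0 := by
    have : (2 : ℝ) ^ (σ.k + 1) ≤ 2 ^ k0 := pow_le_pow_right₀ (by norm_num) hσ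
    rw [pow_succ] at this
    linarith
  have h4 : (6 : ℝ) / 2 ^ k < 6 / 2 ^ σ.k :=
    div_lt_div_of_pos_left (by norm_num) hp (pow_lt_pow_right₀ (by norm_num) (by omega))
  have h5 : (6 : ℝ) / 2 ^ σ.k ≤ infDist y Q.W := by
    rcases le_max_iff.1 h2 with h | h
    · linarith
    · exact h.trans (min_le_right _ _)
  have h6 : (7 : ℝ) / 2 ^ k0 < 6 / 2 ^ σ.k := by
    rw [div_lt_div_iff₀ (by positivity) hp]
    nlinarith
  linarith

theorem near_far [NeZero n] {Q : CB E n} {y : E} (hy : Q.near 1 y) {k0 : ℕ} (hk0 : Q.kc ≤ k0) :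
    7 / 2 ^ k0 < infDist (Q.ψ y) Q.W := by
  have hp : (0 : ℝ) < 2 ^ Q.kc := by positivity
  have hw := Q.w_real
  have h1 : (9 : ℝ) / 2 ^ Q.kc ≤ infDist (Q.ψ y) Q.W := by
    refine le_trans ?_ (le_infDist_bx (r := Q.w - Q.S.t - 1) Q.al_lt Q.W_ne ?_)
    · rw [div_le_div_iff_of_pos_right hp]
      linarith
    · intro l
      have h := hy l
      unfold CB.al CB.be
      push_cast
      constructor <;> linarith [h.1, h.2]
  have h2 : (7 : ℝ) / 2 ^ k0 ≤ 7 / 2 ^ Q.kc :=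
    div_le_div_of_nonneg_left (by norm_num) hp (pow_le_pow_right₀ (by norm_num) hk0)
  have h3 : (7 : ℝ) / 2 ^ Q.kc < 9 / 2 ^ Q.kc := by
    rw [div_lt_div_iff_of_pos_right hp]
    norm_num
  linarith

theorem isM_nmt (Q : CB E n) (v : E) (k : ℕ) (hk : Q.kc ≤ k) {i : TIx (Q.tr v) k hk}
    {p : ℕ × (Fin n → ℤ)} (hp : nmt Q v k hk i = Sum.inl p) :
    IsM (Q.D k hk) ⟨p.1, p.2, Finset.univ⟩ := by
  rcases i with τ | s
  · have hp' : (τ.1.1.1.k, τ.1.1.1.z) = p := Sum.inl.inj hp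
    rw [← isM_tr Q v k hk, ← hp']
    exact isM_univ (Q := Q.tr v) τ.1
  · cases hp

/-- configurations in rigidly moved tilings -/
theorem cfg_rigid {Om Om' : Set E} {ι ι' : Type*} {T : Tiling Om ι} {T' : Tiling Om' ι'} {b : E}
    {i : ι} {i' : ι'} (hP : P (T'.H i') = (fun y => y + b) '' P (T.H i))
    (hrg : ∀ p ∈ P (T.H i), Rg T T' b p) :
    cfg T' i' = (fun K => (fun y => y + b) '' K) '' cfg T i := by
  have hcc : ∀ p ∈ P (T.H i), T'.cc (p + b) = (fun y => y + b) '' T.cc p := by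
    intro p hp
    ext y
    constructor
    · intro hy
      refine ⟨y - b, ?_, sub_add_cancel y b⟩
      rw [← (hrg p hp).cc, sub_add_cancel]
      exact hy
    · rintro ⟨x, hx, rfl⟩
      exact (hrg p hp).cc.2 hx
  ext K
  constructor
  · rintro ⟨x', hx', rfl⟩
    rw [hP] at hx'
    obtain ⟨x, hx, rfl⟩ := hx'
    exact ⟨T.cc x, ⟨x, hx, rfl⟩, (hcc x hx).symm⟩
  · rintro ⟨_, ⟨x, hx, rfl⟩, rfl⟩
    refine ⟨x + b, ?_, (hcc x hx).symm⟩
    rw [hP]
    exact ⟨x, hx, rfl⟩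

end far

noncomputable section

/-! ### the records -/

section rec

variable {J : Type} (M : MD E3 3 J)

/-- coarse potential tiles: the shell, cubes at the shell, cubes of scale `< k0` -/
def Coarse (k0 : ℕ) (j : J) : Pt (M.Q j) → Prop
  | Sum.inl p => p.1 < k0 ∨
      (cube (M.Q j) p.1 p.2 ∩ (M.Q j).S.bp (M.Q j).ψ (M.Q j).a' (M.Q j).kc).Nonempty
  | Sum.inr _ => True

/-- scale of a potential tile -/
def sca (j : J) : Pt (M.Q j) → ℕ
  | Sum.inl p => p.1
  | Sum.inr _ => (M.Q j).kc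

/-- the class of a potential tile -/
def qcl (k0 : ℕ) (j : J) (t : Pt (M.Q j)) : Pt (M.Q j) ⊕ ℕ := by
  classical
  exact if Coarse M k0 j t then Sum.inl t else Sum.inr (sca M j t)

/-- the shifts for which a potential tile is used -/
def qAc (j : J) : Pt (M.Q j) → Set E3
  | Sum.inl p => {s | ‖M.φ s‖ ≤ M.r j ∧ Use (M.Q j) p ∧
      ¬ (cube (M.Q j) p.1 p.2 ∩ frontier (M.Q j).N).Nonempty}
  | Sum.inr s' => {s | ‖M.φ s‖ ≤ M.r j ∧ s' ≠ (M.Q j).S.core}

theorem qAc_closed (j : J) (t : Pt (M.Q j)) : IsClosed (qAc M j t) := by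
  have key : ∀ A : Prop, IsClosed {s : E3 | ‖M.φ s‖ ≤ M.r j ∧ A} := by
    intro A
    by_cases hA : A
    · have e : {s : E3 | ‖M.φ s‖ ≤ M.r j ∧ A} = {s | ‖M.φ s‖ ≤ M.r j} := by
        ext s
        exact ⟨fun hs => hs.1, fun hs => ⟨hs, hA⟩⟩
      rw [e]
      exact isClosed_le (M.φ.continuous.norm) continuous_const
    · have e : {s : E3 | ‖M.φ s‖ ≤ M.r j ∧ A} = ∅ := by
        ext s
        simp only [Set.mem_empty_iff_false, iff_false]
        exact fun hs => hA hs.2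
      rw [e]
      exact isClosed_empty
  rcases t with p | s
  · exact key _
  · exact key _

/-- coordinates of a potential tile -/
def qχ (j : J) : Pt (M.Q j) → E3 ≃ᵃ[ℝ] E3 := by
  classical
  exact fun t => match t with
  | Sum.inl p =>
    if kd M j (Sum.inl p) = Kd.far then chi (M.Q j).ψ (M.Q j).a' (p.1 + 1)
    else chi (M.Q j).ψ (M.Q j).a' (M.Q j).kc
  | Sum.inr _ => chi (M.Q j).ψ (M.Q j).a' (M.Q j).kc

/-- the rigid frame of a potential tile -/
def qfr (j : J) (t : Pt (M.Q j)) : E3 ≃ᵃ[ℝ] E3 := nrm (qχ M j t) (til_ne (M.Q j) t).some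

theorem ifr_eq (k : J → ℕ) (W : J → Set E3) (j : J) (t : Pt (M.Q j)) :
    ifr M k W (Sum.inl ⟨j, t⟩) = qfr M j t := by
  rcases t with p | s
  · rfl
  · rfl

/-- norm of the frame of a potential tile -/
def qβ (j : J) : Pt (M.Q j) → ℝ := by
  classical
  exact fun t => match t with
  | Sum.inl p =>
    if kd M j (Sum.inl p) = Kd.far then 2 ^ (p.1 + 1) * ‖((M.Q j).ψ : E3 →L[ℝ] (Fin 3 → ℝ))‖
    else 2 ^ (M.Q j).kc * ‖((M.Q j).ψ : E3 →L[ℝ] (Fin 3 → ℝ))‖
  | Sum.inr _ => 2 ^ (M.Q j).kc * ‖((M.Q j).ψ : E3 →L[ℝ] (Fin 3 → ℝ))‖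

theorem qfr_norm (j : J) (t : Pt (M.Q j)) (y : E3) : ‖(qfr M j t).linear y‖ ≤ qβ M j t * ‖y‖ := by
  have h := ifr_norm M (fun _ => 0) (fun _ => univ) (Sum.inl ⟨j, t⟩) y
  rw [ifr_eq] at h
  refine h.trans (le_of_eq ?_)
  rcases t with p | s
  · rfl
  · rfl

/-- the configuration of the tile `t` of the tiling `(M.Q j).T k0` in its rigid frame -/
def qcf (j : J) (k0 : ℕ) (hk0 : (M.Q j).kc ≤ k0) (t : Pt (M.Q j)) : Set (Set (Set E3)) :=
  {𝒞 | ∃ i0, P (((M.Q j).T k0 hk0).H i0) = til (M.Q j) t ∧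
    𝒞 = (fun K => qfr M j t '' K) '' cfg ((M.Q j).T k0 hk0) i0}

theorem qcf_subsingleton (j : J) (k0 : ℕ) (hk0 : (M.Q j).kc ≤ k0) (t : Pt (M.Q j)) :
    (qcf M j k0 hk0 t).Subsingleton := by
  rintro 𝒞 ⟨i0, h1, rfl⟩ 𝒞' ⟨i1, h2, rfl⟩
  rw [Mfa_880.tile_inj _ (h1.trans h2.symm)]

/-- the lists of shapes -/
def qSh (X : RD M) (j : J) (k0 : ℕ) (hk0 : (M.Q j).kc ≤ k0) : Pt (M.Q j) ⊕ ℕ → Set (Set (Set E3))
  | Sum.inl t => {𝒞 | 𝒞 ∈ qcf M j k0 hk0 t ∧
      (𝒞 ∈ simL (N0 3) 1 2 ∨ 𝒞 ∈ simL (NB 3 (X.B j)) 1 (X.R j))}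
  | Sum.inr _ => simL (N0 3) 1 2

theorem qSh_finite (X : RD M) (j : J) (k0 : ℕ) (hk0 : (M.Q j).kc ≤ k0) (c : Pt (M.Q j) ⊕ ℕ) :
    (qSh M X j k0 hk0 c).Finite := by
  rcases c with t | m
  · exact ((qcf_subsingleton M j k0 hk0 t).anti fun 𝒞 h => h.1).finite
  · exact simL_finite _ _ _

/-- **all lists of shapes are contained in two universal lists** -/
theorem qSh_sub (X : RD M) (j : J) (k0 : ℕ) (hk0 : (M.Q j).kc ≤ k0) (c : Pt (M.Q j) ⊕ ℕ) :
    qSh M X j k0 hk0 c ⊆ simL (N0 3) 1 2 ∪ simL (NB 3 (X.B j)) 1 (X.R j) := by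
  rcases c with t | m
  · exact fun 𝒞 h => h.2
  · exact subset_union_left

/-- **the potential tiles of the block `j`** -/
def QI (X : RD M) (j : J) (k0 : ℕ) (hk0 : (M.Q j).kc ≤ k0) : RT J where
  κ := Pt (M.Q j) ⊕ ℕ
  τ := Pt (M.Q j)
  cκ := inferInstance
  cτ := inferInstance
  cl := qcl M k0 j
  bl _ := some j
  Til := til (M.Q j)
  Ac := qAc M j
  Acm t := (qAc_closed M j t).measurableSet
  β := qβ M j
  Sh := qSh M X j k0 hk0
  shf := qSh_finite M X j k0 hk0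
  frr := qfr M j
  frn := qfr_norm M j

/-- **the inner cubes at the wall of the block `j`** -/
def QW (X : RD M) (k : J → ℕ) (W : J → Set E3) (hW : ∀ j, (W j).Countable) (j : J) : RT J where
  κ := Unit
  τ := W j × (Fin 3 → ℤ)
  cκ := inferInstance
  cτ := by
    have : Countable (W j) := (hW j).to_subtype
    infer_instance
  cl _ := ()
  bl _ := none
  Til t := iTil M k W (Sum.inr ⟨j, t⟩)
  Ac t := iAc M k W (Sum.inr ⟨j, t⟩)
  Acm t := (iAc_closed M k W (Sum.inr ⟨j, t⟩)).measurableSet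
  β _ := 2 ^ k j * ‖(M.φ : E3 →L[ℝ] (Fin 3 → ℝ))‖
  Sh _ := simL (NR (X.A j) (X.d j)) (X.d j) (X.c j)
  shf _ := simL_finite _ _ _
  frr t := ifr M k W (Sum.inr ⟨j, t⟩)
  frn t y := ifr_norm M k W (Sum.inr ⟨j, t⟩) y

end rec

/-! ### the covering -/

section cov

variable {J : Type} (M : MD E3 3 J) {k : J → ℕ} (hk : M.Sc k) (a : E3)
  {W : J → Set E3} (w : ∀ j, W j) (hv : M.Adm (fun j => a + (w j : E3)))

theorem ipot_in {j : J} {i : M.IIx hk (M.φ a) hv j}
    (h : ¬ (P ((M.mesh hk (M.φ a) hv).H (Sum.inr ⟨j, i⟩)) ∩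
      frontier (M.Bk (fun j => a + (w j : E3)) j).N).Nonempty) :
    ipot M hk a w hv ⟨j, i⟩ = Sum.inl ⟨j, inm M hk a w hv j i⟩ := by
  rw [touch_iff M hk a w hv j i] at h
  unfold ipot
  simp only []
  rcases h1 : inm M hk a w hv j i with p | s
  · rw [h1] at h
    exact ipt_in M w j h
  · rfl

theorem ipot_wall {j : J} {i : M.IIx hk (M.φ a) hv j}
    (h : (P ((M.mesh hk (M.φ a) hv).H (Sum.inr ⟨j, i⟩)) ∩
      frontier (M.Bk (fun j => a + (w j : E3)) j).N).Nonempty) :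
    ∃ z, ipot M hk a w hv ⟨j, i⟩ = Sum.inr ⟨j, w j, z⟩ := by
  obtain ⟨τ, h2, h3⟩ := touch M hk (M.φ a) hv i h
  rw [touch_iff M hk a w hv j i] at h
  have h4 : inm M hk a w hv j i = Sum.inl (τ.1.1.1.k, τ.1.1.1.z) := by
    unfold inm
    rw [h2]
    rfl
  unfold ipot
  simp only []
  rw [h4] at h ⊢
  exact ⟨_, ipt_wall M w j h⟩

/-- the name of a coarse tile of the mesh: rigid motion of the tiling `(M.Q j).T k0` -/
theorem rg_coarse {j : J} {i : M.IIx hk (M.φ a) hv j}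
    (h : ¬ (P ((M.mesh hk (M.φ a) hv).H (Sum.inr ⟨j, i⟩)) ∩
      frontier (M.Bk (fun j => a + (w j : E3)) j).N).Nonempty) {k0 : ℕ}
    (hk0 : (M.Q j).kc ≤ k0) (hkk : k0 ≤ k j)
    (hc : Coarse M k0 j (inm M hk a w hv j i)) {p : E3}
    (hp : p ∈ til (M.Q j) (inm M hk a w hv j i)) :
    Rg ((M.Q j).T k0 hk0) (M.mesh hk (M.φ a) hv) (a + (w j : E3)) p := by
  have hpm : p + (a + (w j : E3)) ∈ P ((M.mesh hk (M.φ a) hv).H (Sum.inr ⟨j, i⟩)) := by
    rw [P_inm]
    exact ⟨p, hp, rfl⟩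
  have hN : p + (a + (w j : E3)) ∈ (M.Bk (fun j => a + (w j : E3)) j).N := i.2 hpm
  refine M.rg_k0 hk (M.φ a) hv hk0 hkk ?_ ?_
  · by_contra hcon
    exact h ⟨_, hpm, subset_closure hN, hcon⟩
  · rcases h1 : inm M hk a w hv j i with q | s
    · rw [h1] at hc hp
      have hM := isM_nmt (M.Q j) (a + (w j : E3)) (k j) (hk.kc j) h1
      rcases hc with hc | hc
      · exact far_wall hM hc hkk hp
      · refine near_far ?_ hk0
        obtain ⟨y, hy1, hy2⟩ := hc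
        have h2 := (M.Q j).near_of_bp hy2
        have h3 := (M.Q j).near_tile (k j) (hk.kc j)
          (τ := ⟨⟨⟨q.1, q.2, Finset.univ⟩, hM⟩, rfl⟩) (x := y) (y := p)
          (((M.Q j).tile_T0 (k j) (hk.kc j)).2 hy1) (((M.Q j).tile_T0 (k j) (hk.kc j)).2 hp) h2
        rwa [zero_add] at h3
    · rw [h1] at hp
      refine near_far ?_ hk0
      have h2 : p ∈ P (((M.Q j).T k0 hk0).H (Sum.inr s)) := by
        rw [CB.T_inr, mem_P_iH]
        exact hp
      have h3 := (M.Q j).near_of_bp ((M.Q j).P_inr_sub k0 hk0 s h2)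
      intro l
      have h4 := h3 l
      constructor <;> linarith [h4.1, h4.2]

/-- **the configuration of a coarse tile is the one of the tiling `(M.Q j).T k0`** -/
theorem cfg_coarse {j : J} {i : M.IIx hk (M.φ a) hv j}
    (h : ¬ (P ((M.mesh hk (M.φ a) hv).H (Sum.inr ⟨j, i⟩)) ∩
      frontier (M.Bk (fun j => a + (w j : E3)) j).N).Nonempty) {k0 : ℕ}
    (hk0 : (M.Q j).kc ≤ k0) (hkk : k0 ≤ k j)
    (hc : Coarse M k0 j (inm M hk a w hv j i)) :
    ∃ i0, P (((M.Q j).T k0 hk0).H i0) = til (M.Q j) (inm M hk a w hv j i) ∧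
      cfg (M.mesh hk (M.φ a) hv) (Sum.inr ⟨j, i⟩) =
        (fun K => (fun y => y + (a + (w j : E3))) '' K) '' cfg ((M.Q j).T k0 hk0) i0 := by
  obtain ⟨x, hx⟩ := (M.mesh hk (M.φ a) hv).ne (Sum.inr ⟨j, i⟩)
  have hx' := I_sub_P _ hx
  rw [P_inm] at hx'
  obtain ⟨p, hp, rfl⟩ := hx'
  have hrg := rg_coarse M hk a w hv h hk0 hkk hc hp
  obtain ⟨i0, hi0, e⟩ := hrg.2 (Sum.inr ⟨j, i⟩) (I_sub_P _ hx)
  have hP : P (((M.Q j).T k0 hk0).H i0) = til (M.Q j) (inm M hk a w hv j i) := by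
    have h1 := P_inm M hk a w hv j i
    rw [e] at h1
    ext y
    rw [← mem_P_trS (b := a + (w j : E3)), h1]
    constructor
    · rintro ⟨z, hz, hzy⟩
      have : z = y := add_right_cancel hzy
      rw [← this]
      exact hz
    · intro hy
      exact ⟨y, hy, rfl⟩
  refine ⟨i0, hP, cfg_rigid ?_ fun q hq => rg_coarse M hk a w hv h hk0 hkk hc (hP ▸ hq)⟩
  rw [hP, P_inm]

/-- **(I) the covering: every inner tile except the core which does not touch the wall is a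
potential tile of the block** -/
theorem is_QI (X : RD M) (RPx : RP X (M.φ a) (fun j => a + (w j : E3)) k) {j : J} {k0 : ℕ}
    (hk0 : (M.Q j).kc ≤ k0) (hkk : k0 ≤ k j) {i : M.IIx hk (M.φ a) hv j}
    (hi : i ≠ M.core hk (M.φ a) hv j)
    (h : ¬ (P ((M.mesh hk (M.φ a) hv).H (Sum.inr ⟨j, i⟩)) ∩
      frontier (M.Bk (fun j => a + (w j : E3)) j).N).Nonempty) :
    (QI M X j k0 hk0).Is a (fun j => (w j : E3)) (M.mesh hk (M.φ a) hv) (Sum.inr ⟨j, i⟩)
      (inm M hk a w hv j i) := by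
  have e := ipot_in M hk a w hv h
  refine ⟨?_, P_inm M hk a w hv j i, ?_⟩
  · -- activity
    have h1 := iact M hk a w hv ⟨j, i⟩
    rw [e, ibl_inl] at h1
    change a + (w j : E3) ∈ qAc M j (inm M hk a w hv j i)
    rcases h2 : inm M hk a w hv j i with p | s
    · rw [h2] at h1
      exact h1
    · rw [h2] at h1
      refine ⟨h1, ?_⟩
      rintro rfl
      apply hi
      apply inm_inj M hk a w hv j
      rw [h2]
      exact (inm_core M hk a w hv j).symm
  · -- shape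
    have h1 := ishape M hk a w hv X RPx ⟨j, i⟩ hi
    unfold ifm at h1
    rw [e, ibl_inl, ifr_eq] at h1
    change (fun K => ((shE (a + (w j : E3))).trans (qfr M j (inm M hk a w hv j i))) '' K) ''
      cfg (M.mesh hk (M.φ a) hv) (Sum.inr ⟨j, i⟩) ∈ _ at h1
    change (fun K => ((shE (a + (w j : E3))).trans (qfr M j (inm M hk a w hv j i))) '' K) ''
      cfg (M.mesh hk (M.φ a) hv) (Sum.inr ⟨j, i⟩) ∈ qSh M X j k0 hk0 (qcl M k0 j _)
    have hkd : kd M j (inm M hk a w hv j i) ≠ Kd.core := by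
      intro hkd
      apply hi
      rw [← kd_core_iff M hk a w hv j i, e]
      show (j, kd M j _) = _
      rw [hkd]
    have h3 : (fun K => ((shE (a + (w j : E3))).trans (qfr M j (inm M hk a w hv j i))) '' K) ''
        cfg (M.mesh hk (M.φ a) hv) (Sum.inr ⟨j, i⟩) ∈ simL (N0 3) 1 2 ∨
        (fun K => ((shE (a + (w j : E3))).trans (qfr M j (inm M hk a w hv j i))) '' K) ''
        cfg (M.mesh hk (M.φ a) hv) (Sum.inr ⟨j, i⟩) ∈ simL (NB 3 (X.B j)) 1 (X.R j) := by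
      have ec : icl M W (Sum.inl ⟨j, inm M hk a w hv j i⟩) = (j, kd M j (inm M hk a w hv j i)) :=
        rfl
      rw [ec] at h1
      rcases h4 : kd M j (inm M hk a w hv j i) with _ | _ | _ | _
      · rw [h4] at h1
        exact Or.inl h1
      · rw [h4] at h1
        exact Or.inr h1
      · exact absurd h4 hkd
      · exfalso
        have h5 := ibl_inl M (W := W) j (inm M hk a w hv j i)
        rw [ec, h4] at h5
        cases h5
    by_cases hc : Coarse M k0 j (inm M hk a w hv j i)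
    · have eq : qcl M k0 j (inm M hk a w hv j i) = Sum.inl (inm M hk a w hv j i) := if_pos hc
      rw [eq]
      obtain ⟨i0, h5, h6⟩ := cfg_coarse M hk a w hv h hk0 hkk hc
      refine ⟨⟨i0, h5, ?_⟩, h3⟩
      rw [h6, image_image]
      refine image_congr fun K _ => ?_
      rw [image_image]
      refine image_congr fun y _ => ?_
      rw [AffineEquiv.trans_apply, shE_apply, add_sub_cancel_right]
    · have eq : qcl M k0 j (inm M hk a w hv j i) = Sum.inr (sca M j (inm M hk a w hv j i)) :=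
        if_neg hc
      rw [eq]
      -- not coarse: a cube away from the shell
      rcases h4 : inm M hk a w hv j i with p | s
      · rw [h4] at h1 hc
        have h5 : kd M j (Sum.inl p) = Kd.far := if_neg fun h6 => hc (Or.inr h6)
        have ec : icl M W (Sum.inl ⟨j, Sum.inl p⟩) = (j, Kd.far) := by
          show (j, kd M j _) = _
          rw [h5]
        rw [ec] at h1
        exact h1
      · rw [h4] at hc
        exact absurd trivial hc

/-- **the inner tiles at the wall** -/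
theorem cov_QW (X : RD M) (RPx : RP X (M.φ a) (fun j => a + (w j : E3)) k)
    (hW : ∀ j, (W j).Countable) {j : J} {i : M.IIx hk (M.φ a) hv j}
    (h : (P ((M.mesh hk (M.φ a) hv).H (Sum.inr ⟨j, i⟩)) ∩
      frontier (M.Bk (fun j => a + (w j : E3)) j).N).Nonempty) :
    (QW M X k W hW j).Cov a (fun j => (w j : E3)) (M.mesh hk (M.φ a) hv) (Sum.inr ⟨j, i⟩) := by
  obtain ⟨z, hz⟩ := ipot_wall M hk a w hv h
  have hi : i ≠ M.core hk (M.φ a) hv j := by
    intro hi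
    have h1 := (kd_core_iff M hk a w hv j i).2 hi
    rw [hz] at h1
    have h2 : Kd.wall = Kd.core := congrArg Prod.snd h1
    cases h2
  refine ⟨(w j, z), ?_, ?_, ?_⟩
  · have h1 := iact M hk a w hv ⟨j, i⟩
    rw [hz] at h1
    exact h1
  · have h1 := itile M hk a w hv ⟨j, i⟩
    rw [hz] at h1
    exact h1
  · have h1 := ishape M hk a w hv X RPx ⟨j, i⟩ hi
    unfold ifm at h1
    rw [hz] at h1
    exact h1

end cov

/-- **(I) the inner half in 880's form**: all inner tiles except the cores -/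
theorem cov_inner {J : Type} (M : MD E3 3 J) {k : J → ℕ} (hk : M.Sc k) (X : RD M)
    (W : J → Set E3) (hW : ∀ j, (W j).Countable) (k0 : J → ℕ) (hk0 : ∀ j, (M.Q j).kc ≤ k0 j)
    (hkk : ∀ j, k0 j ≤ k j) (a : E3) (w : J → E3) (hw : ∀ j, w j ∈ W j)
    (hv : M.Adm (fun j => a + w j)) (RPx : RP X (M.φ a) (fun j => a + w j) k) (j : J)
    (i : M.IIx hk (M.φ a) hv j) (hi : i ≠ M.core hk (M.φ a) hv j) :
    ((QI M X j (k0 j) (hk0 j)).sum (QW M X k W hW j)).Cov a w (M.mesh hk (M.φ a) hv)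
      (Sum.inr ⟨j, i⟩) := by
  by_cases h : (P ((M.mesh hk (M.φ a) hv).H (Sum.inr ⟨j, i⟩)) ∩
      frontier (M.Bk (fun j => a + w j) j).N).Nonempty
  · exact (cov_QW M hk a (fun j => (⟨w j, hw j⟩ : W j)) hv X RPx hW h).inr
  · exact RT.Cov.inl ⟨_, is_QI M hk a (fun j => (⟨w j, hw j⟩ : W j)) hv X RPx (hk0 j) (hkk j) hi h⟩

end

end Crest.Agent.R096.Mfi_290
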