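/-
helper880, row 96, PREMACH, MF-SUM, part 4 (version 2: universal edges of the inner classes (663's
`toPTU`), typed covering, sets `Bx` of admissible total shifts): **THE INSTANCE**: the record
`Pm_199.MF` of 874's aligned mesh (exact cores on `X`), from the outer half (324) and the inner half
(290); names of the classes, their energies, induction over the classes.
-/
import Mathlib
import Crest.Agent.R096.Mfa3_880
import Crest.Agent.R096.Mfa5_880
import Crest.Agent.R096.Mfa6_880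
import Crest.Agent.R096.Mfi5_290
import Crest.Agent.R096.Uni1_663

set_option autoImplicit false
set_option linter.style.longLine false

open MeasureTheory Set Filter Metric
open scoped Topology ENNReal

namespace Crest.Agent.R096.Mfa_880

open Crest.Agent.R096.Msh_715 Crest.Agent.R096.Msh_810 Crest.Agent.R096.Cut_874
  Crest.Agent.R096.Mal_874
open Crest.Agent.R096.SkC1_961 (E3 Cfg)
open Crest.Agent.R096.Ls_222 (Edg ea eIn mem_eIn)
open Crest.Agent.R96.Sg1_199 (li sgm)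
open Crest.Agent.R96.Pm_199
open Crest.Agent.R096.Cnt_324 (Hfam Eix Cod ex countable_Hfam)

noncomputable section

/-! ### all potential tiles -/

section All

variable {J : Type} (M : MD E3 3 J) (D : RD M) (k : J → ℕ) {W : J → Set E3}
  (Wc : ∀ j, (W j).Countable) (k0 : J → ℕ) (hk0 : ∀ j, (M.Q j).kc ≤ k0 j) (r : ℝ)
  (Bx : J → Set E3)

/-- **the potential tiles of the block `j`** with universal edges (no lists, no scales at the walls) -/
def QU (j : J) : PT J := Uni_663.toPTU (Mfi_290.QI M D j (k0 j) (hk0 j))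

/-- the inner cubes at the wall of the block `j` -/
def QUw (j : J) : PT J := Uni_663.toPTU (Mfi_290.QW M D k W Wc j)

variable [Countable J]

/-- **all potential tiles of the aligned mesh** -/
def Qall : PT J :=
  ((QPB M k Wc r Bx).toPT.sum (Mou_324.QW k Wc D r).toPT).sum
    ((PT.sigma (QU M D k0 hk0)).sum (PT.sigma (QUw M D k Wc)))

/-- outer classes (`none`), classes of the block `j` (`some j`) -/
def okc (o : Option J) (c : (Qall M D k Wc k0 hk0 r Bx).κ) : Prop :=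
  match o, c with
  | none, Sum.inl _ => True
  | some j, Sum.inr (Sum.inl c) => c.1 = j
  | some j, Sum.inr (Sum.inr c) => c.1 = j
  | _, _ => False

/-- the block of a tile -/
def blk {k : J → ℕ} (hk : M.Sc k) {a : Fin 3 → ℝ} {v : J → E3} (hv : M.Adm v)
    (i : M.OIx hk a hv ⊕ Σ j, M.IIx hk a hv j) : Option J :=
  match i with
  | Sum.inl _ => none
  | Sum.inr q => some q.1

variable {M D k k0 r Bx}

/-- **all ordinary tiles of the aligned mesh are potential tiles, outer tiles of outer classes, inner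
tiles of classes of their block** -/
theorem cov_all (hk : M.Sc k) (hkk : ∀ j, k0 j ≤ k j) (H : RW D k W) {a : E3} {w : J → E3}
    (hv : M.Adm fun j => a + w j) (hB : ∀ j, a + w j ∈ Bx j) (ha : ‖a‖ ≤ r) (hw : ∀ j, w j ∈ W j)
    (i : M.OIx hk (M.φ a) hv ⊕ Σ j, M.IIx hk (M.φ a) hv j)
    (hi : ∀ j, i ≠ Sum.inr ⟨j, M.core hk (M.φ a) hv j⟩) :
    ∃ t, (Qall M D k Wc k0 hk0 r Bx).Is a w (M.mesh hk (M.φ a) hv) i t ∧
      okc M D k Wc k0 hk0 r Bx (blk M hk hv i) ((Qall M D k Wc k0 hk0 r Bx).cl t) := by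
  rcases i with p | ⟨j, i⟩
  · rcases cov_outerB M k Wc D hk hB hv ha hw (H.rp a hw) p with ⟨t, ht⟩ | ⟨t, ht⟩
    · exact ⟨Sum.inl (Sum.inl t), ht.inl.inl, trivial⟩
    · exact ⟨Sum.inl (Sum.inr t), ht.inr.inl, trivial⟩
  · have hcore : i ≠ M.core hk (M.φ a) hv j := by
      rintro rfl
      exact hi j rfl
    by_cases h : (P ((M.mesh hk (M.φ a) hv).H (Sum.inr ⟨j, i⟩)) ∩
        frontier (M.Bk (fun j => a + w j) j).N).Nonempty
    · have h1 := Mfi_290.cov_QW M hk a (fun j => (⟨w j, hw j⟩ : W j)) hv D (H.rp a hw) Wc h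
      obtain ⟨t, ht⟩ := Uni_663.cov_toPT _ h1
      exact ⟨Sum.inr (Sum.inr ⟨j, t⟩), (ht.sg (Q := QUw M D k Wc)).inr.inr, rfl⟩
    · have h1 : (Mfi_290.QI M D j (k0 j) (hk0 j)).Cov a w (M.mesh hk (M.φ a) hv)
          (Sum.inr ⟨j, i⟩) :=
        ⟨_, Mfi_290.is_QI M hk a (fun j => (⟨w j, hw j⟩ : W j)) hv D (H.rp a hw) (hk0 j) (hkk j)
          hcore h⟩
      obtain ⟨t, ht⟩ := Uni_663.cov_toPT _ h1
      exact ⟨Sum.inr (Sum.inl ⟨j, t⟩), (ht.sg (Q := QU M D k0 hk0)).inl.inr, rfl⟩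

end All

/-! ### the family of meshes with general sets of admissible shifts -/

/-- 880's `famMD` with sets `Bx j` of admissible total shifts -/
def famB {F : Type} {X : Set F} (M : MD E3 3 X) {k : X → ℕ} (hk : M.Sc k) [Countable X]
    (hOm : (M.φ ⁻¹' M.D0.Om).Nonempty) (A : Set E3) (Am : MeasurableSet A) (A0 : volume A ≠ 0)
    (A1 : volume A ≠ ∞) (W : X → Set E3) (Wc : ∀ j, (W j).Countable) (Bx : X → Set E3)
    (hBx : ∀ j, Bx j ⊆ BxM M j) (deco : E3 → (X → E3) → Deco F) :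
    Fam (M.φ ⁻¹' M.D0.Om) F X where
  A := A
  Am := Am
  A0 := A0
  A1 := A1
  W := W
  Wc := Wc
  Bx := Bx
  cJ := inferInstance
  md a w h := (deco a w).mkX X (M.mesh hk (M.φ a) (adm_of M fun j => hBx j (h.2 j).2))
    (tile_ne M hk hOm (M.φ a) (adm_of M fun j => hBx j (h.2 j).2)).some
    fun c => Sum.inr ⟨c, M.core hk (M.φ a) (adm_of M fun j => hBx j (h.2 j).2) c⟩

/-! ### the record -/

/-- **all data of the instance** (exact cores on `X`, no tiny cores) -/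
structure Ins (F : Type) (X : Set F) where
  /-- 874's mesh data and rational data -/
  M : MD E3 3 X
  D : RD M
  /-- scales at the walls -/
  k : X → ℕ
  hk : M.Sc k
  /-- lists of relative shifts -/
  W : X → Set E3
  Wc : ∀ j, (W j).Countable
  /-- coarse scales of the blocks -/
  k0 : X → ℕ
  hk0 : ∀ j, (M.Q j).kc ≤ k0 j
  hkk : ∀ j, k0 j ≤ k j
  H : RW D k W
  /-- admissible total shifts of the blocks (`BxM M` in the simplest case) -/
  Bx : X → Set E3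
  hBx : ∀ j, Bx j ⊆ BxM M j
  /-- common shifts -/
  r : ℝ
  A : Set E3
  Am : MeasurableSet A
  A0 : volume A ≠ 0
  A1 : volume A ≠ ∞
  hAr : ∀ a ∈ A, ‖a‖ ≤ r
  cX : Countable X
  hOm : (M.φ ⁻¹' M.D0.Om).Nonempty
  /-- decoration of the cores (depends on the shifts) -/
  deco : E3 → (X → E3) → Deco F

namespace Ins

variable {F : Type} {X : Set F} (I : Ins F X)

/-- the domain -/
abbrev Om : Set E3 := I.M.φ ⁻¹' I.M.D0.Om

/-- **THE INSTANCE OF `MF` FOR THE ALIGNED MESH** -/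
def mf : MF I.Om F X :=
  letI := I.cX
  toMFG (famB I.M I.hk I.hOm I.A I.Am I.A0 I.A1 I.W I.Wc I.Bx I.hBx I.deco)
    (Qall I.M I.D I.k I.Wc I.k0 I.hk0 I.r I.Bx)
    (fun a w h i t => okc I.M I.D I.k I.Wc I.k0 I.hk0 I.r I.Bx
      (blk I.M I.hk (a := I.M.φ a) (adm_of I.M fun j => I.hBx j (h.2 j).2) i)
      ((Qall I.M I.D I.k I.Wc I.k0 I.hk0 I.r I.Bx).cl t))
    (fun a w h i hi => cov_all I.Wc I.hk0 I.hk I.hkk I.H (adm_of I.M fun j => I.hBx j (h.2 j).2)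
      (fun j => (h.2 j).2) (I.hAr a h.1) (fun j => (h.2 j).1) i (Deco.ord.1 hi))
    (η₀ := Eix (Hfam I.M (⋃ j, I.W j)))
    (by
      have h1 : (⋃ j, I.W j).Countable := countable_iUnion I.Wc
      have : Countable (Hfam I.M (⋃ j, I.W j)) := (countable_Hfam I.M h1).to_subtype
      infer_instance)
    (fun _ => none) ex Cnt_324.ev
    (fun a w h e => edge_famMD I.M I.hk (adm_of I.M fun j => I.hBx j (h.2 j).2)
      (fun j => (h.2 j).1) e)

theorem mf_A : I.mf.A = I.A := rfl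
theorem mf_W : I.mf.W = I.W := rfl
theorem mf_Bx : I.mf.Bx = I.Bx := rfl

theorem ok_iff {a : E3} {w : X → E3} : I.mf.Ok a w ↔
    a ∈ I.A ∧ ∀ j, w j ∈ I.W j ∧ a + w j ∈ I.Bx j := Iff.rfl

variable {I} in
theorem adm {a : E3} {w : X → E3} (h : I.mf.Ok a w) : I.M.Adm fun j => a + w j :=
  fun j => I.hBx j (h.2 j).2

/-- the tiling of the record is 874's mesh -/
theorem mf_T {a : E3} {w : X → E3} (h : I.mf.Ok a w) :
    (I.mf.md a w h).T = I.M.mesh I.hk (I.M.φ a) (adm h) := rfl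

theorem mf_deco {a : E3} {w : X → E3} (h : I.mf.Ok a w) :
    (I.mf.md a w h).A = (I.deco a w).A ∧ (I.mf.md a w h).lam = (I.deco a w).lam ∧
    (I.mf.md a w h).z = (I.deco a w).z ∧ (I.mf.md a w h).θ = (I.deco a w).θ ∧
    (I.mf.md a w h).φ = (I.deco a w).φ ∧ (I.mf.md a w h).M = (I.deco a w).M :=
  ⟨rfl, rfl, rfl, rfl, rfl, rfl⟩

/-- the inequalities of the meshes belong to one countable family (for 348's `MF.patch`) -/
theorem mf_hs {a : E3} {w : X → E3} (h : I.mf.Ok a w) :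
    Cnt_324.HS (I.mf.md a w h).T a (Hfam I.M (⋃ j, I.W j)) :=
  hs_famMD I.M I.hk (adm h) fun j => (h.2 j).1

theorem countable_hs : (Hfam I.M (⋃ j, I.W j)).Countable := by
  have := I.cX
  exact countable_Hfam I.M (countable_iUnion I.Wc)

/-- the core tile -/
abbrev core {a : E3} {w : X → E3} (h : I.mf.Ok a w) (c : X) : (I.mf.md a w h).ι :=
  Sum.inr ⟨c, I.M.core I.hk (I.M.φ a) (adm h) c⟩

theorem mf_ct {a : E3} {w : X → E3} (h : I.mf.Ok a w) {c : F} (hc : c ∈ X) :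
    (I.mf.md a w h).ct c = I.core h ⟨c, hc⟩ :=
  Deco.mkX_ct (D := I.deco a w) (T := I.M.mesh I.hk (I.M.φ a) (adm h))
    (i0 := (tile_ne I.M I.hk I.hOm (I.M.φ a) (adm h)).some)
    (ct := fun c => Sum.inr ⟨c, I.M.core I.hk (I.M.φ a) (adm h) c⟩) hc

theorem P_ct {a : E3} {w : X → E3} (h : I.mf.Ok a w) {c : F} (hc : c ∈ X) :
    P ((I.mf.md a w h).T.H ((I.mf.md a w h).ct c)) =
      (I.M.Bk (fun j => a + w j) ⟨c, hc⟩).Kc := by
  rw [mf_ct I h hc]
  exact I.M.P_core I.hk (I.M.φ a) (adm h) ⟨c, hc⟩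

theorem mf_J0 {a : E3} {w : X → E3} (h : I.mf.Ok a w) {c : F} (hc : c ∈ X) :
    (I.mf.md a w h).J0 c = {(I.mf.md a w h).ct c} :=
  Deco.mkX_J0 (D := I.deco a w) (T := I.M.mesh I.hk (I.M.φ a) (adm h))
    (i0 := (tile_ne I.M I.hk I.hOm (I.M.φ a) (adm h)).some)
    (ct := fun c => Sum.inr ⟨c, I.M.core I.hk (I.M.φ a) (adm h) c⟩) hc

theorem mf_J {a : E3} {w : X → E3} (h : I.mf.Ok a w) {c : F} (hc : c ∈ X) :
    (I.mf.md a w h).J c = {(I.mf.md a w h).ct c} := I.mf_J0 h hc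

theorem mf_V {a : E3} {w : X → E3} (h : I.mf.Ok a w) {c : F} (hc : c ∈ X) :
    (I.mf.md a w h).V c = {(I.mf.md a w h).ct c} := I.mf_J0 h hc

theorem mf_J0' {a : E3} {w : X → E3} (h : I.mf.Ok a w) {c : F} (hc : c ∉ X) :
    (I.mf.md a w h).J0 c = ∅ :=
  Deco.mkX_J0' (D := I.deco a w) (T := I.M.mesh I.hk (I.M.φ a) (adm h))
    (i0 := (tile_ne I.M I.hk I.hOm (I.M.φ a) (adm h)).some)
    (ct := fun c => Sum.inr ⟨c, I.M.core I.hk (I.M.φ a) (adm h) c⟩) hc

theorem mf_J' {a : E3} {w : X → E3} (h : I.mf.Ok a w) {c : F} (hc : c ∉ X) :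
    (I.mf.md a w h).J c = ∅ := I.mf_J0' h hc

theorem mf_V' {a : E3} {w : X → E3} (h : I.mf.Ok a w) {c : F} (hc : c ∉ X) :
    (I.mf.md a w h).V c = ∅ := I.mf_J0' h hc

theorem ord_iff {a : E3} {w : X → E3} (h : I.mf.Ok a w) {i : (I.mf.md a w h).ι} :
    (I.mf.md a w h).Ord i ↔ ∀ c, i ≠ I.core h c :=
  Deco.ord (D := I.deco a w) (T := I.M.mesh I.hk (I.M.φ a) (adm h))
    (i0 := (tile_ne I.M I.hk I.hOm (I.M.φ a) (adm h)).some)
    (ct := fun c => Sum.inr ⟨c, I.M.core I.hk (I.M.φ a) (adm h) c⟩)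

/-! ### names of the classes -/

/-- the class of the outer cubes away from the walls (all scales) -/
def kO : I.mf.κ := some (Sum.inl (Sum.inl ()))

/-- the class of the outer tiles at the wall `j` -/
def kOw (j : X) : I.mf.κ := some (Sum.inl (Sum.inr j))

/-- the classes of the tiles of the block `j`: one coarse tile, or the cubes of one scale -/
def kI (j : X) (c : Mfi_290.Pt (I.M.Q j) ⊕ ℕ) : I.mf.κ := some (Sum.inr (Sum.inl ⟨j, c⟩))

/-- the class of the inner cubes at the wall `j` -/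
def kIw (j : X) : I.mf.κ := some (Sum.inr (Sum.inr ⟨j, ()⟩))

/-- the dummy class (no tiles) -/
def kN : I.mf.κ := none

/-- **cases of the classes** -/
theorem cases {Pr : I.mf.κ → Prop} (h0 : Pr I.kN) (h1 : Pr I.kO) (h2 : ∀ j, Pr (I.kOw j))
    (h3 : ∀ j c, Pr (I.kI j c)) (h4 : ∀ j, Pr (I.kIw j)) (κ : I.mf.κ) : Pr κ := by
  rcases κ with _ | (⟨⟩ | j) | (⟨j, c⟩ | ⟨j, ⟨⟩⟩)
  · exact h0
  · exact h1
  · exact h2 j
  · exact h3 j c
  · exact h4 j

/-- functions of the classes -/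
def rec' {α : Type*} (f0 f1 : α) (f2 : X → α) (f3 : (j : X) → Mfi_290.Pt (I.M.Q j) ⊕ ℕ → α)
    (f4 : X → α) : I.mf.κ → α
  | none => f0
  | some (Sum.inl (Sum.inl _)) => f1
  | some (Sum.inl (Sum.inr j)) => f2 j
  | some (Sum.inr (Sum.inl ⟨j, c⟩)) => f3 j c
  | some (Sum.inr (Sum.inr ⟨j, _⟩)) => f4 j

theorem bl_kN : I.mf.bl I.kN = none := rfl
theorem bl_kO : I.mf.bl I.kO = none := rfl
theorem bl_kOw (j : X) : I.mf.bl (I.kOw j) = none := rfl
theorem bl_kI (j : X) (c : Mfi_290.Pt (I.M.Q j) ⊕ ℕ) : I.mf.bl (I.kI j c) = some j := rfl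
theorem bl_kIw (j : X) : I.mf.bl (I.kIw j) = none := rfl

theorem Sh_kN : I.mf.Sh I.kN = ∅ := rfl
theorem Sh_kO : I.mf.Sh I.kO = simL (N0 3) 1 2 := rfl
theorem Sh_kOw (j : X) : I.mf.Sh (I.kOw j) =
    simL (NR (I.D.A j) (I.D.d j)) (I.D.d j) (I.D.c j) := rfl
theorem Sh_kI (j : X) (c : Mfi_290.Pt (I.M.Q j) ⊕ ℕ) :
    I.mf.Sh (I.kI j c) = Mfi_290.qSh I.M I.D j (I.k0 j) (I.hk0 j) c := rfl
theorem Sh_kIw (j : X) : I.mf.Sh (I.kIw j) =
    simL (NR (I.D.A j) (I.D.d j)) (I.D.d j) (I.D.c j) := rfl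

/-! ### the classes of the tiles -/

theorem okc_none {o : (letI := I.cX; (Qall I.M I.D I.k I.Wc I.k0 I.hk0 I.r I.Bx).κ)}
    (h : letI := I.cX; okc I.M I.D I.k I.Wc I.k0 I.hk0 I.r I.Bx none o) :
    (some o : I.mf.κ) = I.kO ∨ ∃ j, (some o : I.mf.κ) = I.kOw j := by
  rcases o with (⟨⟩ | j) | (c | c)
  · exact Or.inl rfl
  · exact Or.inr ⟨j, rfl⟩
  · exact h.elim
  · exact h.elim

theorem okc_some {j : X} {o : (letI := I.cX; (Qall I.M I.D I.k I.Wc I.k0 I.hk0 I.r I.Bx).κ)}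
    (h : letI := I.cX; okc I.M I.D I.k I.Wc I.k0 I.hk0 I.r I.Bx (some j) o) :
    (∃ c, (some o : I.mf.κ) = I.kI j c) ∨ (some o : I.mf.κ) = I.kIw j := by
  rcases o with o | (⟨j', c⟩ | ⟨j', ⟨⟩⟩)
  · exact h.elim
  · obtain rfl : j' = j := h
    exact Or.inl ⟨c, rfl⟩
  · obtain rfl : j' = j := h
    exact Or.inr rfl

/-- **the classes of the outer tiles** -/
theorem cl_outer {a : E3} {w : X → E3} (h : I.mf.Ok a w) (p : I.M.OIx I.hk (I.M.φ a) (adm h)) :
    I.mf.cl (I.mf.pot a w h (Sum.inl p)) = I.kO ∨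
      ∃ j, I.mf.cl (I.mf.pot a w h (Sum.inl p)) = I.kOw j := by
  have := I.cX
  have hi : (I.mf.md a w h).Ord (Sum.inl p) := (I.ord_iff h).2 fun c hc => by cases hc
  obtain ⟨t, h1, -, h2⟩ := potG_some (famB I.M I.hk I.hOm I.A I.Am I.A0 I.A1 I.W I.Wc I.Bx I.hBx
    I.deco) _ _ _ _ _ _ _ _ (h := h) (i := Sum.inl p) hi
  have h3 : I.mf.cl (I.mf.pot a w h (Sum.inl p)) =
      some ((Qall I.M I.D I.k I.Wc I.k0 I.hk0 I.r I.Bx).cl t) :=
    congrArg I.mf.cl h1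
  rw [h3]
  exact I.okc_none h2

/-- **the classes of the inner tiles** -/
theorem cl_inner {a : E3} {w : X → E3} (h : I.mf.Ok a w) {j : X}
    {i : I.M.IIx I.hk (I.M.φ a) (adm h) j} (hij : i ≠ I.M.core I.hk (I.M.φ a) (adm h) j) :
    (∃ c, I.mf.cl (I.mf.pot a w h (Sum.inr ⟨j, i⟩)) = I.kI j c) ∨
      I.mf.cl (I.mf.pot a w h (Sum.inr ⟨j, i⟩)) = I.kIw j := by
  have := I.cX
  have hi : (I.mf.md a w h).Ord (Sum.inr ⟨j, i⟩) := (I.ord_iff h).2 fun c hc => by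
    obtain ⟨rfl, h2⟩ := Sigma.mk.inj_iff.1 (Sum.inr_injective hc)
    exact hij (eq_of_heq h2)
  obtain ⟨t, h1, -, h2⟩ := potG_some (famB I.M I.hk I.hOm I.A I.Am I.A0 I.A1 I.W I.Wc I.Bx I.hBx
    I.deco) _ _ _ _ _ _ _ _ (h := h) (i := Sum.inr ⟨j, i⟩) hi
  have h3 : I.mf.cl (I.mf.pot a w h (Sum.inr ⟨j, i⟩)) =
      some ((Qall I.M I.D I.k I.Wc I.k0 I.hk0 I.r I.Bx).cl t) :=
    congrArg I.mf.cl h1
  rw [h3]
  exact I.okc_some h2

/-! ### the energies of the classes -/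

/-- the outer cubes away from the walls -/
def qO : PT X := letI := I.cX; (QPB I.M I.k I.Wc I.r I.Bx).toPT
/-- the outer tiles at the walls -/
def qOw : PT X := letI := I.cX; (Mou_324.QW I.k I.Wc I.D I.r).toPT
/-- the tiles of the block `j` -/
def qI (j : X) : PT X := QU I.M I.D I.k0 I.hk0 j
/-- the inner cubes at the wall `j` -/
def qIw (j : X) : PT X := QUw I.M I.D I.k I.Wc j

variable (G : E3 → E3 → ℝ≥0∞) (p : ℝ) (s : E3)

theorem EnC_kN : I.mf.EnC G p I.kN s = 0 := by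
  have := I.cX
  exact EnCG_none _ _ _ _ _ _ _ _ _ G p s

theorem EnC_kO : I.mf.EnC G p I.kO s = I.qO.EnC G p () s := by
  have := I.cX
  refine (EnCG_some _ _ _ _ _ _ _ _ _ G p _ s).trans ?_
  exact (PT.EnC_inl _ _ G p _ s).trans (PT.EnC_inl _ _ G p _ s)

theorem EnC_kOw (j : X) : I.mf.EnC G p (I.kOw j) s = I.qOw.EnC G p j s := by
  have := I.cX
  refine (EnCG_some _ _ _ _ _ _ _ _ _ G p _ s).trans ?_
  exact (PT.EnC_inl _ _ G p _ s).trans (PT.EnC_inr _ _ G p _ s)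

theorem EnC_kI (j : X) (c : Mfi_290.Pt (I.M.Q j) ⊕ ℕ) :
    I.mf.EnC G p (I.kI j c) s = (I.qI j).EnC G p c s := by
  have := I.cX
  refine (EnCG_some _ _ _ _ _ _ _ _ _ G p _ s).trans ?_
  refine (PT.EnC_inr _ _ G p _ s).trans ((PT.EnC_inl _ _ G p _ s).trans ?_)
  exact PT.EnC_mk (QU I.M I.D I.k0 I.hk0) G p j c s

theorem EnC_kIw (j : X) : I.mf.EnC G p (I.kIw j) s = (I.qIw j).EnC G p () s := by
  have := I.cX
  refine (EnCG_some _ _ _ _ _ _ _ _ _ G p _ s).trans ?_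
  refine (PT.EnC_inr _ _ G p _ s).trans ((PT.EnC_inr _ _ G p _ s).trans ?_)
  exact PT.EnC_mk (QUw I.M I.D I.k I.Wc) G p j () s

/-- **sum over all classes** -/
theorem tsum_class (f : I.mf.κ → ℝ≥0∞) : ∑' κ, f κ = f I.kN + (f I.kO + ∑' j, f (I.kOw j)) +
    (∑' j, ∑' c, f (I.kI j c) + ∑' j, f (I.kIw j)) := by
  have h1 : ∀ {α β : Type} (g : α ⊕ β → ℝ≥0∞), ∑' i, g i = (∑' i, g (Sum.inl i)) +
      ∑' i, g (Sum.inr i) := fun g =>
    Summable.tsum_sum (f := g) ENNReal.summable ENNReal.summable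
  have h2 : ∀ {α : Type} (g : Option α → ℝ≥0∞), ∑' i, g i = g none + ∑' i, g (some i) := by
    intro α g
    rw [← (Equiv.optionEquivSumPUnit.{0} α).symm.tsum_eq g, h1, add_comm]
    congr 1
    simp
  have h3 : ∀ g : Unit → ℝ≥0∞, ∑' b, g b = g () := fun g => tsum_eq_single () fun b hb =>
    absurd rfl hb
  refine (h2 f).trans ?_
  rw [add_assoc]
  congr 1
  refine (h1 _).trans ?_
  congr 1
  · refine (h1 _).trans ?_
    congr 1
    exact h3 fun b => f (some (Sum.inl (Sum.inl b)))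
  · refine (h1 _).trans ?_
    congr 1
    · exact ENNReal.tsum_sigma' _
    · refine (ENNReal.tsum_sigma' _).trans (tsum_congr fun j => ?_)
      exact h3 fun b => f (some (Sum.inr (Sum.inr ⟨j, b⟩)))

end Ins

end

end Crest.Agent.R096.Mfa_880
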