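/-
helper222, row 96, EA0 (p <= 2), **(2d) of 348 #11568**: the good sets `Gd c ⊆ Tw (Q c) (k0 c)` of ALL
blocks and (B3) of `pre_gen`, in the letters of `Ea0p_348.Pre0` (`Sn`, `Ln`).
-/
import Mathlib
import Crest.Agent.R096.Gz0_222
import Crest.Agent.R096.Mfa4_880
import Crest.Agent.R96.Ea0p_348

set_option autoImplicit false
set_option linter.unusedSectionVars false
set_option linter.unusedVariables false

open MeasureTheory Set Filter Metric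
open scoped Topology ENNReal NNReal

namespace Crest.Agent.R096.Gz_222

open Crest.Agent.R096.Msh_715 Crest.Agent.R096.Mal_874 Crest.Agent.R096.Msh_810
  Crest.Agent.R096.Mfi_290
open Crest.Agent.R096.Bsp_628 (Bx)
open Crest.Agent.R096.SkC1_961 (E3 Cfg)
open Crest.Agent.R096.EaX_766 (lin cbx Kor)
open Crest.Agent.R096.Ea0_961 (Ed InS Blk Tw Ly)
open Crest.Agent.R096.Pmc_112 (Gd')
open Crest.Agent.R096.Ez4_748 (CF CF_ne_top)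
open Crest.Agent.R96.Gj_872 (TraW)
open Crest.Agent.R096.Mfa_880 (QU)
open Crest.Agent.R096.Mdd_360 (exists_K_net)
open Crest.Agent.R96.Ea0p_348 (Sn Ln)

noncomputable section

/-- **(2d): THE GOOD SETS OF ALL BLOCKS AND (B3)**; `C1` before the net `Nn`, `CA` after it -/
theorem good_sets {p : ℝ} (hp : 1 ≤ p) (hp3 : p ≤ 3) {Cc : ℝ} (hCc : 1 ≤ Cc) {Bs : ℕ} (hB1 : 1 ≤ Bs)
    {KQ : ℝ} (hKQ : 0 ≤ KQ) : ∃ C1 : ℝ≥0, ∀ Nn : ℕ, ∃ CA : ℝ≥0,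
    ∀ {Om : Set E3} {f : E3 → E3} {D : E3 → E3 →L[ℝ] E3} {F : Set (Bx (Fin 3))} (X : Set F)
      {u κ1 κ2 κw κt : ℝ} {Mg : ℕ} (A : F → E3 ≃ᵃ[ℝ] E3) (lam : F → ℝ) (Q : F → CB E3 3)
      (k0 : F → ℕ) (hk : ∀ c, (Q c).kc ≤ k0 c) (er : F → ℝ≥0∞), 0 < u → 0 ≤ κt → κt * Cc < 1 →
      (∀ c ∈ X, Blk F u Cc κ2 κt Bs Mg Nn c (A c) (lam c) (Q c) (k0 c) (hk c)) →
      (∀ c ∈ X, InS p Om f D Cc κ1 κ2 κw Mg c.1 (A c) (lam c) (er c) (Q c) (k0 c) (hk c)) →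
    ∀ (D' : E3 → E3 →L[ℝ] E3) (Pz : E3 → Prop), (∀ w, Measurable fun z => D' z w) →
      (∀ᵐ x, Pz x → ∀ v, ‖D' x v‖ ≤ KQ * ‖D x v‖) →
      (∀ c ∈ X, ∀ y ∈ (Q c).N, ∀ s ∈ Tw (Q c) (k0 c), Pz (y + s)) →
      (∀ c ∈ X, ∀ x ∈ Ly (Q c) (k0 c), Pz x) →
    ∀ P : X → E3 → Prop, (∀ c : X, ∀ᵐ v : E3, v ∈ Tw (Q c) (k0 c) → P c v) →
    ∀ (M : MD E3 3 X) (Xr : RD M), (∀ c : X, M.Q c = Q c) →
    ∀ hk' : ∀ c : X, (M.Q c).kc ≤ k0 c,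
    ∃ Gd : X → Set E3, ∀ c : X, MeasurableSet (Gd c) ∧ Gd c ⊆ Tw (Q c) (k0 c) ∧ volume (Gd c) ≠ 0 ∧
      ∀ v ∈ Gd c, P c v ∧ TraW p D Cc κw (A c) (er c) (Q c) (k0 c) (hk c) v ∧
        (∀ (𝒦 : Set (Set E3)) (U : Set E3) (h𝒦 : 𝒦.Countable) (hU : U.Countable),
          ∑' cl, ((QI M Xr c (k0 c) (hk' c)).toPT 𝒦 U h𝒦 hU).EnC (Gd' D') p cl v ≤
            C1 * (Sn p F A lam Q c + er c) + CA * Ln p D F Q k0 c) ∧
        ∑' cl, (QU M Xr (fun c : X => k0 c) hk' c).EnC (Gd' D') p cl v ≤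
            C1 * (Sn p F A lam Q c + er c) + CA * Ln p D F Q k0 c := by
  have hp0 : 0 ≤ p := by linarith
  obtain ⟨C, hC, H⟩ := good_block0 hB1 hp hp3
  have hcC : (C : ℝ≥0∞) * ENNReal.ofReal KQ ^ p * ENNReal.ofReal Cc ≠ ∞ :=
    ENNReal.mul_ne_top (ENNReal.mul_ne_top ENNReal.coe_ne_top
      (ENNReal.rpow_ne_top_of_nonneg hp0 ENNReal.ofReal_ne_top)) ENNReal.ofReal_ne_top
  refine ⟨((C : ℝ≥0∞) * ENNReal.ofReal KQ ^ p * ENNReal.ofReal Cc).toNNReal, fun Nn => ?_⟩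
  obtain ⟨K, hK1, hK⟩ := exists_K_net (ContinuousLinearEquiv.refl ℝ E3) Nn
  have hcA : 8 * CF K p 10 * ENNReal.ofReal KQ ^ p ≠ ∞ :=
    ENNReal.mul_ne_top (ENNReal.mul_ne_top (by norm_num) (CF_ne_top hp0))
      (ENNReal.rpow_ne_top_of_nonneg hp0 ENNReal.ofReal_ne_top)
  refine ⟨(8 * CF K p 10 * ENNReal.ofReal KQ ^ p).toNNReal, ?_⟩
  intro Om f D F X u κ1 κ2 κw κt Mg A lam Q k0 hk er hu hκt hcc hB hI D' Pz hDm hPz hN hL P hP M Xr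
    hQ hk'
  rw [ENNReal.coe_toNNReal hcC, ENNReal.coe_toNNReal hcA]
  have key : ∀ c : X, ∃ Gd : Set E3, MeasurableSet Gd ∧ Gd ⊆ Tw (Q c) (k0 c) ∧ volume Gd ≠ 0 ∧
      ∀ v ∈ Gd, P c v ∧ TraW p D Cc κw (A c) (er c) (Q c) (k0 c) (hk c) v ∧
        ∀ (𝒦 : Set (Set E3)) (U : Set E3) (h𝒦 : 𝒦.Countable) (hU : U.Countable),
          ∑' cl, ((QI M Xr c (k0 c) (hk' c)).toPT 𝒦 U h𝒦 hU).EnC (Gd' D') p cl v ≤
            C * ENNReal.ofReal KQ ^ p * (ENNReal.ofReal (Cc * ‖lin (A c)‖ ^ p) *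
              volume ((Q c).N \ (Q c).Kc) + er c) +
            8 * CF K p 10 * ENNReal.ofReal KQ ^ p * ∫⁻ z in Ly (Q c) (k0 c), ‖D z‖ₑ ^ p := by
    intro c
    obtain ⟨d, B, n1, n2, n3, n4, -⟩ := (hB c c.2).net
    exact H hu hκt hcc (hB c c.2) (hI c c.2) D' KQ Pz hDm hKQ hPz (hN c c.2) (hL c c.2) K
      (by linarith) (hK _ d B n1 n2 n3 n4) (P c) (hP c) M Xr c (hQ c) (hk' c)
  have hbd : ∀ c : X, (C : ℝ≥0∞) * ENNReal.ofReal KQ ^ p * (ENNReal.ofReal (Cc * ‖lin (A c)‖ ^ p) *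
              volume ((Q c).N \ (Q c).Kc) + er c) +
            8 * CF K p 10 * ENNReal.ofReal KQ ^ p * (∫⁻ z in Ly (Q c) (k0 c), ‖D z‖ₑ ^ p) ≤
      C * ENNReal.ofReal KQ ^ p * ENNReal.ofReal Cc * (Sn p F A lam Q c + er c) +
        8 * CF K p 10 * ENNReal.ofReal KQ ^ p * Ln p D F Q k0 c := by
    intro c
    have hKc : (Q c).Kc = Kor F A lam c := (hB c c.2).core
    have h1 : ENNReal.ofReal (Cc * ‖lin (A c)‖ ^ p) * volume ((Q c).N \ (Q c).Kc) ≤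
        ENNReal.ofReal Cc * Sn p F A lam Q c := by
      unfold Sn
      rw [hKc, ENNReal.ofReal_mul (by linarith), ← ENNReal.ofReal_rpow_of_nonneg (norm_nonneg _) hp0,
        ofReal_norm, mul_assoc]
      gcongr
      exact le_add_self
    have h2 : er c ≤ ENNReal.ofReal Cc * er c := by
      have h3 : (1 : ℝ≥0∞) ≤ ENNReal.ofReal Cc := by
        rw [← ENNReal.ofReal_one]
        exact ENNReal.ofReal_le_ofReal hCc
      calc er c = 1 * er c := (one_mul _).symm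
        _ ≤ _ := mul_le_mul' h3 le_rfl
    refine add_le_add ?_ (mul_le_mul' le_rfl ?_)
    · rw [mul_assoc ((C : ℝ≥0∞) * _)]
      refine mul_le_mul' le_rfl ?_
      rw [mul_add]
      exact add_le_add h1 h2
    · unfold Ln
      exact lintegral_mono fun x => le_add_self
  choose Gd g1 g2 g3 g4 using key
  refine ⟨Gd, fun c => ⟨g1 c, g2 c, g3 c, fun v hv => ?_⟩⟩
  obtain ⟨h1, h2, h3⟩ := g4 c v hv
  exact ⟨h1, h2, fun 𝒦 U h𝒦 hU => (h3 𝒦 U h𝒦 hU).trans (hbd c),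
    (h3 _ _ (Uni_663.KU_countable _) (countable_singleton 0)).trans (hbd c)⟩

end

end Crest.Agent.R096.Gz_222
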