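import Crest.Agent.R96.EaP3_899

/-!
# Row 96 (S0127), helper112.  EA-PUSH-L: the derivative of `Psi ∘ f` as a measurable field of linear maps

`vwd_v` (all directions), `exists_ver` (measurable version, zero off the domain), `dir_le_fX` (pointwise
bound in EVERY direction), `ea_pushL` (899's `ea_push` in this form).
-/

set_option autoImplicit false
set_option linter.unusedSectionVars false
set_option linter.style.longLine false

open MeasureTheory Set Filter Topology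
open scoped NNReal ENNReal

noncomputable section

namespace Crest.Agent.R096.PmcL_112

open Crest.Agent.R096.Bsp_628 Crest.Agent.R096.Brk5_582 Crest.Agent.R096.SkC1_961
open Crest.Agent.R096.Bxs_627 hiding E3
open Crest.Agent.R96.Push_899 Crest.Agent.R096.EaX_766
open Crest.Agent.R96.EaP_899
open Crest.Agent.R096.Der_764 (OmH)
open Crest.Agent.R96.Acl_392 Crest.Agent.R96.Sob2_199 Crest.Agent.R96.Sob4_199
  Crest.Agent.R96.Sob5_199 Crest.Agent.R96.En10_199
open Crest.Agent.R96.Sg5_199 (gdir wd_dir)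
open Crest.AnalysisR.VecCalc3 (R3)

theorem sum_single (v : E3) : v = ∑ l, v l • (Pi.single l (1:ℝ) : E3) := by
  funext j
  simp [Finset.sum_apply, Pi.single_apply]

/-- the weak derivative in every direction -/
theorem vwd_v {Ω : Set E3} {u : E3 → R3} {D : E3 → E3 →L[ℝ] E3}
    (h : ∀ l, VWD Ω volume u (fun x => P3 (D x (Pi.single l 1))) (Pi.single l (1:ℝ))) (v : E3) :
    VWD Ω volume u (fun x => P3 (D x v)) v := by
  intro i
  have h1 := wd_dir (fun l => h l i) v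
  have e : gdir (fun l x => (P3 (D x (Pi.single l 1)) : R3) i) v = fun x => (P3 (D x v) : R3) i := by
    funext x
    show ∑ l, v l * D x (Pi.single l 1) i = D x v i
    conv_rhs => rw [sum_single v, map_sum]
    rw [Finset.sum_apply]
    refine Finset.sum_congr rfl fun l _ => ?_
    rw [map_smul, Pi.smul_apply, smul_eq_mul]
  rw [e] at h1
  exact h1

theorem norm_le_P3 (y : E3) : ‖y‖ ≤ ‖P3 y‖ := by
  have h := norm_P3_symm_le (P3 y)
  rwa [ContinuousLinearEquiv.symm_apply_apply] at h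

/-- the operator norm and the three directional derivatives -/
theorem opnorm_le (L : E3 →L[ℝ] E3) : ‖L‖ ≤ ∑ l, ‖P3 (L (Pi.single l 1))‖ := by
  refine ContinuousLinearMap.opNorm_le_bound _ (Finset.sum_nonneg fun _ _ => norm_nonneg _) ?_
  intro v
  conv_lhs => rw [sum_single v, map_sum]
  refine (norm_sum_le _ _).trans ?_
  rw [Finset.sum_mul]
  refine Finset.sum_le_sum fun l _ => ?_
  rw [map_smul, norm_smul, mul_comm]
  exact mul_le_mul (norm_le_P3 _) (norm_le_pi_norm v l) (norm_nonneg _) (norm_nonneg _)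

theorem enorm_rpow_le_sum {p : ℝ} (hp : 1 ≤ p) (L : E3 →L[ℝ] E3) :
    ‖L‖ₑ ^ p ≤ 3 ^ (p - 1) * ∑ l, ‖P3 (L (Pi.single l 1))‖ₑ ^ p := by
  have h1 : ‖L‖ₑ ≤ ∑ l : Fin 3, ‖P3 (L (Pi.single l 1))‖ₑ := by
    rw [← ofReal_norm L]
    refine (ENNReal.ofReal_le_ofReal (opnorm_le L)).trans ?_
    rw [ENNReal.ofReal_sum_of_nonneg fun _ _ => norm_nonneg _]
    exact Finset.sum_le_sum fun l _ => by rw [ofReal_norm]
  refine (ENNReal.rpow_le_rpow h1 (by linarith)).trans ?_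
  have h3 := ENNReal.rpow_sum_le_const_mul_sum_rpow (Finset.univ : Finset (Fin 3))
    (fun l => ‖P3 (L (Pi.single l 1))‖ₑ) hp
  simpa using h3

/-! ### measurable version -/

/-- the field of linear maps with given directional derivatives -/
def mkL (m : Fin 3 → E3 → R3) (x : E3) : E3 →L[ℝ] E3 :=
  ∑ l, (ContinuousLinearMap.proj (R := ℝ) (φ := fun _ : Fin 3 => ℝ) l).smulRight (P3.symm (m l x))

theorem mkL_apply (m : Fin 3 → E3 → R3) (x v : E3) : mkL m x v = ∑ l, v l • P3.symm (m l x) := by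
  unfold mkL
  rw [sum_apply]
  rfl

theorem mkL_single (m : Fin 3 → E3 → R3) (x : E3) (l : Fin 3) :
    P3 (mkL m x (Pi.single l 1)) = m l x := by
  rw [mkL_apply]
  have h : ∑ j, (Pi.single l (1:ℝ) : E3) j • P3.symm (m j x) = P3.symm (m l x) := by
    rw [Finset.sum_eq_single l]
    · rw [Pi.single_eq_same, one_smul]
    · intro j _ hj
      rw [Pi.single_eq_of_ne hj, zero_smul]
    · intro h; exact absurd (Finset.mem_univ l) h
  rw [h, ContinuousLinearEquiv.apply_symm_apply]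

open Classical in
/-- **measurable version**: the derivative as a measurable field of linear maps, zero off `Ω` -/
theorem exists_ver {Ω : Set E3} (hΩ : IsOpen Ω) {u : E3 → R3} {D' : Fin 3 → E3 → R3}
    (h : ∀ l, VWD Ω volume u (D' l) (Pi.single l (1:ℝ))) :
    ∃ L : E3 → E3 →L[ℝ] E3, (∀ v, Measurable fun y => L y v) ∧ (∀ x, x ∉ Ω → L x = 0) ∧
      (∀ᵐ x, x ∈ Ω → ∀ l, P3 (L x (Pi.single l 1)) = D' l x) ∧
      ∀ l, VWD Ω volume u (fun x => P3 (L x (Pi.single l 1))) (Pi.single l (1:ℝ)) := by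
  have hm : ∀ l, AEMeasurable (D' l) (volume.restrict Ω) := fun l => (h l).aemeas
  set m : Fin 3 → E3 → R3 := fun l => (hm l).mk (D' l) with hmd
  have hmm : ∀ l, Measurable (m l) := fun l => (hm l).measurable_mk
  have hme : ∀ l, ∀ᵐ x, x ∈ Ω → D' l x = m l x := fun l =>
    (ae_restrict_iff' hΩ.measurableSet).1 (hm l).ae_eq_mk
  set L : E3 → E3 →L[ℝ] E3 := fun x => if x ∈ Ω then mkL m x else 0 with hL
  have hLv : ∀ v, Measurable fun y => L y v := by
    intro v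
    have h1 : (fun y => L y v) = Ω.indicator (fun y => ∑ l, v l • P3.symm (m l y)) := by
      funext y
      by_cases hy : y ∈ Ω
      · rw [indicator_of_mem hy]
        simp only [hL, if_pos hy]
        exact mkL_apply m y v
      · rw [indicator_of_notMem hy]
        simp only [hL, if_neg hy]
        rfl
    rw [h1]
    refine Measurable.indicator ?_ hΩ.measurableSet
    refine Finset.measurable_sum _ fun l _ => ?_
    exact ((P3.symm.continuous.measurable).comp (hmm l)).const_smul (v l)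
  have hLe : ∀ᵐ x, x ∈ Ω → ∀ l, P3 (L x (Pi.single l 1)) = D' l x := by
    filter_upwards [ae_all_iff.2 hme] with x hx hxΩ l
    simp only [hL, if_pos hxΩ]
    rw [mkL_single]
    exact (hx l hxΩ).symm
  refine ⟨L, hLv, fun x hx => by simp only [hL, if_neg hx], hLe, fun l i => ?_⟩
  refine wd_congr hΩ (h l i) (Eventually.of_forall fun _ _ => rfl) ?_
  filter_upwards [hLe] with x hx hxΩ
  rw [hx hxΩ l]

/-! ### pointwise bound in every direction -/

variable {δ κ0 R c0 : ℝ} {La : Set E3} {F : Set (Bx (Fin 3))}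

/-- **pointwise bound in every direction**: near the values of `f` which are in no core of a brick off
`X`, `‖∂_v (Psi ∘ f)‖ ≤ KQ ‖∂_v f‖` -/
theorem dir_le_fX (bf : BoxFoam La F δ κ0) (cmp : Cmp F R) {X : Set F} {lam : F → ℝ} {z : F → E3}
    (H : XD bf c0 X lam z) {Om : Set E3} (hOm : IsOpen Om) (hLa : IsOpen La) {f : E3 → E3}
    {D D' : E3 → E3 →L[ℝ] E3} (hf : Hom3 f Om La)
    (hD : ∀ i, VWD Om volume (fun x => P3 (f x)) (fun x => P3 (D x (Pi.single i 1)))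
      (Pi.single i 1))
    (hD' : ∀ l, VWD (OmH (fX bf cmp H) f Om) volume (fun x => P3 ((fX bf cmp H).Psi (f x)))
      (fun x => P3 (D' x (Pi.single l 1))) (Pi.single l 1)) (v : E3) :
    ∀ᵐ x, x ∈ OmH (fX bf cmp H) f Om →
      (∀ c, f x ∈ (coreBF (brk' bf c) (z c)).I → c ∈ X) → ‖D' x v‖ ≤ KQ κ0 c0 * ‖D x v‖ := by
  obtain ⟨fi, hmap, -, -, -, hfc, -⟩ := id hf
  have hcount : Countable F := bf.countable.to_subtype
  have hκ := H.hκ
  have hc := H.hc
  have hLE : IsOpen (LaE La) := isOpen_LaE hLa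
  have hF0 := foam0' bf
  have hA : ∀ c i j, (brk' bf c).W i ≤ κ0 * (brk' bf c).W j := fun c i j => asp' bf c i j
  have hG := giv (bf := bf) hκ hc H.hc2 H.hl H.hl1
  have hcm := cm_pos hκ hc
  have ha4 : 4 * κ0 ≤ aX κ0 c0 := le_max_right _ _
  have haX := aX_nonneg (c0 := c0) hκ
  have hK1 := K1_nonneg (c₁ := cm κ0 c0) haX (zero_le_two)
  set φ : E3 → R3 := fun x => P3 (f x) with hφd
  have hφ : ContinuousOn φ Om := P3.continuous.comp_continuousOn hfc
  have hOeq := OmH_eq bf cmp H hmap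
  have hFC := H.foamC
  have hOO := hFC.isOpen_dom hLE hOm hφ
  have h1 : VWD Om volume φ (fun x => P3 (D x v)) v := vwd_v hD v
  have h2 : VWD (Om ∩ φ ⁻¹' (Pun (LaE La) (mixB X (holeX bf lam) z))) volume
      (fun x => Psi (brk' bf) (mixC X (brk' bf) (coreX bf lam) z) (mixB X (holeX bf lam) z) (φ x))
      (fun x => P3 (D' x v)) v := by
    have h3 := vwd_v hD' v
    rw [hOeq] at h3
    exact vwd_congr' hOO h3 fun x hx => Psi_eq' bf cmp H hmap hx.1
  have h4 := mix_ptw2 hκ hcm cm_le' ha4 (M := 2) (by norm_num) hLE hF0 hA hG H.hz hOm hφ h1 h2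
  filter_upwards [h4] with x hx hx1 hx2
  rw [hOeq] at hx1
  have h5 := hx hx1 (by
    intro c hcx
    by_contra hcX
    rw [mixC_not hcX] at hcx
    exact hcX (hx2 c hcx))
  calc ‖D' x v‖ ≤ ‖P3 (D' x v)‖ := norm_le_P3 _
    _ ≤ K1 (Fin 3) (cm κ0 c0) (aX κ0 c0) 2 * ‖P3 (D x v)‖ := h5
    _ ≤ K1 (Fin 3) (cm κ0 c0) (aX κ0 c0) 2 * (2 * ‖D x v‖) :=
        mul_le_mul_of_nonneg_left (norm_P3_le _) hK1
    _ = KQ κ0 c0 * ‖D x v‖ := by unfold KQ; ring

/-- the constant of the energies -/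
def KL (κ0 c0 p : ℝ) : ℝ≥0∞ := 3 ^ (p - 1) * KE κ0 c0 p

theorem KL_lt_top {p : ℝ} (hp : 1 ≤ p) : KL κ0 c0 p < ⊤ :=
  ENNReal.mul_lt_top (ENNReal.rpow_lt_top_of_nonneg (by linarith) (by simp)) (KE_lt_top κ0 c0 p)

/-- **EA-PUSH-L**: 899's `ea_push` with the derivative as a measurable field of linear maps -/
theorem ea_pushL {p : ℝ} (hp : 1 ≤ p) (hκ : 1 ≤ κ0) (hc : 0 < c0) (hc2 : c0 * κ0 ≤ 1)
    {Om : Set E3} (hOm : IsOpen Om) (hLa : IsOpen La) {f : E3 → E3} {D : E3 → E3 →L[ℝ] E3}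
    (hf : Hom3 f Om La)
    (hD : ∀ i, VWD Om volume (fun x => P3 (f x)) (fun x => P3 (D x (Pi.single i 1)))
      (Pi.single i 1))
    (bf : BoxFoam La F δ κ0) (cmp : Cmp F R) (X : Set F) (hpX : p < 3 ∨ X = univ) (lam : F → ℝ)
    (hl : ∀ c ∈ X, c0 ≤ lam c) (hl1 : ∀ c ∈ X, lam c < 1) {N : Set E3} (hN : volume N = 0) :
    ∃ (z : F → E3) (H : XD bf c0 X lam z), (∀ c, z c ∈ Mid (brk' bf c)) ∧ (∀ c, z c ∉ N) ∧
      ∃ D' : E3 → E3 →L[ℝ] E3,
        (∀ v, Measurable fun y => D' y v) ∧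
        (∀ x, x ∉ OmH (fX bf cmp H) f Om → D' x = 0) ∧
        (∀ l, VWD (OmH (fX bf cmp H) f Om) volume (fun x => P3 ((fX bf cmp H).Psi (f x)))
          (fun x => P3 (D' x (Pi.single l 1))) (Pi.single l 1)) ∧
        (∀ᵐ x, (∀ c, f x ∈ (coreBF (brk' bf c) (z c)).I → c ∈ X) →
          ∀ v, ‖D' x v‖ ≤ KQ κ0 c0 * ‖D x v‖) ∧
        (∀ c, c ∉ X → (∫⁻ x in {x | x ∈ Om ∧ f x ∈ c.1.set}, ‖D' x‖ₑ ^ p) ≤
          KL κ0 c0 p * (∫⁻ x in {x | x ∈ Om ∧ f x ∈ c.1.set}, ‖D x‖ₑ ^ p)) ∧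
        ∀ S ⊆ Om, MeasurableSet S →
          (∀ c, c ∉ X → (∀ x ∈ Om, f x ∈ (brk' bf c).I → x ∈ S) ∨
            (∀ x ∈ Om, f x ∈ (brk' bf c).I → x ∉ S)) →
          (∫⁻ x in S, ‖D' x‖ₑ ^ p) ≤ KL κ0 c0 p * (∫⁻ x in S, ‖D x‖ₑ ^ p) := by
  obtain ⟨z, H, hz, hzN, D0, h1, h2, h3, h4⟩ := ea_push (p := p) (by linarith) hκ hc hc2 hOm hLa hf
    hD bf cmp X hpX lam hl hl1 hN
  have hOO : IsOpen (OmH (fX bf cmp H) f Om) := Crest.Agent.R096.Der_764.isOpen_OmH hOm hLa hf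
  obtain ⟨L, g1, g2, g3, g4⟩ := exists_ver hOO h1
  have hKQ := KQ_nonneg (c0 := c0) hκ
  have hp0 : 0 < p := by linarith
  -- restriction to `OmH`
  have key : ∀ S : Set E3, MeasurableSet S → (∫⁻ x in S, ‖L x‖ₑ ^ p) ≤
      3 ^ (p - 1) * (∫⁻ x in S ∩ OmH (fX bf cmp H) f Om, ∑ l, ‖D0 l x‖ₑ ^ p) := by
    intro S hS
    have e1 : (∫⁻ x in S, ‖L x‖ₑ ^ p) = ∫⁻ x in S ∩ OmH (fX bf cmp H) f Om, ‖L x‖ₑ ^ p := by
      rw [← lintegral_indicator hS, ← lintegral_indicator (hS.inter hOO.measurableSet)]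
      refine lintegral_congr fun x => ?_
      by_cases hx : x ∈ S
      · by_cases hx' : x ∈ OmH (fX bf cmp H) f Om
        · have hxx : x ∈ S ∩ OmH (fX bf cmp H) f Om := ⟨hx, hx'⟩
          rw [indicator_of_mem hx, indicator_of_mem hxx]
        · rw [indicator_of_mem hx, indicator_of_notMem (fun h => hx' h.2), g2 x hx', ← ofReal_norm,
            norm_zero, ENNReal.ofReal_zero, ENNReal.zero_rpow_of_pos hp0]
      · rw [indicator_of_notMem hx, indicator_of_notMem (fun h => hx h.1)]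
    rw [e1, ← lintegral_const_mul' _ _ (ENNReal.rpow_ne_top_of_nonneg (by linarith) (by simp))]
    refine setLIntegral_mono_ae' (hS.inter hOO.measurableSet) ?_
    filter_upwards [g3] with x hx hxS
    refine (enorm_rpow_le_sum hp (L x)).trans (mul_le_mul' le_rfl ?_)
    exact Finset.sum_le_sum fun l _ => (by rw [hx hxS.2 l])
  refine ⟨z, H, hz, hzN, L, g1, g2, g4, ?_, ?_, ?_⟩
  · obtain ⟨s, hs1, hs2⟩ := TopologicalSpace.exists_countable_dense E3
    have h5 : ∀ᵐ x, ∀ v ∈ s, x ∈ OmH (fX bf cmp H) f Om →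
        (∀ c, f x ∈ (coreBF (brk' bf c) (z c)).I → c ∈ X) → ‖L x v‖ ≤ KQ κ0 c0 * ‖D x v‖ :=
      (ae_ball_iff hs1).2 fun v _ => dir_le_fX bf cmp H hOm hLa hf hD g4 v
    filter_upwards [h5] with x hx hc' v
    by_cases hxO : x ∈ OmH (fX bf cmp H) f Om
    · have hcl : IsClosed {v : E3 | ‖L x v‖ ≤ KQ κ0 c0 * ‖D x v‖} :=
        isClosed_le (L x).continuous.norm (continuous_const.mul (D x).continuous.norm)
      have h6 : s ⊆ {v : E3 | ‖L x v‖ ≤ KQ κ0 c0 * ‖D x v‖} := fun v hv => hx v hv hxO hc'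
      have h7 := hcl.closure_subset_iff.2 h6
      exact h7 (hs2 v)
    · rw [g2 x hxO, zero_apply, norm_zero]
      exact mul_nonneg hKQ (norm_nonneg _)
  · intro c hcX
    have hmS : MeasurableSet {x | x ∈ Om ∧ f x ∈ c.1.set} := by
      obtain ⟨fi, hmap, -, -, -, hfc, -⟩ := id hf
      have h5 : IsOpen (Om ∩ f ⁻¹' (c.1.set)ᶜ) :=
        hfc.isOpen_inter_preimage hOm (isClosed_Icc : IsClosed c.1.set).isOpen_compl
      have h6 : {x | x ∈ Om ∧ f x ∈ c.1.set} = Om \ (Om ∩ f ⁻¹' (c.1.set)ᶜ) := by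
        ext x
        constructor
        · rintro ⟨h7, h8⟩
          exact ⟨h7, fun h9 => h9.2 h8⟩
        · rintro ⟨h7, h8⟩
          refine ⟨h7, ?_⟩
          by_contra h9
          exact h8 ⟨h7, h9⟩
      rw [h6]
      exact hOm.measurableSet.diff h5.measurableSet
    refine (key _ hmS).trans ?_
    unfold KL
    rw [mul_assoc]
    refine mul_le_mul' le_rfl ?_
    refine le_trans (le_of_eq ?_) (h3 c hcX)
    congr 2
    ext x
    exact ⟨fun h => ⟨h.2, h.1.2⟩, fun h => ⟨⟨h.1.1, h.2⟩, h.1⟩⟩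
  · intro S hSO hS hSc
    refine (key S hS).trans ?_
    unfold KL
    rw [mul_assoc]
    exact mul_le_mul' le_rfl (h4 S hSO hS hSc)

end Crest.Agent.R096.PmcL_112
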