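/-
helper222, row 96, EA0 (p <= 2): near a block (within `20 / 2 ^ k0` in the frame) the map `f` is close to
`A` and its values lie in the open brick; so the derivative of the pushed map is controlled there.
-/
import Mathlib
import Crest.Agent.R096.Gz1_222
import Crest.Agent.R96.Eam5_466
import Crest.Agent.R096.Pmc6_112

set_option autoImplicit false
set_option linter.unusedSectionVars false
set_option linter.unusedVariables false

open MeasureTheory Set Filter Metric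
open scoped Topology ENNReal NNReal

namespace Crest.Agent.R096.Gz_222

open Crest.Agent.R096.Msh_715 Crest.Agent.R096.Mal_874 Crest.Agent.R096.Msh_810
  Crest.Agent.R096.Mfi_290
open Crest.Agent.R096.Bsp_628 Crest.Agent.R096.Brk1_582 Crest.Agent.R096.Brk3_582
open Crest.Agent.R096.Brk5_582
open Crest.Agent.R96.Push_899
open Crest.Agent.R096.SkC1_961 (E3 Cfg)
open Crest.Agent.R096.EaX_766 (lin cbx Kor)
open Crest.Agent.R096.Ea0_961 (Ed InS Blk Tw Ly)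
open Crest.Agent.R096.Bxs_627 (ctr ctr_lo ctr_hi)
open Crest.Agent.R096.Pmc_112 (Gd')
open Crest.Agent.R96.Gj_872 (TraW)
open Crest.Agent.R096.Mfa_880 (QU)
open Crest.Agent.R96.Ea0p_348 (Sn Ln)
open Crest.Agent.R96.Eam_466 (Mz)
open Crest.Agent.R96.EaP_899 (KQ KQ_nonneg)

noncomputable section

variable {δ κ0 R : ℝ} {La : Set E3} {F : Set (Bx (Fin 3))}

section one

variable {u Cc κ2 κt : ℝ} {Bs M Nn : ℕ} {c : F} {A : E3 ≃ᵃ[ℝ] E3} {lam : ℝ} {Q : CB E3 3} {k0 : ℕ}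
  {hk : Q.kc ≤ k0} {K κm κc lam1 : ℝ}

/-- **`f` near the block** (all points within `20 / 2 ^ k0` of the block in the frame) -/
theorem halo_brick (bf : BoxFoam La F δ κ0) {Om : Set E3} {f : E3 → E3}
    (hlam : 0 < lam) (hlam1 : lam ≤ lam1) (hl1 : lam1 < 1) (hu : 0 < u) (hκt0 : 0 ≤ κt)
    (hκt : κt ≤ 1 / 40) (hκ2 : 0 < κ2) (hκc : 0 ≤ κc) (hM : Mz κ0 κ2 Cc lam1 K κm κc Bs M)
    (hB : Blk F u Cc κ2 κt Bs M Nn c A lam Q k0 hk)
    (hcor : ∀ x : E3, (x ∈ Om ∧ f x ∈ cbx c.1 lam) ∨ A x ∈ cbx c.1 ((1 + 2 * κ2) * lam) →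
      x ∈ Om ∧ ‖f x - A x‖ ≤ κc * (lam * c.1.sz)) {y x : E3} (hy : y ∈ Q.N)
    (hx : ‖Q.ψ x - Q.ψ y‖ ≤ 20 / 2 ^ k0) :
    x ∈ Om ∧ (∀ k, c.1.lo k < f x k ∧ f x k < c.1.hi k) ∧ ‖f x - A x‖ ≤ κc * (lam * c.1.sz) := by
  have hM' : (0 : ℝ) < M := by exact_mod_cast hM.pos
  have hs := Bx.sz_pos (bf.pos _ c.2)
  have hside := fun k => Bx.side_pos (bf.pos _ c.2) k
  have h2k : (0 : ℝ) < 2 ^ k0 := by positivity
  obtain ⟨h1, h2⟩ := hB.sub _ hy
  -- the difference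
  have hd : ‖A x - A y‖ ≤ 1 / 2 * (1 / M * (lam * c.1.sz)) := by
    have e1 : A x - A y = A.linear (x - y) :=
      (AffineMap.linearMap_vsub (A : E3 →ᵃ[ℝ] E3) x y).symm
    have e2 : ‖A.linear (x - y)‖ = u * ‖Q.ψ x - Q.ψ y‖ := by
      rw [hB.lin_eq, norm_smul, Real.norm_eq_abs, abs_of_pos hu, map_sub]
    rw [e1, e2]
    calc u * ‖Q.ψ x - Q.ψ y‖ ≤ u * (20 / 2 ^ k0) := mul_le_mul_of_nonneg_left hx hu.le
      _ = 20 * (u / 2 ^ k0) := by ring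
      _ ≤ 20 * (κt * (lam * c.1.sz) / M) := by
          have := hB.thin
          linarith
      _ = (20 * κt) * (1 / M * (lam * c.1.sz)) := by ring
      _ ≤ 1 / 2 * (1 / M * (lam * c.1.sz)) := by
          refine mul_le_mul_of_nonneg_right (by linarith) (by positivity)
  have hdk : ∀ k, |A x k - A y k| ≤ 1 / 2 * (1 / M * (lam * c.1.sz)) := fun k => by
    have := (norm_le_pi_norm (A x - A y) k).trans hd
    rwa [Pi.sub_apply, Real.norm_eq_abs] at this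
  have hq : ∀ k, 1 / M * (lam * c.1.sz) ≤ κ2 * (lam * c.1.side k) := by
    intro k
    have h9 := bf.asp _ c.2 k
    rw [one_div, inv_mul_le_iff₀ hM']
    calc lam * c.1.sz ≤ lam * (κ0 * c.1.side k) := by gcongr
      _ = lam * c.1.side k * κ0 := by ring
      _ ≤ lam * c.1.side k * (κ2 * M) :=
        mul_le_mul_of_nonneg_left hM.m1 (mul_pos hlam (hside k)).le
      _ = M * (κ2 * (lam * c.1.side k)) := by ring
  have h3 : A x ∈ cbx c.1 ((1 + 2 * κ2) * lam) := by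
    intro k
    have h4 := h1 k
    have h5 := hdk k
    have h6 := hq k
    have e : A x k - ctr c.1 k = (A y k - ctr c.1 k) + (A x k - A y k) := by ring
    change |A x k - ctr c.1 k| ≤ _
    rw [e]
    refine (abs_add_le _ _).trans ?_
    change |A y k - ctr c.1 k| ≤ _ at h4
    have h7 : 0 < κ2 * (lam * c.1.side k) := mul_pos hκ2 (mul_pos hlam (hside k))
    nlinarith
  obtain ⟨hxO, h4⟩ := hcor x (Or.inr h3)
  refine ⟨hxO, ?_, h4⟩
  intro k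
  have h6 := h2 k
  change |A y k - ctr c.1 k| ≤ _ at h6
  have h8 := (norm_le_pi_norm (f x - A x) k).trans h4
  rw [Pi.sub_apply, Real.norm_eq_abs] at h8
  have h5 := hdk k
  have h9 := bf.asp _ c.2 k
  have h10 : lam * c.1.sz ≤ κ0 * c.1.side k := by
    calc lam * c.1.sz ≤ 1 * c.1.sz := mul_le_mul_of_nonneg_right (by linarith) hs.le
      _ = c.1.sz := one_mul _
      _ ≤ κ0 * c.1.side k := h9
  have hκp : 0 ≤ κc + 1 / (M : ℝ) := by positivity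
  have h11 : (κc + 1 / M) * (lam * c.1.sz) ≤ (1 - lam1) / 8 * c.1.side k := by
    calc (κc + 1 / M) * (lam * c.1.sz) ≤ (κc + 1 / M) * (κ0 * c.1.side k) :=
          mul_le_mul_of_nonneg_left h10 hκp
      _ = ((κc + 1 / M) * κ0) * c.1.side k := by ring
      _ ≤ _ := mul_le_mul_of_nonneg_right hM.m3 (hside k).le
  have h12 : 0 ≤ 1 / M * (lam * c.1.sz) := by positivity
  have hsum : |f x k - ctr c.1 k| < c.1.side k / 2 := by
    have e : f x k - ctr c.1 k = (A y k - ctr c.1 k) + (A x k - A y k) + (f x k - A x k) := by ring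
    rw [e]
    have h13 : |A y k - ctr c.1 k + (A x k - A y k) + (f x k - A x k)| ≤
        (1 + lam) / 2 * c.1.side k / 2 + 1 / 2 * (1 / M * (lam * c.1.sz)) + κc * (lam * c.1.sz) :=
      (abs_add_le _ _).trans (add_le_add ((abs_add_le _ _).trans (add_le_add h6 h5)) h8)
    refine lt_of_le_of_lt h13 ?_
    have h14 : 1 / 2 * (1 / M * (lam * c.1.sz)) + κc * (lam * c.1.sz) ≤
        (1 - lam1) / 8 * c.1.side k := by
      refine le_trans ?_ h11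
      rw [add_mul]
      linarith
    have h15 : 0 < (1 - lam1) * c.1.side k := mul_pos (by linarith) (hside k)
    have h16 : lam * c.1.side k ≤ lam1 * c.1.side k := mul_le_mul_of_nonneg_right hlam1 (hside k).le
    nlinarith
  have hc1 : ctr c.1 k - c.1.side k / 2 = c.1.lo k := ctr_lo c.1 k
  have hc2 : ctr c.1 k + c.1.side k / 2 = c.1.hi k := ctr_hi c.1 k
  have h17 := abs_lt.1 hsum
  constructor
  · linarith [h17.1]
  · linarith [h17.2]

end one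

/-- the open core of the push lies in the open brick -/
theorem core_sub_brk (bf : BoxFoam La F δ κ0) {z : F → E3} (hz : ∀ c, z c ∈ Mid (brk' bf c)) (c : F)
    {y : E3} (hy : y ∈ (coreBF (brk' bf c) (z c)).I) : y ∈ (brk' bf c).I := by
  have hW : ∀ i, 0 < (brk' bf c).W i := (foam0' bf).W0 c
  intro k
  have h1 := hy k
  rw [coreBF_lo hW, coreBF_hi hW] at h1
  have h2 := (hz c).1 k
  have h3 := (hz c).2 k
  have h4 := hW k
  constructor
  · have := h1.1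
    simp only at h2
    linarith
  · have := h1.2
    simp only at h3
    linarith

/-- a point of the open brick of `c ∈ X` is in no core of a brick off `X` -/
theorem pz_of_brick (bf : BoxFoam La F δ κ0) {X : Set F} {z : F → E3}
    (hz : ∀ c, z c ∈ Mid (brk' bf c)) {c : F} (hc : c ∈ X) {y : E3}
    (hy : ∀ k, c.1.lo k < y k ∧ y k < c.1.hi k) (c' : F) (h : y ∈ (coreBF (brk' bf c') (z c')).I) :
    c' ∈ X := by
  by_contra hcon
  have hne : c' ≠ c := fun h' => hcon (h' ▸ hc)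
  have h1 := core_sub_brk bf hz c' h
  refine (foam0' bf).disj c c' (Ne.symm hne) y ?_ h1
  intro k
  exact ⟨(hy k).1.le, (hy k).2.le⟩

/-- **THE GOOD SETS OF ALL BLOCKS AND (B3), final form**: `D'` from 112's `ea_pushL`, smallness from
466's `Mz` and `κt ≤ 1 / 40`, `κt * Cc < 1` -/
theorem good_sets_L {p : ℝ} (hp : 1 ≤ p) (hp3 : p ≤ 3) {κ0 Cc : ℝ} (c0 : ℝ) (hκ0 : 1 ≤ κ0)
    (hCc : 1 ≤ Cc) {Bs : ℕ} (hB1 : 1 ≤ Bs) : ∃ C1 : ℝ≥0, ∀ Nn : ℕ, ∃ CA : ℝ≥0,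
    ∀ {δ : ℝ} {La Om : Set E3} {f : E3 → E3} {D : E3 → E3 →L[ℝ] E3} {F : Set (Bx (Fin 3))}
      (bf : BoxFoam La F δ κ0) (X : Set F) {u κ1 κ2 κw κt lam1 K κm : ℝ} {Mg : ℕ}
      (A : F → E3 ≃ᵃ[ℝ] E3) (lam : F → ℝ) (Q : F → CB E3 3) (k0 : F → ℕ)
      (hk : ∀ c, (Q c).kc ≤ k0 c) (er : F → ℝ≥0∞), 0 < u → 0 ≤ κt → κt ≤ 1 / 40 → κt * Cc < 1 →
      0 < κ2 → 0 ≤ κ1 → lam1 < 1 → (∀ c ∈ X, 0 < lam c ∧ lam c ≤ lam1) →
      Mz κ0 κ2 Cc lam1 K κm κ1 Bs Mg →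
      (∀ c ∈ X, Blk F u Cc κ2 κt Bs Mg Nn c (A c) (lam c) (Q c) (k0 c) (hk c)) →
      (∀ c ∈ X, InS p Om f D Cc κ1 κ2 κw Mg c.1 (A c) (lam c) (er c) (Q c) (k0 c) (hk c)) →
    ∀ z : F → E3, (∀ c, z c ∈ Mid (brk' bf c)) →
    ∀ D' : E3 → E3 →L[ℝ] E3, (∀ w, Measurable fun y => D' y w) →
      (∀ᵐ x, (∀ c, f x ∈ (coreBF (brk' bf c) (z c)).I → c ∈ X) →
        ∀ v, ‖D' x v‖ ≤ KQ κ0 c0 * ‖D x v‖) →
    ∀ P : X → E3 → Prop, (∀ c : X, ∀ᵐ v : E3, v ∈ Tw (Q c) (k0 c) → P c v) →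
    ∀ (M : MD E3 3 X) (Xr : RD M), (∀ c : X, M.Q c = Q c) →
    ∀ hk' : ∀ c : X, (M.Q c).kc ≤ k0 c,
    ∃ Gd : X → Set E3, ∀ c : X, MeasurableSet (Gd c) ∧ Gd c ⊆ Tw (Q c) (k0 c) ∧ volume (Gd c) ≠ 0 ∧
      ∀ v ∈ Gd c, P c v ∧ TraW p D Cc κw (A c) (er c) (Q c) (k0 c) (hk c) v ∧
        (∀ (𝒦 : Set (Set E3)) (U : Set E3) (h𝒦 : 𝒦.Countable) (hU : U.Countable),
          ∑' cl, ((QI M Xr c (k0 c) (hk' c)).toPT 𝒦 U h𝒦 hU).EnC (Gd' D') p cl v ≤
            C1 * (Sn p F A lam Q c + er c) + CA * Ln p D F Q k0 c) ∧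
        ∑' cl, (QU M Xr (fun c : X => k0 c) hk' c).EnC (Gd' D') p cl v ≤
            C1 * (Sn p F A lam Q c + er c) + CA * Ln p D F Q k0 c := by
  obtain ⟨C1, H⟩ := good_sets hp hp3 hCc hB1 (KQ := KQ κ0 c0) (KQ_nonneg hκ0)
  refine ⟨C1, fun Nn => ?_⟩
  obtain ⟨CA, H⟩ := H Nn
  refine ⟨CA, ?_⟩
  intro δ La Om f D F bf X u κ1 κ2 κw κt lam1 K κm Mg A lam Q k0 hk er hu hκt0 hκt hcc hκ2 hκ1 hl1
    hlam hM hB hI z hz D' hDm hD P hP M Xr hQ hk'
  have hb : ∀ c ∈ X, ∀ y ∈ (Q c).N, ∀ x : E3, ‖(Q c).ψ x - (Q c).ψ y‖ ≤ 20 / 2 ^ k0 c →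
      ∀ c', f x ∈ (coreBF (brk' bf c') (z c')).I → c' ∈ X := by
    intro c hc y hy x hx c' h
    have h1 := halo_brick bf (hlam c hc).1 (hlam c hc).2 hl1 hu hκt0 hκt hκ2 hκ1 hM (hB c hc)
      (hI c hc).cor hy hx
    exact pz_of_brick bf hz hc h1.2.1 c' h
  refine H X A lam Q k0 hk er hu hκt0 hcc hB hI D'
    (fun x => ∀ c, f x ∈ (coreBF (brk' bf c) (z c)).I → c ∈ X) hDm hD ?_ ?_ P hP M Xr hQ hk'
  · intro c hc y hy s hs
    refine hb c hc y hy (y + s) ?_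
    have h2 : (0 : ℝ) < 2 ^ k0 c := by positivity
    rw [map_add, add_sub_cancel_left, pi_norm_le_iff_of_nonneg (by positivity)]
    intro l
    rw [Real.norm_eq_abs, abs_of_nonneg (hs l).1]
    refine (hs l).2.trans ?_
    rw [div_le_div_iff₀ (by positivity) h2]
    nlinarith
  · intro c hc x hx
    obtain ⟨y, hy, hxy⟩ := hx
    exact hb c hc y ((Q c).isCompact_N.isClosed.frontier_subset hy) x hxy

end

end Crest.Agent.R096.Gz_222
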