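import Crest.Agent.R096.Fns3_360
import Crest.Agent.R096.Mal15_874

/-!
Row 96 (S0127), helper360.  FINE-SUP, part 4: `Fine` and `Cores` on 874's aligned mesh `MD.mesh`.

* `trA A v` = `A (· - v)`; **`CoriE.tr`** : the core statement for the translated core;
* `inner_size_all` : size of every inner tile except the core;
* **`fineS_outer`**, **`fineS_innerM`** : the tiles of the mesh are fine;
* **`fine_MD`**, **`cores_MD`** : all bricks exact.
-/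

set_option autoImplicit false
set_option linter.style.longLine false
set_option linter.unusedSectionVars false

open MeasureTheory Set Filter Topology Metric

namespace Crest.Agent.R096.Fns_360

open Crest.Agent.R096.Bsp_628 Crest.Agent.R096.Brk1_582 Crest.Agent.R096.Brk2_582
open Crest.Agent.R096.Brk3_582
open Crest.Agent.R096.Brk5_582
open Crest.Agent.R096.Msh_715
open Crest.Agent.R96.Push_899
open Crest.Agent.R096.SkC1_961 (E3 Hom3 IsPush FoamD)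
open Crest.Agent.R096.EaX_766 (cbx)
open Crest.Agent.R096.Bxs_627 (ctr cb CoriE fD)
open Crest.Agent.R096.Core_124
open Crest.Agent.R096.Mal_874 Crest.Agent.R096.Msh_810

noncomputable section

/-! ### translation of a core -/

/-- the exact map of the core translated by `v` -/
def trA (A : E3 ≃ᵃ[ℝ] E3) (v : E3) : E3 ≃ᵃ[ℝ] E3 := (AffineEquiv.constVAdd ℝ E3 (-v)).trans A

theorem trA_apply (A : E3 ≃ᵃ[ℝ] E3) (v x : E3) : trA A v x = A (x - v) := by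
  change A ((AffineEquiv.constVAdd ℝ E3 (-v)) x) = _
  rw [AffineEquiv.constVAdd_apply, vadd_eq_add]
  congr 1
  abel

theorem trA_sub (A : E3 ≃ᵃ[ℝ] E3) (v x : E3) : A x - trA A v x = A.linear v := by
  rw [trA_apply]
  have := A.toAffineMap.linearMap_vsub x (x - v)
  rw [vsub_eq_sub, vsub_eq_sub, sub_sub_cancel] at this
  exact this.symm

theorem trA_linear (A : E3 ≃ᵃ[ℝ] E3) (v : E3) : (trA A v).linear = A.linear := by
  ext x : 1
  have h1 := (trA A v).toAffineMap.linearMap_vsub x 0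
  have h2 := A.toAffineMap.linearMap_vsub (x - v) (0 - v)
  rw [vsub_eq_sub, vsub_eq_sub, sub_zero] at h1
  rw [vsub_eq_sub, vsub_eq_sub, sub_sub_sub_cancel_right, sub_zero] at h2
  have h3 : (trA A v).toAffineMap x - (trA A v).toAffineMap 0 =
      A.toAffineMap (x - v) - A.toAffineMap (0 - v) := by
    change trA A v x - trA A v 0 = A (x - v) - A (0 - v)
    rw [trA_apply, trA_apply]
  change (trA A v).toAffineMap.linear x = A.toAffineMap.linear x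
  rw [h1, h2, h3]

/-- **the core statement for the translated core** -/
theorem CoriE.tr {Om : Set E3} {f : E3 → E3} {A : E3 ≃ᵃ[ℝ] E3} {Q : Bx (Fin 3)}
    {lam κ1 κ2 κ1' κ2' : ℝ} (h : CoriE Om f A Q lam κ1 κ2) {v : E3}
    (hv2 : ∀ k, |A.linear v k| ≤ (κ2 - κ2') * (lam * Q.side k))
    (hv1 : ‖A.linear v‖ ≤ (κ1' - κ1) * (lam * Q.sz)) : CoriE Om f (trA A v) Q lam κ1' κ2' := by
  have key : ∀ x, x ∈ Om ∧ ‖f x - A x‖ ≤ κ1 * (lam * Q.sz) →
      x ∈ Om ∧ ‖f x - trA A v x‖ ≤ κ1' * (lam * Q.sz) := by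
    rintro x ⟨h1, h2⟩
    refine ⟨h1, ?_⟩
    have e : f x - trA A v x = (f x - A x) + A.linear v := by
      rw [← trA_sub A v x]; abel
    rw [e]
    refine (norm_add_le _ _).trans ?_
    linarith
  rintro x (h1 | h1)
  · exact key x (h x (Or.inl h1))
  · refine key x (h x (Or.inr fun k => ?_))
    have e : A x k - ctr Q k = (trA A v x k - ctr Q k) + A.linear v k := by
      have := congrFun (trA_sub A v x) k
      rw [Pi.sub_apply] at this
      rw [← this]; ring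
    rw [e]
    refine (abs_add_le _ _).trans ?_
    have := h1 k
    have := hv2 k
    linarith

/-! ### the tiles of the aligned mesh -/

section mesh

variable {J : Type*} (M : MD E3 3 J) {k : J → ℕ} (hk : M.Sc k) (a : Fin 3 → ℝ) {v : J → E3}
  (hv : M.Adm v)

/-- size of the inner tiles -/
theorem inner_size_all (X : RD M) {j : J} (i : M.IIx hk a hv j) (hi : i ≠ M.core hk a hv j) {x y : E3}
    (hx : x ∈ P ((M.mesh hk a hv).H (Sum.inr ⟨j, i⟩)))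
    (hy : y ∈ P ((M.mesh hk a hv).H (Sum.inr ⟨j, i⟩))) :
    dist ((M.Q j).ψ x) ((M.Q j).ψ y) ≤ X.R j / 2 ^ (M.Q j).kc := by
  have hp : (0 : ℝ) < 2 ^ (M.Q j).kc := by positivity
  have hR := X.R1 j
  rcases hi1 : i.1 with τ | s
  · refine (M.inner_size hk a hv hi1 hx hy).trans ?_
    exact div_le_div_of_nonneg_right hR hp.le
  · have hs : s ≠ (M.Q j).S.core := by
      rintro rfl
      exact hi (Subtype.ext hi1)
    have hx' : x ∈ P ((M.S hk (v := v) j).H i.1) := hx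
    have hy' : y ∈ P ((M.S hk (v := v) j).H i.1) := hy
    rw [hi1] at hx' hy'
    have hx2 : x ∈ P (iH (M.Bk v j).ψ (M.Bk v j).a' (M.Bk v j).kc ((M.Bk v j).S.GG s)) := hx'
    have hy2 : y ∈ P (iH (M.Bk v j).ψ (M.Bk v j).a' (M.Bk v j).kc ((M.Bk v j).S.GG s)) := hy'
    have h1 := X.hR j s hs _ (mem_P_iH.1 hx2) _ (mem_P_iH.1 hy2)
    rw [dist_pi_le_iff (by positivity)]
    intro l
    have h2 := h1 l
    change |ps (M.Bk v j).a' (M.Q j).kc ((M.Q j).ψ y) l - ps (M.Bk v j).a' (M.Q j).kc ((M.Q j).ψ x) l| ≤ _ at h2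
    have e : ps (M.Bk v j).a' (M.Q j).kc ((M.Q j).ψ y) l -
        ps (M.Bk v j).a' (M.Q j).kc ((M.Q j).ψ x) l =
        2 ^ (M.Q j).kc * ((M.Q j).ψ y l - (M.Q j).ψ x l) := by
      unfold ps; ring
    rw [e, abs_mul, abs_of_pos hp] at h2
    rw [Real.dist_eq, abs_sub_comm, le_div_iff₀ hp, mul_comm]
    exact h2

variable {δ κ0 R c0 : ℝ} {La : Set E3}

/-- **the outer tiles of the aligned mesh are fine** -/
theorem fineS_outer {Φ : FoamD δ κ0 R c0 La} {f : E3 → E3} {ε : ℝ} {Y : Set E3}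
    {ρ : (Fin 3 → ℝ) → ℝ} (hρ : ∀ u, M.D0.ρ u ≤ ρ u)
    (hF : ∀ x, M.φ x ∈ M.D0.Om → FineS Φ f ε (M.φ ⁻¹' closedBall (M.φ x) (ρ (M.φ x)) ∩ Y))
    (p : M.OIx hk a hv) : FineS Φ f ε (P ((M.mesh hk a hv).H (Sum.inl p)) ∩ Y) := by
  obtain ⟨x, hx⟩ := (M.mesh hk a hv).ne (Sum.inl p)
  have hx' := I_sub_P _ hx
  refine (hF x ((M.mesh hk a hv).sub _ hx')).mono (inter_subset_inter_left _ fun y hy => ?_)
  have h1 := M.outer_size hk a hv p hx' hy
  have hC := M.hC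
  rw [mem_preimage, mem_closedBall, dist_comm]
  refine h1.trans (le_trans ?_ (hρ _))
  exact div_le_self (M.D0.nonneg _) (by linarith)

/-- an inner tile which is not the core lies in the block and off the open core -/
theorem inner_off {j : J} (i : M.IIx hk a hv j) (hi : i ≠ M.core hk a hv j) {x : E3}
    (hx : x ∈ P ((M.mesh hk a hv).H (Sum.inr ⟨j, i⟩))) :
    x ∈ (M.Bk v j).N ∧ x ∉ interior (M.Bk v j).Kc := by
  refine ⟨i.2 hx, ?_⟩
  rw [← M.P_core hk a hv j, Nr_527.interior_P' ((M.mesh hk a hv).ne _)]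
  have hne : (Sum.inr ⟨j, i⟩ : M.OIx hk a hv ⊕ Σ j, M.IIx hk a hv j) ≠
      Sum.inr ⟨j, M.core hk a hv j⟩ := by
    intro h
    have h1 := Sum.inr.inj h
    rw [Sigma.mk.injEq] at h1
    exact hi (eq_of_heq h1.2)
  exact fun h => Set.disjoint_left.1 (disjoint_P_I ((M.mesh hk a hv).ne _)
    ((M.mesh hk a hv).dis _ _ hne)) hx h

/-- **the inner tiles of the aligned mesh are fine** (124's language; every exact brick) -/
theorem fineS_innerM (hLa : IsOpen La) (hδ : 0 < δ) (hR : 0 < R) {Φ : FoamD δ κ0 R c0 La}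
    {f : E3 → E3} (X : RD M) {j : J} {c : Φ.F} {P' : Finset (Fin 3)} {κ ρ : ℝ} {C : Box (Fin 3)}
    {lam : ℝ} {z : E3} (H : HCore Φ c P' κ ρ C lam z) (A : E3 → E3) {κw uA η ε : ℝ}
    (hN : ∀ x ∈ (M.Bk v j).N, x ∉ interior (M.Bk v j).Kc → f x ∈ H.Nr ∧ ‖f x - A x‖ ≤ κw * c.1.sz)
    (huA0 : 0 ≤ uA) (huA : ∀ x y, ‖A y - A x‖ ≤ uA * dist ((M.Q j).ψ x) ((M.Q j).ψ y))
    (hη : uA * (X.R j / 2 ^ (M.Q j).kc) ≤ η * c.1.sz) (hε : KI δ κ0 R c0 * (η + 2 * κw) ≤ ε)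
    (i : M.IIx hk a hv j) (hi : i ≠ M.core hk a hv j) :
    FineS Φ f ε (P ((M.mesh hk a hv).H (Sum.inr ⟨j, i⟩))) := by
  have hoff := fun x hx => inner_off M hk a hv i hi (x := x) hx
  refine fineS_nr hLa hδ hR H (S := P ((M.mesh hk a hv).H (Sum.inr ⟨j, i⟩)))
    (fun x hx => (hN x (hoff x hx).1 (hoff x hx).2).1) (η := η + 2 * κw) (fun x hx y hy => ?_) hε
  have h1 := (hN x (hoff x hx).1 (hoff x hx).2).2
  have h2 := (hN y (hoff y hy).1 (hoff y hy).2).2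
  have h3 : ‖A y - A x‖ ≤ η * c.1.sz := by
    refine (huA x y).trans (le_trans ?_ hη)
    exact mul_le_mul_of_nonneg_left (inner_size_all M hk a hv X i hi hx hy) huA0
  have e : f y - f x = (f y - A y) + (A y - A x) - (f x - A x) := by abel
  rw [e]
  refine (norm_sub_le _ _).trans ?_
  have h4 := norm_add_le (f y - A y) (A y - A x)
  have e2 : (η + 2 * κw) * c.1.sz = κw * c.1.sz + η * c.1.sz + κw * c.1.sz := by ring
  change _ ≤ (η + 2 * κw) * c.1.sz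
  rw [e2]
  linarith

/-- the core tile is the translated exact core -/
theorem P_core_tr {j : J} {A : E3 ≃ᵃ[ℝ] E3} {Q : Bx (Fin 3)} {lam : ℝ}
    (hK : (M.Q j).Kc = A ⁻¹' cbx Q lam) :
    P ((M.mesh hk a hv).H (Sum.inr ⟨j, M.core hk a hv j⟩)) = trA A (v j) ⁻¹' cbx Q lam := by
  rw [M.P_core hk a hv j]
  ext x
  rw [(M.Q j).mem_Kc_tr, hK, mem_preimage, mem_preimage, trA_apply]

end mesh

/-! ### all bricks exact -/

section univ

variable {δ κ0 R c0 : ℝ} {La : Set E3} {F : Set (Bx (Fin 3))} (M : MD E3 3 F) {k : F → ℕ}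
  (hk : M.Sc k) (a : Fin 3 → ℝ) {v : F → E3} (hv : M.Adm v)

/-- the core tiles -/
def ctM (c : F) : M.OIx hk a hv ⊕ Σ j, M.IIx hk a hv j := Sum.inr ⟨c, M.core hk a hv c⟩

theorem ctM_inj : Function.Injective (ctM M hk a hv) := by
  intro c c' h
  have h1 := Sum.inr.inj h
  rw [Sigma.mk.injEq] at h1
  exact h1.1

/-- **`Mbf_337.Cores` on the aligned mesh, all bricks exact.** -/
theorem cores_MD (bf : BoxFoam La F δ κ0) (cmp : Cmp F R) (hκ0 : 1 ≤ κ0)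
    (hc : 0 < c0) (hc2 : c0 * κ0 ≤ 1) (lam : F → ℝ) (hl : ∀ c, c0 ≤ lam c) (hl1 : ∀ c, lam c < 1)
    {f : E3 → E3} {κ1 κ2 κ2' : ℝ} (h0 : 0 ≤ κ2) (h2 : κ2 ≤ 1 / 4) (hκ1 : 0 ≤ κ1)
    (hκ2' : 0 ≤ κ2') (hκ12 : κ1 * κ0 ≤ κ2) (hκ12' : κ1 * κ0 ≤ κ2')
    (hlκ : ∀ c, (1 / 2 + κ2') * lam c < 1 / 2) {A : F → E3 ≃ᵃ[ℝ] E3}
    (hK : ∀ c, (M.Q c).Kc = A c ⁻¹' cbx c.1 (lam c))
    (hcor : ∀ c, CoriE (M.φ ⁻¹' M.D0.Om) f (trA (A c) (v c)) c.1 (lam c) κ1 κ2) :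
    Mbf_337.Cores (fD bf cmp hκ0 hc hc2 lam hl hl1) (M.mesh hk a hv) f κ1 κ2 univ
      (fun c => {ctM M hk a hv c}) (fun c => {ctM M hk a hv c}) (fun c => {ctM M hk a hv c})
      (ctM M hk a hv) (fun c => trA (A c) (v c)) lam (fun c => Bxs_627.zz c.1 (lam c)) (fun _ x => x)
      (fun _ _ => 0) :=
  Bxs_627.coresM bf cmp hκ0 hc hc2 lam hl hl1 h0 h2 hκ1 hκ2' hκ12 hκ12' (ctM_inj M hk a hv) hlκ hcor
    fun c => P_core_tr M hk a hv (hK c)

/-- **`Mbf_337.Fine` on the aligned mesh, all bricks exact**: the outer size function is below the size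
function of `exists_dat_off` (`O := O34 lam`), `f` is `κw`-close to the exact map on the blocks. -/
theorem fine_MD (hLa : IsOpen La) (hδ : 0 < δ) (hR : 0 < R) (bf : BoxFoam La F δ κ0) (cmp : Cmp F R)
    (hκ0 : 1 ≤ κ0) (hc : 0 < c0) (hc2 : c0 * κ0 ≤ 1) (lam : F → ℝ) (hl : ∀ c, c0 ≤ lam c)
    (hl1 : ∀ c, lam c < 1) {f : E3 → E3} {κ1 κ2 : ℝ} (hκ1 : 0 ≤ κ1) (hκ : κ1 * κ0 ≤ 1 / 8)
    {A : F → E3 ≃ᵃ[ℝ] E3} (hK : ∀ c, (M.Q c).Kc = A c ⁻¹' cbx c.1 (lam c))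
    (hcor : ∀ c, CoriE (M.φ ⁻¹' M.D0.Om) f (trA (A c) (v c)) c.1 (lam c) κ1 κ2) (X : RD M)
    {ρ : (Fin 3 → ℝ) → ℝ} {ε : ℝ} (hρ : ∀ u, M.D0.ρ u ≤ ρ u)
    (hF : ∀ x, M.φ x ∈ M.D0.Om → FineS (fD bf cmp hκ0 hc hc2 lam hl hl1) f ε
      (M.φ ⁻¹' closedBall (M.φ x) (ρ (M.φ x)) ∩ ((M.φ ⁻¹' M.D0.Om) ∩ offO f (O34 lam))))
    {κw η uA : F → ℝ} (hN : ∀ c, ∀ x ∈ (M.Bk v c).N, f x ∈ c.1.set ∧
      ‖f x - trA (A c) (v c) x‖ ≤ κw c * c.1.sz)
    (huA0 : ∀ c, 0 ≤ uA c)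
    (huA : ∀ c, ∀ x y, ‖A c y - A c x‖ ≤ uA c * dist ((M.Q c).ψ x) ((M.Q c).ψ y))
    (hη : ∀ c, uA c * (X.R c / 2 ^ (M.Q c).kc) ≤ η c * c.1.sz)
    (hε : ∀ c, KI δ κ0 R c0 * (η c + 2 * κw c) ≤ ε) :
    Mbf_337.Fine (fD bf cmp hκ0 hc hc2 lam hl hl1) (M.mesh hk a hv) f ε
      (fun c => {ctM M hk a hv c}) := by
  refine mbf_fine fun t ht => ?_
  have hlc : ∀ c, 0 < lam c := fun c => hc.trans_le (hl c)
  rcases t with p | ⟨c, i⟩
  · refine (fineS_outer M hk a hv hρ hF p).mono fun x hx => ⟨hx, ?_⟩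
    exact tile_off bf lam hlc hκ1 hκ hcor (fun c => P_core_tr M hk a hv (hK c))
      (fun c h => ht c h) hx
  · have hi : i ≠ M.core hk a hv c := by
      rintro rfl
      exact ht c rfl
    refine fineS_innerM M hk a hv hLa hδ hR (Φ := fD bf cmp hκ0 hc hc2 lam hl hl1) X
      (hcore_fD bf cmp hκ0 hc hc2 lam hl hl1 c) (fun x => trA (A c) (v c) x) (κw := κw c)
      (η := η c) (fun x hx hx' => ?_) (huA0 c) (fun x y => ?_) (hη c) (hε c) i hi
    · have h1 := hN c x hx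
      have hxO : x ∈ M.φ ⁻¹' M.D0.Om := M.Vsub c (MD.N_mem hv c hx)
      have hK' : (M.Bk v c).Kc = trA (A c) (v c) ⁻¹' cbx c.1 (lam c) := by
        rw [← M.P_core hk a hv c]
        exact P_core_tr M hk a hv (hK c)
      refine ⟨⟨h1.1, half_le_tt (bf.pos _ c.2) (hlc c) ?_⟩, h1.2⟩
      refine off_core (bf.pos _ c.2) (bf.asp _ c.2) (hlc c) hκ1 hκ (hcor c) hxO ?_
      rw [← hK']
      exact hx'
    · have h1 := huA c (x - v c) (y - v c)
      rw [trA_apply, trA_apply]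
      refine h1.trans (le_of_eq ?_)
      rw [map_sub, map_sub, dist_sub_right]

end univ

end

end Crest.Agent.R096.Fns_360
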