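import Crest.Agent.R096.Pmc5_112

/-!
# Row 96 (S0127), helper746.  EA-D, part 2: weights, small means of the wall classes, and **`sum_Bk`**,
the sum of 112's `Bk` over all classes of a shiftable mesh.
-/

set_option autoImplicit false
set_option linter.style.longLine false

open MeasureTheory Set Filter Metric
open scoped Topology ENNReal

namespace Crest.Agent.R096.Eds_746

open Crest.Agent.R096.SkC1_961 (E3 FoamD)
open Crest.Agent.R96.Pm_199
open Crest.Agent.R096.Pmc_112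

noncomputable section

/-- **weights**: one class with a small weight, all others arbitrary, `Σ 1 / lam ≤ θ` -/
theorem exists_lam {κ : Type*} [Countable κ] (ow : κ) {θ : ℝ≥0∞} (hθ : θ ≠ 0) (hθ1 : θ ≠ ∞) :
    ∃ lam : κ → ℝ≥0∞, (∀ k, lam k ≠ 0) ∧ (∀ k, lam k ≠ ∞) ∧ ∑' k, (lam k)⁻¹ ≤ θ ∧
      lam ow = 2 / θ := by
  classical
  have h0 : θ / 2 ≠ 0 := (ENNReal.div_pos hθ ENNReal.ofNat_ne_top).ne'
  obtain ⟨δ, hδ0, hδ⟩ := ENNReal.exists_pos_sum_of_countable' h0 κ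
  have hδt : ∀ k, δ k ≠ ∞ := fun k =>
    ((ENNReal.le_tsum k).trans_lt (hδ.trans_le le_top)).ne
  refine ⟨fun k => if k = ow then 2 / θ else (δ k)⁻¹, fun k => ?_, fun k => ?_, ?_, if_pos rfl⟩
  · dsimp only
    split_ifs with h
    · exact (ENNReal.div_pos (by simp) hθ1).ne'
    · exact ENNReal.inv_ne_zero.2 (hδt k)
  · dsimp only
    split_ifs with h
    · exact ENNReal.div_ne_top (by simp) hθ
    · exact ENNReal.inv_ne_top.2 (hδ0 k).ne'
  · have h1 : ∀ k, ((if k = ow then 2 / θ else (δ k)⁻¹) : ℝ≥0∞)⁻¹ ≤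
        (if k = ow then θ / 2 else 0) + δ k := by
      intro k
      split_ifs with h
      · rw [ENNReal.inv_div (Or.inl hθ1) (Or.inl hθ)]
        exact le_self_add
      · rw [inv_inv]
        exact le_add_self
    calc ∑' k, ((if k = ow then 2 / θ else (δ k)⁻¹) : ℝ≥0∞)⁻¹
        ≤ ∑' k, ((if k = ow then θ / 2 else 0) + δ k) := ENNReal.tsum_le_tsum h1
      _ = θ / 2 + ∑' k, δ k := by rw [ENNReal.tsum_add, tsum_ite_eq]
      _ ≤ θ / 2 + θ / 2 := by gcongr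
      _ = θ := ENNReal.add_halves θ

/-- small positive numbers `μ k` with `Σ c k * μ k ≤ ε` -/
theorem exists_eps {κ : Type*} [Countable κ] (c : κ → ℝ≥0∞) (hc : ∀ k, c k ≠ ∞) {ε : ℝ≥0∞}
    (hε : ε ≠ 0) :
    ∃ μ : κ → ℝ≥0∞, (∀ k, μ k ≠ 0) ∧ (∀ k, μ k ≠ ∞) ∧ ∑' k, c k * μ k ≤ ε := by
  obtain ⟨δ, hδ0, hδ⟩ := ENNReal.exists_pos_sum_of_countable' hε κ
  have hδt : ∀ k, δ k ≠ ∞ := fun k =>
    ((ENNReal.le_tsum k).trans_lt (hδ.trans_le le_top)).ne
  have h1 : ∀ k, c k + 1 ≠ ∞ := fun k => ENNReal.add_ne_top.2 ⟨hc k, ENNReal.one_ne_top⟩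
  have h2 : ∀ k, c k + 1 ≠ 0 := fun k => by simp
  refine ⟨fun k => δ k / (c k + 1), fun k => (ENNReal.div_pos (hδ0 k).ne' (h1 k)).ne',
    fun k => ENNReal.div_ne_top (hδt k) (h2 k), ?_⟩
  refine (ENNReal.tsum_le_tsum fun k => ?_).trans hδ.le
  calc c k * (δ k / (c k + 1)) ≤ (c k + 1) * (δ k / (c k + 1)) := by gcongr; exact le_self_add
    _ = δ k := ENNReal.mul_div_cancel (h2 k) (h1 k)

/-- **weights and means at once**: `ow` = the outer class; `Kc k` = the constants `(Cm k * K) ^ p`;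
`μ k` = means which make all other classes negligible. -/
theorem exists_lam_mu {κ : Type*} [Countable κ] (ow : κ) {θ ε : ℝ≥0∞} (hθ : θ ≠ 0) (hθ1 : θ ≠ ∞)
    (hε : ε ≠ 0) (Kc : κ → ℝ≥0∞) (hK : ∀ k, Kc k ≠ ∞) :
    ∃ lam μ : κ → ℝ≥0∞, (∀ k, lam k ≠ 0) ∧ (∀ k, lam k ≠ ∞) ∧ ∑' k, (lam k)⁻¹ ≤ θ ∧
      lam ow = 2 / θ ∧ (∀ k, μ k ≠ 0) ∧ (∀ k, μ k ≠ ∞) ∧ ∑' k, Kc k * (lam k * μ k) ≤ ε := by
  obtain ⟨lam, h1, h2, h3, h4⟩ := exists_lam ow hθ hθ1
  obtain ⟨μ, h5, h6, h7⟩ := exists_eps (fun k => Kc k * lam k)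
    (fun k => ENNReal.mul_ne_top (hK k) (h2 k)) hε
  refine ⟨lam, μ, h1, h2, h3, h4, h5, h6, ?_⟩
  refine le_trans (le_of_eq (tsum_congr fun k => ?_)) h7
  ring

variable {δ κ0 R c0 : ℝ} {La Om : Set E3} {Φ : FoamD δ κ0 R c0 La} {J : Type}

/-- sums over all classes: outer classes and blocks -/
theorem tsum_bl (M : MF Om Φ.F J) (t : M.κ → ℝ≥0∞) :
    ∑' k, t k = (∑' k : {k // M.bl k = none}, t k) + ∑' (j : J) (k : {k // M.bl k = some j}), t k := by
  have h1 : ∑' k, t k = ∑' (o : Option J) (k : {k // M.bl k = o}), t k := by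
    rw [← ENNReal.tsum_sigma' (f := fun q : Σ o : Option J, {k // M.bl k = o} => t q.2.1)]
    exact ((Equiv.sigmaFiberEquiv M.bl).tsum_eq t).symm
  rw [h1]
  have h2 : ∀ F : Option J → ℝ≥0∞, ∑' o, F o = F none + ∑' j, F (some j) := by
    intro F
    rw [← (Equiv.optionEquivSumPUnit.{0} J).symm.tsum_eq F]
    rw [ENNReal.summable.tsum_sum ENNReal.summable, add_comm]
    congr 1
    rw [tsum_fintype]
    simp
  exact h2 _

/-- **`sum_Bk`**: the sum of the class energies: outer class + walls + blocks -/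
theorem sum_Bk (M : MF Om Φ.F J) {D' : E3 → E3 →L[ℝ] E3} {p : ℝ} {lam m : M.κ → ℝ≥0∞} {a : E3}
    {w : J → E3} (ow : M.κ) (how : M.bl ow = none) (c : M.κ → ℝ≥0∞) {μ : M.κ → ℝ≥0∞}
    (hμ : ∀ k, M.bl k = none → k ≠ ow → m k ≤ μ k) {ε : ℝ≥0∞}
    (hε : ∑' k, c k * (lam k * μ k) ≤ ε) {B : J → ℝ≥0∞}
    (hB : ∀ j, ∑' k : {k // M.bl k = some j}, c k * M.EnC (Gd' D') p k (a + w j) ≤ B j) :
    ∑' k, c k * Bk M D' p lam m a w k ≤ c ow * (lam ow * m ow) + ε + ∑' j, B j := by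
  classical
  rw [tsum_bl M]
  refine add_le_add ?_ (ENNReal.tsum_le_tsum fun j => ?_)
  · have h1 : ∀ k : {k // M.bl k = none}, c k * Bk M D' p lam m a w k ≤
        (if k = ⟨ow, how⟩ then c ow * (lam ow * m ow) else 0) + c k * (lam k * μ k) := by
      intro k
      have e1 : Bk M D' p lam m a w k.1 = lam k.1 * m k.1 := by
        unfold Bk
        rw [k.2]
      rw [e1]
      split_ifs with h
      · subst h
        exact le_self_add
      · rw [zero_add]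
        gcongr
        exact hμ k.1 k.2 (fun h' => h (Subtype.ext h'))
    refine (ENNReal.tsum_le_tsum h1).trans ?_
    rw [ENNReal.tsum_add, tsum_ite_eq]
    gcongr
    exact (ENNReal.tsum_comp_le_tsum_of_injective Subtype.val_injective
      (fun k : M.κ => c k * (lam k * μ k))).trans hε
  · refine le_trans (le_of_eq (tsum_congr fun k => ?_)) (hB j)
    have e1 : Bk M D' p lam m a w k.1 = M.EnC (Gd' D') p k.1 (a + w j) := by
      unfold Bk
      rw [k.2]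
    rw [e1]

end

end Crest.Agent.R096.Eds_746
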