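/-
helper880, row 96, PREMACH, MF-SUM, part 7: **`outer_num`** (112 #11318 (B)): weights and means of all
classes of `Ins.mf`, outer class = universal constant times the energy off `NmB`, all others as small
as we like, chosen before the scales `k` at the walls.
-/
import Mathlib
import Crest.Agent.R096.Mfa4_880
import Crest.Agent.R096.Eds2_746
import Crest.Agent.R96.Wm7_72

set_option autoImplicit false
set_option linter.style.longLine false

open MeasureTheory Set Filter Metric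
open scoped Topology ENNReal

namespace Crest.Agent.R096.Mfa_880

open Crest.Agent.R096.Msh_715 Crest.Agent.R096.Msh_810 Crest.Agent.R096.Cut_874
  Crest.Agent.R096.Mal_874
open Crest.Agent.R096.SkC1_961 (E3 Cfg)
open Crest.Agent.R96.Pm_199
open Crest.Agent.R096.Pmc_112 (Gd')
open Crest.Agent.R96.Wm5_72 (nO mean_QW mean_QWi)

noncomputable section

/-- **all data of the instance except the scales `k` at the walls** -/
structure Pri (F : Type) (X : Set F) where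
  M : MD E3 3 X
  D : RD M
  /-- finite lists of relative shifts -/
  W : X → Set E3
  Wf : ∀ j, (W j).Finite
  k0 : X → ℕ
  hk0 : ∀ j, (M.Q j).kc ≤ k0 j
  /-- dyadic level of the corners and of the shifts -/
  κw : X → ℕ
  h0 : ∀ j m, ∃ c : ℤ, 2 ^ κw j * (D.d j : ℝ) * (M.Q j).a' m = c
  hW : ∀ j, ∀ w ∈ W j, ∀ l, ∃ z : ℤ, 2 ^ κw j * M.φ w l = z
  Bx : X → Set E3
  hBx : ∀ j, Bx j ⊆ BxM M j
  r : ℝ
  A : Set E3
  Am : MeasurableSet A
  A0 : volume A ≠ 0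
  A1 : volume A ≠ ∞
  hAr : ∀ a ∈ A, ‖a‖ ≤ r
  cX : Countable X
  hOm : (M.φ ⁻¹' M.D0.Om).Nonempty
  deco : E3 → (X → E3) → Deco F

namespace Pri

variable {F : Type} {X : Set F} (I : Pri F X)

/-- the domain -/
abbrev Om : Set E3 := I.M.φ ⁻¹' I.M.D0.Om

/-- admissible scales at the walls -/
structure Sc (k : X → ℕ) : Prop where
  sc : I.M.Sc k
  k0 : ∀ j, I.k0 j ≤ k j
  κw : ∀ j, I.κw j ≤ k j

/-- **all large scales are admissible** -/
theorem exists_sc : ∃ kk : X → ℕ, ∀ k : X → ℕ, (∀ j, kk j ≤ k j) → I.Sc k := by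
  obtain ⟨k1, h1⟩ := I.M.exists_thr
  refine ⟨fun j => max (k1 j) (max (I.k0 j) (I.κw j)), fun k hk => ⟨h1 k fun j => ?_, fun j => ?_,
    fun j => ?_⟩⟩
  · exact (le_max_left _ _).trans (hk j)
  · exact (le_max_left _ _).trans ((le_max_right _ _).trans (hk j))
  · exact (le_max_right _ _).trans ((le_max_right _ _).trans (hk j))

variable {k : X → ℕ}

/-- the instance with the scales `k` -/
def ins (h : I.Sc k) : Ins F X where
  M := I.M
  D := I.D
  k := k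
  hk := h.sc
  W := I.W
  Wc j := (I.Wf j).countable
  k0 := I.k0
  hk0 := I.hk0
  hkk := h.k0
  H := { κ := I.κw, hκ := h.κw, h0 := I.h0, hW := I.hW }
  Bx := I.Bx
  hBx := I.hBx
  r := I.r
  A := I.A
  Am := I.Am
  A0 := I.A0
  A1 := I.A1
  hAr := I.hAr
  cX := I.cX
  hOm := I.hOm
  deco := I.deco

/-- the type of the classes -/
abbrev κ : Type :=
  Option ((Unit ⊕ X) ⊕ ((Σ j : X, Mfi_290.Pt (I.M.Q j) ⊕ ℕ) ⊕ (Σ _ : X, Unit)))

theorem κ_eq (h : I.Sc k) : (I.ins h).mf.κ = I.κ := rfl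

/-- the class of the outer cubes -/
def kO : I.κ := some (Sum.inl (Sum.inl ()))
/-- the class of the outer tiles at the wall `j` -/
def kOw (j : X) : I.κ := some (Sum.inl (Sum.inr j))
/-- the classes of the tiles of the block `j` -/
def kI (j : X) (c : Mfi_290.Pt (I.M.Q j) ⊕ ℕ) : I.κ := some (Sum.inr (Sum.inl ⟨j, c⟩))
/-- the class of the inner cubes at the wall `j` -/
def kIw (j : X) : I.κ := some (Sum.inr (Sum.inr ⟨j, ()⟩))

theorem kO_eq (h : I.Sc k) : (I.ins h).kO = I.kO := rfl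
theorem kOw_eq (h : I.Sc k) (j : X) : (I.ins h).kOw j = I.kOw j := rfl
theorem kI_eq (h : I.Sc k) (j : X) (c : Mfi_290.Pt (I.M.Q j) ⊕ ℕ) :
    (I.ins h).kI j c = I.kI j c := rfl
theorem kIw_eq (h : I.Sc k) (j : X) : (I.ins h).kIw j = I.kIw j := rfl

theorem countable_κ : Countable I.κ := by
  have := I.cX
  infer_instance

/-- the universal constant of the outer class -/
def _root_.Crest.Agent.R096.Mfa_880.CO (θ : ℝ≥0∞) (p : ℝ) (CA : ℝ≥0∞) : ℝ≥0∞ :=
  2 / θ * ((nO * 2) ^ p * CA)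

theorem _root_.Crest.Agent.R096.Mfa_880.CO_ne_top {θ : ℝ≥0∞} (hθ : θ ≠ 0) {p : ℝ} (hp : 0 ≤ p)
    {CA : ℝ≥0∞} (hCA : CA ≠ ∞) : CO θ p CA ≠ ∞ := by
  refine ENNReal.mul_ne_top (ENNReal.div_ne_top ENNReal.ofNat_ne_top hθ)
    (ENNReal.mul_ne_top (ENNReal.rpow_ne_top_of_nonneg hp ?_) hCA)
  exact ENNReal.mul_ne_top (ENNReal.natCast_ne_top _) ENNReal.ofNat_ne_top

/-- **`outer_num`**: weights `lam` and means `m` of all classes of the instance -/
theorem outer_num (h1 : ‖(I.M.φ : E3 →L[ℝ] (Fin 3 → ℝ))‖ ≤ 1)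
    (hc : ∀ x y : E3, dist x y ≤ dist (I.M.φ x) (I.M.φ y)) {CA : ℝ≥0∞}
    (hCA : 3 * volume (closedBall (0 : E3) (I.r + 1)) ≤ CA * volume I.A)
    {D' : E3 → E3 →L[ℝ] E3} (hD' : ∀ v, Measurable fun y => D' y v) {p : ℝ} (hp : 1 ≤ p)
    (hfin : ∫⁻ z in I.Om, ‖D' z‖ₑ ^ p ≠ ∞) {θ : ℝ≥0∞} (hθ : θ ≠ 0) (hθ1 : θ ≠ ∞)
    (Kc : I.κ → ℝ≥0∞) (hKc : ∀ c, Kc c ≠ ∞) {ε : ℝ≥0∞} (hε : ε ≠ 0) {εb : I.κ → ℝ≥0∞}
    (hεb : ∀ c, εb c ≠ 0) :
    ∃ (kw : X → ℕ) (m lam : I.κ → ℝ≥0∞), (∀ c, m c ≠ 0) ∧ (∀ c, lam c ≠ 0) ∧ (∀ c, lam c ≠ ∞) ∧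
      ∑' c, (lam c)⁻¹ ≤ θ ∧ lam I.kO = 2 / θ ∧
      Kc I.kO * (lam I.kO * m I.kO) ≤
        Kc I.kO * (CO θ p CA * ∫⁻ z in I.Om \ NmB I.M I.Bx, ‖D' z‖ₑ ^ p) + ε ∧
      (∀ c, c ≠ I.kO → Kc c * (lam c * m c) ≤ εb c) ∧
      ∀ (k : X → ℕ) (hk : I.Sc k), (∀ j, kw j ≤ k j) → ∀ c : I.κ, (I.ins hk).mf.bl c = none →
        ∫⁻ a in I.A, (I.ins hk).mf.EnC (Gd' D') p c a ≤ m c * volume I.A := by
  classical
  have := I.cX
  have := I.countable_κ
  obtain ⟨lam, l0, l1, l2, l3⟩ := Eds_746.exists_lam I.kO hθ hθ1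
  set E : ℝ≥0∞ := ∫⁻ z in I.Om \ NmB I.M I.Bx, ‖D' z‖ₑ ^ p with hE
  have hKl : ∀ c, Kc c * lam c + 1 ≠ ∞ := fun c =>
    ENNReal.add_ne_top.2 ⟨ENNReal.mul_ne_top (hKc c) (l1 c), ENNReal.one_ne_top⟩
  have hKl0 : ∀ c, Kc c * lam c + 1 ≠ 0 := fun c => by simp
  set m : I.κ → ℝ≥0∞ := fun c => if c = I.kO then (nO * 2) ^ p * CA * E + ε / (Kc c * lam c + 1)
    else εb c / (Kc c * lam c + 1) with hm
  have hmO : m I.kO = (nO * 2) ^ p * CA * E + ε / (Kc I.kO * lam I.kO + 1) := if_pos rfl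
  have hm' : ∀ c, c ≠ I.kO → m c = εb c / (Kc c * lam c + 1) := fun c hc' => if_neg hc'
  have hm0 : ∀ c, m c ≠ 0 := by
    intro c
    by_cases hc' : c = I.kO
    · rw [hc', hmO]
      exact (lt_of_lt_of_le (ENNReal.div_pos hε (hKl _)) le_add_self).ne'
    · rw [hm' c hc']
      exact (ENNReal.div_pos (hεb c) (hKl _)).ne'
  have hmul : ∀ (c : I.κ) (e : ℝ≥0∞), Kc c * (lam c * (e / (Kc c * lam c + 1))) ≤ e := by
    intro c e
    calc Kc c * (lam c * (e / (Kc c * lam c + 1))) = (Kc c * lam c) * (e / (Kc c * lam c + 1)) := by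
          ring
      _ ≤ (Kc c * lam c + 1) * (e / (Kc c * lam c + 1)) := mul_le_mul' le_self_add le_rfl
      _ = e := ENNReal.mul_div_cancel (hKl0 c) (hKl c)
  -- the walls
  have hG : ∀ v, Measurable (Gd' D' v) := fun v => (hD' v).enorm
  have hGH : ∀ᵐ y : E3, ∀ v, Gd' D' v y ≤ ‖v‖ₑ * ‖D' y‖ₑ := by
    refine Eventually.of_forall fun y v => ?_
    rw [mul_comm]
    exact ContinuousLinearMap.le_opENorm _ _
  have hfj : ∀ j : X, ∫⁻ z in I.M.φ ⁻¹' (I.M.D0.Om ∩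
      cthickening (I.M.r j + 1) (I.M.φ '' frontier (I.M.Q j).N)), ‖D' z‖ₑ ^ p ≠ ∞ := fun j =>
    ((lintegral_mono_set (preimage_mono inter_subset_left)).trans_lt (lt_top_iff_ne_top.2 hfin)).ne
  have hA0 := I.A0
  have h2 : ∀ j : X, ∃ k0 : ℕ, ∀ k : X → ℕ, k0 ≤ k j →
      (∫⁻ a in I.A, (Mou_324.QW k (fun j => (I.Wf j).countable) I.D I.r).toPT.EnC (Gd' D') p j a ≤
        m (I.kOw j) * volume I.A) ∧
      ∫⁻ a in I.A, (QUw I.M I.D k (fun j => (I.Wf j).countable) j).EnC (Gd' D') p () a ≤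
        m (I.kIw j) * volume I.A := by
    intro j
    obtain ⟨ka, ha⟩ := mean_QW (fun j => (I.Wf j).countable) I.D j (I.Wf j)
      (r' := I.M.r j + 1) (by linarith) (H := fun z => ‖D' z‖ₑ) hp (hfj j)
      (ε := m (I.kOw j) * volume I.A) (mul_ne_zero (hm0 _) hA0)
    obtain ⟨kb, hb⟩ := mean_QWi I.D (fun j => (I.Wf j).countable) j (I.Wf j)
      (r' := I.M.r j + 1) (by linarith) (H := fun z => ‖D' z‖ₑ) hp (hfj j)
      (ε := m (I.kIw j) * volume I.A) (mul_ne_zero (hm0 _) hA0)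
    refine ⟨max ka kb, fun k hk => ⟨?_, ?_⟩⟩
    · exact ha k ((le_max_left _ _).trans hk) I.r I.Am hG hGH
    · exact hb k ((le_max_right _ _).trans hk) (Uni_663.KU_countable _) (countable_singleton 0) I.Am
        hG hGH
  choose kw hkw using h2
  refine ⟨kw, m, lam, hm0, l0, l1, l2, l3, ?_, ?_, ?_⟩
  · rw [hmO, mul_add, mul_add]
    refine add_le_add ?_ (hmul _ _)
    refine mul_le_mul' le_rfl (le_of_eq ?_)
    rw [l3]
    unfold CO
    ring
  · intro c hc'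
    rw [hm' c hc']
    exact hmul c _
  · intro k hk hkk c
    have hI : ∀ c : (I.ins hk).mf.κ, (I.ins hk).mf.bl c = none →
        ∫⁻ a in I.A, (I.ins hk).mf.EnC (Gd' D') p c a ≤ m c * volume I.A := by
      refine (I.ins hk).cases ?_ ?_ ?_ ?_ ?_
      · intro _
        refine le_trans (le_of_eq ?_) bot_le
        rw [lintegral_congr fun a => (I.ins hk).EnC_kN (Gd' D') p a]
        exact lintegral_zero
      · intro _
        rw [lintegral_congr fun a => (I.ins hk).EnC_kO (Gd' D') p a]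
        refine (mean_QPB' (M := I.M) k (fun j => (I.Wf j).countable) I.Bx h1 hc I.Am hCA hG hGH
          hp).trans ?_
        refine mul_le_mul' ?_ le_rfl
        show _ ≤ m I.kO
        rw [hmO]
        exact le_self_add
      · intro j _
        rw [lintegral_congr fun a => (I.ins hk).EnC_kOw (Gd' D') p a j]
        exact (hkw j k (hkk j)).1
      · intro j c hcc
        rw [(I.ins hk).bl_kI] at hcc
        cases hcc
      · intro j _
        rw [lintegral_congr fun a => (I.ins hk).EnC_kIw (Gd' D') p a j]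
        exact (hkw j k (hkk j)).2
    exact hI c

end Pri

end

end Crest.Agent.R096.Mfa_880
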