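import Crest.Agent.R096.Pgn5_112
import Crest.Agent.R096.Mfa7_880
import Crest.Agent.R96.Gj1_872
import Crest.Agent.R096.Fns4_360

/-!
# Row 96 (S0127), helper112.  The X-generic end theorem `pre_gen`, part 6: input and output

`GenIn` = the data of the blocks (mesh `M`, rational data `D`, coarse scales `k0`, good sets `Gd`, core
data) and of the zones, with (B1) exact cores and fineness, (B2) words, (B3) energies, (Z) zones;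
`GenOut` = one decorated mesh with everything the machine needs and all energies.
-/

set_option autoImplicit false
set_option linter.style.longLine false

open MeasureTheory Set Filter Metric
open scoped Topology ENNReal

namespace Crest.Agent.R096.Pgn_112

open Crest.Agent.R096.Msh_715 Crest.Agent.R096.Msh_810 Crest.Agent.R096.Cut_874
  Crest.Agent.R096.Mal_874
open Crest.Agent.R096.SkC1_961 (E3 Cfg FoamD Hom3)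
open Crest.Agent.R096.Bsp_628 Crest.Agent.R096.Brk5_582
open Crest.Agent.R096.Ls_222 (Edg ea ev eIn mem_eIn Cl)
open Crest.Agent.R096.Der_764 (OmH)
open Crest.Agent.R096.Mbf_337
open Crest.Agent.R096.Tms_582
open Crest.Agent.R096.Er_594 (SH3)
open Crest.Agent.R096.Mfa_880
open Crest.Agent.R096.Wd_120 (CoreAt)
open Crest.Agent.R096.Fns_360 (trA)
open Crest.Agent.R96.Pm_199
open Crest.Agent.R96.Sob4_199 (VWD)
open Crest.Agent.R96.En10_199 (P3)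
open Crest.Agent.R96.EaCore_348 (EE bt)
open Crest.Agent.R96.EaPost_348 (Geo)
open Crest.Agent.R96.Eam_466 (TLAt FineX InB mix_tmesh locF_of_tl)
open Crest.Agent.R96.Zpatch_348 (ZIn lv)
open Crest.Agent.R096.Pmc_112 (Mok Gd' Bk Kl lP PreOut premach EE_leQ ent_le_Bk)

noncomputable section

/-- **the input of `pre_gen`**: blocks, good sets, zones; (B1) `ex`, `fine`; (B2) `words`; (B3) `en`;
(Z) `xO LF tl Z dis`. -/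
structure GenIn {δ κ0 Rc c0 : ℝ} {La : Set E3} (Φ : FoamD δ κ0 Rc c0 La) (f : E3 → E3)
    (D' : E3 → E3 →L[ℝ] E3) (p κp κ1 κ2 : ℝ) (X : Set Φ.F) (A : Φ.F → E3 ≃ᵃ[ℝ] E3)
    (lam : Φ.F → ℝ) (z : Φ.F → E3) (Mc : Φ.F → ℕ) (M : MD E3 3 X) (D : RD M) (k0 : X → ℕ)
    (hk0 : ∀ j, (M.Q j).kc ≤ k0 j) (κr : X → ℕ) (Bx Gd : X → Set E3)
    (wt : ∀ j : X, Mfi_290.Pt (M.Q j) ⊕ ℕ → ℝ≥0∞) (B : X → ℝ≥0∞) (Zd : ZD Φ.F X) : Prop where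
  φ : M.φ = ContinuousLinearEquiv.refl ℝ E3
  Bxs : ∀ j, Bx j ⊆ BxM M j
  Gds : ∀ j, Gd j ⊆ Bx j
  Gdm : ∀ j, MeasurableSet (Gd j)
  Gd0 : ∀ j, volume (Gd j) ≠ 0
  h0 : ∀ j m, ∃ c : ℤ, 2 ^ κr j * (D.d j : ℝ) * (M.Q j).a' m = c
  /-- (B1) -/
  ex : ∀ (k : X → ℕ) (hk : M.Sc k) (a : Fin 3 → ℝ) (v : X → E3) (hv : M.Adm v),
    (∀ j, v j ∈ Gd j) → ∀ c : X, Exact Φ (M.mesh hk a hv) f κ1 κ2 c.1
      (Sum.inr ⟨c, M.core hk a hv c⟩) (trA (A c) (v c)) (lam c) (z c)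
  fine : ∀ (k : X → ℕ) (hk : M.Sc k) (a : Fin 3 → ℝ) (v : X → E3) (hv : M.Adm v),
    (∀ j, v j ∈ Gd j) → ∀ ct0 : Φ.F → M.OIx hk a hv ⊕ Σ j, M.IIx hk a hv j,
      (∀ c : X, ct0 c.1 = Sum.inr ⟨c, M.core hk a hv c⟩) →
      FineX Φ (M.mesh hk a hv) f κ1 X ct0 Zd.x Zd.R
  /-- (B2) -/
  words : ∀ v : X → E3, (∀ j, v j ∈ Gd j) → ∀ D0 : Dec (M.φ ⁻¹' M.D0.Om) Φ.F,
    Cores Φ D0.T f κ1 κ2 X D0.J0 D0.J D0.V D0.ct D0.A D0.lam D0.z D0.θ D0.φ →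
    (∀ c : X, D0.lam c = lam c ∧ D0.z c = z c ∧ D0.A c = trA (A c) (v c) ∧ D0.M c = Mc c ∧
      CoreAt D0.T (D0.ct c) ((M.Q c).tr (v c))) → WordsOk Φ f κp (κp / 64) X D0
  /-- (B3) -/
  en : ∀ j, ∀ s ∈ Gd j, ∑' c, wt j c * (QU M D k0 hk0 j).EnC (Gd' D') p c s ≤ B j
  /-- (Z) -/
  xO : ∀ c, Zd.x c ∈ M.φ ⁻¹' M.D0.Om
  LF : LocF Zd.x Zd.R Zd.k Zd.Zc Zd.H
  tl : ∀ c, TLAt Φ (M.φ ⁻¹' M.D0.Om) f κ1 c.1 (Zd.x c) (Zd.R c) (Zd.k c) (Zd.Zc c) (Zd.H c)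
    (Zd.J0 c) (Zd.J c) (Zd.θ c) (Zd.φ c)
  Z : ∃ kZ : X → ℕ, ∀ (k : X → ℕ) (hk : M.Sc k), (∀ j, kZ j ≤ k j) → ∀ (a : E3) (v : X → E3)
    (hv : M.Adm v), Zones (M.mesh hk a hv) Zd.x Zd.R Zd.k (fun c => Zlt_798.wz a (Zd.k c))
  dis : ∀ c j, Disjoint (closedBall (Zd.x c) (2 * Zd.R c)) (M.V j)

/-- the universal factor of the outer energy -/
def CAu : ℝ≥0∞ := 3 * volume (closedBall (0 : E3) (1 + 1)) / volume (closedBall (0 : E3) 1)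

/-- the universal constant of the outer class -/
def COu (p : ℝ) : ℝ≥0∞ := CO (1 / 4) p CAu

theorem CAu_ne_top : CAu ≠ ∞ := by
  refine ENNReal.div_ne_top (ENNReal.mul_ne_top (by norm_num) ?_) ?_
  · exact measure_closedBall_lt_top.ne
  · exact (measure_closedBall_pos volume (0 : E3) one_pos).ne'

theorem CAu_spec : 3 * volume (closedBall (0 : E3) (1 + 1)) ≤ CAu * volume (closedBall (0 : E3) 1) := by
  unfold CAu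
  rw [ENNReal.div_mul_cancel (measure_closedBall_pos volume (0 : E3) one_pos).ne'
    measure_closedBall_lt_top.ne]

theorem COu_ne_top {p : ℝ} (hp : 0 ≤ p) : COu p ≠ ∞ :=
  CO_ne_top (by norm_num) hp CAu_ne_top

/-- **the output of `pre_gen`** (`Cs` = the constant of the outer tiles) -/
def GenOut {δ κ0 Rc c0 : ℝ} {La : Set E3} (Φ : FoamD δ κ0 Rc c0 La) (Om : Set E3) (f : E3 → E3)
    (D' : E3 → E3 →L[ℝ] E3) (p κp κ1 κ2 : ℝ) (X : Set Φ.F) (A : Φ.F → E3 ≃ᵃ[ℝ] E3)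
    (lam : Φ.F → ℝ) (z : Φ.F → E3) (Mc : Φ.F → ℕ) (M : MD E3 3 X) (Bx Gd : X → Set E3)
    (B : X → ℝ≥0∞) (Zd : ZD Φ.F X) (C : Set (Set E3) → ℝ) (Cs : ℝ) (ε : ℝ≥0∞)
    (εb : X → ℝ≥0∞) : Prop :=
  ∃ (v : X → E3) (Dd : Dec Om Φ.F), (∀ j, v j ∈ Gd j) ∧
    PreOut Φ f κp (κp / 64) κ1 κ2 8 X Dd (lP δ Rc D') ∧
    Geo Dd.T (Dd.ct '' X) {i | ∃ c, c ∉ X ∧ i ∈ Dd.V c} Zd.x (fun c => 5 / 8 * Zd.R c)
      (fun c => 7 / 8 * Zd.R c) 1 ∧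
    (∀ c : X, P (Dd.T.H (Dd.ct c)) = ((M.Q c).tr (v c)).Kc ∧ Dd.lam c = lam c ∧ Dd.z c = z c ∧
      Dd.A c = trA (A c) (v c) ∧ Dd.M c = Mc c) ∧
    EE C Dd.T Dd.fr (Crest.Agent.R96.EaCore_348.Ord (Φ := Φ) Dd.V) (lP δ Rc D') p ≤
      (ENNReal.ofReal Cs * Kl δ Rc) ^ p *
        (COu p * ∫⁻ x in Om \ NmB M Bx, ‖D' x‖ₑ ^ p) + ∑' j, B j + ε ∧
    ∃ Qb : X → Set Dd.ι, (∀ j j', j ≠ j' → Disjoint (Qb j) (Qb j')) ∧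
      (∀ j, ∀ i ∈ Qb j, P (Dd.T.H i) ⊆ ((M.Q j).tr (v j)).N) ∧
      (∀ j, ∀ x ∈ ((M.Q j).tr (v j)).N, x ∉ ((M.Q j).tr (v j)).Kc →
        ∃ i ∈ Qb j, x ∈ P (Dd.T.H i)) ∧
      (∀ j, ∀ i ∈ Qb j, Dd.Ord i) ∧
      (∀ j, ∀ i ∈ Qb j, ∀ x ∈ P (Dd.T.H i), ∀ c, x ∉ closedBall (Zd.x c) (2 * Zd.R c)) ∧
      ∀ j, EE C Dd.T Dd.fr (Crest.Agent.R96.EaCore_348.Ord (Φ := Φ) Dd.V ∩ Qb j)
        (lP δ Rc D') p ≤ B j + εb j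

end

end Crest.Agent.R096.Pgn_112
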