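import Crest.Agent.R096.Mdd6_360
import Crest.Agent.R096.Mal19_874

/-!
# Row 96 (S0127), helper874.  EA0, (f) of #11270 / 961 #11325: geometry of the blocks of EA0

* `exists_exit` : between a point of the block and a point off the block there is a wall point;
* `Hl Q k0` : the halo (compact; contains the block, its layer `Ly` and all translated blocks);
* **`tr_diff`, `diff_tr`** : a block and its translate differ only in the layer;
* **`mem_int_of_far`, `om_sub`** : off the layer, a point of the block is in all translated blocks;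
* `lyr_sub` : `infDist (ψ y) W ≤ 20 / 2^k0` describes points of the layer;
* **`hl_img`, `hl_disj`, `hl_lf`** : `f` maps the halos into the open bricks.
-/

set_option autoImplicit false
set_option linter.style.longLine false
set_option linter.unusedSectionVars false

open MeasureTheory Set Filter Topology Metric

namespace Crest.Agent.R096.Zb_874

open Crest.Agent.R096.Msh_715 Crest.Agent.R096.Mal_874 Crest.Agent.R096.Msh_810
open Crest.Agent.R096.Bsp_628 Crest.Agent.R096.Brk5_582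
open Crest.Agent.R096.SkC1_961 (E3 Hom3)
open Crest.Agent.R096.EaX_766 (cbx)
open Crest.Agent.R096.Bxs_627 (ctr CoriE)
open Crest.Agent.R096.Mdd_360 (img_open_of lin_dif)
open Crest.Agent.R096.Ea0_961 (Tw Ly Blk)

noncomputable section

/-! ### wall points -/

theorem exists_exit {N : Set E3} {x y : E3} (hx : x ∈ N) (hy : y ∉ N) :
    ∃ z ∈ frontier N, z ∈ segment ℝ x y := by
  by_contra hcon
  push Not at hcon
  have hseg : IsPreconnected (segment ℝ x y) := (convex_segment x y).isPreconnected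
  have h1 : segment ℝ x y ⊆ interior N ∪ interior Nᶜ := by
    intro z hz
    by_contra h
    rw [mem_union, not_or, interior_compl, mem_compl_iff, not_not] at h
    exact hcon z ⟨h.2, h.1⟩ hz
  have h2 : Disjoint (interior N) (interior Nᶜ) :=
    disjoint_compl_right.mono interior_subset interior_subset
  have hxs : x ∈ segment ℝ x y := left_mem_segment ℝ x y
  have hys : y ∈ segment ℝ x y := right_mem_segment ℝ x y
  have hxi : x ∈ interior N := (h1 hxs).resolve_right fun h => (interior_subset h) hx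
  have h3 := hseg.subset_left_of_subset_union isOpen_interior isOpen_interior h2 h1 ⟨x, hxs, hxi⟩
  exact hy (interior_subset (h3 hys))

/-- between a point of the block and a point off the block there is a wall point -/
theorem exists_wall (Q : CB E3 3) {x y : E3} (hx : x ∈ Q.N) (hy : y ∉ Q.N) :
    ∃ z ∈ frontier Q.N, ‖Q.ψ x - Q.ψ z‖ ≤ ‖Q.ψ x - Q.ψ y‖ ∧ ‖Q.ψ y - Q.ψ z‖ ≤ ‖Q.ψ x - Q.ψ y‖ := by
  obtain ⟨z, hz, a, b, ha, hb, hab, rfl⟩ := exists_exit hx hy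
  refine ⟨_, hz, ?_, ?_⟩
  · have e : Q.ψ x - Q.ψ (a • x + b • y) = b • (Q.ψ x - Q.ψ y) := by
      rw [map_add, map_smul, map_smul]
      have : a = 1 - b := by linarith
      rw [this, sub_smul, one_smul, smul_sub]
      abel
    rw [e, norm_smul, Real.norm_eq_abs, abs_of_nonneg hb]
    exact mul_le_of_le_one_left (norm_nonneg _) (by linarith)
  · have e : Q.ψ y - Q.ψ (a • x + b • y) = (-a) • (Q.ψ x - Q.ψ y) := by
      rw [map_add, map_smul, map_smul]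
      have : b = 1 - a := by linarith
      rw [this, sub_smul, one_smul, neg_smul, smul_sub]
      abel
    rw [e, norm_smul, Real.norm_eq_abs, abs_neg, abs_of_nonneg ha]
    exact mul_le_of_le_one_left (norm_nonneg _) (by linarith)

/-! ### the halo -/

/-- the halo of the block -/
def Hl (Q : CB E3 3) (k0 : ℕ) : Set E3 := {y | ∃ z ∈ Q.N, ‖Q.ψ y - Q.ψ z‖ ≤ 40 / 2 ^ k0}

theorem Hl_eq (Q : CB E3 3) (k0 : ℕ) :
    Hl Q k0 = Q.ψ ⁻¹' cthickening (40 / 2 ^ k0) (Q.ψ '' Q.N) := by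
  have hp : (0 : ℝ) ≤ 40 / 2 ^ k0 := by positivity
  rw [(Q.isCompact_N.image Q.ψ.continuous).cthickening_eq_biUnion_closedBall hp]
  ext y
  simp only [Hl, mem_ofPred_eq, mem_preimage, mem_iUnion, mem_image, mem_closedBall, dist_eq_norm]
  constructor
  · rintro ⟨z, hz, h⟩
    exact ⟨_, ⟨z, hz, rfl⟩, h⟩
  · rintro ⟨_, ⟨z, hz, rfl⟩, h⟩
    exact ⟨z, hz, h⟩

theorem isCompact_Hl (Q : CB E3 3) (k0 : ℕ) : IsCompact (Hl Q k0) := by
  rw [Hl_eq]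
  exact Q.ψ.toHomeomorph.isCompact_preimage.2
    ((Q.isCompact_N.image Q.ψ.continuous).cthickening)

theorem N_sub_Hl (Q : CB E3 3) (k0 : ℕ) : Q.N ⊆ Hl Q k0 := fun y hy =>
  ⟨y, hy, by rw [sub_self, norm_zero]; positivity⟩

theorem Ly_sub_Hl (Q : CB E3 3) (k0 : ℕ) : Ly Q k0 ⊆ Hl Q k0 := by
  rintro y ⟨z, hz, h⟩
  refine ⟨z, Q.frontier_sub hz, h.trans ?_⟩
  gcongr
  norm_num

theorem tr_sub_Hl (Q : CB E3 3) {k0 : ℕ} {s : E3} (hs : ‖Q.ψ s‖ ≤ 40 / 2 ^ k0) :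
    (Q.tr s).N ⊆ Hl Q k0 := by
  intro y hy
  rw [CB.mem_N_tr] at hy
  refine ⟨y - s, hy, ?_⟩
  rwa [← map_sub, sub_sub_cancel]

/-- the translations of the block are short in the frame -/
theorem tw_norm {Q : CB E3 3} {k0 : ℕ} {v : E3} (hv : v ∈ Tw Q k0) : ‖Q.ψ v‖ ≤ 1 / (10 * 2 ^ k0) := by
  rw [pi_norm_le_iff_of_nonneg (by positivity)]
  intro l
  rw [Real.norm_eq_abs, abs_of_nonneg (hv l).1]
  exact (hv l).2

theorem tw_norm' {Q : CB E3 3} {k0 : ℕ} {v : E3} (hv : v ∈ Tw Q k0) {t : ℝ} (ht : 1 ≤ t) :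
    ‖Q.ψ v‖ ≤ t / 2 ^ k0 := by
  refine (tw_norm hv).trans ?_
  have hp : (0 : ℝ) < 2 ^ k0 := by positivity
  rw [div_le_div_iff₀ (by positivity) hp]
  nlinarith

/-! ### a block and its translates -/

/-- **a translated block exceeds the block only in the layer** -/
theorem tr_diff (Q : CB E3 3) {k0 : ℕ} {s : E3} (hs : ‖Q.ψ s‖ ≤ 20 / 2 ^ k0) :
    (Q.tr s).N \ Q.N ⊆ Ly Q k0 := by
  rintro y ⟨hy, hyN⟩
  rw [CB.mem_N_tr] at hy
  obtain ⟨z, hz, -, h⟩ := exists_wall Q hy hyN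
  refine ⟨z, hz, h.trans ?_⟩
  rw [← map_sub]
  have e : y - s - y = -s := by abel
  rwa [e, map_neg, norm_neg]

/-- **the block exceeds its translates only in the layer** -/
theorem diff_tr (Q : CB E3 3) {k0 : ℕ} {s : E3} (hs : ‖Q.ψ s‖ ≤ 20 / 2 ^ k0) :
    Q.N \ (Q.tr s).N ⊆ Ly Q k0 := by
  rintro y ⟨hy, hyN⟩
  rw [CB.mem_N_tr] at hyN
  obtain ⟨z, hz, h, -⟩ := exists_wall Q hy hyN
  refine ⟨z, hz, h.trans ?_⟩
  rwa [← map_sub, sub_sub_cancel]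

theorem tw_tr_diff {Q : CB E3 3} {k0 : ℕ} {s : E3} (hs : s ∈ Tw Q k0) :
    (Q.tr s).N \ Q.N ⊆ Ly Q k0 := tr_diff Q (tw_norm' hs (by norm_num))

theorem tw_diff_tr {Q : CB E3 3} {k0 : ℕ} {s : E3} (hs : s ∈ Tw Q k0) :
    Q.N \ (Q.tr s).N ⊆ Ly Q k0 := diff_tr Q (tw_norm' hs (by norm_num))

/-- off the layer all short translations stay in the block -/
theorem mem_of_far (Q : CB E3 3) {k0 : ℕ} {x y : E3} (hx : x ∈ Q.N) (hx' : x ∉ Ly Q k0)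
    (h : ‖Q.ψ x - Q.ψ y‖ ≤ 20 / 2 ^ k0) : y ∈ Q.N := by
  by_contra hy
  obtain ⟨z, hz, h1, -⟩ := exists_wall Q hx hy
  exact hx' ⟨z, hz, h1.trans h⟩

/-- **off the layer, a point of the block is in the interior of all translated blocks** -/
theorem mem_int_of_far (Q : CB E3 3) {k0 : ℕ} {B : Set E3} (hB : ∀ s ∈ B, ‖Q.ψ s‖ ≤ 10 / 2 ^ k0)
    {x : E3} (hx : x ∈ Q.N) (hx' : x ∉ Ly Q k0) : x ∈ interior {x | ∀ s ∈ B, x - s ∈ Q.N} := by
  rw [mem_interior_iff_mem_nhds]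
  have h1 : ∀ᶠ y in 𝓝 x, ‖Q.ψ y - Q.ψ x‖ < 10 / 2 ^ k0 := by
    have hc : Continuous fun y : E3 => ‖Q.ψ y - Q.ψ x‖ := (Q.ψ.continuous.sub continuous_const).norm
    refine (hc.tendsto x).eventually (gt_mem_nhds ?_)
    rw [sub_self, norm_zero]
    positivity
  filter_upwards [h1] with y hy s hs
  refine mem_of_far Q hx hx' ?_
  have e : Q.ψ x - Q.ψ (y - s) = -(Q.ψ y - Q.ψ x) + Q.ψ s := by
    rw [map_sub]
    abel
  rw [e]
  refine (norm_add_le _ _).trans ?_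
  rw [norm_neg]
  have h2 := hB s hs
  have e2 : (20 : ℝ) / 2 ^ k0 = 10 / 2 ^ k0 + 10 / 2 ^ k0 := by ring
  rw [e2]
  exact add_le_add hy.le h2

theorem mem_int_tw {Q : CB E3 3} {k0 : ℕ} {x : E3} (hx : x ∈ Q.N) (hx' : x ∉ Ly Q k0) :
    x ∈ interior {x | ∀ s ∈ Tw Q k0, x - s ∈ Q.N} :=
  mem_int_of_far Q (fun _ hs => tw_norm' hs (by norm_num)) hx hx'

/-- **the region of the outer class** (`Bx j := Tw (Q j) (k0 j)`) -/
theorem om_sub {J : Type*} (Om : Set E3) (Q : J → CB E3 3) (k0 : J → ℕ) {B : J → Set E3}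
    (hB : ∀ j, ∀ s ∈ B j, ‖(Q j).ψ s‖ ≤ 10 / 2 ^ k0 j) :
    Om \ ⋃ j, interior {x | ∀ s ∈ B j, x - s ∈ (Q j).N} ⊆
      (Om \ ⋃ j, (Q j).N) ∪ ⋃ j, Ly (Q j) (k0 j) := by
  rintro x ⟨hx, hx'⟩
  by_cases h : x ∈ ⋃ j, (Q j).N
  · obtain ⟨j, hj⟩ := mem_iUnion.1 h
    refine Or.inr (mem_iUnion.2 ⟨j, ?_⟩)
    by_contra hl
    exact hx' (mem_iUnion.2 ⟨j, mem_int_of_far (Q j) (hB j) hj hl⟩)
  · exact Or.inl ⟨hx, h⟩

/-- the points near the wall (in the frame) are in the layer -/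
theorem lyr_sub (Q : CB E3 3) {k0 : ℕ} {s : ℝ} (hs : s ≤ 20 / 2 ^ k0) :
    Q.ψ ⁻¹' {x | infDist x Q.W ≤ s} ⊆ Ly Q k0 := by
  intro y hy
  have hy' : infDist (Q.ψ y) Q.W ≤ s := hy
  obtain ⟨z, hz, e⟩ := (show IsClosed Q.W from isClosed_frontier).exists_infDist_eq_dist Q.W_ne (Q.ψ y)
  refine ⟨Q.ψ.symm z, ?_, ?_⟩
  · rw [Q.frontier_N, mem_preimage, ContinuousLinearEquiv.apply_symm_apply]
    exact hz
  · rw [ContinuousLinearEquiv.apply_symm_apply, ← dist_eq_norm, ← e]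
    exact hy'.trans hs

theorem ly_eq (Q : CB E3 3) (k0 : ℕ) :
    Ly Q k0 = Q.ψ ⁻¹' {x | infDist x Q.W ≤ 20 / 2 ^ k0} := by
  refine Subset.antisymm ?_ (lyr_sub Q le_rfl)
  rintro y ⟨z, hz, h⟩
  rw [Q.frontier_N] at hz
  have hz' : Q.ψ z ∈ Q.W := hz
  change infDist (Q.ψ y) Q.W ≤ _
  refine (infDist_le_dist_of_mem hz').trans ?_
  rwa [dist_eq_norm]

theorem isClosed_Ly (Q : CB E3 3) (k0 : ℕ) : IsClosed (Ly Q k0) := by
  rw [ly_eq]
  exact (isClosed_le (continuous_infDist_pt _) continuous_const).preimage Q.ψ.continuous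

theorem measurableSet_Ly (Q : CB E3 3) (k0 : ℕ) : MeasurableSet (Ly Q k0) :=
  (isClosed_Ly Q k0).measurableSet

/-! ### the halo in the target -/

section tgt

variable {La Om : Set E3} {f : E3 → E3} {F : Set (Bx (Fin 3))} {δ κ0 : ℝ}
  {u Cc κ1 κ2 κt τ lam1 : ℝ} {Bs M Nn : ℕ}

theorem lin_psi {A : E3 ≃ᵃ[ℝ] E3} {Q : CB E3 3} (hu : 0 ≤ u)
    (hA : ∀ x : E3, A.linear x = u • Q.ψ x) (x y : E3) : ‖A y - A x‖ = u * ‖Q.ψ y - Q.ψ x‖ := by
  rw [← lin_dif, hA, norm_smul, Real.norm_eq_abs, abs_of_nonneg hu, map_sub]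

/-- the size of a set of `R0` cells at the core -/
theorem cell_le {c : F} {A : E3 ≃ᵃ[ℝ] E3} {lam : ℝ} {Q : CB E3 3} {k0 : ℕ} {hk : Q.kc ≤ k0}
    (hB : Blk F u Cc κ2 κt Bs M Nn c A lam Q k0 hk) {R0 : ℝ} (hR0 : 0 ≤ R0) :
    u * (R0 / 2 ^ Q.kc) ≤ R0 * Cc / M * (lam * c.1.sz) := by
  have h := mul_le_mul_of_nonneg_left hB.cell hR0
  have e1 : u * (R0 / 2 ^ Q.kc) = R0 * (u / 2 ^ Q.kc) := by ring
  have e2 : R0 * Cc / M * (lam * c.1.sz) = R0 * (Cc * (lam * c.1.sz) / M) := by ring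
  rw [e1, e2]
  exact h

/-- **the halo is mapped into the open brick** -/
theorem hl_img (bf : BoxFoam La F δ κ0) (hκ0 : 0 ≤ κ0) (hu : 0 < u) (hM : 0 < M) {c : F}
    {A : E3 ≃ᵃ[ℝ] E3} {lam : ℝ} (hl : 0 < lam) (hll : lam ≤ lam1) (hl1 : lam1 ≤ 1) (hκ1 : 0 ≤ κ1)
    (hτ : 0 ≤ τ) (hτ2 : τ * κ0 ≤ κ2 / 2) (hsm : (κ1 + τ) * κ0 < (1 - lam1) / 4) (hκt : 40 * κt ≤ τ)
    {Q : CB E3 3} {k0 : ℕ} {hk : Q.kc ≤ k0} (hB : Blk F u Cc κ2 κt Bs M Nn c A lam Q k0 hk)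
    (hcor : CoriE Om f A c.1 lam κ1 κ2) {x : E3} (hx : x ∈ Hl Q k0) :
    A x ∈ cbx c.1 ((1 + 2 * κ2) * lam) ∧ x ∈ Om ∧ (∀ k, c.1.lo k < f x k ∧ f x k < c.1.hi k) ∧
      ‖f x - A x‖ ≤ κ1 * (lam * c.1.sz) := by
  obtain ⟨y, hy, hxy⟩ := hx
  have hM' : (1 : ℝ) ≤ M := by exact_mod_cast hM
  have hsz := Bx.sz_pos (bf.pos _ c.2)
  obtain ⟨h2, h3⟩ := hB.sub y hy
  have h4 : ∀ k, |A x k - A y k| ≤ τ * κ0 * (lam * c.1.side k) := by
    intro k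
    have h5 : |A x k - A y k| ≤ ‖A x - A y‖ := by
      have := norm_le_pi_norm (A x - A y) k
      rwa [Real.norm_eq_abs] at this
    rw [lin_psi hu.le hB.lin_eq] at h5
    refine h5.trans ?_
    have h6 : u * ‖Q.ψ x - Q.ψ y‖ ≤ 40 * (u / 2 ^ k0) := by
      refine (mul_le_mul_of_nonneg_left hxy hu.le).trans (le_of_eq ?_)
      ring
    have h7 := hB.thin
    have h8 : 0 < lam * c.1.sz := by positivity
    have h9 : 40 * (κt * (lam * c.1.sz) / M) ≤ τ * (lam * c.1.sz) := by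
      have e : 40 * (κt * (lam * c.1.sz) / M) = 40 * κt * (lam * c.1.sz) / M := by ring
      rw [e]
      have h10 : 40 * κt * (lam * c.1.sz) ≤ τ * (lam * c.1.sz) :=
        mul_le_mul_of_nonneg_right hκt h8.le
      refine (div_le_div_of_nonneg_right h10 (by positivity)).trans ?_
      exact div_le_self (by positivity) hM'
    have h11 := bf.asp _ c.2 k
    have h12 : τ * (lam * c.1.sz) ≤ τ * (lam * (κ0 * c.1.side k)) := by gcongr
    linarith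
  have hs : ∀ k, 0 < c.1.side k := fun k => Bx.side_pos (bf.pos _ c.2) k
  have hx1 : A x ∈ cbx c.1 ((1 + 2 * κ2) * lam) := by
    intro k
    have h9 := h2 k
    have h10 := h4 k
    have e : A x k - ctr c.1 k = (A x k - A y k) + (A y k - ctr c.1 k) := by ring
    rw [e]
    refine (abs_add_le _ _).trans ?_
    have h11 : τ * κ0 * (lam * c.1.side k) ≤ κ2 / 2 * (lam * c.1.side k) :=
      mul_le_mul_of_nonneg_right hτ2 (mul_pos hl (hs k)).le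
    linarith
  have hx2 : A x ∈ cbx c.1 ((1 + lam) / 2 + 2 * (τ * κ0 * lam)) := by
    intro k
    have h9 := h3 k
    have h10 := h4 k
    have e : A x k - ctr c.1 k = (A x k - A y k) + (A y k - ctr c.1 k) := by ring
    rw [e]
    refine (abs_add_le _ _).trans ?_
    linarith
  refine ⟨hx1, img_open_of (bf.pos _ c.2) (bf.asp _ c.2) hl hκ1 ?_ hcor hx1 hx2⟩
  have h13 : (κ1 + τ) * κ0 * lam ≤ (κ1 + τ) * κ0 :=
    mul_le_of_le_one_right (by positivity) (hll.trans hl1)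
  nlinarith

/-- the open bricks separate -/
theorem disj_of_img (bf : BoxFoam La F δ κ0) {c c' : F} (h : c ≠ c') {S S' : Set E3}
    (hS : ∀ x ∈ S, ∀ k, c.1.lo k < f x k ∧ f x k < c.1.hi k)
    (hS' : ∀ x ∈ S', ∀ k, c'.1.lo k < f x k ∧ f x k < c'.1.hi k) : Disjoint S S' := by
  rw [Set.disjoint_left]
  intro x hx hx'
  have hne : c.1 ≠ c'.1 := fun h' => h (Subtype.ext h')
  obtain ⟨k, hk⟩ := bf.inv.disj c.2 c'.2 (bf.pos _ c.2) (bf.pos _ c'.2) hne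
  have h2 := hS x hx k
  have h3 := hS' x hx' k
  rcases hk with hk | hk
  · linarith [h2.2, h3.1]
  · linarith [h2.1, h3.2]

/-- sets mapped into different bricks are locally finite -/
theorem lf_of_img (hOm : IsOpen Om) (hf : ContinuousOn f Om) (hfL : MapsTo f Om La)
    (bf : BoxFoam La F δ κ0) {J : Type*} {b : J → F} (hb : Function.Injective b) {S : J → Set E3}
    (hS : ∀ j, ∀ x ∈ S j, ∀ k, (b j).1.lo k < f x k ∧ f x k < (b j).1.hi k) :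
    ∀ x ∈ Om, ∃ s > 0, {j | (S j ∩ ball x s).Nonempty}.Finite := by
  intro x hx
  obtain ⟨s, hs, hfin⟩ := bf.lf _ (hfL hx)
  have h2 : f ⁻¹' ball (f x) s ∈ 𝓝 x := (hf.continuousAt (hOm.mem_nhds hx)) (ball_mem_nhds _ hs)
  obtain ⟨t, ht, ht'⟩ := Metric.mem_nhds_iff.1 h2
  refine ⟨t, ht, ?_⟩
  have h3 : Set.Finite {j | (b j).1 ∈ {C | C ∈ F ∧ (C.set ∩ ball (f x) s).Nonempty}} :=
    hfin.preimage fun j _ l _ h => hb (Subtype.ext h)
  refine h3.subset ?_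
  rintro j ⟨y, hy1, hy2⟩
  refine ⟨(b j).2, f y, ?_, ht' hy2⟩
  rw [Bx.mem_set]
  intro k
  have := hS j y hy1 k
  exact ⟨this.1.le, this.2.le⟩

/-- **all facts about the halos of the blocks of `EA0`** -/
theorem halos (hOm : IsOpen Om) (hf : Hom3 f Om La) (bf : BoxFoam La F δ κ0) (hκ0 : 0 ≤ κ0)
    (hu : 0 < u) (hM : 0 < M) {X : Set F} {A : F → E3 ≃ᵃ[ℝ] E3} {lam : F → ℝ} {Q : F → CB E3 3}
    {k0 : F → ℕ} {hk : ∀ c, (Q c).kc ≤ k0 c} (hl : ∀ c ∈ X, 0 < lam c ∧ lam c ≤ lam1)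
    (hl1 : lam1 ≤ 1) (hκ1 : 0 ≤ κ1) (hτ : 0 ≤ τ) (hτ2 : τ * κ0 ≤ κ2 / 2)
    (hsm : (κ1 + τ) * κ0 < (1 - lam1) / 4) (hκt : 40 * κt ≤ τ)
    (hB : ∀ c ∈ X, Blk F u Cc κ2 κt Bs M Nn c (A c) (lam c) (Q c) (k0 c) (hk c))
    (hcor : ∀ c ∈ X, CoriE Om f (A c) c.1 (lam c) κ1 κ2) :
    (∀ c ∈ X, ∀ x ∈ Hl (Q c) (k0 c), A c x ∈ cbx c.1 ((1 + 2 * κ2) * lam c) ∧ x ∈ Om ∧
      (∀ k, c.1.lo k < f x k ∧ f x k < c.1.hi k) ∧ ‖f x - A c x‖ ≤ κ1 * (lam c * c.1.sz)) ∧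
    (∀ c ∈ X, ∀ c' ∈ X, c ≠ c' → Disjoint (Hl (Q c) (k0 c)) (Hl (Q c') (k0 c'))) ∧
    (∀ x ∈ Om, ∃ s > 0, {c : X | (Hl (Q c) (k0 c) ∩ ball x s).Nonempty}.Finite) ∧
    (∀ c ∈ X, Ly (Q c) (k0 c) ⊆ Om ∧ (Q c).N ⊆ Om) ∧
    (∀ c ∈ X, ∀ c' ∈ X, c ≠ c' → Disjoint (Ly (Q c) (k0 c)) (Ly (Q c') (k0 c'))) ∧
    ∀ c ∈ X, ∀ c' ∈ X, c ≠ c' → Disjoint (Q c).N (Ly (Q c') (k0 c')) := by
  obtain ⟨-, hfL, -, -, -, hfc, -⟩ := id hf
  have h1 : ∀ c ∈ X, ∀ x ∈ Hl (Q c) (k0 c), A c x ∈ cbx c.1 ((1 + 2 * κ2) * lam c) ∧ x ∈ Om ∧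
      (∀ k, c.1.lo k < f x k ∧ f x k < c.1.hi k) ∧ ‖f x - A c x‖ ≤ κ1 * (lam c * c.1.sz) :=
    fun c hc x hx => hl_img bf hκ0 hu hM (hl c hc).1 (hl c hc).2 hl1 hκ1 hτ hτ2 hsm hκt (hB c hc)
      (hcor c hc) hx
  have h2 : ∀ c ∈ X, ∀ c' ∈ X, c ≠ c' → Disjoint (Hl (Q c) (k0 c)) (Hl (Q c') (k0 c')) :=
    fun c hc c' hc' h => disj_of_img bf h (fun x hx => (h1 c hc x hx).2.2.1)
      fun x hx => (h1 c' hc' x hx).2.2.1
  refine ⟨h1, h2, ?_, fun c hc => ⟨fun x hx => (h1 c hc x (Ly_sub_Hl _ _ hx)).2.1,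
    fun x hx => (h1 c hc x (N_sub_Hl _ _ hx)).2.1⟩,
    fun c hc c' hc' h => (h2 c hc c' hc' h).mono (Ly_sub_Hl _ _) (Ly_sub_Hl _ _),
    fun c hc c' hc' h => (h2 c hc c' hc' h).mono (N_sub_Hl _ _) (Ly_sub_Hl _ _)⟩
  exact lf_of_img hOm hfc hfL bf (b := fun c : X => c.1) Subtype.val_injective
    (S := fun c : X => Hl (Q c) (k0 c)) fun c x hx => (h1 c c.2 x hx).2.2.1

end tgt

end

end Crest.Agent.R096.Zb_874
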