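/-
helper222, row 96, EA0 (p <= 2): (i) `mz_of_kc`: 466's `Mz` from 663's `KC`; (ii) `good_sets_W`: the good
sets with the WEIGHTED energies of `GenIn.en`; (iii) `outer0`: the outer energy in the letters of `Pre0`.
-/
import Mathlib
import Crest.Agent.R096.Gz2_222
import Crest.Agent.R096.Pgn6_112
import Crest.Agent.R096.Zb1_874
import Crest.Agent.R096.Eaz1_663
import Crest.Agent.R096.Cm0_222

set_option autoImplicit false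
set_option linter.unusedSectionVars false
set_option linter.unusedVariables false

open MeasureTheory Set Filter Metric
open scoped Topology ENNReal NNReal

namespace Crest.Agent.R096.Gz_222

open Crest.Agent.R096.Msh_715 Crest.Agent.R096.Mal_874 Crest.Agent.R096.Msh_810
  Crest.Agent.R096.Mfi_290
open Crest.Agent.R096.Bsp_628 Crest.Agent.R096.Brk1_582 Crest.Agent.R096.Brk3_582
open Crest.Agent.R096.Brk5_582
open Crest.Agent.R96.Push_899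
open Crest.Agent.R096.SkC1_961 (E3 Cfg)
open Crest.Agent.R096.EaX_766 (lin cbx Kor)
open Crest.Agent.R096.Ea0_961 (Ed InS Blk Tw Ly)
open Crest.Agent.R096.Bxs_627 (ctr ctr_lo ctr_hi)
open Crest.Agent.R096.Pmc_112 (Gd' Kl)
open Crest.Agent.R096.PmcL_112 (KL KL_lt_top)
open Crest.Agent.R96.Gj_872 (TraW)
open Crest.Agent.R096.Mfa_880 (QU NmB isOpen_NmB)
open Crest.Agent.R96.Ea0p_348 (Sn Ln Jn)
open Crest.Agent.R96.Eam_466 (Mz)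
open Crest.Agent.R96.EaP_899 (KQ KQ_nonneg)
open Crest.Agent.R096.Eaz_663 (KC)
open Crest.Agent.R096.Pgn_112 (COu COu_ne_top)

noncomputable section

/-! ### smallness -/

/-- 466's `Mz` from 663's `KC` -/
theorem mz_of_kc {δ κ0 R c0 κ2 lam1 κm κ Cc : ℝ} {Bs M : ℕ} (h : KC δ κ0 R c0 κ2 lam1 κm κ)
    (hκ0 : 0 ≤ κ0) (hCc : 1 ≤ Cc) (hBs : 1 ≤ Bs) (hM : 0 < M) (hM0 : Bs * Cc ≤ κ * M)
    (hm1 : κ0 ≤ κ2 * M) : Mz κ0 κ2 Cc lam1 0 (2 * κ) κ Bs M := by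
  have hM' : (0 : ℝ) < M := by exact_mod_cast hM
  have hB' : (1 : ℝ) ≤ Bs := by exact_mod_cast hBs
  have h1 : 1 / (M : ℝ) ≤ κ := by
    rw [div_le_iff₀ hM']
    nlinarith
  have h2 : 0 ≤ 1 / (M : ℝ) := by positivity
  have h3 : (κ + 1 / M) * κ0 ≤ 2 * (κ * κ0) := by nlinarith
  refine ⟨hM, hm1, ?_, ?_, ?_, ?_⟩
  · linarith [h.k8]
  · linarith [h.lam]
  · rw [zero_mul]
    linarith [h.pos]
  · linarith

/-! ### the good sets, weighted energies -/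

/-- **THE GOOD SETS OF ALL BLOCKS AND `GenIn.en`** (weights `(ofReal Cs * Kl δ Rc) ^ p`) -/
theorem good_sets_W {p : ℝ} (hp : 1 ≤ p) (hp3 : p ≤ 3) {κ0 Cc : ℝ} (c0 δ Rc Cs : ℝ) (hκ0 : 1 ≤ κ0)
    (hCc : 1 ≤ Cc) {Bs : ℕ} (hB1 : 1 ≤ Bs) : ∃ C1 : ℝ≥0, ∀ Nn : ℕ, ∃ CA : ℝ≥0,
    ∀ {La Om : Set E3} {f : E3 → E3} {D : E3 → E3 →L[ℝ] E3} {F : Set (Bx (Fin 3))}
      (bf : BoxFoam La F δ κ0) (X : Set F) {u κ1 κ2 κw κt lam1 K κm : ℝ} {Mg : ℕ}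
      (A : F → E3 ≃ᵃ[ℝ] E3) (lam : F → ℝ) (Q : F → CB E3 3) (k0 : F → ℕ)
      (hk : ∀ c, (Q c).kc ≤ k0 c) (er : F → ℝ≥0∞), 0 < u → 0 ≤ κt → κt ≤ 1 / 40 → κt * Cc < 1 →
      0 < κ2 → 0 ≤ κ1 → lam1 < 1 → (∀ c ∈ X, 0 < lam c ∧ lam c ≤ lam1) →
      Mz κ0 κ2 Cc lam1 K κm κ1 Bs Mg →
      (∀ c ∈ X, Blk F u Cc κ2 κt Bs Mg Nn c (A c) (lam c) (Q c) (k0 c) (hk c)) →
      (∀ c ∈ X, InS p Om f D Cc κ1 κ2 κw Mg c.1 (A c) (lam c) (er c) (Q c) (k0 c) (hk c)) →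
    ∀ z : F → E3, (∀ c, z c ∈ Mid (brk' bf c)) →
    ∀ D' : E3 → E3 →L[ℝ] E3, (∀ w, Measurable fun y => D' y w) →
      (∀ᵐ x, (∀ c, f x ∈ (coreBF (brk' bf c) (z c)).I → c ∈ X) →
        ∀ v, ‖D' x v‖ ≤ KQ κ0 c0 * ‖D x v‖) →
    ∀ P : X → E3 → Prop, (∀ c : X, ∀ᵐ v : E3, v ∈ Tw (Q c) (k0 c) → P c v) →
    ∀ (M : MD E3 3 X) (Xr : RD M), (∀ c : X, M.Q c = Q c) →
    ∀ hk' : ∀ c : X, (M.Q c).kc ≤ k0 c,
    ∃ Gd : X → Set E3, ∀ c : X, MeasurableSet (Gd c) ∧ Gd c ⊆ Tw (Q c) (k0 c) ∧ volume (Gd c) ≠ 0 ∧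
      ∀ v ∈ Gd c, P c v ∧ TraW p D Cc κw (A c) (er c) (Q c) (k0 c) (hk c) v ∧
        ∑' cl, (ENNReal.ofReal Cs * Kl δ Rc) ^ p *
            (QU M Xr (fun c : X => k0 c) hk' c).EnC (Gd' D') p cl v ≤
          C1 * (Sn p F A lam Q c + er c) + CA * Ln p D F Q k0 c := by
  obtain ⟨C1, H⟩ := good_sets_L hp hp3 c0 hκ0 hCc hB1
  have hw : (ENNReal.ofReal Cs * Kl δ Rc) ^ p ≠ ∞ := by
    refine ENNReal.rpow_ne_top_of_nonneg (by linarith) (ENNReal.mul_ne_top ENNReal.ofReal_ne_top ?_)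
    unfold Kl
    exact ENNReal.ofReal_ne_top
  set W := (ENNReal.ofReal Cs * Kl δ Rc) ^ p with hW
  refine ⟨W.toNNReal * C1, fun Nn => ?_⟩
  obtain ⟨CA, H⟩ := H Nn
  refine ⟨W.toNNReal * CA, ?_⟩
  intro La Om f D F bf X u κ1 κ2 κw κt lam1 K κm Mg A lam Q k0 hk er hu hκt0 hκt hcc hκ2 hκ1 hl1
    hlam hM hB hI z hz D' hDm hD P hP M Xr hQ hk'
  obtain ⟨Gd, hG⟩ := H bf X A lam Q k0 hk er hu hκt0 hκt hcc hκ2 hκ1 hl1 hlam hM hB hI z hz D' hDm hD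
    P hP M Xr hQ hk'
  refine ⟨Gd, fun c => ⟨(hG c).1, (hG c).2.1, (hG c).2.2.1, fun v hv => ?_⟩⟩
  obtain ⟨h1, h2, -, h4⟩ := (hG c).2.2.2 v hv
  refine ⟨h1, h2, ?_⟩
  rw [ENNReal.tsum_mul_left, ENNReal.coe_mul, ENNReal.coe_mul, ENNReal.coe_toNNReal hw, mul_assoc,
    mul_assoc, ← mul_add]
  exact mul_le_mul' le_rfl h4

/-! ### the outer energy -/

theorem zero_mem_Tw (Q : CB E3 3) (k0 : ℕ) : (0 : E3) ∈ Tw Q k0 := by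
  intro l
  rw [map_zero]
  exact ⟨le_rfl, by simp only [Pi.zero_apply]; positivity⟩

/-- the energy of `D` off the rooms -/
theorem int_out {F : Set (Bx (Fin 3))} (hF : F.Countable) {X : Set F} (M : MD E3 3 X)
    (Q : F → CB E3 3) (k0 : F → ℕ) (hQ : ∀ j : X, M.Q j = Q j) {p : ℝ} (Om : Set E3)
    (D : E3 → E3 →L[ℝ] E3) :
    ∫⁻ x in Om \ NmB M (fun j : X => Tw (Q j) (k0 j)), ‖D x‖ₑ ^ p ≤
      Jn p Om D F X Q + ∑' c : X, Ln p D F Q k0 c := by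
  have : Countable F := hF.to_subtype
  have e1 : NmB M (fun j : X => Tw (Q j) (k0 j)) =
      ⋃ j : X, interior {x | ∀ s ∈ Tw (Q j) (k0 j), x - s ∈ (Q j).N} := by
    unfold NmB
    refine iUnion_congr fun j => ?_
    rw [hQ j]
  have hsub := Zb_874.om_sub Om (fun j : X => Q j) (fun j : X => k0 j)
    (B := fun j : X => Tw (Q j) (k0 j)) (fun j s hs => Zb_874.tw_norm' hs (by norm_num))
  rw [e1]
  have e2 : (⋃ j : X, (Q j).N) = ⋃ c ∈ X, (Q c).N := (biUnion_eq_iUnion X fun c _ => (Q c).N).symm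
  rw [e2] at hsub
  calc ∫⁻ x in Om \ ⋃ j : X, interior {x | ∀ s ∈ Tw (Q j) (k0 j), x - s ∈ (Q j).N}, ‖D x‖ₑ ^ p
      ≤ ∫⁻ x in (Om \ ⋃ c ∈ X, (Q c).N) ∪ ⋃ j : X, Ly (Q j) (k0 j), ‖D x‖ₑ ^ p :=
        lintegral_mono_set hsub
    _ ≤ (∫⁻ x in Om \ ⋃ c ∈ X, (Q c).N, ‖D x‖ₑ ^ p) +
        ∫⁻ x in ⋃ j : X, Ly (Q j) (k0 j), ‖D x‖ₑ ^ p := lintegral_union_le _ _ _
    _ ≤ (∫⁻ x in Om \ ⋃ c ∈ X, (Q c).N, (1 + ‖D x‖ₑ ^ p)) +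
        ∑' j : X, ∫⁻ x in Ly (Q j) (k0 j), (1 + ‖D x‖ₑ ^ p) := by
        refine add_le_add (lintegral_mono fun x => le_add_self) ?_
        refine (lintegral_iUnion_le _ _).trans (ENNReal.tsum_le_tsum fun j => ?_)
        exact lintegral_mono fun x => le_add_self

/-- **OUTER ENERGY OF `D'`** (last clause of `ea_pushL`), `hroom` from `halo_brick` -/
theorem outer0' {δ κ0 : ℝ} {La Om : Set E3} {F : Set (Bx (Fin 3))} (bf : BoxFoam La F δ κ0)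
    (hO : IsOpen Om) (hF : F.Countable) {X : Set F} (M : MD E3 3 X) (Q : F → CB E3 3) (k0 : F → ℕ)
    (hQ : ∀ j : X, M.Q j = Q j) {p : ℝ} {f : E3 → E3} {D D' : E3 → E3 →L[ℝ] E3} {KS : ℝ≥0∞}
    (hS : ∀ S ⊆ Om, MeasurableSet S →
      (∀ c, c ∉ X → (∀ x ∈ Om, f x ∈ (brk' bf c).I → x ∈ S) ∨
        (∀ x ∈ Om, f x ∈ (brk' bf c).I → x ∉ S)) →
      (∫⁻ x in S, ‖D' x‖ₑ ^ p) ≤ KS * (∫⁻ x in S, ‖D x‖ₑ ^ p))
    (hroom : ∀ c ∈ X, ∀ x ∈ (Q c).N, ∀ k, c.1.lo k < f x k ∧ f x k < c.1.hi k) :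
    ∫⁻ x in Om \ NmB M (fun j : X => Tw (Q j) (k0 j)), ‖D' x‖ₑ ^ p ≤
      KS * (Jn p Om D F X Q + ∑' c : X, Ln p D F Q k0 c) := by
  refine (hS _ sdiff_subset (hO.measurableSet.diff (isOpen_NmB M _).measurableSet)
    fun c hc => ?_).trans (mul_le_mul' le_rfl (int_out hF M Q k0 hQ Om D))
  left
  intro x hx hfx
  refine ⟨hx, fun hn => ?_⟩
  obtain ⟨j, hj⟩ := mem_iUnion.1 hn
  have h0 : x ∈ (Q j).N := by
    have h1 := interior_subset hj 0 (zero_mem_Tw _ _)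
    rwa [sub_zero, hQ j] at h1
  have h1 := hroom j j.2 x h0
  have hne : (c : F) ≠ j.1 := fun h => hc (by rw [h]; exact j.2)
  refine (foam0' bf).disj c j.1 hne (f x) ?_ fun k => h1 k
  intro k
  exact ⟨(hfx k).1.le, (hfx k).2.le⟩

/-- **the outer term of `GenOut`, in the letters of `Pre0`** -/
theorem outer0 {p : ℝ} (hp : 1 ≤ p) (κ0 c0 δ Rc Cs : ℝ) : ∃ C2 : ℝ≥0,
    ∀ {La Om : Set E3} {F : Set (Bx (Fin 3))} (bf : BoxFoam La F δ κ0), IsOpen Om → F.Countable →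
    ∀ {X : Set F} (M : MD E3 3 X) (Q : F → CB E3 3) (k0 : F → ℕ), (∀ j : X, M.Q j = Q j) →
    ∀ {f : E3 → E3} {D D' : E3 → E3 →L[ℝ] E3},
      (∀ S ⊆ Om, MeasurableSet S →
        (∀ c, c ∉ X → (∀ x ∈ Om, f x ∈ (brk' bf c).I → x ∈ S) ∨
          (∀ x ∈ Om, f x ∈ (brk' bf c).I → x ∉ S)) →
        (∫⁻ x in S, ‖D' x‖ₑ ^ p) ≤ KL κ0 c0 p * (∫⁻ x in S, ‖D x‖ₑ ^ p)) →
      (∀ c ∈ X, ∀ x ∈ (Q c).N, ∀ k, c.1.lo k < f x k ∧ f x k < c.1.hi k) →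
    (ENNReal.ofReal Cs * Kl δ Rc) ^ p * (COu p *
        ∫⁻ x in Om \ NmB M (fun j : X => Tw (Q j) (k0 j)), ‖D' x‖ₑ ^ p) ≤
      C2 * (Jn p Om D F X Q + ∑' c : X, Ln p D F Q k0 c) := by
  have hw : (ENNReal.ofReal Cs * Kl δ Rc) ^ p ≠ ∞ := by
    refine ENNReal.rpow_ne_top_of_nonneg (by linarith) (ENNReal.mul_ne_top ENNReal.ofReal_ne_top ?_)
    unfold Kl
    exact ENNReal.ofReal_ne_top
  have hc : (ENNReal.ofReal Cs * Kl δ Rc) ^ p * (COu p * KL κ0 c0 p) ≠ ∞ :=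
    ENNReal.mul_ne_top hw (ENNReal.mul_ne_top (COu_ne_top (by linarith)) (KL_lt_top hp).ne)
  refine ⟨((ENNReal.ofReal Cs * Kl δ Rc) ^ p * (COu p * KL κ0 c0 p)).toNNReal, ?_⟩
  intro La Om F bf hO hF X M Q k0 hQ f D D' hS hroom
  rw [ENNReal.coe_toNNReal hc]
  calc (ENNReal.ofReal Cs * Kl δ Rc) ^ p * (COu p *
        ∫⁻ x in Om \ NmB M (fun j : X => Tw (Q j) (k0 j)), ‖D' x‖ₑ ^ p)
      ≤ (ENNReal.ofReal Cs * Kl δ Rc) ^ p * (COu p *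
        (KL κ0 c0 p * (Jn p Om D F X Q + ∑' c : X, Ln p D F Q k0 c))) := by
        gcongr
        exact outer0' bf hO hF M Q k0 hQ hS hroom
    _ = _ := by ring

end

end Crest.Agent.R096.Gz_222
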