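import Crest.Agent.R096.Mdd8_360
import Crest.Agent.R096.Mfa3_880

/-!
Row 96 (S0127), helper360.  MD-DATA, part 9 (second half of [RM] of 365 #11372): pre-translated blocks
`(Q0 j).tr (w0 j)`, `w0 j` dyadic.

* `tr_tr`, `trA_trA`, `trA_zero`; `kc_tr`, `n_tr`, `uA_tr`, **`cor_tr'`**, `img_tr`, `sm_tr`;
* **`rt_tr`**, **`exists_RD_tr`**, **`rwOf`** : rational data of the translated blocks.
-/

set_option autoImplicit false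
set_option linter.style.longLine false
set_option linter.unusedSectionVars false

open MeasureTheory Set Filter Topology Metric

namespace Crest.Agent.R096.Mdd_360

open Crest.Agent.R096.Bsp_628 Crest.Agent.R096.Brk5_582
open Crest.Agent.R096.SkC1_961 (E3 FoamD Hom3)
open Crest.Agent.R096.EaX_766 (cbx RatA)
open Crest.Agent.R096.Bxs_627 (ctr CoriE)
open Crest.Agent.R096.Mal_874 Crest.Agent.R096.Msh_810
open Crest.Agent.R096.Fns_360 Crest.Agent.R096.Mfa_880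

noncomputable section

/-! ### translations compose -/

theorem tr_tr {E : Type*} [NormedAddCommGroup E] [NormedSpace ℝ E] {n : ℕ} (Q : CB E n) (v w : E) :
    (Q.tr v).tr w = Q.tr (v + w) := by
  unfold CB.tr
  simp only [CB.mk.injEq, true_and, and_true]
  rw [map_add, add_assoc]

theorem trA_trA (A : E3 ≃ᵃ[ℝ] E3) (v w : E3) : trA (trA A v) w = trA A (v + w) := by
  ext1 x
  rw [trA_apply, trA_apply, trA_apply]
  congr 1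
  abel

theorem trA_zero (A : E3 ≃ᵃ[ℝ] E3) : trA A 0 = A := by
  ext1 x
  rw [trA_apply, sub_zero]

theorem kc_tr {Q : CB E3 3} {A : E3 ≃ᵃ[ℝ] E3} {c : Bx (Fin 3)} {lam : ℝ} (h : Q.Kc = A ⁻¹' cbx c lam)
    (v : E3) : (Q.tr v).Kc = trA A v ⁻¹' cbx c lam := by
  ext x
  rw [Q.mem_Kc_tr, h, mem_preimage, mem_preimage, trA_apply]

theorem n_tr {Q : CB E3 3} {A : E3 ≃ᵃ[ℝ] E3} {S : Set E3} (h : Q.N ⊆ A ⁻¹' S)
    (v : E3) : (Q.tr v).N ⊆ trA A v ⁻¹' S := by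
  intro x hx
  rw [Q.mem_N_tr] at hx
  have := h hx
  rw [mem_preimage] at this ⊢
  rwa [trA_apply]

theorem uA_tr {Q : CB E3 3} {A : E3 ≃ᵃ[ℝ] E3} {u : ℝ}
    (h : ∀ x y, ‖A y - A x‖ ≤ u * dist (Q.ψ x) (Q.ψ y)) (v x y : E3) :
    ‖trA A v y - trA A v x‖ ≤ u * dist ((Q.tr v).ψ x) ((Q.tr v).ψ y) := by
  rw [trA_apply, trA_apply]
  refine (h (x - v) (y - v)).trans (le_of_eq ?_)
  change u * dist (Q.ψ (x - v)) (Q.ψ (y - v)) = u * dist (Q.ψ x) (Q.ψ y)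
  rw [map_sub, map_sub, dist_sub_right]

/-- the core statement for a map translated by a vector of the box `|lin A v| ≤ τ lam side` -/
theorem cor_tr' {Om : Set E3} {f : E3 → E3} {A : E3 ≃ᵃ[ℝ] E3} {c : Bx (Fin 3)} {lam κ1 κ2 κ1' κ2' : ℝ}
    (h : CoriE Om f A c lam κ1 κ2) {v : E3} (h1 : ‖A.linear v‖ ≤ (κ1' - κ1) * (lam * c.sz))
    (h2 : ∀ k, |A.linear v k| ≤ (κ2 - κ2') * (lam * c.side k)) : CoriE Om f (trA A v) c lam κ1' κ2' :=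
  CoriE.tr h h2 h1

variable {F : Set (Bx (Fin 3))} {X : Set F}

/-- the translated maps: closeness over the thickened blocks -/
theorem img_tr {M : MD E3 3 X} {Om : Set E3} {f : E3 → E3} {A : F → E3 ≃ᵃ[ℝ] E3} {lam : F → ℝ}
    {κ τ : ℝ} (h : Img M Om f A lam κ) {w0 : F → E3}
    (hw : ∀ c : X, ‖(A c).linear (w0 c)‖ ≤ τ * (lam c * c.1.1.sz)) :
    Img M Om f (fun c => trA (A c) (w0 c)) lam (κ + τ) := by
  intro c x hx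
  obtain ⟨h1, h2, h3⟩ := h c x hx
  refine ⟨h1, h2, ?_⟩
  have e : f x - trA (A c) (w0 c) x = (f x - A c x) + (A c).linear (w0 c) := by
    rw [← trA_sub (A c) (w0 c) x]; abel
  rw [e]
  refine (norm_add_le _ _).trans ?_
  have := hw c
  linarith

theorem sm_tr {M : MD E3 3 X} {A : F → E3 ≃ᵃ[ℝ] E3} {lam : F → ℝ} {τ : ℝ} (h : Sm M A lam τ)
    (w0 : F → E3) : Sm M (fun c => trA (A c) (w0 c)) lam τ := by
  intro c v hv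
  have h1 := h c v hv
  simp only [trA_linear]
  exact h1

/-! ### rational data -/

/-- **the corner of the translated block** -/
theorem rt_tr {E : Type*} [NormedAddCommGroup E] [NormedSpace ℝ E] {n : ℕ} {φ : E ≃L[ℝ] (Fin n → ℝ)}
    {Q : CB E n} {B : Fin n → Fin n → ℤ} {d : ℕ} (hB : Rt φ Q.ψ B d) {κ0 κ : ℕ} (hκ : κ0 ≤ κ)
    (ha : ∀ m, ∃ c : ℤ, 2 ^ κ0 * (d : ℝ) * Q.a' m = c) {w0 : E}
    (hw : ∀ l, ∃ z : ℤ, 2 ^ κ * φ w0 l = z) (m : Fin n) :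
    ∃ c : ℤ, 2 ^ κ * (d : ℝ) * (Q.tr w0).a' m = c := by
  obtain ⟨c, hc⟩ := ha m
  choose z hz using hw
  refine ⟨2 ^ (κ - κ0) * c + ∑ l, B m l * z l, ?_⟩
  change 2 ^ κ * (d : ℝ) * (Q.a' m + Q.ψ w0 m) = _
  have e1 : (2 : ℝ) ^ κ = 2 ^ (κ - κ0) * 2 ^ κ0 := by rw [← pow_add, Nat.sub_add_cancel hκ]
  have e2 : 2 ^ κ * ((d : ℝ) * Q.ψ w0 m) = ∑ l, (B m l : ℝ) * z l := by
    rw [hB w0 m, Finset.mul_sum]
    refine Finset.sum_congr rfl fun l _ => ?_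
    rw [← hz l]
    ring
  have e3 : 2 ^ κ * (d : ℝ) * (Q.a' m + Q.ψ w0 m) =
      2 ^ (κ - κ0) * (2 ^ κ0 * (d : ℝ) * Q.a' m) + 2 ^ κ * ((d : ℝ) * Q.ψ w0 m) := by
    rw [e1]; ring
  rw [e3, e2, hc]
  push_cast
  ring

/-- **rational data of the translated blocks**; the matrices and denominators are those of `Q0` -/
theorem exists_RD_tr {J : Type*} (M : MD E3 3 J) {Q0 : J → CB E3 3} {w0 : J → E3}
    (hQ : M.Q = fun j => (Q0 j).tr (w0 j)) {κ0 κ : J → ℕ} (hκ : ∀ j, κ0 j ≤ κ j)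
    {Bm : J → Fin 3 → Fin 3 → ℤ} {d : J → ℕ} (hd : ∀ j, 0 < d j)
    (hrt : ∀ j, Rt M.φ (Q0 j).ψ (Bm j) (d j))
    (ha : ∀ j m, ∃ c : ℤ, 2 ^ κ0 j * (d j : ℝ) * (Q0 j).a' m = c)
    (hw : ∀ j l, ∃ z : ℤ, 2 ^ κ j * M.φ (w0 j) l = z)
    (Bn : J → ℕ) (B1 : ∀ j, 1 ≤ Bn j)
    (hB : ∀ j i, ∀ p ∈ (Q0 j).S.GG i, ∀ l, |p.1 l| ≤ Bn j)
    (R0 : J → ℝ) (R1 : ∀ j, 1 ≤ R0 j)
    (hR : ∀ j i, i ≠ (Q0 j).S.core → ∀ u ∈ ZP ((Q0 j).S.GG i), ∀ v ∈ ZP ((Q0 j).S.GG i), ∀ l,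
      |v l - u l| ≤ R0 j) {c : J → ℝ} (hc1 : ∀ j, 1 ≤ c j) (hcn : ∀ j, Cn M.φ (Q0 j).ψ (c j)) :
    ∃ X : RD M, X.A = Bm ∧ X.d = d ∧ X.c = c ∧ X.B = Bn ∧ X.R = R0 ∧
      ∀ j m, ∃ c : ℤ, 2 ^ κ j * (X.d j : ℝ) * (M.Q j).a' m = c := by
  obtain ⟨φ, D0, hC, Q, r, h1, h2, h3, h4⟩ := M
  obtain rfl : Q = fun j => (Q0 j).tr (w0 j) := hQ
  exact ⟨⟨Bm, d, hd, hrt, c, hc1, hcn, Bn, B1, hB, R0, R1, hR⟩, rfl, rfl, rfl, rfl, rfl,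
    fun j m => rt_tr (hrt j) (hκ j) (ha j) (hw j) m⟩

/-- **`RW` of 880**: the lists lie in the grid of scale `κ' j`, `κ j ≤ κ' j ≤ k j` -/
def rwOf {E : Type*} [NormedAddCommGroup E] [NormedSpace ℝ E] {n : ℕ} {J : Type*} {M : MD E n J}
    (X : RD M) {κ : J → ℕ} (ha : ∀ j m, ∃ c : ℤ, 2 ^ κ j * (X.d j : ℝ) * (M.Q j).a' m = c)
    {k κ' : J → ℕ} (h0 : ∀ j, κ j ≤ κ' j) (hκ : ∀ j, κ' j ≤ k j) {W : J → Set E}
    (hW : ∀ j, ∀ w ∈ W j, ∀ l, ∃ z : ℤ, 2 ^ κ' j * M.φ w l = z) : RW X k W where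
  κ := κ'
  hκ := hκ
  h0 j m := by
    obtain ⟨c, hc⟩ := ha j m
    refine ⟨2 ^ (κ' j - κ j) * c, ?_⟩
    have e : (2 : ℝ) ^ κ' j = 2 ^ (κ' j - κ j) * 2 ^ κ j := by
      rw [← pow_add, Nat.sub_add_cancel (h0 j)]
    rw [e]
    push_cast
    rw [← hc]
    ring
  hW := hW

end

end Crest.Agent.R096.Mdd_360
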