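/-
helper222, row 96, EA0 (p <= 2): **`premesh_of_genout`**: 112's `GenOut` for the blocks of EA0 ⟹
348's `PreMesh0` (through 348's `preMesh0_of`).
-/
import Mathlib
import Crest.Agent.R096.Gz3_222
import Crest.Agent.R96.Ea0g_348

set_option autoImplicit false
set_option linter.unusedSectionVars false
set_option linter.unusedVariables false

open MeasureTheory Set Filter Metric
open scoped Topology ENNReal NNReal

namespace Crest.Agent.R096.Gz_222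

open Crest.Agent.R096.Msh_715 Crest.Agent.R096.Mal_874 Crest.Agent.R096.Msh_810
  Crest.Agent.R096.Mfi_290
open Crest.Agent.R096.Bsp_628 Crest.Agent.R096.Brk1_582 Crest.Agent.R096.Brk3_582
open Crest.Agent.R096.Brk5_582
open Crest.Agent.R96.Push_899
open Crest.Agent.R096.SkC1_961 (E3 Cfg)
open Crest.Agent.R096.EaX_766 (lin cbx Kor)
open Crest.Agent.R096.Ea0_961 (Ed InS Blk Tw Ly)
open Crest.Agent.R096.Pmc_112 (Gd' Kl)
open Crest.Agent.R096.Mfa_880 (NmB)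
open Crest.Agent.R96.Ea0p_348 (Sn Ln Jn PreMesh0 preMesh0_of)
open Crest.Agent.R96.EaCore_348 (EE Ord Macro)
open Crest.Agent.R96.EaP_899 (XD fX cm)
open Crest.Agent.R096.Pgn_112 (COu ZD)

noncomputable section

/-- **from 112's `GenOut` to 348's `PreMesh0`** -/
theorem premesh_of_genout {δ κ0 R c0 : ℝ} {La : Set E3} {F : Set (Bx (Fin 3))}
    {bf : BoxFoam La F δ κ0} {cmp : Cmp F R} {p : ℝ} {C : Set (Set E3) → ℝ} {κp κ1 κ2 : ℝ}
    {Om : Set E3} {f : E3 → E3} {D D' : E3 → E3 →L[ℝ] E3} {X : Set F} {A : F → E3 ≃ᵃ[ℝ] E3}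
    {lam : F → ℝ} {Q : F → CB E3 3} {k0 : F → ℕ} (hk : ∀ c, (Q c).kc ≤ k0 c) {er : F → ℝ≥0∞}
    {Gd Bx' : X → Set E3} {z zq : F → E3} {Mc : F → ℕ} {H : XD bf c0 X lam z} {M : MD E3 3 X}
    {Zd : ZD F X} {Cs : ℝ} {C1 C2 CA : ℝ≥0} {ε : ℝ≥0∞} {εb : F → ℝ≥0∞} {B : X → ℝ≥0∞}
    (hcore : ∀ c ∈ X, (Q c).Kc = A c ⁻¹' cbx c.1 (lam c)) (hQ : ∀ j : X, M.Q j = Q j)
    (hGd : ∀ c : X, Gd c ⊆ Tw (Q c.1) (k0 c.1))
    (hout : (ENNReal.ofReal Cs * Kl δ R) ^ p * (COu p * ∫⁻ x in Om \ NmB M Bx', ‖D' x‖ₑ ^ p) ≤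
      C2 * (Jn p Om D F X Q + ∑' c : X, Ln p D F Q k0 c))
    (hB : ∀ c : X, B c ≤ C1 * (Sn p F A lam Q c + er c) + CA * Ln p D F Q k0 c)
    (hZR : ∀ c, 0 < Zd.R c)
    (hZf : ∀ c : {c // c ∉ X}, ∀ y ∈ closedBall (Zd.x c) (2 * Zd.R c),
      ∀ j, c.1.1.lo j < f y j ∧ f y j < c.1.1.hi j)
    (h : Pgn_112.GenOut (fX bf cmp H) Om f D' p κp κ1 κ2 X A lam zq Mc M Bx' Gd B Zd C Cs ε
      (fun c : X => εb c)) :
    PreMesh0 (c0 := c0) bf cmp p C κp κ1 κ2 Om f D X A lam Q k0 er (C1 + C2) (CA + C2) ε εb := by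
  obtain ⟨v, Dd, h1, h2, h3, h4, h5, Qb, q1, q2, q3, q4, q5, q6⟩ := h
  have hR : ∀ c, closedBall (Zd.x c) (7 / 8 * Zd.R c) ⊆ closedBall (Zd.x c) (2 * Zd.R c) :=
    fun c => closedBall_subset_closedBall (by have := hZR c; linarith)
  have key : Crest.Agent.R96.Ea0p_348.GenOut bf cmp p C κp κ1 κ2 Om f X A lam Q Gd z H (1 : ℝ≥0)
      ((ENNReal.ofReal Cs * Kl δ R) ^ p * (COu p * ∫⁻ x in Om \ NmB M Bx', ‖D' x‖ₑ ^ p)) B ε
      (fun c : X => εb c) := by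
    refine ⟨Dd, Pmc_112.lP δ R D', v, {c // c ∉ X}, Zd.x, fun c => 5 / 8 * Zd.R c,
      fun c => 7 / 8 * Zd.R c, fun c => c.1, Qb, h2, h3, ?_, ?_, ?_, ?_, ?_⟩
    · intro c y hy j
      exact hZf c y (hR c hy) j
    · intro c
      obtain ⟨g1, g2, -, g3, -⟩ := h4 c
      refine ⟨h1 c, ?_, g2, g3⟩
      rw [g1, hQ c]
    · refine h5.trans (le_of_eq ?_)
      rw [ENNReal.coe_one, one_mul]
      rfl
    · exact fun c c' hcc => q1 c c' hcc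
    · intro c
      refine ⟨fun i hi => q4 c i hi, ?_, ?_, ?_⟩
      · intro i hi x hx k hxk
        exact q5 c i hi x (I_sub_P _ hx) k (hR k hxk)
      · rintro x ⟨hx, hx'⟩
        rw [← hQ c] at hx hx'
        obtain ⟨i, hi, hxi⟩ := q3 c x hx hx'
        exact mem_iUnion₂.2 ⟨i, hi, hxi⟩
      · refine (q6 c).trans (le_of_eq ?_)
        rw [ENNReal.coe_one, one_mul]
  have hfin := preMesh0_of (p := p) (D := D) (Q := Q) (k0 := k0) hk (er := er) hcore hGd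
    (KO := C2) hout (C1g := C1) (CAg := CA) hB key
  have e1 : (1 : ℝ≥0) * (C2 + C1) = C1 + C2 := by rw [one_mul, add_comm]
  have e2 : (1 : ℝ≥0) * (C2 + CA) = CA + C2 := by rw [one_mul, add_comm]
  rw [e1, e2] at hfin
  exact hfin

end

end Crest.Agent.R096.Gz_222
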