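import Crest.Agent.R096.Pgn7_112

/-!
# Row 96 (S0127), helper112.  The X-generic end theorem, part 8: `pre_gen`
-/

set_option autoImplicit false
set_option linter.style.longLine false

open MeasureTheory Set Filter Metric
open scoped Topology ENNReal

namespace Crest.Agent.R096.Pgn_112

open Crest.Agent.R096.Msh_715 Crest.Agent.R096.Msh_810 Crest.Agent.R096.Cut_874
  Crest.Agent.R096.Mal_874
open Crest.Agent.R096.SkC1_961 (E3 Cfg FoamD Hom3)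
open Crest.Agent.R096.Bsp_628 Crest.Agent.R096.Brk5_582
open Crest.Agent.R096.Ls_222 (Edg ea ev eIn mem_eIn Cl)
open Crest.Agent.R096.Der_764 (OmH)
open Crest.Agent.R096.Mbf_337
open Crest.Agent.R096.Tms_582
open Crest.Agent.R096.Er_594 (SH3)
open Crest.Agent.R096.Mfa_880
open Crest.Agent.R096.Wd_120 (CoreAt)
open Crest.Agent.R096.Fns_360 (trA)
open Crest.Agent.R96.Pm_199
open Crest.Agent.R96.Sob4_199 (VWD)
open Crest.Agent.R96.En10_199 (P3)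
open Crest.Agent.R96.EaCore_348 (EE bt)
open Crest.Agent.R96.EaPost_348 (Geo)
open Crest.Agent.R96.Eam_466 (TLAt FineX InB mix_tmesh locF_of_tl)
open Crest.Agent.R96.Zpatch_348 (ZIn lv)
open Crest.Agent.R096.Pmc_112 (Mok Gd' Bk Kl lP PreOut premach EE_le EE_leQ ent_le_Bk)

noncomputable section

theorem two_q : (1 / 4 + 1 / 4 : ℝ≥0∞) = 1 / 2 := by
  rw [← ENNReal.add_div]
  rw [show (1 + 1 : ℝ≥0∞) = 2 by norm_num]
  rw [ENNReal.div_eq_div_iff (by norm_num) (by norm_num) (by norm_num) (by norm_num)]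
  norm_num

/-- **`pre_gen`**: from the block data (with (B1), (B2), (B3)) and the zones: one decorated mesh with
everything the machine needs, the total energy and the energies of the blocks. -/
theorem pre_gen {δ κ0 Rc c0 : ℝ} {La Om : Set E3} {Φ : FoamD δ κ0 Rc c0 La}
    {f : E3 → E3} {Df D' : E3 → E3 →L[ℝ] E3} {p κp κ1 κ2 : ℝ} (hO : IsOpen Om) (hn : Om.Nonempty)
    (hLa : IsOpen La) (hδ : 0 < δ) (hR : 0 < Rc) (hf : Hom3 f Om La) (hSH : SH3 p Om La f Df)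
    (hDm : ∀ v, Measurable fun y => D' y v)
    (hD : ∀ l, VWD (OmH Φ f Om) volume (fun x => P3 (Φ.Psi (f x)))
      (fun x => P3 (D' x (Pi.single l 1))) (Pi.single l (1:ℝ)))
    (hfin : ∫⁻ x in Om, ‖D' x‖ₑ ^ p ≠ ∞) (hp : 1 ≤ p) (hκp : 0 < κp) (hκp1 : κp ≤ 1)
    (hκ2 : 0 ≤ κ2) (hκ : κ1 * κ0 < κ2) {X : Set Φ.F} {A : Φ.F → E3 ≃ᵃ[ℝ] E3} {lam : Φ.F → ℝ}
    {z : Φ.F → E3} {Mc : Φ.F → ℕ} {M : MD E3 3 X} {D : RD M} {k0 : X → ℕ}
    {hk0 : ∀ j, (M.Q j).kc ≤ k0 j} {κr : X → ℕ} {Bx Gd : X → Set E3} {B : X → ℝ≥0∞}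
    {Zd : ZD Φ.F X} {C : Set (Set E3) → ℝ} (hC0 : ∀ 𝒦, 0 ≤ C 𝒦) {Cs : ℝ}
    (hCs : ∀ 𝒦 ∈ simL (N0 3) 1 2, C 𝒦 ≤ Cs) {Cm : ∀ j : X, Mfi_290.Pt (M.Q j) ⊕ ℕ → ℝ}
    (hCm : ∀ j c, ∀ 𝒦 ∈ Mfi_290.qSh M D j (k0 j) (hk0 j) c, C 𝒦 ≤ Cm j c)
    (hOm : M.φ ⁻¹' M.D0.Om = Om)
    (G : GenIn Φ f D' p κp κ1 κ2 X A lam z Mc M D k0 hk0 κr Bx Gd
      (fun j c => (ENNReal.ofReal (Cm j c) * Kl δ Rc) ^ p) B Zd)
    {ε : ℝ≥0∞} (hε : ε ≠ 0) {εb : X → ℝ≥0∞} (hεb : ∀ j, εb j ≠ 0) :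
    GenOut Φ Om f D' p κp κ1 κ2 X A lam z Mc M Bx Gd B Zd C Cs ε εb := by
  classical
  subst hOm
  have hp0 : 0 ≤ p := by linarith
  have hcF : Countable Φ.F := Φ.bf.countable.to_subtype
  have hcX : Countable X := cX_of Φ X
  have hV : ∀ j, Bornology.IsBounded (Gd j) := by
    intro j
    refine (isBounded_closedBall (x := (0 : E3)) (r := M.r j)).subset fun s hs => ?_
    have h1 : ‖M.φ s‖ ≤ M.r j := G.Bxs j (G.Gds j hs)
    rw [G.φ] at h1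
    rw [mem_closedBall_zero_iff]
    exact h1
  obtain ⟨κ, W, w1, w2, w3, w4⟩ := Crest.Agent.R96.Gj_872.exists_dyadic_lists
    (μ := (volume : Measure E3)) M.φ (A := closedBall (0 : E3) 1)
    measurableSet_closedBall (measure_closedBall_pos volume (0 : E3) one_pos).ne'
    isBounded_closedBall G.Gdm G.Gd0 hV κr (θ := 1 / 4) (by norm_num)
  set I := mkP G hn κ w1 W w2 (fun j w hw => (w3 j w hw).1) with hI
  have hcκ : Countable I.κ := I.countable_κ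
  obtain ⟨kk, hkk⟩ := I.exists_sc
  -- the constants of the shapes
  have hwall : ∀ j : X, ∃ b : ℝ, ∀ 𝒦 ∈ simL (NR (D.A j) (D.d j)) (D.d j) (D.c j), C 𝒦 ≤ b := by
    intro j
    exact exists_bd C ((I.ins (hkk kk fun _ => le_rfl)).mf.shf
      ((I.ins (hkk kk fun _ => le_rfl)).kOw j))
  choose Cw hCw using hwall
  set Cf : I.κ → ℝ := Cfun I 0 Cs Cw Cm Cw with hCf
  set Kc : I.κ → ℝ≥0∞ := fun c => (ENNReal.ofReal (Cf c) * Kl δ Rc) ^ p with hKc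
  have hKct : ∀ c, Kc c ≠ ∞ := fun c => ENNReal.rpow_ne_top_of_nonneg hp0
    (ENNReal.mul_ne_top ENNReal.ofReal_ne_top ENNReal.ofReal_ne_top)
  have hε2 : ε / 2 ≠ 0 := (ENNReal.half_pos hε).ne'
  obtain ⟨d, hd0, hd⟩ := ENNReal.exists_pos_sum_of_countable' hε2 I.κ
  set ex : I.κ → ℝ≥0∞ := Cfun I 1 1 (fun _ => 1) (fun _ _ => 1) εb with hex
  have hex0 : ∀ c, ex c ≠ 0 := by
    intro c
    rcases c with _ | (⟨⟩ | j) | (⟨j, c⟩ | ⟨j, ⟨⟩⟩)
    · exact one_ne_zero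
    · exact one_ne_zero
    · exact one_ne_zero
    · exact one_ne_zero
    · exact hεb j
  have h1φ : ‖(I.M.φ : E3 →L[ℝ] (Fin 3 → ℝ))‖ ≤ 1 := by
    have : I.M.φ = ContinuousLinearEquiv.refl ℝ E3 := G.φ
    rw [this]
    exact ContinuousLinearMap.norm_id_le
  have hcφ : ∀ x y : E3, dist x y ≤ dist (I.M.φ x) (I.M.φ y) := by
    have : I.M.φ = ContinuousLinearEquiv.refl ℝ E3 := G.φ
    intro x y
    rw [this]
    exact le_rfl
  obtain ⟨kw, m, lw, hm0, l0, l1, l2, -, hO', hoth, hm⟩ := I.outer_num h1φ hcφ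
    (CA := CAu) CAu_spec hDm hp hfin (θ := 1 / 4) (by norm_num)
    (by norm_num) Kc hKct hε2 (εb := fun c => min (d c) (ex c))
    (fun c => (lt_min (hd0 c) (pos_iff_ne_zero.2 (hex0 c))).ne')
  set μ' : I.κ → ℝ≥0∞ := fun c => if c = I.kO then 0 else m c with hμ'
  have hμ1 : ∀ c : I.κ, c ≠ I.kO → m c ≤ μ' c := by
    intro c hc
    rw [hμ']
    simp only [if_neg hc]
    exact le_rfl
  have hμ2 : ∑' c : I.κ, Kc c * (lw c * μ' c) ≤ ε / 2 := by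
    refine le_trans (ENNReal.tsum_le_tsum fun c => ?_) hd.le
    by_cases hc : c = I.kO
    · have : μ' c = 0 := if_pos hc
      rw [this, mul_zero, mul_zero]
      exact bot_le
    · have : μ' c = m c := if_neg hc
      rw [this]
      exact (hoth c hc).trans (min_le_left _ _)
  have hne : ∀ j : X, I.kIw j ≠ I.kO := by
    intro j h9
    have h10 := Option.some_injective _ h9
    cases h10
  -- the scales at the walls
  obtain ⟨kZ, hkZ⟩ := G.Z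
  set k : X → ℕ := fun j => max (kk j) (max (kw j) (kZ j)) with hk
  have hSc : I.Sc k := hkk k fun j => le_max_left _ _
  have hz : ZOk (I.ins hSc) Zd := zok G hSc (hkZ k hSc.sc fun j =>
    (le_max_right _ _).trans (le_max_right _ _))
  have hmk := hm k hSc fun j => (le_max_left _ _).trans (le_max_right _ _)
  set Zi := zin (I.ins hSc) Zd hz with hZi
  -- the selection
  obtain ⟨A', h1, -, h3, h4⟩ := premach hO hLa hδ hR hf Zi.mf hDm hD (κ3 := 8) hκp hκp1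
    (μ := κp / 64) le_rfl le_rfl hκ2 hκ hp0 (Gd := Gd) (fun j => G.Gds j) (θ₁ := 1 / 4)
    (θ₂ := 1 / 4) w4 (m := m) (lam := lw) hm0
    (fun c hc => (le_of_eq (lintegral_congr fun a => Zi.mf_EnC (Gd' D') p c a)).trans (hmk c hc))
    l0 l1 l2 (P' := fun _ => True) (ae_of_all _ fun _ _ => trivial)
    (ae_mok hz hO hSH G.xO G.tl (Gd := Gd) (fun a w hw hG => b1_ins G hSc hw hG)
      (fun a w hw hG hC => b2_ins G hSc hz hw hG hC))
  have hAne : A'.Nonempty := by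
    by_contra h
    rw [not_nonempty_iff_eq_empty] at h
    rw [h, sdiff_empty, two_q] at h3
    have h5 : (1 / 2 : ℝ≥0∞) * volume Zi.mf.A < volume Zi.mf.A := by
      rw [one_div, mul_comm, ← div_eq_mul_inv]
      exact ENNReal.half_lt_self Zi.mf.A0 Zi.mf.A1
    exact absurd h3 (not_le.2 h5)
  obtain ⟨a, ha⟩ := hAne
  obtain ⟨-, w, hw, hG, hP, hb1, hb2⟩ := h4 a ha
  -- the constants of all classes
  have hCall : ∀ c, ∀ 𝒦 ∈ Zi.mf.Sh c, C 𝒦 ≤ Cf c := by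
    have : ∀ c, ∀ 𝒦 ∈ (I.ins hSc).mf.Sh c, C 𝒦 ≤ Cf c := by
      refine (I.ins hSc).cases ?_ ?_ ?_ ?_ ?_
      · intro 𝒦 h
        exact h.elim
      · exact hCs
      · exact hCw
      · exact hCm
      · exact hCw
    exact this
  have hBk : ∀ c, Zi.mf.EnT (Gd' D') p a w hw c ≤ Bk Zi.mf D' p lw m a w c :=
    fun c => ent_le_Bk hb1 hb2 c
  refine ⟨fun j => a + w j, Zi.dec hw, hG, hP, Zi.geo hw, fun c => ⟨?_, rfl, rfl, dif_pos c.2, rfl⟩,
    ?_, Qb hz hw, fun j j' hjj => Qb_disj hz hw hjj, fun j i hi => Qb_sub hz hw hi,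
    fun j x hx hxk => Qb_cov hz hw hx hxk, fun j i hi => Qb_ord hz hw hi,
    fun j i hi x hx c => Qb_off hz hw hi hx c, fun j => ?_⟩
  · have h5 := coreAt_zin hz hw c.2
    exact h5.tile
  · refine (EE_le Zi.mf hC0 hCall (Gd' D') (Kl δ Rc) hp0 hw).trans ?_
    refine (ENNReal.tsum_le_tsum fun c => mul_le_mul' le_rfl (hBk c)).trans ?_
    refine (tot_le hz (μ := μ') Kc (fun c _ hc => hμ1 c hc) (ε := ε / 2) hμ2 (B := B)
      (fun j => G.en j (a + w j) (hG j))).trans ?_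
    · have e : (Kc I.kO : ℝ≥0∞) = (ENNReal.ofReal Cs * Kl δ Rc) ^ p := rfl
      have h6 := hO'
      rw [e] at h6
      have h7 : Kc (I.ins hSc).kO * (lw (I.ins hSc).kO * m (I.ins hSc).kO) ≤
          (ENNReal.ofReal Cs * Kl δ Rc) ^ p *
            (COu p * ∫⁻ x in (M.φ ⁻¹' M.D0.Om) \ NmB M Bx, ‖D' x‖ₑ ^ p) + ε / 2 := h6
      calc Kc (I.ins hSc).kO * (lw (I.ins hSc).kO * m (I.ins hSc).kO) + ε / 2 + ∑' j, B j
          ≤ ((ENNReal.ofReal Cs * Kl δ Rc) ^ p *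
            (COu p * ∫⁻ x in (M.φ ⁻¹' M.D0.Om) \ NmB M Bx, ‖D' x‖ₑ ^ p) + ε / 2) + ε / 2 +
              ∑' j, B j := by gcongr
        _ = (ENNReal.ofReal Cs * Kl δ Rc) ^ p *
            (COu p * ∫⁻ x in (M.φ ⁻¹' M.D0.Om) \ NmB M Bx, ‖D' x‖ₑ ^ p) + ∑' j, B j +
              (ε / 2 + ε / 2) := by ring
        _ = _ := by rw [ENNReal.add_halves]
  · have h8 := EE_leQ Zi.mf hC0 hCall (Gd' D') (Kl δ Rc) hp0 hw (Q := Qb hz hw j) (S := Sb (I.ins hSc) j)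
      (fun i _ hi => Qb_cl hz hw hi)
    refine h8.trans ?_
    refine (ENNReal.tsum_le_tsum fun (c : Sb (I.ins hSc) j) =>
      mul_le_mul' le_rfl (hBk c.1)).trans ?_
    refine (blk_le hz (lam := lw) (m := m) (w := w) (a := a) Kc j (B := B j)
      (G.en j (a + w j) (hG j))).trans ?_
    refine add_le_add le_rfl ?_
    exact (hoth (I.kIw j) (hne j)).trans (min_le_right _ _)

end

end Crest.Agent.R096.Pgn_112
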