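import Crest.Agent.R096.Eaz2_663
import Crest.Agent.R096.Gz4_222
import Crest.Agent.R096.Pgn8_112

/-!
# Row 96 (S0127), EA0 (helper663), part 3: **`pre0 : 1 ≤ p → p < 3 → Ea0p_348.Pre0 p`**

`genIn0` (Eaz2) + 112's `pre_gen` (Pgn8) + 222's `premesh_of_genout` (Gz4, over 348's Ea0g).
-/

set_option autoImplicit false
set_option linter.style.longLine false
set_option linter.unusedSectionVars false

open MeasureTheory Set Filter Topology Metric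
open scoped ENNReal NNReal

namespace Crest.Agent.R096.Eaz_663

open Crest.Agent.R096.Bsp_628 Crest.Agent.R096.Brk5_582
open Crest.Agent.R096.SkC1_961 (E3 FoamD Hom3)
open Crest.Agent.R096.EaX_766 (cbx lin Kor)
open Crest.Agent.R096.Bxs_627 (zz)
open Crest.Agent.R096.Mal_874
open Crest.Agent.R096.Ea0_961
open Crest.Agent.R96.EaP_899 (fX XD)
open Crest.Agent.R96.Ea0p_348 (Jn Sn Ln PreMesh0 Pre0)

noncomputable section

/-- **PREMACH FOR `EA0 p`** -/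
theorem pre0 {p : ℝ} (hp : 1 ≤ p) (hp3 : p < 3) : Pre0 p := by
  intro δ κ0 R c0 κ2 Cc Bs hδ hκ0 hR hc0 hcκ hκ2 hκ24 hCc hBs C hC
  obtain ⟨CK, C1g, C2, hCs, HH⟩ := genIn0 hp hp3 δ κ0 R c0 κ2 Cc Bs hδ hκ0 hR hc0 hcκ hκ2 hκ24 hCc
    hBs C
  refine ⟨C1g + C2, ?_⟩
  intro κp κm τ lam1 hκp hκp1 hκm hκmκ hτ hlam1
  obtain ⟨κ1, hκ1, M0, HH⟩ := HH κp κm τ lam1 hκp hκm hτ hlam1
  refine ⟨κ1, hκ1, M0, fun M hM => ?_⟩
  obtain ⟨κw, hκw, HH⟩ := HH M hM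
  refine ⟨κw, hκw, fun Nn => ?_⟩
  obtain ⟨CAg, κt, hκt, hκtτ, HH⟩ := HH Nn
  refine ⟨CAg + C2, κt, hκt, hκtτ, ?_⟩
  intro Om La f D hOm hOb hOc hLa hLb hLc hSH u hu F bf cmp hst X A lam Q k0 hk er hlam hB hI ε hε
    εb hεb
  obtain ⟨zc, H, D', M', Y, k0', hk0', κr, Gd, Zd, g1, g2, g3, g4, g5, g6, g7, G, g8, g9, g10, g11⟩ :=
    HH Om La f D hOm hLa hSH u hu F bf cmp X A lam Q k0 hk er hlam hB hI
  have hout := Pgn_112.pre_gen (Φ := fX bf cmp H) (Df := D) hOm hOc.nonempty hLa hδ (by linarith)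
    hSH.homeo hSH g1 g2 g3 hp hκp hκp1 (by positivity) hκmκ (fun 𝒦 => (hC 𝒦).le) hCs g4 g5 G hε
    (εb := fun c : X => εb c.1) (fun c => hεb c.1 c.2)
  exact Gz_222.premesh_of_genout hk (fun c hc => (hB c hc).core) g6 g8 g11 (fun c => le_rfl) g9 g10 hout

end

end Crest.Agent.R096.Eaz_663
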