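import Crest.Agent.R096.Rop12_441

/-!
# R096 (row 96), ROPES (helper441), part 13: `ropX` of 337's `Front`; deep and far vertices on tiles
outside all cores
-/

set_option autoImplicit false
set_option linter.unusedSectionVars false

open Set Relation Module

namespace Crest.Agent.R096.Rop_441

open Crest.Agent.R096.Brk1_582 Crest.Agent.R096.Brk2_582 Crest.Agent.R096.Brk3_582
  Crest.Agent.R096.Brk5_582 Crest.Agent.R096.Bsp_628 Crest.Agent.R096.Init_543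
  Crest.Agent.R096.Vb_965 Crest.Agent.R096.Msh_715 Crest.Agent.R096.St_147
  Crest.Agent.R096.Seq_213 Crest.Agent.R096.Lm_117 Crest.Agent.R096.Gl_422
  Crest.Agent.R096.SkB_662 Crest.Agent.R096.Cpo_642
  Crest.Agent.R096.Ce_537 Crest.Agent.R096.Agl5_543
  Crest.Agent.R096.Cp_298 Crest.Agent.R096.Gm_298 Crest.Agent.R096.Ac_117
  Crest.Agent.R096.Sla_184 Crest.Agent.R096.Sla_184.Sla Crest.Agent.R096.Kin_527
  Crest.Agent.R096.Vrt_422
open Crest.Agent.R096.SkC1_961 (E3 Hom3 FoamD)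
open Crest.Agent.R096.Mbf_337 (KJ sb)
open Crest.Agent.R096.Gia_537 (Kc Kc_sub Kc_compact Kc_disj Kc_exact)

variable {δ κ0 R c0 : ℝ} {La Om : Set E3} {ι : Type} {Φ : FoamD δ κ0 R c0 La}
  {T : Tiling Om ι} {f g : E3 → E3} {κ1 κ2 s₁ σ : ℝ} {X : Set Φ.F} {J0 J V : Φ.F → Set ι}
  {ct : Φ.F → ι}
  {A : Φ.F → E3 ≃ᵃ[ℝ] E3} {lam : Φ.F → ℝ} {z : Φ.F → E3} {θ : Φ.F → E3 → E3} {φ : Φ.F → E3 → ℝ}
  {ct' : Φ.F → ι} {r₀ : Φ.F → ℝ}
  {κ : Type} {S : Sla T κ}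

/-- points of dimension `≤ 2` of an exact core tile are outside all open cores -/
theorem out_X (hLa : IsOpen La) (hC : Mbf_337.Cores Φ T f κ1 κ2 X J0 J V ct A lam z θ φ) {c : Φ.F}
    (hc : c ∈ X) {x : E3} (hx : x ∈ P (T.H (ct c))) (hd : T.dim x ≤ 2) (d : Φ.F) :
    x ∉ interior (Kc T J d) := by
  by_cases hdc : d = c
  · subst hdc
    rw [Kc_exact hC hc, Csub_487.interior_tile]
    intro h
    have := dim_I h
    have h3 : finrank ℝ E3 = 3 := by simp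
    rw [h3] at this
    omega
  · intro h
    exact disjoint_left.1 (Kc_disj (T := T) (J := J) hLa hC hdc) (interior_subset h)
      (by rw [Kc_exact hC hc]; exact hx)

/-- points of the frontier of a core have dimension `≤ 2` -/
theorem dim_fr {c : Φ.F} (hC : Mbf_337.Cores Φ T f κ1 κ2 X J0 J V ct A lam z θ φ)
    (hc : c ∈ X) {x : E3} (hx : x ∈ frontier (Kc T J c)) : T.dim x ≤ 2 := by
  rw [Kc_exact hC hc] at hx
  have hxP : x ∈ P (T.H (ct c)) := (T.cpt _).isClosed.frontier_subset hx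
  have hxO := T.sub _ hxP
  have h3 : finrank ℝ E3 = 3 := by simp
  by_contra hcon
  have hle : T.dim x ≤ finrank ℝ E3 := Submodule.finrank_le _
  have hV : T.V x = ⊤ := by
    refine Submodule.eq_top_of_finrank_eq ?_
    have : T.dim x = 3 := by omega
    rw [h3]; exact this
  obtain ⟨i, hi⟩ := (T.V_eq_top_iff hxO).1 hV
  by_cases hic : i = ct c
  · subst hic
    rw [← Csub_487.interior_tile] at hi
    exact hx.2 hi
  · exact not_mem_I (T := T) (fun e => hic e.symm) hxP hi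

variable [Nonempty S.T3.Cell] {hH : ∀ c, CoreH S.T3 (S.KK c)} {hne : ∃ c, OutK S.T3 S.KK c}
  {Kq : Type} {Qd : Quads (T.RIdx S.HH ⊕ κ) Φ.F Kq} {Jn : Type} {fam : Jn → Φ.F}
  {s₀ : GSt (mK fr3 hH dis_KK) fam}

/-- the vertex of `lmK` at a vertex of a tile outside all cores -/
theorem vx_o (hK : TinyK X J S) {i : ι} (hi : i ∉ KorJ Φ J) {v : E3} (hv : v ∈ P (T.H i))
    (hd : T.dim v = 0) :
    ∃ hO : OutK S.T3 S.KK (edC S.T3 v), (edC S.T3 v).dim = 0 ∧ (edC S.T3 v).set = {v} ∧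
      oc (edC S.T3 v) hO ≤ tcK S.T3 S.KK (Sum.inl (S.ot i (hK.subK.out hi))) := by
  have hvO : v ∈ Om := T.sub _ hv
  have hiS : ∀ c, ¬ P (T.H i) ⊆ S.K c := hK.subK.out hi
  have h1 : S.T3.dim v = 0 := by rw [(T3_eq hiS hv).2.2, hd]
  have hset : (edC S.T3 v).set = {v} := by
    rw [edC_set hvO]
    exact S.T3.cc_eq_singleton (S.T3.dim_eq_zero_iff.1 h1)
  have hv' : v ∈ P (S.T3.H (S.ot i hiS)) := by rw [ot_P]; exact hv
  have hO : OutK S.T3 S.KK (edC S.T3 v) := ⟨S.ot i hiS, not_KK_ot hiS, by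
    rw [hset]; exact singleton_subset_iff.2 hv'⟩
  refine ⟨hO, (edC_vertex hvO h1).1, hset, ?_⟩
  rw [le_tcK (not_KK_ot hiS)]
  exact ⟨_, hO, rfl, by rw [hset]; exact singleton_subset_iff.2 hv'⟩

/-- **deep vertices**: a vertex of a tile outside all cores with a point of small level -/
theorem deep_o (hLa : IsOpen La) (hN : Num δ κ0 R c0 κ2 κ1 s₁) (hR : InitR Φ T f g J0 ct' r₀)
    (hC : Mbf_337.Cores Φ T f κ1 κ2 X J0 J V ct A lam z θ φ) (hK : TinyK X J S) {i : ι}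
    (hi : i ∉ KorJ Φ J) {v x : E3} (hv : v ∈ P (T.H i)) (hd : T.dim v = 0) (hx : x ∈ P (T.H i))
    {a : Φ.F} (hl : va (Pc Φ.F) (bc (F := Φ.F)) (RF Φ r₀) f a x ≤ θN δ κ0 R c0 κ2 κ1)
    (hO : OutK S.T3 S.KK (edC S.T3 v)) : DeepS hC r₀ S a (oc (edC S.T3 v) hO) := by
  obtain ⟨_, h0, -, hle⟩ := vx_o hK hi hv hd
  refine deep_of_zero hR.hm (foam4 Φ hLa) (retF Φ hLa hR.pos hR.le_one)
    (corT hLa hN.hδ hN.hR hN.hκ0 hN.hκ1 hN.hκ2 hN.hκ hN.hκn hC hR)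
    (q := Sum.inl (S.ot i (hK.subK.out hi)))
    ⟨i, hK.subK.out hi, hi, rfl⟩ hle h0 (x := x) ?_ (T.sub i hx) (fun c => int_J hi hx c) hl
  rw [setK_tcK (not_KK_ot _), ot_P]
  exact hx

/-- **far vertices** -/
theorem far_o (hK : TinyK X J S) {i : ι} {θ' : ℝ}
    (hi : i ∉ KorJ Φ J) {v x : E3} (hv : v ∈ P (T.H i)) (hd : T.dim v = 0) (hx : x ∈ P (T.H i))
    {a : Φ.F} (hl : 1 - θ' ≤ va (Pc Φ.F) (bc (F := Φ.F)) (RF Φ r₀) f a x)
    (hO : OutK S.T3 S.KK (edC S.T3 v)) :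
    FarS Φ f r₀ J S θ' a (oc (edC S.T3 v) hO) := by
  obtain ⟨_, h0, -, hle⟩ := vx_o hK hi hv hd
  refine ⟨h0, Sum.inl (S.ot i (hK.subK.out hi)), ⟨i, hK.subK.out hi, hi, rfl⟩, hle, x, ?_, hl⟩
  rw [setK_tcK (not_KK_ot _), ot_P]
  exact hx

section main

variable (hLa : IsOpen La) (hLc : IsPreconnected La) (hN : Num δ κ0 R c0 κ2 κ1 s₁)
  (hR : InitR Φ T f g J0 ct' r₀)
  (hC : Mbf_337.Cores Φ T f κ1 κ2 X J0 J V ct A lam z θ φ)
  (hM : Mesh0 T (Pc Φ.F) (bc (F := Φ.F)) (RF Φ r₀) f (KorJ Φ J0) κ1)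
  (hK : TinyK X J S)
  (Xc : Cplx Om (QK (belK S.T3 S.KK)) (dimK (belK S.T3 S.KK) fun c => c.1.dim)
    (setK S.T3 S.KK))
  (h : Lst Φ f J0 J r₀ S hH hne Qd s₀ s₁ σ)
include hLa hLc hN hR hC hM hK Xc h

/-- **`ropX`** of 337's `Front` (always the first alternative) -/
theorem ropX_S {a : Φ.F} {w₀ w₁ : QK (belK S.T3 S.KK)} (hw₀ : DeepS hC r₀ S a w₀)
    (hw₁ : FarS Φ f r₀ J S (θN δ κ0 R c0 κ2 κ1) a w₁)
    (hrope : ReflTransGen (Ed (lmK fr3 hH dis_KK hne)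
      {e | FrE (lmK fr3 hH dis_KK hne) Qd a e}) w₀ w₁) {c : Φ.F} (hc : c ∈ X) :
    ∃ v : {c : S.T3.Cell // OutK S.T3 S.KK c}, v.1.dim = 0 ∧ v.1.set ⊆ P (T.H (ct c)) ∧
      ReflTransGen (Ed (lmK fr3 hH dis_KK hne) {e | FrE (lmK fr3 hH dis_KK hne) Qd a e})
        w₀ (QK.c _ v) := by
  have hKc : Kc T J c = P (T.H (ct c)) := Kc_exact hC hc
  have hθ := hN.hθ
  have h00 := hN.h00
  have hzero : ∀ x ∈ P (T.H (ct c)), T.dim x ≤ 2 →
      va (Pc Φ.F) (bc (F := Φ.F)) (RF Φ r₀) f a x ≤ θN δ κ0 R c0 κ2 κ1 →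
      ∃ v : {c : S.T3.Cell // OutK S.T3 S.KK c}, v.1.dim = 0 ∧ v.1.set ⊆ P (T.H (ct c)) ∧
      ReflTransGen (Ed (lmK fr3 hH dis_KK hne) {e | FrE (lmK fr3 hH dis_KK hne) Qd a e})
        w₀ (QK.c _ v) := by
    intro x hx hxd hxl
    have hxO := T.sub _ hx
    obtain ⟨v, hv, hd⟩ := exists_vertex T hxO
    have hvc : v ∈ P (T.H (ct c)) := T.cc_sub_tile hx hv
    obtain ⟨q, hq, hxq⟩ := exists_out T (kor_sub (Φ := Φ) (J := J))
      (fun _ _ h => Kc_disj hLa hC h) hxO fun d => out_X hLa hC hc hx hxd d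
    have hvq : v ∈ P (T.H q) := T.cc_sub_tile hxq hv
    obtain ⟨hO, b1, b2, -⟩ := vx_o hK hq hvq hd
    refine ⟨⟨_, hO⟩, b1, ?_, ?_⟩
    · show (edC S.T3 v).set ⊆ _
      rw [b2]; exact singleton_subset_iff.2 hvc
    · exact fr0_frE (zero_S hLa hN hR hC hM hK Xc h hw₀
        (deep_o hLa hN hR hC hK hq hvq hd hxq hxl hO))
  -- a vertex of the core tile
  obtain ⟨y, hy⟩ := T.ne (ct c)
  obtain ⟨v, hv, hd⟩ := exists_vertex T (T.sub _ (I_sub_P _ hy))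
  have hvc : v ∈ P (T.H (ct c)) := T.cc_sub_tile (I_sub_P _ hy) hv
  by_cases hjc : c = a
  · subst hjc
    refine hzero v hvc (by omega) ?_
    rw [(va_core hLa hR hC (by rw [hKc]; exact hvc)).1]
    exact hN.hθ
  by_cases hac : (Pc Φ.F c ∩ Pc Φ.F a).Nonempty
  · obtain ⟨x, hx, hxl⟩ := exists_touch hLa hN hR hC hjc hac
    refine hzero x ?_ (dim_fr hC hc hx) hxl
    rw [← hKc]
    exact (Kc_compact hC c).isClosed.frontier_subset hx
  · have hone : va (Pc Φ.F) (bc (F := Φ.F)) (RF Φ r₀) f a v = 1 :=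
      va_core_one hLa hR hC hac (by rw [hKc]; exact hvc)
    obtain ⟨q, hq, hvq⟩ := exists_out T (kor_sub (Φ := Φ) (J := J))
      (fun _ _ h => Kc_disj hLa hC h) (T.sub _ hvc) fun d => out_X hLa hC hc hvc (by omega) d
    obtain ⟨hO, b1, b2, -⟩ := vx_o hK hq hvq hd
    refine ⟨⟨_, hO⟩, b1, ?_, hrope.trans (fr0_frE (far_S hLa hLc hN hR hC hM hK Xc h hw₁
      (far_o hK hq hvq hd hvq (by rw [hone]; linarith) hO)))⟩
    show (edC S.T3 v).set ⊆ _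
    rw [b2]; exact singleton_subset_iff.2 hvc

end main

end Crest.Agent.R096.Rop_441
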