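import Crest.Agent.R096.Hl5_955
import Crest.Agent.R096.Onb2_63
import Crest.Agent.R096.Rop13_441

/-!
# R096 (row 96), BASE-R (helper955), part 6: **`labX` of 337's `Front`**

`labX_core` : from `Lay`, `Cores`, `Words`, the labels over `lmK` and the two extreme values;
`labX_S`    : the machine instance over 184's `Sla` (441's ropes: `DeepS`, `FarS`, `Lst`).
-/

set_option autoImplicit false
set_option linter.unusedSectionVars false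
set_option linter.unusedVariables false
set_option linter.style.longLine false

open Set Relation Module

namespace Crest.Agent.R096.Hl_955

open Crest.Agent.R096.Brk1_582 Crest.Agent.R096.Brk2_582 Crest.Agent.R096.Brk3_582
  Crest.Agent.R096.Brk5_582 Crest.Agent.R096.Bsp_628 Crest.Agent.R096.Init_543
  Crest.Agent.R096.Vb_965 Crest.Agent.R096.Msh_715 Crest.Agent.R096.St_147
  Crest.Agent.R096.Seq_213 Crest.Agent.R096.Seq_213.GSt Crest.Agent.R096.Lm_117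
  Crest.Agent.R096.Gl_422 Crest.Agent.R096.Gm_298
  Crest.Agent.R096.SkB_662 Crest.Agent.R096.Cpo_642
  Crest.Agent.R096.Ce_537 Crest.Agent.R096.Agl5_543 Crest.Agent.R096.Ecm_446
  Crest.Agent.R096.Cp_298 Crest.Agent.R096.Ac_117
  Crest.Agent.R096.Rop_441 Crest.Agent.R096.Frn_337 Crest.Agent.R096.Onb_63
open Crest.Agent.R096.SkC1_961 (E3 Hom3 FoamD th)
open Crest.Agent.R096.Mbf_337 (KJ sb Cores Words)
open Crest.Agent.R096.Gia_537 (Kc Kc_sub Kc_compact Kc_disj Kc_exact)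
open Crest.Agent.R096.Exa_560 (Cn Cn_nonneg)

section core

variable {δ κ0 R c0 : ℝ} {La Om : Set E3} {ι : Type}
variable {Φ : FoamD δ κ0 R c0 La} {T : Tiling Om ι} {f : E3 → E3} {κ1 κ2 : ℝ} {X : Set Φ.F}
  {J0 Jt V : Φ.F → Set ι} {ct : Φ.F → ι} {A : Φ.F → E3 ≃ᵃ[ℝ] E3} {lam : Φ.F → ℝ} {z : Φ.F → E3}
  {θ : Φ.F → E3 → E3} {φ : Φ.F → E3 → ℝ} {M : Φ.F → ℕ}
  {ι3 : Type} {T3 : Tiling Om ι3} {KK : Ti X → Set E3} {c3 : ι → ι3}
variable [Nonempty T3.Cell] {hH : ∀ k, CoreH T3 (KK k)}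
    {hdis : ∀ k k', k ≠ k' → Disjoint (KK k) (KK k')} {hne : ∃ c, OutK T3 KK c}
    {L : Φ.F → Finset ℝ} {s₀ : GSt (mK fr3 hH hdis) (fun j : JJ Φ L => j.1)}
    {lam₀ : JJ Φ L → QK (belK T3 KK) → ZMod 2}

/-- **`labX` FROM THE TWO EXTREME VALUES** -/
theorem labX_core (hLa : IsOpen La) (hL : Lay Φ T X J0 Jt T3 KK c3)
    (hC : Cores Φ T f κ1 κ2 X J0 Jt V ct A lam z θ φ) (hW : Words Φ T f X ct A lam z M L)
    {μ : ℝ} (hμ0 : 0 < μ) (hm : ∀ a, ∀ t ∈ L a, μ ≤ t ∧ t ≤ 1 - μ)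
    (hlab : ∀ j, GLab (lmK fr3 hH hdis hne) (gp s₀ j) (lam₀ j)) {c : Φ.F} (hc : c ∈ X)
    (hlev : ∀ w ∈ s₀.P, w ∈ P (T.H (ct c)) → Φ.lev (s₀.lab w).1 (f w) = (s₀.lab w).2.1)
    (low : ∀ v : {c : T3.Cell // OutK T3 KK c}, v.1.dim = 0 → v.1.set ⊆ P (T.H (ct c)) →
      ∀ j : JJ Φ L, sb Φ (th (A c) (lam c) (z c) v.1.pt) j.1 = 0 → lam₀ j (QK.c _ v) = 1)
    (high : ∀ v : {c : T3.Cell // OutK T3 KK c}, v.1.dim = 0 → v.1.set ⊆ P (T.H (ct c)) →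
      ∀ j : JJ Φ L, sb Φ (th (A c) (lam c) (z c) v.1.pt) j.1 = 1 → lam₀ j (QK.c _ v) = 0) :
    ∀ v : {c : T3.Cell // OutK T3 KK c}, v.1.dim = 0 → v.1.set ⊆ P (T.H (ct c)) →
      ∀ j : JJ Φ L, lam₀ j (QK.c _ v) = 1 ↔ Φ.lev j.1 (f v.1.pt) < j.2.1 := by
  have hk := keep_ct hL hC hc
  have hcc := cc_ct hL hC hc
  have hout := out_ct hL hC hc
  have hE := exact3 hL hC hc
  have hE0 := hC.exact_ c hc
  have hg := grid3 hL hC hW hc
  have hg0 := hW.grid c hc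
  have hM0 := hg.1
  have hM' : (0 : ℝ) < M c := by exact_mod_cast hM0
  have F := foamΦ hLa Φ
  -- `Same` over `T3`
  have hS0 := same_of_words (T := T) (f := f) (fam := fun j : JJ Φ L => j.1)
    (t := fun j : JJ Φ L => j.2.1) hW hc hM0 (fun j => j.2.2)
  have hS : Same T3 (c3 (ct c)) (Ecm_446.U Φ (A c) (lam c) (z c) (M c)) (fun j : JJ Φ L => j.1)
      (fun j => M c * j.2.1) (fun j => {y | Φ.lev j.1 (f y) = j.2.1}) := by
    intro x hx hd j hs y hy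
    rw [hk] at hx
    have e1 := (hcc x hx).1
    have e2 := (hcc x hx).2
    rw [e1] at hy
    have hsub : ∀ y ∈ T.cc x, T3.dim y = T.dim y := fun y hy =>
      (hcc y (T.cc_sub_tile hx hy)).2
    refine hS0 x hx (by rw [← e2]; exact hd) j ?_ y hy
    rcases hs with hs | hs
    · left
      intro y hy hy0
      exact hs y (by rw [e1]; exact hy) (by rw [hsub y hy]; exact hy0)
    · right
      intro y hy hy0
      exact hs y (by rw [e1]; exact hy) (by rw [hsub y hy]; exact hy0)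
  have key := hl_core (L := Lp c3 ct hH hdis hne) (s := s₀) (fam := fun j : JJ Φ L => j.1)
    (X := fun j : JJ Φ L => {y | Φ.lev j.1 (f y) = j.2.1})
    (V := fun j : JJ Φ L => {y | Φ.lev j.1 (f y) < j.2.1})
    (τ := fun j : JJ Φ L => M c * j.2.1) (N := M c)
    (lam₀ := fun j v => lam₀ j v.1) onT_Lp (full_Lp hout) (cg_of_grid hLa hE hg)
    (stp_of_grid hLa hE hg) hS (cw3 hL hC hW hc).side
    (fun w hw hwi => hlev w hw (by rw [← hk]; exact hwi)) (fun j => by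
      have h3 := hm _ _ j.2.2
      refine ⟨mul_pos hM' (hμ0.trans_le h3.1), ?_⟩
      have h4 : j.2.1 < 1 := by linarith [h3.2]
      nlinarith)
    (fun v hv _ a => by
      show (M c : ℝ) * sb Φ (th (A c) (lam c) (z c) v) a ≤ M c
      have := ((F.sc_mem_K (th_La hE hv)).1 a).2
      have h4 : sb Φ (th (A c) (lam c) (z c) v) a ≤ 1 := this
      nlinarith)
    (fun j => glab_sb (hlab j))
    (by
      rintro ⟨v | k, hv⟩ hvD hv0 j hu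
      · refine low v hv0 (by rw [← hk]; exact hvD.1) j ?_
        have h5 : (M c : ℝ) * sb Φ (th (A c) (lam c) (z c) v.1.pt) j.1 = 0 := hu
        rcases mul_eq_zero.1 h5 with h | h
        · exact absurd h hM'.ne'
        · exact h
      · exact hv.elim)
    (by
      rintro ⟨v | k, hv⟩ hvD hv0 j hu
      · refine high v hv0 (by rw [← hk]; exact hvD.1) j ?_
        have h5 : (M c : ℝ) * sb Φ (th (A c) (lam c) (z c) v.1.pt) j.1 = M c := hu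
        have h4 : (M c : ℝ) * sb Φ (th (A c) (lam c) (z c) v.1.pt) j.1 = M c * 1 := by
          rw [mul_one]; exact h5
        exact mul_left_cancel₀ hM'.ne' h4
      · exact hv.elim)
  intro v hv0 hvP j
  have hp : pO T3 KK c3 ct (QK.c _ v) := pO_two _ (by
    show v.1.dim ≤ 2
    omega)
  exact key ⟨QK.c _ v, hp⟩ ⟨by rw [hk]; exact hvP, by
    show v.1.dim ≤ 2
    omega⟩ hv0 j

end core

section S

variable {δ κ0 R c0 : ℝ} {La Om : Set E3} {ι : Type} {Φ : FoamD δ κ0 R c0 La}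
  {T : Tiling Om ι} {f g : E3 → E3} {κ1 κ2 s₁ σ : ℝ} {X : Set Φ.F} {J0 J V : Φ.F → Set ι}
  {ct : Φ.F → ι}
  {A : Φ.F → E3 ≃ᵃ[ℝ] E3} {lam : Φ.F → ℝ} {z : Φ.F → E3} {θ : Φ.F → E3 → E3} {φ : Φ.F → E3 → ℝ}
  {ct' : Φ.F → ι} {r₀ : Φ.F → ℝ} {M : Φ.F → ℕ}
  {S : Sla_184.Sla T (Ti X)}
variable [Nonempty S.T3.Cell] {hH : ∀ c, CoreH S.T3 (S.KK c)} {hne : ∃ c, OutK S.T3 S.KK c}
  {Kq : Type} {Qd : Quads (T.RIdx S.HH ⊕ Ti X) Φ.F Kq} {L : Φ.F → Finset ℝ}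
  {s₀ : GSt (mK fr3 hH Sla_184.Sla.dis_KK) (fun j : JJ Φ L => j.1)}
  {lam₀ : JJ Φ L → QK (belK S.T3 S.KK) → ZMod 2}
  {v₀ v₁ : Φ.F → QK (belK S.T3 S.KK)} {c3 : ι → T.RIdx S.HH}

/-- **`labX` OF `Front`, MACHINE INSTANCE** -/
theorem labX_S (hLa : IsOpen La) (hLc : IsPreconnected La) (hN : Num δ κ0 R c0 κ2 κ1 s₁)
    (hR : InitR Φ T f g J0 ct' r₀)
    (hC : Cores Φ T f κ1 κ2 X J0 J V ct A lam z θ φ)
    (hM : Mesh0 T (Pc Φ.F) (bc (F := Φ.F)) (RF Φ r₀) f (KorJ Φ J0) κ1)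
    (hK : TinyK X J S)
    (Xc : Cplx Om (QK (belK S.T3 S.KK)) (dimK (belK S.T3 S.KK) fun c => c.1.dim)
      (setK S.T3 S.KK))
    (h : Lst Φ f J0 J r₀ S hH hne Qd s₀ s₁ σ)
    (hL : Lay Φ T X J0 J S.T3 S.KK c3) (hW : Words Φ T f X ct A lam z M L)
    {μ : ℝ} (hμ0 : 0 < μ) (hm : ∀ a, ∀ t ∈ L a, μ ≤ t ∧ t ≤ 1 - μ)
    (hlab : ∀ j, GLab (lmK fr3 hH Sla_184.Sla.dis_KK hne) (gp s₀ j) (lam₀ j))
    (hw₀ : ∀ j : JJ Φ L, DeepS hC r₀ S j.1 (v₀ j.1))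
    (hw₁ : ∀ j : JJ Φ L, FarS Φ f r₀ J S (θN δ κ0 R c0 κ2 κ1) j.1 (v₁ j.1))
    (hone : ∀ j : JJ Φ L, lam₀ j (v₀ j.1) = 1) (hzero : ∀ j : JJ Φ L, lam₀ j (v₁ j.1) = 0)
    (hlev : ∀ c ∈ X, ∀ w ∈ s₀.P, w ∈ P (T.H (ct c)) →
      Φ.lev (s₀.lab w).1 (f w) = (s₀.lab w).2.1) :
    ∀ c ∈ X, ∀ v : {c : S.T3.Cell // OutK S.T3 S.KK c}, v.1.dim = 0 →
      v.1.set ⊆ P (T.H (ct c)) →
      ∀ j : JJ Φ L, lam₀ j (QK.c _ v) = 1 ↔ Φ.lev j.1 (f v.1.pt) < j.2.1 := by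
  intro c hc
  have hE0 := hC.exact_ c hc
  have hg0 := hW.grid c hc
  have hM0 := hg0.1
  have hcc := cc_ct hL hC hc
  -- the vertex
  have key : ∀ v : {c : S.T3.Cell // OutK S.T3 S.KK c}, v.1.dim = 0 →
      v.1.set ⊆ P (T.H (ct c)) → v.1.pt ∈ P (T.H (ct c)) ∧ T.dim v.1.pt = 0 ∧
      ∃ q, ∃ hq : q ∉ KorJ Φ J, v.1.pt ∈ P (T.H q) ∧
        ∃ hO : OutK S.T3 S.KK (edC S.T3 v.1.pt), v = ⟨edC S.T3 v.1.pt, hO⟩ := by
    intro v hv0 hvP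
    have hpP : v.1.pt ∈ P (T.H (ct c)) := hvP (by rw [v.1.set_eq]; exact S.T3.self_mem_cc _)
    have hd3 : S.T3.dim v.1.pt = 0 := hv0
    have hd : T.dim v.1.pt = 0 := by rw [← (hcc _ hpP).2]; exact hd3
    obtain ⟨q, hq, hxq⟩ := exists_out T (kor_sub (Φ := Φ) (J := J))
      (fun _ _ h => Kc_disj hLa hC h) (T.sub _ hpP) fun d => out_X hLa hC hc hpP (by omega) d
    obtain ⟨hO, b1, b2, -⟩ := vx_o hK hq hxq hd
    refine ⟨hpP, hd, q, hq, hxq, hO, Subtype.ext (Tiling.Cell.ext ?_)⟩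
    rw [b2, v.1.set_eq, S.T3.cc_eq_singleton (S.T3.dim_eq_zero_iff.1 hd3)]
  refine labX_core hLa hL hC hW hμ0 hm hlab hc (hlev c hc) ?_ ?_
  · intro v hv0 hvP j hu
    obtain ⟨hpP, hd, q, hq, hxq, hO, e⟩ := key v hv0 hvP
    have hva := (va_ends hLa hN hR hE0 hM0 hpP (by omega) j.1).1 (by
      show (M c : ℝ) * sb Φ (th (A c) (lam c) (z c) v.1.pt) j.1 = 0
      rw [hu, mul_zero])
    have h3 := zero_S hLa hN hR hC hM hK Xc h (hw₀ j)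
      (deep_o hLa hN hR hC hK hq hxq hd hxq hva hO)
    have h4 := lam_fr0 h3 rfl (hlab j)
    rw [hone j] at h4
    rw [e]
    exact h4.symm
  · intro v hv0 hvP j hu
    obtain ⟨hpP, hd, q, hq, hxq, hO, e⟩ := key v hv0 hvP
    have hva := (va_ends hLa hN hR hE0 hM0 hpP (by omega) j.1).2 (by
      show (M c : ℝ) * sb Φ (th (A c) (lam c) (z c) v.1.pt) j.1 = M c
      rw [hu, mul_one])
    have h3 := far_S hLa hLc hN hR hC hM hK Xc h (hw₁ j)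
      (far_o hK hq hxq hd hxq hva hO)
    have h4 := lam_fr0 h3 rfl (hlab j)
    rw [hzero j] at h4
    rw [e]
    exact h4.symm

end S

end Crest.Agent.R096.Hl_955
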