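import Crest.Agent.R096.Frs2_662
import Crest.Agent.R096.Frk1_441
import Crest.Agent.R096.Hl6_955

/-!
# R096 (row 96), FRONT (helper662): the shell of 534's `FrontP`, part 3

`FrontN` : the list of `FrontM` without `k4`, `ropX` (441) and `labX` (955);
`frontM_of` : `FrontN → FrontM` over 471's slicing with the vertices of `VxD`;
`DoorsQb b`, **`doorsPb_of : DoorsQb b → DoorsPb b`**, **`machBF_of_doorsQ`**, `frontP_of_doorsQ`.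
-/

set_option autoImplicit false
set_option linter.unusedSectionVars false
set_option linter.unusedVariables false
set_option linter.style.longLine false

open Set Relation Module Topology Filter Metric MeasureTheory

namespace Crest.Agent.R096.Frs_662

open Crest.Agent.R096.Brk1_582 Crest.Agent.R096.Brk2_582 Crest.Agent.R096.Brk3_582
open Crest.Agent.R096.Brk5_582 Crest.Agent.R096.Bsp_628
open Crest.Agent.R096.St_147 Crest.Agent.R096.Seq_213 Crest.Agent.R096.Seq_213.GSt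
open Crest.Agent.R096.Lm_117 Crest.Agent.R096.Ac_117 Crest.Agent.R096.Msh_715
open Crest.Agent.R096.Cp_298 Crest.Agent.R096.Gm_298 Crest.Agent.R096.Gl_422
open Crest.Agent.R096.SkB_662 Crest.Agent.R096.Cpo_642
open Crest.Agent.R096.Agl5_543 Crest.Agent.R096.Ori_543
open Crest.Agent.R096.Init_543 Crest.Agent.R096.Qdl_662 Crest.Agent.R096.Lmx_662
open Crest.Agent.R096.SkC1_961 (E3 Hom3 FoamD Cfg th NN)
open Crest.Agent.R096.Mbf_337 (Star Cores Fine Levels Words KJ sb)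
open Crest.Agent.R096.Frn_337 Crest.Agent.R096.Mno_534 Crest.Agent.R096.Rop_441

variable {δ κ0 R c0 : ℝ} {La Om : Set E3} {ι : Type}
variable {Φ : FoamD δ κ0 R c0 La} {T : Tiling Om ι} {X : Set Φ.F} {J0 Jt : Φ.F → Set ι}
  {ι3 : Type} {T3 : Tiling Om ι3} {KK : Ti X → Set E3}

/-- **OUTPUT OF DOORS, REDUCED LIST** -/
structure FrontN (T : Tiling Om ι) (f : E3 → E3) (J0 V : Φ.F → Set ι)
    (til : ι3 → ι) (s' : ℝ) [Nonempty T3.Cell] (hH : ∀ k, CoreH T3 (KK k))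
    (hdis : ∀ k k', k ≠ k' → Disjoint (KK k) (KK k')) (hne : ∃ c, OutK T3 KK c)
    {L : Φ.F → Finset ℝ} (Qd : Quads (ι3 ⊕ Ti X) Φ.F (Init_543.QK (Pc Φ.F)))
    (s₀ : GSt (mK fr3 hH hdis) (fun j : JJ Φ L => j.1)) (far₀ : JJ Φ L → Set E3)
    (Gc : Φ.F → Set E3) (Zc : Φ.F → Set (QK (belK T3 KK)))
    (lam₀ : JJ Φ L → QK (belK T3 KK) → ZMod 2) (v₀ v₁ : Φ.F → QK (belK T3 KK)) : Prop where
  inv : s₀.Inv Qd far₀
  on : ∀ w ∈ s₀.P, w ∈ (lmK fr3 hH hdis hne).W1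
  fin : ∀ F, (s₀.P ∩ (mK fr3 hH hdis).On F).Finite
  lab : LabIn (lmK fr3 hH hdis hne) Qd s₀ Gc Zc lam₀ v₀ v₁
  posB : ∀ w ∈ s₀.P, ∀ i3, (∀ k', ¬ P (T3.H i3) ⊆ KK k') → w ∈ P (T3.H i3) →
    til i3 ∉ KorJ Φ J0 → ∃ x ∈ P (T.H (til i3)), Φ.lev (s₀.lab w).1 (f x) ∈ Icc s' (1 - s')
  lev : ∀ x ∈ s₀.P, ∀ i, (∀ k : Ti X, i ∉ V k.1) → x ∈ P (T.H i) →
    Φ.lev (s₀.lab x).1 (f x) = (s₀.lab x).2.1
  /-- (E1) at the tiny cores -/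
  oneT : ∀ (k : Ti X) (j : JJ Φ L), One s₀ {F | Sum.inr k ∈ (mK fr3 hH hdis).side F} j
  /-- (E2) at the tiny cores -/
  twoT : ∀ (q : Init_543.QK (Pc Φ.F)) (k : Ti X), k.1 ∈ q.Z → ∀ j j' : JJ Φ L, j.1 ∈ q.B →
    j'.1 ∈ q.B → j.1 ≠ j'.1 → Two s₀ (Qd.Act q) {Sum.inr k} j j'

section

variable {f g : E3 → E3} {κ1 κ2 s₁ s' μ : ℝ} {J V : Φ.F → Set ι} {ct ct' : Φ.F → ι}
  {r₀ : Φ.F → ℝ} {A : Φ.F → E3 ≃ᵃ[ℝ] E3} {lam : Φ.F → ℝ} {z : Φ.F → E3} {θ : Φ.F → E3 → E3}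
  {φ : Φ.F → E3 → ℝ} {M : Φ.F → ℕ} {L : Φ.F → Finset ℝ}

/-- an exact tile is in no tiny `V` -/
theorem ct_notV (hC : Cores Φ T f κ1 κ2 X J0 J V ct A lam z θ φ) {c : Φ.F} (hc : c ∈ X)
    (k : Ti X) : ct c ∉ V k.1 := fun hk => by
  have hck : c ≠ k.1 := fun e => k.2 (e ▸ hc)
  have h4 : ct c ∈ V c := by rw [(hC.one c hc).2.2]; rfl
  exact Set.disjoint_left.1 (hC.disj c k.1 hck) h4 hk

/-- **the vertex `v₀`** of the sliced mesh -/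
noncomputable def vA (hLa : IsOpen La) (hC : Cores Φ T f κ1 κ2 X J0 J V ct A lam z θ φ)
    {D : Φ.F → Set E3} {q0 q1 : Φ.F → ι} {w0 w1 x0 x1 : Φ.F → E3}
    (hv : VxD Φ T f V D q0 q1 w0 w1 x0 x1) (n : Ti X → ℕ) (hn : ∀ c, 0 < n c)
    [Nonempty (slC hLa hC n hn).T3.Cell] (a : Φ.F) :
    QK (belK (slC hLa hC n hn).T3 (slC hLa hC n hn).KK) :=
  vK (S := slC hLa hC n hn) (fun c => out_of_V hC (hv.out0 a) c) (hv.mem0 a) (hv.dim0 a)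

/-- **the vertex `v₁`** of the sliced mesh -/
noncomputable def vB (hLa : IsOpen La) (hC : Cores Φ T f κ1 κ2 X J0 J V ct A lam z θ φ)
    {D : Φ.F → Set E3} {q0 q1 : Φ.F → ι} {w0 w1 x0 x1 : Φ.F → E3}
    (hv : VxD Φ T f V D q0 q1 w0 w1 x0 x1) (n : Ti X → ℕ) (hn : ∀ c, 0 < n c)
    [Nonempty (slC hLa hC n hn).T3.Cell] (a : Φ.F) :
    QK (belK (slC hLa hC n hn).T3 (slC hLa hC n hn).KK) :=
  vK (S := slC hLa hC n hn) (fun c => out_of_V hC (hv.out1 a) c) (hv.mem1 a) (hv.dim1 a)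

/-- **`FrontM` FROM `FrontN`** -/
theorem frontM_of (hLa : IsOpen La) (hLc : IsPreconnected La) (hN : Num δ κ0 R c0 κ2 κ1 s₁)
    (hC : Cores Φ T f κ1 κ2 X J0 J V ct A lam z θ φ) (hR : InitR Φ T f g J0 ct' r₀)
    (hM : Mesh0 T (Pc Φ.F) (bc (F := Φ.F)) (RF Φ r₀) f (KorJ Φ J0) κ1) (h1 : κ1 < s₁)
    (h2 : κ1 < 1) (hs' : s₁ + κ1 ≤ s') (hσ : 2 * κ1 < s') (hW : Words Φ T f X ct A lam z M L)
    (hμ : 0 < μ) (hm : ∀ a, ∀ t ∈ L a, μ ≤ t ∧ t ≤ 1 - μ) {D : Φ.F → Set E3} {q0 q1 : Φ.F → ι}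
    {w0 w1 x0 x1 : Φ.F → E3} (hv : VxD Φ T f V D q0 q1 w0 w1 x0 x1) {n : Ti X → ℕ}
    {hn : ∀ c, 0 < n c} [Nonempty (slC hLa hC n hn).T3.Cell]
    {hne : ∃ c, OutK (slC hLa hC n hn).T3 (slC hLa hC n hn).KK c}
    {s₀ : GSt (mK fr3 (Lay_316.lay_sla hLa hC n hn).core (Lay_316.lay_sla hLa hC n hn).disj)
      (fun j : JJ Φ L => j.1)} {far₀ : JJ Φ L → Set E3} {Gc : Φ.F → Set E3}
    {Zc : Φ.F → Set (QK (belK (slC hLa hC n hn).T3 (slC hLa hC n hn).KK))}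
    {lm : JJ Φ L → QK (belK (slC hLa hC n hn).T3 (slC hLa hC n hn).KK) → ZMod 2}
    (h : FrontN T f J0 V (fun p => p.tile) s'
      (Lay_316.lay_sla hLa hC n hn).core (Lay_316.lay_sla hLa hC n hn).disj hne
      (qdT (fun p : T.RIdx (slC hLa hC n hn).HH => p.tile) (sla_sub (slC hLa hC n hn))
        (slC hLa hC n hn).KK hLa hR hM h1 h2) s₀ far₀ Gc Zc lm
      (vA hLa hC hv n hn)
      (vB hLa hC hv n hn)) :
    FrontM T f J0 V ct (Lay_316.c3 (slC hLa hC n hn)) (fun p => p.tile) s'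
      (Lay_316.lay_sla hLa hC n hn).core (Lay_316.lay_sla hLa hC n hn).disj hne
      (qdT (fun p : T.RIdx (slC hLa hC n hn).HH => p.tile) (sla_sub (slC hLa hC n hn))
        (slC hLa hC n hn).KK hLa hR hM h1 h2) s₀ far₀ Gc Zc lm
      (vA hLa hC hv n hn)
      (vB hLa hC hv n hn) := by
  have hK : ∀ k : Ti X, (slC hLa hC n hn).K k = KJ T (J k.1) := fun k => rfl
  have hTK : TinyK X J (slC hLa hC n hn) := Frk_441.tinyK_of hK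
  have Xc := Frk_441.cplxS hC hK
  have h0 : ∀ j : JJ Φ L, DeepS hC r₀ (slC hLa hC n hn) j.1 (vA hLa hC hv n hn j.1) :=
    fun j => Frk_441.deep_vK hLa hN hR hC hK hv j.1 _
  have h1' : ∀ j : JJ Φ L, FarS Φ f r₀ J (slC hLa hC n hn) (θN δ κ0 R c0 κ2 κ1) j.1
      (vB hLa hC hv n hn j.1) := fun j => Frk_441.far_vK hLa hN hR hC hK hv j.1 _
  have hLst := Frk_441.lst_of_B (hLa := hLa) (hR := hR) (hM := hM) (hε := h1) (hε1 := h2)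
    (hne := hne) (s₀ := s₀) hC hK hs' h.on h.posB
  refine ⟨h.inv, h.on, h.fin, h.lab, h.posB, h.lev, ?_, ?_, ?_, h.oneT, h.twoT⟩
  · exact Hl_955.labX_S hLa hLc hN hR hC hM hTK Xc hLst (Lay_316.lay_sla hLa hC n hn) hW hμ hm
      (fun j => h.lab.lab j) h0 h1' (fun j => h.lab.one j) (fun j => h.lab.zero j)
      (fun c hc w hw hwt => h.lev w hw (ct c) (fun k => ct_notV hC hc k) hwt)
  · exact fun c hc j => Frk_441.ropX_front hLc hN hC hK hs' h.on h.posB h0 h1' h.lab c hc j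
  · exact fun q hq => Frk_441.k4_front hLc hN hσ hC hK hs' h.on h.posB h0 h1'
      (fun j => h.lab.far j) q hq

end

/-- **WHAT DOORS HAS TO PROVE, REDUCED** (`b` = bound of `κp`): all objects of INIT, 441's numbers
`Num` and the vertices `vA`, `vB` are given; the output is `FrontN` -/
def DoorsQb (b : ℝ) : Prop :=
  ∀ δ κ0 R c0 κ2 κ3 : ℝ, 0 < δ → 1 ≤ κ0 → 1 ≤ R → 0 < c0 → 0 < κ2 → 8 ≤ κ3 →
  ∀ κp : ℝ, 0 < κp → κp ≤ b → ∀ μ : ℝ, 0 < μ → μ ≤ κp →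
  ∃ s₁ s' κd : ℝ, 0 < s₁ ∧ s₁ ≤ 1 / 2 ∧ s₁ < s' ∧ 0 < κd ∧
  ∀ κ1 : ℝ, 0 < κ1 → κ1 ≤ κd → ∀ (h1 : κ1 < s₁) (h2 : κ1 < 1), Num δ κ0 R c0 κ2 κ1 s₁ →
    s₁ + κ1 ≤ s' → 2 * κ1 < s' →
  ∀ (Om La : Set E3) (f g : E3 → E3), IsOpen Om → Bornology.IsBounded Om → IsConnected Om →
    ∀ hLa : IsOpen La, Bornology.IsBounded La → IsConnected La → Hom3 f Om La →
  ∀ (Φ : FoamD δ κ0 R c0 La) (ι : Type) (T : Tiling Om ι) (X : Set Φ.F) (J0 J V : Φ.F → Set ι)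
    (ct : Φ.F → ι) (A : Φ.F → E3 ≃ᵃ[ℝ] E3) (lam : Φ.F → ℝ) (z : Φ.F → E3) (θ : Φ.F → E3 → E3)
    (φ : Φ.F → E3 → ℝ) (M : Φ.F → ℕ),
    Star Φ → ∀ hC : Cores Φ T f κ1 κ2 X J0 J V ct A lam z θ φ, Fine Φ T f κ1 J0 →
  ∀ (ct' : Φ.F → ι) (r₀ : Φ.F → ℝ) (hR : InitR Φ T f g J0 ct' r₀)
    (hM : Mesh0 T (Pc Φ.F) (bc (F := Φ.F)) (RF Φ r₀) f (KorJ Φ J0) κ1),
  ∃ (Z : Φ.F → Set ℝ) (m0 : Φ.F → ℕ), (∀ c, volume (Z c) = 0) ∧
  ∀ (κ : Φ.F → ℕ) (L : Φ.F → Finset ℝ), Levels Φ T f κp μ κ3 Z m0 κ L →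
    Words Φ T f X ct A lam z M L →
  ∀ [Nonempty (JJ Φ L)] (hG : GF Φ r₀ T f L) (D : Φ.F → Set E3) (bp : JJ Φ L → E3)
    (lam₀ : JJ Φ L → E3 → ZMod 2) (v₀ v₁ : Φ.F → E3),
    InitS hLa hR hM h1 h2 hG D bp lam₀ v₀ v₁ →
  ∀ (q0 q1 : Φ.F → ι) (w0 w1 x0 x1 : Φ.F → E3) (hv : VxD Φ T f V D q0 q1 w0 w1 x0 x1),
  ∃ (n : Ti X → ℕ) (hn : ∀ c, 0 < n c), ∀ [Nonempty (slC hLa hC n hn).T3.Cell]
    (hne : ∃ c, OutK (slC hLa hC n hn).T3 (slC hLa hC n hn).KK c),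
  ∃ (s₀ : GSt (mK fr3 (Lay_316.lay_sla hLa hC n hn).core (Lay_316.lay_sla hLa hC n hn).disj)
      (fun j : JJ Φ L => j.1)) (far₀ : JJ Φ L → Set E3) (Gc : Φ.F → Set E3)
    (Zc : Φ.F → Set (QK (belK (slC hLa hC n hn).T3 (slC hLa hC n hn).KK)))
    (lm : JJ Φ L → QK (belK (slC hLa hC n hn).T3 (slC hLa hC n hn).KK) → ZMod 2),
    FrontN T f J0 V (fun p => p.tile) s'
      (Lay_316.lay_sla hLa hC n hn).core (Lay_316.lay_sla hLa hC n hn).disj hne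
      (qdT (fun p : T.RIdx (slC hLa hC n hn).HH => p.tile) (sla_sub (slC hLa hC n hn))
        (slC hLa hC n hn).KK hLa hR hM h1 h2) s₀ far₀ Gc Zc lm
      (vA hLa hC hv n hn) (vB hLa hC hv n hn)

/-- **`DoorsPb b` FROM `DoorsQb b`** -/
theorem doorsPb_of {b : ℝ} (hD : DoorsQb b) : DoorsPb b := by
  intro δ κ0 R c0 κ2 κ3 hδ hκ0 hR hc0 hκ2 hκ3 κp hp hpb μ hμ hμp
  obtain ⟨s₁, s', κd, hs1, hs12, hs2, hκd, hDo⟩ := hD δ κ0 R c0 κ2 κ3 hδ hκ0 hR hc0 hκ2 hκ3 κp hp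
    hpb μ hμ hμp
  obtain ⟨κn, hκn, hNum⟩ := exists_num (δ := δ) (κ0 := κ0) (R := R) (c0 := c0) (κ2 := κ2) hδ
    (by linarith) (by linarith) hκ2 hs1 hs12
  refine ⟨s₁, s', min (min κd κn) (min (s' - s₁) (s' / 4)), hs1, hs2,
    lt_min (lt_min hκd hκn) (lt_min (by linarith) (by linarith)), ?_⟩
  intro κ1 hκ1 hκle h1 h2 Om La f g hOm hOb hOc hLa hLb hLc hf Φ ι T X J0 J V ct A lam z θ φ M hSt
    hC hF ct' r₀ hRI hM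
  have a1 : κ1 ≤ κd := hκle.trans ((min_le_left _ _).trans (min_le_left _ _))
  have a2 : κ1 ≤ κn := hκle.trans ((min_le_left _ _).trans (min_le_right _ _))
  have a3 : κ1 ≤ s' - s₁ := hκle.trans ((min_le_right _ _).trans (min_le_left _ _))
  have a4 : κ1 ≤ s' / 4 := hκle.trans ((min_le_right _ _).trans (min_le_right _ _))
  have a5 : s₁ + κ1 ≤ s' := by linarith
  have a6 : 2 * κ1 < s' := by linarith
  have hN := hNum κ1 hκ1.le a2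
  obtain ⟨Z, m0, hZ, hDo'⟩ := hDo κ1 hκ1 a1 h1 h2 hN a5 a6 Om La f g hOm hOb hOc hLa hLb hLc hf Φ ι
    T X J0 J V ct A lam z θ φ M hSt hC hF ct' r₀ hRI hM
  refine ⟨Z, m0, hZ, ?_⟩
  intro κ L hL hW hJJ hG D bp lam₀ v₀ v₁ hI q0 q1 w0 w1 x0 x1 hv
  obtain ⟨n, hn, hDo''⟩ := hDo' κ L hL hW hG D bp lam₀ v₀ v₁ hI q0 q1 w0 w1 x0 x1 hv
  refine ⟨n, hn, ?_⟩
  intro hNc hne
  obtain ⟨s₀, far₀, Gc, Zc, lm, hFN⟩ := hDo'' hne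
  exact ⟨s₀, far₀, Gc, Zc, lm, _, _, frontM_of hLa hLc.isPreconnected hN hC hRI hM h1 h2 a5 a6 hW
    hμ hL.marg hv hFN⟩

/-- **`FrontPb b` FROM `DoorsQb b`** -/
theorem frontPb_of_doorsQ {b : ℝ} (hD : DoorsQb b) : Mch_337.FrontPb b :=
  frontPb_of (doorsPb_of hD)

/-- **`FrontP` FROM `DoorsQb 1`** -/
theorem frontP_of_doorsQ (hD : DoorsQb 1) : FrontP := frontPb_of_doorsQ hD

/-- **`MachBF` FROM `DoorsQb b`** -/
theorem machBF_of_doorsQ {b : ℝ} (hb : 0 < b) (hD : DoorsQb b) : Mbf_337.MachBF :=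
  machBF_of_doors hb (doorsPb_of hD)

end Crest.Agent.R096.Frs_662
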