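import Crest.Agent.R096.Ea1_713

/-!
Row 96 (S0127), helper713.  Node EA-ASM, leaf (EA2): the energy of `g - (exact affine map)` on an
exact core.
-/

set_option autoImplicit false
set_option linter.unusedSectionVars false
set_option linter.style.longLine false

open MeasureTheory Set Filter Topology Metric
open scoped ENNReal NNReal

namespace Crest.Agent.R096.Ea_713

open Crest.Agent.R096.Msh_715
open Crest.Agent.R96.Hole_348 (LLV)

section Core

variable {E : Type*} [NormedAddCommGroup E] [NormedSpace ℝ E] [FiniteDimensional ℝ E]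
  [MeasurableSpace E] [BorelSpace E] (μ : Measure E) [μ.IsAddHaarMeasure]
variable {F : Type*} [NormedAddCommGroup F] [NormedSpace ℝ F] [FiniteDimensional ℝ F]

/-- differentiable almost everywhere from a uniform pointwise Lipschitz constant -/
theorem ae_diff {H : Finset ((E →L[ℝ] ℝ) × ℝ)} {c : ℝ} (hc : 0 ≤ c) {g : E → F}
    (h : ∀ x ∈ I H, LLV c g x) : ∀ᵐ x ∂μ, x ∈ I H → DifferentiableAt ℝ g x := by
  have hL : LipschitzOnWith (Real.toNNReal c) g (I H) := by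
    refine LipschitzOnWith.of_dist_le_mul fun x hx y hy => ?_
    rw [dist_eq_norm, dist_eq_norm, Real.coe_toNNReal c hc]
    exact lip_of_LLV (convex_I H) h hy hx
  filter_upwards [hL.ae_differentiableWithinAt_of_mem (μ := μ)] with x hx hxI
  exact (hx hxI).differentiableAt ((isOpen_I H).mem_nhds hxI)

/-- closeness of the increments gives closeness of the derivatives -/
theorem fderiv_sub_le {g : E → F} {L : E →L[ℝ] F} {x : E} {e : ℝ} (he : 0 ≤ e)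
    (hd : DifferentiableAt ℝ g x)
    (h : ∀ᶠ y in 𝓝 x, ‖(g y - g x) - L (y - x)‖ ≤ e * ‖y - x‖) : ‖fderiv ℝ g x - L‖ ≤ e := by
  have h1 : HasFDerivAt (fun y => g y - L y) (fderiv ℝ g x - L) x :=
    hd.hasFDerivAt.sub L.hasFDerivAt
  have h2 : LLV e (fun y => g y - L y) x := by
    filter_upwards [h] with y hy
    have e1 : (g y - L y) - (g x - L x) = (g y - g x) - L (y - x) := by
      rw [map_sub]; abel
    change ‖(g y - L y) - (g x - L x)‖ ≤ e * ‖y - x‖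
    rwa [e1]
  rw [← h1.fderiv]
  exact fderiv_le_of_LLV he h2

/-- **(EA2)**, abstract form: `g` is `C‖L‖`-Lipschitz near every point of the open tile, and close to
`L` off a set of small volume. -/
theorem core_energy' {H : Finset ((E →L[ℝ] ℝ) × ℝ)} (hne : (I H).Nonempty) {g : E → F}
    {L : E →L[ℝ] F} {C e l : ℝ} (hC : 0 ≤ C) (he : 0 ≤ e) (hl : 0 ≤ l) (hL : ‖L‖ ≤ l)
    (h1 : ∀ x ∈ I H, LLV (C * l) g x) {W : Set E}
    (hW : μ (W ∩ P H) ≤ ENNReal.ofReal e * μ (P H))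
    (h2 : ∀ x ∈ I H, x ∉ W → ∀ᶠ y in 𝓝 x, ‖(g y - g x) - L (y - x)‖ ≤ e * l * ‖y - x‖)
    {p : ℝ} (hp : 0 ≤ p) :
    ∫⁻ x in P H, ‖fderiv ℝ g x - L‖ₑ ^ p ∂μ ≤
      ENNReal.ofReal ((e ^ p + (C + 1) ^ p * e) * l ^ p) * μ (P H) := by
  set W' : Set E := toMeasurable μ (W ∩ P H) with hW'
  have hWm : MeasurableSet W' := measurableSet_toMeasurable _ _
  have hWs : W ∩ P H ⊆ W' := subset_toMeasurable _ _
  have hWμ : μ W' = μ (W ∩ P H) := measure_toMeasurable _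
  set a : ℝ≥0∞ := ENNReal.ofReal ((e * l) ^ p) with ha
  set b : ℝ≥0∞ := ENNReal.ofReal (((C + 1) * l) ^ p) with hb
  have key : ∀ {v : E →L[ℝ] F} {r : ℝ}, 0 ≤ r → ‖v‖ ≤ r → ‖v‖ₑ ^ p ≤ ENNReal.ofReal (r ^ p) := by
    intro v r hr hv
    rw [← ENNReal.ofReal_rpow_of_nonneg hr hp]
    refine ENNReal.rpow_le_rpow ?_ hp
    rw [← ofReal_norm]
    exact ENNReal.ofReal_le_ofReal hv
  have hae : ∀ᵐ x ∂μ.restrict (I H), ‖fderiv ℝ g x - L‖ₑ ^ p ≤ a + W'.indicator (fun _ => b) x := by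
    rw [ae_restrict_iff' (isOpen_I H).measurableSet]
    filter_upwards [ae_diff μ (mul_nonneg hC hl) h1] with x hx hxI
    by_cases hxW : x ∈ W'
    · rw [indicator_of_mem hxW]
      refine le_trans ?_ (self_le_add_left _ _)
      refine key (by positivity) ?_
      calc ‖fderiv ℝ g x - L‖ ≤ ‖fderiv ℝ g x‖ + ‖L‖ := norm_sub_le _ _
        _ ≤ C * l + l := add_le_add (fderiv_le_of_LLV (mul_nonneg hC hl) (h1 x hxI)) hL
        _ = (C + 1) * l := by ring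
    · rw [indicator_of_notMem hxW, add_zero]
      refine key (by positivity) ?_
      refine fderiv_sub_le (mul_nonneg he hl) (hx hxI) (h2 x hxI fun h => hxW (hWs ⟨h, I_sub_P H hxI⟩))
  calc ∫⁻ x in P H, ‖fderiv ℝ g x - L‖ₑ ^ p ∂μ
      = ∫⁻ x in I H, ‖fderiv ℝ g x - L‖ₑ ^ p ∂μ := by rw [restrict_P μ hne]
    _ ≤ ∫⁻ x in I H, (a + W'.indicator (fun _ => b) x) ∂μ := lintegral_mono_ae hae
    _ = a * μ (I H) + b * (μ.restrict (I H)) W' := by
        rw [lintegral_add_left measurable_const, setLIntegral_const, lintegral_indicator hWm,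
          lintegral_const, Measure.restrict_apply MeasurableSet.univ, univ_inter]
    _ ≤ a * μ (P H) + b * (ENNReal.ofReal e * μ (P H)) := by
        gcongr
        · exact I_sub_P H
        · exact (Measure.restrict_apply_le _ _).trans (hWμ.le.trans hW)
    _ = ENNReal.ofReal ((e ^ p + (C + 1) ^ p * e) * l ^ p) * μ (P H) := by
        rw [← mul_assoc, ← add_mul, ha, hb, ← ENNReal.ofReal_mul (by positivity),
          ← ENNReal.ofReal_add (by positivity) (by positivity), Real.mul_rpow he hl,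
          Real.mul_rpow (by positivity : (0:ℝ) ≤ C + 1) hl]
        congr 2
        ring

/-- **(EA2)**: the energy of `g - (1/lam) A` on an exact core (315's form of `Out.core`). -/
theorem core_energy {H : Finset ((E →L[ℝ] ℝ) × ℝ)} (hne : (I H).Nonempty) {g : E → E}
    (A : E ≃ᵃ[ℝ] E) {lam C e : ℝ} (hlam : 0 < lam) (hC : 0 ≤ C) (he : 0 ≤ e)
    (h1 : ∀ x ∈ I H, ∀ᶠ y in 𝓝 x, ‖g y - g x‖ ≤ C * (1 / lam * ‖A y - A x‖)) {W : Set E}
    (hW : μ (W ∩ P H) ≤ ENNReal.ofReal e * μ (P H))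
    (h2 : ∀ x ∈ I H, x ∉ W → ∀ᶠ y in 𝓝 x,
      ‖(g y - g x) - (1 / lam) • (A y - A x)‖ ≤ e * (1 / lam * ‖A y - A x‖))
    {p : ℝ} (hp : 0 ≤ p) :
    ∫⁻ x in P H, ‖fderiv ℝ g x - (1 / lam) • lin A‖ₑ ^ p ∂μ ≤
      ENNReal.ofReal ((e ^ p + (C + 1) ^ p * e) * (‖lin A‖ / lam) ^ p) * μ (P H) := by
  have hl : 0 ≤ ‖lin A‖ / lam := by positivity
  have hAle : ∀ x y : E, 1 / lam * ‖A y - A x‖ ≤ ‖lin A‖ / lam * ‖y - x‖ := by
    intro x y
    rw [lin_sub]
    calc 1 / lam * ‖lin A (y - x)‖ ≤ 1 / lam * (‖lin A‖ * ‖y - x‖) := by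
          gcongr
          exact (lin A).le_opNorm _
      _ = _ := by ring
  refine core_energy' μ hne hC he hl ?_ ?_ hW ?_ hp
  · rw [norm_smul, Real.norm_eq_abs, abs_of_pos (by positivity)]
    exact le_of_eq (by ring)
  · intro x hx
    filter_upwards [h1 x hx] with y hy
    calc ‖g y - g x‖ ≤ C * (1 / lam * ‖A y - A x‖) := hy
      _ ≤ C * (‖lin A‖ / lam * ‖y - x‖) := mul_le_mul_of_nonneg_left (hAle x y) hC
      _ = _ := by ring
  · intro x hx hxW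
    filter_upwards [h2 x hx hxW] with y hy
    have e1 : ((1 / lam) • lin A) (y - x) = (1 / lam) • (A y - A x) := by
      rw [lin_sub]; rfl
    rw [e1]
    calc _ ≤ e * (1 / lam * ‖A y - A x‖) := hy
      _ ≤ e * (‖lin A‖ / lam * ‖y - x‖) := mul_le_mul_of_nonneg_left (hAle x y) he
      _ = _ := by ring

/-- (EA2) against a third map `D`: `‖fderiv g - D‖ ≤ ‖fderiv g - (1/lam) A‖ + ‖(1/lam) A - D‖`. -/
theorem core_energy_sub {H : Finset ((E →L[ℝ] ℝ) × ℝ)} (hne : (I H).Nonempty) {g : E → E}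
    (A : E ≃ᵃ[ℝ] E) {lam C e : ℝ} (hlam : 0 < lam) (hC : 0 ≤ C) (he : 0 ≤ e)
    (h1 : ∀ x ∈ I H, ∀ᶠ y in 𝓝 x, ‖g y - g x‖ ≤ C * (1 / lam * ‖A y - A x‖)) {W : Set E}
    (hW : μ (W ∩ P H) ≤ ENNReal.ofReal e * μ (P H))
    (h2 : ∀ x ∈ I H, x ∉ W → ∀ᶠ y in 𝓝 x,
      ‖(g y - g x) - (1 / lam) • (A y - A x)‖ ≤ e * (1 / lam * ‖A y - A x‖))
    {p : ℝ} (hp : 1 ≤ p) {D : E → E →L[ℝ] E}
    (hD : AEMeasurable (fun x => D x) (μ.restrict (P H))) :
    ∫⁻ x in P H, ‖fderiv ℝ g x - D x‖ₑ ^ p ∂μ ≤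
      2 ^ (p - 1) * (ENNReal.ofReal ((e ^ p + (C + 1) ^ p * e) * (‖lin A‖ / lam) ^ p) * μ (P H) +
        ∫⁻ x in P H, ‖D x - (1 / lam) • lin A‖ₑ ^ p ∂μ) := by
  have hpt : ∀ x, ‖fderiv ℝ g x - D x‖ₑ ^ p ≤
      2 ^ (p - 1) * (‖fderiv ℝ g x - (1 / lam) • lin A‖ₑ ^ p + ‖D x - (1 / lam) • lin A‖ₑ ^ p) := by
    intro x
    refine le_trans ?_ (ENNReal.rpow_add_le_mul_rpow_add_rpow _ _ hp)
    refine ENNReal.rpow_le_rpow ?_ (by linarith)
    have e1 : fderiv ℝ g x - D x =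
        (fderiv ℝ g x - (1 / lam) • lin A) - (D x - (1 / lam) • lin A) := by abel
    rw [e1]
    exact enorm_sub_le
  have hm : AEMeasurable (fun x => ‖D x - (1 / lam) • lin A‖ₑ ^ p) (μ.restrict (P H)) :=
    ((hD.sub aemeasurable_const).enorm).pow_const _
  calc ∫⁻ x in P H, ‖fderiv ℝ g x - D x‖ₑ ^ p ∂μ
      ≤ ∫⁻ x in P H, 2 ^ (p - 1) * (‖fderiv ℝ g x - (1 / lam) • lin A‖ₑ ^ p +
          ‖D x - (1 / lam) • lin A‖ₑ ^ p) ∂μ := lintegral_mono hpt
    _ = 2 ^ (p - 1) * ∫⁻ x in P H, (‖fderiv ℝ g x - (1 / lam) • lin A‖ₑ ^ p +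
          ‖D x - (1 / lam) • lin A‖ₑ ^ p) ∂μ := by
        rw [lintegral_const_mul']
        exact ENNReal.rpow_ne_top_of_nonneg (by linarith) (by norm_num)
    _ = 2 ^ (p - 1) * (∫⁻ x in P H, ‖fderiv ℝ g x - (1 / lam) • lin A‖ₑ ^ p ∂μ +
          ∫⁻ x in P H, ‖D x - (1 / lam) • lin A‖ₑ ^ p ∂μ) := by
        rw [lintegral_add_right' _ hm]
    _ ≤ _ := by
        gcongr
        exact core_energy μ hne A hlam hC he h1 hW h2 (by linarith)

end Core

end Crest.Agent.R096.Ea_713
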