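import Crest.Agent.R096.Mbf_337
import Crest.Agent.R096.Ea2_713
import Crest.Agent.R096.EaX1_766
import Crest.Agent.R96.Eap1_348

/-!
Row 96 (S0127), helper713.  EA p, the conclusion half: from `Mbf_337.Out` (the machine) to the energy
clauses of `EaX_766.EA` (335 #10429 (D5), (D6)).
-/

set_option autoImplicit false
set_option linter.style.longLine false
set_option linter.unusedSectionVars false

open MeasureTheory Set Filter Topology Metric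
open scoped ENNReal NNReal

namespace Crest.Agent.R096.Eax_713

open Crest.Agent.R096.Bsp_628 Crest.Agent.R096.Brk1_582 Crest.Agent.R096.Brk3_582
open Crest.Agent.R096.Brk5_582
open Crest.Agent.R096.Msh_715 Crest.Agent.R96.Hole_348
open Crest.Agent.R096.SkC1_961 (E3 Hom3 IsPush FoamD Cfg th NN)
open Crest.Agent.R096.Mbf_337
open Crest.Agent.R096.Bxs_627 (ctr zz)
open Crest.Agent.R096.EaX_766 (cbx lin Kor)

noncomputable section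

variable {δ κ0 R c0 : ℝ} {La Om : Set E3} {ι : Type}

theorem lin_eq (A : E3 ≃ᵃ[ℝ] E3) : Ea_713.lin A = lin A := rfl

/-- the box of `EaX_766` = the box of `Exact` -/
theorem cbx_eq {Q : Bx (Fin 3)} {lam : ℝ} :
    cbx Q lam = {y | ∀ k, zz Q lam k + lam * Q.lo k ≤ y k ∧ y k ≤ zz Q lam k + lam * Q.hi k} := by
  ext y
  simp only [cbx, zz, ctr, Bx.side, Set.mem_ofPred_eq, abs_le]
  constructor
  · intro h k
    have := h k
    constructor <;> linarith [this.1, this.2]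
  · intro h k
    have := h k
    constructor <;> linarith [this.1, this.2]

/-- **(1) the exact cores** -/
theorem core_ea {Φ : FoamD δ κ0 R c0 La} {T : Tiling Om ι} {f g : E3 → E3} {X : Set Φ.F}
    {V : Φ.F → Set ι} {ct : Φ.F → ι} {A : Φ.F → E3 ≃ᵃ[ℝ] E3} {lam : Φ.F → ℝ} {κ : Φ.F → ℕ}
    {L : Φ.F → Finset ℝ} {tol : ι → ℝ} {C0 e1 : ℝ} {C : Set (Set E3) → ℝ}
    (hO : Out C0 C e1 Φ T f X V ct A lam κ L tol g) (hC0 : 0 ≤ C0) (he1 : 0 ≤ e1) {c : Φ.F}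
    (hc : c ∈ X) (hl : 0 < lam c) {p : ℝ} (hp : 0 ≤ p) :
    ∫⁻ x in P (T.H (ct c)), ‖fderiv ℝ g x - (lam c)⁻¹ • lin (A c)‖ₑ ^ p ≤
      ENNReal.ofReal ((e1 ^ p + (C0 + 1) ^ p * e1) / lam c ^ p) *
        (‖lin (A c)‖ₑ ^ p * volume (P (T.H (ct c)))) := by
  obtain ⟨h1, W, hW, h2⟩ := hO.core c hc
  have h3 := Ea_713.core_energy volume (T.ne (ct c)) (A c) hl hC0 he1 h1 hW h2 hp
  rw [lin_eq, one_div] at h3
  refine h3.trans (le_of_eq ?_)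
  have hn : 0 ≤ ‖lin (A c)‖ := norm_nonneg _
  have e2 : (e1 ^ p + (C0 + 1) ^ p * e1) * (‖lin (A c)‖ / lam c) ^ p =
      (e1 ^ p + (C0 + 1) ^ p * e1) / lam c ^ p * ‖lin (A c)‖ ^ p := by
    rw [Real.div_rpow hn hl.le]
    ring
  have h4 : 0 ≤ (e1 ^ p + (C0 + 1) ^ p * e1) / lam c ^ p := by positivity
  rw [e2, ENNReal.ofReal_mul h4, mul_assoc, ← ENNReal.ofReal_rpow_of_nonneg hn hp, ofReal_norm]

/-- the ordinary tiles -/
def Ord {F : Type*} (V : F → Set ι) : Set ι := {i | ∀ c, i ∉ V c}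

/-- the shape of the tile `i` in the frame `B` -/
def shp (T : Tiling Om ι) (B : ι → E3 ≃ᵃ[ℝ] E3) (i : ι) : Set (Set E3) :=
  (fun K => B i '' K) '' Cfg T i

/-- the Lipschitz constants of the machine in the ordinary tiles -/
def ell (C : Set (Set E3) → ℝ) (T : Tiling Om ι) (B : ι → E3 ≃ᵃ[ℝ] E3) (N : ι → ℝ) (tol : ι → ℝ)
    (i : ι) : ℝ := C (shp T B i) * N i * ‖lin (B i)‖ + tol i

theorem ell_nonneg {C : Set (Set E3) → ℝ} (hC : ∀ 𝒦, 0 < C 𝒦) {T : Tiling Om ι}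
    {B : ι → E3 ≃ᵃ[ℝ] E3} {N : ι → ℝ} {tol : ι → ℝ} {i : ι} (hN : 0 ≤ N i) (ht : 0 ≤ tol i) :
    0 ≤ ell C T B N tol i := by
  have := (hC (shp T B i)).le
  unfold ell
  positivity

/-- the local Lipschitz constants -/
theorem ell_lip {Φ : FoamD δ κ0 R c0 La} {T : Tiling Om ι} {f g : E3 → E3} {X : Set Φ.F}
    {V : Φ.F → Set ι} {ct : Φ.F → ι} {A : Φ.F → E3 ≃ᵃ[ℝ] E3} {lam : Φ.F → ℝ} {κ : Φ.F → ℕ}
    {L : Φ.F → Finset ℝ} {tol : ι → ℝ} {C0 e1 : ℝ} {C : Set (Set E3) → ℝ}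
    (hO : Out C0 C e1 Φ T f X V ct A lam κ L tol g) (hC : ∀ 𝒦, 0 < C 𝒦) {B : ι → E3 ≃ᵃ[ℝ] E3}
    {N : ι → ℝ} {i : ι} (hi : i ∈ Ord V) (hN : 0 ≤ N i)
    (hNN : NN Φ T f κ L i ≤ ENNReal.ofReal (N i)) :
    ∀ x ∈ I (T.H i), LLV (ell C T B N tol i) g x := by
  intro x hx
  have h1 := hO.lip i hi (B i) (N i) hN hNN x hx
  exact Ea_713.LLV_of_affine (mul_nonneg (hC _).le hN) h1

/-- `(a + b)^p ≤ 2^(p-1) (a^p + b^p)` -/
theorem ell_rpow {C : Set (Set E3) → ℝ} (hC : ∀ 𝒦, 0 < C 𝒦) {T : Tiling Om ι}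
    {B : ι → E3 ≃ᵃ[ℝ] E3} {N : ι → ℝ} {tol : ι → ℝ} {i : ι} (hN : 0 ≤ N i) (ht : 0 ≤ tol i)
    {p : ℝ} (hp : 1 ≤ p) :
    ENNReal.ofReal (ell C T B N tol i ^ p) ≤
      2 ^ (p - 1) * (ENNReal.ofReal ((C (shp T B i) * N i * ‖lin (B i)‖) ^ p) +
        ENNReal.ofReal (tol i ^ p)) := by
  have hp0 : 0 ≤ p := by linarith
  have h1 : 0 ≤ C (shp T B i) * N i * ‖lin (B i)‖ := by
    have := (hC (shp T B i)).le
    positivity
  rw [← ENNReal.ofReal_rpow_of_nonneg (ell_nonneg hC hN ht) hp0,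
    ← ENNReal.ofReal_rpow_of_nonneg h1 hp0, ← ENNReal.ofReal_rpow_of_nonneg ht hp0]
  unfold ell
  rw [ENNReal.ofReal_add h1 ht]
  exact ENNReal.rpow_add_le_mul_rpow_add_rpow _ _ hp

/-- the sum over a set of tiles -/
theorem ell_sum {C : Set (Set E3) → ℝ} (hC : ∀ 𝒦, 0 < C 𝒦) {T : Tiling Om ι}
    {B : ι → E3 ≃ᵃ[ℝ] E3} {N : ι → ℝ} {tol : ι → ℝ} {S : Set ι} (hN : ∀ i ∈ S, 0 ≤ N i)
    (ht : ∀ i, 0 ≤ tol i) {p : ℝ} (hp : 1 ≤ p) :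
    ∑' i : S, ENNReal.ofReal (ell C T B N tol i.1 ^ p) * volume (P (T.H i.1)) ≤
      2 ^ (p - 1) * ((∑' i : S, ENNReal.ofReal ((C (shp T B i.1) * N i.1 * ‖lin (B i.1)‖) ^ p) *
        volume (P (T.H i.1))) + ∑' i, ENNReal.ofReal (tol i ^ p) * volume (P (T.H i))) := by
  calc ∑' i : S, ENNReal.ofReal (ell C T B N tol i.1 ^ p) * volume (P (T.H i.1))
      ≤ ∑' i : S, 2 ^ (p - 1) * (ENNReal.ofReal ((C (shp T B i.1) * N i.1 * ‖lin (B i.1)‖) ^ p) *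
          volume (P (T.H i.1)) + ENNReal.ofReal (tol i.1 ^ p) * volume (P (T.H i.1))) := by
        refine ENNReal.tsum_le_tsum fun i => ?_
        rw [← add_mul, ← mul_assoc]
        exact mul_le_mul' (ell_rpow hC (hN i.1 i.2) (ht i.1) hp) le_rfl
    _ = 2 ^ (p - 1) * ((∑' i : S, ENNReal.ofReal ((C (shp T B i.1) * N i.1 * ‖lin (B i.1)‖) ^ p) *
          volume (P (T.H i.1))) + ∑' i : S, ENNReal.ofReal (tol i.1 ^ p) * volume (P (T.H i.1))) := by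
        rw [ENNReal.tsum_mul_left, ENNReal.tsum_add]
    _ ≤ _ := by
        refine mul_le_mul' le_rfl (add_le_add le_rfl ?_)
        exact ENNReal.tsum_comp_le_tsum_of_injective Subtype.val_injective
          (fun i => ENNReal.ofReal (tol i ^ p) * volume (P (T.H i)))

/-- **(2) the ordinary tiles** -/
theorem ord_ea {Φ : FoamD δ κ0 R c0 La} {T : Tiling Om ι} {f g : E3 → E3} {X : Set Φ.F}
    {V : Φ.F → Set ι} {ct : Φ.F → ι} {A : Φ.F → E3 ≃ᵃ[ℝ] E3} {lam : Φ.F → ℝ} {κ : Φ.F → ℕ}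
    {L : Φ.F → Finset ℝ} {tol : ι → ℝ} {C0 e1 : ℝ} {C : Set (Set E3) → ℝ}
    (hO : Out C0 C e1 Φ T f X V ct A lam κ L tol g) (hC : ∀ 𝒦, 0 < C 𝒦) {B : ι → E3 ≃ᵃ[ℝ] E3}
    {N : ι → ℝ} {S : Set ι} (hS : S ⊆ Ord V) (hN : ∀ i ∈ S, 0 ≤ N i)
    (hNN : ∀ i ∈ S, NN Φ T f κ L i ≤ ENNReal.ofReal (N i)) (ht : ∀ i, 0 ≤ tol i) {p : ℝ}
    (hp : 1 ≤ p) :
    ∫⁻ x in ⋃ i ∈ S, P (T.H i), ‖fderiv ℝ g x‖ₑ ^ p ≤
      2 ^ (p - 1) * ((∑' i : S, ENNReal.ofReal ((C (shp T B i.1) * N i.1 * ‖lin (B i.1)‖) ^ p) *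
        volume (P (T.H i.1))) + ∑' i, ENNReal.ofReal (tol i ^ p) * volume (P (T.H i))) := by
  refine le_trans ?_ (ell_sum hC hN ht hp)
  refine Ea_713.lint_tiles volume T S (w := fun x => ‖fderiv ℝ g x‖ₑ ^ p)
    (c := fun i => ENNReal.ofReal (ell C T B N tol i ^ p)) fun i hi x hx => ?_
  exact Ea_713.enorm_fderiv_rpow_le (ell_nonneg hC (hN i hi) (ht i)) (by linarith)
    (ell_lip hO hC (hS hi) (hN i hi) (hNN i hi) x hx)

/-- the complement of the exact cores is covered by the other tiles -/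
theorem compl_sub (T : Tiling Om ι) {F : Type*} {X : Set F} {ct : F → ι} {K : F → Set E3}
    (hK : ∀ c ∈ X, P (T.H (ct c)) = K c) :
    Om \ ⋃ c ∈ X, K c ⊆ ⋃ i ∈ {i | ∀ c ∈ X, i ≠ ct c}, P (T.H i) := by
  rintro x ⟨hx, hxK⟩
  obtain ⟨i, hi⟩ := T.cov x hx
  refine mem_iUnion₂.2 ⟨i, fun c hc e => hxK (mem_iUnion₂.2 ⟨c, hc, ?_⟩), hi⟩
  rw [← hK c hc, ← e]
  exact hi

end

end Crest.Agent.R096.Eax_713
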