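import Crest.Agent.R096.Bxs10_627
import Crest.Agent.R96.Push16_899

/-!
Row 96 (S0127), NO0 for `p ≥ 3` (helper635; answer to 962 #10559 (4), see #10735).
The `FoamD` `fN` whose push has the OUTER STAGE `coreBF` (ratio `1/4`, centre of the brick, the push of
899's `pushNO_*`) and the hole `cb (lam / 2)` with `0 < lam ≤ 1/4` arbitrarily small: `c0 ≤ 1 / (8 κ0)`
does not depend on `lam`, and `Mbf_337.Exact` holds for the core boxes `cbx Q lam` (an intermediate box
of the first stage).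
-/

set_option autoImplicit false
set_option linter.unusedSectionVars false
set_option linter.style.longLine false
set_option linter.unusedVariables false

open MeasureTheory Set Filter Topology Metric
open scoped ENNReal NNReal

namespace Crest.Agent.R096.Bxc1_635

open Crest.Agent.R096.Bsp_628 Crest.Agent.R96.Push_899
open Crest.Agent.R096.Brk5_582 Crest.Agent.R096.Msh_715 Crest.Agent.R096.EaX_766
open Crest.Agent.R096.Bxs_627

noncomputable section

section conc

variable {ι : Type*} [Fintype ι] [Nonempty ι]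

/-- concentric homothetic boxes: the gauge -/
theorem tt_conc {C B : Box ι} {q w : ι → ℝ} {a b l : ℝ} (hw : ∀ k, 0 < w k) (hab : a < b)
    (hCl : ∀ k, C.lo k = q k - b * w k) (hCh : ∀ k, C.hi k = q k + b * w k)
    (hBl : ∀ k, B.lo k = q k - a * w k) (hBh : ∀ k, B.hi k = q k + a * w k) {y : ι → ℝ}
    (hy : ∀ k, |y k - q k| ≤ l * w k) (hy' : ∃ k, |y k - q k| = l * w k) :
    tt C B y = (l - a) / (b - a) := by
  have hba : 0 < b - a := sub_pos.2 hab
  have e1 : ∀ k, C.hi k - B.hi k = (b - a) * w k := fun k => by rw [hCh, hBh]; ring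
  have e2 : ∀ k, B.lo k - C.lo k = (b - a) * w k := fun k => by rw [hCl, hBl]; ring
  have e3 : ∀ k, 0 < (b - a) * w k := fun k => mul_pos hba (hw k)
  apply le_antisymm
  · rw [tt_le_iff]
    intro k
    unfold gg
    rw [e1, e2]
    have h1 := abs_le.1 (hy k)
    apply max_le
    · rw [div_le_div_iff₀ (e3 k) hba, hBh]
      have h3 : y k - q k - a * w k ≤ (l - a) * w k := by linarith [h1.2]
      calc (y k - (q k + a * w k)) * (b - a) = (y k - q k - a * w k) * (b - a) := by ring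
        _ ≤ (l - a) * w k * (b - a) := mul_le_mul_of_nonneg_right h3 hba.le
        _ = (l - a) * ((b - a) * w k) := by ring
    · rw [div_le_div_iff₀ (e3 k) hba, hBl]
      have h3 : q k - a * w k - y k ≤ (l - a) * w k := by linarith [h1.1]
      calc (q k - a * w k - y k) * (b - a) ≤ (l - a) * w k * (b - a) :=
            mul_le_mul_of_nonneg_right h3 hba.le
        _ = (l - a) * ((b - a) * w k) := by ring
  · obtain ⟨k, hk⟩ := hy'
    refine le_trans ?_ (gg_le_tt C B y k)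
    unfold gg
    rw [e1, e2]
    rcases abs_choice (y k - q k) with h | h
    · refine le_trans (le_of_eq ?_) (le_max_left _ _)
      rw [h] at hk
      rw [div_eq_div_iff hba.ne' (e3 k).ne', hBh]
      have : y k - (q k + a * w k) = (l - a) * w k := by linarith
      rw [this]; ring
    · refine le_trans (le_of_eq ?_) (le_max_right _ _)
      rw [h] at hk
      rw [div_eq_div_iff hba.ne' (e3 k).ne', hBl]
      have : q k - a * w k - y k = (l - a) * w k := by linarith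
      rw [this]; ring

/-- concentric homothetic boxes: the push is the homothety on every intermediate box -/
theorem psh_conc {C B : Box ι} {q w : ι → ℝ} {a b l : ℝ} (hw : ∀ k, 0 < w k) (hab : a < b)
    (hl : 0 < l)
    (hCl : ∀ k, C.lo k = q k - b * w k) (hCh : ∀ k, C.hi k = q k + b * w k)
    (hBl : ∀ k, B.lo k = q k - a * w k) (hBh : ∀ k, B.hi k = q k + a * w k) {y : ι → ℝ}
    (hy : ∀ k, |y k - q k| ≤ l * w k) (hy' : ∃ k, |y k - q k| = l * w k) :
    psh C B y = fun k => q k + b / l * (y k - q k) := by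
  have hba : 0 < b - a := sub_pos.2 hab
  have ht := tt_conc hw hab hCl hCh hBl hBh hy hy'
  funext k
  unfold psh
  rw [ht]
  have e2 : B.lo k - C.lo k = (b - a) * w k := by rw [hCl, hBl]; ring
  have h1 : cl C B k ((l - a) / (b - a)) = q k - l * w k := by
    unfold cl
    rw [e2, hBl]
    have : (l - a) / (b - a) * ((b - a) * w k) = (l - a) * w k := by
      field_simp
    rw [this]; ring
  have h2 : ww C B k ((l - a) / (b - a)) = 2 * l * w k := by
    rw [ww_eq]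
    have h3 : B.W k = 2 * a * w k := by unfold Box.W; rw [hBl, hBh]; ring
    have h4 : C.W k = 2 * b * w k := by unfold Box.W; rw [hCl, hCh]; ring
    rw [h3, h4]
    have : (l - a) / (b - a) * (2 * b * w k - 2 * a * w k) = 2 * (l - a) * w k := by
      field_simp
    rw [this]; ring
  have h4 : C.W k = 2 * b * w k := by unfold Box.W; rw [hCl, hCh]; ring
  rw [h1, h2, h4, hCl]
  have := (hw k).ne'
  field_simp
  ring

end conc

variable {Q : Bx (Fin 3)}

theorem ctr_mid (hQ : Q.Pos) : ctr Q ∈ Mid (qb Q hQ) := by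
  constructor
  · intro i
    show Q.lo i + (qb Q hQ).W i / 4 ≤ ctr Q i
    rw [qb_W, ← ctr_lo Q i]
    have := Bx.side_pos hQ i
    linarith
  · intro i
    show ctr Q i ≤ Q.hi i - (qb Q hQ).W i / 4
    rw [qb_W, ← ctr_hi Q i]
    have := Bx.side_pos hQ i
    linarith

/-- the push of the brick: outer stage `coreBF`, hole `cb (lam / 2)` -/
def puN (Q : Bx (Fin 3)) (hQ : Q.Pos) (lam : ℝ) (hl : 0 < lam) : E3 → E3 :=
  psi (qb Q hQ) (coreBF (qb Q hQ) (ctr Q)) (cb Q hQ (lam / 2) (half_pos hl).le)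

/-- the hole in the sense of 899 -/
theorem hole_cb (hQ : Q.Pos) {lam : ℝ} (hl : 0 < lam) (hl4 : lam ≤ 3 / 8) :
    Hole (lam / 2) (qb Q hQ) (ctr Q) (cb Q hQ (lam / 2) (half_pos hl).le) := by
  refine ⟨half_pos hl, fun i => ?_, fun i => ?_, fun i => ?_⟩
  · rw [cb, hb_W]
  · rw [cb_lo, qb_W]
    have := Bx.side_pos hQ i
    nlinarith
  · rw [cb_hi, qb_W]
    have := Bx.side_pos hQ i
    nlinarith

/-- the clause `ray` -/
theorem puN_ray (hQ : Q.Pos) {lam : ℝ} (hl : 0 < lam) (hl4 : lam ≤ 1 / 4) (y : E3)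
    (hy : ∀ k, zz Q lam k + lam * Q.lo k ≤ y k ∧ y k ≤ zz Q lam k + lam * Q.hi k)
    (hy' : ∃ k, y k = zz Q lam k + lam * Q.lo k ∨ y k = zz Q lam k + lam * Q.hi k) :
    puN Q hQ lam hl y = fun k => (y k - zz Q lam k) / lam := by
  have hW : ∀ i, 0 < (qb Q hQ).W i := fun i => Bx.side_pos hQ i
  have hw : ∀ k, 0 < Q.side k / 2 := fun k => half_pos (Bx.side_pos hQ k)
  have hy1 : ∀ k, |y k - ctr Q k| ≤ lam * (Q.side k / 2) := fun k => by
    have h := hy k
    rw [zz_lo, zz_hi] at h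
    rw [abs_le]
    constructor <;> linarith [h.1, h.2]
  have hy2 : ∃ k, |y k - ctr Q k| = lam * (Q.side k / 2) := by
    obtain ⟨k, hk⟩ := hy'
    refine ⟨k, ?_⟩
    have hp := mul_pos hl (hw k)
    rcases hk with hk | hk
    · rw [zz_lo] at hk
      rw [hk]
      have : ctr Q k - lam * Q.side k / 2 - ctr Q k = -(lam * (Q.side k / 2)) := by ring
      rw [this, abs_neg, abs_of_pos hp]
    · rw [zz_hi] at hk
      rw [hk]
      have : ctr Q k + lam * Q.side k / 2 - ctr Q k = lam * (Q.side k / 2) := by ring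
      rw [this, abs_of_pos hp]
  have c1 : ∀ k, (coreBF (qb Q hQ) (ctr Q)).lo k = ctr Q k - 1 / 4 * (Q.side k / 2) := fun k => by
    rw [coreBF_lo hW, qb_W]; ring
  have c2 : ∀ k, (coreBF (qb Q hQ) (ctr Q)).hi k = ctr Q k + 1 / 4 * (Q.side k / 2) := fun k => by
    rw [coreBF_hi hW, qb_W]; ring
  have b1 : ∀ k, (cb Q hQ (lam / 2) (half_pos hl).le).lo k = ctr Q k - lam / 2 * (Q.side k / 2) :=
    fun k => by rw [cb_lo]; ring
  have b2 : ∀ k, (cb Q hQ (lam / 2) (half_pos hl).le).hi k = ctr Q k + lam / 2 * (Q.side k / 2) :=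
    fun k => by rw [cb_hi]; ring
  have q1 : ∀ k, (qb Q hQ).lo k = ctr Q k - 1 * (Q.side k / 2) := fun k => by
    show Q.lo k = _
    rw [← ctr_lo Q k]; ring
  have q2 : ∀ k, (qb Q hQ).hi k = ctr Q k + 1 * (Q.side k / 2) := fun k => by
    show Q.hi k = _
    rw [← ctr_hi Q k]; ring
  have hin : y ∈ (coreBF (qb Q hQ) (ctr Q)).S := by
    intro k
    rw [c1, c2]
    have h := abs_le.1 (hy1 k)
    have h2 : lam * (Q.side k / 2) ≤ 1 / 4 * (Q.side k / 2) :=
      mul_le_mul_of_nonneg_right hl4 (hw k).le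
    constructor <;> linarith [h.1, h.2]
  unfold puN
  rw [psi_in hin, psh_conc hw (by linarith) hl c1 c2 b1 b2 hy1 hy2]
  have hz1 : ∀ k, |(ctr Q k + 1 / 4 / lam * (y k - ctr Q k)) - ctr Q k| ≤ 1 / 4 * (Q.side k / 2) := by
    intro k
    rw [add_sub_cancel_left, abs_mul, abs_of_pos (by positivity)]
    calc 1 / 4 / lam * |y k - ctr Q k| ≤ 1 / 4 / lam * (lam * (Q.side k / 2)) :=
          mul_le_mul_of_nonneg_left (hy1 k) (by positivity)
      _ = 1 / 4 * (Q.side k / 2) := by field_simp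
  have hz2 : ∃ k, |(ctr Q k + 1 / 4 / lam * (y k - ctr Q k)) - ctr Q k| = 1 / 4 * (Q.side k / 2) := by
    obtain ⟨k, hk⟩ := hy2
    refine ⟨k, ?_⟩
    rw [add_sub_cancel_left, abs_mul, abs_of_pos (by positivity), hk]
    field_simp
  rw [psh_conc hw (by norm_num) (by norm_num : (0 : ℝ) < 1 / 4) q1 q2 c1 c2 hz1 hz2]
  funext k
  simp only [zz]
  field_simp
  ring

/-- **the foam for NO0, `p ≥ 3`**: outer stage `coreBF`, concentric holes of ratio `lam c / 2`. -/
def fN {La : Set E3} {F : Set (Bx (Fin 3))} {δ κ0 R c0 : ℝ} (bf : BoxFoam La F δ κ0) (cmp : Cmp F R)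
    (hκ : 1 ≤ κ0) (hc : 0 < c0) (hc2 : c0 * (8 * κ0) ≤ 1) (lam : F → ℝ) (hl : ∀ c, 0 < lam c)
    (hl4 : ∀ c, lam c ≤ 1 / 4) : SkC1_961.FoamD δ κ0 R c0 La where
  F := F
  bf := bf
  cmp := cmp
  B c := cb c.1 (bf.pos _ c.2) (lam c / 2) (half_pos (hl c)).le
  pu c := puN c.1 (bf.pos _ c.2) (lam c) (hl c)
  push c := by
    have hQ := bf.pos _ c.2
    have hW : ∀ i, 0 < (qb c.1 hQ).W i := fun i => Bx.side_pos hQ i
    have hs := shapeBF hκ hW (fun i j => (c.1.side_le_sz i).trans (bf.asp _ c.2 j)) (ctr_mid hQ)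
    have hc8 : c0 ≤ 1 / (8 * κ0) := by rw [le_div_iff₀ (by linarith)]; exact hc2
    have hsd := side_pos hW
    refine Or.inr ⟨∅, 0, side (qb c.1 hQ), coreBF (qb c.1 hQ) (ctr c.1), ?_, ?_, rfl⟩
    · exact ⟨hc, hc8.trans (by rw [div_le_one (by linarith)]; linarith), hsd, le_rfl, hW,
        fun i => (mul_le_mul_of_nonneg_right hc8 hsd.le).trans (hs.lo1 i), hs.lo2,
        fun i => (mul_le_mul_of_nonneg_right hc8 hsd.le).trans (hs.hi1 i), hs.hi2,
        fun i => (mul_le_mul_of_nonneg_right hc8 (hW i).le).trans (hs.wd i),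
        fun i hi => absurd hi (Finset.notMem_empty i)⟩
    · exact (hole_cb hQ (hl c) ((hl4 c).trans (by norm_num))).inner hW

section Ex

variable {La : Set E3} {F : Set (Bx (Fin 3))} {δ κ0 R c0 : ℝ}

/-- **`Mbf_337.Exact`** for a brick of `fN`, from `CoriE` (core ratio `lam c` as small as one wants). -/
theorem exactN (bf : BoxFoam La F δ κ0) (cmp : Cmp F R) (hκ : 1 ≤ κ0) (hc : 0 < c0)
    (hc2 : c0 * (8 * κ0) ≤ 1) (lam : F → ℝ) (hl : ∀ c, 0 < lam c) (hl4 : ∀ c, lam c ≤ 1 / 4)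
    {Om : Set E3} {f : E3 → E3} {κ1 κ2 : ℝ} (h0 : 0 ≤ κ2) (h2 : κ2 ≤ 1 / 4) (hκ1 : 0 ≤ κ1)
    (hκ12 : κ1 * κ0 ≤ κ2)
    {ι : Type} {T : Tiling Om ι} {c : F} {i : ι} {A : E3 ≃ᵃ[ℝ] E3}
    (hcor : CoriE Om f A c.1 (lam c) κ1 κ2)
    (htile : P (T.H i) = A ⁻¹' cbx c.1 (lam c)) :
    Mbf_337.Exact (fN bf cmp hκ hc hc2 lam hl hl4) T f κ1 κ2 c i A (lam c) (zz c.1 (lam c)) := by
  have hpos := bf.pos _ c.2
  have hlc : 0 < lam c := hl c
  have hl1 : lam c < 1 := (hl4 c).trans_lt (by norm_num)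
  have hk : ∀ k, κ1 * (lam c * c.1.sz) ≤ κ2 * (lam c * c.1.side k) := by
    intro k
    have h3 := bf.asp _ c.2 k
    have h4 : 0 ≤ lam c * c.1.side k := (mul_pos hlc (Bx.side_pos hpos k)).le
    calc κ1 * (lam c * c.1.sz) ≤ κ1 * (lam c * (κ0 * c.1.side k)) := by gcongr
      _ = κ1 * κ0 * (lam c * c.1.side k) := by ring
      _ ≤ κ2 * (lam c * c.1.side k) := mul_le_mul_of_nonneg_right hκ12 h4
  have hcl := cl_nbd_miss hpos hlc h2 hk hcor
  have htile' : ∀ x, x ∈ P (T.H i) ↔ ∀ k, zz c.1 (lam c) k + lam c * c.1.lo k ≤ A x k ∧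
      A x k ≤ zz c.1 (lam c) k + lam c * c.1.hi k := fun x => by
    rw [htile, mem_preimage, mem_cbx_iff]
  exact
    { lam0 := hlc
      lam1 := hl1
      box_in := cl_box_in hpos hl1
      hole := cl_hole hpos hlc h2
      ray := fun y hy hy' => puN_ray hpos hlc (hl4 c) y hy hy'
      tile := by rw [htile]; ext x; rw [mem_preimage, mem_cbx_iff]; rfl
      nbd := fun x hx => ⟨(hcl.1 x hx).1, fun _ => (hcl.1 x hx).2⟩
      inside := fun x hx k => hcor.sub hpos hlc h0 hk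
        (by nlinarith [hl4 c]) x ((htile' x).1 hx) k
      miss := fun x hx hxt => hcl.2 x hx (fun h => hxt ((htile' x).2 h)) }

/-- **`Mbf_337.Cores`, all bricks exact**, for `fN`. -/
theorem coresN (bf : BoxFoam La F δ κ0) (cmp : Cmp F R) (hκ : 1 ≤ κ0) (hc : 0 < c0)
    (hc2 : c0 * (8 * κ0) ≤ 1) (lam : F → ℝ) (hl : ∀ c, 0 < lam c) (hl4 : ∀ c, lam c ≤ 1 / 4)
    {Om : Set E3} {f : E3 → E3} {κ1 κ2 : ℝ} (h0 : 0 ≤ κ2) (h2 : κ2 ≤ 1 / 4) (hκ1 : 0 ≤ κ1)
    (hκ12 : κ1 * κ0 ≤ κ2)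
    {ι : Type} {T : Tiling Om ι} {ct : F → ι} (hct : Function.Injective ct) {A : F → E3 ≃ᵃ[ℝ] E3}
    (hcor : ∀ c, CoriE Om f (A c) c.1 (lam c) κ1 κ2)
    (htile : ∀ c, P (T.H (ct c)) = A c ⁻¹' cbx c.1 (lam c)) :
    Mbf_337.Cores (fN bf cmp hκ hc hc2 lam hl hl4) T f κ1 κ2 univ (fun c => {ct c})
      (fun c => {ct c}) (fun c => {ct c}) ct A lam (fun c => zz c.1 (lam c)) (fun _ x => x)
      (fun _ _ => 0) where
  disj c c' h := by
    rw [disjoint_singleton]
    exact fun e => h (hct e)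
  one _ _ := ⟨rfl, rfl, rfl⟩
  exact_ c _ := exactN bf cmp hκ hc hc2 lam hl hl4 h0 h2 hκ1 hκ12 (hcor c) (htile c)
  tiny c h := absurd (mem_univ c) h

end Ex

end

end Crest.Agent.R096.Bxc1_635
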