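import Crest.Agent.R096.Npr1_582
import Crest.Agent.R096.EaX1_766
import Crest.Agent.R096.Bxc1_635

/-!
Row 96 (S0127), helper962, node NO0-PRE3.  **The literal Prop `ExFront3 p`** = the front of `NO0` for
`p ≥ 3` (hole opening BEFORE the stretch, #10559; order of #10669 / #10805 (E2)): what the mesh part
of `NOPre p` consumes.  Definitions only.
-/

set_option autoImplicit false
set_option linter.unusedSectionVars false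
set_option linter.unusedVariables false
open Set Filter Topology MeasureTheory
open scoped NNReal ENNReal

noncomputable section

namespace Crest.Agent.R096.Np_962

open Crest.Agent.R096.Brk5_582 Crest.Agent.R096.Bsp_628 Crest.Agent.R096.Log1_582
open Crest.Agent.R096.Log2_582 Crest.Agent.R096.Dic6_582 Crest.Agent.R096.Dic7_582
open Crest.Agent.R096.Npr_582
open Crest.Agent.R96.Push_899 (EE LaE)
open Crest.Agent.R96.Acl_392 Crest.Agent.R96.Sob2_199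
open Crest.Agent.R096.SkC1_961 (E3 Hom3 FoamD)
open Crest.Agent.R096.Er_594 (SH3)
open Crest.Agent.R96.En10_199 (P3)
open Crest.Agent.R096.EaX_766 (cbx lin RatA ExIn)

/-- the dyadic constant of the log foam -/
def Md (q : ℕ) : ℝ := max (4 / dl (Fin 3) (max 3 (2 * q))) (4 * q)

/-- **the part of the front which does not depend on the kind of the holes** (word for word
`Npr_582.Front` without `near`, `pt`, `pu`, `mid`) -/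
structure FrontC (p : ℝ) (q : ℕ) (s : Fin 3 → ℝ) (ε ε' : ℝ≥0∞) (Om La : Set E3) (M h : ℝ)
    (a : Fin 3 → ℝ) (Φ : FoamD (dF q) (kF q) 6 (cN q) La) (f1 : E3 → E3) (X HH : Set E3)
    (g : Φ.F → Fin 3 → E3 → ℝ) : Prop where
  q1 : 1 ≤ q
  h0 : 0 < h
  fr : ∃ K₀ : Set (EE (Fin 3)), IsCompact K₀ ∧ K₀ ⊆ LaE La ∧ Fr q (LaE La) K₀ M h a Φ.F
  homeo : Hom3 f1 Om La
  op : IsOpen (Op Φ Om f1)
  XO : X ⊆ Om
  Xm : MeasurableSet X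
  Xv : volume X ≤ ε' * volume Om
  HHo : IsOpen HH
  HHs : HH ⊆ Op Φ Om f1
  HHX : Om \ X ⊆ HH
  HHw : ∀ x ∈ HH, HW Φ.F q a h (Φ.Psi (f1 x))
  Qv : volume {x | x ∈ Om ∧ ¬ (x ∈ HH ∧ QW Φ.F q a h (Φ.Psi (f1 x)))} ≤ (ε + ε') * volume Om
  gm : ∀ c l, Measurable (g c l)
  wd : ∀ c l, WD (Op Φ Om f1) volume (fun x => Φ.lev c (f1 x)) (g c l) (Pi.single l 1)
  eW : ∀ (l : Fin 3) (w : Φ.F → ℝ≥0∞), (∀ c : Φ.F, IsLog q a h c.1 → w c = ENNReal.ofReal (h / 2)) →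
    (∀ c : Φ.F, w c ≤ ENNReal.ofReal c.1.sz) →
    ∫⁻ x in Op Φ Om f1, (∑' c, w c * ‖g c l x‖ₑ - ENNReal.ofReal (s l)) ^ p ≤ ε * volume Om
  eX : ∀ (l : Fin 3) (w : Φ.F → ℝ≥0∞), (∀ c : Φ.F, IsLog q a h c.1 → w c = ENNReal.ofReal (h / 2)) →
    (∀ c : Φ.F, w c ≤ ENNReal.ofReal c.1.sz) →
    ∫⁻ x in Op Φ Om f1 ∩ X, (∑' c, w c * ‖g c l x‖ₑ) ^ p ≤ ε' * volume Om

theorem FrontC.of_front {p : ℝ} {q : ℕ} {s : Fin 3 → ℝ} {ε ε' : ℝ≥0∞} {Om La : Set E3}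
    {f : E3 → E3} {M h : ℝ} {a : Fin 3 → ℝ} {Φ : FoamD (dF q) (kF q) 6 (cN q) La} {z : Φ.F → E3}
    {f1 : E3 → E3} {X HH : Set E3} {g : Φ.F → Fin 3 → E3 → ℝ}
    (H : Front p q s ε ε' Om La f M h a Φ z f1 X HH g) :
    FrontC p q s ε ε' Om La M h a Φ f1 X HH g where
  q1 := H.q1
  h0 := H.h0
  fr := by obtain ⟨K₀, h1, h2, h3, -⟩ := H.fr; exact ⟨K₀, h1, h2, h3⟩
  homeo := H.homeo
  op := H.op
  XO := H.XO
  Xm := H.Xm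
  Xv := H.Xv
  HHo := H.HHo
  HHs := H.HHs
  HHX := H.HHX
  HHw := H.HHw
  Qv := H.Qv
  gm := H.gm
  wd := H.wd
  eW := H.eW
  eX := H.eX

/-- **output of the front, `p ≥ 3`.**  Every brick `c` has an exact core: ratio `lam c ≥ lam0`,
rational affine map `A c` (units: corner `a`, brick size `h`), `f1` is close to `A c` over the box
enlarged by `1 + 2 κ2` (`ExIn`, 766); all these sets are in the bad set `X`. -/
structure Front3 (p : ℝ) (q : ℕ) (s : Fin 3 → ℝ) (ε ε' : ℝ≥0∞) (Om La : Set E3) (f : E3 → E3)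
    (M ρ0 h : ℝ) (a : Fin 3 → ℝ) (κ1 κ2 lam0 : ℝ) (Φ : FoamD (dF q) (kF q) 6 (cN q) La)
    (lam : Φ.F → ℝ) (A : Φ.F → E3 ≃ᵃ[ℝ] E3) (f1 : E3 → E3) (D1 : E3 → E3 →L[ℝ] E3) (X HH : Set E3)
    (g : Φ.F → Fin 3 → E3 → ℝ) : Prop where
  c : FrontC p q s ε ε' Om La M h a Φ f1 X HH g
  sh : SH3 p Om La f1 D1
  near : ∀ x ∈ Om, ‖f1 x - f x‖ ≤ ρ0
  nb : ∃ Cn : ℝ, 0 ≤ Cn ∧ ∀ x ∈ Om, ‖f1 x - f x‖ ≤ Cn * Metric.infDist (f x) Laᶜ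
  dy : ∀ Q ∈ Φ.F, Dy a h (Md q) Q
  rat : ∀ c, lam0 ≤ lam c ∧ ∃ r : ℚ, lam c = r
  ex : ∀ c, ExIn p Om f1 D1 a h κ1 κ2 c.1 (A c) (lam c)
  XN : ∀ c, A c ⁻¹' cbx c.1 ((1 + 2 * κ2) * lam c) ⊆ X
  cs : ∑' c : Φ.F, ENNReal.ofReal ((1 / lam c * ‖lin (A c)‖) ^ p) *
    volume (A c ⁻¹' cbx c.1 (lam c)) ≤ ε' * volume Om

theorem kF_one (q : ℕ) : 1 ≤ kF q := one_le_kF q

theorem cN_pos (q : ℕ) : 0 < cN q := by
  have := one_le_kF q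
  unfold cN; positivity

theorem cN_le (q : ℕ) : cN q * (8 * kF q) ≤ 1 := by
  have := one_le_kF q
  unfold cN
  rw [one_div, inv_mul_cancel₀ (by positivity)]

/-- **the foam of the machine for `p ≥ 3`** (635) -/
def ΦN {q : ℕ} {La : Set E3} {F : Set (Bx (Fin 3))} (bf : BoxFoam La F (dF q) (kF q))
    (cmp : Cmp F 6) (lam : F → ℝ) (hl : ∀ c, 0 < lam c) (hl4 : ∀ c, lam c ≤ 1 / 4) :
    FoamD (dF q) (kF q) 6 (cN q) La :=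
  Bxc1_635.fN bf cmp (kF_one q) (cN_pos q) (cN_le q) lam hl hl4

/-- **FRONT OF NO0, `p ≥ 3`, literal Prop.**  Order: `ε`, then `q`, then `ε'`, then the smallest ratio
`lam0` of the cores, then their accuracy `κ1`, then `δ` (closeness of `f` to the degenerate map and
measure of `{det ≠ 0}`), then the data, then `M` and the displacement `ρ0`, then the brick size. -/
def ExFront3 (p : ℝ) : Prop :=
  ∀ s : Fin 3 → ℝ, (∀ i, 0 ≤ s i) → s 2 = 0 → ∀ ε : ℝ≥0∞, 0 < ε → ∃ q : ℕ, 1 ≤ q ∧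
  ∀ κ2 : ℝ, 0 < κ2 → κ2 ≤ 1 / 8 → ∀ ε' : ℝ≥0∞, 0 < ε' → ∃ lam0 : ℝ, 0 < lam0 ∧
  ∀ κ1 : ℝ, 0 < κ1 → ∃ δ : ℝ≥0∞, 0 < δ ∧
  ∀ (Om La : Set E3) (f : E3 → E3) (D : E3 → E3 →L[ℝ] E3),
    IsOpen Om → Om.Nonempty → Bornology.IsBounded Om → IsOpen La → Bornology.IsBounded La →
    SH3 p Om La f D →
    ∫⁻ x in Om, ∑ l, ‖P3 (D x (Pi.single l 1)) - EuclideanSpace.single l (s l)‖ₑ ^ p ≤
      δ * volume Om →
    volume (Om \ {x | (D x).det = 0}) ≤ δ * volume Om →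
  ∀ M ρ0 : ℝ, 3 ≤ M → 0 < ρ0 → ∃ h₀ > 0, ∀ h, 0 < h → h < h₀ →
    ∃ (a : Fin 3 → ℝ) (F : Set (Bx (Fin 3))) (bf : BoxFoam La F (dF q) (kF q)) (cmp : Cmp F 6)
      (lam : F → ℝ) (hl : ∀ c, 0 < lam c) (hl4 : ∀ c, lam c ≤ 1 / 4) (A : F → E3 ≃ᵃ[ℝ] E3)
      (f1 : E3 → E3) (D1 : E3 → E3 →L[ℝ] E3) (X HH : Set E3) (g : F → Fin 3 → E3 → ℝ),
      Front3 p q s ε ε' Om La f M ρ0 h a κ1 κ2 lam0 (ΦN bf cmp lam hl hl4) lam A f1 D1 X HH g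

end Crest.Agent.R096.Np_962
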