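import Crest.Agent.R096.Nl1_234

/-!
Row 96 (S0127), helper234.  NO0 leaf (L5), part 2: the clause `lip` of `No0_477.NONum` from the
labels (`Nl1_234`): uniform squares over horizontal log walls, other uniform squares, junk squares.
-/

set_option autoImplicit false
set_option linter.style.longLine false
set_option linter.unusedSectionVars false

open MeasureTheory Set Filter Topology Metric
open scoped ENNReal

namespace Crest.Agent.R096.Nl_234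

open Crest.Agent.R096.Bsp_628 Crest.Agent.R096.Brk1_582 Crest.Agent.R096.Brk2_582
open Crest.Agent.R096.Brk3_582
open Crest.Agent.R096.Brk5_582
open Crest.Agent.R096.Log1_582 Crest.Agent.R096.Log2_582 Crest.Agent.R096.Dic5_582
open Crest.Agent.R096.Msh_715
open Crest.Agent.R096.Ea_713
open Crest.Agent.R96.Hole_348 (LLV)
open Crest.Agent.R096.SkC1_961 Crest.Agent.R096.SkN1_477 Crest.Agent.R096.No0_477

noncomputable section

theorem norm_lin_fr (w : E3) {r : ℝ} (hr : r ≠ 0) (h0 : 0 < r) : ‖lin (fr w r hr)‖ ≤ r⁻¹ := by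
  refine ContinuousLinearMap.opNorm_le_bound _ (by positivity) fun x => ?_
  have h1 := lin_sub (fr w r hr) 0 x
  rw [fr_apply, fr_apply, sub_zero, ← smul_sub] at h1
  have h2 : x - w - (0 - w) = x := by abel
  rw [h2] at h1
  rw [← h1, norm_smul, Real.norm_of_nonneg (by positivity)]

theorem usq_sub_cub (w : E3) {r : ℝ} (hr : r ≠ 0) (h0 : 0 < r) : usq (fr w r hr) ⊆ cub w r := by
  rintro y ⟨z, hz, hy⟩
  have h1 : y = w + r • emb z := by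
    rw [← fr_symm_apply w hr, hy, AffineEquiv.symm_apply_apply]
  have h2 : ∀ i, 0 ≤ emb z i ∧ emb z i ≤ 1 := by
    intro i
    fin_cases i
    · exact hz 0
    · exact hz 1
    · simp [emb]
  intro i
  have h3 := h2 i
  rw [h1, Pi.add_apply, Pi.smul_apply, smul_eq_mul]
  constructor
  · nlinarith [h3.1]
  · nlinarith [h3.2]

section Tile

variable {δ κ0 R c0 : ℝ} {La Om : Set E3} {ι : Type} {Φ : FoamD δ κ0 R c0 La}
variable {T : Tiling Om ι} {f : E3 → E3} {Ex : Set ι} {κ : Φ.F → ℕ} {L : Φ.F → Finset ℝ}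
variable {tol : ι → ℝ} {Ds : Set E3} {B : E3 → E3 ≃ᵃ[ℝ] E3} {μ : ℝ} {a : Fin 2 → ℝ}
variable {g : E3 → E3} {u : E3 → Φ.F → ℝ} {n : Set E3 → Φ.F → ℝ}
variable {p e η : ℝ} {Cu : Set (Set E3) → ℝ}

/-- the two bounds with the frame `fr` -/
theorem lip_fr {K0 N t r : ℝ} (h0 : 0 < r) (hr : r ≠ 0) (w : E3) {CN : ℝ} (hCN : 0 ≤ CN)
    (hK0 : 0 ≤ K0) (hN : CN = N * r) {A : Set E3}
    (h : ∀ x ∈ A, ∀ y ∈ A, ‖g x - g y‖ ≤ (K0 * CN * ‖lin (fr w r hr)‖ + t) * ‖x - y‖) :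
    ∀ x ∈ A, ∀ y ∈ A, ‖g x - g y‖ ≤ (K0 * N + t) * ‖x - y‖ := by
  intro x hx y hy
  refine (h x hx y hy).trans ?_
  have h1 := norm_lin_fr w hr h0
  have h2 : K0 * CN * ‖lin (fr w r hr)‖ ≤ K0 * N := by
    calc K0 * CN * ‖lin (fr w r hr)‖ ≤ K0 * CN * r⁻¹ := by gcongr
      _ = K0 * N := by rw [hN]; field_simp
  gcongr

/-- the squares over horizontal log walls -/
def HWq (Φ : FoamD δ κ0 R c0 La) (f : E3 → E3) (q : ℕ) (al : Fin 3 → ℝ) (s : ℝ) (A : Set E3) :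
    Prop :=
  ∃ C O : Φ.F, Hor Φ.F q al s C O ∧ ∃ x ∈ A, Φ.Psi (f x) ∈ Pc Φ.F C ∩ Pc Φ.F O

variable {𝒬 : Set (Set E3)} {Ls : ℕ} {η' r : ℝ} {hr : r ≠ 0} {av : E3} {o : Fin 2 → ℤ} {M : ℕ}
  {Zs : Finset ℤ} {U : ℤ → (Fin 2 → ℕ) → Prop}

/-- **(L5) one uniform square over a horizontal log wall** -/
theorem lip_square (hLa : IsOpen La) (h : OutNO p Cu e η Φ T f Ex κ L tol Ds B μ a g u n)
    (hCu : ∀ 𝒦, 0 < Cu 𝒦)
    (G : NOGeo T Ex 𝒬 Ls η' r hr av o M Zs U) {q : ℕ} {al : Fin 3 → ℝ} {s : ℝ} (hs : 0 < s)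
    (hw : ∀ c : Φ.F, IsLog q al s c.1 → s ≤ 2 * wf Φ κ L c)
    {m : ℤ} (hm : m ∈ Zs) {v : Fin 2 → ℕ} (hv : ∀ j, v j < M) (hU : U m v)
    (hH : HWq Φ f q al s (cub (vx av r o m v) r)) {S : ℝ} (hS : 0 ≤ S) (hμ : μ ≤ r * S)
    (hNN : ∀ i, P (T.H i) = cub (vx av r o m v) r → NN Φ T f κ L i ≤ ENNReal.ofReal (r * S) ∧
      tol i ≤ 1) (hg : ContinuousOn g Om) :
    ∀ x ∈ cub (vx av r o m v) r, ∀ y ∈ cub (vx av r o m v) r,
      ‖g x - g y‖ ≤ (2 * (Cu 𝒬 * S) + 1) * ‖x - y‖ := by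
  obtain ⟨i, hi1, hi2, hi3⟩ := G.tile m hm v hv hU
  have h0 := G.r0
  have hi : i ∉ Ex := by
    obtain ⟨x, hx⟩ := T.ne i
    have hx' := I_sub_P _ hx
    exact G.off m hm v hv hU x (hi1 ▸ hx') i hx'
  obtain ⟨h4, h5⟩ := hNN i hi1
  have hN : 0 ≤ r * S := by positivity
  have h6 : 0 ≤ Cu 𝒬 * (r * S) := mul_nonneg (hCu 𝒬).le hN
  obtain ⟨C, O, hH, x0, hx0, hx1⟩ := hH
  have h7 := lip_hor hLa h hCu hi hi3 hs hH (hi1 ▸ hx0) hx1 hw (fr (vx av r o m v) r hr) hN h4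
    (fun _ => hμ) (hg.mono (T.sub i))
  rw [hi2, hi1] at h7
  intro x hx y hy
  have h9 := lip_fr (g := g) h0 hr (vx av r o m v) (N := Cu 𝒬 * S) h6 (by norm_num) (by ring) h7
    x hx y hy
  refine h9.trans ?_
  gcongr

/-- **(L5) one uniform square, general position** -/
theorem lip_square_gen (hLa : IsOpen La) (h : OutNO p Cu e η Φ T f Ex κ L tol Ds B μ a g u n)
    (hCu : ∀ 𝒦, 0 < Cu 𝒦)
    (G : NOGeo T Ex 𝒬 Ls η' r hr av o M Zs U) {Mw : ℝ} (hMw : 0 < Mw)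
    (hw : ∀ c c' : Φ.F, (Pc Φ.F c ∩ Pc Φ.F c').Nonempty → c.1.sz ≤ Mw * wf Φ κ L c')
    {m : ℤ} (hm : m ∈ Zs) {v : Fin 2 → ℕ} (hv : ∀ j, v j < M) (hU : U m v)
    {c : Φ.F} {x0 : E3} (hx0 : x0 ∈ cub (vx av r o m v) r) (hx1 : Φ.Psi (f x0) ∈ Pc Φ.F c)
    {S : ℝ} (hS : 0 ≤ S) (hμ : μ ≤ r * S)
    (hNN : ∀ i, P (T.H i) = cub (vx av r o m v) r → NN Φ T f κ L i ≤ ENNReal.ofReal (r * S) ∧
      tol i ≤ 1) (hg : ContinuousOn g Om) :
    ∀ x ∈ cub (vx av r o m v) r, ∀ y ∈ cub (vx av r o m v) r,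
      ‖g x - g y‖ ≤ (Mw * (Cu 𝒬 * S) + 1) * ‖x - y‖ := by
  obtain ⟨i, hi1, hi2, hi3⟩ := G.tile m hm v hv hU
  have h0 := G.r0
  have hi : i ∉ Ex := by
    obtain ⟨x, hx⟩ := T.ne i
    have hx' := I_sub_P _ hx
    exact G.off m hm v hv hU x (hi1 ▸ hx') i hx'
  obtain ⟨h4, h5⟩ := hNN i hi1
  have hN : 0 ≤ r * S := by positivity
  have h6 : 0 ≤ Cu 𝒬 * (r * S) := mul_nonneg (hCu 𝒬).le hN
  have h7 := lip_gen hLa h hCu hi hi3 (hi1 ▸ hx0) hx1 hMw (fun c' hc' => hw c c' hc')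
    (fr (vx av r o m v) r hr) hN h4 (fun _ => hμ) (hg.mono (T.sub i))
  rw [hi2, hi1] at h7
  intro x hx y hy
  have h9 := lip_fr (g := g) h0 hr (vx av r o m v) (N := Cu 𝒬 * S) h6 (by positivity) (by ring) h7
    x hx y hy
  refine h9.trans ?_
  gcongr

/-- **the clause `lip` of `NONum`**: `X` = excess of the weight on the squares (`NN ≤ r (S + X)`),
`Kj` = Lipschitz constants of the junk squares. -/
theorem num_lip (hLa : IsOpen La) (h : OutNO p Cu e η Φ T f Ex κ L tol Ds B μ a g u n)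
    (hCu : ∀ 𝒦, 0 < Cu 𝒦)
    (G : NOGeo T Ex 𝒬 Ls η' r hr av o M Zs U) {q : ℕ} {al : Fin 3 → ℝ} {s : ℝ}
    (hs : 0 < s) (hwl : ∀ c : Φ.F, IsLog q al s c.1 → s ≤ 2 * wf Φ κ L c)
    {Mw : ℝ} (hMw : 0 < Mw)
    (hw : ∀ c c' : Φ.F, (Pc Φ.F c ∩ Pc Φ.F c').Nonempty → c.1.sz ≤ Mw * wf Φ κ L c')
    {S : ℝ} (hS : 0 ≤ S) (hμ : μ ≤ r * S) {X : ℤ → (Fin 2 → ℕ) → ℝ} (hX : ∀ m v, 0 ≤ X m v)
    (hNN : ∀ m ∈ Zs, ∀ v, (∀ j, v j < M) → U m v → ∀ i, P (T.H i) = cub (vx av r o m v) r →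
      NN Φ T f κ L i ≤ ENNReal.ofReal (r * (S + X m v)) ∧ tol i ≤ 1)
    (hcov : ∀ m ∈ Zs, ∀ v, (∀ j, v j < M) → U m v → ∃ x ∈ cub (vx av r o m v) r, ∃ c : Φ.F,
      Φ.Psi (f x) ∈ Pc Φ.F c) (hg : ContinuousOn g Om)
    {Kj : ℤ → (Fin 2 → ℕ) → ℝ} (hKj : ∀ m v, 0 ≤ Kj m v)
    (hj : ∀ m ∈ Zs, ∀ v, (∀ j, v j < M) → ¬ U m v → ∀ y ∈ usq (fr (vx av r o m v) r hr),
      ∀ y' ∈ usq (fr (vx av r o m v) r hr), ‖g y - g y'‖ ≤ Kj m v * ‖y - y'‖)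
    {Cq : ℝ} (hCq : 0 ≤ Cq) (hCuq : Cu 𝒬 ≤ Cq) :
    ∃ X' : ℤ → (Fin 2 → ℕ) → ℝ, (∀ m v, 0 ≤ X' m v) ∧
      (∀ m ∈ Zs, ∀ v, (∀ j, v j < M) → ∀ y ∈ usq (fr (vx av r o m v) r hr),
        ∀ y' ∈ usq (fr (vx av r o m v) r hr),
        ‖g y - g y'‖ ≤ ((2 * Cq * S + 1) + X' m v) * ‖y - y'‖) ∧
      ∀ (D1 D2 D3 : ℝ),
        (∀ A : Finset (ℤ × (Fin 2 → ℕ)), A ⊆ Fc M Zs →
          (∀ q' ∈ A, U q'.1 q'.2 ∧ HWq Φ f q al s (cub (vx av r o q'.1 q'.2) r)) →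
          ∑ q' ∈ A, X q'.1 q'.2 ^ p ≤ D1) →
        (∀ A : Finset (ℤ × (Fin 2 → ℕ)), A ⊆ Fc M Zs →
          (∀ q' ∈ A, U q'.1 q'.2 ∧ ¬ HWq Φ f q al s (cub (vx av r o q'.1 q'.2) r)) →
          ∑ q' ∈ A, (S + X q'.1 q'.2) ^ p ≤ D2) →
        (∀ A : Finset (ℤ × (Fin 2 → ℕ)), A ⊆ Fc M Zs → (∀ q' ∈ A, ¬ U q'.1 q'.2) →
          ∑ q' ∈ A, Kj q'.1 q'.2 ^ p ≤ D3) →
        ∑ q' ∈ Fc M Zs, X' q'.1 q'.2 ^ p ≤ (2 * Cq) ^ p * D1 + (Mw * Cq) ^ p * D2 + D3 := by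
  classical
  set W : ℤ → (Fin 2 → ℕ) → Prop := fun m v => HWq Φ f q al s (cub (vx av r o m v) r) with hW
  have h0 := G.r0
  refine ⟨fun m v => if U m v then (if W m v then 2 * Cq * X m v else Mw * Cq * (S + X m v))
    else Kj m v, fun m v => ?_, fun m hm v hv y hy y' hy' => ?_, fun D1 D2 D3 h1 h2 h3 => ?_⟩
  · have := hX m v
    have := hKj m v
    dsimp only
    split_ifs <;> positivity
  · have hXm := hX m v
    have hy1 := usq_sub_cub _ hr h0 hy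
    have hy1' := usq_sub_cub _ hr h0 hy'
    dsimp only
    by_cases hU : U m v
    · rw [if_pos hU]
      by_cases hWm : W m v
      · rw [if_pos hWm]
        have h4 := lip_square hLa h hCu G hs hwl hm hv hU hWm (S := S + X m v) (by positivity)
          (hμ.trans (mul_le_mul_of_nonneg_left (by linarith) h0.le))
          (fun i hi => hNN m hm v hv hU i hi) hg y hy1 y' hy1'
        refine h4.trans (mul_le_mul_of_nonneg_right ?_ (norm_nonneg _))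
        have h5 : Cu 𝒬 * (S + X m v) ≤ Cq * (S + X m v) := by gcongr
        nlinarith
      · rw [if_neg hWm]
        obtain ⟨x, hx, c, hc⟩ := hcov m hm v hv hU
        have h4 := lip_square_gen hLa h hCu G hMw hw hm hv hU hx hc (S := S + X m v) (by positivity)
          (hμ.trans (mul_le_mul_of_nonneg_left (by linarith) h0.le))
          (fun i hi => hNN m hm v hv hU i hi) hg y hy1 y' hy1'
        refine h4.trans (mul_le_mul_of_nonneg_right ?_ (norm_nonneg _))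
        have h5 : Cu 𝒬 * (S + X m v) ≤ Cq * (S + X m v) := by gcongr
        have h6 : Mw * (Cu 𝒬 * (S + X m v)) ≤ Mw * (Cq * (S + X m v)) := by gcongr
        have h7 : 0 ≤ 2 * Cq * S := by positivity
        linarith
    · rw [if_neg hU]
      refine (hj m hm v hv hU y hy y' hy').trans (mul_le_mul_of_nonneg_right ?_ (norm_nonneg _))
      have h7 : 0 ≤ 2 * Cq * S := by positivity
      linarith
  · set A1 := (Fc M Zs).filter fun q' => U q'.1 q'.2 ∧ W q'.1 q'.2 with hA1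
    set A2 := (Fc M Zs).filter fun q' => U q'.1 q'.2 ∧ ¬ W q'.1 q'.2 with hA2
    set A3 := (Fc M Zs).filter fun q' => ¬ U q'.1 q'.2 with hA3
    have e1 := h1 A1 (Finset.filter_subset _ _) fun q' hq' => (Finset.mem_filter.1 hq').2
    have e2 := h2 A2 (Finset.filter_subset _ _) fun q' hq' => (Finset.mem_filter.1 hq').2
    have e3 := h3 A3 (Finset.filter_subset _ _) fun q' hq' => (Finset.mem_filter.1 hq').2
    have hsplit : ∀ φ : ℤ × (Fin 2 → ℕ) → ℝ, ∑ q' ∈ Fc M Zs, φ q' =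
        ∑ q' ∈ A1, φ q' + ∑ q' ∈ A2, φ q' + ∑ q' ∈ A3, φ q' := by
      intro φ
      rw [← Finset.sum_filter_add_sum_filter_not (Fc M Zs) (fun q' => U q'.1 q'.2) φ]
      congr 1
      rw [← Finset.sum_filter_add_sum_filter_not ((Fc M Zs).filter fun q' => U q'.1 q'.2)
        (fun q' => W q'.1 q'.2) φ, Finset.filter_filter, Finset.filter_filter]
    rw [hsplit]
    have s1 : ∑ q' ∈ A1, (if U q'.1 q'.2 then (if W q'.1 q'.2 then 2 * Cq * X q'.1 q'.2 else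
        Mw * Cq * (S + X q'.1 q'.2)) else Kj q'.1 q'.2) ^ p =
        (2 * Cq) ^ p * ∑ q' ∈ A1, X q'.1 q'.2 ^ p := by
      rw [Finset.mul_sum]
      refine Finset.sum_congr rfl fun q' hq' => ?_
      have := (Finset.mem_filter.1 hq').2
      rw [if_pos this.1, if_pos this.2, Real.mul_rpow (by positivity) (hX _ _)]
    have s2 : ∑ q' ∈ A2, (if U q'.1 q'.2 then (if W q'.1 q'.2 then 2 * Cq * X q'.1 q'.2 else
        Mw * Cq * (S + X q'.1 q'.2)) else Kj q'.1 q'.2) ^ p =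
        (Mw * Cq) ^ p * ∑ q' ∈ A2, (S + X q'.1 q'.2) ^ p := by
      rw [Finset.mul_sum]
      refine Finset.sum_congr rfl fun q' hq' => ?_
      have := (Finset.mem_filter.1 hq').2
      rw [if_pos this.1, if_neg this.2, Real.mul_rpow (by positivity) (add_nonneg hS (hX _ _))]
    have s3 : ∑ q' ∈ A3, (if U q'.1 q'.2 then (if W q'.1 q'.2 then 2 * Cq * X q'.1 q'.2 else
        Mw * Cq * (S + X q'.1 q'.2)) else Kj q'.1 q'.2) ^ p = ∑ q' ∈ A3, Kj q'.1 q'.2 ^ p := by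
      refine Finset.sum_congr rfl fun q' hq' => ?_
      have := (Finset.mem_filter.1 hq').2
      rw [if_neg this]
    rw [s1, s2, s3]
    gcongr

end Tile

end

end Crest.Agent.R096.Nl_234
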