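import Crest.Agent.R096.SkN1_477
import Crest.Agent.R096.Mbf_337

/-!
Row 96 (S0127), helper477.  **The literal Prop `MachNO`** (machine for the near-optimality theorem
`NO0`): 337's `MachBF` (Mbf_337) with designated faces and the additional output `OutNO`.

Order: `Λ`, `e` (accuracy of the face rule), then `η` (purity) and `Cu` (Lipschitz constant of the
shapes, no constant of the foam in it), then the foam constants, `C0`, `C`, then `κp`, `μ`, `κ1`, then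
the data (with 543's `Star`), the designated faces, `Z`, `m0`, then the levels, then `tol`.
Definitions only.
-/

set_option autoImplicit false
set_option linter.style.longLine false

open MeasureTheory Set Filter Topology Metric
open scoped ENNReal

namespace Crest.Agent.R096.SkN2_477

open Crest.Agent.R096.Msh_715
open Crest.Agent.R096.SkC1_961 (E3 Hom3 FoamD Cfg NN)
open Crest.Agent.R096.SkN1_477
open Crest.Agent.R096.Mbf_337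

section OutF

variable {δ κ0 R c0 : ℝ} {La Om : Set E3} {ι : Type}

/-- `Mbf_337.Out`; in the clause `lip` the number `N` is at least `μ` on the tiles which touch a
designated face -/
structure OutF (C0 : ℝ) (C : Set (Set E3) → ℝ) (e : ℝ)
    (Φ : FoamD δ κ0 R c0 La) (T : Tiling Om ι) (f : E3 → E3) (X : Set Φ.F) (V : Φ.F → Set ι)
    (ct : Φ.F → ι) (A : Φ.F → E3 ≃ᵃ[ℝ] E3) (lam : Φ.F → ℝ) (κ : Φ.F → ℕ) (L : Φ.F → Finset ℝ)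
    (tol : ι → ℝ) (Ds : Set E3) (μ : ℝ) (g : E3 → E3) : Prop where
  homeo : Hom3 g Om La
  pl : Str_696.LocPL g Om
  near : ∀ x ∈ Om, ∀ c : Φ.F, f x ∈ c.1.set → ‖g x - f x‖ ≤ C0 * c.1.sz
  /-- ordinary tiles: all tiles which are in no `V c` -/
  lip : ∀ i, (∀ c, i ∉ V c) → ∀ B : E3 ≃ᵃ[ℝ] E3, ∀ N : ℝ, 0 ≤ N →
    NN Φ T f κ L i ≤ ENNReal.ofReal N → (TouchD T Ds i → μ ≤ N) → ∀ x ∈ I (T.H i), ∀ᶠ y in 𝓝 x,
      ‖g y - g x‖ ≤ C ((fun K => B '' K) '' Cfg T i) * N * ‖B y - B x‖ + tol i * ‖y - x‖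
  /-- exact cores -/
  core : ∀ c ∈ X, (∀ x ∈ I (T.H (ct c)), ∀ᶠ y in 𝓝 x,
      ‖g y - g x‖ ≤ C0 * (1 / lam c * ‖A c y - A c x‖)) ∧
    ∃ W : Set E3, volume (W ∩ P (T.H (ct c))) ≤ ENNReal.ofReal e * volume (P (T.H (ct c))) ∧
      ∀ x ∈ I (T.H (ct c)), x ∉ W → ∀ᶠ y in 𝓝 x,
        ‖(g y - g x) - (1 / lam c) • (A c y - A c x)‖ ≤ e * (1 / lam c * ‖A c y - A c x‖)

variable {C0 : ℝ} {C : Set (Set E3) → ℝ} {e : ℝ} {Φ : FoamD δ κ0 R c0 La} {T : Tiling Om ι}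
  {f : E3 → E3} {X : Set Φ.F} {V : Φ.F → Set ι} {ct : Φ.F → ι} {A : Φ.F → E3 ≃ᵃ[ℝ] E3}
  {lam : Φ.F → ℝ} {κ : Φ.F → ℕ} {L : Φ.F → Finset ℝ} {tol : ι → ℝ} {Ds : Set E3} {μ : ℝ}
  {g : E3 → E3}

theorem outF_of_out (h : Out C0 C e Φ T f X V ct A lam κ L tol g) :
    OutF C0 C e Φ T f X V ct A lam κ L tol Ds μ g :=
  ⟨h.homeo, h.pl, h.near, fun i hi B N h0 hN _ => h.lip i hi B N h0 hN, h.core⟩

theorem out_of_outF (h : OutF C0 C e Φ T f X V ct A lam κ L tol ∅ μ g) :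
    Out C0 C e Φ T f X V ct A lam κ L tol g :=
  ⟨h.homeo, h.pl, h.near, fun i hi B N h0 hN =>
    h.lip i hi B N h0 hN (fun ⟨_, hx, _⟩ => hx.elim), h.core⟩

end OutF

/-- **MACHINE for `NO0`** -/
def MachNO (p : ℝ) : Prop :=
  ∀ Λ e : ℝ, 1 ≤ Λ → 0 < e →
  ∃ η : ℝ, 0 < η ∧ ∃ Cu : Set (Set E3) → ℝ, (∀ 𝒦, 0 < Cu 𝒦) ∧
  ∀ δ κ0 R c0 κ2 κ3 : ℝ, 0 < δ → 1 ≤ κ0 → 1 ≤ R → 0 < c0 → 0 < κ2 → 8 ≤ κ3 →
  ∃ (C0 : ℝ) (C : Set (Set E3) → ℝ), 0 < C0 ∧ (∀ 𝒦, 0 < C 𝒦) ∧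
  ∃ κp : ℝ, 0 < κp ∧ ∀ μ : ℝ, 0 < μ → μ ≤ κp → ∃ κ1 : ℝ, 0 < κ1 ∧
  ∀ (Om La : Set E3) (f : E3 → E3), IsOpen Om → Bornology.IsBounded Om → IsConnected Om →
    IsOpen La → Bornology.IsBounded La → IsConnected La → Hom3 f Om La →
  ∀ (Φ : FoamD δ κ0 R c0 La) (ι : Type) (T : Tiling Om ι) (X : Set Φ.F) (J0 J V : Φ.F → Set ι)
    (ct : Φ.F → ι) (A : Φ.F → E3 ≃ᵃ[ℝ] E3) (lam : Φ.F → ℝ) (z : Φ.F → E3) (θ : Φ.F → E3 → E3)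
    (φ : Φ.F → E3 → ℝ) (M : Φ.F → ℕ),
    Star Φ → Cores Φ T f κ1 κ2 X J0 J V ct A lam z θ φ → Fine Φ T f κ1 J0 →
  ∀ (Ds : Set E3) (B : E3 → E3 ≃ᵃ[ℝ] E3) (ν : ℝ) (a : Fin 2 → ℝ),
    FaceD T (⋃ c, V c) Ds B Λ ν a →
  ∃ (Z : Φ.F → Set ℝ) (m0 : Φ.F → ℕ), (∀ c, volume (Z c) = 0) ∧
  ∀ (κ : Φ.F → ℕ) (L : Φ.F → Finset ℝ), Levels Φ T f κp μ κ3 Z m0 κ L →
    Words Φ T f X ct A lam z M L →
  ∀ tol : ι → ℝ, (∀ i, 0 < tol i) →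
  ∃ (g : E3 → E3) (u : E3 → Φ.F → ℝ) (n : Set E3 → Φ.F → ℝ),
    OutF C0 C e Φ T f X V ct A lam κ L tol Ds ν g ∧
    OutNO p Cu e η Φ T f (⋃ c, V c) κ L tol Ds B ν a g u n

end Crest.Agent.R096.SkN2_477
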