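import Crest.Agent.R096.No5_276
import Crest.Agent.R096.SkN2_477
import Crest.Agent.R096.Nl2_234

/-!
# Row 96, NO0 (helper276), part 6: the literal Prop `NOPre p` = what has to be proved BEFORE the machine

`NOS p ⇐ MachNO p + NOPre p` is proved in the following files (all `p ≥ 1` at once).

* `PreG` : geometry and numbers which do not depend on the levels;
* `PreN` : levels and their numbers;
* `NOPre p` : order of the quantifiers: list of shapes `𝒮`, `t`, `Cf`; `s`, `S1` (`S1 * r` = scale of the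
  designated squares: every tile which meets one has `N i ≥ S1 * r`); constants `S`, `KS`;
  `ε η L e₂`; foam constants; `C0 C κp ε'`; `μ`; `κ1`; `d`; the data; `Z`, `m0`; the levels.
* `p < 3` : `X = ∅`, `U = fun _ _ => True` (then all clauses on junk squares and exact cores are void);
  `p ≥ 3` : `X = univ`, no macro balls (`β = Empty`).
-/

set_option autoImplicit false
set_option linter.unusedSectionVars false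

open Set Function MeasureTheory Filter Topology Metric
open scoped ENNReal
open Crest.AnalysisR.VecCalc3 Crest.AnalysisR.Sobolev

namespace Crest.Agent.R096.No_276

open Crest.Agent.R096.Bsp_628 Crest.Agent.R096.Brk1_582 Crest.Agent.R096.Brk3_582
open Crest.Agent.R096.Brk5_582 Crest.Agent.R096.Log2_582 Crest.Agent.R096.Dic1_582
open Crest.Agent.R096.Msh_715 Crest.Agent.R096.Ea_713 Crest.Agent.R96.Hole_348
open Crest.Agent.R096.Sk_962 (Q0 Qc0 dg SH)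
open Crest.Agent.R096.Sk4_663 (Zd)
open Crest.Agent.R096.Sq_477
open Crest.Agent.R096.SkC1_961 (E3 Hom3 FoamD Cfg NN)
open Crest.Agent.R096.SkN1_477 Crest.Agent.R096.No0_477 Crest.Agent.R096.Nl_234
open Crest.Agent.R096.Mbf_337

noncomputable section

/-- `f` in the stretched coordinates -/
def fL (f : R3 → R3) (L : ℕ) (hL : (L : ℝ) ≠ 0) (y : E3) : E3 := e3 (f (e3.symm (RL L hL y)))

/-- the tiles near the tiny cores -/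
def Vti {F ι : Type*} (X : Set F) (V : F → Set ι) : Set ι := {i | ∃ c, c ∉ X ∧ i ∈ V c}

/-- the tiles which count for the set `Z`: they meet `Z` or lie in the ring of a macro ball which
meets `Z` -/
def IZ {Om : Set E3} {ι β : Type} (T : Tiling Om ι) (Z : Set E3) (b : β → E3) (R1 : β → ℝ)
    (Sc : β → Finset ι) : Set ι :=
  {i | (P (T.H i) ∩ Z).Nonempty ∨ ∃ c, (closedBall (b c) (R1 c) ∩ Z).Nonempty ∧ i ∈ Sc c}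

/-- the tile `i` meets a uniform (= designated) square -/
def MU {Om : Set E3} {ι : Type} (T : Tiling Om ι) (r : ℝ) (hr : r ≠ 0) (a : E3) (o : Fin 2 → ℤ)
    (M : ℕ) (Zs : Finset ℤ) (U : ℤ → (Fin 2 → ℕ) → Prop) (i : ι) : Prop :=
  ∃ k ∈ Fc M Zs, U k.1 k.2 ∧ (P (T.H i) ∩ usq (fr (vx a r o k.1 k.2) r hr)).Nonempty

/-- the tile `i` meets a junk square -/
def MJ {Om : Set E3} {ι : Type} (T : Tiling Om ι) (r : ℝ) (hr : r ≠ 0) (a : E3) (o : Fin 2 → ℤ)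
    (M : ℕ) (Zs : Finset ℤ) (U : ℤ → (Fin 2 → ℕ) → Prop) (i : ι) : Prop :=
  ∃ k ∈ Fc M Zs, ¬ U k.1 k.2 ∧ (P (T.H i) ∩ usq (fr (vx a r o k.1 k.2) r hr)).Nonempty

section Pre

variable {δ κ0 R c0 : ℝ} {La : Set E3} {ι : Type}

/-- **before the machine, part 1: everything which does not depend on the levels.**
`f0` = the given map (stretched), `f1` = the map which is given to the machine, `Kc` = bound of the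
exact cores, `cnt i` = (number of the junk squares which meet the tile `i`) * `r ^ 3`. -/
structure PreG (p : ℝ) (s : Fin 3 → ℝ) (L : ℕ) (η ε ε' C0 κ1 κ2 : ℝ) (𝒮 : Set (Set (Set E3)))
    (t : ℝ) (Cf : ℝ≥0∞) (f0 f1 : E3 → E3) (q : ℕ) (al : Fin 3 → ℝ) (h : ℝ)
    (Φ : FoamD δ κ0 R c0 La)
    (T : Tiling (QL L) ι) (X : Set Φ.F) (J0 J V : Φ.F → Set ι) (ct : Φ.F → ι)
    (A : Φ.F → E3 ≃ᵃ[ℝ] E3) (lam : Φ.F → ℝ) (z : Φ.F → E3) (θ : Φ.F → E3 → E3) (φ : Φ.F → E3 → ℝ)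
    (𝒬 : Set (Set E3)) (r : ℝ) (hr : r ≠ 0) (a : E3) (o : Fin 2 → ℤ) (M : ℕ) (Zs : Finset ℤ)
    (U : ℤ → (Fin 2 → ℕ) → Prop) {β : Type} (b : β → E3) (R0 R1 : β → ℝ) (Sc : β → Finset ι)
    (d : ι → ℝ) (Kc cnt : ι → ℝ) : Prop where
  hom : Hom3 f1 (QL L) La
  /-- the preprocessing moves little near the boundary (any constant) -/
  nb : ∃ Cn : ℝ, 0 ≤ Cn ∧ ∀ y ∈ QL L, ‖f1 y - f0 y‖ ≤ Cn * infDist (f0 y) Laᶜ
  star : Star Φ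
  rho : ∀ c : Φ.F, ∀ y ∈ c.1.set, c.1.sz ≤ infDist y Laᶜ
  size : ∀ c : Φ.F, C0 * c.1.sz ≤ ε
  q1 : 1 ≤ q
  h0 : 0 < h
  cores : Cores Φ T f1 κ1 κ2 X J0 J V ct A lam z θ φ
  fine : Fine Φ T f1 κ1 J0
  shape : 𝒬 ∈ 𝒮
  geo : NOGeo T (⋃ c, V c) 𝒬 L η r hr a o M Zs U
  /-- few junk squares -/
  nU : (({k : ℤ × (Fin 2 → ℕ) | k ∈ Fc M Zs ∧ ¬ U k.1 k.2}).ncard : ℝ) ≤
    ε * ((Zs.card : ℝ) * M ^ 2)
  /-- nearly all points are mapped into closed good squares of the log foam -/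
  gvol : volume {x | x ∈ QL L ∧ ¬ ∃ e o' i j : ℤ, GSq Φ.F q al h e o' i j ∧
    Φ.Psi (f1 x) ∈ sqr al h e o' i j} ≤ ENNReal.ofReal (ε * ((Zs.card : ℝ) * M ^ 2) * r ^ 3)
  /-- ends of the lines -/
  ends : ∀ j : Fin 2, ∑ m ∈ Zs, ∑ t ∈ Finset.range (M + 1),
    |(f1 (vx a r o m (fun i => if i = j then M else t)) -
      f1 (vx a r o m (fun i => if i = j then 0 else t))) j.castSucc - s j.castSucc * (M * r)| ≤
      ε * ((Zs.card : ℝ) * M)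
  /-- macro balls round the tiny cores -/
  mac : Macro T (Vti X V) b R0 R1 Sc d t Cf
  osc : ∀ c, ∀ x ∈ closedBall (b c) (R1 c), ∀ y ∈ closedBall (b c) (R1 c),
    ‖f1 x - f1 y‖ ≤ infDist (f1 y) Laᶜ
  /-- the slices miss the macro balls -/
  av : ∀ m ∈ Zs, ∀ c, ∀ x ∈ closedBall (b c) (R1 c), |x 0| < 1 - η → |x 1| < 1 - η →
    x 2 ≠ a 2 + r * m
  /-- exact cores: energy of their tiles -/
  kc0 : ∀ i, 0 ≤ Kc i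
  kc : ∀ c ∈ X, 1 / lam c * ‖lin (A c)‖ ≤ Kc (ct c)
  kcs : ∑' i : {i // (∃ c, i ∈ V c) ∧ i ∉ Vti X V},
    ENNReal.ofReal (Kc i ^ p) * volume (P (T.H i)) ≤ ENNReal.ofReal ε'
  /-- junk squares: number of those which meet a tile -/
  cnt0 : ∀ i, 0 ≤ cnt i
  cn : ∀ i, (({k : ℤ × (Fin 2 → ℕ) | k ∈ Fc M Zs ∧ ¬ U k.1 k.2 ∧
    (P (T.H i) ∩ usq (fr (vx a r o k.1 k.2) r hr)).Nonempty}).ncard : ℝ) * r ^ 3 ≤ cnt i
  jV : ∀ i ∈ Vti X V, ¬ MJ T r hr a o M Zs U i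
  jc : ∑' i : {i // ((∃ c, i ∈ V c) ∧ i ∉ Vti X V) ∧ MJ T r hr a o M Zs U i},
    ENNReal.ofReal (Kc i ^ p) * ENNReal.ofReal (cnt i) ≤
      ENNReal.ofReal (ε' * ((Zs.card : ℝ) * M ^ 2) * r ^ 3)

/-- **before the machine, part 2: the levels and their numbers.**  `HT` = ordinary tiles over the
horizontal log walls (not touching the excluded tiles), `B` = frames of the tiles, `C` = the constant
of the machine (function of the shape). -/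
structure PreN (p : ℝ) (s : Fin 3 → ℝ) (L : ℕ) (η ε ε' e₂ S1 S KS κp μ κ3 : ℝ)
    (C : Set (Set E3) → ℝ) (𝒮 : Set (Set (Set E3))) (f1 : E3 → E3) (q : ℕ) (al : Fin 3 → ℝ) (h : ℝ)
    (Φ : FoamD δ κ0 R c0 La) (T : Tiling (QL L) ι) (X : Set Φ.F) (V : Φ.F → Set ι) (ct : Φ.F → ι)
    (A : Φ.F → E3 ≃ᵃ[ℝ] E3) (lam : Φ.F → ℝ) (z : Φ.F → E3) (Mg : Φ.F → ℕ)
    (r : ℝ) (hr : r ≠ 0) (a : E3) (o : Fin 2 → ℤ) (M : ℕ) (Zs : Finset ℤ)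
    (U : ℤ → (Fin 2 → ℕ) → Prop) {β : Type} (b : β → E3) (R1 : β → ℝ) (Sc : β → Finset ι)
    (cnt : ι → ℝ) (Z : Φ.F → Set ℝ) (m0 : Φ.F → ℕ) (κ : Φ.F → ℕ) (Lv : Φ.F → Finset ℝ) :
    Prop where
  lev : Levels Φ T f1 κp μ κ3 Z m0 κ Lv
  words : Words Φ T f1 X ct A lam z Mg Lv
  /-- exact weight of the logs -/
  wlog : ∀ c : Φ.F, IsLog q al h c.1 → (Lv c).card * (2 : ℝ)⁻¹ ^ κ c = h / 2
  /-- initial weight of the edges of uniform squares (the clause `wt` of `NONum`) -/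
  wt : ∃ x : Fin 2 → ℤ → (Fin 2 → ℕ) → ℝ, (∀ j m v, 0 ≤ x j m v) ∧
    (∀ m ∈ Zs, ∀ v, (∀ j, v j < M) → U m v → ∀ (j : Fin 2) (b : ℕ), b = 0 ∨ b = 1 →
      Vw Φ f1 κ Lv (side (fr (vx a r o m v) r hr) j b) ≤
        ENNReal.ofReal (r * (s j.castSucc +
          x j m (fun i => v i + if i = j then 0 else b)))) ∧
    ∀ j, ∑ m ∈ Zs, ∑ v ∈ Fintype.piFinset fun _ : Fin 2 => Finset.range (M + 1), x j m v ≤
      ε * ((Zs.card : ℝ) * M ^ 2)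
  /-- weight of the tiles above the uniform squares -/
  sq : ∃ Xq : ℤ → (Fin 2 → ℕ) → ℝ, (∀ m v, 0 ≤ Xq m v) ∧
    (∀ m ∈ Zs, ∀ v, (∀ j, v j < M) → U m v → ∀ i, P (T.H i) = cub (vx a r o m v) r →
      NN Φ T f1 κ Lv i ≤ ENNReal.ofReal (r * (S + Xq m v))) ∧
    (∀ D : Finset (ℤ × (Fin 2 → ℕ)), D ⊆ Fc M Zs →
      (∀ k ∈ D, U k.1 k.2 ∧ HWq Φ f1 q al h (cub (vx a r o k.1 k.2) r)) →
      ∑ k ∈ D, Xq k.1 k.2 ^ p ≤ ε * ((Zs.card : ℝ) * M ^ 2)) ∧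
    (∀ D : Finset (ℤ × (Fin 2 → ℕ)), D ⊆ Fc M Zs →
      (∀ k ∈ D, U k.1 k.2 ∧ ¬ HWq Φ f1 q al h (cub (vx a r o k.1 k.2) r)) →
      ∑ k ∈ D, (S + Xq k.1 k.2) ^ p ≤ ε' * ((Zs.card : ℝ) * M ^ 2))
  /-- energies of the tiles -/
  tl : ∃ (B : ι → E3 ≃ᵃ[ℝ] E3) (N : ι → ℝ) (HT : Set ι), (∀ i, 0 ≤ N i) ∧
    (∀ i, (∀ c, i ∉ V c) → NN Φ T f1 κ Lv i ≤ ENNReal.ofReal (N i)) ∧
    (∀ i, (∀ c, i ∉ V c) → MU T r hr a o M Zs U i → S1 * r ≤ N i) ∧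
    (∀ i ∈ HT, (∀ c, i ∉ V c) ∧ (∀ c, ∀ j ∈ V c, Disjoint (P (T.H i)) (P (T.H j))) ∧
      HWq Φ f1 q al h (P (T.H i)) ∧ (fun K => B i '' K) '' Cfg T i ∈ 𝒮) ∧
    ∑' i : {i // i ∈ HT}, ENNReal.ofReal ((N i * ‖lin (B i)‖) ^ p) * volume (P (T.H i)) ≤
      ENNReal.ofReal (KS / L) ∧
    ∑' i : {i // i ∈ HT ∧ i ∈ IZ T (ShL L η) b R1 Sc},
      ENNReal.ofReal ((N i * ‖lin (B i)‖) ^ p) * volume (P (T.H i)) ≤
        ENNReal.ofReal ((KS * η + e₂) / L) ∧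
    ∑' i : {i // (∀ c, i ∉ V c) ∧ i ∉ HT},
      ENNReal.ofReal ((C ((fun K => B i '' K) '' Cfg T i) * N i * ‖lin (B i)‖) ^ p) *
        volume (P (T.H i)) ≤ ENNReal.ofReal ε' ∧
    ∑' i : {i // i ∈ HT ∧ MJ T r hr a o M Zs U i},
      ENNReal.ofReal ((N i * ‖lin (B i)‖) ^ p) * ENNReal.ofReal (cnt i) ≤
        ENNReal.ofReal (ε * ((Zs.card : ℝ) * M ^ 2) * r ^ 3) ∧
    ∑' i : {i // ((∀ c, i ∉ V c) ∧ i ∉ HT) ∧ MJ T r hr a o M Zs U i},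
      ENNReal.ofReal ((C ((fun K => B i '' K) '' Cfg T i) * N i * ‖lin (B i)‖) ^ p) *
        ENNReal.ofReal (cnt i) ≤ ENNReal.ofReal (ε' * ((Zs.card : ℝ) * M ^ 2) * r ^ 3)

end Pre

/-- **NOPre**: everything before the machine. -/
def NOPre (p : ℝ) : Prop :=
  ∃ (𝒮 : Set (Set (Set E3))) (t : ℝ) (Cf : ℝ≥0∞), 𝒮.Finite ∧ Cf ≠ ⊤ ∧
  ∀ s : Fin 3 → ℝ, (∀ i, 0 ≤ s i) → s 2 = 0 → ∀ S1 : ℝ, 0 < S1 → ∃ S KS : ℝ, S1 ≤ S ∧ 0 ≤ KS ∧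
  ∀ (ε η : ℝ) (L : ℕ) (hL : (L : ℝ) ≠ 0) (e₂ : ℝ), 0 < ε → 0 < η → η ≤ 1 / 8 → 1 ≤ L → 0 < e₂ →
  ∃ (q : ℕ) (δ κ0 R c0 κ2 κ3 : ℝ), 0 < δ ∧ 1 ≤ κ0 ∧ 1 ≤ R ∧ 0 < c0 ∧ 0 < κ2 ∧ 8 ≤ κ3 ∧
  ∀ (C0 : ℝ) (C : Set (Set E3) → ℝ) (κp ε' : ℝ), 0 < C0 → (∀ 𝒦, 0 < C 𝒦) → 0 < κp → 0 < ε' →
  ∃ μ : ℝ, 0 < μ ∧ μ ≤ κp ∧
  ∀ κ1 : ℝ, 0 < κ1 → ∃ dd : ℝ, 0 < dd ∧
  ∀ (U₀ W₀ : Set R3) (f : R3 → R3) (G : Fin 3 → R3 → R3),
    IsOpen U₀ → Bornology.IsBounded U₀ → IsConnected U₀ →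
    IsOpen W₀ → Bornology.IsBounded W₀ → IsConnected W₀ → Qc0 ⊆ U₀ →
    SH p U₀ W₀ f G →
    ∫⁻ x in Q0, ∑ j : Fin 3, ‖G j x - dg s j‖ₑ ^ p ≤ ENNReal.ofReal dd →
    volume (Q0 \ Zd G) ≤ ENNReal.ofReal dd →
  ∃ (f1 : E3 → E3) (al : Fin 3 → ℝ) (h : ℝ) (Φ : FoamD δ κ0 R c0 (e3 '' (f '' Q0))) (ι : Type)
    (T : Tiling (QL L) ι) (X : Set Φ.F) (J0 J V : Φ.F → Set ι) (ct : Φ.F → ι)
    (A : Φ.F → E3 ≃ᵃ[ℝ] E3) (lam : Φ.F → ℝ) (z : Φ.F → E3) (θ : Φ.F → E3 → E3) (φ : Φ.F → E3 → ℝ)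
    (Mg : Φ.F → ℕ) (𝒬 : Set (Set E3)) (r : ℝ) (hr : r ≠ 0) (a : E3) (o : Fin 2 → ℤ) (M : ℕ)
    (Zs : Finset ℤ) (U : ℤ → (Fin 2 → ℕ) → Prop) (β : Type) (b : β → E3) (R0 R1 : β → ℝ)
    (Sc : β → Finset ι) (d Kc cnt : ι → ℝ),
    (p < 3 ∨ X = univ) ∧
    PreG p s L η ε ε' C0 κ1 κ2 𝒮 t Cf (fL f L hL) f1 q al h Φ T X J0 J V ct A lam z θ φ 𝒬 r hr a o
      M Zs U b R0 R1 Sc d Kc cnt ∧
    ∀ (Z : Φ.F → Set ℝ) (m0 : Φ.F → ℕ), (∀ c, volume (Z c) = 0) →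
      ∃ (κ : Φ.F → ℕ) (Lv : Φ.F → Finset ℝ),
        PreN p s L η ε ε' e₂ S1 S KS κp μ κ3 C 𝒮 f1 q al h Φ T X V ct A lam z Mg r hr a o M Zs U b R1 Sc
          cnt Z m0 κ Lv

end

end Crest.Agent.R096.No_276
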