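import Crest.Agent.R096.Na1_477
import Crest.Agent.R096.SkC1_961

/-!
# Row 96, NO0 (helper276), part 1: from the output on the stretched cube to `NOL`

`QL L = {|x_0|, |x_1| < 1, |L x_2| < 1}` in `E3 = Fin 3 → ℝ`.  `NOS p` = output of the machine on `QL L`
(isotropic mesh, energies of the full derivative), `nol_of_nos : NOS p → NOL p`.
-/

set_option autoImplicit false
set_option linter.unusedSectionVars false

open Set Function MeasureTheory Filter Topology Metric
open scoped ENNReal Gradient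
open Crest.AnalysisR.VecCalc3 Crest.AnalysisR.Sobolev

namespace Crest.Agent.R096.No_276

open Crest.Agent.R096.Pl
open Crest.Agent.R096.Str_696 (LocPL)
open Crest.Agent.R096.Sk_962 (Gr Q0 Qc0 dg SH)
open Crest.Agent.R096.Sk4_663 (Zd NO0)
open Crest.Agent.R096.Sq_477
open Crest.Agent.R096.SkC1_961 (E3 Hom3)

noncomputable section

/-- the stretch `diag(1,1,L)` -/
def RL (L : ℝ) (hL : L ≠ 0) : E3 ≃L[ℝ] E3 :=
  ContinuousLinearEquiv.piCongrRight fun i =>
    ContinuousLinearEquiv.unitsEquivAut ℝ (if i = 2 then Units.mk0 L hL else 1)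

theorem RL_apply (L : ℝ) (hL : L ≠ 0) (x : E3) (i : Fin 3) :
    RL L hL x i = x i * (if i = 2 then L else 1) := by
  show ContinuousLinearEquiv.unitsEquivAut ℝ (if i = 2 then Units.mk0 L hL else 1) (x i) = _
  rw [ContinuousLinearEquiv.unitsEquivAut_apply]
  split_ifs <;> simp

theorem RL_symm_apply (L : ℝ) (hL : L ≠ 0) (x : E3) (i : Fin 3) :
    (RL L hL).symm x i = x i * (if i = 2 then L⁻¹ else 1) := by
  have h := RL_apply L hL ((RL L hL).symm x) i
  rw [ContinuousLinearEquiv.apply_symm_apply] at h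
  rw [h]
  split_ifs
  · field_simp
  · simp

theorem map_RL {L : ℝ} (hL : 0 < L) :
    Measure.map (RL L hL.ne') (volume : Measure E3) = ENNReal.ofReal (1 / L) • volume := by
  have hdet : (Matrix.diagonal (fun i : Fin 3 => if i = 2 then L else 1)).det = L := by
    rw [Matrix.det_diagonal]
    simp
  have h := Real.smul_map_diagonal_volume_pi (D := fun i : Fin 3 => if i = 2 then L else 1)
    (by rw [hdet]; exact hL.ne')
  rw [hdet, abs_of_pos hL] at h
  have h2 : (Matrix.toLin' (Matrix.diagonal (fun i : Fin 3 => if i = 2 then L else 1)) : E3 → E3) =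
      RL L hL.ne' := by
    funext x
    ext i
    rw [RL_apply]
    simp [Matrix.mulVec_diagonal, mul_comm]
  rw [h2] at h
  calc Measure.map (RL L hL.ne') (volume : Measure E3)
      = (ENNReal.ofReal (1 / L) * ENNReal.ofReal L) • Measure.map (RL L hL.ne') volume := by
        rw [← ENNReal.ofReal_mul (by positivity)]
        rw [one_div, inv_mul_cancel₀ hL.ne', ENNReal.ofReal_one, one_smul]
    _ = ENNReal.ofReal (1 / L) • volume := by rw [mul_smul, h]

theorem lint_RL {L : ℝ} (hL : 0 < L) (H : E3 → ℝ≥0∞) (S : Set E3) :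
    ∫⁻ x in (RL L hL.ne') ⁻¹' S, H (RL L hL.ne' x) = ENNReal.ofReal (1 / L) * ∫⁻ y in S, H y := by
  have he : MeasurableEmbedding (RL L hL.ne') :=
    (RL L hL.ne').toHomeomorph.measurableEmbedding
  have h1 : ∫⁻ x in (RL L hL.ne') ⁻¹' S, H (RL L hL.ne' x) =
      ∫⁻ y in S, H y ∂(Measure.map (RL L hL.ne') volume) := by
    rw [he.restrict_map, he.lintegral_map]
  rw [h1, map_RL hL, Measure.restrict_smul, lintegral_smul_measure, smul_eq_mul]

/-- the stretched cube -/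
def QL (L : ℝ) : Set E3 := {x | |x 0| < 1 ∧ |x 1| < 1 ∧ |L * x 2| < 1}

theorem QL_eq {L : ℝ} (hL : L ≠ 0) : QL L = (RL L hL) ⁻¹' ball 0 1 := by
  ext x
  rw [mem_preimage, mem_ball_zero_iff, pi_norm_lt_iff one_pos]
  constructor
  · rintro ⟨h0, h1, h2⟩ i
    rw [RL_apply]
    fin_cases i
    · simpa using h0
    · simpa using h1
    · simpa [mul_comm] using h2
  · intro h
    refine ⟨?_, ?_, ?_⟩
    · have := h 0; rw [RL_apply] at this; simpa using this
    · have := h 1; rw [RL_apply] at this; simpa using this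
    · have := h 2; rw [RL_apply] at this; simpa [mul_comm] using this

/-- the shell in the stretched cube -/
def ShL (L η : ℝ) : Set E3 := QL L ∩ {x | 1 - 2 * η < |x 0| ∨ 1 - 2 * η < |x 1| ∨ 1 - 2 * η < |L * x 2|}

theorem ShL_eq {L : ℝ} (hL : L ≠ 0) (η : ℝ) :
    (RL L hL) '' ShL L η = e3.symm ⁻¹' (Sh3 η) := by
  ext y
  constructor
  · rintro ⟨x, ⟨hx1, hx2⟩, rfl⟩
    refine ⟨?_, ?_⟩
    · rw [QL_eq hL] at hx1
      rw [Q0_eq, mem_preimage, ContinuousLinearEquiv.apply_symm_apply]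
      exact hx1
    · rcases hx2 with h | h | h
      · refine ⟨0, ?_⟩
        rw [e3_symm_apply, RL_apply]; simpa using h
      · refine ⟨1, ?_⟩
        rw [e3_symm_apply, RL_apply]; simpa using h
      · refine ⟨2, ?_⟩
        rw [e3_symm_apply, RL_apply]; simpa [mul_comm] using h
  · rintro ⟨h1, i, h2⟩
    refine ⟨(RL L hL).symm y, ⟨?_, ?_⟩, ContinuousLinearEquiv.apply_symm_apply _ _⟩
    · rw [QL_eq hL, mem_preimage, ContinuousLinearEquiv.apply_symm_apply]
      rw [Q0_eq, mem_preimage, ContinuousLinearEquiv.apply_symm_apply] at h1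
      exact h1
    · rw [e3_symm_apply] at h2
      show 1 - 2 * η < |(RL L hL).symm y 0| ∨ 1 - 2 * η < |(RL L hL).symm y 1| ∨
        1 - 2 * η < |L * (RL L hL).symm y 2|
      rw [RL_symm_apply, RL_symm_apply, RL_symm_apply]
      fin_cases i
      · left; simpa using h2
      · right; left; simpa using h2
      · right; right
        have : L * (y 2 * if (2 : Fin 3) = 2 then L⁻¹ else 1) = y 2 := by
          rw [if_pos rfl]; field_simp
        rw [this]; exact h2

/-- **NOS**: the output of the machine on the stretched cube (`e` = accuracy of the layers, `K` after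
`e`; then `η`, `L` and the accuracy `e₂` of the shell are arbitrary). -/
def NOS (p : ℝ) : Prop :=
  ∀ s : Fin 3 → ℝ, (∀ i, 0 ≤ s i) → s 2 = 0 → ∀ e : ℝ, 0 < e → ∃ K : ℝ, 0 < K ∧
    ∀ (η : ℝ) (L : ℕ) (e₂ : ℝ), 0 < η → η ≤ 1 / 8 → 1 ≤ L → 0 < e₂ → ∃ d : ℝ, 0 < d ∧
    ∀ (U W : Set R3) (f : R3 → R3) (G : Fin 3 → R3 → R3),
      IsOpen U → Bornology.IsBounded U → IsConnected U →
      IsOpen W → Bornology.IsBounded W → IsConnected W → Qc0 ⊆ U →
      SH p U W f G →
      ∫⁻ x in Q0, ∑ j : Fin 3, ‖G j x - dg s j‖ₑ ^ p ≤ ENNReal.ofReal d →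
      volume (Q0 \ Zd G) ≤ ENNReal.ofReal d →
      ∃ g : E3 → E3, Hom3 g (QL L) (e3 '' (f '' Q0)) ∧ LocPL g (QL L) ∧
        (∀ z ∈ frontier Q0, ∀ ε > 0, ∀ᶠ x in 𝓝[Q0] z, ∀ y ∈ QL L,
          y 0 = x 0 → y 1 = x 1 → L * y 2 = x 2 → ‖g y - e3 (f x)‖ ≤ ε) ∧
        (∫⁻ x in QL L, ‖fderiv ℝ g x‖ₑ ^ p) ≤ ENNReal.ofReal (K / L) ∧
        (∫⁻ x in ShL L η, ‖fderiv ℝ g x‖ₑ ^ p) ≤ ENNReal.ofReal ((K * η + e₂) / L) ∧
        ∃ (N : ℕ) (z : Fin N → ℝ), 0 < N ∧ (∀ k, |L * z k| ≤ 1 / 2) ∧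
          ∑ k, ∑ i : Fin 2, (∫⁻ y in ball (0 : Fin 2 → ℝ) (1 - η),
            ‖Dp (sl g (z k) 2) i y - Pi.single ((2 : Fin 3).succAbove i)
              (s ((2 : Fin 3).succAbove i))‖ₑ ^ p) ≤ N * ENNReal.ofReal e

/-! ### the passage to `R3` -/

/-- the map on `Q0` -/
def out (L : ℝ) (hL : L ≠ 0) (g : E3 → E3) (x : R3) : R3 := e3.symm (g ((RL L hL).symm (e3 x)))

theorem Dc_out {L : ℝ} (hL : L ≠ 0) (g : E3 → E3) (i : Fin 3) (x : R3) :
    Dc (out L hL g) i x = e3.symm (fderiv ℝ g ((RL L hL).symm (e3 x))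
      ((RL L hL).symm (Pi.single i 1))) := by
  unfold Dc
  have h1 : out L hL g = e3.symm ∘ (g ∘ (e3.trans (RL L hL).symm)) := rfl
  rw [h1, ContinuousLinearEquiv.comp_fderiv, ContinuousLinearEquiv.comp_right_fderiv]
  have h2 : e3 (EuclideanSpace.single i (1 : ℝ)) = Pi.single i 1 := by
    rw [← e3_symm_single, ContinuousLinearEquiv.apply_symm_apply]
  show e3.symm (fderiv ℝ g ((RL L hL).symm (e3 x)) ((RL L hL).symm
    (e3 (EuclideanSpace.single i (1 : ℝ))))) = _
  rw [h2]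

/-- the norm constant -/
def cE : ℝ := ‖(e3.symm : E3 →L[ℝ] R3)‖ + 1

theorem one_le_cE : 1 ≤ cE := by
  unfold cE; linarith [norm_nonneg (e3.symm : E3 →L[ℝ] R3)]

theorem cE_pos : 0 < cE := lt_of_lt_of_le one_pos one_le_cE

theorem enorm_e3_symm (v : E3) : ‖e3.symm v‖ₑ ≤ ENNReal.ofReal cE * ‖v‖ₑ := by
  rw [← ofReal_norm, ← ofReal_norm, ← ENNReal.ofReal_mul cE_pos.le]
  apply ENNReal.ofReal_le_ofReal
  have h := (e3.symm : E3 →L[ℝ] R3).le_opNorm v
  have h2 : ‖(e3.symm : E3 →L[ℝ] R3)‖ * ‖v‖ ≤ cE * ‖v‖ := by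
    apply mul_le_mul_of_nonneg_right _ (norm_nonneg v)
    unfold cE; linarith
  exact h.trans h2

theorem RL_symm_single {L : ℝ} (hL : L ≠ 0) (i : Fin 3) :
    (RL L hL).symm (Pi.single i 1) = (if i = 2 then L⁻¹ else 1) • (Pi.single i (1 : ℝ) : E3) := by
  ext k
  rw [RL_symm_apply]
  by_cases h : k = i
  · subst h
    simp
  · simp [h]

theorem enorm_Dc_out {L : ℝ} (hL : 0 < L) (g : E3 → E3) (i : Fin 3) (x : R3) :
    ‖Dc (out L hL.ne' g) i x‖ₑ ≤ ENNReal.ofReal (cE * (if i = 2 then L⁻¹ else 1)) *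
      ‖fderiv ℝ g ((RL L hL.ne').symm (e3 x))‖ₑ := by
  rw [Dc_out]
  refine (enorm_e3_symm _).trans ?_
  rw [RL_symm_single hL.ne', map_smul, enorm_smul]
  have h1 : ‖fderiv ℝ g ((RL L hL.ne').symm (e3 x)) (Pi.single i (1 : ℝ))‖ₑ ≤
      ‖fderiv ℝ g ((RL L hL.ne').symm (e3 x))‖ₑ := by
    have h2 := (fderiv ℝ g ((RL L hL.ne').symm (e3 x))).le_opENorm (Pi.single i (1 : ℝ))
    refine h2.trans ?_
    have h3 : ‖(Pi.single i (1 : ℝ) : E3)‖ₑ = 1 := by
      rw [← ofReal_norm, Pi.norm_single]; simp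
    rw [h3, mul_one]
  have h4 : ‖(if i = 2 then L⁻¹ else 1 : ℝ)‖ₑ = ENNReal.ofReal (if i = 2 then L⁻¹ else 1) := by
    rw [Real.enorm_eq_ofReal]
    split_ifs <;> positivity
  rw [h4, ENNReal.ofReal_mul cE_pos.le, mul_assoc]
  gcongr

theorem lint_out {L p : ℝ} (hL : 0 < L) (hp : 0 < p) (g : E3 → E3) (i : Fin 3) (S : Set E3) :
    ∫⁻ x in e3 ⁻¹' S, ‖Dc (out L hL.ne' g) i x‖ₑ ^ p ≤
      ENNReal.ofReal ((cE * (if i = 2 then L⁻¹ else 1)) ^ p) *
        (ENNReal.ofReal L * ∫⁻ y in (RL L hL.ne') ⁻¹' S, ‖fderiv ℝ g y‖ₑ ^ p) := by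
  have hc0 : 0 ≤ cE * (if i = 2 then L⁻¹ else 1) := by
    have := cE_pos
    split_ifs <;> positivity
  calc ∫⁻ x in e3 ⁻¹' S, ‖Dc (out L hL.ne' g) i x‖ₑ ^ p
      ≤ ∫⁻ x in e3 ⁻¹' S, ENNReal.ofReal ((cE * (if i = 2 then L⁻¹ else 1)) ^ p) *
        ‖fderiv ℝ g ((RL L hL.ne').symm (e3 x))‖ₑ ^ p := by
        refine lintegral_mono fun x => ?_
        calc _ ≤ (ENNReal.ofReal (cE * (if i = 2 then L⁻¹ else 1)) *
              ‖fderiv ℝ g ((RL L hL.ne').symm (e3 x))‖ₑ) ^ p :=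
              ENNReal.rpow_le_rpow (enorm_Dc_out hL g i x) hp.le
          _ = _ := by
            rw [ENNReal.mul_rpow_of_nonneg _ _ hp.le, ENNReal.ofReal_rpow_of_nonneg hc0 hp.le]
    _ = ENNReal.ofReal ((cE * (if i = 2 then L⁻¹ else 1)) ^ p) *
        ∫⁻ x in e3 ⁻¹' S, ‖fderiv ℝ g ((RL L hL.ne').symm (e3 x))‖ₑ ^ p := by
        rw [lintegral_const_mul' _ _ ENNReal.ofReal_ne_top]
    _ = ENNReal.ofReal ((cE * (if i = 2 then L⁻¹ else 1)) ^ p) *
        (ENNReal.ofReal L * ∫⁻ y in (RL L hL.ne') ⁻¹' S, ‖fderiv ℝ g y‖ₑ ^ p) := by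
        congr 1
        rw [lint_e3 (fun y => ‖fderiv ℝ g ((RL L hL.ne').symm y)‖ₑ ^ p) S]
        have h := lint_RL hL (fun y => ‖fderiv ℝ g ((RL L hL.ne').symm y)‖ₑ ^ p) S
        simp only [ContinuousLinearEquiv.symm_apply_apply] at h
        rw [h, ← mul_assoc, ← ENNReal.ofReal_mul hL.le, one_div, mul_inv_cancel₀ hL.ne',
          ENNReal.ofReal_one, one_mul]

theorem sl3_out {L : ℝ} (hL : L ≠ 0) (g : E3 → E3) (c : ℝ) (y : Fin 2 → ℝ) :
    sl3 (out L hL g) (L * c) y = e3.symm (sl g c 2 y) := by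
  unfold sl3 out sl
  show e3.symm (g ((RL L hL).symm (e3 (e3.symm (Fin.insertNth 2 (L * c) y))))) = _
  rw [ContinuousLinearEquiv.apply_symm_apply]
  congr 2
  ext k
  rw [RL_symm_apply]
  refine (2 : Fin 3).succAboveCases ?_ (fun i => ?_) k
  · rw [Fin.insertNth_apply_same, Fin.insertNth_apply_same, if_pos rfl]
    field_simp
  · rw [Fin.insertNth_apply_succAbove, Fin.insertNth_apply_succAbove,
      if_neg (Fin.succAbove_ne _ _), mul_one]

theorem Dp_sl3_out {L : ℝ} (hL : L ≠ 0) (g : E3 → E3) (c : ℝ) (i : Fin 2) (y : Fin 2 → ℝ) :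
    Dp (sl3 (out L hL g) (L * c)) i y = e3.symm (Dp (sl g c 2) i y) := by
  have h1 : sl3 (out L hL g) (L * c) = e3.symm ∘ sl g c 2 := by
    funext y; exact sl3_out hL g c y
  unfold Dp
  rw [h1, ContinuousLinearEquiv.comp_fderiv]
  rfl

theorem dg_eq (s : Fin 3 → ℝ) (i : Fin 3) : dg s i = e3.symm (Pi.single i (s i)) := by
  ext k
  rw [e3_symm_apply]
  unfold dg
  simp [Pi.single_apply]

theorem lint_layer {L p : ℝ} (hL : L ≠ 0) (hp : 0 < p) (g : E3 → E3) (s : Fin 3 → ℝ) (c : ℝ)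
    (i : Fin 2) (S : Set (Fin 2 → ℝ)) :
    ∫⁻ y in S, ‖Dp (sl3 (out L hL g) (L * c)) i y - dg s ((2 : Fin 3).succAbove i)‖ₑ ^ p ≤
      ENNReal.ofReal (cE ^ p) * ∫⁻ y in S, ‖Dp (sl g c 2) i y - Pi.single ((2 : Fin 3).succAbove i)
              (s ((2 : Fin 3).succAbove i))‖ₑ ^ p := by
  rw [← lintegral_const_mul' _ _ ENNReal.ofReal_ne_top]
  refine lintegral_mono fun y => ?_
  rw [Dp_sl3_out, dg_eq, ← map_sub, ← ENNReal.ofReal_rpow_of_nonneg cE_pos.le hp.le,
    ← ENNReal.mul_rpow_of_nonneg _ _ hp.le]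
  exact ENNReal.rpow_le_rpow (enorm_e3_symm _) hp.le

theorem vol_shell {η : ℝ} (hη : 0 < η) (hη' : η ≤ 1 / 8) :
    volume (Sh3 η) ≤ ENNReal.ofReal (48 * η) := by
  have h1 : Sh3 η ⊆ e3 ⁻¹' (ball 0 1 \ ball 0 (1 - 2 * η)) := by
    rintro x ⟨hx, i, hi⟩
    rw [preimage_sdiff, ← Q0_eq]
    refine ⟨hx, fun h => ?_⟩
    have := (mem_ball_e3 (by linarith)).1 h i
    linarith
  have h2 := lint_e3 (fun _ => 1) (ball 0 1 \ ball 0 (1 - 2 * η))
  simp only [lintegral_const, Measure.restrict_apply, MeasurableSet.univ, univ_inter, one_mul] at h2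
  refine (measure_mono h1).trans ?_
  rw [h2, measure_sdiff (ball_subset_ball (by linarith)) measurableSet_ball.nullMeasurableSet
    measure_ball_lt_top.ne, Real.volume_pi_ball _ one_pos, Real.volume_pi_ball _ (by linarith),
    ← ENNReal.ofReal_sub _ (pow_nonneg (by linarith) _)]
  apply ENNReal.ofReal_le_ofReal
  simp only [Fintype.card_fin]
  nlinarith [mul_pos hη hη, mul_pos hη (mul_pos hη hη)]

theorem nol_of_nos {p : ℝ} (hp : 0 < p) (h : NOS p) : NOL p := by
  intro s hs hs2 e he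
  set c : ℝ := cE ^ p with hc
  have hc0 : 0 < c := Real.rpow_pos_of_pos cE_pos p
  set e' : ℝ := e / (2 * c) with he'
  have he'0 : 0 < e' := by positivity
  have hce' : c * e' = e / 2 := by rw [he']; field_simp
  obtain ⟨K, hK, H⟩ := h s hs hs2 e' he'0
  set Sg : ℝ := ∑ i, (s i) ^ p with hSg
  have hSg0 : 0 ≤ Sg := Finset.sum_nonneg fun i _ => Real.rpow_nonneg (hs i) p
  set A : ℝ := 2 * (c * K) + 48 * Sg + 1 with hA
  have hcK : 0 < c * K := mul_pos hc0 hK
  have hA0 : 0 < A := by positivity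
  set η : ℝ := min (1 / 8) (e / (2 * A)) with hη
  have hη0 : 0 < η := lt_min (by norm_num) (by positivity)
  have hη1 : η ≤ 1 / 8 := min_le_left _ _
  have hηA : A * η ≤ e / 2 := by
    have : η ≤ e / (2 * A) := min_le_right _ _
    calc A * η ≤ A * (e / (2 * A)) := mul_le_mul_of_nonneg_left this hA0.le
      _ = e / 2 := by field_simp
  -- L
  obtain ⟨L, hL⟩ := exists_nat_gt (max 1 (3 / η * (c * K / e) ^ (1 / p)))
  have hL1 : (1 : ℝ) < L := lt_of_le_of_lt (le_max_left _ _) hL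
  have hL2 : 3 / η * (c * K / e) ^ (1 / p) < L := lt_of_le_of_lt (le_max_right _ _) hL
  have hL0 : (0 : ℝ) < L := by linarith
  have hLn : 1 ≤ L := by exact_mod_cast hL1.le
  obtain ⟨d, hd, H'⟩ := H η L e' hη0 hη1 hLn he'0
  refine ⟨η, hη0, hη1, d, hd, ?_⟩
  intro U W f G hU1 hU2 hU3 hW1 hW2 hW3 hQ hSH hG hvol
  obtain ⟨g, ⟨gi, g1, g2, g3, g4, g5, g6⟩, gPL, gb, gE, gS, N, z, hN, hz, hsum⟩ :=
    H' U W f G hU1 hU2 hU3 hW1 hW2 hW3 hQ hSH hG hvol
  have hQL : QL L = (RL L hL0.ne') ⁻¹' ball 0 1 := QL_eq hL0.ne'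
  have hmem : ∀ x, x ∈ Q0 ↔ (RL L hL0.ne').symm (e3 x) ∈ QL L := by
    intro x
    rw [hQL, mem_preimage, ContinuousLinearEquiv.apply_symm_apply, Q0_eq]; rfl
  refine ⟨out L hL0.ne' g, ?_, ?_, ?_, ?_, ?_, N, fun k => L * z k, hN, hz, ?_⟩
  · -- homeo
    refine ⟨fun y => e3.symm (RL L hL0.ne' (gi (e3 y))), ?_, ?_, ?_, ?_, ?_, ?_⟩
    · intro x hx
      obtain ⟨y, hy, hyx⟩ := g1 ((hmem x).1 hx)
      have : out L hL0.ne' g x = y := by
        unfold out
        rw [← hyx, ContinuousLinearEquiv.symm_apply_apply]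
      rw [this]; exact hy
    · intro y hy
      have h1 := g2 (mem_image_of_mem e3 hy)
      rw [hmem, ContinuousLinearEquiv.apply_symm_apply, ContinuousLinearEquiv.symm_apply_apply]
      exact h1
    · intro x hx
      show e3.symm (RL L hL0.ne' (gi (e3 (out L hL0.ne' g x)))) = x
      unfold out
      rw [ContinuousLinearEquiv.apply_symm_apply, g3 _ ((hmem x).1 hx),
        ContinuousLinearEquiv.apply_symm_apply, ContinuousLinearEquiv.symm_apply_apply]
    · intro y hy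
      show out L hL0.ne' g (e3.symm (RL L hL0.ne' (gi (e3 y)))) = y
      unfold out
      rw [ContinuousLinearEquiv.apply_symm_apply, ContinuousLinearEquiv.symm_apply_apply,
        g4 _ (mem_image_of_mem e3 hy), ContinuousLinearEquiv.symm_apply_apply]
    · show ContinuousOn (fun x => e3.symm (g ((RL L hL0.ne').symm (e3 x)))) Q0
      refine e3.symm.continuous.comp_continuousOn (g5.comp ?_ fun x hx => (hmem x).1 hx)
      exact ((RL L hL0.ne').symm.continuous.comp e3.continuous).continuousOn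
    · refine e3.symm.continuous.comp_continuousOn ((RL L hL0.ne').continuous.comp_continuousOn
        (g6.comp e3.continuous.continuousOn fun y hy => mem_image_of_mem e3 hy))
  · -- PL
    have h1 : PLMap (fun x : R3 => (RL L hL0.ne').symm (e3 x)) :=
      PLMap.of_affine ((e3.trans (RL L hL0.ne').symm : R3 ≃L[ℝ] E3) : R3 →ₗ[ℝ] E3).toAffineMap
    have h2 : LocPL (fun x : R3 => g ((RL L hL0.ne').symm (e3 x))) Q0 :=
      locPL_comp gPL h1 fun x hx => (hmem x).1 hx
    have h3 : LocPL (fun z : E3 => e3.symm z) univ := by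
      intro x _
      refine ⟨1, one_pos, {(e3.symm : E3 →ₗ[ℝ] R3).toAffineMap}, e3.symm.continuous.continuousOn, ?_⟩
      intro y _
      exact ⟨_, Finset.mem_singleton_self _, rfl⟩
    intro x hx
    obtain ⟨r, hr, S, hc1, hS⟩ := h2 x hx
    classical
    refine ⟨r, hr, S.image (fun a => (e3.symm : E3 →ₗ[ℝ] R3).toAffineMap.comp a),
      e3.symm.continuous.comp_continuousOn hc1, ?_⟩
    intro y hy
    obtain ⟨a, ha, hay⟩ := hS y hy
    refine ⟨_, Finset.mem_image_of_mem _ ha, ?_⟩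
    show e3.symm (g ((RL L hL0.ne').symm (e3 y))) = e3.symm (a y)
    exact congrArg e3.symm hay
  · -- boundary values
    intro w hw
    rw [Metric.tendsto_nhds]
    intro ε hε
    filter_upwards [gb w hw (ε / (2 * cE)) (by have := cE_pos; positivity), self_mem_nhdsWithin]
      with x hx hxQ
    have h1 := hx ((RL L hL0.ne').symm (e3 x)) ((hmem x).1 hxQ)
      (by rw [RL_symm_apply]; simp [e3_apply]) (by rw [RL_symm_apply]; simp [e3_apply])
      (by rw [RL_symm_apply, if_pos rfl, e3_apply]; field_simp)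
    rw [dist_zero_right]
    have h2 : out L hL0.ne' g x - f x = e3.symm (g ((RL L hL0.ne').symm (e3 x)) - e3 (f x)) := by
      rw [map_sub, ContinuousLinearEquiv.symm_apply_apply]; rfl
    rw [h2]
    have h3 := (e3.symm : E3 →L[ℝ] R3).le_opNorm (g ((RL L hL0.ne').symm (e3 x)) - e3 (f x))
    have h4 : ‖(e3.symm : E3 →L[ℝ] R3)‖ ≤ cE := by unfold cE; linarith
    calc _ ≤ ‖(e3.symm : E3 →L[ℝ] R3)‖ * ‖g ((RL L hL0.ne').symm (e3 x)) - e3 (f x)‖ := h3
      _ ≤ cE * (ε / (2 * cE)) := mul_le_mul h4 h1 (norm_nonneg _) cE_pos.le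
      _ = ε / 2 := by have := cE_pos; field_simp
      _ < ε := by linarith
  · -- shell terms
    intro i hi
    have hi1 : (if i = 2 then (L : ℝ)⁻¹ else 1) = 1 := if_neg hi
    have q1 : ∫⁻ x in Sh3 η, ‖Dc (out L hL0.ne' g) i x‖ₑ ^ p ≤ ENNReal.ofReal (c * (K * η + e')) := by
      have h1 := lint_out hL0 hp g i (e3.symm ⁻¹' (Sh3 η))
      have h2 : e3 ⁻¹' (e3.symm ⁻¹' (Sh3 η)) = Sh3 η := by
        ext x; simp only [mem_preimage, ContinuousLinearEquiv.symm_apply_apply]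
      have h3 : (RL L hL0.ne') ⁻¹' (e3.symm ⁻¹' (Sh3 η)) = ShL L η := by
        rw [← ShL_eq hL0.ne' η]
        exact preimage_image_eq _ (RL L hL0.ne').injective
      rw [h2, h3, hi1, mul_one] at h1
      refine h1.trans ?_
      calc ENNReal.ofReal (cE ^ p) * (ENNReal.ofReal L * ∫⁻ y in ShL L η, ‖fderiv ℝ g y‖ₑ ^ p)
          ≤ ENNReal.ofReal (cE ^ p) * (ENNReal.ofReal L * ENNReal.ofReal ((K * η + e') / L)) := by
            gcongr
        _ = ENNReal.ofReal (c * (K * η + e')) := by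
            rw [← ENNReal.ofReal_mul hL0.le, ← ENNReal.ofReal_mul hc0.le]
            congr 1
            field_simp
    have q2 : ∫⁻ x in Q0, ‖Dc (out L hL0.ne' g) i x‖ₑ ^ p ≤ ENNReal.ofReal (c * K) := by
      have h1 := lint_out hL0 hp g i (ball 0 1)
      rw [← Q0_eq, ← hQL, hi1, mul_one] at h1
      refine h1.trans ?_
      calc ENNReal.ofReal (cE ^ p) * (ENNReal.ofReal L * ∫⁻ y in QL L, ‖fderiv ℝ g y‖ₑ ^ p)
          ≤ ENNReal.ofReal (cE ^ p) * (ENNReal.ofReal L * ENNReal.ofReal (K / L)) := by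
            gcongr
        _ = ENNReal.ofReal (c * K) := by
            rw [← ENNReal.ofReal_mul hL0.le, ← ENNReal.ofReal_mul hc0.le]
            congr 1
            field_simp
    have q3 : ‖dg s i‖ₑ ^ p ≤ ENNReal.ofReal Sg := by
      have h1 : ‖dg s i‖ = s i := by
        unfold dg
        rw [EuclideanSpace.norm_single, Real.norm_eq_abs, abs_of_nonneg (hs i)]
      rw [← ofReal_norm, h1, ENNReal.ofReal_rpow_of_nonneg (hs i) hp.le]
      apply ENNReal.ofReal_le_ofReal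
      exact Finset.single_le_sum (f := fun i => (s i) ^ p)
        (fun j _ => Real.rpow_nonneg (hs j) p) (Finset.mem_univ i)
    calc _ ≤ ENNReal.ofReal (c * (K * η + e')) + ENNReal.ofReal (η / 2) * ENNReal.ofReal (c * K) +
          ENNReal.ofReal Sg * ENNReal.ofReal (48 * η) := by
          gcongr
          exact vol_shell hη0 hη1
      _ = ENNReal.ofReal (c * (K * η + e') + η / 2 * (c * K) + Sg * (48 * η)) := by
          rw [← ENNReal.ofReal_mul (by positivity), ← ENNReal.ofReal_mul hSg0,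
            ← ENNReal.ofReal_add (by positivity) (by positivity),
            ← ENNReal.ofReal_add (by positivity) (by positivity)]
      _ ≤ ENNReal.ofReal e := by
          apply ENNReal.ofReal_le_ofReal
          have h1 : c * (K * η + e') + η / 2 * (c * K) + Sg * (48 * η) =
            (3 / 2 * (c * K) + 48 * Sg) * η + c * e' := by ring
          rw [h1, hce']
          have h2 : (3 / 2 * (c * K) + 48 * Sg) * η ≤ A * η := by
            apply mul_le_mul_of_nonneg_right _ hη0.le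
            rw [hA]; linarith
          linarith
  · -- the long direction
    have h1 := lint_out hL0 hp g 2 (ball 0 1)
    rw [← Q0_eq, ← hQL, if_pos rfl] at h1
    have hb : 0 ≤ (3 / η) ^ p := by positivity
    have hLp : (0 : ℝ) ≤ (cE * (L : ℝ)⁻¹) ^ p := by have := cE_pos; positivity
    calc ENNReal.ofReal (3 / η) ^ p * (∫⁻ x in Q0, ‖Dc (out L hL0.ne' g) 2 x‖ₑ ^ p)
        ≤ ENNReal.ofReal ((3 / η) ^ p) * (ENNReal.ofReal ((cE * (L : ℝ)⁻¹) ^ p) *
          (ENNReal.ofReal L * ENNReal.ofReal (K / L))) := by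
          rw [ENNReal.ofReal_rpow_of_nonneg (by positivity) hp.le]
          gcongr
          exact h1.trans (by gcongr)
      _ = ENNReal.ofReal ((3 / η) ^ p * ((cE * (L : ℝ)⁻¹) ^ p * K)) := by
          rw [← ENNReal.ofReal_mul hL0.le, ← ENNReal.ofReal_mul hLp, ← ENNReal.ofReal_mul hb]
          congr 3
          field_simp
      _ ≤ ENNReal.ofReal e := by
          apply ENNReal.ofReal_le_ofReal
          rw [Real.mul_rpow cE_pos.le (by positivity), ← hc]
          have h2 : (3 / η) ^ p * (c * (L : ℝ)⁻¹ ^ p * K) = (3 / η * (L : ℝ)⁻¹) ^ p * (c * K) := by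
            rw [Real.mul_rpow (by positivity) (by positivity)]; ring
          rw [h2]
          have h3 : 3 / η * (L : ℝ)⁻¹ ≤ ((c * K / e) ^ (1 / p))⁻¹ := by
            have h4 : 0 < (c * K / e) ^ (1 / p) := Real.rpow_pos_of_pos (by positivity) _
            rw [← div_eq_mul_inv, div_le_iff₀ hL0, inv_mul_eq_div, le_div_iff₀ h4]
            exact hL2.le
          have h5 : (3 / η * (L : ℝ)⁻¹) ^ p ≤ (((c * K / e) ^ (1 / p))⁻¹) ^ p :=
            Real.rpow_le_rpow (by positivity) h3 hp.le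
          have h6 : (((c * K / e) ^ (1 / p))⁻¹) ^ p = e / (c * K) := by
            rw [Real.inv_rpow (Real.rpow_nonneg (by positivity) _), ← Real.rpow_mul (by positivity),
              one_div_mul_cancel hp.ne', Real.rpow_one, inv_div]
          calc _ ≤ e / (c * K) * (c * K) := by
                rw [h6] at h5
                exact mul_le_mul_of_nonneg_right h5 hcK.le
            _ = e := by field_simp
  · -- layers
    calc ∑ k, ∑ i : Fin 2, (∫⁻ y in ball (0 : Fin 2 → ℝ) (1 - η),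
            ‖Dp (sl3 (out L hL0.ne' g) (L * z k)) i y - dg s ((2 : Fin 3).succAbove i)‖ₑ ^ p)
        ≤ ∑ k, ∑ i : Fin 2, (ENNReal.ofReal c * ∫⁻ y in ball (0 : Fin 2 → ℝ) (1 - η),
            ‖Dp (sl g (z k) 2) i y - Pi.single ((2 : Fin 3).succAbove i)
              (s ((2 : Fin 3).succAbove i))‖ₑ ^ p) := by
          refine Finset.sum_le_sum fun k _ => Finset.sum_le_sum fun i _ => ?_
          exact lint_layer hL0.ne' hp g s (z k) i _
      _ = ENNReal.ofReal c * ∑ k, ∑ i : Fin 2, (∫⁻ y in ball (0 : Fin 2 → ℝ) (1 - η),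
            ‖Dp (sl g (z k) 2) i y - Pi.single ((2 : Fin 3).succAbove i)
              (s ((2 : Fin 3).succAbove i))‖ₑ ^ p) := by
          simp only [Finset.mul_sum]
      _ ≤ ENNReal.ofReal c * (N * ENNReal.ofReal e') := by gcongr
      _ = N * ENNReal.ofReal (c * e') := by rw [ENNReal.ofReal_mul hc0.le]; ring
      _ ≤ N * ENNReal.ofReal e := by
          gcongr
          rw [hce']; linarith

end

end Crest.Agent.R096.No_276
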