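import Crest.Agent.R096.Er3_594
import Crest.Agent.R096.No1_276
import Crest.Agent.R96.Sob8_199

/-!
# Row 96, NO0 (helper780): STRETCH, from the data of `NOS` (`R3`, unit cube) to the data of the machine
(`E3`, stretched cube `QL L`)
-/

set_option autoImplicit false
set_option linter.unusedSectionVars false
set_option linter.style.longLine false

open MeasureTheory Set Filter Topology Metric
open scoped ENNReal Gradient NNReal
open Crest.AnalysisR.VecCalc3 Crest.AnalysisR.Sobolev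
open Crest.Agent.R096.Sk_962 (SH Q0 Qc0 dg)
open Crest.Agent.R96.En10_199 (P3 P3_mp P3_apply Di)
open Crest.Agent.R096.SkC1_961 (E3 Hom3)
open Crest.Agent.R96.Sob2_199 (wd_mono wd_smul_dir)
open Crest.Agent.R96.Sob4_199 (VWD)
open Crest.Agent.R96.Sob8_199 (aff wd_comp_aff)
open Crest.Agent.R096.Sk4_663 (Zd)
open Crest.Agent.R096.Er_594 (SH3 D3 dg3 sh3_of energy_D3_sub_le pre_Zd dg3_apply norm_P3_le)
open Crest.Agent.R096.No_276 (RL RL_apply RL_symm_apply QL QL_eq lint_RL map_RL)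

namespace Crest.Agent.R096.Nst_780

noncomputable section

/-! ### restriction -/

theorem hom3_restrict {f : E3 → E3} {Om La Om' : Set E3} (h : Hom3 f Om La) (hs : Om' ⊆ Om) :
    Hom3 f Om' (f '' Om') := by
  obtain ⟨fi, h1, h2, h3, h4, h5, h6⟩ := h
  refine ⟨fi, fun x hx => mem_image_of_mem _ hx, ?_, fun x hx => h3 x (hs hx), ?_, h5.mono hs,
    h6.mono ?_⟩
  · rintro _ ⟨x, hx, rfl⟩
    rw [h3 x (hs hx)]; exact hx
  · rintro _ ⟨x, hx, rfl⟩
    rw [h3 x (hs hx)]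
  · rintro _ ⟨x, hx, rfl⟩
    exact h1 (hs hx)

/-- the image of an open subset is open -/
theorem isOpen_image_hom3 {f : E3 → E3} {Om La Om' : Set E3} (h : Hom3 f Om La) (hLa : IsOpen La)
    (hs : Om' ⊆ Om) (hO' : IsOpen Om') : IsOpen (f '' Om') := by
  obtain ⟨fi, h1, h2, h3, h4, h5, h6⟩ := h
  have he : f '' Om' = La ∩ fi ⁻¹' Om' := by
    ext y
    constructor
    · rintro ⟨x, hx, rfl⟩
      exact ⟨h1 (hs hx), by rw [mem_preimage, h3 x (hs hx)]; exact hx⟩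
    · rintro ⟨hy, hy'⟩
      exact ⟨fi y, hy', h4 y hy⟩
  rw [he]
  exact h6.isOpen_inter_preimage hLa hO'

theorem sh3_restrict {p : ℝ} {Om La Om' : Set E3} {f : E3 → E3} {D : E3 → E3 →L[ℝ] E3}
    (h : SH3 p Om La f D) (hs : Om' ⊆ Om) : SH3 p Om' (f '' Om') f D where
  homeo := hom3_restrict h.homeo hs
  vwd i k := wd_mono (h.vwd i k) hs
  aesm := h.aesm.mono_measure (Measure.restrict_mono hs le_rfl)
  energy := ne_top_of_le_ne_top h.energy (lintegral_mono_set hs)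
  lp := ne_top_of_le_ne_top h.lp (lintegral_mono_set hs)

/-! ### the stretch -/

/-- the slope of the stretch -/
def sc (L : ℝ) (i : Fin 3) : ℝ := if i = 2 then L else 1

theorem RL_single {L : ℝ} (hL : L ≠ 0) (i : Fin 3) :
    RL L hL (Pi.single i 1) = sc L i • (Pi.single i (1 : ℝ) : E3) := by
  ext k
  rw [RL_apply]
  unfold sc
  by_cases h : k = i
  · subst h; simp
  · simp [h]

theorem sc_ne {L : ℝ} (hL : L ≠ 0) (i : Fin 3) : sc L i ≠ 0 := by
  unfold sc; split_ifs <;> simp [hL]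

theorem qmp_RL {L : ℝ} (hL : 0 < L) :
    Measure.QuasiMeasurePreserving (RL L hL.ne') (volume : Measure E3) volume := by
  refine ⟨(RL L hL.ne').continuous.measurable, ?_⟩
  rw [map_RL hL]
  exact Measure.smul_absolutelyContinuous

/-- composition with the stretch, weak derivatives -/
theorem vwd_RL {Om : Set E3} {f : E3 → E3} {D : E3 → E3 →L[ℝ] E3}
    (h : ∀ i, VWD Om volume (fun x => P3 (f x)) (fun x => P3 (D x (Pi.single i 1))) (Pi.single i 1))
    {L : ℝ} (hL : 0 < L) (i : Fin 3) :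
    VWD (RL L hL.ne' ⁻¹' Om) volume (fun x => P3 (f (RL L hL.ne' x)))
      (fun x => P3 (((D (RL L hL.ne' x)).comp (RL L hL.ne' : E3 →L[ℝ] E3)) (Pi.single i 1)))
      (Pi.single i 1) := by
  intro k
  have h1 := wd_comp_aff (wd_smul_dir (h i k) (sc L i)) 0 (RL L hL.ne')
  have e1 : (RL L hL.ne').symm (sc L i • (Pi.single i (1 : ℝ) : E3)) = Pi.single i 1 := by
    rw [← RL_single hL.ne', ContinuousLinearEquiv.symm_apply_apply]
  rw [e1] at h1
  have e2 : ∀ x : E3, aff (0 : E3) (RL L hL.ne') x = RL L hL.ne' x := fun x => zero_add _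
  have e3 : (aff (0 : E3) (RL L hL.ne') : E3 → E3) = RL L hL.ne' := funext e2
  rw [e3] at h1
  have e4 : (fun x : E3 => P3 (((D (RL L hL.ne' x)).comp (RL L hL.ne' : E3 →L[ℝ] E3))
      (Pi.single i 1)) k) =
      fun x => sc L i * P3 (D (RL L hL.ne' x) (Pi.single i 1)) k := by
    funext x
    rw [ContinuousLinearMap.comp_apply]
    have : (RL L hL.ne' : E3 →L[ℝ] E3) (Pi.single i 1) = sc L i • (Pi.single i (1 : ℝ) : E3) :=
      RL_single hL.ne' i
    rw [this, map_smul, map_smul]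
    rfl
  change Crest.Agent.R96.Acl_392.WD (RL L hL.ne' ⁻¹' Om) volume (fun x => P3 (f (RL L hL.ne' x)) k)
    (fun x => P3 (((D (RL L hL.ne' x)).comp (RL L hL.ne' : E3 →L[ℝ] E3)) (Pi.single i 1)) k)
    (Pi.single i 1)
  rw [e4]
  exact h1

theorem hom3_RL {f : E3 → E3} {Om La : Set E3} (h : Hom3 f Om La) {L : ℝ} (hL : L ≠ 0) :
    Hom3 (fun x => f (RL L hL x)) (RL L hL ⁻¹' Om) La := by
  obtain ⟨fi, h1, h2, h3, h4, h5, h6⟩ := h
  refine ⟨fun y => (RL L hL).symm (fi y), fun x hx => h1 hx, ?_, ?_, ?_, ?_, ?_⟩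
  · intro y hy
    rw [mem_preimage, ContinuousLinearEquiv.apply_symm_apply]
    exact h2 hy
  · intro x hx
    show (RL L hL).symm (fi (f (RL L hL x))) = x
    rw [h3 _ hx, ContinuousLinearEquiv.symm_apply_apply]
  · intro y hy
    show f (RL L hL ((RL L hL).symm (fi y))) = y
    rw [ContinuousLinearEquiv.apply_symm_apply, h4 y hy]
  · exact h5.comp (RL L hL).continuous.continuousOn fun x hx => hx
  · exact (RL L hL).symm.continuous.comp_continuousOn h6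

/-- **composition with the stretch** -/
theorem sh3_RL {p : ℝ} (hp : 0 ≤ p) {Om La : Set E3} {f : E3 → E3} {D : E3 → E3 →L[ℝ] E3}
    (h : SH3 p Om La f D) {L : ℝ} (hL : 0 < L) :
    SH3 p (RL L hL.ne' ⁻¹' Om) La (fun x => f (RL L hL.ne' x))
      (fun x => (D (RL L hL.ne' x)).comp (RL L hL.ne' : E3 →L[ℝ] E3)) where
  homeo := hom3_RL h.homeo hL.ne'
  vwd := vwd_RL h.vwd hL
  aesm := by
    have h1 : Measure.QuasiMeasurePreserving (RL L hL.ne')
        ((volume : Measure E3).restrict (RL L hL.ne' ⁻¹' Om)) (volume.restrict Om) :=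
      (qmp_RL hL).restrict fun x hx => hx
    have h2 := h.aesm.comp_quasiMeasurePreserving h1
    have h3 : Continuous fun A : E3 →L[ℝ] E3 => A.comp (RL L hL.ne' : E3 →L[ℝ] E3) := by fun_prop
    exact h3.comp_aestronglyMeasurable h2
  energy := by
    set c : ℝ≥0∞ := ‖(RL L hL.ne' : E3 →L[ℝ] E3)‖ₑ with hc
    have hcp : c ^ p ≠ ∞ := ENNReal.rpow_ne_top_of_nonneg hp (by simp [hc])
    have h1 : ∫⁻ x in RL L hL.ne' ⁻¹' Om,
        ‖(D (RL L hL.ne' x)).comp (RL L hL.ne' : E3 →L[ℝ] E3)‖ₑ ^ p ≤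
        ∫⁻ x in RL L hL.ne' ⁻¹' Om, (fun y => c ^ p * ‖D y‖ₑ ^ p) (RL L hL.ne' x) := by
      apply lintegral_mono
      intro x
      show ‖(D (RL L hL.ne' x)).comp (RL L hL.ne' : E3 →L[ℝ] E3)‖ₑ ^ p ≤
        c ^ p * ‖D (RL L hL.ne' x)‖ₑ ^ p
      rw [← ENNReal.mul_rpow_of_nonneg _ _ hp]
      apply ENNReal.rpow_le_rpow _ hp
      rw [hc, ← ofReal_norm, ← ofReal_norm, ← ofReal_norm, ← ENNReal.ofReal_mul (norm_nonneg _),
        mul_comm]
      exact ENNReal.ofReal_le_ofReal (ContinuousLinearMap.opNorm_comp_le _ _)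
    refine ne_top_of_le_ne_top ?_ h1
    rw [lint_RL hL (fun y => c ^ p * ‖D y‖ₑ ^ p) Om, lintegral_const_mul' _ _ hcp]
    exact ENNReal.mul_ne_top ENNReal.ofReal_ne_top (ENNReal.mul_ne_top hcp h.energy)
  lp := by
    rw [lint_RL hL (fun y => ‖f y‖ₑ ^ p) Om]
    exact ENNReal.mul_ne_top ENNReal.ofReal_ne_top h.lp

/-- determinant -/
theorem det_comp_RL (A : E3 →L[ℝ] E3) {L : ℝ} (hL : L ≠ 0) :
    (A.comp (RL L hL : E3 →L[ℝ] E3)).det = 0 ↔ A.det = 0 := by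
  have h1 : (A.comp (RL L hL : E3 →L[ℝ] E3)).det = A.det * (RL L hL : E3 →L[ℝ] E3).det := by
    show LinearMap.det ((A : E3 →ₗ[ℝ] E3) ∘ₗ ((RL L hL : E3 →L[ℝ] E3) : E3 →ₗ[ℝ] E3)) = _
    rw [LinearMap.det_comp]
  have h2 : (RL L hL : E3 →L[ℝ] E3).det ≠ 0 :=
    (RL L hL).toLinearEquiv.isUnit_det'.ne_zero
  rw [h1, mul_eq_zero, or_iff_left h2]

/-! ### energies near the diagonal matrix -/

/-- columns against the operator norm -/
theorem sum_col_le {p : ℝ} (hp : 0 ≤ p) (s : Fin 3 → ℝ) (A : E3 →L[ℝ] E3) :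
    ∑ l, ‖P3 (A (Pi.single l 1)) - EuclideanSpace.single l (s l)‖ₑ ^ p ≤
      3 * (2 ^ p * ‖A - dg3 s‖ₑ ^ p) := by
  have h1 : ∀ l : Fin 3, ‖P3 (A (Pi.single l 1)) - EuclideanSpace.single l (s l)‖ₑ ^ p ≤
      2 ^ p * ‖A - dg3 s‖ₑ ^ p := by
    intro l
    rw [← ENNReal.mul_rpow_of_nonneg _ _ hp]
    apply ENNReal.rpow_le_rpow _ hp
    have e1 : EuclideanSpace.single l (s l) = P3 (dg3 s (Pi.single l 1)) := by
      ext k
      rw [P3_apply, dg3_apply]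
      by_cases h : k = l
      · subst h; simp
      · simp [h]
    rw [e1, ← map_sub]
    change ‖P3 ((A - dg3 s) (Pi.single l 1))‖ₑ ≤ _
    have h2 : ‖P3 ((A - dg3 s) (Pi.single l 1))‖ ≤ 2 * ‖A - dg3 s‖ := by
      refine (norm_P3_le _).trans (mul_le_mul_of_nonneg_left ?_ (by norm_num))
      refine (ContinuousLinearMap.le_opNorm _ _).trans ?_
      rw [Pi.norm_single, norm_one, mul_one]
    rw [← ofReal_norm, ← ofReal_norm]
    refine (ENNReal.ofReal_le_ofReal h2).trans (le_of_eq ?_)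
    rw [ENNReal.ofReal_mul (by norm_num)]
    norm_num
  refine (Finset.sum_le_sum fun l _ => h1 l).trans ?_
  rw [Finset.sum_const, Finset.card_univ, Fintype.card_fin, nsmul_eq_mul]
  norm_num

/-- the stretch and the columns (`s 2 = 0`) -/
theorem sum_col_RL_le {p : ℝ} (hp : 0 ≤ p) {s : Fin 3 → ℝ} (hs2 : s 2 = 0) {L : ℝ} (hL : 1 ≤ L)
    (A : E3 →L[ℝ] E3) :
    ∑ l, ‖P3 ((A.comp (RL L (by linarith : L ≠ 0) : E3 →L[ℝ] E3)) (Pi.single l 1)) -
      EuclideanSpace.single l (s l)‖ₑ ^ p ≤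
      ENNReal.ofReal L ^ p * ∑ l, ‖P3 (A (Pi.single l 1)) - EuclideanSpace.single l (s l)‖ₑ ^ p := by
  rw [Finset.mul_sum]
  refine Finset.sum_le_sum fun l _ => ?_
  rw [← ENNReal.mul_rpow_of_nonneg _ _ hp]
  apply ENNReal.rpow_le_rpow _ hp
  have hL0 : L ≠ 0 := by linarith
  have e1 : P3 ((A.comp (RL L hL0 : E3 →L[ℝ] E3)) (Pi.single l 1)) -
      EuclideanSpace.single l (s l) =
      sc L l • (P3 (A (Pi.single l 1)) - EuclideanSpace.single l (s l)) := by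
    rw [ContinuousLinearMap.comp_apply]
    have : (RL L hL0 : E3 →L[ℝ] E3) (Pi.single l 1) = sc L l • (Pi.single l (1 : ℝ) : E3) :=
      RL_single hL0 l
    rw [this, map_smul, map_smul, smul_sub]
    congr 1
    unfold sc
    split_ifs with h
    · subst h; rw [hs2]; ext k; simp
    · rw [one_smul]
  rw [e1, enorm_smul]
  gcongr
  rw [← ofReal_norm]
  apply ENNReal.ofReal_le_ofReal
  unfold sc
  split_ifs
  · rw [Real.norm_eq_abs, abs_of_nonneg (by linarith)]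
  · simpa using hL

/-! ### the stretched cube -/

theorem isOpen_QL {L : ℝ} (hL : L ≠ 0) : IsOpen (QL L) := by
  rw [QL_eq hL]; exact isOpen_ball.preimage (RL L hL).continuous

theorem QL_eq_image {L : ℝ} (hL : L ≠ 0) : QL L = (RL L hL).symm '' ball 0 1 := by
  rw [QL_eq hL]
  ext x
  constructor
  · intro hx
    exact ⟨RL L hL x, hx, ContinuousLinearEquiv.symm_apply_apply _ _⟩
  · rintro ⟨y, hy, rfl⟩
    rw [mem_preimage, ContinuousLinearEquiv.apply_symm_apply]; exact hy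

theorem isBounded_QL {L : ℝ} (hL : L ≠ 0) : Bornology.IsBounded (QL L) := by
  rw [QL_eq_image hL]
  exact ((RL L hL).symm : E3 →L[ℝ] E3).lipschitz.isBounded_image isBounded_ball

theorem isConnected_QL {L : ℝ} (hL : L ≠ 0) : IsConnected (QL L) := by
  rw [QL_eq_image hL]
  exact ((convex_ball (0 : E3) 1).isConnected ⟨0, mem_ball_self one_pos⟩).image _
    (RL L hL).symm.continuous.continuousOn

theorem pre_Q0_ball : P3 ⁻¹' Q0 = ball (0 : E3) 1 := by
  ext x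
  rw [mem_ball_zero_iff, pi_norm_lt_iff one_pos]
  rfl

theorem volume_QL {L : ℝ} (hL : 0 < L) :
    volume (QL L) = ENNReal.ofReal (1 / L) * volume (ball (0 : E3) 1) := by
  have h := lint_RL hL (fun _ => 1) (ball (0 : E3) 1)
  simp only [lintegral_const, Measure.restrict_apply, MeasurableSet.univ, univ_inter,
    one_mul] at h
  rw [QL_eq hL.ne']; exact h

/-- the map on the stretched cube -/
def fS (L : ℝ) (hL : L ≠ 0) (f : R3 → R3) (x : E3) : E3 :=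
  Crest.Agent.R096.Sq_477.e3 (f (Crest.Agent.R096.Sq_477.e3.symm (RL L hL x)))

/-- its weak derivative -/
def DS (L : ℝ) (hL : L ≠ 0) (G : Fin 3 → R3 → R3) (x : E3) : E3 →L[ℝ] E3 :=
  (D3 G (RL L hL x)).comp (RL L hL : E3 →L[ℝ] E3)

/-- on the whole preimage of `U` -/
theorem sh3_big {p : ℝ} (hp : 1 ≤ p) {U W : Set R3} {f : R3 → R3} {G : Fin 3 → R3 → R3}
    (hU : IsOpen U) (h : SH p U W f G) {L : ℝ} (hL : 0 < L) :
    SH3 p (RL L hL.ne' ⁻¹' (P3 ⁻¹' U)) (P3 ⁻¹' W) (fS L hL.ne' f) (DS L hL.ne' G) :=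
  sh3_RL (by linarith) (sh3_of hp hU h) hL

theorem target_eq (f : R3 → R3) : Crest.Agent.R096.Er_594.e3 f '' (ball (0 : E3) 1) =
    Crest.Agent.R096.Sq_477.e3 '' (f '' Q0) := by
  rw [← pre_Q0_ball]
  ext y
  constructor
  · rintro ⟨x, hx, rfl⟩
    exact ⟨f (P3 x), ⟨P3 x, hx, rfl⟩, rfl⟩
  · rintro ⟨_, ⟨x, hx, rfl⟩, rfl⟩
    refine ⟨P3.symm x, ?_, ?_⟩
    · rw [mem_preimage, P3.apply_symm_apply]; exact hx
    · show P3.symm (f (P3 (P3.symm x))) = _
      rw [P3.apply_symm_apply]; rfl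

theorem ball_sub {U : Set R3} (hQ : Qc0 ⊆ U) : ball (0 : E3) 1 ⊆ P3 ⁻¹' U := by
  rw [← pre_Q0_ball]
  exact fun x hx => hQ fun i => (hx i).le

/-- **the data of the machine from the data of `NOS`** -/
structure Dat (p : ℝ) (L : ℝ) (hL : L ≠ 0) (f : R3 → R3) (G : Fin 3 → R3 → R3) : Prop where
  oO : IsOpen (QL L)
  bO : Bornology.IsBounded (QL L)
  cO : IsConnected (QL L)
  oL : IsOpen (Crest.Agent.R096.Sq_477.e3 '' (f '' Q0))
  bL : Bornology.IsBounded (Crest.Agent.R096.Sq_477.e3 '' (f '' Q0))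
  cL : IsConnected (Crest.Agent.R096.Sq_477.e3 '' (f '' Q0))
  sh : SH3 p (QL L) (Crest.Agent.R096.Sq_477.e3 '' (f '' Q0)) (fS L hL f) (DS L hL G)

theorem dat_of {p : ℝ} (hp : 1 ≤ p) {U W : Set R3} {f : R3 → R3} {G : Fin 3 → R3 → R3}
    (hU : IsOpen U) (hW : IsOpen W) (hWb : Bornology.IsBounded W) (hQ : Qc0 ⊆ U)
    (h : SH p U W f G) {L : ℝ} (hL : 0 < L) : Dat p L hL.ne' f G := by
  have h3 := sh3_of hp hU h
  have h4 := sh3_restrict h3 (ball_sub hQ)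
  have hsub : Crest.Agent.R096.Sq_477.e3 '' (f '' Q0) ⊆ P3 ⁻¹' W := by
    rw [← target_eq]
    rintro _ ⟨x, hx, rfl⟩
    obtain ⟨fi, h1, -⟩ := h3.homeo
    exact h1 (ball_sub hQ hx)
  refine ⟨isOpen_QL hL.ne', isBounded_QL hL.ne', isConnected_QL hL.ne', ?_, ?_, ?_, ?_⟩
  · rw [← target_eq]
    exact isOpen_image_hom3 h3.homeo (hW.preimage P3.continuous) (ball_sub hQ) isOpen_ball
  · exact (Crest.Agent.R096.Er_594.isBounded_pre hWb).subset hsub
  · rw [← target_eq]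
    exact ((convex_ball (0 : E3) 1).isConnected ⟨0, mem_ball_self one_pos⟩).image _
      (Crest.Agent.R096.Er_594.hom3_cont h4.homeo)
  · have h5 := sh3_RL (by linarith) h4 hL
    rw [← QL_eq hL.ne', target_eq] at h5
    exact h5

/-- **STRETCH**, energies: `d` depends only on `p, s, L, δ` -/
theorem stretch {p : ℝ} (hp : 1 ≤ p) {s : Fin 3 → ℝ} (hs2 : s 2 = 0) {L : ℝ} (hL : 1 ≤ L)
    (hL0 : L ≠ 0) {δ : ℝ≥0∞} (hδ : 0 < δ) : ∃ d : ℝ, 0 < d ∧
    ∀ (U W : Set R3) (f : R3 → R3) (G : Fin 3 → R3 → R3),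
      IsOpen U → IsOpen W → Bornology.IsBounded W → Qc0 ⊆ U → SH p U W f G →
      ∫⁻ x in Q0, ∑ j : Fin 3, ‖G j x - dg s j‖ₑ ^ p ≤ ENNReal.ofReal d →
      Dat p L hL0 f G ∧
      ∫⁻ x in QL L, ∑ l, ‖P3 (DS L hL0 G x (Pi.single l 1)) - EuclideanSpace.single l (s l)‖ₑ ^ p ≤
        δ * volume (QL L) ∧
      ∀ d' : ℝ, volume (Q0 \ Zd G) ≤ ENNReal.ofReal d' →
        volume (QL L \ {x | (DS L hL0 G x).det = 0}) ≤ ENNReal.ofReal (1 / L) * ENNReal.ofReal d' := by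
  have hp0 : 0 ≤ p := by linarith
  have hLp : 0 < L := by linarith
  set V : ℝ≥0∞ := volume (ball (0 : E3) 1) with hV
  have hV0 : 0 < V := measure_ball_pos _ _ one_pos
  have hVt : V ≠ ∞ := measure_ball_lt_top.ne
  set c : ℝ≥0∞ := ENNReal.ofReal L ^ p * (3 * (2 ^ p * (2 ^ p))) with hc
  have h2p : (2 : ℝ≥0∞) ^ p ≠ ∞ := ENNReal.rpow_ne_top_of_nonneg hp0 (by norm_num)
  have hct : c ≠ ∞ := by
    apply ENNReal.mul_ne_top (ENNReal.rpow_ne_top_of_nonneg hp0 ENNReal.ofReal_ne_top)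
    exact ENNReal.mul_ne_top (by norm_num) (ENNReal.mul_ne_top h2p h2p)
  obtain ⟨d, hd0, hd⟩ : ∃ d : ℝ, 0 < d ∧ c * ENNReal.ofReal d ≤ δ * V := by
    have h1 : 0 < δ * V / c := ENNReal.div_pos (mul_ne_zero hδ.ne' hV0.ne') hct
    obtain ⟨r, hr0, hr⟩ := ENNReal.lt_iff_exists_nnreal_btwn.1 h1
    refine ⟨r, by exact_mod_cast hr0, ?_⟩
    rw [ENNReal.ofReal_coe_nnreal]
    calc c * r ≤ c * (δ * V / c) := by gcongr
      _ ≤ δ * V := ENNReal.mul_div_le
  refine ⟨d, hd0, fun U W f G hU hW hWb hQ h hE => ⟨dat_of hp hU hW hWb hQ h hLp, ?_, ?_⟩⟩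
  · have h1 : ∫⁻ x in QL L, ∑ l, ‖P3 (DS L hL0 G x (Pi.single l 1)) -
        EuclideanSpace.single l (s l)‖ₑ ^ p ≤
        ∫⁻ x in QL L, (fun y => ENNReal.ofReal L ^ p * (3 * (2 ^ p * ‖D3 G y - dg3 s‖ₑ ^ p)))
          (RL L hLp.ne' x) := by
      apply lintegral_mono
      intro x
      refine (sum_col_RL_le hp0 hs2 hL (D3 G (RL L hL0 x))).trans ?_
      exact mul_le_mul_right (sum_col_le hp0 s _) _
    have h2 : ∫⁻ y in ball (0 : E3) 1, ‖D3 G y - dg3 s‖ₑ ^ p ≤ 2 ^ p * ENNReal.ofReal d := by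
      rw [← pre_Q0_ball]
      exact (energy_D3_sub_le G (fun j _ => dg s j) Q0 hp0).trans (mul_le_mul_right hE _)
    have h3 := lint_RL hLp (fun y => ENNReal.ofReal L ^ p * (3 * (2 ^ p * ‖D3 G y - dg3 s‖ₑ ^ p)))
      (ball (0 : E3) 1)
    rw [← QL_eq hLp.ne'] at h3
    refine h1.trans (h3.trans_le ?_)
    rw [volume_QL hLp]
    have hLpt : ENNReal.ofReal L ^ p ≠ ∞ := ENNReal.rpow_ne_top_of_nonneg hp0 ENNReal.ofReal_ne_top
    rw [lintegral_const_mul' _ _ hLpt, lintegral_const_mul' _ _ (by norm_num),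
      lintegral_const_mul' _ _ h2p]
    calc ENNReal.ofReal (1 / L) * (ENNReal.ofReal L ^ p * (3 * (2 ^ p *
          ∫⁻ y in ball (0 : E3) 1, ‖D3 G y - dg3 s‖ₑ ^ p)))
        ≤ ENNReal.ofReal (1 / L) * (ENNReal.ofReal L ^ p * (3 * (2 ^ p *
          (2 ^ p * ENNReal.ofReal d)))) := by gcongr
      _ = ENNReal.ofReal (1 / L) * (c * ENNReal.ofReal d) := by rw [hc]; ring
      _ ≤ ENNReal.ofReal (1 / L) * (δ * V) := by gcongr
      _ = δ * (ENNReal.ofReal (1 / L) * V) := by ring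
  · intro d' hd'
    have h1 : QL L \ {x | (DS L hL0 G x).det = 0} =
        RL L hLp.ne' ⁻¹' (P3 ⁻¹' (Q0 \ Zd G)) := by
      ext x
      rw [QL_eq hL0, preimage_sdiff, pre_Zd, pre_Q0_ball]
      simp only [Set.mem_sdiff, mem_preimage, mem_ofPred_eq, DS]
      rw [det_comp_RL]
    rw [h1]
    have h2 := lint_RL hLp (fun _ => 1) (P3 ⁻¹' (Q0 \ Zd G))
    simp only [lintegral_const, Measure.restrict_apply, MeasurableSet.univ, univ_inter,
      one_mul] at h2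
    rw [h2, Crest.Agent.R096.Er_594.vol_P3]
    gcongr

/-- **the boundary clause of `NOS`** from closeness off compact sets -/
theorem bdry_of {f : R3 → R3} {g : E3 → E3} {L : ℝ} (hL : L ≠ 0)
    (h : ∀ ε > 0, ∃ K : Set E3, IsCompact K ∧ K ⊆ QL L ∧
      ∀ y ∈ QL L, y ∉ K → ‖g y - fS L hL f y‖ ≤ ε) :
    ∀ z ∈ frontier Q0, ∀ ε > 0, ∀ᶠ x in 𝓝[Q0] z, ∀ y ∈ QL L,
      y 0 = x 0 → y 1 = x 1 → L * y 2 = x 2 →
        ‖g y - Crest.Agent.R096.Sq_477.e3 (f x)‖ ≤ ε := by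
  intro z hz ε hε
  obtain ⟨K, hK, hKQ, hK2⟩ := h ε hε
  have hQo : IsOpen Q0 := by
    have h1 : Q0 = P3.symm ⁻¹' ball (0 : E3) 1 := by
      rw [← pre_Q0_ball, Crest.Agent.R096.Er_594.pre_symm]
    rw [h1]; exact isOpen_ball.preimage P3.symm.continuous
  -- the compact set in `R3`
  set K' : Set R3 := (fun y : E3 => P3 (RL L hL y)) '' K with hK'
  have hK'c : IsCompact K' := hK.image (P3.continuous.comp (RL L hL).continuous)
  have hzK : z ∉ K' := by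
    rintro ⟨y, hy, rfl⟩
    have h1 : P3 (RL L hL y) ∈ Q0 := by
      have := hKQ hy
      rw [QL_eq hL, ← pre_Q0_ball] at this
      exact this
    exact (hQo.frontier_eq ▸ hz).2 h1
  have h2 : ∀ᶠ x in 𝓝[Q0] z, x ∉ K' :=
    nhdsWithin_le_nhds (hK'c.isClosed.isOpen_compl.mem_nhds hzK)
  filter_upwards [h2] with x hx y hy y0 y1 y2
  have hxy : Crest.Agent.R096.Sq_477.e3.symm (RL L hL y) = x := by
    rw [ContinuousLinearEquiv.symm_apply_eq]
    have hx3 : ∀ i, Crest.Agent.R096.Sq_477.e3 x i = x i := fun i => rfl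
    ext i
    rw [RL_apply, hx3]
    fin_cases i
    · simpa using y0
    · simpa using y1
    · simpa [mul_comm] using y2
  have h3 := hK2 y hy fun hyK => hx ⟨y, hyK, hxy⟩
  unfold fS at h3
  rwa [hxy] at h3

end

end Crest.Agent.R096.Nst_780
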