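import Crest.Agent.R096.Npl1_477
import Crest.Agent.R096.Nst1_780
import Crest.Agent.R096.No6_276

/-!
# Row 96, NO0-PRE (helper477), part 2: the input of the front from the data of `NOPre`
-/

set_option autoImplicit false
set_option linter.unusedSectionVars false
set_option linter.unusedVariables false

open Set Filter Topology Metric MeasureTheory
open scoped ENNReal NNReal
open Crest.AnalysisR.VecCalc3 Crest.AnalysisR.Sobolev

namespace Crest.Agent.R096.Npl_477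

open Crest.Agent.R096.SkC1_961 (E3 Hom3 FoamD)
open Crest.Agent.R096.Sk_962 (Q0 Qc0 dg SH)
open Crest.Agent.R096.Sq_477 (e3)
open Crest.Agent.R096.Er_594 (SH3)
open Crest.Agent.R096.No_276 (QL fL)
open Crest.Agent.R96.En10_199 (P3)

noncomputable section

/-- the volume of the stretched cube -/
theorem vol_QL {L : ℝ} (hL : 0 < L) : volume (QL L) = ENNReal.ofReal (8 / L) := by
  rw [Crest.Agent.R096.Nst_780.volume_QL hL, Real.volume_pi_ball _ one_pos,
    ← ENNReal.ofReal_mul (by positivity)]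
  congr 1
  simp
  norm_num
  ring

/-- **the input of `exists_front` from the data of `NOPre`** (`dd` before the data) -/
theorem front_input {p : ℝ} (hp : 1 ≤ p) {s : Fin 3 → ℝ} (hs2 : s 2 = 0) {L : ℕ} (hL1 : 1 ≤ L)
    (hL : (L : ℝ) ≠ 0) {δ : ℝ≥0∞} (hδ : 0 < δ) : ∃ dd : ℝ, 0 < dd ∧
    ∀ (U₀ W₀ : Set R3) (f : R3 → R3) (G : Fin 3 → R3 → R3),
      IsOpen U₀ → Bornology.IsBounded U₀ → IsConnected U₀ →
      IsOpen W₀ → Bornology.IsBounded W₀ → IsConnected W₀ → Qc0 ⊆ U₀ →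
      SH p U₀ W₀ f G →
      ∫⁻ x in Q0, ∑ j : Fin 3, ‖G j x - dg s j‖ₑ ^ p ≤ ENNReal.ofReal dd →
      IsOpen (QL L) ∧ (QL L).Nonempty ∧ volume (QL L) ≠ ⊤ ∧
      IsOpen (e3 '' (f '' Q0)) ∧ Bornology.IsBounded (e3 '' (f '' Q0)) ∧
      (e3 '' (f '' Q0))ᶜ.Nonempty ∧
      ∃ Df : E3 → E3 →L[ℝ] E3, SH3 p (QL L) (e3 '' (f '' Q0)) (fL f L hL) Df ∧
        ∫⁻ x in QL L, ∑ l, ‖P3 (Df x (Pi.single l 1)) - EuclideanSpace.single l (s l)‖ₑ ^ p ≤
          δ * volume (QL L) := by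
  have hL' : (1 : ℝ) ≤ L := by exact_mod_cast hL1
  obtain ⟨d, hd, H⟩ := Crest.Agent.R096.Nst_780.stretch hp hs2 hL' hL hδ
  refine ⟨d, hd, fun U₀ W₀ f G h1 h2 h3 h4 h5 h6 h7 h8 h9 => ?_⟩
  obtain ⟨D, hE, -⟩ := H U₀ W₀ f G h1 h4 h5 h7 h8 h9
  refine ⟨D.oO, D.cO.nonempty, ?_, D.oL, D.bL, ?_, _, D.sh, hE⟩
  · rw [vol_QL (by linarith)]
    exact ENNReal.ofReal_ne_top
  · by_contra hn
    rw [Set.not_nonempty_iff_eq_empty, compl_empty_iff] at hn
    have h := D.bL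
    rw [hn] at h
    exact (NoncompactSpace.noncompact_univ (X := E3)) (by
      have := Metric.isCompact_of_isClosed_isBounded isClosed_univ h
      exact this)

end

end Crest.Agent.R096.Npl_477
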