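import Crest.Agent.R096.Blk4_764
import Crest.Agent.R096.Npl2_477
import Crest.Agent.R096.Np2_962
import Crest.Agent.R096.Fns4_360
import Crest.Agent.R096.Eax1_713

/-!
Row 96 (S0127), helper733, NO0 `p ≥ 3`, mesh part, (M7) of 962 #11558.

* `junk_sum`, **`junk_vol`**, **`junk_front`** : the total volume of the blocks is small (hypothesis
  `hvol` of 798's `exists_geoN`)
* **`cs_trA`**, `cs_cores`, `cs_front` : the field `cs` of `MeshN` (translated core tiles)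
-/

set_option autoImplicit false
set_option linter.unusedSectionVars false
set_option linter.unusedVariables false
set_option linter.style.longLine false

open MeasureTheory Set Filter Topology Metric
open scoped ENNReal NNReal

namespace Crest.Agent.R096.Jv_733

open Crest.Agent.R096.Msh_715 hiding P
open Crest.Agent.R096.Bsp_628 Crest.Agent.R096.Brk5_582 Crest.Agent.R096.Dic6_582
open Crest.Agent.R096.SkC1_961 (E3 FoamD Hom3)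
open Crest.Agent.R096.EaX_766 (cbx lin ExIn)
open Crest.Agent.R096.Fns_360 (trA trA_apply trA_linear trA_sub)
open Crest.Agent.R096.Blk_764 (N_disj isClosed_pre_cbx)
open Crest.Agent.R096.No_276 (QL)
open Crest.Agent.R096.Npl_477 (vol_QL)
open Crest.Agent.R096.Np_962 (Front3)
open Crest.Agent.R096.Dic7_582 Crest.Agent.R096.Npr_582
open Crest.Agent.R096.Bxs_627 (zz)

noncomputable section

/-! ### JUNK-VOL -/

/-- disjoint blocks in `X` -/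
theorem junk_sum {La : Set E3} {F : Set (Bx (Fin 3))} {δ κ0 : ℝ} (BF : BoxFoam La F δ κ0)
    {p : ℝ} {Om : Set E3} {f : E3 → E3} {D : E3 → E3 →L[ℝ] E3} {o : E3} {u κ1 κ2 : ℝ}
    {A : F → E3 ≃ᵃ[ℝ] E3} {lam : F → ℝ} (hl0 : ∀ c, 0 < lam c) (hl : ∀ c, lam c ≤ 1 / 4)
    (h2 : κ2 ≤ 1 / 8) (h10 : 0 ≤ κ1) (h1 : κ1 * κ0 ≤ 1 / 2)
    (hex : ∀ c : F, ExIn p Om f D o u κ1 κ2 c.1 (A c) (lam c)) {X : Set E3}
    (hX : ∀ c, A c ⁻¹' cbx c.1 ((1 + 2 * κ2) * lam c) ⊆ X)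
    {J : Type*} {b : J → F} (hb : Function.Injective b) {N : J → Set E3}
    (hN : ∀ j, N j ⊆ A (b j) ⁻¹' cbx (b j).1 ((1 + 2 * κ2) * lam (b j))) (S : Finset J) :
    ∑ j ∈ S, volume (N j) ≤ volume X := by
  have hd := N_disj BF hl0 hl h2 h10 h1 hex
  calc ∑ j ∈ S, volume (N j)
      ≤ ∑ j ∈ S, volume (A (b j) ⁻¹' cbx (b j).1 ((1 + 2 * κ2) * lam (b j))) :=
        Finset.sum_le_sum fun j _ => measure_mono (hN j)
    _ = volume (⋃ j ∈ S, A (b j) ⁻¹' cbx (b j).1 ((1 + 2 * κ2) * lam (b j))) := by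
        rw [measure_biUnion_finset]
        · intro i _ j _ hij
          exact hd (hb.ne hij)
        · intro j _
          exact (isClosed_pre_cbx _ _ _).measurableSet
    _ ≤ volume X := measure_mono (iUnion₂_subset fun j _ => hX _)

/-- `volume X ≤ ε' volume (QL L)` in numbers -/
theorem vol_le {X : Set E3} {L : ℕ} (hL : 1 ≤ L) {ε' K : ℝ≥0∞} {e5 : ℝ} (he5 : 0 ≤ e5) (hK : 8 ≤ K)
    (hKe : K * ε' ≤ ENNReal.ofReal e5) (hX : volume X ≤ ε' * volume (QL L)) :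
    volume X ≤ ENNReal.ofReal (e5 / L) := by
  have hL0 : (0 : ℝ) < L := by exact_mod_cast hL
  refine hX.trans ?_
  rw [vol_QL hL0]
  calc ε' * ENNReal.ofReal (8 / L) = 8 * ε' * ENNReal.ofReal (1 / L) := by
        rw [show (8 : ℝ) / L = 8 * (1 / L) by ring, ENNReal.ofReal_mul (by norm_num)]
        rw [show ENNReal.ofReal 8 = 8 by norm_num]
        ring
    _ ≤ K * ε' * ENNReal.ofReal (1 / L) := by gcongr
    _ ≤ ENNReal.ofReal e5 * ENNReal.ofReal (1 / L) := by gcongr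
    _ = ENNReal.ofReal (e5 / L) := by
        rw [← ENNReal.ofReal_mul he5]
        congr 1; ring

variable {δ κ0 R c0 : ℝ} {La : Set E3}

/-- **[JUNK-VOL]**: the blocks of the mesh have small total volume (`hvol` of 798's `exists_geoN`). -/
theorem junk_vol {F : Set (Bx (Fin 3))} (BF : BoxFoam La F δ κ0)
    {p : ℝ} {L : ℕ} (hL : 1 ≤ L) {f : E3 → E3} {D : E3 → E3 →L[ℝ] E3} {o : E3} {u κ1 κ2 : ℝ}
    {A : F → E3 ≃ᵃ[ℝ] E3} {lam : F → ℝ} (hl0 : ∀ c, 0 < lam c) (hl : ∀ c, lam c ≤ 1 / 4)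
    (h2 : κ2 ≤ 1 / 8) (h10 : 0 ≤ κ1) (h1 : κ1 * κ0 ≤ 1 / 2)
    (hex : ∀ c : F, ExIn p (QL L) f D o u κ1 κ2 c.1 (A c) (lam c)) {X : Set E3}
    (hX : ∀ c, A c ⁻¹' cbx c.1 ((1 + 2 * κ2) * lam c) ⊆ X)
    {ε' K : ℝ≥0∞} {e5 : ℝ} (he5 : 0 ≤ e5) (hK : 8 ≤ K)
    (hKe : K * ε' ≤ ENNReal.ofReal e5) (hXv : volume X ≤ ε' * volume (QL L))
    {J : Type*} {b : J → F} (hb : Function.Injective b) {N : J → Set E3}
    (hN : ∀ j, N j ⊆ A (b j) ⁻¹' cbx (b j).1 ((1 + 2 * κ2) * lam (b j))) (S : Finset J) :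
    ∑ j ∈ S, volume (N j) ≤ ENNReal.ofReal (e5 / L) :=
  (junk_sum BF hl0 hl h2 h10 h1 hex hX hb hN S).trans (vol_le hL he5 hK hKe hXv)

/-- **[JUNK-VOL] from `Front3`** (all bricks; `N j` = `(M.Q j).N`, `b j` = its brick). -/
theorem junk_front {p : ℝ} {q : ℕ} {s : Fin 3 → ℝ} {ε ε' : ℝ≥0∞} {L : ℕ} (hL : 1 ≤ L)
    {f : E3 → E3} {M ρ0 h : ℝ} {a : Fin 3 → ℝ} {κ1 κ2 lam0 : ℝ}
    {Φ : FoamD (dF q) (kF q) 6 (cN q) La} {lam : Φ.F → ℝ} {A : Φ.F → E3 ≃ᵃ[ℝ] E3}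
    {f1 : E3 → E3} {D1 : E3 → E3 →L[ℝ] E3} {X HH : Set E3} {g : Φ.F → Fin 3 → E3 → ℝ}
    (H : Front3 p q s ε ε' (QL L) La f M ρ0 h a κ1 κ2 lam0 Φ lam A f1 D1 X HH g)
    (hl0 : ∀ c, 0 < lam c) (hl : ∀ c, lam c ≤ 1 / 4) (h2 : κ2 ≤ 1 / 8) (h10 : 0 ≤ κ1)
    (h1 : κ1 * kF q ≤ 1 / 2) {K : ℝ≥0∞} {e5 : ℝ} (he5 : 0 ≤ e5) (hK : 8 ≤ K)
    (hKe : K * ε' ≤ ENNReal.ofReal e5)
    {J : Type*} {b : J → Φ.F} (hb : Function.Injective b) {N : J → Set E3}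
    (hN : ∀ j, N j ⊆ A (b j) ⁻¹' cbx (b j).1 ((1 + 2 * κ2) * lam (b j))) (S : Finset J) :
    ∑ j ∈ S, volume (N j) ≤ ENNReal.ofReal (e5 / L) :=
  junk_vol Φ.bf hL hl0 hl h2 h10 h1 H.ex H.XN he5 hK hKe H.c.Xv hb hN S

/-! ### the field `cs` -/

theorem lin_trA (A : E3 ≃ᵃ[ℝ] E3) (v : E3) : lin (trA A v) = lin A := by
  unfold lin
  rw [trA_linear]

/-- translated sets -/
theorem volume_trA (A : E3 ≃ᵃ[ℝ] E3) (v : E3) (S : Set E3) :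
    volume (trA A v ⁻¹' S) = volume (A ⁻¹' S) := by
  have h1 : trA A v ⁻¹' S = (fun x => x - v) ⁻¹' (A ⁻¹' S) := by
    ext x
    rw [mem_preimage, mem_preimage, mem_preimage, trA_apply]
  rw [h1]
  simp only [sub_eq_add_neg]
  exact measure_preimage_add_right volume (-v) _

variable {Om : Set E3} {ι : Type}

/-- **the field `cs` of `MeshN`**: core tiles = translated cores -/
theorem cs_trA {p : ℝ} {F : Set (Bx (Fin 3))} {T : Tiling Om ι} {ct : F → ι} {A : F → E3 ≃ᵃ[ℝ] E3}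
    {lam : F → ℝ} {v : F → E3} {e4 : ℝ≥0∞}
    (hcs : ∑' c : F, ENNReal.ofReal ((1 / lam c * ‖lin (A c)‖) ^ p) *
      volume (A c ⁻¹' cbx c.1 (lam c)) ≤ e4)
    (ht : ∀ c, Msh_715.P (T.H (ct c)) = trA (A c) (v c) ⁻¹' cbx c.1 (lam c)) :
    ∑' c : F, ENNReal.ofReal ((1 / lam c * ‖Ea_713.lin (trA (A c) (v c))‖) ^ p) *
      volume (Msh_715.P (T.H (ct c))) ≤ e4 := by
  refine le_trans (le_of_eq (tsum_congr fun c => ?_)) hcs
  rw [ht c, volume_trA, Eax_713.lin_eq, lin_trA]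

/-- the tile of an exact core -/
theorem tile_exact {Φ : FoamD δ κ0 R c0 La} {T : Tiling Om ι} {f : E3 → E3} {κ1 κ2 : ℝ} {c : Φ.F}
    {i : ι} {A : E3 ≃ᵃ[ℝ] E3} {lam : ℝ}
    (h : Mbf_337.Exact Φ T f κ1 κ2 c i A lam (zz c.1 lam)) :
    Msh_715.P (T.H i) = A ⁻¹' cbx c.1 lam := by
  rw [Eax_713.cbx_eq]
  exact h.tile

/-- the field `cs` of `MeshN` from `Cores` with the translated maps -/
theorem cs_cores {p : ℝ} {Φ : FoamD δ κ0 R c0 La} {T : Tiling Om ι} {f : E3 → E3} {κ1 κ2 : ℝ}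
    {J0 J V : Φ.F → Set ι} {ct : Φ.F → ι} {A : Φ.F → E3 ≃ᵃ[ℝ] E3} {lam : Φ.F → ℝ} {v : Φ.F → E3}
    {θ : Φ.F → E3 → E3} {φ : Φ.F → E3 → ℝ} {e4 : ℝ≥0∞}
    (hcs : ∑' c : Φ.F, ENNReal.ofReal ((1 / lam c * ‖lin (A c)‖) ^ p) *
      volume (A c ⁻¹' cbx c.1 (lam c)) ≤ e4)
    (hC : Mbf_337.Cores Φ T f κ1 κ2 univ J0 J V ct (fun c => trA (A c) (v c)) lam
      (fun c => zz c.1 (lam c)) θ φ) :
    ∑' c : Φ.F, ENNReal.ofReal ((1 / lam c * ‖Ea_713.lin (trA (A c) (v c))‖) ^ p) *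
      volume (Msh_715.P (T.H (ct c))) ≤ e4 :=
  cs_trA hcs fun c => tile_exact (hC.exact_ c (mem_univ c))

/-- **the field `cs` of `MeshN` from `Front3`** with `e4 = ε' * volume (QL L)` -/
theorem cs_front {p : ℝ} {q : ℕ} {s : Fin 3 → ℝ} {ε ε' : ℝ≥0∞}
    {f : E3 → E3} {M ρ0 h : ℝ} {a : Fin 3 → ℝ} {κ1 κ2 lam0 : ℝ}
    {Φ : FoamD (dF q) (kF q) 6 (cN q) La} {lam : Φ.F → ℝ} {A : Φ.F → E3 ≃ᵃ[ℝ] E3}
    {f1 : E3 → E3} {D1 : E3 → E3 →L[ℝ] E3} {X HH : Set E3} {g : Φ.F → Fin 3 → E3 → ℝ}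
    (H : Front3 p q s ε ε' Om La f M ρ0 h a κ1 κ2 lam0 Φ lam A f1 D1 X HH g)
    {T : Tiling Om ι} {κ1' κ2' : ℝ} {J0 J V : Φ.F → Set ι} {ct : Φ.F → ι} {v : Φ.F → E3}
    {θ : Φ.F → E3 → E3} {φ : Φ.F → E3 → ℝ}
    (hC : Mbf_337.Cores Φ T f1 κ1' κ2' univ J0 J V ct (fun c => trA (A c) (v c)) lam
      (fun c => zz c.1 (lam c)) θ φ) :
    ∑' c : Φ.F, ENNReal.ofReal ((1 / lam c * ‖Ea_713.lin (trA (A c) (v c))‖) ^ p) *
      volume (Msh_715.P (T.H (ct c))) ≤ ε' * volume Om :=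
  cs_cores H.cs hC

end

end Crest.Agent.R096.Jv_733
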