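import Crest.Agent.R096.Mbf_337

/-!
Row 96 (S0127), helper664.  **Monotonicity of the hypotheses of the machine** (`Mbf_337`):
`Exact`, `Tiny`, `Cores`, `Fine` in `κ1`, `Exact` / `Cores` in `κ2` (decreasing), `Levels` in
`κp`, `μ`, `κ3`.
-/

set_option autoImplicit false
set_option linter.unusedSectionVars false

open MeasureTheory Set Filter Topology Metric
open scoped ENNReal

namespace Crest.Agent.R096.Mon_664

open Crest.Agent.R096.Bsp_628 Crest.Agent.R096.Brk3_582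
open Crest.Agent.R096.Msh_715
open Crest.Agent.R096.SkC1_961 (E3 Hom3 FoamD)
open Crest.Agent.R096.Mbf_337

variable {δ κ0 R c0 : ℝ} {La Om : Set E3} {ι : Type} {Φ : FoamD δ κ0 R c0 La} {T : Tiling Om ι}
  {f : E3 → E3}

theorem side_pos (c : Φ.F) (k : Fin 3) : 0 < c.1.side k := by
  have := Φ.bf.pos c.1 c.2 k
  show 0 < c.1.hi k - c.1.lo k
  linarith

theorem sz_pos (c : Φ.F) : 0 < c.1.sz := by
  have h1 := Φ.bf.pos c.1 c.2 0
  have h2 : c.1.hi 0 - c.1.lo 0 ≤ c.1.sz := Bx.side_le_sz c.1 0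
  linarith

theorem exact_mono {κ1 κ1' κ2 κ2' : ℝ} {c : Φ.F} {i : ι} {A : E3 ≃ᵃ[ℝ] E3} {lam : ℝ} {z : E3}
    (H : Exact Φ T f κ1 κ2 c i A lam z) (h1 : κ1 ≤ κ1') (h2 : κ2' ≤ κ2) :
    Exact Φ T f κ1' κ2' c i A lam z where
  lam0 := H.lam0
  lam1 := H.lam1
  box_in := H.box_in
  hole k := by
    have h3 : κ2' * (lam * c.1.side k) ≤ κ2 * (lam * c.1.side k) :=
      mul_le_mul_of_nonneg_right h2 (mul_pos H.lam0 (side_pos c k)).le
    have := H.hole k
    exact ⟨by linarith [this.1], by linarith [this.2]⟩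
  ray := H.ray
  tile := H.tile
  nbd x hx := by
    obtain ⟨h3, h4⟩ := H.nbd x fun k => by
      have h5 : κ2' * (lam * c.1.side k) ≤ κ2 * (lam * c.1.side k) :=
        mul_le_mul_of_nonneg_right h2 (mul_pos H.lam0 (side_pos c k)).le
      have := hx k
      exact ⟨by linarith [this.1], by linarith [this.2]⟩
    exact ⟨h3, fun h => (h4 h).trans
      (mul_le_mul_of_nonneg_right h1 (mul_pos H.lam0 (sz_pos c)).le)⟩
  inside := H.inside
  miss := H.miss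

theorem tiny_mono {κ1 κ1' : ℝ} {c : Φ.F} {J0 J V : Set ι} {θ : E3 → E3} {φ : E3 → ℝ}
    (H : Tiny Φ T f κ1 c J0 J V θ φ) (h1 : κ1 ≤ κ1') : Tiny Φ T f κ1' c J0 J V θ φ where
  pt := H.pt
  finV := H.finV
  sub0 := H.sub0
  sub := H.sub
  ball := H.ball
  mem := H.mem
  inside := H.inside
  room := by
    obtain ⟨ρ1, ρ2, ρ3, ρ4, d, a1, a2, a3⟩ := H.room
    exact ⟨ρ1, ρ2, ρ3, ρ4, d, a1, a2.trans h1, a3⟩
  bij := H.bij
  aff := H.aff
  lin := H.lin
  tr := H.tr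
  st := H.st
  reg := H.reg
  slice := H.slice

/-- **the cores** -/
theorem cores_mono {κ1 κ1' κ2 κ2' : ℝ} {X : Set Φ.F} {J0 J V : Φ.F → Set ι} {ct : Φ.F → ι}
    {A : Φ.F → E3 ≃ᵃ[ℝ] E3} {lam : Φ.F → ℝ} {z : Φ.F → E3} {θ : Φ.F → E3 → E3}
    {φ : Φ.F → E3 → ℝ} (H : Cores Φ T f κ1 κ2 X J0 J V ct A lam z θ φ) (h1 : κ1 ≤ κ1')
    (h2 : κ2' ≤ κ2) : Cores Φ T f κ1' κ2' X J0 J V ct A lam z θ φ where
  disj := H.disj
  one := H.one
  exact_ c hc := exact_mono (H.exact_ c hc) h1 h2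
  tiny c hc := tiny_mono (H.tiny c hc) h1

/-- **fineness** -/
theorem fine_mono {ε ε' : ℝ} {J0 : Φ.F → Set ι} (H : Fine Φ T f ε J0) (h : ε ≤ ε') :
    Fine Φ T f ε' J0 where
  psi i hi x hx y hy c hc := (H.psi i hi x hx y hy c hc).trans
    (mul_le_mul_of_nonneg_right h (sz_pos c).le)
  lev i hi x hx y hy c := (H.lev i hi x hx y hy c).trans h

/-- the set `J0` of the tiles without fineness may be enlarged -/
theorem fine_J0 {ε : ℝ} {J0 J0' : Φ.F → Set ι} (H : Fine Φ T f ε J0) (h : ∀ c, J0 c ⊆ J0' c) :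
    Fine Φ T f ε J0' where
  psi i hi := H.psi i fun c hc => hi c (h c hc)
  lev i hi := H.lev i fun c hc => hi c (h c hc)

/-- **levels** -/
theorem levels_mono {κp κp' μ μ' κ3 κ3' : ℝ} {Z Z' : Φ.F → Set ℝ} {m0 m0' κ : Φ.F → ℕ}
    {L : Φ.F → Finset ℝ} (H : Levels Φ T f κp μ κ3 Z m0 κ L) (h1 : κp ≤ κp') (h2 : μ' ≤ μ)
    (h3 : κ3 ≤ κ3') (hZ : ∀ c, Z' c ⊆ Z c) (hm : ∀ c, m0' c ≤ m0 c) :
    Levels Φ T f κp' μ' κ3' Z' m0' κ L where
  lf := H.lf
  marg c t ht := ⟨h2.trans (H.marg c t ht).1, (H.marg c t ht).2.trans (by linarith)⟩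
  many c := (H.many c).trans (mul_le_mul_of_nonneg_right h3 (by positivity))
  few c := (H.few c).trans (mul_le_mul_of_nonneg_right h3 (sz_pos c).le)
  large c := (hm c).trans (H.large c)
  dens c u v huv := by
    refine (H.dens c u v huv).trans ?_
    have h4 : (0 : ℝ) ≤ (v - u) * (L c).card := mul_nonneg (by linarith) (by positivity)
    have h5 : κp * ((v - u) * (L c).card) ≤ κp' * ((v - u) * (L c).card) :=
      mul_le_mul_of_nonneg_right h1 h4
    nlinarith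
  off c t ht := fun h => H.off c t ht (hZ c h)
  vert := H.vert
  fin := H.fin
  sep := H.sep

end Crest.Agent.R096.Mon_664
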