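import Crest.Agent.R096.Pg4_691

/-!
Row 96 (S0127), helper458.  **[X4]** of 962's `MeshN`: the field `ends` (`p ≥ 3`), from 691's
`exists_ends` (functions for 273's shift) and closeness of `f1` to `f` on `QL L` only.
-/

set_option autoImplicit false
set_option linter.unusedSectionVars false
set_option linter.unusedVariables false

open MeasureTheory Set Filter Topology Metric
open scoped ENNReal

noncomputable section

namespace Crest.Agent.R096.Nend_458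

open Crest.Agent.R096.Msh_810 (box)
open Crest.Agent.R96.En10_199 (P3)
open Crest.Agent.R096.SkC1_961 (E3 Hom3)
open Crest.Agent.R096.Er_594 (SH3)
open Crest.Agent.R096.No0_477 (vx)
open Crest.Agent.R096.No_276 (QL)
open Crest.Agent.R096.Pg_691 (exists_ends ends_final)

/-- all vertices of the block lie in `QL L` -/
theorem vx_mem_QL {L : ℝ} {r : ℝ} (hr : 0 < r) {a : E3} {o : Fin 2 → ℤ} {M : ℕ} {Zs : Finset ℤ}
    (lo : ∀ j : Fin 2, -1 < a j.castSucc + r * o j)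
    (hi : ∀ j : Fin 2, a j.castSucc + r * (o j + M) < 1)
    (zs : ∀ m ∈ Zs, |L * (a 2 + r * m)| < 1) {m : ℤ} (hm : m ∈ Zs) {v : Fin 2 → ℕ}
    (hv : ∀ i, v i ≤ M) : vx a r o m v ∈ QL L := by
  have h2 := zs m hm
  have h0' : (v 0 : ℝ) ≤ M := by exact_mod_cast hv 0
  have h1' : (v 1 : ℝ) ≤ M := by exact_mod_cast hv 1
  have h0'' : (0 : ℝ) ≤ v 0 := Nat.cast_nonneg _
  have h1'' : (0 : ℝ) ≤ v 1 := Nat.cast_nonneg _
  have e0 : r * v 0 ≤ r * M := mul_le_mul_of_nonneg_left h0' hr.le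
  have e1 : r * v 1 ≤ r * M := mul_le_mul_of_nonneg_left h1' hr.le
  have e2 : 0 ≤ r * v 0 := mul_nonneg hr.le h0''
  have e3 : 0 ≤ r * v 1 := mul_nonneg hr.le h1''
  have lo0 := lo 0
  have lo1 := lo 1
  have hi0 := hi 0
  have hi1 := hi 1
  simp only [Fin.castSucc_zero, Fin.castSucc_one, mul_add] at lo0 lo1 hi0 hi1
  refine ⟨?_, ?_, ?_⟩
  · simp only [vx]
    simp
    rw [abs_lt]
    constructor <;> nlinarith
  · simp only [vx]
    simp
    rw [abs_lt]
    constructor <;> nlinarith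
  · simp only [vx]
    simpa using h2

/-- **[X4]: the field `ends` of `MeshN`** -/
theorem ends3 {L : ℕ} (hL : 1 ≤ L) {f f1 : E3 → E3} {s : Fin 3 → ℝ} {r e5 ρ0 η : ℝ} {K0 : ℕ}
    (hr : r = ((2:ℝ) ^ K0)⁻¹) {a : E3} {o : Fin 2 → ℤ} {M : ℕ} {Zs : Finset ℤ} (hM : 0 < M)
    (lo : ∀ j : Fin 2, a j.castSucc + r * o j ≤ -(1 - η) ∧ -1 < a j.castSucc + r * o j)
    (hi : ∀ j : Fin 2, 1 - η ≤ a j.castSucc + r * (o j + M) ∧ a j.castSucc + r * (o j + M) < 1)
    (zs : ∀ m ∈ Zs, |(L : ℝ) * (a 2 + r * m)| ≤ 1 / 2)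
    (hN : 2 / L ≤ ((Zs.card : ℝ) * M ^ 2) * r ^ 3)
    {S : Fin 2 → E3 → ℝ≥0∞} (hS : ∀ j, EndB (QL L) f s j r (S j) a) {m δ' : ℝ≥0∞}
    (hSa : ∀ j, S j a ≤ m * (((2 : ℝ≥0∞) ^ K0) ^ 2 * (δ' * volume (QL (L : ℝ)))))
    (hδ : 16 * (m * δ') ≤ ENNReal.ofReal (e5 / 2)) (he : 0 < e5)
    (hf : ∀ x ∈ QL (L : ℝ), ‖f1 x - f x‖ ≤ ρ0) (hh : 8 * ρ0 ≤ e5) :
    ∀ j : Fin 2, ∑ m ∈ Zs, ∑ t ∈ Finset.range (M + 1),
      |(f1 (vx a r o m (fun i => if i = j then M else t)) -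
        f1 (vx a r o m (fun i => if i = j then 0 else t))) j.castSucc - s j.castSucc * (M * r)| ≤
        e5 * ((Zs.card : ℝ) * M) := by
  classical
  have hr0 : 0 < r := by rw [hr]; positivity
  have hL0 : (0 : ℝ) < L := by exact_mod_cast hL
  have h0 : 0 ≤ ρ0 ∨ ∀ x, x ∉ QL (L : ℝ) := by
    by_cases h : ∃ x, x ∈ QL (L : ℝ)
    · obtain ⟨x, hx⟩ := h
      exact Or.inl ((norm_nonneg _).trans (hf x hx))
    · exact Or.inr fun x hx => h ⟨x, hx⟩
  intro j
  have hin : ∀ m ∈ Zs, ∀ t ∈ Finset.range (M + 1), ∀ k : ℕ, k ≤ M →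
      vx a r o m (fun i => if i = j then k else t) ∈ QL (L : ℝ) := by
    intro m hm t ht k hk
    refine vx_mem_QL hr0 (fun j => (lo j).2) (fun j => (hi j).2)
      (fun m hm => (zs m hm).trans_lt (by norm_num)) hm fun i => ?_
    have ht' : t ≤ M := Nat.lt_succ_iff.1 (Finset.mem_range.1 ht)
    split_ifs <;> omega
  rcases h0 with h0 | h0
  · set g : E3 → E3 := fun x => if x ∈ QL (L : ℝ) then f1 x else f x with hg
    have hgf : ∀ x, ‖g x - f x‖ ≤ ρ0 := by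
      intro x
      by_cases hx : x ∈ QL (L : ℝ)
      · simpa [hg, hx] using hf x hx
      · simpa [hg, hx] using h0
    have key := ends_final hL (f := f) (f1 := g) (s := s) (r := r) (ε := e5) (h := ρ0) (k := K0)
      (by rw [hr, one_div]) (a := a) (o := o) (M := M) (Zs := Zs) hM (fun j => (lo j).2)
      (fun j => (hi j).2) zs (le_trans (by gcongr; norm_num) hN) hS hSa hδ he hgf hh j
    refine le_trans (le_of_eq ?_) key
    refine Finset.sum_congr rfl fun m hm => Finset.sum_congr rfl fun t ht => ?_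
    rw [hg]
    simp only [hin m hm t ht M le_rfl, hin m hm t ht 0 (Nat.zero_le _), if_true]
  · rw [Finset.sum_eq_zero]
    · positivity
    · intro m hm
      exact absurd (hin m hm 0 (Finset.mem_range.2 (by omega)) 0 (Nat.zero_le _)) (h0 _)

end Crest.Agent.R096.Nend_458
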