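import Crest.Agent.R096.Log1_582
import Crest.Agent.R096.Brk7_582

/-!
# Row 96, DICT: universal Lipschitz constants on the horizontal faces of the crossing logs
-/

set_option autoImplicit false
set_option linter.unusedSectionVars false
set_option linter.style.haveILetI false
open Set Filter Topology

namespace Crest.Agent.R096.Log2_582

open Crest.Agent.R096.Brk1_582 Crest.Agent.R096.Brk2_582 Crest.Agent.R096.Brk3_582
open Crest.Agent.R096.Brk4_582 Crest.Agent.R096.Brk5_582 Crest.Agent.R096.Brk7_582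
open Crest.Agent.R096.Bsp_628 Crest.Agent.R096.Log1_582

theorem Lc_64 : Lc (1 / 2) 1 2 = 64 := by
  simp only [Lc]
  norm_num

variable {q : ℕ} {a : Fin 3 → ℝ} {h : ℝ} {F : Set (Bx (Fin 3))} {La : Set (Fin 3 → ℝ)} {δ κ0 : ℝ}

/-- the cell `c` is a log -/
def IsLog (q : ℕ) (a : Fin 3 → ℝ) (h : ℝ) (B : Bx (Fin 3)) : Prop := ∃ k j m, B = logA a h q k j m

/-- `x ∈` an even log `∩` an odd log, all cells which meet this face are logs -/
structure Hor (F : Set (Bx (Fin 3))) (q : ℕ) (a : Fin 3 → ℝ) (h : ℝ) (E O : F) : Prop where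
  even : ∃ k j m, Even k ∧ E.1 = logA a h q k j m
  odd : ∃ k j m, ¬ Even k ∧ O.1 = logA a h q k j m
  log : ∀ c : F, (Pc F c ∩ (Pc F E ∩ Pc F O)).Nonempty → IsLog q a h c.1

theorem log_inv (hq : 1 ≤ q) (hh : 0 < h) : INVa (h * (1 / 2)) {B | IsLog q a h B} := by
  have h1 := (logs_inv q hq).aff (by norm_num) (a := a) (L := fun _ => h) hh (fun _ => le_rfl)
  refine h1.mono ?_
  rintro B ⟨k, j, m, rfl⟩
  exact ⟨logB q k j m, ⟨k, j, m, rfl⟩, rfl⟩

/-- widths of the faces between logs -/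
theorem log_width (BF : BoxFoam La F δ κ0) (hq : 1 ≤ q) (hh : 0 < h) {A : Set F} (hA : A.Finite)
    (hAne : A.Nonempty) (hne : (fc (Pc F) A).Nonempty) (hlog : ∀ c ∈ A, IsLog q a h c.1)
    {k : Fin 3} (hk : loA A k ≠ hiA A k) : h / 2 ≤ hiA A k - loA A k := by
  obtain ⟨x, hx⟩ := hne
  have hsub : (↑(bxs hA) : Set (Bx (Fin 3))) ⊆ {B | IsLog q a h B} := by
    intro B hB
    obtain ⟨c, hc, rfl⟩ := (mem_bxs hA).1 hB
    exact hlog c hc
  obtain ⟨-, h2⟩ := log_inv (a := a) hq hh (bxs hA) hsub (bxs_nonempty hA hAne) (bxs_meet hA hx)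
  obtain ⟨c, hc, h3⟩ := (exists_loA hA hAne k).1
  obtain ⟨c', hc', h4⟩ := (exists_hiA hA hAne k).1
  have h5 := h2 k (fun hd => hk ((deg_iff hA hAne hx k).1 hd)) _ ((mem_bxs hA).2 ⟨c, hc, rfl⟩) _
    ((mem_bxs hA).2 ⟨c', hc', rfl⟩)
  rw [← h3, ← h4]
  linarith

theorem hi_sub_lo_le {A : Set F} (hA : A.Finite) {c : F} (hc : c ∈ A) (k : Fin 3) :
    hiA A k - loA A k ≤ c.1.side k := by
  have h1 := (exists_loA hA ⟨c, hc⟩ k).2 c hc
  have h2 := (exists_hiA hA ⟨c, hc⟩ k).2 c hc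
  unfold Bx.side
  linarith

theorem logA_side_even {k j m : ℤ} (hk : Even k) (i : Fin 3) (hi : i ≠ 0) :
    (logA a h q k j m).side i = h := by
  rw [logA, aff_side, logB_even hk]
  fin_cases i
  · exact absurd rfl hi
  · simp [Bx.side]
  · simp [Bx.side]

theorem logA_side_odd {k j m : ℤ} (hk : ¬ Even k) (i : Fin 3) (hi : i ≠ 1) :
    (logA a h q k j m).side i = h := by
  rw [logA, aff_side, logB_odd hk]
  fin_cases i
  · simp [Bx.side]
  · exact absurd rfl hi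
  · simp [Bx.side]

theorem Hor.ne {E O : F} (H : Hor F q a h E O) (hh : 0 < h) : E ≠ O := by
  rintro rfl
  obtain ⟨k, j, m, hk, h1⟩ := H.even
  obtain ⟨k', j', m', hk', h2⟩ := H.odd
  rw [h1] at h2
  have h3 := congrArg (fun B : Bx (Fin 3) => B.lo 2) h2
  simp only [logA, Bx.aff, dmap, logB_lo2] at h3
  have h4 : h * ((k : ℝ) - k') = 0 := by linarith
  rcases mul_eq_zero.1 h4 with h5 | h5
  · exact absurd h5 hh.ne'
  · have h6 : k = k' := by exact_mod_cast sub_eq_zero.1 h5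
    exact hk' (h6 ▸ hk)

/-- **universal Lipschitz constant of the coordinates on the horizontal faces** (cut or not) -/
theorem Hor.lip {E O : F} (H : Hor F q a h E O) (BF : BoxFoam La F δ κ0) (hLa : IsOpen La)
    (hq : 1 ≤ q) (hh : 0 < h) {y y' : Fin 3 → ℝ} (hy : y ∈ Pc F E ∩ Pc F O)
    (hy' : y' ∈ Pc F E ∩ Pc F O) (c : F) :
    |sc (Pc F) (bc (F := F)) y c - sc (Pc F) (bc (F := F)) y' c| ≤ 64 / h * ‖y - y'‖ := by
  have hfc : ∀ x, x ∈ fc (Pc F) ({E, O} : Set F) ↔ x ∈ Pc F E ∩ Pc F O := by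
    intro x
    rw [mem_fc]
    simp
  have hA0 : ({E, O} : Set F).Finite := (finite_singleton O).insert E
  obtain ⟨k1, j1, m1, hk1, hE⟩ := H.even
  obtain ⟨k2, j2, m2, hk2, hO⟩ := H.odd
  have h1 := lip_face BF hLa (A0 := {E, O}) ⟨E, mem_insert _ _⟩ (w := h * (1 / 2)) (S := h * 1)
    (by positivity) (by positivity) (fun k => ?_) (fun A hA hsub hne k hk => ?_) 2 {E, O} hA0
    Subset.rfl ⟨y, (hfc y).2 hy⟩ (by rw [ncard_pair (H.ne hh)]; simp) y ((hfc y).2 hy) y'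
    ((hfc y').2 hy') c
  · rw [Lc_scale hh, Lc_64] at h1
    exact h1
  · rw [mul_one]
    by_cases hk0 : k = 0
    · subst hk0
      refine (hi_sub_lo_le hA0 (mem_insert_of_mem _ (mem_singleton O)) 0).trans ?_
      rw [hO, logA_side_odd hk2 0 (by decide)]
    · refine (hi_sub_lo_le hA0 (mem_insert E _) k).trans ?_
      rw [hE, logA_side_even hk1 k hk0]
  · have h2 : ∀ c ∈ A, IsLog q a h c.1 := by
      intro c hc
      obtain ⟨x, hx⟩ := hne
      exact H.log c ⟨x, mem_fc.1 hx c hc, mem_fc.1 hx E (hsub (mem_insert _ _)),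
        mem_fc.1 hx O (hsub (mem_insert_of_mem _ rfl))⟩
    have := log_width BF hq hh hA ⟨E, hsub (mem_insert _ _)⟩ hne h2 hk
    linarith

end Crest.Agent.R096.Log2_582
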