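/-
helper222, row 96, LEVSEL part 7: exact cardinals (`#L c * 2^(-κ c) = W c` for dyadic targets `W c`),
margins at `0` and `1`, sharp energy factor `(1 + κp) W c`  (315 #10341).
-/
import Mathlib
import Crest.Agent.R096.Ls3_222

set_option autoImplicit false

open MeasureTheory Set Filter
open scoped Topology ENNReal

namespace Crest.Agent.R096.Ls_222

open Crest.Agent.R096.Bas_731 Crest.Agent.R96.En2_199 Crest.Agent.R96.Sg1_199

noncomputable section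

variable {E : Type*} [NormedAddCommGroup E] [NormedSpace ℝ E]

/-- the chosen levels, exact version -/
structure Lx {ι 𝒞 : Type*} (x v : ι → E) (u : 𝒞 → E → ℝ) (V : Set E) (κp μ : ℝ) (W : 𝒞 → ℝ)
    (Z Bad : 𝒞 → Set ℝ) (κ : 𝒞 → ℕ) (L : 𝒞 → Finset ℝ) : Prop where
  lf : ∀ n : ℕ, {c | κ c ≤ n}.Finite
  marg : ∀ c, ∀ t ∈ L c, μ ≤ t ∧ t ≤ 1 - μ
  card : ∀ c, ((L c).card : ℝ) * (2 : ℝ)⁻¹ ^ κ c = W c
  pos : ∀ c, ∀ t ∈ L c, |(((L c).filter (· < t)).card : ℝ) / (L c).card - t| ≤ κp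
  dens : ∀ c u v, u ≤ v → (((L c).filter fun t => u < t ∧ t < v).card : ℝ) ≤
    (1 + κp) * (v - u) * (L c).card + 1
  gap : ∀ c, ∀ t ∈ L c, ∀ t' ∈ L c, t < t' → 1 ≤ (1 + κp) * (L c).card * (t' - t)
  off : ∀ c, ∀ t ∈ L c, t ∉ Z c
  bad : ∀ c, ∀ t ∈ L c, t ∉ Bad c
  vert : ∀ c, ∀ t ∈ L c, ∀ p ∈ V, u c p ≠ t
  fin : ∀ c, ∀ t ∈ L c, ∀ j, (sgm (x j) (v j) ∩ u c ⁻¹' {t}).Finite
  sep : ∀ c c', c ≠ c' → ∀ t ∈ L c, ∀ t' ∈ L c', ∀ j, ∀ y ∈ sgm (x j) (v j),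
    ¬ (u c y = t ∧ u c' y = t')

/-- **LEVSEL with exact cardinals.** -/
theorem exists_Lx {ι 𝒞 : Type*} [Countable 𝒞] (x v : ι → E) (hv : ∀ j, v j ≠ 0)
    {u : 𝒞 → E → ℝ} {g : 𝒞 → ι → E → ℝ≥0∞} (Fc : 𝒞 → Finset ι)
    (hF2 : ∀ c, ∀ j ∉ Fc c, ∀ y ∈ sgm (x j) (v j), u c y ∉ Ioo (0:ℝ) 1)
    (hu : ∀ c, ∀ j ∈ Fc c, ContinuousOn (u c) (sgm (x j) (v j)))
    (hug : ∀ c, ∀ j ∈ Fc c, UGs (u c) (g c j) (x j) (v j))
    (hfin : ∀ c, ∀ j ∈ Fc c, li (g c j) (x j) (v j) ≠ ∞)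
    {V : Set E} (hV : V.Countable)
    {κ' : 𝒞 → Type*} [∀ c, Fintype (κ' c)] {X : ∀ c, κ' c → ℝ → ℝ≥0∞}
    (hX : ∀ c j, AEMeasurable (X c j) (volume.restrict (Icc (0:ℝ) 1)))
    {J : ∀ c, κ' c → ℝ} (hJ0 : ∀ c j, 0 ≤ J c j)
    (hJ : ∀ c j, ∫⁻ y in Icc (0:ℝ) 1, X c j y ≤ ENNReal.ofReal (J c j))
    {e : 𝒞 → ι → ℝ} (he : ∀ c j, 0 < e c j) {e' : 𝒞 → ℝ} (he' : ∀ c, 0 < e' c)
    {κp : ℝ} (hκ0 : 0 < κp) (hκ1 : κp ≤ 1) {μ : ℝ} (hμ : μ ≤ κp / 64)
    {W : 𝒞 → ℝ} (hW0 : ∀ c, 0 < W c) (hW : ∀ c, ∃ k N : ℕ, W c * 2 ^ k = N)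
    {Z Bad : 𝒞 → Set ℝ} (hZ : ∀ c, volume (Z c) = 0) (hBm : ∀ c, MeasurableSet (Bad c))
    (hB : ∀ c, volume (Bad c ∩ Icc 0 1) ≤ ENNReal.ofReal (κp / 32))
    (M0 : 𝒞 → ℕ) :
    ∃ (κ : 𝒞 → ℕ) (L : 𝒞 → Finset ℝ), Lx x v u V κp μ W Z Bad κ L ∧
      (∀ c, M0 c ≤ (L c).card) ∧
      (∀ c j, ENNReal.ofReal ((2 : ℝ)⁻¹ ^ κ c) * ∑ t ∈ L c, cr (u c) (x j) (v j) t ≤
        ENNReal.ofReal ((1 + κp) * W c) *
          (li (g c j) (x j) (v j) + ENNReal.ofReal (e c j))) ∧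
      ∀ c i, ENNReal.ofReal ((2 : ℝ)⁻¹ ^ κ c) * ∑ t ∈ L c, X c i t ≤
        ENNReal.ofReal ((1 + κp) * W c) *
          (ENNReal.ofReal (J c i) + ENNReal.ofReal (e' c)) := by
  classical
  choose k0 N0 hN0 using hW
  have hN0p : ∀ c, 1 ≤ N0 c := by
    intro c
    have h1 : (0:ℝ) < N0 c := by rw [← hN0 c]; have := hW0 c; positivity
    exact_mod_cast h1
  -- the numbers
  let jj : 𝒞 → ℕ → ℕ := fun c n => n + ⌈16 / κp⌉₊ + M0 c
  let N : 𝒞 → ℕ → ℕ := fun c n => N0 c * 2 ^ jj c n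
  let kk : 𝒞 → ℕ → ℕ := fun c n => k0 c + jj c n
  have hNW : ∀ c n, W c * 2 ^ kk c n = N c n := by
    intro c n
    simp only [kk, N, pow_add]
    push_cast
    rw [← mul_assoc, hN0 c]
  have hNj : ∀ c n, jj c n ≤ N c n := by
    intro c n
    have h1 : jj c n < 2 ^ jj c n := Nat.lt_two_pow_self
    calc jj c n ≤ 1 * 2 ^ jj c n := by omega
      _ ≤ N0 c * 2 ^ jj c n := Nat.mul_le_mul_right _ (hN0p c)
  let pick : 𝒞 → ℕ → ℕ := fun c n => ⌊(N c n : ℝ) / (1 - κp / 8)⌋₊ + 1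
  have h8 : (0:ℝ) < 1 - κp / 8 := by linarith
  have hNp : ∀ c n, (N c n : ℝ) < (1 - κp / 8) * pick c n := by
    intro c n
    have h1 := Nat.lt_floor_add_one ((N c n : ℝ) / (1 - κp / 8))
    rw [div_lt_iff₀ h8] at h1
    have h2 : ((pick c n : ℕ) : ℝ) = (⌊(N c n : ℝ) / (1 - κp / 8)⌋₊ : ℝ) + 1 := by
      simp [pick]
    rw [h2, mul_comm]; exact h1
  have hNle : ∀ c n, N c n < pick c n := by
    intro c n
    have h1 := hNp c n
    have h2 : (0:ℝ) ≤ pick c n := Nat.cast_nonneg _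
    have h3 : (N c n : ℝ) < pick c n := by nlinarith
    exact_mod_cast h3
  have hpick : ∀ c n, n ≤ pick c n := by
    intro c n
    have h1 := hNj c n
    have h2 := hNle c n
    have h3 : n ≤ jj c n := by simp only [jj]; omega
    omega
  have hN16 : ∀ c n, 16 ≤ κp * N c n := by
    intro c n
    have h1 : ⌈16 / κp⌉₊ ≤ N c n := le_trans (by simp only [jj]; omega) (hNj c n)
    have h2 : 16 / κp ≤ N c n := (Nat.le_ceil _).trans (by exact_mod_cast h1)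
    rw [div_le_iff₀ hκ0] at h2
    linarith
  have hup : ∀ c n, (pick c n : ℝ) ≤ (1 + κp / 4) * N c n := by
    intro c n
    have h1 := Nat.floor_le (show 0 ≤ (N c n : ℝ) / (1 - κp / 8) by positivity)
    rw [le_div_iff₀ h8] at h1
    have h2 : ((pick c n : ℕ) : ℝ) = (⌊(N c n : ℝ) / (1 - κp / 8)⌋₊ : ℝ) + 1 := by
      simp [pick]
    have h3 := hN16 c n
    have h4 : (0:ℝ) ≤ N c n := Nat.cast_nonneg _
    set a : ℝ := (⌊(N c n : ℝ) / (1 - κp / 8)⌋₊ : ℝ)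
    rw [h2]
    -- `a (1 - κp/8) ≤ N`, want `a + 1 ≤ (1 + κp/4) N`
    have h5 : (1 + κp / 8 + κp ^ 2 / 32) * (a * (1 - κp / 8)) ≤ (1 + κp / 8 + κp ^ 2 / 32) * N c n :=
      mul_le_mul_of_nonneg_left h1 (by positivity)
    have h6 : a ≤ (1 + κp / 8 + κp ^ 2 / 32) * (a * (1 - κp / 8)) := by
      have h7 : (0:ℝ) ≤ a := Nat.cast_nonneg _
      have h9 : (1:ℝ) ≤ (1 + κp / 8 + κp ^ 2 / 32) * (1 - κp / 8) := by nlinarith [sq_nonneg κp]
      nlinarith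
    have h7 : κp ^ 2 * N c n ≤ κp * N c n := by nlinarith
    nlinarith
  let Bad' : 𝒞 → Set ℝ := fun c => Bad c ∪ (Iio μ ∪ Ioi (1 - μ))
  have hBm' : ∀ c, MeasurableSet (Bad' c) := fun c =>
    (hBm c).union (measurableSet_Iio.union measurableSet_Ioi)
  have hκ2 : 0 < κp / 2 := by positivity
  have hB' : ∀ c, volume (Bad' c ∩ Icc 0 1) ≤ ENNReal.ofReal (κp / 2 / 8) := by
    intro c
    have h1 : Bad' c ∩ Icc 0 1 ⊆ (Bad c ∩ Icc 0 1) ∪ (Icc 0 (κp / 64) ∪ Icc (1 - κp / 64) 1) := by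
      rintro t ⟨ht | ht | ht, ht'⟩
      · exact Or.inl ⟨ht, ht'⟩
      · exact Or.inr (Or.inl ⟨ht'.1, (le_of_lt ht).trans hμ⟩)
      · refine Or.inr (Or.inr ⟨?_, ht'.2⟩)
        have : 1 - μ < t := ht
        linarith
    calc volume (Bad' c ∩ Icc 0 1)
        ≤ volume (Bad c ∩ Icc 0 1) + (volume (Icc (0:ℝ) (κp / 64)) +
            volume (Icc (1 - κp / 64) (1:ℝ))) :=
          (measure_mono h1).trans ((measure_union_le _ _).trans (by gcongr; exact measure_union_le _ _))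
      _ ≤ ENNReal.ofReal (κp / 32) + (ENNReal.ofReal (κp / 64) + ENNReal.ofReal (κp / 64)) := by
          rw [Real.volume_Icc, Real.volume_Icc]
          gcongr
          · exact hB c
          · linarith
          · linarith
      _ = ENNReal.ofReal (κp / 2 / 8) := by
          rw [← ENNReal.ofReal_add (by positivity) (by positivity),
            ← ENNReal.ofReal_add (by positivity) (by positivity)]
          congr 1; ring
  obtain ⟨m, κ, L, hL, hmp, -, hE, hXX⟩ := exists_Lv x v hv Fc hF2 hu hug hfin hV hX hJ0 hJ he he'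
    hκ2 (by linarith) hW0 hZ hBm' hB' M0 pick hpick
  choose n hn using hmp
  have hmR : ∀ c, (0:ℝ) < m c := by
    intro c
    have h1 := hNle c (n c)
    rw [← hn c] at h1
    exact_mod_cast (Nat.zero_le _).trans_lt h1
  -- the weights
  have hκk : ∀ c, κ c = kk c (n c) := by
    intro c
    have h1 := hL.wt1 c
    have h2 := hL.wt2 c
    have h3 : W c < m c * (2:ℝ)⁻¹ ^ kk c (n c) := by
      have h4 := hNW c (n c)
      have h5 : (N c (n c) : ℝ) < m c := by rw [hn c]; exact_mod_cast hNle c (n c)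
      rw [inv_pow, ← div_eq_mul_inv, lt_div_iff₀ (by positivity), h4]
      exact h5
    have h4 : (m c : ℝ) * (2:ℝ)⁻¹ ^ kk c (n c) < 2 * W c := by
      have h4 := hNW c (n c)
      have h5 : (m c : ℝ) ≤ (1 + κp / 4) * N c (n c) := by rw [hn c]; exact hup c (n c)
      have h6 := hN16 c (n c)
      have h7 : (0:ℝ) < N c (n c) := by nlinarith
      rw [inv_pow, ← div_eq_mul_inv, div_lt_iff₀ (by positivity), mul_assoc, h4]
      nlinarith
    rcases lt_trichotomy (κ c) (kk c (n c)) with h5 | h5 | h5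
    · exfalso
      have h6 : (2:ℝ)⁻¹ ^ kk c (n c) ≤ (2:ℝ)⁻¹ ^ (κ c + 1) :=
        pow_le_pow_of_le_one (by norm_num) (by norm_num) h5
      rw [pow_succ] at h6
      have h7 := mul_le_mul_of_nonneg_left h6 (hmR c).le
      nlinarith
    · exact h5
    · exfalso
      have h6 : (2:ℝ)⁻¹ ^ κ c ≤ (2:ℝ)⁻¹ ^ (kk c (n c) + 1) :=
        pow_le_pow_of_le_one (by norm_num) (by norm_num) h5
      rw [pow_succ] at h6
      have h7 := mul_le_mul_of_nonneg_left h6 (hmR c).le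
      nlinarith
  -- the subsets
  have hsub : ∀ c, ∃ L' ⊆ L c, L'.card = N c (n c) := by
    intro c
    apply Finset.exists_subset_card_eq
    have h1 := hL.card1 c
    have h2 := hNp c (n c)
    rw [← hn c] at h2
    have h3 : (N c (n c) : ℝ) < (L c).card := by
      have h4 : (1 - κp / 2 / 4) * (m c : ℝ) = (1 - κp / 8) * m c := by ring
      rw [h4] at h1
      linarith
    exact_mod_cast h3.le
  choose L' hL' hc' using hsub
  have hup' : ∀ c, (m c : ℝ) ≤ (1 + κp / 4) * (L' c).card := by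
    intro c
    rw [hc' c, hn c]; exact hup c (n c)
  have hb' : ∀ c, (1 - κp / 4) * m c ≤ (L' c).card := by
    intro c
    have h1 := hup' c
    have h2 : (0:ℝ) ≤ (L' c).card := Nat.cast_nonneg _
    have h3 := mul_le_mul_of_nonneg_left h1 (by linarith : (0:ℝ) ≤ 1 - κp / 4)
    nlinarith [sq_nonneg κp]
  have hm0 : ∀ c, 0 < m c := fun c => by exact_mod_cast hmR c
  have hwt : ∀ c, (m c : ℝ) * (2:ℝ)⁻¹ ^ κ c ≤ (1 + κp) * W c := by
    intro c
    have h4 := hNW c (n c)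
    have h5 := hup' c
    rw [hc' c] at h5
    rw [hκk c, inv_pow, ← div_eq_mul_inv, div_le_iff₀ (by positivity), mul_assoc, h4]
    have h7 : (0:ℝ) ≤ N c (n c) := Nat.cast_nonneg _
    nlinarith
  have hprog : ∀ c, ∃ o ∈ Ioo (0:ℝ) 1, L' c ⊆ ap (m c) o := by
    intro c
    obtain ⟨o, ho, h⟩ := hL.prog c
    exact ⟨o, ho, (hL' c).trans h⟩
  refine ⟨κ, L', ⟨hL.lf, ?_, ?_, ?_, ?_, ?_, ?_, ?_, ?_, ?_, ?_⟩, ?_, ?_, ?_⟩
  · intro c t ht
    have h1 := hL.bad c t (hL' c ht)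
    constructor
    · by_contra h2
      exact h1 (Or.inr (Or.inl (not_le.1 h2)))
    · by_contra h2
      exact h1 (Or.inr (Or.inr (not_le.1 h2)))
  · intro c
    rw [hc' c, hκk c, ← hNW c (n c), mul_assoc, ← mul_pow]
    norm_num
  · intro c t ht
    obtain ⟨o, ho, h⟩ := hprog c
    refine pos_of_sub (hm0 c) ho h (b := κp / 4) (by positivity) (hb' c) hκ1 le_rfl ?_ ht
    have h1 := hN16 c (n c)
    have h2 : (N c (n c) : ℝ) ≤ m c := by rw [hn c]; exact_mod_cast (hNle c (n c)).le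
    nlinarith
  · intro c a b hab
    obtain ⟨o, ho, h⟩ := hprog c
    exact dens_of_sub (hm0 c) h (hb' c) hκ0 hκ1 le_rfl hab
  · intro c t ht t' ht' htt
    have h1 := hL.gap c t (hL' c ht) t' (hL' c ht') htt
    have h2 := hup' c
    have h3 : 0 < t' - t := by linarith
    have h4 := mul_le_mul_of_nonneg_right h2 h3.le
    have h5 : (0:ℝ) ≤ (L' c).card := Nat.cast_nonneg _
    have h6 : (1 + κp / 4) * ((L' c).card : ℝ) * (t' - t) ≤ (1 + κp) * (L' c).card * (t' - t) := by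
      gcongr
      linarith
    linarith
  · exact fun c t ht => hL.off c t (hL' c ht)
  · exact fun c t ht h => hL.bad c t (hL' c ht) (Or.inl h)
  · exact fun c t ht => hL.vert c t (hL' c ht)
  · exact fun c t ht => hL.fin c t (hL' c ht)
  · exact fun c c' hcc t ht t' ht' => hL.sep c c' hcc t (hL' c ht) t' (hL' c' ht')
  · intro c
    rw [hc' c]
    exact le_trans (by simp only [jj]; omega) (hNj c (n c))
  · intro c j
    calc _ ≤ ENNReal.ofReal ((2 : ℝ)⁻¹ ^ κ c) * ∑ t ∈ L c, cr (u c) (x j) (v j) t := by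
          gcongr
          exact hL' c
      _ ≤ _ := hE c j
      _ ≤ _ := mul_le_mul' (ENNReal.ofReal_le_ofReal (hwt c)) le_rfl
  · intro c i
    calc _ ≤ ENNReal.ofReal ((2 : ℝ)⁻¹ ^ κ c) * ∑ t ∈ L c, X c i t := by
          gcongr
          exact hL' c
      _ ≤ _ := hXX c i
      _ ≤ _ := mul_le_mul' (ENNReal.ofReal_le_ofReal (hwt c)) le_rfl

end

end Crest.Agent.R096.Ls_222
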