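/-
helper222, row 96, LEVSEL part 8: adapter to `Mbf_337` (MachBF, version 2): literal `Levels`, edges
avoid the holes, dyadic targets.
-/
import Mathlib
import Crest.Agent.R096.Mbf_337
import Crest.Agent.R096.Ls6_222
import Crest.Agent.R096.Ls7_222

set_option autoImplicit false
set_option linter.unusedSectionVars false

open MeasureTheory Set Filter
open scoped Topology ENNReal

namespace Crest.Agent.R096.Ls_222

open Crest.Agent.R096.Bas_731 Crest.Agent.R96.En2_199 Crest.Agent.R96.Sg1_199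
open Crest.Agent.R096.Msh_715
open Crest.Agent.R096.SkC1_961 (E3 Hom3 FoamD NN)
open Crest.Agent.R096.Bsp_628 Crest.Agent.R096.Brk1_582 Crest.Agent.R096.Brk3_582
open Crest.Agent.R096.Brk5_582
open Crest.Agent.R96.Push_899
open Crest.Agent.R096.Mbf_337

noncomputable section

/-! ### dyadic targets -/

/-- a power of two in `(s/2, s]` as a dyadic target -/
theorem exists_dyadic {s : ℝ} (hs : 0 < s) :
    ∃ W : ℝ, 0 < W ∧ s / 2 < W ∧ W ≤ s ∧ ∃ k N : ℕ, W * 2 ^ k = N := by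
  obtain ⟨n, h1, h2⟩ := exists_mem_Ico_zpow hs (by norm_num : (1:ℝ) < 2)
  refine ⟨(2:ℝ) ^ n, by positivity, ?_, h1, ?_⟩
  · rw [zpow_add₀ (by norm_num), zpow_one] at h2
    linarith
  · refine ⟨n.natAbs, 2 ^ (n + n.natAbs).toNat, ?_⟩
    have h3 : (0:ℤ) ≤ n + n.natAbs := by
      have := neg_abs_le n
      rw [← Int.natCast_natAbs] at this
      omega
    rw [← zpow_natCast (2:ℝ) n.natAbs, ← zpow_add₀ (by norm_num), Nat.cast_pow, Nat.cast_ofNat,
      ← zpow_natCast, Int.toNat_of_nonneg h3]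

section foam

variable {δ κ0 R c0 : ℝ} {La Om : Set E3} {ι : Type} {Φ : FoamD δ κ0 R c0 La} {T : Tiling Om ι}
  {f : E3 → E3}

/-- our levels are levels of `Mbf_337` -/
theorem levels2_of_Lx {κp μ κ3 : ℝ} {W : Φ.F → ℝ} (hW1 : ∀ c, c.1.sz ≤ κ3 * W c)
    (hW2 : ∀ c, W c ≤ κ3 * c.1.sz) {Z Bad : Φ.F → Set ℝ} {κ : Φ.F → ℕ} {L : Φ.F → Finset ℝ}
    (h : Lx (ea (T := T)) (ev (T := T)) (us Φ f) (Vt T) κp μ W Z Bad κ L) {m0 : Φ.F → ℕ}
    (hm : ∀ c, m0 c ≤ (L c).card) : Mbf_337.Levels Φ T f κp μ κ3 Z m0 κ L where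
  lf := h.lf
  marg := h.marg
  many := fun c => by rw [h.card c]; exact hW1 c
  few := fun c => by rw [h.card c]; exact hW2 c
  large := hm
  dens := h.dens
  off := h.off
  vert := fun c t ht x hx hd => h.vert c t ht x ⟨hx, hd⟩
  fin := by
    intro c t ht x hx hd
    let e : Edg T := ⟨T.cc x, x, hx, hd, rfl⟩
    have he : sgm (ea e) (ev e) = T.cc x := sgm_edg e
    have h1 := h.fin c t ht e
    rw [he] at h1
    exact h1
  sep := by
    intro c c' hcc t ht t' ht' x hx hd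
    let e : Edg T := ⟨T.cc x, x, hx, hd, rfl⟩
    have he : sgm (ea e) (ev e) = T.cc x := sgm_edg e
    exact h.sep c c' hcc t ht t' ht' e x (he ▸ T.self_mem_cc x)

/-- **LEVSEL**, output in the language of `Mbf_337`, exact cardinals, sharp energy factor -/
theorem levsel2 (hLa : IsOpen La) (hf : Hom3 f Om La) (T : Tiling Om ι)
    (hh : ∀ e : Edg T, ∀ y ∈ sgm (ea e) (ev e), ∀ c, f y ∉ (Φ.B c).S)
    {g : Φ.F → Edg T → E3 → ℝ≥0∞}
    (hug : ∀ c e, UGs (us Φ f c) (g c e) (ea e) (ev e))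
    (hfin : ∀ c e, li (g c e) (ea e) (ev e) ≠ ∞)
    {κ' : Φ.F → Type*} [∀ c, Fintype (κ' c)] {X : ∀ c, κ' c → ℝ → ℝ≥0∞}
    (hX : ∀ c j, AEMeasurable (X c j) (volume.restrict (Icc (0:ℝ) 1)))
    {J : ∀ c, κ' c → ℝ} (hJ0 : ∀ c j, 0 ≤ J c j)
    (hJ : ∀ c j, ∫⁻ y in Icc (0:ℝ) 1, X c j y ≤ ENNReal.ofReal (J c j))
    {e' : Φ.F → ℝ} (he' : ∀ c, 0 < e' c)
    {err : Edg T → ℝ≥0∞} (herr : ∀ e, err e ≠ 0)
    {κp : ℝ} (hκ0 : 0 < κp) (hκ1 : κp ≤ 1) {μ : ℝ} (hμ : μ ≤ κp / 64) {κ3 : ℝ}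
    {W : Φ.F → ℝ} (hW0 : ∀ c, 0 < W c) (hWd : ∀ c, ∃ k N : ℕ, W c * 2 ^ k = N)
    (hW1 : ∀ c, c.1.sz ≤ κ3 * W c) (hW2 : ∀ c, W c ≤ κ3 * c.1.sz)
    {Z Bad : Φ.F → Set ℝ} (hZ : ∀ c, volume (Z c) = 0) (hBm : ∀ c, MeasurableSet (Bad c))
    (hB : ∀ c, volume (Bad c ∩ Icc 0 1) ≤ ENNReal.ofReal (κp / 32)) (m0 : Φ.F → ℕ) :
    ∃ (κ : Φ.F → ℕ) (L : Φ.F → Finset ℝ),
      Lx (ea (T := T)) (ev (T := T)) (us Φ f) (Vt T) κp μ W Z Bad κ L ∧
      Mbf_337.Levels Φ T f κp μ κ3 Z m0 κ L ∧ (∀ c, ∀ t ∈ L c, t ∉ Bad c) ∧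
      (∀ c, ((L c).card : ℝ) * (2 : ℝ)⁻¹ ^ κ c = W c) ∧
      (∀ e, EN (us Φ f) κ L e ≤
        li (fun y => ∑' c : Φ.F, ENNReal.ofReal ((1 + κp) * W c) * g c e y) (ea e) (ev e) + err e) ∧
      (∀ i, NN Φ T f κ L i ≤ ∑ e ∈ eIn T i,
        (li (fun y => ∑' c : Φ.F, ENNReal.ofReal ((1 + κp) * W c) * g c e y) (ea e) (ev e) +
          err e)) ∧
      ∀ c j, ENNReal.ofReal ((2 : ℝ)⁻¹ ^ κ c) * ∑ t ∈ L c, X c j t ≤
        ENNReal.ofReal ((1 + κp) * W c) * (ENNReal.ofReal (J c j) + ENNReal.ofReal (e' c)) := by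
  classical
  have : Countable Φ.F := countable_F Φ
  obtain ⟨e0, he0, hes⟩ := exists_errs (𝒞 := Φ.F) (ι := Edg T)
    (w := fun c => ENNReal.ofReal ((1 + κp) * W c)) (fun c => ENNReal.ofReal_ne_top) herr
  choose K hK hKO hKc using fun c => exists_compact_us (Φ := Φ) hLa hf c
  let Fc : Φ.F → Finset (Edg T) := fun c => (finite_edg_sgm T (hK c) (hKO c)).toFinset
  obtain ⟨κ, L, hLx, hM, hE, hXX⟩ := exists_Lx (ea (T := T)) (ev (T := T)) (fun e => ev_ne e)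
    (u := us Φ f) (g := g) Fc
    (by
      intro c e he y hy hyv
      apply he
      simp only [Fc, Finite.mem_toFinset]
      exact ⟨y, hy, hKc c y (sgm_sub_Om e hy) (hh e y hy) hyv.2⟩)
    (fun c e _ => continuousOn_us hLa hf (sgm_sub_Om e) (hh e) c)
    (fun c e _ => hug c e) (fun c e _ => hfin c e) (countable_Vt T) hX hJ0 hJ he0 he' hκ0 hκ1 hμ
    hW0 hWd hZ hBm hB m0
  have hen : ∀ e, EN (us Φ f) κ L e ≤
      li (fun y => ∑' c : Φ.F, ENNReal.ofReal ((1 + κp) * W c) * g c e y) (ea e) (ev e) +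
        err e := by
    intro e
    unfold EN
    calc ∑' c, ENNReal.ofReal ((2 : ℝ)⁻¹ ^ κ c) * ∑ t ∈ L c, cr (us Φ f c) (ea e) (ev e) t
        ≤ ∑' c : Φ.F, (ENNReal.ofReal ((1 + κp) * W c) * li (g c e) (ea e) (ev e) +
            ENNReal.ofReal ((1 + κp) * W c) * ENNReal.ofReal (e0 c e)) := by
          refine ENNReal.tsum_le_tsum fun c => ?_
          rw [← mul_add]
          exact hE c e
      _ = ∑' c : Φ.F, ENNReal.ofReal ((1 + κp) * W c) * li (g c e) (ea e) (ev e) +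
            ∑' c : Φ.F, ENNReal.ofReal ((1 + κp) * W c) * ENNReal.ofReal (e0 c e) :=
          ENNReal.tsum_add
      _ ≤ _ := add_le_add (tsum_mul_li_le _ _ _ _) (hes e)
  have hLe := levels2_of_Lx hW1 hW2 hLx hM
  exact ⟨κ, L, hLx, hLe, hLx.bad, hLx.card, hen,
    fun i => (NN_le hLe.vert i).trans (Finset.sum_le_sum fun e _ => hen e), hXX⟩

/-- weighted sum of the upper gradients of all level functions, any weights `A c ≤ B * size` -/
theorem sum_grad_le' (hLa : IsOpen La) (hδ : 0 < δ) (hR : 0 < R) (hf : Hom3 f Om La) {y : E3}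
    (hy : y ∈ Om) (hh : ∀ c, f y ∉ (Φ.B c).S) (G : E3 → ℝ≥0∞) {A : Φ.F → ℝ} {B : ℝ}
    (hB : 0 ≤ B) (hA : ∀ c, A c ≤ B * c.1.sz) :
    ∑' c : Φ.F, ENNReal.ofReal (A c) * (ENNReal.ofReal (Cl δ R / c.1.sz) *
      {y | us Φ f c y < 1}.indicator G y) ≤ ENNReal.ofReal (4 * B * Cl δ R) * G y := by
  have h1 := sum_grad_le (Φ := Φ) hLa hδ hR hf hy hh G
  have hCl := Cl_nonneg hδ hR
  calc ∑' c : Φ.F, ENNReal.ofReal (A c) * (ENNReal.ofReal (Cl δ R / c.1.sz) *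
      {y | us Φ f c y < 1}.indicator G y)
      ≤ ∑' c : Φ.F, ENNReal.ofReal (B / 2) * (ENNReal.ofReal (2 * c.1.sz) *
        (ENNReal.ofReal (Cl δ R / c.1.sz) * {y | us Φ f c y < 1}.indicator G y)) := by
        refine ENNReal.tsum_le_tsum fun c => ?_
        rw [← mul_assoc (ENNReal.ofReal (B / 2)), ← ENNReal.ofReal_mul (by positivity)]
        refine mul_le_mul' (ENNReal.ofReal_le_ofReal ?_) le_rfl
        have := hA c
        linarith
    _ = ENNReal.ofReal (B / 2) * ∑' c : Φ.F, (ENNReal.ofReal (2 * c.1.sz) *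
        (ENNReal.ofReal (Cl δ R / c.1.sz) * {y | us Φ f c y < 1}.indicator G y)) :=
        ENNReal.tsum_mul_left
    _ ≤ ENNReal.ofReal (B / 2) * (ENNReal.ofReal (8 * Cl δ R) * G y) := by gcongr
    _ = _ := by
        rw [← mul_assoc, ← ENNReal.ofReal_mul (by positivity)]
        congr 2; ring

/-- **LEVSEL from an upper gradient of `Psi ∘ f`** -/
theorem levsel2_G (hLa : IsOpen La) (hδ : 0 < δ) (hR : 0 < R) (hf : Hom3 f Om La)
    (T : Tiling Om ι)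
    (hh : ∀ e : Edg T, ∀ y ∈ sgm (ea e) (ev e), ∀ c, f y ∉ (Φ.B c).S)
    {G : Edg T → E3 → ℝ≥0∞}
    (hG : ∀ e, UGv (fun y => Φ.Psi (f y)) (G e) (ea e) (ev e))
    (hGf : ∀ e, li (G e) (ea e) (ev e) ≠ ∞)
    {κ' : Φ.F → Type*} [∀ c, Fintype (κ' c)] {X : ∀ c, κ' c → ℝ → ℝ≥0∞}
    (hX : ∀ c j, AEMeasurable (X c j) (volume.restrict (Icc (0:ℝ) 1)))
    {J : ∀ c, κ' c → ℝ} (hJ0 : ∀ c j, 0 ≤ J c j)
    (hJ : ∀ c j, ∫⁻ y in Icc (0:ℝ) 1, X c j y ≤ ENNReal.ofReal (J c j))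
    {e' : Φ.F → ℝ} (he' : ∀ c, 0 < e' c)
    {err : Edg T → ℝ≥0∞} (herr : ∀ e, err e ≠ 0)
    {κp : ℝ} (hκ0 : 0 < κp) (hκ1 : κp ≤ 1) {μ : ℝ} (hμ : μ ≤ κp / 64) {κ3 θ : ℝ} (hθ : 0 ≤ θ)
    {W : Φ.F → ℝ} (hW0 : ∀ c, 0 < W c) (hWd : ∀ c, ∃ k N : ℕ, W c * 2 ^ k = N)
    (hW1 : ∀ c, c.1.sz ≤ κ3 * W c) (hW2 : ∀ c, W c ≤ κ3 * c.1.sz) (hW3 : ∀ c, W c ≤ θ * c.1.sz)
    {Z Bad : Φ.F → Set ℝ} (hZ : ∀ c, volume (Z c) = 0) (hBm : ∀ c, MeasurableSet (Bad c))
    (hB : ∀ c, volume (Bad c ∩ Icc 0 1) ≤ ENNReal.ofReal (κp / 32)) (m0 : Φ.F → ℕ) :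
    ∃ (κ : Φ.F → ℕ) (L : Φ.F → Finset ℝ),
      Lx (ea (T := T)) (ev (T := T)) (us Φ f) (Vt T) κp μ W Z Bad κ L ∧
      Mbf_337.Levels Φ T f κp μ κ3 Z m0 κ L ∧ (∀ c, ∀ t ∈ L c, t ∉ Bad c) ∧
      (∀ c, ((L c).card : ℝ) * (2 : ℝ)⁻¹ ^ κ c = W c) ∧
      (∀ e, EN (us Φ f) κ L e ≤
        ENNReal.ofReal (8 * θ * Cl δ R) * li (G e) (ea e) (ev e) + err e) ∧
      (∀ i, NN Φ T f κ L i ≤ ∑ e ∈ eIn T i,
        (ENNReal.ofReal (8 * θ * Cl δ R) * li (G e) (ea e) (ev e) + err e)) ∧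
      ∀ c j, ENNReal.ofReal ((2 : ℝ)⁻¹ ^ κ c) * ∑ t ∈ L c, X c j t ≤
        ENNReal.ofReal ((1 + κp) * W c) * (ENNReal.ofReal (J c j) + ENNReal.ofReal (e' c)) := by
  have hfin : ∀ (c : Φ.F) e, li (fun y => ENNReal.ofReal (Cl δ R / c.1.sz) *
      {y | us Φ f c y < 1}.indicator (G e) y) (ea e) (ev e) ≠ ∞ := by
    intro c e
    rw [li_const_mul ENNReal.ofReal_ne_top]
    refine ENNReal.mul_ne_top ENNReal.ofReal_ne_top (ne_top_of_le_ne_top (hGf e) ?_)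
    exact li_mono fun y _ => indicator_le_self _ _ _
  obtain ⟨κ, L, h1, h2, h3, h4, h5, -, h7⟩ := levsel2 hLa hf T hh
    (g := fun c e y => ENNReal.ofReal (Cl δ R / c.1.sz) * {y | us Φ f c y < 1}.indicator (G e) y)
    (fun c e => ugs_us hLa hδ hR hf (sgm_sub_Om e) (hh e) (hG e) c) hfin hX hJ0 hJ he' herr hκ0 hκ1
    hμ hW0 hWd hW1 hW2 hZ hBm hB m0
  have h8 : ∀ e, EN (us Φ f) κ L e ≤
      ENNReal.ofReal (8 * θ * Cl δ R) * li (G e) (ea e) (ev e) + err e := by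
    intro e
    refine (h5 e).trans (add_le_add ?_ le_rfl)
    rw [← li_const_mul ENNReal.ofReal_ne_top]
    refine li_mono fun y hy => ?_
    have h9 := sum_grad_le' (Φ := Φ) hLa hδ hR hf (sgm_sub_Om e hy) (hh e y hy) (G e)
      (A := fun c => (1 + κp) * W c) (B := 2 * θ) (by positivity) (fun c => by
        have h10 := hW3 c
        have h11 := hW0 c
        nlinarith)
    rwa [show 4 * (2 * θ) * Cl δ R = 8 * θ * Cl δ R by ring] at h9
  exact ⟨κ, L, h1, h2, h3, h4, h8,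
    fun i => (NN_le h2.vert i).trans (Finset.sum_le_sum fun e _ => h8 e), h7⟩

/-- dyadic targets `sz / 2 < W ≤ sz` for all bricks (BF / EA; `θ = 1`, `κ3 = 8`) -/
theorem exists_targets (Φ : FoamD δ κ0 R c0 La) {κ3 : ℝ} (hκ3 : 8 ≤ κ3) :
    ∃ W : Φ.F → ℝ, (∀ c, 0 < W c) ∧ (∀ c, ∃ k N : ℕ, W c * 2 ^ k = N) ∧
      (∀ c, c.1.sz ≤ κ3 * W c) ∧ (∀ c, W c ≤ κ3 * c.1.sz) ∧ ∀ c, W c ≤ 1 * c.1.sz := by
  choose W h1 h2 h3 h4 using fun c : Φ.F => exists_dyadic (szF_pos Φ c)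
  refine ⟨W, h1, h4, fun c => ?_, fun c => ?_, fun c => ?_⟩
  · nlinarith [h1 c, h2 c]
  · nlinarith [szF_pos Φ c, h3 c]
  · rw [one_mul]; exact h3 c

end foam

/-! ### the edges avoid the holes -/

section holes

variable {E : Type*} [NormedAddCommGroup E] [NormedSpace ℝ E] [FiniteDimensional ℝ E]

theorem interior_sub_I {H : Finset ((E →L[ℝ] ℝ) × ℝ)} (hne : (I H).Nonempty) :
    interior (P H) ⊆ I H := by
  obtain ⟨z, hz⟩ := hne
  intro x hx
  have hc : Tendsto (fun t : ℝ => x + t • (x - z)) (𝓝 0) (𝓝 x) := by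
    have : Continuous fun t : ℝ => x + t • (x - z) := by fun_prop
    simpa using this.tendsto 0
  obtain ⟨ε, hε, hb⟩ := Metric.eventually_nhds_iff.1 (hc.eventually (isOpen_interior.mem_nhds hx))
  have h1 : x + (ε / 2) • (x - z) ∈ P H := interior_subset (hb (by
    rw [Real.dist_eq, sub_zero, abs_of_pos (by positivity)]; linarith))
  intro h hh
  have h2 := h1 h hh
  have h3 := hz h hh
  rw [map_add, map_smul, map_sub, smul_eq_mul] at h2
  nlinarith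

end holes

section holes3

variable {δ κ0 R c0 : ℝ} {La Om : Set E3} {ι : Type} {Φ : FoamD δ κ0 R c0 La} {T : Tiling Om ι}
  {f : E3 → E3}

/-- **the 1-cells of the mesh avoid the holes**; `hx`: the preimages of the point holes are on no
1-cell (true for almost every translate) -/
theorem hh_of_cores {κ1 κ2 : ℝ} (hκ2 : 0 ≤ κ2) (hκ : κ1 * κ0 < κ2) {X : Set Φ.F}
    {J0 J V : Φ.F → Set ι}
    {ct : Φ.F → ι} {A : Φ.F → E3 ≃ᵃ[ℝ] E3} {lam : Φ.F → ℝ} {z : Φ.F → E3} {θ : Φ.F → E3 → E3}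
    {φ : Φ.F → E3 → ℝ} (hC : Cores Φ T f κ1 κ2 X J0 J V ct A lam z θ φ)
    (hx : ∀ c ∉ X, ∀ x ∈ Om, f x = (Φ.B c).lo → 2 ≤ T.dim x) :
    ∀ e : Edg T, ∀ y ∈ sgm (ea e) (ev e), ∀ c, f y ∉ (Φ.B c).S := by
  intro e y hy c hyc
  have hyO := sgm_sub_Om e hy
  have hdim : T.dim y ≤ 1 := by
    rw [sgm_edg] at hy
    obtain ⟨e', x, hx', hd, rfl⟩ := e
    exact (T.dim_le hy).trans hd.le
  by_cases hcX : c ∈ X
  · have h := hC.exact_ c hcX
    have hyt : y ∈ P (T.H (ct c)) := by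
      by_contra hn
      exact h.miss y hyO hn hyc
    have hyi : y ∉ interior (P (T.H (ct c))) := by
      intro hi
      have h1 := interior_sub_I (T.ne (ct c)) hi
      have h2 : T.V y = ⊤ := (T.V_eq_top_iff hyO).2 ⟨_, h1⟩
      have h3 : T.dim y = 3 := by
        unfold Tiling.dim
        rw [h2, finrank_top]
        simp [E3]
      omega
    have hbox : ∀ k, z c k + lam c * c.1.lo k ≤ A c y k ∧ A c y k ≤ z c k + lam c * c.1.hi k := by
      have h1 := hyt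
      rw [h.tile] at h1
      exact h1
    have hlam := h.lam0
    have hsz := szF_pos Φ c
    have hside : ∀ k, 0 < c.1.side k := fun k => Bx.side_pos (Φ.bf.pos c.1 c.2) k
    have hasp : ∀ k, c.1.sz ≤ κ0 * c.1.side k := Φ.bf.asp c.1 c.2
    -- `y` is on the boundary of the box
    have hface : ∃ k, A c y k = z c k + lam c * c.1.lo k ∨ A c y k = z c k + lam c * c.1.hi k := by
      by_contra hn
      push Not at hn
      apply hyi
      rw [h.tile]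
      have hop : IsOpen (A c ⁻¹' {y | ∀ k, z c k + lam c * c.1.lo k < y k ∧
          y k < z c k + lam c * c.1.hi k}) := by
        refine IsOpen.preimage (AffineEquiv.continuous_of_finiteDimensional (A c)) ?_
        have : {y : E3 | ∀ k, z c k + lam c * c.1.lo k < y k ∧ y k < z c k + lam c * c.1.hi k} =
            ⋂ k, {y : E3 | z c k + lam c * c.1.lo k < y k ∧ y k < z c k + lam c * c.1.hi k} := by
          ext; simp
        rw [this]
        refine isOpen_iInter_of_finite fun k => ?_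
        exact (isOpen_lt continuous_const (continuous_apply k)).inter
          (isOpen_lt (continuous_apply k) continuous_const)
      refine interior_maximal ?_ hop ?_
      · intro w hw k
        exact ⟨(hw k).1.le, (hw k).2.le⟩
      · intro k
        exact ⟨lt_of_le_of_ne (hbox k).1 (Ne.symm (hn k).1), lt_of_le_of_ne (hbox k).2 (hn k).2⟩
    have hdist : ‖f y - A c y‖ ≤ κ1 * (lam c * c.1.sz) := by
      refine (h.nbd y fun k => ?_).2 hyi
      have h1 := hbox k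
      have h2 : 0 ≤ κ2 * (lam c * c.1.side k) := by have := hside k; positivity
      constructor <;> linarith [h1.1, h1.2]
    have hκ1 : 0 ≤ κ1 := by
      by_contra hneg
      push Not at hneg
      have h1 : κ1 * (lam c * c.1.sz) < 0 := mul_neg_of_neg_of_pos hneg (by positivity)
      linarith [norm_nonneg (f y - A c y)]
    obtain ⟨k, hk⟩ := hface
    have h1 : |f y k - A c y k| ≤ κ1 * (lam c * c.1.sz) := by
      have := norm_le_pi_norm (f y - A c y) k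
      rw [Pi.sub_apply, Real.norm_eq_abs] at this
      exact this.trans hdist
    have h2 : κ1 * (lam c * c.1.sz) < κ2 * (lam c * c.1.side k) := by
      have h3 : κ1 * (lam c * c.1.sz) ≤ κ1 * (lam c * (κ0 * c.1.side k)) := by
        gcongr
        exact hasp k
      have h4 : κ1 * (lam c * (κ0 * c.1.side k)) = κ1 * κ0 * (lam c * c.1.side k) := by ring
      have h5 : κ1 * κ0 * (lam c * c.1.side k) < κ2 * (lam c * c.1.side k) :=
        mul_lt_mul_of_pos_right hκ (by have := hside k; positivity)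
      linarith
    have h3 := h.hole k
    have h4 : (Φ.B c).lo k ≤ f y k ∧ f y k ≤ (Φ.B c).hi k := hyc k
    rw [abs_le] at h1
    rcases hk with hk | hk <;> linarith [h1.1, h1.2, h3.1, h3.2, h4.1, h4.2]
  · have h := hC.tiny c hcX
    have h1 : f y = (Φ.B c).lo := by
      funext k
      have h4 : (Φ.B c).lo k ≤ f y k ∧ f y k ≤ (Φ.B c).hi k := hyc k
      rw [← h.pt] at h4
      exact le_antisymm h4.2 h4.1
    have := hx c hcX y hyO h1
    omega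

end holes3

end

end Crest.Agent.R096.Ls_222
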