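import Crest.Agent.R096.Ps5_273
import Crest.Agent.R096.Ls8_222
import Crest.Agent.R096.Ls9_222
import Crest.Agent.R096.Log2_582

/-!
Row 96 (S0127), helper552.  NO0-PRE [P4a] (276 `PreN`, `p < 3`): the levels.

* `exists_W`   : dyadic targets `W c`, `= h / 2` on the logs
* `base_ugs`   : upper gradient of `lev c ∘ f` along a base edge = derivative in its direction
* `levels_inst`: 222's `levsel2` on a tiling whose 1-cells are edges of the mesh `D` or patch edges: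
  `EN e ≤ (1 + κ') ∫_e Hw l + err e` on the base edges of direction `l`
-/

set_option autoImplicit false
set_option linter.style.longLine false
set_option linter.unusedSectionVars false

open MeasureTheory Set Filter
open scoped Topology ENNReal

namespace Crest.Agent.R096.Nsl_552

open Crest.Agent.R096.Msh_810 Crest.Agent.R096.Bas_731 Crest.Agent.R96.En3_199
  Crest.Agent.R96.En4_199 Crest.Agent.R96.En5_199 Crest.Agent.R96.En2_199 Crest.Agent.R96.En6_199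
  Crest.Agent.R96.En7_199 Crest.Agent.R96.En8_199 Crest.Agent.R96.En9_199
  Crest.Agent.R96.En11_199 Crest.Agent.R96.Sg1_199 Crest.Agent.R96.Acl_392
open Crest.Agent.R096.Msh_715 hiding P I
open Crest.Agent.R096.SkC1_961 (E3 Hom3 FoamD NN)
open Crest.Agent.R096.Bsp_628 Crest.Agent.R096.Brk1_582 Crest.Agent.R096.Brk3_582
open Crest.Agent.R096.Brk5_582 Crest.Agent.R096.Log2_582
open Crest.Agent.R096.Ls_222 Crest.Agent.R096.Ps_273

noncomputable section

/-! ### targets -/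

/-- the size of a log -/
theorem log_sz {q : ℕ} (hq : 1 ≤ q) {h : ℝ} (hh : 0 < h) {a : Fin 3 → ℝ} {B : Bx (Fin 3)}
    (hB : IsLog q a h B) : h ≤ B.sz ∧ B.sz ≤ 2 * q * h := by
  obtain ⟨k, j, m, rfl⟩ := hB
  have h1 := logB_side q hq k j m (ax (logA a h q k j m))
  have h2 : (logA a h q k j m).sz = h * (logB q k j m).side (ax (logA a h q k j m)) := by
    change (logA a h q k j m).side _ = _
    rw [logA, aff_side]
  rw [h2]
  constructor
  · nlinarith [h1.1]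
  · nlinarith [h1.2]

section foam

variable {δ κ0 R c0 : ℝ} {La Om : Set E3} {ι : Type}

/-- **dyadic targets**, `h / 2` on the logs -/
theorem exists_W (Φ : FoamD δ κ0 R c0 La) {q : ℕ} (hq : 1 ≤ q) {h : ℝ} (hh : 0 < h)
    (hd : ∃ k N : ℕ, h / 2 * 2 ^ k = N) (al : Fin 3 → ℝ) {κ3 : ℝ} (h8 : 8 ≤ κ3)
    (h4 : 4 * (q : ℝ) ≤ κ3) :
    ∃ W : Φ.F → ℝ, (∀ c, 0 < W c) ∧ (∀ c, ∃ k N : ℕ, W c * 2 ^ k = N) ∧
      (∀ c, c.1.sz ≤ κ3 * W c) ∧ (∀ c, W c ≤ κ3 * c.1.sz) ∧ (∀ c, W c ≤ c.1.sz) ∧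
      ∀ c : Φ.F, IsLog q al h c.1 → W c = h / 2 := by
  classical
  choose W h1 h2 h3 h5 using fun c : Φ.F => exists_dyadic (szF_pos Φ c)
  have hsz := szF_pos Φ
  refine ⟨fun c => if IsLog q al h c.1 then h / 2 else W c, ?_, ?_, ?_, ?_, ?_, ?_⟩
  · intro c
    simp only
    split_ifs
    · linarith
    · exact h1 c
  · intro c
    simp only
    split_ifs
    · exact hd
    · exact h5 c
  · intro c
    simp only
    split_ifs with hc
    · have := (log_sz hq hh hc).2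
      nlinarith
    · nlinarith [h1 c, h2 c]
  · intro c
    simp only
    split_ifs with hc
    · have := (log_sz hq hh hc).1
      nlinarith [hsz c]
    · nlinarith [hsz c, h3 c]
  · intro c
    simp only
    split_ifs with hc
    · have := (log_sz hq hh hc).1
      linarith
    · exact h3 c
  · intro c hc
    simp only [if_pos hc]

end foam

/-! ### upper gradients on the base edges -/

section ug

variable {E : Type*} [NormedAddCommGroup E] [NormedSpace ℝ E]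

/-- upper gradient along `[x, x + r e]` from absolute continuity on the line of direction `e` -/
theorem ugs_scale {Ω : Set E} {u g : E → ℝ} {x e : E} {r : ℝ} (hr : 0 < r)
    (hsub : sgm x (r • e) ⊆ Ω) (h : ACLat Ω u g e x) :
    UGs u (fun y => ENNReal.ofReal r * ‖g y‖ₑ) x (r • e) := by
  intro s t hs hst ht
  have hseg : x ∈ segIn Ω e (s * r) (t * r) := by
    intro τ hτ
    refine hsub ⟨τ / r, ⟨div_nonneg ((mul_nonneg hs hr.le).trans hτ.1) hr.le, ?_⟩, ?_⟩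
    · rw [div_le_one hr]
      exact hτ.2.trans (by nlinarith)
    · show x + (τ / r) • r • e = x + τ • e
      rw [smul_smul, div_mul_cancel₀ _ hr.ne']
  have hst' : s * r ≤ t * r := mul_le_mul_of_nonneg_right hst hr.le
  obtain ⟨h1, h2⟩ := h (s * r) (t * r) hst' hseg
  rw [smul_smul, smul_smul, h2, intervalIntegral.integral_of_le hst', ← Real.norm_eq_abs, ofReal_norm]
  refine (enorm_integral_le_lintegral_enorm _).trans (le_of_eq ?_)
  have himg : (fun τ : ℝ => τ * r) '' Ioc s t = Ioc (s * r) (t * r) := image_mul_right_Ioc s t hr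
  rw [← himg, lintegral_image_eq_lintegral_abs_deriv_mul measurableSet_Ioc
    (f' := fun _ => r)
    (fun t _ => by simpa using ((hasDerivAt_id t).mul_const r).hasDerivWithinAt)
    (fun s _ t _ hst => mul_right_cancel₀ hr.ne' hst)]
  refine lintegral_congr fun τ => ?_
  rw [abs_of_pos hr, smul_smul]

end ug

section inst

variable {Om : Set E3} {ι : Type} {T : Tiling Om ι} {D : Dat 3} {Ω : Set E3}

/-- the segment of a base edge -/
theorem sgm_base {σ : Idx 3} {l : Fin 3} (hσ : σ.J = {l}) (a : E3) :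
    sgm (vx a σ.k σ.z) ((1 / 2 ^ σ.k : ℝ) • (Pi.single l (1:ℝ) : E3)) = Dc a σ := by
  have hk : (0:ℝ) < 1 / 2 ^ σ.k := by positivity
  ext y
  rw [mem_edge_iff hσ]
  constructor
  · rintro ⟨τ, hτ, rfl⟩
    refine ⟨τ * (1 / 2 ^ σ.k), ⟨mul_nonneg hτ.1 hk.le, ?_⟩, ?_⟩
    · have := mul_le_mul_of_nonneg_right hτ.2 hk.le
      linarith
    · simp only [smul_smul]
      rw [← Pi.single_smul, smul_eq_mul, mul_one]
  · rintro ⟨s, hs, rfl⟩
    refine ⟨s / (1 / 2 ^ σ.k), ⟨div_nonneg hs.1 hk.le, (div_le_one hk).2 hs.2⟩, ?_⟩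
    simp only [smul_smul]
    rw [← Pi.single_smul, smul_eq_mul, mul_one, div_mul_cancel₀ _ hk.ne']

theorem abs_ev {e : Edg T} {σ : Cel D} {l : Fin 3} (hσ : σ.1.J = {l}) (he : e.1 = σ.c) :
    |ev e l| = 1 / 2 ^ σ.1.k := by
  have hs : sgm (ea e) (ev e) = Dc D.a σ.1 := (sgm_edg e).trans he
  have hk : (0:ℝ) < 1 / 2 ^ σ.1.k := by positivity
  rcases ends_of_edge hσ hs with ⟨-, h2⟩ | ⟨-, h2⟩
  · rw [h2, Pi.single_eq_same, abs_of_pos hk]
  · rw [h2, Pi.single_eq_same, abs_neg, abs_of_pos hk]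

/-- **upper gradient along a base edge** -/
theorem base_ugs {𝒞 : Type*} {v : 𝒞 → E3 → ℝ} {g : 𝒞 → Fin 3 → E3 → ℝ}
    (hgood : ∀ (k : ℕ) (z : Fin 3 → ℤ), Good Ω v g (vx D.a k z)) {e : Edg T} {σ : Cel D} {l : Fin 3}
    (hσ : σ.1.J = {l}) (he : e.1 = σ.c) (hO : e.1 ⊆ Ω) (c : 𝒞) :
    UGs (v c) (fun y => ENNReal.ofReal |ev e l| * ‖g c l y‖ₑ) (ea e) (ev e) := by
  have hk : (0:ℝ) < 1 / 2 ^ σ.1.k := by positivity
  rw [abs_ev hσ he]
  have hs : sgm (vx D.a σ.1.k σ.1.z) ((1 / 2 ^ σ.1.k : ℝ) • (Pi.single l (1:ℝ) : E3)) =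
      sgm (ea e) (ev e) := by
    rw [sgm_base hσ D.a, sgm_edg, he]; rfl
  refine ugs_congr (smul_ne_zero hk.ne' (by simp)) hs (ugs_scale hk ?_ (hgood σ.1.k σ.1.z c l).1)
  rw [hs, sgm_edg]
  exact hO

/-- the line integral over a base edge is finite -/
theorem base_fin {𝒞 : Type*} {v : 𝒞 → E3 → ℝ} {g : 𝒞 → Fin 3 → E3 → ℝ}
    (hg : ∀ c i, Measurable (g c i))
    (hgood : ∀ (k : ℕ) (z : Fin 3 → ℤ), Good Ω v g (vx D.a k z)) {e : Edg T} {σ : Cel D} {l : Fin 3}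
    (hσ : σ.1.J = {l}) (he : e.1 = σ.c) (hO : e.1 ⊆ Ω) (c : 𝒞) :
    li (fun y => ENNReal.ofReal |ev e l| * ‖g c l y‖ₑ) (ea e) (ev e) ≠ ∞ := by
  have hs : sgm (ea e) (ev e) = Dc D.a σ.1 := (sgm_edg e).trans he
  rw [li_const_mul ENNReal.ofReal_ne_top, li_eq_ic (hg c l).enorm hσ hs]
  refine ic_ne_top (hg c l) hσ ?_ ((hgood σ.1.k σ.1.z c l).2 l)
  rw [← hs, sgm_edg]
  exact hO

end inst

section lev

variable {δ κ0 R c0 : ℝ} {La Om : Set E3} {ι : Type} {Φ : FoamD δ κ0 R c0 La} {T : Tiling Om ι}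
  {f : E3 → E3} {D : Dat 3} {Ω : Set E3}

/-- **LEVELS ON THE MESH WITH PATCHES** -/
theorem levels_inst (hLa : IsOpen La) (hf : Hom3 f Om La) (T : Tiling Om ι) (D : Dat 3)
    (hh : ∀ e : Edg T, ∀ y ∈ sgm (ea e) (ev e), ∀ c, f y ∉ (Φ.B c).S)
    (hO : ∀ e : Edg T, e.1 ⊆ Ω) {g : Φ.F → Fin 3 → E3 → ℝ} (hg : ∀ c i, Measurable (g c i))
    (hgood : ∀ (k : ℕ) (z : Fin 3 → ℤ), Good Ω (us Φ f) g (vx D.a k z))
    (hpatch : ∀ e : Edg T, (¬ ∃ (σ : Cel D) (l : Fin 3), σ.1.J = {l} ∧ e.1 = σ.c) → ∀ c,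
      ∃ G : E3 → ℝ≥0∞, UGs (us Φ f c) G (ea e) (ev e) ∧ li G (ea e) (ev e) ≠ ∞)
    {err : Edg T → ℝ≥0∞} (herr : ∀ e, err e ≠ 0) {κp κ' : ℝ} (h0 : 0 < κ') (h1 : κ' ≤ 1)
    (hκ : κ' ≤ κp) {μ : ℝ} (hμ : μ ≤ κ' / 64) {κ3 : ℝ}
    {W : Φ.F → ℝ} (hW0 : ∀ c, 0 < W c) (hWd : ∀ c, ∃ k N : ℕ, W c * 2 ^ k = N)
    (hW1 : ∀ c, c.1.sz ≤ κ3 * W c) (hW2 : ∀ c, W c ≤ κ3 * c.1.sz)
    {Z : Φ.F → Set ℝ} (hZ : ∀ c, volume (Z c) = 0) (m0 : Φ.F → ℕ) :
    ∃ (κ : Φ.F → ℕ) (L : Φ.F → Finset ℝ),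
      Mbf_337.Levels Φ T f κp μ κ3 Z m0 κ L ∧
      (∀ c, ((L c).card : ℝ) * (2 : ℝ)⁻¹ ^ κ c = W c) ∧
      (∀ (e : Edg T) (σ : Cel D) (l : Fin 3), σ.1.J = {l} → e.1 = σ.c →
        EN (us Φ f) κ L e ≤ ENNReal.ofReal (1 + κ') *
          ic (Hw (fun c => ENNReal.ofReal (W c)) g l) D.a σ.1 + err e) ∧
      ∀ i, NN Φ T f κ L i ≤ ∑ e ∈ eIn T i, EN (us Φ f) κ L e := by
  classical
  have : Countable Φ.F := countable_F Φ
  -- the upper gradients
  have hex : ∀ (c : Φ.F) (e : Edg T), ∃ G : E3 → ℝ≥0∞, UGs (us Φ f c) G (ea e) (ev e) ∧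
      li G (ea e) (ev e) ≠ ∞ ∧ ∀ (σ : Cel D) (l : Fin 3), σ.1.J = {l} → e.1 = σ.c →
        G = fun y => ENNReal.ofReal |ev e l| * ‖g c l y‖ₑ := by
    intro c e
    by_cases he : ∃ (σ : Cel D) (l : Fin 3), σ.1.J = {l} ∧ e.1 = σ.c
    · obtain ⟨σ, l, hσ, hec⟩ := he
      refine ⟨_, base_ugs hgood hσ hec (hO e) c, base_fin hg hgood hσ hec (hO e) c, ?_⟩
      intro σ' l' hσ' hec'
      have hl : l = l' := by
        by_contra hne
        have e1 := ends_of_edge hσ ((sgm_edg e).trans hec)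
        have e2 := ends_of_edge hσ' ((sgm_edg e).trans hec')
        have hk : (1 / 2 ^ σ.1.k : ℝ) ≠ 0 := by positivity
        have e3 : ev e l = 0 := by
          rcases e2 with ⟨-, h2⟩ | ⟨-, h2⟩ <;> rw [h2, Pi.single_eq_of_ne hne]
        rcases e1 with ⟨-, h2⟩ | ⟨-, h2⟩
        · rw [h2, Pi.single_eq_same] at e3
          exact hk e3
        · rw [h2, Pi.single_eq_same, neg_eq_zero] at e3
          exact hk e3
      rw [hl]
    · obtain ⟨G, hG1, hG2⟩ := hpatch e he c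
      exact ⟨G, hG1, hG2, fun σ l hσ hec => absurd ⟨σ, l, hσ, hec⟩ he⟩
  choose G hG1 hG2 hG3 using hex
  obtain ⟨κ, L, -, hLe, -, hcard, hen, -, -⟩ := levsel2 hLa hf T hh (g := G) hG1 hG2
    (κ' := fun _ => Empty) (X := fun _ j => j.elim) (fun _ j => j.elim) (J := fun _ j => j.elim)
    (fun _ j => j.elim) (fun _ j => j.elim) (e' := fun _ => 1) (fun _ => one_pos) herr h0 h1 hμ hW0
    hWd hW1 hW2 hZ (Bad := fun _ => ∅) (fun _ => MeasurableSet.empty) (fun _ => by simp) m0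
  refine ⟨κ, L, ?_, hcard, ?_, fun i => ?_⟩
  · exact
      { lf := hLe.lf
        marg := hLe.marg
        many := hLe.many
        few := hLe.few
        large := hLe.large
        dens := fun c u v huv => (hLe.dens c u v huv).trans (by
          have : (0:ℝ) ≤ (v - u) * (L c).card := mul_nonneg (by linarith) (Nat.cast_nonneg _)
          nlinarith)
        off := hLe.off
        vert := hLe.vert
        fin := hLe.fin
        sep := hLe.sep }
  · intro e σ l hσ he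
    refine (hen e).trans (add_le_add (le_of_eq ?_) le_rfl)
    have hs : sgm (ea e) (ev e) = Dc D.a σ.1 := (sgm_edg e).trans he
    have hHw : Measurable (Hw (fun c => ENNReal.ofReal (W c)) g l) := measurable_Hw hg _ l
    rw [← li_eq_ic hHw hσ hs, ← li_const_mul ENNReal.ofReal_ne_top, ← li_const_mul ENNReal.ofReal_ne_top]
    unfold li
    refine lintegral_congr fun τ => ?_
    simp only [Hw]
    rw [← ENNReal.tsum_mul_left, ← ENNReal.tsum_mul_left]
    refine tsum_congr fun c => ?_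
    rw [hG3 c e σ l hσ he, ENNReal.ofReal_mul (by linarith)]
    ring
  · exact NN_le hLe.vert i

end lev

end

end Crest.Agent.R096.Nsl_552
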