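import Mathlib

/-!
# Row 96, NO0 p >= 3, mesh part, leaf [X2] of 962 #11402 (helper473): an open set around a small set

`X ⊆ Om` measurable, `Om` open, `∫_Om G ^ p < ⊤`: an open `R'`, `X ⊆ R' ⊆ Om`, with
`volume R' ≤ volume X + e` and `∫_R' G ^ p ≤ ∫_X G ^ p + e`.
-/

set_option autoImplicit false

open MeasureTheory Set Filter
open scoped Topology ENNReal

namespace Crest.Agent.R096.Nx2_473

variable {E : Type*} [TopologicalSpace E] [MeasurableSpace E] [BorelSpace E]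

/-- two outer regular conditions at once -/
theorem exists_open {μ : Measure E} {F : E → ℝ≥0∞} {Om X : Set E} (hOm : IsOpen Om)
    (hX : MeasurableSet X) (hXO : X ⊆ Om) [μ.OuterRegular]
    [((μ.restrict Om).withDensity F).OuterRegular] (hv : μ X ≠ ⊤)
    (hF : ∫⁻ x in X, F x ∂μ ≠ ⊤) {e : ℝ≥0∞} (he : e ≠ 0) :
    ∃ R', IsOpen R' ∧ X ⊆ R' ∧ R' ⊆ Om ∧ μ R' ≤ μ X + e ∧
      ∫⁻ x in R', F x ∂μ ≤ (∫⁻ x in X, F x ∂μ) + e := by
  obtain ⟨V, hXV, hV, hVe⟩ := X.exists_isOpen_lt_add (μ := μ) hv he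
  have h1 : ((μ.restrict Om).withDensity F) X = ∫⁻ x in X, F x ∂μ := by
    rw [withDensity_apply _ hX, Measure.restrict_restrict hX, inter_eq_self_of_subset_left hXO]
  obtain ⟨W, hXW, hW, hWe⟩ := X.exists_isOpen_lt_add (μ := (μ.restrict Om).withDensity F)
    (by rw [h1]; exact hF) he
  refine ⟨V ∩ W ∩ Om, (hV.inter hW).inter hOm, fun x hx => ⟨⟨hXV hx, hXW hx⟩, hXO hx⟩,
    inter_subset_right, ?_, ?_⟩
  · exact (measure_mono (inter_subset_left.trans inter_subset_left)).trans hVe.le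
  · have h2 : MeasurableSet (V ∩ W ∩ Om) := ((hV.inter hW).inter hOm).measurableSet
    have h3 : ∫⁻ x in V ∩ W ∩ Om, F x ∂μ = ((μ.restrict Om).withDensity F) (V ∩ W ∩ Om) := by
      rw [withDensity_apply _ h2, Measure.restrict_restrict h2,
        inter_eq_self_of_subset_left inter_subset_right]
    rw [h3, ← h1]
    exact (measure_mono (inter_subset_left.trans inter_subset_right)).trans hWe.le

/-- **[X2]** in `Fin n → ℝ` -/
theorem exists_R {n : ℕ} {Om X : Set (Fin n → ℝ)} (hOm : IsOpen Om) (hX : MeasurableSet X)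
    (hXO : X ⊆ Om) (hv : volume X ≠ ⊤) {G : (Fin n → ℝ) → ℝ≥0∞} {p : ℝ}
    (hF : ∫⁻ x in Om, G x ^ p < ⊤) {e : ℝ≥0∞} (he : e ≠ 0) :
    ∃ R', IsOpen R' ∧ X ⊆ R' ∧ R' ⊆ Om ∧ volume R' ≤ volume X + e ∧
      ∫⁻ x in R', G x ^ p ≤ (∫⁻ x in X, G x ^ p) + e := by
  have hfin : IsFiniteMeasure ((volume.restrict Om).withDensity fun x => G x ^ p) :=
    isFiniteMeasure_withDensity hF.ne
  exact exists_open (μ := (volume : Measure (Fin n → ℝ))) (F := fun x => G x ^ p) hOm hX hXO hv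
    (ne_top_of_le_ne_top hF.ne (lintegral_mono_set hXO)) he

/-- **[X2]**, bounded `Om` -/
theorem exists_R' {n : ℕ} {Om X : Set (Fin n → ℝ)} (hOm : IsOpen Om)
    (hb : Bornology.IsBounded Om) (hX : MeasurableSet X)
    (hXO : X ⊆ Om) {G : (Fin n → ℝ) → ℝ≥0∞} {p : ℝ}
    (hF : ∫⁻ x in Om, G x ^ p < ⊤) {e : ℝ≥0∞} (he : e ≠ 0) :
    ∃ R', IsOpen R' ∧ MeasurableSet R' ∧ X ⊆ R' ∧ R' ⊆ Om ∧ volume R' ≤ volume X + e ∧
      ∫⁻ x in R', G x ^ p ≤ (∫⁻ x in X, G x ^ p) + e := by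
  obtain ⟨R', h1, h2, h3, h4, h5⟩ := exists_R hOm hX hXO
    (ne_top_of_le_ne_top hb.measure_lt_top.ne (measure_mono hXO)) hF he
  exact ⟨R', h1, h1.measurableSet, h2, h3, h4, h5⟩

end Crest.Agent.R096.Nx2_473
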