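/-
helper273, row 96, NO0-PRE [P3] (582 #10220), part 1: the shift of the base mesh for functions which
are only defined off countably many points (the holes); the mesh lines avoid countable sets.
-/
import Mathlib
import Crest.Agent.R96.En11_199

set_option autoImplicit false

open MeasureTheory Set Filter
open scoped Topology ENNReal

namespace Crest.Agent.R096.Ps_273

open Crest.Agent.R096.Msh_810 Crest.Agent.R096.Bas_731 Crest.Agent.R96.En3_199
  Crest.Agent.R96.En4_199 Crest.Agent.R96.En5_199 Crest.Agent.R96.En2_199 Crest.Agent.R96.En6_199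
  Crest.Agent.R96.En7_199 Crest.Agent.R96.En8_199 Crest.Agent.R96.En9_199
  Crest.Agent.R96.En11_199
  Crest.Agent.R96.Acl_392 Crest.Agent.R96.Sob2_199 Crest.Agent.R96.Sob3_199

noncomputable section

variable {n : ℕ}

/-- a.e. shift avoids a given value of a coordinate -/
theorem ae_coord (i : Fin n) (t : ℝ) : ∀ᵐ a : Fin n → ℝ, a i ≠ t := by
  rw [ae_iff]
  have h : {a : Fin n → ℝ | ¬ a i ≠ t} = {a | a i = t} := by ext; simp
  rw [h]
  exact Measure.pi_hyperplane (fun _ => (volume : Measure ℝ)) i t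

/-- **the hyperplanes of the meshes avoid a countable set of points** for a.e. shift -/
theorem ae_avoid_countable {Z : Set (Fin n → ℝ)} (hZ : Z.Countable) :
    ∀ᵐ a : Fin n → ℝ, ∀ x ∈ Z, ∀ (i : Fin n) (k : ℕ) (z : ℤ), x i ≠ a i + z / 2 ^ k := by
  rw [ae_ball_iff hZ]
  intro x _
  rw [ae_all_iff]; intro i
  rw [ae_all_iff]; intro k
  rw [ae_all_iff]; intro z
  filter_upwards [ae_coord i (x i - z / 2 ^ k)] with a ha h
  apply ha
  linarith

/-- a cell of the mesh which is not a full cube lies in a hyperplane of the mesh -/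
theorem not_mem_of_avoid {a : Fin n → ℝ} {x : Fin n → ℝ}
    (h : ∀ (i : Fin n) (k : ℕ) (z : ℤ), x i ≠ a i + z / 2 ^ k) {σ : Idx n}
    (hσ : σ.J ≠ Finset.univ) : x ∉ Dc a σ := by
  intro hx
  obtain ⟨i, hi⟩ : ∃ i, i ∉ σ.J := by
    by_contra hcon
    push Not at hcon
    exact hσ (Finset.eq_univ_iff_forall.2 hcon)
  have h1 := (hx i).2 hi
  apply h i σ.k (σ.z i)
  unfold ps at h1
  have h2 : (2:ℝ) ^ σ.k ≠ 0 := by positivity
  field_simp
  linarith

/-- the cell functions of the direction `i` above the constant `s i` -/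
def Xs {𝒞 : Type*} (w : 𝒞 → ℝ≥0∞) (g : 𝒞 → Fin n → (Fin n → ℝ) → ℝ) (s : Fin n → ℝ≥0∞) (i : Fin n)
    (x : Fin n → ℝ) : ℝ≥0∞ := Hw w g i x - s i

theorem measurable_Xs {𝒞 : Type*} [Countable 𝒞] {g : 𝒞 → Fin n → (Fin n → ℝ) → ℝ}
    (hg : ∀ c i, Measurable (g c i)) (w : 𝒞 → ℝ≥0∞) (s : Fin n → ℝ≥0∞) (i : Fin n) :
    Measurable (Xs w g s i) := (measurable_Hw hg w i).sub_const _

theorem measurable_GGw {𝒞 : Type*} [Countable 𝒞] {g : 𝒞 → Fin n → (Fin n → ℝ) → ℝ}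
    (hg : ∀ c i, Measurable (g c i)) (w : 𝒞 → ℝ≥0∞) : Measurable (GGw w g) :=
  Measurable.tsum fun c => (measurable_G1 (hg c)).const_mul _

/-- the punctures do not count -/
theorem setLIntegral_punct {Om Ω : Set (Fin n → ℝ)} (hn : 1 ≤ n) (hsub : Ω ⊆ Om)
    (hc : (Om \ Ω).Countable) (F : (Fin n → ℝ) → ℝ≥0∞) :
    ∫⁻ x in Om, F x = ∫⁻ x in Ω, F x := by
  have : NeZero n := ⟨by omega⟩
  have : Nonempty (Fin n) := ⟨0⟩
  have h0 : volume (Om \ Ω) = 0 := hc.measure_zero _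
  apply setLIntegral_congr
  rw [ae_eq_set]
  refine ⟨h0, ?_⟩
  rw [sdiff_eq_empty.2 hsub]; simp

/-- **THE SHIFT OF THE BASE MESH** (`Ω` = domain without the punctures).  All lines good on `Ω`, no
cell of positive codimension meets a puncture, the sharp energies `X i = Hw i - s i` of the edges of
direction `i` (exponents `p` and `1`), the energies of the cubes on the regions `R j`. -/
theorem exists_shift3 (D : Dat n) (hn : 1 ≤ n) {Ω : Set (Fin n → ℝ)} (hΩ : IsOpen Ω)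
    (hsub : Ω ⊆ D.Om) (hcount : (D.Om \ Ω).Countable) {𝒞 : Type*} [Countable 𝒞]
    {v : 𝒞 → (Fin n → ℝ) → ℝ} (hv : ∀ c, ContinuousOn (v c) Ω)
    {g : 𝒞 → Fin n → (Fin n → ℝ) → ℝ} (hg : ∀ c i, Measurable (g c i))
    (hwd : ∀ c i, WD Ω volume (v c) (g c i) (Pi.single i (1:ℝ))) (w : 𝒞 → ℝ≥0∞)
    (s : Fin n → ℝ≥0∞) {p : ℝ} (hp : 1 ≤ p) {ι : Type*} [Countable ι]
    {R : ι → Set (Fin n → ℝ)} (hR : ∀ j, MeasurableSet (R j)) {κ : ι → ℝ≥0∞} (hκ0 : ∀ j, κ j ≠ 0)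
    (hκ : n * ∑' j, (κ j)⁻¹ < 1 / 2) {Q : (Fin n → ℝ) → Prop} (hQ : ∀ᵐ a, Q a) :
    ∃ a ∈ box n, Q a ∧ (∀ (k : ℕ) (z : Fin n → ℤ), Good Ω v g (vx a k z)) ∧
      (∀ x ∈ D.Om \ Ω, ∀ (i : Fin n) (k : ℕ) (z : ℤ), x i ≠ a i + z / 2 ^ k) ∧
      (∀ i, Ed (D.sh a) i p (Xs w g s i) ≤ (8 * n) * ∫⁻ x in Ω, Xs w g s i x ^ p) ∧
      (∀ i, Ed (D.sh a) i 1 (Xs w g s i) ≤ (8 * n) * ∫⁻ x in Ω, Xs w g s i x) ∧
      ∀ j, S (D.sh a) p ((R j).indicator (GGw w g)) ≤
        κ j * (KE n p * ∫⁻ x in Ω ∩ R j, GGw w g x ^ p) := by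
  have hn0 : (n:ℝ≥0∞) ≠ 0 := by exact_mod_cast (by omega : n ≠ 0)
  have hnt : (n:ℝ≥0∞) ≠ ⊤ := ENNReal.natCast_ne_top n
  have hgood := ae_shift hΩ hv hwd
  have hav := ae_avoid_countable hcount
  have hc' : ∀ j : Fin n × Bool, (4 * n : ℝ≥0∞) ≠ 0 := fun _ => by positivity
  have hs2 : (∑' _j : Fin n × Bool, ((4 * n : ℝ≥0∞))⁻¹) = 1 / 2 := by
    rw [tsum_fintype, Finset.sum_const, Finset.card_univ, Fintype.card_prod, Fintype.card_fin,
      Fintype.card_bool, nsmul_eq_mul, ENNReal.mul_inv (Or.inl (by norm_num)) (Or.inl (by norm_num))]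
    push_cast
    calc (n:ℝ≥0∞) * 2 * (4⁻¹ * (n:ℝ≥0∞)⁻¹) = (n * (n:ℝ≥0∞)⁻¹) * (2 * 4⁻¹) := by ring
      _ = 2 * 4⁻¹ := by rw [ENNReal.mul_inv_cancel hn0 hnt, one_mul]
      _ = 1 / 2 := by
        rw [show (4:ℝ≥0∞) = 2 * 2 by norm_num, ENNReal.mul_inv (Or.inl (by norm_num))
          (Or.inl (by norm_num)), ← mul_assoc, ENNReal.mul_inv_cancel (by norm_num) (by norm_num),
          one_mul, one_div]
  have hsum : n * ∑' j, (κ j)⁻¹ + ∑' _j : Fin n × Bool, ((4 * n : ℝ≥0∞))⁻¹ < 1 := by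
    rw [hs2]
    calc n * ∑' j, (κ j)⁻¹ + 1 / 2 < 1 / 2 + 1 / 2 := ENNReal.add_lt_add_right (by norm_num) hκ
      _ = 1 := ENNReal.add_halves 1
  obtain ⟨a, ha, ⟨hQa, hga, hava⟩, h1, h2⟩ := exists_shift2 D
    (G := fun j => (R j).indicator (GGw w g))
    (fun j => (measurable_GGw hg w).indicator (hR j)) (p := fun _ => p) (fun _ => hp) hκ0
    (X := fun j : Fin n × Bool => Xs w g s j.1) (fun j => measurable_Xs hg w s j.1)
    (fun j => j.1) (q := fun j => if j.2 then p else 1) (fun j => by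
      show 1 ≤ if j.2 then p else 1
      split_ifs <;> linarith) hc' hsum (hQ.and (hgood.and hav))
  have e8 : (4 * n : ℝ≥0∞) * 2 = 8 * n := by ring
  refine ⟨a, ha, hQa, hga, hava, fun i => ?_, fun i => ?_, fun j => (h1 j).trans ?_⟩
  · have h3 := h2 (i, true)
    simp only [if_true] at h3
    rw [setLIntegral_punct hn hsub hcount, ← mul_assoc, e8] at h3
    exact h3
  · have h3 := h2 (i, false)
    simp only [Bool.false_eq_true, if_false, ENNReal.rpow_one] at h3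
    rw [setLIntegral_punct hn hsub hcount, ← mul_assoc, e8] at h3
    exact h3
  · refine mul_le_mul' le_rfl (mul_le_mul' le_rfl ?_)
    rw [setLIntegral_punct hn hsub hcount]
    have h4 : ∀ x, (R j).indicator (GGw w g) x ^ p = (R j).indicator (fun x => GGw w g x ^ p) x := by
      intro x
      by_cases hx : x ∈ R j
      · rw [indicator_of_mem hx, indicator_of_mem hx]
      · rw [indicator_of_notMem hx, indicator_of_notMem hx, ENNReal.zero_rpow_of_pos (by linarith)]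
    simp only [h4]
    rw [setLIntegral_indicator (hR j), inter_comm]

end

end Crest.Agent.R096.Ps_273
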