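/-
helper273, row 96, NO0-PRE [P3] = [SHIFT2] (582 #10220, #10709), part 6: one shift for the energies of
the base mesh and for countably many functions of the shift (Markov).
-/
import Mathlib
import Crest.Agent.R096.Ps1_273

set_option autoImplicit false

open MeasureTheory Set Filter
open scoped Topology ENNReal

namespace Crest.Agent.R096.Ps_273

open Crest.Agent.R096.Msh_810 Crest.Agent.R096.Bas_731 Crest.Agent.R96.En3_199
  Crest.Agent.R96.En4_199 Crest.Agent.R96.En5_199 Crest.Agent.R96.En2_199 Crest.Agent.R96.En6_199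
  Crest.Agent.R96.En7_199 Crest.Agent.R96.En8_199 Crest.Agent.R96.En9_199
  Crest.Agent.R96.En11_199
  Crest.Agent.R96.Acl_392 Crest.Agent.R96.Sob2_199 Crest.Agent.R96.Sob3_199

noncomputable section

variable {n : ℕ}

/-- Markov in the box -/
theorem markov {H : (Fin n → ℝ) → ℝ≥0∞} (hH : Measurable H) {θ m : ℝ≥0∞}
    (hθ : ∫⁻ a in box n, H a ≤ θ) (hm : m ≠ 0) :
    volume {a ∈ box n | m * θ < H a} ≤ m⁻¹ := by
  have hset : {a ∈ box n | m * θ < H a} = {a | m * θ < H a} ∩ box n := by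
    ext a; simp only [mem_ofPred_eq, mem_inter_iff, and_comm]
  rw [hset, ← Measure.restrict_apply (measurableSet_lt measurable_const hH)]
  rcases eq_or_ne θ 0 with h0 | h0
  · rw [h0, nonpos_iff_eq_zero, lintegral_eq_zero_iff hH] at hθ
    have h1 : (volume.restrict (box n)) {a | m * θ < H a} = 0 := by
      rw [h0, mul_zero]
      have h3 : ∀ᵐ a ∂volume.restrict (box n), ¬ (0 < H a) := by
        filter_upwards [hθ] with a ha
        rw [ha]; simp
      have h4 := ae_iff.1 h3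
      simp only [not_not] at h4
      exact h4
    rw [h1]; exact zero_le
  rcases eq_or_ne (m * θ) ⊤ with ht | ht
  · have h1 : {a | m * θ < H a} = ∅ := by
      rw [ht]
      ext a; simp
    rw [h1, measure_empty]; exact zero_le
  have hmt : m * θ ≠ 0 := mul_ne_zero hm h0
  have hmf : m ≠ ⊤ := by
    intro h
    rw [h, ENNReal.top_mul h0] at ht
    exact ht rfl
  have hθf : θ ≠ ⊤ := by
    intro h
    rw [h, ENNReal.mul_top hm] at ht
    exact ht rfl
  calc (volume.restrict (box n)) {a | m * θ < H a}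
      ≤ (volume.restrict (box n)) {a | m * θ ≤ H a} := by
        refine measure_mono fun a ha => ?_
        rw [mem_ofPred_eq] at ha ⊢
        exact ha.le
    _ ≤ (∫⁻ a in box n, H a) / (m * θ) := meas_ge_le_lintegral_div hH.aemeasurable hmt ht
    _ ≤ θ / (m * θ) := by gcongr
    _ = m⁻¹ := by
        rw [ENNReal.div_eq_inv_mul, ENNReal.mul_inv (Or.inl hm) (Or.inl hmf), mul_assoc,
          ENNReal.inv_mul_cancel h0 hθf, mul_one]

/-- **[SHIFT2]: ONE SHIFT OF THE BASE MESH**: `exists_shift3` with countably many functions `H k` of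
the shift, `∫_box H k ≤ θ k`. -/
theorem exists_shift4 (D : Dat n) (hn : 1 ≤ n) {Ω : Set (Fin n → ℝ)} (hΩ : IsOpen Ω)
    (hsub : Ω ⊆ D.Om) (hcount : (D.Om \ Ω).Countable) {𝒞 : Type*} [Countable 𝒞]
    {v : 𝒞 → (Fin n → ℝ) → ℝ} (hv : ∀ c, ContinuousOn (v c) Ω)
    {g : 𝒞 → Fin n → (Fin n → ℝ) → ℝ} (hg : ∀ c i, Measurable (g c i))
    (hwd : ∀ c i, WD Ω volume (v c) (g c i) (Pi.single i (1:ℝ))) (w : 𝒞 → ℝ≥0∞)
    (s : Fin n → ℝ≥0∞) {p : ℝ} (hp : 1 ≤ p) {ι : Type*} [Countable ι]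
    {R : ι → Set (Fin n → ℝ)} (hR : ∀ j, MeasurableSet (R j)) {κ : ι → ℝ≥0∞} (hκ0 : ∀ j, κ j ≠ 0)
    {η : Type*} [Countable η] {H : η → (Fin n → ℝ) → ℝ≥0∞} (hH : ∀ k, Measurable (H k))
    {θ : η → ℝ≥0∞} (hθ : ∀ k, ∫⁻ a in box n, H k a ≤ θ k) {m : η → ℝ≥0∞} (hm : ∀ k, m k ≠ 0)
    (hκ : n * ∑' j, (κ j)⁻¹ + ∑' k, (m k)⁻¹ < 1 / 2) {Q : (Fin n → ℝ) → Prop} (hQ : ∀ᵐ a, Q a) :
    ∃ a ∈ box n, Q a ∧ (∀ (k : ℕ) (z : Fin n → ℤ), Good Ω v g (vx a k z)) ∧
      (∀ x ∈ D.Om \ Ω, ∀ (i : Fin n) (k : ℕ) (z : ℤ), x i ≠ a i + z / 2 ^ k) ∧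
      (∀ i, Ed (D.sh a) i p (Xs w g s i) ≤ (8 * n) * ∫⁻ x in Ω, Xs w g s i x ^ p) ∧
      (∀ i, Ed (D.sh a) i 1 (Xs w g s i) ≤ (8 * n) * ∫⁻ x in Ω, Xs w g s i x) ∧
      (∀ j, S (D.sh a) p ((R j).indicator (GGw w g)) ≤
        κ j * (KE n p * ∫⁻ x in Ω ∩ R j, GGw w g x ^ p)) ∧
      ∀ k, H k a ≤ m k * θ k := by
  have hn0 : (n:ℝ≥0∞) ≠ 0 := by exact_mod_cast (by omega : n ≠ 0)
  have hnt : (n:ℝ≥0∞) ≠ ⊤ := ENNReal.natCast_ne_top n
  have hgood := ae_shift hΩ hv hwd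
  have hav := ae_avoid_countable hcount
  have hP := hQ.and (hgood.and hav)
  -- bad sets
  have b1 := volume_bad_S (D := D) (g := fun j => (R j).indicator (GGw w g))
    (fun j => (measurable_GGw hg w).indicator (hR j)) (p := fun _ => p) (fun _ => hp) hκ0
  have b2 := volume_bad_E (D := D) (X := fun j : Fin n × Bool => Xs w g s j.1)
    (fun j => measurable_Xs hg w s j.1) (fun j => j.1) (p := fun j => if j.2 then p else 1)
    (fun j => by
      show 1 ≤ if j.2 then p else 1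
      split_ifs <;> linarith) (c := fun _ => (4 * n : ℝ≥0∞)) (fun _ => by positivity)
  have hs2 : (∑' _j : Fin n × Bool, ((4 * n : ℝ≥0∞))⁻¹) = 1 / 2 := by
    rw [tsum_fintype, Finset.sum_const, Finset.card_univ, Fintype.card_prod, Fintype.card_fin,
      Fintype.card_bool, nsmul_eq_mul, ENNReal.mul_inv (Or.inl (by norm_num)) (Or.inl (by norm_num))]
    push_cast
    calc (n:ℝ≥0∞) * 2 * (4⁻¹ * (n:ℝ≥0∞)⁻¹) = (n * (n:ℝ≥0∞)⁻¹) * (2 * 4⁻¹) := by ring
      _ = 2 * 4⁻¹ := by rw [ENNReal.mul_inv_cancel hn0 hnt, one_mul]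
      _ = 1 / 2 := by
        rw [show (4:ℝ≥0∞) = 2 * 2 by norm_num, ENNReal.mul_inv (Or.inl (by norm_num))
          (Or.inl (by norm_num)), ← mul_assoc, ENNReal.mul_inv_cancel (by norm_num) (by norm_num),
          one_mul, one_div]
  have b3 : volume (⋃ k, {a ∈ box n | m k * θ k < H k a}) ≤ ∑' k, (m k)⁻¹ :=
    (measure_iUnion_le _).trans (ENNReal.tsum_le_tsum fun k => markov (hH k) (hθ k) (hm k))
  by_contra hcon
  push Not at hcon
  set B1 : Set (Fin n → ℝ) := {a ∈ box n | ∃ i, κ i * (KE n p * ∫⁻ x in D.Om,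
    (R i).indicator (GGw w g) x ^ p) < S (D.sh a) p ((R i).indicator (GGw w g))} with hB1
  set B2 : Set (Fin n → ℝ) := {a ∈ box n | ∃ j : Fin n × Bool, (4 * n : ℝ≥0∞) *
    (2 * ∫⁻ x in D.Om, Xs w g s j.1 x ^ (if j.2 then p else 1)) <
    Ed (D.sh a) j.1 (if j.2 then p else 1) (Xs w g s j.1)} with hB2
  have e8 : (4 * n : ℝ≥0∞) * 2 = 8 * n := by ring
  have hsub : box n ⊆ ((B1 ∪ B2) ∪ ⋃ k, {a ∈ box n | m k * θ k < H k a}) ∪
      {a | ¬ (Q a ∧ (∀ (k : ℕ) (z : Fin n → ℤ), Good Ω v g (vx a k z)) ∧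
        ∀ x ∈ D.Om \ Ω, ∀ (i : Fin n) (k : ℕ) (z : ℤ), x i ≠ a i + z / 2 ^ k)} := by
    intro a ha
    by_cases hPa : Q a ∧ (∀ (k : ℕ) (z : Fin n → ℤ), Good Ω v g (vx a k z)) ∧
        ∀ x ∈ D.Om \ Ω, ∀ (i : Fin n) (k : ℕ) (z : ℤ), x i ≠ a i + z / 2 ^ k
    swap
    · right; exact hPa
    left
    by_contra hnot
    simp only [mem_union, not_or, mem_iUnion, not_exists] at hnot
    obtain ⟨⟨n1, n2⟩, n3⟩ := hnot
    have h1 : ∀ j, S (D.sh a) p ((R j).indicator (GGw w g)) ≤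
        κ j * (KE n p * ∫⁻ x in Ω ∩ R j, GGw w g x ^ p) := by
      intro j
      have h2 : ¬ (κ j * (KE n p * ∫⁻ x in D.Om, (R j).indicator (GGw w g) x ^ p) <
          S (D.sh a) p ((R j).indicator (GGw w g))) := fun h => n1 ⟨ha, j, h⟩
      rw [not_lt] at h2
      refine h2.trans (mul_le_mul' le_rfl (mul_le_mul' le_rfl ?_))
      rw [setLIntegral_punct hn hsub hcount]
      have h4 : ∀ x, (R j).indicator (GGw w g) x ^ p =
          (R j).indicator (fun x => GGw w g x ^ p) x := by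
        intro x
        by_cases hx : x ∈ R j
        · rw [indicator_of_mem hx, indicator_of_mem hx]
        · rw [indicator_of_notMem hx, indicator_of_notMem hx,
            ENNReal.zero_rpow_of_pos (by linarith)]
      simp only [h4]
      rw [setLIntegral_indicator (hR j), inter_comm]
    have h2 : ∀ j : Fin n × Bool, Ed (D.sh a) j.1 (if j.2 then p else 1) (Xs w g s j.1) ≤
        (8 * n) * ∫⁻ x in Ω, Xs w g s j.1 x ^ (if j.2 then p else 1) := by
      intro j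
      have h3 : ¬ ((4 * n : ℝ≥0∞) * (2 * ∫⁻ x in D.Om, Xs w g s j.1 x ^ (if j.2 then p else 1)) <
          Ed (D.sh a) j.1 (if j.2 then p else 1) (Xs w g s j.1)) := fun h => n2 ⟨ha, j, h⟩
      rw [not_lt, ← mul_assoc, e8, setLIntegral_punct hn hsub hcount] at h3
      exact h3
    have h3 : ∀ k, H k a ≤ m k * θ k := fun k => by
      by_contra hk
      rw [not_le] at hk
      exact n3 k ⟨ha, hk⟩
    obtain ⟨k, hk⟩ := hcon a ha hPa.1 hPa.2.1 hPa.2.2 (fun i => h2 (i, true)) (fun i => by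
      have h4 := h2 (i, false)
      simp only [Bool.false_eq_true, if_false, ENNReal.rpow_one] at h4
      exact h4) h1
    exact absurd (h3 k) (not_le.2 hk)
  have h2 := measure_mono (μ := (volume : Measure (Fin n → ℝ))) hsub
  have h3 := h2.trans (measure_union_le _ _)
  rw [volume_box, ae_iff.1 hP, add_zero] at h3
  have h4 : volume ((B1 ∪ B2) ∪ ⋃ k, {a ∈ box n | m k * θ k < H k a}) ≤
      (n * ∑' j, (κ j)⁻¹ + 1 / 2) + ∑' k, (m k)⁻¹ := by
    refine (measure_union_le _ _).trans (add_le_add ((measure_union_le _ _).trans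
      (add_le_add b1 ?_)) b3)
    rw [← hs2]
    exact b2
  have h5 : (n * ∑' j, (κ j)⁻¹ + 1 / 2) + ∑' k, (m k)⁻¹ < 1 := by
    calc (n * ∑' j, (κ j)⁻¹ + 1 / 2) + ∑' k, (m k)⁻¹ =
        (n * ∑' j, (κ j)⁻¹ + ∑' k, (m k)⁻¹) + 1 / 2 := by ring
      _ < 1 / 2 + 1 / 2 := ENNReal.add_lt_add_right (by norm_num) hκ
      _ = 1 := ENNReal.add_halves 1
  exact absurd (h3.trans h4) (not_le.2 h5)

end

end Crest.Agent.R096.Ps_273
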