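/-
helper273, row 96, NO0-PRE [SHIFT2], part 11: the measure of the set of the BAD SHIFTS, arbitrary open
set `Ω ⊆ D.Om` (962 #10931 (4a)); the derivatives are extended by zero.
-/
import Mathlib
import Crest.Agent.R096.Ps6_273

set_option autoImplicit false

open MeasureTheory Set Filter
open scoped Topology ENNReal

namespace Crest.Agent.R096.Ps_273

open Crest.Agent.R096.Msh_810 Crest.Agent.R096.Bas_731 Crest.Agent.R96.En3_199
  Crest.Agent.R96.En4_199 Crest.Agent.R96.En5_199 Crest.Agent.R96.En2_199 Crest.Agent.R96.En6_199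
  Crest.Agent.R96.En7_199 Crest.Agent.R96.En8_199 Crest.Agent.R96.En9_199
  Crest.Agent.R96.En11_199
  Crest.Agent.R96.Acl_392 Crest.Agent.R96.Sob2_199 Crest.Agent.R96.Sob3_199

noncomputable section

variable {n : ℕ}

/-- functions which vanish off `Ω` -/
theorem setLIntegral_supp {Om Ω : Set (Fin n → ℝ)} (hΩ : MeasurableSet Ω) (hsub : Ω ⊆ Om)
    {F : (Fin n → ℝ) → ℝ≥0∞} (h : ∀ x, x ∉ Ω → F x = 0) : ∫⁻ x in Om, F x = ∫⁻ x in Ω, F x := by
  have h1 : F = Ω.indicator F := by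
    funext x
    by_cases hx : x ∈ Ω
    · rw [indicator_of_mem hx]
    · rw [indicator_of_notMem hx, h x hx]
  rw [h1, setLIntegral_indicator hΩ, setLIntegral_indicator hΩ, inter_self,
    inter_eq_self_of_subset_left hsub]

theorem Hw_zero {𝒞 : Type*} {w : 𝒞 → ℝ≥0∞} {g : 𝒞 → Fin n → (Fin n → ℝ) → ℝ} {x : Fin n → ℝ}
    (h : ∀ c i, g c i x = 0) (i : Fin n) : Hw w g i x = 0 := by
  unfold Hw
  simp [h]

theorem GGw_zero {𝒞 : Type*} {w : 𝒞 → ℝ≥0∞} {g : 𝒞 → Fin n → (Fin n → ℝ) → ℝ} {x : Fin n → ℝ}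
    (h : ∀ c i, g c i x = 0) : GGw w g x = 0 := by
  rw [GGw_eq]
  exact Finset.sum_eq_zero fun i _ => Hw_zero h i

/-- **THE BAD SHIFTS ARE FEW**, arbitrary open `Ω ⊆ D.Om`, `g = 0` off `Ω`: all lines good on `Ω`, the
sharp energies of the edges of direction `i` (exponents `p` and `1`), the energies of the cubes on the
regions `R j`, countably many functions of the shift. -/
theorem bad_shift (D : Dat n) {Ω : Set (Fin n → ℝ)} (hΩ : IsOpen Ω)
    (hsub : Ω ⊆ D.Om) {𝒞 : Type*} [Countable 𝒞]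
    {v : 𝒞 → (Fin n → ℝ) → ℝ}
    {g : 𝒞 → Fin n → (Fin n → ℝ) → ℝ} (hg : ∀ c i, Measurable (g c i))
    (hg0 : ∀ c i, ∀ x, x ∉ Ω → g c i x = 0)
    (hwd : ∀ c i, WD Ω volume (v c) (g c i) (Pi.single i (1:ℝ))) (hv : ∀ c, ContinuousOn (v c) Ω)
    (w : 𝒞 → ℝ≥0∞)
    (s : Fin n → ℝ≥0∞) {p : ℝ} (hp : 1 ≤ p) {ι : Type*} [Countable ι]
    {R : ι → Set (Fin n → ℝ)} (hR : ∀ j, MeasurableSet (R j)) {κ : ι → ℝ≥0∞} (hκ0 : ∀ j, κ j ≠ 0)
    {η : Type*} [Countable η] {H : η → (Fin n → ℝ) → ℝ≥0∞} (hH : ∀ k, Measurable (H k))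
    {θ : η → ℝ≥0∞} (hθ : ∀ k, ∫⁻ a in box n, H k a ≤ θ k) {m : η → ℝ≥0∞} (hm : ∀ k, m k ≠ 0)
    {c0 : ℝ≥0∞} (hc0 : c0 ≠ 0) {Q : (Fin n → ℝ) → Prop} (hQ : ∀ᵐ a, Q a) :
    volume {a ∈ box n | ¬ (Q a ∧ (∀ (k : ℕ) (z : Fin n → ℤ), Good Ω v g (vx a k z)) ∧
      (∀ i, Ed (D.sh a) i p (Xs w g s i) ≤ c0 * (2 * ∫⁻ x in Ω, Xs w g s i x ^ p)) ∧
      (∀ i, Ed (D.sh a) i 1 (Xs w g s i) ≤ c0 * (2 * ∫⁻ x in Ω, Xs w g s i x)) ∧
      (∀ j, S (D.sh a) p ((R j).indicator (GGw w g)) ≤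
        κ j * (KE n p * ∫⁻ x in Ω ∩ R j, GGw w g x ^ p)) ∧
      ∀ k, H k a ≤ m k * θ k)} ≤
      (n * ∑' j, (κ j)⁻¹ + 2 * n * c0⁻¹) + ∑' k, (m k)⁻¹ := by
  have hp0 : 0 < p := by linarith
  have hgood := ae_shift hΩ hv hwd
  have hP := hQ.and hgood
  have b1 := volume_bad_S (D := D) (g := fun j => (R j).indicator (GGw w g))
    (fun j => (measurable_GGw hg w).indicator (hR j)) (p := fun _ => p) (fun _ => hp) hκ0
  have b2 := volume_bad_E (D := D) (X := fun j : Fin n × Bool => Xs w g s j.1)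
    (fun j => measurable_Xs hg w s j.1) (fun j => j.1) (p := fun j => if j.2 then p else 1)
    (fun j => by
      show 1 ≤ if j.2 then p else 1
      split_ifs <;> linarith) (c := fun _ => c0) (fun _ => hc0)
  have hs2 : (∑' _j : Fin n × Bool, c0⁻¹) = 2 * n * c0⁻¹ := by
    rw [tsum_fintype, Finset.sum_const, Finset.card_univ, Fintype.card_prod, Fintype.card_fin,
      Fintype.card_bool, nsmul_eq_mul]
    push_cast
    ring
  have b3 : volume (⋃ k, {a ∈ box n | m k * θ k < H k a}) ≤ ∑' k, (m k)⁻¹ :=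
    (measure_iUnion_le _).trans (ENNReal.tsum_le_tsum fun k => markov (hH k) (hθ k) (hm k))
  set B1 : Set (Fin n → ℝ) := {a ∈ box n | ∃ i, κ i * (KE n p * ∫⁻ x in D.Om,
    (R i).indicator (GGw w g) x ^ p) < S (D.sh a) p ((R i).indicator (GGw w g))} with hB1
  set B2 : Set (Fin n → ℝ) := {a ∈ box n | ∃ j : Fin n × Bool, c0 *
    (2 * ∫⁻ x in D.Om, Xs w g s j.1 x ^ (if j.2 then p else 1)) <
    Ed (D.sh a) j.1 (if j.2 then p else 1) (Xs w g s j.1)} with hB2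
  have hXs : ∀ (i : Fin n) (t : ℝ), 0 < t → ∀ x, x ∉ Ω → Xs w g s i x ^ t = 0 := by
    intro i t ht x hx
    unfold Xs
    rw [Hw_zero (fun c i => hg0 c i x hx), zero_tsub, ENNReal.zero_rpow_of_pos ht]
  have hsub' : {a ∈ box n | ¬ (Q a ∧ (∀ (k : ℕ) (z : Fin n → ℤ), Good Ω v g (vx a k z)) ∧
      (∀ i, Ed (D.sh a) i p (Xs w g s i) ≤ c0 * (2 * ∫⁻ x in Ω, Xs w g s i x ^ p)) ∧
      (∀ i, Ed (D.sh a) i 1 (Xs w g s i) ≤ c0 * (2 * ∫⁻ x in Ω, Xs w g s i x)) ∧
      (∀ j, S (D.sh a) p ((R j).indicator (GGw w g)) ≤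
        κ j * (KE n p * ∫⁻ x in Ω ∩ R j, GGw w g x ^ p)) ∧
      ∀ k, H k a ≤ m k * θ k)} ⊆ ((B1 ∪ B2) ∪ ⋃ k, {a ∈ box n | m k * θ k < H k a}) ∪
      {a | ¬ (Q a ∧ (∀ (k : ℕ) (z : Fin n → ℤ), Good Ω v g (vx a k z)))} := by
    rintro a ⟨ha, hnot⟩
    by_cases hPa : Q a ∧ (∀ (k : ℕ) (z : Fin n → ℤ), Good Ω v g (vx a k z))
    swap
    · right; exact hPa
    left
    by_contra hno
    simp only [mem_union, not_or, mem_iUnion, not_exists] at hno
    obtain ⟨⟨n1, n2⟩, n3⟩ := hno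
    have h1 : ∀ j, S (D.sh a) p ((R j).indicator (GGw w g)) ≤
        κ j * (KE n p * ∫⁻ x in Ω ∩ R j, GGw w g x ^ p) := by
      intro j
      have h2 : ¬ (κ j * (KE n p * ∫⁻ x in D.Om, (R j).indicator (GGw w g) x ^ p) <
          S (D.sh a) p ((R j).indicator (GGw w g))) := fun h => n1 ⟨ha, j, h⟩
      rw [not_lt] at h2
      refine h2.trans (mul_le_mul' le_rfl (mul_le_mul' le_rfl ?_))
      have h4 : ∀ x, (R j).indicator (GGw w g) x ^ p =
          (R j).indicator (fun x => GGw w g x ^ p) x := by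
        intro x
        by_cases hx : x ∈ R j
        · rw [indicator_of_mem hx, indicator_of_mem hx]
        · rw [indicator_of_notMem hx, indicator_of_notMem hx, ENNReal.zero_rpow_of_pos hp0]
      rw [setLIntegral_supp hΩ.measurableSet hsub (F := fun x => (R j).indicator (GGw w g) x ^ p)
        (fun x hx => by
          show (R j).indicator (GGw w g) x ^ p = 0
          rw [h4]
          by_cases hxR : x ∈ R j
          · rw [indicator_of_mem hxR]
            show GGw w g x ^ p = 0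
            rw [GGw_zero (fun c i => hg0 c i x hx), ENNReal.zero_rpow_of_pos hp0]
          · rw [indicator_of_notMem hxR])]
      simp only [h4]
      rw [setLIntegral_indicator (hR j), inter_comm]
    have h2 : ∀ j : Fin n × Bool, Ed (D.sh a) j.1 (if j.2 then p else 1) (Xs w g s j.1) ≤
        c0 * (2 * ∫⁻ x in Ω, Xs w g s j.1 x ^ (if j.2 then p else 1)) := by
      intro j
      have h3 : ¬ (c0 * (2 * ∫⁻ x in D.Om, Xs w g s j.1 x ^ (if j.2 then p else 1)) <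
          Ed (D.sh a) j.1 (if j.2 then p else 1) (Xs w g s j.1)) := fun h => n2 ⟨ha, j, h⟩
      rw [not_lt] at h3
      rwa [setLIntegral_supp hΩ.measurableSet hsub
        (F := fun x => Xs w g s j.1 x ^ (if j.2 then p else 1))
        (hXs j.1 _ (by split_ifs <;> linarith))] at h3
    have h3 : ∀ k, H k a ≤ m k * θ k := fun k => by
      by_contra hk
      rw [not_le] at hk
      exact n3 k ⟨ha, hk⟩
    refine hnot ⟨hPa.1, hPa.2, fun i => h2 (i, true), fun i => ?_, h1, h3⟩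
    have h4 := h2 (i, false)
    simp only [Bool.false_eq_true, if_false, ENNReal.rpow_one] at h4
    exact h4
  refine (measure_mono hsub').trans ((measure_union_le _ _).trans ?_)
  rw [ae_iff.1 hP, add_zero]
  refine (measure_union_le _ _).trans (add_le_add ((measure_union_le _ _).trans
    (add_le_add b1 ?_)) b3)
  rw [← hs2]
  exact b2

end

end Crest.Agent.R096.Ps_273
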