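import Mathlib
import Crest.Agent.R096.Ps11_273

/-!
# Row 96, NO0 p >= 3, mesh part, leaf [X3] of 962 #11402 (helper473): NUMBERS

One shift `a` in a given set `A'` of admissible shifts of the unit box, `volume (box \ A') ≤ 1/4`, with
good lines and the means of `Ed`, `S` and of finitely many measurable functions of the shift.
-/

set_option autoImplicit false

open MeasureTheory Set Filter
open scoped Topology ENNReal

namespace Crest.Agent.R096.Nx3_473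

open Crest.Agent.R096.Msh_810 Crest.Agent.R096.Bas_731 Crest.Agent.R96.En3_199
  Crest.Agent.R96.En4_199 Crest.Agent.R96.En5_199 Crest.Agent.R96.En2_199 Crest.Agent.R96.En6_199
  Crest.Agent.R96.En7_199 Crest.Agent.R96.En8_199 Crest.Agent.R96.En9_199
  Crest.Agent.R96.En11_199
  Crest.Agent.R96.Acl_392 Crest.Agent.R96.Sob2_199 Crest.Agent.R96.Sob3_199
  Crest.Agent.R096.Ps_273

noncomputable section

variable {n : ℕ}

/-- **a good shift in a given set of shifts**, general weights -/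
theorem exists_in (D : Dat n) {Ω : Set (Fin n → ℝ)} (hΩ : IsOpen Ω)
    (hsub : Ω ⊆ D.Om) {𝒞 : Type*} [Countable 𝒞]
    {v : 𝒞 → (Fin n → ℝ) → ℝ}
    {g : 𝒞 → Fin n → (Fin n → ℝ) → ℝ} (hg : ∀ c i, Measurable (g c i))
    (hg0 : ∀ c i, ∀ x, x ∉ Ω → g c i x = 0)
    (hwd : ∀ c i, WD Ω volume (v c) (g c i) (Pi.single i (1:ℝ))) (hv : ∀ c, ContinuousOn (v c) Ω)
    (w : 𝒞 → ℝ≥0∞)
    (s : Fin n → ℝ≥0∞) {p : ℝ} (hp : 1 ≤ p) {ι : Type*} [Countable ι]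
    {R : ι → Set (Fin n → ℝ)} (hR : ∀ j, MeasurableSet (R j)) {κ : ι → ℝ≥0∞} (hκ0 : ∀ j, κ j ≠ 0)
    {η : Type*} [Countable η] {H : η → (Fin n → ℝ) → ℝ≥0∞} (hH : ∀ k, Measurable (H k))
    {θ : η → ℝ≥0∞} (hθ : ∀ k, ∫⁻ a in box n, H k a ≤ θ k) {m : η → ℝ≥0∞} (hm : ∀ k, m k ≠ 0)
    {c0 : ℝ≥0∞} (hc0 : c0 ≠ 0) {A' : Set (Fin n → ℝ)}
    (hA : volume (box n \ A') + ((n * ∑' j, (κ j)⁻¹ + 2 * n * c0⁻¹) + ∑' k, (m k)⁻¹) < 1)
    {Q : (Fin n → ℝ) → Prop} (hQ : ∀ᵐ a, Q a) :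
    ∃ a ∈ box n, a ∈ A' ∧ Q a ∧ (∀ (k : ℕ) (z : Fin n → ℤ), Good Ω v g (vx a k z)) ∧
      (∀ i, Ed (D.sh a) i p (Xs w g s i) ≤ c0 * (2 * ∫⁻ x in Ω, Xs w g s i x ^ p)) ∧
      (∀ i, Ed (D.sh a) i 1 (Xs w g s i) ≤ c0 * (2 * ∫⁻ x in Ω, Xs w g s i x)) ∧
      (∀ j, S (D.sh a) p ((R j).indicator (GGw w g)) ≤
        κ j * (KE n p * ∫⁻ x in Ω ∩ R j, GGw w g x ^ p)) ∧
      ∀ k, H k a ≤ m k * θ k := by
  have hb := bad_shift D hΩ hsub hg hg0 hwd hv w s hp hR hκ0 hH hθ hm hc0 hQ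
  by_contra hcon
  push Not at hcon
  have hcov : box n ⊆ (box n \ A') ∪ {a ∈ box n | ¬ (Q a ∧
      (∀ (k : ℕ) (z : Fin n → ℤ), Good Ω v g (vx a k z)) ∧
      (∀ i, Ed (D.sh a) i p (Xs w g s i) ≤ c0 * (2 * ∫⁻ x in Ω, Xs w g s i x ^ p)) ∧
      (∀ i, Ed (D.sh a) i 1 (Xs w g s i) ≤ c0 * (2 * ∫⁻ x in Ω, Xs w g s i x)) ∧
      (∀ j, S (D.sh a) p ((R j).indicator (GGw w g)) ≤
        κ j * (KE n p * ∫⁻ x in Ω ∩ R j, GGw w g x ^ p)) ∧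
      ∀ k, H k a ≤ m k * θ k)} := by
    intro a ha
    by_cases hA' : a ∈ A'
    · right
      refine ⟨ha, ?_⟩
      rintro ⟨h1, h2, h3, h4, h5, h6⟩
      obtain ⟨k, hk⟩ := hcon a ha hA' h1 h2 h3 h4 h5
      exact absurd (h6 k) (not_le.2 hk)
    · left
      exact ⟨ha, hA'⟩
  have h1 := measure_mono (μ := volume) hcov
  rw [volume_box] at h1
  have h2 := h1.trans (measure_union_le _ _)
  exact absurd (h2.trans (add_le_add le_rfl hb)) (not_le.2 hA)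

/-- numerical weights: `n = 3`, one region, finitely many functions -/
theorem num3 {N : ℕ} {V : ℝ≥0∞} (hV : V ≤ 1 / 4) :
    V + (((3 : ℕ) * ∑' _j : Unit, ((24 : ℝ≥0∞))⁻¹ + 2 * (3 : ℕ) * (48 : ℝ≥0∞)⁻¹) +
      ∑' _k : Fin N, ((8 : ℝ≥0∞) * N)⁻¹) < 1 := by
  have h1 : (∑' _j : Unit, ((24 : ℝ≥0∞))⁻¹) = (24 : ℝ≥0∞)⁻¹ := by
    rw [tsum_fintype]; simp
  have h2 : (∑' _k : Fin N, ((8 : ℝ≥0∞) * N)⁻¹) ≤ 1 / 8 := by
    rw [tsum_fintype, Finset.sum_const, Finset.card_univ, Fintype.card_fin, nsmul_eq_mul]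
    rcases Nat.eq_zero_or_pos N with rfl | hN
    · simp
    · have hN0 : (N : ℝ≥0∞) ≠ 0 := by exact_mod_cast hN.ne'
      rw [ENNReal.mul_inv (Or.inl (by norm_num)) (Or.inl (by norm_num)), mul_comm, mul_assoc,
        ENNReal.inv_mul_cancel hN0 (ENNReal.natCast_ne_top N), mul_one, one_div]
  rw [h1]
  have h3 : ((3 : ℕ) : ℝ≥0∞) * (24 : ℝ≥0∞)⁻¹ = 1 / 8 := by
    rw [show (24 : ℝ≥0∞) = 3 * 8 by norm_num, ENNReal.mul_inv (Or.inl (by norm_num))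
      (Or.inl (by norm_num)), ← mul_assoc]
    rw [show ((3 : ℕ) : ℝ≥0∞) = 3 by norm_num, ENNReal.mul_inv_cancel (by norm_num) (by norm_num),
      one_mul, one_div]
  have h4 : (2 : ℝ≥0∞) * (3 : ℕ) * (48 : ℝ≥0∞)⁻¹ = 1 / 8 := by
    rw [show (48 : ℝ≥0∞) = 6 * 8 by norm_num, ENNReal.mul_inv (Or.inl (by norm_num))
      (Or.inl (by norm_num)), ← mul_assoc]
    rw [show (2 : ℝ≥0∞) * ((3 : ℕ) : ℝ≥0∞) = 6 by norm_num,
      ENNReal.mul_inv_cancel (by norm_num) (by norm_num), one_mul, one_div]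
  rw [h3, h4]
  calc V + (1 / 8 + 1 / 8 + ∑' _k : Fin N, ((8 : ℝ≥0∞) * N)⁻¹)
      ≤ 1 / 4 + (1 / 8 + 1 / 8 + 1 / 8) := add_le_add hV (add_le_add le_rfl h2)
    _ < 1 := by
      have e : (1 / 4 + (1 / 8 + 1 / 8 + 1 / 8) : ℝ≥0∞) = ENNReal.ofReal (5 / 8) := by
        rw [show (5 / 8 : ℝ) = 1 / 4 + (1 / 8 + 1 / 8 + 1 / 8) by norm_num,
          ENNReal.ofReal_add (by norm_num) (by norm_num),
          ENNReal.ofReal_add (by norm_num) (by norm_num),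
          ENNReal.ofReal_add (by norm_num) (by norm_num)]
        congr 1
        · rw [ENNReal.ofReal_div_of_pos (by norm_num)]; norm_num
        · congr 1
          · congr 1 <;> (rw [ENNReal.ofReal_div_of_pos (by norm_num)]; norm_num)
          · rw [ENNReal.ofReal_div_of_pos (by norm_num)]; norm_num
      rw [e]
      exact ENNReal.ofReal_lt_one.2 (by norm_num)

/-- **[X3] NUMBERS**: one shift in `A'`, `volume (box 3 \ A') ≤ 1/4` -/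
theorem shift3 (D : Dat 3) {Ω : Set (Fin 3 → ℝ)} (hΩ : IsOpen Ω)
    (hsub : Ω ⊆ D.Om) {𝒞 : Type*} [Countable 𝒞]
    {v : 𝒞 → (Fin 3 → ℝ) → ℝ}
    {g : 𝒞 → Fin 3 → (Fin 3 → ℝ) → ℝ} (hg : ∀ c i, Measurable (g c i))
    (hg0 : ∀ c i, ∀ x, x ∉ Ω → g c i x = 0)
    (hwd : ∀ c i, WD Ω volume (v c) (g c i) (Pi.single i (1:ℝ))) (hv : ∀ c, ContinuousOn (v c) Ω)
    (w : 𝒞 → ℝ≥0∞) (s : Fin 3 → ℝ≥0∞) {p : ℝ} (hp : 1 ≤ p)
    {R' : Set (Fin 3 → ℝ)} (hR : MeasurableSet R')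
    {N : ℕ} {H : Fin N → (Fin 3 → ℝ) → ℝ≥0∞} (hH : ∀ k, Measurable (H k))
    {θ : Fin N → ℝ≥0∞} (hθ : ∀ k, ∫⁻ a in box 3, H k a ≤ θ k) {A' : Set (Fin 3 → ℝ)}
    (hA : volume (box 3 \ A') ≤ 1 / 4) {Q : (Fin 3 → ℝ) → Prop} (hQ : ∀ᵐ a, Q a) :
    ∃ a ∈ A', a ∈ box 3 ∧ Q a ∧ (∀ (k : ℕ) (z : Fin 3 → ℤ), Good Ω v g (vx a k z)) ∧
      (∀ l, Ed (D.sh a) l p (Xs w g s l) ≤ 96 * ∫⁻ x in Ω, Xs w g s l x ^ p) ∧
      (∀ l, Ed (D.sh a) l 1 (Xs w g s l) ≤ 96 * ∫⁻ x in Ω, Xs w g s l x) ∧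
      S (D.sh a) p (R'.indicator (GGw w g)) ≤ 24 * KE 3 p * ∫⁻ x in Ω ∩ R', GGw w g x ^ p ∧
      ∀ k, H k a ≤ 8 * N * θ k := by
  rcases Nat.eq_zero_or_pos N with rfl | hN
  · obtain ⟨a, h1, h2, h3, h4, h5, h6, h7, -⟩ := exists_in D hΩ hsub hg hg0 hwd hv w s hp
      (ι := Unit) (R := fun _ => R') (fun _ => hR) (κ := fun _ => 24) (fun _ => by norm_num)
      (η := Empty) (H := fun k => k.elim) (fun k => k.elim) (θ := fun k => k.elim)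
      (fun k => k.elim) (m := fun k => k.elim) (fun k => k.elim) (c0 := 48) (by norm_num)
      (A' := A') (by
        have := num3 (N := 0) hA
        simpa using this) hQ
    refine ⟨a, h2, h1, h3, h4, fun l => (h5 l).trans (le_of_eq ?_),
      fun l => (h6 l).trans (le_of_eq ?_), (h7 ()).trans (le_of_eq ?_), fun k => k.elim0⟩
    · rw [← mul_assoc]; norm_num
    · rw [← mul_assoc]; norm_num
    · rw [← mul_assoc]
  · have hN0 : (N : ℝ≥0∞) ≠ 0 := by exact_mod_cast hN.ne'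
    obtain ⟨a, h1, h2, h3, h4, h5, h6, h7, h8⟩ := exists_in D hΩ hsub hg hg0 hwd hv w s hp
      (ι := Unit) (R := fun _ => R') (fun _ => hR) (κ := fun _ => 24) (fun _ => by norm_num)
      hH hθ (m := fun _ => 8 * N) (fun _ => mul_ne_zero (by norm_num) hN0) (c0 := 48)
      (by norm_num) (A' := A') (num3 hA) hQ
    refine ⟨a, h2, h1, h3, h4, fun l => (h5 l).trans (le_of_eq ?_),
      fun l => (h6 l).trans (le_of_eq ?_), (h7 ()).trans (le_of_eq ?_), h8⟩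
    · rw [← mul_assoc]; norm_num
    · rw [← mul_assoc]; norm_num
    · rw [← mul_assoc]

end

end Crest.Agent.R096.Nx3_473
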