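import Crest.Agent.R096.Np7_962
import Crest.Agent.R096.Nx3_473
import Crest.Agent.R096.Nx2_473
import Crest.Agent.R096.Nst1_780
import Crest.Agent.R096.Ls5_222
import Crest.Agent.R096.Mal15_874

/-!
# Row 96, NO0 p >= 3, mesh part, leaf (M6) of 962 #11558 (helper473): the numbers of `MeshN`

* `g0` : the derivatives of the level functions, set to zero off `Op`; `FrontC.g0`, `Front3.g0`
* the integrals of `Xs`, `GGw` from `FrontC`
* `exists_Rp` : the open bad set `R'`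
* `nums` : the shift: `ed`, `ed1`, `sR` of `MeshN`
-/

set_option autoImplicit false
set_option linter.unusedSectionVars false
set_option linter.unusedVariables false

open Set Filter Topology MeasureTheory Metric
open scoped NNReal ENNReal

noncomputable section

namespace Crest.Agent.R096.Nx4_473

open Crest.Agent.R096.SkC1_961 (E3 Hom3 FoamD)
open Crest.Agent.R096.Brk5_582 Crest.Agent.R096.Bsp_628 Crest.Agent.R096.Log2_582
open Crest.Agent.R096.Dic6_582 (dF kF)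
open Crest.Agent.R096.Npr_582 (Op cN)
open Crest.Agent.R096.Np_962
open Crest.Agent.R96.Acl_392 Crest.Agent.R96.Sob2_199
open Crest.Agent.R096.Er_594 (SH3)
open Crest.Agent.R096.Msh_810 Crest.Agent.R096.Bas_731 Crest.Agent.R96.En3_199
  Crest.Agent.R96.En4_199 Crest.Agent.R96.En5_199 Crest.Agent.R96.En2_199 Crest.Agent.R96.En6_199
  Crest.Agent.R96.En7_199 Crest.Agent.R96.En8_199 Crest.Agent.R96.En9_199
  Crest.Agent.R96.En11_199
open Crest.Agent.R096.Ps_273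
open Crest.Agent.R096.Ls_222 (us continuousOn_us countable_F)
open Crest.Agent.R096.No_276 (QL)

section g0

variable {δ κ0 R c0 : ℝ} {La : Set E3}

/-- the derivatives of the level functions, zero off `Op` -/
def g0 (Φ : FoamD δ κ0 R c0 La) (Om : Set E3) (f1 : E3 → E3) (g : Φ.F → Fin 3 → E3 → ℝ) (c : Φ.F)
    (l : Fin 3) : E3 → ℝ := (Op Φ Om f1).indicator (g c l)

variable {Φ : FoamD δ κ0 R c0 La} {Om : Set E3} {f1 : E3 → E3} {g : Φ.F → Fin 3 → E3 → ℝ}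

theorem g0_on {x : E3} (hx : x ∈ Op Φ Om f1) (c : Φ.F) (l : Fin 3) :
    g0 Φ Om f1 g c l x = g c l x := indicator_of_mem hx _

theorem g0_off {x : E3} (hx : x ∉ Op Φ Om f1) (c : Φ.F) (l : Fin 3) :
    g0 Φ Om f1 g c l x = 0 := indicator_of_notMem hx _

theorem g0_gm (hO : IsOpen (Op Φ Om f1)) (hg : ∀ c l, Measurable (g c l)) (c : Φ.F) (l : Fin 3) :
    Measurable (g0 Φ Om f1 g c l) := (hg c l).indicator hO.measurableSet

theorem g0_wd (hO : IsOpen (Op Φ Om f1)) {v : Φ.F → E3 → ℝ}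
    (hwd : ∀ c l, WD (Op Φ Om f1) volume (v c) (g c l) (Pi.single l 1)) (c : Φ.F) (l : Fin 3) :
    WD (Op Φ Om f1) volume (v c) (g0 Φ Om f1 g c l) (Pi.single l 1) :=
  wd_congr hO (hwd c l) (Eventually.of_forall fun _ _ => rfl)
    (Eventually.of_forall fun _ hx => (g0_on hx c l).symm)

theorem lint_g0 {F : (Φ.F → Fin 3 → ℝ) → ℝ≥0∞} {S : Set E3} (hO : IsOpen (Op Φ Om f1))
    (hS : MeasurableSet S) :
    ∫⁻ x in Op Φ Om f1 ∩ S, F (fun c l => g0 Φ Om f1 g c l x) =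
      ∫⁻ x in Op Φ Om f1 ∩ S, F (fun c l => g c l x) := by
  refine setLIntegral_congr_fun (hO.measurableSet.inter hS) fun x hx => ?_
  have : (fun c l => g0 Φ Om f1 g c l x) = fun c l => g c l x := by
    funext c l
    exact g0_on hx.1 c l
  simp only [this]

end g0

section front

variable {p : ℝ} {q : ℕ} {s : Fin 3 → ℝ} {ε ε' : ℝ≥0∞} {Om La : Set E3} {f : E3 → E3}
  {M ρ0 h : ℝ} {a : Fin 3 → ℝ} {κ1 κ2 lam0 : ℝ} {Φ : FoamD (dF q) (kF q) 6 (cN q) La}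
  {lam : Φ.F → ℝ} {A : Φ.F → E3 ≃ᵃ[ℝ] E3} {f1 : E3 → E3} {D1 : E3 → E3 →L[ℝ] E3} {X HH : Set E3}
  {g : Φ.F → Fin 3 → E3 → ℝ}

/-- the common part of the front for `g0` -/
theorem frontC_g0 (H : FrontC p q s ε ε' Om La M h a Φ f1 X HH g) :
    FrontC p q s ε ε' Om La M h a Φ f1 X HH (g0 Φ Om f1 g) where
  q1 := H.q1
  h0 := H.h0
  fr := H.fr
  homeo := H.homeo
  op := H.op
  XO := H.XO
  Xm := H.Xm
  Xv := H.Xv
  HHo := H.HHo
  HHs := H.HHs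
  HHX := H.HHX
  HHw := H.HHw
  Qv := H.Qv
  gm := g0_gm H.op H.gm
  wd := g0_wd H.op (v := fun c x => Φ.lev c (f1 x)) H.wd
  eW l w h1 h2 := by
    refine le_trans (le_of_eq ?_) (H.eW l w h1 h2)
    have h3 := lint_g0 (Φ := Φ) (Om := Om) (f1 := f1) (g := g)
      (F := fun G => (∑' c, w c * ‖G c l‖ₑ - ENNReal.ofReal (s l)) ^ p) (S := univ) H.op
      MeasurableSet.univ
    simpa only [inter_univ] using h3
  eX l w h1 h2 := by
    refine le_trans (le_of_eq ?_) (H.eX l w h1 h2)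
    exact lint_g0 (Φ := Φ) (Om := Om) (f1 := f1) (g := g)
      (F := fun G => (∑' c, w c * ‖G c l‖ₑ) ^ p) (S := X) H.op H.Xm

/-- **the front for `g0`** -/
theorem front3_g0 (H : Front3 p q s ε ε' Om La f M ρ0 h a κ1 κ2 lam0 Φ lam A f1 D1 X HH g) :
    Front3 p q s ε ε' Om La f M ρ0 h a κ1 κ2 lam0 Φ lam A f1 D1 X HH (g0 Φ Om f1 g) where
  c := frontC_g0 H.c
  sh := H.sh
  near := H.near
  nb := H.nb
  dy := H.dy
  rat := H.rat
  ex := H.ex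
  XN := H.XN
  cs := H.cs

end front

/-! ### the integrals -/

section ints

/-- from the exponent `p` to the exponent `1` -/
theorem lint_holder {E : Type*} [MeasurableSpace E] {μ : Measure E} {Ω Om : Set E} (hΩ : Ω ⊆ Om)
    {F : E → ℝ≥0∞} (hF : Measurable F) {p : ℝ} (hp : 1 ≤ p) {ε : ℝ≥0∞}
    (h : ∫⁻ x in Ω, F x ^ p ∂μ ≤ ε * μ Om) : ∫⁻ x in Ω, F x ∂μ ≤ ε ^ p⁻¹ * μ Om := by
  have hp0 : 0 < p := by linarith
  have h1 := eLpNorm'_le_eLpNorm'_mul_rpow_measure_univ (μ := μ.restrict Ω) (f := F) (p := 1)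
    (q := p) one_pos hp hF.aestronglyMeasurable
  unfold eLpNorm' at h1
  simp only [enorm_eq_self, ENNReal.rpow_one, div_one, one_div] at h1
  refine h1.trans ?_
  rw [Measure.restrict_apply_univ]
  have hi : p⁻¹ ≤ 1 := inv_le_one_of_one_le₀ hp
  have hi0 : 0 ≤ p⁻¹ := inv_nonneg.2 hp0.le
  calc (∫⁻ x in Ω, F x ^ p ∂μ) ^ p⁻¹ * μ Ω ^ (1 - p⁻¹)
      ≤ (ε * μ Om) ^ p⁻¹ * μ Om ^ (1 - p⁻¹) := by
        refine mul_le_mul' (ENNReal.rpow_le_rpow h hi0)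
          (ENNReal.rpow_le_rpow (measure_mono hΩ) (by linarith))
    _ = ε ^ p⁻¹ * μ Om := by
        rw [ENNReal.mul_rpow_of_nonneg _ _ hi0, mul_assoc,
          ← ENNReal.rpow_add_of_nonneg _ _ hi0 (by linarith)]
        rw [add_sub_cancel, ENNReal.rpow_one]

end ints

section fronti

variable {p : ℝ} {q : ℕ} {s : Fin 3 → ℝ} {ε ε' : ℝ≥0∞} {Om La : Set E3}
  {M h : ℝ} {a : Fin 3 → ℝ} {Φ : FoamD (dF q) (kF q) 6 (cN q) La}
  {f1 : E3 → E3} {X HH : Set E3} {g : Φ.F → Fin 3 → E3 → ℝ} {W : Φ.F → ℝ}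

/-- the weights -/
abbrev wt (W : Φ.F → ℝ) : Φ.F → ℝ≥0∞ := fun c => ENNReal.ofReal (W c)

/-- the sharp energies, exponent `p` -/
theorem int_Xs (H : FrontC p q s ε ε' Om La M h a Φ f1 X HH g)
    (hW : ∀ c : Φ.F, IsLog q a h c.1 → W c = h / 2) (hWs : ∀ c : Φ.F, W c ≤ c.1.sz) (l : Fin 3) :
    ∫⁻ x in Op Φ Om f1, Xs (wt W) g (fun l => ENNReal.ofReal (s l)) l x ^ p ≤ ε * volume Om :=
  H.eW l _ (fun c hc => by simp only [wt, hW c hc]) fun c => ENNReal.ofReal_le_ofReal (hWs c)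

/-- the sharp energies, exponent `1` -/
theorem int_Xs1 (hp : 1 ≤ p) (H : FrontC p q s ε ε' Om La M h a Φ f1 X HH g)
    (hW : ∀ c : Φ.F, IsLog q a h c.1 → W c = h / 2) (hWs : ∀ c : Φ.F, W c ≤ c.1.sz) (l : Fin 3) :
    ∫⁻ x in Op Φ Om f1, Xs (wt W) g (fun l => ENNReal.ofReal (s l)) l x ≤
      ε ^ p⁻¹ * volume Om := by
  have : Countable Φ.F := countable_F Φ
  exact lint_holder (fun x hx => hx.1) (measurable_Xs H.gm _ _ l) hp (int_Xs H hW hWs l)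

/-- the sum of the three directions -/
theorem GGw_rpow_le {𝒞 : Type*} (w : 𝒞 → ℝ≥0∞) (g : 𝒞 → Fin 3 → E3 → ℝ) (hp : 1 ≤ p) (x : E3) :
    GGw w g x ^ p ≤ 3 ^ (p - 1) * ∑ l, Hw w g l x ^ p := by
  rw [GGw_eq]
  have h1 := ENNReal.rpow_sum_le_const_mul_sum_rpow (Finset.univ : Finset (Fin 3))
    (fun l => Hw w g l x) hp
  simpa using h1

/-- the energies on a set -/
theorem int_GGw_le {𝒞 : Type*} [Countable 𝒞] {w : 𝒞 → ℝ≥0∞} {g : 𝒞 → Fin 3 → E3 → ℝ}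
    (hg : ∀ c l, Measurable (g c l)) (hp : 1 ≤ p) {S : Set E3} {θ : ℝ≥0∞}
    (h : ∀ l, ∫⁻ x in S, Hw w g l x ^ p ≤ θ) : ∫⁻ x in S, GGw w g x ^ p ≤ 3 ^ p * θ := by
  calc ∫⁻ x in S, GGw w g x ^ p ≤ ∫⁻ x in S, 3 ^ (p - 1) * ∑ l, Hw w g l x ^ p :=
        lintegral_mono fun x => GGw_rpow_le w g hp x
    _ = 3 ^ (p - 1) * ∑ l, ∫⁻ x in S, Hw w g l x ^ p := by
        rw [lintegral_const_mul _ (Finset.measurable_sum _ fun l _ =>
          (measurable_Hw hg w l).pow_const p), lintegral_finsetSum _ fun l _ =>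
          (measurable_Hw hg w l).pow_const p]
    _ ≤ 3 ^ (p - 1) * ∑ _l : Fin 3, θ := by
        gcongr with l
        exact h l
    _ = 3 ^ p * θ := by
        rw [Finset.sum_const, Finset.card_univ, Fintype.card_fin, nsmul_eq_mul, ← mul_assoc]
        congr 1
        have e : (3 : ℝ≥0∞) ^ (p - 1) * 3 = 3 ^ (p - 1) * 3 ^ (1 : ℝ) := by
          rw [ENNReal.rpow_one]
        push_cast
        rw [e, ← ENNReal.rpow_add _ _ (by norm_num) (by norm_num), sub_add_cancel]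

/-- the energy on the bad set -/
theorem int_GGw_X (hp : 1 ≤ p) (H : FrontC p q s ε ε' Om La M h a Φ f1 X HH g)
    (hW : ∀ c : Φ.F, IsLog q a h c.1 → W c = h / 2) (hWs : ∀ c : Φ.F, W c ≤ c.1.sz) :
    ∫⁻ x in Op Φ Om f1 ∩ X, GGw (wt W) g x ^ p ≤ 3 ^ p * (ε' * volume Om) := by
  have : Countable Φ.F := countable_F Φ
  refine int_GGw_le H.gm hp fun l => ?_
  exact H.eX l _ (fun c hc => by simp only [wt, hW c hc]) fun c =>
    ENNReal.ofReal_le_ofReal (hWs c)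

/-- the whole energy is finite -/
theorem int_GGw_lt (hp : 1 ≤ p) (H : FrontC p q s ε ε' Om La M h a Φ f1 X HH g)
    (hW : ∀ c : Φ.F, IsLog q a h c.1 → W c = h / 2) (hWs : ∀ c : Φ.F, W c ≤ c.1.sz)
    (hε : ε ≠ ⊤) (hv : volume Om ≠ ⊤) : ∫⁻ x in Op Φ Om f1, GGw (wt W) g x ^ p < ⊤ := by
  have : Countable Φ.F := countable_F Φ
  have hp0 : 0 ≤ p := by linarith
  have hvΩ : volume (Op Φ Om f1) ≠ ⊤ := ne_top_of_le_ne_top hv (measure_mono fun x hx => hx.1)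
  set σ : ℝ≥0∞ := ∑ l, ENNReal.ofReal (s l) with hσ
  have hσl : ∀ l, ENNReal.ofReal (s l) ≤ σ := fun l =>
    Finset.single_le_sum (f := fun l => ENNReal.ofReal (s l)) (fun _ _ => zero_le)
      (Finset.mem_univ l)
  have hσt : σ ≠ ⊤ := ENNReal.sum_ne_top.2 fun _ _ => ENNReal.ofReal_ne_top
  have h1 : ∀ l, ∫⁻ x in Op Φ Om f1, Hw (wt W) g l x ^ p ≤
      2 ^ (p - 1) * (ε * volume Om + σ ^ p * volume (Op Φ Om f1)) := by
    intro l
    calc ∫⁻ x in Op Φ Om f1, Hw (wt W) g l x ^ p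
        ≤ ∫⁻ x in Op Φ Om f1, 2 ^ (p - 1) *
          (Xs (wt W) g (fun l => ENNReal.ofReal (s l)) l x ^ p + σ ^ p) := by
          refine lintegral_mono fun x => ?_
          have h2 : Hw (wt W) g l x ≤ Xs (wt W) g (fun l => ENNReal.ofReal (s l)) l x + σ := by
            unfold Xs
            exact le_tsub_add.trans (add_le_add le_rfl (hσl l))
          exact (ENNReal.rpow_le_rpow h2 hp0).trans (ENNReal.rpow_add_le_mul_rpow_add_rpow _ _ hp)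
      _ = 2 ^ (p - 1) * ((∫⁻ x in Op Φ Om f1,
            Xs (wt W) g (fun l => ENNReal.ofReal (s l)) l x ^ p) +
          σ ^ p * volume (Op Φ Om f1)) := by
          rw [lintegral_const_mul _ (((measurable_Xs H.gm _ _ l).pow_const p).add_const _),
            lintegral_add_right _ measurable_const, setLIntegral_const]
      _ ≤ _ := by
          gcongr
          exact int_Xs H hW hWs l
  refine (int_GGw_le H.gm hp h1).trans_lt ?_
  have h3 : (3 : ℝ≥0∞) ^ p ≠ ⊤ := ENNReal.rpow_ne_top_of_nonneg hp0 (by norm_num)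
  have h4 : (2 : ℝ≥0∞) ^ (p - 1) ≠ ⊤ := ENNReal.rpow_ne_top_of_nonneg (by linarith) (by norm_num)
  have h5 : σ ^ p ≠ ⊤ := ENNReal.rpow_ne_top_of_nonneg hp0 hσt
  exact (ENNReal.mul_ne_top h3 (ENNReal.mul_ne_top h4 (ENNReal.add_ne_top.2
    ⟨ENNReal.mul_ne_top hε hv, ENNReal.mul_ne_top h5 hvΩ⟩))).lt_top

end fronti

/-! ### the bad set -/

/-- the numerical constant -/
def Kn (p : ℝ) : ℝ≥0∞ := 96 + 24 * KE 3 p * 3 ^ p

theorem Kn_ne_top {p : ℝ} (hp : 1 ≤ p) : Kn p ≠ ⊤ := by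
  refine ENNReal.add_ne_top.2 ⟨by norm_num, ENNReal.mul_ne_top (ENNReal.mul_ne_top (by norm_num)
    (KE_ne_top hp)) (ENNReal.rpow_ne_top_of_nonneg (by linarith) (by norm_num))⟩

section main

variable {p : ℝ} {q : ℕ} {s : Fin 3 → ℝ} {ε ε' : ℝ≥0∞} {L : ℕ} {La : Set E3}
  {M h : ℝ} {a : Fin 3 → ℝ} {Φ : FoamD (dF q) (kF q) 6 (cN q) La}
  {f1 : E3 → E3} {X HH : Set E3} {g : Φ.F → Fin 3 → E3 → ℝ} {W : Φ.F → ℝ}

theorem vol_QL (hL : 1 ≤ L) : volume (QL (L : ℝ)) ≠ ⊤ :=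
  (Nst_780.isBounded_QL (by
    have : (1 : ℝ) ≤ L := by exact_mod_cast hL
    linarith)).measure_lt_top.ne

/-- **the open bad set `R'`** -/
theorem exists_Rp (hp : 1 ≤ p) (hL : 1 ≤ L)
    (H : FrontC p q s ε ε' (QL L) La M h a Φ f1 X HH g) (hε : ε ≠ ⊤) (hε' : ε' ≠ ⊤)
    (hW : ∀ c : Φ.F, IsLog q a h c.1 → W c = h / 2) (hWs : ∀ c : Φ.F, W c ≤ c.1.sz)
    {K : ℝ≥0∞} (hK : Kn p ≤ K) {e : ℝ≥0∞} (he : e ≠ 0) :
    ∃ R' : Set E3, IsOpen R' ∧ X ⊆ R' ∧ R' ⊆ QL L ∧ QL L ⊆ HH ∪ R' ∧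
      volume R' ≤ K * ε' * volume (QL L) + e ∧
      24 * KE 3 p * ∫⁻ x in Op Φ (QL L) f1 ∩ R', GGw (wt W) g x ^ p ≤
        K * ε' * volume (QL L) + e := by
  have hp0 : 0 < p := by linarith
  have : Countable Φ.F := countable_F Φ
  have hL0 : (L : ℝ) ≠ 0 := by
    have : (1 : ℝ) ≤ L := by exact_mod_cast hL
    linarith
  have hΩ : MeasurableSet (Op Φ (QL L) f1) := H.op.measurableSet
  have hΩs : Op Φ (QL L) f1 ⊆ QL L := fun x hx => hx.1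
  set G : E3 → ℝ≥0∞ := (Op Φ (QL L) f1).indicator (GGw (wt W) g) with hG
  have hGp : ∀ S : Set E3, S ⊆ QL L → ∫⁻ x in S, G x ^ p =
      ∫⁻ x in Op Φ (QL L) f1 ∩ S, GGw (wt W) g x ^ p := by
    intro S hS
    have e1 : (fun x => G x ^ p) = (Op Φ (QL L) f1).indicator (fun x => GGw (wt W) g x ^ p) := by
      funext x
      by_cases hx : x ∈ Op Φ (QL L) f1
      · rw [hG, indicator_of_mem hx, indicator_of_mem hx]
      · rw [hG, indicator_of_notMem hx, indicator_of_notMem hx, ENNReal.zero_rpow_of_pos hp0]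
    rw [e1, setLIntegral_indicator hΩ]
  have hfin : ∫⁻ x in QL L, G x ^ p < ⊤ := by
    rw [hGp _ subset_rfl, inter_eq_self_of_subset_left hΩs]
    exact int_GGw_lt hp H hW hWs hε (vol_QL hL)
  have hKE : 24 * KE 3 p ≠ ⊤ := ENNReal.mul_ne_top (by norm_num) (KE_ne_top hp)
  obtain ⟨e1, he1, he1e, he1K⟩ : ∃ e1 : ℝ≥0∞, e1 ≠ 0 ∧ e1 ≤ e ∧ 24 * KE 3 p * e1 ≤ e := by
    refine ⟨min e (e / (24 * KE 3 p)), ?_, min_le_left _ _, ?_⟩
    · exact (lt_min (pos_iff_ne_zero.2 he) (ENNReal.div_pos he hKE)).ne'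
    · exact (mul_le_mul' le_rfl (min_le_right _ _)).trans ENNReal.mul_div_le
  obtain ⟨R', h1, -, h2, h3, h4, h5⟩ := Nx2_473.exists_R' (Nst_780.isOpen_QL hL0)
    (Nst_780.isBounded_QL hL0) H.Xm H.XO (G := G) hfin he1
  have hK1 : 1 ≤ K := le_trans (by
    unfold Kn
    exact le_add_right (by norm_num)) hK
  have hK2 : 24 * KE 3 p * 3 ^ p ≤ K := le_trans (by
    unfold Kn
    exact le_add_left le_rfl) hK
  refine ⟨R', h1, h2, h3, fun x hx => ?_, ?_, ?_⟩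
  · by_cases hxX : x ∈ X
    · exact Or.inr (h2 hxX)
    · exact Or.inl (H.HHX ⟨hx, hxX⟩)
  · refine h4.trans (add_le_add (H.Xv.trans ?_) he1e)
    rw [mul_assoc]
    exact le_mul_of_one_le_left zero_le hK1
  · rw [hGp R' h3, hGp X H.XO] at h5
    calc 24 * KE 3 p * ∫⁻ x in Op Φ (QL L) f1 ∩ R', GGw (wt W) g x ^ p
        ≤ 24 * KE 3 p * (3 ^ p * (ε' * volume (QL L)) + e1) := by
          gcongr
          exact h5.trans (add_le_add (int_GGw_X hp H hW hWs) le_rfl)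
      _ = 24 * KE 3 p * 3 ^ p * (ε' * volume (QL L)) + 24 * KE 3 p * e1 := by ring
      _ ≤ K * (ε' * volume (QL L)) + e := by gcongr
      _ = _ := by ring

/-- **the numbers of `MeshN`** at one shift `a' ∈ A'`, `volume (box 3 \ A') ≤ 1/4` -/
theorem nums (hp : 1 ≤ p) (hLa : IsOpen La)
    (H : FrontC p q s ε ε' (QL L) La M h a Φ f1 X HH g)
    (hg0 : ∀ c l, ∀ x, x ∉ Op Φ (QL L) f1 → g c l x = 0)
    (hW : ∀ c : Φ.F, IsLog q a h c.1 → W c = h / 2) (hWs : ∀ c : Φ.F, W c ≤ c.1.sz)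
    {K : ℝ≥0∞} (hK : Kn p ≤ K) {R' : Set E3} (hR : IsOpen R') {e2 : ℝ≥0∞}
    (hR2 : 24 * KE 3 p * ∫⁻ x in Op Φ (QL L) f1 ∩ R', GGw (wt W) g x ^ p ≤ e2)
    (D : Dat 3) (hD : D.Om = QL L) {N : ℕ} {Hk : Fin N → E3 → ℝ≥0∞} (hH : ∀ k, Measurable (Hk k))
    {θ : Fin N → ℝ≥0∞} (hθ : ∀ k, ∫⁻ b in box 3, Hk k b ≤ θ k) {A' : Set E3}
    (hA : volume (box 3 \ A') ≤ 1 / 4) {Q : E3 → Prop} (hQ : ∀ᵐ b, Q b) :
    ∃ b ∈ A', b ∈ box 3 ∧ Q b ∧
      (∀ (k : ℕ) (z : Fin 3 → ℤ), Good (Op Φ (QL L) f1) (us Φ f1) g (vx b k z)) ∧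
      (∀ l, Ed (D.sh b) l p (Xs (wt W) g (fun l => ENNReal.ofReal (s l)) l) ≤
        K * (ε + ε ^ p⁻¹) * volume (QL L)) ∧
      (∀ l, Ed (D.sh b) l 1 (Xs (wt W) g (fun l => ENNReal.ofReal (s l)) l) ≤
        K * (ε + ε ^ p⁻¹) * volume (QL L)) ∧
      S (D.sh b) p (R'.indicator (GGw (wt W) g)) ≤ e2 ∧
      ∀ k, Hk k b ≤ 8 * N * θ k := by
  have : Countable Φ.F := countable_F Φ
  have hsub : Op Φ (QL L) f1 ⊆ D.Om := fun x hx => by rw [hD]; exact hx.1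
  obtain ⟨b, h1, h2, h3, h4, h5, h6, h7, h8⟩ := Nx3_473.shift3 D H.op hsub H.gm hg0
    (v := us Φ f1) H.wd
    (fun c => continuousOn_us hLa H.homeo (fun x hx => hx.1) (fun x hx c => hx.2 c) c)
    (wt W) (fun l => ENNReal.ofReal (s l)) hp hR.measurableSet hH hθ hA hQ
  have hK96 : 96 ≤ K := le_trans (by
    unfold Kn
    exact le_add_right le_rfl) hK
  refine ⟨b, h1, h2, h3, h4, fun l => (h5 l).trans ?_, fun l => (h6 l).trans ?_, h7.trans hR2, h8⟩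
  · rw [mul_assoc]
    exact mul_le_mul' hK96 ((int_Xs H hW hWs l).trans (mul_le_mul' le_self_add le_rfl))
  · rw [mul_assoc]
    exact mul_le_mul' hK96 ((int_Xs1 hp H hW hWs l).trans (mul_le_mul' le_add_self le_rfl))

open Crest.Agent.R096.Mal_874 in
/-- the same for the outer mesh of mesh data -/
theorem nums_md (hp : 1 ≤ p) (hLa : IsOpen La)
    (H : FrontC p q s ε ε' (QL L) La M h a Φ f1 X HH g)
    (hg0 : ∀ c l, ∀ x, x ∉ Op Φ (QL L) f1 → g c l x = 0)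
    (hW : ∀ c : Φ.F, IsLog q a h c.1 → W c = h / 2) (hWs : ∀ c : Φ.F, W c ≤ c.1.sz)
    {K : ℝ≥0∞} (hK : Kn p ≤ K) {R' : Set E3} (hR : IsOpen R') {e2 : ℝ≥0∞}
    (hR2 : 24 * KE 3 p * ∫⁻ x in Op Φ (QL L) f1 ∩ R', GGw (wt W) g x ^ p ≤ e2)
    {J : Type*} (Md : MD E3 3 J) (hD : Md.D0.Om = QL L) (k : J → ℕ)
    {N : ℕ} {Hk : Fin N → E3 → ℝ≥0∞} (hH : ∀ k, Measurable (Hk k))
    {θ : Fin N → ℝ≥0∞} (hθ : ∀ k, ∫⁻ b in box 3, Hk k b ≤ θ k) {A' : Set E3}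
    (hA : volume (box 3 \ A') ≤ 1 / 4) {Q : E3 → Prop} (hQ : ∀ᵐ b, Q b) :
    ∃ b ∈ A', b ∈ box 3 ∧ Q b ∧
      (∀ (k : ℕ) (z : Fin 3 → ℤ), Good (Op Φ (QL L) f1) (us Φ f1) g (vx b k z)) ∧
      (∀ l, Ed (outD Md.D0 k Md.W b) l p (Xs (wt W) g (fun l => ENNReal.ofReal (s l)) l) ≤
        K * (ε + ε ^ p⁻¹) * volume (QL L)) ∧
      (∀ l, Ed (outD Md.D0 k Md.W b) l 1 (Xs (wt W) g (fun l => ENNReal.ofReal (s l)) l) ≤
        K * (ε + ε ^ p⁻¹) * volume (QL L)) ∧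
      S (outD Md.D0 k Md.W b) p (R'.indicator (GGw (wt W) g)) ≤ e2 ∧
      ∀ k, Hk k b ≤ 8 * N * θ k :=
  nums hp hLa H hg0 hW hWs hK hR hR2 (outD Md.D0 k Md.W 0) (by
    rw [Md.outD_Om_eq 0, hD]) hH hθ hA hQ

end main

end Crest.Agent.R096.Nx4_473
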