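import Crest.Agent.R096.Bmd5_798
import Crest.Agent.R096.Nx4_473
import Crest.Agent.R096.Nend4_458
import Crest.Agent.R096.Jv1_733
import Crest.Agent.R096.Mon1_664
import Crest.Agent.R096.Nsl2_552

/-!
Row 96 (S0127), helper798.  NO0-PRE3: **`exMeshN_of : ExBlkN p → PreGenN → ExMeshN p`**
(962 #11679 (1)).
-/

set_option autoImplicit false
set_option linter.style.longLine false
set_option linter.unusedSectionVars false
set_option linter.unusedVariables false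

open MeasureTheory Set Filter Topology Metric
open scoped NNReal ENNReal

noncomputable section

namespace Crest.Agent.R096.Bmd_798

open Crest.Agent.R096.Msh_715 hiding P I
open Crest.Agent.R096.SkC1_961 (E3 Cfg FoamD Hom3 NN)
open Crest.Agent.R096.Ls_222
open Crest.Agent.R096.Mbf_337
open Crest.Agent.R96.Pm_199 (le Dec)
open Crest.Agent.R096.Msh_810 Crest.Agent.R96.En2_199 Crest.Agent.R96.En4_199
  Crest.Agent.R96.En9_199 Crest.Agent.R96.En11_199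
open Crest.Agent.R096.Ps_273
open Crest.Agent.R096.No0_477 (cub fr Fc vx)
open Crest.Agent.R096.Ea_713 (lin)
open Crest.Agent.R096.Er_594 (SH3)
open Crest.Agent.R096.Der_764 (OmH)
open Crest.Agent.R96.Sob4_199 (VWD)
open Crest.Agent.R96.Acl_392 (WD)
open Crest.Agent.R96.En10_199 (P3)
open Crest.Agent.R096.Bsp_628 Crest.Agent.R096.Brk5_582
open Crest.Agent.R096.Dic6_582 (dF kF)
open Crest.Agent.R096.Bxs_627 (zz)
open Crest.Agent.R096.EaX_766 (cbx)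
open Crest.Agent.R096.Fns_360 (trA FineS offO O34)
open Crest.Agent.R096.Mal_874 (MD RD outD reOm)
open Crest.Agent.R096.Gno_324 (cap capD_Om)
open Crest.Agent.R096.Mfa_880 (QU BxM)
open Crest.Agent.R096.Bls_168 (cwR Bulk cnt_eq cwR_ne_top cw_num)
open Crest.Agent.R096.Np_962
open Crest.Agent.R096.No_276 (QL)
open Crest.Agent.R096.Npr_582 (Op cN)
open Crest.Agent.R096.Pmc_112 (Gd')
open Crest.Agent.R096.Nx4_473 (Kn Kn_ne_top exists_Rp nums_md front3_g0 g0 g0_off vol_QL int_GGw_lt wt)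

/-- the constant of `ExMeshN` -/
def Kmn (p : ℝ) : ℝ≥0∞ := Kn p + 512

theorem Kmn_ne_top {p : ℝ} (hp : 1 ≤ p) : Kmn p ≠ ⊤ :=
  ENNReal.add_ne_top.2 ⟨Kn_ne_top hp, by norm_num⟩

/-- **COMPOSITION OF `ExMeshN`** -/
theorem exMeshN_of {p : ℝ} (hp : 1 ≤ p) (HB : ExBlkN p) (HG : PreGenN) : ExMeshN p := by
  classical
  obtain ⟨Ku, hKu, hcw⟩ := cw_num
  refine ⟨Bme_922.S0, Ku, Kmn p, Bme_922.S0_finite, hKu, Kmn_ne_top hp, fun q hq =>
    ⟨1 / 16, by norm_num, fun κ3 hκ3 hκ3q Cs hCs => ?_⟩⟩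
  have hdF : 0 < dF q := Crest.Agent.R096.Dic6_582.dF_pos hq
  have hkF : (1 : ℝ) ≤ kF q := kF_one q
  obtain ⟨B0, R0, KB, hKB, HB⟩ := HB q hq
  obtain ⟨KG, hKG, HG⟩ := HG p hp B0 R0 (dF q) 6 hdF (by norm_num) Cs hCs
  refine ⟨KG * KB, ENNReal.mul_ne_top hKG hKB, fun κ' hκ' hκ'1 lam0 hlam0 κ1 hκ1 => ?_⟩
  set κm : ℝ := min κ1 (1 / (32 * kF q)) with hκm
  have hκm0 : 0 < κm := lt_min hκ1 (by positivity)
  have hκm1 : κm ≤ κ1 := min_le_left _ _
  have hκm2 : κm * kF q ≤ 1 / 32 := by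
    have h1 : κm ≤ 1 / (32 * kF q) := min_le_right _ _
    calc κm * kF q ≤ 1 / (32 * kF q) * kF q := mul_le_mul_of_nonneg_right h1 (by linarith)
      _ = 1 / 32 := by field_simp
  obtain ⟨κ1f, hκ1f, hκ1f2, HB⟩ := HB κ' hκ' hκ'1 lam0 hlam0 κm hκm0 hκm2
  refine ⟨κ1f, hκ1f, ?_⟩
  intro L η hL hη0 hη s hs εf εf' δf e5 he5 hεf hKe hKd La f D0f hLa hLab hSH hclose Mf ρ0 h hMf hρ0
    hρ5 hdy al F bf cmp lam hl hl4 A f1 D1 X HH g Hf e ρ he hρ
  set Φ := ΦN bf cmp lam hl hl4 with hΦ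
  have hL0 : (0 : ℝ) < L := by exact_mod_cast hL
  have hQo : IsOpen (QL (L : ℝ)) := Nst_780.isOpen_QL hL0.ne'
  have hQb : Bornology.IsBounded (QL (L : ℝ)) := Nst_780.isBounded_QL hL0.ne'
  have hQn : (QL (L : ℝ)).Nonempty := ⟨0, by
    refine ⟨?_, ?_, ?_⟩ <;> simp⟩
  set g' : Φ.F → Fin 3 → E3 → ℝ := g0 Φ (QL L) f1 g with hg'
  have Hf' := front3_g0 Hf
  have hKn : Kn p ≤ Kmn p := le_self_add
  have h512 : (512 : ℝ≥0∞) ≤ Kmn p := le_add_self
  have hεf' : εf' ≠ ⊤ := by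
    rintro rfl
    have h1 : Kmn p * ⊤ = ⊤ := ENNReal.mul_top (lt_of_lt_of_le (by norm_num) h512).ne'
    rw [h1] at hKe
    exact absurd hKe (not_le.2 ENNReal.ofReal_lt_top)
  -- weights
  obtain ⟨W, hW0, hWd, hW1, hW2, hW3, hWl⟩ := Nsl_552.exists_W Φ hq Hf.c.h0 hdy al hκ3 hκ3q
  -- the bad set
  obtain ⟨R', hR1, hXR, hR2, hcov, hvR, hsR⟩ := exists_Rp hp hL Hf'.c hεf hεf' hWl hW3 hKn he
  -- the outer data
  obtain ⟨D0, hD1, -, hD3, hD4⟩ := Szn_849.dat_front hQo hLa Hf hR1 hXR hκm0 (C := 6) (by norm_num) 0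
  -- the blocks
  obtain ⟨D', w0, Mc, M, Y, k0, hk0, κr, Gd, B, hDm, hDv, hMD, hN, hGen, hBsum⟩ :=
    HB s εf εf' (QL L) La f hQo hQb hLa hLab Mf ρ0 h al F bf cmp lam hl hl4 A f1 D1 X HH g Hf D0 hD1 hD3
      (fun u hu => ⟨(hD4 u hu).1, (hD4 u hu).2.1⟩)
  have hφ : ∀ x, M.φ x = x := by
    intro x
    rw [hGen.φ]
    rfl
  have hOm : M.D0.Om = QL L := by rw [hMD, hD3]
  have hC6 : M.D0.C = 6 := by rw [hMD, hD1]
  -- the block of squares
  have hvol : ∀ S : Finset (UX F), ∑ j ∈ S, volume (M.Q j).N ≤ ENNReal.ofReal (e5 / L) := fun S =>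
    Jv_733.junk_front hL Hf hl hl4 le_rfl hκ1f.le hκ1f2 he5.le
      (le_trans (by norm_num) h512) hKe (b := fun j : UX F => j.1) Subtype.val_injective hN S
  obtain ⟨β, hβ, hβO, hfin, k0g, hk0g, K1, hgeo⟩ := exists_geoN M hφ hL hOm hη0 hη he5 hvol
  -- (M3)
  have hOmH : OmH Φ f1 (QL L) = Op Φ (QL L) f1 := rfl
  have hgf : ∫⁻ x in QL (L : ℝ), GGw (fun c => ENNReal.ofReal (W c)) g' x ^ p ≠ ⊤ := by
    have hp0 : 0 < p := by linarith
    have h1 := int_GGw_lt hp Hf'.c hWl hW3 hεf (vol_QL hL)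
    have h2 : ∫⁻ x in QL (L : ℝ), GGw (wt W) g' x ^ p =
        ∫⁻ x in Op Φ (QL L) f1, GGw (wt W) g' x ^ p := by
      have hsub : Op Φ (QL L) f1 ⊆ QL L := fun x hx => hx.1
      have h3 : (fun x => GGw (wt W) g' x ^ p) =
          (Op Φ (QL L) f1).indicator (fun x => GGw (wt W) g' x ^ p) := by
        funext x
        by_cases hx : x ∈ Op Φ (QL L) f1
        · rw [indicator_of_mem hx]
        · rw [indicator_of_notMem hx]
          have h4 : GGw (wt W) g' x = 0 := by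
            unfold GGw G1
            refine ENNReal.tsum_eq_zero.2 fun c => ?_
            have h5 : ∀ i, g' c i x = 0 := fun i => g0_off hx c i
            simp only [h5, enorm_zero, Finset.sum_const_zero, mul_zero]
          rw [h4, ENNReal.zero_rpow_of_pos hp0]
      rw [h3, setLIntegral_indicator Hf.c.op.measurableSet, inter_eq_self_of_subset_left hsub, ← h3]
    change ∫⁻ x in QL (L : ℝ), GGw (wt W) g' x ^ p ≠ ⊤
    rw [h2]
    exact h1.ne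
  obtain ⟨kw, hkw⟩ := HG (kF q) (cN q) La (QL L) Φ f1 D1 D' hQo hQn hQb hLa Hf.c.homeo Hf.sh hDm hDv
    g' Hf'.c.gm Hf'.c.wd W κ' κm (1 / 16) κ3 hW0 hWd hW1 hW2 hW3 hκ' hκ'1 hκ3 (by norm_num)
    (lt_of_le_of_lt hκm2 (by norm_num)) (fun c l x hx => g0_off hx c l) hgf _ lam _ Mc M Y k0 hk0 κr
    Gd B hGen e he
  -- the scales
  set S : Finset (UX F) := hfin.toFinset with hS
  obtain ⟨n, hn⟩ : ∃ n : ℕ, ((2 : ℝ) ^ n)⁻¹ ≤ ρ := by
    obtain ⟨n, hn⟩ := exists_pow_lt_of_lt_one hρ (show (1 / 2 : ℝ) < 1 by norm_num)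
    refine ⟨n, ?_⟩
    rw [one_div, inv_pow] at hn
    exact hn.le
  set K0 : ℕ := max K1 (max (S.sup kw) n) with hK0
  have hK01 : K1 ≤ K0 := le_max_left _ _
  have hK02 : ∀ j ∈ S, kw j ≤ K0 := fun j hj =>
    (Finset.le_sup (f := kw) hj).trans ((le_max_left _ _).trans (le_max_right _ _))
  have hK03 : n ≤ K0 := (le_max_right _ _).trans (le_max_right _ _)
  set k : UX F → ℕ := fun j => if j ∈ S then K0 else max (max (k0g j) (kw j)) K0 with hkdef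
  have hkS : ∀ j, j ∈ S → k j = K0 := fun j hj => if_pos hj
  have hkn : ∀ j, j ∉ S → k j = max (max (k0g j) (kw j)) K0 := fun j hj => if_neg hj
  have hSm : ∀ j, j ∈ S ↔ (M.V j ∩ cthickening β (BB L η)).Nonempty := fun j =>
    hfin.mem_toFinset
  have hk1 : ∀ j, k0g j ≤ k j ∨ (M.V j ∩ cthickening β (BB L η)).Nonempty := by
    intro j
    by_cases hj : j ∈ S
    · exact Or.inr ((hSm j).1 hj)
    · left
      rw [hkn j hj]
      exact (le_max_left _ _).trans (le_max_left _ _)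
  have hk2 : ∀ j, K0 ≤ k j := by
    intro j
    by_cases hj : j ∈ S
    · rw [hkS j hj]
    · rw [hkn j hj]
      exact le_max_right _ _
  have hk3 : ∀ j, (M.V j ∩ cthickening β (BB L η)).Nonempty → k j = K0 := fun j hj =>
    hkS j ((hSm j).2 hj)
  have hk4 : ∀ j, kw j ≤ k j := by
    intro j
    by_cases hj : j ∈ S
    · rw [hkS j hj]
      exact hK02 j hj
    · rw [hkn j hj]
      exact (le_max_right _ _).trans (le_max_left _ _)
  have hc : 0 < M.D0.C / 2 ^ K0 := by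
    rw [hC6]
    positivity
  obtain ⟨hk, hK, hrest⟩ := hgeo K0 hK01 hc k hk1 hk2 hk3
  set r : ℝ := ((2 : ℝ) ^ K0)⁻¹ with hr
  have hr0 : 0 < r := by positivity
  have hrρ : r ≤ ρ := le_trans (by
    rw [hr]
    exact inv_anti₀ (by positivity) (pow_le_pow_right₀ (by norm_num) hK03)) hn
  obtain ⟨h4r, hLr, hβr, hblk⟩ := hrest r hr0.ne' rfl
  -- (M3) at these scales
  obtain ⟨A1, hA1m, hA1v, hA1⟩ := hkw _ hc k hk hk4
  -- the ends
  obtain ⟨Se, hS1, hS2, hS3⟩ := Pg_691.exists_ends hp hQo (vol_QL hL) hSH s hclose (k := K0)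
    (r := r) (by rw [hr, one_div])
  -- the shift
  set Mc0 := cap M (M.D0.C / 2 ^ K0) hc with hMc0
  have hOmc : Mc0.D0.Om = QL L := by
    have h3 : Mc0.D0.Om = M.D0.Om := capD_Om M.D0 _ hc
    rw [h3, hOm]
  obtain ⟨a, haA, habox, haS, haG, haEd, haEd1, haSR, haH⟩ := nums_md hp hLa Hf'.c
    (fun c l x hx => g0_off hx c l) hWl hW3 hKn hR1 hsR Mc0 hOmc k (N := 2) (Hk := Se) hS1
    (θ := fun _ => ((2 : ℝ≥0∞) ^ K0) ^ 2 * (δf ^ p⁻¹ * volume (QL (L : ℝ)))) hS2 hA1v hS3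
  obtain ⟨v, hv, hvG, frr, hfin', hcmp, hchoice, hnonQ⟩ := hA1 a haA
  obtain ⟨o, Mm, Zs, lo, hi, hM0, zne, zs, N1, N2, hcub, hblkk, hjs⟩ := hblk a
  have hO : Mc0.φ ⁻¹' Mc0.D0.Om = QL L := Szn_849.cap_pre M hc hGen.hOm
  obtain ⟨hjunk, hscl⟩ := hjs v hv hO
  have hφc : ∀ x, Mc0.φ x = x := hφ
  -- the bulk
  have hBulk : Bulk Mc0 k a v K0 r o Mm Zs (BB L η) :=
    { r_eq := rfl
      sub := hcub
      hK := by
        intro x hx
        filter_upwards [ball_mem_nhds x (show (0 : ℝ) < β / 2 by linarith)] with y hy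
        exact hK a y (mem_cthickening_of_dist_le y x _ _ hx (mem_ball.1 hy).le)
      hj := by
        rintro j ⟨y, hy1, hy2⟩
        refine hk3 j ⟨y, ?_, self_subset_cthickening _ hy2⟩
        have h2 := MD.N_mem hv j hy1
        exact Eq.subst (motive := fun t => t ∈ M.V j) (hφ y) h2 }
  have hψc : ∀ j x, ‖(Mc0.Q j).ψ x‖ ≤ ‖x‖ := hGen.ψ1
  obtain ⟨hcwQ, hcwc⟩ := hcw Mc0 hφc hψc hk a hv hr0.ne' hBulk
  obtain ⟨hcores, hfine⟩ := hGen.cf _ hc k hk a v hv hvG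
  have hcs : ∑' c : Φ.F, ENNReal.ofReal ((1 / lam c * ‖lin (Av (fun c => trA (A c) (w0 c)) v c)‖) ^ p) *
      volume (Msh_715.P ((Mc0.mesh hk a hv).H (ctu Mc0 hk a hv c))) ≤ εf' * volume (QL (L : ℝ)) := by
    have key : ∀ A2 : Φ.F → E3 ≃ᵃ[ℝ] E3, A2 = Av (fun c => trA (A c) (w0 c)) v →
        Cores Φ (reOm (Mc0.mesh hk a hv) hO) f1 κm (1 / 16) univ
          (fun b => {ctu Mc0 hk a hv b}) (fun b => {ctu Mc0 hk a hv b})
          (fun b => {ctu Mc0 hk a hv b}) (ctu Mc0 hk a hv) A2 lam (fun c => zz c.1 (lam c))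
          (fun _ x => x) (fun _ _ => 0) := by
      rintro _ rfl
      exact Szn_849.cores_reOm hO hcores
    have h1 := Jv_733.cs_front Hf (key (fun c => trA (A c) (w0 c + v ⟨c, mem_univ c⟩)) (by
      funext c
      exact (Mdd_360.trA_trA (A c) (w0 c) (v ⟨c, mem_univ c⟩)).symm))
    refine le_trans (le_of_eq (tsum_congr fun c => ?_)) h1
    have h2 : Av (fun c => trA (A c) (w0 c)) v c = trA (A c) (w0 c + v ⟨c, mem_univ c⟩) :=
      Mdd_360.trA_trA (A c) (w0 c) (v ⟨c, mem_univ c⟩)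
    rw [h2]
    rfl
  have hm : ∀ j, Se j a ≤ 16 * (((2 : ℝ≥0∞) ^ K0) ^ 2 * (δf ^ p⁻¹ * volume (QL (L : ℝ)))) := by
    intro j
    refine (haH j).trans (le_of_eq ?_)
    norm_num
  have hends := Nend_458.ends3 hL (f := f) (f1 := f1) (s := s) (r := r) (e5 := e5) (ρ0 := ρ0) (η := η)
    (K0 := K0) rfl hM0 lo hi (fun m hm' => (zs m).1 hm') N1 haS hm (by
      have h1 : 512 * δf ^ p⁻¹ ≤ ENNReal.ofReal e5 :=
        (mul_le_mul' h512 le_rfl).trans hKd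
      have h2 : (16 : ℝ≥0∞) * (16 * δf ^ p⁻¹) = 2⁻¹ * (512 * δf ^ p⁻¹) := by
        rw [← mul_assoc, ← mul_assoc]
        congr 1
        rw [show (512 : ℝ≥0∞) = 2 * 256 by norm_num, ← mul_assoc,
          ENNReal.inv_mul_cancel (by norm_num) (by norm_num)]
        norm_num
      rw [h2]
      calc 2⁻¹ * (512 * δf ^ p⁻¹) ≤ 2⁻¹ * ENNReal.ofReal e5 := mul_le_mul' le_rfl h1
        _ = ENNReal.ofReal (e5 / 2) := by
            rw [div_eq_inv_mul, ENNReal.ofReal_mul (by norm_num), ENNReal.ofReal_inv_of_pos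
              (by norm_num)]
            norm_num) he5 Hf.near (by linarith)
  have he3 : KG * ∑' j, B j + e ≤ KG * KB * εf' * volume (QL (L : ℝ)) + e := by
    refine add_le_add ?_ le_rfl
    calc KG * ∑' j, B j ≤ KG * (KB * εf' * volume (QL (L : ℝ))) := mul_le_mul' le_rfl hBsum
      _ = KG * KB * εf' * volume (QL (L : ℝ)) := by ring
  obtain ⟨Bf, hMesh⟩ := meshN_of (Φ := Φ) (M := Mc0) (hk := hk) (a := a) (hv := hv) hφc hO
    (q := q) (al := al) (h := h) (s := s) (η := η) (f1 := f1) (g := g') (W := W) (κ' := κ')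
    (μ := κ' / 64) (κ1 := κ1) (κ2 := 1 / 16) (κ3 := κ3) (Cs := Cs) (HH := HH) (R' := R')
    (hr := hr0.ne') (Ku := Ku) (e5 := e5)
    (J0 := fun b => {ctu Mc0 hk a hv b}) (Jt := fun b => {ctu Mc0 hk a hv b})
    (V := fun b => {ctu Mc0 hk a hv b}) (ct := ctu Mc0 hk a hv)
    (A := Av (fun c => trA (A c) (w0 c)) v) (lam := lam) (z := fun c => zz c.1 (lam c))
    (θ := fun _ x => x) (φ := fun _ _ => 0) (Mg := Mc) (D' := D')
    (cw := fun i => cwR (Mc0.mesh hk a hv) r hr0.ne' a o Mm Zs i) frr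
    (fun c : Φ.F => (⟨c, mem_univ c⟩ : UX Φ.F)) (fun c c' hcc => congrArg Subtype.val hcc)
    (fun c => rfl) rfl lo hi hM0 zne (fun m hm' => (zs m).1 hm') N1 N2 hblkk hjunk hscl
    (fun p => scQ_cap p) hends
    (Mon_664.cores_mono hcores hκm1 le_rfl) (Mon_664.fine_mono hfine hκm1) hfin' hcmp hchoice hcov
    (fun p => Szn_849.outer_HR M hc hk a hv hφ (fun u hu => by
      have h1 := (hD4 u (by rw [← hOm]; exact hu)).2.2
      rw [hMD]
      exact h1) p)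
    (fun i => (cnt_eq _ _ _ _ _ _ i).le) hcwQ (fun c => hcwc ⟨c, mem_univ c⟩)
    (fun i _ _ => cwR_ne_top _ _ _ _ _ _ i) hWl Hf'.c.gm haEd haEd1 haSR hvR
    ((hnonQ K0 r hr0.ne' o Mm Zs _ hBulk).trans he3) hcs
  exact ⟨W, R', outD Mc0.D0 k Mc0.W a, K0, r, hr0.ne', o, Mm, Zs, TI Mc0 hk a hv,
    reOm (Mc0.mesh hk a hv) hO, Qr Mc0 hk a hv, tau Mc0 hk a hv,
    (fun b => {ctu Mc0 hk a hv b}), (fun b => {ctu Mc0 hk a hv b}), (fun b => {ctu Mc0 hk a hv b}),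
    ctu Mc0 hk a hv, Av (fun c => trA (A c) (w0 c)) v, (fun c => zz c.1 (lam c)), (fun _ x => x),
    (fun _ _ => 0), Mc, Bf, (fun i => cwR (Mc0.mesh hk a hv) r hr0.ne' a o Mm Zs i), hrρ, hMesh⟩

end Crest.Agent.R096.Bmd_798
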