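import Crest.Agent.R096.Bls2_168

/-!
# Row 96 (S0127), helper168: leaf [X8] of 962 #11402, part 3: numeric constant for `Qr` and the cores
(no data), constants of the inner tiles from `B0, R0`, constants of the walls as functions of the
rational data only (uniform in the cap)
-/

set_option autoImplicit false
set_option linter.unusedSectionVars false
set_option linter.style.longLine false

open Set Metric Topology Filter MeasureTheory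
open scoped ENNReal

namespace Crest.Agent.R096.Bls_168

open Crest.Agent.R096.Msh_715 Crest.Agent.R096.Mal_874 Crest.Agent.R096.Cut_874
open Crest.Agent.R096.Msh_810
open Crest.Agent.R096.SkC1_961 (E3)
open Crest.Agent.R096.Bmd_798
open Crest.Agent.R096.No0_477 (cub fr Fc vx)
open Crest.Agent.R096.SkN1_477 (usq)
open Crest.Agent.R096.Np_962 (cntA)
open Crest.Agent.R096.Cnp_479 (Kcn Kcn_pos)

noncomputable section

/-- **numeric radius** for the tiles of `Qr` and the cores -/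
theorem exists_cu0 :
    ∃ cu : ℝ, 0 < cu ∧ cu ≤ 1 ∧ ∀ {J : Type} (M : MD E3 3 J), (∀ x, ‖M.φ x‖ ≤ ‖x‖) →
      (∀ j x, ‖(M.Q j).ψ x‖ ≤ ‖x‖) → ∀ {k : J → ℕ} (hk : M.Sc k) (a : E3) {v : J → E3}
      (hv : M.Adm v),
      (∀ p : M.OIx hk a hv, QrP M hk a hv p →
        HasB (M.mesh hk a hv) (Sum.inl p) (cu / 2 ^ p.1.par.1.1.k)) ∧
      ∀ j, HasB (M.mesh hk a hv) (Sum.inr ⟨j, M.core hk a hv j⟩) (cu / 2 ^ k j) := by
  classical
  obtain ⟨ρ, hρ, h⟩ := ball_goods (n := 3) E3 (Ls := {(N0 3, 1)}) (finite_singleton _)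
    (by rintro p rfl; exact one_pos) (by rintro p rfl; exact N0_rat one_pos) 2
  set cu : ℝ := min (1 / 2) (ρ / 2) with hcu
  have hcu0 : 0 < cu := lt_min (by norm_num) (by linarith)
  have hcu1 : cu ≤ 1 / 2 := min_le_left _ _
  have hcu2 : cu ≤ ρ / 2 := min_le_right _ _
  refine ⟨cu, hcu0, hcu1.trans (by norm_num), fun {J} M hφ hψ {k} hk a {v} hv =>
    ⟨fun p hp => ?_, fun j => ?_⟩⟩
  · obtain ⟨-, -, hg⟩ := good_of_Qr hp
    refine (h _ _ M.φ hφ a _ _ rfl hg).mono ?_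
    calc cu / 2 ^ p.1.par.1.1.k ≤ (ρ / 2) / 2 ^ p.1.par.1.1.k := by gcongr
      _ = ρ / 2 ^ (p.1.par.1.1.k + 1) := by rw [pow_succ]; field_simp
  · have hP := M.P_core hk a hv j
    set Q := M.Bk v j with hQ
    have hp : (0 : ℝ) < 2 ^ Q.kc := by positivity
    set u : Fin 3 → ℝ := fun m => (Q.S.lo m : ℝ) + 1 / 2 with hu
    obtain ⟨c, hc⟩ := (chi Q.ψ Q.a' Q.kc).surjective u
    have hb : closedBall (chi Q.ψ Q.a' Q.kc c) (1 / 2) ⊆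
        chi Q.ψ Q.a' Q.kc '' Msh_715.P ((M.mesh hk a hv).H (Sum.inr ⟨j, M.core hk a hv j⟩)) := by
      rw [hc, hP]
      intro w hw
      obtain ⟨y, rfl⟩ := (chi Q.ψ Q.a' Q.kc).surjective w
      refine mem_image_of_mem _ ?_
      rw [mem_closedBall, dist_eq_norm, pi_norm_le_iff_of_nonneg (by norm_num)] at hw
      intro m
      have h1 := hw m
      rw [Pi.sub_apply, Real.norm_eq_abs, abs_le, chi_eq_ps] at h1
      have h2 : (Q.S.lo m : ℝ) + 1 ≤ Q.S.hi m := by exact_mod_cast Q.S.lt m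
      simp only [hu] at h1
      constructor <;> linarith [h1.1, h1.2]
    have hB' : HasB (M.mesh hk a hv) (Sum.inr ⟨j, M.core hk a hv j⟩) (1 / 2 / 2 ^ Q.kc) :=
      ⟨c, ball_chi (hψ j) hb⟩
    refine hB'.mono ?_
    calc cu / 2 ^ k j ≤ cu / 2 ^ Q.kc :=
          div_le_div_of_nonneg_left hcu0.le hp (pow_le_pow_right₀ (by norm_num) (hk.kc j))
      _ ≤ (1 / 2) / 2 ^ Q.kc := by gcongr

/-- **RATIOS, numeric constant** (tiles of `Qr`, cores) -/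
theorem cw_num :
    ∃ Ku : ℝ≥0∞, Ku ≠ ∞ ∧ ∀ {J : Type} (M : MD E3 3 J), (∀ x, M.φ x = x) →
      (∀ j x, ‖(M.Q j).ψ x‖ ≤ ‖x‖) → ∀ {k : J → ℕ} (hk : M.Sc k) (a : E3) {v : J → E3}
      (hv : M.Adm v) {K0 : ℕ} {r : ℝ} (hr : r ≠ 0) {o : Fin 2 → ℤ} {Mm : ℕ} {Zs : Finset ℤ}
      {B : Set E3}, Bulk M k a v K0 r o Mm Zs B →
      (∀ i ∈ Qr M hk a hv, cwR (M.mesh hk a hv) r hr a o Mm Zs i ≤ Ku) ∧
      ∀ j, cwR (M.mesh hk a hv) r hr a o Mm Zs (Sum.inr ⟨j, M.core hk a hv j⟩) ≤ Ku := by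
  obtain ⟨cu, hc0, -, h⟩ := exists_cu0
  refine ⟨ENNReal.ofReal (Kcn cu), ENNReal.ofReal_ne_top,
    fun {J} M hφ hψ {k} hk a {v} hv {K0 r} hr {o Mm Zs B} hb => ?_⟩
  obtain ⟨h1, h3⟩ := h M (fun x => by rw [hφ]) hψ hk a hv
  refine ⟨?_, fun j => ?_⟩
  · rintro _ ⟨p, rfl, hp⟩
    refine cwR_le_of hr hb hc0 ?_
    rintro ⟨y, hy1, hy2⟩
    have := h1 p hp
    rwa [par_k hφ (hb.hK y hy2) hy1] at this
  · refine cwR_le_of hr hb hc0 ?_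
    rintro ⟨y, hy1, hy2⟩
    have := h3 j
    rwa [hb.hj j ⟨y, (M.core hk a hv j).2 hy1, hy2⟩] at this

/-- **RATIOS, inner tiles off the wall**: constant from the bounds of the shells -/
theorem cw_in (B0 : ℕ) (R0 : ℝ) :
    ∃ Ki : ℝ≥0∞, Ki ≠ ∞ ∧ ∀ {J : Type} (M : MD E3 3 J), (∀ x, M.φ x = x) →
      (∀ j x, ‖(M.Q j).ψ x‖ ≤ ‖x‖) → ∀ {k : J → ℕ} (hk : M.Sc k) (a : E3) {v : J → E3}
      (hv : M.Adm v) (X : RD M), RP X a v k → (∀ j, X.B j ≤ B0) → (∀ j, X.R j ≤ R0) →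
      ∀ {K0 : ℕ} {r : ℝ} (hr : r ≠ 0) {o : Fin 2 → ℤ} {Mm : ℕ} {Zs : Finset ℤ} {B : Set E3},
      Bulk M k a v K0 r o Mm Zs B → ∀ j (i : M.IIx hk a hv j),
        Disjoint (Msh_715.P ((M.mesh hk a hv).H (Sum.inr ⟨j, i⟩))) (frontier (M.Bk v j).N) →
        cwR (M.mesh hk a hv) r hr a o Mm Zs (Sum.inr ⟨j, i⟩) ≤ Ki := by
  obtain ⟨Ku, h1, h2⟩ := cw_univ B0 R0
  exact ⟨Ku, h1, fun {J} M hφ hψ {k} hk a {v} hv X RPx hB hR {K0 r} hr {o Mm Zs B} hb =>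
    (h2 M hφ hψ hk a hv X RPx hB hR hr hb).2.1⟩

/-- radius of the balls in good tiles with rational data `(A, d, c)` -/
theorem exists_cF :
    ∃ cF : (Fin 3 → Fin 3 → ℤ) → ℕ → ℝ → ℝ, (∀ A d c, 0 < cF A d c ∧ cF A d c ≤ 1) ∧
      ∀ (A : Fin 3 → Fin 3 → ℤ) (d : ℕ) (c : ℝ), 0 < d → ∀ {Om : Set E3} {ι : Type}
        (T : Tiling Om ι) (t : ι) (ψ : E3 ≃L[ℝ] (Fin 3 → ℝ)) (_ : ∀ x, ‖ψ x‖ ≤ ‖x‖)
        (a' : Fin 3 → ℝ) (k : ℕ), Good T t (chi ψ a' k) k (NR A d) d c →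
        HasB T t (cF A d c / 2 ^ k) := by
  have key : ∀ (A : Fin 3 → Fin 3 → ℤ) (d : ℕ) (c : ℝ), ∃ ρ : ℝ, (0 < ρ ∧ ρ ≤ 1) ∧ (0 < d →
      ∀ {Om : Set E3} {ι : Type} (T : Tiling Om ι) (t : ι) (ψ : E3 ≃L[ℝ] (Fin 3 → ℝ))
        (_ : ∀ x, ‖ψ x‖ ≤ ‖x‖) (a' : Fin 3 → ℝ) (k : ℕ),
        Good T t (chi ψ a' k) k (NR A d) d c → HasB T t (ρ / 2 ^ k)) := by
    intro A d c
    by_cases hd : 0 < d
    · obtain ⟨ρ, hρ, h⟩ := ball_goods E3 (Ls := {(NR A d, d)}) (finite_singleton _)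
        (by rintro p rfl; exact hd) (by rintro p rfl; exact NR_rat A hd) c
      refine ⟨min ρ 1, ⟨lt_min hρ one_pos, min_le_right _ _⟩, fun _ {Om ι} T t ψ hψ a' k hg => ?_⟩
      refine (h T t ψ hψ a' k _ rfl hg).mono ?_
      gcongr
      exact min_le_left _ _
    · exact ⟨1, ⟨one_pos, le_rfl⟩, fun h => absurd h hd⟩
  choose cF h1 h2 using key
  exact ⟨cF, h1, fun A d c hd {Om ι} T t ψ hψ a' k hg => h2 A d c hd T t ψ hψ a' k hg⟩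

/-- the constant of the tiles at a wall with rational data `(A, d, c)` -/
def Kw (A : Fin 3 → Fin 3 → ℤ) (d : ℕ) (c : ℝ) : ℝ≥0∞ :=
  ENNReal.ofReal (Kcn (exists_cF.choose A d c))

theorem Kw_ne_top (A : Fin 3 → Fin 3 → ℤ) (d : ℕ) (c : ℝ) : Kw A d c ≠ ∞ := ENNReal.ofReal_ne_top

section

variable {J : Type} {M : MD E3 3 J} {k : J → ℕ} {hk : M.Sc k} {a : E3} {v : J → E3}
  {hv : M.Adm v} {K0 : ℕ} {r : ℝ} {o : Fin 2 → ℤ} {Mm : ℕ} {Zs : Finset ℤ} {B : Set E3}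

/-- **RATIOS, outer tiles at the wall `j`** -/
theorem cw_outw (hφ : ∀ x, M.φ x = x) (X : RD M) (hr : r ≠ 0) (hb : Bulk M k a v K0 r o Mm Zs B)
    {p : M.OIx hk a hv} {j : J} (hj : p.1.par.1.1.k = k j)
    (hg : Good (M.mesh hk a hv) (Sum.inl p) (chi M.φ a (k j)) (k j) (NR (X.A j) (X.d j)) (X.d j)
      (X.c j)) :
    cwR (M.mesh hk a hv) r hr a o Mm Zs (Sum.inl p) ≤ Kw (X.A j) (X.d j) (X.c j) := by
  obtain ⟨h1, h2⟩ := exists_cF.choose_spec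
  refine cwR_le_of hr hb (h1 _ _ _).1 ?_
  rintro ⟨y, hy1, hy2⟩
  have := h2 _ _ _ (X.dpos j) _ _ M.φ (fun x => by rw [hφ]) a _ hg
  rwa [← hj, par_k hφ (hb.hK y hy2) hy1] at this

/-- **RATIOS, inner tiles at the wall `j`** -/
theorem cw_inw (hφ : ∀ x, M.φ x = x) (X : RD M) (RPx : RP X a v k) (hr : r ≠ 0)
    (hb : Bulk M k a v K0 r o Mm Zs B) {j : J} {i : M.IIx hk a hv j} (hi : i ≠ M.core hk a hv j)
    (hw : (Msh_715.P ((M.mesh hk a hv).H (Sum.inr ⟨j, i⟩)) ∩ frontier (M.Bk v j).N).Nonempty) :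
    cwR (M.mesh hk a hv) r hr a o Mm Zs (Sum.inr ⟨j, i⟩) ≤ Kw (X.A j) (X.d j) (X.c j) := by
  obtain ⟨h1, h2⟩ := exists_cF.choose_spec
  have hg : Good (M.mesh hk a hv) (Sum.inr ⟨j, i⟩) (chi M.φ a (k j)) (k j)
      (NR (X.A j) (X.d j)) (X.d j) (X.c j) := by
    rcases M.inner_good hk a hv X RPx i hi with ⟨τ, hτ, hd, -, hg⟩ | ⟨hn, hg⟩ | ⟨hτ, -, hg⟩
    · exact absurd hd (Set.not_disjoint_iff_nonempty_inter.2 hw)
    · exfalso
      obtain ⟨y, hy1, hy2⟩ := hw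
      have h3 : (M.Bk v j).near 2 y := by
        intro l
        have h4 := hn y hy1 l
        constructor <;> linarith [h4.1, h4.2]
      have h5 := (M.Bk v j).near_infDist h3
      rw [CB.frontier_N] at hy2
      have h6 : infDist ((M.Bk v j).ψ y) (M.Bk v j).W = 0 := infDist_zero_of_mem hy2
      rw [h6] at h5
      have h7 : (0 : ℝ) < (6 + 1) / 2 ^ (M.Bk v j).kc := by positivity
      linarith
    · exact hg
  refine cwR_le_of hr hb (h1 _ _ _).1 ?_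
  rintro ⟨y, hy1, hy2⟩
  have := h2 _ _ _ (X.dpos j) _ _ M.φ (fun x => by rw [hφ]) a _ hg
  rwa [hb.hj j ⟨y, i.2 hy1, hy2⟩] at this

end

end

end Crest.Agent.R096.Bls_168
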