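import Crest.Agent.R096.Mfs1_168
import Crest.Agent.R096.Bls3_168

/-!
# Row 96 (S0127), helper168: the ratios `cwR` of the ordinary tiles of `mfs` are bounded by weights of
the classes
-/

set_option autoImplicit false
set_option linter.unusedSectionVars false
set_option linter.style.longLine false

open MeasureTheory Set Filter Metric
open scoped Topology ENNReal

namespace Crest.Agent.R096.Mfs_168

open Crest.Agent.R096.Msh_715 Crest.Agent.R096.Msh_810 Crest.Agent.R096.Cut_874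
  Crest.Agent.R096.Mal_874
open Crest.Agent.R096.SkC1_961 (E3 Cfg)
open Crest.Agent.R96.Pm_199
open Crest.Agent.R096.Mfa_880
open Crest.Agent.R096.Bmd_798 (TI QrP Qr)
open Crest.Agent.R096.Bls_168

noncomputable section

section ins

variable {F : Type} {X : Set F} (I : Ins F X)

/-- **weights of the classes**: `Ku` for the tiles of `Qr`, `Ki` for the inner tiles off the wall, `Kw`
at the walls -/
def cwm (Ku Ki : ℝ≥0∞) : I.mf.κ → ℝ≥0∞ :=
  I.rec' 0 Ku (fun j => Kw (I.D.A j) (I.D.d j) (I.D.c j)) (fun _ _ => Ki)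
    (fun j => Kw (I.D.A j) (I.D.d j) (I.D.c j))

theorem cwm_kO (Ku Ki : ℝ≥0∞) : cwm I Ku Ki I.kO = Ku := rfl
theorem cwm_kOw (Ku Ki : ℝ≥0∞) (j : X) :
    cwm I Ku Ki (I.kOw j) = Kw (I.D.A j) (I.D.d j) (I.D.c j) := rfl
theorem cwm_kI (Ku Ki : ℝ≥0∞) (j : X) (c : Mfi_290.Pt (I.M.Q j) ⊕ ℕ) :
    cwm I Ku Ki (I.kI j c) = Ki := rfl
theorem cwm_kIw (Ku Ki : ℝ≥0∞) (j : X) :
    cwm I Ku Ki (I.kIw j) = Kw (I.D.A j) (I.D.d j) (I.D.c j) := rfl

/-- **the ratio of an ordinary tile is at most the weight of its class** -/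
theorem cw_class (hφ : ∀ x, I.M.φ x = x) {Ku Ki : ℝ≥0∞} {a : E3} {w : X → E3}
    (h : I.mf.Ok a w) {K0 : ℕ} {r : ℝ} (hr : r ≠ 0) {o : Fin 2 → ℤ} {Mm : ℕ} {Zs : Finset ℤ}
    {B : Set E3} (hb : Bulk I.M I.k (I.M.φ a) (fun j => a + w j) K0 r o Mm Zs B)
    (hKu : ∀ i ∈ Qr I.M I.hk (I.M.φ a) (Ins.adm h),
      cwR (I.M.mesh I.hk (I.M.φ a) (Ins.adm h)) r hr (I.M.φ a) o Mm Zs i ≤ Ku)
    (hKi : ∀ j (i : I.M.IIx I.hk (I.M.φ a) (Ins.adm h) j),
      Disjoint (Msh_715.P ((I.M.mesh I.hk (I.M.φ a) (Ins.adm h)).H (Sum.inr ⟨j, i⟩)))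
        (frontier (I.M.Bk (fun j => a + w j) j).N) →
      cwR (I.M.mesh I.hk (I.M.φ a) (Ins.adm h)) r hr (I.M.φ a) o Mm Zs (Sum.inr ⟨j, i⟩) ≤ Ki)
    {i : (I.mf.md a w h).ι} (hi : ((mfs I).md a w h).Ord i) :
    cwR (I.M.mesh I.hk (I.M.φ a) (Ins.adm h)) r hr (I.M.φ a) o Mm Zs i ≤
      cwm I Ku Ki ((mfs I).cl ((mfs I).pot a w h i)) := by
  rcases i with p | ⟨j, i⟩
  · by_cases hp : QrP I.M I.hk (I.M.φ a) (Ins.adm h) p
    · rw [cl_Qr I h hp]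
      exact hKu _ ⟨p, rfl, hp⟩
    · obtain ⟨j, h1, h2, h3⟩ := cl_not_Qr I h hp
      rw [h1]
      exact cw_outw hφ I.D hr hb h2 h3
  · have hij : i ≠ I.M.core I.hk (I.M.φ a) (Ins.adm h) j := by
      rintro rfl
      exact (mfs_ord I h).1 hi j rfl
    by_cases hd : (P ((I.M.mesh I.hk (I.M.φ a) (Ins.adm h)).H (Sum.inr ⟨j, i⟩)) ∩
        frontier (I.M.Bk (fun j => a + w j) j).N).Nonempty
    · rw [cl_inw I h hij hd]
      exact cw_inw hφ I.D (I.H.rp a fun j => (h.2 j).1) hr hb hij hd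
    · have hd' := Set.disjoint_iff_inter_eq_empty.2 (Set.not_nonempty_iff_eq_empty.1 hd)
      obtain ⟨c, hc⟩ := cl_in I h hij hd'
      rw [hc]
      exact hKi j i hd'

end ins

end

end Crest.Agent.R096.Mfs_168
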