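import Crest.Agent.R096.Np4_962

/-!
Row 96 (S0127), helper962, node NO0-PRE3.  **The literal Prop `ExMeshN p`** = the mesh part:
`Front3 → MeshN`, with the order of the constants.  Definitions only.
-/

set_option autoImplicit false
set_option linter.unusedSectionVars false
set_option linter.unusedVariables false
open Set Filter Topology MeasureTheory Metric
open scoped NNReal ENNReal

noncomputable section

namespace Crest.Agent.R096.Np_962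

open Crest.Agent.R096.Msh_715 hiding P I
open Crest.Agent.R096.SkC1_961 (E3 Cfg FoamD Hom3)
open Crest.Agent.R096.Brk5_582 Crest.Agent.R096.Bsp_628
open Crest.Agent.R096.Dic6_582 (dF kF)
open Crest.Agent.R096.Er_594 (SH3)
open Crest.Agent.R96.En10_199 (P3)
open Crest.Agent.R096.Msh_810
open Crest.Agent.R096.No_276 (QL)
open Crest.Agent.R096.Npr_582 (Op)

/-- **MESH PART OF NO0, `p ≥ 3`, literal Prop.**
`𝒮0` = universal shapes (outer cubes), `Ku` = counting constant of cubes and cores, `K` = averaging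
constant (all depend on `p` only); then `q`; then the collar `κ2` of the machine; then the machine's function `Cs`; then `KC`; then the density
`κ'` of the levels, the smallest ratio `lam0`, the machine's accuracy `κ1`; then the accuracy `κ1f` of
the front; then the data, small numbers `e`, `ρ`, `e5`. -/
def ExMeshN (p : ℝ) : Prop :=
  ∃ (𝒮0 : Set (Set (Set E3))) (Ku K : ℝ≥0∞), 𝒮0.Finite ∧ Ku ≠ ⊤ ∧ K ≠ ⊤ ∧
  ∀ q : ℕ, 1 ≤ q → ∃ κ2 : ℝ, 0 < κ2 ∧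
  ∀ κ3 : ℝ, 8 ≤ κ3 → 4 * (q : ℝ) ≤ κ3 →
  ∀ Cs : Set (Set E3) → ℝ, (∀ 𝒦, 0 < Cs 𝒦) → ∃ KC : ℝ≥0∞, KC ≠ ⊤ ∧
  ∀ κ' : ℝ, 0 < κ' → κ' ≤ 1 → ∀ lam0 : ℝ, 0 < lam0 → ∀ κ1 : ℝ, 0 < κ1 → ∃ κ1f : ℝ, 0 < κ1f ∧
  ∀ (L : ℕ) (η : ℝ), 1 ≤ L → 0 < η → η ≤ 1 / 8 →
  ∀ (s : Fin 3 → ℝ), (∀ i, 0 ≤ s i) → ∀ (εf εf' δf : ℝ≥0∞) (e5 : ℝ), 0 < e5 →
    εf ≠ ⊤ → K * εf' ≤ ENNReal.ofReal e5 → K * δf ^ p⁻¹ ≤ ENNReal.ofReal e5 →
  ∀ (La : Set E3) (f : E3 → E3) (D0 : E3 → E3 →L[ℝ] E3),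
    IsOpen La → Bornology.IsBounded La → SH3 p (QL L) La f D0 →
    ∫⁻ x in QL L, ∑ l, ‖P3 (D0 x (Pi.single l 1)) - EuclideanSpace.single l (s l)‖ₑ ^ p ≤
      δf * volume (QL L) →
  ∀ (Mf ρ0 h : ℝ), 3 ≤ Mf → 0 < ρ0 → ρ0 ≤ e5 / 16 → (∃ k N : ℕ, h / 2 * 2 ^ k = N) →
  ∀ (al : Fin 3 → ℝ) (F : Set (Bx (Fin 3))) (bf : BoxFoam La F (dF q) (kF q)) (cmp : Cmp F 6)
      (lam : F → ℝ) (hl : ∀ c, 0 < lam c) (hl4 : ∀ c, lam c ≤ 1 / 4) (A : F → E3 ≃ᵃ[ℝ] E3)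
      (f1 : E3 → E3) (D1 : E3 → E3 →L[ℝ] E3) (X HH : Set E3) (g : F → Fin 3 → E3 → ℝ),
      Front3 p q s εf εf' (QL L) La f Mf ρ0 h al κ1f (1 / 8) lam0 (ΦN bf cmp lam hl hl4) lam A f1 D1
        X HH g →
  ∀ (e : ℝ≥0∞) (ρ : ℝ), e ≠ 0 → 0 < ρ →
  ∃ (W : F → ℝ) (R' : Set E3) (D : Dat 3) (K0 : ℕ) (r : ℝ) (hr : r ≠ 0) (o : Fin 2 → ℤ) (M : ℕ)
    (Zs : Finset ℤ) (ι : Type) (T : Tiling (QL L) ι) (Q : Set ι) (τ : ι → Top D)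
    (J0 J V : F → Set ι) (ct : F → ι) (A' : F → E3 ≃ᵃ[ℝ] E3) (z : F → E3)
    (θ : F → E3 → E3) (φ : F → E3 → ℝ) (Mg : F → ℕ) (B : ι → E3 ≃ᵃ[ℝ] E3) (cw : ι → ℝ≥0∞),
    r ≤ ρ ∧
    MeshN p q al h s L η (ΦN bf cmp lam hl hl4) f1
      (fun c l => (Op (ΦN bf cmp lam hl hl4) (QL L) f1).indicator (g c l))
      W κ' (κ' / 64) κ1 κ2 κ3 Cs 𝒮0 HH R'
      (K * (εf + εf ^ p⁻¹) * volume (QL L)) (K * εf' * volume (QL L) + e) (KC * εf' * volume (QL L) + e)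
      (εf' * volume (QL L)) e5 Ku D K0 r hr o M Zs T Q τ J0 J V ct A' lam z θ φ Mg B cw

end Crest.Agent.R096.Np_962
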