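import Crest.Agent.R096.Pgn1_112

/-!
# Row 96 (S0127), helper112.  The X-generic end theorem `pre_gen`, part 2: `Mok` for the patched meshes
-/

set_option autoImplicit false
set_option linter.style.longLine false

open MeasureTheory Set Filter Metric
open scoped Topology ENNReal

namespace Crest.Agent.R096.Pgn_112

open Crest.Agent.R096.Msh_715 Crest.Agent.R096.Msh_810 Crest.Agent.R096.Cut_874
  Crest.Agent.R096.Mal_874
open Crest.Agent.R096.SkC1_961 (E3 Cfg FoamD Hom3)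
open Crest.Agent.R096.Bsp_628 Crest.Agent.R096.Brk5_582
open Crest.Agent.R096.Ls_222 (Edg ea ev eIn mem_eIn)
open Crest.Agent.R096.Mbf_337
open Crest.Agent.R096.Tms_582
open Crest.Agent.R096.Cnt_324 (HS Hfam)
open Crest.Agent.R096.Eab_747 (ZoneFam VZ)
open Crest.Agent.R096.Mfa_880
open Crest.Agent.R096.Wd_120 (CoreAt)
open Crest.Agent.R96.Pm_199
open Crest.Agent.R96.Eam_466 (TLAt FineX InB mix_tmesh locF_of_tl)
open Crest.Agent.R96.Zpatch_348 (ZIn lv)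
open Crest.Agent.R096.Pmc_112 (Mok)

noncomputable section

variable {δ κ0 Rc c0 : ℝ} {La : Set E3} {Φ : FoamD δ κ0 Rc c0 La} {X : Set Φ.F}
  {I : Ins Φ.F X} {Zd : ZD Φ.F X}

/-- the core tile misses the half balls -/
theorem core_half (hz : ZOk I Zd) {a : E3} {w : X → E3} (h : I.mf.Ok a w) {c : Φ.F} (hc : c ∈ X)
    (c' : {c // c ∉ X}) :
    Disjoint (P ((I.mf.md a w h).T.H ((I.mf.md a w h).ct c)))
      (closedBall (Zd.x c') (Zd.R c' / 2)) := by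
  refine ((zin I Zd hz).core_off a w h c hc c').mono_right (closedBall_subset_closedBall ?_)
  have := (hz.Z a _ (Ins.adm h)).R0 c'
  show Zd.R c' / 2 ≤ Zd.R c'
  linarith

/-- **the core tiles of the patched mesh** -/
theorem coreAt_zin (hz : ZOk I Zd) {a : E3} {w : X → E3} (h : I.mf.Ok a w) {c : Φ.F} (hc : c ∈ X) :
    CoreAt ((zin I Zd hz).dec h).T (((zin I Zd hz).dec h).ct c)
      ((I.M.Q ⟨c, hc⟩).tr (a + w ⟨c, hc⟩)) := by
  have h0 : CoreAt (I.mf.md a w h).T ((I.mf.md a w h).ct c)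
      ((I.M.Q ⟨c, hc⟩).tr (a + w ⟨c, hc⟩)) := by
    rw [I.mf_ct h hc]
    exact Crest.Agent.R096.Wd_120.coreAt_mesh I.M I.hk (I.M.φ a) (Ins.adm h) ⟨c, hc⟩
  have h1 : ((zin I Zd hz).dec h).ct c = Sum.inl ⟨(I.mf.md a w h).ct c, (zin I Zd hz).ct_not h hc⟩ :=
    (zin I Zd hz).ct_of h hc
  rw [h1]
  exact h0.congr_cfg rfl (cfg_off ((zin I Zd hz).Z a w h) (zin I Zd hz).F
    (i0 := ⟨(I.mf.md a w h).ct c, (zin I Zd hz).ct_not h hc⟩) fun c' => core_half hz h hc c')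

/-- the `words` clause -/
def WordsOk (Φ : FoamD δ κ0 Rc c0 La) (f : E3 → E3) (κp μ : ℝ) (X : Set Φ.F) {Om : Set E3}
    (D : Dec Om Φ.F) : Prop :=
  ∃ Bad : Φ.F → Set ℝ, (∀ c, MeasurableSet (Bad c)) ∧
    (∀ c, volume (Bad c ∩ Icc 0 1) ≤ ENNReal.ofReal (κp / 32)) ∧
    ∀ L : Φ.F → Finset ℝ, (∀ c, ∀ t ∈ L c, μ ≤ t ∧ t ≤ 1 - μ) →
      (∀ c, ∀ t ∈ L c, t ∉ Bad c) → Words Φ D.T f X D.ct D.A D.lam D.z D.M L

/-- **`Mok` for the patched mesh** -/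
theorem mok_zin (hz : ZOk I Zd) {f : E3 → E3} {κp μ κ1 κ2 : ℝ}
    (htl : ∀ c, TLAt Φ I.Om f κ1 c.1 (Zd.x c) (Zd.R c) (Zd.k c) (Zd.Zc c) (Zd.H c) (Zd.J0 c)
      (Zd.J c) (Zd.θ c) (Zd.φ c))
    {a : E3} {w : X → E3} (h : I.mf.Ok a w)
    (hex : ∀ c ∈ X, Exact Φ (I.mf.md a w h).T f κ1 κ2 c ((I.mf.md a w h).ct c)
      ((I.mf.md a w h).A c) ((I.mf.md a w h).lam c) ((I.mf.md a w h).z c))
    (hF : FineX Φ (I.mf.md a w h).T f κ1 X (I.mf.md a w h).ct Zd.x Zd.R)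
    (hreg : ∀ V : Set ((zin I Zd hz).Ix h), RegV ((zin I Zd hz).T h) f V)
    (hx₀ : ∀ c, ∃ i, Zd.x c ∈ Msh_715.I (((zin I Zd hz).T h).H i))
    (hwords : Cores Φ ((zin I Zd hz).dec h).T f κ1 κ2 X ((zin I Zd hz).dec h).J0
        ((zin I Zd hz).dec h).J ((zin I Zd hz).dec h).V ((zin I Zd hz).dec h).ct
        ((zin I Zd hz).dec h).A ((zin I Zd hz).dec h).lam ((zin I Zd hz).dec h).z
        ((zin I Zd hz).dec h).θ ((zin I Zd hz).dec h).φ →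
      WordsOk Φ f κp μ X ((zin I Zd hz).dec h)) :
    Mok Φ f κp μ κ1 κ2 X ((zin I Zd hz).dec h) := by
  set Zi := zin I Zd hz with hZi
  have key : Cores Φ (Zi.dec h).T f κ1 κ2 X (Zi.dec h).J0 (Zi.dec h).J (Zi.dec h).V (Zi.dec h).ct
      (Zi.dec h).A (Zi.dec h).lam (Zi.dec h).z (Zi.dec h).θ (Zi.dec h).φ ∧
      Fine Φ (Zi.dec h).T f κ1 (Zi.dec h).J0 := by
    refine mix_tmesh (Zi.Z a w h) Zi.F hex hF htl (fun c => hreg _) hx₀ ?_ ?_ ?_ ?_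
    · intro c hc
      rw [show (Zi.dec h).ct c = Sum.inl ⟨(I.mf.md a w h).ct c, Zi.ct_not h hc⟩ from Zi.ct_of h hc]
      rfl
    · intro c hc
      exact ⟨Zi.dec_J0_of h hc, Zi.dec_J_of h hc, Zi.dec_V_of h hc⟩
    · intro c
      exact ⟨Zi.dec_J0_not h c.2, Zi.dec_J_not h c.2, Zi.dec_V_not h c.2⟩
    · intro c
      exact ⟨Zi.dec_θ_not h c.2, Zi.dec_φ_not h c.2⟩
  exact ⟨key.1, key.2, hwords key.1⟩

end

end Crest.Agent.R096.Pgn_112
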