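import Crest.Agent.R096.Gno4_324
import Crest.Agent.R096.Mal15_874

/-!
# Row 96 (S0127), NO0 / GEO (helper324), part 5: uniform scale in the bulk; the mesh of core blocks

`capD D c` : size function `min ρ c`; `K_cap` : exact scale `K0` in the bulk;
`MD.cap`, `Sc_cap`, **`exists_bulk`** : for every compact `B ⊆ D0.Om` and every large `K0` there are scales
`k j` (`= K0` for the blocks near `B`) such that the capped mesh has scale exactly `K0` near `B`.
`nogeo_md`, `Ug_md`, `bad_md` : `NOGeo` and the number of non-uniform squares for 874's `MD.mesh`.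
-/

set_option autoImplicit false
set_option linter.style.longLine false
set_option linter.unusedSectionVars false

open MeasureTheory Set Filter Topology Metric
open scoped ENNReal

namespace Crest.Agent.R096.Gno_324

open Crest.Agent.R096.Msh_715 Crest.Agent.R096.SkC1_961 Crest.Agent.R096.No0_477
open Crest.Agent.R096.Mal_874 Crest.Agent.R096.Cut_874 Crest.Agent.R096.Msh_810

noncomputable section

/-! ### capped size functions -/

section cap

variable {n : ℕ}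

/-- capped size function -/
def capD (D : Dat n) (c : ℝ) (hc : 0 < c) : Dat n where
  ρ x := min (D.ρ x) c
  C := D.C
  a := D.a
  lip x y := by
    have h := D.lip x y
    have h0 : 0 ≤ dist x y := dist_nonneg
    rcases le_total (D.ρ y) c with h1 | h1
    · rw [min_eq_left h1]
      exact (min_le_left _ _).trans h
    · rw [min_eq_right h1]
      exact (min_le_right _ _).trans (by linarith)
  nonneg x := le_min (D.nonneg x) hc.le
  le_one x := (min_le_left _ _).trans (D.le_one x)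
  hC := D.hC

theorem capD_ρ (D : Dat n) (c : ℝ) (hc : 0 < c) (x : Fin n → ℝ) :
    (capD D c hc).ρ x = min (D.ρ x) c := rfl

theorem capD_C (D : Dat n) (c : ℝ) (hc : 0 < c) : (capD D c hc).C = D.C := rfl

theorem capD_Om (D : Dat n) (c : ℝ) (hc : 0 < c) : (capD D c hc).Om = D.Om := by
  ext x
  show 0 < min (D.ρ x) c ↔ 0 < D.ρ x
  rw [lt_min_iff]
  exact ⟨fun h => h.1, fun h => ⟨h, hc⟩⟩

/-- **exact scale in the bulk** -/
theorem K_cap {J : Type*} {D0 : Dat n} {k : J → ℕ} {W : J → Set (Fin n → ℝ)} {a : Fin n → ℝ} {K0 : ℕ}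
    {hc : 0 < D0.C / 2 ^ K0} {x : Fin n → ℝ}
    (h1 : ∀ y, dist x y ≤ (2 ^ K0)⁻¹ → D0.C / 2 ^ K0 ≤ D0.ρ y)
    (h2 : ∀ j, k j = K0 ∨ ∀ y, dist x y ≤ (2 ^ K0)⁻¹ → D0.C / 2 ^ K0 ≤ infDist y (W j)) :
    K (outD (capD D0 (D0.C / 2 ^ K0) hc) k W a) x = K0 := by
  have hC := D0.C_pos
  have hp : (0 : ℝ) < 2 ^ K0 := by positivity
  refine K_eq_of ?_ ?_
  · intro y hy
    have h3 : D0.C / 2 ^ K0 ≤ (outD (capD D0 (D0.C / 2 ^ K0) hc) k W a).ρ y := by
      refine le_outD (le_min (h1 y hy) le_rfl) fun j => ?_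
      rw [capD_C]
      have h0 := infDist_nonneg (s := W j) (x := y)
      rcases h2 j with h | h
      · rw [h]; linarith
      · have := h y hy
        have : (0 : ℝ) < D0.C / 2 ^ k j := by positivity
        linarith
    calc (outD (capD D0 (D0.C / 2 ^ K0) hc) k W a).C = 2 ^ K0 * (D0.C / 2 ^ K0) := by
          rw [outD_C, capD_C]; field_simp
      _ ≤ _ := mul_le_mul_of_nonneg_left h3 hp.le
  · have h3 := outD_le_ρ0 (D0 := capD D0 (D0.C / 2 ^ K0) hc) (k := k) (W := W) (a := a) x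
    have h4 : (outD (capD D0 (D0.C / 2 ^ K0) hc) k W a).ρ x ≤ D0.C / 2 ^ K0 :=
      h3.trans (min_le_right _ _)
    rw [outD_C, capD_C]
    calc (2 : ℝ) ^ K0 * (outD (capD D0 (D0.C / 2 ^ K0) hc) k W a).ρ x ≤ 2 ^ K0 * (D0.C / 2 ^ K0) :=
          mul_le_mul_of_nonneg_left h4 hp.le
      _ = D0.C := by field_simp
      _ < 2 * D0.C := by linarith

end cap

/-! ### capped mesh data -/

section md

variable {n : ℕ} {E : Type*} [NormedAddCommGroup E] [NormedSpace ℝ E] {J : Type*}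

/-- mesh data with a capped outer size function -/
def cap (M : MD E n J) (c : ℝ) (hc : 0 < c) : MD E n J where
  φ := M.φ
  D0 := capD M.D0 c hc
  hC := M.hC
  Q := M.Q
  r := M.r
  r_pos := M.r_pos
  Vdis := M.Vdis
  Vsub j := by rw [capD_Om]; exact M.Vsub j
  Vlf x hx := M.Vlf x (by rwa [capD_Om] at hx)

theorem Sc_cap {M : MD E n J} {k : J → ℕ} (h : M.Sc k) {c : ℝ} (hc : 0 < c)
    (h2 : ∀ j, M.D0.C / 2 ^ k j ≤ c) : (cap M c hc).Sc k where
  kc := h.kc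
  rho j x hx := le_min (h.rho j x hx) (h2 j)
  sep := h.sep

theorem Adm_cap {M : MD E n J} {v : J → E} (hv : M.Adm v) {c : ℝ} (hc : 0 < c) :
    (cap M c hc).Adm v := hv

/-- **scales for a uniform bulk** -/
theorem exists_bulk [NeZero n] (M : MD E n J) {B : Set (Fin n → ℝ)} (hB : IsCompact B)
    (hBO : B ⊆ M.D0.Om) :
    ∃ β > 0, cthickening β B ⊆ M.D0.Om ∧ {j | (M.V j ∩ cthickening β B).Nonempty}.Finite ∧
      ∃ k0 : J → ℕ, (∀ k : J → ℕ, (∀ j, k0 j ≤ k j) → M.Sc k) ∧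
      ∃ K1 : ℕ, ∀ K0, K1 ≤ K0 → ∀ hc : 0 < M.D0.C / 2 ^ K0, ∀ k : J → ℕ,
        (∀ j, k0 j ≤ k j ∨ (M.V j ∩ cthickening β B).Nonempty) → (∀ j, K0 ≤ k j) →
        (∀ j, (M.V j ∩ cthickening β B).Nonempty → k j = K0) →
        (cap M (M.D0.C / 2 ^ K0) hc).Sc k ∧
        ∀ (a : Fin n → ℝ), ∀ x ∈ cthickening (β / 2) B,
          K (outD (cap M (M.D0.C / 2 ^ K0) hc).D0 k (cap M (M.D0.C / 2 ^ K0) hc).W a) x = K0 := by
  have hC := M.D0.C_pos
  have hOo : IsOpen M.D0.Om := isOpen_lt continuous_const M.D0.continuous_ρ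
  obtain ⟨β, hβ, hβO⟩ := hB.exists_cthickening_subset_open hOo hBO
  have hcpt : IsCompact (cthickening β B) := hB.cthickening
  -- finitely many blocks
  have hfin : {j | (M.V j ∩ cthickening β B).Nonempty}.Finite := by
    have h1 : ∀ x ∈ cthickening β B, ∃ t ∈ 𝓝 x, {j | (M.V j ∩ t).Nonempty}.Finite := by
      intro x hx
      obtain ⟨s, hs, hf⟩ := M.Vlf x (hβO hx)
      exact ⟨ball x s, ball_mem_nhds x hs, hf⟩
    choose! t ht hf using h1
    obtain ⟨F, hF, hcov⟩ := hcpt.elim_nhds_subcover t ht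
    refine (F.finite_toSet.biUnion fun x hx => hf x (hF x hx)).subset ?_
    rintro j ⟨y, hy1, hy2⟩
    obtain ⟨x, hx, hyx⟩ := Set.mem_iUnion₂.1 (hcov hy2)
    exact Set.mem_biUnion hx ⟨y, hy1, hyx⟩
  -- lower bound of the size function
  obtain ⟨c0, hc0, hc0'⟩ : ∃ c0 > 0, ∀ x ∈ cthickening β B, c0 ≤ M.D0.ρ x := by
    by_cases hne : (cthickening β B).Nonempty
    · obtain ⟨x0, hx0, hmin⟩ := hcpt.exists_isMinOn hne M.D0.continuous_ρ.continuousOn
      exact ⟨M.D0.ρ x0, hβO hx0, fun x hx => hmin hx⟩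
    · refine ⟨1, one_pos, fun x hx => absurd ⟨x, hx⟩ hne⟩
  obtain ⟨k0, hk0⟩ := M.exists_thr
  obtain ⟨kS, hkS⟩ : ∃ kS : ℕ, ∀ j, (M.V j ∩ cthickening β B).Nonempty → k0 j ≤ kS := by
    obtain ⟨m, hm⟩ := (hfin.image k0).bddAbove
    exact ⟨m, fun j hj => hm (mem_image_of_mem k0 hj)⟩
  obtain ⟨kR, hkR⟩ : ∃ kR : ℕ, (M.D0.C + 1) / 2 ^ kR ≤ min c0 (β / 2) := by
    have h4 : 0 < min c0 (β / 2) := lt_min hc0 (by linarith)
    obtain ⟨k, hk⟩ := exists_nat_gt ((M.D0.C + 1) / min c0 (β / 2))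
    refine ⟨k, ?_⟩
    rw [div_le_iff₀ (by positivity)]
    rw [div_lt_iff₀ h4] at hk
    have h5 : (k : ℝ) ≤ 2 ^ k := by exact_mod_cast Nat.lt_two_pow_self.le
    nlinarith
  refine ⟨β, hβ, hβO, hfin, k0, hk0, max kS kR, fun K0 hK0 hc k hk1 hk2 hk3 => ?_⟩
  have hsmall : (M.D0.C + 1) / 2 ^ K0 ≤ min c0 (β / 2) := by
    refine le_trans ?_ hkR
    exact div_le_div_of_nonneg_left (by linarith) (by positivity)
      (pow_le_pow_right₀ (by norm_num) ((le_max_right _ _).trans hK0))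
  have hp : (0 : ℝ) < 2 ^ K0 := by positivity
  have e1 : (M.D0.C + 1) / 2 ^ K0 = M.D0.C / 2 ^ K0 + (2 ^ K0)⁻¹ := by
    rw [add_div, one_div]
  have hinv : (0 : ℝ) < (2 ^ K0)⁻¹ := by positivity
  have hSc : M.Sc k := by
    refine hk0 k fun j => ?_
    rcases hk1 j with h | h
    · exact h
    · rw [hk3 j h]
      exact (hkS j h).trans ((le_max_left _ _).trans hK0)
  refine ⟨Sc_cap hSc hc fun j => ?_, fun a x hx => ?_⟩
  · exact div_le_div_of_nonneg_left hC.le hp (pow_le_pow_right₀ (by norm_num) (hk2 j))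
  · have hmem : ∀ y, dist x y ≤ β / 2 → y ∈ cthickening β B := by
      intro y hy
      have h1 := cthickening_cthickening_subset (ε := β / 2) (δ := β / 2) (by linarith) (by linarith) B
      rw [add_halves] at h1
      exact h1 (mem_cthickening_of_dist_le _ _ _ _ hx (by rwa [dist_comm]))
    have hs1 : M.D0.C / 2 ^ K0 + (2 ^ K0)⁻¹ ≤ c0 := by
      rw [← e1]; exact hsmall.trans (min_le_left _ _)
    have hs2 : M.D0.C / 2 ^ K0 + (2 ^ K0)⁻¹ ≤ β / 2 := by
      rw [← e1]; exact hsmall.trans (min_le_right _ _)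
    refine K_cap (D0 := M.D0) (k := k) (W := M.W) (a := a) (hc := hc) ?_ ?_
    · intro y hy
      have h1 := hc0' y (hmem y (by linarith))
      linarith
    · intro j
      by_cases hj : (M.V j ∩ cthickening β B).Nonempty
      · exact Or.inl (hk3 j hj)
      · right
        intro y hy
        rw [le_infDist (M.W_ne j)]
        intro z hz
        by_contra hlt
        push Not at hlt
        refine hj ⟨z, M.W_sub_V j hz, hmem z ?_⟩
        have := dist_triangle x y z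
        linarith

end md

/-! ### uniform squares of the mesh of core blocks -/

section mesh

variable {J : Type} {M : MD E3 3 J} {k : J → ℕ} (hk : M.Sc k) (a : Fin 3 → ℝ) {v : J → E3}
  (hv : M.Adm v)

/-- `NOGeo` for the mesh of core blocks -/
theorem nogeo_md (Ex : Set (M.OIx hk a hv ⊕ Σ j, M.IIx hk a hv j))
    {L : ℕ} {η r : ℝ} (hr0 : 0 < r) (hr : r ≠ 0) (o : Fin 2 → ℤ) {Mm : ℕ} (hM : 0 < Mm)
    {Zs : Finset ℤ}
    (lo : ∀ j : Fin 2, a j.castSucc + r * o j ≤ -(1 - η) ∧ -1 < a j.castSucc + r * o j)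
    (hi : ∀ j : Fin 2, 1 - η ≤ a j.castSucc + r * (o j + Mm) ∧ a j.castSucc + r * (o j + Mm) < 1)
    (zne : Zs.Nonempty) (zs : ∀ m ∈ Zs, |(L : ℝ) * (a 2 + r * m)| ≤ 1 / 2) :
    NOGeo (M.mesh hk a hv) Ex 𝒬0 L η r hr a o Mm Zs (Ug (M.mesh hk a hv) Ex a r o) :=
  nogeo_of (M.mesh hk a hv) Ex hr0 hr a o hM lo hi zne zs

/-- uniform squares do not see the name of the domain -/
theorem Ug_mesh_iff {Ex : Set (M.OIx hk a hv ⊕ Σ j, M.IIx hk a hv j)} {r : ℝ} {o : Fin 2 → ℤ} {m : ℤ}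
    {w : Fin 2 → ℕ} : Ug (M.mesh hk a hv) Ex a r o m w ↔
      Ug ((M.ad hk a hv).mesh (M.inn hk a hv)) Ex a r o m w := by
  have hOm : M.φ ⁻¹' M.D0.Om = (M.ad hk a hv).φ ⁻¹' (M.ad hk a hv).D.Om := by
    show M.φ ⁻¹' M.D0.Om = M.φ ⁻¹' (outD M.D0 k M.W a).Om
    rw [M.outD_Om_eq a]
  constructor
  · rintro ⟨h1, h2⟩
    exact ⟨hOm ▸ h1, h2⟩
  · rintro ⟨h1, h2⟩
    exact ⟨hOm ▸ h1, h2⟩

/-- **uniform squares** -/
theorem Ug_md (hφ : ∀ x, M.φ x = x) {Ex : Set (M.OIx hk a hv ⊕ Σ j, M.IIx hk a hv j)}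
    (hEx : ∀ i ∈ Ex, ∀ p, i ≠ Sum.inl p) {K0 : ℕ} {r : ℝ} (hr : r = 1 / 2 ^ K0) {o : Fin 2 → ℤ}
    {m : ℤ} {w : Fin 2 → ℕ} (hOm : cub (vx a r o m w) r ⊆ M.D0.Om)
    (hK : ∀ x ∈ cub (vx a r o m w) r, ∀ᶠ y in 𝓝 x, K (outD M.D0 k M.W a) y = K0)
    (hN : ∀ x ∈ cub (vx a r o m w) r, ∀ j, ∀ y ∈ (M.Bk v j).N, r < dist x y) :
    Ug (M.mesh hk a hv) Ex a r o m w := by
  rw [Ug_mesh_iff hk a hv]
  exact Ug_ad (M := M.ad hk a hv) hφ (M.inn hk a hv) hEx hr
    (by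
      show cub (vx a r o m w) r ⊆ (outD M.D0 k M.W a).Om
      rw [M.outD_Om_eq a]; exact hOm) hK hN

/-- volumes of thickenings of translated blocks -/
theorem vol_thick_tr (Q : CB E3 3) (u : E3) (r : ℝ) :
    volume (cthickening r (Q.tr u).N) = volume (cthickening r Q.N) := by
  have h1 : cthickening r (Q.tr u).N = (fun x => x - u) ⁻¹' cthickening r Q.N := by
    have e : (Q.tr u).N = (fun x => x - u) ⁻¹' Q.N := by
      ext y
      exact Q.mem_N_tr u y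
    rw [e]
    ext x
    rw [mem_preimage]
    unfold cthickening
    rw [mem_ofPred_eq, mem_ofPred_eq]
    have h2 : infEDist x ((fun x => x - u) ⁻¹' Q.N) = infEDist (x - u) Q.N := by
      have h3 := infEDist_image (IsometryEquiv.subRight u).isometry (x := x) (t := (fun x => x - u) ⁻¹' Q.N)
      have h4 : (IsometryEquiv.subRight u : E3 → E3) '' ((fun x => x - u) ⁻¹' Q.N) = Q.N :=
        Set.image_preimage_eq _ (fun y => ⟨y + u, by simp⟩)
      rw [h4] at h3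
      exact h3.symm
    rw [h2]
  rw [h1]
  have h5 : (fun x : E3 => x - u) = fun x => x + -u := by
    funext x; exact sub_eq_add_neg x u
  rw [h5]
  exact measure_preimage_add_right volume (-u) _

open scoped Classical in
/-- **the number of the other squares** -/
theorem bad_md (hφ : ∀ x, M.φ x = x) {Ex : Set (M.OIx hk a hv ⊕ Σ j, M.IIx hk a hv j)}
    (hEx : ∀ i ∈ Ex, ∀ p, i ≠ Sum.inl p) {K0 : ℕ} {r : ℝ} (hr : r = 1 / 2 ^ K0) {o : Fin 2 → ℤ}
    {Mm : ℕ} {Zs : Finset ℤ} {B : Set E3}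
    (hB : ∀ m ∈ Zs, ∀ w : Fin 2 → ℕ, (∀ j, w j < Mm) → cub (vx a r o m w) r ⊆ B)
    (hOm : B ⊆ M.D0.Om) (hK : ∀ x ∈ B, ∀ᶠ y in 𝓝 x, K (outD M.D0 k M.W a) y = K0)
    (S : Finset J) (hS : ∀ j, j ∉ S → ∀ y ∈ (M.Bk v j).N, ∀ x ∈ B, r < dist x y) {L : ℕ} (hL : 1 ≤ L)
    {N0 ε : ℝ} (hN : 2 / L ≤ N0 * r ^ 3) (hε : 0 ≤ ε)
    (hvol : ∑ j ∈ S, volume (cthickening (2 * r) (M.Q j).N) ≤ ENNReal.ofReal (2 * ε / L)) :
    (((Fc Mm Zs).filter fun q => ¬ Ug (M.mesh hk a hv) Ex a r o q.1 q.2).card : ℝ) ≤ ε * N0 := by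
  have h1 : ((Fc Mm Zs).filter fun q => ¬ Ug (M.mesh hk a hv) Ex a r o q.1 q.2) =
      (Fc Mm Zs).filter fun q => ¬ Ug ((M.ad hk a hv).mesh (M.inn hk a hv)) Ex a r o q.1 q.2 := by
    refine Finset.filter_congr fun q _ => ?_
    rw [Ug_mesh_iff hk a hv]
  rw [h1]
  refine bad_ad (M := M.ad hk a hv) hφ (M.inn hk a hv) hEx hr hB
    (by
      show B ⊆ (outD M.D0 k M.W a).Om
      rw [M.outD_Om_eq a]; exact hOm) hK (A := ⋃ j ∈ S, cthickening (2 * r) (M.Bk v j).N) ?_ hL hN hε ?_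
  · rintro j y hy ⟨x, hx, hxy⟩
    have hj : j ∈ S := by
      by_contra hj
      have := hS j hj y hy x hx
      linarith
    refine Set.Subset.trans ?_ (Set.subset_biUnion_of_mem (u := fun j => cthickening (2 * r) (M.Bk v j).N) hj)
    exact closedBall_subset_cthickening hy (2 * r)
  · refine (measure_biUnion_finset_le _ _).trans (le_trans (le_of_eq ?_) hvol)
    exact Finset.sum_congr rfl fun j _ => vol_thick_tr (M.Q j) (v j) (2 * r)

end mesh

end

end Crest.Agent.R096.Gno_324
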