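import Mathlib

/-!
Row 96 (S0127), helper273.  NO0-N6 (477 #10028), part 1: the heights of a uniform mesh avoid the
tiny cubes; averages over the remaining heights.
-/

set_option autoImplicit false
set_option linter.unusedSectionVars false
set_option linter.style.longLine false

open Set

namespace Crest.Agent.R096.Nh_273

/-- an interval of length `2 ρ` contains at most `2 ρ / r + 1` points of an arithmetic progression
of step `r` -/
theorem card_interval {r : ℝ} (hr : 0 < r) (z0 t : ℝ) {ρ : ℝ} (hρ : 0 ≤ ρ) (A : Finset ℤ)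
    (hA : ∀ j ∈ A, |z0 + j * r - t| ≤ ρ) : (A.card : ℝ) ≤ 2 * ρ / r + 1 := by
  have hsub : A ⊆ Finset.Icc ⌈(t - ρ - z0) / r⌉ ⌊(t + ρ - z0) / r⌋ := by
    intro j hj
    have h := abs_le.1 (hA j hj)
    rw [Finset.mem_Icc]
    constructor
    · rw [Int.ceil_le, div_le_iff₀ hr]
      linarith [h.1]
    · rw [Int.le_floor, le_div_iff₀ hr]
      linarith [h.2]
  have h1 := Finset.card_le_card hsub
  rw [Int.card_Icc] at h1
  have h2 : ((⌊(t + ρ - z0) / r⌋ + 1 - ⌈(t - ρ - z0) / r⌉).toNat : ℝ) ≤ 2 * ρ / r + 1 := by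
    have h3 : ((⌊(t + ρ - z0) / r⌋ : ℤ) : ℝ) ≤ (t + ρ - z0) / r := Int.floor_le _
    have h4 : (t - ρ - z0) / r ≤ ((⌈(t - ρ - z0) / r⌉ : ℤ) : ℝ) := Int.le_ceil _
    have h5 : (t + ρ - z0) / r - (t - ρ - z0) / r = 2 * ρ / r := by ring
    rcases le_or_gt 0 (⌊(t + ρ - z0) / r⌋ + 1 - ⌈(t - ρ - z0) / r⌉) with h | h
    · have h6 : ((⌊(t + ρ - z0) / r⌋ + 1 - ⌈(t - ρ - z0) / r⌉).toNat : ℝ) =
          ((⌊(t + ρ - z0) / r⌋ + 1 - ⌈(t - ρ - z0) / r⌉ : ℤ) : ℝ) := by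
        have := Int.toNat_of_nonneg h
        exact_mod_cast this
      rw [h6]
      push_cast
      linarith
    · rw [Int.toNat_of_nonpos h.le]
      have : 0 ≤ 2 * ρ / r := by positivity
      push_cast
      linarith
  calc (A.card : ℝ) ≤ _ := by exact_mod_cast h1
    _ ≤ _ := h2

/-- **few heights meet the tiny cubes** (`t c` = third coordinate of the centre, `ρ c` = radius) -/
theorem card_bad {I : Type*} [DecidableEq I] {r : ℝ} (hr : 0 < r) (z0 : ℝ) (S : Finset I)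
    (t ρ : I → ℝ) (hρ : ∀ c ∈ S, 0 ≤ ρ c) (A : Finset ℤ)
    (hA : ∀ j ∈ A, ∃ c ∈ S, |z0 + j * r - t c| ≤ ρ c) :
    (A.card : ℝ) ≤ ∑ c ∈ S, (2 * ρ c / r + 1) := by
  classical
  have hsub : A ⊆ S.biUnion fun c => A.filter fun j : ℤ => |z0 + j * r - t c| ≤ ρ c := by
    intro j hj
    obtain ⟨c, hc, h⟩ := hA j hj
    exact Finset.mem_biUnion.2 ⟨c, hc, Finset.mem_filter.2 ⟨hj, h⟩⟩
  calc (A.card : ℝ) ≤ ((S.biUnion fun c => A.filter fun j : ℤ => |z0 + j * r - t c| ≤ ρ c).card : ℝ) := by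
        exact_mod_cast Finset.card_le_card hsub
    _ ≤ ∑ c ∈ S, ((A.filter fun j : ℤ => |z0 + j * r - t c| ≤ ρ c).card : ℝ) := by
        exact_mod_cast Finset.card_biUnion_le
    _ ≤ _ := by
        refine Finset.sum_le_sum fun c hc => ?_
        exact card_interval hr z0 (t c) (hρ c hc) _ fun j hj => (Finset.mem_filter.1 hj).2

/-- **most heights are free** : at least `(1 - θ) n` of the `n` heights avoid all cubes if
`∑ (2 ρ c) ≤ θ / 2 * (n r)` and `#S ≤ θ / 2 * n` -/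
theorem card_free {I : Type*} [DecidableEq I] {r : ℝ} (hr : 0 < r) (z0 : ℝ) (S : Finset I)
    (t ρ : I → ℝ) (hρ : ∀ c ∈ S, 0 ≤ ρ c) (A : Finset ℤ) {θ : ℝ}
    (h1 : ∑ c ∈ S, 2 * ρ c ≤ θ / 2 * (A.card * r)) (h2 : (S.card : ℝ) ≤ θ / 2 * A.card)
    [DecidablePred fun j : ℤ => ∀ c ∈ S, ρ c < |z0 + j * r - t c|] :
    (1 - θ) * A.card ≤ ((A.filter fun j : ℤ => ∀ c ∈ S, ρ c < |z0 + j * r - t c|).card : ℝ) := by
  classical
  have h3 := card_bad hr z0 S t ρ hρ
    (A.filter fun j : ℤ => ¬ ∀ c ∈ S, ρ c < |z0 + j * r - t c|) (by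
      intro j hj
      have := (Finset.mem_filter.1 hj).2
      push Not at this
      exact this)
  have h4 : ∑ c ∈ S, (2 * ρ c / r + 1) ≤ θ * A.card := by
    rw [Finset.sum_add_distrib, ← Finset.sum_div]
    simp only [Finset.sum_const, nsmul_eq_mul, mul_one]
    have h5 : (∑ c ∈ S, 2 * ρ c) / r ≤ θ / 2 * A.card := by
      rw [div_le_iff₀ hr]
      linarith
    linarith
  have h6 := Finset.card_filter_add_card_filter_not
    (s := A) (fun j : ℤ => ∀ c ∈ S, ρ c < |z0 + j * r - t c|)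
  have h7 : (((A.filter fun j : ℤ => ∀ c ∈ S, ρ c < |z0 + j * r - t c|).card : ℝ)) +
      ((A.filter fun j : ℤ => ¬ ∀ c ∈ S, ρ c < |z0 + j * r - t c|).card : ℝ) = A.card := by
    exact_mod_cast h6
  linarith

end Crest.Agent.R096.Nh_273
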