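import Crest.Agent.R096.Gno3_324
import Crest.Agent.R096.Nh1_273

/-!
Row 96 (S0127), helper552.  NO0-PRE [P-B] (582 #10478): choice of the slices and counting.

On 324's block (`Gno3_324.exists_block`: `o, M, A` = ALL slices `|L (a 2 + r m)| ≤ 1/2`,
`2/L ≤ #A M² r³ ≤ 5/L`):
* `exists_slices`    : `k` nonnegative functions on the slices, forbidden intervals (273's `card_free`)
* `exists_slices_e`  : the same, `ℝ≥0∞`-valued functions
* `exists_slices_block` : on the block; the slabs over the chosen slices miss the balls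
  `closedBall (x c) (ρ c)`, `c ∈ S` (tiny cores), `∑ (ρ c + r) ≤ 1 / (32 L)`
* `sum_lint_le` : the sum of the integrals over the cubes of the block is at most the integral
* `slice_lint`, `slice_card` : averages per slice of an integral / of the number of cubes inside a set
-/

set_option autoImplicit false
set_option linter.style.longLine false
set_option linter.unusedSectionVars false

open MeasureTheory Set Filter Topology Metric
open scoped ENNReal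

namespace Crest.Agent.R096.Nsl_552

open Crest.Agent.R096.Nh_273 (card_free)
open Crest.Agent.R096.SkC1_961 (E3)
open Crest.Agent.R096.No0_477 (vx cub Fc)
open Crest.Agent.R096.Gno_324

noncomputable section

/-- Markov for one function -/
theorem markov (A : Finset ℤ) (F : ℤ → ℝ) (hF : ∀ m ∈ A, 0 ≤ F m) {ε K : ℝ}
    (hs : ∑ m ∈ A, F m ≤ ε * A.card) : K * ((A.filter fun m => K * ε < F m).card : ℝ) ≤ A.card := by
  classical
  rcases A.eq_empty_or_nonempty with rfl | hA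
  · simp
  have hc : (0 : ℝ) < A.card := by exact_mod_cast hA.card_pos
  have hε : 0 ≤ ε := by
    have h := (Finset.sum_nonneg hF).trans hs
    by_contra hcon
    push Not at hcon
    nlinarith
  set B := A.filter fun m => K * ε < F m with hB
  rcases B.eq_empty_or_nonempty with h | ⟨m0, hm0⟩
  · rw [h]; simp
  rcases hε.eq_or_lt with h0 | h0
  · exfalso
    rw [← h0, zero_mul] at hs
    have h1 := (Finset.sum_eq_zero_iff_of_nonneg hF).1 (le_antisymm hs (Finset.sum_nonneg hF))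
    have h2 := Finset.mem_filter.1 hm0
    have h3 := h1 m0 h2.1
    rw [h3, ← h0, mul_zero] at h2
    exact lt_irrefl _ h2.2
  · have h1 : (B.card : ℝ) * (K * ε) ≤ ∑ m ∈ B, F m := by
      rw [← nsmul_eq_mul]
      exact Finset.card_nsmul_le_sum _ _ _ fun m hm => (Finset.mem_filter.1 hm).2.le
    have h2 : ∑ m ∈ B, F m ≤ ∑ m ∈ A, F m :=
      Finset.sum_le_sum_of_subset_of_nonneg (Finset.filter_subset _ _) fun m hm _ => hF m hm
    have h3 : (K * (B.card : ℝ)) * ε ≤ A.card * ε := by linarith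
    exact le_of_mul_le_mul_right h3 h0

/-- **choice of the slices**: `k` nonnegative functions with small averages, finitely many
forbidden intervals; at least half of the slices are good for all of them. -/
theorem exists_slices {I : Type*} {r : ℝ} (hr : 0 < r) (z0 : ℝ) (A : Finset ℤ) (hA : A.Nonempty)
    (S : Finset I) (t ρ : I → ℝ) (hρ : ∀ c ∈ S, 0 ≤ ρ c)
    (h1 : ∑ c ∈ S, 2 * ρ c ≤ 1 / 8 * (A.card * r)) (h2 : (S.card : ℝ) ≤ 1 / 8 * A.card)
    {k : ℕ} (F : Fin k → ℤ → ℝ) (hF : ∀ i, ∀ m ∈ A, 0 ≤ F i m) (ε : Fin k → ℝ)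
    (hs : ∀ i, ∑ m ∈ A, F i m ≤ ε i * A.card) :
    ∃ Zs : Finset ℤ, Zs ⊆ A ∧ Zs.Nonempty ∧ (A.card : ℝ) ≤ 2 * Zs.card ∧
      (∀ m ∈ Zs, ∀ c ∈ S, ρ c < |z0 + r * m - t c|) ∧
      (∀ i, ∀ m ∈ Zs, F i m ≤ 4 * k * ε i) ∧ ∀ i, ∑ m ∈ Zs, F i m ≤ 4 * k * ε i * Zs.card := by
  classical
  have hc : (0 : ℝ) < A.card := by exact_mod_cast hA.card_pos
  set G : Finset ℤ := A.filter fun j : ℤ => ∀ c ∈ S, ρ c < |z0 + j * r - t c| with hG
  have hfree : (1 - 1 / 4) * (A.card : ℝ) ≤ G.card :=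
    card_free hr z0 S t ρ hρ A (θ := 1 / 4) (by linarith) (by linarith)
  set B : Fin k → Finset ℤ := fun i => A.filter fun m => 4 * k * ε i < F i m with hB
  set Zs : Finset ℤ := G \ Finset.univ.biUnion B with hZ
  have hZA : Zs ⊆ A := (Finset.sdiff_subset).trans (Finset.filter_subset _ _)
  have hBc : ∀ i, ((B i).card : ℝ) * (4 * k) ≤ A.card := by
    intro i
    have hk : (0 : ℝ) < 4 * k := by
      have : 0 < k := Fin.pos i
      have : (0 : ℝ) < k := by exact_mod_cast this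
      positivity
    have := markov A (F i) (hF i) (K := 4 * k) (hs i)
    linarith
  have hU : ((Finset.univ.biUnion B).card : ℝ) ≤ A.card / 4 := by
    rcases Nat.eq_zero_or_pos k with rfl | hk
    · simp; positivity
    have hk' : (0 : ℝ) < k := by exact_mod_cast hk
    calc ((Finset.univ.biUnion B).card : ℝ) ≤ ∑ i, ((B i).card : ℝ) := by
          exact_mod_cast Finset.card_biUnion_le
      _ ≤ ∑ _i : Fin k, (A.card : ℝ) / (4 * k) := by
          refine Finset.sum_le_sum fun i _ => ?_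
          rw [le_div_iff₀ (by positivity)]
          exact hBc i
      _ = A.card / 4 := by
          rw [Finset.sum_const, Finset.card_univ, Fintype.card_fin, nsmul_eq_mul]
          field_simp
  have hZc : (A.card : ℝ) ≤ 2 * Zs.card := by
    have h3 := Finset.le_card_sdiff (Finset.univ.biUnion B) G
    rw [← hZ] at h3
    have h4 : (G.card : ℝ) ≤ Zs.card + (Finset.univ.biUnion B).card := by
      have : G.card ≤ Zs.card + (Finset.univ.biUnion B).card := by omega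
      exact_mod_cast this
    linarith
  have hpt : ∀ i, ∀ m ∈ Zs, F i m ≤ 4 * k * ε i := by
    intro i m hm
    by_contra hcon
    push Not at hcon
    refine (Finset.mem_sdiff.1 hm).2 (Finset.mem_biUnion.2 ⟨i, Finset.mem_univ _, ?_⟩)
    exact Finset.mem_filter.2 ⟨hZA hm, hcon⟩
  refine ⟨Zs, hZA, ?_, hZc, ?_, hpt, ?_⟩
  · rw [← Finset.card_pos]
    have : (0 : ℝ) < Zs.card := by linarith
    exact_mod_cast this
  · intro m hm c hcS
    have := (Finset.mem_filter.1 (Finset.mem_sdiff.1 hm).1).2 c hcS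
    rwa [mul_comm r]
  · intro i
    calc ∑ m ∈ Zs, F i m ≤ Zs.card • (4 * k * ε i) := Finset.sum_le_card_nsmul _ _ _ (hpt i)
      _ = 4 * k * ε i * Zs.card := by rw [nsmul_eq_mul]; ring


/-- the same with values in `ℝ≥0∞` -/
theorem exists_slices_e {I : Type*} {r : ℝ} (hr : 0 < r) (z0 : ℝ) (A : Finset ℤ) (hA : A.Nonempty)
    (S : Finset I) (t ρ : I → ℝ) (hρ : ∀ c ∈ S, 0 ≤ ρ c)
    (h1 : ∑ c ∈ S, 2 * ρ c ≤ 1 / 8 * (A.card * r)) (h2 : (S.card : ℝ) ≤ 1 / 8 * A.card)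
    {k : ℕ} (F : Fin k → ℤ → ℝ≥0∞) (ε : Fin k → ℝ≥0∞) (hε : ∀ i, ε i ≠ ⊤)
    (hs : ∀ i, ∑ m ∈ A, F i m ≤ ε i * A.card) :
    ∃ Zs : Finset ℤ, Zs ⊆ A ∧ Zs.Nonempty ∧ (A.card : ℝ) ≤ 2 * Zs.card ∧
      (∀ m ∈ Zs, ∀ c ∈ S, ρ c < |z0 + r * m - t c|) ∧
      (∀ i, ∀ m ∈ Zs, F i m ≤ 4 * k * ε i) ∧ ∀ i, ∑ m ∈ Zs, F i m ≤ 4 * k * ε i * Zs.card := by
  have hfin : ∀ i, ∀ m ∈ A, F i m ≠ ⊤ := by
    intro i m hm
    have h3 : F i m ≤ ∑ m ∈ A, F i m := Finset.single_le_sum (f := F i) (fun _ _ => bot_le) hm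
    exact ((h3.trans (hs i)).trans_lt (ENNReal.mul_lt_top (hε i).lt_top (by simp))).ne
  obtain ⟨Zs, h3, h4, h5, h6, h7, -⟩ := exists_slices hr z0 A hA S t ρ hρ h1 h2
    (fun i m => (F i m).toReal) (fun i m _ => ENNReal.toReal_nonneg) (fun i => (ε i).toReal) (by
      intro i
      rw [← ENNReal.toReal_sum (hfin i)]
      have := ENNReal.toReal_mono (ENNReal.mul_ne_top (hε i) (by simp)) (hs i)
      rwa [ENNReal.toReal_mul, ENNReal.toReal_natCast] at this)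
  have h8 : ∀ i, ∀ m ∈ Zs, F i m ≤ 4 * k * ε i := by
    intro i m hm
    have h9 := h7 i m hm
    have e : 4 * (k : ℝ) * (ε i).toReal = (4 * (k : ℝ≥0∞) * ε i).toReal := by
      rw [ENNReal.toReal_mul, ENNReal.toReal_mul, ENNReal.toReal_natCast]; simp
    rw [e] at h9
    refine (ENNReal.toReal_le_toReal (hfin i m (h3 hm)) ?_).1 h9
    exact ENNReal.mul_ne_top (ENNReal.mul_ne_top (by simp) (by simp)) (hε i)
  refine ⟨Zs, h3, h4, h5, h6, h8, fun i => ?_⟩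
  calc ∑ m ∈ Zs, F i m ≤ Zs.card • (4 * k * ε i) := Finset.sum_le_card_nsmul _ _ _ (h8 i)
    _ = 4 * k * ε i * Zs.card := by rw [nsmul_eq_mul]; ring

section block

variable {L : ℕ} {r : ℝ} {a : E3} {A : Finset ℤ}

/-- the number of all slices -/
theorem card_block (hL : 1 ≤ L) (hr : 0 < r) (hrL : 4 * L * r ≤ 1)
    (hA : ∀ m, m ∈ A ↔ |(L : ℝ) * (a 2 + r * m)| ≤ 1 / 2) :
    A.Nonempty ∧ 3 / (4 * L) ≤ (A.card : ℝ) * r ∧ (A.card : ℝ) * r ≤ 5 / (4 * L) := by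
  have hL0 : (0 : ℝ) < L := by exact_mod_cast hL
  obtain ⟨Zs, h1, h2, h3⟩ := exists_Zs hL hr hrL (a 2)
  have e : A = Zs := by ext m; rw [hA, h1]
  subst e
  refine ⟨?_, h2, h3⟩
  rw [Finset.nonempty_iff_ne_empty]
  intro h0
  rw [h0] at h2
  simp only [Finset.card_empty, Nat.cast_zero, zero_mul] at h2
  have : (0 : ℝ) < 3 / (4 * L) := by positivity
  linarith

/-- a slab over a slice at distance `> ρ + r` (height) misses the ball of radius `ρ` -/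
theorem cub_disj_ball (o : Fin 2 → ℤ) {m : ℤ} (v : Fin 2 → ℕ) {x : E3} {ρ : ℝ}
    (h : ρ + r < |a 2 + r * m - x 2|) : Disjoint (cub (vx a r o m v) r) (closedBall x ρ) := by
  rw [Set.disjoint_left]
  intro y hy hy'
  have h1 := hy 2
  have e : vx a r o m v 2 = a 2 + r * m := by simp [vx]
  rw [e] at h1
  have h2 : |y 2 - x 2| ≤ ρ := by
    have h3 := norm_le_pi_norm (y - x) 2
    rw [mem_closedBall_iff_norm] at hy'
    simpa using h3.trans hy'
  have h4 : |a 2 + r * m - x 2| ≤ |y 2 - x 2| + |a 2 + r * m - y 2| := by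
    have := abs_add_le (a 2 + r * m - y 2) (y 2 - x 2)
    rw [sub_add_sub_cancel] at this
    linarith
  have h5 : |a 2 + r * m - y 2| ≤ r := by
    rw [abs_le]; constructor <;> linarith [h1.1, h1.2]
  linarith

theorem slices_hyp (hL : 1 ≤ L) (hr : 0 < r) (hrL : 4 * L * r ≤ 1)
    (hA : ∀ m, m ∈ A ↔ |(L : ℝ) * (a 2 + r * m)| ≤ 1 / 2) {I : Type*} (S : Finset I) (ρ : I → ℝ)
    (hρ : ∀ c ∈ S, 0 ≤ ρ c) (hS : ∑ c ∈ S, (ρ c + r) ≤ 1 / (32 * L)) :
    ∑ c ∈ S, 2 * (ρ c + r) ≤ 1 / 8 * (A.card * r) ∧ (S.card : ℝ) ≤ 1 / 8 * A.card := by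
  have hL0 : (0 : ℝ) < L := by exact_mod_cast hL
  obtain ⟨-, h1, -⟩ := card_block hL hr hrL hA
  have e1 : (3 : ℝ) / (4 * L) = 24 * (1 / (32 * L)) := by field_simp; norm_num
  have h0 : (0 : ℝ) < 1 / (32 * L) := by positivity
  rw [e1] at h1
  constructor
  · rw [← Finset.mul_sum]
    linarith
  · have h2 : (S.card : ℝ) * r ≤ ∑ c ∈ S, (ρ c + r) := by
      rw [← nsmul_eq_mul]
      exact Finset.card_nsmul_le_sum _ _ _ fun c hc => by linarith [hρ c hc]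
    have h3 : (S.card : ℝ) * r ≤ (1 / 8 * A.card) * r := by linarith
    exact le_of_mul_le_mul_right h3 hr

/-- **choice of the slices on the block** -/
theorem exists_slices_block (hL : 1 ≤ L) (hr : 0 < r) (hrL : 4 * L * r ≤ 1)
    (hA : ∀ m, m ∈ A ↔ |(L : ℝ) * (a 2 + r * m)| ≤ 1 / 2)
    {I : Type*} (S : Finset I) (x : I → E3) (ρ : I → ℝ) (hρ : ∀ c ∈ S, 0 ≤ ρ c)
    (hS : ∑ c ∈ S, (ρ c + r) ≤ 1 / (32 * L))
    {k : ℕ} (F : Fin k → ℤ → ℝ) (hF : ∀ i, ∀ m ∈ A, 0 ≤ F i m) (ε : Fin k → ℝ)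
    (hs : ∀ i, ∑ m ∈ A, F i m ≤ ε i * A.card) :
    ∃ Zs : Finset ℤ, Zs ⊆ A ∧ Zs.Nonempty ∧ (A.card : ℝ) ≤ 2 * Zs.card ∧
      (∀ m ∈ Zs, |(L : ℝ) * (a 2 + r * m)| ≤ 1 / 2) ∧
      (∀ m ∈ Zs, ∀ c ∈ S, ρ c + r < |a 2 + r * m - x c 2|) ∧
      (∀ m ∈ Zs, ∀ c ∈ S, ∀ (o : Fin 2 → ℤ) (v : Fin 2 → ℕ),
        Disjoint (cub (vx a r o m v) r) (closedBall (x c) (ρ c))) ∧
      (∀ i, ∀ m ∈ Zs, F i m ≤ 4 * k * ε i) ∧ ∀ i, ∑ m ∈ Zs, F i m ≤ 4 * k * ε i * Zs.card := by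
  obtain ⟨h1, h2⟩ := slices_hyp hL hr hrL hA S ρ hρ hS
  obtain ⟨Zs, h3, h4, h5, h6, h7, h8⟩ := exists_slices hr (a 2) A (card_block hL hr hrL hA).1 S
    (fun c => x c 2) (fun c => ρ c + r) (fun c hc => by linarith [hρ c hc]) h1 h2 F hF ε hs
  exact ⟨Zs, h3, h4, h5, fun m hm => (hA m).1 (h3 hm), h6,
    fun m hm c hc o v => cub_disj_ball o v (h6 m hm c hc), h7, h8⟩

/-- **choice of the slices on the block**, values in `ℝ≥0∞` -/
theorem exists_slices_block_e (hL : 1 ≤ L) (hr : 0 < r) (hrL : 4 * L * r ≤ 1)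
    (hA : ∀ m, m ∈ A ↔ |(L : ℝ) * (a 2 + r * m)| ≤ 1 / 2)
    {I : Type*} (S : Finset I) (x : I → E3) (ρ : I → ℝ) (hρ : ∀ c ∈ S, 0 ≤ ρ c)
    (hS : ∑ c ∈ S, (ρ c + r) ≤ 1 / (32 * L))
    {k : ℕ} (F : Fin k → ℤ → ℝ≥0∞) (ε : Fin k → ℝ≥0∞) (hε : ∀ i, ε i ≠ ⊤)
    (hs : ∀ i, ∑ m ∈ A, F i m ≤ ε i * A.card) :
    ∃ Zs : Finset ℤ, Zs ⊆ A ∧ Zs.Nonempty ∧ (A.card : ℝ) ≤ 2 * Zs.card ∧
      (∀ m ∈ Zs, |(L : ℝ) * (a 2 + r * m)| ≤ 1 / 2) ∧
      (∀ m ∈ Zs, ∀ c ∈ S, ρ c + r < |a 2 + r * m - x c 2|) ∧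
      (∀ m ∈ Zs, ∀ c ∈ S, ∀ (o : Fin 2 → ℤ) (v : Fin 2 → ℕ),
        Disjoint (cub (vx a r o m v) r) (closedBall (x c) (ρ c))) ∧
      (∀ i, ∀ m ∈ Zs, F i m ≤ 4 * k * ε i) ∧ ∀ i, ∑ m ∈ Zs, F i m ≤ 4 * k * ε i * Zs.card := by
  obtain ⟨h1, h2⟩ := slices_hyp hL hr hrL hA S ρ hρ hS
  obtain ⟨Zs, h3, h4, h5, h6, h7, h8⟩ := exists_slices_e hr (a 2) A (card_block hL hr hrL hA).1 S
    (fun c => x c 2) (fun c => ρ c + r) (fun c hc => by linarith [hρ c hc]) h1 h2 F ε hε hs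
  exact ⟨Zs, h3, h4, h5, fun m hm => (hA m).1 (h3 hm), h6,
    fun m hm c hc o v => cub_disj_ball o v (h6 m hm c hc), h7, h8⟩

/-! ### integrals over the cubes -/

/-- **the integrals over the (open) cubes of a finite set of squares** -/
theorem sum_lint_le (a : E3) {r : ℝ} (hr : 0 < r) (o : Fin 2 → ℤ)
    (B : Finset (ℤ × (Fin 2 → ℕ))) (G : E3 → ℝ≥0∞) (W : Set E3)
    (h : ∀ q ∈ B, ocub (vx a r o q.1 q.2) r ⊆ W) :
    ∑ q ∈ B, ∫⁻ y in ocub (vx a r o q.1 q.2) r, G y ≤ ∫⁻ y in W, G y := by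
  classical
  rw [← lintegral_biUnion_finset (fun q _ q' _ hne => ocub_disjoint a hr o hne)
    fun q _ => measurableSet_ocub _ _]
  exact lintegral_mono_set (iUnion₂_subset h)

/-- the open cube and the closed cube have the same integrals -/
theorem lint_cub (w : E3) (r : ℝ) (G : E3 → ℝ≥0∞) :
    ∫⁻ y in cub w r, G y = ∫⁻ y in ocub w r, G y := by
  have h1 : cub w r = Icc w (fun i => w i + r) := by
    ext x
    rw [Set.mem_Icc, Pi.le_def, Pi.le_def]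
    exact ⟨fun h => ⟨fun i => (h i).1, fun i => (h i).2⟩, fun h i => ⟨h.1 i, h.2 i⟩⟩
  rw [h1, ocub_eq]
  exact setLIntegral_congr (Measure.univ_pi_Ioo_ae_eq_Icc (μ := fun _ : Fin 3 => volume)
    (f := w) (g := fun i => w i + r)).symm

/-- the squares of one slice -/
def sqs (M : ℕ) : Finset (Fin 2 → ℕ) := Fintype.piFinset fun _ : Fin 2 => Finset.range M

theorem mem_sqs {M : ℕ} {v : Fin 2 → ℕ} : v ∈ sqs M ↔ ∀ j, v j < M := by
  simp [sqs]

theorem sum_Fc {β : Type*} [AddCommMonoid β] (M : ℕ) (A : Finset ℤ) (F : ℤ × (Fin 2 → ℕ) → β) :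
    ∑ q ∈ Fc M A, F q = ∑ m ∈ A, ∑ v ∈ sqs M, F (m, v) := by
  unfold Fc sqs
  rw [Finset.sum_product]

/-- **averages per slice of an integral**: `∫_W G ≤ β / L`, `W ⊇` the cubes of the block -/
theorem slice_lint (hL : 1 ≤ L) (hr : 0 < r) (o : Fin 2 → ℤ) {M : ℕ} {A : Finset ℤ}
    (hN : 2 / L ≤ ((A.card : ℝ) * M ^ 2) * r ^ 3) (G : E3 → ℝ≥0∞) (W : Set E3)
    (hW : ∀ m ∈ A, ∀ v : Fin 2 → ℕ, (∀ j, v j < M) → cub (vx a r o m v) r ⊆ W) {β : ℝ} (hβ : 0 ≤ β)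
    (hG : ∫⁻ y in W, G y ≤ ENNReal.ofReal (β / L)) :
    ∑ m ∈ A, ∑ v ∈ sqs M, ∫⁻ y in cub (vx a r o m v) r, G y ≤
      ENNReal.ofReal (β * (M ^ 2 * r ^ 3)) * A.card := by
  have hL0 : (0 : ℝ) < L := by exact_mod_cast hL
  have h1 : ∑ m ∈ A, ∑ v ∈ sqs M, ∫⁻ y in cub (vx a r o m v) r, G y ≤ ∫⁻ y in W, G y := by
    have h2 := sum_lint_le a hr o (Fc M A) G W (by
      intro q hq
      rw [Fc, Finset.mem_product, Fintype.mem_piFinset] at hq
      exact (ocub_sub _ _).trans (hW q.1 hq.1 q.2 fun j => by simpa using hq.2 j))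
    rw [sum_Fc] at h2
    simpa only [lint_cub] using h2
  refine (h1.trans hG).trans ?_
  rw [← ENNReal.ofReal_natCast, ← ENNReal.ofReal_mul (by positivity)]
  refine ENNReal.ofReal_le_ofReal ?_
  have h3 : β / L ≤ β * (2 / L) := by
    rw [mul_div_assoc', div_le_div_iff_of_pos_right hL0]; linarith
  calc β / L ≤ β * (2 / L) := h3
    _ ≤ β * (((A.card : ℝ) * M ^ 2) * r ^ 3) := mul_le_mul_of_nonneg_left hN hβ
    _ = _ := by ring

/-- **number of the squares of the slices whose cube lies in `B`** (or satisfies any condition which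
puts the cube into `B`), `vol B ≤ β / L` -/
theorem slice_card (hL : 1 ≤ L) (hr : 0 < r) (o : Fin 2 → ℤ) {M : ℕ} {A : Finset ℤ}
    (hN : 2 / L ≤ ((A.card : ℝ) * M ^ 2) * r ^ 3) (B : Set E3) {β : ℝ} (hβ : 0 ≤ β)
    (hB : volume B ≤ ENNReal.ofReal (β / L)) (C : ℤ → (Fin 2 → ℕ) → Prop)
    [∀ m, DecidablePred (C m)]
    (hC : ∀ m ∈ A, ∀ v : Fin 2 → ℕ, (∀ j, v j < M) → C m v → cub (vx a r o m v) r ⊆ B) :
    ∑ m ∈ A, (((sqs M).filter (C m)).card : ℝ) ≤ β * M ^ 2 * A.card := by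
  classical
  have hL0 : (0 : ℝ) < L := by exact_mod_cast hL
  have h1 := count_real a hr o ((Fc M A).filter fun q => C q.1 q.2) B (by
    intro q hq
    have h2 := Finset.mem_filter.1 hq
    rw [Fc, Finset.mem_product, Fintype.mem_piFinset] at h2
    exact hC q.1 h2.1.1 q.2 (fun j => by simpa using h2.1.2 j) h2.2) hL hN (ε := β) hβ (by
      refine hB.trans (ENNReal.ofReal_le_ofReal ?_)
      rw [div_le_div_iff_of_pos_right hL0]; linarith)
  have h3 : (((Fc M A).filter fun q => C q.1 q.2).card : ℝ) =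
      ∑ m ∈ A, (((sqs M).filter (C m)).card : ℝ) := by
    have h4 : ((Fc M A).filter fun q => C q.1 q.2).card = ∑ m ∈ A, ((sqs M).filter (C m)).card := by
      rw [Finset.card_filter, sum_Fc]
      refine Finset.sum_congr rfl fun m _ => ?_
      rw [Finset.card_filter]
    rw [h4]; push_cast; rfl
  rw [← h3]
  linarith

end block

end

end Crest.Agent.R096.Nsl_552
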