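/-
helper273, row 96, NO0-PRE [P3] (582 #10220), part 2: sums over the cubes of the mesh from bounds
`tt σ ≤ s |σ| + Y σ` on the edges, Jensen.
-/
import Mathlib
import Crest.Agent.R096.Ps1_273

set_option autoImplicit false

open MeasureTheory Set Filter
open scoped Topology ENNReal

namespace Crest.Agent.R096.Ps_273

open Crest.Agent.R096.Msh_810 Crest.Agent.R096.Bas_731 Crest.Agent.R96.En3_199
  Crest.Agent.R96.En4_199 Crest.Agent.R96.En5_199 Crest.Agent.R96.En2_199 Crest.Agent.R96.En6_199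
  Crest.Agent.R96.En7_199 Crest.Agent.R96.En8_199 Crest.Agent.R96.En9_199
  Crest.Agent.R96.En11_199
  Crest.Agent.R96.Acl_392 Crest.Agent.R96.Sob2_199 Crest.Agent.R96.Sob3_199

noncomputable section

variable {n : ℕ}

/-- the sum of the energies of the edges of all directions -/
theorem tsum_dir_le {D : Dat n} (x : Cel D → ℝ≥0∞) :
    ∑' σ : Cel D, ({σ : Cel D | σ.1.J.card = 1}).indicator x σ ≤
      ∑ l : Fin n, ∑' σ : {σ : Cel D // σ.1.J = {l}}, x σ.1 := by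
  classical
  have h1 : ∀ l : Fin n, ∑' σ : {σ : Cel D // σ.1.J = {l}}, x σ.1 =
      ∑' σ : Cel D, ({σ : Cel D | σ.1.J = {l}}).indicator x σ := fun l =>
    tsum_subtype {σ : Cel D | σ.1.J = {l}} x
  simp only [h1]
  rw [← Summable.tsum_finsetSum (fun _ _ => ENNReal.summable)]
  refine ENNReal.tsum_le_tsum fun σ => ?_
  by_cases hσ : σ.1.J.card = 1
  · obtain ⟨l, hl⟩ := Finset.card_eq_one.1 hσ
    rw [indicator_of_mem (show σ ∈ {σ : Cel D | σ.1.J.card = 1} from hσ)]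
    calc x σ = ({σ : Cel D | σ.1.J = {l}}).indicator x σ :=
          (indicator_of_mem (show σ ∈ {σ : Cel D | σ.1.J = {l}} from hl) x).symm
      _ ≤ _ := Finset.single_le_sum (f := fun l => ({σ : Cel D | σ.1.J = {l}}).indicator x σ)
          (fun _ _ => zero_le) (Finset.mem_univ l)
  · rw [indicator_of_notMem (show σ ∉ {σ : Cel D | σ.1.J.card = 1} from hσ)]
    exact zero_le

/-- the energy of a function on the edges -/
def Ye (D : Dat n) (l : Fin n) (p : ℝ) (Y : Cel D → ℝ≥0∞) : ℝ≥0∞ :=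
  ∑' σ : {σ : Cel D // σ.1.J = {l}}, vol D σ.1 * ((2:ℝ≥0∞) ^ σ.1.1.k * Y σ.1) ^ p

/-- the total of the edges of a cube -/
def tE (D : Dat n) (tt : Cel D → ℝ≥0∞) (τ : Cel D) : ℝ≥0∞ :=
  ∑' σ : {σ : Cel D // σ ∈ edgesOf τ}, tt σ.1

/-- one cube, edges with values `Y` -/
theorem cube_le {D : Dat n} {p : ℝ} (hp : 1 ≤ p) (Y : Cel D → ℝ≥0∞) (τ : Cel D) :
    vol D τ * ((2:ℝ≥0∞) ^ τ.1.k * tE D Y τ) ^ p ≤
      ((M1 n : ℝ≥0∞) ^ (p - 1) * 2 ^ n) *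
        ∑' σ : {σ : Cel D // σ ∈ edgesOf τ}, vol D σ.1 * ((2:ℝ≥0∞) ^ σ.1.1.k * Y σ.1) ^ p := by
  have h1 : (2:ℝ≥0∞) ^ τ.1.k * tE D Y τ ≤
      ∑' σ : (edgesOf τ), (2:ℝ≥0∞) ^ (σ : Cel D).1.k * Y (σ : Cel D) := by
    rw [tE, ← ENNReal.tsum_mul_left]
    refine ENNReal.tsum_le_tsum fun σ => ?_
    gcongr
    · norm_num
    · exact (scale_le_of_le σ.2.1).1
  have h2 : ((2:ℝ≥0∞) ^ τ.1.k * tE D Y τ) ^ p ≤ (M1 n : ℝ≥0∞) ^ (p - 1) *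
      ∑' σ : (edgesOf τ), ((2:ℝ≥0∞) ^ (σ : Cel D).1.k * Y (σ : Cel D)) ^ p :=
    (ENNReal.rpow_le_rpow h1 (by linarith)).trans
      (tsum_rpow_le (finite_edgesOf τ) (encard_edgesOf τ)
        (fun σ : Cel D => (2:ℝ≥0∞) ^ σ.1.k * Y σ) hp)
  calc vol D τ * ((2:ℝ≥0∞) ^ τ.1.k * tE D Y τ) ^ p
      ≤ vol D τ * ((M1 n : ℝ≥0∞) ^ (p - 1) *
        ∑' σ : (edgesOf τ), ((2:ℝ≥0∞) ^ (σ : Cel D).1.k * Y (σ : Cel D)) ^ p) := by
          gcongr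
    _ = (M1 n : ℝ≥0∞) ^ (p - 1) * ∑' σ : (edgesOf τ), vol D τ *
        ((2:ℝ≥0∞) ^ (σ : Cel D).1.k * Y (σ : Cel D)) ^ p := by
          rw [ENNReal.tsum_mul_left]; ring
    _ ≤ (M1 n : ℝ≥0∞) ^ (p - 1) * ∑' σ : (edgesOf τ), 2 ^ n * (vol D (σ : Cel D) *
        ((2:ℝ≥0∞) ^ (σ : Cel D).1.k * Y (σ : Cel D)) ^ p) := by
          refine mul_le_mul' le_rfl (ENNReal.tsum_le_tsum fun σ => ?_)
          have h4 : vol D τ ≤ 2 ^ n * vol D (σ : Cel D) := by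
            rw [vol, vol, ← mul_pow]
            gcongr
            have h5 := (scale_le_of_le σ.2.1).2
            rw [← div_eq_mul_inv, ENNReal.le_div_iff_mul_le
              (Or.inl (by positivity)) (Or.inl (ENNReal.pow_ne_top (by norm_num)))]
            calc ((2:ℝ≥0∞) ^ τ.1.k)⁻¹ * 2 ^ (σ : Cel D).1.k
                ≤ ((2:ℝ≥0∞) ^ τ.1.k)⁻¹ * 2 ^ (τ.1.k + 1) := by
                  gcongr
                  norm_num
              _ = (((2:ℝ≥0∞) ^ τ.1.k)⁻¹ * 2 ^ τ.1.k) * 2 := by rw [pow_succ]; ring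
              _ = 2 := by
                  rw [ENNReal.inv_mul_cancel (by positivity) (ENNReal.pow_ne_top (by norm_num)),
                    one_mul]
          rw [← mul_assoc]
          gcongr
    _ = _ := by
          rw [ENNReal.tsum_mul_left]
          ring

/-- the constant of the sums over the cubes -/
def KC (n : ℕ) (p : ℝ) : ℝ≥0∞ := (M1 n : ℝ≥0∞) ^ (p - 1) * 2 ^ n * M2 n

theorem KC_ne_top {p : ℝ} (hp : 1 ≤ p) : KC n p ≠ ∞ := by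
  unfold KC
  have h1 : (M1 n : ℝ≥0∞) ^ (p - 1) ≠ ∞ :=
    ENNReal.rpow_ne_top_of_nonneg (by linarith) (ENNReal.natCast_ne_top _)
  exact ENNReal.mul_ne_top (ENNReal.mul_ne_top h1 (by finiteness)) (ENNReal.natCast_ne_top _)

/-- all cubes -/
theorem cubes_le {D : Dat n} {p : ℝ} (hp : 1 ≤ p) (Y : Cel D → ℝ≥0∞) :
    ∑' τ : {τ : Cel D // τ.1.J = Finset.univ}, vol D τ.1 *
      ((2:ℝ≥0∞) ^ τ.1.1.k * tE D Y τ.1) ^ p ≤ KC n p * ∑ l : Fin n, Ye D l p Y := by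
  calc _ ≤ ∑' τ : {τ : Cel D // τ.1.J = Finset.univ}, ((M1 n : ℝ≥0∞) ^ (p - 1) * 2 ^ n) *
        ∑' σ : {σ : Cel D // σ ∈ edgesOf τ.1}, vol D σ.1 * ((2:ℝ≥0∞) ^ σ.1.1.k * Y σ.1) ^ p :=
        ENNReal.tsum_le_tsum fun τ => cube_le hp Y τ.1
    _ = ((M1 n : ℝ≥0∞) ^ (p - 1) * 2 ^ n) * ∑' τ : {τ : Cel D // τ.1.J = Finset.univ},
        ∑' σ : {σ : Cel D // σ ∈ edgesOf τ.1}, vol D σ.1 * ((2:ℝ≥0∞) ^ σ.1.1.k * Y σ.1) ^ p :=
        ENNReal.tsum_mul_left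
    _ ≤ ((M1 n : ℝ≥0∞) ^ (p - 1) * 2 ^ n) * (M2 n * ∑ l : Fin n, Ye D l p Y) := by
        refine mul_le_mul' le_rfl ?_
        refine (swap_le (fun σ => vol D σ * ((2:ℝ≥0∞) ^ σ.1.k * Y σ) ^ p)).trans ?_
        exact mul_le_mul' le_rfl (tsum_dir_le _)
    _ = _ := by rw [KC]; ring

/-- **SUM OVER A SET OF CUBES** with edge bounds `tt σ ≤ s l |σ| + Y σ` (`σ` of direction `l`). -/
theorem cubes_sharp {D : Dat n} {p : ℝ} (hp : 1 ≤ p) {tt Y : Cel D → ℝ≥0∞} {s : ℝ≥0∞}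
    (h : ∀ (σ : Cel D) (l : Fin n), σ.1.J = {l} → tt σ ≤ s * ((2:ℝ≥0∞) ^ σ.1.k)⁻¹ + Y σ)
    (𝒬 : Set {τ : Cel D // τ.1.J = Finset.univ}) :
    ∑' τ : 𝒬, vol D τ.1.1 * ((2:ℝ≥0∞) ^ τ.1.1.1.k * tE D tt τ.1.1) ^ p ≤
      2 ^ (p - 1) * ((M1 n * s) ^ p * ∑' τ : 𝒬, vol D τ.1.1 + KC n p * ∑ l : Fin n, Ye D l p Y) := by
  have h1 : ∀ τ : {τ : Cel D // τ.1.J = Finset.univ}, (2:ℝ≥0∞) ^ τ.1.1.k * tE D tt τ.1 ≤
      M1 n * s + (2:ℝ≥0∞) ^ τ.1.1.k * tE D Y τ.1 := by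
    intro τ
    have h2 : tE D tt τ.1 ≤ M1 n * (s * ((2:ℝ≥0∞) ^ τ.1.1.k)⁻¹) + tE D Y τ.1 := by
      calc tE D tt τ.1 ≤ ∑' σ : {σ : Cel D // σ ∈ edgesOf τ.1},
            (s * ((2:ℝ≥0∞) ^ τ.1.1.k)⁻¹ + Y σ.1) := by
            refine ENNReal.tsum_le_tsum fun σ => ?_
            obtain ⟨l, hl⟩ := Finset.card_eq_one.1 σ.2.2
            refine (h σ.1 l hl).trans ?_
            gcongr
            · norm_num
            · exact (scale_le_of_le σ.2.1).1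
        _ = (∑' _σ : {σ : Cel D // σ ∈ edgesOf τ.1}, s * ((2:ℝ≥0∞) ^ τ.1.1.k)⁻¹) + tE D Y τ.1 :=
            ENNReal.tsum_add
        _ ≤ _ := by
            gcongr
            rw [ENNReal.tsum_const]
            refine mul_le_mul' ?_ le_rfl
            have h3 := encard_edgesOf τ.1
            rw [← ENat.card_coe_set_eq] at h3
            have h4 := ENat.toENNReal_mono h3
            simpa using h4
    calc (2:ℝ≥0∞) ^ τ.1.1.k * tE D tt τ.1 ≤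
        (2:ℝ≥0∞) ^ τ.1.1.k * (M1 n * (s * ((2:ℝ≥0∞) ^ τ.1.1.k)⁻¹) + tE D Y τ.1) := by gcongr
      _ = ((2:ℝ≥0∞) ^ τ.1.1.k * ((2:ℝ≥0∞) ^ τ.1.1.k)⁻¹) * (M1 n * s) +
          (2:ℝ≥0∞) ^ τ.1.1.k * tE D Y τ.1 := by ring
      _ = _ := by
          rw [ENNReal.mul_inv_cancel (by positivity) (ENNReal.pow_ne_top (by norm_num)), one_mul]
  calc ∑' τ : 𝒬, vol D τ.1.1 * ((2:ℝ≥0∞) ^ τ.1.1.1.k * tE D tt τ.1.1) ^ p
      ≤ ∑' τ : 𝒬, 2 ^ (p - 1) * (vol D τ.1.1 * (M1 n * s) ^ p +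
          vol D τ.1.1 * ((2:ℝ≥0∞) ^ τ.1.1.1.k * tE D Y τ.1.1) ^ p) := by
        refine ENNReal.tsum_le_tsum fun τ => ?_
        calc vol D τ.1.1 * ((2:ℝ≥0∞) ^ τ.1.1.1.k * tE D tt τ.1.1) ^ p
            ≤ vol D τ.1.1 * (M1 n * s + (2:ℝ≥0∞) ^ τ.1.1.1.k * tE D Y τ.1.1) ^ p := by
              gcongr
              exact h1 τ.1
          _ ≤ vol D τ.1.1 * (2 ^ (p - 1) * ((M1 n * s) ^ p +
              ((2:ℝ≥0∞) ^ τ.1.1.1.k * tE D Y τ.1.1) ^ p)) := by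
              gcongr
              exact ENNReal.rpow_add_le_mul_rpow_add_rpow _ _ hp
          _ = _ := by ring
    _ = 2 ^ (p - 1) * ((M1 n * s) ^ p * ∑' τ : 𝒬, vol D τ.1.1 +
          ∑' τ : 𝒬, vol D τ.1.1 * ((2:ℝ≥0∞) ^ τ.1.1.1.k * tE D Y τ.1.1) ^ p) := by
        rw [ENNReal.tsum_mul_left, ENNReal.tsum_add, ENNReal.tsum_mul_right, mul_comm (∑' _, _)]
    _ ≤ _ := by
        gcongr
        refine le_trans ?_ (cubes_le hp Y)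
        exact ENNReal.tsum_comp_le_tsum_of_injective (f := fun τ : 𝒬 => τ.1) Subtype.val_injective
          (fun τ : {τ : Cel D // τ.1.J = Finset.univ} => vol D τ.1 *
            ((2:ℝ≥0∞) ^ τ.1.1.k * tE D Y τ.1) ^ p)

/-- **SUM OVER CUBES INSIDE `R`** with edge bounds `tt σ ≤ c ∫_σ G + e σ`. -/
theorem cubes_inside {D : Dat n} {p : ℝ} (hp : 1 ≤ p) {tt : Cel D → ℝ≥0∞} {e : Cel D → ℝ≥0∞}
    {G : (Fin n → ℝ) → ℝ≥0∞} {c : ℝ≥0∞}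
    (h : ∀ (σ : Cel D) (l : Fin n), σ.1.J = {l} → tt σ ≤ c * ic G D.a σ.1 + e σ)
    (R : Set (Fin n → ℝ)) :
    ∑' τ : {τ : Cel D // τ.1.J = Finset.univ ∧ τ.c ⊆ R}, vol D τ.1 *
      ((2:ℝ≥0∞) ^ τ.1.1.k * tE D tt τ.1) ^ p ≤
      2 ^ (p - 1) * (c ^ p * S D p (R.indicator G) + KC n p * ∑ l : Fin n, Ye D l p e) := by
  have h1 : ∀ τ : {τ : Cel D // τ.1.J = Finset.univ ∧ τ.c ⊆ R}, tE D tt τ.1 ≤
      c * eg D (R.indicator G) τ.1 + tE D e τ.1 := by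
    intro τ
    calc tE D tt τ.1 ≤ ∑' σ : {σ : Cel D // σ ∈ edgesOf τ.1}, (c * ic G D.a σ.1.1 + e σ.1) := by
          refine ENNReal.tsum_le_tsum fun σ => ?_
          obtain ⟨l, hl⟩ := Finset.card_eq_one.1 σ.2.2
          exact h σ.1 l hl
      _ = c * eg D G τ.1 + tE D e τ.1 := by
          rw [ENNReal.tsum_add, ENNReal.tsum_mul_left]; rfl
      _ = _ := by
          congr 2
          exact eg_congr_on fun x hx => (indicator_of_mem (τ.2.2 hx) G).symm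
  calc _ ≤ ∑' τ : {τ : Cel D // τ.1.J = Finset.univ ∧ τ.c ⊆ R}, 2 ^ (p - 1) *
        (c ^ p * (vol D τ.1 * ((2:ℝ≥0∞) ^ τ.1.1.k * eg D (R.indicator G) τ.1) ^ p) +
          vol D τ.1 * ((2:ℝ≥0∞) ^ τ.1.1.k * tE D e τ.1) ^ p) := by
        refine ENNReal.tsum_le_tsum fun τ => ?_
        calc vol D τ.1 * ((2:ℝ≥0∞) ^ τ.1.1.k * tE D tt τ.1) ^ p
            ≤ vol D τ.1 * (c * ((2:ℝ≥0∞) ^ τ.1.1.k * eg D (R.indicator G) τ.1) +
              (2:ℝ≥0∞) ^ τ.1.1.k * tE D e τ.1) ^ p := by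
              gcongr
              calc (2:ℝ≥0∞) ^ τ.1.1.k * tE D tt τ.1 ≤ (2:ℝ≥0∞) ^ τ.1.1.k *
                  (c * eg D (R.indicator G) τ.1 + tE D e τ.1) := by gcongr; exact h1 τ
                _ = _ := by ring
          _ ≤ vol D τ.1 * (2 ^ (p - 1) * ((c * ((2:ℝ≥0∞) ^ τ.1.1.k *
              eg D (R.indicator G) τ.1)) ^ p + ((2:ℝ≥0∞) ^ τ.1.1.k * tE D e τ.1) ^ p)) := by
              gcongr
              exact ENNReal.rpow_add_le_mul_rpow_add_rpow _ _ hp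
          _ = _ := by
              rw [ENNReal.mul_rpow_of_nonneg c _ (by linarith)]
              ring
    _ = 2 ^ (p - 1) * (c ^ p * (∑' τ : {τ : Cel D // τ.1.J = Finset.univ ∧ τ.c ⊆ R},
          vol D τ.1 * ((2:ℝ≥0∞) ^ τ.1.1.k * eg D (R.indicator G) τ.1) ^ p) +
          ∑' τ : {τ : Cel D // τ.1.J = Finset.univ ∧ τ.c ⊆ R},
          vol D τ.1 * ((2:ℝ≥0∞) ^ τ.1.1.k * tE D e τ.1) ^ p) := by
        rw [ENNReal.tsum_mul_left, ENNReal.tsum_add, ENNReal.tsum_mul_left]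
    _ ≤ _ := by
        have hinj : Function.Injective (fun τ : {τ : Cel D // τ.1.J = Finset.univ ∧ τ.c ⊆ R} =>
            (⟨τ.1, τ.2.1⟩ : {τ : Cel D // τ.1.J = Finset.univ})) := by
          intro τ τ' h
          exact Subtype.ext (congrArg (fun x => x.1) h)
        refine mul_le_mul' le_rfl (add_le_add (mul_le_mul' le_rfl ?_) ?_)
        · exact ENNReal.tsum_comp_le_tsum_of_injective hinj
            (fun τ : {τ : Cel D // τ.1.J = Finset.univ} => vol D τ.1 *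
              ((2:ℝ≥0∞) ^ τ.1.1.k * eg D (R.indicator G) τ.1) ^ p)
        · refine le_trans ?_ (cubes_le hp e)
          exact ENNReal.tsum_comp_le_tsum_of_injective hinj
            (fun τ : {τ : Cel D // τ.1.J = Finset.univ} => vol D τ.1 *
              ((2:ℝ≥0∞) ^ τ.1.1.k * tE D e τ.1) ^ p)

/-- the energy of a sum -/
theorem Ye_add_le {D : Dat n} {p : ℝ} (hp : 1 ≤ p) (l : Fin n) (Y Y' : Cel D → ℝ≥0∞) :
    Ye D l p (fun σ => Y σ + Y' σ) ≤ 2 ^ (p - 1) * (Ye D l p Y + Ye D l p Y') := by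
  unfold Ye
  calc _ ≤ ∑' σ : {σ : Cel D // σ.1.J = {l}}, 2 ^ (p - 1) *
      (vol D σ.1 * ((2:ℝ≥0∞) ^ σ.1.1.k * Y σ.1) ^ p +
        vol D σ.1 * ((2:ℝ≥0∞) ^ σ.1.1.k * Y' σ.1) ^ p) := by
        refine ENNReal.tsum_le_tsum fun σ => ?_
        rw [mul_add]
        calc _ ≤ vol D σ.1 * (2 ^ (p - 1) * (((2:ℝ≥0∞) ^ σ.1.1.k * Y σ.1) ^ p +
              ((2:ℝ≥0∞) ^ σ.1.1.k * Y' σ.1) ^ p)) := by
              gcongr
              exact ENNReal.rpow_add_le_mul_rpow_add_rpow _ _ hp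
          _ = _ := by ring
    _ = _ := by rw [ENNReal.tsum_mul_left, ENNReal.tsum_add]

theorem Ye_mul {D : Dat n} {p : ℝ} (hp : 1 ≤ p) (l : Fin n) (c : ℝ≥0∞) (Y : Cel D → ℝ≥0∞) :
    Ye D l p (fun σ => c * Y σ) = c ^ p * Ye D l p Y := by
  unfold Ye
  rw [← ENNReal.tsum_mul_left]
  refine tsum_congr fun σ => ?_
  rw [show (2:ℝ≥0∞) ^ σ.1.1.k * (c * Y σ.1) = c * ((2:ℝ≥0∞) ^ σ.1.1.k * Y σ.1) by ring,
    ENNReal.mul_rpow_of_nonneg _ _ (by linarith)]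
  ring

theorem Ye_ic {D : Dat n} {p : ℝ} (l : Fin n) (X : (Fin n → ℝ) → ℝ≥0∞) :
    Ye D l p (fun σ => ic X D.a σ.1) = Ed D l p X := rfl

end

end Crest.Agent.R096.Ps_273
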