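/-
helper273, row 96, NO0-PRE [P3] (582 #10220), part 3: cells of a tiling which agrees locally with the
base mesh; line integrals over the base edges.
-/
import Mathlib
import Crest.Agent.R096.Ps2_273
import Crest.Agent.R096.Ls4_222
import Crest.Agent.R096.Msh6_810

set_option autoImplicit false

open MeasureTheory Set Filter
open scoped Topology ENNReal

namespace Crest.Agent.R096.Ps_273

open Crest.Agent.R096.Msh_810 Crest.Agent.R096.Bas_731 Crest.Agent.R96.En3_199
  Crest.Agent.R96.En4_199 Crest.Agent.R96.En5_199 Crest.Agent.R96.En2_199 Crest.Agent.R96.En6_199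
  Crest.Agent.R96.En7_199 Crest.Agent.R96.En8_199 Crest.Agent.R96.En9_199
  Crest.Agent.R96.En11_199 Crest.Agent.R96.Sg1_199
open Crest.Agent.R096.Msh_715 hiding P I
open Crest.Agent.R096.Ls_222

noncomputable section

section agree

variable {E : Type*} [NormedAddCommGroup E] [NormedSpace ℝ E]
  {Om Om' : Set E} {ι ι' : Type*} {T : Tiling Om ι} {T' : Tiling Om' ι'}

/-- if the tiles of `T` at `x` are tiles of `T'`, the two tilings have the same tiles at `x` -/
theorem agree {x : E} (hx : x ∈ Om) (hx' : x ∈ Om') (h : ∀ i ∈ T.at_ x, ∃ j, T.H i = T'.H j) :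
    ∀ j ∈ T'.at_ x, ∃ i ∈ T.at_ x, T.H i = T'.H j := by
  intro j hj
  obtain ⟨r, hr, hO, hat⟩ := T.exists_ball hx
  obtain ⟨z, hz⟩ := T'.ne j
  -- a point of the interior of the tile `j` close to `x`
  obtain ⟨y, hy1, hy2⟩ : ∃ y ∈ Metric.ball x r, y ∈ Msh_715.I (T'.H j) := by
    have hc : Tendsto (fun s : ℝ => x + s • (z - x)) (𝓝[>] (0:ℝ)) (𝓝 x) := by
      have h1 : Continuous fun s : ℝ => x + s • (z - x) := by fun_prop
      have h2 := h1.tendsto 0
      simp only [zero_smul, add_zero] at h2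
      exact h2.mono_left nhdsWithin_le_nhds
    have h1 : ∀ᶠ s : ℝ in 𝓝[>] (0:ℝ), x + s • (z - x) ∈ Metric.ball x r :=
      hc (Metric.ball_mem_nhds x hr)
    have h2 : ∀ᶠ s : ℝ in 𝓝[>] (0:ℝ), s < 1 :=
      (gt_mem_nhds (zero_lt_one' ℝ)).filter_mono nhdsWithin_le_nhds
    obtain ⟨s, hs1, hs2, hs3⟩ := (h1.and (h2.and self_mem_nhdsWithin)).exists
    exact ⟨_, hs1, mem_I_of_move hj hz hs3 hs2.le⟩
  obtain ⟨i, hi⟩ := T.cov y (hO hy1)
  have hix : i ∈ T.at_ x := hat y hy1 hi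
  obtain ⟨j', hj'⟩ := h i hix
  have h3 : j' ∈ T'.at_ y := by
    show y ∈ Msh_715.P (T'.H j')
    rw [← hj']; exact hi
  rw [T'.at_eq_singleton hy2] at h3
  have h4 : j' = j := h3
  exact ⟨i, hix, h4 ▸ hj'⟩

theorem cc_agree {x : E} (hx : x ∈ Om) (hx' : x ∈ Om') (h : ∀ i ∈ T.at_ x, ∃ j, T.H i = T'.H j) :
    T.cc x = T'.cc x := by
  have h2 := agree hx hx' h
  ext y
  constructor
  · intro hy j hj g hg
    obtain ⟨i, hi, he⟩ := h2 j hj
    rw [← he] at hg
    exact hy i hi g hg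
  · intro hy i hi g hg
    obtain ⟨j, he⟩ := h i hi
    have hj : j ∈ T'.at_ x := by
      show x ∈ Msh_715.P (T'.H j)
      rw [← he]; exact hi
    rw [he] at hg
    exact hy j hj g hg

theorem dim_agree {x : E} (hx : x ∈ Om) (hx' : x ∈ Om') (h : ∀ i ∈ T.at_ x, ∃ j, T.H i = T'.H j) :
    T.dim x = T'.dim x := by
  have h2 := agree hx hx' h
  have hV : T.V x = T'.V x := by
    ext v
    rw [T.mem_V, T'.mem_V]
    constructor
    · intro hy j hj g hg
      obtain ⟨i, hi, he⟩ := h2 j hj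
      rw [← he] at hg
      exact hy i hi g hg
    · intro hy i hi g hg
      obtain ⟨j, he⟩ := h i hi
      have hj : j ∈ T'.at_ x := by
        show x ∈ Msh_715.P (T'.H j)
        rw [← he]; exact hi
      rw [he] at hg
      exact hy j hj g hg
  unfold Tiling.dim
  rw [hV]

end agree

section line

variable {n : ℕ}

/-- the end points of a segment which is a closed edge of the mesh -/
theorem ends_of_edge {a : Fin n → ℝ} {σ : Idx n} {l : Fin n} (hσ : σ.J = {l}) {x v : Fin n → ℝ}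
    (h : sgm x v = Dc a σ) :
    (x = vx a σ.k σ.z ∧ v = Pi.single l (1 / 2 ^ σ.k)) ∨
    (x = vx a σ.k σ.z + Pi.single l (1 / 2 ^ σ.k) ∧ v = Pi.single l (-(1 / 2 ^ σ.k))) := by
  have hk : (0:ℝ) < 1 / 2 ^ σ.k := by positivity
  set r : ℝ := 1 / 2 ^ σ.k with hr
  set w := vx a σ.k σ.z with hw
  have hx : x ∈ Dc a σ := by
    rw [← h]; exact ⟨0, by simp, by simp⟩
  have hxv : x + v ∈ Dc a σ := by
    rw [← h]; exact ⟨1, by simp, by simp⟩
  obtain ⟨s0, ⟨h00, h01⟩, e0⟩ := (mem_edge_iff hσ x).1 hx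
  obtain ⟨s1, ⟨h10, h11⟩, e1⟩ := (mem_edge_iff hσ (x + v)).1 hxv
  have hv : v = Pi.single l (s1 - s0) := by
    have : v = (x + v) - x := by abel
    rw [this, e1, e0, Pi.single_sub]
    abel
  have hw1 : w ∈ sgm x v := by
    rw [h]; exact (mem_edge_iff hσ w).2 ⟨0, ⟨le_rfl, hk.le⟩, by simp [hw]⟩
  have hw2 : w + Pi.single l r ∈ sgm x v := by
    rw [h]; exact (mem_edge_iff hσ _).2 ⟨r, ⟨hk.le, le_rfl⟩, rfl⟩
  obtain ⟨t, ⟨ht0, ht1⟩, et⟩ := hw1
  obtain ⟨t', ⟨ht0', ht1'⟩, et'⟩ := hw2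
  have f1 : s0 + t * (s1 - s0) = 0 := by
    have h1 := congrFun et l
    simp only [e0, hv, Pi.add_apply, Pi.smul_apply, Pi.single_eq_same, smul_eq_mul] at h1
    linarith
  have f2 : s0 + t' * (s1 - s0) = r := by
    have h1 := congrFun et' l
    simp only [e0, hv, Pi.add_apply, Pi.smul_apply, Pi.single_eq_same, smul_eq_mul] at h1
    linarith
  have f3 : (1 - t) * s0 + t * s1 = 0 := by linarith
  have f4 : (1 - t) * s0 = 0 := by
    have := mul_nonneg (by linarith : 0 ≤ 1 - t) h00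
    have := mul_nonneg ht0 h10
    linarith
  have f5 : t * s1 = 0 := by linarith
  have f6 : (1 - t') * s0 + t' * s1 = r := by linarith
  rcases mul_eq_zero.1 f4 with h1 | h1
  · -- t = 1, s1 = 0
    have ht : t = 1 := by linarith
    have hs1 : s1 = 0 := by rw [ht, one_mul] at f5; exact f5
    right
    rw [hs1, mul_zero, add_zero] at f6
    have hs0 : s0 = r := by
      apply le_antisymm h01
      calc r = (1 - t') * s0 := f6.symm
        _ ≤ 1 * s0 := mul_le_mul_of_nonneg_right (by linarith) h00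
        _ = s0 := one_mul _
    refine ⟨by rw [e0, hs0], by rw [hv, hs1, hs0, zero_sub]⟩
  · left
    rw [h1, mul_zero, zero_add] at f6
    have hs1 : s1 = r := by
      apply le_antisymm h11
      calc r = t' * s1 := f6.symm
        _ ≤ 1 * s1 := mul_le_mul_of_nonneg_right ht1' h10
        _ = s1 := one_mul _
    refine ⟨by rw [e0, h1]; simp [hw], by rw [hv, hs1, h1, sub_zero]⟩

/-- **the line integral over a base edge** -/
theorem li_eq_ic {F : (Fin n → ℝ) → ℝ≥0∞} (hF : Measurable F) {a : Fin n → ℝ} {σ : Idx n}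
    {l : Fin n} (hσ : σ.J = {l}) {x v : Fin n → ℝ} (h : sgm x v = Dc a σ) :
    ENNReal.ofReal |v l| * li F x v = ic F a σ := by
  have hk : (0:ℝ) < 1 / 2 ^ σ.k := by positivity
  rw [ic_single hF a hσ]
  unfold li
  rcases ends_of_edge hσ h with ⟨h1, h2⟩ | ⟨h1, h2⟩
  · have himg : (fun τ : ℝ => τ * (1 / 2 ^ σ.k)) '' Icc (0:ℝ) 1 = Icc (0:ℝ) (1 / 2 ^ σ.k) := by
      rw [image_mul_right_Icc (by norm_num) hk.le]; simp
    rw [← himg, lintegral_image_eq_lintegral_abs_deriv_mul measurableSet_Icc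
      (f' := fun _ => 1 / 2 ^ σ.k)
      (fun t _ => by simpa using ((hasDerivAt_id t).mul_const (1 / 2 ^ σ.k)).hasDerivWithinAt)
      (fun s _ t _ hst => mul_right_cancel₀ hk.ne' hst)]
    rw [lintegral_const_mul' _ _ ENNReal.ofReal_ne_top]
    rw [h1, h2, Pi.single_eq_same]
    congr 1
    refine lintegral_congr fun t => ?_
    rw [← Pi.single_smul, smul_eq_mul]
  · have himg : (fun τ : ℝ => 1 / 2 ^ σ.k - τ * (1 / 2 ^ σ.k)) '' Icc (0:ℝ) 1 =
        Icc (0:ℝ) (1 / 2 ^ σ.k) := by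
      ext y
      constructor
      · rintro ⟨t, ⟨ht0, ht1⟩, rfl⟩
        constructor
        · have := mul_le_mul_of_nonneg_right ht1 hk.le
          simp only; linarith
        · have := mul_nonneg ht0 hk.le
          simp only; linarith
      · rintro ⟨hy0, hy1⟩
        refine ⟨1 - y / (1 / 2 ^ σ.k), ⟨?_, ?_⟩, ?_⟩
        · have : y / (1 / 2 ^ σ.k) ≤ 1 := (div_le_one hk).2 hy1
          linarith
        · have : 0 ≤ y / (1 / 2 ^ σ.k) := div_nonneg hy0 hk.le
          linarith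
        · show 1 / 2 ^ σ.k - (1 - y / (1 / 2 ^ σ.k)) * (1 / 2 ^ σ.k) = y
          rw [sub_mul, one_mul, div_mul_cancel₀ _ hk.ne']; ring
    rw [← himg, lintegral_image_eq_lintegral_abs_deriv_mul measurableSet_Icc
      (f' := fun _ => -(1 / 2 ^ σ.k))
      (fun t _ => by
        have h9 := (((hasDerivAt_id t).mul_const (1 / 2 ^ σ.k)).const_sub
          (1 / 2 ^ σ.k)).hasDerivWithinAt (s := Icc (0:ℝ) 1)
        rw [one_mul] at h9
        exact h9)
      (fun s _ t _ hst => by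
        have h3 : s * (1 / 2 ^ σ.k) = t * (1 / 2 ^ σ.k) := by
          have h4 : 1 / 2 ^ σ.k - s * (1 / 2 ^ σ.k) = 1 / 2 ^ σ.k - t * (1 / 2 ^ σ.k) := hst
          linarith
        exact mul_right_cancel₀ hk.ne' h3)]
    rw [lintegral_const_mul' _ _ ENNReal.ofReal_ne_top]
    rw [h1, h2, Pi.single_eq_same]
    congr 1
    refine lintegral_congr fun t => ?_
    rw [← Pi.single_smul, smul_eq_mul, add_assoc, ← Pi.single_add]
    congr 3
    ring

end line

end

end Crest.Agent.R096.Ps_273
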