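/-
helper273, row 96, NO0-PRE [P3] (582 #10220), part 4: from the tiles of a tiling which is the base
mesh near these tiles to the cubes of the base mesh.
-/
import Mathlib
import Crest.Agent.R096.Ps3_273
import Crest.Agent.R096.Ea1_713

set_option autoImplicit false

open MeasureTheory Set Filter
open scoped Topology ENNReal

namespace Crest.Agent.R096.Ps_273

open Crest.Agent.R096.Msh_810 Crest.Agent.R096.Bas_731 Crest.Agent.R96.En3_199
  Crest.Agent.R96.En4_199 Crest.Agent.R96.En5_199 Crest.Agent.R96.En2_199 Crest.Agent.R96.En6_199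
  Crest.Agent.R96.En7_199 Crest.Agent.R96.En8_199 Crest.Agent.R96.En9_199
  Crest.Agent.R96.En11_199 Crest.Agent.R96.Sg1_199
open Crest.Agent.R096.Msh_715 hiding P I
open Crest.Agent.R096.Ls_222

noncomputable section

variable {n : ℕ}

/-- the identity frame -/
def idn : (Fin n → ℝ) ≃L[ℝ] (Fin n → ℝ) := ContinuousLinearEquiv.refl ℝ _

@[simp] theorem idn_apply (x : Fin n → ℝ) : idn x = x := rfl

/-- **near the tiles of `Q` the tiling `T` is the base mesh `D`** -/
structure BaseOn {Om : Set (Fin n → ℝ)} {ι : Type*} (T : Tiling Om ι) (D : Dat n) (Q : Set ι)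
    (τ : ι → Top D) : Prop where
  Om_eq : Om = D.Om
  tile : ∀ i ∈ Q, T.H i = (tiling idn D).H (τ i)
  nb : ∀ i ∈ Q, ∀ j, (Msh_715.P (T.H i) ∩ Msh_715.P (T.H j)).Nonempty →
    ∃ τ', T.H j = (tiling idn D).H τ'

namespace BaseOn

variable {Om : Set (Fin n → ℝ)} {ι : Type*} {T : Tiling Om ι} {D : Dat n} {Q : Set ι}
  {τ : ι → Top D}

theorem mono (h : BaseOn T D Q τ) {Q' : Set ι} (hQ : Q' ⊆ Q) : BaseOn T D Q' τ :=
  ⟨h.Om_eq, fun i hi => h.tile i (hQ hi), fun i hi => h.nb i (hQ hi)⟩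

theorem P_eq (h : BaseOn T D Q τ) {i : ι} (hi : i ∈ Q) : Msh_715.P (T.H i) = (τ i).1.c := by
  rw [h.tile i hi]
  show Msh_715.P (Hc idn D.a (τ i).1.1.k (τ i).1.1.z) = _
  rw [P_Hc, ← Top.c_eq]
  rfl

theorem inj (h : BaseOn T D Q τ) : InjOn τ Q := by
  intro i hi j hj hij
  by_contra hne
  have h1 := T.dis i j hne
  rw [h.tile i hi, h.tile j hj, hij] at h1
  obtain ⟨x, hx⟩ := (tiling idn D).ne (τ j)
  exact disjoint_left.1 h1 hx hx

theorem cc_eq (h : BaseOn T D Q τ) {i : ι} (hi : i ∈ Q) {x : Fin n → ℝ}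
    (hx : x ∈ Msh_715.P (T.H i)) (hxO : x ∈ D.Om) :
    T.cc x = (Cel.of x hxO).c := by
  have h1 : T.cc x = (tiling idn D).cc x := by
    apply cc_agree (T.sub i hx) hxO
    intro j hj
    exact h.nb i hi j ⟨x, hx, hj⟩
  rw [h1]
  exact Crest.Agent.R096.Msh_810.cc_eq (φ := idn) (D := D) (x := x) hxO

end BaseOn

/-- a closed cell which is a segment is an edge of the mesh -/
theorem card_eq_one_of_sgm {a : Fin n → ℝ} {σ : Idx n} {x v : Fin n → ℝ} (hv : v ≠ 0)
    (h : sgm x v = Dc a σ) : σ.J.card = 1 := by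
  have hk : (0:ℝ) < 1 / 2 ^ σ.k := by positivity
  have h2k : (2:ℝ) ^ σ.k ≠ 0 := by positivity
  set w := vx a σ.k σ.z with hw
  have hw0 : w ∈ Dc a σ := vx_mem a σ
  have hps : ∀ i, ps a σ.k w i = σ.z i := by
    intro i
    rw [hw]
    simp only [ps, vx]
    field_simp
    ring
  have hwl : ∀ l ∈ σ.J, w + Pi.single l (1 / 2 ^ σ.k) ∈ Dc a σ := by
    intro l hl i
    have h1 : ps a σ.k (w + Pi.single l (1 / 2 ^ σ.k)) i = σ.z i + if i = l then 1 else 0 := by
      rw [← hps i]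
      simp only [ps, Pi.add_apply]
      by_cases hi : i = l
      · subst hi
        simp only [Pi.single_eq_same, if_true]
        field_simp
        ring
      · simp only [Pi.single_apply, if_neg hi]
        ring
    rw [h1]
    constructor
    · intro _
      split_ifs <;> constructor <;> linarith
    · intro hi
      have : i ≠ l := fun h => hi (h ▸ hl)
      simp [this]
  apply le_antisymm
  · by_contra hcon
    push Not at hcon
    obtain ⟨l, hl, l', hl', hne⟩ := Finset.one_lt_card.1 hcon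
    have h0 := hw0
    have h1 := hwl l hl
    have h2 := hwl l' hl'
    rw [← h] at h0 h1 h2
    obtain ⟨t0, -, e0⟩ := h0
    obtain ⟨t1, -, e1⟩ := h1
    obtain ⟨t2, -, e2⟩ := h2
    simp only at e0 e1 e2
    have f1 : (t1 - t0) • v = Pi.single l (1 / 2 ^ σ.k) := by
      rw [sub_smul]
      have : t1 • v - t0 • v = (x + t1 • v) - (x + t0 • v) := by abel
      rw [this, e1, e0]; abel
    have f2 : (t2 - t0) • v = Pi.single l' (1 / 2 ^ σ.k) := by
      rw [sub_smul]
      have : t2 • v - t0 • v = (x + t2 • v) - (x + t0 • v) := by abel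
      rw [this, e2, e0]; abel
    have g1 := congrFun f1 l
    have g2 := congrFun f1 l'
    have g3 := congrFun f2 l'
    simp only [Pi.smul_apply, smul_eq_mul, Pi.single_eq_same] at g1 g3
    rw [Pi.single_eq_of_ne hne.symm, Pi.smul_apply, smul_eq_mul] at g2
    have g4 : t1 - t0 ≠ 0 := by
      intro h0
      rw [h0, zero_mul] at g1
      linarith
    have g5 : v l' = 0 := (mul_eq_zero.1 g2).resolve_left g4
    rw [g5, mul_zero] at g3
    linarith
  · rw [Nat.one_le_iff_ne_zero, Ne, Finset.card_eq_zero]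
    intro hJ
    apply hv
    have h0 : x ∈ Dc a σ := by rw [← h]; exact ⟨0, by simp, by simp⟩
    have h1 : x + v ∈ Dc a σ := by rw [← h]; exact ⟨1, by simp, by simp⟩
    funext i
    have e0 := (h0 i).2 (by rw [hJ]; simp)
    have e1 := (h1 i).2 (by rw [hJ]; simp)
    simp only [ps, Pi.add_apply] at e0 e1
    have e2 : (2:ℝ) ^ σ.k * v i = 0 := by linarith
    simpa using (mul_eq_zero.1 e2).resolve_left h2k

section tiles

variable {Om : Set (Fin n → ℝ)} {ι : Type*} {T : Tiling Om ι} {D : Dat n} {Q : Set ι}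
  {τ : ι → Top D}

/-- **the edges of a base tile are mesh edges** -/
theorem BaseOn.edge (h : BaseOn T D Q τ) {i : ι} (hi : i ∈ Q) {e : Edg T} (he : e ∈ eIn T i) :
    ∃ σ : Cel D, σ ∈ edgesOf (τ i).1 ∧ e.1 = σ.c := by
  have h1 := mem_eIn.1 he
  have hs : sgm (ea e) (ev e) = e.1 := sgm_edg e
  have hv := ev_ne e
  obtain ⟨x, hx, hd, he'⟩ := e.2
  have hx1 : x ∈ e.1 := by rw [he']; exact T.self_mem_cc x
  have hxO : x ∈ D.Om := h.Om_eq ▸ hx
  have h2 := h.cc_eq hi (h1 hx1) hxO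
  have h3 : e.1 = (Cel.of x hxO).c := he'.trans h2
  refine ⟨Cel.of x hxO, ⟨?_, ?_⟩, h3⟩
  · show (Cel.of x hxO).c ⊆ (τ i).1.c
    rw [← h3, ← h.P_eq hi]
    exact h1
  · exact card_eq_one_of_sgm hv (hs.trans h3)

theorem BaseOn.vol_eq (h : BaseOn T D Q τ) {i : ι} (hi : i ∈ Q) :
    volume (Msh_715.P (T.H i)) = vol D (τ i).1 := by
  rw [h.P_eq hi]
  exact volume_cube D.a (τ i).2

/-- **sum over the edges of a tile** -/
theorem BaseOn.sum_le (h : BaseOn T D Q τ) {i : ι} (hi : i ∈ Q) {F : Edg T → ℝ≥0∞}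
    {tt : Cel D → ℝ≥0∞} (hF : ∀ e : Edg T, ∀ σ : Cel D, σ ∈ edgesOf (τ i).1 → e.1 = σ.c →
      F e ≤ tt σ) :
    ∑ e ∈ eIn T i, F e ≤ tE D tt (τ i).1 := by
  classical
  have : Nonempty (Cel D) := ⟨(τ i).1⟩
  choose! s hs1 hs2 using fun (e : Edg T) (he : e ∈ eIn T i) => h.edge hi he
  have hinj : InjOn s (eIn T i : Set (Edg T)) := by
    intro e he e' he' hee
    apply Subtype.ext
    rw [hs2 e he, hs2 e' he', hee]
  calc ∑ e ∈ eIn T i, F e ≤ ∑ e ∈ eIn T i, tt (s e) :=
        Finset.sum_le_sum fun e he => hF e (s e) (hs1 e he) (hs2 e he)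
    _ = ∑ σ ∈ (eIn T i).image s, tt σ := (Finset.sum_image hinj).symm
    _ ≤ tE D tt (τ i).1 := by
        unfold tE
        have h1 : ∑' σ : {σ : Cel D // σ ∈ edgesOf (τ i).1}, tt σ.1 =
            ∑' σ : Cel D, (edgesOf (τ i).1).indicator tt σ := tsum_subtype (edgesOf (τ i).1) tt
        rw [h1]
        refine le_trans (le_of_eq ?_) (ENNReal.sum_le_tsum ((eIn T i).image s))
        refine Finset.sum_congr rfl fun σ hσ => ?_
        obtain ⟨e, he, rfl⟩ := Finset.mem_image.1 hσ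
        rw [indicator_of_mem (hs1 e he)]

/-- **change of the index set**: sums over tiles of `Q` are sums over cubes -/
theorem BaseOn.tsum_le (h : BaseOn T D Q τ) {A : {τ : Cel D // τ.1.J = Finset.univ} → ℝ≥0∞}
    {B : ι → ℝ≥0∞} (hB : ∀ i ∈ Q, B i ≤ A (τ i)) :
    ∑' i : Q, B i ≤ ∑' t : (τ '' Q : Set (Top D)), A t := by
  have hinj : Function.Injective (fun i : Q => (⟨τ i, mem_image_of_mem τ i.2⟩ :
      (τ '' Q : Set (Top D)))) := by
    intro i j hij
    exact Subtype.ext (h.inj i.2 j.2 (congrArg (fun t => t.1) hij))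
  refine le_trans (ENNReal.tsum_le_tsum fun i : Q => hB i.1 i.2) ?_
  exact ENNReal.tsum_comp_le_tsum_of_injective hinj
    (fun t : (τ '' Q : Set (Top D)) => A t.1)

/-- the volume of the cubes -/
theorem BaseOn.tsum_vol (h : BaseOn T D Q τ) :
    ∑' t : (τ '' Q : Set (Top D)), vol D t.1.1 = volume (⋃ i ∈ Q, Msh_715.P (T.H i)) := by
  have hcount : Countable ι := Crest.Agent.R096.Ea_713.countable_ix T
  have h1 : ∑' t : (τ '' Q : Set (Top D)), vol D t.1.1 = ∑' i : Q, vol D (τ i).1 :=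
    ((Equiv.Set.imageOfInjOn τ Q h.inj).tsum_eq
      (fun t : (τ '' Q : Set (Top D)) => vol D t.1.1)).symm
  rw [h1, biUnion_eq_iUnion, measure_iUnion₀]
  · exact tsum_congr fun i => (h.vol_eq i.2).symm
  · intro i j hij
    exact Crest.Agent.R096.Ea_713.aedisj volume T (fun hh => hij (Subtype.ext hh))
  · intro i
    exact (Msh_715.isClosed_P _).measurableSet.nullMeasurableSet

end tiles

end

end Crest.Agent.R096.Ps_273
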