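/-
helper273, row 96, NO0-PRE [P3] (582 #10220), part 5: sums over the tiles.
-/
import Mathlib
import Crest.Agent.R096.Ps4_273

set_option autoImplicit false

open MeasureTheory Set Filter
open scoped Topology ENNReal

namespace Crest.Agent.R096.Ps_273

open Crest.Agent.R096.Msh_810 Crest.Agent.R096.Bas_731 Crest.Agent.R96.En3_199
  Crest.Agent.R96.En4_199 Crest.Agent.R96.En5_199 Crest.Agent.R96.En2_199 Crest.Agent.R96.En6_199
  Crest.Agent.R96.En7_199 Crest.Agent.R96.En8_199 Crest.Agent.R96.En9_199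
  Crest.Agent.R96.En11_199 Crest.Agent.R96.Sg1_199
open Crest.Agent.R096.Msh_715 hiding P I
open Crest.Agent.R096.Ls_222

noncomputable section

variable {n : ℕ} {Om : Set (Fin n → ℝ)} {ι : Type*} {T : Tiling Om ι} {D : Dat n} {Q : Set ι}
  {τ : ι → Top D}

/-- **TILES, SHARP FORM** (tiles over the horizontal walls): `N i` = total weight of the edges of the
tile `i`, `F e ≤ c ∫_e (own direction) + er` on the base edges. -/
theorem BaseOn.tiles_sharp (h : BaseOn T D Q τ) {p : ℝ} (hp : 1 ≤ p) {𝒞 : Type*} {w : 𝒞 → ℝ≥0∞}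
    {g : 𝒞 → Fin n → (Fin n → ℝ) → ℝ} {s : Fin n → ℝ≥0∞} {sm : ℝ≥0∞} (hs : ∀ l, s l ≤ sm)
    {c : ℝ≥0∞} {er : Cel D → ℝ≥0∞} {F : Edg T → ℝ≥0∞}
    (hF : ∀ (e : Edg T) (σ : Cel D) (l : Fin n), σ.1.J = {l} → e.1 = σ.c →
      F e ≤ c * ic (Hw w g l) D.a σ.1 + er σ)
    {N : ι → ℝ≥0∞} (hN : ∀ i ∈ Q, N i ≤ ∑ e ∈ eIn T i, F e) :
    ∑' i : Q, ((2:ℝ≥0∞) ^ (τ i).1.1.k * N i) ^ p * volume (Msh_715.P (T.H i)) ≤
      2 ^ (p - 1) * ((M1 n * (c * sm)) ^ p * volume (⋃ i ∈ Q, Msh_715.P (T.H i)) +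
        KC n p * (2 ^ (p - 1) * (c ^ p * ∑ l : Fin n, Ed D l p (Xs w g s l) +
          ∑ l : Fin n, Ye D l p er))) := by
  classical
  -- the bound on the edges
  set dirc : Cel D → Option (Fin n) := fun σ => if hσ : ∃ l, σ.1.J = {l} then some hσ.choose else none
    with hdirc
  have hdir : ∀ (σ : Cel D) (l : Fin n), σ.1.J = {l} → dirc σ = some l := by
    intro σ l hl
    have hσ : ∃ l, σ.1.J = {l} := ⟨l, hl⟩
    rw [hdirc]
    simp only [dif_pos hσ]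
    congr 1
    have h1 : σ.1.J = {hσ.choose} := hσ.choose_spec
    exact (Finset.singleton_injective (hl.symm.trans h1)).symm
  set XX : Cel D → ℝ≥0∞ := fun σ => (dirc σ).elim 0 (fun l => ic (Xs w g s l) D.a σ.1) with hXX
  have hXl : ∀ (σ : Cel D) (l : Fin n), σ.1.J = {l} → XX σ = ic (Xs w g s l) D.a σ.1 := by
    intro σ l hl
    simp only [hXX, hdir σ l hl, Option.elim_some]
  set Hl : Cel D → ℝ≥0∞ := fun σ => (dirc σ).elim 0 (fun l => c * ic (Hw w g l) D.a σ.1 + er σ)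
    with hHl
  have hHl' : ∀ (σ : Cel D) (l : Fin n), σ.1.J = {l} → Hl σ = c * ic (Hw w g l) D.a σ.1 + er σ := by
    intro σ l hl
    simp only [hHl, hdir σ l hl, Option.elim_some]
  have key := cubes_sharp (D := D) hp (tt := Hl) (Y := fun σ => c * XX σ + er σ) (s := c * sm)
    (fun σ l hl => by
      rw [hHl' σ l hl, hXl σ l hl]
      have hcard : σ.1.J.card = 1 := by rw [hl]; simp
      have h1 := ic_le_const (H := Hw w g l) (s l) D.a hcard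
      calc c * ic (Hw w g l) D.a σ.1 + er σ ≤
            c * (s l * ((2:ℝ≥0∞) ^ σ.1.k)⁻¹ + ic (Xs w g s l) D.a σ.1) + er σ := by
            gcongr; exact h1
        _ ≤ c * (sm * ((2:ℝ≥0∞) ^ σ.1.k)⁻¹ + ic (Xs w g s l) D.a σ.1) + er σ := by
            gcongr; exact hs l
        _ = _ := by ring) (τ '' Q)
  have h1 : ∑' i : Q, ((2:ℝ≥0∞) ^ (τ i).1.1.k * N i) ^ p * volume (Msh_715.P (T.H i)) ≤
      ∑' t : (τ '' Q : Set (Top D)), vol D t.1.1 * ((2:ℝ≥0∞) ^ t.1.1.1.k * tE D Hl t.1.1) ^ p := by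
    refine h.tsum_le (A := fun t => vol D t.1 * ((2:ℝ≥0∞) ^ t.1.1.k * tE D Hl t.1) ^ p)
      (B := fun i => ((2:ℝ≥0∞) ^ (τ i).1.1.k * N i) ^ p * volume (Msh_715.P (T.H i)))
      fun i hi => ?_
    rw [h.vol_eq hi, mul_comm]
    gcongr
    refine (hN i hi).trans (h.sum_le hi fun e σ hσ he => ?_)
    obtain ⟨l, hl⟩ := Finset.card_eq_one.1 hσ.2
    rw [hHl' σ l hl]
    exact hF e σ l hl he
  refine h1.trans (key.trans ?_)
  rw [h.tsum_vol]
  gcongr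
  rw [Finset.mul_sum, ← Finset.sum_add_distrib, Finset.mul_sum]
  refine Finset.sum_le_sum fun l _ => ?_
  refine (Ye_add_le hp l _ _).trans ?_
  gcongr
  rw [Ye_mul hp]
  gcongr
  rw [← Ye_ic]
  unfold Ye
  refine ENNReal.tsum_le_tsum fun σ => ?_
  rw [hXl σ.1 l σ.2]

/-- **TILES INSIDE `R`** -/
theorem BaseOn.tiles_inside (h : BaseOn T D Q τ) {p : ℝ} (hp : 1 ≤ p) {𝒞 : Type*} {w : 𝒞 → ℝ≥0∞}
    {g : 𝒞 → Fin n → (Fin n → ℝ) → ℝ} {c : ℝ≥0∞} {er : Cel D → ℝ≥0∞} {F : Edg T → ℝ≥0∞}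
    (hF : ∀ (e : Edg T) (σ : Cel D) (l : Fin n), σ.1.J = {l} → e.1 = σ.c →
      F e ≤ c * ic (Hw w g l) D.a σ.1 + er σ)
    {N : ι → ℝ≥0∞} (hN : ∀ i ∈ Q, N i ≤ ∑ e ∈ eIn T i, F e) {R : Set (Fin n → ℝ)}
    (hR : ∀ i ∈ Q, Msh_715.P (T.H i) ⊆ R) :
    ∑' i : Q, ((2:ℝ≥0∞) ^ (τ i).1.1.k * N i) ^ p * volume (Msh_715.P (T.H i)) ≤
      2 ^ (p - 1) * (c ^ p * S D p (R.indicator (GGw w g)) + KC n p * ∑ l : Fin n, Ye D l p er) := by
  classical
  set Hl : Cel D → ℝ≥0∞ := fun σ => c * ic (GGw w g) D.a σ.1 + er σ with hHl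
  have key := cubes_inside (D := D) hp (tt := Hl) (e := er) (G := GGw w g) (c := c)
    (fun σ l hl => le_rfl) R
  refine le_trans ?_ key
  have h1 : ∑' i : Q, ((2:ℝ≥0∞) ^ (τ i).1.1.k * N i) ^ p * volume (Msh_715.P (T.H i)) ≤
      ∑' t : (τ '' Q : Set (Top D)), vol D t.1.1 * ((2:ℝ≥0∞) ^ t.1.1.1.k * tE D Hl t.1.1) ^ p := by
    refine h.tsum_le (A := fun t => vol D t.1 * ((2:ℝ≥0∞) ^ t.1.1.k * tE D Hl t.1) ^ p)
      (B := fun i => ((2:ℝ≥0∞) ^ (τ i).1.1.k * N i) ^ p * volume (Msh_715.P (T.H i)))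
      fun i hi => ?_
    rw [h.vol_eq hi, mul_comm]
    gcongr
    refine (hN i hi).trans (h.sum_le hi fun e σ hσ he => ?_)
    obtain ⟨l, hl⟩ := Finset.card_eq_one.1 hσ.2
    refine (hF e σ l hl he).trans ?_
    show _ ≤ c * ic (GGw w g) D.a σ.1 + er σ
    gcongr
    exact ic_mono (Hw_le_GGw w g l) _ _
  refine h1.trans ?_
  have hsub : ∀ t ∈ (τ '' Q : Set (Top D)), t.1.1.J = Finset.univ ∧ t.1.c ⊆ R := by
    rintro _ ⟨i, hi, rfl⟩
    refine ⟨(τ i).2, ?_⟩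
    rw [← h.P_eq hi]
    exact hR i hi
  have hinj : Function.Injective (fun t : (τ '' Q : Set (Top D)) =>
      (⟨t.1.1, hsub t.1 t.2⟩ : {τ : Cel D // τ.1.J = Finset.univ ∧ τ.c ⊆ R})) := by
    intro t t' htt
    exact Subtype.ext (Subtype.ext (congrArg (fun x => x.1) htt))
  exact ENNReal.tsum_comp_le_tsum_of_injective hinj
    (fun t : {τ : Cel D // τ.1.J = Finset.univ ∧ τ.c ⊆ R} =>
      vol D t.1 * ((2:ℝ≥0∞) ^ t.1.1.k * tE D Hl t.1) ^ p)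

/-- **errors on the edges of `T`**: positive, small energy on the base edges (exponents `p`, `1`) -/
theorem exists_err_T (T : Tiling Om ι) (D : Dat n) {p : ℝ} (hp : 1 ≤ p) {δ : ℝ≥0∞} (hδ : δ ≠ 0) :
    ∃ (err : Edg T → ℝ) (er : Cel D → ℝ), (∀ e, 0 < err e) ∧ (∀ σ, 0 < er σ) ∧
      (∀ (e : Edg T) (σ : Cel D), e.1 = σ.c → err e ≤ er σ) ∧
      (∀ l, Ye D l p (fun σ => ENNReal.ofReal (er σ)) ≤ δ) ∧
      ∀ l, Ye D l 1 (fun σ => ENNReal.ofReal (er σ)) ≤ δ := by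
  classical
  obtain ⟨e1, he1, -, h1⟩ := exists_err2 D hp hδ
  obtain ⟨e2, he2, -, h2⟩ := exists_err2 D (p := 1) le_rfl hδ
  set er : Cel D → ℝ := fun σ => min (e1 σ) (e2 σ) with her
  have her0 : ∀ σ, 0 < er σ := fun σ => lt_min (he1 σ) (he2 σ)
  refine ⟨fun e => if he : ∃ σ : Cel D, e.1 = σ.c then er he.choose else 1, er, ?_, her0, ?_, ?_, ?_⟩
  · intro e
    by_cases he : ∃ σ : Cel D, e.1 = σ.c
    · simp only [dif_pos he]; exact her0 _
    · simp only [dif_neg he]; exact one_pos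
  · intro e σ hσ
    have he : ∃ σ : Cel D, e.1 = σ.c := ⟨σ, hσ⟩
    simp only [dif_pos he]
    have h3 : he.choose = σ := Cel.c_injective (he.choose_spec.symm.trans hσ)
    rw [h3]
  · intro l
    refine le_trans ?_ h1
    unfold Ye
    refine le_trans (ENNReal.tsum_comp_le_tsum_of_injective Subtype.val_injective
      (fun σ : Cel D => vol D σ * ((2:ℝ≥0∞) ^ σ.1.k * ENNReal.ofReal (er σ)) ^ p)) ?_
    refine ENNReal.tsum_le_tsum fun σ => ?_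
    gcongr
    exact min_le_left _ _
  · intro l
    refine le_trans ?_ h2
    unfold Ye
    refine le_trans (ENNReal.tsum_comp_le_tsum_of_injective Subtype.val_injective
      (fun σ : Cel D => vol D σ * ((2:ℝ≥0∞) ^ σ.1.k * ENNReal.ofReal (er σ)) ^ (1:ℝ))) ?_
    refine ENNReal.tsum_le_tsum fun σ => ?_
    gcongr
    exact min_le_right _ _

end

end Crest.Agent.R096.Ps_273
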