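/-
helper273, row 96, NO0-PRE [P3] (582 #10220, #10709), part 7: numbers of the slices of the uniform
zone: sums over the block of squares are bounded by the energies of the mesh.
-/
import Mathlib
import Crest.Agent.R096.Ps5_273
import Crest.Agent.R096.Nsl1_552

set_option autoImplicit false

open MeasureTheory Set Filter
open scoped Topology ENNReal

namespace Crest.Agent.R096.Ps_273

open Crest.Agent.R096.Msh_810 Crest.Agent.R96.En3_199
  Crest.Agent.R96.En4_199 Crest.Agent.R96.En5_199 Crest.Agent.R96.En6_199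
  Crest.Agent.R96.En7_199 Crest.Agent.R96.En8_199 Crest.Agent.R96.En9_199
  Crest.Agent.R96.En11_199 Crest.Agent.R96.Sg1_199
open Crest.Agent.R096.Msh_715 hiding P I
open Crest.Agent.R096.Ls_222
open Crest.Agent.R096.No0_477 (cub fr)
open Crest.Agent.R096.SkN1_477 (side usq)
open Crest.Agent.R096.Gno_324 (vz cub_vx mem_side_fr mem_usq_fr)
open Crest.Agent.R096.SkC1_961 (E3)

noncomputable section

/-- the value of `Y` at the mesh cell with lower corner `(m, v)` and directions `J` -/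
def cellv (D : Dat 3) (k : ℕ) (o : Fin 2 → ℤ) (J : Finset (Fin 3)) (Y : Cel D → ℝ≥0∞) (m : ℤ)
    (v : Fin 2 → ℕ) : ℝ≥0∞ :=
  open Classical in if h : IsM D ⟨k, vz o m v, J⟩ then Y ⟨⟨k, vz o m v, J⟩, h⟩ else 0

theorem cellv_eq {D : Dat 3} {k : ℕ} {o : Fin 2 → ℤ} {J : Finset (Fin 3)} (Y : Cel D → ℝ≥0∞) {m : ℤ}
    {v : Fin 2 → ℕ} (h : IsM D ⟨k, vz o m v, J⟩) :
    cellv D k o J Y m v = Y ⟨⟨k, vz o m v, J⟩, h⟩ := by
  unfold cellv
  rw [dif_pos h]

theorem vz_inj {o : Fin 2 → ℤ} {m m' : ℤ} {v v' : Fin 2 → ℕ} (h : vz o m v = vz o m' v') :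
    m = m' ∧ v = v' := by
  have h0 := congrFun h 0
  have h1 := congrFun h 1
  have h2 := congrFun h 2
  simp only [vz, Matrix.cons_val_zero, Matrix.cons_val_one, Matrix.cons_val] at h0 h1 h2
  refine ⟨h2, ?_⟩
  funext i
  fin_cases i
  · show v 0 = v' 0
    omega
  · show v 1 = v' 1
    omega

/-- **sums over the block are bounded by the energy of the mesh** -/
theorem slice_le (D : Dat 3) (k : ℕ) (o : Fin 2 → ℤ) (J : Finset (Fin 3)) (G : Cel D → ℝ≥0∞)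
    (A : Finset ℤ) (B : Finset (Fin 2 → ℕ)) :
    ∑ m ∈ A, ∑ v ∈ B, cellv D k o J G m v ≤
      ((2:ℝ≥0∞) ^ k) ^ 3 * ∑' σ : {σ : Cel D // σ.1.J = J}, vol D σ.1 * G σ.1 := by
  classical
  rw [← Finset.sum_product']
  set s : Finset (ℤ × (Fin 2 → ℕ)) := (A ×ˢ B).filter fun q => IsM D ⟨k, vz o q.1 q.2, J⟩ with hs
  have h1 : ∑ q ∈ A ×ˢ B, cellv D k o J G q.1 q.2 = ∑ q ∈ s, cellv D k o J G q.1 q.2 := by
    rw [hs, Finset.sum_filter]
    refine Finset.sum_congr rfl fun q _ => ?_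
    split_ifs with h
    · rfl
    · unfold cellv; rw [dif_neg h]
  rw [h1, ← ENNReal.tsum_mul_left]
  have hM : ∀ q : {q // q ∈ s}, IsM D ⟨k, vz o q.1.1 q.1.2, J⟩ := fun q =>
    (Finset.mem_filter.1 q.2).2
  set φ : {q // q ∈ s} → {σ : Cel D // σ.1.J = J} := fun q =>
    ⟨⟨⟨k, vz o q.1.1 q.1.2, J⟩, hM q⟩, rfl⟩ with hφ
  have hinj : Function.Injective φ := by
    intro q q' h
    have h2 : (φ q).1.1.z = (φ q').1.1.z := by rw [h]
    obtain ⟨h3, h4⟩ := vz_inj h2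
    exact Subtype.ext (Prod.ext h3 h4)
  rw [← Finset.sum_coe_sort]
  have h5 : ∑ q : {q // q ∈ s}, cellv D k o J G q.1.1 q.1.2 =
      ∑' q : {q // q ∈ s}, ((2:ℝ≥0∞) ^ k) ^ 3 * (vol D (φ q).1 * G (φ q).1) := by
    rw [tsum_fintype]
    refine Finset.sum_congr rfl fun q _ => ?_
    rw [cellv_eq G (hM q), ← mul_assoc]
    have h6 : ((2:ℝ≥0∞) ^ k) ^ 3 * vol D (φ q).1 = 1 := by
      show ((2:ℝ≥0∞) ^ k) ^ 3 * (((2:ℝ≥0∞) ^ k)⁻¹) ^ 3 = 1
      rw [← mul_pow, ENNReal.mul_inv_cancel (by positivity) (ENNReal.pow_ne_top (by norm_num)),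
        one_pow]
    rw [h6, one_mul]
  rw [h5]
  exact ENNReal.tsum_comp_le_tsum_of_injective hinj
    (fun σ : {σ : Cel D // σ.1.J = J} => ((2:ℝ≥0∞) ^ k) ^ 3 * (vol D σ.1 * G σ.1))

/-- **edges of the block**, exponent `p` -/
theorem slice_edges (D : Dat 3) (k : ℕ) (o : Fin 2 → ℤ) (l : Fin 3) (p : ℝ) (Y : Cel D → ℝ≥0∞)
    (A : Finset ℤ) (B : Finset (Fin 2 → ℕ)) :
    ∑ m ∈ A, ∑ v ∈ B, cellv D k o {l} (fun σ => ((2:ℝ≥0∞) ^ σ.1.k * Y σ) ^ p) m v ≤
      ((2:ℝ≥0∞) ^ k) ^ 3 * Ye D l p Y :=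
  slice_le D k o {l} _ A B

/-- **cubes of the block**, exponent `p` -/
theorem slice_cubes (D : Dat 3) (k : ℕ) (o : Fin 2 → ℤ) {p : ℝ} (hp : 1 ≤ p) (Y : Cel D → ℝ≥0∞)
    (A : Finset ℤ) (B : Finset (Fin 2 → ℕ)) :
    ∑ m ∈ A, ∑ v ∈ B, cellv D k o Finset.univ (fun τ => ((2:ℝ≥0∞) ^ τ.1.k * tE D Y τ) ^ p) m v ≤
      ((2:ℝ≥0∞) ^ k) ^ 3 * (KC 3 p * ∑ l : Fin 3, Ye D l p Y) := by
  refine (slice_le D k o Finset.univ _ A B).trans ?_
  gcongr
  exact cubes_le hp Y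

/-- the block lies in the uniform zone of scale `k` -/
def Blk (D : Dat 3) (k : ℕ) (o : Fin 2 → ℤ) (M : ℕ) (A : Finset ℤ) : Prop :=
  ∀ m ∈ A, ∀ v : Fin 2 → ℕ, (∀ j, v j < M) →
    ∀ x ∈ cub (No0_477.vx D.a ((2:ℝ) ^ k)⁻¹ o m v) ((2:ℝ) ^ k)⁻¹, 0 < D.ρ x ∧ Msh_810.K D x = k

theorem ps_cub {a : E3} {k : ℕ} {o : Fin 2 → ℤ} {m : ℤ} {v : Fin 2 → ℕ} {x : E3} :
    x ∈ cub (No0_477.vx a ((2:ℝ) ^ k)⁻¹ o m v) ((2:ℝ) ^ k)⁻¹ ↔
      ∀ i, (vz o m v i : ℝ) ≤ ps a k x i ∧ ps a k x i ≤ vz o m v i + 1 := by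
  have h2 : (0:ℝ) < 2 ^ k := by positivity
  refine forall_congr' fun i => ?_
  rw [Gno_324.vx_eq]
  unfold ps
  constructor
  · rintro ⟨h1, h3⟩
    constructor
    · have h4 : ((2:ℝ) ^ k)⁻¹ * vz o m v i ≤ x i - a i := by linarith
      have h5 := mul_le_mul_of_nonneg_left h4 h2.le
      rwa [← mul_assoc, mul_inv_cancel₀ h2.ne', one_mul] at h5
    · have h4 : x i - a i ≤ ((2:ℝ) ^ k)⁻¹ * (vz o m v i + 1) := by linarith
      have h5 := mul_le_mul_of_nonneg_left h4 h2.le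
      rwa [← mul_assoc, mul_inv_cancel₀ h2.ne', one_mul] at h5
  · rintro ⟨h1, h3⟩
    have h1' := mul_le_mul_of_nonneg_left h1 (inv_nonneg.2 h2.le)
    have h3' := mul_le_mul_of_nonneg_left h3 (inv_nonneg.2 h2.le)
    rw [← mul_assoc, inv_mul_cancel₀ h2.ne', one_mul] at h1' h3'
    constructor <;> linarith

/-- the faces of the cubes of the block are mesh cells -/
theorem Blk.isM {D : Dat 3} {k : ℕ} {o : Fin 2 → ℤ} {M : ℕ} {A : Finset ℤ} (h : Blk D k o M A)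
    {m : ℤ} (hm : m ∈ A) {v : Fin 2 → ℕ} (hv : ∀ j, v j < M) {z : Fin 3 → ℤ} {J : Finset (Fin 3)}
    (hJ : ∀ i ∈ J, z i = vz o m v i) (hJ' : ∀ i ∉ J, z i = vz o m v i ∨ z i = vz o m v i + 1) :
    IsM D ⟨k, z, J⟩ := by
  classical
  have h2 : (0:ℝ) < 2 ^ k := by positivity
  set x : Fin 3 → ℝ := fun i => D.a i + ((2:ℝ) ^ k)⁻¹ * (z i + if i ∈ J then 1 / 2 else 0) with hx
  have hps : ∀ i, ps D.a k x i = z i + if i ∈ J then 1 / 2 else 0 := by
    intro i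
    simp only [ps, hx]
    rw [add_sub_cancel_left, ← mul_assoc, mul_inv_cancel₀ h2.ne', one_mul]
  have h3 := h m hm v hv x (ps_cub.2 fun i => by
    rw [hps]
    by_cases hi : i ∈ J
    · rw [if_pos hi, hJ i hi]
      constructor <;> linarith
    · rw [if_neg hi]
      rcases hJ' i hi with h4 | h4
      · rw [h4]; constructor <;> linarith
      · rw [h4]; push_cast; constructor <;> linarith)
  refine ⟨x, fun i => ⟨fun hi => ?_, fun hi => ?_⟩, h3.1, h3.2⟩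
  · show (z i : ℝ) < ps D.a k x i ∧ ps D.a k x i < z i + 1
    rw [hps, if_pos hi]; constructor <;> linarith
  · show ps D.a k x i = z i
    rw [hps, if_neg hi, add_zero]

/-- the sides of the squares as mesh cells -/
theorem side_eq {a : E3} {k : ℕ} {o : Fin 2 → ℤ} {m : ℤ} {v : Fin 2 → ℕ} {r : ℝ} (hr : r ≠ 0)
    (hrk : r = ((2:ℝ) ^ k)⁻¹) (j : Fin 2) (b : ℕ) :
    side (fr (No0_477.vx a r o m v) r hr) j b =
      Dc a ⟨k, vz o m (fun i => v i + if i = j then 0 else b), {j.castSucc}⟩ := by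
  have h2 : (0:ℝ) < 2 ^ k := by positivity
  have hr0 : 0 < r := by rw [hrk]; positivity
  have hrk' : (2:ℝ) ^ k * r = 1 := by rw [hrk]; exact mul_inv_cancel₀ h2.ne'
  have hrk2 : r * (2:ℝ) ^ k = 1 := by rw [mul_comm]; exact hrk'
  have key : ∀ (y : E3) (i : Fin 3) (t : ℝ), (a i + r * t ≤ y i ↔ t ≤ ps a k y i) ∧
      (y i ≤ a i + r * t ↔ ps a k y i ≤ t) ∧ (y i = a i + r * t ↔ ps a k y i = t) := by
    intro y i t
    have e1 : a i + r * t ≤ y i ↔ t ≤ ps a k y i := by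
      unfold ps
      constructor
      · intro h
        have h5 := mul_le_mul_of_nonneg_left (show r * t ≤ y i - a i by linarith) h2.le
        rwa [← mul_assoc, hrk', one_mul] at h5
      · intro h
        have h5 := mul_le_mul_of_nonneg_left h hr0.le
        rw [← mul_assoc, hrk2, one_mul] at h5
        linarith
    have e2 : y i ≤ a i + r * t ↔ ps a k y i ≤ t := by
      unfold ps
      constructor
      · intro h
        have h5 := mul_le_mul_of_nonneg_left (show y i - a i ≤ r * t by linarith) h2.le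
        rwa [← mul_assoc ((2:ℝ)^k) r, hrk', one_mul] at h5
      · intro h
        have h5 := mul_le_mul_of_nonneg_left h hr0.le
        rw [← mul_assoc, hrk2, one_mul] at h5
        linarith
    refine ⟨e1, e2, ?_⟩
    constructor
    · intro h
      exact le_antisymm (e2.1 h.le) (e1.1 h.ge)
    · intro h
      exact le_antisymm (e2.2 h.le) (e1.2 h.ge)
  ext y
  rw [mem_side_fr hr0 hr, Gno_324.vx_eq, Gno_324.vx_eq, Gno_324.vx_eq]
  have ea : ∀ (i : Fin 3) (c : ℝ), a i + r * (vz o m v i : ℝ) + c * r =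
      a i + r * (vz o m v i + c) := fun i c => by ring
  have eb : ∀ i : Fin 3, a i + r * (vz o m v i : ℝ) + r = a i + r * (vz o m v i + 1) := fun i => by
    ring
  rw [ea, eb, (key y _ _).1, (key y _ _).2.1, (key y _ _).2.2, (key y _ _).2.2]
  set v' : Fin 2 → ℕ := fun i => v i + if i = j then 0 else b with hv'
  have z1 : vz o m v' j.castSucc = vz o m v j.castSucc := by
    fin_cases j <;> simp [vz, hv']
  have z2 : (vz o m v' (1 - j).castSucc : ℝ) = vz o m v (1 - j).castSucc + b := by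
    fin_cases j
    · show ((vz o m v' 1 : ℤ) : ℝ) = (vz o m v 1 : ℤ) + b
      simp [vz, hv']; ring
    · show ((vz o m v' 0 : ℤ) : ℝ) = (vz o m v 0 : ℤ) + b
      simp [vz, hv']; ring
  have z3 : vz o m v' 2 = vz o m v 2 := by simp [vz]
  constructor
  · rintro ⟨h1, h3, h4, h5⟩ i
    show (i ∈ ({j.castSucc} : Finset (Fin 3)) → ((vz o m v' i : ℤ) : ℝ) ≤ ps a k y i ∧
      ps a k y i ≤ (vz o m v' i : ℤ) + 1) ∧
      (i ∉ ({j.castSucc} : Finset (Fin 3)) → ps a k y i = (vz o m v' i : ℤ))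
    rw [Finset.mem_singleton]
    constructor
    · rintro rfl
      rw [z1]; exact ⟨h1, h3⟩
    · intro hi
      rcases Gno_324.fin_d j i hi with rfl | rfl
      · rw [h4, z2]
      · rw [h5, z3]
  · intro h
    have g1 := (h j.castSucc).1 (Finset.mem_singleton_self _)
    have g2 := (h (1 - j).castSucc).2 (by
      rw [Finset.mem_singleton]; exact fun h => Gno_324.fin_a j h.symm)
    have g3 := (h 2).2 (by rw [Finset.mem_singleton]; exact Gno_324.fin_c j)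
    simp only at g1 g2 g3
    rw [z1] at g1
    rw [z2] at g2
    rw [z3] at g3
    exact ⟨g1.1, g1.2, g2, g3⟩

end

end Crest.Agent.R096.Ps_273
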