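import Crest.Agent.R096.Bmd1_798
import Crest.Agent.R096.Gno5_324
import Crest.Agent.R096.Ps7_273

/-!
Row 96 (S0127), helper798.  NO0-PRE3, [B1] of 962 #11186, part 2: (f) uniform squares with
`Ex := Qrᶜ`, the block `Blk`.

* `mem_Qr_of_far` : a tile through a point of exact scale `K0` at distance `> 4 / 2^K0` from all blocks is in `Qr`
* `Ug_Qr`, `bad_Qr` : 324's `Ug_md`, `bad_md` with `Ex := Qrᶜ`
* `blk_of` : 273's `Blk` for the outer size function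
-/

set_option autoImplicit false
set_option linter.style.longLine false
set_option linter.unusedSectionVars false

open MeasureTheory Set Filter Topology Metric
open scoped ENNReal

namespace Crest.Agent.R096.Bmd_798

open Crest.Agent.R096.Msh_715 Crest.Agent.R096.Cut_874 Crest.Agent.R096.Msh_810
  Crest.Agent.R096.Mal_874

section far

variable {n : ℕ} [NeZero n] {J : Type*} {M : MD (Fin n → ℝ) n J} {k : J → ℕ} {hk : M.Sc k}
  {a : Fin n → ℝ} {v : J → Fin n → ℝ} {hv : M.Adm v}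

/-- a parent cube through a point of exact scale `K0` -/
theorem par_k (hφ : ∀ x, M.φ x = x) {K0 : ℕ} {x : Fin n → ℝ}
    (hK : ∀ᶠ y in 𝓝 x, K (outD M.D0 k M.W a) y = K0) {p : M.OIx hk a hv}
    (hx : x ∈ P ((M.mesh hk a hv).H (Sum.inl p))) : p.1.par.1.1.k = K0 :=
  tile_k_eq (φ := M.φ) (D := outD M.D0 k M.W a) (x := x) (sub_par p hx) (by rw [hφ]; exact hK)

/-- **tiles far from the blocks are in `Qr`** -/
theorem mem_Qr_of_far (hφ : ∀ x, M.φ x = x) {K0 : ℕ} {x : Fin n → ℝ}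
    (hK : ∀ᶠ y in 𝓝 x, K (outD M.D0 k M.W a) y = K0)
    (hN : ∀ j, ∀ y ∈ (M.Bk v j).N, 4 / 2 ^ K0 < dist x y) {i : TI M hk a hv}
    (hi : x ∈ P ((M.mesh hk a hv).H i)) : i ∈ Qr M hk a hv := by
  have h0 : (0 : ℝ) < 1 / 2 ^ K0 := by positivity
  have e4 : (4 : ℝ) / 2 ^ K0 = 4 * (1 / 2 ^ K0) := by ring
  rcases i with p | ⟨j, q⟩
  · have hkp := par_k hφ hK hi
    rw [inl_mem_Qr]
    rintro τ ⟨y, hy1, hy2⟩ j
    rw [Set.disjoint_left]
    intro z hz1 hz2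
    have hzN : z ∈ (M.Bk v j).N := (M.Bk v j).frontier_sub hz2
    have h1 := hN j z hzN
    have hx' := (AD.tile_T0 (M := M.ad hk a hv) _).1 (sub_par p hi)
    have hy' := (AD.tile_T0 (M := M.ad hk a hv) _).1 hy2
    have hy'' := (AD.tile_T0 (M := M.ad hk a hv) _).1 hy1
    have hz' := (AD.tile_T0 (M := M.ad hk a hv) _).1 hz1
    have h2 : dist x y ≤ 1 / 2 ^ K0 := by
      have := dist_cube hx' hy'
      rw [hkp] at this
      change dist (M.φ x) (M.φ y) ≤ _ at this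
      rwa [hφ, hφ] at this
    have h3 : dist y z ≤ 2 * (1 / 2 ^ K0) := by
      have h4 := dist_cube hy'' hz'
      change dist (M.φ y) (M.φ z) ≤ _ at h4
      rw [hφ, hφ] at h4
      refine h4.trans ?_
      have hk1 : K0 ≤ τ.1.1.k + 1 := by
        have h5 : p.1.par ∈ (tiling M.φ (outD M.D0 k M.W a)).at_ y := hy2
        have h6 : τ ∈ (tiling M.φ (outD M.D0 k M.W a)).at_ y := hy1
        rw [← hkp]
        exact (tile_k_le h5).trans (K_le_succ (mem_at.1 h6))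
      have hp : (2 : ℝ) ^ K0 ≤ 2 ^ (τ.1.1.k + 1) := pow_le_pow_right₀ (by norm_num) hk1
      rw [mul_one_div, div_le_div_iff₀ (by positivity) (by positivity), one_mul]
      rw [pow_succ] at hp
      linarith
    have h7 := dist_triangle x y z
    rw [e4] at h1
    linarith
  · exfalso
    have hx : x ∈ (M.Bk v j).N := q.2 hi
    have h1 := hN j x hx
    rw [dist_self, e4] at h1
    linarith

end far

noncomputable section

open Crest.Agent.R096.SkC1_961 (E3)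
open Crest.Agent.R096.No0_477 Crest.Agent.R096.Gno_324

variable {J : Type} {M : MD E3 3 J} {k : J → ℕ} {hk : M.Sc k} {a : Fin 3 → ℝ} {v : J → E3}
  {hv : M.Adm v}

/-- **(f) uniform squares**: all tiles which touch the cube are in `Qr` -/
theorem Ug_Qr (hφ : ∀ x, M.φ x = x) {K0 : ℕ} {r : ℝ} (hr : r = 1 / 2 ^ K0) {o : Fin 2 → ℤ} {m : ℤ}
    {w : Fin 2 → ℕ} (hOm : cub (vx a r o m w) r ⊆ M.D0.Om)
    (hK : ∀ x ∈ cub (vx a r o m w) r, ∀ᶠ y in 𝓝 x, K (outD M.D0 k M.W a) y = K0)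
    (hN : ∀ x ∈ cub (vx a r o m w) r, ∀ j, ∀ y ∈ (M.Bk v j).N, 4 * r < dist x y) :
    Ug (M.mesh hk a hv) (Qr M hk a hv)ᶜ a r o m w := by
  refine ⟨fun x hx => ?_, fun x hx i hi => ?_⟩
  · rw [mem_preimage, hφ]
    exact hOm hx
  · have h1 : i ∈ Qr M hk a hv := by
      refine mem_Qr_of_far hφ (hK x hx) (fun j y hy => ?_) hi
      have := hN x hx j y hy
      rw [hr] at this
      have e : (4 : ℝ) / 2 ^ K0 = 4 * (1 / 2 ^ K0) := by ring
      rw [e]; exact this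
    refine ⟨fun h => h h1, ?_⟩
    obtain ⟨p, rfl, h2⟩ := h1
    have hkp := par_k hφ (hK x hx) hi
    refine ⟨p.1.par.1.1.z, ?_⟩
    ext y
    rw [H_of_Qr h2, ← Cu_eq_lcub hr]
    have h3 := AD.tile_T0 (M := M.ad hk a hv) p.1.par (x := y)
    rw [hkp] at h3
    change y ∈ P ((tiling M.φ (outD M.D0 k M.W a)).H p.1.par) ↔ M.φ y ∈ _ at h3
    rw [hφ] at h3
    exact h3

/-- the name of the domain does not matter -/
theorem Ug_reOm {Om : Set E3} (h : M.φ ⁻¹' M.D0.Om = Om) {Ex : Set (TI M hk a hv)} {r : ℝ}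
    {o : Fin 2 → ℤ} {m : ℤ} {w : Fin 2 → ℕ} :
    Ug (reOm (M.mesh hk a hv) h) Ex a r o m w ↔ Ug (M.mesh hk a hv) Ex a r o m w := by
  subst h
  exact Iff.rfl

open scoped Classical in
/-- **(f) the number of the other squares**: `S` contains all blocks at distance `≤ 4 r` from the squares -/
theorem bad_Qr (hφ : ∀ x, M.φ x = x) {K0 : ℕ} {r : ℝ} (hr : r = 1 / 2 ^ K0) {o : Fin 2 → ℤ}
    {Mm : ℕ} {Zs : Finset ℤ} {B : Set E3}
    (hB : ∀ m ∈ Zs, ∀ w : Fin 2 → ℕ, (∀ j, w j < Mm) → cub (vx a r o m w) r ⊆ B)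
    (hOm : B ⊆ M.D0.Om) (hK : ∀ x ∈ B, ∀ᶠ y in 𝓝 x, K (outD M.D0 k M.W a) y = K0)
    (S : Finset J) (hS : ∀ j, j ∉ S → ∀ y ∈ (M.Bk v j).N, ∀ x ∈ B, 4 * r < dist x y) {L : ℕ}
    (hL : 1 ≤ L) {N0 ε : ℝ} (hN : 2 / L ≤ N0 * r ^ 3) (hε : 0 ≤ ε)
    (hvol : ∑ j ∈ S, volume (cthickening (5 * r) (M.Q j).N) ≤ ENNReal.ofReal (2 * ε / L)) :
    (((Fc Mm Zs).filter fun q =>
      ¬ Ug (M.mesh hk a hv) (Qr M hk a hv)ᶜ a r o q.1 q.2).card : ℝ) ≤ ε * N0 := by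
  have hr0 : 0 < r := by rw [hr]; positivity
  refine count_real a hr0 o _ (⋃ j ∈ S, cthickening (5 * r) (M.Bk v j).N) (fun q hq => ?_) hL hN
    hε ?_
  · obtain ⟨hq1, hq2⟩ := Finset.mem_filter.1 hq
    have hq3 : q.1 ∈ Zs ∧ ∀ j, q.2 j < Mm := by
      unfold Fc at hq1
      rw [Finset.mem_product, Fintype.mem_piFinset] at hq1
      exact ⟨hq1.1, fun j => Finset.mem_range.1 (hq1.2 j)⟩
    have hsub := hB q.1 hq3.1 q.2 hq3.2
    by_contra hcon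
    refine hq2 (Ug_Qr hφ hr (hsub.trans hOm) (fun x hx => hK x (hsub hx)) ?_)
    intro x hx j y hy
    by_contra hlt
    push Not at hlt
    have hj : j ∈ S := by
      by_contra hj
      have := hS j hj y hy x (hsub hx)
      linarith
    refine hcon fun x' hx' => Set.mem_biUnion hj
      (closedBall_subset_cthickening hy (5 * r) ?_)
    rw [cub_vx] at hx hx'
    have h1 := dist_le_of_mem_lcub hr0.le hx' hx
    rw [mem_closedBall]
    have h2 := dist_triangle x' x y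
    linarith
  · refine (measure_biUnion_finset_le _ _).trans (le_trans (le_of_eq ?_) hvol)
    exact Finset.sum_congr rfl fun j _ => vol_thick_tr (M.Q j) (v j) (5 * r)

open scoped Classical in
/-- the same for the renamed domain -/
theorem bad_Qr_reOm (hφ : ∀ x, M.φ x = x) {Om : Set E3} (h : M.φ ⁻¹' M.D0.Om = Om) {K0 : ℕ} {r : ℝ}
    (hr : r = 1 / 2 ^ K0) {o : Fin 2 → ℤ} {Mm : ℕ} {Zs : Finset ℤ} {B : Set E3}
    (hB : ∀ m ∈ Zs, ∀ w : Fin 2 → ℕ, (∀ j, w j < Mm) → cub (vx a r o m w) r ⊆ B)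
    (hOm : B ⊆ M.D0.Om) (hK : ∀ x ∈ B, ∀ᶠ y in 𝓝 x, K (outD M.D0 k M.W a) y = K0)
    (S : Finset J) (hS : ∀ j, j ∉ S → ∀ y ∈ (M.Bk v j).N, ∀ x ∈ B, 4 * r < dist x y) {L : ℕ}
    (hL : 1 ≤ L) {N0 ε : ℝ} (hN : 2 / L ≤ N0 * r ^ 3) (hε : 0 ≤ ε)
    (hvol : ∑ j ∈ S, volume (cthickening (5 * r) (M.Q j).N) ≤ ENNReal.ofReal (2 * ε / L)) :
    (((Fc Mm Zs).filter fun q =>
      ¬ Ug (reOm (M.mesh hk a hv) h) (Qr M hk a hv)ᶜ a r o q.1 q.2).card : ℝ) ≤ ε * N0 := by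
  subst h
  exact bad_Qr hφ hr hB hOm hK S hS hL hN hε hvol

/-- **the block of exact scale** -/
theorem blk_of {K0 : ℕ} {r : ℝ} (hr : r = ((2 : ℝ) ^ K0)⁻¹) {o : Fin 2 → ℤ} {Mm : ℕ} {Zs : Finset ℤ}
    {B : Set E3} (hB : ∀ m ∈ Zs, ∀ w : Fin 2 → ℕ, (∀ j, w j < Mm) → cub (vx a r o m w) r ⊆ B)
    (hOm : B ⊆ M.D0.Om) (hK : ∀ x ∈ B, K (outD M.D0 k M.W a) x = K0) :
    Crest.Agent.R096.Ps_273.Blk (outD M.D0 k M.W a) K0 o Mm Zs := by
  intro m hm w hw x hx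
  rw [← hr] at hx
  have h1 : x ∈ B := hB m hm w hw hx
  refine ⟨?_, hK x h1⟩
  have h2 : x ∈ (outD M.D0 k M.W a).Om := by rw [M.outD_Om_eq a]; exact hOm h1
  exact h2

end

end Crest.Agent.R096.Bmd_798
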