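import Crest.Agent.R096.Mdd4_360
import Crest.Agent.R096.Mfa2_880

/-!
Row 96 (S0127), helper360.  MD-DATA, part 5: `Cores` and `Fine` for the decoration of 880's `famMD`
(blocks indexed by `X`), all bricks exact (`X = univ`).

* `decoX A lam m` : the decoration;
* `fineS_X` : a tile of `M.mesh` which is no core is fine (blocks indexed by `X`, every brick in `X`);
* **`cf_X`** : `Cores` and `Fine` for `(decoX ..).mkX X (M.mesh ..) ..`.
-/

set_option autoImplicit false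
set_option linter.style.longLine false
set_option linter.unusedSectionVars false

open MeasureTheory Set Filter Topology Metric

namespace Crest.Agent.R096.Mdd_360

open Crest.Agent.R096.Bsp_628 Crest.Agent.R096.Brk5_582 Crest.Agent.R096.Brk1_582
open Crest.Agent.R096.Brk2_582 Crest.Agent.R096.Brk3_582
open Crest.Agent.R096.SkC1_961 (E3 FoamD Hom3)
open Crest.Agent.R096.EaX_766 (cbx RatA)
open Crest.Agent.R096.Bxs_627 (ctr CoriE fD)
open Crest.Agent.R096.Mal_874 Crest.Agent.R096.Msh_810 Crest.Agent.R096.Msh_715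
open Crest.Agent.R096.Fns_360 Crest.Agent.R096.Mfa_880

noncomputable section

open Classical in
/-- the decoration of the exact cores: the map of the core translated with the block, `m` = subdivision
number -/
def decoX {F : Set (Bx (Fin 3))} {X : Set F} (A : F → E3 ≃ᵃ[ℝ] E3) (lam : F → ℝ) (m : F → ℕ) (a : E3)
    (w : X → E3) : Deco F where
  A c := if h : c ∈ X then trA (A c) (a + w ⟨c, h⟩) else A c
  lam := lam
  z c := Bxs_627.zz c.1 (lam c)
  θ _ x := x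
  φ _ _ := 0
  M := m

theorem decoX_A {F : Set (Bx (Fin 3))} {X : Set F} (A : F → E3 ≃ᵃ[ℝ] E3) (lam : F → ℝ) (m : F → ℕ)
    (a : E3) (w : X → E3) {c : F} (h : c ∈ X) :
    (decoX A lam m a w).A c = trA (A c) (a + w ⟨c, h⟩) := dif_pos h

variable {La Om : Set E3} {f : E3 → E3} {F : Set (Bx (Fin 3))} {δ κ0 R c0 : ℝ} {X : Set F}

/-- **all bricks exact, blocks indexed by `X`: `Cores` and `Fine` for every admissible mesh.** -/
theorem cf_X (hX : ∀ c, c ∈ X) (hLa : IsOpen La) (hδ : 0 < δ) (hR : 0 < R) (bf : BoxFoam La F δ κ0)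
    (cmp : Cmp F R)
    (hκ0 : 1 ≤ κ0) (hc : 0 < c0) (hc2 : c0 * κ0 ≤ 1) (lam : F → ℝ) (hl : ∀ c, c0 ≤ lam c)
    (hl1 : ∀ c, lam c < 1) {κ1 κ2 τ η ε : ℝ} (hκ1 : 0 ≤ κ1) (hτ : 0 < τ) (hτ2 : τ ≤ κ2)
    (h2 : κ2 ≤ 1 / 4) (hκ8 : (κ1 + τ) * κ0 ≤ 1 / 8) (hκ12 : (κ1 + τ) * κ0 ≤ κ2 - τ)
    (hlκ : ∀ c, (1 / 2 + κ2) * lam c + κ1 * κ0 * lam c < 1 / 2)
    {A : F → E3 ≃ᵃ[ℝ] E3} (hcor : ∀ c, CoriE Om f (A c) c.1 (lam c) κ1 κ2)
    (M : MD E3 3 X) (hφ : M.φ = ContinuousLinearEquiv.refl ℝ E3) (hOmM : M.φ ⁻¹' M.D0.Om = Om)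
    (hK : ∀ c : X, (M.Q c).Kc = A c ⁻¹' cbx c.1.1 (lam c))
    (hroom : ∀ c : X, cthickening (M.r c) (M.Q c).N ⊆ A c ⁻¹' cbx c.1.1 ((1 + 2 * κ2) * lam c))
    (hsm : ∀ (c : X) (v : E3), ‖v‖ ≤ M.r c → ‖(A c).linear v‖ ≤ τ * (lam c * c.1.1.sz) ∧
        ∀ k, |(A c).linear v k| ≤ τ * (lam c * c.1.1.side k)) (Y : RD M)
    {uA : X → ℝ} (huA0 : ∀ c, 0 ≤ uA c)
    (huA : ∀ (c : X), ∀ x y, ‖A c y - A c x‖ ≤ uA c * dist ((M.Q c).ψ x) ((M.Q c).ψ y))
    (hη : ∀ c : X, uA c * (Y.R c / 2 ^ (M.Q c).kc) ≤ η * c.1.1.sz)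
    (hε : KI δ κ0 R c0 * (η + 2 * (κ1 + τ)) ≤ ε)
    (hF : ∀ x ∈ Om, FineS (fD bf cmp hκ0 hc hc2 lam hl hl1) f ε
      (closedBall x (M.D0.ρ x) ∩ (Om ∩ offO f (O34 lam))))
    {k : X → ℕ} (hk : M.Sc k) (m : F → ℕ) (a : E3) {w : X → E3} (hv : M.Adm fun j => a + w j)
    (i0 : M.OIx hk (M.φ a) hv ⊕ Σ j, M.IIx hk (M.φ a) hv j) :
    Mbf_337.Cores (fD bf cmp hκ0 hc hc2 lam hl hl1) (M.mesh hk (M.φ a) hv) f (κ1 + τ) (κ2 - τ) univ
      ((decoX A lam m a w).mkX X (M.mesh hk (M.φ a) hv) i0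
        fun c => Sum.inr ⟨c, M.core hk (M.φ a) hv c⟩).J0
      ((decoX A lam m a w).mkX X (M.mesh hk (M.φ a) hv) i0
        fun c => Sum.inr ⟨c, M.core hk (M.φ a) hv c⟩).J
      ((decoX A lam m a w).mkX X (M.mesh hk (M.φ a) hv) i0
        fun c => Sum.inr ⟨c, M.core hk (M.φ a) hv c⟩).V
      ((decoX A lam m a w).mkX X (M.mesh hk (M.φ a) hv) i0
        fun c => Sum.inr ⟨c, M.core hk (M.φ a) hv c⟩).ct
      (decoX A lam m a w).A (decoX A lam m a w).lam (decoX A lam m a w).z (decoX A lam m a w).θ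
      (decoX A lam m a w).φ ∧
    Mbf_337.Fine (fD bf cmp hκ0 hc hc2 lam hl hl1) (M.mesh hk (M.φ a) hv) f ε
      ((decoX A lam m a w).mkX X (M.mesh hk (M.φ a) hv) i0
        fun c => Sum.inr ⟨c, M.core hk (M.φ a) hv c⟩).J0 := by
  set T := M.mesh hk (M.φ a) hv with hT
  set ct : F → M.OIx hk (M.φ a) hv ⊕ Σ j, M.IIx hk (M.φ a) hv j :=
    fun c => Sum.inr ⟨⟨c, hX c⟩, M.core hk (M.φ a) hv ⟨c, hX c⟩⟩ with hct
  set D := (decoX A lam m a w).mkX X T i0 fun c => Sum.inr ⟨c, M.core hk (M.φ a) hv c⟩ with hD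
  have eJ0 : D.J0 = fun c => {ct c} := by
    funext c
    exact Set.ext fun i => ⟨fun ⟨_, e⟩ => e, fun e => ⟨hX c, e⟩⟩
  have eJ : D.J = fun c => {ct c} := eJ0
  have eV : D.V = fun c => {ct c} := eJ0
  have ect : D.ct = ct := by
    funext c
    exact Deco.mkX_ct (hX c)
  have eA : (decoX A lam m a w).A = fun c => trA (A c) (a + w ⟨c, hX c⟩) := by
    funext c
    exact decoX_A A lam m a w (hX c)
  have hct_inj : Function.Injective ct := by
    intro c c' h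
    have h1 := Sum.inr.inj h
    rw [Sigma.mk.injEq] at h1
    exact congrArg Subtype.val h1.1
  have hlc : ∀ c, 0 < lam c := fun c => hc.trans_le (hl c)
  have hv' : ∀ c : X, ‖a + w c‖ ≤ M.r c := by
    intro c
    have h1 := hv c
    rw [hφ] at h1
    exact h1
  have hcor' : ∀ c, CoriE (M.φ ⁻¹' M.D0.Om) f (trA (A c) (a + w ⟨c, hX c⟩)) c.1 (lam c) (κ1 + τ)
      (κ2 - τ) := by
    intro c
    rw [hOmM]
    exact cor_tr (hcor c) (hsm ⟨c, hX c⟩ _ (hv' ⟨c, hX c⟩))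
  have htile : ∀ c, P (T.H (ct c)) = trA (A c) (a + w ⟨c, hX c⟩) ⁻¹' cbx c.1 (lam c) := by
    intro c
    exact P_core_tr M hk (M.φ a) hv (j := ⟨c, hX c⟩) (hK ⟨c, hX c⟩)
  rw [eJ0, eJ, eV, ect, eA]
  refine ⟨Bxs_627.coresM bf cmp hκ0 hc hc2 lam hl hl1 (κ2' := κ2 - τ) (by linarith) (by linarith)
    (by linarith) (by linarith) hκ12 hκ12 hct_inj (fun c => ?_) hcor' htile, ?_⟩
  · have h1 := hlκ c
    have h3 : 0 ≤ κ1 * κ0 * lam c := by
      have := hlc c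
      positivity
    have h4 : 0 ≤ τ * lam c := mul_nonneg hτ.le (hlc c).le
    nlinarith
  refine mbf_fine fun t ht => ?_
  rcases t with p | ⟨c, i⟩
  · refine (fineS_outer M hk (M.φ a) hv (Φ := fD bf cmp hκ0 hc hc2 lam hl hl1) (f := f) (ε := ε)
      (Y := (M.φ ⁻¹' M.D0.Om) ∩ offO f (O34 lam)) (ρ := M.D0.ρ) (fun _ => le_rfl) ?_ p).mono
      fun x hx => ⟨hx, ?_⟩
    · intro x hx
      have hxO : x ∈ Om := by
        rw [← hOmM]
        exact hx
      have h1 := hF x hxO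
      rw [hOmM, hφ]
      exact h1
    · exact tile_off bf lam hlc (by linarith) hκ8 hcor' htile (fun c h => ht c h) hx
  · have hi : i ≠ M.core hk (M.φ a) hv c := by
      rintro rfl
      exact ht c.1 rfl
    refine fineS_innerM M hk (M.φ a) hv hLa hδ hR (Φ := fD bf cmp hκ0 hc hc2 lam hl hl1) Y
      (hcore_fD bf cmp hκ0 hc hc2 lam hl hl1 c.1) (fun x => trA (A c) (a + w c) x)
      (κw := κ1 + τ) (η := η) (fun x hx hx' => ?_) (huA0 c) (fun x y => ?_) (hη c) hε i hi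
    · have hxN : x - (a + w c) ∈ (M.Q c).N := ((M.Q c).mem_N_tr (a + w c) x).1 hx
      have hxt : x ∈ cthickening (M.r c) (M.Q c).N := by
        refine mem_cthickening_of_dist_le x (x - (a + w c)) _ _ hxN ?_
        rw [dist_eq_norm, sub_sub_cancel]
        exact hv' c
      have hxA := hroom c hxt
      obtain ⟨hxO, h5⟩ := img_open (bf.pos _ c.1.2) (bf.asp _ c.1.2) (hlc c) hκ1 (hlκ c) (hcor c) hxA
      have hset : f x ∈ c.1.1.set := Bx.mem_set.2 fun i => ⟨(h5 i).1.le, (h5 i).2.le⟩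
      refine ⟨⟨hset, half_le_tt (bf.pos _ c.1.2) (hlc c) ?_⟩, ?_⟩
      · refine off_core (bf.pos _ c.1.2) (bf.asp _ c.1.2) (hlc c) (by linarith) hκ8 (hcor' c.1)
          (by rw [hOmM]; exact hxO) ?_
        have h6 := htile c.1
        have h7 : P (T.H (ct c.1)) = (M.Bk (fun j => a + w j) c).Kc := M.P_core hk (M.φ a) hv c
        rw [← h6, h7]
        exact hx'
      · have h6 := (hcor c x (Or.inr fun i => (hxA i).trans (le_of_eq (by ring)))).2
        have h7 := (hsm c (a + w c) (hv' c)).1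
        have e : f x - trA (A c) (a + w c) x = (f x - A c x) + (A c).linear (a + w c) := by
          rw [← trA_sub (A c) (a + w c) x]; abel
        rw [e]
        refine (norm_add_le _ _).trans ?_
        have hs := Bx.sz_pos (bf.pos _ c.1.2)
        have h8 : lam c * c.1.1.sz ≤ c.1.1.sz := by nlinarith [hl1 c]
        have h9 : (κ1 + τ) * (lam c * c.1.1.sz) ≤ (κ1 + τ) * c.1.1.sz :=
          mul_le_mul_of_nonneg_left h8 (by linarith)
        linarith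
    · have h1 := huA c (x - (a + w c)) (y - (a + w c))
      rw [trA_apply, trA_apply]
      refine h1.trans (le_of_eq ?_)
      rw [map_sub, map_sub, dist_sub_right]

end

end Crest.Agent.R096.Mdd_360
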