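import Crest.Agent.R096.Ls5_222
import Crest.Agent.R96.Sg5_199
import Crest.Agent.R96.En10_199

/-!
Row 96 (S0127), helper764, EA-ASM leaf [DER]: **weak derivatives of the level functions**
`us Φ f c x = Φ.lev c (f x) = s_c (Psi (f x))` off the holes, and the pointwise bound
`Σ'_c 2 sz(c) |∂_l (us Φ f c)| ≤ CD(δ, R) |∂_l (Psi ∘ f)|`.
-/

set_option autoImplicit false
set_option linter.style.longLine false
set_option linter.unusedSectionVars false

open MeasureTheory Set Filter Topology Metric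
open scoped ENNReal NNReal

namespace Crest.Agent.R096.Der_764

open Crest.Agent.R096.Bsp_628 Crest.Agent.R096.Brk1_582 Crest.Agent.R096.Brk3_582
open Crest.Agent.R096.Brk4_582 Crest.Agent.R096.Brk5_582
open Crest.Agent.R096.SkC1_961 Crest.Agent.R096.Ls_222
open Crest.Agent.R96.Acl_392 Crest.Agent.R96.Sob2_199 Crest.Agent.R96.Sob3_199
open Crest.Agent.R96.Sob4_199 Crest.Agent.R96.Sob5_199
open Crest.Agent.R96.En9_199 Crest.Agent.R96.En10_199 Crest.Agent.R96.Sg5_199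

noncomputable section

/-! ### the pointwise Lipschitz constant of one coordinate -/

section lip

variable {κ : Type*} [Fintype κ] [Nonempty κ] {La : Set (κ → ℝ)} {F : Set (Bx κ)} {δ κ0 : ℝ}

/-- on a cell which does not touch `c` the coordinate of `c` is `1` -/
theorem sc_eq_one_of_not_touch (BF : BoxFoam La F δ κ0) (hLa : IsOpen La) {c c' : F}
    (h : ¬ (Pc F c' ∩ Pc F c).Nonempty) {y : κ → ℝ} (hy : y ∈ Pc F c') :
    sc (Pc F) (bc (F := F)) y c = 1 := by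
  have FF := Brk3_582.foam BF hLa
  have hyL : y ∈ La := FF.sub c' hy
  by_contra hne
  have hlt : sc (Pc F) (bc (F := F)) y c < 1 := lt_of_le_of_ne (FF.sc_le_one hyL c) hne
  obtain ⟨q, hq⟩ := FF.sc_lt_one_fc hyL
  rw [mem_fc] at hq
  have h0 : sc (Pc F) (bc (F := F)) y c' = 0 := (FF.sc_eq_zero hyL).2 hy
  exact h ⟨q, hq c' (by show sc (Pc F) (bc (F := F)) y c' < 1; rw [h0]; exact one_pos), hq c hlt⟩

/-- **the coordinate of `c` is `R * Cs / sz c`-Lipschitz near every point** -/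
theorem lip_near (BF : BoxFoam La F δ κ0) (hLa : IsOpen La) (hδ : 0 < δ) {R : ℝ} (hR : 0 < R)
    (hcmp : Cmp F R) {y : κ → ℝ} (hy : y ∈ La) :
    ∃ ρ > 0, ball y ρ ⊆ La ∧ ∀ c : F, ∀ x ∈ ball y ρ, ∀ x' ∈ ball y ρ,
      |sc (Pc F) (bc (F := F)) x c - sc (Pc F) (bc (F := F)) x' c| ≤
        R * Cs (Fintype.card κ) δ R / c.1.sz * ‖x - x'‖ := by
  have FF := Brk3_582.foam BF hLa
  obtain ⟨r, hr, hfin⟩ := FF.lf y hy
  obtain ⟨r', hr', hball⟩ := Metric.isOpen_iff.1 hLa y hy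
  have hρ0 : 0 < min r r' := lt_min hr hr'
  have hsub : ball y (min r r') ⊆ La := (ball_subset_ball (min_le_right _ _)).trans hball
  refine ⟨min r r', hρ0, hsub, fun c x hx x' hx' => ?_⟩
  have hC := Cs_nonneg (n := Fintype.card κ) hδ hR
  have hsz : 0 < c.1.sz := Bx.sz_pos (BF.pos _ c.2)
  refine lip_of_cover (convex_ball y (min r r')) hfin (C := fun c => Pc F c)
    (fun c _ => isClosed_Icc) ?_ (f := fun x => sc (Pc F) (bc (F := F)) x c)
    (fun c0 hc0 p hp q hq => ?_) x hx x' hx'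
  · intro p hp
    obtain ⟨c', hc'⟩ := FF.cov p (hsub hp)
    exact mem_iUnion₂.2 ⟨c', ⟨p, hc', ball_subset_ball (min_le_left _ _) hp⟩, hc'⟩
  · by_cases ht : (Pc F c0 ∩ Pc F c).Nonempty
    · refine (lip_cell BF hLa hδ hR hcmp c0 p hp q hq c).trans ?_
      refine mul_le_mul_of_nonneg_right ?_ (norm_nonneg _)
      have hsz0 : 0 < c0.1.sz := Bx.sz_pos (BF.pos _ c0.2)
      have h1 : c.1.sz ≤ R * c0.1.sz := hcmp c c0 (by rwa [inter_comm])
      rw [div_le_div_iff₀ hsz0 hsz]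
      calc Cs (Fintype.card κ) δ R * c.1.sz ≤ Cs (Fintype.card κ) δ R * (R * c0.1.sz) :=
            mul_le_mul_of_nonneg_left h1 hC
        _ = R * Cs (Fintype.card κ) δ R * c0.1.sz := by ring
    · show |sc (Pc F) (bc (F := F)) p c - sc (Pc F) (bc (F := F)) q c| ≤ _
      rw [sc_eq_one_of_not_touch BF hLa ht hp, sc_eq_one_of_not_touch BF hLa ht hq, sub_self,
        abs_zero]
      positivity

end lip

/-! ### the domain off the holes -/

section foam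

variable {δ κ0 R c0 : ℝ} {La Om : Set E3} (Φ : FoamD δ κ0 R c0 La) (f : E3 → E3)

/-- the hole is in the interior of the brick -/
theorem hole_sub {c : Φ.F} {y : E3} (hy : y ∈ (Φ.B c).S) : ∀ i, c.1.lo i < y i ∧ y i < c.1.hi i := by
  intro i
  rcases Φ.push c with ⟨P, κ, ρ, hS, -⟩ | ⟨P, κ, ρ, C, hS, hI, -⟩
  · have h1 := hS.nest.lo i
    have h2 := hS.nest.hi i
    have h3 := hy i
    exact ⟨lt_of_lt_of_le h1 h3.1, lt_of_le_of_lt h3.2 h2⟩
  · have h1 := hS.nest.lo i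
    have h2 := hS.nest.hi i
    have h4 := hI.nest.lo i
    have h5 := hI.nest.hi i
    have h3 := hy i
    exact ⟨(h1.trans h4).trans_le h3.1, (h3.2.trans_lt h5).trans h2⟩

theorem hole_mem {c : Φ.F} {y : E3} (hy : y ∈ (Φ.B c).S) : y ∈ c.1.set :=
  Bx.mem_set.2 fun i => ⟨(hole_sub Φ hy i).1.le, (hole_sub Φ hy i).2.le⟩

/-- the target off the holes -/
def LaH : Set E3 := {y | y ∈ La ∧ ∀ c, y ∉ (Φ.B c).S}

/-- the domain off the preimages of the holes -/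
def OmH (Om : Set E3) : Set E3 := {x | x ∈ Om ∧ ∀ c, f x ∉ (Φ.B c).S}

theorem mem_LaH_iff (hLa : IsOpen La) {y : E3} :
    y ∈ LaH Φ ↔ y ∈ La ∧ 0 < Vb_965.muD Φ y := by
  constructor
  · rintro ⟨h1, h2⟩
    exact ⟨h1, mu_pos hLa h1 h2⟩
  · rintro ⟨h1, h2⟩
    refine ⟨h1, fun c hc => ?_⟩
    exact (Vb_965.muD_pos Φ hLa (hole_mem Φ hc)).1 h2 hc

theorem isOpen_LaH (hLa : IsOpen La) : IsOpen (LaH Φ) := by
  have h1 : LaH Φ = La ∩ Vb_965.muD Φ ⁻¹' Ioi 0 := by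
    ext y
    rw [mem_LaH_iff Φ hLa]
    rfl
  rw [h1]
  exact (Vb_965.pushD Φ hLa).mu_cont.isOpen_inter_preimage hLa isOpen_Ioi

variable {Φ f}

theorem isOpen_OmH (hOm : IsOpen Om) (hLa : IsOpen La) (hf : Hom3 f Om La) :
    IsOpen (OmH Φ f Om) := by
  obtain ⟨fi, h1, -, -, -, h5, -⟩ := hf
  have h2 : OmH Φ f Om = Om ∩ f ⁻¹' (LaH Φ) := by
    ext x
    exact ⟨fun h => ⟨h.1, h1 h.1, h.2⟩, fun h => ⟨h.1, h.2.2⟩⟩
  rw [h2]
  exact h5.isOpen_inter_preimage hOm (isOpen_LaH Φ hLa)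

theorem mapsTo_OmH (hf : Hom3 f Om La) : MapsTo f (OmH Φ f Om) (LaH Φ) := by
  obtain ⟨fi, h1, -⟩ := hf
  exact fun x hx => ⟨h1 hx.1, hx.2⟩

theorem OmH_sub : OmH Φ f Om ⊆ Om := fun _ h => h.1

theorem continuousOn_Psi (hLa : IsOpen La) : ContinuousOn Φ.Psi (LaH Φ) :=
  (Vb_965.pushD Φ hLa).cont.mono fun _ hy => ((mem_LaH_iff Φ hLa).1 hy)

theorem mapsTo_Psi (hLa : IsOpen La) : MapsTo Φ.Psi (LaH Φ) La :=
  fun _ hy => Psi_mem_La hLa hy.1 hy.2

theorem continuousOn_Psif (hLa : IsOpen La) (hf : Hom3 f Om La) :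
    ContinuousOn (fun x => Φ.Psi (f x)) (OmH Φ f Om) := by
  have h0 := mapsTo_OmH (Φ := Φ) hf
  obtain ⟨fi, h1, -, -, -, h5, -⟩ := hf
  exact (continuousOn_Psi hLa).comp (h5.mono OmH_sub) h0

end foam

/-! ### the derivatives -/

section der

variable {δ κ0 R c0 : ℝ} {La Om : Set E3} {Φ : FoamD δ κ0 R c0 La} {f : E3 → E3}

/-- the constant -/
def CD (δ R : ℝ) : ℝ := 8 * (R * Cs 3 δ R)

theorem CD_nonneg (hδ : 0 < δ) (hR : 0 < R) : 0 ≤ CD δ R := by
  have := Cs_nonneg (n := 3) hδ hR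
  unfold CD; positivity

theorem norm_P3_symm_le (z : Crest.AnalysisR.VecCalc3.R3) : ‖P3.symm z‖ ≤ ‖z‖ := by
  refine (pi_norm_le_iff_of_nonneg (norm_nonneg _)).2 fun i => ?_
  exact PiLp.norm_apply_le (p := 2) z i

/-- at most 4 coordinates are different from `0` and `1` -/
theorem active_card (hLa : IsOpen La) {y : E3} (hy : y ∈ La) :
    {c : Φ.F | sc (Pc Φ.F) (bc (F := Φ.F)) y c ≠ 0 ∧ sc (Pc Φ.F) (bc (F := Φ.F)) y c ≠ 1}.encard ≤ 4 := by
  have FF := Brk3_582.foam Φ.bf hLa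
  have hfin := FF.sc_lt_one_finite hy
  have hcard := FF.sc_lt_one_ncard hy
  have hsub : {c : Φ.F | sc (Pc Φ.F) (bc (F := Φ.F)) y c ≠ 0 ∧
      sc (Pc Φ.F) (bc (F := Φ.F)) y c ≠ 1} ⊆ {c | sc (Pc Φ.F) (bc (F := Φ.F)) y c < 1} :=
    fun c hc => lt_of_le_of_ne (FF.sc_le_one hy c) hc.2
  refine (encard_le_encard hsub).trans ?_
  rw [← hfin.cast_ncard_eq]
  have : (Fintype.card (Fin 3) + 1 : ℕ) = 4 := by simp
  rw [this] at hcard
  exact_mod_cast hcard

/-- first form of DER -/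
theorem exists_der0 (hδ : 0 < δ) (hR : 0 < R) (hOm : IsOpen Om) (hLa : IsOpen La)
    (hf : Hom3 f Om La) {D' : Fin 3 → E3 → Crest.AnalysisR.VecCalc3.R3}
    (hD' : ∀ l, VWD (OmH Φ f Om) volume (fun x => P3 (Φ.Psi (f x))) (D' l) (Pi.single l (1:ℝ))) :
    ∃ g : Φ.F → Fin 3 → E3 → ℝ, (∀ c l, Measurable (g c l)) ∧
      (∀ c l, WD (OmH Φ f Om) volume (us Φ f c) (g c l) (Pi.single l (1:ℝ))) ∧
      ∀ᵐ x, x ∈ OmH Φ f Om → ∀ l,
        ∑' c : Φ.F, ENNReal.ofReal (2 * c.1.sz) * ‖g c l x‖ₑ ≤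
          ENNReal.ofReal (CD δ R) * ‖D' l x‖ₑ := by
  have : Countable Φ.F := countable_F Φ
  have hO := isOpen_OmH (Φ := Φ) hOm hLa hf
  set S : Set Crest.AnalysisR.VecCalc3.R3 := {z | P3.symm z ∈ La} with hS
  set θ : Φ.F → Crest.AnalysisR.VecCalc3.R3 → ℝ :=
    fun c z => sc (Pc Φ.F) (bc (F := Φ.F)) (P3.symm z) c with hθ
  have hmap : MapsTo (fun x => P3 (Φ.Psi (f x))) (OmH Φ f Om) S := by
    intro x hx
    show P3.symm (P3 (Φ.Psi (f x))) ∈ La
    rw [ContinuousLinearEquiv.symm_apply_apply]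
    exact mapsTo_Psi hLa (mapsTo_OmH hf hx)
  have hcont : ContinuousOn (fun x => P3 (Φ.Psi (f x))) (OmH Φ f Om) :=
    P3.continuous.comp_continuousOn (continuousOn_Psif hLa hf)
  have hLL := Cs_nonneg (n := 3) hδ hR
  -- Lipschitz near
  have hnear : ∀ z ∈ S, ∃ ρ > 0, ∀ c : Φ.F, ∀ x ∈ ball z ρ, ∀ x' ∈ ball z ρ,
      |θ c x - θ c x'| ≤ R * Cs 3 δ R / c.1.sz * ‖x - x'‖ := by
    intro z hz
    obtain ⟨ρ, hρ, -, h⟩ := lip_near Φ.bf hLa hδ hR Φ.cmp hz
    refine ⟨ρ, hρ, fun c x hx x' hx' => ?_⟩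
    have hb : ∀ x ∈ ball z ρ, P3.symm x ∈ ball (P3.symm z) ρ := by
      intro x hx
      rw [mem_ball, dist_eq_norm, ← map_sub] 
      exact (norm_P3_symm_le _).trans_lt (by rwa [mem_ball, dist_eq_norm] at hx)
    have hsz := szF_pos Φ c
    refine (h c _ (hb x hx) _ (hb x' hx')).trans ?_
    rw [← map_sub]
    simp only [Fintype.card_fin]
    exact mul_le_mul_of_nonneg_left (norm_P3_symm_le _) (by positivity)
  have hloc : ∀ c, LocallyLipschitzOn S (θ c) := by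
    intro c z hz
    obtain ⟨ρ, hρ, h⟩ := hnear z hz
    have hsz := szF_pos Φ c
    refine ⟨⟨R * Cs 3 δ R / c.1.sz, by positivity⟩, ball z ρ,
      mem_nhdsWithin_of_mem_nhds (ball_mem_nhds z hρ), ?_⟩
    refine LipschitzOnWith.of_dist_le_mul fun x hx x' hx' => ?_
    rw [Real.dist_eq, dist_eq_norm]
    exact h c x hx x' hx'
  have hpt : ∀ c, ∀ z ∈ S, ∀ ε > 0, ∀ᶠ w in 𝓝[S] z,
      |θ c w - θ c z| ≤ (R * Cs 3 δ R / c.1.sz + ε) * ‖w - z‖ := by
    intro c z hz ε hε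
    obtain ⟨ρ, hρ, h⟩ := hnear z hz
    filter_upwards [mem_nhdsWithin_of_mem_nhds (ball_mem_nhds z hρ)] with w hw
    refine (h c w hw z (mem_ball_self hρ)).trans ?_
    gcongr
    linarith
  have key := fun c l => comp_real_bound hO (hD' l) hcont hmap (hloc c) (hpt c)
  have hus : ∀ c, (fun x => θ c (P3 (Φ.Psi (f x)))) = us Φ f c := by
    intro c
    funext x
    show sc (Pc Φ.F) (bc (F := Φ.F)) (P3.symm (P3 (Φ.Psi (f x)))) c = _
    rw [ContinuousLinearEquiv.symm_apply_apply]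
    rfl
  refine ⟨fun c l => dq (OmH Φ f Om) (us Φ f c) (Pi.single l 1), fun c l => ?_, fun c l => ?_, ?_⟩
  · have := (key c l).2.1
    rwa [hus c] at this
  · have := (key c l).1
    rwa [hus c] at this
  · have h1 : ∀ᵐ x, ∀ c : Φ.F, ∀ l : Fin 3, x ∈ OmH Φ f Om →
        |dq (OmH Φ f Om) (us Φ f c) (Pi.single l 1) x| ≤ R * Cs 3 δ R / c.1.sz * ‖D' l x‖ := by
      rw [ae_all_iff]; intro c
      rw [ae_all_iff]; intro l
      have := (key c l).2.2.1
      rwa [hus c] at this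
    have h2 : ∀ t : ℝ, ∀ᵐ x, ∀ c : Φ.F, ∀ l : Fin 3, x ∈ OmH Φ f Om → us Φ f c x = t →
        dq (OmH Φ f Om) (us Φ f c) (Pi.single l 1) x = 0 := by
      intro t
      rw [ae_all_iff]; intro c
      rw [ae_all_iff]; intro l
      have := (key c l).2.2.2 t
      simp only [hus c] at this
      filter_upwards [this] with x hx hxO hxt
      refine hx hxO ?_
      have := congrFun (hus c) x
      exact this.trans hxt
    filter_upwards [h1, h2 0, h2 1] with x a1 a2 a3 hx l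
    have hyL := mapsTo_Psi hLa (mapsTo_OmH (Φ := Φ) hf hx)
    set T : Set Φ.F := {c | us Φ f c x ≠ 0 ∧ us Φ f c x ≠ 1} with hT
    have hTc : T.encard ≤ 4 := active_card hLa hyL
    have hTf : T.Finite := finite_of_encard_le_coe (k := 4) (by exact_mod_cast hTc)
    have hzero : ∀ c ∉ hTf.toFinset, ENNReal.ofReal (2 * c.1.sz) *
        ‖dq (OmH Φ f Om) (us Φ f c) (Pi.single l 1) x‖ₑ = 0 := by
      intro c hc
      have hc' : c ∉ T := by simpa using hc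
      have h3 : dq (OmH Φ f Om) (us Φ f c) (Pi.single l 1) x = 0 := by
        by_contra hne
        refine hc' ⟨fun h => hne (a2 c l hx h), fun h => hne (a3 c l hx h)⟩
      rw [h3, enorm_zero, mul_zero]
    rw [tsum_eq_sum hzero]
    have hb : ∀ c ∈ hTf.toFinset, ENNReal.ofReal (2 * c.1.sz) *
        ‖dq (OmH Φ f Om) (us Φ f c) (Pi.single l 1) x‖ₑ ≤
        ENNReal.ofReal (2 * (R * Cs 3 δ R)) * ‖D' l x‖ₑ := by
      intro c _
      have hsz := szF_pos Φ c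
      rw [← ofReal_norm, ← ofReal_norm, ← ENNReal.ofReal_mul (by positivity),
        ← ENNReal.ofReal_mul (by positivity)]
      apply ENNReal.ofReal_le_ofReal
      rw [Real.norm_eq_abs]
      calc 2 * c.1.sz * |dq (OmH Φ f Om) (us Φ f c) (Pi.single l 1) x|
          ≤ 2 * c.1.sz * (R * Cs 3 δ R / c.1.sz * ‖D' l x‖) :=
            mul_le_mul_of_nonneg_left (a1 c l hx) (by positivity)
        _ = 2 * (R * Cs 3 δ R) * ‖D' l x‖ := by field_simp
    refine (Finset.sum_le_sum hb).trans ?_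
    rw [Finset.sum_const, nsmul_eq_mul, ← mul_assoc]
    refine mul_le_mul_left ?_ _
    have hcd : (hTf.toFinset.card : ℝ≥0∞) ≤ 4 := by
      have h5 : T.encard = hTf.toFinset.card := hTf.encard_eq_coe_toFinset_card
      rw [h5] at hTc
      exact_mod_cast hTc
    calc (hTf.toFinset.card : ℝ≥0∞) * ENNReal.ofReal (2 * (R * Cs 3 δ R))
        ≤ 4 * ENNReal.ofReal (2 * (R * Cs 3 δ R)) := by gcongr
      _ = ENNReal.ofReal (CD δ R) := by
          rw [show (4 : ℝ≥0∞) = ENNReal.ofReal 4 by simp, ← ENNReal.ofReal_mul (by norm_num)]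
          congr 1
          unfold CD; ring

/-- **DER**: measurable weak derivatives of all level functions off the holes (extended by zero),
with the sum of the weighted derivatives in every direction bounded by the derivative of
`Psi ∘ f`. -/
theorem exists_der (hδ : 0 < δ) (hR : 0 < R) (hOm : IsOpen Om) (hLa : IsOpen La)
    (hf : Hom3 f Om La) {D' : Fin 3 → E3 → Crest.AnalysisR.VecCalc3.R3}
    (hD' : ∀ l, VWD (OmH Φ f Om) volume (fun x => P3 (Φ.Psi (f x))) (D' l) (Pi.single l (1:ℝ))) :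
    ∃ g : Φ.F → Fin 3 → E3 → ℝ, (∀ c l, Measurable (g c l)) ∧
      (∀ c l, WD (OmH Φ f Om) volume (us Φ f c) (g c l) (Pi.single l (1:ℝ))) ∧
      (∀ c l, ∀ x ∉ OmH Φ f Om, g c l x = 0) ∧
      (∀ᵐ x, x ∈ OmH Φ f Om → ∀ l,
        ∑' c : Φ.F, ENNReal.ofReal (2 * c.1.sz) * ‖g c l x‖ₑ ≤
          ENNReal.ofReal (CD δ R) * ‖D' l x‖ₑ) ∧
      (∀ᵐ x, x ∈ OmH Φ f Om → GGw (fun c : Φ.F => ENNReal.ofReal (2 * c.1.sz)) g x ≤
        ENNReal.ofReal (CD δ R) * ∑ l, ‖D' l x‖ₑ) := by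
  obtain ⟨g, hm, hw, hb⟩ := exists_der0 hδ hR hOm hLa hf hD'
  have hO := isOpen_OmH (Φ := Φ) hOm hLa hf
  have he : ∀ c l, ∀ x ∈ OmH Φ f Om, (OmH Φ f Om).indicator (g c l) x = g c l x :=
    fun c l x hx => indicator_of_mem hx _
  have hb' : ∀ᵐ x, x ∈ OmH Φ f Om → ∀ l,
        ∑' c : Φ.F, ENNReal.ofReal (2 * c.1.sz) * ‖(OmH Φ f Om).indicator (g c l) x‖ₑ ≤
          ENNReal.ofReal (CD δ R) * ‖D' l x‖ₑ := by
    filter_upwards [hb] with x hx hxO l
    simpa only [he _ _ x hxO] using hx hxO l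
  refine ⟨fun c l => (OmH Φ f Om).indicator (g c l), fun c l => (hm c l).indicator hO.measurableSet,
    fun c l => wd_congr hO (hw c l) (Eventually.of_forall fun _ _ => rfl)
      (Eventually.of_forall fun x hx => (he c l x hx).symm),
    fun c l x hx => indicator_of_notMem hx _, hb', ?_⟩
  filter_upwards [hb'] with x hx hxO
  unfold GGw G1
  calc ∑' c : Φ.F, ENNReal.ofReal (2 * c.1.sz) * ∑ i, ‖(OmH Φ f Om).indicator (g c i) x‖ₑ
      = ∑' c : Φ.F, ∑ i, ENNReal.ofReal (2 * c.1.sz) * ‖(OmH Φ f Om).indicator (g c i) x‖ₑ := by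
        simp only [Finset.mul_sum]
    _ = ∑ i, ∑' c : Φ.F, ENNReal.ofReal (2 * c.1.sz) * ‖(OmH Φ f Om).indicator (g c i) x‖ₑ :=
        Summable.tsum_finsetSum fun _ _ => ENNReal.summable
    _ ≤ ∑ i, ENNReal.ofReal (CD δ R) * ‖D' i x‖ₑ := Finset.sum_le_sum fun i _ => hx hxO i
    _ = _ := by rw [Finset.mul_sum]

/-- the weighted sum of the derivatives vanishes off `OmH` -/
theorem GGw_zero {w : Φ.F → ℝ≥0∞} {g : Φ.F → Fin 3 → E3 → ℝ}
    (h : ∀ c l, ∀ x ∉ OmH Φ f Om, g c l x = 0) {x : E3} (hx : x ∉ OmH Φ f Om) :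
    GGw w g x = 0 := by
  unfold GGw G1
  simp [h _ _ x hx]

/-- energies over a region -/
theorem lint_GGw_le {w : Φ.F → ℝ≥0∞} {g : Φ.F → Fin 3 → E3 → ℝ}
    (h : ∀ c l, ∀ x ∉ OmH Φ f Om, g c l x = 0) (hO : IsOpen (OmH Φ f Om)) {C : ℝ≥0∞}
    {A : E3 → ℝ≥0∞} (hA : ∀ᵐ x, x ∈ OmH Φ f Om → GGw w g x ≤ C * A x) {p : ℝ} (hp : 0 < p)
    (hC : C ≠ ∞) (U : Set E3) :
    ∫⁻ x in U, GGw w g x ^ p ≤ C ^ p * ∫⁻ x in U ∩ OmH Φ f Om, A x ^ p := by
  have hCp : C ^ p ≠ ∞ := ENNReal.rpow_ne_top_of_nonneg hp.le hC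
  calc ∫⁻ x in U, GGw w g x ^ p
      = ∫⁻ x in U, (OmH Φ f Om).indicator (fun x => GGw w g x ^ p) x := by
        refine lintegral_congr fun x => ?_
        by_cases hx : x ∈ OmH Φ f Om
        · rw [indicator_of_mem hx]
        · rw [indicator_of_notMem hx, GGw_zero h hx, ENNReal.zero_rpow_of_pos hp]
    _ = ∫⁻ x in U ∩ OmH Φ f Om, GGw w g x ^ p := by
        rw [lintegral_indicator hO.measurableSet, Measure.restrict_restrict hO.measurableSet,
          inter_comm]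
    _ ≤ ∫⁻ x in U ∩ OmH Φ f Om, C ^ p * A x ^ p := by
        have h1 : ∀ᵐ x ∂(volume.restrict (OmH Φ f Om)), GGw w g x ≤ C * A x :=
          (ae_restrict_iff' hO.measurableSet).2 hA
        have h2 : ∀ᵐ x ∂(volume.restrict (U ∩ OmH Φ f Om)), GGw w g x ≤ C * A x :=
          ae_restrict_of_ae_restrict_of_subset inter_subset_right h1
        refine lintegral_mono_ae ?_
        filter_upwards [h2] with x hx
        rw [← ENNReal.mul_rpow_of_nonneg _ _ hp.le]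
        exact ENNReal.rpow_le_rpow hx hp.le
    _ = _ := lintegral_const_mul' _ _ hCp

end der

end

end Crest.Agent.R096.Der_764
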