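import Crest.Agent.R096.Wd11_120
import Crest.Agent.R96.EaP2_899

/-!
Row 96, exact cores (helper120), part 12: the format of 112's `Mok.words`; the clause `push` for the
foam `fX` of helper899.
-/

set_option autoImplicit false
set_option linter.unusedSectionVars false

open Set Filter Topology Metric MeasureTheory
open scoped ENNReal

namespace Crest.Agent.R096.Wd_120

open Crest.Agent.R096.Bsp_628 Crest.Agent.R096.Brk1_582
open Crest.Agent.R096.Brk3_582 Crest.Agent.R096.Brk5_582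
open Crest.Agent.R096.Msh_715
open Crest.Agent.R096.SkC1_961 (FoamD E3)
open Crest.Agent.R096.Mbf_337 (Words)
open Crest.Agent.R96.EaP_899 (XD fX fX_pu_mem)

/-- the clause `words` of `Pmc_112.Mok` -/
theorem words_mok {δ κ0 R c0 : ℝ} {La Om : Set E3} {Φ : FoamD δ κ0 R c0 La} {ι : Type}
    {T : Tiling Om ι} {f : E3 → E3} {X : Set Φ.F} {ct : Φ.F → ι} {A : Φ.F → E3 ≃ᵃ[ℝ] E3}
    {lam : Φ.F → ℝ} {z : Φ.F → E3} {M : Φ.F → ℕ} {κb μ : ℝ} (hμ : 0 < μ)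
    (h : ∃ Bad : Φ.F → Set ℝ, (∀ c', MeasurableSet (Bad c')) ∧
      (∀ c', volume (Bad c') ≤ ENNReal.ofReal κb) ∧
      ∀ L : Φ.F → Finset ℝ, (∀ c', ∀ t ∈ L c', t ∈ Ioo (0 : ℝ) 1 ∧ t ∉ Bad c') →
        Words Φ T f X ct A lam z M L) :
    ∃ Bad : Φ.F → Set ℝ, (∀ c, MeasurableSet (Bad c)) ∧
      (∀ c, volume (Bad c ∩ Icc 0 1) ≤ ENNReal.ofReal κb) ∧
      ∀ L : Φ.F → Finset ℝ, (∀ c, ∀ t ∈ L c, μ ≤ t ∧ t ≤ 1 - μ) →
        (∀ c, ∀ t ∈ L c, t ∉ Bad c) → Words Φ T f X ct A lam z M L := by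
  obtain ⟨Bad, h1, h2, h3⟩ := h
  refine ⟨Bad, h1, fun c => (measure_mono inter_subset_left).trans (h2 c), fun L hL hL' => ?_⟩
  exact h3 L fun c t ht => ⟨⟨hμ.trans_le (hL c t ht).1, by linarith [(hL c t ht).2]⟩, hL' c t ht⟩

/-- the clause `push` for `fX` -/
theorem push_fX {La : Set E3} {F : Set (Bx (Fin 3))} {δ κ0 R c0 : ℝ} (bf : BoxFoam La F δ κ0)
    (cmp : Cmp F R) {X : Set F} {lam : F → ℝ} {z : F → E3} (H : XD bf c0 X lam z) {c : F}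
    (hc : c ∈ X) :
    ∀ y ∈ Pc (fX bf cmp H).F c, 3 / 4 * lam c ≤ mu c.1 y → (fX bf cmp H).pu c y = rp c.1 y :=
  push_pus (Φ := fX bf cmp H) (bf.pos _ c.2) (H.pos hc) (H.hl1 c hc) (fX_pu_mem bf cmp H hc)

end Crest.Agent.R096.Wd_120
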