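import Crest.Agent.R096.Fbr8_628

/-!
# Row 96, FAN (helper628), part 9: the dimension of the closed cells of the boundary of the brick
-/

set_option autoImplicit false
set_option linter.unusedSectionVars false

open Set

namespace Crest.Agent.R096.Fbr_628

open Crest.Agent.R096.Brk1_582 Crest.Agent.R096.Brk2_582 Crest.Agent.R096.Grd_714
  Crest.Agent.R096.Brk3_582 Crest.Agent.R096.Brk5_582 Crest.Agent.R096.Bsp_628
  Crest.Agent.R096.Mal_874 Crest.Agent.R096.Cut_874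

variable {La : Set (Fin 3 → ℝ)} {F : Set (Bx (Fin 3))} {δ κ0 : ℝ} {N : ℕ}

/-- the label has a value between two consecutive grid values -/
def NI (M : ℕ) (s : ℝ) : Prop := ⌊(M : ℝ) * s⌋₊ < ⌈(M : ℝ) * s⌉₊

theorem not_NI_iff {M : ℕ} {s : ℝ} (hs : 0 ≤ s) : ¬ NI M s ↔ ∃ n : ℕ, (M : ℝ) * s = n := by
  have h0 : (0 : ℝ) ≤ M * s := mul_nonneg (Nat.cast_nonneg _) hs
  unfold NI
  rw [not_lt]
  constructor
  · intro h
    refine ⟨⌊(M : ℝ) * s⌋₊, le_antisymm ?_ (Nat.floor_le h0)⟩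
    exact (Nat.le_ceil _).trans (by exact_mod_cast h)
  · rintro ⟨n, hn⟩
    rw [hn, Nat.ceil_natCast, Nat.floor_natCast]

theorem NI.lt {M : ℕ} {s : ℝ} (h : NI M s) (hs : 0 ≤ s) : (⌊(M : ℝ) * s⌋₊ : ℝ) < M * s ∧
    M * s < ⌈(M : ℝ) * s⌉₊ := by
  have h0 : (0 : ℝ) ≤ M * s := mul_nonneg (Nat.cast_nonneg _) hs
  constructor
  · refine lt_of_le_of_ne (Nat.floor_le h0) fun e => ?_
    exact (not_NI_iff hs).2 ⟨_, e.symm⟩ h
  · refine lt_of_le_of_ne (Nat.le_ceil _) fun e => ?_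
    exact (not_NI_iff hs).2 ⟨_, e⟩ h

namespace BD

variable {FF : Foam La (Pc F) (bc (F := F)) N} {h3 : Module.finrank ℝ (Fin 3 → ℝ) = 3} {c : F}
  {o : Fin 3 → ℝ} {B : ℝ} (D : BD FF h3 c o B) {M : ℕ}

/-- moving a point -/
theorem dsp_move (hM : 0 < M) (X v : Fin 3 → ℝ) (η : ℝ) :
    D.dsp M 0 (X + (η * (M / D.w)) • v) = D.dsp M 0 X + η • v := by
  have hM' : (M : ℝ) ≠ 0 := by exact_mod_cast hM.ne'
  have hw := D.w0.ne'
  funext l
  have e : ∀ Z : Fin 3 → ℝ, D.dsp M 0 Z l = D.w / M * (Z l - M * D.z l) := fun Z => if_pos rfl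
  rw [e, Pi.add_apply, Pi.add_apply, e, Pi.smul_apply, Pi.smul_apply, smul_eq_mul, smul_eq_mul]
  field_simp
  ring

theorem dsp_move' (hM : 0 < M) (X v : Fin 3 → ℝ) (ε : ℝ) :
    D.dsp M 0 (X + ε • v) = D.dsp M 0 X + (ε * (D.w / M)) • v := by
  have hM' : (M : ℝ) ≠ 0 := by exact_mod_cast hM.ne'
  have hw := D.w0.ne'
  funext l
  have e : ∀ Z : Fin 3 → ℝ, D.dsp M 0 Z l = D.w / M * (Z l - M * D.z l) := fun Z => if_pos rfl
  rw [e, Pi.add_apply, Pi.add_apply, e, Pi.smul_apply, Pi.smul_apply, smul_eq_mul, smul_eq_mul]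
  field_simp
  ring

variable (hN : N ≤ 4) (BF : BoxFoam La F δ κ0) (hLa : IsOpen La)
  (hQ : Quads (Pc F) (bc (F := F))) (hM : 0 < M) (t : ℤ) (ht : 0 < t)

/-- the two directions of a flag in the facet -/
noncomputable def d1 (g : Flg (Pc F) c) : Fin 3 → ℝ :=
  dir (bc (F := F)) g 0 - dir (bc (F := F)) g 1

noncomputable def d2 (g : Flg (Pc F) c) : Fin 3 → ℝ :=
  dir (bc (F := F)) g 1 - dir (bc (F := F)) g 2

theorem cf_d1 (FF : Foam La (Pc F) (bc (F := F)) N) (h3 : Module.finrank ℝ (Fin 3 → ℝ) = 3)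
    (g : Flg (Pc F) c) : cf FF h3 g 0 (d1 g) = 1 ∧ cf FF h3 g 1 (d1 g) = -1 ∧
    cf FF h3 g 2 (d1 g) = 0 := by
  unfold d1
  simp only [map_sub, cf_dir]
  refine ⟨?_, ?_, ?_⟩ <;> simp

theorem cf_d2 (FF : Foam La (Pc F) (bc (F := F)) N) (h3 : Module.finrank ℝ (Fin 3 → ℝ) = 3)
    (g : Flg (Pc F) c) : cf FF h3 g 0 (d2 g) = 0 ∧ cf FF h3 g 1 (d2 g) = 1 ∧
    cf FF h3 g 2 (d2 g) = -1 := by
  unfold d2
  simp only [map_sub, cf_dir]
  refine ⟨?_, ?_, ?_⟩ <;> simp

theorem d1_mem {X : Fin 3 → ℝ} (hX : D.pt M X ∈ Pc F c) {g : Flg (Pc F) c}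
    (hg : InC FF h3 g (D.dsp M 0 X)) (hn : NI M (D.sx M X g.a2)) :
    d1 g ∈ (D.shell hN BF hLa hQ hM t ht).VV X := by
  have hM' : (0 : ℝ) < M := by exact_mod_cast hM
  obtain ⟨s0, s1, s2, s3, s4⟩ := D.inC_sx hM hg
  have hb := D.sx_bnd hX g.a2
  obtain ⟨n1, n2⟩ := hn.lt hb.1
  set A := cf FF h3 g 0 (D.dsp M 0 X) with hA
  have hgap : 0 < M * D.sx M X g.a2 - ⌊(M : ℝ) * D.sx M X g.a2⌋₊ := by linarith
  set η := (M * D.sx M X g.a2 - ⌊(M : ℝ) * D.sx M X g.a2⌋₊) / M with hη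
  have hη0 : 0 < η := div_pos hgap hM'
  have hηM : M * η = M * D.sx M X g.a2 - ⌊(M : ℝ) * D.sx M X g.a2⌋₊ := by
    rw [hη]; field_simp
  have hηA : η ≤ A := by
    have h5 : (0 : ℝ) ≤ (⌊(M : ℝ) * D.sx M X g.a2⌋₊ : ℝ) := Nat.cast_nonneg _
    have h6 : M * η ≤ M * A := by rw [hηM, ← s2]; linarith
    exact le_of_mul_le_mul_left h6 hM'
  set Y := X + ((-η) * (M / D.w)) • d1 g with hY
  have hdY : D.dsp M 0 Y = D.dsp M 0 X + (-η) • d1 g := D.dsp_move hM X (d1 g) (-η)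
  obtain ⟨e0, e1, e2⟩ := cf_d1 FF h3 g
  have f0 : cf FF h3 g 0 (D.dsp M 0 Y) = A - η := by
    rw [hdY, map_add, map_smul, e0, smul_eq_mul]; ring
  have f1 : cf FF h3 g 1 (D.dsp M 0 Y) = cf FF h3 g 1 (D.dsp M 0 X) + η := by
    rw [hdY, map_add, map_smul, e1, smul_eq_mul]; ring
  have f2 : cf FF h3 g 2 (D.dsp M 0 Y) = cf FF h3 g 2 (D.dsp M 0 X) := by
    rw [hdY, map_add, map_smul, e2, smul_eq_mul]; ring
  have hIY : InC FF h3 g (D.dsp M 0 Y) := by
    refine ⟨?_, ?_⟩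
    · intro k
      fin_cases k
      · show 0 ≤ cf FF h3 g 0 (D.dsp M 0 Y)
        rw [f0]; linarith
      · show 0 ≤ cf FF h3 g 1 (D.dsp M 0 Y)
        rw [f1]; linarith [hg.1 1]
      · show 0 ≤ cf FF h3 g 2 (D.dsp M 0 Y)
        rw [f2]; exact hg.1 2
    · have := hg.2
      rw [wf_apply] at this ⊢
      rw [f0, f1, f2]
      linarith
  obtain ⟨t0, t1, t2, t3, t4⟩ := D.inC_sx hM hIY
  have hYc : D.pt M Y ∈ Pc F c := by rw [D.pt_dsp hM]; exact hIY.mem FF h3
  have hFC : D.FC M X Y := by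
    intro a
    by_cases a2 : a = g.a2
    · rw [a2, t2, f0]
      have e : (M : ℝ) * (A - η) = ⌊(M : ℝ) * D.sx M X g.a2⌋₊ := by
        rw [mul_sub, hηM, s2]; ring
      rw [e]
      exact ⟨le_rfl, by linarith⟩
    · have : D.sx M Y a = D.sx M X a := by
        by_cases a0 : a = c
        · rw [a0, t0, s0]
        by_cases a1 : a = g.a1
        · rw [a1, t1, s1]
        by_cases a3 : a = g.a3
        · rw [a3, t3, s3, f0, f1]; ring
        · rw [t4 a a0 a1 a2 a3, s4 a a0 a1 a2 a3]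
      rw [this]
      exact ⟨Nat.floor_le (mul_nonneg hM'.le (D.sx_bnd hX a).1), Nat.le_ceil _⟩
  have h5 := PS.sub_mem_VV _ (D.mem_CC_of_fc hN BF hLa hQ hM t ht hX hYc hFC)
  have e : Y - X = ((-η) * (M / D.w)) • d1 g := by rw [hY]; abel
  rw [e] at h5
  refine (Submodule.smul_mem_iff _ ?_).1 h5
  have hw := D.w0
  have : 0 < M / D.w := div_pos hM' hw
  exact mul_ne_zero (neg_ne_zero.2 hη0.ne') this.ne'

theorem d2_mem {X : Fin 3 → ℝ} (hX : D.pt M X ∈ Pc F c) {g : Flg (Pc F) c}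
    (hg : InC FF h3 g (D.dsp M 0 X)) (hn : NI M (D.sx M X g.a3)) :
    d2 g ∈ (D.shell hN BF hLa hQ hM t ht).VV X := by
  have hM' : (0 : ℝ) < M := by exact_mod_cast hM
  obtain ⟨s0, s1, s2, s3, s4⟩ := D.inC_sx hM hg
  have hb := D.sx_bnd hX g.a3
  obtain ⟨n1, n2⟩ := hn.lt hb.1
  have hgap : 0 < ⌈(M : ℝ) * D.sx M X g.a3⌉₊ - M * D.sx M X g.a3 := by linarith
  set η := (⌈(M : ℝ) * D.sx M X g.a3⌉₊ - M * D.sx M X g.a3) / M with hη
  have hη0 : 0 < η := div_pos hgap hM'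
  have hηM : M * η = ⌈(M : ℝ) * D.sx M X g.a3⌉₊ - M * D.sx M X g.a3 := by
    rw [hη]; field_simp
  have hsum := hg.2
  rw [wf_apply] at hsum
  have hηC : η ≤ cf FF h3 g 2 (D.dsp M 0 X) := by
    have h5 : ⌈(M : ℝ) * D.sx M X g.a3⌉₊ ≤ M := Nat.ceil_le.2 (by nlinarith [hb.2])
    have h5' : ((⌈(M : ℝ) * D.sx M X g.a3⌉₊ : ℕ) : ℝ) ≤ M := by exact_mod_cast h5
    have h6 : M * η ≤ M * cf FF h3 g 2 (D.dsp M 0 X) := by
      have h7 : M * cf FF h3 g 2 (D.dsp M 0 X) = M - M * D.sx M X g.a3 := by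
        rw [s3]; linear_combination M * hsum
      rw [hηM, h7]; linarith
    exact le_of_mul_le_mul_left h6 hM'
  set Y := X + (η * (M / D.w)) • d2 g with hY
  have hdY : D.dsp M 0 Y = D.dsp M 0 X + η • d2 g := D.dsp_move hM X (d2 g) η
  obtain ⟨e0, e1, e2⟩ := cf_d2 FF h3 g
  have f0 : cf FF h3 g 0 (D.dsp M 0 Y) = cf FF h3 g 0 (D.dsp M 0 X) := by
    rw [hdY, map_add, map_smul, e0, smul_eq_mul]; ring
  have f1 : cf FF h3 g 1 (D.dsp M 0 Y) = cf FF h3 g 1 (D.dsp M 0 X) + η := by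
    rw [hdY, map_add, map_smul, e1, smul_eq_mul]; ring
  have f2 : cf FF h3 g 2 (D.dsp M 0 Y) = cf FF h3 g 2 (D.dsp M 0 X) - η := by
    rw [hdY, map_add, map_smul, e2, smul_eq_mul]; ring
  have hIY : InC FF h3 g (D.dsp M 0 Y) := by
    refine ⟨?_, ?_⟩
    · intro k
      fin_cases k
      · show 0 ≤ cf FF h3 g 0 (D.dsp M 0 Y)
        rw [f0]; exact hg.1 0
      · show 0 ≤ cf FF h3 g 1 (D.dsp M 0 Y)
        rw [f1]; linarith [hg.1 1]
      · show 0 ≤ cf FF h3 g 2 (D.dsp M 0 Y)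
        rw [f2]; linarith
    · rw [wf_apply, f0, f1, f2]
      linarith
  obtain ⟨t0, t1, t2, t3, t4⟩ := D.inC_sx hM hIY
  have hYc : D.pt M Y ∈ Pc F c := by rw [D.pt_dsp hM]; exact hIY.mem FF h3
  have hFC : D.FC M X Y := by
    intro a
    by_cases a3 : a = g.a3
    · rw [a3, t3, f0, f1]
      have e : (M : ℝ) * (cf FF h3 g 0 (D.dsp M 0 X) + (cf FF h3 g 1 (D.dsp M 0 X) + η)) =
          ⌈(M : ℝ) * D.sx M X g.a3⌉₊ := by
        have : (M : ℝ) * (cf FF h3 g 0 (D.dsp M 0 X) + (cf FF h3 g 1 (D.dsp M 0 X) + η)) =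
          M * D.sx M X g.a3 + M * η := by rw [s3]; ring
        rw [this, hηM]; ring
      rw [e]
      exact ⟨by linarith, le_rfl⟩
    · have : D.sx M Y a = D.sx M X a := by
        by_cases a0 : a = c
        · rw [a0, t0, s0]
        by_cases a1 : a = g.a1
        · rw [a1, t1, s1]
        by_cases a2 : a = g.a2
        · rw [a2, t2, s2, f0]
        · rw [t4 a a0 a1 a2 a3, s4 a a0 a1 a2 a3]
      rw [this]
      exact ⟨Nat.floor_le (mul_nonneg hM'.le (D.sx_bnd hX a).1), Nat.le_ceil _⟩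
  have h5 := PS.sub_mem_VV _ (D.mem_CC_of_fc hN BF hLa hQ hM t ht hX hYc hFC)
  have e : Y - X = (η * (M / D.w)) • d2 g := by rw [hY]; abel
  rw [e] at h5
  refine (Submodule.smul_mem_iff _ ?_).1 h5
  have hw := D.w0
  have : 0 < M / D.w := div_pos hM' hw
  exact mul_ne_zero hη0.ne' this.ne'

/-- **a direction of the smallest face in the directions of the flag** -/
theorem of_mem_VV {X v : Fin 3 → ℝ} (hX : D.pt M X ∈ Pc F c) (hB : D.OnB M X) {g : Flg (Pc F) c}
    (hg : InC FF h3 g (D.dsp M 0 X)) (hv : v ∈ (D.shell hN BF hLa hQ hM t ht).VV X) :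
    v = cf FF h3 g 0 v • d1 g + (cf FF h3 g 0 v + cf FF h3 g 1 v) • d2 g ∧
      (¬ NI M (D.sx M X g.a2) → cf FF h3 g 0 v = 0) ∧
      (¬ NI M (D.sx M X g.a3) → cf FF h3 g 0 v + cf FF h3 g 1 v = 0) := by
  have hM' : (0 : ℝ) < M := by exact_mod_cast hM
  obtain ⟨ε, hε, hmv⟩ := PS.exists_move _ hv
  obtain ⟨hYc, hFC⟩ := D.fc_of_mem_CC hN BF hLa hQ hM t ht hX hB hmv
  set Y := X + ε • v with hY
  obtain ⟨s0, s1, s2, s3, s4⟩ := D.inC_sx hM hg
  have hdY : D.dsp M 0 Y = D.dsp M 0 X + (ε * (D.w / M)) • v := D.dsp_move' hM X v ε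
  set r := ε * (D.w / M) with hr
  have hr0 : 0 < r := mul_pos hε (div_pos D.w0 hM')
  -- the wall functional
  have hwv : wf FF h3 g v = 0 := by
    obtain ⟨l0, ε', hf⟩ := exists_fct_of_flag BF g
    have hYa : D.pt M Y ∈ Pc F g.a1 := (D.sx_zero hYc).1 (hFC.zero hM s1)
    have hYc' := hYc
    rw [D.pt_dsp hM] at hYa hYc'
    have h1 := D.wf_one hf (hf.coord hYc' hYa)
    rw [hdY, map_add, map_smul, hg.2, smul_eq_mul] at h1
    have : r * wf FF h3 g v = 0 := by linarith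
    exact (mul_eq_zero.1 this).resolve_left hr0.ne'
  rw [wf_apply] at hwv
  refine ⟨?_, ?_, ?_⟩
  · have h2 : cf FF h3 g 2 v = -(cf FF h3 g 0 v + cf FF h3 g 1 v) := by linarith
    conv_lhs => rw [← cf_sum FF h3 g v, h2]
    unfold d1 d2
    module
  · intro hn
    obtain ⟨n, hn⟩ := (not_NI_iff (D.sx_bnd hX g.a2).1).1 hn
    have h1 := hFC.nat hM hn
    have h2 : D.sx M Y g.a2 = D.sx M X g.a2 := by
      have : (M : ℝ) * D.sx M Y g.a2 = M * D.sx M X g.a2 := by rw [h1, hn]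
      exact mul_left_cancel₀ hM'.ne' this
    have h23 : D.sx M Y g.a2 ≤ D.sx M Y g.a3 := by
      have h5 := (hFC g.a3).1
      have h6 : (n : ℝ) ≤ ⌊(M : ℝ) * D.sx M X g.a3⌋₊ := by
        have : n ≤ ⌊(M : ℝ) * D.sx M X g.a3⌋₊ := by
          refine Nat.le_floor ?_
          rw [← hn]
          refine mul_le_mul_of_nonneg_left ?_ hM'.le
          rw [s2, s3]; linarith [hg.1 1]
        exact_mod_cast this
      have h7 : M * D.sx M Y g.a2 ≤ M * D.sx M Y g.a3 := by rw [h1]; linarith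
      exact le_of_mul_le_mul_left h7 hM'
    obtain ⟨c0, -, -⟩ := cf_of_sc FF h3 g hYc (hFC.zero hM s1) h23
      fun a a0 a1 a2 a3 => hFC.one hM (s4 a a0 a1 a2 a3)
    rw [D.pt_dsp hM, add_sub_cancel_left, ← D.pt_dsp hM] at c0
    change _ = D.sx M Y g.a2 at c0
    rw [h2, s2, hdY, map_add, map_smul, smul_eq_mul] at c0
    have : r * cf FF h3 g 0 v = 0 := by linarith
    exact (mul_eq_zero.1 this).resolve_left hr0.ne'
  · intro hn
    obtain ⟨n, hn⟩ := (not_NI_iff (D.sx_bnd hX g.a3).1).1 hn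
    have h1 := hFC.nat hM hn
    have h2 : D.sx M Y g.a3 = D.sx M X g.a3 := by
      have : (M : ℝ) * D.sx M Y g.a3 = M * D.sx M X g.a3 := by rw [h1, hn]
      exact mul_left_cancel₀ hM'.ne' this
    have h23 : D.sx M Y g.a2 ≤ D.sx M Y g.a3 := by
      have h5 := (hFC g.a2).2
      have h6 : (⌈(M : ℝ) * D.sx M X g.a2⌉₊ : ℝ) ≤ n := by
        have : ⌈(M : ℝ) * D.sx M X g.a2⌉₊ ≤ n := by
          refine Nat.ceil_le.2 ?_
          rw [← hn]
          refine mul_le_mul_of_nonneg_left ?_ hM'.le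
          rw [s2, s3]; linarith [hg.1 1]
        exact_mod_cast this
      have h7 : M * D.sx M Y g.a2 ≤ M * D.sx M Y g.a3 := by rw [h1]; linarith
      exact le_of_mul_le_mul_left h7 hM'
    obtain ⟨-, c1, -⟩ := cf_of_sc FF h3 g hYc (hFC.zero hM s1) h23
      fun a a0 a1 a2 a3 => hFC.one hM (s4 a a0 a1 a2 a3)
    rw [D.pt_dsp hM, add_sub_cancel_left, ← D.pt_dsp hM] at c1
    change _ = D.sx M Y g.a3 at c1
    rw [h2, s3, hdY] at c1
    simp only [map_add, map_smul, smul_eq_mul] at c1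
    have : r * (cf FF h3 g 0 v + cf FF h3 g 1 v) = 0 := by linarith
    exact (mul_eq_zero.1 this).resolve_left hr0.ne'

include BF hLa hQ hN in
/-- **the dimension of the smallest face of a boundary point** -/
theorem finrank_VV {X : Fin 3 → ℝ} (hX : D.pt M X ∈ Pc F c) (hB : D.OnB M X) :
    Module.finrank ℝ ((D.shell hN BF hLa hQ hM t ht).VV X) =
      {a : F | ⌊(M : ℝ) * D.sx M X a⌋₊ < ⌈(M : ℝ) * D.sx M X a⌉₊}.ncard := by
  obtain ⟨g, hg⟩ := hB.inC D hN BF hLa hM hX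
  obtain ⟨s0, s1, s2, s3, s4⟩ := D.inC_sx hM hg
  -- the labels
  have hset : ∀ a : F, NI M (D.sx M X a) → a = g.a2 ∨ a = g.a3 := by
    intro a ha
    by_contra hcon
    push Not at hcon
    have key : ∀ n : ℕ, M * D.sx M X a = n → False := fun n hn =>
      (not_NI_iff (D.sx_bnd hX a).1).2 ⟨n, hn⟩ ha
    by_cases a0 : a = c
    · rw [a0, s0] at key
      exact key 0 (by simp)
    by_cases a1 : a = g.a1
    · rw [a1, s1] at key
      exact key 0 (by simp)
    · rw [s4 a a0 a1 hcon.1 hcon.2] at key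
      exact key M (by simp)
  obtain ⟨p0, p1, p2⟩ := cf_d1 FF h3 g
  obtain ⟨q0, q1, q2⟩ := cf_d2 FF h3 g
  have h1ne : d1 g ≠ 0 := by
    intro h
    rw [h, map_zero] at p0
    exact zero_ne_one p0
  have h2ne : d2 g ≠ 0 := by
    intro h
    rw [h, map_zero] at q1
    exact zero_ne_one q1
  set V := (D.shell hN BF hLa hQ hM t ht).VV X with hV
  have hof := fun v (hv : v ∈ V) => D.of_mem_VV hN BF hLa hQ hM t ht hX hB hg hv
  by_cases n2 : NI M (D.sx M X g.a2)
  · have m1 : d1 g ∈ V := D.d1_mem hN BF hLa hQ hM t ht hX hg n2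
    by_cases n3 : NI M (D.sx M X g.a3)
    · have m2 : d2 g ∈ V := D.d2_mem hN BF hLa hQ hM t ht hX hg n3
      have e1 : {a : F | ⌊(M : ℝ) * D.sx M X a⌋₊ < ⌈(M : ℝ) * D.sx M X a⌉₊} = {g.a2, g.a3} := by
        ext a
        constructor
        · intro ha
          exact hset a ha
        · rintro (rfl | rfl)
          · exact n2
          · exact n3
      rw [e1, ncard_pair g.h23]
      have hli : LinearIndependent ℝ ![d1 g, d2 g] := by
        rw [LinearIndependent.pair_iff]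
        intro x y hxy
        have k0 := congrArg (cf FF h3 g 0) hxy
        have k1 := congrArg (cf FF h3 g 1) hxy
        simp only [map_add, map_smul, smul_eq_mul, map_zero, p0, p1, q0, q1] at k0 k1
        constructor <;> linarith
      have e2 : V = Submodule.span ℝ (Set.range ![d1 g, d2 g]) := by
        apply le_antisymm
        · intro v hv
          rw [(hof v hv).1]
          exact add_mem (Submodule.smul_mem _ _ (Submodule.subset_span ⟨0, rfl⟩))
            (Submodule.smul_mem _ _ (Submodule.subset_span ⟨1, rfl⟩))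
        · rw [Submodule.span_le]
          rintro _ ⟨k, rfl⟩
          fin_cases k
          · exact m1
          · exact m2
      rw [e2, finrank_span_eq_card hli, Fintype.card_fin]
    · have e1 : {a : F | ⌊(M : ℝ) * D.sx M X a⌋₊ < ⌈(M : ℝ) * D.sx M X a⌉₊} = {g.a2} := by
        ext a
        constructor
        · intro ha
          rcases hset a ha with h | h
          · exact h
          · exact absurd (h ▸ ha : NI M (D.sx M X g.a3)) n3
        · rintro rfl
          exact n2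
      rw [e1, ncard_singleton]
      have e2 : V = Submodule.span ℝ {d1 g} := by
        apply le_antisymm
        · intro v hv
          obtain ⟨h5, -, h6⟩ := hof v hv
          rw [h5, h6 n3, zero_smul, add_zero]
          exact Submodule.smul_mem _ _ (Submodule.mem_span_singleton_self _)
        · rw [Submodule.span_le, singleton_subset_iff]
          exact m1
      rw [e2, finrank_span_singleton h1ne]
  · by_cases n3 : NI M (D.sx M X g.a3)
    · have m2 : d2 g ∈ V := D.d2_mem hN BF hLa hQ hM t ht hX hg n3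
      have e1 : {a : F | ⌊(M : ℝ) * D.sx M X a⌋₊ < ⌈(M : ℝ) * D.sx M X a⌉₊} = {g.a3} := by
        ext a
        constructor
        · intro ha
          rcases hset a ha with h | h
          · exact absurd (h ▸ ha : NI M (D.sx M X g.a2)) n2
          · exact h
        · rintro rfl
          exact n3
      rw [e1, ncard_singleton]
      have e2 : V = Submodule.span ℝ {d2 g} := by
        apply le_antisymm
        · intro v hv
          obtain ⟨h5, h6, -⟩ := hof v hv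
          rw [h5, h6 n2, zero_smul, zero_add]
          exact Submodule.smul_mem _ _ (Submodule.mem_span_singleton_self _)
        · rw [Submodule.span_le, singleton_subset_iff]
          exact m2
      rw [e2, finrank_span_singleton h2ne]
    · have e1 : {a : F | ⌊(M : ℝ) * D.sx M X a⌋₊ < ⌈(M : ℝ) * D.sx M X a⌉₊} = ∅ := by
        ext a
        constructor
        · intro ha
          rcases hset a ha with h | h
          · exact n2 (h ▸ ha : NI M (D.sx M X g.a2))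
          · exact n3 (h ▸ ha : NI M (D.sx M X g.a3))
        · intro ha
          exact absurd ha (notMem_empty a)
      rw [e1, ncard_empty]
      have e2 : V = ⊥ := by
        rw [eq_bot_iff]
        intro v hv
        obtain ⟨h5, h6, h7⟩ := hof v hv
        rw [h7 n3, h6 n2, zero_smul, zero_smul, add_zero] at h5
        exact h5
      rw [e2, finrank_bot]

end BD

end Crest.Agent.R096.Fbr_628
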