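import Crest.Agent.R096.Fbr4_628

/-!
# Row 96, FAN (helper628), part 5: the prism shell of a brick, bounds

`BD.shell : PS 3` (box with corners `lo, hi`, integer coordinates `X = (x - o) / (w / M)`), its
inequalities are bounded by `4 B ^ 2` and its tiles (except the core) by `8 B`, `B = 2 R Md`, uniformly
in the brick and in `M`.
-/

set_option autoImplicit false
set_option linter.unusedSectionVars false

open Set

namespace Crest.Agent.R096.Fbr_628

open Crest.Agent.R096.Brk1_582 Crest.Agent.R096.Brk2_582 Crest.Agent.R096.Grd_714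
  Crest.Agent.R096.Brk3_582 Crest.Agent.R096.Brk5_582 Crest.Agent.R096.Bsp_628
  Crest.Agent.R096.Mal_874 Crest.Agent.R096.Cut_874

variable {La : Set (Fin 3 → ℝ)} {F : Set (Bx (Fin 3))} {δ κ0 : ℝ} {N : ℕ}

namespace BD

variable {FF : Foam La (Pc F) (bc (F := F)) N} {h3 : Module.finrank ℝ (Fin 3 → ℝ) = 3} {c : F}
  {o : Fin 3 → ℝ} {B : ℝ} (D : BD FF h3 c o B) {M : ℕ}

theorem lo_lt_hi (hM : 0 < M) (l : Fin 3) : D.lo M l < D.hi M l := by
  have h1 := D.h0 l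
  have h2 : (0 : ℤ) < M := by exact_mod_cast hM
  unfold lo hi
  nlinarith [mul_pos h2 h1]

variable (hN : N ≤ 4) (BF : BoxFoam La F δ κ0) (hLa : IsOpen La)
  (hQ : Quads (Pc F) (bc (F := F)))

open Classical in
/-- the tilings of the faces -/
noncomputable def shF (hM : 0 < M) (σ : Fin 3 → SignType) : PF 3 (D.lo M) (D.hi M) σ :=
  if h : ∃ l0, σ l0 ≠ 0 ∧ ∀ l, l ≠ l0 → σ l = 0 then
    D.faceF hN BF hLa hQ hM h.choose_spec.1 h.choose_spec.2
  else if h : ∃ l1 l2, l1 ≠ l2 ∧ σ l1 ≠ 0 ∧ σ l2 ≠ 0 ∧ ∀ l, l ≠ l1 → l ≠ l2 → σ l = 0 then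
    D.edgeF hN BF hLa hM h.choose_spec.choose_spec.1 h.choose_spec.choose_spec.2.1
      h.choose_spec.choose_spec.2.2.1 h.choose_spec.choose_spec.2.2.2
  else PF.triv (D.lo_lt_hi hM) σ

theorem shF_zero (hM : 0 < M) : D.shF hN BF hLa hQ hM 0 = PF.triv (D.lo_lt_hi hM) 0 := by
  unfold shF
  rw [dif_neg (by rintro ⟨l0, h, -⟩; exact h rfl), dif_neg (by rintro ⟨l1, l2, -, h, -⟩; exact h rfl)]

theorem shF_face (hM : 0 < M) {σ : Fin 3 → SignType} {l0 : Fin 3} (h0 : σ l0 ≠ 0)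
    (h1 : ∀ l, l ≠ l0 → σ l = 0) :
    D.shF hN BF hLa hQ hM σ = D.faceF hN BF hLa hQ hM h0 h1 := by
  have h : ∃ l0, σ l0 ≠ 0 ∧ ∀ l, l ≠ l0 → σ l = 0 := ⟨l0, h0, h1⟩
  have e : h.choose = l0 := by
    by_contra hne
    exact h.choose_spec.1 (h1 _ hne)
  unfold shF
  rw [dif_pos h]
  subst e
  rfl

/-- three kinds of faces -/
theorem shF_cases (hM : 0 < M) (σ : Fin 3 → SignType) :
    (∃ l0, ∃ (h0 : σ l0 ≠ 0) (h1 : ∀ l, l ≠ l0 → σ l = 0),
      D.shF hN BF hLa hQ hM σ = D.faceF hN BF hLa hQ hM h0 h1) ∨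
    (∃ l1 l2, ∃ (hl : l1 ≠ l2) (h01 : σ l1 ≠ 0) (h02 : σ l2 ≠ 0)
      (h1 : ∀ l, l ≠ l1 → l ≠ l2 → σ l = 0),
      D.shF hN BF hLa hQ hM σ = D.edgeF hN BF hLa hM hl h01 h02 h1) ∨
    ((σ = 0 ∨ ∀ l, σ l ≠ 0) ∧ D.shF hN BF hLa hQ hM σ = PF.triv (D.lo_lt_hi hM) σ) := by
  by_cases h : ∃ l0, σ l0 ≠ 0 ∧ ∀ l, l ≠ l0 → σ l = 0
  · obtain ⟨l0, h0, h1⟩ := h
    exact Or.inl ⟨l0, h0, h1, D.shF_face hN BF hLa hQ hM h0 h1⟩
  · right
    by_cases h' : ∃ l1 l2, l1 ≠ l2 ∧ σ l1 ≠ 0 ∧ σ l2 ≠ 0 ∧ ∀ l, l ≠ l1 → l ≠ l2 → σ l = 0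
    · left
      refine ⟨h'.choose, h'.choose_spec.choose, h'.choose_spec.choose_spec.1,
        h'.choose_spec.choose_spec.2.1, h'.choose_spec.choose_spec.2.2.1,
        h'.choose_spec.choose_spec.2.2.2, ?_⟩
      unfold shF
      rw [dif_neg h, dif_pos h']
    · right
      refine ⟨?_, ?_⟩
      · by_contra hcon
        push Not at hcon
        obtain ⟨hne, l3, hl3⟩ := hcon
        obtain ⟨l1, hl1⟩ := Function.ne_iff.1 hne
        have hl1' : σ l1 ≠ 0 := hl1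
        have h13 : l1 ≠ l3 := fun e => hl1' (e ▸ hl3)
        have key : ∀ l1 l3 : Fin 3, l1 ≠ l3 → ∃ l2, l2 ≠ l1 ∧ l2 ≠ l3 ∧
            ∀ l, l = l1 ∨ l = l2 ∨ l = l3 := by decide
        obtain ⟨l2, h21, h23, hall⟩ := key l1 l3 h13
        by_cases h2 : σ l2 = 0
        · refine h ⟨l1, hl1', fun l hl => ?_⟩
          rcases hall l with e | e | e
          · exact absurd e hl
          · rw [e]; exact h2
          · rw [e]; exact hl3
        · refine h' ⟨l1, l2, h21.symm, hl1', h2, fun l hl hl' => ?_⟩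
          rcases hall l with e | e | e
          · exact absurd e hl
          · exact absurd e hl'
          · rw [e]; exact hl3
      · unfold shF
        rw [dif_neg h, dif_neg h']

/-- **the prism shell of a brick** -/
noncomputable def shell (hM : 0 < M) (t : ℤ) (ht : 0 < t) : PS 3 where
  lo := D.lo M
  hi := D.hi M
  lt := D.lo_lt_hi hM
  t := t
  t0 := ht
  F := D.shF hN BF hLa hQ hM
  one := by
    rw [D.shF_zero hN BF hLa hQ hM]
    intro τ τ'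
    exact Subsingleton.elim (α := Unit) τ τ'

variable {hM : 0 < M} {t : ℤ} {ht : 0 < t}

/-- **the inequalities are bounded** -/
theorem shell_bnd {Bn : ℕ} (h1 : 1 ≤ Bn) (hB : 4 * B ^ 2 ≤ Bn) :
    ∀ i, ∀ p ∈ (D.shell hN BF hLa hQ hM t ht).GG i, ∀ l, |p.1 l| ≤ (Bn : ℤ) := by
  intro i
  have hez : ∀ l m : Fin 3, |ez l m| ≤ (Bn : ℤ) := by
    intro l m
    have h1' : (1 : ℤ) ≤ Bn := by exact_mod_cast h1
    unfold ez
    by_cases h : m = l
    · subst h; simpa using h1'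
    · rw [Pi.single_eq_of_ne h]; simp
  have hez' : ∀ l m : Fin 3, |(-ez l) m| ≤ (Bn : ℤ) := by
    intro l m
    rw [Pi.neg_apply, abs_neg]
    exact hez l m
  have hvec : ∀ (σ : Fin 3 → SignType) (f : Flg (Pc F) c) (p0 p1 n : ℤ), |p0| ≤ 1 → |p1| ≤ 1 →
      ∀ l, |(D.vec M σ f p0 p1 n).1 l| ≤ (Bn : ℤ) := by
    intro σ f p0 p1 n h0 h1 l
    have := (D.vec_bnd (M := M) σ f n h0 h1 l).trans hB
    exact_mod_cast this
  rw [PS.forall_GG]
  refine ⟨?_, fun l => ⟨fun _ => ⟨hez' l, hez l⟩, fun _ => ⟨hez' l, hez l⟩⟩⟩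
  obtain ⟨σ, τ⟩ := i
  change ∀ p ∈ (D.shF hN BF hLa hQ hM σ).G τ, _
  change (D.shF hN BF hLa hQ hM σ).Tc at τ
  revert τ
  rcases D.shF_cases hN BF hLa hQ hM σ with ⟨l0, h0, h1, e⟩ | ⟨l1, l2, hl, h01, h02, h1, e⟩ | ⟨-, e⟩
  · rw [e]
    intro τ
    refine D.forall_cellG.2 fun k => hvec _ _ _ _ _ ?_ ?_
    · unfold dat
      split_ifs
      · fin_cases k <;> simp
      · fin_cases k <;> simp
    · unfold dat
      split_ifs
      · fin_cases k <;> simp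
      · fin_cases k <;> simp
  · rw [e]
    intro τ
    exact D.forall_edgG.2 ⟨hvec _ _ _ _ _ (by simp) (by simp), hvec _ _ _ _ _ (by simp) (by simp)⟩
  · rw [e]
    intro τ
    refine forall_boxG.2 fun l _ => ⟨hez l, hez' l⟩

/-- two points of a cell -/
theorem near_corner {f : Flg (Pc F) c} {u : Fin 3 → ℝ} (hM : 0 < M) {j i : ℝ}
    (hw : wf FF h3 f u = 1) (k1 : j ≤ M * cf FF h3 f 0 u) (k2 : M * cf FF h3 f 0 u ≤ j + 1)
    (k3 : i ≤ M * (cf FF h3 f 0 u + cf FF h3 f 1 u))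
    (k4 : M * (cf FF h3 f 0 u + cf FF h3 f 1 u) ≤ i + 1) (l : Fin 3) :
    |u l - ((j / M) * dir (bc (F := F)) f 0 l + ((i - j) / M) * dir (bc (F := F)) f 1 l +
      (1 - i / M) * dir (bc (F := F)) f 2 l)| ≤ 4 * (B * D.w) / M := by
  have hM' : (0 : ℝ) < M := by exact_mod_cast hM
  have h1 := congrFun (cf_sum FF h3 f u) l
  simp only [Pi.add_apply, Pi.smul_apply, smul_eq_mul] at h1
  rw [wf_apply] at hw
  have d0 := D.dle f 0 l
  have d1 := D.dle f 1 l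
  have d2 := D.dle f 2 l
  set a := cf FF h3 f 0 u
  set b := cf FF h3 f 1 u
  have hc : cf FF h3 f 2 u = 1 - a - b := by linarith
  rw [hc] at h1
  set v0 := dir (bc (F := F)) f 0 l
  set v1 := dir (bc (F := F)) f 1 l
  set v2 := dir (bc (F := F)) f 2 l
  have e : u l - ((j / M) * v0 + ((i - j) / M) * v1 + (1 - i / M) * v2) =
      ((M * a - j) * (v0 - v1) + (M * (a + b) - i) * (v1 - v2)) / M := by
    rw [← h1]
    field_simp
    ring
  rw [e, abs_div, abs_of_pos hM', div_le_div_iff_of_pos_right hM']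
  have hv1 : |v0 - v1| ≤ 2 * (B * D.w) := (abs_sub _ _).trans (by linarith)
  have hv2 : |v1 - v2| ≤ 2 * (B * D.w) := (abs_sub _ _).trans (by linarith)
  have ha : |M * a - j| ≤ 1 := abs_le.2 ⟨by linarith, by linarith⟩
  have hb : |M * (a + b) - i| ≤ 1 := abs_le.2 ⟨by linarith, by linarith⟩
  refine (abs_add_le _ _).trans ?_
  rw [abs_mul, abs_mul]
  have p1 : |M * a - j| * |v0 - v1| ≤ 1 * (2 * (B * D.w)) :=
    mul_le_mul ha hv1 (abs_nonneg _) zero_le_one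
  have p2 : |M * (a + b) - i| * |v1 - v2| ≤ 1 * (2 * (B * D.w)) :=
    mul_le_mul hb hv2 (abs_nonneg _) zero_le_one
  linarith

/-- from displacements to integer coordinates -/
theorem dsp_diff (hM : 0 < M) {σ : Fin 3 → SignType} {X Y : Fin 3 → ℝ} {l : Fin 3} (hl : σ l = 0)
    {r : ℝ} (h : |D.dsp M σ X l - D.dsp M σ Y l| ≤ r * D.w / M) : |Y l - X l| ≤ r := by
  have hM' : (0 : ℝ) < M := by exact_mod_cast hM
  have hw := D.w0
  simp only [dsp, if_pos hl] at h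
  have e : D.w / M * (X l - M * D.z l) - D.w / M * (Y l - M * D.z l) = D.w / M * (X l - Y l) := by
    ring
  rw [e, abs_mul, abs_of_pos (by positivity : 0 < D.w / M)] at h
  have e2 : r * D.w / M = D.w / M * r := by ring
  rw [e2] at h
  have := le_of_mul_le_mul_left h (by positivity : 0 < D.w / M)
  rwa [abs_sub_comm]

/-- **the tiles are bounded** -/
theorem shell_size {R0 : ℝ} (hR : 8 * B ≤ R0) (htR : (t : ℝ) ≤ R0) :
    ∀ i, i ≠ (D.shell hN BF hLa hQ hM t ht).core →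
      ∀ u ∈ ZP ((D.shell hN BF hLa hQ hM t ht).GG i),
      ∀ v ∈ ZP ((D.shell hN BF hLa hQ hM t ht).GG i), ∀ l, |v l - u l| ≤ R0 := by
  intro i hi X hX Y hY l
  obtain ⟨hX1, hX2⟩ := (PS.mem_ZP _).1 hX
  obtain ⟨hY1, hY2⟩ := (PS.mem_ZP _).1 hY
  have htpos : (0 : ℝ) < t := by exact_mod_cast ht
  by_cases hl : i.1 l = 0
  · obtain ⟨σ, τ⟩ := i
    change (D.shF hN BF hLa hQ hM σ).Tc at τ
    change X ∈ ZP ((D.shF hN BF hLa hQ hM σ).G τ) at hX1
    change Y ∈ ZP ((D.shF hN BF hLa hQ hM σ).G τ) at hY1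
    change σ l = 0 at hl
    have hσ : σ ≠ 0 := by
      rintro rfl
      exact hi (by
        unfold PS.core
        exact congrArg _ ((D.shell hN BF hLa hQ hM t ht).one _ _))
    clear hX hY hX2 hY2 hi
    revert hX1 hY1
    revert τ
    rcases D.shF_cases hN BF hLa hQ hM σ with ⟨l0, h0, h1, e⟩ | ⟨l1, l2, hll, h01, h02, h1, e⟩ | ⟨h, e⟩
    · rw [e]
      intro τ hX1 hY1
      have hτ : Fct c τ.1.1.1.a1 l0 ((σ l0 : SignType) : ℝ) := τ.2
      have hX1' : X ∈ ZP (D.cellG σ τ.1) := hX1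
      have hY1' : Y ∈ ZP (D.cellG σ τ.1) := hY1
      rw [D.mem_ZP_cell hM hτ h0] at hX1' hY1'
      obtain ⟨g, hg, gi, g1, g2, g3, g4⟩ := D.inC_of_cell hQ hτ (D.dsp_coord h0) hX1'
      obtain ⟨g', hg', gi', g1', g2', g3', g4'⟩ := D.inC_of_cell hQ hτ (D.dsp_coord h0) hY1'
      have a1 := D.near_corner hM gi.2 g1 g2 g3 g4 l
      have a2 := D.near_corner hM gi'.2 g1' g2' g3' g4' l
      have key : ∀ g : Flg (Pc F) c, (g = τ.1.1.1 ∨ g = τ.1.1.1.sw ∧ τ.1.1.2.1 = τ.1.1.2.2) →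
          ((((τ.1.1.2.1 : ℕ) : ℝ) / M) * dir (bc (F := F)) g 0 l +
            ((((τ.1.1.2.2 : ℕ) : ℝ) - (τ.1.1.2.1 : ℕ)) / M) * dir (bc (F := F)) g 1 l +
            (1 - ((τ.1.1.2.2 : ℕ) : ℝ) / M) * dir (bc (F := F)) g 2 l) =
          ((((τ.1.1.2.1 : ℕ) : ℝ) / M) * dir (bc (F := F)) τ.1.1.1 0 l +
            ((((τ.1.1.2.2 : ℕ) : ℝ) - (τ.1.1.2.1 : ℕ)) / M) * dir (bc (F := F)) τ.1.1.1 1 l +
            (1 - ((τ.1.1.2.2 : ℕ) : ℝ) / M) * dir (bc (F := F)) τ.1.1.1 2 l) := by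
        intro g hg
        rcases hg with rfl | ⟨rfl, hji⟩
        · rfl
        · rw [hji, dir_sw_zero, dir_sw_two, sub_self, zero_div, zero_mul, zero_mul]
      rw [key g hg] at a1
      rw [key g' hg'] at a2
      refine (D.dsp_diff hM hl (r := 8 * B) ?_).trans hR
      set p := ((((τ.1.1.2.1 : ℕ) : ℝ) / M) * dir (bc (F := F)) τ.1.1.1 0 l +
            ((((τ.1.1.2.2 : ℕ) : ℝ) - (τ.1.1.2.1 : ℕ)) / M) * dir (bc (F := F)) τ.1.1.1 1 l +
            (1 - ((τ.1.1.2.2 : ℕ) : ℝ) / M) * dir (bc (F := F)) τ.1.1.1 2 l)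
      have e1 : D.dsp M σ X l - D.dsp M σ Y l = (D.dsp M σ X l - p) - (D.dsp M σ Y l - p) := by ring
      rw [e1]
      refine (abs_sub _ _).trans ((add_le_add a1 a2).trans (le_of_eq ?_))
      ring
    · rw [e]
      intro τ hX1 hY1
      obtain ⟨⟨f, i⟩, hf1, hf2⟩ := τ
      have hX1' : X ∈ ZP (D.edgG σ (f, i)) := hX1
      have hY1' : Y ∈ ZP (D.edgG σ (f, i)) := hY1
      rw [D.mem_ZP_edg BF hM hll hf1 hf2 h01 h02] at hX1' hY1'
      have X1 := D.inC_of_edg BF hll hf1 hf2 (D.dsp_coord h01) (D.dsp_coord h02) hX1'.1 hX1'.2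
      have Y1 := D.inC_of_edg BF hll hf1 hf2 (D.dsp_coord h01) (D.dsp_coord h02) hY1'.1 hY1'.2
      have X0 := (D.edge_cf0 BF hll hf1 hf2 (D.dsp_coord h01 (M := M) (X := X)) (D.dsp_coord h02)).1
      have Y0 := (D.edge_cf0 BF hll hf1 hf2 (D.dsp_coord h01 (M := M) (X := Y)) (D.dsp_coord h02)).1
      simp only at hX1' hY1'
      have a1 := D.near_corner (f := f) hM (j := 0) (i := ((i : ℕ) : ℝ)) X1.2
        (by rw [X0, mul_zero]) (by rw [X0, mul_zero]; norm_num)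
        (by rw [X0, zero_add]; exact hX1'.1) (by rw [X0, zero_add]; exact hX1'.2) l
      have a2 := D.near_corner (f := f) hM (j := 0) (i := ((i : ℕ) : ℝ)) Y1.2
        (by rw [Y0, mul_zero]) (by rw [Y0, mul_zero]; norm_num)
        (by rw [Y0, zero_add]; exact hY1'.1) (by rw [Y0, zero_add]; exact hY1'.2) l
      refine (D.dsp_diff hM hl (r := 8 * B) ?_).trans hR
      set p := (((0 : ℝ) / M) * dir (bc (F := F)) f 0 l +
            ((((i : ℕ) : ℝ) - 0) / M) * dir (bc (F := F)) f 1 l +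
            (1 - ((i : ℕ) : ℝ) / M) * dir (bc (F := F)) f 2 l)
      have e1 : D.dsp M σ X l - D.dsp M σ Y l = (D.dsp M σ X l - p) - (D.dsp M σ Y l - p) := by ring
      rw [e1]
      refine (abs_sub _ _).trans ((add_le_add a1 a2).trans (le_of_eq ?_))
      ring
    · rcases h with h | h
      · exact absurd h hσ
      · exact absurd hl (h l)
  · rcases hs : i.1 l with _ | _ | _
    · exact absurd hs hl
    · have a := (hX2 l).2 hs
      have b := (hY2 l).2 hs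
      change ((D.lo M l : ℝ) - t ≤ X l ∧ _) at a
      change ((D.lo M l : ℝ) - t ≤ Y l ∧ _) at b
      have a2 : X l ≤ D.lo M l := a.2
      have b2 : Y l ≤ D.lo M l := b.2
      rw [abs_le]
      constructor <;> linarith [a.1, b.1]
    · have a := (hX2 l).1 hs
      have b := (hY2 l).1 hs
      have a1 : (D.hi M l : ℝ) ≤ X l := a.1
      have b1 : (D.hi M l : ℝ) ≤ Y l := b.1
      have a2 : X l ≤ D.hi M l + t := a.2
      have b2 : Y l ≤ D.hi M l + t := b.2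
      rw [abs_le]
      constructor <;> linarith

theorem lo_eq (hM : 0 < M) (l : Fin 3) : c.1.lo l = o l + D.w / M * D.lo M l := by
  have hM' : (M : ℝ) ≠ 0 := by exact_mod_cast hM.ne'
  have h1 := D.ctr l
  have h2 := D.side l
  rw [bc_single] at h1
  unfold hs at h2
  unfold lo
  push_cast
  have : D.w / M * (M * ((D.z l : ℝ) - D.h l)) = D.z l * D.w - D.h l * D.w := by
    field_simp
  rw [this]
  linarith

theorem hi_eq (hM : 0 < M) (l : Fin 3) : c.1.hi l = o l + D.w / M * D.hi M l := by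
  have hM' : (M : ℝ) ≠ 0 := by exact_mod_cast hM.ne'
  have h1 := D.ctr l
  have h2 := D.side l
  rw [bc_single] at h1
  unfold hs at h2
  unfold hi
  push_cast
  have : D.w / M * (M * ((D.z l : ℝ) + D.h l)) = D.z l * D.w + D.h l * D.w := by
    field_simp
  rw [this]
  linarith

/-- the point with integer coordinates `X` is in the brick iff `X` is in the box -/
theorem mem_B0 (hM : 0 < M) {X : Fin 3 → ℝ} :
    X ∈ (D.shell hN BF hLa hQ hM t ht).B0 ↔ D.pt M X ∈ Pc F c := by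
  have h1 : D.pt M X = bc ({c} : Set F) + D.dsp M 0 X :=
    D.pt_eq hM (fun l h => absurd (show (0 : SignType) = 1 from h) (by decide))
      (fun l h => absurd (show (0 : SignType) = -1 from h) (by decide))
  rw [h1, mem_Pc]
  exact forall_congr' fun l => (D.dsp_range hM (σ := 0) rfl).symm

end BD

end Crest.Agent.R096.Fbr_628
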