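import Crest.Agent.R096.Mdd3_360
import Crest.Agent.R096.Fbr5_628

/-!
Row 96 (S0127), helper360.  MD-DATA, part 4: 628's shell in 874's block, the whole `MD`, and `Cores` + `Fine`
on its meshes.

* **`blkD`** : the block of a brick with 628's prism shell (`m` = subdivision number, `t` = thickness);
  `blkD_Kc`, `blkD_N`, `blkD_uA`, `blkD_u_le`, `blkD_rt`, `blkD_bnd`, `blkD_size`;
* **`md_gen`** : the mesh data `MD E3 3 J` (any injective family of bricks);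
* **`cf_md`** : `Mbf_337.Cores` and `Mbf_337.Fine` for all meshes of such an `MD` (all bricks exact).
-/

set_option autoImplicit false
set_option linter.style.longLine false
set_option linter.unusedSectionVars false

open MeasureTheory Set Filter Topology Metric

namespace Crest.Agent.R096.Mdd_360

open Crest.Agent.R096.Bsp_628 Crest.Agent.R096.Brk5_582 Crest.Agent.R096.Brk1_582
open Crest.Agent.R096.Brk2_582 Crest.Agent.R096.Brk3_582 Crest.Agent.R096.Grd_714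
open Crest.Agent.R096.SkC1_961 (E3 FoamD Hom3)
open Crest.Agent.R096.EaX_766 (cbx RatA)
open Crest.Agent.R096.Bxs_627 (ctr CoriE fD)
open Crest.Agent.R096.Mal_874 Crest.Agent.R096.Msh_810
open Crest.Agent.R096.Fns_360

noncomputable section

/-! ### the block of a brick -/

section shell

variable {La : Set E3} {F : Set (Bx (Fin 3))} {δ κ0 : ℝ} {N : ℕ} {FF : Foam La (Pc F) (bc (F := F)) N}
  {h3 : Module.finrank ℝ (Fin 3 → ℝ) = 3} {c : F} {o : E3} {B : ℝ} (D : Fbr_628.BD FF h3 c o B)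
  (hN : N ≤ 4) (BF : BoxFoam La F δ κ0) (hLa : IsOpen La) (hQ : Quads (Pc F) (bc (F := F)))
  {m : ℕ} (hm : 0 < m) {t : ℤ} (ht : 0 < t) (A : E3 ≃ᵃ[ℝ] E3) {lam : ℝ} (hl : 0 < lam)

include D in
theorem side_eq (l : Fin 3) : c.1.side l = 2 * (D.h l * D.w) := by
  have h1 : Fbr_628.hs c l = c.1.side l / 2 := rfl
  have h2 := D.side l
  rw [h1] at h2
  linarith

include D in
theorem two_w_le (l : Fin 3) : 2 * D.w ≤ c.1.side l := by
  rw [side_eq D l]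
  have h1 : (1 : ℝ) ≤ D.h l := by exact_mod_cast D.h0 l
  have h2 := D.w0
  nlinarith

/-- the unit of the block -/
def uD (m : ℕ) : ℝ := 2 ^ 3 * (D.w / m)

theorem uD_pos (hm : 0 < m) : 0 < uD D m := by
  have h1 : (0 : ℝ) < m := by exact_mod_cast hm
  have h2 := D.w0
  unfold uD
  positivity

/-- **the block of a brick with 628's prism shell** -/
def blkD : CB E3 3 :=
  mkCB c.1 A hl (uD_pos D hm) 3 le_rfl (D.shell hN BF hLa hQ hm t ht) (t + 10) (le_refl (t + 10))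

theorem blkD_kc : (blkD D hN BF hLa hQ hm ht A hl).kc = 3 := rfl

theorem blkD_S : (blkD D hN BF hLa hQ hm ht A hl).S = D.shell hN BF hLa hQ hm t ht := rfl

theorem blkD_hS (l : Fin 3) : uD D m * (((D.shell hN BF hLa hQ hm t ht).hi l : ℝ) -
    (D.shell hN BF hLa hQ hm t ht).lo l) = 2 ^ 3 * c.1.side l := by
  have h1 := D.lo_eq hm l
  have h2 := D.hi_eq hm l
  have e : c.1.side l = D.w / m * ((D.hi m l : ℝ) - D.lo m l) := by
    change c.1.hi l - c.1.lo l = _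
    rw [h1, h2]
    ring
  change uD D m * ((D.hi m l : ℝ) - D.lo m l) = _
  unfold uD
  rw [e]
  ring

/-- the core of the block -/
theorem blkD_Kc : (blkD D hN BF hLa hQ hm ht A hl).Kc = A ⁻¹' cbx c.1 lam :=
  mkCB_Kc _ _ _ _ _ _ _ _ _ (blkD_hS D hN BF hLa hQ hm ht)

/-- the coordinates of the block are 628's lattice coordinates -/
theorem blkD_ps (y : E3) (l : Fin 3) :
    D.w / m * ps (blkD D hN BF hLa hQ hm ht A hl).a' (blkD D hN BF hLa hQ hm ht A hl).kc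
      ((blkD D hN BF hLa hQ hm ht A hl).ψ y) l + o l =
    (A y l - (1 - lam) * ctr c.1 l) / lam := by
  have hm' : (0 : ℝ) < m := by exact_mod_cast hm
  have hw := D.w0
  unfold blkD
  rw [mkCB_ps]
  have h1 := D.lo_eq hm l
  have e0 : ((D.shell hN BF hLa hQ hm t ht).lo l : ℝ) = D.lo m l := rfl
  rw [e0]
  have e1 : D.w / m * (D.lo m l : ℝ) = c.1.lo l - o l := by linarith
  have e2 : ctr c.1 l - lam * c.1.side l / 2 = (1 - lam) * ctr c.1 l + lam * c.1.lo l := by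
    change (c.1.lo l + c.1.hi l) / 2 - lam * (c.1.hi l - c.1.lo l) / 2 =
      (1 - lam) * ((c.1.lo l + c.1.hi l) / 2) + lam * c.1.lo l
    ring
  rw [mul_add, e1, e2]
  unfold uD
  field_simp
  ring

/-- the block in the target coordinates -/
theorem blkD_N {κ : ℝ} (hκ : (t : ℝ) + 10 ≤ 2 * κ * m) :
    (blkD D hN BF hLa hQ hm ht A hl).N ⊆ A ⁻¹' cbx c.1 ((1 + 2 * κ) * lam) := by
  refine mkCB_N _ _ _ _ _ _ _ _ _ (blkD_hS D hN BF hLa hQ hm ht) fun l => ?_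
  have hm' : (0 : ℝ) < m := by exact_mod_cast hm
  have hw := D.w0
  have h1 := two_w_le D l
  have ht' : (0 : ℝ) < t := by exact_mod_cast ht
  have hκ0 : 0 < κ := by
    by_contra hcon
    push Not at hcon
    have : 2 * κ * m ≤ 0 := by nlinarith
    linarith
  unfold uD
  push_cast
  have h2 : ((t : ℝ) + 10) * (D.w / m) ≤ κ * c.1.side l := by
    rw [mul_div_assoc', div_le_iff₀ hm']
    calc ((t : ℝ) + 10) * D.w ≤ 2 * κ * m * D.w := mul_le_mul_of_nonneg_right hκ hw.le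
      _ = κ * m * (2 * D.w) := by ring
      _ ≤ κ * m * c.1.side l := by gcongr
      _ = κ * c.1.side l * m := by ring
  nlinarith

theorem blkD_uA (x y : E3) : ‖A y - A x‖ = lam * uD D m *
    dist ((blkD D hN BF hLa hQ hm ht A hl).ψ x) ((blkD D hN BF hLa hQ hm ht A hl).ψ y) :=
  mkCB_uA _ _ _ _ _ _ _ _ _ x y

include hm hl in
/-- a set of `R0` cells is `R0 / m` bricks big -/
theorem blkD_u_le (hl1 : lam ≤ 1) {R0 : ℝ} (hR0 : 0 ≤ R0) :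
    lam * uD D m * (R0 / 2 ^ 3) ≤ R0 / m * c.1.sz := by
  have hm' : (0 : ℝ) < m := by exact_mod_cast hm
  have hw := D.w0
  have h1 := two_w_le D 0
  have h2 := Bx.side_le_sz c.1 0
  unfold uD
  have e : lam * (2 ^ 3 * (D.w / m)) * (R0 / 2 ^ 3) = R0 / m * (lam * D.w) := by
    field_simp
  rw [e]
  have h3 : lam * D.w ≤ c.1.sz := by nlinarith
  exact mul_le_mul_of_nonneg_left h3 (by positivity)

theorem blkD_rt {uE Md : ℝ} (huE : 0 < uE) (hA : RatA o uE A) (hdy : Dy o uE Md c.1)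
    (hlq : ∃ q : ℚ, lam = q) :
    ∃ (Bm : Fin 3 → Fin 3 → ℤ) (d : ℕ), 0 < d ∧
      Rt (ContinuousLinearEquiv.refl ℝ E3) (blkD D hN BF hLa hQ hm ht A hl).ψ Bm d ∧
      ∀ l, ∃ z : ℤ, (d : ℝ) * (blkD D hN BF hLa hQ hm ht A hl).a' l = z := by
  refine mkCB_rt _ _ _ _ _ _ _ _ _ huE hA hdy hlq ?_
  obtain ⟨q, -, hq⟩ := bd_w_rat D huE hdy
  refine ⟨2 ^ 3 * q / m, ?_⟩
  unfold uD
  rw [hq]
  push_cast
  ring

theorem blkD_bnd {Bn : ℕ} (h1 : 1 ≤ Bn) (hB : 4 * B ^ 2 ≤ Bn) :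
    ∀ i, ∀ p ∈ (blkD D hN BF hLa hQ hm ht A hl).S.GG i, ∀ l, |p.1 l| ≤ (Bn : ℤ) :=
  Fbr_628.BD.shell_bnd D hN BF hLa hQ h1 hB

theorem blkD_size {R0 : ℝ} (hR : 8 * B ≤ R0) (htR : (t : ℝ) ≤ R0) :
    ∀ i, i ≠ (blkD D hN BF hLa hQ hm ht A hl).S.core →
      ∀ u ∈ ZP ((blkD D hN BF hLa hQ hm ht A hl).S.GG i),
      ∀ v ∈ ZP ((blkD D hN BF hLa hQ hm ht A hl).S.GG i), ∀ l, |v l - u l| ≤ R0 :=
  Fbr_628.BD.shell_size D hN BF hLa hQ hR htR

end shell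

/-! ### the mesh data -/

/-- **mesh data for an injective family of bricks** -/
theorem md_gen {La Om : Set E3} {f : E3 → E3} (hOm : IsOpen Om) (hf : Hom3 f Om La)
    {F : Set (Bx (Fin 3))} {δ κ0 : ℝ} (bf : BoxFoam La F δ κ0)
    {J : Type*} {b : J → F} (hb : Function.Injective b) {A : J → E3 ≃ᵃ[ℝ] E3} {lam : J → ℝ}
    (hl : ∀ j, 0 < lam j) {κ1 κ2 κ3 τ : ℝ} (h32 : κ3 < κ2) (hκ1 : 0 ≤ κ1) (hτ : 0 < τ)
    (hlκ : ∀ j, (1 / 2 + κ2) * lam j + κ1 * κ0 * lam j < 1 / 2)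
    (hcor : ∀ j, CoriE Om f (A j) (b j).1 (lam j) κ1 κ2)
    {Q : J → CB E3 3} (hN : ∀ j, (Q j).N ⊆ A j ⁻¹' cbx (b j).1 ((1 + 2 * κ3) * lam j))
    {D0 : Dat 3} (hD : D0.Om = Om) (hC : 6 ≤ D0.C) {η : J → ℝ} (hη : ∀ j, 0 < η j) :
    ∃ M : MD E3 3 J, M.φ = ContinuousLinearEquiv.refl ℝ E3 ∧ M.D0 = D0 ∧ M.Q = Q ∧
      M.φ ⁻¹' M.D0.Om = Om ∧ (∀ j, M.r j ≤ η j) ∧
      (∀ j, cthickening (M.r j) (M.Q j).N ⊆ A j ⁻¹' cbx (b j).1 ((1 + 2 * κ2) * lam j)) ∧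
      ∀ j (v : E3), ‖v‖ ≤ M.r j → ‖(A j).linear v‖ ≤ τ * (lam j * (b j).1.sz) ∧
        ∀ k, |(A j).linear v k| ≤ τ * (lam j * (b j).1.side k) := by
  obtain ⟨-, hfL, -, -, -, hfc, -⟩ := id hf
  choose η' hη' hη2 using fun j => exists_small (bf.pos _ (b j).2) (A j) (hl j) hτ
  obtain ⟨r, hr, hr1, hr2⟩ := exists_rooms hOm hfc hfL bf hb hl h32 hκ1 hlκ hcor hN hD
    (η := fun j => min (η j) (η' j)) fun j => lt_min (hη j) (hη' j)
  refine ⟨mdR D0 hC Q r hr, rfl, rfl, rfl, ?_, fun j => (hr1 j).trans (min_le_left _ _), hr2,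
    fun j v hv => hη2 j v (hv.trans ((hr1 j).trans (min_le_right _ _)))⟩
  ext x
  rw [mem_preimage, ← hD]
  rfl

/-! ### `Cores` and `Fine` on the meshes -/

section univ

variable {La Om : Set E3} {f : E3 → E3} {F : Set (Bx (Fin 3))} {δ κ0 R c0 : ℝ}

/-- **all bricks exact: `Cores` and `Fine` for every admissible mesh.** -/
theorem cf_md (hLa : IsOpen La) (hδ : 0 < δ) (hR : 0 < R) (bf : BoxFoam La F δ κ0) (cmp : Cmp F R)
    (hκ0 : 1 ≤ κ0) (hc : 0 < c0) (hc2 : c0 * κ0 ≤ 1) (lam : F → ℝ) (hl : ∀ c, c0 ≤ lam c)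
    (hl1 : ∀ c, lam c < 1) {κ1 κ2 τ η ε : ℝ} (hκ1 : 0 ≤ κ1) (hτ : 0 < τ) (hτ2 : τ ≤ κ2)
    (h2 : κ2 ≤ 1 / 4) (hκ8 : (κ1 + τ) * κ0 ≤ 1 / 8) (hκ12 : (κ1 + τ) * κ0 ≤ κ2 - τ)
    (hlκ : ∀ c, (1 / 2 + κ2) * lam c + κ1 * κ0 * lam c < 1 / 2)
    {A : F → E3 ≃ᵃ[ℝ] E3} (hcor : ∀ c, CoriE Om f (A c) c.1 (lam c) κ1 κ2)
    (M : MD E3 3 F) (hφ : M.φ = ContinuousLinearEquiv.refl ℝ E3) (hOmM : M.φ ⁻¹' M.D0.Om = Om)
    (hK : ∀ c, (M.Q c).Kc = A c ⁻¹' cbx c.1 (lam c))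
    (hroom : ∀ c, cthickening (M.r c) (M.Q c).N ⊆ A c ⁻¹' cbx c.1 ((1 + 2 * κ2) * lam c))
    (hsm : ∀ c (v : E3), ‖v‖ ≤ M.r c → ‖(A c).linear v‖ ≤ τ * (lam c * c.1.sz) ∧
        ∀ k, |(A c).linear v k| ≤ τ * (lam c * c.1.side k)) (X : RD M)
    {uA : F → ℝ} (huA0 : ∀ c, 0 ≤ uA c)
    (huA : ∀ c, ∀ x y, ‖A c y - A c x‖ ≤ uA c * dist ((M.Q c).ψ x) ((M.Q c).ψ y))
    (hη : ∀ c, uA c * (X.R c / 2 ^ (M.Q c).kc) ≤ η * c.1.sz)
    (hε : KI δ κ0 R c0 * (η + 2 * (κ1 + τ)) ≤ ε)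
    (hF : ∀ x ∈ Om, FineS (fD bf cmp hκ0 hc hc2 lam hl hl1) f ε
      (closedBall x (M.D0.ρ x) ∩ (Om ∩ offO f (O34 lam))))
    {k : F → ℕ} (hk : M.Sc k) (a : Fin 3 → ℝ) {v : F → E3} (hv : M.Adm v) :
    Mbf_337.Cores (fD bf cmp hκ0 hc hc2 lam hl hl1) (M.mesh hk a hv) f (κ1 + τ) (κ2 - τ) univ
      (fun c => {ctM M hk a hv c}) (fun c => {ctM M hk a hv c}) (fun c => {ctM M hk a hv c})
      (ctM M hk a hv) (fun c => trA (A c) (v c)) lam (fun c => Bxs_627.zz c.1 (lam c)) (fun _ x => x)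
      (fun _ _ => 0) ∧
    Mbf_337.Fine (fD bf cmp hκ0 hc hc2 lam hl hl1) (M.mesh hk a hv) f ε
      (fun c => {ctM M hk a hv c}) := by
  have hlc : ∀ c, 0 < lam c := fun c => hc.trans_le (hl c)
  have hv' : ∀ c, ‖v c‖ ≤ M.r c := by
    intro c
    have h1 := hv c
    rw [hφ] at h1
    exact h1
  have hcor' : ∀ c, CoriE (M.φ ⁻¹' M.D0.Om) f (trA (A c) (v c)) c.1 (lam c) (κ1 + τ) (κ2 - τ) := by
    intro c
    rw [hOmM]
    exact cor_tr (hcor c) (hsm c (v c) (hv' c))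
  refine ⟨cores_MD M hk a hv bf cmp hκ0 hc hc2 lam hl hl1 (κ2' := κ2 - τ) (by linarith)
    (by linarith) (by linarith) (by linarith) hκ12 hκ12 (fun c => ?_) hK hcor', ?_⟩
  · have h1 := hlκ c
    have h3 : 0 ≤ κ1 * κ0 * lam c := by
      have := hlc c
      positivity
    have h4 : 0 ≤ τ * lam c := mul_nonneg hτ.le (hlc c).le
    nlinarith
  refine fine_MD M hk a hv hLa hδ hR bf cmp hκ0 hc hc2 lam hl hl1 (by linarith) hκ8 hK hcor' X
    (ρ := M.D0.ρ) (fun _ => le_rfl) ?_ (κw := fun _ => κ1 + τ) (η := fun _ => η) ?_ huA0 huA hη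
    (fun _ => hε)
  · intro x hx
    have hxO : x ∈ Om := by
      rw [← hOmM]
      exact hx
    have h1 := hF x hxO
    rw [hOmM]
    rw [hφ]
    exact h1
  · intro c x hx
    have hxN : x - v c ∈ (M.Q c).N := ((M.Q c).mem_N_tr (v c) x).1 hx
    have hxt : x ∈ cthickening (M.r c) (M.Q c).N := by
      refine mem_cthickening_of_dist_le x (x - v c) _ _ hxN ?_
      rw [dist_eq_norm, sub_sub_cancel]
      exact hv' c
    have hxA := hroom c hxt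
    obtain ⟨hxO, h5⟩ := img_open (bf.pos _ c.2) (bf.asp _ c.2) (hlc c) hκ1 (hlκ c) (hcor c) hxA
    refine ⟨Bx.mem_set.2 fun i => ⟨(h5 i).1.le, (h5 i).2.le⟩, ?_⟩
    have h6 := (hcor c x (Or.inr fun i => (hxA i).trans (le_of_eq (by ring)))).2
    have h7 := (hsm c (v c) (hv' c)).1
    have e : f x - trA (A c) (v c) x = (f x - A c x) + (A c).linear (v c) := by
      rw [← trA_sub (A c) (v c) x]; abel
    rw [e]
    refine (norm_add_le _ _).trans ?_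
    have hs := Bx.sz_pos (bf.pos _ c.2)
    have h8 : lam c * c.1.sz ≤ c.1.sz := by nlinarith [hl1 c]
    have h9 : (κ1 + τ) * (lam c * c.1.sz) ≤ (κ1 + τ) * c.1.sz :=
      mul_le_mul_of_nonneg_left h8 (by linarith)
    linarith

end univ

end

end Crest.Agent.R096.Mdd_360
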