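import Crest.Agent.R096.Wd16_120
import Crest.Agent.R096.Fbr9_628
import Crest.Agent.R096.Mdd4_360

/-!
Row 96, exact cores (helper120), part 17: the grid clause for the blocks `blkD` of helper360 (628's prism
shell in 874's block).
-/

set_option autoImplicit false
set_option linter.unusedSectionVars false
set_option linter.style.longLine false

open Set Filter Topology Metric MeasureTheory
open scoped ENNReal

namespace Crest.Agent.R096.Wd_120

open Crest.Agent.R096.Bsp_628 Crest.Agent.R096.Brk1_582 Crest.Agent.R096.Brk2_582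
open Crest.Agent.R096.Brk3_582 Crest.Agent.R096.Brk5_582 Crest.Agent.R096.Grd_714
open Crest.Agent.R096.Msh_715 Crest.Agent.R096.Ls_222 Crest.Agent.R96.Sg1_199
open Crest.Agent.R096.SkC1_961 (th)
open Crest.Agent.R096.Msh_810 (ps)
open Crest.Agent.R096.Bxs_627 (zz ctr)
open Crest.Agent.R096.Mal_874 Crest.Agent.R096.Mcc_715
open Crest.Agent.R096.Mdd_360 (blkD blkD_ps)

section shell

variable {La : Set (Fin 3 → ℝ)} {F : Set (Bx (Fin 3))} {δ κ0 : ℝ} {N : ℕ}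
  {FF : Foam La (Pc F) (bc (F := F)) N}
  {h3 : Module.finrank ℝ (Fin 3 → ℝ) = 3} {c : F} {o : Fin 3 → ℝ} {B : ℝ} (D : Fbr_628.BD FF h3 c o B)
  (hN : N ≤ 4) (BF : BoxFoam La F δ κ0) (hLa : IsOpen La) (hQ : Quads (Pc F) (bc (F := F)))
  {m : ℕ} (hm : 0 < m) {t : ℤ} (ht : 0 < t)

/-- **the grid clause of 628's shell** -/
theorem gridS_shell : GridS F (D.shell hN BF hLa hQ hm t ht) (D.pt m) m := by
  intro u hu hw
  have hP : D.pt m u ∈ Pc F c := (D.box_iff hm).1 hu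
  have hB : D.OnB m u := hw
  refine ⟨?_, D.finrank_VV hN BF hLa hQ hm t ht hP hB⟩
  ext v
  have h1 := D.mem_CC_iff hN BF hLa hQ hm t ht hP hB (Y := v)
  refine (show v ∈ cell (D.shell hN BF hLa hQ hm t ht) u ↔
    v ∈ (D.shell hN BF hLa hQ hm t ht).CC u from Iff.rfl).trans (h1.trans ?_)
  exact and_congr (D.box_iff hm).symm Iff.rfl

variable (A : (Fin 3 → ℝ) ≃ᵃ[ℝ] (Fin 3 → ℝ)) {lam : ℝ} (hl : 0 < lam)

/-- the exact map in the coordinates of the block -/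
theorem th_blkD (y : Fin 3 → ℝ) : th A lam (zz c.1 lam) y =
    D.pt m (uc (blkD D hN BF hLa hQ hm ht A hl) y) := by
  funext l
  have h1 := blkD_ps D hN BF hLa hQ hm ht A hl y l
  show (A y l - zz c.1 lam l) / lam = o l + D.w / m * _
  rw [add_comm (o l), h1]
  rfl

/-- **the clause `grid` for the tiling of the block** (= `Blk.grid` of `Ea0_961`) -/
theorem grid_blkD (k : ℕ) (hk : (blkD D hN BF hLa hQ hm ht A hl).kc ≤ k) :
    ∀ x ∈ (blkD D hN BF hLa hQ hm ht A hl).Kc,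
      x ∉ I (((blkD D hN BF hLa hQ hm ht A hl).T k hk).H ((blkD D hN BF hLa hQ hm ht A hl).cix k hk)) →
      ((blkD D hN BF hLa hQ hm ht A hl).T k hk).cc x =
        {y | y ∈ (blkD D hN BF hLa hQ hm ht A hl).Kc ∧ ∀ a : F,
          (⌊m * sc (Pc F) (bc (F := F)) (th A lam (zz c.1 lam) x) a⌋₊ : ℝ) ≤
            m * sc (Pc F) (bc (F := F)) (th A lam (zz c.1 lam) y) a ∧
          m * sc (Pc F) (bc (F := F)) (th A lam (zz c.1 lam) y) a ≤
            ⌈m * sc (Pc F) (bc (F := F)) (th A lam (zz c.1 lam) x) a⌉₊} ∧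
      ((blkD D hN BF hLa hQ hm ht A hl).T k hk).dim x =
        {a : F | ⌊m * sc (Pc F) (bc (F := F)) (th A lam (zz c.1 lam) x) a⌋₊ <
          ⌈m * sc (Pc F) (bc (F := F)) (th A lam (zz c.1 lam) x) a⌉₊}.ncard := by
  intro x hx hn
  have hc := coreAt_T (blkD D hN BF hLa hQ hm ht A hl) k hk
  have h := hc.grid (gridS_shell D hN BF hLa hQ hm ht) (th_blkD D hN BF hLa hQ hm ht A hl) x
    (by rw [hc.tile]; exact hx) hn
  rw [hc.tile] at h
  exact h

/-- **the clause `grid` of `Mbf_337.Words`** at the translated core of `blkD` in any tiling -/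
theorem grid_mesh {Om : Set (Fin 3 → ℝ)} {ι : Type} {T : Tiling Om ι} {i : ι} {w : Fin 3 → ℝ}
    (h : CoreAt T i ((blkD D hN BF hLa hQ hm ht A hl).tr w))
    {A' : (Fin 3 → ℝ) ≃ᵃ[ℝ] (Fin 3 → ℝ)} (hA : ∀ y, A' y = A (y - w)) :
    ∀ x ∈ P (T.H i), x ∉ I (T.H i) →
      T.cc x = {y | y ∈ P (T.H i) ∧ ∀ a : F,
        (⌊m * sc (Pc F) (bc (F := F)) (th A' lam (zz c.1 lam) x) a⌋₊ : ℝ) ≤
          m * sc (Pc F) (bc (F := F)) (th A' lam (zz c.1 lam) y) a ∧
        m * sc (Pc F) (bc (F := F)) (th A' lam (zz c.1 lam) y) a ≤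
          ⌈m * sc (Pc F) (bc (F := F)) (th A' lam (zz c.1 lam) x) a⌉₊} ∧
      T.dim x = {a : F | ⌊m * sc (Pc F) (bc (F := F)) (th A' lam (zz c.1 lam) x) a⌋₊ <
        ⌈m * sc (Pc F) (bc (F := F)) (th A' lam (zz c.1 lam) x) a⌉₊}.ncard :=
  h.grid_tr (coreAt_T _ (blkD D hN BF hLa hQ hm ht A hl).kc le_rfl) hA
    (grid_blkD D hN BF hLa hQ hm ht A hl _ le_rfl)

end shell

end Crest.Agent.R096.Wd_120
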