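import Crest.Agent.R096.Wd4_120
import Crest.Agent.R96.Push9_899

/-!
# Row 96 (S0127), helper124.  Two concentric homothetic stages are the radial projection (the push of
`fN` of helper635, NO0 `p ≥ 3`).
-/

set_option autoImplicit false
set_option linter.unusedSectionVars false

open Set Filter Topology Metric MeasureTheory

namespace Crest.Agent.R096.Wdn_124

open Crest.Agent.R096.Bsp_628 Crest.Agent.R096.Bxs_627 Crest.Agent.R096.Wd_120
open Crest.Agent.R96.Push_899

variable {Q : Bx (Fin 3)} (hQ : Q.Pos)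

/-- concentric boxes are nested, strictly -/
theorem inner_cb' {l1 l2 : ℝ} (h1 : 0 ≤ l1) (h2 : 0 < l2) (h12 : l1 ≤ 3 / 4 * l2) :
    Inner (cb Q hQ l2 h2.le) (cb Q hQ l1 h1) := by
  refine ⟨fun i => ?_, fun i => ?_, fun i => ?_⟩
  · rw [cb, hb_W, qb_W]
    exact mul_pos h2 (Bx.side_pos hQ i)
  · rw [cb_lo, cb_lo, cb, hb_W, qb_W]
    have := mul_le_mul_of_nonneg_right h12 (Bx.side_pos hQ i).le
    linarith
  · rw [cb_hi, cb_hi, cb, hb_W, qb_W]
    have := mul_le_mul_of_nonneg_right h12 (Bx.side_pos hQ i).le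
    linarith

theorem psh_out {l2 : ℝ} (h2 : 0 ≤ l2) (h21 : l2 < 1) {y : Fin 3 → ℝ} (hy : 0 < mu Q y) :
    psh (qb Q hQ) (cb Q hQ l2 h2) y = rp Q y := by
  rw [← cb_one hQ zero_le_one, psh_cb hQ h2 zero_le_one h21 hy]
  funext k
  unfold rp
  ring

/-- **two concentric homothetic stages are the radial projection from the centre** -/
theorem psi_cb_eq_rp {l1 l2 : ℝ} (h1 : 0 ≤ l1) (h2 : 0 < l2) (h12 : l1 < l2) (h21 : l2 < 1)
    {y : Fin 3 → ℝ} (hy : 0 < mu Q y) :
    psi (qb Q hQ) (cb Q hQ l2 h2.le) (cb Q hQ l1 h1) y = rp Q y := by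
  by_cases hC : y ∈ (cb Q hQ l2 h2.le).S
  · rw [psi_in hC, psh_cb hQ h1 h2.le h12 hy]
    have hmu : mu Q (fun k => ctr Q k + l2 / mu Q y * (y k - ctr Q k)) = l2 := by
      have e : nc Q (fun k => ctr Q k + l2 / mu Q y * (y k - ctr Q k)) =
          (l2 / mu Q y) • nc Q y := by
        funext k
        simp only [nc, Pi.smul_apply, smul_eq_mul]
        ring
      unfold mu at hy ⊢
      rw [show nc Q (fun k => ctr Q k + l2 / ‖nc Q y‖ * (y k - ctr Q k)) =
        (l2 / ‖nc Q y‖) • nc Q y from e, norm_smul, Real.norm_eq_abs,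
        abs_of_pos (div_pos h2 hy), div_mul_cancel₀ _ hy.ne']
    rw [psh_out hQ h2.le h21 (by rw [hmu]; exact h2)]
    funext k
    unfold rp
    rw [hmu]
    field_simp
    ring
  · have hN : Nest (cb Q hQ l1 h1) (cb Q hQ l2 h2.le) := by
      refine ⟨fun i => ?_, fun i => ?_⟩
      · rw [cb_lo, cb_lo]
        have := mul_lt_mul_of_pos_right h12 (Bx.side_pos hQ i)
        linarith
      · rw [cb_hi, cb_hi]
        have := mul_lt_mul_of_pos_right h12 (Bx.side_pos hQ i)
        linarith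
    have h3 : y ∉ (cb Q hQ l2 h2.le).I := fun h => hC fun i => ⟨(h i).1.le, (h i).2.le⟩
    rw [psi_out hN h3]
    exact psh_out hQ h2.le h21 hy

/-- 899's `coreBF` about the centre is the concentric box of ratio `1/4` -/
theorem coreBF_ctr : coreBF (qb Q hQ) (ctr Q) = cb Q hQ (1 / 4) (by norm_num) := by
  have e1 : (coreBF (qb Q hQ) (ctr Q)).hi = (cb Q hQ (1 / 4) (by norm_num)).hi := by
    funext k
    rw [cb_hi]
    simp only [coreBF, coreN, mkBox, Finset.notMem_empty, if_false, qb_W]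
  have e2 : (coreBF (qb Q hQ) (ctr Q)).lo = (cb Q hQ (1 / 4) (by norm_num)).lo := by
    funext k
    rw [cb_lo]
    simp only [coreBF, coreN, mkBox, Finset.notMem_empty, if_false, qb_W]
    have := Bx.side_pos hQ k
    rw [min_eq_left (by linarith)]
  revert e1 e2
  cases coreBF (qb Q hQ) (ctr Q)
  cases cb Q hQ (1 / 4) (by norm_num)
  rintro h1 h2
  simp only at h1 h2
  subst h1 h2
  rfl

/-- **the push of `fN`** (outer stage `coreBF`, hole of ratio `lam / 2`) is radial -/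
theorem psi_coreBF_eq_rp {l1 : ℝ} (h1 : 0 ≤ l1) (h12 : l1 < 1 / 4) {y : Fin 3 → ℝ}
    (hy : 0 < mu Q y) :
    psi (qb Q hQ) (coreBF (qb Q hQ) (ctr Q)) (cb Q hQ l1 h1) y = rp Q y := by
  rw [coreBF_ctr hQ]
  exact psi_cb_eq_rp hQ h1 (by norm_num) h12 (by norm_num) hy

end Crest.Agent.R096.Wdn_124
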