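import Crest.Agent.R096.Fnn1_635
import Crest.Agent.R096.Wdn1_124
import Crest.Agent.R096.Wd12_120
import Crest.Agent.R096.Wd17_120
import Crest.Agent.R096.Mdd5_360
import Crest.Agent.R096.Pmc4_112

/-!
Row 96 (S0127), NO0 for `p ≥ 3` (helper635): **112's `Mok` for the foam `fN`** (all bricks exact) on
874's meshes `M.mesh`, `M : MD E3 3 J`, `J ≃ F`; and in the format of 880's `mkX` / 360's `decoX`.
-/

set_option autoImplicit false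
set_option linter.style.longLine false
set_option linter.unusedSectionVars false
set_option linter.unusedVariables false

open MeasureTheory Set Filter Topology Metric
open scoped ENNReal

namespace Crest.Agent.R096.Fnn_635

open Crest.Agent.R096.Bsp_628 Crest.Agent.R096.Brk1_582 Crest.Agent.R096.Brk2_582
open Crest.Agent.R096.Brk3_582
open Crest.Agent.R096.Brk5_582
open Crest.Agent.R096.Msh_715
open Crest.Agent.R96.Push_899
open Crest.Agent.R096.SkC1_961 (E3 Hom3 IsPush FoamD th)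
open Crest.Agent.R096.EaX_766 (cbx)
open Crest.Agent.R096.Bxs_627 (ctr cb CoriE qb zz qb_W zz_lo zz_hi)
open Crest.Agent.R096.Core_124
open Crest.Agent.R096.Mal_874 Crest.Agent.R096.Msh_810
open Crest.Agent.R096.Fns_360 Crest.Agent.R096.Mdd_360
open Crest.Agent.R096.Bxc1_635
open Crest.Agent.R096.Wd_120 (mu rp CoreAt coreAt_mesh words_blk_good words_mok)
open Crest.Agent.R096.Mbf_337 (sb Words)
open Crest.Agent.R096.Exa_365 (GoodW)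
open Crest.Agent.R096.Ls_222 (Edg ea ev eIn)
open Crest.Agent.R096.Mfa_880 (Deco)
open Crest.Agent.R096.Pmc_112 (Mok)

noncomputable section

variable {δ κ0 R c0 : ℝ} {La Om : Set E3} {F : Set (Bx (Fin 3))}

/-- **the push of `fN` is radial off the `3/4` core** (124) -/
theorem push_fN (bf : BoxFoam La F δ κ0) (cmp : Cmp F R) (hκ0 : 1 ≤ κ0) (hc : 0 < c0)
    (hc2 : c0 * (8 * κ0) ≤ 1) (lam : F → ℝ) (hl : ∀ c, 0 < lam c) (hl4 : ∀ c, lam c ≤ 1 / 4)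
    (c : F) : ∀ y ∈ Pc (fN bf cmp hκ0 hc hc2 lam hl hl4).F c, 3 / 4 * lam c ≤ mu c.1 y →
      (fN bf cmp hκ0 hc hc2 lam hl hl4).pu c y = rp c.1 y := by
  intro y _ hy
  have h1 := hl c
  have h2 := hl4 c
  exact Wdn_124.psi_coreBF_eq_rp (bf.pos _ c.2) (half_pos h1).le (by linarith)
    (lt_of_lt_of_le (by positivity) hy)

section gen

variable {J : Type} (b : J ≃ F) (M : MD E3 3 J) {k : J → ℕ} (hk : M.Sc k) (a : Fin 3 → ℝ)
  {v : J → E3} (hv : M.Adm v)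

/-- the core tiles -/
def ctB (c : F) : M.OIx hk a hv ⊕ Σ j, M.IIx hk a hv j :=
  Sum.inr ⟨b.symm c, M.core hk a hv (b.symm c)⟩

theorem ctB_inj : Function.Injective (ctB b M hk a hv) := by
  intro c c' h
  have h1 := Sum.inr.inj h
  rw [Sigma.mk.injEq] at h1
  exact b.symm.injective h1.1

theorem P_ctB {A : F → E3 ≃ᵃ[ℝ] E3} {lam : F → ℝ}
    (hK : ∀ j, (M.Q j).Kc = A (b j) ⁻¹' cbx (b j).1 (lam (b j))) (c : F) :
    P ((M.mesh hk a hv).H (ctB b M hk a hv c)) =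
      trA (A c) (v (b.symm c)) ⁻¹' cbx c.1 (lam c) := by
  have h1 := hK (b.symm c)
  rw [b.apply_symm_apply] at h1
  exact P_core_tr M hk a hv h1

/-- **`Mbf_337.Fine` on the aligned mesh, all bricks exact**, `fN`, `J ≃ F`. -/
theorem fine_B (hLa : IsOpen La) (hδ : 0 < δ) (hR : 0 < R) (bf : BoxFoam La F δ κ0) (cmp : Cmp F R)
    (hκ0 : 1 ≤ κ0) (hc : 0 < c0) (hc2 : c0 * (8 * κ0) ≤ 1) (lam : F → ℝ) (hl : ∀ c, 0 < lam c)
    (hl4 : ∀ c, lam c ≤ 1 / 4) {lam0 : ℝ} (h00 : 0 < lam0) (hl0 : ∀ c, lam0 ≤ lam c)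
    {f : E3 → E3} {κ1 κ2 : ℝ} (hκ1 : 0 ≤ κ1) (hκ : κ1 * κ0 ≤ 1 / 8)
    {A : F → E3 ≃ᵃ[ℝ] E3} (hK : ∀ j, (M.Q j).Kc = A (b j) ⁻¹' cbx (b j).1 (lam (b j)))
    (hcor : ∀ c, CoriE (M.φ ⁻¹' M.D0.Om) f (trA (A c) (v (b.symm c))) c.1 (lam c) κ1 κ2) (X : RD M)
    {ρ : (Fin 3 → ℝ) → ℝ} {ε : ℝ} (hρ : ∀ u, M.D0.ρ u ≤ ρ u)
    (hF : ∀ x, M.φ x ∈ M.D0.Om → FineS (fN bf cmp hκ0 hc hc2 lam hl hl4) f ε
      (M.φ ⁻¹' closedBall (M.φ x) (ρ (M.φ x)) ∩ ((M.φ ⁻¹' M.D0.Om) ∩ offO f (O34 lam))))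
    {κw η uA : J → ℝ} (hN : ∀ j, ∀ x ∈ (M.Bk v j).N, f x ∈ (b j).1.set ∧
      ‖f x - trA (A (b j)) (v j) x‖ ≤ κw j * (b j).1.sz)
    (huA0 : ∀ j, 0 ≤ uA j)
    (huA : ∀ j, ∀ x y, ‖A (b j) y - A (b j) x‖ ≤ uA j * dist ((M.Q j).ψ x) ((M.Q j).ψ y))
    (hη : ∀ j, uA j * (X.R j / 2 ^ (M.Q j).kc) ≤ η j * (b j).1.sz)
    (hε : ∀ j, KIT δ κ0 R c0 lam0 * (η j + 2 * κw j) ≤ ε) :
    Mbf_337.Fine (fN bf cmp hκ0 hc hc2 lam hl hl4) (M.mesh hk a hv) f ε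
      (fun c => {ctB b M hk a hv c}) := by
  refine mbf_fine fun t ht => ?_
  rcases t with p | ⟨j, i⟩
  · refine (fineS_outer M hk a hv hρ hF p).mono fun x hx => ⟨hx, ?_⟩
    exact tile_off bf lam hl hκ1 hκ hcor (fun c => P_ctB b M hk a hv hK c)
      (fun c h => ht c h) hx
  · have hi : i ≠ M.core hk a hv j := by
      rintro rfl
      refine ht (b j) ?_
      rw [mem_singleton_iff]
      unfold ctB
      rw [b.symm_apply_apply]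
    refine fineS_innerMT M hk a hv hLa hδ hR (Φ := fN bf cmp hκ0 hc hc2 lam hl hl4) X
      (hcore_fN bf cmp hκ0 hc hc2 lam hl hl4 (b j)) (fun x => trA (A (b j)) (v j) x) (κw := κw j)
      (η := η j) h00 ((hl0 (b j)).trans ((hl4 (b j)).trans (by norm_num))) (fun x hx hx' => ?_)
      (huA0 j) (fun x y => ?_) (hη j) (hε j) i hi
    · have h1 := hN j x hx
      have hxO : x ∈ M.φ ⁻¹' M.D0.Om := M.Vsub j (MD.N_mem hv j hx)
      have hcj := hcor (b j)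
      rw [b.symm_apply_apply] at hcj
      have hK' : (M.Bk v j).Kc = trA (A (b j)) (v j) ⁻¹' cbx (b j).1 (lam (b j)) := by
        rw [← M.P_core hk a hv j]
        exact P_core_tr M hk a hv (hK j)
      refine ⟨⟨h1.1, (hl0 (b j)).trans (lam_le_tt (bf.pos _ (b j).2) (hl (b j)) (hl4 (b j)) ?_)⟩,
        h1.2⟩
      refine off_core (bf.pos _ (b j).2) (bf.asp _ (b j).2) (hl (b j)) hκ1 hκ hcj hxO ?_
      rw [← hK']
      exact hx'
    · have h1 := huA j (x - v j) (y - v j)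
      rw [trA_apply, trA_apply]
      refine h1.trans (le_of_eq ?_)
      rw [map_sub, map_sub, dist_sub_right]

/-- **`Cores` and `Fine` for every admissible mesh**, `fN`, `J ≃ F` (360's `cf_md`). -/
theorem cf_B {f : E3 → E3} (hLa : IsOpen La) (hδ : 0 < δ) (hR : 0 < R) (bf : BoxFoam La F δ κ0)
    (cmp : Cmp F R) (hκ0 : 1 ≤ κ0) (hc : 0 < c0) (hc2 : c0 * (8 * κ0) ≤ 1) (lam : F → ℝ)
    (hl : ∀ c, 0 < lam c) (hl4 : ∀ c, lam c ≤ 1 / 4) {lam0 : ℝ} (h00 : 0 < lam0)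
    (hl0 : ∀ c, lam0 ≤ lam c) {κ1 κ2 τ η ε : ℝ} (hκ1 : 0 ≤ κ1) (hτ : 0 < τ) (hτ2 : τ ≤ κ2)
    (h2 : κ2 ≤ 1 / 4) (hκ8 : (κ1 + τ) * κ0 ≤ 1 / 8) (hκ12 : (κ1 + τ) * κ0 ≤ κ2 - τ)
    {A : F → E3 ≃ᵃ[ℝ] E3} (hcor : ∀ c, CoriE Om f (A c) c.1 (lam c) κ1 κ2)
    (hφ : M.φ = ContinuousLinearEquiv.refl ℝ E3) (hOmM : M.φ ⁻¹' M.D0.Om = Om)
    (hK : ∀ j, (M.Q j).Kc = A (b j) ⁻¹' cbx (b j).1 (lam (b j)))
    (hroom : ∀ j, cthickening (M.r j) (M.Q j).N ⊆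
      A (b j) ⁻¹' cbx (b j).1 ((1 + 2 * κ2) * lam (b j)))
    (hsm : ∀ j (v : E3), ‖v‖ ≤ M.r j → ‖(A (b j)).linear v‖ ≤ τ * (lam (b j) * (b j).1.sz) ∧
        ∀ k, |(A (b j)).linear v k| ≤ τ * (lam (b j) * (b j).1.side k)) (X : RD M)
    {uA : J → ℝ} (huA0 : ∀ j, 0 ≤ uA j)
    (huA : ∀ j, ∀ x y, ‖A (b j) y - A (b j) x‖ ≤ uA j * dist ((M.Q j).ψ x) ((M.Q j).ψ y))
    (hη : ∀ j, uA j * (X.R j / 2 ^ (M.Q j).kc) ≤ η * (b j).1.sz)
    (hε : KIT δ κ0 R c0 lam0 * (η + 2 * (κ1 + τ)) ≤ ε)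
    (hF : ∀ x ∈ Om, FineS (fN bf cmp hκ0 hc hc2 lam hl hl4) f ε
      (closedBall x (M.D0.ρ x) ∩ (Om ∩ offO f (O34 lam)))) :
    Mbf_337.Cores (fN bf cmp hκ0 hc hc2 lam hl hl4) (M.mesh hk a hv) f (κ1 + τ) (κ2 - τ) univ
      (fun c => {ctB b M hk a hv c}) (fun c => {ctB b M hk a hv c})
      (fun c => {ctB b M hk a hv c}) (ctB b M hk a hv) (fun c => trA (A c) (v (b.symm c))) lam
      (fun c => zz c.1 (lam c)) (fun _ x => x) (fun _ _ => 0) ∧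
    Mbf_337.Fine (fN bf cmp hκ0 hc hc2 lam hl hl4) (M.mesh hk a hv) f ε
      (fun c => {ctB b M hk a hv c}) := by
  have hv' : ∀ j, ‖v j‖ ≤ M.r j := by
    intro j
    have h1 := hv j
    rw [hφ] at h1
    exact h1
  have hcor' : ∀ c, CoriE (M.φ ⁻¹' M.D0.Om) f (trA (A c) (v (b.symm c))) c.1 (lam c) (κ1 + τ)
      (κ2 - τ) := by
    intro c
    rw [hOmM]
    have h1 := hsm (b.symm c) (v (b.symm c)) (hv' (b.symm c))
    rw [b.apply_symm_apply] at h1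
    exact cor_tr (hcor c) h1
  have hlκ : ∀ c, (1 / 2 + κ2) * lam c + κ1 * κ0 * lam c < 1 / 2 := by
    intro c
    have h1 := hl c
    have h3 := hl4 c
    have h4 : κ1 * κ0 ≤ 1 / 8 := by nlinarith
    nlinarith
  refine ⟨coresN bf cmp hκ0 hc hc2 lam hl hl4 (by linarith) (by linarith) (by linarith) hκ12
    (ctB_inj b M hk a hv) hcor' fun c => P_ctB b M hk a hv hK c, ?_⟩
  refine fine_B b M hk a hv hLa hδ hR bf cmp hκ0 hc hc2 lam hl hl4 h00 hl0 (by linarith) hκ8 hK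
    hcor' X (ρ := M.D0.ρ) (fun _ => le_rfl) ?_ (κw := fun _ => κ1 + τ) (η := fun _ => η) ?_ huA0
    huA hη (fun _ => hε)
  · intro x hx
    have hxO : x ∈ Om := by
      rw [← hOmM]
      exact hx
    have h1 := hF x hxO
    rw [hOmM]
    rw [hφ]
    exact h1
  · intro j x hx
    have hxN : x - v j ∈ (M.Q j).N := ((M.Q j).mem_N_tr (v j) x).1 hx
    have hxt : x ∈ cthickening (M.r j) (M.Q j).N := by
      refine mem_cthickening_of_dist_le x (x - v j) _ _ hxN ?_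
      rw [dist_eq_norm, sub_sub_cancel]
      exact hv' j
    have hxA := hroom j hxt
    obtain ⟨hxO, h5⟩ := img_open (bf.pos _ (b j).2) (bf.asp _ (b j).2) (hl (b j)) hκ1
      (hlκ (b j)) (hcor (b j)) hxA
    refine ⟨Bx.mem_set.2 fun i => ⟨(h5 i).1.le, (h5 i).2.le⟩, ?_⟩
    have h6 := (hcor (b j) x (Or.inr fun i => (hxA i).trans (le_of_eq (by ring)))).2
    have h7 := (hsm j (v j) (hv' j)).1
    have e : f x - trA (A (b j)) (v j) x = (f x - A (b j) x) + (A (b j)).linear (v j) := by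
      rw [← trA_sub (A (b j)) (v j) x]; abel
    rw [e]
    refine (norm_add_le _ _).trans ?_
    have hs := Bx.sz_pos (bf.pos _ (b j).2)
    have h8 : lam (b j) * (b j).1.sz ≤ (b j).1.sz := by nlinarith [hl4 (b j)]
    have h9 : (κ1 + τ) * (lam (b j) * (b j).1.sz) ≤ (κ1 + τ) * (b j).1.sz :=
      mul_le_mul_of_nonneg_left h8 (by linarith)
    linarith

end gen

/-- **the words of the exact cores, `fN`** (120's `words_blk_good`), on 874's meshes, `J ≃ F` -/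
theorem words_B {δ κ0 R : ℝ} (hδ : 0 < δ) (hκ : 1 ≤ κ0) (hR : 1 ≤ R) {κb lam0 : ℝ}
    (hκb : 0 < κb) (hl0 : 0 < lam0) (Mx : ℕ) :
    ∃ κw : ℝ, 0 < κw ∧ ∀ (La : Set E3), IsOpen La → ∀ (c0 : ℝ) (F : Set (Bx (Fin 3)))
      (bf : BoxFoam La F δ κ0) (cmp : Cmp F R) (hc : 0 < c0) (hc2 : c0 * (8 * κ0) ≤ 1)
      (lam : F → ℝ) (hl : ∀ c, 0 < lam c) (hl4 : ∀ c, lam c ≤ 1 / 4), (∀ c, lam0 ≤ lam c) →
      ∀ (J : Type) (b : J ≃ F) (M : MD E3 3 J) (k : J → ℕ) (hk : M.Sc k) (a : Fin 3 → ℝ)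
      (v : J → E3) (hv : M.Adm v) (f : E3 → E3) (p : ℝ), 1 ≤ p →
      ContinuousOn f (M.φ ⁻¹' M.D0.Om) → ∀ (D : E3 → E3 →L[ℝ] E3) (κ1 κ2 : ℝ), κ1 ≤ κw → 0 ≤ κ2 →
      ∀ (A : F → E3 ≃ᵃ[ℝ] E3) (m : F → ℕ) (k0 : J → ℕ) (hk0 : ∀ j, (M.Q j).kc ≤ k0 j) (η : ℝ≥0∞),
      Mbf_337.Cores (fN bf cmp hκ hc hc2 lam hl hl4) (M.mesh hk a hv) f κ1 κ2 univ
        (fun c => {ctB b M hk a hv c}) (fun c => {ctB b M hk a hv c})
        (fun c => {ctB b M hk a hv c}) (ctB b M hk a hv) (fun c => trA (A c) (v (b.symm c))) lam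
        (fun c => zz c.1 (lam c)) (fun _ x => x) (fun _ _ => 0) →
      (∀ j, 0 < m (b j) ∧ ∀ x ∈ (M.Q j).Kc,
        x ∉ I (((M.Q j).T (k0 j) (hk0 j)).H ((M.Q j).cix (k0 j) (hk0 j))) →
        ((M.Q j).T (k0 j) (hk0 j)).cc x = {y | y ∈ (M.Q j).Kc ∧ ∀ a : F,
          (⌊m (b j) * sc (Pc F) (bc (F := F))
            (th (A (b j)) (lam (b j)) (zz (b j).1 (lam (b j))) x) a⌋₊ : ℝ) ≤
            m (b j) * sc (Pc F) (bc (F := F))
              (th (A (b j)) (lam (b j)) (zz (b j).1 (lam (b j))) y) a ∧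
          m (b j) * sc (Pc F) (bc (F := F))
            (th (A (b j)) (lam (b j)) (zz (b j).1 (lam (b j))) y) a ≤
            ⌈m (b j) * sc (Pc F) (bc (F := F))
              (th (A (b j)) (lam (b j)) (zz (b j).1 (lam (b j))) x) a⌉₊} ∧
        ((M.Q j).T (k0 j) (hk0 j)).dim x =
          {a : F | ⌊m (b j) * sc (Pc F) (bc (F := F))
            (th (A (b j)) (lam (b j)) (zz (b j).1 (lam (b j))) x) a⌋₊ <
            ⌈m (b j) * sc (Pc F) (bc (F := F))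
              (th (A (b j)) (lam (b j)) (zz (b j).1 (lam (b j))) x) a⌉₊}.ncard) →
      (∀ c, m c ≤ Mx) → η ≠ ∞ → (η ^ (1 / p)).toReal ≤ κw →
      (∀ j, GoodW p (M.φ ⁻¹' M.D0.Om) f D (A (b j))
        (fun e : {e // e ∈ eIn ((M.Q j).T (k0 j) (hk0 j)) ((M.Q j).cix (k0 j) (hk0 j))} => ea e.1)
        (fun e => ev e.1) η (v j)) →
      ∃ Bad : F → Set ℝ, (∀ c', MeasurableSet (Bad c')) ∧
        (∀ c', volume (Bad c') ≤ ENNReal.ofReal κb) ∧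
        ∀ L : F → Finset ℝ, (∀ c', ∀ t ∈ L c', t ∈ Ioo (0 : ℝ) 1 ∧ t ∉ Bad c') →
          Words (fN bf cmp hκ hc hc2 lam hl hl4) (M.mesh hk a hv) f univ (ctB b M hk a hv)
            (fun c => trA (A c) (v (b.symm c))) lam (fun c => zz c.1 (lam c)) m L := by
  obtain ⟨κw, hκw, H⟩ := words_blk_good hδ hκ hR hκb hl0 (by norm_num : (1 / 4 : ℝ) < 1) Mx
  refine ⟨κw, hκw, ?_⟩
  intro La hLa c0 F bf cmp hc hc2 lam hl hl4 hl0' J b M k hk a v hv f p hp hf D κ1 κ2 hκ1 hκ2 A m k0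
    hk0 η hC hgrid hM hη hηw hgood
  have hgrid' := fun c : F => hgrid (b.symm c)
  simp only [b.apply_symm_apply] at hgrid'
  have hgood' := fun c : F => hgood (b.symm c)
  simp only [b.apply_symm_apply] at hgood'
  refine H La (M.φ ⁻¹' M.D0.Om) hLa c0 (fN bf cmp hκ hc hc2 lam hl hl4)
    (M.OIx hk a hv ⊕ Σ j, M.IIx hk a hv j) (M.mesh hk a hv) f p hp hf D κ1 κ2 hκ1 hκ2 univ
    _ _ _ _ _ _ _ _ _ m (fun c => M.Q (b.symm c)) (fun c => k0 (b.symm c))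
    (fun c => hk0 (b.symm c)) A (fun c => v (b.symm c)) η hC (fun c _ => rfl) (fun c _ => ?_)
    (fun c _ y => trA_apply (A c) (v (b.symm c)) y) (fun c _ => ?_) (fun c _ => hM c)
    (fun c _ => ⟨hl0' c, hl4 c⟩)
    (fun c _ => push_fN bf cmp hκ hc hc2 lam hl hl4 c) hη hηw (fun c _ => ?_)
  · exact coreAt_mesh M hk a hv (b.symm c)
  · exact hgrid' c
  · exact hgood' c

/-- the bijection of the blocks with the bricks, `X` contains all bricks -/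
def eqX {F : Set (Bx (Fin 3))} {X : Set F} (hX : ∀ c, c ∈ X) : X ≃ F where
  toFun := Subtype.val
  invFun c := ⟨c, hX c⟩
  left_inv _ := rfl
  right_inv _ := rfl

/-- **`Pmc_112.Mok` FOR `fN`** in the format of 880's `mkX` / 360's `decoX` (`Cores` and `Fine` =
733's `cf_XN`). -/
theorem mok_XN {δ κ0 R : ℝ} (hδ : 0 < δ) (hκ : 1 ≤ κ0) (hR : 1 ≤ R) {κp μ lam0 : ℝ}
    (hκp : 0 < κp) (hμ : 0 < μ) (hl0 : 0 < lam0) (Mx : ℕ) :
    ∃ κw : ℝ, 0 < κw ∧ ∀ (La : Set E3), IsOpen La → ∀ (c0 : ℝ) (F : Set (Bx (Fin 3)))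
      (bf : BoxFoam La F δ κ0) (cmp : Cmp F R) (hc : 0 < c0) (hc2 : c0 * (8 * κ0) ≤ 1)
      (lam : F → ℝ) (hl : ∀ c, 0 < lam c) (hl4 : ∀ c, lam c ≤ 1 / 4), (∀ c, lam0 ≤ lam c) →
      ∀ (X : Set F) (hX : ∀ c, c ∈ X) (M : MD E3 3 X) (k : X → ℕ) (hk : M.Sc k) (a : E3)
      (w : X → E3) (hv : M.Adm fun j => a + w j)
      (i0 : M.OIx hk (M.φ a) hv ⊕ Σ j, M.IIx hk (M.φ a) hv j)
      (fr : (M.OIx hk (M.φ a) hv ⊕ Σ j, M.IIx hk (M.φ a) hv j) → E3 ≃ᵃ[ℝ] E3)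
      (f : E3 → E3) (p : ℝ), 1 ≤ p →
      ContinuousOn f (M.φ ⁻¹' M.D0.Om) → ∀ (D : E3 → E3 →L[ℝ] E3) (κ1 κ2 : ℝ), κ1 ≤ κw → 0 ≤ κ2 →
      ∀ (A : F → E3 ≃ᵃ[ℝ] E3) (m : F → ℕ) (k0 : X → ℕ) (hk0 : ∀ j, (M.Q j).kc ≤ k0 j) (η : ℝ≥0∞),
      Mbf_337.Cores (fN bf cmp hκ hc hc2 lam hl hl4) (M.mesh hk (M.φ a) hv) f κ1 κ2 X
        ((decoX A lam m a w).mkX X (M.mesh hk (M.φ a) hv) i0
          fun c => Sum.inr ⟨c, M.core hk (M.φ a) hv c⟩).J0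
        ((decoX A lam m a w).mkX X (M.mesh hk (M.φ a) hv) i0
          fun c => Sum.inr ⟨c, M.core hk (M.φ a) hv c⟩).J
        ((decoX A lam m a w).mkX X (M.mesh hk (M.φ a) hv) i0
          fun c => Sum.inr ⟨c, M.core hk (M.φ a) hv c⟩).V
        ((decoX A lam m a w).mkX X (M.mesh hk (M.φ a) hv) i0
          fun c => Sum.inr ⟨c, M.core hk (M.φ a) hv c⟩).ct
        (decoX A lam m a w).A (decoX A lam m a w).lam (decoX A lam m a w).z
        (decoX A lam m a w).θ (decoX A lam m a w).φ →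
      Mbf_337.Fine (fN bf cmp hκ hc hc2 lam hl hl4) (M.mesh hk (M.φ a) hv) f κ1
        ((decoX A lam m a w).mkX X (M.mesh hk (M.φ a) hv) i0
          fun c => Sum.inr ⟨c, M.core hk (M.φ a) hv c⟩).J0 →
      (∀ j : X, 0 < m j ∧ ∀ x ∈ (M.Q j).Kc,
        x ∉ I (((M.Q j).T (k0 j) (hk0 j)).H ((M.Q j).cix (k0 j) (hk0 j))) →
        ((M.Q j).T (k0 j) (hk0 j)).cc x = {y | y ∈ (M.Q j).Kc ∧ ∀ a : F,
          (⌊m j * sc (Pc F) (bc (F := F))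
            (th (A j) (lam j) (zz j.1.1 (lam j)) x) a⌋₊ : ℝ) ≤
            m j * sc (Pc F) (bc (F := F)) (th (A j) (lam j) (zz j.1.1 (lam j)) y) a ∧
          m j * sc (Pc F) (bc (F := F)) (th (A j) (lam j) (zz j.1.1 (lam j)) y) a ≤
            ⌈m j * sc (Pc F) (bc (F := F)) (th (A j) (lam j) (zz j.1.1 (lam j)) x) a⌉₊} ∧
        ((M.Q j).T (k0 j) (hk0 j)).dim x =
          {a : F | ⌊m j * sc (Pc F) (bc (F := F)) (th (A j) (lam j) (zz j.1.1 (lam j)) x) a⌋₊ <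
            ⌈m j * sc (Pc F) (bc (F := F)) (th (A j) (lam j) (zz j.1.1 (lam j)) x) a⌉₊}.ncard) →
      (∀ c, m c ≤ Mx) → η ≠ ∞ → (η ^ (1 / p)).toReal ≤ κw →
      (∀ j : X, GoodW p (M.φ ⁻¹' M.D0.Om) f D (A j)
        (fun e : {e // e ∈ eIn ((M.Q j).T (k0 j) (hk0 j)) ((M.Q j).cix (k0 j) (hk0 j))} => ea e.1)
        (fun e => ev e.1) η (a + w j)) →
      Mok (fN bf cmp hκ hc hc2 lam hl hl4) f κp μ κ1 κ2 X
        (((decoX A lam m a w).mkX X (M.mesh hk (M.φ a) hv) i0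
          fun c => Sum.inr ⟨c, M.core hk (M.φ a) hv c⟩).wf fr) := by
  obtain ⟨κw, hκw, H⟩ := words_B hδ hκ hR (κb := κp / 32) (by positivity) hl0 Mx
  refine ⟨κw, hκw, ?_⟩
  intro La hLa c0 F bf cmp hc hc2 lam hl hl4 hl0' X hX M k hk a w hv i0 fr f p hp hf D κ1 κ2 hκ1 hκ2 A
    m k0 hk0 η hC hFi hgrid hM hη hηw hgood
  set T := M.mesh hk (M.φ a) hv with hT
  set D' := (decoX A lam m a w).mkX X T i0 fun c => Sum.inr ⟨c, M.core hk (M.φ a) hv c⟩ with hD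
  have eX : X = univ := eq_univ_of_forall hX
  have ect : D'.ct = ctB (eqX hX) M hk (M.φ a) hv := by
    funext c
    exact Deco.mkX_ct (hX c)
  have eJ0 : D'.J0 = fun c => {ctB (eqX hX) M hk (M.φ a) hv c} := by
    funext c
    exact Set.ext fun i => ⟨fun ⟨_, e⟩ => e, fun e => ⟨hX c, e⟩⟩
  have eJ : D'.J = fun c => {ctB (eqX hX) M hk (M.φ a) hv c} := eJ0
  have eV : D'.V = fun c => {ctB (eqX hX) M hk (M.φ a) hv c} := eJ0
  have eA : (decoX A lam m a w).A = fun c => trA (A c) (a + w ((eqX hX).symm c)) := by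
    funext c
    exact decoX_A A lam m a w (hX c)
  have hC' := hC
  rw [eJ0, eJ, eV, ect, eA] at hC'
  have hCu : Mbf_337.Cores (fN bf cmp hκ hc hc2 lam hl hl4) (M.mesh hk (M.φ a) hv) f κ1 κ2 univ
      (fun c => {ctB (eqX hX) M hk (M.φ a) hv c}) (fun c => {ctB (eqX hX) M hk (M.φ a) hv c})
      (fun c => {ctB (eqX hX) M hk (M.φ a) hv c}) (ctB (eqX hX) M hk (M.φ a) hv)
      (fun c => trA (A c) (a + w ((eqX hX).symm c))) lam (fun c => zz c.1 (lam c)) (fun _ x => x)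
      (fun _ _ => 0) :=
    { disj := hC'.disj
      one := fun c _ => hC'.one c (hX c)
      exact_ := fun c _ => hC'.exact_ c (hX c)
      tiny := fun c hc => absurd (mem_univ c) hc }
  obtain ⟨Bad, hB1, hB2, hB3⟩ := H La hLa c0 F bf cmp hc hc2 lam hl hl4 hl0' X (eqX hX) M k hk (M.φ a)
    (fun j => a + w j) hv f p hp hf D κ1 κ2 hκ1 hκ2 A m k0 hk0 η hCu hgrid hM hη hηw hgood
  refine ⟨hC, hFi, Bad, hB1, fun c => (measure_mono inter_subset_left).trans (hB2 c),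
    fun L hL hL' => ?_⟩
  have hW := hB3 L fun c t ht => ⟨⟨hμ.trans_le (hL c t ht).1, by linarith [(hL c t ht).2]⟩,
    hL' c t ht⟩
  change Words (fN bf cmp hκ hc hc2 lam hl hl4) T f X D'.ct (decoX A lam m a w).A lam
    (fun c => zz c.1 (lam c)) m L
  rw [ect, eA]
  exact ⟨fun c _ => hW.grid c (mem_univ c), fun c _ => hW.word c (mem_univ c),
    fun c _ => hW.sign c (mem_univ c)⟩

end

end Crest.Agent.R096.Fnn_635
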