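import Crest.Agent.R096.Mdd2_360

/-!
Row 96 (S0127), helper234.  [RM] of 365 #11372: rooms for the translations of the blocks, chosen
BEFORE the blocks (so uniformly in the pre-translation of the blocks).

* `compact_pre` : `A⁻¹' cbx` is compact;
* **`exists_rooms_u`** : `r` depends only on the maps `A j`, the bricks and `η`; it is a room for every
  family of blocks with `(Q j).N ⊆ A j⁻¹' cbx ((1 + 2 κ3) lam)`.
-/

set_option autoImplicit false
set_option linter.style.longLine false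
set_option linter.unusedSectionVars false

open MeasureTheory Set Filter Topology Metric

namespace Crest.Agent.R096.Rmu_234

open Crest.Agent.R096.Bsp_628 Crest.Agent.R096.Brk5_582
open Crest.Agent.R096.SkC1_961 (E3 FoamD)
open Crest.Agent.R096.EaX_766 (cbx RatA)
open Crest.Agent.R096.Bxs_627 (ctr CoriE)
open Crest.Agent.R096.Mal_874 Crest.Agent.R096.Msh_810
open Crest.Agent.R096.Fns_360 Crest.Agent.R096.Mdd_360

noncomputable section

theorem isCompact_cbx (Q : Bx (Fin 3)) (s : ℝ) : IsCompact (cbx Q s) := by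
  have h : cbx Q s = Icc (fun k => ctr Q k - s * Q.side k / 2) (fun k => ctr Q k + s * Q.side k / 2) := by
    ext y
    constructor
    · intro hy
      refine ⟨fun k => ?_, fun k => ?_⟩
      · have h1 := abs_le.1 (show |y k - ctr Q k| ≤ s * Q.side k / 2 from hy k)
        show ctr Q k - s * Q.side k / 2 ≤ y k
        linarith [h1.1]
      · have h1 := abs_le.1 (show |y k - ctr Q k| ≤ s * Q.side k / 2 from hy k)
        show y k ≤ ctr Q k + s * Q.side k / 2
        linarith [h1.2]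
    · rintro ⟨h1, h2⟩ k
      have h3 : ctr Q k - s * Q.side k / 2 ≤ y k := h1 k
      have h4 : y k ≤ ctr Q k + s * Q.side k / 2 := h2 k
      show |y k - ctr Q k| ≤ s * Q.side k / 2
      rw [abs_le]
      constructor <;> linarith
  rw [h]
  exact isCompact_Icc

/-- the box over the brick is compact -/
theorem compact_pre (A : E3 ≃ᵃ[ℝ] E3) (Q : Bx (Fin 3)) (s : ℝ) : IsCompact (A ⁻¹' cbx Q s) := by
  have h : (A : E3 → E3) ⁻¹' cbx Q s = A.symm '' cbx Q s := by
    ext x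
    constructor
    · intro hx
      exact ⟨A x, hx, A.symm_apply_apply x⟩
    · rintro ⟨y, hy, rfl⟩
      show A (A.symm y) ∈ cbx Q s
      rwa [A.apply_symm_apply]
  rw [h]
  exact (isCompact_cbx Q s).image
    (AffineMap.continuous_of_finiteDimensional A.symm.toAffineMap)

/-- **rooms before the blocks** -/
theorem exists_rooms_u {La Om : Set E3} {f : E3 → E3} (hOm : IsOpen Om) (hf : ContinuousOn f Om)
    (hfL : MapsTo f Om La) {F : Set (Bx (Fin 3))} {δ κ0 : ℝ} (bf : BoxFoam La F δ κ0)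
    {J : Type*} {b : J → F} (hb : Function.Injective b) {A : J → E3 ≃ᵃ[ℝ] E3} {lam : J → ℝ}
    (hl : ∀ j, 0 < lam j) {κ1 κ2 κ3 : ℝ} (h32 : κ3 < κ2) (hκ1 : 0 ≤ κ1)
    (hlκ : ∀ j, (1 / 2 + κ2) * lam j + κ1 * κ0 * lam j < 1 / 2)
    (hcor : ∀ j, CoriE Om f (A j) (b j).1 (lam j) κ1 κ2)
    {D0 : Dat 3} (hD : D0.Om = Om) {η : J → ℝ} (hη : ∀ j, 0 < η j) :
    ∃ r : J → ℝ, (∀ j, 0 < r j) ∧ (∀ j, r j ≤ η j) ∧
      (∀ j, cthickening (r j) (A j ⁻¹' cbx (b j).1 ((1 + 2 * κ3) * lam j)) ⊆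
        A j ⁻¹' cbx (b j).1 ((1 + 2 * κ2) * lam j)) ∧
      ∀ Q : J → CB E3 3, (∀ j, (Q j).N ⊆ A j ⁻¹' cbx (b j).1 ((1 + 2 * κ3) * lam j)) →
        Rooms D0 Q r ∧
        ∀ j, cthickening (r j) (Q j).N ⊆ A j ⁻¹' cbx (b j).1 ((1 + 2 * κ2) * lam j) := by
  have h1 : ∀ j, ∃ r, 0 < r ∧ r ≤ η j ∧
      cthickening r (A j ⁻¹' cbx (b j).1 ((1 + 2 * κ3) * lam j)) ⊆
        A j ⁻¹' cbx (b j).1 ((1 + 2 * κ2) * lam j) := by
    intro j
    have hlt : (1 + 2 * κ3) * lam j < (1 + 2 * κ2) * lam j := by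
      have := hl j
      nlinarith
    obtain ⟨U, hU, hU1, hU2⟩ := cbx_sub_open (bf.pos _ (b j).2) hlt
    have hA : Continuous (A j) := AffineMap.continuous_of_finiteDimensional (A j).toAffineMap
    obtain ⟨r, hr, hr'⟩ := (compact_pre (A j) (b j).1
      ((1 + 2 * κ3) * lam j)).exists_cthickening_subset_open (hU.preimage hA) (preimage_mono hU1)
    refine ⟨min r (η j), lt_min hr (hη j), min_le_right _ _, ?_⟩
    exact (cthickening_mono (min_le_left _ _) _).trans (hr'.trans (preimage_mono hU2))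
  choose r hr0 hr1 hr2 using h1
  refine ⟨r, hr0, hr1, hr2, fun Q hN => ?_⟩
  have hr3 : ∀ j, cthickening (r j) (Q j).N ⊆ A j ⁻¹' cbx (b j).1 ((1 + 2 * κ2) * lam j) :=
    fun j => (cthickening_subset_of_subset _ (hN j)).trans (hr2 j)
  have himg : ∀ j, ∀ x ∈ cthickening (r j) (Q j).N, x ∈ Om ∧
      ∀ k, (b j).1.lo k < f x k ∧ f x k < (b j).1.hi k := fun j x hx =>
    img_open (bf.pos _ (b j).2) (bf.asp _ (b j).2) (hl j) hκ1 (hlκ j) (hcor j) (hr3 j hx)
  refine ⟨⟨hr0, ?_, ?_, ?_⟩, hr3⟩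
  · intro j l hjl
    rw [Set.disjoint_left]
    intro x hx hx'
    have hne : (b j).1 ≠ (b l).1 := fun h => hjl (hb (Subtype.ext h))
    obtain ⟨k, hk⟩ := bf.inv.disj (b j).2 (b l).2 (bf.pos _ (b j).2) (bf.pos _ (b l).2) hne
    have h2 := (himg j x hx).2 k
    have h3 := (himg l x hx').2 k
    rcases hk with hk | hk
    · linarith [h2.2, h3.1]
    · linarith [h2.1, h3.2]
  · intro j
    rw [hD]
    exact fun x hx => (himg j x hx).1
  · intro x hx
    rw [hD] at hx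
    obtain ⟨s, hs, hfin⟩ := bf.lf _ (hfL hx)
    have h2 : f ⁻¹' ball (f x) s ∈ 𝓝 x := (hf.continuousAt (hOm.mem_nhds hx)) (ball_mem_nhds _ hs)
    obtain ⟨t, ht, ht'⟩ := Metric.mem_nhds_iff.1 h2
    refine ⟨t, ht, ?_⟩
    have h3 : Set.Finite {j | (b j).1 ∈ {C | C ∈ F ∧ (C.set ∩ ball (f x) s).Nonempty}} :=
      hfin.preimage fun j _ l _ h => hb (Subtype.ext h)
    refine h3.subset ?_
    rintro j ⟨y, hy1, hy2⟩
    refine ⟨(b j).2, f y, ?_, ht' hy2⟩
    rw [Bx.mem_set]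
    intro k
    have := (himg j y hy1).2 k
    exact ⟨this.1.le, this.2.le⟩

end

end Crest.Agent.R096.Rmu_234
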