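import Crest.Agent.R096.Mdd9_360
import Crest.Agent.R096.Rmu1_234

/-!
Row 96 (S0127), helper360.  [RM] of 365 #11372, composed: mesh data whose rooms are chosen BEFORE the
blocks (`Rmu1_234.exists_rooms_u`), so uniformly in the pre-translation of the blocks.

* **`md_genU`** : `md_gen` with `r` before `Q`;
* **`md_genU_tr`** : the blocks `(Q0 j).tr (w0 j)`, `w0 j` small on the scale of the brick.
-/

set_option autoImplicit false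
set_option linter.style.longLine false
set_option linter.unusedSectionVars false

open MeasureTheory Set Filter Topology Metric

namespace Crest.Agent.R096.Mdd_360

open Crest.Agent.R096.Bsp_628 Crest.Agent.R096.Brk5_582
open Crest.Agent.R096.SkC1_961 (E3 FoamD Hom3)
open Crest.Agent.R096.EaX_766 (cbx RatA)
open Crest.Agent.R096.Bxs_627 (ctr CoriE)
open Crest.Agent.R096.Mal_874 Crest.Agent.R096.Msh_810
open Crest.Agent.R096.Fns_360 Crest.Agent.R096.Mfa_880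

noncomputable section

/-- **mesh data, rooms before the blocks** -/
theorem md_genU {La Om : Set E3} {f : E3 → E3} (hOm : IsOpen Om) (hf : Hom3 f Om La)
    {F : Set (Bx (Fin 3))} {δ κ0 : ℝ} (bf : BoxFoam La F δ κ0)
    {J : Type*} {b : J → F} (hb : Function.Injective b) {A : J → E3 ≃ᵃ[ℝ] E3} {lam : J → ℝ}
    (hl : ∀ j, 0 < lam j) {κ1 κ2 κ3 τ : ℝ} (h32 : κ3 < κ2) (hκ1 : 0 ≤ κ1) (hτ : 0 < τ)
    (hlκ : ∀ j, (1 / 2 + κ2) * lam j + κ1 * κ0 * lam j < 1 / 2)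
    (hcor : ∀ j, CoriE Om f (A j) (b j).1 (lam j) κ1 κ2)
    {D0 : Dat 3} (hD : D0.Om = Om) (hC : 6 ≤ D0.C) {η : J → ℝ} (hη : ∀ j, 0 < η j) :
    ∃ r : J → ℝ, (∀ j, 0 < r j) ∧ (∀ j, r j ≤ η j) ∧
      (∀ j (v : E3), ‖v‖ ≤ r j → ‖(A j).linear v‖ ≤ τ * (lam j * (b j).1.sz) ∧
        ∀ k, |(A j).linear v k| ≤ τ * (lam j * (b j).1.side k)) ∧
      (∀ j, cthickening (r j) (A j ⁻¹' cbx (b j).1 ((1 + 2 * κ3) * lam j)) ⊆
        A j ⁻¹' cbx (b j).1 ((1 + 2 * κ2) * lam j)) ∧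
      ∀ Q : J → CB E3 3, (∀ j, (Q j).N ⊆ A j ⁻¹' cbx (b j).1 ((1 + 2 * κ3) * lam j)) →
        ∃ M : MD E3 3 J, M.φ = ContinuousLinearEquiv.refl ℝ E3 ∧ M.D0 = D0 ∧ M.Q = Q ∧ M.r = r ∧
          M.φ ⁻¹' M.D0.Om = Om ∧
          ∀ j, cthickening (M.r j) (M.Q j).N ⊆ A j ⁻¹' cbx (b j).1 ((1 + 2 * κ2) * lam j) := by
  obtain ⟨-, hfL, -, -, -, hfc, -⟩ := id hf
  choose η' hη' hη2 using fun j => exists_small (bf.pos _ (b j).2) (A j) (hl j) hτ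
  obtain ⟨r, hr0, hr1, hr2, hr⟩ := Rmu_234.exists_rooms_u hOm hfc hfL bf hb hl h32 hκ1 hlκ hcor hD
    (η := fun j => min (η j) (η' j)) fun j => lt_min (hη j) (hη' j)
  refine ⟨r, hr0, fun j => (hr1 j).trans (min_le_left _ _), fun j v hv =>
    hη2 j v (hv.trans ((hr1 j).trans (min_le_right _ _))), hr2, fun Q hN => ?_⟩
  obtain ⟨h1, h2⟩ := hr Q hN
  refine ⟨mdR D0 hC Q r h1, rfl, rfl, rfl, rfl, ?_, h2⟩
  ext x
  rw [mem_preimage, ← hD]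
  rfl

/-- the translated block stays over the brick -/
theorem n_tr_cbx {Q : CB E3 3} {A : E3 ≃ᵃ[ℝ] E3} {c : Bx (Fin 3)} {lam κ κ3 : ℝ}
    (h : Q.N ⊆ A ⁻¹' cbx c ((1 + 2 * κ) * lam)) {w : E3}
    (hw : ∀ k, |A.linear w k| ≤ (κ3 - κ) * (lam * c.side k)) :
    (Q.tr w).N ⊆ A ⁻¹' cbx c ((1 + 2 * κ3) * lam) := by
  intro x hx
  rw [Q.mem_N_tr] at hx
  have h1 := h hx
  intro k
  have h2 : |A (x - w) k - ctr c k| ≤ (1 + 2 * κ) * lam * c.side k / 2 := h1 k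
  have h3 : A x k = A (x - w) k + A.linear w k := by
    have h4 := lin_dif A x (x - w)
    rw [sub_sub_cancel] at h4
    rw [h4, Pi.sub_apply]
    ring
  show |A x k - ctr c k| ≤ (1 + 2 * κ3) * lam * c.side k / 2
  have h5 : A x k - ctr c k = (A (x - w) k - ctr c k) + A.linear w k := by
    rw [h3]; ring
  rw [h5]
  refine (abs_add_le _ _).trans ?_
  have := hw k
  linarith

/-- **mesh data of the pre-translated blocks `(Q0 j).tr (w0 j)`, rooms before `w0`.**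
The conclusion is stated for the translated maps `trA (A j) (w0 j)`. -/
theorem md_genU_tr {La Om : Set E3} {f : E3 → E3} (hOm : IsOpen Om) (hf : Hom3 f Om La)
    {F : Set (Bx (Fin 3))} {δ κ0 : ℝ} (bf : BoxFoam La F δ κ0)
    {J : Type*} {b : J → F} (hb : Function.Injective b) {A : J → E3 ≃ᵃ[ℝ] E3} {lam : J → ℝ}
    (hl : ∀ j, 0 < lam j) {κ1 κ2 κ3 κ τ : ℝ} (h32 : κ3 < κ2) (hκ1 : 0 ≤ κ1) (hτ : 0 < τ)
    (hlκ : ∀ j, (1 / 2 + κ2) * lam j + κ1 * κ0 * lam j < 1 / 2)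
    (hcor : ∀ j, CoriE Om f (A j) (b j).1 (lam j) κ1 κ2)
    {Q0 : J → CB E3 3} (hN : ∀ j, (Q0 j).N ⊆ A j ⁻¹' cbx (b j).1 ((1 + 2 * κ) * lam j))
    {D0 : Dat 3} (hD : D0.Om = Om) (hC : 6 ≤ D0.C) {η : J → ℝ} (hη : ∀ j, 0 < η j) :
    ∃ r : J → ℝ, (∀ j, 0 < r j) ∧ (∀ j, r j ≤ η j) ∧
      ∀ w0 : J → E3, (∀ j k, |(A j).linear (w0 j) k| ≤ (κ3 - κ) * (lam j * (b j).1.side k)) →
        ∃ M : MD E3 3 J, M.φ = ContinuousLinearEquiv.refl ℝ E3 ∧ M.D0 = D0 ∧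
          M.Q = (fun j => (Q0 j).tr (w0 j)) ∧ M.r = r ∧ M.φ ⁻¹' M.D0.Om = Om ∧
          (∀ j, cthickening (M.r j) (M.Q j).N ⊆ A j ⁻¹' cbx (b j).1 ((1 + 2 * κ2) * lam j)) ∧
          ∀ j (v : E3), ‖v‖ ≤ M.r j → ‖(A j).linear v‖ ≤ τ * (lam j * (b j).1.sz) ∧
            ∀ k, |(A j).linear v k| ≤ τ * (lam j * (b j).1.side k) := by
  obtain ⟨r, hr0, hr1, hr2, -, hr⟩ := md_genU hOm hf bf hb hl h32 hκ1 hτ hlκ hcor hD hC hη
  refine ⟨r, hr0, hr1, fun w0 hw => ?_⟩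
  obtain ⟨M, h1, h2, h3, h4, h5, h6⟩ := hr (fun j => (Q0 j).tr (w0 j)) fun j =>
    n_tr_cbx (hN j) (hw j)
  refine ⟨M, h1, h2, h3, h4, h5, h6, ?_⟩
  rw [h4]
  exact hr2

end

end Crest.Agent.R096.Mdd_360
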