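import Crest.Agent.R096.Gno1_324

/-!
# Row 96 (S0127), NO0 / GEO (helper324), part 2: `NOGeo` from uniform squares

`Ug T Ex a r o m v` : every tile which touches the closed cube above the square `(m, v)` is a cube of
the lattice `a + r ℤ³` and is not in `Ex`.
`nogeo_of` : the numbers `lo hi zs` ⟹ `NOGeo T Ex 𝒬0 .. (Ug T Ex a r o)`, for ANY tiling.
-/

set_option autoImplicit false
set_option linter.style.longLine false
set_option linter.unusedSectionVars false

open MeasureTheory Set Filter Topology Metric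
open scoped ENNReal

namespace Crest.Agent.R096.Gno_324

open Crest.Agent.R096.Msh_715 Crest.Agent.R096.SkC1_961 Crest.Agent.R096.No0_477
open Crest.Agent.R096.SkN1_477 (E2 emb usq side)

noncomputable section

/-- the closed faces of the unit cube -/
def 𝒬0 : Set (Set E3) := {K | ∃ x ∈ cub (0 : E3) 1, K = lc 0 1 x}

/-- the integer coordinates of the vertex `vx` -/
def vz (o : Fin 2 → ℤ) (m : ℤ) (v : Fin 2 → ℕ) : Fin 3 → ℤ := ![o 0 + v 0, o 1 + v 1, m]

theorem vx_eq (a : E3) (r : ℝ) (o : Fin 2 → ℤ) (m : ℤ) (v : Fin 2 → ℕ) (i : Fin 3) :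
    vx a r o m v i = a i + r * vz o m v i := by
  fin_cases i <;> simp [vx, vz]

theorem cub_vx (a : E3) (r : ℝ) (o : Fin 2 → ℤ) (m : ℤ) (v : Fin 2 → ℕ) :
    cub (vx a r o m v) r = lcub a r (vz o m v) := by
  rw [lcub_eq_cub]
  congr 1
  funext i
  exact vx_eq a r o m v i

/-- lattice cells in the frame of a vertex -/
theorem fr_image_lc {a : E3} {r : ℝ} (hr0 : 0 < r) (hr : r ≠ 0) {w : E3} {z : Fin 3 → ℤ}
    (hw : ∀ i, w i = a i + r * z i) (x : E3) :
    (fr w r hr : E3 → E3) '' lc a r x = lc 0 1 (fr w r hr x) := by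
  have key : ∀ y : E3, ∀ i, ∀ t : ℤ, ((0 : E3) i + 1 * (t : ℝ) ≤ fr w r hr y i ↔
      a i + r * ((t + z i : ℤ) : ℝ) ≤ y i) ∧ (fr w r hr y i ≤ (0 : E3) i + 1 * (t : ℝ) ↔
      y i ≤ a i + r * ((t + z i : ℤ) : ℝ)) := by
    intro y i t
    rw [fr_apply]
    simp only [Pi.smul_apply, Pi.sub_apply, smul_eq_mul, Pi.zero_apply, zero_add, one_mul,
      inv_mul_eq_div, hw i]
    rw [le_div_iff₀ hr0, div_le_iff₀ hr0]
    push_cast
    constructor
    · constructor <;> intro h <;> linarith
    · constructor <;> intro h <;> linarith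
  have key2 : ∀ y : E3, ∀ i, ∀ t : ℤ, (a i + r * (t : ℝ) ≤ y i ↔
      (0 : E3) i + 1 * ((t - z i : ℤ) : ℝ) ≤ fr w r hr y i) ∧ (y i ≤ a i + r * (t : ℝ) ↔
      fr w r hr y i ≤ (0 : E3) i + 1 * ((t - z i : ℤ) : ℝ)) := by
    intro y i t
    have h := key y i (t - z i)
    rw [sub_add_cancel] at h
    exact ⟨h.1.symm, h.2.symm⟩
  have main : ∀ y : E3, y ∈ lc a r x ↔ fr w r hr y ∈ lc 0 1 (fr w r hr x) := by
    intro y
    constructor
    · intro hy i t
      rw [(key x i t).1, (key y i t).1, (key x i t).2, (key y i t).2]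
      exact hy i (t + z i)
    · intro hy i t
      rw [(key2 x i t).1, (key2 y i t).1, (key2 x i t).2, (key2 y i t).2]
      exact hy i (t - z i)
  ext y
  constructor
  · rintro ⟨y', hy', rfl⟩
    exact (main y').1 hy'
  · intro hy
    refine ⟨(fr w r hr).symm y, (main _).2 ?_, AffineEquiv.apply_symm_apply _ _⟩
    rw [AffineEquiv.apply_symm_apply]
    exact hy

theorem fr_image_cub {r : ℝ} (hr0 : 0 < r) (hr : r ≠ 0) (w : E3) :
    (fr w r hr : E3 → E3) '' cub w r = cub 0 1 := by
  have main : ∀ y : E3, y ∈ cub w r ↔ fr w r hr y ∈ cub (0 : E3) 1 := by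
    intro y
    unfold cub
    refine forall_congr' fun i => ?_
    rw [fr_apply]
    simp only [Pi.smul_apply, Pi.sub_apply, smul_eq_mul, Pi.zero_apply, zero_add, inv_mul_eq_div]
    rw [le_div_iff₀ hr0, div_le_iff₀ hr0]
    constructor
    · rintro ⟨h1, h2⟩
      exact ⟨by linarith, by linarith⟩
    · rintro ⟨h1, h2⟩
      exact ⟨by linarith, by linarith⟩
  ext y
  constructor
  · rintro ⟨y', hy', rfl⟩
    exact (main y').1 hy'
  · intro hy
    refine ⟨(fr w r hr).symm y, (main _).2 ?_, AffineEquiv.apply_symm_apply _ _⟩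
    rw [AffineEquiv.apply_symm_apply]
    exact hy

/-- the unit square in the frame of `w` -/
theorem mem_usq_fr {r : ℝ} (hr0 : 0 < r) (hr : r ≠ 0) {w y : E3} :
    y ∈ usq (fr w r hr) ↔ w 0 ≤ y 0 ∧ y 0 ≤ w 0 + r ∧ w 1 ≤ y 1 ∧ y 1 ≤ w 1 + r ∧ y 2 = w 2 := by
  unfold usq
  rw [mem_preimage, fr_apply]
  constructor
  · rintro ⟨u, hu, he⟩
    have e0 := congrFun he 0
    have e1 := congrFun he 1
    have e2 := congrFun he 2
    simp only [emb, Pi.smul_apply, Pi.sub_apply, smul_eq_mul, inv_mul_eq_div, Matrix.cons_val_zero,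
      Matrix.cons_val_one, Matrix.cons_val] at e0 e1 e2
    obtain ⟨h1, h2⟩ := hu 0
    obtain ⟨h3, h4⟩ := hu 1
    rw [e0, le_div_iff₀ hr0] at h1
    rw [e0, div_le_iff₀ hr0] at h2
    rw [e1, le_div_iff₀ hr0] at h3
    rw [e1, div_le_iff₀ hr0] at h4
    have h5 : y 2 - w 2 = 0 := by
      rcases div_eq_zero_iff.1 e2.symm with h | h
      · exact h
      · exact absurd h hr
    exact ⟨by linarith, by linarith, by linarith, by linarith, by linarith⟩
  · rintro ⟨h1, h2, h3, h4, h5⟩
    refine ⟨![(y 0 - w 0) / r, (y 1 - w 1) / r], ?_, ?_⟩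
    · intro j
      fin_cases j
      · show 0 ≤ (y 0 - w 0) / r ∧ (y 0 - w 0) / r ≤ 1
        rw [le_div_iff₀ hr0, div_le_iff₀ hr0]
        constructor <;> linarith
      · show 0 ≤ (y 1 - w 1) / r ∧ (y 1 - w 1) / r ≤ 1
        rw [le_div_iff₀ hr0, div_le_iff₀ hr0]
        constructor <;> linarith
    · ext i
      fin_cases i
      · simp [emb, inv_mul_eq_div]
      · simp [emb, inv_mul_eq_div]
      · simp [emb, h5]

/-- the sides of the unit square in the frame of `w` -/
theorem mem_side_fr {r : ℝ} (hr0 : 0 < r) (hr : r ≠ 0) {w y : E3} (j : Fin 2) (b : ℝ) :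
    y ∈ side (fr w r hr) j b ↔ w j.castSucc ≤ y j.castSucc ∧ y j.castSucc ≤ w j.castSucc + r ∧
      y (1 - j).castSucc = w (1 - j).castSucc + b * r ∧ y 2 = w 2 := by
  unfold side
  rw [mem_preimage, fr_apply]
  constructor
  · rintro ⟨u, ⟨h1, h2, h3⟩, he⟩
    have e0 := congrFun he 0
    have e1 := congrFun he 1
    have e2 := congrFun he 2
    simp only [emb, Pi.smul_apply, Pi.sub_apply, smul_eq_mul, inv_mul_eq_div, Matrix.cons_val_zero,
      Matrix.cons_val_one, Matrix.cons_val] at e0 e1 e2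
    have h5 : y 2 - w 2 = 0 := by
      rcases div_eq_zero_iff.1 e2.symm with h | h
      · exact h
      · exact absurd h hr
    fin_cases j
    · simp only [Fin.zero_eta, sub_zero] at h1 h2 h3
      rw [e0, le_div_iff₀ hr0] at h1
      rw [e0, div_le_iff₀ hr0] at h2
      rw [e1, div_eq_iff hr] at h3
      simp only [Fin.zero_eta, sub_zero, Fin.castSucc_zero, Fin.castSucc_one]
      exact ⟨by linarith, by linarith, by linarith, by linarith⟩
    · simp only [Fin.mk_one, sub_self] at h1 h2 h3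
      rw [e1, le_div_iff₀ hr0] at h1
      rw [e1, div_le_iff₀ hr0] at h2
      rw [e0, div_eq_iff hr] at h3
      simp only [Fin.mk_one, sub_self, Fin.castSucc_zero, Fin.castSucc_one]
      exact ⟨by linarith, by linarith, by linarith, by linarith⟩
  · rintro ⟨h1, h2, h3, h5⟩
    have g0 : (![(y 0 - w 0) / r, (y 1 - w 1) / r] : Fin 2 → ℝ) 0 = (y 0 - w 0) / r := rfl
    have g1 : (![(y 0 - w 0) / r, (y 1 - w 1) / r] : Fin 2 → ℝ) 1 = (y 1 - w 1) / r := rfl
    have k0 : (1 - 0 : Fin 2) = 1 := rfl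
    have k1 : (1 - 1 : Fin 2) = 0 := rfl
    refine ⟨![(y 0 - w 0) / r, (y 1 - w 1) / r], ?_, ?_⟩
    · rcases Fin.exists_fin_two.1 ⟨j, rfl⟩ with rfl | rfl
      · simp only [k0, Fin.castSucc_zero, Fin.castSucc_one] at h1 h2 h3
        show 0 ≤ (![(y 0 - w 0) / r, (y 1 - w 1) / r] : Fin 2 → ℝ) 0 ∧
          (![(y 0 - w 0) / r, (y 1 - w 1) / r] : Fin 2 → ℝ) 0 ≤ 1 ∧
          (![(y 0 - w 0) / r, (y 1 - w 1) / r] : Fin 2 → ℝ) 1 = b
        rw [g0, g1, le_div_iff₀ hr0, div_le_iff₀ hr0, div_eq_iff hr]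
        exact ⟨by linarith, by linarith, by linarith⟩
      · simp only [k1, Fin.castSucc_zero, Fin.castSucc_one] at h1 h2 h3
        show 0 ≤ (![(y 0 - w 0) / r, (y 1 - w 1) / r] : Fin 2 → ℝ) 1 ∧
          (![(y 0 - w 0) / r, (y 1 - w 1) / r] : Fin 2 → ℝ) 1 ≤ 1 ∧
          (![(y 0 - w 0) / r, (y 1 - w 1) / r] : Fin 2 → ℝ) 0 = b
        rw [g0, g1, le_div_iff₀ hr0, div_le_iff₀ hr0, div_eq_iff hr]
        exact ⟨by linarith, by linarith, by linarith⟩
    · ext i
      fin_cases i
      · simp [emb, inv_mul_eq_div]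
      · simp [emb, inv_mul_eq_div]
      · simp [emb, h5]

section geo

variable {Om : Set E3} {ι : Type}

/-- **uniform square**: every tile which touches the closed cube above the square is a cube of the
lattice `a + r ℤ³`, not in `Ex` -/
def Ug (T : Tiling Om ι) (Ex : Set ι) (a : E3) (r : ℝ) (o : Fin 2 → ℤ) (m : ℤ) (v : Fin 2 → ℕ) :
    Prop :=
  cub (vx a r o m v) r ⊆ Om ∧ ∀ x ∈ cub (vx a r o m v) r, ∀ i, x ∈ P (T.H i) →
    i ∉ Ex ∧ ∃ z : Fin 3 → ℤ, P (T.H i) = lcub a r z

variable {T : Tiling Om ι} {Ex : Set ι} {a : E3} {r : ℝ} {o : Fin 2 → ℤ} {m : ℤ} {v : Fin 2 → ℕ}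

/-- the lattice cell of a half-integer point: closed description -/
theorem mem_lc_half (hr : 0 < r) {x y : E3} {z : Fin 3 → ℤ} (J : Fin 3 → Prop)
    (hx : ∀ i, (J i → x i = a i + r * z i + r / 2) ∧ (¬ J i → x i = a i + r * z i)) :
    y ∈ lc a r x ↔ ∀ i, (J i → a i + r * z i ≤ y i ∧ y i ≤ a i + r * z i + r) ∧
      (¬ J i → y i = a i + r * z i) := by
  constructor
  · intro h i
    constructor
    · intro hJ
      have h1 := (hx i).1 hJ
      have h2 := h i (z i)
      have h3 := h i (z i + 1)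
      push_cast at h3
      refine ⟨h2.1 (by rw [h1]; linarith), ?_⟩
      have := h3.2 (by rw [h1]; linarith)
      linarith
    · intro hJ
      rw [← (hx i).2 hJ]
      exact lc_eq_of_onp h ⟨z i, (hx i).2 hJ⟩
  · intro h i t
    by_cases hJ : J i
    · have h1 := (hx i).1 hJ
      obtain ⟨h2, h3⟩ := (h i).1 hJ
      rw [h1]
      constructor
      · intro h4
        have h5 : (t : ℝ) < z i + 1 := by
          have : r * (t : ℝ) < r * (z i + 1) := by linarith
          exact lt_of_mul_lt_mul_left this hr.le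
        have h6 : t ≤ z i := by
          have : (t : ℝ) < ((z i + 1 : ℤ) : ℝ) := by push_cast; exact h5
          have := Int.cast_lt.1 this
          omega
        have h7 : (t : ℝ) ≤ z i := by exact_mod_cast h6
        nlinarith
      · intro h4
        have h5 : (z i : ℝ) < t := by
          have : r * (z i : ℝ) < r * t := by linarith
          exact lt_of_mul_lt_mul_left this hr.le
        have h6 : z i < t := Int.cast_lt.1 h5
        have h7 : (z i : ℝ) + 1 ≤ t := by exact_mod_cast h6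
        nlinarith
    · rw [(hx i).2 hJ, (h i).2 hJ]
      exact ⟨id, id⟩

theorem onp_half (hr : 0 < r) {x : E3} {z : Fin 3 → ℤ} (J : Fin 3 → Prop)
    (hx : ∀ i, (J i → x i = a i + r * z i + r / 2) ∧ (¬ J i → x i = a i + r * z i)) (i : Fin 3) :
    ¬ onp a r x i ↔ J i := by
  constructor
  · intro h
    by_contra hJ
    exact h ⟨z i, (hx i).2 hJ⟩
  · rintro hJ ⟨t, ht⟩
    rw [(hx i).1 hJ] at ht
    have h1 : r * ((z i : ℝ) + 1 / 2) = r * t := by linarith
    have h2 : (z i : ℝ) + 1 / 2 = t := mul_left_cancel₀ hr.ne' h1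
    have h3 : ((2 * z i + 1 : ℤ) : ℝ) = ((2 * t : ℤ) : ℝ) := by push_cast; linarith
    have h4 := Int.cast_injective h3
    omega

theorem fin_a : ∀ j : Fin 2, j.castSucc ≠ (1 - j).castSucc := by decide
theorem fin_b : ∀ j : Fin 2, (2 : Fin 3) ≠ (1 - j).castSucc := by decide
theorem fin_c : ∀ j : Fin 2, ¬ (2 : Fin 3) = j.castSucc := by decide
theorem fin_d : ∀ (j : Fin 2) (i : Fin 3), ¬ i = j.castSucc → i = (1 - j).castSucc ∨ i = 2 := by decide

/-- the cells of uniform squares -/
theorem Ug.lat (h : Ug T Ex a r o m v) {x : E3} (hx : x ∈ cub (vx a r o m v) r) : Lat T a r x :=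
  fun i hi => (h.2 x hx i hi).2

/-- the tile above a uniform square -/
theorem Ug.tile (hr0 : 0 < r) (h : Ug T Ex a r o m v) :
    ∃ i, P (T.H i) = cub (vx a r o m v) r := by
  have hc : (fun i => vx a r o m v i + r / 2) ∈ cub (vx a r o m v) r := fun i =>
    ⟨by show _ ≤ vx a r o m v i + r / 2; linarith, by show vx a r o m v i + r / 2 ≤ _; linarith⟩
  obtain ⟨i, hi⟩ := T.cov _ (h.1 hc)
  obtain ⟨-, z, hz⟩ := h.2 _ hc i hi
  refine ⟨i, ?_⟩
  rw [hz, cub_vx]
  have hx : (fun i => vx a r o m v i + r / 2) ∈ lcub a r z := hz ▸ hi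
  have e : z = vz o m v := by
    funext j
    obtain ⟨h1, h2⟩ := hx j
    simp only [vx_eq] at h1 h2
    have h3 : (z j : ℝ) < vz o m v j + 1 := by
      have : r * (z j : ℝ) < r * (vz o m v j + 1) := by linarith
      exact lt_of_mul_lt_mul_left this hr0.le
    have h4 : (vz o m v j : ℝ) < z j + 1 := by
      have : r * (vz o m v j : ℝ) < r * (z j + 1) := by linarith
      exact lt_of_mul_lt_mul_left this hr0.le
    have h5 : z j < vz o m v j + 1 := by exact_mod_cast h3
    have h6 : vz o m v j < z j + 1 := by exact_mod_cast h4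
    omega
  rw [e]

open scoped Classical in
/-- **`NOGeo` of the uniform squares**, for any tiling -/
theorem nogeo_of (T : Tiling Om ι) (Ex : Set ι) {L : ℕ} {η r : ℝ} (hr0 : 0 < r) (hr : r ≠ 0) (a : E3)
    (o : Fin 2 → ℤ) {M : ℕ} (hM : 0 < M) {Zs : Finset ℤ}
    (lo : ∀ j : Fin 2, a j.castSucc + r * o j ≤ -(1 - η) ∧ -1 < a j.castSucc + r * o j)
    (hi : ∀ j : Fin 2, 1 - η ≤ a j.castSucc + r * (o j + M) ∧ a j.castSucc + r * (o j + M) < 1)
    (zne : Zs.Nonempty) (zs : ∀ m ∈ Zs, |(L : ℝ) * (a 2 + r * m)| ≤ 1 / 2) :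
    NOGeo T Ex 𝒬0 L η r hr a o M Zs (Ug T Ex a r o) where
  r0 := hr0
  M0 := hM
  lo := lo
  hi := hi
  zne := zne
  zs := zs
  tile m _ v _ hU := by
    obtain ⟨i, hi⟩ := hU.tile hr0
    refine ⟨i, hi, ?_, fun j hj => ?_⟩
    · have hcc : ∀ x ∈ P (T.H i), T.cc x = lc a r x := fun x hx =>
        cc_lat hr0 (T.sub i hx) (hU.lat (hi ▸ hx))
      ext K
      simp only [mem_image]
      constructor
      · rintro ⟨K', ⟨x, hx, rfl⟩, rfl⟩
        refine ⟨fr (vx a r o m v) r hr x, ?_, ?_⟩
        · rw [← fr_image_cub hr0 hr (vx a r o m v)]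
          exact mem_image_of_mem _ (hi ▸ hx)
        · rw [hcc x hx]
          exact fr_image_lc hr0 hr (vx_eq a r o m v) x
      · rintro ⟨x, hx, rfl⟩
        rw [← fr_image_cub hr0 hr (vx a r o m v)] at hx
        obtain ⟨y, hy, rfl⟩ := hx
        refine ⟨T.cc y, ⟨y, hi ▸ hy, rfl⟩, ?_⟩
        rw [hcc y (hi ▸ hy)]
        exact fr_image_lc hr0 hr (vx_eq a r o m v) y
    · rw [Set.disjoint_left]
      intro x hx hx2
      exact (hU.2 x (hi ▸ hx) j hx2).1 hj
  face m _ v _ hU := by
    have hmem : mf (vx a r o m v) r ∈ cub (vx a r o m v) r := by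
      intro i
      fin_cases i
      · show _ ≤ vx a r o m v 0 + r / 2 ∧ vx a r o m v 0 + r / 2 ≤ vx a r o m v 0 + r
        constructor
        · show vx a r o m v 0 ≤ _
          linarith
        · linarith
      · show _ ≤ vx a r o m v 1 + r / 2 ∧ vx a r o m v 1 + r / 2 ≤ vx a r o m v 1 + r
        constructor
        · show vx a r o m v 1 ≤ _
          linarith
        · linarith
      · show _ ≤ vx a r o m v 2 ∧ vx a r o m v 2 ≤ vx a r o m v 2 + r
        constructor
        · exact le_refl _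
        · linarith
    have hx : ∀ i : Fin 3, (i ≠ 2 → mf (vx a r o m v) r i = a i + r * vz o m v i + r / 2) ∧
        (¬ i ≠ 2 → mf (vx a r o m v) r i = a i + r * vz o m v i) := by
      intro i
      fin_cases i
      · refine ⟨fun _ => ?_, fun h => absurd (by decide) h⟩
        show vx a r o m v 0 + r / 2 = _
        rw [vx_eq]; rfl
      · refine ⟨fun _ => ?_, fun h => absurd (by decide) h⟩
        show vx a r o m v 1 + r / 2 = _
        rw [vx_eq]; rfl
      · refine ⟨fun h => absurd rfl h, fun _ => ?_⟩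
        show vx a r o m v 2 = _
        rw [vx_eq]; rfl
    constructor
    · rw [dim_lat hr0 (hU.1 hmem) (hU.lat hmem)]
      have e : Fintype.card {i // ¬ onp a r (mf (vx a r o m v) r) i} =
          Fintype.card {i : Fin 3 // i ≠ 2} :=
        Fintype.card_congr (Equiv.subtypeEquivRight fun i => onp_half hr0 (fun i => i ≠ 2) hx i)
      rw [e]
      rfl
    · rw [cc_lat hr0 (hU.1 hmem) (hU.lat hmem)]
      ext y
      rw [mem_lc_half hr0 (fun i => i ≠ 2) hx, mem_usq_fr hr0 hr, vx_eq, vx_eq, vx_eq]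
      constructor
      · intro h
        obtain ⟨h1, h2⟩ := (h 0).1 (by decide)
        obtain ⟨h3, h4⟩ := (h 1).1 (by decide)
        exact ⟨h1, h2, h3, h4, (h 2).2 (fun h => h rfl)⟩
      · rintro ⟨h1, h2, h3, h4, h5⟩ i
        fin_cases i
        · exact ⟨fun _ => ⟨h1, h2⟩, fun h => absurd (by decide) h⟩
        · exact ⟨fun _ => ⟨h3, h4⟩, fun h => absurd (by decide) h⟩
        · exact ⟨fun h => absurd rfl h, fun _ => h5⟩
  edge m _ v _ hU j b hb := by
    -- the middle of the edge
    set z' : Fin 3 → ℤ := fun i => vz o m v i + if i = (1 - j).castSucc then (b : ℤ) else 0 with hz'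
    set x : E3 := fun i => a i + r * z' i + if i = j.castSucc then r / 2 else 0 with hxd
    have hb' : (b : ℝ) = 0 ∨ (b : ℝ) = 1 := by
      rcases hb with rfl | rfl
      · exact Or.inl (by norm_num)
      · exact Or.inr (by norm_num)
    have hne : j.castSucc ≠ (1 - j).castSucc := fin_a j
    have hmem : x ∈ cub (vx a r o m v) r := by
      intro i
      rw [vx_eq]
      simp only [hxd, hz']
      push_cast
      by_cases h1 : i = j.castSucc
      · subst h1
        rw [if_neg hne, if_pos rfl]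
        constructor <;> linarith
      · rw [if_neg h1]
        by_cases h2 : i = (1 - j).castSucc
        · rw [if_pos h2]
          rcases hb' with h | h <;> rw [h] <;> constructor <;> linarith
        · rw [if_neg h2]
          constructor <;> linarith
    have hx : ∀ i : Fin 3, (i = j.castSucc → x i = a i + r * z' i + r / 2) ∧
        (¬ i = j.castSucc → x i = a i + r * z' i) := by
      intro i
      constructor
      · intro h
        simp only [hxd, if_pos h]
      · intro h
        simp only [hxd, if_neg h, add_zero]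
    refine ⟨x, hU.1 hmem, ?_, ?_⟩
    · rw [dim_lat hr0 (hU.1 hmem) (hU.lat hmem)]
      have e : Fintype.card {i // ¬ onp a r x i} = Fintype.card {i : Fin 3 // i = j.castSucc} :=
        Fintype.card_congr (Equiv.subtypeEquivRight fun i => onp_half hr0 (fun i => i = j.castSucc) hx i)
      rw [e]
      exact Fintype.card_subtype_eq _
    · rw [cc_lat hr0 (hU.1 hmem) (hU.lat hmem)]
      ext y
      rw [mem_lc_half hr0 (fun i => i = j.castSucc) hx, mem_side_fr hr0 hr, vx_eq, vx_eq, vx_eq]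
      have e1 : z' j.castSucc = vz o m v j.castSucc := by
        simp only [hz', if_neg hne, add_zero]
      have e2 : (z' (1 - j).castSucc : ℝ) = vz o m v (1 - j).castSucc + b := by
        simp only [hz', if_true]; push_cast; ring
      have e3 : z' 2 = vz o m v 2 := by
        have : (2 : Fin 3) ≠ (1 - j).castSucc := fin_b j
        simp only [hz', if_neg this, add_zero]
      constructor
      · intro h
        obtain ⟨h1, h2⟩ := (h j.castSucc).1 rfl
        have h3 := (h (1 - j).castSucc).2 (fun h => hne h.symm)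
        have h4 := (h 2).2 (fin_c j)
        rw [e1] at h1 h2
        rw [e2] at h3
        rw [e3] at h4
        exact ⟨h1, h2, by rw [h3]; ring, h4⟩
      · rintro ⟨h1, h2, h3, h4⟩ i
        rw [← e1] at h1 h2
        have h3' : y (1 - j).castSucc = a (1 - j).castSucc + r * z' (1 - j).castSucc := by
          rw [e2, h3]; ring
        rw [← e3] at h4
        constructor
        · rintro rfl
          exact ⟨h1, h2⟩
        · intro hi'
          have : i = (1 - j).castSucc ∨ i = 2 := fin_d j i hi'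
          rcases this with rfl | rfl
          · exact h3'
          · exact h4
  off m _ v _ hU x hx i hxi := (hU.2 x hx i hxi).1

end geo

end

end Crest.Agent.R096.Gno_324
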