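/-
helper273, row 96, NO0-PRE [P3] (582 #10220, #10709, 276 No6), part 8: the numbers of the slices: weights of
the edges (`wt`) and of the cubes (`sq`).
-/
import Mathlib
import Crest.Agent.R096.Ps7_273
import Crest.Agent.R096.Ls5_222

set_option autoImplicit false

open MeasureTheory Set Filter
open scoped Topology ENNReal

namespace Crest.Agent.R096.Ps_273

open Crest.Agent.R096.Msh_810 Crest.Agent.R96.En3_199
  Crest.Agent.R96.En4_199 Crest.Agent.R96.En5_199 Crest.Agent.R96.En6_199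
  Crest.Agent.R96.En7_199 Crest.Agent.R96.En8_199 Crest.Agent.R96.En9_199
  Crest.Agent.R96.En11_199 Crest.Agent.R96.Sg1_199
open Crest.Agent.R096.Msh_715 hiding P I
open Crest.Agent.R096.Ls_222
open Crest.Agent.R096.No0_477 (cub fr Vw)
open Crest.Agent.R096.SkN1_477 (side usq)
open Crest.Agent.R096.Gno_324 (vz cub_vx mem_side_fr mem_usq_fr)
open Crest.Agent.R096.SkC1_961 (E3 FoamD NN)

noncomputable section

section gen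

variable {n : ℕ}

/-- the integral of the function of the own direction over an edge -/
def dirI (D : Dat n) (X : Fin n → (Fin n → ℝ) → ℝ≥0∞) (σ : Cel D) : ℝ≥0∞ :=
  open Classical in ∑ l, if σ.1.J = {l} then ic (X l) D.a σ.1 else 0

theorem dirI_eq {D : Dat n} {X : Fin n → (Fin n → ℝ) → ℝ≥0∞} {σ : Cel D} {l : Fin n}
    (h : σ.1.J = {l}) : dirI D X σ = ic (X l) D.a σ.1 := by
  classical
  unfold dirI
  rw [Finset.sum_eq_single l]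
  · rw [if_pos h]
  · intro l' _ hl'
    rw [if_neg]
    intro h'
    exact hl' (Finset.singleton_injective (h'.symm.trans h))
  · intro h'; exact absurd (Finset.mem_univ _) h'

theorem Ye_dirI {D : Dat n} {X : Fin n → (Fin n → ℝ) → ℝ≥0∞} (l : Fin n) (p : ℝ) :
    Ye D l p (dirI D X) = Ed D l p (X l) := by
  unfold Ye Ed
  refine tsum_congr fun σ => ?_
  rw [dirI_eq σ.2]

/-- the excess of the edges: `c ∫ (Hw l - s l)⁺ + er` -/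
def Yx (D : Dat n) {𝒞 : Type*} (w : 𝒞 → ℝ≥0∞) (g : 𝒞 → Fin n → (Fin n → ℝ) → ℝ) (s : Fin n → ℝ≥0∞)
    (c : ℝ≥0∞) (er : Cel D → ℝ≥0∞) (σ : Cel D) : ℝ≥0∞ := c * dirI D (Xs w g s) σ + er σ

/-- the weight of the edges: `c ∫ GGw + er` -/
def Yh (D : Dat n) {𝒞 : Type*} (w : 𝒞 → ℝ≥0∞) (g : 𝒞 → Fin n → (Fin n → ℝ) → ℝ)
    (c : ℝ≥0∞) (er : Cel D → ℝ≥0∞) (σ : Cel D) : ℝ≥0∞ := c * ic (GGw w g) D.a σ.1 + er σ

theorem Ye_Yx_le {D : Dat n} {𝒞 : Type*} {w : 𝒞 → ℝ≥0∞} {g : 𝒞 → Fin n → (Fin n → ℝ) → ℝ}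
    {s : Fin n → ℝ≥0∞} {c : ℝ≥0∞} {er : Cel D → ℝ≥0∞} {p : ℝ} (hp : 1 ≤ p) (l : Fin n) :
    Ye D l p (Yx D w g s c er) ≤ 2 ^ (p - 1) * (c ^ p * Ed D l p (Xs w g s l) + Ye D l p er) := by
  unfold Yx
  refine (Ye_add_le hp l _ _).trans ?_
  rw [Ye_mul hp, Ye_dirI]

variable {Om : Set (Fin n → ℝ)} {ι : Type*} {T : Tiling Om ι} {D : Dat n}

/-- **edges**: `F e ≤ c s |σ| + Yx` -/
theorem edge_le {𝒞 : Type*} {w : 𝒞 → ℝ≥0∞}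
    {g : 𝒞 → Fin n → (Fin n → ℝ) → ℝ} {s : Fin n → ℝ≥0∞}
    {c : ℝ≥0∞} {er : Cel D → ℝ≥0∞} {F : Edg T → ℝ≥0∞}
    (hF : ∀ (e : Edg T) (σ : Cel D) (l : Fin n), σ.1.J = {l} → e.1 = σ.c →
      F e ≤ c * ic (Hw w g l) D.a σ.1 + er σ) {e : Edg T} {σ : Cel D} {l : Fin n} (hl : σ.1.J = {l})
    (he : e.1 = σ.c) : F e ≤ c * s l * ((2:ℝ≥0∞) ^ σ.1.k)⁻¹ + Yx D w g s c er σ := by
  have hcard : σ.1.J.card = 1 := by rw [hl]; simp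
  have h1 := ic_le_const (H := Hw w g l) (s l) D.a hcard
  calc F e ≤ c * ic (Hw w g l) D.a σ.1 + er σ := hF e σ l hl he
    _ ≤ c * (s l * ((2:ℝ≥0∞) ^ σ.1.k)⁻¹ + ic (Xs w g s l) D.a σ.1) + er σ := by
        gcongr; exact h1
    _ = _ := by rw [Yx, dirI_eq hl]; ring

variable {Q : Set ι} {τ : ι → Top D}

/-- **a base tile**: `2^k N ≤ M1 (c sm) + 2^k Σ Yx` -/
theorem BaseOn.tile_le (h : BaseOn T D Q τ) {𝒞 : Type*} {w : 𝒞 → ℝ≥0∞}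
    {g : 𝒞 → Fin n → (Fin n → ℝ) → ℝ} {s : Fin n → ℝ≥0∞} {sm : ℝ≥0∞} (hs : ∀ l, s l ≤ sm)
    {c : ℝ≥0∞} {er : Cel D → ℝ≥0∞} {F : Edg T → ℝ≥0∞}
    (hF : ∀ (e : Edg T) (σ : Cel D) (l : Fin n), σ.1.J = {l} → e.1 = σ.c →
      F e ≤ c * ic (Hw w g l) D.a σ.1 + er σ) {i : ι} (hi : i ∈ Q) :
    (2:ℝ≥0∞) ^ (τ i).1.1.k * ∑ e ∈ eIn T i, F e ≤
      M1 n * (c * sm) + (2:ℝ≥0∞) ^ (τ i).1.1.k * tE D (Yx D w g s c er) (τ i).1 := by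
  have h1 : ∑ e ∈ eIn T i, F e ≤ tE D (fun σ => c * sm * ((2:ℝ≥0∞) ^ (τ i).1.1.k)⁻¹ +
      Yx D w g s c er σ) (τ i).1 := by
    refine h.sum_le hi fun e σ hσ he => ?_
    obtain ⟨l, hl⟩ := Finset.card_eq_one.1 hσ.2
    refine (edge_le (s := s) hF hl he).trans ?_
    gcongr
    · exact hs l
    · norm_num
    · exact (scale_le_of_le hσ.1).1
  have h2 : tE D (fun σ => c * sm * ((2:ℝ≥0∞) ^ (τ i).1.1.k)⁻¹ + Yx D w g s c er σ) (τ i).1 ≤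
      M1 n * (c * sm * ((2:ℝ≥0∞) ^ (τ i).1.1.k)⁻¹) + tE D (Yx D w g s c er) (τ i).1 := by
    unfold tE
    rw [ENNReal.tsum_add]
    gcongr
    rw [ENNReal.tsum_const]
    refine mul_le_mul' ?_ le_rfl
    have h3 := encard_edgesOf (τ i).1
    rw [← ENat.card_coe_set_eq] at h3
    have h4 := ENat.toENNReal_mono h3
    simpa using h4
  calc _ ≤ (2:ℝ≥0∞) ^ (τ i).1.1.k * (M1 n * (c * sm * ((2:ℝ≥0∞) ^ (τ i).1.1.k)⁻¹) +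
        tE D (Yx D w g s c er) (τ i).1) := by gcongr; exact h1.trans h2
    _ = ((2:ℝ≥0∞) ^ (τ i).1.1.k * ((2:ℝ≥0∞) ^ (τ i).1.1.k)⁻¹) * (M1 n * (c * sm)) +
        (2:ℝ≥0∞) ^ (τ i).1.1.k * tE D (Yx D w g s c er) (τ i).1 := by ring
    _ = _ := by
        rw [ENNReal.mul_inv_cancel (by positivity) (ENNReal.pow_ne_top (by norm_num)), one_mul]

/-- a base tile, crude -/
theorem BaseOn.tile_le' (h : BaseOn T D Q τ) {𝒞 : Type*} {w : 𝒞 → ℝ≥0∞}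
    {g : 𝒞 → Fin n → (Fin n → ℝ) → ℝ}
    {c : ℝ≥0∞} {er : Cel D → ℝ≥0∞} {F : Edg T → ℝ≥0∞}
    (hF : ∀ (e : Edg T) (σ : Cel D) (l : Fin n), σ.1.J = {l} → e.1 = σ.c →
      F e ≤ c * ic (Hw w g l) D.a σ.1 + er σ) {i : ι} (hi : i ∈ Q) :
    (2:ℝ≥0∞) ^ (τ i).1.1.k * ∑ e ∈ eIn T i, F e ≤
      (2:ℝ≥0∞) ^ (τ i).1.1.k * tE D (Yh D w g c er) (τ i).1 := by
  gcongr
  refine h.sum_le hi fun e σ hσ he => ?_
  obtain ⟨l, hl⟩ := Finset.card_eq_one.1 hσ.2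
  refine (hF e σ l hl he).trans ?_
  unfold Yh
  gcongr
  exact ic_mono (Hw_le_GGw w g l) _ _

/-- **cubes inside `R`**, crude weights -/
theorem cubes_Yh {p : ℝ} (hp : 1 ≤ p) {𝒞 : Type*} {w : 𝒞 → ℝ≥0∞}
    {g : 𝒞 → Fin n → (Fin n → ℝ) → ℝ} {c : ℝ≥0∞} {er : Cel D → ℝ≥0∞} (R : Set (Fin n → ℝ)) :
    ∑' τ : {τ : Cel D // τ.1.J = Finset.univ ∧ τ.c ⊆ R}, vol D τ.1 *
      ((2:ℝ≥0∞) ^ τ.1.1.k * tE D (Yh D w g c er) τ.1) ^ p ≤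
      2 ^ (p - 1) * (c ^ p * S D p (R.indicator (GGw w g)) + KC n p * ∑ l : Fin n, Ye D l p er) :=
  cubes_inside (D := D) hp (tt := Yh D w g c er) (e := er) (G := GGw w g) (c := c)
    (fun _ _ _ => le_rfl) R

end gen

/-! ### the slices -/

section slices

variable {D : Dat 3} {k : ℕ} {o : Fin 2 → ℤ}

/-- excess of the edge `(m, v)` of direction `j` (normalised) -/
def xE (D : Dat 3) (k : ℕ) (o : Fin 2 → ℤ) {𝒞 : Type*} (w : 𝒞 → ℝ≥0∞)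
    (g : 𝒞 → Fin 3 → (Fin 3 → ℝ) → ℝ) (s : Fin 3 → ℝ≥0∞) (κp : ℝ≥0∞) (er : Cel D → ℝ≥0∞)
    (j : Fin 2) (m : ℤ) (v : Fin 2 → ℕ) : ℝ≥0∞ :=
  κp * s j.castSucc +
    cellv D k o {j.castSucc} (fun σ => (2:ℝ≥0∞) ^ σ.1.k * Yx D w g s (1 + κp) er σ) m v

/-- excess of the cube `(m, v)` (normalised) -/
def qE (D : Dat 3) (k : ℕ) (o : Fin 2 → ℤ) {𝒞 : Type*} (w : 𝒞 → ℝ≥0∞)
    (g : 𝒞 → Fin 3 → (Fin 3 → ℝ) → ℝ) (s : Fin 3 → ℝ≥0∞) (c : ℝ≥0∞) (er : Cel D → ℝ≥0∞)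
    (m : ℤ) (v : Fin 2 → ℕ) : ℝ≥0∞ :=
  cellv D k o Finset.univ (fun τ => (2:ℝ≥0∞) ^ τ.1.k * tE D (Yx D w g s c er) τ) m v

/-- weight of the cube `(m, v)` (normalised), crude -/
def qH (D : Dat 3) (k : ℕ) (o : Fin 2 → ℤ) {𝒞 : Type*} (w : 𝒞 → ℝ≥0∞)
    (g : 𝒞 → Fin 3 → (Fin 3 → ℝ) → ℝ) (c : ℝ≥0∞) (er : Cel D → ℝ≥0∞)
    (m : ℤ) (v : Fin 2 → ℕ) : ℝ≥0∞ :=
  cellv D k o Finset.univ (fun τ => (2:ℝ≥0∞) ^ τ.1.k * tE D (Yh D w g c er) τ) m v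

theorem cellv_rpow {J : Finset (Fin 3)} (Y : Cel D → ℝ≥0∞) {p : ℝ} (hp : 0 < p) (m : ℤ)
    (v : Fin 2 → ℕ) : cellv D k o J Y m v ^ p = cellv D k o J (fun σ => Y σ ^ p) m v := by
  unfold cellv
  split_ifs
  · rfl
  · exact ENNReal.zero_rpow_of_pos hp

variable {𝒞 : Type*} {w : 𝒞 → ℝ≥0∞} {g : 𝒞 → Fin 3 → (Fin 3 → ℝ) → ℝ} {s : Fin 3 → ℝ≥0∞}

/-- **sum of the excesses of the edges over all slices** -/
theorem sum_xE (κp : ℝ≥0∞) (er : Cel D → ℝ≥0∞) (j : Fin 2) (A : Finset ℤ)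
    (B : Finset (Fin 2 → ℕ)) :
    ∑ m ∈ A, ∑ v ∈ B, xE D k o w g s κp er j m v ≤ (A.card * B.card) * (κp * s j.castSucc) +
      ((2:ℝ≥0∞) ^ k) ^ 3 * ((1 + κp) * Ed D j.castSucc 1 (Xs w g s j.castSucc) +
        Ye D j.castSucc 1 er) := by
  unfold xE
  simp only [Finset.sum_add_distrib, Finset.sum_const, nsmul_eq_mul]
  rw [← mul_assoc]
  gcongr
  have h1 := slice_edges D k o j.castSucc 1 (Yx D w g s (1 + κp) er) A B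
  simp only [ENNReal.rpow_one] at h1
  refine h1.trans ?_
  gcongr
  have h2 := Ye_Yx_le (D := D) (w := w) (g := g) (s := s) (c := 1 + κp) (er := er)
    (p := 1) le_rfl j.castSucc
  simpa using h2

/-- **sum of the excesses of the cubes over all slices** -/
theorem sum_qE {p : ℝ} (hp : 1 ≤ p) (c : ℝ≥0∞) (er : Cel D → ℝ≥0∞) (A : Finset ℤ)
    (B : Finset (Fin 2 → ℕ)) :
    ∑ m ∈ A, ∑ v ∈ B, qE D k o w g s c er m v ^ p ≤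
      ((2:ℝ≥0∞) ^ k) ^ 3 * (KC 3 p * (2 ^ (p - 1) *
        (c ^ p * ∑ l : Fin 3, Ed D l p (Xs w g s l) + ∑ l : Fin 3, Ye D l p er))) := by
  unfold qE
  simp only [cellv_rpow _ (lt_of_lt_of_le one_pos hp)]
  refine (slice_cubes D k o hp _ A B).trans ?_
  gcongr
  rw [Finset.mul_sum, ← Finset.sum_add_distrib, Finset.mul_sum]
  exact Finset.sum_le_sum fun l _ => Ye_Yx_le hp l

open Classical in
/-- **sum of the weights of the cubes inside `R` over all slices** -/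
theorem sum_qH {p : ℝ} (hp : 1 ≤ p) (c : ℝ≥0∞) (er : Cel D → ℝ≥0∞) (R : Set (Fin 3 → ℝ))
    (A : Finset ℤ) (B : Finset (Fin 2 → ℕ)) :
    ∑ m ∈ A, ∑ v ∈ B, (if cub (No0_477.vx D.a ((2:ℝ) ^ k)⁻¹ o m v) ((2:ℝ) ^ k)⁻¹ ⊆ R then
      qH D k o w g c er m v ^ p else 0) ≤
      ((2:ℝ≥0∞) ^ k) ^ 3 * (2 ^ (p - 1) * (c ^ p * S D p (R.indicator (GGw w g)) +
        KC 3 p * ∑ l : Fin 3, Ye D l p er)) := by
  have hcub : ∀ (m : ℤ) (v : Fin 2 → ℕ), cub (No0_477.vx D.a ((2:ℝ) ^ k)⁻¹ o m v) ((2:ℝ) ^ k)⁻¹ =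
      Dc D.a ⟨k, vz o m v, Finset.univ⟩ := by
    intro m v
    ext x
    rw [ps_cub]
    simp only [Dc, Finset.mem_univ, forall_true_left, not_true_eq_false, IsEmpty.forall_iff,
      and_true, mem_ofPred_eq]
  have h1 : ∀ (m : ℤ) (v : Fin 2 → ℕ),
      (if cub (No0_477.vx D.a ((2:ℝ) ^ k)⁻¹ o m v) ((2:ℝ) ^ k)⁻¹ ⊆ R then
      qH D k o w g c er m v ^ p else 0) = cellv D k o Finset.univ (fun τ => if τ.c ⊆ R then
        ((2:ℝ≥0∞) ^ τ.1.k * tE D (Yh D w g c er) τ) ^ p else 0) m v := by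
    intro m v
    unfold qH
    rw [cellv_rpow _ (lt_of_lt_of_le one_pos hp), hcub]
    unfold cellv
    by_cases hM : IsM D ⟨k, vz o m v, Finset.univ⟩
    · simp only [dif_pos hM]
      rfl
    · simp only [dif_neg hM]
      split_ifs <;> rfl
  simp only [h1]
  refine (slice_le D k o Finset.univ _ A B).trans ?_
  gcongr
  refine le_trans ?_ (cubes_Yh (D := D) hp (w := w) (g := g) (c := c) (er := er) R)
  have e1 : ∑' τ : {τ : Cel D // τ.1.J = Finset.univ ∧ τ.c ⊆ R}, vol D τ.1 *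
      ((2:ℝ≥0∞) ^ τ.1.1.k * tE D (Yh D w g c er) τ.1) ^ p =
      ∑' τ : Cel D, ({τ : Cel D | τ.1.J = Finset.univ ∧ τ.c ⊆ R}).indicator (fun τ => vol D τ *
      ((2:ℝ≥0∞) ^ τ.1.k * tE D (Yh D w g c er) τ) ^ p) τ :=
    tsum_subtype {τ : Cel D | τ.1.J = Finset.univ ∧ τ.c ⊆ R} (fun τ : Cel D => vol D τ *
      ((2:ℝ≥0∞) ^ τ.1.k * tE D (Yh D w g c er) τ) ^ p)
  have e2 : ∑' τ : {τ : Cel D // τ.1.J = Finset.univ}, vol D τ.1 *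
      (if τ.1.c ⊆ R then ((2:ℝ≥0∞) ^ τ.1.1.k * tE D (Yh D w g c er) τ.1) ^ p else 0) =
      ∑' τ : Cel D, ({τ : Cel D | τ.1.J = Finset.univ}).indicator (fun τ => vol D τ *
      (if τ.c ⊆ R then ((2:ℝ≥0∞) ^ τ.1.k * tE D (Yh D w g c er) τ) ^ p else 0)) τ :=
    tsum_subtype {τ : Cel D | τ.1.J = Finset.univ} (fun τ : Cel D => vol D τ *
      (if τ.c ⊆ R then ((2:ℝ≥0∞) ^ τ.1.k * tE D (Yh D w g c er) τ) ^ p else 0))
  rw [e1, e2]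
  refine ENNReal.tsum_le_tsum fun τ => ?_
  by_cases h2 : τ.1.J = Finset.univ
  · rw [indicator_of_mem (show τ ∈ {τ : Cel D | τ.1.J = Finset.univ} from h2)]
    by_cases h3 : τ.c ⊆ R
    · rw [indicator_of_mem (show τ ∈ {τ : Cel D | τ.1.J = Finset.univ ∧ τ.c ⊆ R} from ⟨h2, h3⟩),
        if_pos h3]
    · rw [if_neg h3, mul_zero]; exact zero_le
  · rw [indicator_of_notMem (show τ ∉ {τ : Cel D | τ.1.J = Finset.univ} from h2)]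
    exact zero_le

end slices

end

end Crest.Agent.R096.Ps_273
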