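/-
helper273, row 96, NO0-PRE [P3] (582 #10220, #10709, 276 No6), part 9: the clauses `wt` and `sq` of `PreN`
for the selected slices.
-/
import Mathlib
import Crest.Agent.R096.Ps8_273
import Crest.Agent.R096.Nl2_234

set_option autoImplicit false
set_option linter.unusedVariables false

open MeasureTheory Set Filter
open scoped Topology ENNReal

namespace Crest.Agent.R096.Ps_273

open Crest.Agent.R096.Msh_810 Crest.Agent.R96.En3_199
  Crest.Agent.R96.En4_199 Crest.Agent.R96.En5_199 Crest.Agent.R96.En6_199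
  Crest.Agent.R96.En7_199 Crest.Agent.R96.En8_199 Crest.Agent.R96.En9_199
  Crest.Agent.R96.En11_199 Crest.Agent.R96.Sg1_199
open Crest.Agent.R096.Msh_715 hiding P I
open Crest.Agent.R096.Ls_222
open Crest.Agent.R096.No0_477 (cub fr Vw Fc)
open Crest.Agent.R096.SkN1_477 (side usq)
open Crest.Agent.R096.Gno_324 (vz cub_vx mem_side_fr mem_usq_fr)
open Crest.Agent.R096.SkC1_961 (E3 FoamD NN)
open Crest.Agent.R096.Nl_234 (HWq)

noncomputable section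

variable {δ κ0 R c0 : ℝ} {La Om : Set E3} {ι : Type} {Φ : FoamD δ κ0 R c0 La} {T : Tiling Om ι}
  {f : E3 → E3} {D : Dat 3} {k : ℕ} {o : Fin 2 → ℤ} {M : ℕ} {A Zs : Finset ℤ}
  {κ : Φ.F → ℕ} {Lv : Φ.F → Finset ℝ}
  {w : Φ.F → ℝ≥0∞} {g : Φ.F → Fin 3 → (Fin 3 → ℝ) → ℝ}

theorem add_rpow_le {p : ℝ} (hp : 1 ≤ p) {x y : ℝ} (hx : 0 ≤ x) (hy : 0 ≤ y) :
    (x + y) ^ p ≤ 2 ^ (p - 1) * (x ^ p + y ^ p) := by
  lift x to NNReal using hx
  lift y to NNReal using hy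
  exact_mod_cast NNReal.rpow_add_le_mul_rpow_add_rpow x y hp

/-- the weight of a closed 1-cell -/
theorem Vw_edg (e : Edg T) : Vw Φ f κ Lv e.1 = EN (us Φ f) κ Lv e := by
  unfold Vw EN
  refine tsum_congr fun c => ?_
  congr 1
  refine Finset.sum_congr rfl fun t _ => ?_
  unfold cr
  rw [sgm_edg]
  rfl

theorem ofReal_two_inv (k : ℕ) : ENNReal.ofReal ((2:ℝ) ^ k)⁻¹ = ((2:ℝ≥0∞) ^ k)⁻¹ := by
  rw [ENNReal.ofReal_inv_of_pos (by positivity), ENNReal.ofReal_pow (by norm_num)]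
  norm_num

/-- **the weight of a side of a square of the block** -/
theorem wt_side {r : ℝ} (hr : r ≠ 0) (hrk : r = ((2:ℝ) ^ k)⁻¹) (hB : Blk D k o M A)
    {s : Fin 3 → ℝ≥0∞} {κp : ℝ≥0∞} {er : Cel D → ℝ≥0∞}
    (hF : ∀ (e : Edg T) (σ : Cel D) (l : Fin 3), σ.1.J = {l} → e.1 = σ.c →
      EN (us Φ f) κ Lv e ≤ (1 + κp) * ic (Hw w g l) D.a σ.1 + er σ)
    {m : ℤ} (hm : m ∈ A) {v : Fin 2 → ℕ} (hv : ∀ j, v j < M) {j : Fin 2} {b : ℕ}
    (hb : b = 0 ∨ b = 1)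
    (hedge : ∃ z ∈ Om, T.dim z = 1 ∧ T.cc z = side (fr (No0_477.vx D.a r o m v) r hr) j b) :
    Vw Φ f κ Lv (side (fr (No0_477.vx D.a r o m v) r hr) j b) ≤
      ENNReal.ofReal r * (s j.castSucc +
        xE D k o w g s κp er j m (fun i => v i + if i = j then 0 else b)) := by
  obtain ⟨z, hz, hd, hcc⟩ := hedge
  set v' : Fin 2 → ℕ := fun i => v i + if i = j then 0 else b with hv'
  set e : Edg T := ⟨side (fr (No0_477.vx D.a r o m v) r hr) j b, z, hz, hd, hcc.symm⟩ with he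
  have hM : IsM D ⟨k, vz o m v', {j.castSucc}⟩ := by
    apply hB.isM hm hv
    · intro i hi
      rw [Finset.mem_singleton] at hi
      subst hi
      fin_cases j <;> simp [vz, hv']
    · intro i hi
      rw [Finset.mem_singleton] at hi
      rcases Gno_324.fin_d j i hi with rfl | rfl
      · rcases hb with rfl | rfl
        · left
          fin_cases j <;> simp [vz, hv']
        · right
          fin_cases j
          · show vz o m v' 1 = vz o m v 1 + 1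
            simp [vz, hv']; ring
          · show vz o m v' 0 = vz o m v 0 + 1
            simp [vz, hv']; ring
      · left
        simp [vz]
  have hec : e.1 = Cel.c (D := D) ⟨⟨k, vz o m v', {j.castSucc}⟩, hM⟩ := side_eq hr hrk j b
  have h1 := edge_le (s := s) hF (e := e) (σ := ⟨⟨k, vz o m v', {j.castSucc}⟩, hM⟩)
    (l := j.castSucc) rfl hec
  have h2 : Vw Φ f κ Lv (side (fr (No0_477.vx D.a r o m v) r hr) j b) = EN (us Φ f) κ Lv e :=
    Vw_edg e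
  rw [h2]
  refine h1.trans (le_of_eq ?_)
  unfold xE
  rw [cellv_eq _ hM, hrk, ofReal_two_inv]
  show (1 + κp) * s j.castSucc * ((2:ℝ≥0∞) ^ k)⁻¹ + _ = _
  have h3 : ((2:ℝ≥0∞) ^ k)⁻¹ * (2:ℝ≥0∞) ^ k = 1 :=
    ENNReal.inv_mul_cancel (by positivity) (ENNReal.pow_ne_top (by norm_num))
  have h4 : ∀ x : ℝ≥0∞, ((2:ℝ≥0∞) ^ k)⁻¹ * ((2:ℝ≥0∞) ^ k * x) = x := fun x => by
    rw [← mul_assoc, h3, one_mul]
  rw [mul_add, mul_add, h4]
  ring

/-- **the clause `wt` of `PreN`** for the selected slices -/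
theorem wt_clause {r : ℝ} (hr : r ≠ 0) (hrk : r = ((2:ℝ) ^ k)⁻¹) (hB : Blk D k o M A)
    (hZA : Zs ⊆ A) {s : Fin 3 → ℝ} (hs : ∀ i, 0 ≤ s i) {κp : ℝ≥0∞} {er : Cel D → ℝ≥0∞}
    (hF : ∀ (e : Edg T) (σ : Cel D) (l : Fin 3), σ.1.J = {l} → e.1 = σ.c →
      EN (us Φ f) κ Lv e ≤ (1 + κp) * ic (Hw w g l) D.a σ.1 + er σ)
    {U : ℤ → (Fin 2 → ℕ) → Prop}
    (hedge : ∀ m ∈ Zs, ∀ v, (∀ j, v j < M) → U m v → ∀ (j : Fin 2) (b : ℕ), b = 0 ∨ b = 1 →
      ∃ z ∈ Om, T.dim z = 1 ∧ T.cc z = side (fr (No0_477.vx D.a r o m v) r hr) j b)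
    {N0 : ℝ} (hN0 : 0 ≤ N0)
    (hsum : ∀ j, ∑ m ∈ Zs, ∑ v ∈ Fintype.piFinset fun _ : Fin 2 => Finset.range (M + 1),
      xE D k o w g (fun l => ENNReal.ofReal (s l)) κp er j m v ≤ ENNReal.ofReal N0) :
    ∃ x : Fin 2 → ℤ → (Fin 2 → ℕ) → ℝ, (∀ j m v, 0 ≤ x j m v) ∧
    (∀ m ∈ Zs, ∀ v, (∀ j, v j < M) → U m v → ∀ (j : Fin 2) (b : ℕ), b = 0 ∨ b = 1 →
      Vw Φ f κ Lv (side (fr (No0_477.vx D.a r o m v) r hr) j b) ≤
        ENNReal.ofReal (r * (s j.castSucc +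
          x j m (fun i => v i + if i = j then 0 else b)))) ∧
    ∀ j, ∑ m ∈ Zs, ∑ v ∈ Fintype.piFinset fun _ : Fin 2 => Finset.range (M + 1), x j m v ≤ N0 := by
  have hr0 : 0 < r := by rw [hrk]; positivity
  have hfin : ∀ j, ∀ m ∈ Zs, ∀ v ∈ Fintype.piFinset fun _ : Fin 2 => Finset.range (M + 1),
      xE D k o w g (fun l => ENNReal.ofReal (s l)) κp er j m v ≠ ⊤ := by
    intro j m hm v hv htop
    have h1 := hsum j
    have h2 : xE D k o w g (fun l => ENNReal.ofReal (s l)) κp er j m v ≤ ENNReal.ofReal N0 := by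
      refine le_trans ?_ h1
      refine le_trans ?_ (Finset.single_le_sum
        (f := fun m => ∑ v ∈ Fintype.piFinset fun _ : Fin 2 => Finset.range (M + 1),
          xE D k o w g (fun l => ENNReal.ofReal (s l)) κp er j m v) (fun _ _ => zero_le) hm)
      exact Finset.single_le_sum
        (f := fun v => xE D k o w g (fun l => ENNReal.ofReal (s l)) κp er j m v)
        (fun _ _ => zero_le) hv
    rw [htop, top_le_iff] at h2
    exact ENNReal.ofReal_ne_top h2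
  refine ⟨fun j m v => (xE D k o w g (fun l => ENNReal.ofReal (s l)) κp er j m v).toReal,
    fun _ _ _ => ENNReal.toReal_nonneg, ?_, ?_⟩
  · intro m hm v hv hU j b hb
    have h1 := wt_side (s := fun l => ENNReal.ofReal (s l)) hr hrk hB hF (hZA hm) hv hb
      (hedge m hm v hv hU j b hb)
    refine h1.trans (le_of_eq ?_)
    have hmem : (fun i => v i + if i = j then 0 else b) ∈
        Fintype.piFinset fun _ : Fin 2 => Finset.range (M + 1) := by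
      rw [Fintype.mem_piFinset]
      intro i
      rw [Finset.mem_range]
      have := hv i
      rcases hb with rfl | rfl
      · split_ifs <;> omega
      · split_ifs <;> omega
    rw [ENNReal.ofReal_mul hr0.le, ENNReal.ofReal_add (hs _) ENNReal.toReal_nonneg,
      ENNReal.ofReal_toReal (hfin j m hm _ hmem)]
  · intro j
    have h1 : ∑ m ∈ Zs, ∑ v ∈ Fintype.piFinset fun _ : Fin 2 => Finset.range (M + 1),
        (xE D k o w g (fun l => ENNReal.ofReal (s l)) κp er j m v).toReal =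
        (∑ m ∈ Zs, ∑ v ∈ Fintype.piFinset fun _ : Fin 2 => Finset.range (M + 1),
        xE D k o w g (fun l => ENNReal.ofReal (s l)) κp er j m v).toReal := by
      rw [ENNReal.toReal_sum]
      · refine Finset.sum_congr rfl fun m hm => ?_
        rw [ENNReal.toReal_sum]
        exact fun v hv => hfin j m hm v hv
      · intro m hm
        exact ENNReal.sum_ne_top.2 fun v hv => hfin j m hm v hv
    rw [h1]
    exact ENNReal.toReal_le_of_le_ofReal hN0 (hsum j)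

/-- the cube above a square of the block as a mesh cell -/
theorem cub_eq_cel {r : ℝ} (hrk : r = ((2:ℝ) ^ k)⁻¹) (m : ℤ) (v : Fin 2 → ℕ) :
    cub (No0_477.vx D.a r o m v) r = Dc D.a ⟨k, vz o m v, Finset.univ⟩ := by
  rw [hrk]
  ext x
  rw [ps_cub]
  simp only [Dc, Finset.mem_univ, forall_true_left, not_true_eq_false, IsEmpty.forall_iff,
    and_true, mem_ofPred_eq]

/-- **the weight of a cube of the block** -/
theorem sq_tile {Q : Set ι} {τ : ι → Top D} (h : BaseOn T D Q τ) {r : ℝ}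
    (hrk : r = ((2:ℝ) ^ k)⁻¹) (hB : Blk D k o M A) {s : Fin 3 → ℝ≥0∞} {sm : ℝ≥0∞}
    (hs : ∀ l, s l ≤ sm) {c : ℝ≥0∞} {er : Cel D → ℝ≥0∞}
    (hF : ∀ (e : Edg T) (σ : Cel D) (l : Fin 3), σ.1.J = {l} → e.1 = σ.c →
      EN (us Φ f) κ Lv e ≤ c * ic (Hw w g l) D.a σ.1 + er σ)
    (hN : ∀ i, NN Φ T f κ Lv i ≤ ∑ e ∈ eIn T i, EN (us Φ f) κ Lv e)
    {m : ℤ} (hm : m ∈ A) {v : Fin 2 → ℕ} (hv : ∀ j, v j < M) {i : ι} (hi : i ∈ Q)
    (hPi : Msh_715.P (T.H i) = cub (No0_477.vx D.a r o m v) r) :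
    NN Φ T f κ Lv i ≤ ENNReal.ofReal r * (M1 3 * (c * sm) + qE D k o w g s c er m v) ∧
    NN Φ T f κ Lv i ≤ ENNReal.ofReal r * qH D k o w g c er m v := by
  have hM : IsM D ⟨k, vz o m v, Finset.univ⟩ :=
    hB.isM hm hv (fun i _ => rfl) (fun i hi => absurd (Finset.mem_univ i) hi)
  have hτ : (τ i).1 = ⟨⟨k, vz o m v, Finset.univ⟩, hM⟩ := by
    apply Cel.c_injective
    rw [← h.P_eq hi, hPi]
    exact cub_eq_cel hrk m v
  have h3 : ((2:ℝ≥0∞) ^ k)⁻¹ * (2:ℝ≥0∞) ^ k = 1 :=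
    ENNReal.inv_mul_cancel (by positivity) (ENNReal.pow_ne_top (by norm_num))
  have h1 := h.tile_le hs hF hi
  have h2 := h.tile_le' hF hi
  rw [hτ] at h1 h2
  have h4 : ∀ x y : ℝ≥0∞, (2:ℝ≥0∞) ^ k * x ≤ y → x ≤ ENNReal.ofReal r * y := by
    intro x y hxy
    rw [hrk, ofReal_two_inv]
    calc x = ((2:ℝ≥0∞) ^ k)⁻¹ * ((2:ℝ≥0∞) ^ k * x) := by rw [← mul_assoc, h3, one_mul]
      _ ≤ _ := by gcongr
  constructor
  · refine (hN i).trans (h4 _ _ (h1.trans (le_of_eq ?_)))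
    unfold qE
    rw [cellv_eq _ hM]
  · refine (hN i).trans (h4 _ _ (h2.trans (le_of_eq ?_)))
    unfold qH
    rw [cellv_eq _ hM]

open Classical in
/-- **the clause `sq` of `PreN`** for the selected slices; `Rx` = the bad set. -/
theorem sq_clause {p : ℝ} (hp : 1 ≤ p) {Q : Set ι} {τ : ι → Top D} (h : BaseOn T D Q τ) {r : ℝ}
    (hrk : r = ((2:ℝ) ^ k)⁻¹) (hB : Blk D k o M A) (hZA : Zs ⊆ A) {s : Fin 3 → ℝ≥0∞}
    {sm : ℝ≥0∞} (hs : ∀ l, s l ≤ sm) {c : ℝ≥0∞} {er : Cel D → ℝ≥0∞} {S : ℝ} (hS0 : 0 ≤ S)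
    (hS : M1 3 * (c * sm) ≤ ENNReal.ofReal S)
    (hF : ∀ (e : Edg T) (σ : Cel D) (l : Fin 3), σ.1.J = {l} → e.1 = σ.c →
      EN (us Φ f) κ Lv e ≤ c * ic (Hw w g l) D.a σ.1 + er σ)
    (hN : ∀ i, NN Φ T f κ Lv i ≤ ∑ e ∈ eIn T i, EN (us Φ f) κ Lv e)
    {U : ℤ → (Fin 2 → ℕ) → Prop}
    (hQ : ∀ m ∈ Zs, ∀ v, (∀ j, v j < M) → U m v → ∀ i,
      Msh_715.P (T.H i) = cub (No0_477.vx D.a r o m v) r → i ∈ Q)
    {q : ℕ} {al : Fin 3 → ℝ} {hh : ℝ} {Rx : Set E3}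
    (hRx : ∀ x ∈ Om, x ∉ Rx → HWq Φ f q al hh {x})
    (hin : ∀ m ∈ Zs, ∀ v, (∀ j, v j < M) → U m v → cub (No0_477.vx D.a r o m v) r ⊆ Om)
    {N1 N2 N3 N4 : ℝ} (hN1 : 0 ≤ N1) (hN2 : 0 ≤ N2) (hN3 : 0 ≤ N3)
    (h1 : ∑ m ∈ Zs, ∑ v ∈ Fintype.piFinset fun _ : Fin 2 => Finset.range M,
      qE D k o w g s c er m v ^ p ≤ ENNReal.ofReal N1)
    (h2 : ∑ m ∈ Zs, ∑ v ∈ Fintype.piFinset fun _ : Fin 2 => Finset.range M,
      (if cub (No0_477.vx D.a r o m v) r ⊆ Rx then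
        qH D k o w g c er m v ^ p else 0) ≤ ENNReal.ofReal N2)
    (h3 : (((Fc M Zs).filter fun k => cub (No0_477.vx D.a r o k.1 k.2) r ⊆ Rx).card : ℝ) ≤ N3)
    (h4 : 2 ^ (p - 1) * (S ^ p * N3 + N2) ≤ N4) :
    ∃ Xq : ℤ → (Fin 2 → ℕ) → ℝ, (∀ m v, 0 ≤ Xq m v) ∧
    (∀ m ∈ Zs, ∀ v, (∀ j, v j < M) → U m v → ∀ i,
      Msh_715.P (T.H i) = cub (No0_477.vx D.a r o m v) r →
      NN Φ T f κ Lv i ≤ ENNReal.ofReal (r * (S + Xq m v))) ∧
    (∀ D' : Finset (ℤ × (Fin 2 → ℕ)), D' ⊆ Fc M Zs →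
      (∀ k ∈ D', U k.1 k.2 ∧ HWq Φ f q al hh (cub (No0_477.vx D.a r o k.1 k.2) r)) →
      ∑ k ∈ D', Xq k.1 k.2 ^ p ≤ N1) ∧
    (∀ D' : Finset (ℤ × (Fin 2 → ℕ)), D' ⊆ Fc M Zs →
      (∀ k ∈ D', U k.1 k.2 ∧ ¬ HWq Φ f q al hh (cub (No0_477.vx D.a r o k.1 k.2) r)) →
      ∑ k ∈ D', (S + Xq k.1 k.2) ^ p ≤ N4) := by
  have hr0 : 0 < r := by rw [hrk]; positivity
  have hp0 : 0 < p := by linarith
  have hFc : ∀ {k' : ℤ × (Fin 2 → ℕ)}, k' ∈ Fc M Zs → k'.1 ∈ Zs ∧ (∀ j, k'.2 j < M) ∧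
      k'.2 ∈ Fintype.piFinset fun _ : Fin 2 => Finset.range M := by
    intro k' hk'
    obtain ⟨e1, e2⟩ := Finset.mem_product.1 hk'
    refine ⟨e1, fun j => ?_, e2⟩
    exact Finset.mem_range.1 (Fintype.mem_piFinset.1 e2 j)
  -- cubes which are not over the horizontal walls lie in `Rx`
  have hsub : ∀ k' ∈ Fc M Zs, U k'.1 k'.2 →
      ¬ HWq Φ f q al hh (cub (No0_477.vx D.a r o k'.1 k'.2) r) →
      cub (No0_477.vx D.a r o k'.1 k'.2) r ⊆ Rx := by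
    intro k' hk' hU hnH x hx
    by_contra hxR
    obtain ⟨C, O, hCO, y, hy, hyP⟩ := hRx x (hin k'.1 (hFc hk').1 k'.2 (hFc hk').2.1 hU hx) hxR
    rw [mem_singleton_iff] at hy
    subst hy
    exact hnH ⟨C, O, hCO, y, hx, hyP⟩
  have hsum1 : ∑ k' ∈ Fc M Zs, qE D k o w g s c er k'.1 k'.2 ^ p ≤ ENNReal.ofReal N1 := by
    refine le_trans (le_of_eq ?_) h1
    exact Finset.sum_product' Zs _ (fun m v => qE D k o w g s c er m v ^ p)
  have hsum2 : ∑ k' ∈ Fc M Zs, (if cub (No0_477.vx D.a r o k'.1 k'.2) r ⊆ Rx then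
        qH D k o w g c er k'.1 k'.2 ^ p else 0) ≤ ENNReal.ofReal N2 := by
    refine le_trans (le_of_eq ?_) h2
    exact Finset.sum_product' Zs _ (fun m v => if cub (No0_477.vx D.a r o m v) r ⊆ Rx then
        qH D k o w g c er m v ^ p else 0)
  have hf1 : ∀ k' ∈ Fc M Zs, qE D k o w g s c er k'.1 k'.2 ≠ ⊤ := by
    intro k' hk' htop
    have h5 : qE D k o w g s c er k'.1 k'.2 ^ p ≤ ENNReal.ofReal N1 :=
      (Finset.single_le_sum (f := fun k' : ℤ × (Fin 2 → ℕ) => qE D k o w g s c er k'.1 k'.2 ^ p)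
        (fun _ _ => zero_le) hk').trans hsum1
    rw [htop, ENNReal.top_rpow_of_pos hp0, top_le_iff] at h5
    exact ENNReal.ofReal_ne_top h5
  have hf2 : ∀ k' ∈ Fc M Zs, cub (No0_477.vx D.a r o k'.1 k'.2) r ⊆ Rx →
      qH D k o w g c er k'.1 k'.2 ≠ ⊤ := by
    intro k' hk' hR htop
    have h5 : (if cub (No0_477.vx D.a r o k'.1 k'.2) r ⊆ Rx then
        qH D k o w g c er k'.1 k'.2 ^ p else 0) ≤ ENNReal.ofReal N2 :=
      (Finset.single_le_sum (f := fun k' : ℤ × (Fin 2 → ℕ) =>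
        (if cub (No0_477.vx D.a r o k'.1 k'.2) r ⊆ Rx then
        qH D k o w g c er k'.1 k'.2 ^ p else 0)) (fun _ _ => zero_le) hk').trans hsum2
    rw [if_pos hR, htop, ENNReal.top_rpow_of_pos hp0, top_le_iff] at h5
    exact ENNReal.ofReal_ne_top h5
  refine ⟨fun m v => if HWq Φ f q al hh (cub (No0_477.vx D.a r o m v) r) then
    (qE D k o w g s c er m v).toReal else (qH D k o w g c er m v).toReal, ?_, ?_, ?_, ?_⟩
  · intro m v
    dsimp only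
    split_ifs <;> exact ENNReal.toReal_nonneg
  · intro m hm v hv hU i hPi
    have hk' : ((m, v) : ℤ × (Fin 2 → ℕ)) ∈ Fc M Zs := by
      refine Finset.mem_product.2 ⟨hm, Fintype.mem_piFinset.2 fun j => Finset.mem_range.2 (hv j)⟩
    obtain ⟨g1, g2⟩ := sq_tile h hrk hB hs hF hN (hZA hm) hv (hQ m hm v hv hU i hPi) hPi
    dsimp only
    split_ifs with hH
    · refine g1.trans ?_
      rw [ENNReal.ofReal_mul hr0.le, ENNReal.ofReal_add hS0 ENNReal.toReal_nonneg,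
        ENNReal.ofReal_toReal (hf1 _ hk')]
      gcongr
    · refine g2.trans ?_
      rw [ENNReal.ofReal_mul hr0.le, ENNReal.ofReal_add hS0 ENNReal.toReal_nonneg,
        ENNReal.ofReal_toReal (hf2 _ hk' (hsub _ hk' hU hH))]
      gcongr
      exact le_add_self
  · intro D' hD' hall
    have h5 : ENNReal.ofReal (∑ k' ∈ D', (if HWq Φ f q al hh
        (cub (No0_477.vx D.a r o k'.1 k'.2) r) then
        (qE D k o w g s c er k'.1 k'.2).toReal else (qH D k o w g c er k'.1 k'.2).toReal) ^ p) ≤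
        ENNReal.ofReal N1 := by
      rw [ENNReal.ofReal_sum_of_nonneg (fun k' _ => by
        apply Real.rpow_nonneg
        split_ifs <;> exact ENNReal.toReal_nonneg)]
      refine le_trans ?_ hsum1
      refine le_trans (le_of_eq (Finset.sum_congr rfl fun k' hk' => ?_))
        (Finset.sum_le_sum_of_subset hD')
      rw [if_pos (hall k' hk').2, ← ENNReal.ofReal_rpow_of_nonneg ENNReal.toReal_nonneg hp0.le,
        ENNReal.ofReal_toReal (hf1 k' (hD' hk'))]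
    exact (ENNReal.ofReal_le_ofReal_iff hN1).1 h5
  · intro D' hD' hall
    have hR : ∀ k' ∈ D', cub (No0_477.vx D.a r o k'.1 k'.2) r ⊆ Rx := fun k' hk' =>
      hsub k' (hD' hk') (hall k' hk').1 (hall k' hk').2
    have hcard : (D'.card : ℝ) ≤ N3 := by
      refine le_trans ?_ h3
      exact_mod_cast Finset.card_le_card fun k' hk' =>
        Finset.mem_filter.2 ⟨hD' hk', hR k' hk'⟩
    have h5 : ENNReal.ofReal (∑ k' ∈ D', (qH D k o w g c er k'.1 k'.2).toReal ^ p) ≤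
        ENNReal.ofReal N2 := by
      rw [ENNReal.ofReal_sum_of_nonneg (fun k' _ => Real.rpow_nonneg ENNReal.toReal_nonneg _)]
      refine le_trans ?_ hsum2
      refine le_trans (le_of_eq (Finset.sum_congr rfl fun k' hk' => ?_))
        (Finset.sum_le_sum_of_subset hD')
      rw [if_pos (hR k' hk'), ← ENNReal.ofReal_rpow_of_nonneg ENNReal.toReal_nonneg hp0.le,
        ENNReal.ofReal_toReal (hf2 k' (hD' hk') (hR k' hk'))]
    have h6 := (ENNReal.ofReal_le_ofReal_iff hN2).1 h5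
    refine le_trans ?_ h4
    calc ∑ k' ∈ D', (S + (if HWq Φ f q al hh (cub (No0_477.vx D.a r o k'.1 k'.2) r) then
        (qE D k o w g s c er k'.1 k'.2).toReal else (qH D k o w g c er k'.1 k'.2).toReal)) ^ p
        ≤ ∑ k' ∈ D', 2 ^ (p - 1) * (S ^ p + (qH D k o w g c er k'.1 k'.2).toReal ^ p) := by
          refine Finset.sum_le_sum fun k' hk' => ?_
          rw [if_neg (hall k' hk').2]
          exact add_rpow_le hp hS0 ENNReal.toReal_nonneg
      _ = 2 ^ (p - 1) * (S ^ p * D'.card + ∑ k' ∈ D', (qH D k o w g c er k'.1 k'.2).toReal ^ p) := by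
          rw [← Finset.mul_sum, Finset.sum_add_distrib, Finset.sum_const, nsmul_eq_mul]
          ring
      _ ≤ _ := by
          have : 0 ≤ S ^ p := Real.rpow_nonneg hS0 p
          gcongr

end

end Crest.Agent.R096.Ps_273
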