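import Crest.Agent.R096.Np3_962
import Crest.Agent.R096.Ps9_273
import Crest.Agent.R096.Gno2_324
import Crest.Agent.R096.No6_276

/-!
Row 96 (S0127), helper962, node NO0-PRE3, mesh part.  **The literal structure `MeshN`** = output of the
mesh part for `p ≥ 3` at one good shift: everything `PreG` and `PreN` are proved from.
Definitions only.
-/

set_option autoImplicit false
set_option linter.unusedSectionVars false
set_option linter.unusedVariables false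
open Set Filter Topology MeasureTheory Metric
open scoped NNReal ENNReal

noncomputable section

namespace Crest.Agent.R096.Np_962

open Crest.Agent.R096.Msh_715 hiding P I
open Crest.Agent.R096.SkC1_961 (E3 Cfg FoamD Hom3 NN)
open Crest.Agent.R096.Ls_222
open Crest.Agent.R096.Mbf_337
open Crest.Agent.R96.Pm_199 (le)
open Crest.Agent.R096.Msh_810 Crest.Agent.R96.En2_199 Crest.Agent.R96.En4_199
  Crest.Agent.R96.En9_199 Crest.Agent.R96.En11_199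
open Crest.Agent.R096.Ps_273
open Crest.Agent.R096.No0_477 (cub fr Fc vx)
open Crest.Agent.R096.SkN1_477 (usq)
open Crest.Agent.R096.No_276 (QL)
open Crest.Agent.R096.Gno_324 (Ug)
open Crest.Agent.R096.Ea_713 (lin)
open Crest.Agent.R096.Log2_582 (IsLog)

variable {δ κ0 R c0 : ℝ} {La : Set E3} {ι : Type}

/-- (number of the squares of the block which meet the tile `i`) `* r ^ 3` -/
def cntA {Om : Set E3} (T : Tiling Om ι) (r : ℝ) (hr : r ≠ 0) (a : E3) (o : Fin 2 → ℤ) (M : ℕ)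
    (Zs : Finset ℤ) (i : ι) : ℝ :=
  (({k : ℤ × (Fin 2 → ℕ) | k ∈ Fc M Zs ∧
    (Msh_715.P (T.H i) ∩ usq (fr (vx a r o k.1 k.2) r hr)).Nonempty}).ncard : ℝ) * r ^ 3

/-- **OUTPUT OF THE MESH PART, `p ≥ 3`.**  `D` = outer Whitney mesh (shift `D.a`), `K0` = scale of the
bulk, `r = 2 ^ -K0`; `Q` = the outer tiles all of whose neighbours miss the walls (`BaseOn`), all
other tiles (walls, inner tiles) are counted in `nonQ`; `ct c` = core tiles; `B` = frames; `Cs` = the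
constant of the machine (function of the shape), `cw` = weight of the counting of squares, `Ku` its
value on the universal shapes; numbers `e1` (excess), `e2` (bad set `R'`), `e3` (all other tiles),
`e4` (cores), `e5` (junk squares). -/
structure MeshN (p : ℝ) (q : ℕ) (al : Fin 3 → ℝ) (h : ℝ) (s : Fin 3 → ℝ) (L : ℕ) (η : ℝ)
    (Φ : FoamD δ κ0 R c0 La) (f1 : E3 → E3) (g : Φ.F → Fin 3 → E3 → ℝ) (W : Φ.F → ℝ)
    (κ' μ κ1 κ2 κ3 : ℝ) (Cs : Set (Set E3) → ℝ) (𝒮0 : Set (Set (Set E3))) (HH R' : Set E3)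
    (e1 e2 e3 e4 : ℝ≥0∞) (e5 : ℝ) (Ku : ℝ≥0∞) (D : Dat 3) (K0 : ℕ) (r : ℝ) (hr : r ≠ 0)
    (o : Fin 2 → ℤ) (M : ℕ) (Zs : Finset ℤ) (T : Tiling (QL L) ι) (Q : Set ι) (τ : ι → Top D)
    (J0 J V : Φ.F → Set ι) (ct : Φ.F → ι) (A : Φ.F → E3 ≃ᵃ[ℝ] E3) (lam : Φ.F → ℝ) (z : Φ.F → E3)
    (θ : Φ.F → E3 → E3) (φ : Φ.F → E3 → ℝ) (Mg : Φ.F → ℕ) (B : ι → E3 ≃ᵃ[ℝ] E3)
    (cw : ι → ℝ≥0∞) : Prop where
  /- the block of squares -/
  rK : r = ((2:ℝ) ^ K0)⁻¹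
  lo : ∀ j : Fin 2, D.a j.castSucc + r * o j ≤ -(1 - η) ∧ -1 < D.a j.castSucc + r * o j
  hi : ∀ j : Fin 2, 1 - η ≤ D.a j.castSucc + r * (o j + M) ∧ D.a j.castSucc + r * (o j + M) < 1
  M0 : 0 < M
  zne : Zs.Nonempty
  zs : ∀ m ∈ Zs, |(L : ℝ) * (D.a 2 + r * m)| ≤ 1 / 2
  N1 : 2 / L ≤ ((Zs.card : ℝ) * M ^ 2) * r ^ 3
  N2 : ((Zs.card : ℝ) * M ^ 2) * r ^ 3 ≤ 5 / L
  blk : Blk D K0 o M Zs
  junk : ((({k : ℤ × (Fin 2 → ℕ) | k ∈ Fc M Zs ∧ ¬ Ug T Qᶜ D.a r o k.1 k.2}).ncard : ℕ) : ℝ) ≤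
    e5 * ((Zs.card : ℝ) * M ^ 2)
  ends : ∀ j : Fin 2, ∑ m ∈ Zs, ∑ t ∈ Finset.range (M + 1),
    |(f1 (vx D.a r o m (fun i => if i = j then M else t)) -
      f1 (vx D.a r o m (fun i => if i = j then 0 else t))) j.castSucc - s j.castSucc * (M * r)| ≤
      e5 * ((Zs.card : ℝ) * M)
  /- the mesh -/
  base : BaseOn T D Q τ
  scl : ∀ i ∈ Q, (∃ k ∈ Fc M Zs, (Msh_715.P (T.H i) ∩ cub (vx D.a r o k.1 k.2) r).Nonempty) →
    (τ i).1.1.k = K0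
  scQ : ∀ i ∈ Q, K0 ≤ (τ i).1.1.k
  Vct : ∀ c, V c = {ct c}
  inj : Function.Injective ct
  dis : ∀ i ∈ Q, ∀ c, Disjoint (Msh_715.P (T.H i)) (Msh_715.P (T.H (ct c)))
  cores : Cores Φ T f1 κ1 κ2 univ J0 J V ct A lam z θ φ
  fine : Fine Φ T f1 κ1 J0
  cov : QL L ⊆ HH ∪ R'
  HR : ∀ i ∈ Q, Msh_715.P (T.H i) ⊆ HH ∨ Msh_715.P (T.H i) ⊆ R'
  frQ : ∀ i ∈ Q, ‖lin (B i)‖ ≤ 2 * 2 ^ (τ i).1.1.k
  shQ : ∀ i ∈ Q, (fun K => B i '' K) '' Cfg T i ∈ 𝒮0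
  /- counting -/
  cnt : ∀ i, ENNReal.ofReal (cntA T r hr D.a o M Zs i) ≤ cw i * volume (Msh_715.P (T.H i))
  cwQ : ∀ i ∈ Q, cw i ≤ Ku
  cwc : ∀ c, cw (ct c) ≤ Ku
  /- levels -/
  W0 : ∀ c : Φ.F, IsLog q al h c.1 → W c = h / 2
  fin : ∀ e : Edg T, le (GV (fun c => ENNReal.ofReal (W c)) g) e ≠ ⊤
  gm : ∀ c l, Measurable (g c l)
  choice : ChoiceN Φ T f1 κ' μ κ3 W univ ct A lam z Mg
    (fun e => ENNReal.ofReal (1 + κ') * le (GV (fun c => ENNReal.ofReal (W c)) g) e)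
  /- numbers -/
  ed : ∀ l, Ed D l p (Xs (fun c => ENNReal.ofReal (W c)) g (fun l => ENNReal.ofReal (s l)) l) ≤ e1
  ed1 : ∀ l, Ed D l 1 (Xs (fun c => ENNReal.ofReal (W c)) g (fun l => ENNReal.ofReal (s l)) l) ≤ e1
  sR : S D p (R'.indicator (GGw (fun c => ENNReal.ofReal (W c)) g)) ≤ e2
  vR : volume R' ≤ e2
  nonQ : ∑' i : {i // i ∉ Q ∧ ∀ c, i ≠ ct c},
    (ENNReal.ofReal (Cs ((fun K => B i.1 '' K) '' Cfg T i.1) * ‖lin (B i.1)‖) *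
      ∑ e ∈ eIn T i.1, le (GV (fun c => ENNReal.ofReal (W c)) g) e) ^ p *
      ((1 + cw i.1) * volume (Msh_715.P (T.H i.1))) ≤ e3
  wfin : ∀ i, i ∉ Q → (∀ c, i ≠ ct c) → cw i ≠ ⊤
  cs : ∑' c : Φ.F, ENNReal.ofReal ((1 / lam c * ‖lin (A c)‖) ^ p) *
    volume (Msh_715.P (T.H (ct c))) ≤ e4

end Crest.Agent.R096.Np_962
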