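import Crest.Agent.R096.Szn1_849
import Crest.Agent.R096.Np4_962
import Crest.Agent.R096.Fnn2_635
import Crest.Agent.R096.Mdd10_360
import Crest.Agent.R096.Bmd2_798

/-!
Row 96 (S0127), helper849.  NO0, `p ≥ 3`, mesh part, leaf (M8) [OUT] of 962 #11558: the outer Whitney data
of `Front3`, the covering by `HH` and `R'`, `Cores` and `Fine` on the capped meshes over `QL L`.
-/

set_option autoImplicit false
set_option linter.style.longLine false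
set_option linter.unusedSectionVars false

open MeasureTheory Set Filter Topology Metric
open scoped NNReal ENNReal

namespace Crest.Agent.R096.Szn_849

open Crest.Agent.R096.Bsp_628 Crest.Agent.R096.Brk1_582 Crest.Agent.R096.Brk2_582
open Crest.Agent.R096.Brk3_582
open Crest.Agent.R096.Brk5_582
open Crest.Agent.R096.Msh_715
open Crest.Agent.R096.Dic6_582 (dF kF one_le_kF)
open Crest.Agent.R096.EaX_766 (cbx lin RatA ExIn)
open Crest.Agent.R096.Bxs_627 (ctr cb CoriE zz)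
open Crest.Agent.R096.SkC1_961 (E3 Hom3 IsPush FoamD)
open Crest.Agent.R096.Mal_874 Crest.Agent.R096.Msh_810
open Crest.Agent.R096.Fns_360 Crest.Agent.R096.Gno_324 Crest.Agent.R096.Np_962
open Crest.Agent.R096.No_276 (QL)
open Crest.Agent.R096.Bxc1_635 (fN)
open Crest.Agent.R096.Mdd_360 Crest.Agent.R096.Fnn_635

noncomputable section

/-! ### renaming the domain -/

section reOm

variable {δ κ0 R c0 : ℝ} {La : Set E3} {Om Om' : Set E3} {ι : Type}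

theorem cores_reOm {Φ : FoamD δ κ0 R c0 La} {T : Tiling Om ι} (h : Om = Om') {f : E3 → E3}
    {κ1 κ2 : ℝ} {X : Set Φ.F} {J0 J V : Φ.F → Set ι} {ct : Φ.F → ι} {A : Φ.F → E3 ≃ᵃ[ℝ] E3}
    {lam : Φ.F → ℝ} {z : Φ.F → E3} {θ : Φ.F → E3 → E3} {φ : Φ.F → E3 → ℝ}
    (H : Mbf_337.Cores Φ T f κ1 κ2 X J0 J V ct A lam z θ φ) :
    Mbf_337.Cores Φ (reOm T h) f κ1 κ2 X J0 J V ct A lam z θ φ := by
  subst h
  exact H

theorem fine_reOm {Φ : FoamD δ κ0 R c0 La} {T : Tiling Om ι} (h : Om = Om') {f : E3 → E3}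
    {ε : ℝ} {J0 : Φ.F → Set ι} (H : Mbf_337.Fine Φ T f ε J0) :
    Mbf_337.Fine Φ (reOm T h) f ε J0 := by
  subst h
  exact H

end reOm

/-! ### the front -/

section front

variable {p : ℝ} {q : ℕ} {s : Fin 3 → ℝ} {εf εf' : ℝ≥0∞} {Om La : Set E3} {f : E3 → E3}
  {Mf ρ0 h : ℝ} {al : Fin 3 → ℝ} {κ1f κ2f lam0 : ℝ} {F : Set (Bx (Fin 3))}
  {bf : BoxFoam La F (dF q) (kF q)} {cmp : Cmp F 6} {lam : F → ℝ} {hl : ∀ c, 0 < lam c}
  {hl4 : ∀ c, lam c ≤ 1 / 4} {A : F → E3 ≃ᵃ[ℝ] E3} {f1 : E3 → E3} {D1 : E3 → E3 →L[ℝ] E3}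
  {X HH : Set E3} {g : F → Fin 3 → E3 → ℝ}

/-- **cov** -/
theorem cov_front (H : Front3 p q s εf εf' Om La f Mf ρ0 h al κ1f κ2f lam0 (ΦN bf cmp lam hl hl4)
    lam A f1 D1 X HH g) {R' : Set E3} (hXR : X ⊆ R') : Om ⊆ HH ∪ R' := by
  intro x hx
  by_cases hX : x ∈ X
  · exact Or.inr (hXR hX)
  · exact Or.inl (H.c.HHX ⟨hx, hX⟩)

/-- the core statement of every brick -/
theorem cor_front (H : Front3 p q s εf εf' Om La f Mf ρ0 h al κ1f κ2f lam0 (ΦN bf cmp lam hl hl4)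
    lam A f1 D1 X HH g) (c : F) : CoriE Om f1 (A c) c.1 (lam c) κ1f κ2f :=
  cori_of_cor (H.ex c).cor

/-- **the outer Whitney data of the front** -/
theorem dat_front (hOm : IsOpen Om) (hLa : IsOpen La)
    (H : Front3 p q s εf εf' Om La f Mf ρ0 h al κ1f κ2f lam0 (ΦN bf cmp lam hl hl4)
    lam A f1 D1 X HH g) {R' : Set E3} (hR' : IsOpen R') (hXR : X ⊆ R') {ε : ℝ} (hε : 0 < ε)
    {C : ℝ} (hC : 1 < C) (a : E3) :
    ∃ D : Dat 3, D.C = C ∧ D.a = a ∧ D.Om = Om ∧ ∀ u ∈ Om, closedBall u (D.ρ u) ⊆ Om ∧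
      FineS (ΦN bf cmp lam hl hl4) f1 ε (closedBall u (D.ρ u) ∩ (Om ∩ offO f1 (O34 lam))) ∧
      (closedBall u (D.ρ u) ⊆ HH ∨ closedBall u (D.ρ u) ⊆ R') := by
  obtain ⟨-, hfL, -, -, -, hfc, -⟩ := id H.c.homeo
  exact exists_size (ΦN bf cmp lam hl hl4) hOm hLa (Dic6_582.dF_pos H.c.q1) (by norm_num) hfL hfc
    (O := O34 lam) (fun c => isOpen_interior) (fun c => hole_sub (bf.pos _ c.2) (hl c)) hε
    H.c.HHo hR' (cov_front H hXR) hC a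

end front

/-! ### the capped mesh -/

section cap

variable {J : Type} (M : MD E3 3 J) {c : ℝ} (hc : 0 < c)

/-- rational data of the capped mesh data -/
def rdCap (Y : RD M) : RD (cap M c hc) where
  A := Y.A
  d := Y.d
  dpos := Y.dpos
  rat := Y.rat
  c := Y.c
  c1 := Y.c1
  cn := Y.cn
  B := Y.B
  B1 := Y.B1
  hB := Y.hB
  R := Y.R
  R1 := Y.R1
  hR := Y.hR

theorem rdCap_R (Y : RD M) : (rdCap M hc Y).R = Y.R := rfl

theorem cap_pre {Om : Set E3} (h : M.φ ⁻¹' M.D0.Om = Om) :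
    (cap M c hc).φ ⁻¹' (cap M c hc).D0.Om = Om := by
  have h3 : (cap M c hc).D0.Om = M.D0.Om := capD_Om M.D0 c hc
  rw [h3]
  exact h

end cap

section cf

variable {La Om : Set E3} {δ κ0 R c0 : ℝ} {F : Set (Bx (Fin 3))}

/-- **`Cores` and `Fine` on the capped meshes, domain `Om`** (635's `cf_mdN` for `cap M c`). -/
theorem cf_cap (M : MD E3 3 F) {f : E3 → E3} (hLa : IsOpen La) (hδ : 0 < δ) (hR : 0 < R)
    (bf : BoxFoam La F δ κ0)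
    (cmp : Cmp F R) (hκ0 : 1 ≤ κ0) (hc : 0 < c0) (hc2 : c0 * (8 * κ0) ≤ 1) (lam : F → ℝ)
    (hl : ∀ c, 0 < lam c) (hl4 : ∀ c, lam c ≤ 1 / 4) {lam0 : ℝ} (h00 : 0 < lam0)
    (hl0 : ∀ c, lam0 ≤ lam c) {κ1 κ2 τ η ε : ℝ} (hκ1 : 0 ≤ κ1) (hτ : 0 < τ) (hτ2 : τ ≤ κ2)
    (h2 : κ2 ≤ 1 / 4) (hκ8 : (κ1 + τ) * κ0 ≤ 1 / 8) (hκ12 : (κ1 + τ) * κ0 ≤ κ2 - τ)
    {A : F → E3 ≃ᵃ[ℝ] E3} (hcor : ∀ c, CoriE Om f (A c) c.1 (lam c) κ1 κ2)
    (hφ : M.φ = ContinuousLinearEquiv.refl ℝ E3)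
    (hK : ∀ c, (M.Q c).Kc = A c ⁻¹' cbx c.1 (lam c))
    (hroom : ∀ c, cthickening (M.r c) (M.Q c).N ⊆ A c ⁻¹' cbx c.1 ((1 + 2 * κ2) * lam c))
    (hsm : ∀ c (v : E3), ‖v‖ ≤ M.r c → ‖(A c).linear v‖ ≤ τ * (lam c * c.1.sz) ∧
        ∀ k, |(A c).linear v k| ≤ τ * (lam c * c.1.side k)) (Y : RD M)
    {uA : F → ℝ} (huA0 : ∀ c, 0 ≤ uA c)
    (huA : ∀ c, ∀ x y, ‖A c y - A c x‖ ≤ uA c * dist ((M.Q c).ψ x) ((M.Q c).ψ y))
    (hη : ∀ c, uA c * (Y.R c / 2 ^ (M.Q c).kc) ≤ η * c.1.sz)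
    (hε : KIT δ κ0 R c0 lam0 * (η + 2 * (κ1 + τ)) ≤ ε)
    (hF : ∀ x ∈ Om, FineS (fN bf cmp hκ0 hc hc2 lam hl hl4) f ε
      (closedBall x (M.D0.ρ x) ∩ (Om ∩ offO f (O34 lam))))
    {cc : ℝ} (hcc : 0 < cc) {k : F → ℕ} (hk : (cap M cc hcc).Sc k) (a : Fin 3 → ℝ) {v : F → E3}
    (hv : (cap M cc hcc).Adm v) (hOm' : (cap M cc hcc).φ ⁻¹' (cap M cc hcc).D0.Om = Om) :
    Mbf_337.Cores (fN bf cmp hκ0 hc hc2 lam hl hl4) (reOm ((cap M cc hcc).mesh hk a hv) hOm') f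
      (κ1 + τ) (κ2 - τ) univ
      (fun c => {ctM (cap M cc hcc) hk a hv c}) (fun c => {ctM (cap M cc hcc) hk a hv c})
      (fun c => {ctM (cap M cc hcc) hk a hv c})
      (ctM (cap M cc hcc) hk a hv) (fun c => trA (A c) (v c)) lam (fun c => zz c.1 (lam c))
      (fun _ x => x) (fun _ _ => 0) ∧
    Mbf_337.Fine (fN bf cmp hκ0 hc hc2 lam hl hl4) (reOm ((cap M cc hcc).mesh hk a hv) hOm') f ε
      (fun c => {ctM (cap M cc hcc) hk a hv c}) := by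
  have h := cf_mdN (cap M cc hcc) hk a hv (f := f) hLa hδ hR bf cmp hκ0 hc hc2 lam hl hl4 h00 hl0
    hκ1 hτ hτ2 h2 hκ8 hκ12 hcor hφ hOm' hK hroom hsm (rdCap M hcc Y) huA0 huA hη hε
    (fun x hx => (hF x hx).mono (inter_subset_inter_left _
      (closedBall_subset_closedBall (min_le_left _ _))))
  exact ⟨cores_reOm hOm' h.1, fine_reOm hOm' h.2⟩

end cf

/-! ### the tiles of `Qr` -/

section HR

variable {J : Type} (M : MD E3 3 J) {c : ℝ} (hc : 0 < c) {k : J → ℕ} (hk : (cap M c hc).Sc k)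
  (a : Fin 3 → ℝ) {v : J → E3} (hv : (cap M c hc).Adm v)

/-- **field `HR` of `MeshN`** -/
theorem HR_Qr (hφ : ∀ x, M.φ x = x) {Om : Set E3} (hD : M.D0.Om = Om) {HH R' : Set E3}
    (h : ∀ u ∈ Om, closedBall u (M.D0.ρ u) ⊆ HH ∨ closedBall u (M.D0.ρ u) ⊆ R')
    {Om' : Set E3} (hOm' : (cap M c hc).φ ⁻¹' (cap M c hc).D0.Om = Om') :
    ∀ i ∈ Bmd_798.Qr (cap M c hc) hk a hv,
      P ((reOm ((cap M c hc).mesh hk a hv) hOm').H i) ⊆ HH ∨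
      P ((reOm ((cap M c hc).mesh hk a hv) hOm').H i) ⊆ R' := by
  rintro i ⟨p, rfl, -⟩
  exact outer_HR M hc hk a hv hφ (fun u hu => h u (by rwa [hD] at hu)) p

end HR

end

end Crest.Agent.R096.Szn_849
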