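import Crest.Agent.R096.Bmd4_798
import Crest.Agent.R096.Szn2_849
import Crest.Agent.R096.Mfs2_168
import Crest.Agent.R096.Pgn2_112
import Crest.Agent.R096.Np7_962

/-!
Row 96 (S0127), helper798.  NO0-PRE3, composition of `ExMeshN` (962 #11679): **the literal Props**
`PreGenN` ((M3) of 962 #11558, with `nonQ`) and `ExBlkN p` ((M4): block data of all bricks).
Definitions only.
-/

set_option autoImplicit false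
set_option linter.style.longLine false
set_option linter.unusedSectionVars false
set_option linter.unusedVariables false

open MeasureTheory Set Filter Topology Metric
open scoped NNReal ENNReal

noncomputable section

namespace Crest.Agent.R096.Bmd_798

open Crest.Agent.R096.Msh_715 hiding P I
open Crest.Agent.R096.SkC1_961 (E3 Cfg FoamD Hom3 NN)
open Crest.Agent.R096.Ls_222
open Crest.Agent.R096.Mbf_337
open Crest.Agent.R96.Pm_199 (le Dec)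
open Crest.Agent.R096.Msh_810 Crest.Agent.R96.En2_199 Crest.Agent.R96.En4_199
  Crest.Agent.R96.En9_199 Crest.Agent.R96.En11_199
open Crest.Agent.R096.Ps_273
open Crest.Agent.R096.Ea_713 (lin)
open Crest.Agent.R096.Er_594 (SH3)
open Crest.Agent.R096.Der_764 (OmH)
open Crest.Agent.R96.Sob4_199 (VWD)
open Crest.Agent.R96.Acl_392 (WD)
open Crest.Agent.R96.En10_199 (P3)
open Crest.Agent.R096.Bsp_628 Crest.Agent.R096.Brk5_582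
open Crest.Agent.R096.Dic6_582 (dF kF)
open Crest.Agent.R096.Bxs_627 (zz)
open Crest.Agent.R096.EaX_766 (cbx)
open Crest.Agent.R096.Fns_360 (trA FineS offO O34)
open Crest.Agent.R096.Mal_874 (MD RD outD)
open Crest.Agent.R096.Gno_324 (cap)
open Crest.Agent.R096.Mfa_880 (QU BxM)
open Crest.Agent.R096.Wd_120 (CoreAt)
open Crest.Agent.R096.Pgn_112 (WordsOk)
open Crest.Agent.R096.Bls_168 (cwR Bulk)
open Crest.Agent.R096.Np_962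
open Crest.Agent.R096.Pmc_112 (Gd')

/-- the index type of the blocks: the subtype `univ` -/
abbrev UX (F : Type) : Type := ↥(Set.univ : Set F)

/-- the core tile of the brick `c` (blocks indexed by `univ`) -/
abbrev ctu {F : Type} (M : MD E3 3 (UX F)) {k : UX F → ℕ} (hk : M.Sc k)
    (a : Fin 3 → ℝ) {v : UX F → E3} (hv : M.Adm v) (c : F) : TI M hk a hv :=
  Sum.inr ⟨⟨c, mem_univ c⟩, M.core hk a hv ⟨c, mem_univ c⟩⟩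

/-- the translated maps -/
abbrev Av {F : Type} (A : F → E3 ≃ᵃ[ℝ] E3) (v : UX F → E3) (c : F) : E3 ≃ᵃ[ℝ] E3 :=
  trA (A c) (v ⟨c, mem_univ c⟩)

/-- **the input of (M3)**: blocks `M.Q j`, rational data `Y`, good sets `Gd j`; (B1) `cf` (for every cap),
(B2) `words`, (B3) `en`. -/
structure GenN {δ κ0 Rc c0 : ℝ} {La : Set E3} (Φ : FoamD δ κ0 Rc c0 La) (Om : Set E3) (f : E3 → E3)
    (D' : E3 → E3 →L[ℝ] E3) (p κp κ1 κ2 : ℝ) (A : Φ.F → E3 ≃ᵃ[ℝ] E3) (lam : Φ.F → ℝ)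
    (z : Φ.F → E3) (Mc : Φ.F → ℕ) (B0 : ℕ) (R0 : ℝ) (M : MD E3 3 (UX Φ.F)) (Y : RD M)
    (k0 : UX Φ.F → ℕ) (hk0 : ∀ j, (M.Q j).kc ≤ k0 j) (κr : UX Φ.F → ℕ)
    (Gd : UX Φ.F → Set E3) (B : UX Φ.F → ℝ≥0∞) : Prop where
  φ : M.φ = ContinuousLinearEquiv.refl ℝ E3
  hOm : M.φ ⁻¹' M.D0.Om = Om
  ψ1 : ∀ j x, ‖(M.Q j).ψ x‖ ≤ ‖x‖
  bB : ∀ j, Y.B j ≤ B0
  bR : ∀ j, Y.R j ≤ R0
  h0 : ∀ j m, ∃ c : ℤ, 2 ^ κr j * (Y.d j : ℝ) * (M.Q j).a' m = c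
  Gds : ∀ j, Gd j ⊆ BxM M j
  Gdm : ∀ j, MeasurableSet (Gd j)
  Gd0 : ∀ j, volume (Gd j) ≠ 0
  /-- (B1) -/
  cf : ∀ (c : ℝ) (hc : 0 < c) (k : UX Φ.F → ℕ) (hk : (cap M c hc).Sc k) (a : Fin 3 → ℝ)
    (v : UX Φ.F → E3) (hv : (cap M c hc).Adm v), (∀ j, v j ∈ Gd j) →
    Cores Φ ((cap M c hc).mesh hk a hv) f κ1 κ2 univ
      (fun b => {ctu (cap M c hc) hk a hv b}) (fun b => {ctu (cap M c hc) hk a hv b})
      (fun b => {ctu (cap M c hc) hk a hv b}) (ctu (cap M c hc) hk a hv) (Av A v) lam z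
      (fun _ x => x) (fun _ _ => 0) ∧
    Fine Φ ((cap M c hc).mesh hk a hv) f κ1 (fun b => {ctu (cap M c hc) hk a hv b})
  /-- (B2) -/
  words : ∀ v : UX Φ.F → E3, (∀ j, v j ∈ Gd j) → ∀ Om' : Set E3, Om' = Om →
    ∀ D0 : Dec Om' Φ.F,
    Cores Φ D0.T f κ1 κ2 univ D0.J0 D0.J D0.V D0.ct D0.A D0.lam D0.z D0.θ D0.φ →
    (∀ c : UX Φ.F, D0.lam c = lam c ∧ D0.z c = z c ∧ D0.A c = trA (A c) (v c) ∧
      D0.M c = Mc c ∧ CoreAt D0.T (D0.ct c) ((M.Q c).tr (v c))) →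
    WordsOk Φ f κp (κp / 64) univ D0
  /-- (B3) -/
  en : ∀ j, ∀ s ∈ Gd j, ∑' c, (QU M Y k0 hk0 j).EnC (Gd' D') p c s ≤ B j

/-- **(M3) of 962 #11558, literal Prop**: `premachN` for 168's `mfs` of the capped mesh, selection,
walls, `nonQ` (645, 168).  `KG` = factor of the block energies (all shapes with bounds `B0, R0`). -/
def PreGenN : Prop :=
  ∀ (p : ℝ), 1 ≤ p → ∀ (B0 : ℕ) (R0 : ℝ) (δ Rc : ℝ), 0 < δ → 0 < Rc →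
  ∀ Cs : Set (Set E3) → ℝ, (∀ 𝒦, 0 < Cs 𝒦) → ∃ KG : ℝ≥0∞, KG ≠ ⊤ ∧
  ∀ (κ0 c0 : ℝ) (La Om : Set E3) (Φ : FoamD δ κ0 Rc c0 La) (f : E3 → E3)
    (Df D' : E3 → E3 →L[ℝ] E3),
  IsOpen Om → Om.Nonempty → Bornology.IsBounded Om → IsOpen La → Hom3 f Om La → SH3 p Om La f Df →
  (∀ v, Measurable fun y => D' y v) →
  (∀ l, VWD (OmH Φ f Om) volume (fun x => P3 (Φ.Psi (f x)))
    (fun x => P3 (D' x (Pi.single l 1))) (Pi.single l (1:ℝ))) →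
  ∀ (g : Φ.F → Fin 3 → E3 → ℝ), (∀ c l, Measurable (g c l)) →
  (∀ c l, WD (OmH Φ f Om) volume (fun x => Φ.lev c (f x)) (g c l) (Pi.single l 1)) →
  ∀ (W : Φ.F → ℝ) (κp κ1 κ2 κ3 : ℝ), (∀ c, 0 < W c) → (∀ c, ∃ k N : ℕ, W c * 2 ^ k = N) →
  (∀ c, c.1.sz ≤ κ3 * W c) → (∀ c, W c ≤ κ3 * c.1.sz) → (∀ c, W c ≤ c.1.sz) →
  0 < κp → κp ≤ 1 → 8 ≤ κ3 → 0 ≤ κ2 → κ1 * κ0 < κ2 →
  (∀ c l, ∀ x, x ∉ OmH Φ f Om → g c l x = 0) →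
  ∫⁻ x in Om, GGw (fun c => ENNReal.ofReal (W c)) g x ^ p ≠ ⊤ →
  ∀ (A : Φ.F → E3 ≃ᵃ[ℝ] E3) (lam : Φ.F → ℝ) (z : Φ.F → E3) (Mc : Φ.F → ℕ)
    (M : MD E3 3 (UX Φ.F)) (Y : RD M) (k0 : UX Φ.F → ℕ)
    (hk0 : ∀ j, (M.Q j).kc ≤ k0 j) (κr : UX Φ.F → ℕ)
    (Gd : UX Φ.F → Set E3) (B : UX Φ.F → ℝ≥0∞),
  GenN Φ Om f D' p κp κ1 κ2 A lam z Mc B0 R0 M Y k0 hk0 κr Gd B →
  ∀ ε : ℝ≥0∞, ε ≠ 0 →
  ∃ kw : UX Φ.F → ℕ, ∀ (c : ℝ) (hc : 0 < c) (k : UX Φ.F → ℕ)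
    (hk : (cap M c hc).Sc k), (∀ j, kw j ≤ k j) →
  ∃ A' : Set E3, MeasurableSet A' ∧ volume (box 3 \ A') ≤ 1 / 4 ∧
  ∀ a ∈ A', ∃ (v : UX Φ.F → E3) (hv : (cap M c hc).Adm v), (∀ j, v j ∈ Gd j) ∧
  ∃ fr : TI (cap M c hc) hk a hv → E3 ≃ᵃ[ℝ] E3,
    (∀ e : Edg ((cap M c hc).mesh hk a hv), le (Gd' D') e ≠ ⊤) ∧
    (∀ e : Edg ((cap M c hc).mesh hk a hv), le (GV (fun c => ENNReal.ofReal (W c)) g) e ≤
      ENNReal.ofReal (8 * Cl δ Rc) * le (Gd' D') e) ∧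
    ChoiceN Φ ((cap M c hc).mesh hk a hv) f κp (κp / 64) κ3 W univ (ctu (cap M c hc) hk a hv)
      (Av A v) lam z Mc
      (fun e => ENNReal.ofReal (1 + κp) * le (GV (fun c => ENNReal.ofReal (W c)) g) e) ∧
    ∀ (K0 : ℕ) (r : ℝ) (hr : r ≠ 0) (o : Fin 2 → ℤ) (Mm : ℕ) (Zs : Finset ℤ) (Bb : Set E3),
      Bulk (cap M c hc) k a v K0 r o Mm Zs Bb →
      ∑' i : {i // i ∉ Qr (cap M c hc) hk a hv ∧ ∀ b, i ≠ ctu (cap M c hc) hk a hv b},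
        (ENNReal.ofReal (Cs ((fun K => fr i.1 '' K) '' Cfg ((cap M c hc).mesh hk a hv) i.1) *
          ‖lin (fr i.1)‖) *
          ∑ e ∈ eIn ((cap M c hc).mesh hk a hv) i.1,
            le (GV (fun c => ENNReal.ofReal (W c)) g) e) ^ p *
          ((1 + cwR ((cap M c hc).mesh hk a hv) r hr a o Mm Zs i.1) *
            volume (Msh_715.P (((cap M c hc).mesh hk a hv).H i.1))) ≤
        KG * ∑' j, B j + ε

/-- **(M4) of 962 #11558, literal Prop**: the block data of all bricks of `Front3`, for every outer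
Whitney data `D0` (fine for the closeness `κ1` of the machine).  `w0` = pre-translation of the blocks. -/
def ExBlkN (p : ℝ) : Prop :=
  ∀ q : ℕ, 1 ≤ q → ∃ (B0 : ℕ) (R0 : ℝ) (KB : ℝ≥0∞), KB ≠ ⊤ ∧
  ∀ κp : ℝ, 0 < κp → κp ≤ 1 → ∀ lam0 : ℝ, 0 < lam0 → ∀ κ1 : ℝ, 0 < κ1 → κ1 * kF q ≤ 1 / 32 →
  ∃ κ1f : ℝ, 0 < κ1f ∧ κ1f * kF q ≤ 1 / 2 ∧
  ∀ (s : Fin 3 → ℝ) (εf εf' : ℝ≥0∞) (Om La : Set E3) (f : E3 → E3),
    IsOpen Om → Bornology.IsBounded Om → IsOpen La → Bornology.IsBounded La →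
  ∀ (Mf ρ0 h : ℝ) (al : Fin 3 → ℝ) (F : Set (Bx (Fin 3))) (bf : BoxFoam La F (dF q) (kF q))
    (cmp : Cmp F 6) (lam : F → ℝ) (hl : ∀ c, 0 < lam c) (hl4 : ∀ c, lam c ≤ 1 / 4)
    (A : F → E3 ≃ᵃ[ℝ] E3) (f1 : E3 → E3) (D1 : E3 → E3 →L[ℝ] E3) (X HH : Set E3)
    (g : F → Fin 3 → E3 → ℝ),
    Front3 p q s εf εf' Om La f Mf ρ0 h al κ1f (1 / 8) lam0 (ΦN bf cmp lam hl hl4) lam A f1 D1 X
      HH g →
  ∀ D0 : Dat 3, D0.C = 6 → D0.Om = Om →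
    (∀ u ∈ Om, closedBall u (D0.ρ u) ⊆ Om ∧ FineS (ΦN bf cmp lam hl hl4) f1 κ1
      (closedBall u (D0.ρ u) ∩ (Om ∩ offO f1 (O34 lam)))) →
  ∃ (D' : E3 → E3 →L[ℝ] E3) (w0 : F → E3) (Mc : F → ℕ) (M : MD E3 3 (UX F)) (Y : RD M)
    (k0 : UX F → ℕ) (hk0 : ∀ j, (M.Q j).kc ≤ k0 j) (κr : UX F → ℕ)
    (Gd : UX F → Set E3) (B : UX F → ℝ≥0∞),
    (∀ v, Measurable fun y => D' y v) ∧
    (∀ l, VWD (OmH (ΦN bf cmp lam hl hl4) f1 Om) volume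
      (fun x => P3 ((ΦN bf cmp lam hl hl4).Psi (f1 x)))
      (fun x => P3 (D' x (Pi.single l 1))) (Pi.single l (1:ℝ))) ∧
    M.D0 = D0 ∧
    (∀ j, (M.Q j).N ⊆ A j.1 ⁻¹' cbx j.1.1 ((1 + 2 * (1 / 8)) * lam j.1)) ∧
    GenN (ΦN bf cmp lam hl hl4) Om f1 D' p κp κ1 (1 / 16) (fun c => trA (A c) (w0 c)) lam
      (fun c => zz c.1 (lam c)) Mc B0 R0 M Y k0 hk0 κr Gd B ∧
    ∑' j, B j ≤ KB * εf' * volume Om

end Crest.Agent.R096.Bmd_798
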