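import Crest.Agent.R096.Np4_962
import Crest.Agent.R096.Ps11_273

/-!
Row 96 (S0127), helper962, node NO0-PRE3, mesh part: facts on `GV`; the bound of the weights of the
edges in the language of the base mesh (`le_base`, `hF_of`).
-/

set_option autoImplicit false
set_option linter.unusedSectionVars false
set_option linter.unusedVariables false
open Set Filter Topology MeasureTheory Metric
open scoped NNReal ENNReal

noncomputable section

namespace Crest.Agent.R096.Np_962

open Crest.Agent.R096.Msh_715 hiding P I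
open Crest.Agent.R096.SkC1_961 (E3 Cfg FoamD Hom3 NN)
open Crest.Agent.R096.Ls_222
open Crest.Agent.R096.Mbf_337
open Crest.Agent.R96.Pm_199 (le)
open Crest.Agent.R96.Sg1_199 (li sgm)
open Crest.Agent.R096.Msh_810 Crest.Agent.R96.En2_199 Crest.Agent.R96.En4_199
  Crest.Agent.R96.En9_199 Crest.Agent.R96.En11_199
open Crest.Agent.R096.Ps_273

section gv

variable {𝒞 : Type*} {w : 𝒞 → ℝ≥0∞} {g : 𝒞 → Fin 3 → E3 → ℝ}

theorem GV_smul (t : ℝ) (v y : E3) : GV w g (t • v) y = ‖t‖ₑ * GV w g v y := by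
  unfold GV
  rw [← ENNReal.tsum_mul_left]
  refine tsum_congr fun c => ?_
  have e : ∑ l, (t • v) l * g c l y = t * ∑ l, v l * g c l y := by
    rw [Finset.mul_sum]
    refine Finset.sum_congr rfl fun l _ => ?_
    rw [Pi.smul_apply, smul_eq_mul]; ring
  rw [e, enorm_mul]
  ring

theorem measurable_GV [Countable 𝒞] (hg : ∀ c l, Measurable (g c l)) (v : E3) :
    Measurable (GV w g v) := by
  unfold GV
  refine Measurable.tsum fun c => ?_
  refine ((Finset.measurable_sum _ fun l _ => (hg c l).const_mul (v l))).enorm.const_mul _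

theorem GV_single (l : Fin 3) (t : ℝ) (y : E3) :
    GV w g (Pi.single l t) y = ENNReal.ofReal |t| * Hw w g l y := by
  unfold GV Hw
  rw [← ENNReal.tsum_mul_left]
  refine tsum_congr fun c => ?_
  have e : ∑ m, (Pi.single l t : E3) m * g c m y = t * g c l y := by
    rw [Finset.sum_eq_single l]
    · rw [Pi.single_eq_same]
    · intro m _ hm
      rw [Pi.single_eq_of_ne hm, zero_mul]
    · intro h; exact absurd (Finset.mem_univ l) h
  rw [e, enorm_mul, Real.enorm_eq_ofReal_abs]
  ring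

theorem GV_le (v y : E3) : GV w g v y ≤ ‖v‖ₑ * GGw w g y := by
  unfold GV GGw
  rw [← ENNReal.tsum_mul_left]
  refine ENNReal.tsum_le_tsum fun c => ?_
  rw [← mul_assoc, mul_comm ‖v‖ₑ (w c), mul_assoc]
  gcongr
  refine (enorm_sum_le _ _).trans ?_
  unfold G1
  rw [Finset.mul_sum]
  refine Finset.sum_le_sum fun l _ => ?_
  rw [enorm_mul]
  gcongr
  rw [← ofReal_norm, ← ofReal_norm]
  exact ENNReal.ofReal_le_ofReal (norm_le_pi_norm v l)

end gv

section base

variable {Om : Set E3} {ι : Type} {T : Tiling Om ι} {D : Dat 3}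

/-- **the line integral of `GV` over a base edge** -/
theorem le_base {𝒞 : Type*} [Countable 𝒞] {w : 𝒞 → ℝ≥0∞} {g : 𝒞 → Fin 3 → E3 → ℝ}
    (hg : ∀ c l, Measurable (g c l)) {e : Edg T} {σ : Cel D} {l : Fin 3} (hσ : σ.1.J = {l})
    (he : e.1 = σ.c) : le (GV w g) e = ic (Hw w g l) D.a σ.1 := by
  have hs : sgm (ea e) (ev e) = Dc D.a σ.1 := (sgm_edg e).trans he
  rw [← li_eq_ic (measurable_Hw hg w l) hσ hs]
  have hev : ev e = Pi.single l (ev e l) := by
    rcases ends_of_edge hσ hs with ⟨-, h2⟩ | ⟨-, h2⟩ <;>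
    · rw [h2, Pi.single_eq_same]
  unfold le
  rw [← li_const_mul ENNReal.ofReal_ne_top]
  have e1 : GV w g (ev e) = fun y => ENNReal.ofReal |ev e l| * Hw w g l y := by
    funext y
    conv_lhs => rw [hev]
    exact GV_single l _ y
  rw [e1]

/-- the bound of the edges in the language of the base mesh -/
theorem hF_of {𝒞 : Type*} [Countable 𝒞] {w : 𝒞 → ℝ≥0∞} {g : 𝒞 → Fin 3 → E3 → ℝ}
    (hg : ∀ c l, Measurable (g c l)) {K : ℝ≥0∞} {err : Edg T → ℝ≥0∞} {er : Cel D → ℝ≥0∞}
    (her : ∀ (e : Edg T) (σ : Cel D), e.1 = σ.c → err e ≤ er σ) :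
    ∀ (e : Edg T) (σ : Cel D) (l : Fin 3), σ.1.J = {l} → e.1 = σ.c →
      K * le (GV w g) e + err e ≤ K * ic (Hw w g l) D.a σ.1 + er σ := by
  intro e σ l hσ he
  rw [le_base hg hσ he]
  gcongr
  exact her e σ he

end base

end Crest.Agent.R096.Np_962
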