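import Crest.Agent.R096.Nqc1_645
import Crest.Agent.R096.Mfs2_168
import Crest.Agent.R096.Cm0_222

/-!
# Row 96 (S0127), helper645, node NO0-PRE3, (M3) of 962 #11558: field `nonQ` of `MeshN` over 168's `mfs`

* `tsum_ne_kO`: sum over the classes which are neither `kO` nor `kN`;
* `nonQ_mfs` : the weighted energy of the ordinary tiles outside `Qr` is at most the sum over the walls
  (integrand `GV`) and over the inner classes of the blocks (integrand `Gd' D'`, factor `8 Cl`);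
* `nonQ_mfs_le` : the same from the numbers `εb j` (walls), `B j` (blocks);
* `exists_Ci`, `exists_Cw` : the constants of the shapes.
-/

set_option autoImplicit false
set_option linter.style.longLine false
set_option linter.unusedSectionVars false

open MeasureTheory Set Filter Metric
open scoped Topology ENNReal

namespace Crest.Agent.R096.Nqc_645

open Crest.Agent.R096.Msh_715
open Crest.Agent.R096.SkC1_961 (E3 Cfg FoamD Hom3)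
open Crest.Agent.R096.Ls_222
open Crest.Agent.R096.Ea_713 (lin)
open Crest.Agent.R96.Pm_199
open Crest.Agent.R96.Sg1_199 (li sgm)
open Crest.Agent.R96.Sg3_199 (EnF)
open Crest.Agent.R096.Pmc_112 (norm_lin_le Gd')
open Crest.Agent.R096.Np_962 (GV PreOutN)
open Crest.Agent.R096.Mfa_880 (Ins)
open Crest.Agent.R096.Mfs_168 (mfs)
open Crest.Agent.R096.Mal_874
open Crest.Agent.R096.Bmd_798 (Qr)

noncomputable section

/-! ### sums over the classes -/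

section sums

variable {F : Type} {X : Set F} (I : Ins F X)

/-- no ordinary tile has the class `kN` -/
theorem cl_ne_kN {a : E3} {w : X → E3} (h : I.mf.Ok a w) {i : (I.mf.md a w h).ι}
    (hi : ((mfs I).md a w h).Ord i) : (mfs I).cl ((mfs I).pot a w h i) ≠ I.kN := by
  obtain ⟨c, hc, -⟩ := Mfs_168.cl_nat I h hi
  rw [hc]
  intro h0
  exact Option.some_ne_none _ h0

/-- **the sum over the classes different from `kO`, `kN`** -/
theorem tsum_ne_kO (g : I.mf.κ → ℝ≥0∞) :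
    ∑' k : {k : I.mf.κ | k ≠ I.kO ∧ k ≠ I.kN}, g k ≤
      ∑' j, g (I.kOw j) + (∑' j, ∑' c, g (I.kI j c) + ∑' j, g (I.kIw j)) := by
  set f : I.mf.κ → ℝ≥0∞ := I.rec' 0 0 (fun j => g (I.kOw j)) (fun j c => g (I.kI j c))
    (fun j => g (I.kIw j)) with hf
  have h1 : ∀ k : {k : I.mf.κ | k ≠ I.kO ∧ k ≠ I.kN}, g k = f k := by
    rintro ⟨k, hk⟩
    revert hk
    refine I.cases (Pr := fun k => k ∈ {k : I.mf.κ | k ≠ I.kO ∧ k ≠ I.kN} → g k = f k) ?_ ?_ ?_ ?_ ?_ k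
    · intro hk; exact absurd rfl hk.2
    · intro hk; exact absurd rfl hk.1
    · intro j _; rfl
    · intro j c _; rfl
    · intro j _; rfl
  calc ∑' k : {k : I.mf.κ | k ≠ I.kO ∧ k ≠ I.kN}, g k
      = ∑' k : {k : I.mf.κ | k ≠ I.kO ∧ k ≠ I.kN}, f k := tsum_congr h1
    _ ≤ ∑' k : I.mf.κ, f k :=
        ENNReal.tsum_comp_le_tsum_of_injective Subtype.val_injective f
    _ = _ := by
        rw [I.tsum_class f]
        have e0 : f I.kN = 0 := rfl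
        have e1 : f I.kO = 0 := rfl
        have e2 : ∀ j, f (I.kOw j) = g (I.kOw j) := fun _ => rfl
        have e3 : ∀ j c, f (I.kI j c) = g (I.kI j c) := fun _ _ => rfl
        have e4 : ∀ j, f (I.kIw j) = g (I.kIw j) := fun _ => rfl
        rw [e0, e1, zero_add, zero_add]
        simp only [e2, e3, e4]

end sums

/-! ### the field `nonQ` -/

section nonQ

variable {δ κ0 R c0 : ℝ} {La : Set E3} {Φ : FoamD δ κ0 R c0 La} {X : Set Φ.F}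

/-- **`nonQ` over `mfs`, sum over the walls and the blocks** -/
theorem nonQ_mfs (I : Ins Φ.F X) (hX : ∀ c, c ∈ X) {Cs : Set (Set E3) → ℝ} (hC0 : ∀ 𝒦, 0 ≤ Cs 𝒦)
    {Ci : ℝ} {Cw : X → ℝ} (hCi : ∀ j c, ∀ 𝒦 ∈ I.mf.Sh (I.kI j c), Cs 𝒦 ≤ Ci)
    (hCw : ∀ j, ∀ 𝒦 ∈ simL (NR (I.D.A j) (I.D.d j)) (I.D.d j) (I.D.c j), Cs 𝒦 ≤ Cw j)
    (W : Φ.F → ℝ) (g : Φ.F → Fin 3 → E3 → ℝ) (D' : E3 → E3 →L[ℝ] E3) {p : ℝ} (hp : 0 ≤ p)
    {a : E3} {w : X → E3} (h : I.mf.Ok a w)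
    (hcmp : ∀ e : Edg ((mfs I).md a w h).T, le (GV (fun c => ENNReal.ofReal (W c)) g) e ≤
      ENNReal.ofReal (8 * Cl δ R) * le (Gd' D') e)
    {cw : ((mfs I).md a w h).ι → ℝ≥0∞} {cwm : I.mf.κ → ℝ≥0∞}
    (hcw : ∀ i, ((mfs I).md a w h).Ord i → cw i ≤ cwm ((mfs I).cl ((mfs I).pot a w h i))) :
    ∑' i : {i // i ∉ Qr I.M I.hk (I.M.φ a) (Ins.adm h) ∧ ∀ c, i ≠ ((mfs I).md a w h).ct c},
      (ENNReal.ofReal (Cs ((fun K => ((mfs I).md a w h).fr i.1 '' K) ''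
          Cfg ((mfs I).md a w h).T i.1) * ‖lin (((mfs I).md a w h).fr i.1)‖) *
        ∑ e ∈ eIn ((mfs I).md a w h).T i.1,
          le (GV (fun c => ENNReal.ofReal (W c)) g) e) ^ p *
        ((1 + cw i.1) * volume (Msh_715.P (((mfs I).md a w h).T.H i.1))) ≤
      ∑' j, ENNReal.ofReal (Cw j) ^ p * (1 + cwm (I.kOw j)) *
          (mfs I).EnT (GV (fun c => ENNReal.ofReal (W c)) g) p a w h (I.kOw j) +
        (∑' j, ∑' c, (ENNReal.ofReal Ci * ENNReal.ofReal (8 * Cl δ R)) ^ p *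
            (1 + cwm (I.kI j c)) * (mfs I).EnT (Gd' D') p a w h (I.kI j c) +
          ∑' j, ENNReal.ofReal (Cw j) ^ p * (1 + cwm (I.kIw j)) *
            (mfs I).EnT (GV (fun c => ENNReal.ofReal (W c)) g) p a w h (I.kIw j)) := by
  classical
  -- a bound on the finite list of `kO`
  obtain ⟨b, hb⟩ := (((mfs I).shf I.kO).image Cs).bddAbove
  set Cm : (mfs I).κ → ℝ := I.rec' 0 b Cw (fun _ _ => Ci) Cw with hCm
  have hC : ∀ k, ∀ 𝒦 ∈ (mfs I).Sh k, Cs 𝒦 ≤ Cm k := by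
    intro k
    refine I.cases (Pr := fun k => ∀ 𝒦 ∈ (mfs I).Sh k, Cs 𝒦 ≤ Cm k) ?_ ?_ ?_ ?_ ?_ k
    · intro 𝒦 h𝒦
      exact absurd h𝒦 (by rw [Mfs_168.mfs_Sh, I.Sh_kN]; exact notMem_empty _)
    · intro 𝒦 h𝒦
      exact hb ⟨𝒦, h𝒦, rfl⟩
    · intro j 𝒦 h𝒦
      exact hCw j 𝒦 h𝒦
    · intro j c 𝒦 h𝒦
      exact hCi j c 𝒦 h𝒦
    · intro j 𝒦 h𝒦
      exact hCw j 𝒦 h𝒦
  have hV : ∀ c, ((mfs I).md a w h).V c = {((mfs I).md a w h).ct c} := fun c =>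
    Mfs_168.mfs_V I h (hX c)
  have hO : ∀ i, (∀ c, i ≠ ((mfs I).md a w h).ct c) → ((mfs I).md a w h).Ord i := by
    intro i hi c
    rw [hV c]
    exact hi c
  have key := wEE_le (mfs I) hC0 hC (GV (fun c => ENNReal.ofReal (W c)) g)
    (Gkc (mfs I) W g D') (Kc δ R (mfs I)) hp h
    (R := {i | i ∉ Qr I.M I.hk (I.M.φ a) (Ins.adm h) ∧ ∀ c, i ≠ ((mfs I).md a w h).ct c})
    (fun i hi => hO i hi.2) (S := {k : I.mf.κ | k ≠ I.kO ∧ k ≠ I.kN})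
    (fun i hi => ⟨Mfs_168.cl_ne_kO I h (hO i hi.2) hi.1, cl_ne_kN I h (hO i hi.2)⟩)
    (cw := cw) (cwm := cwm) (fun i hi => hcw i (hO i hi.2))
    (fun i _ e _ => le_Gkc (hcmp e) _)
  refine key.trans ((tsum_ne_kO I fun k => (ENNReal.ofReal (Cm k) * Kc δ R (mfs I) k) ^ p *
    (1 + cwm k) * (mfs I).EnT (Gkc (mfs I) W g D' k) p a w h k).trans (le_of_eq ?_))
  have e1 : ∀ j, (ENNReal.ofReal (Cm (I.kOw j)) * Kc δ R (mfs I) (I.kOw j)) ^ p *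
      (1 + cwm (I.kOw j)) * (mfs I).EnT (Gkc (mfs I) W g D' (I.kOw j)) p a w h (I.kOw j) =
      ENNReal.ofReal (Cw j) ^ p * (1 + cwm (I.kOw j)) *
          (mfs I).EnT (GV (fun c => ENNReal.ofReal (W c)) g) p a w h (I.kOw j) := by
    intro j
    have q1 : Kc δ R (mfs I) (I.kOw j) = 1 := Kc_none (M := mfs I) (I.bl_kOw j)
    have q2 : Gkc (mfs I) W g D' (I.kOw j) = GV (fun c => ENNReal.ofReal (W c)) g :=
      Gkc_none (M := mfs I) (I.bl_kOw j)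
    rw [q1, q2, mul_one]
    rfl
  have e2 : ∀ j c, (ENNReal.ofReal (Cm (I.kI j c)) * Kc δ R (mfs I) (I.kI j c)) ^ p *
      (1 + cwm (I.kI j c)) * (mfs I).EnT (Gkc (mfs I) W g D' (I.kI j c)) p a w h (I.kI j c) =
      (ENNReal.ofReal Ci * ENNReal.ofReal (8 * Cl δ R)) ^ p * (1 + cwm (I.kI j c)) *
          (mfs I).EnT (Gd' D') p a w h (I.kI j c) := by
    intro j c
    have q1 : Kc δ R (mfs I) (I.kI j c) = ENNReal.ofReal (8 * Cl δ R) :=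
      Kc_some (M := mfs I) (I.bl_kI j c)
    have q2 : Gkc (mfs I) W g D' (I.kI j c) = Gd' D' := Gkc_some (M := mfs I) (I.bl_kI j c)
    rw [q1, q2]
    rfl
  have e3 : ∀ j, (ENNReal.ofReal (Cm (I.kIw j)) * Kc δ R (mfs I) (I.kIw j)) ^ p *
      (1 + cwm (I.kIw j)) * (mfs I).EnT (Gkc (mfs I) W g D' (I.kIw j)) p a w h (I.kIw j) =
      ENNReal.ofReal (Cw j) ^ p * (1 + cwm (I.kIw j)) *
          (mfs I).EnT (GV (fun c => ENNReal.ofReal (W c)) g) p a w h (I.kIw j) := by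
    intro j
    have q1 : Kc δ R (mfs I) (I.kIw j) = 1 := Kc_none (M := mfs I) (I.bl_kIw j)
    have q2 : Gkc (mfs I) W g D' (I.kIw j) = GV (fun c => ENNReal.ofReal (W c)) g :=
      Gkc_none (M := mfs I) (I.bl_kIw j)
    rw [q1, q2, mul_one]
    rfl
  simp only [e1, e2, e3]

/-- **`nonQ` over `mfs`, from the numbers of the walls and of the blocks** -/
theorem nonQ_mfs_le (I : Ins Φ.F X) (hX : ∀ c, c ∈ X) {Cs : Set (Set E3) → ℝ}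
    (hC0 : ∀ 𝒦, 0 ≤ Cs 𝒦) {Ci : ℝ} {Cw : X → ℝ}
    (hCi : ∀ j c, ∀ 𝒦 ∈ I.mf.Sh (I.kI j c), Cs 𝒦 ≤ Ci)
    (hCw : ∀ j, ∀ 𝒦 ∈ simL (NR (I.D.A j) (I.D.d j)) (I.D.d j) (I.D.c j), Cs 𝒦 ≤ Cw j)
    (W : Φ.F → ℝ) (g : Φ.F → Fin 3 → E3 → ℝ) (D' : E3 → E3 →L[ℝ] E3) {p : ℝ} (hp : 0 ≤ p)
    {a : E3} {w : X → E3} (h : I.mf.Ok a w)
    (hcmp : ∀ e : Edg ((mfs I).md a w h).T, le (GV (fun c => ENNReal.ofReal (W c)) g) e ≤
      ENNReal.ofReal (8 * Cl δ R) * le (Gd' D') e)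
    {cw : ((mfs I).md a w h).ι → ℝ≥0∞} {cwm : I.mf.κ → ℝ≥0∞}
    (hcw : ∀ i, ((mfs I).md a w h).Ord i → cw i ≤ cwm ((mfs I).cl ((mfs I).pot a w h i)))
    {εb B : X → ℝ≥0∞} {Ki : ℝ≥0∞}
    (h1 : ∀ j, ENNReal.ofReal (Cw j) ^ p * (1 + cwm (I.kOw j)) *
      (mfs I).EnT (GV (fun c => ENNReal.ofReal (W c)) g) p a w h (I.kOw j) ≤ εb j)
    (h2 : ∀ j, ENNReal.ofReal (Cw j) ^ p * (1 + cwm (I.kIw j)) *
      (mfs I).EnT (GV (fun c => ENNReal.ofReal (W c)) g) p a w h (I.kIw j) ≤ εb j)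
    (h3 : ∀ j, ∑' c, (mfs I).EnT (Gd' D') p a w h (I.kI j c) ≤ B j)
    (h4 : ∀ j c, cwm (I.kI j c) ≤ Ki) :
    ∑' i : {i // i ∉ Qr I.M I.hk (I.M.φ a) (Ins.adm h) ∧ ∀ c, i ≠ ((mfs I).md a w h).ct c},
      (ENNReal.ofReal (Cs ((fun K => ((mfs I).md a w h).fr i.1 '' K) ''
          Cfg ((mfs I).md a w h).T i.1) * ‖lin (((mfs I).md a w h).fr i.1)‖) *
        ∑ e ∈ eIn ((mfs I).md a w h).T i.1,
          le (GV (fun c => ENNReal.ofReal (W c)) g) e) ^ p *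
        ((1 + cw i.1) * volume (Msh_715.P (((mfs I).md a w h).T.H i.1))) ≤
      (ENNReal.ofReal Ci * ENNReal.ofReal (8 * Cl δ R)) ^ p * (1 + Ki) * (∑' j, B j) +
        2 * ∑' j, εb j := by
  refine (nonQ_mfs I hX hC0 hCi hCw W g D' hp h hcmp hcw).trans ?_
  have k1 : ∑' j, ENNReal.ofReal (Cw j) ^ p * (1 + cwm (I.kOw j)) *
      (mfs I).EnT (GV (fun c => ENNReal.ofReal (W c)) g) p a w h (I.kOw j) ≤ ∑' j, εb j :=
    ENNReal.tsum_le_tsum h1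
  have k2 : ∑' j, ENNReal.ofReal (Cw j) ^ p * (1 + cwm (I.kIw j)) *
      (mfs I).EnT (GV (fun c => ENNReal.ofReal (W c)) g) p a w h (I.kIw j) ≤ ∑' j, εb j :=
    ENNReal.tsum_le_tsum h2
  have k3 : ∑' j, ∑' c, (ENNReal.ofReal Ci * ENNReal.ofReal (8 * Cl δ R)) ^ p *
      (1 + cwm (I.kI j c)) * (mfs I).EnT (Gd' D') p a w h (I.kI j c) ≤
      (ENNReal.ofReal Ci * ENNReal.ofReal (8 * Cl δ R)) ^ p * (1 + Ki) * (∑' j, B j) := by
    rw [← ENNReal.tsum_mul_left]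
    refine ENNReal.tsum_le_tsum fun j => ?_
    refine le_trans ?_ (mul_le_mul' le_rfl (h3 j))
    rw [← ENNReal.tsum_mul_left]
    refine ENNReal.tsum_le_tsum fun c => ?_
    gcongr
    exact h4 j c
  calc _ ≤ ∑' j, εb j + ((ENNReal.ofReal Ci * ENNReal.ofReal (8 * Cl δ R)) ^ p * (1 + Ki) *
        (∑' j, B j) + ∑' j, εb j) := add_le_add k1 (add_le_add k3 k2)
    _ = _ := by rw [two_mul]; ring

end nonQ

/-! ### the constants of the shapes -/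

/-- the constant of the inner classes, before the data (222's [CM]) -/
theorem exists_Ci (Cs : Set (Set E3) → ℝ) (B0 : ℕ) (R0 : ℝ) : ∃ Ci : ℝ, 0 < Ci ∧
    ∀ {F : Type} {X : Set F} (I : Ins F X), (∀ j, I.D.B j ≤ B0) → (∀ j, I.D.R j ≤ R0) →
      ∀ j c, ∀ 𝒦 ∈ I.mf.Sh (I.kI j c), Cs 𝒦 ≤ Ci := by
  obtain ⟨Ci, h0, h1⟩ := Cm_222.exists_Cm Cs B0 R0
  exact ⟨Ci, h0, fun I hB hR j c 𝒦 h𝒦 => h1 I.M I.D j (hB j) (hR j) (I.k0 j) (I.hk0 j) c 𝒦 h𝒦⟩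

/-- the constants of the walls: functions of the rational data only (the same for `cap M c`) -/
theorem exists_Cw (Cs : Set (Set E3) → ℝ) {J : Type} {M : MD E3 3 J} (D : RD M) :
    ∃ Cw : J → ℝ, (∀ j, 0 < Cw j) ∧
      ∀ j, ∀ 𝒦 ∈ simL (NR (D.A j) (D.d j)) (D.d j) (D.c j), Cs 𝒦 ≤ Cw j := by
  have h : ∀ j, ∃ b : ℝ, 0 < b ∧
      ∀ 𝒦 ∈ simL (NR (D.A j) (D.d j)) (D.d j) (D.c j), Cs 𝒦 ≤ b := by
    intro j
    obtain ⟨b, hb⟩ := ((simL_finite (NR (D.A j) (D.d j)) (D.d j) (D.c j)).image Cs).bddAbove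
    exact ⟨max b 1, lt_of_lt_of_le one_pos (le_max_right _ _),
      fun 𝒦 h𝒦 => (hb ⟨𝒦, h𝒦, rfl⟩).trans (le_max_left _ _)⟩
  choose Cw h1 h2 using h
  exact ⟨Cw, h1, h2⟩

end

end Crest.Agent.R096.Nqc_645
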