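import Crest.Agent.R096.Pgb3_120
import Crest.Agent.R096.Bmd5_798
import Crest.Agent.R096.Nqc2_645
import Crest.Agent.R096.Np5_962

/-!
# Row 96 (S0127), helper120: **(M3) of 962 #11558 in the literal form of 798: `pgn : Bmd_798.PreGenN`**
(from `preGenN`, 645's `nonQ_mfs_le`, 168's `cw_class`).
-/

set_option autoImplicit false
set_option linter.style.longLine false
set_option linter.unusedSectionVars false

open MeasureTheory Set Filter Metric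
open scoped Topology ENNReal

namespace Crest.Agent.R096.Pgb_120

open Crest.Agent.R096.Msh_715 Crest.Agent.R096.Msh_810
open Crest.Agent.R096.SkC1_961 (E3 Cfg FoamD Hom3)
open Crest.Agent.R096.Gno_324 (cap capD capD_Om)
open Crest.Agent.R096.Mal_874 (MD RD outD)
open Crest.Agent.R096.Mfa_880 (Ins Pri Deco BxM QU)
open Crest.Agent.R096.Mfs_168 (mfs)
open Crest.Agent.R096.Mbf_337
open Crest.Agent.R096.Ls_222
open Crest.Agent.R096.Ea_713 (lin)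
open Crest.Agent.R096.Der_764 (OmH)
open Crest.Agent.R96.Pm_199 (le Dec)
open Crest.Agent.R096.Fns_360 (trA)
open Crest.Agent.R096.Wd_120 (CoreAt coreAt_mesh)
open Crest.Agent.R096.Bmd_798 (UX ctu Av GenN TI Qr)
open Crest.Agent.R096.Bls_168 (cwR Bulk Kw Kw_ne_top)
open Crest.Agent.R096.Pmc_112 (Gd' Mok)
open Crest.Agent.R096.Np_962 (GV GV_le PreOutN ChoiceN)
open Crest.Agent.R96.En9_199 (GGw)

noncomputable section

/-- the data for `preGenN` from those of 798's `GenN` -/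
def dnN {F : Type} (cF : Countable F) (A : F → E3 ≃ᵃ[ℝ] E3) (lam : F → ℝ) (z : F → E3) (Mc : F → ℕ)
    (M : MD E3 3 (UX F)) (Y : RD M) (k0 : UX F → ℕ) (hk0 : ∀ j, (M.Q j).kc ≤ k0 j)
    (hne : (M.φ ⁻¹' M.D0.Om).Nonempty) : DN F (Set.univ : Set F) where
  M := M
  D := Y
  k0 := k0
  hk0 := hk0
  Bx j := BxM M j
  hBx _ := subset_rfl
  cX := by infer_instance
  hOm := hne
  deco a w :=
    { A := fun c => trA (A c) (a + w ⟨c, mem_univ c⟩)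
      lam := lam
      z := z
      θ := fun _ x => x
      φ := fun _ _ => 0
      M := Mc }

theorem box_sub_closedBall : box 3 ⊆ closedBall (0 : E3) 1 := by
  intro x hx
  rw [mem_closedBall_zero_iff, pi_norm_le_iff_of_nonneg zero_le_one]
  intro i
  have h1 := hx i (mem_univ i)
  rw [Real.norm_eq_abs, abs_of_nonneg h1.1]
  exact h1.2.le

section gin

variable {δ κ0 Rc c0 : ℝ} {La Om : Set E3} {Φ : FoamD δ κ0 Rc c0 La} {f : E3 → E3}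
  {D' : E3 → E3 →L[ℝ] E3} {p κp κ1 κ2 : ℝ} {A : Φ.F → E3 ≃ᵃ[ℝ] E3} {lam : Φ.F → ℝ}
  {z : Φ.F → E3} {Mc : Φ.F → ℕ} {B0 : ℕ} {R0 : ℝ} {M : MD E3 3 (UX Φ.F)} {Y : RD M}
  {k0 : UX Φ.F → ℕ} {hk0 : ∀ j, (M.Q j).kc ≤ k0 j} {κr : UX Φ.F → ℕ}
  {Gd : UX Φ.F → Set E3} {B : UX Φ.F → ℝ≥0∞}

/-- **input of `preGenN` from 798's `GenN`** -/
theorem genIn (cF : Countable Φ.F)
    (hG : GenN Φ Om f D' p κp κ1 κ2 A lam z Mc B0 R0 M Y k0 hk0 κr Gd B)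
    (hne : (M.φ ⁻¹' M.D0.Om).Nonempty) :
    GenInN Φ f D' p κp (κp / 64) κ1 κ2 (dnN cF A lam z Mc M Y k0 hk0 hne) κr Gd
      (fun _ _ => 1) B where
  Gds := hG.Gds
  Gdm := hG.Gdm
  Gd0 := hG.Gd0
  h0 := hG.h0
  mok := by
    intro c hc k hk a w hv hw i0 fr
    have h1 := hG.cf c hc k hk ((cap M c hc).φ a) (fun j => a + w j) hv hw
    set D0 : Dec ((cap M c hc).φ ⁻¹' (cap M c hc).D0.Om) Φ.F :=
      ((((dnN cF A lam z Mc M Y k0 hk0 hne).deco a w).mkX univ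
        ((cap M c hc).mesh hk ((cap M c hc).φ a) hv) i0
        fun j => Sum.inr ⟨j, (cap M c hc).core hk ((cap M c hc).φ a) hv j⟩).wf fr) with hD0
    have eJ : ∀ c', {i : TI (cap M c hc) hk ((cap M c hc).φ a) hv |
        ∃ h : c' ∈ (univ : Set Φ.F), i = Sum.inr ⟨⟨c', h⟩,
          (cap M c hc).core hk ((cap M c hc).φ a) hv ⟨c', h⟩⟩} =
        {ctu (cap M c hc) hk ((cap M c hc).φ a) hv c'} := fun c' =>
      Set.ext fun i => ⟨fun ⟨_, e⟩ => e, fun e => ⟨mem_univ c', e⟩⟩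
    have eJ0 : D0.J0 = fun b => {ctu (cap M c hc) hk ((cap M c hc).φ a) hv b} := funext eJ
    have eJJ : D0.J = fun b => {ctu (cap M c hc) hk ((cap M c hc).φ a) hv b} := funext eJ
    have eV : D0.V = fun b => {ctu (cap M c hc) hk ((cap M c hc).φ a) hv b} := funext eJ
    have ect : D0.ct = ctu (cap M c hc) hk ((cap M c hc).φ a) hv := by
      funext c'
      exact Deco.mkX_ct (D := (dnN cF A lam z Mc M Y k0 hk0 hne).deco a w) (X := univ)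
        (T := (cap M c hc).mesh hk ((cap M c hc).φ a) hv) (i0 := i0)
        (ct := fun j => Sum.inr ⟨j, (cap M c hc).core hk ((cap M c hc).φ a) hv j⟩) (mem_univ c')
    have hC : Cores Φ D0.T f κ1 κ2 univ D0.J0 D0.J D0.V D0.ct D0.A D0.lam D0.z D0.θ D0.φ := by
      rw [eJ0, eJJ, eV, ect]
      exact h1.1
    have hF : Fine Φ D0.T f κ1 D0.J0 := by
      rw [eJ0]
      exact h1.2
    have hcA : ∀ c' : UX Φ.F, CoreAt D0.T (D0.ct c'.1) ((M.Q c').tr (a + w c')) := by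
      intro c'
      rw [ect]
      exact coreAt_mesh (cap M c hc) hk ((cap M c hc).φ a) hv c'
    exact ⟨hC, hF, hG.words (fun j => a + w j) hw _ ((cap_Om hc).trans hG.hOm) D0 hC fun c' =>
      ⟨rfl, rfl, rfl, rfl, hcA c'⟩⟩
  en := by
    intro j s hs
    refine le_trans (le_of_eq (tsum_congr fun c => ?_)) (hG.en j s hs)
    exact one_mul _

end gin

/-- `nonQ` for one instance over `univ` -/
theorem nonQ_ins {δ κ0 Rc c0 : ℝ} {La : Set E3} {Φ : FoamD δ κ0 Rc c0 La} {f : E3 → E3}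
    {D' : E3 → E3 →L[ℝ] E3} {g : Φ.F → Fin 3 → E3 → ℝ} {W : Φ.F → ℝ} {p κp μ κ1 κ2 κ3 : ℝ}
    (hp : 0 ≤ p) {B0 : ℕ} {R0 : ℝ} {Cs : Set (Set E3) → ℝ} (hCs : ∀ 𝒦, 0 < Cs 𝒦) {Ci : ℝ}
    (hCi : ∀ {F : Type} {X : Set F} (I : Ins F X), (∀ j, I.D.B j ≤ B0) → (∀ j, I.D.R j ≤ R0) →
      ∀ j c, ∀ 𝒦 ∈ I.mf.Sh (I.kI j c), Cs 𝒦 ≤ Ci) {Ku Ki : ℝ≥0∞}
    (hKu : ∀ {J : Type} (M : MD E3 3 J), (∀ x, M.φ x = x) →
      (∀ j x, ‖(M.Q j).ψ x‖ ≤ ‖x‖) → ∀ {k : J → ℕ} (hk : M.Sc k) (a : E3) {v : J → E3}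
      (hv : M.Adm v) {K0 : ℕ} {r : ℝ} (hr : r ≠ 0) {o : Fin 2 → ℤ} {Mm : ℕ} {Zs : Finset ℤ}
      {B : Set E3}, Bulk M k a v K0 r o Mm Zs B →
      (∀ i ∈ Qr M hk a hv, cwR (M.mesh hk a hv) r hr a o Mm Zs i ≤ Ku) ∧
      ∀ j, cwR (M.mesh hk a hv) r hr a o Mm Zs (Sum.inr ⟨j, M.core hk a hv j⟩) ≤ Ku)
    (hKi : ∀ {J : Type} (M : MD E3 3 J), (∀ x, M.φ x = x) →
      (∀ j x, ‖(M.Q j).ψ x‖ ≤ ‖x‖) → ∀ {k : J → ℕ} (hk : M.Sc k) (a : E3) {v : J → E3}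
      (hv : M.Adm v) (X : RD M), Crest.Agent.R096.Mal_874.RP X a v k → (∀ j, X.B j ≤ B0) →
      (∀ j, X.R j ≤ R0) →
      ∀ {K0 : ℕ} {r : ℝ} (hr : r ≠ 0) {o : Fin 2 → ℤ} {Mm : ℕ} {Zs : Finset ℤ} {B : Set E3},
      Bulk M k a v K0 r o Mm Zs B → ∀ j (i : M.IIx hk a hv j),
        Disjoint (Msh_715.P ((M.mesh hk a hv).H (Sum.inr ⟨j, i⟩))) (frontier (M.Bk v j).N) →
        cwR (M.mesh hk a hv) r hr a o Mm Zs (Sum.inr ⟨j, i⟩) ≤ Ki)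
    (I : Ins Φ.F (univ : Set Φ.F)) (hφ : ∀ x, I.M.φ x = x) (hψ : ∀ j x, ‖(I.M.Q j).ψ x‖ ≤ ‖x‖)
    (hB : ∀ j, I.D.B j ≤ B0) (hR : ∀ j, I.D.R j ≤ R0) {Cw : UX Φ.F → ℝ}
    (hCw : ∀ j, ∀ 𝒦 ∈ Crest.Agent.R096.Mal_874.simL (Crest.Agent.R096.Mal_874.NR (I.D.A j) (I.D.d j)) (I.D.d j) (I.D.c j),
      Cs 𝒦 ≤ Cw j) {εb B : UX Φ.F → ℝ≥0∞} {a : E3} {w : UX Φ.F → E3} (h : (mfs I).Ok a w)
    (hPre : PreOutN Φ f κp μ κ1 κ2 κ3 W univ g D' ((mfs I).md a w h))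
    (hEO : ∀ j, ENNReal.ofReal (Cw j) ^ p * (1 + Kw (I.D.A j) (I.D.d j) (I.D.c j)) *
      (mfs I).EnT (GV (fun c => ENNReal.ofReal (W c)) g) p a w h (I.kOw j) ≤ εb j)
    (hEI : ∀ j, ENNReal.ofReal (Cw j) ^ p * (1 + Kw (I.D.A j) (I.D.d j) (I.D.c j)) *
      (mfs I).EnT (GV (fun c => ENNReal.ofReal (W c)) g) p a w h (I.kIw j) ≤ εb j)
    (hEB : ∀ j, ∑' c, (mfs I).EnT (Gd' D') p a w h (I.kI j c) ≤ B j)
    {K0 : ℕ} {r : ℝ} (hr : r ≠ 0) {o : Fin 2 → ℤ} {Mm : ℕ} {Zs : Finset ℤ} {Bb : Set E3}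
    (hb : Bulk I.M I.k (I.M.φ a) (fun j => a + w j) K0 r o Mm Zs Bb) :
    ∑' i : {i // i ∉ Qr I.M I.hk (I.M.φ a) (Ins.adm h) ∧
        ∀ b, i ≠ ctu I.M I.hk (I.M.φ a) (Ins.adm h) b},
      (ENNReal.ofReal (Cs ((fun K => ((mfs I).md a w h).fr i.1 '' K) ''
          Cfg (I.M.mesh I.hk (I.M.φ a) (Ins.adm h)) i.1) *
          ‖lin (((mfs I).md a w h).fr i.1)‖) *
        ∑ e ∈ eIn (I.M.mesh I.hk (I.M.φ a) (Ins.adm h)) i.1,
          le (GV (fun c => ENNReal.ofReal (W c)) g) e) ^ p *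
        ((1 + cwR (I.M.mesh I.hk (I.M.φ a) (Ins.adm h)) r hr (I.M.φ a) o Mm Zs i.1) *
          volume (Msh_715.P ((I.M.mesh I.hk (I.M.φ a) (Ins.adm h)).H i.1))) ≤
      (ENNReal.ofReal Ci * ENNReal.ofReal (8 * Cl δ Rc)) ^ p * (1 + Ki) * (∑' j, B j) +
        2 * ∑' j, εb j := by
  have ect : ((mfs I).md a w h).ct = ctu I.M I.hk (I.M.φ a) (Ins.adm h) := by
    funext c'
    exact Mfs_168.mfs_ct I h (mem_univ c')
  have q := Nqc_645.nonQ_mfs_le I (fun c => mem_univ c) (fun 𝒦 => (hCs 𝒦).le) (Ci := Ci)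
    (Cw := Cw) (hCi I hB hR) hCw W g D' hp h hPre.cmp
    (cw := cwR (I.M.mesh I.hk (I.M.φ a) (Ins.adm h)) r hr (I.M.φ a) o Mm Zs)
    (cwm := Mfs_168.cwm I Ku Ki)
    (fun i hi => Mfs_168.cw_class I hφ h hr hb
      (hKu I.M hφ hψ I.hk (I.M.φ a) (Ins.adm h) hr hb).1
      (hKi I.M hφ hψ I.hk (I.M.φ a) (Ins.adm h) I.D (I.H.rp a fun j => (h.2 j).1) hB hR hr hb) hi)
    (εb := εb) (B := B) (Ki := Ki) hEO hEI hEB (fun j c => le_rfl)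
  rw [ect] at q
  exact q

set_option maxHeartbeats 1000000 in
/-- **(M3) OF 962 #11558, 798's LITERAL** -/
theorem pgn : Crest.Agent.R096.Bmd_798.PreGenN := by
  intro p hp B0 R0 δ Rc hδ hRc Cs hCs
  obtain ⟨Ci, hCi0, hCi⟩ := Nqc_645.exists_Ci Cs B0 R0
  obtain ⟨Ku, -, hKu⟩ := Bls_168.cw_num
  obtain ⟨Ki, hKit, hKi⟩ := Bls_168.cw_in B0 R0
  refine ⟨(ENNReal.ofReal Ci * ENNReal.ofReal (8 * Cl δ Rc)) ^ p * (1 + Ki), ?_, ?_⟩
  · exact ENNReal.mul_ne_top (ENNReal.rpow_ne_top_of_nonneg (by linarith)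
      (ENNReal.mul_ne_top ENNReal.ofReal_ne_top ENNReal.ofReal_ne_top))
      (ENNReal.add_ne_top.2 ⟨ENNReal.one_ne_top, hKit⟩)
  intro κ0 c0 La Om Φ f Df D' hO hne hOb hLa hf hSH hDm hD g hgm hgw W κp κ1 κ2 κ3 W0 Wd W1 W2 W3
    hκp hκp1 hκ3 hκ2 hκ hg0 hH A lam z Mc M Y k0 hk0 κr Gd B hG ε hε
  have hφ := hG.φ
  have hφx : ∀ x, M.φ x = x := fun x => by rw [hφ]; rfl
  have eOm := hG.hOm
  have hne' : (M.φ ⁻¹' M.D0.Om).Nonempty := by rw [eOm]; exact hne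
  have cF : Countable Φ.F := Crest.Agent.R096.Ls_222.countable_F Φ
  obtain ⟨Cw, hCw0, hCw⟩ := Nqc_645.exists_Cw Cs Y
  obtain ⟨εb, hεb0, hεb⟩ := ENNReal.exists_pos_sum_of_countable'
    (ENNReal.div_pos hε ENNReal.ofNat_ne_top : 0 < ε / 2).ne' (UX Φ.F)
  set KO : UX Φ.F → ℝ≥0∞ := fun j => ENNReal.ofReal (Cw j) ^ p *
    (1 + Kw (Y.A j) (Y.d j) (Y.c j)) with hKO
  have hKOt : ∀ j, KO j ≠ ∞ := fun j => ENNReal.mul_ne_top
    (ENNReal.rpow_ne_top_of_nonneg (by linarith) ENNReal.ofReal_ne_top)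
    (ENNReal.add_ne_top.2 ⟨ENNReal.one_ne_top, Kw_ne_top _ _ _⟩)
  obtain ⟨L, kw, h1, h2, H⟩ := preGenN δ κ0 Rc c0 La Φ f univ
    (dnN cF A lam z Mc M Y k0 hk0 hne') hLa hδ hRc (by
      show Hom3 f (M.φ ⁻¹' M.D0.Om) La
      rw [eOm]; exact hf) D' hDm (by
      show ∀ l, Crest.Agent.R96.Sob4_199.VWD (OmH Φ f (M.φ ⁻¹' M.D0.Om)) volume
        (fun x => Crest.Agent.R96.En10_199.P3 (Φ.Psi (f x)))
        (fun x => Crest.Agent.R96.En10_199.P3 (D' x (Pi.single l 1))) (Pi.single l (1:ℝ))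
      rw [eOm]; exact hD) g hgm (by
      show ∀ c l, Crest.Agent.R96.Acl_392.WD (OmH Φ f (M.φ ⁻¹' M.D0.Om)) volume
        (fun x => Φ.lev c (f x)) (g c l) (Pi.single l 1)
      rw [eOm]; exact hgw) W κp (κp / 64) κ1 κ2 κ3 W0 Wd W1 W2 W3 hκp hκp1 le_rfl hκ3 hκ2 hκ p hp
    (GGw (fun c => ENNReal.ofReal (W c)) g) (Eventually.of_forall fun y v => GV_le v y) (by
      show ∫⁻ y in M.φ ⁻¹' M.D0.Om, _ ≠ ∞
      rw [eOm]; exact hH) κr Gd (fun _ _ => 1) B (genIn cF hG hne') (1 / 4)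
    (ENNReal.div_pos one_ne_zero ENNReal.ofNat_ne_top).ne' KO KO εb hKOt hKOt
    (fun j => (hεb0 j).ne')
  refine ⟨kw, fun c hc k hk hkw => ?_⟩
  obtain ⟨A', hA1, hA2, hA3, hA4⟩ := H c hc k hk hkw
  refine ⟨A', hA2, (measure_mono (sdiff_subset_sdiff_left box_sub_closedBall)).trans hA3,
    fun a ha => ?_⟩
  have ea : (cap M c hc).φ a = a := hφx a
  obtain ⟨w, h, hw, hPre, hEO, hEI, hEB⟩ := hA4 a ha
  set I' : Ins Φ.F (univ : Set Φ.F) := L.ins hc hk (fun j => (h1 j).trans (hkw j))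
    (fun j => (h2 j).trans (hkw j)) with hI'
  have ect : ((mfs I').md a w h).ct = ctu (cap M c hc) hk ((cap M c hc).φ a) (Ins.adm h) := by
    funext c'
    exact Mfs_168.mfs_ct I' h (mem_univ c')
  -- the statement at the base point `M.φ a`
  have key : ∃ (v : UX Φ.F → E3) (hv : (cap M c hc).Adm v), (∀ j, v j ∈ Gd j) ∧
      ∃ fr : TI (cap M c hc) hk ((cap M c hc).φ a) hv → E3 ≃ᵃ[ℝ] E3,
      (∀ e : Edg ((cap M c hc).mesh hk ((cap M c hc).φ a) hv), le (Gd' D') e ≠ ⊤) ∧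
      (∀ e : Edg ((cap M c hc).mesh hk ((cap M c hc).φ a) hv),
        le (GV (fun c => ENNReal.ofReal (W c)) g) e ≤
        ENNReal.ofReal (8 * Cl δ Rc) * le (Gd' D') e) ∧
      ChoiceN Φ ((cap M c hc).mesh hk ((cap M c hc).φ a) hv) f κp (κp / 64) κ3 W univ
        (ctu (cap M c hc) hk ((cap M c hc).φ a) hv) (Av A v) lam z Mc
        (fun e => ENNReal.ofReal (1 + κp) * le (GV (fun c => ENNReal.ofReal (W c)) g) e) ∧
      ∀ (K0 : ℕ) (r : ℝ) (hr : r ≠ 0) (o : Fin 2 → ℤ) (Mm : ℕ) (Zs : Finset ℤ) (Bb : Set E3),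
        Bulk (cap M c hc) k ((cap M c hc).φ a) v K0 r o Mm Zs Bb →
        ∑' i : {i // i ∉ Qr (cap M c hc) hk ((cap M c hc).φ a) hv ∧
            ∀ b, i ≠ ctu (cap M c hc) hk ((cap M c hc).φ a) hv b},
          (ENNReal.ofReal (Cs ((fun K => fr i.1 '' K) ''
            Cfg ((cap M c hc).mesh hk ((cap M c hc).φ a) hv) i.1) *
            ‖lin (fr i.1)‖) *
            ∑ e ∈ eIn ((cap M c hc).mesh hk ((cap M c hc).φ a) hv) i.1,
              le (GV (fun c => ENNReal.ofReal (W c)) g) e) ^ p *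
            ((1 + cwR ((cap M c hc).mesh hk ((cap M c hc).φ a) hv) r hr ((cap M c hc).φ a) o Mm Zs
              i.1) *
              volume (Msh_715.P (((cap M c hc).mesh hk ((cap M c hc).φ a) hv).H i.1))) ≤
          (ENNReal.ofReal Ci * ENNReal.ofReal (8 * Cl δ Rc)) ^ p * (1 + Ki) * ∑' j, B j + ε := by
    refine ⟨fun j => a + w j, Ins.adm h, hw, ((mfs I').md a w h).fr, hPre.fin, hPre.cmp, ?_, ?_⟩
    · have h3 := hPre.choice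
      rw [ect] at h3
      exact h3
    · intro K0 r hr o Mm Zs Bb hb
      have q := nonQ_ins (Φ := Φ) (by linarith : (0:ℝ) ≤ p) (B0 := B0) (R0 := R0) hCs hCi hKu hKi I'
        hφx hG.ψ1 hG.bB hG.bR (Cw := Cw) hCw (εb := εb) (B := B) h hPre (fun j => hEO j)
        (fun j => hEI j) (fun j => by
          refine le_trans (le_of_eq (tsum_congr fun c => ?_)) (hEB j)
          exact (one_mul _).symm) hr hb
      refine q.trans (add_le_add le_rfl ?_)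
      calc 2 * ∑' j, εb j ≤ 2 * (ε / 2) := mul_le_mul' le_rfl hεb.le
        _ = ε := ENNReal.mul_div_cancel two_ne_zero ENNReal.ofNat_ne_top
  rw [ea] at key
  exact key

end

end Crest.Agent.R096.Pgb_120
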