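import Crest.Agent.R096.Nge5_423
import Crest.Agent.R096.Bmd6_798
import Crest.Agent.R096.Pgb4_120

/-!
Row 96 (S0127), helper962, node NO0-PRE3: `NOPre p`, `p ≥ 3`, from the two last Props of 798.
-/

set_option autoImplicit false

namespace Crest.Agent.R096.Np_962

/-- **`NOPre p` for `p ≥ 3` from `ExBlkN p` and `PreGenN`** -/
theorem noPre_of_blk {p : ℝ} (hp : 3 ≤ p) (HB : Bmd_798.ExBlkN p) (HG : Bmd_798.PreGenN) :
    No_276.NOPre p :=
  Nge_423.noPre_ge3 hp (Bmd_798.exMeshN_of (by linarith) HB HG)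

/-- **`NOPre p` for `p ≥ 3` from `ExBlkN p`** -/
theorem noPre_of_blkN {p : ℝ} (hp : 3 ≤ p) (HB : Bmd_798.ExBlkN p) : No_276.NOPre p :=
  noPre_of_blk hp HB Pgb_120.pgn

end Crest.Agent.R096.Np_962
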