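import Crest.Agent.R96.Intr11_538

/-!
# Row 96 (helper580), p ≤ 2: [COUNT] of 753 #11357: choice of one common translate

* `exists_pick` : `D ⊆ T`, `volume B1 ≤ θ * volume T`, `θ * volume T ≤ (1/8) volume D`,
  `volume B2 ≤ (1/2) volume D` ⟹ some `a ∈ D` avoids `B1` and `B2`;
* `norm_Dt` : `‖a‖ ≤ 2 t` on `Dt t`;
* `pick_Dt` : the two together for `D = Dt (1 / 2^k0)`;
* `theta_ok` : `volume T ≤ (C t)^3`, `θ1 s ≤ 1 / 2^k0`, `t = s / N` ⟹ `θ = (θ1 N / C)^3 / 8` has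
  `θ * volume T ≤ (1/8) volume (Dt (1 / 2^k0))`.
-/

set_option autoImplicit false

open MeasureTheory Set Filter Metric
open scoped ENNReal NNReal Topology

namespace Crest.Agent.R096.Cnt5_580

open Crest.Agent.R96.Coarse_538

/-- two small bad sets do not cover `D` (no measurability of the bad sets) -/
theorem exists_pick {α : Type*} [MeasurableSpace α] {μ : Measure α} {D T B1 B2 : Set α} {θ : ℝ}
    (h0 : μ D ≠ 0) (hfin : μ D ≠ ∞)
    (h1 : μ B1 ≤ ENNReal.ofReal θ * μ T) (h2 : ENNReal.ofReal θ * μ T ≤ ENNReal.ofReal (1 / 8) * μ D)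
    (h3 : μ B2 ≤ ENNReal.ofReal (1 / 2) * μ D) : ∃ a ∈ D, a ∉ B1 ∧ a ∉ B2 := by
  by_contra hcon
  push Not at hcon
  have hsub : D ⊆ B1 ∪ B2 := fun a ha => by
    by_cases hb : a ∈ B1
    · exact Or.inl hb
    · exact Or.inr (hcon a ha hb)
  have h4 : μ D ≤ ENNReal.ofReal (5 / 8) * μ D := by
    calc μ D ≤ μ (B1 ∪ B2) := measure_mono hsub
      _ ≤ μ B1 + μ B2 := measure_union_le _ _
      _ ≤ ENNReal.ofReal (1 / 8) * μ D + ENNReal.ofReal (1 / 2) * μ D :=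
        add_le_add (h1.trans h2) h3
      _ = ENNReal.ofReal (5 / 8) * μ D := by
        rw [← add_mul, ← ENNReal.ofReal_add (by norm_num) (by norm_num)]
        norm_num
  have h5 : (μ D).toReal ≤ (5 / 8) * (μ D).toReal := by
    have := ENNReal.toReal_mono (ENNReal.mul_ne_top ENNReal.ofReal_ne_top hfin) h4
    rwa [ENNReal.toReal_mul, ENNReal.toReal_ofReal (by norm_num)] at this
  have h6 : 0 < (μ D).toReal := ENNReal.toReal_pos h0 hfin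
  linarith

/-- points of the fundamental cube are short -/
theorem norm_Dt {t : ℝ} {a : E3} (ha : a ∈ Dt t) : ‖a‖ ≤ 2 * t := by
  have h0 := ha 0
  have ht : 0 ≤ t := h0.1.trans h0.2.le
  have h1 : ‖a‖ ^ 2 ≤ (2 * t) ^ 2 := by
    rw [EuclideanSpace.norm_sq_eq, Fin.sum_univ_three]
    have hb : ∀ i : Fin 3, ‖a i‖ ^ 2 ≤ t ^ 2 := fun i => by
      rw [Real.norm_eq_abs, sq_abs]
      exact pow_le_pow_left₀ (ha i).1 (ha i).2.le 2
    nlinarith [hb 0, hb 1, hb 2, sq_nonneg t]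
  exact le_of_sq_le_sq h1 (by positivity)

/-- sup norm form -/
theorem abs_Dt {t : ℝ} {a : E3} (ha : a ∈ Dt t) (i : Fin 3) : |a i| ≤ t := by
  rw [abs_of_nonneg (ha i).1]
  exact (ha i).2.le

/-- `Dt t` contains `0` (for `0 < t`) and lies in the ball of radius `2 t` -/
theorem Dt_subset {t : ℝ} : Dt t ⊆ closedBall (0 : E3) (2 * t) := fun a ha => by
  rw [mem_closedBall_zero_iff]
  exact norm_Dt ha

/-- **[COUNT] (a)**: the choice of the common translate in `Dt t` -/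
theorem pick_Dt' {t θ : ℝ} (ht : 0 < t) {T B1 B2 : Set E3}
    (h1 : volume B1 ≤ ENNReal.ofReal θ * volume T)
    (h2 : ENNReal.ofReal θ * volume T ≤ ENNReal.ofReal (1 / 8) * volume (Dt t))
    (h3 : volume B2 ≤ ENNReal.ofReal (1 / 2) * volume (Dt t)) :
    ∃ a ∈ Dt t, a ∉ B1 ∧ a ∉ B2 ∧ ‖a‖ ≤ 2 * t := by
  have hv := vol_Dt ht
  obtain ⟨a, ha, hb1, hb2⟩ := exists_pick (μ := (volume : Measure E3)) (D := Dt t)
    (by rw [hv]; exact (ENNReal.ofReal_pos.2 (by positivity)).ne')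
    (by rw [hv]; exact ENNReal.ofReal_ne_top) h1 h2 h3
  exact ⟨a, ha, hb1, hb2, norm_Dt ha⟩

/-- **[COUNT] (a)**, literal form of 753 -/
theorem pick_Dt {k0 : ℕ} {θ : ℝ} {T B1 B2 : Set E3}
    (h1 : volume B1 ≤ ENNReal.ofReal θ * volume T)
    (h2 : ENNReal.ofReal θ * volume T ≤ ENNReal.ofReal (1 / 8) * volume (Dt (1 / 2 ^ k0)))
    (h3 : volume B2 ≤ ENNReal.ofReal (1 / 2) * volume (Dt (1 / 2 ^ k0))) :
    ∃ a ∈ Dt (1 / 2 ^ k0), a ∉ B1 ∧ a ∉ B2 ∧ ‖a‖ ≤ 2 / 2 ^ k0 := by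
  obtain ⟨a, ha, hb1, hb2, hn⟩ := pick_Dt' (t := 1 / 2 ^ k0) (by positivity) h1 h2 h3
  exact ⟨a, ha, hb1, hb2, by rwa [mul_one_div] at hn⟩

/-- the variant with `volume B1 ≤ θ * volume T`, `volume B2 ≤ θ' * volume D`, `θ' ≤ 1 / 2` -/
theorem pick_Dt_le {k0 : ℕ} {θ θ' : ℝ} {T B1 B2 : Set E3}
    (h1 : volume B1 ≤ ENNReal.ofReal θ * volume T)
    (h2 : ENNReal.ofReal θ * volume T ≤ ENNReal.ofReal (1 / 8) * volume (Dt (1 / 2 ^ k0)))
    (h3 : volume B2 ≤ ENNReal.ofReal θ' * volume (Dt (1 / 2 ^ k0))) (hθ' : θ' ≤ 1 / 2) :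
    ∃ a ∈ Dt (1 / 2 ^ k0), a ∉ B1 ∧ a ∉ B2 ∧ ‖a‖ ≤ 2 / 2 ^ k0 :=
  pick_Dt h1 h2 (h3.trans (by gcongr))

/-- **[COUNT] (b)**: the explicit number `θ = (θ1 N / C)^3 / 8` -/
theorem theta_ok {k0 : ℕ} {C θ1 N s t : ℝ} {T : Set E3} (hC : 0 < C) (hθ1 : 0 < θ1) (hN : 0 < N)
    (hs : 0 < s) (ht : t = s / N) (hT : volume T ≤ ENNReal.ofReal ((C * t) ^ 3))
    (hk : θ1 * s ≤ 1 / 2 ^ k0) :
    0 < (θ1 * N / C) ^ 3 / 8 ∧
      ENNReal.ofReal ((θ1 * N / C) ^ 3 / 8) * volume T ≤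
        ENNReal.ofReal (1 / 8) * volume (Dt (1 / 2 ^ k0)) := by
  refine ⟨by positivity, ?_⟩
  rw [vol_Dt (t := 1 / 2 ^ k0) (by positivity)]
  refine (mul_le_mul_right hT _).trans ?_
  rw [← ENNReal.ofReal_mul (by positivity), ← ENNReal.ofReal_mul (by norm_num)]
  refine ENNReal.ofReal_le_ofReal ?_
  have h1 : (θ1 * N / C) ^ 3 / 8 * (C * t) ^ 3 = 1 / 8 * (θ1 * s) ^ 3 := by
    rw [ht]
    field_simp
  rw [h1]
  have h2 : (θ1 * s) ^ 3 ≤ (1 / 2 ^ k0) ^ 3 := pow_le_pow_left₀ (by positivity) hk 3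
  linarith

/-- every smaller `θ` is fine as well -/
theorem theta_le {k0 : ℕ} {θ θ' : ℝ} {T : Set E3} (h : θ' ≤ θ)
    (h2 : ENNReal.ofReal θ * volume T ≤ ENNReal.ofReal (1 / 8) * volume (Dt (1 / 2 ^ k0))) :
    ENNReal.ofReal θ' * volume T ≤ ENNReal.ofReal (1 / 8) * volume (Dt (1 / 2 ^ k0)) :=
  (mul_le_mul_left (ENNReal.ofReal_le_ofReal h) _).trans h2

/-- a set of diameter `≤ C t` (in the ball of radius `r`) has volume `≤ (2 r)^3` in the sup norm sense -/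
theorem vol_le_of_box {r : ℝ} (hr : 0 ≤ r) {T : Set E3} {c : E3} (hT : ∀ a ∈ T, ∀ i, |a i - c i| ≤ r) :
    volume T ≤ ENNReal.ofReal ((2 * r) ^ 3) := by
  have h1 : T ⊆ {x : E3 | ∀ i, x i ∈ (fun i : Fin 3 => Icc (c i - r) (c i + r)) i} := fun a ha i => by
    have := abs_le.1 (hT a ha i)
    exact ⟨by linarith [this.1], by linarith [this.2]⟩
  refine (measure_mono h1).trans ?_
  rw [vol_box fun _ => measurableSet_Icc]
  simp only [Real.volume_Icc, Fin.prod_univ_three]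
  rw [← ENNReal.ofReal_mul (by linarith), ← ENNReal.ofReal_mul (by nlinarith)]
  refine ENNReal.ofReal_le_ofReal (le_of_eq ?_)
  ring

end Crest.Agent.R096.Cnt5_580
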