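import Crest.Agent.R096.Ca14_855

/-!
# Row 96 (S0127), p ≤ 2: composite A (helper855), part 15: `mfamS`, the mesh family of `PreIN`
-/

set_option autoImplicit false
set_option linter.unusedSectionVars false

open Set Metric MeasureTheory Filter
open scoped ENNReal Topology

namespace Crest.Agent.R096.Ca_855

open Crest.AnalysisR.VecCalc3 Crest.AnalysisR.Sobolev
open Crest.Agent.R096.Msh_715
open Crest.Agent.R096.Mal_874 (MD CB RD RP reOm Rt Cn outD Rg tile_k_eq)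
open Crest.Agent.R096.Msh_810 (Dat K)
open Crest.Agent.R096.Msb_432 (meshS rigidS_const Scl CIx)
open Crest.Agent.R96.En10_199 (P3)
open Crest.Agent.R096.Mf_113 (Rig)
open Crest.Agent.R096.Pin_753 (BlkP)
open Crest.Agent.R096.Gsm_432 (TG)
open Crest.Agent.R096.Nbr_896 (tileG_struct)

theorem TileG.re {E : Type} [NormedAddCommGroup E] [NormedSpace ℝ E] [FiniteDimensional ℝ E]
    {Om Om' : Set E} (h : Om = Om') {ι : Type} {T : Tiling Om ι} {i : ι} {hne : (T.H i).Nonempty}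
    {hne' : ((reOm T h).H i).Nonempty} {c : E} {β ρ t : ℝ} {nc : ℕ}
    (hT : TileG T i hne c β ρ t nc) : TileG (reOm T h) i hne' c β ρ t nc := by
  subst h
  exact hT

theorem card_re {E : Type} [NormedAddCommGroup E] [NormedSpace ℝ E] [FiniteDimensional ℝ E]
    {Om Om' : Set E} (h : Om = Om') {ι : Type} (T : Tiling Om ι) (i : ι) :
    {j | (P ((reOm T h).H j) ∩ P ((reOm T h).H i)).Nonempty} =
        {j | (P (T.H j) ∩ P (T.H i)).Nonempty} ∧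
      Nat.card (Crest.Agent.R096.Tgr_335.KT (reOm T h) i) =
        Nat.card (Crest.Agent.R096.Tgr_335.KT T i) ∧
      Nat.card (Crest.Agent.R096.Sk3_812.KT (reOm T h) i) =
        Nat.card (Crest.Agent.R096.Sk3_812.KT T i) := by
  subst h
  exact ⟨rfl, rfl, rfl⟩

/-- **the constants of the tiles** (896's `tileG_struct` on the blocks of `PreIN`): `D`, `nc` depend
on `κ`, `Bs` only; `β`, `ρ` on the net -/
theorem exists_tile {κ : ℝ} (hκ : 0 < κ) (hκ1 : κ ≤ 1) (Bs : ℕ) :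
    ∃ D : ℝ, 0 < D ∧ ∃ nc : ℕ,
      (∀ {Om W : Set R3} {ρ₀ : R3 → ℝ} {J : Type} [Finite J] {Qb : J → CB R3 3} {k0 Nn : ℕ}
        {σ : ℝ} (h : MIn Om W ρ₀ Qb k0 σ), (∀ j, MIn.BQ κ Bs Nn (Qb j) k0) → ∀ a,
        (∀ t, {j | (P ((h.T a).H j) ∩ P ((h.T a).H t)).Nonempty}.ncard ≤ nc ∧
          Nat.card (Crest.Agent.R096.Tgr_335.KT (h.T a) t) ≤ nc ∧
          Nat.card (Crest.Agent.R096.Sk3_812.KT (h.T a) t) ≤ nc) ∧
        ∀ j t, (P ((h.T a).H t) ∩ (h.M.Bk (fun _ => h.cl a) j).N).Nonempty →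
          ∀ x ∈ P ((h.T a).H t), ∀ y ∈ P ((h.T a).H t), ‖x - y‖ ≤ D / 2 ^ (Qb j).kc) ∧
      ∀ Nn : ℕ, ∃ β > 0, ∃ ρ > 0, ∀ {Om W : Set R3} {ρ₀ : R3 → ℝ} {J : Type} [Finite J]
        {Qb : J → CB R3 3} {k0 : ℕ} {σ : ℝ} (h : MIn Om W ρ₀ Qb k0 σ),
        (∀ j, MIn.BQ κ Bs Nn (Qb j) k0) → ∀ a t,
          ∃ κ', Scl h.M h.sc (0 + h.M.φ (h.cl a)) (h.adm a) t κ' ∧
            TG (h.Ts a) t β ρ D nc κ' := by
  obtain ⟨D, hD, nc, h1, h2⟩ := tileG_struct (n := 3) R3 (4 * κ⁻¹) (max 1 (Bs:ℝ)) (max 1 Bs)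
  refine ⟨D, hD, nc, ?_, fun Nn => ?_⟩
  · intro Om W ρ₀ J _ Qb k0 Nn σ h hb a
    obtain ⟨h2, h3⟩ := h1 h.M h.sc (0 + h.M.φ (h.cl a)) (h.adm a) (h.X hκ hκ1 hb)
      (h.rp hκ hκ1 hb a) (h.fb hκ hκ1 hb) (fun _ => le_rfl) (fun _ => le_rfl)
    refine ⟨fun t => ?_, h3⟩
    obtain ⟨e1, e2, e3⟩ := card_re h.dom (h.Ts a) t
    exact ⟨(congrArg Set.ncard e1).le.trans (h2 t).1, e2.le.trans (h2 t).2.1,
      e3.le.trans (h2 t).2.2⟩
  · obtain ⟨β, hβ, ρ, hρ, h3⟩ := h2 (MIn.Ps_finite Nn) (4 * κ⁻¹)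
    refine ⟨β, hβ, ρ, hρ, ?_⟩
    intro Om W ρ₀ J _ Qb k0 σ h hb a t
    exact h3 h.M h.sc (0 + h.M.φ (h.cl a)) (h.adm a) (h.X hκ hκ1 hb) (h.rp hκ hκ1 hb a)
      (h.fb hκ hκ1 hb) (h.X_Ps hκ hκ1 hb) (fun _ => le_rfl) (fun _ => le_rfl) (fun _ => le_rfl) t

namespace MIn

variable {Om W : Set R3} {ρ₀ : R3 → ℝ} {J : Type} {Qb : J → CB R3 3} {k0 : ℕ} {σ : ℝ}
  [Finite J]

/-- the scale of an outer piece which meets `W` -/
theorem outer_k (h : MIn Om W ρ₀ Qb k0 σ) {a x : R3} (hx : x ∈ W)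
    (p : h.M.OIx h.sc (0 + h.M.φ (h.cl a)) (h.adm a))
    (hp : x ∈ P ((h.M.mesh h.sc (0 + h.M.φ (h.cl a)) (h.adm a)).H (Sum.inl p))) :
    p.1.par.1.1.k = k0 := by
  have hx' : x ∈ P ((h.M.ad h.sc (0 + h.M.φ (h.cl a)) (h.adm a)).T0.H p.1.par) :=
    Crest.Agent.R096.Cut_874.cut_tile_sub (hA := Crest.Agent.R096.Mal_874.AF_ne) p.1 hp
  refine tile_k_eq (φ := h.M.φ) (x := x) hx' ?_
  have h0 := h.σ0
  exact h.K_ev hx (by rw [dist_self]; positivity) _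

/-- the scale of a tile which meets `W` -/
theorem scl_le (h : MIn Om W ρ₀ Qb k0 σ) {a : R3} {t : h.ιT a}
    (ht : (P ((h.T a).H t) ∩ W).Nonempty) {κ' : ℕ}
    (hs : Scl h.M h.sc (0 + h.M.φ (h.cl a)) (h.adm a) t κ') :
    κ' ≤ k0 + 1 ∧ (k0 ≤ κ' ∨ ∃ j, (Qb j).kc ≤ κ') := by
  obtain ⟨x, hx, hxW⟩ := ht
  rcases t with ⟨t, ht⟩ | c
  · rcases t with p | ⟨j, i⟩
    · have hk : p.1.par.1.1.k = k0 := h.outer_k hxW p hx
      rcases hs with hs | ⟨j, hs, -⟩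
      · rw [hk] at hs
        omega
      · simp only at hs
        omega
    · obtain ⟨h1, h2⟩ := hs
      exact ⟨h2, Or.inr ⟨j, h1⟩⟩
  · have h1 : κ' = (h.M.Q c.1).kc := hs
    have h2 := h.hk c.1
    rw [h1]
    exact ⟨h2.trans (Nat.le_succ _), Or.inr ⟨c.1, le_rfl⟩⟩

/-- **`TileG` for the tiles which meet `W`** -/
theorem tile (h : MIn Om W ρ₀ Qb k0 σ) {D β ρ t r : ℝ} {nc : ℕ} (hD : 0 ≤ D)
    (hTG : ∀ a i, ∃ κ', Scl h.M h.sc (0 + h.M.φ (h.cl a)) (h.adm a) i κ' ∧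
      TG (h.Ts a) i β ρ D nc κ')
    (hDk : ∀ j, D / 2 ^ (Qb j).kc ≤ t) (hD0 : D / 2 ^ k0 ≤ t) (hrt : r * t ≤ ρ / 2 ^ (k0 + 1))
    (a : R3) (i : h.ιT a) : ∃ c, (P ((h.T a).H i) ∩ W).Nonempty →
      TileG (h.T a) i (Gsm_432.H_ne (h.T a) i) c β (r * t) t nc := by
  obtain ⟨κ', h1, -, c, h3⟩ := hTG a i
  refine ⟨c, fun hi => ?_⟩
  obtain ⟨h4, h5⟩ := h.scl_le hi h1
  have hmono : ∀ {k k' : ℕ}, k ≤ k' → D / 2 ^ k' ≤ D / 2 ^ k := fun hkk =>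
    div_le_div_of_nonneg_left hD (by positivity) (pow_le_pow_right₀ (by norm_num) hkk)
  have h6 : D / 2 ^ κ' ≤ t := by
    rcases h5 with h5 | ⟨j, h5⟩
    · exact (hmono h5).trans hD0
    · exact (hmono h5).trans (hDk j)
  have h7 : TileG (h.T a) i (Gsm_432.H_ne (h.T a) i) c β (ρ / 2 ^ (k0 + 1)) t nc :=
    TileG.re h.dom (T := h.Ts a) (h3 (Gsm_432.H_ne (h.T a) i) (k0 + 1) t h4 h6)
  exact h7.diam' hrt h7.diam

/-- **the mesh family of `PreIN`** -/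
noncomputable def mfam (h : MIn Om W ρ₀ Qb k0 σ) {D β ρ t r : ℝ} {nc : ℕ} (hD : 0 ≤ D)
    (hTG : ∀ a i, ∃ κ', Scl h.M h.sc (0 + h.M.φ (h.cl a)) (h.adm a) i κ' ∧
      TG (h.Ts a) i β ρ D nc κ')
    (hDk : ∀ j, D / 2 ^ (Qb j).kc ≤ t) (hD0 : D / 2 ^ k0 ≤ t) (hrt : r * t ≤ ρ / 2 ^ (k0 + 1))
    (ht : 0 < t) (htσ : t ≤ σ / 8) (hr : 0 < r) :
    MFam Om W t (2 ^ ⌊((1 + 1) / r) ^ 3⌋₊) β r nc :=
  MFam.ofRig (T0 := h.T0) (T := h.T) (Tr := closedBall 0 t) (a₀ := 0) (d := 1)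
    (h.rig fun a ha => (mem_closedBall_zero_iff.1 ha).trans htσ)
    (fun a i => (h.tile hD hTG hDk hD0 hrt a i).choose) measurableSet_closedBall
    (by
      rw [EuclideanSpace.volume_closedBall_fin_three, ENNReal.ofReal_pow ht.le]
      refine le_mul_of_one_le_right zero_le ?_
      rw [ENNReal.one_le_ofReal]
      have := Real.pi_gt_three
      linarith)
    measure_closedBall_lt_top.ne ht hr zero_le_one
    (fun a _ i hi => (h.tile hD hTG hDk hD0 hrt a i).choose_spec hi)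
    (fun a ha => by
      rw [sub_zero, one_mul]
      exact mem_closedBall_zero_iff.1 ha)

end MIn

end Crest.Agent.R096.Ca_855
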