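import Crest.Agent.R096.Mf2_113

/-!
# Row 96 (S0127), p ≤ 2: composite A (helper855), part 7: cells and tiles of a tiling; counting

* `cc_eq_inter`: the closed cell of `x` is the intersection of the tiles through `x`.
* `card_tiles`: number of fat tiles in a ball.
-/

set_option autoImplicit false
set_option linter.unusedSectionVars false

open Set Metric MeasureTheory Filter Topology
open scoped ENNReal

namespace Crest.Agent.R096.Ca_855

open Crest.Agent.R096.Msh_715

section cells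

variable {E : Type*} [NormedAddCommGroup E] [NormedSpace ℝ E]
variable {Om : Set E} {ι : Type*} {T : Tiling Om ι}

/-- every nonempty open subset of `Om` meets an open tile -/
theorem exists_I {V : Set E} (hV : IsOpen V) {q : E} (hq : q ∈ V) (hqO : q ∈ Om) :
    ∃ k ∈ T.at_ q, (V ∩ I (T.H k)).Nonempty := by
  obtain ⟨k, hk⟩ := T.at_nonempty hqO
  obtain ⟨z, hz⟩ := T.ne k
  have hc : Tendsto (fun s : ℝ => q + s • (z - q)) (𝓝 0) (𝓝 (q + (0 : ℝ) • (z - q))) := by
    apply Continuous.tendsto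
    fun_prop
  rw [zero_smul, add_zero] at hc
  have h1 : ∀ᶠ s in 𝓝[>] (0 : ℝ), q + s • (z - q) ∈ V :=
    (hc.eventually (hV.mem_nhds hq)).filter_mono nhdsWithin_le_nhds
  have h2 : ∀ᶠ s in 𝓝[>] (0 : ℝ), s < 1 :=
    (gt_mem_nhds (zero_lt_one' ℝ)).filter_mono nhdsWithin_le_nhds
  obtain ⟨s, ⟨hs1, hs2⟩, hs0⟩ := ((h1.and h2).and self_mem_nhdsWithin).exists
  exact ⟨k, hk, _, hs1, mem_I_of_move hk hz hs0 hs2.le⟩

/-- **a point in all tiles through `x` is in the closed cell of `x`** -/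
theorem mem_cc_of_at {x y : E} (hx : x ∈ Om) (h : T.at_ x ⊆ T.at_ y) : y ∈ T.cc x := by
  intro i hi g hg
  have hyi : g.1 y ≤ g.2 := h hi g hg
  refine ⟨hyi, fun hgx => ?_⟩
  by_contra hne
  have hlt : g.1 y < g.2 := lt_of_le_of_ne hyi hne
  obtain ⟨z, hz⟩ := T.ne i
  set d := y - x with hd
  have hgd : g.1 d < 0 := by rw [hd, map_sub]; linarith
  -- choice of `λ`
  obtain ⟨l, hl0, hl⟩ : ∃ l : ℝ, 0 < l ∧ 0 < g.1 (z - x) - l * g.1 d := by
    refine ⟨(|g.1 (z - x)| + 1) / (-g.1 d), div_pos (by positivity) (by linarith), ?_⟩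
    have e1 : (|g.1 (z - x)| + 1) / (-g.1 d) * g.1 d = -(|g.1 (z - x)| + 1) := by
      rw [div_mul_eq_mul_div, div_neg, mul_div_assoc, div_self hgd.ne, mul_one]
    rw [e1]
    have := neg_abs_le (g.1 (z - x))
    linarith
  obtain ⟨r, hr, hrO, hb⟩ := T.exists_ball hx
  -- the open set of targets
  set w := (z - x) - l • d with hw
  have hc : Tendsto (fun s : ℝ => x + s • w) (𝓝 0) (𝓝 (x + (0 : ℝ) • w)) := by
    apply Continuous.tendsto
    fun_prop
  rw [zero_smul, add_zero] at hc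
  have h1 : ∀ᶠ s in 𝓝[>] (0 : ℝ), x + s • w ∈ ball x r :=
    (hc.eventually (ball_mem_nhds x hr)).filter_mono nhdsWithin_le_nhds
  have h2 : ∀ᶠ s in 𝓝[>] (0 : ℝ), s < 1 :=
    (gt_mem_nhds (zero_lt_one' ℝ)).filter_mono nhdsWithin_le_nhds
  obtain ⟨μ, ⟨hμ1, hμ2⟩, hμ0⟩ := ((h1.and h2).and self_mem_nhdsWithin).exists
  have hμ0 : (0 : ℝ) < μ := hμ0
  set F : E → E := fun q => x + μ⁻¹ • (q - x) + l • d with hF
  have hFc : Continuous F := by fun_prop
  have hFx : F (x + μ • w) = z := by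
    simp only [hF, add_sub_cancel_left, smul_smul, inv_mul_cancel₀ hμ0.ne', one_smul, hw]
    abel
  set V : Set E := ball x r ∩ F ⁻¹' I (T.H i) ∩ {q | g.2 < g.1 q} with hV
  have hVo : IsOpen V := (isOpen_ball.inter ((isOpen_I _).preimage hFc)).inter
    (isOpen_lt continuous_const g.1.continuous)
  have hqV : x + μ • w ∈ V := by
    refine ⟨⟨hμ1, ?_⟩, ?_⟩
    · show F (x + μ • w) ∈ I (T.H i)
      rw [hFx]; exact hz
    · show g.2 < g.1 (x + μ • w)
      have e1 : g.1 (x + μ • w) = g.1 x + μ * (g.1 (z - x) - l * g.1 d) := by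
        simp only [hw, map_add, map_smul, map_sub, smul_eq_mul]
      rw [e1, hgx]
      have := mul_pos hμ0 hl
      linarith
  obtain ⟨k, hk, q, ⟨⟨hq1, hq2⟩, hq3⟩, hqk⟩ := exists_I (T := T) hVo hqV (hrO hμ1)
  have hkx : k ∈ T.at_ x := hb _ hμ1 hk
  have hki : k ≠ i := by
    rintro rfl
    have h3 := hqk g hg
    have h4 : g.2 < g.1 q := hq3
    linarith
  -- the common point
  have hyk : y ∈ P (T.H k) := h hkx
  set t : ℝ := (1 + μ * l)⁻¹ with ht
  have hml : 0 < μ * l := mul_pos hμ0 hl0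
  have ht0 : 0 < t := inv_pos.2 (by linarith)
  have ht1 : t * (1 + μ * l) = 1 := inv_mul_cancel₀ (by linarith)
  have htlt : t < 1 := by
    rw [ht]; exact inv_lt_one_of_one_lt₀ (by linarith)
  have hz' : F q ∈ I (T.H i) := hq2
  set p := x + (t * μ) • (F q - x) with hp
  have hpi : p ∈ I (T.H i) := mem_I_of_move hi hz' (mul_pos ht0 hμ0) (by nlinarith)
  have hpk : p ∈ I (T.H k) := by
    have e1 : p = y + t • (q - y) := by
      have e2 : (t * μ) • (F q - x) = t • (q - x) + (t * (μ * l)) • d := by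
        simp only [hF]
        rw [show x + μ⁻¹ • (q - x) + l • d - x = μ⁻¹ • (q - x) + l • d by abel, smul_add,
          smul_smul, smul_smul, mul_assoc t μ μ⁻¹, mul_inv_cancel₀ hμ0.ne', mul_one,
          mul_assoc]
      have e3 : t * (μ * l) = 1 - t := by linarith
      rw [hp, e2, e3, hd]
      module
    rw [e1]
    exact mem_I_of_move hyk hqk ht0 htlt.le
  exact Set.disjoint_left.1 (T.dis k i hki) hpk hpi

/-- **the closed cell is the intersection of the tiles through the point** -/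
theorem mem_cc_iff_at {x y : E} (hx : x ∈ Om) : y ∈ T.cc x ↔ T.at_ x ⊆ T.at_ y :=
  ⟨T.at_sub_of_mem_cc, mem_cc_of_at hx⟩

theorem cc_eq_of_at_eq {x y : E} (hx : x ∈ Om) (hy : y ∈ Om) (h : T.at_ x = T.at_ y) :
    T.cc x = T.cc y := by
  ext w
  rw [mem_cc_iff_at hx, mem_cc_iff_at hy, h]

/-- a cell is determined by the tiles through it -/
theorem cell_inj {c c' : T.Cell} (h : T.at_ c.pt = T.at_ c'.pt) : c = c' :=
  Tiling.Cell.ext (by rw [c.set_eq, c'.set_eq, cc_eq_of_at_eq c.pt_mem c'.pt_mem h])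

end cells

section count

variable {E : Type*} [NormedAddCommGroup E] [NormedSpace ℝ E] [FiniteDimensional ℝ E]
  [MeasurableSpace E] [BorelSpace E]
variable {Om : Set E} {ι : Type*} {T : Tiling Om ι}

/-- **number of fat tiles in a ball** -/
theorem card_tiles (μ : Measure E) [μ.IsAddHaarMeasure] {S : Set ι} {ρ R : ℝ} {z : E}
    (hρ : 0 < ρ) (hR : 0 ≤ R) (hb : ∀ i ∈ S, ∃ c, closedBall c ρ ⊆ P (T.H i))
    (hin : ∀ i ∈ S, P (T.H i) ⊆ closedBall z R) :
    S.Finite ∧ (S.ncard : ℝ) ≤ (R / ρ) ^ Module.finrank ℝ E := by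
  classical
  choose! c hc using hb
  have hdis : ∀ i ∈ S, ∀ j ∈ S, i ≠ j → Disjoint (ball (c i) ρ) (ball (c j) ρ) := by
    intro i hi j hj hij
    rw [Set.disjoint_left]
    intro w hw hw'
    have hwO : w ∈ Om := T.sub i (hc i hi (ball_subset_closedBall hw))
    -- a point of an open tile near `w`
    obtain ⟨z1, hz1⟩ := T.ne i
    have hct : Tendsto (fun s : ℝ => w + s • (z1 - w)) (𝓝 0) (𝓝 (w + (0 : ℝ) • (z1 - w))) := by
      apply Continuous.tendsto
      fun_prop
    rw [zero_smul, add_zero] at hct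
    have h1 : ∀ᶠ s in 𝓝[>] (0 : ℝ), w + s • (z1 - w) ∈ ball (c j) ρ :=
      (hct.eventually (isOpen_ball.mem_nhds hw')).filter_mono nhdsWithin_le_nhds
    have h2 : ∀ᶠ s in 𝓝[>] (0 : ℝ), s < 1 :=
      (gt_mem_nhds (zero_lt_one' ℝ)).filter_mono nhdsWithin_le_nhds
    obtain ⟨s, ⟨hs1, hs2⟩, hs0⟩ := ((h1.and h2).and self_mem_nhdsWithin).exists
    have h3 : w + s • (z1 - w) ∈ I (T.H i) :=
      mem_I_of_move (hc i hi (ball_subset_closedBall hw)) hz1 hs0 hs2.le
    exact Set.disjoint_left.1 (disjoint_P_I (T.ne j) (T.dis j i hij.symm))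
      (hc j hj (ball_subset_closedBall hs1)) h3
  -- every finite subset is small
  have key : ∀ s : Finset ι, (↑s ⊆ S) → (s.card : ℝ) ≤ (R / ρ) ^ Module.finrank ℝ E := by
    intro s hs
    rcases s.eq_empty_or_nonempty with h0 | ⟨i0, hi0⟩
    · rw [h0]; simp; positivity
    have h1 : μ (⋃ i ∈ s, ball (c i) ρ) = ∑ i ∈ s, μ (ball (c i) ρ) :=
      measure_biUnion_finset (fun i hi j hj hij => hdis i (hs hi) j (hs hj) hij)
        fun i _ => measurableSet_ball
    have h2 : (⋃ i ∈ s, ball (c i) ρ) ⊆ closedBall z R :=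
      iUnion₂_subset fun i hi => (ball_subset_closedBall.trans (hc i (hs hi))).trans
        (hin i (hs hi))
    have h3 := measure_mono (μ := μ) h2
    rw [h1] at h3
    have h4 : ∀ i ∈ s, μ (ball (c i) ρ) =
        ENNReal.ofReal (ρ ^ Module.finrank ℝ E) * μ (ball 0 1) :=
      fun i _ => Measure.addHaar_ball_of_pos μ _ hρ
    rw [Finset.sum_congr rfl h4, Finset.sum_const, nsmul_eq_mul,
      Measure.addHaar_closedBall μ z hR] at h3
    have hb0 : μ (ball (0:E) 1) ≠ 0 := (measure_ball_pos μ _ one_pos).ne'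
    have hb1 : μ (ball (0:E) 1) ≠ ∞ := measure_ball_lt_top.ne
    rw [← mul_assoc, ENNReal.mul_le_mul_iff_left hb0 hb1, ← ENNReal.ofReal_natCast,
      ← ENNReal.ofReal_mul (Nat.cast_nonneg _),
      ENNReal.ofReal_le_ofReal_iff (by positivity)] at h3
    rw [div_pow, le_div_iff₀ (by positivity)]
    exact h3
  have hfin : S.Finite := by
    by_contra hinf
    obtain ⟨s, hs, hcard⟩ := (Set.not_finite.1 hinf).exists_subset_card_eq
      (⌊(R / ρ) ^ Module.finrank ℝ E⌋₊ + 1)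
    have h1 := key s hs
    rw [hcard] at h1
    have h2 := Nat.lt_floor_add_one ((R / ρ) ^ Module.finrank ℝ E)
    push_cast at h1
    linarith
  refine ⟨hfin, ?_⟩
  rw [Set.ncard_eq_toFinset_card S hfin]
  exact key _ (by simp)

end count

end Crest.Agent.R096.Ca_855
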