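import Crest.Agent.R096.Gsm2_432
import Crest.Agent.R096.Sk2a_855

/-!
# Row 96, GAPSIM (helper432), part 3: uniform constants for a finite list of pairs
-/

set_option autoImplicit false
set_option linter.unusedSectionVars false

open Set Metric Topology Filter

namespace Crest.Agent.R096.Gsm_432

open Crest.Agent.R096.Msh_715 Crest.Agent.R096.Msh_715.Tiling Crest.Agent.R096.Tgr_335

universe u v w

variable {F : Type w} [NormedAddCommGroup F] [NormedSpace ℝ F] [FiniteDimensional ℝ F]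

theorem exists_lb {α : Type*} {S : Set α} (hS : S.Finite) {b : α → ℝ} (hb : ∀ a, 0 < b a) :
    ∃ β > 0, ∀ a ∈ S, β ≤ b a := by
  rcases S.eq_empty_or_nonempty with rfl | hne
  · exact ⟨1, one_pos, fun a ha => absurd ha (notMem_empty a)⟩
  · obtain ⟨a, -, h⟩ := exists_min_image S b hS hne
    exact ⟨b a, hb a, h⟩

/-- a point of the interior -/
noncomputable def cK (K : Set F) : F := by
  classical
  exact if h : (interior K).Nonempty then h.some else 0

theorem cK_mem {K : Set F} (h : (interior K).Nonempty) : cK K ∈ interior K := by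
  unfold cK
  rw [dif_pos h]
  exact h.some_mem

variable (E : Type u) [NormedAddCommGroup E] [NormedSpace ℝ E] [FiniteDimensional ℝ E]

/-- **GAPSIM**: the constants are uniform for all the tiles whose pair (tile, truncated tiles which
touch it), read in an affine frame, belongs to a finite list -/
theorem gapsim (W : Set F) {𝒮 : Set (Set F × Set (Set F))} (h𝒮 : 𝒮.Finite) :
    ∃ β > 0, ∃ ρ > 0, ∃ D, ∃ nc : ℕ, ∀ {Om : Set E} {ι : Type v} (T : Tiling Om ι) (i : ι)
      (B : E ≃ᵃ[ℝ] F), B '' P (T.H i) ⊆ interior W → (B '' P (T.H i), stT T i B W) ∈ 𝒮 →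
      GapT T i B (B.symm (cK (B '' P (T.H i)))) β ρ D nc := by
  have key : ∀ p : Set F × Set (Set F), ∃ β > 0, ∃ ρ > 0, ∃ D, ∃ nc : ℕ,
      ∀ {Om : Set E} {ι : Type v} (T : Tiling Om ι) (i : ι) (B : E ≃ᵃ[ℝ] F),
      B '' P (T.H i) ⊆ interior W → (B '' P (T.H i), stT T i B W) = p →
      GP W p.1 p.2 (cK p.1) β ρ D nc := by
    intro p
    by_cases hr : ∃ (Om : Set E) (ι : Type v) (T : Tiling Om ι) (i : ι) (B : E ≃ᵃ[ℝ] F),
        B '' P (T.H i) ⊆ interior W ∧ (B '' P (T.H i), stT T i B W) = p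
    · obtain ⟨Om, ι, T, i, B, h1, rfl⟩ := hr
      have hc : cK (B '' P (T.H i)) ∈ interior (B '' P (T.H i)) := by
        refine cK_mem ?_
        rw [← image_interior_aff, I_eq_interior]
        exact (T.ne i).image _
      obtain ⟨β, hβ, ρ, hρ, D, nc, h⟩ := exists_GP h1 hc
      exact ⟨β, hβ, ρ, hρ, D, nc, fun _ _ _ _ _ => h⟩
    · exact ⟨1, one_pos, 1, one_pos, 0, 0, fun T i B h1 h2 => absurd ⟨_, _, T, i, B, h1, h2⟩ hr⟩
  choose β hβ ρ hρ D nc h using key
  obtain ⟨β0, hβ0, h1⟩ := exists_lb h𝒮 hβ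
  obtain ⟨ρ0, hρ0, h2⟩ := exists_lb h𝒮 hρ
  obtain ⟨D0, h3⟩ := (h𝒮.image D).bddAbove
  obtain ⟨n0, h4⟩ := (h𝒮.image nc).bddAbove
  refine ⟨β0, hβ0, ρ0, hρ0, D0, n0, fun T i B hW hp => ?_⟩
  exact ((h _ T i B hW rfl).mono hβ0.le (h1 _ hp) (h2 _ hp) (h3 (mem_image_of_mem _ hp))
    (h4 (mem_image_of_mem _ hp))).gapT hβ0

variable {E}

/-! ### consequences -/

section use

open Crest.Agent.R096.Sk2_855

variable {Om : Set E} {ι : Type v} {T : Tiling Om ι} {i : ι} {B : E ≃ᵃ[ℝ] F} {c : E}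
  {β ρ D : ℝ} {nc : ℕ}

/-- a point of the 1-skeleton outside the tile which is not in an open crossing edge -/
theorem disjoint_of_sk1 {x : E} (hx : x ∈ sk1 T) (h1 : x ∉ P (T.H i)) (h2 : ¬ Crs T i x) :
    Disjoint (T.cc x) (P (T.H i)) := by
  rw [disjoint_iff_inter_eq_empty, ← not_nonempty_iff_eq_empty]
  intro hne
  have hd : T.dim x ≤ 1 := hx.2
  rcases hd.lt_or_eq with h | h
  · have h0 : T.dim x = 0 := by omega
    have h3 := T.cc_eq_singleton (T.dim_eq_zero_iff.1 h0)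
    obtain ⟨y, hy1, hy2⟩ := hne
    rw [h3, mem_singleton_iff] at hy1
    exact h1 (hy1 ▸ hy2)
  · exact h2 ⟨hx.1, h, h1, hne⟩

/-- **the gap for the 1-skeleton** -/
theorem GapT.gap1 (h : GapT T i B c β ρ D nc) {x : E} (hx : x ∈ sk1 T) (h1 : x ∉ P (T.H i))
    (h2 : ¬ Crs T i x) : x ∉ hom c (1 + 4 * β) (P (T.H i)) :=
  h.gap x hx.1 (disjoint_of_sk1 hx h1 h2)

theorem GapT.mono (h : GapT T i B c β ρ D nc) {β' ρ' D' : ℝ} {nc' : ℕ} (hβ0 : 0 ≤ β')
    (hβ : β' ≤ β) (hρ : ρ' ≤ ρ) (hD : D ≤ D') (hn : nc ≤ nc') : GapT T i B c β' ρ' D' nc' := by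
  have hh : hom c (1 + 4 * β') (P (T.H i)) ⊆ hom c (1 + 4 * β) (P (T.H i)) :=
    hom_mono (convex_P _) (I_sub_P _ h.mem) (by linarith) (by linarith)
  exact ⟨h.mem, (closedBall_subset_closedBall hρ).trans h.ball,
    h.bdd.trans (closedBall_subset_closedBall hD), fun x hx hd hc => h.gap x hx hd (hh hc),
    hh.trans h.sub, h.edges.trans hn, h.nbr.trans hn⟩

/-- the functionals of the tile are bounded in the frame -/
theorem GapT.lin (h : GapT T i B c β ρ D nc) (hρ : 0 < ρ) {g : (E →L[ℝ] ℝ) × ℝ} (hg : g ∈ T.H i)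
    (x : E) : ρ * |g.1 x| ≤ (g.2 - g.1 c) * ‖B.linear x‖ := by
  have hgc : 0 < g.2 - g.1 c := sub_pos.2 (h.mem g hg)
  by_cases h0 : B.linear x = 0
  · have : x = 0 := by
      have := B.linear.map_eq_zero_iff.1 h0
      exact this
    rw [this]
    simp
  have hn : 0 < ‖B.linear x‖ := norm_pos_iff.2 h0
  have key : ∀ a : ℝ, |a| = ρ / ‖B.linear x‖ → a * g.1 x ≤ g.2 - g.1 c := by
    intro a ha
    have e : B (c + a • x) = B c + a • B.linear x := by
      have h2 := B.toAffineMap.map_vadd c (a • x)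
      simp only [AffineEquiv.coe_toAffineMap, vadd_eq_add, map_smul,
        AffineEquiv.linear_toAffineMap, LinearEquiv.coe_coe] at h2
      rw [add_comm c, h2, add_comm]
    have h1 : B (c + a • x) ∈ closedBall (B c) ρ := by
      rw [e, mem_closedBall, dist_eq_norm, add_sub_cancel_left, norm_smul, Real.norm_eq_abs, ha,
        div_mul_cancel₀ _ hn.ne']
    have h2 := (B.injective.mem_set_image).1 (h.ball h1) g hg
    rw [map_add, map_smul, smul_eq_mul] at h2
    linarith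
  have h1 := key (ρ / ‖B.linear x‖) (abs_of_pos (by positivity))
  have h2 := key (-(ρ / ‖B.linear x‖)) (by rw [abs_neg, abs_of_pos (by positivity)])
  have h3 : ρ / ‖B.linear x‖ * |g.1 x| ≤ g.2 - g.1 c := by
    rcases abs_cases (g.1 x) with ⟨e, -⟩ | ⟨e, -⟩
    · rw [e]; exact h1
    · rw [e]; linarith
  rw [div_mul_eq_mul_div, div_le_iff₀ hn] at h3
  exact h3

/-- the tiles have at least one inequality -/
theorem H_ne [Nontrivial E] (T : Tiling Om ι) (i : ι) : (T.H i).Nonempty := by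
  rw [Finset.nonempty_iff_ne_empty]
  intro h0
  have h1 : P (T.H i) = univ := by
    rw [h0]
    ext x
    simp [P]
  have h2 := T.cpt i
  rw [h1] at h2
  have h3 : CompactSpace E := isCompact_univ_iff.1 h2
  exact not_compactSpace_iff.2 (NormedSpace.noncompactSpace ℝ E) h3

end use

end Crest.Agent.R096.Gsm_432
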