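import Crest.Agent.R096.Ca5_855
import Crest.Agent.R096.Ca7_855
import Crest.Agent.R096.Gsm3_432

/-!
# Row 96 (S0127), p ≤ 2: composite A (helper855), part 8: mesh families from rigid tilings
-/

set_option autoImplicit false
set_option linter.unusedSectionVars false

open Set Metric MeasureTheory Filter
open scoped ENNReal Topology

namespace Crest.Agent.R096.Ca_855

open Crest.AnalysisR.VecCalc3 Crest.AnalysisR.Sobolev
open Crest.Agent.R096.Msh_715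
open Crest.Agent.R096.Sk2_855 (sk1)
open Crest.Agent.R096.Mf_113 (Rig CK)
open Crest.Agent.R96.Intr_538 (cel par)
open Crest.Agent.R96.Coarse_538
open Crest.Agent.R96.Gdt_538 (MeshG seg_eq_segment)

/-- **a mesh family**: `T a` is the mesh at the position `a ∈ Tr`; near `W` it is rigid and its tiles
have size at most `t`, inradius at least `r t`, gap `β`, at most `nc` neighbours -/
structure MFam (Om W : Set R3) (t n β r : ℝ) (nc : ℕ) where
  κi : Type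
  cnt : Countable κi
  x : κi → R3
  v : κi → R3
  Tr : Set R3
  meas : MeasurableSet Tr
  vol : ENNReal.ofReal (t ^ 3) ≤ volume Tr
  fin : volume Tr ≠ ∞
  vle : ∀ e, ‖v e‖ ≤ t
  vne : ∀ e, v e ≠ 0
  dens : Dens Tr (ENNReal.ofReal n) x v
  ι : R3 → Type
  T : ∀ a, Tiling Om (ι a)
  mesh : ∀ a ∈ Tr, MeshG (T a) x v a W
  c : ∀ a, ι a → R3
  tile : ∀ a ∈ Tr, ∀ i, (P ((T a).H i) ∩ W).Nonempty →
    TileG (T a) i (Gsm_432.H_ne (T a) i) (c a i) β (r * t) t nc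

section rig

variable {Om Om0 W Tr : Set R3} {ι0 : Type} {ι : R3 → Type} {T0 : Tiling Om0 ι0}
  {T : ∀ a, Tiling Om (ι a)} {t β r d : ℝ} {nc : ℕ}

/-- the edges of the model which are seen near `W` -/
def KE (T0 : Tiling Om0 ι0) (Tr W : Set R3) : Type :=
  {e : CK T0 1 // ∃ a ∈ Tr, ((a + ·) '' e.1.set ∩ W).Nonempty}

instance : Countable (KE T0 Tr W) := by
  unfold KE
  infer_instance

/-- the initial point of an edge of the model -/
noncomputable def kx (h : Rig T0 T Tr W) (e : CK T0 1) : R3 := h.edges.choose e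

/-- the vector of an edge of the model -/
noncomputable def kv (h : Rig T0 T Tr W) (e : CK T0 1) : R3 := h.edges.choose_spec.choose e

theorem kv_ne (h : Rig T0 T Tr W) (e : CK T0 1) : kv h e ≠ 0 :=
  h.edges.choose_spec.choose_spec.1 e

theorem kv_diam (h : Rig T0 T Tr W) (e : CK T0 1) : ‖kv h e‖ = diam e.1.set :=
  h.edges.choose_spec.choose_spec.2.1 e

theorem k_set (h : Rig T0 T Tr W) (e : CK T0 1) :
    e.1.set = segment ℝ (kx h e) (kx h e + kv h e) :=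
  h.edges.choose_spec.choose_spec.2.2.1 e

theorem k_cell (h : Rig T0 T Tr W) {a : R3} (ha : a ∈ Tr) {y : R3} (hy : y ∈ Om)
    (hd : (T a).dim y = 1) (hW : ((T a).cc y ∩ W).Nonempty) :
    ∃ e, (T a).cc y = segment ℝ (a + kx h e) (a + kx h e + kv h e) :=
  (h.edges.choose_spec.choose_spec.2.2.2 a ha).1 y hy hd hW

theorem k_edge (h : Rig T0 T Tr W) {a : R3} (ha : a ∈ Tr) {y : R3} (hy : y ∈ sk1 (T a))
    (hW : y ∈ W) : ∃ e, segment ℝ (a + kx h e) (a + kx h e + kv h e) ⊆ sk1 (T a) ∧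
      y ∈ segment ℝ (a + kx h e) (a + kx h e + kv h e) :=
  (h.edges.choose_spec.choose_spec.2.2.2 a ha).2 y hy hW

theorem k_image (h : Rig T0 T Tr W) (a : R3) (e : CK T0 1) :
    (a + ·) '' e.1.set = segment ℝ (a + kx h e) (a + kx h e + kv h e) := by
  rw [k_set h e, segment_translate_image, add_assoc]

/-- a tile of the model seen near `W` is the translate of a tile of the family -/
theorem good_tile (h : Rig T0 T Tr W) {i : ι0} {a : R3} (ha : a ∈ Tr)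
    (hi : ((a + ·) '' P (T0.H i) ∩ W).Nonempty) :
    ∃ j, (a + ·) '' P (T0.H i) = P ((T a).H j) ∧ (P ((T a).H j) ∩ W).Nonempty := by
  obtain ⟨p, ⟨q, hq, rfl⟩, hpW⟩ := hi
  simp only at hpW
  obtain ⟨h1, h2, h3⟩ := h a ha _ hpW
  have h4 : i ∈ T0.at_ (a + q - a) := by
    show a + q - a ∈ P (T0.H i)
    rwa [add_sub_cancel_left]
  have h5 : (a + ·) '' P (T0.H i) ∈ (fun j => P ((T a).H j)) '' (T a).at_ (a + q) := by
    rw [h3]; exact ⟨i, h4, rfl⟩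
  obtain ⟨j, hj, e⟩ := h5
  exact ⟨j, e.symm, a + q, hj, hpW⟩

/-- size of a tile of the model -/
theorem tile0 (h : Rig T0 T Tr W) {c : ∀ a, ι a → R3}
    (ht : ∀ a ∈ Tr, ∀ i, (P ((T a).H i) ∩ W).Nonempty →
      TileG (T a) i (Gsm_432.H_ne (T a) i) (c a i) β (r * t) t nc)
    {i : ι0} (hi : ∃ a ∈ Tr, ((a + ·) '' P (T0.H i) ∩ W).Nonempty) :
    (∃ c, closedBall c (r * t) ⊆ P (T0.H i)) ∧
      ∀ y ∈ P (T0.H i), ∀ y' ∈ P (T0.H i), ‖y - y'‖ ≤ t := by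
  obtain ⟨a, ha, hi⟩ := hi
  obtain ⟨j, hj, hjW⟩ := good_tile h ha hi
  have h1 := ht a ha j hjW
  constructor
  · refine ⟨c a j - a, fun y hy => ?_⟩
    have h2 : a + y ∈ closedBall (c a j) (r * t) := by
      rw [mem_closedBall, dist_eq_norm] at hy ⊢
      rwa [show a + y - c a j = y - (c a j - a) by abel]
    have h3 := h1.ball h2
    rw [← hj] at h3
    obtain ⟨q, hq, e⟩ := h3
    rwa [← add_left_cancel e]
  · intro y hy y' hy'
    have h2 : a + y ∈ P ((T a).H j) := by rw [← hj]; exact ⟨y, hy, rfl⟩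
    have h3 : a + y' ∈ P ((T a).H j) := by rw [← hj]; exact ⟨y', hy', rfl⟩
    have h4 := h1.diam _ h2 _ h3
    rwa [add_sub_add_left_eq_sub] at h4

/-- number of the tiles of the model which meet `y - Tr` -/
theorem card_near (h : Rig T0 T Tr W) {c : ∀ a, ι a → R3} (ht0 : 0 < t) (hr : 0 < r)
    (hd0 : 0 ≤ d)
    (ht : ∀ a ∈ Tr, ∀ i, (P ((T a).H i) ∩ W).Nonempty →
      TileG (T a) i (Gsm_432.H_ne (T a) i) (c a i) β (r * t) t nc)
    {a₀ : R3} (hd : ∀ a ∈ Tr, ‖a - a₀‖ ≤ d * t) (y : R3) :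
    {i : ι0 | (∃ a ∈ Tr, ((a + ·) '' P (T0.H i) ∩ W).Nonempty) ∧
      ∃ a ∈ Tr, y - a ∈ P (T0.H i)}.Finite ∧
    {i : ι0 | (∃ a ∈ Tr, ((a + ·) '' P (T0.H i) ∩ W).Nonempty) ∧
      ∃ a ∈ Tr, y - a ∈ P (T0.H i)}.ncard ≤ ⌊((d + 1) / r) ^ 3⌋₊ := by
  have h1 := card_tiles (T := T0) (volume : Measure R3)
    (S := {i : ι0 | (∃ a ∈ Tr, ((a + ·) '' P (T0.H i) ∩ W).Nonempty) ∧
      ∃ a ∈ Tr, y - a ∈ P (T0.H i)}) (ρ := r * t) (R := d * t + t) (z := y - a₀)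
    (mul_pos hr ht0) (by positivity) (fun i hi => (tile0 h ht hi.1).1) ?_
  · refine ⟨h1.1, Nat.le_floor ?_⟩
    have h2 := h1.2
    rw [finrank_euclideanSpace_fin] at h2
    have e1 : (d * t + t) / (r * t) = (d + 1) / r := by
      field_simp
    rwa [e1] at h2
  · rintro i ⟨hi1, a, ha, hi2⟩ w hw
    rw [mem_closedBall, dist_eq_norm]
    have h2 := (tile0 h ht hi1).2 w hw _ hi2
    have e1 : w - (y - a₀) = (w - (y - a)) - (a - a₀) := by abel
    rw [e1]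
    exact (norm_sub_le _ _).trans (by linarith [hd a ha])

/-- **density of the edges** -/
theorem dens_rig (h : Rig T0 T Tr W) {c : ∀ a, ι a → R3} (hTr : MeasurableSet Tr) (ht0 : 0 < t)
    (hr : 0 < r) (hd0 : 0 ≤ d)
    (ht : ∀ a ∈ Tr, ∀ i, (P ((T a).H i) ∩ W).Nonempty →
      TileG (T a) i (Gsm_432.H_ne (T a) i) (c a i) β (r * t) t nc)
    {a₀ : R3} (hd : ∀ a ∈ Tr, ‖a - a₀‖ ≤ d * t) :
    Dens Tr (ENNReal.ofReal (2 ^ ⌊((d + 1) / r) ^ 3⌋₊)) (fun e : KE T0 Tr W => kx h e.1)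
      (fun e => kv h e.1) := by
  have e0 : ENNReal.ofReal (2 ^ ⌊((d + 1) / r) ^ 3⌋₊) =
      ((2 ^ ⌊((d + 1) / r) ^ 3⌋₊ : ℕ) : ℝ≥0∞) := by
    rw [← ENNReal.ofReal_natCast]
    push_cast
    rfl
  rw [e0]
  have : Countable (KE T0 Tr W) := inferInstance
  refine dens_of hTr fun y => ?_
  set S := {i : ι0 | (∃ a ∈ Tr, ((a + ·) '' P (T0.H i) ∩ W).Nonempty) ∧
      ∃ a ∈ Tr, y - a ∈ P (T0.H i)} with hS
  obtain ⟨hfin, hcard⟩ := card_near h ht0 hr hd0 ht hd y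
  have hpow : (𝒫 S).encard ≤ ((2 ^ ⌊((d + 1) / r) ^ 3⌋₊ : ℕ) : ℕ∞) := by
    have h1 : (𝒫 S).Finite := hfin.finite_subsets
    rw [← h1.cast_ncard_eq, Set.ncard_powerset S hfin]
    exact_mod_cast Nat.pow_le_pow_right (by norm_num) hcard
  refine le_trans ?_ hpow
  refine encard_le_encard_of_injOn (f := fun e : KE T0 Tr W => T0.at_ e.1.1.pt) ?_ ?_
  · rintro e ⟨σ, hσ, hσT⟩ i hi
    have hsub : e.1.1.set ⊆ P (T0.H i) := by
      rw [e.1.1.set_eq]; exact T0.cc_sub_tile hi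
    refine ⟨?_, _, hσT, ?_⟩
    · obtain ⟨a, ha, w, hw, hwW⟩ := e.2
      exact ⟨a, ha, w, image_mono hsub hw, hwW⟩
    · rw [sub_sub_cancel]
      apply hsub
      rw [k_set h e.1, segment_eq_image']
      exact ⟨σ, hσ, by simp⟩
  · intro e _ e' _ hee
    exact Subtype.ext (Subtype.ext (cell_inj hee))

/-- **the mesh family of a rigid family of tilings** -/
noncomputable def MFam.ofRig (h : Rig T0 T Tr W) (c : ∀ a, ι a → R3) (hTr : MeasurableSet Tr)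
    (hvol : ENNReal.ofReal (t ^ 3) ≤ volume Tr) (hfin : volume Tr ≠ ∞) (ht0 : 0 < t)
    (hr : 0 < r) (hd0 : 0 ≤ d)
    (ht : ∀ a ∈ Tr, ∀ i, (P ((T a).H i) ∩ W).Nonempty →
      TileG (T a) i (Gsm_432.H_ne (T a) i) (c a i) β (r * t) t nc)
    {a₀ : R3} (hd : ∀ a ∈ Tr, ‖a - a₀‖ ≤ d * t) :
    MFam Om W t (2 ^ ⌊((d + 1) / r) ^ 3⌋₊) β r nc where
  κi := KE T0 Tr W
  cnt := inferInstance
  x e := kx h e.1
  v e := kv h e.1
  Tr := Tr
  meas := hTr
  vol := hvol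
  fin := hfin
  vle e := by
    obtain ⟨a, ha, w, ⟨w0, hw0, hww⟩, hwW⟩ := e.2
    obtain ⟨i, hi⟩ := T0.at_nonempty e.1.1.pt_mem
    have hsub : e.1.1.set ⊆ P (T0.H i) := by
      rw [e.1.1.set_eq]; exact T0.cc_sub_tile hi
    have h1 := (tile0 h ht ⟨a, ha, w, ⟨w0, hsub hw0, hww⟩, hwW⟩).2
    rw [kv_diam]
    exact diam_le_of_forall_dist_le ht0.le fun p hp q hq => by
      rw [dist_eq_norm]; exact h1 p (hsub hp) q (hsub hq)
  vne e := kv_ne h e.1
  dens := dens_rig h hTr ht0 hr hd0 ht hd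
  ι := ι
  T := T
  mesh a ha := by
    constructor
    · intro y hy hyW
      obtain ⟨e, h1, h2⟩ := k_edge h ha hy hyW
      have h3 : ((a + ·) '' e.1.set ∩ W).Nonempty := ⟨y, by rw [k_image h a e]; exact h2, hyW⟩
      refine ⟨⟨e, a, ha, h3⟩, ?_⟩
      rw [seg_eq_segment]
      exact ⟨h1, h2⟩
    · intro y hy hd1 hyW
      obtain ⟨e, h1⟩ := k_cell h ha hy hd1 ⟨y, (T a).self_mem_cc y, hyW ((T a).self_mem_cc y)⟩
      have h3 : ((a + ·) '' e.1.set ∩ W).Nonempty :=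
        ⟨y, by rw [k_image h a e, ← h1]; exact (T a).self_mem_cc y, hyW ((T a).self_mem_cc y)⟩
      refine ⟨⟨e, a, ha, h3⟩, ?_⟩
      rw [seg_eq_segment]
      exact h1
  c := c
  tile := ht

end rig

end Crest.Agent.R096.Ca_855
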