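/-
helper793, row 96, leaf P2-FACE, part 1: energy of a map on the edges of the dyadic grids of a
translated plane face, averaged over the translations.
-/
import Mathlib
import Crest.Agent.R96.Sob4_199

set_option autoImplicit false
set_option linter.unusedSectionVars false

open MeasureTheory Set Filter
open scoped ENNReal Topology

namespace Crest.Agent.R096.Fce_793

open Crest.Agent.R96.Acl_392 Crest.Agent.R96.Sob4_199

noncomputable section

variable {E : Type*} [NormedAddCommGroup E] [NormedSpace ℝ E] [FiniteDimensional ℝ E]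
  [MeasurableSpace E] [BorelSpace E] {μ : Measure E} [μ.IsAddHaarMeasure]

/-- the point with coordinates `w` in the plane through `a` spanned by `e 0, e 1` -/
def pt (e : Fin 2 → E) (a : E) (w : ℝ × ℝ) : E := a + (w.1 • e 0 + w.2 • e 1)

/-- mesh of the grid of level `n` -/
def hh (n : ℕ) : ℝ := (2 ^ n : ℝ)⁻¹

theorem hh_pos (n : ℕ) : 0 < hh n := by unfold hh; positivity

/-- index of the squares of level `n` -/
abbrev Ix (n : ℕ) : Type := Fin (2 ^ n) × Fin (2 ^ n)

/-- lower left corner -/
def cor (n : ℕ) (m : Ix n) : ℝ × ℝ := ((m.1 : ℕ) * hh n, (m.2 : ℕ) * hh n)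

/-- closed grid square -/
def sq (n : ℕ) (m : Ix n) : Set (ℝ × ℝ) :=
  Icc (cor n m).1 ((cor n m).1 + hh n) ×ˢ Icc (cor n m).2 ((cor n m).2 + hh n)

/-- the first end points of the four edges: `(k, i)`: edge in direction `i`, `k` = shift in the
other direction -/
def st (n : ℕ) (m : Ix n) (k : Fin 2) (i : Fin 2) : ℝ × ℝ :=
  cor n m + (if k = 0 then (0, 0) else if i = 0 then (0, hh n) else (hh n, 0))

/-- the unit vectors of the parameter plane -/
def bs (i : Fin 2) : ℝ × ℝ := if i = 0 then (1, 0) else (0, 1)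

/-- the edge `(k, i)` -/
def edg (n : ℕ) (m : Ix n) (k i : Fin 2) : Set (ℝ × ℝ) :=
  (fun τ : ℝ => st n m k i + τ • bs i) '' Icc 0 (hh n)

/-- the rim -/
def rim (n : ℕ) (m : Ix n) : Set (ℝ × ℝ) := ⋃ k, ⋃ i, edg n m k i

theorem pt_add (e : Fin 2 → E) (a : E) (w : ℝ × ℝ) (i : Fin 2) (τ : ℝ) :
    pt e a (w + τ • bs i) = pt e a w + τ • e i := by
  fin_cases i <;> simp [pt, bs, add_smul] <;> abel

theorem pt_eq (e : Fin 2 → E) (a : E) (w : ℝ × ℝ) : pt e a w = a + pt e 0 w := by
  simp [pt]

theorem continuous_pt (e : Fin 2 → E) (a : E) : Continuous (pt e a) := by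
  unfold pt; fun_prop

theorem norm_pt_sub (e : Fin 2 → E) (a : E) (w w' : ℝ × ℝ) :
    ‖pt e a w - pt e a w'‖ ≤ |w.1 - w'.1| * ‖e 0‖ + |w.2 - w'.2| * ‖e 1‖ := by
  have h1 : pt e a w - pt e a w' = (w.1 - w'.1) • e 0 + (w.2 - w'.2) • e 1 := by
    simp only [pt, sub_smul]; abel
  rw [h1]
  refine (norm_add_le _ _).trans ?_
  rw [norm_smul, norm_smul, Real.norm_eq_abs, Real.norm_eq_abs]

theorem edg_subset (n : ℕ) (m : Ix n) (k i : Fin 2) : edg n m k i ⊆ sq n m := by
  have hp := hh_pos n
  rintro _ ⟨τ, ⟨h0, h1⟩, rfl⟩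
  rw [sq, mem_prod]
  fin_cases k <;> fin_cases i <;> refine ⟨⟨?_, ?_⟩, ?_, ?_⟩ <;> simp [st, bs] <;> linarith

theorem rim_subset (n : ℕ) (m : Ix n) : rim n m ⊆ sq n m :=
  iUnion_subset fun k => iUnion_subset fun i => edg_subset n m k i

/-- the size of the image of a square -/
def cc (e : Fin 2 → E) : ℝ := ‖e 0‖ + ‖e 1‖

theorem dist_pt_le (e : Fin 2 → E) (a : E) {n : ℕ} {m : Ix n} {w w' : ℝ × ℝ} (hw : w ∈ sq n m)
    (hw' : w' ∈ sq n m) : dist (pt e a w) (pt e a w') ≤ cc e * hh n := by
  rw [dist_eq_norm]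
  refine (norm_pt_sub e a w w').trans ?_
  obtain ⟨⟨h1, h2⟩, h3, h4⟩ := hw
  obtain ⟨⟨h1', h2'⟩, h3', h4'⟩ := hw'
  have e1 : |w.1 - w'.1| ≤ hh n := abs_sub_le_iff.2 ⟨by linarith, by linarith⟩
  have e2 : |w.2 - w'.2| ≤ hh n := abs_sub_le_iff.2 ⟨by linarith, by linarith⟩
  unfold cc
  have := mul_le_mul_of_nonneg_right e1 (norm_nonneg (e 0))
  have := mul_le_mul_of_nonneg_right e2 (norm_nonneg (e 1))
  nlinarith

/-- the integral of `G` over an edge (parametrised by `[0, h]`) -/
def ie (G : E → ℝ≥0∞) (e : Fin 2 → E) (a : E) (n : ℕ) (m : Ix n) (k i : Fin 2) : ℝ≥0∞ :=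
  ∫⁻ τ in Icc 0 (hh n), G (pt e a (st n m k i) + τ • e i)

/-- the sum over the four edges -/
def isq (G : E → ℝ≥0∞) (e : Fin 2 → E) (a : E) (n : ℕ) (m : Ix n) : ℝ≥0∞ :=
  ∑ k, ∑ i, ie G e a n m k i

/-- neighbourhood of the junk set -/
def TT (e : Fin 2 → E) (S : Set E) (n : ℕ) : Set E := Metric.cthickening (cc e * hh n) S

open Classical in
/-- energy of level `n` -/
def En (G : E → ℝ≥0∞) (e : Fin 2 → E) (P : Set (ℝ × ℝ)) (S : Set E) (n : ℕ) (a : E) : ℝ≥0∞ :=
  ENNReal.ofReal (hh n) * ∑ m : Ix n, if sq n m ⊆ P then isq ((TT e S n).indicator G) e a n m else 0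

/-- the energy of a face -/
def Ee (G : E → ℝ≥0∞) (e : Fin 2 → E) (P : Set (ℝ × ℝ)) (S : Set E) (a : E) : ℝ≥0∞ :=
  liminf (fun n => En G e P S n a) atTop

theorem measurable_ie {G : E → ℝ≥0∞} (hG : Measurable G) (e : Fin 2 → E) (n : ℕ) (m : Ix n)
    (k i : Fin 2) : Measurable fun a => ie G e a n m k i := by
  unfold ie
  apply Measurable.lintegral_prod_right'
    (f := fun p : E × ℝ => G (pt e p.1 (st n m k i) + p.2 • e i))
  apply hG.comp
  apply Continuous.measurable
  unfold pt
  fun_prop

theorem measurable_isq {G : E → ℝ≥0∞} (hG : Measurable G) (e : Fin 2 → E) (n : ℕ) (m : Ix n) :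
    Measurable fun a => isq G e a n m :=
  Finset.measurable_sum _ fun k _ => Finset.measurable_sum _ fun i _ => measurable_ie hG e n m k i

theorem measurableSet_TT (e : Fin 2 → E) (S : Set E) (n : ℕ) : MeasurableSet (TT e S n) :=
  Metric.isClosed_cthickening.measurableSet

theorem measurable_En {G : E → ℝ≥0∞} (hG : Measurable G) (e : Fin 2 → E) (P : Set (ℝ × ℝ))
    (S : Set E) (n : ℕ) : Measurable (En G e P S n) := by
  unfold En
  refine Measurable.const_mul ?_ _
  refine Finset.measurable_sum _ fun m _ => ?_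
  by_cases h : sq n m ⊆ P
  · simp only [h, if_true]
    exact measurable_isq (hG.indicator (measurableSet_TT e S n)) e n m
  · simp only [h, if_false]
    exact measurable_const

theorem measurable_Ee {G : E → ℝ≥0∞} (hG : Measurable G) (e : Fin 2 → E) (P : Set (ℝ × ℝ))
    (S : Set E) : Measurable (Ee G e P S) :=
  Measurable.liminf fun n => measurable_En hG e P S n

/-- **translation Fubini on one edge** -/
theorem lintegral_ie_le {G : E → ℝ≥0∞} (hG : Measurable G) (e : Fin 2 → E) {n : ℕ} {m : Ix n}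
    {k i : Fin 2} {A R : Set E} (hA : MeasurableSet A) (hR : MeasurableSet R)
    (hAR : ∀ a ∈ A, ∀ w ∈ sq n m, pt e a w ∈ R) :
    ∫⁻ a in A, ie G e a n m k i ∂μ ≤ ENNReal.ofReal (hh n) * ∫⁻ x in R, G x ∂μ := by
  unfold ie
  have hmeas : Measurable fun p : E × ℝ => G (pt e p.1 (st n m k i) + p.2 • e i) := by
    apply hG.comp
    apply Continuous.measurable
    unfold pt
    fun_prop
  rw [lintegral_lintegral_swap hmeas.aemeasurable]
  have h1 : ∀ τ ∈ Icc 0 (hh n), ∫⁻ a in A, G (pt e a (st n m k i) + τ • e i) ∂μ ≤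
      ∫⁻ x in R, G x ∂μ := by
    intro τ hτ
    have hw : st n m k i + τ • bs i ∈ sq n m := edg_subset n m k i ⟨τ, hτ, rfl⟩
    set v : E := pt e 0 (st n m k i + τ • bs i) with hv
    have h2 : ∀ a, pt e a (st n m k i) + τ • e i = a + v := by
      intro a
      rw [← pt_add, pt_eq, hv]
    simp_rw [h2]
    rw [← lintegral_indicator hA, ← lintegral_indicator hR]
    calc ∫⁻ a, A.indicator (fun a => G (a + v)) a ∂μ
        ≤ ∫⁻ a, R.indicator G (a + v) ∂μ := by
          apply lintegral_mono
          intro a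
          by_cases ha : a ∈ A
          · have h3 : a + v ∈ R := by
              have := hAR a ha _ hw
              rwa [pt_eq] at this
            rw [indicator_of_mem ha]
            simp only [indicator_of_mem h3]
            exact le_rfl
          · rw [indicator_of_notMem ha]; exact zero_le
      _ = ∫⁻ x, R.indicator G x ∂μ := lintegral_add_right_eq_self _ v
  calc ∫⁻ τ in Icc 0 (hh n), ∫⁻ a in A, G (pt e a (st n m k i) + τ • e i) ∂μ
      ≤ ∫⁻ _τ in Icc 0 (hh n), ∫⁻ x in R, G x ∂μ := by
        apply setLIntegral_mono' measurableSet_Icc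
        exact h1
    _ = ENNReal.ofReal (hh n) * ∫⁻ x in R, G x ∂μ := by
        rw [setLIntegral_const, Real.volume_Icc, sub_zero, mul_comm]

theorem lintegral_En_le {G : E → ℝ≥0∞} (hG : Measurable G) (e : Fin 2 → E) {P : Set (ℝ × ℝ)}
    {S : Set E} {n : ℕ} {A R : Set E} (hA : MeasurableSet A) (hR : MeasurableSet R)
    (hAR : ∀ a ∈ A, ∀ w ∈ P, pt e a w ∈ R) :
    ∫⁻ a in A, En G e P S n a ∂μ ≤ 4 * ∫⁻ x in R, (TT e S n).indicator G x ∂μ := by
  classical
  have hGi := hG.indicator (measurableSet_TT e S n)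
  set I := ∫⁻ x in R, (TT e S n).indicator G x ∂μ with hI
  have h1 : ∀ m : Ix n, ∫⁻ a in A, (if sq n m ⊆ P then isq ((TT e S n).indicator G) e a n m
      else 0) ∂μ ≤ 4 * (ENNReal.ofReal (hh n) * I) := by
    intro m
    by_cases h : sq n m ⊆ P
    · simp only [h, if_true]
      unfold isq
      rw [lintegral_finsetSum _ fun k _ => Finset.measurable_sum _ fun i _ =>
        measurable_ie hGi e n m k i]
      have h2 : ∀ k : Fin 2, ∫⁻ a in A, ∑ i, ie ((TT e S n).indicator G) e a n m k i ∂μ ≤
          2 * (ENNReal.ofReal (hh n) * I) := by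
        intro k
        rw [lintegral_finsetSum _ fun i _ => measurable_ie hGi e n m k i]
        calc ∑ i : Fin 2, ∫⁻ a in A, ie ((TT e S n).indicator G) e a n m k i ∂μ
            ≤ ∑ _i : Fin 2, ENNReal.ofReal (hh n) * I :=
              Finset.sum_le_sum fun i _ => lintegral_ie_le hGi e hA hR
                fun a ha w hw => hAR a ha w (h hw)
          _ = 2 * (ENNReal.ofReal (hh n) * I) := by simp
      calc ∑ k : Fin 2, ∫⁻ a in A, ∑ i, ie ((TT e S n).indicator G) e a n m k i ∂μ
          ≤ ∑ _k : Fin 2, 2 * (ENNReal.ofReal (hh n) * I) := Finset.sum_le_sum fun k _ => h2 k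
        _ = 4 * (ENNReal.ofReal (hh n) * I) := by
            rw [Finset.sum_const, Finset.card_univ, Fintype.card_fin, nsmul_eq_mul, ← mul_assoc]
            norm_num
    · simp only [h, if_false]
      simp
  unfold En
  rw [lintegral_const_mul]
  · rw [lintegral_finsetSum]
    · calc ENNReal.ofReal (hh n) * ∑ m : Ix n, ∫⁻ a in A, (if sq n m ⊆ P then
            isq ((TT e S n).indicator G) e a n m else 0) ∂μ
          ≤ ENNReal.ofReal (hh n) * ∑ _m : Ix n, 4 * (ENNReal.ofReal (hh n) * I) := by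
            gcongr with m _
            exact h1 m
        _ = 4 * I := by
            rw [Finset.sum_const, Finset.card_univ, nsmul_eq_mul]
            have h3 : (Fintype.card (Ix n) : ℝ≥0∞) * (ENNReal.ofReal (hh n) *
                ENNReal.ofReal (hh n)) = 1 := by
              rw [Fintype.card_prod, Fintype.card_fin]
              have h4 : (((2 ^ n * 2 ^ n : ℕ) : ℝ≥0∞)) = ENNReal.ofReal ((2:ℝ) ^ n * 2 ^ n) := by
                rw [← ENNReal.ofReal_natCast]
                push_cast
                rfl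
              rw [h4, ← ENNReal.ofReal_mul (hh_pos n).le, ← ENNReal.ofReal_mul (by positivity),
                ← ENNReal.ofReal_one]
              congr 1
              unfold hh
              field_simp
            calc ENNReal.ofReal (hh n) * ((Fintype.card (Ix n) : ℝ≥0∞) *
                  (4 * (ENNReal.ofReal (hh n) * I)))
                = ((Fintype.card (Ix n) : ℝ≥0∞) * (ENNReal.ofReal (hh n) *
                    ENNReal.ofReal (hh n))) * (4 * I) := by ring
              _ = 4 * I := by rw [h3, one_mul]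
    · intro m _
      by_cases h : sq n m ⊆ P
      · simp only [h, if_true]
        exact measurable_isq hGi e n m
      · simp only [h, if_false]
        exact measurable_const
  · refine Finset.measurable_sum _ fun m _ => ?_
    by_cases h : sq n m ⊆ P
    · simp only [h, if_true]
      exact measurable_isq hGi e n m
    · simp only [h, if_false]
      exact measurable_const

theorem antitone_hh : Antitone hh := by
  intro a b h
  unfold hh
  gcongr
  norm_num

theorem tendsto_hh : Tendsto hh atTop (𝓝 0) := by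
  have : hh = fun n => (2⁻¹ : ℝ) ^ n := by funext n; unfold hh; rw [inv_pow]
  rw [this]
  exact tendsto_pow_atTop_nhds_zero_of_lt_one (by norm_num) (by norm_num)

theorem cc_nonneg (e : Fin 2 → E) : 0 ≤ cc e := by unfold cc; positivity

theorem iInter_TT (e : Fin 2 → E) {S : Set E} (hS : IsClosed S) : ⋂ n, TT e S n = S := by
  apply Subset.antisymm
  · intro x hx
    rw [mem_iInter] at hx
    have h1 : x ∈ closure S := by
      rw [Metric.mem_closure_iff_infEDist_zero]
      apply le_antisymm _ (zero_le)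
      have h2 : Tendsto (fun n => ENNReal.ofReal (cc e * hh n)) atTop (𝓝 0) := by
        rw [← ENNReal.ofReal_zero]
        apply ENNReal.tendsto_ofReal
        have := tendsto_hh.const_mul (cc e)
        rwa [mul_zero] at this
      refine ge_of_tendsto h2 (Eventually.of_forall fun n => ?_)
      exact Metric.mem_cthickening_iff.1 (hx n)
    rwa [hS.closure_eq] at h1
  · intro x hx
    exact mem_iInter.2 fun n => Metric.self_subset_cthickening _ hx

theorem antitone_TT (e : Fin 2 → E) (S : Set E) : Antitone (TT e S) := by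
  intro a b h
  exact Metric.cthickening_mono (mul_le_mul_of_nonneg_left (antitone_hh h) (cc_nonneg e)) _

/-- **the averaged energy of a face** -/
theorem lintegral_Ee_le {G : E → ℝ≥0∞} (hG : Measurable G) (e : Fin 2 → E) {P : Set (ℝ × ℝ)}
    {S : Set E} (hS : IsClosed S) {A R : Set E} (hA : MeasurableSet A) (hR : MeasurableSet R)
    (hAR : ∀ a ∈ A, ∀ w ∈ P, pt e a w ∈ R) (hfin : ∫⁻ x in R, G x ∂μ ≠ ∞) :
    ∫⁻ a in A, Ee G e P S a ∂μ ≤ 4 * ∫⁻ x in R ∩ S, G x ∂μ := by
  unfold Ee
  refine (lintegral_liminf_le fun n => measurable_En hG e P S n).trans ?_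
  have h1 : liminf (fun n => ∫⁻ a in A, En G e P S n a ∂μ) atTop ≤
      liminf (fun n => 4 * ∫⁻ x in R, (TT e S n).indicator G x ∂μ) atTop :=
    liminf_le_liminf (Eventually.of_forall fun n => lintegral_En_le hG e hA hR hAR)
  refine h1.trans (le_of_eq ?_)
  apply Tendsto.liminf_eq
  apply ENNReal.Tendsto.const_mul _ (Or.inr (by norm_num))
  set ν : Measure E := (μ.restrict R).withDensity G with hν
  have h2 : ∀ n, ∫⁻ x in R, (TT e S n).indicator G x ∂μ = ν (TT e S n) := by
    intro n
    rw [hν, withDensity_apply _ (measurableSet_TT e S n), lintegral_indicator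
      (measurableSet_TT e S n)]
  have h3 : ∫⁻ x in R ∩ S, G x ∂μ = ν (⋂ n, TT e S n) := by
    rw [iInter_TT e hS, hν, withDensity_apply _ hS.measurableSet,
      Measure.restrict_restrict hS.measurableSet, inter_comm]
  simp_rw [h2]
  rw [h3]
  apply tendsto_measure_iInter_atTop
  · exact fun n => (measurableSet_TT e S n).nullMeasurableSet
  · exact antitone_TT e S
  · refine ⟨0, ?_⟩
    apply ne_top_of_le_ne_top hfin
    calc ν (TT e S 0) ≤ ν univ := measure_mono (subset_univ _)
      _ = ∫⁻ x in R, G x ∂μ := by rw [hν, withDensity_apply _ MeasurableSet.univ,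
          Measure.restrict_univ]

end

end Crest.Agent.R096.Fce_793
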