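/-
helper793, row 96, leaf P2-FACE, part 2: oscillation over the rims of small squares.
-/
import Mathlib
import Crest.Agent.R096.Fce1_793

set_option autoImplicit false
set_option linter.unusedSectionVars false

open MeasureTheory Set Filter
open scoped ENNReal Topology

namespace Crest.Agent.R096.Fce_793

open Crest.Agent.R96.Acl_392 Crest.Agent.R96.Sob4_199

noncomputable section

/-- Cauchy-Schwarz on an interval -/
theorem sq_integral_le {φ : ℝ → ℝ} {G : ℝ → ℝ≥0∞} {h : ℝ} (hh0 : 0 ≤ h)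
    (hφ : IntegrableOn φ (Icc 0 h)) (h0 : ∀ τ, 0 ≤ φ τ)
    (hG : ∀ᵐ τ ∂(volume.restrict (Icc 0 h)), ENNReal.ofReal (φ τ) ^ 2 ≤ G τ)
    (hfin : ∫⁻ τ in Icc 0 h, G τ ≠ ∞) :
    (∫ τ in (0:ℝ)..h, φ τ) ^ 2 ≤ h * (∫⁻ τ in Icc 0 h, G τ).toReal := by
  set ν : Measure ℝ := volume.restrict (Icc 0 h) with hν
  have e1 : ∫ τ in (0:ℝ)..h, φ τ = ∫ τ, φ τ ∂ν := by
    rw [intervalIntegral.integral_of_le hh0, ← integral_Icc_eq_integral_Ioc]
  have e2 : ∫ τ, φ τ ∂ν = (∫⁻ τ, ENNReal.ofReal (φ τ) ∂ν).toReal :=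
    integral_eq_lintegral_of_nonneg_ae (Eventually.of_forall h0) hφ.1
  have hm : AEMeasurable (fun τ => ENNReal.ofReal (φ τ)) ν := hφ.1.aemeasurable.ennreal_ofReal
  have h2 : Real.HolderConjugate 2 2 := Real.HolderConjugate.two_two
  have h3 := ENNReal.lintegral_mul_le_Lp_mul_Lq ν h2 hm (aemeasurable_const (b := (1:ℝ≥0∞)))
  simp only [Pi.mul_apply, mul_one, ENNReal.one_rpow, lintegral_const, one_mul] at h3
  have h4 : ν univ = ENNReal.ofReal h := by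
    rw [hν, Measure.restrict_apply_univ, Real.volume_Icc, sub_zero]
  rw [h4] at h3
  have h5 : ∫⁻ τ, ENNReal.ofReal (φ τ) ^ (2:ℝ) ∂ν ≤ ∫⁻ τ, G τ ∂ν := by
    apply lintegral_mono_ae
    filter_upwards [hG] with τ hτ
    rwa [ENNReal.rpow_two]
  have h6 : (∫⁻ τ, ENNReal.ofReal (φ τ) ∂ν) ^ 2 ≤ (∫⁻ τ, G τ ∂ν) * ENNReal.ofReal h := by
    calc (∫⁻ τ, ENNReal.ofReal (φ τ) ∂ν) ^ 2
        ≤ ((∫⁻ τ, ENNReal.ofReal (φ τ) ^ (2:ℝ) ∂ν) ^ ((1:ℝ)/2) *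
            ENNReal.ofReal h ^ ((1:ℝ)/2)) ^ 2 := by gcongr
      _ = (∫⁻ τ, ENNReal.ofReal (φ τ) ^ (2:ℝ) ∂ν) * ENNReal.ofReal h := by
          rw [mul_pow, ← ENNReal.rpow_two, ← ENNReal.rpow_two, ← ENNReal.rpow_mul,
            ← ENNReal.rpow_mul]
          norm_num
      _ ≤ _ := by gcongr
  rw [e1, e2, ← ENNReal.toReal_pow]
  calc ((∫⁻ τ, ENNReal.ofReal (φ τ) ∂ν) ^ 2).toReal
      ≤ ((∫⁻ τ, G τ ∂ν) * ENNReal.ofReal h).toReal :=
        ENNReal.toReal_mono (ENNReal.mul_ne_top hfin ENNReal.ofReal_ne_top) h6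
    _ = h * (∫⁻ τ, G τ ∂ν).toReal := by
        rw [ENNReal.toReal_mul, ENNReal.toReal_ofReal hh0, mul_comm]

variable {E : Type*} [NormedAddCommGroup E] [NormedSpace ℝ E] [FiniteDimensional ℝ E]
  [MeasurableSpace E] [BorelSpace E] {μ : Measure E} [μ.IsAddHaarMeasure]
  {ι : Type*} [Fintype ι]

/-- a good position: the fundamental theorem on all the edges -/
def Pos (Ω : Set E) (f : E → EuclideanSpace ℝ ι) (D : Fin 2 → E → EuclideanSpace ℝ ι)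
    (G : E → ℝ≥0∞) (e : Fin 2 → E) (a : E) : Prop :=
  ∀ n, ∀ m : Ix n, ∀ k i : Fin 2, (∀ s t : ℝ, s ≤ t → pt e a (st n m k i) ∈ segIn Ω (e i) s t →
      IntegrableOn (fun τ : ℝ => ‖D i (pt e a (st n m k i) + τ • e i)‖) (Icc s t) ∧
      ‖f (pt e a (st n m k i) + t • e i) - f (pt e a (st n m k i) + s • e i)‖ ≤
        ∫ τ in s..t, ‖D i (pt e a (st n m k i) + τ • e i)‖) ∧
    ∀ᵐ τ : ℝ, pt e a (st n m k i) + τ • e i ∈ Ω →
      ‖D i (pt e a (st n m k i) + τ • e i)‖ₑ ^ 2 ≤ G (pt e a (st n m k i) + τ • e i)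

theorem ae_pos {Ω : Set E} (hΩ : IsOpen Ω) {f : E → EuclideanSpace ℝ ι} (hf : ContinuousOn f Ω)
    {e : Fin 2 → E} {D : Fin 2 → E → EuclideanSpace ℝ ι} (hD : ∀ i, VWD Ω μ f (D i) (e i))
    {G : E → ℝ≥0∞} (hG : ∀ i, ∀ᵐ x ∂μ, x ∈ Ω → ‖D i x‖ₑ ^ 2 ≤ G x) :
    ∀ᵐ a ∂μ, Pos Ω f D G e a := by
  have key : ∀ (v : E) {p : E → Prop}, (∀ᵐ x ∂μ, p x) → ∀ᵐ a ∂μ, p (a + v) := by
    intro v p hp
    exact (measurePreserving_add_right μ v).quasiMeasurePreserving.ae hp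
  have h1 : ∀ n, ∀ m : Ix n, ∀ k i : Fin 2, ∀ᵐ a ∂μ,
      (∀ s t : ℝ, s ≤ t → pt e a (st n m k i) ∈ segIn Ω (e i) s t →
      IntegrableOn (fun τ : ℝ => ‖D i (pt e a (st n m k i) + τ • e i)‖) (Icc s t) ∧
      ‖f (pt e a (st n m k i) + t • e i) - f (pt e a (st n m k i) + s • e i)‖ ≤
        ∫ τ in s..t, ‖D i (pt e a (st n m k i) + τ • e i)‖) ∧
      ∀ᵐ τ : ℝ, pt e a (st n m k i) + τ • e i ∈ Ω →
      ‖D i (pt e a (st n m k i) + τ • e i)‖ₑ ^ 2 ≤ G (pt e a (st n m k i) + τ • e i) := by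
    intro n m k i
    have h2 := key (pt e 0 (st n m k i)) (vline_bound hΩ (hD i) hf)
    have h3 := key (pt e 0 (st n m k i)) (Crest.Agent.R96.Sob2_199.ae_line_of_ae (hG i) (e i))
    filter_upwards [h2, h3] with a h4 h5
    rw [← pt_eq] at h4 h5
    exact ⟨h4, h5⟩
  filter_upwards [ae_all_iff.2 fun n => ae_all_iff.2 fun m => ae_all_iff.2 fun k =>
    ae_all_iff.2 fun i => h1 n m k i] with a ha n m k i
  exact ha n m k i

/-- the length of the image of an edge -/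
def ell (D : Fin 2 → E → EuclideanSpace ℝ ι) (e : Fin 2 → E) (a : E) (n : ℕ) (m : Ix n)
    (k i : Fin 2) : ℝ :=
  ∫ τ in (0:ℝ)..hh n, ‖D i (pt e a (st n m k i) + τ • e i)‖

theorem ell_nonneg (D : Fin 2 → E → EuclideanSpace ℝ ι) (e : Fin 2 → E) (a : E) (n : ℕ) (m : Ix n)
    (k i : Fin 2) : 0 ≤ ell D e a n m k i :=
  intervalIntegral.integral_nonneg (hh_pos n).le fun _ _ => norm_nonneg _

theorem mem_segIn {Ω : Set E} {e : Fin 2 → E} {a : E} {n : ℕ} {m : Ix n} (k i : Fin 2)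
    (h : ∀ w ∈ sq n m, pt e a w ∈ Ω) : pt e a (st n m k i) ∈ segIn Ω (e i) 0 (hh n) := by
  intro τ hτ
  rw [← pt_add]
  exact h _ (edg_subset n m k i ⟨τ, hτ, rfl⟩)

theorem ell_osc {Ω : Set E} {f : E → EuclideanSpace ℝ ι} {e : Fin 2 → E}
    {D : Fin 2 → E → EuclideanSpace ℝ ι} {G : E → ℝ≥0∞} {a : E} (hp : Pos Ω f D G e a) {n : ℕ}
    {m : Ix n} (h : ∀ w ∈ sq n m, pt e a w ∈ Ω) {k i : Fin 2} {w w' : ℝ × ℝ}
    (hw : w ∈ edg n m k i) (hw' : w' ∈ edg n m k i) :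
    dist (f (pt e a w)) (f (pt e a w')) ≤ ell D e a n m k i := by
  obtain ⟨τ, hτ, rfl⟩ := hw
  obtain ⟨τ', hτ', rfl⟩ := hw'
  obtain ⟨h1, -⟩ := hp n m k i
  have hseg := mem_segIn k i h
  have hint := (h1 0 (hh n) (hh_pos n).le hseg).1
  have hsub : ∀ s t : ℝ, s ∈ Icc 0 (hh n) → t ∈ Icc 0 (hh n) → s ≤ t →
      ‖f (pt e a (st n m k i) + t • e i) - f (pt e a (st n m k i) + s • e i)‖ ≤
        ell D e a n m k i := by
    intro s t hs ht hst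
    have h2 := (h1 s t hst fun σ hσ => hseg σ ⟨hs.1.trans hσ.1, hσ.2.trans ht.2⟩).2
    refine h2.trans ?_
    unfold ell
    apply intervalIntegral.integral_mono_interval hs.1 hst ht.2
    · exact Eventually.of_forall fun _ => norm_nonneg _
    · exact (intervalIntegrable_iff_integrableOn_Icc_of_le (hh_pos n).le).2 hint
  rw [dist_eq_norm, pt_add, pt_add]
  rcases le_total τ τ' with hle | hle
  · rw [norm_sub_rev]
    exact hsub _ _ hτ hτ' hle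
  · exact hsub _ _ hτ' hτ hle

theorem ell_sq_le {Ω : Set E} {f : E → EuclideanSpace ℝ ι} {e : Fin 2 → E}
    {D : Fin 2 → E → EuclideanSpace ℝ ι} {G : E → ℝ≥0∞} {a : E} (hp : Pos Ω f D G e a) {n : ℕ}
    {m : Ix n} (h : ∀ w ∈ sq n m, pt e a w ∈ Ω) {k i : Fin 2} (hfin : ie G e a n m k i ≠ ∞) :
    ell D e a n m k i ^ 2 ≤ hh n * (ie G e a n m k i).toReal := by
  obtain ⟨h1, h2⟩ := hp n m k i
  have hseg := mem_segIn k i h
  have hint := (h1 0 (hh n) (hh_pos n).le hseg).1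
  unfold ell ie
  apply sq_integral_le (hh_pos n).le hint (fun _ => norm_nonneg _)
  · rw [ae_restrict_iff' measurableSet_Icc]
    filter_upwards [h2] with τ hτ hτ'
    rw [ofReal_norm]
    exact hτ (hseg τ hτ')
  · exact hfin

theorem c00_mem (n : ℕ) (m : Ix n) : cor n m ∈ edg n m 0 0 ∧ cor n m ∈ edg n m 0 1 := by
  constructor <;> exact ⟨0, ⟨le_rfl, (hh_pos n).le⟩, by simp [st]⟩

theorem c10_mem (n : ℕ) (m : Ix n) :
    cor n m + (hh n, 0) ∈ edg n m 0 0 ∧ cor n m + (hh n, 0) ∈ edg n m 1 1 := by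
  constructor
  · exact ⟨hh n, ⟨(hh_pos n).le, le_rfl⟩, by simp [st, bs]⟩
  · exact ⟨0, ⟨le_rfl, (hh_pos n).le⟩, by simp [st]⟩

theorem c01_mem (n : ℕ) (m : Ix n) :
    cor n m + (0, hh n) ∈ edg n m 0 1 ∧ cor n m + (0, hh n) ∈ edg n m 1 0 := by
  constructor
  · exact ⟨hh n, ⟨(hh_pos n).le, le_rfl⟩, by simp [st, bs]⟩
  · exact ⟨0, ⟨le_rfl, (hh_pos n).le⟩, by simp [st]⟩

theorem c11_mem (n : ℕ) (m : Ix n) :
    cor n m + (hh n, hh n) ∈ edg n m 1 0 ∧ cor n m + (hh n, hh n) ∈ edg n m 1 1 := by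
  constructor
  · exact ⟨hh n, ⟨(hh_pos n).le, le_rfl⟩, by simp [st, bs, add_assoc]⟩
  · exact ⟨hh n, ⟨(hh_pos n).le, le_rfl⟩, by simp [st, bs, add_assoc]⟩

/-- the oscillation over the rim -/
def oo (D : Fin 2 → E → EuclideanSpace ℝ ι) (e : Fin 2 → E) (a : E) (n : ℕ) (m : Ix n) : ℝ :=
  ell D e a n m 0 0 + ell D e a n m 0 1 + ell D e a n m 1 0 + ell D e a n m 1 1

theorem oo_nonneg (D : Fin 2 → E → EuclideanSpace ℝ ι) (e : Fin 2 → E) (a : E) (n : ℕ)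
    (m : Ix n) : 0 ≤ oo D e a n m := by
  have := ell_nonneg D e a n m 0 0
  have := ell_nonneg D e a n m 0 1
  have := ell_nonneg D e a n m 1 0
  have := ell_nonneg D e a n m 1 1
  unfold oo
  linarith

theorem oo_osc {Ω : Set E} {f : E → EuclideanSpace ℝ ι} {e : Fin 2 → E}
    {D : Fin 2 → E → EuclideanSpace ℝ ι} {G : E → ℝ≥0∞} {a : E} (hp : Pos Ω f D G e a) {n : ℕ}
    {m : Ix n} (h : ∀ w ∈ sq n m, pt e a w ∈ Ω) {w w' : ℝ × ℝ}
    (hw : w ∈ rim n m) (hw' : w' ∈ rim n m) :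
    dist (f (pt e a w)) (f (pt e a w')) ≤ oo D e a n m := by
  have n1 := ell_nonneg D e a n m 0 0
  have n2 := ell_nonneg D e a n m 0 1
  have n3 := ell_nonneg D e a n m 1 0
  have n4 := ell_nonneg D e a n m 1 1
  have key : ∀ k i, ∀ v ∈ edg n m k i, ∀ v' ∈ edg n m k i,
      dist (f (pt e a v)) (f (pt e a v')) ≤ ell D e a n m k i :=
    fun k i v hv v' hv' => ell_osc hp h hv hv'
  -- two edges with a common point
  have adj : ∀ k i k' i' (c : ℝ × ℝ), c ∈ edg n m k i → c ∈ edg n m k' i' →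
      ∀ v ∈ edg n m k i, ∀ v' ∈ edg n m k' i',
      dist (f (pt e a v)) (f (pt e a v')) ≤ ell D e a n m k i + ell D e a n m k' i' :=
    fun k i k' i' c h1 h2 v hv v' hv' =>
      (dist_triangle _ (f (pt e a c)) _).trans (add_le_add (key _ _ _ hv _ h1) (key _ _ _ h2 _ hv'))
  have opp : ∀ k i k' i' k'' i'' (c c' : ℝ × ℝ), c ∈ edg n m k i → c ∈ edg n m k' i' →
      c' ∈ edg n m k' i' → c' ∈ edg n m k'' i'' → ∀ v ∈ edg n m k i, ∀ v' ∈ edg n m k'' i'',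
      dist (f (pt e a v)) (f (pt e a v')) ≤
        ell D e a n m k i + ell D e a n m k' i' + ell D e a n m k'' i'' :=
    fun k i k' i' k'' i'' c c' h1 h2 h3 h4 v hv v' hv' =>
      (dist_triangle _ (f (pt e a c')) _).trans
        (add_le_add (adj _ _ _ _ c h1 h2 _ hv _ h3) (key _ _ _ h4 _ hv'))
  obtain ⟨a0, a1⟩ := c00_mem n m
  obtain ⟨b0, b1⟩ := c10_mem n m
  obtain ⟨c0, c1⟩ := c01_mem n m
  obtain ⟨d0, d1⟩ := c11_mem n m
  obtain ⟨k, hk⟩ := mem_iUnion.1 hw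
  obtain ⟨i, hi⟩ := mem_iUnion.1 hk
  obtain ⟨k', hk'⟩ := mem_iUnion.1 hw'
  obtain ⟨i', hi'⟩ := mem_iUnion.1 hk'
  unfold oo
  have two : ∀ k i : Fin 2, (k = 0 ∧ i = 0) ∨ (k = 0 ∧ i = 1) ∨ (k = 1 ∧ i = 0) ∨
      (k = 1 ∧ i = 1) := by decide
  rcases two k i with ⟨rfl, rfl⟩ | ⟨rfl, rfl⟩ | ⟨rfl, rfl⟩ | ⟨rfl, rfl⟩ <;>
    rcases two k' i' with ⟨rfl, rfl⟩ | ⟨rfl, rfl⟩ | ⟨rfl, rfl⟩ | ⟨rfl, rfl⟩
  · linarith [key _ _ _ hi _ hi']
  · linarith [adj _ _ _ _ _ a0 a1 _ hi _ hi']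
  · linarith [opp _ _ _ _ _ _ _ _ a0 a1 c0 c1 _ hi _ hi']
  · linarith [adj _ _ _ _ _ b0 b1 _ hi _ hi']
  · linarith [adj _ _ _ _ _ a1 a0 _ hi _ hi']
  · linarith [key _ _ _ hi _ hi']
  · linarith [adj _ _ _ _ _ c0 c1 _ hi _ hi']
  · linarith [opp _ _ _ _ _ _ _ _ a1 a0 b0 b1 _ hi _ hi']
  · linarith [opp _ _ _ _ _ _ _ _ c1 c0 a1 a0 _ hi _ hi']
  · linarith [adj _ _ _ _ _ c1 c0 _ hi _ hi']
  · linarith [key _ _ _ hi _ hi']
  · linarith [adj _ _ _ _ _ d0 d1 _ hi _ hi']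
  · linarith [adj _ _ _ _ _ b1 b0 _ hi _ hi']
  · linarith [opp _ _ _ _ _ _ _ _ b1 b0 a0 a1 _ hi _ hi']
  · linarith [adj _ _ _ _ _ d1 d0 _ hi _ hi']
  · linarith [key _ _ _ hi _ hi']

theorem oo_sq_le {Ω : Set E} {f : E → EuclideanSpace ℝ ι} {e : Fin 2 → E}
    {D : Fin 2 → E → EuclideanSpace ℝ ι} {G : E → ℝ≥0∞} {a : E} (hp : Pos Ω f D G e a) {n : ℕ}
    {m : Ix n} (h : ∀ w ∈ sq n m, pt e a w ∈ Ω) (hfin : isq G e a n m ≠ ∞) :
    oo D e a n m ^ 2 ≤ 4 * (hh n * (isq G e a n m).toReal) := by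
  have hf : ∀ k i, ie G e a n m k i ≠ ∞ := by
    intro k i
    refine ne_top_of_le_ne_top hfin ?_
    unfold isq
    exact (Finset.single_le_sum (f := fun i => ie G e a n m k i) (fun _ _ => zero_le)
      (Finset.mem_univ i)).trans (Finset.single_le_sum
        (f := fun k => ∑ i, ie G e a n m k i) (fun _ _ => zero_le) (Finset.mem_univ k))
  have h1 : (isq G e a n m).toReal = (ie G e a n m 0 0).toReal + (ie G e a n m 0 1).toReal +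
      ((ie G e a n m 1 0).toReal + (ie G e a n m 1 1).toReal) := by
    unfold isq
    rw [Fin.sum_univ_two, Fin.sum_univ_two, Fin.sum_univ_two,
      ENNReal.toReal_add (ENNReal.add_ne_top.2 ⟨hf 0 0, hf 0 1⟩)
        (ENNReal.add_ne_top.2 ⟨hf 1 0, hf 1 1⟩),
      ENNReal.toReal_add (hf 0 0) (hf 0 1), ENNReal.toReal_add (hf 1 0) (hf 1 1)]
  rw [h1]
  have e1 := ell_sq_le hp h (hf 0 0)
  have e2 := ell_sq_le hp h (hf 0 1)
  have e3 := ell_sq_le hp h (hf 1 0)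
  have e4 := ell_sq_le hp h (hf 1 1)
  unfold oo
  nlinarith [sq_nonneg (ell D e a n m 0 0 - ell D e a n m 0 1),
    sq_nonneg (ell D e a n m 0 0 - ell D e a n m 1 0),
    sq_nonneg (ell D e a n m 0 0 - ell D e a n m 1 1),
    sq_nonneg (ell D e a n m 0 1 - ell D e a n m 1 0),
    sq_nonneg (ell D e a n m 0 1 - ell D e a n m 1 1),
    sq_nonneg (ell D e a n m 1 0 - ell D e a n m 1 1)]

end

end Crest.Agent.R096.Fce_793
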