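import Crest.Agent.R096.Sc2_968

/-!
# R096 (S0127), p = 2: small circles (SC), part 3: `small_circles`
-/

set_option autoImplicit false

namespace Crest.Agent.R096.Sc_968

open MeasureTheory Set Metric
open scoped ENNReal

/-- the levels met by many rims have small measure -/
theorem level_select {J : Type*} [Fintype J] {o : J → ℝ} (ho0 : ∀ j, 0 ≤ o j) (ctr : J → ℝ)
    (Jb : Finset J) {L η σ E : ℝ} (hL : 0 ≤ L) (hη : 0 ≤ η) (hσ : 0 < σ)
    (hE : ∑ j ∈ Jb, o j ^ 2 ≤ E) :
    ∃ Bad : Set ℝ, MeasurableSet Bad ∧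
      volume Bad ≤ ENNReal.ofReal (4 * L * (E + η * ∑ j, o j) / σ) ∧
      ∀ t ∉ Bad, ∑ j ∈ Jb.filter (fun j => |t - ctr j| ≤ L * (o j + η)), o j < σ / 2 := by
  classical
  let I : J → Set ℝ := fun j => Icc (ctr j - L * (o j + η)) (ctr j + L * (o j + η))
  let w : J → ℝ≥0∞ := fun j => if j ∈ Jb then ENNReal.ofReal (o j) else 0
  have hm : ∀ q, Measurable (fun t => (I q).indicator (fun _ => w q) t) := fun q =>
    measurable_const.indicator measurableSet_Icc
  have hσ' : ENNReal.ofReal (σ / 2) ≠ 0 := by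
    rw [Ne, ENNReal.ofReal_eq_zero]
    linarith
  refine ⟨{t | ENNReal.ofReal (σ / 2) ≤ ∑' q, (I q).indicator (fun _ => w q) t},
    measurableSet_le measurable_const (Measurable.tsum hm), ?_, ?_⟩
  · refine (Isl_968.levels_le I (fun q => measurableSet_Icc) w hσ' ENNReal.ofReal_ne_top).trans ?_
    have h1 : ∑' q, w q * volume (I q) ≤ ENNReal.ofReal (2 * L * (E + η * ∑ j, o j)) := by
      rw [tsum_fintype]
      have h2 : ∀ q ∈ Finset.univ, w q * volume (I q) ≤
          ENNReal.ofReal (if q ∈ Jb then 2 * L * (o q ^ 2 + η * o q) else 0) := by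
        intro q _
        by_cases hq : q ∈ Jb
        · simp only [w, if_pos hq, I]
          rw [Real.volume_Icc, ← ENNReal.ofReal_mul (ho0 q)]
          refine ENNReal.ofReal_le_ofReal (le_of_eq ?_)
          ring
        · simp only [w, if_neg hq, zero_mul]
          exact zero_le
      refine (Finset.sum_le_sum h2).trans ?_
      have h3 : ∀ q : J, 0 ≤ (if q ∈ Jb then 2 * L * (o q ^ 2 + η * o q) else 0) := by
        intro q
        split_ifs
        · have := ho0 q
          positivity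
        · exact le_refl 0
      rw [← ENNReal.ofReal_sum_of_nonneg (fun q _ => h3 q)]
      refine ENNReal.ofReal_le_ofReal ?_
      rw [← Finset.sum_filter]
      have h4 : Finset.univ.filter (fun q => q ∈ Jb) = Jb := by ext; simp
      rw [h4, ← Finset.mul_sum, Finset.sum_add_distrib, ← Finset.mul_sum]
      have h5 : ∑ j ∈ Jb, o j ≤ ∑ j, o j :=
        Finset.sum_le_sum_of_subset_of_nonneg (Finset.subset_univ _) (fun j _ _ => ho0 j)
      have h6 := mul_le_mul_of_nonneg_left h5 hη
      exact mul_le_mul_of_nonneg_left (by linarith) (by linarith)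
    refine (ENNReal.div_le_div_right h1 _).trans ?_
    rw [← ENNReal.ofReal_div_of_pos (by linarith)]
    refine ENNReal.ofReal_le_ofReal (le_of_eq ?_)
    field_simp
    ring
  · intro t ht
    rw [mem_ofPred_eq, not_le] at ht
    have h1 : ENNReal.ofReal (∑ j ∈ Jb.filter (fun j => |t - ctr j| ≤ L * (o j + η)), o j) ≤
        ∑' q, (I q).indicator (fun _ => w q) t := by
      rw [ENNReal.ofReal_sum_of_nonneg (fun j _ => ho0 j), tsum_fintype]
      refine le_trans (Finset.sum_le_sum fun j hj => ?_)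
        (Finset.sum_le_sum_of_subset_of_nonneg (Finset.subset_univ _) (fun j _ _ => zero_le))
      rw [Finset.mem_filter] at hj
      have hI : t ∈ I j := by
        have := abs_le.1 hj.2
        exact ⟨by linarith [this.1], by linarith [this.2]⟩
      rw [indicator_of_mem hI]
      simp only [w, if_pos hj.1]
      exact le_refl _
    have h2 := h1.trans_lt ht
    exact (ENNReal.ofReal_lt_ofReal_iff (by linarith)).1 h2

/-- **small circles** (753 #9576 (2)) -/
theorem small_circles {X Y : Type*} [NormedAddCommGroup X] [NormedSpace ℝ X]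
    [PseudoMetricSpace Y] {F : Set X} (hF : IsCompact F) (hconv : Convex ℝ F) {f : X → Y}
    (hf : ContinuousOn f F) {u : Y → ℝ} {L : ℝ} (hL : 0 ≤ L)
    (hu : ∀ y z, |u y - u z| ≤ L * dist y z) {t0 tm t1 : ℝ} (h1 : tm < t1)
    {E σ θ : ℝ} (hσ : 0 < σ) (hθ : 0 < θ)
    (hE : ∀ ε > 0, ∃ (J : Type) (_ : Fintype J) (Q B : J → Set X) (o : J → ℝ), Cells F Q B ∧
      (∀ j, ∀ x ∈ Q j ∩ F, ∀ y ∈ Q j ∩ F, dist (f x) (f y) ≤ ε) ∧
      (∀ j, 0 ≤ o j ∧ ∀ x ∈ B j ∩ F, ∀ y ∈ B j ∩ F, dist (f x) (f y) ≤ o j) ∧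
      ∀ Jb : Finset J, (∀ j ∈ Jb, ∃ x ∈ B j ∩ F, t0 ≤ u (f x)) → ∑ j ∈ Jb, o j ^ 2 ≤ E)
    (hEσ : 8 * L * E ≤ θ * σ) :
    ∃ η > 0, ∃ Bad : Set ℝ, MeasurableSet Bad ∧ volume Bad ≤ ENNReal.ofReal θ ∧
      ∀ t ∈ Ioo t0 tm, t ∉ Bad → ∀ h : X → Y, (∀ x ∈ F, dist (h x) (f x) ≤ η) →
        ∀ {ι : Type} (K Γ : ι → Set X), (∀ i, Γ i ⊆ F ∧ IsPreconnected (Γ i) ∧ (Γ i).Nonempty) →
          (∀ i k, i ≠ k → Disjoint (K i) (K k)) → (∀ i, ∀ x ∈ Γ i, u (h x) = t) →
          (∀ i, ∃ x ∈ K i ∩ F, t1 ≤ u (h x)) →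
          (∀ i (S : Set X), S ⊆ F → IsPreconnected S → (S ∩ K i).Nonempty → ¬ S ⊆ K i →
            (S ∩ Γ i).Nonempty) →
          ∃ (n : ℕ) (y : Fin n → Y) (ρ : Fin n → ℝ), (∀ m, 0 ≤ ρ m) ∧ ∑ m, ρ m ≤ σ ∧
            ∀ i, ∃ m, h '' Γ i ⊆ closedBall (y m) (ρ m) := by
  classical
  have hgap : 0 < t1 - tm := sub_pos.2 h1
  have hL1 : 0 < L + 1 := by linarith
  -- modulus of continuity
  have huc := hF.uniformContinuousOn_of_continuous hf
  rw [Metric.uniformContinuousOn_iff] at huc
  obtain ⟨δ, hδ, hfδ⟩ := huc ((t1 - tm) / (4 * (L + 1))) (by positivity)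
  obtain ⟨s, hsF, hsfin, hscov⟩ := hF.finite_cover_balls (half_pos hδ)
  have : Fintype s := hsfin.fintype
  set N0 : ℕ := Fintype.card s with hN0
  -- the cells
  obtain ⟨J, hJ, Q, B, o, hC, hQ, hB, hJb⟩ := hE (σ / (16 * (N0 + 1))) (by positivity)
  have ho0 : ∀ j, 0 ≤ o j := fun j => (hB j).1
  have hso : 0 ≤ ∑ j, o j := Finset.sum_nonneg fun j _ => ho0 j
  obtain ⟨η, hη, hη1, hη2, hη3, hη4⟩ : ∃ η > 0, η ≤ (t1 - tm) / (8 * (L + 1)) ∧
      η ≤ σ / (16 * (N0 + 1)) ∧ η ≤ θ / (4 * (L + 1)) ∧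
      η ≤ θ * σ / (16 * (L + 1) * ((∑ j, o j) + 1)) := by
    refine ⟨min (min ((t1 - tm) / (8 * (L + 1))) (σ / (16 * (N0 + 1))))
      (min (θ / (4 * (L + 1))) (θ * σ / (16 * (L + 1) * ((∑ j, o j) + 1)))), ?_, ?_, ?_, ?_, ?_⟩
    · refine lt_min (lt_min ?_ ?_) (lt_min ?_ ?_) <;> positivity
    · exact (min_le_left _ _).trans (min_le_left _ _)
    · exact (min_le_left _ _).trans (min_le_right _ _)
    · exact (min_le_right _ _).trans (min_le_left _ _)
    · exact (min_le_right _ _).trans (min_le_right _ _)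
  -- base points of the rims
  let ctr : J → ℝ := fun j => if h : (B j ∩ F).Nonempty then u (f h.some) else 0
  let Jb : Finset J := Finset.univ.filter (fun j => ∃ x ∈ B j ∩ F, t0 ≤ u (f x))
  have hJbE : ∑ j ∈ Jb, o j ^ 2 ≤ E := hJb Jb (fun j hj => (Finset.mem_filter.1 hj).2)
  obtain ⟨Bad, hBm, hBv, hBt⟩ := level_select ho0 ctr Jb hL hη.le hσ hJbE
  refine ⟨η, hη, Bad ∪ Icc t0 (t0 + L * η), hBm.union measurableSet_Icc, ?_, ?_⟩
  · refine (measure_union_le _ _).trans ?_
    have e1 : L * η ≤ θ / 4 := by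
      have : L * η ≤ (L + 1) * (θ / (4 * (L + 1))) :=
        mul_le_mul (by linarith) hη3 hη.le hL1.le
      refine this.trans (le_of_eq ?_)
      field_simp
    have e2 : 4 * L * (E + η * ∑ j, o j) / σ ≤ 3 * θ / 4 := by
      rw [div_le_iff₀ hσ]
      have a1 : L * (η * ∑ j, o j) ≤ θ * σ / 16 := by
        have b1 : η * ∑ j, o j ≤ η * ((∑ j, o j) + 1) :=
          mul_le_mul_of_nonneg_left (by linarith) hη.le
        have b2 : η * ((∑ j, o j) + 1) ≤ θ * σ / (16 * (L + 1)) := by
          have := mul_le_mul_of_nonneg_right hη4 (by linarith : 0 ≤ (∑ j, o j) + 1)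
          refine this.trans (le_of_eq ?_)
          field_simp
        have b3 : L * (η * ∑ j, o j) ≤ (L + 1) * (θ * σ / (16 * (L + 1))) :=
          mul_le_mul (by linarith) (b1.trans b2) (mul_nonneg hη.le hso) hL1.le
        refine b3.trans (le_of_eq ?_)
        field_simp
      nlinarith
    calc volume Bad + volume (Icc t0 (t0 + L * η))
        ≤ ENNReal.ofReal (3 * θ / 4) + ENNReal.ofReal (θ / 4) := by
          refine add_le_add (hBv.trans (ENNReal.ofReal_le_ofReal e2)) ?_
          rw [Real.volume_Icc]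
          refine ENNReal.ofReal_le_ofReal ?_
          linarith
      _ = ENNReal.ofReal θ := by
          rw [← ENNReal.ofReal_add (by positivity) (by positivity)]
          congr 1
          ring
  · intro t ht htB h hh ι K Γ hΓ hK hΓt hKt hsep
    rw [mem_union, not_or] at htB
    obtain ⟨htB1, htB2⟩ := htB
    have ht0 : t0 + L * η < t := by
      by_contra hno
      exact htB2 ⟨ht.1.le, not_lt.1 hno⟩
    -- few significant discs
    choose x hxK hxt using hKt
    have hp : ∀ i, ∃ p ∈ s, x i ∈ ball p (δ / 2) := by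
      intro i
      obtain ⟨p, hp, hxp⟩ := mem_iUnion₂.1 (hscov (hxK i).2)
      exact ⟨p, hp, hxp⟩
    choose p hps hxp using hp
    have hpK : ∀ i, p i ∈ K i := by
      intro i
      have hS : IsPreconnected (F ∩ ball (p i) (δ / 2)) :=
        (hconv.inter (convex_ball _ _)).isPreconnected
      have hsub : F ∩ ball (p i) (δ / 2) ⊆ K i := by
        by_contra hno
        obtain ⟨y, hyS, hyΓ⟩ := hsep i _ inter_subset_left hS ⟨x i, ⟨(hxK i).2, hxp i⟩, (hxK i).1⟩ hno
        have d1 : dist (x i) y < δ := by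
          have a1 := mem_ball.1 (hxp i)
          have a2 := mem_ball.1 hyS.2
          have a3 := dist_triangle_right (x i) y (p i)
          linarith
        have d2 := hfδ (x i) (hxK i).2 y hyS.1 d1
        have d3 := hh (x i) (hxK i).2
        have d4 := hh y hyS.1
        have d5 : dist (h (x i)) (h y) ≤ (t1 - tm) / (4 * (L + 1)) + 2 * η := by
          have a1 := dist_triangle (h (x i)) (f (x i)) (h y)
          have a2 := dist_triangle (f (x i)) (f y) (h y)
          rw [dist_comm] at d4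
          linarith
        have d6 := (le_abs_self _).trans (hu (h (x i)) (h y))
        have d7 : L * dist (h (x i)) (h y) ≤ (t1 - tm) / 2 := by
          have a1 : (t1 - tm) / (4 * (L + 1)) + 2 * η ≤ (t1 - tm) / (2 * (L + 1)) := by
            have : 2 * η ≤ 2 * ((t1 - tm) / (8 * (L + 1))) := by linarith
            have e : (t1 - tm) / (4 * (L + 1)) + 2 * ((t1 - tm) / (8 * (L + 1))) =
                (t1 - tm) / (2 * (L + 1)) := by
              field_simp
              ring
            linarith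
          have a2 : L * dist (h (x i)) (h y) ≤ (L + 1) * ((t1 - tm) / (2 * (L + 1))) :=
            mul_le_mul (by linarith) (d5.trans a1) dist_nonneg hL1.le
          refine a2.trans (le_of_eq ?_)
          field_simp
        have d8 := hΓt i y hyΓ
        have d9 := hxt i
        have d10 := ht.2
        linarith
      exact hsub ⟨hsF (hps i), mem_ball_self (half_pos hδ)⟩
    have hinj : Function.Injective (fun i => (⟨p i, hps i⟩ : s)) := by
      intro i k hik
      by_contra hne
      have h3 : p i = p k := congrArg Subtype.val hik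
      exact (Set.disjoint_left.1 (hK i k hne) (hpK i)) (h3 ▸ hpK k)
    have : Finite ι := Finite.of_injective _ hinj
    have : Fintype ι := Fintype.ofFinite ι
    have hcard : Fintype.card ι ≤ N0 := Fintype.card_le_of_injective _ hinj
    -- the balls
    obtain ⟨n, y, ρ, hρ0, hρs, hρ⟩ := balls_of_cells hC (f := f) (h := h) hL hu
      (ε := σ / (16 * (N0 + 1))) (by positivity) hQ ho0 (fun j => (hB j).2) hη.le hh Γ
      (fun i => (hΓ i).1) (fun i => (hΓ i).2.1) (fun i => (hΓ i).2.2) hΓt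
      (Jb.filter (fun j => |t - ctr j| ≤ L * (o j + η))) (by
        rintro j ⟨z, hz, hzt⟩
        have hne : (B j ∩ F).Nonempty := ⟨z, hz⟩
        have hzt' := abs_le.1 hzt
        rw [Finset.mem_filter]
        refine ⟨?_, ?_⟩
        · simp only [Jb, Finset.mem_filter, Finset.mem_univ, true_and]
          exact ⟨z, hz, by linarith [hzt'.1]⟩
        · simp only [ctr, dif_pos hne]
          have a1 := hu (f z) (f hne.some)
          have a2 := mul_le_mul_of_nonneg_left ((hB j).2 z hz _ hne.some_mem) hL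
          have a3 := abs_le.1 (a1.trans a2)
          rw [abs_le]
          constructor <;> nlinarith [hzt'.1, hzt'.2, a3.1, a3.2])
    refine ⟨n, y, ρ, hρ0, hρs.trans ?_, hρ⟩
    have b1 := hBt t htB1
    have b2 : (Fintype.card ι : ℝ) * (2 * (σ / (16 * (N0 + 1))) + η) ≤ σ / 2 := by
      have c1 : (Fintype.card ι : ℝ) ≤ N0 + 1 := by
        have : (Fintype.card ι : ℝ) ≤ N0 := by exact_mod_cast hcard
        linarith
      have c2 : 2 * (σ / (16 * (N0 + 1 : ℝ))) + η ≤ 3 * (σ / (16 * (N0 + 1))) := by linarith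
      have c3 : (Fintype.card ι : ℝ) * (2 * (σ / (16 * (N0 + 1))) + η) ≤
          (N0 + 1) * (3 * (σ / (16 * (N0 + 1)))) :=
        mul_le_mul c1 c2 (by positivity) (by positivity)
      have c4 : ((N0 : ℝ) + 1) * (3 * (σ / (16 * (N0 + 1)))) = 3 * σ / 16 := by
        field_simp
      linarith
    linarith

end Crest.Agent.R096.Sc_968
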