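/-
helper793, row 96, leaf P2-FACE, part 3: hypothesis `hE` of `Sc_968.small_circles` for almost every
position of a face.
-/
import Mathlib
import Crest.Agent.R096.Fce2_793
import Crest.Agent.R096.Sc3_968

set_option autoImplicit false
set_option linter.unusedSectionVars false

open MeasureTheory Set Filter
open scoped ENNReal Topology

namespace Crest.Agent.R096.Fce_793

open Crest.Agent.R96.Acl_392 Crest.Agent.R96.Sob4_199 Crest.Agent.R096.Sc_968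

noncomputable section

theorem st_edge (n : ℕ) (m : Ix n) {w : ℝ × ℝ} (hw : w ∈ sq n m)
    (h : w.1 = (cor n m).1 ∨ w.1 = (cor n m).1 + hh n ∨ w.2 = (cor n m).2 ∨
      w.2 = (cor n m).2 + hh n) : w ∈ rim n m := by
  obtain ⟨⟨h1, h2⟩, h3, h4⟩ := hw
  rcases h with h | h | h | h
  · refine mem_iUnion.2 ⟨0, mem_iUnion.2 ⟨1, w.2 - (cor n m).2, ⟨by linarith, by linarith⟩, ?_⟩⟩
    ext <;> simp [st, bs, h]
  · refine mem_iUnion.2 ⟨1, mem_iUnion.2 ⟨1, w.2 - (cor n m).2, ⟨by linarith, by linarith⟩, ?_⟩⟩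
    ext <;> simp [st, bs, h]
  · refine mem_iUnion.2 ⟨0, mem_iUnion.2 ⟨0, w.1 - (cor n m).1, ⟨by linarith, by linarith⟩, ?_⟩⟩
    ext <;> simp [st, bs, h]
  · refine mem_iUnion.2 ⟨1, mem_iUnion.2 ⟨0, w.1 - (cor n m).1, ⟨by linarith, by linarith⟩, ?_⟩⟩
    ext <;> simp [st, bs, h]

theorem sq_inter (n : ℕ) {m m' : Ix n} (hm : m ≠ m') {w : ℝ × ℝ} (hw : w ∈ sq n m)
    (hw' : w ∈ sq n m') : w ∈ rim n m := by
  apply st_edge n m hw
  obtain ⟨⟨h1, h2⟩, h3, h4⟩ := hw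
  obtain ⟨⟨h1', h2'⟩, h3', h4'⟩ := hw'
  have hp := hh_pos n
  have key : ∀ (a b : ℕ) (x : ℝ), a ≠ b → a * hh n ≤ x → x ≤ a * hh n + hh n → b * hh n ≤ x →
      x ≤ b * hh n + hh n → x = a * hh n ∨ x = a * hh n + hh n := by
    intro a b x hab ha ha' hb hb'
    rcases lt_or_gt_of_ne hab with h | h
    · right
      have h5 : (a:ℝ) + 1 ≤ b := by exact_mod_cast h
      nlinarith
    · left
      have h5 : (b:ℝ) + 1 ≤ a := by exact_mod_cast h
      nlinarith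
  by_cases h1m : m.1 = m'.1
  · have h2m : (m.2 : ℕ) ≠ m'.2 := fun h => hm (Prod.ext h1m (Fin.ext h))
    rcases key _ _ w.2 h2m h3 h4 h3' h4' with h | h
    · exact Or.inr (Or.inr (Or.inl h))
    · exact Or.inr (Or.inr (Or.inr h))
  · have h2m : (m.1 : ℕ) ≠ m'.1 := fun h => h1m (Fin.ext h)
    rcases key _ _ w.1 h2m h1 h2 h1' h2' with h | h
    · exact Or.inl h
    · exact Or.inr (Or.inl h)

theorem exists_ix (n : ℕ) {x : ℝ} (hx : x ∈ Icc (0:ℝ) 1) :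
    ∃ k : Fin (2 ^ n), (k : ℕ) * hh n ≤ x ∧ x ≤ (k : ℕ) * hh n + hh n := by
  have hp : (0:ℝ) < 2 ^ n := by positivity
  have hN : 0 < 2 ^ n := by positivity
  have he : hh n * 2 ^ n = 1 := by unfold hh; field_simp
  by_cases h1 : ⌊x * 2 ^ n⌋₊ < 2 ^ n
  · refine ⟨⟨_, h1⟩, ?_, ?_⟩
    · have h2 := Nat.floor_le (mul_nonneg hx.1 hp.le)
      calc (⌊x * 2 ^ n⌋₊ : ℝ) * hh n ≤ x * 2 ^ n * hh n := by
            gcongr
            exact (hh_pos n).le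
        _ = x := by rw [mul_assoc, mul_comm (2 ^ n) (hh n), he, mul_one]
    · have h2 := (Nat.lt_floor_add_one (x * 2 ^ n)).le
      calc x = x * 2 ^ n * hh n := by rw [mul_assoc, mul_comm (2 ^ n) (hh n), he, mul_one]
        _ ≤ ((⌊x * 2 ^ n⌋₊ : ℝ) + 1) * hh n := by
            gcongr
            exact (hh_pos n).le
        _ = _ := by ring
  · have h2 : x = 1 := by
      apply le_antisymm hx.2
      have h3 : (2:ℝ) ^ n ≤ x * 2 ^ n := by
        have h4 : ((2 ^ n : ℕ) : ℝ) ≤ ⌊x * 2 ^ n⌋₊ := by exact_mod_cast not_lt.1 h1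
        have h5 := Nat.floor_le (mul_nonneg hx.1 hp.le)
        push_cast at h4
        linarith
      by_contra h
      nlinarith
    refine ⟨⟨2 ^ n - 1, by omega⟩, ?_, ?_⟩
    · have h3 : (((2 ^ n - 1 : ℕ)) : ℝ) = 2 ^ n - 1 := by
        rw [Nat.cast_sub (by omega)]; push_cast; rfl
      simp only [h3]
      rw [h2, sub_mul, mul_comm, he]
      linarith [hh_pos n]
    · have h3 : (((2 ^ n - 1 : ℕ)) : ℝ) = 2 ^ n - 1 := by
        rw [Nat.cast_sub (by omega)]; push_cast; rfl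
      simp only [h3]
      rw [h2, sub_mul, mul_comm, he]
      linarith [hh_pos n]

theorem sq_cover (n : ℕ) {w : ℝ × ℝ} (hw : w ∈ Icc (0:ℝ) 1 ×ˢ Icc (0:ℝ) 1) :
    ∃ m, w ∈ sq n m := by
  obtain ⟨k, h1, h2⟩ := exists_ix n hw.1
  obtain ⟨l, h3, h4⟩ := exists_ix n hw.2
  exact ⟨(k, l), ⟨h1, h2⟩, h3, h4⟩

theorem isCompact_sq (n : ℕ) (m : Ix n) : IsCompact (sq n m) := isCompact_Icc.prod isCompact_Icc

theorem dist_sq_le {n : ℕ} {m : Ix n} {w w' : ℝ × ℝ} (hw : w ∈ sq n m) (hw' : w' ∈ sq n m) :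
    dist w w' ≤ hh n := by
  obtain ⟨⟨h1, h2⟩, h3, h4⟩ := hw
  obtain ⟨⟨h1', h2'⟩, h3', h4'⟩ := hw'
  rw [Prod.dist_eq, Real.dist_eq, Real.dist_eq]
  exact max_le (abs_sub_le_iff.2 ⟨by linarith, by linarith⟩)
    (abs_sub_le_iff.2 ⟨by linarith, by linarith⟩)

theorem sq_cut (n : ℕ) (m : Ix n) {S : Set (ℝ × ℝ)} (hS : IsPreconnected S)
    (h1 : (S ∩ sq n m).Nonempty) (h2 : ¬ S ⊆ sq n m) : (S ∩ rim n m).Nonempty := by
  by_contra hne
  rw [not_nonempty_iff_eq_empty] at hne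
  set U : Set (ℝ × ℝ) := Ioo (cor n m).1 ((cor n m).1 + hh n) ×ˢ
    Ioo (cor n m).2 ((cor n m).2 + hh n) with hU
  have hUo : IsOpen U := isOpen_Ioo.prod isOpen_Ioo
  have hVo : IsOpen (sq n m)ᶜ := (isCompact_sq n m).isClosed.isOpen_compl
  have hmem : ∀ w ∈ S, w ∈ sq n m → w ∈ U := by
    intro w hw hws
    have h3 : w ∉ rim n m := fun h => by
      have : w ∈ S ∩ rim n m := ⟨hw, h⟩
      rw [hne] at this
      exact this
    have h4 : ¬ (w.1 = (cor n m).1 ∨ w.1 = (cor n m).1 + hh n ∨ w.2 = (cor n m).2 ∨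
      w.2 = (cor n m).2 + hh n) := fun h => h3 (st_edge n m hws h)
    push Not at h4
    obtain ⟨⟨h5, h6⟩, h7, h8⟩ := hws
    exact ⟨⟨lt_of_le_of_ne h5 (Ne.symm h4.1), lt_of_le_of_ne h6 h4.2.1⟩,
      lt_of_le_of_ne h7 (Ne.symm h4.2.2.1), lt_of_le_of_ne h8 h4.2.2.2⟩
  have hsub : S ⊆ U ∪ (sq n m)ᶜ := by
    intro w hw
    by_cases h : w ∈ sq n m
    · exact Or.inl (hmem w hw h)
    · exact Or.inr h
  obtain ⟨w1, hw1, hw1'⟩ := h1
  obtain ⟨w2, hw2, hw2'⟩ := not_subset.1 h2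
  obtain ⟨w, -, hwU, hwV⟩ := hS U _ hUo hVo hsub ⟨w1, hw1, hmem _ hw1 hw1'⟩ ⟨w2, hw2, hw2'⟩
  exact hwV ⟨⟨hwU.1.1.le, hwU.1.2.le⟩, hwU.2.1.le, hwU.2.2.le⟩

variable {E : Type*} [NormedAddCommGroup E] [NormedSpace ℝ E] [FiniteDimensional ℝ E]
  [MeasurableSpace E] [BorelSpace E]

/-- the parametrisation as a closed embedding -/
theorem isClosedEmbedding_pt {e : Fin 2 → E} (hli : LinearIndependent ℝ e) (a : E) :
    Topology.IsClosedEmbedding (pt e a) := by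
  let L : (ℝ × ℝ) →ₗ[ℝ] E := (LinearMap.fst ℝ ℝ ℝ).smulRight (e 0) +
    (LinearMap.snd ℝ ℝ ℝ).smulRight (e 1)
  have hL : ∀ w, L w = w.1 • e 0 + w.2 • e 1 := fun w => by simp [L]
  have hker : LinearMap.ker L = ⊥ := by
    rw [LinearMap.ker_eq_bot']
    intro w hw
    rw [hL] at hw
    have h1 := linearIndependent_fin2.1 hli
    have h2 := Fintype.linearIndependent_iff.1 hli ![w.1, w.2] (by simpa [Fin.sum_univ_two] using hw)
    have h3 := h2 0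
    have h4 := h2 1
    simp at h3 h4
    exact Prod.ext h3 h4
  have h1 : Topology.IsClosedEmbedding L := L.isClosedEmbedding_of_injective hker
  have h2 : pt e a = (Homeomorph.addLeft a) ∘ L := by
    funext w
    simp [pt, hL]
  rw [h2]
  exact (Homeomorph.addLeft a).isClosedEmbedding.comp h1

theorem cells {e : Fin 2 → E} (hli : LinearIndependent ℝ e) (a : E) {P : Set (ℝ × ℝ)}
    (hP : P ⊆ Icc (0:ℝ) 1 ×ˢ Icc (0:ℝ) 1) (n : ℕ) :
    Cells (pt e a '' P) (fun m : Ix n => pt e a '' sq n m) (fun m => pt e a '' rim n m) := by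
  have hemb := isClosedEmbedding_pt hli a
  refine ⟨?_, ?_, ?_, ?_, ?_⟩
  · intro m
    exact ((isCompact_sq n m).image (continuous_pt e a)).isClosed
  · intro m
    exact image_mono (rim_subset n m)
  · rintro _ ⟨w, hw, rfl⟩
    obtain ⟨m, hm⟩ := sq_cover n (hP hw)
    exact mem_iUnion.2 ⟨m, w, hm, rfl⟩
  · rintro m m' hm _ ⟨⟨w, hw, rfl⟩, w', hw', he⟩
    have : w' = w := hemb.injective he
    subst this
    exact ⟨⟨w', sq_inter n hm hw hw', rfl⟩, ⟨w', sq_inter n hm.symm hw' hw, rfl⟩⟩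
  · intro m S hS hSc h1 h2
    have h3 : pt e a '' ((pt e a) ⁻¹' S) = S := by
      rw [image_preimage_eq_iff]
      exact hS.trans (image_subset_range _ _)
    have h4 : IsPreconnected ((pt e a) ⁻¹' S) := by
      rw [← hemb.isInducing.isPreconnected_image, h3]
      exact hSc
    obtain ⟨x, hxS, w, hw, rfl⟩ := h1
    obtain ⟨w', hw', hw''⟩ := sq_cut n m h4 ⟨w, hxS, hw⟩ (by
      intro hsub
      apply h2
      rw [← h3]
      exact image_mono hsub)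
    exact ⟨pt e a w', hw', w', hw'', rfl⟩

variable {μ : Measure E} [μ.IsAddHaarMeasure] {ι : Type*} [Fintype ι]

theorem ofReal_oo_sq_le {Ω : Set E} {f : E → EuclideanSpace ℝ ι} {e : Fin 2 → E}
    {D : Fin 2 → E → EuclideanSpace ℝ ι} {G : E → ℝ≥0∞} {a : E} (hp : Pos Ω f D G e a) {n : ℕ}
    {m : Ix n} (h : ∀ w ∈ sq n m, pt e a w ∈ Ω) :
    ENNReal.ofReal (oo D e a n m ^ 2) ≤ 4 * (ENNReal.ofReal (hh n) * isq G e a n m) := by
  by_cases hfin : isq G e a n m = ∞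
  · have h1 : ENNReal.ofReal (hh n) ≠ 0 := by
      rw [Ne, ENNReal.ofReal_eq_zero, not_le]
      exact hh_pos n
    rw [hfin, ENNReal.mul_top h1, ENNReal.mul_top (by norm_num)]
    exact le_top
  · have h1 := oo_sq_le hp h hfin
    calc ENNReal.ofReal (oo D e a n m ^ 2)
        ≤ ENNReal.ofReal (4 * (hh n * (isq G e a n m).toReal)) := ENNReal.ofReal_le_ofReal h1
      _ = 4 * (ENNReal.ofReal (hh n) * isq G e a n m) := by
          rw [ENNReal.ofReal_mul (by norm_num), ENNReal.ofReal_mul (hh_pos n).le,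
            ENNReal.ofReal_toReal hfin]
          norm_num

theorem ie_indicator {G : E → ℝ≥0∞} {e : Fin 2 → E} {a : E} {S : Set E} {n : ℕ} {m : Ix n}
    {w0 : ℝ × ℝ} (hw0 : w0 ∈ sq n m) (hS : pt e a w0 ∈ S) :
    isq ((TT e S n).indicator G) e a n m = isq G e a n m := by
  unfold isq ie
  refine Finset.sum_congr rfl fun k _ => Finset.sum_congr rfl fun i _ => ?_
  apply setLIntegral_congr_fun measurableSet_Icc
  intro τ hτ
  have h1 : pt e a (st n m k i) + τ • e i ∈ TT e S n := by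
    rw [← pt_add]
    exact Metric.mem_cthickening_of_dist_le _ (pt e a w0) _ _ hS
      (dist_pt_le e a (edg_subset n m k i ⟨τ, hτ, rfl⟩) hw0)
  simp only [indicator_of_mem h1]

/-- **the energy of a face in a good position** -/
theorem hE_of_pos {Ω : Set E} {f : E → EuclideanSpace ℝ ι} (hf : ContinuousOn f Ω)
    {e : Fin 2 → E} (hli : LinearIndependent ℝ e)
    {D : Fin 2 → E → EuclideanSpace ℝ ι} {G : E → ℝ≥0∞} {a : E} (hp : Pos Ω f D G e a)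
    {P : Set (ℝ × ℝ)} (hPc : IsCompact P) (hP : P ⊆ Icc (0:ℝ) 1 ×ˢ Icc (0:ℝ) 1)
    (hPΩ : pt e a '' P ⊆ Ω) {S : Set E} {E0 : ℝ} (hE0 : 4 * Ee G e P S a < ENNReal.ofReal E0)
    {u : EuclideanSpace ℝ ι → ℝ} (hu : Continuous u) {t0 : ℝ}
    (hbd : ∀ w ∈ P, w ∉ interior P → u (f (pt e a w)) < t0)
    (hS : ∀ w ∈ P, t0 ≤ u (f (pt e a w)) → pt e a w ∈ S) :
    ∀ ε > 0, ∃ (J : Type) (_ : Fintype J) (Q B : J → Set E) (o : J → ℝ),
      Cells (pt e a '' P) Q B ∧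
      (∀ j, ∀ x ∈ Q j ∩ pt e a '' P, ∀ y ∈ Q j ∩ pt e a '' P, dist (f x) (f y) ≤ ε) ∧
      (∀ j, 0 ≤ o j ∧ ∀ x ∈ B j ∩ pt e a '' P, ∀ y ∈ B j ∩ pt e a '' P,
        dist (f x) (f y) ≤ o j) ∧
      ∀ Jb : Finset J, (∀ j ∈ Jb, ∃ x ∈ B j ∩ pt e a '' P, t0 ≤ u (f x)) →
        ∑ j ∈ Jb, o j ^ 2 ≤ E0 := by
  classical
  intro ε hε
  have hemb := isClosedEmbedding_pt hli a
  have hpt := continuous_pt e a
  have hfc : ContinuousOn (fun w => f (pt e a w)) P :=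
    hf.comp hpt.continuousOn fun w hw => hPΩ ⟨w, hw, rfl⟩
  -- the bad points
  set Z : Set (ℝ × ℝ) := P ∩ {w | t0 ≤ u (f (pt e a w))} with hZ
  have hZc : IsCompact Z := by
    have h1 : ContinuousOn (fun w => u (f (pt e a w))) P := hu.comp_continuousOn hfc
    have h2 : IsClosed (P ∩ (fun w => u (f (pt e a w))) ⁻¹' Ici t0) :=
      h1.preimage_isClosed_of_isClosed hPc.isClosed isClosed_Ici
    exact hPc.of_isClosed_subset h2 inter_subset_left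
  have hZi : Z ⊆ interior P := by
    intro w hw
    by_contra h
    exact absurd hw.2 (not_le.2 (hbd w hw.1 h))
  obtain ⟨δ, hδ, hδZ⟩ := hZc.exists_cthickening_subset_open isOpen_interior hZi
  -- uniform continuity
  have huc := hPc.uniformContinuousOn_of_continuous hfc
  rw [Metric.uniformContinuousOn_iff] at huc
  obtain ⟨δ', hδ', huc'⟩ := huc ε hε
  -- the level
  have hev : ∀ᶠ n in atTop, hh n < min δ δ' :=
    (tendsto_order.1 tendsto_hh).2 _ (lt_min hδ hδ')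
  have hEe : Ee G e P S a < ENNReal.ofReal E0 / 4 := by
    rw [ENNReal.lt_div_iff_mul_lt (Or.inl (by norm_num)) (Or.inl (by norm_num)), mul_comm]
    exact hE0
  have hfr : ∃ᶠ n in atTop, En G e P S n a < ENNReal.ofReal E0 / 4 :=
    frequently_lt_of_liminf_lt (by isBoundedDefault) hEe
  obtain ⟨n, hn1, hn2⟩ := (hfr.and_eventually hev).exists
  have hnδ : hh n < δ := hn2.trans_le (min_le_left _ _)
  have hnδ' : hh n < δ' := hn2.trans_le (min_le_right _ _)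
  have hosc : ∀ m : Ix n, ∀ x ∈ pt e a '' sq n m ∩ pt e a '' P,
      ∀ y ∈ pt e a '' sq n m ∩ pt e a '' P, dist (f x) (f y) ≤ ε := by
    rintro m x ⟨⟨w, hw, rfl⟩, v, hv, hvw⟩ y ⟨⟨w', hw', rfl⟩, v', hv', hvw'⟩
    have e1 : v = w := hemb.injective hvw
    have e2 : v' = w' := hemb.injective hvw'
    subst e1 e2
    exact (huc' _ hv _ hv' ((dist_sq_le hw hw').trans_lt hnδ')).le
  let bad : Ix n → Prop := fun m => ∃ w ∈ rim n m, w ∈ Z
  have hbad : ∀ m, bad m → sq n m ⊆ P := by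
    rintro m ⟨w, hw, hwZ⟩ w' hw'
    apply interior_subset
    apply hδZ
    exact Metric.mem_cthickening_of_dist_le _ w _ _ hwZ
      ((dist_sq_le hw' (rim_subset n m hw)).trans hnδ.le)
  refine ⟨Ix n, inferInstance, fun m => pt e a '' sq n m, fun m => pt e a '' rim n m,
    fun m => if bad m then oo D e a n m else ε, cells hli a hP n, hosc, ?_, ?_⟩
  · intro m
    by_cases hb : bad m
    · simp only [hb, if_true]
      refine ⟨oo_nonneg _ _ _ _ _, ?_⟩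
      rintro x ⟨⟨w, hw, rfl⟩, -⟩ y ⟨⟨w', hw', rfl⟩, -⟩
      exact oo_osc hp (fun v hv => hPΩ ⟨v, hbad m hb hv, rfl⟩) hw hw'
    · simp only [hb, if_false]
      refine ⟨hε.le, ?_⟩
      rintro x ⟨⟨w, hw, rfl⟩, hx⟩ y ⟨⟨w', hw', rfl⟩, hy⟩
      exact hosc m _ ⟨⟨w, rim_subset n m hw, rfl⟩, hx⟩ _ ⟨⟨w', rim_subset n m hw', rfl⟩, hy⟩
  · intro Jb hJb
    have hJ : ∀ m ∈ Jb, bad m := by
      intro m hm
      obtain ⟨x, ⟨⟨w, hw, rfl⟩, v, hv, hvw⟩, hx⟩ := hJb m hm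
      have e1 : v = w := hemb.injective hvw
      subst e1
      exact ⟨v, hw, hv, hx⟩
    have h1 : ∑ m ∈ Jb, (if bad m then oo D e a n m else ε) ^ 2 = ∑ m ∈ Jb, oo D e a n m ^ 2 :=
      Finset.sum_congr rfl fun m hm => by rw [if_pos (hJ m hm)]
    rw [h1]
    have hE0' : 0 ≤ E0 := by
      by_contra h
      rw [ENNReal.ofReal_of_nonpos (not_le.1 h).le] at hE0
      exact absurd hE0 (not_lt.2 (zero_le))
    have h2 : ENNReal.ofReal (∑ m ∈ Jb, oo D e a n m ^ 2) ≤ ENNReal.ofReal E0 := by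
      rw [ENNReal.ofReal_sum_of_nonneg fun m _ => sq_nonneg _]
      calc ∑ m ∈ Jb, ENNReal.ofReal (oo D e a n m ^ 2)
          ≤ ∑ m ∈ Jb, 4 * (ENNReal.ofReal (hh n) *
              (if sq n m ⊆ P then isq ((TT e S n).indicator G) e a n m else 0)) := by
            refine Finset.sum_le_sum fun m hm => ?_
            have hb := hJ m hm
            obtain ⟨w, hw, hwZ⟩ := hb
            rw [if_pos (hbad m ⟨w, hw, hwZ⟩), ie_indicator (rim_subset n m hw) (hS w hwZ.1 hwZ.2)]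
            exact ofReal_oo_sq_le hp fun v hv => hPΩ ⟨v, hbad m ⟨w, hw, hwZ⟩ hv, rfl⟩
        _ ≤ ∑ m : Ix n, 4 * (ENNReal.ofReal (hh n) *
              (if sq n m ⊆ P then isq ((TT e S n).indicator G) e a n m else 0)) :=
            Finset.sum_le_sum_of_subset (Finset.subset_univ _)
        _ = 4 * En G e P S n a := by
            unfold En
            rw [Finset.mul_sum, Finset.mul_sum]
        _ ≤ 4 * (ENNReal.ofReal E0 / 4) := by gcongr
        _ = ENNReal.ofReal E0 := ENNReal.mul_div_cancel (by norm_num) (by norm_num)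
    exact (ENNReal.ofReal_le_ofReal_iff hE0').1 h2

/-- **P2-FACE** -/
theorem face {Ω : Set E} (hΩ : IsOpen Ω) {f : E → EuclideanSpace ℝ ι} (hf : ContinuousOn f Ω)
    {e : Fin 2 → E} (hli : LinearIndependent ℝ e)
    {D : Fin 2 → E → EuclideanSpace ℝ ι} (hD : ∀ i, VWD Ω μ f (D i) (e i))
    {G : E → ℝ≥0∞} (hGm : Measurable G) (hG : ∀ i, ∀ᵐ x ∂μ, x ∈ Ω → ‖D i x‖ₑ ^ 2 ≤ G x)
    {P : Set (ℝ × ℝ)} (hPc : IsCompact P) (hP : P ⊆ Icc (0:ℝ) 1 ×ˢ Icc (0:ℝ) 1)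
    {S : Set E} (hS : IsClosed S) :
    ∃ 𝓔 : E → ℝ≥0∞, Measurable 𝓔 ∧
      (∀ A R : Set E, MeasurableSet A → MeasurableSet R → (∀ a ∈ A, ∀ w ∈ P, pt e a w ∈ R) →
        ∫⁻ x in R, G x ∂μ ≠ ∞ → ∫⁻ a in A, 𝓔 a ∂μ ≤ 16 * ∫⁻ x in R ∩ S, G x ∂μ) ∧
      ∀ᵐ a ∂μ, pt e a '' P ⊆ Ω → ∀ E0 : ℝ, 𝓔 a < ENNReal.ofReal E0 →
        ∀ u : EuclideanSpace ℝ ι → ℝ, Continuous u → ∀ t0 : ℝ,
        (∀ w ∈ P, w ∉ interior P → u (f (pt e a w)) < t0) →
        (∀ w ∈ P, t0 ≤ u (f (pt e a w)) → pt e a w ∈ S) →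
        ∀ ε > 0, ∃ (J : Type) (_ : Fintype J) (Q B : J → Set E) (o : J → ℝ),
          Cells (pt e a '' P) Q B ∧
          (∀ j, ∀ x ∈ Q j ∩ pt e a '' P, ∀ y ∈ Q j ∩ pt e a '' P, dist (f x) (f y) ≤ ε) ∧
          (∀ j, 0 ≤ o j ∧ ∀ x ∈ B j ∩ pt e a '' P, ∀ y ∈ B j ∩ pt e a '' P,
            dist (f x) (f y) ≤ o j) ∧
          ∀ Jb : Finset J, (∀ j ∈ Jb, ∃ x ∈ B j ∩ pt e a '' P, t0 ≤ u (f x)) →
            ∑ j ∈ Jb, o j ^ 2 ≤ E0 := by
  refine ⟨fun a => 4 * Ee G e P S a, (measurable_Ee hGm e P S).const_mul 4, ?_, ?_⟩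
  · intro A R hA hR hAR hfin
    rw [lintegral_const_mul _ (measurable_Ee hGm e P S)]
    have h1 := lintegral_Ee_le (μ := μ) hGm e hS hA hR hAR hfin
    calc 4 * ∫⁻ a in A, Ee G e P S a ∂μ ≤ 4 * (4 * ∫⁻ x in R ∩ S, G x ∂μ) := by gcongr
      _ = 16 * ∫⁻ x in R ∩ S, G x ∂μ := by rw [← mul_assoc]; norm_num
  · filter_upwards [ae_pos (μ := μ) hΩ hf hD hG] with a ha hPΩ E0 hE0 u hu t0 hbd hSS
    exact hE_of_pos hf hli ha hPc hP hPΩ hE0 hu hbd hSS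

end

end Crest.Agent.R096.Fce_793
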