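/-
helper793, row 96, leaf P2-FACE, part 4: hypothesis `hE` of `small_circles_pre` (753, post #10029):
the cells of `face` are the squares of a dyadic grid, with closed rims, of diameter
`≤ d = cc e * 2^-n`, and `d^2 * card = (cc e)^2`.
-/
import Mathlib
import Crest.Agent.R096.Fce3_793

set_option autoImplicit false
set_option linter.unusedSectionVars false

open MeasureTheory Set Filter
open scoped ENNReal Topology

namespace Crest.Agent.R096.Fce_793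

open Crest.Agent.R96.Acl_392 Crest.Agent.R96.Sob4_199 Crest.Agent.R096.Sc_968

noncomputable section

variable {E : Type*} [NormedAddCommGroup E] [NormedSpace ℝ E] [FiniteDimensional ℝ E]
  [MeasurableSpace E] [BorelSpace E]

variable {μ : Measure E} [μ.IsAddHaarMeasure] {ι : Type*} [Fintype ι]

theorem cc_pos {e : Fin 2 → E} (hli : LinearIndependent ℝ e) : 0 < cc e := by
  have h0 : 0 < ‖e 0‖ := norm_pos_iff.2 (hli.ne_zero 0)
  unfold cc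
  have := norm_nonneg (e 1)
  linarith

theorem isCompact_edg (n : ℕ) (m : Ix n) (k i : Fin 2) : IsCompact (edg n m k i) := by
  unfold edg
  apply isCompact_Icc.image
  fun_prop

theorem isCompact_rim (n : ℕ) (m : Ix n) : IsCompact (rim n m) := by
  unfold rim
  exact isCompact_iUnion fun k => isCompact_iUnion fun i => isCompact_edg n m k i

theorem card_Ix (n : ℕ) : (Fintype.card (Ix n) : ℝ) = 2 ^ n * 2 ^ n := by
  rw [Fintype.card_prod, Fintype.card_fin]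
  push_cast
  rfl

theorem sq_card (e : Fin 2 → E) (n : ℕ) : (cc e * hh n) ^ 2 * (Fintype.card (Ix n) : ℝ) = cc e ^ 2 := by
  rw [card_Ix]
  unfold hh
  field_simp

/-- **the energy of a face in a good position**, explicit form: the cells are the squares of a
dyadic grid, as fine as we like -/
theorem hE_n {Ω : Set E} {f : E → EuclideanSpace ℝ ι} (hf : ContinuousOn f Ω)
    {e : Fin 2 → E} (hli : LinearIndependent ℝ e)
    {D : Fin 2 → E → EuclideanSpace ℝ ι} {G : E → ℝ≥0∞} {a : E} (hp : Pos Ω f D G e a)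
    {P : Set (ℝ × ℝ)} (hPc : IsCompact P) (hP : P ⊆ Icc (0:ℝ) 1 ×ˢ Icc (0:ℝ) 1)
    (hPΩ : pt e a '' P ⊆ Ω) {S : Set E} {E0 : ℝ} (hE0 : 4 * Ee G e P S a < ENNReal.ofReal E0)
    {u : EuclideanSpace ℝ ι → ℝ} (hu : Continuous u) {t0 : ℝ}
    (hbd : ∀ w ∈ P, w ∉ interior P → u (f (pt e a w)) < t0)
    (hS : ∀ w ∈ P, t0 ≤ u (f (pt e a w)) → pt e a w ∈ S) :
    ∀ ε > 0, ∀ N : ℕ, ∃ n ≥ N, ∃ o : Ix n → ℝ,
      (∀ j, ∀ x ∈ pt e a '' sq n j ∩ pt e a '' P, ∀ y ∈ pt e a '' sq n j ∩ pt e a '' P,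
        dist (f x) (f y) ≤ ε) ∧
      (∀ j, 0 ≤ o j ∧ ∀ x ∈ pt e a '' rim n j ∩ pt e a '' P, ∀ y ∈ pt e a '' rim n j ∩ pt e a '' P,
        dist (f x) (f y) ≤ o j) ∧
      ∀ Jb : Finset (Ix n), (∀ j ∈ Jb, ∃ x ∈ pt e a '' rim n j ∩ pt e a '' P, t0 ≤ u (f x)) →
        ∑ j ∈ Jb, o j ^ 2 ≤ E0 := by
  classical
  intro ε hε N
  have hemb := isClosedEmbedding_pt hli a
  have hpt := continuous_pt e a
  have hfc : ContinuousOn (fun w => f (pt e a w)) P :=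
    hf.comp hpt.continuousOn fun w hw => hPΩ ⟨w, hw, rfl⟩
  -- the bad points
  set Z : Set (ℝ × ℝ) := P ∩ {w | t0 ≤ u (f (pt e a w))} with hZ
  have hZc : IsCompact Z := by
    have h1 : ContinuousOn (fun w => u (f (pt e a w))) P := hu.comp_continuousOn hfc
    have h2 : IsClosed (P ∩ (fun w => u (f (pt e a w))) ⁻¹' Ici t0) :=
      h1.preimage_isClosed_of_isClosed hPc.isClosed isClosed_Ici
    exact hPc.of_isClosed_subset h2 inter_subset_left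
  have hZi : Z ⊆ interior P := by
    intro w hw
    by_contra h
    exact absurd hw.2 (not_le.2 (hbd w hw.1 h))
  obtain ⟨δ, hδ, hδZ⟩ := hZc.exists_cthickening_subset_open isOpen_interior hZi
  -- uniform continuity
  have huc := hPc.uniformContinuousOn_of_continuous hfc
  rw [Metric.uniformContinuousOn_iff] at huc
  obtain ⟨δ', hδ', huc'⟩ := huc ε hε
  -- the level
  have hev : ∀ᶠ n in atTop, hh n < min δ δ' :=
    (tendsto_order.1 tendsto_hh).2 _ (lt_min hδ hδ')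
  have hEe : Ee G e P S a < ENNReal.ofReal E0 / 4 := by
    rw [ENNReal.lt_div_iff_mul_lt (Or.inl (by norm_num)) (Or.inl (by norm_num)), mul_comm]
    exact hE0
  have hfr : ∃ᶠ n in atTop, En G e P S n a < ENNReal.ofReal E0 / 4 :=
    frequently_lt_of_liminf_lt (by isBoundedDefault) hEe
  obtain ⟨n, ⟨hn1, hn2⟩, hnN⟩ := ((hfr.and_eventually hev).and_eventually
    (eventually_ge_atTop N)).exists
  have hnδ : hh n < δ := hn2.trans_le (min_le_left _ _)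
  have hnδ' : hh n < δ' := hn2.trans_le (min_le_right _ _)
  have hosc : ∀ m : Ix n, ∀ x ∈ pt e a '' sq n m ∩ pt e a '' P,
      ∀ y ∈ pt e a '' sq n m ∩ pt e a '' P, dist (f x) (f y) ≤ ε := by
    rintro m x ⟨⟨w, hw, rfl⟩, v, hv, hvw⟩ y ⟨⟨w', hw', rfl⟩, v', hv', hvw'⟩
    have e1 : v = w := hemb.injective hvw
    have e2 : v' = w' := hemb.injective hvw'
    subst e1 e2
    exact (huc' _ hv _ hv' ((dist_sq_le hw hw').trans_lt hnδ')).le
  let bad : Ix n → Prop := fun m => ∃ w ∈ rim n m, w ∈ Z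
  have hbad : ∀ m, bad m → sq n m ⊆ P := by
    rintro m ⟨w, hw, hwZ⟩ w' hw'
    apply interior_subset
    apply hδZ
    exact Metric.mem_cthickening_of_dist_le _ w _ _ hwZ
      ((dist_sq_le hw' (rim_subset n m hw)).trans hnδ.le)
  refine ⟨n, hnN, fun m => if bad m then oo D e a n m else ε, hosc, ?_, ?_⟩
  · intro m
    by_cases hb : bad m
    · simp only [hb, if_true]
      refine ⟨oo_nonneg _ _ _ _ _, ?_⟩
      rintro x ⟨⟨w, hw, rfl⟩, -⟩ y ⟨⟨w', hw', rfl⟩, -⟩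
      exact oo_osc hp (fun v hv => hPΩ ⟨v, hbad m hb hv, rfl⟩) hw hw'
    · simp only [hb, if_false]
      refine ⟨hε.le, ?_⟩
      rintro x ⟨⟨w, hw, rfl⟩, hx⟩ y ⟨⟨w', hw', rfl⟩, hy⟩
      exact hosc m _ ⟨⟨w, rim_subset n m hw, rfl⟩, hx⟩ _ ⟨⟨w', rim_subset n m hw', rfl⟩, hy⟩
  · intro Jb hJb
    have hJ : ∀ m ∈ Jb, bad m := by
      intro m hm
      obtain ⟨x, ⟨⟨w, hw, rfl⟩, v, hv, hvw⟩, hx⟩ := hJb m hm
      have e1 : v = w := hemb.injective hvw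
      subst e1
      exact ⟨v, hw, hv, hx⟩
    have h1 : ∑ m ∈ Jb, (if bad m then oo D e a n m else ε) ^ 2 = ∑ m ∈ Jb, oo D e a n m ^ 2 :=
      Finset.sum_congr rfl fun m hm => by rw [if_pos (hJ m hm)]
    rw [h1]
    have hE0' : 0 ≤ E0 := by
      by_contra h
      rw [ENNReal.ofReal_of_nonpos (not_le.1 h).le] at hE0
      exact absurd hE0 (not_lt.2 (zero_le))
    have h2 : ENNReal.ofReal (∑ m ∈ Jb, oo D e a n m ^ 2) ≤ ENNReal.ofReal E0 := by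
      rw [ENNReal.ofReal_sum_of_nonneg fun m _ => sq_nonneg _]
      calc ∑ m ∈ Jb, ENNReal.ofReal (oo D e a n m ^ 2)
          ≤ ∑ m ∈ Jb, 4 * (ENNReal.ofReal (hh n) *
              (if sq n m ⊆ P then isq ((TT e S n).indicator G) e a n m else 0)) := by
            refine Finset.sum_le_sum fun m hm => ?_
            have hb := hJ m hm
            obtain ⟨w, hw, hwZ⟩ := hb
            rw [if_pos (hbad m ⟨w, hw, hwZ⟩), ie_indicator (rim_subset n m hw) (hS w hwZ.1 hwZ.2)]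
            exact ofReal_oo_sq_le hp fun v hv => hPΩ ⟨v, hbad m ⟨w, hw, hwZ⟩ hv, rfl⟩
        _ ≤ ∑ m : Ix n, 4 * (ENNReal.ofReal (hh n) *
              (if sq n m ⊆ P then isq ((TT e S n).indicator G) e a n m else 0)) :=
            Finset.sum_le_sum_of_subset (Finset.subset_univ _)
        _ = 4 * En G e P S n a := by
            unfold En
            rw [Finset.mul_sum, Finset.mul_sum]
        _ ≤ 4 * (ENNReal.ofReal E0 / 4) := by gcongr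
        _ = ENNReal.ofReal E0 := ENNReal.mul_div_cancel (by norm_num) (by norm_num)
    exact (ENNReal.ofReal_le_ofReal_iff hE0').1 h2

/-- the literal hypothesis `hE` of `small_circles_pre`, `S = cc e = ‖e 0‖ + ‖e 1‖`; the diameter
`d` of the cells can be taken `≤ d0` -/
theorem hE_pre {Ω : Set E} {f : E → EuclideanSpace ℝ ι} (hf : ContinuousOn f Ω)
    {e : Fin 2 → E} (hli : LinearIndependent ℝ e)
    {D : Fin 2 → E → EuclideanSpace ℝ ι} {G : E → ℝ≥0∞} {a : E} (hp : Pos Ω f D G e a)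
    {P : Set (ℝ × ℝ)} (hPc : IsCompact P) (hP : P ⊆ Icc (0:ℝ) 1 ×ˢ Icc (0:ℝ) 1)
    (hPΩ : pt e a '' P ⊆ Ω) {S : Set E} {E0 : ℝ} (hE0 : 4 * Ee G e P S a < ENNReal.ofReal E0)
    {u : EuclideanSpace ℝ ι → ℝ} (hu : Continuous u) {t0 : ℝ}
    (hbd : ∀ w ∈ P, w ∉ interior P → u (f (pt e a w)) < t0)
    (hS : ∀ w ∈ P, t0 ≤ u (f (pt e a w)) → pt e a w ∈ S) {d0 : ℝ} (hd0 : 0 < d0) :
    ∀ ε > 0, ∃ (J : Type) (_ : Fintype J) (Q B : J → Set E) (o : J → ℝ) (d : ℝ), 0 < d ∧ d ≤ d0 ∧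
      Cells (pt e a '' P) Q B ∧ (∀ j, IsClosed (B j)) ∧
      (∀ j, ∀ x ∈ Q j ∩ pt e a '' P, ∀ y ∈ Q j ∩ pt e a '' P, dist x y ≤ d) ∧
      d ^ 2 * Fintype.card J ≤ cc e ^ 2 ∧
      (∀ j, ∀ x ∈ Q j ∩ pt e a '' P, ∀ y ∈ Q j ∩ pt e a '' P, dist (f x) (f y) ≤ ε) ∧
      (∀ j, 0 ≤ o j ∧ ∀ x ∈ B j ∩ pt e a '' P, ∀ y ∈ B j ∩ pt e a '' P,
        dist (f x) (f y) ≤ o j) ∧
      ∀ Jb : Finset J, (∀ j ∈ Jb, ∃ x ∈ B j ∩ pt e a '' P, t0 ≤ u (f x)) →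
        ∑ j ∈ Jb, o j ^ 2 ≤ E0 := by
  intro ε hε
  have h1 : Tendsto (fun n => cc e * hh n) atTop (𝓝 0) := by
    have := tendsto_hh.const_mul (cc e)
    rwa [mul_zero] at this
  obtain ⟨N, hN⟩ := eventually_atTop.1 ((tendsto_order.1 h1).2 d0 hd0)
  obtain ⟨n, hn, o, h2, h3, h4⟩ := hE_n hf hli hp hPc hP hPΩ hE0 hu hbd hS ε hε N
  refine ⟨Ix n, inferInstance, fun m => pt e a '' sq n m, fun m => pt e a '' rim n m, o,
    cc e * hh n, mul_pos (cc_pos hli) (hh_pos n), (hN n hn).le, cells hli a hP n, ?_, ?_, ?_,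
    h2, h3, h4⟩
  · intro j
    exact ((isCompact_rim n j).image (continuous_pt e a)).isClosed
  · rintro j x ⟨⟨w, hw, rfl⟩, -⟩ y ⟨⟨w', hw', rfl⟩, -⟩
    exact dist_pt_le e a hw hw'
  · exact (sq_card e n).le

/-- **P2-FACE**, version for `small_circles_pre` -/
theorem face_pre {Ω : Set E} (hΩ : IsOpen Ω) {f : E → EuclideanSpace ℝ ι} (hf : ContinuousOn f Ω)
    {e : Fin 2 → E} (hli : LinearIndependent ℝ e)
    {D : Fin 2 → E → EuclideanSpace ℝ ι} (hD : ∀ i, VWD Ω μ f (D i) (e i))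
    {G : E → ℝ≥0∞} (hGm : Measurable G) (hG : ∀ i, ∀ᵐ x ∂μ, x ∈ Ω → ‖D i x‖ₑ ^ 2 ≤ G x)
    {P : Set (ℝ × ℝ)} (hPc : IsCompact P) (hP : P ⊆ Icc (0:ℝ) 1 ×ˢ Icc (0:ℝ) 1)
    {S : Set E} (hS : IsClosed S) :
    ∃ 𝓔 : E → ℝ≥0∞, Measurable 𝓔 ∧
      (∀ A R : Set E, MeasurableSet A → MeasurableSet R → (∀ a ∈ A, ∀ w ∈ P, pt e a w ∈ R) →
        ∫⁻ x in R, G x ∂μ ≠ ∞ → ∫⁻ a in A, 𝓔 a ∂μ ≤ 16 * ∫⁻ x in R ∩ S, G x ∂μ) ∧
      ∀ᵐ a ∂μ, pt e a '' P ⊆ Ω → ∀ E0 : ℝ, 𝓔 a < ENNReal.ofReal E0 →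
        ∀ u : EuclideanSpace ℝ ι → ℝ, Continuous u → ∀ t0 : ℝ,
        (∀ w ∈ P, w ∉ interior P → u (f (pt e a w)) < t0) →
        (∀ w ∈ P, t0 ≤ u (f (pt e a w)) → pt e a w ∈ S) → ∀ d0 > 0,
        ∀ ε > 0, ∃ (J : Type) (_ : Fintype J) (Q B : J → Set E) (o : J → ℝ) (d : ℝ),
          0 < d ∧ d ≤ d0 ∧ Cells (pt e a '' P) Q B ∧ (∀ j, IsClosed (B j)) ∧
          (∀ j, ∀ x ∈ Q j ∩ pt e a '' P, ∀ y ∈ Q j ∩ pt e a '' P, dist x y ≤ d) ∧
          d ^ 2 * Fintype.card J ≤ cc e ^ 2 ∧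
          (∀ j, ∀ x ∈ Q j ∩ pt e a '' P, ∀ y ∈ Q j ∩ pt e a '' P, dist (f x) (f y) ≤ ε) ∧
          (∀ j, 0 ≤ o j ∧ ∀ x ∈ B j ∩ pt e a '' P, ∀ y ∈ B j ∩ pt e a '' P,
            dist (f x) (f y) ≤ o j) ∧
          ∀ Jb : Finset J, (∀ j ∈ Jb, ∃ x ∈ B j ∩ pt e a '' P, t0 ≤ u (f x)) →
            ∑ j ∈ Jb, o j ^ 2 ≤ E0 := by
  refine ⟨fun a => 4 * Ee G e P S a, (measurable_Ee hGm e P S).const_mul 4, ?_, ?_⟩
  · intro A R hA hR hAR hfin
    rw [lintegral_const_mul _ (measurable_Ee hGm e P S)]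
    have h1 := lintegral_Ee_le (μ := μ) hGm e hS hA hR hAR hfin
    calc 4 * ∫⁻ a in A, Ee G e P S a ∂μ ≤ 4 * (4 * ∫⁻ x in R ∩ S, G x ∂μ) := by gcongr
      _ = 16 * ∫⁻ x in R ∩ S, G x ∂μ := by rw [← mul_assoc]; norm_num
  · filter_upwards [ae_pos (μ := μ) hΩ hf hD hG] with a ha hPΩ E0 hE0 u hu t0 hbd hSS d0 hd0
    exact hE_pre hf hli ha hPc hP hPΩ hE0 hu hbd hSS hd0

end

end Crest.Agent.R096.Fce_793
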