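import Crest.Agent.R096.Scp1_753

/-!
# R096 (S0127), p = 2: small circles, balls chosen before the approximating map, part 2 (helper753)
-/

set_option autoImplicit false

namespace Crest.Agent.R096.Scp_753

open MeasureTheory Set Metric
open scoped ENNReal
open Crest.Agent.R096.Sc_968

/-- **small circles, balls first** -/
theorem small_circles_pre {X Y : Type*} [NormedAddCommGroup X] [NormedSpace ℝ X]
    [PseudoMetricSpace Y] {F : Set X} (hF : IsCompact F) (hconv : Convex ℝ F) {f : X → Y}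
    (hf : ContinuousOn f F) {u : Y → ℝ} {L : ℝ} (hL : 0 ≤ L)
    (hu : ∀ y z, |u y - u z| ≤ L * dist y z) {t0 tm t1 : ℝ} (h1 : tm < t1)
    {E S σ θ : ℝ} (hS : 0 ≤ S) (hσ : 0 < σ) (hθ : 0 < θ)
    (hE : ∀ ε > 0, ∃ (J : Type) (_ : Fintype J) (Q B : J → Set X) (o : J → ℝ) (d : ℝ),
      0 < d ∧ d ≤ ε ∧ Cells F Q B ∧ (∀ j, IsClosed (B j)) ∧
      (∀ j, ∀ x ∈ Q j ∩ F, ∀ y ∈ Q j ∩ F, dist x y ≤ d) ∧ d ^ 2 * Fintype.card J ≤ S ^ 2 ∧
      (∀ j, ∀ x ∈ Q j ∩ F, ∀ y ∈ Q j ∩ F, dist (f x) (f y) ≤ ε) ∧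
      (∀ j, 0 ≤ o j ∧ ∀ x ∈ B j ∩ F, ∀ y ∈ B j ∩ F, dist (f x) (f y) ≤ o j) ∧
      ∀ Jb : Finset J, (∀ j ∈ Jb, ∃ x ∈ B j ∩ F, t0 ≤ u (f x)) → ∑ j ∈ Jb, o j ^ 2 ≤ E)
    (hEσ : 8 * L * E ≤ θ * σ) :
    ∃ Bad : Set ℝ, MeasurableSet Bad ∧ volume Bad ≤ ENNReal.ofReal θ ∧
      ∀ ts ∈ Ioo t0 tm, ts ∉ Bad →
        ∃ (n : ℕ) (y : Fin n → Y) (ρ : Fin n → ℝ), (∀ m, 0 < ρ m) ∧ ∑ m, ρ m ≤ σ ∧
        ∃ η > 0, ∀ t, |t - ts| ≤ η → ∀ h : X → Y, (∀ x ∈ F, dist (h x) (f x) ≤ η) →
          ∀ K Γ : Set X, Γ ⊆ F → IsPreconnected Γ → (∀ x ∈ Γ, u (h x) = t) →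
            (∃ x ∈ K ∩ F, t1 ≤ u (h x) ∧ ∃ p ∈ F, ∃ q ∈ F, p ∉ K ∧ q ∉ K ∧ x ∈ segment ℝ p q) →
            (∀ S' ⊆ F, IsPreconnected S' → (S' ∩ K).Nonempty → ¬ S' ⊆ K →
              (S' ∩ Γ).Nonempty) →
            ∃ m, h '' Γ ⊆ closedBall (y m) (ρ m) := by
  classical
  have hgap : 0 < t1 - tm := sub_pos.2 h1
  have hL1 : 0 < L + 1 := by linarith
  have huc' : Continuous u := by
    have : LipschitzWith L.toNNReal u := LipschitzWith.of_dist_le_mul fun y z => by
      rw [Real.dist_eq, Real.coe_toNNReal L hL]; exact hu y z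
    exact this.continuous
  -- modulus of continuity
  have huc := hF.uniformContinuousOn_of_continuous hf
  rw [Metric.uniformContinuousOn_iff] at huc
  obtain ⟨δ, hδ, hfδ⟩ := huc ((t1 - tm) / (4 * (L + 1))) (by positivity)
  set V : ℝ := (4 * L * (S * √E) + 1) / θ with hVdef
  have hV : 0 < V := by
    have : 0 ≤ L * (S * √E) := by positivity
    have : 0 < 4 * L * (S * √E) + 1 := by linarith
    positivity
  set N1 : ℝ := V / δ with hN1
  have hN10 : 0 < N1 := by positivity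
  set ε : ℝ := min (δ / 2) (σ / (8 * (N1 + 1))) with hεdef
  have hε : 0 < ε := lt_min (by positivity) (by positivity)
  have hεδ : ε ≤ δ / 2 := min_le_left _ _
  have hεσ : ε ≤ σ / (8 * (N1 + 1)) := min_le_right _ _
  -- the cells
  obtain ⟨J, hJ, Q, B, o, d, hd0, hdε, hC, hBc, hQd, hdS, hQ, hB, hJb⟩ := hE ε hε
  have ho0 : ∀ j, 0 ≤ o j := fun j => (hB j).1
  -- base points of the rims
  let ctr : J → ℝ := fun j => if h : (B j ∩ F).Nonempty then u (f h.some) else 0
  let Jb : Finset J := Finset.univ.filter (fun j => ∃ x ∈ B j ∩ F, t0 ≤ u (f x))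
  have hJbE : ∑ j ∈ Jb, o j ^ 2 ≤ E := hJb Jb (fun j hj => (Finset.mem_filter.1 hj).2)
  have hE0 : 0 ≤ E := (Finset.sum_nonneg fun j _ => sq_nonneg (o j)).trans hJbE
  obtain ⟨Bad1, hBm1, hBv1, hBt1⟩ := level_select ho0 ctr Jb hL le_rfl hσ hJbE
  obtain ⟨Bad2, hBm2, hBv2, hBt2⟩ := level_count ho0 ctr Jb hL hd0.le hV hS hdS hJbE
  refine ⟨Bad1 ∪ Bad2, hBm1.union hBm2, ?_, ?_⟩
  · refine (measure_union_le _ _).trans ?_
    have e1 : 4 * L * (E + 0 * ∑ j, o j) / σ ≤ θ / 2 := by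
      rw [zero_mul, add_zero, div_le_iff₀ hσ]
      linarith
    have e2 : 2 * L * (S * √E) / V ≤ θ / 2 := by
      rw [div_le_iff₀ hV, hVdef]
      have : θ / 2 * ((4 * L * (S * √E) + 1) / θ) = 2 * L * (S * √E) + 1 / 2 := by
        field_simp
        ring
      rw [this]
      linarith
    calc volume Bad1 + volume Bad2 ≤ ENNReal.ofReal (θ / 2) + ENNReal.ofReal (θ / 2) :=
          add_le_add (hBv1.trans (ENNReal.ofReal_le_ofReal e1))
            (hBv2.trans (ENNReal.ofReal_le_ofReal e2))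
      _ = ENNReal.ofReal θ := by
          rw [← ENNReal.ofReal_add (by positivity) (by positivity)]
          congr 1
          ring
  · intro ts hts htsB
    rw [mem_union, not_or] at htsB
    obtain ⟨htB1, htB2⟩ := htsB
    -- the visited cells
    let 𝒱 : Finset J := Finset.univ.filter (fun j => ∃ x ∈ B j ∩ F, u (f x) = ts)
    have h𝒱mem : ∀ j, j ∈ 𝒱 ↔ ∃ x ∈ B j ∩ F, u (f x) = ts := fun j => by simp [𝒱]
    have h𝒱sub : ∀ j ∈ 𝒱, j ∈ Jb ∧ |ts - ctr j| ≤ L * o j := by
      intro j hj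
      obtain ⟨x, hx, hxt⟩ := (h𝒱mem j).1 hj
      have hne : (B j ∩ F).Nonempty := ⟨x, hx⟩
      refine ⟨?_, ?_⟩
      · simp only [Jb, Finset.mem_filter, Finset.mem_univ, true_and]
        exact ⟨x, hx, by rw [hxt]; exact hts.1.le⟩
      · simp only [ctr, dif_pos hne]
        rw [← hxt]
        exact (hu _ _).trans (mul_le_mul_of_nonneg_left ((hB j).2 x hx _ hne.some_mem) hL)
    have h𝒱o : ∑ j ∈ 𝒱, o j < σ / 2 := by
      refine lt_of_le_of_lt ?_ (hBt1 ts htB1)
      refine Finset.sum_le_sum_of_subset_of_nonneg (fun j hj => ?_) (fun j _ _ => ho0 j)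
      rw [Finset.mem_filter, add_zero]
      exact h𝒱sub j hj
    have h𝒱c : d * (𝒱.card : ℝ) < V := by
      refine lt_of_le_of_lt ?_ (hBt2 ts htB2)
      refine mul_le_mul_of_nonneg_left ?_ hd0.le
      have : 𝒱.card ≤ (Jb.filter (fun j => |ts - ctr j| ≤ L * o j)).card := by
        refine Finset.card_le_card fun j hj => ?_
        rw [Finset.mem_filter]
        exact h𝒱sub j hj
      exact_mod_cast this
    -- the clusters
    obtain ⟨C, hCl, hCd, hCp, hCs⟩ := exists_clusters_all (fun j => B j ∩ F) 𝒱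
    let C' : Finset (Finset J) := C.filter (fun D => D ⊆ 𝒱 ∧ δ ≤ D.card * d)
    have hC'card : (C'.card : ℝ) ≤ N1 := by
      have a1 : ∑ D ∈ C', (D.card : ℝ) ≤ 𝒱.card := by
        have : (C'.biUnion id).card = ∑ D ∈ C', D.card := by
          rw [Finset.card_biUnion]
          · rfl
          · intro D hD D' hD' hne
            exact hCd D (Finset.mem_filter.1 hD).1 D' (Finset.mem_filter.1 hD').1 hne
        have h2 : (C'.biUnion id).card ≤ 𝒱.card := by
          refine Finset.card_le_card fun j hj => ?_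
          rw [Finset.mem_biUnion] at hj
          obtain ⟨D, hD, hjD⟩ := hj
          exact (Finset.mem_filter.1 hD).2.1 hjD
        rw [this] at h2
        exact_mod_cast h2
      have a2 : ∑ _D ∈ C', δ ≤ ∑ D ∈ C', (D.card : ℝ) * d :=
        Finset.sum_le_sum fun D hD => (Finset.mem_filter.1 hD).2.2
      rw [Finset.sum_const, nsmul_eq_mul, ← Finset.sum_mul] at a2
      have a3 : (∑ D ∈ C', (D.card : ℝ)) * d ≤ 𝒱.card * d := mul_le_mul_of_nonneg_right a1 hd0.le
      rw [hN1, le_div_iff₀ hδ]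
      linarith
    -- the width of the levels
    have hη : ∃ η > 0, η ≤ ε ∧ η ≤ (t1 - tm) / (8 * (L + 1)) ∧
        ∀ j, ∀ x ∈ B j ∩ F, |u (f x) - ts| ≤ (L + 1) * η → j ∈ 𝒱 := by
      have hj : ∀ j, ∃ ηj > 0, ∀ x ∈ B j ∩ F, |u (f x) - ts| ≤ (L + 1) * ηj → j ∈ 𝒱 := by
        intro j
        by_cases hjV : j ∈ 𝒱
        · exact ⟨1, one_pos, fun _ _ _ => hjV⟩
        · have hcp : IsCompact (B j ∩ F) := hF.inter_left (hBc j)
          have hco : ContinuousOn (fun x => |u (f x) - ts|) (B j ∩ F) :=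
            ((huc'.comp_continuousOn (hf.mono inter_subset_right)).sub
              continuousOn_const).abs
          rcases (B j ∩ F).eq_empty_or_nonempty with he | hne
          · exact ⟨1, one_pos, fun x hx => by rw [he] at hx; exact absurd hx (notMem_empty x)⟩
          · obtain ⟨z, hz, hmin⟩ := hcp.exists_isMinOn hne hco
            have hz0 : 0 < |u (f z) - ts| := by
              rw [abs_pos, sub_ne_zero]
              intro he
              exact hjV ((h𝒱mem j).2 ⟨z, hz, he⟩)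
            refine ⟨|u (f z) - ts| / (2 * (L + 1)), by positivity, fun x hx hxt => ?_⟩
            exfalso
            have b1 : |u (f z) - ts| ≤ |u (f x) - ts| := hmin hx
            have b2 : (L + 1) * (|u (f z) - ts| / (2 * (L + 1))) = |u (f z) - ts| / 2 := by
              field_simp
            rw [b2] at hxt
            linarith
      choose ηj hηj0 hηj using hj
      obtain ⟨η1, hη10, hη1⟩ : ∃ η1 > 0, ∀ j, η1 ≤ ηj j := by
        rcases isEmpty_or_nonempty J with he | hne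
        · exact ⟨1, one_pos, fun j => he.elim j⟩
        · obtain ⟨j0, -, hj0⟩ := Finset.exists_min_image Finset.univ ηj Finset.univ_nonempty
          exact ⟨ηj j0, hηj0 j0, fun j => hj0 j (Finset.mem_univ _)⟩
      refine ⟨min (min ε ((t1 - tm) / (8 * (L + 1)))) η1, ?_, ?_, ?_, ?_⟩
      · exact lt_min (lt_min hε (by positivity)) hη10
      · exact (min_le_left _ _).trans (min_le_left _ _)
      · exact (min_le_left _ _).trans (min_le_right _ _)
      · intro j x hx hxt
        refine hηj j x hx (hxt.trans (mul_le_mul_of_nonneg_left ?_ hL1.le))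
        exact (min_le_right _ _).trans (hη1 j)
    obtain ⟨η, hη0, hηε, hηg, hηV⟩ := hη
    -- centres
    have hbase : ∀ D ∈ C', ∃ x, ∃ j ∈ D, x ∈ B j ∩ F := by
      intro D hD
      obtain ⟨hDC, hDV, hDδ⟩ := Finset.mem_filter.1 hD
      have hne : D.Nonempty := by
        rw [Finset.nonempty_iff_ne_empty]
        rintro rfl
        simp only [Finset.card_empty, Nat.cast_zero, zero_mul] at hDδ
        linarith
      obtain ⟨j, hj⟩ := hne
      obtain ⟨x, hx, -⟩ := (h𝒱mem j).1 (hDV hj)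
      exact ⟨x, j, hj, hx⟩
    choose! x0 j0 hj0 hx0 using hbase
    let eq := C'.equivFin
    refine ⟨C'.card, fun m => f (x0 (eq.symm m).1),
      fun m => (∑ j ∈ (eq.symm m).1, o j) + (ε + η + ε), fun m => ?_, ?_, η, hη0, ?_⟩
    · have : 0 ≤ ∑ j ∈ (eq.symm m).1, o j := Finset.sum_nonneg fun j _ => ho0 j
      linarith
    · have e1 : ∑ m, ((∑ j ∈ (eq.symm m).1, o j) + (ε + η + ε)) =
          ∑ D ∈ C', ((∑ j ∈ D, o j) + (ε + η + ε)) := by
        rw [← Finset.sum_coe_sort C']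
        exact Equiv.sum_comp eq.symm (fun D : C' => (∑ j ∈ D.1, o j) + (ε + η + ε))
      rw [e1, Finset.sum_add_distrib, Finset.sum_const, nsmul_eq_mul]
      have e2 : ∑ D ∈ C', ∑ j ∈ D, o j ≤ ∑ j ∈ 𝒱, o j := by
        rw [← Finset.sum_biUnion]
        · refine Finset.sum_le_sum_of_subset_of_nonneg (fun j hj => ?_) (fun j _ _ => ho0 j)
          rw [Finset.mem_biUnion] at hj
          obtain ⟨D, hD, hjD⟩ := hj
          exact (Finset.mem_filter.1 hD).2.1 hjD
        · intro D hD D' hD' hne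
          exact hCd D (Finset.mem_filter.1 hD).1 D' (Finset.mem_filter.1 hD').1 hne
      have e3 : (C'.card : ℝ) * (ε + η + ε) ≤ (N1 + 1) * (3 * (σ / (8 * (N1 + 1)))) :=
        mul_le_mul (by linarith) (by linarith) (by positivity) (by positivity)
      have e4 : (N1 + 1) * (3 * (σ / (8 * (N1 + 1)))) = 3 * σ / 8 := by field_simp
      linarith
    · intro t ht h hh K Γ hΓF hΓc hΓt hKx hcut
      obtain ⟨x, ⟨hxK, hxF⟩, hxt, p, hpF, q, hqF, hpK, hqK, hxpq⟩ := hKx
      have ht' := abs_le.1 ht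
      -- distance of x to Γ
      have hfar : ∀ a ∈ Γ, δ ≤ dist x a := by
        intro a ha
        by_contra hno
        have d2 := hfδ x hxF a (hΓF ha) (not_le.1 hno)
        have d3 := hh x hxF
        have d4 := hh a (hΓF ha)
        have d5 := hu (h x) (f x)
        have d6 := hu (f a) (h a)
        rw [dist_comm (f a)] at d6
        have d7 := hu (f x) (f a)
        have d8 := hΓt a ha
        have g3 : L * dist (h x) (f x) ≤ L * η := mul_le_mul_of_nonneg_left d3 hL
        have g4 : L * dist (h a) (f a) ≤ L * η := mul_le_mul_of_nonneg_left d4 hL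
        have g2 : L * dist (f x) (f a) ≤ (L + 1) * ((t1 - tm) / (4 * (L + 1))) :=
          mul_le_mul (by linarith) d2.le dist_nonneg hL1.le
        have g2' : (L + 1) * ((t1 - tm) / (4 * (L + 1))) = (t1 - tm) / 4 := by field_simp
        have g5 : (L + 1) * η ≤ (t1 - tm) / 8 := by
          have : (L + 1) * η ≤ (L + 1) * ((t1 - tm) / (8 * (L + 1))) :=
            mul_le_mul_of_nonneg_left hηg hL1.le
          refine this.trans (le_of_eq ?_)
          field_simp
        have k1 := (abs_le.1 d5).2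
        have k2 := (abs_le.1 d6).2
        have k3 := (abs_le.1 d7).2
        have k4 := hts.2
        nlinarith
      have hseg : ∀ w ∈ F, w ∉ K → ∃ a ∈ segment ℝ x w, a ∈ Γ := by
        intro w hw hwK
        obtain ⟨a, ha, ha'⟩ := hcut (segment ℝ x w) (hconv.segment_subset hxF hw)
          (convex_segment x w).isPreconnected ⟨x, left_mem_segment ℝ x w, hxK⟩
          (fun hs => hwK (hs (right_mem_segment ℝ x w)))
        exact ⟨a, ha, ha'⟩
      obtain ⟨a, ha, haΓ⟩ := hseg p hpF hpK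
      obtain ⟨b, hb, hbΓ⟩ := hseg q hqF hqK
      have hxp : x ≠ p := fun e => hpK (e ▸ hxK)
      have hxq : x ≠ q := fun e => hqK (e ▸ hxK)
      have hab : δ ≤ dist a b := (hfar a haΓ).trans (dist_opp hxpq hxp hxq ha hb)
      -- the cells met by Γ
      let c : Finset J := Finset.univ.filter (fun j => (Γ ∩ Q j).Nonempty)
      have hcmem : ∀ j, j ∈ c ↔ (Γ ∩ Q j).Nonempty := fun j => by simp [c]
      have hLk : Lk (fun j => B j ∩ F) c := lk_met hC hΓF hΓc c hcmem
      have hLk' : Lk (fun j => Q j ∩ F) c :=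
        Lk.mono hLk fun j => inter_subset_inter_left _ (hC.sub j)
      have hcell : ∀ z ∈ Γ, ∃ j ∈ c, z ∈ Q j := by
        intro z hz
        obtain ⟨j, hj⟩ := mem_iUnion.1 (hC.cov (hΓF hz))
        exact ⟨j, (hcmem j).2 ⟨z, hz, hj⟩, hj⟩
      obtain ⟨ja, hja, haQ⟩ := hcell a haΓ
      obtain ⟨jb, hjb, hbQ⟩ := hcell b hbΓ
      have hcδ : δ ≤ c.card * d := by
        have := dist_le_sum (f := (id : X → X)) hLk' (o := fun _ => d) (fun j _ => hd0.le)
          (fun j _ x hx y hy => hQd j x hx y hy) hja hjb (x := a) (y := b)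
          ⟨haQ, hΓF haΓ⟩ ⟨hbQ, hΓF hbΓ⟩
        rw [Finset.sum_const, nsmul_eq_mul] at this
        exact hab.trans this
      have hc1 : 1 < c.card := by
        by_contra hno
        have : (c.card : ℝ) ≤ 1 := by exact_mod_cast not_lt.1 hno
        have : (c.card : ℝ) * d ≤ 1 * d := mul_le_mul_of_nonneg_right this hd0.le
        linarith
      -- every met cell has a rim point in Γ
      have hrim : ∀ m ∈ c, ∃ w ∈ Γ, w ∈ B m := by
        intro m hm
        obtain ⟨m', hm', hne⟩ := Finset.exists_mem_ne hc1 m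
        by_cases h2 : Γ ⊆ Q m
        · obtain ⟨w, hw, hwm⟩ := (hcmem m').1 hm'
          exact ⟨w, hw, (hC.meet m m' hne.symm ⟨h2 hw, hwm⟩).1⟩
        · obtain ⟨w, hw, hwm⟩ := hC.cut m Γ hΓF hΓc ((hcmem m).1 hm) h2
          exact ⟨w, hw, hwm⟩
      have hcV : c ⊆ 𝒱 := by
        intro m hm
        obtain ⟨w, hw, hwB⟩ := hrim m hm
        refine hηV m w ⟨hwB, hΓF hw⟩ ?_
        have k1 := hu (f w) (h w)
        rw [dist_comm] at k1
        have k2 : L * dist (h w) (f w) ≤ L * η := mul_le_mul_of_nonneg_left (hh w (hΓF hw)) hL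
        have k3 := hΓt w hw
        have k4 := abs_le.1 (k1.trans k2)
        rw [k3] at k4
        rw [abs_le]
        constructor <;> linarith [k4.1, k4.2, ht'.1, ht'.2]
      obtain ⟨D, hDC, hcD⟩ := hCs c hcV hLk
      have hDcard : c.card ≤ D.card := Finset.card_le_card hcD
      have hDC' : D ∈ C' := by
        rw [Finset.mem_filter]
        refine ⟨hDC, ?_, ?_⟩
        · rcases hCp D hDC with h | h
          · exact h
          · omega
        · refine hcδ.trans (mul_le_mul_of_nonneg_right ?_ hd0.le)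
          exact_mod_cast hDcard
      refine ⟨eq ⟨D, hDC'⟩, ?_⟩
      rintro _ ⟨z, hz, rfl⟩
      rw [mem_closedBall]
      simp only [Equiv.symm_apply_apply]
      obtain ⟨m, hm, hzQ⟩ := hcell z hz
      obtain ⟨w, hw, hwB⟩ := hrim m hm
      have r1 := hh z (hΓF hz)
      have r2 := hQ m z ⟨hzQ, hΓF hz⟩ w ⟨hC.sub m hwB, hΓF hw⟩
      have r3 := dist_le_sum (f := f) (hCl D hDC) (fun j _ => ho0 j)
        (fun j _ => (hB j).2) (hcD hm) (hj0 D hDC') (x := w) (y := x0 D)
        ⟨hwB, hΓF hw⟩ (hx0 D hDC')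
      have r4 := dist_triangle (h z) (f z) (f (x0 D))
      have r5 := dist_triangle (f z) (f w) (f (x0 D))
      linarith

end Crest.Agent.R096.Scp_753
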