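/-
helper793, row 96, leaf P2-FACE, part 5: `small_circles_pre` (753) for almost every position of a
face: one theorem, no cells left.
-/
import Mathlib
import Crest.Agent.R096.Fce4_793
import Crest.Agent.R096.Scp2_753

set_option autoImplicit false
set_option linter.unusedSectionVars false

open MeasureTheory Set Filter
open scoped ENNReal Topology

namespace Crest.Agent.R096.Fce_793

open Crest.Agent.R96.Acl_392 Crest.Agent.R96.Sob4_199 Crest.Agent.R096.Sc_968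

noncomputable section

variable {E : Type*} [NormedAddCommGroup E] [NormedSpace ℝ E] [FiniteDimensional ℝ E]
  [MeasurableSpace E] [BorelSpace E]

variable {μ : Measure E} [μ.IsAddHaarMeasure] {ι : Type*} [Fintype ι]

theorem convex_pt_image (e : Fin 2 → E) (a : E) {P : Set (ℝ × ℝ)} (hP : Convex ℝ P) :
    Convex ℝ (pt e a '' P) := by
  rintro _ ⟨w, hw, rfl⟩ _ ⟨w', hw', rfl⟩ s t hs ht hst
  refine ⟨s • w + t • w', hP hw hw' hs ht hst, ?_⟩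
  have h1 : a = s • a + t • a := by rw [← add_smul, hst, one_smul]
  simp only [pt, Prod.fst_add, Prod.snd_add, Prod.smul_fst, Prod.smul_snd, smul_eq_mul, smul_add]
  rw [add_smul, add_smul, mul_smul, mul_smul, mul_smul, mul_smul]
  nth_rw 1 [h1]
  abel

/-- the conclusion of `small_circles_pre` for one face `F` -/
def SmallPre (F : Set E) (f : E → EuclideanSpace ℝ ι) (u : EuclideanSpace ℝ ι → ℝ)
    (t0 tm t1 σ θ : ℝ) : Prop :=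
  ∃ Bad : Set ℝ, MeasurableSet Bad ∧ volume Bad ≤ ENNReal.ofReal θ ∧
    ∀ ts ∈ Ioo t0 tm, ts ∉ Bad →
      ∃ (n : ℕ) (y : Fin n → EuclideanSpace ℝ ι) (ρ : Fin n → ℝ), (∀ m, 0 < ρ m) ∧
      ∑ m, ρ m ≤ σ ∧
      ∃ η > 0, ∀ t, |t - ts| ≤ η → ∀ h : E → EuclideanSpace ℝ ι,
        (∀ x ∈ F, dist (h x) (f x) ≤ η) →
        ∀ K Γ : Set E, Γ ⊆ F → IsPreconnected Γ → (∀ x ∈ Γ, u (h x) = t) →
          (∃ x ∈ K ∩ F, t1 ≤ u (h x) ∧ ∃ p ∈ F, ∃ q ∈ F, p ∉ K ∧ q ∉ K ∧ x ∈ segment ℝ p q) →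
          (∀ S' ⊆ F, IsPreconnected S' → (S' ∩ K).Nonempty → ¬ S' ⊆ K →
            (S' ∩ Γ).Nonempty) →
          ∃ m, h '' Γ ⊆ Metric.closedBall (y m) (ρ m)

/-- **SC+ on one face in a good position** -/
theorem small_of_pos {Ω : Set E} {f : E → EuclideanSpace ℝ ι} (hf : ContinuousOn f Ω)
    {e : Fin 2 → E} (hli : LinearIndependent ℝ e)
    {D : Fin 2 → E → EuclideanSpace ℝ ι} {G : E → ℝ≥0∞} {a : E} (hp : Pos Ω f D G e a)
    {P : Set (ℝ × ℝ)} (hPc : IsCompact P) (hPconv : Convex ℝ P)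
    (hP : P ⊆ Icc (0:ℝ) 1 ×ˢ Icc (0:ℝ) 1)
    (hPΩ : pt e a '' P ⊆ Ω) {S : Set E} {E0 : ℝ} (hE0 : 4 * Ee G e P S a < ENNReal.ofReal E0)
    {u : EuclideanSpace ℝ ι → ℝ} {L : ℝ} (hL : 0 ≤ L) (hu : ∀ y z, |u y - u z| ≤ L * dist y z)
    {t0 tm t1 : ℝ} (h1 : tm < t1)
    (hbd : ∀ w ∈ P, w ∉ interior P → u (f (pt e a w)) < t0)
    (hS : ∀ w ∈ P, t0 ≤ u (f (pt e a w)) → pt e a w ∈ S) {σ θ : ℝ} (hσ : 0 < σ) (hθ : 0 < θ)
    (hEσ : 8 * L * E0 ≤ θ * σ) : SmallPre (pt e a '' P) f u t0 tm t1 σ θ := by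
  have huc : Continuous u := by
    have : LipschitzWith L.toNNReal u := LipschitzWith.of_dist_le_mul fun y z => by
      rw [Real.dist_eq, Real.coe_toNNReal L hL]; exact hu y z
    exact this.continuous
  refine Scp_753.small_circles_pre (hPc.image (continuous_pt e a)) (convex_pt_image e a hPconv)
    (hf.mono hPΩ) hL hu h1 (cc_nonneg e) hσ hθ ?_ hEσ
  intro ε hε
  exact hE_pre hf hli hp hPc hP hPΩ hE0 huc hbd hS hε ε hε

/-- **SC+ for almost every position of a face**: `𝓔` = the (random) junk energy of the face,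
`∫_A 𝓔 ≤ 16 ∫_(R ∩ S) G`, and wherever `𝓔 a < E0`, small circles -/
theorem face_small {Ω : Set E} (hΩ : IsOpen Ω) {f : E → EuclideanSpace ℝ ι}
    (hf : ContinuousOn f Ω) {e : Fin 2 → E} (hli : LinearIndependent ℝ e)
    {D : Fin 2 → E → EuclideanSpace ℝ ι} (hD : ∀ i, VWD Ω μ f (D i) (e i))
    {G : E → ℝ≥0∞} (hGm : Measurable G) (hG : ∀ i, ∀ᵐ x ∂μ, x ∈ Ω → ‖D i x‖ₑ ^ 2 ≤ G x)
    {P : Set (ℝ × ℝ)} (hPc : IsCompact P) (hPconv : Convex ℝ P)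
    (hP : P ⊆ Icc (0:ℝ) 1 ×ˢ Icc (0:ℝ) 1) {S : Set E} (hS : IsClosed S) :
    ∃ 𝓔 : E → ℝ≥0∞, Measurable 𝓔 ∧
      (∀ A R : Set E, MeasurableSet A → MeasurableSet R → (∀ a ∈ A, ∀ w ∈ P, pt e a w ∈ R) →
        ∫⁻ x in R, G x ∂μ ≠ ∞ → ∫⁻ a in A, 𝓔 a ∂μ ≤ 16 * ∫⁻ x in R ∩ S, G x ∂μ) ∧
      ∀ᵐ a ∂μ, pt e a '' P ⊆ Ω → ∀ E0 : ℝ, 𝓔 a < ENNReal.ofReal E0 →
        ∀ (u : EuclideanSpace ℝ ι → ℝ) (L : ℝ), 0 ≤ L → (∀ y z, |u y - u z| ≤ L * dist y z) →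
        ∀ t0 tm t1 : ℝ, tm < t1 →
        (∀ w ∈ P, w ∉ interior P → u (f (pt e a w)) < t0) →
        (∀ w ∈ P, t0 ≤ u (f (pt e a w)) → pt e a w ∈ S) →
        ∀ σ θ : ℝ, 0 < σ → 0 < θ → 8 * L * E0 ≤ θ * σ →
        SmallPre (pt e a '' P) f u t0 tm t1 σ θ := by
  refine ⟨fun a => 4 * Ee G e P S a, (measurable_Ee hGm e P S).const_mul 4, ?_, ?_⟩
  · intro A R hA hR hAR hfin
    rw [lintegral_const_mul _ (measurable_Ee hGm e P S)]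
    have h1 := lintegral_Ee_le (μ := μ) hGm e hS hA hR hAR hfin
    calc 4 * ∫⁻ a in A, Ee G e P S a ∂μ ≤ 4 * (4 * ∫⁻ x in R ∩ S, G x ∂μ) := by gcongr
      _ = 16 * ∫⁻ x in R ∩ S, G x ∂μ := by rw [← mul_assoc]; norm_num
  · filter_upwards [ae_pos (μ := μ) hΩ hf hD hG] with a ha hPΩ E0 hE0 u L hL hu t0 tm t1 h1 hbd
      hSS σ θ hσ hθ hEσ
    exact small_of_pos hf hli ha hPc hPconv hP hPΩ hE0 hL hu h1 hbd hSS hσ hθ hEσ

end

end Crest.Agent.R096.Fce_793
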