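/-
helper793, row 96, p = 2, leaf P2-SELECT, part 1: the abstract Markov selection of cubes, and the
energies of a countable family of faces in random position.
-/
import Mathlib
import Crest.Agent.R096.Fce5_793

set_option autoImplicit false
set_option linter.unusedSectionVars false
set_option maxHeartbeats 400000

open MeasureTheory Set Filter
open scoped ENNReal Topology

namespace Crest.Agent.R096.Fsl_793

open Crest.Agent.R96.Acl_392 Crest.Agent.R96.Sob4_199 Crest.Agent.R096.Sc_968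
open Crest.Agent.R096.Fce_793

noncomputable section

/-- **Markov selection**: `X k` (`k ∈ Q₀`) random, total mean at most `c`: off a set of measure
`c / (τ m)` all but `m` of the `k` have `X k ≤ τ`. -/
theorem select {α K : Type*} [DecidableEq K] [MeasurableSpace α] {μ : Measure α} {D : Set α}
    (hD : MeasurableSet D) (Q₀ : Finset K) (X : K → α → ℝ≥0∞)
    (hX : ∀ k ∈ Q₀, AEMeasurable (X k) (μ.restrict D)) {c : ℝ≥0∞}
    (hc : ∑ k ∈ Q₀, ∫⁻ a in D, X k a ∂μ ≤ c) {τ : ℝ≥0∞} (hτ0 : τ ≠ 0) (hτ : τ ≠ ∞)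
    {m : ℝ≥0∞} (hm0 : m ≠ 0) (hm : m ≠ ∞) :
    ∃ B ⊆ D, μ B ≤ c / (τ * m) ∧ ∀ a ∈ D, a ∉ B →
      ∃ Q ⊆ Q₀, ((Q₀ \ Q).card : ℝ≥0∞) ≤ m ∧ ∀ k ∈ Q, X k a ≤ τ := by
  have hsum : AEMeasurable (fun a => ∑ k ∈ Q₀, X k a) (μ.restrict D) := by
    have := Finset.aemeasurable_fun_sum (μ := μ.restrict D) Q₀ hX
    exact this
  refine ⟨D ∩ {a | τ * m ≤ ∑ k ∈ Q₀, X k a}, inter_subset_left, ?_, ?_⟩
  · have h1 := mul_meas_ge_le_lintegral₀ hsum (τ * m)
    rw [Measure.restrict_apply₀' hD.nullMeasurableSet, inter_comm] at h1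
    rw [ENNReal.le_div_iff_mul_le (Or.inl (mul_ne_zero hτ0 hm0))
      (Or.inl (ENNReal.mul_ne_top hτ hm)), mul_comm]
    refine h1.trans ?_
    rw [lintegral_finsetSum' _ hX]
    exact hc
  · intro a ha haB
    have h1 : ∑ k ∈ Q₀, X k a < τ * m := by
      by_contra h
      exact haB ⟨ha, not_lt.1 h⟩
    refine ⟨Q₀.filter fun k => X k a ≤ τ, Finset.filter_subset _ _, ?_, fun k hk =>
      (Finset.mem_filter.1 hk).2⟩
    set Q' := Q₀.filter fun k => ¬ X k a ≤ τ with hQ'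
    have h2 : Q₀ \ (Q₀.filter fun k => X k a ≤ τ) = Q' := by
      ext k
      simp only [Finset.mem_sdiff, Finset.mem_filter, hQ', not_and]
      tauto
    rw [h2]
    have h3 : τ * (Q'.card : ℝ≥0∞) ≤ τ * m := by
      calc τ * (Q'.card : ℝ≥0∞) = ∑ _k ∈ Q', τ := by
            rw [Finset.sum_const, nsmul_eq_mul, mul_comm]
        _ ≤ ∑ k ∈ Q', X k a := Finset.sum_le_sum fun k hk =>
            (not_le.1 (Finset.mem_filter.1 hk).2).le
        _ ≤ ∑ k ∈ Q₀, X k a := Finset.sum_le_sum_of_subset (Finset.filter_subset _ _)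
        _ ≤ τ * m := h1.le
    exact (ENNReal.mul_le_mul_iff_right hτ0 hτ).1 h3

variable {E : Type*} [NormedAddCommGroup E] [NormedSpace ℝ E] [FiniteDimensional ℝ E]
  [MeasurableSpace E] [BorelSpace E] {μ : Measure E} [μ.IsAddHaarMeasure]
  {ι : Type*} [Fintype ι]

/-- the mean energy of one face, translated by `x` -/
theorem lintegral_Ee_add {G : E → ℝ≥0∞} (hG : Measurable G) (e : Fin 2 → E) (x : E)
    {P : Set (ℝ × ℝ)} {S : Set E} (hS : IsClosed S) {D R : Set E} (hD : MeasurableSet D)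
    (hR : MeasurableSet R) (hDR : ∀ a ∈ D, ∀ w ∈ P, pt e (a + x) w ∈ R)
    (hfin : ∫⁻ y in R, G y ∂μ ≠ ∞) :
    ∫⁻ a in D, 4 * Ee G e P S (a + x) ∂μ ≤ 16 * ∫⁻ y in R ∩ S, G y ∂μ := by
  have hD' : MeasurableSet {a | a - x ∈ D} := hD.preimage (by fun_prop)
  have h1 : ∫⁻ a in D, 4 * Ee G e P S (a + x) ∂μ =
      4 * ∫⁻ a in {a | a - x ∈ D}, Ee G e P S a ∂μ := by
    have hmx : Measurable fun a => Ee G e P S (a + x) :=
      (measurable_Ee hG e P S).comp (measurable_id.add_const x)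
    rw [lintegral_const_mul _ hmx]
    congr 1
    rw [← lintegral_indicator hD, ← lintegral_indicator hD',
      ← lintegral_add_right_eq_self ({a | a - x ∈ D}.indicator fun a => Ee G e P S a) x]
    apply lintegral_congr
    intro a
    by_cases ha : a ∈ D
    · rw [indicator_of_mem ha, indicator_of_mem]
      show a + x - x ∈ D
      rwa [add_sub_cancel_right]
    · rw [indicator_of_notMem ha, indicator_of_notMem]
      show ¬ (a + x - x ∈ D)
      rwa [add_sub_cancel_right]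
  rw [h1]
  have h2 := lintegral_Ee_le (μ := μ) (P := P) hG e hS hD' hR (by
    intro a ha w hw
    have := hDR _ ha w hw
    rwa [sub_add_cancel] at this) hfin
  calc 4 * ∫⁻ a in {a | a - x ∈ D}, Ee G e P S a ∂μ ≤ 4 * (4 * ∫⁻ y in R ∩ S, G y ∂μ) := by
        gcongr
    _ = 16 * ∫⁻ y in R ∩ S, G y ∂μ := by rw [← mul_assoc]; norm_num

/-- the mean energy of a countable family of faces -/
theorem lintegral_faces {κf : Type*} [Countable κf] {G : E → ℝ≥0∞} (hG : Measurable G)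
    (hfin : ∫⁻ y, G y ∂μ ≠ ∞) (x : κf → E) (e : κf → Fin 2 → E) (P : κf → Set (ℝ × ℝ))
    {S : Set E} (hS : IsClosed S) {D : Set E} (hD : MeasurableSet D) {R : κf → Set E}
    (hR : ∀ φ, MeasurableSet (R φ))
    (hDR : ∀ φ, ∀ a ∈ D, ∀ w ∈ P φ, pt (e φ) (a + x φ) w ∈ R φ) {M : ℕ}
    (hM : ∀ y, {φ | y ∈ R φ}.encard ≤ M) :
    ∫⁻ a in D, ∑' φ, 4 * Ee G (e φ) (P φ) S (a + x φ) ∂μ ≤ 16 * M * ∫⁻ y in S, G y ∂μ := by
  classical
  have hm : ∀ φ, Measurable fun a => 4 * Ee G (e φ) (P φ) S (a + x φ) := fun φ =>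
    ((measurable_Ee hG (e φ) (P φ) S).comp (measurable_id.add_const (x φ))).const_mul 4
  rw [lintegral_tsum fun φ => (hm φ).aemeasurable]
  have h1 : ∀ φ, ∫⁻ a in D, 4 * Ee G (e φ) (P φ) S (a + x φ) ∂μ ≤
      16 * ∫⁻ y in S, (R φ).indicator 1 y * G y ∂μ := by
    intro φ
    refine (lintegral_Ee_add hG (e φ) (x φ) hS hD (hR φ) (hDR φ)
      (ne_top_of_le_ne_top hfin (setLIntegral_le_lintegral _ _))).trans ?_
    have h2 : ∫⁻ y in R φ ∩ S, G y ∂μ = ∫⁻ y in S, (R φ).indicator 1 y * G y ∂μ := by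
      rw [← Measure.restrict_restrict (hR φ), ← lintegral_indicator (hR φ)]
      apply lintegral_congr
      intro y
      by_cases hy : y ∈ R φ
      · simp only [indicator_of_mem hy, Pi.one_apply, one_mul]
      · simp only [indicator_of_notMem hy, zero_mul]
    rw [h2]
  calc ∑' φ, ∫⁻ a in D, 4 * Ee G (e φ) (P φ) S (a + x φ) ∂μ
      ≤ ∑' φ, 16 * ∫⁻ y in S, (R φ).indicator 1 y * G y ∂μ := ENNReal.tsum_le_tsum h1
    _ = 16 * ∫⁻ y in S, (∑' φ, (R φ).indicator 1 y) * G y ∂μ := by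
        rw [ENNReal.tsum_mul_left, ← lintegral_tsum]
        · congr 1
          apply lintegral_congr
          intro y
          rw [ENNReal.tsum_mul_right]
        · intro φ
          exact ((measurable_one.indicator (hR φ)).mul hG).aemeasurable
    _ ≤ 16 * ∫⁻ y in S, (M : ℝ≥0∞) * G y ∂μ := by
        gcongr with y
        have h8 : ∀ φ, (R φ).indicator (1 : E → ℝ≥0∞) y =
            {φ | y ∈ R φ}.indicator (1 : κf → ℝ≥0∞) φ := by
          intro φ
          by_cases hy : y ∈ R φ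
          · rw [indicator_of_mem hy, indicator_of_mem (show φ ∈ {φ | y ∈ R φ} from hy)]
            rfl
          · rw [indicator_of_notMem hy, indicator_of_notMem (show φ ∉ {φ | y ∈ R φ} from hy)]
        rw [tsum_congr h8, ← tsum_subtype, Pi.one_def, ENNReal.tsum_set_one]
        have := hM y
        exact_mod_cast this
    _ = 16 * M * ∫⁻ y in S, G y ∂μ := by
        rw [lintegral_const_mul _ hG, mul_assoc]

end

end Crest.Agent.R096.Fsl_793
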