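/-
helper793, row 96, p = 2, leaf P2-SELECT, part 2: for most positions of a countable family of faces
most cubes have small circles on ALL faces.
-/
import Mathlib
import Crest.Agent.R096.Fsl1_793
import Crest.Agent.R96.Intr14_538

set_option autoImplicit false
set_option linter.unusedSectionVars false
set_option maxHeartbeats 400000

open MeasureTheory Set Filter
open scoped ENNReal Topology

namespace Crest.Agent.R096.Fsl_793

open Crest.AnalysisR.VecCalc3 Crest.AnalysisR.Sobolev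
open Crest.Agent.R96.Acl_392 Crest.Agent.R96.Sob4_199 Crest.Agent.R096.Sc_968
open Crest.Agent.R096.Fce_793 Crest.Agent.R96.Lu_538 Crest.Agent.R96.Intr_538
open Crest.Agent.R96.Coarse_538

noncomputable section

theorem vwd_Gmat {Ω : Set R3} (hΩ : IsOpen Ω) {f : R3 → R3} {G : Fin 3 → R3 → R3}
    (hG : ∀ j, HasWeakGradOn Ω (fun x => f x j) (G j)) (e : R3) :
    VWD Ω volume f (fun x => Gmat G x e) e := fun j => wd_of_grad hΩ (hG j) e

/-- a measurable density which dominates `‖Df‖²` on `Ω`, equal to it a.e. -/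
theorem exists_dens {Ω : Set R3} (hΩ : IsOpen Ω) {G : Fin 3 → R3 → R3}
    (hGp : ∀ j, MemLp (G j) 2 (volume.restrict Ω)) :
    ∃ g : R3 → ℝ≥0∞, Measurable g ∧ ∫⁻ y, g y ≠ ∞ ∧ (∀ᵐ x, x ∈ Ω → ‖Gmat G x‖ₑ ^ 2 = g x) ∧
      ∀ x ∉ Ω, g x = 0 := by
  have h0 : ∀ j, MemLp (G j) (ENNReal.ofReal 2) (volume.restrict Ω) := by
    intro j
    have : ENNReal.ofReal 2 = 2 := by norm_num
    rw [this]
    exact hGp j
  have h1 : MemLp (Gmat G) (ENNReal.ofReal 2) (volume.restrict Ω) := memLp_Gmat h0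
  have h2 : AEMeasurable (fun x => ‖Gmat G x‖ₑ ^ 2) (volume.restrict Ω) := h1.1.enorm.pow_const 2
  refine ⟨Ω.indicator (h2.mk _), h2.measurable_mk.indicator hΩ.measurableSet, ?_, ?_,
    fun x hx => indicator_of_notMem hx _⟩
  · rw [lintegral_indicator hΩ.measurableSet, ← lintegral_congr_ae h2.ae_eq_mk]
    have h3 := h1.2
    have h4 : ENNReal.ofReal 2 = 2 := by norm_num
    rw [h4, eLpNorm_lt_top_iff_lintegral_rpow_enorm_lt_top (by norm_num) (by norm_num)] at h3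
    simp only [ENNReal.toReal_ofNat, ENNReal.rpow_two] at h3
    exact h3.ne
  · have h3 := h2.ae_eq_mk
    rw [Filter.EventuallyEq, ae_restrict_iff' hΩ.measurableSet] at h3
    filter_upwards [h3] with x hx hxΩ
    rw [indicator_of_mem hxΩ]
    exact hx hxΩ

/-- **P2-SELECT.** `x φ, e φ, P φ` = a countable family of faces, position `a ∈ D`; `J k` = junk
set of the cube `k`. Off a set of positions of measure `θ |D|` all but `δ / v` of the cubes have
random face energies `ε φ` with sum at most `E0` which control the small circles of every face. -/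
theorem faces_select {Ω : Set R3} (hΩ : IsOpen Ω) {f : R3 → R3} (hf : ContinuousOn f Ω)
    {G : Fin 3 → R3 → R3} (hG : ∀ j, HasWeakGradOn Ω (fun x => f x j) (G j))
    (hGp : ∀ j, MemLp (G j) 2 (volume.restrict Ω))
    {κf : Type*} [Countable κf] (x : κf → R3) (e : κf → Fin 2 → R3)
    (hli : ∀ φ, LinearIndependent ℝ (e φ)) {t : ℝ} (ht : 0 < t) (het : ∀ φ i, ‖e φ i‖ ≤ t)
    (P : κf → Set (ℝ × ℝ)) (hPc : ∀ φ, IsCompact (P φ)) (hPconv : ∀ φ, Convex ℝ (P φ))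
    (hP : ∀ φ, P φ ⊆ Icc (0:ℝ) 1 ×ˢ Icc (0:ℝ) 1) {D : Set R3} (hD : MeasurableSet D)
    (hDt : volume D ≠ ∞) {R : κf → Set R3} (hR : ∀ φ, MeasurableSet (R φ))
    (hDR : ∀ φ, ∀ a ∈ D, ∀ w ∈ P φ, pt (e φ) (a + x φ) w ∈ R φ) {M : ℕ}
    (hM : ∀ y, {φ | y ∈ R φ}.encard ≤ M) {K : Type*} [DecidableEq K] (Q₀ : Finset K)
    (J : K → Set R3) (hJ : ∀ k ∈ Q₀, IsClosed (J k)) (hJΩ : ∀ k ∈ Q₀, J k ⊆ Ω) {e₂ : ℝ}
    (he₂ : ∑ k ∈ Q₀, ∫⁻ y in J k, ‖Gmat G y‖ₑ ^ 2 ≤ ENNReal.ofReal e₂)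
    {E0 v δ θ : ℝ} (hE0 : 0 < E0) (hv : 0 < v) (hδ : 0 < δ) (hθ : 0 ≤ θ)
    (hc : 16 * M * t ^ 2 * e₂ * v ≤ E0 * δ * θ * (volume D).toReal) :
    ∃ B : Set R3, volume B ≤ ENNReal.ofReal θ * volume D ∧ ∀ a ∈ D, a ∉ B →
      ∃ Q ⊆ Q₀, ((Q₀ \ Q).card : ℝ) * v ≤ δ ∧ ∀ k ∈ Q, ∃ ε : κf → ℝ≥0∞,
        ∑' φ, ε φ ≤ ENNReal.ofReal E0 ∧
        ∀ φ, pt (e φ) (a + x φ) '' P φ ⊆ Ω → ∀ E1 : ℝ, ε φ < ENNReal.ofReal E1 →
          ∀ (u : R3 → ℝ) (L : ℝ), 0 ≤ L → (∀ y z, |u y - u z| ≤ L * dist y z) →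
          ∀ t0 tm t1 : ℝ, tm < t1 →
          (∀ w ∈ P φ, w ∉ interior (P φ) → u (f (pt (e φ) (a + x φ) w)) < t0) →
          (∀ w ∈ P φ, t0 ≤ u (f (pt (e φ) (a + x φ) w)) → pt (e φ) (a + x φ) w ∈ J k) →
          ∀ σ θ' : ℝ, 0 < σ → 0 < θ' → 8 * L * E1 ≤ θ' * σ →
          SmallPre (pt (e φ) (a + x φ) '' P φ) f u t0 tm t1 σ θ' := by
  obtain ⟨g, hgm, hgi, hgae, -⟩ := exists_dens hΩ hGp
  set Gt : R3 → ℝ≥0∞ := fun y => ENNReal.ofReal (t ^ 2) * g y with hGt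
  have hGtm : Measurable Gt := hgm.const_mul _
  have hGti : ∫⁻ y, Gt y ≠ ∞ := by
    rw [hGt, lintegral_const_mul _ hgm]
    exact ENNReal.mul_ne_top ENNReal.ofReal_ne_top hgi
  -- positions
  have hpos : ∀ᵐ a, ∀ φ, Pos Ω f (fun i y => Gmat G y (e φ i)) Gt (e φ) (a + x φ) := by
    rw [ae_all_iff]
    intro φ
    have h1 : ∀ᵐ a, Pos Ω f (fun i y => Gmat G y (e φ i)) Gt (e φ) a := by
      apply ae_pos hΩ hf (fun i => vwd_Gmat hΩ hG (e φ i))
      intro i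
      filter_upwards [hgae] with y hy hyΩ
      have h2 : ‖Gmat G y (e φ i)‖ₑ ≤ ‖Gmat G y‖ₑ * ENNReal.ofReal t := by
        refine ((Gmat G y).le_opENorm (e φ i)).trans ?_
        gcongr
        rw [← ofReal_norm]
        exact ENNReal.ofReal_le_ofReal (het φ i)
      calc ‖Gmat G y (e φ i)‖ₑ ^ 2 ≤ (‖Gmat G y‖ₑ * ENNReal.ofReal t) ^ 2 := by gcongr
        _ = Gt y := by
            rw [mul_pow, hy hyΩ, hGt, mul_comm, ENNReal.ofReal_pow ht.le]
    exact (measurePreserving_add_right volume (x φ)).quasiMeasurePreserving.ae h1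
  obtain ⟨N, hN0, hN⟩ : ∃ N : Set R3, volume N = 0 ∧
      ∀ a ∉ N, ∀ φ, Pos Ω f (fun i y => Gmat G y (e φ i)) Gt (e φ) (a + x φ) := by
    refine ⟨_, hpos, fun a ha => ?_⟩
    by_contra h
    exact ha h
  -- the energies
  set X : K → R3 → ℝ≥0∞ := fun k a => ∑' φ, 4 * Ee Gt (e φ) (P φ) (J k) (a + x φ) with hX
  have hXm : ∀ k ∈ Q₀, AEMeasurable (X k) (volume.restrict D) := by
    intro k _
    apply AEMeasurable.tsum
    intro φ
    have hm : Measurable fun a => 4 * Ee Gt (e φ) (P φ) (J k) (a + x φ) :=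
      ((measurable_Ee hGtm (e φ) (P φ) (J k)).comp (measurable_id.add_const (x φ))).const_mul 4
    exact hm.aemeasurable
  have hXi : ∑ k ∈ Q₀, ∫⁻ a in D, X k a ≤ ENNReal.ofReal (16 * M * t ^ 2 * e₂) := by
    calc ∑ k ∈ Q₀, ∫⁻ a in D, X k a
        ≤ ∑ k ∈ Q₀, 16 * M * ∫⁻ y in J k, Gt y := Finset.sum_le_sum fun k hk =>
          lintegral_faces hGtm hGti x e P (hJ k hk) hD hR hDR hM
      _ = 16 * M * ENNReal.ofReal (t ^ 2) * ∑ k ∈ Q₀, ∫⁻ y in J k, g y := by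
          rw [Finset.mul_sum]
          refine Finset.sum_congr rfl fun k _ => ?_
          rw [hGt, lintegral_const_mul _ hgm]
          ring
      _ = 16 * M * ENNReal.ofReal (t ^ 2) * ∑ k ∈ Q₀, ∫⁻ y in J k, ‖Gmat G y‖ₑ ^ 2 := by
          congr 1
          refine Finset.sum_congr rfl fun k hk => ?_
          apply setLIntegral_congr_fun_ae (hJ k hk).measurableSet
          filter_upwards [hgae] with y hy hyJ
          exact (hy (hJΩ k hk hyJ)).symm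
      _ ≤ 16 * M * ENNReal.ofReal (t ^ 2) * ENNReal.ofReal e₂ := by gcongr
      _ = ENNReal.ofReal (16 * M * t ^ 2 * e₂) := by
          rw [ENNReal.ofReal_mul (by positivity), ENNReal.ofReal_mul (by positivity),
            ENNReal.ofReal_mul (by positivity), ENNReal.ofReal_natCast]
          norm_num
  obtain ⟨B, hBD, hB, hB'⟩ := select hD Q₀ X hXm hXi (τ := ENNReal.ofReal E0)
    (by rw [Ne, ENNReal.ofReal_eq_zero, not_le]; exact hE0) ENNReal.ofReal_ne_top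
    (m := ENNReal.ofReal (δ / v))
    (by rw [Ne, ENNReal.ofReal_eq_zero, not_le]; positivity) ENNReal.ofReal_ne_top
  refine ⟨B ∪ N, ?_, ?_⟩
  · refine (measure_union_le _ _).trans ?_
    rw [hN0, add_zero]
    refine hB.trans ?_
    rw [← ENNReal.ofReal_mul hE0.le, ← ENNReal.ofReal_div_of_pos (by positivity),
      ← ENNReal.ofReal_toReal hDt, ← ENNReal.ofReal_mul hθ]
    apply ENNReal.ofReal_le_ofReal
    rw [div_le_iff₀ (by positivity)]
    have h1 : θ * (volume D).toReal * (E0 * (δ / v)) = E0 * δ * θ * (volume D).toReal / v := by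
      field_simp
    rw [h1, le_div_iff₀ hv]
    exact hc
  · intro a haD haB
    have haB1 : a ∉ B := fun h => haB (Or.inl h)
    have haN : a ∉ N := fun h => haB (Or.inr h)
    obtain ⟨Q, hQ, hcard, hQX⟩ := hB' a haD haB1
    refine ⟨Q, hQ, ?_, ?_⟩
    · rw [← ENNReal.ofReal_natCast] at hcard
      have h1 := (ENNReal.ofReal_le_ofReal_iff (by positivity)).1 hcard
      rwa [le_div_iff₀ hv] at h1
    · intro k hk
      refine ⟨fun φ => 4 * Ee Gt (e φ) (P φ) (J k) (a + x φ), hQX k hk, ?_⟩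
      intro φ hsub E1 hE1 u L hL hu t0 tm t1 h1 hbd hSS σ θ' hσ hθ' hEσ
      exact small_of_pos hf (hli φ) (hN a haN φ) (hPc φ) (hPconv φ) (hP φ) hsub hE1 hL hu h1 hbd
        hSS hσ hθ' hEσ

end

end Crest.Agent.R096.Fsl_793
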