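/-
helper793, row 96, p ≤ 2, leaf P2-SELECT, part 3: junk sets of good cubes; selection of cubes by
a random measure (edges, faces, strips).
-/
import Mathlib
import Crest.Agent.R096.Fsl2_793
import Crest.Agent.R96.Intr27_538

set_option autoImplicit false
set_option linter.unusedSectionVars false
set_option maxHeartbeats 400000

open MeasureTheory Set Filter
open scoped ENNReal Topology

namespace Crest.Agent.R096.Fsl_793

open Crest.AnalysisR.VecCalc3 Crest.AnalysisR.Sobolev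
open Crest.Agent.R96.Acl_392 Crest.Agent.R96.Sob4_199 Crest.Agent.R096.Sc_968
open Crest.Agent.R096.Fce_793 Crest.Agent.R96.Lu_538 Crest.Agent.R96.Intr_538
open Crest.Agent.R96.Coarse_538

noncomputable section

/-- **junk set** of a cube: `f` is at distance `≥ β` from the affine map -/
def Junk (f : R3 → R3) (s : ℝ) (z b : R3) (L : R3 →L[ℝ] R3) (β : ℝ) : Set R3 :=
  {y ∈ cel Cb z s | β ≤ ‖f y - (b + L (y - z))‖}

theorem junk_sub {f : R3 → R3} {s : ℝ} {z b : R3} {L : R3 →L[ℝ] R3} {β : ℝ} :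
    Junk f s z b L β ⊆ cel Cb z s := fun _ h => h.1

theorem isClosed_junk {Ω : Set R3} {f : R3 → R3} (hf : ContinuousOn f Ω) {s : ℝ} {z b : R3}
    {L : R3 →L[ℝ] R3} {β : ℝ} (hsub : cel Cb z s ⊆ Ω) : IsClosed (Junk f s z b L β) := by
  have h1 : ContinuousOn (fun y => ‖f y - (b + L (y - z))‖) (cel Cb z s) := by
    have h2 := hf.mono hsub
    exact (h2.sub (by fun_prop)).norm
  exact h1.preimage_isClosed_of_isClosed (isClosed_cel z s) isClosed_Ici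

/-- the energy of the junk set of a good cube -/
theorem junk_energy {Ω : Set R3} {f : R3 → R3} {D : R3 → R3 →L[ℝ] R3} {κ e₁ s : ℝ} {z b : R3}
    {L : R3 →L[ℝ] R3} {S : Set R3} (hκ : 0 < κ)
    (h : GC Ω volume f D Cb κ e₁ s z b L S) {β : ℝ} (hβ : e₁ * s < β) :
    ∫⁻ y in Junk f s z b L β, ‖D y‖ₑ ^ 2 ≤
      2 * (∫⁻ y in cel Cb z s, ‖D y - L‖ₑ ^ 2) + ENNReal.ofReal (2 * κ⁻¹ ^ 2 * e₁ * s ^ 3) := by
  have h1 : Junk f s z b L β ⊆ cel Cb z s \ S := by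
    intro y hy
    refine ⟨hy.1, fun hyS => ?_⟩
    have h2 := h.cf y hyS
    have h3 := hy.2
    linarith
  have hcm : MeasurableSet (cel Cb z s) := (isClosed_cel z s).measurableSet
  have hpt : ∀ y, ‖D y‖ₑ ^ 2 ≤ 2 * ‖D y - L‖ₑ ^ 2 + 2 * ‖L‖ₑ ^ 2 := by
    intro y
    have h2 : ‖D y‖ₑ ≤ ‖D y - L‖ₑ + ‖L‖ₑ := by
      rw [← ofReal_norm, ← ofReal_norm, ← ofReal_norm,
        ← ENNReal.ofReal_add (norm_nonneg _) (norm_nonneg _)]
      apply ENNReal.ofReal_le_ofReal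
      calc ‖D y‖ = ‖D y - L + L‖ := by rw [sub_add_cancel]
        _ ≤ _ := norm_add_le _ _
    calc ‖D y‖ₑ ^ 2 ≤ (‖D y - L‖ₑ + ‖L‖ₑ) ^ 2 := by gcongr
      _ ≤ 2 * (‖D y - L‖ₑ ^ 2 + ‖L‖ₑ ^ 2) := by
          have := ENNReal.rpow_add_le_mul_rpow_add_rpow ‖D y - L‖ₑ ‖L‖ₑ (p := 2) (by norm_num)
          simp only [ENNReal.rpow_two] at this
          norm_num at this
          exact this
      _ = _ := by rw [mul_add]
  have hLb : ‖L‖ₑ ^ 2 ≤ ENNReal.ofReal (κ⁻¹ ^ 2) := by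
    rw [← ofReal_norm, ← ENNReal.ofReal_pow (norm_nonneg _)]
    apply ENNReal.ofReal_le_ofReal
    gcongr
    exact h.up
  have hvol : volume (Junk f s z b L β) ≤ ENNReal.ofReal (e₁ * s ^ 3) := by
    refine (measure_mono h1).trans ?_
    have := h.big
    rwa [show Module.finrank ℝ R3 = 3 from finrank_euclideanSpace_fin] at this
  calc ∫⁻ y in Junk f s z b L β, ‖D y‖ₑ ^ 2
      ≤ ∫⁻ y in Junk f s z b L β, (2 * ‖D y - L‖ₑ ^ 2 + 2 * ‖L‖ₑ ^ 2) := lintegral_mono hpt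
    _ = (∫⁻ y in Junk f s z b L β, 2 * ‖D y - L‖ₑ ^ 2) +
        ∫⁻ _y in Junk f s z b L β, 2 * ‖L‖ₑ ^ 2 := lintegral_add_right _ measurable_const
    _ ≤ 2 * (∫⁻ y in cel Cb z s, ‖D y - L‖ₑ ^ 2) + ENNReal.ofReal (2 * κ⁻¹ ^ 2 * e₁ * s ^ 3) := by
        apply add_le_add
        · rw [lintegral_const_mul' _ _ (by norm_num)]
          gcongr
          exact junk_sub
        · rw [setLIntegral_const]
          calc 2 * ‖L‖ₑ ^ 2 * volume (Junk f s z b L β)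
              ≤ 2 * ENNReal.ofReal (κ⁻¹ ^ 2) * ENNReal.ofReal (e₁ * s ^ 3) := by gcongr
            _ = ENNReal.ofReal (2 * κ⁻¹ ^ 2 * e₁ * s ^ 3) := by
                rw [show (2 : ℝ≥0∞) = ENNReal.ofReal 2 by norm_num,
                  ← ENNReal.ofReal_mul (by norm_num), ← ENNReal.ofReal_mul (by positivity)]
                congr 1
                ring

/-- **selection of cubes by a random measure** -/
theorem rm_select {D : Set R3} (hD : MeasurableSet D) {n : ℝ≥0∞} {μ : R3 → Measure R3}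
    (hμ : RM D n μ) {K : Type*} [DecidableEq K] (Q₀ : Finset K) (C : K → Set R3)
    (hC : ∀ k ∈ Q₀, MeasurableSet (C k)) (F : K → R3 → ℝ≥0∞)
    (hF : ∀ k ∈ Q₀, AEMeasurable (F k) (volume.restrict (C k))) {c : ℝ≥0∞}
    (hc : ∑ k ∈ Q₀, ∫⁻ y in C k, F k y ≤ c) {τ : ℝ≥0∞} (hτ0 : τ ≠ 0) (hτ : τ ≠ ∞)
    {m : ℝ≥0∞} (hm0 : m ≠ 0) (hm : m ≠ ∞) :
    ∃ B : Set R3, volume B ≤ n * volume D * c / (τ * m) ∧ ∀ a ∈ D, a ∉ B →
      ∃ Q ⊆ Q₀, ((Q₀ \ Q).card : ℝ≥0∞) ≤ m ∧ ∀ k ∈ Q, ∫⁻ y in C k, F k y ∂μ a ≤ τ := by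
  classical
  -- measurable versions
  have hex : ∀ k : K, ∃ g : R3 → ℝ≥0∞, Measurable g ∧ (k ∈ Q₀ →
      (∀ᵐ y, (C k).indicator (F k) y = g y)) := by
    intro k
    by_cases hk : k ∈ Q₀
    · have h1 : AEMeasurable ((C k).indicator (F k)) volume :=
        (aemeasurable_indicator_iff (hC k hk)).2 (hF k hk)
      exact ⟨h1.mk _, h1.measurable_mk, fun _ => h1.ae_eq_mk⟩
    · exact ⟨0, measurable_zero, fun h => absurd h hk⟩
  choose g hgm hg using hex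
  have hX : ∀ k ∈ Q₀, AEMeasurable (fun a => ∫⁻ y, g k y ∂μ a) (volume.restrict D) :=
    fun k _ => hμ.meas _ (hgm k)
  have hXi : ∑ k ∈ Q₀, ∫⁻ a in D, ∫⁻ y, g k y ∂μ a ≤ n * volume D * c := by
    calc ∑ k ∈ Q₀, ∫⁻ a in D, ∫⁻ y, g k y ∂μ a
        ≤ ∑ k ∈ Q₀, n * volume D * ∫⁻ y, g k y := Finset.sum_le_sum fun k _ => hμ.dens _ (hgm k)
      _ = n * volume D * ∑ k ∈ Q₀, ∫⁻ y in C k, F k y := by
          rw [Finset.mul_sum]
          refine Finset.sum_congr rfl fun k hk => ?_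
          rw [← lintegral_indicator (hC k hk), lintegral_congr_ae (hg k hk)]
      _ ≤ n * volume D * c := by gcongr
  obtain ⟨B, -, hB, hB'⟩ := select hD Q₀ (fun k a => ∫⁻ y, g k y ∂μ a) hX hXi hτ0 hτ hm0 hm
  -- the null sets
  have hnull : ∀ k : K, ∃ N : Set R3, volume N = 0 ∧ (k ∈ Q₀ → ∀ a ∈ D, a ∉ N →
      ∫⁻ y in C k, F k y ∂μ a = ∫⁻ y, g k y ∂μ a) := by
    intro k
    by_cases hk : k ∈ Q₀
    · obtain ⟨N, hN, hN'⟩ := hμ.null hD (Z := {y | (C k).indicator (F k) y ≠ g k y}) (hg k hk)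
      refine ⟨N, hN, fun _ a ha haN => ?_⟩
      have h1 : (C k).indicator (F k) =ᵐ[μ a] g k := hN' a ha haN
      rw [← lintegral_indicator (hC k hk), lintegral_congr_ae h1]
    · exact ⟨∅, measure_empty, fun h => absurd h hk⟩
  choose N hN hN' using hnull
  refine ⟨B ∪ ⋃ k ∈ Q₀, N k, ?_, ?_⟩
  · refine (measure_union_le _ _).trans ?_
    have h1 : volume (⋃ k ∈ Q₀, N k) = 0 :=
      (measure_biUnion_null_iff Q₀.countable_toSet).2 fun k _ => hN k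
    rw [h1, add_zero]
    exact hB
  · intro a ha haB
    obtain ⟨Q, hQ, hcard, hQ'⟩ := hB' a ha fun h => haB (Or.inl h)
    refine ⟨Q, hQ, hcard, fun k hk => ?_⟩
    rw [hN' k (hQ hk) a ha fun h => haB (Or.inr (mem_iUnion₂.2 ⟨k, hQ hk, h⟩))]
    exact hQ' k hk

end

end Crest.Agent.R096.Fsl_793
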