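/-
helper793, row 96, p = 2, leaf P2-SELECT, part 4: `coarse_G` (538) at `p = 2` together with the
faces (small circles on ALL faces of the perfect cubes) and any random measure (faces, strips).
-/
import Mathlib
import Crest.Agent.R096.Fsl3_793
import Crest.Agent.R96.Intr24_538

set_option autoImplicit false
set_option linter.unusedSectionVars false
set_option maxHeartbeats 400000

open MeasureTheory Set Filter
open scoped ENNReal Topology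

namespace Crest.Agent.R096.Fsl_793

open Crest.AnalysisR.VecCalc3 Crest.AnalysisR.Sobolev
open Crest.Agent.R96.Acl_392 Crest.Agent.R96.Sob4_199 Crest.Agent.R096.Sc_968
open Crest.Agent.R096.Fce_793 Crest.Agent.R96.Lu_538 Crest.Agent.R96.Intr_538
open Crest.Agent.R96.Coarse_538

noncomputable section

/-- a countable family of faces `pt (e φ) (a + x φ) '' P φ` of size `≤ t` in random position
`a ∈ D`, with overlap at most `M` -/
structure Faces {κf : Type*} (D : Set R3) (t : ℝ) (M : ℕ) (x : κf → R3) (e : κf → Fin 2 → R3)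
    (P : κf → Set (ℝ × ℝ)) (R : κf → Set R3) : Prop where
  li : ∀ φ, LinearIndependent ℝ (e φ)
  le : ∀ φ i, ‖e φ i‖ ≤ t
  cpt : ∀ φ, IsCompact (P φ)
  conv : ∀ φ, Convex ℝ (P φ)
  sub : ∀ φ, P φ ⊆ Icc (0:ℝ) 1 ×ˢ Icc (0:ℝ) 1
  meas : ∀ φ, MeasurableSet (R φ)
  mem : ∀ φ, ∀ a ∈ D, ∀ w ∈ P φ, pt (e φ) (a + x φ) w ∈ R φ
  card : ∀ y, {φ | y ∈ R φ}.encard ≤ M

/-- **all faces have small circles** relative to the junk set `J`: random energies `ε φ` with sum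
at most `E0` such that every face has `SmallPre` with `8 L E1 ≤ θ' σ`, `ε φ < E1` -/
def FaceG {κf : Type*} (Ω : Set R3) (f : R3 → R3) (x : κf → R3) (e : κf → Fin 2 → R3)
    (P : κf → Set (ℝ × ℝ)) (J : Set R3) (E0 : ℝ) (a : R3) : Prop :=
  ∃ ε : κf → ℝ≥0∞, ∑' φ, ε φ ≤ ENNReal.ofReal E0 ∧
    ∀ φ, pt (e φ) (a + x φ) '' P φ ⊆ Ω → ∀ E1 : ℝ, ε φ < ENNReal.ofReal E1 →
      ∀ (u : R3 → ℝ) (L : ℝ), 0 ≤ L → (∀ y z, |u y - u z| ≤ L * dist y z) →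
      ∀ t0 tm t1 : ℝ, tm < t1 →
      (∀ w ∈ P φ, w ∉ interior (P φ) → u (f (pt (e φ) (a + x φ) w)) < t0) →
      (∀ w ∈ P φ, t0 ≤ u (f (pt (e φ) (a + x φ) w)) → pt (e φ) (a + x φ) w ∈ J) →
      ∀ σ θ' : ℝ, 0 < σ → 0 < θ' → 8 * L * E1 ≤ θ' * σ →
      SmallPre (pt (e φ) (a + x φ) '' P φ) f u t0 tm t1 σ θ'

/-- one face: a bound for all -/
theorem FaceG.small {κf : Type*} {Ω : Set R3} {f : R3 → R3} {x : κf → R3} {e : κf → Fin 2 → R3}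
    {P : κf → Set (ℝ × ℝ)} {J : Set R3} {E0 : ℝ} {a : R3} (h : FaceG Ω f x e P J E0 a)
    {E1 : ℝ} (hE1 : E0 < E1) (h0 : 0 ≤ E0) (φ : κf) (hsub : pt (e φ) (a + x φ) '' P φ ⊆ Ω)
    {u : R3 → ℝ} {L : ℝ} (hL : 0 ≤ L) (hu : ∀ y z, |u y - u z| ≤ L * dist y z)
    {t0 tm t1 : ℝ} (h1 : tm < t1)
    (hbd : ∀ w ∈ P φ, w ∉ interior (P φ) → u (f (pt (e φ) (a + x φ) w)) < t0)
    (hJ : ∀ w ∈ P φ, t0 ≤ u (f (pt (e φ) (a + x φ) w)) → pt (e φ) (a + x φ) w ∈ J)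
    {σ θ' : ℝ} (hσ : 0 < σ) (hθ : 0 < θ') (hE : 8 * L * E1 ≤ θ' * σ) :
    SmallPre (pt (e φ) (a + x φ) '' P φ) f u t0 tm t1 σ θ' := by
  obtain ⟨ε, h2, h3⟩ := h
  refine h3 φ hsub E1 ?_ u L hL hu t0 tm t1 h1 hbd hJ σ θ' hσ hθ hE
  refine ((ENNReal.le_tsum φ).trans h2).trans_lt ?_
  exact (ENNReal.ofReal_lt_ofReal_iff (by linarith)).2 hE1

/-- the junk energies of the cubes of `coarse_G` -/
theorem junk_sum {Ω : Set R3} (hΩf : volume Ω ≠ ∞) {f : R3 → R3} {D : R3 → R3 →L[ℝ] R3}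
    {κ e₁ s : ℝ} (hκ : 0 < κ) (hs : 0 < s) (he₁ : 0 ≤ e₁) (a₀ : R3) (Q₀ : Finset (Fin 3 → ℤ))
    (b : (Fin 3 → ℤ) → R3) (L : (Fin 3 → ℤ) → R3 →L[ℝ] R3) (S : (Fin 3 → ℤ) → Set R3)
    (hGC : ∀ k ∈ Q₀, GC Ω volume f D Cb κ e₁ s (vt (2 * s) a₀ k) (b k) (L k) (S k))
    (hsum : ∑ k ∈ Q₀, ∫⁻ x in cel Cb (vt (2 * s) a₀ k) s, ‖D x - L k‖ₑ ^ 2 ≤ ENNReal.ofReal e₁)
    {β : ℝ} (hβ : e₁ * s < β) :
    ∑ k ∈ Q₀, ∫⁻ y in Junk f s (vt (2 * s) a₀ k) (b k) (L k) β, ‖D y‖ₑ ^ 2 ≤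
      ENNReal.ofReal (e₁ * (2 + 2 * κ⁻¹ ^ 2 * (volume Ω).toReal)) := by
  have hcard := card_inside hΩf hs a₀ Q₀ fun k hk => (hGC k hk).sub
  have hcard' : (Q₀.card : ℝ) * s ^ 3 ≤ (volume Ω).toReal := by
    have h1 : (Q₀.card : ℝ) * (2 * s) ^ 3 = 8 * (Q₀.card * s ^ 3) := by ring
    have h2 : 0 ≤ (Q₀.card : ℝ) * s ^ 3 := by positivity
    linarith
  calc ∑ k ∈ Q₀, ∫⁻ y in Junk f s (vt (2 * s) a₀ k) (b k) (L k) β, ‖D y‖ₑ ^ 2
      ≤ ∑ k ∈ Q₀, (2 * (∫⁻ y in cel Cb (vt (2 * s) a₀ k) s, ‖D y - L k‖ₑ ^ 2) +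
          ENNReal.ofReal (2 * κ⁻¹ ^ 2 * e₁ * s ^ 3)) :=
        Finset.sum_le_sum fun k hk => junk_energy hκ (hGC k hk) hβ
    _ = 2 * (∑ k ∈ Q₀, ∫⁻ y in cel Cb (vt (2 * s) a₀ k) s, ‖D y - L k‖ₑ ^ 2) +
          ENNReal.ofReal (Q₀.card * (2 * κ⁻¹ ^ 2 * e₁ * s ^ 3)) := by
        rw [Finset.sum_add_distrib, Finset.mul_sum, Finset.sum_const, nsmul_eq_mul,
          ENNReal.ofReal_mul (Nat.cast_nonneg _), ENNReal.ofReal_natCast]
    _ ≤ 2 * ENNReal.ofReal e₁ + ENNReal.ofReal (2 * κ⁻¹ ^ 2 * e₁ * (volume Ω).toReal) := by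
        have h5 : (Q₀.card : ℝ) * (2 * κ⁻¹ ^ 2 * e₁ * s ^ 3) ≤
            2 * κ⁻¹ ^ 2 * e₁ * (volume Ω).toReal := by
          calc (Q₀.card : ℝ) * (2 * κ⁻¹ ^ 2 * e₁ * s ^ 3) =
                2 * κ⁻¹ ^ 2 * e₁ * (Q₀.card * s ^ 3) := by ring
            _ ≤ _ := by gcongr
        exact add_le_add (by gcongr) (ENNReal.ofReal_le_ofReal h5)
    _ = ENNReal.ofReal (e₁ * (2 + 2 * κ⁻¹ ^ 2 * (volume Ω).toReal)) := by
        have h6 : (2:ℝ≥0∞) * ENNReal.ofReal e₁ = ENNReal.ofReal (2 * e₁) := by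
          rw [ENNReal.ofReal_mul (by norm_num)]
          norm_num
        rw [h6, ← ENNReal.ofReal_add (by positivity) (by positivity)]
        congr 1
        ring

/-- **COARSE-G at p = 2 WITH FACES AND A RANDOM MEASURE.** -/
theorem coarse_F {Ω Λ : Set R3} (hΩ : IsOpen Ω)
    (hΩb : Bornology.IsBounded Ω) (hΛ : IsOpen Λ) (hΛf : volume Λ ≠ ∞) {f : R3 → R3}
    {G : Fin 3 → R3 → R3} (hinj : InjOn f Ω)
    (hf : ContinuousOn f Ω) (hfΛ : MapsTo f Ω Λ)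
    (hG : ∀ j, HasWeakGradOn Ω (fun x => f x j) (G j))
    (hGp : ∀ j, MemLp (G j) (ENNReal.ofReal 2) (volume.restrict Ω)) {ε : ℝ} (hε : 0 < ε) :
    ∃ κ : ℝ, 0 < κ ∧ κ ≤ 1 ∧ ∃ K ⊆ Ω, IsCompact K ∧ ∃ K' ⊆ Λ, IsCompact K' ∧
      ∀ N n τ σ₀ η θ δ e₁ ε₀ β Λf : ℝ, ∀ M : ℕ, 0 < N → 0 < n → 0 < σ₀ → σ₀ < τ → 2 * τ ≤ 1 →
        1 ≤ σ₀ * N → 0 < η → 0 < θ → 0 < δ → 0 < e₁ → 0 < ε₀ → 0 < β → 0 < Λf →
        ∃ s₀ : ℝ, 0 < s₀ ∧ ∀ s : ℝ, 0 < s → s < s₀ → ∀ a₀ : R3,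
        ∃ (Q₀ : Finset (Fin 3 → ℤ)) (b : (Fin 3 → ℤ) → R3) (L : (Fin 3 → ℤ) → R3 →L[ℝ] R3)
          (S : (Fin 3 → ℤ) → Set R3),
          (∀ k ∈ Q₀, GC Ω volume f (Gmat G) Cb κ e₁ s (vt (2 * s) a₀ k) (b k) (L k) (S k)) ∧
          (∀ k ∈ Q₀, cel Cb (vt (2 * s) a₀ k) s ⊆ K) ∧ (∀ k ∈ Q₀, par Cb (L k) (b k) s ⊆ K') ∧
          (∀ k ∈ Q₀, ∀ l ∈ Q₀, k ≠ l →
            Disjoint (par Cb (L k) (b k) ((1 - τ) * s)) (par Cb (L l) (b l) s)) ∧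
          ∑ k ∈ Q₀, ∫⁻ x in cel Cb (vt (2 * s) a₀ k) s, ‖Gmat G x - L k‖ₑ ^ (2:ℝ) ≤
            ENNReal.ofReal e₁ ∧
          volume ((Ω ∩ {x | (Gmat G x).det ≠ 0}) \ ⋃ k ∈ Q₀, cel Cb (vt (2 * s) a₀ k) s) ≤
            ENNReal.ofReal ε ∧
          ∀ (κi : Type) [Countable κi] (x v : κi → R3) (κf : Type) [Countable κf]
            (xf : κf → R3) (ef : κf → Fin 2 → R3) (Pf : κf → Set (ℝ × ℝ)) (Rf : κf → Set R3)
            (D : Set R3), MeasurableSet D →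
            ENNReal.ofReal ((s / N) ^ 3) ≤ volume D → volume D ≠ ∞ → (∀ e, ‖v e‖ ≤ s / N) →
            Dens D (ENNReal.ofReal n) x v → Faces D (Λf * (s / N)) M xf ef Pf Rf →
            ∀ μ : R3 → Measure R3, RM D (ENNReal.ofReal n) μ →
            ∃ B : Set R3, volume B ≤ ENNReal.ofReal θ * volume D ∧
              ∀ a ∈ D, a ∉ B → ∃ Q ⊆ Q₀, ((Q₀ \ Q).card : ℝ) * (2 * s) ^ 3 ≤ δ ∧
                ∀ k ∈ Q, PerfG x v 2 Ω f (Gmat G) κ τ σ₀ η (s / N) s a (vt (2 * s) a₀ k)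
                  (b k) (L k) ∧
                FaceG Ω f xf ef Pf (Junk f s (vt (2 * s) a₀ k) (b k) (L k) (β * (s / N)))
                  (ε₀ * (s / N) ^ 2) a ∧
                ∫⁻ y in cel Cb (vt (2 * s) a₀ k) s, ‖Gmat G y - L k‖ₑ ^ (2:ℝ) ∂μ a ≤
                  ENNReal.ofReal (ε₀ * s ^ 3) := by
  classical
  have hΩf : volume Ω ≠ ∞ := hΩb.measure_lt_top.ne
  have hG2 : ∀ j, MemLp (G j) 2 (volume.restrict Ω) := by
    intro j
    have h1 : ENNReal.ofReal 2 = 2 := by norm_num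
    have := hGp j
    rwa [h1] at this
  obtain ⟨κ, hκ, hκ1, K, hK, hKc, K', hK', hK'c, H⟩ :=
    coarse_G (p := 2) (by norm_num) hΩ hΩb hΛ hΛf hinj hf hfΛ hG hGp hε
  refine ⟨κ, hκ, hκ1, K, hK, hKc, K', hK', hK'c, ?_⟩
  intro N n τ σ₀ η θ δ e₁ ε₀ β Λf M hN hn hσ₀ hσ₀τ hτ hσN hη hθ hδ he₁ hε₀ hβ hΛ0
  set V : ℝ := (volume Ω).toReal with hV
  have hV0 : 0 ≤ V := ENNReal.toReal_nonneg
  set Cκ : ℝ := 2 + 2 * κ⁻¹ ^ 2 * V with hCκ
  have hCκ0 : 0 < Cκ := by positivity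
  -- the tolerance
  obtain ⟨e', he'0, he'1, he'β, he'F, he'R⟩ : ∃ e' : ℝ, 0 < e' ∧ e' ≤ e₁ ∧ e' * N < β ∧
      1152 * M * Λf ^ 2 * (e' * Cκ) * N ^ 3 ≤ ε₀ * δ * θ ∧ 72 * n * e' ≤ ε₀ * δ * θ := by
    refine ⟨min (min e₁ (β / (2 * N))) (min (ε₀ * δ * θ / (1152 * (M + 1) * Λf ^ 2 * Cκ * N ^ 3))
      (ε₀ * δ * θ / (72 * n))), ?_, (min_le_left _ _).trans (min_le_left _ _), ?_, ?_, ?_⟩
    · have : 0 < (M : ℝ) + 1 := by positivity
      refine lt_min (lt_min he₁ (by positivity)) (lt_min (by positivity) (by positivity))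
    · set e' := min (min e₁ (β / (2 * N))) (min (ε₀ * δ * θ / (1152 * (M + 1) * Λf ^ 2 * Cκ * N ^ 3))
        (ε₀ * δ * θ / (72 * n)))
      have h1 : e' ≤ β / (2 * N) := (min_le_left _ _).trans (min_le_right _ _)
      rw [le_div_iff₀ (by positivity)] at h1
      nlinarith
    · set e' := min (min e₁ (β / (2 * N))) (min (ε₀ * δ * θ / (1152 * (M + 1) * Λf ^ 2 * Cκ * N ^ 3))
        (ε₀ * δ * θ / (72 * n))) with he'
      have hM1 : 0 < (M : ℝ) + 1 := by positivity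
      have h1 : e' ≤ ε₀ * δ * θ / (1152 * (M + 1) * Λf ^ 2 * Cκ * N ^ 3) :=
        (min_le_right _ _).trans (min_le_left _ _)
      have h0 : 0 ≤ e' := by
        rw [he']
        exact le_min (le_min he₁.le (by positivity)) (le_min (by positivity) (by positivity))
      rw [le_div_iff₀ (by positivity)] at h1
      refine le_trans ?_ h1
      have h2 : 0 ≤ e' * (1152 * Λf ^ 2 * Cκ * N ^ 3) := by positivity
      nlinarith
    · set e' := min (min e₁ (β / (2 * N))) (min (ε₀ * δ * θ / (1152 * (M + 1) * Λf ^ 2 * Cκ * N ^ 3))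
        (ε₀ * δ * θ / (72 * n)))
      have h1 : e' ≤ ε₀ * δ * θ / (72 * n) := (min_le_right _ _).trans (min_le_right _ _)
      rw [le_div_iff₀ (by positivity)] at h1
      linarith
  obtain ⟨s₀, hs₀, Hs⟩ := H N n τ σ₀ η (θ / 3) (δ / 3) e' hN hn hσ₀ hσ₀τ hτ hσN hη (by positivity)
    (by positivity) he'0
  refine ⟨s₀, hs₀, ?_⟩
  intro s hs hss a₀
  obtain ⟨Q₀, b, L, S, hGC, hcK, hpK, hdis, hsum, hvol, Hsel⟩ := Hs s hs hss a₀
  refine ⟨Q₀, b, L, S, fun k hk => Crest.Agent.R96.Coarse_538.GC.mono_e hs he'1 (hGC k hk), hcK, hpK, hdis,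
    hsum.trans (ENNReal.ofReal_le_ofReal he'1), hvol, ?_⟩
  intro κi _ x v κf _ xf ef Pf Rf D hD hDv hDt hv hDens hF μ hμ
  set t : ℝ := s / N with ht
  have ht0 : 0 < t := by positivity
  have hsN : s = t * N := by rw [ht]; field_simp
  set VD : ℝ := (volume D).toReal with hVD
  have hVD0 : t ^ 3 ≤ VD := by
    rw [hVD, ← ENNReal.ofReal_le_iff_le_toReal hDt]
    exact hDv
  have hVDV : ENNReal.ofReal VD = volume D := ENNReal.ofReal_toReal hDt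
  -- 1: edges
  obtain ⟨B1, hB1, hB1'⟩ := Hsel κi x v D hD hDv hv hDens
  -- 2: faces
  have hsum2 : ∑ k ∈ Q₀, ∫⁻ x in cel Cb (vt (2 * s) a₀ k) s, ‖Gmat G x - L k‖ₑ ^ 2 ≤
      ENNReal.ofReal e' := by
    simpa only [ENNReal.rpow_two] using hsum
  have hβs : e' * s < β * t := by
    rw [hsN]
    nlinarith
  have hjs := junk_sum hΩf hκ hs he'0.le a₀ Q₀ b L S hGC hsum2 hβs
  rw [← hV, ← hCκ] at hjs
  have hfs := faces_select hΩ hf hG hG2 xf ef hF.li (t := Λf * t) (by positivity) hF.le Pf hF.cpt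
    hF.conv hF.sub hD hDt hF.meas hF.mem hF.card Q₀
    (fun k => Junk f s (vt (2 * s) a₀ k) (b k) (L k) (β * t))
    (fun k hk => isClosed_junk hf (hGC k hk).sub)
    (fun k hk => junk_sub.trans (hGC k hk).sub) hjs (E0 := ε₀ * t ^ 2) (v := (2 * s) ^ 3)
    (δ := δ / 3) (θ := θ / 3) (by positivity) (by positivity) (by positivity) (by positivity) (by
      have h1 : ε₀ * t ^ 2 * (δ / 3) * (θ / 3) * t ^ 3 ≤
          ε₀ * t ^ 2 * (δ / 3) * (θ / 3) * VD := by gcongr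
      refine le_trans ?_ h1
      have h2 : 16 * (M : ℝ) * (Λf * t) ^ 2 * (e' * Cκ) * (2 * s) ^ 3 =
          (1152 * M * Λf ^ 2 * (e' * Cκ) * N ^ 3) * (t ^ 5 / 9) := by
        rw [hsN]; ring
      have h3 : ε₀ * t ^ 2 * (δ / 3) * (θ / 3) * t ^ 3 = ε₀ * δ * θ * (t ^ 5 / 9) := by ring
      rw [h2, h3]
      gcongr)
  obtain ⟨B2, hB2, hB2'⟩ := hfs
  -- 3: the random measure
  have hGm : AEStronglyMeasurable (Gmat G) (volume.restrict Ω) := aesm_Gmat fun j => (hGp j).1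
  obtain ⟨B3, hB3, hB3'⟩ := rm_select hD hμ Q₀ (fun k => cel Cb (vt (2 * s) a₀ k) s)
    (fun k _ => (isClosed_cel _ _).measurableSet)
    (fun k y => ‖Gmat G y - L k‖ₑ ^ (2:ℝ)) (fun k hk => by
      have h1 : AEStronglyMeasurable (Gmat G)
          (volume.restrict (cel Cb (vt (2 * s) a₀ k) s)) :=
        hGm.mono_measure (Measure.restrict_mono (hGC k hk).sub le_rfl)
      exact ((h1.sub aestronglyMeasurable_const).enorm).pow_const _) hsum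
    (τ := ENNReal.ofReal (ε₀ * s ^ 3))
    (by rw [Ne, ENNReal.ofReal_eq_zero, not_le]; positivity) ENNReal.ofReal_ne_top
    (m := ENNReal.ofReal (δ / 3 / (2 * s) ^ 3))
    (by rw [Ne, ENNReal.ofReal_eq_zero, not_le]; positivity) ENNReal.ofReal_ne_top
  have hB3'' : volume B3 ≤ ENNReal.ofReal (θ / 3) * volume D := by
    refine hB3.trans ?_
    rw [← hVDV, ← ENNReal.ofReal_mul hn.le, ← ENNReal.ofReal_mul (by positivity),
      ← ENNReal.ofReal_mul (by positivity), ← ENNReal.ofReal_div_of_pos (by positivity),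
      ← ENNReal.ofReal_mul (by positivity)]
    apply ENNReal.ofReal_le_ofReal
    rw [div_le_iff₀ (by positivity)]
    have h1 : θ / 3 * VD * (ε₀ * s ^ 3 * (δ / 3 / (2 * s) ^ 3)) = ε₀ * δ * θ * VD / 72 := by
      field_simp
      ring
    rw [h1, le_div_iff₀ (by norm_num)]
    have h2 : 0 ≤ VD := ENNReal.toReal_nonneg
    nlinarith [mul_le_mul_of_nonneg_right he'R h2]
  refine ⟨B1 ∪ B2 ∪ B3, ?_, ?_⟩
  · calc volume (B1 ∪ B2 ∪ B3) ≤ volume B1 + volume B2 + volume B3 :=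
          (measure_union_le _ _).trans (by gcongr; exact measure_union_le _ _)
      _ ≤ ENNReal.ofReal (θ / 3) * volume D + ENNReal.ofReal (θ / 3) * volume D +
          ENNReal.ofReal (θ / 3) * volume D := by gcongr
      _ = ENNReal.ofReal θ * volume D := by
          rw [← add_mul, ← add_mul, ← ENNReal.ofReal_add (by positivity) (by positivity),
            ← ENNReal.ofReal_add (by positivity) (by positivity)]
          congr 2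
          ring
  · intro a ha haB
    obtain ⟨Q1, hQ1, hc1, h1⟩ := hB1' a ha fun h => haB (Or.inl (Or.inl h))
    obtain ⟨Q2, hQ2, hc2, h2⟩ := hB2' a ha fun h => haB (Or.inl (Or.inr h))
    obtain ⟨Q3, hQ3, hc3, h3⟩ := hB3' a ha fun h => haB (Or.inr h)
    refine ⟨Q1 ∩ Q2 ∩ Q3, (Finset.inter_subset_left.trans Finset.inter_subset_left).trans hQ1,
      ?_, ?_⟩
    · have hc3' : ((Q₀ \ Q3).card : ℝ) * (2 * s) ^ 3 ≤ δ / 3 := by
        rw [← ENNReal.ofReal_natCast] at hc3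
        have h4 := (ENNReal.ofReal_le_ofReal_iff (by positivity)).1 hc3
        rwa [le_div_iff₀ (by positivity)] at h4
      have hsub : Q₀ \ (Q1 ∩ Q2 ∩ Q3) ⊆ (Q₀ \ Q1) ∪ (Q₀ \ Q2) ∪ (Q₀ \ Q3) := by
        intro k hk
        simp only [Finset.mem_sdiff, Finset.mem_inter, Finset.mem_union] at hk ⊢
        tauto
      have hcard : ((Q₀ \ (Q1 ∩ Q2 ∩ Q3)).card : ℝ) ≤
          (Q₀ \ Q1).card + (Q₀ \ Q2).card + (Q₀ \ Q3).card := by
        have h5 := (Finset.card_le_card hsub).trans ((Finset.card_union_le _ _).trans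
          (Nat.add_le_add_right (Finset.card_union_le _ _) _))
        exact_mod_cast h5
      have h6 : 0 < (2 * s) ^ 3 := by positivity
      calc ((Q₀ \ (Q1 ∩ Q2 ∩ Q3)).card : ℝ) * (2 * s) ^ 3
          ≤ ((Q₀ \ Q1).card + (Q₀ \ Q2).card + (Q₀ \ Q3).card) * (2 * s) ^ 3 := by gcongr
        _ ≤ δ := by nlinarith
    · intro k hk
      have hk1 : k ∈ Q1 := Finset.mem_of_mem_inter_left (Finset.mem_of_mem_inter_left hk)
      have hk2 : k ∈ Q2 := Finset.mem_of_mem_inter_right (Finset.mem_of_mem_inter_left hk)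
      have hk3 : k ∈ Q3 := Finset.mem_of_mem_inter_right hk
      exact ⟨h1 k hk1, h2 k hk2, h3 k hk3⟩

end

end Crest.Agent.R096.Fsl_793
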