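/-
helper793, row 96, p = 2: the faces of a rigid mesh family as `Faces` (overlap by counting disjoint
balls).
-/
import Mathlib
import Crest.Agent.R096.Fsl4_793
import Crest.Agent.R096.Mf2_113

set_option autoImplicit false
set_option linter.unusedSectionVars false
set_option maxHeartbeats 400000

open MeasureTheory Set Filter Metric
open scoped ENNReal Topology

namespace Crest.Agent.R096.Fsl_793

open Crest.AnalysisR.VecCalc3
open Crest.Agent.R096.Msh_715 (Tiling P I mem_I_of_move)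
open Crest.Agent.R096.Mf_113 (Rig CK pt_translate)
open Crest.Agent.R096.Fce_793
open Crest.Agent.R096.Sk2_855 (sk1)

noncomputable section

section count

variable {E : Type*} [NormedAddCommGroup E] [NormedSpace ℝ E] [FiniteDimensional ℝ E]
  {Om : Set E} {ι : Type*}

/-- balls in different tiles are disjoint -/
theorem ball_disj {T : Tiling Om ι} {i j : ι} (hij : i ≠ j) {c c' : E} {ρ ρ' : ℝ}
    (h : closedBall c ρ ⊆ P (T.H i)) (h' : closedBall c' ρ' ⊆ P (T.H j)) :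
    Disjoint (ball c ρ) (ball c' ρ') := by
  rw [Set.disjoint_left]
  intro z hz hz'
  obtain ⟨w, hw⟩ := T.ne i
  have hc : Tendsto (fun s : ℝ => z + s • (w - z)) (𝓝 0) (𝓝 (z + (0:ℝ) • (w - z))) := by
    apply Continuous.tendsto
    fun_prop
  rw [zero_smul, add_zero] at hc
  have h1 : ∀ᶠ s in 𝓝[>] (0:ℝ), z + s • (w - z) ∈ ball c' ρ' :=
    (hc.eventually (isOpen_ball.mem_nhds hz')).filter_mono nhdsWithin_le_nhds
  have h2 : ∀ᶠ s in 𝓝[>] (0:ℝ), s < 1 :=
    (gt_mem_nhds (zero_lt_one' ℝ)).filter_mono nhdsWithin_le_nhds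
  obtain ⟨s, ⟨hs1, hs2⟩, hs0⟩ := ((h1.and h2).and self_mem_nhdsWithin).exists
  have hs0 : (0:ℝ) < s := hs0
  have h3 : z + s • (w - z) ∈ I (T.H i) :=
    mem_I_of_move (h (ball_subset_closedBall hz)) hw hs0 hs2.le
  have h4 : j ∈ T.at_ (z + s • (w - z)) := h' (ball_subset_closedBall hs1)
  rw [T.at_eq_singleton h3] at h4
  exact hij h4.symm

end count

/-- a tile of inradius `ρ` and diameter `t` -/
def GTile {E : Type*} [NormedAddCommGroup E] [NormedSpace ℝ E] {Om : Set E} {ι : Type*}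
    (T : Tiling Om ι) (ρ t : ℝ) (i : ι) : Prop :=
  (∃ c, closedBall c ρ ⊆ P (T.H i)) ∧ ∀ y ∈ P (T.H i), ∀ y' ∈ P (T.H i), ‖y - y'‖ ≤ t

/-- **number of tiles near a point** (finite set of tiles) -/
theorem count_tiles {Om : Set R3} {ι : Type*} (T : Tiling Om ι) {ρ t R : ℝ} (hρ : 0 < ρ)
    (hR : 0 ≤ R + t) (q : R3) (S : Finset ι) (hS : ∀ i ∈ S, GTile T ρ t i ∧
      (P (T.H i) ∩ closedBall q R).Nonempty) : (S.card : ℝ) ≤ ((R + t) / ρ) ^ 3 := by
  classical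
  have hex : ∀ i : ι, ∃ c : R3, i ∈ S → closedBall c ρ ⊆ P (T.H i) := by
    intro i
    by_cases hi : i ∈ S
    · obtain ⟨c, hc⟩ := (hS i hi).1.1
      exact ⟨c, fun _ => hc⟩
    · exact ⟨0, fun h => absurd h hi⟩
  choose c hc using hex
  have hsub : ∀ i ∈ S, ball (c i) ρ ⊆ closedBall q (R + t) := by
    intro i hi z hz
    have hzP : z ∈ P (T.H i) := hc i hi (ball_subset_closedBall hz)
    obtain ⟨w, hw, hwq⟩ := (hS i hi).2
    have h1 := (hS i hi).1.2 z hzP w hw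
    rw [mem_closedBall] at hwq ⊢
    calc dist z q ≤ dist z w + dist w q := dist_triangle _ _ _
      _ ≤ t + R := add_le_add (by rw [dist_eq_norm]; exact h1) hwq
      _ = R + t := add_comm _ _
  have hdis : (S : Set ι).PairwiseDisjoint fun i => ball (c i) ρ := by
    intro i hi j hj hij
    exact ball_disj hij (hc i hi) (hc j hj)
  have hvol : ∑ i ∈ S, volume (ball (c i) ρ) ≤ volume (closedBall q (R + t)) := by
    rw [← measure_biUnion_finset hdis fun i _ => measurableSet_ball]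
    exact measure_mono (iUnion₂_subset hsub)
  have hfin : Module.finrank ℝ R3 = 3 := finrank_euclideanSpace_fin
  have hV : volume (ball (0 : R3) 1) ≠ 0 := (measure_ball_pos volume 0 one_pos).ne'
  have hV' : volume (ball (0 : R3) 1) ≠ ∞ := measure_ball_lt_top.ne
  simp only [Measure.addHaar_ball volume _ hρ.le, Measure.addHaar_closedBall volume _ hR, hfin,
    Finset.sum_const, nsmul_eq_mul] at hvol
  rw [← mul_assoc] at hvol
  have h2 := (ENNReal.mul_le_mul_iff_left hV hV').1 hvol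
  rw [← ENNReal.ofReal_natCast, ← ENNReal.ofReal_mul (Nat.cast_nonneg _),
    ENNReal.ofReal_le_ofReal_iff (by positivity)] at h2
  rw [div_pow, le_div_iff₀ (by positivity)]
  exact h2

theorem encard_tiles {Om : Set R3} {ι : Type*} (T : Tiling Om ι) {ρ t R : ℝ} (hρ : 0 < ρ)
    (hR : 0 ≤ R + t) {m : ℕ} (hm : ((R + t) / ρ) ^ 3 ≤ m) (q : R3) :
    {i | GTile T ρ t i ∧ (P (T.H i) ∩ closedBall q R).Nonempty}.encard ≤ m := by
  by_contra hcon
  rw [not_le] at hcon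
  have h1 : ((m + 1 : ℕ) : ℕ∞) ≤
      {i | GTile T ρ t i ∧ (P (T.H i) ∩ closedBall q R).Nonempty}.encard := by
    rw [Nat.cast_add, Nat.cast_one]
    exact Order.add_one_le_of_lt hcon
  obtain ⟨S, hS, hc⟩ := exists_subset_encard_eq h1
  have hfin : S.Finite := finite_of_encard_eq_coe hc
  have h2 : (hfin.toFinset.card : ℕ∞) = ((m + 1 : ℕ) : ℕ∞) := by
    rw [← hc, ← hfin.encard_eq_coe_toFinset_card]
  have h3 : hfin.toFinset.card = m + 1 := by exact_mod_cast h2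
  have h4 := count_tiles T hρ hR q hfin.toFinset fun i hi => hS (hfin.mem_toFinset.1 hi)
  rw [h3] at h4
  push_cast at h4
  linarith

section rig

variable {Om Om0 : Set R3} {ι0 : Type*} {ι : R3 → Type*}
  {T0 : Tiling Om0 ι0} {T : ∀ a, Tiling Om (ι a)} {Tr W : Set R3}

/-- the tiles of the model through a cell which meets `W` after a translation are good -/
theorem Rig.good (h : Rig T0 T Tr W) {ρ t : ℝ}
    (hs : ∀ a ∈ Tr, ∀ j, (P ((T a).H j) ∩ W).Nonempty → GTile (T a) ρ t j) {c : T0.Cell}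
    (hc : ∃ a ∈ Tr, (((a + ·) '' c.set) ∩ W).Nonempty) {i : ι0} (hi : i ∈ T0.at_ c.pt) :
    GTile T0 ρ t i := by
  obtain ⟨a, ha, p, ⟨p0, hp0, rfl⟩, hpW⟩ := hc
  simp only at hpW
  obtain ⟨h1, h2, h3⟩ := h a ha _ hpW
  have hi' : i ∈ T0.at_ (a + p0 - a) := by
    rw [add_sub_cancel_left]
    rw [c.set_eq] at hp0
    exact T0.at_sub_of_mem_cc hp0 hi
  have hm : (a + ·) '' P (T0.H i) ∈ (fun j => P ((T a).H j)) '' (T a).at_ (a + p0) := by
    rw [h3]; exact ⟨i, hi', rfl⟩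
  obtain ⟨j, hj, e⟩ := hm
  simp only at e
  obtain ⟨⟨c', hc'⟩, hd⟩ := hs a ha j ⟨_, hj, hpW⟩
  rw [e] at hc' hd
  refine ⟨⟨c' - a, fun z hz => ?_⟩, fun y hy y' hy' => ?_⟩
  · have h4 : a + z ∈ closedBall c' ρ := by
      rw [mem_closedBall, dist_eq_norm] at hz ⊢
      rwa [show a + z - c' = z - (c' - a) by abel]
    obtain ⟨w, hw, e1⟩ := hc' h4
    simp only at e1
    rwa [← add_left_cancel e1]
  · have h4 := hd _ ⟨y, hy, rfl⟩ _ ⟨y', hy', rfl⟩
    simp only at h4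
    rwa [add_sub_add_left_eq_sub] at h4

/-- the relevant faces of the model -/
abbrev RF (T0 : Tiling Om0 ι0) (Tr W : Set R3) : Type :=
  {φ : CK T0 2 // ∃ a ∈ Tr, (((a + ·) '' φ.1.set) ∩ W).Nonempty}

/-- **THE FACES OF A RIGID FAMILY**: the 2-cells which meet `W` are a countable family `Faces` with
bounded overlap. -/
theorem Rig.facesG (h : Rig T0 T Tr W) {ρ t d : ℝ} (hρ : 0 < ρ) (ht : 0 ≤ t) {a₀ : R3}
    (hd : Tr ⊆ closedBall a₀ d) (hd0 : 0 ≤ d)
    (hs : ∀ a ∈ Tr, ∀ j, (P ((T a).H j) ∩ W).Nonempty → GTile (T a) ρ t j)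
    {m : ℕ} (hm : ((d + 2 * t) / ρ) ^ 3 ≤ m) :
    ∃ (e : RF T0 Tr W → Fin 2 → R3) (x : RF T0 Tr W → R3) (Q : RF T0 Tr W → Set (ℝ × ℝ))
      (R : RF T0 Tr W → Set R3), Faces Tr (2 * t) (m ^ 2) x e Q R ∧
      (∀ φ, inner ℝ (e φ 0) (e φ 1) = 0) ∧ (∀ φ i, ‖e φ i‖ = 2 * diam φ.1.1.set) ∧
      (∀ φ, φ.1.1.set = pt (e φ) (x φ) '' Q φ) ∧
      ∀ a ∈ Tr, ∀ y ∈ Om, (T a).dim y = 2 → ((T a).cc y ∩ W).Nonempty →
        ∃ φ, (T a).cc y = pt (e φ) (a + x φ) '' Q φ ∧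
          ∀ w ∈ Q φ, w ∉ interior (Q φ) → pt (e φ) (a + x φ) w ∈ sk1 (T a) := by
  classical
  obtain ⟨e, x, Q, f1, f2, f3, f4, f5, f6, f7, f8⟩ := Mf_113.Rig.faces h
  have hdiam : ∀ φ : RF T0 Tr W, ∀ y ∈ φ.1.1.set, ∀ y' ∈ φ.1.1.set, ‖y - y'‖ ≤ t := by
    intro φ y hy y' hy'
    obtain ⟨i, hi⟩ := T0.at_nonempty φ.1.1.pt_mem
    have h1 := (Rig.good h hs φ.2 hi).2
    have h2 : φ.1.1.set ⊆ P (T0.H i) := by
      rw [φ.1.1.set_eq]
      exact T0.cc_sub_tile hi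
    exact h1 y (h2 hy) y' (h2 hy')
  have hpt : ∀ φ : RF T0 Tr W, φ.1.1.pt ∈ φ.1.1.set := by
    intro φ
    rw [φ.1.1.set_eq]
    exact T0.self_mem_cc _
  refine ⟨fun φ => e φ.1, fun φ => x φ.1, fun φ => Q φ.1,
    fun φ => closedBall (a₀ + φ.1.1.pt) (d + t), ?_, fun φ => f3 φ.1, fun φ i => f2 φ.1 i,
    fun φ => f7 φ.1, ?_⟩
  · refine ⟨fun φ => f1 φ.1, fun φ i => ?_, fun φ => f4 φ.1, fun φ => f5 φ.1, fun φ => f6 φ.1,
      fun φ => measurableSet_closedBall, ?_, ?_⟩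
    · rw [f2]
      have h1 : diam φ.1.1.set ≤ t := diam_le_of_forall_dist_le ht fun y hy y' hy' => by
        rw [dist_eq_norm]; exact hdiam φ y hy y' hy'
      linarith
    · intro φ a ha w hw
      have h1 : pt (e φ.1) (x φ.1) w ∈ φ.1.1.set := by rw [f7]; exact ⟨w, hw, rfl⟩
      have h2 : pt (e φ.1) (a + x φ.1) w = a + pt (e φ.1) (x φ.1) w := by
        simp only [pt]; abel
      rw [h2, mem_closedBall, dist_eq_norm]
      have h3 := hd ha
      rw [mem_closedBall, dist_eq_norm] at h3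
      calc ‖a + pt (e φ.1) (x φ.1) w - (a₀ + φ.1.1.pt)‖
          = ‖(a - a₀) + (pt (e φ.1) (x φ.1) w - φ.1.1.pt)‖ := by congr 1; abel
        _ ≤ ‖a - a₀‖ + ‖pt (e φ.1) (x φ.1) w - φ.1.1.pt‖ := norm_add_le _ _
        _ ≤ d + t := add_le_add h3 (hdiam φ _ h1 _ (hpt φ))
    · intro y
      set S : Set ι0 := {i | GTile T0 ρ t i ∧
        (P (T0.H i) ∩ closedBall (y - a₀) (d + t)).Nonempty} with hS
      have hSc : S.encard ≤ m := encard_tiles T0 hρ (by linarith) (by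
        rwa [show d + t + t = d + 2 * t by ring]) _
      have h2t : ∀ φ : RF T0 Tr W, ∃ i j, i ≠ j ∧ T0.at_ φ.1.1.pt = {i, j} ∧
          T0.cc φ.1.1.pt = P (T0.H i) ∩ P (T0.H j) := by
        intro φ
        refine T0.two_tiles φ.1.1.pt_mem ?_
        have h1 : T0.dim φ.1.1.pt = 2 := φ.1.2
        rw [h1]
        exact finrank_euclideanSpace_fin.symm
      choose i1 i2 hne hat hcc using h2t
      have hmap : MapsTo (fun φ : RF T0 Tr W => (i1 φ, i2 φ))
          {φ | y ∈ closedBall (a₀ + φ.1.1.pt) (d + t)} (S ×ˢ S) := by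
        intro φ hφ
        have h1 : φ.1.1.pt ∈ closedBall (y - a₀) (d + t) := by
          have h2 : y ∈ closedBall (a₀ + φ.1.1.pt) (d + t) := hφ
          rw [mem_closedBall, dist_comm, dist_eq_norm] at h2
          rw [mem_closedBall, dist_eq_norm]
          rwa [show φ.1.1.pt - (y - a₀) = a₀ + φ.1.1.pt - y by abel]
        have h3 : i1 φ ∈ T0.at_ φ.1.1.pt := by rw [hat]; exact mem_insert _ _
        have h4 : i2 φ ∈ T0.at_ φ.1.1.pt := by rw [hat]; exact mem_insert_of_mem _ rfl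
        exact ⟨⟨Rig.good h hs φ.2 h3, _, h3, h1⟩, ⟨Rig.good h hs φ.2 h4, _, h4, h1⟩⟩
      have hinj : InjOn (fun φ : RF T0 Tr W => (i1 φ, i2 φ))
          {φ | y ∈ closedBall (a₀ + φ.1.1.pt) (d + t)} := by
        intro φ _ ψ _ hφψ
        simp only [Prod.mk.injEq] at hφψ
        apply Subtype.ext
        apply Subtype.ext
        apply Tiling.Cell.ext
        rw [φ.1.1.set_eq, ψ.1.1.set_eq, hcc, hcc, hφψ.1, hφψ.2]
      refine (encard_le_encard_of_injOn hmap hinj).trans ?_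
      rw [encard_prod]
      calc S.encard * S.encard ≤ (m : ℕ∞) * m := by gcongr
        _ = ((m ^ 2 : ℕ) : ℕ∞) := by push_cast; ring
  · intro a ha y hy hdim hW
    obtain ⟨φ, h1, h2⟩ := f8 a ha y hy hdim hW
    refine ⟨⟨φ, a, ha, ?_⟩, h1, h2⟩
    rw [f7, pt_translate, ← h1]
    exact hW

end rig

end

end Crest.Agent.R096.Fsl_793
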