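/-
helper793, row 96, p ≤ 2: random measures (538's `RM`) from ANY lattice periodic measure
(edges, faces, strips of faces), several scales, cut to layers.
-/
import Mathlib
import Crest.Agent.R96.Intr29_538

set_option autoImplicit false
set_option linter.unusedSectionVars false
set_option maxHeartbeats 400000

open MeasureTheory Set Filter Metric Module
open scoped ENNReal NNReal Topology

namespace Crest.Agent.R096.Rmg_793

open Crest.Agent.R96.Coarse_538 Crest.Agent.R96.Intr_538
open Crest.AnalysisR.VecCalc3 Crest.AnalysisR.Sobolev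
open Crest.Agent.R96.Acl_392 Crest.Agent.R96.Lu_538

noncomputable section

/-- a family of measures translated by `a`, each cut to its own set -/
def trM {ι : Type*} (ν : ι → Measure R3) (A : ι → Set R3) (a : R3) : Measure R3 :=
  Measure.sum fun e => ((ν e).map (fun x => a + x)).restrict (A e)

theorem lint_trM {ι : Type*} {ν : ι → Measure R3} {A : ι → Set R3}
    (hA : ∀ e, MeasurableSet (A e)) {F : R3 → ℝ≥0∞} (hF : Measurable F) (a : R3) :
    ∫⁻ y, F y ∂trM ν A a = ∑' e, ∫⁻ x, (A e).indicator F (a + x) ∂ν e := by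
  rw [trM, lintegral_sum_measure]
  refine tsum_congr fun e => ?_
  rw [← lintegral_indicator (hA e), lintegral_map (hF.indicator (hA e)) (by fun_prop)]

/-- **criterion** -/
theorem rm_tr {ι : Type*} [Countable ι] {D : Set R3} (hD : MeasurableSet D) {n : ℝ≥0∞}
    {ν : ι → Measure R3} [∀ e, SFinite (ν e)] {A : ι → Set R3} (hA : ∀ e, MeasurableSet (A e))
    (h : ∀ y : R3, ∑' e, (A e).indicator 1 y * ν e {x | y - x ∈ D} ≤ n * volume D) :
    RM D n (trM ν A) := by
  have h1 : ∀ F : R3 → ℝ≥0∞, Measurable F → ∀ e, AEMeasurable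
      (fun a => ∫⁻ x, (A e).indicator F (a + x) ∂ν e) (volume.restrict D) := by
    intro F hF e
    have h2 : Measurable (fun p : R3 × R3 => (A e).indicator F (p.1 + p.2)) :=
      (hF.indicator (hA e)).comp (by fun_prop)
    exact h2.lintegral_prod_right'.aemeasurable
  have hm0 : ∀ e, Measurable (fun y : R3 => ν e {x | y - x ∈ D}) := by
    intro e
    have h2 : Measurable (fun p : R3 × R3 => D.indicator (1 : R3 → ℝ≥0∞) (p.1 - p.2)) :=
      (measurable_one.indicator hD).comp (by fun_prop)
    have h3 := h2.lintegral_prod_right' (ν := ν e)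
    have h4 : (fun y : R3 => ν e {x | y - x ∈ D}) =
        fun y => ∫⁻ x, D.indicator (1 : R3 → ℝ≥0∞) (y - x) ∂ν e := by
      funext y
      have h5 : MeasurableSet {x : R3 | y - x ∈ D} := hD.preimage (by fun_prop)
      rw [← lintegral_indicator_one h5]
      rfl
    rw [h4]
    exact h3
  constructor
  · intro F hF
    simp only [lint_trM hA hF]
    exact AEMeasurable.tsum (h1 F hF)
  · intro F hF
    simp only [lint_trM hA hF]
    rw [lintegral_tsum (h1 F hF)]
    have h2 : ∀ e, ∫⁻ a in D, ∫⁻ x, (A e).indicator F (a + x) ∂ν e =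
        ∫⁻ y, F y * ((A e).indicator 1 y * ν e {x | y - x ∈ D}) := by
      intro e
      rw [tonelli_nu hD (hF.indicator (hA e)).aemeasurable]
      apply lintegral_congr
      intro y
      by_cases hy : y ∈ A e
      · simp only [indicator_of_mem hy, Pi.one_apply, one_mul]
      · simp only [indicator_of_notMem hy, zero_mul, mul_zero]
    simp only [h2]
    rw [← lintegral_tsum, ← lintegral_const_mul _ hF]
    · apply lintegral_mono
      intro y
      simp only
      rw [ENNReal.tsum_mul_left, mul_comm]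
      gcongr
      exact h y
    · intro e
      exact (hF.mul ((measurable_one.indicator (hA e)).mul (hm0 e))).aemeasurable

/-- the translates of `ν j` under the lattice of size `t / N j` -/
def latM {J : Type*} (t : ℝ) (N : J → ℕ) (ν : J → Measure R3) (q : J × (Fin 3 → ℤ)) :
    Measure R3 :=
  (ν q.1).map (fun x => ihom (t / N q.1) q.2 + x)

instance {J : Type*} (t : ℝ) (N : J → ℕ) (ν : J → Measure R3) [∀ j, SFinite (ν j)]
    (q : J × (Fin 3 → ℤ)) : SFinite (latM t N ν q) := by
  unfold latM; infer_instance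

/-- one scale: the lattice sum of the masses -/
theorem sum_lat {h : ℝ} (hh : 0 < h) (N : ℕ) (ν : Measure R3) (y : R3) :
    ∑' k : Fin 3 → ℤ, (ν.map (fun x => ihom h k + x)) {x | y - x ∈ Dt (N * h)} ≤
      (N : ℝ≥0∞) ^ 3 * ν univ := by
  have h1 : ∀ k : Fin 3 → ℤ, (ν.map (fun x => ihom h k + x)) {x | y - x ∈ Dt (N * h)} =
      ∫⁻ x, (Dt (N * h)).indicator (1 : R3 → ℝ≥0∞) (y - x - ihom h k) ∂ν := by
    intro k
    have h5 : MeasurableSet {x : R3 | y - x ∈ Dt (N * h)} := (meas_Dt _).preimage (by fun_prop)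
    rw [Measure.map_apply (by fun_prop) h5, ← lintegral_indicator_one (h5.preimage (by fun_prop))]
    apply lintegral_congr
    intro x
    have h6 : y - (ihom h k + x) = y - x - ihom h k := by abel
    by_cases hx : y - x - ihom h k ∈ Dt (N * h)
    · rw [indicator_of_mem hx, indicator_of_mem]
      · rfl
      · show y - (ihom h k + x) ∈ Dt (N * h)
        rwa [h6]
    · rw [indicator_of_notMem hx, indicator_of_notMem]
      show ¬ (y - (ihom h k + x) ∈ Dt (N * h))
      rwa [h6]
  simp only [h1]
  rw [← lintegral_tsum]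
  · calc _ ≤ ∫⁻ _x, (N : ℝ≥0∞) ^ 3 ∂ν := by
          apply lintegral_mono
          intro x
          have h3 := card_lat hh N (y - x)
          calc ∑' k : Fin 3 → ℤ, (Dt (N * h)).indicator (1 : R3 → ℝ≥0∞) (y - x - ihom h k)
              = ∑' k : Fin 3 → ℤ, {k : Fin 3 → ℤ | y - x - ihom h k ∈
                  Dt (N * h)}.indicator (1 : (Fin 3 → ℤ) → ℝ≥0∞) k := by
                refine tsum_congr fun k => ?_
                by_cases h5 : y - x - ihom h k ∈ Dt (N * h)
                · rw [indicator_of_mem h5, indicator_of_mem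
                    (show k ∈ {k : Fin 3 → ℤ | y - x - ihom h k ∈ Dt (N * h)} from h5)]
                  rfl
                · rw [indicator_of_notMem h5, indicator_of_notMem
                    (show k ∉ {k : Fin 3 → ℤ | y - x - ihom h k ∈ Dt (N * h)} from h5)]
            _ = ({k : Fin 3 → ℤ | y - x - ihom h k ∈ Dt (N * h)}.encard : ℝ≥0∞) := by
                rw [← tsum_subtype, Pi.one_def, ENNReal.tsum_set_one]
            _ ≤ (((N : ℕ∞) ^ 3 : ℕ∞) : ℝ≥0∞) := by exact_mod_cast h3
            _ = (N : ℝ≥0∞) ^ 3 := by simp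
      _ = (N : ℝ≥0∞) ^ 3 * ν univ := by rw [lintegral_const]
  · intro k
    have h6 : Measurable (fun x : R3 => (Dt (N * h)).indicator (1 : R3 → ℝ≥0∞)
        (y - x - ihom h k)) :=
      (measurable_one.indicator (meas_Dt _)).comp (by fun_prop)
    exact h6.aemeasurable

/-- **RM OF ANY LATTICE PERIODIC MEASURE, SEVERAL SCALES.** `ν j` = the measure of one period cell
(edges, faces, strips with their weights), total mass at most `m h_j³`, `h_j = t / N j`; cut to
layers `A j` with overlap at most `K`: density `K m`. -/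
theorem rm_lat {J : Type*} [Countable J] {t : ℝ} (ht : 0 < t) (N : J → ℕ) (hN : ∀ j, 0 < N j)
    (ν : J → Measure R3) [∀ j, SFinite (ν j)] {m : ℝ≥0∞}
    (hm : ∀ j, ν j univ ≤ m * ENNReal.ofReal ((t / N j) ^ 3))
    {A : J → Set R3} (hA : ∀ j, MeasurableSet (A j)) {K : ℕ}
    (hK : ∀ y, {j | y ∈ A j}.encard ≤ K) :
    RM (Dt t) (K * m) (trM (latM t N ν) (fun q => A q.1)) := by
  classical
  refine rm_tr (meas_Dt t) (fun q => hA q.1) fun y => ?_
  rw [vol_Dt ht, ENNReal.tsum_prod' (f := fun q : J × (Fin 3 → ℤ) => _)]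
  have h1 : ∀ j, ∑' k : Fin 3 → ℤ, (A j).indicator 1 y * latM t N ν (j, k) {x | y - x ∈ Dt t} ≤
      (A j).indicator 1 y * (m * ENNReal.ofReal (t ^ 3)) := by
    intro j
    have hNj : (0:ℝ) < N j := by exact_mod_cast hN j
    have hh : 0 < t / N j := by positivity
    have hth : t = N j * (t / N j) := by field_simp
    rw [ENNReal.tsum_mul_left]
    gcongr
    have h2 := sum_lat hh (N j) (ν j) y
    rw [← hth] at h2
    refine h2.trans ?_
    calc (N j : ℝ≥0∞) ^ 3 * ν j univ ≤ (N j : ℝ≥0∞) ^ 3 * (m * ENNReal.ofReal ((t / N j) ^ 3)) := by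
          gcongr
          exact hm j
      _ = m * ((N j : ℝ≥0∞) ^ 3 * ENNReal.ofReal ((t / N j) ^ 3)) := by ring
      _ = m * ENNReal.ofReal (t ^ 3) := by
          congr 1
          rw [← ENNReal.ofReal_natCast, ← ENNReal.ofReal_pow (Nat.cast_nonneg _),
            ← ENNReal.ofReal_mul (by positivity)]
          congr 1
          rw [← mul_pow, ← hth]
  calc _ ≤ ∑' j, (A j).indicator 1 y * (m * ENNReal.ofReal (t ^ 3)) := ENNReal.tsum_le_tsum h1
    _ = ({j | y ∈ A j}.encard : ℝ≥0∞) * (m * ENNReal.ofReal (t ^ 3)) := by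
        rw [ENNReal.tsum_mul_right]
        congr 1
        have h8 : ∀ j, (A j).indicator (1 : R3 → ℝ≥0∞) y =
            {j | y ∈ A j}.indicator (1 : J → ℝ≥0∞) j := by
          intro j
          by_cases hj : y ∈ A j
          · rw [indicator_of_mem hj, indicator_of_mem (show j ∈ {j | y ∈ A j} from hj)]
            rfl
          · rw [indicator_of_notMem hj, indicator_of_notMem (show j ∉ {j | y ∈ A j} from hj)]
        rw [tsum_congr h8, ← tsum_subtype, Pi.one_def, ENNReal.tsum_set_one]
    _ ≤ ((K : ℕ∞) : ℝ≥0∞) * (m * ENNReal.ofReal (t ^ 3)) := by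
        gcongr
        exact hK y
    _ = K * m * ENNReal.ofReal (t ^ 3) := by
        simp only [ENat.toENNReal_coe]
        ring

/-- the parallelogram `x + σ v + τ w`, `σ, τ ∈ (0,1]`, as a probability measure -/
def parM (x v w : R3) : Measure R3 :=
  ((volume.restrict (Ioc (0:ℝ) 1)).prod (volume.restrict (Ioc (0:ℝ) 1))).map
    (fun p : ℝ × ℝ => x + p.1 • v + p.2 • w)

instance (x v w : R3) : SFinite (parM x v w) := by unfold parM; infer_instance

theorem parM_univ (x v w : R3) : parM x v w univ = 1 := by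
  unfold parM
  rw [Measure.map_apply (by fun_prop) MeasurableSet.univ, preimage_univ, ← univ_prod_univ,
    Measure.prod_prod]
  simp

theorem lint_parM {F : R3 → ℝ≥0∞} (hF : Measurable F) (x v w : R3) :
    ∫⁻ y, F y ∂parM x v w =
      ∫⁻ σ in Ioc (0:ℝ) 1, ∫⁻ τ in Ioc (0:ℝ) 1, F (x + σ • v + τ • w) := by
  unfold parM
  rw [lintegral_map hF (by fun_prop), lintegral_prod _ (by
    exact (hF.comp (by fun_prop)).aemeasurable)]

/-- **faces and strips of all the grids of sizes `t / N j`**: parallelograms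
`h_j • (x i + σ v i + τ w i)`, `i ∈ I` (one period), each with weight `h_j³ c i`: density
`K Σ c`. A face has weight `h³` (times parameter = `h ·` area up to shape), a strip of width
`d' = κ h` the same (`w i = κ • e`, i.e. `h² / d' ·` area). -/
theorem rm_par {J I : Type*} [Countable J] [Fintype I] {t : ℝ} (ht : 0 < t) (N : J → ℕ)
    (hN : ∀ j, 0 < N j) (x v w : I → R3) (c : I → ℝ≥0∞)
    {A : J → Set R3} (hA : ∀ j, MeasurableSet (A j)) {K : ℕ}
    (hK : ∀ y, {j | y ∈ A j}.encard ≤ K) :
    RM (Dt t) (K * ∑ i, c i) (trM (latM t N (fun j => ∑ i, (ENNReal.ofReal ((t / N j) ^ 3) * c i) •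
      parM ((t / N j) • x i) ((t / N j) • v i) ((t / N j) • w i))) (fun q => A q.1)) := by
  have : ∀ j, SFinite (∑ i, (ENNReal.ofReal ((t / N j) ^ 3) * c i) •
      parM ((t / N j) • x i) ((t / N j) • v i) ((t / N j) • w i)) := fun j => by
    rw [← Measure.sum_fintype]
    infer_instance
  refine rm_lat ht N hN _ (fun j => ?_) hA hK
  rw [Measure.finsetSum_apply]
  simp only [Measure.smul_apply, parM_univ, smul_eq_mul, mul_one]
  rw [← Finset.mul_sum, mul_comm]

end

end Crest.Agent.R096.Rmg_793
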