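/-
helper793, row 96, p = 2: faces with bounded overlap as a random measure (538's `RM`).
-/
import Mathlib
import Crest.Agent.R096.Fsl7_793
import Crest.Agent.R096.Rmg1_793

set_option autoImplicit false
set_option linter.unusedSectionVars false
set_option maxHeartbeats 400000

open MeasureTheory Set Filter Metric
open scoped ENNReal Topology

namespace Crest.Agent.R096.Fsl_793

open Crest.AnalysisR.VecCalc3
open Crest.Agent.R096.Fce_793 Crest.Agent.R096.Rmg_793
open Crest.Agent.R96.Coarse_538

noncomputable section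

/-- the part `S` of a face with weight `w`, untranslated -/
def fcM {κf : Type*} (x : κf → R3) (e : κf → Fin 2 → R3) (S : κf → Set (ℝ × ℝ))
    (w : κf → ℝ≥0∞) (φ : κf) : Measure R3 :=
  w φ • ((volume.restrict (S φ)).map (pt (e φ) (x φ)))

instance {κf : Type*} (x : κf → R3) (e : κf → Fin 2 → R3) (S : κf → Set (ℝ × ℝ))
    (w : κf → ℝ≥0∞) (φ : κf) : SFinite (fcM x e S w φ) := by
  unfold fcM; infer_instance

theorem measurable_pt (e : Fin 2 → R3) (x : R3) : Measurable (pt e x) :=
  (continuous_pt e x).measurable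

/-- the integral against the random measure -/
theorem lint_fcM {κf : Type*} {x : κf → R3} {e : κf → Fin 2 → R3} {S : κf → Set (ℝ × ℝ)}
    {w : κf → ℝ≥0∞} {A : κf → Set R3} (hA : ∀ φ, MeasurableSet (A φ))
    {F : R3 → ℝ≥0∞} (hF : Measurable F) (a : R3) :
    ∫⁻ y, F y ∂trM (fcM x e S w) A a =
      ∑' φ, w φ * ∫⁻ u in S φ, (A φ).indicator F (pt (e φ) (a + x φ) u) := by
  rw [lint_trM hA hF]
  refine tsum_congr fun φ => ?_
  have h1 : Measurable fun y => (A φ).indicator F (a + y) :=
    (hF.indicator (hA φ)).comp (by fun_prop)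
  rw [fcM, lintegral_smul_measure, lintegral_map h1 (measurable_pt _ _), smul_eq_mul]
  congr 1
  apply lintegral_congr
  intro u
  congr 1
  simp only [pt]
  abel

/-- **faces with overlap `M` and weights `w φ ≤ c` are a random measure of density `n`** if
`M c ≤ n |D|`; `S φ ⊆ P φ` any measurable parts (strips), cut to any sets `A φ` -/
theorem Faces.rm {κf : Type*} [Countable κf] {D : Set R3} (hD : MeasurableSet D) {t : ℝ} {M : ℕ}
    {x : κf → R3} {e : κf → Fin 2 → R3} {P : κf → Set (ℝ × ℝ)} {R : κf → Set R3}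
    (hF : Faces D t M x e P R) {S : κf → Set (ℝ × ℝ)} (hSP : ∀ φ, S φ ⊆ P φ)
    {w : κf → ℝ≥0∞} {c : ℝ≥0∞} (hw : ∀ φ, w φ ≤ c) {n : ℝ≥0∞} (hn : M * c ≤ n * volume D)
    {A : κf → Set R3} (hA : ∀ φ, MeasurableSet (A φ)) :
    RM D n (trM (fcM x e S w) A) := by
  refine rm_tr hD hA fun y => ?_
  have h1 : ∀ φ, (A φ).indicator 1 y * fcM x e S w φ {z | y - z ∈ D} ≤
      c * {φ | y ∈ R φ}.indicator (1 : κf → ℝ≥0∞) φ := by
    intro φ
    have h0 : (A φ).indicator (1 : R3 → ℝ≥0∞) y ≤ 1 := by
      by_cases h : y ∈ A φ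
      · rw [indicator_of_mem h]; rfl
      · rw [indicator_of_notMem h]; exact zero_le
    have hms : MeasurableSet {z : R3 | y - z ∈ D} := hD.preimage (by fun_prop)
    have h2 : fcM x e S w φ {z | y - z ∈ D} =
        w φ * (volume.restrict (S φ)) {u | y - pt (e φ) (x φ) u ∈ D} := by
      rw [fcM, Measure.smul_apply, smul_eq_mul, Measure.map_apply (measurable_pt _ _) hms]
      rfl
    by_cases hy : y ∈ R φ
    · rw [indicator_of_mem (show φ ∈ {φ | y ∈ R φ} from hy), Pi.one_apply, mul_one, h2]
      calc (A φ).indicator 1 y * (w φ * (volume.restrict (S φ)) {u | y - pt (e φ) (x φ) u ∈ D})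
          ≤ 1 * (c * 1) := by
            gcongr
            · exact hw φ
            · calc (volume.restrict (S φ)) {u | y - pt (e φ) (x φ) u ∈ D}
                  ≤ (volume.restrict (S φ)) univ := measure_mono (subset_univ _)
                _ = volume (S φ) := Measure.restrict_apply_univ _
                _ ≤ volume (Icc (0:ℝ) 1 ×ˢ Icc (0:ℝ) 1) :=
                    measure_mono ((hSP φ).trans (hF.sub φ))
                _ = 1 := by
                    rw [Measure.volume_eq_prod, Measure.prod_prod]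
                    simp
        _ = c := by ring
    · have h3 : (volume.restrict (S φ)) {u | y - pt (e φ) (x φ) u ∈ D} = 0 := by
        have hms2 : MeasurableSet {u | y - pt (e φ) (x φ) u ∈ D} :=
          hms.preimage (measurable_pt _ _)
        rw [Measure.restrict_apply hms2]
        have h4 : {u | y - pt (e φ) (x φ) u ∈ D} ∩ S φ = ∅ := by
          ext u
          simp only [mem_inter_iff, mem_setOf_eq, mem_empty_iff_false, iff_false, not_and]
          intro hu huS
          apply hy
          have h5 := hF.mem φ _ hu u (hSP φ huS)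
          have h6 : pt (e φ) (y - pt (e φ) (x φ) u + x φ) u = y := by
            simp only [pt]; abel
          rwa [h6] at h5
        rw [h4, measure_empty]
      rw [h2, h3, mul_zero, mul_zero]
      exact zero_le
  refine (ENNReal.tsum_le_tsum h1).trans ?_
  rw [ENNReal.tsum_mul_left, ← tsum_subtype, Pi.one_def, ENNReal.tsum_set_one]
  have h2 : (({φ | y ∈ R φ}.encard : ℕ∞) : ℝ≥0∞) ≤ ((M : ℕ∞) : ℝ≥0∞) := by
    exact_mod_cast hF.card y
  calc c * (({φ | y ∈ R φ}.encard : ℕ∞) : ℝ≥0∞) ≤ c * ((M : ℕ∞) : ℝ≥0∞) := by gcongr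
    _ = M * c := by rw [mul_comm]; rfl
    _ ≤ n * volume D := hn

end

end Crest.Agent.R096.Fsl_793
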