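import Crest.Agent.R096.Spr1_113
import Crest.Agent.R096.Gau2_812

/-!
# Two points of a good level which are far apart (p = 2, the field `spread`)
-/

set_option autoImplicit false
set_option linter.unusedSectionVars false

open Set Metric

namespace Crest.Agent.R096.Spr_113

open Crest.Agent.R096.Msh_715
open Crest.Agent.R096.Sk2_855
open Crest.Agent.R096.Ub_113
open Crest.Agent.R096.Sk3_812 (GoodT HF UG ug ug_le_one_iff ug_comp ug_le_iff crs_ends cc_sub_sk1)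

variable {E : Type} [NormedAddCommGroup E] [NormedSpace ℝ E] [FiniteDimensional ℝ E]
  {Om La : Set E} {ι : Type*} {T : Tiling Om ι} {i : ι}

theorem crs_iff {x : E} : Sk3_812.Crs T i x ↔ Tgr_335.Crs T i x :=
  ⟨fun h => ⟨h.1, h.2.1, h.2.2.1, h.2.2.2⟩, fun h => ⟨h.om, h.dim, h.off, h.meet⟩⟩

/-- `β` is so small that the points of the crossing edges of gauge `≤ 1 + β` are `ε`-close to the
inner ends -/
def NearV (T : Tiling Om ι) (i : ι) (g : E → ℝ) (β ε : ℝ) : Prop :=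
  ∀ e, Sk3_812.Crs T i e → ∀ v ∈ T.cc e, v ∈ P (T.H i) → ∀ z ∈ T.cc e, g z ≤ 1 + β →
    dist z v ≤ ε

theorem NearV.mono {g : E → ℝ} {β β' ε ε' : ℝ} (h : NearV T i g β ε) (h1 : β' ≤ β)
    (h2 : ε ≤ ε') : NearV T i g β' ε' := fun e he v hv hvP z hz hg =>
  (h e he v hv hvP z hz (hg.trans (by linarith))).trans h2

/-- for one tile such a `β` exists -/
theorem exists_nearV {g : E → ℝ} (hg : ContinuousOn g Om) (h1 : ∀ x ∈ Om, g x ≤ 1 → x ∈ P (T.H i))
    {ε : ℝ} (hε : 0 < ε) : ∃ β > 0, NearV T i g β ε := by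
  obtain ⟨β, hβ, h⟩ := near_vertex (T := T) (i := i) hg h1 hε
  exact ⟨β, hβ, fun e he => h e (crs_iff.1 he)⟩

/-- for the gauge of the tile -/
theorem exists_nearV_ug {c : E} (hc : c ∈ I (T.H i)) (hK : IsCompact (P (T.H i)))
    (hne : (T.H i).Nonempty) {ε : ℝ} (hε : 0 < ε) :
    ∃ β > 0, NearV T i (ug (T.H i) hne c (AffineEquiv.refl ℝ E)) β ε := by
  refine exists_nearV (Sk3_812.ug_spec hne hc (AffineEquiv.refl ℝ E) hK).cont.continuousOn
    (fun x _ h => ?_) hε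
  exact (ug_le_one_iff hne hc (AffineEquiv.refl ℝ E)).1 h

variable {f fi : E → E} {u : E → ℝ} {C : E} {a b : ℝ}

/-- the point of a crossing edge at the level `s` is close to the inner end -/
theorem exists_pt (Q : GoodT T La f i u C a b) (F : HF Om La f fi) {g : E → ℝ} {β ε δ : ℝ}
    (hN : NearV T i g β ε) (hg : ∀ e, Sk3_812.Crs T i e → ∀ z ∈ T.cc e, g z ≤ u (f z) + δ)
    {s : ℝ} (hs : s ∈ Ioo a b) (hsβ : s + δ ≤ 1 + β) {e v : E} (he : Sk3_812.Crs T i e)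
    (hv : v ∈ T.cc e) (hvP : v ∈ P (T.H i)) :
    ∃ x ∈ T.cc e, x ∈ sk1 T ∧ u (f x) = s ∧ dist x v ≤ ε := by
  obtain ⟨v', hv', w, hw, dv, dw, hvi, hwi⟩ := crs_ends he
  have hcont : ContinuousOn (fun z => u (f z)) (T.cc e) :=
    Q.ug.cont.comp_continuousOn (F.cont.mono (T.cc_sub_Om he.1))
  have hpre : IsPreconnected (T.cc e) := (T.convex_cc _).isPreconnected
  have hsk := cc_sub_sk1 he.1 he.2.1
  have h1 := Q.inn v (hsk hv) hvP
  have h2 := Q.outv _ he w hw dw hwi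
  obtain ⟨x, hx, e1⟩ := hpre.intermediate_value hv hw hcont
    (show s ∈ Icc (u (f v)) (u (f w)) from ⟨(h1.trans hs.1).le, (hs.2.trans h2).le⟩)
  simp only at e1
  refine ⟨x, hx, hsk hx, e1, hN e he v hv hvP x hx ?_⟩
  have := hg e he x hx
  rw [e1] at this
  linarith

/-- **spread**: at every good level there are two points of the 1-skeleton far from each other -/
theorem spread [Nontrivial E] (Q : GoodT T La f i u C a b) (F : HF Om La f fi) {g : E → ℝ}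
    {β ε δ : ℝ} (hN : NearV T i g β ε)
    (hg : ∀ e, Sk3_812.Crs T i e → ∀ z ∈ T.cc e, g z ≤ u (f z) + δ) {A : E → E} {κ ε' : ℝ}
    (hκ : 0 ≤ κ) (hA : ∀ x y, κ * ‖x - y‖ ≤ ‖A x - A y‖)
    (hf : ∀ e, Sk3_812.Crs T i e → ∀ z ∈ T.cc e, ‖f z - A z‖ ≤ ε') :
    ∀ s ∈ Ioo a b, s + δ ≤ 1 + β → ∃ x1 ∈ sk1 T, ∃ x2 ∈ sk1 T, u (f x1) = s ∧ u (f x2) = s ∧
      κ * (diam (P (T.H i)) / 2 - 2 * ε) - 2 * ε' ≤ dist (f x1) (f x2) := by
  intro s hs hsβ
  obtain ⟨v, hv, w, hw, hvw, ⟨e, he, hve⟩, e', he', hwe⟩ := two_crs T i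
  rw [← crs_iff] at he he'
  obtain ⟨x1, hx1, k1, l1, d1⟩ := exists_pt Q F hN hg hs hsβ he hve hv
  obtain ⟨x2, hx2, k2, l2, d2⟩ := exists_pt Q F hN hg hs hsβ he' hwe hw
  refine ⟨x1, k1, x2, k2, l1, l2, ?_⟩
  have n1 := hf e he x1 hx1
  have n2 := hf e' he' x2 hx2
  have h1 : diam (P (T.H i)) / 2 - 2 * ε ≤ ‖x1 - x2‖ := by
    have t1 : dist v w ≤ dist v x1 + dist x1 x2 + dist x2 w := dist_triangle4 _ _ _ _
    rw [dist_comm v x1] at t1
    rw [← dist_eq_norm]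
    linarith
  have h2 := mul_le_mul_of_nonneg_left h1 hκ
  have h3 := hA x1 x2
  have h4 : ‖A x1 - A x2‖ ≤ dist (f x1) (f x2) + ε' + ε' := by
    have e1 : A x1 - A x2 = (f x1 - f x2) + (f x2 - A x2) - (f x1 - A x1) := by abel
    rw [e1, dist_eq_norm]
    refine (norm_sub_le _ _).trans ?_
    have := norm_add_le (f x1 - f x2) (f x2 - A x2)
    linarith
  linarith

/-- the estimate of the gauge in the domain by the gauge in the image -/
theorem gauge_le {u : E → ℝ} {L ε' : ℝ} (hL : 0 ≤ L) (hu : ∀ y y', |u y - u y'| ≤ L * ‖y - y'‖)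
    {g : E → ℝ} {A : E → E} (hA : ∀ x, u (A x) = g x) {z : E} (hz : ‖f z - A z‖ ≤ ε') :
    g z ≤ u (f z) + L * ε' := by
  have h1 := (abs_le.1 (hu (f z) (A z))).1
  rw [hA] at h1
  have h2 := mul_le_mul_of_nonneg_left hz hL
  linarith

end Crest.Agent.R096.Spr_113
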