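/-
helper793, row 96, p = 2: composite A, mesh families with faces; the coarse selection for them.
-/
import Mathlib
import Crest.Agent.R096.Fsl6_793
import Crest.Agent.R096.Fsl8_793
import Crest.Agent.R096.Ca8_855
import Crest.Agent.R096.Spr2_113

set_option autoImplicit false
set_option linter.unusedSectionVars false
set_option maxHeartbeats 400000

open MeasureTheory Set Filter Metric
open scoped ENNReal Topology

namespace Crest.Agent.R096.Fsl_793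

open Crest.AnalysisR.VecCalc3 Crest.AnalysisR.Sobolev
open Crest.Agent.R096.Msh_715 (Tiling P I)
open Crest.Agent.R096.Mf_113 (Rig CK)
open Crest.Agent.R096.Sk2_855 (sk1)
open Crest.Agent.R096.Sk3_812 (ug)
open Crest.Agent.R096.Ca_855
open Crest.Agent.R096.Spr_113 (NearV)
open Crest.Agent.R096.Fce_793
open Crest.Agent.R96.Acl_392 Crest.Agent.R96.Lu_538 Crest.Agent.R96.Intr_538
open Crest.Agent.R96.Coarse_538

noncomputable section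

/-- **a mesh family with faces** -/
structure MFam2 (Om W : Set R3) (t n β r : ℝ) (nc m : ℕ) extends MFam Om W t n β r nc where
  κf : Type
  cntf : Countable κf
  xf : κf → R3
  ef : κf → Fin 2 → R3
  Pf : κf → Set (ℝ × ℝ)
  Rf : κf → Set R3
  fcs : Faces Tr (2 * t) m xf ef Pf Rf
  orth : ∀ φ, inner ℝ (ef φ 0) (ef φ 1) = 0
  face : ∀ a ∈ Tr, ∀ y ∈ Om, (T a).dim y = 2 → ((T a).cc y ∩ W).Nonempty →
    ∃ φ, (T a).cc y = pt (ef φ) (a + xf φ) '' Pf φ ∧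
      ∀ w ∈ Pf φ, w ∉ interior (Pf φ) → pt (ef φ) (a + xf φ) w ∈ sk1 (T a)
  near : ∀ a ∈ Tr, ∀ i, (P ((T a).H i) ∩ W).Nonempty →
    NearV (T a) i (ug ((T a).H i) (Gsm_432.H_ne (T a) i) (c a i) (AffineEquiv.refl ℝ R3))
      (4 * β) (r * t / 8)

/-- the face clause in the form of 465's `regs2_of_mesh` -/
theorem MFam2.hface {Om W : Set R3} {t n β r : ℝ} {nc m : ℕ} (M : MFam2 Om W t n β r nc m)
    {a : R3} (ha : a ∈ M.Tr) : ∀ y ∈ Om, (M.T a).dim y = 2 → ((M.T a).cc y ∩ W).Nonempty →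
    ∃ φ, LinearIndependent ℝ (M.ef φ) ∧ (M.T a).cc y = pt (M.ef φ) (a + M.xf φ) '' M.Pf φ := by
  intro y hy hd hW
  obtain ⟨φ, h1, -⟩ := M.face a ha y hy hd hW
  exact ⟨φ, M.fcs.li φ, h1⟩

section rig

variable {Om Om0 W Tr : Set R3} {ι0 : Type} {ι : R3 → Type} {T0 : Tiling Om0 ι0}
  {T : ∀ a, Tiling Om (ι a)} {t β r d : ℝ} {nc : ℕ}

instance : Countable (RF T0 Tr W) := inferInstance

/-- **the mesh family with faces of a rigid family of tilings** -/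
theorem exists_ofRig (h : Rig T0 T Tr W) (c : ∀ a, ι a → R3) (hTr : MeasurableSet Tr)
    (hvol : ENNReal.ofReal (t ^ 3) ≤ volume Tr) (hfin : volume Tr ≠ ∞) (ht0 : 0 < t)
    (hr : 0 < r) (hd0 : 0 ≤ d)
    (ht : ∀ a ∈ Tr, ∀ i, (P ((T a).H i) ∩ W).Nonempty →
      TileG (T a) i (Gsm_432.H_ne (T a) i) (c a i) β (r * t) t nc)
    (hN : ∀ a ∈ Tr, ∀ i, (P ((T a).H i) ∩ W).Nonempty →
      NearV (T a) i (ug ((T a).H i) (Gsm_432.H_ne (T a) i) (c a i) (AffineEquiv.refl ℝ R3))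
        (4 * β) (r * t / 8))
    {a₀ : R3} (hd : ∀ a ∈ Tr, ‖a - a₀‖ ≤ d * t) {m : ℕ} (hm : ((d + 2) / r) ^ 3 ≤ m) :
    ∃ M : MFam2 Om W t (2 ^ ⌊((d + 1) / r) ^ 3⌋₊) β r nc (m ^ 2), M.Tr = Tr ∧
      M.toMFam = MFam.ofRig h c hTr hvol hfin ht0 hr hd0 ht hd := by
  have hs : ∀ a ∈ Tr, ∀ j, (P ((T a).H j) ∩ W).Nonempty → GTile (T a) (r * t) t j :=
    fun a ha j hj => ⟨⟨_, (ht a ha j hj).ball⟩, (ht a ha j hj).diam⟩
  obtain ⟨e, x, Q, R, h1, h2, -, -, h5⟩ := Rig.facesG h (ρ := r * t) (t := t) (d := d * t)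
    (mul_pos hr ht0) ht0.le (a₀ := a₀) (fun a ha => by
      rw [mem_closedBall, dist_eq_norm]; exact hd a ha) (by positivity) hs (m := m) (by
      have e1 : (d * t + 2 * t) / (r * t) = (d + 2) / r := by field_simp
      rwa [e1])
  exact ⟨{ MFam.ofRig h c hTr hvol hfin ht0 hr hd0 ht hd with
    κf := RF T0 Tr W
    cntf := inferInstance
    xf := x
    ef := e
    Pf := Q
    Rf := R
    fcs := h1
    orth := h2
    face := h5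
    near := hN }, rfl, rfl⟩

end rig

/-- **COARSE SELECTION FOR A MESH FAMILY WITH FACES** (p = 2): `coarse_EF` for `MFam2` -/
theorem coarse_mesh2 {Ω Λ : Set R3} (hΩ : IsOpen Ω)
    (hΩb : Bornology.IsBounded Ω) (hΛ : IsOpen Λ) (hΛf : volume Λ ≠ ∞) {f : R3 → R3}
    {G : Fin 3 → R3 → R3} (hinj : InjOn f Ω)
    (hf : ContinuousOn f Ω) (hfΛ : MapsTo f Ω Λ)
    (hG : ∀ j, HasWeakGradOn Ω (fun x => f x j) (G j))
    (hGp : ∀ j, MemLp (G j) (ENNReal.ofReal 2) (volume.restrict Ω)) {ε : ℝ} (hε : 0 < ε) :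
    ∃ κ : ℝ, 0 < κ ∧ κ ≤ 1 ∧ ∃ K ⊆ Ω, IsCompact K ∧ ∃ K' ⊆ Λ, IsCompact K' ∧
      ∀ N n τ σ₀ η θ δ e₁ ε₀ β' : ℝ, ∀ mf : ℕ, 0 < N → 0 < n → 0 < σ₀ → σ₀ < τ → 2 * τ ≤ 1 →
        1 ≤ σ₀ * N → 0 < η → 0 < θ → 0 < δ → 0 < e₁ → 0 < ε₀ → 0 < β' →
        ∀ (m : ℕ) (g : Fin m → R3 → ℝ≥0∞), (∀ l, AEMeasurable (g l) volume) →
        (∀ l, ∫⁻ y, g l y ≠ ∞) → ∀ (nE ncE : Fin m → ℝ) (εE : ℝ), (∀ l, 0 < nE l) →
        (∀ l, 0 < ncE l) → 0 < εE →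
        ∃ s₀ : ℝ, 0 < s₀ ∧ ∀ s : ℝ, 0 < s → s < s₀ → ∀ a₀ : R3,
        ∃ (Q₀ : Finset (Fin 3 → ℤ)) (b : (Fin 3 → ℤ) → R3) (L : (Fin 3 → ℤ) → R3 →L[ℝ] R3)
          (S : (Fin 3 → ℤ) → Set R3),
          (∀ k ∈ Q₀, GC Ω volume f (Gmat G) Cb κ e₁ s (vt (2 * s) a₀ k) (b k) (L k) (S k)) ∧
          (∀ k ∈ Q₀, cel Cb (vt (2 * s) a₀ k) s ⊆ K) ∧ (∀ k ∈ Q₀, par Cb (L k) (b k) s ⊆ K') ∧
          (∀ k ∈ Q₀, ∀ l ∈ Q₀, k ≠ l →
            Disjoint (par Cb (L k) (b k) ((1 - τ) * s)) (par Cb (L l) (b l) s)) ∧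
          ∑ k ∈ Q₀, ∫⁻ x in cel Cb (vt (2 * s) a₀ k) s, ‖Gmat G x - L k‖ₑ ^ (2:ℝ) ≤
            ENNReal.ofReal e₁ ∧
          volume ((Ω ∩ {x | (Gmat G x).det ≠ 0}) \ ⋃ k ∈ Q₀, cel Cb (vt (2 * s) a₀ k) s) ≤
            ENNReal.ofReal ε ∧
          ∀ (W : Set R3) (β r : ℝ) (nc : ℕ) (M : MFam2 Ω W (s / N) n β r nc mf),
            ∀ ν : R3 → Measure R3, RM M.Tr (ENNReal.ofReal n) ν →
            ∀ (μ : Fin m → R3 → Measure R3), (∀ l, RM M.Tr (ENNReal.ofReal (nE l)) (μ l)) →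
            (∀ l, ∀ a ∈ M.Tr, ∀ k : Fin 3 → ℤ, μ l a (cel Cb (vt (2 * s) a₀ k) s) ≤
              ENNReal.ofReal (ncE l * (2 * s) ^ 3)) →
            ∀ (E : Fin m → Set R3), (∀ l, MeasurableSet (E l)) →
            ∀ (J : Type) [Countable J] (F : J → R3 → ℝ≥0∞), (∀ j, AEMeasurable (F j) volume) →
            (∀ j, ∫⁻ y, F j y ≠ ∞) →
            ∃ B : Set R3, volume B ≤ ENNReal.ofReal θ * volume M.Tr ∧
              ∀ a ∈ M.Tr, a ∉ B → (∀ e, ACV Ω f (Gmat G) (M.v e) (a + M.x e)) ∧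
                (∀ e j, ∀ ε' : ℝ≥0∞, 0 < ε' → ∀ᶠ r in 𝓝[>] (0:ℝ),
                  ∫⁻ y in thickening r (seg M.x M.v a e), F j y ≤
                    ENNReal.ofReal (64 * ‖M.v e‖ * r ^ 2) *
                      ((∫⁻ σ in Ioc (0:ℝ) 1, F j (a + M.x e + σ • M.v e)) + ε')) ∧
                ∃ Q ⊆ Q₀, ((Q₀ \ Q).card : ℝ) * (2 * s) ^ 3 ≤ δ ∧
                (∀ k ∈ Q, PerfG M.x M.v 2 Ω f (Gmat G) κ τ σ₀ η (s / N) s a
                  (vt (2 * s) a₀ k) (b k) (L k) ∧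
                FaceG Ω f M.xf M.ef M.Pf (Junk f s (vt (2 * s) a₀ k) (b k) (L k) (β' * (s / N)))
                  (ε₀ * (s / N) ^ 2) a ∧
                ∫⁻ y in cel Cb (vt (2 * s) a₀ k) s, ‖Gmat G y - L k‖ₑ ^ (2:ℝ) ∂ν a ≤
                  ENNReal.ofReal (ε₀ * s ^ 3)) ∧
                ∀ l, ∫⁻ y in E l ∪ ⋃ k ∈ Q₀ \ Q, cel Cb (vt (2 * s) a₀ k) s, g l y ∂μ l a ≤
                  ENNReal.ofReal (nE l / (θ / (4 * (m + 1)))) * (∫⁻ y in E l, g l y) +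
                    ENNReal.ofReal εE := by
  obtain ⟨κ, hκ, hκ1, K, hK, hKc, K', hK', hK'c, H⟩ :=
    coarse_EF hΩ hΩb hΛ hΛf hinj hf hfΛ hG hGp hε
  refine ⟨κ, hκ, hκ1, K, hK, hKc, K', hK', hK'c, ?_⟩
  intro N n τ σ₀ η θ δ e₁ ε₀ β' mf hN hn hσ₀ hσ₀τ hτ hσN hη hθ hδ he₁ hε₀ hβ' m g hg hgi nE ncE εE
    hnE hncE hεE
  obtain ⟨s₀, hs₀, Hs⟩ := H N n τ σ₀ η θ δ e₁ ε₀ β' 2 mf hN hn hσ₀ hσ₀τ hτ hσN hη hθ hδ he₁ hε₀
    hβ' two_pos m g hg hgi nE ncE εE hnE hncE hεE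
  refine ⟨s₀, hs₀, fun s hs hss a₀ => ?_⟩
  obtain ⟨Q₀, b, L, S, h1, h2, h3, h4, h5, h6, h7⟩ := Hs s hs hss a₀
  refine ⟨Q₀, b, L, S, h1, h2, h3, h4, h5, h6, ?_⟩
  intro W β r nc M ν hν μ hμ hcount E hE J _ F hF hFi
  have := M.cnt
  have := M.cntf
  exact h7 M.κi M.x M.v M.κf M.xf M.ef M.Pf M.Rf M.Tr M.meas M.vol M.fin M.vle M.vne M.dens M.fcs
    ν hν μ hμ hcount E hE J F hF hFi

end

end Crest.Agent.R096.Fsl_793
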