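import Crest.Agent.R096.Cp8_465
import Crest.Agent.R096.Fsl9_793
import Crest.Agent.R096.Ca15_855

/-!
# Row 96 (S0127), p = 2 (helper465), part 9: the mesh family with faces from `TG2`
-/

set_option autoImplicit false
set_option linter.unusedSectionVars false

open Set Metric Topology Filter MeasureTheory
open scoped ENNReal

namespace Crest.Agent.R096.Cp9_465

open Crest.AnalysisR.VecCalc3
open Crest.Agent.R096.Msh_715 (Tiling P I)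
open Crest.Agent.R096.Mf_113 (Rig CK)
open Crest.Agent.R096.Ca_855
open Crest.Agent.R096.Fsl_793
open Crest.Agent.R096.Cp8_465
open Crest.Agent.R096.Spr_113 (NearV)
open Crest.Agent.R096.Sk3_812 (ug)
open Crest.Agent.R096.Mal_874 (CB reOm)
open Crest.Agent.R096.Msb_432 (Scl)
open Crest.Agent.R096.Gsm_432 (TG)

noncomputable section

/-- the two shape clauses at the scale `κ` in absolute units -/
theorem TG2.abs {Om : Set R3} {ι : Type*} {T : Tiling Om ι} {i : ι} {β ρ D ε t r : ℝ} {nc κ kM : ℕ}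
    (h : TG2 T i β ρ D nc κ ε) (hκ : κ ≤ kM) (hD : D / 2 ^ κ ≤ t) (hr : r * t ≤ ρ / 2 ^ kM)
    (hε : ε / 2 ^ κ ≤ r * t / 8) : ∃ c : R3, ∀ hne : (T.H i).Nonempty,
      TileG T i hne c β (r * t) t nc ∧
      NearV T i (ug (T.H i) hne c (AffineEquiv.refl ℝ R3)) (4 * β) (r * t / 8) := by
  obtain ⟨-, c, hc, hN⟩ := h
  refine ⟨c, fun hne => ⟨?_, (hN hne).mono le_rfl hε⟩⟩
  have h1 := hc hne kM t hκ hD
  exact h1.diam' hr h1.diam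

section rig

variable {Om Om0 W Tr : Set R3} {ι0 : Type} {ι : R3 → Type} {T0 : Tiling Om0 ι0}
  {T : ∀ a, Tiling Om (ι a)} {t β r d ρ D ε : ℝ} {nc kM : ℕ}

/-- **the mesh families (without and with faces) of a rigid family of tilings with the shape
constants `TG2`** -/
theorem mfam2_of_rig (h : Rig T0 T Tr W) (hTr : MeasurableSet Tr)
    (hvol : ENNReal.ofReal (t ^ 3) ≤ volume Tr) (hfin : volume Tr ≠ ∞) (ht0 : 0 < t)
    (hr : 0 < r) (hd0 : 0 ≤ d) (hrt : r * t ≤ ρ / 2 ^ kM)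
    (hT : ∀ a ∈ Tr, ∀ i, (P ((T a).H i) ∩ W).Nonempty → ∃ κ ≤ kM,
      TG2 (T a) i β ρ D nc κ ε ∧ D / 2 ^ κ ≤ t ∧ ε / 2 ^ κ ≤ r * t / 8)
    {a₀ : R3} (hd : ∀ a ∈ Tr, ‖a - a₀‖ ≤ d * t) {m : ℕ} (hm : ((d + 2) / r) ^ 3 ≤ m) :
    ∃ (c : ∀ a, ι a → R3) (ht : ∀ a ∈ Tr, ∀ i, (P ((T a).H i) ∩ W).Nonempty →
        TileG (T a) i (Gsm_432.H_ne (T a) i) (c a i) β (r * t) t nc),
      ∃ M : MFam2 Om W t (2 ^ ⌊((d + 1) / r) ^ 3⌋₊) β r nc (m ^ 2), M.Tr = Tr ∧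
        M.toMFam = MFam.ofRig h c hTr hvol hfin ht0 hr hd0 ht hd := by
  classical
  have key : ∀ a, ∀ i, ∃ c : R3, a ∈ Tr → (P ((T a).H i) ∩ W).Nonempty →
      TileG (T a) i (Gsm_432.H_ne (T a) i) c β (r * t) t nc ∧
      NearV (T a) i (ug ((T a).H i) (Gsm_432.H_ne (T a) i) c (AffineEquiv.refl ℝ R3))
        (4 * β) (r * t / 8) := by
    intro a i
    by_cases hi : a ∈ Tr ∧ (P ((T a).H i) ∩ W).Nonempty
    · obtain ⟨κ, hκ, h1, h2, h3⟩ := hT a hi.1 i hi.2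
      obtain ⟨c, hc⟩ := TG2.abs h1 hκ h2 hrt h3
      exact ⟨c, fun _ _ => hc _⟩
    · exact ⟨0, fun h1 h2 => absurd ⟨h1, h2⟩ hi⟩
  choose c hc using key
  have ht := fun a ha i hi => (hc a i ha hi).1
  obtain ⟨M, h1, h2⟩ := exists_ofRig h c hTr hvol hfin ht0 hr hd0 ht
    (fun a ha i hi => (hc a i ha hi).2) hd hm
  exact ⟨c, ht, M, h1, h2⟩

end rig

/-! ### the meshes `h.T a` of helper855's `MIn` -/

theorem TG2.tg {E : Type} [NormedAddCommGroup E] [NormedSpace ℝ E] [FiniteDimensional ℝ E]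
    {Om : Set E} {ι : Type*} {T : Tiling Om ι} {i : ι} {β ρ D ε : ℝ} {nc κ : ℕ}
    (h : TG2 T i β ρ D nc κ ε) : TG T i β ρ D nc κ :=
  ⟨h.1, h.2.choose, h.2.choose_spec.1⟩

theorem TG2.re {E : Type} [NormedAddCommGroup E] [NormedSpace ℝ E] [FiniteDimensional ℝ E]
    {Om Om' : Set E} (h : Om = Om') {ι : Type} {T : Tiling Om ι} {i : ι} {β ρ D ε : ℝ} {nc κ : ℕ}
    (hT : TG2 T i β ρ D nc κ ε) : TG2 (reOm T h) i β ρ D nc κ ε := by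
  subst h
  exact hT

/-- **855's `exists_tile` with `NearV`**: `D`, `nc` depend on `κ`, `Bs` only; `ρ` on the net; then
`ε`, `β` -/
theorem exists_tile2 {κ : ℝ} (hκ : 0 < κ) (hκ1 : κ ≤ 1) (Bs : ℕ) :
    ∃ D : ℝ, 0 < D ∧ ∃ nc : ℕ,
      (∀ {Om W : Set R3} {ρ₀ : R3 → ℝ} {J : Type} [Finite J] {Qb : J → CB R3 3} {k0 Nn : ℕ}
        {σ : ℝ} (h : MIn Om W ρ₀ Qb k0 σ), (∀ j, MIn.BQ κ Bs Nn (Qb j) k0) → ∀ a,
        (∀ t, {j | (P ((h.T a).H j) ∩ P ((h.T a).H t)).Nonempty}.ncard ≤ nc ∧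
          Nat.card (Crest.Agent.R096.Tgr_335.KT (h.T a) t) ≤ nc ∧
          Nat.card (Crest.Agent.R096.Sk3_812.KT (h.T a) t) ≤ nc) ∧
        ∀ j t, (P ((h.T a).H t) ∩ (h.M.Bk (fun _ => h.cl a) j).N).Nonempty →
          ∀ x ∈ P ((h.T a).H t), ∀ y ∈ P ((h.T a).H t), ‖x - y‖ ≤ D / 2 ^ (Qb j).kc) ∧
      ∀ Nn : ℕ, ∃ ρ > 0, ∀ ε > 0, ∃ β > 0, ∀ {Om W : Set R3} {ρ₀ : R3 → ℝ} {J : Type} [Finite J]
        {Qb : J → CB R3 3} {k0 : ℕ} {σ : ℝ} (h : MIn Om W ρ₀ Qb k0 σ),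
        (∀ j, MIn.BQ κ Bs Nn (Qb j) k0) → ∀ a t,
          ∃ κ', Scl h.M h.sc (0 + h.M.φ (h.cl a)) (h.adm a) t κ' ∧
            TG2 (h.Ts a) t β ρ D nc κ' ε := by
  obtain ⟨D, hD, nc, h1, h2⟩ := tg2_struct (n := 3) R3 (4 * κ⁻¹) (max 1 (Bs:ℝ)) (max 1 Bs)
  refine ⟨D, hD, nc, ?_, fun Nn => ?_⟩
  · intro Om W ρ₀ J _ Qb k0 Nn σ h hb a
    obtain ⟨h2, h3⟩ := h1 h.M h.sc (0 + h.M.φ (h.cl a)) (h.adm a) (h.X hκ hκ1 hb)
      (h.rp hκ hκ1 hb a) (h.fb hκ hκ1 hb) (fun _ => le_rfl) (fun _ => le_rfl)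
    refine ⟨fun t => ?_, h3⟩
    obtain ⟨e1, e2, e3⟩ := card_re h.dom (h.Ts a) t
    exact ⟨(congrArg Set.ncard e1).le.trans (h2 t).1, e2.le.trans (h2 t).2.1,
      e3.le.trans (h2 t).2.2⟩
  · obtain ⟨ρ, hρ, h3⟩ := h2 (MIn.Ps_finite Nn) (4 * κ⁻¹)
    refine ⟨ρ, hρ, fun ε hε => ?_⟩
    obtain ⟨β, hβ, h3⟩ := h3 ε hε
    refine ⟨β, hβ, ?_⟩
    intro Om W ρ₀ J _ Qb k0 σ h hb a t
    exact h3 h.M h.sc (0 + h.M.φ (h.cl a)) (h.adm a) (h.X hκ hκ1 hb) (h.rp hκ hκ1 hb a)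
      (h.fb hκ hκ1 hb) (h.X_Ps hκ hκ1 hb) (fun _ => le_rfl) (fun _ => le_rfl) (fun _ => le_rfl) t

section MIn

variable {Om W : Set R3} {ρ₀ : R3 → ℝ} {J : Type} {Qb : J → CB R3 3} {k0 : ℕ} {σ : ℝ}
  [Finite J] {D β ρ t r ε : ℝ} {nc : ℕ}

theorem vol_closedBall_ge {t : ℝ} (ht : 0 ≤ t) :
    ENNReal.ofReal (t ^ 3) ≤ volume (closedBall (0 : R3) t) := by
  rw [EuclideanSpace.volume_closedBall_fin_three, ENNReal.ofReal_pow ht]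
  refine le_mul_of_one_le_right zero_le ?_
  rw [ENNReal.one_le_ofReal]
  have := Real.pi_gt_three
  linarith

/-- `TG2` at a scale `≤ k0 + 1` for the tiles which meet `W` -/
theorem _root_.Crest.Agent.R096.Ca_855.MIn.tile2 (h : MIn Om W ρ₀ Qb k0 σ) (hD : 0 ≤ D) (hε : 0 ≤ ε)
    (hTG : ∀ a i, ∃ κ', Scl h.M h.sc (0 + h.M.φ (h.cl a)) (h.adm a) i κ' ∧
      TG2 (h.Ts a) i β ρ D nc κ' ε)
    (hDk : ∀ j, D / 2 ^ (Qb j).kc ≤ t) (hD0 : D / 2 ^ k0 ≤ t)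
    (hεk : ∀ j, ε / 2 ^ (Qb j).kc ≤ r * t / 8) (hε0 : ε / 2 ^ k0 ≤ r * t / 8)
    (a : R3) (i : h.ιT a) (hi : (P ((h.T a).H i) ∩ W).Nonempty) : ∃ κ' ≤ k0 + 1,
      TG2 (h.T a) i β ρ D nc κ' ε ∧ D / 2 ^ κ' ≤ t ∧ ε / 2 ^ κ' ≤ r * t / 8 := by
  obtain ⟨κ', h1, h3⟩ := hTG a i
  obtain ⟨h4, h5⟩ := h.scl_le hi h1
  have hmono : ∀ {x : ℝ}, 0 ≤ x → ∀ {k k' : ℕ}, k ≤ k' → x / 2 ^ k' ≤ x / 2 ^ k :=
    fun hx _ _ hkk =>
    div_le_div_of_nonneg_left hx (by positivity) (pow_le_pow_right₀ (by norm_num) hkk)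
  refine ⟨κ', h4, TG2.re h.dom (T := h.Ts a) h3, ?_, ?_⟩
  · rcases h5 with h5 | ⟨j, h5⟩
    · exact (hmono hD h5).trans hD0
    · exact (hmono hD h5).trans (hDk j)
  · rcases h5 with h5 | ⟨j, h5⟩
    · exact (hmono hε h5).trans hε0
    · exact (hmono hε h5).trans (hεk j)

/-- **the mesh families (without and with faces) of `PreIN`**: the family of the tilings
`h.T a`, `a ∈ closedBall 0 t`, over the model `h.T0` -/
theorem _root_.Crest.Agent.R096.Ca_855.MIn.exists_mfam2 (h : MIn Om W ρ₀ Qb k0 σ) (hD : 0 ≤ D) (hε : 0 ≤ ε)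
    (hTG : ∀ a i, ∃ κ', Scl h.M h.sc (0 + h.M.φ (h.cl a)) (h.adm a) i κ' ∧
      TG2 (h.Ts a) i β ρ D nc κ' ε)
    (hDk : ∀ j, D / 2 ^ (Qb j).kc ≤ t) (hD0 : D / 2 ^ k0 ≤ t)
    (hεk : ∀ j, ε / 2 ^ (Qb j).kc ≤ r * t / 8) (hε0 : ε / 2 ^ k0 ≤ r * t / 8)
    (hrt : r * t ≤ ρ / 2 ^ (k0 + 1)) (ht : 0 < t) (htσ : t ≤ σ / 8) (hr : 0 < r)
    {m : ℕ} (hm : ((1 + 2) / r) ^ 3 ≤ m) :
    ∃ (c : ∀ a, h.ιT a → R3)
      (htile : ∀ a ∈ closedBall (0 : R3) t, ∀ i, (P ((h.T a).H i) ∩ W).Nonempty →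
        TileG (h.T a) i (Gsm_432.H_ne (h.T a) i) (c a i) β (r * t) t nc),
      ∃ M : MFam2 Om W t (2 ^ ⌊((1 + 1) / r) ^ 3⌋₊) β r nc (m ^ 2),
        M.toMFam = MFam.ofRig (T0 := h.T0) (T := h.T) (Tr := closedBall 0 t) (a₀ := 0) (d := 1)
          (h.rig fun a ha => (mem_closedBall_zero_iff.1 ha).trans htσ) c
          measurableSet_closedBall (vol_closedBall_ge ht.le) measure_closedBall_lt_top.ne ht hr
          zero_le_one htile (fun a ha => by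
            rw [sub_zero, one_mul]
            exact mem_closedBall_zero_iff.1 ha) := by
  obtain ⟨c, htile, M, -, h2⟩ := mfam2_of_rig (T0 := h.T0) (T := h.T) (Tr := closedBall 0 t)
    (a₀ := 0) (d := 1) (ρ := ρ) (D := D) (ε := ε) (kM := k0 + 1)
    (h.rig fun a ha => (mem_closedBall_zero_iff.1 ha).trans htσ) measurableSet_closedBall
    (vol_closedBall_ge ht.le) measure_closedBall_lt_top.ne ht hr zero_le_one hrt
    (fun a _ i hi => h.tile2 hD hε hTG hDk hD0 hεk hε0 a i hi) (fun a ha => by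
      rw [sub_zero, one_mul]
      exact mem_closedBall_zero_iff.1 ha) hm
  exact ⟨c, htile, M, h2⟩

end MIn

end

end Crest.Agent.R096.Cp9_465
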