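import Crest.Agent.R096.P2l1_565

/-!
# Row 96 (S0127), p = 2: leaf [L7] P2-LEVELS (helper565), part 3: the general selection
-/

set_option autoImplicit false

open Set Metric MeasureTheory

namespace Crest.Agent.R096.P2l_565

variable {Y : Type*} [PseudoMetricSpace Y]

section Main

variable {J : Type*} [Finite J] {K : J → Type*} [∀ i, Fintype (K i)]

/-- **P2-LEVELS** (general form): good sets `G0`, finitely many excluded levels `R` for every
earlier choice, patches with their own factor `C j`. -/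
theorem levels2 (rk : J → ℕ) (nb : J → Finset J) (hnb : ∀ i, ∀ j ∈ nb i, rk j < rk i)
    (u : J → Y → ℝ) (L : J → ℝ) (hL : ∀ i, 0 ≤ L i)
    (hu : ∀ i y z, |u i y - u i z| ≤ L i * dist y z)
    (t0 tm : J → ℝ) (θ0 : J → ℝ) (hθ0 : ∀ i, 0 ≤ θ0 i)
    (θ σ : ∀ i, K i → ℝ) (hθ : ∀ i k, 0 ≤ θ i k) {C : J → ℝ} (hC : ∀ i, 0 ≤ C i)
    (hsum : ∀ i, θ0 i + ∑ k, θ i k + ∑ j ∈ nb i, ∑ k, 2 * (L i * C j * σ j k) < tm i - t0 i)
    (G0 : J → Set ℝ) (hG0 : ∀ i, volume (Ioo (t0 i) (tm i) \ G0 i) ≤ ENNReal.ofReal (θ0 i))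
    (R : J → J → ℝ → ℝ → Prop)
    (hfin : ∀ i j, rk j < rk i → ∀ s ∈ G0 j, {s' | R j i s s'}.Finite)
    (G : ∀ i, K i → ℝ → ∀ n : ℕ, (Fin n → Y) → (Fin n → ℝ) → ℝ → Prop)
    (hGm : ∀ i k ts n y ρ η η', η' ≤ η → 0 < η' → G i k ts n y ρ η → G i k ts n y ρ η')
    (hG : ∀ i k, ∃ Bad : Set ℝ, MeasurableSet Bad ∧ volume Bad ≤ ENNReal.ofReal (θ i k) ∧
      ∀ ts ∈ Ioo (t0 i) (tm i), ts ∉ Bad → ∃ (n : ℕ) (y : Fin n → Y) (ρ : Fin n → ℝ),
        (∀ m, 0 < ρ m) ∧ ∑ m, ρ m ≤ σ i k ∧ ∃ η > 0, G i k ts n y ρ η) :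
    ∃ D : ∀ i, Dat Y (K i), ∃ η > 0,
      (∀ i, t0 i < (D i).ts - η ∧ (D i).ts + η < tm i) ∧
      (∀ i k m, 0 < (D i).ρ k m) ∧ (∀ i k, ∑ m, (D i).ρ k m ≤ σ i k) ∧
      (∀ i k, G i k (D i).ts ((D i).n k) ((D i).y k) ((D i).ρ k) η) ∧
      (∀ i, ∀ j ∈ nb i, ∀ z ∈ pat (C j) (D j), η < |u i z - (D i).ts|) ∧
      (∀ i, (D i).ts ∈ G0 i) ∧
      (∀ i j, rk j < rk i → ¬ R j i (D j).ts (D i).ts) := by
  classical
  cases nonempty_fintype J
  -- the bad levels of a box
  choose Bad hBm hBv hBG using hG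
  let Q : ∀ i, Dat Y (K i) → (∀ j, Dat Y (K j)) → Prop := fun i d D =>
      (0 < d.η ∧ t0 i < d.ts - d.η ∧ d.ts + d.η < tm i) ∧
      (∀ k m, 0 < d.ρ k m) ∧ (∀ k, ∑ m, d.ρ k m ≤ σ i k) ∧
      (∀ k, G i k d.ts (d.n k) (d.y k) (d.ρ k) d.η) ∧
      (∀ j ∈ nb i, ∀ z ∈ pat (C j) (D j), d.η < |u i z - d.ts|) ∧ d.ts ∈ G0 i ∧
      (∀ j, rk j < rk i → ¬ R j i (D j).ts d.ts)
  have key : ∀ N : ℕ, ∃ D : ∀ i, Dat Y (K i), ∀ i, rk i < N → Q i (D i) D := by
    intro N
    induction N with
    | zero =>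
      exact ⟨fun i => ⟨0, fun _ => 0, fun _ => Fin.elim0, fun _ => Fin.elim0, 0⟩,
        fun i h => absurd h (Nat.not_lt_zero _)⟩
    | succ N ih =>
      obtain ⟨D, hD⟩ := ih
      -- the new data of the boxes of rank `N`
      have step : ∀ i, rk i = N → ∃ D' : Dat Y (K i), Q i D' D := by
        intro i hi
        have hpos : ∀ j ∈ nb i, ∀ k m, 0 < (D j).ρ k m := fun j hj =>
          (hD j (by rw [← hi]; exact hnb i j hj)).2.1
        have hσ : ∀ j ∈ nb i, ∀ k, ∑ m, (D j).ρ k m ≤ σ j k := fun j hj =>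
          (hD j (by rw [← hi]; exact hnb i j hj)).2.2.1
        -- the forbidden intervals
        let s : Finset (Σ j : J, Σ k : K j, Fin ((D j).n k)) :=
          (nb i).sigma fun j => Finset.univ
        let Ex : Set ℝ := ⋃ j ∈ {j | rk j < rk i}, {s' | R j i (D j).ts s'}
        have hEx : volume Ex = 0 := by
          refine (Set.Finite.biUnion (Set.toFinite _) fun j hj => ?_).measure_zero _
          exact hfin i j hj _ (hD j (by rw [← hi]; exact hj)).2.2.2.2.2.1
        obtain ⟨ts, hts, hB, hav⟩ := exists_level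
          (Bad := (Ioo (t0 i) (tm i) \ G0 i) ∪ (⋃ k, Bad i k) ∪ Ex)
          (θ := θ0 i + ∑ k, θ i k) (add_nonneg (hθ0 i) (Finset.sum_nonneg fun k _ => hθ i k))
          (by
            refine (measure_union_le _ _).trans ?_
            rw [hEx, add_zero]
            refine (measure_union_le _ _).trans ?_
            rw [ENNReal.ofReal_add (hθ0 i) (Finset.sum_nonneg fun k _ => hθ i k)]
            refine add_le_add (hG0 i) ((measure_iUnion_le _).trans ?_)
            rw [tsum_fintype, ENNReal.ofReal_sum_of_nonneg fun k _ => hθ i k]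
            exact Finset.sum_le_sum fun k _ => hBv i k)
          (t0 := t0 i) (tm := tm i) s
          (fun a => u i ((D a.1).y a.2.1 a.2.2)) (fun a => L i * C a.1 * (D a.1).ρ a.2.1 a.2.2)
          (by
            intro a ha
            exact mul_nonneg (mul_nonneg (hL i) (hC _))
              (hpos a.1 (Finset.mem_sigma.1 ha).1 _ _).le)
          (by
            refine lt_of_le_of_lt ?_ (hsum i)
            refine add_le_add le_rfl ?_
            simp only [s]
            rw [Finset.sum_sigma]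
            refine Finset.sum_le_sum fun j hj => ?_
            rw [← Finset.univ_sigma_univ, Finset.sum_sigma]
            refine Finset.sum_le_sum fun k _ => ?_
            simp only
            rw [← Finset.mul_sum, ← Finset.mul_sum]
            have := mul_le_mul_of_nonneg_left (hσ j hj k) (mul_nonneg (hL i) (hC j))
            linarith)
        have hB' : ∀ k, ts ∉ Bad i k := fun k hk =>
          hB (Or.inl (Or.inr (mem_iUnion.2 ⟨k, hk⟩)))
        have hB0 : ts ∈ G0 i := by
          by_contra hn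
          exact hB (Or.inl (Or.inl ⟨hts, hn⟩))
        have hBR : ∀ j, rk j < rk i → ¬ R j i (D j).ts ts := fun j hj h =>
          hB (Or.inr (mem_iUnion₂.2 ⟨j, hj, h⟩))
        choose n y ρ hρ hρs η1 hη1 hG1 using fun k => hBG i k ts hts (hB' k)
        -- the tolerance
        obtain ⟨η2, hη2, hη2'⟩ : ∃ η2 > 0, ∀ a ∈ s,
            η2 < |ts - u i ((D a.1).y a.2.1 a.2.2)| - L i * C a.1 * (D a.1).ρ a.2.1 a.2.2 := by
          rcases s.eq_empty_or_nonempty with hs | hs
          · exact ⟨1, one_pos, fun a ha => by rw [hs] at ha; exact absurd ha (Finset.notMem_empty _)⟩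
          · obtain ⟨a0, ha0, hmin⟩ := s.exists_min_image (fun a =>
              |ts - u i ((D a.1).y a.2.1 a.2.2)| - L i * C a.1 * (D a.1).ρ a.2.1 a.2.2) hs
            have h0 := hav a0 ha0
            refine ⟨(|ts - u i ((D a0.1).y a0.2.1 a0.2.2)| -
              L i * C a0.1 * (D a0.1).ρ a0.2.1 a0.2.2) / 2, by linarith, fun a ha => ?_⟩
            have := hmin a ha
            linarith
        obtain ⟨η3, hη3, hη3'⟩ : ∃ η3 > 0, ∀ k, η3 ≤ η1 k := by
          rcases isEmpty_or_nonempty (K i) with hK | hK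
          · exact ⟨1, one_pos, fun k => (hK.false k).elim⟩
          · obtain ⟨k0, hmin⟩ := Finite.exists_min η1
            exact ⟨η1 k0, hη1 k0, hmin⟩
        obtain ⟨η, hη, h1, h2, h3, h4⟩ : ∃ η > 0, η ≤ η2 ∧ η ≤ η3 ∧ η < ts - t0 i ∧
            η < tm i - ts := by
          refine ⟨min (min η2 η3) (min ((ts - t0 i) / 2) ((tm i - ts) / 2)), ?_, ?_, ?_, ?_, ?_⟩
          · have := hts.1
            have := hts.2
            refine lt_min (lt_min hη2 hη3) (lt_min ?_ ?_) <;> linarith
          · exact (min_le_left _ _).trans (min_le_left _ _)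
          · exact (min_le_left _ _).trans (min_le_right _ _)
          · refine lt_of_le_of_lt ((min_le_right _ _).trans (min_le_left _ _)) ?_
            have := hts.1
            linarith
          · refine lt_of_le_of_lt ((min_le_right _ _).trans (min_le_right _ _)) ?_
            have := hts.2
            linarith
        refine ⟨⟨ts, n, y, ρ, η⟩, ⟨hη, by simp only; linarith, by simp only; linarith⟩, hρ, hρs,
          fun k => hGm i k ts _ _ _ _ _ (h2.trans (hη3' k)) hη (hG1 k), ?_,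
          hB0, hBR⟩
        intro j hj z hz
        simp only [pat, mem_iUnion] at hz
        obtain ⟨k, m, hz⟩ := hz
        have e1 := hη2' ⟨j, k, m⟩ (by simp [s, hj])
        simp only at e1
        have e2 := hu i z ((D j).y k m)
        have e3 : L i * dist z ((D j).y k m) ≤ L i * (C j * (D j).ρ k m) :=
          mul_le_mul_of_nonneg_left (mem_closedBall.1 hz) (hL i)
        have e4 : |ts - u i ((D j).y k m)| ≤ |u i z - ts| + |u i z - u i ((D j).y k m)| := by
          have : ts - u i ((D j).y k m) = -(u i z - ts) + (u i z - u i ((D j).y k m)) := by ring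
          rw [this]
          refine (abs_add_le _ _).trans ?_
          rw [abs_neg]
        simp only
        have e5 : L i * C j * (D j).ρ k m = L i * (C j * (D j).ρ k m) := by ring
        linarith
      choose! D' hD' using step
      refine ⟨fun i => if rk i = N then D' i else D i, ?_⟩
      intro i hi
      have hnb' : ∀ j, rk j < rk i → (if rk j = N then D' j else D j) = D j := by
        intro j hj
        rw [if_neg (by omega)]
      have hQ : ∀ d : Dat Y (K i), Q i d D →
          Q i d (fun i => if rk i = N then D' i else D i) := by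
        rintro d ⟨a1, a2, a3, a4, a5, a6, a7⟩
        refine ⟨a1, a2, a3, a4, fun j hj z hz => a5 j hj z ?_, a6, fun j hj hR => a7 j hj ?_⟩
        · have hz' : z ∈ pat (C j) (if rk j = N then D' j else D j) := hz
          rwa [hnb' j (hnb i j hj)] at hz'
        · have hR' : R j i (if rk j = N then D' j else D j).ts d.ts := hR
          rwa [hnb' j hj] at hR'
      by_cases hiN : rk i = N
      · show Q i (if rk i = N then D' i else D i) _
        rw [if_pos hiN]
        exact hQ _ (hD' i hiN)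
      · show Q i (if rk i = N then D' i else D i) _
        rw [if_neg hiN]
        exact hQ _ (hD i (by omega))
  obtain ⟨N, hN⟩ : ∃ N, ∀ i, rk i < N := by
    refine ⟨Finset.univ.sup rk + 1, fun i => ?_⟩
    have := Finset.le_sup (f := rk) (Finset.mem_univ i)
    omega
  obtain ⟨D, hD⟩ := key N
  obtain ⟨η, hη, hη'⟩ : ∃ η > 0, ∀ i, η ≤ (D i).η := by
    rcases isEmpty_or_nonempty J with hJ | hJ
    · exact ⟨1, one_pos, fun k => (hJ.false k).elim⟩
    · obtain ⟨k0, hmin⟩ := Finite.exists_min fun i => (D i).η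
      exact ⟨(D k0).η, (hD k0 (hN k0)).1.1, hmin⟩
  refine ⟨D, η, hη, fun i => ?_, fun i => (hD i (hN i)).2.1, fun i => (hD i (hN i)).2.2.1,
    fun i k => hGm i k _ _ _ _ _ _ (hη' i) hη ((hD i (hN i)).2.2.2.1 k), fun i j hj z hz => ?_,
    fun i => (hD i (hN i)).2.2.2.2.2.1, fun i j hj => (hD i (hN i)).2.2.2.2.2.2 j hj⟩
  · obtain ⟨a1, a2, a3⟩ := (hD i (hN i)).1
    have := hη' i
    exact ⟨by linarith, by linarith⟩
  · exact lt_of_le_of_lt (hη' i) ((hD i (hN i)).2.2.2.2.1 j hj z hz)

end Main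

end Crest.Agent.R096.P2l_565
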