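import Crest.Agent.R096.Srg6_465

/-!
# R096 (row 96), 2SK-SURG, part 7: the surgery with the cut discs (helper465)

* `DiscIn F rim K Γ`: `K` is a disc in the relative interior of the face `F` with rim circle `Γ`.
* `CutData`: what is known about the cut parts of the faces.
* `surgeryC`: `surgery` with `CutData`.
-/

set_option autoImplicit false
set_option linter.unusedSectionVars false

open Set Metric Topology Filter

namespace Crest.Agent.R096.Srg_465

open Ce_537 Pl Cb_609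
open Sk2_855 (HP)

variable {E : Type*} [NormedAddCommGroup E] [NormedSpace ℝ E]

/-- `K` is a disc in the relative interior of `F` with rim `Γ` -/
def DiscIn (F rim K Γ : Set E) : Prop :=
  IsBall 2 K Γ ∧ K ⊆ F \ rim ∧ ∃ O, IsOpen O ∧ O ∩ F = K \ Γ

theorem Circ.exists_disc {F rim : Set E} {φ : E → ℝ} {t : ℝ} {Γ : Set E}
    (c : Circ F rim φ t Γ) : ∃ K, DiscIn F rim K Γ := c.2

/-- the cut parts of the faces -/
structure CutData (S : Set E) {κ : Type*} (F : κ → Set E) (u : E → ℝ)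
    (𝒜 : ℝ → Set E → Prop) (K Z : ℝ → Set E) (I I' : Set ℝ) (h : E → E) (ψ : E ≃ₜ E)
    (Cut : κ → Set E) : Prop where
  comp : ∀ k, IsCompact (Cut k)
  sub : ∀ k, Cut k ⊆ F k \ S
  near : ∀ k, ∀ x ∈ F k, x ∉ Cut k → ∀ᶠ y in 𝓝 x, ψ y = y
  mem : ∀ k, ∀ x ∈ Cut k, ∃ t ∈ I, ∃ D Γ, 𝒜 t D ∧ Side (K t) (Z t) D Γ ∧ h (ψ x) ∈ D
  emp : ∀ k, (∀ x ∈ F k, u (h x) ∉ I) → Cut k = ∅
  lev : ∀ k, ∀ x ∈ F k, u (h (ψ x)) ∈ I' → x ∉ Cut k
  comps : ∀ k, ∀ t ∈ I', ∀ x ∈ F k, u (h (ψ x)) = t →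
    connectedComponentIn (Ls (F k) (fun x => u (h (ψ x))) t) x =
      connectedComponentIn (Ls (F k) (fun x => u (h x)) t) x
  old : ∀ k, ∀ t ∈ I', ∀ Γ K', DiscIn (F k) (F k ∩ S) K' Γ →
    Circ (F k) (F k ∩ S) (fun x => u (h x)) t Γ →
    Circ (F k) (F k ∩ S) (fun x => u (h (ψ x))) t Γ ∨ K' ⊆ Cut k

section Main

variable {Om La S : Set E} {κ : Type*} {F : κ → Set E} {J : Finset κ} {u : E → ℝ}
  {𝒜 : ℝ → Set E → Prop} {I I₁ I₂ : Set ℝ} {h hi : E → E} {K Z : ℝ → Set E}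

theorem CutData.refl (S : Set E) (F : κ → Set E) (u : E → ℝ) (𝒜 : ℝ → Set E → Prop)
    (K Z : ℝ → Set E) (I : Set ℝ) (h : E → E) :
    CutData S F u 𝒜 K Z I I h (Homeomorph.refl E) (fun _ => ∅) where
  comp _ := isCompact_empty
  sub _ := empty_subset _
  near _ _ _ _ := Eventually.of_forall fun _ => rfl
  mem _ x hx := absurd hx (notMem_empty x)
  emp _ _ := rfl
  lev _ x _ _ := notMem_empty x
  comps _ _ _ _ _ _ := rfl
  old _ _ _ _ _ _ h := Or.inl h

theorem CutData.trans {ψ₁ ψ₂ : E ≃ₜ E} {C₁ C₂ : κ → Set E}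
    (c1 : CutData S F u 𝒜 K Z I I₁ h ψ₁ C₁)
    (c2 : CutData S F u 𝒜 K Z I₁ I₂ (fun x => h (ψ₁ x)) ψ₂ C₂) (h1 : I₁ ⊆ I) (h2 : I₂ ⊆ I₁) :
    CutData S F u 𝒜 K Z I I₂ h (ψ₂.trans ψ₁) (fun k => C₂ k ∪ C₁ k) where
  comp k := (c2.comp k).union (c1.comp k)
  sub k := union_subset (c2.sub k) (c1.sub k)
  near k x hx hn := by
    rw [mem_union, not_or] at hn
    filter_upwards [c1.near k x hx hn.2, c2.near k x hx hn.1] with y g1 g2
    show ψ₁ (ψ₂ y) = y
    rw [g2, g1]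
  mem k x hx := by
    by_cases hx2 : x ∈ C₂ k
    · obtain ⟨t, ht, D, Γ, g⟩ := c2.mem k x hx2
      exact ⟨t, h1 ht, D, Γ, g⟩
    · have hx1 : x ∈ C₁ k := hx.resolve_left hx2
      have e : ψ₂ x = x := (c2.near k x (c1.sub k hx1).1 hx2).self_of_nhds
      obtain ⟨t, ht, D, Γ, g1, g2, g3⟩ := c1.mem k x hx1
      refine ⟨t, ht, D, Γ, g1, g2, ?_⟩
      show h (ψ₁ (ψ₂ x)) ∈ D
      rw [e]; exact g3
  emp k hk := by
    have e1 := c1.emp k hk
    have e2 : C₂ k = ∅ := c2.emp k fun x hx hc => hk x hx (h1 (by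
      have e : ψ₁ x = x := (c1.near k x hx (by rw [e1]; exact notMem_empty x)).self_of_nhds
      change u (h (ψ₁ x)) ∈ I₁ at hc
      rwa [e] at hc))
    show C₂ k ∪ C₁ k = ∅
    rw [e1, e2, empty_union]
  lev k x hx hxI := by
    have g2 := c2.lev k x hx hxI
    have e : ψ₂ x = x := (c2.near k x hx g2).self_of_nhds
    have g1 : x ∉ C₁ k := c1.lev k x hx (h2 (by
      change u (h (ψ₁ (ψ₂ x))) ∈ I₂ at hxI
      rwa [e] at hxI))
    exact fun hc => hc.elim g2 g1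
  comps k t ht x hx hxt := by
    have g2 := c2.comps k t ht x hx hxt
    have hn := c2.lev k x hx (by
      show u (h (ψ₁ (ψ₂ x))) ∈ I₂
      have : u (h (ψ₁ (ψ₂ x))) = t := hxt
      rw [this]; exact ht)
    have e : ψ₂ x = x := (c2.near k x hx hn).self_of_nhds
    have g1 := c1.comps k t (h2 ht) x hx (by
      have : u (h (ψ₁ (ψ₂ x))) = t := hxt
      rwa [e] at this)
    exact g2.trans g1
  old k t ht Γ K' hK' hΓ := by
    rcases c1.old k t (h2 ht) Γ K' hK' hΓ with g | g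
    · rcases c2.old k t ht Γ K' hK' g with g' | g'
      · exact Or.inl g'
      · exact Or.inr (g'.trans subset_union_left)
    · exact Or.inr (g.trans subset_union_right)

/-- **one step**, with the cut disc -/
theorem St.stepC (M : Mesh Om S F)
    (hmono : ∀ k K Γ K' Γ', DiscIn (F k) (F k ∩ S) K Γ → DiscIn (F k) (F k ∩ S) K' Γ' →
      Γ' ⊆ K → K' ⊆ K)
    {a b : ℝ} (L : Lvls La u K Z (Ioo a b))
    (hA : ∀ t D D', 𝒜 t D → D' ⊆ D → 𝒜 t D') (s : St Om La S F J u 𝒜 (Ioo a b) h hi)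
    {t' : ℝ} (ht : t' ∈ Ioo a b) {k : κ} (hk : k ∈ J) {Γ D : Set E}
    (hΓ : Circ (F k) (F k ∩ S) (fun x => u (h x)) t' Γ) (hD : Side (K t') (Z t') D (h '' Γ))
    (hAD : 𝒜 t' D) :
    ∃ ψ : E ≃ₜ E, MvS Om S ψ ∧ ∃ Cut : κ → Set E,
      ∃ a' b', a ≤ a' ∧ a' < b' ∧ b' ≤ b ∧
        CutData S F u 𝒜 K Z (Ioo a b) (Ioo a' b') h ψ Cut ∧
        St Om La S F J u 𝒜 (Ioo a' b') (fun x => h (ψ x)) (fun y => ψ.symm (hi y)) ∧
        ∀ t ∈ Ioo a' b', (∑ k' ∈ J, {Γ | Circ (F k') (F k' ∩ S) (fun x => u (h (ψ x))) t Γ}.ncard) <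
          ∑ k' ∈ J, {Γ | Circ (F k') (F k' ∩ S) (fun x => u (h x)) t Γ}.ncard := by
  classical
  obtain ⟨k₁, hk₁, Γ₁, hΓ₁, D₁, hD₁, hAD₁, hsub, hmiss⟩ := s.exists_disc M L hA ht hk hΓ hD hAD
  have hΓL := hΓ₁.subset
  obtain ⟨-, Fc, hB, hFsub, O, hO, hOF⟩ := id hΓ₁
  have hΓO : Γ₁ ⊆ Om := fun x hx => M.sub k₁ (hΓL hx).1
  have hD₁La : D₁ ⊆ La := hD₁.sub.trans (L.sub t' ht)
  -- the disc in the source
  have hDball : IsBall 2 (hi '' D₁) Γ₁ := by
    have h1 := HP.ball_image (HP.inv s.hp) hD₁.isBall hD₁La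
    rw [HP.image_hi s.hp hΓO] at h1
    exact h1
  have hDO : hi '' D₁ ⊆ Om := by
    rintro _ ⟨y, hy, rfl⟩; exact s.hp.mti (hD₁La hy)
  have hDmiss : ∀ k', Disjoint (hi '' D₁ \ Γ₁) (F k') := by
    intro k'
    rw [disjoint_left]
    rintro _ ⟨⟨y, hy, rfl⟩, hn⟩ hF
    exact hn (hmiss k' _ hF (by rw [s.hp.ri y (hD₁La hy)]; exact hy))
  obtain ⟨ψ, hψ, hψothN, hψoutN, hψim⟩ := M.move k₁ Fc (hi '' D₁) Γ₁ O hB
    (fun x hx => ⟨(hFsub hx).1, fun hS => (hFsub hx).2 ⟨(hFsub hx).1, hS⟩⟩) hO hOF hDball hDO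
    hDmiss
  have hψoth : ∀ k', k' ≠ k₁ → ∀ x ∈ F k', ψ x = x := fun k' hne x hx =>
    (hψothN k' hne x hx).self_of_nhds
  have hψout : ∀ x ∈ F k₁ \ Fc, ψ x = x := fun x hx => (hψoutN x hx).self_of_nhds
  have hin : ∀ x ∈ Fc, h (ψ x) ∈ D₁ := by
    intro x hx
    have h1 : ψ x ∈ hi '' D₁ := by rw [← hψim]; exact ⟨x, hx, rfl⟩
    obtain ⟨y, hy, e⟩ := h1
    rw [← e, s.hp.ri y (hD₁La hy)]; exact hy
  have hint : ∀ x ∈ Fc, u (h (ψ x)) = t' := fun x hx =>
    (L.eq t' ht _ (hD₁La (hin x hx))).1 (hD₁.sub (hin x hx))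
  have hcasesN : ∀ k', ∀ x ∈ F k', (∀ᶠ y in 𝓝 x, ψ y = y) ∨ (k' = k₁ ∧ x ∈ Fc) := by
    intro k' x hx
    by_cases hkk : k' = k₁
    · subst hkk
      by_cases hxF : x ∈ Fc
      · exact Or.inr ⟨rfl, hxF⟩
      · exact Or.inl (hψoutN x ⟨hx, hxF⟩)
    · exact Or.inl (hψothN k' hkk x hx)
  have hcases : ∀ k', ∀ x ∈ F k', ψ x = x ∨ (k' = k₁ ∧ x ∈ Fc) := fun k' x hx =>
    (hcasesN k' x hx).imp (fun h => h.self_of_nhds) id
  have hm : MoveF (F k₁) (F k₁ ∩ S) (fun x => u (h x)) (fun x => u (h (ψ x))) Fc Γ₁ O t' :=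
    { ball := hB
      sub := hFsub
      op := hO
      opF := hOF
      lev := fun x hx => (hΓL hx).2
      out := fun x hx => by
        show u (h (ψ x)) = u (h x)
        rw [hψout x hx]
      ins := hint }
  have hp' := HP.compS s.hp hψ
  -- the half interval
  have hcore : ∀ a' b', a ≤ a' → b' ≤ b → t' ∉ Ioo a' b' →
      (∀ t ∈ Ioo a' b', ∃ x ∈ Fc, u (h x) = t) →
      (∀ k', ∀ x ∈ F k', u (h (ψ x)) ∈ Ioo a' b' → ∀ᶠ y in 𝓝 x, ψ y = y) ∧
        St Om La S F J u 𝒜 (Ioo a' b') (fun x => h (ψ x)) (fun y => ψ.symm (hi y)) ∧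
        ∀ t ∈ Ioo a' b',
          (∑ k' ∈ J, {Γ | Circ (F k') (F k' ∩ S) (fun x => u (h (ψ x))) t Γ}.ncard) <
          ∑ k' ∈ J, {Γ | Circ (F k') (F k' ∩ S) (fun x => u (h x)) t Γ}.ncard := by
    intro a' b' ha hb hn hatt
    have hI : Ioo a' b' ⊆ Ioo a b := Ioo_subset_Ioo ha hb
    have hne : ∀ t ∈ Ioo a' b', t ≠ t' := fun t ht e => hn (e ▸ ht)
    have hc' : ∀ k', ContinuousOn (fun x => u (h (ψ x))) (F k') := fun k' =>
      L.cont.comp (hp'.contOn.mono (M.sub k')) fun x hx => hp'.mt (M.sub k' hx)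
    have heq : ∀ k', k' ≠ k₁ → EqOn (fun x => u (h x)) (fun x => u (h (ψ x))) (F k') :=
      fun k' hkk x hx => by
        show u (h x) = u (h (ψ x))
        rw [hψoth k' hkk x hx]
    refine ⟨fun k' x hx hxI => ?_, ⟨hp', fun k' hk' => ?_, fun k' hk' x hx => ?_, ?_⟩, ?_⟩
    · rcases hcasesN k' x hx with h1 | ⟨rfl, h1⟩
      · exact h1
      · exfalso
        rw [hint x h1] at hxI
        exact hn hxI
    · have h1 := (s.lev k' hk').mono hI
      by_cases hkk : k' = k₁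
      · subst hkk
        exact h1.move hm hn (hc' k')
      · exact h1.congr (heq k' hkk)
    · have hkk : k' ≠ k₁ := fun e => hk' (e ▸ hk₁)
      show u (h (ψ x)) ∉ Ioo a' b'
      rw [hψoth k' hkk x hx]
      exact fun h1 => s.off k' hk' x hx (hI h1)
    · intro k' hk' t ht1 x hx hxt hne' D' hD'
      change u (h (ψ x)) = t at hxt
      rcases hcases k' x hx with h1 | ⟨rfl, h1⟩
      · rw [h1] at hxt ⊢
        refine s.rim k' hk' t (hI ht1) x hx hxt ?_ D' hD'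
        by_cases hkk : k' = k₁
        · subst hkk
          have hxF : x ∉ Fc := by
            intro hxF
            have h2 := hint x hxF
            rw [h1, hxt] at h2
            exact hne t ht1 h2
          have h3 := hm.comp_eq (hne t ht1) (show x ∈ Ls (F k') (fun x => u (h x)) t from
            ⟨hx, hxt⟩) hxF
          rw [h3] at hne'
          exact hne'
        · have h4 : Ls (F k') (fun x => u (h (ψ x))) t = Ls (F k') (fun x => u (h x)) t := by
            ext y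
            constructor
            · rintro ⟨h5, h6⟩; exact ⟨h5, (heq k' hkk h5).trans h6⟩
            · rintro ⟨h5, h6⟩; exact ⟨h5, (heq k' hkk h5).symm.trans h6⟩
          rw [h4] at hne'
          exact hne'
      · exfalso
        exact hne t ht1 (hxt.symm.trans (hint x h1))
    · intro t ht1
      apply Finset.sum_lt_sum
      · intro k' hk'
        by_cases hkk : k' = k₁
        · subst hkk
          exact hm.ncard_le (s.lev k' hk') (hI ht1) (hne t ht1)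
        · apply le_of_eq
          have h4 : ∀ Γ, Circ (F k') (F k' ∩ S) (fun x => u (h (ψ x))) t Γ ↔
              Circ (F k') (F k' ∩ S) (fun x => u (h x)) t Γ :=
            circ_congr (heq k' hkk) t
          simp only [h4]
      · exact ⟨k₁, hk₁, hm.ncard_lt (s.lev k₁ hk₁) (hI ht1) (hne t ht1) (hatt t ht1)⟩
  have hFcD : DiscIn (F k₁) (F k₁ ∩ S) Fc Γ₁ := ⟨hB, hFsub, O, hO, hOF⟩
  have heq : ∀ k', k' ≠ k₁ → EqOn (fun x => u (h x)) (fun x => u (h (ψ x))) (F k') :=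
    fun k' hkk x hx => by
      show u (h x) = u (h (ψ x))
      rw [hψoth k' hkk x hx]
  have hcut : ∀ a' b', a ≤ a' → b' ≤ b → t' ∉ Ioo a' b' →
      CutData S F u 𝒜 K Z (Ioo a b) (Ioo a' b') h ψ (fun k => if k = k₁ then Fc else ∅) := by
    intro a' b' ha hb hn
    have hne : ∀ t ∈ Ioo a' b', t ≠ t' := fun t ht e => hn (e ▸ ht)
    refine ⟨fun k' => ?_, fun k' => ?_, fun k' x hx hxn => ?_, fun k' x hx => ?_,
      fun k' hk' => ?_, fun k' x hx hxI => ?_, fun k' t ht1 x hx hxt => ?_,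
      fun k' t ht1 Γ' K' hK' hΓ' => ?_⟩
    · by_cases hkk : k' = k₁
      · simp only [hkk, if_true]; exact hB.isCompact
      · simp only [hkk, if_false]; exact isCompact_empty
    · by_cases hkk : k' = k₁
      · simp only [hkk, if_true]
        exact fun x hx => ⟨(hFsub hx).1, fun hS => (hFsub hx).2 ⟨(hFsub hx).1, hS⟩⟩
      · simp only [hkk, if_false]; exact empty_subset _
    · by_cases hkk : k' = k₁
      · subst hkk
        simp only [if_true] at hxn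
        exact hψoutN x ⟨hx, hxn⟩
      · exact hψothN k' hkk x hx
    · by_cases hkk : k' = k₁
      · simp only [hkk, if_true] at hx
        exact ⟨t', ht, D₁, _, hAD₁, hD₁, hin x hx⟩
      · simp only [hkk, if_false] at hx
        exact absurd hx (notMem_empty x)
    · have hkk : k' ≠ k₁ := by
        rintro rfl
        obtain ⟨z, hz⟩ := nonempty_of_disc hB
        have hzt : u (h z) = t' := (hΓL hz).2
        exact hk' z (hΓL hz).1 (by rw [hzt]; exact ht)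
      simp only [hkk, if_false]
    · by_cases hkk : k' = k₁
      · simp only [hkk, if_true]
        intro hxF
        rw [hint x hxF] at hxI
        exact hn hxI
      · simp only [hkk, if_false]
        exact notMem_empty x
    · by_cases hkk : k' = k₁
      · subst hkk
        have hxF : x ∉ Fc := by
          intro hxF
          exact hne t ht1 (hxt.symm.trans (hint x hxF))
        have e : ψ x = x := hψout x ⟨hx, hxF⟩
        have hx0 : u (h x) = t := by rwa [e] at hxt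
        exact hm.comp_eq (hne t ht1) (show x ∈ Ls (F k') (fun x => u (h x)) t from ⟨hx, hx0⟩) hxF
      · have h4 : Ls (F k') (fun x => u (h (ψ x))) t = Ls (F k') (fun x => u (h x)) t := by
          ext y
          constructor
          · rintro ⟨h5, h6⟩; exact ⟨h5, (heq k' hkk h5).trans h6⟩
          · rintro ⟨h5, h6⟩; exact ⟨h5, (heq k' hkk h5).symm.trans h6⟩
        rw [h4]
    · by_cases hkk : k' = k₁
      · subst hkk
        simp only [if_true]
        obtain ⟨⟨x, hx, hxt, rfl⟩, -⟩ := id hΓ'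
        have hxL : x ∈ Ls (F k') (fun x => u (h x)) t := ⟨hx, hxt⟩
        have hsubL := connectedComponentIn_subset (Ls (F k') (fun x => u (h x)) t) x
        rcases comp_cases (F := F k') hB.isClosed hO hOF
          (isPreconnected_connectedComponentIn (F := Ls (F k') (fun x => u (h x)) t) (x := x))
          (hsubL.trans fun y hy => hy.1) ((hm.disj (hne t ht1)).mono_left hsubL) with h1 | h1
        · exact Or.inr (hmono k' Fc Γ₁ K' _ hFcD hK' (h1.trans sdiff_subset))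
        · left
          have hxF : x ∉ Fc := disjoint_left.1 h1 (mem_connectedComponentIn hxL)
          have g := hm.circ_of (hne t ht1) hxL hxF hΓ'
          rw [hm.comp_eq (hne t ht1) hxL hxF] at g
          exact g
      · exact Or.inl ((circ_congr (heq k' hkk) t Γ').2 hΓ')
  rcases (s.lev k₁ hk₁).half ht hB hFsub hO hOF (fun x hx => (hΓL hx).2) with h1 | h1
  · exact ⟨ψ, hψ, _, a, t', le_rfl, ht.1, ht.2.le,
      hcut a t' le_rfl ht.2.le (fun h => lt_irrefl _ h.2),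
      (hcore a t' le_rfl ht.2.le (fun h => lt_irrefl _ h.2) h1).2⟩
  · exact ⟨ψ, hψ, _, t', b, ht.1.le, ht.2, le_rfl,
      hcut t' b ht.1.le le_rfl (fun h => lt_irrefl _ h.1),
      (hcore t' b ht.1.le le_rfl (fun h => lt_irrefl _ h.1) h1).2⟩

/-- **the surgery**, with the cut discs -/
theorem surgeryC (M : Mesh Om S F)
    (hmono : ∀ k K Γ K' Γ', DiscIn (F k) (F k ∩ S) K Γ → DiscIn (F k) (F k ∩ S) K' Γ' →
      Γ' ⊆ K → K' ⊆ K)
    (hA : ∀ t D D', 𝒜 t D → D' ⊆ D → 𝒜 t D') :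
    ∀ (n : ℕ) (a b : ℝ), a < b → Lvls La u K Z (Ioo a b) →
    ∀ h hi : E → E, St Om La S F J u 𝒜 (Ioo a b) h hi →
    (∀ t ∈ Ioo a b, (∑ k ∈ J, {Γ | Circ (F k) (F k ∩ S) (fun x => u (h x)) t Γ}.ncard) ≤ n) →
    ∃ ψ : E ≃ₜ E, MvS Om S ψ ∧ ∃ Cut : κ → Set E,
      ∃ a' b', a ≤ a' ∧ a' < b' ∧ b' ≤ b ∧
        CutData S F u 𝒜 K Z (Ioo a b) (Ioo a' b') h ψ Cut ∧
        St Om La S F J u 𝒜 (Ioo a' b') (fun x => h (ψ x)) (fun y => ψ.symm (hi y)) ∧
        ∀ t ∈ Ioo a' b', ∀ k ∈ J, ∀ Γ, Circ (F k) (F k ∩ S) (fun x => u (h (ψ x))) t Γ →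
          ∀ D, Side (K t) (Z t) D ((fun x => h (ψ x)) '' Γ) → ¬ 𝒜 t D := by
  intro n
  induction n with
  | zero =>
    intro a b hab L h hi s hn
    refine ⟨Homeomorph.refl E, MvS.refl, _, a, b, le_rfl, hab, le_rfl,
      CutData.refl S F u 𝒜 K Z (Ioo a b) h, s, ?_⟩
    intro t ht k hk Γ hΓ D hD hAD
    have h1 := hn t ht
    have h2 : {Γ | Circ (F k) (F k ∩ S) (fun x => u (h x)) t Γ}.ncard = 0 := by
      have := Finset.single_le_sum (f := fun k => {Γ | Circ (F k) (F k ∩ S)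
        (fun x => u (h x)) t Γ}.ncard) (fun _ _ => Nat.zero_le _) hk
      omega
    rw [Set.ncard_eq_zero ((s.lev k hk).fin t ht)] at h2
    exact (eq_empty_iff_forall_notMem.1 h2) Γ hΓ
  | succ n ih =>
    intro a b hab L h hi s hn
    by_cases hgood : ∀ t ∈ Ioo a b, ∀ k ∈ J, ∀ Γ, Circ (F k) (F k ∩ S) (fun x => u (h x)) t Γ →
          ∀ D, Side (K t) (Z t) D (h '' Γ) → ¬ 𝒜 t D
    · exact ⟨Homeomorph.refl E, MvS.refl, _, a, b, le_rfl, hab, le_rfl,
        CutData.refl S F u 𝒜 K Z (Ioo a b) h, s, hgood⟩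
    · push Not at hgood
      obtain ⟨t, ht, k, hk, Γ, hΓ, D, hD, hAD⟩ := hgood
      obtain ⟨ψ₁, m1, C₁, a', b', ha', hab', hb', c1, s1, n1⟩ :=
        s.stepC M hmono L hA ht hk hΓ hD hAD
      have hI : Ioo a' b' ⊆ Ioo a b := Ioo_subset_Ioo ha' hb'
      obtain ⟨ψ₂, m2, C₂, a'', b'', ha'', hab'', hb'', c2, s2, g2⟩ :=
        ih a' b' hab' (L.mono hI) _ _ s1 (fun t ht => by
          have h1 := n1 t ht
          have h2 := hn t (hI ht)
          omega)
      exact ⟨ψ₂.trans ψ₁, m2.trans m1, _, a'', b'', ha'.trans ha'', hab'', hb''.trans hb',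
        c1.trans c2 hI (Ioo_subset_Ioo ha'' hb''), s2, g2⟩

end Main

end Crest.Agent.R096.Srg_465
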