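import Crest.Agent.R096.Ub1_113
import Crest.Agent.R096.Srg7_465

/-!
# Row 96, p = 2: boxes with patches, the step as a literal Prop (helper465, for 753 #10029 L2/L5/L6)

* `PBox T La`: a `UBox` with finitely many patches `c m ⊆ c' m` and an upper level `t1 ≥ b`.
* `Own x`: a 2-cell in the list `N` without crossing edge with its rim inside.
* `Sig h θ`: every circle at a level in `(a,b)` of an own face whose disc reaches the level `θ` has
  its `h`-image in one `c m`.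
* `Step2 T La`: the surgery for one box.
-/

set_option autoImplicit false
set_option linter.unusedSectionVars false

open Set Metric Filter Topology

namespace Crest.Agent.R096.Pst_465

open Msh_715 (Tiling)
open Ce_537 Srg_465 Sk2_855 Ub_113

variable {E : Type*} [NormedAddCommGroup E] [NormedSpace ℝ E] {Om La : Set E} {ι : Type*}

/-- a box with patches -/
structure PBox (T : Tiling Om ι) (La : Set E) extends UBox T La where
  n : ℕ
  c : Fin n → Set E
  c' : Fin n → Set E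
  cl : ∀ m, IsClosed (c' m)
  t1 : ℝ
  bt : b ≤ t1
  sep : ∀ t ∈ Ioo a b, ∀ m, ∃ S, IsPreconnected S ∧ S ⊆ {y | u y = t} \ c m ∧
    {y | u y = t} \ c' m ⊆ S
  far : ∀ t ∈ Ioo a b, ∀ m, ∃ k, ∃ y ∈ M k, u y = t ∧ y ∉ c' m
  N : Set E

namespace PBox

variable {T : Tiling Om ι} (B : PBox T La)

/-- the patch part of the shell -/
def pat : Set E := B.shell ∩ ⋃ m, B.c' m

/-- the own faces -/
def Own (h : E → E) (x : E) : Prop :=
  x ∈ B.N ∧ x ∈ Om ∧ T.dim x = 2 ∧ B.NC x ∧ ∀ z ∈ T.cc x, z ∈ sk1 T → B.u (h z) < B.a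

/-- the significant circles are in the patches -/
def Sig (h : E → E) (θ : ℝ) : Prop :=
  ∀ x, B.Own h x → ∀ t ∈ Ioo B.a B.b, ∀ Γ K : Set E,
    Circ (T.cc x) (T.cc x ∩ sk1 T) (fun z => B.u (h z)) t Γ →
    DiscIn (T.cc x) (T.cc x ∩ sk1 T) K Γ → (∃ z ∈ K, θ ≤ B.u (h z)) →
    ∃ m, h '' Γ ⊆ B.c m

end PBox

/-- **the step for p = 2** (one box) -/
def Step2 (T : Tiling Om ι) (La : Set E) : Prop :=
  ∀ (B : PBox T La) (h hi : E → E), HP Om La h hi → B.Ok h → B.Sig h B.t1 →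
    ∃ ψ : E ≃ₜ E, Mv T ψ ∧
      (∀ x ∈ Om, T.dim x = 2 → ∀ z ∈ T.cc x, (∀ᶠ y in 𝓝 z, ψ y = y) ∨ h (ψ z) ∈ B.pat) ∧
      (∀ x ∈ Om, T.dim x = 2 → Disjoint (h '' T.cc x) B.shell →
        ∀ z ∈ T.cc x, ∀ᶠ y in 𝓝 z, ψ y = y) ∧
      (∀ x, B.Own h x → ∀ z ∈ T.cc x, B.u (h (ψ z)) < B.t1)

end Crest.Agent.R096.Pst_465
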