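import Crest.Agent.R096.P2l2_565
import Crest.Agent.R096.P2l3_565
import Crest.Agent.R096.Pst0_465

/-!
# Row 96 (S0127), p = 2: leaf [L7] P2-LEVELS (helper565), part 4: one tile

`One2 T La f F Y`: what is needed from one tile `F` with its convex body `Y` (p = 2).
`exists_pbox`: the box with patches of one tile at a chosen level.
-/

set_option autoImplicit false
set_option linter.unusedSectionVars false

open Set Metric MeasureTheory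

namespace Crest.Agent.R096.P2l_565

open Msh_715 (Tiling)
open Ce_537 (IsBall)
open Sk2_855 (sk1 HP Mv)
open Srg_465 (Circ DiscIn Ls)
open Ub_113 (UBox)
open Pst_465 (PBox)

variable {E : Type*} [NormedAddCommGroup E] [NormedSpace ℝ E] {Om La : Set E} {ι : Type*}

/-- **one tile, p = 2** -/
structure One2 (T : Tiling Om ι) (La : Set E) (f : E → E) (F Y : Set E) where
  /-- the gauge -/
  u : E → ℝ
  cont : Continuous u
  L : ℝ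
  L0 : 0 ≤ L
  lip : ∀ y z, |u y - u z| ≤ L * dist y z
  /-- window `(t0, tm)`, threshold `th`, upper level `t1` -/
  t0 : ℝ
  tm : ℝ
  th : ℝ
  t1 : ℝ
  mh : tm ≤ th
  ht : th ≤ t1
  sub1 : {y | u y ≤ t1} ⊆ Y
  /-- good levels -/
  G : Set ℝ
  θ0 : ℝ
  θ00 : 0 ≤ θ0
  bad0 : volume (Ioo t0 tm \ G) ≤ ENNReal.ofReal θ0
  fin : ∀ s ∈ G, {x | x ∈ sk1 T ∧ u (f x) = s}.Finite
  box : ∀ s ∈ G, s ∈ Ioo t0 tm → ∀ ζ > 0, ∃ (B : UBox T La) (η : ℝ), 0 < η ∧ B.u = u ∧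
    s - ζ ≤ B.a ∧ B.a < s ∧ s < B.b ∧ B.b ≤ s + ζ ∧
    (∀ k, ∃ x ∈ sk1 T, u (f x) = s ∧ B.M k ⊆ closedBall (f x) ζ) ∧
    ∀ h : E → E, (∀ x ∈ Om, ‖h x - f x‖ ≤ η) → B.Ok h ∧
      ∀ x ∈ Om, T.dim x = 2 → T.cc x ⊆ F → B.NC x ∧ ∀ z ∈ T.cc x, z ∈ sk1 T → u (h z) < B.a
  /-- small patches do not separate the levels (168 `patch_level`) -/
  C : ℝ
  C0 : 0 < C
  patch : ∀ t ∈ Ioo t0 tm, ∀ (y : E) (ρ : ℝ), 0 < ρ → ∃ S, IsPreconnected S ∧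
    S ⊆ {z | u z = t} \ closedBall y ρ ∧ {z | u z = t} \ closedBall y (C * ρ) ⊆ S
  /-- the 2-cells of the tile, with 753's `small_circles_pre` -/
  Fs : Finset E
  rep : ∀ x ∈ Om, T.dim x = 2 → T.cc x ⊆ F → ∃ y ∈ Fs, T.cc y = T.cc x
  θf : ℝ
  σf : ℝ
  θf0 : 0 ≤ θf
  σf0 : 0 ≤ σf
  sc : ∀ x ∈ Fs, ∃ Bad : Set ℝ, MeasurableSet Bad ∧ volume Bad ≤ ENNReal.ofReal θf ∧
    ∀ ts ∈ Ioo t0 tm, ts ∉ Bad → ∃ (n : ℕ) (y : Fin n → E) (ρ : Fin n → ℝ),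
      (∀ m, 0 < ρ m) ∧ ∑ m, ρ m ≤ σf ∧ ∃ η > 0, Cov (T.cc x) f u th ts n y ρ η
  /-- two marks far from each other -/
  D0 : ℝ
  spread : ∀ s ∈ G, s ∈ Ioo t0 tm → ∃ x1 ∈ sk1 T, ∃ x2 ∈ sk1 T, u (f x1) = s ∧ u (f x2) = s ∧
    D0 ≤ dist (f x1) (f x2)
  hD0 : 2 * (C * (Fs.card * σf)) < D0

variable [FiniteDimensional ℝ E]

/-- a point of a 2-cell off the 1-skeleton is between two points of the 1-skeleton -/
theorem exists_rim {T : Tiling Om ι} {x z : E} (hx : x ∈ Om) (hd : T.dim x = 2)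
    (hz : z ∈ T.cc x) (hz1 : z ∉ sk1 T) :
    ∃ p ∈ T.cc x, ∃ q ∈ T.cc x, p ∈ sk1 T ∧ q ∈ sk1 T ∧ z ∈ segment ℝ p q := by
  have hzO : z ∈ Om := T.cc_sub_Om hx hz
  have hzd : T.dim z = 2 := by
    have h1 := T.dim_le hz
    have h2 : ¬ T.dim z ≤ 1 := fun h => hz1 ⟨hzO, h⟩
    omega
  have hzo : z ∈ T.oc x := by
    by_contra hn
    have := T.dim_lt hz hn
    omega
  have hcc : T.cc z = T.cc x := T.cc_eq_of_mem_oc hx hzo
  have hne : T.V z ≠ ⊥ := fun h => by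
    have := T.dim_eq_zero_iff.2 h
    omega
  obtain ⟨v, hv, hv0⟩ := (T.V z).ne_bot_iff.1 hne
  obtain ⟨t, ht, h1, h2, -⟩ := T.exists_exit hzO hv hv0
  obtain ⟨t', ht', h1', h2', -⟩ := T.exists_exit hzO (neg_mem hv) (neg_ne_zero.2 hv0)
  have hsk : ∀ w, w ∈ T.cc z → w ∉ T.oc z → w ∈ sk1 T := by
    intro w hw hwo
    refine ⟨T.cc_sub_Om hzO hw, ?_⟩
    have := T.dim_lt hw hwo
    omega
  refine ⟨_, hcc ▸ h1, _, hcc ▸ h1', hsk _ h1 h2, hsk _ h1' h2', ?_⟩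
  rw [segment_eq_image]
  have h0 : 0 < t + t' := add_pos ht ht'
  refine ⟨t / (t + t'), ⟨by positivity, (div_le_one h0).2 (by linarith)⟩, ?_⟩
  have e : (1 - t / (t + t')) * t - (t / (t + t')) * t' = 0 := by
    field_simp
    ring
  calc (1 - t / (t + t')) • (z + t • v) + (t / (t + t')) • (z + t' • -v)
      = z + ((1 - t / (t + t')) * t - (t / (t + t')) * t') • v := by module
    _ = z := by rw [e, zero_smul, add_zero]

/-- `Sig` of one face from `Cov` -/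
theorem sig_of_cov {T : Tiling Om ι} {f h : E → E} {u : E → ℝ} {θ ts η : ℝ} {n : ℕ}
    {y : Fin n → E} {ρ : Fin n → ℝ} {x : E} (hx : x ∈ Om) (hd : T.dim x = 2)
    (hcov : Cov (T.cc x) f u θ ts n y ρ η) (hh : ∀ z ∈ Om, ‖h z - f z‖ ≤ η) {t : ℝ}
    (ht : |t - ts| ≤ η) {Γ K : Set E}
    (hΓ : Circ (T.cc x) (T.cc x ∩ sk1 T) (fun z => u (h z)) t Γ)
    (hK : DiscIn (T.cc x) (T.cc x ∩ sk1 T) K Γ) (hz : ∃ z ∈ K, θ ≤ u (h z)) :
    ∃ m, h '' Γ ⊆ closedBall (y m) (ρ m) := by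
  obtain ⟨⟨x0, hx0, hx0t, rfl⟩, -⟩ := hΓ
  obtain ⟨hB, hKF, O, hO, hOF⟩ := hK
  obtain ⟨z, hzK, hzθ⟩ := hz
  have hsub : connectedComponentIn (Ls (T.cc x) (fun z => u (h z)) t) x0 ⊆
      Ls (T.cc x) (fun z => u (h z)) t := connectedComponentIn_subset _ _
  have hzF : z ∈ T.cc x := (hKF hzK).1
  have hz1 : z ∉ sk1 T := fun hc => (hKF hzK).2 ⟨hzF, hc⟩
  obtain ⟨p, hp, q, hq, hp1, hq1, hseg⟩ := exists_rim hx hd hzF hz1
  refine hcov t ht h (fun w hw => ?_) K _ (hsub.trans fun w hw => hw.1)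
    isPreconnected_connectedComponentIn (fun w hw => (hsub hw).2)
    ⟨z, ⟨hzK, hzF⟩, hzθ, p, hp, q, hq, fun hc => (hKF hc).2 ⟨hp, hp1⟩,
      fun hc => (hKF hc).2 ⟨hq, hq1⟩, hseg⟩ ?_
  · rw [dist_eq_norm]
    exact hh w (T.cc_sub_Om hx hw)
  · intro S hSF hS hSK hSK'
    by_contra hne
    rw [Set.not_nonempty_iff_eq_empty, ← Set.disjoint_iff_inter_eq_empty] at hne
    have hcl : IsClosed K := hB.isCompact.isClosed
    rcases Srg_465.comp_cases hcl hO hOF hS hSF hne with h1 | h1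
    · exact hSK' fun w hw => (h1 hw).1
    · obtain ⟨w, hwS, hwK⟩ := hSK
      exact (Set.disjoint_left.1 h1) hwS hwK

end Crest.Agent.R096.P2l_565
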