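/-
helper793, row 96, p = 2, leaf P2-SELECT, part 5: closed 2-cells of a tiling as faces
`pt e x '' P`; the field `sc` of 565's `One2` from `FaceG`.
-/
import Mathlib
import Crest.Agent.R096.Fsl4_793
import Crest.Agent.R096.P2l4_565

set_option autoImplicit false
set_option linter.unusedSectionVars false
set_option maxHeartbeats 400000

open MeasureTheory Set Filter
open scoped ENNReal Topology

namespace Crest.Agent.R096.Fsl_793

open Crest.Agent.R96.Acl_392 Crest.Agent.R96.Sob4_199 Crest.Agent.R096.Sc_968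
open Crest.Agent.R096.Fce_793
open Crest.Agent.R096.Msh_715 (Tiling)
open Crest.Agent.R096.Sk2_855 (sk1)
open Crest.Agent.R096.P2l_565 (Cov)

noncomputable section

section General

variable {E : Type*} [NormedAddCommGroup E] [NormedSpace ℝ E] [FiniteDimensional ℝ E]
  [MeasurableSpace E] [BorelSpace E] {Om : Set E} {ι : Type*}

theorem pt_sub_mem (e : Fin 2 → E) (x : E) (w w' : ℝ × ℝ) :
    pt e x w - pt e x w' ∈ Submodule.span ℝ (range e) := by
  have h1 : pt e x w - pt e x w' = (w.1 - w'.1) • e 0 + (w.2 - w'.2) • e 1 := by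
    simp only [pt, sub_smul]; abel
  rw [h1]
  exact Submodule.add_mem _ (Submodule.smul_mem _ _ (Submodule.subset_span ⟨0, rfl⟩))
    (Submodule.smul_mem _ _ (Submodule.subset_span ⟨1, rfl⟩))

/-- the plane of a 2-cell -/
theorem V_eq_span {T : Tiling Om ι} {y : E} (hy : y ∈ Om) (hd : T.dim y = 2) {e : Fin 2 → E}
    {x : E} {P : Set (ℝ × ℝ)} (hli : LinearIndependent ℝ e) (h : T.cc y = pt e x '' P) :
    T.V y = Submodule.span ℝ (range e) := by
  have h1 : T.V y ≤ Submodule.span ℝ (range e) := by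
    obtain ⟨r, hr, hball⟩ := T.exists_ball_oc hy
    intro v hv
    by_cases hv0 : v = 0
    · rw [hv0]; exact Submodule.zero_mem _
    have hvn : 0 < ‖v‖ := norm_pos_iff.2 hv0
    set c : ℝ := r / (2 * ‖v‖) with hc
    have hc0 : 0 < c := by positivity
    have h2 : y + c • v ∈ T.cc y := by
      apply T.oc_sub_cc
      apply hball _ (Submodule.smul_mem _ _ hv)
      rw [norm_smul, Real.norm_of_nonneg hc0.le, hc]
      have : r / (2 * ‖v‖) * ‖v‖ = r / 2 := by field_simp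
      rw [this]
      linarith
    have h3 : y ∈ T.cc y := T.self_mem_cc y
    rw [h] at h2 h3
    obtain ⟨w, -, hw⟩ := h2
    obtain ⟨w', -, hw'⟩ := h3
    have h4 := pt_sub_mem e x w w'
    rw [hw, hw', add_sub_cancel_left] at h4
    exact (Submodule.smul_mem_iff _ hc0.ne').1 h4
  apply Submodule.eq_of_le_of_finrank_le h1
  rw [finrank_span_eq_card hli, Fintype.card_fin]
  exact hd.ge

/-- the relative boundary of a 2-cell lies in the 1-skeleton -/
theorem face_rim {T : Tiling Om ι} {y : E} (hy : y ∈ Om) (hd : T.dim y = 2) {e : Fin 2 → E}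
    {x : E} {P : Set (ℝ × ℝ)} (hli : LinearIndependent ℝ e) (h : T.cc y = pt e x '' P)
    {w : ℝ × ℝ} (hw : w ∈ P) (hwi : w ∉ interior P) : pt e x w ∈ sk1 T := by
  have hz : pt e x w ∈ T.cc y := by rw [h]; exact ⟨w, hw, rfl⟩
  have hzO : pt e x w ∈ Om := T.cc_sub_Om hy hz
  refine ⟨hzO, ?_⟩
  by_contra hdim
  have hzo : pt e x w ∈ T.oc y := by
    by_contra hn
    have := T.dim_lt hz hn
    omega
  apply hwi
  have hV : T.V (pt e x w) = Submodule.span ℝ (range e) := by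
    rw [T.V_eq_of_mem_oc hy hzo, V_eq_span hy hd hli h]
  obtain ⟨r, hr, hball⟩ := T.exists_ball_oc hzO
  have hcont := continuous_pt e x
  have h1 : ∀ᶠ w' in 𝓝 w, ‖pt e x w' - pt e x w‖ < r := by
    have h2 : ContinuousAt (fun w' => ‖pt e x w' - pt e x w‖) w :=
      ((hcont.sub continuous_const).norm).continuousAt
    have h3 : ‖pt e x w - pt e x w‖ < r := by simpa using hr
    exact h2.eventually_lt_const h3
  rw [mem_interior_iff_mem_nhds]
  filter_upwards [h1] with w' hw'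
  have h4 : pt e x w + (pt e x w' - pt e x w) ∈ T.oc (pt e x w) := by
    apply hball _ _ hw'
    rw [hV]
    exact pt_sub_mem e x w' w
  rw [add_sub_cancel, T.oc_eq_of_mem hy hzo] at h4
  have h5 := T.oc_sub_cc _ h4
  rw [h] at h5
  obtain ⟨w'', hw'', he⟩ := h5
  have := (isClosedEmbedding_pt hli x).injective he
  rwa [← this]

end General

section R3

open Crest.AnalysisR.VecCalc3

variable {Om : Set R3} {ι : Type*}

/-- **every 2-cell of diameter `≤ t` is a face**: `T.cc y = pt e x '' P`, `P` compact convex in the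
unit square, `‖e i‖ ≤ 2 t` -/
theorem exists_face {T : Tiling Om ι} {y : R3} (hy : y ∈ Om) (hd : T.dim y = 2) {t : ℝ}
    (ht : 0 < t) (hdiam : ∀ z ∈ T.cc y, ‖z - y‖ ≤ t) :
    ∃ (e : Fin 2 → R3) (x : R3) (P : Set (ℝ × ℝ)), LinearIndependent ℝ e ∧
      (∀ i, ‖e i‖ = 2 * t) ∧ IsCompact P ∧ Convex ℝ P ∧ P ⊆ Icc (0:ℝ) 1 ×ˢ Icc (0:ℝ) 1 ∧
      ‖x - y‖ ≤ 2 * t ∧ T.cc y = pt e x '' P := by
  have hfr : Module.finrank ℝ (T.V y) = 2 := hd
  let bb : OrthonormalBasis (Fin 2) ℝ (T.V y) := (stdOrthonormalBasis ℝ (T.V y)).reindex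
    (finCongr hfr)
  set v : Fin 2 → R3 := fun i => (bb i : R3) with hv
  have hon : Orthonormal ℝ v := bb.orthonormal.comp_linearIsometry (T.V y).subtypeₗᵢ
  set e : Fin 2 → R3 := fun i => (2 * t) • v i with he
  have hvn : ∀ i, ‖v i‖ = 1 := hon.1
  have hen : ∀ i, ‖e i‖ = 2 * t := fun i => by
    rw [he]
    simp only
    rw [norm_smul, hvn, mul_one, Real.norm_of_nonneg (by positivity)]
  have hli : LinearIndependent ℝ e := by
    have h1 := hon.linearIndependent
    have h2 : e = fun i => (Units.mk0 (2 * t) (by positivity) : ℝˣ) • v i := by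
      funext i
      rfl
    rw [h2]
    exact h1.units_smul fun _ => Units.mk0 (2 * t) (by positivity)
  set x : R3 := y - (1 / 2 : ℝ) • e 0 - (1 / 2 : ℝ) • e 1 with hx
  set P : Set (ℝ × ℝ) := pt e x ⁻¹' T.cc y with hP
  have hsurj : ∀ z ∈ T.cc y, ∃ w ∈ Icc (0:ℝ) 1 ×ˢ Icc (0:ℝ) 1, pt e x w = z := by
    intro z hz
    have hzV : z - y ∈ T.V y := T.sub_mem_V hz
    set q : T.V y := ⟨z - y, hzV⟩ with hq
    set c : Fin 2 → ℝ := fun i => inner ℝ (bb i) q with hc
    have hsum : z - y = c 0 • v 0 + c 1 • v 1 := by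
      have h1 := bb.sum_repr' q
      rw [Fin.sum_univ_two] at h1
      have h2 := congrArg (fun p : T.V y => (p : R3)) h1
      simp only [Submodule.coe_add, Submodule.coe_smul] at h2
      exact h2.symm
    have hcb : ∀ i, |c i| ≤ t := by
      intro i
      have h1 : |c i| ≤ ‖bb i‖ * ‖q‖ := abs_real_inner_le_norm _ _
      have h2 : ‖bb i‖ = 1 := bb.orthonormal.1 i
      have h3 : ‖q‖ = ‖z - y‖ := rfl
      rw [h2, one_mul, h3] at h1
      exact h1.trans (hdiam z hz)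
    refine ⟨(1 / 2 + c 0 / (2 * t), 1 / 2 + c 1 / (2 * t)), ?_, ?_⟩
    · have key : ∀ i, 0 ≤ 1 / 2 + c i / (2 * t) ∧ 1 / 2 + c i / (2 * t) ≤ 1 := by
        intro i
        have h1 := abs_le.1 (hcb i)
        have h2 : c i / (2 * t) ≤ 1 / 2 := by
          rw [div_le_iff₀ (by positivity)]; linarith [h1.2]
        have h3 : -(1 / 2) ≤ c i / (2 * t) := by
          rw [le_div_iff₀ (by positivity)]; linarith [h1.1]
        constructor <;> linarith
      exact ⟨key 0, key 1⟩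
    · have h1 : ∀ i, (c i / (2 * t)) • e i = c i • v i := by
        intro i
        rw [he]
        simp only
        rw [smul_smul]
        congr 1
        field_simp
      rw [pt]
      simp only
      rw [add_smul, add_smul, h1, h1, hx]
      have h2 : z = y + (c 0 • v 0 + c 1 • v 1) := by rw [← hsum]; abel
      rw [h2]
      abel
  have hemb := isClosedEmbedding_pt hli x
  have hPsq : P ⊆ Icc (0:ℝ) 1 ×ˢ Icc (0:ℝ) 1 := by
    intro w hw
    obtain ⟨w', hw', he'⟩ := hsurj _ hw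
    rwa [← hemb.injective he']
  refine ⟨e, x, P, hli, hen, ?_, ?_, hPsq, ?_, ?_⟩
  · exact hemb.isCompact_preimage (T.isCompact_cc hy)
  · intro w hw w' hw' a b ha hb hab
    show pt e x (a • w + b • w') ∈ T.cc y
    have h1 : pt e x (a • w + b • w') = a • pt e x w + b • pt e x w' := by
      have h2 : x = a • x + b • x := by rw [← add_smul, hab, one_smul]
      simp only [pt, Prod.fst_add, Prod.snd_add, Prod.smul_fst, Prod.smul_snd, smul_eq_mul,
        smul_add]
      rw [add_smul, add_smul, mul_smul, mul_smul, mul_smul, mul_smul]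
      nth_rw 1 [h2]
      abel
    rw [h1]
    exact T.convex_cc y hw hw' ha hb hab
  · have h1 : x - y = -((1 / 2 : ℝ) • e 0 + (1 / 2 : ℝ) • e 1) := by rw [hx]; abel
    have h2 : ∀ i, ‖(1 / 2 : ℝ) • e i‖ = t := fun i => by
      have h3 := norm_smul (1 / 2 : ℝ) (e i)
      rw [h3, hen i]
      norm_num
      ring
    rw [h1, norm_neg]
    refine (norm_add_le _ _).trans ?_
    rw [h2, h2]
    linarith
  · apply Subset.antisymm
    · intro z hz
      obtain ⟨w, hw, rfl⟩ := hsurj z hz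
      exact ⟨w, hz, rfl⟩
    · rintro _ ⟨w, hw, rfl⟩
      exact hw

/-- **the field `sc` of `One2`** for one 2-cell of a perfect cube -/
theorem sc_of_faceG {κf : Type*} {Ω : Set R3} {f : R3 → R3} {x : κf → R3} {e : κf → Fin 2 → R3}
    {P : κf → Set (ℝ × ℝ)} {J : Set R3} {E0 : ℝ} {a : R3} (hG : FaceG Ω f x e P J E0 a)
    (h0 : 0 ≤ E0) {E1 : ℝ} (hE1 : E0 < E1) {T : Tiling Om ι} {y : R3} (hy : y ∈ Om)
    (hd : T.dim y = 2) (φ : κf) (hli : LinearIndependent ℝ (e φ))
    (hcc : T.cc y = pt (e φ) (a + x φ) '' P φ) (hsub : T.cc y ⊆ Ω) {u : R3 → ℝ} {L : ℝ}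
    (hL : 0 ≤ L) (hu : ∀ y z, |u y - u z| ≤ L * dist y z) {t0 tm th : ℝ} (hth : tm < th)
    (hrim : ∀ z ∈ T.cc y, z ∈ sk1 T → u (f z) < t0)
    (hJ : ∀ z ∈ T.cc y, t0 ≤ u (f z) → z ∈ J) {σf θf : ℝ} (hσ : 0 < σf) (hθ : 0 < θf)
    (hE : 8 * L * E1 ≤ θf * σf) :
    ∃ Bad : Set ℝ, MeasurableSet Bad ∧ volume Bad ≤ ENNReal.ofReal θf ∧
      ∀ ts ∈ Ioo t0 tm, ts ∉ Bad → ∃ (n : ℕ) (c : Fin n → R3) (ρ : Fin n → ℝ),
        (∀ m, 0 < ρ m) ∧ ∑ m, ρ m ≤ σf ∧ ∃ η > 0, Cov (T.cc y) f u th ts n c ρ η := by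
  have h1 := hG.small hE1 h0 φ (by rw [← hcc]; exact hsub) hL hu hth
    (fun w hw hwi => hrim _ (by rw [hcc]; exact ⟨w, hw, rfl⟩) (face_rim hy hd hli hcc hw hwi))
    (fun w hw hw' => hJ _ (by rw [hcc]; exact ⟨w, hw, rfl⟩) hw') hσ hθ hE
  rw [← hcc] at h1
  exact h1

end R3

end

end Crest.Agent.R096.Fsl_793
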