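import Crest.Agent.R096.Pas3_753
import Crest.Agent.R096.Cp9_465
import Crest.Agent.R096.Cnt5_580
import Crest.Agent.R096.Fsl8_793
import Crest.Agent.R096.Fsl5_793

/-!
# Row 96 (S0127), p ≤ 2: assembly of `PreIN p` (helper855): the selection `sel : SelP ..`
-/

set_option autoImplicit false
set_option linter.style.longLine false
set_option linter.unusedSectionVars false

open MeasureTheory Set Filter Topology Metric
open scoped ENNReal NNReal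

namespace Crest.Agent.R096.Ca_855

open Crest.AnalysisR.VecCalc3 Crest.AnalysisR.Sobolev
open Crest.Agent.R096.Msh_715 (Tiling P I)
open Crest.Agent.R096.Mal_874 (CB)
open Crest.Agent.R096.Sk_962 (SH)
open Crest.Agent.R096.Br_695 (En)
open Crest.Agent.R096.Sk2_855 (Mv sk1)
open Crest.Agent.R096.Fce_793 (pt isClosedEmbedding_pt)
open Crest.Agent.R096.Fsl_793
open Crest.Agent.R096.Rmg_793
open Crest.Agent.R096.Cp9_465
open Crest.Agent.R096.Gz_812 (HFine)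
open Crest.Agent.R096.Pin_753
open Crest.Agent.R096.Pas_753
open Crest.Agent.R96.Lu_538
open Crest.Agent.R96.Intr_538
open Crest.Agent.R96.Coarse_538
open Crest.Agent.R96.Acl_392
open Crest.Agent.R96.Gdt_538 (MeshG)
open Crest.Agent.R096.Cnt5_580 (pick_Dt theta_ok)

/-- one face of the face measure, for every function -/
theorem lint_face_le {κf : Type} {x : κf → R3} {e : κf → Fin 2 → R3} {Pf : κf → Set (ℝ × ℝ)}
    {c : ℝ≥0∞} (hli : ∀ φ, LinearIndependent ℝ (e φ)) (F : R3 → ℝ≥0∞) (a : R3) (φ : κf) :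
    c * ∫⁻ u in Pf φ, F (pt (e φ) (a + x φ) u) ≤
      ∫⁻ y, F y ∂trM (fcM x e Pf (fun _ => c)) (fun _ => univ) a := by
  rw [trM, lintegral_sum_measure]
  refine le_trans (le_of_eq ?_) (ENNReal.le_tsum φ)
  rw [Measure.restrict_univ]
  have h1 : (fun x : R3 => a + x) = ⇑(MeasurableEquiv.addLeft a) := rfl
  rw [h1, MeasurableEmbedding.lintegral_map (MeasurableEquiv.addLeft a).measurableEmbedding, fcM,
    lintegral_smul_measure, MeasurableEmbedding.lintegral_map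
      (isClosedEmbedding_pt (hli φ) (x φ)).measurableEmbedding, smul_eq_mul]
  congr 1
  refine lintegral_congr fun u => ?_
  congr 1
  show pt (e φ) (a + x φ) u = a + pt (e φ) (x φ) u
  simp only [pt]
  abel

/-- the compact zone -/
theorem exists_zone {Om La K K' : Set R3} {f : R3 → R3} (hf : IsHomeomorphOn f Om La)
    (hK : K ⊆ Om) (hKc : IsCompact K) (hK' : K' ⊆ La) (hK'c : IsCompact K') :
    ∃ W ⊆ Om, IsCompact W ∧ K ⊆ W ∧ ∀ y ∈ Om, f y ∈ K' → y ∈ W := by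
  obtain ⟨fi, h1, h2, h3, h4, h5, h6⟩ := hf
  refine ⟨K ∪ fi '' K', union_subset hK ?_, hKc.union (hK'c.image_of_continuousOn (h6.mono hK')),
    subset_union_left, fun y hy hfy => Or.inr ⟨f y, hfy, h3 y hy⟩⟩
  rintro _ ⟨y, hy, rfl⟩
  exact h2 (hK' hy)

theorem num1 {θ0 c2 s x : ℝ} (h : x ≤ θ0 * s) (n3 : 48 * θ0 < c2) (hs : 0 < s) :
    48 * x < c2 * s := by nlinarith

theorem num2 {D hh c2 s : ℝ} (n2 : 8 * D * hh ≤ c2) (hs : 0 < s) :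
    D * hh * s ≤ c2 * s / 8 := by nlinarith

theorem num3 {D hh θ0 s x : ℝ} (hD : 2 ≤ D) (hh0 : 0 < hh) (h : x ≤ θ0 * s) (n4 : θ0 ≤ hh)
    (hs : 0 < s) : 2 * x ≤ D * hh * s := by
  have h1 : θ0 * s ≤ hh * s := mul_le_mul_of_nonneg_right n4 hs.le
  have h2 : 2 * (hh * s) ≤ D * (hh * s) := mul_le_mul_of_nonneg_right hD (by positivity)
  have h3 : D * (hh * s) = D * hh * s := by ring
  linarith

theorem num4 {a b D₁ D x y : ℝ} (hDD : D₁ ≤ D) (hD : 0 ≤ D) (hx : x ≤ y) (hx0 : 0 ≤ x)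
    (hab : D * y ≤ b) (ha : a = D₁ * x) : a ≤ b := by
  rw [ha]
  exact (mul_le_mul hDD hx hx0 hD).trans hab

theorem num5 {ρ θ1 hh s x : ℝ} (hρ : 0 < ρ) (hθ1 : 0 < θ1) (hh0 : 0 < hh) (hx : x ≤ hh * s) :
    ρ * θ1 / (16 * hh) * x ≤ ρ * θ1 * s / 2 / 8 := by
  calc ρ * θ1 / (16 * hh) * x ≤ ρ * θ1 / (16 * hh) * (hh * s) :=
        mul_le_mul_of_nonneg_left hx (by positivity)
    _ = ρ * θ1 * s / 2 / 8 := by field_simp; ring

theorem num6 {ρ θ1 s : ℝ} {k0 : ℕ} (hρ : 0 < ρ) (hlo : θ1 * s ≤ 1 / 2 ^ k0) :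
    ρ * θ1 * s / 2 ≤ ρ / 2 ^ (k0 + 1) := by
  have h1 : ρ / 2 ^ (k0 + 1) = ρ * (1 / 2 ^ k0) / 2 := by
    rw [pow_succ]; field_simp
  rw [h1]
  have h2 := mul_le_mul_of_nonneg_left hlo hρ.le
  linarith

theorem num7 {D hh ρ θ1 s : ℝ} (hD : 0 < D) (hh0 : 0 < hh) :
    ρ * θ1 / (2 * (D * hh)) * (D * hh * s) = ρ * θ1 * s / 2 := by
  field_simp

theorem num8 {D hh s n : ℝ} {m : ℕ} (hm : 0 < m) :
    (m ^ 2 : ℕ) * (n * (D * hh) ^ 3 / (m ^ 2 : ℕ) * s ^ 3) = n * (D * hh * s) ^ 3 := by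
  have : ((m ^ 2 : ℕ) : ℝ) ≠ 0 := by positivity
  field_simp

theorem faceD_of {p η₁ w s : ℝ} (hs : 0 < s) (hw : 0 < w) {A : ℝ≥0∞} {η' : ℝ}
    (hη' : η' ≤ η₁ ^ p * w) (h : ENNReal.ofReal (w * s ^ 3) * A ≤ ENNReal.ofReal (η' * s ^ 3)) :
    A ≤ ENNReal.ofReal (η₁ ^ p) := by
  have hws : 0 < w * s ^ 3 := by positivity
  have h1 : ENNReal.ofReal (η' * s ^ 3) ≤ ENNReal.ofReal (w * s ^ 3) * ENNReal.ofReal (η₁ ^ p) := by
    rw [← ENNReal.ofReal_mul hws.le]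
    refine ENNReal.ofReal_le_ofReal ?_
    have : 0 < s ^ 3 := by positivity
    nlinarith
  exact (ENNReal.mul_le_mul_iff_right (ENNReal.ofReal_pos.2 hws).ne' ENNReal.ofReal_ne_top).1
    (h.trans h1)

theorem pos_cast {p : ℝ} {Om La W : Set R3} {f : R3 → R3} {G : Fin 3 → R3 → R3} {ι ι' : Type}
    {T : Tiling Om ι} {T' : Tiling Om ι'} {κi : Type} {x v : κi → R3} {κf : Type} {xf : κf → R3}
    {ef : κf → Fin 2 → R3} {Pf : κf → Set (ℝ × ℝ)} {κ τ σ₀ η₁ t s d σr : ℝ}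
    {z b : (Fin 3 → ℤ) → R3} {L : (Fin 3 → ℤ) → R3 →L[ℝ] R3} {Q : Finset (Fin 3 → ℤ)} {a : R3}
    (hι : ι = ι') (hT : HEq T T')
    (H : Pos p Om La W f G T x v xf ef Pf κ τ σ₀ η₁ t s d σr z b L Q a) :
    Pos p Om La W f G T' x v xf ef Pf κ τ σ₀ η₁ t s d σr z b L Q a := by
  subst hι
  cases hT
  exact H

theorem tileC_mono {κ : ℝ} {Bs : ℕ} {D D' : ℝ} {nc : ℕ} (hD : D ≤ D') (H : TileC κ Bs D nc) :
    TileC κ Bs D' nc := by
  intro Om W ρ₀ J _ Qb k0 Nn σ h hb a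
  obtain ⟨h1, h2⟩ := H h hb a
  refine ⟨h1, fun j t ht x hx y hy => (h2 j t ht x hx y hy).trans ?_⟩
  gcongr

/-- the family of `h` -/
theorem fam_T {Om W : Set R3} {t n β r : ℝ} {nc mf : ℕ} {M : MFam2 Om W t n β r nc mf}
    {X : MFam Om W t n β r nc} (h : M.toMFam = X) (a : R3) :
    M.Tr = X.Tr ∧ M.ι a = X.ι a ∧ HEq (M.T a) (X.T a) := by
  subst h
  exact ⟨rfl, rfl, HEq.rfl⟩

/-- **the selection** -/
theorem sel {p : ℝ} (hp : 1 ≤ p) (hp2 : p ≤ 2) {Om La : Set R3} (hOm : IsOpen Om)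
    (hOmb : Bornology.IsBounded Om) (hLa : IsOpen La) (hLaf : volume La ≠ ∞) {f : R3 → R3}
    {G : Fin 3 → R3 → R3} (H : SH p Om La f G) (happ : HFine Om La f) {ε : ℝ} (hε : 0 < ε)
    (Bs : ℕ) : SelP p Om La f G ε Bs := by
  obtain ⟨κ, hκ, hκ1, K, hK, hKc, K', hK', hK'c, H0⟩ := comp_U hp hp2 hOm hOmb hLa hLaf H happ hε
  obtain ⟨W, hW, hWc, hKW, hK'W⟩ := exists_zone H.homeo hK hKc hK' hK'c
  obtain ⟨D₁, hD₁, nc, hTC, Ht⟩ := exists_tile2 hκ hκ1 Bs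
  obtain ⟨D, hD2, hDD⟩ : ∃ D : ℝ, 2 ≤ D ∧ D₁ ≤ D := ⟨max 2 D₁, le_max_left _ _, le_max_right _ _⟩
  have hD0 : 0 < D := by linarith
  refine ⟨κ, hκ, hκ1, K, hK, hKc, K', hK', hK'c, W, hW, hWc, hKW, hK'W, D, by linarith, nc,
    tileC_mono hDD hTC, ?_⟩
  intro τ hh c1 c2 θ0 θ1 σ' η₁ Nn hτ hτ4 hhh hc1 hc2 hθ0 hθ1 hσ' hη₁ n1 n2 n3 n4 n5 ρ₀ lip nn le1
    pos hmin e1 δ he1 hδ
  obtain ⟨ρm, hρm, hρm2⟩ := hmin
  obtain ⟨ρ, hρ, H1⟩ := Ht Nn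
  obtain ⟨β, hβ, H2⟩ := H1 (ρ * θ1 / (16 * hh)) (by positivity)
  obtain ⟨r, hr⟩ : ∃ r : ℝ, r = ρ * θ1 / (2 * (D * hh)) := ⟨_, rfl⟩
  have hr0 : 0 < r := by rw [hr]; positivity
  obtain ⟨m, hm0, hm1⟩ : ∃ m : ℕ, 0 < m ∧ ((1 + 2) / r) ^ 3 ≤ (m : ℝ) :=
    ⟨⌈((1 + 2) / r) ^ 3⌉₊, Nat.ceil_pos.2 (by positivity), Nat.le_ceil _⟩
  have hn0 : (0:ℝ) < 2 ^ ⌊((1 + 1) / r) ^ 3⌋₊ := by positivity
  have hDh : 0 < D * hh := by positivity
  have hN : (0:ℝ) < 1 / (D * hh) := by positivity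
  -- the tolerance of the faces
  obtain ⟨w, hw⟩ : ∃ w : ℝ, w = 2 ^ ⌊((1 + 1) / r) ^ 3⌋₊ * (D * hh) ^ 3 / (m ^ 2 : ℕ) := ⟨_, rfl⟩
  have hw0 : 0 < w := by rw [hw]; positivity
  have hηp : 0 < η₁ ^ p := Real.rpow_pos_of_pos hη₁ _
  obtain ⟨η', hη'0, hη'1, hη'2⟩ : ∃ η' : ℝ, 0 < η' ∧ η' ≤ η₁ ∧ η' ≤ η₁ ^ p * w :=
    ⟨min η₁ (η₁ ^ p * w), lt_min hη₁ (by positivity), min_le_left _ _, min_le_right _ _⟩
  obtain ⟨s₁, hs₁, Hs⟩ := H0 nc (m ^ 2) (1 / (D * hh)) (2 ^ ⌊((1 + 1) / r) ^ 3⌋₊) (τ / 12) (τ / 24)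
    β r σ' η' ((θ1 * (1 / (D * hh)) / 2) ^ 3 / 8) δ e1 hN hn0 (by positivity)
    (by linarith) (by linarith)
    (by
      rw [div_mul_div_comm, le_div_iff₀ (by positivity)]
      linarith)
    (by
      rw [div_mul_div_comm, le_div_iff₀ (by positivity)]
      linarith)
    hβ hr0 hσ' (by
      rw [mul_one_div, le_div_iff₀ hDh]
      linarith) hη'0 (by positivity) hδ he1
  refine ⟨min s₁ (ρm / c2), lt_min hs₁ (by positivity), fun s hs hss a₀ => ?_⟩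
  have hs1 : s < s₁ := hss.trans_le (min_le_left _ _)
  have hs2 : c2 * s ≤ ρm := by
    have := hss.le.trans (min_le_right _ _)
    rwa [le_div_iff₀ hc2, mul_comm] at this
  obtain ⟨Q₀, b, L, S, q1, q2, q3, q4, q5, q6, q7⟩ := Hs s hs hs1 a₀
  clear Hs H0
  have hinj : ∀ k ∈ Q₀, Function.Injective (L k) := fun k hk =>
    Crest.Agent.R096.Ca_855.inj_of_low hκ (q1 k hk).low
  have hτ1 : (0:ℝ) ≤ 1 - τ := by linarith
  refine ⟨Q₀, b, L, fun k hk => ⟨(q1 k hk).low, (q1 k hk).up⟩, q2, q3, ?_, q5, q6, ?_⟩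
  · intro k hk l hl hkl
    refine (q4 k hk l hl hkl).mono_left ?_
    exact par_mono (hinj k hk) (mul_nonneg hτ1 hs.le)
      (mul_le_mul_of_nonneg_right (by linarith) hs.le)
  intro J _ kk Qb k0 hk0 hkk hb hsep hlo hhi
  have e0 : s / (1 / (D * hh)) = D * hh * s := by
    rw [div_div_eq_mul_div, div_one, mul_comm]
  have ht0 : 0 < s / (1 / (D * hh)) := by positivity
  have h2k : (0:ℝ) ≤ 1 / 2 ^ k0 := by positivity
  have hhs : 1 / 2 ^ k0 ≤ hh * s := hhi.trans (mul_le_mul_of_nonneg_right n4 hs.le)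
  -- the mesh
  have hNW : ∀ j, (Qb j).N ⊆ W := fun j => (hb j).sub.trans
    (((cel_mono ref_Cb _ (mul_nonneg hτ1 hs.le)
      (mul_le_of_le_one_left hs.le (by linarith))).trans (q2 _ (hkk j))).trans hKW)
  have h : MIn Om W ρ₀ Qb k0 (c2 * s) := by
    refine ⟨lip, nn, le1, pos, fun x hx => hs2.trans (hρm2 x hx), hNW, ?_, hk0, hsep⟩
    rw [show (48:ℝ) / 2 ^ k0 = 48 * (1 / 2 ^ k0) by ring]
    exact num1 hhi n3 hs
  refine ⟨h, ?_⟩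
  have hbq : ∀ j, MIn.BQ κ Bs Nn (Qb j) k0 := fun j => MIn.bq_of_blkP (hb j)
  have htσ : s / (1 / (D * hh)) ≤ c2 * s / 8 := by
    rw [e0]
    exact num2 n2 hs
  have hrt : r * (s / (1 / (D * hh))) = ρ * θ1 * s / 2 := by
    rw [e0, hr]
    exact num7 hD0 hhh
  have hDhs : D * (hh * s) ≤ s / (1 / (D * hh)) := by
    rw [e0]
    exact le_of_eq (by ring)
  obtain ⟨c, htile, M, hM⟩ := h.exists_mfam2 (D := D₁) (β := β) (ρ := ρ)
    (t := s / (1 / (D * hh))) (r := r) (ε := ρ * θ1 / (16 * hh)) (nc := nc) hD₁.le (by positivity)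
    (H2 h hbq)
    (fun j => num4 hDD hD0.le (hb j).cellU (by positivity) hDhs (div_eq_mul_one_div _ _))
    (num4 hDD hD0.le hhs h2k hDhs (div_eq_mul_one_div _ _))
    (fun j => by
      rw [hrt, div_eq_mul_one_div _ ((2:ℝ) ^ (Qb j).kc)]
      exact num5 hρ hθ1 hhh (hb j).cellU)
    (by
      rw [hrt, div_eq_mul_one_div _ ((2:ℝ) ^ k0)]
      exact num5 hρ hθ1 hhh hhs)
    (by
      rw [hrt]
      exact num6 hρ hlo)
    ht0 htσ hr0 hm1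
  have hTr : M.Tr = closedBall 0 (s / (1 / (D * hh))) := (fam_T hM 0).1
  have := M.cnt
  have := M.cntf
  refine ⟨M.κi, M.cnt, M.x, M.v, M.κf, M.cntf, M.xf, M.ef, M.Pf, fun B2 hB2 => ?_⟩
  -- the face measure
  have hmc : ((m ^ 2 : ℕ) : ℝ≥0∞) * ENNReal.ofReal (w * s ^ 3) ≤
      ENNReal.ofReal (2 ^ ⌊((1 + 1) / r) ^ 3⌋₊) * volume M.Tr := by
    have h1 : ENNReal.ofReal ((s / (1 / (D * hh))) ^ 3) ≤ volume M.Tr := M.vol
    refine le_trans (le_of_eq ?_) (mul_le_mul_right h1 _)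
    rw [← ENNReal.ofReal_mul hn0.le, ← ENNReal.ofReal_natCast,
      ← ENNReal.ofReal_mul (Nat.cast_nonneg _), e0, hw, num8 hm0]
  have hν : RM M.Tr (ENNReal.ofReal (2 ^ ⌊((1 + 1) / r) ^ 3⌋₊))
      (trM (fcM M.xf M.ef M.Pf (fun _ => ENNReal.ofReal (w * s ^ 3))) (fun _ => univ)) :=
    Faces.rm M.meas M.fcs (fun _ => Subset.rfl) (fun _ => le_rfl) hmc fun _ => MeasurableSet.univ
  obtain ⟨B1, hB1, HB⟩ := q7 W hKW hK'W M _ hν Empty (fun j => j.elim) (fun j => j.elim)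
    (fun j => j.elim)
  have hT : volume M.Tr ≤ ENNReal.ofReal ((2 * (s / (1 / (D * hh)))) ^ 3) := by
    refine Crest.Agent.R096.Cnt5_580.vol_le_of_box ht0.le (c := 0) fun a ha i => ?_
    rw [hTr, mem_closedBall_zero_iff] at ha
    have h1 : ‖a i‖ ≤ ‖a‖ := PiLp.norm_apply_le a i
    rw [Real.norm_eq_abs] at h1
    simpa using h1.trans ha
  obtain ⟨a, ha, ha1, ha2, ha3⟩ := pick_Dt hB1
    (theta_ok (C := 2) two_pos hθ1 hN hs rfl hT hlo).2 hB2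
  have haTr : a ∈ M.Tr := by
    rw [hTr, mem_closedBall_zero_iff, e0]
    refine ha3.trans ?_
    rw [show (2:ℝ) / 2 ^ k0 = 2 * (1 / 2 ^ k0) by ring]
    exact num3 hD2 hhh hhi n4 hs
  obtain ⟨a1, -, Q, hQ, a3, a4, a5, a6⟩ := HB a haTr ha1
  refine ⟨a, ha, ha2, ha3, Q, hQ, a3, ?_⟩
  refine pos_cast (fam_T hM a).2.1 (fam_T hM a).2.2 ?_
  have hle : (s / (1 / (D * hh))) = D * hh * s := e0
  constructor
  · exact M.vne
  · intro e
    rw [← e0]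
    exact M.vle e
  · exact M.mesh a haTr
  · intro i hi y hy y' hy'
    rw [← e0]
    exact (M.tile a haTr i hi).diam y hy y' hy'
  · exact M.fcs.li
  · exact M.fcs.cpt
  · exact M.fcs.sub
  · intro y hy hd hyW
    obtain ⟨φ, h1, -⟩ := M.face a haTr y hy hd hyW
    exact ⟨φ, h1⟩
  · exact a1
  · intro k hk
    rw [← e0]
    exact (a4 k hk).mono (by linarith) ht0.le hη'0.le hη'1
  · intro hpe k hk φ
    have h1 := a5 hpe k hk
    rw [hpe]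
    have h2 := lint_face_le (x := M.xf) (e := M.ef) (Pf := M.Pf) (c := ENNReal.ofReal (w * s ^ 3)) M.fcs.li
      ((cel Cb (vt (2 * s) a₀ k) s).indicator (fun x => ‖Gmat G x - L k‖ₑ ^ (2:ℝ))) a φ
    rw [lintegral_indicator (isClosed_cel _ _).measurableSet] at h2
    rw [hpe] at hη'2
    exact faceD_of hs hw0 hη'2 (h2.trans h1)
  · rw [← e0]
    exact a6

end Crest.Agent.R096.Ca_855
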