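import Crest.Agent.R096.Pas5_753
import Crest.Agent.R096.Pas6_753
import Crest.Agent.R096.Ca19_855
import Crest.Agent.R096.Acl1_922

/-!
Row 96 (S0127), helper753.  Assembly of `PreIN p`, part 7: `PreIN p` from the energy list and the
one-position theorem (selection: 855; cells: 922).
-/

set_option autoImplicit false
set_option linter.style.longLine false
set_option linter.unusedSectionVars false

open MeasureTheory Set Filter Topology Metric
open scoped ENNReal NNReal

namespace Crest.Agent.R096.Pas_753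

open Crest.Agent.R096.Mal_874 (CB)
open Crest.Agent.R096.Ea0_961 (EA0)
open Crest.Agent.R096.Ca_855
open Crest.Agent.R096.Pin_753

noncomputable section

theorem exists_allC {Om W : Set Crest.AnalysisR.VecCalc3.R3}
    {ρ₀ : Crest.AnalysisR.VecCalc3.R3 → ℝ} {J : Type}
    {Qb : J → CB Crest.AnalysisR.VecCalc3.R3 3} {k0 : ℕ} {σ : ℝ} [Finite J]
    (h : MIn Om W ρ₀ Qb k0 σ) :
    ∃ (κe κf : Type) (x v : κe → Crest.AnalysisR.VecCalc3.R3)
      (e : κf → Fin 2 → Crest.AnalysisR.VecCalc3.R3)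
      (xx : κf → Crest.AnalysisR.VecCalc3.R3) (Qf : κf → Set (ℝ × ℝ)), AllC h x v e xx Qf := by
  obtain ⟨κe, κf, h1, h2, x, v, e, xx, Qf, h3, h4, -, h5, -, -, h6⟩ := Acl_922.allcells' h
  obtain ⟨e', Qf', h7⟩ := allC_of_li h (x := x) (v := v) (e := e) (xx := xx) (Qf := Qf) h3 h4 h5
    (fun a ha => (h6 a ha).1) (fun a ha => (h6 a ha).2)
  exact ⟨κe, κf, x, v, e', xx, Qf', h7⟩

/-- **`PreIN p` from the energy list and the one-position theorem** -/
theorem preIN_of {p : ℝ} (hp : 1 ≤ p) (hp2 : p ≤ 2) (hE : EA0 p) (Els : ElsT)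
    (hEL : ElP p Els) (hO : OneP p Els) : PreIN p :=
  preIN_frame hp hE Els
    (fun _ _ _ _ h1 h2 h3 h4 H happ _ hε Bs => sel hp hp2 h1 h2 h3 h4 H happ hε Bs)
    (fun h => exists_allC h) hEL hO

end

end Crest.Agent.R096.Pas_753
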