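import Crest.Agent.R096.Top6_961
import Crest.Agent.R096.Frs3_662
import Crest.Agent.R096.Pas7_753
import Crest.Agent.R096.Np10_962
import Crest.Agent.R096.Eaz3_663

/-!
# Row 96, S0127: the top over the OPEN leaves (helper895, assembly)

`DOORS` (662's `DoorsPb b` for some `b > 0`), `PREX` (365), `R3` (695), `ELONE` (538 / 622: one
predicate `Els` for `1 ≤ p ≤ 2`), `EXBLK` (764).  `pre0` (663), `noPre_lt` (552), `PreGenN` (120),
`sel`, `allC` (855, 922) are plugged in.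
-/

set_option autoImplicit false
set_option linter.style.longLine false

namespace Crest.Agent.R096.Asq_895

open MeasureTheory Metric Set Filter Topology
open scoped ENNReal Gradient NNReal
open Crest.AnalysisR.VecCalc3 Crest.AnalysisR.Sobolev

/-- DOORS: the machine -/
def DOORS : Prop := ∃ b : ℝ, 0 < b ∧ Frs_662.DoorsPb b

/-- `PreX p` for `p > 2` -/
def PREX : Prop := ∀ p : ℝ, 2 < p → Eau_365.PreX p

/-- (EL) + (O) of 753's frame, `1 ≤ p ≤ 2` -/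
def ELONE : Prop := ∀ p : ℝ, 1 ≤ p → p ≤ 2 → ∃ Els : Pas_753.ElsT, Pas_753.ElP p Els ∧ Pas_753.OneP p Els

/-- R3: the consumer of `PreIN`, `1 ≤ p ≤ 2` -/
def R3P : Prop := ∀ p : ℝ, 1 ≤ p → p ≤ 2 → Ea0_961.EA0 p → Pin_753.PreIN p → Br_695.BFk p

/-- `ExBlkN p`, `p ≥ 3` -/
def EXBLK : Prop := ∀ p : ℝ, 3 ≤ p → Bmd_798.ExBlkN p

/-- DOORS from 662's second form -/
theorem doors_of_Q {b : ℝ} (hb : 0 < b) (h : Frs_662.DoorsQb b) : DOORS :=
  ⟨b, hb, Frs_662.doorsPb_of h⟩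

theorem preIN_of (h : ELONE) {p : ℝ} (hp : 1 ≤ p) (h2 : p ≤ 2) (hE : Ea0_961.EA0 p) :
    Pin_753.PreIN p := by
  obtain ⟨Els, h3, h4⟩ := h p hp h2
  exact Pas_753.preIN_of hp h2 hE Els h3 h4

/-- **S0127 from the five open leaves** -/
theorem s0127_leaves (hD : DOORS) (hX : PREX) (h3 : R3P) (hI : ELONE) (hB : EXBLK)
    (Ω Λ : Set R3) (hΩo : IsOpen Ω) (hΩb : Bornology.IsBounded Ω) (hΩc : IsConnected Ω)
    (hΛo : IsOpen Λ) (hΛb : Bornology.IsBounded Λ) (hΛc : IsConnected Λ)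
    (p : ℝ) (hp : 1 ≤ p) (f : R3 → R3) (hf : IsHomeomorphOn f Ω Λ)
    (hfp : MemLp f (ENNReal.ofReal p) (volume.restrict Ω))
    (G : Fin 3 → R3 → R3) (hG : ∀ j : Fin 3, HasWeakGradOn Ω (fun x => f x j) (G j))
    (hGp : ∀ j : Fin 3, MemLp (G j) (ENNReal.ofReal p) (volume.restrict Ω))
    (ε : ℝ≥0∞) (hε : 0 < ε) :
    ∃ g : R3 → R3, IsSmoothDiffeoOn g Ω Λ ∧ MemLp g (ENNReal.ofReal p) (volume.restrict Ω) ∧
      (∀ j : Fin 3, MemLp (fun x => ∇ (fun y => g y j) x) (ENNReal.ofReal p) (volume.restrict Ω)) ∧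
      ∫⁻ x in Ω, (‖g x - f x‖ₑ ^ p + ∑ j : Fin 3, ‖∇ (fun y => g y j) x - G j x‖ₑ ^ p) < ε := by
  obtain ⟨b, hb, hD⟩ := hD
  exact Top_961.s0127_final5 hb hD hX (fun p hp h2 => Eaz_663.pre0 hp (by linarith))
    (fun p hp h2 hE => h3 p hp h2 hE (preIN_of hI hp h2 hE))
    (fun p hp => Np_962.noPre_of_blkN hp (hB p hp))
    Ω Λ hΩo hΩb hΩc hΛo hΛb hΛc p hp f hf hfp G hG hGp ε hε

end Crest.Agent.R096.Asq_895
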