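import Crest.Agent.R096.Br15_695

/-!
Row 96 (S0127), helper695.  **`r12`**: `EA0 p → PreIN p → BFk p`, `1 ≤ p ≤ 3`.
-/

set_option autoImplicit false
set_option linter.unusedSectionVars false
set_option linter.unusedVariables false
set_option linter.style.longLine false

open MeasureTheory Set Filter Metric Module
open scoped ENNReal NNReal Topology

namespace Crest.Agent.R096.Br_695

open Crest.AnalysisR.VecCalc3 Crest.AnalysisR.Sobolev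
open Crest.Agent.R96.Lu_538 Crest.Agent.R96.Intr_538
open Crest.Agent.R96.Coarse_538 hiding E3
open Crest.Agent.R096.Sk_962 (SH Gr)
open Crest.Agent.R096.Sk4_663 (Zd BFs)
open Crest.Agent.R096.Bsp_628
open Crest.Agent.R096.Bxs_627 hiding E3
open Crest.Agent.R96.En10_199
open Crest.Agent.R096.SkC1_961 (E3 Hom3)
open Crest.Agent.R096.Er_594
open Crest.Agent.R096.Pin_753 (PreIN)
open Crest.Agent.R096.Ea0_961 (EA0)

noncomputable section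

/-- numbers before `M` -/
theorem numP {r V : ℝ} (hr : 0 < r) (hV : 0 ≤ V) :
    ∃ τ : ℝ, 0 < τ ∧ τ ≤ 1 / 8 ∧ 15 * τ * V ≤ r / 8 := by
  refine ⟨min (1 / 8) (r / (120 * (V + 1))), by positivity, min_le_left _ _, ?_⟩
  have h1 := min_le_right (1 / 8 : ℝ) (r / (120 * (V + 1)))
  have h2 : 0 < min (1 / 8 : ℝ) (r / (120 * (V + 1))) := by positivity
  rw [le_div_iff₀ (by positivity)] at h1
  nlinarith

/-- the number `M = 2 ^ μ` and the cells -/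
theorem numQ {κ κ1 τ lam C1 B : ℝ} (hκ : 0 < κ) (hκ1 : κ ≤ 1) (hκ10 : 0 < κ1) (hτ : 0 < τ)
    (hlam1 : lam < 1) (hlam : 1 / 2 ≤ lam) (hC1 : 0 ≤ C1) (hB : 0 < B) (M0 : ℕ) :
    ∃ (tb κ' hh c1 c2 : ℝ) (μ : ℕ), tb = κ * τ / 2 ∧ 0 < tb ∧ 0 ≤ κ' ∧ 2 * κ' ≤ 1 / 4 ∧
      (1 + 2 * κ') * lam ≤ (1 + lam) / 2 ∧ 11 ≤ 2 * κ' * 2 ^ μ ∧ 0 < hh ∧ 0 < c1 ∧ 0 < c2 ∧
      M0 ≤ 2 ^ μ ∧ C1 * hh ≤ min τ c2 ∧ C1 * hh ≤ κ * τ ∧
      C1 * hh ≤ κ1 * (κ * τ / 2 / 12) / 2 ∧ c1 * (B * 2 ^ μ) = tb / 6 ∧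
      tb = hh * (2 * 2 ^ μ) ∧ c2 = (1 - lam) * κ * tb / 216 ∧ c2 ≤ 2 * τ := by
  have hlam0 : 0 < 1 - lam := by linarith
  obtain ⟨tb, htb⟩ : ∃ tb, tb = κ * τ / 2 := ⟨_, rfl⟩
  have htb0 : 0 < tb := by rw [htb]; positivity
  have htbτ : tb ≤ τ := by
    have : κ * τ ≤ 1 * τ := mul_le_mul_of_nonneg_right hκ1 hτ.le
    linarith
  obtain ⟨κ', hκ'⟩ : ∃ κ', κ' = (1 - lam) / 8 := ⟨_, rfl⟩
  have hκ'0 : 0 < κ' := by rw [hκ']; positivity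
  obtain ⟨c2, hc2⟩ : ∃ c2, c2 = (1 - lam) * κ * tb / 216 := ⟨_, rfl⟩
  have hc20 : 0 < c2 := by rw [hc2]; positivity
  obtain ⟨mm, hmm⟩ : ∃ mm, mm = min τ (min c2 (min (κ * τ) (κ1 * (tb / 12) / 2))) := ⟨_, rfl⟩
  have hmm0 : 0 < mm := by rw [hmm]; positivity
  have mm1 : mm ≤ τ := by rw [hmm]; exact min_le_left _ _
  have mm2 : mm ≤ c2 := by rw [hmm]; exact (min_le_right _ _).trans (min_le_left _ _)
  have mm3 : mm ≤ κ * τ := by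
    rw [hmm]; exact (min_le_right _ _).trans ((min_le_right _ _).trans (min_le_left _ _))
  have mm4 : mm ≤ κ1 * (tb / 12) / 2 := by
    rw [hmm]; exact (min_le_right _ _).trans ((min_le_right _ _).trans (min_le_right _ _))
  obtain ⟨μ, hμ0, hμ⟩ := numM M0 (max (11 / (2 * κ')) (C1 * tb / (2 * mm)))
  have hμ1 : 11 / (2 * κ') ≤ ((2 ^ μ : ℕ) : ℝ) := (le_max_left _ _).trans hμ
  have hμ2 : C1 * tb / (2 * mm) ≤ ((2 ^ μ : ℕ) : ℝ) := (le_max_right _ _).trans hμ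
  have hMc : ((2 ^ μ : ℕ) : ℝ) = 2 ^ μ := by push_cast; rfl
  rw [hMc] at hμ1 hμ2
  have h2μ : (0:ℝ) < 2 ^ μ := by positivity
  have hC1hh : C1 * (tb / (2 * 2 ^ μ)) ≤ mm := by
    rw [div_le_iff₀ (by positivity)] at hμ2
    have e1 : C1 * (tb / (2 * 2 ^ μ)) = C1 * tb / (2 * 2 ^ μ) := by ring
    rw [e1, div_le_iff₀ (by positivity)]
    linarith
  refine ⟨tb, κ', tb / (2 * 2 ^ μ), tb / (6 * (B * 2 ^ μ)), c2, μ, htb, htb0, hκ'0.le, ?_, ?_, ?_,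
    by positivity, by positivity, hc20, hμ0, hC1hh.trans (le_min mm1 mm2), hC1hh.trans mm3,
    hC1hh.trans (by rw [← htb]; exact mm4), ?_, ?_, hc2, ?_⟩
  · rw [hκ']; linarith
  · rw [hκ']; nlinarith
  · rw [div_le_iff₀ (by positivity)] at hμ1
    linarith
  · field_simp
  · field_simp
  · have h1 : (1 - lam) * κ * tb ≤ 1 * 1 * tb := by
      have : (1 - lam) * κ ≤ 1 * 1 := mul_le_mul (by linarith) hκ1 hκ.le zero_le_one
      exact mul_le_mul_of_nonneg_right this htb0.le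
    rw [hc2]; linarith

/-- `e` for `PreIN` -/
theorem numE {q CA p : ℝ} (hq : 0 < q) (hCA : 0 ≤ CA) :
    ∃ eP : ℝ, 0 < eP ∧ 1000 * eP ≤ q / 2 ∧ CA * (2 ^ p * eP) ≤ q ∧ eP ≤ q := by
  have h2p : (0:ℝ) < 2 ^ p := by positivity
  refine ⟨min (q / 2000) (q / (CA * 2 ^ p + 1)), by positivity, ?_, ?_, ?_⟩
  · have := min_le_left (q / 2000) (q / (CA * 2 ^ p + 1)); linarith
  · have h1 := min_le_right (q / 2000) (q / (CA * 2 ^ p + 1))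
    have h2 : 0 < min (q / 2000) (q / (CA * 2 ^ p + 1)) := by positivity
    rw [le_div_iff₀ (by positivity)] at h1
    nlinarith
  · have := min_le_left (q / 2000) (q / (CA * 2 ^ p + 1)); linarith

/-- the scale `s` -/
theorem numS {s₀ tb ρ0 θ : ℝ} (hs : 0 < s₀) (htb : 0 < tb) (hρ : 0 < ρ0) (hθ : 0 < θ) :
    ∃ s : ℝ, 0 < s ∧ s < s₀ ∧ tb * s ≤ 1 / 4 ∧ tb * s ≤ ρ0 ∧ θ * s ≤ 1 / 8 := by
  refine ⟨min (s₀ / 2) (min (1 / 4 / tb) (min (ρ0 / tb) (1 / 8 / θ))), by positivity, ?_, ?_, ?_, ?_⟩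
  · exact (min_le_left _ _).trans_lt (by linarith)
  · have h1 : min (s₀ / 2) (min (1 / 4 / tb) (min (ρ0 / tb) (1 / 8 / θ))) ≤ 1 / 4 / tb :=
      (min_le_right _ _).trans (min_le_left _ _)
    rw [le_div_iff₀ htb] at h1
    linarith
  · have h1 : min (s₀ / 2) (min (1 / 4 / tb) (min (ρ0 / tb) (1 / 8 / θ))) ≤ ρ0 / tb :=
      (min_le_right _ _).trans ((min_le_right _ _).trans (min_le_left _ _))
    rw [le_div_iff₀ htb] at h1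
    linarith
  · have h1 : min (s₀ / 2) (min (1 / 4 / tb) (min (ρ0 / tb) (1 / 8 / θ))) ≤ 1 / 8 / θ :=
      (min_le_right _ _).trans ((min_le_right _ _).trans (min_le_right _ _))
    rw [le_div_iff₀ hθ] at h1
    linarith

set_option maxHeartbeats 2000000 in
/-- **RANGE `1 ≤ p ≤ 2`** (R3) -/
theorem bfk_of_ea0 {p : ℝ} (hp1 : 1 ≤ p) (hp3 : p ≤ 3) (hEA : EA0 p) (hPI : PreIN p) :
    BFk p := by
  classical
  have hp0 : 0 ≤ p := by linarith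
  have hM2 : 2 ≤ Mf := le_max_right _ _
  obtain ⟨Bs, hBs⟩ := exists_nat_ge (max 1 (max (4 * (12 * Mf) ^ 2) (8 * (12 * Mf))))
  have hBs1 : (1:ℝ) ≤ Bs := (le_max_left _ _).trans hBs
  have hBs1' : 1 ≤ Bs := by exact_mod_cast hBs1
  have hBs2 : 4 * (12 * Mf) ^ 2 ≤ Bs := ((le_max_left _ _).trans (le_max_right _ _)).trans hBs
  have hBs3 : 8 * (12 * Mf) ≤ Bs := ((le_max_right _ _).trans (le_max_right _ _)).trans hBs
  obtain ⟨B, hB⟩ : ∃ B, B = 12 * Mf := ⟨_, rfl⟩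
  have hB24 : 24 ≤ B := by rw [hB]; linarith
  have hB0 : 0 < B := by linarith
  obtain ⟨C, hC0, hC⟩ := hEA δf 3 6 (1 / 4) (1 / 4) B Bs δf_pos (by norm_num) (by norm_num)
    (by norm_num) (by norm_num) (by norm_num) le_rfl (by linarith) hBs1'
  obtain ⟨Cp, hCp⟩ := hPI Bs
  refine ⟨3 * C * 2 ^ p * Cp, ?_⟩
  intro Om La f G hO hOb hOc hL hLb hLc hS η hη hη0 e he
  obtain ⟨V, hV⟩ : ∃ V, V = (volume Om).toReal := ⟨_, rfl⟩
  have hV0 : 0 ≤ V := by rw [hV]; exact ENNReal.toReal_nonneg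
  have hVt : volume Om ≠ ∞ := hOb.measure_lt_top.ne
  have hVe : volume Om ≤ ENNReal.ofReal V := by rw [hV]; exact (ENNReal.ofReal_toReal hVt).ge
  obtain ⟨w, hw, hwη⟩ := exists_w hL hS.homeo (η := fun x => η x / 2) (hη.div_const 2)
    (fun x hx => by have := hη0 x hx; positivity) (C := C) C.2
  obtain ⟨hη2c, hη20⟩ := Dsp_685.exists_eta2 hL hS.homeo hw hη hη0
  have hCr : 0 ≤ (C : ℝ) := C.2
  have hCpr : 0 ≤ (Cp : ℝ) := Cp.2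
  have h2p : (0:ℝ) < 2 ^ p := by positivity
  obtain ⟨W, hW⟩ : ∃ W, W = (C : ℝ) * 2 ^ p * Cp := ⟨_, rfl⟩
  have hW0 : 0 ≤ W := by rw [hW]; positivity
  obtain ⟨eac, heac⟩ : ∃ eac, eac = e / (1 + 12 * W) := ⟨_, rfl⟩
  have heac0 : 0 < eac := by rw [heac]; positivity
  have heacW : eac * (1 + 12 * W) = e := by rw [heac]; field_simp
  have heac1 : eac ≤ e := by nlinarith
  have heac2 : 3 * (C * (2 ^ p * (Cp * eac))) ≤ e / 4 := by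
    have e1 : 3 * (C * (2 ^ p * (Cp * eac))) = 3 * (W * eac) := by rw [hW]; ring
    rw [e1]; nlinarith
  obtain ⟨r, hr, hac⟩ := exists_ac hp1 hOb hS heac0
  obtain ⟨κ, hκ, hκ1, K, hK, hKc, K', hK', hK'c, C1, hC1, HP⟩ :=
    hCp Om La f G hO hOb hOc hL hLb hLc hS (r / 4) (by positivity)
  have hκi : 0 < κ⁻¹ := inv_pos.2 hκ
  obtain ⟨q, hq0, hq1, hqn, hqo⟩ := numA (p := p) (V := V) (N := 3 * κ⁻¹) (C := C)
    (C2 := 2 ^ p * 2) he hV0 (by positivity) hCr (by positivity)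
  obtain ⟨lam, hl1, hl2, hl3, hl4, hl5, hl6⟩ := numB (p := p) (q := q) (r := r)
    (T := 100000 * (C1 * κ⁻¹ ^ p * V)) (R := 48 * V) hp1 hq0 hr (by positivity) (by positivity)
  obtain ⟨κ1, hκ10, M0, HC⟩ := hC q hq0 lam hl2
  obtain ⟨τ, hτ, hτ8, hτV⟩ := numP hr hV0
  obtain ⟨tb, κ', hh, c1, c2, μ, htb, htb0, hκ'0, k1, k2, k3, hh0, hc10, hc20, hμ0, k4, k5, k6, k7,
    k8, k9, k10⟩ := numQ (κ1 := κ1) (C1 := C1) (B := B) hκ hκ1 hκ10 hτ hl2 hl1 (by linarith) hB0 M0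
  obtain ⟨κwE, hκwE, HC2⟩ := HC (2 ^ μ) hμ0
  have hM1 : (1:ℝ) ≤ ((2 ^ μ : ℕ) : ℝ) := by exact_mod_cast Nat.one_le_two_pow
  obtain ⟨kb, κw, kl, e1P, hkb0, hκw0, hkl0, he1P, hklκ, w1, w2, w3, w4, w5, w6, w7, w8, w9⟩ :=
    numW (p := p) (κ := κ) (κ1 := κ1) (κwE := κwE) (τ := τ) (q := q) (V := V)
      (M := ((2 ^ μ : ℕ) : ℝ)) (lam := lam) hp1 hκ hκ1 hκ10 hκwE hτ hτ8 hq0 hV0 hM1 hl1 hl2
  obtain ⟨Nn, hnet⟩ := Blk_212.exists_net hκ hkl0 hklκ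
  obtain ⟨CA, κt, hκt, HC3⟩ := HC2 Nn
  have HE : EA0t p δf 3 6 (1 / 4) (1 / 4) B Bs C q lam κ1 (2 ^ μ) κwE Nn CA κt := HC3
  clear HC3 HC2 HC hC hEA
  obtain ⟨eP, heP, heP1, heP2, heP3⟩ := numE (q := q) (CA := CA) (p := p) hq0 CA.2
  obtain ⟨θ0, hθ0, HP2⟩ := HP τ hh c1 c2 κw eP Nn hτ (by linarith) hh0 hc10 hc20 hκw0 heP k4
  obtain ⟨θ, hθ, t1, t2, t3, t4, t5, t6, t7, t8⟩ := numT (κ := κ) (c1 := c1) (c2 := c2) (κt := κt)
    (B := B) (kb := kb) (τ := τ) (θ0 := θ0) (r := r) (V := V) hκ hc10 hc20 hκt hB0 hkb0 hτ hθ0 hr hV0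
  obtain ⟨s₀, hs₀, HP3⟩ := HP2 (θ / 2) (by positivity) _ hη2c hη20 e1P (r / 8) he1P (by positivity)
  have hK'3 : IsCompact (P3 ⁻¹' K') := isCompact_pre hK'c
  obtain ⟨ρ0, hρ0, hρ⟩ : ∃ ρ0 : ℝ, 0 < ρ0 ∧ ∀ y ∈ P3 ⁻¹' K', ρ0 ≤ w y := by
    rcases (P3 ⁻¹' K').eq_empty_or_nonempty with h0 | h0
    · exact ⟨1, one_pos, fun x hx => absurd hx (by rw [h0]; exact notMem_empty x)⟩
    · obtain ⟨x0, hx0, hmin⟩ := hK'3.exists_isMinOn h0 (scale_cont hw).continuousOn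
      exact ⟨w x0, hw.pos x0 (hK' hx0), fun x hx => hmin hx⟩
  obtain ⟨s, hs, hss, hst1, hst2, hst3⟩ := numS hs₀ htb0 hρ0 hθ
  obtain ⟨k0, hk3, hk1, hk2⟩ := numk (x := θ * s) (by positivity) hst3
  have HPt : PIt p Bs Cp Om La f G (r / 4) κ K K' C1 τ hh c1 c2 κw eP Nn θ0 (θ / 2)
      (fun x => min (η x / 4) (w (P3.symm (f x)))) e1P (r / 8) s 0 := HP3 s hs hss 0
  clear HP3 HP2 HP hCp hPI
  obtain ⟨t, ht⟩ : ∃ t, t = tb * s := ⟨_, rfl⟩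
  have hka : kl + θ ≤ kb / 2 := by linarith
  have hκkb : κ * kb ≤ 1 * kb := mul_le_mul_of_nonneg_right hκ1 hkb0.le
  have hκτ1 : κ * τ ≤ 1 * τ := mul_le_mul_of_nonneg_right hκ1 hτ.le
  refine r3_step hp1 hp3 hO hOb hOc hL hLb hLc hS hw hwη hBs1' hBs2 hBs3 hq0 hB HE hK hK' HPt hρ hnet
    (tb := tb) (t := t) (κ' := κ') (kb := kb) (V := V) (r := r) (eac := eac) (e := e)
    ht htb0 (by rw [ht]; exact hst1) (by rw [ht]; exact hst2) hk3 (by linarith) hk2 hκ hκ1 hs hτ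
    hτ8 hl1 hl2 ?_ k3 hκ'0 k1 k2 hkl0 (by linarith) ?_ ?_ t2 (by rw [← hB]; exact t3) ?_ k10 ?_ t1
    hκw0.le (by linarith) hc10 hθ k5 ?_ ?_ w1 hκwE.le hκ10.le ?_ w5 ?_ t7 ?_ hV0 hVe t8 hac
    heac0.le heac1 heP.le (by positivity) he1P.le hl3 hl6 ?_ heP2 ?_ ?_ hqn ?_
  · have e1 : 2 * κ⁻¹ * t = τ * s := by rw [ht, htb]; field_simp
    exact e1.le
  · have e1 : c1 * s * (12 * Mf * 2 ^ μ) = (c1 * (B * 2 ^ μ)) * s := by rw [hB]; ring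
    rw [e1, k7, ht]
    apply le_of_eq; ring
  · have e1 : hh * s * (2 * 2 ^ μ) = (hh * (2 * 2 ^ μ)) * s := by ring
    rw [e1, ← k8, ht]
  · have h1 : kl + θ ≤ (1 - lam) * tb / 144 := by
      rw [htb]; linarith
    calc (kl + θ) * s ≤ (1 - lam) * tb / 144 * s := mul_le_mul_of_nonneg_right h1 hs.le
      _ = _ := by rw [ht]; ring
  · rw [k9, ht]
    apply le_of_eq; ring
  · linarith
  · have h1 : 3 * κ⁻¹ * (κw + θ / (5 * κ)) = 3 * κ⁻¹ * κw + 3 * κ⁻¹ * (θ / (5 * κ)) := by ring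
    have h2 : 3 * κ⁻¹ * κw ≤ kb / 4 := by
      calc 3 * κ⁻¹ * κw ≤ 3 * κ⁻¹ * (κ * kb / 12) := mul_le_mul_of_nonneg_left w2 (by positivity)
        _ = kb / 4 := by field_simp; norm_num
    rw [h1]; linarith
  · rw [htb]; exact w4
  · rw [htb]; linarith
  · calc 2 * (kb * s) = 2 * kb * s := by ring
      _ ≤ (1 - lam) * (κ * τ / 2 / 18) * s := mul_le_mul_of_nonneg_right w8 hs.le
      _ = (1 - lam) * (t / 18) := by rw [ht, htb]; ring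
  · have h1 : 1000 * (C1 * κ⁻¹ ^ p * (100 * (1 - lam)) * V + eP) =
        100000 * (C1 * κ⁻¹ ^ p * V) * (1 - lam) + 1000 * eP := by ring
    rw [h1]; linarith
  · refine le_trans ?_ w9
    have h1 : (2 * (kl + θ)) ^ p ≤ kb ^ p :=
      Real.rpow_le_rpow (by positivity) (by linarith) hp0
    gcongr
  · have h1 : 6 * κ⁻¹ * t / s = 3 * τ := by rw [ht, htb]; field_simp; norm_num
    rw [h1]
    have h2 : (12 * τ + 3 * τ + 6 * (1 - lam)) * V = 15 * τ * V + 48 * V * (1 - lam) / 8 := by ring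
    rw [h2]; linarith
  · have h1 : C * (2 ^ p * (Cp * eac + 2 * eP)) ≤
        C * (2 ^ p * (Cp * eac)) + C * (2 ^ p * 2 * q) := by
      have : (C : ℝ) * (2 ^ p * (Cp * eac + 2 * eP)) =
          C * (2 ^ p * (Cp * eac)) + C * (2 ^ p * 2 * eP) := by ring
      rw [this]
      gcongr
    linarith

end

end Crest.Agent.R096.Br_695
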