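import Crest.Agent.R096.Eax4_481

/-!
# Row 96 (S0127), EaX (helper481), part 5: **`preX`**, the composition (hot spare of 365's Eau7)
-/

set_option autoImplicit false
set_option linter.style.longLine false
set_option linter.unusedSectionVars false
set_option linter.unusedVariables false

open MeasureTheory Set Filter Topology Metric
open scoped ENNReal NNReal

namespace Crest.Agent.R096.Eax_481

open Crest.Agent.R096.Bsp_628 Crest.Agent.R096.Brk5_582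
open Crest.Agent.R096.SkC1_961 (E3 FoamD Hom3)
open Crest.Agent.R096.Er_594 (SH3)
open Crest.Agent.R096.EaX_766 (cbx lin ExIn)
open Crest.Agent.R096.Exa_365 (GoodW Wt)
open Crest.Agent.R096.Bxs_627 (ctr CoriE fD zz)
open Crest.Agent.R096.Mal_874 Crest.Agent.R096.Msh_810 Crest.Agent.R096.Msh_715
open Crest.Agent.R096.Ls_222 (eIn ea ev)
open Crest.Agent.R096.Fns_360
open Crest.Agent.R096.Mdd_360
open Crest.Agent.R096.Mbf_337 (Cores)
open Crest.Agent.R096.Mfa_880 (BxM QU NmB)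
open Crest.Agent.R096.Acc_365 (K1 K2)
open Crest.Agent.R096.Eaz_663
open Crest.Agent.R096.Exg_766
open Crest.Agent.R096.Enx_766
open Crest.Agent.R096.Eds_746 (EB card_EB core_sub_EB goodW_comp)
open Crest.Agent.R096.Eau_365 (BkX PreMesh PreX Jx Tx block_en exists_w0 measurable_Gd)
open Crest.Agent.R096.Pgn_112 (ZD GenIn GenOut WordsOk COu COu_ne_top pre_gen)
open Crest.Agent.R096.Pmc_112 (Gd' Kl)
open Crest.Agent.R096.PmcL_112 (KL KL_lt_top ea_pushL)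
open Crest.Agent.R096.Wd_120 (CoreAt)
open Crest.Agent.R96.Pm_199 (Dec)
open Crest.Agent.R96.EaP_899 (fX XD cm KQ KQ_nonneg)
open Crest.Agent.R96.Eam_466 (InB)
open Crest.Agent.R96.Wm4_748 (K3 K3_ne_top)

noncomputable section

set_option maxHeartbeats 1000000 in
theorem preX {p : ℝ} (hp2 : 2 < p) : PreX p := by
  have hp : 1 ≤ p := by linarith
  have hp0 : 0 ≤ p := by linarith
  intro δ κ0 R c0 κ2 Md hδ hκ0 hR hc0 hcκ hκ2 hκ2' hMd C hC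
  have hκ00 : 0 < κ0 := by linarith
  -- step 0: the constants before `C1`
  obtain ⟨Bn, R0, hBn, hR0, HBk⟩ := exists_bkX hR hMd
  obtain ⟨CK, hCK1, hCK⟩ := Ucm1_374.exists_bound C Bn R0
  obtain ⟨C4, hC4, HE⟩ := block_en hp Bn hR0 hBn
  set a : ℝ≥0∞ := (ENNReal.ofReal CK * Kl δ R) ^ p with ha
  have hat : a ≠ ∞ := ENNReal.rpow_ne_top_of_nonneg hp0
    (ENNReal.mul_ne_top ENNReal.ofReal_ne_top (by unfold Kl; exact ENNReal.ofReal_ne_top))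
  set kq : ℝ≥0∞ := ENNReal.ofReal (KQ κ0 c0) with hkq
  set K3' : ℝ≥0∞ := K3 p (Mfb_290.nE Bn R0) 2 1 1 181 with hK3
  have hK3t : K3' ≠ ∞ := K3_ne_top hp0 (by norm_num)
  set K5 : ℝ≥0∞ := a * (8 * (K3' * kq ^ p)) with hK5
  set K6 : ℝ≥0∞ := a * (C4 * (kq * 2) ^ p) with hK6
  set KK : ℝ≥0∞ := K5 * ENNReal.ofReal (4 ^ p) + K6 * 2 ^ (p - 1) with hKK
  have hkqt : kq ≠ ∞ := ENNReal.ofReal_ne_top
  have hKKt : KK ≠ ∞ := by
    refine ENNReal.add_ne_top.2 ⟨ENNReal.mul_ne_top (ENNReal.mul_ne_top hat (ENNReal.mul_ne_top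
      (by norm_num) (ENNReal.mul_ne_top hK3t (ENNReal.rpow_ne_top_of_nonneg hp0 hkqt))))
      ENNReal.ofReal_ne_top, ENNReal.mul_ne_top (ENNReal.mul_ne_top hat (ENNReal.mul_ne_top
      ENNReal.coe_ne_top (ENNReal.rpow_ne_top_of_nonneg hp0 (ENNReal.mul_ne_top hkqt (by norm_num)))))
      (ENNReal.rpow_ne_top_of_nonneg (by linarith) (by norm_num))⟩
  obtain ⟨C1, hC1⟩ := exists_C1 (K := KK) hat (COu_ne_top hp0) (KL_lt_top (κ0 := κ0) (c0 := c0) hp).ne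
    hKKt
  refine ⟨C1, ?_⟩
  intro κp κ1' E lam2 hκp hκp1 hκ1' hκ12 hE hlam2 θ hθ hθ2
  -- step 1: the other constants
  obtain ⟨κ, hKC⟩ := exists_KC δ R c0 (κ0 := κ0) (κ2 := κ2 / 2) (κm := κ1') hκ00 (by positivity)
    hlam2 hκ1'
  have hκ := hKC.pos
  obtain ⟨κ3, hκ3, hκ3', hκ3l⟩ := exists_k3 hlam2 hκ2
  obtain ⟨m0, hm0, HBk⟩ := HBk (κ3 / 4) (by positivity)
  set m : ℕ := max m0 (⌈R0 / (2 * κ)⌉₊ + 1) with hmdef
  have hm : 0 < m := hm0.trans_le (le_max_left _ _)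
  have hm' : (0:ℝ) < m := by exact_mod_cast hm
  have hmη : R0 / (2 * m) ≤ κ := by
    have h1 : R0 / (2 * κ) ≤ m := by
      refine (Nat.le_ceil _).trans ?_
      exact_mod_cast (Nat.le_succ _).trans (le_max_right _ _)
    rw [div_le_iff₀ (by positivity)] at h1 ⊢
    linarith
  obtain ⟨Nb, HBk⟩ := HBk m (le_max_left _ _)
  obtain ⟨κw, hκw, HW⟩ := words_eax hδ hκ0 hR hκp hc0 hlam2 hm
  set τ : ℝ := min (min (κ / 8) (κw / 8)) (min (κ3 / 8) (θ / 16)) with hτdef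
  have hτ : 0 < τ := lt_min (lt_min (by positivity) (by positivity))
    (lt_min (by positivity) (by positivity))
  have t1 : τ ≤ κ / 8 := (min_le_left _ _).trans (min_le_left _ _)
  have t2 : τ ≤ κw / 8 := (min_le_left _ _).trans (min_le_right _ _)
  have t3 : τ ≤ κ3 / 8 := (min_le_right _ _).trans (min_le_left _ _)
  have t4 : τ ≤ θ / 16 := (min_le_right _ _).trans (min_le_right _ _)
  set ρ0 : ℝ := τ / κ0 with hρ0def
  have hρ0 : 0 < ρ0 := by positivity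
  have hρκ : ρ0 * κ0 = τ := by rw [hρ0def]; field_simp
  have hρτ : ρ0 ≤ τ := by
    rw [← hρκ]
    exact le_mul_of_one_le_right hρ0.le hκ0
  obtain ⟨dk, hdk⟩ : ∃ dk : ℕ, 4 * (1 / 2 ^ (3 + dk)) ≤ ρ0 := by
    obtain ⟨n, hn⟩ := exists_pow_lt_of_lt_one (show 0 < ρ0 / 4 by positivity)
      (by norm_num : (1 / 2 : ℝ) < 1)
    refine ⟨n, ?_⟩
    have h1 : (1:ℝ) / 2 ^ (3 + n) ≤ (1 / 2) ^ n := by
      rw [one_div_pow]
      exact one_div_le_one_div_of_le (by positivity) (pow_le_pow_right₀ (by norm_num) (by omega))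
    linarith
  have hBs1 : 1 ≤ max Bn ⌈R0⌉₊ := hBn.trans (le_max_left _ _)
  obtain ⟨NC, HNC⟩ := card_EB hBs1 (Nb : ℝ) (Nat.cast_nonneg _) dk
  set η : ℝ := min 1 (κw ^ p) with hηdef
  have hη : 0 < η := lt_min one_pos (by positivity)
  have hη1 : η ≤ 1 := min_le_left _ _
  have hηw : (ENNReal.ofReal η ^ (1 / p)).toReal ≤ κw := by
    rw [← ENNReal.toReal_rpow, ENNReal.toReal_ofReal hη.le]
    calc η ^ (1 / p) ≤ (κw ^ p) ^ (1 / p) :=
          Real.rpow_le_rpow hη.le (min_le_right _ _) (by positivity)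
      _ = κw := by rw [← Real.rpow_mul hκw.le, mul_one_div_cancel (by linarith), Real.rpow_one]
  obtain ⟨κa, hκa, HK1⟩ := exists_k1 (κ0 := κ0) hκ00 hκ2 hκ1' hκ3l
  obtain ⟨κE, hκE, HKE⟩ := exists_κ1E (κ0 := κ0) hKKt hE hκ00
  set κ1 : ℝ := min (min κa κE) (min τ (η * ρ0 ^ 3 / (4 * (NC + 1)))) with hκ1def
  have hκ1 : 0 < κ1 := lt_min (lt_min hκa hκE) (lt_min hτ (by positivity))
  have s1 : κ1 ≤ κa := (min_le_left _ _).trans (min_le_left _ _)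
  have s2 : κ1 ≤ κE := (min_le_left _ _).trans (min_le_right _ _)
  have s3 : κ1 ≤ τ := (min_le_right _ _).trans (min_le_left _ _)
  have s4 : NC * κ1 ≤ 1 / 4 * η * ρ0 ^ 3 := by
    have h1 : κ1 ≤ η * ρ0 ^ 3 / (4 * (NC + 1)) := (min_le_right _ _).trans (min_le_right _ _)
    have hN : (0:ℝ) ≤ NC := Nat.cast_nonneg _
    rw [le_div_iff₀ (by positivity)] at h1
    nlinarith
  refine ⟨κ1, hκ1, ?_⟩
  intro Om La f D hOm hOb hOc hLa hLb hLc hSH o u hu F bf cmp hDy hst X hpX A lam hlam hEx ε hε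
  -- step 2: the data
  have hl : ∀ c ∈ X, c0 ≤ lx θ lam c := by
    intro c hc
    have h1 := (hlam c hc).1
    show c0 ≤ (1 + θ) * lam c
    nlinarith
  have hl1 : ∀ c ∈ X, lx θ lam c < 1 := fun c hc => (hlam c hc).2.1.trans_lt hlam2
  obtain ⟨zc, H, hz, -, D', hDm, -, hDv, hDle, -, hDS⟩ := ea_pushL hp hκ0 hc0 hcκ hOm hLa
    hSH.homeo hSH.vwd bf cmp X hpX (lx θ lam) hl hl1 (N := ∅) measure_empty
  have G : XG p Om f D o u κ0 κ1 κ2 κ3 κ1' θ F X A lam := exg hLa hSH.homeo bf hκ00 hκ2 hκ2' hκ3 hκ3'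
    (HK1 κ1 hκ1 s1) hθ hθ2 hc0 (fun c hc => ⟨(hlam c hc).1, (hlam c hc).2.1⟩) hEx
  obtain ⟨Q0, hQ0⟩ := HBk hLa bf cmp hu hDy X A (lx θ lam) fun c hc => by
    obtain ⟨h1, h2, q, hq⟩ := hlam c hc
    refine ⟨G.lpos c hc, ⟨(1 + θ) * q, ?_⟩, (hEx c hc).rat⟩
    show (1 + (θ : ℝ)) * lam c = _
    rw [hq]
    push_cast
    ring
  have hpos : ∀ c : F, c.1.Pos := fun c => bf.pos _ c.2
  have hasp : ∀ c : F, ∀ k, c.1.sz ≤ κ0 * c.1.side k := fun c => bf.asp _ c.2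
  have hθ1 : (θ : ℝ) ≤ 1 := by linarith
  obtain ⟨x, Rz, hInB, hRz, r, hr0, hr1, HG⟩ := eax_gen hp hOm hLa hSH hδ hκ0 (by linarith) bf cmp
    (κ3 := κ3) (κ4 := κ3 / 4) (τ1 := 2 * τ) (τ := τ) hκ2' hκ1.le hKC hlam2 (by linarith) hτ
    (by linarith) (by linarith) hm hR0 hBn hmη (fun c hc => (hlam c hc).2.1) G
    (fun c hc => (hQ0 c hc).1) H
  -- the good sets of the blocks
  have hk : ∀ c : X, (Q0 c.1).kc ≤ 3 + dk := fun c => by rw [(hQ0 c.1 c.2).1.kc]; omega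
  have hKcore : ∀ c ∈ X, (Q0 c).Kc = A c ⁻¹' cbx c.1 ((1 + θ) * lam c) := fun c hc => (hQ0 c hc).1.Kc
  have hNc : ∀ c ∈ X, (Q0 c).N ⊆ A c ⁻¹' cbx c.1 ((1 + 2 * (κ3 / 4)) * ((1 + θ) * lam c)) :=
    fun c hc => (hQ0 c hc).1.N
  have hlc : ∀ c ∈ X, 0 < lam c := fun c hc => hc0.trans_le (hlam c hc).1
  have hsz : ∀ c : X, 0 < (1 + θ) * lam c * c.1.1.sz := fun c =>
    mul_pos (G.lpos c c.2) (Bx.sz_pos (hpos c))
  have hEB : ∀ c : X, (EB (Q0 c.1) (3 + dk) (hk c)).Finite ∧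
      (EB (Q0 c.1) (3 + dk) (hk c)).ncard ≤ NC := by
    intro c
    have hB := (hQ0 c.1 c.2).1
    refine HNC (Q0 c.1) (3 + dk) (hk c) (by rw [hB.kc]) (fun i p hp l => ?_)
      (fun i hi v hv w hw l => ?_) (fun l => by exact_mod_cast (hQ0 c.1 c.2).2 l)
    · exact (hB.bnd i p hp l).trans (by exact_mod_cast le_max_left _ _)
    · refine (hB.size i hi v hv w hw l).trans ((Nat.le_ceil R0).trans ?_)
      exact_mod_cast le_max_right _ _
  have hblk := fun c : X => HE hOm hSH (G.ex c c.2) hm (hQ0 c.1 c.2).1 (hk c)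
    (mul_pos hρ0 (hsz c)) (num1 G bf hρ0 hm hdk c.2) (num2 G bf hρ0 hρκ t3 hκ3 hκ3' c.2)
    (NC := NC) (hEB c).1 (hEB c).2 hη (by have := hsz c; positivity)
    (num3 (hsz c).le s4) hDm (KQ_nonneg hκ0) (G.hS c c.2)
    (ae_dir bf hz hDle c.2 fun x hx => G.vimg c c.2 x hx.1)
    (shift_Sx G bf hκ0 hρ0 hρκ t3 t4 hθ hθ1 hκ3 c.2 (hlc c c.2) (hNc c c.2) (hKcore c c.2))
  choose Gs gs1 gs2 gs3 gs4 using hblk
  choose w1 κv gv1 gv2 gv3 using fun c : X => exists_w0 (gs3 c) (hr0 c) (hr0 c)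
  classical
  set w0 : F → E3 := fun c => if h : c ∈ X then w1 ⟨c, h⟩ else 0 with hw0def
  have hw0 : ∀ c : X, w0 c.1 = w1 c := fun c => by
    simp only [hw0def]
    rw [dif_pos c.2]
  have hw0s : ∀ c : X, ‖lin (A c) (w0 c)‖ ≤ 2 * τ * ((1 + θ) * lam c * c.1.1.sz) ∧
      ∀ k, |lin (A c) (w0 c) k| ≤ 2 * τ * ((1 + θ) * lam c * c.1.1.side k) := by
    intro c
    rw [hw0 c]
    obtain ⟨y, hy, hyw⟩ := gv2 c
    have h1 := wt_le G bf hκ0 hρ0 hρκ c.2 (gs2 c hy)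
    have h2 := hr1 c (w1 c - y) hyw.le
    have e : w1 c = y + (w1 c - y) := by abel
    constructor
    · rw [e, map_add]
      refine (norm_add_le _ _).trans ?_
      linarith [h1.1, h2.1]
    · intro k
      rw [e, map_add, Pi.add_apply]
      refine (abs_add_le _ _).trans ?_
      linarith [h1.2 k, h2.2 k]
  obtain ⟨M, Y, κd, Zd, b1, b2, b3, b4, b5, b6, b7, b8, b9, b10, b11⟩ := HG w0
    (fun c hc => ⟨κv ⟨c, hc⟩, by rw [hw0 ⟨c, hc⟩]; exact gv1 ⟨c, hc⟩⟩)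
    (fun c hc => hw0s ⟨c, hc⟩)
  set Gd : X → Set E3 := fun c => {s | ‖s‖ ≤ r c ∧ w0 c + s ∈ Gs c} with hGd
  have hGdm : ∀ c, MeasurableSet (Gd c) := fun c => measurable_Gd (gs1 c) (r c) (w0 c)
  have hGd0 : ∀ c, volume (Gd c) ≠ 0 := by
    intro c
    have h1 := gv3 c
    rw [← hw0 c] at h1
    exact h1
  have hsm : ∀ c : X, ∀ v ∈ Gd c, ‖lin (A c) v‖ ≤ τ * ((1 + θ) * lam c * c.1.1.sz) ∧
      ∀ k, |lin (A c) v k| ≤ τ * ((1 + θ) * lam c * c.1.1.side k) := fun c v hv => hr1 c v hv.1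
  set B : X → ℝ≥0∞ := fun c => a * (C4 * (kq * (1 + ENNReal.ofReal η ^ (1 / p))) ^ p *
      ‖lin (A c)‖ₑ ^ p * volume ((Q0 c.1).N \ (Q0 c.1).Kc) + 8 * (K3' * (‖lin (A c)‖ₑ ^ p *
        ∫⁻ z in Sx F A lam θ κ3 c, ‖(D' z).comp (lin (A c).symm)‖ₑ ^ p))) with hBdef
  have hk0 : ∀ j : X, (M.Q j).kc ≤ 3 + dk := fun j => by
    rw [b3]
    exact hk j
  have hfc : ContinuousOn f Om := by
    obtain ⟨fi, f1, f2, f3, f4, f5, f6⟩ := hSH.homeo
    exact f5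
  have hgw : ∀ c : X, ∀ v ∈ Gd c, GoodW p Om f D (A c)
      (fun e : {e // e ∈ eIn ((Q0 c.1).T (3 + dk) (hk c)) ((Q0 c.1).cix (3 + dk) (hk c))} => ea e.1)
      (fun e => ev e.1) (ENNReal.ofReal η) (w0 c + v) := by
    intro c v hv
    exact goodW_comp (gs4 c _ hv.2).1 fun e : {e // e ∈ eIn ((Q0 c.1).T (3 + dk) (hk c))
      ((Q0 c.1).cix (3 + dk) (hk c))} => (⟨e.1, core_sub_EB _ _ _ e.2⟩ : EB (Q0 c.1) (3 + dk) (hk c))
  have hcl : ∀ c : X, ∀ v ∈ Gd c, ∀ y ∈ ((M.Q c).tr v).N,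
      ‖f y - A c y‖ + ‖lin (A c) (w0 c + v)‖ ≤ κw * (lx θ lam c * c.1.1.sz) := by
    intro c v hv y hy
    have h1 := (b10 c v hv.1 y hy).2.2
    have h2 := (hw0s c).1
    have h3 := (hsm c v hv).1
    refine (hcl_of (Om := Om) h1 h2 h3).trans (mul_le_mul_of_nonneg_right ?_ (hsz c).le)
    linarith
  have hen : ∀ j : X, ∀ s ∈ Gd j,
      ∑' c, a * (QU M Y (fun _ => 3 + dk) hk0 j).EnC (Gd' D') p c s ≤ B j := by
    intro j s hs
    rw [ENNReal.tsum_mul_left]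
    refine mul_le_mul' le_rfl ?_
    exact (gs4 j _ hs.2).2 M Y j (w0 j) s (congrFun b3 j) rfl (b5 j).le (b6 j).le (hk0 j) _ _
      (Uni_663.KU_countable _) (countable_singleton 0)
  have GI := b11 p κp D' (fun _ => m) (fun _ => 3 + dk) hk0 Gd (fun _ _ => a) B
    (fun j v hv => hv.1) hGdm hGd0
    (HW La Om hLa F bf cmp c0 X (lx θ lam) zc H f p hp hfc D κ1' (κ2 / 2) (by linarith)
      (fun c hc => ⟨hl c hc, (hlam c hc).2.1⟩) A (κ3 / 4) Bn R0 Q0 (fun c hc => (hQ0 c hc).1)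
      (fun _ => 3 + dk) hk (ENNReal.ofReal η) ENNReal.ofReal_ne_top hηw w0 M b2 b3 Gd hgw hcl) hen
  have hdir : ∀ c : X, ∀ᵐ x, x ∈ Sx F A lam θ κ3 c → ∀ v, ‖D' x v‖ ≤ KQ κ0 c0 * ‖D x v‖ := fun c =>
    ae_dir bf hz hDle c.2 fun x hx => G.vimg c c.2 x hx.1
  have hSB : ∑' c, B c ≤ KK * (Jx p Om D F X A lam +
      ENNReal.ofReal (κ1 * κ0 ^ 3) * Tx p F X A lam) :=
    inner_sum2 hp hSH hκ1.le bf.countable (fun c _ => hpos c) (fun c hc => (hlc c hc).le)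
      (fun c _ => hasp c) hEx G.hS G.hSV G.hSd G.hSK fun c =>
        enB_le hp (ENNReal.ofReal_le_one.2 hη1)
          (measure_mono (N_sub_Sx G bf hθ hκ3 c.2 (hlc c c.2) (hNc c c.2) (hKcore c c.2)))
          (dcomp_le (G.hS c c.2) (KQ_nonneg hκ0) hp0 (hdir c) _)
  have hIo : (∫⁻ x in Om \ NmB M (BxM M), ‖D' x‖ₑ ^ p) ≤ KL κ0 c0 p * Jx p Om D F X A lam :=
    outer_le bf hOm hθ.le (fun c hc => (hlc c hc).le) hDS M b1 (Q0 := fun c : X => Q0 c.1)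
      (w0 := fun c : X => w0 c.1) (τ := τ) (τ1 := 2 * τ) (fun c => congrFun b3 c)
      (fun c => hKcore c c.2) (fun c => (hw0s c).2) (fun c s hs => (hr1 c s (by
        rw [b4] at hs
        exact hs)).2) (by nlinarith) (fun c x hx => G.vimg c c.2 x
        (b9 c (self_subset_cthickening _ hx))) (fun j => by
        show ‖M.φ 0‖ ≤ M.r j
        rw [map_zero, norm_zero, b4]
        exact (hr0 j).le) (fun j => Subset.rfl)
  have hfin : ∫⁻ x in Om, ‖D' x‖ₑ ^ p ≠ ∞ :=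
    ne_top_of_le_ne_top (ENNReal.mul_ne_top (KL_lt_top hp).ne hSH.energy)
      (hDS Om subset_rfl hOm.measurableSet fun c _ => Or.inl fun x hx _ => hx)
  have hout := pre_gen (Φ := fX bf cmp H) (Df := D) hOm hOc.nonempty hLa hδ (by linarith)
    hSH.homeo hSH hDm hDv hfin hp hκp hκp1 (by positivity) hκ12 (fun 𝒦 => (hC 𝒦).le) (Cs := CK)
    (fun 𝒦 h => hCK 𝒦 (Or.inl h)) (Cm := fun _ _ => CK)
    (fun j c 𝒦 h => hCK 𝒦 (Ucm1_374.qSh_LB Y j (3 + dk) (hk0 j) (b5 j).le (b6 j).le c h)) b2 GI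
    hε (εb := fun _ => 1) (fun _ => one_ne_zero)
  refine preMesh_gen (Q0 := Q0) (w0 := w0) le_rfl hpX b3 hKcore (fun c v hv k => ?_)
    (by rw [b7, b8]; exact hInB) (fun c => by rw [b8]; exact hRz c)
    (fun y hy => pre_energy hy hIo hSB (HKE κ1 hκ1 s2) hC1) hout
  rw [map_add, Pi.add_apply]
  refine (abs_add_le _ _).trans ?_
  have h1 := (hw0s c).2 k
  have h2 := (hsm c v hv).2 k
  have h3 : 0 < lam c * c.1.1.side k := mul_pos (hlc c c.2) (Bx.side_pos (hpos c) k)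
  have h4 : 3 * τ * (1 + θ) ≤ θ / 2 := by nlinarith
  have h5 : 3 * τ * (1 + θ) * (lam c * c.1.1.side k) ≤ θ / 2 * (lam c * c.1.1.side k) := by gcongr
  calc |lin (A c) (w0 c) k| + |lin (A c) v k| ≤
        2 * τ * ((1 + θ) * lam c * c.1.1.side k) + τ * ((1 + θ) * lam c * c.1.1.side k) :=
        add_le_add h1 h2
    _ = 3 * τ * (1 + θ) * (lam c * c.1.1.side k) := by ring
    _ ≤ θ / 2 * (lam c * c.1.1.side k) := h5
    _ = _ := by ring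

end

end Crest.Agent.R096.Eax_481
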