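import Crest.Agent.R096.Exb1_766

/-!
Row 96 (S0127), helper766.  **`ExBlkN p`** (`Bmd_798`), part 2: the composition.
-/

set_option autoImplicit false
set_option linter.style.longLine false
set_option linter.unusedSectionVars false
set_option linter.unusedVariables false

open MeasureTheory Set Filter Topology Metric
open scoped ENNReal NNReal

namespace Crest.Agent.R096.Exb_766

open Crest.Agent.R096.Msh_715 Crest.Agent.R096.Mal_874 Crest.Agent.R096.Cut_874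
  Crest.Agent.R096.Msh_810 Crest.Agent.R096.Ine_222 Crest.Agent.R096.Mfi_290
open Crest.Agent.R096.SkC1_961 (E3 Hom3 FoamD)
open Crest.Agent.R096.Er_594 (SH3)
open Crest.Agent.R096.Bsp_628 Crest.Agent.R096.Brk5_582
open Crest.Agent.R096.Bxs_627 (ctr CoriE zz)
open Crest.Agent.R096.EaX_766 (lin cbx ExIn Kor RatA)
open Crest.Agent.R096.Exa_365 Crest.Agent.R096.Acc_365
open Crest.Agent.R096.Ls_222 (Edg ea ev eIn mem_eIn)
open Crest.Agent.R096.Pmc_112 (Gd')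
open Crest.Agent.R096.Eds_746 (EB)
open Crest.Agent.R96.Wm4_748 (K3)
open Crest.Agent.R096.Mdd_360 (BlkXi mdN)
open Crest.Agent.R096.Enn_766
open Crest.Agent.R96.Gj_872 (Dy)
open Crest.Agent.R096.Dic6_582 (dF kF)
open Crest.Agent.R096.Np_962 (Md ΦN Front3 kF_one cN_pos cN_le)
open Crest.Agent.R096.Npr_582 (cN)
open Crest.Agent.R096.Bmd_798
open Crest.Agent.R096.Fns_360 (trA FineS offO O34)
open Crest.Agent.R096.Gin_635

noncomputable section

/-- choice of the numbers after `κs`, `κw` -/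
theorem exists_nums {κs κw κ0 : ℝ} (hκs : 0 < κs) (hκw : 0 < κw) (hκ0 : 1 ≤ κ0) {p : ℝ}
    (hp : 1 ≤ p) :
    ∃ τ1 η : ℝ, 0 < τ1 ∧ τ1 ≤ κs ∧ τ1 ≤ κw / 4 ∧ 0 < η ∧ η ≤ 1 ∧
      ((ENNReal.ofReal η) ^ (1 / p)).toReal ≤ κw ∧ ∃ dk : ℕ, 2 * κ0 / τ1 ≤ 2 ^ dk ∧
      ∀ NC : ℕ, ∃ κ1f : ℝ, 0 < κ1f ∧ κ1f ≤ κs ∧ κ1f ≤ κw / 4 ∧ κ1f * κ0 ≤ 1 / 2 ∧
        κ1f * κ0 ^ 3 ≤ 1 ∧ (NC : ℝ) * κ1f ≤ (1 / 4) * η * (τ1 / (2 * κ0)) ^ 3 := by
  have hp0 : 0 < p := by linarith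
  have hκ00 : 0 < κ0 := by linarith
  set τ1 : ℝ := min κs (κw / 4) with hτ1
  have hτ10 : 0 < τ1 := lt_min hκs (by positivity)
  set η : ℝ := min 1 (κw ^ p) with hη
  have hη0 : 0 < η := lt_min one_pos (by positivity)
  refine ⟨τ1, η, hτ10, min_le_left _ _, min_le_right _ _, hη0, min_le_left _ _, ?_, ?_⟩
  · rw [ENNReal.ofReal_rpow_of_nonneg hη0.le (by positivity), ENNReal.toReal_ofReal (by positivity)]
    calc η ^ (1 / p) ≤ (κw ^ p) ^ (1 / p) :=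
          Real.rpow_le_rpow hη0.le (min_le_right _ _) (by positivity)
      _ = κw := by rw [← Real.rpow_mul hκw.le, mul_one_div_cancel hp0.ne', Real.rpow_one]
  · obtain ⟨dk, hdk⟩ := pow_unbounded_of_one_lt (2 * κ0 / τ1) (by norm_num : (1:ℝ) < 2)
    refine ⟨dk, hdk.le, fun NC => ?_⟩
    set b : ℝ := (1 / 4) * η * (τ1 / (2 * κ0)) ^ 3 with hb
    have hb0 : 0 < b := by positivity
    refine ⟨min (min κs (κw / 4)) (min (1 / (2 * κ0 ^ 3)) (b / (NC + 1))),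
      lt_min (lt_min hκs (by positivity)) (lt_min (by positivity) (by positivity)),
      (min_le_left _ _).trans (min_le_left _ _), (min_le_left _ _).trans (min_le_right _ _),
      ?_, ?_, ?_⟩
    · have h1 : min (min κs (κw / 4)) (min (1 / (2 * κ0 ^ 3)) (b / (NC + 1))) ≤ 1 / (2 * κ0 ^ 3) :=
        (min_le_right _ _).trans (min_le_left _ _)
      calc _ ≤ 1 / (2 * κ0 ^ 3) * κ0 := mul_le_mul_of_nonneg_right h1 hκ00.le
        _ = 1 / 2 * (1 / κ0 ^ 2) := by field_simp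
        _ ≤ 1 / 2 * 1 := by
          have : 1 ≤ κ0 ^ 2 := one_le_pow₀ hκ0
          have h3 : 1 / κ0 ^ 2 ≤ 1 := by rw [div_le_one (by positivity)]; exact this
          linarith
        _ = 1 / 2 := by ring
    · have h1 : min (min κs (κw / 4)) (min (1 / (2 * κ0 ^ 3)) (b / (NC + 1))) ≤ 1 / (2 * κ0 ^ 3) :=
        (min_le_right _ _).trans (min_le_left _ _)
      calc _ ≤ 1 / (2 * κ0 ^ 3) * κ0 ^ 3 := mul_le_mul_of_nonneg_right h1 (by positivity)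
        _ = 1 / 2 := by field_simp
        _ ≤ 1 := by norm_num
    · have h1 : min (min κs (κw / 4)) (min (1 / (2 * κ0 ^ 3)) (b / (NC + 1))) ≤ b / (NC + 1) :=
        (min_le_right _ _).trans (min_le_right _ _)
      calc (NC : ℝ) * _ ≤ (NC : ℝ) * (b / (NC + 1)) := by gcongr
        _ ≤ b := by
          rw [mul_div_assoc', div_le_iff₀ (by positivity)]
          nlinarith

/-- **`ExBlkN p`** (798's literal Prop (M4)) -/
theorem exBlkN {p : ℝ} (hp : 1 ≤ p) : ExBlkN p := by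
  classical
  intro q hq
  have hκ0 : 1 ≤ kF q := kF_one q
  obtain ⟨Bn, R0, hBn, hR0, HM⟩ := mdN hq
  obtain ⟨C4, HB⟩ := one_brick hp Bn hR0 hBn
  set K3' : ℝ≥0∞ := K3 p (Mfb_290.nE Bn R0) 2 1 1 181 with hK3'
  have hK3 : K3' ≠ ∞ := Crest.Agent.R96.Wm4_748.K3_ne_top (by linarith) (by norm_num)
  set KB : ℝ≥0∞ := KBN p C4 K3' (Pdn_635.Kq q) with hKB
  refine ⟨Bn, R0, KB, KBN_ne_top hp ENNReal.coe_ne_top hK3 _, ?_⟩
  intro κp hκp hκp1 lam0 hlam0 κ1 hκ1 hκ1F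
  obtain ⟨m, Nb, κs, hm, hκs, hκs256, hκs1, HM⟩ := HM lam0 κ1 hlam0 hκ1 hκ1F
  obtain ⟨κw, hκw, HW⟩ := wordsN (Dic6_582.dF_pos hq) hκ0 (by norm_num : (1:ℝ) ≤ 6) hκp hlam0 m
  obtain ⟨τ1, η, hτ1, hτs, hτw, hη, hη1, hηw, dk, hdk, HC⟩ := exists_nums hκs hκw hκ0 hp
  set Bs : ℕ := max Bn ⌈R0⌉₊ with hBs
  have hBs1 : 1 ≤ Bs := hBn.trans (le_max_left _ _)
  obtain ⟨NC, hNC⟩ := Eds_746.card_EB hBs1 (Nb : ℝ) (by positivity) dk
  obtain ⟨κ1f, hκf, hκfs, hκfw, hκf1, hκf3, hκfN⟩ := HC NC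
  refine ⟨κ1f, hκf, hκf1, ?_⟩
  intro s εf εf' Om La f hOm hOb hLa hLb Mf ρ0 h al F bf cmp lam hl hl4 A f1 D1 X HH g H D0 hC hD hF
  obtain ⟨fi, -, -, -, -, hfc, -⟩ := id H.c.homeo
  have hcor : ∀ c, CoriE Om f1 (A c) c.1 (lam c) κ1f (1 / 8) := fun c =>
    Exg_766.cori_of_exIn (H.ex c)
  obtain ⟨i, Q0, hQ0, hψ, r, hr0, hrs, HMM⟩ := HM κ1f τ1 τ1 hκf.le hκfs hτ1.le hτs hτ1 hτs Om La f1
    hOm hLa H.c.homeo h al F bf cmp lam hl hl4 A H.c.h0 H.dy H.rat (fun c => (H.ex c).rat) hcor D0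
    hC.ge hD (fun u hu => (hF u hu).2)
  obtain ⟨D', hD'1, -, hD'2, hD'3, -, -⟩ := Pdn_635.push_PhiN bf cmp lam hl hl4 hOm hLa H.sh
  -- the numbers of edges
  have hEB : ∀ c : F, ∀ hk : (Q0 c).kc ≤ (Q0 c).kc + dk,
      (EB (Q0 c) ((Q0 c).kc + dk) hk).Finite ∧ (EB (Q0 c) ((Q0 c).kc + dk) hk).ncard ≤ NC := by
    intro c hk
    refine hNC (Q0 c) _ hk le_rfl (fun i' p' hp' l => ?_) (fun i' hi' v hv w hw l => ?_) (fun l => ?_)
    · refine ((hQ0 c).bnd i' p' hp' l).trans ?_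
      exact_mod_cast le_max_left _ _
    · refine ((hQ0 c).size i' hi' v hv w hw l).trans ((Nat.le_ceil R0).trans ?_)
      exact_mod_cast le_max_right _ _
    · exact_mod_cast (hQ0 c).H l
  -- one brick
  have hbr : ∀ c : F, ∃ (w0 : E3) (κr : ℕ) (G : Set E3),
      w0 ∈ Dy (ContinuousLinearEquiv.refl ℝ E3) κr ∧
      (‖(A c).linear w0‖ ≤ τ1 * (lam c * c.1.sz) ∧
        ∀ k, |(A c).linear w0 k| ≤ τ1 * (lam c * c.1.side k)) ∧
      MeasurableSet {s : E3 | ‖s‖ ≤ r ⟨c, mem_univ c⟩ ∧ w0 + s ∈ G} ∧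
      volume {s : E3 | ‖s‖ ≤ r ⟨c, mem_univ c⟩ ∧ w0 + s ∈ G} ≠ 0 ∧
      ∀ w ∈ G, GoodW p Om f1 D1 (A c)
          (fun e : EB (Q0 c) ((Q0 c).kc + dk) (Nat.le_add_right _ _) => ea e.1) (fun e => ev e.1)
          (ENNReal.ofReal η) w ∧
        ∀ {J : Type} (M : MD E3 3 J) (X : RD M) (j : J) (s : E3), M.Q j = (Q0 c).tr w0 →
          w0 + s = w → X.B j ≤ Bn → X.R j ≤ R0 →
          ∀ (hk0 : (M.Q j).kc ≤ (Q0 c).kc + dk),
          ∑' c', (Uni_663.toPTU (QI M X j ((Q0 c).kc + dk) hk0)).EnC (Gd' D') p c' s ≤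
            KB * (ENNReal.ofReal ((1 / lam c * ‖lin (A c)‖) ^ p) *
              volume (A c ⁻¹' cbx c.1 (lam c))) := by
    intro c
    exact HB hOm H.sh bf hκ0 (hl c) (hl4 c) (H.ex c) hm (hQ0 c) hτ1 (hτs.trans hκs256) hdk
      (Nat.le_add_right _ _) rfl (hEB c _).1 (hEB c _).2 hη hη1 hκf.le hκf1 hκf3 hκfN hD'1
      (Pdn_635.Kq_nonneg q) (by
        filter_upwards [hD'3] with x hx hxc
        exact hx c hxc) (hr0 _)
  choose w0 κr G hw0 hw1 hGm hG0 hG using hbr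
  obtain ⟨M, Y, hφ, hMD, hMQ, hMr, hMO, hYB, hYR, hlev, hMψ, hMN, hcf⟩ := HMM w0 hw1 κr hw0
  have hk0 : ∀ j : UX F, (M.Q j).kc ≤ (Q0 j.1).kc + dk := by
    intro j
    rw [hMQ]
    exact Nat.le_add_right _ _
  refine ⟨D', w0, fun _ => m, M, Y, fun j => (Q0 j.1).kc + dk, hk0, fun j => κr j.1,
    fun j => {s : E3 | ‖s‖ ≤ r j ∧ w0 j.1 + s ∈ G j.1},
    fun j => KB * (ENNReal.ofReal ((1 / lam j.1 * ‖lin (A j.1)‖) ^ p) *
      volume (A j.1 ⁻¹' cbx j.1.1 (lam j.1))), hD'1, hD'2, hMD, hMN, ?_, ?_⟩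
  · exact
      { φ := hφ
        hOm := hMO
        ψ1 := hMψ
        bB := fun j => by rw [hYB]
        bR := fun j => by rw [hYR]
        h0 := hlev
        Gds := by
          intro j s' hs'
          show ‖M.φ s'‖ ≤ M.r j
          rw [hφ, hMr]
          exact hs'.1
        Gdm := fun j => hGm j.1
        Gd0 := fun j => hG0 j.1
        cf := fun c hc k hk a v hv _ => hcf c hc k hk a v hv
        words := by
          intro v hv Om' hOm' D00 hC0 hD00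
          subst hOm'
          refine HW La _ hLa F bf cmp (cN q) (cN_pos q) (cN_le q) lam hl hl4 (fun c => (H.rat c).1)
            univ (fun c => mem_univ c) f1 p hp hfc D1 κ1f (1 / 8) τ1 τ1 κ1 (1 / 16)
            (by linarith) (by linarith) (by norm_num) A hcor (fun c => Q0 c.1)
            (fun c => (Q0 c.1).kc + dk) (fun c => Nat.le_add_right _ _) (fun c => w0 c.1)
            (fun _ => m) (ENNReal.ofReal η) (fun c => le_rfl) (fun c => (hQ0 c.1).Kc)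
            (fun c => hw1 c.1) (fun c => ⟨hm, (hQ0 c.1).grid _ _⟩) ENNReal.ofReal_ne_top hηw v
            (fun c => hrs c (v c) (hv c).1) (fun c => ?_) D00 hC0 (fun c => ?_)
          · exact Eds_746.goodW_comp (hG c.1 _ (hv c).2).1
              (fun e : {e // e ∈ eIn ((Q0 c.1).T ((Q0 c.1).kc + dk) (Nat.le_add_right _ _))
                  ((Q0 c.1).cix ((Q0 c.1).kc + dk) (Nat.le_add_right _ _))} =>
                (⟨e.1, Eds_746.core_sub_EB _ _ _ e.2⟩ :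
                EB (Q0 c.1) ((Q0 c.1).kc + dk) (Nat.le_add_right _ _)))
          · have h1 := hD00 c
            rw [hMQ] at h1
            exact h1
        en := by
          intro j s' hs'
          have h1 := (hG j.1 _ hs'.2).2 M Y j s' (by rw [hMQ]) rfl (by rw [hYB]) (by rw [hYR])
            (hk0 j)
          exact h1 }
  · exact sum_front3 H fun j => le_rfl

end

end Crest.Agent.R096.Exb_766
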