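import Crest.Agent.R096.Gsc2_476

/-!
# Row 96 (S0127), helper476: the true scale of the tiles, part 3: stars, diameters, the mesh `h.T a`
of 855 ((G3), (G4), (G5) of 622 #11737 / #11859)
-/

set_option autoImplicit false
set_option linter.unusedSectionVars false

open Set Metric Topology Filter

namespace Crest.Agent.R096.Gsc_476

open Crest.AnalysisR.VecCalc3
open Crest.Agent.R096.Msh_715 Crest.Agent.R096.Msh_715.Tiling Crest.Agent.R096.Mal_874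
open Crest.Agent.R096.Msh_810 Crest.Agent.R096.Cut_874 Crest.Agent.R096.Msb_432
open Crest.Agent.R096.Gsm_432 Crest.Agent.R096.Nbr_896
open Crest.Agent.R096.Ca_855
open Crest.Agent.R96.En10_199 (P3)

variable {n : ℕ}

section mesh

variable [NeZero n] {E : Type*} [NormedAddCommGroup E] [NormedSpace ℝ E]
variable {J : Type*} (M : MD E n J) {k : J → ℕ} (hk : M.Sc k) (a : Fin n → ℝ)
  {v : J → E} (hv : M.Adm v)

/-- **(G5)** the star of a tile of block `j` with scale `+ 2 ≤ k j` -/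
theorem star_off {j : J} {t t' : {t // t ∉ cores M hk a hv} ⊕ CIx M}
    (hN : P ((meshS M hk a hv).H t) ⊆ (M.Bk v j).N) (h : scl M hk a hv t + 2 ≤ k j)
    (ht : (P ((meshS M hk a hv).H t) ∩ P ((meshS M hk a hv).H t')).Nonempty) :
    P ((meshS M hk a hv).H t') ⊆ (M.Bk v j).N ∧
      Disjoint (P ((meshS M hk a hv).H t')) (frontier (M.Bk v j).N) ∧
      scl M hk a hv t' ≤ scl M hk a hv t + 1 := by
  have h1 := scl_nbr M hk a hv ht
  exact ⟨nbr_in M hk a hv hN (by omega) ht, off_wall M hk a hv (by omega), h1⟩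

/-- **a tile lies in the block or its interior is disjoint from the block** -/
theorem in_or_out (j : J) (t : {t // t ∉ cores M hk a hv} ⊕ CIx M) :
    P ((meshS M hk a hv).H t) ⊆ (M.Bk v j).N ∨
      Disjoint (I ((meshS M hk a hv).H t)) (M.Bk v j).N := by
  rcases outer_or M hk a hv t with ⟨p, hp, rfl⟩ | ⟨l, hl⟩
  · right
    rw [Set.disjoint_left]
    intro x hx hxN
    have h3 := M.outer_touch hk a hv p (x := x) (I_sub_P _ hx) hxN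
    -- the interior of the tile would contain interior points of the block
    have h4 : x ∈ closure (interior (M.Bk v j).N) :=
      (blk_regular (M.Bk v j).ψ (M.Bk v j).a' (M.Bk v j).kc (bx (M.Bk v j).al (M.Bk v j).be)) hxN
    obtain ⟨y, hy1, hy2⟩ := mem_closure_iff.1 h4 _ (isOpen_I _) hx
    have h5 := M.outer_touch hk a hv p (x := y) (I_sub_P _ hy1) (interior_subset hy2)
    exact h5.2 hy2
  · by_cases hlj : l = j
    · left
      rw [← hlj]; exact hl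
    · right
      rw [Set.disjoint_left]
      intro x hx hxN
      exact hlj (same_block M (hl (I_sub_P _ hx)) hxN a hk hv)

/-- diameters of the outer pieces -/
theorem diam_out {p : M.OIx hk a hv} {h} {x y : E}
    (hx : x ∈ P ((meshS M hk a hv).H (Sum.inl ⟨Sum.inl p, h⟩)))
    (hy : y ∈ P ((meshS M hk a hv).H (Sum.inl ⟨Sum.inl p, h⟩))) :
    ‖M.φ x - M.φ y‖ ≤ 1 / 2 ^ scl M hk a hv (Sum.inl ⟨Sum.inl p, h⟩) := by
  have hsub : P ((M.mesh hk a hv).H (Sum.inl p)) ⊆ P ((M.ad hk a hv).T0.H p.1.par) :=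
    cut_tile_sub (hA := AF_ne) p.1
  have h1 := dist_cube ((AD.tile_T0 (M := M.ad hk a hv) _).1 (hsub hx))
    ((AD.tile_T0 (M := M.ad hk a hv) _).1 (hsub hy))
  rwa [dist_eq_norm] at h1

/-- **diameters of the tiles of a block**, in the coordinates of the frame -/
theorem diam_in {R0 : ℝ} {j : J}
    (hR : ∀ i, i ≠ (M.Q j).S.core → ∀ v ∈ ZP ((M.Q j).S.GG i), ∀ w ∈ ZP ((M.Q j).S.GG i),
      ∀ l, |w l - v l| ≤ R0)
    {t : {t // t ∉ cores M hk a hv} ⊕ CIx M}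
    (hN : P ((meshS M hk a hv).H t) ⊆ (M.Bk v j).N) {x y : E}
    (hx : x ∈ P ((meshS M hk a hv).H t)) (hy : y ∈ P ((meshS M hk a hv).H t)) :
    ‖(M.Q j).ψ x - (M.Q j).ψ y‖ ≤ max 1 R0 / 2 ^ scl M hk a hv t := by
  have key : ∀ (ψ : E ≃L[ℝ] (Fin n → ℝ)) (a' : Fin n → ℝ) (κ : ℕ) (R : ℝ), 0 ≤ R →
      (∀ m, |ps a' κ (ψ x) m - ps a' κ (ψ y) m| ≤ R) → ‖ψ x - ψ y‖ ≤ R / 2 ^ κ := by
    intro ψ a' κ R hR h
    have hp : (0 : ℝ) < 2 ^ κ := by positivity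
    rw [pi_norm_le_iff_of_nonneg (by positivity)]
    intro m
    rw [le_div_iff₀' hp, Pi.sub_apply, Real.norm_eq_abs]
    have h4 := h m
    unfold ps at h4
    have e : 2 ^ κ * (ψ x m - a' m) - 2 ^ κ * (ψ y m - a' m) = 2 ^ κ * (ψ x m - ψ y m) := by ring
    rwa [e, abs_mul, abs_of_pos hp] at h4
  have hm : (1 : ℝ) ≤ max 1 R0 := le_max_left _ _
  rcases t with ⟨p | ⟨l, i⟩, ht⟩ | ⟨l, z⟩
  · exact (not_outer M hk a hv hN).elim
  · obtain rfl : l = j := same_block M (i.2 hx) (hN hx) a hk hv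
    rcases hi1 : i.1 with τ | s
    · have hx' : x ∈ P (((M.Bk v l).T (k l) (hk.kc l)).H i.1) := hx
      have hy' : y ∈ P (((M.Bk v l).T (k l) (hk.kc l)).H i.1) := hy
      rw [hi1] at hx' hy'
      have e : scl M hk a hv (Sum.inl ⟨Sum.inr ⟨l, i⟩, ht⟩) = τ.1.1.1.k := by
        show iscl (M.Bk v l) (k l) (hk.kc l) i.1 = _
        rw [hi1]; rfl
      have h1 := dist_cube (((M.Bk v l).tile_T0 (k l) (hk.kc l)).1 hx')
        (((M.Bk v l).tile_T0 (k l) (hk.kc l)).1 hy')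
      rw [dist_eq_norm] at h1
      rw [e]
      exact h1.trans (div_le_div_of_nonneg_right hm (by positivity))
    · have hx' : x ∈ P (((M.Bk v l).T (k l) (hk.kc l)).H i.1) := hx
      have hy' : y ∈ P (((M.Bk v l).T (k l) (hk.kc l)).H i.1) := hy
      rw [hi1] at hx' hy'
      have e : scl M hk a hv (Sum.inl ⟨Sum.inr ⟨l, i⟩, ht⟩) = (M.Q l).kc := by
        show iscl (M.Bk v l) (k l) (hk.kc l) i.1 = _
        rw [hi1]; rfl
      have hx2 := mem_P_iH.1 (show x ∈ P (iH (M.Bk v l).ψ (M.Bk v l).a' (M.Bk v l).kc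
        ((M.Bk v l).S.GG s)) from hx')
      have hy2 := mem_P_iH.1 (show y ∈ P (iH (M.Bk v l).ψ (M.Bk v l).a' (M.Bk v l).kc
        ((M.Bk v l).S.GG s)) from hy')
      have hs : s ≠ (M.Q l).S.core := by
        rintro rfl
        exact ht ⟨l, congrArg (fun q : M.IIx hk a hv l => (Sum.inr ⟨l, q⟩ :
          M.OIx hk a hv ⊕ Σ j, M.IIx hk a hv j)) (Subtype.ext hi1)⟩
      rw [e]
      refine key (M.Q l).ψ (M.Bk v l).a' (M.Q l).kc _ (by linarith) fun m => ?_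
      exact (hR s hs _ hy2 _ hx2 m).trans (le_max_right _ _)
  · have hx0 : x ∈ (M.Bk v l).Kc := cubH_sub (M := M) (v := v) ⟨l, z⟩ hx
    obtain rfl : l = j := same_block M (Kc_sub_N _ hx0) (hN hx) a hk hv
    refine key (M.Q l).ψ (M.Bk v l).a' (M.Q l).kc _ (by linarith) fun m => ?_
    have hx' := (mem_cuH (M.Bk v l)).1 hx m
    have hy' := (mem_cuH (M.Bk v l)).1 hy m
    refine le_trans ?_ hm
    rw [abs_le]
    constructor
    · have h1 := hx'.1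
      have h2 := hy'.2
      show (-1 : ℝ) ≤ ps (M.Bk v l).a' (M.Bk v l).kc ((M.Bk v l).ψ x) m -
        ps (M.Bk v l).a' (M.Bk v l).kc ((M.Bk v l).ψ y) m
      linarith
    · have h1 := hx'.2
      have h2 := hy'.1
      show ps (M.Bk v l).a' (M.Bk v l).kc ((M.Bk v l).ψ x) m -
        ps (M.Bk v l).a' (M.Bk v l).kc ((M.Bk v l).ψ y) m ≤ (1 : ℝ)
      linarith

end mesh

/-! ### the mesh `h.T a` of 855 -/

section T

variable {Om W : Set R3} {ρ₀ : R3 → ℝ} {J : Type} {Qb : J → CB R3 3} {k0 : ℕ} {σ : ℝ}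
  [Finite J]

/-- **the true scale of a tile of `h.T a`** -/
noncomputable def sclT (h : MIn Om W ρ₀ Qb k0 σ) (a : R3) (t : h.ιT a) : ℕ :=
  scl h.M h.sc (0 + h.M.φ (h.cl a)) (h.adm a) t

theorem P_T (h : MIn Om W ρ₀ Qb k0 σ) (a : R3) (t : h.ιT a) :
    P ((h.T a).H t) = P ((h.Ts a).H t) := rfl

variable (h : MIn Om W ρ₀ Qb k0 σ) {a : R3}

/-- neighbours -/
theorem sclT_nbr {t t' : h.ιT a} (ht : (P ((h.T a).H t) ∩ P ((h.T a).H t')).Nonempty) :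
    sclT h a t' ≤ sclT h a t + 1 := scl_nbr _ _ _ _ ht

include h in
theorem Bk_eq (ha : ‖a‖ ≤ σ / 8) (j : J) : h.M.Bk (fun _ => h.cl a) j = (Qb j).tr a := by
  show (Qb j).tr (h.cl a) = _
  rw [h.cl_eq ha]

/-- tiles at the wall -/
theorem sclT_wall (ha : ‖a‖ ≤ σ / 8) {j : J} {t : h.ιT a} {x : R3} (hx : x ∈ P ((h.T a).H t))
    (hf : x ∈ frontier ((Qb j).tr a).N) : sclT h a t = k0 := by
  rw [← Bk_eq h ha j] at hf
  exact scl_wall h.M h.sc _ (h.adm a) hx hf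

theorem sclT_mem (ha : ‖a‖ ≤ σ / 8) {j : J} {t : h.ιT a}
    (hN : P ((h.T a).H t) ⊆ ((Qb j).tr a).N) : (Qb j).kc ≤ sclT h a t ∧ sclT h a t ≤ k0 := by
  rw [← Bk_eq h ha j] at hN
  exact scl_mem h.M h.sc _ (h.adm a) hN

theorem off_wallT (ha : ‖a‖ ≤ σ / 8) (j : J) {t : h.ιT a} (ht : sclT h a t < k0) :
    Disjoint (P ((h.T a).H t)) (frontier ((Qb j).tr a).N) := by
  rw [← Bk_eq h ha j]
  exact off_wall h.M h.sc _ (h.adm a) ht

theorem nbr_inT (ha : ‖a‖ ≤ σ / 8) {j : J} {t t' : h.ιT a}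
    (hN : P ((h.T a).H t) ⊆ ((Qb j).tr a).N) (ht : sclT h a t < k0)
    (htt : (P ((h.T a).H t) ∩ P ((h.T a).H t')).Nonempty) :
    P ((h.T a).H t') ⊆ ((Qb j).tr a).N := by
  rw [← Bk_eq h ha j] at hN ⊢
  exact nbr_in h.M h.sc _ (h.adm a) hN ht htt

/-- **(G5)** -/
theorem star_offT (ha : ‖a‖ ≤ σ / 8) {j : J} {t t' : h.ιT a}
    (hN : P ((h.T a).H t) ⊆ ((Qb j).tr a).N) (ht : sclT h a t + 2 ≤ k0)
    (htt : (P ((h.T a).H t) ∩ P ((h.T a).H t')).Nonempty) :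
    P ((h.T a).H t') ⊆ ((Qb j).tr a).N ∧
      Disjoint (P ((h.T a).H t')) (frontier ((Qb j).tr a).N) ∧
      sclT h a t' ≤ sclT h a t + 1 := by
  rw [← Bk_eq h ha j] at hN ⊢
  exact star_off h.M h.sc _ (h.adm a) hN ht htt

theorem in_or_outT (ha : ‖a‖ ≤ σ / 8) (j : J) (t : h.ιT a) :
    P ((h.T a).H t) ⊆ ((Qb j).tr a).N ∨ Disjoint (I ((h.T a).H t)) ((Qb j).tr a).N := by
  rw [← Bk_eq h ha j]
  exact in_or_out h.M h.sc _ (h.adm a) j t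

include h in
/-- the blocks at the position `a` are disjoint -/
theorem same_blockT (ha : ‖a‖ ≤ σ / 8) {j l : J} {x : R3} (hj : x ∈ ((Qb j).tr a).N)
    (hl : x ∈ ((Qb l).tr a).N) : j = l := by
  rw [← Bk_eq h ha j] at hj
  rw [← Bk_eq h ha l] at hl
  exact same_block h.M hj hl (0 + h.M.φ (h.cl a)) h.sc (h.adm a)

/-- a tile which is in no block is an outer piece -/
theorem outer_orT (ha : ‖a‖ ≤ σ / 8) (t : h.ιT a) :
    (∃ p, ∃ hp, t = Sum.inl ⟨Sum.inl p, hp⟩) ∨ ∃ j, P ((h.T a).H t) ⊆ ((Qb j).tr a).N := by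
  rcases outer_or h.M h.sc (0 + h.M.φ (h.cl a)) (h.adm a) t with h1 | ⟨j, hj⟩
  · exact Or.inl h1
  · right
    refine ⟨j, ?_⟩
    rw [← Bk_eq h ha j]
    exact hj

/-- **(G4)** : a tile of block `j` with scale `> kc` is near the wall -/
theorem near_wall_sclT (ha : ‖a‖ ≤ σ / 8) {j : J} {t : h.ιT a}
    (hN : P ((h.T a).H t) ⊆ ((Qb j).tr a).N) (ht : (Qb j).kc < sclT h a t) {y : R3}
    (hy : y ∈ P ((h.T a).H t)) :
    ∃ z ∈ frontier ((Qb j).tr a).N, ‖(Qb j).ψ y - (Qb j).ψ z‖ ≤ 14 / 2 ^ sclT h a t := by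
  rw [← Bk_eq h ha j] at hN ⊢
  exact near_wall_scl h.M h.sc _ (h.adm a) hN ht hy

/-- **(G4)** with `K0` -/
theorem near_wallT (ha : ‖a‖ ≤ σ / 8) {j : J} {t : h.ιT a} {K0 : ℕ}
    (hN : P ((h.T a).H t) ⊆ ((Qb j).tr a).N) (ht : k0 ≤ sclT h a t + K0)
    (hK : (Qb j).kc + K0 < k0) {y : R3} (hy : y ∈ P ((h.T a).H t)) :
    ∃ z ∈ frontier ((Qb j).tr a).N, ‖(Qb j).ψ y - (Qb j).ψ z‖ ≤ 14 * 2 ^ K0 / 2 ^ k0 := by
  rw [← Bk_eq h ha j] at hN ⊢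
  exact near_wall h.M h.sc _ (h.adm a) hN ht hK hy

/-- the scale and the outer pieces which meet a block -/
theorem near_wall_outT (ha : ‖a‖ ≤ σ / 8) {j : J} {t : h.ιT a}
    (hN : ¬ P ((h.T a).H t) ⊆ ((Qb j).tr a).N) (hm : (P ((h.T a).H t) ∩ ((Qb j).tr a).N).Nonempty)
    {y : R3} (hy : y ∈ P ((h.T a).H t)) :
    sclT h a t = k0 ∧ ∃ z ∈ frontier ((Qb j).tr a).N, z ∈ P ((h.T a).H t) ∧
      ‖P3.symm y - P3.symm z‖ ≤ 1 / 2 ^ k0 ∧ ‖y - z‖ ≤ 2 / 2 ^ k0 := by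
  rcases outer_orT h ha t with ⟨p, hp, rfl⟩ | ⟨l, hl⟩
  · have hm' := hm
    rw [← Bk_eq h ha j] at hm'
    obtain ⟨z, hz, hz2, h1⟩ :=
      near_wall_out h.M h.sc (0 + h.M.φ (h.cl a)) (h.adm a) (h := hp) hm' hy
    have h2 : ‖P3.symm y - P3.symm z‖ ≤ 1 / 2 ^ k0 := h1
    have hz' : z ∈ frontier ((Qb j).tr a).N := by rw [← Bk_eq h ha j]; exact hz
    refine ⟨sclT_wall h ha hz2 hz', z, hz', hz2, h2, ?_⟩
    have h3 := dist_le_P3s y z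
    rw [dist_eq_norm, dist_eq_norm] at h3
    calc ‖y - z‖ ≤ 2 * ‖P3.symm y - P3.symm z‖ := h3
      _ ≤ 2 * (1 / 2 ^ k0) := by gcongr
      _ = 2 / 2 ^ k0 := by ring
  · exfalso
    obtain ⟨x, hx, hxN⟩ := hm
    obtain rfl := same_blockT h ha (hl hx) hxN
    exact hN hl

/-- the same in the coordinates of the frame -/
theorem near_wall_outT' (ha : ‖a‖ ≤ σ / 8) {j : J} {κ : ℝ} {Bs Nn : ℕ} (hκ : 0 < κ)
    (hb : MIn.BQ κ Bs Nn (Qb j) k0) {t : h.ιT a}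
    (hN : ¬ P ((h.T a).H t) ⊆ ((Qb j).tr a).N) (hm : (P ((h.T a).H t) ∩ ((Qb j).tr a).N).Nonempty)
    {y : R3} (hy : y ∈ P ((h.T a).H t)) :
    ∃ z ∈ frontier ((Qb j).tr a).N, ‖(Qb j).ψ y - (Qb j).ψ z‖ ≤ 8 * κ⁻¹ / 2 ^ k0 := by
  obtain ⟨-, z, hz, -, -, h1⟩ := near_wall_outT h ha hN hm hy
  refine ⟨z, hz, ?_⟩
  rw [← map_sub]
  refine ((hb.cnd _).2).trans ?_
  have hκ' : 0 < κ⁻¹ := inv_pos.2 hκ
  calc 4 * κ⁻¹ * ‖y - z‖ ≤ 4 * κ⁻¹ * (2 / 2 ^ k0) := by gcongr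
    _ = 8 * κ⁻¹ / 2 ^ k0 := by ring

/-- **every tile which meets the block `j` and has scale `≥ k0 - K0` is near the wall of `j`** -/
theorem near_wall_allT (ha : ‖a‖ ≤ σ / 8) {j : J} {κ : ℝ} {Bs Nn : ℕ} (hκ : 0 < κ) (hκ1 : κ ≤ 1)
    (hb : MIn.BQ κ Bs Nn (Qb j) k0) {t : h.ιT a} {K0 : ℕ}
    (hm : (P ((h.T a).H t) ∩ ((Qb j).tr a).N).Nonempty) (ht : k0 ≤ sclT h a t + K0)
    (hK : (Qb j).kc + K0 < k0) {y : R3} (hy : y ∈ P ((h.T a).H t)) :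
    ∃ z ∈ frontier ((Qb j).tr a).N, ‖(Qb j).ψ y - (Qb j).ψ z‖ ≤ 14 * κ⁻¹ * 2 ^ K0 / 2 ^ k0 := by
  have hκ' : 1 ≤ κ⁻¹ := (one_le_inv₀ hκ).2 hκ1
  have h2 : (1:ℝ) ≤ 2 ^ K0 := one_le_pow₀ (by norm_num)
  by_cases hN : P ((h.T a).H t) ⊆ ((Qb j).tr a).N
  · obtain ⟨z, hz, h1⟩ := near_wallT h ha hN ht hK hy
    refine ⟨z, hz, h1.trans (div_le_div_of_nonneg_right ?_ (by positivity))⟩
    nlinarith
  · obtain ⟨z, hz, h1⟩ := near_wall_outT' h ha hκ hb hN hm hy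
    refine ⟨z, hz, h1.trans (div_le_div_of_nonneg_right ?_ (by positivity))⟩
    nlinarith

/-- diameters of the tiles of a block, in the coordinates of the frame -/
theorem diam_inT (ha : ‖a‖ ≤ σ / 8) {j : J} {κ : ℝ} {Bs Nn : ℕ}
    (hb : MIn.BQ κ Bs Nn (Qb j) k0) {t : h.ιT a}
    (hN : P ((h.T a).H t) ⊆ ((Qb j).tr a).N) {x y : R3} (hx : x ∈ P ((h.T a).H t))
    (hy : y ∈ P ((h.T a).H t)) :
    ‖(Qb j).ψ x - (Qb j).ψ y‖ ≤ max 1 (Bs:ℝ) / 2 ^ sclT h a t := by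
  rw [← Bk_eq h ha j] at hN
  exact diam_in h.M h.sc _ (h.adm a) (R0 := Bs) hb.hR hN hx hy

/-- diameters of the outer pieces -/
theorem diam_outT (ha : ‖a‖ ≤ σ / 8) {t : h.ιT a}
    (ht : ∀ j, ¬ P ((h.T a).H t) ⊆ ((Qb j).tr a).N) {x y : R3}
    (hx : x ∈ P ((h.T a).H t)) (hy : y ∈ P ((h.T a).H t)) :
    ‖x - y‖ ≤ 2 / 2 ^ sclT h a t := by
  rcases outer_orT h ha t with ⟨p, hp, rfl⟩ | ⟨l, hl⟩
  · have h1 : ‖P3.symm x - P3.symm y‖ ≤ 1 / 2 ^ sclT h a (Sum.inl ⟨Sum.inl p, hp⟩) :=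
      diam_out h.M h.sc (0 + h.M.φ (h.cl a)) (h.adm a) (h := hp) hx hy
    have h3 := dist_le_P3s x y
    rw [dist_eq_norm, dist_eq_norm] at h3
    have e2 : (2:ℝ) / 2 ^ sclT h a (Sum.inl ⟨Sum.inl p, hp⟩) =
        2 * (1 / 2 ^ sclT h a (Sum.inl ⟨Sum.inl p, hp⟩)) := by ring
    rw [e2]
    linarith
  · exact absurd hl (ht l)

end T

end Crest.Agent.R096.Gsc_476
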