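/-
helper447, row 96, leaf SOB-CHAIN, part 1: continuous selections of finitely many affine maps:
the crease set, the pieces, the image of the measure.
-/
import Mathlib
import Crest.Agent.R96.Sob8_199

set_option autoImplicit false
set_option linter.unusedSectionVars false
set_option linter.style.longLine false

open MeasureTheory Set Filter
open scoped Topology ENNReal

namespace Crest.Agent.R096.Sbc_447

open Crest.Agent.R96.Acl_392 Crest.Agent.R96.Sob3_199 Crest.Agent.R96.Sob8_199

noncomputable section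

variable {E : Type*} [NormedAddCommGroup E] [NormedSpace ℝ E]

/-- the crease set -/
def Nn (S : Finset (E →ᵃ[ℝ] E)) : Set E := {x | ∃ a ∈ S, ∃ b ∈ S, a ≠ b ∧ a x = b x}

theorem null_eq [FiniteDimensional ℝ E] [MeasurableSpace E] [BorelSpace E] (μ : Measure E)
    [μ.IsAddHaarMeasure] {a b : E →ᵃ[ℝ] E} (h : a ≠ b) : μ {x | a x = b x} = 0 := by
  have h1 : {x | a x = b x} =
      (((AffineSubspace.mk' (0:E) (⊥ : Submodule ℝ E)).comap (a - b) : AffineSubspace ℝ E) : Set E) := by
    ext x
    simp [AffineSubspace.mem_mk', sub_eq_zero]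
  rw [h1]
  apply Measure.addHaar_affineSubspace
  intro h2
  apply h
  ext x
  have h3 : x ∈ ((AffineSubspace.mk' (0:E) (⊥ : Submodule ℝ E)).comap (a - b)) := by
    rw [h2]; exact AffineSubspace.mem_top ℝ E x
  simpa [AffineSubspace.mem_mk', sub_eq_zero] using h3

theorem null_Nn [FiniteDimensional ℝ E] [MeasurableSpace E] [BorelSpace E] (μ : Measure E)
    [μ.IsAddHaarMeasure] (S : Finset (E →ᵃ[ℝ] E)) : μ (Nn S) = 0 := by
  have h1 : Nn S ⊆ ⋃ a ∈ S, ⋃ b ∈ S, ⋃ (_ : a ≠ b), {x | a x = b x} := by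
    rintro x ⟨a, ha, b, hb, hab, hx⟩
    simp only [mem_iUnion]
    exact ⟨a, ha, b, hb, hab, hx⟩
  refine measure_mono_null h1 ?_
  refine (measure_biUnion_null_iff (I := (S : Set (E →ᵃ[ℝ] E))) S.countable_toSet).2 fun a ha => ?_
  refine (measure_biUnion_null_iff (I := (S : Set (E →ᵃ[ℝ] E))) S.countable_toSet).2 fun b hb => ?_
  refine measure_iUnion_null_iff.2 fun hab => ?_
  exact null_eq μ hab

theorem near [FiniteDimensional ℝ E] {S : Finset (E →ᵃ[ℝ] E)} {Ψ : E → E} (hc : Continuous Ψ)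
    (hS : ∀ x, ∃ a ∈ S, Ψ x = a x)
    {x : E} (hx : x ∉ Nn S) {a : E →ᵃ[ℝ] E} (ha : a ∈ S) (hxa : Ψ x = a x) :
    ∀ᶠ y in 𝓝 x, Ψ y = a y := by
  have h1 : ∀ᶠ y in 𝓝 x, ∀ b ∈ S, b ≠ a → Ψ y ≠ b y := by
    rw [eventually_all_finset]
    intro b hb
    by_cases hba : b = a
    · exact Eventually.of_forall fun y h => absurd hba h
    · have h2 : Ψ x ≠ b x := by
        rw [hxa]
        intro h3
        exact hx ⟨a, ha, b, hb, fun h => hba h.symm, h3⟩
      have h3 : ∀ᶠ y in 𝓝 x, Ψ y - b y ≠ 0 := by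
        have h4 : Continuous fun y => Ψ y - b y :=
          hc.sub (AffineMap.continuous_of_finiteDimensional b)
        exact h4.continuousAt.eventually_ne (sub_ne_zero.2 h2)
      filter_upwards [h3] with y hy _
      exact sub_ne_zero.1 hy
  filter_upwards [h1] with y hy
  obtain ⟨b, hb, hyb⟩ := hS y
  by_cases hba : b = a
  · rw [← hba]; exact hyb
  · exact absurd hyb (hy b hb hba)

theorem inj_of_near {Ψ : E → E} (hi : Function.Injective Ψ) {x : E} {a : E →ᵃ[ℝ] E}
    (h : ∀ᶠ y in 𝓝 x, Ψ y = a y) : Function.Injective a.linear := by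
  rw [← LinearMap.ker_eq_bot, LinearMap.ker_eq_bot']
  intro v hv
  have h1 : Tendsto (fun ε : ℝ => x + ε • v) (𝓝[≠] 0) (𝓝 x) := by
    have h2 : Continuous (fun ε : ℝ => x + ε • v) := by fun_prop
    have h3 := h2.tendsto 0
    simp only [zero_smul, add_zero] at h3
    exact h3.mono_left nhdsWithin_le_nhds
  obtain ⟨ε, hε1, hε2⟩ := ((h1.eventually h).and self_mem_nhdsWithin).exists
  have h4 : a (x + ε • v) = a x := by
    have h5 := a.map_vadd x (ε • v)
    simp only [vadd_eq_add, map_smul, hv, smul_zero, zero_add] at h5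
    rw [add_comm x]
    exact h5
  have h6 : Ψ (x + ε • v) = Ψ x := by
    rw [hε1, h4, h.self_of_nhds]
  have h7 := hi h6
  have h8 : ε • v = 0 := by simpa using h7
  rcases smul_eq_zero.1 h8 with h9 | h9
  · exact absurd h9 hε2
  · exact h9

/-- the affine map with injective linear part as an affine isomorphism -/
def toE [FiniteDimensional ℝ E] (a : E →ᵃ[ℝ] E) (h : Function.Injective a.linear) : E ≃L[ℝ] E :=
  (LinearEquiv.ofInjectiveEndo a.linear h).toContinuousLinearEquiv

theorem toE_apply [FiniteDimensional ℝ E] (a : E →ᵃ[ℝ] E) (h : Function.Injective a.linear) (x : E) :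
    toE a h x = a.linear x := rfl

theorem aff_toE [FiniteDimensional ℝ E] [MeasurableSpace E] [BorelSpace E] (a : E →ᵃ[ℝ] E) (h : Function.Injective a.linear) (x : E) :
    aff (a 0) (toE a h) x = a x := by
  rw [aff_apply, toE_apply]
  have := a.map_vadd 0 x
  simp only [vadd_eq_add, add_zero] at this
  rw [this, add_comm]

/-- a line through a point off the creases meets the creases in a finite set -/
theorem finite_line {S : Finset (E →ᵃ[ℝ] E)} {x : E} (hx : x ∉ Nn S) (e : E) :
    {τ : ℝ | x + τ • e ∈ Nn S}.Finite := by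
  have h1 : {τ : ℝ | x + τ • e ∈ Nn S} ⊆ ⋃ a ∈ S, ⋃ b ∈ S, {τ : ℝ | a ≠ b ∧ a (x + τ • e) = b (x + τ • e)} := by
    rintro τ ⟨a, ha, b, hb, hab, hτ⟩
    simp only [mem_iUnion]
    exact ⟨a, ha, b, hb, hab, hτ⟩
  refine Set.Finite.subset ?_ h1
  refine Set.Finite.biUnion S.finite_toSet fun a ha => Set.Finite.biUnion S.finite_toSet fun b hb => ?_
  apply Set.Subsingleton.finite
  rintro τ ⟨hab, hτ⟩ σ ⟨-, hσ⟩
  by_contra hne
  have key : ∀ ρ : ℝ, a (x + ρ • e) - b (x + ρ • e) = (a x - b x) + ρ • (a.linear e - b.linear e) := by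
    intro ρ
    have h5 := a.map_vadd x (ρ • e)
    have h6 := b.map_vadd x (ρ • e)
    simp only [vadd_eq_add, map_smul] at h5 h6
    rw [add_comm x, h5, h6, smul_sub]
    abel
  have k1 := key τ
  have k2 := key σ
  rw [hτ, sub_self] at k1
  rw [hσ, sub_self] at k2
  have k3 : (τ - σ) • (a.linear e - b.linear e) = 0 := by
    rw [sub_smul]
    have : τ • (a.linear e - b.linear e) = σ • (a.linear e - b.linear e) := by
      have := k1.symm.trans k2
      exact add_left_cancel this
    rw [this, sub_self]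
  rcases smul_eq_zero.1 k3 with k4 | k4
  · exact hne (sub_eq_zero.1 k4)
  · rw [k4, smul_zero, add_zero] at k1
    exact hx ⟨a, ha, b, hb, hab, (sub_eq_zero.1 k1.symm)⟩

theorem map_le [FiniteDimensional ℝ E] [MeasurableSpace E] [BorelSpace E] (μ : Measure E)
    [μ.IsAddHaarMeasure] (Ψ : E ≃ₜ E) {S : Finset (E →ᵃ[ℝ] E)} (hS : ∀ x, ∃ a ∈ S, Ψ x = a x) :
    ∃ K : ℝ≥0∞, K ≠ ⊤ ∧ Measure.map Ψ μ ≤ K • μ := by
  classical
  refine ⟨∑ a ∈ S, (if h : Function.Injective a.linear then fac (toE a h) else 0), ?_, ?_⟩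
  · rw [ENNReal.sum_ne_top]
    intro a ha
    split_ifs
    · exact fac_ne_top _
    · exact ENNReal.zero_ne_top
  · rw [Measure.le_iff]
    intro B hB
    rw [Measure.map_apply Ψ.continuous.measurable hB]
    have h1 : Ψ ⁻¹' B ⊆ Nn S ∪ ⋃ a ∈ S, (if h : Function.Injective a.linear then
        (aff (a 0) (toE a h)) ⁻¹' B else ∅) := by
      intro x hx
      by_cases hxN : x ∈ Nn S
      · exact Or.inl hxN
      · right
        obtain ⟨a, ha, hxa⟩ := hS x
        have hn := near Ψ.continuous hS hxN ha hxa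
        have hi := inj_of_near Ψ.injective hn
        simp only [mem_iUnion]
        refine ⟨a, ha, ?_⟩
        rw [dif_pos hi]
        show aff (a 0) (toE a hi) x ∈ B
        rw [aff_toE, ← hxa]
        exact hx
    refine (measure_mono h1).trans ?_
    refine (measure_union_le _ _).trans ?_
    rw [null_Nn, zero_add]
    refine (measure_biUnion_finset_le _ _).trans ?_
    rw [Measure.smul_apply, smul_eq_mul, Finset.sum_mul]
    apply Finset.sum_le_sum
    intro a ha
    by_cases h : Function.Injective a.linear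
    · rw [dif_pos h, dif_pos h]
      have h2 := map_aff (μ := μ) (a 0) (toE a h)
      rw [← Measure.map_apply (aff (a 0) (toE a h)).continuous.measurable hB, h2]
      simp
    · rw [dif_neg h, dif_neg h]
      simp

end

end Crest.Agent.R096.Sbc_447
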