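/-
helper447, row 96, leaf SOB-CHAIN, part 2: gluing of upper gradients along a line through the
pieces of a continuous selection of affine maps.
-/
import Mathlib
import Crest.Agent.R096.Sbc1_447

set_option autoImplicit false
set_option linter.unusedSectionVars false
set_option linter.style.longLine false

open MeasureTheory Set Filter
open scoped Topology ENNReal

namespace Crest.Agent.R096.Sbc_447

open Crest.Agent.R96.Acl_392 Crest.Agent.R96.Sob3_199 Crest.Agent.R96.Sob8_199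

noncomputable section

/-- local to global, one dimensional, from the right -/
theorem incr_of_right {φ m : ℝ → ℝ} {s t : ℝ} (hst : s ≤ t) (hφ : ContinuousOn φ (Icc s t))
    (hm : IntegrableOn m (Icc s t))
    (h : ∀ τ ∈ Ico s t, ∀ y ∈ Ioc τ t, ∃ z ∈ Ioc τ y, |φ z - φ τ| ≤ ∫ σ in τ..z, m σ) :
    |φ t - φ s| ≤ ∫ σ in s..t, m σ := by
  have hII : ∀ a b : ℝ, s ≤ a → a ≤ b → b ≤ t → IntervalIntegrable m volume a b := by
    intro a b h1 h2 h3
    rw [intervalIntegrable_iff_integrableOn_Icc_of_le h2]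
    exact hm.mono_set (Icc_subset_Icc h1 h3)
  have hsub : Icc s t ⊆ {τ | |φ τ - φ s| ≤ ∫ σ in s..τ, m σ} := by
    apply IsClosed.Icc_subset_of_forall_exists_gt
    · have h1 : ContinuousOn (fun τ => |φ τ - φ s| - ∫ σ in s..τ, m σ) (Icc s t) := by
        apply ContinuousOn.sub
        · exact (hφ.sub continuousOn_const).abs
        · have h2 := intervalIntegral.continuousOn_primitive_interval (μ := volume) (f := m) (a := s) (b := t)
            (by rw [uIcc_of_le hst]; exact hm)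
          rw [uIcc_of_le hst] at h2
          exact h2
      have h2 := h1.preimage_isClosed_of_isClosed isClosed_Icc (isClosed_Iic (a := (0:ℝ)))
      convert h2 using 1
      ext τ
      simp only [mem_inter_iff, mem_ofPred_eq, mem_Icc, mem_preimage, mem_Iic, sub_nonpos]
      tauto
    · simp
    · rintro τ ⟨hτ1, hτ2⟩ y hy
      obtain ⟨z, hz1, hz2⟩ := h τ hτ2 (min y t) ⟨lt_min hy hτ2.2, min_le_right _ _⟩
      refine ⟨z, ?_, hz1.1, hz1.2.trans (min_le_left _ _)⟩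
      simp only [mem_ofPred_eq] at hτ1 ⊢
      have hzt : z ≤ t := hz1.2.trans (min_le_right _ _)
      have h3 := intervalIntegral.integral_add_adjacent_intervals (hII s τ le_rfl hτ2.1 hτ2.2.le)
        (hII τ z hτ2.1 hz1.1.le hzt)
      rw [← h3]
      calc |φ z - φ s| = |(φ τ - φ s) + (φ z - φ τ)| := by ring_nf
        _ ≤ |φ τ - φ s| + |φ z - φ τ| := abs_add_le _ _
        _ ≤ _ := add_le_add hτ1 hz2
  exact hsub (right_mem_Icc.2 hst)

/-- a bound on `[τ', z]` for all `τ' ∈ (τ, z]` gives the bound on `[τ, z]` -/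
theorem incr_limit {φ m : ℝ → ℝ} {τ z : ℝ} (hτz : τ < z) (hφ : ContinuousOn φ (Icc τ z))
    (hm : IntegrableOn m (Icc τ z))
    (h : ∀ τ' ∈ Ioo τ z, |φ z - φ τ'| ≤ ∫ σ in τ'..z, m σ) :
    |φ z - φ τ| ≤ ∫ σ in τ..z, m σ := by
  have h1 : Tendsto (fun τ' => |φ z - φ τ'|) (𝓝[>] τ) (𝓝 |φ z - φ τ|) := by
    apply Tendsto.abs
    apply Tendsto.const_sub
    have h2 : Tendsto φ (𝓝[Icc τ z] τ) (𝓝 (φ τ)) := hφ τ ⟨le_rfl, hτz.le⟩
    refine h2.mono_left ?_
    rw [← nhdsWithin_Ioo_eq_nhdsGT hτz]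
    exact nhdsWithin_mono _ Ioo_subset_Icc_self
  have h3 : Tendsto (fun τ' => ∫ σ in τ'..z, m σ) (𝓝[>] τ) (𝓝 (∫ σ in τ..z, m σ)) := by
    have h2 := intervalIntegral.continuousOn_primitive_interval (μ := volume) (f := m) (a := τ) (b := z)
            (by rw [uIcc_of_le hτz.le]; exact hm)
    rw [uIcc_of_le hτz.le] at h2
    have h4 : Tendsto (fun τ' => ∫ σ in τ..τ', m σ) (𝓝[>] τ) (𝓝 (∫ σ in τ..τ, m σ)) := by
      refine (h2 τ ⟨le_rfl, hτz.le⟩).mono_left ?_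
      rw [← nhdsWithin_Ioo_eq_nhdsGT hτz]
      exact nhdsWithin_mono _ Ioo_subset_Icc_self
    rw [intervalIntegral.integral_same] at h4
    have h5 := h4.const_sub (∫ σ in τ..z, m σ)
    rw [sub_zero] at h5
    refine h5.congr' ?_
    filter_upwards [Ioo_mem_nhdsGT hτz] with τ' hτ'
    rw [intervalIntegral.integral_interval_sub_left]
    · rw [intervalIntegrable_iff_integrableOn_Icc_of_le hτz.le]; exact hm
    · rw [intervalIntegrable_iff_integrableOn_Icc_of_le hτ'.1.le]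
      exact hm.mono_set (Icc_subset_Icc le_rfl hτ'.2.le)
  refine le_of_tendsto_of_tendsto h1 h3 ?_
  filter_upwards [Ioo_mem_nhdsGT hτz] with τ' hτ'
  exact h τ' hτ'

variable {E : Type*} [NormedAddCommGroup E] [NormedSpace ℝ E] [FiniteDimensional ℝ E]

theorem ug_of_pieces {Om : Set E} {v : E → ℝ} {Ψ : E → E} (hΨc : Continuous Ψ)
    (hv : ContinuousOn v Om) (hΨ : ∀ x, x ∈ Om → Ψ x ∈ Om) {S : Finset (E →ᵃ[ℝ] E)}
    (hS : ∀ x, ∃ a ∈ S, Ψ x = a x) {e x : E} (hx : x ∉ Nn S) (w : (E →ᵃ[ℝ] E) → E → ℝ)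
    (m : E → ℝ) (hm : ∀ a ∈ S, ∀ y, Ψ y = a y → |w a y| ≤ m y)
    (hmi : ∀ s t : ℝ, s ≤ t → x ∈ segIn Om e s t → IntegrableOn (fun τ : ℝ => m (x + τ • e)) (Icc s t))
    (hi : Function.Injective Ψ)
    (hU : ∀ a ∈ S, Function.Injective a.linear →
      UG (a ⁻¹' Om) (fun y => v (a y)) (fun y => |w a y|) e x) :
    UG Om (fun y => v (Ψ y)) m e x := by
  intro s t hst hxs
  refine ⟨hmi s t hst hxs, ?_⟩
  have hlc : Continuous (fun τ : ℝ => x + τ • e) := by fun_prop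
  have hφc : ∀ s' t', s ≤ s' → t' ≤ t → ContinuousOn (fun τ : ℝ => v (Ψ (x + τ • e))) (Icc s' t') := by
    intro s' t' h1 h2
    apply hv.comp (hΨc.comp hlc).continuousOn
    intro τ hτ
    exact hΨ _ (hxs τ ⟨h1.trans hτ.1, hτ.2.trans h2⟩)
  have hmI : ∀ s' t', s ≤ s' → t' ≤ t → IntegrableOn (fun τ : ℝ => m (x + τ • e)) (Icc s' t') := by
    intro s' t' h1 h2
    exact (hmi s t hst hxs).mono_set (Icc_subset_Icc h1 h2)
  -- step A: away from the creases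
  have hA : ∀ s' t', s ≤ s' → s' ≤ t' → t' ≤ t → (∀ τ ∈ Icc s' t', x + τ • e ∉ Nn S) →
      |v (Ψ (x + t' • e)) - v (Ψ (x + s' • e))| ≤ ∫ τ in s'..t', m (x + τ • e) := by
    intro s' t' h1 h2 h3 h4
    apply incr_of_right (φ := fun τ => v (Ψ (x + τ • e))) (m := fun τ => m (x + τ • e)) h2 (hφc _ _ h1 h3) (hmI _ _ h1 h3)
    intro τ hτ y hy
    obtain ⟨a, ha, hxa⟩ := hS (x + τ • e)
    have hn := near hΨc hS (h4 τ ⟨hτ.1, hτ.2.le⟩) ha hxa
    have hinj := inj_of_near hi hn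
    have hn' : ∀ᶠ σ in 𝓝 τ, Ψ (x + σ • e) = a (x + σ • e) := hlc.continuousAt.eventually hn
    obtain ⟨δ, hδ, hδ'⟩ := Metric.eventually_nhds_iff.1 hn'
    obtain ⟨z, hz1, hz2⟩ : ∃ z, τ < z ∧ z < min y (τ + δ) := exists_between (lt_min hy.1 (by linarith))
    have hzy : z ≤ y := (hz2.le).trans (min_le_left _ _)
    have hzδ : z < τ + δ := hz2.trans_le (min_le_right _ _)
    have heq : ∀ σ ∈ Icc τ z, Ψ (x + σ • e) = a (x + σ • e) := by
      intro σ hσ
      apply hδ'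
      rw [Real.dist_eq, abs_lt]
      constructor <;> linarith [hσ.1, hσ.2]
    refine ⟨z, ⟨hz1, hzy⟩, ?_⟩
    have hseg : x ∈ segIn (a ⁻¹' Om) e τ z := by
      intro σ hσ
      show a (x + σ • e) ∈ Om
      rw [← heq σ hσ]
      exact hΨ _ (hxs σ ⟨by linarith [hσ.1, hτ.1], by linarith [hσ.2, hy.2]⟩)
    have hug := hU a ha hinj τ z hz1.le hseg
    rw [heq z ⟨hz1.le, le_rfl⟩, heq τ ⟨le_rfl, hz1.le⟩]
    refine hug.2.trans ?_
    apply intervalIntegral.integral_mono_on hz1.le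
    · rw [intervalIntegrable_iff_integrableOn_Icc_of_le hz1.le]
      exact hug.1
    · rw [intervalIntegrable_iff_integrableOn_Icc_of_le hz1.le]
      exact hmI _ _ (by linarith [hτ.1]) (by linarith [hy.2])
    · intro σ hσ
      exact hm a ha _ (heq σ hσ)
  -- step B
  have hfin := finite_line hx e
  apply incr_of_right (φ := fun τ => v (Ψ (x + τ • e))) (m := fun τ => m (x + τ • e)) hst (hφc _ _ le_rfl le_rfl) (hmI _ _ le_rfl le_rfl)
  intro τ hτ y hy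
  have h1 : ∀ᶠ σ in 𝓝[>] τ, ∀ ρ ∈ Ioc τ σ, x + ρ • e ∉ Nn S := by
    have h2 : ({ρ : ℝ | x + ρ • e ∈ Nn S} \ {τ}).Finite := hfin.sdiff
    have h3 : ({ρ : ℝ | x + ρ • e ∈ Nn S} \ {τ})ᶜ ∈ 𝓝 τ := h2.isClosed.isOpen_compl.mem_nhds (by simp)
    obtain ⟨δ, hδ, hδ'⟩ := Metric.mem_nhds_iff.1 h3
    have h4 : Ioo τ (τ + δ) ∈ 𝓝[>] τ := Ioo_mem_nhdsGT (by linarith)
    filter_upwards [h4] with σ hσ ρ hρ hcon
    have h5 : ρ ∈ Metric.ball τ δ := by
      rw [Metric.mem_ball, Real.dist_eq, abs_lt]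
      constructor <;> linarith [hρ.1, hρ.2, hσ.2]
    exact hδ' h5 ⟨hcon, by simp only [mem_singleton_iff]; exact hρ.1.ne'⟩
  obtain ⟨z, hz1, hz2⟩ := (h1.and (Ioc_mem_nhdsGT hy.1)).exists
  refine ⟨z, hz2, ?_⟩
  have hzt : z ≤ t := hz2.2.trans hy.2
  apply incr_limit (φ := fun τ => v (Ψ (x + τ • e))) (m := fun τ => m (x + τ • e)) hz2.1 (hφc _ _ hτ.1 hzt) (hmI _ _ hτ.1 hzt)
  intro τ' hτ'
  apply hA τ' z (hτ.1.trans hτ'.1.le) hτ'.2.le hzt
  intro ρ hρ
  exact hz1 ρ ⟨lt_of_lt_of_le hτ'.1 hρ.1, hρ.2⟩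

end

end Crest.Agent.R096.Sbc_447
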