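/-
helper447, row 96, leaf SOB-CHAIN, part 3: pre-composition of a Sobolev homeomorphism with a
piecewise affine homeomorphism.
-/
import Mathlib
import Crest.Agent.R096.Sbc2_447
import Crest.Agent.R096.Sk0_962
import Crest.Agent.R096.Ce1_537

set_option autoImplicit false
set_option linter.unusedSectionVars false
set_option linter.style.longLine false

open MeasureTheory Set Filter
open scoped Topology ENNReal NNReal

namespace Crest.Agent.R096.Sbc_447

open Crest.Agent.R96.Acl_392 Crest.Agent.R96.Sob1_199 Crest.Agent.R96.Sob2_199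
  Crest.Agent.R96.Sob3_199 Crest.Agent.R96.Sob6_199 Crest.Agent.R96.Sob7_199
  Crest.Agent.R96.Sob8_199
open Crest.AnalysisR.VecCalc3 Crest.AnalysisR.Sobolev
open Crest.Agent.R096.Ce_537 (PLOn)
open Crest.Agent.R096.Sk_962 (SH)

noncomputable section

/-- `L^p` pulls back -/
theorem memLp_comp {F : Type*} [NormedAddCommGroup F] (Ψ : R3 ≃ₜ R3) {S : Finset (R3 →ᵃ[ℝ] R3)}
    (hS : ∀ x, ∃ a ∈ S, Ψ x = a x) {Om : Set R3} (hΨ : ∀ x, Ψ x ∈ Om ↔ x ∈ Om) {p : ℝ≥0∞}
    {g : R3 → F} (hg : MemLp g p (volume.restrict Om)) :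
    MemLp (fun x => g (Ψ x)) p (volume.restrict Om) := by
  obtain ⟨K, hK, hle⟩ := map_le (volume : Measure R3) Ψ hS
  have h1 : Measure.map Ψ (volume.restrict Om) ≤ K • volume.restrict Om := by
    have h2 : Ψ ⁻¹' Om = Om := by
      ext x; exact hΨ x
    have h3 := Ψ.measurableEmbedding.restrict_map (volume : Measure R3) Om
    rw [h2] at h3
    rw [← h3, ← Measure.restrict_smul]
    exact Measure.restrict_mono le_rfl hle
  have h2 : MemLp g p (Measure.map Ψ (volume.restrict Om)) := hg.of_measure_le_smul hK h1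
  exact (Ψ.measurableEmbedding.memLp_map_measure_iff).1 h2

theorem locInt_of_memLp {F : Type*} [NormedAddCommGroup F] {Om : Set R3} (hOm : IsOpen Om)
    {p : ℝ≥0∞} (hp : 1 ≤ p) {g : R3 → F} (hg : MemLp g p (volume.restrict Om)) :
    LocallyIntegrableOn g Om := by
  rw [locallyIntegrableOn_iff hOm.isLocallyClosed]
  intro K hK hKc
  have h1 : MemLp g p (volume.restrict K) := hg.mono_measure (Measure.restrict_mono hK le_rfl)
  have : IsFiniteMeasure (volume.restrict K) := ⟨by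
    rw [Measure.restrict_apply_univ]; exact hKc.measure_lt_top⟩
  exact h1.integrable hp

/-- the majorant of the derivative of `v ∘ Ψ` in the direction `e` -/
def maj (S : Finset (R3 →ᵃ[ℝ] R3)) (Ψ : R3 → R3) (G : R3 → R3) (e : R3) (y : R3) : ℝ :=
  ∑ a ∈ S, ({y | Ψ y = a y}).indicator (fun y => |inner ℝ (G (Ψ y)) (a.linear e)|) y

theorem le_maj {S : Finset (R3 →ᵃ[ℝ] R3)} {Ψ : R3 → R3} {G : R3 → R3} {e : R3} {y : R3}
    {a : R3 →ᵃ[ℝ] R3} (ha : a ∈ S) (h : Ψ y = a y) :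
    |inner ℝ (G (a y)) (a.linear e)| ≤ maj S Ψ G e y := by
  rw [maj]
  have h1 : |inner ℝ (G (a y)) (a.linear e)| =
      ({y | Ψ y = a y}).indicator (fun y => |inner ℝ (G (Ψ y)) (a.linear e)|) y := by
    rw [indicator_of_mem (by exact h), h]
  rw [h1]
  refine Finset.single_le_sum (f := fun a : R3 →ᵃ[ℝ] R3 => ({y | Ψ y = a y}).indicator (fun y => |inner ℝ (G (Ψ y)) (a.linear e)|) y) ?_ ha
  intro b hb
  exact indicator_nonneg (fun _ _ => abs_nonneg _) _

theorem maj_eq {S : Finset (R3 →ᵃ[ℝ] R3)} {Ψ : R3 → R3} {G : R3 → R3} {e : R3} {y : R3}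
    (hy : y ∉ Nn S) {a : R3 →ᵃ[ℝ] R3} (ha : a ∈ S) (h : Ψ y = a y) :
    maj S Ψ G e y = |inner ℝ (G (Ψ y)) (a.linear e)| := by
  rw [maj, Finset.sum_eq_single_of_mem a ha]
  · rw [indicator_of_mem (by exact h)]
  · intro b hb hba
    apply indicator_of_notMem
    intro h2
    have h3 : Ψ y = b y := h2
    exact hy ⟨a, ha, b, hb, fun h => hba h.symm, by rw [← h, h3]⟩

theorem locInt_maj {S : Finset (R3 →ᵃ[ℝ] R3)} {Ψ : R3 → R3} (hΨ : Continuous Ψ) {G : R3 → R3} {Om : Set R3}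
    (hG : LocallyIntegrableOn (fun y => G (Ψ y)) Om) (e : R3) :
    LocallyIntegrableOn (maj S Ψ G e) Om := by
  have h1 : ∀ a ∈ S, LocallyIntegrableOn
      (({y | Ψ y = a y}).indicator (fun y => |inner ℝ (G (Ψ y)) (a.linear e)|)) Om := by
    intro a ha x hx
    obtain ⟨t, ht1, ht2⟩ := hG x hx
    refine ⟨t, ht1, ?_⟩
    have h2 : IntegrableOn (fun y => |inner ℝ (G (Ψ y)) (a.linear e)|) t := by
      have h3 : IntegrableOn (fun y => inner ℝ (G (Ψ y)) (a.linear e)) t := ht2.inner_const _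
      exact h3.abs
    refine h2.indicator ?_
    exact (isClosed_eq hΨ (AffineMap.continuous_of_finiteDimensional a)).measurableSet
  intro x hx
  have h2 : ∀ a ∈ S, ∃ t ∈ 𝓝[Om] x, IntegrableOn
      (({y | Ψ y = a y}).indicator (fun y => |inner ℝ (G (Ψ y)) (a.linear e)|)) t := fun a ha => h1 a ha x hx
  choose! t ht1 ht2 using h2
  refine ⟨⋂ a ∈ S, t a, ?_, ?_⟩
  · rw [Filter.biInter_finset_mem]
    exact ht1
  · unfold IntegrableOn
    have h3 : maj S Ψ G e = fun y => ∑ a ∈ S, ({y | Ψ y = a y}).indicator (fun y => |inner ℝ (G (Ψ y)) (a.linear e)|) y := rfl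
    rw [h3]
    apply integrable_finsetSum
    intro a ha
    exact (ht2 a ha).mono_set (biInter_subset_of_mem ha)

/-- one component, one direction -/
theorem wd_comp_pl {Om : Set R3} (hOm : IsOpen Om) {v : R3 → ℝ} {G : R3 → R3}
    (h : HasWeakGradOn Om v G) (hv : ContinuousOn v Om) (Ψ : R3 ≃ₜ R3) {S : Finset (R3 →ᵃ[ℝ] R3)}
    (hS : ∀ x, ∃ a ∈ S, Ψ x = a x) (hΨ : ∀ x, Ψ x ∈ Om ↔ x ∈ Om)
    (hG : LocallyIntegrableOn (fun y => G (Ψ y)) Om) (e : R3) :
    WD Om volume (fun x => v (Ψ x)) (dq Om (fun x => v (Ψ x)) e) e ∧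
      (∀ᵐ x, x ∈ Om → |dq Om (fun x => v (Ψ x)) e x| ≤ maj S Ψ G e x) := by
  classical
  have hmLoc := locInt_maj (S := S) Ψ.continuous hG e
  apply wd_of_ug hOm
  · exact hv.comp Ψ.continuous.continuousOn (fun x hx => (hΨ x).2 hx)
  · exact hmLoc
  · have h1 : ∀ᵐ x : R3, x ∉ Nn S := measure_eq_zero_iff_ae_notMem.1 (null_Nn _ S)
    have h2 := ae_line_integrable hOm hmLoc e
    have h3 : ∀ a ∈ S, ∀ᵐ x : R3, Function.Injective a.linear →
        UG (a ⁻¹' Om) (fun y => v (a y)) (fun y => |inner ℝ (G (a y)) (a.linear e)|) e x := by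
      intro a ha
      by_cases hi : Function.Injective a.linear
      · have hA : ∀ y, aff (a 0) (toE a hi) y = a y := aff_toE a hi
        have h4 := wd_comp_aff (wd_of_grad hOm h (toE a hi e)) (a 0) (toE a hi)
        rw [ContinuousLinearEquiv.symm_apply_apply] at h4
        have hset : (aff (a 0) (toE a hi)) ⁻¹' Om = a ⁻¹' Om := by
          ext y
          simp only [mem_preimage, hA]
        rw [hset] at h4
        simp only [hA] at h4
        have hac : Continuous a := AffineMap.continuous_of_finiteDimensional a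
        have h5 := acl (hOm.preimage hac) h4 (hv.comp hac.continuousOn (fun y hy => hy))
        filter_upwards [h5] with x hx _
        exact ug_of_acl hx
      · exact Eventually.of_forall fun x h => absurd h hi
    have h4 : ∀ᵐ x : R3, ∀ a ∈ S, Function.Injective a.linear →
        UG (a ⁻¹' Om) (fun y => v (a y)) (fun y => |inner ℝ (G (a y)) (a.linear e)|) e x := by
      rw [eventually_all_finset]
      exact h3
    filter_upwards [h1, h2, h4] with x hx1 hx2 hx3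
    exact ug_of_pieces Ψ.continuous hv (fun x hx => (hΨ x).2 hx) hS hx1
      (fun a y => inner ℝ (G (a y)) (a.linear e)) _ (fun a ha y hy => le_maj ha hy) hx2 Ψ.injective hx3

theorem norm_linear_le {Ψ : R3 → R3} {a : R3 →ᵃ[ℝ] R3} {x : R3} (h : ∀ᶠ y in 𝓝 x, Ψ y = a y)
    {c : ℝ} (hc : ∀ᶠ y in 𝓝 x, ‖Ψ y - Ψ x‖ ≤ c * ‖y - x‖) (e : R3) : ‖a.linear e‖ ≤ c * ‖e‖ := by
  have h1 : Tendsto (fun ε : ℝ => x + ε • e) (𝓝[>] 0) (𝓝 x) := by
    have h2 : Continuous (fun ε : ℝ => x + ε • e) := by fun_prop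
    have h3 := h2.tendsto 0
    simp only [zero_smul, add_zero] at h3
    exact h3.mono_left nhdsWithin_le_nhds
  obtain ⟨ε, ⟨hε1, hε2⟩, hε3⟩ := (((h1.eventually h).and (h1.eventually hc)).and self_mem_nhdsWithin).exists
  have hε : 0 < ε := hε3
  have h4 : a (x + ε • e) - a x = ε • a.linear e := by
    have h5 := a.map_vadd x (ε • e)
    simp only [vadd_eq_add, map_smul] at h5
    rw [add_comm x, h5, add_sub_cancel_right]
  rw [hε1, h.self_of_nhds, h4, add_sub_cancel_left, norm_smul, norm_smul, Real.norm_of_nonneg hε.le] at hε2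
  have h6 : ε * ‖a.linear e‖ ≤ ε * (c * ‖e‖) := by linarith
  exact le_of_mul_le_mul_left h6 hε

/-- **SOB-CHAIN** -/
theorem sob_chain {p : ℝ} (hp : 1 ≤ p) {Om La : Set R3} {f : R3 → R3} {G : Fin 3 → R3 → R3}
    (hOm : IsOpen Om) (h : SH p Om La f G) (Ψ : R3 ≃ₜ R3) (h1 : PLOn Ψ univ)
    (_h2 : PLOn Ψ.symm univ) (hΨ : ∀ x, Ψ x ∈ Om ↔ x ∈ Om) :
    ∃ G' : Fin 3 → R3 → R3, SH p Om La (fun x => f (Ψ x)) G' ∧
      ∀ j, ∀ᵐ x, x ∈ Om → ∀ c : ℝ, 0 ≤ c →
        (∀ᶠ y in 𝓝 x, ‖Ψ y - Ψ x‖ ≤ c * ‖y - x‖) → ‖G' j x‖ ≤ 3 * c * ‖G j (Ψ x)‖ := by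
  classical
  obtain ⟨-, S, hS'⟩ := h1
  have hS : ∀ x, ∃ a ∈ S, Ψ x = a x := fun x => hS' x (mem_univ x)
  have hp' : 1 ≤ ENNReal.ofReal p := by
    rw [← ENNReal.ofReal_one]; exact ENNReal.ofReal_le_ofReal hp
  obtain ⟨finv, hf1, hf2, hf3, hf4, hf5, hf6⟩ := h.homeo
  have hGp : ∀ j, MemLp (fun x => G j (Ψ x)) (ENNReal.ofReal p) (volume.restrict Om) :=
    fun j => memLp_comp Ψ hS hΨ (h.memG j)
  have hGl : ∀ j, LocallyIntegrableOn (fun x => G j (Ψ x)) Om := fun j => locInt_of_memLp hOm hp' (hGp j)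
  have hfj : ∀ j : Fin 3, ContinuousOn (fun x => f x j) Om := by
    intro j
    exact (EuclideanSpace.proj j : R3 →L[ℝ] ℝ).continuous.comp_continuousOn hf5
  have key := fun (j i : Fin 3) => wd_comp_pl hOm (h.wg j) (hfj j) Ψ hS hΨ (hGl j) (EuclideanSpace.single i (1:ℝ))
  let G' : Fin 3 → R3 → R3 := fun j x =>
    WithLp.toLp 2 fun i => dq Om (fun x => f (Ψ x) j) (EuclideanSpace.single i (1:ℝ)) x
  have hG'i : ∀ j x i, G' j x i = dq Om (fun x => f (Ψ x) j) (EuclideanSpace.single i (1:ℝ)) x := fun _ _ _ => rfl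
  have hwg : ∀ j : Fin 3, HasWeakGradOn Om (fun x => f (Ψ x) j) (G' j) := by
    intro j
    apply grad_of_wd
    intro i
    exact (key j i).1
  have hbd : ∀ j, ∀ᵐ x, x ∈ Om → ∀ c : ℝ, 0 ≤ c →
        (∀ᶠ y in 𝓝 x, ‖Ψ y - Ψ x‖ ≤ c * ‖y - x‖) → ‖G' j x‖ ≤ 3 * c * ‖G j (Ψ x)‖ := by
    intro j
    have hN : ∀ᵐ x : R3, x ∉ Nn S := measure_eq_zero_iff_ae_notMem.1 (null_Nn _ S)
    have hk : ∀ᵐ x : R3, ∀ i : Fin 3, x ∈ Om → |dq Om (fun x => f (Ψ x) j) (EuclideanSpace.single i (1:ℝ)) x| ≤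
        maj S Ψ (G j) (EuclideanSpace.single i (1:ℝ)) x := by
      rw [ae_all_iff]
      intro i
      exact (key j i).2
    filter_upwards [hN, hk] with x hx1 hx2 hxOm c hc hcx
    obtain ⟨a, ha, hxa⟩ := hS x
    have hn := near Ψ.continuous hS hx1 ha hxa
    have h3 : ∀ i : Fin 3, |G' j x i| ≤ c * ‖G j (Ψ x)‖ := by
      intro i
      rw [hG'i]
      refine (hx2 i hxOm).trans ?_
      rw [maj_eq hx1 ha hxa]
      refine (abs_real_inner_le_norm _ _).trans ?_
      have h4 := norm_linear_le hn hcx (EuclideanSpace.single i (1:ℝ))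
      have h4' : ‖(EuclideanSpace.single i (1:ℝ) : R3)‖ = 1 := by simp
      rw [h4', mul_one] at h4
      rw [mul_comm c]
      gcongr
    have h5 : ‖G' j x‖ ^ 2 ≤ (3 * c * ‖G j (Ψ x)‖) ^ 2 := by
      rw [EuclideanSpace.norm_sq_eq, Fin.sum_univ_three]
      have h6 : ∀ i : Fin 3, ‖G' j x i‖ ^ 2 ≤ (c * ‖G j (Ψ x)‖) ^ 2 := by
        intro i
        rw [Real.norm_eq_abs]
        exact pow_le_pow_left₀ (abs_nonneg _) (h3 i) 2
      have h7 := h6 0
      have h8 := h6 1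
      have h9 := h6 2
      have h10 : 0 ≤ (c * ‖G j (Ψ x)‖) ^ 2 := sq_nonneg _
      nlinarith
    exact le_of_sq_le_sq h5 (by positivity)
  refine ⟨G', ⟨?_, ?_, hwg, ?_⟩, hbd⟩
  · refine ⟨fun y => Ψ.symm (finv y), ?_, ?_, ?_, ?_, ?_, ?_⟩
    · intro x hx
      exact hf1 ((hΨ x).2 hx)
    · intro y hy
      rw [← hΨ]
      simpa using hf2 hy
    · intro x hx
      show Ψ.symm (finv (f (Ψ x))) = x
      rw [hf3 _ ((hΨ x).2 hx)]
      simp
    · intro y hy
      simp only [Homeomorph.apply_symm_apply]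
      exact hf4 y hy
    · exact hf5.comp Ψ.continuous.continuousOn (fun x hx => (hΨ x).2 hx)
    · exact Ψ.symm.continuous.comp_continuousOn hf6
  · exact memLp_comp Ψ hS hΨ h.mem
  · intro j
    obtain ⟨L, hL⟩ := lip_of_sel (convex_univ) Ψ.continuous.continuousOn (S := S) (fun y _ => hS y)
    have hL2 : ∀ x y, ‖Ψ y - Ψ x‖ ≤ (L:ℝ) * ‖y - x‖ := by
      intro x y
      have := hL.dist_le_mul y (mem_univ _) x (mem_univ _)
      rwa [dist_eq_norm, dist_eq_norm] at this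
    have hmeas : AEStronglyMeasurable (G' j) (volume.restrict Om) := by
      exact (hwg j).2.1.aestronglyMeasurable
    refine MemLp.of_le_mul (c := 3 * L) (hGp j) hmeas ?_
    rw [ae_restrict_iff' hOm.measurableSet]
    filter_upwards [hbd j] with x hx hxOm
    exact hx hxOm L L.2 (Eventually.of_forall fun y => hL2 x y)

end

end Crest.Agent.R096.Sbc_447
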