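import Crest.Agent.R096.Sq13_55

/-!
# R096 (row 96), SOBSQ, part 14 (helper55): **the main theorem** `sobsq`
-/

set_option autoImplicit false

open Set Metric Filter Topology MeasureTheory

namespace Crest.Agent.R096.Sq_55

open Crest.Agent.R096.Ce_537 Crest.Agent.R096.Bd_416 Crest.Agent.R96.Hole_348
open Crest.AnalysisR.VecCalc3 Crest.AnalysisR.Sobolev Crest.Agent.R096.Sk_962
open scoped ENNReal NNReal

/-- the data: finitely many cells and finitely many faces -/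
structure Sys (κ ι : Type*) where
  C : κ → Cell
  F : ι → Face
  m : κ → ℝ≥0
  Z : Set E3
  disC : ∀ k l, k ≠ l → Disjoint (C k).U (C l).U
  disF : ∀ i j, i ≠ j → Disjoint (F i).V (F j).V
  side : ∀ j k, ∀ x ∈ (F j).V, ∀ y ∈ (F j).V, (F j).e x 0 = (F j).e y 0 →
    x ∈ (C k).P → y ∈ (C k).P
  slab : ∀ j k, ∀ x ∈ (F j).V, x ∈ (C k).P → ∀ y ∈ (C k).P \ (C k).U,
    (F j).ρ * |(F j).e x 0| ≤ (F j).M * ‖x - y‖
  hZ : ∀ k, ∀ y ∈ (C k).P \ (C k).U, y ∈ Z ∨ ∃ j, y ∈ (F j).V ∧ (F j).e y 0 = 0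
  mC : ∀ k, (C k).M ≤ m k
  mF : ∀ k j, ((F j).V ∩ (C k).P).Nonempty → (F j).M ≤ m k

/-- constant of a face -/
noncomputable def T2 (p : ℝ) (m : ℝ≥0) : ℝ := mc p m * |c2 p| * (2 * m)
/-- constant of a cell -/
noncomputable def T3 (p : ℝ) (m : ℝ≥0) : ℝ := mc p m * |c3 p| * (3 * (m:ℝ)^3)
/-- **the constant** -/
noncomputable def CC (p : ℝ) (m : ℝ≥0) : ℝ := (6:ℝ)^p * (6:ℝ)^p * T3 p m * (1 + T2 p m)

lemma mc_nonneg (p : ℝ) (M : ℝ≥0) : 0 ≤ mc p M := by unfold mc; positivity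
lemma T2_nonneg (p : ℝ) (M : ℝ≥0) : 0 ≤ T2 p M := by
  have := mc_nonneg p M
  unfold T2; positivity
lemma T3_nonneg (p : ℝ) (M : ℝ≥0) : 0 ≤ T3 p M := by
  have := mc_nonneg p M
  unfold T3; positivity

lemma mc_mono {p : ℝ} (hp : 0 ≤ p) {M m : ℝ≥0} (h : M ≤ m) : mc p M ≤ mc p m := by
  have h' : (M:ℝ) ≤ m := by exact_mod_cast h
  have h2 : (M:ℝ) * M ≤ (m:ℝ) * m := mul_le_mul h' h' M.coe_nonneg m.coe_nonneg
  have h3 := Real.rpow_le_rpow (by positivity) h2 hp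
  unfold mc
  gcongr

lemma aF_le {p : ℝ} (hp : 0 ≤ p) {M m ρ : ℝ≥0} (h1 : 1 ≤ M) (hρ : 0 < ρ) (hm : M ≤ m) {δ : ℝ}
    (hδ : 0 < δ) : ENNReal.ofReal (mc p M * (c2 p / (δ / (2 * M * ρ)))) ≤
      ENNReal.ofReal (T2 p m) * ENNReal.ofReal (ρ / δ) := by
  have hM : (1:ℝ) ≤ M := by exact_mod_cast h1
  have hρ' : (0:ℝ) < ρ := by exact_mod_cast hρ
  have hm' : (M:ℝ) ≤ m := by exact_mod_cast hm
  rw [← ENNReal.ofReal_mul (T2_nonneg p m)]
  apply ENNReal.ofReal_le_ofReal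
  have e1 : mc p M * (c2 p / (δ / (2 * M * ρ))) = mc p M * c2 p * (2 * M) * (ρ / δ) := by
    field_simp
  rw [e1]
  refine mul_le_mul_of_nonneg_right ?_ (by positivity)
  unfold T2
  have a1 := mc_mono hp hm
  have a2 := mc_nonneg p M
  have a3 := le_abs_self (c2 p)
  have a4 := abs_nonneg (c2 p)
  have a5 := mul_nonneg (mc_nonneg p m) a4
  calc mc p M * c2 p * (2 * M) ≤ mc p M * |c2 p| * (2 * M) := by gcongr
    _ ≤ mc p m * |c2 p| * (2 * m) := by gcongr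

lemma aC_le {p : ℝ} (hp : 0 ≤ p) {M m R : ℝ≥0} (h1 : 1 ≤ M) (hR : 0 < R) (hm : M ≤ m) {δ : ℝ}
    (hδ : 0 < δ) : ENNReal.ofReal (mc p M * (c3 p / (δ / (3 * (m:ℝ)^3 * R)))) ≤
      ENNReal.ofReal (T3 p m) * ENNReal.ofReal (R / δ) := by
  have hM : (1:ℝ) ≤ M := by exact_mod_cast h1
  have hR' : (0:ℝ) < R := by exact_mod_cast hR
  have hm' : (M:ℝ) ≤ m := by exact_mod_cast hm
  rw [← ENNReal.ofReal_mul (T3_nonneg p m)]
  apply ENNReal.ofReal_le_ofReal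
  have hm0 : (0:ℝ) < m := by linarith
  have e1 : mc p M * (c3 p / (δ / (3 * (m:ℝ)^3 * R))) =
      mc p M * c3 p * (3 * (m:ℝ)^3) * (R / δ) := by
    field_simp
  rw [e1]
  refine mul_le_mul_of_nonneg_right ?_ (by positivity)
  unfold T3
  have a1 := mc_mono hp hm
  have a2 := mc_nonneg p M
  have a3 := le_abs_self (c3 p)
  have a4 := abs_nonneg (c3 p)
  have a5 := mul_nonneg (mc_nonneg p m) a4
  calc mc p M * c3 p * (3 * (m:ℝ)^3) ≤ mc p M * |c3 p| * (3 * (m:ℝ)^3) := by gcongr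
    _ ≤ mc p m * |c3 p| * (3 * (m:ℝ)^3) := by gcongr

lemma exists_small {X ε : ℝ≥0∞} (hX : X ≠ ∞) (hε : ε ≠ 0) : ∃ β : ℝ≥0∞, β ≠ 0 ∧ X * β ≤ ε := by
  refine ⟨ε / (X + 1), ?_, ?_⟩
  · rw [Ne, ENNReal.div_eq_zero_iff]
    push Not
    exact ⟨hε, ENNReal.add_ne_top.2 ⟨hX, ENNReal.one_ne_top⟩⟩
  · calc X * (ε / (X + 1)) ≤ (X + 1) * (ε / (X + 1)) := mul_le_mul' le_self_add le_rfl
      _ ≤ ε := ENNReal.mul_div_le

lemma preim_w2 {Om : Set R3} {χ : E3 ≃ₜ E3} {κ : Type*} {O : κ → Set E3}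
    (hO : ∀ j, ∀ x ∈ O j, w2 x ∈ Om) (h1 : ∀ j, ∀ x ∈ O j, χ x ∈ O j)
    (h2 : ∀ x, (∀ j, x ∉ O j) → χ x = x) (z : E3) : w2 (χ z) ∈ Om ↔ w2 z ∈ Om := by
  by_cases h : ∃ j, z ∈ O j
  · obtain ⟨j, hj⟩ := h
    exact ⟨fun _ => hO j z hj, fun _ => hO j _ (h1 j z hj)⟩
  · push Not at h
    rw [h2 z h]

/-- **SOBSQ** -/
theorem sobsq {κ ι : Type*} [Fintype κ] [Fintype ι] (X : Sys κ ι) {p : ℝ} (hp : 0 < p)
    (hp3 : p < 3) (hp2 : Nonempty ι → p < 2) (hS : SobChain p) {Om La : Set R3} {f : R3 → R3}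
    {G : Fin 3 → R3 → R3} (hOm : IsOpen Om) (h : SH p Om La f G)
    (hC : ∀ k, ∀ x ∈ (X.C k).P, w2 x ∈ Om) (hF : ∀ j, ∀ x ∈ (X.F j).K, w2 x ∈ Om)
    {δ : ℝ} (hδ : 0 < δ) (hδC : ∀ k, δ ≤ (X.C k).R) (hδF : ∀ j, δ ≤ (X.F j).ρ)
    {ε : ℝ≥0∞} (hε : ε ≠ 0) :
    ∃ χ : E3 ≃ₜ E3, PLOn χ univ ∧ PLOn χ.symm univ ∧
      (∀ x, (∀ k, x ∉ (X.C k).U) → (∀ j, x ∉ (X.F j).V) → χ x = x) ∧
      (∀ k x, χ x ∈ (X.C k).P ↔ x ∈ (X.C k).P) ∧
      ∃ G' : Fin 3 → R3 → R3, SH p Om La (fun x => f (toR χ x)) G' ∧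
        ∀ k, ∫⁻ x in (X.C k).P, En p G' (w2 x) ≤
          ENNReal.ofReal (CC p (X.m k)) * (ENNReal.ofReal ((X.C k).R / δ) *
            ((∑ j, ENNReal.ofReal ((X.F j).ρ / δ) *
              ∫⁻ x in (X.C k).P ∩ (X.F j).V ∩ nb δ (X.F j).rim, En p G (w2 x)) +
            ∫⁻ x in (X.C k).P ∩ (nb δ X.Z ∪ ⋃ j, nb δ (X.F j).rim), En p G (w2 x))) + ε := by
  classical
  obtain ⟨u, hu⟩ := exists_isEn hp hOm h
  have hε2 : ε / 2 ≠ 0 := by
    rw [Ne, ENNReal.div_eq_zero_iff]; push Not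
    exact ⟨hε, ENNReal.ofNat_ne_top⟩
  -- parameters
  set ηC : κ → ℝ := fun k => δ / (3 * (X.m k : ℝ)^3 * (X.C k).R) with hηC
  set ηF : ι → ℝ := fun j => δ / (2 * (X.F j).M * (X.F j).ρ) with hηF
  have hm1 : ∀ k, (1:ℝ) ≤ X.m k := fun k => by
    have := (X.C k).one.trans (X.mC k)
    exact_mod_cast this
  have hηC0 : ∀ k, 0 < ηC k := fun k => by
    have := hm1 k
    have := (X.C k).R_pos
    rw [hηC]; positivity
  have hηC1 : ∀ k, ηC k ≤ 1/2 := fun k => by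
    have h1 := hm1 k
    have h2 := (X.C k).R_pos
    have h3 := hδC k
    show δ / (3 * (X.m k : ℝ)^3 * (X.C k).R) ≤ 1/2
    have h4 : (1:ℝ) ≤ (X.m k : ℝ)^3 := one_le_pow₀ h1
    rw [div_le_iff₀ (by positivity)]
    nlinarith
  have hηF0 : ∀ j, 0 < ηF j := fun j => by
    have := (X.F j).M_pos
    have := (X.F j).ρ_pos
    rw [hηF]; positivity
  have hηF1 : ∀ j, ηF j ≤ 1/2 := fun j => by
    have h1 := (X.F j).M_one
    have h2 := (X.F j).ρ_pos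
    have h3 := hδF j
    show δ / (2 * (X.F j).M * (X.F j).ρ) ≤ 1/2
    rw [div_le_iff₀ (by positivity)]
    nlinarith
  set aC : κ → ℝ≥0∞ := fun k => ENNReal.ofReal (mc p (X.C k).M * (c3 p / ηC k)) with haC
  set aF : ι → ℝ≥0∞ := fun j => ENNReal.ofReal (mc p (X.F j).M * (c2 p / ηF j)) with haF
  set s6 : ℝ≥0∞ := ENNReal.ofReal ((6:ℝ)^p) with hs6
  have s6top : s6 ≠ ∞ := ENNReal.ofReal_ne_top
  -- step 1: the faces
  set W1 : ℝ≥0∞ := (∑ k, s6 * aC k * s6) * (Fintype.card ι * ∫⁻ x, u x) with hW1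
  have W1top : W1 ≠ ∞ := by
    refine ENNReal.mul_ne_top ?_ (ENNReal.mul_ne_top (ENNReal.natCast_ne_top _) hu.int)
    exact (ENNReal.sum_lt_top.2 fun k _ => (ENNReal.mul_ne_top (ENNReal.mul_ne_top s6top
      ENNReal.ofReal_ne_top) s6top).lt_top).ne
  obtain ⟨β1, hβ1, hW1β⟩ := exists_small W1top hε2
  have hface := fun j => (X.F j).exists_h hp (hp2 ⟨j⟩) (hηF0 j) (hηF1 j) hβ1
  choose hj f1 f2 f3 f4 f5 using hface
  obtain ⟨H, H1, H2, H3, H4⟩ := exists_prod Finset.univ hj (fun j => (X.F j).V)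
    (fun j _ => f1 j) (fun j _ => f2 j) (fun j _ => f3 j) (fun i _ j _ hij => X.disF i j hij)
  have H3' : ∀ j, ∀ x ∈ (X.F j).V, H x = hj j x := fun j x hx => H3 j (Finset.mem_univ j) x hx
  have H4' : ∀ x, (∀ j, x ∉ (X.F j).V) → H x = x := fun x hx => H4 x fun j _ => hx j
  have HV : ∀ j, ∀ x ∈ (X.F j).V, H x ∈ (X.F j).V := fun j x hx => by
    rw [H3' j x hx]; exact maps_of_fix (hj j).injective (f3 j) hx
  obtain ⟨G1, u1, k1, k2, k3⟩ := comp_step hp hS hOm h hu H H1 H2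
    (preim_w2 (O := fun j => (X.F j).V) (fun j x hx => hF j x ((X.F j).cht.sub hx)) HV H4')
  -- step 2: the cells
  have W2top : s6 * ∫⁻ x, u1 x ≠ ∞ := ENNReal.mul_ne_top s6top k2.int
  obtain ⟨β2, hβ2, hW2β⟩ := exists_small W2top hε2
  have hcell := fun k => (X.C k).exists_h hp hp3 (hηC0 k) (hηC1 k) hβ2
  choose gk g1 g2 g3 g5 using hcell
  obtain ⟨Y, Y1, Y2, Y3, Y4⟩ := exists_prod Finset.univ gk (fun k => (X.C k).U)
    (fun k _ => g1 k) (fun k _ => g2 k) (fun k _ => g3 k) (fun i _ j _ hij => X.disC i j hij)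
  have Y3' : ∀ k, ∀ x ∈ (X.C k).U, Y x = gk k x := fun k x hx => Y3 k (Finset.mem_univ k) x hx
  have Y4' : ∀ x, (∀ k, x ∉ (X.C k).U) → Y x = x := fun x hx => Y4 x fun k _ => hx k
  have YU : ∀ k, ∀ x ∈ (X.C k).U, Y x ∈ (X.C k).U := fun k x hx => by
    rw [Y3' k x hx]; exact maps_of_fix (gk k).injective (g3 k) hx
  obtain ⟨G2, u2, l1, l2, l3⟩ := comp_step hp hS hOm k1 k2 Y Y1 Y2
    (preim_w2 (O := fun k => (X.C k).U) (fun k x hx => hC k x ((X.C k).cht.sub hx)) YU Y4')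
  -- invariance of the cells
  have HP : ∀ k, ∀ x ∈ (X.C k).P, H x ∈ (X.C k).P := by
    intro k x hx
    by_cases hx2 : ∃ j, x ∈ (X.F j).V
    · obtain ⟨j, hj2⟩ := hx2
      refine X.side j k x hj2 _ (HV j x hj2) ?_ hx
      rw [H3' j x hj2, f4 j x hj2]
    · push Not at hx2
      rw [H4' x hx2]; exact hx
  have HP' : ∀ k, ∀ x, H x ∈ (X.C k).P → x ∈ (X.C k).P := by
    intro k x hx
    by_cases hx2 : ∃ j, x ∈ (X.F j).V
    · obtain ⟨j, hj2⟩ := hx2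
      refine X.side j k _ (HV j x hj2) _ hj2 ?_ hx
      rw [H3' j x hj2, f4 j x hj2]
    · push Not at hx2
      rwa [H4' x hx2] at hx
  have YP : ∀ k, ∀ x ∈ (X.C k).P, Y x ∈ (X.C k).P := by
    intro k x hx
    by_cases hx2 : ∃ l, x ∈ (X.C l).U
    · obtain ⟨l, hl⟩ := hx2
      have hkl : l = k := by
        by_contra hne
        exact Set.disjoint_left.1 (Cell.disjoint_P (X.disC k l (Ne.symm hne))) hx hl
      subst hkl
      exact (X.C l).cht.sub (YU l x hl)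
    · push Not at hx2
      rw [Y4' x hx2]; exact hx
  have YP' : ∀ k, ∀ x, Y x ∈ (X.C k).P → x ∈ (X.C k).P := by
    intro k x hx
    by_cases hx2 : ∃ l, x ∈ (X.C l).U
    · obtain ⟨l, hl⟩ := hx2
      have hkl : l = k := by
        by_contra hne
        exact Set.disjoint_left.1 (Cell.disjoint_P (X.disC k l (Ne.symm hne))) hx (YU l x hl)
      subst hkl
      exact (X.C l).cht.sub hl
    · push Not at hx2
      rwa [Y4' x hx2] at hx
  refine ⟨Y.trans H, H1.comp Y1 (mapsTo_univ _ _), Y2.comp H2 (mapsTo_univ _ _), ?_, ?_, G2, ?_, ?_⟩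
  · intro x hx1 hx2
    show H (Y x) = x
    rw [Y4' x hx1, H4' x hx2]
  · intro k x
    show H (Y x) ∈ _ ↔ _
    exact ⟨fun hx => YP' k x (HP' k _ hx), fun hx => HP k _ (YP k x hx)⟩
  · exact l1
  -- the estimate
  intro k
  have mOm : MeasurableSet (w2 ⁻¹' Om) := (hOm.preimage w2.continuous).measurableSet
  -- (a) the cell step
  set Lk : Set E3 := (X.C k).P ∩ (X.C k).e ⁻¹' {z | 1 - ηC k < ‖z‖ ∧ ‖z‖ ≤ 1} with hLk
  have qa : ∫⁻ x in (X.C k).U, u2 x ≤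
      s6 * (aC k * (∫⁻ x in Lk, u1 x) + β2 * ∫⁻ x in (X.C k).P, u1 x) := by
    have := Est.energy (S := univ) k2.meas k2.fin l3
      (Est.prod (X.C k).cht.opU (Y3' k) (g5 k)) (fun z hz => hC k z ((X.C k).cht.sub hz))
      MeasurableSet.univ (fun x _ _ => mem_univ _)
    rwa [inter_univ, inter_univ, inter_univ] at this
  have qa' : ∫⁻ x in (X.C k).P, En p G2 (w2 x) ≤
      s6 * (aC k * (∫⁻ x in Lk, u1 x) + β2 * ∫⁻ x in (X.C k).P, u1 x) := by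
    rw [← l2.setInt hOm (hC k)]
    refine le_trans ?_ qa
    have e1 : (X.C k).P ⊆ (X.C k).U ∪ ((X.C k).P \ (X.C k).U) := by
      intro x hx
      by_cases h1 : x ∈ (X.C k).U
      · exact Or.inl h1
      · exact Or.inr ⟨hx, h1⟩
    refine (lintegral_mono_set e1).trans ((lintegral_union_le _ _ _).trans ?_)
    rw [setLIntegral_measure_zero _ _ (X.C k).null, add_zero]
  -- (b) off the faces
  have qb : ∀ᵐ z, w2 z ∈ Om → (∀ j, z ∉ (X.F j).V) → u1 z ≤ s6 * u z := by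
    have hn : ∀ᵐ z, ∀ j, z ∉ (X.F j).K \ (X.F j).V := by
      rw [ae_all_iff]
      intro j
      exact measure_eq_zero_iff_ae_notMem.1 (X.F j).null
    filter_upwards [k3, hn] with z hz hz2 hzO hzV
    have hzK : ∀ j, z ∉ (X.F j).K := fun j hj3 => hz2 j ⟨hj3, hzV j⟩
    have h6 : ∀ᶠ y in 𝓝 z, ∀ j, y ∉ (X.F j).K :=
      eventually_all.2 fun j => (X.F j).cht.clK.isOpen_compl.mem_nhds (hzK j)
    have h7 : LLV 1 H z := by
      filter_upwards [h6] with y hy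
      rw [H4' y fun j hj3 => hy j ((X.F j).cht.sub hj3), H4' z hzV, one_mul]
    have h8 := hz hzO 1 le_rfl h7
    rw [Real.one_rpow, ENNReal.ofReal_one, one_mul, H4' z hzV] at h8
    rw [six_cancel p (u1 z)]
    exact mul_le_mul' le_rfl h8
  -- (c) the faces
  set Ij : ι → ℝ≥0∞ := fun j =>
    ∫⁻ x in (X.C k).P ∩ (X.F j).V ∩ nb δ (X.F j).rim, u x with hIj
  have hdist : ∀ j, ((X.F j).V ∩ (X.C k).P).Nonempty → ((X.F j).M : ℝ) ≤ X.m k := fun j hj3 => by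
    exact_mod_cast X.mF k j hj3
  have hd0 : ((X.C k).M : ℝ) * (X.C k).R * ηC k ≤ δ / (3 * (X.m k : ℝ)^2) := by
    have h1 := hm1 k
    have h2 := (X.C k).R_pos
    have h3 : ((X.C k).M : ℝ) ≤ X.m k := by exact_mod_cast X.mC k
    show ((X.C k).M : ℝ) * (X.C k).R * (δ / (3 * (X.m k : ℝ)^3 * (X.C k).R)) ≤ _
    have e : ((X.C k).M : ℝ) * (X.C k).R * (δ / (3 * (X.m k : ℝ)^3 * (X.C k).R)) =
        ((X.C k).M / X.m k) * (δ / (3 * (X.m k : ℝ)^2)) := by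
      field_simp
    rw [e]
    have h5 : ((X.C k).M : ℝ) / X.m k ≤ 1 := by rw [div_le_one (by linarith)]; exact h3
    have h6 : 0 ≤ δ / (3 * (X.m k : ℝ)^2) := by positivity
    nlinarith
  have hδ' : δ / (3 * (X.m k : ℝ)^2) ≤ δ := by
    have h1 := hm1 k
    rw [div_le_iff₀ (by positivity)]
    have : (1:ℝ) ≤ (X.m k : ℝ)^2 := one_le_pow₀ h1
    nlinarith
  have qc : ∀ j, ∫⁻ x in Lk ∩ (X.F j).V, u1 x ≤
      s6 * (ENNReal.ofReal (T2 p (X.m k)) * (ENNReal.ofReal ((X.F j).ρ / δ) * Ij j) +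
        β1 * ∫⁻ x, u x) := by
    intro j
    by_cases hne : ((X.F j).V ∩ (X.C k).P).Nonempty
    · have hM := hdist j hne
      have hM1 := (X.F j).M_one
      have hρ := (X.F j).ρ_pos
      set S : Set E3 := (X.C k).P ∩ ((X.F j).K ∩ (X.F j).e ⁻¹' {z | |z 0| ≤ ηF j}) with hSdef
      have clS : IsClosed S := by
        refine (X.C k).cht.clK.inter ?_
        refine (X.F j).cht.pl.1.preimage_isClosed_of_isClosed (X.F j).cht.clK ?_
        exact isClosed_le (continuous_apply 0).abs continuous_const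
      have sub1 : Lk ∩ (X.F j).V ⊆ (X.F j).V ∩ S := by
        rintro x ⟨⟨hx1, hx2⟩, hx3⟩
        refine ⟨hx3, hx1, (X.F j).cht.sub hx3, ?_⟩
        obtain ⟨y, hy, hxy⟩ := (X.C k).layer (by have := hηC1 k; linarith) hx1 hx2.1
        have h1 := X.slab j k x hx3 hx1 y hy
        show |(X.F j).e x 0| ≤ δ / (2 * (X.F j).M * (X.F j).ρ)
        rw [le_div_iff₀ (by positivity)]
        have h2 : ‖x - y‖ ≤ δ / (3 * (X.m k : ℝ)^2) := hxy.trans hd0
        have h3 : ((X.F j).M : ℝ) * ‖x - y‖ ≤ (X.F j).M * (δ / (3 * (X.m k : ℝ)^2)) :=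
          mul_le_mul_of_nonneg_left h2 (by positivity)
        have h4 : (X.F j).ρ * |(X.F j).e x 0| ≤ (X.F j).M * (δ / (3 * (X.m k : ℝ)^2)) :=
          h1.trans h3
        have h5 : 2 * ((X.F j).M : ℝ) * ((X.F j).M * (δ / (3 * (X.m k : ℝ)^2))) ≤ δ := by
          have h6 := hm1 k
          have e : 2 * ((X.F j).M : ℝ) * ((X.F j).M * (δ / (3 * (X.m k : ℝ)^2))) =
              (2/3) * δ * (((X.F j).M / X.m k) * ((X.F j).M / X.m k)) := by
            field_simp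
          rw [e]
          have h7 : ((X.F j).M : ℝ) / X.m k ≤ 1 := by rw [div_le_one (by linarith)]; exact hM
          have h8 : 0 ≤ ((X.F j).M : ℝ) / X.m k := by positivity
          have h9 : ((X.F j).M / X.m k : ℝ) * ((X.F j).M / X.m k) ≤ 1 := by nlinarith
          nlinarith
        calc |(X.F j).e x 0| * (2 * (X.F j).M * (X.F j).ρ)
            = 2 * ((X.F j).M : ℝ) * ((X.F j).ρ * |(X.F j).e x 0|) := by ring
          _ ≤ 2 * ((X.F j).M : ℝ) * ((X.F j).M * (δ / (3 * (X.m k : ℝ)^2))) :=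
              mul_le_mul_of_nonneg_left h4 (by positivity)
          _ ≤ δ := h5
      have key := Est.energy (S := S) hu.meas hu.fin k3
        (Est.prod (X.F j).cht.opU (H3' j) (f5 j)) (fun z hz => hF j z ((X.F j).cht.sub hz))
        clS.measurableSet (by
          rintro x hxV ⟨hx1, hx2, hx3⟩
          have h1 := HV j x hxV
          refine ⟨HP k x hx1, (X.F j).cht.sub h1, ?_⟩
          show |(X.F j).e (H x) 0| ≤ ηF j
          rw [H3' j x hxV, f4 j x hxV]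
          exact hx3)
      refine (lintegral_mono_set sub1).trans (key.trans (mul_le_mul' le_rfl (add_le_add ?_
        (mul_le_mul' le_rfl (setLIntegral_le_lintegral _ _)))))
      rw [← mul_assoc]
      refine mul_le_mul' (aF_le hp.le (X.F j).one (X.F j).pos (X.mF k j hne) hδ) ?_
      have sub2 : ((X.F j).K ∩ (X.F j).e ⁻¹'
          {z | (1 - ηF j) * (1 - |z 0|) ≤ wid z ∧ |z 0| + wid z ≤ 1}) ∩ S ⊆
          ((X.C k).P ∩ (X.F j).V ∩ nb δ (X.F j).rim) ∪ ((X.F j).K \ (X.F j).V) := by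
        rintro x ⟨⟨hx1, hx2⟩, hx3, -, hx4⟩
        by_cases hxV : x ∈ (X.F j).V
        · left
          refine ⟨⟨hx3, hxV⟩, ?_⟩
          obtain ⟨r, hr, hxr⟩ := (X.F j).near hx1 (hηF0 j).le hx4 hx2.1
          refine ⟨r, hr, hxr.trans (le_of_eq ?_)⟩
          show ((X.F j).M : ℝ) * (X.F j).ρ * (δ / (2 * (X.F j).M * (X.F j).ρ) +
            δ / (2 * (X.F j).M * (X.F j).ρ)) = δ
          field_simp
          ring
        · exact Or.inr ⟨hx1, hxV⟩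
      refine (lintegral_mono_set sub2).trans ((lintegral_union_le _ _ _).trans ?_)
      rw [setLIntegral_measure_zero _ _ (X.F j).null, add_zero]
    · have e1 : Lk ∩ (X.F j).V = ∅ := by
        rw [← not_nonempty_iff_eq_empty]
        rintro ⟨x, hx1, hx2⟩
        exact hne ⟨x, hx2, hx1.1⟩
      rw [e1, Measure.restrict_empty, lintegral_zero_measure]
      exact zero_le
  -- (d) the rest of the layer
  set J : ℝ≥0∞ := ∫⁻ x in (X.C k).P ∩ (nb δ X.Z ∪ ⋃ j, nb δ (X.F j).rim), u x with hJ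
  have qd : ∫⁻ x in Lk \ ⋃ j, (X.F j).V, u1 x ≤ s6 * J := by
    have mW : MeasurableSet (w2 ⁻¹' Om ∩ (⋃ j, (X.F j).V)ᶜ) :=
      mOm.inter (isOpen_iUnion fun j => (X.F j).cht.opU).measurableSet.compl
    have h1 : ∀ᵐ z ∂(volume.restrict (w2 ⁻¹' Om ∩ (⋃ j, (X.F j).V)ᶜ)), u1 z ≤ s6 * u z := by
      rw [ae_restrict_iff' mW]
      filter_upwards [qb] with z hz hzW
      exact hz hzW.1 fun j hj3 => hzW.2 (mem_iUnion.2 ⟨j, hj3⟩)
    have h2 : Lk \ (⋃ j, (X.F j).V) ⊆ w2 ⁻¹' Om ∩ (⋃ j, (X.F j).V)ᶜ :=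
      fun x hx => ⟨hC k x hx.1.1, hx.2⟩
    have h3 : Lk \ (⋃ j, (X.F j).V) ⊆ (X.C k).P ∩ (nb δ X.Z ∪ ⋃ j, nb δ (X.F j).rim) := by
      rintro x ⟨⟨hx1, hx2⟩, hx3⟩
      refine ⟨hx1, ?_⟩
      obtain ⟨y, hy, hxy⟩ := (X.C k).layer (by have := hηC1 k; linarith) hx1 hx2.1
      have h4 : ‖x - y‖ ≤ δ / (3 * (X.m k : ℝ)^2) := hxy.trans hd0
      rcases X.hZ k y hy with h5 | ⟨j, hj1, hj2⟩
      · left
        exact ⟨y, h5, h4.trans hδ'⟩
      · right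
        have hxV : x ∉ (X.F j).V := fun h6 => hx3 (mem_iUnion.2 ⟨j, h6⟩)
        obtain ⟨r, hr, hyr⟩ := (X.F j).exit hj1 hj2 hxV h4
        refine mem_iUnion.2 ⟨j, r, hr, ?_⟩
        have hM := hdist j ⟨y, hj1, hy.1⟩
        have hM1 := (X.F j).M_one
        have h6 := hm1 k
        have h7 : ‖x - r‖ ≤ ‖x - y‖ + ‖y - r‖ := norm_sub_le_norm_sub_add_norm_sub _ _ _
        have h8 : (1 + 2 * ((X.F j).M * (X.F j).M : ℝ)) * (δ / (3 * (X.m k : ℝ)^2)) ≤ δ := by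
          have h9 : (1 + 2 * ((X.F j).M * (X.F j).M : ℝ)) ≤ 3 * (X.m k : ℝ)^2 := by nlinarith
          have h10 : 0 ≤ δ / (3 * (X.m k : ℝ)^2) := by positivity
          calc _ ≤ 3 * (X.m k : ℝ)^2 * (δ / (3 * (X.m k : ℝ)^2)) :=
                mul_le_mul_of_nonneg_right h9 h10
            _ = δ := by field_simp
        nlinarith
    calc ∫⁻ x in Lk \ ⋃ j, (X.F j).V, u1 x ≤ ∫⁻ x in Lk \ ⋃ j, (X.F j).V, s6 * u x :=
          lintegral_mono_ae (ae_mono (Measure.restrict_mono h2 le_rfl) h1)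
      _ = s6 * ∫⁻ x in Lk \ ⋃ j, (X.F j).V, u x := lintegral_const_mul _ hu.meas
      _ ≤ s6 * J := mul_le_mul' le_rfl (lintegral_mono_set h3)
  -- (e) the layer
  have qe : ∫⁻ x in Lk, u1 x ≤ s6 * (ENNReal.ofReal (1 + T2 p (X.m k)) *
      ((∑ j, ENNReal.ofReal ((X.F j).ρ / δ) * Ij j) + J)) +
      s6 * (Fintype.card ι * (β1 * ∫⁻ x, u x)) := by
    have e1 : Lk ⊆ (Lk \ ⋃ j, (X.F j).V) ∪ ⋃ j, (Lk ∩ (X.F j).V) := by
      intro x hx
      by_cases h1 : x ∈ ⋃ j, (X.F j).V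
      · obtain ⟨j, hj3⟩ := mem_iUnion.1 h1
        exact Or.inr (mem_iUnion.2 ⟨j, hx, hj3⟩)
      · exact Or.inl ⟨hx, h1⟩
    have e2 : ∫⁻ x in ⋃ j, (Lk ∩ (X.F j).V), u1 x ≤ ∑ j, ∫⁻ x in Lk ∩ (X.F j).V, u1 x := by
      refine (lintegral_iUnion_le _ _).trans ?_
      rw [tsum_fintype]
    have t1 : (1:ℝ) ≤ 1 + T2 p (X.m k) := by have := T2_nonneg p (X.m k); linarith
    have t2 : (1:ℝ≥0∞) ≤ ENNReal.ofReal (1 + T2 p (X.m k)) := by
      rw [← ENNReal.ofReal_one]; exact ENNReal.ofReal_le_ofReal t1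
    have t3 : ENNReal.ofReal (T2 p (X.m k)) ≤ ENNReal.ofReal (1 + T2 p (X.m k)) :=
      ENNReal.ofReal_le_ofReal (by linarith)
    calc ∫⁻ x in Lk, u1 x ≤ s6 * J + ∑ j, s6 * (ENNReal.ofReal (T2 p (X.m k)) *
          (ENNReal.ofReal ((X.F j).ρ / δ) * Ij j) + β1 * ∫⁻ x, u x) :=
          (lintegral_mono_set e1).trans ((lintegral_union_le _ _ _).trans
            (add_le_add qd (e2.trans (Finset.sum_le_sum fun j _ => qc j))))
      _ = s6 * J + s6 * (ENNReal.ofReal (T2 p (X.m k)) *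
          (∑ j, ENNReal.ofReal ((X.F j).ρ / δ) * Ij j)) +
            s6 * (Fintype.card ι * (β1 * ∫⁻ x, u x)) := by
          rw [← Finset.mul_sum, Finset.sum_add_distrib, ← Finset.mul_sum, Finset.sum_const,
            Finset.card_univ, nsmul_eq_mul, mul_add, ← add_assoc]
      _ ≤ s6 * (ENNReal.ofReal (1 + T2 p (X.m k)) * J) + s6 * (ENNReal.ofReal (1 + T2 p (X.m k)) *
          (∑ j, ENNReal.ofReal ((X.F j).ρ / δ) * Ij j)) +
            s6 * (Fintype.card ι * (β1 * ∫⁻ x, u x)) := by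
          refine add_le_add (add_le_add (mul_le_mul' le_rfl ?_) (mul_le_mul' le_rfl
            (mul_le_mul' t3 le_rfl))) le_rfl
          calc J = 1 * J := (one_mul _).symm
            _ ≤ _ := mul_le_mul' t2 le_rfl
      _ = _ := by ring
  -- (f) conclusion
  have i1 : ∀ j, ∫⁻ x in (X.C k).P ∩ (X.F j).V ∩ nb δ (X.F j).rim, En p G (w2 x) = Ij j :=
    fun j => (hu.setInt hOm fun z hz => hC k z hz.1.1).symm
  have i2 : ∫⁻ x in (X.C k).P ∩ (nb δ X.Z ∪ ⋃ j, nb δ (X.F j).rim), En p G (w2 x) = J :=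
    (hu.setInt hOm fun z hz => hC k z hz.1).symm
  simp only [i1, i2]
  set Sg := (∑ j, ENNReal.ofReal ((X.F j).ρ / δ) * Ij j) + J with hSg
  have hW : s6 * (aC k * (s6 * (Fintype.card ι * (β1 * ∫⁻ x, u x)))) ≤ ε / 2 := by
    refine le_trans ?_ hW1β
    calc s6 * (aC k * (s6 * (Fintype.card ι * (β1 * ∫⁻ x, u x))))
        = (s6 * aC k * s6) * (Fintype.card ι * ∫⁻ x, u x) * β1 := by ring
      _ ≤ (∑ k, s6 * aC k * s6) * (Fintype.card ι * ∫⁻ x, u x) * β1 := by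
          refine mul_le_mul' (mul_le_mul' ?_ le_rfl) le_rfl
          exact Finset.single_le_sum (f := fun k => s6 * aC k * s6) (fun _ _ => zero_le)
            (Finset.mem_univ k)
  have hV : s6 * (β2 * ∫⁻ x in (X.C k).P, u1 x) ≤ ε / 2 := by
    refine le_trans ?_ hW2β
    calc s6 * (β2 * ∫⁻ x in (X.C k).P, u1 x) ≤ s6 * (β2 * ∫⁻ x, u1 x) :=
          mul_le_mul' le_rfl (mul_le_mul' le_rfl (setLIntegral_le_lintegral _ _))
      _ = s6 * (∫⁻ x, u1 x) * β2 := by ring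
  have haCk : aC k ≤ ENNReal.ofReal (T3 p (X.m k)) * ENNReal.ofReal ((X.C k).R / δ) :=
    aC_le hp.le (X.C k).one (X.C k).pos (X.mC k) hδ
  have hCC : ENNReal.ofReal (CC p (X.m k)) = s6 * s6 * ENNReal.ofReal (T3 p (X.m k)) *
      ENNReal.ofReal (1 + T2 p (X.m k)) := by
    have t3 := T3_nonneg p (X.m k)
    have t2 := T2_nonneg p (X.m k)
    rw [CC, ENNReal.ofReal_mul (by positivity), ENNReal.ofReal_mul (by positivity),
      ENNReal.ofReal_mul (by positivity)]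
  calc ∫⁻ x in (X.C k).P, En p G2 (w2 x)
      ≤ s6 * (aC k * (∫⁻ x in Lk, u1 x) + β2 * ∫⁻ x in (X.C k).P, u1 x) := qa'
    _ ≤ s6 * (aC k * (s6 * (ENNReal.ofReal (1 + T2 p (X.m k)) * Sg) +
        s6 * (Fintype.card ι * (β1 * ∫⁻ x, u x))) + β2 * ∫⁻ x in (X.C k).P, u1 x) :=
        mul_le_mul' le_rfl (add_le_add (mul_le_mul' le_rfl qe) le_rfl)
    _ = aC k * (s6 * s6 * (ENNReal.ofReal (1 + T2 p (X.m k)) * Sg)) +
        s6 * (aC k * (s6 * (Fintype.card ι * (β1 * ∫⁻ x, u x)))) +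
        s6 * (β2 * ∫⁻ x in (X.C k).P, u1 x) := by ring
    _ ≤ (ENNReal.ofReal (T3 p (X.m k)) * ENNReal.ofReal ((X.C k).R / δ)) *
        (s6 * s6 * (ENNReal.ofReal (1 + T2 p (X.m k)) * Sg)) + ε / 2 + ε / 2 :=
        add_le_add (add_le_add (mul_le_mul' haCk le_rfl) hW) hV
    _ = ENNReal.ofReal (CC p (X.m k)) * (ENNReal.ofReal ((X.C k).R / δ) * Sg) + ε := by
        rw [add_assoc, ENNReal.add_halves, hCC]
        ring

end Crest.Agent.R096.Sq_55
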