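/-
helper622, row 96, COMPOSITE B, part 1: the Lipschitz function of a PL homeomorphism, pull back of
densities, the squeezes of cells and faces with their explicit form (from helper55's Sq11).
-/
import Crest.Agent.R096.Sq14_55
import Crest.Agent.R096.Sbc3_447

set_option autoImplicit false
set_option linter.unusedSectionVars false

open Set Metric Filter Topology MeasureTheory
open scoped ENNReal NNReal

namespace Crest.Agent.R096.Cob_622

open Crest.Agent.R096.Ce_537 Crest.Agent.R096.Bd_416 Crest.Agent.R96.Hole_348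
open Crest.AnalysisR.VecCalc3 Crest.AnalysisR.Sobolev Crest.Agent.R096.Sk_962
open Crest.Agent.R096.Sq_55

/-! ### the Lipschitz function -/

/-- the local Lipschitz constant (at least one) of a PL map, almost everywhere -/
noncomputable def Lc (H : E3 → E3) (z : E3) : ℝ := max 1 ‖fderiv ℝ H z‖

lemma one_le_Lc (H : E3 → E3) (z : E3) : 1 ≤ Lc H z := le_max_left _ _

lemma measurable_Lc (H : E3 → E3) : Measurable (Lc H) :=
  measurable_const.max (measurable_fderiv ℝ H).norm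

lemma Lc_le {H : E3 → E3} {z : E3} {c : ℝ} (hc : 1 ≤ c) (h : LLV c H z) : Lc H z ≤ c := by
  refine max_le hc ?_
  exact norm_fderiv_le_of_lip' ℝ (by linarith) h

lemma LLV_Lc {H : E3 → E3} (h : PLOn H univ) : ∀ᵐ z, LLV (Lc H z) H z := by
  obtain ⟨h1, S, h2⟩ := h
  have h3 : ∀ᵐ z : E3, z ∉ Sbc_447.Nn S :=
    measure_eq_zero_iff_ae_notMem.1 (Sbc_447.null_Nn volume S)
  filter_upwards [h3] with z hz
  obtain ⟨a, ha, hza⟩ := h2 z (mem_univ z)
  have h4 := Sbc_447.near (continuousOn_univ.1 h1) (fun x => h2 x (mem_univ x)) hz ha hza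
  set A : E3 →L[ℝ] E3 := LinearMap.toContinuousLinearMap a.linear with hA
  have h5 : ∀ᶠ y in 𝓝 z, H y - H z = A (y - z) := by
    filter_upwards [h4] with y hy
    rw [hy, hza, ← vsub_eq_sub, ← a.linearMap_vsub]
    rfl
  have h6 : HasFDerivAt H A z := by
    have h7 : HasFDerivAt (fun y => H z + (A y - A z)) A z :=
      ((A.hasFDerivAt (x := z)).sub_const (A z)).const_add (H z)
    refine h7.congr_of_eventuallyEq ?_
    filter_upwards [h5] with y hy
    rw [← map_sub, ← hy]; abel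
  filter_upwards [h5] with y hy
  rw [hy]
  refine (A.le_opNorm _).trans ?_
  refine mul_le_mul_of_nonneg_right ?_ (norm_nonneg _)
  rw [Lc, h6.fderiv]
  exact le_max_right _ _

/-- the pull back of a density -/
noncomputable def pull (p : ℝ) (H : E3 → E3) (v : E3 → ℝ≥0∞) (z : E3) : ℝ≥0∞ :=
  ENNReal.ofReal ((Lc H z)^p) * v (H z)

lemma measurable_pull {p : ℝ} {H : E3 → E3} (hH : Continuous H) {v : E3 → ℝ≥0∞}
    (hv : Measurable v) : Measurable (pull p H v) :=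
  (((measurable_Lc H).pow_const p).ennreal_ofReal).mul (hv.comp hH.measurable)

lemma pull_le {p : ℝ} (hp : 0 ≤ p) {H : E3 → E3} {v : E3 → ℝ≥0∞} {z : E3} {c : ℝ} (hc : 1 ≤ c)
    (h : LLV c H z) : pull p H v z ≤ ENNReal.ofReal (c^p) * v (H z) := by
  refine mul_le_mul' (ENNReal.ofReal_le_ofReal ?_) le_rfl
  exact Real.rpow_le_rpow (by have := one_le_Lc H z; linarith) (Lc_le hc h) hp

/-- pull backs are bounded on integrals -/
lemma exists_pull {p : ℝ} (hp : 0 ≤ p) {H : E3 ≃ₜ E3} (h1 : PLOn H univ)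
    (h2 : PLOn H.symm univ) : ∃ C : ℝ≥0∞, C ≠ ∞ ∧ ∀ v : E3 → ℝ≥0∞, Measurable v →
      ∫⁻ z, pull p H v z ≤ C * ∫⁻ z, v z := by
  obtain ⟨c1, S, hS⟩ := h1
  obtain ⟨C1, hC1⟩ := Crest.Agent.R96.Sob7_199.lip_of_sel (s := univ) convex_univ c1 hS
  obtain ⟨c2, S', hS'⟩ := h2
  obtain ⟨C2, hC2⟩ := Crest.Agent.R96.Sob7_199.lip_of_sel (s := univ) convex_univ c2 hS'
  refine ⟨ENNReal.ofReal ((max 1 (C1:ℝ))^p) * (C2 : ℝ≥0∞)^3,
    ENNReal.mul_ne_top ENNReal.ofReal_ne_top (ENNReal.pow_ne_top ENNReal.coe_ne_top),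
    fun v hv => ?_⟩
  have hL : ∀ z, LLV (max 1 (C1:ℝ)) H z := by
    intro z
    refine Eventually.of_forall fun y => ?_
    have h3 := hC1.dist_le_mul y (mem_univ _) z (mem_univ _)
    rw [dist_eq_norm, dist_eq_norm] at h3
    exact h3.trans (mul_le_mul_of_nonneg_right (le_max_right _ _) (norm_nonneg _))
  calc ∫⁻ z, pull p H v z
      ≤ ∫⁻ z, ENNReal.ofReal ((max 1 (C1:ℝ))^p) * v (H z) :=
        lintegral_mono fun z => pull_le hp (le_max_left _ _) (hL z)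
    _ = ENNReal.ofReal ((max 1 (C1:ℝ))^p) * ∫⁻ z, v (H z) :=
        lintegral_const_mul _ (hv.comp H.continuous.measurable)
    _ ≤ ENNReal.ofReal ((max 1 (C1:ℝ))^p) * ((C2 : ℝ≥0∞)^3 * ∫⁻ z, v z) := by
        refine mul_le_mul' le_rfl ?_
        have h4 := lint_chart (d := 3) (e := H) (e' := H.symm) (A := univ) (A' := univ)
          (L' := C2) MeasurableSet.univ MeasurableSet.univ H.continuous.continuousOn
          (mapsTo_univ _ _) (fun x _ => H.symm_apply_apply x) hC2 (fun x => v (H x))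
        rw [Measure.restrict_univ] at h4
        refine h4.trans (le_of_eq ?_)
        simp only [Homeomorph.apply_symm_apply]
    _ = _ := by rw [mul_assoc]

/-! ### the squeezes -/

lemma exists_N1 {n : ℕ} {p : ℝ} (h : p < n) (c : ℝ) (hc : 0 ≤ c) {β : ℝ≥0∞} (hβ : β ≠ 0) :
    ∃ N : ℕ, 1 ≤ N ∧ ENNReal.ofReal (c * (qn n p)^(2*N)) ≤ β := by
  obtain ⟨N, hN⟩ := exists_N h c hβ
  refine ⟨N + 1, by omega, le_trans (ENNReal.ofReal_le_ofReal ?_) hN⟩
  refine mul_le_mul_of_nonneg_left ?_ hc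
  exact pow_le_pow_of_le_one (qn_pos n p).le (qn_lt h).le (by omega)

/-- the squeeze of one cell, explicit -/
theorem cell_h (C : Cell) {p : ℝ} (hp : 0 < p) (hp3 : p < 3) {η : ℝ} (h0 : 0 < η)
    (h1 : η ≤ 1/2) {β : ℝ≥0∞} (hβ : β ≠ 0) :
    ∃ (N : ℕ) (h : E3 ≃ₜ E3), 1 ≤ N ∧ PLOn h univ ∧ PLOn h.symm univ ∧ (∀ x, x ∉ C.U → h x = x) ∧
      (∀ x ∈ C.P, h x = C.e' (cgf (qn 3 p) (η * (1 - qn 3 p)) N (C.e x))) ∧
      Est p h C.U (C.P ∩ C.e ⁻¹' {z | 1 - η < ‖z‖ ∧ ‖z‖ ≤ 1}) C.P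
        (ENNReal.ofReal (mc p C.M * (c3 p / η))) β := by
  have hp3' : p < ((3:ℕ):ℝ) := by exact_mod_cast hp3
  have hP := gpar hp3' h0 h1
  obtain ⟨N, hN1, hN⟩ := exists_N1 hp3' (mc p C.M * Kg 3 p)
    (mul_nonneg (mc_nonneg _ _) Kg_nonneg) hβ
  have e0 := Q0.est hp (by norm_num) (qn_sq 3 p) N hP
  rw [gpar_eta hp3'] at e0
  have c := C.cht
  have c' : Cht C.P C.U Q0.K Q0.I C.e C.e' (C.M / C.R) (C.M * C.R) := by
    rw [Q0_K, Q0_I]; exact c
  have hfix : ∀ z, z ∉ Q0.I → Q0.S N hP z = z := fun z hz => Q0.S_out hP hz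
  obtain ⟨H, k1, k2, k3, k4⟩ := c'.exists_homeo (Q0.S N hP) (Q0.plOn_S hP) (Q0.plOn_S_symm hP)
    hfix
  refine ⟨N, H, hN1, k3, k4, fun x hx => by rw [k1, trf_out hx], ?_, ?_⟩
  · intro x hx
    rw [k1, c'.trf_K hfix hx]
    congr 1
    show (0 : E3) + (1:ℝ) • cgf (qn 3 p) (η * (1 - qn 3 p)) N ((1:ℝ)⁻¹ • (C.e x - 0)) = _
    rw [zero_add, one_smul, inv_one, one_smul, sub_zero]
  have e1 := Est.trf hp.le c' (by
    have := C.one
    have hR := C.pos
    have e1 : (C.M * C.R) * (C.M / C.R) = C.M * C.M := by field_simp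
    rw [e1]
    exact one_le_mul this this) (Q0.S N hP).injective hfix
    (A := Q0.L (1 - η)) (B := Q0.K) (by
      refine MeasurableSet.inter ?_ ?_
      · exact (isOpen_lt continuous_const (continuous_id.sub continuous_const).norm).measurableSet
      · exact (isClosed_le (continuous_id.sub continuous_const).norm
          continuous_const).measurableSet) Q0.isClosed_K.measurableSet
    (fun x hx => hx.2) subset_rfl e0
  have e2 : (H : E3 → E3) = trf C.U C.e C.e' (Q0.S N hP) := funext k1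
  rw [e2]
  rw [const_eq C.pos, const_eq C.pos] at e1
  have e3 : Kg 3 p / (η * (1 - qn 3 p)) = c3 p / η := by
    rw [c3, div_div, mul_comm η]
  rw [e3] at e1
  intro u F hu hfin hF
  refine (e1 u F hu hfin hF).trans (add_le_add (mul_le_mul' le_rfl (lintegral_mono_set ?_))
    (mul_le_mul' ?_ (lintegral_mono_set inter_subset_left)))
  · rintro x ⟨hx1, hx2⟩
    refine ⟨hx1, ?_⟩
    obtain ⟨a, b⟩ := hx2
    have a' : (1 - η) * 1 < ‖C.e x - 0‖ := a
    have b' : ‖C.e x - 0‖ ≤ 1 := b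
    rw [sub_zero] at a' b'
    rw [mul_one] at a'
    exact ⟨a', b'⟩
  · refine le_trans (le_of_eq ?_) hN
    congr 1
    ring

/-- the squeeze of one face, explicit -/
theorem face_h (F : Face) {p : ℝ} (hp : 0 < p) (hp2 : p < 2) {η : ℝ} (h0 : 0 < η)
    (h1 : η ≤ 1/2) {β : ℝ≥0∞} (hβ : β ≠ 0) :
    ∃ (N : ℕ) (h : E3 ≃ₜ E3), 1 ≤ N ∧ PLOn h univ ∧ PLOn h.symm univ ∧ (∀ x, x ∉ F.V → h x = x) ∧
      (∀ x ∈ F.V, F.e (h x) 0 = F.e x 0) ∧
      (∀ x ∈ F.K, h x = F.e' (f0.T (cgf (qn 2 p) (η * (1 - qn 2 p)) N) (F.e x))) ∧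
      Est p h F.V (F.K ∩ F.e ⁻¹' {z | (1 - η) * (1 - |z 0|) ≤ wid z ∧ |z 0| + wid z ≤ 1}) F.K
        (ENNReal.ofReal (mc p F.M * (c2 p / η))) β := by
  have hp2' : p < ((2:ℕ):ℝ) := by exact_mod_cast hp2
  have hP := gpar hp2' h0 h1
  obtain ⟨N, hN1, hN⟩ := exists_N1 hp2' (mc p F.M * (3^p * Kg 2 p))
    (mul_nonneg (mc_nonneg _ _) (mul_nonneg (by positivity) Kg_nonneg)) hβ
  have e0 := f0.est hp (by norm_num) (qn_sq 2 p) N hP
  rw [gpar_eta hp2'] at e0
  have c := F.cht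
  have c' : Cht F.K F.V f0.Oc f0.O F.e F.e' (F.M / F.ρ) (F.M * F.ρ) := by
    rw [f0_Oc, f0_O]; exact c
  have hfix : ∀ z, z ∉ f0.O → f0.Gh N hP z = z := fun z hz => f0.T_out (sg_cgf hP) hz
  obtain ⟨H, k1, k2, k3, k4⟩ := c'.exists_homeo (f0.Gh N hP) (f0.plOn_T (sg_cgf hP))
    (f0.plOn_T (sg_cgg hP)) hfix
  refine ⟨N, H, hN1, k3, k4, fun x hx => by rw [k1, trf_out hx], ?_, ?_, ?_⟩
  · intro x hx
    have hz := c'.eU hx
    have hz2 : f0.Gh N hP (F.e x) ∈ f0.O := f0.T_mem (sg_cgf hP) hz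
    rw [k1, trf_in hx, c'.inv' _ (c'.sub' hz2), Tile.Gh_apply]
    exact f0.T_i _
  · intro x hx
    rw [k1, c'.trf_K hfix hx]
    rfl
  have e1 := Est.trf hp.le c' (by
    have := F.one
    have hR := F.pos
    have e1 : (F.M * F.ρ) * (F.M / F.ρ) = F.M * F.M := by field_simp
    rw [e1]
    exact one_le_mul this this) (f0.Gh N hP).injective hfix
    (A := f0.dn ⁻¹' Lay 2 (1 - η)) (B := f0.dn ⁻¹' Tot 2)
    (f0.continuous_dn.measurable (measurableSet_Lay _))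
    (f0.continuous_dn.measurable measurableSet_Tot)
    (fun x hx => by
      obtain ⟨a1, a2, a3⟩ := hx
      show |(f0.dn x).1| + ‖(f0.dn x).2‖ ≤ 1
      linarith)
    (fun x hx => by
      obtain ⟨a1, a3⟩ := hx
      show |(f0.dn x).1| + ‖(f0.dn x).2‖ ≤ 1
      linarith) e0
  have e2 : (H : E3 → E3) = trf F.V F.e F.e' (f0.Gh N hP) := funext k1
  rw [e2]
  rw [const_eq F.pos, const_eq F.pos] at e1
  have e3 : 3^p * Kg 2 p / (η * (1 - qn 2 p)) = c2 p / η := by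
    rw [c2, div_div, mul_comm η]
  rw [e3] at e1
  intro u G hu hfin hG
  refine (e1 u G hu hfin hG).trans (add_le_add (mul_le_mul' le_rfl (lintegral_mono_set ?_))
    (mul_le_mul' ?_ (lintegral_mono_set inter_subset_left)))
  · rintro x ⟨hx1, hx2⟩
    refine ⟨hx1, ?_⟩
    obtain ⟨a1, a2, a3⟩ := hx2
    rw [f0_fst, f0_snd] at *
    refine ⟨a2.le, ?_⟩
    have : wid (F.e x) ≤ 1 - |F.e x 0| := a3
    linarith
  · refine le_trans (le_of_eq ?_) hN
    congr 1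
    ring

end Crest.Agent.R096.Cob_622
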