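import Crest.Agent.R096.Sq15_55
import Crest.Agent.R096.Sbc3_447

/-!
# R096 (row 96), SOBSQ, part 16 (helper55): **`Sys.sobsq`**, the theorem for Sobolev homeomorphisms
with the explicit squeeze `Sys.chi h N₁ N₂`; `sobChain` (helper447)
-/

set_option autoImplicit false
set_option linter.unusedSectionVars false

open Set Metric Filter Topology MeasureTheory

namespace Crest.Agent.R096.Sq_55

open Crest.Agent.R096.Ce_537 Crest.Agent.R096.Bd_416 Crest.Agent.R96.Hole_348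
open Crest.AnalysisR.VecCalc3 Crest.AnalysisR.Sobolev Crest.Agent.R096.Sk_962
open scoped ENNReal NNReal

/-- SOB-CHAIN holds (helper447) -/
theorem sobChain {p : ℝ} (hp : 1 ≤ p) : SobChain p := by
  intro Om La f G hOm h Ψ h1 h2 hΨ
  exact Crest.Agent.R096.Sbc_447.sob_chain hp hOm h Ψ h1 h2 hΨ

/-- the chain-rule factor -/
noncomputable def s6 (p : ℝ) : ℝ≥0∞ := ENNReal.ofReal ((6:ℝ)^p)

lemma s6_top (p : ℝ) : s6 p ≠ ∞ := ENNReal.ofReal_ne_top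

/-- one composition step -/
theorem comp_stp {p : ℝ} (hp : 0 < p) (hS : SobChain p) {Om La : Set R3} {f : R3 → R3}
    {G : Fin 3 → R3 → R3} (hOm : IsOpen Om) (h : SH p Om La f G) {u : E3 → ℝ≥0∞}
    (hu : IsEn p Om G u) (χ : E3 ≃ₜ E3) (h1 : PLOn χ univ) (h2 : PLOn χ.symm univ)
    (hΨ : ∀ z, χ z ∈ w2 ⁻¹' Om ↔ z ∈ w2 ⁻¹' Om) :
    ∃ (G' : Fin 3 → R3 → R3) (u' : E3 → ℝ≥0∞), SH p Om La (fun x => f (toR χ x)) G' ∧
      IsEn p Om G' u' ∧ Stp (s6 p) p (w2 ⁻¹' Om) χ u u' := by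
  obtain ⟨G', u', k1, k2, k3⟩ := comp_step hp hS hOm h hu χ h1 h2 hΨ
  refine ⟨G', u', k1, k2, ?_⟩
  filter_upwards [k3] with z hz hzO c hc hcz
  rw [six_cancel p (u' z)]
  exact mul_le_mul' le_rfl (hz hzO c hc hcz)

namespace Sys

variable {κ ι : Type*} [Fintype κ] [Fintype ι] {X : Sys κ ι} {p δ : ℝ}

section chi

variable (h : X.Adm p δ) (N₁ N₂ : ℕ)

lemma chi_apply (x : E3) : chi h N₁ N₂ x = H h N₁ (Y h N₂ x) := rfl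

lemma plOn_chi : PLOn (chi h N₁ N₂) univ := (plOn_H h N₁).comp (plOn_Y h N₂) (mapsTo_univ _ _)

lemma plOn_chi_symm : PLOn (chi h N₁ N₂).symm univ :=
  (plOn_Y_symm h N₂).comp (plOn_H_symm h N₁) (mapsTo_univ _ _)

lemma chi_out {x : E3} (h1 : ∀ k, x ∉ (X.C k).U) (h2 : ∀ j, x ∉ (X.F j).V) :
    chi h N₁ N₂ x = x := by
  rw [chi_apply, Y_out h N₂ h1, H_out h N₁ h2]

lemma chi_P (k : κ) (x : E3) : chi h N₁ N₂ x ∈ (X.C k).P ↔ x ∈ (X.C k).P := by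
  rw [chi_apply, H_P, Y_P]

lemma chi_Om {O : Set E3} (hC : ∀ k, (X.C k).P ⊆ O) (hF : ∀ j, (X.F j).K ⊆ O) (z : E3) :
    chi h N₁ N₂ z ∈ O ↔ z ∈ O := by
  rw [chi_apply, H_Om h N₁ hF, Y_Om h N₂ hC]

end chi

/-- the bound for the cell `k` -/
noncomputable def bd (X : Sys κ ι) (p δ : ℝ) (k : κ) (v : E3 → ℝ≥0∞) : ℝ≥0∞ :=
  ENNReal.ofReal (CC p (X.m k)) * (ENNReal.ofReal ((X.C k).R / δ) *
    ((∑ j, ENNReal.ofReal ((X.F j).ρ / δ) *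
      ∫⁻ x in (X.C k).P ∩ (X.F j).V ∩ nb δ (X.F j).rim, v x) +
    ∫⁻ x in (X.C k).P ∩ (nb δ X.Z ∪ ⋃ j, nb δ (X.F j).rim), v x))

lemma exists_err {b : ℕ → ℝ≥0∞} (hb : Tendsto b atTop (𝓝 0)) {s W ε : ℝ≥0∞} (hs : s ≠ ∞)
    (hW : W ≠ ∞) (hε : ε ≠ 0) : ∃ N₀, ∀ N, N₀ ≤ N → s * (b N * W) ≤ ε := by
  have h1 : Tendsto (fun N => b N * W) atTop (𝓝 (0 * W)) :=
    ENNReal.Tendsto.mul_const hb (Or.inr hW)
  rw [zero_mul] at h1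
  have h2 : Tendsto (fun N => s * (b N * W)) atTop (𝓝 (s * 0)) :=
    ENNReal.Tendsto.const_mul h1 (Or.inr hs)
  rw [mul_zero] at h2
  obtain ⟨N₀, hN₀⟩ := eventually_atTop.1 (h2.eventually (gt_mem_nhds (pos_iff_ne_zero.2 hε)))
  exact ⟨N₀, fun N hN => (hN₀ N hN).le⟩

/-- **SOBSQ.**  For all large `N₁`, then for all large `N₂`, the energy of `f ∘ chi` on a cell
(which has no squeezed face, or `p < 2`) is bounded by `bd` of the energy of `f`, up to `ε`.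
The intermediate map `f ∘ H` and the two pointwise inequalities are exported. -/
theorem sobsq (h : X.Adm p δ) (hS : SobChain p) {Om La : Set R3} {f : R3 → R3}
    {G : Fin 3 → R3 → R3} (hOm : IsOpen Om) (hf : SH p Om La f G)
    (hC : ∀ k, (X.C k).P ⊆ w2 ⁻¹' Om) (hF : ∀ j, (X.F j).K ⊆ w2 ⁻¹' Om)
    {u : E3 → ℝ≥0∞} (hu : IsEn p Om G u) {ε : ℝ≥0∞} (hε : ε ≠ 0) :
    ∃ N₁₀ : ℕ, ∀ N₁, N₁₀ ≤ N₁ → ∃ (G₁ : Fin 3 → R3 → R3) (u₁ : E3 → ℝ≥0∞),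
      SH p Om La (fun x => f (toR (H h N₁) x)) G₁ ∧ IsEn p Om G₁ u₁ ∧
      Stp (s6 p) p (w2 ⁻¹' Om) (H h N₁) u u₁ ∧
      ∃ N₂₀ : ℕ, ∀ N₂, N₂₀ ≤ N₂ → ∃ (G₂ : Fin 3 → R3 → R3) (u₂ : E3 → ℝ≥0∞),
        SH p Om La (fun x => f (toR (chi h N₁ N₂) x)) G₂ ∧ IsEn p Om G₂ u₂ ∧
        Stp (s6 p) p (w2 ⁻¹' Om) (Y h N₂) u₁ u₂ ∧
        ∀ k, (p < 2 ∨ ∀ j, ¬ ((X.F j).V ∩ (X.C k).P).Nonempty) →
          ∫⁻ x in (X.C k).P, En p G₂ (w2 x) ≤ bd X p δ k (fun x => En p G (w2 x)) + ε := by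
  have hε2 : ε / 2 ≠ 0 := by
    rw [Ne, ENNReal.div_eq_zero_iff]; push Not
    exact ⟨hε, ENNReal.ofNat_ne_top⟩
  have hss : s6 p * s6 p ≠ ∞ := ENNReal.mul_ne_top (s6_top p) (s6_top p)
  obtain ⟨N₁₀, hN₁⟩ := exists_err (tendsto_bF X p δ) hss hu.int hε2
  refine ⟨N₁₀, fun N₁ hN => ?_⟩
  obtain ⟨G₁, u₁, k1, k2, k3⟩ := comp_stp h.p0 hS hOm hf hu (H h N₁) (plOn_H h N₁)
    (plOn_H_symm h N₁) (H_Om h N₁ hF)
  refine ⟨G₁, u₁, k1, k2, k3, ?_⟩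
  obtain ⟨N₂₀, hN₂⟩ := exists_err (tendsto_bC X h.p3) (s6_top p) k2.int hε2
  refine ⟨N₂₀, fun N₂ hN' => ?_⟩
  obtain ⟨G₂, u₂, l1, l2, l3⟩ := comp_stp h.p0 hS hOm k1 k2 (Y h N₂) (plOn_Y h N₂)
    (plOn_Y_symm h N₂) (Y_Om h N₂ hC)
  refine ⟨G₂, u₂, l1, l2, l3, fun k hk => ?_⟩
  have key := est h (hOm.preimage w2.continuous).measurableSet hC hF (s6_top p) hu.meas hu.fin
    k2.meas k2.fin k3 l3 k hk
  rw [← l2.setInt hOm (hC k)]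
  have i1 : ∀ j, ∫⁻ x in (X.C k).P ∩ (X.F j).V ∩ nb δ (X.F j).rim, u x =
      ∫⁻ x in (X.C k).P ∩ (X.F j).V ∩ nb δ (X.F j).rim, En p G (w2 x) :=
    fun j => hu.setInt hOm fun z hz => hC k hz.1.1
  have i2 : ∫⁻ x in (X.C k).P ∩ (nb δ X.Z ∪ ⋃ j, nb δ (X.F j).rim), u x =
      ∫⁻ x in (X.C k).P ∩ (nb δ X.Z ∪ ⋃ j, nb δ (X.F j).rim), En p G (w2 x) :=
    hu.setInt hOm fun z hz => hC k hz.1
  simp only [i1, i2] at key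
  have hCC : ENNReal.ofReal (CC p (X.m k)) =
      s6 p * s6 p * ENNReal.ofReal (T3 p (X.m k) * (1 + T2 p (X.m k))) := by
    have t3 := T3_nonneg p (X.m k)
    have t2 := T2_nonneg p (X.m k)
    rw [CC, mul_assoc, ENNReal.ofReal_mul (by positivity), ENNReal.ofReal_mul (by positivity)]
    rfl
  refine key.trans ?_
  rw [bd, hCC, add_assoc]
  refine add_le_add (le_of_eq (by ring)) ?_
  calc _ ≤ ε / 2 + ε / 2 := add_le_add (hN₁ N₁ hN) (hN₂ N₂ hN')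
    _ = ε := ENNReal.add_halves ε

end Sys

end Crest.Agent.R096.Sq_55
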