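/-
helper622, row 96, COMPOSITE B, part 3: **the estimate for helper55's `Sys.chi`, all densities `v` and
all majorised `w` at once**.
-/
import Crest.Agent.R096.Cob1_622
import Crest.Agent.R096.Sq16_55

set_option autoImplicit false
set_option linter.unusedSectionVars false

open Set Metric Filter Topology MeasureTheory
open scoped ENNReal NNReal

namespace Crest.Agent.R096.Cob_622

open Crest.Agent.R096.Ce_537 Crest.Agent.R096.Bd_416 Crest.Agent.R96.Hole_348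
open Crest.AnalysisR.VecCalc3 Crest.AnalysisR.Sobolev Crest.Agent.R096.Sk_962
open Crest.Agent.R096.Sq_55

variable {κ ι : Type*} [Fintype κ] [Fintype ι] {X : Sys κ ι} {p δ : ℝ}

/-- the bound of the cell `k` for the density `v` -/
noncomputable def bdv (X : Sys κ ι) (p δ : ℝ) (k : κ) (v : E3 → ℝ≥0∞) : ℝ≥0∞ :=
  ENNReal.ofReal (T3 p (X.m k) * (1 + T2 p (X.m k))) * (ENNReal.ofReal ((X.C k).R / δ) *
    ((∑ j, ENNReal.ofReal ((X.F j).ρ / δ) *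
      ∫⁻ x in (X.C k).P ∩ (X.F j).V ∩ nb δ (X.F j).rim, v x) +
    ∫⁻ x in (X.C k).P ∩ (nb δ X.Z ∪ ⋃ j, nb δ (X.F j).rim), v x))

/-- **all densities at once** -/
theorem est_vw (h : X.Adm p δ) {B ε : ℝ≥0∞} (hB : B ≠ ∞) (hε : ε ≠ 0) :
    ∃ N₁₀ : ℕ, ∀ N₁, N₁₀ ≤ N₁ → ∃ N₂₀ : ℕ, ∀ N₂, N₂₀ ≤ N₂ →
      ∀ k, (p < 2 ∨ ∀ j, ¬ ((X.F j).V ∩ (X.C k).P).Nonempty) →
        ∀ v : E3 → ℝ≥0∞, Measurable v → ∫⁻ x, v x ≤ B → ∀ w : E3 → ℝ≥0∞,
        (∀ᵐ x, x ∈ (X.C k).P → ∀ c, 1 ≤ c → LLV c (Sys.chi h N₁ N₂) x →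
          w x ≤ ENNReal.ofReal (c^p) * v (Sys.chi h N₁ N₂ x)) →
        ∫⁻ x in (X.C k).P, w x ≤ bdv X p δ k v + ε := by
  have hε2 : ε / 2 ≠ 0 := by
    rw [Ne, ENNReal.div_eq_zero_iff]; push Not
    exact ⟨hε, ENNReal.ofNat_ne_top⟩
  have hp := h.p0
  obtain ⟨N₁₀, hN₁⟩ := Sys.exists_err (Sys.tendsto_bF X p δ) (s := 1) ENNReal.one_ne_top hB hε2
  refine ⟨N₁₀, fun N₁ hN => ?_⟩
  obtain ⟨CH, hCH, hpull⟩ := exists_pull hp.le (Sys.plOn_H h N₁) (Sys.plOn_H_symm h N₁)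
  have W2 : CH * B ≠ ∞ := ENNReal.mul_ne_top hCH hB
  obtain ⟨N₂₀, hN₂⟩ := Sys.exists_err (Sys.tendsto_bC X h.p3) (s := 1) ENNReal.one_ne_top W2 hε2
  refine ⟨N₂₀, fun N₂ hN' => ?_⟩
  intro k hk v hv hvB w hw
  have hvfin : ∀ᵐ z, v z ≠ ∞ := by
    filter_upwards [ae_lt_top hv (ne_top_of_le_ne_top hB hvB)] with z hz
    exact hz.ne
  set u1 : E3 → ℝ≥0∞ := pull p (Sys.H h N₁) v with hu1
  have hu1m : Measurable u1 := measurable_pull (Sys.H h N₁).continuous hv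
  have hu1B : ∫⁻ z, u1 z ≤ CH * B := (hpull v hv).trans (mul_le_mul' le_rfl hvB)
  have hu1fin : ∀ᵐ z, u1 z ≠ ∞ := by
    filter_upwards [ae_lt_top hu1m (ne_top_of_le_ne_top W2 hu1B)] with z hz
    exact hz.ne
  have s1 : Stp 1 p univ (Sys.H h N₁) v u1 := by
    refine Eventually.of_forall fun z _ c hc hcz => ?_
    rw [one_mul]
    exact pull_le hp.le hc hcz
  have hY : ∀ᵐ x, LLV (Lc (Sys.H h N₁) (Sys.Y h N₂ x)) (Sys.H h N₁) (Sys.Y h N₂ x) :=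
    null_pre (Sys.plOn_Y_symm h N₂) (LLV_Lc (Sys.plOn_H h N₁))
  set w' : E3 → ℝ≥0∞ := (X.C k).P.indicator w with hw'
  have s2 : Stp 1 p univ (Sys.Y h N₂) u1 w' := by
    filter_upwards [hw, hY] with x hx1 hx2 _ c hc hcx
    rw [one_mul]
    by_cases hxP : x ∈ (X.C k).P
    · have h1 : 1 ≤ Lc (Sys.H h N₁) (Sys.Y h N₂ x) := one_le_Lc _ _
      have h2 : LLV (Lc (Sys.H h N₁) (Sys.Y h N₂ x) * c) (Sys.chi h N₁ N₂) x := by
        have h3 : Tendsto (Sys.Y h N₂) (𝓝 x) (𝓝 (Sys.Y h N₂ x)) :=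
          (Sys.Y h N₂).continuous.continuousAt
        filter_upwards [h3.eventually hx2, hcx] with y hy1 hy2
        calc ‖Sys.chi h N₁ N₂ y - Sys.chi h N₁ N₂ x‖
            ≤ Lc (Sys.H h N₁) (Sys.Y h N₂ x) * ‖Sys.Y h N₂ y - Sys.Y h N₂ x‖ := hy1
          _ ≤ Lc (Sys.H h N₁) (Sys.Y h N₂ x) * (c * ‖y - x‖) :=
              mul_le_mul_of_nonneg_left hy2 (by linarith)
          _ = _ := by ring
      have h4 := hx1 hxP _ (by nlinarith) h2
      rw [hw', indicator_of_mem hxP]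
      refine h4.trans (le_of_eq ?_)
      show _ = ENNReal.ofReal (c^p) * (ENNReal.ofReal ((Lc (Sys.H h N₁) (Sys.Y h N₂ x))^p) *
        v (Sys.H h N₁ (Sys.Y h N₂ x)))
      rw [Real.mul_rpow (by linarith) (by linarith), ENNReal.ofReal_mul (by positivity),
        Sys.chi_apply]
      ring
    · rw [hw', indicator_of_notMem hxP]
      exact zero_le
  have key := Sys.est h MeasurableSet.univ (fun k => subset_univ _) (fun j => subset_univ _)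
    ENNReal.one_ne_top hv hvfin hu1m hu1fin s1 s2 k hk
  have e1 : ∫⁻ x in (X.C k).P, w' x = ∫⁻ x in (X.C k).P, w x := by
    refine setLIntegral_congr_fun (X.C k).cht.clK.measurableSet fun x hx => ?_
    rw [hw', indicator_of_mem hx]
  rw [e1, one_mul, one_mul, one_mul, one_mul] at key
  refine key.trans ?_
  rw [add_assoc]
  refine add_le_add le_rfl ?_
  have a1 : X.bF p δ N₁ * ∫⁻ x, v x ≤ ε / 2 := by
    have := hN₁ N₁ hN
    rw [one_mul] at this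
    exact (mul_le_mul' le_rfl hvB).trans this
  have a2 : X.bC p N₂ * ∫⁻ x, u1 x ≤ ε / 2 := by
    have := hN₂ N₂ hN'
    rw [one_mul] at this
    exact (mul_le_mul' le_rfl hu1B).trans this
  calc _ ≤ ε / 2 + ε / 2 := add_le_add a1 a2
    _ = ε := ENNReal.add_halves ε

end Crest.Agent.R096.Cob_622
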