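import Crest.Agent.R096.Sk0_962
import Crest.Agent.R96.En10_199

/-!
# R096 (S0127), p = 2: the target squeeze `R ∘ f` stays in `SH` (post-composition)

`sh_post`: `R` a bi-continuous Lipschitz map of `R3` with bounded displacement, `R La = La`:
`R ∘ f` is a Sobolev homeomorphism with gradient bounded pointwise (Frobenius norm) by the local
Lipschitz constant of `R` at `f x` times the gradient of `f`.
-/

set_option autoImplicit false

open MeasureTheory Set Filter Topology Metric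
open scoped ENNReal NNReal
open Crest.AnalysisR.VecCalc3 Crest.AnalysisR.Sobolev
open Crest.Agent.R096.Sk_962 (SH)
open Crest.Agent.R96.Sob4_199 Crest.Agent.R96.Sob5_199 Crest.Agent.R96.Sob7_199
open Crest.Agent.R96.En10_199 (Di vwd_of_grad)

namespace Crest.Agent.R096.Rsh_968

theorem isHomeomorphOn_post {Om La : Set R3} {f : R3 → R3} (h : IsHomeomorphOn f Om La)
    (R : R3 ≃ₜ R3) (hLa : ∀ y, R y ∈ La ↔ y ∈ La) : IsHomeomorphOn (fun x => R (f x)) Om La := by
  obtain ⟨g, h1, h2, h3, h4, h5, h6⟩ := h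
  have hs : MapsTo R.symm La La := by
    intro y hy
    rw [← hLa, R.apply_symm_apply]
    exact hy
  refine ⟨fun y => g (R.symm y), fun x hx => (hLa _).2 (h1 hx), fun y hy => h2 (hs hy), ?_, ?_, ?_,
    ?_⟩
  · intro x hx
    simp only [R.symm_apply_apply]
    exact h3 x hx
  · intro y hy
    simp only
    rw [h4 _ (hs hy), R.apply_symm_apply]
  · exact R.continuous.comp_continuousOn h5
  · exact h6.comp R.symm.continuous.continuousOn hs

/-- the sum of squares of the columns is that of the rows -/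
theorem sum_sq_cols (D : Fin 3 → R3) (G : Fin 3 → R3) (h : ∀ i j, D i j = G j i) :
    ∑ i, ‖D i‖ ^ 2 = ∑ j, ‖G j‖ ^ 2 := by
  simp only [EuclideanSpace.norm_sq_eq]
  rw [Finset.sum_comm]
  refine Finset.sum_congr rfl fun j _ => Finset.sum_congr rfl fun i _ => ?_
  rw [h]

theorem sh_post {p : ℝ} {Om La : Set R3} {f : R3 → R3} {G : Fin 3 → R3 → R3}
    (hOm : IsOpen Om) (hvol : volume Om ≠ ∞) (h : SH p Om La f G) (R : R3 ≃ₜ R3) {K : ℝ≥0}
    (hR : LipschitzWith K R) (hLa : ∀ y, R y ∈ La ↔ y ∈ La) {C : ℝ} (hC : ∀ y, ‖R y - y‖ ≤ C) :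
    ∃ G' : Fin 3 → R3 → R3, SH p Om La (fun x => R (f x)) G' ∧
      (∀ᵐ x, x ∈ Om → ∑ j, ‖G' j x‖ ^ 2 ≤ (K : ℝ) ^ 2 * ∑ j, ‖G j x‖ ^ 2) ∧
      ∀ (U : Set R3) (c : ℝ), IsOpen U → 0 ≤ c →
        (∀ y ∈ U, ∀ ε > 0, ∀ᶠ z in 𝓝 y, ‖R z - R y‖ ≤ (c + ε) * ‖z - y‖) →
        ∀ᵐ x, x ∈ Om → f x ∈ U → ∑ j, ‖G' j x‖ ^ 2 ≤ c ^ 2 * ∑ j, ‖G j x‖ ^ 2 := by
  have hf : ContinuousOn f Om := by
    obtain ⟨g, h1, h2, h3, h4, h5, h6⟩ := h.homeo
    exact h5
  have hfm : AEMeasurable f (volume.restrict Om) :=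
    (hf.aestronglyMeasurable hOm.measurableSet).aemeasurable
  have hD : ∀ i, VWD Om volume f (Di G i) (EuclideanSpace.single i 1) := fun i =>
    vwd_of_grad hOm h.wg i
  have hloc : LocallyLipschitzOn (univ : Set R3) R := fun y _ => ⟨K, univ, univ_mem, hR.lipschitzOnWith⟩
  choose D' hD' using fun i => comp_exists hOm (hD i) hf (mapsTo_univ f Om) hloc
  let G' : Fin 3 → R3 → R3 := fun j x => WithLp.toLp 2 fun i => D' i x j
  have hG'D : ∀ i j x, D' i x j = G' j x i := fun i j x => rfl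
  have hGD : ∀ i j x, Di G i x j = G j x i := fun i j x => rfl
  have hwg : ∀ j, HasWeakGradOn Om (fun x => R (f x) j) (G' j) := fun j =>
    grad_of_wd fun i => hD' i j
  -- the general bound
  have hbd : ∀ L : R3 → ℝ, AEMeasurable L (volume.restrict Om) → (∀ x, 0 ≤ L x) →
      (∀ x ∈ Om, ∀ ε > 0, ∀ᶠ y in 𝓝[univ] (f x), ‖R y - R (f x)‖ ≤ (L x + ε) * ‖y - f x‖) →
      ∀ᵐ x, x ∈ Om → ∑ j, ‖G' j x‖ ^ 2 ≤ L x ^ 2 * ∑ j, ‖G j x‖ ^ 2 := by
    intro L hL hL0 hLe
    have h1 : ∀ i, ∀ᵐ x, x ∈ Om → ‖D' i x‖ ≤ L x * ‖Di G i x‖ := fun i =>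
      comp_bound hOm (hD i) hf (mapsTo_univ f Om) R.continuous.continuousOn (hD' i) hL hLe
    filter_upwards [ae_all_iff.2 h1] with x hx hxO
    rw [← sum_sq_cols (fun i => D' i x) (fun j => G' j x) (fun i j => hG'D i j x),
      ← sum_sq_cols (fun i => Di G i x) (fun j => G j x) (fun i j => hGD i j x), Finset.mul_sum]
    refine Finset.sum_le_sum fun i _ => ?_
    rw [← mul_pow]
    exact pow_le_pow_left₀ (norm_nonneg _) (hx i hxO) 2
  have hK : ∀ y : R3, ∀ ε > 0, ∀ᶠ z in 𝓝 y, ‖R z - R y‖ ≤ ((K : ℝ) + ε) * ‖z - y‖ := by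
    intro y ε hε
    refine Eventually.of_forall fun z => ?_
    have h1 := hR.dist_le_mul z y
    rw [dist_eq_norm, dist_eq_norm] at h1
    refine h1.trans ?_
    gcongr
    linarith
  have hall := hbd (fun _ => (K : ℝ)) aemeasurable_const (fun _ => K.2) (by
    intro x _ ε hε
    rw [nhdsWithin_univ]
    exact hK (f x) ε hε)
  refine ⟨G', ⟨isHomeomorphOn_post h.homeo R hLa, ?_, hwg, ?_⟩, hall, ?_⟩
  · -- MemLp of the map
    have : IsFiniteMeasure (volume.restrict Om) := ⟨by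
      rw [Measure.restrict_apply_univ]
      exact lt_top_iff_ne_top.2 hvol⟩
    have h1 : MemLp (fun x => ‖f x‖ + C) (ENNReal.ofReal p) (volume.restrict Om) :=
      h.mem.norm.add (memLp_const C)
    refine h1.mono (R.continuous.measurable.comp_aemeasurable hfm).aestronglyMeasurable ?_
    refine Eventually.of_forall fun x => ?_
    have h2 : ‖R (f x)‖ ≤ ‖R (f x) - f x‖ + ‖f x‖ := by
      have := norm_add_le (R (f x) - f x) (f x)
      rwa [sub_add_cancel] at this
    have h3 := hC (f x)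
    have h4 : 0 ≤ ‖f x‖ + C := by
      have := norm_nonneg (f x)
      have := norm_nonneg (R (f x) - f x)
      linarith
    rw [Real.norm_of_nonneg h4]
    linarith
  · intro j
    have h1 : MemLp (fun x => (K : ℝ) * ∑ k, ‖G k x‖) (ENNReal.ofReal p) (volume.restrict Om) :=
      (memLp_finsetSum Finset.univ (f := fun k x => ‖G k x‖)
        (fun k _ => (h.memG k).norm)).const_mul (K : ℝ)
    have hm : AEStronglyMeasurable (G' j) (volume.restrict Om) := by
      refine (aestronglyMeasurable_of_apply fun i => ?_).aestronglyMeasurable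
      have := (hD' i).aemeas
      have h3 : Measurable (fun y : R3 => y j) := (EuclideanSpace.proj j).continuous.measurable
      exact h3.comp_aemeasurable this
    refine h1.mono hm ?_
    rw [ae_restrict_iff' hOm.measurableSet]
    filter_upwards [hall] with x hx hxO
    have h4 := hx hxO
    have h5 : ‖G' j x‖ ^ 2 ≤ ((K : ℝ) * ∑ k, ‖G k x‖) ^ 2 := by
      calc ‖G' j x‖ ^ 2 ≤ ∑ j, ‖G' j x‖ ^ 2 :=
            Finset.single_le_sum (f := fun j => ‖G' j x‖ ^ 2) (fun k _ => sq_nonneg _)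
              (Finset.mem_univ j)
        _ ≤ (K : ℝ) ^ 2 * ∑ j, ‖G j x‖ ^ 2 := h4
        _ ≤ (K : ℝ) ^ 2 * (∑ j, ‖G j x‖) ^ 2 := by
            gcongr
            exact Finset.sum_sq_le_sq_sum_of_nonneg fun i _ => norm_nonneg _
        _ = _ := by ring
    have h6 : 0 ≤ (K : ℝ) * ∑ k, ‖G k x‖ :=
      mul_nonneg K.2 (Finset.sum_nonneg fun k _ => norm_nonneg _)
    rw [Real.norm_of_nonneg h6]
    exact le_of_sq_le_sq h5 h6
  · intro U c hU hc hUc
    classical
    have h1 := hbd (fun x => if f x ∈ U then c else (K : ℝ)) (by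
        have : Measurable (fun y : R3 => if y ∈ U then c else (K : ℝ)) :=
          Measurable.ite hU.measurableSet measurable_const measurable_const
        exact this.comp_aemeasurable hfm)
      (fun x => by split_ifs; exacts [hc, K.2]) (by
        intro x _ ε hε
        rw [nhdsWithin_univ]
        split_ifs with hx
        · exact hUc _ hx ε hε
        · exact hK (f x) ε hε)
    filter_upwards [h1] with x hx hxO hxU
    have := hx hxO
    rwa [if_pos hxU] at this

/-- the local hypothesis of `sh_post` on the interior of a set where `R` is `c`-Lipschitz -/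
theorem loc_of_interior {R : R3 → R3} {N : Set R3} {c : ℝ}
    (h : ∀ y ∈ N, ∀ z ∈ N, ‖R y - R z‖ ≤ c * ‖y - z‖) :
    ∀ y ∈ interior N, ∀ ε > 0, ∀ᶠ z in 𝓝 y, ‖R z - R y‖ ≤ (c + ε) * ‖z - y‖ := by
  intro y hy ε hε
  filter_upwards [isOpen_interior.mem_nhds hy] with z hz
  refine (h z (interior_subset hz) y (interior_subset hy)).trans ?_
  gcongr
  linarith

end Crest.Agent.R096.Rsh_968
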