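import Crest.Agent.R096.Sq8_55
import Crest.Agent.R96.Sob7_199

/-!
# R096 (row 96), SOBSQ, part 9 (helper55): the estimates for a majorised function; from
`Fin 3 → ℝ` to `R3`; the Prop `SobChain`
-/

set_option autoImplicit false

open Set Metric Filter Topology MeasureTheory

namespace Crest.Agent.R096.Sq_55

open Crest.Agent.R096.Ce_537 Crest.Agent.R096.Bd_416 Crest.Agent.R96.Hole_348
open Crest.AnalysisR.VecCalc3 Crest.AnalysisR.Sobolev Crest.Agent.R096.Sk_962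
open scoped ENNReal NNReal

/-! ### the estimates with a majorised function instead of a weight -/

lemma null_of_int {d : ℕ} {T : (Fin d → ℝ) → (Fin d → ℝ)} (hT : Measurable T)
    {O : Set (Fin d → ℝ)} (hO : MeasurableSet O)
    (h : ∀ u : (Fin d → ℝ) → ℝ≥0∞, Measurable u → (∀ᵐ y, u y = 0) → ∫⁻ x in O, u (T x) = 0)
    {P : (Fin d → ℝ) → Prop} (hP : ∀ᵐ y, P y) : ∀ᵐ x, x ∈ O → P (T x) := by
  obtain ⟨N, hN1, hN2, hN3⟩ := exists_measurable_superset_of_null (ae_iff.1 hP)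
  have hm : Measurable (N.indicator fun _ : Fin d → ℝ => (1:ℝ≥0∞)) :=
    measurable_const.indicator hN2
  have h1 := h _ hm (by
    have : ∀ᵐ y : Fin d → ℝ, y ∉ N := measure_eq_zero_iff_ae_notMem.1 hN3
    filter_upwards [this] with y hy
    exact indicator_of_notMem hy _)
  have hm2 : Measurable fun x => N.indicator (fun _ : Fin d → ℝ => (1:ℝ≥0∞)) (T x) := hm.comp hT
  rw [lintegral_eq_zero_iff hm2, Filter.EventuallyEq, ae_restrict_iff' hO] at h1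
  filter_upwards [h1] with x hx hxO
  by_contra hc
  have h2 := hx hxO
  have h3 : T x ∈ N := hN1 hc
  have h4 : N.indicator (fun _ : Fin d → ℝ => (1:ℝ≥0∞)) (T x) = 0 := h2
  rw [indicator_of_mem h3] at h4
  exact one_ne_zero h4

/-- general form: an integral inequality with weights gives one for majorised functions -/
lemma int_of_weight {d : ℕ} {T : (Fin d → ℝ) → (Fin d → ℝ)} (hT : Measurable T)
    {O B₁ B₂ : Set (Fin d → ℝ)} (hO : MeasurableSet O) {p : ℝ} (hp : 0 ≤ p) {a b : ℝ≥0∞}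
    (h : ∀ u w : (Fin d → ℝ) → ℝ≥0∞, Measurable u →
      (∀ x ∈ O, ∀ c, 1 ≤ c → LLV c T x → w x ≤ ENNReal.ofReal (c^p)) →
      ∫⁻ x in O, u (T x) * w x ≤ a * (∫⁻ x in B₁, u x) + b * ∫⁻ x in B₂, u x)
    {u F : (Fin d → ℝ) → ℝ≥0∞} (hu : Measurable u) (hfin : ∀ᵐ y, u y ≠ ∞)
    (hex : ∀ x ∈ O, ∃ c, 1 ≤ c ∧ LLV c T x)
    (hF : ∀ᵐ x, x ∈ O → ∀ c, 1 ≤ c → LLV c T x → F x ≤ ENNReal.ofReal (c^p) * u (T x)) :
    ∫⁻ x in O, F x ≤ a * (∫⁻ x in B₁, u x) + b * ∫⁻ x in B₂, u x := by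
  classical
  have hz : ∀ u : (Fin d → ℝ) → ℝ≥0∞, Measurable u → (∀ᵐ y, u y = 0) →
      ∫⁻ x in O, u (T x) = 0 := by
    intro v hv hv0
    have h1 := h v (fun _ => 1) hv (by
      intro x _ c hc _
      rw [← ENNReal.ofReal_one]
      exact ENNReal.ofReal_le_ofReal (Real.one_le_rpow hc hp))
    have h2 : ∀ B : Set (Fin d → ℝ), ∫⁻ x in B, v x = 0 := by
      intro B
      refine le_antisymm ?_ zero_le
      refine (setLIntegral_le_lintegral _ _).trans (le_of_eq ?_)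
      rw [lintegral_congr_ae (g := fun _ => (0:ℝ≥0∞)) hv0, lintegral_zero]
    rw [h2, h2, mul_zero, mul_zero, add_zero, nonpos_iff_eq_zero] at h1
    simpa using h1
  have hfin' := null_of_int hT hO hz hfin
  set Gd : (Fin d → ℝ) → Prop := fun x => x ∈ O ∧ u (T x) ≠ ∞ ∧
    ∀ c, 1 ≤ c → LLV c T x → F x ≤ ENNReal.ofReal (c^p) * u (T x) with hGd
  set w : (Fin d → ℝ) → ℝ≥0∞ := fun x => if Gd x then F x / u (T x) else 0 with hw
  have hwb : ∀ x ∈ O, ∀ c, 1 ≤ c → LLV c T x → w x ≤ ENNReal.ofReal (c^p) := by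
    intro x _ c hc hxc
    show (if Gd x then F x / u (T x) else 0) ≤ _
    by_cases hx : Gd x
    · rw [if_pos hx]
      exact ENNReal.div_le_of_le_mul (hx.2.2 c hc hxc)
    · rw [if_neg hx]; exact zero_le
  refine le_trans (setLIntegral_mono_ae' hO ?_) (h u w hu hwb)
  filter_upwards [hfin', hF] with x h1 h2 hxO
  have hx : Gd x := ⟨hxO, h1 hxO, h2 hxO⟩
  show F x ≤ u (T x) * (if Gd x then F x / u (T x) else 0)
  rw [if_pos hx]
  by_cases h0 : u (T x) = 0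
  · obtain ⟨c, hc, hxc⟩ := hex x hxO
    have := h2 hxO c hc hxc
    rw [h0, mul_zero] at this
    rw [h0, nonpos_iff_eq_zero.1 this]
    simp
  · rw [ENNReal.mul_div_cancel h0 (h1 hxO)]

/-- PL maps are locally Lipschitz -/
lemma exists_LLV {E F : Type*} [NormedAddCommGroup E] [NormedSpace ℝ E] [FiniteDimensional ℝ E]
    [NormedAddCommGroup F] [NormedSpace ℝ F] {T : E → F} (h : PLOn T univ) (x : E) :
    ∃ c, 1 ≤ c ∧ LLV c T x := by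
  obtain ⟨h1, S, h2⟩ := h
  obtain ⟨C, hC⟩ := Crest.Agent.R96.Sob7_199.lip_of_sel (s := univ) convex_univ h1 h2
  refine ⟨max 1 C, le_max_left _ _, Eventually.of_forall fun y => ?_⟩
  have h3 := hC.dist_le_mul y (mem_univ _) x (mem_univ _)
  rw [dist_eq_norm, dist_eq_norm] at h3
  exact h3.trans (mul_le_mul_of_nonneg_right (le_max_right _ _) (norm_nonneg _))

namespace Cub

variable {d : ℕ} (Q : Cub d)

theorem cube_intF {p : ℝ} (hp : 0 < p) (hd : 0 < d) {q : ℝ} (hq : q^2 = (2:ℝ)^(p - d))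
    {N : ℕ} {τ : ℝ} (h : GPar q τ 1) {u F : (Fin d → ℝ) → ℝ≥0∞} (hu : Measurable u)
    (hfin : ∀ᵐ y, u y ≠ ∞)
    (hF : ∀ᵐ x, x ∈ Q.I → ∀ c, 1 ≤ c → LLV c (Q.S N h) x →
      F x ≤ ENNReal.ofReal (c^p) * u (Q.S N h x)) :
    ∫⁻ x in Q.I, F x ≤
      ENNReal.ofReal (Kg d p / τ) * (∫⁻ x in Q.L (1 - τ / (1 - q)), u x) +
      ENNReal.ofReal (Kg d p * q^(2*N)) * ∫⁻ x in Q.K, u x :=
  int_of_weight (Q.S N h).continuous.measurable Q.isOpen_I.measurableSet hp.le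
    (fun _ _ hu hw => Q.cube_int hp hd hq h hu hw) hu hfin
    (fun x _ => exists_LLV (Q.plOn_S h) x) hF

end Cub

namespace Tile

variable {n : ℕ} (f : Tile n)

theorem tile_intF {p : ℝ} (hp : 0 < p) (hn : 0 < n) {q : ℝ} (hq : q^2 = (2:ℝ)^(p - n))
    {N : ℕ} {τ : ℝ} (h : GPar q τ 1) {u F : (Fin (n+1) → ℝ) → ℝ≥0∞} (hu : Measurable u)
    (hfin : ∀ᵐ y, u y ≠ ∞)
    (hF : ∀ᵐ x, x ∈ f.O → ∀ c, 1 ≤ c → LLV c (f.T (cgf q τ N)) x →
      F x ≤ ENNReal.ofReal (c^p) * u (f.T (cgf q τ N) x)) :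
    ∫⁻ x in f.O, F x ≤
      ENNReal.ofReal (3^p * Kg n p / τ) *
        (∫⁻ x in f.dn ⁻¹' Lay n (1 - τ / (1 - q)), u x) +
      ENNReal.ofReal (3^p * (Kg n p * q^(2*N))) * ∫⁻ x in f.dn ⁻¹' Tot n, u x := by
  have hc : Continuous (f.T (cgf q τ N)) := continuousOn_univ.1 (f.plOn_T (sg_cgf h)).1
  exact int_of_weight hc.measurable f.isOpen_O.measurableSet hp.le
    (fun _ _ hu hw => f.tile_int hp hn hq h hu hw) hu hfin
    (fun x _ => exists_LLV (f.plOn_T (sg_cgf h)) x) hF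

end Tile

/-! ### `R3` -/

/-- the coordinates -/
noncomputable def w2 : (Fin 3 → ℝ) ≃ₜ R3 where
  toFun z := WithLp.toLp 2 z
  invFun x := WithLp.ofLp x
  left_inv _ := rfl
  right_inv _ := rfl
  continuous_toFun := PiLp.continuous_toLp 2 _
  continuous_invFun := PiLp.continuous_ofLp 2 _

lemma w2_sub (z z' : Fin 3 → ℝ) : w2 z - w2 z' = WithLp.toLp 2 (z - z') := rfl

lemma w2_symm_sub (x x' : R3) : w2.symm x - w2.symm x' = WithLp.ofLp (x - x') := rfl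

lemma mp_w2 : MeasurePreserving w2 (volume : Measure (Fin 3 → ℝ)) (volume : Measure R3) :=
  (EuclideanSpace.volume_preserving_symm_measurableEquiv_toLp (Fin 3)).symm

lemma lint_w2 (S : Set R3) (F : R3 → ℝ≥0∞) :
    ∫⁻ x in S, F x = ∫⁻ z in w2 ⁻¹' S, F (w2 z) := by
  have h := mp_w2.map_eq
  rw [← h]
  have h2 := MeasurableEquiv.restrict_map w2.toMeasurableEquiv (volume : Measure (Fin 3 → ℝ)) S
  have h3 : Measure.map w2.toMeasurableEquiv (volume : Measure (Fin 3 → ℝ)) =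
    Measure.map w2 volume := rfl
  rw [h3] at h2
  rw [h2]
  exact lintegral_map_equiv F w2.toMeasurableEquiv

lemma ae_w2 {P : R3 → Prop} : (∀ᵐ x, P x) ↔ ∀ᵐ z, P (w2 z) := by
  have h := mp_w2.map_eq
  rw [← h]
  exact w2.measurableEmbedding.ae_map_iff

/-- the homeomorphism of `R3` -/
noncomputable def toR (χ : (Fin 3 → ℝ) ≃ₜ (Fin 3 → ℝ)) : R3 ≃ₜ R3 := w2.symm.trans (χ.trans w2)

lemma toR_apply (χ : (Fin 3 → ℝ) ≃ₜ (Fin 3 → ℝ)) (x : R3) : toR χ x = w2 (χ (w2.symm x)) := rfl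

lemma plOn_w2 : PLOn w2 univ :=
  plOn_affineMap ((WithLp.linearEquiv 2 ℝ (Fin 3 → ℝ)).symm.toLinearMap.toAffineMap)
    (PiLp.continuous_toLp 2 _) univ

lemma plOn_w2_symm : PLOn w2.symm univ :=
  plOn_affineMap ((WithLp.linearEquiv 2 ℝ (Fin 3 → ℝ)).toLinearMap.toAffineMap)
    (PiLp.continuous_ofLp 2 _) univ

lemma plOn_toR {χ : (Fin 3 → ℝ) ≃ₜ (Fin 3 → ℝ)} (h : PLOn χ univ) : PLOn (toR χ) univ :=
  plOn_w2.comp (h.comp plOn_w2_symm (mapsTo_univ _ _)) (mapsTo_univ _ _)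

lemma plOn_toR_symm {χ : (Fin 3 → ℝ) ≃ₜ (Fin 3 → ℝ)} (h : PLOn χ.symm univ) :
    PLOn (toR χ).symm univ :=
  plOn_w2.comp (h.comp plOn_w2_symm (mapsTo_univ _ _)) (mapsTo_univ _ _)

lemma LLV_toR {χ : (Fin 3 → ℝ) ≃ₜ (Fin 3 → ℝ)} {c : ℝ} (hc : 0 ≤ c) {z : Fin 3 → ℝ}
    (h : LLV c χ z) : LLV (2 * c) (toR χ) (w2 z) := by
  have h1 : Tendsto w2.symm (𝓝 (w2 z)) (𝓝 z) := by
    have := w2.symm.continuous.continuousAt (x := w2 z)
    rwa [ContinuousAt, w2.symm_apply_apply] at this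
  filter_upwards [h1.eventually h] with y hy
  rw [toR_apply, toR_apply, w2.symm_apply_apply, w2_sub]
  refine (norm_toLp_le _).trans ?_
  have h2 : ‖w2.symm y - z‖ ≤ ‖y - w2 z‖ := by
    have : w2.symm y - z = WithLp.ofLp (y - w2 z) := rfl
    rw [this]
    exact norm_ofLp_le _
  calc 2 * ‖χ (w2.symm y) - χ z‖ ≤ 2 * (c * ‖w2.symm y - z‖) := by linarith
    _ ≤ 2 * (c * ‖y - w2 z‖) := by
        have := mul_le_mul_of_nonneg_left h2 hc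
        linarith
    _ = _ := by ring

/-- **SOB-CHAIN** (helper447's leaf) -/
def SobChain (p : ℝ) : Prop :=
  ∀ {Om La : Set R3} {f : R3 → R3} {G : Fin 3 → R3 → R3}, IsOpen Om → SH p Om La f G →
    ∀ Ψ : R3 ≃ₜ R3, PLOn Ψ univ → PLOn Ψ.symm univ → (∀ x, Ψ x ∈ Om ↔ x ∈ Om) →
    ∃ G' : Fin 3 → R3 → R3, SH p Om La (fun x => f (Ψ x)) G' ∧
      ∀ j, ∀ᵐ x, x ∈ Om → ∀ c : ℝ, 0 ≤ c → (∀ᶠ y in 𝓝 x, ‖Ψ y - Ψ x‖ ≤ c * ‖y - x‖) →
        ‖G' j x‖ ≤ 3 * c * ‖G j (Ψ x)‖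

/-- the energy density -/
noncomputable def En (p : ℝ) (G : Fin 3 → R3 → R3) (x : R3) : ℝ≥0∞ := ∑ j : Fin 3, ‖G j x‖ₑ ^ p

/-- one step: composition with a PL homeomorphism -/
theorem step {p : ℝ} (hp : 0 < p) (hS : SobChain p) {Om La : Set R3} {f : R3 → R3}
    {G : Fin 3 → R3 → R3} (hOm : IsOpen Om) (h : SH p Om La f G)
    (χ : (Fin 3 → ℝ) ≃ₜ (Fin 3 → ℝ)) (h1 : PLOn χ univ) (h2 : PLOn χ.symm univ)
    (hΨ : ∀ z, w2 (χ z) ∈ Om ↔ w2 z ∈ Om) :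
    ∃ G' : Fin 3 → R3 → R3, SH p Om La (fun x => f (toR χ x)) G' ∧
      ∀ᵐ z : Fin 3 → ℝ, w2 z ∈ Om → ∀ c : ℝ, 1 ≤ c → LLV c χ z →
        ENNReal.ofReal ((6:ℝ)^(-p)) * En p G' (w2 z) ≤
          ENNReal.ofReal (c^p) * En p G (w2 (χ z)) := by
  obtain ⟨G', h3, h4⟩ := hS hOm h (toR χ) (plOn_toR h1) (plOn_toR_symm h2) (by
    intro x
    have := hΨ (w2.symm x)
    rw [w2.apply_symm_apply] at this
    exact this)
  refine ⟨G', h3, ?_⟩
  have h5 : ∀ᵐ z : Fin 3 → ℝ, ∀ j, w2 z ∈ Om → ∀ c : ℝ, 0 ≤ c →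
      (∀ᶠ y in 𝓝 (w2 z), ‖toR χ y - toR χ (w2 z)‖ ≤ c * ‖y - w2 z‖) →
        ‖G' j (w2 z)‖ ≤ 3 * c * ‖G j (toR χ (w2 z))‖ := by
    rw [ae_all_iff]
    intro j
    exact ae_w2.1 (h4 j)
  filter_upwards [h5] with z hz hzO c hc hzc
  have hc0 : 0 ≤ c := by linarith
  have h6 : ∀ j, ‖G' j (w2 z)‖ₑ ^ p ≤
      ENNReal.ofReal ((6:ℝ)^p * c^p) * ‖G j (w2 (χ z))‖ₑ ^ p := by
    intro j
    have h7 := hz j hzO (2 * c) (by linarith) (LLV_toR hc0 hzc)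
    rw [toR_apply, w2.symm_apply_apply] at h7
    have h8 : ‖G' j (w2 z)‖ₑ ≤ ENNReal.ofReal (6 * c) * ‖G j (w2 (χ z))‖ₑ := by
      rw [← ofReal_norm, ← ofReal_norm, ← ENNReal.ofReal_mul (by positivity)]
      apply ENNReal.ofReal_le_ofReal
      linarith
    calc ‖G' j (w2 z)‖ₑ ^ p ≤ (ENNReal.ofReal (6 * c) * ‖G j (w2 (χ z))‖ₑ) ^ p :=
          ENNReal.rpow_le_rpow h8 hp.le
      _ = ENNReal.ofReal ((6:ℝ)^p * c^p) * ‖G j (w2 (χ z))‖ₑ ^ p := by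
          rw [ENNReal.mul_rpow_of_nonneg _ _ hp.le, ENNReal.ofReal_rpow_of_nonneg (by positivity) hp.le,
            Real.mul_rpow (by norm_num) hc0]
  calc ENNReal.ofReal ((6:ℝ)^(-p)) * En p G' (w2 z)
      ≤ ENNReal.ofReal ((6:ℝ)^(-p)) * ∑ j : Fin 3, ENNReal.ofReal ((6:ℝ)^p * c^p) *
          ‖G j (w2 (χ z))‖ₑ ^ p := mul_le_mul' le_rfl (Finset.sum_le_sum fun j _ => h6 j)
    _ = ENNReal.ofReal (c^p) * En p G (w2 (χ z)) := by
        rw [← Finset.mul_sum, ← mul_assoc, ← ENNReal.ofReal_mul (by positivity), ← mul_assoc,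
          ← Real.rpow_add (by norm_num), neg_add_cancel, Real.rpow_zero, one_mul]
        rfl

lemma six_cancel (p : ℝ) (a : ℝ≥0∞) :
    a = ENNReal.ofReal ((6:ℝ)^p) * (ENNReal.ofReal ((6:ℝ)^(-p)) * a) := by
  rw [← mul_assoc, ← ENNReal.ofReal_mul (by positivity), ← Real.rpow_add (by norm_num),
    add_neg_cancel, Real.rpow_zero, ENNReal.ofReal_one, one_mul]

end Crest.Agent.R096.Sq_55
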