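/-
helper622, row 96, P2-ENERGY = [L8] of 753 #10029, part 1: the energy of `R ∘ f ∘ Φ` on a set where
`Φ` is the identity nearby or `f ∘ Φ` is in the patches squeezed by `R`.
-/
import Crest.Agent.R096.Sq9_55
import Crest.Agent.R096.Sbc3_447
import Crest.Agent.R096.Rsh1_968

set_option autoImplicit false
set_option linter.unusedSectionVars false

open Set Metric Filter Topology MeasureTheory
open scoped ENNReal NNReal

namespace Crest.Agent.R096.Pe_622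

open Crest.Agent.R096.Ce_537 Crest.Agent.R096.Sq_55 Crest.Agent.R96.Hole_348
open Crest.AnalysisR.VecCalc3 Crest.AnalysisR.Sobolev Crest.Agent.R096.Sk_962

/-- energies from sums of squares -/
theorem en_le_of_sq {p : ℝ} (hp : 0 < p) {G G' : Fin 3 → R3 → R3} {x : R3} {c : ℝ} (hc : 0 ≤ c)
    (h : ∑ j, ‖G' j x‖ ^ 2 ≤ c ^ 2 * ∑ j, ‖G j x‖ ^ 2) :
    En p G' x ≤ ENNReal.ofReal (3 * (3 * c) ^ p) * En p G x := by
  have hs : ∀ j, ‖G' j x‖ ≤ c * ∑ k, ‖G k x‖ := by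
    intro j
    have h1 : ‖G' j x‖ ^ 2 ≤ (c * ∑ k, ‖G k x‖) ^ 2 := by
      calc ‖G' j x‖ ^ 2 ≤ ∑ j, ‖G' j x‖ ^ 2 :=
            Finset.single_le_sum (f := fun j => ‖G' j x‖ ^ 2) (fun k _ => sq_nonneg _)
              (Finset.mem_univ j)
        _ ≤ c ^ 2 * ∑ j, ‖G j x‖ ^ 2 := h
        _ ≤ c ^ 2 * (∑ j, ‖G j x‖) ^ 2 := by
            gcongr
            exact Finset.sum_sq_le_sq_sum_of_nonneg fun i _ => norm_nonneg _
        _ = _ := by ring
    have h2 : 0 ≤ c * ∑ k, ‖G k x‖ := mul_nonneg hc (Finset.sum_nonneg fun k _ => norm_nonneg _)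
    exact le_of_sq_le_sq h1 h2
  -- the largest component
  obtain ⟨k, -, hk⟩ := Finset.exists_max_image (Finset.univ : Finset (Fin 3)) (fun k => ‖G k x‖)
    ⟨0, Finset.mem_univ _⟩
  have hs' : ∀ j, ‖G' j x‖ ≤ 3 * c * ‖G k x‖ := by
    intro j
    refine (hs j).trans ?_
    have h1 : ∑ l, ‖G l x‖ ≤ ∑ _l : Fin 3, ‖G k x‖ := Finset.sum_le_sum fun l hl => hk l hl
    rw [Finset.sum_const, Finset.card_univ, Fintype.card_fin, nsmul_eq_mul] at h1
    calc c * ∑ l, ‖G l x‖ ≤ c * (((3 : ℕ) : ℝ) * ‖G k x‖) := by gcongr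
      _ = 3 * c * ‖G k x‖ := by push_cast; ring
  have h3 : ∀ j, ‖G' j x‖ₑ ^ p ≤ ENNReal.ofReal ((3 * c) ^ p) * ‖G k x‖ₑ ^ p := by
    intro j
    have h4 : ‖G' j x‖ₑ ≤ ENNReal.ofReal (3 * c) * ‖G k x‖ₑ := by
      rw [← ofReal_norm, ← ofReal_norm, ← ENNReal.ofReal_mul (by positivity)]
      exact ENNReal.ofReal_le_ofReal (hs' j)
    calc ‖G' j x‖ₑ ^ p ≤ (ENNReal.ofReal (3 * c) * ‖G k x‖ₑ) ^ p :=
          ENNReal.rpow_le_rpow h4 hp.le
      _ = _ := by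
          rw [ENNReal.mul_rpow_of_nonneg _ _ hp.le, ENNReal.ofReal_rpow_of_nonneg (by positivity) hp.le]
  calc En p G' x = ∑ j : Fin 3, ‖G' j x‖ₑ ^ p := rfl
    _ ≤ ∑ _j : Fin 3, ENNReal.ofReal ((3 * c) ^ p) * ‖G k x‖ₑ ^ p :=
        Finset.sum_le_sum fun j _ => h3 j
    _ = ENNReal.ofReal (3 * (3 * c) ^ p) * ‖G k x‖ₑ ^ p := by
        rw [Finset.sum_const, Finset.card_univ, Fintype.card_fin, nsmul_eq_mul,
          ENNReal.ofReal_mul (by norm_num), ← mul_assoc]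
        congr 2
        simp
    _ ≤ ENNReal.ofReal (3 * (3 * c) ^ p) * En p G x := by
        gcongr
        exact Finset.single_le_sum (f := fun j => ‖G j x‖ₑ ^ p) (fun j _ => zero_le)
          (Finset.mem_univ k)

/-- energies, componentwise bound at the same point -/
theorem en_le_of_le {p : ℝ} (hp : 0 < p) {G G' : Fin 3 → R3 → R3} {x : R3} {c : ℝ} (hc : 0 ≤ c)
    (h : ∀ j, ‖G' j x‖ ≤ c * ‖G j x‖) :
    En p G' x ≤ ENNReal.ofReal (c ^ p) * En p G x := by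
  show ∑ j : Fin 3, ‖G' j x‖ₑ ^ p ≤ ENNReal.ofReal (c ^ p) * ∑ j : Fin 3, ‖G j x‖ₑ ^ p
  rw [Finset.mul_sum]
  refine Finset.sum_le_sum fun j _ => ?_
  have h4 : ‖G' j x‖ₑ ≤ ENNReal.ofReal c * ‖G j x‖ₑ := by
    rw [← ofReal_norm, ← ofReal_norm, ← ENNReal.ofReal_mul hc]
    exact ENNReal.ofReal_le_ofReal (h j)
  calc ‖G' j x‖ₑ ^ p ≤ (ENNReal.ofReal c * ‖G j x‖ₑ) ^ p := ENNReal.rpow_le_rpow h4 hp.le
    _ = _ := by
        rw [ENNReal.mul_rpow_of_nonneg _ _ hp.le, ENNReal.ofReal_rpow_of_nonneg hc hp.le]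

theorem en_finite {p : ℝ} (hp : 0 < p) {Om La : Set R3} {f : R3 → R3} {G : Fin 3 → R3 → R3}
    (h : SH p Om La f G) : ∫⁻ x in Om, En p G x ≠ ∞ := by
  have h1 : ∀ j, AEMeasurable (fun x => ‖G j x‖ₑ ^ p) (volume.restrict Om) := fun j =>
    ((h.memG j).aestronglyMeasurable.enorm).pow_const p
  show ∫⁻ x in Om, ∑ j : Fin 3, ‖G j x‖ₑ ^ p ≠ ∞
  rw [lintegral_finsetSum' _ fun j _ => h1 j]
  refine (ENNReal.sum_lt_top.2 fun j _ => ?_).ne
  have h2 := (h.memG j).eLpNorm_lt_top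
  have hp1 : ENNReal.ofReal p ≠ 0 := by
    rw [Ne, ENNReal.ofReal_eq_zero]
    exact not_le.2 hp
  have h3 := lintegral_rpow_enorm_lt_top_of_eLpNorm_lt_top hp1 ENNReal.ofReal_ne_top h2
  rwa [ENNReal.toReal_ofReal hp.le] at h3

/-- **the energy of `R ∘ f ∘ Φ`** where `Φ` is locally the identity or `R` contracts. -/
theorem pre_energy {p : ℝ} (hp : 1 ≤ p) {Om La : Set R3} {f : R3 → R3} {G : Fin 3 → R3 → R3}
    (hOm : IsOpen Om) (hvol : volume Om ≠ ∞) (h : SH p Om La f G) (Φ : R3 ≃ₜ R3)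
    (hΦ1 : PLOn Φ univ) (hΦ2 : PLOn Φ.symm univ) (hΦ : ∀ x, Φ x ∈ Om ↔ x ∈ Om)
    (K : ℝ≥0) {U : Set R3} (hU : IsOpen U) {ε : ℝ} (hε : 0 < ε) :
    ∃ θ : ℝ, 0 < θ ∧ ∀ (R : R3 ≃ₜ R3), LipschitzWith K R → (∀ y, R y ∈ La ↔ y ∈ La) →
      ∀ C : ℝ, (∀ y, ‖R y - y‖ ≤ C) →
      (∀ y ∈ U, ∀ ε > 0, ∀ᶠ z in 𝓝 y, ‖R z - R y‖ ≤ (θ + ε) * ‖z - y‖) →
      ∃ G1 : Fin 3 → R3 → R3, SH p Om La (fun x => R (f (Φ x))) G1 ∧
        ∀ S : Set R3, MeasurableSet S → S ⊆ Om →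
          (∀ x ∈ S, (∀ᶠ y in 𝓝 x, Φ y = y) ∨ f (Φ x) ∈ U) →
          ∫⁻ x in S, En p G1 x ≤
            ENNReal.ofReal (3 * (9 * K) ^ p) * (∫⁻ x in S, En p G x) + ENNReal.ofReal ε := by
  have hp0 : 0 < p := lt_of_lt_of_le one_pos hp
  obtain ⟨G0, h0, hb0⟩ := Sbc_447.sob_chain hp hOm h Φ hΦ1 hΦ2 hΦ
  have hfin := en_finite hp0 h0
  set A : ℝ := (∫⁻ x in Om, En p G0 x).toReal with hA
  have hA0 : 0 ≤ A := ENNReal.toReal_nonneg
  set θ : ℝ := min (1 / 3) (ε / (9 * (A + 1))) with hθ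
  have hθ0 : 0 < θ := lt_min (by norm_num) (by positivity)
  have hθ1 : θ ≤ 1 / 3 := min_le_left _ _
  have hθA : 9 * θ * A ≤ ε := by
    have h1 : θ ≤ ε / (9 * (A + 1)) := min_le_right _ _
    have h2 : θ * (9 * (A + 1)) ≤ ε := (le_div_iff₀ (by positivity)).1 h1
    nlinarith
  refine ⟨θ, hθ0, fun R hR hLa C hC hRU => ?_⟩
  obtain ⟨G1, h1, hb1, hb1U⟩ := Rsh_968.sh_post hOm hvol h0 R hR hLa hC
  refine ⟨G1, h1, fun S hS hSO hSg => ?_⟩
  have hbU := hb1U U θ hU hθ0.le hRU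
  -- the pointwise bound
  have hpt : ∀ᵐ x, x ∈ S → En p G1 x ≤ ENNReal.ofReal (3 * (9 * K) ^ p) * En p G x +
      ENNReal.ofReal (3 * (3 * θ) ^ p) * En p G0 x := by
    filter_upwards [hb1, hbU, ae_all_iff.2 hb0] with x hx1 hx2 hx3 hxS
    have hxO := hSO hxS
    rcases hSg x hxS with hid | hxU
    · refine le_trans ?_ le_self_add
      have h2 : ∀ j, ‖G0 j x‖ ≤ 3 * ‖G j x‖ := by
        intro j
        have h3 := hx3 j hxO 1 zero_le_one (by
          filter_upwards [hid] with y hy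
          rw [hy, hid.self_of_nhds, one_mul])
        rw [hid.self_of_nhds] at h3
        linarith
      calc En p G1 x ≤ ENNReal.ofReal (3 * (3 * K) ^ p) * En p G0 x :=
            en_le_of_sq hp0 K.2 (hx1 hxO)
        _ ≤ ENNReal.ofReal (3 * (3 * K) ^ p) * (ENNReal.ofReal (3 ^ p) * En p G x) := by
            gcongr
            exact en_le_of_le hp0 (by norm_num) h2
        _ = ENNReal.ofReal (3 * (9 * K) ^ p) * En p G x := by
            rw [← mul_assoc, ← ENNReal.ofReal_mul (by positivity)]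
            congr 2
            rw [mul_assoc, ← Real.mul_rpow (by positivity) (by norm_num)]
            congr 2
            ring
    · exact (en_le_of_sq hp0 hθ0.le (hx2 hxO hxU)).trans le_add_self
  have hmG0 : AEMeasurable (fun x => En p G0 x) (volume.restrict S) := by
    have h2 : AEMeasurable (fun x => En p G0 x) (volume.restrict Om) := by
      show AEMeasurable (fun x => ∑ j : Fin 3, ‖G0 j x‖ₑ ^ p) (volume.restrict Om)
      refine Finset.aemeasurable_fun_sum _ fun j _ => ?_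
      exact ((h0.memG j).aestronglyMeasurable.enorm).pow_const p
    exact h2.mono_measure (Measure.restrict_mono hSO le_rfl)
  have hmG : AEMeasurable (fun x => En p G x) (volume.restrict S) := by
    have h2 : AEMeasurable (fun x => En p G x) (volume.restrict Om) := by
      show AEMeasurable (fun x => ∑ j : Fin 3, ‖G j x‖ₑ ^ p) (volume.restrict Om)
      refine Finset.aemeasurable_fun_sum _ fun j _ => ?_
      exact ((h.memG j).aestronglyMeasurable.enorm).pow_const p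
    exact h2.mono_measure (Measure.restrict_mono hSO le_rfl)
  calc ∫⁻ x in S, En p G1 x
      ≤ ∫⁻ x in S, (ENNReal.ofReal (3 * (9 * K) ^ p) * En p G x +
          ENNReal.ofReal (3 * (3 * θ) ^ p) * En p G0 x) := by
        refine lintegral_mono_ae ?_
        rw [ae_restrict_iff' hS]
        exact hpt
    _ = ENNReal.ofReal (3 * (9 * K) ^ p) * (∫⁻ x in S, En p G x) +
          ENNReal.ofReal (3 * (3 * θ) ^ p) * ∫⁻ x in S, En p G0 x := by
        rw [lintegral_add_left' (hmG.const_mul _), lintegral_const_mul'' _ hmG,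
          lintegral_const_mul'' _ hmG0]
    _ ≤ ENNReal.ofReal (3 * (9 * K) ^ p) * (∫⁻ x in S, En p G x) + ENNReal.ofReal ε := by
        gcongr
        have h2 : (3 * θ) ^ p ≤ 3 * θ := by
          calc (3 * θ) ^ p ≤ (3 * θ) ^ (1 : ℝ) :=
                Real.rpow_le_rpow_of_exponent_ge (by positivity) (by linarith) hp
            _ = 3 * θ := Real.rpow_one _
        calc ENNReal.ofReal (3 * (3 * θ) ^ p) * ∫⁻ x in S, En p G0 x
            ≤ ENNReal.ofReal (9 * θ) * ∫⁻ x in Om, En p G0 x :=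
              mul_le_mul' (ENNReal.ofReal_le_ofReal (by linarith)) (lintegral_mono_set hSO)
          _ = ENNReal.ofReal (9 * θ) * ENNReal.ofReal A := by
              rw [hA, ENNReal.ofReal_toReal hfin]
          _ = ENNReal.ofReal (9 * θ * A) := (ENNReal.ofReal_mul (by positivity)).symm
          _ ≤ ENNReal.ofReal ε := ENNReal.ofReal_le_ofReal hθA

/-- **the collar**: a closed set all of whose points in a compact set are good has a good collar. -/
theorem exists_collar {Om : Set R3} (hOm : IsOpen Om) {g : R3 → R3} (hg : ContinuousOn g Om)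
    {Φ : R3 → R3} {U Z Kc : Set R3} (hU : IsOpen U) (hKc : IsCompact Kc) (hKO : Kc ⊆ Om)
    (hZ : IsClosed Z)
    (hgood : ∀ x ∈ Z ∩ Kc, (∀ᶠ y in 𝓝 x, Φ y = y) ∨ g x ∈ U) :
    ∃ δ₀ > 0, ∀ x ∈ thickening δ₀ Z ∩ Kc, (∀ᶠ y in 𝓝 x, Φ y = y) ∨ g x ∈ U := by
  set W : Set R3 := {x | ∀ᶠ y in 𝓝 x, Φ y = y} ∪ (Om ∩ g ⁻¹' U) with hW
  have hWo : IsOpen W := by
    refine IsOpen.union ?_ (hg.isOpen_inter_preimage hOm hU)
    rw [isOpen_iff_mem_nhds]
    intro x hx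
    exact eventually_eventually_nhds.2 hx
  -- `Kc \ W` is compact and misses `Z`
  have hc : IsCompact (Kc \ W) := hKc.diff hWo
  have hd : Disjoint (Kc \ W) Z := by
    rw [Set.disjoint_left]
    intro x hx hxZ
    rcases hgood x ⟨hxZ, hx.1⟩ with h1 | h1
    · exact hx.2 (Or.inl h1)
    · exact hx.2 (Or.inr ⟨hKO hx.1, h1⟩)
  obtain ⟨δ, hδ, hdis⟩ := hd.exists_thickenings hc hZ
  refine ⟨δ, hδ, fun x hx => ?_⟩
  by_contra hcon
  rw [not_or] at hcon
  have h1 : x ∈ Kc \ W := by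
    refine ⟨hx.2, ?_⟩
    rintro (h2 | h2)
    · exact hcon.1 h2
    · exact hcon.2 h2.2
  exact Set.disjoint_left.1 hdis (self_subset_thickening hδ _ h1) hx.1

end Crest.Agent.R096.Pe_622
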