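/-
helper622, row 96, COMPOSITE B, part 4: **the energy of `R ∘ f ∘ Φ ∘ χ` on the cells** from the
energies of `f` on the edges (squeezed faces) and on the unsqueezed faces.
-/
import Crest.Agent.R096.Cob3_622
import Crest.Agent.R096.Pe1_622

set_option autoImplicit false
set_option linter.unusedSectionVars false

open Set Metric Filter Topology MeasureTheory
open scoped ENNReal NNReal

namespace Crest.Agent.R096.Cob_622

open Crest.Agent.R096.Ce_537 Crest.Agent.R096.Bd_416 Crest.Agent.R96.Hole_348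
open Crest.AnalysisR.VecCalc3 Crest.AnalysisR.Sobolev Crest.Agent.R096.Sk_962
open Crest.Agent.R096.Sq_55

/-! ### neighbourhoods -/

lemma nb_eq {δ : ℝ} (hδ : 0 ≤ δ) {S : Set E3} (hS : IsClosed S) : nb δ S = cthickening δ S := by
  rw [hS.cthickening_eq_biUnion_closedBall hδ]
  ext x
  simp only [nb, mem_ofPred_eq, mem_iUnion, mem_closedBall, dist_eq_norm, exists_prop]

lemma isClosed_nb {δ : ℝ} (hδ : 0 ≤ δ) {S : Set E3} (hS : IsClosed S) : IsClosed (nb δ S) := by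
  rw [nb_eq hδ hS]; exact isClosed_cthickening

lemma w2_lip (x y : E3) : ‖w2 x - w2 y‖ ≤ 2 * ‖x - y‖ := by
  rw [w2_sub]; exact norm_toLp_le _

lemma image_nb {δ : ℝ} (hδ : 0 < δ) (S : Set E3) : w2 '' nb δ S ⊆ thickening (3 * δ) (w2 '' S) := by
  rintro _ ⟨x, ⟨y, hy, hxy⟩, rfl⟩
  rw [mem_thickening_iff]
  refine ⟨w2 y, mem_image_of_mem _ hy, ?_⟩
  rw [dist_eq_norm]
  have := w2_lip x y
  linarith

lemma isCompact_P (C : Cell) : IsCompact C.P := by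
  have h1 : C.P = C.e' '' closedBall 0 1 := by
    ext x
    constructor
    · exact fun hx => ⟨C.e x, C.cht.maps hx, C.cht.inv x hx⟩
    · rintro ⟨z, hz, rfl⟩
      exact C.cht.maps' hz
  rw [h1]
  exact (isCompact_closedBall 0 1).image_of_continuousOn C.cht.lip'.continuousOn

lemma isCompact_rim (F : Face) : IsCompact F.rim := by
  have h1 : IsCompact {z : E3 | z 0 = 0 ∧ wid z = 1} := by
    refine Metric.isCompact_of_isClosed_isBounded ?_ ?_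
    · exact (isClosed_eq (continuous_apply 0) continuous_const).inter
        (isClosed_eq continuous_wid continuous_const)
    · refine (Metric.isBounded_closedBall (x := (0:E3)) (r := 1)).subset ?_
      rintro z ⟨h0, h1⟩
      rw [mem_closedBall_zero_iff]
      exact norm_le_max (by rw [h0, abs_zero]; norm_num) h1.le
  refine h1.image_of_continuousOn (F.cht.lip'.continuousOn.mono ?_)
  rintro z ⟨h0, h1⟩
  exact Face.rim_mem h0 h1

lemma int_w2 (S : Set E3) (g : R3 → ℝ≥0∞) : ∫⁻ x in S, g (w2 x) = ∫⁻ y in w2 '' S, g y := by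
  rw [lint_w2, preimage_image_eq _ w2.injective]

lemma disjoint_small {A Kc : Set R3} (hA : IsClosed A) (hK : IsCompact Kc) (h : Disjoint A Kc) :
    ∀ᶠ δ in 𝓝[>] (0:ℝ), Disjoint (thickening (3 * δ) A) Kc := by
  obtain ⟨r, hr, hd⟩ := h.symm.exists_thickenings hK hA
  have h1 : ∀ᶠ δ in 𝓝[>] (0:ℝ), δ < r / 3 :=
    (eventually_lt_nhds (by positivity : (0:ℝ) < r / 3)).filter_mono nhdsWithin_le_nhds
  filter_upwards [h1] with δ hδ
  exact (hd.mono (self_subset_thickening hr _) (thickening_mono (by linarith) _)).symm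

/-! ### the data -/

/-- edges and faces for a system -/
structure EF {κ ι : Type*} (X : Sys κ ι) (Om : Set R3) (g : R3 → ℝ≥0∞) (α β : Type*) where
  eg : α → Set R3
  fc : β → Set R3
  rimE : ι → Finset α
  clE : ∀ a, IsClosed (eg a)
  clF : ∀ b, IsClosed (fc b)
  clZ : IsClosed X.Z
  hrim : ∀ j, w2 '' (X.F j).rim ⊆ ⋃ a ∈ rimE j, eg a
  hZ : w2 '' X.Z ⊆ (⋃ a, eg a) ∪ ⋃ b, fc b
  Ee : α → ℝ≥0∞
  Ef : β → ℝ≥0∞
  fE : ∀ a, Ee a ≠ ∞
  hE : ∀ a, ∀ η : ℝ≥0∞, 0 < η → ∀ᶠ δ in 𝓝[>] (0:ℝ),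
    ∫⁻ y in Om ∩ thickening δ (eg a), g y ≤ ENNReal.ofReal (δ^2) * (Ee a + η)
  hF : ∀ b, ∀ η : ℝ≥0∞, 0 < η → ∀ᶠ δ in 𝓝[>] (0:ℝ),
    ∫⁻ y in Om ∩ thickening δ (fc b), g y ≤ ENNReal.ofReal δ * (Ef b + η)

open Classical in
/-- the functional of the cell `k` -/
noncomputable def EF.J {κ ι α β : Type*} [Fintype ι] [Fintype β] {X : Sys κ ι} {Om : Set R3}
    {g : R3 → ℝ≥0∞} (D : EF X Om g α β) (k : κ) : ℝ≥0∞ :=
  ENNReal.ofReal (X.C k).R * ((∑ j ∈ Finset.univ.filter fun j => ((X.F j).V ∩ (X.C k).P).Nonempty,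
    ENNReal.ofReal (X.F j).ρ * ∑ a ∈ D.rimE j, D.Ee a) +
    ∑ b ∈ Finset.univ.filter fun b => (D.fc b ∩ w2 '' (X.C k).P).Nonempty, D.Ef b)

lemma ofReal_div_mul_sq {r δ : ℝ} (hr : 0 ≤ r) (hδ : 0 < δ) :
    ENNReal.ofReal (r / δ) * ENNReal.ofReal ((3 * δ)^2) = ENNReal.ofReal (9 * r * δ) := by
  rw [← ENNReal.ofReal_mul (by positivity)]
  congr 1
  field_simp
  ring

lemma ofReal_div_mul {r δ : ℝ} (hr : 0 ≤ r) (hδ : 0 < δ) :
    ENNReal.ofReal (r / δ) * ENNReal.ofReal (3 * δ) = ENNReal.ofReal (3 * r) := by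
  rw [← ENNReal.ofReal_mul (by positivity)]
  congr 1
  field_simp

lemma ofReal_div_mul' {r δ c : ℝ} (hr : 0 ≤ r) (hδ : 0 < δ) :
    ENNReal.ofReal (r / δ) * ENNReal.ofReal (c * δ) = ENNReal.ofReal (c * r) := by
  rw [← ENNReal.ofReal_mul (by positivity)]
  congr 1
  field_simp

lemma ev3 {P : ℝ → Prop} (h : ∀ᶠ δ in 𝓝[>] (0:ℝ), P δ) : ∀ᶠ δ in 𝓝[>] (0:ℝ), P (3 * δ) := by
  have h2 : Tendsto (fun δ : ℝ => 3 * δ) (𝓝[>] 0) (𝓝[>] 0) := by
    rw [tendsto_nhdsWithin_iff]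
    constructor
    · have : Tendsto (fun δ : ℝ => 3 * δ) (𝓝 0) (𝓝 (3 * 0)) :=
        (continuous_const.mul continuous_id).tendsto 0
      rw [mul_zero] at this
      exact this.mono_left nhdsWithin_le_nhds
    · filter_upwards [self_mem_nhdsWithin] with δ hδ
      have : (0:ℝ) < δ := hδ
      show (0:ℝ) < 3 * δ
      linarith
  exact h2.eventually h

lemma lint_biUnion_le {γ : Type*} (s : Finset γ) (A : γ → Set R3) (g : R3 → ℝ≥0∞) :
    ∫⁻ y in ⋃ a ∈ s, A a, g y ≤ ∑ a ∈ s, ∫⁻ y in A a, g y := by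
  classical
  induction s using Finset.induction_on with
  | empty => simp
  | insert a s ha ih =>
    rw [Finset.set_biUnion_insert, Finset.sum_insert ha]
    exact (lintegral_union_le _ _ _).trans (add_le_add le_rfl ih)

/-- the right side of SOBSQ for a small thickness, one cell -/
theorem rhs_one {κ ι α β : Type*} [Fintype κ] [Fintype ι] [Fintype α] [Fintype β] {X : Sys κ ι}
    {Om : Set R3} {g : R3 → ℝ≥0∞} (D : EF X Om g α β) (hC : ∀ k, (X.C k).P ⊆ w2 ⁻¹' Om)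
    (p : ℝ) (k : κ) {ε : ℝ≥0∞} (hε : ε ≠ 0) : ∀ᶠ δ in 𝓝[>] (0:ℝ),
      bdv X p δ k (fun x => g (w2 x)) ≤
        ENNReal.ofReal (9 * (T3 p (X.m k) * (1 + T2 p (X.m k)))) * D.J k + ε := by
  classical
  have hε2 : ε / 2 ≠ 0 := by
    rw [Ne, ENNReal.div_eq_zero_iff]; push Not
    exact ⟨hε, ENNReal.ofNat_ne_top⟩
  have hR : (0:ℝ) ≤ (X.C k).R := (X.C k).R.coe_nonneg
  have hρ : ∀ j, (0:ℝ) ≤ (X.F j).ρ := fun j => (X.F j).ρ.coe_nonneg
  set C1 : ℝ≥0∞ := ENNReal.ofReal (T3 p (X.m k) * (1 + T2 p (X.m k))) with hC1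
  set FJ := Finset.univ.filter fun j => ((X.F j).V ∩ (X.C k).P).Nonempty with hFJ
  set FB := Finset.univ.filter fun b => (D.fc b ∩ w2 '' (X.C k).P).Nonempty with hFB
  set W : ℝ≥0∞ := C1 * ((∑ j ∈ FJ, ENNReal.ofReal (9 * (X.C k).R * (X.F j).ρ) *
    ((D.rimE j).card : ℝ≥0∞)) + ENNReal.ofReal (9 * (X.C k).R) * (FB.card : ℝ≥0∞)) with hW
  have hWt : W ≠ ∞ := by
    refine ENNReal.mul_ne_top ENNReal.ofReal_ne_top (ENNReal.add_ne_top.2 ⟨?_, ?_⟩)
    · exact (ENNReal.sum_lt_top.2 fun j _ => ENNReal.mul_lt_top ENNReal.ofReal_lt_top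
        (ENNReal.natCast_lt_top _)).ne
    · exact ENNReal.mul_ne_top ENNReal.ofReal_ne_top (ENNReal.natCast_ne_top _)
  obtain ⟨β', hβ', hWβ⟩ := exists_small hWt hε2
  set η : ℝ≥0∞ := min β' 1 with hη
  have hη0 : 0 < η := lt_min (pos_iff_ne_zero.2 hβ') one_pos
  have hηt : η ≠ ∞ := ne_top_of_le_ne_top ENNReal.one_ne_top (min_le_right _ _)
  have hWη : W * η ≤ ε / 2 := (mul_le_mul' le_rfl (min_le_left _ _)).trans hWβ
  set SE : ℝ≥0∞ := ∑ a, (D.Ee a + η) with hSE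
  have hSEt : SE ≠ ∞ := (ENNReal.sum_lt_top.2 fun a _ =>
    ENNReal.add_lt_top.2 ⟨(D.fE a).lt_top, hηt.lt_top⟩).ne
  -- the vanishing term
  have hv : ∀ᶠ δ in 𝓝[>] (0:ℝ), C1 * (ENNReal.ofReal (9 * (X.C k).R * δ) * SE) ≤ ε / 2 := by
    have h1 : Tendsto (fun δ : ℝ => 9 * ((X.C k).R : ℝ) * δ) (𝓝[>] 0) (𝓝 (9 * (X.C k).R * 0)) :=
      ((continuous_const.mul continuous_id).tendsto 0).mono_left nhdsWithin_le_nhds
    have h2 := ENNReal.tendsto_ofReal h1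
    rw [mul_zero, ENNReal.ofReal_zero] at h2
    have h3 := ENNReal.Tendsto.mul_const h2 (Or.inr hSEt)
    rw [zero_mul] at h3
    have h4 := ENNReal.Tendsto.const_mul h3 (Or.inr (ENNReal.ofReal_ne_top :
      ENNReal.ofReal (T3 p (X.m k) * (1 + T2 p (X.m k))) ≠ ∞))
    rw [mul_zero] at h4
    exact (h4.eventually (gt_mem_nhds (pos_iff_ne_zero.2 hε2))).mono fun _ h => h.le
  have hE3 : ∀ᶠ δ in 𝓝[>] (0:ℝ), ∀ a, ∫⁻ y in Om ∩ thickening (3 * δ) (D.eg a), g y ≤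
      ENNReal.ofReal ((3 * δ)^2) * (D.Ee a + η) :=
    eventually_all.2 fun a => ev3 (D.hE a η hη0)
  have hF3 : ∀ᶠ δ in 𝓝[>] (0:ℝ), ∀ b, ∫⁻ y in Om ∩ thickening (3 * δ) (D.fc b), g y ≤
      ENNReal.ofReal (3 * δ) * (D.Ef b + η) :=
    eventually_all.2 fun b => ev3 (D.hF b η hη0)
  have hdis : ∀ᶠ δ in 𝓝[>] (0:ℝ), ∀ b, ¬ (D.fc b ∩ w2 '' (X.C k).P).Nonempty →
      Disjoint (thickening (3 * δ) (D.fc b)) (w2 '' (X.C k).P) := by
    refine eventually_all.2 fun b => ?_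
    by_cases h : (D.fc b ∩ w2 '' (X.C k).P).Nonempty
    · exact Eventually.of_forall fun _ h2 => absurd h h2
    · have h1 : Disjoint (D.fc b) (w2 '' (X.C k).P) := by
        rwa [Set.disjoint_iff_inter_eq_empty, ← not_nonempty_iff_eq_empty]
      filter_upwards [disjoint_small (D.clF b) ((isCompact_P (X.C k)).image w2.continuous) h1]
        with δ hδ _
      exact hδ
  filter_upwards [hv, hE3, hF3, hdis, self_mem_nhdsWithin] with δ h1 h2 h3 h4 hδ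
  have hδ : (0:ℝ) < δ := hδ
  have hPO : w2 '' (X.C k).P ⊆ Om := by
    rintro _ ⟨x, hx, rfl⟩
    exact hC k hx
  -- the face terms
  have t1 : ∀ j, ENNReal.ofReal ((X.F j).ρ / δ) *
      ∫⁻ x in (X.C k).P ∩ (X.F j).V ∩ nb δ (X.F j).rim, g (w2 x) ≤
      if j ∈ FJ then ENNReal.ofReal (9 * (X.F j).ρ * δ) * ∑ a ∈ D.rimE j, (D.Ee a + η) else 0 := by
    intro j
    split_ifs with hj
    · rw [← ofReal_div_mul_sq (hρ j) hδ, mul_assoc]
      refine mul_le_mul' le_rfl ?_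
      rw [int_w2]
      have hs : w2 '' ((X.C k).P ∩ (X.F j).V ∩ nb δ (X.F j).rim) ⊆
          ⋃ a ∈ D.rimE j, (Om ∩ thickening (3 * δ) (D.eg a)) := by
        rintro _ ⟨x, ⟨⟨hx1, hx2⟩, hx3⟩, rfl⟩
        have h5 := image_nb hδ _ (mem_image_of_mem w2 hx3)
        rw [mem_thickening_iff] at h5
        obtain ⟨z, hz, hd⟩ := h5
        obtain ⟨a, ha, hza⟩ := mem_iUnion₂.1 (D.hrim j hz)
        refine mem_iUnion₂.2 ⟨a, ha, hC k hx1, ?_⟩
        exact mem_thickening_iff.2 ⟨z, hza, hd⟩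
      refine (lintegral_mono_set hs).trans ?_
      refine (lint_biUnion_le _ _ _).trans ?_
      rw [Finset.mul_sum]
      exact Finset.sum_le_sum fun a _ => h2 a
    · have h5 : (X.C k).P ∩ (X.F j).V ∩ nb δ (X.F j).rim = ∅ := by
        rw [← not_nonempty_iff_eq_empty]
        rintro ⟨x, ⟨hx1, hx2⟩, -⟩
        exact hj (Finset.mem_filter.2 ⟨Finset.mem_univ _, x, hx2, hx1⟩)
      rw [h5, Measure.restrict_empty, lintegral_zero_measure, mul_zero]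
  -- the layer term
  have t2 : ∫⁻ x in (X.C k).P ∩ (nb δ X.Z ∪ ⋃ j, nb δ (X.F j).rim), g (w2 x) ≤
      ENNReal.ofReal ((3 * δ)^2) * SE + ENNReal.ofReal (3 * δ) * ∑ b ∈ FB, (D.Ef b + η) := by
    rw [int_w2]
    have hs : w2 '' ((X.C k).P ∩ (nb δ X.Z ∪ ⋃ j, nb δ (X.F j).rim)) ⊆
        (⋃ a ∈ (Finset.univ : Finset α), (Om ∩ thickening (3 * δ) (D.eg a))) ∪
        ⋃ b ∈ FB, (Om ∩ thickening (3 * δ) (D.fc b)) := by
      rintro _ ⟨x, ⟨hx1, hx2⟩, rfl⟩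
      have hz : ∃ z ∈ (⋃ a, D.eg a) ∪ ⋃ b, D.fc b, dist (w2 x) z < 3 * δ := by
        rcases hx2 with h5 | h5
        · have h6 := image_nb hδ _ (mem_image_of_mem w2 h5)
          rw [mem_thickening_iff] at h6
          obtain ⟨z, hz, hd⟩ := h6
          exact ⟨z, D.hZ hz, hd⟩
        · obtain ⟨j, hj⟩ := mem_iUnion.1 h5
          have h6 := image_nb hδ _ (mem_image_of_mem w2 hj)
          rw [mem_thickening_iff] at h6
          obtain ⟨z, hz, hd⟩ := h6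
          obtain ⟨a, ha, hza⟩ := mem_iUnion₂.1 (D.hrim j hz)
          exact ⟨z, Or.inl (mem_iUnion.2 ⟨a, hza⟩), hd⟩
      obtain ⟨z, hz | hz, hd⟩ := hz
      · obtain ⟨a, ha⟩ := mem_iUnion.1 hz
        exact Or.inl (mem_iUnion₂.2 ⟨a, Finset.mem_univ _, hC k hx1, mem_thickening_iff.2 ⟨z, ha, hd⟩⟩)
      · obtain ⟨b, hb⟩ := mem_iUnion.1 hz
        refine Or.inr (mem_iUnion₂.2 ⟨b, ?_, hC k hx1, mem_thickening_iff.2 ⟨z, hb, hd⟩⟩)
        refine Finset.mem_filter.2 ⟨Finset.mem_univ _, ?_⟩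
        by_contra hcon
        exact Set.disjoint_left.1 (h4 b hcon) (mem_thickening_iff.2 ⟨z, hb, hd⟩)
          (mem_image_of_mem _ hx1)
    refine (lintegral_mono_set hs).trans ((lintegral_union_le _ _ _).trans (add_le_add ?_ ?_))
    · refine (lint_biUnion_le _ _ _).trans ?_
      rw [hSE, Finset.mul_sum]
      exact Finset.sum_le_sum fun a _ => h2 a
    · refine (lint_biUnion_le _ _ _).trans ?_
      rw [Finset.mul_sum]
      exact Finset.sum_le_sum fun b _ => h3 b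
  -- everything together
  have hsum : ∀ (s : Finset α), ∑ a ∈ s, (D.Ee a + η) = (∑ a ∈ s, D.Ee a) + (s.card : ℝ≥0∞) * η := by
    intro s
    rw [Finset.sum_add_distrib, Finset.sum_const, nsmul_eq_mul]
  have hsumB : ∑ b ∈ FB, (D.Ef b + η) = (∑ b ∈ FB, D.Ef b) + (FB.card : ℝ≥0∞) * η := by
    rw [Finset.sum_add_distrib, Finset.sum_const, nsmul_eq_mul]
  have e9 : ∀ j, ENNReal.ofReal (9 * (X.C k).R * (X.F j).ρ) =
      ENNReal.ofReal 9 * (ENNReal.ofReal (X.C k).R * ENNReal.ofReal (X.F j).ρ) := by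
    intro j
    rw [mul_assoc, ENNReal.ofReal_mul (by norm_num), ENNReal.ofReal_mul hR]
  have e9' : ENNReal.ofReal (9 * ((X.C k).R : ℝ)) = ENNReal.ofReal 9 * ENNReal.ofReal (X.C k).R :=
    ENNReal.ofReal_mul (by norm_num)
  have e9'' : ENNReal.ofReal (9 * (T3 p (X.m k) * (1 + T2 p (X.m k)))) = ENNReal.ofReal 9 * C1 :=
    ENNReal.ofReal_mul (by norm_num)
  have s1 : ENNReal.ofReal ((X.C k).R / δ) * ∑ j, ENNReal.ofReal ((X.F j).ρ / δ) *
      ∫⁻ x in (X.C k).P ∩ (X.F j).V ∩ nb δ (X.F j).rim, g (w2 x) ≤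
      ∑ j ∈ FJ, ENNReal.ofReal (9 * (X.C k).R * (X.F j).ρ) * ∑ a ∈ D.rimE j, (D.Ee a + η) := by
    calc _ ≤ ENNReal.ofReal ((X.C k).R / δ) * ∑ j, (if j ∈ FJ then
          ENNReal.ofReal (9 * (X.F j).ρ * δ) * ∑ a ∈ D.rimE j, (D.Ee a + η) else 0) :=
          mul_le_mul' le_rfl (Finset.sum_le_sum fun j _ => t1 j)
      _ = ∑ j ∈ FJ, ENNReal.ofReal ((X.C k).R / δ) *
          (ENNReal.ofReal (9 * (X.F j).ρ * δ) * ∑ a ∈ D.rimE j, (D.Ee a + η)) := by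
          rw [Finset.sum_ite_mem, Finset.univ_inter, Finset.mul_sum]
      _ = _ := by
          refine Finset.sum_congr rfl fun j _ => ?_
          rw [← mul_assoc, ofReal_div_mul' hR hδ]
          congr 2
          ring
  have s2 : ENNReal.ofReal ((X.C k).R / δ) *
      ∫⁻ x in (X.C k).P ∩ (nb δ X.Z ∪ ⋃ j, nb δ (X.F j).rim), g (w2 x) ≤
      ENNReal.ofReal (9 * (X.C k).R * δ) * SE +
        ENNReal.ofReal (9 * (X.C k).R) * ∑ b ∈ FB, (D.Ef b + η) := by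
    refine (mul_le_mul' le_rfl t2).trans ?_
    rw [mul_add, ← mul_assoc, ofReal_div_mul_sq hR hδ, ← mul_assoc, ofReal_div_mul hR hδ]
    refine add_le_add le_rfl (mul_le_mul' (ENNReal.ofReal_le_ofReal ?_) le_rfl)
    linarith
  unfold bdv
  calc C1 * (ENNReal.ofReal ((X.C k).R / δ) * ((∑ j, ENNReal.ofReal ((X.F j).ρ / δ) *
        ∫⁻ x in (X.C k).P ∩ (X.F j).V ∩ nb δ (X.F j).rim, g (w2 x)) +
        ∫⁻ x in (X.C k).P ∩ (nb δ X.Z ∪ ⋃ j, nb δ (X.F j).rim), g (w2 x)))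
      ≤ C1 * ((∑ j ∈ FJ, ENNReal.ofReal (9 * (X.C k).R * (X.F j).ρ) *
          ∑ a ∈ D.rimE j, (D.Ee a + η)) + (ENNReal.ofReal (9 * (X.C k).R * δ) * SE +
          ENNReal.ofReal (9 * (X.C k).R) * ∑ b ∈ FB, (D.Ef b + η))) := by
        rw [mul_add (ENNReal.ofReal ((X.C k).R / δ))]
        exact mul_le_mul' le_rfl (add_le_add s1 s2)
    _ = ENNReal.ofReal (9 * (T3 p (X.m k) * (1 + T2 p (X.m k)))) * D.J k + (W * η +
          C1 * (ENNReal.ofReal (9 * (X.C k).R * δ) * SE)) := by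
        have r1 : ∑ j ∈ FJ, ENNReal.ofReal (9 * (X.C k).R * (X.F j).ρ) *
            ∑ a ∈ D.rimE j, (D.Ee a + η) = ENNReal.ofReal 9 * (ENNReal.ofReal (X.C k).R *
            ∑ j ∈ FJ, ENNReal.ofReal (X.F j).ρ * ∑ a ∈ D.rimE j, D.Ee a) +
            (∑ j ∈ FJ, ENNReal.ofReal (9 * (X.C k).R * (X.F j).ρ) *
              ((D.rimE j).card : ℝ≥0∞)) * η := by
          rw [Finset.mul_sum, Finset.mul_sum, Finset.sum_mul, ← Finset.sum_add_distrib]
          refine Finset.sum_congr rfl fun j _ => ?_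
          rw [hsum, e9]
          ring
        rw [r1, hsumB, e9'', hW, EF.J, e9']
        ring
    _ ≤ ENNReal.ofReal (9 * (T3 p (X.m k) * (1 + T2 p (X.m k)))) * D.J k + (ε / 2 + ε / 2) :=
        add_le_add le_rfl (add_le_add hWη h1)
    _ = _ := by rw [ENNReal.add_halves]

end Crest.Agent.R096.Cob_622
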