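import Crest.Agent.R096.Sq18_55
import Crest.Agent.R096.Sq16_55

/-!
# R096 (row 96), SOBSQ, part 19 (helper55): the system of a tiling
-/

set_option autoImplicit false
set_option linter.unusedSectionVars false

open Set Metric Filter Topology

namespace Crest.Agent.R096.Sq_55

open Crest.Agent.R096.Ce_537 Crest.Agent.R096.Bd_416 Crest.Agent.R96.Hole_348
open Crest.Agent.R096.Msh_715 (P I Tiling I_sub_P isOpen_I isClosed_P convex_P mem_I_of_move
  disjoint_P_I isBall_P_top mem_I_small)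
open scoped NNReal

section tiling

variable {Om : Set E3} {ι : Type*} {T : Tiling Om ι} {c : ι → E3}

/-- uniqueness of the exit point of a ray -/
lemma ray_unique {H : Finset ((E3 →L[ℝ] ℝ) × ℝ)} {v z z' : E3} (hv : v ∈ I H) (hz : z ∈ P H)
    (hz' : z' ∈ P H) (nz : z ∉ I H) (nz' : z' ∉ I H) {s s' : ℝ} (hs : 0 < s) (hs1 : s < 1)
    (hs' : 0 < s') (hs1' : s' < 1) (e : z + s • (v - z) = z' + s' • (v - z')) : z = z' := by
  have key : ∀ {z z' : E3} {s s' : ℝ}, z' ∈ P H → z ∉ I H → s < 1 → 0 < s' → s' < 1 → s < s' →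
      z + s • (v - z) = z' + s' • (v - z') → False := by
    intro z z' s s' hz' nz hs1 hs' hs1' hlt e
    apply nz
    have h1 : 0 < 1 - s := by linarith
    have h2 : z = z' + ((s' - s) / (1 - s)) • (v - z') := by
      have e1 : (1 - s) • z = (1 - s') • z' + (s' - s) • v := by
        have e2 : z + s • (v - z) - s • v = z' + s' • (v - z') - s • v := by rw [e]
        calc (1 - s) • z = z + s • (v - z) - s • v := by module
          _ = z' + s' • (v - z') - s • v := e2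
          _ = (1 - s') • z' + (s' - s) • v := by module
      have e3 : z = (1 - s)⁻¹ • ((1 - s) • z) := by
        rw [smul_smul, inv_mul_cancel₀ h1.ne', one_smul]
      rw [e3, e1, smul_add, smul_smul, smul_smul]
      have e4 : (1 - s)⁻¹ * (1 - s') = 1 - (s' - s) / (1 - s) := by field_simp; ring
      have e5 : (1 - s)⁻¹ * (s' - s) = (s' - s) / (1 - s) := by field_simp
      rw [e4, e5]
      module
    rw [h2]
    refine mem_I_of_move hz' hv (div_pos (by linarith) h1) ?_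
    rw [div_le_one h1]; linarith
  rcases lt_trichotomy s s' with h | h | h
  · exact (key hz' nz hs1 hs' hs1' h e).elim
  · subst h
    have h1 : 0 < 1 - s := by linarith
    have e1 : (1 - s) • z = (1 - s) • z' := by
      have e2 : z + s • (v - z) - s • v = z' + s • (v - z') - s • v := by rw [e]
      calc (1 - s) • z = z + s • (v - z) - s • v := by module
        _ = z' + s • (v - z') - s • v := e2
        _ = (1 - s) • z' := by module
    exact smul_right_injective E3 h1.ne' e1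
  · exact (key hz nz' hs1' hs hs1 h e.symm).elim

lemma notMem_I_of_two {y : E3} {i j l : ι} (hij : i ≠ j) (hi : y ∈ P (T.H i))
    (hj : y ∈ P (T.H j)) : y ∉ I (T.H l) := by
  intro hl
  by_cases h1 : i = l
  · have h2 : j ≠ l := fun h => hij (h1.trans h.symm)
    exact Set.disjoint_left.1 (disjoint_P_I (T.ne j) (T.dis j l h2)) hj hl
  · exact Set.disjoint_left.1 (disjoint_P_I (T.ne i) (T.dis i l h1)) hi hl

namespace IsDp

variable {x : E3} {i j : ι} {D : Dp}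

lemma oc_notMem (h : IsDp T c x i j D) (hx : x ∈ Om) {y : E3} (hy : y ∈ T.oc x) (l : ι) :
    y ∉ I (T.H l) := by
  have e := T.at_eq_of_mem_oc hx hy
  have h1 : i ∈ T.at_ y := by rw [e]; exact h.symm_mem.1
  have h2 : j ∈ T.at_ y := by rw [e]; exact h.symm_mem.2
  exact notMem_I_of_two h.ne h1 h2

lemma ray_repr (h : IsDp T c x i j D) (hx : x ∈ Om) (hc : ∀ i, c i ∈ I (T.H i)) {y : E3}
    (hy : y ∈ D.V) (ht : D.t y ≠ 0) : ∃ (l : ι) (z : E3) (s : ℝ), z ∈ T.oc x ∧ z ∈ P (T.H l) ∧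
      z ∉ I (T.H l) ∧ 0 < s ∧ s < 1 ∧ y = z + s • (c l - z) ∧ y ∈ I (T.H l) := by
  have hb1 : |D.t y| < 1 := by have : 0 < 1 - |D.t y| := hy.1; linarith
  rcases lt_or_gt_of_ne ht with ht | ht
  · have h0 := h.tile_neg hc hy ht
    rw [abs_of_neg ht] at hb1
    obtain ⟨h3, h4⟩ := h.repr_neg (D.V_sub hy) ht (by linarith)
    have h5 := hy.2
    rw [h.F] at h3
    rw [h.oF, show 1 - |D.t y| = 1 + D.t y by rw [abs_of_neg ht]; ring] at h5
    rw [h.a'] at h4
    exact ⟨j, _, _, h5, T.cc_sub_tile h.symm_mem.2 h3, h.oc_notMem hx h5 j, by linarith,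
      by linarith, h4, h0⟩
  · have h0 := h.tile_pos hc hy ht
    rw [abs_of_pos ht] at hb1
    obtain ⟨h3, h4⟩ := h.repr_pos (D.V_sub hy) ht hb1
    have h5 := hy.2
    rw [h.F] at h3
    rw [h.oF, abs_of_pos ht] at h5
    rw [h.a] at h4
    exact ⟨i, _, _, h5, T.cc_sub_tile h.symm_mem.1 h3, h.oc_notMem hx h5 i, ht, hb1, h4, h0⟩

lemma disjoint (hc : ∀ i, c i ∈ I (T.H i)) (h : IsDp T c x i j D) (hx : x ∈ Om) {x' : E3}
    {i' j' : ι} {D' : Dp} (h' : IsDp T c x' i' j' D') (hx' : x' ∈ Om)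
    (hne : T.cc x ≠ T.cc x') : Disjoint D.V D'.V := by
  rw [Set.disjoint_left]
  intro y hy hy'
  have fin : ∀ {z : E3}, z ∈ T.oc x → z ∈ T.oc x' → False := fun hz hz' =>
    hne ((T.cc_eq_of_mem_oc hx hz).symm.trans (T.cc_eq_of_mem_oc hx' hz'))
  by_cases ht : D.t y = 0
  · have h1 := h.cell_zero hy ht
    by_cases ht' : D'.t y = 0
    · exact fin h1 (h'.cell_zero hy' ht')
    · obtain ⟨l, _, _, _, _, _, _, _, _, h2⟩ := h'.ray_repr hx' hc hy' ht'
      exact h.oc_notMem hx h1 l h2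
  · obtain ⟨l, z, s, a1, a2, a3, a4, a5, a6, a7⟩ := h.ray_repr hx hc hy ht
    by_cases ht' : D'.t y = 0
    · exact h'.oc_notMem hx' (h'.cell_zero hy' ht') l a7
    · obtain ⟨l', z', s', b1, b2, b3, b4, b5, b6, b7⟩ := h'.ray_repr hx' hc hy' ht'
      have e : l = l' := by
        by_contra hne
        exact Set.disjoint_left.1 (T.dis l l' hne) a7 b7
      subst e
      have e2 := ray_unique (hc l) a2 b2 a3 b3 a4 a5 b4 b5 (a6.symm.trans b6)
      rw [← e2] at b1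
      exact fin a1 b1

end IsDp

/-- `F` is a chart of the double pyramid over the 2-cell of `x` -/
def FaceOf (T : Tiling Om ι) (c : ι → E3) (x : E3) (F : Face) : Prop :=
  ∃ i j D, IsDp T c x i j D ∧ F.K = D.K ∧ F.V = D.V ∧ (∀ y ∈ D.K, F.e y 0 = D.t y) ∧
    ∀ k, ∀ y ∈ D.V, y ∈ P (T.H k) → ∀ z ∈ P (T.H k) \ I (T.H k),
      F.ρ * |D.t y| ≤ F.M * ‖y - z‖

/-- **charts of the 2-cells exist** -/
theorem exists_face (hc : ∀ i, c i ∈ I (T.H i)) {x : E3} (hx : x ∈ Om) (hd : T.dim x = 2)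
    {ρ : ℝ≥0} (hρ : 0 < ρ) : ∃ F : Face, FaceOf T c x F ∧ F.ρ = ρ := by
  obtain ⟨i, j, D, h⟩ := exists_dp T c hc hx hd
  obtain ⟨L, L', hL⟩ := D.exists_cht
  obtain ⟨A, hA0, hA⟩ := h.exists_slab hc hx
  set M : ℝ≥0 := max 1 (max (max (L * ρ) (L' / ρ)) (A.toNNReal * ρ)) with hM
  have h1 : L ≤ M / ρ := by
    rw [le_div_iff₀ hρ]
    exact (le_max_left _ _).trans ((le_max_left _ _).trans (le_max_right _ _))
  have h2 : L' ≤ M * ρ := by
    rw [← div_le_iff₀ hρ]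
    exact (le_max_right _ _).trans ((le_max_left _ _).trans (le_max_right _ _))
  have h3 : A * ρ ≤ M := by
    have : A.toNNReal * ρ ≤ M := (le_max_right _ _).trans (le_max_right _ _)
    have h4 : ((A.toNNReal * ρ : ℝ≥0) : ℝ) ≤ M := by exact_mod_cast this
    rwa [NNReal.coe_mul, Real.coe_toNNReal _ hA0] at h4
  refine ⟨⟨D.K, D.V, M, ρ, le_max_left _ _, hρ, D.ch, D.ch',
    { hL with lip := hL.lip.weaken h1, lip' := hL.lip'.weaken h2 }⟩,
    ⟨i, j, D, h, rfl, rfl, fun y _ => rfl, fun k y hy hk z hz => ?_⟩, rfl⟩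
  have h5 := hA k y hy hk z hz
  have hρ' : (0:ℝ) ≤ ρ := ρ.coe_nonneg
  calc (ρ : ℝ) * |D.t y| ≤ ρ * (A * ‖y - z‖) := mul_le_mul_of_nonneg_left h5 hρ'
    _ = (A * ρ) * ‖y - z‖ := by ring
    _ ≤ M * ‖y - z‖ := mul_le_mul_of_nonneg_right h3 (norm_nonneg _)

/-- the rim is the boundary of the 2-cell -/
lemma FaceOf.rim {x : E3} {F : Face} (h : FaceOf T c x F) : F.rim = T.cc x \ T.oc x := by
  obtain ⟨i, j, D, h, hK, hV, he, -⟩ := h
  have c0 : Cht D.K D.V Dc Do F.e F.e' (F.M / F.ρ) (F.M * F.ρ) := by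
    rw [← hK, ← hV]; exact F.cht
  ext y
  constructor
  · rintro ⟨z, ⟨z0, z1⟩, rfl⟩
    have hz : z ∈ Dc := Face.rim_mem z0 z1
    have hyK : F.e' z ∈ D.K := c0.maps' hz
    have ht : D.t (F.e' z) = 0 := by rw [← he _ hyK, c0.inv' z hz, z0]
    have hnV : F.e' z ∉ D.V := by
      intro h1
      have h2 : |z 0| + wid z < 1 := (c0.mem' hz).1 h1
      rw [z0, z1, abs_zero, zero_add] at h2
      exact lt_irrefl _ h2
    refine ⟨?_, fun h1 => hnV (h.mem_V_of_oc h1).1⟩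
    have h1 := hyK.2.1 (by rw [ht]; norm_num)
    have h3 := D.recon (F.e' z)
    rw [ht, Dp.ax, neg_zero, Dp.pp_pos le_rfl, zero_smul, zero_smul, add_zero, add_zero] at h3
    have h4 : (1 - |D.t (F.e' z)|)⁻¹ • D.w (F.e' z) = D.w (F.e' z) := by
      rw [ht, abs_zero, sub_zero, inv_one, one_smul]
    have h5 : D.b + (1 - |D.t (F.e' z)|)⁻¹ • D.w (F.e' z) ∈ D.F := h1
    rw [h4, h3, h.F] at h5
    exact h5
  · rintro ⟨h1, h2⟩
    have ht := h.t_of_cc h1
    have hw : D.w y = y - D.b := by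
      rw [Dp.w, ht, Dp.ax, neg_zero, Dp.pp_pos le_rfl, zero_smul, zero_smul, add_zero, sub_zero]
    have hyK : y ∈ D.K := by
      refine ⟨by rw [ht]; norm_num, fun _ => ?_, fun h3 => ?_⟩
      · show D.b + (1 - |D.t y|)⁻¹ • D.w y ∈ D.F
        rw [ht, abs_zero, sub_zero, inv_one, one_smul, hw, add_sub_cancel, h.F]
        exact h1
      · have h3' : 1 - |D.t y| = 0 := h3
        rw [ht, abs_zero, sub_zero] at h3'
        exact absurd h3' one_ne_zero
    have hnV : y ∉ D.V := fun h3 => h2 (h.cell_zero h3 ht)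
    have hz : F.e y ∈ Dc := c0.maps hyK
    have hz0 : F.e y 0 = 0 := by rw [he y hyK, ht]
    refine ⟨F.e y, ⟨hz0, ?_⟩, c0.inv y hyK⟩
    have h3 : |F.e y 0| + wid (F.e y) ≤ 1 := hz
    have h4 : ¬ (|F.e y 0| + wid (F.e y) < 1) := fun h5 => hnV ((c0.mem y hyK).1 h5)
    rw [hz0, abs_zero, zero_add] at h3 h4
    exact le_antisymm h3 (not_lt.1 h4)

/-- a double pyramid lies in the union of the two tiles -/
lemma FaceOf.sub {x : E3} {F : Face} (h : FaceOf T c x F) (hc : ∀ i, c i ∈ I (T.H i)) {y : E3}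
    (hy : y ∈ F.K) : ∃ i ∈ T.at_ x, y ∈ P (T.H i) := by
  obtain ⟨i, j, D, h, hK, hV, he, -⟩ := h
  have h1 : y ∈ closure F.V := by
    have hz : F.e y ∈ Dc := F.cht.maps hy
    have h1 : F.e y ∈ closure Do := by
      have h2 : Tendsto (fun s : ℝ => (1 - s) • F.e y) (𝓝[>] 0) (𝓝 (F.e y)) := by
        have : Tendsto (fun s : ℝ => (1 - s) • F.e y) (𝓝 0) (𝓝 ((1 - 0 : ℝ) • F.e y)) := by
          apply Continuous.tendsto
          fun_prop
        rw [sub_zero, one_smul] at this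
        exact this.mono_left nhdsWithin_le_nhds
      refine mem_closure_of_tendsto h2 ?_
      have h3 : ∀ᶠ s in 𝓝[>] (0:ℝ), s < 1 :=
        (gt_mem_nhds (zero_lt_one' ℝ)).filter_mono nhdsWithin_le_nhds
      filter_upwards [h3, self_mem_nhdsWithin] with s hs hs0
      have hs0 : (0:ℝ) < s := hs0
      show |((1 - s) • F.e y) 0| + wid ((1 - s) • F.e y) < 1
      have e0 : ((1 - s) • F.e y) 0 = (1 - s) * F.e y 0 := rfl
      have h4 : |F.e y 0| + wid (F.e y) ≤ 1 := hz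
      rw [wid_smul (by linarith), e0, abs_mul, abs_of_pos (by linarith : 0 < 1 - s), ← mul_add]
      nlinarith [abs_nonneg (F.e y 0), wid_nonneg (F.e y)]
    have h2 : ContinuousWithinAt F.e' Do (F.e y) :=
      (F.cht.pl'.1 _ hz).mono F.cht.sub'
    have h3 := h2.mem_closure_image h1
    rw [F.cht.inv y hy] at h3
    refine closure_mono ?_ h3
    rintro _ ⟨z, hz, rfl⟩
    exact F.cht.eU' hz
  have h2 : F.V ⊆ P (T.H i) ∪ P (T.H j) := fun z hz => by
    rw [hV] at hz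
    exact h.sub_tiles hc hz
  have h3 := closure_minimal h2 ((isClosed_P _).union (isClosed_P _)) h1
  rcases h3 with h3 | h3
  · exact ⟨i, h.symm_mem.1, h3⟩
  · exact ⟨j, h.symm_mem.2, h3⟩

/-- **the system of a tiling** -/
noncomputable def mkSys (hc : ∀ i, c i ∈ I (T.H i)) (s : Finset ι) (Fs : Finset E3)
    (hFs : ∀ x ∈ Fs, x ∈ Om) (hne : ∀ x ∈ Fs, ∀ y ∈ Fs, x ≠ y → T.cc x ≠ T.cc y)
    (C : s → Cell) (hC : ∀ k : s, (C k).P = P (T.H k) ∧ (C k).U = I (T.H k))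
    (F : Fs → Face) (hF : ∀ x : Fs, FaceOf T c (x : E3) (F x)) (m : s → ℝ≥0)
    (mC : ∀ k : s, (C k).M ≤ m k)
    (mF : ∀ (k : s) (x : Fs), (k : ι) ∈ T.at_ (x : E3) → (F x).M ≤ m k) (Z : Set E3)
    (hZ : ∀ k ∈ s, ∀ y ∈ P (T.H k) \ I (T.H k), y ∈ Z ∨ ∃ x ∈ Fs, y ∈ T.oc x) : Sys s Fs where
  C := C
  F := F
  m := m
  Z := Z
  disC k l hkl := by
    rw [(hC k).2, (hC l).2]
    exact T.dis _ _ fun h => hkl (Subtype.ext h)
  disF x y hxy := by
    obtain ⟨i, j, D, h, hK, hV, he, -⟩ := hF x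
    obtain ⟨i', j', D', h', hK', hV', he', -⟩ := hF y
    rw [hV, hV']
    exact h.disjoint hc (hFs _ x.2) h' (hFs _ y.2) (hne _ x.2 _ y.2 fun e => hxy (Subtype.ext e))
  side x k y hy z hz e hk := by
    obtain ⟨i, j, D, h, hK, hV, he, -⟩ := hF x
    rw [hV] at hy hz
    rw [he y (D.V_sub hy), he z (D.V_sub hz)] at e
    rw [(hC k).1] at hk ⊢
    exact h.side hc (hFs _ x.2) hy hz e hk
  slab x k y hy hk z hz := by
    obtain ⟨i, j, D, h, hK, hV, he, hs⟩ := hF x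
    rw [hV] at hy
    rw [(hC k).1] at hk
    rw [(hC k).1, (hC k).2] at hz
    rw [he y (D.V_sub hy)]
    exact hs k y hy hk z hz
  hZ k y hy := by
    rw [(hC k).1, (hC k).2] at hy
    rcases hZ k k.2 y hy with h1 | ⟨x, hx, h1⟩
    · exact Or.inl h1
    · right
      obtain ⟨i, j, D, h, hK, hV, he, hs⟩ := hF ⟨x, hx⟩
      obtain ⟨h2, h3⟩ := h.mem_V_of_oc h1
      refine ⟨⟨x, hx⟩, by rw [hV]; exact h2, by rw [he y (D.V_sub h2), h3]⟩
  mC := mC
  mF k x hkx := by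
    apply mF k x
    obtain ⟨y, hy, hk⟩ := hkx
    obtain ⟨i, j, D, h, hK, hV, he, hs⟩ := hF x
    rw [hV] at hy
    rw [(hC k).1] at hk
    show (k : ι) ∈ T.at_ (x : E3)
    by_cases ht : D.t y = 0
    · have h1 := h.cell_zero hy ht
      have h2 : (k : ι) ∈ T.at_ y := hk
      rwa [T.at_eq_of_mem_oc (hFs _ x.2) h1] at h2
    · obtain ⟨l, z, s', a1, a2, a3, a4, a5, a6, a7⟩ := h.ray_repr (hFs _ x.2) hc hy ht
      have e : (k : ι) = l := by
        by_contra hne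
        exact Set.disjoint_left.1 (disjoint_P_I (T.ne _) (T.dis _ l hne)) hk a7
      have h2 : l ∈ T.at_ z := a2
      rw [T.at_eq_of_mem_oc (hFs _ x.2) a1] at h2
      rwa [e]

/-- existence of a system, with given sizes -/
theorem exists_sys (T : Tiling Om ι) (hc : ∀ i, c i ∈ I (T.H i)) (s : Finset ι) (Fs : Finset E3)
    (hFs : ∀ x ∈ Fs, x ∈ Om ∧ T.dim x = 2) (hne : ∀ x ∈ Fs, ∀ y ∈ Fs, x ≠ y → T.cc x ≠ T.cc y)
    (R : ι → ℝ≥0) (hR : ∀ i, 0 < R i) (ρ : E3 → ℝ≥0) (hρ : ∀ x, 0 < ρ x) (Z : Set E3)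
    (hZ : ∀ k ∈ s, ∀ y ∈ P (T.H k) \ I (T.H k), y ∈ Z ∨ ∃ x ∈ Fs, y ∈ T.oc x) :
    ∃ X : Sys s Fs, (∀ k : s, (X.C k).P = P (T.H k) ∧ (X.C k).U = I (T.H k) ∧ (X.C k).R = R k) ∧
      (∀ x : Fs, FaceOf T c (x : E3) (X.F x) ∧ (X.F x).ρ = ρ x) ∧ X.Z = Z := by
  classical
  have h1 : ∀ k : s, ∃ C : Cell, C.P = P (T.H k) ∧ C.U = I (T.H k) ∧ C.R = R k :=
    fun k => exists_cell (T.cpt k) (T.ne k) (hR k)
  choose C hC using h1
  have h2 : ∀ x : Fs, ∃ F : Face, FaceOf T c (x : E3) F ∧ F.ρ = ρ x :=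
    fun x => exists_face hc (hFs _ x.2).1 (hFs _ x.2).2 (hρ _)
  choose F hF using h2
  set m : ℝ≥0 := (∑ k, (C k).M) + ∑ x, (F x).M with hm
  have m1 : ∀ k : s, (C k).M ≤ m := fun k =>
    (Finset.single_le_sum (f := fun k => (C k).M) (fun _ _ => zero_le) (Finset.mem_univ k)).trans
      le_self_add
  have m2 : ∀ x : Fs, (F x).M ≤ m := fun x =>
    (Finset.single_le_sum (f := fun k => (F k).M) (fun _ _ => zero_le) (Finset.mem_univ x)).trans
      le_add_self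
  exact ⟨mkSys hc s Fs (fun x hx => (hFs x hx).1) hne C (fun k => ⟨(hC k).1, (hC k).2.1⟩) F
    (fun x => (hF x).1) (fun _ => m) m1 (fun _ x _ => m2 x) Z hZ,
    fun k => hC k, fun x => hF x, rfl⟩

end tiling

end Crest.Agent.R096.Sq_55
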