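/-
helper296, row 96, COMPOSITE B (622): the instance `EF X Om g α β` of a tiling, part 1: the finite
sets of the closed 1-cells and 2-cells of finitely many tiles, `Z`, the rims.
-/
import Crest.Agent.R096.Cob4_622
import Crest.Agent.R096.Sq19_55
import Crest.Agent.R096.Mf2_113

set_option autoImplicit false
set_option linter.unusedSectionVars false
set_option linter.style.longLine false

open Set Metric Filter Topology MeasureTheory
open scoped ENNReal NNReal

namespace Crest.Agent.R096.Efi_296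

open Crest.AnalysisR.VecCalc3
open Crest.Agent.R096.Msh_715 (P I Tiling I_sub_P isOpen_I isClosed_P)
open Crest.Agent.R096.Sq_55 (E3 Sys Face FaceOf w2)

noncomputable section

variable {Om : Set E3} {ι : Type*}

/-- the closed 1-cells of the tiles of `s` -/
def EgS (T : Tiling Om ι) (s : Finset ι) : Set T.Cell :=
  {c | c.dim = 1 ∧ ∃ k ∈ s, c.set ⊆ P (T.H k)}

/-- the closed 2-cells of the tiles of `s` -/
def F2S (T : Tiling Om ι) (s : Finset ι) : Set T.Cell :=
  {c | c.dim = 2 ∧ ∃ k ∈ s, c.set ⊆ P (T.H k)}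

/-- the closed 2-cells of the tiles of `s` which are not squeezed -/
def FcS (T : Tiling Om ι) (s : Finset ι) (pr : T.Cell → Prop) : Set T.Cell :=
  {c | c ∈ F2S T s ∧ ¬ pr c}

variable {T : Tiling Om ι}

theorem finite_cells_of_tiles (T : Tiling Om ι) (s : Finset ι) :
    {c : T.Cell | ∃ k ∈ s, c.set ⊆ P (T.H k)}.Finite := by
  have hK : IsCompact (⋃ k ∈ s, P (T.H k)) := s.isCompact_biUnion fun k _ => T.cpt k
  have hKO : (⋃ k ∈ s, P (T.H k)) ⊆ Om := iUnion₂_subset fun k _ => T.sub k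
  have h1 := T.finite_cells hK hKO
  refine Set.Finite.of_finite_image (f := fun c : T.Cell => c.1) (h1.subset ?_)
    (fun c _ d _ h => Subtype.ext h)
  rintro _ ⟨c, ⟨k, hk, hc⟩, rfl⟩
  refine ⟨c.2, c.pt, ?_, ?_⟩
  · have := T.self_mem_cc c.pt
    rwa [← c.set_eq] at this
  · have h2 := T.self_mem_cc c.pt
    rw [← c.set_eq] at h2
    exact mem_iUnion₂.2 ⟨k, hk, hc h2⟩

theorem finite_EgS (T : Tiling Om ι) (s : Finset ι) : (EgS T s).Finite :=
  (finite_cells_of_tiles T s).subset fun _ h => h.2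

theorem finite_F2S (T : Tiling Om ι) (s : Finset ι) : (F2S T s).Finite :=
  (finite_cells_of_tiles T s).subset fun _ h => h.2

theorem finite_FcS (T : Tiling Om ι) (s : Finset ι) (pr : T.Cell → Prop) : (FcS T s pr).Finite :=
  (finite_F2S T s).subset fun _ h => h.1

instance (s : Finset ι) : Fintype (EgS T s) := (finite_EgS T s).fintype
instance (s : Finset ι) (pr : T.Cell → Prop) : Fintype (FcS T s pr) := (finite_FcS T s pr).fintype

open Classical in
/-- representatives of the squeezed 2-cells -/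
def reps (T : Tiling Om ι) (s : Finset ι) (pr : T.Cell → Prop) : Finset E3 :=
  ((finite_F2S T s).toFinset.filter pr).image fun c => c.pt

theorem mem_reps {s : Finset ι} {pr : T.Cell → Prop} {x : E3} :
    x ∈ reps T s pr ↔ ∃ c ∈ F2S T s, pr c ∧ c.pt = x := by
  classical
  unfold reps
  simp only [Finset.mem_image, Finset.mem_filter, Set.Finite.mem_toFinset]
  constructor
  · rintro ⟨c, ⟨h1, h2⟩, h3⟩; exact ⟨c, h1, h2, h3⟩
  · rintro ⟨c, h1, h2, h3⟩; exact ⟨c, ⟨h1, h2⟩, h3⟩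

theorem pt_mem_set (c : T.Cell) : c.pt ∈ c.set := by
  rw [c.set_eq]; exact T.self_mem_cc _

theorem reps_dim {s : Finset ι} {pr : T.Cell → Prop} {x : E3} (hx : x ∈ reps T s pr) :
    x ∈ Om ∧ T.dim x = 2 := by
  obtain ⟨c, h1, -, rfl⟩ := mem_reps.1 hx
  exact ⟨c.pt_mem, h1.1⟩

theorem reps_tile {s : Finset ι} {pr : T.Cell → Prop} {x : E3} (hx : x ∈ reps T s pr) :
    ∃ k ∈ s, T.cc x ⊆ P (T.H k) := by
  obtain ⟨c, h1, -, rfl⟩ := mem_reps.1 hx
  obtain ⟨k, hk, hc⟩ := h1.2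
  exact ⟨k, hk, c.set_eq ▸ hc⟩

theorem reps_ne {s : Finset ι} {pr : T.Cell → Prop} {x y : E3} (hx : x ∈ reps T s pr)
    (hy : y ∈ reps T s pr) (hxy : x ≠ y) : T.cc x ≠ T.cc y := by
  obtain ⟨c, -, -, rfl⟩ := mem_reps.1 hx
  obtain ⟨d, -, -, rfl⟩ := mem_reps.1 hy
  intro h
  apply hxy
  have : c = d := Tiling.Cell.ext (by rw [c.set_eq, d.set_eq, h])
  rw [this]

/-- the set `Z` of the system -/
def Zs (T : Tiling Om ι) (s : Finset ι) (pr : T.Cell → Prop) : Set E3 :=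
  (⋃ c ∈ EgS T s, c.set) ∪ ⋃ c ∈ FcS T s pr, c.set

theorem isClosed_set (c : T.Cell) : IsClosed c.set := by
  rw [c.set_eq]; exact T.isClosed_cc _

theorem isClosed_Zs (T : Tiling Om ι) (s : Finset ι) (pr : T.Cell → Prop) :
    IsClosed (Zs T s pr) :=
  ((finite_EgS T s).isClosed_biUnion fun c _ => isClosed_set c).union
    ((finite_FcS T s pr).isClosed_biUnion fun c _ => isClosed_set c)

theorem dim_E3_le (x : E3) : T.dim x ≤ 3 := by
  have := T.dim_le_finrank x
  simpa using this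

theorem dim_lt_three {k : ι} {y : E3} (hy : y ∈ P (T.H k)) (hyI : y ∉ I (T.H k)) :
    T.dim y ≤ 2 := by
  by_contra hcon
  have h3 : T.dim y = 3 := le_antisymm (dim_E3_le y) (by omega)
  have hO : y ∈ Om := T.sub k hy
  have htop : T.V y = ⊤ := by
    apply Submodule.eq_top_of_finrank_eq
    have : Module.finrank ℝ E3 = 3 := by simp
    rw [this]
    exact h3
  obtain ⟨i, hi⟩ := (T.V_eq_top_iff hO).1 htop
  have h1 := T.at_eq_singleton hi
  have h2 : k ∈ T.at_ y := hy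
  rw [h1, mem_singleton_iff] at h2
  subst h2
  exact hyI hi

/-- a point on the boundary of a cell of dimension two or three and of dimension at most one lies on
an edge of this cell -/
theorem exists_edge_in {y z : E3} (hy : y ∈ Om) (hd : 1 ≤ T.dim y) (hz : z ∈ T.cc y)
    (hz1 : T.dim z ≤ 1) : ∃ e ∈ T.cc y, T.dim e = 1 ∧ z ∈ T.cc e := by
  rcases Nat.eq_zero_or_pos (T.dim z) with h0 | h0
  · exact Mf_113.exists_edge_of_vertex h0 hy hz hd
  · exact ⟨z, hz, by omega, T.self_mem_cc z⟩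

/-- hypothesis `hZ` of 55's `exists_sys` -/
theorem hZ_Zs {s : Finset ι} {pr : T.Cell → Prop} {k : ι} (hk : k ∈ s) {y : E3}
    (hy : y ∈ P (T.H k) \ I (T.H k)) : y ∈ Zs T s pr ∨ ∃ x ∈ reps T s pr, y ∈ T.oc x := by
  have hO : y ∈ Om := T.sub k hy.1
  have h2 := dim_lt_three hy.1 hy.2
  rcases Nat.lt_or_ge (T.dim y) 2 with h1 | h1
  · left
    obtain ⟨y0, hy0⟩ := T.ne k
    have hcc : T.cc y0 = P (T.H k) := T.cc_eq_tile hy0
    have hO0 : y0 ∈ Om := T.sub k (I_sub_P _ hy0)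
    have hd0 : 1 ≤ T.dim y0 := by
      have hV : T.V y0 = ⊤ := (T.V_eq_top_iff hO0).2 ⟨k, hy0⟩
      have : T.dim y0 = Module.finrank ℝ E3 := by
        show Module.finrank ℝ (T.V y0) = _
        rw [hV, finrank_top]
      rw [this]
      simp
    obtain ⟨e, he, he1, hye⟩ := exists_edge_in hO0 hd0 (hcc ▸ hy.1) (by omega)
    have heO : e ∈ Om := T.cc_sub_Om hO0 he
    left
    refine mem_iUnion₂.2 ⟨T.cl heO, ⟨by rw [T.dim_cl heO, he1], k, hk, ?_⟩, by rwa [T.cl_set heO]⟩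
    rw [T.cl_set heO, ← hcc]
    exact T.cc_sub_of_mem he
  · have hd : T.dim y = 2 := by omega
    have hsub : (T.cl hO).set ⊆ P (T.H k) := by
      rw [T.cl_set hO]
      exact T.cc_sub_tile hy.1
    have hF : T.cl hO ∈ F2S T s := ⟨by rw [T.dim_cl hO, hd], k, hk, hsub⟩
    by_cases hpr : pr (T.cl hO)
    · right
      refine ⟨(T.cl hO).pt, mem_reps.2 ⟨_, hF, hpr, rfl⟩, ?_⟩
      have h3 := T.pt_cl hO
      rw [T.oc_eq_of_mem hO h3]
      exact T.self_mem_oc y
    · left; right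
      exact mem_iUnion₂.2 ⟨T.cl hO, ⟨hF, hpr⟩, by rw [T.cl_set hO]; exact T.self_mem_cc y⟩

open Classical in
/-- the edges of a squeezed 2-cell -/
def rimS (T : Tiling Om ι) (s : Finset ι) (x : E3) : Finset (EgS T s) :=
  Finset.univ.filter fun c => c.1.set ⊆ T.cc x

theorem mem_rimS {s : Finset ι} {x : E3} {c : EgS T s} : c ∈ rimS T s x ↔ c.1.set ⊆ T.cc x := by
  classical
  unfold rimS
  simp

/-- the boundary of a 2-cell of a tile of `s` is covered by its edges -/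
theorem bdry_sub {s : Finset ι} {x : E3} (hx : x ∈ Om) (hd : T.dim x = 2)
    (hk : ∃ k ∈ s, T.cc x ⊆ P (T.H k)) : T.cc x \ T.oc x ⊆ ⋃ c ∈ rimS T s x, (c : T.Cell).set := by
  rintro y ⟨hy, hyo⟩
  obtain ⟨k, hks, hk⟩ := hk
  have h1 := T.dim_lt hy hyo
  obtain ⟨e, he, he1, hye⟩ := exists_edge_in hx (by omega) hy (by omega)
  have heO : e ∈ Om := T.cc_sub_Om hx he
  have hsub : (T.cl heO).set ⊆ T.cc x := by
    rw [T.cl_set heO]; exact T.cc_sub_of_mem he
  refine mem_iUnion₂.2 ⟨⟨T.cl heO, ⟨by rw [T.dim_cl heO, he1], k, hks, hsub.trans hk⟩⟩, ?_, ?_⟩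
  · exact mem_rimS.2 hsub
  · show y ∈ (T.cl heO).set
    rwa [T.cl_set heO]

end

end Crest.Agent.R096.Efi_296
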