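/-
helper296, row 96, leaf SLABS (622 #10638 (5)): thick averages over the neighbourhoods of compact
subsets of planes: for almost every translate, all compact subsets at once.
-/
import Mathlib
import Crest.Agent.R96.Intr29_538
import Crest.Agent.R096.Fce1_793

set_option autoImplicit false
set_option linter.unusedSectionVars false
set_option linter.style.longLine false

open MeasureTheory Set Filter Metric Module
open scoped ENNReal NNReal Topology

namespace Crest.Agent.R096.Slb_296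

open Crest.AnalysisR.VecCalc3
open Crest.Agent.R96.Coarse_538 (tonelli_nu thick_leb)
open Crest.Agent.R096.Fce_793 (pt cc norm_pt_sub continuous_pt pt_eq)

noncomputable section

/-- index set of the finite unions of rational squares -/
abbrev Ci : Type := Finset ((ℚ × ℚ) × ℚ)

/-- finite unions of rational closed squares -/
def Cs (s : Ci) : Set (ℝ × ℝ) := ⋃ q ∈ s, closedBall ((q.1.1 : ℝ), (q.1.2 : ℝ)) (q.2 : ℝ)

theorem isCompact_Cs (s : Ci) : IsCompact (Cs s) :=
  s.isCompact_biUnion fun _ _ => isCompact_closedBall _ _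

theorem Cs_union (s t : Ci) : Cs (s ∪ t) = Cs s ∪ Cs t := by
  classical
  ext w
  simp only [Cs, mem_union, mem_iUnion, Finset.mem_union, exists_prop]
  constructor
  · rintro ⟨q, h1 | h1, h2⟩
    · exact .inl ⟨q, h1, h2⟩
    · exact .inr ⟨q, h1, h2⟩
  · rintro (⟨q, h1, h2⟩ | ⟨q, h1, h2⟩)
    · exact ⟨q, .inl h1, h2⟩
    · exact ⟨q, .inr h1, h2⟩

theorem exists_rat_ball {U : Set (ℝ × ℝ)} (hU : IsOpen U) {w : ℝ × ℝ} (hw : w ∈ U) :
    ∃ q : (ℚ × ℚ) × ℚ, w ∈ ball ((q.1.1 : ℝ), (q.1.2 : ℝ)) (q.2 : ℝ) ∧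
      closedBall ((q.1.1 : ℝ), (q.1.2 : ℝ)) (q.2 : ℝ) ⊆ U := by
  obtain ⟨ε, hε, hb⟩ := Metric.isOpen_iff.1 hU w hw
  obtain ⟨q1, h1, h1'⟩ := exists_rat_btwn (show w.1 < w.1 + ε / 4 by linarith)
  obtain ⟨q2, h2, h2'⟩ := exists_rat_btwn (show w.2 < w.2 + ε / 4 by linarith)
  obtain ⟨r, h3, h3'⟩ := exists_rat_btwn (show ε / 4 < ε / 2 by linarith)
  have hd : dist w ((q1 : ℝ), (q2 : ℝ)) < ε / 4 := by
    rw [Prod.dist_eq, max_lt_iff]
    constructor
    · simp only; rw [dist_comm, Real.dist_eq, abs_lt]; constructor <;> linarith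
    · simp only; rw [dist_comm, Real.dist_eq, abs_lt]; constructor <;> linarith
  refine ⟨((q1, q2), r), ?_, ?_⟩
  · exact mem_ball.2 (hd.trans h3)
  · intro z hz
    apply hb
    rw [mem_closedBall] at hz
    rw [mem_ball]
    simp only at hz
    calc dist z w ≤ dist z ((q1 : ℝ), (q2 : ℝ)) + dist ((q1 : ℝ), (q2 : ℝ)) w := dist_triangle _ _ _
      _ < r + ε / 4 := by rw [dist_comm _ w]; linarith
      _ < ε := by linarith

theorem exists_Cs {K U : Set (ℝ × ℝ)} (hK : IsCompact K) (hU : IsOpen U) (hKU : K ⊆ U) :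
    ∃ s : Ci, K ⊆ interior (Cs s) ∧ Cs s ⊆ U := by
  classical
  choose! q hq1 hq2 using fun w (hw : w ∈ U) => exists_rat_ball hU hw
  obtain ⟨t, ht, hc⟩ := hK.elim_nhds_subcover
    (fun w => ball (((q w).1.1 : ℝ), ((q w).1.2 : ℝ)) ((q w).2 : ℝ))
    (fun w hw => isOpen_ball.mem_nhds (hq1 w (hKU hw)))
  refine ⟨t.image q, ?_, ?_⟩
  · refine hc.trans (interior_maximal ?_ (isOpen_biUnion fun w _ => isOpen_ball))
    apply iUnion₂_subset
    intro w hw z hz
    simp only [Cs, mem_iUnion, exists_prop]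
    exact ⟨q w, Finset.mem_image_of_mem q hw, ball_subset_closedBall hz⟩
  · intro z hz
    simp only [Cs, mem_iUnion, exists_prop, Finset.mem_image] at hz
    obtain ⟨_, ⟨w, hw, rfl⟩, hz⟩ := hz
    exact hq2 w (hKU (ht w hw)) hz

/-- lower regularity of the plane measure -/
theorem reg_low {e : Fin 2 → R3} (x : R3) (hc : 0 < cc e) {K K' : Set (ℝ × ℝ)} {r : ℝ}
    (h : ∀ w ∈ K, closedBall w r ⊆ K') (hK' : MeasurableSet K') {δ : ℝ} (hδ : 0 < δ) (hδr : δ ≤ r * cc e)
    {w : ℝ × ℝ} (hw : w ∈ K) :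
    ENNReal.ofReal (4 * δ ^ 2 / cc e ^ 2) ≤
      ((volume.restrict K').map (pt e x)) (closedBall (pt e x w) δ) := by
  rw [Measure.map_apply (continuous_pt e x).measurable measurableSet_closedBall,
    Measure.restrict_apply' hK']
  have h1 : closedBall w (δ / cc e) ⊆ pt e x ⁻¹' closedBall (pt e x w) δ ∩ K' := by
    intro z hz
    refine ⟨?_, h w hw (closedBall_subset_closedBall (by rwa [div_le_iff₀ hc]) hz)⟩
    rw [mem_preimage, mem_closedBall, dist_eq_norm]
    refine (norm_pt_sub e x z w).trans ?_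
    rw [mem_closedBall, Prod.dist_eq, max_le_iff, Real.dist_eq, Real.dist_eq, le_div_iff₀ hc,
      le_div_iff₀ hc] at hz
    have h0 : 0 ≤ δ / cc e := by positivity
    have a1 : |z.1 - w.1| ≤ δ / cc e := (le_div_iff₀ hc).2 hz.1
    have a2 : |z.2 - w.2| ≤ δ / cc e := (le_div_iff₀ hc).2 hz.2
    calc |z.1 - w.1| * ‖e 0‖ + |z.2 - w.2| * ‖e 1‖ ≤ δ / cc e * ‖e 0‖ + δ / cc e * ‖e 1‖ := by
          gcongr
      _ = δ := by
          rw [← mul_add]
          exact div_mul_cancel₀ δ hc.ne'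
  refine le_trans ?_ (measure_mono h1)
  rw [← closedBall_prod_same, Measure.volume_eq_prod, Measure.prod_prod, Real.volume_closedBall,
    Real.volume_closedBall, ← ENNReal.ofReal_mul (by positivity)]
  apply ENNReal.ofReal_le_ofReal
  apply le_of_eq
  field_simp
  ring

open Crest.Agent.R96.Acl_392 Crest.Agent.R96.Lu_538 Crest.Agent.R96.Intr_538
  Crest.Agent.R96.Poi_392 Crest.Agent.R96.Coarse_538 in
theorem volume_closedBall_le {δ : ℝ} (hδ : 0 < δ) :
    volume (closedBall (0:R3) (2 * δ)) ≤ ENNReal.ofReal (64 * δ ^ 3) := by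
  calc volume (closedBall (0:R3) (2 * δ)) ≤ volume (cel Cb 0 (2 * δ)) := by
        apply measure_mono
        intro y hy
        rw [mem_closedBall, dist_zero_right] at hy
        rw [mem_cel (by linarith)]
        intro i
        rw [PiLp.zero_apply, sub_zero]
        exact (norm_coord_le y i).trans hy
    _ = ENNReal.ofReal (64 * δ ^ 3) := by
        rw [vol_cel (by linarith)]
        congr 1
        ring

theorem lint_plane (e : Fin 2 → R3) (x : R3) {F : R3 → ℝ≥0∞} (hF : Measurable F) (a : R3)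
    (K : Set (ℝ × ℝ)) :
    ∫⁻ y, F (a + y) ∂((volume.restrict K).map (pt e x)) = ∫⁻ w in K, F (a + pt e x w) := by
  rw [lintegral_map (f := fun y => F (a + y)) (hF.comp (measurable_const_add a))
    (continuous_pt e x).measurable]

/-- one plane, one Borel function: all compact subsets at once -/
theorem slab_meas {e : Fin 2 → R3} (x : R3) (hc : 0 < cc e) {F : R3 → ℝ≥0∞} (hF : Measurable F)
    (hi : ∫⁻ y, F y ≠ ∞) :
    ∀ᵐ a, ∀ K : Set (ℝ × ℝ), IsCompact K → ∀ ε : ℝ≥0∞, 0 < ε → ∀ᶠ δ in 𝓝[>] (0:ℝ),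
      ∫⁻ y in thickening δ (pt e x '' K), F (a + y) ≤
        ENNReal.ofReal (16 * cc e ^ 2 * δ) * ((∫⁻ w in K, F (a + pt e x w)) + ε) := by
  set ν : Ci → Measure R3 := fun s => (volume.restrict (Cs s)).map (pt e x) with hν
  have hνs : ∀ s, ν s univ < ∞ := by
    intro s
    rw [hν]
    simp only
    rw [Measure.map_apply (continuous_pt e x).measurable MeasurableSet.univ, preimage_univ,
      Measure.restrict_apply_univ]
    exact (isCompact_Cs s).measure_lt_top
  have : ∀ s, IsFiniteMeasure (ν s) := fun s => ⟨hνs s⟩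
  have hfin : ∀ s, ∫⁻ a in (univ : Set R3), ∫⁻ y, F (a + y) ∂(ν s) ≠ ∞ := by
    intro s
    rw [tonelli_nu MeasurableSet.univ hF.aemeasurable]
    have h1 : ∀ z : R3, F z * ν s {y | z - y ∈ (univ : Set R3)} = F z * ν s univ := by
      intro z
      have : {y : R3 | z - y ∈ (univ : Set R3)} = univ := by ext; simp
      rw [this]
    simp only [h1]
    rw [lintegral_mul_const _ hF]
    exact ENNReal.mul_ne_top hi (hνs s).ne
  have h1 : ∀ᵐ a, ∀ s, ∫⁻ y, F (a + y) ∂(ν s) < ∞ := by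
    rw [ae_all_iff]
    intro s
    refine ae_lt_top' ?_ (by simpa using hfin s)
    exact Crest.Agent.R96.Grid_392.aemeasurable_pc (ν := ν s) (γ := fun y : R3 => y) measurable_id
      hF.aemeasurable
  have h2 : ∀ᵐ a : R3, ∀ s : Ci, a ∈ (univ : Set R3) → ∀ ε : ℝ≥0∞, 0 < ε → ∀ᶠ δ in 𝓝[>] (0:ℝ),
      ∀ (K : Set R3) (m : ℝ≥0∞), (∀ k ∈ K, m ≤ ν s (closedBall k δ)) →
      m * ∫⁻ y in thickening δ K, F (a + y) ≤
        ((∫⁻ y, F (a + y) ∂(ν s)) + ε) * volume (closedBall (0:R3) (2 * δ)) := by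
    rw [ae_all_iff]
    intro s
    exact thick_leb (ν := ν s) hF.aemeasurable isOpen_univ (hfin s)
  filter_upwards [h1, h2] with a ha1 ha2 K hK ε hε
  have hm : Measurable fun w => F (a + pt e x w) :=
    hF.comp ((measurable_const_add a).comp (continuous_pt e x).measurable)
  set μa : Measure (ℝ × ℝ) := volume.withDensity fun w => F (a + pt e x w) with hμa
  have hμs : ∀ S : Set (ℝ × ℝ), MeasurableSet S → μa S = ∫⁻ w in S, F (a + pt e x w) := by
    intro S hS
    rw [hμa, withDensity_apply _ hS]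
  have hμc : ∀ s, μa (Cs s) = ∫⁻ y, F (a + y) ∂(ν s) := by
    intro s
    rw [hμs _ (isCompact_Cs s).measurableSet, hν]
    simp only
    rw [lint_plane e x hF a (Cs s)]
  have : IsLocallyFiniteMeasure μa := by
    refine ⟨fun w => ?_⟩
    obtain ⟨s, hs, -⟩ := exists_Cs (isCompact_singleton (x := w)) isOpen_univ (subset_univ _)
    refine ⟨Cs s, mem_interior_iff_mem_nhds.1 (hs rfl), ?_⟩
    rw [hμc]
    exact ha1 s
  have hε2 : ε / 2 ≠ 0 := by simpa using hε.ne'
  obtain ⟨U, hKU, hUo, hU⟩ := hK.exists_isOpen_lt_add (μ := μa) hε2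
  obtain ⟨s, hs1, hs2⟩ := exists_Cs hK hUo hKU
  obtain ⟨r, hr, hrK⟩ := hK.exists_cthickening_subset_open isOpen_interior hs1
  have hball : ∀ w ∈ K, closedBall w r ⊆ Cs s := fun w hw =>
    (closedBall_subset_cthickening hw r).trans (hrK.trans interior_subset)
  have hsm : (∫⁻ y, F (a + y) ∂(ν s)) + ε / 2 ≤ (∫⁻ w in K, F (a + pt e x w)) + ε := by
    have h3 : μa (Cs s) ≤ μa K + ε / 2 := (measure_mono hs2).trans hU.le
    rw [hμc, hμs K hK.measurableSet] at h3
    calc (∫⁻ y, F (a + y) ∂(ν s)) + ε / 2 ≤ (∫⁻ w in K, F (a + pt e x w)) + ε / 2 + ε / 2 := by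
          gcongr
      _ = _ := by rw [add_assoc, ENNReal.add_halves]
  have h4 : ∀ᶠ δ : ℝ in 𝓝[>] 0, δ ≤ r * cc e := by
    have : ∀ᶠ δ : ℝ in 𝓝 0, δ < r * cc e := eventually_lt_nhds (by positivity)
    exact (this.filter_mono nhdsWithin_le_nhds).mono fun _ h => h.le
  filter_upwards [ha2 s (mem_univ a) (ε / 2) (pos_iff_ne_zero.2 hε2), h4, self_mem_nhdsWithin]
    with δ hδ hδr hδ0
  have hδ0' : (0:ℝ) < δ := hδ0
  have h5 := hδ (pt e x '' K) (ENNReal.ofReal (4 * δ ^ 2 / cc e ^ 2)) (by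
    rintro _ ⟨w, hw, rfl⟩
    exact reg_low x hc hball (isCompact_Cs s).measurableSet hδ0' hδr hw)
  set I := ∫⁻ y in thickening δ (pt e x '' K), F (a + y) with hI
  set X := (∫⁻ w in K, F (a + pt e x w)) + ε with hX
  have h6 : ENNReal.ofReal (4 * δ ^ 2 / cc e ^ 2) * I ≤ X * ENNReal.ofReal (64 * δ ^ 3) :=
    h5.trans (mul_le_mul' hsm (volume_closedBall_le hδ0'))
  have hq : ENNReal.ofReal (cc e ^ 2 / (4 * δ ^ 2)) * ENNReal.ofReal (4 * δ ^ 2 / cc e ^ 2) = 1 := by
    rw [← ENNReal.ofReal_mul (by positivity)]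
    have : cc e ^ 2 / (4 * δ ^ 2) * (4 * δ ^ 2 / cc e ^ 2) = 1 := by field_simp
    rw [this, ENNReal.ofReal_one]
  calc I = ENNReal.ofReal (cc e ^ 2 / (4 * δ ^ 2)) * (ENNReal.ofReal (4 * δ ^ 2 / cc e ^ 2) * I) := by
        rw [← mul_assoc, hq, one_mul]
    _ ≤ ENNReal.ofReal (cc e ^ 2 / (4 * δ ^ 2)) * (X * ENNReal.ofReal (64 * δ ^ 3)) := by gcongr
    _ = ENNReal.ofReal (cc e ^ 2 / (4 * δ ^ 2)) * ENNReal.ofReal (64 * δ ^ 3) * X := by ring
    _ = ENNReal.ofReal (16 * cc e ^ 2 * δ) * X := by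
        rw [← ENNReal.ofReal_mul (by positivity)]
        congr 2
        field_simp
        ring

/-- planes do not see null sets -/
theorem ae_plane (e : Fin 2 → R3) (x : R3) {Z : Set R3} (hZ : volume Z = 0) :
    ∀ᵐ a : R3, ∀ᵐ w : ℝ × ℝ, a + pt e x w ∉ Z := by
  set Z' := toMeasurable volume Z with hZ'
  have hZ0 : volume Z' = 0 := by rw [hZ', measure_toMeasurable]; exact hZ
  have hZm : MeasurableSet Z' := measurableSet_toMeasurable _ _
  have hind : Measurable (Z'.indicator (1 : R3 → ℝ≥0∞)) := measurable_one.indicator hZm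
  have h1 : ∫⁻ a in (univ : Set R3), ∫⁻ y, Z'.indicator (1 : R3 → ℝ≥0∞) (a + y)
      ∂((volume : Measure (ℝ × ℝ)).map (pt e x)) = 0 := by
    rw [tonelli_nu MeasurableSet.univ hind.aemeasurable]
    rw [lintegral_eq_zero_iff']
    · have h2 : ∀ᵐ z : R3, z ∉ Z' := by rw [← measure_eq_zero_iff_ae_notMem]; exact hZ0
      filter_upwards [h2] with z hz
      rw [indicator_of_notMem hz, zero_mul]
      rfl
    · have h3 : ∀ z : R3, Z'.indicator (1 : R3 → ℝ≥0∞) z *
          ((volume : Measure (ℝ × ℝ)).map (pt e x)) {y | z - y ∈ (univ : Set R3)} =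
          Z'.indicator (1 : R3 → ℝ≥0∞) z * ((volume : Measure (ℝ × ℝ)).map (pt e x)) univ := by
        intro z
        have : {y : R3 | z - y ∈ (univ : Set R3)} = univ := by ext; simp
        rw [this]
      simp only [h3]
      exact (hind.mul_const _).aemeasurable
  rw [setLIntegral_univ, lintegral_eq_zero_iff'] at h1
  · filter_upwards [h1] with a ha
    have h3 : ∫⁻ y, Z'.indicator (1 : R3 → ℝ≥0∞) (a + y)
      ∂((volume : Measure (ℝ × ℝ)).map (pt e x)) = 0 := ha
    rw [lintegral_map (f := fun y => Z'.indicator (1 : R3 → ℝ≥0∞) (a + y))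
      (hind.comp (measurable_const_add a)) (continuous_pt e x).measurable,
      lintegral_eq_zero_iff (f := fun w => Z'.indicator (1 : R3 → ℝ≥0∞) (a + pt e x w))
        (hind.comp ((measurable_const_add a).comp (continuous_pt e x).measurable))] at h3
    filter_upwards [h3] with w hw hmem
    have h4 : a + pt e x w ∈ Z' := subset_toMeasurable _ _ hmem
    rw [Pi.zero_apply] at hw
    simp only [indicator_of_mem h4, Pi.one_apply] at hw
    exact one_ne_zero hw
  · exact Crest.Agent.R96.Grid_392.aemeasurable_pc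
      (ν := (volume : Measure (ℝ × ℝ)).map (pt e x)) (γ := fun y : R3 => y) measurable_id
      hind.aemeasurable

theorem mem_thick_iff (e : Fin 2 → R3) (x a : R3) (K : Set (ℝ × ℝ)) (δ : ℝ) (y : R3) :
    a + y ∈ thickening δ (pt e (a + x) '' K) ↔ y ∈ thickening δ (pt e x '' K) := by
  have h0 : ∀ w, a + y - pt e (a + x) w = y - pt e x w := by
    intro w; simp only [pt]; abel
  rw [mem_thickening_iff, mem_thickening_iff]
  constructor
  · rintro ⟨_, ⟨w, hw, rfl⟩, hd⟩
    refine ⟨_, ⟨w, hw, rfl⟩, ?_⟩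
    rwa [dist_eq_norm, h0, ← dist_eq_norm] at hd
  · rintro ⟨_, ⟨w, hw, rfl⟩, hd⟩
    refine ⟨_, ⟨w, hw, rfl⟩, ?_⟩
    rwa [dist_eq_norm, h0, ← dist_eq_norm]

/-- **SLABS.** countably many planes, countably many integrable functions: for almost every translate
`a` and **all** compact subsets `K` of the planes the integral over the `δ`-neighbourhood of `K` is at
most `16 (‖e 0‖ + ‖e 1‖)² δ (∫_K F + ε)` for every small `δ`. -/
theorem slabs {ι J : Type*} [Countable ι] [Countable J] {e : ι → Fin 2 → R3}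
    (hc : ∀ i, 0 < cc (e i)) (x : ι → R3) {F : J → R3 → ℝ≥0∞} (hF : ∀ j, AEMeasurable (F j) volume)
    (hi : ∀ j, ∫⁻ y, F j y ≠ ∞) :
    ∀ᵐ a, ∀ i j, ∀ K : Set (ℝ × ℝ), IsCompact K → ∀ ε : ℝ≥0∞, 0 < ε → ∀ᶠ δ in 𝓝[>] (0:ℝ),
      ∫⁻ y in thickening δ (pt (e i) (a + x i) '' K), F j y ≤
        ENNReal.ofReal (16 * cc (e i) ^ 2 * δ) *
          ((∫⁻ w in K, F j (pt (e i) (a + x i) w)) + ε) := by
  rw [ae_all_iff]; intro i
  rw [ae_all_iff]; intro j
  obtain ⟨F', hF'm, hFF'⟩ := hF j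
  have hF'i : ∫⁻ y, F' y ≠ ∞ := by rw [← lintegral_congr_ae hFF']; exact hi j
  have hZ : volume {y | F j y ≠ F' y} = 0 := hFF'
  filter_upwards [slab_meas (x i) (hc i) hF'm hF'i, ae_plane (e i) (x i) hZ] with a ha haZ K hK ε hε
  have e1 : ∀ w, pt (e i) (a + x i) w = a + pt (e i) (x i) w := by
    intro w; simp only [pt]; abel
  have e2 : ∫⁻ w in K, F j (pt (e i) (a + x i) w) = ∫⁻ w in K, F' (a + pt (e i) (x i) w) := by
    apply lintegral_congr_ae
    filter_upwards [ae_restrict_of_ae haZ] with w hw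
    rw [e1]
    by_contra hne
    exact hw hne
  filter_upwards [ha K hK ε hε] with δ hδ
  rw [e2]
  refine le_of_eq_of_le ?_ hδ
  rw [lintegral_congr_ae (ae_restrict_of_ae hFF'), ← lintegral_indicator
    isOpen_thickening.measurableSet, ← lintegral_indicator isOpen_thickening.measurableSet,
    ← lintegral_add_left_eq_self _ a]
  apply lintegral_congr
  intro y
  have h4 := mem_thick_iff (e i) (x i) a K δ y
  by_cases h5 : y ∈ thickening δ (pt (e i) (x i) '' K)
  · rw [indicator_of_mem h5, indicator_of_mem (h4.2 h5)]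
  · rw [indicator_of_notMem h5, indicator_of_notMem fun h => h5 (h4.1 h)]

/-- the same with functions which are integrable on a measurable set `Om` only -/
theorem slabs_on {ι J : Type*} [Countable ι] [Countable J] {e : ι → Fin 2 → R3}
    (hc : ∀ i, 0 < cc (e i)) (x : ι → R3) {Om : Set R3} (hO : MeasurableSet Om)
    {F : J → R3 → ℝ≥0∞} (hF : ∀ j, AEMeasurable (F j) (volume.restrict Om))
    (hi : ∀ j, ∫⁻ y in Om, F j y ≠ ∞) :
    ∀ᵐ a, ∀ i j, ∀ K : Set (ℝ × ℝ), IsCompact K → ∀ ε : ℝ≥0∞, 0 < ε → ∀ᶠ δ in 𝓝[>] (0:ℝ),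
      ∫⁻ y in Om ∩ thickening δ (pt (e i) (a + x i) '' K), F j y ≤
        ENNReal.ofReal (16 * cc (e i) ^ 2 * δ) *
          ((∫⁻ w in K, Om.indicator (F j) (pt (e i) (a + x i) w)) + ε) := by
  have h := slabs (J := J) hc x (F := fun j => Om.indicator (F j))
    (fun j => (aemeasurable_indicator_iff hO).2 (hF j))
    (fun j => by rw [lintegral_indicator hO]; exact hi j)
  filter_upwards [h] with a ha i j K hK ε hε
  filter_upwards [ha i j K hK ε hε] with δ hδ
  rwa [lintegral_indicator hO, Measure.restrict_restrict hO] at hδ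

/-- 538's `tubes` with functions which are integrable on a measurable set `Om` only -/
theorem tubes_on {κi J : Type*} [Countable κi] [Countable J] {x v : κi → R3} (hv : ∀ e, v e ≠ 0)
    {Om : Set R3} (hO : MeasurableSet Om) {F : J → R3 → ℝ≥0∞}
    (hF : ∀ j, AEMeasurable (F j) (volume.restrict Om)) (hi : ∀ j, ∫⁻ y in Om, F j y ≠ ∞) :
    ∀ᵐ a, ∀ e j, ∀ ε : ℝ≥0∞, 0 < ε → ∀ᶠ δ in 𝓝[>] (0:ℝ),
      ∫⁻ y in Om ∩ thickening δ (Crest.Agent.R96.Coarse_538.seg x v a e), F j y ≤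
        ENNReal.ofReal (64 * ‖v e‖ * δ ^ 2) *
          ((∫⁻ σ in Ioc (0:ℝ) 1, Om.indicator (F j) (a + x e + σ • v e)) + ε) := by
  have h := Crest.Agent.R96.Coarse_538.tubes (J := J) (x := x) hv (F := fun j => Om.indicator (F j))
    (fun j => (aemeasurable_indicator_iff hO).2 (hF j))
    (fun j => by rw [lintegral_indicator hO]; exact hi j)
  filter_upwards [h] with a ha e j ε hε
  filter_upwards [ha e j ε hε] with δ hδ
  rwa [lintegral_indicator hO, Measure.restrict_restrict hO] at hδ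

end

end Crest.Agent.R096.Slb_296
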