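/-
helper296, row 96, COMPOSITE B (622): the instance `EF X Om g α β` of a tiling, part 2.
-/
import Crest.Agent.R096.Efi1_296
import Crest.Agent.R096.Slb1_296

set_option autoImplicit false
set_option linter.unusedSectionVars false
set_option linter.style.longLine false

open Set Metric Filter Topology MeasureTheory
open scoped ENNReal NNReal

namespace Crest.Agent.R096.Efi_296

open Crest.AnalysisR.VecCalc3
open Crest.Agent.R096.Msh_715 (P I Tiling I_sub_P isOpen_I isClosed_P)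
open Crest.Agent.R096.Sq_55 (E3 Sys Face FaceOf w2 IsDp)
open Crest.Agent.R096.Cob_622 (EF)
open Crest.Agent.R96.Coarse_538 (seg)
open Crest.Agent.R096.Fce_793 (pt cc)

noncomputable section

variable {Om : Set E3} {ι : Type*} {T : Tiling Om ι}

/-- change of the constant in a limit -/
theorem lim_scale {f : ℝ → ℝ≥0∞} {c : ℝ} (hc : 0 ≤ c) {e : ℝ≥0∞} {pw : ℝ → ℝ}
    (h : ∀ ε : ℝ≥0∞, 0 < ε → ∀ᶠ δ in 𝓝[>] (0:ℝ), f δ ≤ ENNReal.ofReal (c * pw δ) * (e + ε)) :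
    ∀ η : ℝ≥0∞, 0 < η → ∀ᶠ δ in 𝓝[>] (0:ℝ),
      f δ ≤ ENNReal.ofReal (pw δ) * (ENNReal.ofReal c * e + η) := by
  intro η hη
  have hc1 : ENNReal.ofReal (c + 1) ≠ 0 := by
    rw [Ne, ENNReal.ofReal_eq_zero, not_le]; linarith
  have hc2 : ENNReal.ofReal (c + 1) ≠ ∞ := ENNReal.ofReal_ne_top
  have hε : 0 < η / ENNReal.ofReal (c + 1) := ENNReal.div_pos hη.ne' hc2
  filter_upwards [h _ hε] with δ hδ
  refine hδ.trans ?_
  rw [ENNReal.ofReal_mul hc, mul_comm (ENNReal.ofReal c), mul_assoc]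
  gcongr
  rw [mul_add]
  gcongr
  calc ENNReal.ofReal c * (η / ENNReal.ofReal (c + 1))
      ≤ ENNReal.ofReal (c + 1) * (η / ENNReal.ofReal (c + 1)) := by
        gcongr
        linarith
    _ = η := ENNReal.mul_div_cancel hc1 hc2

/-- the instance, from given limits -/
def mkEF {s : Finset ι} {pr : T.Cell → Prop} (X : Sys s (reps T s pr))
    (hrim : ∀ x : reps T s pr, (X.F x).rim = T.cc (x : E3) \ T.oc (x : E3))
    (hZ : X.Z = Zs T s pr) (Om' : Set R3) (g : R3 → ℝ≥0∞) (Ee : EgS T s → ℝ≥0∞)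
    (Ef : FcS T s pr → ℝ≥0∞) (fE : ∀ a, Ee a ≠ ∞)
    (hE : ∀ a : EgS T s, ∀ η : ℝ≥0∞, 0 < η → ∀ᶠ δ in 𝓝[>] (0:ℝ),
      ∫⁻ y in Om' ∩ thickening δ (w2 '' a.1.set), g y ≤ ENNReal.ofReal (δ^2) * (Ee a + η))
    (hF : ∀ b : FcS T s pr, ∀ η : ℝ≥0∞, 0 < η → ∀ᶠ δ in 𝓝[>] (0:ℝ),
      ∫⁻ y in Om' ∩ thickening δ (w2 '' b.1.set), g y ≤ ENNReal.ofReal δ * (Ef b + η)) :
    EF X Om' g (EgS T s) (FcS T s pr) where
  eg a := w2 '' a.1.set
  fc b := w2 '' b.1.set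
  rimE x := rimS T s x
  clE a := w2.isClosed_image.2 (isClosed_set _)
  clF b := w2.isClosed_image.2 (isClosed_set _)
  clZ := hZ ▸ isClosed_Zs T s pr
  hrim := by
    intro x
    have h0 := reps_dim x.2
    rw [hrim x]
    rintro _ ⟨y, hy, rfl⟩
    have h1 := bdry_sub h0.1 h0.2 (reps_tile x.2) hy
    obtain ⟨c, hc, hyc⟩ := mem_iUnion₂.1 h1
    exact mem_iUnion₂.2 ⟨c, hc, y, hyc, rfl⟩
  hZ := by
    rw [hZ]
    rintro _ ⟨y, hy | hy, rfl⟩
    · obtain ⟨c, hc, hyc⟩ := mem_iUnion₂.1 hy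
      exact .inl (mem_iUnion.2 ⟨⟨c, hc⟩, y, hyc, rfl⟩)
    · obtain ⟨c, hc, hyc⟩ := mem_iUnion₂.1 hy
      exact .inr (mem_iUnion.2 ⟨⟨c, hc⟩, y, hyc, rfl⟩)
  Ee := Ee
  Ef := Ef
  fE := fE
  hE := hE
  hF := hF

/-- **EF-INST.** the instance for one position `a` of the countable families of segments and of compact
pieces of planes (`tubes_on`, `slabs_on`) -/
theorem exists_ef {s : Finset ι} {pr : T.Cell → Prop} (X : Sys s (reps T s pr))
    (hrim : ∀ x : reps T s pr, (X.F x).rim = T.cc (x : E3) \ T.oc (x : E3))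
    (hZ : X.Z = Zs T s pr) (Om' : Set R3) (g : R3 → ℝ≥0∞)
    {κe κf : Type*} (x v : κe → R3) (a : R3) (e : κf → Fin 2 → R3) (xx : κf → R3)
    (Q : κf → Set (ℝ × ℝ)) (IE : κe → ℝ≥0∞) (IF : κf → ℝ≥0∞)
    (me : EgS T s → κe) (hme : ∀ c, w2 '' c.1.set = seg x v a (me c)) (hfin : ∀ c, IE (me c) ≠ ∞)
    (mf : FcS T s pr → κf) (hmf : ∀ c, w2 '' c.1.set = pt (e (mf c)) (a + xx (mf c)) '' Q (mf c))
    (hTE : ∀ i : EgS T s, ∀ ε : ℝ≥0∞, 0 < ε → ∀ᶠ δ in 𝓝[>] (0:ℝ),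
      ∫⁻ y in Om' ∩ thickening δ (seg x v a (me i)), g y ≤
        ENNReal.ofReal (64 * ‖v (me i)‖ * δ ^ 2) * (IE (me i) + ε))
    (hTF : ∀ φ : FcS T s pr, ∀ ε : ℝ≥0∞, 0 < ε → ∀ᶠ δ in 𝓝[>] (0:ℝ),
      ∫⁻ y in Om' ∩ thickening δ (pt (e (mf φ)) (a + xx (mf φ)) '' Q (mf φ)), g y ≤
        ENNReal.ofReal (16 * cc (e (mf φ)) ^ 2 * δ) * (IF (mf φ) + ε)) :
    ∃ D : EF X Om' g (EgS T s) (FcS T s pr), (∀ c, D.eg c = w2 '' c.1.set) ∧
      (∀ c, D.fc c = w2 '' c.1.set) ∧ (∀ x, D.rimE x = rimS T s (x : E3)) ∧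
      (∀ c, D.Ee c = ENNReal.ofReal (64 * ‖v (me c)‖) * IE (me c)) ∧
      ∀ c, D.Ef c = ENNReal.ofReal (16 * cc (e (mf c)) ^ 2) * IF (mf c) := by
  refine ⟨mkEF X hrim hZ Om' g (fun c => ENNReal.ofReal (64 * ‖v (me c)‖) * IE (me c))
    (fun c => ENNReal.ofReal (16 * cc (e (mf c)) ^ 2) * IF (mf c))
    (fun c => ENNReal.mul_ne_top ENNReal.ofReal_ne_top (hfin c)) ?_ ?_, fun _ => rfl, fun _ => rfl,
    fun _ => rfl, fun _ => rfl, fun _ => rfl⟩
  · intro c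
    have h1 := lim_scale (f := fun δ => ∫⁻ y in Om' ∩ thickening δ (seg x v a (me c)), g y)
      (c := 64 * ‖v (me c)‖) (by positivity) (e := IE (me c)) (pw := fun δ => δ ^ 2) (hTE c)
    rw [hme c]
    exact h1
  · intro c
    have h1 := lim_scale
      (f := fun δ => ∫⁻ y in Om' ∩ thickening δ (pt (e (mf c)) (a + xx (mf c)) '' Q (mf c)), g y)
      (c := 16 * cc (e (mf c)) ^ 2) (by positivity) (e := IF (mf c)) (pw := fun δ => δ) (hTF c)
    rw [hmf c]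
    exact h1

/-- the double pyramid over a 2-cell meets only the two tiles of the 2-cell -/
theorem mem_at_of_V {c : ι → E3} {x : E3} {F : Face} (h : FaceOf T c x F)
    (hc : ∀ i, c i ∈ I (T.H i)) (hx : x ∈ Om) {k : ι} {y : E3} (hy : y ∈ F.V)
    (hk : y ∈ P (T.H k)) : k ∈ T.at_ x := by
  obtain ⟨i, j, D, h, hK, hV, he, -⟩ := h
  rw [hV] at hy
  by_cases ht : D.t y = 0
  · have h1 := h.cell_zero hy ht
    rw [← T.at_eq_of_mem_oc hx h1]
    exact hk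
  · obtain ⟨l, z, s, hz, hzl, -, -, -, -, hyl⟩ := h.ray_repr hx hc hy ht
    have h1 := T.at_eq_singleton hyl
    have h2 : k ∈ T.at_ y := hk
    rw [h1, mem_singleton_iff] at h2
    subst h2
    rw [← T.at_eq_of_mem_oc hx hz]
    exact hzl

open Classical in
/-- **the functional `J k`** in terms of the edges of the tile `k` and of the unsqueezed faces which
meet it: `r` bounds the sizes of the squeezed faces of the tile, `n` their number -/
theorem J_le {s : Finset ι} {pr : T.Cell → Prop} {X : Sys s (reps T s pr)} {Om' : Set R3}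
    {g : R3 → ℝ≥0∞} (D : EF X Om' g (EgS T s) (FcS T s pr)) {c : ι → E3}
    (hc : ∀ i, c i ∈ I (T.H i)) (hXF : ∀ x : reps T s pr, FaceOf T c (x : E3) (X.F x))
    (hXP : ∀ k : s, (X.C k).P = P (T.H k)) (hfc : ∀ b, D.fc b = w2 '' b.1.set)
    (hrE : ∀ x, D.rimE x = rimS T s (x : E3)) (k : s) {r : ℝ≥0} {n : ℕ}
    (hr : ∀ x : reps T s pr, (k : ι) ∈ T.at_ (x : E3) → (X.F x).ρ ≤ r)
    (hn : (Finset.univ.filter fun x : reps T s pr => (k : ι) ∈ T.at_ (x : E3)).card ≤ n) :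
    D.J k ≤ ENNReal.ofReal (X.C k).R *
      (((n : ℝ≥0∞) * r) * (∑ c ∈ Finset.univ.filter fun c : EgS T s => c.1.set ⊆ P (T.H k), D.Ee c) +
        ∑ b ∈ Finset.univ.filter fun b : FcS T s pr => (b.1.set ∩ P (T.H k)).Nonempty, D.Ef b) := by
  unfold EF.J
  gcongr ENNReal.ofReal (X.C k).R * (?_ + ?_)
  · set S : ℝ≥0∞ := ∑ c ∈ Finset.univ.filter fun c : EgS T s => c.1.set ⊆ P (T.H k), D.Ee c
    have h1 : ∀ x : reps T s pr, ((X.F x).V ∩ (X.C k).P).Nonempty →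
        (k : ι) ∈ T.at_ (x : E3) := by
      rintro x ⟨y, hy1, hy2⟩
      rw [hXP k] at hy2
      exact mem_at_of_V (hXF x) hc (reps_dim x.2).1 hy1 hy2
    calc (∑ j ∈ Finset.univ.filter fun j => ((X.F j).V ∩ (X.C k).P).Nonempty,
        ENNReal.ofReal (X.F j).ρ * ∑ a ∈ D.rimE j, D.Ee a)
        ≤ ∑ j ∈ Finset.univ.filter (fun x : reps T s pr => (k : ι) ∈ T.at_ (x : E3)),
            ENNReal.ofReal (X.F j).ρ * ∑ a ∈ D.rimE j, D.Ee a := by
          apply Finset.sum_le_sum_of_subset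
          intro x hx
          rw [Finset.mem_filter] at hx ⊢
          exact ⟨Finset.mem_univ _, h1 x hx.2⟩
      _ ≤ ∑ j ∈ Finset.univ.filter (fun x : reps T s pr => (k : ι) ∈ T.at_ (x : E3)),
            (r : ℝ≥0∞) * S := by
          apply Finset.sum_le_sum
          intro x hx
          rw [Finset.mem_filter] at hx
          have h2 : ENNReal.ofReal (X.F x).ρ ≤ (r : ℝ≥0∞) := by
            rw [ENNReal.ofReal_coe_nnreal]
            exact_mod_cast hr x hx.2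
          refine mul_le_mul' h2 ?_
          rw [hrE x]
          apply Finset.sum_le_sum_of_subset
          intro a ha
          rw [Finset.mem_filter]
          exact ⟨Finset.mem_univ _, (mem_rimS.1 ha).trans (T.cc_sub_tile hx.2)⟩
      _ ≤ ((n : ℝ≥0∞) * r) * S := by
          rw [Finset.sum_const, nsmul_eq_mul, mul_assoc]
          gcongr
  · apply Finset.sum_le_sum_of_subset
    intro b hb
    rw [Finset.mem_filter] at hb ⊢
    refine ⟨Finset.mem_univ _, ?_⟩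
    obtain ⟨y, hy1, hy2⟩ := hb.2
    rw [hfc b] at hy1
    obtain ⟨z, hz, rfl⟩ := hy1
    obtain ⟨z', hz', e'⟩ := hy2
    have : z' = z := w2.injective e'
    subst this
    exact ⟨z', hz, by rw [← hXP k]; exact hz'⟩

end

end Crest.Agent.R096.Efi_296
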