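/-
helper296, row 96, leaf SLABS, part 2: the same for lines: for almost every translate, all compact
subsets of the lines at once; localised limits.
-/
import Crest.Agent.R096.Slb1_296

set_option autoImplicit false
set_option linter.unusedSectionVars false
set_option linter.style.longLine false

open MeasureTheory Set Filter Metric Module
open scoped ENNReal NNReal Topology

namespace Crest.Agent.R096.Slb_296

open Crest.AnalysisR.VecCalc3
open Crest.Agent.R96.Coarse_538 (tonelli_nu thick_leb seg)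
open Crest.Agent.R096.Fce_793 (pt cc norm_pt_sub continuous_pt pt_eq)

noncomputable section

/-- index set of the finite unions of rational intervals -/
abbrev Ci1 : Type := Finset (ℚ × ℚ)

/-- finite unions of rational closed intervals -/
def Cs1 (s : Ci1) : Set ℝ := ⋃ q ∈ s, closedBall (q.1 : ℝ) (q.2 : ℝ)

theorem isCompact_Cs1 (s : Ci1) : IsCompact (Cs1 s) :=
  s.isCompact_biUnion fun _ _ => isCompact_closedBall _ _

theorem exists_rat_ball1 {U : Set ℝ} (hU : IsOpen U) {w : ℝ} (hw : w ∈ U) :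
    ∃ q : ℚ × ℚ, w ∈ ball (q.1 : ℝ) (q.2 : ℝ) ∧ closedBall (q.1 : ℝ) (q.2 : ℝ) ⊆ U := by
  obtain ⟨ε, hε, hb⟩ := Metric.isOpen_iff.1 hU w hw
  obtain ⟨q1, h1, h1'⟩ := exists_rat_btwn (show w < w + ε / 4 by linarith)
  obtain ⟨r, h3, h3'⟩ := exists_rat_btwn (show ε / 4 < ε / 2 by linarith)
  have hd : dist w (q1 : ℝ) < ε / 4 := by
    rw [dist_comm, Real.dist_eq, abs_lt]; constructor <;> linarith
  refine ⟨(q1, r), mem_ball.2 (hd.trans h3), ?_⟩
  intro z hz
  apply hb
  rw [mem_closedBall] at hz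
  rw [mem_ball]
  simp only at hz
  calc dist z w ≤ dist z (q1 : ℝ) + dist (q1 : ℝ) w := dist_triangle _ _ _
    _ < r + ε / 4 := by rw [dist_comm _ w]; linarith
    _ < ε := by linarith

theorem exists_Cs1 {K U : Set ℝ} (hK : IsCompact K) (hU : IsOpen U) (hKU : K ⊆ U) :
    ∃ s : Ci1, K ⊆ interior (Cs1 s) ∧ Cs1 s ⊆ U := by
  classical
  choose! q hq1 hq2 using fun w (hw : w ∈ U) => exists_rat_ball1 hU hw
  obtain ⟨t, ht, hc⟩ := hK.elim_nhds_subcover (fun w => ball ((q w).1 : ℝ) ((q w).2 : ℝ))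
    (fun w hw => isOpen_ball.mem_nhds (hq1 w (hKU hw)))
  refine ⟨t.image q, ?_, ?_⟩
  · refine hc.trans (interior_maximal ?_ (isOpen_biUnion fun w _ => isOpen_ball))
    apply iUnion₂_subset
    intro w hw z hz
    simp only [Cs1, mem_iUnion, exists_prop]
    exact ⟨q w, Finset.mem_image_of_mem q hw, ball_subset_closedBall hz⟩
  · intro z hz
    simp only [Cs1, mem_iUnion, exists_prop, Finset.mem_image] at hz
    obtain ⟨_, ⟨w, hw, rfl⟩, hz⟩ := hz
    exact hq2 w (hKU (ht w hw)) hz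

/-- a point of a line -/
def pl (v x : R3) (σ : ℝ) : R3 := x + σ • v

theorem continuous_pl (v x : R3) : Continuous (pl v x) := by unfold pl; fun_prop

theorem norm_pl_sub (v x : R3) (σ τ : ℝ) : ‖pl v x σ - pl v x τ‖ = |σ - τ| * ‖v‖ := by
  have : pl v x σ - pl v x τ = (σ - τ) • v := by unfold pl; rw [sub_smul]; abel
  rw [this, norm_smul, Real.norm_eq_abs]

/-- lower regularity of the line measure -/
theorem reg_low1 {v : R3} (x : R3) (hv : 0 < ‖v‖) {K K' : Set ℝ} {r : ℝ}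
    (h : ∀ w ∈ K, closedBall w r ⊆ K') (hK' : MeasurableSet K') {δ : ℝ} (hδ : 0 < δ)
    (hδr : δ ≤ r * ‖v‖) {w : ℝ} (hw : w ∈ K) :
    ENNReal.ofReal (2 * δ / ‖v‖) ≤
      ((volume.restrict K').map (pl v x)) (closedBall (pl v x w) δ) := by
  rw [Measure.map_apply (continuous_pl v x).measurable measurableSet_closedBall,
    Measure.restrict_apply' hK']
  have h1 : closedBall w (δ / ‖v‖) ⊆ pl v x ⁻¹' closedBall (pl v x w) δ ∩ K' := by
    intro z hz
    refine ⟨?_, h w hw (closedBall_subset_closedBall (by rwa [div_le_iff₀ hv]) hz)⟩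
    rw [mem_preimage, mem_closedBall, dist_eq_norm, norm_pl_sub]
    rw [mem_closedBall, Real.dist_eq, le_div_iff₀ hv] at hz
    exact hz
  refine le_trans ?_ (measure_mono h1)
  rw [Real.volume_closedBall]
  apply ENNReal.ofReal_le_ofReal
  apply le_of_eq
  ring

theorem lint_line (v x : R3) {F : R3 → ℝ≥0∞} (hF : Measurable F) (a : R3) (K : Set ℝ) :
    ∫⁻ y, F (a + y) ∂((volume.restrict K).map (pl v x)) = ∫⁻ w in K, F (a + pl v x w) := by
  rw [lintegral_map (f := fun y => F (a + y)) (hF.comp (measurable_const_add a))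
    (continuous_pl v x).measurable]

/-- one line, one Borel function: all compact subsets at once -/
theorem line_meas {v : R3} (x : R3) (hv : 0 < ‖v‖) {F : R3 → ℝ≥0∞} (hF : Measurable F)
    (hi : ∫⁻ y, F y ≠ ∞) :
    ∀ᵐ a, ∀ K : Set ℝ, IsCompact K → ∀ ε : ℝ≥0∞, 0 < ε → ∀ᶠ δ in 𝓝[>] (0:ℝ),
      ∫⁻ y in thickening δ (pl v x '' K), F (a + y) ≤
        ENNReal.ofReal (32 * ‖v‖ * δ ^ 2) * ((∫⁻ w in K, F (a + pl v x w)) + ε) := by
  set ν : Ci1 → Measure R3 := fun s => (volume.restrict (Cs1 s)).map (pl v x) with hν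
  have hνs : ∀ s, ν s univ < ∞ := by
    intro s
    rw [hν]
    simp only
    rw [Measure.map_apply (continuous_pl v x).measurable MeasurableSet.univ, preimage_univ,
      Measure.restrict_apply_univ]
    exact (isCompact_Cs1 s).measure_lt_top
  have : ∀ s, IsFiniteMeasure (ν s) := fun s => ⟨hνs s⟩
  have hfin : ∀ s, ∫⁻ a in (univ : Set R3), ∫⁻ y, F (a + y) ∂(ν s) ≠ ∞ := by
    intro s
    rw [tonelli_nu MeasurableSet.univ hF.aemeasurable]
    have h1 : ∀ z : R3, F z * ν s {y | z - y ∈ (univ : Set R3)} = F z * ν s univ := by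
      intro z
      have : {y : R3 | z - y ∈ (univ : Set R3)} = univ := by ext; simp
      rw [this]
    simp only [h1]
    rw [lintegral_mul_const _ hF]
    exact ENNReal.mul_ne_top hi (hνs s).ne
  have h1 : ∀ᵐ a, ∀ s, ∫⁻ y, F (a + y) ∂(ν s) < ∞ := by
    rw [ae_all_iff]
    intro s
    refine ae_lt_top' ?_ (by simpa using hfin s)
    exact Crest.Agent.R96.Grid_392.aemeasurable_pc (ν := ν s) (γ := fun y : R3 => y) measurable_id
      hF.aemeasurable
  have h2 : ∀ᵐ a : R3, ∀ s : Ci1, a ∈ (univ : Set R3) → ∀ ε : ℝ≥0∞, 0 < ε → ∀ᶠ δ in 𝓝[>] (0:ℝ),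
      ∀ (K : Set R3) (m : ℝ≥0∞), (∀ k ∈ K, m ≤ ν s (closedBall k δ)) →
      m * ∫⁻ y in thickening δ K, F (a + y) ≤
        ((∫⁻ y, F (a + y) ∂(ν s)) + ε) * volume (closedBall (0:R3) (2 * δ)) := by
    rw [ae_all_iff]
    intro s
    exact thick_leb (ν := ν s) hF.aemeasurable isOpen_univ (hfin s)
  filter_upwards [h1, h2] with a ha1 ha2 K hK ε hε
  have hm : Measurable fun w => F (a + pl v x w) :=
    hF.comp ((measurable_const_add a).comp (continuous_pl v x).measurable)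
  set μa : Measure ℝ := volume.withDensity fun w => F (a + pl v x w) with hμa
  have hμs : ∀ S : Set ℝ, MeasurableSet S → μa S = ∫⁻ w in S, F (a + pl v x w) := by
    intro S hS
    rw [hμa, withDensity_apply _ hS]
  have hμc : ∀ s, μa (Cs1 s) = ∫⁻ y, F (a + y) ∂(ν s) := by
    intro s
    rw [hμs _ (isCompact_Cs1 s).measurableSet, hν]
    simp only
    rw [lint_line v x hF a (Cs1 s)]
  have : IsLocallyFiniteMeasure μa := by
    refine ⟨fun w => ?_⟩
    obtain ⟨s, hs, -⟩ := exists_Cs1 (isCompact_singleton (x := w)) isOpen_univ (subset_univ _)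
    refine ⟨Cs1 s, mem_interior_iff_mem_nhds.1 (hs rfl), ?_⟩
    rw [hμc]
    exact ha1 s
  have hε2 : ε / 2 ≠ 0 := by simpa using hε.ne'
  obtain ⟨U, hKU, hUo, hU⟩ := hK.exists_isOpen_lt_add (μ := μa) hε2
  obtain ⟨s, hs1, hs2⟩ := exists_Cs1 hK hUo hKU
  obtain ⟨r, hr, hrK⟩ := hK.exists_cthickening_subset_open isOpen_interior hs1
  have hball : ∀ w ∈ K, closedBall w r ⊆ Cs1 s := fun w hw =>
    (closedBall_subset_cthickening hw r).trans (hrK.trans interior_subset)
  have hsm : (∫⁻ y, F (a + y) ∂(ν s)) + ε / 2 ≤ (∫⁻ w in K, F (a + pl v x w)) + ε := by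
    have h3 : μa (Cs1 s) ≤ μa K + ε / 2 := (measure_mono hs2).trans hU.le
    rw [hμc, hμs K hK.measurableSet] at h3
    calc (∫⁻ y, F (a + y) ∂(ν s)) + ε / 2 ≤ (∫⁻ w in K, F (a + pl v x w)) + ε / 2 + ε / 2 := by
          gcongr
      _ = _ := by rw [add_assoc, ENNReal.add_halves]
  have h4 : ∀ᶠ δ : ℝ in 𝓝[>] 0, δ ≤ r * ‖v‖ := by
    have : ∀ᶠ δ : ℝ in 𝓝 0, δ < r * ‖v‖ := eventually_lt_nhds (by positivity)
    exact (this.filter_mono nhdsWithin_le_nhds).mono fun _ h => h.le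
  filter_upwards [ha2 s (mem_univ a) (ε / 2) (pos_iff_ne_zero.2 hε2), h4, self_mem_nhdsWithin]
    with δ hδ hδr hδ0
  have hδ0' : (0:ℝ) < δ := hδ0
  have h5 := hδ (pl v x '' K) (ENNReal.ofReal (2 * δ / ‖v‖)) (by
    rintro _ ⟨w, hw, rfl⟩
    exact reg_low1 x hv hball (isCompact_Cs1 s).measurableSet hδ0' hδr hw)
  set I := ∫⁻ y in thickening δ (pl v x '' K), F (a + y) with hI
  set X := (∫⁻ w in K, F (a + pl v x w)) + ε with hX
  have h6 : ENNReal.ofReal (2 * δ / ‖v‖) * I ≤ X * ENNReal.ofReal (64 * δ ^ 3) :=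
    h5.trans (mul_le_mul' hsm (volume_closedBall_le hδ0'))
  have hq : ENNReal.ofReal (‖v‖ / (2 * δ)) * ENNReal.ofReal (2 * δ / ‖v‖) = 1 := by
    rw [← ENNReal.ofReal_mul (by positivity)]
    have : ‖v‖ / (2 * δ) * (2 * δ / ‖v‖) = 1 := by field_simp
    rw [this, ENNReal.ofReal_one]
  calc I = ENNReal.ofReal (‖v‖ / (2 * δ)) * (ENNReal.ofReal (2 * δ / ‖v‖) * I) := by
        rw [← mul_assoc, hq, one_mul]
    _ ≤ ENNReal.ofReal (‖v‖ / (2 * δ)) * (X * ENNReal.ofReal (64 * δ ^ 3)) := by gcongr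
    _ = ENNReal.ofReal (‖v‖ / (2 * δ)) * ENNReal.ofReal (64 * δ ^ 3) * X := by ring
    _ = ENNReal.ofReal (32 * ‖v‖ * δ ^ 2) * X := by
        rw [← ENNReal.ofReal_mul (by positivity)]
        congr 2
        field_simp
        ring

/-- lines do not see null sets -/
theorem ae_line (v : R3) (x : R3) {Z : Set R3} (hZ : volume Z = 0) :
    ∀ᵐ a : R3, ∀ᵐ w : ℝ, a + pl v x w ∉ Z := by
  set Z' := toMeasurable volume Z with hZ'
  have hZ0 : volume Z' = 0 := by rw [hZ', measure_toMeasurable]; exact hZ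
  have hZm : MeasurableSet Z' := measurableSet_toMeasurable _ _
  have hind : Measurable (Z'.indicator (1 : R3 → ℝ≥0∞)) := measurable_one.indicator hZm
  have h1 : ∫⁻ a in (univ : Set R3), ∫⁻ y, Z'.indicator (1 : R3 → ℝ≥0∞) (a + y)
      ∂((volume : Measure ℝ).map (pl v x)) = 0 := by
    rw [tonelli_nu MeasurableSet.univ hind.aemeasurable]
    rw [lintegral_eq_zero_iff']
    · have h2 : ∀ᵐ z : R3, z ∉ Z' := by rw [← measure_eq_zero_iff_ae_notMem]; exact hZ0
      filter_upwards [h2] with z hz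
      rw [indicator_of_notMem hz, zero_mul]
      rfl
    · have h3 : ∀ z : R3, Z'.indicator (1 : R3 → ℝ≥0∞) z *
          ((volume : Measure ℝ).map (pl v x)) {y | z - y ∈ (univ : Set R3)} =
          Z'.indicator (1 : R3 → ℝ≥0∞) z * ((volume : Measure ℝ).map (pl v x)) univ := by
        intro z
        have : {y : R3 | z - y ∈ (univ : Set R3)} = univ := by ext; simp
        rw [this]
      simp only [h3]
      exact (hind.mul_const _).aemeasurable
  rw [setLIntegral_univ, lintegral_eq_zero_iff'] at h1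
  · filter_upwards [h1] with a ha
    have h3 : ∫⁻ y, Z'.indicator (1 : R3 → ℝ≥0∞) (a + y)
      ∂((volume : Measure ℝ).map (pl v x)) = 0 := ha
    rw [lintegral_map (f := fun y => Z'.indicator (1 : R3 → ℝ≥0∞) (a + y))
      (hind.comp (measurable_const_add a)) (continuous_pl v x).measurable,
      lintegral_eq_zero_iff (f := fun w => Z'.indicator (1 : R3 → ℝ≥0∞) (a + pl v x w))
        (hind.comp ((measurable_const_add a).comp (continuous_pl v x).measurable))] at h3
    filter_upwards [h3] with w hw hmem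
    have h4 : a + pl v x w ∈ Z' := subset_toMeasurable _ _ hmem
    rw [Pi.zero_apply] at hw
    simp only [indicator_of_mem h4, Pi.one_apply] at hw
    exact one_ne_zero hw
  · exact Crest.Agent.R96.Grid_392.aemeasurable_pc
      (ν := (volume : Measure ℝ).map (pl v x)) (γ := fun y : R3 => y) measurable_id
      hind.aemeasurable

theorem mem_thick_iff1 (v : R3) (x a : R3) (K : Set ℝ) (δ : ℝ) (y : R3) :
    a + y ∈ thickening δ (pl v (a + x) '' K) ↔ y ∈ thickening δ (pl v x '' K) := by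
  have h0 : ∀ w, a + y - pl v (a + x) w = y - pl v x w := by
    intro w; simp only [pl]; abel
  rw [mem_thickening_iff, mem_thickening_iff]
  constructor
  · rintro ⟨_, ⟨w, hw, rfl⟩, hd⟩
    refine ⟨_, ⟨w, hw, rfl⟩, ?_⟩
    rwa [dist_eq_norm, h0, ← dist_eq_norm] at hd
  · rintro ⟨_, ⟨w, hw, rfl⟩, hd⟩
    refine ⟨_, ⟨w, hw, rfl⟩, ?_⟩
    rwa [dist_eq_norm, h0, ← dist_eq_norm]

/-- **TUBES**, all compact subsets of the lines at once -/
theorem tubesK {ι J : Type*} [Countable ι] [Countable J] {x v : ι → R3} (hv : ∀ i, v i ≠ 0)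
    {F : J → R3 → ℝ≥0∞} (hF : ∀ j, AEMeasurable (F j) volume) (hi : ∀ j, ∫⁻ y, F j y ≠ ∞) :
    ∀ᵐ a, ∀ i j, ∀ K : Set ℝ, IsCompact K → ∀ ε : ℝ≥0∞, 0 < ε → ∀ᶠ δ in 𝓝[>] (0:ℝ),
      ∫⁻ y in thickening δ (pl (v i) (a + x i) '' K), F j y ≤
        ENNReal.ofReal (32 * ‖v i‖ * δ ^ 2) *
          ((∫⁻ w in K, F j (pl (v i) (a + x i) w)) + ε) := by
  rw [ae_all_iff]; intro i
  rw [ae_all_iff]; intro j
  obtain ⟨F', hF'm, hFF'⟩ := hF j
  have hF'i : ∫⁻ y, F' y ≠ ∞ := by rw [← lintegral_congr_ae hFF']; exact hi j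
  have hZ : volume {y | F j y ≠ F' y} = 0 := hFF'
  filter_upwards [line_meas (x i) (norm_pos_iff.2 (hv i)) hF'm hF'i, ae_line (v i) (x i) hZ] with a
    ha haZ K hK ε hε
  have e1 : ∀ w, pl (v i) (a + x i) w = a + pl (v i) (x i) w := by
    intro w; simp only [pl]; abel
  have e2 : ∫⁻ w in K, F j (pl (v i) (a + x i) w) = ∫⁻ w in K, F' (a + pl (v i) (x i) w) := by
    apply lintegral_congr_ae
    filter_upwards [ae_restrict_of_ae haZ] with w hw
    rw [e1]
    by_contra hne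
    exact hw hne
  filter_upwards [ha K hK ε hε] with δ hδ
  rw [e2]
  refine le_of_eq_of_le ?_ hδ
  rw [lintegral_congr_ae (ae_restrict_of_ae hFF'), ← lintegral_indicator
    isOpen_thickening.measurableSet, ← lintegral_indicator isOpen_thickening.measurableSet,
    ← lintegral_add_left_eq_self _ a]
  apply lintegral_congr
  intro y
  have h4 := mem_thick_iff1 (v i) (x i) a K δ y
  by_cases h5 : y ∈ thickening δ (pl (v i) (x i) '' K)
  · rw [indicator_of_mem h5, indicator_of_mem (h4.2 h5)]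
  · rw [indicator_of_notMem h5, indicator_of_notMem fun h => h5 (h4.1 h)]

/-- the same with functions which are integrable on a measurable set `Om` only -/
theorem tubesK_on {ι J : Type*} [Countable ι] [Countable J] {x v : ι → R3} (hv : ∀ i, v i ≠ 0)
    {Om : Set R3} (hO : MeasurableSet Om) {F : J → R3 → ℝ≥0∞}
    (hF : ∀ j, AEMeasurable (F j) (volume.restrict Om)) (hi : ∀ j, ∫⁻ y in Om, F j y ≠ ∞) :
    ∀ᵐ a, ∀ i j, ∀ K : Set ℝ, IsCompact K → ∀ ε : ℝ≥0∞, 0 < ε → ∀ᶠ δ in 𝓝[>] (0:ℝ),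
      ∫⁻ y in Om ∩ thickening δ (pl (v i) (a + x i) '' K), F j y ≤
        ENNReal.ofReal (32 * ‖v i‖ * δ ^ 2) *
          ((∫⁻ w in K, Om.indicator (F j) (pl (v i) (a + x i) w)) + ε) := by
  have h := tubesK (J := J) (x := x) hv (F := fun j => Om.indicator (F j))
    (fun j => (aemeasurable_indicator_iff hO).2 (hF j))
    (fun j => by rw [lintegral_indicator hO]; exact hi j)
  filter_upwards [h] with a ha i j K hK ε hε
  filter_upwards [ha i j K hK ε hε] with δ hδ
  rwa [lintegral_indicator hO, Measure.restrict_restrict hO] at hδ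

end

end Crest.Agent.R096.Slb_296
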