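/-
helper296, row 96, leaf SLABS, part 3: finiteness on almost every line / plane, localised limits.
-/
import Crest.Agent.R096.Slb2_296

set_option autoImplicit false
set_option linter.unusedSectionVars false
set_option linter.style.longLine false

open MeasureTheory Set Filter Metric Module
open scoped ENNReal NNReal Topology

namespace Crest.Agent.R096.Slb_296

open Crest.AnalysisR.VecCalc3
open Crest.Agent.R96.Coarse_538 (tonelli_nu thick_leb seg)
open Crest.Agent.R096.Fce_793 (pt cc norm_pt_sub continuous_pt pt_eq)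

noncomputable section

/-- finiteness of the integral over compact pieces of almost every translate of a countable family
of parametrised pieces; general form -/
theorem fin_gen {W : Type*} [MeasurableSpace W] (μ : Measure W) [SFinite μ]
    {γ : W → R3} (hγ : Measurable γ) {F : R3 → ℝ≥0∞} (hF : AEMeasurable F volume)
    (hi : ∫⁻ y, F y ≠ ∞) {κ : Type*} [Countable κ] {C : κ → Set W}
    (hC : ∀ s, μ (C s) ≠ ∞) : ∀ᵐ a : R3, ∀ s, ∫⁻ w in C s, F (a + γ w) ∂μ ≠ ∞ := by
  rw [ae_all_iff]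
  intro s
  have h0 := Crest.Agent.R96.Grid_392.lintegral_pc (ν := μ.restrict (C s)) (γ := γ)
    (μ := (volume : Measure R3)) hγ hF
  have h1 : ∫⁻ a : R3, ∫⁻ w in C s, F (a + γ w) ∂μ ≠ ∞ := by
    have h2 : (∫⁻ a : R3, ∫⁻ w in C s, F (a + γ w) ∂μ) =
        (μ.restrict (C s)) univ * ∫⁻ x, F x := h0
    rw [h2, Measure.restrict_apply_univ]
    exact ENNReal.mul_ne_top (hC s) hi
  have h3 : AEMeasurable (fun a : R3 => ∫⁻ w in C s, F (a + γ w) ∂μ) volume :=
    Crest.Agent.R96.Grid_392.aemeasurable_pc (ν := μ.restrict (C s)) (γ := γ) hγ hF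
  exact (ae_lt_top' h3 h1).mono fun a ha => ha.ne

theorem fin_line {ι J : Type*} [Countable ι] [Countable J] (x v : ι → R3)
    {Om : Set R3} (hO : MeasurableSet Om) {F : J → R3 → ℝ≥0∞}
    (hF : ∀ j, AEMeasurable (F j) (volume.restrict Om)) (hi : ∀ j, ∫⁻ y in Om, F j y ≠ ∞) :
    ∀ᵐ a, ∀ i j, ∀ K : Set ℝ, IsCompact K →
      ∫⁻ w in K, Om.indicator (F j) (pl (v i) (a + x i) w) ≠ ∞ := by
  rw [ae_all_iff]; intro i
  rw [ae_all_iff]; intro j
  have h := fin_gen (volume : Measure ℝ) (continuous_pl (v i) (x i)).measurable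
    (F := Om.indicator (F j)) ((aemeasurable_indicator_iff hO).2 (hF j))
    (by rw [lintegral_indicator hO]; exact hi j) (C := Cs1)
    (fun s => (isCompact_Cs1 s).measure_lt_top.ne)
  filter_upwards [h] with a ha K hK
  obtain ⟨s, hs, -⟩ := exists_Cs1 hK isOpen_univ (subset_univ _)
  have e1 : ∀ w, pl (v i) (a + x i) w = a + pl (v i) (x i) w := by
    intro w; simp only [pl]; abel
  simp only [e1]
  exact ne_top_of_le_ne_top (ha s) (lintegral_mono_set (hs.trans interior_subset))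

theorem fin_plane {ι J : Type*} [Countable ι] [Countable J] (e : ι → Fin 2 → R3) (x : ι → R3)
    {Om : Set R3} (hO : MeasurableSet Om) {F : J → R3 → ℝ≥0∞}
    (hF : ∀ j, AEMeasurable (F j) (volume.restrict Om)) (hi : ∀ j, ∫⁻ y in Om, F j y ≠ ∞) :
    ∀ᵐ a, ∀ i j, ∀ K : Set (ℝ × ℝ), IsCompact K →
      ∫⁻ w in K, Om.indicator (F j) (pt (e i) (a + x i) w) ≠ ∞ := by
  rw [ae_all_iff]; intro i
  rw [ae_all_iff]; intro j
  have h := fin_gen (volume : Measure (ℝ × ℝ)) (continuous_pt (e i) (x i)).measurable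
    (F := Om.indicator (F j)) ((aemeasurable_indicator_iff hO).2 (hF j))
    (by rw [lintegral_indicator hO]; exact hi j) (C := Cs)
    (fun s => (isCompact_Cs s).measure_lt_top.ne)
  filter_upwards [h] with a ha K hK
  obtain ⟨s, hs, -⟩ := exists_Cs hK isOpen_univ (subset_univ _)
  have e1 : ∀ w, pt (e i) (a + x i) w = a + pt (e i) (x i) w := by
    intro w; simp only [pt]; abel
  simp only [e1]
  exact ne_top_of_le_ne_top (ha s) (lintegral_mono_set (hs.trans interior_subset))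

/-- **localisation of a limit to a closed set `B0`** -/
theorem loc_lim {W : Type*} [TopologicalSpace W] [T2Space W] [MeasurableSpace W] [BorelSpace W]
    (μ : Measure W) {γ : W → R3} (hγ : Continuous γ) {K : Set W} (hK : IsCompact K) {B0 : Set R3}
    (hB : IsClosed B0) {Om : Set R3} {g : R3 → ℝ≥0∞} {G : W → ℝ≥0∞}
    (hfin : ∫⁻ w in K, G w ∂μ ≠ ∞) {pw : ℝ → ℝ}
    (h : ∀ K' : Set W, IsCompact K' → K' ⊆ K → ∀ ε : ℝ≥0∞, 0 < ε → ∀ᶠ δ in 𝓝[>] (0:ℝ),
      ∫⁻ y in Om ∩ thickening δ (γ '' K'), g y ≤ ENNReal.ofReal (pw δ) * ((∫⁻ w in K', G w ∂μ) + ε)) :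
    ∀ ε : ℝ≥0∞, 0 < ε → ∀ᶠ δ in 𝓝[>] (0:ℝ),
      ∫⁻ y in Om ∩ thickening δ (γ '' K), B0.indicator g y ≤
        ENNReal.ofReal (pw δ) * ((∫⁻ w in K ∩ γ ⁻¹' B0, G w ∂μ) + ε) := by
  intro ε hε
  set Kn : ℕ → Set W := fun n => K ∩ γ ⁻¹' cthickening (1 / ((n:ℝ) + 1)) B0 with hKn
  have hKc : ∀ n, IsCompact (Kn n) := fun n => hK.inter_right (isClosed_cthickening.preimage hγ)
  have hanti : Antitone Kn := by
    intro m n hmn
    refine inter_subset_inter_right _ (preimage_mono (cthickening_mono ?_ _))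
    apply one_div_le_one_div_of_le (by positivity)
    have : (m:ℝ) ≤ n := by exact_mod_cast hmn
    linarith
  have hint : ⋂ n, Kn n = K ∩ γ ⁻¹' B0 := by
    ext w
    simp only [hKn, mem_iInter, mem_inter_iff, mem_preimage]
    constructor
    · intro hw
      refine ⟨(hw 0).1, ?_⟩
      rw [← hB.closure_eq, mem_closure_iff_infEDist_zero]
      apply le_antisymm _ (zero_le)
      apply ENNReal.le_of_forall_pos_le_add
      intro r hr _
      obtain ⟨n, hn⟩ := exists_nat_one_div_lt (show (0:ℝ) < r by exact_mod_cast hr)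
      have h1 : infEDist (γ w) B0 ≤ ENNReal.ofReal (1 / ((n:ℝ) + 1)) := (hw n).2
      rw [zero_add]
      refine h1.trans ?_
      rw [← ENNReal.ofReal_coe_nnreal]
      exact ENNReal.ofReal_le_ofReal hn.le
    · intro hw n
      exact ⟨hw.1, self_subset_cthickening _ hw.2⟩
  have hm : ∀ n, MeasurableSet (Kn n) := fun n => (hKc n).measurableSet
  have hν : ∀ n, (μ.withDensity G) (Kn n) = ∫⁻ w in Kn n, G w ∂μ :=
    fun n => withDensity_apply _ (hm n)
  have hmi : MeasurableSet (K ∩ γ ⁻¹' B0) := (hK.inter_right (hB.preimage hγ)).measurableSet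
  have hν' : (μ.withDensity G) (K ∩ γ ⁻¹' B0) = ∫⁻ w in K ∩ γ ⁻¹' B0, G w ∂μ :=
    withDensity_apply _ hmi
  have hf0 : (μ.withDensity G) (Kn 0) ≠ ∞ := by
    rw [hν]
    exact ne_top_of_le_ne_top hfin (lintegral_mono_set inter_subset_left)
  have ht := tendsto_measure_iInter_atTop (μ := μ.withDensity G) (s := Kn)
    (fun n => (hm n).nullMeasurableSet) hanti ⟨0, hf0⟩
  rw [hint, hν'] at ht
  set L := ∫⁻ w in K ∩ γ ⁻¹' B0, G w ∂μ with hL
  have hLf : L ≠ ∞ := ne_top_of_le_ne_top hfin (lintegral_mono_set inter_subset_left)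
  have hε2 : ε / 2 ≠ 0 := by simpa using hε.ne'
  have hlt : L < L + ε / 2 := ENNReal.lt_add_right hLf hε2
  obtain ⟨n, hn⟩ := (ht.eventually_lt_const hlt).exists
  have hn' : ∫⁻ w in Kn n, G w ∂μ < L + ε / 2 := by
    rw [← hν n]; exact hn
  have hδn : ∀ᶠ δ : ℝ in 𝓝[>] 0, δ < 1 / ((n:ℝ) + 1) :=
    (eventually_lt_nhds (by positivity : (0:ℝ) < 1 / ((n:ℝ) + 1))).filter_mono nhdsWithin_le_nhds
  filter_upwards [h (Kn n) (hKc n) inter_subset_left (ε / 2) (pos_iff_ne_zero.2 hε2), hδn]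
    with δ hδ hδ1
  calc ∫⁻ y in Om ∩ thickening δ (γ '' K), B0.indicator g y
      = ∫⁻ y in B0 ∩ (Om ∩ thickening δ (γ '' K)), g y := by
        rw [lintegral_indicator hB.measurableSet, Measure.restrict_restrict hB.measurableSet]
    _ ≤ ∫⁻ y in Om ∩ thickening δ (γ '' Kn n), g y := by
        apply lintegral_mono_set
        rintro y ⟨hyB, hyO, hy⟩
        refine ⟨hyO, ?_⟩
        rw [mem_thickening_iff] at hy ⊢
        obtain ⟨_, ⟨w, hw, rfl⟩, hd⟩ := hy
        refine ⟨_, ⟨w, ⟨hw, ?_⟩, rfl⟩, hd⟩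
        show γ w ∈ cthickening (1 / ((n:ℝ) + 1)) B0
        apply mem_cthickening_of_dist_le (γ w) y _ _ hyB
        rw [dist_comm]
        exact (hd.trans hδ1).le
    _ ≤ ENNReal.ofReal (pw δ) * ((∫⁻ w in Kn n, G w ∂μ) + ε / 2) := hδ
    _ ≤ ENNReal.ofReal (pw δ) * (L + ε) := by
        refine mul_le_mul' le_rfl ?_
        calc (∫⁻ w in Kn n, G w ∂μ) + ε / 2 ≤ L + ε / 2 + ε / 2 := by gcongr
          _ = L + ε := by rw [add_assoc, ENNReal.add_halves]

end

end Crest.Agent.R096.Slb_296
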