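/-
helper296, row 96, COMPOSITE B (622): the instance `EF` of a tiling for one good position `a`, localised
to an arbitrary closed set `B0` (function `B0.indicator g`).
-/
import Crest.Agent.R096.Efi2_296
import Crest.Agent.R096.Slb3_296
import Crest.Agent.R096.Ttr1_622
import Crest.Agent.R96.Gdt4_538

set_option autoImplicit false
set_option linter.unusedSectionVars false
set_option linter.style.longLine false

open Set Metric Filter Topology MeasureTheory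
open scoped ENNReal NNReal

namespace Crest.Agent.R096.Efi_296

open Crest.AnalysisR.VecCalc3
open Crest.Agent.R096.Msh_715 (P I Tiling I_sub_P isOpen_I isClosed_P)
open Crest.Agent.R096.Sq_55 (E3 Sys Face FaceOf w2 IsDp)
open Crest.Agent.R096.Cob_622 (EF)
open Crest.Agent.R96.Coarse_538 (seg)
open Crest.Agent.R096.Fce_793 (pt cc continuous_pt)
open Crest.Agent.R096.Slb_296
open Crest.Agent.R96.En10_199 (P3)

noncomputable section

/-- a good position of the countable families of segments and planes for the function `g` -/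
structure GoodA {κe κf : Type*} (Om : Set R3) (g : R3 → ℝ≥0∞) (x v : κe → R3)
    (e : κf → Fin 2 → R3) (xx : κf → R3) (a : R3) : Prop where
  tube : ∀ i, ∀ K : Set ℝ, IsCompact K → ∀ ε : ℝ≥0∞, 0 < ε → ∀ᶠ δ in 𝓝[>] (0:ℝ),
    ∫⁻ y in Om ∩ thickening δ (pl (v i) (a + x i) '' K), g y ≤
      ENNReal.ofReal (32 * ‖v i‖ * δ ^ 2) * ((∫⁻ w in K, Om.indicator g (pl (v i) (a + x i) w)) + ε)
  slab : ∀ i, ∀ K : Set (ℝ × ℝ), IsCompact K → ∀ ε : ℝ≥0∞, 0 < ε → ∀ᶠ δ in 𝓝[>] (0:ℝ),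
    ∫⁻ y in Om ∩ thickening δ (pt (e i) (a + xx i) '' K), g y ≤
      ENNReal.ofReal (16 * cc (e i) ^ 2 * δ) *
        ((∫⁻ w in K, Om.indicator g (pt (e i) (a + xx i) w)) + ε)
  finE : ∀ i, ∀ K : Set ℝ, IsCompact K → ∫⁻ w in K, Om.indicator g (pl (v i) (a + x i) w) ≠ ∞
  finF : ∀ i, ∀ K : Set (ℝ × ℝ), IsCompact K →
    ∫⁻ w in K, Om.indicator g (pt (e i) (a + xx i) w) ≠ ∞

/-- almost every position is good -/
theorem ae_goodA {κe κf J : Type*} [Countable κe] [Countable κf] [Countable J] {x v : κe → R3}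
    (hv : ∀ i, v i ≠ 0) {e : κf → Fin 2 → R3} (hc : ∀ i, 0 < cc (e i)) (xx : κf → R3)
    {Om : Set R3} (hO : MeasurableSet Om) {F : J → R3 → ℝ≥0∞}
    (hF : ∀ j, AEMeasurable (F j) (volume.restrict Om)) (hi : ∀ j, ∫⁻ y in Om, F j y ≠ ∞) :
    ∀ᵐ a, ∀ j, GoodA Om (F j) x v e xx a := by
  filter_upwards [tubesK_on (x := x) hv hO hF hi, slabs_on hc xx hO hF hi,
    fin_line x v hO hF hi, fin_plane e xx hO hF hi] with a h1 h2 h3 h4 j
  exact ⟨fun i => h1 i j, fun i => h2 i j, fun i => h3 i j, fun i => h4 i j⟩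

theorem w2_eq_P3 (x : E3) : w2 x = P3 x := rfl

theorem seg_eq_pl {κe : Type*} (x v : κe → R3) (a : R3) (i : κe) :
    seg x v a i = pl (v i) (a + x i) '' Icc 0 1 := rfl

section transport

variable {OmR : Set R3} {ι : Type*} (T : Tiling OmR ι)

/-- the transported tiling -/
abbrev Te : Tiling ((P3.symm : R3 ≃L[ℝ] E3).symm ⁻¹' OmR) ι := Ttr_622.tr P3.symm T

theorem image_set (c : (Te T).Cell) : w2 '' c.set = T.cc (P3 c.pt) ∧ P3 c.pt ∈ OmR ∧
    T.dim (P3 c.pt) = c.dim := by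
  have h0 : P3.symm (P3 c.pt) = c.pt := P3.symm_apply_apply _
  have h1 := Ttr_622.cc_tr (P3.symm : R3 ≃L[ℝ] E3) T (P3 c.pt)
  rw [h0] at h1
  refine ⟨?_, c.pt_mem, ?_⟩
  · rw [c.set_eq, h1, image_image]
    have : ∀ y : R3, w2 ((P3.symm : R3 ≃L[ℝ] E3) y) = y := fun y => P3.apply_symm_apply y
    simp only [this, image_id']
  · exact (Ttr_622.dim_tr (P3.symm : R3 ≃L[ℝ] E3) T c.pt).symm

theorem image_sub {c : (Te T).Cell} {k : ι} (h : c.set ⊆ P ((Te T).H k)) :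
    T.cc (P3 c.pt) ⊆ P (T.H k) := by
  rw [← (image_set T c).1]
  rintro _ ⟨y, hy, rfl⟩
  exact (Ttr_622.mem_P_tr (P3.symm : R3 ≃L[ℝ] E3) T).1 (h hy)

end transport

/-- **EF-INST, localised.** -/
theorem exists_ef_loc {OmR : Set R3} {ι : Type*} {T : Tiling OmR ι} {W Om : Set R3}
    {g : R3 → ℝ≥0∞} {κe κf : Type*} {x v : κe → R3} {e : κf → Fin 2 → R3} {xx : κf → R3} {a : R3}
    (hG : GoodA Om g x v e xx a) {Q : κf → Set (ℝ × ℝ)} (hQ : ∀ φ, IsCompact (Q φ))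
    (hce : ∀ y ∈ OmR, T.dim y = 1 → T.cc y ⊆ W → ∃ i, T.cc y = seg x v a i)
    {s : Finset ι} (hs : ∀ k ∈ s, P (T.H k) ⊆ W) {pr : (Te T).Cell → Prop}
    (hcf : ∀ c ∈ FcS (Te T) s pr, ∃ φ, T.cc (P3 c.pt) = pt (e φ) (a + xx φ) '' Q φ)
    (X : Sys s (reps (Te T) s pr))
    (hrim : ∀ y : reps (Te T) s pr, (X.F y).rim = (Te T).cc (y : E3) \ (Te T).oc (y : E3))
    (hZ : X.Z = Zs (Te T) s pr) :
    ∃ (me : EgS (Te T) s → κe) (mf : FcS (Te T) s pr → κf),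
      (∀ c, w2 '' c.1.set = seg x v a (me c)) ∧
      (∀ c, w2 '' c.1.set = pt (e (mf c)) (a + xx (mf c)) '' Q (mf c)) ∧
      ∀ B0 : Set R3, IsClosed B0 →
        ∃ D : EF X Om (B0.indicator g) (EgS (Te T) s) (FcS (Te T) s pr),
          (∀ c, D.eg c = w2 '' c.1.set) ∧ (∀ c, D.fc c = w2 '' c.1.set) ∧
          (∀ y, D.rimE y = rimS (Te T) s (y : E3)) ∧
          (∀ c, D.Ee c = ENNReal.ofReal (32 * ‖v (me c)‖) *
            ∫⁻ σ in Icc 0 1 ∩ pl (v (me c)) (a + x (me c)) ⁻¹' B0,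
              Om.indicator g (pl (v (me c)) (a + x (me c)) σ)) ∧
          ∀ c, D.Ef c = ENNReal.ofReal (16 * cc (e (mf c)) ^ 2) *
            ∫⁻ w in Q (mf c) ∩ pt (e (mf c)) (a + xx (mf c)) ⁻¹' B0,
              Om.indicator g (pt (e (mf c)) (a + xx (mf c)) w) := by
  have hme : ∀ c : EgS (Te T) s, ∃ i, w2 '' c.1.set = seg x v a i := by
    rintro ⟨c, hc1, k, hk, hck⟩
    obtain ⟨h1, h2, h3⟩ := image_set T c
    obtain ⟨i, hi⟩ := hce _ h2 (h3.trans hc1) ((image_sub T hck).trans (hs k hk))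
    exact ⟨i, h1.trans hi⟩
  have hmf : ∀ c : FcS (Te T) s pr, ∃ φ, w2 '' c.1.set = pt (e φ) (a + xx φ) '' Q φ := by
    rintro ⟨c, hc⟩
    obtain ⟨φ, hφ⟩ := hcf c hc
    exact ⟨φ, (image_set T c).1.trans hφ⟩
  choose me hme using hme
  choose mf hmf using hmf
  refine ⟨me, mf, hme, hmf, fun B0 hB0 => ?_⟩
  refine ⟨mkEF X hrim hZ Om (B0.indicator g)
    (fun c => ENNReal.ofReal (32 * ‖v (me c)‖) *
      ∫⁻ σ in Icc 0 1 ∩ pl (v (me c)) (a + x (me c)) ⁻¹' B0,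
        Om.indicator g (pl (v (me c)) (a + x (me c)) σ))
    (fun c => ENNReal.ofReal (16 * cc (e (mf c)) ^ 2) *
      ∫⁻ w in Q (mf c) ∩ pt (e (mf c)) (a + xx (mf c)) ⁻¹' B0,
        Om.indicator g (pt (e (mf c)) (a + xx (mf c)) w))
    (fun c => ENNReal.mul_ne_top ENNReal.ofReal_ne_top (ne_top_of_le_ne_top
      (hG.finE (me c) (Icc 0 1) isCompact_Icc) (lintegral_mono_set inter_subset_left))) ?_ ?_,
    fun _ => rfl, fun _ => rfl, fun _ => rfl, fun _ => rfl, fun _ => rfl⟩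
  · intro c
    rw [hme c, seg_eq_pl]
    refine lim_scale (f := fun δ => ∫⁻ y in Om ∩ thickening δ (pl (v (me c)) (a + x (me c)) ''
      Icc 0 1), B0.indicator g y) (c := 32 * ‖v (me c)‖) (by positivity) (pw := fun δ => δ ^ 2) ?_
    exact loc_lim volume (continuous_pl _ _) isCompact_Icc hB0
      (hG.finE (me c) (Icc 0 1) isCompact_Icc) (pw := fun δ => 32 * ‖v (me c)‖ * δ ^ 2)
      fun K' hK' _ => hG.tube (me c) K' hK'
  · intro c
    rw [hmf c]
    refine lim_scale (f := fun δ => ∫⁻ y in Om ∩ thickening δ (pt (e (mf c)) (a + xx (mf c)) ''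
      Q (mf c)), B0.indicator g y) (c := 16 * cc (e (mf c)) ^ 2) (by positivity)
      (pw := fun δ => δ) ?_
    exact loc_lim volume (continuous_pt _ _) (hQ (mf c)) hB0
      (hG.finF (mf c) (Q (mf c)) (hQ (mf c))) (pw := fun δ => 16 * cc (e (mf c)) ^ 2 * δ)
      fun K' hK' _ => hG.slab (mf c) K' hK'

end

end Crest.Agent.R096.Efi_296
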