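import Crest.Agent.R096.Str4_968
import Crest.Agent.R096.Cob4_622

/-!
Row 96 (S0127), helper968, leaf STRIP, part 5: the limit `δ → 0` of the bound `SB` of the strips,
from localised covers of the rims and of `Z` by closed pieces of edges and of faces.
-/

set_option autoImplicit false
set_option linter.unusedSectionVars false

open Set Metric Filter Topology MeasureTheory

namespace Crest.Agent.R096.Str_968

open Crest.Agent.R096.Ce_537 Crest.Agent.R096.Bd_416 Crest.Agent.R96.Hole_348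
open Crest.AnalysisR.VecCalc3 Crest.AnalysisR.Sobolev Crest.Agent.R096.Sk_962
open Crest.Agent.R096.Sq_55 Crest.Agent.R096.Sqt_143 Crest.Agent.R096.Cob_622
open scoped ENNReal NNReal

/-- closed pieces of edges and faces which cover the rims and `Z` inside `N₁` (helper622's `EF`,
localised; `EF` is the case `N₁ = univ`) -/
structure EFN {κ ι : Type*} (X : Sys κ ι) (Om : Set R3) (g : R3 → ℝ≥0∞) (N₁ : Set E3)
    (α β : Type*) where
  eg : α → Set R3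
  fc : β → Set R3
  rimE : ι → Finset α
  clF : ∀ b, IsClosed (fc b)
  hrim : ∀ j, w2 '' ((X.F j).rim ∩ N₁) ⊆ ⋃ a ∈ rimE j, eg a
  hZ : w2 '' (X.Z ∩ N₁) ⊆ (⋃ a, eg a) ∪ ⋃ b, fc b
  Ee : α → ℝ≥0∞
  Ef : β → ℝ≥0∞
  fE : ∀ a, Ee a ≠ ∞
  hE : ∀ a, ∀ η : ℝ≥0∞, 0 < η → ∀ᶠ δ in 𝓝[>] (0:ℝ),
    ∫⁻ y in Om ∩ thickening δ (eg a), g y ≤ ENNReal.ofReal (δ^2) * (Ee a + η)
  hF : ∀ b, ∀ η : ℝ≥0∞, 0 < η → ∀ᶠ δ in 𝓝[>] (0:ℝ),
    ∫⁻ y in Om ∩ thickening δ (fc b), g y ≤ ENNReal.ofReal δ * (Ef b + η)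

/-- the global data, localised trivially -/
def EFN.ofEF {κ ι α β : Type*} {X : Sys κ ι} {Om : Set R3} {g : R3 → ℝ≥0∞}
    (D : EF X Om g α β) (N₁ : Set E3) : EFN X Om g N₁ α β where
  eg := D.eg
  fc := D.fc
  rimE := D.rimE
  clF := D.clF
  hrim j := (image_mono inter_subset_left).trans (D.hrim j)
  hZ := (image_mono inter_subset_left).trans D.hZ
  Ee := D.Ee
  Ef := D.Ef
  fE := D.fE
  hE := D.hE
  hF := D.hF

open Classical in
/-- the functional of the strip in the cell `k` inside `N`, thickness `c δ` -/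
noncomputable def EFN.J {κ ι α β : Type*} [Fintype ι] [Fintype β] {X : Sys κ ι} {Om : Set R3}
    {g : R3 → ℝ≥0∞} {N₁ : Set E3} (D : EFN X Om g N₁ α β) (k : κ) (N : Set E3) (c : ℝ) : ℝ≥0∞ :=
  ENNReal.ofReal (9 * c^2 * (X.C k).R) *
    (∑ j ∈ Finset.univ.filter fun j => ((X.F j).V ∩ (X.C k).P).Nonempty,
      ENNReal.ofReal (X.F j).ρ * ∑ a ∈ D.rimE j, D.Ee a) +
  ENNReal.ofReal (3 * c * (X.C k).R) *
    ∑ b ∈ Finset.univ.filter fun b => (D.fc b ∩ w2 '' ((X.C k).P ∩ N)).Nonempty, D.Ef b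

/-- the bracket of 143's `tube_int`: `N` closed, `t` the thickness -/
noncomputable def SBc {κ ι : Type*} [Fintype ι] (X : Sys κ ι) (δ t : ℝ) (k : κ) (N : Set E3)
    (v : E3 → ℝ≥0∞) : ℝ≥0∞ :=
  ENNReal.ofReal ((X.C k).R / δ) *
    ((∑ j, ENNReal.ofReal ((X.F j).ρ / δ) *
      ∫⁻ x in (X.C k).P ∩ (X.F j).V ∩ N ∩ cthickening t (X.F j).rim, v x) +
    ∫⁻ x in (X.C k).P ∩ N ∩ (cthickening t X.Z ∪ ⋃ j, cthickening t (X.F j).rim), v x)

lemma nb_sub_cth (t : ℝ) (S : Set E3) : nb t S ⊆ cthickening t S := by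
  rintro x ⟨y, hy, hxy⟩
  exact mem_cthickening_of_dist_le x y t S hy (by rwa [dist_eq_norm])

lemma SB_le_SBc {κ ι : Type*} [Fintype κ] [Fintype ι] {X : Sys κ ι} {δ t : ℝ} {k : κ} {N : Set E3}
    {v : E3 → ℝ≥0∞} : SB X δ t k N v ≤ SBc X δ t k N v := by
  refine mul_le_mul' le_rfl (add_le_add (Finset.sum_le_sum fun j _ => mul_le_mul' le_rfl
    (lintegral_mono_set ?_)) (lintegral_mono_set ?_))
  · rintro x ⟨⟨⟨h1, h2⟩, h3⟩, h4⟩
    exact ⟨⟨⟨h1, h2⟩, h4⟩, nb_sub_cth _ _ h3⟩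
  · rintro x ⟨⟨⟨h1, -⟩, h3⟩, h4⟩
    refine ⟨⟨h1, h4⟩, ?_⟩
    rcases h3 with h3 | h3
    · exact Or.inl (nb_sub_cth _ _ h3)
    · obtain ⟨j, hj⟩ := mem_iUnion.1 h3
      exact Or.inr (mem_iUnion.2 ⟨j, nb_sub_cth _ _ hj⟩)

lemma evc {P : ℝ → Prop} {c : ℝ} (hc : 0 < c) (h : ∀ᶠ δ in 𝓝[>] (0:ℝ), P δ) :
    ∀ᶠ δ in 𝓝[>] (0:ℝ), P (c * δ) := by
  have h2 : Tendsto (fun δ : ℝ => c * δ) (𝓝[>] 0) (𝓝[>] 0) := by
    rw [tendsto_nhdsWithin_iff]
    constructor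
    · have : Tendsto (fun δ : ℝ => c * δ) (𝓝 0) (𝓝 (c * 0)) :=
        (continuous_const.mul continuous_id).tendsto 0
      rw [mul_zero] at this
      exact this.mono_left nhdsWithin_le_nhds
    · filter_upwards [self_mem_nhdsWithin] with δ hδ
      have : (0:ℝ) < δ := hδ
      show (0:ℝ) < c * δ
      positivity
  exact h2.eventually h

/-- **the limit of the right side of the strip estimate** -/
theorem rhs_stripc {κ ι α β : Type*} [Fintype κ] [Fintype ι] [Fintype α] [Fintype β] {X : Sys κ ι}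
    {Om : Set R3} {g : R3 → ℝ≥0∞} {N₁ : Set E3} (D : EFN X Om g N₁ α β) {k : κ}
    (hC : (X.C k).P ⊆ w2 ⁻¹' Om) {N : Set E3} (hN : IsClosed N) {s₀ : ℝ} (hs₀ : 0 < s₀)
    (hN₁ : nb s₀ ((X.C k).P ∩ N) ⊆ N₁) {c : ℝ} (hc : 0 < c) {ε : ℝ≥0∞} (hε : ε ≠ 0) :
    ∀ᶠ δ in 𝓝[>] (0:ℝ), SBc X δ (c * δ) k N (fun x => g (w2 x)) ≤ D.J k N c + ε := by
  classical
  have hR : (0:ℝ) ≤ (X.C k).R := (X.C k).R.coe_nonneg
  have hρ : ∀ j, (0:ℝ) ≤ (X.F j).ρ := fun j => (X.F j).ρ.coe_nonneg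
  have hε2 : ε / 2 ≠ 0 := by
    rw [Ne, ENNReal.div_eq_zero_iff]; push Not
    exact ⟨hε, ENNReal.ofNat_ne_top⟩
  set FJ := Finset.univ.filter fun j => ((X.F j).V ∩ (X.C k).P).Nonempty with hFJ
  set FB := Finset.univ.filter fun b => (D.fc b ∩ w2 '' ((X.C k).P ∩ N)).Nonempty with hFB
  set a2 : ℝ := 9 * c^2 * (X.C k).R with ha2
  set a1 : ℝ := 3 * c * (X.C k).R with ha1
  have ha20 : 0 ≤ a2 := by positivity
  have ha10 : 0 ≤ a1 := by positivity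
  set W : ℝ≥0∞ := (ENNReal.ofReal a2 * ∑ j ∈ FJ, ENNReal.ofReal (X.F j).ρ *
    ((D.rimE j).card : ℝ≥0∞)) + ENNReal.ofReal a1 * (FB.card : ℝ≥0∞) with hW
  have hWt : W ≠ ∞ := by
    refine ENNReal.add_ne_top.2 ⟨ENNReal.mul_ne_top ENNReal.ofReal_ne_top ?_, ?_⟩
    · exact (ENNReal.sum_lt_top.2 fun j _ => ENNReal.mul_lt_top ENNReal.ofReal_lt_top
        (ENNReal.natCast_lt_top _)).ne
    · exact ENNReal.mul_ne_top ENNReal.ofReal_ne_top (ENNReal.natCast_ne_top _)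
  obtain ⟨β', hβ', hWβ⟩ := exists_small hWt hε2
  set η : ℝ≥0∞ := min β' 1 with hη
  have hη0 : 0 < η := lt_min (pos_iff_ne_zero.2 hβ') one_pos
  have hηt : η ≠ ∞ := ne_top_of_le_ne_top ENNReal.one_ne_top (min_le_right _ _)
  have hWη : W * η ≤ ε / 2 := (mul_le_mul' le_rfl (min_le_left _ _)).trans hWβ
  set SE : ℝ≥0∞ := ∑ a, (D.Ee a + η) with hSE
  have hSEt : SE ≠ ∞ := (ENNReal.sum_lt_top.2 fun a _ =>
    ENNReal.add_lt_top.2 ⟨(D.fE a).lt_top, hηt.lt_top⟩).ne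
  -- the vanishing term
  have hv : ∀ᶠ δ in 𝓝[>] (0:ℝ), ENNReal.ofReal (a2 * δ) * SE ≤ ε / 2 := by
    have h1 : Tendsto (fun δ : ℝ => a2 * δ) (𝓝[>] 0) (𝓝 (a2 * 0)) :=
      ((continuous_const.mul continuous_id).tendsto 0).mono_left nhdsWithin_le_nhds
    have h2 := ENNReal.tendsto_ofReal h1
    rw [mul_zero, ENNReal.ofReal_zero] at h2
    have h3 := ENNReal.Tendsto.mul_const h2 (Or.inr hSEt)
    rw [zero_mul] at h3
    exact (h3.eventually (gt_mem_nhds (pos_iff_ne_zero.2 hε2))).mono fun _ h => h.le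
  have h3c : 0 < 3 * c := by positivity
  have hE3 : ∀ᶠ δ in 𝓝[>] (0:ℝ), ∀ a, ∫⁻ y in Om ∩ thickening (3 * c * δ) (D.eg a), g y ≤
      ENNReal.ofReal ((3 * c * δ)^2) * (D.Ee a + η) :=
    eventually_all.2 fun a => evc h3c (D.hE a η hη0)
  have hF3 : ∀ᶠ δ in 𝓝[>] (0:ℝ), ∀ b, ∫⁻ y in Om ∩ thickening (3 * c * δ) (D.fc b), g y ≤
      ENNReal.ofReal (3 * c * δ) * (D.Ef b + η) :=
    eventually_all.2 fun b => evc h3c (D.hF b η hη0)
  have hdis : ∀ᶠ δ in 𝓝[>] (0:ℝ), ∀ b, ¬ (D.fc b ∩ w2 '' ((X.C k).P ∩ N)).Nonempty →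
      Disjoint (thickening (3 * (c * δ)) (D.fc b)) (w2 '' ((X.C k).P ∩ N)) := by
    refine eventually_all.2 fun b => ?_
    by_cases h : (D.fc b ∩ w2 '' ((X.C k).P ∩ N)).Nonempty
    · exact Eventually.of_forall fun _ h2 => absurd h h2
    · have h1 : Disjoint (D.fc b) (w2 '' ((X.C k).P ∩ N)) := by
        rwa [Set.disjoint_iff_inter_eq_empty, ← not_nonempty_iff_eq_empty]
      filter_upwards [evc hc (disjoint_small (D.clF b)
        (((isCompact_P (X.C k)).inter_right hN).image w2.continuous) h1)] with δ hδ _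
      exact hδ
  have hs : ∀ᶠ δ in 𝓝[>] (0:ℝ), 2 * (c * δ) < s₀ := by
    have h1 : ∀ᶠ δ in 𝓝[>] (0:ℝ), δ < s₀ / (2 * c) :=
      (eventually_lt_nhds (by positivity : (0:ℝ) < s₀ / (2 * c))).filter_mono nhdsWithin_le_nhds
    filter_upwards [h1] with δ hδ
    rw [lt_div_iff₀ (by positivity)] at hδ
    linarith
  filter_upwards [hv, hE3, hF3, hdis, hs, self_mem_nhdsWithin] with δ h1 h2 h3 h4 hsδ hδ
  have hδ : (0:ℝ) < δ := hδ
  set t := c * δ with ht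
  have ht0 : 0 < t := by positivity
  have e3t : 3 * c * δ = 3 * t := by rw [ht]; ring
  rw [e3t] at h2 h3
  clear_value t
  -- points near a set, localised
  have hloc : ∀ (A : Set E3) (x : E3), x ∈ (X.C k).P ∩ N → x ∈ cthickening t A →
      ∃ z ∈ w2 '' (A ∩ N₁), dist (w2 x) z < 3 * t := by
    intro A x hx hxA
    have h6 := cthickening_subset_thickening' (by positivity : 0 < 3 / 2 * t)
      (by linarith : t < 3 / 2 * t) A hxA
    obtain ⟨y, hy, hxy⟩ := mem_thickening_iff.1 h6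
    rw [dist_eq_norm] at hxy
    refine ⟨w2 y, mem_image_of_mem _ ⟨hy, hN₁ ⟨x, hx, ?_⟩⟩, ?_⟩
    · rw [norm_sub_rev]; linarith
    · rw [dist_eq_norm]
      have := w2_lip x y
      linarith
  -- the face terms
  have t1 : ∀ j, ENNReal.ofReal ((X.C k).R / δ) * (ENNReal.ofReal ((X.F j).ρ / δ) *
      ∫⁻ x in (X.C k).P ∩ (X.F j).V ∩ N ∩ cthickening t (X.F j).rim, g (w2 x)) ≤
      if j ∈ FJ then ENNReal.ofReal a2 * (ENNReal.ofReal (X.F j).ρ *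
        ∑ a ∈ D.rimE j, (D.Ee a + η)) else 0 := by
    intro j
    split_ifs with hj
    · have hs : w2 '' ((X.C k).P ∩ (X.F j).V ∩ N ∩ cthickening t (X.F j).rim) ⊆
          ⋃ a ∈ D.rimE j, (Om ∩ thickening (3 * t) (D.eg a)) := by
        rintro _ ⟨x, ⟨⟨⟨hx1, hx2⟩, hx4⟩, hx3⟩, rfl⟩
        obtain ⟨z, hz, hd⟩ := hloc _ x ⟨hx1, hx4⟩ hx3
        obtain ⟨a, ha, hza⟩ := mem_iUnion₂.1 (D.hrim j hz)
        exact mem_iUnion₂.2 ⟨a, ha, hC hx1, mem_thickening_iff.2 ⟨z, hza, hd⟩⟩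
      have h5 : ∫⁻ x in (X.C k).P ∩ (X.F j).V ∩ N ∩ cthickening t (X.F j).rim, g (w2 x) ≤
          ENNReal.ofReal ((3 * t)^2) * ∑ a ∈ D.rimE j, (D.Ee a + η) := by
        rw [int_w2]
        refine (lintegral_mono_set hs).trans ((lint_biUnion_le _ _ _).trans ?_)
        rw [Finset.mul_sum]
        exact Finset.sum_le_sum fun a _ => h2 a
      refine (mul_le_mul' le_rfl (mul_le_mul' le_rfl h5)).trans (le_of_eq ?_)
      have e : ENNReal.ofReal ((X.C k).R / δ) * ENNReal.ofReal ((X.F j).ρ / δ) *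
          ENNReal.ofReal ((3 * t)^2) = ENNReal.ofReal a2 * ENNReal.ofReal (X.F j).ρ := by
        rw [← ENNReal.ofReal_mul (by positivity), ← ENNReal.ofReal_mul (by positivity),
          ← ENNReal.ofReal_mul ha20]
        congr 1
        rw [ht, ha2]
        field_simp
        ring
      calc _ = ENNReal.ofReal ((X.C k).R / δ) * ENNReal.ofReal ((X.F j).ρ / δ) *
          ENNReal.ofReal ((3 * t)^2) * ∑ a ∈ D.rimE j, (D.Ee a + η) := by ring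
        _ = _ := by rw [e, mul_assoc]
    · have h5 : (X.C k).P ∩ (X.F j).V ∩ N ∩ cthickening t (X.F j).rim = ∅ := by
        rw [← not_nonempty_iff_eq_empty]
        rintro ⟨x, ⟨⟨hx1, hx2⟩, -⟩, -⟩
        exact hj (Finset.mem_filter.2 ⟨Finset.mem_univ _, x, hx2, hx1⟩)
      rw [h5, Measure.restrict_empty, lintegral_zero_measure, mul_zero, mul_zero]
  -- the layer term
  have t2 : ENNReal.ofReal ((X.C k).R / δ) *
      ∫⁻ x in (X.C k).P ∩ N ∩ (cthickening t X.Z ∪ ⋃ j, cthickening t (X.F j).rim),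
        g (w2 x) ≤
      ENNReal.ofReal (a2 * δ) * SE + ENNReal.ofReal a1 * ∑ b ∈ FB, (D.Ef b + η) := by
    have hs : w2 '' ((X.C k).P ∩ N ∩
        (cthickening t X.Z ∪ ⋃ j, cthickening t (X.F j).rim)) ⊆
        (⋃ a ∈ (Finset.univ : Finset α), (Om ∩ thickening (3 * t) (D.eg a))) ∪
        ⋃ b ∈ FB, (Om ∩ thickening (3 * t) (D.fc b)) := by
      rintro _ ⟨x, ⟨⟨hx1, hx4⟩, hx2⟩, rfl⟩
      have hz : ∃ z ∈ (⋃ a, D.eg a) ∪ ⋃ b, D.fc b, dist (w2 x) z < 3 * t := by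
        rcases hx2 with h5 | h5
        · obtain ⟨z, hz, hd⟩ := hloc _ x ⟨hx1, hx4⟩ h5
          exact ⟨z, D.hZ hz, hd⟩
        · obtain ⟨j, hj⟩ := mem_iUnion.1 h5
          obtain ⟨z, hz, hd⟩ := hloc _ x ⟨hx1, hx4⟩ hj
          obtain ⟨a, ha, hza⟩ := mem_iUnion₂.1 (D.hrim j hz)
          exact ⟨z, Or.inl (mem_iUnion.2 ⟨a, hza⟩), hd⟩
      obtain ⟨z, hz | hz, hd⟩ := hz
      · obtain ⟨a, ha⟩ := mem_iUnion.1 hz
        exact Or.inl (mem_iUnion₂.2 ⟨a, Finset.mem_univ _, hC hx1,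
          mem_thickening_iff.2 ⟨z, ha, hd⟩⟩)
      · obtain ⟨b, hb⟩ := mem_iUnion.1 hz
        refine Or.inr (mem_iUnion₂.2 ⟨b, ?_, hC hx1, mem_thickening_iff.2 ⟨z, hb, hd⟩⟩)
        refine Finset.mem_filter.2 ⟨Finset.mem_univ _, ?_⟩
        by_contra hcon
        exact Set.disjoint_left.1 (h4 b hcon) (mem_thickening_iff.2 ⟨z, hb, hd⟩)
          (mem_image_of_mem _ ⟨hx1, hx4⟩)
    have h5 : ∫⁻ x in (X.C k).P ∩ N ∩
        (cthickening t X.Z ∪ ⋃ j, cthickening t (X.F j).rim), g (w2 x) ≤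
        ENNReal.ofReal ((3 * t)^2) * SE + ENNReal.ofReal (3 * t) * ∑ b ∈ FB, (D.Ef b + η) := by
      rw [int_w2]
      refine (lintegral_mono_set hs).trans ((lintegral_union_le _ _ _).trans (add_le_add ?_ ?_))
      · refine (lint_biUnion_le _ _ _).trans ?_
        rw [hSE, Finset.mul_sum]
        exact Finset.sum_le_sum fun a _ => h2 a
      · refine (lint_biUnion_le _ _ _).trans ?_
        rw [Finset.mul_sum]
        exact Finset.sum_le_sum fun b _ => h3 b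
    refine (mul_le_mul' le_rfl h5).trans (le_of_eq ?_)
    have e1 : ENNReal.ofReal ((X.C k).R / δ) * ENNReal.ofReal ((3 * t)^2) =
        ENNReal.ofReal (a2 * δ) := by
      rw [← ENNReal.ofReal_mul (by positivity)]
      congr 1
      rw [ht, ha2]; field_simp; ring
    have e2 : ENNReal.ofReal ((X.C k).R / δ) * ENNReal.ofReal (3 * t) = ENNReal.ofReal a1 := by
      rw [← ENNReal.ofReal_mul (by positivity)]
      congr 1
      rw [ht, ha1]; field_simp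
    rw [mul_add, ← mul_assoc, ← mul_assoc, e1, e2]
  have hsum : ∀ (s : Finset α), ∑ a ∈ s, (D.Ee a + η) = (∑ a ∈ s, D.Ee a) + (s.card : ℝ≥0∞) * η := by
    intro s
    rw [Finset.sum_add_distrib, Finset.sum_const, nsmul_eq_mul]
  have hsumB : ∑ b ∈ FB, (D.Ef b + η) = (∑ b ∈ FB, D.Ef b) + (FB.card : ℝ≥0∞) * η := by
    rw [Finset.sum_add_distrib, Finset.sum_const, nsmul_eq_mul]
  have s1 : ∑ j, ENNReal.ofReal ((X.C k).R / δ) * (ENNReal.ofReal ((X.F j).ρ / δ) *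
      ∫⁻ x in (X.C k).P ∩ (X.F j).V ∩ N ∩ cthickening t (X.F j).rim, g (w2 x)) ≤
      ENNReal.ofReal a2 * (∑ j ∈ FJ, ENNReal.ofReal (X.F j).ρ * ∑ a ∈ D.rimE j, D.Ee a) +
        (ENNReal.ofReal a2 * ∑ j ∈ FJ, ENNReal.ofReal (X.F j).ρ *
          ((D.rimE j).card : ℝ≥0∞)) * η := by
    calc _ ≤ ∑ j, (if j ∈ FJ then ENNReal.ofReal a2 * (ENNReal.ofReal (X.F j).ρ *
          ∑ a ∈ D.rimE j, (D.Ee a + η)) else 0) := Finset.sum_le_sum fun j _ => t1 j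
      _ = ∑ j ∈ FJ, ENNReal.ofReal a2 * (ENNReal.ofReal (X.F j).ρ *
          ∑ a ∈ D.rimE j, (D.Ee a + η)) := by
          rw [Finset.sum_ite_mem, Finset.univ_inter]
      _ = _ := by
          rw [Finset.mul_sum, Finset.mul_sum, Finset.sum_mul, ← Finset.sum_add_distrib]
          refine Finset.sum_congr rfl fun j _ => ?_
          rw [hsum]
          ring
  rw [SBc, mul_add, Finset.mul_sum]
  calc _ ≤ (ENNReal.ofReal a2 * (∑ j ∈ FJ, ENNReal.ofReal (X.F j).ρ *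
          ∑ a ∈ D.rimE j, D.Ee a) + (ENNReal.ofReal a2 * ∑ j ∈ FJ, ENNReal.ofReal (X.F j).ρ *
          ((D.rimE j).card : ℝ≥0∞)) * η) +
        (ENNReal.ofReal (a2 * δ) * SE + ENNReal.ofReal a1 * ∑ b ∈ FB, (D.Ef b + η)) :=
        add_le_add s1 t2
    _ = D.J k N c + (W * η + ENNReal.ofReal (a2 * δ) * SE) := by
        rw [hsumB, hW, EFN.J]
        ring
    _ ≤ D.J k N c + (ε / 2 + ε / 2) := add_le_add le_rfl (add_le_add hWη h1)
    _ = _ := by rw [ENNReal.add_halves]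

/-- the same for `SB` -/
theorem rhs_strip {κ ι α β : Type*} [Fintype κ] [Fintype ι] [Fintype α] [Fintype β] {X : Sys κ ι}
    {Om : Set R3} {g : R3 → ℝ≥0∞} {N₁ : Set E3} (D : EFN X Om g N₁ α β) {k : κ}
    (hC : (X.C k).P ⊆ w2 ⁻¹' Om) {N : Set E3} (hN : IsClosed N) {s₀ : ℝ} (hs₀ : 0 < s₀)
    (hN₁ : nb s₀ ((X.C k).P ∩ N) ⊆ N₁) {c : ℝ} (hc : 0 < c) {ε : ℝ≥0∞} (hε : ε ≠ 0) :
    ∀ᶠ δ in 𝓝[>] (0:ℝ), SB X δ (c * δ) k N (fun x => g (w2 x)) ≤ D.J k N c + ε := by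
  filter_upwards [rhs_stripc D hC hN hs₀ hN₁ hc hε] with δ h
  exact SB_le_SBc.trans h

end Crest.Agent.R096.Str_968
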