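/-
helper296, row 96, COMPOSITE B (622): the instance of 968's localised structure `EFN` of a tiling for
one good position.
-/
import Crest.Agent.R096.Efi3_296
import Crest.Agent.R096.Str5_968

set_option autoImplicit false
set_option linter.unusedSectionVars false
set_option linter.style.longLine false

open Set Metric Filter Topology MeasureTheory
open scoped ENNReal NNReal

namespace Crest.Agent.R096.Efi_296

open Crest.AnalysisR.VecCalc3
open Crest.Agent.R096.Msh_715 (P I Tiling I_sub_P isOpen_I isClosed_P)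
open Crest.Agent.R096.Sq_55 (E3 Sys Face FaceOf w2 IsDp)
open Crest.Agent.R096.Cob_622 (EF)
open Crest.Agent.R096.Str_968 (EFN)
open Crest.Agent.R96.Coarse_538 (seg)
open Crest.Agent.R096.Fce_793 (pt cc continuous_pt)
open Crest.Agent.R096.Slb_296
open Crest.Agent.R96.En10_199 (P3)

noncomputable section

/-- the localised instance, from given limits -/
def mkEFN {Om : Set E3} {ι : Type*} {T : Tiling Om ι} {s : Finset ι} {pr : T.Cell → Prop}
    (X : Sys s (reps T s pr))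
    (hrim : ∀ x : reps T s pr, (X.F x).rim = T.cc (x : E3) \ T.oc (x : E3))
    (hZ : X.Z = Zs T s pr) {N₁ : Set E3} (hN : IsClosed N₁) (Om' : Set R3) (g : R3 → ℝ≥0∞)
    (Ee : EgS T s → ℝ≥0∞) (Ef : FcS T s pr → ℝ≥0∞) (fE : ∀ a, Ee a ≠ ∞)
    (hE : ∀ a : EgS T s, ∀ η : ℝ≥0∞, 0 < η → ∀ᶠ δ in 𝓝[>] (0:ℝ),
      ∫⁻ y in Om' ∩ thickening δ (w2 '' (a.1.set ∩ N₁)), g y ≤ ENNReal.ofReal (δ^2) * (Ee a + η))
    (hF : ∀ b : FcS T s pr, ∀ η : ℝ≥0∞, 0 < η → ∀ᶠ δ in 𝓝[>] (0:ℝ),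
      ∫⁻ y in Om' ∩ thickening δ (w2 '' (b.1.set ∩ N₁)), g y ≤ ENNReal.ofReal δ * (Ef b + η)) :
    EFN X Om' g N₁ (EgS T s) (FcS T s pr) where
  eg a := w2 '' (a.1.set ∩ N₁)
  fc b := w2 '' (b.1.set ∩ N₁)
  rimE x := rimS T s x
  clF b := w2.isClosed_image.2 ((isClosed_set _).inter hN)
  hrim := by
    intro x
    have h0 := reps_dim x.2
    rw [hrim x]
    rintro _ ⟨y, ⟨hy, hyN⟩, rfl⟩
    have h1 := bdry_sub h0.1 h0.2 (reps_tile x.2) hy
    obtain ⟨c, hc, hyc⟩ := mem_iUnion₂.1 h1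
    exact mem_iUnion₂.2 ⟨c, hc, y, ⟨hyc, hyN⟩, rfl⟩
  hZ := by
    rw [hZ]
    rintro _ ⟨y, ⟨hy | hy, hyN⟩, rfl⟩
    · obtain ⟨c, hc, hyc⟩ := mem_iUnion₂.1 hy
      exact .inl (mem_iUnion.2 ⟨⟨c, hc⟩, y, ⟨hyc, hyN⟩, rfl⟩)
    · obtain ⟨c, hc, hyc⟩ := mem_iUnion₂.1 hy
      exact .inr (mem_iUnion.2 ⟨⟨c, hc⟩, y, ⟨hyc, hyN⟩, rfl⟩)
  Ee := Ee
  Ef := Ef
  fE := fE
  hE := hE
  hF := hF

theorem image_inter_pre {W : Type*} {γ : W → R3} {K : Set W} {S N₁ : Set E3}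
    (h : w2 '' S = γ '' K) : w2 '' (S ∩ N₁) = γ '' (K ∩ γ ⁻¹' (w2 '' N₁)) := by
  rw [image_inter w2.injective, h, image_inter_preimage]

section maps

variable {OmR : Set R3} {ι : Type*} {T : Tiling OmR ι} {W Om : Set R3} {κe κf : Type*}
  {x v : κe → R3} {e : κf → Fin 2 → R3} {xx : κf → R3} {a : R3} {Q : κf → Set (ℝ × ℝ)}
  {s : Finset ι} {pr : (Te T).Cell → Prop}

/-- the indices of the 1-cells and of the unsqueezed 2-cells -/
theorem exists_maps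
    (hce : ∀ y ∈ OmR, T.dim y = 1 → T.cc y ⊆ W → ∃ i, T.cc y = seg x v a i)
    (hs : ∀ k ∈ s, P (T.H k) ⊆ W)
    (hcf : ∀ c ∈ FcS (Te T) s pr, ∃ φ, T.cc (P3 c.pt) = pt (e φ) (a + xx φ) '' Q φ) :
    ∃ (me : EgS (Te T) s → κe) (mf : FcS (Te T) s pr → κf),
      (∀ c, w2 '' c.1.set = seg x v a (me c)) ∧
      ∀ c, w2 '' c.1.set = pt (e (mf c)) (a + xx (mf c)) '' Q (mf c) := by
  have hme : ∀ c : EgS (Te T) s, ∃ i, w2 '' c.1.set = seg x v a i := by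
    rintro ⟨c, hc1, k, hk, hck⟩
    obtain ⟨h1, h2, h3⟩ := image_set T c
    obtain ⟨i, hi⟩ := hce _ h2 (h3.trans hc1) ((image_sub T hck).trans (hs k hk))
    exact ⟨i, h1.trans hi⟩
  have hmf : ∀ c : FcS (Te T) s pr, ∃ φ, w2 '' c.1.set = pt (e φ) (a + xx φ) '' Q φ := by
    rintro ⟨c, hc⟩
    obtain ⟨φ, hφ⟩ := hcf c hc
    exact ⟨φ, (image_set T c).1.trans hφ⟩
  choose me hme using hme
  choose mf hmf using hmf
  exact ⟨me, mf, hme, hmf⟩

/-- the closed 1-cells and 2-cells of the tiles of `s` lie in `W` -/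
theorem image_sub_W (hs : ∀ k ∈ s, P (T.H k) ⊆ W) {c : (Te T).Cell}
    (hc : ∃ k ∈ s, c.set ⊆ P ((Te T).H k)) : w2 '' c.set ⊆ W := by
  obtain ⟨k, hk, hck⟩ := hc
  rw [(image_set T c).1]
  exact (image_sub T hck).trans (hs k hk)

/-- **EF-INST**, the global data in the form consumed by 538's `sum_J_le` -/
theorem ef_std {g : R3 → ℝ≥0∞} (hG : GoodA Om g x v e xx a) (hQ : ∀ φ, IsCompact (Q φ))
    (hWO : W ⊆ Om) (hs : ∀ k ∈ s, P (T.H k) ⊆ W) {me : EgS (Te T) s → κe}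
    {mf : FcS (Te T) s pr → κf} (hme : ∀ c, w2 '' c.1.set = seg x v a (me c))
    (hmf : ∀ c, w2 '' c.1.set = pt (e (mf c)) (a + xx (mf c)) '' Q (mf c))
    (X : Sys s (reps (Te T) s pr))
    (hrim : ∀ y : reps (Te T) s pr, (X.F y).rim = (Te T).cc (y : E3) \ (Te T).oc (y : E3))
    (hZ : X.Z = Zs (Te T) s pr) :
    ∃ D : EF X Om g (EgS (Te T) s) (FcS (Te T) s pr),
      (∀ c, D.eg c = w2 '' c.1.set) ∧ (∀ c, D.fc c = w2 '' c.1.set) ∧
      (∀ y, D.rimE y = rimS (Te T) s (y : E3)) ∧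
      (∀ c, D.Ee c = ENNReal.ofReal (64 * ‖v (me c)‖) *
        ∫⁻ σ in Ioc (0:ℝ) 1, g (a + x (me c) + σ • v (me c))) ∧
      ∀ c, D.Ef c = ENNReal.ofReal (16 * cc (e (mf c)) ^ 2) *
        ∫⁻ w in Q (mf c), g (pt (e (mf c)) (a + xx (mf c)) w) := by
  have hE1 : ∀ c : EgS (Te T) s, ∫⁻ σ in Icc (0:ℝ) 1,
      Om.indicator g (pl (v (me c)) (a + x (me c)) σ) =
      ∫⁻ σ in Ioc (0:ℝ) 1, g (a + x (me c) + σ • v (me c)) := by
    intro c
    rw [restrict_Ioc_eq_restrict_Icc]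
    apply setLIntegral_congr_fun measurableSet_Icc
    intro σ hσ
    have h1 : pl (v (me c)) (a + x (me c)) σ ∈ Om := by
      apply hWO
      apply image_sub_W hs c.2.2
      rw [hme c]
      exact ⟨σ, hσ, rfl⟩
    exact indicator_of_mem h1 g
  have hF1 : ∀ c : FcS (Te T) s pr, ∫⁻ w in Q (mf c),
      Om.indicator g (pt (e (mf c)) (a + xx (mf c)) w) =
      ∫⁻ w in Q (mf c), g (pt (e (mf c)) (a + xx (mf c)) w) := by
    intro c
    apply setLIntegral_congr_fun (hQ (mf c)).measurableSet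
    intro w hw
    have h1 : pt (e (mf c)) (a + xx (mf c)) w ∈ Om := by
      apply hWO
      apply image_sub_W hs c.2.1.2
      rw [hmf c]
      exact ⟨w, hw, rfl⟩
    exact indicator_of_mem h1 g
  refine ⟨mkEF X hrim hZ Om g
    (fun c => ENNReal.ofReal (64 * ‖v (me c)‖) *
      ∫⁻ σ in Ioc (0:ℝ) 1, g (a + x (me c) + σ • v (me c)))
    (fun c => ENNReal.ofReal (16 * cc (e (mf c)) ^ 2) *
      ∫⁻ w in Q (mf c), g (pt (e (mf c)) (a + xx (mf c)) w))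
    (fun c => ENNReal.mul_ne_top ENNReal.ofReal_ne_top
      (by rw [← hE1 c]; exact hG.finE (me c) _ isCompact_Icc)) ?_ ?_,
    fun _ => rfl, fun _ => rfl, fun _ => rfl, fun _ => rfl, fun _ => rfl⟩
  · intro c
    have h1 := lim_scale (f := fun δ => ∫⁻ y in Om ∩ thickening δ (pl (v (me c)) (a + x (me c)) ''
      Icc (0:ℝ) 1), g y) (c := 32 * ‖v (me c)‖) (by positivity) (pw := fun δ => δ ^ 2)
      (hG.tube (me c) _ isCompact_Icc)
    rw [hme c, seg_eq_pl]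
    intro η hη
    filter_upwards [h1 η hη] with δ hδ
    refine hδ.trans (mul_le_mul' le_rfl (add_le_add ?_ le_rfl))
    rw [hE1 c]
    refine mul_le_mul' (ENNReal.ofReal_le_ofReal ?_) le_rfl
    have := norm_nonneg (v (me c))
    linarith
  · intro c
    have h1 := lim_scale (f := fun δ => ∫⁻ y in Om ∩ thickening δ
      (pt (e (mf c)) (a + xx (mf c)) '' Q (mf c)), g y)
      (c := 16 * cc (e (mf c)) ^ 2) (by positivity) (pw := fun δ => δ)
      (hG.slab (mf c) _ (hQ (mf c)))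
    rw [hmf c, ← hF1 c]
    exact h1

/-- **EFN-INST**: 968's localised data -/
theorem efn_at {g : R3 → ℝ≥0∞} (hG : GoodA Om g x v e xx a) (hQ : ∀ φ, IsCompact (Q φ))
    {me : EgS (Te T) s → κe} {mf : FcS (Te T) s pr → κf}
    (hme : ∀ c, w2 '' c.1.set = seg x v a (me c))
    (hmf : ∀ c, w2 '' c.1.set = pt (e (mf c)) (a + xx (mf c)) '' Q (mf c))
    (X : Sys s (reps (Te T) s pr))
    (hrim : ∀ y : reps (Te T) s pr, (X.F y).rim = (Te T).cc (y : E3) \ (Te T).oc (y : E3))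
    (hZ : X.Z = Zs (Te T) s pr) {N₁ : Set E3} (hN : IsClosed N₁) :
    ∃ D : EFN X Om g N₁ (EgS (Te T) s) (FcS (Te T) s pr),
      (∀ c, D.eg c = w2 '' (c.1.set ∩ N₁)) ∧ (∀ c, D.fc c = w2 '' (c.1.set ∩ N₁)) ∧
      (∀ y, D.rimE y = rimS (Te T) s (y : E3)) ∧
      (∀ c, D.Ee c = ENNReal.ofReal (32 * ‖v (me c)‖) *
        ∫⁻ σ in Icc 0 1 ∩ pl (v (me c)) (a + x (me c)) ⁻¹' (w2 '' N₁),
          Om.indicator g (pl (v (me c)) (a + x (me c)) σ)) ∧
      ∀ c, D.Ef c = ENNReal.ofReal (16 * cc (e (mf c)) ^ 2) *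
        ∫⁻ w in Q (mf c) ∩ pt (e (mf c)) (a + xx (mf c)) ⁻¹' (w2 '' N₁),
          Om.indicator g (pt (e (mf c)) (a + xx (mf c)) w) := by
  have hB : IsClosed (w2 '' N₁) := w2.isClosed_image.2 hN
  have hK1 : ∀ c, IsCompact (Icc (0:ℝ) 1 ∩ pl (v (me c)) (a + x (me c)) ⁻¹' (w2 '' N₁)) :=
    fun c => isCompact_Icc.inter_right (hB.preimage (continuous_pl _ _))
  have hK2 : ∀ c, IsCompact (Q (mf c) ∩ pt (e (mf c)) (a + xx (mf c)) ⁻¹' (w2 '' N₁)) :=
    fun c => (hQ (mf c)).inter_right (hB.preimage (continuous_pt _ _))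
  refine ⟨mkEFN X hrim hZ hN Om g
    (fun c => ENNReal.ofReal (32 * ‖v (me c)‖) *
      ∫⁻ σ in Icc 0 1 ∩ pl (v (me c)) (a + x (me c)) ⁻¹' (w2 '' N₁),
        Om.indicator g (pl (v (me c)) (a + x (me c)) σ))
    (fun c => ENNReal.ofReal (16 * cc (e (mf c)) ^ 2) *
      ∫⁻ w in Q (mf c) ∩ pt (e (mf c)) (a + xx (mf c)) ⁻¹' (w2 '' N₁),
        Om.indicator g (pt (e (mf c)) (a + xx (mf c)) w))
    (fun c => ENNReal.mul_ne_top ENNReal.ofReal_ne_top (hG.finE (me c) _ (hK1 c))) ?_ ?_,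
    fun _ => rfl, fun _ => rfl, fun _ => rfl, fun _ => rfl, fun _ => rfl⟩
  · intro c
    have h1 : w2 '' (c.1.set ∩ N₁) = pl (v (me c)) (a + x (me c)) ''
        (Icc 0 1 ∩ pl (v (me c)) (a + x (me c)) ⁻¹' (w2 '' N₁)) :=
      image_inter_pre ((hme c).trans (seg_eq_pl x v a (me c)))
    rw [h1]
    exact lim_scale (f := fun δ => ∫⁻ y in Om ∩ thickening δ (pl (v (me c)) (a + x (me c)) ''
      (Icc 0 1 ∩ pl (v (me c)) (a + x (me c)) ⁻¹' (w2 '' N₁))), g y) (c := 32 * ‖v (me c)‖)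
      (by positivity) (pw := fun δ => δ ^ 2) (hG.tube (me c) _ (hK1 c))
  · intro c
    rw [image_inter_pre (hmf c)]
    exact lim_scale (f := fun δ => ∫⁻ y in Om ∩ thickening δ (pt (e (mf c)) (a + xx (mf c)) ''
      (Q (mf c) ∩ pt (e (mf c)) (a + xx (mf c)) ⁻¹' (w2 '' N₁))), g y)
      (c := 16 * cc (e (mf c)) ^ 2) (by positivity) (pw := fun δ => δ)
      (hG.slab (mf c) _ (hK2 c))

end maps

open Classical in
/-- 968's functional `EFN.J` in terms of the edges of the tile `k` and of the unsqueezed faces which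
meet it inside `N` -/
theorem JN_le {Om : Set E3} {ι : Type*} {T : Tiling Om ι} {s : Finset ι} {pr : T.Cell → Prop}
    {X : Sys s (reps T s pr)} {Om' : Set R3} {g : R3 → ℝ≥0∞} {N₁ : Set E3}
    (D : EFN X Om' g N₁ (EgS T s) (FcS T s pr)) {c : ι → E3}
    (hc : ∀ i, c i ∈ I (T.H i)) (hXF : ∀ x : reps T s pr, FaceOf T c (x : E3) (X.F x))
    (hXP : ∀ k : s, (X.C k).P = P (T.H k)) (hfc : ∀ b, D.fc b = w2 '' (b.1.set ∩ N₁))
    (hrE : ∀ x, D.rimE x = rimS T s (x : E3)) (k : s) (N : Set E3) (t : ℝ) {r : ℝ≥0} {n : ℕ}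
    (hr : ∀ x : reps T s pr, (k : ι) ∈ T.at_ (x : E3) → (X.F x).ρ ≤ r)
    (hn : (Finset.univ.filter fun x : reps T s pr => (k : ι) ∈ T.at_ (x : E3)).card ≤ n) :
    D.J k N t ≤ ENNReal.ofReal (9 * t ^ 2 * (X.C k).R) * (((n : ℝ≥0∞) * r) *
        (∑ c ∈ Finset.univ.filter fun c : EgS T s => c.1.set ⊆ P (T.H k), D.Ee c)) +
      ENNReal.ofReal (3 * t * (X.C k).R) *
        ∑ b ∈ Finset.univ.filter fun b : FcS T s pr =>
          (b.1.set ∩ N₁ ∩ (P (T.H k) ∩ N)).Nonempty, D.Ef b := by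
  unfold EFN.J
  gcongr ENNReal.ofReal (9 * t ^ 2 * (X.C k).R) * ?_ + ENNReal.ofReal (3 * t * (X.C k).R) * ?_
  · set S : ℝ≥0∞ := ∑ c ∈ Finset.univ.filter fun c : EgS T s => c.1.set ⊆ P (T.H k), D.Ee c
    have h1 : ∀ x : reps T s pr, ((X.F x).V ∩ (X.C k).P).Nonempty →
        (k : ι) ∈ T.at_ (x : E3) := by
      rintro x ⟨y, hy1, hy2⟩
      rw [hXP k] at hy2
      exact mem_at_of_V (hXF x) hc (reps_dim x.2).1 hy1 hy2
    calc (∑ j ∈ Finset.univ.filter fun j => ((X.F j).V ∩ (X.C k).P).Nonempty,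
        ENNReal.ofReal (X.F j).ρ * ∑ a ∈ D.rimE j, D.Ee a)
        ≤ ∑ j ∈ Finset.univ.filter (fun x : reps T s pr => (k : ι) ∈ T.at_ (x : E3)),
            ENNReal.ofReal (X.F j).ρ * ∑ a ∈ D.rimE j, D.Ee a := by
          apply Finset.sum_le_sum_of_subset
          intro x hx
          rw [Finset.mem_filter] at hx ⊢
          exact ⟨Finset.mem_univ _, h1 x hx.2⟩
      _ ≤ ∑ j ∈ Finset.univ.filter (fun x : reps T s pr => (k : ι) ∈ T.at_ (x : E3)),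
            (r : ℝ≥0∞) * S := by
          apply Finset.sum_le_sum
          intro x hx
          rw [Finset.mem_filter] at hx
          have h2 : ENNReal.ofReal (X.F x).ρ ≤ (r : ℝ≥0∞) := by
            rw [ENNReal.ofReal_coe_nnreal]
            exact_mod_cast hr x hx.2
          refine mul_le_mul' h2 ?_
          rw [hrE x]
          apply Finset.sum_le_sum_of_subset
          intro a ha
          rw [Finset.mem_filter]
          exact ⟨Finset.mem_univ _, (mem_rimS.1 ha).trans (T.cc_sub_tile hx.2)⟩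
      _ ≤ ((n : ℝ≥0∞) * r) * S := by
          rw [Finset.sum_const, nsmul_eq_mul, mul_assoc]
          gcongr
  · apply Finset.sum_le_sum_of_subset
    intro b hb
    rw [Finset.mem_filter] at hb ⊢
    refine ⟨Finset.mem_univ _, ?_⟩
    obtain ⟨y, hy1, hy2⟩ := hb.2
    rw [hfc b] at hy1
    obtain ⟨z, hz, rfl⟩ := hy1
    obtain ⟨z', hz', e'⟩ := hy2
    have : z' = z := w2.injective e'
    subst this
    exact ⟨z', hz, by rw [← hXP k]; exact hz'⟩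

end

end Crest.Agent.R096.Efi_296
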