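import Crest.Agent.R096.Sq28_55

/-!
# R096 (row 96), SOBSQ, part 29 (helper55): **`exists_sys_edge`**: for every tiling with finite shape
lists there is a system whose constants and whose edges (143's `Edge`) have uniform numbers.
-/

set_option autoImplicit false
set_option linter.unusedSectionVars false

open Set Metric Filter Topology

namespace Crest.Agent.R096.Sq_55

open Crest.Agent.R096.Ce_537 Crest.Agent.R096.Bd_416 Crest.Agent.R96.Hole_348
open Crest.Agent.R096.Sqt_143 (Tv map_line aff_sub fo OnC OnF CellT FaceT Edge)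
open Crest.Agent.R096.Msh_715 (P I Tiling I_sub_P isOpen_I isClosed_P convex_P mem_I_of_move
  disjoint_P_I isBall_P_top mem_I_small)
open scoped NNReal

section tiling

variable {Om : Set E3} {ι : Type*} {T : Tiling Om ι}

/-- the data of the cell charts and of the face charts which are used for the edges -/
structure CF (T : Tiling Om ι) (A : Set ι) (B : ι → E3 ≃ᵃ[ℝ] E3) (R u : ι → ℝ≥0) (c : ι → E3)
    {s : Finset ι} {Fs : Finset E3} (C : s → Cell) (F : Fs → Face) : Prop where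
  hS : ∀ i ∈ A, Shp2 T i (B i) (R i) (u i)
  hc : ∀ i, c i ∈ I (T.H i)
  hcB : ∀ i ∈ A, c i = ctT T i (B i)
  hsA : ∀ k ∈ s, k ∈ A
  hFs : ∀ x ∈ Fs, x ∈ Om ∧ T.dim x = 2
  hFA : ∀ x ∈ Fs, ∀ k ∈ T.at_ x, k ∈ A
  CP : ∀ k : s, (C k).P = P (T.H k) ∧ (C k).U = I (T.H k)
  CT : ∀ k : s, ∀ a v : E3, segment ℝ a (a + v) ⊆ P (T.H k) →
    Disjoint (segment ℝ a (a + v)) (I (T.H k)) → ∀ w : ℝ≥0, u k ≤ w →
    nuC (B k '' P (T.H k)) (B k '' segment ℝ a (a + v)) ≤ w →
    CellT (C k) a v (R k / w^2) (w^2 / R k) ⌊w⌋₊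
  FO : ∀ x : Fs, FaceOf T c (x : E3) (F x)
  FT : ∀ x : Fs, ∃ i ∈ T.at_ (x : E3), ∃ j ∈ T.at_ (x : E3), ∀ a v : E3,
    segment ℝ a (a + v) ⊆ T.cc (x : E3) →
    Disjoint (segment ℝ a (a + v)) (T.oc (x : E3)) → ∀ w : ℝ≥0, max (u i) (u j) ≤ w →
    nuF (B i '' T.cc (x : E3)) (B i '' segment ℝ a (a + v)) ≤ w →
    FaceT (F x) a v (R i / w^2 / (1 + 4 * (max (u i) (u j) : ℝ≥0)^6))
      (w^2 / R i * (1 + 4 * (max (u i) (u j) : ℝ≥0)^6)) ⌊w⌋₊

/-- **the edges have uniform numbers** -/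
theorem CF.edge {A : Set ι} {B : ι → E3 ≃ᵃ[ℝ] E3} {R u : ι → ℝ≥0} {c : ι → E3}
    {s : Finset ι} {Fs : Finset E3} {X : Sys s Fs} (G : CF T A B R u c X.C X.F) {i : ι}
    {x a v : E3} {w : ℝ≥0} (hi : i ∈ A) (hxi : x ∈ P (T.H i)) (hd : T.dim x = 1)
    (hs : T.cc x = segment ℝ a (a + v)) (hw1 : 1 ≤ w)
    (hw : ∀ k ∈ A, (P (T.H k) ∩ P (T.H i)).Nonempty → u k ≤ w ∧ R k ≤ w * R i ∧ R i ≤ w * R k) :
    Edge X a v (R i / (8 * w^9)) (8 * w^9 / R i) ⌊w⌋₊ := by
  have hx : x ∈ Om := T.sub i hxi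
  have hSi := G.hS i hi
  have hRi : (0:ℝ) < R i := hSi.coe_pos.1
  have hw0 : (1:ℝ) ≤ w := by exact_mod_cast hw1
  have hwp : (0:ℝ) < w := by linarith
  have hii : (P (T.H i) ∩ P (T.H i)).Nonempty := ⟨x, hxi, hxi⟩
  have hui : u i ≤ w := (hw i hi hii).1
  -- all points of the edge
  have hEi : T.cc x ⊆ P (T.H i) := T.cc_sub_tile hxi
  have hpt : ∀ t ∈ Icc (0:ℝ) 1, a + t • v ∈ T.cc x := fun t ht => seg_mem hs.symm ht
  have haE : a ∈ T.cc x := by simpa using hpt 0 (by simp)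
  have havE : a + v ∈ T.cc x := by simpa using hpt 1 (by simp)
  -- the gap
  have p8 : (1:ℝ) ≤ (w:ℝ)^7 := one_le_pow₀ hw0
  have hgap : ∀ y k, y ∈ P (T.H k) → ∀ t ∈ Icc (0:ℝ) 1, ‖y - (a + t • v)‖ ≤ R i / (8 * w^9) →
      (P (T.H k) ∩ P (T.H i)).Nonempty := by
    intro y k hy t ht hyt
    refine gap_tile (g := R i / (u i)^2) (fun y hy hd z hz p hp => hSi.gap y hy hd z hz p hp)
      (hEi (hpt t ht)) (hyt.trans ?_) hy
    have hu0 := hSi.coe_pos.2
    have hu1 : (u i : ℝ) ≤ w := by exact_mod_cast hui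
    apply div_le_div_of_nonneg_left hRi.le (by positivity)
    have h1 : (u i : ℝ)^2 ≤ (w:ℝ)^2 := by gcongr
    have h2 : (w:ℝ)^9 = w^2 * w^7 := by ring
    have h3 : 0 ≤ (w:ℝ)^2 := by positivity
    nlinarith
  -- real pair statement with the number `w`
  have hpn : ∀ y, StarT T i y → T.cc x ⊆ T.cc y ∨ PN1 (T.cc y) a v (w^2 / R i) := by
    intro y hy
    refine (hSi.pn hxi hd hy hs).imp id fun h => ?_
    have hu0 := hSi.coe_pos.2
    have hu1 : (u i : ℝ) ≤ w := by exact_mod_cast hui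
    refine h.mono ?_ ?_
    · push_cast; positivity
    · push_cast
      gcongr
  constructor
  · positivity
  · positivity
  · -- cells
    intro k
    obtain ⟨eP, eU⟩ := G.CP k
    have hkA := G.hsA k k.2
    by_cases hE : T.cc x ⊆ P (T.H k)
    · left
      have hdis : Disjoint (T.cc x) (I (T.H k)) := by
        rw [Set.disjoint_left]; exact fun y hy => edge_notMem hx hd hy k
      refine ⟨fun t ht => ⟨by rw [eP]; exact hE (hpt t ht), by
        rw [eU]; exact edge_notMem hx hd (hpt t ht) k⟩, ?_⟩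
      have hxk : x ∈ P (T.H k) := hE (T.self_mem_cc x)
      obtain ⟨w1, w2, w3⟩ := hw k hkA ⟨x, hxk, hxi⟩
      have h1 := G.CT k a v (by rw [← hs]; exact hE) (by rw [← hs]; exact hdis) w w1
        (by rw [← hs]; exact ((G.hS k hkA).nuC_le hxk).trans w1)
      have hRk : (0:ℝ) < R k := (G.hS k hkA).coe_pos.1
      have w2' : (R k : ℝ) ≤ w * R i := by exact_mod_cast w2
      have w3' : (R i : ℝ) ≤ w * R k := by exact_mod_cast w3
      refine h1.mono ?_ ?_ le_rfl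
      · rw [div_le_div_iff₀ (by positivity) (by positivity)]
        have e1 : (R k : ℝ) * (8 * w^9) = 8 * w^6 * ((w * R k) * w^2) := by ring
        have e2 : (1:ℝ) ≤ (w:ℝ)^6 := one_le_pow₀ hw0
        rw [e1]
        have e3 : (R i : ℝ) * w^2 ≤ (w * R k) * w^2 := by gcongr
        have e4 : 0 ≤ ((w:ℝ) * R k) * w^2 := by positivity
        nlinarith
      · rw [div_le_div_iff₀ (by positivity) (by positivity)]
        have e1 : (8:ℝ) * w^9 * R k = 8 * w^6 * ((w * R k) * w^2) := by ring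
        have e2 : (1:ℝ) ≤ (w:ℝ)^6 := one_le_pow₀ hw0
        rw [e1]
        have e3 : (w:ℝ)^2 * R i ≤ (w * R k) * w^2 := by
          have : (w:ℝ)^2 * R i ≤ w^2 * (w * R k) := by gcongr
          linarith
        have e4 : 0 ≤ ((w:ℝ) * R k) * w^2 := by positivity
        nlinarith
    · right
      intro y hy t ht r hr hyr
      rw [eP] at hy
      obtain ⟨z0, hz0⟩ := T.ne (k : ι)
      have hk2 := hgap y k hy t ht (hyr.trans hr)
      have hst : StarT T i z0 := ⟨k, I_sub_P _ hz0, hk2⟩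
      rcases hpn z0 hst with h1 | h1
      · rw [T.cc_eq_tile hz0] at h1
        exact absurd h1 hE
      · rw [T.cc_eq_tile hz0] at h1
        have hr0 : 0 ≤ r := (norm_nonneg _).trans hyr
        have h2 : r ≤ ((w:ℝ)^2 / R i)⁻¹ := by
          rw [inv_div]
          refine hr.trans (div_le_div_of_nonneg_left hRi.le (by positivity) ?_)
          have h2 : (w:ℝ)^9 = w^2 * w^7 := by ring
          have h3 : 0 ≤ (w:ℝ)^2 := by positivity
          nlinarith
        have h3 : (w:ℝ)^2 / R i * r ≤ 8 * w^9 / R i * r := by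
          refine mul_le_mul_of_nonneg_right (div_le_div_of_nonneg_right ?_ hRi.le) hr0
          have h2 : (w:ℝ)^9 = w^2 * w^7 := by ring
          have h3 : 0 ≤ (w:ℝ)^2 := by positivity
          nlinarith
        rw [eP, eU]
        rcases h1 y hy t ht r h2 hyr with h4 | h4
        · exact Or.inl ⟨h4.1.trans h3, h4.2, edge_notMem hx hd haE k⟩
        · exact Or.inr ⟨h4.1.trans h3, h4.2, edge_notMem hx hd havE k⟩
  · -- faces
    intro j
    obtain ⟨hjO, hjd⟩ := G.hFs j j.2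
    have hno : ∀ y ∈ T.cc x, y ∉ T.oc (j : E3) := fun y hy => edge_notMem_oc hd hjO hjd hy
    have hrim := (G.FO j).rim
    by_cases hE : T.cc x ⊆ T.cc (j : E3)
    · left
      constructor
      · intro t ht
        have h1 : a + t • v ∈ (X.F j).rim := by
          rw [hrim]; exact ⟨hE (hpt t ht), hno _ (hpt t ht)⟩
        obtain ⟨z, ⟨hz0, hz1⟩, hz⟩ := h1
        have hzD : z ∈ Dc := Face.rim_mem hz0 hz1
        have e1 : (X.F j).e (a + t • v) = z := by rw [← hz, (X.F j).cht.inv' z hzD]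
        refine ⟨by rw [← hz]; exact (X.F j).cht.maps' hzD, by rw [e1]; exact hz0,
          by rw [e1]; exact hz1⟩
      · obtain ⟨i1, hi1, j1, hj1, hFT⟩ := G.FT j
        have hxi1 : x ∈ P (T.H i1) := T.cc_sub_tile hi1 (hE (T.self_mem_cc x))
        have hxj1 : x ∈ P (T.H j1) := T.cc_sub_tile hj1 (hE (T.self_mem_cc x))
        have hA1 := G.hFA j j.2 i1 hi1
        obtain ⟨w1, w2, w3⟩ := hw i1 hA1 ⟨x, hxi1, hxi⟩
        obtain ⟨w1', -, -⟩ := hw j1 (G.hFA j j.2 j1 hj1) ⟨x, hxj1, hxi⟩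
        have hdis : Disjoint (T.cc x) (T.oc (j : E3)) := Set.disjoint_left.2 hno
        have h1 := hFT a v (by rw [← hs]; exact hE) (by rw [← hs]; exact hdis) w (max_le w1 w1')
          (by rw [← hs]; exact ((G.hS i1 hA1).nuF_le hi1 hxi1).trans w1)
        have hR1 : (0:ℝ) < R i1 := (G.hS i1 hA1).coe_pos.1
        have w3' : (R i : ℝ) ≤ w * R i1 := by exact_mod_cast w3
        set m : ℝ≥0 := max (u i1) (u j1) with hm
        have hmw : (m:ℝ) ≤ w := by exact_mod_cast max_le w1 w1'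
        have hm0 : (0:ℝ) ≤ m := m.coe_nonneg
        have k1 : 1 + 4 * (m:ℝ)^6 ≤ 5 * w^6 := by
          have : (m:ℝ)^6 ≤ w^6 := by gcongr
          have : (1:ℝ) ≤ (w:ℝ)^6 := one_le_pow₀ hw0
          linarith
        have k0 : 0 < 1 + 4 * (m:ℝ)^6 := by positivity
        have hmm : ((max (u i1) (u j1) : ℝ≥0) : ℝ) = m := rfl
        refine h1.mono ?_ ?_ le_rfl
        · rw [div_div, div_le_div_iff₀ (by positivity) (by positivity)]
          have e1 : (R i : ℝ) * (w^2 * (1 + 4 * (m:ℝ)^6)) ≤ (w * R i1) * (w^2 * (5 * w^6)) := by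
            gcongr
          have e2 : ((w:ℝ) * R i1) * (w^2 * (5 * w^6)) = 5 * (R i1 * w^9) := by ring
          have e3 : (0:ℝ) ≤ R i1 * w^9 := by positivity
          rw [hmm]
          linarith
        · rw [div_mul_eq_mul_div, div_le_div_iff₀ (by positivity) (by positivity)]
          have e1 : (w:ℝ)^2 * (1 + 4 * (m:ℝ)^6) * R i ≤ w^2 * (5 * w^6) * (w * R i1) := by
            gcongr
          have e2 : (w:ℝ)^2 * (5 * w^6) * (w * R i1) = 5 * (w^9 * R i1) := by ring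
          have e3 : (0:ℝ) ≤ w^9 * R i1 := by positivity
          rw [hmm]
          linarith
    · right
      intro y hy t ht r hr hyr
      have hr0 : 0 ≤ r := (norm_nonneg _).trans hyr
      obtain ⟨i1, j1, D, hD, hK, hV, he, -⟩ := G.FO j
      rw [hK] at hy
      -- the tiles at the point
      have htile : ∀ k ∈ T.at_ (j : E3), y ∈ P (T.H k) → r < R i / (w^3) ∧
          closedBall (c k) (R i / (w^3)) ⊆ I (T.H k) ∧
          ∀ z ∈ T.cc (j : E3), ‖c k - z‖ ≤ w^3 * R i := by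
        intro k hk hyk
        have hkA := G.hFA j j.2 k hk
        obtain ⟨w1, w2, w3⟩ := hw k hkA (hgap y k hyk t ht (hyr.trans hr))
        have hSk := (G.hS k hkA).toShp.mono w1
        have w2' : (R k : ℝ) ≤ w * R i := by exact_mod_cast w2
        have e7 : (1:ℝ) ≤ (w:ℝ)^6 := one_le_pow₀ hw0
        refine ⟨?_, ?_, fun z hz => ?_⟩
        · refine lt_of_le_of_lt hr ?_
          apply div_lt_div_of_pos_left hRi (by positivity)
          have h2 : (w:ℝ)^9 = w^3 * w^6 := by ring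
          have h3 : 0 < (w:ℝ)^3 := by positivity
          nlinarith
        · rw [G.hcB k hkA]
          have := hSk.ball_sub (r := R i / w^3) (by
            have hw3 : w ≠ 0 := (zero_lt_one.trans_le hw1).ne'
            calc R i / w^3 * (w * w) ≤ (w * R k) / w^3 * (w * w) := by gcongr
              _ = R k := by field_simp)
          simpa using this
        · rw [G.hcB k hkA]
          refine (hSk.norm_le (T.cc_sub_tile hk hz)).trans ?_
          push_cast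
          calc (w:ℝ) * w * R k ≤ w * w * (w * R i) := by gcongr
            _ = w^3 * R i := by ring
      obtain ⟨z, hz, hzp⟩ := hD.foot G.hc hy hyr (fun k => edge_notMem hx hd (hpt t ht) k) htile
      have hzp' : ‖z - (a + t • v)‖ ≤ (1 + w^6) * r := by
        have e : (w:ℝ)^3 * R i / (R i / w^3) = w^6 := by field_simp
        rcases hzp with h1 | ⟨-, h1⟩
        · rwa [e] at h1
        · have : (0:ℝ) ≤ w^6 * r := by positivity
          linarith
      -- the star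
      obtain ⟨k, hk, hyk⟩ : ∃ k ∈ T.at_ (j : E3), y ∈ P (T.H k) :=
        (G.FO j).sub G.hc (by rw [hK]; exact hy)
      have hst : StarT T i (j : E3) := ⟨k, hk, hgap y k hyk t ht (hyr.trans hr)⟩
      rcases hpn _ hst with h1 | h1
      · exact absurd h1 hE
      · have e6 : (1:ℝ) ≤ (w:ℝ)^6 := one_le_pow₀ hw0
        have e1 : (1:ℝ) ≤ (w:ℝ)^1 := one_le_pow₀ hw0
        have h2 : (1 + (w:ℝ)^6) * r ≤ ((w:ℝ)^2 / R i)⁻¹ := by
          rw [inv_div, le_div_iff₀ (by positivity)]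
          rw [le_div_iff₀ (by positivity)] at hr
          have : (1 + (w:ℝ)^6) * r * w^2 ≤ r * (8 * w^9) := by
            have e2 : (1 + (w:ℝ)^6) * r * w^2 = r * ((1 + w^6) * w^2) := by ring
            rw [e2]
            refine mul_le_mul_of_nonneg_left ?_ hr0
            have e3 : (w:ℝ)^9 = w * (w^6 * w^2) := by ring
            have e4 : (0:ℝ) < w^6 * w^2 := by positivity
            have e5 : (w:ℝ)^2 ≤ w^6 * w^2 := by nlinarith [pow_pos hwp 2]
            nlinarith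
          linarith
        have h3 : (w:ℝ)^2 / R i * ((1 + (w:ℝ)^6) * r) ≤ 8 * w^9 / R i * r := by
          have e2 : (w:ℝ)^2 / R i * ((1 + (w:ℝ)^6) * r) = (w^2 * (1 + w^6)) / R i * r := by ring
          rw [e2]
          refine mul_le_mul_of_nonneg_right (div_le_div_of_nonneg_right ?_ hRi.le) hr0
          have e3 : (w:ℝ)^9 = w * (w^6 * w^2) := by ring
          have e4 : (0:ℝ) < w^6 * w^2 := by positivity
          have e5 : (w:ℝ)^2 ≤ w^6 * w^2 := by nlinarith [pow_pos hwp 2]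
          nlinarith
        rw [hrim]
        rcases h1 z hz t ht _ h2 hzp' with h4 | h4
        · exact Or.inl ⟨h4.1.trans h3, h4.2, hno _ haE⟩
        · exact Or.inr ⟨h4.1.trans h3, h4.2, hno _ havE⟩

/-- **the system of a tiling, constants and edges from the shapes of the tiles** -/
theorem exists_sys_edge (T : Tiling Om ι) (A : Set ι) (B : ι → E3 ≃ᵃ[ℝ] E3) (R u : ι → ℝ≥0)
    (hS : ∀ i ∈ A, Shp2 T i (B i) (R i) (u i)) (s : Finset ι) (hsA : ∀ k ∈ s, k ∈ A)
    (Fs : Finset E3) (hFs : ∀ x ∈ Fs, x ∈ Om ∧ T.dim x = 2) (hFA : ∀ x ∈ Fs, ∀ k ∈ T.at_ x, k ∈ A)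
    (hne : ∀ x ∈ Fs, ∀ y ∈ Fs, x ≠ y → T.cc x ≠ T.cc y) (ρ : E3 → ℝ≥0)
    (hρ : ∀ x ∈ Fs, ∀ k ∈ T.at_ x, R k ≤ u k * ρ x ∧ ρ x ≤ u k * R k) (m : ι → ℝ≥0)
    (hm : ∀ k ∈ s, u k ≤ m k)
    (hm' : ∀ x ∈ Fs, ∀ k ∈ T.at_ x, k ∈ s → ∀ l ∈ T.at_ x, u l ≤ m k) (Z : Set E3)
    (hZ : ∀ k ∈ s, ∀ y ∈ P (T.H k) \ I (T.H k), y ∈ Z ∨ ∃ x ∈ Fs, y ∈ T.oc x) :
    ∃ c : ι → E3, (∀ i, c i ∈ I (T.H i)) ∧ ∃ X : Sys s Fs,
      (∀ k : s, (X.C k).P = P (T.H k) ∧ (X.C k).U = I (T.H k) ∧ (X.C k).R = R k) ∧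
      (∀ x : Fs, FaceOf T c (x : E3) (X.F x) ∧ (X.F x).ρ = ρ x) ∧ X.Z = Z ∧
      (∀ k : s, X.m k = GG (m k)) ∧
      ∀ (i : ι) (x a v : E3) (w : ℝ≥0), i ∈ A → x ∈ P (T.H i) → T.dim x = 1 →
        T.cc x = segment ℝ a (a + v) → 1 ≤ w →
        (∀ k ∈ A, (P (T.H k) ∩ P (T.H i)).Nonempty → u k ≤ w ∧ R k ≤ w * R i ∧ R i ≤ w * R k) →
        Edge X a v (R i / (8 * w^9)) (8 * w^9 / R i) ⌊w⌋₊ := by
  classical
  have h0 : ∀ i, ∃ a ∈ I (T.H i), i ∈ A → a = ctT T i (B i) := by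
    intro i
    by_cases hi : i ∈ A
    · exact ⟨_, (hS i hi).ctT_mem, fun _ => rfl⟩
    · obtain ⟨a, ha⟩ := T.ne i
      exact ⟨a, ha, fun h => absurd h hi⟩
  choose c hc hcA using h0
  refine ⟨c, hc, ?_⟩
  have h1 : ∀ k : s, ∃ C : Cell, C.P = P (T.H k) ∧ C.U = I (T.H k) ∧ C.R = R k ∧
      C.M ≤ GG (u k) ∧ ∀ a v : E3, segment ℝ a (a + v) ⊆ P (T.H k) →
      Disjoint (segment ℝ a (a + v)) (I (T.H k)) → ∀ w : ℝ≥0, u k ≤ w →
      nuC (B k '' P (T.H k)) (B k '' segment ℝ a (a + v)) ≤ w →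
      CellT C a v (R k / w^2) (w^2 / R k) ⌊w⌋₊ := by
    intro k
    have hk := (hS k (hsA k k.2)).toShp
    obtain ⟨C, e1, e2, e3, e4, e5⟩ := exists_cell_tube (T.cpt k) (T.ne k) hk.pos hk.v_pos hk.frm
    refine ⟨C, e1, e2, e3, ?_, e5⟩
    rw [e4]
    refine max_le (one_le_GG _) ?_
    calc u k * mC (B k '' P (T.H k)) ≤ u k * u k := by gcongr; exact hk.mC_le
      _ = (u k)^2 := by ring
      _ ≤ GG (u k) := by
        rw [GG, add_assoc, add_assoc, ← add_assoc, add_comm 1, add_assoc]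
        exact le_self_add
  choose C hC1 hC2 hC3 hC4 hC5 using h1
  have h2 : ∀ x : Fs, ∃ F : Face, FaceOf T c (x : E3) F ∧ F.ρ = ρ x ∧
      (∀ w, (∀ l ∈ T.at_ (x : E3), u l ≤ w) → F.M ≤ GG w) ∧
      ∃ i ∈ T.at_ (x : E3), ∃ j ∈ T.at_ (x : E3), ∀ a v : E3,
        segment ℝ a (a + v) ⊆ T.cc (x : E3) →
        Disjoint (segment ℝ a (a + v)) (T.oc (x : E3)) → ∀ w : ℝ≥0, max (u i) (u j) ≤ w →
        nuF (B i '' T.cc (x : E3)) (B i '' segment ℝ a (a + v)) ≤ w →
        FaceT F a v (R i / w^2 / (1 + 4 * (max (u i) (u j) : ℝ≥0)^6))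
          (w^2 / R i * (1 + 4 * (max (u i) (u j) : ℝ≥0)^6)) ⌊w⌋₊ := by
    intro x
    obtain ⟨hxO, hxd⟩ := hFs x x.2
    have h3 : Module.finrank ℝ E3 = 3 := by simp
    obtain ⟨i, j, -, hat, -⟩ := T.two_tiles hxO (by rw [hxd, h3])
    have hi : i ∈ T.at_ (x : E3) := by rw [hat]; exact mem_insert _ _
    have hj : j ∈ T.at_ (x : E3) := by rw [hat]; exact mem_insert_of_mem _ rfl
    have hv : ∀ l ∈ T.at_ (x : E3), u l ≤ max (u i) (u j) := by
      intro l hl
      rw [hat] at hl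
      rcases hl with rfl | rfl
      · exact le_max_left _ _
      · exact le_max_right _ _
    obtain ⟨F, e1, e2, e3, e4⟩ := exists_face_shape_tube (T := T) hc hxO hxd (B := B) (R := R)
      (ρ := ρ x) (v := max (u i) (u j))
      (fun k hk => ((hS k (hFA x x.2 k hk)).toShp).mono (hv k hk))
      (fun k hk => hcA k (hFA x x.2 k hk)) (fun k hk => by
        obtain ⟨r1, r2⟩ := hρ x x.2 k hk
        have := hv k hk
        exact ⟨r1.trans (by gcongr), r2.trans (by gcongr)⟩) hi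
    exact ⟨F, e1, e2, fun w hw => e3.trans (GG_mono (max_le (hw i hi) (hw j hj))), i, hi, j, hj,
      e4⟩
  choose F hF1 hF2 hF3 hF4 using h2
  refine ⟨mkSys hc s Fs (fun x hx => (hFs x hx).1) hne C (fun k => ⟨hC1 k, hC2 k⟩) F
    hF1 (fun k => GG (m k)) (fun k => (hC4 k).trans (GG_mono (hm k k.2)))
    (fun k x hk => hF3 x _ (hm' x x.2 k hk k.2)) Z hZ,
    fun k => ⟨hC1 k, hC2 k, hC3 k⟩, fun x => ⟨hF1 x, hF2 x⟩, rfl, fun _ => rfl, ?_⟩
  intro i x a v w hiA hxi hd hs hw1 hw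
  exact CF.edge (A := A) (B := B) (u := u) (c := c)
    { hS := hS, hc := hc, hcB := hcA, hsA := hsA, hFs := hFs, hFA := hFA
      CP := fun k => ⟨hC1 k, hC2 k⟩, CT := hC5, FO := hF1, FT := hF4 } hiA hxi hd hs hw1 hw

end tiling

end Crest.Agent.R096.Sq_55
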