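import Crest.Agent.R096.Sqt11_143
import Crest.Agent.R096.Str5_968

/-!
Row 96 (S0127), helper143.  SQ-TUBE, part 12 = TUBE-LIM: **near-optimality of `f ∘ chi` in the
direction of an edge in the limit `δ → 0`** (`near_lim`), from 968's `rhs_stripc`.
-/

set_option autoImplicit false
set_option linter.unusedSectionVars false

open Set Metric Filter Topology MeasureTheory

namespace Crest.Agent.R096.Sqt_143

open Crest.Agent.R096.Ce_537 Crest.Agent.R096.Bd_416 Crest.Agent.R96.Hole_348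
open Crest.Agent.R096.Sq_55 Crest.Agent.R096.Str_968 Crest.Agent.R096.Cob_622
open Crest.AnalysisR.VecCalc3 Crest.AnalysisR.Sobolev
open Crest.Agent.R096.Sk_962
open Crest.Agent.R96.Lu_538
open scoped NNReal ENNReal

/-- the data of 968's `EFN` only depend on the function near the edges and faces -/
def EFNcongr {κ ι α β : Type*} {X : Sys κ ι} {Om : Set R3} {g g1 : R3 → ℝ≥0∞} {N₁ : Set E3}
    (D : EFN X Om g N₁ α β) {O : Set R3} (hO : IsOpen O)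
    (he : ∀ a, IsCompact (D.eg a)) (heO : ∀ a, D.eg a ⊆ O)
    (hf : ∀ b, IsCompact (D.fc b)) (hfO : ∀ b, D.fc b ⊆ O)
    (hg : ∀ᵐ y, y ∈ O → g1 y = g y) : EFN X Om g1 N₁ α β where
  eg := D.eg
  fc := D.fc
  rimE := D.rimE
  clF := D.clF
  hrim := D.hrim
  hZ := D.hZ
  Ee := D.Ee
  Ef := D.Ef
  fE := D.fE
  hE := by
    intro a η hη
    obtain ⟨d, hd, hdO⟩ := (he a).exists_thickening_subset_open hO (heO a)
    have h1 : ∀ᶠ δ in 𝓝[>] (0:ℝ), δ < d :=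
      (eventually_lt_nhds hd).filter_mono nhdsWithin_le_nhds
    filter_upwards [D.hE a η hη, h1] with δ h2 h3
    refine le_trans (le_of_eq ?_) h2
    have h4 : ∀ᵐ y ∂(volume.restrict (Om ∩ thickening δ (D.eg a))), g1 y = g y := by
      have h5 : Om ∩ thickening δ (D.eg a) ⊆ O :=
        inter_subset_right.trans ((thickening_mono h3.le _).trans hdO)
      have h6 : ∀ᵐ y ∂(volume.restrict O), g1 y = g y := (ae_restrict_iff' hO.measurableSet).2 hg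
      exact ae_mono (Measure.restrict_mono h5 le_rfl) h6
    exact lintegral_congr_ae h4
  hF := by
    intro a η hη
    obtain ⟨d, hd, hdO⟩ := (hf a).exists_thickening_subset_open hO (hfO a)
    have h1 : ∀ᶠ δ in 𝓝[>] (0:ℝ), δ < d :=
      (eventually_lt_nhds hd).filter_mono nhdsWithin_le_nhds
    filter_upwards [D.hF a η hη, h1] with δ h2 h3
    refine le_trans (le_of_eq ?_) h2
    have h4 : ∀ᵐ y ∂(volume.restrict (Om ∩ thickening δ (D.fc a))), g1 y = g y := by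
      have h5 : Om ∩ thickening δ (D.fc a) ⊆ O :=
        inter_subset_right.trans ((thickening_mono h3.le _).trans hdO)
      have h6 : ∀ᵐ y ∂(volume.restrict O), g1 y = g y := (ae_restrict_iff' hO.measurableSet).2 hg
      exact ae_mono (Measure.restrict_mono h5 le_rfl) h6
    exact lintegral_congr_ae h4

/-- `tb` is 968's bracket -/
lemma tb_eq {κ ι : Type*} [Fintype κ] [Fintype ι] (X : Sys κ ι) (δ : ℝ) (k : κ) (E : Set E3)
    (u : ℝ) (g : E3 → ℝ≥0∞) : tb X δ k E u g =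
      SBc X δ (11 * (X.m k : ℝ)^4 * (δ / (X.C k).R) * u) k
        (cthickening (25 * (X.m k : ℝ)^4 * u) E) g := rfl

variable {κ ι : Type*} [Fintype κ] [Fintype ι] {X : Sys κ ι}

/-- the constant of the thickness -/
noncomputable def cu (X : Sys κ ι) (k : κ) (u : ℝ) : ℝ := 11 * (X.m k : ℝ)^4 * u / (X.C k).R

lemma cu_pos {k : κ} {u : ℝ} (hu : 0 < u) (hR : (0:ℝ) < (X.C k).R) : 0 < cu X k u := by
  have := Sys.m_one (X := X) k
  unfold cu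
  positivity

/-- **the limit of `tb`** -/
theorem tb_lim {α β : Type*} [Fintype α] [Fintype β] {Om : Set R3} {g : R3 → ℝ≥0∞} {N₁ : Set E3}
    (D : EFN X Om g N₁ α β) {k : κ} (hC : (X.C k).P ⊆ w2 ⁻¹' Om) {E : Set E3} {u s₀ : ℝ}
    (hR : (0:ℝ) < (X.C k).R) (hu : 0 < u) (hs₀ : 0 < s₀)
    (hN₁ : nb s₀ ((X.C k).P ∩ cthickening (25 * (X.m k : ℝ)^4 * u) E) ⊆ N₁) {ε : ℝ≥0∞}
    (hε : ε ≠ 0) :
    ∀ᶠ δ in 𝓝[>] (0:ℝ), tb X δ k E u (fun x => g (w2 x)) ≤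
      D.J k (cthickening (25 * (X.m k : ℝ)^4 * u) E) (cu X k u) + ε := by
  filter_upwards [rhs_stripc D hC isClosed_cthickening hs₀ hN₁ (cu_pos hu hR) hε] with δ h
  rw [tb_eq]
  have e : 11 * (X.m k : ℝ)^4 * (δ / (X.C k).R) * u = cu X k u * δ := by
    unfold cu
    field_simp
  rw [e]
  exact h

lemma Tb_ev {k : κ} {E : Set E3} {u : ℝ} (hρ : ∀ j, (0:ℝ) < (X.F j).ρ)
    (sz : ∀ j, ((X.F j).V ∩ (X.C k).P).Nonempty → (X.C k).R ≤ X.m k * (X.F j).ρ)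
    (hE : IsCompact E) (EU : ∀ y ∈ E, y ∉ (X.C k).U) (EV : ∀ y ∈ E, ∀ j, y ∉ (X.F j).V)
    (u0 : 0 ≤ u) (uR : 40 * (X.m k : ℝ)^4 * u ≤ (X.C k).R) :
    ∀ᶠ δ in 𝓝[>] (0:ℝ), Tb X δ k E u := by
  have h1 : ∀ᶠ δ in 𝓝[>] (0:ℝ), ∀ j, δ < ((X.F j).ρ : ℝ) / 4 := by
    refine eventually_all.2 fun j => ?_
    have h2 : (0:ℝ) < ((X.F j).ρ : ℝ) / 4 := by have := hρ j; positivity
    exact (eventually_lt_nhds h2).filter_mono nhdsWithin_le_nhds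
  filter_upwards [h1] with δ h
  exact ⟨fun j => by have := h j; linarith, sz, hE, EU, EV, u0, uR⟩

/-- **energies near an edge in the limit** -/
theorem energy_lim {α β : Type*} [Fintype α] [Fintype β] {Om : Set R3} {g : R3 → ℝ≥0∞}
    {N₁ : Set E3} (D : EFN X Om g N₁ α β) {k : κ} (hC : (X.C k).P ⊆ w2 ⁻¹' Om)
    (hg : AEMeasurable (fun x => g (w2 x)) (volume.restrict (X.C k).P))
    {E : Set E3} {u s₀ : ℝ} (hρ : ∀ j, (0:ℝ) < (X.F j).ρ)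
    (sz : ∀ j, ((X.F j).V ∩ (X.C k).P).Nonempty → (X.C k).R ≤ X.m k * (X.F j).ρ)
    (hE : IsCompact E) (EU : ∀ y ∈ E, y ∉ (X.C k).U) (EV : ∀ y ∈ E, ∀ j, y ∉ (X.F j).V)
    (hu : 0 < u) (uR : 40 * (X.m k : ℝ)^4 * u ≤ (X.C k).R) (hs₀ : 0 < s₀)
    (hN₁ : nb s₀ ((X.C k).P ∩ cthickening (25 * (X.m k : ℝ)^4 * u) E) ⊆ N₁) {ε : ℝ≥0∞}
    (hε : ε ≠ 0) :
    ∀ᶠ δ in 𝓝[>] (0:ℝ), ∀ (p : ℝ) (h : X.Adm p δ) (N₁ N₂ : ℕ) (q : ℝ) (w : E3 → ℝ≥0∞),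
      (∀ᵐ x, x ∈ (X.C k).P → ∀ c, 1 ≤ c → LLV c (Sys.chi h (N₁+1) (N₂+1)) x →
        w x ≤ ENNReal.ofReal (c^q) * g (w2 (Sys.chi h (N₁+1) (N₂+1) x))) →
      ∫⁻ x in (X.C k).P ∩ cthickening u E, w x ≤
        ENNReal.ofReal ((528 * (X.m k : ℝ)^4)^q) * (ENNReal.ofReal (CT p (X.m k)) *
          (D.J k (cthickening (25 * (X.m k : ℝ)^4 * u) E) (cu X k u) + ε)) := by
  have hm1 := Sys.m_one (X := X) k
  have hR : (0:ℝ) < (X.C k).R := by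
    have : (0:ℝ) < 40 * (X.m k : ℝ)^4 * u := by positivity
    linarith
  filter_upwards [tb_lim D hC hR hu hs₀ hN₁ hε, Tb_ev hρ sz hE EU EV hu.le uR] with δ h1 H
  intro p h N₁ N₂ q w hw
  exact (tube_energy h N₁ N₂ H hg hw).trans
    (mul_le_mul' le_rfl (mul_le_mul' le_rfl h1))

/-- **near-optimality in the direction of an edge in the limit** -/
theorem near_lim {a v : E3} {u0 b0 : ℝ} {n : ℕ} (hE : Edge X a v u0 b0 n) {m : ℝ} (hm : 1 ≤ m)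
    (hmC : ∀ k, OnC (X.C k) a v → ((X.C k).M : ℝ) ≤ m) (hρ : ∀ j, (0:ℝ) < (X.F j).ρ) :
    ∃ W : Finset ℝ, W.card ≤ ({k | OnC (X.C k) a v}.ncard + {j | OnF (X.F j) a v}.ncard) * n + 2 ∧
      (∀ s ∈ W, s ∈ Icc (0:ℝ) 1) ∧
      ∀ (α β : Type*) [Fintype α] [Fintype β] (Om : Set R3) (G : Fin 3 → R3 → R3)
        (L : R3 →L[ℝ] R3) (q : ℝ) (N₁ : Set E3)
        (D : EFN X Om (fun y => ‖Gmat G y - L‖ₑ ^ q) N₁ α β) (k : κ) (u s₀ : ℝ),
        IsOpen Om → 1 ≤ q → (∀ k, (X.C k).P ⊆ w2 ⁻¹' Om) → (∀ j, (X.F j).K ⊆ w2 ⁻¹' Om) →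
        (∀ j, ((X.F j).V ∩ (X.C k).P).Nonempty → (X.C k).R ≤ X.m k * (X.F j).ρ) →
        (∀ y ∈ sg a v, y ∉ (X.C k).U) → (∀ y ∈ sg a v, ∀ j, y ∉ (X.F j).V) →
        0 < u → 40 * (X.m k : ℝ)^4 * u ≤ (X.C k).R → (1 + 4 * (m * m)) * u ≤ u0 →
        0 < s₀ → nb s₀ ((X.C k).P ∩ cthickening (25 * (X.m k : ℝ)^4 * u) (sg a v)) ⊆ N₁ →
        ∀ ε : ℝ≥0∞, ε ≠ 0 → ∀ᶠ δ in 𝓝[>] (0:ℝ),
        ∀ (p : ℝ) (h : X.Adm p δ) (M₁ M₂ : ℕ) (La : Set R3) (f : R3 → R3)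
          (G' : Fin 3 → R3 → R3), 1 ≤ p → SH p Om La f G →
          (∀ j : Fin 3, HasWeakGradOn Om
            (fun x => f (toR (Sys.chi h (M₁+1) (M₂+1)) x) j) (G' j)) →
        ∫⁻ x in (X.C k).P ∩ cthickening u (sg a v),
            ‖Gmat G' (w2 x) (w2 v) - L (w2 v)‖ₑ ^ q ≤
          ENNReal.ofReal ((2 * (2113 * (X.m k : ℝ)^4 * ‖w2 v‖))^q) *
            (ENNReal.ofReal (CT p (X.m k)) *
              (D.J k (cthickening (25 * (X.m k : ℝ)^4 * u) (sg a v)) (cu X k u) + ε) +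
            ‖L‖ₑ ^ q * (W.card *
              ENNReal.ofReal ((2 * ((1 + b0 * (1 + 4 * (m * m)) * ‖v‖) * u))^3))) := by
  obtain ⟨W, h1, h2, h3⟩ := tube_near hE hm hmC
  refine ⟨W, h1, h2, ?_⟩
  intro α β _ _ Om G L q N₁ D k u s₀ hOm hq hC hF sz EU EV hu uR huE hs₀ hN₁ ε hε
  have hm1 := Sys.m_one (X := X) k
  have hR : (0:ℝ) < (X.C k).R := by
    have : (0:ℝ) < 40 * (X.m k : ℝ)^4 * u := by positivity
    linarith
  filter_upwards [tb_lim D (hC k) hR hu hs₀ hN₁ hε,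
    Tb_ev hρ sz (isCompact_sg a v) EU EV hu.le uR] with δ h4 H
  intro p h M₁ M₂ La f G' hp hf h'
  refine (h3 δ p h M₁ M₂ Om La f G G' hOm hp hf hC hF h' L k u H huE q hq).trans ?_
  exact mul_le_mul' le_rfl (add_le_add (mul_le_mul' le_rfl h4) le_rfl)

end Crest.Agent.R096.Sqt_143
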