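/-
helper296, row 96, COMPOSITE B (622 #11433, leaf [L5] `cob_sys`), part 1: the system of a tiling, position
of its closed 1-cells with respect to the cells and the double pyramids.
-/
import Crest.Agent.R096.Efi4_296
import Crest.Agent.R096.Sq29_55
import Crest.Agent.R096.Sqt12_143

set_option autoImplicit false
set_option linter.unusedSectionVars false
set_option linter.style.longLine false

open Set Metric Filter Topology MeasureTheory
open scoped ENNReal NNReal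

namespace Crest.Agent.R096.Cbs_296

open Crest.AnalysisR.VecCalc3
open Crest.Agent.R096.Msh_715 (P I Tiling I_sub_P isOpen_I isClosed_P)
open Crest.Agent.R096.Sq_55 (E3 Sys Face Cell FaceOf w2 IsDp GG Shp2 exists_sys_edge)
open Crest.Agent.R096.Sqt_143 (sg Edge OnC OnF)
open Crest.Agent.R096.Efi_296

noncomputable section

variable {Om : Set E3} {ι : Type*} {T : Tiling Om ι}

/-- `X` is the system of the tiles `s` and of the squeezed 2-cells `pr` (55's `exists_sys_shape`) -/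
structure SysOf (T : Tiling Om ι) (s : Finset ι) (pr : T.Cell → Prop) (c : ι → E3) (R : ι → ℝ≥0)
    (ρ : E3 → ℝ≥0) (m : ι → ℝ≥0) (X : Sys s (reps T s pr)) : Prop where
  c_mem : ∀ i, c i ∈ I (T.H i)
  eP : ∀ k : s, (X.C k).P = P (T.H k)
  eU : ∀ k : s, (X.C k).U = I (T.H k)
  eR : ∀ k : s, (X.C k).R = R k
  F : ∀ x : reps T s pr, FaceOf T c (x : E3) (X.F x)
  eρ : ∀ x : reps T s pr, (X.F x).ρ = ρ x
  Z : X.Z = Zs T s pr
  em : ∀ k : s, X.m k = m k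

theorem not_mem_I {y : E3} (hy : y ∈ Om) (hd : T.dim y ≤ 2) (k : ι) : y ∉ I (T.H k) := by
  intro h
  have hV : T.V y = ⊤ := (T.V_eq_top_iff hy).2 ⟨k, h⟩
  have : T.dim y = Module.finrank ℝ E3 := by
    show Module.finrank ℝ (T.V y) = _
    rw [hV, finrank_top]
  have h3 : Module.finrank ℝ E3 = 3 := by simp
  omega

namespace SysOf

variable {s : Finset ι} {pr : T.Cell → Prop} {c : ι → E3} {R : ι → ℝ≥0} {ρ : E3 → ℝ≥0}
  {m : ι → ℝ≥0} {X : Sys s (reps T s pr)}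

theorem rim (h : SysOf T s pr c R ρ m X) (x : reps T s pr) :
    (X.F x).rim = T.cc (x : E3) \ T.oc (x : E3) := (h.F x).rim

theorem off_U (h : SysOf T s pr c R ρ m X) {y : E3} (hy : y ∈ Om) (hd : T.dim y ≤ 2) (k : s) :
    y ∉ (X.C k).U := by
  rw [h.eU]; exact not_mem_I hy hd k

theorem off_V (h : SysOf T s pr c R ρ m X) {y : E3} (hy : y ∈ Om) (hd : T.dim y ≤ 1)
    (x : reps T s pr) : y ∉ (X.F x).V := by
  intro hV
  have h0 := reps_dim x.2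
  obtain ⟨i, j, D, hD, hK, hV', he, -⟩ := h.F x
  rw [hV'] at hV
  by_cases ht : D.t y = 0
  · have h1 := hD.cell_zero hV ht
    have := T.dim_eq_of_mem_oc h0.1 h1
    omega
  · obtain ⟨l, z, t, -, -, -, -, -, -, hyl⟩ := hD.ray_repr h0.1 h.c_mem hV ht
    exact not_mem_I hy (by omega) l hyl

theorem at_of_V (h : SysOf T s pr c R ρ m X) {x : reps T s pr} {k : s}
    (hne : ((X.F x).V ∩ (X.C k).P).Nonempty) : (k : ι) ∈ T.at_ (x : E3) := by
  obtain ⟨y, hy1, hy2⟩ := hne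
  rw [h.eP k] at hy2
  exact mem_at_of_V (h.F x) h.c_mem (reps_dim x.2).1 hy1 hy2

theorem P_sub (h : SysOf T s pr c R ρ m X) (k : s) : (X.C k).P ⊆ Om := by
  rw [h.eP]; exact T.sub k

theorem K_sub_at (h : SysOf T s pr c R ρ m X) (x : reps T s pr) {y : E3} (hy : y ∈ (X.F x).K) :
    ∃ i ∈ T.at_ (x : E3), y ∈ P (T.H i) := (h.F x).sub h.c_mem hy

theorem K_sub (h : SysOf T s pr c R ρ m X) (x : reps T s pr) : (X.F x).K ⊆ Om := by
  intro y hy
  obtain ⟨i, -, hi⟩ := h.K_sub_at x hy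
  exact T.sub i hi

/-- `hFK` of Cob7: a squeezed face lies in the cells of the system -/
theorem K_sub_P (h : SysOf T s pr c R ρ m X)
    (hpr : ∀ c : T.Cell, pr c → ∀ k ∈ T.at_ c.pt, k ∈ s) (x : reps T s pr) :
    (X.F x).K ⊆ ⋃ k, (X.C k).P := by
  intro y hy
  obtain ⟨i, hi, hyi⟩ := h.K_sub_at x hy
  obtain ⟨c, -, hc, hcx⟩ := mem_reps.1 x.2
  rw [← hcx] at hi
  have his := hpr c hc i hi
  exact mem_iUnion.2 ⟨⟨i, his⟩, by rw [h.eP]; exact hyi⟩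

/-- `hsz` of Cob7 -/
theorem sz (h : SysOf T s pr c R ρ m X)
    (hρ : ∀ x ∈ reps T s pr, ∀ k ∈ T.at_ x, k ∈ s → R k ≤ m k * ρ x) (x : reps T s pr) (k : s)
    (hne : ((X.F x).V ∩ (X.C k).P).Nonempty) : ((X.C k).R : ℝ) ≤ X.m k * (X.F x).ρ := by
  have h1 := hρ x x.2 k (h.at_of_V hne) k.2
  rw [h.eR, h.em, h.eρ]
  exact_mod_cast h1

theorem R_pos (_h : SysOf T s pr c R ρ m X) (k : s) : 0 < (X.C k).R := (X.C k).pos

end SysOf

/-- **the system of a tiling**, from 55's `exists_sys_edge` -/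
theorem exists_sysOf (T : Tiling Om ι) (A : Set ι) (B : ι → E3 ≃ᵃ[ℝ] E3) (R u : ι → ℝ≥0)
    (hS : ∀ i ∈ A, Shp2 T i (B i) (R i) (u i)) (s : Finset ι) (hsA : ∀ k ∈ s, k ∈ A)
    (pr : T.Cell → Prop) (hpr : ∀ c ∈ F2S T s, pr c → ∀ k ∈ T.at_ c.pt, k ∈ A)
    (ρ : E3 → ℝ≥0)
    (hρ : ∀ x ∈ reps T s pr, ∀ k ∈ T.at_ x, R k ≤ u k * ρ x ∧ ρ x ≤ u k * R k) (m : ι → ℝ≥0)
    (hm : ∀ k ∈ s, u k ≤ m k)
    (hm' : ∀ x ∈ reps T s pr, ∀ k ∈ T.at_ x, k ∈ s → ∀ l ∈ T.at_ x, u l ≤ m k) :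
    ∃ c : ι → E3, ∃ X : Sys s (reps T s pr), SysOf T s pr c R ρ (fun k => GG (m k)) X ∧
      ∀ (i : ι) (x a v : E3) (w : ℝ≥0), i ∈ A → x ∈ P (T.H i) → T.dim x = 1 →
        T.cc x = segment ℝ a (a + v) → 1 ≤ w →
        (∀ k ∈ A, (P (T.H k) ∩ P (T.H i)).Nonempty → u k ≤ w ∧ R k ≤ w * R i ∧ R i ≤ w * R k) →
        Edge X a v (R i / (8 * w^9)) (8 * w^9 / R i) ⌊w⌋₊ := by
  obtain ⟨c, hc, X, h1, h2, h3, h4, h5⟩ := exists_sys_edge T A B R u hS s hsA (reps T s pr)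
    (fun x hx => reps_dim hx) (fun x hx k hk => by
      obtain ⟨c, hc, hp, rfl⟩ := mem_reps.1 hx
      exact hpr c hc hp k hk) (fun x hx y hy hxy => reps_ne hx hy hxy) ρ hρ m hm hm'
    (Zs T s pr) (fun k hk y hy => hZ_Zs hk hy)
  exact ⟨c, X, ⟨hc, fun k => (h1 k).1, fun k => (h1 k).2.1, fun k => (h1 k).2.2,
    fun x => (h2 x).1, fun x => (h2 x).2, h3, h4⟩, h5⟩

/-- the points of a closed 1-cell -/
theorem mem_Om_of_set {c : T.Cell} {y : E3} (hy : y ∈ c.set) : y ∈ Om := by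
  rw [c.set_eq] at hy
  exact T.cc_sub_Om c.pt_mem hy

theorem dim_le_of_set {c : T.Cell} {y : E3} (hy : y ∈ c.set) : T.dim y ≤ c.dim := by
  rw [c.set_eq] at hy
  exact T.dim_le hy

end

end Crest.Agent.R096.Cbs_296
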