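/-
helper622, row 96, COMPOSITE B, part 5: **the energy of `R ∘ f ∘ Φ ∘ χ`**.
-/
import Crest.Agent.R096.Cob4_622

set_option autoImplicit false
set_option linter.unusedSectionVars false

open Set Metric Filter Topology MeasureTheory
open scoped ENNReal NNReal

namespace Crest.Agent.R096.Cob_622

open Crest.Agent.R096.Ce_537 Crest.Agent.R096.Bd_416 Crest.Agent.R96.Hole_348
open Crest.AnalysisR.VecCalc3 Crest.AnalysisR.Sobolev Crest.Agent.R096.Sk_962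
open Crest.Agent.R096.Sq_55

variable {κ ι : Type*} [Fintype κ] [Fintype ι] {X : Sys κ ι} {p δ : ℝ}

/-- the weight of the cell -/
noncomputable def Wt (X : Sys κ ι) (p δ : ℝ) (k : κ) : ℝ≥0∞ :=
  ENNReal.ofReal (T3 p (X.m k) * (1 + T2 p (X.m k))) * (ENNReal.ofReal ((X.C k).R / δ) *
    ((∑ j, ENNReal.ofReal ((X.F j).ρ / δ)) + 1))

lemma Wt_ne_top (X : Sys κ ι) (p δ : ℝ) (k : κ) : Wt X p δ k ≠ ∞ := by
  refine ENNReal.mul_ne_top ENNReal.ofReal_ne_top (ENNReal.mul_ne_top ENNReal.ofReal_ne_top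
    (ENNReal.add_ne_top.2 ⟨?_, ENNReal.one_ne_top⟩))
  exact (ENNReal.sum_lt_top.2 fun j _ => ENNReal.ofReal_lt_top).ne

/-- comparison of two densities on the layers -/
lemma bdv_le {k : κ} {v u : E3 → ℝ≥0∞} {c e : ℝ≥0∞}
    (h1 : ∀ j, ∫⁻ x in (X.C k).P ∩ (X.F j).V ∩ nb δ (X.F j).rim, v x ≤
      c * (∫⁻ x in (X.C k).P ∩ (X.F j).V ∩ nb δ (X.F j).rim, u x) + e)
    (h2 : ∫⁻ x in (X.C k).P ∩ (nb δ X.Z ∪ ⋃ j, nb δ (X.F j).rim), v x ≤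
      c * (∫⁻ x in (X.C k).P ∩ (nb δ X.Z ∪ ⋃ j, nb δ (X.F j).rim), u x) + e) :
    bdv X p δ k v ≤ c * bdv X p δ k u + Wt X p δ k * e := by
  unfold bdv Wt
  set A := ENNReal.ofReal (T3 p (X.m k) * (1 + T2 p (X.m k)))
  set B := ENNReal.ofReal ((X.C k).R / δ)
  set I2 := ∫⁻ x in (X.C k).P ∩ (nb δ X.Z ∪ ⋃ j, nb δ (X.F j).rim), u x with hI2
  have h3 : ∑ j, ENNReal.ofReal ((X.F j).ρ / δ) *
      ∫⁻ x in (X.C k).P ∩ (X.F j).V ∩ nb δ (X.F j).rim, v x ≤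
      c * (∑ j, ENNReal.ofReal ((X.F j).ρ / δ) *
        ∫⁻ x in (X.C k).P ∩ (X.F j).V ∩ nb δ (X.F j).rim, u x) +
        (∑ j, ENNReal.ofReal ((X.F j).ρ / δ)) * e := by
    rw [Finset.mul_sum, Finset.sum_mul, ← Finset.sum_add_distrib]
    refine Finset.sum_le_sum fun j _ => ?_
    refine (mul_le_mul' le_rfl (h1 j)).trans (le_of_eq ?_)
    ring
  calc _ ≤ A * (B * ((c * (∑ j, ENNReal.ofReal ((X.F j).ρ / δ) *
        ∫⁻ x in (X.C k).P ∩ (X.F j).V ∩ nb δ (X.F j).rim, u x) +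
        (∑ j, ENNReal.ofReal ((X.F j).ρ / δ)) * e) + (c * I2 + e))) :=
        mul_le_mul' le_rfl (mul_le_mul' le_rfl (add_le_add h3 h2))
    _ = _ := by ring

/-- **the constant** -/
noncomputable def CB (p : ℝ) (K m : ℝ≥0) : ℝ :=
  (6:ℝ)^p * (3 * (9 * K)^p) * (9 * (T3 p m * (1 + T2 p m)))

/-- a good point: `Φ` is locally the identity or the image is in the patches -/
def Good (Φ : R3 ≃ₜ R3) (f : R3 → R3) (U : Set R3) (x : R3) : Prop :=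
  (∀ᶠ y in 𝓝 x, Φ y = y) ∨ f (Φ x) ∈ U

set_option maxHeartbeats 1000000 in
/-- **the energy of `R ∘ f ∘ Φ ∘ χ`.**  Order: thickness `δ`, error `ε₁` in the collar, contraction
`θ`, target squeeze `R`, `N₁`, `N₂`. -/
theorem cob_energy {α β : Type*} [Fintype α] [Fintype β] (X : Sys κ ι) {p : ℝ} (hp : 1 ≤ p)
    (hp3 : p < 3) {Om La : Set R3} {f : R3 → R3} {G : Fin 3 → R3 → R3} (hOm : IsOpen Om)
    (hvol : volume Om ≠ ∞) (hf : SH p Om La f G)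
    (hC : ∀ k, (X.C k).P ⊆ w2 ⁻¹' Om) (hF : ∀ j, (X.F j).K ⊆ w2 ⁻¹' Om)
    (Φ : R3 ≃ₜ R3) (hΦ1 : PLOn Φ univ) (hΦ2 : PLOn Φ.symm univ) (hΦ : ∀ x, Φ x ∈ Om ↔ x ∈ Om)
    (K : ℝ≥0) {U : Set R3} (hU : IsOpen U) (D : EF X Om (En p G) α β)
    (hgood : ∀ z ∈ X.Z ∪ ⋃ j, (X.F j).rim, z ∈ ⋃ k, (X.C k).P → Good Φ f U (w2 z))
    {ε : ℝ≥0∞} (hε : ε ≠ 0) :
    ∀ᶠ δ in 𝓝[>] (0:ℝ), ∃ h : X.Adm p δ,
      (∀ k, ∀ x ∈ (X.C k).P ∩ (nb δ X.Z ∪ ⋃ j, nb δ (X.F j).rim), Good Φ f U (w2 x)) ∧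
      ∀ ε₁ : ℝ, 0 < ε₁ →
      ∃ θ : ℝ, 0 < θ ∧ ∀ (R : R3 ≃ₜ R3), LipschitzWith K R → (∀ y, R y ∈ La ↔ y ∈ La) →
      ∀ C : ℝ, (∀ y, ‖R y - y‖ ≤ C) →
      (∀ y ∈ U, ∀ ε > 0, ∀ᶠ z in 𝓝 y, ‖R z - R y‖ ≤ (θ + ε) * ‖z - y‖) →
      ∃ G1 : Fin 3 → R3 → R3, SH p Om La (fun x => R (f (Φ x))) G1 ∧
        (∀ S : Set R3, MeasurableSet S → S ⊆ Om → (∀ x ∈ S, Good Φ f U x) →
          ∫⁻ x in S, En p G1 x ≤
            ENNReal.ofReal (3 * (9 * K) ^ p) * (∫⁻ x in S, En p G x) + ENNReal.ofReal ε₁) ∧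
        ∃ N₁₀ : ℕ, ∀ N₁, N₁₀ ≤ N₁ → ∃ N₂₀ : ℕ, ∀ N₂, N₂₀ ≤ N₂ →
          ∃ G₂ : Fin 3 → R3 → R3,
            SH p Om La (fun x => R (f (Φ (toR (Sys.chi h N₁ N₂) x)))) G₂ ∧
            (∀ᵐ z, w2 z ∈ Om → ∀ c : ℝ, 1 ≤ c → LLV c (Sys.chi h N₁ N₂) z →
              En p G₂ (w2 z) ≤ s6 p * (ENNReal.ofReal (c^p) *
                En p G1 (w2 (Sys.chi h N₁ N₂ z)))) ∧
            ∀ k, (p < 2 ∨ ∀ j, ¬ ((X.F j).V ∩ (X.C k).P).Nonempty) →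
              ∫⁻ x in (X.C k).P, En p G₂ (w2 x) ≤
                ENNReal.ofReal (CB p K (X.m k)) * D.J k + ε := by
  classical
  have hp0 : 0 < p := lt_of_lt_of_le one_pos hp
  have hε3 : ε / 3 ≠ 0 := by
    rw [Ne, ENNReal.div_eq_zero_iff]; push Not
    exact ⟨hε, by norm_num⟩
  have hst : s6 p ≠ ∞ := s6_top p
  set c : ℝ≥0∞ := ENNReal.ofReal (3 * (9 * K) ^ p) with hc
  obtain ⟨εa, hεa, hεa'⟩ := exists_small (X := s6 p * c)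
    (ENNReal.mul_ne_top hst ENNReal.ofReal_ne_top) hε3
  -- the collar
  have hgc : ContinuousOn (fun x => f (Φ x)) Om := by
    have hfc : ContinuousOn f Om := by
      obtain ⟨g, h1, h2, h3, h4, h5, h6⟩ := hf.homeo
      exact h5
    exact hfc.comp Φ.continuous.continuousOn fun x hx => (hΦ x).2 hx
  have hcpt : IsCompact (w2 '' ⋃ k, (X.C k).P) :=
    (isCompact_iUnion fun k => isCompact_P (X.C k)).image w2.continuous
  have hsubO : w2 '' (⋃ k, (X.C k).P) ⊆ Om := by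
    rintro _ ⟨x, hx, rfl⟩
    obtain ⟨k, hk⟩ := mem_iUnion.1 hx
    exact hC k hk
  have hclZ : IsClosed (X.Z ∪ ⋃ j, (X.F j).rim) :=
    D.clZ.union (isClosed_iUnion_of_finite fun j => (isCompact_rim (X.F j)).isClosed)
  obtain ⟨δ₀, hδ₀, hcol⟩ := Pe_622.exists_collar hOm (g := fun x => f (Φ x)) hgc (Φ := Φ) hU hcpt
    hsubO (w2.isClosed_image.2 hclZ) (by
      rintro x ⟨⟨z, hz, rfl⟩, z', hz', he⟩
      have : z' = z := w2.injective he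
      subst this
      exact hgood z' hz hz')
  -- small thickness
  have hev1 : ∀ᶠ δ in 𝓝[>] (0:ℝ), ∀ k, bdv X p δ k (fun x => En p G (w2 x)) ≤
      ENNReal.ofReal (9 * (T3 p (X.m k) * (1 + T2 p (X.m k)))) * D.J k + εa :=
    eventually_all.2 fun k => rhs_one D hC p k hεa
  have hle : ∀ r : ℝ, 0 < r → ∀ᶠ δ in 𝓝[>] (0:ℝ), δ ≤ r := fun r hr =>
    ((eventually_lt_nhds hr).filter_mono nhdsWithin_le_nhds).mono fun _ h => h.le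
  have hev2 : ∀ᶠ δ : ℝ in 𝓝[>] (0:ℝ), ∀ k, δ ≤ (X.C k).R :=
    eventually_all.2 fun k => hle _ (X.C k).R_pos
  have hev3 : ∀ᶠ δ : ℝ in 𝓝[>] (0:ℝ), ∀ j, δ ≤ (X.F j).ρ :=
    eventually_all.2 fun j => hle _ (X.F j).ρ_pos
  have hev4 := hle (δ₀ / 3) (by positivity)
  filter_upwards [hev1, hev2, hev3, hev4, self_mem_nhdsWithin] with δ k1 k2 k3 k4 hδ
  have hδ : (0:ℝ) < δ := hδ
  have h : X.Adm p δ := ⟨hp0, hp3, hδ, k2, k3⟩
  have hGood : ∀ k, ∀ x ∈ (X.C k).P ∩ (nb δ X.Z ∪ ⋃ j, nb δ (X.F j).rim),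
      Good Φ f U (w2 x) := by
    rintro k x ⟨hx1, hx2⟩
    refine hcol (w2 x) ⟨?_, mem_image_of_mem _ (mem_iUnion.2 ⟨k, hx1⟩)⟩
    have h1 : x ∈ nb δ (X.Z ∪ ⋃ j, (X.F j).rim) := by
      rcases hx2 with ⟨y, hy, hxy⟩ | hx3
      · exact ⟨y, Or.inl hy, hxy⟩
      · obtain ⟨j, y, hy, hxy⟩ := mem_iUnion.1 hx3
        exact ⟨y, Or.inr (mem_iUnion.2 ⟨j, hy⟩), hxy⟩
    exact thickening_mono (by linarith) _ (image_nb hδ _ (mem_image_of_mem w2 h1))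
  refine ⟨h, hGood, fun ε₁ hε₁ => ?_⟩
  -- the collar error
  set W : ℝ≥0∞ := ∑ k, Wt X p δ k with hW
  have hWt : W ≠ ∞ := (ENNReal.sum_lt_top.2 fun k _ => (Wt_ne_top X p δ k).lt_top).ne
  obtain ⟨β', hβ', hβ2⟩ := exists_small (X := s6 p * W) (ENNReal.mul_ne_top hst hWt) hε3
  obtain ⟨e₁, he₁, he₁1, he₁2⟩ : ∃ e₁ : ℝ, 0 < e₁ ∧ e₁ ≤ ε₁ ∧ ENNReal.ofReal e₁ ≤ β' := by
    by_cases htop : β' = ∞
    · exact ⟨ε₁, hε₁, le_rfl, by rw [htop]; exact le_top⟩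
    · refine ⟨min ε₁ β'.toReal, lt_min hε₁ (ENNReal.toReal_pos hβ' htop), min_le_left _ _, ?_⟩
      calc ENNReal.ofReal (min ε₁ β'.toReal) ≤ ENNReal.ofReal β'.toReal :=
            ENNReal.ofReal_le_ofReal (min_le_right _ _)
        _ = β' := ENNReal.ofReal_toReal htop
  obtain ⟨θ, hθ, hpre⟩ := Pe_622.pre_energy hp hOm hvol hf Φ hΦ1 hΦ2 hΦ K hU he₁
  refine ⟨θ, hθ, fun R hR hRLa C hRC hRU => ?_⟩
  obtain ⟨G1, hG1, hb⟩ := hpre R hR hRLa C hRC hRU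
  refine ⟨G1, hG1, fun S hS hSO hSg => (hb S hS hSO hSg).trans
    (add_le_add le_rfl (ENNReal.ofReal_le_ofReal he₁1)), ?_⟩
  obtain ⟨u1, hu1⟩ := exists_isEn hp0 hOm hG1
  have hBt : s6 p * ∫⁻ x, u1 x ≠ ∞ := ENNReal.mul_ne_top hst hu1.int
  obtain ⟨N₁₀, hN₁⟩ := est_vw h hBt hε3
  refine ⟨N₁₀, fun N₁ hN => ?_⟩
  obtain ⟨N₂₀, hN₂⟩ := hN₁ N₁ hN
  refine ⟨N₂₀, fun N₂ hN' => ?_⟩
  have hest := hN₂ N₂ hN'
  obtain ⟨G₂, u₂, l1, l2, l3⟩ := comp_stp hp0 (sobChain hp) hOm hG1 hu1 (Sys.chi h N₁ N₂)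
    (Sys.plOn_chi h N₁ N₂) (Sys.plOn_chi_symm h N₁ N₂) (Sys.chi_Om h N₁ N₂ hC hF)
  refine ⟨G₂, l1, ?_, ?_⟩
  · filter_upwards [l3, l2.eq, null_pre (Sys.plOn_chi_symm h N₁ N₂) hu1.eq] with z z1 z2 z3 hz c' hc'
      hcz
    have hz' : w2 (Sys.chi h N₁ N₂ z) ∈ Om := (Sys.chi_Om h N₁ N₂ hC hF z).2 hz
    rw [← z2 hz, ← z3 hz']
    exact z1 hz c' hc' hcz
  intro k hk
  rw [← l2.setInt hOm (hC k)]
  have q1 := hest k hk (fun x => s6 p * u1 x) (hu1.meas.const_mul _)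
    (by rw [lintegral_const_mul _ hu1.meas]) u₂ (by
      filter_upwards [l3] with z hz hzP c' hc' hcz
      refine (hz (hC k hzP) c' hc' hcz).trans (le_of_eq ?_)
      ring)
  refine q1.trans ?_
  -- compare the densities
  have hcoll : ∀ S : Set E3, MeasurableSet S → S ⊆ (X.C k).P ∩ (nb δ X.Z ∪ ⋃ j, nb δ (X.F j).rim) →
      ∫⁻ x in S, s6 p * u1 x ≤ (s6 p * c) * (∫⁻ x in S, En p G (w2 x)) +
        s6 p * ENNReal.ofReal e₁ := by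
    intro S mS hS
    have hSO : ∀ z ∈ S, w2 z ∈ Om := fun z hz => hC k (hS hz).1
    rw [lintegral_const_mul _ hu1.meas, hu1.setInt hOm hSO, int_w2, int_w2]
    have h1 := hb (w2 '' S) (w2.measurableEmbedding.measurableSet_image.2 mS)
      (by rintro _ ⟨z, hz, rfl⟩; exact hSO z hz)
      (by rintro _ ⟨z, hz, rfl⟩; exact hGood k z (hS hz))
    refine (mul_le_mul' le_rfl h1).trans (le_of_eq ?_)
    ring
  have mP : MeasurableSet (X.C k).P := (X.C k).cht.clK.measurableSet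
  have mrim : ∀ j, MeasurableSet (nb δ (X.F j).rim) := fun j =>
    (isClosed_nb hδ.le (isCompact_rim (X.F j)).isClosed).measurableSet
  have mZ : MeasurableSet (nb δ X.Z) := (isClosed_nb hδ.le D.clZ).measurableSet
  have q2 : bdv X p δ k (fun x => s6 p * u1 x) ≤
      (s6 p * c) * bdv X p δ k (fun x => En p G (w2 x)) +
        Wt X p δ k * (s6 p * ENNReal.ofReal e₁) := by
    refine bdv_le (fun j => hcoll _ ?_ ?_) (hcoll _ ?_ subset_rfl)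
    · exact (mP.inter (X.F j).cht.opU.measurableSet).inter (mrim j)
    · rintro x ⟨⟨hx1, -⟩, hx3⟩
      exact ⟨hx1, Or.inr (mem_iUnion.2 ⟨j, hx3⟩)⟩
    · exact mP.inter (mZ.union (MeasurableSet.iUnion mrim))
  have q3 : Wt X p δ k * (s6 p * ENNReal.ofReal e₁) ≤ ε / 3 := by
    refine le_trans ?_ hβ2
    calc Wt X p δ k * (s6 p * ENNReal.ofReal e₁) ≤ W * (s6 p * β') := by
          refine mul_le_mul' ?_ (mul_le_mul' le_rfl he₁2)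
          exact Finset.single_le_sum (f := fun k => Wt X p δ k) (fun _ _ => zero_le)
            (Finset.mem_univ k)
      _ = _ := by ring
  have q4 : ENNReal.ofReal (CB p K (X.m k)) = s6 p * c *
      ENNReal.ofReal (9 * (T3 p (X.m k) * (1 + T2 p (X.m k)))) := by
    have t3 := T3_nonneg p (X.m k)
    have t2 := T2_nonneg p (X.m k)
    rw [CB, ENNReal.ofReal_mul (by positivity), ENNReal.ofReal_mul (by positivity)]
    rfl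
  calc bdv X p δ k (fun x => s6 p * u1 x) + ε / 3
      ≤ ((s6 p * c) * (ENNReal.ofReal (9 * (T3 p (X.m k) * (1 + T2 p (X.m k)))) * D.J k + εa) +
          ε / 3) + ε / 3 := by
        refine add_le_add (q2.trans (add_le_add (mul_le_mul' le_rfl (k1 k)) q3)) le_rfl
    _ = ENNReal.ofReal (CB p K (X.m k)) * D.J k + (s6 p * c * εa + ε / 3 + ε / 3) := by
        rw [q4]; ring
    _ ≤ ENNReal.ofReal (CB p K (X.m k)) * D.J k + (ε / 3 + ε / 3 + ε / 3) :=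
        add_le_add le_rfl (add_le_add (add_le_add hεa' le_rfl) le_rfl)
    _ = ENNReal.ofReal (CB p K (X.m k)) * D.J k + ε := by rw [ENNReal.add_thirds]

end Crest.Agent.R096.Cob_622
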