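import Crest.Agent.R096.Fce1_793
import Crest.Prelude.Def_VecCalc3

/-!
helper802, row 96, (EL) leaf [GS] of helper538: Gram - Schmidt for the frames of the plane pieces.
-/

set_option autoImplicit false
set_option linter.unusedSectionVars false
set_option linter.unusedVariables false
set_option linter.style.longLine false

open MeasureTheory Set Filter Topology Metric
open scoped ENNReal NNReal

namespace Crest.Agent.R096.Onf_802

open Crest.AnalysisR.VecCalc3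
open Crest.Agent.R096.Fce_793 (pt cc)

noncomputable section

/-- orthonormal frames -/
def ON (e : Fin 2 → R3) : Prop := ‖e 0‖ = 1 ∧ ‖e 1‖ = 1 ∧ inner ℝ (e 0) (e 1) = 0

theorem ON.norm {e : Fin 2 → R3} (h : ON e) (i : Fin 2) : ‖e i‖ = 1 := by
  fin_cases i
  · exact h.1
  · exact h.2.1

theorem ON.cc {e : Fin 2 → R3} (h : ON e) : Fce_793.cc e = 2 := by
  unfold Fce_793.cc; rw [h.1, h.2.1]; norm_num

theorem ON.cc_pos {e : Fin 2 → R3} (h : ON e) : 0 < Fce_793.cc e := by rw [h.cc]; norm_num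

/-- `pt e x` is an isometry for the Euclidean norm of the plane -/
theorem ON.norm_pt {e : Fin 2 → R3} (h : ON e) (x : R3) (w w' : ℝ × ℝ) :
    ‖pt e x w - pt e x w'‖ ^ 2 = (w.1 - w'.1) ^ 2 + (w.2 - w'.2) ^ 2 := by
  have h1 : pt e x w - pt e x w' = (w.1 - w'.1) • e 0 + (w.2 - w'.2) • e 1 := by
    simp only [pt, sub_smul]; abel
  rw [h1, @norm_add_sq_real, norm_smul, norm_smul, inner_smul_left, inner_smul_right, h.1, h.2.1,
    h.2.2]
  simp [sq_abs]

/-- a unit vector orthogonal to `u` -/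
theorem exists_unit_orth (u : R3) : ∃ v : R3, ‖v‖ = 1 ∧ inner ℝ u v = 0 := by
  have h1 : (Submodule.span ℝ {u})ᗮ ≠ ⊥ := by
    intro h
    rw [Submodule.orthogonal_eq_bot_iff] at h
    have h2 : Module.finrank ℝ (Submodule.span ℝ {u}) ≤ 1 := by
      have := finrank_span_le_card (R := ℝ) ({u} : Set R3)
      simpa using this
    rw [h, finrank_top] at h2
    simp at h2
  obtain ⟨v, hv, hv0⟩ := Submodule.exists_mem_ne_zero_of_ne_bot h1
  refine ⟨‖v‖⁻¹ • v, norm_smul_inv_norm hv0, ?_⟩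
  rw [inner_smul_right, Submodule.mem_orthogonal_singleton_iff_inner_right.1 hv, mul_zero]

/-- a vector orthogonal to `u` is a multiple of a unit vector orthogonal to `u` -/
theorem exists_unit_dir (u w : R3) (h : inner ℝ u w = 0) :
    ∃ v : R3, ‖v‖ = 1 ∧ inner ℝ u v = 0 ∧ w = ‖w‖ • v := by
  by_cases hw : w = 0
  · obtain ⟨v, hv, hv'⟩ := exists_unit_orth u
    exact ⟨v, hv, hv', by simp [hw]⟩
  · refine ⟨‖w‖⁻¹ • w, norm_smul_inv_norm hw, by rw [inner_smul_right, h, mul_zero], ?_⟩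
    rw [smul_smul, mul_inv_cancel₀ (norm_ne_zero_iff.2 hw), one_smul]

/-- the triangular map -/
def Tri (α β γ : ℝ) : ℝ × ℝ →ₗ[ℝ] ℝ × ℝ :=
  Matrix.toLin (Module.Basis.finTwoProd ℝ) (Module.Basis.finTwoProd ℝ) !![α, β; 0, γ]

theorem Tri_apply (α β γ : ℝ) (w : ℝ × ℝ) : Tri α β γ w = (α * w.1 + β * w.2, γ * w.2) := by
  simp [Tri, Matrix.toLin_finTwoProd_apply]

theorem Tri_det (α β γ : ℝ) : LinearMap.det (Tri α β γ) = α * γ := by
  rw [Tri, LinearMap.det_toLin, Matrix.det_fin_two_of]; ring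

theorem Tri_continuous (α β γ : ℝ) : Continuous (Tri α β γ) := LinearMap.continuous_of_finiteDimensional _

/-- **Gram - Schmidt, any frame** -/
theorem exists_tri (e : Fin 2 → R3) : ∃ (e' : Fin 2 → R3) (α β γ : ℝ), ON e' ∧ α = ‖e 0‖ ∧ 0 ≤ γ ∧
    γ ≤ ‖e 1‖ ∧ e 0 = α • e' 0 ∧ e 1 = β • e' 0 + γ • e' 1 ∧
    (∀ x w, pt e x w = pt e' x (Tri α β γ w)) := by
  obtain ⟨u, hu, -, hu'⟩ := exists_unit_dir 0 (e 0) (by simp)
  set β := inner ℝ u (e 1) with hβ
  have horth : inner ℝ u (e 1 - β • u) = 0 := by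
    rw [inner_sub_right, inner_smul_right, real_inner_self_eq_norm_sq, hu, hβ]; ring
  obtain ⟨v, hv, huv, hv'⟩ := exists_unit_dir u (e 1 - β • u) horth
  have hle : ‖e 1 - β • u‖ ≤ ‖e 1‖ := by
    have h1 : ‖e 1‖ ^ 2 = ‖β • u‖ ^ 2 + ‖e 1 - β • u‖ ^ 2 := by
      have h2 : e 1 = β • u + (e 1 - β • u) := by abel
      conv_lhs => rw [h2]
      rw [@norm_add_sq_real, inner_smul_left, horth]; simp
    have h3 : ‖e 1 - β • u‖ ^ 2 ≤ ‖e 1‖ ^ 2 := by rw [h1]; nlinarith [sq_nonneg ‖β • u‖]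
    exact (sq_le_sq₀ (norm_nonneg _) (norm_nonneg _)).1 h3
  have he0 : e 0 = ‖e 0‖ • u := hu'
  have he1 : e 1 = β • u + ‖e 1 - β • u‖ • v := by
    rw [← hv']; abel
  refine ⟨![u, v], ‖e 0‖, β, ‖e 1 - β • u‖, ⟨hu, hv, huv⟩, rfl, norm_nonneg _, hle, he0, he1, ?_⟩
  intro x w
  have h1 : pt e x w = x + (w.1 • (‖e 0‖ • u) + w.2 • (β • u + ‖e 1 - β • u‖ • v)) := by
    rw [← he0, ← he1]; rfl
  rw [h1, Tri_apply]
  simp only [pt, Matrix.cons_val_zero, Matrix.cons_val_one]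
  module

theorem tri_emb {α β γ : ℝ} (h : 0 < α * γ) : MeasurableEmbedding (Tri α β γ) := by
  have hinj : Function.Injective (Tri α β γ) := by
    rw [← LinearMap.ker_eq_bot]
    by_contra hk
    exact hk (LinearMap.ker_eq_bot'.2 fun m hm => by
      have h3 := Tri_apply α β γ m
      rw [hm] at h3
      have h4 : (0 : ℝ) = γ * m.2 := congrArg Prod.snd h3
      have h5 : (0 : ℝ) = α * m.1 + β * m.2 := congrArg Prod.fst h3
      have hγ : γ ≠ 0 := by rintro rfl; simp at h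
      have hα : α ≠ 0 := by rintro rfl; simp at h
      have h6 : m.2 = 0 := by
        rcases mul_eq_zero.1 h4.symm with h7 | h7
        · exact absurd h7 hγ
        · exact h7
      rw [h6, mul_zero, add_zero] at h5
      have h8 : m.1 = 0 := by
        rcases mul_eq_zero.1 h5.symm with h7 | h7
        · exact absurd h7 hα
        · exact h7
      exact Prod.ext h8 h6)
  exact (Tri_continuous α β γ).measurableEmbedding hinj

/-- change of variables in the plane -/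
theorem lintegral_tri {α β γ : ℝ} (h : 0 < α * γ) (Q : Set (ℝ × ℝ)) (g : ℝ × ℝ → ℝ≥0∞) :
    ∫⁻ w in Tri α β γ '' Q, g w = ENNReal.ofReal (α * γ) * ∫⁻ w in Q, g (Tri α β γ w) := by
  have hdet : LinearMap.det (Tri α β γ) ≠ 0 := by rw [Tri_det]; exact h.ne'
  have hemb := tri_emb (β := β) h
  have h1 := Measure.map_linearMap_addHaar_eq_smul_addHaar (volume : Measure (ℝ × ℝ)) hdet
  rw [Tri_det] at h1
  have h2 : ∫⁻ w in Tri α β γ '' Q, g w ∂(Measure.map (Tri α β γ) volume) =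
      ∫⁻ w in Q, g (Tri α β γ w) := by
    rw [hemb.restrict_map, hemb.lintegral_map, preimage_image_eq _ hemb.injective]
  rw [h1, Measure.restrict_smul, lintegral_smul_measure, smul_eq_mul] at h2
  rw [← h2, ← mul_assoc, ← ENNReal.ofReal_mul h.le, abs_of_pos (inv_pos.2 h), mul_inv_cancel₀ h.ne',
    ENNReal.ofReal_one, one_mul]

/-- **[GS] of helper538 #11849** -/
theorem exists_on {e : Fin 2 → R3} (he : LinearIndependent ℝ e) :
    ∃ e' : Fin 2 → R3, (∀ i, ‖e' i‖ = 1) ∧ inner ℝ (e' 0) (e' 1) = 0 ∧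
    ∃ ar : ℝ, 0 < ar ∧ ar ≤ ‖e 0‖ * ‖e 1‖ ∧ ∀ (x : R3) (Q : Set (ℝ × ℝ)), ∃ Q' : Set (ℝ × ℝ),
      (IsCompact Q → IsCompact Q') ∧ (MeasurableSet Q → MeasurableSet Q') ∧
      pt e x '' Q = pt e' x '' Q' ∧
      ∀ g : R3 → ℝ≥0∞, ∫⁻ w in Q', g (pt e' x w) =
        ENNReal.ofReal ar * ∫⁻ w in Q, g (pt e x w) := by
  obtain ⟨e', α, β, γ, hon, hα, hγ, hγ', h0, h1, hpt⟩ := exists_tri e
  have hα0 : 0 < α := by rw [hα]; exact norm_pos_iff.2 (he.ne_zero 0)
  have hγ0 : 0 < γ := by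
    refine lt_of_le_of_ne hγ fun h => ?_
    rw [← h, zero_smul, add_zero] at h1
    rw [linearIndependent_fin2] at he
    by_cases hβ : β = 0
    · exact he.1 (by rw [h1, hβ, zero_smul])
    · exact he.2 (α / β) (by rw [h1, h0, smul_smul, div_mul_cancel₀ _ hβ])
  refine ⟨e', hon.norm, hon.2.2, α * γ, mul_pos hα0 hγ0, ?_, fun x Q => ⟨Tri α β γ '' Q, ?_, ?_, ?_, ?_⟩⟩
  · rw [hα]; exact mul_le_mul_of_nonneg_left hγ' (norm_nonneg _)
  · exact fun hQ => hQ.image (Tri_continuous _ _ _)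
  · exact fun hQ => (tri_emb (mul_pos hα0 hγ0)).measurableSet_image.2 hQ
  · rw [image_image]; exact image_congr fun w _ => hpt x w
  · intro g
    rw [lintegral_tri (mul_pos hα0 hγ0)]
    congr 1
    exact lintegral_congr fun w => by rw [hpt]

/-- any frame and any compact set: an orthonormal frame and a compact set with the same image
(no linear independence) -/
theorem exists_on_cpt (e : Fin 2 → R3) :
    ∃ e' : Fin 2 → R3, ON e' ∧ ∀ (Q : Set (ℝ × ℝ)), ∃ Q' : Set (ℝ × ℝ),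
      (IsCompact Q → IsCompact Q') ∧ ∀ x, pt e x '' Q = pt e' x '' Q' := by
  obtain ⟨e', α, β, γ, hon, hα, hγ, hγ', h0, h1, hpt⟩ := exists_tri e
  refine ⟨e', hon, fun Q => ⟨Tri α β γ '' Q, fun hQ => hQ.image (Tri_continuous _ _ _), fun x => ?_⟩⟩
  rw [image_image]; exact image_congr fun w _ => hpt x w

/-- the same for a family -/
theorem exists_on_fam {κf : Type*} (e : κf → Fin 2 → R3) (Qf : κf → Set (ℝ × ℝ)) :
    ∃ (e' : κf → Fin 2 → R3) (Qf' : κf → Set (ℝ × ℝ)), (∀ φ, ON (e' φ)) ∧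
      (∀ φ, IsCompact (Qf φ) → IsCompact (Qf' φ)) ∧
      ∀ φ x, pt (e φ) x '' Qf φ = pt (e' φ) x '' Qf' φ := by
  choose e' he' hQ using fun φ => exists_on_cpt (e φ)
  choose Q' hQ' using fun φ => hQ φ (Qf φ)
  exact ⟨e', Q', he', fun φ => (hQ' φ).1, fun φ x => (hQ' φ).2 x⟩

end

end Crest.Agent.R096.Onf_802
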