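import Crest.Agent.R096.Ca2_855

/-!
# Row 96 (helper812), p ≤ 2: (G2) of 753: 2SK with a fine approximation, control near the boundary

* `HFine Om La f` : the fine form of `happ` (tolerance = positive continuous function on the target);
* `two_sk_fine` : 270's `two_sk_near` + the growth clause away from the bodies;
* `Regs.exists_psi_fine`, `psi_of_regs_fine` : 855's `exists_psi`, `psi_of_regs` with this clause.
-/

set_option autoImplicit false
set_option linter.unusedSectionVars false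

open Set Metric

namespace Crest.Agent.R096.Gz_812

open Crest.Agent.R096.Msh_715 (Tiling P I)
open Crest.Agent.R096.Sk2_855 (sk1 HP Mv usurgZ)
open Crest.Agent.R096.Sk3_812 (GoodT HF)
open Crest.Agent.R096.Ub_113
open Crest.Agent.R096.Sk3_270 (One two_sk_tiles exists_col)
open Crest.Agent.R096.Ca_855

variable {E : Type} [NormedAddCommGroup E] [NormedSpace ℝ E] [FiniteDimensional ℝ E]
  {Om La : Set E} {ι : Type} {T : Tiling Om ι}

/-- fine `C⁰`-approximation by locally PL homeomorphisms onto the same target -/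
def HFine (Om La : Set E) (f : E → E) : Prop :=
  ∀ ζ : E → ℝ, ContinuousOn ζ La → (∀ y ∈ La, 0 < ζ y) →
    ∃ h hi, HP Om La h hi ∧ ∀ x ∈ Om, ‖h x - f x‖ ≤ ζ (f x)

theorem HFine.unif {f : E → E} (H : HFine Om La f) :
    ∀ η > 0, ∃ h hi, HP Om La h hi ∧ ∀ x ∈ Om, ‖h x - f x‖ ≤ η := fun η hη =>
  H (fun _ => η) continuousOn_const fun _ _ => hη

theorem cont_of_half {ζ : E → ℝ} (h : ∀ y y', |ζ y - ζ y'| ≤ ‖y - y'‖ / 2) : Continuous ζ := by
  have h1 : LipschitzWith 1 ζ := LipschitzWith.of_dist_le_mul fun y y' => by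
    rw [Real.dist_eq, dist_eq_norm, NNReal.coe_one, one_mul]
    have := h y y'
    have h2 := norm_nonneg (y - y')
    linarith
  exact h1.continuous

/-- **2SK for a finite family of tiles, fine form**: 270's two clauses with an error `e`, and far
from the bodies the displacement is controlled by the oscillation on the tile and by `ζ` -/
theorem two_sk_fine {f : E → E} (h3 : Module.finrank ℝ E = 3) (hLa : IsOpen La)
    (hS : USurg T La)
    {J : Type*} [Finite J] (i : J → ι) {Y : J → Set E}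
    (O : ∀ j, One T La f (P (T.H (i j))) (Y j)) {n : ℕ} (col : J → Fin n)
    (hcol : ∀ j j', j ≠ j' → col j = col j' → Disjoint (Y j) (Y j'))
    (hf : MapsTo f Om La) (happ : HFine Om La f) {e : ℝ} (he : 0 < e) {ζ : E → ℝ}
    (hζ0 : ∀ y ∈ La, 0 < ζ y) (hζ : ∀ y y', |ζ y - ζ y'| ≤ ‖y - y'‖ / 2) :
    ∃ Ψ : E ≃ₜ E, Mv T Ψ ∧
      (∀ j (y0 : E) (R D : ℝ), 0 ≤ D → Y j ⊆ closedBall y0 R →
        (∀ j', (Y j' ∩ closedBall y0 (R + n * D + e)).Nonempty →
          ∀ y ∈ Y j', ∀ y' ∈ Y j', ‖y - y'‖ ≤ D) →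
        ∀ x ∈ P (T.H (i j)), ‖f (Ψ x) - y0‖ ≤ R + n * D + e) ∧
      (∀ k (y0 : E) (R D : ℝ), 0 ≤ D → (∀ x ∈ P (T.H k), T.dim x ≤ 2 → f x ∈ closedBall y0 R) →
        (∀ j', (Y j' ∩ closedBall y0 (R + n * D + e)).Nonempty →
          ∀ y ∈ Y j', ∀ y' ∈ Y j', ‖y - y'‖ ≤ D) →
        ∀ x ∈ P (T.H k), ‖f (Ψ x) - y0‖ ≤ R + n * D + e) ∧
      (∀ k, ∀ x ∈ P (T.H k), ∀ r, (∀ x' ∈ P (T.H k), ‖f x' - f x‖ ≤ r) →
        (∀ j, Disjoint (closedBall (f x) (2 * r + ζ (f x))) (Y j)) →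
        ‖f (Ψ x) - f x‖ ≤ 4 * r + 4 * ζ (f x)) := by
  obtain ⟨η, hη, g⟩ := two_sk_tiles h3 hLa hS i O col hcol
  obtain ⟨h, hi, H, hh⟩ := happ (fun y => min (min η (e / 2)) (ζ y))
    (continuous_const.min (cont_of_half hζ)).continuousOn
    fun y hy => lt_min (lt_min hη (by positivity)) (hζ0 y hy)
  have hh1 : ∀ x ∈ Om, ‖h x - f x‖ ≤ e / 2 := fun x hx =>
    (hh x hx).trans ((min_le_left _ _).trans (min_le_right _ _))
  have hh2 : ∀ x ∈ Om, ‖h x - f x‖ ≤ ζ (f x) := fun x hx => (hh x hx).trans (min_le_right _ _)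
  obtain ⟨Ψ, hΨ, g'⟩ := g h hi H fun x hx =>
    (hh x hx).trans ((min_le_left _ _).trans (min_le_left _ _))
  -- balls
  have key : ∀ (y0 : E) (R D : ℝ), 0 ≤ D →
      (∀ j', (Y j' ∩ closedBall y0 (R + n * D)).Nonempty → ∀ y ∈ Y j', ∀ y' ∈ Y j', ‖y - y'‖ ≤ D) →
      (∀ j, Y j ⊆ closedBall y0 R → ∀ x ∈ P (T.H (i j)), ‖h (Ψ x) - y0‖ ≤ R + n * D) ∧
      (∀ k, (∀ x ∈ P (T.H k), T.dim x ≤ 2 → h x ∈ closedBall y0 R) →
        ∀ x ∈ P (T.H k), ‖h (Ψ x) - y0‖ ≤ R + n * D) := by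
    intro y0 R D hD hdiam
    obtain ⟨g1, g2⟩ := g' (fun m => closedBall y0 (R + m * D))
      (by
        intro m
        refine closedBall_subset_closedBall ?_
        push_cast
        nlinarith)
      (by
        rintro m hm j' ⟨y', hy'', hy'⟩ y hy
        have hmn : (m : ℝ) * D ≤ n * D :=
          mul_le_mul_of_nonneg_right (by exact_mod_cast hm.le) hD
        have h1 := hdiam j' ⟨y', hy', closedBall_subset_closedBall (by linarith) hy''⟩ y hy y' hy'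
        have h2 : ‖y' - y0‖ ≤ R + m * D := by
          rw [← dist_eq_norm]; exact hy''
        show y ∈ closedBall y0 (R + ((m + 1 : ℕ) : ℝ) * D)
        rw [mem_closedBall, dist_eq_norm]
        have e1 : y - y0 = (y - y') + (y' - y0) := by abel
        rw [e1]
        refine (norm_add_le _ _).trans ?_
        push_cast
        linarith)
      (convex_closedBall _ _) isClosed_closedBall
    refine ⟨fun j hj x hx => ?_, fun k hk x hx => ?_⟩
    · have := g1 j (by simpa using hj) x hx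
      rwa [mem_closedBall, dist_eq_norm] at this
    · have := g2 k (by simpa using hk) x hx
      rwa [mem_closedBall, dist_eq_norm] at this
  have hfΨ : ∀ x ∈ Om, ∀ y0 : E, ‖f (Ψ x) - y0‖ ≤ ‖h (Ψ x) - y0‖ + e / 2 := by
    intro x hx y0
    have h1 := hh1 (Ψ x) (hΨ.mapsTo hx)
    have e1 : f (Ψ x) - y0 = (h (Ψ x) - y0) - (h (Ψ x) - f (Ψ x)) := by abel
    rw [e1]
    exact (norm_sub_le _ _).trans (by linarith)
  refine ⟨Ψ, hΨ, fun j y0 R D hD hj hdiam x hx => ?_, fun k y0 R D hD hk hdiam x hx => ?_,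
    fun k x hx r hr hdj => ?_⟩
  · have h1 := (key y0 R D hD fun j' hj' => hdiam j' (hj'.mono (inter_subset_inter_right _
      (closedBall_subset_closedBall (by linarith))))).1 j hj x hx
    have h2 := hfΨ x (T.sub _ hx) y0
    linarith
  · have h1 := (key y0 (R + e / 2) D hD fun j' hj' => hdiam j' (hj'.mono
      (inter_subset_inter_right _ (closedBall_subset_closedBall (by linarith))))).2 k
      (by
        intro z hz hzd
        have h4 := hk z hz hzd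
        have h5 := hh1 z (T.sub _ hz)
        rw [mem_closedBall, dist_eq_norm] at h4 ⊢
        have e1 : h z - y0 = (h z - f z) + (f z - y0) := by abel
        rw [e1]
        exact (norm_add_le _ _).trans (by linarith)) x hx
    have h2 := hfΨ x (T.sub _ hx) y0
    linarith
  · -- far from the bodies
    have hxO : x ∈ Om := T.sub _ hx
    have hr0 : 0 ≤ r := by
      have := hr x hx
      rwa [sub_self, norm_zero] at this
    have hz0 : 0 < ζ (f x) := hζ0 _ (hf hxO)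
    obtain ⟨-, g2⟩ := g' (fun _ => closedBall (f x) (2 * r + ζ (f x)))
      (fun _ => Subset.rfl)
      (fun m _ j ⟨y, hy, hy'⟩ => absurd hy' (Set.disjoint_left.1 (hdj j) hy))
      (convex_closedBall _ _) isClosed_closedBall
    have h1 := g2 k (fun x' hx' _ => by
      rw [mem_closedBall, dist_eq_norm]
      have h4 := hh2 x' (T.sub _ hx')
      have h5 := hr x' hx'
      have h6 := hζ (f x') (f x)
      have h7 := le_abs_self (ζ (f x') - ζ (f x))
      have e1 : h x' - f x = (h x' - f x') + (f x' - f x) := by abel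
      rw [e1]
      exact (norm_add_le _ _).trans (by linarith)) x hx
    rw [mem_closedBall, dist_eq_norm] at h1
    have hΨx : Ψ x ∈ Om := hΨ.mapsTo hxO
    have h4 := hh2 _ hΨx
    have h5 := hζ (f (Ψ x)) (h (Ψ x))
    have h6 := le_abs_self (ζ (f (Ψ x)) - ζ (h (Ψ x)))
    rw [norm_sub_rev] at h5
    have h7 := hζ (h (Ψ x)) (f x)
    have h8 := le_abs_self (ζ (h (Ψ x)) - ζ (f x))
    have e1 : f (Ψ x) - f x = (h (Ψ x) - f x) - (h (Ψ x) - f (Ψ x)) := by abel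
    rw [e1]
    refine (norm_sub_le _ _).trans ?_
    linarith

/-- **from the good regions to the homeomorphism, fine form** -/
theorem _root_.Crest.Agent.R096.Ca_855.Regs.exists_psi_fine {f fi : E → E} {K : Type*}
    {A : K → E ≃ᵃ[ℝ] E} {U V : K → Set E} {u : K → ι → E → ℝ} {C : K → ι → E} {a b : ℝ}
    {nc : ℕ} {t Λ : ℝ} [Finite K] (R : Regs T La f A U V u C a b nc t Λ)
    (h3 : Module.finrank ℝ E = 3) (hLa : IsOpen La) (F : HF Om La f fi) (hf : MapsTo f Om La)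
    (happ : HFine Om La f) {e : ℝ} (he : 0 < e) {ζ : E → ℝ} (hζ0 : ∀ y ∈ La, 0 < ζ y)
    (hζ : ∀ y y', |ζ y - ζ y'| ≤ ‖y - y'‖ / 2) :
    ∃ Ψ : E ≃ₜ E, Mv T Ψ ∧
      (∀ k i, P (T.H i) ⊆ U k → ∀ x ∈ P (T.H i),
        ‖f (Ψ x) - A k x‖ ≤ 3 * (nc * (nc * nc) + 2) * (Λ * t) + e) ∧
      (∀ i, ∀ x ∈ P (T.H i), ∀ r, (∀ x' ∈ P (T.H i), ‖f x' - f x‖ ≤ r) →
        ‖f (Ψ x) - f x‖ ≤ r + 3 * (nc * (nc * nc) + 1) * (Λ * t) + e) ∧
      (∀ i, ∀ x ∈ P (T.H i), ∀ r, (∀ x' ∈ P (T.H i), ‖f x' - f x‖ ≤ r) →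
        (∀ k, Disjoint (closedBall (f x) (2 * r + ζ (f x))) (A k '' V k)) →
        ‖f (Ψ x) - f x‖ ≤ 4 * r + 4 * ζ (f x)) := by
  have hfin := R.finite_J
  obtain ⟨col, hcol⟩ := exists_col (J := Regs.J T U)
    (fun j j' => (Regs.Y u b j ∩ Regs.Y u b j').Nonempty)
    (fun j j' h => by rwa [inter_comm]) (n := nc * (nc * nc) + 1)
    (fun j => Nat.lt_succ_of_le (R.meet_card j))
  obtain ⟨Ψ, hΨ, g1, g2, g3⟩ := two_sk_fine h3 hLa (usurgZ (La := La) h3 T) (J := Regs.J T U)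
    (fun j => j.1.2) (Y := fun j => Regs.Y u b j)
    (fun j => (R.good j.1.1 j.1.2 j.2).one h3 F) col
    (fun j j' hne hc => by
      rw [Set.disjoint_iff_inter_eq_empty]
      by_contra hn
      exact hcol j j' hne hc (nonempty_iff_ne_empty.2 hn)) hf happ he hζ0 hζ
  have hΛt : 0 ≤ Λ * t := mul_nonneg R.Λ0 R.t0
  have hD : 0 ≤ Λ * (3 * t) := mul_nonneg R.Λ0 (by linarith [R.t0])
  refine ⟨Ψ, hΨ, fun k i hi x hx => ?_, fun i x hx r hr => ?_, fun i x hx r hr hdj => ?_⟩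
  · have h1 := g1 ⟨(k, i), hi⟩ (A k x) (Λ * (2 * t)) (Λ * (3 * t)) hD
      (by
        intro y hy
        rw [mem_closedBall, dist_eq_norm]
        have h2 : u k i (A k ((A k).symm y)) ≤ b := by
          rw [AffineEquiv.apply_symm_apply]; exact hy
        have h4 := aff_sub (A k) ((A k).symm y) x
        rw [AffineEquiv.apply_symm_apply] at h4
        rw [h4]
        exact (R.lin _ _).trans (mul_le_mul_of_nonneg_left (R.dist_star hi h2 hx) R.Λ0))
      (fun j' _ y hy y' hy' => R.diam_Y j' hy hy') x hx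
    refine h1.trans ?_
    push_cast
    nlinarith
  · have h1 := g2 i (f x) r (Λ * (3 * t)) hD
      (fun x' hx' _ => by rw [mem_closedBall, dist_eq_norm]; exact hr x' hx')
      (fun j' _ y hy y' hy' => R.diam_Y j' hy hy') x hx
    refine h1.trans ?_
    push_cast
    nlinarith
  · refine g3 i x hx r hr fun j => ?_
    rw [Set.disjoint_left]
    intro y hy hy'
    obtain ⟨z, hz, hzy, -⟩ := R.Y_sub j hy'
    exact Set.disjoint_left.1 (hdj j.1.1) hy ⟨z, hz, hzy⟩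

section one

open Crest.AnalysisR.VecCalc3
open Crest.Agent.R96.Intr_538 (cel par cel_mono isCompact_cel)
open Crest.Agent.R96.Coarse_538

variable {Om La : Set R3} {ι : Type} {T : Tiling Om ι} {f fi : R3 → R3} {τ t s : ℝ}
  {Q : Finset (Fin 3 → ℤ)} {zc bb : (Fin 3 → ℤ) → R3} {LL : (Fin 3 → ℤ) → R3 →L[ℝ] R3} {nc : ℕ}

/-- **`Ψ` for one mesh and perfect cubes, fine form** -/
theorem psi_of_regs_fine (hτ6 : 6 * τ < 1) (hs : 0 < s) (ht0 : 0 ≤ t)
    (ht : 2 * t ≤ τ * s) (hLa : IsOpen La) (F : HF Om La f fi) (hf : MapsTo f Om La)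
    {hinj : ∀ k ∈ Q, Function.Injective (LL k)}
    {u : {k // k ∈ Q} → ι → R3 → ℝ} {C : {k // k ∈ Q} → ι → R3} {α α' Λ : ℝ}
    (hsub : ∀ k ∈ Q, cel Cb (zc k) s ⊆ Om)
    (R : Regs T La f (Aq zc bb LL hinj) (fun k => cel Cb (zc k) ((1 - 5 * τ) * s))
      (fun k => cel Cb (zc k) ((1 - 4 * τ) * s)) u C α α' nc t Λ)
    (happ : HFine Om La f) {e : ℝ} (he : 0 < e) {ζ : R3 → ℝ} (hζ0 : ∀ y ∈ La, 0 < ζ y)
    (hζ : ∀ y y', |ζ y - ζ y'| ≤ ‖y - y'‖ / 2) :
    ∃ Ψ : R3 ≃ₜ R3, Mv T Ψ ∧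
      (∀ k ∈ Q, ∀ y ∈ cel Cb (zc k) ((1 - 6 * τ) * s),
        ‖f (Ψ y) - (bb k + LL k (y - zc k))‖ ≤ 3 * (nc * (nc * nc) + 2) * (Λ * t) + e) ∧
      (∀ i, ∀ y ∈ P (T.H i), ∀ r, (∀ y' ∈ P (T.H i), ‖f y' - f y‖ ≤ r) →
        ‖f (Ψ y) - f y‖ ≤ r + 3 * (nc * (nc * nc) + 1) * (Λ * t) + e) ∧
      (∀ i, ∀ y ∈ P (T.H i), ∀ r, (∀ y' ∈ P (T.H i), ‖f y' - f y‖ ≤ r) →
        (∀ k ∈ Q, Disjoint (closedBall (f y) (2 * r + ζ (f y)))
          (par Cb (LL k) (bb k) ((1 - 4 * τ) * s))) →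
        ‖f (Ψ y) - f y‖ ≤ 4 * r + 4 * ζ (f y)) := by
  obtain ⟨Ψ, hΨ, g1, g2, g3⟩ := R.exists_psi_fine (finrank_euclideanSpace_fin) hLa F hf happ he
    hζ0 hζ
  refine ⟨Ψ, hΨ, fun k hk y hy => ?_, g2, fun i y hy r hr hd => g3 i y hy r hr fun k => ?_⟩
  · have h6 : 0 < (1 - 6 * τ) * s := mul_pos (by linarith) hs
    have hyO : y ∈ Om := hsub k hk (cel_mono ref_Cb _ h6.le (by nlinarith) hy)
    obtain ⟨i, hi⟩ := T.at_nonempty hyO
    have hi' : P (T.H i) ⊆ cel Cb (zc k) ((1 - 5 * τ) * s) := by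
      intro w hw
      have h1 := R.diam ⟨k, hk⟩ i ⟨y, hi, cel_mono ref_Cb _ h6.le (by nlinarith) hy⟩ w hw y hi
      exact cel_near ht0 h6 (by nlinarith) hy h1
    have h2 := g1 ⟨k, hk⟩ i hi' y hi
    rw [show Aq zc bb LL hinj ⟨k, hk⟩ y = bb k + LL k (y - zc k) from aff_apply y] at h2
    exact h2
  · rw [show (Aq zc bb LL hinj k) '' cel Cb (zc k) ((1 - 4 * τ) * s) =
      par Cb (LL k) (bb k) ((1 - 4 * τ) * s) from aff_image _]
    exact hd k k.2

end one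

end Crest.Agent.R096.Gz_812
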