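import Crest.Agent.R096.ThC5_766

/-!
Row 96 (S0127), helper766.  Tools for the PL version of Theorem C: continuity of semiconcave
functions, scale functions of an open set, locally finite nets, generic perturbation of heights.
-/

set_option autoImplicit false
set_option linter.unusedSectionVars false
set_option linter.style.longLine false
set_option linter.style.haveILetI false
set_option linter.unusedVariables false

namespace Crest.Agent.R096.ThC6_766

open MeasureTheory Set Filter Topology Metric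
open Crest.Agent.R096.ThC3_766

variable {V : Type*} [NormedAddCommGroup V] [InnerProductSpace ℝ V]

lemma SC_concave {β : ℝ} {g : V → ℝ} (h : SC β g) :
    ConcaveOn ℝ univ (fun x => g x - β / 2 * ‖x‖ ^ 2) := by
  refine ⟨convex_univ, fun x _ y _ a b ha hb hab => ?_⟩
  obtain ⟨p, hp⟩ := h (a • x + b • y)
  have hn : ∀ u : V, ‖u - (a • x + b • y)‖ ^ 2 =
      ‖u‖ ^ 2 - ‖a • x + b • y‖ ^ 2 - 2 * inner ℝ (a • x + b • y) (u - (a • x + b • y)) := by
    intro u
    rw [norm_sub_sq_real, inner_sub_right, real_inner_self_eq_norm_sq, real_inner_comm u]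
    ring
  have h1 := hp x
  have h2 := hp y
  rw [hn] at h1 h2
  set z := a • x + b • y with hz
  have h3 : a * (inner ℝ p (x - z) - β * inner ℝ z (x - z)) +
      b * (inner ℝ p (y - z) - β * inner ℝ z (y - z)) = 0 := by
    have h4 : ∀ q : V, a * inner ℝ q (x - z) + b * inner ℝ q (y - z) = 0 := by
      intro q
      rw [← real_inner_smul_right, ← real_inner_smul_right, ← inner_add_right]
      have : a • (x - z) + b • (y - z) = 0 := by
        have hb' : b = 1 - a := by linarith
        rw [hz, hb']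
        module
      rw [this, inner_zero_right]
    have h5 := h4 p
    have h6 := h4 z
    linear_combination h5 - β * h6
  simp only [smul_eq_mul]
  have h7 := mul_le_mul_of_nonneg_left h1 ha
  have h8 := mul_le_mul_of_nonneg_left h2 hb
  have h9 : a * (g z - β / 2 * ‖z‖ ^ 2) + b * (g z - β / 2 * ‖z‖ ^ 2) = g z - β / 2 * ‖z‖ ^ 2 := by
    rw [← add_mul, hab, one_mul]
  nlinarith

lemma SC_continuous [FiniteDimensional ℝ V] {β : ℝ} {g : V → ℝ} (h : SC β g) : Continuous g := by
  have h1 : ContinuousOn (fun x => g x - β / 2 * ‖x‖ ^ 2) univ :=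
    (SC_concave h).continuousOn isOpen_univ
  rw [continuousOn_univ] at h1
  have h2 : g = fun x => (g x - β / 2 * ‖x‖ ^ 2) + β / 2 * ‖x‖ ^ 2 := by
    funext x; ring
  rw [h2]
  exact h1.add (by fun_prop)

/-- scale functions of the open set `L`. -/
structure Scale (L : Set V) (w : V → ℝ) : Prop where
  nonneg : ∀ x, 0 ≤ w x
  lip : ∀ x y, w x ≤ w y + ‖x - y‖ / 8
  pos : ∀ x ∈ L, 0 < w x
  off : ∀ x ∉ L, w x = 0
  le_one : ∀ x, w x ≤ 1

lemma Scale.cont {L : Set V} {w : V → ℝ} (h : Scale L w) : Continuous w := by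
  have : LipschitzWith (1 / 8 : ℝ).toNNReal w := by
    apply LipschitzWith.of_le_add_mul
    intro x y
    rw [Real.coe_toNNReal _ (by norm_num), dist_eq_norm]
    have := h.lip x y
    linarith
  exact this.continuous

lemma Scale.mem {L : Set V} {w : V → ℝ} (h : Scale L w) {x y : V} (hx : x ∈ L)
    (hxy : ‖y - x‖ < 8 * w x) : y ∈ L := by
  by_contra hy
  have h1 := h.lip x y
  rw [h.off y hy, norm_sub_rev] at h1
  linarith

theorem exists_scale {L : Set V} (hL : IsOpen L) {h : V → ℝ}
    (hh : ∀ x ∈ L, ∃ r : ℝ, 0 < r ∧ ∃ m : ℝ, 0 < m ∧ ∀ y ∈ ball x r, m ≤ h y) :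
    ∃ w : V → ℝ, Scale L w ∧ ∀ x ∈ L, w x ≤ h x := by
  classical
  set H : V → ℝ := fun y => if y ∈ L then min 1 (h y) else 0 with hH
  have hpos : ∀ y ∈ L, 0 < h y := by
    intro y hy
    obtain ⟨r, hr, m, hm, hb⟩ := hh y hy
    exact hm.trans_le (hb y (mem_ball_self hr))
  have hH0 : ∀ y, 0 ≤ H y := by
    intro y
    by_cases hy : y ∈ L
    · simp only [hH, hy, if_true]; exact le_min zero_le_one (hpos y hy).le
    · simp [hH, hy]
  have hbdd : ∀ x, BddBelow (range fun y => H y + ‖x - y‖ / 8) := fun x =>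
    ⟨0, by rintro _ ⟨y, rfl⟩; have := hH0 y; positivity⟩
  set w : V → ℝ := fun x => ⨅ y, (H y + ‖x - y‖ / 8) with hw
  have hwle : ∀ x y, w x ≤ H y + ‖x - y‖ / 8 := fun x y => ciInf_le (hbdd x) y
  have hlew : ∀ x c, (∀ y, c ≤ H y + ‖x - y‖ / 8) → c ≤ w x := fun x c hc => le_ciInf hc
  have hself : ∀ x, w x ≤ H x := fun x => by
    have := hwle x x
    simpa using this
  refine ⟨w, ⟨fun x => hlew x 0 fun y => by have := hH0 y; positivity, ?_, ?_, ?_, ?_⟩, ?_⟩
  · intro x y
    have : w x - ‖x - y‖ / 8 ≤ w y := by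
      refine hlew y _ fun z => ?_
      have h1 := hwle x z
      have h2 : ‖x - z‖ ≤ ‖x - y‖ + ‖y - z‖ := by
        have := norm_add_le (x - y) (y - z)
        rwa [sub_add_sub_cancel] at this
      linarith
    linarith
  · intro x hx
    obtain ⟨r, hr, m, hm, hb⟩ := hh x hx
    obtain ⟨r', hr', hrL⟩ := Metric.isOpen_iff.1 hL x hx
    have hlow : min (min 1 m) (min r r' / 8) ≤ w x := by
      refine hlew x _ fun y => ?_
      by_cases hy : ‖x - y‖ < min r r'
      · have hyr : y ∈ ball x r := by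
          rw [mem_ball, dist_comm, dist_eq_norm]; exact hy.trans_le (min_le_left _ _)
        have hyL : y ∈ L := hrL (by
          rw [mem_ball, dist_comm, dist_eq_norm]; exact hy.trans_le (min_le_right _ _))
        have h1 : min 1 m ≤ H y := by
          simp only [hH, hyL, if_true]
          exact min_le_min le_rfl (hb y hyr)
        have h2 : 0 ≤ ‖x - y‖ / 8 := by positivity
        exact (min_le_left _ _).trans (by linarith)
      · push Not at hy
        have := hH0 y
        exact (min_le_right _ _).trans (by linarith)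
    exact lt_of_lt_of_le (by positivity) hlow
  · intro x hx
    apply le_antisymm
    · have := hself x
      simpa [hH, hx] using this
    · exact hlew x 0 fun y => by have := hH0 y; positivity
  · intro x
    refine (hself x).trans ?_
    by_cases hx : x ∈ L
    · simp only [hH, hx, if_true]; exact min_le_left _ _
    · simp [hH, hx]
  · intro x hx
    refine (hself x).trans ?_
    simp only [hH, hx, if_true]; exact min_le_right _ _

/-- a separated bounded subset of a proper space is finite. -/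
lemma finite_of_sep [ProperSpace V] {S : Set V} {δ : ℝ} (hδ : 0 < δ)
    (hsep : ∀ x ∈ S, ∀ y ∈ S, x ≠ y → δ ≤ ‖x - y‖) (c : V) (r : ℝ) :
    (S ∩ closedBall c r).Finite := by
  obtain ⟨t, -, htf, ht⟩ := (isCompact_closedBall c r).finite_cover_balls (half_pos hδ)
  have : S ∩ closedBall c r ⊆ ⋃ y ∈ t, (S ∩ ball y (δ / 2)) := by
    intro x hx
    obtain ⟨y, hy⟩ := mem_iUnion.1 (ht hx.2)
    obtain ⟨hyt, hxy⟩ := mem_iUnion.1 hy
    exact mem_iUnion.2 ⟨y, mem_iUnion.2 ⟨hyt, hx.1, hxy⟩⟩
  refine (htf.biUnion fun y _ => ?_).subset this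
  apply Set.Subsingleton.finite
  rintro a ⟨haS, ha⟩ b ⟨hbS, hb⟩
  by_contra hab
  have h1 := hsep a haS b hbS hab
  rw [mem_ball, dist_eq_norm] at ha hb
  have h2 := norm_sub_le (a - y) (b - y)
  have h3 : (a - y) - (b - y) = a - b := by abel
  rw [h3] at h2
  linarith

/-- locally finite nets of fineness `w`. -/
theorem exists_net' [ProperSpace V] {L : Set V} {w : V → ℝ} (hw : Scale L w) :
    ∃ S : Set V, S ⊆ L ∧ S.Countable ∧ (∀ z ∈ L, ∃ x ∈ S, ‖z - x‖ ≤ w z) ∧
      ∀ z ∈ L, (S ∩ closedBall z (w z)).Finite := by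
  set F : Set (Set V) := {S | S ⊆ L ∧ ∀ x ∈ S, ∀ y ∈ S, x ≠ y → w x / 2 ≤ ‖x - y‖} with hF
  obtain ⟨S, hSmax⟩ := zorn_subset F (by
    intro c hc hchain
    refine ⟨⋃₀ c, ⟨?_, ?_⟩, fun s hs => subset_sUnion_of_mem hs⟩
    · exact sUnion_subset fun s hs => (hc hs).1
    · rintro x ⟨s, hs, hxs⟩ y ⟨t, ht, hyt⟩ hxy
      rcases hchain.total hs ht with h | h
      · exact (hc ht).2 x (h hxs) y hyt hxy
      · exact (hc hs).2 x hxs y (h hyt) hxy)
  have hS : S ∈ F := hSmax.prop
  have hsep : ∀ x ∈ S, ∀ y ∈ S, x ≠ y → w x / 2 ≤ ‖x - y‖ := hS.2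
  have hnet : ∀ z ∈ L, ∃ x ∈ S, ‖z - x‖ ≤ w z := by
    intro z hz
    by_contra hcon
    push Not at hcon
    have hzS : z ∉ S := fun h => by
      have := hcon z h
      rw [sub_self, norm_zero] at this
      exact absurd this (not_lt.2 (hw.nonneg z))
    have hins : insert z S ∈ F := by
      refine ⟨insert_subset hz hS.1, ?_⟩
      intro x hx y hy hxy
      rcases hx with rfl | hx
      · rcases hy with rfl | hy
        · exact absurd rfl hxy
        · have := hcon y hy
          have := hw.nonneg x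
          linarith
      · rcases hy with rfl | hy
        · have h1 := hcon x hx
          have h2 := hw.lip x y
          rw [norm_sub_rev] at h1
          have h3 := hw.nonneg y
          linarith
        · exact hsep x hx y hy hxy
    have := hSmax.eq_of_subset hins (subset_insert z S)
    exact hzS (this ▸ mem_insert z S)
  have hfin : ∀ z ∈ L, (S ∩ closedBall z (w z)).Finite := by
    intro z hz
    have hwz := hw.pos z hz
    have h1 : ((S ∩ closedBall z (w z)) ∩ closedBall z (w z)).Finite := by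
      apply finite_of_sep (δ := 7 / 16 * w z) (by positivity)
      rintro x ⟨hx, hxz⟩ y ⟨hy, -⟩ hxy
      have h2 := hsep x hx y hy hxy
      have h3 := hw.lip z x
      rw [mem_closedBall, dist_eq_norm] at hxz
      rw [norm_sub_rev] at h3
      linarith
    rwa [inter_assoc, inter_self] at h1
  refine ⟨S, hS.1, ?_, hnet, hfin⟩
  -- countability
  have hcover : ∀ x : L, ∃ U : Set V, IsOpen U ∧ (x : V) ∈ U ∧ (S ∩ U).Finite := fun x =>
    ⟨ball (x : V) (w x), isOpen_ball, mem_ball_self (hw.pos x x.2),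
      (hfin x x.2).subset (inter_subset_inter_right _ ball_subset_closedBall)⟩
  choose U hUo hUx hUf using hcover
  obtain ⟨T, hT, hTU⟩ := TopologicalSpace.isOpen_iUnion_countable U hUo
  have : S ⊆ ⋃ i ∈ T, (S ∩ U i) := by
    intro x hx
    have h2 : x ∈ ⋃ i : L, U i := mem_iUnion.2 ⟨⟨x, hS.1 hx⟩, hUx _⟩
    rw [← hTU] at h2
    obtain ⟨i, hi⟩ := mem_iUnion.1 h2
    obtain ⟨hiT, hxi⟩ := mem_iUnion.1 hi
    exact mem_iUnion.2 ⟨i, mem_iUnion.2 ⟨hiT, hx, hxi⟩⟩
  exact (hT.biUnion fun i _ => (hUf i).countable).mono this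

/-! ### generic heights -/

/-- affine independence of a finite set of indices, in weight form. -/
def AI {ι : Type*} (a : ι → V) (I : Finset ι) : Prop :=
  ∀ w : ι → ℝ, ∑ i ∈ I, w i = 0 → ∑ i ∈ I, w i • a i = 0 → ∀ i ∈ I, w i = 0

lemma step_avoid (a : ℕ → V) (n : ℕ) (c : ℕ → ℝ) {lo room : ℝ} (hroom : 0 < room) :
    ∃ v : ℝ, lo ≤ v ∧ v ≤ lo + room ∧ ∀ I : Finset ℕ, I ⊆ Finset.range n → AI a I →
      ∀ w : ℕ → ℝ, ∑ i ∈ I, w i = 1 → ∑ i ∈ I, w i • a i = a n → v ≠ ∑ i ∈ I, w i * c i := by
  set E : Set ℝ := ⋃ I ∈ (Finset.range n).powerset, {v | AI a I ∧ ∃ w : ℕ → ℝ, ∑ i ∈ I, w i = 1 ∧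
    ∑ i ∈ I, w i • a i = a n ∧ v = ∑ i ∈ I, w i * c i} with hE
  have hEf : E.Finite := by
    refine (Finset.finite_toSet (Finset.range n).powerset).biUnion fun I _ => ?_
    apply Set.Subsingleton.finite
    rintro v ⟨hI, w, hw1, hw2, rfl⟩ v' ⟨-, w', hw1', hw2', rfl⟩
    have h1 := hI (fun i => w i - w' i) (by rw [Finset.sum_sub_distrib, hw1, hw1', sub_self]) (by
      simp only [sub_smul, Finset.sum_sub_distrib, hw2, hw2', sub_self])
    refine Finset.sum_congr rfl fun i hi => ?_
    have := h1 i hi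
    rw [sub_eq_zero.1 this]
  obtain ⟨v, hv, hvE⟩ := (Set.Icc_infinite (show lo < lo + room by linarith)).exists_notMem_finite hEf
  refine ⟨v, hv.1, hv.2, fun I hI hAI w hw1 hw2 heq => hvE ?_⟩
  rw [hE]
  exact mem_iUnion₂.2 ⟨I, Finset.mem_powerset.2 hI, hAI, w, hw1, hw2, heq⟩

/-- the perturbed heights. -/
noncomputable def cc (a : ℕ → V) (lo room : ℕ → ℝ) (hroom : ∀ n, 0 < room n) : ℕ → ℝ
  | n => Classical.choose (step_avoid a n (fun i => if h : i < n then cc a lo room hroom i else 0)
      (lo := lo n) (hroom n))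

lemma cc_spec (a : ℕ → V) (lo room : ℕ → ℝ) (hroom : ∀ n, 0 < room n) (n : ℕ) :
    lo n ≤ cc a lo room hroom n ∧ cc a lo room hroom n ≤ lo n + room n ∧
    ∀ I : Finset ℕ, I ⊆ Finset.range n → AI a I →
      ∀ w : ℕ → ℝ, ∑ i ∈ I, w i = 1 → ∑ i ∈ I, w i • a i = a n →
        cc a lo room hroom n ≠ ∑ i ∈ I, w i * cc a lo room hroom i := by
  have h := Classical.choose_spec (step_avoid a n
    (fun i => if h : i < n then cc a lo room hroom i else 0) (lo := lo n) (hroom n))
  have he : cc a lo room hroom n = Classical.choose (step_avoid a n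
    (fun i => if h : i < n then cc a lo room hroom i else 0) (lo := lo n) (hroom n)) := by
    rw [cc]
  rw [← he] at h
  refine ⟨h.1, h.2.1, fun I hI hAI w hw1 hw2 => ?_⟩
  have h1 := h.2.2 I hI hAI w hw1 hw2
  have h2 : ∑ i ∈ I, w i * (if h : i < n then cc a lo room hroom i else 0) =
      ∑ i ∈ I, w i * cc a lo room hroom i := by
    refine Finset.sum_congr rfl fun i hi => ?_
    have := Finset.mem_range.1 (hI hi)
    rw [dif_pos this]
  rwa [h2] at h1

lemma generic_nat (a : ℕ → V) (lo room : ℕ → ℝ) (hroom : ∀ n, 0 < room n) :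
    ∃ c : ℕ → ℝ, (∀ n, lo n ≤ c n ∧ c n ≤ lo n + room n) ∧
      ∀ (I : Finset ℕ) (p : V) (m : ℝ), (∀ i ∈ I, inner ℝ (a i) p - c i = m) → AI a I := by
  refine ⟨cc a lo room hroom, fun n => ⟨(cc_spec a lo room hroom n).1, (cc_spec a lo room hroom n).2.1⟩,
    fun I => ?_⟩
  induction I using Finset.induction_on_max with
  | empty => intro p m _ w _ _ i hi; simp at hi
  | insert n I hlt ih =>
    intro p m hI
    have hnI : n ∉ I := fun h => lt_irrefl _ (hlt n h)
    have hAI : AI a I := ih p m fun i hi => hI i (Finset.mem_insert_of_mem hi)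
    intro w hw1 hw2
    rw [Finset.sum_insert hnI] at hw1 hw2
    have hwn : w n = 0 := by
      by_contra hne
      have h1 : ∑ i ∈ I, (-(w i) / w n) = 1 := by
        rw [← Finset.sum_div, Finset.sum_neg_distrib, div_eq_one_iff_eq hne]
        linarith
      have h2 : ∑ i ∈ I, (-(w i) / w n) • a i = a n := by
        have h3 : ∑ i ∈ I, (-(w i) / w n) • a i = (-(1 / w n)) • ∑ i ∈ I, w i • a i := by
          rw [Finset.smul_sum]
          refine Finset.sum_congr rfl fun i _ => ?_
          rw [smul_smul]; congr 1; ring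
        rw [h3, (eq_neg_of_add_eq_zero_right hw2 : ∑ i ∈ I, w i • a i = -(w n • a n)), smul_neg,
          neg_smul, neg_neg, smul_smul, one_div, inv_mul_cancel₀ hne, one_smul]
      refine (cc_spec a lo room hroom n).2.2 I (fun i hi => Finset.mem_range.2 (hlt i hi)) hAI _ h1 h2 ?_
      have h4 : ∀ i ∈ insert n I, cc a lo room hroom i = inner ℝ (a i) p - m := fun i hi => by
        have := hI i hi; linarith
      rw [h4 n (Finset.mem_insert_self n I)]
      have h5 : ∑ i ∈ I, -(w i) / w n * cc a lo room hroom i =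
          ∑ i ∈ I, (inner ℝ ((-(w i) / w n) • a i) p - (-(w i) / w n) * m) := by
        refine Finset.sum_congr rfl fun i hi => ?_
        rw [h4 i (Finset.mem_insert_of_mem hi), real_inner_smul_left]; ring
      rw [h5, Finset.sum_sub_distrib, ← sum_inner, h2, ← Finset.sum_mul, h1, one_mul]
    rw [hwn, zero_add] at hw1
    rw [hwn, zero_smul, zero_add] at hw2
    intro i hi
    rcases Finset.mem_insert.1 hi with rfl | hi
    · exact hwn
    · exact hAI w hw1 hw2 i hi

/-- **generic heights** over a countable index set. -/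
theorem generic {ι : Type*} [Countable ι] (a : ι → V) (lo room : ι → ℝ) (hroom : ∀ n, 0 < room n) :
    ∃ c : ι → ℝ, (∀ n, lo n ≤ c n ∧ c n ≤ lo n + room n) ∧
      ∀ (I : Finset ι) (p : V) (m : ℝ), (∀ i ∈ I, inner ℝ (a i) p - c i = m) → AI a I := by
  classical
  obtain ⟨enc, henc⟩ := exists_injective_nat ι
  set a' : ℕ → V := Function.extend enc a 0 with ha'
  set lo' : ℕ → ℝ := Function.extend enc lo 0 with hlo'
  set room' : ℕ → ℝ := Function.extend enc room 1 with hroom'
  have hr' : ∀ n, 0 < room' n := by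
    intro n
    by_cases hn : ∃ i, enc i = n
    · obtain ⟨i, rfl⟩ := hn
      rw [hroom', henc.extend_apply]; exact hroom i
    · rw [hroom', Function.extend_apply' _ _ _ hn]; exact one_pos
  obtain ⟨c, hc, hgen⟩ := generic_nat a' lo' room' hr'
  refine ⟨fun i => c (enc i), fun i => ?_, fun I p m hI => ?_⟩
  · have := hc (enc i)
    rwa [hlo', hroom', henc.extend_apply, henc.extend_apply] at this
  · have h1 := hgen (I.map ⟨enc, henc⟩) p m (by
      intro n hn
      obtain ⟨i, hi, rfl⟩ := Finset.mem_map.1 hn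
      have h2 := hI i hi
      show inner ℝ (a' (enc i)) p - c (enc i) = m
      rw [ha', henc.extend_apply]
      exact h2)
    intro w hw1 hw2 i hi
    have h3 := h1 (Function.extend enc w 0) (by
      rw [Finset.sum_map]
      simp only [Function.Embedding.coeFn_mk, henc.extend_apply]
      exact hw1) (by
      rw [Finset.sum_map]
      simp only [Function.Embedding.coeFn_mk, ha', henc.extend_apply]
      exact hw2) (enc i) (Finset.mem_map.2 ⟨i, hi, rfl⟩)
    rwa [henc.extend_apply] at h3

/-- conversion to Mathlib's affine independence. -/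
lemma affineIndependent_of_AI {ι : Type*} {a : ι → V} {s : Set ι}
    (h : ∀ I : Finset ι, (I : Set ι) ⊆ s → AI a I) : AffineIndependent ℝ (fun k : s => a k) := by
  classical
  rw [affineIndependent_iff]
  intro t w hw1 hw2 e he
  have h1 := h (t.map (Function.Embedding.subtype _)) (by
    intro i hi
    simp only [Finset.coe_map, Function.Embedding.subtype_apply, mem_image, Finset.mem_coe] at hi
    obtain ⟨j, -, rfl⟩ := hi
    exact j.2) (fun i => if h : i ∈ s then w ⟨i, h⟩ else 0) (by
      rw [Finset.sum_map]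
      rw [← hw1]
      refine Finset.sum_congr rfl fun i _ => ?_
      simp) (by
      rw [Finset.sum_map]
      rw [← hw2]
      refine Finset.sum_congr rfl fun i _ => ?_
      simp) e (Finset.mem_map.2 ⟨e, he, rfl⟩)
  simpa using h1

end Crest.Agent.R096.ThC6_766
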