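import Crest.Agent.R096.Osc1_400
import Crest.Agent.R096.ThC6_766
import Crest.Agent.R096.Gz1_812

/-!
# Row 96 (helper812), p ≤ 2, leaf [ETA]: the clause `‖f₂ x - f x‖ ≤ η x` of `Pin_753.PreIN`

`exists_eta` : the function `w` (= `ζ` of `ResU`, = bound of the oscillation of `f` on the tiles) and the
number `d0` (bound of the uniform displacements), before the scale `s`.
-/

set_option autoImplicit false
set_option linter.unusedSectionVars false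
set_option linter.style.longLine false

open Set Filter Topology Metric

namespace Crest.Agent.R096.Eta_812

open Crest.AnalysisR.VecCalc3 Crest.AnalysisR.Sobolev
open Crest.Agent.R096.Msh_715 (Tiling P I)
open Crest.Agent.R096.ThC6_766 (Scale exists_scale)

/-- what the assembly needs of `w` and `d0`: closeness of `R ∘ g ∘ χ` to `f` -/
def EtaOK (Om : Set R3) (f : R3 → R3) (η w : R3 → ℝ) (K' : Set R3) (d0 : ℝ) : Prop :=
  ∀ {ι : Type} (T : Tiling Om ι) {κ : Type} (Q : Set κ) (D : κ → Set R3),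
    (∀ i, ∀ x ∈ P (T.H i), ∀ x' ∈ P (T.H i), ‖f x' - f x‖ ≤ w (f x)) →
    (∀ k ∈ Q, D k ⊆ K') →
    ∀ (g χ R : R3 → R3) (d1 d2 : ℝ), d1 + d2 ≤ d0 →
      (∀ x ∈ Om, ∃ i, x ∈ P (T.H i) ∧ χ x ∈ P (T.H i)) →
      (∀ i, ∀ y ∈ P (T.H i), ∀ r, (∀ y' ∈ P (T.H i), ‖f y' - f y‖ ≤ r) → ‖g y - f y‖ ≤ r + d1) →
      (∀ i, ∀ y ∈ P (T.H i), ∀ r, (∀ y' ∈ P (T.H i), ‖f y' - f y‖ ≤ r) →
        (∀ k ∈ Q, Disjoint (closedBall (f y) (2 * r + w (f y))) (D k)) →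
        ‖g y - f y‖ ≤ 4 * r + 4 * w (f y)) →
      (∀ y, ‖R y - y‖ ≤ d2) → (∀ y, y ∉ K' → R y = y) →
      ∀ x ∈ Om, ‖R (g (χ x)) - f x‖ ≤ η x

/-- **[ETA]** -/
theorem exists_eta {Om La : Set R3} (hLa : IsOpen La) {f : R3 → R3} (hf : IsHomeomorphOn f Om La)
    {η : R3 → ℝ} (hη : ContinuousOn η Om) (hη0 : ∀ x ∈ Om, 0 < η x) {K' : Set R3}
    (hK' : IsCompact K') (hK'L : K' ⊆ La) :
    ∃ (w : R3 → ℝ) (d0 : ℝ), 0 < d0 ∧ (∀ y ∈ La, 0 < w y) ∧
      (∀ y y', |w y - w y'| ≤ ‖y - y'‖ / 2) ∧ Continuous w ∧ ContinuousOn (fun x => w (f x)) Om ∧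
      (∀ x ∈ Om, 0 < w (f x)) ∧ (∀ x ∈ Om, w (f x) ≤ η x / 32) ∧ EtaOK Om f η w K' d0 := by
  obtain ⟨fi, m1, m2, m3, m4, m5, m6⟩ := hf
  obtain ⟨δ0, hδ0, hδL⟩ := hK'.exists_cthickening_subset_open hLa hK'L
  have hK'' : IsCompact (cthickening δ0 K') := hK'.cthickening
  have hηc : ContinuousOn (fun y => min (η (fi y) / 32) (δ0 / 16)) La :=
    ContinuousOn.inf ((hη.comp m6 fun y hy => m2 hy).div_const _) continuousOn_const
  have hη0' : ∀ y ∈ La, 0 < min (η (fi y) / 32) (δ0 / 16) := fun y hy => by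
    have := hη0 _ (m2 hy)
    positivity
  obtain ⟨w, hw, hwh⟩ := exists_scale hLa (h := fun y => min (η (fi y) / 32) (δ0 / 16)) (by
    intro x hx
    have e1 : ContinuousAt (fun y => min (η (fi y) / 32) (δ0 / 16)) x :=
      hηc.continuousAt (hLa.mem_nhds hx)
    have e2 : ∀ᶠ y in 𝓝 x, (min (η (fi x) / 32) (δ0 / 16)) / 2 < min (η (fi y) / 32) (δ0 / 16) :=
      e1.eventually (lt_mem_nhds (by have := hη0' x hx; linarith))
    obtain ⟨r, hr, hb⟩ := Metric.eventually_nhds_iff_ball.1 e2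
    exact ⟨r, hr, _, by have := hη0' x hx; positivity, fun y hy => (hb y hy).le⟩)
  have hwc : Continuous w := hw.cont
  have hwη : ∀ x ∈ Om, w (f x) ≤ η x / 32 := fun x hx => by
    have h1 := (hwh _ (m1 hx)).trans (min_le_left _ _)
    rwa [m3 x hx] at h1
  have hwδ : ∀ y ∈ La, w y ≤ δ0 / 16 := fun y hy => (hwh _ hy).trans (min_le_right _ _)
  obtain ⟨d0, hd0, hd0w⟩ : ∃ d0 : ℝ, 0 < d0 ∧ ∀ y ∈ cthickening δ0 K', d0 ≤ w y := by
    rcases (cthickening δ0 K').eq_empty_or_nonempty with h0 | h0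
    · exact ⟨1, one_pos, fun x hx => absurd hx (by rw [h0]; exact notMem_empty x)⟩
    · obtain ⟨x0, hx0, hmin⟩ := hK''.exists_isMinOn h0 hwc.continuousOn
      exact ⟨w x0, hw.pos x0 (hδL hx0), fun x hx => hmin hx⟩
  have hlip : ∀ y y', |w y - w y'| ≤ ‖y - y'‖ / 8 := fun y y' => by
    rw [abs_le]
    have h1 := hw.lip y y'
    have h2 := hw.lip y' y
    rw [norm_sub_rev] at h2
    constructor <;> linarith
  refine ⟨w, d0, hd0, hw.pos, fun y y' => (hlip y y').trans ?_, hwc, hwc.comp_continuousOn m5,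
    fun x hx => hw.pos _ (m1 hx), hwη, ?_⟩
  · have := norm_nonneg (y - y')
    linarith
  intro ι T κ Q D hosc hD g χ R d1 d2 hd hχ hb hc hR hR' x hx
  obtain ⟨i, hxi, hyi⟩ := hχ x hx
  set y := χ x with hy
  have hyO : y ∈ Om := T.sub i hyi
  have hyL : f y ∈ La := m1 hyO
  have h1 := hosc i x hxi y hyi
  have h2 := hlip (f y) (f x)
  have h3 := le_abs_self (w (f y) - w (f x))
  have h4 : w (f y) ≤ 9 / 8 * w (f x) := by linarith
  have h5 := hwη x hx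
  have h6 := hw.pos _ (m1 hx)
  have h6' := hw.pos _ hyL
  have h7 : ∀ y' ∈ P (T.H i), ‖f y' - f y‖ ≤ w (f y) := fun y' hy' => hosc i y hyi y' hy'
  by_cases hcase : f y ∈ cthickening δ0 K'
  · -- near `K'`
    have h8 := hd0w _ hcase
    have h9 := hb i y hyi (w (f y)) h7
    have h10 := hR (g y)
    have e1 : R (g y) - f x = (R (g y) - g y) + (g y - f y) + (f y - f x) := by abel
    rw [e1]
    have h11 := norm_add₃_le (a := R (g y) - g y) (b := g y - f y) (c := f y - f x)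
    linarith
  · -- far from `K'`
    have h8 : ∀ z ∈ K', δ0 < dist (f y) z := by
      intro z hz
      by_contra hcon
      push Not at hcon
      exact hcase (mem_cthickening_of_dist_le _ z _ _ hz hcon)
    have h9 := hwδ _ hyL
    have h10 : ∀ k ∈ Q, Disjoint (closedBall (f y) (2 * w (f y) + w (f y))) (D k) := by
      intro k hk
      rw [Set.disjoint_left]
      intro z hz hz'
      have h11 := h8 z (hD k hk hz')
      rw [mem_closedBall, dist_comm] at hz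
      linarith
    have h12 := hc i y hyi (w (f y)) h7 h10
    have h13 : R (g y) = g y := by
      refine hR' _ fun hmem => ?_
      have h14 := h8 _ hmem
      rw [dist_comm, dist_eq_norm] at h14
      linarith
    rw [h13]
    have e1 : g y - f x = (g y - f y) + (f y - f x) := by abel
    rw [e1]
    have h15 := norm_add_le (g y - f y) (f y - f x)
    linarith

/-- **[ETA] with the mesh size** (400's `exists_osc`): tiles of diameter at most `ρ₀ x` -/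
theorem exists_eta_osc {Om La : Set R3} (hOm : IsOpen Om) (hLa : IsOpen La) {f : R3 → R3}
    (hf : IsHomeomorphOn f Om La) {η : R3 → ℝ} (hη : ContinuousOn η Om) (hη0 : ∀ x ∈ Om, 0 < η x)
    {K' : Set R3} (hK' : IsCompact K') (hK'L : K' ⊆ La) {W1 : Set R3} (hW : IsCompact W1)
    (hW1 : W1 ⊆ Om) :
    ∃ (w : R3 → ℝ) (d0 : ℝ) (ρ₀ : R3 → ℝ), 0 < d0 ∧ (∀ y ∈ La, 0 < w y) ∧
      (∀ y y', |w y - w y'| ≤ ‖y - y'‖ / 2) ∧
      (∀ x y, ρ₀ x ≤ ρ₀ y + ‖x - y‖) ∧ (∀ x, 0 ≤ ρ₀ x) ∧ (∀ x, ρ₀ x ≤ 1) ∧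
      (∀ x, 0 < ρ₀ x ↔ x ∈ Om) ∧ (∀ x, ball x (ρ₀ x) ⊆ Om) ∧
      (∀ x ∈ Om, closedBall x (ρ₀ x) ⊆ Om) ∧
      (∀ x ∈ Om, ∀ y, ‖y - x‖ ≤ ρ₀ x → ‖f y - f x‖ ≤ w (f x)) ∧
      (∃ ρmin > 0, ∀ x ∈ W1, ρmin ≤ ρ₀ x) ∧ EtaOK Om f η w K' d0 := by
  obtain ⟨w, d0, hd0, h1, h2, -, h4, h5, -, h7⟩ := exists_eta hLa hf hη hη0 hK' hK'L
  obtain ⟨fi, m1, m2, m3, m4, m5, m6⟩ := hf
  obtain ⟨ρ₀, a1, a2, a3, a4, a5, a6, a7, -, a9⟩ :=
    Osc_400.exists_osc hOm m5 h4 h5 hW hW1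
  exact ⟨w, d0, ρ₀, hd0, h1, h2, a1, a2, a3, a4, a5, a6, fun x hx y hy => (a7 x hx y hy).1, a9, h7⟩

end Crest.Agent.R096.Eta_812
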