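import Crest.Agent.R096.Pas3_753
import Crest.Agent.R096.Eta1_812
import Crest.Agent.R096.Efi3_296

/-!
Row 96 (S0127), helper753.  Assembly of `PreIN p`, part 4: the outer frame.  `OutB` = the conclusion of
the one-position theorem; `AllC` = families of segments and plane pieces for all cells; literals of the
energy list (`ElP`, over a predicate `Els`) and of the one-position theorem (`OneP`).  Definitions only.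
-/

set_option autoImplicit false
set_option linter.style.longLine false
set_option linter.unusedSectionVars false

open MeasureTheory Set Filter Topology Metric
open scoped ENNReal NNReal

namespace Crest.Agent.R096.Pas_753

open Crest.AnalysisR.VecCalc3 Crest.AnalysisR.Sobolev
open Crest.Agent.R096.Msh_715 (Tiling P I)
open Crest.Agent.R096.Mal_874 (CB)
open Crest.Agent.R096.Sk_962 (SH)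
open Crest.Agent.R096.Br_695 (En)
open Crest.Agent.R096.Fce_793 (pt cc)
open Crest.Agent.R096.Ca_855
open Crest.Agent.R096.Gz_812 (HFine)
open Crest.Agent.R096.Eta_812 (EtaOK)
open Crest.Agent.R096.Efi_296 (GoodA)
open Crest.Agent.R096.Pin_753
open Crest.Agent.R96.Lu_538
open Crest.Agent.R96.Intr_538
open Crest.Agent.R96.Coarse_538
open Crest.Agent.R96.Acl_392
open Crest.Agent.R96.Gdt_538 (MeshG)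

noncomputable section

/-- **the conclusion of the one-position theorem** -/
def OutB (p : ℝ) (C : ℝ≥0) (Om La : Set R3) (f : R3 → R3) (G : Fin 3 → R3 → R3)
    (τ hh κw e C1 s : ℝ) (η : R3 → ℝ) (a₀ : R3) (b : (Fin 3 → ℤ) → R3)
    (L : (Fin 3 → ℤ) → R3 →L[ℝ] R3) {J : Type} (kk : J → Fin 3 → ℤ) (Qb : J → CB R3 3) (k0 : ℕ)
    (hk : ∀ j, (Qb j).kc ≤ k0) (Q : Finset (Fin 3 → ℤ)) (a : R3) : Prop :=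
  ∃ (f₂ : R3 → R3) (G₂ : Fin 3 → R3 → R3) (er : J → ℝ≥0∞), SH p Om La f₂ G₂ ∧
    (∀ x ∈ Om, ‖f₂ x - f x‖ ≤ η x) ∧
    (∀ k ∈ Q, ∀ x ∈ cel Cb (vt (2 * s) a₀ k) ((1 - τ) * s),
      ‖f₂ x - Bk (b k) (L k) (vt (2 * s) a₀ k) x‖ ≤ C1 * hh * s) ∧
    (∀ j, kk j ∈ Q → InP p f₂ (Gmat G₂) C1 κw s (b (kk j)) (L (kk j))
      (vt (2 * s) a₀ (kk j)) (er j) ((Qb j).tr a) k0 (hk j)) ∧
    (∑' j : {j // kk j ∈ Q}, er j) ≤ ENNReal.ofReal e ∧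
    (∑' j : {j // kk j ∈ Q}, ∫⁻ x in Ly ((Qb j).tr a) k0, (1 + En p G₂ x)) ≤ ENNReal.ofReal e ∧
    (∫⁻ x in Om \ ⋃ j ∈ {j | kk j ∈ Q}, ((Qb j).tr a).N, (1 + En p G₂ x)) ≤
      C * (∫⁻ x in Om \ ⋃ j ∈ {j | kk j ∈ Q}, ((Qb j).tr a).Kc, (1 + En p G x)) + ENNReal.ofReal e

/-- families of segments and plane pieces which contain all closed 1-cells and 2-cells of the meshes
`h.T a` (translated by `a`) -/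
structure AllC {Om W : Set R3} {ρ₀ : R3 → ℝ} {J : Type} {Qb : J → CB R3 3} {k0 : ℕ} {σ : ℝ}
    [Finite J] (h : MIn Om W ρ₀ Qb k0 σ) {κe κf : Type} (x v : κe → R3) (e : κf → Fin 2 → R3)
    (xx : κf → R3) (Qf : κf → Set (ℝ × ℝ)) : Prop where
  ce : Countable κe
  cf : Countable κf
  v0 : ∀ i, v i ≠ 0
  c0 : ∀ φ, 0 < cc (e φ)
  on : ∀ φ, ‖e φ 0‖ = 1 ∧ ‖e φ 1‖ = 1 ∧ inner ℝ (e φ 0) (e φ 1) = 0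
  cpt : ∀ φ, IsCompact (Qf φ)
  edge : ∀ a, ‖a‖ ≤ σ / 8 → ∀ y ∈ Om, (h.T a).dim y = 1 → ∃ i, (h.T a).cc y = seg x v a i
  face : ∀ a, ‖a‖ ≤ σ / 8 → ∀ y ∈ Om, (h.T a).dim y = 2 →
    ∃ φ, (h.T a).cc y = pt (e φ) (a + xx φ) '' Qf φ

/-- the functions for which a position has to be good -/
def gF (p : ℝ) (G : Fin 3 → R3 → R3) (L : (Fin 3 → ℤ) → R3 →L[ℝ] R3) :
    Option (Fin 3 → ℤ) → R3 → ℝ≥0∞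
  | none => En p G
  | some k => fun x => ‖Gmat G x - L k‖ₑ ^ p

/-- what the energy list says at one position: any predicate
`Els p Om W ρ₀ J Qb k0 σ h G JQ mU Cu mN Rl e₀ a`; `mU` = bound for the numbers `m` of the tiles of the
bulk (universal), `mN` = bound for all tiles, `Rl` = radius of the wall layers (units `1 / 2 ^ k0` in the
frame of the block), `e₀` = error -/
abbrev ElsT : Type 1 :=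
  ∀ (_ : ℝ) (Om W : Set R3) (ρ₀ : R3 → ℝ) (J : Type) [Finite J] (Qb : J → CB R3 3) (k0 : ℕ) (σ : ℝ),
    MIn Om W ρ₀ Qb k0 σ → (Fin 3 → R3 → R3) → Set J → ℝ≥0 → ℝ≥0 → ℝ≥0 → ℝ → ℝ → R3 → Prop

/-- **the energy list** (literal over the predicate `Els`) -/
def ElP (p : ℝ) (Els : ElsT) : Prop :=
  ∀ mU : ℝ≥0, ∃ Cu : ℝ≥0, ∀ (Om La : Set R3) (f : R3 → R3) (G : Fin 3 → R3 → R3),
    IsOpen Om → Bornology.IsBounded Om → SH p Om La f G →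
  ∀ (κ τ c1 c2 hh Rl e₀ : ℝ) (mN : ℝ≥0) (Bs Nn : ℕ), 0 < κ → κ ≤ 1 → 0 < τ → τ ≤ 1 / 4 → 0 < c1 →
    0 < c2 → 0 < hh → 0 < Rl → 0 < e₀ →
  ∃ θ0 : ℝ, 0 < θ0 ∧ ∀ θ1 : ℝ, 0 < θ1 →
  ∀ (W : Set R3) (ρ₀ : R3 → ℝ), W ⊆ Om → IsCompact W →
    (∀ x y, ρ₀ x ≤ ρ₀ y + ‖x - y‖) → (∀ x, 0 ≤ ρ₀ x) → (∀ x, ρ₀ x ≤ 1) →
    (∀ x, 0 < ρ₀ x ↔ x ∈ Om) → (∃ ρmin > 0, ∀ x ∈ W, ρmin ≤ ρ₀ x) →
  ∃ e1 δ s₀ : ℝ, 0 < e1 ∧ 0 < δ ∧ 0 < s₀ ∧ ∀ s : ℝ, 0 < s → s < s₀ →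
  ∀ (a₀ : R3) (Q₀ : Finset (Fin 3 → ℤ)) (L : (Fin 3 → ℤ) → R3 →L[ℝ] R3),
    (∀ k ∈ Q₀, (∀ v, κ * ‖v‖ ≤ ‖L k v‖) ∧ ‖L k‖ ≤ κ⁻¹) →
    (∀ k ∈ Q₀, cel Cb (vt (2 * s) a₀ k) s ⊆ W) →
    (∑ k ∈ Q₀, ∫⁻ x in cel Cb (vt (2 * s) a₀ k) s, ‖Gmat G x - L k‖ₑ ^ p) ≤ ENNReal.ofReal e1 →
  ∀ (J : Type) [Finite J] (kk : J → Fin 3 → ℤ) (Qb : J → CB R3 3) (k0 : ℕ), (∀ j, kk j ∈ Q₀) →
    (∀ j, BlkP κ s τ hh c1 θ0 θ1 Bs Nn (vt (2 * s) a₀ (kk j)) (Qb j) k0) →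
    (∀ i j, i ≠ j → ∀ x ∈ (Qb i).N, ∀ y ∈ (Qb j).N, c2 * s ≤ dist x y) →
    θ1 * s ≤ 1 / 2 ^ k0 → 1 / 2 ^ k0 ≤ θ0 * s →
  ∀ h : MIn Om W ρ₀ Qb k0 (c2 * s),
  ∃ B2 : Set R3, volume B2 ≤ ENNReal.ofReal (1 / 2) * volume (Dt (1 / 2 ^ k0)) ∧
  ∀ a ∈ Dt (1 / 2 ^ k0), a ∉ B2 → ∀ Q ⊆ Q₀, ((Q₀ \ Q).card : ℝ) * (2 * s) ^ 3 ≤ δ →
    Els p Om W ρ₀ J Qb k0 (c2 * s) h G {j | kk j ∈ Q} mU Cu mN Rl e₀ a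

/-- **the one-position theorem** (literal over `Els`) -/
def OneP (p : ℝ) (Els : ElsT) : Prop :=
  ∃ mU : ℝ≥0, ∀ (Cu : ℝ≥0) (Bs : ℕ), ∃ C : ℝ≥0, ∀ (Om La : Set R3) (f : R3 → R3) (G : Fin 3 → R3 → R3),
    IsOpen Om → Bornology.IsBounded Om → IsConnected Om →
    IsOpen La → Bornology.IsBounded La → IsConnected La → SH p Om La f G →
  ∀ (κ D : ℝ) (nc : ℕ), 0 < κ → κ ≤ 1 → 1 ≤ D → TileC κ Bs D nc → ∃ C1 : ℝ, 1 ≤ C1 ∧ 24 * D ≤ C1 ∧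
  ∀ (τ hh c1 c2 κw e : ℝ) (Nn : ℕ), 0 < τ → τ ≤ 1 / 4 → 0 < hh → 0 < c1 → 0 < c2 → 0 < κw → 0 < e →
    C1 * hh ≤ min τ c2 →
  ∃ (Rl e₀ : ℝ) (mN : ℝ≥0), 0 < Rl ∧ 0 < e₀ ∧ ∃ θ0 : ℝ, 0 < θ0 ∧ ∀ θ1 : ℝ, 0 < θ1 →
  ∃ σ' η₁ : ℝ, 0 < σ' ∧ 0 < η₁ ∧ 288 * σ' * D * hh ≤ κ * τ ∧
  ∀ (W K' : Set R3), W ⊆ Om → IsCompact W → IsCompact K' → K' ⊆ La →
    (∀ y ∈ Om, f y ∈ K' → y ∈ W) →
  ∀ (η w ρ₀ : R3 → ℝ) (d0 : ℝ), ContinuousOn η Om → (∀ x ∈ Om, 0 < η x) → 0 < d0 →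
    (∀ y ∈ La, 0 < w y) → (∀ y y', |w y - w y'| ≤ ‖y - y'‖ / 2) → EtaOK Om f η w K' d0 →
    (∀ x y, ρ₀ x ≤ ρ₀ y + ‖x - y‖) → (∀ x, 0 ≤ ρ₀ x) → (∀ x, ρ₀ x ≤ 1) →
    (∀ x, 0 < ρ₀ x ↔ x ∈ Om) → (∃ ρmin > 0, ∀ x ∈ W, ρmin ≤ ρ₀ x) →
    (∀ x ∈ Om, ∀ y, ‖y - x‖ ≤ ρ₀ x → ‖f y - f x‖ ≤ w (f x)) →
  ∃ e1 δ s₀ : ℝ, 0 < e1 ∧ 0 < δ ∧ 0 < s₀ ∧ ∀ s : ℝ, 0 < s → s < s₀ →
  ∀ (a₀ : R3) (Q₀ : Finset (Fin 3 → ℤ)) (b : (Fin 3 → ℤ) → R3) (L : (Fin 3 → ℤ) → R3 →L[ℝ] R3),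
    (∀ k ∈ Q₀, (∀ v, κ * ‖v‖ ≤ ‖L k v‖) ∧ ‖L k‖ ≤ κ⁻¹) →
    (∀ k ∈ Q₀, cel Cb (vt (2 * s) a₀ k) s ⊆ W) → (∀ k ∈ Q₀, par Cb (L k) (b k) s ⊆ K') →
    (∀ k ∈ Q₀, ∀ l ∈ Q₀, k ≠ l →
      Disjoint (par Cb (L k) (b k) ((1 - τ) * s)) (par Cb (L l) (b l) s)) →
    (∑ k ∈ Q₀, ∫⁻ x in cel Cb (vt (2 * s) a₀ k) s, ‖Gmat G x - L k‖ₑ ^ p) ≤ ENNReal.ofReal e1 →
  ∀ (J : Type) [Finite J] (kk : J → Fin 3 → ℤ) (Qb : J → CB R3 3) (k0 : ℕ)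
    (hk : ∀ j, (Qb j).kc ≤ k0), (∀ j, kk j ∈ Q₀) →
    (∀ j, BlkP κ s τ hh c1 θ0 θ1 Bs Nn (vt (2 * s) a₀ (kk j)) (Qb j) k0) →
    (∀ i j, i ≠ j → ∀ x ∈ (Qb i).N, ∀ y ∈ (Qb j).N, c2 * s ≤ dist x y) →
    θ1 * s ≤ 1 / 2 ^ k0 → 1 / 2 ^ k0 ≤ θ0 * s →
  ∀ (h : MIn Om W ρ₀ Qb k0 (c2 * s)) {κi : Type} [Countable κi] (x v : κi → R3)
    {κf : Type} [Countable κf] (xf : κf → R3) (ef : κf → Fin 2 → R3) (Pf : κf → Set (ℝ × ℝ))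
    {κe' κf' : Type} (x' v' : κe' → R3) (e' : κf' → Fin 2 → R3) (xx' : κf' → R3)
    (Qf' : κf' → Set (ℝ × ℝ)), AllC h x' v' e' xx' Qf' →
  ∀ a ∈ Dt (1 / 2 ^ k0), ‖a‖ ≤ 2 / 2 ^ k0 →
    (∀ i, GoodA Om (gF p G L i) x' v' e' xx' a) →
  ∀ Q ⊆ Q₀, ((Q₀ \ Q).card : ℝ) * (2 * s) ^ 3 ≤ δ →
    Pos p Om La W f G (h.T a) x v xf ef Pf κ (τ / 12) (τ / 24) η₁ (D * hh * s) s
      (3 * (nc * (nc * nc) + 2) * (κ⁻¹ * (D * hh * s))) (σ' * (D * hh * s)) (vt (2 * s) a₀) b L Q a →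
    Els p Om W ρ₀ J Qb k0 (c2 * s) h G {j | kk j ∈ Q} mU Cu mN Rl e₀ a →
    OutB p C Om La f G τ hh κw e C1 s η a₀ b L kk Qb k0 hk Q a

end

end Crest.Agent.R096.Pas_753
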