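import Crest.Agent.R096.Rmt3_816
import Crest.Agent.R096.Ca15_855

/-!
Row 96 (S0127), helper816.  [ELIST], classes (2) near the walls and (3) blocks of 855's mesh
`MIn.T a`, part 1: rigidity in a neighbourhood of the bulk, fatness, diameters.
-/

set_option autoImplicit false
set_option linter.unusedSectionVars false
set_option linter.style.longLine false

open MeasureTheory Set Filter Metric
open scoped ENNReal NNReal Topology

namespace Crest.Agent.R096.Rmt_816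

open Crest.AnalysisR.VecCalc3
open Crest.Agent.R96.Coarse_538
open Crest.Agent.R96.Intr_538
open Crest.Agent.R096.Msh_715 (Tiling P I)
open Crest.Agent.R096.Msh_810 (Dat K Cu Top)
open Crest.Agent.R096.Mal_874 (MD CB RD RP reOm Rt Cn outD Rg tile_k_eq dist_cube AD)
open Crest.Agent.R096.Msb_432 (meshS rigidS_const Scl CIx)
open Crest.Agent.R096.Mf_113 (Rig CK)
open Crest.Agent.R096.Ca_855
open Crest.Agent.R096.Gsm_432 (TG)
open Crest.Agent.R96.En10_199 (P3)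

noncomputable section

/-- **the size function at the points of a cube of the mesh** -/
theorem adm_tile {n : ℕ} {D : Dat n} {τ : Top D} {y : Fin n → ℝ}
    (hy : y ∈ Cu D.a τ.1.1.k τ.1.1.z) : D.C ≤ 2 ^ τ.1.1.k * D.ρ y := by
  rw [← Top.c_eq] at hy
  exact τ.1.2.lower hy

variable {Om W : Set R3} {ρ₀ : R3 → ℝ} {J : Type} {Qb : J → CB R3 3} {k0 : ℕ} {σ : ℝ}
  [Finite J]

/-- the neighbourhood of the bulk in which the family is rigid -/
def Wp (W : Set R3) (σ : ℝ) : Set R3 := {p | ∃ x ∈ W, dist x p < σ / 8}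

theorem rgP (h : MIn Om W ρ₀ Qb k0 σ) {p : R3} (hp : p ∈ Wp W σ) (a : R3) :
    Rg h.T0 (h.Ts a) (h.cl a) (p - h.cl a) := by
  obtain ⟨x, hx, hxp⟩ := hp
  have hσ := h.σ0
  have hd : dist x (p - h.cl a) < σ / 4 := by
    have h1 := dist_triangle x p (p - h.cl a)
    have h2 : dist p (p - h.cl a) ≤ σ / 8 := by
      rw [dist_eq_norm, sub_sub_cancel]
      exact h.norm_cl a
    linarith
  have hd0 : dist x p < σ / 4 := by linarith
  have hD : ∀ x, x ∈ Om → h.M.φ x ∈ h.M.D0.Om := by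
    intro x hx
    have : x ∈ h.M.φ ⁻¹' h.M.D0.Om := by rw [h.dom]; exact hx
    exact this
  refine rigidS_const h.M h.sc 0 h.adm0 (h.adm a) (κ := k0) (fun j => by rw [zero_add]) ?_ ?_ ?_ ?_
  · exact hD _ (h.mem_Om_of hx hd)
  · rw [sub_add_cancel]
    exact hD _ (h.mem_Om_of hx hd0)
  · exact h.K_ev hx hd 0
  · rw [sub_add_cancel]
    exact h.K_ev hx hd0 _

/-- **the family is rigid in the neighbourhood `Wp` of the bulk** -/
theorem rigP (h : MIn Om W ρ₀ Qb k0 σ) {Tr : Set R3} (hTr : ∀ a ∈ Tr, ‖a‖ ≤ σ / 8) :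
    Rig h.T0 h.T Tr (Wp W σ) := by
  intro a ha p hp
  have hσ := h.σ0
  have e := h.cl_eq (hTr a ha)
  have key : ∀ b, h.cl a = b → p ∈ Om ∧ p - b ∈ Om ∧
      (fun j => P ((h.T a).H j)) '' (h.T a).at_ p =
        (fun i => (b + ·) '' P (h.T0.H i)) '' h.T0.at_ (p - b) := by
    rintro b rfl
    have hp' := hp
    obtain ⟨x, hx, hxp⟩ := hp'
    refine ⟨h.mem_Om_of hx (by linarith), h.mem_Om_of hx ?_, ?_⟩
    · have h1 := dist_triangle x p (p - h.cl a)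
      have h2 : dist p (p - h.cl a) ≤ σ / 8 := by
        rw [dist_eq_norm, sub_sub_cancel]
        exact h.norm_cl a
      linarith
    · have h1 := (rgP h hp a).sets
      rw [sub_add_cancel] at h1
      exact h1
  have h2 := key a e
  refine ⟨h2.1, ?_, h2.2.2⟩
  have : p - a ∈ h.M.φ ⁻¹' h.M.D0.Om := by rw [h.dom]; exact h2.2.1
  exact this

/-- positions in a small cube -/
theorem norm_Dt {s : ℝ} (hs : 0 ≤ s) {a : R3} (ha : a ∈ Dt s) : ‖a‖ ≤ 2 * s :=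
  norm_le_of_coord hs fun i => abs_le.2 ⟨by linarith [(ha i).1], (ha i).2.le⟩

theorem norm_D0 (h : MIn Om W ρ₀ Qb k0 σ) : ∀ a ∈ Dt (1 / 2 ^ k0), ‖a‖ < σ / 8 := by
  intro a ha
  have h1 := norm_Dt (by positivity) ha
  have h2 := h.h48'
  have h3 : (0:ℝ) < 1 / 2 ^ k0 := by positivity
  linarith

/-- **fatness from 432's `TG`** -/
theorem fat_of (h : MIn Om W ρ₀ Qb k0 σ) {a : R3} {i : h.ιT a} {β ρ D : ℝ} {nc κ' : ℕ}
    (hTG : TG (h.Ts a) i β ρ D nc κ') (hρ : 0 < ρ) {t : ℝ}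
    (hd : ∀ y ∈ P ((h.T a).H i), ∀ y' ∈ P ((h.T a).H i), ‖y - y'‖ ≤ t) :
    FatT (h.T a) i (D / ρ) t nc := by
  obtain ⟨h1, c, h2⟩ := hTG
  have h3 := TileG.re h.dom (T := h.Ts a)
    (h2 (Gsm_432.H_ne (h.T a) i) κ' (D / 2 ^ κ') le_rfl le_rfl) (hne' := Gsm_432.H_ne (h.T a) i)
  have hp : (0:ℝ) < 2 ^ κ' := by positivity
  have h4 : FatT (h.T a) i (D / ρ) (D / 2 ^ κ') nc := FatT.ofG h3 (by positivity)
    ((h.T a).finite_tiles ((h.T a).cpt i) ((h.T a).sub i)) (le_of_eq (by field_simp))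
  exact ⟨h4.ball, hd, h4.card⟩

/-- the block at the position `a` -/
abbrev Bj (h : MIn Om W ρ₀ Qb k0 σ) (a : R3) (j : J) : CB R3 3 := h.M.Bk (fun _ => h.cl a) j

/-- **class (3)**: the tiles inside the blocks -/
def Cl3 (h : MIn Om W ρ₀ Qb k0 σ) (a : R3) (i : h.ιT a) : Prop :=
  ∃ j, P ((h.T a).H i) ⊆ (Bj h a j).N

/-- **class (2)**: the tiles near the walls (radius `r` in the unit `2 ^ (-k0)`, in the frame) -/
def Cl2 (h : MIn Om W ρ₀ Qb k0 σ) (r : ℝ) (a : R3) (i : h.ιT a) : Prop :=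
  ∃ j, ∃ y ∈ P ((h.T a).H i), infDist ((Qb j).ψ y) (Bj h a j).W ≤ r / 2 ^ k0

theorem N_shift (h : MIn Om W ρ₀ Qb k0 σ) {a : R3} (j : J) {y : R3} (hy : y ∈ (Bj h a j).N) :
    y - h.cl a ∈ (Qb j).N :=
  (CB.mem_N_tr (Qb j) (h.cl a) y).1 hy

theorem cl3_sub (h : MIn Om W ρ₀ Qb k0 σ) {a : R3} (ha : ‖a‖ < σ / 8) {i : h.ιT a}
    (hi : Cl3 h a i) : P ((h.T a).H i) ⊆ Wp W σ := by
  obtain ⟨j, hj⟩ := hi
  intro y hy
  refine ⟨y - h.cl a, h.hN j (N_shift h j (hj hy)), ?_⟩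
  rw [dist_comm, dist_eq_norm, sub_sub_cancel, h.cl_eq ha.le]
  exact ha

/-- a point near the wall of the block at the position `a` is near a point of the bulk -/
theorem wall_pt (h : MIn Om W ρ₀ Qb k0 σ) {κ : ℝ} (hκ : 0 < κ) {Bs Nn : ℕ}
    (hb : ∀ j, MIn.BQ κ Bs Nn (Qb j) k0) {r : ℝ} {a : R3} {j : J} {y : R3}
    (hy : infDist ((Qb j).ψ y) (Bj h a j).W ≤ r / 2 ^ k0) :
    ∃ z ∈ (Bj h a j).N, ‖y - z‖ ≤ 4 * κ⁻¹ * (r / 2 ^ k0) := by
  have hWc : IsCompact (Bj h a j).W := by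
    have h1 := (Bj h a j).frontier_N
    have h2 : IsCompact (frontier (Bj h a j).N) :=
      (Bj h a j).isCompact_N.of_isClosed_subset isClosed_frontier (Bj h a j).frontier_sub
    have h3 : (Bj h a j).W = (Bj h a j).ψ '' frontier (Bj h a j).N := by
      rw [h1, image_preimage_eq _ (Bj h a j).ψ.surjective]
    rw [h3]
    exact h2.image (Bj h a j).ψ.continuous
  obtain ⟨w, hw, e⟩ := hWc.exists_infDist_eq_dist (Bj h a j).W_ne ((Qb j).ψ y)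
  refine ⟨(Qb j).ψ.symm w, (Bj h a j).frontier_sub ?_, ?_⟩
  · rw [(Bj h a j).frontier_N, mem_preimage]
    show (Qb j).ψ ((Qb j).ψ.symm w) ∈ _
    rw [ContinuousLinearEquiv.apply_symm_apply]
    exact hw
  · have h1 := (hb j).ψ2 hκ (y - (Qb j).ψ.symm w)
    rw [map_sub, ContinuousLinearEquiv.apply_symm_apply, ← dist_eq_norm, ← dist_eq_norm, ← e] at h1
    rw [← dist_eq_norm]
    exact h1.trans (mul_le_mul_of_nonneg_left hy (by positivity))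

set_option maxHeartbeats 1600000 in
/-- **the tiles near the walls are small** -/
theorem diam2 (h : MIn Om W ρ₀ Qb k0 σ) {κ : ℝ} (hκ : 0 < κ) (hκ1 : κ ≤ 1) {Bs Nn : ℕ}
    (hb : ∀ j, MIn.BQ κ Bs Nn (Qb j) k0) {r : ℝ} (hr : 7 ≤ r)
    (hsm : 4 * κ⁻¹ * (r / 2 ^ k0) < σ / 8) {a : R3} {i : h.ιT a} (hi : Cl2 h r a i) :
    ∀ y ∈ P ((h.T a).H i), ∀ y' ∈ P ((h.T a).H i),
      ‖y - y'‖ ≤ 4 * κ⁻¹ * max 1 (Bs:ℝ) * (r / 2 ^ k0) := by
  have hκ' : 1 ≤ κ⁻¹ := (one_le_inv₀ hκ).2 hκ1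
  have hσ := h.σ0
  have hm1 : (1:ℝ) ≤ max 1 (Bs:ℝ) := le_max_left _ _
  have hp0 : (0:ℝ) < 2 ^ k0 := by positivity
  have hr0 : 0 ≤ r / 2 ^ k0 := by positivity
  have hF := h.fb hκ hκ1 hb
  have hK0 : (0:ℝ) ≤ 4 * κ⁻¹ := by positivity
  -- from a number in the frame
  have key : ∀ {v : R3} {c : ℝ}, c ≤ max 1 (Bs:ℝ) * (r / 2 ^ k0) → ‖v‖ ≤ 4 * κ⁻¹ * c →
      ‖v‖ ≤ 4 * κ⁻¹ * max 1 (Bs:ℝ) * (r / 2 ^ k0) := by
    intro v c hc hv
    rw [mul_assoc]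
    exact hv.trans (mul_le_mul_of_nonneg_left hc hK0)
  have hone : ∀ {c : ℝ}, c ≤ r / 2 ^ k0 → c ≤ max 1 (Bs:ℝ) * (r / 2 ^ k0) := fun hc =>
    hc.trans (le_mul_of_one_le_left hr0 hm1)
  -- the tiles at the shell
  have shell : ∀ (i : h.ιT a) {l : J} {y x x' : R3},
      y ∈ (Bj h a l).S.bp (Bj h a l).ψ (Bj h a l).a' (Bj h a l).kc → y ∈ P ((h.T a).H i) →
      infDist ((Qb l).ψ y) (Bj h a l).W ≤ r / 2 ^ k0 → x ∈ P ((h.T a).H i) →
      x' ∈ P ((h.T a).H i) → ‖x - x'‖ ≤ 4 * κ⁻¹ * max 1 (Bs:ℝ) * (r / 2 ^ k0) := by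
    intro i l y x x' hbp hy hyW hx hx'
    have h1 : 7 / 2 ^ (Qb l).kc ≤ r / 2 ^ k0 :=
      (Crest.Agent.R096.Msb_432.bp_dist _ hbp).trans hyW
    have h2 := Crest.Agent.R096.Nbr_896.diam_block h.M h.sc (0 + h.M.φ (h.cl a)) (h.adm a)
      (h.X hκ hκ1 hb) (K := 4 * κ⁻¹) (R0 := max 1 (Bs:ℝ)) hK0 hF (fun _ => le_rfl) (j := l)
      i ⟨y, hy, (Bj h a l).bp_sub_N hbp⟩ x hx x' hx'
    rw [max_eq_right hm1] at h2
    have hpk : (0:ℝ) < 2 ^ (Qb l).kc := by positivity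
    have h3 : 1 / 2 ^ (Qb l).kc ≤ r / 2 ^ k0 := by
      refine le_trans ?_ h1
      rw [div_le_div_iff_of_pos_right hpk]
      norm_num
    calc ‖x - x'‖ ≤ 4 * κ⁻¹ * max 1 (Bs:ℝ) / 2 ^ (Qb l).kc := h2
      _ = 4 * κ⁻¹ * max 1 (Bs:ℝ) * (1 / 2 ^ (Qb l).kc) := by ring
      _ ≤ 4 * κ⁻¹ * max 1 (Bs:ℝ) * (r / 2 ^ k0) :=
        mul_le_mul_of_nonneg_left h3 (by positivity)
  intro x hx x' hx'
  obtain ⟨j, y, hy, hyW⟩ := hi
  obtain ⟨z, hz, hyz⟩ := wall_pt h hκ hb hyW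
  have hzW : z - h.cl a ∈ W := h.hN j (N_shift h j hz)
  rcases i with ⟨p | ⟨l, i⟩, hc⟩ | ⟨l, z'⟩
  · -- outer pieces
    have hsub : P ((h.M.mesh h.sc (0 + h.M.φ (h.cl a)) (h.adm a)).H (Sum.inl p)) ⊆
        P ((h.M.ad h.sc (0 + h.M.φ (h.cl a)) (h.adm a)).T0.H p.1.par) :=
      Crest.Agent.R096.Cut_874.cut_tile_sub (hA := Crest.Agent.R096.Mal_874.AF_ne) p.1
    have hk : p.1.par.1.1.k = k0 := by
      refine tile_k_eq (φ := h.M.φ) (x := y) (hsub hy) ?_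
      refine h.K_ev hzW ?_ _
      have h1 : dist (z - h.cl a) y ≤ dist (z - h.cl a) z + dist z y := dist_triangle _ _ _
      have h2 : dist (z - h.cl a) z ≤ σ / 8 := by
        rw [dist_comm, dist_eq_norm, sub_sub_cancel]
        exact h.norm_cl a
      have h3 : dist z y ≤ 4 * κ⁻¹ * (r / 2 ^ k0) := by
        rw [dist_comm, dist_eq_norm]; exact hyz
      linarith
    have h1 := dist_cube ((AD.tile_T0 (M := h.M.ad h.sc (0 + h.M.φ (h.cl a)) (h.adm a)) _).1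
      (hsub hx)) ((AD.tile_T0 (M := h.M.ad h.sc (0 + h.M.φ (h.cl a)) (h.adm a)) _).1 (hsub hx'))
    rw [hk] at h1
    refine key (c := 1 / 2 ^ k0) (hone ?_) ?_
    · rw [div_le_div_iff_of_pos_right hp0]; linarith
    · have h2 := hF.φ2 (x - x')
      refine h2.trans (mul_le_mul_of_nonneg_left ?_ hK0)
      rw [map_sub, ← dist_eq_norm]
      exact h1
  · -- inner tiles
    have hlj : l = j := by
      by_contra hne
      have hyN : y ∈ (Bj h a l).N := i.2 hy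
      have h1 := h.sep l j hne _ (N_shift h l hyN) _ (N_shift h j hz)
      rw [dist_sub_right, dist_eq_norm] at h1
      linarith
    subst hlj
    rcases hi1 : i.1 with τ | s
    · have e1 : ∀ w ∈ P ((h.T a).H (Sum.inl ⟨Sum.inr ⟨l, i⟩, hc⟩)),
          (Qb l).ψ w ∈ Cu (Bj h a l).a' τ.1.1.1.k τ.1.1.1.z := by
        intro w hw
        have hw' : w ∈ P (((Bj h a l).T k0 (h.sc.kc l)).H i.1) := hw
        rw [hi1] at hw'
        exact ((Bj h a l).tile_T0 k0 (h.sc.kc l)).1 hw'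
      have h2 := adm_tile (D := (Bj h a l).D k0 (h.sc.kc l)) (τ := τ.1) (e1 y hy)
      have h3 : ((Bj h a l).D k0 (h.sc.kc l)).ρ ((Qb l).ψ y) ≤ r / 2 ^ k0 := by
        show max (6 / 2 ^ k0) (min (6 / 2 ^ (Bj h a l).kc) (infDist ((Qb l).ψ y) (Bj h a l).W)) ≤ _
        refine max_le ?_ ((min_le_right _ _).trans hyW)
        rw [div_le_div_iff_of_pos_right hp0]; linarith
      have h4 : (6:ℝ) ≤ 2 ^ τ.1.1.1.k * (r / 2 ^ k0) :=
        (show (6:ℝ) ≤ _ from h2).trans (mul_le_mul_of_nonneg_left h3 (by positivity))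
      have hpk : (0:ℝ) < 2 ^ τ.1.1.1.k := by positivity
      have h5 : 1 / 2 ^ τ.1.1.1.k ≤ r / 2 ^ k0 := by
        rw [div_le_iff₀ hpk]
        linarith
      have h6 := dist_cube (e1 x hx) (e1 x' hx')
      refine key (c := 1 / 2 ^ τ.1.1.1.k) (hone h5) ?_
      have h7 := hF.ψ2 l (x - x')
      refine h7.trans (mul_le_mul_of_nonneg_left ?_ hK0)
      rw [map_sub, ← dist_eq_norm]
      exact h6
    · have hbp : y ∈ (Bj h a l).S.bp (Bj h a l).ψ (Bj h a l).a' (Bj h a l).kc := by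
        have hw' : y ∈ P (((Bj h a l).T k0 (h.sc.kc l)).H i.1) := hy
        rw [hi1] at hw'
        exact (Bj h a l).P_inr_sub k0 (h.sc.kc l) s hw'
      exact shell (Sum.inl ⟨Sum.inr ⟨l, i⟩, hc⟩) hbp hy hyW hx hx'
  · have hlj : l = j := by
      by_contra hne
      have hyN : y ∈ (Bj h a l).N :=
        Crest.Agent.R096.Msb_432.Kc_sub_N _ (Crest.Agent.R096.Msb_432.cubH_sub _ hy)
      have h1 := h.sep l j hne _ (N_shift h l hyN) _ (N_shift h j hz)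
      rw [dist_sub_right, dist_eq_norm] at h1
      linarith
    subst hlj
    have hbp : y ∈ (Bj h a l).S.bp (Bj h a l).ψ (Bj h a l).a' (Bj h a l).kc := by
      have h1 : y ∈ (Bj h a l).Kc := Crest.Agent.R096.Msb_432.cubH_sub _ hy
      rw [← (Bj h a l).P_core k0 (h.sc.kc l)] at h1
      exact (Bj h a l).P_inr_sub k0 (h.sc.kc l) _ h1
    exact shell (Sum.inr ⟨l, z'⟩) hbp hy hyW hx hx'

/-- the tiles near the walls lie in the rigid region -/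
theorem cl2_sub (h : MIn Om W ρ₀ Qb k0 σ) {κ : ℝ} (hκ : 0 < κ) (hκ1 : κ ≤ 1) {Bs Nn : ℕ}
    (hb : ∀ j, MIn.BQ κ Bs Nn (Qb j) k0) {r : ℝ} (hr : 7 ≤ r)
    (hsm : 8 * κ⁻¹ * max 1 (Bs:ℝ) * (r / 2 ^ k0) < σ / 16) {a : R3} (ha : ‖a‖ ≤ σ / 16)
    {i : h.ιT a} (hi : Cl2 h r a i) : P ((h.T a).H i) ⊆ Wp W σ := by
  have hκ' : 1 ≤ κ⁻¹ := (one_le_inv₀ hκ).2 hκ1
  have hσ := h.σ0
  have hm1 : (1:ℝ) ≤ max 1 (Bs:ℝ) := le_max_left _ _
  have hr0 : 0 ≤ r / 2 ^ k0 := by positivity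
  have h0 : 4 * κ⁻¹ * (r / 2 ^ k0) ≤ 4 * κ⁻¹ * max 1 (Bs:ℝ) * (r / 2 ^ k0) := by
    refine mul_le_mul_of_nonneg_right ?_ hr0
    exact le_mul_of_one_le_right (by positivity) hm1
  have hd := diam2 h hκ hκ1 hb hr (by nlinarith) hi
  obtain ⟨j, y, hy, hyW⟩ := hi
  obtain ⟨z, hz, hyz⟩ := wall_pt h hκ hb hyW
  intro x hx
  refine ⟨z - h.cl a, h.hN j (N_shift h j hz), ?_⟩
  have e : h.cl a = a := h.cl_eq (by linarith)
  have h1 := hd y hy x hx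
  have h2 : dist (z - h.cl a) x ≤ dist (z - h.cl a) z + (dist z y + dist y x) :=
    (dist_triangle _ z _).trans (add_le_add le_rfl (dist_triangle _ _ _))
  have h3 : dist (z - h.cl a) z ≤ σ / 16 := by
    rw [dist_comm, dist_eq_norm, sub_sub_cancel, e]
    exact ha
  rw [dist_comm z y, dist_eq_norm y z, dist_eq_norm y x] at h2
  have e8 : 8 * κ⁻¹ * max 1 (Bs:ℝ) * (r / 2 ^ k0) = 2 * (4 * κ⁻¹ * max 1 (Bs:ℝ) * (r / 2 ^ k0)) := by
    ring
  rw [e8] at hsm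
  linarith

end

end Crest.Agent.R096.Rmt_816
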