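import Crest.Agent.R096.Rmt5_816
import Crest.Agent.R096.Gsc3_476
import Crest.Agent.R096.Ca16_855
import Crest.Agent.R96.Eld1_538

/-!
Row 96 (S0127), helper816.  (EL), part 6: the class statements `Cls2` (tiles near the walls) and `Cls3`
(tiles inside the blocks) of 538's Eld1.
-/

set_option autoImplicit false
set_option linter.unusedSectionVars false
set_option linter.style.longLine false

open MeasureTheory Set Filter Metric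
open scoped ENNReal NNReal Topology

namespace Crest.Agent.R096.Rmt_816

open Crest.AnalysisR.VecCalc3
open Crest.Agent.R96.Coarse_538
open Crest.Agent.R96.Intr_538
open Crest.Agent.R096.Msh_715 (Tiling P I)
open Crest.Agent.R096.Mal_874 (MD CB RD RP reOm)
open Crest.Agent.R096.Mf_113 (Rig CK)
open Crest.Agent.R096.Ca_855
open Crest.Agent.R096.Br_695 (En)
open Crest.Agent.R096.Efi_296
open Crest.Agent.R096.Cbs_296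
open Crest.Agent.R096.Cob_622 (EF)
open Crest.Agent.R096.Sq_55 (Sys w2)
open Crest.Agent.R096.Gsc_476 (sclT sclT_nbr diam_inT diam_outT shp_scl Bk_eq)
open Crest.Agent.R96.Eld_538 (AdE Cls2 Cls3)

noncomputable section

/-! ### sizes -/

/-- **the lengths of the edges of the tiles** -/
theorem len_T {κ : ℝ} (hκ : 0 < κ) (hκ1 : κ ≤ 1) (Bs Nn : ℕ) : ∃ μ : ℝ, 0 < μ ∧
    ∀ {Om W : Set R3} {ρ₀ : R3 → ℝ} {J : Type} [Finite J] {Qb : J → CB R3 3} {k0 : ℕ} {σ : ℝ}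
      (h : MIn Om W ρ₀ Qb k0 σ), (∀ j, MIn.BQ κ Bs Nn (Qb j) k0) → ∀ (a : R3) (t : h.ιT a),
      ∀ x ∈ P ((h.T a).H t), ∀ e1 e2, (h.T a).cc x = segment ℝ e1 e2 → e1 ≠ e2 →
        μ / 2 ^ sclT h a t ≤ ‖e2 - e1‖ := by
  obtain ⟨𝓕, μ, L1, L2, -, hμ, hL1, hL2, H⟩ := shp_scl.{0} (n := 3) R3 (MIn.Ps_finite Nn)
    (4 * κ⁻¹) (max 1 (Bs:ℝ)) (4 * κ⁻¹) (B0 := max 1 Bs)
  refine ⟨μ / L1 / 2, by positivity, ?_⟩
  intro Om W ρ₀ J _ Qb k0 σ h hb a t x hx e1 e2 he hne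
  have hF := h.fb hκ hκ1 hb
  obtain ⟨κ', ψ, a', z, -, ⟨hk1, hk2⟩, -, h3, -, -⟩ := H h.M h.sc (0 + h.M.φ (h.cl a)) (h.adm a)
    (h.X hκ hκ1 hb) (h.rp hκ hκ1 hb a) (h.X_Ps hκ hκ1 hb) (fun _ => le_rfl) (fun _ => le_rfl)
    (fun _ => le_rfl) hF.φ1 hF.φ2 t
  have h4 := (h3 x hx e1 e2 ((h.T_cc a x).symm.trans he) hne).2
  refine le_trans ?_ h4
  have hp : (0:ℝ) < 2 ^ κ' := by positivity
  have h5 : (2:ℝ) ^ κ' ≤ 2 * 2 ^ sclT h a t := by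
    rw [mul_comm, ← pow_succ]
    exact pow_le_pow_right₀ (by norm_num) hk2
  calc μ / L1 / 2 / 2 ^ sclT h a t = μ / L1 / (2 * 2 ^ sclT h a t) := by rw [div_div]
    _ ≤ μ / L1 / 2 ^ κ' := div_le_div_of_nonneg_left (by positivity) hp h5

/-- **the diameters of the tiles** -/
theorem diam_T {Om W : Set R3} {ρ₀ : R3 → ℝ} {J : Type} [Finite J] {Qb : J → CB R3 3} {k0 : ℕ}
    {σ : ℝ} (h : MIn Om W ρ₀ Qb k0 σ) {κ : ℝ} (hκ : 0 < κ) (hκ1 : κ ≤ 1) {Bs Nn : ℕ}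
    (hb : ∀ j, MIn.BQ κ Bs Nn (Qb j) k0) {a : R3} (ha : ‖a‖ ≤ σ / 8) {t : h.ιT a} {x y : R3}
    (hx : x ∈ P ((h.T a).H t)) (hy : y ∈ P ((h.T a).H t)) :
    ‖x - y‖ ≤ 4 * κ⁻¹ * max 1 (Bs:ℝ) / 2 ^ sclT h a t := by
  have hκ' : 1 ≤ κ⁻¹ := (one_le_inv₀ hκ).2 hκ1
  have hm : (1:ℝ) ≤ max 1 (Bs:ℝ) := le_max_left _ _
  have hp : (0:ℝ) < 2 ^ sclT h a t := by positivity
  by_cases hN : ∃ j, P ((h.T a).H t) ⊆ ((Qb j).tr a).N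
  · obtain ⟨j, hj⟩ := hN
    have h1 := diam_inT h ha (hb j) hj hx hy
    have h2 := (hb j).ψ2 hκ (x - y)
    rw [map_sub] at h2
    calc ‖x - y‖ ≤ 4 * κ⁻¹ * ‖(Qb j).ψ x - (Qb j).ψ y‖ := h2
      _ ≤ 4 * κ⁻¹ * (max 1 (Bs:ℝ) / 2 ^ sclT h a t) := by gcongr
      _ = 4 * κ⁻¹ * max 1 (Bs:ℝ) / 2 ^ sclT h a t := by ring
  · push Not at hN
    refine (diam_outT h ha hN hx hy).trans ?_
    rw [div_le_div_iff_of_pos_right hp]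
    nlinarith

/-- **the diameter of a tile against the edges of its neighbours** -/
theorem size_T {κ : ℝ} (hκ : 0 < κ) (hκ1 : κ ≤ 1) (Bs Nn : ℕ) : ∃ CL : ℝ, 0 < CL ∧
    ∀ {Om W : Set R3} {ρ₀ : R3 → ℝ} {J : Type} [Finite J] {Qb : J → CB R3 3} {k0 : ℕ} {σ : ℝ}
      (h : MIn Om W ρ₀ Qb k0 σ), (∀ j, MIn.BQ κ Bs Nn (Qb j) k0) → ∀ {a : R3}, ‖a‖ ≤ σ / 8 →
      ∀ (k i : h.ιT a), (P ((h.T a).H i) ∩ P ((h.T a).H k)).Nonempty →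
      ∀ y ∈ P ((h.T a).H k), ∀ y' ∈ P ((h.T a).H k), ∀ x ∈ P ((h.T a).H i), ∀ e1 e2,
        (h.T a).cc x = segment ℝ e1 e2 → e1 ≠ e2 → ‖y - y'‖ ≤ CL * ‖e2 - e1‖ := by
  obtain ⟨μ, hμ, H⟩ := len_T hκ hκ1 Bs Nn
  have hκ' : 1 ≤ κ⁻¹ := (one_le_inv₀ hκ).2 hκ1
  have hm : (1:ℝ) ≤ max 1 (Bs:ℝ) := le_max_left _ _
  refine ⟨4 * κ⁻¹ * max 1 (Bs:ℝ) * (2 / μ), by positivity, ?_⟩
  intro Om W ρ₀ J _ Qb k0 σ h hb a ha k i hki y hy y' hy' x hx e1 e2 he hne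
  have h1 := diam_T h hκ hκ1 hb ha hy hy'
  have h2 := H h hb a i x hx e1 e2 he hne
  have h3 : sclT h a i ≤ sclT h a k + 1 := sclT_nbr h (by rwa [inter_comm])
  have hpk : (0:ℝ) < 2 ^ sclT h a k := by positivity
  have hpi : (0:ℝ) < 2 ^ sclT h a i := by positivity
  have h5 : (2:ℝ) ^ sclT h a i ≤ 2 * 2 ^ sclT h a k := by
    rw [mul_comm, ← pow_succ]
    exact pow_le_pow_right₀ (by norm_num) h3
  have h6 : 1 / 2 ^ sclT h a k ≤ 2 / μ * ‖e2 - e1‖ := by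
    have h7 : μ ≤ ‖e2 - e1‖ * 2 ^ sclT h a i := (div_le_iff₀ hpi).1 h2
    have h8 : μ ≤ ‖e2 - e1‖ * (2 * 2 ^ sclT h a k) :=
      h7.trans (mul_le_mul_of_nonneg_left h5 (norm_nonneg _))
    rw [div_le_iff₀ hpk, div_mul_eq_mul_div, div_mul_eq_mul_div, le_div_iff₀ hμ]
    linarith
  calc ‖y - y'‖ ≤ 4 * κ⁻¹ * max 1 (Bs:ℝ) / 2 ^ sclT h a k := h1
    _ = 4 * κ⁻¹ * max 1 (Bs:ℝ) * (1 / 2 ^ sclT h a k) := by ring
    _ ≤ 4 * κ⁻¹ * max 1 (Bs:ℝ) * (2 / μ * ‖e2 - e1‖) := by gcongr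
    _ = 4 * κ⁻¹ * max 1 (Bs:ℝ) * (2 / μ) * ‖e2 - e1‖ := by ring

/-! ### the sum over a class -/

variable {Om W : Set R3} {ρ₀ : R3 → ℝ} {J : Type} [Finite J] {Qb : J → CB R3 3} {k0 : ℕ} {σ : ℝ}

/-- the rigid family on the small cube of positions -/
theorem hr (h : MIn Om W ρ₀ Qb k0 σ) : Rig h.T0 h.T (Dt (1 / 2 ^ k0)) (Wp W σ) :=
  rigP h fun a ha => (norm_D0 h a ha).le

/-- **the sum of `J` over a set of tiles whose neighbours are in the class** -/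
theorem cls_sum (h : MIn Om W ρ₀ Qb k0 σ) {nc : ℕ} {CL : ℝ} (hCL : 0 < CL) {a : R3}
    (ha : a ∈ Dt (1 / 2 ^ k0))
    (hnc : ∀ t, {j | (P ((h.T a).H j) ∩ P ((h.T a).H t)).Nonempty}.ncard ≤ nc)
    (hsize : ∀ (k i : h.ιT a), (P ((h.T a).H i) ∩ P ((h.T a).H k)).Nonempty →
      ∀ y ∈ P ((h.T a).H k), ∀ y' ∈ P ((h.T a).H k), ∀ x ∈ P ((h.T a).H i), ∀ e1 e2,
        (h.T a).cc x = segment ℝ e1 e2 → e1 ≠ e2 → ‖y - y'‖ ≤ CL * ‖e2 - e1‖)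
    {Cl : ∀ a, h.ιT a → Prop} {p : ℝ} {G : Fin 3 → R3 → R3} {mU mN : ℝ≥0}
    {s : Finset (h.ιT a)} {pr : (Te (h.T a)).Cell → Prop} {c : h.ιT a → Sq_55.E3}
    {R : h.ιT a → ℝ≥0} {ρ : Sq_55.E3 → ℝ≥0} {m : h.ιT a → ℝ≥0}
    {X : Sys s (reps (Te (h.T a)) s pr)}
    {D : EF X Om (En p G) (EgS (Te (h.T a)) s) (FcS (Te (h.T a)) s pr)}
    (H : AdE p h G mU mN a s pr c R ρ m X D) (K : Finset s) {S : Set R3} (hS : MeasurableSet S)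
    (hK : ∀ k ∈ K, ∀ i, (P ((h.T a).H (k : h.ιT a)) ∩ P ((h.T a).H i)).Nonempty →
      Cl a i ∧ P ((h.T a).H i) ⊆ Wp W σ ∧ P ((h.T a).H i) ⊆ S) :
    ∑ k ∈ K, D.J k ≤ ENNReal.ofReal (64 * 2 ^ nc * (mN * CL * (1 + mN)) ^ 2 * nc +
      32 * (mN * CL) * nc) * ∫⁻ y in S, En p G y ∂muC (hr h) Cl a := by
  have key := sum_cls (hr h) ha (Cl := Cl) D H.sys H.fc H.rim H.Ee
    (fun b e x Q he hQ hb => H.Ef_li b he x hQ hb) (nc := nc) (fun k _ => hnc k) K hS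
    (fun k hk i hi => hK k hk i (by rwa [inter_comm])) (Λ := mN * CL.toNNReal) (u := mN) ?_ ?_
  · rw [NNReal.coe_mul, Real.coe_toNNReal _ hCL.le] at key
    exact key
  · intro k hk i hi y hy _ e1 e2 he hne
    obtain ⟨z, hz, z', hz', h1⟩ := H.Rd k k.2
    have h2 := hsize k i hi z hz z' hz' y hy e1 e2 he hne
    calc (R k : ℝ) ≤ mN * ‖z - z'‖ := h1
      _ ≤ mN * (CL * ‖e2 - e1‖) := by gcongr
      _ = ((mN * CL.toNNReal : ℝ≥0) : ℝ) * ‖e2 - e1‖ := by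
          rw [NNReal.coe_mul, Real.coe_toNNReal _ hCL.le]; ring
  · intro k hk x hx hkx
    exact (H.ρle x hx k k.2 hkx).trans (mul_le_mul_left (H.mle k k.2) _)

/-- the neighbours of a tile near the walls are near the walls -/
theorem nb2 (h : MIn Om W ρ₀ Qb k0 σ) {κ : ℝ} (hκ : 0 < κ) (hκ1 : κ ≤ 1) {Bs Nn : ℕ}
    (hb : ∀ j, MIn.BQ κ Bs Nn (Qb j) k0) {r : ℝ} (hr : 7 ≤ r)
    (hsm : 4 * κ⁻¹ * (r / 2 ^ k0) < σ / 8) {a : R3} {k i : h.ιT a} (hk : Cl2 h r a k)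
    (hki : (P ((h.T a).H k) ∩ P ((h.T a).H i)).Nonempty) :
    Cl2 h (r + 16 * κ⁻¹ ^ 2 * max 1 (Bs:ℝ) * r) a i := by
  have hd := diam2 h hκ hκ1 hb hr hsm hk
  obtain ⟨j, y, hy, hyW⟩ := hk
  obtain ⟨x, hxk, hxi⟩ := hki
  refine ⟨j, x, hxi, ?_⟩
  have hκ' : 0 < κ⁻¹ := inv_pos.2 hκ
  have h1 := infDist_le_infDist_add_dist (s := (Bj h a j).W) (x := (Qb j).ψ x) (y := (Qb j).ψ y)
  have h2 : dist ((Qb j).ψ x) ((Qb j).ψ y) ≤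
      4 * κ⁻¹ * (4 * κ⁻¹ * max 1 (Bs:ℝ) * (r / 2 ^ k0)) := by
    rw [dist_eq_norm, ← map_sub]
    exact (((hb j).cnd _).2).trans (mul_le_mul_of_nonneg_left (hd x hxk y hy) (by positivity))
  calc infDist ((Qb j).ψ x) (Bj h a j).W
      ≤ r / 2 ^ k0 + 4 * κ⁻¹ * (4 * κ⁻¹ * max 1 (Bs:ℝ) * (r / 2 ^ k0)) := by linarith
    _ = (r + 16 * κ⁻¹ ^ 2 * max 1 (Bs:ℝ) * r) / 2 ^ k0 := by ring

set_option maxHeartbeats 1600000 in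
/-- **CLASS STATEMENT (2)** -/
theorem cls2 : Cls2 := by
  intro κ r mN Bs Nn hκ hκ1 hr7
  obtain ⟨D, hD, nc, h1, h2⟩ := exists_tile hκ hκ1 Bs
  obtain ⟨β, hβ, ρ, hρ, h2⟩ := h2 Nn
  obtain ⟨CL, hCL, hsize⟩ := size_T hκ hκ1 Bs Nn
  have hκ' : 1 ≤ κ⁻¹ := (one_le_inv₀ hκ).2 hκ1
  have hm1 : (1:ℝ) ≤ max 1 (Bs:ℝ) := le_max_left _ _
  set r' : ℝ := r + 16 * κ⁻¹ ^ 2 * max 1 (Bs:ℝ) * r with hr'
  have hrr : r ≤ r' := le_add_of_nonneg_right (by positivity)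
  have hr7' : 7 ≤ r' := hr7.trans hrr
  set cc : ℝ := 4 * κ⁻¹ * max 1 (Bs:ℝ) * r' with hcc
  have hcc0 : 0 < cc := by positivity
  have hmN : (0:ℝ) ≤ mN := mN.coe_nonneg
  refine ⟨64 * 2 ^ nc * (mN * CL * (1 + mN)) ^ 2 * nc + 32 * (mN * CL) * nc + 1,
    9 * (D / ρ) ^ 3 * 2 ^ nc * (1 + 2 * cc) ^ 3, 9 * (D / ρ) ^ 3 * 2 ^ nc * (1 + cc) ^ 3,
    1 / (64 * cc), by positivity, by positivity, by positivity, by positivity, ?_⟩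
  intro Om W ρ₀ J _ Qb k0 σ h hb hθ
  have hσ := h.σ0
  have h48 := h.h48'
  have hp0 : (0:ℝ) < 1 / 2 ^ k0 := by positivity
  have hcs : cc * (1 / 2 ^ k0) ≤ σ / 64 := by
    calc cc * (1 / 2 ^ k0) ≤ cc * (1 / (64 * cc) * σ) := by gcongr
      _ = σ / 64 := by field_simp
  have hsm' : 8 * κ⁻¹ * max 1 (Bs:ℝ) * (r' / 2 ^ k0) < σ / 16 := by
    have e : 8 * κ⁻¹ * max 1 (Bs:ℝ) * (r' / 2 ^ k0) = 2 * (cc * (1 / 2 ^ k0)) := by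
      rw [hcc]; ring
    rw [e]
    linarith
  have hsm4 : ∀ {q : ℝ}, 0 ≤ q → q ≤ r' → 4 * κ⁻¹ * (q / 2 ^ k0) < σ / 8 := by
    intro q hq0 hq
    have e : 4 * κ⁻¹ * (q / 2 ^ k0) ≤ cc * (1 / 2 ^ k0) := by
      rw [hcc]
      calc 4 * κ⁻¹ * (q / 2 ^ k0) = 4 * κ⁻¹ * 1 * q * (1 / 2 ^ k0) := by ring
        _ ≤ 4 * κ⁻¹ * max 1 (Bs:ℝ) * r' * (1 / 2 ^ k0) := by gcongr
    linarith
  have hna : ∀ a ∈ Dt (1 / 2 ^ k0), ‖a‖ ≤ σ / 16 := by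
    intro a ha
    have := norm_Dt hp0.le ha
    linarith
  have hW : ∀ a ∈ Dt (1 / 2 ^ k0), ∀ i, Cl2 h r' a i → P ((h.T a).H i) ⊆ Wp W σ :=
    fun a ha i hi => cl2_sub h hκ hκ1 hb hr7' hsm' (hna a ha) hi
  have hf : ∀ a ∈ Dt (1 / 2 ^ k0), ∀ i, Cl2 h r' a i →
      FatT (h.T a) i (D / ρ) (cc * (1 / 2 ^ k0)) nc := by
    intro a ha i hi
    obtain ⟨κ', -, hTG⟩ := h2 h hb a i
    refine fat_of h hTG hρ fun y hy y' hy' => ?_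
    refine (diam2 h hκ hκ1 hb hr7' (hsm4 (by linarith) le_rfl) hi y hy y' hy').trans
      (le_of_eq ?_)
    rw [hcc]; ring
  refine ⟨muC (hr h) (Cl2 h r'), ?_, ?_, ?_⟩
  · exact rmC (hr h) (by positivity) hW hf (meas_Dt _) (by positivity)
      (thick_Dt' hp0 hcc0.le)
  · intro a ha z s' hs'
    exact celC' (hr h) (by positivity) hW hf (hp0.trans_le hs') (by positivity) hcc0.le
      (by gcongr) a z
  · intro p G mU a ha s pr c R ρ1 m X D1 H K hK S hS hKS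
    have hsize' := fun k i => hsize h hb (norm_D0 h a ha).le k i
    refine (cls_sum h hCL ha (fun t => ((h1 h hb a).1 t).1) hsize' (Cl := Cl2 h r') H K hS
      fun k hk i hi => ?_).trans (mul_le_mul' (ENNReal.ofReal_le_ofReal (by linarith)) le_rfl)
    have h3 : Cl2 h r' a i := nb2 h hκ hκ1 hb hr7 (hsm4 (by linarith) hrr) (hK k hk) hi
    exact ⟨h3, hW a ha i h3, hKS k hk i hi⟩

set_option maxHeartbeats 1600000 in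
/-- **CLASS STATEMENT (3)** -/
theorem cls3 : Cls3 := by
  intro κ Mr hh mN Bs Nn hκ hκ1 hMr hhh
  obtain ⟨D, hD, nc, h1, h2⟩ := exists_tile hκ hκ1 Bs
  obtain ⟨β, hβ, ρ, hρ, h2⟩ := h2 Nn
  obtain ⟨CL, hCL, hsize⟩ := size_T hκ hκ1 Bs Nn
  have hmN : (0:ℝ) ≤ mN := mN.coe_nonneg
  refine ⟨64 * 2 ^ nc * (mN * CL * (1 + mN)) ^ 2 * nc + 32 * (mN * CL) * nc + 1,
    9 * (D / ρ) ^ 3 * 2 ^ nc * (1 + 2 * (D * Mr)) ^ 3, 9 * (D / ρ) ^ 3 * 2 ^ nc * (1 + D * hh) ^ 3,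
    by positivity, by positivity, by positivity, ?_⟩
  intro Om W ρ₀ J _ Qb k0 σ h hb hMk
  have hp0 : (0:ℝ) < 1 / 2 ^ k0 := by positivity
  have hW : ∀ a ∈ Dt (1 / 2 ^ k0), ∀ i, Cl3 h a i → P ((h.T a).H i) ⊆ Wp W σ :=
    fun a ha i hi => cl3_sub h (norm_D0 h a ha) hi
  have hf : ∀ {t : ℝ}, (∀ j, D * (1 / 2 ^ (Qb j).kc) ≤ t) → ∀ a ∈ Dt (1 / 2 ^ k0),
      ∀ i, Cl3 h a i → FatT (h.T a) i (D / ρ) t nc := by
    intro t ht a ha i hi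
    obtain ⟨κ', -, hTG⟩ := h2 h hb a i
    refine fat_of h hTG hρ fun y hy y' hy' => ?_
    obtain ⟨j, hj⟩ := hi
    refine ((h1 h hb a).2 j i ⟨y, hy, hj hy⟩ y hy y' hy').trans ?_
    refine le_trans (le_of_eq ?_) (ht j)
    ring
  refine ⟨muC (hr h) (Cl3 h), ?_, ?_, ?_⟩
  · refine rmC (hr h) (by positivity) hW (hf (t := D * Mr * (1 / 2 ^ k0)) fun j => ?_)
      (meas_Dt _) (by positivity) (thick_Dt' hp0 (by positivity))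
    rw [mul_assoc]
    exact mul_le_mul_of_nonneg_left (hMk j) hD.le
  · intro a ha z s' hs0 hs' hk
    refine celC' (hr h) (by positivity) hW (hf (t := D * hh * s') fun j => ?_) hs0 (by positivity)
      (by positivity) le_rfl a z
    rw [mul_assoc]
    exact mul_le_mul_of_nonneg_left (hk j) hD.le
  · intro p G mU a ha s pr c R ρ1 m X D1 H K hK S hS hKS
    have hsize' := fun k i => hsize h hb (norm_D0 h a ha).le k i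
    refine (cls_sum h hCL ha (fun t => ((h1 h hb a).1 t).1) hsize' (Cl := Cl3 h) H K hS
      fun k hk i hi => ?_).trans (mul_le_mul' (ENNReal.ofReal_le_ofReal (by linarith)) le_rfl)
    have h3 : Cl3 h a i := (hK k hk).2 i hi
    exact ⟨h3, hW a ha i h3, hKS k hk i hi⟩

end

end Crest.Agent.R096.Rmt_816
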