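/-
helper622, row 96, COMPOSITE B, part 7: **all the analytic conclusions about
`f₂ = R ∘ f ∘ Φ ∘ χ` for one system of cells**: energies of the cells and outside, energies of tubes,
near-optimality of tubes, with one choice of `δ`, `R`, `N₁`, `N₂`.  Definitions and lemmas.
-/
import Crest.Agent.R096.Cob5_622
import Crest.Agent.R096.Sqt12_143

set_option autoImplicit false
set_option linter.unusedSectionVars false
set_option linter.style.longLine false

open Set Metric Filter Topology MeasureTheory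
open scoped ENNReal NNReal

namespace Crest.Agent.R096.Cob_622

open Crest.Agent.R096.Ce_537 Crest.Agent.R096.Bd_416 Crest.Agent.R96.Hole_348
open Crest.AnalysisR.VecCalc3 Crest.AnalysisR.Sobolev Crest.Agent.R096.Sk_962
open Crest.Agent.R096.Sq_55
open Crest.Agent.R096.Sqt_143 (cu sg Edge OnC OnF CT tb Tb tb_eq tube_near tube_energy Tb_ev)
open Crest.Agent.R096.Str_968 (EFN SBc)
open Crest.Agent.R96.Lu_538 (Gmat)

variable {κ ι : Type*} [Fintype κ] [Fintype ι] {X : Sys κ ι}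

/-- the zone seen from a tube of radius `u` around `E` -/
def zn (X : Sys κ ι) (k : κ) (E : Set E3) (u : ℝ) : Set E3 :=
  (X.C k).P ∩ cthickening (25 * (X.m k : ℝ)^4 * u) E

/-- a closed part `E` of the boundary of the cells and a radius `u`, small with respect to the cell `k` -/
structure Tub (X : Sys κ ι) (k : κ) (E : Set E3) (u : ℝ) : Prop where
  cpt : IsCompact E
  EU : ∀ y ∈ E, y ∉ (X.C k).U
  EV : ∀ y ∈ E, ∀ j, y ∉ (X.F j).V
  u0 : 0 < u
  uR : 40 * (X.m k : ℝ)^4 * u ≤ (X.C k).R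

/-- the bound for the zone of a tube: squeezed faces at the cell `k` and all the edges in their rims,
unsqueezed faces which meet the zone -/
noncomputable def Jt {α β : Type*} [Fintype β] {Om : Set R3} {g : R3 → ℝ≥0∞} (D : EF X Om g α β)
    (k : κ) (E : Set E3) (u : ℝ) : ℝ≥0∞ :=
  (EFN.ofEF D univ).J k (cthickening (25 * (X.m k : ℝ)^4 * u) E) (cu X k u)

/-- the constants of the tubes -/
noncomputable def CE (p : ℝ) (K m : ℝ≥0) : ℝ :=
  (6:ℝ)^p * (3 * (9 * K)^p) * ((528 * (m:ℝ)^4)^p * CT p m)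

/-- **energy tubes**: the data of the edges and faces are only needed for the function cut off at `B` -/
structure TubE (X : Sys κ ι) (Om : Set R3) (g : R3 → ℝ≥0∞) (α β : Type*) where
  k : κ
  E : Set E3
  u : ℝ
  tub : Tub X k E u
  B : Set R3
  hB : ∀ x ∈ zn X k E u, w2 x ∈ B
  D : EF X Om (B.indicator g) α β

/-- **near tubes**: an edge, the linear map `L`; `Φ` is the identity near the boundary in the zone -/
structure TubN (X : Sys κ ι) (Om : Set R3) (G : Fin 3 → R3 → R3) (p : ℝ) (Φ : R3 → R3)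
    (α β : Type*) where
  k : κ
  a : E3
  v : E3
  u : ℝ
  u0 : ℝ
  b0 : ℝ
  n : ℕ
  m : ℝ
  edge : Edge X a v u0 b0 n
  hm : 1 ≤ m
  hmC : ∀ k, OnC (X.C k) a v → ((X.C k).M : ℝ) ≤ m
  L : R3 →L[ℝ] R3
  tub : Tub X k (sg a v) u
  hu : (1 + 4 * (m * m)) * u ≤ u0
  B : Set R3
  hB : ∀ x ∈ zn X k (sg a v) u, w2 x ∈ B
  D : EF X Om (B.indicator fun y => ‖Gmat G y - L‖ₑ ^ p) α β
  hid : ∀ z ∈ X.Z ∪ ⋃ j, (X.F j).rim, z ∈ zn X k (sg a v) u → ∀ᶠ y in 𝓝 (w2 z), Φ y = y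

/-- the number of exceptional points of an edge -/
noncomputable def nW (X : Sys κ ι) (a v : E3) (n : ℕ) : ℕ :=
  ({k | OnC (X.C k) a v}.ncard + {j | OnF (X.F j) a v}.ncard) * n + 2

/-- weights of the brackets -/
noncomputable def Ws (X : Sys κ ι) (δ : ℝ) (k : κ) : ℝ≥0∞ :=
  ENNReal.ofReal ((X.C k).R / δ) * ((∑ j, ENNReal.ofReal ((X.F j).ρ / δ)) + 1)

lemma Ws_ne_top (X : Sys κ ι) (δ : ℝ) (k : κ) : Ws X δ k ≠ ∞ := by
  refine ENNReal.mul_ne_top ENNReal.ofReal_ne_top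
    (ENNReal.add_ne_top.2 ⟨?_, ENNReal.one_ne_top⟩)
  exact (ENNReal.sum_lt_top.2 fun j _ => ENNReal.ofReal_lt_top).ne

/-- the layers -/
def lay (X : Sys κ ι) (t : ℝ) (k : κ) (N : Set E3) : Set E3 :=
  (X.C k).P ∩ N ∩ (cthickening t X.Z ∪ ⋃ j, cthickening t (X.F j).rim)

/-- comparison of two densities on the layers -/
lemma SBc_le {δ t : ℝ} {k : κ} {N : Set E3} (hN : IsClosed N) {v u : E3 → ℝ≥0∞} {c e : ℝ≥0∞}
    (h : ∀ S, MeasurableSet S → S ⊆ lay X t k N →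
      ∫⁻ x in S, v x ≤ c * (∫⁻ x in S, u x) + e) :
    SBc X δ t k N v ≤ c * SBc X δ t k N u + Ws X δ k * e := by
  have mP : MeasurableSet (X.C k).P := (X.C k).cht.clK.measurableSet
  have mN : MeasurableSet N := hN.measurableSet
  have h1 : ∀ j, ∫⁻ x in (X.C k).P ∩ (X.F j).V ∩ N ∩ cthickening t (X.F j).rim, v x ≤
      c * (∫⁻ x in (X.C k).P ∩ (X.F j).V ∩ N ∩ cthickening t (X.F j).rim, u x) + e := by
    intro j
    refine h _ (((mP.inter (X.F j).cht.opU.measurableSet).inter mN).inter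
      isClosed_cthickening.measurableSet) ?_
    rintro x ⟨⟨⟨hx1, -⟩, hx2⟩, hx3⟩
    exact ⟨⟨hx1, hx2⟩, Or.inr (mem_iUnion.2 ⟨j, hx3⟩)⟩
  have h2 := h ((X.C k).P ∩ N ∩ (cthickening t X.Z ∪ ⋃ j, cthickening t (X.F j).rim))
    ((mP.inter mN).inter (isClosed_cthickening.measurableSet.union
      (MeasurableSet.iUnion fun j => isClosed_cthickening.measurableSet))) subset_rfl
  unfold SBc Ws
  set B := ENNReal.ofReal ((X.C k).R / δ)
  have h3 : ∑ j, ENNReal.ofReal ((X.F j).ρ / δ) *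
      ∫⁻ x in (X.C k).P ∩ (X.F j).V ∩ N ∩ cthickening t (X.F j).rim, v x ≤
      c * (∑ j, ENNReal.ofReal ((X.F j).ρ / δ) *
        ∫⁻ x in (X.C k).P ∩ (X.F j).V ∩ N ∩ cthickening t (X.F j).rim, u x) +
        (∑ j, ENNReal.ofReal ((X.F j).ρ / δ)) * e := by
    rw [Finset.mul_sum, Finset.sum_mul, ← Finset.sum_add_distrib]
    refine Finset.sum_le_sum fun j _ => ?_
    refine (mul_le_mul' le_rfl (h1 j)).trans (le_of_eq ?_)
    ring
  refine (mul_le_mul' le_rfl (add_le_add h3 h2)).trans (le_of_eq ?_)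
  ring

/-- functions which agree on the layers -/
lemma SBc_congr_le {δ t : ℝ} {k : κ} {N : Set E3} (hN : IsClosed N) {v u : E3 → ℝ≥0∞}
    (h : ∀ᵐ x, x ∈ lay X t k N → v x ≤ u x) :
    SBc X δ t k N v ≤ SBc X δ t k N u := by
  have h1 := SBc_le (X := X) (δ := δ) (t := t) (k := k) hN (v := v) (u := u) (c := 1) (e := 0) (by
    intro S mS hS
    rw [one_mul, add_zero]
    exact setLIntegral_mono_ae' mS (h.mono fun x hx hxS => hx (hS hxS)))
  simpa using h1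

/-- layers are near the boundary -/
lemma lay_sub {δ t : ℝ} (ht : t < δ) (hδ : 0 < δ) (k : κ) (N : Set E3) :
    lay X t k N ⊆ (X.C k).P ∩ (nb δ X.Z ∪ ⋃ j, nb δ (X.F j).rim) := by
  have key : ∀ A : Set E3, cthickening t A ⊆ nb δ A := by
    intro A x hx
    obtain ⟨y, hy, hxy⟩ := mem_thickening_iff.1 (cthickening_subset_thickening' hδ ht A hx)
    exact ⟨y, hy, by rw [← dist_eq_norm]; exact hxy.le⟩
  rintro x ⟨⟨hx1, -⟩, hx2 | hx2⟩
  · exact ⟨hx1, Or.inl (key _ hx2)⟩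
  · obtain ⟨j, hj⟩ := mem_iUnion.1 hx2
    exact ⟨hx1, Or.inr (mem_iUnion.2 ⟨j, key _ hj⟩)⟩

lemma thk_lt {k : κ} {E : Set E3} {u δ : ℝ} (h : Tub X k E u) (hδ : 0 < δ) :
    11 * (X.m k : ℝ)^4 * (δ / (X.C k).R) * u < δ := by
  have hR : (0:ℝ) < (X.C k).R := (X.C k).R_pos
  have hm1 := Sys.m_one (X := X) k
  have hu := h.u0
  have huR := h.uR
  have h1 : 0 < (X.m k : ℝ)^4 * u := by positivity
  have e : 11 * (X.m k : ℝ)^4 * (δ / (X.C k).R) * u =
      δ * ((11 * ((X.m k : ℝ)^4 * u)) / (X.C k).R) := by ring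
  rw [e]
  have h2 : (11 * ((X.m k : ℝ)^4 * u)) / (X.C k).R < 1 := by
    rw [div_lt_one hR]
    linarith
  nlinarith

/-- `tb` of the function and of the function cut off at `B` -/
lemma tb_cut {k : κ} {E : Set E3} {u δ : ℝ} {B : Set R3} {g : R3 → ℝ≥0∞}
    (hB : ∀ x ∈ zn X k E u, w2 x ∈ B) :
    tb X δ k E u (fun x => g (w2 x)) ≤ tb X δ k E u (fun x => B.indicator g (w2 x)) := by
  rw [tb_eq, tb_eq]
  refine SBc_congr_le isClosed_cthickening (Eventually.of_forall fun x hx => ?_)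
  rw [indicator_of_mem (hB x hx.1)]

/-- the limit of `tb` -/
lemma tb_lim' {α β : Type*} [Fintype α] [Fintype β] {Om : Set R3} {g : R3 → ℝ≥0∞}
    {k : κ} {E : Set E3} {u : ℝ} (ht : Tub X k E u) {B : Set R3}
    (hB : ∀ x ∈ zn X k E u, w2 x ∈ B) (D : EF X Om (B.indicator g) α β)
    (hC : (X.C k).P ⊆ w2 ⁻¹' Om) {ε : ℝ≥0∞} (hε : ε ≠ 0) :
    ∀ᶠ δ in 𝓝[>] (0:ℝ), tb X δ k E u (fun x => g (w2 x)) ≤ Jt D k E u + ε := by
  filter_upwards [Sqt_143.tb_lim (EFN.ofEF D univ) (k := k) hC (E := E) (u := u) (s₀ := 1)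
    (X.C k).R_pos ht.u0 one_pos (subset_univ _) hε] with δ h
  exact (tb_cut hB).trans h

/-- collar for closed sets where `Φ` is locally the identity -/
lemma exists_id_nhd {Φ : R3 → R3} {Z : Set E3} (hZ : IsClosed Z) {S : Set E3} (hS : IsCompact S)
    (h : ∀ z ∈ Z, z ∈ S → ∀ᶠ y in 𝓝 (w2 z), Φ y = y) :
    ∃ r > 0, ∀ x ∈ S, x ∈ thickening r Z → ∀ᶠ y in 𝓝 (w2 x), Φ y = y := by
  set O : Set E3 := {x | ∀ᶠ y in 𝓝 (w2 x), Φ y = y} with hO
  have oO : IsOpen O := by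
    have : IsOpen {x : R3 | ∀ᶠ y in 𝓝 x, Φ y = y} := isOpen_setOfPred_eventually_nhds
    exact this.preimage w2.continuous
  -- `S \ O` is compact and disjoint from `Z`
  have h1 : IsCompact (S \ O) := hS.diff oO
  have h2 : Disjoint (S \ O) Z := by
    rw [Set.disjoint_left]
    rintro x ⟨hx1, hx2⟩ hx3
    exact hx2 (h x hx3 hx1)
  obtain ⟨r, hr, hd⟩ := h2.exists_thickenings h1 hZ
  refine ⟨r, hr, fun x hx1 hx2 => ?_⟩
  by_contra hcon
  exact Set.disjoint_left.1 hd (self_subset_thickening hr _ ⟨hx1, hcon⟩) hx2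

end Crest.Agent.R096.Cob_622
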