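/-
helper296, row 96, COMPOSITE B (622 #11433, leaf [L5] `cob_sys`), part 2: the tubes `TubE`, `TubN` of
Cob7 for the closed 1-cells of a tiling at a good position.
-/
import Crest.Agent.R096.Cbs1_296
import Crest.Agent.R096.Cob7_622

set_option autoImplicit false
set_option linter.unusedSectionVars false
set_option linter.style.longLine false

open Set Metric Filter Topology MeasureTheory
open scoped ENNReal NNReal

namespace Crest.Agent.R096.Cbs_296

open Crest.AnalysisR.VecCalc3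
open Crest.Agent.R096.Msh_715 (P I Tiling I_sub_P isOpen_I isClosed_P)
open Crest.Agent.R096.Sq_55 (E3 Sys Face Cell FaceOf w2 IsDp GG)
open Crest.Agent.R096.Sqt_143 (sg Edge OnC OnF cu)
open Crest.Agent.R096.Cob_622
open Crest.Agent.R096.Str_968 (EFN)
open Crest.Agent.R096.Efi_296
open Crest.Agent.R96.Coarse_538 (seg)
open Crest.Agent.R096.Fce_793 (pt cc continuous_pt)
open Crest.Agent.R096.Slb_296
open Crest.Agent.R96.En10_199 (P3)
open Crest.Agent.R96.Lu_538 (Gmat)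

noncomputable section

section loc

variable {OmR : Set R3} {ι : Type*} {T : Tiling OmR ι} {Om : Set R3} {κe κf : Type*}
  {x v : κe → R3} {e : κf → Fin 2 → R3} {xx : κf → R3} {a : R3} {Q : κf → Set (ℝ × ℝ)}
  {s : Finset ι} {pr : (Te T).Cell → Prop} {g : R3 → ℝ≥0∞}

/-- the energy of the edge number `i` inside `B0` -/
def eI (Om : Set R3) (g : R3 → ℝ≥0∞) (x v : κe → R3) (a : R3) (B0 : Set R3) (i : κe) : ℝ≥0∞ :=
  ENNReal.ofReal (32 * ‖v i‖) *
    ∫⁻ σ in Icc 0 1 ∩ pl (v i) (a + x i) ⁻¹' B0, Om.indicator g (pl (v i) (a + x i) σ)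

/-- the energy of the face number `i` inside `B0` -/
def fI (Om : Set R3) (g : R3 → ℝ≥0∞) (e : κf → Fin 2 → R3) (xx : κf → R3) (a : R3)
    (Q : κf → Set (ℝ × ℝ)) (B0 : Set R3) (i : κf) : ℝ≥0∞ :=
  ENNReal.ofReal (16 * cc (e i) ^ 2) *
    ∫⁻ w in Q i ∩ pt (e i) (a + xx i) ⁻¹' B0, Om.indicator g (pt (e i) (a + xx i) w)

/-- **the localised data** of the tiling at a good position -/
def efLoc (hG : GoodA Om g x v e xx a) (hQ : ∀ φ, IsCompact (Q φ))
    {me : EgS (Te T) s → κe} {mf : FcS (Te T) s pr → κf}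
    (hme : ∀ c, w2 '' c.1.set = seg x v a (me c))
    (hmf : ∀ c, w2 '' c.1.set = pt (e (mf c)) (a + xx (mf c)) '' Q (mf c))
    (X : Sys s (reps (Te T) s pr))
    (hrim : ∀ y : reps (Te T) s pr, (X.F y).rim = (Te T).cc (y : E3) \ (Te T).oc (y : E3))
    (hZ : X.Z = Zs (Te T) s pr) {B0 : Set R3} (hB0 : IsClosed B0) :
    EF X Om (B0.indicator g) (EgS (Te T) s) (FcS (Te T) s pr) :=
  mkEF X hrim hZ Om (B0.indicator g) (fun c => eI Om g x v a B0 (me c))
    (fun c => fI Om g e xx a Q B0 (mf c))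
    (fun c => ENNReal.mul_ne_top ENNReal.ofReal_ne_top (ne_top_of_le_ne_top
      (hG.finE (me c) (Icc 0 1) isCompact_Icc) (lintegral_mono_set inter_subset_left)))
    (by
      intro c
      rw [hme c, seg_eq_pl]
      refine lim_scale (f := fun δ => ∫⁻ y in Om ∩ thickening δ (pl (v (me c)) (a + x (me c)) ''
        Icc 0 1), B0.indicator g y) (c := 32 * ‖v (me c)‖) (by positivity)
        (pw := fun δ => δ ^ 2) ?_
      exact loc_lim volume (continuous_pl _ _) isCompact_Icc hB0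
        (hG.finE (me c) (Icc 0 1) isCompact_Icc) (pw := fun δ => 32 * ‖v (me c)‖ * δ ^ 2)
        fun K' hK' _ => hG.tube (me c) K' hK')
    (by
      intro c
      rw [hmf c]
      refine lim_scale (f := fun δ => ∫⁻ y in Om ∩ thickening δ (pt (e (mf c)) (a + xx (mf c)) ''
        Q (mf c)), B0.indicator g y) (c := 16 * cc (e (mf c)) ^ 2) (by positivity)
        (pw := fun δ => δ) ?_
      exact loc_lim volume (continuous_pt _ _) (hQ (mf c)) hB0
        (hG.finF (mf c) (Q (mf c)) (hQ (mf c))) (pw := fun δ => 16 * cc (e (mf c)) ^ 2 * δ)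
        fun K' hK' _ => hG.slab (mf c) K' hK')

end loc

section tub

variable {Om : Set E3} {ι : Type*} {T : Tiling Om ι} {s : Finset ι} {pr : T.Cell → Prop}
  {c : ι → E3} {R : ι → ℝ≥0} {ρ : E3 → ℝ≥0} {m : ι → ℝ≥0} {X : Sys s (reps T s pr)}

/-- compact sets of points of dimension at most one are tubes -/
theorem SysOf.tub (h : SysOf T s pr c R ρ m X) {E : Set E3} (hE : IsCompact E)
    (hE1 : ∀ y ∈ E, y ∈ Om ∧ T.dim y ≤ 1) (k : s) {u : ℝ} (hu : 0 < u)
    (huR : 40 * (m k : ℝ)^4 * u ≤ R k) : Tub X k E u where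
  cpt := hE
  EU y hy := h.off_U (hE1 y hy).1 ((hE1 y hy).2.trans (by norm_num)) k
  EV y hy j := h.off_V (hE1 y hy).1 (hE1 y hy).2 j
  u0 := hu
  uR := by rw [h.em, h.eR]; exact huR

/-- the zone of the tube -/
theorem SysOf.zn_eq (h : SysOf T s pr c R ρ m X) (k : s) (E : Set E3) (u : ℝ) :
    zn X k E u = P (T.H k) ∩ cthickening (25 * (m k : ℝ)^4 * u) E := by
  rw [zn, h.eP, h.em]

end tub

section tub2

variable {OmR : Set R3} {ι : Type*} {T : Tiling OmR ι} {Om : Set R3} {κe κf : Type*}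
  {x v : κe → R3} {e : κf → Fin 2 → R3} {xx : κf → R3} {a : R3} {Q : κf → Set (ℝ × ℝ)}
  {s : Finset ι} {pr : (Te T).Cell → Prop} {g : R3 → ℝ≥0∞}
  {c : ι → E3} {R : ι → ℝ≥0} {ρ : E3 → ℝ≥0} {m : ι → ℝ≥0} {X : Sys s (reps (Te T) s pr)}

/-- the closed neighbourhood in which the energies are measured -/
def Bz (E : Set E3) (r : ℝ) : Set R3 := w2 '' cthickening r E

theorem isClosed_Bz (E : Set E3) (r : ℝ) : IsClosed (Bz E r) :=
  w2.isClosed_image.2 isClosed_cthickening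

/-- **energy tube** of a compact set of points of dimension at most one -/
def mkTubE (h : SysOf (Te T) s pr c R ρ m X) (hG : GoodA Om g x v e xx a)
    (hQ : ∀ φ, IsCompact (Q φ))
    {me : EgS (Te T) s → κe} {mf : FcS (Te T) s pr → κf}
    (hme : ∀ c, w2 '' c.1.set = seg x v a (me c))
    (hmf : ∀ c, w2 '' c.1.set = pt (e (mf c)) (a + xx (mf c)) '' Q (mf c))
    {E : Set E3} (hE : IsCompact E)
    (hE1 : ∀ y ∈ E, y ∈ (P3.symm : R3 ≃L[ℝ] E3).symm ⁻¹' OmR ∧ (Te T).dim y ≤ 1) (k : s) {u : ℝ}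
    (hu : 0 < u) (huR : 40 * (m k : ℝ)^4 * u ≤ R k) :
    TubE X Om g (EgS (Te T) s) (FcS (Te T) s pr) where
  k := k
  E := E
  u := u
  tub := h.tub hE hE1 k hu huR
  B := Bz E (25 * (m k : ℝ)^4 * u)
  hB y hy := by
    rw [h.zn_eq] at hy
    exact mem_image_of_mem _ hy.2
  D := efLoc hG hQ hme hmf X h.rim h.Z (isClosed_Bz E _)

theorem sg_eq_segment (a v : E3) : sg a v = segment ℝ a (a + v) := by
  rw [segment_eq_image']
  simp [sg]

theorem sg_of_me {C : Set E3} {i : κe} (h : w2 '' C = seg x v a i) :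
    C = sg (w2.symm (a + x i)) (w2.symm (v i)) := by
  have h1 : C = w2.symm '' (w2 '' C) := by
    rw [image_image]; simp
  rw [h1, h, seg_eq_pl, image_image, sg]
  apply image_congr
  intro t _
  show P3.symm (a + x i + t • v i) = P3.symm (a + x i) + t • P3.symm (v i)
  rw [map_add, map_smul]

/-- **near tube** of a closed 1-cell of the tiling, with any parametrisation `a0`, `v0` -/
def mkTubN (h : SysOf (Te T) s pr c R ρ m X) {G : Fin 3 → R3 → R3} {p : ℝ} {L : R3 →L[ℝ] R3}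
    (hG : GoodA Om (fun y => ‖Gmat G y - L‖ₑ ^ p) x v e xx a)
    (hQ : ∀ φ, IsCompact (Q φ))
    {me : EgS (Te T) s → κe} {mf : FcS (Te T) s pr → κf}
    (hme : ∀ c, w2 '' c.1.set = seg x v a (me c))
    (hmf : ∀ c, w2 '' c.1.set = pt (e (mf c)) (a + xx (mf c)) '' Q (mf c))
    {E : (Te T).Cell} (hE1 : E.dim ≤ 1) {a0 v0 : E3} (hav : E.set = sg a0 v0) {u0 b0 : ℝ} {n : ℕ}
    (hE : Edge X a0 v0 u0 b0 n) (k : s) {u : ℝ}
    (hu : 0 < u) (huR : 40 * (m k : ℝ)^4 * u ≤ R k) {M : ℝ≥0} (hM : 1 ≤ M)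
    (hMC : ∀ k : s, (k : ι) ∈ (Te T).at_ E.pt → m k ≤ M)
    (huM : (1 + 4 * ((M : ℝ) * M)) * u ≤ u0) {Φ : R3 → R3}
    (hid : ∀ z ∈ X.Z ∪ ⋃ j, (X.F j).rim, z ∈ P ((Te T).H k) →
      z ∈ cthickening (25 * (m k : ℝ)^4 * u) E.set → ∀ᶠ y in 𝓝 (w2 z), Φ y = y) :
    TubN X Om G p Φ (EgS (Te T) s) (FcS (Te T) s pr) where
  k := k
  a := a0
  v := v0
  u := u
  u0 := u0
  b0 := b0
  n := n
  m := M
  edge := hE
  hm := by exact_mod_cast hM
  hmC l hl := by
    have h1 : E.pt ∈ (X.C l).P := by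
      have h2 : E.pt ∈ E.set := pt_mem_set E
      rw [hav] at h2
      obtain ⟨t, ht, h3⟩ := h2
      have h4 := (hl t ht).1
      have h3' : a0 + t • v0 = E.pt := h3
      rwa [h3'] at h4
    rw [h.eP] at h1
    have h5 := hMC l h1
    have h6 := X.mC l
    rw [h.em] at h6
    exact_mod_cast h6.trans h5
  L := L
  tub := h.tub (Sqt_143.isCompact_sg _ _) (fun y hy => by
    rw [← hav] at hy
    exact ⟨mem_Om_of_set hy, (dim_le_of_set hy).trans hE1⟩) k hu huR
  hu := huM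
  B := Bz E.set (25 * (m k : ℝ)^4 * u)
  hB y hy := by
    rw [h.zn_eq, ← hav] at hy
    exact mem_image_of_mem _ hy.2
  D := efLoc hG hQ hme hmf X h.rim h.Z (isClosed_Bz _ _)
  hid z hz hz2 := by
    rw [h.zn_eq, ← hav] at hz2
    exact hid z hz hz2.1 hz2.2

open Classical in
/-- **the functional of a tube, in terms of the edges of the tile `k` and of the unsqueezed faces
which meet the zone** -/
theorem Jt_le (h : SysOf (Te T) s pr c R ρ m X) (hG : GoodA Om g x v e xx a)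
    (hQ : ∀ φ, IsCompact (Q φ))
    {me : EgS (Te T) s → κe} {mf : FcS (Te T) s pr → κf}
    (hme : ∀ c, w2 '' c.1.set = seg x v a (me c))
    (hmf : ∀ c, w2 '' c.1.set = pt (e (mf c)) (a + xx (mf c)) '' Q (mf c)) {B0 : Set R3}
    (hB0 : IsClosed B0) (k : s) (E : Set E3) (u : ℝ) {n : ℕ}
    (hr : ∀ y : reps (Te T) s pr, (k : ι) ∈ (Te T).at_ (y : E3) → ρ y ≤ m k * R k)
    (hn : {y : reps (Te T) s pr | (k : ι) ∈ (Te T).at_ (y : E3)}.ncard ≤ n) :
    Jt (efLoc hG hQ hme hmf X h.rim h.Z hB0) k E u ≤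
      ENNReal.ofReal (1089 * (m k : ℝ)^9 * n * u^2) *
        (∑ c ∈ Finset.univ.filter fun c : EgS (Te T) s => c.1.set ⊆ P ((Te T).H k),
          eI Om g x v a B0 (me c)) +
      ENNReal.ofReal (33 * (m k : ℝ)^4 * u) *
        ∑ b ∈ Finset.univ.filter fun b : FcS (Te T) s pr =>
          (b.1.set ∩ (P ((Te T).H k) ∩ cthickening (25 * (m k : ℝ)^4 * u) E)).Nonempty,
          fI Om g e xx a Q B0 (mf b) := by
  set D := efLoc hG hQ hme hmf X h.rim h.Z hB0 with hD
  have hfc : ∀ b, (EFN.ofEF D univ).fc b = w2 '' (b.1.set ∩ univ) := by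
    intro b; rw [inter_univ]; rfl
  have hn' : (Finset.univ.filter fun y : reps (Te T) s pr => (k : ι) ∈ (Te T).at_ (y : E3)).card
      ≤ n := by
    rw [← Set.ncard_coe_finset]
    refine le_trans (le_of_eq ?_) hn
    congr 1
    ext y
    rw [Finset.mem_coe, Finset.mem_filter]
    exact ⟨fun h => h.2, fun h => ⟨Finset.mem_univ _, h⟩⟩
  have h1 := JN_le (EFN.ofEF D univ) h.c_mem h.F h.eP hfc (fun _ => rfl) k
    (cthickening (25 * (m k : ℝ)^4 * u) E) (cu X k u) (r := m k * R k) (n := n)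
    (fun y hy => by rw [h.eρ]; exact hr y hy) hn'
  have hRk : (0:ℝ) < R k := by
    have := (X.C k).pos
    rw [h.eR] at this
    exact_mod_cast this
  unfold Jt
  rw [h.em]
  refine h1.trans (add_le_add ?_ ?_)
  · rw [← mul_assoc]
    refine mul_le_mul' ?_ le_rfl
    rw [h.eR]
    have e1 : ((n : ℝ≥0∞) * ((m k * R k : ℝ≥0) : ℝ≥0∞)) =
        ENNReal.ofReal (n * (m k * R k)) := by
      rw [ENNReal.ofReal_mul (Nat.cast_nonneg _), ENNReal.ofReal_natCast]
      congr 1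
      rw [← NNReal.coe_mul, ENNReal.ofReal_coe_nnreal]
    rw [e1, ← ENNReal.ofReal_mul (by positivity)]
    apply ENNReal.ofReal_le_ofReal
    have e2 : cu X k u = 11 * (m k : ℝ)^4 * u / R k := by
      unfold cu; rw [h.em, h.eR]
    rw [e2]
    apply le_of_eq
    field_simp
    ring
  · refine mul_le_mul' ?_ (le_of_eq ?_)
    · rw [h.eR]
      apply ENNReal.ofReal_le_ofReal
      have e2 : cu X k u = 11 * (m k : ℝ)^4 * u / R k := by
        unfold cu; rw [h.em, h.eR]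
      rw [e2]
      apply le_of_eq
      field_simp
      ring
    · apply Finset.sum_congr
      · ext b
        simp only [inter_univ]
      · intro b _
        rfl

end tub2

end

end Crest.Agent.R096.Cbs_296
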