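/-
helper622, row 96, COMPOSITE B, part 8: **`cob_main`: all the analytic conclusions about
`f₂ = R ∘ f ∘ Φ ∘ χ` for one system of cells**, with one choice of `δ`, `R`, `N₁`, `N₂`.
-/
import Crest.Agent.R096.Cob7_622

set_option autoImplicit false
set_option linter.unusedSectionVars false
set_option linter.style.longLine false

open Set Metric Filter Topology MeasureTheory
open scoped ENNReal NNReal

namespace Crest.Agent.R096.Cob_622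

open Crest.Agent.R096.Ce_537 Crest.Agent.R096.Bd_416 Crest.Agent.R96.Hole_348
open Crest.AnalysisR.VecCalc3 Crest.AnalysisR.Sobolev Crest.Agent.R096.Sk_962
open Crest.Agent.R096.Sq_55
open Crest.Agent.R096.Sqt_143 (cu sg Edge OnC OnF CT tb Tb tb_eq tube_near tube_energy Tb_ev)
open Crest.Agent.R096.Str_968 (EFN SBc)
open Crest.Agent.R96.Lu_538 (Gmat)
open Crest.Agent.R96.Sob7_199 (grad_mono grad_congr grad_unique)

variable {κ ι : Type*} [Fintype κ] [Fintype ι] {X : Sys κ ι}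

/-- `chi` is the identity off the cells -/
lemma chi_out {p δ : ℝ} (hFK : ∀ j, (X.F j).K ⊆ ⋃ k, (X.C k).P) (h : X.Adm p δ) (N₁ N₂ : ℕ) {x : E3}
    (hx : x ∉ ⋃ k, (X.C k).P) : Sys.chi h N₁ N₂ x = x := by
  have h1 : Sys.Y h N₂ x = x := Sys.Y_out h N₂ fun k hk =>
    hx (mem_iUnion.2 ⟨k, (X.C k).cht.sub hk⟩)
  have h2 : Sys.H h N₁ x = x := Sys.H_out h N₁ fun j hj => hx (hFK j ((X.F j).cht.sub hj))
  show Sys.H h N₁ (Sys.Y h N₂ x) = x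
  rw [h1, h2]

lemma isClosed_cells : IsClosed (⋃ k, (X.C k).P) :=
  isClosed_iUnion_of_finite fun k => (X.C k).cht.clK

lemma llv_out {p δ : ℝ} (hFK : ∀ j, (X.F j).K ⊆ ⋃ k, (X.C k).P) (h : X.Adm p δ) (N₁ N₂ : ℕ) {x : E3}
    (hx : x ∉ ⋃ k, (X.C k).P) : LLV 1 (Sys.chi h N₁ N₂) x := by
  have h1 : ∀ᶠ y in 𝓝 x, y ∉ ⋃ k, (X.C k).P := isClosed_cells.isOpen_compl.mem_nhds hx
  filter_upwards [h1] with y hy
  rw [chi_out hFK h N₁ N₂ hy, chi_out hFK h N₁ N₂ hx, one_mul]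

/-- the gradients agree where `Φ` is locally the identity -/
lemma grad_id {p : ℝ} {Om La : Set R3} {f : R3 → R3} {G G0 : Fin 3 → R3 → R3} (hOm : IsOpen Om)
    (hf : SH p Om La f G) {Φ : R3 → R3} (h0 : SH p Om La (fun x => f (Φ x)) G0) :
    ∀ᵐ x, x ∈ Om → (∀ᶠ y in 𝓝 x, Φ y = y) → ∀ j, G0 j x = G j x := by
  set O : Set R3 := Om ∩ {x | ∀ᶠ y in 𝓝 x, Φ y = y} with hO
  have oO : IsOpen O := hOm.inter isOpen_setOfPred_eventually_nhds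
  have h1 : ∀ j, ∀ᵐ x, x ∈ O → G0 j x = G j x := by
    intro j
    refine grad_unique oO ?_ (grad_mono hOm (hf.wg j) inter_subset_left)
    refine grad_congr oO (grad_mono hOm (h0.wg j) inter_subset_left)
      (Eventually.of_forall fun x hx => ?_) (Eventually.of_forall fun x _ => rfl)
    show f (Φ x) j = f x j
    rw [hx.2.self_of_nhds]
  filter_upwards [ae_all_iff.2 h1] with x hx hxO hxi j
  exact hx j ⟨hxO, hxi⟩

lemma aem_En {p : ℝ} (hp : 0 < p) {Om La : Set R3} (hOm : IsOpen Om) {f : R3 → R3}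
    {G : Fin 3 → R3 → R3} (hf : SH p Om La f G) {S : Set E3} (mS : MeasurableSet S)
    (hS : S ⊆ w2 ⁻¹' Om) (c : ℝ≥0∞) :
    AEMeasurable (fun x => c * En p G (w2 x)) (volume.restrict S) := by
  obtain ⟨u, hu⟩ := exists_isEn hp hOm hf
  refine ⟨fun x => c * u x, hu.meas.const_mul _, ?_⟩
  refine (ae_restrict_iff' mS).2 ?_
  filter_upwards [hu.eq] with x hx hxS
  rw [hx (hS hxS)]

set_option maxHeartbeats 1000000 in
/-- **COMPOSITE B, all the estimates.**  One thickness `δ`, one squeeze `R` of the target, one pair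
`N₁`, `N₂`. -/
theorem cob_main {α β : Type*} [Fintype α] [Fintype β] (X : Sys κ ι) {p : ℝ} (hp : 1 ≤ p)
    (hp3 : p < 3) {Om La : Set R3} {f : R3 → R3} {G : Fin 3 → R3 → R3} (hOm : IsOpen Om)
    (hvol : volume Om ≠ ∞) (hf : SH p Om La f G)
    (hC : ∀ k, (X.C k).P ⊆ w2 ⁻¹' Om) (hF : ∀ j, (X.F j).K ⊆ w2 ⁻¹' Om)
    (hFK : ∀ j, (X.F j).K ⊆ ⋃ k, (X.C k).P)
    (hsz : ∀ k j, ((X.F j).V ∩ (X.C k).P).Nonempty → (X.C k).R ≤ X.m k * (X.F j).ρ)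
    (Φ : R3 ≃ₜ R3) (hΦ1 : PLOn Φ univ) (hΦ2 : PLOn Φ.symm univ) (hΦ : ∀ x, Φ x ∈ Om ↔ x ∈ Om)
    (hΦo : ∀ x, x ∉ w2 '' (⋃ k, (X.C k).P) → Φ x = x)
    (K : ℝ≥0) {U : Set R3} (hU : IsOpen U) (D : EF X Om (En p G) α β)
    (hgood : ∀ z ∈ X.Z ∪ ⋃ j, (X.F j).rim, z ∈ ⋃ k, (X.C k).P → Good Φ f U (w2 z))
    {Pr : (R3 ≃ₜ R3) → Prop}
    (hR : ∀ θ : ℝ, 0 < θ → ∃ (R : R3 ≃ₜ R3) (C : ℝ), LipschitzWith K R ∧
      (∀ y, R y ∈ La ↔ y ∈ La) ∧ (∀ y, ‖R y - y‖ ≤ C) ∧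
      (∀ y ∈ U, ∀ ε > 0, ∀ᶠ z in 𝓝 y, ‖R z - R y‖ ≤ (θ + ε) * ‖z - y‖) ∧ Pr R)
    {Υ₁ Υ₂ : Type*} [Finite Υ₁] [Finite Υ₂] {α₁ β₁ α₂ β₂ : Type*} [Fintype α₁] [Fintype β₁]
    [Fintype α₂] [Fintype β₂]
    (t1 : Υ₁ → TubE X Om (En p G) α₁ β₁) (t2 : Υ₂ → TubN X Om G p Φ α₂ β₂)
    {ε : ℝ≥0∞} (hε : ε ≠ 0) {δ₀ : ℝ} (hδ₀ : 0 < δ₀) :
    ∃ δ : ℝ, δ < δ₀ ∧ ∃ (h : X.Adm p δ) (N₁ N₂ : ℕ) (R : R3 ≃ₜ R3)
      (Gg G₂ : Fin 3 → R3 → R3),
      Pr R ∧ LipschitzWith K R ∧ (∀ y, R y ∈ La ↔ y ∈ La) ∧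
      SH p Om La (fun x => f (Φ (toR (Sys.chi h (N₁+1) (N₂+1)) x))) Gg ∧
      SH p Om La (fun x => R (f (Φ (toR (Sys.chi h (N₁+1) (N₂+1)) x)))) G₂ ∧
      (∀ S : Set R3, MeasurableSet S → S ⊆ Om → (∀ x ∈ S, x ∉ w2 '' (⋃ k, (X.C k).P)) →
        ∫⁻ x in S, En p G₂ x ≤
          ENNReal.ofReal ((6:ℝ)^p * (3 * (9 * K)^p)) * (∫⁻ x in S, En p G x) + ε) ∧
      (∀ k, (p < 2 ∨ ∀ j, ¬ ((X.F j).V ∩ (X.C k).P).Nonempty) →
        ∫⁻ x in (X.C k).P, En p G₂ (w2 x) ≤ ENNReal.ofReal (CB p K (X.m k)) * D.J k + ε) ∧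
      (∀ i, ∫⁻ x in (X.C (t1 i).k).P ∩ cthickening (t1 i).u (t1 i).E, En p G₂ (w2 x) ≤
        ENNReal.ofReal (CE p K (X.m (t1 i).k)) * Jt (t1 i).D (t1 i).k (t1 i).E (t1 i).u + ε) ∧
      (∀ i, ∫⁻ x in (X.C (t2 i).k).P ∩ cthickening (t2 i).u (sg (t2 i).a (t2 i).v),
          ‖Gmat Gg (w2 x) (w2 (t2 i).v) - (t2 i).L (w2 (t2 i).v)‖ₑ ^ p ≤
        ENNReal.ofReal ((2 * (2113 * (X.m (t2 i).k : ℝ)^4 * ‖w2 (t2 i).v‖))^p) *
          (ENNReal.ofReal (CT p (X.m (t2 i).k)) *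
            Jt (t2 i).D (t2 i).k (sg (t2 i).a (t2 i).v) (t2 i).u +
          ‖(t2 i).L‖ₑ ^ p * (nW X (t2 i).a (t2 i).v (t2 i).n *
            ENNReal.ofReal ((2 * ((1 + (t2 i).b0 * (1 + 4 * ((t2 i).m * (t2 i).m)) *
              ‖(t2 i).v‖) * (t2 i).u))^3))) + ε) := by
  classical
  cases nonempty_fintype Υ₁
  cases nonempty_fintype Υ₂
  have hp0 : 0 < p := lt_of_lt_of_le one_pos hp
  have hst : s6 p ≠ ∞ := s6_top p
  have hε2 : ε / 2 ≠ 0 := by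
    rw [Ne, ENNReal.div_eq_zero_iff]; push Not
    exact ⟨hε, by norm_num⟩
  set c : ℝ≥0∞ := ENNReal.ofReal (3 * (9 * K) ^ p) with hc
  have hct : c ≠ ∞ := ENNReal.ofReal_ne_top
  obtain ⟨G0, hG0, -⟩ := sobChain hp hOm hf Φ hΦ1 hΦ2 hΦ
  have hid0 := ae_w2.1 (grad_id hOm hf hG0)
  have hclZ : IsClosed (X.Z ∪ ⋃ j, (X.F j).rim) :=
    D.clZ.union (isClosed_iUnion_of_finite fun j => (isCompact_rim (X.F j)).isClosed)
  -- the zones of the near tubes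
  have hzc : ∀ (k : κ) (E : Set E3) (u : ℝ), IsCompact (zn X k E u) := fun k E u =>
    (isCompact_P (X.C k)).inter_right isClosed_cthickening
  have hzn : ∀ i, ∃ r > 0, ∀ x ∈ zn X (t2 i).k (sg (t2 i).a (t2 i).v) (t2 i).u,
      x ∈ thickening r (X.Z ∪ ⋃ j, (X.F j).rim) → ∀ᶠ y in 𝓝 (w2 x), Φ y = y := fun i =>
    exists_id_nhd hclZ (hzc _ _ _) (t2 i).hid
  choose r hr0 hr using hzn
  -- small errors
  have hA : ∀ i, ∃ e : ℝ≥0∞, e ≠ 0 ∧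
      (ENNReal.ofReal ((528 * (X.m (t1 i).k : ℝ)^4)^p) * (ENNReal.ofReal (CT p (X.m (t1 i).k)) *
        (s6 p * c))) * e ≤ ε / 2 := fun i =>
    exists_small (ENNReal.mul_ne_top ENNReal.ofReal_ne_top (ENNReal.mul_ne_top
      ENNReal.ofReal_ne_top (ENNReal.mul_ne_top hst hct))) hε2
  choose ea hea0 hea using hA
  have hB : ∀ i, ∃ e : ℝ≥0∞, e ≠ 0 ∧
      (ENNReal.ofReal ((2 * (2113 * (X.m (t2 i).k : ℝ)^4 * ‖w2 (t2 i).v‖))^p) *
        ENNReal.ofReal (CT p (X.m (t2 i).k))) * e ≤ ε := fun i =>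
    exists_small (ENNReal.mul_ne_top ENNReal.ofReal_ne_top ENNReal.ofReal_ne_top) hε
  choose eb heb0 heb using hB
  have hle : ∀ r : ℝ, 0 < r → ∀ᶠ δ in 𝓝[>] (0:ℝ), δ < r := fun r hr =>
    (eventually_lt_nhds hr).filter_mono nhdsWithin_le_nhds
  have E1 := cob_energy X hp hp3 hOm hvol hf hC hF Φ hΦ1 hΦ2 hΦ K hU D hgood hε
  have E2 : ∀ᶠ δ in 𝓝[>] (0:ℝ), ∀ i, tb X δ (t1 i).k (t1 i).E (t1 i).u (fun x => En p G (w2 x)) ≤
      Jt (t1 i).D (t1 i).k (t1 i).E (t1 i).u + ea i :=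
    eventually_all.2 fun i => tb_lim' (t1 i).tub (t1 i).hB (t1 i).D (hC _) (hea0 i)
  have E3 : ∀ᶠ δ in 𝓝[>] (0:ℝ), ∀ i, tb X δ (t2 i).k (sg (t2 i).a (t2 i).v) (t2 i).u
      (fun x => ‖Gmat G (w2 x) - (t2 i).L‖ₑ ^ p) ≤
      Jt (t2 i).D (t2 i).k (sg (t2 i).a (t2 i).v) (t2 i).u + eb i :=
    eventually_all.2 fun i => tb_lim' (g := fun y => ‖Gmat G y - (t2 i).L‖ₑ ^ p) (t2 i).tub
      (t2 i).hB (t2 i).D (hC _) (heb0 i)
  have hρ : ∀ j, (0:ℝ) < (X.F j).ρ := fun j => (X.F j).ρ_pos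
  have E4 : ∀ᶠ δ in 𝓝[>] (0:ℝ), ∀ i, Tb X δ (t1 i).k (t1 i).E (t1 i).u :=
    eventually_all.2 fun i => Tb_ev hρ (hsz _) (t1 i).tub.cpt (t1 i).tub.EU (t1 i).tub.EV
      (t1 i).tub.u0.le (t1 i).tub.uR
  have E5 : ∀ᶠ δ in 𝓝[>] (0:ℝ), ∀ i, Tb X δ (t2 i).k (sg (t2 i).a (t2 i).v) (t2 i).u :=
    eventually_all.2 fun i => Tb_ev hρ (hsz _) (t2 i).tub.cpt (t2 i).tub.EU (t2 i).tub.EV
      (t2 i).tub.u0.le (t2 i).tub.uR
  have E6 : ∀ᶠ δ in 𝓝[>] (0:ℝ), ∀ i, δ < r i := eventually_all.2 fun i => hle _ (hr0 i)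
  have E7 := hle δ₀ hδ₀
  have E8 : ∀ᶠ δ in 𝓝[>] (0:ℝ), (0:ℝ) < δ := self_mem_nhdsWithin
  obtain ⟨δ, ⟨h, hcol, F1⟩, F2, F3, F4, F5, F6, F7, F8⟩ :=
    (E1.and (E2.and (E3.and (E4.and (E5.and (E6.and (E7.and E8))))))).exists
  refine ⟨δ, F7, h, ?_⟩
  -- the collar error
  set W : ℝ≥0∞ := (∑ i, ENNReal.ofReal ((528 * (X.m (t1 i).k : ℝ)^4)^p) *
    (ENNReal.ofReal (CT p (X.m (t1 i).k)) * (Ws X δ (t1 i).k * s6 p))) + s6 p with hW
  have hWt : W ≠ ∞ := by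
    refine ENNReal.add_ne_top.2 ⟨(ENNReal.sum_lt_top.2 fun i _ => ?_).ne, hst⟩
    exact (ENNReal.mul_ne_top ENNReal.ofReal_ne_top (ENNReal.mul_ne_top ENNReal.ofReal_ne_top
      (ENNReal.mul_ne_top (Ws_ne_top X δ _) hst))).lt_top
  obtain ⟨β', hβ', hβ2⟩ := exists_small hWt hε2
  obtain ⟨e₁, he₁, he₁2⟩ : ∃ e₁ : ℝ, 0 < e₁ ∧ ENNReal.ofReal e₁ ≤ β' := by
    by_cases htop : β' = ∞
    · exact ⟨1, one_pos, by rw [htop]; exact le_top⟩
    · exact ⟨β'.toReal, ENNReal.toReal_pos hβ' htop, (ENNReal.ofReal_toReal htop).le⟩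
  obtain ⟨θ, hθ, F1⟩ := F1 e₁ he₁
  obtain ⟨R, C, hR1, hR2, hR3, hR4, hR5⟩ := hR θ hθ
  obtain ⟨G1, hG1, hcol1, N₁, F1⟩ := F1 R hR1 hR2 C hR3 hR4
  obtain ⟨N₂, F1⟩ := F1 (N₁ + 1) (Nat.le_succ _)
  obtain ⟨G₂, hG₂, hch, hcell⟩ := F1 (N₂ + 1) (Nat.le_succ _)
  set χ := Sys.chi h (N₁+1) (N₂+1) with hχ
  have hΨ : ∀ z, w2 (χ z) ∈ Om ↔ w2 z ∈ Om := fun z =>
    Sys.chi_Om h (N₁+1) (N₂+1) (O := w2 ⁻¹' Om) hC hF z
  have hΨ' : ∀ x, toR χ x ∈ Om ↔ x ∈ Om := fun x => by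
    have := hΨ (w2.symm x)
    rw [w2.apply_symm_apply] at this
    exact this
  obtain ⟨Gg, hGg, -⟩ := sobChain hp hOm hG0 (toR χ) (plOn_toR (Sys.plOn_chi h _ _))
    (plOn_toR_symm (Sys.plOn_chi_symm h _ _)) hΨ'
  have mP : ∀ k, MeasurableSet (X.C k).P := fun k => (X.C k).cht.clK.measurableSet
  refine ⟨N₁, N₂, R, Gg, G₂, hR5, hR1, hR2, hGg, hG₂, ?_, hcell, ?_, ?_⟩
  · -- outside
    intro S mS hSO hSP
    have hSP' : ∀ z ∈ w2 ⁻¹' S, z ∉ ⋃ k, (X.C k).P := fun z hz hzP =>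
      hSP _ hz (mem_image_of_mem _ hzP)
    have h1 : ∫⁻ x in S, En p G₂ x ≤ s6 p * ∫⁻ x in S, En p G1 x := by
      rw [lint_w2, lint_w2, ← lintegral_const_mul' _ _ hst]
      refine setLIntegral_mono_ae' (mS.preimage w2.continuous.measurable) ?_
      filter_upwards [hch] with z hz hzS
      have h2 := hz (hSO hzS) 1 le_rfl (llv_out hFK h _ _ (hSP' z hzS))
      rwa [Real.one_rpow, ENNReal.ofReal_one, one_mul, chi_out hFK h _ _ (hSP' z hzS)] at h2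
    have h3 := hcol1 S mS hSO (fun x hx => by
      left
      have h4 : IsClosed (w2 '' (⋃ k, (X.C k).P)) := w2.isClosed_image.2 isClosed_cells
      filter_upwards [h4.isOpen_compl.mem_nhds (hSP x hx)] with y hy
      exact hΦo y hy)
    calc _ ≤ s6 p * (c * (∫⁻ x in S, En p G x) + ENNReal.ofReal e₁) :=
          h1.trans (mul_le_mul' le_rfl h3)
      _ = (s6 p * c) * (∫⁻ x in S, En p G x) + s6 p * ENNReal.ofReal e₁ := by ring
      _ ≤ (s6 p * c) * (∫⁻ x in S, En p G x) + ε := by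
          refine add_le_add le_rfl ?_
          calc s6 p * ENNReal.ofReal e₁ ≤ W * β' := mul_le_mul' le_add_self he₁2
            _ ≤ ε / 2 := hβ2
            _ ≤ ε := ENNReal.half_le_self
      _ = _ := by rw [ENNReal.ofReal_mul (by positivity)]; rfl
  · -- energy tubes
    intro i
    set k := (t1 i).k with hk
    set E := (t1 i).E with hE
    set u := (t1 i).u with hu
    have a1 := tube_energy h N₁ N₂ (F4 i) (q := p) (v := fun x => s6 p * En p G1 (w2 x))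
      (aem_En hp0 hOm hG1 (mP _) (hC _) _) (w := fun x => En p G₂ (w2 x)) (by
        filter_upwards [hch] with z hz hzP c' hc' hcz
        refine (hz (hC _ hzP) c' hc' hcz).trans (le_of_eq ?_)
        rw [← hχ]
        ring)
    have a2 : tb X δ k E u (fun x => s6 p * En p G1 (w2 x)) ≤
        (s6 p * c) * tb X δ k E u (fun x => En p G (w2 x)) +
          Ws X δ k * (s6 p * ENNReal.ofReal e₁) := by
      rw [tb_eq, tb_eq]
      refine SBc_le isClosed_cthickening fun S mS hS => ?_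
      have hS2 := hS.trans (lay_sub (thk_lt (t1 i).tub F8) F8 k _)
      have hSO : ∀ z ∈ S, w2 z ∈ Om := fun z hz => hC k (hS2 hz).1
      rw [lintegral_const_mul' _ _ hst, int_w2, int_w2]
      have b1 := hcol1 (w2 '' S) (w2.measurableEmbedding.measurableSet_image.2 mS)
        (by rintro _ ⟨z, hz, rfl⟩; exact hSO z hz)
        (by rintro _ ⟨z, hz, rfl⟩; exact hcol k z (hS2 hz))
      refine (mul_le_mul' le_rfl b1).trans (le_of_eq ?_)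
      ring
    have a3 := F2 i
    have hm1 := Sys.m_one (X := X) k
    set A := ENNReal.ofReal ((528 * (X.m k : ℝ)^4)^p) with hA'
    set B := ENNReal.ofReal (CT p (X.m k)) with hB'
    have a4 : A * (B * (Ws X δ k * s6 p)) * ENNReal.ofReal e₁ ≤ ε / 2 := by
      refine le_trans (mul_le_mul' ?_ he₁2) hβ2
      refine le_trans ?_ le_self_add
      exact Finset.single_le_sum (f := fun i => ENNReal.ofReal ((528 * (X.m (t1 i).k : ℝ)^4)^p) *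
        (ENNReal.ofReal (CT p (X.m (t1 i).k)) * (Ws X δ (t1 i).k * s6 p)))
        (fun _ _ => zero_le) (Finset.mem_univ i)
    have a5 := hea i
    calc _ ≤ A * (B * ((s6 p * c) * (Jt (t1 i).D k E u + ea i) +
          Ws X δ k * (s6 p * ENNReal.ofReal e₁))) := by
          refine a1.trans (mul_le_mul' le_rfl (mul_le_mul' le_rfl (a2.trans ?_)))
          exact add_le_add (mul_le_mul' le_rfl a3) le_rfl
      _ = (s6 p * c * (A * B)) * Jt (t1 i).D k E u + ((A * (B * (s6 p * c))) * ea i +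
          A * (B * (Ws X δ k * s6 p)) * ENNReal.ofReal e₁) := by ring
      _ ≤ (s6 p * c * (A * B)) * Jt (t1 i).D k E u + (ε / 2 + ε / 2) :=
          add_le_add le_rfl (add_le_add a5 a4)
      _ = _ := by
          rw [ENNReal.add_halves, CE, ENNReal.ofReal_mul (by positivity),
            ENNReal.ofReal_mul (p := (6:ℝ)^p) (by positivity),
            ENNReal.ofReal_mul (p := (528 * (X.m k : ℝ)^4)^p) (by positivity)]
          rfl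
  · -- near tubes
    intro i
    set k := (t2 i).k with hk
    set u := (t2 i).u with hu
    obtain ⟨V, hV1, -, hV3⟩ := tube_near (t2 i).edge (t2 i).hm (t2 i).hmC
    have b1 := hV3 δ p h N₁ N₂ Om La (fun x => f (Φ x)) G0 Gg hOm hp hG0 hC hF hGg.wg (t2 i).L k u
      (F5 i) (t2 i).hu p hp
    refine b1.trans ?_
    have b2 : tb X δ k (sg (t2 i).a (t2 i).v) u (fun y => ‖Gmat G0 (w2 y) - (t2 i).L‖ₑ ^ p) ≤
        tb X δ k (sg (t2 i).a (t2 i).v) u (fun y => ‖Gmat G (w2 y) - (t2 i).L‖ₑ ^ p) := by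
      rw [tb_eq, tb_eq]
      refine SBc_congr_le isClosed_cthickening ?_
      filter_upwards [hid0] with x hx hxl
      have hxP : x ∈ (X.C k).P := hxl.1.1
      have hxt : x ∈ thickening (r i) (X.Z ∪ ⋃ j, (X.F j).rim) := by
        obtain ⟨-, hx2⟩ := lay_sub (thk_lt (t2 i).tub F8) F8 k _ hxl
        have hx3 : x ∈ nb δ (X.Z ∪ ⋃ j, (X.F j).rim) := by
          rcases hx2 with ⟨y, hy, hxy⟩ | hx3
          · exact ⟨y, Or.inl hy, hxy⟩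
          · obtain ⟨j, y, hy, hxy⟩ := mem_iUnion.1 hx3
            exact ⟨y, Or.inr (mem_iUnion.2 ⟨j, hy⟩), hxy⟩
        obtain ⟨y, hy, hxy⟩ := hx3
        exact mem_thickening_iff.2 ⟨y, hy, by rw [dist_eq_norm]; exact hxy.trans_lt (F6 i)⟩
      have hxi := hr i x hxl.1 hxt
      have hxG := hx (hC k hxP) hxi
      have e : Gmat G0 (w2 x) = Gmat G (w2 x) := by
        unfold Gmat
        simp only [hxG]
      rw [e]
    have b3 := b2.trans (F3 i)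
    set A := ENNReal.ofReal ((2 * (2113 * (X.m k : ℝ)^4 * ‖w2 (t2 i).v‖))^p) with hA'
    set B := ENNReal.ofReal (CT p (X.m k)) with hB'
    set J := Jt (t2 i).D k (sg (t2 i).a (t2 i).v) u with hJ
    set Q := ENNReal.ofReal ((2 * ((1 + (t2 i).b0 * (1 + 4 * ((t2 i).m * (t2 i).m)) *
              ‖(t2 i).v‖) * u))^3) with hQ
    have b4 : (V.card : ℝ≥0∞) ≤ (nW X (t2 i).a (t2 i).v (t2 i).n : ℝ≥0∞) := by
      exact_mod_cast hV1
    calc _ ≤ A * (B * (J + eb i) + ‖(t2 i).L‖ₑ ^ p * (nW X (t2 i).a (t2 i).v (t2 i).n * Q)) := by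
          refine mul_le_mul' le_rfl (add_le_add (mul_le_mul' le_rfl b3) ?_)
          exact mul_le_mul' le_rfl (mul_le_mul' b4 le_rfl)
      _ = A * (B * J + ‖(t2 i).L‖ₑ ^ p * (nW X (t2 i).a (t2 i).v (t2 i).n * Q)) +
          (A * B) * eb i := by ring
      _ ≤ _ := add_le_add le_rfl (heb i)

end Crest.Agent.R096.Cob_622
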