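/-
helper296, row 96, COMPOSITE B (622, leaf [C1] `cob_sys`), part 3: the choice of the data of the system
(sizes of the faces, constants of the tiles) and the hypotheses of `cob_main` on the level of the tiling.
-/
import Crest.Agent.R096.Cbs2_296
import Crest.Agent.R096.Cob8_622
import Crest.Agent.R096.Sk2a_855

set_option autoImplicit false
set_option linter.unusedSectionVars false
set_option linter.style.longLine false

open Set Metric Filter Topology MeasureTheory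
open scoped ENNReal NNReal

namespace Crest.Agent.R096.Cbs_296

open Crest.AnalysisR.VecCalc3
open Crest.Agent.R096.Msh_715 (P I Tiling I_sub_P isOpen_I isClosed_P)
open Crest.Agent.R096.Sq_55 (E3 Sys Face Cell FaceOf w2 IsDp GG Shp2 GG_mono)
open Crest.Agent.R096.Sqt_143 (sg Edge OnC OnF cu CT)
open Crest.Agent.R096.Cob_622
open Crest.Agent.R096.Str_968 (EFN)
open Crest.Agent.R096.Efi_296
open Crest.Agent.R96.Coarse_538 (seg)
open Crest.Agent.R096.Fce_793 (pt cc continuous_pt)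
open Crest.Agent.R096.Slb_296
open Crest.Agent.R96.En10_199 (P3)
open Crest.Agent.R96.Lu_538 (Gmat)
open Crest.Agent.R096.Sk2_855 (Mv sk1)

noncomputable section

theorem le_GG (v : ℝ≥0) : v ≤ GG v := by
  have h1 : v ≤ 1 + v ^ 2 := by
    rw [← NNReal.coe_le_coe]
    push_cast
    nlinarith [sq_nonneg ((v:ℝ) - 1), v.coe_nonneg]
  refine h1.trans ?_
  unfold GG
  rw [add_assoc]
  exact le_self_add

section data

variable {Om : Set E3} {ι : Type*}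

open Classical in
/-- the tiles of `s` which share a squeezed 2-cell with `k` -/
def sqn (T : Tiling Om ι) (s : Finset ι) (pr : T.Cell → Prop) (k : ι) : Finset ι :=
  s.filter fun l => ∃ x ∈ reps T s pr, k ∈ T.at_ x ∧ l ∈ T.at_ x

/-- the largest shape number of the tile `k` and of the tiles which share a squeezed 2-cell with it -/
def mN (T : Tiling Om ι) (s : Finset ι) (pr : T.Cell → Prop) (u : ι → ℝ≥0) (k : ι) : ℝ≥0 :=
  max (u k) ((sqn T s pr k).sup u)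

open Classical in
/-- the size of a squeezed 2-cell = the size of one of its tiles -/
def ρS (T : Tiling Om ι) (R : ι → ℝ≥0) (x : E3) : ℝ≥0 :=
  if h : (T.at_ x).Nonempty then R h.some else 1

variable {T : Tiling Om ι} {s : Finset ι} {pr : T.Cell → Prop} {u R : ι → ℝ≥0}

theorem mem_sqn {k l : ι} : l ∈ sqn T s pr k ↔
    l ∈ s ∧ ∃ x ∈ reps T s pr, k ∈ T.at_ x ∧ l ∈ T.at_ x := by
  classical
  unfold sqn
  rw [Finset.mem_filter]

theorem le_mN (k : ι) : u k ≤ mN T s pr u k := le_max_left _ _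

theorem mN_le {k : ι} {w : ℝ≥0} (hk : u k ≤ w)
    (h : ∀ l ∈ s, (∃ x ∈ reps T s pr, k ∈ T.at_ x ∧ l ∈ T.at_ x) → u l ≤ w) :
    mN T s pr u k ≤ w :=
  max_le hk (Finset.sup_le fun l hl => h l (mem_sqn.1 hl).1 (mem_sqn.1 hl).2)

theorem le_mN' {x : E3} (hx : x ∈ reps T s pr) {k l : ι} (hk : k ∈ T.at_ x) (hl : l ∈ T.at_ x)
    (hls : l ∈ s) : u l ≤ mN T s pr u k :=
  le_max_of_le_right (Finset.le_sup (f := u) (mem_sqn.2 ⟨hls, x, hx, hk, hl⟩))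

theorem ρS_eq {x : E3} (hx : x ∈ Om) : ∃ l ∈ T.at_ x, ρS T R x = R l := by
  have h : (T.at_ x).Nonempty := T.at_nonempty hx
  refine ⟨h.some, h.some_mem, ?_⟩
  unfold ρS
  rw [dif_pos h]

/-- **the system of the tiles `s`** -/
theorem exists_sys_s (T : Tiling Om ι) (s : Finset ι) (pr : T.Cell → Prop)
    (B : ι → E3 ≃ᵃ[ℝ] E3) (R u : ι → ℝ≥0) (hS : ∀ i ∈ s, Shp2 T i (B i) (R i) (u i))
    (hpr : ∀ c ∈ F2S T s, pr c → ∀ k ∈ T.at_ c.pt, k ∈ s)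
    (hR : ∀ x ∈ reps T s pr, ∀ k ∈ T.at_ x, ∀ l ∈ T.at_ x, R k ≤ u k * R l ∧ R l ≤ u k * R k) :
    ∃ c : ι → E3, ∃ X : Sys s (reps T s pr),
      SysOf T s pr c R (ρS T R) (fun k => GG (mN T s pr u k)) X ∧
      ∀ (i : ι) (x a v : E3) (w : ℝ≥0), i ∈ s → x ∈ P (T.H i) → T.dim x = 1 →
        T.cc x = segment ℝ a (a + v) → 1 ≤ w →
        (∀ k ∈ s, (P (T.H k) ∩ P (T.H i)).Nonempty → u k ≤ w ∧ R k ≤ w * R i ∧ R i ≤ w * R k) →
        Edge X a v (R i / (8 * w^9)) (8 * w^9 / R i) ⌊w⌋₊ := by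
  have hat : ∀ x ∈ reps T s pr, ∀ k ∈ T.at_ x, k ∈ s := by
    intro x hx k hk
    obtain ⟨c, hc, hp, rfl⟩ := mem_reps.1 hx
    exact hpr c hc hp k hk
  obtain ⟨c, X, h1, h2⟩ := exists_sysOf T (s : Set ι) B R u (fun i hi => hS i hi) s
    (fun k hk => hk) pr (fun c hc hp k hk => hpr c hc hp k hk) (ρS T R)
    (fun x hx k hk => by
      obtain ⟨l, hl, e⟩ := ρS_eq (T := T) (R := R) (reps_dim hx).1
      rw [e]
      exact hR x hx k hk l hl) (mN T s pr u) (fun k _ => le_mN k)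
    (fun x hx k hk _ l hl => le_mN' hx hk hl (hat x hx l hl))
  exact ⟨c, X, h1, h2⟩

/-- the constant of the tile `k` -/
def mS (T : Tiling Om ι) (s : Finset ι) (pr : T.Cell → Prop) (u : ι → ℝ≥0) (k : ι) : ℝ≥0 :=
  GG (mN T s pr u k)

theorem mS_le {k : ι} {w : ℝ≥0} (hk : u k ≤ w)
    (h : ∀ l ∈ s, (∃ x ∈ reps T s pr, k ∈ T.at_ x ∧ l ∈ T.at_ x) → u l ≤ w) :
    mS T s pr u k ≤ GG w := GG_mono (mN_le hk h)

theorem le_mS (k : ι) : u k ≤ mS T s pr u k := (le_mN k).trans (le_GG _)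

theorem one_le_mS (k : ι) : 1 ≤ mS T s pr u k := Sq_55.one_le_GG _

theorem hρ_of (hR : ∀ x ∈ reps T s pr, ∀ k ∈ T.at_ x, ∀ l ∈ T.at_ x,
    R k ≤ u k * R l ∧ R l ≤ u k * R k) {x : E3} (hx : x ∈ reps T s pr) {k : ι}
    (hk : k ∈ T.at_ x) : R k ≤ mS T s pr u k * ρS T R x ∧ ρS T R x ≤ mS T s pr u k * R k := by
  obtain ⟨l, hl, e⟩ := ρS_eq (T := T) (R := R) (reps_dim hx).1
  rw [e]
  obtain ⟨h1, h2⟩ := hR x hx k hk l hl
  exact ⟨h1.trans (mul_le_mul_left (le_mS k) _), h2.trans (mul_le_mul_left (le_mS k) _)⟩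

end data

section good

variable {Om : Set R3} {ι : Type*} {T : Tiling Om ι} {s : Finset ι} {pr : (Te T).Cell → Prop}
  {c : ι → E3} {R : ι → ℝ≥0} {ρ : E3 → ℝ≥0} {m : ι → ℝ≥0} {X : Sys s (reps (Te T) s pr)}

theorem dim_Te (y : E3) : (Te T).dim y = T.dim (w2 y) :=
  Ttr_622.dim_tr (P3.symm : R3 ≃L[ℝ] E3) T y

theorem mem_P_Te {y : E3} {k : ι} : y ∈ P ((Te T).H k) ↔ w2 y ∈ P (T.H k) :=
  Ttr_622.mem_P_tr (P3.symm : R3 ≃L[ℝ] E3) T

theorem at_Te (y : E3) : (Te T).at_ y = T.at_ (w2 y) :=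
  Ttr_622.at_tr (P3.symm : R3 ≃L[ℝ] E3) T y

theorem cc_Te (y : R3) : (Te T).cc (w2.symm y) = w2.symm '' T.cc y :=
  Ttr_622.cc_tr (P3.symm : R3 ≃L[ℝ] E3) T y

theorem image_P_Te (k : ι) : w2 '' P ((Te T).H k) = P (T.H k) := by
  ext y
  constructor
  · rintro ⟨x, hx, rfl⟩; exact mem_P_Te.1 hx
  · intro hy
    refine ⟨w2.symm y, mem_P_Te.2 ?_, w2.apply_symm_apply y⟩
    rwa [w2.apply_symm_apply]

/-- a 2SK homeomorphism is the identity near the 1-skeleton -/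
theorem mv_id {Φ : R3 ≃ₜ R3} (h : Mv T Φ) {z : R3} (hz : z ∈ Om) (hd : T.dim z ≤ 1) :
    ∀ᶠ y in 𝓝 z, Φ y = y := by
  obtain ⟨K, hK, -, hdis, hid⟩ := h.supp
  have h1 : z ∉ K := fun hzK => Set.disjoint_left.1 hdis hzK ⟨hz, hd⟩
  filter_upwards [hK.isClosed.isOpen_compl.mem_nhds h1] with y hy
  exact hid y hy

/-- hypothesis `hgood` of `cob_main` -/
theorem SysOf.good (h : SysOf (Te T) s pr c R ρ m X) {Φ : R3 ≃ₜ R3} (hΦ : Mv T Φ) {f : R3 → R3}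
    {U : Set R3} (hg : ∀ c ∈ FcS (Te T) s pr, ∀ z ∈ c.set, Good Φ f U (w2 z)) :
    ∀ z ∈ X.Z ∪ ⋃ j, (X.F j).rim, Good Φ f U (w2 z) := by
  intro z hz
  have h1 : ∀ z : E3, z ∈ (P3.symm : R3 ≃L[ℝ] E3).symm ⁻¹' Om → (Te T).dim z ≤ 1 →
      Good Φ f U (w2 z) := fun z hz hd =>
    .inl (mv_id hΦ (show w2 z ∈ Om from hz) (by rw [← dim_Te]; exact hd))
  rcases hz with hz | hz
  · rw [h.Z] at hz
    rcases hz with hz | hz
    · obtain ⟨d, hd, hzd⟩ := mem_iUnion₂.1 hz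
      exact h1 z (mem_Om_of_set hzd) ((dim_le_of_set hzd).trans hd.1.le)
    · obtain ⟨d, hd, hzd⟩ := mem_iUnion₂.1 hz
      exact hg d hd z hzd
  · obtain ⟨x, hx⟩ := mem_iUnion.1 hz
    rw [h.rim x] at hx
    have h2 := reps_dim x.2
    have h3 := (Te T).dim_lt hx.1 hx.2
    exact h1 z ((Te T).cc_sub_Om h2.1 hx.1) (by omega)

/-- hypothesis `hid` of `mkTubN`: if no unsqueezed 2-cell on which `Φ` moves meets the zone -/
theorem SysOf.hid (h : SysOf (Te T) s pr c R ρ m X) {Φ : R3 ≃ₜ R3} (hΦ : Mv T Φ) {N : Set E3}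
    (hg : ∀ c ∈ FcS (Te T) s pr, ∀ z ∈ c.set, z ∈ N → ∀ᶠ y in 𝓝 (w2 z), Φ y = y) :
    ∀ z ∈ X.Z ∪ ⋃ j, (X.F j).rim, z ∈ N → ∀ᶠ y in 𝓝 (w2 z), Φ y = y := by
  intro z hz hzN
  have h1 : ∀ z : E3, z ∈ (P3.symm : R3 ≃L[ℝ] E3).symm ⁻¹' Om → (Te T).dim z ≤ 1 →
      ∀ᶠ y in 𝓝 (w2 z), Φ y = y := fun z hz hd =>
    mv_id hΦ (show w2 z ∈ Om from hz) (by rw [← dim_Te]; exact hd)
  rcases hz with hz | hz
  · rw [h.Z] at hz
    rcases hz with hz | hz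
    · obtain ⟨d, hd, hzd⟩ := mem_iUnion₂.1 hz
      exact h1 z (mem_Om_of_set hzd) ((dim_le_of_set hzd).trans hd.1.le)
    · obtain ⟨d, hd, hzd⟩ := mem_iUnion₂.1 hz
      exact hg d hd z hzd hzN
  · obtain ⟨x, hx⟩ := mem_iUnion.1 hz
    rw [h.rim x] at hx
    have h2 := reps_dim x.2
    have h3 := (Te T).dim_lt hx.1 hx.2
    exact h1 z ((Te T).cc_sub_Om h2.1 hx.1) (by omega)

end good

end

end Crest.Agent.R096.Cbs_296
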