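/-
helper296, row 96, COMPOSITE B (622, leaf [C1] `cob_sys`), part 4: the canonical `EF` data `efS`, counting
of the cells at a tile and at an edge.
-/
import Crest.Agent.R096.Cbs3_296
import Crest.Agent.R096.Ca7_855

set_option autoImplicit false
set_option linter.unusedSectionVars false
set_option linter.style.longLine false

open Set Metric Filter Topology MeasureTheory
open scoped ENNReal NNReal

namespace Crest.Agent.R096.Cbs_296

open Crest.AnalysisR.VecCalc3
open Crest.Agent.R096.Msh_715 (P I Tiling I_sub_P isOpen_I isClosed_P)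
open Crest.Agent.R096.Sq_55 (E3 Sys Face Cell FaceOf w2 IsDp GG Shp2 GG_mono)
open Crest.Agent.R096.Sqt_143 (sg Edge OnC OnF cu CT)
open Crest.Agent.R096.Cob_622
open Crest.Agent.R096.Str_968 (EFN)
open Crest.Agent.R096.Efi_296
open Crest.Agent.R96.Coarse_538 (seg)
open Crest.Agent.R096.Fce_793 (pt cc continuous_pt)
open Crest.Agent.R096.Slb_296
open Crest.Agent.R96.En10_199 (P3)
open Crest.Agent.R96.Lu_538 (Gmat)
open Crest.Agent.R096.Ca_855 (cc_eq_of_at_eq cell_inj)

noncomputable section

section ef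

variable {OmR : Set R3} {ι : Type*} {T : Tiling OmR ι} {Om : Set R3} {κe κf : Type*}
  {x v : κe → R3} {e : κf → Fin 2 → R3} {xx : κf → R3} {a : R3} {Q : κf → Set (ℝ × ℝ)}
  {s : Finset ι} {pr : (Te T).Cell → Prop} {g : R3 → ℝ≥0∞}

/-- **the data of the tiling at a good position** -/
def efS (hG : GoodA Om g x v e xx a) (hQ : ∀ φ, IsCompact (Q φ))
    {me : EgS (Te T) s → κe} {mf : FcS (Te T) s pr → κf}
    (hme : ∀ c, w2 '' c.1.set = seg x v a (me c))
    (hmf : ∀ c, w2 '' c.1.set = pt (e (mf c)) (a + xx (mf c)) '' Q (mf c))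
    (X : Sys s (reps (Te T) s pr))
    (hrim : ∀ y : reps (Te T) s pr, (X.F y).rim = (Te T).cc (y : E3) \ (Te T).oc (y : E3))
    (hZ : X.Z = Zs (Te T) s pr) : EF X Om g (EgS (Te T) s) (FcS (Te T) s pr) :=
  mkEF X hrim hZ Om g (fun c => eI Om g x v a univ (me c))
    (fun c => fI Om g e xx a Q univ (mf c))
    (fun c => ENNReal.mul_ne_top ENNReal.ofReal_ne_top (ne_top_of_le_ne_top
      (hG.finE (me c) (Icc 0 1) isCompact_Icc) (lintegral_mono_set inter_subset_left)))
    (by
      intro c
      rw [hme c, seg_eq_pl]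
      have h1 := lim_scale (f := fun δ => ∫⁻ y in Om ∩ thickening δ (pl (v (me c)) (a + x (me c)) ''
        Icc 0 1), g y) (c := 32 * ‖v (me c)‖) (by positivity)
        (pw := fun δ => δ ^ 2) (hG.tube (me c) _ isCompact_Icc)
      unfold eI
      rw [preimage_univ, inter_univ]
      exact h1)
    (by
      intro c
      rw [hmf c]
      have h1 := lim_scale (f := fun δ => ∫⁻ y in Om ∩ thickening δ (pt (e (mf c)) (a + xx (mf c)) ''
        Q (mf c)), g y) (c := 16 * cc (e (mf c)) ^ 2) (by positivity)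
        (pw := fun δ => δ) (hG.slab (mf c) _ (hQ (mf c)))
      unfold fI
      rw [preimage_univ, inter_univ]
      exact h1)

end ef

section count

variable {Om : Set E3} {ι : Type*} {T : Tiling Om ι} {s : Finset ι} {pr : T.Cell → Prop}

/-- the tiles which meet the tile `k` -/
def nbT (T : Tiling Om ι) (k : ι) : Set ι := {l | (P (T.H l) ∩ P (T.H k)).Nonempty}

theorem at_sub_nbT {k : ι} {y : E3} (hk : k ∈ T.at_ y) : T.at_ y ⊆ nbT T k :=
  fun _ hl => ⟨y, hl, hk⟩

theorem finite_nbT (T : Tiling Om ι) (k : ι) : (nbT T k).Finite :=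
  T.finite_tiles (T.cpt k) (T.sub k)

/-- **number of the squeezed faces at a tile** -/
theorem ncard_faces_le (T : Tiling Om ι) (s : Finset ι) (pr : T.Cell → Prop) (k : ι) :
    {y : reps T s pr | k ∈ T.at_ (y : E3)}.ncard ≤ (nbT T k).ncard := by
  classical
  have h3 : Module.finrank ℝ E3 = 3 := by simp
  have hex : ∀ y : reps T s pr, k ∈ T.at_ (y : E3) → ∃ l, l ≠ k ∧ T.at_ (y : E3) = {k, l} := by
    intro y hy
    have h0 := reps_dim y.2
    obtain ⟨i, j, hij, hat, -⟩ := T.two_tiles h0.1 (by rw [h0.2, h3])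
    rw [hat] at hy
    rcases hy with rfl | hy
    · exact ⟨j, hij.symm, hat⟩
    · rw [mem_singleton_iff] at hy
      subst hy
      exact ⟨i, hij, by rw [hat, pair_comm]⟩
  set F : reps T s pr → ι := fun y => if h : k ∈ T.at_ (y : E3) then (hex y h).choose else k with hF
  have hFs : ∀ y : reps T s pr, k ∈ T.at_ (y : E3) → T.at_ (y : E3) = {k, F y} := by
    intro y hy
    have := (hex y hy).choose_spec.2
    simp only [hF, dif_pos hy]
    exact this
  refine ncard_le_ncard_of_injOn F (fun y hy => ?_) ?_ (finite_nbT T k)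
  · have h1 : F y ∈ T.at_ (y : E3) := by
      rw [hFs y hy]; exact mem_insert_of_mem _ rfl
    exact at_sub_nbT hy h1
  · intro y hy z hz hyz
    by_contra hne
    have h1 : T.at_ (y : E3) = T.at_ (z : E3) := by rw [hFs y hy, hFs z hz, hyz]
    exact reps_ne y.2 z.2 (fun e => hne (Subtype.ext e))
      (cc_eq_of_at_eq (reps_dim y.2).1 (reps_dim z.2).1 h1)

/-- a family of cells near the tile `k` is at most as large as the family of the sets of neighbours -/
theorem card_cells_le {α : Type*} [Fintype α] (S : Finset α) (φ : α → T.Cell)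
    (hφ : Set.InjOn φ S) (k : ι) (hk : ∀ b ∈ S, T.at_ (φ b).pt ⊆ nbT T k) :
    S.card ≤ 2 ^ (nbT T k).ncard := by
  classical
  have hfin := finite_nbT T k
  set N : Finset ι := hfin.toFinset with hN
  have hNc : N.card = (nbT T k).ncard := by rw [hN, ncard_eq_toFinset_card _ hfin]
  rw [← hNc, ← Finset.card_powerset]
  have hatf : ∀ b, (T.at_ (φ b).pt).Finite := fun b => T.at_finite (φ b).pt_mem
  refine Finset.card_le_card_of_injOn (fun b => (hatf b).toFinset) (fun b hb => ?_) ?_
  · have hb' : b ∈ S := hb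
    rw [Finset.mem_coe, Finset.mem_powerset]
    intro l hl
    rw [Set.Finite.mem_toFinset] at hl
    rw [hN, Set.Finite.mem_toFinset]
    exact hk b hb' hl
  · intro b hb d hd hbd
    refine hφ hb hd (cell_inj ?_)
    simpa [Set.Finite.toFinset_inj] using hbd

open Classical in
/-- **number of the closed 1-cells in a tile** -/
theorem card_edges_le (T : Tiling Om ι) (s : Finset ι) (k : ι) :
    (Finset.univ.filter fun c : EgS T s => c.1.set ⊆ P (T.H k)).card ≤ 2 ^ (nbT T k).ncard := by
  refine card_cells_le _ (fun c : EgS T s => c.1) (fun b _ d _ h => Subtype.ext h) k fun b hb => ?_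
  rw [Finset.mem_filter] at hb
  exact at_sub_nbT (hb.2 (pt_mem_set b.1))

/-- **number of the exceptional points of an edge** -/
theorem nW_le {c : ι → E3} {R : ι → ℝ≥0} {ρ : E3 → ℝ≥0} {m : ι → ℝ≥0}
    {X : Sys s (reps T s pr)} (h : SysOf T s pr c R ρ m X) {E : T.Cell} {a v : E3}
    (hE : E.set = sg a v) (n : ℕ) {k : ι} (hk : k ∈ T.at_ E.pt) :
    nW X a v n ≤ ((nbT T k).ncard + 2 ^ (nbT T k).ncard) * n + 2 := by
  classical
  have hpt : E.pt ∈ sg a v := hE ▸ pt_mem_set E
  obtain ⟨t, ht, hte⟩ := hpt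
  have hte' : a + t • v = E.pt := hte
  unfold nW
  have h1 : {l : s | OnC (X.C l) a v}.ncard ≤ (nbT T k).ncard := by
    refine ncard_le_ncard_of_injOn (fun l : s => (l : ι)) (fun l hl => ?_)
      (fun b _ d _ e => Subtype.ext e) (finite_nbT T k)
    have h2 := (hl t ht).1
    rw [hte', h.eP] at h2
    exact at_sub_nbT hk h2
  have h2 : {j : reps T s pr | OnF (X.F j) a v}.ncard ≤ 2 ^ (nbT T k).ncard := by
    have h3 : {j : reps T s pr | OnF (X.F j) a v} ⊆
        ((Finset.univ.filter fun j : reps T s pr => E.pt ∈ T.cc (j : E3)) : Set _) := by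
      intro j hj
      rw [Finset.mem_coe, Finset.mem_filter]
      refine ⟨Finset.mem_univ _, ?_⟩
      have h4 : a + t • v ∈ (X.F j).rim := by
        obtain ⟨g1, g2, g3⟩ := hj t ht
        exact ⟨(X.F j).e (a + t • v), ⟨g2, g3⟩, (X.F j).cht.inv _ g1⟩
      rw [hte', h.rim] at h4
      exact h4.1
    refine (ncard_le_ncard h3 (Finset.finite_toSet _)).trans ?_
    rw [Set.ncard_coe_finset]
    refine card_cells_le _ (fun j => T.cl (reps_dim j.2).1) (fun b _ d _ e => ?_) k
      fun b hb => ?_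
    · by_contra hne
      have e1 : (T.cl (reps_dim b.2).1).set = (T.cl (reps_dim d.2).1).set := by
        have e2 : T.cl (reps_dim b.2).1 = T.cl (reps_dim d.2).1 := e
        rw [e2]
      rw [T.cl_set, T.cl_set] at e1
      exact reps_ne b.2 d.2 (fun e => hne (Subtype.ext e)) e1
    · rw [Finset.mem_filter] at hb
      have h5 : T.at_ (T.cl (reps_dim b.2).1).pt = T.at_ (b : E3) :=
        T.at_eq_of_mem_oc (reps_dim b.2).1 (T.pt_cl (reps_dim b.2).1)
      rw [h5]
      exact (T.at_sub_of_mem_cc hb.2).trans (at_sub_nbT hk)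
  gcongr

end count

end

end Crest.Agent.R096.Cbs_296
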