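/-
helper565, row 96, p ≤ 2, [1F] of 538 #11849: the 2-cells of the graded cubes (tiling `φ D` of 810) inside
a tile of scale `k` are squares of the grids of scale `k` or `k + 1`.
-/
import Mathlib
import Crest.Agent.R096.Eog1_922
import Crest.Agent.R096.Fce1_793
import Crest.Agent.R96.Rmo1_538

set_option autoImplicit false
set_option linter.unusedSectionVars false

open Set

namespace Crest.Agent.R096.Elf_565

open Crest.Agent.R096.Msh_715 Crest.Agent.R096.Msh_810
open Crest.Agent.R096.Eog_922 (mem_V_tiling)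

noncomputable section

variable {E : Type*} [NormedAddCommGroup E] [NormedSpace ℝ E] {n : ℕ}
  {φ : E ≃L[ℝ] (Fin n → ℝ)} {D : Dat n}

/-- the dimension of the cell at `x` is the number of the free coordinates -/
theorem dim_eq_card [FiniteDimensional ℝ E] {x : E} (hx : φ x ∈ D.Om) :
    (tiling φ D).dim x = (Cel.of (φ x) hx).1.J.card := by
  classical
  set T := tiling φ D with hT
  set J := (Cel.of (φ x) hx).1.J with hJ
  set W : Submodule ℝ (Fin n → ℝ) :=
    ⨅ i ∈ ((↑J : Set (Fin n))ᶜ), LinearMap.ker (LinearMap.proj i : (Fin n → ℝ) →ₗ[ℝ] ℝ) with hW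
  have h1 : T.V x = W.comap (φ : E →L[ℝ] (Fin n → ℝ)).toLinearMap := by
    ext v
    rw [hT, mem_V_tiling hx, Submodule.mem_comap, hW]
    simp only [Submodule.mem_iInf, LinearMap.mem_ker, LinearMap.proj_apply, mem_compl_iff,
      Finset.mem_coe]
    rfl
  have e1 : W ≃ₗ[ℝ] ((↑J : Set (Fin n)) → ℝ) :=
    LinearMap.iInfKerProjEquiv ℝ (fun _ : Fin n => ℝ) (I := (↑J : Set (Fin n)))
      (J := ((↑J : Set (Fin n))ᶜ)) disjoint_compl_right (by rw [union_compl_self])
  have h2 : Module.finrank ℝ W = J.card := by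
    rw [e1.finrank_eq, Module.finrank_fintype_fun_eq_card]
    simp
  unfold Tiling.dim
  rw [h1, ← h2]
  have e2 : (W.comap (φ : E →L[ℝ] (Fin n → ℝ)).toLinearMap) ≃ₗ[ℝ] W :=
    (φ.toLinearEquiv.submoduleMap _).trans (LinearEquiv.ofEq _ _ (by
      ext y
      constructor
      · rintro ⟨z, hz, rfl⟩
        exact hz
      · intro hy
        exact ⟨φ.symm y, by simpa using hy, φ.apply_symm_apply y⟩))
  exact e2.finrank_eq

/-- **the 2-cells of the graded cubes inside a tile** (`n = 3`): the position is `σ`, with free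
coordinates `{l}ᶜ`, scale `k` or `k + 1` -/
theorem face_tiling [FiniteDimensional ℝ E] {φ : E ≃L[ℝ] (Fin 3 → ℝ)} {D : Dat 3} (τ : Top D) {x : E}
    (hx : x ∈ P ((tiling φ D).H τ)) (hd : (tiling φ D).dim x = 2) :
    ∃ (κ : ℕ) (z : Fin 3 → ℤ) (l : Fin 3), (κ = τ.1.1.k ∨ κ = τ.1.1.k + 1) ∧
      (tiling φ D).cc x = φ ⁻¹' (Dc D.a ⟨κ, z, {l}ᶜ⟩) ∧
      (tiling φ D).cc x ⊆ P ((tiling φ D).H τ) := by
  classical
  set T := tiling φ D with hT
  have hxO : φ x ∈ D.Om := T.sub τ hx
  set σ := (Cel.of (φ x) hxO).1 with hσ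
  have hcard : σ.J.card = 2 := by rw [← hd]; exact (dim_eq_card hxO).symm
  have hc1 : (σ.J)ᶜ.card = 1 := by
    rw [Finset.card_compl, hcard, Fintype.card_fin]
  obtain ⟨l, hl⟩ := Finset.card_eq_one.1 hc1
  have hJ : σ.J = {l}ᶜ := by rw [← hl, compl_compl]
  have hxτ : φ x ∈ τ.1.c := mem_at.1 hx
  have hk1 : τ.1.1.k ≤ σ.k := τ.1.2.le_K hxτ
  have hk2 : σ.k ≤ τ.1.1.k + 1 := τ.1.2.K_le hxτ
  refine ⟨σ.k, σ.z, l, by omega, ?_, fun y hy => T.at_sub_of_mem_cc hy hx⟩
  rw [hT, cc_eq hxO]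
  show φ ⁻¹' (Dc D.a σ) = _
  congr 2
  ext1
  · rfl
  · rfl
  · exact hJ

open Crest.AnalysisR.VecCalc3 (R3)
open Crest.Agent.R096.Fce_793 (pt)
open Crest.Agent.R96.Coarse_538 (ed ihom)

/-- the frame of the face with normal direction `l` -/
def fr (l : Fin 3) : Fin 2 → R3 := ![ed (l + 1), ed (l + 2)]

theorem ed_apply (i j : Fin 3) : (ed i : R3) j = if j = i then 1 else 0 := by
  unfold ed
  rw [PiLp.single_apply]

theorem third (l j : Fin 3) (h : j ≠ l) : j = l + 1 ∨ j = l + 2 := by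
  revert l j; decide

theorem ne1 (l : Fin 3) : l ≠ l + 1 := by revert l; decide
theorem ne2 (l : Fin 3) : l ≠ l + 2 := by revert l; decide
theorem ne12 (l : Fin 3) : l + 1 ≠ l + 2 := by revert l; decide

/-- the coordinates of the points of the square -/
theorem pt_apply (l : Fin 3) (c : R3) (u : ℝ × ℝ) (j : Fin 3) :
    pt (fr l) c u j = c j + (if j = l + 1 then u.1 else 0) + (if j = l + 2 then u.2 else 0) := by
  unfold pt fr
  simp only [Matrix.cons_val_zero, Matrix.cons_val_one, PiLp.add_apply, PiLp.smul_apply, smul_eq_mul,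
    ed_apply, mul_ite, mul_one, mul_zero]
  ring

/-- **a closed dyadic cell with free coordinates `{l}ᶜ` is a square** -/
theorem Dc_face {φ : R3 ≃L[ℝ] (Fin 3 → ℝ)} (hφ : ∀ x l, φ x l = x l) (a : R3) (k : ℕ)
    (z : Fin 3 → ℤ) (l : Fin 3) :
    φ ⁻¹' (Dc (φ a) ⟨k, z, {l}ᶜ⟩) =
      pt (fr l) (a + ihom (1 / 2 ^ k) z) '' (Icc 0 (1 / 2 ^ k) ×ˢ Icc 0 (1 / 2 ^ k)) := by
  have hp : (0 : ℝ) < 2 ^ k := by positivity
  set h : ℝ := 1 / 2 ^ k with hh
  have hh0 : 0 < h := by positivity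
  have hhp : h * 2 ^ k = 1 := by rw [hh]; field_simp
  have hih : ∀ j, (ihom h z : R3) j = h * z j := fun j => Crest.Agent.R96.Coarse_538.ihom_apply _ _ _
  ext y
  rw [mem_preimage]
  have hps : ∀ j, ps (φ a) k (φ y) j = 2 ^ k * (y j - a j) := by
    intro j; unfold ps; rw [hφ, hφ]
  constructor
  · intro hy
    have h1 : ∀ j, j ≠ l → (z j : ℝ) ≤ 2 ^ k * (y j - a j) ∧ 2 ^ k * (y j - a j) ≤ z j + 1 := by
      intro j hj
      have := (hy j).1 (by simpa using hj)
      rwa [hps] at this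
    have h2 : 2 ^ k * (y l - a l) = z l := by
      have := (hy l).2 (by simp)
      rwa [hps] at this
    have h3 : ∀ j, j ≠ l → y j - a j - h * z j ∈ Icc 0 h := by
      intro j hj
      obtain ⟨h4, h5⟩ := h1 j hj
      have e : y j - a j = h * (2 ^ k * (y j - a j)) := by
        rw [← mul_assoc, hhp, one_mul]
      constructor
      · rw [e]; nlinarith
      · rw [e]; nlinarith
    refine ⟨(y (l + 1) - a (l + 1) - h * z (l + 1), y (l + 2) - a (l + 2) - h * z (l + 2)),
      ⟨h3 _ (ne1 l).symm, h3 _ (ne2 l).symm⟩, ?_⟩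
    ext j
    rw [pt_apply, PiLp.add_apply, hih]
    by_cases hj : j = l
    · subst hj
      rw [if_neg (ne1 j), if_neg (ne2 j)]
      have e : y j - a j = h * (2 ^ k * (y j - a j)) := by
        rw [← mul_assoc, hhp, one_mul]
      rw [h2] at e
      linarith
    · rcases third l j hj with rfl | rfl
      · rw [if_pos rfl, if_neg (ne12 l)]; ring
      · rw [if_neg (ne12 l).symm, if_pos rfl]; ring
  · rintro ⟨u, ⟨hu1, hu2⟩, rfl⟩ j
    rw [hps, pt_apply, PiLp.add_apply, hih]
    simp only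
    have hz : ∀ t : ℝ, 2 ^ k * (a j + h * z j + t - a j) = z j + 2 ^ k * t := by
      intro t
      have : (2:ℝ) ^ k * (h * z j) = z j := by rw [← mul_assoc, mul_comm _ h, hhp, one_mul]
      linear_combination this
    have hb : ∀ t ∈ Icc (0:ℝ) h, 0 ≤ 2 ^ k * t ∧ 2 ^ k * t ≤ 1 := by
      intro t ht
      exact ⟨mul_nonneg hp.le ht.1, by
        calc 2 ^ k * t ≤ 2 ^ k * h := by gcongr; exact ht.2
          _ = 1 := by rw [mul_comm, hhp]⟩
    refine ⟨fun hj => ?_, fun hj => ?_⟩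
    · have hj' : j ≠ l := by simpa using hj
      rcases third l j hj' with rfl | rfl
      · rw [if_pos rfl, if_neg (ne12 l), add_zero, hz]
        have := hb u.1 hu1
        constructor <;> linarith
      · rw [if_neg (ne12 l).symm, if_pos rfl, add_zero, hz]
        have := hb u.2 hu2
        constructor <;> linarith
    · have hj' : j = l := by simpa using hj
      subst hj'
      rw [if_neg (ne1 j), if_neg (ne2 j), add_zero, hz 0]
      ring

end

end Crest.Agent.R096.Elf_565
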