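/-
helper565, row 96, p ≤ 2, [1F] of 538 #11849: class (1) = outer tiles of `meshS` away from the walls, FACES:
the hypotheses `hF`, `hm'` of `sum_J_cls` with the graded family of squares.
-/
import Mathlib
import Crest.Agent.R096.Elf1_565
import Crest.Agent.R96.Els4_538

set_option autoImplicit false
set_option linter.unusedSectionVars false
set_option maxHeartbeats 400000

open MeasureTheory Set Metric
open scoped ENNReal NNReal

namespace Crest.Agent.R096.Elf_565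

open Crest.AnalysisR.VecCalc3 (R3)
open Crest.Agent.R096.Msh_715 Crest.Agent.R096.Msh_715.Tiling Crest.Agent.R096.Mal_874
open Crest.Agent.R096.Msb_432 Crest.Agent.R096.Msh_810 Crest.Agent.R096.Cut_874
open Crest.Agent.R096.Fce_793 (pt)
open Crest.Agent.R096.Eog_922 (dim_eq_of_cc_eq)
open Crest.Agent.R96.Coarse_538 (ed ihom)
open Crest.Agent.R96.Wm_72 (Zr)
open Crest.Agent.R96.Rmo_538 (Zg mem_Zg hs hs_pos)
open Crest.Agent.R096.Sq_55 (E3 w2)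
open Crest.Agent.R096.Efi_296
open Crest.Agent.R96.Els_538

noncomputable section

variable {J : Type*} {M : MD R3 3 J} {k : J → ℕ} {hk : M.Sc k} {a : R3} {v : J → R3}
  {hv : M.Adm v}

/-- the scales of two tiles with a common point -/
theorem scale_near {D : Dat 3} (hC : 2 ≤ D.C) {y : Fin 3 → ℝ} {s s' : ℕ} (h : y ∈ Zr D s)
    (h' : y ∈ Zr D s') : s' ≤ s + 1 := by
  by_contra hcon
  push Not at hcon
  have h1 : (2 : ℝ) ^ (s + 2) ≤ 2 ^ s' := pow_le_pow_right₀ one_le_two (by omega)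
  have h2 : (2 : ℝ) ^ (s + 2) * D.ρ y ≤ 2 ^ s' * D.ρ y :=
    mul_le_mul_of_nonneg_right h1 (D.nonneg y)
  have h3 : (2 : ℝ) ^ (s + 2) * D.ρ y = 4 * (2 ^ s * D.ρ y) := by rw [pow_add]; ring
  have h4 := h.1
  have h5 := h'.2
  linarith

/-- **the 2-cells at the points of a regular outer cube** -/
theorem Rgo_face {p : M.OIx hk (M.φ a) hv} (hp : Rgo M hk (M.φ a) hv p) {x : R3}
    (hx : x ∈ P ((meshS M hk (M.φ a) hv).H (oS M hk (M.φ a) hv p)))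
    (hd : (meshS M hk (M.φ a) hv).dim x = 2) :
    ∃ (κ : ℕ) (z : Fin 3 → ℤ) (l : Fin 3), (κ = p.1.par.1.1.k ∨ κ = p.1.par.1.1.k + 1) ∧
      (meshS M hk (M.φ a) hv).cc x = M.φ ⁻¹' (Dc (M.φ a) ⟨κ, z, {l}ᶜ⟩) ∧
      (meshS M hk (M.φ a) hv).cc x ⊆ P ((meshS M hk (M.φ a) hv).H (oS M hk (M.φ a) hv p)) := by
  obtain ⟨y, hy, hxy⟩ := hp.cc hx
  have hxO : x ∈ M.φ ⁻¹' M.D0.Om := (meshS M hk (M.φ a) hv).sub _ hx
  have hyO : y ∈ M.φ ⁻¹' (M.ad hk (M.φ a) hv).D.Om := (M.ad hk (M.φ a) hv).T0.sub _ hy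
  have h2 : (M.ad hk (M.φ a) hv).T0.dim y = 2 :=
    (dim_eq_of_cc_eq (meshS M hk (M.φ a) hv) (M.ad hk (M.φ a) hv).T0 hxO hyO hxy).symm.trans hd
  obtain ⟨κ, z, l, hκ, h3, h4⟩ := face_tiling (φ := M.φ) (D := (M.ad hk (M.φ a) hv).D) p.1.par hy h2
  refine ⟨κ, z, l, hκ, hxy.trans h3, ?_⟩
  rw [P_oS, hp.hP, hxy]
  exact h4

theorem Rgo_face_pt (hS : Std M) {K0 : ℕ} (hK0 : ∀ y, M.D0.ρ y ≤ M.D0.C / 2 ^ K0)
    {p : M.OIx hk (M.φ a) hv} (hp : Rgo M hk (M.φ a) hv p) {x : R3}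
    (hx : x ∈ P ((meshS M hk (M.φ a) hv).H (oS M hk (M.φ a) hv p)))
    (hd : (meshS M hk (M.φ a) hv).dim x = 2) :
    ∃ q : ℕ × (Fin 3 → ℤ) × Fin 3, (K0 + q.1 = p.1.par.1.1.k ∨ K0 + q.1 = p.1.par.1.1.k + 1) ∧
      (meshS M hk (M.φ a) hv).cc x = pt (fr q.2.2) (a + ihom (hs K0 q.1) q.2.1) ''
        (Icc 0 (hs K0 q.1) ×ˢ Icc 0 (hs K0 q.1)) ∧
      (meshS M hk (M.φ a) hv).cc x ⊆ P ((meshS M hk (M.φ a) hv).H (oS M hk (M.φ a) hv p)) := by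
  have hkk : K0 ≤ p.1.par.1.1.k := scale_ge hK0 (hp.sub_Zr hx)
  obtain ⟨κ, z, l, hκ, h3, h4⟩ := Rgo_face hp hx hd
  have hκK : K0 ≤ κ := by omega
  have e1 : K0 + (κ - K0) = κ := by omega
  refine ⟨(κ - K0, z, l), by simp only; omega, ?_, h4⟩
  simp only
  rw [h3, hs_eq hκK, Dc_face hS]

theorem hs_eq' (K0 j : ℕ) : hs K0 j = 1 / 2 ^ (K0 + j) := by
  have := hs_eq (K0 := K0) (κ := K0 + j) (by omega)
  rwa [Nat.add_sub_cancel_left] at this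

theorem fr_norm (l : Fin 3) (i : Fin 2) : ‖fr l i‖ = 1 := by
  unfold fr
  fin_cases i <;> simp [ed]

theorem fr_inner (l : Fin 3) : inner ℝ (fr l 0) (fr l 1) = 0 := by
  unfold fr
  simp only [Matrix.cons_val_zero, Matrix.cons_val_one, PiLp.inner_apply, Fin.sum_univ_three,
    ed_apply]
  revert l
  intro l
  fin_cases l <;> simp

theorem fr_li (l : Fin 3) : LinearIndependent ℝ (fr l) := by
  have h : Orthonormal ℝ (fr l) := by
    refine ⟨fr_norm l, fun i j hij => ?_⟩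
    fin_cases i <;> fin_cases j
    · exact absurd rfl hij
    · exact fr_inner l
    · rw [real_inner_comm]; exact fr_inner l
    · exact absurd rfl hij
  exact h.linearIndependent

section cls

variable {s : Finset (SIx M hk (M.φ a) hv)} {pr : (Te (meshS M hk (M.φ a) hv)).Cell → Prop}

/-- a face which touches a tile, in `R3` -/
theorem FcT_pt {t : SIx M hk (M.φ a) hv} {b : FcS (Te (meshS M hk (M.φ a) hv)) s pr}
    (h : FcT (Te (meshS M hk (M.φ a) hv)) s pr t b) :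
    ∃ y ∈ w2 '' b.1.set, y ∈ P ((meshS M hk (M.φ a) hv).H t) := by
  obtain ⟨y, hy, hyt⟩ := h
  exact ⟨w2 y, mem_image_of_mem _ hy, (Crest.Agent.R096.Ttr_622.mem_P_tr _ _).1 hyt⟩

/-- **the data of a face which touches a far tile** -/
theorem face_data (hS : Std M) {K0 : ℕ} (hK0 : ∀ y, M.D0.ρ y ≤ M.D0.C / 2 ^ K0)
    {t : SIx M hk (M.φ a) hv} (ht : Far M hk (M.φ a) hv t)
    {b : FcS (Te (meshS M hk (M.φ a) hv)) s pr}
    (h : FcT (Te (meshS M hk (M.φ a) hv)) s pr t b) :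
    ∃ (p : M.OIx hk (M.φ a) hv) (q : ℕ × (Fin 3 → ℤ) × Fin 3),
      Rgo M hk (M.φ a) hv p ∧ (K0 + q.1 = p.1.par.1.1.k ∨ K0 + q.1 = p.1.par.1.1.k + 1) ∧
      w2 '' b.1.set = pt (fr q.2.2) (a + ihom (hs K0 q.1) q.2.1) ''
        (Icc 0 (hs K0 q.1) ×ˢ Icc 0 (hs K0 q.1)) ∧
      w2 '' b.1.set ⊆ P ((meshS M hk (M.φ a) hv).H (oS M hk (M.φ a) hv p)) ∧
      (P ((meshS M hk (M.φ a) hv).H t) ∩
        P ((meshS M hk (M.φ a) hv).H (oS M hk (M.φ a) hv p))).Nonempty := by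
  obtain ⟨⟨hb2, k1, hk1, hbk⟩, -⟩ := b.2
  obtain ⟨h1, h2, h3⟩ := image_set (meshS M hk (M.φ a) hv) b.1
  obtain ⟨y, hy, hyt⟩ := FcT_pt h
  have hsub : w2 '' b.1.set ⊆ P ((meshS M hk (M.φ a) hv).H k1) := by
    rw [h1]; exact image_sub (meshS M hk (M.φ a) hv) hbk
  obtain ⟨p, hp, hpR⟩ := touch_far ht hyt (hsub hy)
  have hxT : Crest.Agent.R96.En10_199.P3 b.1.pt ∈ P ((meshS M hk (M.φ a) hv).H k1) :=
    hsub (mem_image_of_mem _ (Crest.Agent.R96.Els_538.pt_mem_set b.1))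
  rw [hp] at hxT hsub
  obtain ⟨q, hq1, hq2, hq3⟩ := Rgo_face_pt hS hK0 hpR hxT (by rw [h3]; exact hb2)
  exact ⟨p, q, hpR, hq1, h1.trans hq2, hsub, y, hyt, hsub hy⟩

/-- **hypothesis `hF` of `sum_J_cls` for class (1)** -/
theorem outer_hF (hS : Std M) {K0 : ℕ} (hK0 : ∀ y, M.D0.ρ y ≤ M.D0.C / 2 ^ K0) (hC : 2 ≤ M.D0.C)
    {K : Finset s} (hK : ∀ t ∈ K, Far M hk (M.φ a) hv t) {S : Set R3}
    (hKS : ∀ t ∈ K, ∀ t' : SIx M hk (M.φ a) hv, (P ((meshS M hk (M.φ a) hv).H t) ∩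
      P ((meshS M hk (M.φ a) hv).H t')).Nonempty → P ((meshS M hk (M.φ a) hv).H t') ⊆ S)
    {Rr : s → ℝ≥0} {Λ : ℝ≥0}
    (hR : ∀ t ∈ K, ∀ p, (t : SIx M hk (M.φ a) hv) = oS M hk (M.φ a) hv p →
      (Rr t : ℝ) ≤ Λ * (1 / 2 ^ (p.1.par.1.1.k + 1)))
    {g : R3 → ℝ≥0∞} {Ef : FcS (Te (meshS M hk (M.φ a) hv)) s pr → ℝ≥0∞} {CE : ℝ≥0∞}
    (hEf : ∀ (b : FcS (Te (meshS M hk (M.φ a) hv)) s pr) (e' : Fin 2 → R3) (x' : R3)
      (Q' : Set (ℝ × ℝ)), (∀ i, ‖e' i‖ = 1) → inner ℝ (e' 0) (e' 1) = 0 → MeasurableSet Q' →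
      w2 '' b.1.set = pt e' x' '' Q' → Ef b ≤ CE * ∫⁻ w in Q', g (pt e' x' w))
    (b : FcS (Te (meshS M hk (M.φ a) hv)) s pr)
    (hb : ∃ t ∈ K, FcT (Te (meshS M hk (M.φ a) hv)) s pr t b) :
    ∃ q : ℕ × (Fin 3 → ℤ) × Fin 3,
      LinearIndependent ℝ (![ed (q.2.2 + 1), ed (q.2.2 + 2)] : Fin 2 → R3) ∧
      MeasurableSet (Icc (0:ℝ) (hs K0 q.1) ×ˢ Icc (0:ℝ) (hs K0 q.1)) ∧
      w2 '' b.1.set = pt ![ed (q.2.2 + 1), ed (q.2.2 + 2)]
          (a + Crest.Agent.R96.Coarse_538.gx (hs K0 q.1) q.2) ''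
        (Icc (0:ℝ) (hs K0 q.1) ×ˢ Icc (0:ℝ) (hs K0 q.1)) ∧
      w2 '' b.1.set ⊆ Zg M.φ (Dw M k) (K0 + q.1) ∩ S ∧
      ∀ t ∈ K, FcT (Te (meshS M hk (M.φ a) hv)) s pr t b →
        ENNReal.ofReal (Rr t) * Ef b ≤ (2 * Λ * CE) * (ENNReal.ofReal (hs K0 q.1) *
          ∫⁻ w in Icc (0:ℝ) (hs K0 q.1) ×ˢ Icc (0:ℝ) (hs K0 q.1),
            g (pt ![ed (q.2.2 + 1), ed (q.2.2 + 2)]
              (a + Crest.Agent.R96.Coarse_538.gx (hs K0 q.1) q.2) w)) := by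
  obtain ⟨t, ht, htb⟩ := hb
  obtain ⟨p, q, hp, hq, h1, h2, h3⟩ := face_data hS hK0 (hK t ht) htb
  have hmQ : MeasurableSet (Icc (0:ℝ) (hs K0 q.1) ×ˢ Icc (0:ℝ) (hs K0 q.1)) :=
    measurableSet_Icc.prod measurableSet_Icc
  refine ⟨q, fr_li q.2.2, hmQ, h1, fun y hy => ⟨mem_Zg.2 ⟨p.1.par.1.1.k, hq, hp.sub_Zr (h2 hy)⟩,
    hKS t ht _ h3 (h2 hy)⟩, fun t' ht' htb' => ?_⟩
  obtain ⟨y, hy, hyt'⟩ := FcT_pt htb'
  obtain ⟨p', hp', hpR'⟩ := touch_far (hK t' ht') hyt' hyt'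
  have h4 : M.φ y ∈ Zr (Dw M k) p.1.par.1.1.k := hp.sub_Zr (h2 hy)
  have h5 : M.φ y ∈ Zr (Dw M k) p'.1.par.1.1.k := hpR'.sub_Zr (hp' ▸ hyt')
  have h6 : p.1.par.1.1.k ≤ p'.1.par.1.1.k + 1 := scale_near (D := Dw M k) hC h5 h4
  have h7 := hR t' ht' p' hp'
  have h8 : (1:ℝ) / 2 ^ (p'.1.par.1.1.k + 1) ≤ 2 * hs K0 q.1 := by
    rw [hs_eq']
    have e : (2:ℝ) * (1 / 2 ^ (K0 + q.1)) = 4 / 2 ^ (K0 + q.1 + 1) := by
      rw [pow_succ]; field_simp; norm_num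
    have e2 : (1:ℝ) / 2 ^ (p'.1.par.1.1.k + 1) = 4 / 2 ^ (p'.1.par.1.1.k + 3) := by
      rw [pow_add _ _ 3, pow_succ]; field_simp; norm_num
    rw [e, e2]
    refine div_le_div_of_nonneg_left (by norm_num) (by positivity) ?_
    exact pow_le_pow_right₀ (by norm_num) (by omega)
  have h9 : ENNReal.ofReal (Rr t' : ℝ) ≤ 2 * Λ * ENNReal.ofReal (hs K0 q.1) := by
    have e2 : (Λ : ℝ≥0∞) = ENNReal.ofReal (Λ : ℝ) := by rw [ENNReal.ofReal_coe_nnreal]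
    have e4 : (2 : ℝ≥0∞) = ENNReal.ofReal (2:ℝ) := by norm_num
    rw [e2, e4, ← ENNReal.ofReal_mul (by norm_num), ← ENNReal.ofReal_mul (by positivity)]
    refine ENNReal.ofReal_le_ofReal (h7.trans ?_)
    calc (Λ:ℝ) * (1 / 2 ^ (p'.1.par.1.1.k + 1)) ≤ Λ * (2 * hs K0 q.1) := by gcongr
      _ = 2 * Λ * hs K0 q.1 := by ring
  have h10 := hEf b (fr q.2.2) (a + ihom (hs K0 q.1) q.2.1) _ (fr_norm _) (fr_inner _) hmQ h1
  calc ENNReal.ofReal (Rr t') * Ef b ≤ (2 * Λ * ENNReal.ofReal (hs K0 q.1)) *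
        (CE * ∫⁻ w in Icc (0:ℝ) (hs K0 q.1) ×ˢ Icc (0:ℝ) (hs K0 q.1),
          g (pt (fr q.2.2) (a + ihom (hs K0 q.1) q.2.1) w)) := mul_le_mul' h9 h10
    _ = (2 * Λ * CE) * (ENNReal.ofReal (hs K0 q.1) *
          ∫⁻ w in Icc (0:ℝ) (hs K0 q.1) ×ˢ Icc (0:ℝ) (hs K0 q.1),
            g (pt (fr q.2.2) (a + ihom (hs K0 q.1) q.2.1) w)) := by ring

/-- **hypothesis `hm'` of `sum_J_cls` for class (1)** -/
theorem outer_hm' (hS : Std M) {K0 : ℕ} (hK0 : ∀ y, M.D0.ρ y ≤ M.D0.C / 2 ^ K0) (hC : 2 ≤ M.D0.C)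
    {K : Finset s} (hK : ∀ t ∈ K, Far M hk (M.φ a) hv t)
    (b : FcS (Te (meshS M hk (M.φ a) hv)) s pr) (K' : Finset s) (hK' : K' ⊆ K)
    (hb : ∀ t ∈ K', FcT (Te (meshS M hk (M.φ a) hv)) s pr t b) : K'.card ≤ 192 := by
  classical
  rcases K'.eq_empty_or_nonempty with h0 | ⟨t0, ht0⟩
  · rw [h0]; simp
  obtain ⟨p, q, hp, hq, h1, h2, -⟩ := face_data hS hK0 (hK t0 (hK' ht0)) (hb t0 ht0)
  have : Nonempty (M.OIx hk (M.φ a) hv) := ⟨p⟩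
  have one : ∀ t : s, ∃ (pp : M.OIx hk (M.φ a) hv) (y : R3), t ∈ K' →
      (t : SIx M hk (M.φ a) hv) = oS M hk (M.φ a) hv pp ∧ Rgo M hk (M.φ a) hv pp ∧
      y ∈ w2 '' b.1.set ∧ y ∈ P ((meshS M hk (M.φ a) hv).H t) := by
    intro t
    by_cases ht : t ∈ K'
    · obtain ⟨y, hy, hyt⟩ := FcT_pt (hb t ht)
      obtain ⟨pp, hpp, hppR⟩ := touch_far (hK t (hK' ht)) hyt hyt
      exact ⟨pp, y, fun _ => ⟨hpp, hppR, hy, hyt⟩⟩
    · exact ⟨p, 0, fun h => absurd h ht⟩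
  choose pp yy hpy using one
  set h : ℝ := hs K0 q.1 with hh
  have hhp : 0 < h := hs_pos _ _
  set c : R3 := a + ihom h q.2.1 with hc
  set A : ℕ → Fin 3 → ℝ := fun s i => 2 ^ s * (c i - a i) with hA
  set F : ℕ → Finset (Fin 3 → ℤ) := fun s =>
    Fintype.piFinset fun i => Finset.Icc (⌈A s i⌉ - 1) (⌊A s i⌋ + 2) with hF
  have hcardF : ∀ s, (F s).card ≤ 64 := by
    intro s
    rw [hF]
    simp only
    rw [Fintype.card_piFinset]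
    calc ∏ i : Fin 3, (Finset.Icc (⌈A s i⌉ - 1) (⌊A s i⌋ + 2)).card ≤ ∏ _i : Fin 3, 4 := by
          refine Finset.prod_le_prod' fun i _ => ?_
          rw [Int.card_Icc]
          have h := Int.floor_le_ceil (A s i)
          omega
      _ = 64 := by simp
  have hmem : ∀ t ∈ K', (pp t).1.par.1.1.k ∈ Finset.Icc (p.1.par.1.1.k - 1) (p.1.par.1.1.k + 1) ∧
      (pp t).1.par.1.1.z ∈ F (pp t).1.par.1.1.k := by
    intro t ht
    obtain ⟨e1, e2, e3, e4⟩ := hpy t ht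
    have f1 : M.φ (yy t) ∈ Zr (Dw M k) p.1.par.1.1.k := hp.sub_Zr (h2 e3)
    have f2 : M.φ (yy t) ∈ Zr (Dw M k) (pp t).1.par.1.1.k := e2.sub_Zr (e1 ▸ e4)
    have f3 : p.1.par.1.1.k ≤ (pp t).1.par.1.1.k + 1 := scale_near (D := Dw M k) hC f2 f1
    have f4 : (pp t).1.par.1.1.k ≤ p.1.par.1.1.k + 1 := scale_near (D := Dw M k) hC f1 f2
    refine ⟨Finset.mem_Icc.2 ⟨by omega, f4⟩, ?_⟩
    rw [hF]
    simp only
    rw [Fintype.mem_piFinset]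
    intro i
    have f5 : yy t ∈ M.φ ⁻¹' Cu (M.φ a) (pp t).1.par.1.1.k (pp t).1.par.1.1.z := by
      rw [← e2.P_eq, ← e1]; exact e4
    have f6 := mem_Cu.1 f5 i
    unfold ps at f6
    rw [hS, hS] at f6
    -- the point is near the base point of the square
    have f7 : 0 ≤ yy t i - c i ∧ yy t i - c i ≤ h := by
      rw [h1] at e3
      obtain ⟨u, ⟨hu1, hu2⟩, hu⟩ := e3
      have f8 : yy t i = c i + (if i = q.2.2 + 1 then u.1 else 0) +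
          (if i = q.2.2 + 2 then u.2 else 0) := by rw [← hu, pt_apply]
      have g1 : 0 ≤ u.1 ∧ u.1 ≤ h := hu1
      have g2 : 0 ≤ u.2 ∧ u.2 ≤ h := hu2
      rw [f8]
      by_cases hi1 : i = q.2.2 + 1
      · have hi2 : i ≠ q.2.2 + 2 := fun hi2 => ne12 q.2.2 (hi1.symm.trans hi2)
        rw [if_pos hi1, if_neg hi2]
        constructor <;> linarith
      · rw [if_neg hi1]
        split_ifs
        · constructor <;> linarith
        · constructor <;> linarith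
    have f9 : (2:ℝ) ^ (pp t).1.par.1.1.k * h ≤ 2 := by
      rw [hh, hs_eq']
      rw [mul_one_div, div_le_iff₀ (by positivity)]
      calc (2:ℝ) ^ (pp t).1.par.1.1.k ≤ 2 ^ (K0 + q.1 + 1) :=
            pow_le_pow_right₀ (by norm_num) (by omega)
        _ = 2 * 2 ^ (K0 + q.1) := by rw [pow_succ]; ring
    have hP2 : (0:ℝ) < 2 ^ (pp t).1.par.1.1.k := by positivity
    have f10 : A (pp t).1.par.1.1.k i ≤ 2 ^ (pp t).1.par.1.1.k * (yy t i - a i) := by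
      rw [hA]
      simp only
      have : c i - a i ≤ yy t i - a i := by linarith [f7.1]
      gcongr
    have f11 : 2 ^ (pp t).1.par.1.1.k * (yy t i - a i) ≤ A (pp t).1.par.1.1.k i + 2 := by
      rw [hA]
      simp only
      have e : (2:ℝ) ^ (pp t).1.par.1.1.k * (yy t i - a i) =
          2 ^ (pp t).1.par.1.1.k * (c i - a i) + 2 ^ (pp t).1.par.1.1.k * (yy t i - c i) := by ring
      rw [e]
      have : (2:ℝ) ^ (pp t).1.par.1.1.k * (yy t i - c i) ≤ 2 ^ (pp t).1.par.1.1.k * h := by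
        gcongr
        exact f7.2
      linarith
    rw [Finset.mem_Icc]
    constructor
    · rw [sub_le_iff_le_add, Int.ceil_le]
      push_cast
      linarith [f6.2]
    · have g3 : (((pp t).1.par.1.1.z i - 2 : ℤ) : ℝ) ≤ A (pp t).1.par.1.1.k i := by
        push_cast
        linarith [f6.1]
      have g4 := Int.le_floor.2 g3
      omega
  have hcard : K'.card ≤
      ((Finset.Icc (p.1.par.1.1.k - 1) (p.1.par.1.1.k + 1)).sigma F).card := by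
    refine Finset.card_le_card_of_injOn
      (fun t => ⟨(pp t).1.par.1.1.k, (pp t).1.par.1.1.z⟩) ?_ ?_
    · intro t ht
      rw [Finset.mem_coe, Finset.mem_sigma]
      exact hmem t (Finset.mem_coe.1 ht)
    · intro t ht t' ht' htt
      simp only [Sigma.mk.injEq] at htt
      obtain ⟨e1, e2, -, -⟩ := hpy t (Finset.mem_coe.1 ht)
      obtain ⟨e1', e2', -, -⟩ := hpy t' (Finset.mem_coe.1 ht')
      refine Subtype.ext ?_
      rw [e1, e1']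
      exact e2.inj e2' htt.1 (eq_of_heq htt.2)
  refine hcard.trans ?_
  rw [Finset.card_sigma]
  calc ∑ s ∈ Finset.Icc (p.1.par.1.1.k - 1) (p.1.par.1.1.k + 1), (F s).card
      ≤ ∑ _s ∈ Finset.Icc (p.1.par.1.1.k - 1) (p.1.par.1.1.k + 1), 64 :=
        Finset.sum_le_sum fun s _ => hcardF s
    _ = (Finset.Icc (p.1.par.1.1.k - 1) (p.1.par.1.1.k + 1)).card * 64 := by
        rw [Finset.sum_const, smul_eq_mul]
    _ ≤ 3 * 64 := by
        gcongr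
        rw [Nat.card_Icc]
        omega
    _ = 192 := by norm_num

end cls

end

end Crest.Agent.R096.Elf_565
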