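import Crest.Agent.R96.Els5_538
import Crest.Agent.R096.Rmg1_793
import Crest.Agent.R096.Fsl8_793

/-!
# Row 96 (helper812), p ≤ 2, (EL), [1F] (i): the random measure of the FACES of the graded outer mesh

`q = (j, z, l)` : the square of side `h = 2^-(K0+j)` at the lattice point `a + h z`, normal direction `l`.
* `muOF`, `rm_outerF : RM (Dt (2^K0)⁻¹) 18 (muOF φ D K0)`;
* `muOF_le`, `muOF_cel` : the counts (same numbers as 538's `muO_le`, `muO_cel`);
* `muE` = edges + faces, `rm_muE` (36), `muE_cel` (144).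
-/

set_option autoImplicit false
set_option linter.unusedSectionVars false
set_option maxHeartbeats 400000

open MeasureTheory Set Filter Metric Module
open scoped ENNReal NNReal Topology

namespace Crest.Agent.R096.Muf_812

open Crest.AnalysisR.VecCalc3 (R3)
open Crest.Agent.R96.Intr_538 Crest.Agent.R96.Coarse_538
open Crest.Agent.R096.Msh_810 (Dat)
open Crest.Agent.R96.Rmo_538 (Zg meas_Zg mem_Zg encard_Zg hs hs_pos hs_mul muO rm_outer)
open Crest.Agent.R096.Rmg_793 (trM lint_trM rm_tr sum_lat)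
open Crest.Agent.R096.Fsl_793 (fcM lint_fcM measurable_pt)
open Crest.Agent.R096.Fce_793 (pt)
open Crest.Agent.R96.Els_538 (Sth grid_count Sth_cel muO_cel)

noncomputable section

/-- index of the squares: scale, lattice point, normal direction -/
abbrev QF : Type := ℕ × (Fin 3 → ℤ) × Fin 3

/-- corner -/
def xF (K0 : ℕ) (q : QF) : R3 := gx (hs K0 q.1) q.2

/-- orthonormal frame -/
def eF (q : QF) : Fin 2 → R3 := ![ed (q.2.2 + 1), ed (q.2.2 + 2)]

/-- parameter square -/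
def sF (K0 : ℕ) (q : QF) : Set (ℝ × ℝ) := Icc 0 (hs K0 q.1) ×ˢ Icc 0 (hs K0 q.1)

/-- weight: `h` times area -/
def wF (K0 : ℕ) (q : QF) : ℝ≥0∞ := ENNReal.ofReal (hs K0 q.1)

/-- **the random measure of the faces of the graded mesh** -/
def muOF (φ : R3 ≃L[ℝ] (Fin 3 → ℝ)) (D : Dat 3) (K0 : ℕ) (a : R3) : Measure R3 :=
  trM (fcM (xF K0) eF (sF K0) (wF K0)) (fun q => Zg φ D (K0 + q.1)) a

theorem meas_sF (K0 : ℕ) (q : QF) : MeasurableSet (sF K0 q) := measurableSet_Icc.prod measurableSet_Icc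

theorem vol_sF (K0 : ℕ) (q : QF) : volume (sF K0 q) = ENNReal.ofReal (hs K0 q.1 ^ 2) := by
  rw [sF, Measure.volume_eq_prod, Measure.prod_prod, Real.volume_Icc, sub_zero,
    ← ENNReal.ofReal_mul (hs_pos K0 q.1).le]
  congr 1
  ring

theorem norm_eF (q : QF) (i : Fin 2) : ‖eF q i‖ = 1 := by
  fin_cases i <;> simp [eF, ed]

theorem inner_eF (q : QF) : inner ℝ (eF q 0) (eF q 1) = 0 := by
  obtain ⟨j, z, l⟩ := q
  fin_cases l <;> simp [eF, ed, EuclideanSpace.inner_single_left]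

theorem li_eF (q : QF) : LinearIndependent ℝ (eF q) := by
  refine linearIndependent_of_ne_zero_of_inner_eq_zero (fun i h => ?_) ?_
  · have := norm_eF q i
    rw [h, norm_zero] at this
    exact zero_ne_one this
  · intro i k hik
    have h := inner_eF q
    fin_cases i <;> fin_cases k
    · exact absurd rfl hik
    · exact h
    · exact (real_inner_comm _ _).trans h
    · exact absurd rfl hik

/-- the mass of one square -/
theorem mass_fcM (K0 : ℕ) (q : QF) :
    fcM (xF K0) eF (sF K0) (wF K0) q univ = ENNReal.ofReal (hs K0 q.1 ^ 3) := by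
  have hh := hs_pos K0 q.1
  rw [fcM, Measure.smul_apply, smul_eq_mul, Measure.map_apply (measurable_pt _ _) MeasurableSet.univ,
    preimage_univ, Measure.restrict_apply_univ, vol_sF, wF, ← ENNReal.ofReal_mul hh.le]
  congr 1
  ring

/-- the squares of one scale and one direction are the translates of one of them -/
theorem fcM_shift (K0 j : ℕ) (z : Fin 3 → ℤ) (l : Fin 3) :
    fcM (xF K0) eF (sF K0) (wF K0) (j, z, l) =
      (fcM (xF K0) eF (sF K0) (wF K0) (j, 0, l)).map (fun x => ihom (hs K0 j) z + x) := by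
  have hm : Measurable fun x : R3 => ihom (hs K0 j) z + x := by fun_prop
  have key : pt (eF (j, z, l)) (xF K0 (j, z, l)) =
      (fun x => ihom (hs K0 j) z + x) ∘ pt (eF (j, 0, l)) (xF K0 (j, 0, l)) := by
    funext u
    simp only [Function.comp_apply, pt, xF, gx, map_zero, zero_add]
    rfl
  rw [fcM, fcM, Measure.map_smul, Measure.map_map hm (measurable_pt _ _), key]
  rfl

/-- **density 18** -/
theorem rm_outerF (φ : R3 ≃L[ℝ] (Fin 3 → ℝ)) (D : Dat 3) (K0 : ℕ) :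
    RM (Dt ((2:ℝ) ^ K0)⁻¹) 18 (muOF φ D K0) := by
  classical
  set t : ℝ := ((2:ℝ) ^ K0)⁻¹ with ht
  have ht0 : 0 < t := by positivity
  refine rm_tr (meas_Dt t) (fun q => meas_Zg φ D _) fun y => ?_
  rw [vol_Dt ht0, ENNReal.tsum_prod' (f := fun q : ℕ × (Fin 3 → ℤ) × Fin 3 => _)]
  have h1 : ∀ j : ℕ, ∑' q : (Fin 3 → ℤ) × Fin 3, (Zg φ D (K0 + j)).indicator 1 y *
      fcM (xF K0) eF (sF K0) (wF K0) (j, q) {x | y - x ∈ Dt t} ≤
      (Zg φ D (K0 + j)).indicator 1 y * (3 * ENNReal.ofReal (t ^ 3)) := by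
    intro j
    have hh := hs_pos K0 j
    have hth : t = ((2 ^ j : ℕ) : ℝ) * hs K0 j := by
      unfold hs
      rw [← ht]
      field_simp
    rw [ENNReal.tsum_mul_left]
    gcongr
    rw [ENNReal.tsum_prod', ENNReal.tsum_comm, tsum_fintype]
    have h2 : ∀ l : Fin 3, ∑' z : Fin 3 → ℤ,
        fcM (xF K0) eF (sF K0) (wF K0) (j, z, l) {x | y - x ∈ Dt t} ≤ ENNReal.ofReal (t ^ 3) := by
      intro l
      have h3 := sum_lat hh (2 ^ j) (fcM (xF K0) eF (sF K0) (wF K0) (j, 0, l)) y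
      rw [← hth, mass_fcM] at h3
      calc ∑' z : Fin 3 → ℤ, fcM (xF K0) eF (sF K0) (wF K0) (j, z, l) {x | y - x ∈ Dt t}
          = ∑' z : Fin 3 → ℤ, ((fcM (xF K0) eF (sF K0) (wF K0) (j, 0, l)).map
              (fun x => ihom (hs K0 j) z + x)) {x | y - x ∈ Dt t} :=
            tsum_congr fun z => by rw [fcM_shift]
        _ ≤ _ := h3
        _ = ENNReal.ofReal (t ^ 3) := by
            simp only
            rw [← ENNReal.ofReal_natCast, ← ENNReal.ofReal_pow (Nat.cast_nonneg _),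
              ← ENNReal.ofReal_mul (by positivity)]
            congr 1
            rw [← mul_pow, ← hth]
    calc ∑ l : Fin 3, ∑' z : Fin 3 → ℤ,
          fcM (xF K0) eF (sF K0) (wF K0) (j, z, l) {x | y - x ∈ Dt t}
        ≤ ∑ _l : Fin 3, ENNReal.ofReal (t ^ 3) := Finset.sum_le_sum fun l _ => h2 l
      _ = 3 * ENNReal.ofReal (t ^ 3) := by
          rw [Finset.sum_const, Finset.card_univ, Fintype.card_fin, nsmul_eq_mul]
          norm_num
  calc _ ≤ ∑' j, (Zg φ D (K0 + j)).indicator 1 y * (3 * ENNReal.ofReal (t ^ 3)) :=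
        ENNReal.tsum_le_tsum h1
    _ = ({j | y ∈ Zg φ D (K0 + j)}.encard : ℝ≥0∞) * (3 * ENNReal.ofReal (t ^ 3)) := by
        rw [ENNReal.tsum_mul_right]
        congr 1
        have h8 : ∀ j, (Zg φ D (K0 + j)).indicator (1 : R3 → ℝ≥0∞) y =
            {j | y ∈ Zg φ D (K0 + j)}.indicator (1 : ℕ → ℝ≥0∞) j := by
          intro j
          by_cases hj : y ∈ Zg φ D (K0 + j)
          · rw [indicator_of_mem hj, indicator_of_mem
              (show j ∈ {j | y ∈ Zg φ D (K0 + j)} from hj)]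
            rfl
          · rw [indicator_of_notMem hj, indicator_of_notMem
              (show j ∉ {j | y ∈ Zg φ D (K0 + j)} from hj)]
        rw [tsum_congr h8, ← tsum_subtype, Pi.one_def, ENNReal.tsum_set_one]
    _ ≤ (((6 : ℕ) : ℕ∞) : ℝ≥0∞) * (3 * ENNReal.ofReal (t ^ 3)) := by
        gcongr
        exact encard_Zg φ D K0 y
    _ = 18 * ENNReal.ofReal (t ^ 3) := by
        rw [← mul_assoc]
        congr 1
        norm_num

/-- the points of a square -/
theorem pt_bd (K0 j : ℕ) (z : Fin 3 → ℤ) (l : Fin 3) (a : R3) {u : ℝ × ℝ}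
    (hu : u ∈ sF K0 (j, z, l)) (i : Fin 3) :
    a i + hs K0 j * z i ≤ pt (eF (j, z, l)) (a + xF K0 (j, z, l)) u i ∧
      pt (eF (j, z, l)) (a + xF K0 (j, z, l)) u i ≤ a i + hs K0 j * (z i + 1) := by
  have hh := hs_pos K0 j
  have h1 : 0 ≤ u.1 ∧ u.1 ≤ hs K0 j := hu.1
  have h2 : 0 ≤ u.2 ∧ u.2 ≤ hs K0 j := hu.2
  have e1 : pt (eF (j, z, l)) (a + xF K0 (j, z, l)) u i =
      a i + hs K0 j * z i + (u.1 * (ed (l + 1) : R3) i + u.2 * (ed (l + 2) : R3) i) := by
    simp only [pt, PiLp.add_apply, PiLp.smul_apply, xF, gx, ihom_apply, smul_eq_mul]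
    rfl
  have h3 : 0 ≤ u.1 * (ed (l + 1) : R3) i + u.2 * (ed (l + 2) : R3) i ∧
      u.1 * (ed (l + 1) : R3) i + u.2 * (ed (l + 2) : R3) i ≤ hs K0 j := by
    fin_cases l <;> fin_cases i <;>
      simp [ed, h1.1, h1.2, h2.1, h2.2, hh.le]
  rw [e1]
  constructor <;> nlinarith [h3.1, h3.2]

/-- **the mass of `muOF` in a set** -/
theorem muOF_le {φ : R3 ≃L[ℝ] (Fin 3 → ℝ)} (hφ : ∀ x l, φ x l = x l) {D : Dat 3} (hC : 6 ≤ D.C)
    (K0 : ℕ) (a : R3) {S : Set R3} (hS : MeasurableSet S) :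
    muOF φ D K0 a S ≤ 9 * volume (Sth S ((2:ℝ) ^ K0)⁻¹) := by
  classical
  rw [← lintegral_indicator_one hS, muOF, lint_fcM (fun q => meas_Zg φ D _)
    (measurable_one.indicator hS)]
  set pr : ℕ → (Fin 3 → ℤ) → Fin 3 → Prop := fun j z l =>
    ∃ u ∈ sF K0 (j, z, l), pt (eF (j, z, l)) (a + xF K0 (j, z, l)) u ∈
      Zg φ D (K0 + j) ∩ S with hpr
  have h1 : ∀ j z l, wF K0 (j, z, l) * ∫⁻ u in sF K0 (j, z, l),
      (Zg φ D (K0 + j)).indicator (S.indicator (1 : R3 → ℝ≥0∞))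
        (pt (eF (j, z, l)) (a + xF K0 (j, z, l)) u) ≤
      {l | pr j z l}.indicator (fun _ => ENNReal.ofReal (hs K0 j ^ 3)) l := by
    intro j z l
    have hh := hs_pos K0 j
    have h0 : ∀ u : ℝ × ℝ, (Zg φ D (K0 + j)).indicator (S.indicator (1 : R3 → ℝ≥0∞))
        (pt (eF (j, z, l)) (a + xF K0 (j, z, l)) u) =
        (Zg φ D (K0 + j) ∩ S).indicator (1 : R3 → ℝ≥0∞)
          (pt (eF (j, z, l)) (a + xF K0 (j, z, l)) u) := by
      intro u
      rw [indicator_indicator]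
    simp only [h0]
    by_cases hl : pr j z l
    · rw [indicator_of_mem (show l ∈ {l | pr j z l} from hl)]
      calc wF K0 (j, z, l) * ∫⁻ u in sF K0 (j, z, l),
            (Zg φ D (K0 + j) ∩ S).indicator (1 : R3 → ℝ≥0∞)
              (pt (eF (j, z, l)) (a + xF K0 (j, z, l)) u)
          ≤ wF K0 (j, z, l) * ∫⁻ _u in sF K0 (j, z, l), 1 := by
            gcongr with u
            exact indicator_le_self _ _ _
        _ = ENNReal.ofReal (hs K0 j) * ENNReal.ofReal (hs K0 j ^ 2) := by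
            rw [lintegral_one, Measure.restrict_apply_univ, vol_sF]
            rfl
        _ = _ := by
            rw [← ENNReal.ofReal_mul hh.le]
            congr 1
            ring
    · have h3 : ∫⁻ u in sF K0 (j, z, l), (Zg φ D (K0 + j) ∩ S).indicator (1 : R3 → ℝ≥0∞)
              (pt (eF (j, z, l)) (a + xF K0 (j, z, l)) u) = 0 := by
        rw [setLIntegral_congr_fun (g := fun _ => 0) (meas_sF K0 _) fun u hu =>
          indicator_of_notMem (fun h4 => hl ⟨u, hu, h4⟩) _, lintegral_zero]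
      rw [h3, mul_zero]
      exact zero_le
  have h2 := grid_count hφ hC K0 a S pr (fun j z l h => by
    obtain ⟨u, hu, hy⟩ := h
    exact ⟨_, hy.2, hy.1, fun i => pt_bd K0 j z l a hu i⟩)
  rw [Fintype.card_fin] at h2
  calc _ = ∑' j, ∑' z, ∑' l, wF K0 (j, z, l) * ∫⁻ u in sF K0 (j, z, l),
      (Zg φ D (K0 + j)).indicator (S.indicator (1 : R3 → ℝ≥0∞))
        (pt (eF (j, z, l)) (a + xF K0 (j, z, l)) u) := by
        rw [ENNReal.tsum_prod' (f := fun q : ℕ × (Fin 3 → ℤ) × Fin 3 => _)]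
        refine tsum_congr fun j => ?_
        rw [ENNReal.tsum_prod' (f := fun q : (Fin 3 → ℤ) × Fin 3 => _)]
    _ ≤ ∑' j, ∑' z, ∑' l, {l | pr j z l}.indicator
          (fun _ => ENNReal.ofReal (hs K0 j ^ 3)) l :=
        ENNReal.tsum_le_tsum fun j => ENNReal.tsum_le_tsum fun z =>
          ENNReal.tsum_le_tsum fun l => h1 j z l
    _ ≤ _ := h2.trans (le_of_eq (by
        push_cast
        norm_num))

/-- **the count** -/
theorem muOF_cel {φ : R3 ≃L[ℝ] (Fin 3 → ℝ)} (hφ : ∀ x l, φ x l = x l) {D : Dat 3} (hC : 6 ≤ D.C)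
    {K0 : ℕ} (a z : R3) {s : ℝ} (hs : 0 < s) (hK0 : ((2:ℝ) ^ K0)⁻¹ ≤ s) :
    muOF φ D K0 a (cel Cb z s) ≤ ENNReal.ofReal (72 * (2 * s) ^ 3) := by
  refine (muOF_le hφ hC K0 a (isCompact_cel ref_Cb.cpt z s).isClosed.measurableSet).trans ?_
  calc 9 * volume (Sth (cel Cb z s) ((2:ℝ) ^ K0)⁻¹)
      ≤ ENNReal.ofReal 9 * ENNReal.ofReal (8 * (2 * s) ^ 3) := by
        gcongr
        · norm_num
        · exact Sth_cel hs hK0
    _ = _ := by
        rw [← ENNReal.ofReal_mul (by norm_num)]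
        congr 1
        ring

/-- **edges and faces together** -/
def muE (φ : R3 ≃L[ℝ] (Fin 3 → ℝ)) (D : Dat 3) (K0 : ℕ) (a : R3) : Measure R3 :=
  muO φ D K0 a + muOF φ D K0 a

theorem rm_muE (φ : R3 ≃L[ℝ] (Fin 3 → ℝ)) (D : Dat 3) (K0 : ℕ) :
    RM (Dt ((2:ℝ) ^ K0)⁻¹) 36 (muE φ D K0) := by
  have h := (rm_outer φ D K0).add (rm_outerF φ D K0)
  have e : (18 : ℝ≥0∞) + 18 = 36 := by norm_num
  rw [e] at h
  exact h

theorem muE_cel {φ : R3 ≃L[ℝ] (Fin 3 → ℝ)} (hφ : ∀ x l, φ x l = x l) {D : Dat 3} (hC : 6 ≤ D.C)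
    {K0 : ℕ} (a z : R3) {s : ℝ} (hs : 0 < s) (hK0 : ((2:ℝ) ^ K0)⁻¹ ≤ s) :
    muE φ D K0 a (cel Cb z s) ≤ ENNReal.ofReal (144 * (2 * s) ^ 3) := by
  rw [muE, Measure.add_apply]
  refine (add_le_add (muO_cel hφ hC a z hs hK0) (muOF_cel hφ hC a z hs hK0)).trans ?_
  rw [← ENNReal.ofReal_add (by positivity) (by positivity)]
  exact ENNReal.ofReal_le_ofReal (by linarith)

/-- the integral against `muOF` dominates the parts on single squares -/
theorem lint_muOF (φ : R3 ≃L[ℝ] (Fin 3 → ℝ)) (D : Dat 3) (K0 : ℕ) (a : R3) {F : R3 → ℝ≥0∞}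
    (hF : Measurable F) :
    ∫⁻ y, F y ∂muOF φ D K0 a = ∑' q : QF, wF K0 q * ∫⁻ u in sF K0 q,
      (Zg φ D (K0 + q.1)).indicator F (pt (eF q) (a + xF K0 q) u) :=
  lint_fcM (fun q => meas_Zg φ D _) hF a

end

end Crest.Agent.R096.Muf_812
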