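import Crest.Agent.R096.Msb4_432
import Crest.Agent.R096.Ca7_855

/-!
# Row 96, p ≤ 2 (helper896), leaf NBR, part 1: counting cells and cubes
-/

set_option autoImplicit false
set_option linter.unusedSectionVars false

open Set Metric Topology Filter

namespace Crest.Agent.R096.Nbr_896

open Crest.Agent.R096.Msh_715 Crest.Agent.R096.Msh_715.Tiling Crest.Agent.R096.Mal_874
open Crest.Agent.R096.Msh_810 Crest.Agent.R096.Cut_874 Crest.Agent.R096.Msb_432

/-! ### cells are determined by the tiles through them -/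

section cells

variable {E : Type*} [NormedAddCommGroup E] [NormedSpace ℝ E]
variable {Om : Set E} {ι : Type*} (T : Tiling Om ι)

/-- the number of cells all of whose tiles are in a given set -/
theorem card_cells {N : Set ι} (hN : N.Finite) (Q : T.Cell → Prop)
    (hQ : ∀ c, Q c → T.at_ c.pt ⊆ N) : Nat.card {c : T.Cell // Q c} ≤ 2 ^ N.ncard := by
  classical
  have hinj : Function.Injective (fun c : {c : T.Cell // Q c} =>
      (⟨T.at_ c.1.pt, hQ _ c.2⟩ : {s : Set ι // s ⊆ N})) := by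
    intro c c' h
    have h1 : T.at_ c.1.pt = T.at_ c'.1.pt := congrArg Subtype.val h
    have h2 : T.cc c.1.pt = T.cc c'.1.pt := by
      apply Subset.antisymm
      · exact T.cc_sub_of_mem (Ca_855.mem_cc_of_at c'.1.pt_mem h1.ge)
      · exact T.cc_sub_of_mem (Ca_855.mem_cc_of_at c.1.pt_mem h1.le)
    exact Subtype.ext (Cell.ext (by rw [Cell.set_eq, Cell.set_eq]; exact h2))
  have hfin : Finite {s : Set ι // s ⊆ N} := hN.finite_subsets.to_subtype
  have h3 : Nat.card {s : Set ι // s ⊆ N} = 2 ^ N.ncard := by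
    have h4 := Set.ncard_powerset N hN
    rw [← h4]
    rfl
  rw [← h3]
  exact Nat.card_le_card_of_injective _ hinj

theorem at_sub_star {i : ι} {x : E} (hm : (T.cc x ∩ P (T.H i)).Nonempty) :
    T.at_ x ⊆ Gsm_432.star T i := by
  intro q hq
  obtain ⟨y, hy1, hy2⟩ := hm
  exact ⟨y, T.cc_sub_tile hq hy1, hy2⟩

/-- the crossing edges (helper335) -/
theorem card_KT (T : Tiling Om ι) (i : ι) :
    Nat.card (Tgr_335.KT T i) ≤ 2 ^ (Gsm_432.star T i).ncard :=
  card_cells T (Gsm_432.star_finite i) (fun c => Tgr_335.Crs T i c.pt)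
    fun _ hc => at_sub_star T hc.meet

end cells

/-- the crossing edges (helper812) -/
theorem card_KT' {E : Type} [NormedAddCommGroup E] [NormedSpace ℝ E] {Om : Set E} {ι : Type*}
    (T : Tiling Om ι) (i : ι) :
    Nat.card (Sk3_812.KT T i) ≤ 2 ^ {j | (P (T.H j) ∩ P (T.H i)).Nonempty}.ncard :=
  card_cells T (Gsm_432.star_finite i) (fun c => Sk3_812.Crs T i c.pt)
    fun _ hc => at_sub_star T hc.2.2.2

/-! ### counting cubes -/

variable {n : ℕ}

/-- cubes of one scale near a point -/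
theorem cube_card (a : Fin n → ℝ) (k : ℕ) (x : Fin n → ℝ) (r : ℕ) :
    {z : Fin n → ℤ | ∃ y ∈ Cu a k z, ∀ l, |ps a k y l - ps a k x l| ≤ r}.Finite ∧
      {z : Fin n → ℤ | ∃ y ∈ Cu a k z, ∀ l, |ps a k y l - ps a k x l| ≤ r}.ncard ≤
        (2 * r + 3) ^ n := by
  set A : Fin n → ℤ := fun l => ⌊ps a k x l⌋ - r - 1 with hA
  set B : Fin n → ℤ := fun l => ⌊ps a k x l⌋ + r + 1 with hB
  have hsub : {z : Fin n → ℤ | ∃ y ∈ Cu a k z, ∀ l, |ps a k y l - ps a k x l| ≤ r} ⊆ Icc A B := by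
    rintro z ⟨y, hy, hyx⟩
    rw [mem_Cu] at hy
    constructor
    · intro l
      have h1 := abs_le.1 (hyx l)
      have h2 := (hy l).2
      have h3 := Int.floor_le (ps a k x l)
      have h4 : ((⌊ps a k x l⌋ - r - 1 : ℤ) : ℝ) ≤ z l := by
        push_cast
        linarith [h1.1]
      exact_mod_cast h4
    · intro l
      have h1 := abs_le.1 (hyx l)
      have h2 := (hy l).1
      have h3 := Int.lt_floor_add_one (ps a k x l)
      have h4 : (z l : ℝ) ≤ ((⌊ps a k x l⌋ + r + 1 : ℤ) : ℝ) := by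
        push_cast
        linarith [h1.2]
      exact_mod_cast h4
  refine ⟨(Set.finite_Icc A B).subset hsub, ?_⟩
  refine (Set.ncard_le_ncard hsub (Set.finite_Icc A B)).trans ?_
  have h1 : (Icc A B).ncard = (Finset.Icc A B).card := by
    rw [← Finset.coe_Icc, Set.ncard_coe_finset]
  rw [h1, Pi.card_Icc]
  have h2 : ∀ l : Fin n, (Finset.Icc (A l) (B l)).card = 2 * r + 3 := by
    intro l
    rw [Int.card_Icc]
    simp only [hA, hB]
    omega
  rw [Finset.prod_congr rfl fun l _ => h2 l, Finset.prod_const, Finset.card_univ, Fintype.card_fin]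

/-- tiles of a Whitney mesh of neighbouring scales near a point -/
theorem tile_card (D : Dat n) (x : Fin n → ℝ) (κ r : ℕ) :
    {τ : Top D | κ ≤ τ.1.1.k + 1 ∧ τ.1.1.k ≤ κ + 1 ∧
      ∃ y ∈ Cu D.a τ.1.1.k τ.1.1.z, dist y x ≤ r / 2 ^ κ}.Finite ∧
    {τ : Top D | κ ≤ τ.1.1.k + 1 ∧ τ.1.1.k ≤ κ + 1 ∧
      ∃ y ∈ Cu D.a τ.1.1.k τ.1.1.z, dist y x ≤ r / 2 ^ κ}.ncard ≤ 3 * (4 * r + 3) ^ n := by
  set S : Set (Top D) := {τ : Top D | κ ≤ τ.1.1.k + 1 ∧ τ.1.1.k ≤ κ + 1 ∧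
      ∃ y ∈ Cu D.a τ.1.1.k τ.1.1.z, dist y x ≤ r / 2 ^ κ} with hS
  have hp : (0 : ℝ) < 2 ^ κ := by positivity
  -- one scale
  have key : ∀ k' : ℕ, k' ≤ κ + 1 → {τ | τ ∈ S ∧ τ.1.1.k = k'}.Finite ∧
      {τ | τ ∈ S ∧ τ.1.1.k = k'}.ncard ≤ (4 * r + 3) ^ n := by
    intro k' hk'
    obtain ⟨h1, h2⟩ := cube_card D.a k' x (2 * r)
    have hmaps : ∀ τ ∈ {τ | τ ∈ S ∧ τ.1.1.k = k'}, (fun τ : Top D => τ.1.1.z) τ ∈
        {z : Fin n → ℤ | ∃ y ∈ Cu D.a k' z, ∀ l, |ps D.a k' y l - ps D.a k' x l| ≤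
          ((2 * r : ℕ) : ℝ)} := by
      rintro τ ⟨⟨-, -, y, hy, hyx⟩, rfl⟩
      refine ⟨y, hy, fun l => ?_⟩
      refine (ps_dist l).trans ?_
      have h3 : (2 : ℝ) ^ τ.1.1.k ≤ 2 ^ (κ + 1) := pow_le_pow_right₀ (by norm_num) hk'
      calc (2 : ℝ) ^ τ.1.1.k * dist y x ≤ 2 ^ (κ + 1) * (r / 2 ^ κ) :=
            mul_le_mul h3 hyx dist_nonneg (by positivity)
        _ = ((2 * r : ℕ) : ℝ) := by
            push_cast
            rw [pow_succ]
            field_simp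
    have hinj : InjOn (fun τ : Top D => τ.1.1.z) {τ | τ ∈ S ∧ τ.1.1.k = k'} := by
      rintro τ ⟨-, h⟩ τ' ⟨-, h'⟩ e
      have e' : τ.1.1.z = τ'.1.1.z := e
      exact Subtype.ext (Subtype.ext (Idx.ext (h.trans h'.symm) e' (τ.2.trans τ'.2.symm)))
    refine ⟨Set.Finite.of_injOn (fun τ hτ => hmaps τ hτ) hinj h1, ?_⟩
    have h4 := Set.ncard_le_ncard_of_injOn _ hmaps hinj h1
    refine h4.trans (h2.trans (le_of_eq ?_))
    ring
  have hcov : S ⊆ ⋃ k' ∈ (Finset.Icc (κ - 1) (κ + 1) : Set ℕ), {τ | τ ∈ S ∧ τ.1.1.k = k'} := by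
    intro τ hτ
    simp only [mem_iUnion, Finset.coe_Icc, mem_Icc, exists_prop]
    obtain ⟨h1, h2, -⟩ := id hτ
    exact ⟨τ.1.1.k, ⟨by omega, h2⟩, hτ, rfl⟩
  have hle : ∀ k' ∈ (Finset.Icc (κ - 1) (κ + 1) : Set ℕ), k' ≤ κ + 1 := by
    intro k' hk'
    rw [Finset.coe_Icc] at hk'
    exact hk'.2
  have hfin : (⋃ k' ∈ (Finset.Icc (κ - 1) (κ + 1) : Set ℕ), {τ | τ ∈ S ∧ τ.1.1.k = k'}).Finite :=
    (Finset.finite_toSet _).biUnion fun k' hk' => (key k' (hle k' hk')).1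
  refine ⟨hfin.subset hcov, ?_⟩
  refine (Set.ncard_le_ncard hcov hfin).trans ?_
  refine (Ca_855.Regs.ncard_biUnion_le (Finset.finite_toSet _)
    (fun k' hk' => (key k' (hle k' hk')).2)).trans ?_
  refine Nat.mul_le_mul_right _ ?_
  rw [Set.ncard_coe_finset, Nat.card_Icc]
  omega

/-- pieces of one tile -/
theorem pieces_card {E : Type*} [NormedAddCommGroup E] [NormedSpace ℝ E] {Om : Set E} {ι : Type*}
    {T : Tiling Om ι} {A : ι → Finset ((E →L[ℝ] ℝ) × ℝ)} (i : ι) :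
    {p : CutIx T A | p.par = i}.Finite ∧ {p : CutIx T A | p.par = i}.ncard ≤ 2 ^ (A i).card := by
  classical
  have hmaps : ∀ p ∈ {p : CutIx T A | p.par = i}, p.sg ∈ ((A i).powerset : Set _) := by
    rintro p rfl
    exact Finset.mem_coe.2 (Finset.mem_powerset.2 p.2.1)
  have hinj : InjOn (fun p : CutIx T A => p.sg) {p : CutIx T A | p.par = i} := by
    intro p hp q hq e
    have hp' : p.par = i := hp
    have hq' : q.par = i := hq
    exact CutIx.ext (hp'.trans hq'.symm) e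
  refine ⟨Set.Finite.of_injOn (fun p hp => hmaps p hp) hinj (Finset.finite_toSet _), ?_⟩
  have h4 := Set.ncard_le_ncard_of_injOn _ hmaps hinj (Finset.finite_toSet _)
  rwa [Set.ncard_coe_finset, Finset.card_powerset] at h4

end Crest.Agent.R096.Nbr_896
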