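/-
helper565, row 96, p ≤ 2, (EL), class (1) assembled: number of neighbours of a far outer tile, and
`sum_J_cls` with the random measure `muE` (edges and faces of the graded grids).
-/
import Mathlib
import Crest.Agent.R096.Elf2_565
import Crest.Agent.R096.Muf1_812
import Crest.Agent.R096.Nbr1_896
import Crest.Agent.R096.Cbs4_296

set_option autoImplicit false
set_option linter.unusedSectionVars false
set_option maxHeartbeats 400000

open MeasureTheory Set Metric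
open scoped ENNReal NNReal

namespace Crest.Agent.R096.Elf_565

open Crest.AnalysisR.VecCalc3 (R3)
open Crest.Agent.R096.Msh_715 Crest.Agent.R096.Msh_715.Tiling Crest.Agent.R096.Mal_874
open Crest.Agent.R096.Msb_432 Crest.Agent.R096.Msh_810 Crest.Agent.R096.Cut_874
open Crest.Agent.R096.Fce_793 (pt)
open Crest.Agent.R96.Coarse_538 (ed ihom segM)
open Crest.Agent.R096.Fsl_793 (fcM)
open Crest.Agent.R096.Rmg_793 (trM)
open Crest.Agent.R96.Wm_72 (Zr)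
open Crest.Agent.R96.Rmo_538 (Zg mem_Zg hs hs_pos muO)
open Crest.Agent.R096.Sq_55 (E3 w2 Sys FaceOf)
open Crest.Agent.R096.Cob_622 (EF)
open Crest.Agent.R096.Efi_296
open Crest.Agent.R096.Cbs_296 (nbT finite_nbT ncard_faces_le)
open Crest.Agent.R096.Muf_812 (muOF muE xF eF sF wF)
open Crest.Agent.R96.Els_538

noncomputable section

variable {J : Type*} {M : MD R3 3 J} {k : J → ℕ} {hk : M.Sc k} {a : R3} {v : J → R3}
  {hv : M.Adm v}

/-- **number of the tiles which meet a far outer tile** -/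
theorem far_nb (hC : 2 ≤ M.D0.C) {t : SIx M hk (M.φ a) hv} (ht : Far M hk (M.φ a) hv t) :
    (nbT (Te (meshS M hk (M.φ a) hv)) t).ncard ≤ 1029 := by
  classical
  have key : ∀ l ∈ nbT (Te (meshS M hk (M.φ a) hv)) t, ∃ y : R3,
      y ∈ P ((meshS M hk (M.φ a) hv).H l) ∧ y ∈ P ((meshS M hk (M.φ a) hv).H t) := by
    rintro l ⟨y, h1, h2⟩
    exact ⟨w2 y, (Crest.Agent.R096.Ttr_622.mem_P_tr _ _).1 h1,
      (Crest.Agent.R096.Ttr_622.mem_P_tr _ _).1 h2⟩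
  rcases (nbT (Te (meshS M hk (M.φ a) hv)) t).eq_empty_or_nonempty with h0 | ⟨l0, hl0⟩
  · rw [h0]; simp
  obtain ⟨y0, -, hy0⟩ := key l0 hl0
  obtain ⟨p, hp, hpR⟩ := touch_far ht hy0 hy0
  have : Nonempty (M.OIx hk (M.φ a) hv) := ⟨p⟩
  have one : ∀ l : SIx M hk (M.φ a) hv, ∃ (pp : M.OIx hk (M.φ a) hv) (y : R3),
      l ∈ nbT (Te (meshS M hk (M.φ a) hv)) t → l = oS M hk (M.φ a) hv pp ∧
      Rgo M hk (M.φ a) hv pp ∧ y ∈ P ((meshS M hk (M.φ a) hv).H l) ∧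
      y ∈ P ((meshS M hk (M.φ a) hv).H t) := by
    intro l
    by_cases hl : l ∈ nbT (Te (meshS M hk (M.φ a) hv)) t
    · obtain ⟨y, hy, hyt⟩ := key l hl
      obtain ⟨pp, hpp, hppR⟩ := touch_far ht hyt hy
      exact ⟨pp, y, fun _ => ⟨hpp, hppR, hy, hyt⟩⟩
    · exact ⟨p, 0, fun h => absurd h hl⟩
  choose pp yy hpy using one
  obtain ⟨hfin, hcard⟩ := Crest.Agent.R096.Nbr_896.tile_card (M.ad hk (M.φ a) hv).D (M.φ y0)
    p.1.par.1.1.k 1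
  refine (ncard_le_ncard_of_injOn (fun l => (pp l).1.par) (fun l hl => ?_) ?_ hfin).trans
    (hcard.trans (by norm_num))
  · obtain ⟨e1, e2, e3, e4⟩ := hpy l hl
    have f1 : M.φ (yy l) ∈ Zr (Dw M k) p.1.par.1.1.k := hpR.sub_Zr (hp ▸ e4)
    have f2 : M.φ (yy l) ∈ Zr (Dw M k) (pp l).1.par.1.1.k := e2.sub_Zr (e1 ▸ e3)
    have f3 : p.1.par.1.1.k ≤ (pp l).1.par.1.1.k + 1 := scale_near (D := Dw M k) hC f2 f1
    have f4 : (pp l).1.par.1.1.k ≤ p.1.par.1.1.k + 1 := scale_near (D := Dw M k) hC f1 f2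
    have f5 : yy l ∈ M.φ ⁻¹' Cu (M.φ a) (pp l).1.par.1.1.k (pp l).1.par.1.1.z := by
      rw [← e2.P_eq, ← e1]; exact e3
    have f6 : yy l ∈ M.φ ⁻¹' Cu (M.φ a) p.1.par.1.1.k p.1.par.1.1.z := by
      rw [← hpR.P_eq, ← hp]; exact e4
    have f7 : y0 ∈ M.φ ⁻¹' Cu (M.φ a) p.1.par.1.1.k p.1.par.1.1.z := by
      rw [← hpR.P_eq, ← hp]; exact hy0
    refine ⟨f3, f4, M.φ (yy l), f5, ?_⟩
    rw [dist_pi_le_iff (by positivity)]
    intro i
    have g1 := mem_Cu.1 f6 i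
    have g2 := mem_Cu.1 f7 i
    unfold ps at g1 g2
    rw [Real.dist_eq, Nat.cast_one, abs_le, le_div_iff₀ (by positivity), ← neg_div,
      div_le_iff₀ (by positivity)]
    constructor <;> nlinarith [g1.1, g1.2, g2.1, g2.2]
  · intro l hl l' hl' hll
    obtain ⟨e1, e2, -, -⟩ := hpy l hl
    obtain ⟨e1', e2', -, -⟩ := hpy l' hl'
    simp only at hll
    rw [e1, e1']
    exact e2.inj e2' (by rw [hll]) (by rw [hll])

section cls

variable {s : Finset (SIx M hk (M.φ a) hv)} {pr : (Te (meshS M hk (M.φ a) hv)).Cell → Prop}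

/-- **CLASS (1): the sum of `J` over far outer tiles against `muE`** -/
theorem outer_J (hS : Std M) {K0 : ℕ} (hK0 : ∀ y, M.D0.ρ y ≤ M.D0.C / 2 ^ K0) (hC : 2 ≤ M.D0.C)
    {X : Sys s (reps (Te (meshS M hk (M.φ a) hv)) s pr)} {Om' : Set R3} {g : R3 → ℝ≥0∞}
    (D : EF X Om' g (EgS (Te (meshS M hk (M.φ a) hv)) s)
      (FcS (Te (meshS M hk (M.φ a) hv)) s pr)) {c : SIx M hk (M.φ a) hv → E3}
    (hc : ∀ i, c i ∈ I ((Te (meshS M hk (M.φ a) hv)).H i))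
    (hXF : ∀ x : reps (Te (meshS M hk (M.φ a) hv)) s pr,
      FaceOf (Te (meshS M hk (M.φ a) hv)) c (x : E3) (X.F x))
    (hXP : ∀ t : s, (X.C t).P = P ((Te (meshS M hk (M.φ a) hv)).H t))
    (hfc : ∀ b, D.fc b = w2 '' b.1.set)
    (hrE : ∀ x, D.rimE x = rimS (Te (meshS M hk (M.φ a) hv)) s (x : E3))
    (hEe : ∀ b : EgS (Te (meshS M hk (M.φ a) hv)) s, ∀ y w : R3,
      w2 '' b.1.set = segment ℝ y (y + w) →
      D.Ee b ≤ ENNReal.ofReal (64 * ‖w‖) * ∫⁻ σ in Ioc (0:ℝ) 1, g (y + σ • w)) {CE : ℝ≥0∞}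
    (hEf : ∀ (b : FcS (Te (meshS M hk (M.φ a) hv)) s pr) (e' : Fin 2 → R3) (x' : R3)
      (Q' : Set (ℝ × ℝ)), (∀ i, ‖e' i‖ = 1) → inner ℝ (e' 0) (e' 1) = 0 → MeasurableSet Q' →
      w2 '' b.1.set = pt e' x' '' Q' → D.Ef b ≤ CE * ∫⁻ w in Q', g (pt e' x' w))
    {K : Finset s} (hK : ∀ t ∈ K, Far M hk (M.φ a) hv t) {r : s → ℝ≥0}
    (hr : ∀ t ∈ K, ∀ x : reps (Te (meshS M hk (M.φ a) hv)) s pr,
      (t : SIx M hk (M.φ a) hv) ∈ (Te (meshS M hk (M.φ a) hv)).at_ (x : E3) → (X.F x).ρ ≤ r t)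
    {S : Set R3} (hSm : MeasurableSet S)
    (hKS : ∀ t ∈ K, ∀ t' : SIx M hk (M.φ a) hv, (P ((meshS M hk (M.φ a) hv).H t) ∩
      P ((meshS M hk (M.φ a) hv).H t')).Nonempty → P ((meshS M hk (M.φ a) hv).H t') ⊆ S)
    {Λ : ℝ≥0}
    (hR : ∀ t ∈ K, ∀ p, (t : SIx M hk (M.φ a) hv) = oS M hk (M.φ a) hv p →
      ((X.C t).R : ℝ) ≤ Λ * (1 / 2 ^ (p.1.par.1.1.k + 1)) ∧
      (r t : ℝ) ≤ Λ * (1 / 2 ^ (p.1.par.1.1.k + 1))) :
    ∑ t ∈ K, D.J t ≤ (1580544 * (Λ:ℝ≥0∞) ^ 2 + 384 * Λ * CE) *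
      ∫⁻ y in S, g y ∂(muE M.φ (Dw M k) K0 a) := by
  classical
  have hKS' : ∀ t ∈ K, P ((meshS M hk (M.φ a) hv).H t) ⊆ S := by
    intro t ht
    rcases (P ((meshS M hk (M.φ a) hv).H (t : SIx M hk (M.φ a) hv))).eq_empty_or_nonempty with
      h0 | h0
    · rw [h0]; exact empty_subset _
    · exact hKS t ht _ (by rwa [inter_self])
  have key := sum_J_cls (g := g) D hc hXF hXP hfc hrE hEe K (n := 1029) hr
    (fun t ht => (ncard_faces_le _ s pr _).trans (far_nb hC (hK t ht))) hSm (a := a)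
    (fun b hb => outer_hE hS hK0 hK hKS' (Rr := fun t => (X.C t).R) (rr := r) hR b hb)
    (fun b K' hK' hb => outer_hm hK b K' hK' hb)
    (Cf := 2 * Λ * CE) (e := eF) (xx := xF K0) (Q := sF K0) (wf := wF K0)
    (Af := fun q => Zg M.φ (Dw M k) (K0 + q.1))
    (fun b hb => outer_hF hS hK0 hC hK hKS (Rr := fun t => (X.C t).R)
      (fun t ht p h => (hR t ht p h).1) (Ef := D.Ef) hEf b hb)
    (fun b K' hK' hb => outer_hm' hS hK0 hC hK b K' hK' hb)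
  rw [muO_eq] at key
  refine key.trans ?_
  have e1 : ∫⁻ y in S, g y ∂(muE M.φ (Dw M k) K0 a) =
      ∫⁻ y in S, g y ∂(muO M.φ (Dw M k) K0 a) +
        ∫⁻ y in S, g y ∂(muOF M.φ (Dw M k) K0 a) := by
    unfold muE
    rw [Measure.restrict_add, lintegral_add_measure]
  rw [e1]
  set A := ∫⁻ y in S, g y ∂(muO M.φ (Dw M k) K0 a)
  have e2 : ∫⁻ y in S, g y ∂(trM (fcM (xF K0) eF (sF K0) (wF K0))
      (fun q => Zg M.φ (Dw M k) (K0 + q.1)) a) =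
      ∫⁻ y in S, g y ∂(muOF M.φ (Dw M k) K0 a) := rfl
  rw [e2]
  set B := ∫⁻ y in S, g y ∂(muOF M.φ (Dw M k) K0 a)
  have e3 : (64 * ((1029 : ℕ) : ℝ≥0∞) * (Λ:ℝ≥0∞) ^ 2) * (((24 : ℕ) : ℝ≥0∞) * A) =
      1580544 * (Λ:ℝ≥0∞) ^ 2 * A := by
    push_cast
    ring
  have e4 : (2 * Λ * CE) * (((192 : ℕ) : ℝ≥0∞) * B) = 384 * Λ * CE * B := by
    push_cast
    ring
  rw [e3, e4, mul_add]
  gcongr
  · exact le_self_add
  · exact le_add_self

end cls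

end

end Crest.Agent.R096.Elf_565
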