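import Crest.Agent.R096.Elc2_812
import Crest.Agent.R096.Rmt6_816
import Crest.Agent.R96.Cl1a_538

/-!
# Row 96 (helper812), p ≤ 2: **(EL) IS CLOSED**: `elP`, from 538 / 565's `cls1`, 816's `cls2`, `cls3`
-/

set_option autoImplicit false

namespace Crest.Agent.R096.Elc_812

/-- **(EL) of 753's `preIN_frame`** -/
theorem elP {p : ℝ} (hp : 1 ≤ p) (hp2 : p ≤ 2) : Pas_753.ElP p Crest.Agent.R96.Eld_538.Els :=
  elP_of hp hp2 Crest.Agent.R96.Eld_538.cls1 Crest.Agent.R096.Rmt_816.cls2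
    Crest.Agent.R096.Rmt_816.cls3

end Crest.Agent.R096.Elc_812
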