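import Crest.Agent.R096.Asq2_895
import Crest.Agent.R096.Elc3_812

/-!
# Row 96, S0127: two open leaves, `DOORS` and `ONE` (helper895, assembly)
-/

set_option autoImplicit false
set_option linter.style.longLine false

namespace Crest.Agent.R096.Asq_895

open MeasureTheory Metric Set Filter Topology
open scoped ENNReal Gradient NNReal
open Crest.AnalysisR.VecCalc3 Crest.AnalysisR.Sobolev

/-- (O) of 753's frame for 538's `Els` -/
def ONE : Prop := ∀ p : ℝ, 1 ≤ p → p ≤ 2 → Pas_753.OneP p Crest.Agent.R96.Eld_538.Els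

theorem elone (h : ONE) : ELONE := fun p hp h2 =>
  ⟨Crest.Agent.R96.Eld_538.Els, Elc_812.elP hp h2, h p hp h2⟩

/-- **S0127 from `DOORS` and `ONE`** -/
theorem s0127_doors_one (hD : DOORS) (hO : ONE)
    (Ω Λ : Set R3) (hΩo : IsOpen Ω) (hΩb : Bornology.IsBounded Ω) (hΩc : IsConnected Ω)
    (hΛo : IsOpen Λ) (hΛb : Bornology.IsBounded Λ) (hΛc : IsConnected Λ)
    (p : ℝ) (hp : 1 ≤ p) (f : R3 → R3) (hf : IsHomeomorphOn f Ω Λ)
    (hfp : MemLp f (ENNReal.ofReal p) (volume.restrict Ω))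
    (G : Fin 3 → R3 → R3) (hG : ∀ j : Fin 3, HasWeakGradOn Ω (fun x => f x j) (G j))
    (hGp : ∀ j : Fin 3, MemLp (G j) (ENNReal.ofReal p) (volume.restrict Ω))
    (ε : ℝ≥0∞) (hε : 0 < ε) :
    ∃ g : R3 → R3, IsSmoothDiffeoOn g Ω Λ ∧ MemLp g (ENNReal.ofReal p) (volume.restrict Ω) ∧
      (∀ j : Fin 3, MemLp (fun x => ∇ (fun y => g y j) x) (ENNReal.ofReal p) (volume.restrict Ω)) ∧
      ∫⁻ x in Ω, (‖g x - f x‖ₑ ^ p + ∑ j : Fin 3, ‖∇ (fun y => g y j) x - G j x‖ₑ ^ p) < ε :=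
  s0127_two hD (elone hO) Ω Λ hΩo hΩb hΩc hΛo hΛb hΛc p hp f hf hfp G hG hGp ε hε

end Crest.Agent.R096.Asq_895
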