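import Crest.Agent.R096.Nmd1_698
import Crest.Agent.R096.Leaf3_965

/-!
# Row 96, DOORS: the numbers of record, part 3 (helper698)

`Chl` (965) and the numbers of the strips (543 / 914: `tb = 7μ/32`, `σ' = μ/4`).
-/

set_option autoImplicit false

open Set

namespace Crest.Agent.R096.Nmd1_698


open Crest.Agent.R096.Exa_560 (Cn Cn_nonneg)
open Crest.Agent.R096.Brk5_582 (Cs Cs_nonneg)
open Crest.Agent.R096.Rop_441 (η0F η0F_nonneg θN ηN Num)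
open Crest.Agent.R096.Leaf_965 (Chl)

variable {δ κ0 R c0 κ2 μ κ1 : ℝ}

theorem NumD.chl_le (h : NumD δ κ0 R c0 κ2 μ κ1) :
    Chl δ κ0 R c0 κ2 * κ1 ≤ η0F δ κ0 R c0 κ2 κ1 := by
  have h1 := h.cn0
  have e : η0F δ κ0 R c0 κ2 κ1 = Chl δ κ0 R c0 κ2 * κ1 + Cn δ R * κ1 := by
    unfold η0F Chl; ring
  rw [e]; linarith

/-- **`Chl κ1` is small** -/
theorem NumD.chl (h : NumD δ κ0 R c0 κ2 μ κ1) : 4194304 * (Chl δ κ0 R c0 κ2 * κ1) ≤ μ := by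
  have h1 := h.chl_le
  have h2 := h.eta.2
  linarith

/-- 914 `hT_tile` : `hη` -/
theorem NumD.chl_tb (h : NumD δ κ0 R c0 κ2 μ κ1) : Chl δ κ0 R c0 κ2 * κ1 < 7 * μ / 32 := by
  have h1 := h.chl
  linarith [h.hμ]

theorem NumD.chl_mu (h : NumD δ κ0 R c0 κ2 μ κ1) : Chl δ κ0 R c0 κ2 * κ1 < μ := by
  have h1 := h.chl
  linarith [h.hμ]

theorem NumD.chl_s1 (h : NumD δ κ0 R c0 κ2 μ κ1) : Chl δ κ0 R c0 κ2 * κ1 < μ / 32 := by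
  have h1 := h.chl
  linarith [h.hμ]

/-- 914 : `hσ : tb + 2 ε ≤ σ'`, `hsb : s₁ ≤ tb + ε`, `0 < tb` with `tb = 7μ/32`, `σ' = μ/4` -/
theorem NumD.strip (h : NumD δ κ0 R c0 κ2 μ κ1) :
    0 < 7 * μ / 32 ∧ μ / 32 ≤ 7 * μ / 32 + κ1 ∧ 7 * μ / 32 + κ1 ≤ μ / 4 ∧
      7 * μ / 32 + 2 * κ1 ≤ μ / 4 := by
  obtain ⟨n1, n2, n3, n4, n5, -⟩ := h.base
  refine ⟨?_, ?_, ?_, ?_⟩ <;> linarith

/-- 914 : `ht` for the levels of `Levels.marg` -/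
theorem NumD.lv (h : NumD δ κ0 R c0 κ2 μ κ1) {t : ℝ} (ht : μ ≤ t ∧ t ≤ 1 - μ) :
    t ∈ Icc (7 * μ / 32) (1 - 7 * μ / 32) ∧ t ∈ Icc (μ / 4) (1 - μ / 4) ∧
      t ∈ Icc (μ / 32) (1 - μ / 32) ∧ 0 < t ∧ t < 1 := by
  have h0 := h.hμ
  refine ⟨⟨?_, ?_⟩, ⟨?_, ?_⟩, ⟨?_, ?_⟩, ?_, ?_⟩ <;> linarith [ht.1, ht.2]

/-- 914 `h12` -/
theorem NumD.h12 (h : NumD δ κ0 R c0 κ2 μ κ1) : 2 * κ0 * κ1 ≤ κ2 := h.num.hκ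

/-- 847 `dich_cut` with `s₁ = μ/32`, `α = 3μ/8`, `l = 3μ/16 + Cn κ1`, `l1 = μ/8` -/
theorem NumD.dich (h : NumD δ κ0 R c0 κ2 μ κ1) :
    0 ≤ μ / 32 ∧ μ / 32 + κ1 ≤ 3 * μ / 8 ∧ μ / 32 + κ1 + (3 * μ / 16 + Cn δ R * κ1) < 1 ∧
      μ / 32 + κ1 < μ / 8 ∧ μ / 32 + κ1 < 5 * μ / 32 - Cn δ R * κ1 - κ1 := by
  obtain ⟨n1, n2, n3, n4, n5, -⟩ := h.base
  refine ⟨?_, ?_, ?_, ?_, ?_⟩ <;> linarith

/-- 527 `vIn_mach` : `hl : l + ε < s'` with `l = 3μ/16 + Cn κ1`, `s' = μ/4` -/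
theorem NumD.vin (h : NumD δ κ0 R c0 κ2 μ κ1) : 3 * μ / 16 + Cn δ R * κ1 + κ1 < μ / 4 := by
  obtain ⟨n1, n2, n3, n4, n5, -⟩ := h.base; linarith

end Crest.Agent.R096.Nmd1_698
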