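import Mathlib
import Crest.Agent.R096.Csub3_487

/-!
# R096 (row 96), helper487.  199's `tile_piece_T`, `tile_fam_T` over 117's index type `QK b`
(cells outside the cores and giant cells): constants of an ordinary tile.
-/

set_option autoImplicit false
set_option linter.unusedSectionVars false

open Set Metric Filter Topology Module

namespace Crest.Agent.R096.Csub_487

open Crest.Agent.R096.Ce_537 Crest.Agent.R096.Bd_416 Crest.Agent.R096.Msh_715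
open Crest.Agent.R096.Lm_117
open Crest.Agent.R96.Nu3_199 Crest.Agent.R96.Nu5_199 Crest.Agent.R96.Nu6_199
open Crest.Agent.R96.Nu7_199 Crest.Agent.R96.Nu8_199

open scoped Classical

noncomputable section

variable {E : Type} [NormedAddCommGroup E] [NormedSpace ℝ E] [FiniteDimensional ℝ E]
variable {Om Ω' : Set E} {ι κ : Type} {T : Tiling Om ι} {Kc : κ → Set E} {p : T.Cell → Prop}
variable {bl : Bel {c : T.Cell // p c} κ}
variable {J Fam : Type} {C : Cmb (QK bl) (dimK bl fun c => c.1.dim) J Fam} {R : Set (QK bl)}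
  {K₀ ε : ℝ} {b : ℕ → ℝ} {wt : J → ℝ} {δ : QK bl → ℝ} {g0 : Gd E J}
  {P0 : ∀ q, C.I q → Set E} {c0 : ∀ q, C.I q → E → ℝ}

/-- the configuration of a tile contains all cells below it -/
theorem cfg_QK {i : ι} {q : {c : T.Cell // p c}} (hqi : q.1.set = P (T.H i)) (B : E ≃ᵃ[ℝ] E)
    {σ : QK bl} (hσ : σ ≤ QK.c bl q) :
    B '' setK bl (fun c => c.1.set) Kc σ ∈ CfgB T i B := by
  obtain ⟨d, rfl, hd⟩ := QK.le_c hσ
  have hσ' : d.1 ≤ q.1 := hd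
  exact mem_image_of_mem _ (mem_Cfg (hqi ▸ Tiling.Cell.le_def.1 hσ'))

theorem inj_QK {q : {c : T.Cell // p c}} {σ σ' : QK bl} (hσ : σ ≤ QK.c bl q)
    (hσ' : σ' ≤ QK.c bl q)
    (h : setK bl (fun c => c.1.set) Kc σ = setK bl (fun c => c.1.set) Kc σ') : σ = σ' := by
  obtain ⟨d, rfl, -⟩ := QK.le_c hσ
  obtain ⟨d', rfl, -⟩ := QK.le_c hσ'
  have h1 : d.1 = d'.1 := Tiling.Cell.ext h
  rw [Subtype.ext h1]

/-- **THE PIECES OF AN ORDINARY TILE IN THE FRAME `B`** (complex with giant cells) -/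
theorem tile_piece_QK
    (X : Cplx Ω' (QK bl) (dimK bl fun c => c.1.dim) (setK bl (fun c => c.1.set) Kc))
    (h2 : 2 ≤ finrank ℝ E) (hw : ∀ j, 0 < wt j) (hb0 : ∀ n, 0 < b n)
    (hK : 0 ≤ K₀) (hδ : ∀ q, 0 < δ q)
    (hδ2 : ∀ q, 0 < WE X C wt q → ∀ σ ≤ q, δ σ ≤ WE X C wt q)
    {i : ι} {q : {c : T.Cell // p c}} (hqi : q.1.set = P (T.H i))
    (hqd : q.1.dim = finrank ℝ E)
    (hne : ∀ σ ≤ QK.c bl q, 2 ≤ dimK bl (fun c => c.1.dim) σ → ∀ x : C.I σ,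
      ∃ e, ∃ h : e < σ, dimK bl (fun c => c.1.dim) e = 1 ∧ ∃ y : C.I e, C.up h y = x)
    {Spec : ∀ q : QK bl, Lam (setK bl (fun c => c.1.set) Kc q) (C.I q) → Prop}
    {g : Gd E J} {P : C.I (QK.c bl q) → Set E} {c : C.I (QK.c bl q) → E → ℝ}
    (hT : Trk C (setK bl (fun c => c.1.set) Kc) R g0 P0 c0 b Spec (fun _ => FrA E) wt
      (LamS X C K₀ ε b wt δ) (finrank ℝ E + 1) (QK.c bl q) g P c)
    (B : E ≃ᵃ[ℝ] E) (x : C.I (QK.c bl q)) {z : E} (hz : z ∈ q.1.set) :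
    LB B (2 * C𝒦 K₀ ε b (finrank ℝ E) (CfgB T i B) * WE X C wt (QK.c bl q) /
      wt (C.col (QK.c bl q) x)) (c x) q.1.set z :=
  tile_piece (dim := dimK bl fun c => c.1.dim) (K := setK bl (fun c => c.1.set) Kc)
    (q := QK.c bl q) X hw hb0 hK hδ hδ2 (show 2 ≤ q.1.dim by rw [hqd]; exact h2) (show q.1.dim ≤ finrank ℝ E from hqd.le)
    (finite_CfgB T i B) (fun _ hσ => cfg_QK hqi B hσ)
    (fun _ hσ _ hσ' h => inj_QK hσ hσ' h) hne hT x hz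

/-- **THE FAMILIES OF AN ORDINARY TILE IN THE FRAME `B`** (complex with giant cells) -/
theorem tile_fam_QK
    (X : Cplx Ω' (QK bl) (dimK bl fun c => c.1.dim) (setK bl (fun c => c.1.set) Kc))
    (h2 : 2 ≤ finrank ℝ E) (hw : ∀ j, 0 < wt j) (hb0 : ∀ n, 0 < b n)
    (hK : 0 ≤ K₀) (hδ : ∀ q, 0 < δ q)
    (hδ2 : ∀ q, 0 < WE X C wt q → ∀ σ ≤ q, δ σ ≤ WE X C wt q)
    {i : ι} {q : {c : T.Cell // p c}} (hqi : q.1.set = P (T.H i))
    (hqd : q.1.dim = finrank ℝ E)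
    (hne : ∀ σ ≤ QK.c bl q, 2 ≤ dimK bl (fun c => c.1.dim) σ → ∀ x : C.I σ,
      ∃ e, ∃ h : e < σ, dimK bl (fun c => c.1.dim) e = 1 ∧ ∃ y : C.I e, C.up h y = x)
    {Spec : ∀ q : QK bl, Lam (setK bl (fun c => c.1.set) Kc q) (C.I q) → Prop}
    {D' : Set (QK bl)} {g : Gd E J} {P : ∀ q, C.I q → Set E} {c : ∀ q, C.I q → E → ℝ}
    (H : Inv C (setK bl (fun c => c.1.set) Kc) D' g P c) (hqD : QK.c bl q ∈ D')
    (hT : Trk C (setK bl (fun c => c.1.set) Kc) R g0 P0 c0 b Spec (fun _ => FrA E) wt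
      (LamS X C K₀ ε b wt δ) (finrank ℝ E + 1) (QK.c bl q) g (P (QK.c bl q)) (c (QK.c bl q)))
    (S : Finset J) (hS : ∀ j ∈ S, ∀ j' ∈ S, C.fam j = C.fam j') (B : E ≃ᵃ[ℝ] E) {z : E}
    (hz : z ∈ q.1.set) :
    LB B (2 * C𝒦 K₀ ε b (finrank ℝ E) (CfgB T i B) * WE X C wt (QK.c bl q))
      (fun w => ∑ j ∈ S, wt j * g.G j w) q.1.set z :=
  tile_fam (dim := dimK bl fun c => c.1.dim) (K := setK bl (fun c => c.1.set) Kc)
    (q := QK.c bl q) X hw hb0 hK hδ hδ2 (show 2 ≤ q.1.dim by rw [hqd]; exact h2) (show q.1.dim ≤ finrank ℝ E from hqd.le)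
    (finite_CfgB T i B) (fun _ hσ => cfg_QK hqi B hσ)
    (fun _ hσ _ hσ' h => inj_QK hσ hσ' h) hne H hqD hT S hS hz

end

end Crest.Agent.R096.Csub_487
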