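import Mathlib
import Crest.Agent.R096.Csub4_487
import Crest.Agent.R096.Lm10_117

/-!
# R096 (row 96), helper487.  The complex over the index type of 117's `lmK` (Lm10_117), and 199's
constants for an ordinary tile of it.
-/

set_option autoImplicit false
set_option linter.unusedSectionVars false

open Set Metric Filter Topology Module

namespace Crest.Agent.R096.Csub_487

open Crest.Agent.R096.Ce_537 Crest.Agent.R096.Bd_416 Crest.Agent.R096.Msh_715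
open Crest.Agent.R096.Lm_117 (QK Bel dimK OutK belK lmK)
open Crest.Agent.R96.Nu3_199 Crest.Agent.R96.Nu5_199 Crest.Agent.R96.Nu6_199
open Crest.Agent.R96.Nu7_199 Crest.Agent.R96.Nu8_199

open scoped Classical

noncomputable section

variable {E : Type} [NormedAddCommGroup E] [NormedSpace ℝ E] [FiniteDimensional ℝ E]
variable {Om : Set E} {ι κ : Type} {T : Tiling Om ι} {Kc : κ → Set E}

/-- my `setK` is 117's `setK` -/
theorem setK_eq : setK (belK T Kc) (fun c => c.1.set) Kc = Lm_117.setK T Kc := by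
  funext j
  rcases j with q | k
  · rfl
  · rfl

/-- the cells in the tiles outside the cores = the cells which miss the interiors -/
theorem outK_iff (hH : ∀ k, CoreH T (Kc k)) (hdis : ∀ k l, k ≠ l → Disjoint (Kc k) (Kc l))
    (c : T.Cell) : OutK T Kc c ↔ c ∈ DK T Kc :=
  (mem_DK_iff (fun k => (hH k).core.closed) (fun k => (hH k).cc) (fun k => (hH k).sub) hdis).symm

/-- **THE COMPLEX OF 117's LABELLED MESH WITH GIANT CELLS** -/
theorem cplx_lmK (h3 : finrank ℝ E = 3) (hH : ∀ k, CoreH T (Kc k))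
    (hdis : ∀ k l, k ≠ l → Disjoint (Kc k) (Kc l))
    (hball : ∀ k, IsBall 3 (Kc k) (frontier (Kc k))) :
    Cplx Om (QK (belK T Kc)) (dimK (belK T Kc) fun c => c.1.dim) (Lm_117.setK T Kc) := by
  rw [← setK_eq]
  exact cplx_QK_tile h3 (fun k => (hH k).core) (fun k => (hH k).cc) (fun k => (hH k).sub) hdis
    hball (outK_iff hH hdis) (belK T Kc) (fun _ _ => Iff.rfl)

variable {J Fam : Type} {C : Cmb (QK (belK T Kc)) (dimK (belK T Kc) fun c => c.1.dim) J Fam}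
  {R : Set (QK (belK T Kc))} {K₀ ε : ℝ} {b : ℕ → ℝ} {wt : J → ℝ} {δ : QK (belK T Kc) → ℝ}
  {g0 : Gd E J} {P0 : ∀ q, C.I q → Set E} {c0 : ∀ q, C.I q → E → ℝ} {Ω' : Set E}

/-- **THE PIECES OF AN ORDINARY TILE IN THE FRAME `B`**, index type of `lmK` -/
theorem tile_piece_lmK
    (X : Cplx Ω' (QK (belK T Kc)) (dimK (belK T Kc) fun c => c.1.dim) (Lm_117.setK T Kc))
    (h2 : 2 ≤ finrank ℝ E) (hw : ∀ j, 0 < wt j) (hb0 : ∀ n, 0 < b n)
    (hK : 0 ≤ K₀) (hδ : ∀ q, 0 < δ q)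
    (hδ2 : ∀ q, 0 < WE X C wt q → ∀ σ ≤ q, δ σ ≤ WE X C wt q)
    {i : ι} {q : {c : T.Cell // OutK T Kc c}} (hqi : q.1.set = P (T.H i))
    (hqd : q.1.dim = finrank ℝ E)
    (hne : ∀ σ ≤ QK.c (belK T Kc) q, 2 ≤ dimK (belK T Kc) (fun c => c.1.dim) σ → ∀ x : C.I σ,
      ∃ e, ∃ h : e < σ, dimK (belK T Kc) (fun c => c.1.dim) e = 1 ∧ ∃ y : C.I e, C.up h y = x)
    {Spec : ∀ q : QK (belK T Kc), Lam (Lm_117.setK T Kc q) (C.I q) → Prop}
    {g : Gd E J} {P : C.I (QK.c (belK T Kc) q) → Set E}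
    {c : C.I (QK.c (belK T Kc) q) → E → ℝ}
    (hT : Trk C (Lm_117.setK T Kc) R g0 P0 c0 b Spec (fun _ => FrA E) wt
      (LamS X C K₀ ε b wt δ) (finrank ℝ E + 1) (QK.c (belK T Kc) q) g P c)
    (B : E ≃ᵃ[ℝ] E) (x : C.I (QK.c (belK T Kc) q)) {z : E} (hz : z ∈ q.1.set) :
    LB B (2 * C𝒦 K₀ ε b (finrank ℝ E) (CfgB T i B) * WE X C wt (QK.c (belK T Kc) q) /
      wt (C.col (QK.c (belK T Kc) q) x)) (c x) q.1.set z :=
  tile_piece (dim := dimK (belK T Kc) fun c => c.1.dim) (K := Lm_117.setK T Kc)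
    (q := QK.c (belK T Kc) q) X hw hb0 hK hδ hδ2 (show 2 ≤ q.1.dim by rw [hqd]; exact h2)
    (show q.1.dim ≤ finrank ℝ E from hqd.le) (finite_CfgB T i B)
    (fun _ hσ => by
      have h := cfg_QK (Kc := Kc) hqi B hσ
      rwa [setK_eq] at h)
    (fun σ hσ σ' hσ' h => inj_QK (Kc := Kc) hσ hσ' (by rw [setK_eq]; exact h)) hne hT x hz

/-- **THE FAMILIES OF AN ORDINARY TILE IN THE FRAME `B`**, index type of `lmK` -/
theorem tile_fam_lmK
    (X : Cplx Ω' (QK (belK T Kc)) (dimK (belK T Kc) fun c => c.1.dim) (Lm_117.setK T Kc))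
    (h2 : 2 ≤ finrank ℝ E) (hw : ∀ j, 0 < wt j) (hb0 : ∀ n, 0 < b n)
    (hK : 0 ≤ K₀) (hδ : ∀ q, 0 < δ q)
    (hδ2 : ∀ q, 0 < WE X C wt q → ∀ σ ≤ q, δ σ ≤ WE X C wt q)
    {i : ι} {q : {c : T.Cell // OutK T Kc c}} (hqi : q.1.set = P (T.H i))
    (hqd : q.1.dim = finrank ℝ E)
    (hne : ∀ σ ≤ QK.c (belK T Kc) q, 2 ≤ dimK (belK T Kc) (fun c => c.1.dim) σ → ∀ x : C.I σ,
      ∃ e, ∃ h : e < σ, dimK (belK T Kc) (fun c => c.1.dim) e = 1 ∧ ∃ y : C.I e, C.up h y = x)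
    {Spec : ∀ q : QK (belK T Kc), Lam (Lm_117.setK T Kc q) (C.I q) → Prop}
    {D' : Set (QK (belK T Kc))} {g : Gd E J} {P : ∀ q, C.I q → Set E}
    {c : ∀ q, C.I q → E → ℝ}
    (H : Inv C (Lm_117.setK T Kc) D' g P c) (hqD : QK.c (belK T Kc) q ∈ D')
    (hT : Trk C (Lm_117.setK T Kc) R g0 P0 c0 b Spec (fun _ => FrA E) wt
      (LamS X C K₀ ε b wt δ) (finrank ℝ E + 1) (QK.c (belK T Kc) q) g
      (P (QK.c (belK T Kc) q)) (c (QK.c (belK T Kc) q)))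
    (S : Finset J) (hS : ∀ j ∈ S, ∀ j' ∈ S, C.fam j = C.fam j') (B : E ≃ᵃ[ℝ] E) {z : E}
    (hz : z ∈ q.1.set) :
    LB B (2 * C𝒦 K₀ ε b (finrank ℝ E) (CfgB T i B) * WE X C wt (QK.c (belK T Kc) q))
      (fun w => ∑ j ∈ S, wt j * g.G j w) q.1.set z :=
  tile_fam (dim := dimK (belK T Kc) fun c => c.1.dim) (K := Lm_117.setK T Kc)
    (q := QK.c (belK T Kc) q) X hw hb0 hK hδ hδ2 (show 2 ≤ q.1.dim by rw [hqd]; exact h2)
    (show q.1.dim ≤ finrank ℝ E from hqd.le) (finite_CfgB T i B)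
    (fun _ hσ => by
      have h := cfg_QK (Kc := Kc) hqi B hσ
      rwa [setK_eq] at h)
    (fun σ hσ σ' hσ' h => inj_QK (Kc := Kc) hσ hσ' (by rw [setK_eq]; exact h)) hne H hqD hT S hS hz

end

end Crest.Agent.R096.Csub_487
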