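import Crest.Agent.R096.Twr8_438

/-!
# Row 96, DOORS-TOWER, part 9 (helper438): **`Twrs` exists** (all cores, all families)

`trace S s a`  : the pattern of the family `a` on the sphere of a core.
`TIn`          : the input: shells with `Sph`, `Circ`, `Con`, far vertices, exact patterns `d c a`.
`exists_twrs`  : number of layers and towers for all cores and all families.
-/

set_option autoImplicit false

namespace Crest.Agent.R096.Twr_438

open Crest.Agent.R096.St_147 Crest.Agent.R096.Seq_213 Crest.Agent.R096.Door_501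
  Crest.Agent.R096.Qp_106 Classical

section tgt

variable {ι Φ W : Type} {M : MeshC ι Φ W} {k : ι} {Vx Ed : Type} {S : Shell M k Vx Ed}
variable {I : Type} {col : I → Bool}

/-- no essential curve, no target -/
theorem tgt_empty {v0 v1 : Vx} {t d : St S.sph col} (rk : I → ℝ) (ht : t.P = ∅) (hd : d.P = ∅) :
    Tgt S v0 v1 t d rk := by
  have h1 : ∀ w, w ∉ t.P := fun w h => by rw [ht] at h; exact Finset.notMem_empty w h
  have h2 : ∀ w, w ∉ d.P := fun w h => by rw [hd] at h; exact Finset.notMem_empty w h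
  exact
  { on_s := fun w hw => absurd hw (h1 w)
    on_d := fun w hw => absurd hw (h2 w)
    disj := by rw [ht]; exact Finset.disjoint_empty_left _
    conn_s := fun w hw => absurd hw (h1 w)
    conn_d := fun w hw => absurd hw (h2 w)
    ess_s := fun w hw => absurd hw (h1 w)
    ess_d := fun w hw => absurd hw (h2 w)
    ex_s := fun w hw => absurd hw (h2 w)
    ex_d := fun w hw => absurd hw (h1 w)
    nl := fun _ w _ hw => absurd hw (h1 w)
    rk_inj := fun w hw => absurd hw (h2 w)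
    ord_t := fun w hw => absurd hw (h1 w)
    ord_s := fun w hw => absurd hw (h1 w)
    ord_d := fun w hw => absurd hw (h2 w) }

end tgt

section tr

variable {ι Φ W J C : Type} {M : MeshC ι Φ W} {k : ι} {Vx Ed : Type} {fam : J → C}

/-- the trace of the family `a` on the sphere of a core -/
noncomputable def trace (S : Shell M k Vx Ed) (s : GSt M fam) (a : C) :
    St S.sph (fun _ : J => true) where
  P := (Set.Finite.subset (s.fin a)
    (show {w | w ∈ s.P ∧ fam (s.lab w) = a ∧ ∃ e, w ∈ S.OnE e} ⊆ _ from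
      fun _ hw => ⟨hw.1, hw.2.1⟩)).toFinset
  lab := s.lab
  mu := fun G w => s.mu G.1 w
  mu_mem := by
    intro G w hw hG
    rw [Set.Finite.mem_toFinset] at hw ⊢
    obtain ⟨h1, h2, h3⟩ := hw
    have h4 := s.mu_mem h1 hG
    obtain ⟨e, _, _, he⟩ := (S.onE G.2).1 h4.2
    exact ⟨⟨h4.1, by rw [s.mu_lab h1 hG]; exact h2, e, he⟩, h4.2⟩
  mu_ne := by
    intro G w hw hG
    rw [Set.Finite.mem_toFinset] at hw
    exact s.mu_ne hw.1 hG
  mu_mu := by
    intro G w hw hG
    rw [Set.Finite.mem_toFinset] at hw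
    exact s.mu_mu hw.1 hG
  mu_lab := by
    intro G w hw hG
    rw [Set.Finite.mem_toFinset] at hw
    exact s.mu_lab hw.1 hG
  nc := by
    intro G w x hw hG hx hG' _ h1 h2
    rw [Set.Finite.mem_toFinset] at hw hx
    exact s.nc hw.1 hG hx.1 hG' (by rw [hw.2.1, hx.2.1]) h1 h2

theorem mem_trace {S : Shell M k Vx Ed} {s : GSt M fam} {a : C} {w : W} :
    w ∈ (trace S s a).P ↔ w ∈ s.P ∧ fam (s.lab w) = a ∧ ∃ e, w ∈ S.OnE e := by
  show w ∈ Set.Finite.toFinset _ ↔ _
  rw [Set.Finite.mem_toFinset]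
  exact Iff.rfl

end tr

/-- disjoint windows -/
theorem exists_offsets {C : Type} (n : C → ℕ) (F : Finset C) :
    ∃ (N : C → ℕ) (B : ℕ), (∀ a ∈ F, N a + n a ≤ B) ∧
      ∀ a ∈ F, ∀ b ∈ F, a ≠ b → N a + n a ≤ N b ∨ N b + n b ≤ N a := by
  induction F using Finset.induction_on with
  | empty =>
    exact ⟨fun _ => 0, 0, fun a ha => absurd ha (Finset.notMem_empty a),
      fun a ha => absurd ha (Finset.notMem_empty a)⟩
  | insert x F hx ih =>
    obtain ⟨N, B, h1, h2⟩ := ih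
    have e1 : ∀ a ∈ F, Function.update N x B a = N a := fun a ha =>
      Function.update_of_ne (fun h => hx (by rw [← h]; exact ha)) _ _
    have e2 : Function.update N x B x = B := Function.update_self _ _ _
    refine ⟨Function.update N x B, B + n x, ?_, ?_⟩
    · intro a ha
      rcases Finset.mem_insert.1 ha with rfl | ha
      · rw [e2]
      · rw [e1 a ha]
        have := h1 a ha
        omega
    · intro a ha b hb hab
      rcases Finset.mem_insert.1 ha with hax | ha'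
      · rcases Finset.mem_insert.1 hb with hbx | hb'
        · exact (hab (hax.trans hbx.symm)).elim
        · right
          rw [e1 b hb', hax, e2]
          exact h1 b hb'
      · rcases Finset.mem_insert.1 hb with hbx | hb'
        · left
          rw [e1 a ha', hbx, e2]
          exact h1 a ha'
        · rw [e1 a ha', e1 b hb']
          exact h2 a ha' b hb' hab

variable {ι0 Φ0 W J C : Type} {M0 : MeshC ι0 Φ0 W} {κ : Type} {k0 : κ → ι0}
  {Vx Ed : κ → Type} {fam : J → C}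

/-- the input of the tower theorem -/
structure TIn [∀ c, Fintype (Ed c)] (S : ∀ c, Shell M0 (k0 c) (Vx c) (Ed c)) (s : GSt M0 fam)
    (d : ∀ c (_ : C), St (S c).sph (fun _ : J => true)) where
  sph : ∀ c, (S c).Sph
  circ : ∀ c, (S c).Circ
  con : ∀ c, (S c).Con
  v0 : ∀ c (_ : C), Vx c
  v1 : ∀ c (_ : C), Vx c
  hv0 : ∀ c a, ∃ e b, (S c).en e b = v0 c a
  hv1 : ∀ c a, ∃ e b, (S c).en e b = v1 c a
  rk : ∀ (_ : κ) (_ : C), J → ℝ
  tgt : ∀ c a, Tgt (S c) (v0 c a) (v1 c a)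
    (essSt (S c) (v0 c a) (v1 c a) (trace (S c) s a)) (d c a) (rk c a)
  d_fam : ∀ {c a w}, w ∈ (d c a).P → fam ((d c a).lab w) = a
  d_new : ∀ {c a w}, w ∈ (d c a).P → w ∉ s.P
  d_dis : ∀ {c a b w}, w ∈ (d c a).P → w ∈ (d c b).P → a = b
  fin_c : ∀ c, {a | (trace (S c) s a).P.Nonempty ∨ (d c a).P.Nonempty}.Finite
  fin_a : ∀ a, {c | (trace (S c) s a).P.Nonempty ∨ (d c a).P.Nonempty}.Finite
  on : ∀ w ∈ s.P, ∃ F0, w ∈ M0.On F0

/-- **the towers exist** -/
theorem exists_twrs [∀ c, Fintype (Ed c)] [Nonempty J]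
    {S : ∀ c, Shell M0 (k0 c) (Vx c) (Ed c)} {s : GSt M0 fam}
    {d : ∀ c (_ : C), St (S c).sph (fun _ : J => true)} (D : TIn S s d) (m : κ → ℕ) :
    ∃ (n : κ → ℕ) (T : Twrs S n s), (∀ c, 0 < n c ∧ m c ≤ n c) ∧
      (∀ c a, ((T.tw c a).pat (n c)).P = (d c a).P ∧
        (∀ w ∈ (d c a).P, ((T.tw c a).pat (n c)).lab w = (d c a).lab w) ∧
        ∀ F, ∀ w ∈ (d c a).P, w ∈ (S c).sph.On F →
          ((T.tw c a).pat (n c)).mu F w = (d c a).mu F w) ∧
      (∀ c a, (T.tw c a).pat 0 = trace (S c) s a) ∧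
      (∀ c a j, Fits (trace (S c) s a) (d c a) ((T.tw c a).pat j)) ∧
      ∀ c a j, ∀ v ∈ ((T.tw c a).mv j).Qv,
        Rgn (S c) (D.v0 c a) (D.v1 c a) (trace (S c) s a) (d c a) ((T.tw c a).mv j).i0 v := by
  obtain ⟨i0⟩ := ‹Nonempty J›
  have hch : ∀ c a, ∃ n u, Chn (Tame (Rgn (S c) (D.v0 c a) (D.v1 c a) (trace (S c) s a) (d c a))
      (Fits (trace (S c) s a) (d c a))) n (trace (S c) s a) u ∧
      Fits (trace (S c) s a) (d c a) u ∧ u.P = (d c a).P ∧
      (∀ w ∈ (d c a).P, u.lab w = (d c a).lab w) ∧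
      ∀ F, ∀ w ∈ (d c a).P, w ∈ (S c).sph.On F → u.mu F w = (d c a).mu F w := fun c a =>
    exists_chain ((S c).sphSh_Sph (D.sph c)) ((S c).sphSh_Circ (D.circ c))
      ((S c).sphSh_Con (D.con c)) (D.hv0 c a) (D.hv1 c a) (fun _ _ => rfl) _ _
      (fun w hw => (mem_trace.1 hw).2.2) (D.tgt c a)
  choose nn u c1 c2 c3 c4 c5 using hch
  have hF : ∀ c, ∃ (N : C → ℕ) (B : ℕ), (∀ a ∈ (D.fin_c c).toFinset, N a + nn c a ≤ B) ∧
      ∀ a ∈ (D.fin_c c).toFinset, ∀ b ∈ (D.fin_c c).toFinset, a ≠ b →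
        N a + nn c a ≤ N b ∨ N b + nn c b ≤ N a := fun c => exists_offsets (nn c) _
  choose N B hB hdis using hF
  have hs : ∀ c a, ∀ w ∈ (trace (S c) s a).P, ∃ e, w ∈ (S c).OnE e :=
    fun c a w hw => (mem_trace.1 hw).2.2
  have hLs : ∀ c a, Fits (trace (S c) s a) (d c a) (trace (S c) s a) :=
    fun c a w hw => Or.inl ⟨hw, rfl, fun _ _ => rfl⟩
  have htw : ∀ c a, ∃ T : Twr (S c) J, T.pat 0 = trace (S c) s a ∧
      (∀ j, B c + 1 + m c ≤ j → (T.pat j).P = (d c a).P ∧
        (∀ w ∈ (d c a).P, (T.pat j).lab w = (d c a).lab w) ∧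
        ∀ F, ∀ w ∈ (d c a).P, w ∈ (S c).sph.On F → (T.pat j).mu F w = (d c a).mu F w) ∧
      (∀ j, Tm (Rgn (S c) (D.v0 c a) (D.v1 c a) (trace (S c) s a) (d c a))
        (Fits (trace (S c) s a) (d c a)) (T.pat j) (T.mv j)) ∧
      ∀ j, (T.mv j).Qv.Nonempty → a ∈ (D.fin_c c).toFinset ∧ N c a ≤ j ∧ j < N c a + nn c a := by
    intro c a
    by_cases ha : a ∈ (D.fin_c c).toFinset
    · obtain ⟨T, t1, t2, t3, t4⟩ := exists_window i0 (c1 c a) (hLs c a) (c2 c a) (hs c a) (N c a)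
      refine ⟨T, t1, fun j hj => ?_, t4, fun j hj => ⟨ha, ?_, ?_⟩⟩
      · have h1 := hB c a ha
        rw [(t2 j (by omega)).1]
        exact ⟨c3 c a, c4 c a, c5 c a⟩
      · by_contra h
        rw [t3 j (not_le.1 h)] at hj
        exact Finset.not_nonempty_empty hj
      · by_contra h
        rw [(t2 j (not_lt.1 h)).2] at hj
        exact Finset.not_nonempty_empty hj
    · have h1 : (trace (S c) s a).P = ∅ := by
        by_contra h
        exact ha ((D.fin_c c).mem_toFinset.2 (Or.inl (Finset.nonempty_iff_ne_empty.2 h)))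
      have h2 : (d c a).P = ∅ := by
        by_contra h
        exact ha ((D.fin_c c).mem_toFinset.2 (Or.inr (Finset.nonempty_iff_ne_empty.2 h)))
      refine ⟨idle (trace (S c) s a) i0 (hs c a), rfl, fun j _ => ?_,
        fun j => triv_tm _ i0 (hs c a) (hLs c a), fun j hj => ?_⟩
      · refine ⟨h1.trans h2.symm, fun w hw => ?_, fun F w hw => ?_⟩
        · rw [h2] at hw
          exact absurd hw (Finset.notMem_empty w)
        · rw [h2] at hw
          exact absurd hw (Finset.notMem_empty w)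
      · exact absurd hj Finset.not_nonempty_empty
  choose T t1 t2 t3 t4 using htw
  have hfam : ∀ c a j w, w ∈ ((T c a).pat j).P →
      (w ∈ s.P ∧ ((T c a).pat j).lab w = s.lab w ∧ fam (s.lab w) = a) ∨
      (w ∈ (d c a).P ∧ ((T c a).pat j).lab w = (d c a).lab w) := by
    intro c a j w hw
    rcases (t3 c a j).1 w hw with ⟨h1, h2, _⟩ | ⟨h1, h2, _⟩
    · exact Or.inl ⟨(mem_trace.1 h1).1, h2, (mem_trace.1 h1).2.1⟩
    · exact Or.inr ⟨h1, h2⟩
  have hlab : ∀ c a j w, w ∈ ((T c a).pat j).P → fam (((T c a).pat j).lab w) = a := by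
    intro c a j w hw
    rcases hfam c a j w hw with ⟨_, h2, h3⟩ | ⟨h1, h2⟩
    · rw [h2]; exact h3
    · rw [h2]; exact D.d_fam h1
  refine ⟨fun c => B c + 1 + m c,
    { tw := T
      P0 := fun c a w => by
        rw [t1 c a]
        exact mem_trace
      lab0 := fun {c a w} _ => by rw [t1 c a]; rfl
      mu0 := fun {c a G w} _ _ => by rw [t1 c a]; rfl
      labj := fun {c a j w} hw => hlab c a j w hw
      dis := ?_
      labv := ?_
      disv := ?_
      fin := ?_
      on := D.on }, ?_, ?_, t1, fun c a j => (t3 c a j).1, ?_⟩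
  · intro c a b j w h1 h2
    rcases hfam c a j w h1 with ⟨g1, _, g3⟩ | ⟨g1, _⟩ <;>
      rcases hfam c b j w h2 with ⟨g1', _, g3'⟩ | ⟨g1', _⟩
    · exact g3.symm.trans g3'
    · exact (D.d_new g1' g1).elim
    · exact (D.d_new g1 g1').elim
    · exact D.d_dis g1 g1'
  · intro c a j v hv
    obtain ⟨_, w, hw, hi⟩ := (t3 c a j).2 v hv
    rw [hi]
    exact hlab c a j w hw
  · intro c a b j v h1 h2
    obtain ⟨a1, a2, a3⟩ := t4 c a j ⟨v, h1⟩
    obtain ⟨b1, b2, b3⟩ := t4 c b j ⟨v, h2⟩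
    by_contra hab
    rcases hdis c a a1 b b1 hab with h | h <;> omega
  · intro a
    refine (D.fin_a a).subset ?_
    rintro c ⟨j, _, h⟩
    rcases h with ⟨w, hw⟩ | ⟨v, hv⟩
    · rcases (t3 c a j).1 w hw with ⟨h1, _⟩ | ⟨h1, _⟩
      · exact Or.inl ⟨w, h1⟩
      · exact Or.inr ⟨w, h1⟩
    · exact (D.fin_c c).mem_toFinset.1 (t4 c a j ⟨v, hv⟩).1
  · intro c
    show 0 < B c + 1 + m c ∧ m c ≤ B c + 1 + m c
    exact ⟨by omega, by omega⟩
  · intro c a
    exact t2 c a _ le_rfl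
  · intro c a j v hv
    exact ((t3 c a j).2 v hv).1

end Crest.Agent.R096.Twr_438
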