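import Crest.Agent.R096.Vrt2_422
import Crest.Agent.R096.Door9_501
import Crest.Agent.R096.Twr9_438

/-!
# R096 (row 96), DOORS (helper422): vertical paths of the layered mesh, part 3: 501's layered state:
the columns over the vertices which are not in 438's regions.
-/

set_option autoImplicit false
set_option linter.unusedSectionVars false

open Set Relation Module

namespace Crest.Agent.R096.Vrt_422

open Crest.Agent.R096.St_147 Crest.Agent.R096.Seq_213 Crest.Agent.R096.Seq_213.GSt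
  Crest.Agent.R096.Lm_117 Crest.Agent.R096.Ac_117
  Crest.Agent.R096.Cp_298 Crest.Agent.R096.Msh_715 Crest.Agent.R096.Agl5_543
  Crest.Agent.R096.Ori_543 Crest.Agent.R096.Coh_184 Crest.Agent.R096.Gl_422
  Crest.Agent.R096.Sla_184 Crest.Agent.R096.Sla_184.Sla Crest.Agent.R096.Door_501
  Crest.Agent.R096.Twr_438

section rgn

variable {ι Φ W : Type} {M : MeshC ι Φ W} {k : ι} {Vx Ed : Type} {S : Shell M k Vx Ed} {I : Type}
  {col : I → Bool}

/-- an edge of the sphere without points of `B` -/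
def SE (S : Shell M k Vx Ed) (B : Set W) (x y : Vx) : Prop :=
  ∃ e b, S.en e b = x ∧ S.en e (!b) = y ∧ ∀ w ∈ S.OnE e, w ∉ B

theorem SE.symm {B : Set W} {x y : Vx} (h : SE S B x y) : SE S B y x := by
  obtain ⟨e, b, h1, h2, h3⟩ := h
  exact ⟨e, !b, h2, by rw [Bool.not_not]; exact h1, h3⟩

open Classical in
/-- labels are constant along uncrossed edges -/
theorem lbl_path [Fintype Ed] (hS : S.sphSh.Sph) (A : Crv S.sphSh) (v0 : Vx) {x y : Vx}
    {B : Set W} (hA : ∀ w ∈ A.C, w ∈ B) (h : ReflTransGen (SE S B) x y) :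
    lbl S.sphSh v0 A.C x = lbl S.sphSh v0 A.C y := by
  have h1 := (lbl_spec hS A v0).1
  induction h with
  | refl => rfl
  | @tail p q _ hs ih =>
    rw [ih]
    obtain ⟨e, b, rfl, rfl, h3⟩ := hs
    have h2 := h1 e
    have h4 : (A.C.filter fun w => w ∈ S.sphSh.OnE e) = ∅ := by
      rw [Finset.eq_empty_iff_forall_notMem]
      intro w hw
      obtain ⟨g1, g2⟩ := Finset.mem_filter.1 hw
      exact h3 w g2 (hA w g1)
    rw [h4, Finset.card_empty, Nat.cast_zero] at h2
    have key : ∀ p q : ZMod 2, p + q = 0 → p = q := by decide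
    have h5 : lbl S.sphSh v0 A.C (S.en e false) = lbl S.sphSh v0 A.C (S.en e true) := key _ _ h2
    cases b
    · exact h5
    · exact h5.symm

/-- **a vertex which is joined with `v0` or `v1` by uncrossed edges is in no region** -/
theorem not_rgn [Fintype Ed] (hS : S.sphSh.Sph) {v0 v1 v : Vx} {s d : St S.sph col}
    (hs : ∀ w ∈ s.P, ∃ e, w ∈ S.OnE e) (hd : ∀ w ∈ d.P, ∃ e, w ∈ S.OnE e)
    (hd1 : ∀ w ∈ d.P, lbl S.sphSh v0 (comp true d w) v1 = 1)
    (h : ReflTransGen (SE S {w | w ∈ s.P ∨ w ∈ d.P}) v0 v ∨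
      ReflTransGen (SE S {w | w ∈ s.P ∨ w ∈ d.P}) v1 v) (i : I) : ¬ Rgn S v0 v1 s d i v := by
  have ks : ∀ w, ∀ x y, ReflTransGen (SE S {w | w ∈ s.P ∨ w ∈ d.P}) x y →
      lbl S.sphSh v0 (comp true s w) x = lbl S.sphSh v0 (comp true s w) y := fun w x y hp =>
    lbl_path hS (cc S.sphSh s hs w) v0 (fun z hz => Or.inl (mem_comp.1 hz).1) hp
  have kd : ∀ w, ∀ x y, ReflTransGen (SE S {w | w ∈ s.P ∨ w ∈ d.P}) x y →
      lbl S.sphSh v0 (comp true d w) x = lbl S.sphSh v0 (comp true d w) y := fun w x y hp =>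
    lbl_path hS (cc S.sphSh d hd w) v0 (fun z hz => Or.inr (mem_comp.1 hz).1) hp
  have zs : ∀ w, lbl S.sphSh v0 (comp true s w) v0 = 0 := fun w =>
    (lbl_spec hS (cc S.sphSh s hs w) v0).2
  have zd : ∀ w, lbl S.sphSh v0 (comp true d w) v0 = 0 := fun w =>
    (lbl_spec hS (cc S.sphSh d hd w) v0).2
  rintro (⟨w, hw, hl, h1, h2⟩ | ⟨w, hw, w', hw', hl, hl', h1, h2⟩)
  · rcases h with h | h
    · rw [← ks w _ _ h, zs] at h2
      exact absurd h2 (by decide)
    · rw [← ks w _ _ h, h1] at h2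
      exact absurd h2 (by decide)
  · rcases h with h | h
    · rw [← ks w _ _ h, ← kd w' _ _ h, zs, zd] at h2
      exact absurd h2 (by decide)
    · rw [← ks w _ _ h, ← kd w' _ _ h, h1, hd1 w' hw'] at h2
      exact absurd h2 (by decide)

end rgn

variable {E : Type} [NormedAddCommGroup E] [NormedSpace ℝ E] [FiniteDimensional ℝ E]
variable {Om : Set E} {ι κ : Type} {T : Tiling Om ι} {S : Sla T κ} {c : κ} {j : ℕ}
  {h3 : finrank ℝ E = 3} {C J : Type} {fam : J → C} {s : GSt (S.m0 h3) fam}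
  {Tw : Twrs (S.sh h3) S.n s} {l0 : E → J}

/-- **the points of the layered state on the columns** -/
theorem pts_col {w : E} {v : S.Vx c} (hw : w ∈ ((Twrs.rel (S.cols h3) Tw).st l0).P)
    (hO : w ∈ S.O c v.1) (hL : S.InL c j w) :
    v ∈ ((Tw.tw c (fam (((Twrs.rel (S.cols h3) Tw).st l0).lab w))).mv j).Qv := by
  obtain ⟨i, hi⟩ := hw
  have hlab : ((Twrs.rel (S.cols h3) Tw).st l0).lab w = i := RelSt.lab_eq _ hi
  rcases hi with ⟨h1, -⟩ | ⟨c', a, j', u, h0, hj', hu, he, -⟩ | ⟨c', a, j', v', hj', hv', he, h5⟩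
  · exfalso
    obtain ⟨F0, hF⟩ := Tw.on w h1
    have h2 := set_out F0 hF.1
    exact h2.2 c hL.bo.1
  · exfalso
    obtain ⟨e, hue⟩ := Twrs.onE hu
    have h2 : S.OnS c' j' w := by rw [he]; exact hp_onS e hue hj'
    exact hL.not_onS h2
  · have e1 : w = S.vc c' v'.1 j' := he
    have h2 : S.InL c' j' w := by rw [e1]; exact vc_inL (vx_bd v') hj'
    have hc : c = c' := S.core_unique hL.1 h2.1
    subst hc
    have hj : j = j' := layer_inj hL h2
    subst hj
    have h4 : w ∈ S.O c v'.1 := by rw [e1]; exact vc_O (vx_bd v') j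
    have hvv : v = v' := vx_eq (O_trans (vx_bd v) hO (O_symm (vx_bd v') h4))
    subst hvv
    rw [hlab, h5, Tw.labv hv']
    exact hv'

/-- **columns over vertices outside of the regions have no points** -/
theorem col_free {v : S.Vx c} {a : C}
    (hQ : ∀ i, i < S.n c → v ∉ ((Tw.tw c a).mv i).Qv) :
    ∀ i < S.n c, ∀ w ∈ ((Twrs.rel (S.cols h3) Tw).st l0).P, w ∈ S.O c v.1 → S.InL c i w →
      fam (((Twrs.rel (S.cols h3) Tw).st l0).lab w) ≠ a := by
  intro i hi w hw hO hL ha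
  have := pts_col hw hO hL
  rw [ha] at this
  exact hQ i hi this

end Crest.Agent.R096.Vrt_422
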