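import Crest.Agent.R096.Rop8_441
import Crest.Agent.R096.Vrt3_422
import Crest.Agent.R096.Dfi4_471
import Crest.Agent.R096.Csub5_487
import Crest.Agent.R096.Slt1_471

/-!
# R096 (row 96), ROPES (helper441), part 9: `Env` over 117's `lmK` for the sliced tiling

Any tiling with cores: `tcK_inl`, `le_tcK`, `setK_tcK`, `mid_K`, `ed_le_K`.
The sliced tiling `S.T3` (`S : Sla T κ`) with the shrunk cores `S.KK`: `NoS`, `tiS`, **`env_S`**.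
-/

set_option autoImplicit false
set_option linter.unusedSectionVars false

open Set Relation Module

namespace Crest.Agent.R096.Rop_441

open Crest.Agent.R096.Brk1_582 Crest.Agent.R096.Brk2_582 Crest.Agent.R096.Brk3_582
  Crest.Agent.R096.Brk5_582 Crest.Agent.R096.Bsp_628 Crest.Agent.R096.Init_543
  Crest.Agent.R096.Vb_965 Crest.Agent.R096.Msh_715 Crest.Agent.R096.St_147
  Crest.Agent.R096.Seq_213 Crest.Agent.R096.Lm_117 Crest.Agent.R096.Gl_422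
  Crest.Agent.R096.SkB_662 Crest.Agent.R096.Cpo_642
  Crest.Agent.R096.Ce_537 Crest.Agent.R096.Agl5_543
  Crest.Agent.R096.Cp_298 Crest.Agent.R096.Gm_298 Crest.Agent.R096.Ac_117
  Crest.Agent.R096.Sla_184 Crest.Agent.R096.Sla_184.Sla
open Crest.Agent.R096.SkC1_961 (E3 Hom3 FoamD)
open Crest.Agent.R096.Mbf_337 (KJ sb)
open Crest.Agent.R096.Gia_537 (Kc Kc_sub Kc_compact Kc_disj Kc_exact)

section lmK

variable {E : Type} [NormedAddCommGroup E] [NormedSpace ℝ E] [FiniteDimensional ℝ E]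
variable {Om : Set E} {ι : Type} {T : Tiling Om ι} {κ : Type} {Kg : κ → Set E} [Nonempty T.Cell]
variable {h3 : finrank ℝ E = 3} {hH : ∀ c, CoreH T (Kg c)}
  {hdis : ∀ c c', c ≠ c' → Disjoint (Kg c) (Kg c')} {hne : ∃ c, OutK T Kg c}

theorem out_tile {q : ι} (h : ∀ k, ¬ P (T.H q) ⊆ Kg k) : OutK T Kg (tcell T q) :=
  out_tcell fun ⟨k, hk⟩ => h k hk

theorem tcK_inl {q : ι} (h : ∀ k, ¬ P (T.H q) ⊆ Kg k) :
    tcK T Kg (Sum.inl q) = oc (tcell T q) (out_tile h) := by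
  show tcK0 T Kg q = _
  unfold tcK0
  rw [dif_neg fun ⟨k, hk⟩ => h k hk]
  rfl

theorem setK_tcK {q : ι} (h : ∀ k, ¬ P (T.H q) ⊆ Kg k) :
    setK T Kg (tcK T Kg (Sum.inl q)) = P (T.H q) := by
  rw [tcK_inl h]
  exact tcell_set q

theorem le_tcK {q : ι} (h : ∀ k, ¬ P (T.H q) ⊆ Kg k) {x : QK (belK T Kg)} :
    x ≤ tcK T Kg (Sum.inl q) ↔ ∃ c, ∃ hc : OutK T Kg c, x = oc c hc ∧ c.set ⊆ P (T.H q) := by
  rw [tcK_inl h]
  constructor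
  · intro hx
    rcases x with c | k
    · have h1 : c.1 ≤ tcell T q := hx
      refine ⟨c.1, c.2, rfl, ?_⟩
      have h2 : c.1.set ⊆ (tcell T q).set := h1
      rwa [tcell_set] at h2
    · exact False.elim hx
  · rintro ⟨c, hc, rfl, h1⟩
    show c.set ⊆ (tcell T q).set
    rw [tcell_set]; exact h1

theorem mid_K {q : ι} (h : ∀ k, ¬ P (T.H q) ⊆ Kg k) {e : QK (belK T Kg)}
    (he : dimK (belK T Kg) (fun c => c.1.dim) e = 1) (hle : e ≤ tcK T Kg (Sum.inl q)) :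
    ∃ F, e ≤ (lmK h3 hH hdis hne).cf F ∧ Sum.inl q ∈ (mK h3 hH hdis).side F := by
  obtain ⟨c, hc, rfl, h1⟩ := (le_tcK h).1 hle
  obtain ⟨F, h2, h4⟩ := Onb_63.exists_faceK h3 hH hdis h (show c.dim = 1 from he) h1
  exact ⟨F, h2, h4⟩

theorem ed_K {w : E} (hw : w ∈ (lmK h3 hH hdis hne).W1) :
    ∃ h', (lmK h3 hH hdis hne).ed w = oc (edC T w) h' := by
  have h1 : ((lmO h3 hH hdis hne).ed w).1 = edC T w := edO_eq hw
  have h' : OutK T Kg (edC T w) := h1 ▸ ((lmO h3 hH hdis hne).ed w).2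
  refine ⟨h', ?_⟩
  show QK.c _ ((lmO h3 hH hdis hne).ed w) = _
  unfold oc
  congr 1
  exact Subtype.ext h1

theorem ed_le_K {w : E} (hw : w ∈ (lmK h3 hH hdis hne).W1) {q : ι}
    (h : ∀ k, ¬ P (T.H q) ⊆ Kg k) :
    (lmK h3 hH hdis hne).ed w ≤ tcK T Kg (Sum.inl q) ↔ w ∈ P (T.H q) := by
  obtain ⟨h', e⟩ := ed_K hw
  have hO : w ∈ Om := (mem_W1K.1 hw).1
  rw [e, le_tcK h]
  constructor
  · rintro ⟨c, hc, h1, h2⟩
    have h4 : edC T w = c := congrArg (fun x : {c : T.Cell // OutK T Kg c} => x.1) (Sum.inl.inj h1)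
    rw [← h4, edC_set hO] at h2
    exact h2 (T.self_mem_cc w)
  · intro h1
    refine ⟨_, h', rfl, ?_⟩
    rw [edC_set hO]
    exact T.cc_sub_tile h1

end lmK

section sla

variable {δ κ0 R c0 : ℝ} {La Om : Set E3} {ι : Type} {Φ : FoamD δ κ0 R c0 La}
  {T : Tiling Om ι} {f g : E3 → E3} {κ1 κ2 s₁ : ℝ} {X : Set Φ.F} {J0 J V : Φ.F → Set ι}
  {ct : Φ.F → ι}
  {A : Φ.F → E3 ≃ᵃ[ℝ] E3} {lam : Φ.F → ℝ} {z : Φ.F → E3} {θ : Φ.F → E3 → E3} {φ : Φ.F → E3 → ℝ}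
  {ct' : Φ.F → ι} {r₀ : Φ.F → ℝ}
  {κ : Type} {S : Sla T κ}

/-- the tile of the original tiling of a tile of the sliced tiling (arbitrary at the giants) -/
noncomputable def tiS (S : Sla T κ) [Nonempty ι] : T.RIdx S.HH ⊕ κ → ι :=
  Sum.elim (fun p => p.tile) fun _ => Classical.arbitrary ι

/-- the tiles outside all cores -/
def NoS (Φ : FoamD δ κ0 R c0 La) (J : Φ.F → Set ι) (S : Sla T κ) : Set (T.RIdx S.HH ⊕ κ) :=
  {q | ∃ i, ∃ hi : ∀ c, ¬ P (T.H i) ⊆ S.K c, i ∉ KorJ Φ J ∧ q = Sum.inl (S.ot i hi)}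

/-- the cores of `S` are cores of the machine data -/
def SubK (Φ : FoamD δ κ0 R c0 La) (J : Φ.F → Set ι) (S : Sla T κ) : Prop :=
  ∀ i c, P (T.H i) ⊆ S.K c → i ∈ KorJ Φ J

theorem SubK.out (h : SubK Φ J S) {i : ι} (hi : i ∉ KorJ Φ J) (c : κ) : ¬ P (T.H i) ⊆ S.K c :=
  fun hc => hi (h i c hc)

theorem not_KK_ot {i : ι} (hi : ∀ c, ¬ P (T.H i) ⊆ S.K c) (c : κ) :
    ¬ P (S.T3.H (S.ot i hi)) ⊆ S.KK c := fun h =>
  hi c (by rw [← ot_P hi]; exact h.trans KK_K)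

variable [Nonempty S.T3.Cell] {hH : ∀ c, CoreH S.T3 (S.KK c)} {hne : ∃ c, OutK S.T3 S.KK c}
  {Kq : Type} {Qd : Quads (T.RIdx S.HH ⊕ κ) Φ.F Kq} {Jn : Type} {fam : Jn → Φ.F}
  {s₀ : GSt (mK fr3 hH dis_KK) fam}

/-- **`Env` over `lmK`** -/
theorem env_S [Nonempty ι] (hK : SubK Φ J S)
    (hact : ∀ i (hi : ∀ c, ¬ P (T.H i) ⊆ S.K c), i ∉ KorJ Φ J → ∀ k,
      Sum.inl (S.ot i hi) ∈ Qd.Act k → ∃ k' : Init_543.QK (Pc Φ.F),
      i ∈ Act0 T (Pc Φ.F) (bc (F := Φ.F)) (RF Φ r₀) f (KorJ Φ J) s₁ k' ∧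
      ∀ c, Qd.In k c → c ∈ k'.B) :
    Env T (Pc Φ.F) (bc (F := Φ.F)) (RF Φ r₀) f (KorJ Φ J) s₁ (setK S.T3 S.KK)
      (lmK fr3 hH dis_KK hne) Qd (NoS Φ J S) (tiS S) (tcK S.T3 S.KK) where
  mid := by
    rintro q ⟨i, hi, hiJ, rfl⟩ e he heq
    exact mid_K (not_KK_ot hi) he heq
  set := by
    rintro q ⟨i, hi, hiJ, rfl⟩
    rw [setK_tcK (not_KK_ot hi), ot_P hi]
    rfl
  no := by
    rintro q ⟨i, hi, hiJ, rfl⟩
    exact hiJ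
  sur := fun q hq => ⟨Sum.inl (S.ot q (hK.out hq)), ⟨q, hK.out hq, hq, rfl⟩, rfl⟩
  act := by
    rintro q ⟨i, hi, hiJ, rfl⟩ k hk
    exact hact i hi hiJ k hk

/-- `LevOn` over `lmK` -/
theorem levOn_S (hon : ∀ w ∈ s₀.P, w ∈ (lmK fr3 hH dis_KK hne).W1)
    (hlev : ∀ w ∈ s₀.P, ∀ i, i ∉ KorJ Φ J → w ∈ P (T.H i) →
      s₁ ≤ va (Pc Φ.F) (bc (F := Φ.F)) (RF Φ r₀) f (fam (s₀.lab w)) w ∧
      va (Pc Φ.F) (bc (F := Φ.F)) (RF Φ r₀) f (fam (s₀.lab w)) w ≤ 1 - s₁) :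
    LevOn (Pc Φ.F) (bc (F := Φ.F)) (RF Φ r₀) f s₁ (setK S.T3 S.KK) (lmK fr3 hH dis_KK hne)
      s₀ (NoS Φ J S) (tcK S.T3 S.KK) := by
  rintro w hw q ⟨i, hi, hiJ, rfl⟩ hwq
  have h1 := (ed_le_K (hon w hw) (not_KK_ot hi)).1 hwq
  rw [ot_P hi] at h1
  refine ⟨?_, hlev w hw i hiJ h1⟩
  rw [setK_tcK (not_KK_ot hi), ot_P hi]
  exact h1

theorem int_S {q : T.RIdx S.HH ⊕ κ} (hq : q ∈ NoS Φ J S) {x : E3}
    (hx : x ∈ setK S.T3 S.KK (tcK S.T3 S.KK q)) (c : Φ.F) : x ∉ interior (Kc T J c) := by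
  obtain ⟨i, hi, hiJ, rfl⟩ := hq
  rw [setK_tcK (not_KK_ot hi), ot_P hi] at hx
  exact int_J hiJ hx c

end sla

end Crest.Agent.R096.Rop_441
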