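import Crest.Agent.R096.Vin2_527
import Crest.Agent.R096.Rop9_441
import Crest.Agent.R096.Sgo2_298

/-!
# Row 96, DOORS-INV (helper527), part 3: the inputs of `vIn_cut` in the machine

* `sdm_out`   : a point on an ordinary cell outside the body of the barrier is not inside (`hroot`);
* `hsep_of`   : posB of `s₃` and the positions of the barrier points of `s₂` give `hsep`;
* `hfr_s2`    : 298's `bar_frozen` for `Act a := ActR S (R a)`;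
* `vIn_mach`  : `VIn` over any `T3`.
-/

set_option autoImplicit false
set_option linter.unusedSectionVars false
set_option linter.unusedVariables false
set_option linter.style.longLine false

open Set Relation Module Topology Filter Metric

namespace Crest.Agent.R096.Vin_527

open Crest.Agent.R096.Brk1_582 Crest.Agent.R096.Brk2_582 Crest.Agent.R096.Brk3_582
open Crest.Agent.R096.Brk5_582 Crest.Agent.R096.Bsp_628
open Crest.Agent.R096.St_147 Crest.Agent.R096.Seq_213 Crest.Agent.R096.Seq_213.GSt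
open Crest.Agent.R096.Lm_117 Crest.Agent.R096.Ac_117 Crest.Agent.R096.Msh_715
open Crest.Agent.R096.Agl5_543 Crest.Agent.R096.Init_543 Crest.Agent.R096.At_241
open Crest.Agent.R096.SkC1_961 (E3 Hom3 FoamD)
open Crest.Agent.R096.Mbf_337 (KJ sb)
open Crest.Agent.R096.Frn_337 (Ti cti Lay)
open Crest.Agent.R096.SkB_662 Crest.Agent.R096.Sgd_298 Crest.Agent.R096.Qdl_662
  Crest.Agent.R096.Dinv_106 Crest.Agent.R096.Hdr_334 Crest.Agent.R096.Civ_662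
  Crest.Agent.R096.Lmx_662 Crest.Agent.R096.Gl_422 Crest.Agent.R096.Cp_298 Crest.Agent.R096.Gm_298
  Crest.Agent.R096.Rop_441
open Crest.Agent.R096.Sec_892 Crest.Agent.R096.SecW_892 Crest.Agent.R096.Cg_501

section out

variable {E : Type} [NormedAddCommGroup E] [NormedSpace ℝ E] [FiniteDimensional ℝ E]
variable {Om : Set E} {ι : Type} {T : Tiling Om ι} {κ : Type} {Kc : κ → Set E} [Nonempty T.Cell]
variable {h3 : finrank ℝ E = 3} {hH : ∀ c, CoreH T (Kc c)}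
  {hdis : ∀ c c', c ≠ c' → Disjoint (Kc c) (Kc c')} {hne : ∃ c, OutK T Kc c}
variable {J C Mo : Type} {fam : J → C}
  {s : GSt (mK h3 hH hdis) (Sum.map fam (id : Mo → Mo))} {lam : Mo → QK (belK T Kc) → ZMod 2}

/-- **a point on an ordinary cell outside the body `Dm` of the barrier `m` is not inside `m`** -/
theorem sdm_out {m : Mo} {Dm : Set E} (hZ : ∀ v ∈ ZK T Kc Dm, lam m v = 0)
    (hY : ∀ y ∈ s.P, s.lab y = Sum.inr m → y ∈ Dm) {w : E} (hw : w ∈ (lmK h3 hH hdis hne).W1)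
    {p : ι} (hp : ∀ k, ¬ P (T.H p) ⊆ Kc k) (hwp : w ∈ P (T.H p))
    (hpD : ∀ x ∈ P (T.H p), x ∉ Dm) : ¬ sdm (lmK h3 hH hdis hne) s lam m w := by
  classical
  have hle := (ed_le_K (h3 := h3) (hH := hH) (hdis := hdis) (hne := hne) hw hp).2 hwp
  have hd := (lmK h3 hH hdis hne).ed_dim w hw
  have hen := (lmK h3 hH hdis hne).en_lt _ hd false
  have hen0 := (lmK h3 hH hdis hne).en_dim _ hd false
  obtain ⟨c, hc, h1, h2⟩ := (le_tcK hp).1 (hen.le.trans hle)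
  have h4 : lam m ((lmK h3 hH hdis hne).en ((lmK h3 hH hdis hne).ed w) false) = 0 := by
    refine hZ _ ⟨⟨c, hc⟩, Or.inl (hpD _ (h2 ?_)), ?_⟩
    · rw [c.set_eq]
      exact T.self_mem_cc _
    · rw [h1]; rfl
  have h5 : (lmK h3 hH hdis hne).toSk.pre (gp s (Sum.inr m)) w = 0 := by
    refine nW_empty fun y hy h => ?_
    obtain ⟨h6, h7⟩ := mem_gp.1 hy
    have h8 : (lmK h3 hH hdis hne).ed y ≤ tcK T Kc (Sum.inl p) := by
      rw [h.2.1]; exact hle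
    exact hpD y ((ed_le_K (h3 := h3) (hH := hH) (hdis := hdis) (hne := hne) h.1 hp).1 h8)
      (hY y h6 h7)
  intro h
  have h6 : lam m ((lmK h3 hH hdis hne).en ((lmK h3 hH hdis hne).ed w) false) +
      (lmK h3 hH hdis hne).toSk.pre (gp s (Sum.inr m)) w = 1 := h
  rw [h4, h5, add_zero] at h6
  exact zero_ne_one h6

end out

section mach

variable {δ κ0 R c0 : ℝ} {La Om : Set E3} {ι ι3 : Type} {Φ : FoamD δ κ0 R c0 La}
  {T : Tiling Om ι} {T3 : Tiling Om ι3} {f g : E3 → E3} {X : Set Φ.F} {J0 : Φ.F → Set ι}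
  {ct' : Φ.F → ι} {r₀ : Φ.F → ℝ} {KK : Ti X → Set E3} {til : ι3 → ι}
  {ε s' l : ℝ} [Nonempty T3.Cell]
  {hH : ∀ k, CoreH T3 (KK k)} {hdis : ∀ k k', k ≠ k' → Disjoint (KK k) (KK k')}
  {L : Φ.F → Finset ℝ} {Mo : Type} {am : Mo → Φ.F}
  {s : GSt (mK fr3 hH hdis) (Sum.map (fun j : JJ Φ L => j.1) (id : Mo → Mo))}
  {s₃ : GSt (mK fr3 hH hdis) (fun j : JJ Φ L => j.1)}

/-- **no point of another family of `s₃` on an ordinary cell with a barrier point** -/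
theorem hsep_of (hLa : IsOpen La) (hR : InitR Φ T f g J0 ct' r₀)
    (hM : Mesh0 T (Pc Φ.F) (bc (F := Φ.F)) (RF Φ r₀) f (KorJ Φ J0) ε) (hl : l + ε < s')
    (posB : ∀ w ∈ s₃.P, ∀ i3, (∀ k', ¬ P (T3.H i3) ⊆ KK k') → w ∈ P (T3.H i3) →
      til i3 ∉ KorJ Φ J0 → ∃ x ∈ P (T.H (til i3)), Φ.lev (s₃.lab w).1 (f x) ∈ Icc s' (1 - s'))
    (hbar : ∀ m, PosM T f J0 til s (Sum.inr m) (am m) l)
    (hbK : ∀ h ∈ s.P, ∀ m, s.lab h = Sum.inr m → ∀ p, (∀ k, ¬ P (T3.H p) ⊆ KK k) →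
      h ∈ P (T3.H p) → til p ∉ KorJ Φ J0) :
    ∀ m p F F' h w, Sum.inl p ∈ (mK fr3 hH hdis).side F →
      Sum.inl p ∈ (mK fr3 hH hdis).side F' → s.At F h → s.lab h = Sum.inr m → s₃.At F' w →
      (s₃.lab w).1 = am m := by
  intro m p F F' h w hp hp' hh hhl hw
  by_contra hne
  obtain ⟨h1, h2⟩ := side_tile hh.2 hp
  obtain ⟨h4, -⟩ := side_tile hw.2 hp'
  have hK := hbK h hh.1 m hhl p h2 h1
  obtain ⟨x, hx, h5⟩ := posB w hw.1 p h2 h4 hK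
  obtain ⟨x', hx', h6⟩ := hbar m h hh.1 hhl p h2 h1 hK _ hne
  have h7 := hM.osc _ hK _ hx _ hx' (s₃.lab w).1
  rw [va_lev hLa hR hK hx, va_lev hLa hR hK hx'] at h7
  have h8 := abs_le.1 h7
  rcases h6 with h6 | h6
  · linarith [h5.1, h5.2, h8.1, h8.2]
  · linarith [h5.1, h5.2, h8.1, h8.2]

variable {hs : BSep s am} {hm : ∀ a, {m | am m = a}.Finite} {j0 : Φ.F → JJ Φ L}
  {hj0 : ∀ a, (j0 a).1 = a} {Act : Φ.F → Set (ι3 ⊕ Ti X)}
  {far : ∀ a, PN (fun j : JJ Φ L => j.1) am a → Set E3}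
  {t : ∀ a, St (mK fr3 hH hdis) (pcol (fun j : JJ Φ L => j.1) am a)}
  {Ph : Φ.F → Finset E3}

/-- **662's `VIn` for the state after CUT, machine inputs** -/
theorem vIn_mach (D : CutR s hs hm j0 hj0 Act far t Ph s₃) (hne : ∃ c, OutK T3 KK c)
    (Q : Quads (ι3 ⊕ Ti X) Φ.F (Init_543.QK (Pc Φ.F))) {b : JJ Φ L → E3}
    {lam : Mo → QK (belK T3 KK) → ZMod 2}
    (hG : ∀ m, GLab (lmK fr3 hH hdis hne) (gp s (Sum.inr m)) (lam m))
    {Dm : Mo → Set E3} (hZ : ∀ m, ∀ v ∈ ZK T3 KK (Dm m), lam m v = 0)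
    (hY : ∀ m, ∀ y ∈ s.P, s.lab y = Sum.inr m → y ∈ Dm m)
    (hb : ∀ j, b j ∈ s₃.P ∧ s₃.lab (b j) = j)
    (hbW : ∀ j, b j ∈ (lmK fr3 hH hdis hne).W1)
    (hbD : ∀ j m, ∃ p, (∀ k, ¬ P (T3.H p) ⊆ KK k) ∧ b j ∈ P (T3.H p) ∧ ∀ x ∈ P (T3.H p), x ∉ Dm m)
    (hLa : IsOpen La) (hR : InitR Φ T f g J0 ct' r₀)
    (hM : Mesh0 T (Pc Φ.F) (bc (F := Φ.F)) (RF Φ r₀) f (KorJ Φ J0) ε) (hl : l + ε < s')
    (posB : ∀ w ∈ s₃.P, ∀ i3, (∀ k', ¬ P (T3.H i3) ⊆ KK k') → w ∈ P (T3.H i3) →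
      til i3 ∉ KorJ Φ J0 → ∃ x ∈ P (T.H (til i3)), Φ.lev (s₃.lab w).1 (f x) ∈ Icc s' (1 - s'))
    (hbar : ∀ m, PosM T f J0 til s (Sum.inr m) (am m) l)
    (hbK : ∀ h ∈ s.P, ∀ m, s.lab h = Sum.inr m → ∀ p, (∀ k, ¬ P (T3.H p) ⊆ KK k) →
      h ∈ P (T3.H p) → til p ∉ KorJ Φ J0)
    (hact : ∀ a c, Sum.inr c ∉ Act a)
    (hfr : ∀ m F h, s.At F h → s.lab h = Sum.inr m → St.Frozen (mK fr3 hH hdis) (Act (am m)) F →
      ∃ c : Ti X, Sum.inr c ∈ (mK fr3 hH hdis).side F) :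
    VIn Q s₃ b am (sdm (lmK fr3 hH hdis hne) s lam) := by
  refine vIn_cut D hne Q b (lmK fr3 hH hdis hne) hG ?_
    (hsep_of hLa hR hM hl posB hbar hbK) hact hfr
  intro m i
  obtain ⟨p, h1, h2, h4⟩ := hbD i m
  exact ⟨b i, (hb i).1, (hb i).2, sdm_out (hZ m) (hY m) (hbW i) h1 h2 h4⟩

end mach

section sla

open Crest.Agent.R096.Door_501
  Crest.Agent.R096.Sla_184 Crest.Agent.R096.Twr_438 Crest.Agent.R096.Ess3_95
  Crest.Agent.R096.Dfi_539 Crest.Agent.R096.Dfi_471 Crest.Agent.R096.Exa_560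
  Crest.Agent.R096.Sgo_298

variable {E : Type} [NormedAddCommGroup E] [NormedSpace ℝ E] [FiniteDimensional ℝ E]
variable {Om : Set E} {ι : Type} {T : Tiling Om ι} {κ : Type} {S : Sla T κ}
  {h3 : finrank ℝ E = 3}

/-- **`hfr`** : a frozen face with a point of `m` lies on a giant (`Act a := ActR S (R a)`) -/
theorem hfr_s2 {J C Mo : Type} {fam : J → C} {am : Mo → C} [Nonempty (J ⊕ Mo)]
    {s : GSt (meshC T h3) (Sum.map fam (id : Mo → Mo))} {r : J ⊕ Mo → E}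
    {nb : κ → C ⊕ Mo → Prop} {v0 v1 : ∀ c, C ⊕ Mo → VxK T S.K c} {u : κ → C ⊕ Mo → E → ℝ}
    {A B : κ → C ⊕ Mo → ℝ} {L : ∀ c, C ⊕ Mo → Lev T (frontier (S.K c)) (J ⊕ Mo)}
    {Tw : Twrs (S.sh h3) S.n (outK S.hH S.dis s r)} {l0 : E → J ⊕ Mo}
    (LO : LevOut s nb u A B L) (tt : TwOut S h3 s r v0 v1 L Tw) {co : Mo → κ}
    (hnbM : ∀ c m, nb c (Sum.inr m) → co m = c) {N R : C → Set ι} (hNR : ∀ a, N a ⊆ R a)
    (hKN : ∀ a q, q ∉ N a → ∀ c, ¬ P (T.H q) ⊆ S.K c)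
    (hbar : ∀ m w, w ∈ s.P → s.lab w = Sum.inr m → ∀ q, w ∈ P (T.H q) → q ∈ N (am m)) :
    ∀ m F h, (s2 S h3 Tw l0).At F h → (s2 S h3 Tw l0).lab h = Sum.inr m →
      St.Frozen (S.mn h3) (ActR S (R (am m))) F → ∃ c : κ, Sum.inr c ∈ (S.mn h3).side F :=
  fun m F h hA hl hF => ⟨co m, bar_frozen LO tt hnbM (hNR (am m)) (hKN (am m)) (hbar m) hA hl hF⟩

end sla

end Crest.Agent.R096.Vin_527
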