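import Crest.Agent.R096.Lbc1_334
import Crest.Agent.R096.Vin3_527
import Crest.Agent.R096.Nmd3_698

/-!
# R096 (row 96), DOORS (helper662): LEAF BC of the composition, part 3

In the letters of 334's `leafBC_m`:
* `UTm` : the points near the tiny cores; `Dmm` : the body of a barrier;
* `hY_m`  : the barrier points of `s₂` are in the body; `hbD_m` : the roots are outside the bodies;
* `vIn_m` : `VIn` for the machine (527's `vIn_mach`) from the labels of the barriers.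
-/

set_option autoImplicit false
set_option linter.unusedSectionVars false
set_option linter.unusedVariables false
set_option linter.style.longLine false

open Set Topology Filter Metric Module Relation
open scoped Classical

namespace Crest.Agent.R096.Civ_662

open Crest.Agent.R096.Msh_715 Crest.Agent.R096.Coh_184 Crest.Agent.R096.Lab_184
  Crest.Agent.R096.Main_4 Crest.Agent.R096.Agl5_543
  Crest.Agent.R096.Seq_213 Crest.Agent.R096.St_147 Crest.Agent.R096.Door_501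
  Crest.Agent.R096.Twr_438 Crest.Agent.R096.Exa_560
  Crest.Agent.R096.Ess3_95 Crest.Agent.R096.Ess4_95 Crest.Agent.R096.Ac_117 Crest.Agent.R096.Lm_117
  Crest.Agent.R096.Dfi_539 Crest.Agent.R096.Dfi_471 Crest.Agent.R096.Dfo_539
  Crest.Agent.R096.Sla_184 Crest.Agent.R096.Gm_298
  Crest.Agent.R096.Brk1_582 Crest.Agent.R096.Brk2_582 Crest.Agent.R096.Brk3_582
  Crest.Agent.R096.Brk5_582 Crest.Agent.R096.Bsp_628 Crest.Agent.R096.Init_543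
  Crest.Agent.R096.Lv3_471 Crest.Agent.R096.Lv4_471 Crest.Agent.R096.Slt_471
  Crest.Agent.R096.Dib_438 Crest.Agent.R096.Frk_441
  Crest.Agent.R096.Dff_539 Crest.Agent.R096.Frs_662 Crest.Agent.R096.Qdl_662
  Crest.Agent.R096.Cg_501 Crest.Agent.R096.SecW_892 Crest.Agent.R096.Sgd_298
  Crest.Agent.R096.Dfg_539 Crest.Agent.R096.Nmd1_698 Crest.Agent.R096.Lbc_334
  Crest.Agent.R096.Gl_422 Crest.Agent.R096.Lmx_662
open Crest.Agent.R096.Gm_298 (ZK)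
open Crest.Agent.R096.Sgo_298 (RmA rout ActR ga_core)
open Crest.Agent.R096.Bse_344 (BoxP RadV kor_s2)
open Crest.Agent.R096.Mbf_337 (KJ Tiny Cores Fine sb gau)
open Crest.Agent.R096.SkC1_961 (E3 FoamD Hom3)
open Crest.Agent.R096.Frn_337 (Ti)
open Crest.Agent.R096.Ess7_95 (KT)
open Crest.Agent.R096.Ess5_95 (ga)
open Crest.Agent.R096.Dia_316 (nbT)
open Crest.Agent.R096.Bar_106 (Fs Fm Gm)
open Crest.Agent.R096.Bgf_4 (Ext)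
open Crest.Agent.R096.Vin_527 (sdm vIn_mach)

variable {δ κ0 R c0 : ℝ} {La Om : Set E3} {ι : Type} {Φ : FoamD δ κ0 R c0 La} {T : Tiling Om ι}
  {f g : E3 → E3} {κ1 κ2 μ : ℝ} {X : Set Φ.F} {J0 J V : Φ.F → Set ι}
  {ct ct' : Φ.F → ι} {Aj : Φ.F → E3 ≃ᵃ[ℝ] E3} {lam : Φ.F → ℝ} {z : Φ.F → E3}
  {θ : Φ.F → E3 → E3} {φ : Φ.F → E3 → ℝ} {r₀ : Φ.F → ℝ} {ρ1 ρ2 ρ3 ρ4 d : Φ.F → ℝ}
  {L : Φ.F → Finset ℝ}

/-- **the points near the tiny cores** -/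
def UTm (Om : Set E3) (Φ : FoamD δ κ0 R c0 La) (f : E3 → E3) (X : Set Φ.F) (ρ3 d : Φ.F → ℝ) :
    Set E3 :=
  {w | w ∈ Om ∧ ∃ c : Ti X, ga Φ c.1 (f w) ≤ ρ3 c.1 + 8 * d c.1}

/-- **the body of the barriers** at the core `c` -/
def Dmm (Om : Set E3) (Φ : FoamD δ κ0 R c0 La) (f : E3 → E3) (X : Set Φ.F) (ρ4 : Φ.F → ℝ)
    (c : Ti X) : Set E3 :=
  Om ∩ f ⁻¹' {y | ga Φ c.1 y ≤ ρ4 c.1}

variable {Mo : Type} {co : Mo → Ti X} {am : Mo → Φ.F} {Zm : Mo → Set Φ.F}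

/-- 334's `hUT` -/
theorem hUT_m (hRm : RmA Φ T f X J0 J V θ ρ1 ρ2 ρ3 ρ4 d) :
    ∀ w ∈ UTm Om Φ f X ρ3 d, ∃ (c : Ti X) (i : ι), w ∈ P (T.H i) ∧
      ∃ x ∈ P (T.H i), ga Φ c.1 (f x) ≤ ρ3 c.1 + 15 * d c.1 := by
  rintro w ⟨hw, c, hc⟩
  obtain ⟨i, hi⟩ := T.cov w hw
  exact ⟨c, i, hi, w, hi, by linarith [(hRm c.1 c.2).d0]⟩

variable [Nonempty (JJ Φ L)] [Nonempty (JJ Φ L ⊕ Mo)]
  {sB : GSt (meshC T fr3) (Sum.map (fun j : JJ Φ L => j.1) (id : Mo → Mo))}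
  {r : JJ Φ L ⊕ Mo → E3} {Sf : JJ Φ L ⊕ Mo → Set E3} {nb : Ti X → Φ.F ⊕ Mo → Prop}
  {hLa : IsOpen La} {hC : Cores Φ T f κ1 κ2 X J0 J V ct Aj lam z θ φ}
  {n : Ti X → ℕ} {hn : ∀ c, 0 < n c}
  {v0 v1 : ∀ c, Φ.F ⊕ Mo → VxK T (slC hLa hC n hn).K c} {u : Ti X → Φ.F ⊕ Mo → E3 → ℝ}
  {A B : Ti X → Φ.F ⊕ Mo → ℝ}
  {Lx : ∀ c, Φ.F ⊕ Mo → Lev T (frontier ((slC hLa hC n hn).K c)) (JJ Φ L ⊕ Mo)}
  {Tw : Twrs ((slC hLa hC n hn).sh fr3) (slC hLa hC n hn).n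
    (outK (slC hLa hC n hn).hH (slC hLa hC n hn).dis sB r)} {l0' : E3 → JJ Φ L ⊕ Mo}

/-- **the gauge of the barrier points of `s₂`** -/
theorem ga_m (hI : InitR Φ T f g J0 ct' r₀) (hRm : RmA Φ T f X J0 J V θ ρ1 ρ2 ρ3 ρ4 d)
    (D : DIn (slC hLa hC n hn).hH sB r Sf nb v0 v1 u A B)
    (lo : LevOut (Kc := (slC hLa hC n hn).K) sB nb u A B Lx)
    (tt : TwOut (slC hLa hC n hn) fr3 sB r v0 v1 Lx Tw)
    (rec : BR hLa sB f X J θ co am Zm nb v0 v1 u A B μ κ1)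
    (hga : ∀ w ∈ sB.P, ∀ m, sB.lab w = Sum.inr m →
      ga Φ (co m).1 (f w) ≤ ρ3 (co m).1 + 15 * d (co m).1) (m : Mo)
    {w : E3} (hw : w ∈ (s2 (slC hLa hC n hn) fr3 Tw l0').P)
    (hwl : (s2 (slC hLa hC n hn) fr3 Tw l0').lab w = Sum.inr m) :
    ga Φ (co m).1 (f w) ≤ ρ3 (co m).1 + 15 * d (co m).1 := by
  rcases Sla.out_or (S := slC hLa hC n hn) (s2_dim hw).1 with ho | ⟨c, hc⟩
  · obtain ⟨h1, h2, -⟩ := out2 hw ho
    exact hga w h1 m (h2.symm.trans hwl)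
  · have h1 := (in2 D lo tt hw hc).1
    rw [hwl] at h1
    have h2 : co m = c := (rec.nbm c m).1 h1
    subst h2
    have h3 : w ∈ KJ T (J (co m).1) := hc.1
    have h4 := ga_core hLa hI.hm hC hRm (co m).2 h3
    linarith [(hRm (co m).1 (co m).2).d0]

/-- **the barrier points of `s₂` are in the body** -/
theorem hY_m (hI : InitR Φ T f g J0 ct' r₀) (hRm : RmA Φ T f X J0 J V θ ρ1 ρ2 ρ3 ρ4 d)
    (D : DIn (slC hLa hC n hn).hH sB r Sf nb v0 v1 u A B)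
    (lo : LevOut (Kc := (slC hLa hC n hn).K) sB nb u A B Lx)
    (tt : TwOut (slC hLa hC n hn) fr3 sB r v0 v1 Lx Tw)
    (rec : BR hLa sB f X J θ co am Zm nb v0 v1 u A B μ κ1)
    (hga : ∀ w ∈ sB.P, ∀ m, sB.lab w = Sum.inr m →
      ga Φ (co m).1 (f w) ≤ ρ3 (co m).1 + 15 * d (co m).1) (m : Mo)
    (w : E3) (hw : w ∈ (s2 (slC hLa hC n hn) fr3 Tw l0').P)
    (hwl : (s2 (slC hLa hC n hn) fr3 Tw l0').lab w = Sum.inr m) : w ∈ Dmm Om Φ f X ρ4 (co m) := by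
  have h1 := ga_m hI hRm D lo tt rec hga m hw hwl
  have hr := hRm (co m).1 (co m).2
  refine ⟨(s2_dim hw).1, ?_⟩
  show ga Φ (co m).1 (f w) ≤ ρ4 (co m).1
  linarith [hr.r34, hr.d0]

/-- **the roots are outside the bodies** -/
theorem hbD_m (hRm : RmA Φ T f X J0 J V θ ρ1 ρ2 ρ3 ρ4 d)
    (hrV : ∀ j : JJ Φ L, ∃ q, r (Sum.inl j) ∈ P (T.H q) ∧ ∀ c ∉ X, q ∉ V c) (j : JJ Φ L)
    (c : Ti X) : ∃ p : T.RIdx (slC hLa hC n hn).HH,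
      (∀ k, ¬ P ((slC hLa hC n hn).T3.H p) ⊆ (slC hLa hC n hn).KK k) ∧
      r (Sum.inl j) ∈ P ((slC hLa hC n hn).T3.H p) ∧
      ∀ x ∈ P ((slC hLa hC n hn).T3.H p), x ∉ Dmm Om Φ f X ρ4 c := by
  obtain ⟨q, h1, h2⟩ := hrV j
  have hK : ∀ k, ¬ P (T.H q) ⊆ (slC hLa hC n hn).K k := fun k hk =>
    h2 k.1 k.2 (Nr_527.J_sub hC k.1 (Slt_471.sub_KJ_iff.1 hk))
  refine ⟨(slC hLa hC n hn).ot q hK, Lmx_662.ot_not hK, by rw [Sla.ot_P]; exact h1, ?_⟩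
  rintro x hx ⟨-, hx2⟩
  rw [Sla.ot_P] at hx
  exact h2 c.1 c.2 ((hRm c.1 c.2).v q ⟨x, hx, hx2⟩)

/-- **`VIn` FOR THE MACHINE** -/
theorem vIn_m [Nonempty (slC hLa hC n hn).T3.Cell] (N : NumD δ κ0 R c0 κ2 μ κ1)
    (hRm : RmA Φ T f X J0 J V θ ρ1 ρ2 ρ3 ρ4 d) (hI : InitR Φ T f g J0 ct' r₀)
    (hM : Mesh0 T (Pc Φ.F) (bc (F := Φ.F)) (RF Φ r₀) f (KorJ Φ J0) κ1)
    (hnC : ∃ c, OutK (slC hLa hC n hn).T3 (slC hLa hC n hn).KK c)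
    (D : DIn (slC hLa hC n hn).hH sB r Sf nb v0 v1 u A B)
    (lo : LevOut (Kc := (slC hLa hC n hn).K) sB nb u A B Lx)
    (tt : TwOut (slC hLa hC n hn) fr3 sB r v0 v1 Lx Tw)
    (rec : BR hLa sB f X J θ co am Zm nb v0 v1 u A B μ κ1)
    (hga : ∀ w ∈ sB.P, ∀ m, sB.lab w = Sum.inr m →
      ga Φ (co m).1 (f w) ≤ ρ3 (co m).1 + 15 * d (co m).1)
    (hrV : ∀ j : JJ Φ L, ∃ q, r (Sum.inl j) ∈ P (T.H q) ∧ ∀ c ∉ X, q ∉ V c)
    {hs : BSep (s2 (slC hLa hC n hn) fr3 Tw l0') am} {hmf : ∀ a, {m | am m = a}.Finite}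
    {j0 : Φ.F → JJ Φ L} {hj0 : ∀ a, (j0 a).1 = a}
    {far : ∀ a, PN (fun j : JJ Φ L => j.1) am a → Set E3}
    {t : ∀ a, St ((slC hLa hC n hn).mn fr3) (pcol (fun j : JJ Φ L => j.1) am a)}
    {Ph : Φ.F → Finset E3} {s₃ : GSt ((slC hLa hC n hn).mn fr3) (fun j : JJ Φ L => j.1)}
    (hfar : ∀ a, ∀ i : PN (fun j : JJ Φ L => j.1) am a, ∀ j, i.1 = Sum.inl j →
      r (Sum.inl j) ∈ far a i)
    (DR : CutR (s2 (slC hLa hC n hn) fr3 Tw l0') hs hmf j0 hj0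
      (fun _ => ActR (slC hLa hC n hn) (Rdc T f Xᶜ (rout ρ3 d))) far t Ph s₃)
    (hB : PosS (hH := (Lay_316.lay_sla hLa hC n hn).core) Φ T f (μ / 4) J0 (slC hLa hC n hn) s₃)
    (Q : Quads (T.RIdx (slC hLa hC n hn).HH ⊕ Ti X) Φ.F (Init_543.QK (Pc Φ.F)))
    {lm : Mo → Crest.Agent.R096.Lm_117.QK (belK (slC hLa hC n hn).T3 (slC hLa hC n hn).KK) → ZMod 2}
    (hG : ∀ m, GLab (lmK fr3 (Lay_316.lay_sla hLa hC n hn).core (Sla.dis_KK (S := slC hLa hC n hn))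
      hnC) (Gl_422.gp (s2 (slC hLa hC n hn) fr3 Tw l0') (Sum.inr m)) (lm m))
    (hZ : ∀ m, ∀ v ∈ ZK (slC hLa hC n hn).T3 (slC hLa hC n hn).KK (Dmm Om Φ f X ρ4 (co m)),
      lm m v = 0) :
    VIn (hH := (Lay_316.lay_sla hLa hC n hn).core) (hdis := Sla.dis_KK) Q s₃
      (fun j => r (Sum.inl j)) am
      (sdm (lmK fr3 (Lay_316.lay_sla hLa hC n hn).core (Sla.dis_KK (S := slC hLa hC n hn)) hnC)
        (s2 (slC hLa hC n hn) fr3 Tw l0') lm) := by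
  have D3 := cutOut_of DR
  have hb := base_S3 DR hfar
  refine vIn_mach (T := T) (f := f) (g := g) (J0 := J0) (ct' := ct') (r₀ := r₀)
    (til := fun p : T.RIdx (slC hLa hC n hn).HH => p.tile) (Dm := fun m => Dmm Om Φ f X ρ4 (co m))
    DR hnC Q hG hZ (fun m y hy hl => hY_m hI hRm D lo tt rec hga m y hy hl) hb
    (fun j => Dfn_416.on_S3 D3 _ (hb j).1)
    (fun j m => hbD_m hRm hrV j (co m)) hLa hI hM N.vin hB
    (fun m => posM_m N hRm D lo tt rec hga m) ?_ (fun _ _ => Sgo_298.inr_ActR) ?_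
  · intro h hh m hl p hp hhp
    obtain ⟨x, hx, hxg, -⟩ := box_m N hRm D lo tt rec hga m hh hl hhp
    have hr := hRm (co m).1 (co m).2
    have hV : p.tile ∈ V (co m).1 := hr.v p.tile ⟨x, hx, hxg.trans hr.r34⟩
    rintro ⟨c, hc⟩
    exact kor_s2 hLa hC n hn p hp ⟨(co m).1, (co m).2, hV⟩ c hc
  · intro m F h hA hl hFz
    exact ⟨co m, Sgo_298.bar_frozen lo tt (fun c m h => (rec.nbm c m).1 h)
      (N := Ndc T f J0 Xᶜ (rout ρ3 d) d) (R := Rdc T f Xᶜ (rout ρ3 d))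
      (Sgo_298.tlr_out hC hRm).ndc_sub (fun q hq c => Sgo_298.core_ndc hLa hI.hm hC hRm hq c)
      (fun w hw hl q hq => Sgo_298.ndc_of (co m).2 hq (hga w hw m hl)) hA hl hFz⟩

end Crest.Agent.R096.Civ_662
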