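import Crest.Agent.R096.Lvs1_184
import Crest.Agent.R096.Frs3_662
import Crest.Agent.R096.Bgf3_4
import Crest.Agent.R096.Dff2_539

/-!
# Row 96, DOORS_final (helper184): `on`, `fin`, `lev` of 662's `FrontN` for the state after CUT

`s` = a state of all families and barriers over `T`, points of families at their exact levels, points
of barriers only in tiles of tiny regions `V`.

* `finS`      : finitely many points on every face of `T`;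
* `on_front`, `fin_front`, `lev_front` : the three fields for `s₃` with `CutOut (s2 S ..) am Act s₃`;
* `stB_famL`, `stB_barL`, `fin_stB` : the inputs for 4's `stB`.
-/

set_option autoImplicit false
set_option linter.unusedSectionVars false
set_option linter.style.longLine false

open Set Topology Filter Metric Module
open scoped Classical

namespace Crest.Agent.R096.Fm_184

open Crest.Agent.R096.Msh_715 Crest.Agent.R096.Agl5_543 Crest.Agent.R096.Agl6_543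
  Crest.Agent.R096.Agl4_543
  Crest.Agent.R096.Seq_213 Crest.Agent.R096.St_147 Crest.Agent.R096.Door_501
  Crest.Agent.R096.Twr_438 Crest.Agent.R096.Exa_560 Crest.Agent.R096.Ess3_95
  Crest.Agent.R096.Ess4_95 Crest.Agent.R096.Gm_298 Crest.Agent.R096.Lm_117
  Crest.Agent.R096.Ac_117
  Crest.Agent.R096.Sla_184 Crest.Agent.R096.Dfi_539 Crest.Agent.R096.Dfi_471
  Crest.Agent.R096.Dfo_539 Crest.Agent.R096.Lvs_184 Crest.Agent.R096.Bgf_4
open Crest.Agent.R096.Mbf_337 (KJ Tiny Cores Fine sb)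
open Crest.Agent.R096.SkC1_961 (E3 FoamD Hom3)
open Crest.Agent.R096.Frn_337 (Ti)
open Crest.Agent.R096.Init_543
open Crest.Agent.R096.Brk1_582 Crest.Agent.R096.Brk2_582 Crest.Agent.R096.Brk3_582
  Crest.Agent.R096.Brk5_582 Crest.Agent.R096.Bsp_628
open Crest.Agent.R096.Frs_662 (slC)

variable {δ κ0 R c0 : ℝ} {La Om : Set E3} {ι : Type} {Φ : FoamD δ κ0 R c0 La} {T : Tiling Om ι}
  {f g : E3 → E3} {κ1 κ2 μ : ℝ} {X : Set Φ.F} {J0 Jt V : Φ.F → Set ι}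
  {ct ct' : Φ.F → ι} {A : Φ.F → E3 ≃ᵃ[ℝ] E3} {lam : Φ.F → ℝ} {z : Φ.F → E3}
  {θ : Φ.F → E3 → E3} {φ : Φ.F → E3 → ℝ} {r₀ : Φ.F → ℝ}
  {L : Φ.F → Finset ℝ} [Nonempty (JJ Φ L)] {Mo : Type}

/-! ### finitely many points on a face -/

/-- the families with a level below `1` on a face of `T` are finitely many -/
theorem fam_fin (hLa : IsOpen La) (hR : InitR Φ T f g J0 ct' r₀) (F : C2 T) :
    {a : Φ.F | ∃ w ∈ F.On, Φ.lev a (f w) < 1}.Finite := by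
  have FF := foam4 Φ hLa
  have hcpt : IsCompact (f '' F.set) := by
    refine IsCompact.image_of_continuousOn ?_ (hR.hm.fc.mono F.set_sub)
    rw [F.set_eq]
    exact T.isCompact_cc F.pt_mem
  have hsub : f '' F.set ⊆ La := by
    rintro _ ⟨x, hx, rfl⟩
    exact hR.hm.fm (F.set_sub hx)
  have h1 := FF.finite_meet hcpt hsub
  have h2 : (⋃ c ∈ {c | (Pc Φ.F c ∩ f '' F.set).Nonempty},
      {a | (Pc Φ.F a ∩ Pc Φ.F c).Nonempty}).Finite :=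
    h1.biUnion fun c _ => FF.finite_meet (FF.cpt c) (FF.sub c)
  refine h2.subset ?_
  rintro a ⟨w, hw, hlt⟩
  have hO : w ∈ Om := F.set_sub hw.1
  obtain ⟨c, hc⟩ := FF.cov (f w) (hR.hm.fm hO)
  refine mem_iUnion₂.2 ⟨c, ⟨f w, hc, w, hw.1, rfl⟩, ?_⟩
  have e := hR.v_eq' Φ hLa hO (by rw [hw.2]; norm_num) a
  rw [← e] at hlt
  have hc' := (retF Φ hLa hR.pos hR.le_one).cell c hc
  have h6 := Nr_527.touch_of_lt FF (FF.sub c hc') hlt hc'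
  rwa [inter_comm] at h6

/-- **finitely many points on every face of `T`** -/
theorem finS (hLa : IsOpen La) (hR : InitR Φ T f g J0 ct' r₀)
    (hdV : ∀ c c', c ≠ c' → Disjoint (V c) (V c')) (hL : ∀ c, ∀ t ∈ L c, t < 1)
    {co : Mo → Φ.F} (hco : ∀ k, {m | co m = k}.Finite)
    {s : GSt (meshC T fr3) (Sum.map (fun j : JJ Φ L => j.1) (id : Mo → Mo))}
    (hA : ∀ w ∈ s.P, ∀ j, s.lab w = Sum.inl j → Φ.lev j.1 (f w) = j.2.1)
    (hB : ∀ w ∈ s.P, ∀ m, s.lab w = Sum.inr m → ∀ i, w ∈ P (T.H i) → i ∈ V (co m)) (F : C2 T) :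
    (s.P ∩ F.On).Finite := by
  obtain ⟨q0, hq0⟩ : ∃ q, q ∈ F.side fr3 := by
    induction F.side fr3 using Sym2.ind with
    | _ x y => exact ⟨x, Sym2.mem_mk_left x y⟩
  have hsub : F.set ⊆ P (T.H q0) := C2.sub_tile (h3 := fr3) hq0
  have h1 := fam_fin hLa hR F
  have h2 : {k : Φ.F | q0 ∈ V k}.Finite := by
    refine Set.Subsingleton.finite ?_
    intro a ha b hb
    by_contra hne
    exact Set.disjoint_left.1 (hdV a b hne) ha hb
  have h4 : {m : Mo | q0 ∈ V (co m)}.Finite := by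
    refine (h2.biUnion (t := fun k => {m | co m = k}) fun k _ => hco k).subset ?_
    intro m hm
    exact mem_iUnion₂.2 ⟨co m, hm, rfl⟩
  have h5 : (⋃ a ∈ {a : Φ.F | ∃ w ∈ F.On, Φ.lev a (f w) < 1},
      {w | w ∈ s.P ∧ Sum.map (fun j : JJ Φ L => j.1) (id : Mo → Mo) (s.lab w) = Sum.inl a}).Finite :=
    h1.biUnion fun a _ => s.fin (Sum.inl a)
  have h6 : (⋃ m ∈ {m : Mo | q0 ∈ V (co m)},
      {w | w ∈ s.P ∧ Sum.map (fun j : JJ Φ L => j.1) (id : Mo → Mo) (s.lab w) = Sum.inr m}).Finite :=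
    h4.biUnion fun m _ => s.fin (Sum.inr m)
  refine (h5.union h6).subset ?_
  rintro w ⟨hw, hF⟩
  rcases hl : s.lab w with j | m
  · left
    refine mem_iUnion₂.2 ⟨j.1, ⟨w, hF, ?_⟩, hw, ?_⟩
    · rw [hA w hw j hl]; exact hL _ _ j.2.2
    · rw [hl]; rfl
  · right
    refine mem_iUnion₂.2 ⟨m, hB w hw m hl q0 (hsub hF.1), hw, ?_⟩
    rw [hl]; rfl

/-! ### the fields of `FrontN` -/

section fields

variable {S : Sla T (Ti X)}
  {s : GSt (meshC T fr3) (Sum.map (fun j : JJ Φ L => j.1) (id : Mo → Mo))}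
  {r : JJ Φ L ⊕ Mo → E3} {Sf : JJ Φ L ⊕ Mo → Set E3}
  {nb : Ti X → Φ.F ⊕ Mo → Prop} {v0 v1 : ∀ c, Φ.F ⊕ Mo → VxK T S.K c}
  {u : Ti X → Φ.F ⊕ Mo → E3 → ℝ} {Aw Bw : Ti X → Φ.F ⊕ Mo → ℝ}
  {Lv : ∀ c, Φ.F ⊕ Mo → Lev T (frontier (S.K c)) (JJ Φ L ⊕ Mo)}
  {Tw : Twrs (S.sh fr3) S.n (outK S.hH S.dis s r)} {l0 : E3 → JJ Φ L ⊕ Mo}
  {am : Mo → Φ.F} {Act : Φ.F → Set (T.RIdx S.HH ⊕ Ti X)}
  {core : ∀ c, CoreH S.T3 (S.KK c)} {disj : ∀ c c', c ≠ c' → Disjoint (S.KK c) (S.KK c')}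
  {s3 : GSt (mK fr3 core disj) (fun j : JJ Φ L => j.1)}

/-- **`FrontN.on`** -/
theorem on_front [Nonempty S.T3.Cell] {hne : ∃ c, OutK S.T3 S.KK c}
    (CO : CutOut (s2 S fr3 Tw l0) am Act s3) : ∀ w ∈ s3.P, w ∈ (lmK fr3 core disj hne).W1 :=
  fun _ hw => mem_W1K.2 (pts3 (hKK := core) CO hw)

/-- **`FrontN.fin`** -/
theorem fin_front (D : DIn S.hH s r Sf nb v0 v1 u Aw Bw) (lo : LevOut s nb u Aw Bw Lv)
    (tt : TwOut S fr3 s r v0 v1 Lv Tw) (CO : CutOut (s2 S fr3 Tw l0) am Act s3)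
    (hfin : ∀ F : C2 T, (s.P ∩ F.On).Finite) : ∀ F, (s3.P ∩ (mK fr3 core disj).On F).Finite :=
  fun F => fin3 D lo tt CO hfin F

/-- **`FrontN.lev`** -/
theorem lev_front (hC : Cores Φ T f κ1 κ2 X J0 Jt V ct A lam z θ φ)
    (hK : ∀ k, S.K k = KJ T (Jt k.1)) (CO : CutOut (s2 S fr3 Tw l0) am Act s3)
    (hA : ∀ w ∈ s.P, ∀ j, s.lab w = Sum.inl j → Φ.lev j.1 (f w) = j.2.1)
    (hB : ∀ w ∈ s.P, ∀ m, s.lab w = Sum.inr m → ∀ i, w ∈ P (T.H i) → ∃ k : Ti X, i ∈ V k.1) :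
    ∀ x ∈ s3.P, ∀ i, (∀ k : Ti X, i ∉ V k.1) → x ∈ P (T.H i) →
      Φ.lev (s3.lab x).1 (f x) = (s3.lab x).2.1 := by
  intro x hx i hi hxi
  have h1 : ∀ c, ¬ P (T.H i) ⊆ S.K c := fun c h => by
    rw [hK] at h
    exact hi c (Nr_527.J_sub hC c.1 (Slt_471.sub_KJ_iff.1 h))
  obtain ⟨h2, h4⟩ := out3 (hKK := core) CO hx h1 hxi fun b hb m hm hbi => by
    obtain ⟨k, hk⟩ := hB b hb m hm i hbi
    exact hi k hk
  exact hA x h2 _ h4

end fields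

/-! ### the inputs for `stB` -/

section stB

variable {co : Mo → Φ.F} {ρ : Mo → ℝ} {ℓ : Mo → E3 → ℝ} {lo hi : Mo → ℝ} {hG : GF Φ r₀ T f L}
  {ε : Mo → ℝ} {bp : JJ Φ L → E3} {bm : Mo → E3}

theorem stB_famL (hLa : IsOpen La) (hR : InitR Φ T f g J0 ct' r₀) (hG : GF Φ r₀ T f L)
    (hb : BBase T f L ℓ ε bp bm)
    (hGB : GFB Φ r₀ T f L ℓ ε) : ∀ w ∈ (stB hGB bp bm).P, ∀ j,
      (stB hGB bp bm).lab w = Sum.inl j → Φ.lev j.1 (f w) = j.2.1 := by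
  intro w hw j hl
  obtain ⟨h1, h2⟩ := stB_lev (hG := hG) hLa hR hb hGB hw hl
  have h3 := (st0_mem hLa hR h1).2.2
  rw [h2] at h3
  exact h3

theorem stB_barV (hB : BData Φ T f V co ρ ℓ lo hi) (hε : ∀ m, ε m ∈ Ioo (lo m) (hi m))
    (hGB : GFB Φ r₀ T f L ℓ ε) : ∀ w ∈ (stB hGB bp bm).P, ∀ m,
      (stB hGB bp bm).lab w = Sum.inr m → ∀ i, w ∈ P (T.H i) → i ∈ V (co m) :=
  fun _ hw _ hl => (stB_bar hB hε hGB hw hl).2.2.2.2.2

theorem fin_stB (hLa : IsOpen La) (hR : InitR Φ T f g J0 ct' r₀) (hG : GF Φ r₀ T f L)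
    (hdV : ∀ c c', c ≠ c' → Disjoint (V c) (V c')) (hL : ∀ c, ∀ t ∈ L c, t < 1)
    (hco : ∀ k, {m | co m = k}.Finite) (hb : BBase T f L ℓ ε bp bm)
    (hB : BData Φ T f V co ρ ℓ lo hi) (hε : ∀ m, ε m ∈ Ioo (lo m) (hi m))
    (hGB : GFB Φ r₀ T f L ℓ ε) (F : C2 T) : ((stB hGB bp bm).P ∩ F.On).Finite :=
  finS hLa hR hdV hL hco (stB_famL hLa hR hG hb hGB) (stB_barV hB hε hGB) F

end stB

end Crest.Agent.R096.Fm_184
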