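import Crest.Agent.R096.At11_241
import Crest.Agent.R096.Init12_543

/-!
# R096 (row 96), ARR-INST part 12 (helper241): positions at the active cells, for every base point

`ActV`, `PtsV` : the two clauses of the front (337 #11080) in the pointwise form;
`actV_of`, `ptsV_of` : from 543's `InitR`, `Mesh0`.
-/

set_option autoImplicit false
set_option linter.unusedSectionVars false
set_option linter.unusedVariables false
set_option linter.style.longLine false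

open Set Metric Topology Module

namespace Crest.Agent.R096.At_241

open Crest.Agent.R096.Ce_537 Crest.Agent.R096.Bd_416 Crest.Agent.R096.Mg_441
open Crest.Agent.R096.St_147 Crest.Agent.R096.Seq_213 Crest.Agent.R096.Lm_117
open Crest.Agent.R096.Brk1_582 Crest.Agent.R096.Brk2_582 Crest.Agent.R096.Brk3_582
open Crest.Agent.R096.Brk5_582 Crest.Agent.R096.Bsp_628
open Crest.Agent.R096.Init_543 Crest.Agent.R096.Coh_184 Crest.Agent.R096.Msh_715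
open Crest.Agent.R096.SkC1_961 (E3 Hom3 FoamD Cfg th NN)

section gen

variable {E V : Type} [NormedAddCommGroup E] [NormedSpace ℝ E] [FiniteDimensional ℝ E]
  [NormedAddCommGroup V] [NormedSpace ℝ V] [FiniteDimensional ℝ V]
variable {I ι : Type} {Om : Set E} {La : Set V} {P : I → Set V} {b : Set I → V}
  {R : V → V} {f : E → V} {g : V → E} {T : Tiling Om ι} {Kor : Set ι} {ε s : ℝ}

/-- at every point of an active tile the two families are strictly inside, the two cores at 0 -/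
theorem act_vals (H : Hm f g Om La) (F : Foam La P b 4) (hR : Ret La P R)
    (hM : Mesh0 T P b R f Kor ε) (hε : ε < s) (hε1 : ε < 1) {k : QK P} {i : ι}
    (hi : i ∈ Act0 T P b R f Kor s k) {x : E} (hx : x ∈ Msh_715.P (T.H i)) :
    (∀ a ∈ k.B, 0 < va P b R f a x ∧ va P b R f a x < 1) ∧ ∀ a ∈ k.Z, va P b R f a x = 0 := by
  obtain ⟨h2, x₀, h3, h4, h5⟩ := hi
  have h := key H F hR hM hε hε1 h2 h3 hx h4 h5
  refine ⟨fun a ha => ?_, h.2.1⟩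
  have h6 := h.1 a ha
  constructor
  · linarith [h6.1]
  · linarith [h6.2]

/-- a tile over the quad with points of both families is active -/
theorem act_of_vals (hM : Mesh0 T P b R f Kor ε) {s' : ℝ} (hs' : s + ε ≤ s') {k : QK P} {i : ι}
    (hi : i ∉ Kor) {x : E} (hx : x ∈ Msh_715.P (T.H i))
    (hw : ∀ a ∈ k.B, ∃ x' ∈ Msh_715.P (T.H i), va P b R f a x' ∈ Icc s' (1 - s'))
    (hz : ∀ a ∈ k.Z, va P b R f a x = 0) : i ∈ Act0 T P b R f Kor s k := by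
  refine ⟨hi, x, hx, fun a ha => ?_, hz⟩
  obtain ⟨x', hx', h1⟩ := hw a ha
  have h2 := abs_le.1 (hM.osc _ hi _ hx _ hx' a)
  constructor
  · linarith [h1.1, h2.1, h2.2]
  · linarith [h1.2, h2.1, h2.2]

/-- a set with interior lies in one tile -/
theorem tile_unique {Om' : Set E} {ι3 : Type} {T3 : Tiling Om' ι3} {i3 : ι3} {i i' : ι}
    (h : Msh_715.P (T3.H i3) ⊆ Msh_715.P (T.H i)) (h' : Msh_715.P (T3.H i3) ⊆ Msh_715.P (T.H i')) :
    i = i' := by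
  by_contra hne
  obtain ⟨z, hz⟩ := T3.ne i3
  have h1 : z ∈ interior (Msh_715.P (T.H i)) :=
    mem_interior.2 ⟨Msh_715.I (T3.H i3), (I_sub_P _).trans h, isOpen_I _, hz⟩
  exact Set.disjoint_left.1 (disjoint_P_I (T.ne i') (T.dis i' i (Ne.symm hne)))
    (h' (I_sub_P _ hz)) (interior_sub_I (T.ne i) h1)

end gen

section mach

variable {δ κ0 R c0 : ℝ} {La Om Om3 : Set E3} {ι ι3 κ : Type} {Φ : FoamD δ κ0 R c0 La}
  {T : Tiling Om ι} {T3 : Tiling Om3 ι3} {f g : E3 → E3} {J0 : Φ.F → Set ι} {ct' : Φ.F → ι}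
  {r₀ : Φ.F → ℝ} {KK : κ → Set E3} {core : Φ.F → ι3 ⊕ κ}

/-- **active cells**: the two families strictly inside, the two cores at 0, for every base point -/
def ActV (Φ : FoamD δ κ0 R c0 La) (T : Tiling Om ι) (T3 : Tiling Om3 ι3) (f : E3 → E3)
    (Qd : Quads (ι3 ⊕ κ) Φ.F (QK (Pc Φ.F))) : Prop :=
  ∀ k i3, Sum.inl i3 ∈ Qd.Act k → ∀ i, Msh_715.P (T3.H i3) ⊆ Msh_715.P (T.H i) →
    ∀ x ∈ Msh_715.P (T.H i),
    (∀ a ∈ k.B, Φ.lev a (f x) ∈ Ioo (0:ℝ) 1) ∧ ∀ a ∈ k.Z, Φ.lev a (f x) = 0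

/-- **a cell over a quad with a point of each of the two families is active** -/
def PtsV {L : Φ.F → Finset ℝ} (T : Tiling Om ι) (T3 : Tiling Om3 ι3) (f : E3 → E3)
    (KK : κ → Set E3) (core : Φ.F → ι3 ⊕ κ) (Qd : Quads (ι3 ⊕ κ) Φ.F (QK (Pc Φ.F))) (P₀ : Set E3)
    (lab : E3 → JJ Φ L) : Prop :=
  ∀ k i3, (∀ k', ¬ Msh_715.P (T3.H i3) ⊆ KK k') → (∀ c, core c ≠ Sum.inl i3) →
    (∀ a ∈ k.B, ∃ w ∈ P₀, (lab w).1 = a ∧ w ∈ Msh_715.P (T3.H i3)) →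
    ∀ i, Msh_715.P (T3.H i3) ⊆ Msh_715.P (T.H i) → ∀ x ∈ Msh_715.P (T.H i),
    (∀ a ∈ k.Z, Φ.lev a (f x) = 0) → Sum.inl i3 ∈ Qd.Act k

/-- the truthful levels on a tile which is not near a hole -/
theorem va_lev (hLa : IsOpen La) (hR : InitR Φ T f g J0 ct' r₀) {i : ι} (hi : i ∉ KorJ Φ J0)
    {x : E3} (hx : x ∈ Msh_715.P (T.H i)) (a : Φ.F) :
    va (Pc Φ.F) (bc (F := Φ.F)) (RF Φ r₀) f a x = Φ.lev a (f x) := by
  refine hR.v_eq Φ hLa (T.sub i hx) (fun c => ?_) a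
  refine not_mem_I (fun e => hi ⟨c, ?_⟩) hx
  rw [e]; exact hR.ct c

variable {ε s₁ : ℝ} {Qd : Quads (ι3 ⊕ κ) Φ.F (QK (Pc Φ.F))}

/-- **`ActV`** : layered cells are active only if their tile of `T` is -/
theorem actV_of (hLa : IsOpen La) (hR : InitR Φ T f g J0 ct' r₀)
    (hM : Mesh0 T (Pc Φ.F) (bc (F := Φ.F)) (RF Φ r₀) f (KorJ Φ J0) ε) (hε : ε < s₁) (hε1 : ε < 1)
    (hA : ∀ k i3, Sum.inl i3 ∈ Qd.Act k → ∃ i, Msh_715.P (T3.H i3) ⊆ Msh_715.P (T.H i) ∧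
      i ∈ Act0 T (Pc Φ.F) (bc (F := Φ.F)) (RF Φ r₀) f (KorJ Φ J0) s₁ k) :
    ActV Φ T T3 f Qd := by
  intro k i3 hi3 i hi x hx
  obtain ⟨i', h1, h2⟩ := hA k i3 hi3
  obtain rfl := tile_unique hi h1
  have h := act_vals hR.hm (foam4 Φ hLa) (retF Φ hLa hR.pos hR.le_one) hM hε hε1 h2 hx
  have hv := fun a => va_lev hLa hR h2.1 hx a
  refine ⟨fun a ha => ?_, fun a ha => ?_⟩
  · rw [← hv]; exact h.1 a ha
  · rw [← hv]; exact h.2 a ha

/-- **`PtsV`** : layered cells over an active tile of `T` are active; every point on a cell outside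
the cores is near the middle of its family -/
theorem ptsV_of {L : Φ.F → Finset ℝ} (hLa : IsOpen La) (hR : InitR Φ T f g J0 ct' r₀)
    (hM : Mesh0 T (Pc Φ.F) (bc (F := Φ.F)) (RF Φ r₀) f (KorJ Φ J0) ε) {s' : ℝ} (hs' : s₁ + ε ≤ s')
    (hA : ∀ k i3, (∀ k', ¬ Msh_715.P (T3.H i3) ⊆ KK k') → (∀ c, core c ≠ Sum.inl i3) →
      ∀ i, Msh_715.P (T3.H i3) ⊆ Msh_715.P (T.H i) →
      i ∈ Act0 T (Pc Φ.F) (bc (F := Φ.F)) (RF Φ r₀) f (KorJ Φ J0) s₁ k → Sum.inl i3 ∈ Qd.Act k)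
    (hK : ∀ i3, (∀ k', ¬ Msh_715.P (T3.H i3) ⊆ KK k') → (∀ c, core c ≠ Sum.inl i3) →
      ∀ i, Msh_715.P (T3.H i3) ⊆ Msh_715.P (T.H i) → i ∉ KorJ Φ J0)
    {P₀ : Set E3} {lab : E3 → JJ Φ L}
    (hpos : ∀ w ∈ P₀, ∀ i3, (∀ k', ¬ Msh_715.P (T3.H i3) ⊆ KK k') →
      (∀ c, core c ≠ Sum.inl i3) → w ∈ Msh_715.P (T3.H i3) →
      ∀ i, Msh_715.P (T3.H i3) ⊆ Msh_715.P (T.H i) →
      ∃ x ∈ Msh_715.P (T.H i), Φ.lev (lab w).1 (f x) ∈ Icc s' (1 - s')) :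
    PtsV T T3 f KK core Qd P₀ lab := by
  intro k i3 h1 h2 h3 i hi x hx hz
  have hiK := hK i3 h1 h2 i hi
  refine hA k i3 h1 h2 i hi (act_of_vals hM hs' hiK hx (fun a ha => ?_) fun a ha => ?_)
  · obtain ⟨w, hw, rfl, hwt⟩ := h3 a ha
    obtain ⟨x', hx', h4⟩ := hpos w hw i3 h1 h2 hwt i hi
    refine ⟨x', hx', ?_⟩
    rw [va_lev hLa hR hiK hx']; exact h4
  · rw [va_lev hLa hR hiK hx]; exact hz a ha

end mach

end Crest.Agent.R096.At_241
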