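import Crest.Agent.R096.Ess8_95

/-!
# Row 96, DOORS, (E-S) (helper95), part 9: `G4`, and the final form of `exists_EG`
-/

set_option autoImplicit false
set_option linter.unusedSectionVars false

open Set Topology Filter Metric Module
open scoped Classical

namespace Crest.Agent.R096.Ess9_95

open Crest.Agent.R096.Msh_715 Crest.Agent.R096.Coh_184 Crest.Agent.R096.Bsp_628
  Crest.Agent.R096.Brk1_582 Crest.Agent.R096.Brk2_582 Crest.Agent.R096.Brk3_582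
  Crest.Agent.R096.Brk5_582 Crest.Agent.R096.Init_543 Crest.Agent.R096.Mbf_337
  Crest.Agent.R96.Push_899 Crest.Agent.R096.Ess4_95 Crest.Agent.R096.Ess5_95
  Crest.Agent.R096.Ess6_95 Crest.Agent.R096.Ess7_95
  Crest.Agent.R096.Ess8_95 Crest.Agent.R096.Exa_560 Crest.Agent.R096.Sphg_316
  Crest.Agent.R096.Agl5_543 Crest.Agent.R096.Agl6_543 Crest.Agent.R096.Lab_184
  Crest.Agent.R096.Main_4 Crest.Agent.R096.Ess1_95

open Crest.Agent.R096.SkC1_961 (E3 Hom3 IsPush FoamD)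
open Crest.Agent.R096.Vb_965 (Push pushD muD mue)

variable {δ κ0 R c0 : ℝ} {La : Set E3} {Φ : FoamD δ κ0 R c0 La}

/-- the straight rays with the gauge `muR` -/
theorem strR (hLa : IsOpen La) {c : Φ.F} (hpt : (Φ.B c).lo = (Φ.B c).hi) {ρ : ℝ}
    (hρ0 : 0 < ρ) (hρ1 : ρ < 1) (hray : RayTo Φ c ρ) :
    Etg_163.Str (Pc Φ.F) Φ.Psi (muR Φ) c (Φ.B c).lo ρ := by
  have S := Etg_163.str_of Φ hLa hpt hρ0 hρ1 hray
  refine ⟨S.bod, fun y hy => ?_, S.r0, S.r1, S.ray⟩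
  have h1 := muR_pos hLa (c := c) hy
  have h2 := ((pushR (Φ := Φ) hLa).mu_mem y (Φ.bf.sub c.1 c.2 hy)).1
  rw [Etg_163.mem_pt Φ hpt] at h1
  constructor
  · intro h
    by_contra h3
    exact (h1.2 h3).ne' h
  · intro h
    by_contra h3
    exact h1.1 (lt_of_le_of_ne h2 (Ne.symm h3)) h

/-- **(G4)** -/
theorem g4_of (hLa : IsOpen La) {c : Φ.F} (hpt : (Φ.B c).lo = (Φ.B c).hi) {ρ : ℝ}
    (hρ0 : 0 < ρ) (hρ1 : ρ < 1) (hray : RayTo Φ c ρ) {r₀ : Φ.F → ℝ} (h0 : ∀ c, 0 < r₀ c)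
    (h1 : ∀ c, r₀ c < 1) : G4 Φ r₀ c ρ := by
  intro a t r ht0 ht1 hr0 hr hcap
  have F := foam4 Φ hLa
  have hRet := retF Φ hLa h0 (fun c => (h1 c).le)
  by_cases hbad : a ≠ c ∧ (a.1.set ∩ c.1.set).Nonempty
  · obtain ⟨hac, hne⟩ := hbad
    have S := strR hLa hpt hρ0 hρ1 hray
    have hp' := Etg_163.push_mus F (pushR hLa) S
    set μ' := Etg_163.mus (Pc Φ.F) Φ.Psi (muR Φ) c (Φ.B c).lo ρ with hμ'
    have hr1 : r < 1 := hr.trans_lt hρ1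
    set e' : Φ.F → ℝ := Function.update r₀ c r with he'
    have hec : e' c = r := Function.update_self ..
    have hed : ∀ d, d ≠ c → e' d = r₀ d := fun d hd => Function.update_of_ne hd ..
    have hpos' : ∀ d, 0 < e' d := by
      intro d
      by_cases h : d = c
      · rw [h, hec]; exact hr0
      · rw [hed d h]; exact h0 d
    have hlt' : ∀ d, e' d < 1 := by
      intro d
      by_cases h : d = c
      · rw [h, hec]; exact hr1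
      · rw [hed d h]; exact h1 d
    have hpE := Push.reparam F hp' hpos' hlt'
    have hε : (0 : ℝ) < 1 / 2 := by norm_num
    have hε1 : (1 / 2 : ℝ) ≤ 1 := by norm_num
    have hhalf : ∀ y ∈ Pc Φ.F c, 1 / 2 ≤ mue (Pc Φ.F) μ' e' y ↔ r ≤ ga Φ c y := by
      intro y hy
      rw [Vb_965.mue_half_le F hp' hpos' hlt' hy, hec, hμ',
        Etg_163.le_mus_iff F (pushR hLa) S hy hr]
      rw [show ga Φ c y = Ng (Φ.B c).lo (Pc Φ.F c) y from Etg_163.gg_eq Φ c y]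
    have key : ∀ y ∈ La, (y ∈ c.1.set → r ≤ ga Φ c y) →
        Vb_965.RR (Pc Φ.F) (bc (F := Φ.F)) Φ.Psi (mue (Pc Φ.F) μ' e') (1 / 2) y = RF Φ r₀ y := by
      intro y hy h
      by_cases hc : y ∈ c.1.set
      · have h2 : r₀ c ≤ rdF Φ c y := by
          by_contra h2
          exact absurd (hcap y hc (not_le.1 h2)) (not_lt.2 (h hc))
        rw [(RF_eq Φ hLa h0 (fun c => (h1 c).le) hc h2).1]
        exact Vb_965.RR_eq_Psi F hpE hε hε1 hy ((hhalf y hc).2 (h hc))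
      · obtain ⟨d, hd⟩ := F.cov y hy
        have hdc : d ≠ c := by rintro rfl; exact hc hd
        rw [Etg_163.RR_mue F hp' hpos' hlt' hd, RF_form hLa h0 (fun c => (h1 c).le) hd,
          hed d hdc, hμ', Etg_163.mus_other F (pushR hLa) S hdc hd]
    have hL := Vb_965.isCompact_Lset F a ht0.le ht1
    have hb := Vb_965.b_not_mem_Lset F hpE hε hε1 (a := a) ht0 ht1 (Vb_965.cell_nonempty Φ)
    have h2 : {y | y ∈ La ∧ sc (Pc Φ.F) (bc (F := Φ.F)) (RF Φ r₀ y) a = t ∧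
        (y ∈ c.1.set → r ≤ ga Φ c y)} =
        {y | y ∈ La ∧ Vb_965.RR (Pc Φ.F) (bc (F := Φ.F)) Φ.Psi (mue (Pc Φ.F) μ' e') (1 / 2) y ∈
          Lset La (Pc Φ.F) (bc (F := Φ.F)) a t ∧
          (y ∈ Pc Φ.F c → 1 / 2 ≤ mue (Pc Φ.F) μ' e' y)} := by
      ext y
      rw [Lset_eq_of_pos F ht0.ne']
      constructor
      · rintro ⟨h2, h3, h4⟩
        refine ⟨h2, ⟨Vb_965.RR_mem_La F hpE hε hε1 h2, ?_⟩, fun h5 => (hhalf y h5).2 (h4 h5)⟩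
        show sc (Pc Φ.F) (bc (F := Φ.F)) (Vb_965.RR (Pc Φ.F) (bc (F := Φ.F)) Φ.Psi
          (mue (Pc Φ.F) μ' e') (1 / 2) y) a = t
        rw [key y h2 h4]; exact h3
      · rintro ⟨h2, h3, h4⟩
        have h5 : y ∈ c.1.set → r ≤ ga Φ c y := fun h6 => (hhalf y h6).1 (h4 h6)
        refine ⟨h2, ?_, h5⟩
        have h6 := h3.2
        rw [key y h2 h5] at h6
        exact h6
    have hD : Etg_163.Dout La (Pc Φ.F) (bc (F := Φ.F)) c a t =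
        {q | q ∈ Lset La (Pc Φ.F) (bc (F := Φ.F)) a t ∧ ∃ d, d ≠ c ∧ q ∈ Pc Φ.F d} := by
      ext q
      rw [Lset_eq_of_pos F ht0.ne']
      exact ⟨fun h => ⟨⟨h.1, h.2.1⟩, h.2.2⟩, fun h => ⟨h.1.1, h.1.2, h.2⟩⟩
    have h3 := Etg_163.preconn_Dout Φ.bf hLa (a := a) (c := c) hac hne ht0 ht1
    rw [h2]
    exact (Etg_163.preconn_outer F hpE (c := c) hε hε1 le_rfl hε1 hL (fun q hq => hq.1) hD
      (fun q hq _ => by
        rw [hD] at hq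
        have h5 := Vb_965.fibreR_spec (A := ℤ) F hpE hε hε1 hq.1.1 fun d h => hb d (h ▸ hq.1)
        exact ⟨h5.2.1, h5.1⟩) h3.1).1
  · -- the condition at `c` is void
    have hvoid : ∀ y ∈ La, sc (Pc Φ.F) (bc (F := Φ.F)) (RF Φ r₀ y) a = t → y ∉ c.1.set := by
      intro y hy hyt hyc
      have h2 : RF Φ r₀ y ∈ Pc Φ.F c := hRet.cell c hyc
      have h3 : RF Φ r₀ y ∈ La := hRet.mapsTo F hy
      refine hbad ⟨?_, ?_⟩
      · rintro rfl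
        rw [(F.sc_eq_zero h3).2 h2] at hyt
        exact ht0.ne hyt
      · have h4 : (fc (Pc Φ.F) {c | sc (Pc Φ.F) (bc (F := Φ.F)) (RF Φ r₀ y) c < 1}).Nonempty :=
          (F.sc_mem_K h3).2.2
        obtain ⟨q, hq⟩ := h4
        rw [mem_fc] at hq
        refine ⟨q, hq a ?_, hq c ?_⟩
        · show sc (Pc Φ.F) (bc (F := Φ.F)) (RF Φ r₀ y) a < 1
          rw [hyt]; exact ht1
        · show sc (Pc Φ.F) (bc (F := Φ.F)) (RF Φ r₀ y) c < 1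
          rw [(F.sc_eq_zero h3).2 h2]; exact one_pos
    have h2 : {y | y ∈ La ∧ sc (Pc Φ.F) (bc (F := Φ.F)) (RF Φ r₀ y) a = t ∧
        (y ∈ c.1.set → r ≤ ga Φ c y)} =
        rpre La (RF Φ r₀) (Lset La (Pc Φ.F) (bc (F := Φ.F)) a t) := by
      ext y
      rw [Lset_eq_of_pos F ht0.ne']
      constructor
      · rintro ⟨h2, h3, -⟩
        exact ⟨h2, hRet.mapsTo F h2, h3⟩
      · rintro ⟨h2, -, h3⟩
        exact ⟨h2, h3, fun h4 => absurd h4 (hvoid y h2 h3)⟩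
    rw [h2]
    exact hRet.preconn_pre F (Vb_965.isCompact_Lset F a ht0.le ht1) (fun q hq => hq.1)
      (Vb_965.isPreconnected_Lset F (by simp) (Vb_965.cell_nonempty Φ a) ht0.le ht1)

/-! ### the machine -/

section machine

variable {Om : Set E3} {ι : Type} {T : Tiling Om ι} {f g : E3 → E3} {κ1 κ2 : ℝ} {X : Set Φ.F}
  {J0 J V : Φ.F → Set ι} {ct ct' : Φ.F → ι} {A : Φ.F → E3 ≃ᵃ[ℝ] E3} {lam : Φ.F → ℝ}
  {z : Φ.F → E3} {θ : Φ.F → E3 → E3} {φ : Φ.F → E3 → ℝ} {r₀ : Φ.F → ℝ}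

/-- the thresholds are `< 1` -/
theorem r0_lt (hLa : IsOpen La) (hC : Cores Φ T f κ1 κ2 X J0 J V ct A lam z θ φ)
    (hI : InitR Φ T f g J0 ct' r₀) (c : Φ.F) : r₀ c < 1 := by
  refine lt_of_le_of_ne (hI.le_one c) fun h1 => ?_
  have hR := raysF Φ hLa
  have hKc : IsCompact (f '' P (T.H (ct' c))) :=
    (T.cpt _).image_of_continuousOn (hI.hm.fc.mono (T.sub _))
  have hKI : f '' P (T.H (ct' c)) ⊆ interior (Pc Φ.F c) := by
    rintro _ ⟨x, hx, rfl⟩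
    exact mem_int_bx (inside_J0 hC (hI.ct c) hx)
  have hIK : interior (Pc Φ.F c) ⊆ f '' P (T.H (ct' c)) := by
    intro y hy
    have hyc : y ∈ Pc Φ.F c := interior_subset hy
    have hyL : y ∈ La := Φ.bf.sub c.1 c.2 hyc
    by_contra hno
    have h2 := hI.out c (g y) (hI.hm.gm hyL) (by rw [hI.hm.fg y hyL]; exact hyc)
      (fun h => hno ⟨g y, I_sub_P _ h, hI.hm.fg y hyL⟩)
    rw [hI.hm.fg y hyL, h1] at h2
    have hH : y ∉ (Φ.B c).S := fun hH => by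
      have := hR.rad_hole c y hH
      linarith
    have h4 : rdF Φ c y = 1 := le_antisymm (hR.rad_mem c y ⟨hyc, hH⟩).2 h2
    have h5 := hR.ray_pu c y ⟨hyc, hH⟩
    have h6 := hR.pu_mem c y ⟨hyc, hH⟩
    rw [h4, hR.ray_one c _ h6] at h5
    rw [h5, Bd_eq Φ hLa] at h6
    rw [interior_Pc] at hy
    exact h6.2 hy
  have hK := Subset.antisymm hKI hIK
  have hclopen : IsClopen (f '' P (T.H (ct' c))) :=
    ⟨hKc.isClosed, by rw [hK]; exact isOpen_interior⟩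
  have hne : (interior (Pc Φ.F c)).Nonempty := by
    rw [interior_Pc]
    refine ⟨fun k => (c.1.lo k + c.1.hi k) / 2, fun k => ?_⟩
    have := Φ.bf.pos c.1 c.2 k
    exact ⟨by show c.1.lo k < _; linarith, by show _ < c.1.hi k; linarith⟩
  have huniv := hclopen.eq_univ (by rw [hK]; exact hne)
  have h7 : c.1.lo ∈ interior (Pc Φ.F c) := by
    rw [← hK, huniv]; exact mem_univ _
  rw [interior_Pc] at h7
  exact lt_irrefl _ (h7 0).1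

/-- **`EG` for the machine**: all geometric facts discharged -/
theorem exists_EG' (hLa : IsOpen La) (hδ : 0 < δ) (hR0 : 0 < R)
    (hC : Cores Φ T f κ1 κ2 X J0 J V ct A lam z θ φ) (hI : InitR Φ T f g J0 ct' r₀)
    {L : Φ.F → Finset ℝ} [Nonempty (JJ Φ L)] (hG : GF Φ r₀ T f L) {bp : JJ Φ L → E3} {μ : ℝ}
    (hμ : 0 < μ) (hκ0 : 0 < κ1) (hκ : 8 * ((Cn δ R + 1) * κ1) ≤ μ) (hμ1 : μ ≤ 1) (j : JJ Φ L)
    (hj : μ ≤ j.2.1 ∧ (j.2.1 : ℝ) ≤ 1 - μ) (c : {c : Φ.F // c ∉ X}) (hac : j.1 ≠ c.1)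
    (hne : (Pc Φ.F c.1 ∩ Pc Φ.F j.1).Nonempty) {v0 v1 : VxK T (KT T J X) c}
    (hv0 : sb Φ (θ c v0.1) j.1 ≤ μ / 2) (hv1 : 1 - μ / 2 ≤ sb Φ (θ c v1.1) j.1) {r : E3}
    (hr : r ∈ (st0 hG bp).P) (hrl : (st0 hG bp).lab r = j)
    (hrq : ∃ q, r ∈ P (T.H q) ∧ ∀ c ∉ X, q ∉ V c)
    {lm : E3 → ZMod 2} (hlam : IsLab T (gPts (st0 hG bp) j) lm)
    (hlo : ∀ q ∉ KorJ Φ J0, ∀ v ∈ P (T.H q), T.dim v = 0 →
      Φ.lev j.1 (f v) ≤ j.2.1 - 2 * κ1 → lm v = 1)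
    (hhi : ∀ q ∉ KorJ Φ J0, ∀ v ∈ P (T.H q), T.dim v = 0 →
      j.2.1 + 2 * κ1 ≤ Φ.lev j.1 (f v) → lm v = 0) :
    Nonempty (EG (st0 hG bp) j (Sh Om Φ r₀ f j) (KT T J X) c v0 v1 r) := by
  have hall : ∀ c : Φ.F, ∃ ρ1 ρ2 ρ3 ρ4 d : ℝ, c ∉ X → d ≤ κ1 ∧
      Rm Φ T f c (J0 c) (J c) (V c) (θ c) ρ1 ρ2 ρ3 ρ4 d := by
    intro c
    by_cases hc : c ∈ X
    · exact ⟨0, 0, 0, 0, 0, fun h => absurd hc h⟩
    · obtain ⟨ρ1, ρ2, ρ3, ρ4, d, h1, h2⟩ := exists_rm (hC.tiny c hc)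
      exact ⟨ρ1, ρ2, ρ3, ρ4, d, fun _ => ⟨h1, h2⟩⟩
  choose ρ1 ρ2 ρ3 ρ4 d hall using hall
  have rm : ∀ c ∉ X, Rm Φ T f c (J0 c) (J c) (V c) (θ c) (ρ1 c) (ρ2 c) (ρ3 c) (ρ4 c) (d c) :=
    fun c hc => (hall c hc).2
  have hpos : ∀ c ∉ X, 0 < ρ4 c := by
    intro c hc
    have h := rm c hc
    linarith [h.r1, h.r12, h.r23, h.r34, h.d0]
  have hrS : r ∈ Sh Om Φ r₀ f j := by
    have h2 := hG.mem_lab hr.1
    have h3 : labf (fun j : JJ Φ L => Sh Om Φ r₀ f j) r = j := hrl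
    have : r ∈ Sh Om Φ r₀ f (labf (fun j : JJ Φ L => Sh Om Φ r₀ f j) r) := h2
    rwa [h3] at this
  exact exists_EG hLa hδ hR0 hC hI rm (fun c hc => (hall c hc).1)
    (fun c hc => ga_of_ray hLa (hC.tiny c hc).pt (hpos c hc) (rm c hc).r4 (rm c hc).ray)
    (fun c hc => g4_of hLa (hC.tiny c hc).pt (hpos c hc) (rm c hc).r4 (rm c hc).ray hI.pos
      (r0_lt hLa hC hI))
    hG hμ hκ0 hκ hμ1 j hj c hac hne hv0 hv1 hrS hrq hlam hlo hhi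

/-- **`EG` for the machine**; labels in the form of 438's `LabP` -/
theorem exists_EG2 (hLa : IsOpen La) (hδ : 0 < δ) (hR0 : 0 < R)
    (hC : Cores Φ T f κ1 κ2 X J0 J V ct A lam z θ φ) (hI : InitR Φ T f g J0 ct' r₀)
    {L : Φ.F → Finset ℝ} [Nonempty (JJ Φ L)] (hG : GF Φ r₀ T f L) {bp : JJ Φ L → E3} {μ : ℝ}
    (hμ : 0 < μ) (hκ0 : 0 < κ1) (hκ : 8 * ((Cn δ R + 1) * κ1) ≤ μ) (hμ1 : μ ≤ 1) (j : JJ Φ L)
    (hj : μ ≤ j.2.1 ∧ (j.2.1 : ℝ) ≤ 1 - μ) (c : {c : Φ.F // c ∉ X}) (hac : j.1 ≠ c.1)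
    (hne : (Pc Φ.F c.1 ∩ Pc Φ.F j.1).Nonempty) {v0 v1 : VxK T (KT T J X) c}
    (hv0 : sb Φ (θ c v0.1) j.1 ≤ μ / 2) (hv1 : 1 - μ / 2 ≤ sb Φ (θ c v1.1) j.1) {r : E3}
    (hr : r ∈ (st0 hG bp).P) (hrl : (st0 hG bp).lab r = j)
    (hrq : ∃ q, r ∈ P (T.H q) ∧ ∀ c ∉ X, q ∉ V c)
    {lm : E3 → ZMod 2} (hlam : IsLab T (gPts (st0 hG bp) j) lm)
    (hlab : ∀ ρ r : ℝ, 0 < ρ → ρ ≤ r → r < 1 → RayTo Φ c.1 r →
      (∀ x ∈ KJ T (J0 c.1), gau c.1.1 (Φ.B c.1).lo (f x) < ρ) →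
      ∀ q, ∀ x ∈ P (T.H q), f x ∈ c.1.1.set → ρ ≤ gau c.1.1 (Φ.B c.1).lo (f x) →
        ∀ v ∈ P (T.H q), T.dim v = 0 →
          (Φ.lev j.1 (f x) < j.2.1 - κ1 → lm v = 1) ∧
            (j.2.1 + κ1 < Φ.lev j.1 (f x) → lm v = 0)) :
    Nonempty (EG (st0 hG bp) j (Sh Om Φ r₀ f j) (KT T J X) c v0 v1 r) := by
  have hall : ∀ c : Φ.F, ∃ ρ1 ρ2 ρ3 ρ4 d : ℝ, c ∉ X → d ≤ κ1 ∧
      Rm Φ T f c (J0 c) (J c) (V c) (θ c) ρ1 ρ2 ρ3 ρ4 d := by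
    intro c
    by_cases hc : c ∈ X
    · exact ⟨0, 0, 0, 0, 0, fun h => absurd hc h⟩
    · obtain ⟨ρ1, ρ2, ρ3, ρ4, d, h1, h2⟩ := exists_rm (hC.tiny c hc)
      exact ⟨ρ1, ρ2, ρ3, ρ4, d, fun _ => ⟨h1, h2⟩⟩
  choose ρ1 ρ2 ρ3 ρ4 d hall using hall
  have rm : ∀ c ∉ X, Rm Φ T f c (J0 c) (J c) (V c) (θ c) (ρ1 c) (ρ2 c) (ρ3 c) (ρ4 c) (d c) :=
    fun c hc => (hall c hc).2
  have hpos : ∀ c ∉ X, 0 < ρ4 c := by
    intro c hc
    have h := rm c hc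
    linarith [h.r1, h.r12, h.r23, h.r34, h.d0]
  have hrS : r ∈ Sh Om Φ r₀ f j := by
    have h2 := hG.mem_lab hr.1
    have h3 : labf (fun j : JJ Φ L => Sh Om Φ r₀ f j) r = j := hrl
    have : r ∈ Sh Om Φ r₀ f (labf (fun j : JJ Φ L => Sh Om Φ r₀ f j) r) := h2
    rwa [h3] at this
  have hga : ∀ c ∉ X, GA Φ c (ρ4 c) := fun c hc =>
    ga_of_ray hLa (hC.tiny c hc).pt (hpos c hc) (rm c hc).r4 (rm c hc).ray
  have hCk : 0 ≤ Cn δ R * κ1 := mul_nonneg (Cn_nonneg hδ hR0) hκ0.le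
  have hCk8 : 8 * (Cn δ R * κ1) + 8 * κ1 ≤ μ := by
    have : 8 * ((Cn δ R + 1) * κ1) = 8 * (Cn δ R * κ1) + 8 * κ1 := by ring
    linarith
  refine exists_EG0 hLa hδ hR0 hC hI rm (fun c hc => (hall c hc).1) hga
    (fun c hc => g4_of hLa (hC.tiny c hc).pt (hpos c hc) (rm c hc).r4 (rm c hc).ray hI.pos
      (r0_lt hLa hC hI))
    hG hμ hκ0 hκ hμ1 j hj c hac hne hv0 hv1 hrS hrq hlam fun q x hx h1 h4 v hv hvd => ?_
  have h := rm c.1 c.2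
  obtain ⟨h5, h6⟩ := hlab (ρ1 c) (ρ4 c) h.r1 (by linarith [h.r12, h.r23, h.r34, h.d0]) h.r4 h.ray
    h.j0 q x hx (((hga c.1 c.2).one _).1 (by linarith [h.r4])) h1 v hv hvd
  exact ⟨fun h7 => h5 (by linarith [hj.1]), fun h7 => h6 (by linarith [hj.2])⟩

end machine

end Crest.Agent.R096.Ess9_95
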