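import Crest.Agent.R096.Lbp2_438

/-! Row 96 (helper438), DOORS-ESS, LAB-POS, part 3: **`labP` and `exists_root` for 543's truthful
state of the machine data** (`InitS`) -/

set_option autoImplicit false
set_option linter.unusedSectionVars false
set_option linter.style.haveILetI false

open Set Topology Filter

namespace Crest.Agent.R096.Lbp_438

open Crest.Agent.R096.Coh_184 Crest.Agent.R096.Brk1_582 Crest.Agent.R096.Brk2_582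
open Crest.Agent.R096.Bsp_628 Crest.Agent.R096.Brk3_582
open Crest.Agent.R096.Brk5_582
open Crest.Agent.R96.Push_899 Crest.Agent.R096.SkC1_961
open Crest.Agent.R096.Main_4 Crest.Agent.R096.Seq_213 Crest.Agent.R096.St_147
open Crest.Agent.R096.Msh_715 Crest.Agent.R096.Init_543 Crest.Agent.R096.Gs_422
open Crest.Agent.R096.Agl5_543 Crest.Agent.R096.Agl6_543 Crest.Agent.R096.Ginv_543
open Crest.Agent.R096.Lab_184 Crest.Agent.R096.Agl4_543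

variable {δ κ0 R c0 : ℝ} {La Om : Set E3} {ι : Type} {Φ : FoamD δ κ0 R c0 La}
  {T : Tiling Om ι} {f g : E3 → E3} {J0 : Φ.F → Set ι} {ct' : Φ.F → ι} {r₀ : Φ.F → ℝ}

/-- all tiles near the cores are mapped into the open bricks -/
theorem cores_inside {κ1 κ2 : ℝ} {X : Set Φ.F}
    {J V : Φ.F → Set ι} {ct : Φ.F → ι} {A : Φ.F → E3 ≃ᵃ[ℝ] E3} {lam : Φ.F → ℝ} {z : Φ.F → E3}
    {θ : Φ.F → E3 → E3} {φ : Φ.F → E3 → ℝ}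
    (hC : Mbf_337.Cores Φ T f κ1 κ2 X J0 J V ct A lam z θ φ) (c : Φ.F) :
    J0 c ⊆ V c ∧ ∀ q ∈ V c, ∀ x ∈ Msh_715.P (T.H q), ∀ k, c.1.lo k < f x k ∧ f x k < c.1.hi k := by
  by_cases hc : c ∈ X
  · obtain ⟨h1, h2, h3⟩ := hC.one c hc
    rw [h1, h3]
    refine ⟨Subset.rfl, ?_⟩
    rintro q rfl x hx
    exact (hC.exact_ c hc).inside x hx
  · have hT := hC.tiny c hc
    exact ⟨hT.sub0.trans hT.sub, fun q hq x hx => hT.inside x (mem_biUnion hq hx)⟩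

/-- **the label data of the sheets of INIT** -/
theorem dat_init (hLa : IsOpen La) (hf : Hom3 f Om La) {κ1 κ2 μ : ℝ} {X : Set Φ.F}
    {J V : Φ.F → Set ι} {ct : Φ.F → ι} {A : Φ.F → E3 ≃ᵃ[ℝ] E3} {lam : Φ.F → ℝ} {z : Φ.F → E3}
    {θ : Φ.F → E3 → E3} {φ : Φ.F → E3 → ℝ}
    (hC : Mbf_337.Cores Φ T f κ1 κ2 X J0 J V ct A lam z θ φ) (hF : Mbf_337.Fine Φ T f κ1 J0)
    {hR : InitR Φ T f g J0 ct' r₀} {ε s₁ : ℝ}
    {hM : Mesh0 T (Pc Φ.F) (bc (F := Φ.F)) (RF Φ r₀) f (KorJ Φ J0) ε} {hε : ε < s₁} {hε1 : ε < 1}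
    {L : Φ.F → Finset ℝ} [Nonempty (JJ Φ L)] {hG : GF Φ r₀ T f L} {D : Φ.F → Set E3}
    {bp : JJ Φ L → E3} {lam₀ : JJ Φ L → E3 → ZMod 2} {v₀ v₁ : Φ.F → E3}
    (hI : InitS hLa hR hM hε hε1 hG D bp lam₀ v₀ v₁) (h0 : 0 ≤ κ1) (hμ : κ1 < μ)
    (hm : ∀ c, ∀ t ∈ L c, μ ≤ t ∧ t ≤ 1 - μ) (j : JJ Φ L) :
    Dat Φ T f J0 κ1 j.1 j.2.1 (gPts (st0 hG bp) j) (lam₀ j) := by
  have F := foam4 Φ hLa
  have hRet := retF Φ hLa hR.pos hR.le_one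
  have hj := hm j.1 j.2.1 j.2.2
  have hu : ∀ u ∈ gPts (st0 hG bp) j, u ∈ Om ∧ T.dim u = 1 ∧ Φ.lev j.1 (f u) = j.2.1 := by
    intro u hu
    obtain ⟨h1, h2⟩ := mem_gPts.1 hu
    have h3 := st0_mem hLa hR h1
    rw [h2] at h3
    exact h3
  have hzero : ∀ x ∈ Om, f x ∈ Pc Φ.F j.1 → vF Φ r₀ f j.1 x = 0 := by
    intro x hx hxa
    have h1 := hRet.cell j.1 hxa
    exact (F.sc_eq_zero (F.sub j.1 h1)).2 h1
  refine ⟨hf, h0, by linarith, by linarith, hI.lab.lab j,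
    fun c q hq => (cores_inside hC c).2 q ((cores_inside hC c).1 hq),
    fun q hq x hx y hy => hF.lev q hq x hx y hy j.1, fun u hu' => (hu u hu').2.2, ?_, ?_, ?_, ?_⟩
  · intro u hu' hua
    obtain ⟨h1, h2, h3⟩ := hu u hu'
    have h4 := hzero u h1 hua
    rw [hR.v_eq' Φ hLa h1 (by omega), h3] at h4
    linarith
  · intro q hq x hx hxa
    rw [← hR.v_eq Φ hLa (T.sub q hx) (fun c => ?_) j.1]
    · exact hzero x (T.sub q hx) hxa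
    · refine not_mem_I (fun e => hq c ?_) hx
      rw [e]; exact hR.ct c
  · obtain ⟨q, hq, x, hx, hxa⟩ := hI.deepT j.1
    exact ⟨v₀ j.1, mem_VM hx ⟨T.sub q hx, hxa⟩ hq (hI.deep j.1).2.1, hI.lab.one j⟩
  · obtain ⟨e, he⟩ := (hI.body j.1).far
    refine ⟨e, ?_, ?_⟩
    · intro h
      rw [h] at he
      obtain ⟨g', a1, a2, a3, a4, a5, a6⟩ := hf
      obtain ⟨y, hy⟩ := Vb_965.cell_nonempty Φ j.1
      have h1 : f (g' y) ∈ Pc Φ.F j.1 := by rw [a4 y (F.sub j.1 hy)]; exact hy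
      exact he (g' y) (interior_subset ((hI.body j.1).star j.1 ⟨y, hy, hy⟩ (g' y)
        (a2 (F.sub j.1 hy)) h1)) h1
    · rintro v ⟨hv0, q, ⟨x, hxq, hxO, hxe⟩, hvq⟩
      refine (hI.farL j).far q (fun h => ?_) v hvq
      exact he x (interior_subset (h hxq)) hxe

/-- **LAB-POS for the tiny cores** -/
theorem labP_init (hLa : IsOpen La) (hLc : IsPreconnected La) (hf : Hom3 f Om La) {κ1 κ2 μ : ℝ}
    {X : Set Φ.F}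
    {J V : Φ.F → Set ι} {ct : Φ.F → ι} {A : Φ.F → E3 ≃ᵃ[ℝ] E3} {lam : Φ.F → ℝ} {z : Φ.F → E3}
    {θ : Φ.F → E3 → E3} {φ : Φ.F → E3 → ℝ}
    (hC : Mbf_337.Cores Φ T f κ1 κ2 X J0 J V ct A lam z θ φ) (hF : Mbf_337.Fine Φ T f κ1 J0)
    {hR : InitR Φ T f g J0 ct' r₀} {ε s₁ : ℝ}
    {hM : Mesh0 T (Pc Φ.F) (bc (F := Φ.F)) (RF Φ r₀) f (KorJ Φ J0) ε} {hε : ε < s₁} {hε1 : ε < 1}
    {L : Φ.F → Finset ℝ} [Nonempty (JJ Φ L)] {hG : GF Φ r₀ T f L} {D : Φ.F → Set E3}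
    {bp : JJ Φ L → E3} {lam₀ : JJ Φ L → E3 → ZMod 2} {v₀ v₁ : Φ.F → E3}
    (hI : InitS hLa hR hM hε hε1 hG D bp lam₀ v₀ v₁) (h0 : 0 ≤ κ1) (hμ : κ1 < μ)
    (hm : ∀ c, ∀ t ∈ L c, μ ≤ t ∧ t ≤ 1 - μ) (j : JJ Φ L) {c : Φ.F} (hc : c ∉ X) (hjc : j.1 ≠ c)
    (hne : (Pc Φ.F j.1 ∩ Pc Φ.F c).Nonempty) :
    LabP Φ T f J0 κ1 j.1 j.2.1 (lam₀ j) c :=
  (dat_init hLa hf hC hF hI h0 hμ hm j).labP hLa hLc hjc hne (hC.tiny c hc).pt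

/-- **ROOTS**: every sheet has a point of its family in a tile at a wall, in no `V c` -/
theorem exists_root (hLa : IsOpen La) (hLc : IsPreconnected La) (hf : Hom3 f Om La) {κ1 κ2 μ : ℝ}
    {X : Set Φ.F}
    {J V : Φ.F → Set ι} {ct : Φ.F → ι} {A : Φ.F → E3 ≃ᵃ[ℝ] E3} {lam : Φ.F → ℝ} {z : Φ.F → E3}
    {θ : Φ.F → E3 → E3} {φ : Φ.F → E3 → ℝ}
    (hC : Mbf_337.Cores Φ T f κ1 κ2 X J0 J V ct A lam z θ φ) (hF : Mbf_337.Fine Φ T f κ1 J0)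
    {hR : InitR Φ T f g J0 ct' r₀} {ε s₁ : ℝ}
    {hM : Mesh0 T (Pc Φ.F) (bc (F := Φ.F)) (RF Φ r₀) f (KorJ Φ J0) ε} {hε : ε < s₁} {hε1 : ε < 1}
    {L : Φ.F → Finset ℝ} [Nonempty (JJ Φ L)] {hG : GF Φ r₀ T f L} {D : Φ.F → Set E3}
    {bp : JJ Φ L → E3} {lam₀ : JJ Φ L → E3 → ZMod 2} {v₀ v₁ : Φ.F → E3}
    (hI : InitS hLa hR hM hε hε1 hG D bp lam₀ v₀ v₁) (h0 : 0 ≤ κ1) (hμ : κ1 < μ)
    (hm : ∀ c, ∀ t ∈ L c, μ ≤ t ∧ t ≤ 1 - μ) :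
    ∃ r : JJ Φ L → E3, ∀ j, (r j ∈ (st0 hG bp).P ∧ (st0 hG bp).lab (r j) = j) ∧
      ∃ q, r j ∈ Msh_715.P (T.H q) ∧ (∃ c, ∃ x ∈ Msh_715.P (T.H q), f x ∈ Wl Φ c) ∧
        ∀ c, q ∉ V c := by
  have h : ∀ j : JJ Φ L, ∃ r, (r ∈ (st0 hG bp).P ∧ (st0 hG bp).lab r = j) ∧
      ∃ q, r ∈ Msh_715.P (T.H q) ∧ (∃ c, ∃ x ∈ Msh_715.P (T.H q), f x ∈ Wl Φ c) ∧
        ∀ c, q ∉ V c := by
    intro j
    obtain ⟨r, hr, q, hrq, c, x, hx, hxw⟩ :=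
      (dat_init hLa hf hC hF hI h0 hμ hm j).exists_wall_pt hLa hLc
    refine ⟨r, mem_gPts.1 hr, q, hrq, ⟨c, x, hx, hxw⟩, fun d hd => ?_⟩
    have h4 := (cores_inside hC d).2 q hd x hx
    obtain ⟨h1, c', h2, h3⟩ := hxw
    have h5 := eq_of_open hLa h4 h1
    have h6 := eq_of_open hLa h4 h3
    exact h2 (h6.trans h5.symm)
  choose r hr using h
  exact ⟨r, hr⟩

end Crest.Agent.R096.Lbp_438
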