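import Crest.Agent.R096.Dia2_316
import Crest.Agent.R096.Ess9_95
import Crest.Agent.R096.Lbp3_438

/-!
# Row 96, DOORS_final (helper316), part 3: **`DIn` from INIT, no open input**

* `exists_eg2`      : `EG` for all tiny cores and neighbours, labels in 438's form `LabP`.
* `exists_dIn_init` : roots, vertices and `DIn` for the truthful state, from `Cores`, `Fine`, `InitS`.
-/

set_option autoImplicit false
set_option linter.unusedSectionVars false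
set_option linter.style.longLine false

open Set Topology Filter Metric Module
open scoped Classical

namespace Crest.Agent.R096.Dia_316

open Crest.Agent.R096.Msh_715 Crest.Agent.R096.Coh_184 Crest.Agent.R096.Bsp_628
  Crest.Agent.R096.Brk1_582 Crest.Agent.R096.Brk2_582 Crest.Agent.R096.Brk3_582
  Crest.Agent.R096.Brk5_582 Crest.Agent.R096.Init_543 Crest.Agent.R096.Mbf_337
  Crest.Agent.R96.Push_899 Crest.Agent.R096.Ess4_95 Crest.Agent.R096.Ess7_95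
  Crest.Agent.R096.Lab_184 Crest.Agent.R096.Main_4 Crest.Agent.R096.Exa_560
  Crest.Agent.R096.Agl4_543 Crest.Agent.R096.Agl5_543 Crest.Agent.R096.Agl6_543
  Crest.Agent.R096.Seq_213 Crest.Agent.R096.St_147 Crest.Agent.R096.Door_501
  Crest.Agent.R096.Twr_438

open Crest.Agent.R096.SkC1_961 (E3 Hom3 IsPush FoamD)
open Crest.Agent.R096.Dfi_539 (DIn)
open Crest.Agent.R096.Lbp_438 (LabP labP_init exists_root)

variable {δ κ0 R c0 : ℝ} {La Om : Set E3} {ι : Type} {Φ : FoamD δ κ0 R c0 La} {T : Tiling Om ι}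
  {f g : E3 → E3} {κ1 κ2 μ : ℝ} {X : Set Φ.F} {J0 J V : Φ.F → Set ι}
  {ct ct' : Φ.F → ι} {A : Φ.F → E3 ≃ᵃ[ℝ] E3} {lam : Φ.F → ℝ} {z : Φ.F → E3}
  {θ : Φ.F → E3 → E3} {φ : Φ.F → E3 → ℝ} {r₀ : Φ.F → ℝ}
  {L : Φ.F → Finset ℝ} [Nonempty (JJ Φ L)] {hG : GF Φ r₀ T f L} {bp : JJ Φ L → E3}

/-- **`EG` for all tiny cores and all neighbours**, labels in the form `LabP` -/
theorem exists_eg2 (hLa : IsOpen La) (hδ : 0 < δ) (hR : 0 < R) (hκ0 : 0 < κ1)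
    (hκ : 8 * ((Cn δ R + 1) * κ1) ≤ μ) (hμ1 : μ ≤ 1)
    (hC : Cores Φ T f κ1 κ2 X J0 J V ct A lam z θ φ) (hI : InitR Φ T f g J0 ct' r₀)
    (hm : ∀ c, ∀ t ∈ L c, μ ≤ t ∧ t ≤ 1 - μ)
    {r : JJ Φ L → E3} (hr : ∀ j, r j ∈ (st0 hG bp).P ∧ (st0 hG bp).lab (r j) = j)
    (hrq : ∀ j, ∃ q, r j ∈ P (T.H q) ∧ ∀ c ∉ X, q ∉ V c)
    {lm : JJ Φ L → E3 → ZMod 2} (hlam : ∀ j, IsLab T (gPts (st0 hG bp) j) (lm j))
    (hlab : ∀ (j : JJ Φ L) (c : Φ.F), c ∉ X → j.1 ≠ c → (Pc Φ.F j.1 ∩ Pc Φ.F c).Nonempty →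
      LabP Φ T f J0 κ1 j.1 j.2.1 (lm j) c)
    {v0 v1 : ∀ c, Φ.F → VxK T (KT T J X) c}
    (hv0 : ∀ (c : {c : Φ.F // c ∉ X}) a, nbT Φ X c a →
      sb Φ (θ c.1 (v0 c a).1) a ≤ (2 * Cn δ R + 1) * κ1)
    (hv1 : ∀ (c : {c : Φ.F // c ∉ X}) a, nbT Φ X c a →
      1 - (2 * Cn δ R + 1) * κ1 ≤ sb Φ (θ c.1 (v1 c a).1) a) :
    ∀ (c : {c : Φ.F // c ∉ X}) (j : JJ Φ L), nbT Φ X c j.1 → Nonempty
      (EG (st0 hG bp) j (Sh Om Φ r₀ f j) (KT T J X) c (v0 c j.1) (v1 c j.1) (r j)) := by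
  obtain ⟨e1, e2, e3⟩ := cn_small hδ hR hκ0 hκ hμ1
  have e4 : 0 ≤ Cn δ R * κ1 := mul_nonneg (Cn_nonneg hδ hR) hκ0.le
  have hμ0 : 0 < μ := by linarith
  intro c j hj
  exact Ess9_95.exists_EG2 hLa hδ hR hC hI hG hμ0 hκ0 hκ hμ1 j (hm _ _ j.2.2) c hj.1 hj.2
    ((hv0 c j.1 hj).trans e3) (le_trans (by linarith) (hv1 c j.1 hj)) (hr j).1 (hr j).2 (hrq j)
    (hlam j) (hlab j c.1 c.2 hj.1 (by rw [inter_comm]; exact hj.2))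

variable {hH : ∀ c, CoreH T (KT T J X c)}

/-- **THE INPUT OF THE TOWERS FOR THE MACHINE**, from the data of `Mbf_337` and INIT -/
theorem exists_dIn_init (hLa : IsOpen La) (hLc : IsPreconnected La) (hf : Hom3 f Om La)
    (hδ : 0 < δ) (hR : 0 < R) (hκ0 : 0 < κ1) (hκ : 8 * ((Cn δ R + 1) * κ1) ≤ μ) (hμ1 : μ ≤ 1 / 2)
    (hC : Cores Φ T f κ1 κ2 X J0 J V ct A lam z θ φ) (hF : Fine Φ T f κ1 J0)
    {hI : InitR Φ T f g J0 ct' r₀} {ε s₁ : ℝ}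
    {hM : Mesh0 T (Pc Φ.F) (bc (F := Φ.F)) (RF Φ r₀) f (KorJ Φ J0) ε} {hε : ε < s₁} {hε1 : ε < 1}
    {D : Φ.F → Set E3} {lam₀ : JJ Φ L → E3 → ZMod 2} {v₀ v₁ : Φ.F → E3}
    (hS : InitS hLa hI hM hε hε1 hG D bp lam₀ v₀ v₁)
    (hm : ∀ c, ∀ t ∈ L c, μ ≤ t ∧ t ≤ 1 - μ) :
    ∃ (r : JJ Φ L → E3) (v0 v1 : ∀ c, Φ.F → VxK T (KT T J X) c),
      (∀ j, (r j ∈ (st0 hG bp).P ∧ (st0 hG bp).lab (r j) = j) ∧
        ∃ q, r j ∈ P (T.H q) ∧ (∃ c, ∃ x ∈ P (T.H q), f x ∈ Lbp_438.Wl Φ c) ∧ ∀ c, q ∉ V c) ∧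
      (∀ (c : {c : Φ.F // c ∉ X}) a, nbT Φ X c a →
        sb Φ (θ c.1 (v0 c a).1) a ≤ (2 * Cn δ R + 1) * κ1) ∧
      (∀ (c : {c : Φ.F // c ∉ X}) a, nbT Φ X c a →
        1 - (2 * Cn δ R + 1) * κ1 ≤ sb Φ (θ c.1 (v1 c a).1) a) ∧
      DIn hH (st0 hG bp) r (fun j => Sh Om Φ r₀ f j) (nbT Φ X) v0 v1
        (fun c a x => sb Φ (θ c.1 x) a) (fun _ _ => 1 - μ + Cn δ R * κ1)
        (fun _ _ => 1 - μ / 2) := by
  obtain ⟨e1, e2, e3⟩ := cn_small hδ hR hκ0 hκ (by linarith)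
  have e4 : 0 ≤ Cn δ R * κ1 := mul_nonneg (Cn_nonneg hδ hR) hκ0.le
  have e5 : κ1 < μ := by
    have : 8 * ((Cn δ R + 1) * κ1) = 8 * (Cn δ R * κ1) + 8 * κ1 := by ring
    linarith
  obtain ⟨r, hr⟩ := exists_root hLa hLc hf hC hF hS hκ0.le e5 hm
  obtain ⟨v0, v1, h0, h1⟩ := exists_vx (κ := {c : Φ.F // c ∉ X}) (cf := Subtype.val)
    (J := fun c => J c.1) (θ := fun c => θ c.1) hLa hδ hR e1 (fun c => hC.tiny c.1 c.2)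
  have hr1 : ∀ j, r j ∈ (st0 hG bp).P ∧ (st0 hG bp).lab (r j) = j := fun j => (hr j).1
  have hrq : ∀ j, ∃ q, r j ∈ P (T.H q) ∧ ∀ c ∉ X, q ∉ V c := fun j => by
    obtain ⟨q, g1, -, g2⟩ := (hr j).2
    exact ⟨q, g1, fun c _ => g2 c⟩
  have hb : ∀ j : JJ Φ L, bp j ∈ Om ∧ T.dim (bp j) = 1 ∧ Φ.lev j.1 (f (bp j)) = j.2.1 :=
    fun j => ⟨(hS.base j).1, (hS.base j).2.1, (hS.base j).2.2.1⟩
  refine ⟨r, v0, v1, hr, h0, h1, dIn_st0 hLa hδ hR hκ0 hκ hμ1 hC hI hm hb hr1 hrq h0 h1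
    (exists_eg2 hLa hδ hR hκ0 hκ (by linarith) hC hI hm hr1 hrq (lm := lam₀) (fun j => ?_)
      (fun j c hc hjc hne => labP_init hLa hLc hf hC hF hS hκ0.le e5 hm j hc hjc hne) h0 h1)⟩
  exact (Lbp_438.dat_init hLa hf hC hF hS hκ0.le e5 hm j).lab

end Crest.Agent.R096.Dia_316
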