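import Mathlib
import Crest.Agent.R096.Dia3_316
import Crest.Agent.R096.At12_241
import Crest.Agent.R096.Bar2_543

/-! # Row 96, DOORS (helper543), Rte 1: **roots of the sheets over an edge of the foam**: in no
`V c` and in no tile over a quad; `exists_dIn_initE` -/

set_option autoImplicit false
set_option linter.unusedSectionVars false

open Set Topology Filter Metric Module

namespace Crest.Agent.R096.Rte_543

open Crest.Agent.R096.Coh_184 Crest.Agent.R096.Brk1_582 Crest.Agent.R096.Brk2_582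
open Crest.Agent.R096.Bsp_628 Crest.Agent.R096.Brk3_582
open Crest.Agent.R096.Brk5_582 Crest.Agent.R096.Exc_965
open Crest.Agent.R96.Push_899 Crest.Agent.R096.SkC1_961
open Crest.Agent.R096.Main_4 Crest.Agent.R096.Seq_213 Crest.Agent.R096.St_147
open Crest.Agent.R096.Msh_715 Crest.Agent.R096.Init_543 Crest.Agent.R096.Gs_422
open Crest.Agent.R096.Agl5_543 Crest.Agent.R096.Agl6_543 Crest.Agent.R096.Ginv_543
open Crest.Agent.R096.Lab_184 Crest.Agent.R096.Agl4_543 Crest.Agent.R096.Lbp_438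
open Crest.Agent.R096.Bar_543 (axu ax_mem bdc)
open Crest.Agent.R096.Vb_965 Crest.Agent.R096.Etg_163

/-! ### a vertex of the foam at a cell -/

section vert

variable {κ : Type*} [Fintype κ] [Nonempty κ] {La : Set (κ → ℝ)} {F : Set (Bx κ)} {δ κ0 : ℝ}

theorem exists_new (BF : BoxFoam La F δ κ0) (hLa : IsOpen La) {A : Set F} (hA : A.Finite)
    (hne : A.Nonempty) (hx : (fc (Pc F) A).Nonempty) (hc : A.ncard ≤ Fintype.card κ) :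
    ∃ g, g ∉ A ∧ (fc (Pc F) (insert g A)).Nonempty := by
  classical
  have hdeg := deg_count BF hA hne hx
  obtain ⟨k, hk⟩ : ∃ k, loA A k ≠ hiA A k := by
    by_contra hcon
    push Not at hcon
    have h1 : {k | loA A k = hiA A k} = univ := by
      ext k; simp [hcon k]
    rw [h1, Set.ncard_univ, Nat.card_eq_fintype_card] at hdeg
    omega
  have hle : ∀ k, loA A k ≤ hiA A k := by
    obtain ⟨x, hx⟩ := hx
    intro k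
    have := (mem_fc_iff hA hne).1 hx k
    linarith [this.1, this.2]
  have hlo : (loA A : κ → ℝ) ∈ fc (Pc F) A := (mem_fc_iff hA hne).2 fun i => ⟨le_rfl, hle i⟩
  have h1 := (mem_relbd BF hLa hA hne hlo).2 ⟨k, hk, Or.inl rfl⟩
  have h2 : A ⊆ act (Pc F) (loA A) := fun c hc => mem_fc.1 hlo c hc
  obtain ⟨g, hg, hgA⟩ : ∃ g ∈ act (Pc F) (loA A), g ∉ A := by
    by_contra hcon
    push Not at hcon
    exact h1 (Subset.antisymm hcon h2)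
  refine ⟨g, hgA, loA A, mem_fc.2 ?_⟩
  rintro c (rfl | hc)
  · exact hg
  · exact h2 hc

theorem exists_quad (BF : BoxFoam La F δ κ0) (hLa : IsOpen La) (h3 : Fintype.card κ = 3) (a : F)
    (ha : (Pc F a).Nonempty) :
    ∃ Z : Set F, a ∉ Z ∧ Z.ncard = 3 ∧ (fc (Pc F) (insert a Z)).Nonempty := by
  classical
  have key : ∀ n, n ≤ 3 → ∃ Z : Set F, Z.Finite ∧ a ∉ Z ∧ Z.ncard = n ∧
      (fc (Pc F) (insert a Z)).Nonempty := by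
    intro n
    induction n with
    | zero =>
      intro _
      obtain ⟨y, hy⟩ := ha
      refine ⟨∅, finite_empty, notMem_empty _, ncard_empty _, y, mem_fc.2 ?_⟩
      rintro c (rfl | hc)
      · exact hy
      · exact hc.elim
    | succ n ih =>
      intro hn
      obtain ⟨Z, hf, haZ, hc, hne⟩ := ih (by omega)
      obtain ⟨g, hg, hg2⟩ := exists_new BF hLa (hf.insert a) ⟨a, Or.inl rfl⟩ hne
        (by rw [ncard_insert_of_notMem haZ hf]; omega)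
      have hgZ : g ∉ Z := fun h => hg (Or.inr h)
      refine ⟨insert g Z, hf.insert g, ?_, by rw [ncard_insert_of_notMem hgZ hf, hc], ?_⟩
      · rintro (h | h)
        · exact hg (Or.inl h.symm)
        · exact haZ h
      · rwa [insert_comm]
  obtain ⟨Z, -, h1, h2, h3⟩ := key 3 le_rfl
  exact ⟨Z, h1, h2, h3⟩

end vert

variable {δ κ0 R c0 : ℝ} {La Om : Set E3} {ι : Type} {Φ : FoamD δ κ0 R c0 La} {T : Tiling Om ι}
  {f g : E3 → E3} {J0 : Φ.F → Set ι} {κ1 : ℝ}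

/-- **a point of the sheet in a tile with a point over an edge of the foam** -/
theorem exists_edge_pt {a : Φ.F} {t : ℝ} {Q : Finset E3} {lm : E3 → ZMod 2}
    (D : Dat Φ T f J0 κ1 a t Q lm) (hLa : IsOpen La) (hLc : IsPreconnected La) :
    ∃ r ∈ Q, ∃ q, r ∈ Msh_715.P (T.H q) ∧ ∃ c, ∃ Z : Set Φ.F, c ∈ Z ∧ ∃ x ∈ Msh_715.P (T.H q),
      f x ∈ Wl Φ c ∧ ∃ s : ℝ, sc (Pc Φ.F) (bc (F := Φ.F)) (f x) = axu a Z s := by
  have F := Brk3_582.foam Φ.bf hLa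
  have ht1 := D.t1
  have ht0 := D.t0
  have hk := D.k0
  obtain ⟨Z, haZ, hZ3, hne⟩ := exists_quad Φ.bf hLa (by simp) a (cell_nonempty Φ a)
  obtain ⟨c, d, hc, hd, hcd⟩ : ∃ c d, c ∈ Z ∧ d ∈ Z ∧ d ≠ c := by
    obtain ⟨c, hc⟩ : Z.Nonempty := by
      rw [Set.nonempty_iff_ne_empty]; rintro rfl; simp at hZ3
    obtain ⟨d, hd, hdc⟩ := Set.exists_ne_of_one_lt_ncard (s := Z) (by omega) c
    exact ⟨c, d, hc, hd, hdc⟩
  have hca : a ≠ c := fun h => haZ (h ▸ hc)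
  obtain ⟨θ, hθ0, hθ1⟩ := exists_between ht1
  have hax : ∀ s ∈ Icc (0 : ℝ) 1, axu a Z s ∈ K (Pc Φ.F) ∧
      Brk1_582.T (bc (F := Φ.F)) (axu a Z s) ∈ bdc (Pc Φ.F) c ∧
      sc (Pc Φ.F) (bc (F := Φ.F)) (Brk1_582.T (bc (F := Φ.F)) (axu a Z s)) = axu a Z s :=
    fun s hs => ax_mem F hc haZ hne ⟨d, hd, hcd⟩ hs
  have hsub : Icc (0 : ℝ) θ ⊆ Icc (0 : ℝ) 1 := Icc_subset_Icc le_rfl hθ1.le
  set A : Set E3 := (fun s => Brk1_582.T (bc (F := Φ.F)) (axu a Z s)) '' Icc (0 : ℝ) θ with hA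
  have hAc : IsPreconnected A := by
    refine isPreconnected_Icc.image _ ((continuousOn_T F).comp ?_ fun s hs => (hax s (hsub hs)).1)
    refine (continuous_pi fun e => ?_).continuousOn
    unfold axu
    split_ifs <;> fun_prop
  have hAL : A ⊆ La := by
    rintro _ ⟨s, hs, rfl⟩
    exact F.sub c (hax s (hsub hs)).2.1.1
  have hθp : (0 : ℝ) ≤ θ := by linarith
  have h0m : (0 : ℝ) ∈ Icc (0 : ℝ) θ := left_mem_Icc.2 hθp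
  have h1m : θ ∈ Icc (0 : ℝ) θ := right_mem_Icc.2 hθp
  have hy : Brk1_582.T (bc (F := Φ.F)) (axu a Z 0) ∈ Pc Φ.F a := by
    obtain ⟨-, g1, g2⟩ := hax 0 (hsub h0m)
    rw [← F.sc_eq_zero (F.sub c g1.1), g2]
    simp [axu]
  have hz : Brk1_582.T (bc (F := Φ.F)) (axu a Z θ) ∈ Dge (Pc Φ.F) (bc (F := Φ.F)) c a θ := by
    obtain ⟨-, g1, g2⟩ := hax θ (hsub h1m)
    refine ⟨g1.1, g1.2, ?_⟩
    rw [g2]
    simp [axu]
  obtain ⟨v, hv⟩ := D.exists_vm (F.sub a hy)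
  obtain ⟨w, hw⟩ := D.exists_vm (F.sub c hz.1)
  have h1 : lm v = 1 := D.at_cell hLa (hv _ hy)
  have h2 : lm w = 0 := D.wall_hi hLa hLc hθ0 hθ1 hca (hw _ hz)
  obtain ⟨q, ⟨x, hxq, -, hx⟩, u, hu, huq⟩ := D.lab.reach_geom
    (isPreconnected_hom D.hf hAc hAL)
    (fun x hx => hx.1) (hv A ⟨0, h0m, rfl⟩) (hw A ⟨θ, h1m, rfl⟩)
    (by rw [h1, h2]; exact one_ne_zero)
  obtain ⟨s, hs, hsx⟩ := hx
  obtain ⟨-, g1, g2⟩ := hax s (hsub hs)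
  refine ⟨u, hu, q, huq, c, Z, hc, x, hxq, ?_, s, ?_⟩
  · rw [← hsx]; exact g1
  · rw [← hsx]; exact g2

/-- a tile with a point over an edge of the foam is over no quad -/
theorem edge_tile {g : E3 → E3} {ct' : Φ.F → ι} {r₀ : Φ.F → ℝ} (hLa : IsOpen La)
    (hR : InitR Φ T f g J0 ct' r₀) {ε : ℝ}
    (hM : Mesh0 T (Pc Φ.F) (bc (F := Φ.F)) (RF Φ r₀) f (KorJ Φ J0) ε) (hε1 : ε < 1) {a c : Φ.F}
    {Z : Set Φ.F} {q : ι} {x : E3} (hx : x ∈ Msh_715.P (T.H q)) (hxw : f x ∈ Wl Φ c) {s₀ : ℝ}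
    (hs₀ : sc (Pc Φ.F) (bc (F := Φ.F)) (f x) = axu a Z s₀) {s : ℝ} (hs : ε < s)
    {k : QK (Pc Φ.F)} (hk : a ∈ k.B) :
    q ∉ Act0 T (Pc Φ.F) (bc (F := Φ.F)) (RF Φ r₀) f (KorJ Φ J0) s k := by
  rintro ⟨hqK, x₀, g2, g3, g4⟩
  have F := foam4 Φ hLa
  obtain ⟨a1, -, -, -⟩ := key hR.hm F (retF Φ hLa hR.pos hR.le_one) hM hs hε1 hqK g2 hx g3 g4
  obtain ⟨b, hab, hb, -⟩ := k.exists_other hk
  have h1 := a1 b hb
  rw [At_241.va_lev hLa hR hqK hx, (lev_wall (a := b) hLa hxw).2, hs₀] at h1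
  unfold axu at h1
  rw [if_neg hab.symm] at h1
  split_ifs at h1
  · linarith [h1.1]
  · linarith [h1.2]

section mach

variable {g : E3 → E3} {ct' : Φ.F → ι} {r₀ : Φ.F → ℝ}

/-- **ROOTS over an edge of the foam** -/
theorem exists_rootE (hLa : IsOpen La) (hLc : IsPreconnected La) (hf : Hom3 f Om La) {κ1 κ2 μ : ℝ}
    {X : Set Φ.F}
    {J V : Φ.F → Set ι} {ct : Φ.F → ι} {A : Φ.F → E3 ≃ᵃ[ℝ] E3} {lam : Φ.F → ℝ} {z : Φ.F → E3}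
    {θ : Φ.F → E3 → E3} {φ : Φ.F → E3 → ℝ}
    (hC : Mbf_337.Cores Φ T f κ1 κ2 X J0 J V ct A lam z θ φ) (hF : Mbf_337.Fine Φ T f κ1 J0)
    {hR : InitR Φ T f g J0 ct' r₀} {ε s₁ : ℝ}
    {hM : Mesh0 T (Pc Φ.F) (bc (F := Φ.F)) (RF Φ r₀) f (KorJ Φ J0) ε} {hε : ε < s₁} {hε1 : ε < 1}
    {L : Φ.F → Finset ℝ} [Nonempty (JJ Φ L)] {hG : GF Φ r₀ T f L} {D : Φ.F → Set E3}
    {bp : JJ Φ L → E3} {lam₀ : JJ Φ L → E3 → ZMod 2} {v₀ v₁ : Φ.F → E3}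
    (hI : InitS hLa hR hM hε hε1 hG D bp lam₀ v₀ v₁) (h0 : 0 ≤ κ1) (hμ : κ1 < μ)
    (hm : ∀ c, ∀ t ∈ L c, μ ≤ t ∧ t ≤ 1 - μ) :
    ∃ r : JJ Φ L → E3, ∀ j, (r j ∈ (st0 hG bp).P ∧ (st0 hG bp).lab (r j) = j) ∧
      ∃ q, r j ∈ Msh_715.P (T.H q) ∧ (∃ c, ∃ x ∈ Msh_715.P (T.H q), f x ∈ Wl Φ c) ∧
        (∀ c, q ∉ V c) ∧ ∀ (k : QK (Pc Φ.F)) (s : ℝ), j.1 ∈ k.B → ε < s →
          q ∉ Act0 T (Pc Φ.F) (bc (F := Φ.F)) (RF Φ r₀) f (KorJ Φ J0) s k := by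
  have h : ∀ j : JJ Φ L, ∃ r, (r ∈ (st0 hG bp).P ∧ (st0 hG bp).lab r = j) ∧
      ∃ q, r ∈ Msh_715.P (T.H q) ∧ (∃ c, ∃ x ∈ Msh_715.P (T.H q), f x ∈ Wl Φ c) ∧
        (∀ c, q ∉ V c) ∧ ∀ (k : QK (Pc Φ.F)) (s : ℝ), j.1 ∈ k.B → ε < s →
          q ∉ Act0 T (Pc Φ.F) (bc (F := Φ.F)) (RF Φ r₀) f (KorJ Φ J0) s k := by
    intro j
    obtain ⟨r, hr, q, hrq, c, Z, hcZ, x, hx, hxw, s₀, hs₀⟩ :=
      exists_edge_pt (dat_init hLa hf hC hF hI h0 hμ hm j) hLa hLc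
    refine ⟨r, mem_gPts.1 hr, q, hrq, ⟨c, x, hx, hxw⟩, fun d hd => ?_, fun k s hk hs =>
      edge_tile hLa hR hM hε1 hx hxw hs₀ hs hk⟩
    have h4 := (cores_inside hC d).2 q hd x hx
    obtain ⟨h1, c', h2, h3⟩ := hxw
    have h5 := eq_of_open hLa h4 h1
    have h6 := eq_of_open hLa h4 h3
    exact h2 (h6.trans h5.symm)
  choose r hr using h
  exact ⟨r, hr⟩

end mach

section din

open Crest.Agent.R096.Coh_184 Crest.Agent.R096.Mbf_337 Crest.Agent.R096.Ess4_95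
  Crest.Agent.R096.Ess7_95 Crest.Agent.R096.Exa_560 Crest.Agent.R096.Door_501
  Crest.Agent.R096.Twr_438 Crest.Agent.R096.Dia_316
open Crest.Agent.R096.Dfi_539 (DIn)
open scoped Classical

variable {δ κ0 R c0 : ℝ} {La Om : Set E3} {ι : Type} {Φ : FoamD δ κ0 R c0 La} {T : Tiling Om ι}
  {f g : E3 → E3} {κ1 κ2 μ : ℝ} {X : Set Φ.F} {J0 J V : Φ.F → Set ι}
  {ct ct' : Φ.F → ι} {A : Φ.F → E3 ≃ᵃ[ℝ] E3} {lam : Φ.F → ℝ} {z : Φ.F → E3}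
  {θ : Φ.F → E3 → E3} {φ : Φ.F → E3 → ℝ} {r₀ : Φ.F → ℝ}
  {L : Φ.F → Finset ℝ} [Nonempty (JJ Φ L)] {hG : GF Φ r₀ T f L} {bp : JJ Φ L → E3}
  {hH : ∀ c, CoreH T (KT T J X c)}

/-- **316's `exists_dIn_init` with the roots over an edge of the foam** -/
theorem exists_dIn_initE (hLa : IsOpen La) (hLc : IsPreconnected La) (hf : Hom3 f Om La)
    (hδ : 0 < δ) (hR : 0 < R) (hκ0 : 0 < κ1) (hκ : 8 * ((Cn δ R + 1) * κ1) ≤ μ) (hμ1 : μ ≤ 1 / 2)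
    (hC : Cores Φ T f κ1 κ2 X J0 J V ct A lam z θ φ) (hF : Fine Φ T f κ1 J0)
    {hI : InitR Φ T f g J0 ct' r₀} {ε s₁ : ℝ}
    {hM : Mesh0 T (Pc Φ.F) (bc (F := Φ.F)) (RF Φ r₀) f (KorJ Φ J0) ε} {hε : ε < s₁} {hε1 : ε < 1}
    {D : Φ.F → Set E3} {lam₀ : JJ Φ L → E3 → ZMod 2} {v₀ v₁ : Φ.F → E3}
    (hS : InitS hLa hI hM hε hε1 hG D bp lam₀ v₀ v₁)
    (hm : ∀ c, ∀ t ∈ L c, μ ≤ t ∧ t ≤ 1 - μ) :
    ∃ (r : JJ Φ L → E3) (v0 v1 : ∀ c, Φ.F → VxK T (KT T J X) c),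
      (∀ j, (r j ∈ (st0 hG bp).P ∧ (st0 hG bp).lab (r j) = j) ∧
        ∃ q, r j ∈ P (T.H q) ∧ (∃ c, ∃ x ∈ P (T.H q), f x ∈ Lbp_438.Wl Φ c) ∧ (∀ c, q ∉ V c) ∧
          ∀ (k : QK (Pc Φ.F)) (s : ℝ), j.1 ∈ k.B → ε < s →
            q ∉ Act0 T (Pc Φ.F) (bc (F := Φ.F)) (RF Φ r₀) f (KorJ Φ J0) s k) ∧
      (∀ (c : {c : Φ.F // c ∉ X}) a, nbT Φ X c a →
        sb Φ (θ c.1 (v0 c a).1) a ≤ (2 * Cn δ R + 1) * κ1) ∧
      (∀ (c : {c : Φ.F // c ∉ X}) a, nbT Φ X c a →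
        1 - (2 * Cn δ R + 1) * κ1 ≤ sb Φ (θ c.1 (v1 c a).1) a) ∧
      DIn hH (st0 hG bp) r (fun j => Sh Om Φ r₀ f j) (nbT Φ X) v0 v1
        (fun c a x => sb Φ (θ c.1 x) a) (fun _ _ => 1 - μ + Cn δ R * κ1)
        (fun _ _ => 1 - μ / 2) := by
  obtain ⟨e1, e2, e3⟩ := cn_small hδ hR hκ0 hκ (by linarith)
  have e4 : 0 ≤ Cn δ R * κ1 := mul_nonneg (Cn_nonneg hδ hR) hκ0.le
  have e5 : κ1 < μ := by
    have : 8 * ((Cn δ R + 1) * κ1) = 8 * (Cn δ R * κ1) + 8 * κ1 := by ring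
    linarith
  obtain ⟨r, hr⟩ := exists_rootE hLa hLc hf hC hF hS hκ0.le e5 hm
  obtain ⟨v0, v1, h0, h1⟩ := exists_vx (κ := {c : Φ.F // c ∉ X}) (cf := Subtype.val)
    (J := fun c => J c.1) (θ := fun c => θ c.1) hLa hδ hR e1 (fun c => hC.tiny c.1 c.2)
  have hr1 : ∀ j, r j ∈ (st0 hG bp).P ∧ (st0 hG bp).lab (r j) = j := fun j => (hr j).1
  have hrq : ∀ j, ∃ q, r j ∈ P (T.H q) ∧ ∀ c ∉ X, q ∉ V c := fun j => by
    obtain ⟨q, g1, -, g2, -⟩ := (hr j).2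
    exact ⟨q, g1, fun c _ => g2 c⟩
  have hb : ∀ j : JJ Φ L, bp j ∈ Om ∧ T.dim (bp j) = 1 ∧ Φ.lev j.1 (f (bp j)) = j.2.1 :=
    fun j => ⟨(hS.base j).1, (hS.base j).2.1, (hS.base j).2.2.1⟩
  refine ⟨r, v0, v1, hr, h0, h1, dIn_st0 hLa hδ hR hκ0 hκ hμ1 hC hI hm hb hr1 hrq h0 h1
    (exists_eg2 hLa hδ hR hκ0 hκ (by linarith) hC hI hm hr1 hrq (lm := lam₀) (fun j => ?_)
      (fun j c hc hjc hne => labP_init hLa hLc hf hC hF hS hκ0.le e5 hm j hc hjc hne) h0 h1)⟩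
  exact (Lbp_438.dat_init hLa hf hC hF hS hκ0.le e5 hm j).lab

end din

end Crest.Agent.R096.Rte_543
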