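import Crest.Agent.R096.Fcd4_117
import Crest.Agent.R096.Lbc1_334
import Crest.Agent.R096.Dib6_438
import Crest.Agent.R096.Rte1_543
import Crest.Agent.R096.Fm1_184
import Crest.Agent.R096.Civ3_662
import Crest.Agent.R096.Ord2_117

/-!
# R096 (row 96), DOORS_final (helper117): **the frame of DOORS over the closed Prop `HOpen`**

* `exists_leafAE` : 438's `exists_leafA` with 543's roots (over an edge of the foam);
* `HOpen` : CLOSED literal of the only open input `H` of 334's `leafBC_m` (`TrOut ∧ VIn ∧ Dich`);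
* **`doorsQb_of_H : HOpen → DoorsQb (1 / 64)`**.
-/

set_option autoImplicit false
set_option linter.unusedSectionVars false
set_option linter.unusedVariables false
set_option linter.style.longLine false

open Set Topology Filter Metric Module Relation MeasureTheory
open scoped Classical

namespace Crest.Agent.R096.Dtf_117

open Crest.Agent.R096.Msh_715 Crest.Agent.R096.Coh_184 Crest.Agent.R096.Lab_184
  Crest.Agent.R096.Main_4 Crest.Agent.R096.Agl5_543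
  Crest.Agent.R096.Seq_213 Crest.Agent.R096.St_147 Crest.Agent.R096.Door_501
  Crest.Agent.R096.Twr_438 Crest.Agent.R096.Exa_560
  Crest.Agent.R096.Ess3_95 Crest.Agent.R096.Ess4_95 Crest.Agent.R096.Ac_117 Crest.Agent.R096.Lm_117
  Crest.Agent.R096.Dfi_539 Crest.Agent.R096.Dfi_471 Crest.Agent.R096.Dfo_539
  Crest.Agent.R096.Sla_184 Crest.Agent.R096.Gm_298
  Crest.Agent.R096.Brk1_582 Crest.Agent.R096.Brk2_582 Crest.Agent.R096.Brk3_582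
  Crest.Agent.R096.Brk5_582 Crest.Agent.R096.Bsp_628 Crest.Agent.R096.Init_543
  Crest.Agent.R096.Lv3_471 Crest.Agent.R096.Lv4_471 Crest.Agent.R096.Slt_471
  Crest.Agent.R096.Dib_438 Crest.Agent.R096.Rop_441 Crest.Agent.R096.Frk_441
  Crest.Agent.R096.Dff_539 Crest.Agent.R096.Frs_662 Crest.Agent.R096.Qdl_662
  Crest.Agent.R096.Cg_501 Crest.Agent.R096.SecW_892 Crest.Agent.R096.Sgd_298
  Crest.Agent.R096.Dfg_539 Crest.Agent.R096.Nmd1_698 Crest.Agent.R096.Civ_662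
  Crest.Agent.R096.Lbc_334 Crest.Agent.R096.Bar_106 Crest.Agent.R096.Bgf_4
open Crest.Agent.R096.Sgo_298 (RmA rout ActR)
open Crest.Agent.R096.Mbf_337 (KJ Tiny Cores Fine sb gau Star Levels Words)
open Crest.Agent.R096.SkC1_961 (E3 FoamD Hom3)
open Crest.Agent.R096.Frn_337 (Ti)
open Crest.Agent.R096.Ess7_95 (KT Sh)
open Crest.Agent.R096.Dia_316 (nbT)
open Crest.Agent.R096.Dfn_416 (BarS)
open Crest.Agent.R096.Bmf_416 (coT coT_fin)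

variable {δ κ0 R c0 : ℝ} {La Om : Set E3} {ι : Type} {Φ : FoamD δ κ0 R c0 La} {T : Tiling Om ι}
  {f g : E3 → E3} {κ1 κ2 μ : ℝ} {X : Set Φ.F} {J0 J V : Φ.F → Set ι}
  {ct ct' : Φ.F → ι} {A : Φ.F → E3 ≃ᵃ[ℝ] E3} {lam : Φ.F → ℝ} {z : Φ.F → E3}
  {θ : Φ.F → E3 → E3} {φ : Φ.F → E3 → ℝ} {r₀ : Φ.F → ℝ}
  {L : Φ.F → Finset ℝ} [Nonempty (JJ Φ L)] {hG : GF Φ r₀ T f L} {bp : JJ Φ L → E3}

/-- **LEAF A** with 543's roots -/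
theorem exists_leafAE (hLa : IsOpen La) (hLc : IsPreconnected La) (hf : Hom3 f Om La)
    (hδ : 0 < δ) (hR : 0 < R) (hκ0 : 0 < κ1) (hμ : 0 < μ) (hμ1 : μ ≤ 1 / 2)
    (hκ : 8 * ((Cn δ R + 1) * κ1) ≤ μ) (hκ' : (2 * Cn δ R + 1) * κ1 ≤ μ ^ 2 / 512)
    (hC : Cores Φ T f κ1 κ2 X J0 J V ct A lam z θ φ) (hF : Fine Φ T f κ1 J0)
    {hI : InitR Φ T f g J0 ct' r₀} {ε₀ s₁ : ℝ}
    {hM : Mesh0 T (Pc Φ.F) (bc (F := Φ.F)) (RF Φ r₀) f (KorJ Φ J0) ε₀} {hε : ε₀ < s₁}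
    {hε1 : ε₀ < 1} {D : Φ.F → Set E3} {lam₀ : JJ Φ L → E3 → ZMod 2} {v₀ v₁ : Φ.F → E3}
    (hS : InitS hLa hI hM hε hε1 hG D bp lam₀ v₀ v₁)
    (hm : ∀ c, ∀ t ∈ L c, μ ≤ t ∧ t ≤ 1 - μ)
    (N : BM Φ X → Set ℝ) (hN0 : ∀ m, volume (N m) = 0) :
    ∃ (r : JJ Φ L → E3) (v0 v1 : ∀ c, Φ.F → VxK T (KT T J X) c)
      (ρ1 ρ2 ρ3 ρ4 d : Φ.F → ℝ) (q₀ : BM Φ X → E3) (ε : BM Φ X → ℝ) (bm : BM Φ X → E3)
      (hGB : GFB Φ r₀ T f L (lRc Φ X μ ρ1 ρ3 d) ε)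
      (v0B v1B : ∀ c, BM Φ X → VxK T (KT T J X) c),
      (∀ j, (r j ∈ (st0 hG bp).P ∧ (st0 hG bp).lab (r j) = j) ∧
        ∃ q, r j ∈ P (T.H q) ∧ (∃ c, ∃ x ∈ P (T.H q), f x ∈ Lbp_438.Wl Φ c) ∧ (∀ c, q ∉ V c) ∧
          ∀ (k : Init_543.QK (Pc Φ.F)) (s : ℝ), j.1 ∈ k.B → ε₀ < s →
            q ∉ Act0 T (Pc Φ.F) (bc (F := Φ.F)) (RF Φ r₀) f (KorJ Φ J0) s k) ∧
      (∀ (c : Ti X) a, nbT Φ X c a → sb Φ (θ c.1 (v0 c a).1) a ≤ (2 * Cn δ R + 1) * κ1) ∧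
      (∀ (c : Ti X) a, nbT Φ X c a → 1 - (2 * Cn δ R + 1) * κ1 ≤ sb Φ (θ c.1 (v1 c a).1) a) ∧
      BarOut Φ T f κ1 μ X J0 J V θ hG bp N ρ1 ρ2 ρ3 ρ4 d q₀ ε bm hGB v0B v1B ∧
      BarS hG bp V coT (stB hGB bp bm) ∧
      DIn (fun c => Dia_316.coreH_KT hC c) (stB hGB bp bm) (Sum.elim r bm)
        (SfA Om Φ X r₀ f L μ ρ1 ρ3 d ε) (nbA Φ X) (vS v0 v0B) (vS v1 v1B) (uA Φ hLa X θ)
        (AA Φ X μ κ1) (BA Φ X μ) ∧
      BRec hLa (stB hGB bp bm) f X J θ coT BM.am BM.Zm (nbA Φ X) (vS v0 v0B) (vS v1 v1B)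
        (uA Φ hLa X θ) (AA Φ X μ κ1) (BA Φ X μ) μ (Cn δ R * κ1) (μ / 8) (1 / 2)
        (1 / 2 - 5 * μ / 16) (1 + μ / 16) (5 * μ / 32) (3 * μ / 16) := by
  have e2 : μ ^ 2 / 512 ≤ μ / 1024 := by nlinarith
  obtain ⟨r, v0, v1, h1, h2, h3, D1⟩ := Rte_543.exists_dIn_initE
    (hH := fun c => Dia_316.coreH_KT hC c) hLa hLc hf hδ hR hκ0 hκ hμ1 hC hF hS hm
  have hL : ∀ c, ∀ t ∈ L c, 0 < t ∧ t < 1 := fun c t ht => by
    obtain ⟨g1, g2⟩ := hm c t ht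
    exact ⟨by linarith, by linarith⟩
  have hbp : ∀ j : JJ Φ L, bp j ∈ Om ∧ T.dim (bp j) = 1 ∧ Φ.lev j.1 (f (bp j)) = j.2.1 :=
    fun j => ⟨(hS.base j).1, (hS.base j).2.1, (hS.base j).2.2.1⟩
  obtain ⟨ρ1, ρ2, ρ3, ρ4, d, q₀, ε, bm, hGB, v0B, v1B, hB⟩ :=
    exists_barOut (hG := hG) hLa hδ hR hκ0 hμ hμ1 hκ' hC hI hL hbp N hN0
  have hD2 := hB.dinR hLa hδ hR hκ0 hμ hμ1 hκ' hC hI
  have hDIn := din_sumR (part_ext' hB.ext) D1 hD2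
  refine ⟨r, v0, v1, ρ1, ρ2, ρ3, ρ4, d, q₀, ε, bm, hGB, v0B, v1B, h1, h2, h3, hB,
    ⟨hB.ext, fun w hw m hl i hi => (hB.pos m w hw hl).2.2.2.1 i hi, fun k => coT_fin hLa k⟩,
    hDIn, ?_⟩
  exact
  { nbl := fun c a => Iff.rfl
    ul := fun c a x => rfl
    Al := fun c a => rfl
    Bl := fun c a => rfl
    v0l := fun c a ha => (h2 c a ha).trans (by linarith)
    v1l := fun c a ha => le_trans (by linarith) (h3 c a ha)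
    trl := fun w hw j hl => by
      obtain ⟨g1, g2⟩ := hB.ext.of_lab hw hl
      have g3 := (st0_mem hLa hI g1).2.2
      rw [g2] at g3
      rw [g3]
      exact hm _ _ j.2.2
    mo := fun m => m.mo
    nbm := fun c m => Iff.rfl
    um := fun c m x => rfl
    Am := fun c m => rfl
    Bm := fun c m => rfl
    trm := fun w hw m hl => hB.lev m w hw hl }

/-- **THE ONLY OPEN INPUT OF DOORS** (closed literal of `H` of 334's `leafBC_m`, all objects of the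
machine and all facts about them given) -/
def HOpen : Prop :=
  ∀ (δ κ0 R c0 κ2 κ3 κp μ κ1 : ℝ), 1 ≤ κ0 → 1 ≤ R → 0 < c0 → 0 < κ2 → 8 ≤ κ3 → μ ≤ κp →
  κp ≤ 1 / 64 → NumD δ κ0 R c0 κ2 μ κ1 → ∀ (h1 : κ1 < μ / 32) (h2 : κ1 < 1),
  ∀ (Om La : Set E3) (f g : E3 → E3), IsOpen Om → Bornology.IsBounded Om → IsConnected Om →
    ∀ hLa : IsOpen La, Bornology.IsBounded La → IsConnected La → Hom3 f Om La →
  ∀ (Φ : FoamD δ κ0 R c0 La) (ι : Type) (T : Tiling Om ι) (X : Set Φ.F) (J0 J V : Φ.F → Set ι)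
    (ct : Φ.F → ι) (A : Φ.F → E3 ≃ᵃ[ℝ] E3) (lam : Φ.F → ℝ) (z : Φ.F → E3) (θ : Φ.F → E3 → E3)
    (φ : Φ.F → E3 → ℝ) (M : Φ.F → ℕ),
    Star Φ → ∀ hC : Cores Φ T f κ1 κ2 X J0 J V ct A lam z θ φ, Fine Φ T f κ1 J0 →
  ∀ (ct' : Φ.F → ι) (r₀ : Φ.F → ℝ) (hR : InitR Φ T f g J0 ct' r₀)
    (hM : Mesh0 T (Pc Φ.F) (bc (F := Φ.F)) (RF Φ r₀) f (KorJ Φ J0) κ1),
  ∀ (L : Φ.F → Finset ℝ), (∀ c, ∀ t ∈ L c, μ ≤ t ∧ t ≤ 1 - μ) → (∀ a, (L a).Nonempty) →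
    Words Φ T f X ct A lam z M L →
  ∀ [Nonempty (JJ Φ L)] (hG : GF Φ r₀ T f L) (D : Φ.F → Set E3) (bp : JJ Φ L → E3)
    (lam₀ : JJ Φ L → E3 → ZMod 2) (v₀ v₁ : Φ.F → E3),
    InitS hLa hR hM h1 h2 hG D bp lam₀ v₀ v₁ →
  ∀ (r : JJ Φ L → E3) (v0 v1 : ∀ c, Φ.F → VxK T (KT T J X) c)
      (ρ1 ρ2 ρ3 ρ4 d : Φ.F → ℝ) (q₀ : BM Φ X → E3) (ε : BM Φ X → ℝ) (bm : BM Φ X → E3)
      (hGB : GFB Φ r₀ T f L (lRc Φ X μ ρ1 ρ3 d) ε)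
      (v0B v1B : ∀ c, BM Φ X → VxK T (KT T J X) c),
      (∀ j, (r j ∈ (st0 hG bp).P ∧ (st0 hG bp).lab (r j) = j) ∧
        ∃ q, r j ∈ P (T.H q) ∧ (∃ c, ∃ x ∈ P (T.H q), f x ∈ Lbp_438.Wl Φ c) ∧ (∀ c, q ∉ V c) ∧
          ∀ (k : Init_543.QK (Pc Φ.F)) (s : ℝ), j.1 ∈ k.B → κ1 < s →
            q ∉ Act0 T (Pc Φ.F) (bc (F := Φ.F)) (RF Φ r₀) f (KorJ Φ J0) s k) →
      (∀ (c : Ti X) a, nbT Φ X c a → sb Φ (θ c.1 (v0 c a).1) a ≤ (2 * Cn δ R + 1) * κ1) →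
      (∀ (c : Ti X) a, nbT Φ X c a → 1 - (2 * Cn δ R + 1) * κ1 ≤ sb Φ (θ c.1 (v1 c a).1) a) →
      BarOut Φ T f κ1 μ X J0 J V θ hG bp (fun _ => ∅) ρ1 ρ2 ρ3 ρ4 d q₀ ε bm hGB v0B v1B →
      BarS hG bp V coT (stB hGB bp bm) →
      DIn (fun c => Dia_316.coreH_KT hC c) (stB hGB bp bm) (Sum.elim r bm)
        (SfA Om Φ X r₀ f L μ ρ1 ρ3 d ε) (nbA Φ X) (vS v0 v0B) (vS v1 v1B) (uA Φ hLa X θ)
        (AA Φ X μ κ1) (BA Φ X μ) →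
      BR hLa (stB hGB bp bm) f X J θ coT BM.am BM.Zm (nbA Φ X) (vS v0 v0B) (vS v1 v1B)
        (uA Φ hLa X θ) (AA Φ X μ κ1) (BA Φ X μ) μ κ1 →
  ∀ (n : Ti X → ℕ) (hn : ∀ c, 0 < n c)
    (Lv : ∀ c, Φ.F ⊕ BM Φ X → Lev T (frontier ((slC hLa hC n hn).K c)) (JJ Φ L ⊕ BM Φ X))
    (Tw : Twrs ((slC hLa hC n hn).sh fr3) (slC hLa hC n hn).n
      (outK (slC hLa hC n hn).hH (slC hLa hC n hn).dis (stB hGB bp bm) (Sum.elim r bm))),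
    LevOut (stB hGB bp bm) (nbA Φ X) (uA Φ hLa X θ) (AA Φ X μ κ1) (BA Φ X μ) Lv →
    TwOut (slC hLa hC n hn) fr3 (stB hGB bp bm) (Sum.elim r bm) (vS v0 v0B) (vS v1 v1B) Lv Tw →
    Mon (slC hLa hC n hn) fr3 Lv Tw →
    (∀ c a j, ∀ w ∈ (trc (slC hLa hC n hn).hH (slC hLa hC n hn).dis (stB hGB bp bm)
      (Sum.elim r bm) c a).P, w ∈ ((Tw.tw c a).pat (j + 1)).P → w ∈ ((Tw.tw c a).pat j).P) →
    -- the families move first, the barriers last (688 #12211)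
    (∀ c, ∃ jm ≤ n c,
      (∀ a : Φ.F, ∀ j, jm ≤ j → (Tw.tw c (Sum.inl a)).pat j = (Tw.tw c (Sum.inl a)).pat (n c) ∧
        ((Tw.tw c (Sum.inl a)).mv j).Qv = ∅) ∧
      ∀ m : BM Φ X, (∀ j, j ≤ jm → (Tw.tw c (Sum.inr m)).pat j =
          trc (slC hLa hC n hn).hH (slC hLa hC n hn).dis (stB hGB bp bm) (Sum.elim r bm) c
            (Sum.inr m)) ∧
        ∀ j, j < jm → ((Tw.tw c (Sum.inr m)).mv j).Qv = ∅) →
  ∀ [Nonempty (slC hLa hC n hn).T3.Cell]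
    (_ : ∃ c, OutK (slC hLa hC n hn).T3 (slC hLa hC n hn).KK c)
    (l0' : E3 → JJ Φ L ⊕ BM Φ X) (hmf : ∀ a, {m : BM Φ X | m.am = a}.Finite)
    (j0 : Φ.F → JJ Φ L) (hj0 : ∀ a, (j0 a).1 = a),
  ∃ sd : BM Φ X → E3 → Prop,
    ∀ (hs : BSep (s2 (slC hLa hC n hn) fr3 Tw l0') BM.am)
      (far : ∀ a, PN (fun j : JJ Φ L => j.1) (BM.am (X := X)) a → Set E3)
      (t : ∀ a, St ((slC hLa hC n hn).mn fr3) (pcol (fun j : JJ Φ L => j.1) (BM.am (X := X)) a))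
      (Ph : Φ.F → Finset E3) (s₃ : GSt ((slC hLa hC n hn).mn fr3) (fun j : JJ Φ L => j.1)),
      (∀ a, (prS (s2 (slC hLa hC n hn) fr3 Tw l0') hs hmf j0 hj0 a).Good
        (ActR (slC hLa hC n hn) (Rdc T f Xᶜ (rout ρ3 d))) (far a)) →
      (∀ a, ∀ i : PN (fun j : JJ Φ L => j.1) BM.am a, ∀ j, i.1 = Sum.inl j →
        (Sum.elim r bm) (Sum.inl j) ∈ far a i) →
      (∀ a i F w, w ∈ far a i →
        (prS (s2 (slC hLa hC n hn) fr3 Tw l0') hs hmf j0 hj0 a).At F w →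
        OKp (prS (s2 (slC hLa hC n hn) fr3 Tw l0') hs hmf j0 hj0 a)
          (ActR (slC hLa hC n hn) (Rdc T f Xᶜ (rout ρ3 d))) F w →
          (s2 (slC hLa hC n hn) fr3 Tw l0').mu F w ∈ far a i) →
      CutR (s2 (slC hLa hC n hn) fr3 Tw l0') hs hmf j0 hj0
        (fun _ => ActR (slC hLa hC n hn) (Rdc T f Xᶜ (rout ρ3 d))) far t Ph s₃ →
      PosS (hH := (Lay_316.lay_sla hLa hC n hn).core) Φ T f (μ / 4) J0 (slC hLa hC n hn) s₃ →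
      TrOut (hH := (Lay_316.lay_sla hLa hC n hn).core) (hdis := Sla.dis_KK)
        (qdT (fun p : T.RIdx (slC hLa hC n hn).HH => p.tile) (sla_sub (slC hLa hC n hn))
          (slC hLa hC n hn).KK hLa hR hM h1 h2) s₃ (fun j => (Sum.elim r bm) (Sum.inl j))
          (UTm Om Φ f X ρ3 d) ∧
      VIn (hH := (Lay_316.lay_sla hLa hC n hn).core) (hdis := Sla.dis_KK)
        (qdT (fun p : T.RIdx (slC hLa hC n hn).HH => p.tile) (sla_sub (slC hLa hC n hn))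
          (slC hLa hC n hn).KK hLa hR hM h1 h2) s₃ (fun j => (Sum.elim r bm) (Sum.inl j)) BM.am sd ∧
      Dich (hH := (Lay_316.lay_sla hLa hC n hn).core) (hdis := Sla.dis_KK)
        (qdT (fun p : T.RIdx (slC hLa hC n hn).HH => p.tile) (sla_sub (slC hLa hC n hn))
          (slC hLa hC n hn).KK hLa hR hM h1 h2) s₃ (UTm Om Φ f X ρ3 d) BM.am sd

/-- **DOORS FROM `HOpen`** -/
theorem doorsQb_of_H (H : HOpen) : DoorsQb (1 / 64) := by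
  intro δ κ0 R c0 κ2 κ3 hδ hκ0 hR hc0 hκ2 hκ3 κp hp hpb μ hμ hμp
  have hR0 : 0 < R := zero_lt_one.trans_le hR
  have hμ64 : μ ≤ 1 / 64 := hμp.trans hpb
  obtain ⟨κd, hκd, hκd1, hnum⟩ := exists_numD (c0 := c0) hδ (zero_le_one.trans hκ0) hR0 hκ2 hμ hμ64
  refine ⟨μ / 32, μ / 4, κd, by linarith, by linarith, by linarith, hκd, ?_⟩
  intro κ1 hκ1 hκle h1 h2 hN hs' hσ Om La f g hOm hOb hOc hLa hLb hLc hf Φ ι T X J0 J V ct A lam z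
    θ φ M hSt hC hF ct' r₀ hRI hM
  refine ⟨fun _ => ∅, fun _ => 0, fun _ => measure_empty, ?_⟩
  intro κ L hL hW hJJ hG D bp lam₀ v₀ v₁ hI q0 q1 w0 w1 x0 x1 hv
  have hn := hnum κ1 hκ1 hκle
  have hm : ∀ c, ∀ t ∈ L c, μ ≤ t ∧ t ≤ 1 - μ := hL.marg
  obtain ⟨n1, n2, n3, n4, n5, n6⟩ := hn.base
  obtain ⟨r, v0, v1, ρ1, ρ2, ρ3, ρ4, d, q₀, ε, bm, hGB, v0B, v1B, hr, hv0, hv1, hB, hBS, hD, hrec⟩ :=
    exists_leafAE hLa hLc.isPreconnected hf hδ hR0 hκ1 hμ hn.half hn.cn8 (by nlinarith) hC hF hI hm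
      (fun _ => ∅) (fun _ => measure_empty)
  obtain ⟨n, hn0, -, Lv, Tw, lo, tt, mon, monT, ord⟩ :=
    Ord_117.exists_pipeO hLa hC.tiny hD (fun a => ∃ b : Φ.F, a = Sum.inl b) (fun _ => 0)
  have ord' : ∀ c, ∃ jm ≤ n c,
      (∀ a : Φ.F, ∀ j, jm ≤ j → (Tw.tw c (Sum.inl a)).pat j = (Tw.tw c (Sum.inl a)).pat (n c) ∧
        ((Tw.tw c (Sum.inl a)).mv j).Qv = ∅) ∧
      ∀ m : BM Φ X, (∀ j, j ≤ jm → (Tw.tw c (Sum.inr m)).pat j =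
          trc (slC hLa hC n hn0).hH (slC hLa hC n hn0).dis (stB hGB bp bm) (Sum.elim r bm) c
            (Sum.inr m)) ∧
        ∀ j, j < jm → ((Tw.tw c (Sum.inr m)).mv j).Qv = ∅ := by
    intro c
    obtain ⟨jm, h1, h2, h3⟩ := ord c
    exact ⟨jm, h1, fun a => h2 (Sum.inl a) ⟨a, rfl⟩,
      fun m => h3 (Sum.inr m) (by rintro ⟨b, hb⟩; cases hb)⟩
  refine ⟨n, hn0, ?_⟩
  intro hNc hne
  obtain ⟨j0, hj0⟩ := Bmf_416.exists_j0 hL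
  let l0 : E3 → JJ Φ L ⊕ BM Φ X := fun _ => Sum.inl (Classical.arbitrary _)
  have hmf : ∀ a, {m : BM Φ X | m.am = a}.Finite := fun a => Bmf_416.am_fin hLa a
  have hLn : ∀ a, (L a).Nonempty := fun a => Bmf_416.L_nonempty hL a
  have hRm : RmA Φ T f X J0 J V θ ρ1 ρ2 ρ3 ρ4 d := fun c hc => (hB.rm c hc).2
  obtain ⟨sd, hH⟩ := H δ κ0 R c0 κ2 κ3 κp μ κ1 hκ0 hR hc0 hκ2 hκ3 hμp hpb hn h1 h2 Om La f g hOm hOb
    hOc hLa hLb hLc hf Φ ι T X J0 J V ct A lam z θ φ M hSt hC hF ct' r₀ hRI hM L hm hLn hW hG D bp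
    lam₀ v₀ v₁ hI r v0 v1 ρ1 ρ2 ρ3 ρ4 d q₀ ε bm hGB v0B v1B hr hv0 hv1 hB hBS hD hrec n hn0 Lv Tw lo
    tt mon monT ord' hne l0 hmf j0 hj0
  obtain ⟨s3, far3, D3, inv, posB, one, two⟩ := leafBC_m (co := coT) (am := BM.am) (Zm := BM.Zm)
    (l0' := l0) (UT := UTm Om Φ f X ρ3 d) (sd := sd) (hI := hRI) (hM := hM) (h1 := h1) (h2 := h2)
    hn hF hRm hne hLn hm hB.ext hD lo tt mon hrec
    (fun w hw m hl => by
      have h3 := (hB.gau m w hw hl).2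
      have h4 := (hRm m.co m.co_notMem).d0
      show Ess5_95.ga Φ m.co (f w) ≤ ρ3 m.co + 15 * d m.co
      linarith)
    (fun m m' h3 h4 h5 => BM.ext (congrArg Subtype.val h3) h4 h5) hmf
    (fun j => by
      obtain ⟨q, h3, -, h4, -⟩ := (hr j).2
      exact ⟨q, h3, fun c _ => h4 c⟩)
    (fun F => Fm_184.finS (V := V) (co := fun m : BM Φ X => m.co) hLa hRI hC.disj
      (fun c t ht => by linarith [(hm c t ht).2]) (fun k => Bmf_416.co_fin hLa k)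
      (fun w hw j hl => by
        obtain ⟨g1, g2⟩ := hB.ext.of_lab hw hl
        have g3 := (st0_mem hLa hRI g1).2.2
        rw [g2] at g3
        exact g3)
      (fun w hw m hl i hi => (hB.pos m w hw hl).2.2.2.1 i hi) F)
    j0 hj0 (hUT_m hRm) hH
  obtain ⟨far₀, Gc, Zc, lm, hFN⟩ := Fcd_117.frontN_m hf hLa hLc.isPreconnected hn hRI hC hF hW hM h1
    h2 hm hI hv n hn0 hne hB.ext hBS hD lo tt hrec hRm D3 inv posB one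
    (fun q k hk j j' h3 h4 h5 => two q k hk j j' h3 h4 h5)
  exact ⟨s3, far₀, Gc, Zc, lm, hFN⟩

end Crest.Agent.R096.Dtf_117
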