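import Crest.Agent.R096.Sqt10_143

/-!
Row 96 (S0127), helper143.  SQ-TUBE, part 11: **near-optimality of `f ∘ chi` in the direction of an
edge** (`tube_near`).
-/

set_option autoImplicit false
set_option linter.unusedSectionVars false

open Set Metric Filter Topology MeasureTheory

namespace Crest.Agent.R096.Sqt_143

open Crest.Agent.R096.Ce_537 Crest.Agent.R096.Bd_416 Crest.Agent.R96.Hole_348
open Crest.Agent.R096.Sq_55
open Crest.AnalysisR.VecCalc3 Crest.AnalysisR.Sobolev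
open Crest.Agent.R096.Sk_962
open Crest.Agent.R96.Lu_538
open scoped NNReal ENNReal

/-- the edge as a set -/
def sg (a v : E3) : Set E3 := (fun t : ℝ => a + t • v) '' Icc (0:ℝ) 1

lemma isCompact_sg (a v : E3) : IsCompact (sg a v) := by
  refine isCompact_Icc.image ?_
  fun_prop

/-- the exceptional balls -/
def Bd (a v : E3) (W : Finset ℝ) (ρ : ℝ) : Set E3 := ⋃ s ∈ W, closedBall (a + s • v) ρ

lemma measurableSet_Bd (a v : E3) (W : Finset ℝ) (ρ : ℝ) : MeasurableSet (Bd a v W ρ) :=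
  W.measurableSet_biUnion fun _ _ => isClosed_closedBall.measurableSet

lemma vol_Bd (a v : E3) (W : Finset ℝ) {ρ : ℝ} (h : 0 ≤ ρ) :
    volume (Bd a v W ρ) ≤ W.card * ENNReal.ofReal ((2 * ρ)^3) := by
  refine (measure_biUnion_finset_le _ _).trans ?_
  refine (Finset.sum_le_card_nsmul _ _ (ENNReal.ofReal ((2 * ρ)^3)) fun s _ => ?_).trans ?_
  · rw [Real.volume_pi_closedBall _ h, Fintype.card_fin]
  · rw [nsmul_eq_mul]

lemma enorm_rpow_le {E F : Type*} [SeminormedAddCommGroup E] [SeminormedAddCommGroup F] {x : E}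
    {y : F} {K b q : ℝ} (hK : 0 ≤ K) (hb : 0 ≤ b) (hq : 1 ≤ q) (h : ‖x‖ ≤ K * (‖y‖ + b)) :
    ‖x‖ₑ ^ q ≤ ENNReal.ofReal ((2 * K)^q) * (‖y‖ₑ ^ q + (ENNReal.ofReal b) ^ q) := by
  have hq0 : 0 ≤ q := by linarith
  have h1 : ‖x‖ₑ ≤ ENNReal.ofReal K * (‖y‖ₑ + ENNReal.ofReal b) := by
    rw [← ofReal_norm, ← ofReal_norm, ← ENNReal.ofReal_add (norm_nonneg _) hb,
      ← ENNReal.ofReal_mul hK]
    exact ENNReal.ofReal_le_ofReal h
  calc ‖x‖ₑ ^ q ≤ (ENNReal.ofReal K * (‖y‖ₑ + ENNReal.ofReal b)) ^ q :=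
        ENNReal.rpow_le_rpow h1 hq0
    _ = (ENNReal.ofReal K) ^ q * (‖y‖ₑ + ENNReal.ofReal b) ^ q := ENNReal.mul_rpow_of_nonneg _ _ hq0
    _ ≤ (ENNReal.ofReal K) ^ q * (2 ^ (q - 1) * (‖y‖ₑ ^ q + (ENNReal.ofReal b) ^ q)) :=
        mul_le_mul' le_rfl (ENNReal.rpow_add_le_mul_rpow_add_rpow _ _ hq)
    _ ≤ (ENNReal.ofReal K) ^ q * (2 ^ q * (‖y‖ₑ ^ q + (ENNReal.ofReal b) ^ q)) := by
        refine mul_le_mul' le_rfl (mul_le_mul' ?_ le_rfl)
        exact ENNReal.rpow_le_rpow_of_exponent_le (by norm_num) (by linarith)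
    _ = _ := by
        rw [← mul_assoc, ← ENNReal.mul_rpow_of_nonneg _ _ hq0, mul_comm (ENNReal.ofReal K),
          ENNReal.ofReal_rpow_of_nonneg (by positivity) hq0 |>.symm,
          ENNReal.ofReal_mul (by norm_num : (0:ℝ) ≤ 2), ENNReal.ofReal_ofNat]

variable {κ ι : Type*} [Fintype κ] [Fintype ι] {X : Sys κ ι} {p δ : ℝ}

lemma aem_G {Om La : Set R3} (hOm : IsOpen Om) {p : ℝ} {f : R3 → R3}
    {G : Fin 3 → R3 → R3} (hf : SH p Om La f G) (L : R3 →L[ℝ] R3) (q : ℝ) {S : Set E3}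
    (hS : S ⊆ w2 ⁻¹' Om) :
    AEMeasurable (fun y => ‖Gmat G (w2 y) - L‖ₑ ^ q) (volume.restrict S) := by
  have h1 : AEStronglyMeasurable (Gmat G) (volume.restrict Om) :=
    aesm_Gmat fun j => (hf.memG j).1
  have h2 : AEStronglyMeasurable (fun z => Gmat G (w2 z)) (volume.restrict (w2 ⁻¹' Om)) :=
    h1.comp_measurePreserving (mp_w2.restrict_preimage hOm.measurableSet)
  have h3 : AEMeasurable (fun y => ‖Gmat G (w2 y) - L‖ₑ ^ q) (volume.restrict (w2 ⁻¹' Om)) :=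
    (h2.sub aestronglyMeasurable_const).enorm.pow_const q
  exact h3.mono_measure (Measure.restrict_mono hS le_rfl)

/-- **near-optimality in the direction of the edge** -/
theorem tube_near {a v : E3} {u0 β : ℝ} {n : ℕ} (hE : Edge X a v u0 β n) {m : ℝ} (hm : 1 ≤ m)
    (hmC : ∀ k, OnC (X.C k) a v → ((X.C k).M : ℝ) ≤ m) :
    ∃ W : Finset ℝ, W.card ≤ ({k | OnC (X.C k) a v}.ncard + {j | OnF (X.F j) a v}.ncard) * n + 2 ∧
      (∀ s ∈ W, s ∈ Icc (0:ℝ) 1) ∧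
      ∀ (δ p : ℝ) (h : X.Adm p δ) (N₁ N₂ : ℕ) (Om La : Set R3) (f : R3 → R3)
        (G G' : Fin 3 → R3 → R3), IsOpen Om → 1 ≤ p → SH p Om La f G →
        (∀ k, (X.C k).P ⊆ w2 ⁻¹' Om) → (∀ j, (X.F j).K ⊆ w2 ⁻¹' Om) →
        (∀ j : Fin 3, HasWeakGradOn Om
          (fun x => f (toR (Sys.chi h (N₁+1) (N₂+1)) x) j) (G' j)) →
        ∀ (L : R3 →L[ℝ] R3) (k : κ) (u : ℝ), Tb X δ k (sg a v) u → (1 + 4 * (m * m)) * u ≤ u0 →
        ∀ q : ℝ, 1 ≤ q →
        ∫⁻ x in (X.C k).P ∩ cthickening u (sg a v),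
            ‖Gmat G' (w2 x) (w2 v) - L (w2 v)‖ₑ ^ q ≤
          ENNReal.ofReal ((2 * (2113 * (X.m k : ℝ)^4 * ‖w2 v‖))^q) *
            (ENNReal.ofReal (CT p (X.m k)) *
              tb X δ k (sg a v) u (fun y => ‖Gmat G (w2 y) - L‖ₑ ^ q) +
            ‖L‖ₑ ^ q * (W.card *
              ENNReal.ofReal ((2 * ((1 + β * (1 + 4 * (m * m)) * ‖v‖) * u))^3))) := by
  obtain ⟨W, hW1, hW2, hW3⟩ := chi_tv hE hm hmC
  refine ⟨W, hW1, hW2, ?_⟩
  intro δ p h N₁ N₂ Om La f G G' hOm hp hf hC hF h' L k u H huE q hq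
  have hq0 : 0 < q := by linarith
  have hm1 := Sys.m_one (X := X) k
  have hm4 : (1:ℝ) ≤ (X.m k : ℝ)^4 := one_le_pow₀ hm1
  have hβ := hE.βpos
  have hu0 := H.u0
  set ρ : ℝ := (1 + β * (1 + 4 * (m * m)) * ‖v‖) * u with hρ
  have hρ0 : 0 ≤ ρ := by positivity
  set B : Set E3 := Bd a v W ρ with hB
  have mB : MeasurableSet B := measurableSet_Bd a v W ρ
  have mP : MeasurableSet (X.C k).P := (X.C k).cht.clK.measurableSet
  have mT : MeasurableSet ((X.C k).P ∩ cthickening u (sg a v)) :=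
    mP.inter isClosed_cthickening.measurableSet
  set χ := Sys.chi h (N₁+1) (N₂+1) with hχ
  have hΨ : ∀ z, w2 (χ z) ∈ Om ↔ w2 z ∈ Om := fun z =>
    Sys.chi_Om h (N₁+1) (N₂+1) (O := w2 ⁻¹' Om) hC hF z
  have hΨ' : ∀ x, toR χ x ∈ Om ↔ x ∈ Om := fun x => by
    have := hΨ (w2.symm x)
    rw [w2.apply_symm_apply] at this
    exact this
  have plχ : PLOn χ univ := Sys.plOn_chi h (N₁+1) (N₂+1)
  have f1 := Gmat_chi hOm hf χ plχ hΨ h' v
  have f2 := ae_w2.1 (Gmat_le hOm hp hf (toR χ) (plOn_toR plχ) hΨ' h' (w2 v))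
  have f3 := hW3 δ p h N₁ N₂
  have f4 := ae_llv h N₁ N₂ H
  set K : ℝ := 2113 * (X.m k : ℝ)^4 * ‖w2 v‖ with hK
  have hK0 : 0 ≤ K := by positivity
  have pt : ∀ᵐ x, x ∈ (X.C k).P ∩ cthickening u (sg a v) →
      ‖Gmat G' (w2 x) (w2 v) - L (w2 v)‖ₑ ^ q ≤ ENNReal.ofReal ((2 * K)^q) *
        (‖Gmat G (w2 (χ x)) - L‖ₑ ^ q + B.indicator (fun _ => ‖L‖ₑ ^ q) x) := by
    filter_upwards [f1, f2, f3, f4] with x g1 g2 g3 g4 hx
    have hxO : w2 x ∈ Om := hC k hx.1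
    have hL4 := g4 hx.1 hx.2
    by_cases hxB : x ∈ B
    · have l1 := g2 hxO (2 * (528 * (X.m k : ℝ)^4)) (by positivity)
        (LLV_toR (by positivity) hL4)
      rw [toR_apply, w2.symm_apply_apply] at l1
      have l2 : ‖Gmat G (w2 (χ x))‖ ≤ ‖Gmat G (w2 (χ x)) - L‖ + ‖L‖ := by
        have := norm_add_le (Gmat G (w2 (χ x)) - L) L
        rwa [sub_add_cancel] at this
      have l3 : ‖L (w2 v)‖ ≤ ‖L‖ * ‖w2 v‖ := L.le_opNorm _
      have l4 : ‖Gmat G' (w2 x) (w2 v) - L (w2 v)‖ ≤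
          K * (‖Gmat G (w2 (χ x)) - L‖ + ‖L‖) := by
        refine (norm_sub_le _ _).trans ?_
        have n1 := norm_nonneg (w2 v)
        have n2 := norm_nonneg (Gmat G (w2 (χ x)) - L)
        have n3 := norm_nonneg L
        have l5 : ‖Gmat G' (w2 x) (w2 v)‖ ≤ 2112 * (X.m k : ℝ)^4 * ‖w2 v‖ *
            (‖Gmat G (w2 (χ x)) - L‖ + ‖L‖) := by
          refine l1.trans ?_
          calc 2 * (2 * (528 * (X.m k : ℝ)^4)) * ‖w2 v‖ * ‖Gmat G (w2 (χ x))‖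
              ≤ 2 * (2 * (528 * (X.m k : ℝ)^4)) * ‖w2 v‖ *
                (‖Gmat G (w2 (χ x)) - L‖ + ‖L‖) := by gcongr
            _ = _ := by ring
        have l6 : ‖L (w2 v)‖ ≤ (X.m k : ℝ)^4 * ‖w2 v‖ *
            (‖Gmat G (w2 (χ x)) - L‖ + ‖L‖) := by
          calc ‖L (w2 v)‖ ≤ ‖w2 v‖ * ‖L‖ := by linarith
            _ ≤ ‖w2 v‖ * (‖Gmat G (w2 (χ x)) - L‖ + ‖L‖) :=
              mul_le_mul_of_nonneg_left (by linarith) n1
            _ = 1 * (‖w2 v‖ * (‖Gmat G (w2 (χ x)) - L‖ + ‖L‖)) := (one_mul _).symm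
            _ ≤ (X.m k : ℝ)^4 * (‖w2 v‖ * (‖Gmat G (w2 (χ x)) - L‖ + ‖L‖)) :=
              mul_le_mul_of_nonneg_right hm4 (by positivity)
            _ = _ := by ring
        calc _ ≤ 2112 * (X.m k : ℝ)^4 * ‖w2 v‖ * (‖Gmat G (w2 (χ x)) - L‖ + ‖L‖) +
              (X.m k : ℝ)^4 * ‖w2 v‖ * (‖Gmat G (w2 (χ x)) - L‖ + ‖L‖) := add_le_add l5 l6
          _ = _ := by rw [hK]; ring
      have l7 := enorm_rpow_le hK0 (norm_nonneg L) hq l4
      rw [ofReal_norm] at l7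
      rw [indicator_of_mem hxB]
      exact l7
    · -- the direction is kept
      obtain ⟨y, ⟨t, ht, rfl⟩, hxy⟩ := inf_pt (isCompact_sg a v) hx.2 hu0
      have ht' : ∀ s ∈ W, (β * (1 + 4 * (m * m))) * u < |t - s| := by
        intro s hs
        by_contra hlt
        push Not at hlt
        apply hxB
        refine mem_iUnion₂.2 ⟨s, hs, ?_⟩
        rw [mem_closedBall, dist_eq_norm]
        have e1 : x - (a + s • v) = (x - (a + t • v)) + (t - s) • v := by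
          rw [sub_smul]; abel
        rw [e1]
        refine (norm_add_le _ _).trans ?_
        rw [norm_smul, Real.norm_eq_abs]
        have := mul_le_mul_of_nonneg_right hlt (norm_nonneg v)
        have hxy' : ‖x - (a + t • v)‖ ≤ u := hxy
        rw [hρ]
        nlinarith
      have hT : Tv χ x v v := g3 t ht u huE hxy ht'
      have l1 := g1 hxO hT
      have l4 : ‖Gmat G' (w2 x) (w2 v) - L (w2 v)‖ ≤
          K * (‖Gmat G (w2 (χ x)) - L‖ + 0) := by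
        rw [l1, add_zero, ← ContinuousLinearMap.sub_apply]
        refine ((Gmat G (w2 (χ x)) - L).le_opNorm _).trans ?_
        have n1 := norm_nonneg (w2 v)
        have n2 := norm_nonneg (Gmat G (w2 (χ x)) - L)
        calc ‖Gmat G (w2 (χ x)) - L‖ * ‖w2 v‖ =
              1 * (‖w2 v‖ * ‖Gmat G (w2 (χ x)) - L‖) := by ring
          _ ≤ (2113 * (X.m k : ℝ)^4) * (‖w2 v‖ * ‖Gmat G (w2 (χ x)) - L‖) :=
            mul_le_mul_of_nonneg_right (by linarith) (by positivity)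
          _ = _ := by rw [hK]; ring
      have l7 := enorm_rpow_le hK0 le_rfl hq l4
      rw [ENNReal.ofReal_zero, ENNReal.zero_rpow_of_pos hq0] at l7
      rw [indicator_of_notMem hxB]
      exact l7
  have s1 := setLIntegral_mono_ae' mT pt
  refine s1.trans ?_
  rw [lintegral_const_mul' _ _ ENNReal.ofReal_ne_top]
  refine mul_le_mul' le_rfl ?_
  rw [lintegral_add_right _ (measurable_const.indicator mB)]
  refine add_le_add (tube_int_ae h N₁ N₂ H (aem_G hOm hf L q (hC k))) ?_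
  refine (setLIntegral_le_lintegral _ _).trans ?_
  rw [lintegral_indicator mB, setLIntegral_const]
  exact mul_le_mul' le_rfl (vol_Bd a v W hρ0)

end Crest.Agent.R096.Sqt_143
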