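import Crest.Agent.R096.Pin1_753
import Crest.Agent.R096.Sqt11_143

/-!
Row 96 (S0127), helper216.  Leaf [L2] of 622: **Fubini for an edge of the tiling over the translations
`B = Tw Q k0` of the block**, the volume of `B`, and `segment + B ⊆ tube`.
-/

set_option autoImplicit false
set_option linter.unusedSectionVars false
set_option linter.style.longLine false

open Set Metric Filter Topology MeasureTheory
open scoped ENNReal NNReal

namespace Crest.Agent.R096.Fub_216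

open Crest.AnalysisR.VecCalc3 Crest.AnalysisR.Sobolev
open Crest.Agent.R096.Msh_715 Crest.Agent.R096.Mal_874
open Crest.Agent.R096.Pin_753
open Crest.Agent.R096.Sq_55
open Crest.Agent.R96.En10_199 (P3 P3_mp)
open Crest.Agent.R096.Sqt_143 (sg isCompact_sg)

section general

variable {E : Type*} [NormedAddCommGroup E] [NormedSpace ℝ E] [FiniteDimensional ℝ E]
  [MeasurableSpace E] [BorelSpace E] {μ : Measure E} [μ.IsAddHaarMeasure]

/-- the integral along the edge `x + [0,1] v`, translated by `w` -/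
noncomputable def li (F : E → ℝ≥0∞) (x v w : E) : ℝ≥0∞ := ∫⁻ τ in Icc (0:ℝ) 1, F (x + w + τ • v)

theorem measurable_li {F : E → ℝ≥0∞} (hF : Measurable F) (x v : E) : Measurable (li F x v) := by
  have : SecondCountableTopology E := secondCountable_of_proper
  unfold li
  apply Measurable.lintegral_prod_right
  exact hF.comp (by fun_prop)

theorem li_congr {F F' : E → ℝ≥0∞} {S W : Set E} {x v : E}
    (h : ∀ᵐ y ∂μ, y ∈ S → F y = F' y) (ht : ∀ w ∈ W, ∀ τ ∈ Icc (0:ℝ) 1, x + w + τ • v ∈ S) :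
    ∀ᵐ w ∂μ, w ∈ W → li F x v w = li F' x v w := by
  have h1 : ∀ᵐ y ∂μ, ∀ᵐ τ : ℝ, y + τ • v ∈ S → F (y + τ • v) = F' (y + τ • v) :=
    Crest.Agent.R96.Sob2_199.ae_line_of_ae (μ := μ) h v
  have h2 : ∀ᵐ w ∂μ, ∀ᵐ τ : ℝ, (x + w) + τ • v ∈ S →
      F ((x + w) + τ • v) = F' ((x + w) + τ • v) :=
    (measurePreserving_add_left μ x).quasiMeasurePreserving.ae h1
  filter_upwards [h2] with w hw hwW
  refine lintegral_congr_ae ?_
  rw [Filter.EventuallyEq, ae_restrict_iff' measurableSet_Icc]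
  filter_upwards [hw] with τ h3 hτ
  exact h3 (ht w hwW τ hτ)

theorem aemeasurable_li {F : E → ℝ≥0∞} {S W : Set E} {x v : E}
    (mS : MeasurableSet S) (mW : MeasurableSet W) (hF : AEMeasurable F (μ.restrict S))
    (ht : ∀ w ∈ W, ∀ τ ∈ Icc (0:ℝ) 1, x + w + τ • v ∈ S) :
    AEMeasurable (li F x v) (μ.restrict W) := by
  obtain ⟨F', h1, h2⟩ := hF
  rw [Filter.EventuallyEq, ae_restrict_iff' mS] at h2
  refine ⟨li F' x v, measurable_li h1 x v, ?_⟩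
  rw [Filter.EventuallyEq, ae_restrict_iff' mW]
  exact li_congr h2 ht

/-- **Fubini for an edge** -/
theorem lint_li_le {F : E → ℝ≥0∞} {S W : Set E} {x v : E}
    (mS : MeasurableSet S) (mW : MeasurableSet W) (hF : AEMeasurable F (μ.restrict S))
    (ht : ∀ w ∈ W, ∀ τ ∈ Icc (0:ℝ) 1, x + w + τ • v ∈ S) {c : ℝ≥0∞}
    (hc : ∀ y : E, volume (Icc (0:ℝ) 1 ∩ {τ | y - x - τ • v ∈ W}) ≤ c) :
    ∫⁻ w in W, li F x v w ∂μ ≤ c * ∫⁻ y in S, F y ∂μ := by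
  have : SecondCountableTopology E := secondCountable_of_proper
  obtain ⟨F', h1, h2⟩ := hF
  have h2' := h2
  rw [Filter.EventuallyEq, ae_restrict_iff' mS] at h2'
  have e1 : ∫⁻ w in W, li F x v w ∂μ = ∫⁻ w in W, li F' x v w ∂μ := by
    refine lintegral_congr_ae ?_
    rw [Filter.EventuallyEq, ae_restrict_iff' mW]
    exact li_congr h2' ht
  rw [e1, lintegral_congr_ae h2]
  set F₁ := S.indicator F' with hF₁
  have m1 : Measurable F₁ := h1.indicator mS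
  have mjoint : Measurable fun q : E × ℝ => x + q.1 + q.2 • v := by fun_prop
  have mW1 : Measurable (W.indicator (1 : E → ℝ≥0∞)) := measurable_one.indicator mW
  have e2 : ∫⁻ w in W, li F' x v w ∂μ =
      ∫⁻ w, (∫⁻ τ in Icc (0:ℝ) 1, W.indicator 1 w * F₁ (x + w + τ • v)) ∂μ := by
    rw [← lintegral_indicator mW]
    refine lintegral_congr fun w => ?_
    by_cases hw : w ∈ W
    · rw [indicator_of_mem hw, indicator_of_mem hw]
      refine setLIntegral_congr_fun measurableSet_Icc fun τ hτ => ?_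
      simp only [Pi.one_apply, one_mul, hF₁, indicator_of_mem (ht w hw τ hτ)]
    · rw [indicator_of_notMem hw, indicator_of_notMem hw]
      simp
  rw [e2, lintegral_lintegral_swap]
  swap
  · exact ((mW1.comp measurable_fst).mul (m1.comp mjoint)).aemeasurable
  have e3 : ∀ τ : ℝ, ∫⁻ w, W.indicator 1 w * F₁ (x + w + τ • v) ∂μ =
      ∫⁻ y, W.indicator 1 (y - x - τ • v) * F₁ y ∂μ := by
    intro τ
    rw [← lintegral_add_right_eq_self (fun y => W.indicator 1 (y - x - τ • v) * F₁ y) (x + τ • v)]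
    refine lintegral_congr fun w => ?_
    have e4 : w + (x + τ • v) - x - τ • v = w := by abel
    have e5 : w + (x + τ • v) = x + w + τ • v := by abel
    rw [e4, e5]
  simp only [e3]
  rw [lintegral_lintegral_swap]
  swap
  · refine (Measurable.mul (mW1.comp ?_) (m1.comp measurable_snd)).aemeasurable
    fun_prop
  have e6 : ∀ y, ∫⁻ τ in Icc (0:ℝ) 1, W.indicator 1 (y - x - τ • v) * F₁ y =
      volume (Icc (0:ℝ) 1 ∩ {τ | y - x - τ • v ∈ W}) * F₁ y := by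
    intro y
    have m2 : MeasurableSet {τ : ℝ | y - x - τ • v ∈ W} := mW.preimage (by fun_prop)
    rw [lintegral_mul_const]
    swap
    · exact mW1.comp (by fun_prop)
    congr 1
    have e7 : (fun τ : ℝ => W.indicator (1 : E → ℝ≥0∞) (y - x - τ • v)) =
        {τ : ℝ | y - x - τ • v ∈ W}.indicator 1 := by
      funext τ
      by_cases hτ : y - x - τ • v ∈ W
      · rw [indicator_of_mem hτ, indicator_of_mem (by exact hτ)]; rfl
      · rw [indicator_of_notMem hτ, indicator_of_notMem (by exact hτ)]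
    rw [e7, lintegral_indicator_one m2, Measure.restrict_apply m2, inter_comm]
  simp only [e6]
  calc ∫⁻ y, volume (Icc (0:ℝ) 1 ∩ {τ | y - x - τ • v ∈ W}) * F₁ y ∂μ
      ≤ ∫⁻ y, c * F₁ y ∂μ := lintegral_mono fun y => mul_le_mul' (hc y) le_rfl
    _ = c * ∫⁻ y in S, F' y ∂μ := by
        rw [lintegral_const_mul _ m1, hF₁, lintegral_indicator mS]

/-- the length of the part of a line inside `ψ⁻¹ (ball)` -/
theorem len_le {G : Type*} [NormedAddCommGroup G] [NormedSpace ℝ G] (ψ : E ≃L[ℝ] G) {v : E}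
    (hv : v ≠ 0) (r : ℝ) (y : E) :
    volume (Icc (0:ℝ) 1 ∩ {τ | y - τ • v ∈ {w | ‖ψ w‖ ≤ r}}) ≤ ENNReal.ofReal (2 * r / ‖ψ v‖) := by
  have hpos : 0 < ‖ψ v‖ := norm_pos_iff.2 (by simpa using hv)
  refine (Real.volume_le_diam _).trans (ediam_le fun τ hτ τ' hτ' => ?_)
  rw [edist_dist]
  refine ENNReal.ofReal_le_ofReal ?_
  rw [le_div_iff₀ hpos, Real.dist_eq]
  have h1 : ‖ψ (y - τ • v)‖ ≤ r := hτ.2
  have h2 : ‖ψ (y - τ' • v)‖ ≤ r := hτ'.2
  have h3 : ψ (y - τ' • v) - ψ (y - τ • v) = (τ - τ') • ψ v := by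
    rw [← map_sub, ← map_smul]
    congr 1
    rw [sub_smul]
    abel
  calc |τ - τ'| * ‖ψ v‖ = ‖(τ - τ') • ψ v‖ := by rw [norm_smul, Real.norm_eq_abs]
    _ = ‖ψ (y - τ' • v) - ψ (y - τ • v)‖ := by rw [h3]
    _ ≤ ‖ψ (y - τ' • v)‖ + ‖ψ (y - τ • v)‖ := norm_sub_le _ _
    _ ≤ 2 * r := by linarith

end general

/-! ### the set `B = Tw Q k0` -/

variable (Q : CB R3 3) (k0 : ℕ)

theorem isClosed_Tw : IsClosed (Tw Q k0) :=
  isClosed_le (Q.ψ.continuous.norm) continuous_const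

theorem measurableSet_Tw : MeasurableSet (Tw Q k0) := (isClosed_Tw Q k0).measurableSet

theorem Tw_eq : Tw Q k0 = Q.ψ ⁻¹' closedBall 0 (1 / (5 * 2 ^ k0)) := by
  ext w
  rw [mem_preimage, mem_closedBall_zero_iff]
  rfl

theorem isCompact_Tw : IsCompact (Tw Q k0) := by
  have h := (isCompact_closedBall (0 : Fin 3 → ℝ) (1 / (5 * 2 ^ k0))).image Q.ψ.symm.continuous
  have e : Q.ψ.symm '' closedBall 0 (1 / (5 * 2 ^ k0)) = Tw Q k0 := by
    rw [Tw_eq, ContinuousLinearEquiv.image_symm_eq_preimage]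
  rwa [e] at h

theorem zero_mem_Tw : (0 : R3) ∈ Tw Q k0 := by
  show ‖Q.ψ 0‖ ≤ _
  rw [map_zero, norm_zero]
  positivity

theorem neg_mem_Tw {w : R3} (hw : w ∈ Tw Q k0) : -w ∈ Tw Q k0 := by
  show ‖Q.ψ (-w)‖ ≤ _
  rw [map_neg, norm_neg]
  exact hw

/-- the volume of the `ψ`-unit cube -/
noncomputable def dv (ψ : R3 ≃L[ℝ] (Fin 3 → ℝ)) : ℝ :=
  |LinearMap.det ((ψ.symm.trans P3.symm : (Fin 3 → ℝ) ≃L[ℝ] (Fin 3 → ℝ)) :
    (Fin 3 → ℝ) →ₗ[ℝ] (Fin 3 → ℝ))|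

theorem dv_pos (ψ : R3 ≃L[ℝ] (Fin 3 → ℝ)) : 0 < dv ψ :=
  abs_pos.2 (LinearEquiv.isUnit_det' (ψ.symm.trans P3.symm).toLinearEquiv).ne_zero

/-- volume of a set given in the coordinates `ψ` -/
theorem vol_psi (ψ : R3 ≃L[ℝ] (Fin 3 → ℝ)) (S : Set (Fin 3 → ℝ)) :
    volume (ψ ⁻¹' S) = ENNReal.ofReal (dv ψ) * volume S := by
  have h1 : volume (P3 ⁻¹' (ψ ⁻¹' S)) = volume (ψ ⁻¹' S) :=
    P3_mp.measure_preimage_emb P3.toHomeomorph.measurableEmbedding _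
  have h2 : P3 ⁻¹' (ψ ⁻¹' S) = (ψ.symm.trans P3.symm) '' S := by
    ext z
    constructor
    · intro h
      refine ⟨ψ (P3 z), h, ?_⟩
      simp
    · rintro ⟨y, hy, rfl⟩
      simpa using hy
  rw [← h1, h2, Measure.addHaar_image_continuousLinearEquiv]
  rfl

theorem volume_Tw : volume (Tw Q k0) = ENNReal.ofReal (dv Q.ψ * (2 / (5 * 2 ^ k0)) ^ 3) := by
  rw [Tw_eq, vol_psi, Real.volume_pi_closedBall _ (by positivity), Fintype.card_fin,
    ← ENNReal.ofReal_mul (dv_pos _).le]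
  congr 3
  ring

theorem volume_Tw_pos : 0 < volume (Tw Q k0) := by
  rw [volume_Tw, ENNReal.ofReal_pos]
  have := dv_pos Q.ψ
  positivity

theorem volume_Tw_ne_zero : volume (Tw Q k0) ≠ 0 := (volume_Tw_pos Q k0).ne'

theorem volume_Tw_ne_top : volume (Tw Q k0) ≠ ∞ := by
  rw [volume_Tw]; exact ENNReal.ofReal_ne_top

variable {Q k0}

theorem Tw_norm {κ : ℝ} (hκ : 0 < κ) (cnd : ∀ v, κ / 4 * ‖v‖ ≤ ‖Q.ψ v‖) {w : R3}
    (hw : w ∈ Tw Q k0) : ‖w‖ ≤ 4 * κ⁻¹ / (5 * 2 ^ k0) := by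
  have h1 : κ / 4 * ‖w‖ ≤ 1 / (5 * 2 ^ k0) := (cnd w).trans hw
  have h2 : ‖w‖ = (4 * κ⁻¹) * (κ / 4 * ‖w‖) := by field_simp
  rw [h2]
  calc (4 * κ⁻¹) * (κ / 4 * ‖w‖) ≤ (4 * κ⁻¹) * (1 / (5 * 2 ^ k0)) := by gcongr
    _ = _ := by ring

theorem Tw_sub_closedBall {κ : ℝ} (hκ : 0 < κ) (cnd : ∀ v, κ / 4 * ‖v‖ ≤ ‖Q.ψ v‖) :
    Tw Q k0 ⊆ closedBall 0 (4 * κ⁻¹ / (5 * 2 ^ k0)) := fun _ hw =>
  mem_closedBall_zero_iff.2 (Tw_norm hκ cnd hw)

theorem norm_w2_symm_le (w : R3) : ‖w2.symm w‖ ≤ ‖w‖ := by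
  rw [pi_norm_le_iff_of_nonneg (norm_nonneg _)]
  intro i
  exact PiLp.norm_apply_le w i

/-- the translates of the edge lie in the tube -/
theorem seg_add_mem {x v : R3} {u : ℝ} {W : Set R3} (hW : ∀ w ∈ W, ‖w‖ ≤ u) :
    ∀ w ∈ W, ∀ τ ∈ Icc (0:ℝ) 1,
      x + w + τ • v ∈ w2 '' cthickening u (sg (w2.symm x) (w2.symm v)) := by
  intro w hw τ hτ
  refine ⟨w2.symm (x + w + τ • v), ?_, w2.apply_symm_apply _⟩
  refine mem_cthickening_of_dist_le _ (w2.symm x + τ • w2.symm v) _ _ ⟨τ, hτ, rfl⟩ ?_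
  rw [dist_eq_norm]
  have e : w2.symm (x + w + τ • v) - (w2.symm x + τ • w2.symm v) = w2.symm w := by
    show (WithLp.ofLp (x + w + τ • v) : Fin 3 → ℝ) - (WithLp.ofLp x + τ • WithLp.ofLp v) =
      WithLp.ofLp w
    rw [WithLp.ofLp_add, WithLp.ofLp_add, WithLp.ofLp_smul]
    abel
  rw [e]
  exact (norm_w2_symm_le w).trans (hW w hw)

theorem seg_add_Tw {κ : ℝ} (hκ : 0 < κ) (cnd : ∀ v, κ / 4 * ‖v‖ ≤ ‖Q.ψ v‖) {u : ℝ}
    (hu : 4 * κ⁻¹ / (5 * 2 ^ k0) ≤ u) (x v : R3) :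
    ∀ w ∈ Tw Q k0, ∀ τ ∈ Icc (0:ℝ) 1,
      x + w + τ • v ∈ w2 '' cthickening u (sg (w2.symm x) (w2.symm v)) :=
  seg_add_mem fun _ hw => (Tw_norm hκ cnd hw).trans hu

theorem measurableSet_tube (u : ℝ) (a v : Fin 3 → ℝ) :
    MeasurableSet (w2 '' cthickening u (sg a v)) := by
  have h : w2 '' cthickening u (sg a v) = w2.symm ⁻¹' cthickening u (sg a v) := by
    rw [← Homeomorph.image_symm]; rfl
  rw [h]
  exact (isClosed_cthickening.preimage w2.symm.continuous).measurableSet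

/-! ### Fubini over `B` -/

/-- **[L2] Fubini for an edge over the translations of the block** -/
theorem fub_B {x v : R3} (hv : v ≠ 0) {S : Set R3} (mS : MeasurableSet S) {F : R3 → ℝ≥0∞}
    (hF : AEMeasurable F (volume.restrict S))
    (ht : ∀ w ∈ Tw Q k0, ∀ τ ∈ Icc (0:ℝ) 1, x + w + τ • v ∈ S) :
    ∫⁻ w in Tw Q k0, ∫⁻ τ in Icc (0:ℝ) 1, F (x + w + τ • v) ≤
      ENNReal.ofReal (2 / (5 * 2 ^ k0 * ‖Q.ψ v‖)) * ∫⁻ y in S, F y := by
  refine lint_li_le (μ := (volume : Measure R3)) mS (measurableSet_Tw Q k0) hF ht fun y => ?_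
  refine (len_le Q.ψ hv (1 / (5 * 2 ^ k0)) (y - x)).trans (le_of_eq ?_)
  congr 1
  field_simp

theorem aem_B {x v : R3} {S : Set R3} (mS : MeasurableSet S) {F : R3 → ℝ≥0∞}
    (hF : AEMeasurable F (volume.restrict S))
    (ht : ∀ w ∈ Tw Q k0, ∀ τ ∈ Icc (0:ℝ) 1, x + w + τ • v ∈ S) :
    AEMeasurable (fun w => ∫⁻ τ in Icc (0:ℝ) 1, F (x + w + τ • v)) (volume.restrict (Tw Q k0)) :=
  aemeasurable_li (μ := (volume : Measure R3)) mS (measurableSet_Tw Q k0) hF ht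

/-- Fubini with the tube of the edge, in the coordinates of `w2` -/
theorem fub_tube {κ : ℝ} (hκ : 0 < κ) (cnd : ∀ v, κ / 4 * ‖v‖ ≤ ‖Q.ψ v‖) {u : ℝ}
    (hu : 4 * κ⁻¹ / (5 * 2 ^ k0) ≤ u) {x v : R3} (hv : v ≠ 0) {F : R3 → ℝ≥0∞}
    (hF : AEMeasurable F (volume.restrict (w2 '' cthickening u (sg (w2.symm x) (w2.symm v))))) :
    ∫⁻ w in Tw Q k0, ∫⁻ τ in Icc (0:ℝ) 1, F (x + w + τ • v) ≤
      ENNReal.ofReal (2 / (5 * 2 ^ k0 * ‖Q.ψ v‖)) *
        ∫⁻ z in cthickening u (sg (w2.symm x) (w2.symm v)), F (w2 z) := by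
  refine (fub_B hv (measurableSet_tube u _ _) hF (seg_add_Tw hκ cnd hu x v)).trans (le_of_eq ?_)
  rw [lint_w2, preimage_image_eq _ w2.injective]

/-- the same divided by `volume B` : `2 / (5 2^k0 ‖ψ v‖) = volume B * (5 2^k0)² / (4 dv ψ ‖ψ v‖)` -/
theorem coef_eq (v : R3) :
    ENNReal.ofReal (2 / (5 * 2 ^ k0 * ‖Q.ψ v‖)) =
      ENNReal.ofReal ((5 * 2 ^ k0) ^ 2 / (4 * dv Q.ψ * ‖Q.ψ v‖)) * volume (Tw Q k0) := by
  have h := dv_pos Q.ψ
  rw [volume_Tw, ← ENNReal.ofReal_mul (by positivity)]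
  congr 1
  by_cases hv : ‖Q.ψ v‖ = 0
  · rw [hv]; simp
  · field_simp
    ring

end Crest.Agent.R096.Fub_216
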