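import Crest.Agent.R096.Cob9_622
import Crest.Agent.R096.Cbs2_296
import Crest.Agent.R096.Fub1_216

/-!
Row 96 (S0127), helper227, COMPOSITE B, [C5] of 622 (#11695, #11737; division 726 #11753): **energies of the
tubes of the SHORT edges**.  The tube of an edge is covered by the cells; large cells (`40 m⁴ u ≤ R`) are
treated by `(E)` of `cob_main` with 622's `TubE.ofJ`, the others by `(cells)`.
-/

set_option autoImplicit false
set_option linter.style.longLine false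
set_option linter.unusedSectionVars false

open MeasureTheory Set Filter Topology Metric
open scoped ENNReal NNReal

namespace Crest.Agent.R096.She_227

open Crest.AnalysisR.VecCalc3
open Crest.Agent.R096.Msh_715 (P I Tiling)
open Crest.Agent.R096.Sq_55 (E3 Sys Face Cell FaceOf w2 IsDp GG lint_w2)
open Crest.Agent.R096.Sqt_143 (sg)
open Crest.Agent.R096.Cob_622
open Crest.Agent.R096.Efi_296
open Crest.Agent.R096.Cbs_296
open Crest.Agent.R096.Br_695 (En)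
open Crest.Agent.R96.En10_199 (P3)

noncomputable section

/-! ### sums over the cells -/

section abs

variable {κ ι : Type*} [Fintype κ] [Fintype ι] {X : Sys κ ι}

open Classical in
/-- the cells which meet `S` -/
def Zf (X : Sys κ ι) (S : Set E3) : Finset κ :=
  Finset.univ.filter fun k => ((X.C k).P ∩ S).Nonempty

theorem mem_Zf {S : Set E3} {k : κ} : k ∈ Zf X S ↔ ((X.C k).P ∩ S).Nonempty := by
  classical
  unfold Zf
  rw [Finset.mem_filter]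
  exact ⟨fun h => h.2, fun h => ⟨Finset.mem_univ _, h⟩⟩

/-- the integral over a set covered by the cells -/
theorem tube_sum {S : Set E3} (hcov : S ⊆ ⋃ k, (X.C k).P) (F : R3 → ℝ≥0∞) (b : κ → ℝ≥0∞)
    (h : ∀ k ∈ Zf X S, ∫⁻ x in (X.C k).P ∩ S, F (w2 x) ≤ b k) :
    ∫⁻ x in S, F (w2 x) ≤ ∑ k ∈ Zf X S, b k := by
  classical
  have h1 : S ⊆ ⋃ k : {k // k ∈ Zf X S}, (X.C k.1).P ∩ S := by
    intro x hx
    obtain ⟨k, hk⟩ := mem_iUnion.1 (hcov hx)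
    exact mem_iUnion.2 ⟨⟨k, mem_Zf.2 ⟨x, hk, hx⟩⟩, hk, hx⟩
  calc ∫⁻ x in S, F (w2 x) ≤ ∫⁻ x in ⋃ k : {k // k ∈ Zf X S}, (X.C k.1).P ∩ S, F (w2 x) :=
        lintegral_mono_set h1
    _ ≤ ∑' k : {k // k ∈ Zf X S}, ∫⁻ x in (X.C k.1).P ∩ S, F (w2 x) := lintegral_iUnion_le _ _
    _ = ∑ k : {k // k ∈ Zf X S}, ∫⁻ x in (X.C k.1).P ∩ S, F (w2 x) := tsum_fintype _
    _ ≤ ∑ k : {k // k ∈ Zf X S}, b k.1 := Finset.sum_le_sum fun k _ => h k.1 k.2
    _ = ∑ k ∈ Zf X S, b k := Finset.sum_coe_sort (Zf X S) b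

end abs

/-! ### the family of tubes -/

section fam

variable {OmR : Set R3} {ι : Type*} {T : Tiling OmR ι} {s : Finset ι} {pr : (Te T).Cell → Prop}
  {c : ι → E3} {R : ι → ℝ≥0} {ρ : E3 → ℝ≥0} {m : ι → ℝ≥0} {X : Sys s (reps (Te T) s pr)}

/-- indices of the tubes: (edge `i`, cell `k` which is large with respect to `u`) -/
def IxS (α : Type*) (s : Finset ι) (R m : ι → ℝ≥0) (u : ℝ) : Type _ :=
  {x : α × s // 40 * (m x.2 : ℝ)^4 * u ≤ R x.2}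

instance {α : Type*} [Finite α] {u : ℝ} : Finite (IxS α s R m u) := by
  unfold IxS; infer_instance

/-- the edge in the coordinates of `E3` -/
def sE (e : R3 × R3) : Set E3 := sg (w2.symm e.1) (w2.symm (e.2 - e.1))

theorem isCompact_sE (e : R3 × R3) : IsCompact (sE e) := Sqt_143.isCompact_sg _ _

theorem image_sE (e : R3 × R3) : w2 '' sE e = segment ℝ e.1 e.2 := by
  unfold sE
  rw [sg, image_image, segment_eq_image']
  apply image_congr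
  intro t _
  show P3 (P3.symm e.1 + t • P3.symm (e.2 - e.1)) = _
  rw [map_add, map_smul, P3.apply_symm_apply, P3.apply_symm_apply]

theorem mem_sE {e : R3 × R3} {y : E3} : y ∈ sE e ↔ w2 y ∈ segment ℝ e.1 e.2 := by
  rw [← image_sE]
  constructor
  · exact fun h => mem_image_of_mem _ h
  · rintro ⟨z, hz, h⟩
    rwa [← w2.injective h]

/-- the points of the edge are of dimension at most one, in `E3` -/
theorem dim_sE {e : R3 × R3} (he : ∀ y ∈ segment ℝ e.1 e.2, y ∈ OmR ∧ T.dim y ≤ 1) :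
    ∀ y ∈ sE e, y ∈ (P3.symm : R3 ≃L[ℝ] E3).symm ⁻¹' OmR ∧ (Te T).dim y ≤ 1 := by
  intro y hy
  have h1 := he (w2 y) (mem_sE.1 hy)
  refine ⟨h1.1, ?_⟩
  have h2 := Ttr_622.dim_tr (P3.symm : R3 ≃L[ℝ] E3) T y
  rw [h2]
  exact h1.2

/-- **the energy tubes of a family of edges** (all with the global data `D`), to be used as (a part of)
`t1` of `Cob_622.cob_main` -/
def tS (h : SysOf (Te T) s pr c R ρ m X) {Om : Set R3} {g : R3 → ℝ≥0∞} {α' β' : Type*}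
    [Fintype α'] [Fintype β'] (D : EF X Om g α' β') {α : Type*} (e : α → R3 × R3)
    (he : ∀ i, ∀ y ∈ segment ℝ (e i).1 (e i).2, y ∈ OmR ∧ T.dim y ≤ 1) {u : ℝ} (hu : 0 < u)
    (x : IxS α s R m u) : TubE X Om g α' β' :=
  TubE.ofJ D x.1.2 (sE (e x.1.1)) u (h.tub (isCompact_sE _) (dim_sE (he _)) _ hu x.2)

/-- the cells which meet the tube, in terms of the tiling -/
theorem mem_Zf_iff (h : SysOf (Te T) s pr c R ρ m X) {S : Set E3} {k : s} :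
    k ∈ Zf X S ↔ (P (T.H k) ∩ w2 '' S).Nonempty := by
  rw [mem_Zf, h.eP]
  constructor
  · rintro ⟨y, hy1, hy2⟩
    exact ⟨w2 y, (Ttr_622.mem_P_tr (P3.symm : R3 ≃L[ℝ] E3) T).1 hy1, mem_image_of_mem _ hy2⟩
  · rintro ⟨_, hy1, y, hy2, rfl⟩
    exact ⟨y, (Ttr_622.mem_P_tr (P3.symm : R3 ≃L[ℝ] E3) T).2 hy1, hy2⟩

/-- cover of a set by the cells, from the tiling -/
theorem cover_of (h : SysOf (Te T) s pr c R ρ m X) {S : Set E3} (hS : w2 '' S ⊆ OmR)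
    (hs : ∀ t, (P (T.H t) ∩ w2 '' S).Nonempty → t ∈ s) : S ⊆ ⋃ k, (X.C k).P := by
  intro y hy
  obtain ⟨t, ht⟩ := T.cov _ (hS (mem_image_of_mem _ hy))
  have hts := hs t ⟨_, ht, mem_image_of_mem _ hy⟩
  refine mem_iUnion.2 ⟨⟨t, hts⟩, ?_⟩
  rw [h.eP]
  exact (Ttr_622.mem_P_tr (P3.symm : R3 ≃L[ℝ] E3) T).2 ht

/-- **SHORT energies, one edge**: from the conclusions (cells), (E) of `cob_main`. -/
theorem short_en (h : SysOf (Te T) s pr c R ρ m X) {Om : Set R3} {g : R3 → ℝ≥0∞} {α' β' : Type*}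
    [Fintype α'] [Fintype β'] (D : EF X Om g α' β') {α : Type*} (e : α → R3 × R3)
    (he : ∀ i, ∀ y ∈ segment ℝ (e i).1 (e i).2, y ∈ OmR ∧ T.dim y ≤ 1) {u : ℝ} (hu : 0 < u)
    {p : ℝ} {K : ℝ≥0} {ε : ℝ≥0∞} {g₂ : R3 → ℝ≥0∞}
    (hcell : ∀ k, (p < 2 ∨ ∀ j, ¬ ((X.F j).V ∩ (X.C k).P).Nonempty) →
      ∫⁻ x in (X.C k).P, g₂ (w2 x) ≤ ENNReal.ofReal (CB p K (X.m k)) * D.J k + ε)
    (i : α)
    (hE : ∀ k : s, ∀ hk : 40 * (m k : ℝ)^4 * u ≤ R k,
      ∫⁻ x in (X.C (tS h D e he hu ⟨(i, k), hk⟩).k).P ∩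
          cthickening (tS h D e he hu ⟨(i, k), hk⟩).u (tS h D e he hu ⟨(i, k), hk⟩).E, g₂ (w2 x) ≤
        ENNReal.ofReal (CE p K (X.m (tS h D e he hu ⟨(i, k), hk⟩).k)) *
          Jt (tS h D e he hu ⟨(i, k), hk⟩).D (tS h D e he hu ⟨(i, k), hk⟩).k
            (tS h D e he hu ⟨(i, k), hk⟩).E (tS h D e he hu ⟨(i, k), hk⟩).u + ε)
    (hO : w2 '' cthickening u (sE (e i)) ⊆ OmR)
    (hs : ∀ t, (P (T.H t) ∩ w2 '' cthickening u (sE (e i))).Nonempty → t ∈ s)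
    (hsm : ∀ k : s, (P (T.H k) ∩ w2 '' cthickening u (sE (e i))).Nonempty →
      ¬ 40 * (m k : ℝ)^4 * u ≤ R k → p < 2 ∨ ∀ j, ¬ ((X.F j).V ∩ (X.C k).P).Nonempty) :
    ∫⁻ x in cthickening u (sE (e i)), g₂ (w2 x) ≤ ∑ k ∈ Zf X (cthickening u (sE (e i))),
      ((ENNReal.ofReal (CB p K (X.m k)) + ENNReal.ofReal (CE p K (X.m k))) * D.J k + ε) := by
  refine tube_sum (cover_of h hO hs) g₂ _ fun k hk => ?_
  by_cases hR : 40 * (m k : ℝ)^4 * u ≤ R k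
  · have h1 := hE k hR
    have h2 := TubE.Jt_ofJ_le D k (sE (e i)) u (h.tub (isCompact_sE _) (dim_sE (he i)) k hu hR)
    refine h1.trans (add_le_add ?_ le_rfl)
    refine mul_le_mul' ?_ h2
    exact le_add_self
  · have h1 := hcell k (hsm k ((mem_Zf_iff h).1 hk) hR)
    refine (lintegral_mono_set inter_subset_left).trans (h1.trans (add_le_add ?_ le_rfl))
    exact mul_le_mul' le_self_add le_rfl

/-- the same with one constant `C` for the cells which meet the tube -/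
theorem short_en' (h : SysOf (Te T) s pr c R ρ m X) {Om : Set R3} {g : R3 → ℝ≥0∞} {α' β' : Type*}
    [Fintype α'] [Fintype β'] (D : EF X Om g α' β') {α : Type*} (e : α → R3 × R3)
    (he : ∀ i, ∀ y ∈ segment ℝ (e i).1 (e i).2, y ∈ OmR ∧ T.dim y ≤ 1) {u : ℝ} (hu : 0 < u)
    {p : ℝ} {K : ℝ≥0} {ε : ℝ≥0∞} {g₂ : R3 → ℝ≥0∞}
    (hcell : ∀ k, (p < 2 ∨ ∀ j, ¬ ((X.F j).V ∩ (X.C k).P).Nonempty) →
      ∫⁻ x in (X.C k).P, g₂ (w2 x) ≤ ENNReal.ofReal (CB p K (X.m k)) * D.J k + ε)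
    (hE : ∀ i : IxS α s R m u, ∫⁻ x in (X.C (tS h D e he hu i).k).P ∩
          cthickening (tS h D e he hu i).u (tS h D e he hu i).E, g₂ (w2 x) ≤
        ENNReal.ofReal (CE p K (X.m (tS h D e he hu i).k)) *
          Jt (tS h D e he hu i).D (tS h D e he hu i).k
            (tS h D e he hu i).E (tS h D e he hu i).u + ε) (i : α)
    (hO : w2 '' cthickening u (sE (e i)) ⊆ OmR)
    (hs : ∀ t, (P (T.H t) ∩ w2 '' cthickening u (sE (e i))).Nonempty → t ∈ s)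
    (hsm : ∀ k : s, (P (T.H k) ∩ w2 '' cthickening u (sE (e i))).Nonempty →
      ¬ 40 * (m k : ℝ)^4 * u ≤ R k → p < 2 ∨ ∀ j, ¬ ((X.F j).V ∩ (X.C k).P).Nonempty)
    {C : ℝ≥0∞} (hC : ∀ k ∈ Zf X (cthickening u (sE (e i))),
      ENNReal.ofReal (CB p K (X.m k)) + ENNReal.ofReal (CE p K (X.m k)) ≤ C) :
    ∫⁻ x in cthickening u (sE (e i)), g₂ (w2 x) ≤
      ∑ k ∈ Zf X (cthickening u (sE (e i))), (C * D.J k + ε) :=
  (short_en h D e he hu hcell i (fun k hk => hE ⟨(i, k), hk⟩) hO hs hsm).trans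
    (Finset.sum_le_sum fun k hk => add_le_add (mul_le_mul' (hC k hk) le_rfl) le_rfl)

end fam

/-! ### the average over the translations -/

section av

variable {Q : Mal_874.CB R3 3} {k0 : ℕ}

/-- **the average of one edge**: Fubini and the bound of the tube -/
theorem av_edge {κ : ℝ} (hκ : 0 < κ) (cnd : ∀ v, κ / 4 * ‖v‖ ≤ ‖Q.ψ v‖) {u : ℝ}
    (hu : 4 * κ⁻¹ / (5 * 2 ^ k0) ≤ u) {e : R3 × R3} (hv : e.2 - e.1 ≠ 0) {F : R3 → ℝ≥0∞}
    (hF : AEMeasurable F (volume.restrict (w2 '' cthickening u (sE e)))) {b : ℝ≥0∞}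
    (hb : ∫⁻ x in cthickening u (sE e), F (w2 x) ≤ b) :
    ∫⁻ w in Pin_753.Tw Q k0, ∫⁻ τ in Icc (0:ℝ) 1, F (e.1 + w + τ • (e.2 - e.1)) ≤
      ENNReal.ofReal (2 / (5 * 2 ^ k0 * ‖Q.ψ (e.2 - e.1)‖)) * b :=
  (Fub_216.fub_tube hκ cnd hu hv hF).trans (mul_le_mul' le_rfl hb)

end av

end

end Crest.Agent.R096.She_227
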