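import Crest.Agent.R096.Cnt1_726

/-!
Row 96 (S0127), helper726.  **[GEO-S]**: the 1-cells of the tiling of a core block which come near the wall
are short, and only boundedly many of them come near a given point.
-/

set_option autoImplicit false
set_option linter.unusedSectionVars false

open MeasureTheory Set Filter Metric
open scoped Topology ENNReal NNReal

namespace Crest.Agent.R096.Sht_726

open Crest.Agent.R096.Msh_715 Crest.Agent.R096.Mal_874 Crest.Agent.R096.Ncl_476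
open Crest.Agent.R096.Ine_222 Crest.Agent.R096.Cnt_726
open Crest.Agent.R096.SkC1_961 (E3)
open Crest.Agent.R96.Sg1_199 (sgm sgm_eq_segment)
open Crest.Agent.R096.Ls_222 (Edg ea ev eIn mem_eIn sgm_edg ev_ne)
open Crest.Agent.R096.EaX_766 (lin)

/-- the zone at the wall, in the coordinates of the frame -/
def NW {E : Type*} [NormedAddCommGroup E] [NormedSpace ℝ E] {n : ℕ} (Q : CB E n) (k N : ℕ) (y : E) :
    Prop := infDist (Q.ψ y) Q.W ≤ 6 * 2 ^ N / 2 ^ k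

/-- the scale near the wall -/
theorem K_ge_near {n : ℕ} {E : Type*} [NormedAddCommGroup E] [NormedSpace ℝ E] (Q : CB E n) {k : ℕ}
    (hk : Q.kc ≤ k) {N : ℕ} {y : E} (hy : NW Q k N y) :
    k ≤ Msh_810.K (Q.D k hk) (Q.ψ y) + N := by
  have hpos : 0 < (Q.D k hk).ρ (Q.ψ y) := blkE_pos (W := Q.W) (hC := by norm_num) (a := Q.a')
    (h := Q.six_le) (hk := hk) (Q.ψ y)
  have h3 := Msh_810.K_lower hpos
  have h4 : (Q.D k hk).ρ (Q.ψ y) =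
    max (6 / 2 ^ k) (min (6 / 2 ^ Q.kc) (infDist (Q.ψ y) Q.W)) := rfl
  have h5 : (Q.D k hk).C = 6 := rfl
  rw [h4, h5] at h3
  set κ := Msh_810.K (Q.D k hk) (Q.ψ y) with hκ
  have hy' : infDist (Q.ψ y) Q.W ≤ 6 * 2 ^ N / 2 ^ k := hy
  have h6 : max (6 / 2 ^ k) (min (6 / 2 ^ Q.kc) (infDist (Q.ψ y) Q.W)) ≤
      (6 : ℝ) * 2 ^ N / 2 ^ k := by
    refine max_le ?_ ((min_le_right _ _).trans hy')
    have : (1 : ℝ) ≤ 2 ^ N := one_le_pow₀ (by norm_num)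
    gcongr
    linarith
  have h7 : (6 : ℝ) ≤ 2 ^ κ * (6 * 2 ^ N / 2 ^ k) :=
    h3.trans (mul_le_mul_of_nonneg_left h6 (by positivity))
  have h8 : (2 : ℝ) ^ k ≤ 2 ^ (κ + N) := by
    rw [pow_add]
    have h9 : (0 : ℝ) < 2 ^ k := by positivity
    have h10 : (2 : ℝ) ^ κ * (6 * 2 ^ N / 2 ^ k) = 6 * (2 ^ κ * 2 ^ N) / 2 ^ k := by ring
    rw [h10, le_div_iff₀ h9] at h7
    linarith
  exact (pow_le_pow_iff_right₀ (by norm_num : (1 : ℝ) < 2)).1 h8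

section E3form

variable {Bs : ℕ}

/-- `ψ` as an affine map -/
noncomputable def Aψ (Q : CB E3 3) : E3 ≃ᵃ[ℝ] E3 := Q.ψ.toLinearEquiv.toAffineEquiv

theorem lin_Aψ (Q : CB E3 3) (x : E3) : lin (Aψ Q) x = Q.ψ x := rfl

theorem fam1 (hB1 : 1 ≤ Bs) (Q : CB E3 3) (k : ℕ) (hk : Q.kc ≤ k)
    (hB : ∀ i, ∀ p ∈ Q.S.GG i, ∀ l, |p.1 l| ≤ Bs)
    (hR : ∀ i, i ≠ Q.S.core → ∀ v ∈ ZP (Q.S.GG i), ∀ w ∈ ZP (Q.S.GG i), ∀ l, |w l - v l| ≤ Bs) :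
    Fam (Q.T k hk) (lin (Aψ Q)) (SL Bs) {t | t ≠ Q.cix k hk} (fun t => 1 / 2 ^ kap Q k hk t) :=
  fam Q k hk hB1 one_pos (fun x => by rw [one_smul]; rfl) hB hR

/-- an element of `Ed` near the wall lies in a small tile -/
theorem exists_small_tile (Q : CB E3 3) (k : ℕ) (hk : Q.kc ≤ k) {e : E3 × E3}
    (he : e ∈ Ea0_961.Ed Q k hk) :
    ∃ (g : Edg (Q.T k hk)) (t : _), P ((Q.T k hk).H t) ⊆ Q.N ∧ t ≠ Q.cix k hk ∧
      g ∈ eIn (Q.T k hk) t ∧ segment ℝ e.1 e.2 ⊆ P ((Q.T k hk).H t) ∧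
      ((e.1 = ea g ∧ e.2 = ea g + ev g) ∨ (e.1 = ea g + ev g ∧ e.2 = ea g)) := by
  obtain ⟨x, hd, hcc, hN⟩ := he
  have hOm : Q.ψ ⁻¹' (Q.D k hk).Om = univ := by rw [Q.D_Om, preimage_univ]
  have hx : x ∈ Q.ψ ⁻¹' (Q.D k hk).Om := by rw [hOm]; exact mem_univ _
  obtain ⟨t, h1, h2, h3⟩ := exists_tile Q k hk hd (hcc ▸ hN)
  let g : Edg (Q.T k hk) := ⟨(Q.T k hk).cc x, x, hx, hd, rfl⟩
  exact ⟨g, t, h1, h2, mem_eIn.2 ((Q.T k hk).cc_sub_tile h3), hcc ▸ (Q.T k hk).cc_sub_tile h3,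
    pair_edg hx hd hcc g rfl⟩

/-- **(a) the edges near the wall are short** -/
theorem len_short (hB1 : 1 ≤ Bs) (Q : CB E3 3) (k : ℕ) (hk : Q.kc ≤ k)
    (hB : ∀ i, ∀ p ∈ Q.S.GG i, ∀ l, |p.1 l| ≤ Bs)
    (hR : ∀ i, i ≠ Q.S.core → ∀ v ∈ ZP (Q.S.GG i), ∀ w ∈ ZP (Q.S.GG i), ∀ l, |w l - v l| ≤ Bs)
    {N : ℕ} {e : E3 × E3} (he : e ∈ Ea0_961.Ed Q k hk) {y : E3} (hy : y ∈ segment ℝ e.1 e.2)
    (hw : NW Q k N y) : ‖Q.ψ (e.2 - e.1)‖ ≤ Dsh (SL Bs) * 2 ^ N / 2 ^ k := by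
  obtain ⟨g, t, h1, h2, h3, h4, h5⟩ := exists_small_tile Q k hk he
  have hF := fam1 hB1 Q k hk hB hR
  have h6 := hF.size (t := t) h2 (h4 (right_mem_segment ℝ e.1 e.2)) (h4 (left_mem_segment ℝ e.1 e.2))
  rw [lin_Aψ] at h6
  have h7 := K_ge_near Q hk hw
  have h8 := (kap_K Q k hk (h4 hy)).1
  have h9 : k ≤ kap Q k hk t + N := by omega
  have h10 : (2 : ℝ) ^ k ≤ 2 ^ kap Q k hk t * 2 ^ N := by
    rw [← pow_add]; exact pow_le_pow_right₀ (by norm_num) h9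
  refine h6.trans ?_
  have hD := Dsh_nonneg (SL Bs)
  rw [one_div, inv_mul_eq_div, div_le_div_iff₀ (by positivity) (by positivity)]
  calc Dsh (SL Bs) * 2 ^ k ≤ Dsh (SL Bs) * (2 ^ kap Q k hk t * 2 ^ N) := by gcongr
    _ = _ := by ring

/-- the number of small tiles near a point -/
theorem card_tiles (hB1 : 1 ≤ Bs) {v : ℝ} (hv0 : 0 < v)
    (hv : ∀ S ∈ SL Bs, volume S ≠ 0 → ENNReal.ofReal v ≤ volume S)
    (Q : CB E3 3) (k : ℕ) (hk : Q.kc ≤ k)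
    (hB : ∀ i, ∀ p ∈ Q.S.GG i, ∀ l, |p.1 l| ≤ Bs)
    (hR : ∀ i, i ≠ Q.S.core → ∀ v ∈ ZP (Q.S.GG i), ∀ w ∈ ZP (Q.S.GG i), ∀ l, |w l - v l| ≤ Bs)
    (N : ℕ) {ρ : ℝ} (hρ : 0 ≤ ρ) (y0 : E3) (F : Finset _)
    (hF : ∀ t ∈ F, t ≠ Q.cix k hk ∧ k ≤ kap Q k hk t + N ∧ kap Q k hk t ≤ k + 1 ∧
      ∃ y ∈ P ((Q.T k hk).H t), ‖Q.ψ (y - y0)‖ ≤ ρ / 2 ^ k) :
    (F.card : ℝ) ≤ 64 * (ρ + Dsh (SL Bs) * 2 ^ N) ^ 3 / v := by
  classical
  have hD := Dsh_nonneg (SL Bs)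
  have hFam := fam1 hB1 Q k hk hB hR
  set L := lin (Aψ Q) with hL
  set r : ℝ := (ρ + Dsh (SL Bs) * 2 ^ N) / 2 ^ k with hr
  have hr0 : 0 ≤ r := by positivity
  have hk2 : (0 : ℝ) < 2 ^ k := by positivity
  set Z : Set E3 := {y | ‖Q.ψ (y - y0)‖ ≤ r} with hZ
  have hsub : ∀ t ∈ F, I ((Q.T k hk).H t) ⊆ Z := by
    intro t ht y hy
    obtain ⟨h1, h2, h3, z, hz, hz2⟩ := hF t ht
    have h4 := hFam.size (t := t) h1 (I_sub_P _ hy) hz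
    rw [hL, lin_Aψ] at h4
    have h5 : (2 : ℝ) ^ k ≤ 2 ^ kap Q k hk t * 2 ^ N := by
      rw [← pow_add]; exact pow_le_pow_right₀ (by norm_num) h2
    have h6 : 1 / 2 ^ kap Q k hk t * Dsh (SL Bs) ≤ Dsh (SL Bs) * 2 ^ N / 2 ^ k := by
      rw [one_div, inv_mul_eq_div, div_le_div_iff₀ (by positivity) (by positivity)]
      calc Dsh (SL Bs) * 2 ^ k ≤ Dsh (SL Bs) * (2 ^ kap Q k hk t * 2 ^ N) := by gcongr
        _ = _ := by ring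
    have e : y - y0 = (y - z) + (z - y0) := by abel
    show ‖Q.ψ (y - y0)‖ ≤ r
    rw [e, map_add]
    refine (norm_add_le _ _).trans ?_
    rw [hr, add_div]
    linarith
  have hvZ : ENNReal.ofReal |L.det| * volume Z ≤ ENNReal.ofReal ((2 * r) ^ 3) := by
    rw [← Measure.addHaar_image_continuousLinearMap]
    have h1 : L '' Z ⊆ closedBall (L y0) r := by
      rintro _ ⟨y, hy, rfl⟩
      rw [mem_closedBall, dist_eq_norm, ← map_sub, hL, lin_Aψ]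
      exact hy
    refine (measure_mono h1).trans ?_
    rw [Real.volume_pi_closedBall _ hr0]
    simp only [Fintype.card_fin]
    exact le_rfl
  have hsum : ∑ t ∈ F, volume (P ((Q.T k hk).H t)) ≤ volume Z := by
    calc ∑ t ∈ F, volume (P ((Q.T k hk).H t)) ≤ ∑ t ∈ F, volume (I ((Q.T k hk).H t)) :=
          Finset.sum_le_sum fun t _ => vol_P_le ((Q.T k hk).ne t)
      _ = volume (⋃ t ∈ F, I ((Q.T k hk).H t)) := (measure_biUnion_finset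
          (fun a _ b _ hab => (Q.T k hk).dis a b hab) fun t _ => (isOpen_I _).measurableSet).symm
      _ ≤ volume Z := measure_mono (iUnion₂_subset hsub)
  have hlow : ∀ t ∈ F, ENNReal.ofReal ((1 / (2 * 2 ^ k)) ^ 3 * v) ≤
      ENNReal.ofReal |L.det| * volume (P ((Q.T k hk).H t)) := by
    intro t ht
    obtain ⟨h1, h2, h3, -⟩ := hF t ht
    refine le_trans (ENNReal.ofReal_le_ofReal ?_) (hFam.vol_ge hv (t := t) h1)
    have h4 : (2 : ℝ) ^ kap Q k hk t ≤ 2 * 2 ^ k := by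
      rw [← pow_succ']; exact pow_le_pow_right₀ (by norm_num) h3
    have h5 : 1 / (2 * 2 ^ k) ≤ 1 / (2 : ℝ) ^ kap Q k hk t :=
      one_div_le_one_div_of_le (by positivity) h4
    have h6 : (0 : ℝ) ≤ 1 / (2 * 2 ^ k) := by positivity
    gcongr
  have h4 : ENNReal.ofReal (F.card * ((1 / (2 * 2 ^ k)) ^ 3 * v)) ≤
      ENNReal.ofReal ((2 * r) ^ 3) := by
    calc ENNReal.ofReal (F.card * ((1 / (2 * 2 ^ k)) ^ 3 * v))
        = ∑ t ∈ F, ENNReal.ofReal ((1 / (2 * 2 ^ k)) ^ 3 * v) := by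
          rw [Finset.sum_const, nsmul_eq_mul, ENNReal.ofReal_mul (Nat.cast_nonneg _),
            ENNReal.ofReal_natCast]
      _ ≤ ∑ t ∈ F, ENNReal.ofReal |L.det| * volume (P ((Q.T k hk).H t)) := Finset.sum_le_sum hlow
      _ = ENNReal.ofReal |L.det| * ∑ t ∈ F, volume (P ((Q.T k hk).H t)) := by rw [Finset.mul_sum]
      _ ≤ ENNReal.ofReal |L.det| * volume Z := by gcongr
      _ ≤ _ := hvZ
  rw [ENNReal.ofReal_le_ofReal_iff (by positivity)] at h4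
  rw [le_div_iff₀ hv0]
  have e1 : (2 * r) ^ 3 = 8 * (ρ + Dsh (SL Bs) * 2 ^ N) ^ 3 / (2 ^ k) ^ 3 := by
    rw [hr]; field_simp; ring
  have e2 : (F.card : ℝ) * ((1 / (2 * 2 ^ k)) ^ 3 * v) = F.card * v / (8 * (2 ^ k) ^ 3) := by
    field_simp; ring
  rw [e1, e2, div_le_div_iff₀ (by positivity) (by positivity)] at h4
  have h5 : (0 : ℝ) < (2 ^ k) ^ 3 := by positivity
  refine le_of_mul_le_mul_right ?_ h5
  nlinarith [h4]

/-- the elements of `Ed` near the wall and near a point -/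
def Nr (Q : CB E3 3) (k : ℕ) (hk : Q.kc ≤ k) (N : ℕ) (ρ : ℝ) (y0 : E3) : Set (E3 × E3) :=
  {e | e ∈ Ea0_961.Ed Q k hk ∧ (∃ y ∈ segment ℝ e.1 e.2, NW Q k N y) ∧
    ∃ y ∈ segment ℝ e.1 e.2, ‖Q.ψ (y - y0)‖ ≤ ρ / 2 ^ k}

/-- **(b) the incidence number** -/
theorem inc_short (hB1 : 1 ≤ Bs) (N : ℕ) {ρ : ℝ} (hρ : 0 ≤ ρ) : ∃ m : ℕ,
    ∀ (Q : CB E3 3) (k : ℕ) (hk : Q.kc ≤ k), (∀ i, ∀ p ∈ Q.S.GG i, ∀ l, |p.1 l| ≤ Bs) →
      (∀ i, i ≠ Q.S.core → ∀ v ∈ ZP (Q.S.GG i), ∀ w ∈ ZP (Q.S.GG i), ∀ l, |w l - v l| ≤ Bs) →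
      ∀ y0 : E3, (Nr Q k hk N ρ y0).Finite ∧ (Nr Q k hk N ρ y0).ncard ≤ m := by
  classical
  obtain ⟨v, hv0, hv⟩ := exists_vol_lb (volume : Measure E3) (SL_finite Bs)
  set M0 : ℕ := ⌊64 * (ρ + Dsh (SL Bs) * 2 ^ N) ^ 3 / v⌋₊ with hM0
  refine ⟨M0 * ((SL Bs).ncard * 2), ?_⟩
  intro Q k hk hB hR y0
  have hD := Dsh_nonneg (SL Bs)
  set T := Q.T k hk with hT
  set O : Set _ := {t | t ≠ Q.cix k hk ∧ k ≤ kap Q k hk t + N ∧ kap Q k hk t ≤ k + 1 ∧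
      ∃ y ∈ P ((Q.T k hk).H t), ‖Q.ψ (y - y0)‖ ≤ ρ / 2 ^ k} with hO
  have hcard : ∀ F : Finset _, (∀ t ∈ F, t ∈ O) → F.card ≤ M0 := by
    intro F hF
    exact Nat.le_floor (card_tiles hB1 hv0 hv Q k hk hB hR N hρ y0 F hF)
  have hOf : O.Finite := by
    by_contra hcon
    obtain ⟨F, hF, hFc⟩ := Set.Infinite.exists_subset_card_eq hcon (M0 + 1)
    have := hcard F fun t ht => hF ht
    omega
  have hOc : hOf.toFinset.card ≤ M0 := hcard _ fun t ht => hOf.mem_toFinset.1 ht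
  let φ : Edg T × Bool → E3 × E3 := fun q =>
    bif q.2 then (ea q.1, ea q.1 + ev q.1) else (ea q.1 + ev q.1, ea q.1)
  have hsub : Nr Q k hk N ρ y0 ⊆ ((hOf.toFinset.biUnion fun t =>
      ((eIn T t) ×ˢ (Finset.univ : Finset Bool)).image φ : Finset (E3 × E3)) : Set (E3 × E3)) := by
    rintro e ⟨he, ⟨y, hy, hw⟩, z, hz, hz2⟩
    obtain ⟨g, t, h1, h2, h3, h4, h5⟩ := exists_small_tile Q k hk he
    have h7 := K_ge_near Q hk hw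
    have h8 := kap_K Q k hk (h4 hy)
    have h9 : Msh_810.K (Q.D k hk) (Q.ψ y) ≤ k := blkE_K_le (W := Q.W) (hC := by norm_num)
      (a := Q.a') (h := Q.six_le) (hk := hk) (Q.ψ y)
    rw [Finset.mem_coe, Finset.mem_biUnion]
    refine ⟨t, hOf.mem_toFinset.2 ⟨h2, by omega, by omega, z, h4 hz, hz2⟩, ?_⟩
    rw [Finset.mem_image]
    rcases h5 with ⟨a1, a2⟩ | ⟨a1, a2⟩
    · exact ⟨(g, true), Finset.mem_product.2 ⟨h3, Finset.mem_univ _⟩, (Prod.ext a1 a2).symm⟩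
    · exact ⟨(g, false), Finset.mem_product.2 ⟨h3, Finset.mem_univ _⟩, (Prod.ext a1 a2).symm⟩
  have hFam := fam1 hB1 Q k hk hB hR
  refine ⟨(Finset.finite_toSet _).subset hsub, ?_⟩
  refine (ncard_le_ncard hsub (Finset.finite_toSet _)).trans ?_
  rw [ncard_coe_finset]
  refine Finset.card_biUnion_le.trans ?_
  calc ∑ t ∈ hOf.toFinset, (((eIn T t) ×ˢ (Finset.univ : Finset Bool)).image φ).card
      ≤ ∑ _t ∈ hOf.toFinset, (SL Bs).ncard * 2 := by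
        refine Finset.sum_le_sum fun t ht => Finset.card_image_le.trans ?_
        rw [Finset.card_product, Finset.card_univ, Fintype.card_bool]
        obtain ⟨B, hB', hS⟩ := hFam.fr t (hOf.mem_toFinset.1 ht).1
        exact Nat.mul_le_mul_right 2 (eIn_card_le hFam.fin hS)
    _ = hOf.toFinset.card * ((SL Bs).ncard * 2) := by rw [Finset.sum_const, smul_eq_mul]
    _ ≤ M0 * ((SL Bs).ncard * 2) := Nat.mul_le_mul_right _ hOc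

end E3form

/-! ### in `R3` -/

section r3

open Crest.AnalysisR.VecCalc3
open Crest.Agent.R96.En10_199 (P3)
open Crest.Agent.R096.Tmap_212
open Crest.Agent.R096.Er_594 (vol_P3 norm_P3_le norm_le_P3)

/-- the elements of `Ed` near the wall and near a point -/
def NrP (Q : CB R3 3) (k : ℕ) (hk : Q.kc ≤ k) (N : ℕ) (ρ : ℝ) (y0 : R3) : Set (R3 × R3) :=
  {e | e ∈ Pin_753.Ed Q k hk ∧ (∃ y ∈ segment ℝ e.1 e.2, NW Q k N y) ∧
    ∃ y ∈ segment ℝ e.1 e.2, ‖y - y0‖ ≤ ρ / 2 ^ k}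

theorem nw_mp (Q : CB E3 3) (k N : ℕ) (y : R3) : NW (mp P3 Q) k N y ↔ NW Q k N (P3.symm y) :=
  Iff.rfl

theorem mem_seg_P3 {a b y : R3} :
    y ∈ segment ℝ a b ↔ P3.symm y ∈ segment ℝ (P3.symm a) (P3.symm b) := by
  have h1 : P3.symm '' segment ℝ a b = segment ℝ (P3.symm a) (P3.symm b) :=
    image_segment ℝ (P3.symm : R3 →ₗ[ℝ] E3).toAffineMap a b
  rw [← h1]
  exact ⟨fun h => mem_image_of_mem _ h, fun ⟨z, hz, hzy⟩ => P3.symm.injective hzy ▸ hz⟩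

/-- **[GEO-S]: the edges near the wall are short, and their incidence number is bounded** -/
theorem geo_short (Bs : ℕ) {κ : ℝ} (hκ : 0 < κ) (N : ℕ) {ρ : ℝ} (hρ : 0 ≤ ρ) :
    ∃ (Λ : ℝ) (m : ℕ), 0 < Λ ∧
    ∀ (Q : CB R3 3) (k0 : ℕ) (hk : Q.kc ≤ k0),
      (∀ v, κ / 4 * ‖v‖ ≤ ‖Q.ψ v‖ ∧ ‖Q.ψ v‖ ≤ 4 * κ⁻¹ * ‖v‖) →
      (∀ i, ∀ p ∈ Q.S.GG i, ∀ l, |p.1 l| ≤ Bs) →
      (∀ i, i ≠ Q.S.core → ∀ v ∈ ZP (Q.S.GG i), ∀ w ∈ ZP (Q.S.GG i), ∀ l, |w l - v l| ≤ Bs) →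
      (∀ e ∈ Pin_753.Ed Q k0 hk, ∀ y ∈ segment ℝ e.1 e.2, NW Q k0 N y →
        2 ^ k0 * ‖e.2 - e.1‖ ≤ Λ) ∧
      ∀ y0 : R3, (NrP Q k0 hk N ρ y0).Finite ∧ (NrP Q k0 hk N ρ y0).ncard ≤ m := by
  obtain ⟨m, hm⟩ := inc_short (Bs := Bs + 1) (Nat.le_add_left 1 Bs) N
    (ρ := 4 * κ⁻¹ * ρ) (by positivity)
  have hD := Dsh_nonneg (SL (Bs + 1))
  refine ⟨4 / κ * (Dsh (SL (Bs + 1)) * 2 ^ N) + 1, m, by positivity, ?_⟩
  intro Q k0 hk hc hB hR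
  obtain ⟨Q', rfl⟩ := exists_mp Q
  have hψ : ∀ x, (mp P3 Q').ψ x = Q'.ψ (P3.symm x) := fun x => mp_ψ P3 Q' x
  have hcast : ((Bs : ℕ) : ℝ) ≤ ((Bs + 1 : ℕ) : ℝ) := by push_cast; linarith
  have hB' : ∀ i, ∀ p ∈ Q'.S.GG i, ∀ l, |p.1 l| ≤ ((Bs + 1 : ℕ) : ℤ) := fun i p hp l =>
    (hB i p hp l).trans (by push_cast; linarith)
  have hR' : ∀ i, i ≠ Q'.S.core → ∀ v ∈ ZP (Q'.S.GG i), ∀ w ∈ ZP (Q'.S.GG i), ∀ l,
      |w l - v l| ≤ ((Bs + 1 : ℕ) : ℝ) := fun i hi v hv w hw l => (hR i hi v hv w hw l).trans hcast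
  constructor
  · intro e he y hy hw
    have he' := (mem_Ed Q' k0 hk (u := e.1) (v := e.2)).1 he
    have h1 := len_short (Nat.le_add_left 1 Bs) Q' k0 hk hB' hR' he' (mem_seg_P3.1 hy)
      ((nw_mp Q' k0 N y).1 hw)
    simp only at h1
    rw [← map_sub, ← hψ] at h1
    have h2 := (hc (e.2 - e.1)).1
    have h3 : (0 : ℝ) < 2 ^ k0 := by positivity
    have h4 : κ / 4 * ‖e.2 - e.1‖ ≤ Dsh (SL (Bs + 1)) * 2 ^ N / 2 ^ k0 := h2.trans h1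
    rw [le_div_iff₀ h3] at h4
    have h5 : 2 ^ k0 * ‖e.2 - e.1‖ = 4 / κ * (κ / 4 * ‖e.2 - e.1‖ * 2 ^ k0) := by
      field_simp
    rw [h5]
    have h6 := mul_le_mul_of_nonneg_left h4 (by positivity : (0 : ℝ) ≤ 4 / κ)
    linarith
  · intro y0
    obtain ⟨h1, h2⟩ := hm Q' k0 hk hB' hR' (P3.symm y0)
    let Φ : E3 × E3 → R3 × R3 := fun e => (P3 e.1, P3 e.2)
    have hΦ : Function.Injective Φ := by
      intro e e' h
      have h3 := congrArg Prod.fst h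
      have h4 := congrArg Prod.snd h
      exact Prod.ext (P3.injective h3) (P3.injective h4)
    have hsub : NrP (mp P3 Q') k0 hk N ρ y0 ⊆
        Φ '' Nr Q' k0 hk N (4 * κ⁻¹ * ρ) (P3.symm y0) := by
      rintro ⟨a, b⟩ ⟨he, ⟨y, hy, hw⟩, z, hz, hz2⟩
      refine ⟨(P3.symm a, P3.symm b), ⟨(mem_Ed Q' k0 hk).1 he, ⟨P3.symm y, mem_seg_P3.1 hy,
        (nw_mp Q' k0 N y).1 hw⟩, P3.symm z, mem_seg_P3.1 hz, ?_⟩, ?_⟩
      · rw [← map_sub, ← hψ]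
        refine (hc (z - y0)).2.trans ?_
        calc 4 * κ⁻¹ * ‖z - y0‖ ≤ 4 * κ⁻¹ * (ρ / 2 ^ k0) := by gcongr
          _ = _ := by ring
      · show (P3 (P3.symm a), P3 (P3.symm b)) = (a, b)
        rw [P3.apply_symm_apply, P3.apply_symm_apply]
    have hfin : (Φ '' Nr Q' k0 hk N (4 * κ⁻¹ * ρ) (P3.symm y0)).Finite := h1.image Φ
    refine ⟨hfin.subset hsub, ?_⟩
    refine (ncard_le_ncard hsub hfin).trans ?_
    rw [ncard_image_of_injective _ hΦ]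
    exact h2

end r3

end Crest.Agent.R096.Sht_726
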