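import Crest.Agent.R096.Hb2_82
import Crest.Agent.R096.Sht1_726
import Crest.Agent.R096.She1_227

/-!
Row 96 (S0127), helper82, COMPOSITE B, leaf [C5] of 622: **the inequality (2b)** (hypothesis `h2b` of
227's `tra_of_sum`) for one block: LONG edges in the line form of 143's `long_num`, SHORT edges by the energies
of the cells which meet the tube (227's `short_en'`); the geometry of the SHORT edges is 726's `geo_short`.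
-/

set_option autoImplicit false
set_option linter.unusedSectionVars false
set_option linter.style.longLine false

open Set Metric Filter Topology MeasureTheory
open scoped ENNReal NNReal

namespace Crest.Agent.R096.Hb_82

open Crest.AnalysisR.VecCalc3 Crest.AnalysisR.Sobolev
open Crest.Agent.R096.Msh_715 Crest.Agent.R096.Mal_874
open Crest.Agent.R096.Pin_753
open Crest.Agent.R096.Fub_216 (measurableSet_tube seg_add_Tw)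
open Crest.Agent.R096.Sk_962 (SH)
open Crest.Agent.R096.Br_695 (En)
open Crest.Agent.R096.Sq_55 (w2)
open Crest.Agent.R096.She_227 (sE)
open Crest.Agent.R096.Sht_726 (NW NrP geo_short)
open Crest.Agent.R96.Lu_538 (Gmat)

noncomputable section

variable {p : ℝ} {D : R3 → R3 →L[ℝ] R3} {L : R3 →L[ℝ] R3} {Q : CB R3 3} {k0 : ℕ} {κ : ℝ}

/-- **(2b) from the LONG edges in the line form and the SHORT edges in energy form** -/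
theorem h2b_line (hk : Q.kc ≤ k0) (hp : 1 ≤ p) (hp3 : p ≤ 3) (hκ : 0 < κ)
    (cnd : ∀ v, κ / 4 * ‖v‖ ≤ ‖Q.ψ v‖ ∧ ‖Q.ψ v‖ ≤ 4 * κ⁻¹ * ‖v‖)
    (hL : ∀ v, κ * ‖v‖ ≤ ‖L v‖) (hL' : ‖L‖ ≤ κ⁻¹)
    (S : R3 × R3 → Set R3) (Sh : Set (R3 × R3))
    (mS : ∀ e ∈ Ed Q k0 hk, e ∈ Sh → MeasurableSet (S e))
    (hD : ∀ e ∈ Ed Q k0 hk, e ∈ Sh → AEStronglyMeasurable D (volume.restrict (S e)))
    (ht : ∀ e ∈ Ed Q k0 hk, e ∈ Sh → ∀ w ∈ Tw Q k0, ∀ τ ∈ Icc (0:ℝ) 1,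
      e.1 + w + τ • (e.2 - e.1) ∈ S e)
    {c0 A C1 : ℝ} {c2 : ℝ≥0} {er : ℝ≥0∞} (hA : 0 ≤ A)
    (hlong : ∀ e ∈ Ed Q k0 hk, e ∉ Sh →
      ∫⁻ w in Tw Q k0, ∫⁻ τ in Icc (0:ℝ) 1, ‖D (e.1 + w + τ • (e.2 - e.1)) (e.2 - e.1)‖ₑ ^ p ≤
        ENNReal.ofReal A * ‖L‖ₑ ^ p * ‖e.2 - e.1‖ₑ ^ p * volume (Tw Q k0))
    (hshort : ∀ e ∈ Ed Q k0 hk, e ∈ Sh → 2 ^ k0 * ‖e.2 - e.1‖ ≤ c0)
    (hcount : ∑' e : Ed Q k0 hk, ENNReal.ofReal (‖e.1.2 - e.1.1‖ ^ 3) ≤ c2 * volume (Q.N \ Q.Kc))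
    (hC1 : 512 * κ⁻¹ ^ 6 * A * c2 ≤ C1)
    (her : ENNReal.ofReal (512 * Ct κ * c0 ^ 2) *
      (∑' e : Ed Q k0 hk, Sh.indicator (fun e => ∫⁻ y in S e, ‖D y‖ₑ ^ p) e.1) ≤ er) :
    ENNReal.ofReal (‖L‖ ^ p / |L.det|) *
        (∑' e : Ed Q k0 hk, ENNReal.ofReal (‖L (e.1.2 - e.1.1)‖ ^ (3 - p)) *
          ∫⁻ w in Tw Q k0, ∫⁻ τ in Icc (0:ℝ) 1,
            ‖D (e.1.1 + w + τ • (e.1.2 - e.1.1)) (e.1.2 - e.1.1)‖ₑ ^ p) ≤
      ENNReal.ofReal (1 / 512) *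
        (ENNReal.ofReal (C1 * ‖L‖ ^ p) * volume (Q.N \ Q.Kc) + er) * volume (Tw Q k0) := by
  have hp0 : 0 < p := by linarith
  have hCt := Ct_pos hκ
  have hdet := det_ge hκ hL
  have hdet0 : 0 < |L.det| := lt_of_lt_of_le (by positivity) hdet
  have hki : 0 < κ⁻¹ := inv_pos.2 hκ
  rw [← ENNReal.tsum_mul_left]
  set J : R3 × R3 → ℝ≥0∞ := Sh.indicator (fun e => ∫⁻ y in S e, ‖D y‖ₑ ^ p) with hJ
  have h1 : ∀ e : Ed Q k0 hk, ENNReal.ofReal (‖L‖ ^ p / |L.det|) *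
      (ENNReal.ofReal (‖L (e.1.2 - e.1.1)‖ ^ (3 - p)) *
          ∫⁻ w in Tw Q k0, ∫⁻ τ in Icc (0:ℝ) 1,
            ‖D (e.1.1 + w + τ • (e.1.2 - e.1.1)) (e.1.2 - e.1.1)‖ₑ ^ p) ≤
      (ENNReal.ofReal (κ⁻¹ ^ 6 * A * ‖L‖ ^ p) * ENNReal.ofReal (‖e.1.2 - e.1.1‖ ^ 3) +
        ENNReal.ofReal (Ct κ * c0 ^ 2) * J e.1) * volume (Tw Q k0) := by
    intro e
    by_cases he : e.1 ∈ Sh
    · refine (term_le hp hp3 hκ cnd hL hL' (mS e.1 e.2 he) (hD e.1 e.2 he)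
        (ht e.1 e.2 he)).trans ?_
      refine mul_le_mul' ?_ le_rfl
      refine le_trans ?_ le_add_self
      rw [hJ, indicator_of_mem he]
      refine mul_le_mul' (ENNReal.ofReal_le_ofReal ?_) le_rfl
      have h2 := hshort e.1 e.2 he
      have h3 : ‖e.1.2 - e.1.1‖ ^ 2 * 4 ^ k0 ≤ c0 ^ 2 := by
        have h5 : ‖e.1.2 - e.1.1‖ ^ 2 * 4 ^ k0 = (2 ^ k0 * ‖e.1.2 - e.1.1‖) ^ 2 := by
          rw [mul_pow, ← pow_mul, mul_comm k0 2, pow_mul]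
          norm_num
          ring
        rw [h5]
        exact pow_le_pow_left₀ (by positivity) h2 2
      gcongr
    · rw [← mul_assoc]
      refine (mul_le_mul' le_rfl (hlong e.1 e.2 he)).trans ?_
      rw [← mul_assoc]
      refine mul_le_mul' ?_ le_rfl
      refine le_trans ?_ le_self_add
      set v : R3 := e.1.2 - e.1.1 with hv
      rcases eq_or_ne v 0 with h0 | h0
      · rw [h0, enorm_zero, ENNReal.zero_rpow_of_pos hp0, mul_zero, mul_zero]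
        exact zero_le
      have hvn : 0 < ‖v‖ := norm_pos_iff.2 h0
      have hLpos : 0 < ‖L‖ := by
        have h1 := (hL v).trans (L.le_opNorm v)
        have h2 : κ ≤ ‖L‖ := le_of_mul_le_mul_right h1 hvn
        linarith
      have e1 : ‖L‖ₑ ^ p = ENNReal.ofReal (‖L‖ ^ p) := by
        rw [← ofReal_norm, ENNReal.ofReal_rpow_of_nonneg (norm_nonneg _) hp0.le]
      have e2 : ‖v‖ₑ ^ p = ENNReal.ofReal (‖v‖ ^ p) := by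
        rw [← ofReal_norm, ENNReal.ofReal_rpow_of_nonneg (norm_nonneg _) hp0.le]
      rw [e1, e2, ← ENNReal.ofReal_mul (by positivity), ← ENNReal.ofReal_mul (by positivity),
        ← ENNReal.ofReal_mul (by positivity), ← ENNReal.ofReal_mul (by positivity),
        ← ENNReal.ofReal_mul (by positivity)]
      refine ENNReal.ofReal_le_ofReal ?_
      have h3 : ‖L v‖ ^ (3 - p) ≤ ‖L‖ ^ (3 - p) * ‖v‖ ^ (3 - p) := by
        rw [← Real.mul_rpow (norm_nonneg _) (norm_nonneg _)]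
        exact Real.rpow_le_rpow (norm_nonneg _) (L.le_opNorm v) (by linarith)
      have e3 : ‖L‖ ^ p * ‖L‖ ^ (3 - p) = ‖L‖ ^ 3 := by
        rw [← Real.rpow_add hLpos, ← Real.rpow_natCast]
        congr 1
        norm_num
      have e4 : ‖v‖ ^ (3 - p) * ‖v‖ ^ p = ‖v‖ ^ 3 := by
        rw [← Real.rpow_add hvn, ← Real.rpow_natCast]
        congr 1
        norm_num
      have h4 : ‖L‖ ^ 3 ≤ κ⁻¹ ^ 3 := by gcongr
      have h5 : ‖L‖ ^ 3 / |L.det| ≤ κ⁻¹ ^ 6 := by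
        rw [div_le_iff₀ hdet0]
        calc ‖L‖ ^ 3 ≤ κ⁻¹ ^ 3 := h4
          _ = κ⁻¹ ^ 6 * κ ^ 3 := by field_simp
          _ ≤ κ⁻¹ ^ 6 * |L.det| := by gcongr
      calc ‖L‖ ^ p / |L.det| * ‖L v‖ ^ (3 - p) * (A * ‖L‖ ^ p * ‖v‖ ^ p)
          ≤ ‖L‖ ^ p / |L.det| * (‖L‖ ^ (3 - p) * ‖v‖ ^ (3 - p)) * (A * ‖L‖ ^ p * ‖v‖ ^ p) := by
            gcongr
        _ = (‖L‖ ^ p * ‖L‖ ^ (3 - p)) / |L.det| * A * ‖L‖ ^ p * (‖v‖ ^ (3 - p) * ‖v‖ ^ p) := by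
            field_simp
        _ = ‖L‖ ^ 3 / |L.det| * A * ‖L‖ ^ p * ‖v‖ ^ 3 := by rw [e3, e4]
        _ ≤ κ⁻¹ ^ 6 * A * ‖L‖ ^ p * ‖v‖ ^ 3 := by gcongr
  refine (ENNReal.tsum_le_tsum h1).trans ?_
  rw [ENNReal.tsum_mul_right, ENNReal.tsum_add, ENNReal.tsum_mul_left, ENNReal.tsum_mul_left]
  refine mul_le_mul' ?_ le_rfl
  rw [mul_add]
  refine add_le_add ?_ ?_
  · calc ENNReal.ofReal (κ⁻¹ ^ 6 * A * ‖L‖ ^ p) *
          ∑' e : Ed Q k0 hk, ENNReal.ofReal (‖e.1.2 - e.1.1‖ ^ 3)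
        ≤ ENNReal.ofReal (κ⁻¹ ^ 6 * A * ‖L‖ ^ p) * (c2 * volume (Q.N \ Q.Kc)) :=
          mul_le_mul' le_rfl hcount
      _ = ENNReal.ofReal (κ⁻¹ ^ 6 * A * ‖L‖ ^ p * c2) * volume (Q.N \ Q.Kc) := by
          rw [ENNReal.ofReal_mul' c2.coe_nonneg, ENNReal.ofReal_coe_nnreal]
          ring
      _ ≤ ENNReal.ofReal (1 / 512 * (C1 * ‖L‖ ^ p)) * volume (Q.N \ Q.Kc) := by
          refine mul_le_mul' (ENNReal.ofReal_le_ofReal ?_) le_rfl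
          have h6 : 0 ≤ ‖L‖ ^ p := by positivity
          nlinarith
      _ = ENNReal.ofReal (1 / 512) * (ENNReal.ofReal (C1 * ‖L‖ ^ p) * volume (Q.N \ Q.Kc)) := by
          rw [ENNReal.ofReal_mul (by norm_num), mul_assoc]
  · calc ENNReal.ofReal (Ct κ * c0 ^ 2) * ∑' e : Ed Q k0 hk, J e.1
        = ENNReal.ofReal (1 / 512) * (ENNReal.ofReal (512 * Ct κ * c0 ^ 2) *
          ∑' e : Ed Q k0 hk, J e.1) := by
          rw [← mul_assoc, ← ENNReal.ofReal_mul (by norm_num)]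
          congr 2
          ring
      _ ≤ _ := mul_le_mul' le_rfl her

/-- the sum over the SHORT edges, incidence form -/
theorem sum_short (hk : Q.kc ≤ k0) (F : R3 × R3 → ℝ≥0∞) (Sh : Set (R3 × R3))
    {ι : Type*} (b : ι → ℝ≥0∞) (K : Finset ι) (Z : R3 × R3 → Finset ι) (m : ℕ)
    (hZ : ∀ e ∈ Ed Q k0 hk, e ∈ Sh → Z e ⊆ K)
    (hE : ∀ e ∈ Ed Q k0 hk, e ∈ Sh → F e ≤ ∑ k ∈ Z e, b k)
    (hm : ∀ k ∈ K, {e | e ∈ Ed Q k0 hk ∧ e ∈ Sh ∧ k ∈ Z e}.ncard ≤ m) :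
    ∑' e : Ed Q k0 hk, Sh.indicator F e.1 ≤ m * ∑ k ∈ K, b k := by
  classical
  have hfin := Tra_227.ed_finite Q k0 hk
  set E := hfin.toFinset with hEdef
  have h1 : ∑' e : Ed Q k0 hk, Sh.indicator F e.1 = ∑ e ∈ E, Sh.indicator F e := by
    have h2 : (Ed Q k0 hk) = (E : Set (R3 × R3)) := by rw [hEdef, hfin.coe_toFinset]
    rw [h2]
    exact E.tsum_subtype _
  rw [h1]
  calc ∑ e ∈ E, Sh.indicator F e
      ≤ ∑ e ∈ E, ∑ k ∈ K, (if e ∈ Sh ∧ k ∈ Z e then b k else 0) := by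
        refine Finset.sum_le_sum fun e he => ?_
        have he' : e ∈ Ed Q k0 hk := hfin.mem_toFinset.1 he
        by_cases hS : e ∈ Sh
        · rw [indicator_of_mem hS]
          refine (hE e he' hS).trans ?_
          rw [← Finset.sum_filter]
          refine Finset.sum_le_sum_of_subset fun k hk' => ?_
          exact Finset.mem_filter.2 ⟨hZ e he' hS hk', hS, hk'⟩
        · rw [indicator_of_notMem hS]
          exact zero_le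
    _ = ∑ k ∈ K, ∑ e ∈ E, (if e ∈ Sh ∧ k ∈ Z e then b k else 0) := Finset.sum_comm
    _ ≤ ∑ k ∈ K, m * b k := by
        refine Finset.sum_le_sum fun k hk' => ?_
        rw [← Finset.sum_filter, Finset.sum_const, nsmul_eq_mul]
        refine mul_le_mul' ?_ le_rfl
        have h3 : (E.filter fun e => e ∈ Sh ∧ k ∈ Z e).card ≤ m := by
          refine le_trans (le_of_eq ?_) (hm k hk')
          rw [← Set.ncard_coe_finset]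
          congr 1
          ext e
          simp [hEdef]
        exact_mod_cast h3
    _ = m * ∑ k ∈ K, b k := by rw [Finset.mul_sum]

/-- the points of the tube of an edge -/
theorem exists_near_seg {e : R3 × R3} {u : ℝ} (hu : 0 ≤ u) {z : R3}
    (hz : z ∈ w2 '' cthickening u (sE e)) : ∃ y ∈ segment ℝ e.1 e.2, ‖y - z‖ ≤ 2 * u := by
  obtain ⟨z', hz', rfl⟩ := hz
  have hne : (sE e).Nonempty :=
    ⟨_, She_227.mem_sE.2 (by rw [Homeomorph.apply_symm_apply]; exact left_mem_segment ℝ e.1 e.2)⟩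
  obtain ⟨y', hy', hd⟩ := (She_227.isCompact_sE e).exists_infDist_eq_dist hne z'
  have h1 : dist z' y' ≤ u := by
    rw [← hd]
    exact ENNReal.toReal_le_of_le_ofReal hu (mem_cthickening_iff.1 hz')
  refine ⟨w2 y', She_227.mem_sE.1 hy', ?_⟩
  have h2 : w2 y' - w2 z' = Crest.Agent.R96.En10_199.P3 (y' - z') := rfl
  rw [h2]
  refine (Crest.Agent.R096.Er_594.norm_P3_le _).trans ?_
  rw [← dist_eq_norm, dist_comm]
  gcongr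

/-- **(2b) for one block**: `c2`, `Λ`, `m` see `Bs`, `κ`, `N`, `dm` only.  `N` = width of the zone of the
SHORT edges, `dm / 2^k0` = size of the tiles at the SHORT edges. -/
theorem h2b_T (Bs : ℕ) {κ : ℝ} (hκ : 0 < κ) (N : ℕ) {dm : ℝ} (hdm : 0 ≤ dm) :
    ∃ (c2 : ℝ≥0) (Λ : ℝ) (m : ℕ), 0 < c2 ∧ 0 < Λ ∧
    ∀ {p : ℝ}, 1 ≤ p → p ≤ 2 → ∀ (Q : CB R3 3) (k0 : ℕ) (hk : Q.kc ≤ k0),
    (∀ v, κ / 4 * ‖v‖ ≤ ‖Q.ψ v‖ ∧ ‖Q.ψ v‖ ≤ 4 * κ⁻¹ * ‖v‖) →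
    (∀ i, ∀ p ∈ Q.S.GG i, ∀ l, |p.1 l| ≤ Bs) →
    (∀ i, i ≠ Q.S.core → ∀ v ∈ ZP (Q.S.GG i), ∀ w ∈ ZP (Q.S.GG i), ∀ l, |w l - v l| ≤ Bs) →
    ∀ {Om La : Set R3} {g : R3 → R3} {G₂ : Fin 3 → R3 → R3}, SH p Om La g G₂ →
    ∀ (L : R3 →L[ℝ] R3), (∀ v, κ * ‖v‖ ≤ ‖L v‖) → ‖L‖ ≤ κ⁻¹ →
    ∀ {u : ℝ}, u = 4 * κ⁻¹ / (5 * 2 ^ k0) →
    ∀ (Sh : Set (R3 × R3)), (∀ e ∈ Ed Q k0 hk, e ∈ Sh → ∃ y ∈ segment ℝ e.1 e.2, NW Q k0 N y) →
    (∀ e ∈ Ed Q k0 hk, e ∈ Sh → w2 '' cthickening u (sE e) ⊆ Om) →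
    ∀ {A C1 : ℝ}, 0 ≤ A →
    (∀ e ∈ Ed Q k0 hk, e ∉ Sh → ∫⁻ w in Tw Q k0, ∫⁻ τ in Icc (0:ℝ) 1,
      ‖Gmat G₂ (e.1 + w + τ • (e.2 - e.1)) (e.2 - e.1)‖ₑ ^ p ≤
        ENNReal.ofReal A * ‖L‖ₑ ^ p * ‖e.2 - e.1‖ₑ ^ p * volume (Tw Q k0)) →
    512 * κ⁻¹ ^ 6 * A * c2 ≤ C1 →
    ∀ {ι : Type*} (PP : ι → Set R3) (b : ι → ℝ≥0∞) (K : Finset ι) (Z : R3 × R3 → Finset ι)
      {er : ℝ≥0∞},
    (∀ e ∈ Ed Q k0 hk, e ∈ Sh → ∀ k ∈ Z e, k ∈ K ∧ (PP k ∩ w2 '' cthickening u (sE e)).Nonempty) →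
    (∀ k ∈ K, ∀ x ∈ PP k, ∀ y ∈ PP k, ‖x - y‖ ≤ dm / 2 ^ k0) →
    (∀ e ∈ Ed Q k0 hk, e ∈ Sh → ∫⁻ x in cthickening u (sE e), En p G₂ (w2 x) ≤ ∑ k ∈ Z e, b k) →
    ENNReal.ofReal (512 * Ct κ * Λ ^ 2) * (m * ∑ k ∈ K, b k) ≤ er →
    ENNReal.ofReal (‖L‖ ^ p / |L.det|) *
        (∑' e : Ed Q k0 hk, ENNReal.ofReal (‖L (e.1.2 - e.1.1)‖ ^ (3 - p)) *
          ∫⁻ w in Tw Q k0, ∫⁻ τ in Icc (0:ℝ) 1,
            ‖Gmat G₂ (e.1.1 + w + τ • (e.1.2 - e.1.1)) (e.1.2 - e.1.1)‖ₑ ^ p) ≤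
      ENNReal.ofReal (1 / 512) *
        (ENNReal.ofReal (C1 * ‖L‖ ^ p) * volume (Q.N \ Q.Kc) + er) * volume (Tw Q k0) := by
  obtain ⟨c2, hc2, hcnt⟩ := Cnt_726.count3 Bs hκ
  have hki : 0 < κ⁻¹ := inv_pos.2 hκ
  obtain ⟨Λ, m, hΛ, hgeo⟩ := geo_short Bs hκ N (ρ := dm + 2 * (4 * κ⁻¹ / 5)) (by positivity)
  refine ⟨c2, Λ, m, hc2, hΛ, ?_⟩
  intro p hp hp2 Q k0 hk cnd hB hR Om La g G₂ hg L hL hL' u hu Sh hSh hO A C1 hA hlong hC1 ι PP b K Z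
    er hZ hdia hE her
  have hp0 : 0 < p := by linarith
  have hu0 : 0 < u := by rw [hu]; positivity
  obtain ⟨g1, g2⟩ := hgeo Q k0 hk cnd hB hR
  set S : R3 × R3 → Set R3 := fun e => w2 '' cthickening u (sE e) with hS
  have hG : AEStronglyMeasurable (Gmat G₂) (volume.restrict Om) :=
    Crest.Agent.R96.Lu_538.aesm_Gmat fun j => (hg.memG j).1
  have hEn : ∀ e, ∫⁻ y in S e, ‖Gmat G₂ y‖ₑ ^ p ≤ ∫⁻ x in cthickening u (sE e), En p G₂ (w2 x) := by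
    intro e
    refine (lintegral_mono fun y => gmat_le_En hp0 hp2 G₂ y).trans (le_of_eq ?_)
    rw [hS, Sq_55.lint_w2, preimage_image_eq _ w2.injective]
  refine h2b_line hk hp (by linarith) hκ cnd hL hL' S Sh (fun e _ _ => measurableSet_tube u _ _)
    (fun e he hs => hG.mono_measure (Measure.restrict_mono (hO e he hs) le_rfl))
    (fun e he hs => seg_add_Tw hκ (fun v => (cnd v).1) hu.ge e.1 (e.2 - e.1))
    (c0 := Λ) (c2 := c2) hA hlong ?_ (hcnt Q k0 hk cnd hB hR) hC1 ?_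
  · intro e he hs
    obtain ⟨y, hy, hy2⟩ := hSh e he hs
    exact g1 e he y hy hy2
  refine le_trans (mul_le_mul' le_rfl ?_) her
  refine sum_short hk _ Sh b K Z m (fun e he hs k hk' => (hZ e he hs k hk').1)
    (fun e he hs => (hEn e).trans (hE e he hs)) ?_
  intro k hkK
  by_cases hemp : {e | e ∈ Ed Q k0 hk ∧ e ∈ Sh ∧ k ∈ Z e} = ∅
  · rw [hemp, ncard_empty]; exact Nat.zero_le _
  obtain ⟨e0, he0, hs0, hk0⟩ := nonempty_iff_ne_empty.2 hemp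
  obtain ⟨y0, hy0, -⟩ := (hZ e0 he0 hs0 k hk0).2
  refine (ncard_le_ncard ?_ (g2 y0).1).trans (g2 y0).2
  rintro e ⟨he, hs, hke⟩
  refine ⟨he, hSh e he hs, ?_⟩
  obtain ⟨z, hz1, hz2⟩ := (hZ e he hs k hke).2
  obtain ⟨y, hy, hyz⟩ := exists_near_seg hu0.le hz2
  refine ⟨y, hy, ?_⟩
  have h1 := hdia k hkK z hz1 y0 hy0
  have e1 : y - y0 = (y - z) + (z - y0) := by abel
  rw [e1]
  refine (norm_add_le _ _).trans ?_
  rw [add_div, hu] at *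
  have e2 : 2 * (4 * κ⁻¹ / (5 * 2 ^ k0)) = 2 * (4 * κ⁻¹ / 5) / 2 ^ k0 := by
    field_simp
  rw [e2] at hyz
  linarith

end

end Crest.Agent.R096.Hb_82
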