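import Crest.Agent.R096.Lnk1_726
import Crest.Agent.R096.Gsc3_476
import Crest.Agent.R096.Hb3_82

/-!
Row 96 (S0127), helper726.  **[LNK]**, second part: the SHORT edges of a block of `h.T a`.
`lnk1`: an edge of the block whose tube meets a tile which is not deep has a point near the wall;
`lnk2`: the tiles which meet the tube of such an edge are near the wall; `scl_ge_near`, `lnk3`:
these tiles are small.
-/

set_option autoImplicit false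
set_option linter.unusedSectionVars false

open Set Metric Topology Filter

namespace Crest.Agent.R096.Lnk_726

open Crest.AnalysisR.VecCalc3 Crest.AnalysisR.Sobolev
open Crest.Agent.R096.Msh_715 Crest.Agent.R096.Mal_874
open Crest.Agent.R096.Gsc_476 Crest.Agent.R096.Sht_726
open Crest.Agent.R096.Ca_855
open Crest.Agent.R096.Ca_855.MIn (BQ)
open Crest.Agent.R096.Pin_753 (Ed)
open Crest.Agent.R96.En10_199 (P3)
open Crest.Agent.R096.Sq_55 (w2)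
open Crest.Agent.R096.She_227 (sE)
open Crest.Agent.R096.Hb_82 (exists_near_seg)

/-- a point near the wall is in the zone -/
theorem NW_of_frontier {Q : CB R3 3} {k N : ℕ} {w y : R3} (hw : w ∈ frontier Q.N) {r : ℝ}
    (h : ‖Q.ψ y - Q.ψ w‖ ≤ r / 2 ^ k) (hr : r ≤ 6 * 2 ^ N) : NW Q k N y := by
  rw [Q.frontier_N] at hw
  have h1 : infDist (Q.ψ y) Q.W ≤ dist (Q.ψ y) (Q.ψ w) := infDist_le_dist_of_mem hw
  rw [dist_eq_norm] at h1
  exact h1.trans (h.trans (div_le_div_of_nonneg_right hr (by positivity)))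

theorem exists_pow (r : ℝ) : ∃ N : ℕ, r ≤ 6 * 2 ^ N := by
  obtain ⟨N, hN⟩ := pow_unbounded_of_one_lt r (by norm_num : (1 : ℝ) < 2)
  exact ⟨N, by nlinarith [show (0 : ℝ) < 2 ^ N by positivity]⟩

theorem Ed_sub {Q : CB R3 3} {k : ℕ} {hk : Q.kc ≤ k} {e : R3 × R3} (he : e ∈ Ed Q k hk) :
    segment ℝ e.1 e.2 ⊆ Q.N := by
  obtain ⟨x, -, -, h⟩ := he
  exact h

/-- a segment which leaves the block meets the wall -/
theorem exists_cross {N : Set R3} {y z : R3} (hy : y ∈ N) (hz : z ∉ N) :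
    ∃ w ∈ frontier N, w ∈ segment ℝ y z := by
  have hS : IsPreconnected (segment ℝ y z) := (convex_segment y z).isPreconnected
  by_contra hcon
  push Not at hcon
  have h1 : segment ℝ y z ⊆ interior N ∪ (closure N)ᶜ := by
    intro w hw
    by_cases h : w ∈ closure N
    · exact Or.inl (by
        by_contra h2
        exact hcon w ⟨h, h2⟩ hw)
    · exact Or.inr h
  obtain ⟨w, hw, h2, h3⟩ := hS _ _ isOpen_interior isClosed_closure.isOpen_compl h1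
    ⟨y, left_mem_segment ℝ y z,
      (h1 (left_mem_segment ℝ y z)).resolve_right fun h => h (subset_closure hy)⟩
    ⟨z, right_mem_segment ℝ y z,
      (h1 (right_mem_segment ℝ y z)).resolve_left fun h => hz (interior_subset h)⟩
  exact h3 (subset_closure (interior_subset h2))

theorem norm_segment_le {y z w : R3} (hw : w ∈ segment ℝ y z) : ‖y - w‖ ≤ ‖y - z‖ := by
  rw [segment_eq_image'] at hw
  obtain ⟨t, ht, rfl⟩ := hw
  simp only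
  rw [sub_add_cancel_left, norm_neg, norm_smul, Real.norm_eq_abs, abs_of_nonneg ht.1, norm_sub_rev z y]
  nlinarith [ht.2, norm_nonneg (y - z)]

/-- **(LNK-1)**: an edge whose tube meets a tile which is not deep has a point near the wall -/
theorem lnk1 {κ : ℝ} (hκ : 0 < κ) (K1 : ℕ) {cz : ℝ} (hcz : 0 ≤ cz) : ∃ N : ℕ,
    ∀ {Om W : Set R3} {ρ₀ : R3 → ℝ} {J : Type} [Finite J]
      {Qb : J → CB R3 3} {k0 Bs Nn : ℕ} {σ : ℝ} (h : MIn Om W ρ₀ Qb k0 σ) {a : R3}, ‖a‖ ≤ σ / 8 →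
      ∀ (j : J), BQ κ Bs Nn (Qb j) k0 → (Qb j).kc + K1 < k0 →
      ∀ {e : R3 × R3}, e ∈ Ed ((Qb j).tr a) k0 (h.hk j) → ∀ (t : h.ιT a),
      (P ((h.T a).H t) ∩ w2 '' cthickening (cz / 2 ^ k0) (sE e)).Nonempty →
      ¬ (P ((h.T a).H t) ⊆ ((Qb j).tr a).N ∧ sclT h a t + K1 ≤ k0) →
      ∃ y ∈ segment ℝ e.1 e.2, NW ((Qb j).tr a) k0 N y := by
  obtain ⟨N, hN⟩ := exists_pow (14 * 2 ^ K1 + 8 * κ⁻¹ + 8 * κ⁻¹ * cz)
  have hi : 0 < κ⁻¹ := inv_pos.2 hκ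
  refine ⟨N, ?_⟩
  intro Om W ρ₀ J _ Qb k0 Bs Nn σ h a ha j hb hK e he t hmeet hdeep
  obtain ⟨z, hzP, hzT⟩ := hmeet
  obtain ⟨y, hy, hyz⟩ := exists_near_seg (u := cz / 2 ^ k0) (by positivity) hzT
  have hψ : ‖((Qb j).tr a).ψ y - ((Qb j).tr a).ψ z‖ ≤ (8 * κ⁻¹ * cz) / 2 ^ k0 := by
    rw [← map_sub]
    refine ((hb.cnd (y - z)).2).trans ?_
    calc 4 * κ⁻¹ * ‖y - z‖ ≤ 4 * κ⁻¹ * (2 * (cz / 2 ^ k0)) := by gcongr
      _ = _ := by ring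
  have h2K : (0 : ℝ) < 2 ^ K1 := by positivity
  have hcz' : 0 ≤ κ⁻¹ * cz := by positivity
  have hyN : y ∈ ((Qb j).tr a).N := Ed_sub he hy
  refine ⟨y, hy, ?_⟩
  -- from a wall point near `z`
  have key : ∀ w ∈ frontier ((Qb j).tr a).N, ∀ r : ℝ, r ≤ 14 * 2 ^ K1 + 8 * κ⁻¹ →
      ‖((Qb j).tr a).ψ z - ((Qb j).tr a).ψ w‖ ≤ r / 2 ^ k0 → NW ((Qb j).tr a) k0 N y := by
    intro w hw r hr hzw
    refine NW_of_frontier hw (r := r + 8 * κ⁻¹ * cz) ?_ (by linarith)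
    rw [add_div]
    refine (norm_sub_le_norm_sub_add_norm_sub _ (((Qb j).tr a).ψ z) _).trans ?_
    linarith
  by_cases hN1 : P ((h.T a).H t) ⊆ ((Qb j).tr a).N
  · have h1 : k0 ≤ sclT h a t + K1 := by
      by_contra hcon
      exact hdeep ⟨hN1, by omega⟩
    obtain ⟨w, hw, hzw⟩ := near_wallT h ha hN1 h1 hK hzP
    exact key w hw _ (by linarith) hzw
  · by_cases hzN : z ∈ ((Qb j).tr a).N
    · obtain ⟨w, hw, hzw⟩ := near_wall_outT' h ha hκ hb hN1 ⟨z, hzP, hzN⟩ hzP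
      exact key w hw _ (by linarith) hzw
    · obtain ⟨w, hw, hwz⟩ := exists_cross hyN hzN
      refine NW_of_frontier hw (r := 8 * κ⁻¹ * cz) ?_ (by linarith)
      rw [← map_sub]
      refine ((hb.cnd (y - w)).2).trans ?_
      calc 4 * κ⁻¹ * ‖y - w‖ ≤ 4 * κ⁻¹ * (2 * (cz / 2 ^ k0)) := by
            gcongr
            exact (norm_segment_le hwz).trans hyz
        _ = _ := by ring

/-- **(LNK-2)**: the tube of a SHORT edge is in the wall zone -/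
theorem lnk2 {κ : ℝ} (hκ : 0 < κ) {Q : CB R3 3} {k0 : ℕ}
    (hb : ∀ v, κ / 4 * ‖v‖ ≤ ‖Q.ψ v‖ ∧ ‖Q.ψ v‖ ≤ 4 * κ⁻¹ * ‖v‖) {e : R3 × R3} {cz : ℝ}
    (hcz : 0 ≤ cz) {Λ : ℝ}
    (hlen : 2 ^ k0 * ‖e.2 - e.1‖ ≤ Λ) {N : ℕ} {y : R3} (hy : y ∈ segment ℝ e.1 e.2)
    (hNW : NW Q k0 N y) {z : R3} (hz : z ∈ w2 '' cthickening (cz / 2 ^ k0) (sE e)) :
    ∃ w ∈ frontier Q.N, ‖Q.ψ z - Q.ψ w‖ ≤ (6 * 2 ^ N + 4 * κ⁻¹ * (Λ + 2 * cz)) / 2 ^ k0 := by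
  have hi : 0 < κ⁻¹ := inv_pos.2 hκ
  obtain ⟨y', hy', hyz⟩ := exists_near_seg (u := cz / 2 ^ k0) (by positivity) hz
  obtain ⟨w, hw, hyw⟩ := exists_wall Q (x := y) hNW
  refine ⟨w, hw, ?_⟩
  have h1 : ‖y' - y‖ ≤ ‖e.2 - e.1‖ := by
    rw [segment_eq_image'] at hy hy'
    obtain ⟨s, hs, rfl⟩ := hy
    obtain ⟨s', hs', rfl⟩ := hy'
    simp only
    rw [add_sub_add_left_eq_sub, ← sub_smul, norm_smul, Real.norm_eq_abs]
    have : |s' - s| ≤ 1 := by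
      rw [abs_le]
      constructor <;> linarith [hs.1, hs.2, hs'.1, hs'.2]
    nlinarith [norm_nonneg (e.2 - e.1)]
  have h2 : ‖e.2 - e.1‖ ≤ Λ / 2 ^ k0 := by
    rw [le_div_iff₀ (by positivity), mul_comm]
    exact hlen
  have h3 : ‖z - y‖ ≤ Λ / 2 ^ k0 + 2 * (cz / 2 ^ k0) := by
    have e1 : z - y = (y' - y) - (y' - z) := by abel
    rw [e1]
    refine (norm_sub_le _ _).trans ?_
    linarith
  have h4 : ‖Q.ψ z - Q.ψ y‖ ≤ 4 * κ⁻¹ * (Λ / 2 ^ k0 + 2 * (cz / 2 ^ k0)) := by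
    rw [← map_sub]
    exact ((hb _).2).trans (mul_le_mul_of_nonneg_left h3 (by positivity))
  calc ‖Q.ψ z - Q.ψ w‖ ≤ ‖Q.ψ z - Q.ψ y‖ + ‖Q.ψ y - Q.ψ w‖ := norm_sub_le_norm_sub_add_norm_sub _ _ _
    _ ≤ 4 * κ⁻¹ * (Λ / 2 ^ k0 + 2 * (cz / 2 ^ k0)) + 6 * 2 ^ N / 2 ^ k0 := add_le_add h4 hyw
    _ = _ := by ring

section T

variable {κ : ℝ} {Bs : ℕ} {Om W : Set R3} {ρ₀ : R3 → ℝ} {J : Type} [Finite J]
  {Qb : J → CB R3 3} {k0 Nn : ℕ} {σ : ℝ}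

/-- the outer tiles have scale at least `k0` -/
theorem scl_out_ge (h : MIn Om W ρ₀ Qb k0 σ) {a : R3} (ha : ‖a‖ ≤ σ / 8) {t : h.ιT a}
    (ht : ∀ j, ¬ P ((h.T a).H t) ⊆ ((Qb j).tr a).N) : k0 ≤ sclT h a t := by
  rcases outer_orT h ha t with ⟨p, hp, rfl⟩ | ⟨l, hl⟩
  · obtain ⟨x, hx⟩ := (h.M.mesh h.sc (0 + h.M.φ (h.cl a)) (h.adm a)).ne (Sum.inl p)
    have hx' : x ∈ P ((h.M.ad h.sc (0 + h.M.φ (h.cl a)) (h.adm a)).T0.H p.1.par) :=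
      Crest.Agent.R096.Cut_874.cut_tile_sub (hA := AF_ne) p.1 (I_sub_P _ hx)
    have h2 : (h.M.φ x) ∈ p.1.par.1.c := by
      have := Crest.Agent.R096.Msh_810.mem_at.1 (show p.1.par ∈ (Crest.Agent.R096.Msh_810.tiling h.M.φ
        (outD h.M.D0 (fun _ => k0) h.M.W (0 + h.M.φ (h.cl a)))).at_ x from hx')
      exact this
    have h3 := p.1.par.1.2.lower h2
    have h4 := outD_le_ρ0 (D0 := h.M.D0) (k := fun _ => k0) (W := h.M.W)
      (a := 0 + h.M.φ (h.cl a)) (h.M.φ x)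
    have h5 : h.M.D0.ρ (h.M.φ x) ≤ 6 / 2 ^ k0 := min_le_right _ _
    have hpos : (0 : ℝ) < 2 ^ p.1.par.1.1.k := by positivity
    have h6 : (6 : ℝ) ≤ 2 ^ p.1.par.1.1.k * (6 / 2 ^ k0) :=
      (show (6 : ℝ) ≤ _ from h3).trans (mul_le_mul_of_nonneg_left (h4.trans h5) hpos.le)
    have h7 : (2 : ℝ) ^ k0 ≤ 2 ^ p.1.par.1.1.k := by
      rw [mul_div_assoc', le_div_iff₀ (by positivity)] at h6
      linarith
    exact (pow_le_pow_iff_right₀ (by norm_num : (1 : ℝ) < 2)).1 h7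
  · exact absurd hl (ht l)

/-- the scale of a tile of a block is the scale of the block at its points -/
theorem sclT_K (h : MIn Om W ρ₀ Qb k0 σ) {a : R3} (ha : ‖a‖ ≤ σ / 8) {j : J} {t : h.ιT a}
    (hN : P ((h.T a).H t) ⊆ ((Qb j).tr a).N) {x : R3} (hx : x ∈ P ((h.T a).H t)) :
    sclT h a t ≤ KQ ((Qb j).tr a) k0 (h.hk j) x ∧
      KQ ((Qb j).tr a) k0 (h.hk j) x ≤ sclT h a t + 1 := by
  have eN := Bk_eq h ha j
  have h1 := scl_K h.M h.sc (0 + h.M.φ (h.cl a)) (h.adm a) (j := j) (t := t)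
    (by rw [eN]; exact hN) hx
  rw! (castMode := .all) [eN] at h1
  exact h1

end T

/-- **(LNK-3)**: the tiles near the wall of a block (inner and outer) are small -/
theorem lnk3 {κ : ℝ} (hκ : 0 < κ) (Bs : ℕ) (Rl : ℝ) : ∃ (N : ℕ) (dm : ℝ), 0 ≤ dm ∧
    ∀ {Om W : Set R3} {ρ₀ : R3 → ℝ} {J : Type} [Finite J]
      {Qb : J → CB R3 3} {k0 Nn : ℕ} {σ : ℝ} (h : MIn Om W ρ₀ Qb k0 σ) {a : R3}, ‖a‖ ≤ σ / 8 →
      ∀ (j : J), BQ κ Bs Nn (Qb j) k0 → 4 * κ⁻¹ * Rl / 2 ^ k0 < σ → ∀ t : h.ιT a,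
      (∃ y ∈ P ((h.T a).H t), ∃ z ∈ frontier ((Qb j).tr a).N,
        ‖(Qb j).ψ y - (Qb j).ψ z‖ ≤ Rl / 2 ^ k0) →
      k0 ≤ sclT h a t + N ∧
        ∀ x ∈ P ((h.T a).H t), ∀ y ∈ P ((h.T a).H t), ‖x - y‖ ≤ dm / 2 ^ k0 := by
  obtain ⟨N, hN⟩ := exists_pow Rl
  have hi : 0 < κ⁻¹ := inv_pos.2 hκ
  refine ⟨N + 1, 2 + 4 * κ⁻¹ * (max 1 (Bs:ℝ) * 2 ^ (N + 1)), by positivity, ?_⟩
  intro Om W ρ₀ J _ Qb k0 Nn σ h a ha j hb hσ t hz
  obtain ⟨y0, hy0, z0, hz0, hyz⟩ := hz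
  rcases outer_orT h ha t with ⟨p, hp, rfl⟩ | ⟨l, hl⟩
  · have hno : ∀ j, ¬ P ((h.T a).H (Sum.inl ⟨Sum.inl p, hp⟩)) ⊆ ((Qb j).tr a).N := by
      intro j hj
      rw [← Bk_eq h ha j] at hj
      exact not_outer h.M h.sc (0 + h.M.φ (h.cl a)) (h.adm a) (h := hp) hj
    have h1 := scl_out_ge h ha hno
    refine ⟨h1.trans (by omega), fun x hx y hy => (diam_outT h ha hno hx hy).trans ?_⟩
    have h2 : (2 : ℝ) ^ k0 ≤ 2 ^ sclT h a (Sum.inl ⟨Sum.inl p, hp⟩) :=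
      pow_le_pow_right₀ (by norm_num) h1
    have h3 : (0 : ℝ) ≤ 4 * κ⁻¹ * (max 1 (Bs:ℝ) * 2 ^ (N + 1)) := by positivity
    have h4 : (0 : ℝ) < 2 ^ k0 := by positivity
    rw [div_le_div_iff₀ (by positivity) h4]
    nlinarith [mul_nonneg h3 (h4.le.trans h2)]
  · obtain rfl : j = l := by
      by_contra hne
      have h1 := sep_T h hne (((Qb j).tr a).frontier_sub hz0) (hl hy0)
      have h2 : dist z0 y0 ≤ 4 * κ⁻¹ * Rl / 2 ^ k0 := by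
        rw [dist_comm, dist_eq_norm]
        refine (hb.ψ2 hκ _).trans ?_
        rw [map_sub, mul_div_assoc]
        exact mul_le_mul_of_nonneg_left hyz (by positivity)
      linarith
    have hNW : NW ((Qb j).tr a) k0 N y0 := NW_of_frontier hz0 hyz hN
    have h1 := KQ_ge ((Qb j).tr a) (h.hk j) hNW
    have h2 := (sclT_K h ha hl hy0).2
    have h3 : k0 ≤ sclT h a t + (N + 1) := by omega
    refine ⟨h3, fun x hx y hy => (hb.ψ2 hκ _).trans ?_⟩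
    have h4 := diam_inT h ha hb hl hx hy
    rw [← map_sub] at h4
    have h5 : (2 : ℝ) ^ k0 ≤ 2 ^ sclT h a t * 2 ^ (N + 1) := by
      rw [← pow_add]
      exact pow_le_pow_right₀ (by norm_num) h3
    have h6 : max 1 (Bs:ℝ) / 2 ^ sclT h a t ≤ max 1 (Bs:ℝ) * 2 ^ (N + 1) / 2 ^ k0 := by
      rw [div_le_div_iff₀ (by positivity) (by positivity)]
      calc max 1 (Bs:ℝ) * 2 ^ k0 ≤ max 1 (Bs:ℝ) * (2 ^ sclT h a t * 2 ^ (N + 1)) := by gcongr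
        _ = _ := by ring
    calc 4 * κ⁻¹ * ‖(Qb j).ψ (x - y)‖ ≤ 4 * κ⁻¹ * (max 1 (Bs:ℝ) * 2 ^ (N + 1) / 2 ^ k0) :=
          mul_le_mul_of_nonneg_left (h4.trans h6) (by positivity)
      _ = 4 * κ⁻¹ * (max 1 (Bs:ℝ) * 2 ^ (N + 1)) / 2 ^ k0 := by ring
      _ ≤ _ := div_le_div_of_nonneg_right (by linarith) (by positivity)

end Crest.Agent.R096.Lnk_726
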