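import Crest.Agent.R096.Ou1_372
import Crest.Agent.R096.Cob8_622

/-!
Row 96 (S0127), helper372.  (OU) of 753 #11736, part 2: the `Ly` clause and the last clause of `OutP` for
the output of 622's `cob_main` over 296's `SysOf (Te T)`, `T : Tiling Om ι` in `R3`.
-/

set_option autoImplicit false
set_option linter.style.longLine false
set_option linter.unusedSectionVars false

open MeasureTheory Set Filter Topology Metric
open scoped ENNReal NNReal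

namespace Crest.Agent.R096.Ou_372

open Crest.AnalysisR.VecCalc3 Crest.AnalysisR.Sobolev
open Crest.Agent.R096.Msh_715 (Tiling P I)
open Crest.Agent.R096.Mal_874 (CB)
open Crest.Agent.R096.Br_695 (En)
open Crest.Agent.R096.Pin_753
open Crest.Agent.R96.Intr_538 (cel)
open Crest.Agent.R96.Coarse_538 (vt Cb mem_cel)
open Crest.Agent.R096.Sq_55 (E3 Sys Face FaceOf w2 lint_w2)
open Crest.Agent.R096.Cob_622 (EF)
open Crest.Agent.R096.Efi_296 (Te reps)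
open Crest.Agent.R096.Cbs_296 (SysOf)
open Crest.Agent.R96.En10_199 (P3)

noncomputable section

/-! ### small things -/

/-- choice of the error of `cob_main` -/
theorem exists_eps (n : ℕ) {e : ℝ} (he : 0 < e) :
    ∃ ε : ℝ≥0∞, ε ≠ 0 ∧ ε ≠ ∞ ∧ ((n : ℝ≥0∞) + 1) * ε ≤ ENNReal.ofReal e := by
  have h1 : (0 : ℝ) < n + 1 := by positivity
  refine ⟨ENNReal.ofReal (e / (n + 1)), ?_, ENNReal.ofReal_ne_top, le_of_eq ?_⟩
  · rw [Ne, ENNReal.ofReal_eq_zero, not_le]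
    positivity
  · have e1 : ((n : ℝ≥0∞) + 1) = ENNReal.ofReal (n + 1) := by
      rw [ENNReal.ofReal_add (Nat.cast_nonneg n) zero_le_one, ENNReal.ofReal_natCast,
        ENNReal.ofReal_one]
    rw [e1, ← ENNReal.ofReal_mul h1.le, mul_div_cancel₀ _ h1.ne']

/-- the layer of a block in a good cube lies in the cube -/
theorem ly_sub_cel {κ s τ θ0 ra : ℝ} {k0 : ℕ} {z0 a : R3} {Q : CB R3 3} (hs : 0 < s) (hκ : 0 < κ)
    (hτ : τ < 1) (hb : ∀ v, κ / 4 * ‖v‖ ≤ ‖Q.ψ v‖) (h2 : 1 / 2 ^ k0 ≤ θ0 * s) (ha : ‖a‖ ≤ ra * s)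
    (hnum : ra + 160 * κ⁻¹ * θ0 ≤ τ) (hsub : Q.N ⊆ cel Cb z0 ((1 - τ) * s)) :
    Ly (Q.tr a) k0 ⊆ cel Cb z0 s := by
  rintro y ⟨z, hz, h⟩
  have h1 : z - a ∈ Q.N := (Q.mem_N_tr a z).1 ((Q.tr a).frontier_sub hz)
  have h3 := hsub h1
  rw [mem_cel (mul_pos (by linarith) hs)] at h3
  rw [mem_cel hs]
  have h6 := ly_near (Q := Q.tr a) hκ hb h2 (by norm_num) h
  intro i
  have h4 : |(y - (z - a)) i| ≤ ‖y - (z - a)‖ := by
    have := EuclideanSpace.norm_eq (y - (z - a))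
    rw [this]
    refine Real.abs_le_sqrt ?_
    have h7 := Finset.single_le_sum (f := fun i => ‖(y - (z - a)) i‖ ^ 2)
      (fun i _ => sq_nonneg _) (Finset.mem_univ i)
    simpa using h7
  have h5 : ‖y - (z - a)‖ ≤ dist y z + ‖a‖ := by
    have e : y - (z - a) = (y - z) + a := by abel
    rw [e, dist_eq_norm]
    exact norm_add_le _ _
  have h7 := h3 i
  have e1 : y i - z0 i = (y - (z - a)) i + ((z - a) i - z0 i) := by
    simp only [PiLp.sub_apply]; ring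
  rw [e1]
  refine (abs_add_le _ _).trans ?_
  have h8 : (ra + 160 * κ⁻¹ * θ0) * s ≤ τ * s := mul_le_mul_of_nonneg_right hnum hs.le
  have e2 : 4 * 40 * κ⁻¹ * θ0 * s = 160 * κ⁻¹ * θ0 * s := by ring
  rw [e2] at h6
  nlinarith

/-! ### tiles of the system -/

section sys

variable {p : ℝ} {Om : Set R3} {ι : Type*} {T : Tiling Om ι} {s : Finset ι}
  {pr : (Te T).Cell → Prop} {c : ι → E3} {R : ι → ℝ≥0} {ρ : E3 → ℝ≥0} {m : ι → ℝ≥0}
  {X : Sys s (reps (Te T) s pr)} {α β : Type*} [Fintype α] [Fintype β] {G G₂ : Fin 3 → R3 → R3}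

theorem mem_P_Te {i : ι} {y : E3} : y ∈ P ((Te T).H i) ↔ w2 y ∈ P (T.H i) :=
  Ttr_622.mem_P_tr (P3.symm : R3 ≃L[ℝ] E3) T

/-- the integral over a tile of `Te T` -/
theorem lint_tile (i : ι) (F : R3 → ℝ≥0∞) :
    ∫⁻ x in P ((Te T).H i), F (w2 x) = ∫⁻ x in P (T.H i), F x := by
  rw [lint_w2 (P (T.H i)) F]
  have e : P ((Te T).H i) = w2 ⁻¹' P (T.H i) := by
    ext y; exact mem_P_Te
  rw [e]

theorem mem_cells (h : SysOf (Te T) s pr c R ρ m X) {x : R3} :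
    x ∈ w2 '' (⋃ k, (X.C k).P) ↔ ∃ k : s, x ∈ P (T.H k) := by
  constructor
  · rintro ⟨y, hy, rfl⟩
    obtain ⟨k, hk⟩ := mem_iUnion.1 hy
    rw [h.eP k, mem_P_Te] at hk
    exact ⟨k, hk⟩
  · rintro ⟨k, hk⟩
    refine ⟨w2.symm x, mem_iUnion.2 ⟨k, ?_⟩, w2.apply_symm_apply x⟩
    rw [h.eP k, mem_P_Te, w2.apply_symm_apply]
    exact hk

/-- the constant of the last clause of `OutP` -/
def Cout (p : ℝ) (K Cu : ℝ≥0) : ℝ≥0 := 1 + ((6:ℝ) ^ p * (3 * (9 * K) ^ p)).toNNReal + Cu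

/-- **the last clause of `OutP`** from `cob_main`; `s₁` = the tiles which are not inside a block `j` with
`kk j ∈ Q` -/
theorem ou_clause (h : SysOf (Te T) s pr c R ρ m X) (D : EF X Om (En p G) α β) {K Cu : ℝ≥0}
    {ε : ℝ≥0∞} (hOm : MeasurableSet Om)
    (out : ∀ S : Set R3, MeasurableSet S → S ⊆ Om → (∀ x ∈ S, x ∉ w2 '' (⋃ k, (X.C k).P)) →
      ∫⁻ x in S, En p G₂ x ≤
        ENNReal.ofReal ((6:ℝ)^p * (3 * (9 * K)^p)) * (∫⁻ x in S, En p G x) + ε)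
    (cells : ∀ k, (p < 2 ∨ ∀ j, ¬ ((X.F j).V ∩ (X.C k).P).Nonempty) →
      ∫⁻ x in (X.C k).P, En p G₂ (w2 x) ≤ ENNReal.ofReal (Cob_622.CB p K (X.m k)) * D.J k + ε)
    {J : Type*} [Finite J] {kk : J → Fin 3 → ℤ} {Qb : J → CB R3 3} {Q : Finset (Fin 3 → ℤ)} {a : R3}
    (s₁ : Finset s) (hs₁ : ∀ k : s, k ∈ s₁ ∨ ∃ j, kk j ∈ Q ∧ P (T.H k) ⊆ ((Qb j).tr a).N)
    (hsq : ∀ k ∈ s₁, p < 2 ∨ ∀ j, ¬ ((X.F j).V ∩ (X.C k).P).Nonempty) {e : ℝ} (he : 0 ≤ e)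
    (hi : ∑ k ∈ s₁, ENNReal.ofReal (Cob_622.CB p K (X.m k)) * D.J k ≤
      Cu * (∫⁻ x in Om \ ⋃ j ∈ {j | kk j ∈ Q}, ((Qb j).tr a).Kc, En p G x) +
        ENNReal.ofReal (e / 2))
    (hε : ((s.card : ℝ≥0∞) + 1) * ε ≤ ENNReal.ofReal (e / 2)) :
    (∫⁻ x in Om \ ⋃ j ∈ {j | kk j ∈ Q}, ((Qb j).tr a).N, (1 + En p G₂ x)) ≤
      (Cout p K Cu : ℝ≥0∞) * (∫⁻ x in Om \ ⋃ j ∈ {j | kk j ∈ Q}, ((Qb j).tr a).Kc, (1 + En p G x)) +
        ENNReal.ofReal e := by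
  classical
  have h1 := out_le (Om := Om) (Pc := fun k : s => P (T.H k)) (e1 := En p G) (e2 := En p G₂)
    (Jf := fun k : s => ENNReal.ofReal (Cob_622.CB p K (X.m k)) * D.J k)
    (C₀ := ENNReal.ofReal ((6:ℝ)^p * (3 * (9 * K)^p))) (Cu := Cu) (ε' := ε)
    (e₀ := ENNReal.ofReal (e / 2)) (pJ := fun j => kk j ∈ Q) (N := fun j => ((Qb j).tr a).N)
    (Kc := fun j => ((Qb j).tr a).Kc) Finset.univ s₁ hOm
    (fun k _ => (Msh_715.isClosed_P _).measurableSet)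
    ((Set.toFinite {j | kk j ∈ Q}).measurableSet_biUnion fun j _ =>
      ((Qb j).tr a).isCompact_N.measurableSet)
    (fun j _ => Kc_sub_N _) (fun k _ => hs₁ k)
    (fun k hk => by
      have := cells k (hsq k hk)
      rw [h.eP k, lint_tile] at this
      exact this)
    (fun S hS hSO hx => out S hS hSO fun x hxS hxc => by
      obtain ⟨k, hk⟩ := (mem_cells h).1 hxc
      exact hx x hxS k (Finset.mem_univ k) hk)
    hi
  refine h1.trans ?_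
  have hC : (1 + ENNReal.ofReal ((6:ℝ)^p * (3 * (9 * K)^p)) + (Cu : ℝ≥0∞)) =
      (Cout p K Cu : ℝ≥0∞) := by
    unfold Cout
    push_cast
    rfl
  rw [hC]
  refine add_le_add le_rfl ?_
  have h2 : (s₁.card : ℝ≥0∞) ≤ s.card := by
    have h3 : s₁.card ≤ (Finset.univ : Finset s).card := Finset.card_le_univ s₁
    rw [Finset.card_univ, Fintype.card_coe] at h3
    exact_mod_cast h3
  calc ENNReal.ofReal (e / 2) + ((s₁.card : ℝ≥0∞) + 1) * ε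
      ≤ ENNReal.ofReal (e / 2) + ENNReal.ofReal (e / 2) :=
        add_le_add le_rfl ((mul_le_mul_left (add_le_add h2 le_rfl) _).trans hε)
    _ = ENNReal.ofReal e := by
        rw [← ENNReal.ofReal_add (by linarith) (by linarith), add_halves]

/-- **the `Ly` clause of `OutP`** from `cob_main`; `s₂` ⊇ the tiles which meet a layer `Ly ((Qb j).tr a)`,
`kk j ∈ Q` -/
theorem ly_clause (h : SysOf (Te T) s pr c R ρ m X) (D : EF X Om (En p G) α β) {K : ℝ≥0} {ε : ℝ≥0∞}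
    (cells : ∀ k, (p < 2 ∨ ∀ j, ¬ ((X.F j).V ∩ (X.C k).P).Nonempty) →
      ∫⁻ x in (X.C k).P, En p G₂ (w2 x) ≤ ENNReal.ofReal (Cob_622.CB p K (X.m k)) * D.J k + ε)
    {J : Type*} [Finite J] {kk : J → Fin 3 → ℤ} {Qb : J → CB R3 3} {Q : Finset (Fin 3 → ℤ)} {a : R3}
    {κ s' c1 c2 θ0 : ℝ} {k0 : ℕ} (hs : 0 < s') (hκ : 0 < κ) (hc1 : 0 < c1) (hc2 : 0 < c2)
    (hθ : 320 * θ0 < κ * c2) (hθ' : 40 * θ0 ≤ c1) (h2 : 1 / 2 ^ k0 ≤ θ0 * s')
    (hb : ∀ j, ∀ v, κ / 4 * ‖v‖ ≤ ‖(Qb j).ψ v‖) (hb' : ∀ j, c1 * s' ≤ 1 / 2 ^ (Qb j).kc)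
    (sep : ∀ i j, i ≠ j → ∀ x ∈ (Qb i).N, ∀ y ∈ (Qb j).N, c2 * s' ≤ dist x y)
    (hO : ∀ j, (Qb j).N ⊆ Om)
    (hT : ∀ j, kk j ∈ Q → Ly ((Qb j).tr a) k0 ⊆ Om) (s₂ : Finset s)
    (hs₂ : ∀ k : ι, ∀ j, kk j ∈ Q → (P (T.H k) ∩ Ly ((Qb j).tr a) k0).Nonempty →
      ∃ hk : k ∈ s, (⟨k, hk⟩ : s) ∈ s₂)
    (hsq : ∀ k ∈ s₂, p < 2 ∨ ∀ j, ¬ ((X.F j).V ∩ (X.C k).P).Nonempty) {e : ℝ} (he : 0 ≤ e)
    (hii : ∑ k ∈ s₂, ENNReal.ofReal (Cob_622.CB p K (X.m k)) * D.J k ≤ ENNReal.ofReal (e / 3))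
    (hε : ((s.card : ℝ≥0∞) + 1) * ε ≤ ENNReal.ofReal (e / 3))
    (hvol : ENNReal.ofReal (7680 * θ0 / c1) * volume Om ≤ ENNReal.ofReal (e / 3)) :
    (∑' j : {j // kk j ∈ Q}, ∫⁻ x in Ly ((Qb j).tr a) k0, (1 + En p G₂ x)) ≤ ENNReal.ofReal e := by
  classical
  have h1 := ly_le (Pc := fun k : s => P (T.H k)) (e2 := En p G₂)
    (Jf := fun k : s => ENNReal.ofReal (Cob_622.CB p K (X.m k)) * D.J k) (ε' := ε)
    (e₀ := ENNReal.ofReal (e / 3)) (ev := ENNReal.ofReal (e / 3)) (pJ := fun j => kk j ∈ Q)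
    (Lj := fun j => Ly ((Qb j).tr a) k0) s₂ (fun j _ => meas_ly _)
    (fun i j _ _ hij => ly_disj hs hκ hθ h2 hb sep a hij)
    (fun j hj x hx => by
      obtain ⟨k, hk⟩ := T.cov x (hT j hj hx)
      obtain ⟨hks, hk2⟩ := hs₂ k j hj ⟨x, hk, hx⟩
      exact ⟨⟨k, hks⟩, hk2, hk⟩)
    (fun k hk => by
      have := cells k (hsq k hk)
      rw [h.eP k, lint_tile] at this
      exact this)
    hii
    ((ENNReal.tsum_comp_le_tsum_of_injective Subtype.val_injective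
      (fun j => volume (Ly ((Qb j).tr a) k0))).trans
      ((ly_vol hs hc1 hθ' h2 hb' hc2 sep hO a).trans hvol))
  refine h1.trans ?_
  have h3 : (s₂.card : ℝ≥0∞) ≤ s.card := by
    have h3 : s₂.card ≤ (Finset.univ : Finset s).card := Finset.card_le_univ s₂
    rw [Finset.card_univ, Fintype.card_coe] at h3
    exact_mod_cast h3
  calc ENNReal.ofReal (e / 3) + (ENNReal.ofReal (e / 3) + (s₂.card : ℝ≥0∞) * ε)
      ≤ ENNReal.ofReal (e / 3) + (ENNReal.ofReal (e / 3) + ENNReal.ofReal (e / 3)) :=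
        add_le_add le_rfl (add_le_add le_rfl
          ((mul_le_mul_left (h3.trans le_self_add) _).trans hε))
    _ = ENNReal.ofReal e := by
        rw [← ENNReal.ofReal_add (by linarith) (by linarith),
          ← ENNReal.ofReal_add (by linarith) (by linarith)]
        congr 1
        ring

end sys

end

end Crest.Agent.R096.Ou_372
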