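import Crest.Agent.R096.Gsc3_476
import Crest.Agent.R096.Ou2_372

/-!
# Row 96 (S0127), helper855: [S1] of 622: the tiles of `h.T a` which are not deep in a block of `Q`; the
finsets `s₁`, `s₂` of 372's `ou_clause`, `ly_clause`.
-/

set_option autoImplicit false
set_option linter.unusedSectionVars false
set_option linter.style.longLine false

open Set Metric Topology Filter MeasureTheory
open scoped ENNReal NNReal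

namespace Crest.Agent.R096.Ca_855

open Crest.AnalysisR.VecCalc3
open Crest.Agent.R096.Msh_715 (Tiling P I)
open Crest.Agent.R096.Mal_874 (CB)
open Crest.Agent.R096.Pin_753 (Ly)
open Crest.Agent.R096.Sq_55 (E3 Sys Face FaceOf w2)
open Crest.Agent.R096.Efi_296 (Te reps mem_reps)
open Crest.Agent.R096.Cbs_296 (SysOf)
open Crest.Agent.R096.Gsc_476 (sclT Bk_eq)

noncomputable section

variable {Om W : Set R3} {ρ₀ : R3 → ℝ} {J : Type} {Qb : J → CB R3 3} {k0 : ℕ} {σ : ℝ}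
  [Finite J]

/-- **a tile of block `j` of scale `≤ k0 - K1` is far from the wall of the block** -/
theorem far_deepT (h : MIn Om W ρ₀ Qb k0 σ) {a : R3} (ha : ‖a‖ ≤ σ / 8) {j : J} {t : h.ιT a}
    (hN : P ((h.T a).H t) ⊆ ((Qb j).tr a).N) {K1 : ℕ} (hs : sclT h a t + K1 ≤ k0) (hK : 2 ≤ K1)
    {x : R3} (hx : x ∈ P ((h.T a).H t)) {z : R3} (hz : z ∈ frontier ((Qb j).tr a).N) :
    3 * 2 ^ K1 / 2 ^ k0 ≤ ‖(Qb j).ψ x - (Qb j).ψ z‖ := by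
  rw [← Bk_eq h ha j] at hN hz
  have h1 := (Gsc_476.scl_K h.M h.sc (0 + h.M.φ (h.cl a)) (h.adm a) hN hx).2
  set Q' := h.M.Bk (fun _ => h.cl a) j with hQ'
  set D := Q'.D k0 (h.sc.kc j) with hD
  have h1' : Msh_810.K D ((Qb j).ψ x) ≤ sclT h a t + 1 := h1
  set κ := Msh_810.K D ((Qb j).ψ x) with hκ
  have h2 : (6:ℝ) ≤ 2 ^ κ * D.ρ ((Qb j).ψ x) :=
    Msh_810.K_lower (D := D) (x := (Qb j).ψ x) (Mal_874.blkE_pos _)
  have h3 : D.ρ ((Qb j).ψ x) =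
      max (6 / 2 ^ k0) (min (6 / 2 ^ Q'.kc) (infDist ((Qb j).ψ x) Q'.W)) := rfl
  have hz2 : (Qb j).ψ z ∈ Q'.W := by
    rw [Q'.frontier_N] at hz
    exact hz
  have h4 : infDist ((Qb j).ψ x) Q'.W ≤ ‖(Qb j).ψ x - (Qb j).ψ z‖ := by
    rw [← dist_eq_norm]
    exact infDist_le_dist_of_mem hz2
  refine le_trans ?_ h4
  have hpk : (0:ℝ) < 2 ^ κ := by positivity
  have hp0 : (0:ℝ) < 2 ^ k0 := by positivity
  have h5 : (2:ℝ) ^ κ * 2 ^ K1 ≤ 2 * 2 ^ k0 := by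
    rw [← pow_add, ← pow_succ']
    exact pow_le_pow_right₀ one_le_two (by omega)
  have h6 : (6:ℝ) ≤ 2 ^ κ * (min (6 / 2 ^ Q'.kc) (infDist ((Qb j).ψ x) Q'.W)) := by
    rw [h3] at h2
    rcases le_total (6 / 2 ^ k0 : ℝ) (min (6 / 2 ^ Q'.kc) (infDist ((Qb j).ψ x) Q'.W))
      with h7 | h7
    · rwa [max_eq_right h7] at h2
    · exfalso
      rw [max_eq_left h7] at h2
      have h8 : (2:ℝ) ^ κ < 2 ^ k0 := pow_lt_pow_right₀ one_lt_two (by omega)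
      rw [← mul_div_assoc, le_div_iff₀ hp0] at h2
      linarith
  have h7 : (6:ℝ) ≤ 2 ^ κ * infDist ((Qb j).ψ x) Q'.W :=
    h6.trans (mul_le_mul_of_nonneg_left (min_le_right _ _) hpk.le)
  have h8 : 0 ≤ infDist ((Qb j).ψ x) Q'.W := infDist_nonneg
  rw [div_le_iff₀ hp0]
  have h9 : (6:ℝ) * 2 ^ K1 ≤ (2 ^ κ * 2 ^ K1) * infDist ((Qb j).ψ x) Q'.W := by
    have := mul_le_mul_of_nonneg_right h7 (by positivity : (0:ℝ) ≤ 2 ^ K1)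
    calc (6:ℝ) * 2 ^ K1 ≤ 2 ^ κ * infDist ((Qb j).ψ x) Q'.W * 2 ^ K1 := this
      _ = _ := by ring
  have h10 : (2 ^ κ * 2 ^ K1) * infDist ((Qb j).ψ x) Q'.W ≤
      (2 * 2 ^ k0) * infDist ((Qb j).ψ x) Q'.W := mul_le_mul_of_nonneg_right h5 h8
  linarith

/-- the tiles deep in a block of `Q` -/
def deepT (h : MIn Om W ρ₀ Qb k0 σ) (a : R3) (kk : J → Fin 3 → ℤ) (Q : Finset (Fin 3 → ℤ)) (K1 : ℕ) :
    Set (h.ιT a) :=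
  {t | ∃ j, kk j ∈ Q ∧ P ((h.T a).H t) ⊆ ((Qb j).tr a).N ∧ sclT h a t + K1 ≤ k0}

/-- **deep tiles do not meet the layers** -/
theorem deep_not_ly (h : MIn Om W ρ₀ Qb k0 σ) {a : R3} (ha : ‖a‖ ≤ σ / 8) {kk : J → Fin 3 → ℤ}
    {Q : Finset (Fin 3 → ℤ)} {K1 : ℕ} (hK : 4 ≤ K1) {κ s' c2 θ0 : ℝ} (hs : 0 < s') (hκ : 0 < κ)
    (hθ : 320 * θ0 < κ * c2) (h2 : 1 / 2 ^ k0 ≤ θ0 * s')
    (hb : ∀ j, ∀ v, κ / 4 * ‖v‖ ≤ ‖(Qb j).ψ v‖)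
    (sep : ∀ i j, i ≠ j → ∀ x ∈ (Qb i).N, ∀ y ∈ (Qb j).N, c2 * s' ≤ dist x y)
    {t : h.ιT a} (ht : t ∈ deepT h a kk Q K1) (j : J) :
    Disjoint (P ((h.T a).H t)) (Ly ((Qb j).tr a) k0) := by
  obtain ⟨l, -, hN, hsc⟩ := ht
  rw [Set.disjoint_left]
  rintro x hx ⟨z, hz, hxz⟩
  have hθ0 : 0 < θ0 := by
    by_contra hcon
    have h3 : (0:ℝ) < 1 / 2 ^ k0 := by positivity
    have : θ0 * s' ≤ 0 := mul_nonpos_of_nonpos_of_nonneg (not_lt.1 hcon) hs.le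
    linarith
  by_cases hlj : l = j
  · subst hlj
    have h3 := far_deepT h ha hN hsc (by omega) hx hz
    have h4 : (16:ℝ) ≤ 2 ^ K1 := by
      have : (2:ℝ) ^ 4 ≤ 2 ^ K1 := pow_le_pow_right₀ one_le_two hK
      linarith
    have h5 : (40:ℝ) / 2 ^ k0 < 3 * 2 ^ K1 / 2 ^ k0 :=
      div_lt_div_of_pos_right (by linarith) (by positivity)
    have hxz' : ‖(Qb l).ψ x - (Qb l).ψ z‖ ≤ 40 / 2 ^ k0 := hxz
    linarith
  · have n1 : x - a ∈ (Qb l).N := ((Qb l).mem_N_tr a x).1 (hN hx)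
    have n2 : z - a ∈ (Qb j).N := ((Qb j).mem_N_tr a z).1 (((Qb j).tr a).frontier_sub hz)
    have h5 := sep l j hlj _ n1 _ n2
    rw [dist_sub_right] at h5
    have h6 := Ou_372.ly_near (Q := (Qb j).tr a) hκ (hb j) h2 (by norm_num) hxz
    have h9 : 160 * θ0 * κ⁻¹ < c2 := by
      rw [← div_eq_mul_inv, div_lt_iff₀ hκ]
      linarith
    have h10 : 160 * θ0 * κ⁻¹ * s' < c2 * s' := mul_lt_mul_of_pos_right h9 hs
    have e : 4 * 40 * κ⁻¹ * θ0 * s' = 160 * θ0 * κ⁻¹ * s' := by ring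
    linarith

/-- **a cell of the system which is not deep meets no squeezed face** (or `q`) -/
theorem nosq {ι : Type*} {T : Tiling Om ι} {s : Finset ι} {pr : (Te T).Cell → Prop} {c : ι → E3}
    {R : ι → ℝ≥0} {ρ : E3 → ℝ≥0} {m : ι → ℝ≥0} {X : Sys s (reps (Te T) s pr)}
    (hX : SysOf (Te T) s pr c R ρ m X) {q : Prop} {deep : Set ι}
    (hpr : ∀ c : (Te T).Cell, pr c → q ∨ ∀ k ∈ (Te T).at_ c.pt, k ∈ deep) {k : s}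
    (hk : (k : ι) ∉ deep) : q ∨ ∀ x, ¬ ((X.F x).V ∩ (X.C k).P).Nonempty := by
  by_cases hq : q
  · exact Or.inl hq
  refine Or.inr fun x hne => hk ?_
  have h1 := hX.at_of_V hne
  obtain ⟨c, -, hc, hcx⟩ := mem_reps.1 x.2
  rw [← hcx] at h1
  exact (hpr c hc).resolve_left hq k h1

open Classical in
/-- the tiles which are not inside a block of `Q` -/
def s1T (h : MIn Om W ρ₀ Qb k0 σ) (a : R3) (kk : J → Fin 3 → ℤ) (Q : Finset (Fin 3 → ℤ))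
    (s : Finset (h.ιT a)) : Finset s :=
  Finset.univ.filter fun k => ¬ ∃ j, kk j ∈ Q ∧ P ((h.T a).H k) ⊆ ((Qb j).tr a).N

open Classical in
/-- the tiles which meet a layer of a block of `Q` -/
def s2T (h : MIn Om W ρ₀ Qb k0 σ) (a : R3) (kk : J → Fin 3 → ℤ) (Q : Finset (Fin 3 → ℤ))
    (s : Finset (h.ιT a)) : Finset s :=
  Finset.univ.filter fun k => ∃ j, kk j ∈ Q ∧ (P ((h.T a).H k) ∩ Ly ((Qb j).tr a) k0).Nonempty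

section sys

variable (h : MIn Om W ρ₀ Qb k0 σ) {a : R3} {kk : J → Fin 3 → ℤ} {Q : Finset (Fin 3 → ℤ)}
  {s : Finset (h.ιT a)} {pr : (Te (h.T a)).Cell → Prop} {c : h.ιT a → E3} {R : h.ιT a → ℝ≥0}
  {ρ : E3 → ℝ≥0} {m : h.ιT a → ℝ≥0} {X : Sys s (reps (Te (h.T a)) s pr)}

theorem mem_s1T {k : s} : k ∈ s1T h a kk Q s ↔
    ¬ ∃ j, kk j ∈ Q ∧ P ((h.T a).H k) ⊆ ((Qb j).tr a).N := by
  unfold s1T; simp

theorem mem_s2T {k : s} : k ∈ s2T h a kk Q s ↔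
    ∃ j, kk j ∈ Q ∧ (P ((h.T a).H k) ∩ Ly ((Qb j).tr a) k0).Nonempty := by
  unfold s2T; simp

/-- `hs₁` of `ou_clause` -/
theorem hs1T (k : s) : k ∈ s1T h a kk Q s ∨
    ∃ j, kk j ∈ Q ∧ P ((h.T a).H k) ⊆ ((Qb j).tr a).N := by
  rw [mem_s1T]
  exact (em _).symm

/-- `hsq` of `ou_clause` -/
theorem hsq1T (hX : SysOf (Te (h.T a)) s pr c R ρ m X) {q : Prop} {K1 : ℕ}
    (hpr : ∀ c : (Te (h.T a)).Cell, pr c → q ∨ ∀ k ∈ (Te (h.T a)).at_ c.pt, k ∈ deepT h a kk Q K1) :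
    ∀ k ∈ s1T h a kk Q s, q ∨ ∀ x, ¬ ((X.F x).V ∩ (X.C k).P).Nonempty := by
  intro k hk
  refine nosq hX hpr fun hd => ?_
  obtain ⟨j, hj, hN, -⟩ := hd
  exact (mem_s1T h).1 hk ⟨j, hj, hN⟩

/-- `hs₂` of `ly_clause` -/
theorem hs2T {K₀ : Set R3} (hs : ∀ i, (P ((h.T a).H i) ∩ K₀).Nonempty → i ∈ s)
    (hL : ∀ j, kk j ∈ Q → Ly ((Qb j).tr a) k0 ⊆ K₀) (k : h.ιT a) (j : J) (hj : kk j ∈ Q)
    (hne : (P ((h.T a).H k) ∩ Ly ((Qb j).tr a) k0).Nonempty) :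
    ∃ hk : k ∈ s, (⟨k, hk⟩ : s) ∈ s2T h a kk Q s := by
  obtain ⟨x, hx1, hx2⟩ := hne
  refine ⟨hs k ⟨x, hx1, hL j hj hx2⟩, ?_⟩
  rw [mem_s2T]
  exact ⟨j, hj, x, hx1, hx2⟩

/-- `hsq` of `ly_clause` -/
theorem hsq2T (ha : ‖a‖ ≤ σ / 8) (hX : SysOf (Te (h.T a)) s pr c R ρ m X) {q : Prop} {K1 : ℕ}
    (hK : 4 ≤ K1) {κ s' c2 θ0 : ℝ} (hs : 0 < s') (hκ : 0 < κ)
    (hθ : 320 * θ0 < κ * c2) (h2 : 1 / 2 ^ k0 ≤ θ0 * s')
    (hb : ∀ j, ∀ v, κ / 4 * ‖v‖ ≤ ‖(Qb j).ψ v‖)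
    (sep : ∀ i j, i ≠ j → ∀ x ∈ (Qb i).N, ∀ y ∈ (Qb j).N, c2 * s' ≤ dist x y)
    (hpr : ∀ c : (Te (h.T a)).Cell, pr c → q ∨ ∀ k ∈ (Te (h.T a)).at_ c.pt, k ∈ deepT h a kk Q K1) :
    ∀ k ∈ s2T h a kk Q s, q ∨ ∀ x, ¬ ((X.F x).V ∩ (X.C k).P).Nonempty := by
  intro k hk
  obtain ⟨j, -, hne⟩ := (mem_s2T h).1 hk
  exact nosq hX hpr fun hd =>
    Set.not_disjoint_iff_nonempty_inter.2 hne (deep_not_ly h ha hK hs hκ hθ h2 hb sep hd j)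

end sys

end

end Crest.Agent.R096.Ca_855
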