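import Crest.Agent.R096.Gsc4_476

/-!
# Row 96 (S0127), helper476: (G6) tiles near the wall have large scale (helper82)
-/

set_option autoImplicit false
set_option linter.unusedSectionVars false

open Set Metric Topology Filter

namespace Crest.Agent.R096.Gsc_476

open Crest.AnalysisR.VecCalc3
open Crest.Agent.R096.Msh_715 Crest.Agent.R096.Msh_715.Tiling Crest.Agent.R096.Mal_874
open Crest.Agent.R096.Msh_810 Crest.Agent.R096.Cut_874 Crest.Agent.R096.Msb_432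
open Crest.Agent.R096.Gsm_432 Crest.Agent.R096.Nbr_896
open Crest.Agent.R096.Ca_855
open Crest.Agent.R96.En10_199 (P3)

variable {n : ℕ}

/-- a number with `max 6 R ≤ 6 * 2 ^ N` -/
theorem exists_N (R : ℝ) : ∃ N : ℕ, max 6 R ≤ 6 * 2 ^ N := by
  obtain ⟨N, hN⟩ := pow_unbounded_of_one_lt (max 6 R / 6) (one_lt_two : (1 : ℝ) < 2)
  refine ⟨N, ?_⟩
  rw [div_lt_iff₀ (by norm_num)] at hN
  linarith

section blk

variable {E : Type*} [NormedAddCommGroup E] [NormedSpace ℝ E]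
variable (Q : CB E n) (k : ℕ) (hk : Q.kc ≤ k)

/-- near the wall the scale function is large -/
theorem K_of_infDist {x : Fin n → ℝ} {R : ℝ} {N : ℕ} (hN : max 6 R ≤ 6 * 2 ^ N)
    (h : infDist x Q.W ≤ R / 2 ^ k) : k ≤ K (Q.D k hk) x + N := by
  have hp : (0:ℝ) < 2 ^ k := by positivity
  have hlow := K_lower (D := Q.D k hk) (x := x) (blkE_pos x)
  have hC : (Q.D k hk).C = 6 := rfl
  have hρ : (Q.D k hk).ρ x = max (6 / 2 ^ k) (min (6 / 2 ^ Q.kc) (infDist x Q.W)) := rfl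
  have h1 : (Q.D k hk).ρ x ≤ max 6 R / 2 ^ k := by
    rw [hρ]
    refine max_le (div_le_div_of_nonneg_right (le_max_left _ _) hp.le) ?_
    exact (min_le_right _ _).trans (h.trans (div_le_div_of_nonneg_right (le_max_right _ _) hp.le))
  rw [hC] at hlow
  set κ := K (Q.D k hk) x with hκ
  have hpκ : (0:ℝ) < 2 ^ κ := by positivity
  have h2 : (6:ℝ) ≤ 2 ^ κ * (6 * 2 ^ N / 2 ^ k) :=
    hlow.trans (mul_le_mul_of_nonneg_left (h1.trans (div_le_div_of_nonneg_right hN hp.le)) hpκ.le)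
  have h3 : (2:ℝ) ^ k ≤ 2 ^ (κ + N) := by
    rw [← mul_div_assoc, le_div_iff₀ hp] at h2
    rw [pow_add]
    nlinarith
  exact (pow_le_pow_iff_right₀ (one_lt_two (α := ℝ))).1 h3

end blk

section mesh

variable [NeZero n] {E : Type*} [NormedAddCommGroup E] [NormedSpace ℝ E]
variable {J : Type*} (M : MD E n J) {k : J → ℕ} (hk : M.Sc k) (a : Fin n → ℝ)
  {v : J → E} (hv : M.Adm v)

/-- **(G6), tiles of the block** -/
theorem scl_ge_near {j : J} {t : {t // t ∉ cores M hk a hv} ⊕ CIx M} {R : ℝ} {N : ℕ}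
    (hR : max 6 R ≤ 6 * 2 ^ N) (hN : P ((meshS M hk a hv).H t) ⊆ (M.Bk v j).N) {y z : E}
    (hy : y ∈ P ((meshS M hk a hv).H t)) (hz : z ∈ frontier (M.Bk v j).N)
    (hd : ‖(M.Q j).ψ y - (M.Q j).ψ z‖ ≤ R / 2 ^ k j) : k j ≤ scl M hk a hv t + (N + 1) := by
  have h1 := (scl_K M hk a hv hN hy).2
  have hz' : (M.Bk v j).ψ z ∈ (M.Bk v j).W := by
    rw [(M.Bk v j).frontier_N] at hz
    exact hz
  have h2 : infDist ((M.Bk v j).ψ y) (M.Bk v j).W ≤ R / 2 ^ k j := by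
    refine (infDist_le_dist_of_mem hz').trans ?_
    rw [dist_eq_norm]
    exact hd
  have h3 := K_of_infDist (M.Bk v j) (k j) (hk.kc j) hR h2
  have h4 : K ((M.Bk v j).D (k j) (hk.kc j)) ((M.Bk v j).ψ y) ≤ scl M hk a hv t + 1 := h1
  omega

/-- the outer pieces have scale `≥ κ` if the size function is `≤ C / 2 ^ κ` -/
theorem scl_ge_out {p : M.OIx hk a hv} {h} {κ : ℕ} (hρ : ∀ x, M.D0.ρ x ≤ M.D0.C / 2 ^ κ) :
    κ ≤ scl M hk a hv (Sum.inl ⟨Sum.inl p, h⟩) := by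
  obtain ⟨x, hx, hx0, hxK⟩ := p.1.par.1.2
  have h1 := K_lower (D := (M.ad hk a hv).D) (x := x) hx0
  have h2 : (M.ad hk a hv).D.ρ x ≤ M.D0.ρ x := outD_le_ρ0 (D0 := M.D0) (k := k) (W := M.W) (a := a) x
  have h3 : (M.ad hk a hv).D.C = M.D0.C := rfl
  rw [hxK, h3] at h1
  show κ ≤ p.1.par.1.1.k
  have hC := M.D0.C_pos
  have hp : (0:ℝ) < 2 ^ κ := by positivity
  have hpp : (0:ℝ) < 2 ^ p.1.par.1.1.k := by positivity
  have h4 : M.D0.C ≤ 2 ^ p.1.par.1.1.k * (M.D0.C / 2 ^ κ) :=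
    h1.trans (mul_le_mul_of_nonneg_left (h2.trans (hρ x)) hpp.le)
  rw [← mul_div_assoc, le_div_iff₀ hp] at h4
  have h5 : (2:ℝ) ^ κ ≤ 2 ^ p.1.par.1.1.k := by nlinarith
  exact (pow_le_pow_iff_right₀ (one_lt_two (α := ℝ))).1 h5

end mesh

section T

variable {Om W : Set R3} {ρ₀ : R3 → ℝ} {J : Type} {Qb : J → CB R3 3} {k0 : ℕ} {σ : ℝ}
  [Finite J]

variable (h : MIn Om W ρ₀ Qb k0 σ) {a : R3}

/-- **a tile of `h.T a` which is in no block has scale `≥ k0`** -/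
theorem sclT_ge_out (ha : ‖a‖ ≤ σ / 8) {t : h.ιT a}
    (ht : ∀ j, ¬ P ((h.T a).H t) ⊆ ((Qb j).tr a).N) : k0 ≤ sclT h a t := by
  rcases outer_orT h ha t with ⟨p, hp, rfl⟩ | ⟨l, hl⟩
  · exact scl_ge_out h.M h.sc (0 + h.M.φ (h.cl a)) (h.adm a) (h := hp) fun x => by
      show h.D0.ρ x ≤ 6 / 2 ^ k0
      rw [h.D0_ρ]
      exact min_le_right _ _
  · exact absurd hl (ht l)

/-- **(G6)** tiles (inner and outer) of `h.T a` with a point near the wall of block `j` -/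
theorem sclT_ge_near (ha : ‖a‖ ≤ σ / 8) {j : J} {κ : ℝ} {Bs Nn : ℕ} (hκ : 0 < κ)
    (hb : MIn.BQ κ Bs Nn (Qb j) k0) {R : ℝ} {N : ℕ} (hR : max 6 R ≤ 6 * 2 ^ N)
    (hσ : 4 * κ⁻¹ * (R / 2 ^ k0) < σ) {t : h.ιT a} {y z : R3} (hy : y ∈ P ((h.T a).H t))
    (hz : z ∈ frontier ((Qb j).tr a).N) (hd : ‖(Qb j).ψ y - (Qb j).ψ z‖ ≤ R / 2 ^ k0) :
    k0 ≤ sclT h a t + (N + 1) := by
  by_cases ht : ∀ l, ¬ P ((h.T a).H t) ⊆ ((Qb l).tr a).N
  · exact (sclT_ge_out h ha ht).trans (Nat.le_add_right _ _)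
  push Not at ht
  obtain ⟨l, hl⟩ := ht
  have hlj : l = j := by
    by_contra hne
    have hκ' : 0 < κ⁻¹ := inv_pos.2 hκ
    have hzN : z ∈ ((Qb j).tr a).N := ((Qb j).tr a).frontier_sub hz
    have hyN : y ∈ ((Qb l).tr a).N := hl hy
    rw [CB.mem_N_tr] at hzN hyN
    have h1 := h.sep l j hne _ hyN _ hzN
    rw [dist_eq_norm, sub_sub_sub_cancel_right] at h1
    have h2 := hb.ψ2 hκ (y - z)
    rw [map_sub] at h2
    have h3 : 4 * κ⁻¹ * ‖(Qb j).ψ y - (Qb j).ψ z‖ ≤ 4 * κ⁻¹ * (R / 2 ^ k0) := by gcongr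
    linarith
  subst hlj
  have hz' : z ∈ frontier (h.M.Bk (fun _ => h.cl a) l).N := by rw [Bk_eq h ha l]; exact hz
  have hl' : P ((meshS h.M h.sc (0 + h.M.φ (h.cl a)) (h.adm a)).H t) ⊆
      (h.M.Bk (fun _ => h.cl a) l).N := by rw [Bk_eq h ha l]; exact hl
  exact scl_ge_near h.M h.sc _ (h.adm a) hR hl' hy hz' hd

end T

end Crest.Agent.R096.Gsc_476
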