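/-
helper622, row 96, COMPOSITE B, part 9: the bound of a tube is at most the bound of the cell; energy
tubes with the global data.
-/
import Crest.Agent.R096.Cob8_622

set_option autoImplicit false
set_option linter.unusedSectionVars false
set_option linter.style.longLine false

open Set Metric Filter Topology MeasureTheory
open scoped ENNReal NNReal

namespace Crest.Agent.R096.Cob_622

open Crest.Agent.R096.Ce_537 Crest.Agent.R096.Bd_416 Crest.Agent.R96.Hole_348
open Crest.AnalysisR.VecCalc3 Crest.AnalysisR.Sobolev Crest.Agent.R096.Sk_962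
open Crest.Agent.R096.Sq_55
open Crest.Agent.R096.Sqt_143 (cu sg Edge OnC OnF CT tb Tb tb_eq tube_near tube_energy Tb_ev)
open Crest.Agent.R096.Str_968 (EFN SBc)
open Crest.Agent.R96.Lu_538 (Gmat)

variable {κ ι : Type*} [Fintype κ] [Fintype ι] {X : Sys κ ι}

lemma cu_le {k : κ} {E : Set E3} {u : ℝ} (h : Tub X k E u) : 0 ≤ cu X k u ∧ cu X k u ≤ 11 / 40 := by
  have hR : (0:ℝ) < (X.C k).R := (X.C k).R_pos
  have hm1 := Sys.m_one (X := X) k
  have hu := h.u0
  have huR := h.uR
  unfold cu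
  refine ⟨by positivity, ?_⟩
  rw [div_le_div_iff₀ hR (by norm_num)]
  nlinarith

/-- the bound of a tube is at most the bound of the cell -/
theorem Jt_le_J {α β : Type*} [Fintype α] [Fintype β] {Om : Set R3} {g : R3 → ℝ≥0∞}
    (D : EF X Om g α β) {k : κ} {E : Set E3} {u : ℝ} (h : Tub X k E u) : Jt D k E u ≤ D.J k := by
  classical
  obtain ⟨h0, h1⟩ := cu_le h
  have hR : (0:ℝ) ≤ (X.C k).R := (X.C k).R.coe_nonneg
  set c := cu X k u with hc
  have e1 : ENNReal.ofReal (9 * c^2 * (X.C k).R) ≤ ENNReal.ofReal (X.C k).R := by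
    refine ENNReal.ofReal_le_ofReal ?_
    have h2 : 9 * c^2 ≤ 1 := by nlinarith
    calc 9 * c^2 * (X.C k).R ≤ 1 * (X.C k).R := mul_le_mul_of_nonneg_right h2 hR
      _ = _ := one_mul _
  have e2 : ENNReal.ofReal (3 * c * (X.C k).R) ≤ ENNReal.ofReal (X.C k).R := by
    refine ENNReal.ofReal_le_ofReal ?_
    have h2 : 3 * c ≤ 1 := by linarith
    calc 3 * c * (X.C k).R ≤ 1 * (X.C k).R := mul_le_mul_of_nonneg_right h2 hR
      _ = _ := one_mul _
  unfold Jt EFN.J EF.J
  rw [mul_add]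
  refine add_le_add (mul_le_mul' e1 (le_of_eq ?_)) (mul_le_mul' e2 ?_)
  · rfl
  · refine Finset.sum_le_sum_of_subset ?_
    intro b hb
    rw [Finset.mem_filter] at hb ⊢
    refine ⟨Finset.mem_univ _, hb.2.mono ?_⟩
    exact inter_subset_inter_right _ (image_mono inter_subset_left)

/-- the global data as data cut off at `univ` -/
def EFuniv {α β : Type*} {Om : Set R3} {g : R3 → ℝ≥0∞} (D : EF X Om g α β) :
    EF X Om ((univ : Set R3).indicator g) α β where
  eg := D.eg
  fc := D.fc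
  rimE := D.rimE
  clE := D.clE
  clF := D.clF
  clZ := D.clZ
  hrim := D.hrim
  hZ := D.hZ
  Ee := D.Ee
  Ef := D.Ef
  fE := D.fE
  hE := by rw [indicator_univ]; exact D.hE
  hF := by rw [indicator_univ]; exact D.hF

theorem Jt_univ_le {α β : Type*} [Fintype α] [Fintype β] {Om : Set R3} {g : R3 → ℝ≥0∞}
    (D : EF X Om g α β) {k : κ} {E : Set E3} {u : ℝ} (h : Tub X k E u) :
    Jt (EFuniv D) k E u ≤ D.J k :=
  (Jt_le_J (EFuniv D) h).trans (le_of_eq rfl)

/-- the energy tube with the global data: its bound is `≤ D.J k` -/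
def TubE.ofJ {α β : Type*} {Om : Set R3} {g : R3 → ℝ≥0∞} (D : EF X Om g α β) (k : κ) (E : Set E3)
    (u : ℝ) (h : Tub X k E u) : TubE X Om g α β where
  k := k
  E := E
  u := u
  tub := h
  B := univ
  hB _ _ := mem_univ _
  D := EFuniv D

theorem TubE.Jt_ofJ_le {α β : Type*} [Fintype α] [Fintype β] {Om : Set R3} {g : R3 → ℝ≥0∞}
    (D : EF X Om g α β) (k : κ) (E : Set E3) (u : ℝ) (h : Tub X k E u) :
    Jt (TubE.ofJ D k E u h).D (TubE.ofJ D k E u h).k (TubE.ofJ D k E u h).E
      (TubE.ofJ D k E u h).u ≤ D.J k := Jt_univ_le D h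

end Crest.Agent.R096.Cob_622
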