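/-
helper622, row 96, COMPOSITE B, part 10: **`cob_T`: `cob_main` for the tiles of a tiling at a good
position**; all closed 1-cells of the tiles of `s` as energy tubes and near tubes.
-/
import Crest.Agent.R096.Cbs2_296
import Crest.Agent.R096.Cob9_622

set_option autoImplicit false
set_option linter.unusedSectionVars false
set_option linter.style.longLine false

open Set Metric Filter Topology MeasureTheory
open scoped ENNReal NNReal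

namespace Crest.Agent.R096.Cob_622

open Crest.Agent.R096.Ce_537 Crest.Agent.R096.Bd_416 Crest.Agent.R96.Hole_348
open Crest.AnalysisR.VecCalc3 Crest.AnalysisR.Sobolev Crest.Agent.R096.Sk_962
open Crest.Agent.R096.Msh_715 (P I Tiling)
open Crest.Agent.R096.Sq_55
open Crest.Agent.R096.Sqt_143 (cu sg Edge OnC OnF CT tb Tb tb_eq tube_near tube_energy Tb_ev)
open Crest.Agent.R096.Efi_296
open Crest.Agent.R096.Cbs_296
open Crest.Agent.R96.Coarse_538 (seg)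
open Crest.Agent.R096.Fce_793 (pt cc)
open Crest.Agent.R96.En10_199 (P3)
open Crest.Agent.R96.Lu_538 (Gmat)

noncomputable section

variable {Om La : Set R3} {ι : Type*} {T : Tiling Om ι} {κe κf : Type*}
  {x v : κe → R3} {e : κf → Fin 2 → R3} {xx : κf → R3} {a : R3} {Qf : κf → Set (ℝ × ℝ)}
  {s : Finset ι} {pr : (Te T).Cell → Prop}
  {c : ι → E3} {R : ι → ℝ≥0} {ρ : E3 → ℝ≥0} {m : ι → ℝ≥0} {X : Sys s (reps (Te T) s pr)}

lemma Te_Om : ((P3.symm : R3 ≃L[ℝ] E3).symm ⁻¹' Om) = w2 ⁻¹' Om := rfl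

lemma Te_P (i : ι) : P ((Te T).H i) = w2 ⁻¹' P (T.H i) := by
  ext y
  rw [Ttr_622.mem_P_tr]
  rfl

lemma image_Te_P (i : ι) : w2 '' P ((Te T).H i) = P (T.H i) := by
  rw [Te_P, image_preimage_eq _ w2.surjective]

lemma Te_dim (y : E3) : (Te T).dim y = T.dim (w2 y) := Ttr_622.dim_tr (P3.symm : R3 ≃L[ℝ] E3) T y

lemma mem_iUnion_cells (h : SysOf (Te T) s pr c R ρ m X) {z : R3} :
    (z ∈ w2 '' (⋃ k, (X.C k).P)) ↔ ∃ k ∈ s, z ∈ P (T.H k) := by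
  constructor
  · rintro ⟨y, hy, rfl⟩
    obtain ⟨k, hk⟩ := mem_iUnion.1 hy
    have hk' : y ∈ P ((Te T).H k) := by rw [← h.eP k]; exact hk
    rw [Te_P] at hk'
    exact ⟨k, k.2, hk'⟩
  · rintro ⟨k, hk, hz⟩
    refine ⟨w2.symm z, mem_iUnion.2 ⟨⟨k, hk⟩, ?_⟩, w2.apply_symm_apply z⟩
    rw [h.eP, Te_P, mem_preimage, w2.apply_symm_apply]
    exact hz

/-- the condition on the radius `u` of a tube at the tile `k` -/
def SmallR (R m : ι → ℝ≥0) (u : ℝ) (k : ι) : Prop := 40 * (m k : ℝ)^4 * u ≤ R k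

/-- parameters of the near tube of the 1-cell number `c` -/
structure NP (X : Sys s (reps (Te T) s pr)) (m : ι → ℝ≥0) (u : ℝ) (E : (Te T).Cell) where
  a0 : E3
  v0 : E3
  hav : E.set = sg a0 v0
  u0 : ℝ
  b0 : ℝ
  n : ℕ
  edge : Edge X a0 v0 u0 b0 n
  M : ℝ≥0
  hM : 1 ≤ M
  hMC : ∀ k : s, (k : ι) ∈ (Te T).at_ E.pt → m k ≤ M
  hu : (1 + 4 * ((M : ℝ) * M)) * u ≤ u0

/-- no unsqueezed 2-cell in the zone -/
def NoF (T : Tiling Om ι) (s : Finset ι) (pr : (Te T).Cell → Prop) (m : ι → ℝ≥0) (u : ℝ)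
    (E : (Te T).Cell) (k : ι) : Prop :=
  ∀ b ∈ FcS (Te T) s pr,
    ¬ (b.set ∩ (P ((Te T).H k) ∩ cthickening (25 * (m k : ℝ)^4 * u) E.set)).Nonempty

/-- `Φ` is locally the identity on the 1-cells and on the rims -/
lemma id_rim (h : SysOf (Te T) s pr c R ρ m X) {Φ : R3 → R3}
    (hsk : ∀ y ∈ Om, T.dim y ≤ 1 → ∀ᶠ w in 𝓝 y, Φ w = w) {z : E3}
    (hz : z ∈ X.Z ∪ ⋃ j, (X.F j).rim) :
    (∀ᶠ y in 𝓝 (w2 z), Φ y = y) ∨ ∃ b ∈ FcS (Te T) s pr, z ∈ b.set := by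
  rcases hz with hz | hz
  · rw [h.Z] at hz
    rcases hz with hz | hz
    · obtain ⟨b, hb, hzb⟩ := mem_iUnion₂.1 hz
      left
      refine hsk _ (mem_Om_of_set hzb) ?_
      rw [← Te_dim]
      exact (dim_le_of_set hzb).trans hb.1.le
    · obtain ⟨b, hb, hzb⟩ := mem_iUnion₂.1 hz
      exact Or.inr ⟨b, hb, hzb⟩
  · obtain ⟨j, hj⟩ := mem_iUnion.1 hz
    left
    rw [h.rim] at hj
    have h0 := reps_dim j.2
    have h1 : z ∈ (P3.symm : R3 ≃L[ℝ] E3).symm ⁻¹' Om := (Te T).cc_sub_Om h0.1 hj.1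
    refine hsk _ h1 ?_
    rw [← Te_dim]
    have h2 := (Te T).dim_lt hj.1 hj.2
    omega

lemma int_tile (i : ι) (F : R3 → ℝ≥0∞) :
    ∫⁻ z in P ((Te T).H i), F (w2 z) = ∫⁻ y in P (T.H i), F y := by
  rw [int_w2, image_Te_P]

set_option maxHeartbeats 1000000 in
/-- **`cob_main` for the tiles `s` of a tiling.** -/
theorem cob_T {p : ℝ} (hp : 1 ≤ p) (hp3 : p < 3) {f : R3 → R3} {G : Fin 3 → R3 → R3}
    (hOm : IsOpen Om) (hvol : volume Om ≠ ∞) (hf : SH p Om La f G)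
    (hQ : ∀ φ, IsCompact (Qf φ)) {me : EgS (Te T) s → κe} {mf : FcS (Te T) s pr → κf}
    (hme : ∀ c, w2 '' c.1.set = seg x v a (me c))
    (hmf : ∀ c, w2 '' c.1.set = pt (e (mf c)) (a + xx (mf c)) '' Qf (mf c))
    (hG : GoodA Om (En p G) x v e xx a)
    {Lx : Type*} [Finite Lx] {LL : Lx → R3 →L[ℝ] R3}
    (hGL : ∀ l, GoodA Om (fun y => ‖Gmat G y - LL l‖ₑ ^ p) x v e xx a)
    (h : SysOf (Te T) s pr c R ρ m X)
    (hpr : ∀ c : (Te T).Cell, pr c → ∀ k ∈ (Te T).at_ c.pt, k ∈ s)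
    (hρ : ∀ x ∈ reps (Te T) s pr, ∀ k ∈ (Te T).at_ x, k ∈ s → R k ≤ m k * ρ x)
    (Φ : R3 ≃ₜ R3) (hΦ1 : PLOn Φ univ) (hΦ2 : PLOn Φ.symm univ) (hΦ : ∀ x, Φ x ∈ Om ↔ x ∈ Om)
    (hsupp : ∀ x, (∀ k ∈ s, x ∉ P (T.H k)) → Φ x = x)
    (hsk : ∀ y ∈ Om, T.dim y ≤ 1 → ∀ᶠ w in 𝓝 y, Φ w = w)
    (K : ℝ≥0) {U : Set R3} (hU : IsOpen U)
    (hgF : ∀ b ∈ FcS (Te T) s pr, ∀ z ∈ b.set, Good Φ f U (w2 z))
    {Pr : (R3 ≃ₜ R3) → Prop}
    (hR : ∀ θ : ℝ, 0 < θ → ∃ (Rr : R3 ≃ₜ R3) (C : ℝ), LipschitzWith K Rr ∧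
      (∀ y, Rr y ∈ La ↔ y ∈ La) ∧ (∀ y, ‖Rr y - y‖ ≤ C) ∧
      (∀ y ∈ U, ∀ ε > 0, ∀ᶠ z in 𝓝 y, ‖Rr z - Rr y‖ ≤ (θ + ε) * ‖z - y‖) ∧ Pr Rr)
    (D : EF X Om (En p G) (EgS (Te T) s) (FcS (Te T) s pr)) {u : ℝ} (hu : 0 < u)
    {Sn : Set (EgS (Te T) s)} (np : ∀ c : Sn, NP X m u c.1.1)
    {ε : ℝ≥0∞} (hε : ε ≠ 0) {δ₀ : ℝ} (hδ₀ : 0 < δ₀) :
    ∃ δ : ℝ, δ < δ₀ ∧ ∃ (hA : X.Adm p δ) (N₁ N₂ : ℕ) (Rr : R3 ≃ₜ R3)
      (Gg G₂ : Fin 3 → R3 → R3),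
      Pr Rr ∧ LipschitzWith K Rr ∧ (∀ y, Rr y ∈ La ↔ y ∈ La) ∧
      SH p Om La (fun x => f (Φ (toR (Sys.chi hA (N₁+1) (N₂+1)) x))) Gg ∧
      SH p Om La (fun x => Rr (f (Φ (toR (Sys.chi hA (N₁+1) (N₂+1)) x)))) G₂ ∧
      (∀ S : Set R3, MeasurableSet S → S ⊆ Om → (∀ x ∈ S, ∀ k ∈ s, x ∉ P (T.H k)) →
        ∫⁻ x in S, En p G₂ x ≤
          ENNReal.ofReal ((6:ℝ)^p * (3 * (9 * K)^p)) * (∫⁻ x in S, En p G x) + ε) ∧
      (∀ k : s, (p < 2 ∨ ∀ y ∈ reps (Te T) s pr, (k : ι) ∉ (Te T).at_ y) →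
        ∫⁻ x in P (T.H k), En p G₂ x ≤ ENNReal.ofReal (CB p K (m k)) * D.J k + ε) ∧
      (∀ (c : EgS (Te T) s) (k : s), SmallR R m u k →
        ∫⁻ x in P ((Te T).H k) ∩ cthickening u c.1.set, En p G₂ (w2 x) ≤
        ENNReal.ofReal (CE p K (m k)) *
          Jt (efLoc hG hQ hme hmf X h.rim h.Z (isClosed_Bz c.1.set (25 * (m k : ℝ)^4 * u)))
            k c.1.set u + ε) ∧
      (∀ (c : EgS (Te T) s) (k : s), SmallR R m u k →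
        ∫⁻ x in P ((Te T).H k) ∩ cthickening u c.1.set, En p G₂ (w2 x) ≤
        ENNReal.ofReal (CE p K (m k)) * D.J k + ε) ∧
      (∀ (c : Sn) (k : s) (l : Lx), SmallR R m u k → NoF T s pr m u c.1.1 k →
        ∫⁻ x in P ((Te T).H k) ∩ cthickening u c.1.1.set,
          ‖Gmat Gg (w2 x) (w2 (np c).v0) - LL l (w2 (np c).v0)‖ₑ ^ p ≤
        ENNReal.ofReal ((2 * (2113 * (m k : ℝ)^4 * ‖w2 (np c).v0‖))^p) *
          (ENNReal.ofReal (CT p (m k)) *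
            Jt (efLoc (hGL l) hQ hme hmf X h.rim h.Z
              (isClosed_Bz c.1.1.set (25 * (m k : ℝ)^4 * u))) k c.1.1.set u +
          ‖LL l‖ₑ ^ p * (nW X (np c).a0 (np c).v0 (np c).n *
            ENNReal.ofReal ((2 * ((1 + (np c).b0 * (1 + 4 * (((np c).M : ℝ) * (np c).M)) *
              ‖(np c).v0‖) * u))^3))) + ε) ∧
      (∀ S : Set R3, MeasurableSet S → S ⊆ Om → (∀ x ∈ S, x ∉ w2 '' (⋃ k, (X.C k).P)) →
        ∫⁻ x in S, En p G₂ x ≤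
          ENNReal.ofReal ((6:ℝ)^p * (3 * (9 * K)^p)) * (∫⁻ x in S, En p G x) + ε) ∧
      (∀ k, (p < 2 ∨ ∀ j, ¬ ((X.F j).V ∩ (X.C k).P).Nonempty) →
        ∫⁻ x in (X.C k).P, En p G₂ (w2 x) ≤ ENNReal.ofReal (CB p K (X.m k)) * D.J k + ε) := by
  classical
  have hE1 : ∀ c : EgS (Te T) s, ∀ y ∈ c.1.set,
      y ∈ (P3.symm : R3 ≃L[ℝ] E3).symm ⁻¹' Om ∧ (Te T).dim y ≤ 1 := fun c y hy =>
    ⟨mem_Om_of_set hy, (dim_le_of_set hy).trans c.2.1.le⟩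
  have hcpt : ∀ c : EgS (Te T) s, IsCompact c.1.set := by
    intro c
    obtain ⟨k, -, hk⟩ := c.2.2
    exact ((Te T).cpt k).of_isClosed_subset (isClosed_set _) hk
  -- the lists
  let U1 := {q : EgS (Te T) s × s // SmallR R m u q.2}
  let t1a : U1 → TubE X Om (En p G) (EgS (Te T) s) (FcS (Te T) s pr) := fun q =>
    mkTubE h hG hQ hme hmf (hcpt q.1.1) (hE1 q.1.1) q.1.2 hu q.2
  let t1b : U1 → TubE X Om (En p G) (EgS (Te T) s) (FcS (Te T) s pr) := fun q =>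
    TubE.ofJ D q.1.2 q.1.1.1.set u (h.tub (hcpt q.1.1) (hE1 q.1.1) q.1.2 hu q.2)
  let t1 : U1 ⊕ U1 → TubE X Om (En p G) (EgS (Te T) s) (FcS (Te T) s pr) := Sum.elim t1a t1b
  let U2 := {q : Sn × s × Lx // SmallR R m u q.2.1 ∧ NoF T s pr m u q.1.1.1 q.2.1}
  let t2 : U2 → TubN X Om G p Φ (EgS (Te T) s) (FcS (Te T) s pr) := fun q =>
    mkTubN h (hGL q.1.2.2) hQ hme hmf (E := q.1.1.1.1) q.1.1.1.2.1.le (np q.1.1).hav
      (np q.1.1).edge q.1.2.1 hu q.2.1 (np q.1.1).hM (np q.1.1).hMC (np q.1.1).hu (by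
        intro z hz hz1 hz2
        rcases id_rim h hsk hz with h1 | ⟨b, hb, hzb⟩
        · exact h1
        · exact (q.2.2 b hb ⟨z, hzb, hz1, hz2⟩).elim)
  have : Finite Sn := Finite.of_injective (fun c : Sn => c.1) Subtype.val_injective
  have : Finite U1 := Subtype.finite
  have : Finite U2 := Subtype.finite
  have key := cob_main X hp hp3 hOm hvol hf
    (fun k => by rw [h.eP, Te_P]; exact preimage_mono (T.sub k))
    (fun j => h.K_sub j) (h.K_sub_P hpr) (fun k j => h.sz hρ j k) Φ hΦ1 hΦ2 hΦ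
    (fun y hy => hsupp y fun k hk hyk => hy ((mem_iUnion_cells h).2 ⟨k, hk, hyk⟩)) K hU D
    (fun z hz _ => by
      rcases id_rim h hsk hz with h1 | ⟨b, hb, hzb⟩
      · exact Or.inl h1
      · exact hgF b hb z hzb) hR t1 t2 hε hδ₀
  obtain ⟨δ, hδ, hA, N₁, N₂, Rr, Gg, G₂, k1, k2, k3, k4, k5, k6, k7, k8, k9⟩ := key
  refine ⟨δ, hδ, hA, N₁, N₂, Rr, Gg, G₂, k1, k2, k3, k4, k5, ?_, ?_, ?_, ?_, ?_, k6, k7⟩
  · intro S mS hSO hS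
    refine k6 S mS hSO fun y hy hyc => ?_
    obtain ⟨k, hk, hyk⟩ := (mem_iUnion_cells h).1 hyc
    exact hS y hy k hk hyk
  · intro k hk
    have h1 := k7 k (hk.imp id fun h2 j hne => h2 j j.2 (h.at_of_V hne))
    rwa [h.eP, int_tile, h.em] at h1
  · intro c k hk
    have h1 := k8 (Sum.inl ⟨(c, k), hk⟩)
    simp only [t1, t1a, Sum.elim_inl, mkTubE] at h1
    rwa [h.eP, h.em] at h1
  · intro c k hk
    have h1 := k8 (Sum.inr ⟨(c, k), hk⟩)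
    have h2 : Jt (t1 (Sum.inr ⟨(c, k), hk⟩)).D (t1 (Sum.inr ⟨(c, k), hk⟩)).k
        (t1 (Sum.inr ⟨(c, k), hk⟩)).E (t1 (Sum.inr ⟨(c, k), hk⟩)).u ≤ D.J k :=
      TubE.Jt_ofJ_le D k c.1.set u (h.tub (hcpt c) (hE1 c) k hu hk)
    have h3 := h1.trans (add_le_add (mul_le_mul' le_rfl h2) le_rfl)
    simp only [t1, t1b, Sum.elim_inr, TubE.ofJ] at h3
    rwa [h.eP, h.em] at h3
  · intro c k l hk hno
    have h1 := k9 ⟨(c, k, l), hk, hno⟩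
    simp only [t2, mkTubN] at h1
    rw [h.eP, h.em, ← (np c).hav] at h1
    exact h1

end

end Crest.Agent.R096.Cob_622
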