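import Crest.Agent.R096.Sqt16_143
import Crest.Agent.R096.Cbs4_296
import Crest.Agent.R096.Cob10_622

/-!
Row 96 (S0127), helper143.  COMPOSITE B, [C5] LONG: 82's LONG hypothesis (`h2b_inc`) for one long edge of a
tiling, from the clause (E) of 622's `cob_T`.
-/

set_option autoImplicit false
set_option linter.unusedSectionVars false
set_option linter.style.longLine false

open Set Metric Filter Topology MeasureTheory
open scoped ENNReal NNReal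

namespace Crest.Agent.R096.Sqt_143

open Crest.AnalysisR.VecCalc3
open Crest.Agent.R096.Msh_715 (P I Tiling)
open Crest.Agent.R096.Sq_55 (E3 Sys w2)
open Crest.Agent.R096.Cob_622 (EF Jt CE SmallR)
open Crest.Agent.R096.Efi_296
open Crest.Agent.R096.Cbs_296
open Crest.Agent.R096.Slb_296
open Crest.Agent.R096.Fce_793 (pt)
open Crest.Agent.R096.H2a_821 (tube_pieces)
open Crest.Agent.R96.Coarse_538 (seg)
open Crest.Agent.R96.Lu_538 (Gmat)
open Crest.Agent.R096.Br_695 (En)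

noncomputable section

/-- the constants are monotone in the shape number -/
theorem CT_mono {p : ℝ} (hp : p < 3) {m M : ℝ≥0} (h : m ≤ M) : CT p m ≤ CT p M := by
  have h1 : 0 < 1 - Sq_55.qn 3 p := by
    have := Sq_55.qn_lt (n := 3) (p := p) (by exact_mod_cast hp)
    linarith
  have h2 : 0 < 1 - Sq_55.qF p := by
    have := Sq_55.qF_lt p
    linarith
  have h3 : (m:ℝ) ≤ M := by exact_mod_cast h
  unfold CT
  gcongr

theorem CE_mono {p : ℝ} (hp0 : 0 ≤ p) (hp : p < 3) (K : ℝ≥0) {m M : ℝ≥0} (h : m ≤ M) :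
    CE p K m ≤ CE p K M := by
  have h3 : (m:ℝ) ≤ M := by exact_mod_cast h
  have h4 := CT_mono hp h
  have h5 := CT_nonneg hp m
  unfold CE
  gcongr

variable {OmR : Set R3} {ι : Type*} {T : Tiling OmR ι} {Om : Set R3} {κe κf : Type*}
  {x v : κe → R3} {e : κf → Fin 2 → R3} {xx : κf → R3} {a : R3} {Q : κf → Set (ℝ × ℝ)}
  {s : Finset ι} {pr : (Te T).Cell → Prop}
  {c : ι → E3} {R : ι → ℝ≥0} {ρ : E3 → ℝ≥0} {m : ι → ℝ≥0} {X : Sys s (reps (Te T) s pr)}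

theorem norm_v_le {i : κe} {S : Set R3} {V : ℝ} (hV : ∀ y ∈ S, ∀ z ∈ S, ‖z - y‖ ≤ V)
    (h : seg x v a i ⊆ S) : ‖v i‖ ≤ V := by
  rw [seg_eq_pl] at h
  have h0 := h (mem_image_of_mem _ (show (0:ℝ) ∈ Icc (0:ℝ) 1 by simp))
  have h1 := h (mem_image_of_mem _ (show (1:ℝ) ∈ Icc (0:ℝ) 1 by simp))
  have h2 := hV _ h0 _ h1
  have h3 : pl (v i) (a + x i) 1 - pl (v i) (a + x i) 0 = v i := by
    unfold pl
    simp
  rwa [h3] at h2

/-- a set `D` of deep tiles: inside `C`, in `s`, shape number `M`, at most `nb` neighbours, large with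
respect to `u`; a 2-cell between two deep tiles is squeezed -/
structure DeepS (T : Tiling OmR ι) (s : Finset ι) (pr : (Te T).Cell → Prop) (R m : ι → ℝ≥0)
    (ρ : E3 → ℝ≥0) (u : ℝ) (C : Set R3) (M : ℝ≥0) (nb : ℕ) (D : Set ι) : Prop where
  sub : ∀ k ∈ D, k ∈ s
  hM : ∀ k ∈ D, m k ≤ M
  sm : ∀ k ∈ D, SmallR R m u k
  hρ : ∀ k ∈ D, ∀ y : reps (Te T) s pr, k ∈ (Te T).at_ (y : E3) → ρ y ≤ m k * R k
  hnb : ∀ k ∈ D, (nbT (Te T) k).ncard ≤ nb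
  hC : ∀ k ∈ D, P (T.H k) ⊆ C
  hpr : ∀ c : (Te T).Cell, c.dim = 2 → (Te T).at_ c.pt ⊆ D → pr c

theorem DeepS.zn {u : ℝ} (hu : 0 ≤ u) {C : Set R3} {M : ℝ≥0} {nb : ℕ} {D : Set ι}
    (h : DeepS T s pr R m ρ u C M nb D) {me : EgS (Te T) s → κe}
    (hme : ∀ c, w2 '' c.1.set = seg x v a (me c)) {k : s} (hk : (k : ι) ∈ D) {E : Set E3} {V : ℝ}
    (hV : ∀ y ∈ P (T.H (k : ι)), ∀ z ∈ P (T.H (k : ι)), ‖z - y‖ ≤ V)
    (hz : ∀ l, (P ((Te T).H l) ∩ cthickening (25 * (M : ℝ)^4 * u) E).Nonempty → l ∈ D) :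
    Zn T s pr R ρ m x v a me C nb (2 ^ nb) V k E u where
  hr := h.hρ k hk
  hn := (ncard_faces_le (Te T) s pr k).trans (h.hnb k hk)
  hnE := by
    classical
    have h1 := card_edges_le (Te T) s (k : ι)
    refine le_trans (le_of_eq ?_) (h1.trans (Nat.pow_le_pow_right (by norm_num) (h.hnb k hk)))
    rw [← Set.ncard_coe_finset]
    congr 1
    ext y
    rw [Finset.mem_coe, Finset.mem_filter]
    exact ⟨fun h => ⟨Finset.mem_univ _, h⟩, fun h => h.2⟩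
  hV := by
    intro c hc
    refine norm_v_le (a := a) (x := x) hV ?_
    rw [← hme c, ← image_P_Te]
    exact image_mono hc
  hC := by
    intro c hc
    rw [← hme c]
    refine (image_mono hc).trans ?_
    rw [image_P_Te]
    exact h.hC k hk
  hno := by
    rintro b ⟨z, hzb, hzk, hzE⟩
    refine b.2.2 (h.hpr b.1 b.2.1.1 fun l hl => hz l ⟨z, ?_, ?_⟩)
    · have h1 : z ∈ (Te T).cc b.1.pt := by rw [← b.1.set_eq]; exact hzb
      exact (Te T).at_sub_of_mem_cc h1 hl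
    · refine cthickening_mono ?_ _ hzE
      have h2 : (m k : ℝ) ≤ M := by exact_mod_cast h.hM k hk
      gcongr

/-- the energy of the tube of one edge from its pieces -/
theorem tube_of_pieces_En {p : ℝ} {G2 : Fin 3 → R3 → R3}
    {u : ℝ} (hu : 0 ≤ u) {x v : R3}
    {m : ℕ} {t : ℕ → ℝ} (ht0 : t 0 = 0) (htm : t m = 1) (ht : ∀ i < m, t i < t (i + 1))
    {κX : Type*} {PP : κX → Set (Fin 3 → ℝ)} (s : ℕ → Finset κX)
    (hcov : ∀ i < m, cthickening u (sg (w2.symm x + t i • w2.symm v)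
      ((t (i + 1) - t i) • w2.symm v)) ⊆ ⋃ k ∈ s i, PP k)
    {N : ℕ} (hN : ∑ i ∈ Finset.range m, (s i).card ≤ N) {A : ℝ≥0∞}
    (E : ∀ i < m, ∀ k ∈ s i, ∫⁻ z in PP k ∩ cthickening u (sg (w2.symm x + t i • w2.symm v)
        ((t (i + 1) - t i) • w2.symm v)), En p G2 (w2 z) ≤ A) :
    ∫⁻ y in Tb3 u x v, En p G2 y ≤ N * A := by
  unfold Tb3
  rw [int_w2']
  have hsub : cthickening u (sg (w2.symm x) (w2.symm v)) ⊆
      ⋃ q ∈ (Finset.range m).sigma s, (PP q.2 ∩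
        cthickening u (sg (w2.symm x + t q.1 • w2.symm v)
          ((t (q.1 + 1) - t q.1) • w2.symm v))) := by
    intro z hz
    obtain ⟨i, hi, hzi⟩ := mem_iUnion₂.1 (tube_pieces ht0 htm ht hu hz)
    obtain ⟨k, hk, hzk⟩ := mem_iUnion₂.1 (hcov i (Finset.mem_range.1 hi) hzi)
    exact mem_iUnion₂.2 ⟨⟨i, k⟩, Finset.mem_sigma.2 ⟨hi, hk⟩, hzk, hzi⟩
  refine (lintegral_mono_set hsub).trans ((lint_bU _ _ _).trans ?_)
  refine (Finset.sum_le_card_nsmul _ _ A fun q hq => ?_).trans ?_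
  · have hq' := Finset.mem_sigma.1 hq
    exact E q.1 (Finset.mem_range.1 hq'.1) q.2 hq'.2
  · rw [nsmul_eq_mul, Finset.card_sigma]
    gcongr

/-- **the right side of (E) in numbers**, shape number at most `M` -/
theorem energy_num' {p : ℝ} (hp1 : 1 ≤ p) (hp2 : p ≤ 2) {G : Fin 3 → R3 → R3} {L : R3 →L[ℝ] R3}
    (h : SysOf (Te T) s pr c R ρ m X)
    (hG : GoodA Om (En p G) x v e xx a)
    (hQ : ∀ φ, IsCompact (Q φ))
    {me : EgS (Te T) s → κe} {mf : FcS (Te T) s pr → κf}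
    (hme : ∀ c, w2 '' c.1.set = seg x v a (me c))
    (hmf : ∀ c, w2 '' c.1.set = pt (e (mf c)) (a + xx (mf c)) '' Q (mf c)) {B0 : Set R3}
    (hB0 : IsClosed B0) {C : Set R3} {n nE : ℕ} {V η' : ℝ} {k : s} {E : Set E3} {u : ℝ}
    (hZ : Zn T s pr R ρ m x v a me C n nE V k E u)
    (hg : ∀ i, ∫⁻ σ in Ioc (0:ℝ) 1, C.indicator (fun y => ‖Gmat G y - L‖ₑ ^ p)
      (a + x i + σ • v i) ≤ ENNReal.ofReal η') (hη' : ENNReal.ofReal η' ≤ ‖L‖ₑ ^ p)
    {K M : ℝ≥0} (hM : m k ≤ M) {cV V0 : ℝ} (hV0 : 0 ≤ V0) (hcV : 0 ≤ cV) (hV1 : 0 ≤ V)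
    (hVc : V ≤ cV * V0)
    {ε : ℝ≥0∞} (hε : ε ≤ ENNReal.ofReal (u^2 * V0) * ‖L‖ₑ ^ p) :
    ENNReal.ofReal (CE p K (m k)) * Jt (efLoc hG hQ hme hmf X h.rim h.Z hB0) k E u + ε ≤
      ENNReal.ofReal (AE p K M n nE cV * u^2 * V0) * ‖L‖ₑ ^ p := by
  have hCE := CE_nonneg (p := p) (by linarith) K M
  have hM' : (m k : ℝ) ≤ M := by exact_mod_cast hM
  have h1 := Jt_en_sys hp1 hp2 h hG hQ hme hmf hB0 hZ hg hη'
  have h2 : ENNReal.ofReal (34848 * (m k : ℝ)^9 * n * nE * V * u^2) * (12 * ‖L‖ₑ ^ p) ≤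
      ENNReal.ofReal (418176 * (M : ℝ)^9 * n * nE * cV * u^2 * V0) * ‖L‖ₑ ^ p := by
    rw [← mul_assoc, ← ENNReal.ofReal_ofNat 12, ← ENNReal.ofReal_mul' (by norm_num)]
    refine mul_le_mul' (ENNReal.ofReal_le_ofReal ?_) le_rfl
    calc 34848 * (m k : ℝ)^9 * n * nE * V * u^2 * 12 =
          418176 * (m k : ℝ)^9 * n * nE * u^2 * V := by ring
      _ ≤ 418176 * (M : ℝ)^9 * n * nE * u^2 * V := by gcongr
      _ ≤ 418176 * (M : ℝ)^9 * n * nE * u^2 * (cV * V0) := by gcongr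
      _ = _ := by ring
  calc _ ≤ ENNReal.ofReal (CE p K M) *
        (ENNReal.ofReal (418176 * (M : ℝ)^9 * n * nE * cV * u^2 * V0) * ‖L‖ₑ ^ p) +
        ENNReal.ofReal (u^2 * V0) * ‖L‖ₑ ^ p :=
        add_le_add (mul_le_mul' (ENNReal.ofReal_le_ofReal
          (CE_mono (by linarith) (by linarith) K hM)) (h1.trans h2)) hε
    _ = _ := by
        rw [← mul_assoc, ← ENNReal.ofReal_mul hCE, ← add_mul,
          ← ENNReal.ofReal_add (by positivity) (by positivity)]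
        congr 2
        unfold AE
        ring

open Classical in
/-- the tiles of `s` which meet the tube of a piece -/
def zT (T : Tiling OmR ι) (s : Finset ι) (u : ℝ) (E : Set E3) : Finset s :=
  Finset.univ.filter fun k : s => (P ((Te T).H (k : ι)) ∩ cthickening u E).Nonempty

/-- **LONG**: 82's LONG hypothesis for one edge `(y0, y0 + w0)` with the pieces `pc i`, all tiles at the
zones deep, from (E) of 622's `cob_T` -/
theorem long_T {p : ℝ} (hp1 : 1 ≤ p) (hp2 : p ≤ 2) {G G2 : Fin 3 → R3 → R3} {L : R3 →L[ℝ] R3}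
    (h : SysOf (Te T) s pr c R ρ m X)
    (hG : GoodA Om (En p G) x v e xx a)
    (hQ : ∀ φ, IsCompact (Q φ))
    {me : EgS (Te T) s → κe} {mf : FcS (Te T) s pr → κf}
    (hme : ∀ c, w2 '' c.1.set = seg x v a (me c))
    (hmf : ∀ c, w2 '' c.1.set = pt (e (mf c)) (a + xx (mf c)) '' Q (mf c))
    {C : Set R3} {η' : ℝ}
    (hg : ∀ i, ∫⁻ σ in Ioc (0:ℝ) 1, C.indicator (fun y => ‖Gmat G y - L‖ₑ ^ p)
      (a + x i + σ • v i) ≤ ENNReal.ofReal η') (hη' : ENNReal.ofReal η' ≤ ‖L‖ₑ ^ p)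
    {κ : ℝ} (hκ : 0 < κ) {k0 : ℕ} {u : ℝ} (hu : u = 4 * κ⁻¹ / (5 * 2 ^ k0)) {y0 w0 : R3}
    {m' : ℕ} {t : ℕ → ℝ} (ht0 : t 0 = 0) (htm : t m' = 1) (ht : ∀ i < m', t i < t (i + 1))
    (pc : ℕ → EgS (Te T) s)
    (hpc : ∀ i < m', (pc i).1.set =
      sg (w2.symm y0 + t i • w2.symm w0) ((t (i + 1) - t i) • w2.symm w0))
    {M : ℝ≥0} {nb : ℕ} {D : Set ι} (hD : DeepS T s pr R m ρ u C M nb D)
    (hM1 : 1 ≤ M)
    (hlong : ∀ i < m', ∀ l,
      (P ((Te T).H l) ∩ cthickening (25 * (M : ℝ)^4 * u) (pc i).1.set).Nonempty → l ∈ D)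
    (hOm : ∀ i < m', cthickening u (pc i).1.set ⊆ w2 ⁻¹' OmR)
    {cV : ℝ} (hcV : 0 ≤ cV)
    (hV : ∀ i < m', ∀ l, (P ((Te T).H l) ∩ cthickening u (pc i).1.set).Nonempty →
      ∀ y ∈ P (T.H l), ∀ z ∈ P (T.H l), ‖z - y‖ ≤ cV * ‖w0‖)
    {N : ℕ} (hN : ∑ i ∈ Finset.range m', (zT T s u (pc i).1.set).card ≤ N)
    {K : ℝ≥0} {ε : ℝ≥0∞} (hε : ε ≤ ENNReal.ofReal (u^2 * ‖w0‖) * ‖L‖ₑ ^ p)
    (hE : ∀ (c : EgS (Te T) s) (k : s), SmallR R m u k →
      ∫⁻ z in P ((Te T).H k) ∩ cthickening u c.1.set, En p G2 (w2 z) ≤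
      ENNReal.ofReal (CE p K (m k)) *
        Jt (efLoc hG hQ hme hmf X h.rim h.Z (isClosed_Bz c.1.set (25 * (m k : ℝ)^4 * u)))
          k c.1.set u + ε) :
    ∫⁻ y in Tb3 u y0 w0, En p G2 y ≤
      ENNReal.ofReal (c1L κ p K M nb (2 ^ nb) N cV * ‖L‖ ^ p * ‖w0‖ / 4 ^ k0) := by
  classical
  have hu0 : 0 ≤ u := by rw [hu]; positivity
  have hp0 : 0 ≤ p := by linarith
  have hCE := CE_nonneg (p := p) (by linarith) K M
  have hM1' : (1:ℝ) ≤ M := by exact_mod_cast hM1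
  have hM4 : u ≤ 25 * (M : ℝ)^4 * u := by
    have h1 : (1:ℝ) ≤ 25 * (M : ℝ)^4 := by
      have := one_le_pow₀ hM1' (n := 4)
      linarith
    nlinarith
  have key := tube_of_pieces_En (p := p) (G2 := G2) hu0 (x := y0) (v := w0) ht0 htm ht
    (PP := fun k : s => P ((Te T).H (k : ι)))
    (fun i => zT T s u (pc i).1.set) ?_ hN
    (A := ENNReal.ofReal (AE p K M nb (2 ^ nb) cV * u^2 * ‖w0‖) * ‖L‖ₑ ^ p) ?_
  · refine key.trans ?_
    have hAE : 0 ≤ AE p K M nb (2 ^ nb) cV := by unfold AE; positivity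
    have e1 : ‖L‖ₑ ^ p = ENNReal.ofReal (‖L‖ ^ p) := by
      rw [← ofReal_norm, ENNReal.ofReal_rpow_of_nonneg (norm_nonneg _) hp0]
    rw [e1, ← ENNReal.ofReal_natCast N,
      ← ENNReal.ofReal_mul (by positivity), ← ENNReal.ofReal_mul (by positivity)]
    refine ENNReal.ofReal_le_ofReal ?_
    have e2 : (4:ℝ) ^ k0 = (2 ^ k0) ^ 2 := by rw [← pow_mul, mul_comm, pow_mul]; norm_num
    have e3 : u ^ 2 = 16 / (25 * κ ^ 2 * 4 ^ k0) := by
      rw [hu, e2]; field_simp; ring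
    rw [e3]
    unfold c1L
    have h1 : 0 ≤ N * AE p K M nb (2 ^ nb) cV * ‖L‖ ^ p * ‖w0‖ / (κ ^ 2 * 4 ^ k0) := by
      positivity
    calc N * (AE p K M nb (2 ^ nb) cV * (16 / (25 * κ ^ 2 * 4 ^ k0)) * ‖w0‖ * ‖L‖ ^ p) =
          16 / 25 * (N * AE p K M nb (2 ^ nb) cV * ‖L‖ ^ p * ‖w0‖ / (κ ^ 2 * 4 ^ k0)) := by
          field_simp
      _ ≤ 2 * (N * AE p K M nb (2 ^ nb) cV * ‖L‖ ^ p * ‖w0‖ / (κ ^ 2 * 4 ^ k0)) := by
          gcongr; norm_num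
      _ = _ := by field_simp
  · intro i hi z hz
    rw [← hpc i hi] at hz
    have hzO : z ∈ (Crest.Agent.R96.En10_199.P3.symm : R3 ≃L[ℝ] E3).symm ⁻¹' OmR := hOm i hi hz
    obtain ⟨l, hl⟩ := (Te T).cov z hzO
    have hlD : l ∈ D := hlong i hi l ⟨z, hl, cthickening_mono hM4 _ hz⟩
    refine mem_iUnion₂.2 ⟨⟨l, hD.sub l hlD⟩, ?_, hl⟩
    exact Finset.mem_filter.2 ⟨Finset.mem_univ _, z, hl, hz⟩
  · intro i hi k hk
    have hk' := (Finset.mem_filter.1 hk).2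
    have hkD : (k : ι) ∈ D := by
      obtain ⟨z, hz1, hz2⟩ := hk'
      exact hlong i hi k ⟨z, hz1, cthickening_mono hM4 _ hz2⟩
    have h1 := hE (pc i) k (hD.sm k hkD)
    rw [← hpc i hi]
    refine h1.trans (energy_num' hp1 hp2 h hG hQ hme hmf (isClosed_Bz _ _)
      (hD.zn hu0 hme hkD (hV i hi k hk') (hlong i hi)) hg hη' (hD.hM k hkD) (norm_nonneg _) hcV
      (by positivity) le_rfl hε)

end

end Crest.Agent.R096.Sqt_143
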