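import Crest.Agent.R096.Ca20_855
import Crest.Agent.R096.Sqt17_143
import Crest.Agent.R096.Gsc5_476

/-!
# Row 96 (S0127), helper476: [D2] of 961 #11995: the deep tiles of `h.T a` form a `DeepS` (143)
-/

set_option autoImplicit false
set_option linter.unusedSectionVars false
set_option linter.style.longLine false

open Set Metric Filter Topology MeasureTheory
open scoped ENNReal NNReal

namespace Crest.Agent.R096.Dps_476

open Crest.AnalysisR.VecCalc3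
open Crest.Agent.R096.Msh_715 (P I Tiling)
open Crest.Agent.R096.Mal_874 (CB)
open Crest.Agent.R096.Sq_55 (E3 Sys w2 GG GG_mono)
open Crest.Agent.R096.Sqt_143 (DeepS)
open Crest.Agent.R096.Cob_622
open Crest.Agent.R096.Efi_296
open Crest.Agent.R096.Cbs_296
open Crest.Agent.R096.Ca_855
open Crest.Agent.R096.Gsc_476

noncomputable section

theorem nbT_Te {Om : Set R3} {ι : Type*} (T : Tiling Om ι) (k : ι) :
    nbT (Te T) k = {l | (P (T.H l) ∩ P (T.H k)).Nonempty} := by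
  ext l
  constructor
  · rintro ⟨x, h1, h2⟩
    exact ⟨w2 x, mem_P_Te.1 h1, mem_P_Te.1 h2⟩
  · rintro ⟨x, h1, h2⟩
    refine ⟨w2.symm x, mem_P_Te.2 ?_, mem_P_Te.2 ?_⟩
    · rwa [w2.apply_symm_apply]
    · rwa [w2.apply_symm_apply]

/-- two tiles at a point of `reps` are neighbours -/
theorem nbr_of_reps {Om : Set R3} {ι : Type*} {T : Tiling Om ι} {x : E3} {k l : ι}
    (hk : k ∈ (Te T).at_ x) (hl : l ∈ (Te T).at_ x) : (P (T.H k) ∩ P (T.H l)).Nonempty :=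
  ⟨w2 x, mem_P_Te.1 hk, mem_P_Te.1 hl⟩

variable {Om W : Set R3} {ρ₀ : R3 → ℝ} {J : Type} {Qb : J → CB R3 3} {k0 : ℕ} {σ : ℝ}
  [Finite J]

/-- the deep tiles of the block `j` -/
def deepJ (h : MIn Om W ρ₀ Qb k0 σ) (a : R3) (j : J) (K1 : ℕ) : Set (h.ιT a) :=
  {t | P ((h.T a).H t) ⊆ ((Qb j).tr a).N ∧ sclT h a t + K1 ≤ k0}

theorem deepJ_sub (h : MIn Om W ρ₀ Qb k0 σ) {a : R3} {kk : J → Fin 3 → ℤ}
    {Q : Finset (Fin 3 → ℤ)} {j : J} (hj : kk j ∈ Q) {K1 : ℕ} :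
    deepJ h a j K1 ⊆ deepT h a kk Q K1 := fun _ ht => ⟨j, hj, ht.1, ht.2⟩

/-- the neighbours of a deep tile -/
theorem nbr_deepJ (h : MIn Om W ρ₀ Qb k0 σ) {a : R3} (ha : ‖a‖ ≤ σ / 8) {j : J} {K1 : ℕ}
    (hK : 1 ≤ K1) {t t' : h.ιT a} (ht : t ∈ deepJ h a j (K1 + 1))
    (htt : (P ((h.T a).H t) ∩ P ((h.T a).H t')).Nonempty) : t' ∈ deepJ h a j K1 := by
  have h1 := sclT_nbr h htt
  have h2 := ht.2
  exact ⟨nbr_inT h ha ht.1 (by omega) htt, by omega⟩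

/-- **[D2]** -/
theorem deepS_T (h : MIn Om W ρ₀ Qb k0 σ) {a : R3} (ha : ‖a‖ ≤ σ / 8) {j : J} {K1 K3 : ℕ}
    (hK3 : 1 ≤ K3) (hK13 : K3 + 1 ≤ K1)
    -- the tiles of the system
    {s : Finset (h.ιT a)} {K₀ : Set R3} (hs : ∀ i, (P ((h.T a).H i) ∩ K₀).Nonempty → i ∈ s)
    (hK₀ : ((Qb j).tr a).N ⊆ K₀)
    -- the squeezed 2-cells
    {pr : (Te (h.T a)).Cell → Prop}
    (hpr : ∀ c : (Te (h.T a)).Cell, c.dim = 2 → (∀ k ∈ (Te (h.T a)).at_ c.pt, k ∈ s) →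
      (Te (h.T a)).at_ c.pt ⊆ deepJ h a j K1 → pr c)
    -- sizes and shape numbers
    {R u : h.ιT a → ℝ≥0} {κt : h.ιT a → ℕ}
    (hκt : ∀ t, κt t ≤ sclT h a t + 1)
    (hR : ∀ t, R t = ((2:ℝ≥0) ^ κt t)⁻¹)
    (hR2 : ∀ k l, (P ((h.T a).H k) ∩ P ((h.T a).H l)).Nonempty →
      R k ≤ u k * R l ∧ R l ≤ u k * R k)
    {vI : ℝ≥0} (hu : ∀ t ∈ deepJ h a j K3, u t ≤ vI)
    {nb : ℕ} (hnb : ∀ t, {l | (P ((h.T a).H l) ∩ P ((h.T a).H t)).Nonempty}.ncard ≤ nb)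
    {C : Set R3} (hC : ((Qb j).tr a).N ⊆ C)
    {uu cu : ℝ} (hcu : 0 ≤ cu) (huu : uu ≤ cu / 2 ^ k0) (hsm : 80 * (GG vI : ℝ) ^ 4 * cu ≤ 2 ^ K1) :
    DeepS (h.T a) s pr R (mS (Te (h.T a)) s pr u) (ρS (Te (h.T a)) R) uu C (GG vI) nb
      (deepJ h a j K1) := by
  have hsub : ∀ k ∈ deepJ h a j K1, k ∈ s := by
    intro k hk
    obtain ⟨x, hx⟩ := (h.T a).ne k
    have hx := Msh_715.I_sub_P _ hx
    exact hs k ⟨x, hx, hK₀ (hk.1 hx)⟩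
  have hM : ∀ k ∈ deepJ h a j K1, mS (Te (h.T a)) s pr u k ≤ GG vI := by
    intro k hk
    have h0 : k ∈ deepJ h a j (K3 + 1) := ⟨hk.1, by have := hk.2; omega⟩
    refine mS_le (hu k ⟨hk.1, by have := hk.2; omega⟩) ?_
    rintro l - ⟨x, -, hkx, hlx⟩
    exact hu l (nbr_deepJ h ha hK3 h0 (nbr_of_reps hkx hlx))
  refine ⟨hsub, hM, ?_, ?_, ?_, fun k hk => hk.1.trans hC, ?_⟩
  · intro k hk
    show 40 * (mS (Te (h.T a)) s pr u k : ℝ) ^ 4 * uu ≤ R k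
    have h1 : (mS (Te (h.T a)) s pr u k : ℝ) ≤ GG vI := by exact_mod_cast hM k hk
    have h2 : ((R k : ℝ≥0) : ℝ) = ((2:ℝ) ^ κt k)⁻¹ := by rw [hR]; push_cast; rfl
    rw [h2]
    have hp : (0:ℝ) < 2 ^ κt k := by positivity
    have hp0 : (0:ℝ) < 2 ^ k0 := by positivity
    have h3 : 2 ^ K1 * (2:ℝ) ^ κt k ≤ 2 * 2 ^ k0 := by
      rw [← pow_add, ← pow_succ']
      have := hk.2
      have := hκt k
      exact pow_le_pow_right₀ one_le_two (by omega)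
    have hm0 : 0 ≤ (mS (Te (h.T a)) s pr u k : ℝ) := NNReal.coe_nonneg _
    have h4 : 40 * (mS (Te (h.T a)) s pr u k : ℝ) ^ 4 * uu ≤ 40 * (GG vI : ℝ) ^ 4 * (cu / 2 ^ k0) :=
      calc 40 * (mS (Te (h.T a)) s pr u k : ℝ) ^ 4 * uu ≤
          40 * (mS (Te (h.T a)) s pr u k : ℝ) ^ 4 * (cu / 2 ^ k0) := by gcongr
        _ ≤ 40 * (GG vI : ℝ) ^ 4 * (cu / 2 ^ k0) := by gcongr
    refine h4.trans ?_
    rw [← one_div, le_div_iff₀ hp, ← mul_div_assoc, div_mul_eq_mul_div, div_le_one hp0]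
    have h5 := mul_le_mul_of_nonneg_right hsm hp.le
    nlinarith
  · intro k hk y hy
    exact (hρ_of (fun x hx k hk l hl => hR2 k l (nbr_of_reps hk hl)) y.2 hy).2
  · intro k hk
    rw [nbT_Te]
    exact hnb k
  · intro c hc hcD
    exact hpr c hc (fun k hk => hsub k (hcD hk)) hcD

/-- the choice of `K1` -/
theorem exists_K1 (A : ℝ) (K3 : ℕ) : ∃ K1 : ℕ, K3 + 1 ≤ K1 ∧ 4 ≤ K1 ∧ A ≤ 2 ^ K1 := by
  obtain ⟨N, hN⟩ := pow_unbounded_of_one_lt A (one_lt_two : (1 : ℝ) < 2)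
  refine ⟨N + (K3 + 4), by omega, by omega, hN.le.trans ?_⟩
  exact pow_le_pow_right₀ (by norm_num) (by omega)

end

end Crest.Agent.R096.Dps_476
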