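/-
helper622, row 96, `OneP`, part 1: the format `O1` of the block estimates and its combination with
`cob_T`.
-/
import Crest.Agent.R096.Cob10_622

set_option autoImplicit false
set_option linter.unusedSectionVars false
set_option linter.style.longLine false

open Set Metric Filter Topology MeasureTheory
open scoped ENNReal NNReal

namespace Crest.Agent.R096.Onp_622

open Crest.Agent.R096.Ce_537 Crest.Agent.R096.Bd_416 Crest.Agent.R96.Hole_348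
open Crest.AnalysisR.VecCalc3 Crest.AnalysisR.Sobolev Crest.Agent.R096.Sk_962
open Crest.Agent.R096.Msh_715 (P I Tiling)
open Crest.Agent.R096.Sq_55
open Crest.Agent.R096.Sqt_143 (cu sg Edge OnC OnF CT)
open Crest.Agent.R096.Efi_296
open Crest.Agent.R096.Cbs_296
open Crest.Agent.R96.Coarse_538 (seg)
open Crest.Agent.R096.Fce_793 (pt cc)
open Crest.Agent.R96.En10_199 (P3)
open Crest.Agent.R96.Lu_538 (Gmat)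
open Crest.Agent.R096.Cob_622

noncomputable section

variable {Om La : Set R3} {ι : Type*} {T : Tiling Om ι} {κe κf : Type*}
  {x v : κe → R3} {e : κf → Fin 2 → R3} {xx : κf → R3} {a : R3} {Qf : κf → Set (ℝ × ℝ)}
  {s : Finset ι} {pr : (Te T).Cell → Prop}
  {c : ι → E3} {R : ι → ℝ≥0} {ρ : E3 → ℝ≥0} {m : ι → ℝ≥0} {X : Sys s (reps (Te T) s pr)}

/-- the clause (cells) of `cob_T` -/
def CellsC (T : Tiling Om ι) (s : Finset ι) (pr : (Te T).Cell → Prop) (m : ι → ℝ≥0)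
    {X : Sys s (reps (Te T) s pr)} {p : ℝ} {G : Fin 3 → R3 → R3}
    (D : EF X Om (En p G) (EgS (Te T) s) (FcS (Te T) s pr)) (K : ℝ≥0) (ε : ℝ≥0∞)
    (G₂ : Fin 3 → R3 → R3) : Prop :=
  ∀ k : s, (p < 2 ∨ ∀ y ∈ reps (Te T) s pr, (k : ι) ∉ (Te T).at_ y) →
    ∫⁻ x in P (T.H k), En p G₂ x ≤ ENNReal.ofReal (CB p K (m k)) * D.J k + ε

/-- the clause (E1) of `cob_T` -/
def E1C {p : ℝ} {G : Fin 3 → R3 → R3} (hQ : ∀ φ, IsCompact (Qf φ))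
    {me : EgS (Te T) s → κe} {mf : FcS (Te T) s pr → κf}
    (hme : ∀ c, w2 '' c.1.set = seg x v a (me c))
    (hmf : ∀ c, w2 '' c.1.set = pt (e (mf c)) (a + xx (mf c)) '' Qf (mf c))
    (hG : GoodA Om (En p G) x v e xx a) (h : SysOf (Te T) s pr c R ρ m X) (K : ℝ≥0) (u : ℝ)
    (ε : ℝ≥0∞) (G₂ : Fin 3 → R3 → R3) : Prop :=
  ∀ (c : EgS (Te T) s) (k : s), SmallR R m u k →
    ∫⁻ x in P ((Te T).H k) ∩ cthickening u c.1.set, En p G₂ (w2 x) ≤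
      ENNReal.ofReal (CE p K (m k)) *
        Jt (efLoc hG hQ hme hmf X h.rim h.Z (isClosed_Bz c.1.set (25 * (m k : ℝ)^4 * u)))
          k c.1.set u + ε

/-- the clause (E2) of `cob_T` -/
def E2C (T : Tiling Om ι) (s : Finset ι) (pr : (Te T).Cell → Prop) (R m : ι → ℝ≥0)
    {X : Sys s (reps (Te T) s pr)} {p : ℝ} {G : Fin 3 → R3 → R3}
    (D : EF X Om (En p G) (EgS (Te T) s) (FcS (Te T) s pr)) (K : ℝ≥0) (u : ℝ) (ε : ℝ≥0∞)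
    (G₂ : Fin 3 → R3 → R3) : Prop :=
  ∀ (c : EgS (Te T) s) (k : s), SmallR R m u k →
    ∫⁻ x in P ((Te T).H k) ∩ cthickening u c.1.set, En p G₂ (w2 x) ≤
      ENNReal.ofReal (CE p K (m k)) * D.J k + ε

/-- the clause (N) of `cob_T` -/
def NC {p : ℝ} {G : Fin 3 → R3 → R3} (hQ : ∀ φ, IsCompact (Qf φ))
    {me : EgS (Te T) s → κe} {mf : FcS (Te T) s pr → κf}
    (hme : ∀ c, w2 '' c.1.set = seg x v a (me c))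
    (hmf : ∀ c, w2 '' c.1.set = pt (e (mf c)) (a + xx (mf c)) '' Qf (mf c))
    {Lx : Type*} {LL : Lx → R3 →L[ℝ] R3}
    (hGL : ∀ l, GoodA Om (fun y => ‖Gmat G y - LL l‖ₑ ^ p) x v e xx a)
    (h : SysOf (Te T) s pr c R ρ m X) (u : ℝ) {Sn : Set (EgS (Te T) s)}
    (np : ∀ c : Sn, NP X m u c.1.1) (ε : ℝ≥0∞) (Gg : Fin 3 → R3 → R3) : Prop :=
  ∀ (c : Sn) (k : s) (l : Lx), SmallR R m u k → NoF T s pr m u c.1.1 k →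
    ∫⁻ x in P ((Te T).H k) ∩ cthickening u c.1.1.set,
      ‖Gmat Gg (w2 x) (w2 (np c).v0) - LL l (w2 (np c).v0)‖ₑ ^ p ≤
    ENNReal.ofReal ((2 * (2113 * (m k : ℝ)^4 * ‖w2 (np c).v0‖))^p) *
      (ENNReal.ofReal (CT p (m k)) *
        Jt (efLoc (hGL l) hQ hme hmf X h.rim h.Z
          (isClosed_Bz c.1.1.set (25 * (m k : ℝ)^4 * u))) k c.1.1.set u +
      ‖LL l‖ₑ ^ p * (nW X (np c).a0 (np c).v0 (np c).n *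
        ENNReal.ofReal ((2 * ((1 + (np c).b0 * (1 + 4 * (((np c).M : ℝ) * (np c).M)) *
          ‖(np c).v0‖) * u))^3))) + ε

/-- **(O1)**: the block estimates follow from the clauses of `cob_T`, if `δ` and `ε` are small -/
def O1 {p : ℝ} {G : Fin 3 → R3 → R3} (La : Set R3) (hQ : ∀ φ, IsCompact (Qf φ))
    {me : EgS (Te T) s → κe} {mf : FcS (Te T) s pr → κf}
    (hme : ∀ c, w2 '' c.1.set = seg x v a (me c))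
    (hmf : ∀ c, w2 '' c.1.set = pt (e (mf c)) (a + xx (mf c)) '' Qf (mf c))
    (hG : GoodA Om (En p G) x v e xx a)
    {Lx : Type*} {LL : Lx → R3 →L[ℝ] R3}
    (hGL : ∀ l, GoodA Om (fun y => ‖Gmat G y - LL l‖ₑ ^ p) x v e xx a)
    (h : SysOf (Te T) s pr c R ρ m X) (f : R3 → R3) (Φ : R3 ≃ₜ R3) (K : ℝ≥0)
    (Pr : (R3 ≃ₜ R3) → Prop) (D : EF X Om (En p G) (EgS (Te T) s) (FcS (Te T) s pr)) (u : ℝ)
    (Concl : ℝ≥0∞ → (R3 → R3) → (Fin 3 → R3 → R3) → Prop) : Prop :=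
  ∃ (Sn : Set (EgS (Te T) s)) (np : ∀ c : Sn, NP X m u c.1.1) (δ₀ : ℝ) (ε₀ : ℝ≥0∞), 0 < δ₀ ∧
    ε₀ ≠ 0 ∧ ∀ ε ≤ ε₀, ∀ δ < δ₀, ∀ (hA : X.Adm p δ) (N₁ N₂ : ℕ) (Rr : R3 ≃ₜ R3)
      (Gg G₂ : Fin 3 → R3 → R3), Pr Rr → LipschitzWith K Rr → (∀ y, Rr y ∈ La ↔ y ∈ La) →
      SH p Om La (fun x => f (Φ (toR (Sys.chi hA (N₁+1) (N₂+1)) x))) Gg →
      SH p Om La (fun x => Rr (f (Φ (toR (Sys.chi hA (N₁+1) (N₂+1)) x)))) G₂ →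
      CellsC T s pr m D K ε G₂ → E1C hQ hme hmf hG h K u ε G₂ → E2C T s pr R m D K u ε G₂ →
      NC hQ hme hmf hGL h u np ε Gg →
      Concl ε (fun x => Rr (f (Φ (toR (Sys.chi hA (N₁+1) (N₂+1)) x)))) G₂

/-- **`cob_T` with (O1)** -/
theorem cob_O1 {p : ℝ} (hp : 1 ≤ p) (hp3 : p < 3) {f : R3 → R3} {G : Fin 3 → R3 → R3}
    (hOm : IsOpen Om) (hvol : volume Om ≠ ∞) (hf : SH p Om La f G)
    (hQ : ∀ φ, IsCompact (Qf φ)) {me : EgS (Te T) s → κe} {mf : FcS (Te T) s pr → κf}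
    (hme : ∀ c, w2 '' c.1.set = seg x v a (me c))
    (hmf : ∀ c, w2 '' c.1.set = pt (e (mf c)) (a + xx (mf c)) '' Qf (mf c))
    (hG : GoodA Om (En p G) x v e xx a)
    {Lx : Type*} [Finite Lx] {LL : Lx → R3 →L[ℝ] R3}
    (hGL : ∀ l, GoodA Om (fun y => ‖Gmat G y - LL l‖ₑ ^ p) x v e xx a)
    (h : SysOf (Te T) s pr c R ρ m X)
    (hpr : ∀ c : (Te T).Cell, pr c → ∀ k ∈ (Te T).at_ c.pt, k ∈ s)
    (hρ : ∀ x ∈ reps (Te T) s pr, ∀ k ∈ (Te T).at_ x, k ∈ s → R k ≤ m k * ρ x)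
    (Φ : R3 ≃ₜ R3) (hΦ1 : PLOn Φ univ) (hΦ2 : PLOn Φ.symm univ) (hΦ : ∀ x, Φ x ∈ Om ↔ x ∈ Om)
    (hsupp : ∀ x, (∀ k ∈ s, x ∉ P (T.H k)) → Φ x = x)
    (hsk : ∀ y ∈ Om, T.dim y ≤ 1 → ∀ᶠ w in 𝓝 y, Φ w = w)
    (K : ℝ≥0) {U : Set R3} (hU : IsOpen U)
    (hgF : ∀ b ∈ FcS (Te T) s pr, ∀ z ∈ b.set, Good Φ f U (w2 z))
    {Pr : (R3 ≃ₜ R3) → Prop}
    (hR : ∀ θ : ℝ, 0 < θ → ∃ (Rr : R3 ≃ₜ R3) (C : ℝ), LipschitzWith K Rr ∧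
      (∀ y, Rr y ∈ La ↔ y ∈ La) ∧ (∀ y, ‖Rr y - y‖ ≤ C) ∧
      (∀ y ∈ U, ∀ ε > 0, ∀ᶠ z in 𝓝 y, ‖Rr z - Rr y‖ ≤ (θ + ε) * ‖z - y‖) ∧ Pr Rr)
    (D : EF X Om (En p G) (EgS (Te T) s) (FcS (Te T) s pr)) {u : ℝ} (hu : 0 < u)
    {Concl : ℝ≥0∞ → (R3 → R3) → (Fin 3 → R3 → R3) → Prop}
    (hO : O1 La hQ hme hmf hG hGL h f Φ K Pr D u Concl)
    {ε₁ : ℝ≥0∞} (hε₁ : ε₁ ≠ 0) :
    ∃ ε ≤ ε₁, ∃ (δ : ℝ) (hA : X.Adm p δ) (N₁ N₂ : ℕ) (Rr : R3 ≃ₜ R3) (G₂ : Fin 3 → R3 → R3),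
      Pr Rr ∧ SH p Om La (fun x => Rr (f (Φ (toR (Sys.chi hA (N₁+1) (N₂+1)) x)))) G₂ ∧
      (∀ S : Set R3, MeasurableSet S → S ⊆ Om → (∀ x ∈ S, x ∉ w2 '' (⋃ k, (X.C k).P)) →
        ∫⁻ x in S, En p G₂ x ≤
          ENNReal.ofReal ((6:ℝ)^p * (3 * (9 * K)^p)) * (∫⁻ x in S, En p G x) + ε) ∧
      (∀ k, (p < 2 ∨ ∀ j, ¬ ((X.F j).V ∩ (X.C k).P).Nonempty) →
        ∫⁻ x in (X.C k).P, En p G₂ (w2 x) ≤ ENNReal.ofReal (CB p K (X.m k)) * D.J k + ε) ∧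
      Concl ε (fun x => Rr (f (Φ (toR (Sys.chi hA (N₁+1) (N₂+1)) x)))) G₂ := by
  obtain ⟨Sn, np, δ₀, ε₀, hδ₀, hε₀, hO⟩ := hO
  have hε : min ε₀ ε₁ ≠ 0 := by
    rcases min_choice ε₀ ε₁ with h1 | h1 <;> rw [h1] <;> assumption
  obtain ⟨δ, hδ, hA, N₁, N₂, Rr, Gg, G₂, k1, k2, k3, k4, k5, k6, k7, k8, k9, k10, k11, k12⟩ :=
    cob_T hp hp3 hOm hvol hf hQ hme hmf hG hGL h hpr hρ Φ hΦ1 hΦ2 hΦ hsupp hsk K hU hgF hR D hu np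
      hε hδ₀
  exact ⟨min ε₀ ε₁, min_le_right _ _, δ, hA, N₁, N₂, Rr, G₂, k1, k5, k11, k12,
    hO _ (min_le_left _ _) δ hδ hA N₁ N₂ Rr Gg G₂ k1 k2 k3 k4 k5 k7 k8 k9 k10⟩

end

end Crest.Agent.R096.Onp_622
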