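/-
helper622, row 96, `OneP`, part 2: `SetD` = the data of the system of composite B over the tiles of
`h.T a` (definitions only).
-/
import Crest.Agent.R096.Onp1_622
import Crest.Agent.R096.Ca20_855
import Crest.Agent.R096.Dps1_476
import Crest.Agent.R96.Eld1_538

set_option autoImplicit false
set_option linter.unusedSectionVars false
set_option linter.style.longLine false

open Set Metric Filter Topology MeasureTheory
open scoped ENNReal NNReal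

namespace Crest.Agent.R096.Onp_622

open Crest.Agent.R096.Ce_537 Crest.Agent.R096.Bd_416 Crest.Agent.R96.Hole_348
open Crest.AnalysisR.VecCalc3 Crest.AnalysisR.Sobolev Crest.Agent.R096.Sk_962
open Crest.Agent.R096.Msh_715 (P I Tiling)
open Crest.Agent.R096.Mal_874 (CB)
open Crest.Agent.R096.Sq_55
open Crest.Agent.R096.Sqt_143 (cu sg Edge OnC OnF CT)
open Crest.Agent.R096.Efi_296
open Crest.Agent.R096.Cbs_296
open Crest.Agent.R096.Ca_855 (MIn deepT)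
open Crest.Agent.R096.Dps_476 (deepJ)
open Crest.Agent.R096.Gsc_476 (sclT)
open Crest.Agent.R096.Cob_622
open Crest.Agent.R96.Eld_538 (Cl1)

noncomputable section

variable {Om W : Set R3} {ρ₀ : R3 → ℝ} {J : Type} [Finite J] {Qb : J → CB R3 3} {k0 : ℕ} {σ : ℝ}

/-- **the data of the system of composite B at one position**: `s` = tiles of the system (⊇ the tiles
which meet the support of `Φ` or `K₀`), `pr` = squeezed 2-cells, `R t = 2 ^ (-κt t)` sizes, `u t` = shape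
numbers in three levels (`vU` universal, `vI` from `κ Bs`, `vN` from the net), `K1` = depth of the deep
tiles, `K3` = depth for `vI` -/
structure SetD (p : ℝ) (h : MIn Om W ρ₀ Qb k0 σ) (a : R3) (kk : J → Fin 3 → ℤ)
    (Q : Finset (Fin 3 → ℤ)) (K1 K3 : ℕ) (vU vI vN : ℝ≥0) (f : R3 → R3) (Φ : R3 ≃ₜ R3)
    (U K₀ : Set R3) (s : Finset (h.ιT a)) (pr : (Te (h.T a)).Cell → Prop) (c : h.ιT a → E3)
    (κt : h.ιT a → ℕ) (R u : h.ιT a → ℝ≥0) (X : Sys s (reps (Te (h.T a)) s pr)) : Prop where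
  sys : SysOf (Te (h.T a)) s pr c R (ρS (Te (h.T a)) R) (mS (Te (h.T a)) s pr u) X
  edge : ∀ (i : h.ιT a) (x a' v' : E3) (w : ℝ≥0), i ∈ s → x ∈ P ((Te (h.T a)).H i) →
    (Te (h.T a)).dim x = 1 → (Te (h.T a)).cc x = segment ℝ a' (a' + v') → 1 ≤ w →
    (∀ k ∈ s, (P ((Te (h.T a)).H k) ∩ P ((Te (h.T a)).H i)).Nonempty →
      u k ≤ w ∧ R k ≤ w * R i ∧ R i ≤ w * R k) →
    Edge X a' v' (R i / (8 * w^9)) (8 * w^9 / R i) ⌊w⌋₊
  κ1 : ∀ t, sclT h a t ≤ κt t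
  κ2 : ∀ t, κt t ≤ sclT h a t + 1
  R_eq : ∀ t, R t = ((2:ℝ≥0) ^ κt t)⁻¹
  R2 : ∀ k l, (P ((h.T a).H k) ∩ P ((h.T a).H l)).Nonempty → R k ≤ u k * R l ∧ R l ≤ u k * R k
  u1 : ∀ t, 1 ≤ u t
  uU : ∀ t, Cl1 h 3 a t → u t ≤ vU
  uI : ∀ j, ∀ t ∈ deepJ h a j K3, u t ≤ vI
  uN : ∀ t, u t ≤ vN
  supp : ∀ x, (∀ k ∈ s, x ∉ P ((h.T a).H k)) → Φ x = x
  mem_s : ∀ t, (P ((h.T a).H t) ∩ K₀).Nonempty → t ∈ s
  pr_s : ∀ c, pr c → ∀ k ∈ (Te (h.T a)).at_ c.pt, k ∈ s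
  pr_d : ∀ c, pr c → p < 2 ∨ ∀ k ∈ (Te (h.T a)).at_ c.pt, k ∈ deepT h a kk Q K1
  pr_of : ∀ c : (Te (h.T a)).Cell, c.dim = 2 → (∀ k ∈ (Te (h.T a)).at_ c.pt, k ∈ s) →
    (p < 2 ∨ ∀ k ∈ (Te (h.T a)).at_ c.pt, k ∈ deepT h a kk Q K1) → pr c
  good : ∀ b ∈ FcS (Te (h.T a)) s pr, ∀ z ∈ b.set, Good Φ f U (w2 z)

end

end Crest.Agent.R096.Onp_622
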