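import Crest.Agent.R096.Ca21_855
import Crest.Agent.R096.Onp2_622

/-!
# Row 96 (S0127), helper855: `AdE` (538) from `SetD` (622) and the shape numbers.
-/

set_option autoImplicit false
set_option linter.unusedSectionVars false
set_option linter.style.longLine false

open Set Metric Topology Filter MeasureTheory
open scoped ENNReal NNReal

namespace Crest.Agent.R096.Ca_855

open Crest.AnalysisR.VecCalc3
open Crest.Agent.R096.Msh_715 (Tiling P I I_sub_P)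
open Crest.Agent.R096.Mal_874 (CB)
open Crest.Agent.R096.Br_695 (En)
open Crest.Agent.R096.Sq_55 (E3 Sys Face FaceOf w2 GG Shp Shp2)
open Crest.Agent.R096.Cob_622 (EF)
open Crest.Agent.R096.Efi_296 (Te reps mem_reps EgS FcS GoodA)
open Crest.Agent.R096.Cbs_296 (SysOf efS ρS mS)
open Crest.Agent.R96.En10_199 (P3)
open Crest.Agent.R96.Coarse_538 (seg)
open Crest.Agent.R096.Fce_793 (pt cc)
open Crest.Agent.R96.Eld_538 (Cl1 AdE)
open Crest.Agent.R096.Pas_753 (AllC)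
open Crest.Agent.R096.Onp_622 (SetD)

noncomputable section

variable {Om W : Set R3} {ρ₀ : R3 → ℝ} {J : Type} [Finite J] {Qb : J → CB R3 3} {k0 : ℕ} {σ : ℝ}

/-- larger bounds -/
theorem AdE.mono' {p : ℝ} {h : MIn Om W ρ₀ Qb k0 σ} {G : Fin 3 → R3 → R3} {mU mN mU' mN' : ℝ≥0}
    {a : R3} {s : Finset (h.ιT a)} {pr : (Te (h.T a)).Cell → Prop} {c : h.ιT a → E3}
    {R : h.ιT a → ℝ≥0} {ρ : E3 → ℝ≥0} {m : h.ιT a → ℝ≥0} {X : Sys s (reps (Te (h.T a)) s pr)}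
    {D : EF X Om (En p G) (EgS (Te (h.T a)) s) (FcS (Te (h.T a)) s pr)}
    (H : AdE p h G mU mN a s pr c R ρ m X D) (h1 : mU ≤ mU') (h2 : mN ≤ mN') :
    AdE p h G mU' mN' a s pr c R ρ m X D where
  sys := H.sys
  fc := H.fc
  rim := H.rim
  Ee := H.Ee
  Ef := H.Ef
  ρle := H.ρle
  mle k hk := (H.mle k hk).trans h2
  mleU k hk hc := (H.mleU k hk hc).trans h1
  Rd k hk := by
    obtain ⟨y, hy, y', hy', h3⟩ := H.Rd k hk
    refine ⟨y, hy, y', hy', h3.trans ?_⟩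
    gcongr
  RdU k hk hc := by
    obtain ⟨y, hy, y', hy', h3⟩ := H.RdU k hk hc
    refine ⟨y, hy, y', hy', h3.trans ?_⟩
    gcongr
  Re k hk x hx hd y w hs := by
    refine (H.Re k hk x hx hd y w hs).trans ?_
    gcongr

/-- the ratio of the sizes at a squeezed 2-cell -/
theorem hR_of {h : MIn Om W ρ₀ Qb k0 σ} {a : R3} {R u : h.ιT a → ℝ≥0}
    (hR : ∀ k l, (P ((h.T a).H k) ∩ P ((h.T a).H l)).Nonempty → R k ≤ u k * R l ∧ R l ≤ u k * R k)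
    (x : E3) (k : h.ιT a) (hk : k ∈ (Te (h.T a)).at_ x) (l : h.ιT a)
    (hl : l ∈ (Te (h.T a)).at_ x) : R k ≤ u k * R l ∧ R l ≤ u k * R k :=
  hR k l ⟨w2 x, Cbs_296.mem_P_Te.1 hk, Cbs_296.mem_P_Te.1 hl⟩

/-- **`AdE` from `SetD`** -/
theorem adE_set {p : ℝ} {h : MIn Om W ρ₀ Qb k0 σ} {a : R3} {kk : J → Fin 3 → ℤ}
    {Q : Finset (Fin 3 → ℤ)} {K1 K3 : ℕ} {vU vI vN : ℝ≥0} {f : R3 → R3} {Φ : R3 ≃ₜ R3}
    {U K₀ : Set R3} {s : Finset (h.ιT a)} {pr : (Te (h.T a)).Cell → Prop} {c : h.ιT a → E3}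
    {κt : h.ιT a → ℕ} {R u : h.ιT a → ℝ≥0} {X : Sys s (reps (Te (h.T a)) s pr)}
    (H : SetD p h a kk Q K1 K3 vU vI vN f Φ U K₀ s pr c κt R u X)
    {B : h.ιT a → E3 ≃ᵃ[ℝ] E3} (hS : ∀ t, Shp2 (Te (h.T a)) t (B t) (R t) (u t))
    {mU mN : ℝ≥0} (hmU : GG vU ≤ mU) (hmN : GG vN ≤ mN) {G : Fin 3 → R3 → R3}
    {κe κf : Type} {x' v' : κe → R3} {e' : κf → Fin 2 → R3} {xx' : κf → R3}
    {Qf' : κf → Set (ℝ × ℝ)} (hA : AllC h x' v' e' xx' Qf')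
    (hG : GoodA Om (En p G) x' v' e' xx' a)
    {me : EgS (Te (h.T a)) s → κe} {mf : FcS (Te (h.T a)) s pr → κf}
    (hme : ∀ c, w2 '' c.1.set = seg x' v' a (me c))
    (hmf : ∀ c, w2 '' c.1.set = pt (e' (mf c)) (a + xx' (mf c)) '' Qf' (mf c)) :
    AdE p h G mU mN a s pr c R (ρS (Te (h.T a)) R) (mS (Te (h.T a)) s pr u) X
      (efS hG hA.cpt hme hmf X H.sys.rim H.sys.Z) :=
  AdE.mono' (adE_of h H.sys (fun i _ => hS i) (fun x _ => hR_of H.R2 x) (fun i _ => H.uN i)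
    (fun i _ hc => H.uU i hc) hA hG hme hmf) hmU hmN

/-- the same with the energy data of record, `Q` compact as an argument -/
theorem adE_set' {p : ℝ} {h : MIn Om W ρ₀ Qb k0 σ} {a : R3} {kk : J → Fin 3 → ℤ}
    {Q : Finset (Fin 3 → ℤ)} {K1 K3 : ℕ} {vU vI vN : ℝ≥0} {f : R3 → R3} {Φ : R3 ≃ₜ R3}
    {U K₀ : Set R3} {s : Finset (h.ιT a)} {pr : (Te (h.T a)).Cell → Prop} {c : h.ιT a → E3}
    {κt : h.ιT a → ℕ} {R u : h.ιT a → ℝ≥0} {X : Sys s (reps (Te (h.T a)) s pr)}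
    (H : SetD p h a kk Q K1 K3 vU vI vN f Φ U K₀ s pr c κt R u X)
    {B : h.ιT a → E3 ≃ᵃ[ℝ] E3} (hS : ∀ t, Shp2 (Te (h.T a)) t (B t) (R t) (u t))
    {mU mN : ℝ≥0} (hmU : GG vU ≤ mU) (hmN : GG vN ≤ mN) {G : Fin 3 → R3 → R3}
    {κe κf : Type} {x' v' : κe → R3} {e' : κf → Fin 2 → R3} {xx' : κf → R3}
    {Qf' : κf → Set (ℝ × ℝ)} (hA : AllC h x' v' e' xx' Qf')
    (hG : GoodA Om (En p G) x' v' e' xx' a) (hQ : ∀ φ, IsCompact (Qf' φ))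
    {me : EgS (Te (h.T a)) s → κe} {mf : FcS (Te (h.T a)) s pr → κf}
    (hme : ∀ c, w2 '' c.1.set = seg x' v' a (me c))
    (hmf : ∀ c, w2 '' c.1.set = pt (e' (mf c)) (a + xx' (mf c)) '' Qf' (mf c)) :
    AdE p h G mU mN a s pr c R (ρS (Te (h.T a)) R) (mS (Te (h.T a)) s pr u) X
      (efS hG hQ hme hmf X H.sys.rim H.sys.Z) :=
  adE_set H hS hmU hmN hA hG hme hmf

end

end Crest.Agent.R096.Ca_855
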