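/-
helper296, row 96, COMPOSITE B, leaf [SET] (622 #11868): the choice of the tiles `s`, of the squeezed
2-cells `prS` and of the system for `OneP`.
-/
import Crest.Agent.R096.Cbs4_296

set_option autoImplicit false
set_option linter.unusedSectionVars false
set_option linter.style.longLine false

open Set Metric Filter Topology MeasureTheory
open scoped ENNReal NNReal

namespace Crest.Agent.R096.Cbs_296

open Crest.AnalysisR.VecCalc3
open Crest.Agent.R096.Msh_715 (P I Tiling I_sub_P isOpen_I isClosed_P)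
open Crest.Agent.R096.Sq_55 (E3 Sys Face Cell FaceOf w2 IsDp GG Shp2 GG_mono)
open Crest.Agent.R096.Sqt_143 (sg Edge OnC OnF cu CT)
open Crest.Agent.R096.Cob_622
open Crest.Agent.R096.Efi_296
open Crest.Agent.R96.En10_199 (P3)
open Crest.Agent.R096.Sk2_855 (Mv sk1)

noncomputable section

section set

variable {Om : Set R3} {ι : Type*}

/-- the squeezed 2-cells: all tiles of the 2-cell belong to `s` and, if `q` (= `p < 2`) does not hold,
all of them are deep -/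
def prS (T : Tiling Om ι) (s : Finset ι) (q : Prop) (deep : Set ι) : (Te T).Cell → Prop := fun c =>
  (∀ k ∈ (Te T).at_ c.pt, k ∈ s) ∧ (q ∨ ∀ k ∈ (Te T).at_ c.pt, k ∈ deep)

variable {T : Tiling Om ι} {s : Finset ι} {q : Prop} {deep : Set ι} {u R : ι → ℝ≥0}

theorem prS_s {c : (Te T).Cell} (h : prS T s q deep c) : ∀ k ∈ (Te T).at_ c.pt, k ∈ s := h.1

theorem prS_deep {c : (Te T).Cell} (h : prS T s q deep c) :
    q ∨ ∀ k ∈ (Te T).at_ c.pt, k ∈ deep := h.2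

/-- hypothesis of `exists_sys_s` and `cob_T` on the sizes, from the neighbour ratios -/
theorem hR_of (hR2 : ∀ k l, (P (T.H k) ∩ P (T.H l)).Nonempty → R k ≤ u k * R l ∧ R l ≤ u k * R k)
    {y : E3} {k l : ι} (hk : k ∈ (Te T).at_ y) (hl : l ∈ (Te T).at_ y) :
    R k ≤ u k * R l ∧ R l ≤ u k * R k := by
  rw [at_Te] at hk hl
  exact hR2 k l ⟨w2 y, hk, hl⟩

theorem hρ_set (hR2 : ∀ k l, (P (T.H k) ∩ P (T.H l)).Nonempty → R k ≤ u k * R l ∧ R l ≤ u k * R k)
    (pr : (Te T).Cell → Prop) :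
    ∀ x ∈ reps (Te T) s pr, ∀ k ∈ (Te T).at_ x, k ∈ s →
      R k ≤ mS (Te T) s pr u k * ρS (Te T) R x := fun _ hx _ hk _ =>
  (hρ_of (fun _ _ _ hk _ hl => hR_of hR2 hk hl) hx hk).1

/-- **[SET]**: the tiles `s` (all tiles which meet `K₀` or the support of `Φ`), the squeezed 2-cells and
the system.  The unsqueezed 2-cells of the tiles of `s` are good. -/
theorem exists_set {Φ : R3 ≃ₜ R3} (hMv : Mv T Φ) {K₀ : Set R3}
    (hK : IsCompact K₀) (hKO : K₀ ⊆ Om) (q : Prop) (deep : Set ι) {f : R3 → R3} {U : Set R3}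
    (hface : ¬ q → ∀ x ∈ Om, T.dim x = 2 → ∀ z ∈ T.cc x,
      (∀ᶠ w in 𝓝 z, Φ w = w) ∨ f (Φ z) ∈ U)
    (B : ι → E3 ≃ᵃ[ℝ] E3) (R u : ι → ℝ≥0) (hS : ∀ i, Shp2 (Te T) i (B i) (R i) (u i))
    (hR2 : ∀ k l, (P (T.H k) ∩ P (T.H l)).Nonempty → R k ≤ u k * R l ∧ R l ≤ u k * R k) :
    ∃ s : Finset ι, (∀ i, (P (T.H i) ∩ K₀).Nonempty → i ∈ s) ∧
      (∀ x, (∀ k ∈ s, x ∉ P (T.H k)) → Φ x = x) ∧
      (∀ y ∈ Om, T.dim y ≤ 1 → ∀ᶠ w in 𝓝 y, Φ w = w) ∧
      ∃ (c : ι → E3) (X : Sys s (reps (Te T) s (prS T s q deep))),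
        SysOf (Te T) s (prS T s q deep) c R (ρS (Te T) R) (mS (Te T) s (prS T s q deep) u) X ∧
        (∀ (i : ι) (x a v : E3) (w : ℝ≥0), i ∈ s → x ∈ P ((Te T).H i) → (Te T).dim x = 1 →
          (Te T).cc x = segment ℝ a (a + v) → 1 ≤ w →
          (∀ k ∈ s, (P ((Te T).H k) ∩ P ((Te T).H i)).Nonempty →
            u k ≤ w ∧ R k ≤ w * R i ∧ R i ≤ w * R k) →
          Edge X a v (R i / (8 * w^9)) (8 * w^9 / R i) ⌊w⌋₊) ∧
        ∀ b ∈ FcS (Te T) s (prS T s q deep), ∀ z ∈ b.set, Good Φ f U (w2 z) := by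
  obtain ⟨K', hK', hK'O, -, hid⟩ := hMv.supp
  have hfin : {i | (P (T.H i) ∩ (K₀ ∪ K')).Nonempty}.Finite :=
    T.finite_tiles (hK.union hK') (union_subset hKO hK'O)
  set s : Finset ι := hfin.toFinset with hs
  have mem_s : ∀ {i}, i ∈ s ↔ (P (T.H i) ∩ (K₀ ∪ K')).Nonempty := fun {i} => hfin.mem_toFinset
  obtain ⟨c, X, h1, h2⟩ := exists_sys_s (Te T) s (prS T s q deep) B R u (fun i _ => hS i)
    (fun c _ h => h.1) (fun x _ k hk l hl => hR_of hR2 hk hl)
  refine ⟨s, fun i hi => mem_s.2 (hi.mono (inter_subset_inter_right _ subset_union_left)), ?_,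
    fun y hy hd => mv_id hMv hy hd, c, X, h1, h2, ?_⟩
  · intro x hx
    by_contra hne
    have hxK : x ∈ K' := by
      by_contra h
      exact hne (hid x h)
    obtain ⟨k, hk⟩ := T.at_nonempty (hK'O hxK)
    exact hx k (mem_s.2 ⟨x, hk, .inr hxK⟩) hk
  · rintro b ⟨⟨hb2, -⟩, hbp⟩ z hz
    have hzcc : z ∈ (Te T).cc b.pt := by rw [← b.set_eq]; exact hz
    by_cases h3 : ∀ k ∈ (Te T).at_ b.pt, k ∈ s
    · -- a face which is not deep
      have hq : ¬ q := fun hq => hbp ⟨h3, .inl hq⟩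
      have hb2' : T.dim (w2 b.pt) = 2 := by
        rw [← dim_Te]; exact hb2
      have hO : w2 b.pt ∈ Om := b.pt_mem
      refine hface hq (w2 b.pt) hO hb2' (w2 z) ?_
      have h4 : (Te T).cc (w2.symm (w2 b.pt)) = w2.symm '' T.cc (w2 b.pt) := cc_Te _
      rw [w2.symm_apply_apply] at h4
      rw [h4] at hzcc
      obtain ⟨y, hy, rfl⟩ := hzcc
      rwa [w2.apply_symm_apply]
    · -- a one-sided face: a tile of the face is not in `s`
      push Not at h3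
      obtain ⟨k, hk, hks⟩ := h3
      have h4 : w2 z ∈ P (T.H k) := mem_P_Te.1 ((Te T).cc_sub_tile hk hzcc)
      have h5 : w2 z ∉ K' := fun h => hks (mem_s.2 ⟨w2 z, h4, .inr h⟩)
      left
      filter_upwards [hK'.isClosed.isOpen_compl.mem_nhds h5] with y hy
      exact hid y hy

end set

end

end Crest.Agent.R096.Cbs_296
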