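import Crest.Agent.R096.Msb1_432
import Crest.Agent.R096.Mal16_874

/-!
# Row 96, p ≤ 2 (helper432), CORE-SUB, part 2: the aligned mesh with subdivided cores
-/

set_option autoImplicit false
set_option linter.unusedSectionVars false

open Set Metric Topology Filter

namespace Crest.Agent.R096.Msb_432

open Crest.Agent.R096.Msh_715 Crest.Agent.R096.Msh_715.Tiling Crest.Agent.R096.Mal_874
open Crest.Agent.R096.Gsm_432 Crest.Agent.R096.Msh_810 Crest.Agent.R096.Cut_874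

variable {n : ℕ} {E : Type*} [NormedAddCommGroup E] [NormedSpace ℝ E]

/-! ### unit cubes of a core -/

section cube

variable (Q : CB E n)

theorem mem_Kc {y : E} : y ∈ Q.Kc ↔ ∀ l, (Q.S.lo l : ℝ) ≤ ps Q.a' Q.kc (Q.ψ y) l ∧
    ps Q.a' Q.kc (Q.ψ y) l ≤ Q.S.hi l := Iff.rfl

theorem Kc_eq : Q.Kc = blk Q.ψ Q.a' Q.kc (bx Q.S.lo Q.S.hi) := by
  ext y
  unfold blk
  rw [mem_preimage, mem_pc_bx Q.S.lt]
  rfl

theorem isCompact_Kc : IsCompact Q.Kc := by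
  rw [Kc_eq]
  exact blk_compact (bx_finite _ _)

/-- the inequalities of the unit cube with corner `z` -/
noncomputable def cuH (z : Fin n → ℤ) : Finset ((E →L[ℝ] ℝ) × ℝ) := Hc Q.ψ Q.a' Q.kc z

theorem mem_cuH {z : Fin n → ℤ} {y : E} : y ∈ P (cuH Q z) ↔
    ∀ l, (z l : ℝ) ≤ ps Q.a' Q.kc (Q.ψ y) l ∧ ps Q.a' Q.kc (Q.ψ y) l ≤ z l + 1 := by
  unfold cuH
  rw [P_Hc, mem_preimage, mem_Cu]

theorem cuH_sub {z : Fin n → ℤ} (hz : z ∈ bx Q.S.lo Q.S.hi) : P (cuH Q z) ⊆ Q.Kc := by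
  intro y hy
  rw [mem_cuH] at hy
  rw [mem_Kc]
  intro l
  obtain ⟨h1, h2⟩ := hz l
  have h1' : (Q.S.lo l : ℝ) ≤ z l := by exact_mod_cast h1
  have h2' : (z l : ℝ) + 1 ≤ Q.S.hi l := by exact_mod_cast h2
  constructor <;> linarith [(hy l).1, (hy l).2]

theorem exists_cuH {y : E} (hy : y ∈ Q.Kc) : ∃ z ∈ bx Q.S.lo Q.S.hi, y ∈ P (cuH Q z) := by
  rw [Kc_eq] at hy
  have h1 : Q.ψ y ∈ pc Q.a' Q.kc (bx Q.S.lo Q.S.hi) := hy
  rw [mem_pc] at h1
  obtain ⟨z, hz, h⟩ := h1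
  refine ⟨z, hz, ?_⟩
  unfold cuH
  rw [P_Hc]
  exact h

theorem I_cuH (z : Fin n → ℤ) : I (cuH Q z) = Q.ψ ⁻¹' Co Q.a' Q.kc z := by
  unfold cuH
  rw [I_Hc, Do_univ]

theorem cuH_ne (z : Fin n → ℤ) : (I (cuH Q z)).Nonempty := by
  rw [I_cuH]
  refine ⟨Q.ψ.symm (mid Q.a' Q.kc z), ?_⟩
  rw [mem_preimage, Q.ψ.apply_symm_apply]
  intro l
  rw [ps_mid]
  constructor <;> linarith

theorem cuH_dis {z z' : Fin n → ℤ} (h : z ≠ z') : Disjoint (I (cuH Q z)) (I (cuH Q z')) := by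
  rw [I_cuH, I_cuH]
  exact Disjoint.preimage _ ((Co_disjoint_Cu h).mono_right (Co_sub_Cu _ _ _))

theorem Kc_sub_bp : Q.Kc ⊆ Q.S.bp Q.ψ Q.a' Q.kc := by
  intro y hy
  rw [PS.mem_bp]
  exact Q.S.B0_sub hy

theorem Kc_sub_N : Q.Kc ⊆ Q.N := (Kc_sub_bp Q).trans Q.bp_sub_N

/-- the enlarged box is far from the wall -/
theorem bp_dist [NeZero n] {y : E} (hy : y ∈ Q.S.bp Q.ψ Q.a' Q.kc) :
    7 / 2 ^ Q.kc ≤ infDist (Q.ψ y) Q.W := by
  have h1 := Q.near_infDist (y := y) (fun l => by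
    have h := Q.near_of_bp hy l
    constructor <;> linarith [h.1, h.2])
  have e : ((6 : ℝ) + 1) = 7 := by norm_num
  rwa [e] at h1

theorem bp_wall [NeZero n] {y : E} (hy : y ∈ Q.S.bp Q.ψ Q.a' Q.kc) : y ∉ frontier Q.N := by
  intro h
  rw [Q.frontier_N] at h
  have h1 := bp_dist Q hy
  rw [infDist_zero_of_mem (show Q.ψ y ∈ Q.W from h)] at h1
  have h2 : (0 : ℝ) < 7 / 2 ^ Q.kc := by positivity
  linarith

end cube

/-! ### the mesh with subdivided cores -/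

variable [NeZero n] {J : Type*} (M : MD E n J) {k : J → ℕ} (hk : M.Sc k) (a : Fin n → ℝ)
  {v : J → E} (hv : M.Adm v)

/-- the cores -/
def cores : Set (M.OIx hk a hv ⊕ Σ j, M.IIx hk a hv j) :=
  {t | ∃ j, t = Sum.inr ⟨j, M.core hk a hv j⟩}

/-- the unit cubes of the cores -/
abbrev CIx : Type _ := Σ j : J, {z : Fin n → ℤ // z ∈ bx (M.Q j).S.lo (M.Q j).S.hi}

/-- the inequalities of the unit cubes -/
noncomputable def cubH (v : J → E) (c : CIx M) : Finset ((E →L[ℝ] ℝ) × ℝ) :=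
  cuH (M.Bk v c.1) c.2.1

variable {M}

include hk a hv in
theorem N_disj {j l : J} (hjl : j ≠ l) : Disjoint (M.Bk v j).N (M.Bk v l).N :=
  (M.ad hk a hv).dis j l hjl

theorem cubH_sub (c : CIx M) : P (cubH M v c) ⊆ (M.Bk v c.1).Kc :=
  cuH_sub (M.Bk v c.1) c.2.2

theorem cubH_repl : Repl (M.mesh hk a hv) (cores M hk a hv) (cubH M v) where
  cpt c := (isCompact_Kc (M.Bk v c.1)).of_isClosed_subset (isClosed_P _) (cubH_sub c)
  ne c := cuH_ne (M.Bk v c.1) c.2.1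
  dis := by
    rintro ⟨j, z⟩ ⟨l, z'⟩ h
    by_cases hjl : j = l
    · subst hjl
      exact cuH_dis (M.Bk v j) fun e => h (congrArg (Sigma.mk j) (Subtype.ext e))
    · exact (N_disj hk a hv hjl).mono
        ((I_sub_P _).trans ((cubH_sub _).trans (Kc_sub_N _)))
        ((I_sub_P _).trans ((cubH_sub _).trans (Kc_sub_N _)))
  lf x hx := by
    obtain ⟨r, hr, hf⟩ := (M.mesh hk a hv).lf x hx
    refine ⟨r, hr, ?_⟩
    have h1 : {j : J | ((M.Bk v j).Kc ∩ ball x r).Nonempty}.Finite := by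
      refine (hf.preimage (f := fun j : J => (Sum.inr ⟨j, M.core hk a hv j⟩ :
        M.OIx hk a hv ⊕ Σ j, M.IIx hk a hv j)) ?_).subset ?_
      · intro j _ l _ hjl
        exact congrArg Sigma.fst (Sum.inr.inj hjl)
      · intro j hj
        show (P ((M.mesh hk a hv).H (Sum.inr ⟨j, M.core hk a hv j⟩)) ∩ ball x r).Nonempty
        rw [M.P_core hk a hv j]
        exact hj
    have h2 : ∀ j : J, Finite {z : Fin n → ℤ // z ∈ bx (M.Q j).S.lo (M.Q j).S.hi} :=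
      fun j => (bx_finite _ _).to_subtype
    refine (h1.biUnion (t := fun j : J => (Sigma.mk j) ''
      (univ : Set {z : Fin n → ℤ // z ∈ bx (M.Q j).S.lo (M.Q j).S.hi})) fun j _ =>
        (Set.toFinite _)).subset ?_
    rintro ⟨j, z⟩ ⟨y, hy1, hy2⟩
    exact mem_biUnion (show j ∈ {j : J | ((M.Bk v j).Kc ∩ ball x r).Nonempty} from
      ⟨y, cubH_sub _ hy1, hy2⟩) ⟨z, trivial, rfl⟩
  eq := by
    ext x
    simp only [mem_iUnion, exists_prop]
    constructor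
    · rintro ⟨c, hc⟩
      refine ⟨_, ⟨c.1, rfl⟩, ?_⟩
      rw [M.P_core hk a hv c.1]
      exact cubH_sub c hc
    · rintro ⟨_, ⟨j, rfl⟩, hx⟩
      rw [M.P_core hk a hv j] at hx
      obtain ⟨z, hz, hxz⟩ := exists_cuH (M.Bk v j) hx
      exact ⟨⟨j, z, hz⟩, hxz⟩

variable (M)

/-- **the aligned mesh with subdivided cores** -/
noncomputable def meshS :
    Tiling (M.φ ⁻¹' M.D0.Om) ({t // t ∉ cores M hk a hv} ⊕ CIx M) :=
  patch (M.mesh hk a hv) (cores M hk a hv) (cubH M v) (cubH_repl hk a hv)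

theorem cubH_subD : SubD (M.mesh hk a hv) (cores M hk a hv) (cubH M v) := by
  rintro _ ⟨j, rfl⟩ x hx
  rw [M.P_core hk a hv j] at hx
  obtain ⟨z, hz, hxz⟩ := exists_cuH (M.Bk v j) hx
  refine ⟨⟨j, z, hz⟩, hxz, ?_⟩
  rw [M.P_core hk a hv j]
  exact cubH_sub _

/-- (S2) the closed cells of `meshS` are smaller -/
theorem meshS_cc_sub (x : E) : (meshS M hk a hv).cc x ⊆ (M.mesh hk a hv).cc x :=
  patch_cc_sub (cubH_subD M hk a hv) x

/-- (S2) the 1-skeleton of the mesh is contained in the 1-skeleton of `meshS` -/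
theorem meshS_dim_le [FiniteDimensional ℝ E] {x : E} (hx : x ∈ M.φ ⁻¹' M.D0.Om) :
    (meshS M hk a hv).dim x ≤ (M.mesh hk a hv).dim x :=
  patch_dim_le (cubH_subD M hk a hv) hx

theorem not_core_of {x : E} (hx : ∀ j, x ∉ (M.Bk v j).Kc) :
    ∀ t ∈ (M.mesh hk a hv).at_ x, t ∉ cores M hk a hv := by
  rintro _ ht ⟨j, rfl⟩
  have h1 : x ∈ P ((M.mesh hk a hv).H (Sum.inr ⟨j, M.core hk a hv j⟩)) := ht
  rw [M.P_core hk a hv j] at h1
  exact hx j h1

/-- (S1) off the cores nothing changes -/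
theorem meshS_off {x : E} (hx : ∀ j, x ∉ (M.Bk v j).Kc) :
    (meshS M hk a hv).cc x = (M.mesh hk a hv).cc x ∧
      (meshS M hk a hv).oc x = (M.mesh hk a hv).oc x ∧
      (meshS M hk a hv).V x = (M.mesh hk a hv).V x :=
  patch_off (not_core_of M hk a hv hx)

/-- (S1) a closed cell which touches no core is unchanged -/
theorem meshS_dim_off {x : E} (hx : ∀ j, x ∉ (M.Bk v j).Kc) :
    (meshS M hk a hv).dim x = (M.mesh hk a hv).dim x :=
  patch_dim_off (not_core_of M hk a hv hx)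

end Crest.Agent.R096.Msb_432
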