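import Crest.Agent.R096.Osc1_400
import Crest.Agent.R096.Msb2_432

/-!
Row 96 (S0127), helper400.  **[OSC], part 2: diameters of the tiles of the aligned mesh (874 `MD.mesh`, 432
`meshS`) in `R3`** when the outer size function is at most `ρ₀ ∘ P3 * c`: every tile has diameter at most `ρ₀` at
each of its points, as soon as this holds for the blocks.
-/

set_option autoImplicit false
set_option linter.style.longLine false
set_option linter.unusedSectionVars false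

open Set Filter Topology Metric

namespace Crest.Agent.R096.Osc_400

open Crest.Agent.R096.Msh_810 Crest.AnalysisR.VecCalc3 Crest.Agent.R096.Msh_715
  Crest.Agent.R096.Mal_874 Crest.Agent.R096.Msb_432
open Crest.Agent.R96.En10_199 (P3)

noncomputable section

variable {J : Type} (M : MD R3 3 J) {k : J → ℕ} (hk : M.Sc k) (a : Fin 3 → ℝ) {v : J → R3}
  (hv : M.Adm v)

/-- sup norm and euclidean norm -/
theorem norm_sub_le_two (x y : R3) : ‖x - y‖ ≤ 2 * dist (P3.symm x) (P3.symm y) := by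
  have h := norm_P3_le (P3.symm x - P3.symm y)
  rw [map_sub, P3.apply_symm_apply, P3.apply_symm_apply] at h
  rwa [dist_eq_norm]

theorem norm_symm_le (x : R3) : ‖P3.symm x‖ ≤ ‖x‖ := by
  rw [pi_norm_le_iff_of_nonneg (norm_nonneg _)]
  intro i
  exact PiLp.norm_apply_le (p := 2) x i

variable {M}

/-- **outer tiles** -/
theorem outer_diam (hφ : M.φ = P3.symm) {ρ₀ : R3 → ℝ} {c : ℝ} (hD : ∀ y, M.D0.ρ y ≤ ρ₀ (P3 y) * c)
    (p : M.OIx hk a hv) {x y : R3} (hx : x ∈ P ((M.mesh hk a hv).H (Sum.inl p)))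
    (hy : y ∈ P ((M.mesh hk a hv).H (Sum.inl p))) : ‖y - x‖ ≤ ρ₀ x * (2 * c / M.D0.C) := by
  have h1 := M.outer_size hk a hv p hx hy
  have hC := M.D0.C_pos
  rw [hφ] at h1
  have h2 := hD (P3.symm x)
  rw [P3.apply_symm_apply] at h2
  have h3 := norm_sub_le_two x y
  rw [norm_sub_rev] at h3
  have h4 : M.D0.ρ (P3.symm x) / M.D0.C ≤ ρ₀ x * c / M.D0.C := by gcongr
  calc ‖y - x‖ ≤ 2 * (ρ₀ x * c / M.D0.C) := by linarith
    _ = ρ₀ x * (2 * c / M.D0.C) := by ring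

/-- the tiles of the block `j` lie in the block -/
theorem inner_sub {j : J} (i : M.IIx hk a hv j) :
    P ((M.mesh hk a hv).H (Sum.inr ⟨j, i⟩)) ⊆ (M.Bk v j).N := i.2

/-- **all tiles of the mesh** -/
theorem mesh_diam (hφ : M.φ = P3.symm) {ρ₀ : R3 → ℝ} (h0 : ∀ x, 0 ≤ ρ₀ x) {c : ℝ} (hc' : c ≤ 1 / 2)
    (hD : ∀ y, M.D0.ρ y ≤ ρ₀ (P3 y) * c)
    (hN : ∀ j, ∀ x ∈ (M.Bk v j).N, ∀ y ∈ (M.Bk v j).N, ‖y - x‖ ≤ ρ₀ x) :
    ∀ t, ∀ x ∈ P ((M.mesh hk a hv).H t), ∀ y ∈ P ((M.mesh hk a hv).H t), ‖y - x‖ ≤ ρ₀ x := by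
  rintro (p | ⟨j, i⟩) x hx y hy
  · have h1 := outer_diam hk a hv hφ hD p hx hy
    have hC := M.D0.C_pos
    have hC1 := M.D0.hC
    refine h1.trans ?_
    have : 2 * c / M.D0.C ≤ 1 := by
      rw [div_le_one hC]
      linarith
    exact mul_le_of_le_one_right (h0 x) this
  · exact hN j x (inner_sub hk a hv i hx) y (inner_sub hk a hv i hy)

/-- **all tiles of the mesh with subdivided cores** -/
theorem meshS_diam (hφ : M.φ = P3.symm) {ρ₀ : R3 → ℝ} (h0 : ∀ x, 0 ≤ ρ₀ x) {c : ℝ} (hc' : c ≤ 1 / 2)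
    (hD : ∀ y, M.D0.ρ y ≤ ρ₀ (P3 y) * c)
    (hN : ∀ j, ∀ x ∈ (M.Bk v j).N, ∀ y ∈ (M.Bk v j).N, ‖y - x‖ ≤ ρ₀ x) :
    ∀ t, ∀ x ∈ P ((meshS M hk a hv).H t), ∀ y ∈ P ((meshS M hk a hv).H t), ‖y - x‖ ≤ ρ₀ x := by
  rintro (t | q) x hx y hy
  · exact mesh_diam hk a hv hφ h0 hc' hD hN t.1 x hx y hy
  · have h1 : P (cubH M v q) ⊆ (M.Bk v q.1).N := (cubH_sub q).trans (Kc_sub_N _)
    exact hN q.1 x (h1 hx) y (h1 hy)

/-- **[DIAM] of 855 #11406** (block tiles measured by `d j`) -/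
theorem diam_meshS {ρ₀ : R3 → ℝ} {J : Type} (M : MD R3 3 J) (hφ : M.φ = P3.symm) {k : J → ℕ}
    (hk : M.Sc k) (a : Fin 3 → ℝ) {v : J → R3} (hv : M.Adm v) {c : ℝ} (hc : c ≤ 1 / 2)
    (hρ0 : ∀ x, 0 ≤ ρ₀ x) (hρ : ∀ y, M.D0.ρ y ≤ ρ₀ (P3 y) * c) {d : J → ℝ}
    (hN : ∀ j t, (P ((meshS M hk a hv).H t) ∩ (M.Bk v j).N).Nonempty →
      ∀ x ∈ P ((meshS M hk a hv).H t), ∀ y ∈ P ((meshS M hk a hv).H t), ‖x - y‖ ≤ d j)
    (hd : ∀ j, ∀ x ∈ (M.Bk v j).N, d j ≤ ρ₀ x) :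
    ∀ t, ∀ x ∈ P ((meshS M hk a hv).H t), ∀ y ∈ P ((meshS M hk a hv).H t), ‖x - y‖ ≤ ρ₀ x := by
  rintro (⟨t, ht⟩ | q) x hx y hy
  · rcases t with p | ⟨j, i⟩
    · have h1 := outer_diam hk a hv hφ hρ p (x := x) (y := y) hx hy
      have hC := M.D0.C_pos
      have hC1 := M.D0.hC
      rw [norm_sub_rev]
      refine h1.trans ?_
      have : 2 * c / M.D0.C ≤ 1 := by
        rw [div_le_one hC]
        linarith
      exact mul_le_of_le_one_right (hρ0 x) this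
    · have hxN : x ∈ (M.Bk v j).N := inner_sub hk a hv i hx
      exact (hN j _ ⟨x, hx, hxN⟩ x hx y hy).trans (hd j x hxN)
  · have hxN : x ∈ (M.Bk v q.1).N := ((cubH_sub q).trans (Kc_sub_N _)) hx
    exact (hN q.1 _ ⟨x, hx, hxN⟩ x hx y hy).trans (hd q.1 x hxN)

/-- **consequence for a map adapted to `ρ₀`** (`r7`, `r8` = clauses of `exists_osc`) -/
theorem meshS_osc {Om : Set R3} {f : R3 → R3} {η : R3 → ℝ} (hφ : M.φ = P3.symm) {ρ₀ : R3 → ℝ}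
    (h0 : ∀ x, 0 ≤ ρ₀ x) {c : ℝ} (hc' : c ≤ 1 / 2)
    (hD : ∀ y, M.D0.ρ y ≤ ρ₀ (P3 y) * c)
    (hN : ∀ j, ∀ x ∈ (M.Bk v j).N, ∀ y ∈ (M.Bk v j).N, ‖y - x‖ ≤ ρ₀ x)
    (hO : M.D0.Om ⊆ P3 ⁻¹' Om)
    (r7 : ∀ x ∈ Om, ∀ y, ‖y - x‖ ≤ ρ₀ x → ‖f y - f x‖ ≤ η x ∧ (1 / 2) * η x ≤ η y ∧ η y ≤ 2 * η x) :
    ∀ t, ∀ x ∈ P ((meshS M hk a hv).H t), ∀ y ∈ P ((meshS M hk a hv).H t),
      ‖f y - f x‖ ≤ η x ∧ (1 / 2) * η x ≤ η y ∧ η y ≤ 2 * η x := by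
  intro t x hx y hy
  have hxO : x ∈ Om := by
    have h1 : x ∈ M.φ ⁻¹' M.D0.Om := (meshS M hk a hv).sub t hx
    have h2 := hO h1
    rw [hφ, mem_preimage, P3.apply_symm_apply] at h2
    exact h2
  exact r7 x hxO y (meshS_diam hk a hv hφ h0 hc' hD hN t x hx y hy)

end

end Crest.Agent.R096.Osc_400
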