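import Crest.Agent.R096.Cl0_692
import Crest.Agent.R096.Cp9_465
import Crest.Agent.R096.Osc2_400

/-!
Row 96 (S0127), helper692.  **The hypotheses `hdiam` and `hosc` of `Cl_692.out_c0` for 855's mesh
`h.T a`** (`h : MIn ..`): every tile has diameter `≤ ρ₀ x`, the tiles which meet `W` have diameter `≤ t`.
-/

set_option autoImplicit false
set_option linter.style.longLine false
set_option linter.unusedSectionVars false

open Set Filter Topology Metric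

namespace Crest.Agent.R096.Ca_855.MIn

open Crest.AnalysisR.VecCalc3 Crest.AnalysisR.Sobolev
open Crest.Agent.R096.Msh_715
open Crest.Agent.R096.Mal_874 (MD CB RD RP reOm Rt Cn outD Rg)
open Crest.Agent.R096.Msb_432 (Scl)
open Crest.Agent.R096.Gsm_432 (TG)
open Crest.Agent.R96.En10_199 (P3)

variable {Om W : Set R3} {ρ₀ : R3 → ℝ} {J : Type} {Qb : J → CB R3 3} {k0 : ℕ} {σ : ℝ}
  [Finite J]

/-- `ρ₀` is large on the translated blocks -/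
theorem rho_blk (h : MIn Om W ρ₀ Qb k0 σ) (a : R3) (j : J) {x : R3}
    (hx : x ∈ (h.M.Bk (fun _ => h.cl a) j).N) : σ * (7 / 8) ≤ ρ₀ x := by
  have h1 : x - h.cl a ∈ (Qb j).N := (CB.mem_N_tr (Qb j) (h.cl a) x).1 hx
  have h2 := h.hW _ (h.hN j h1)
  have h3 := h.lip (x - h.cl a) x
  have h4 : ‖x - h.cl a - x‖ ≤ σ / 8 := by
    rw [show x - h.cl a - x = -h.cl a by abel, norm_neg]
    exact h.norm_cl a
  linarith

/-- **every tile has diameter `≤ ρ₀ x`**; `hblk` = second clause of 465's `exists_tile2`,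
`D / 2 ^ kc ≤ t` -/
theorem diam_rho (h : MIn Om W ρ₀ Qb k0 σ) {D t : ℝ} (htσ : t ≤ σ / 8)
    (hDk : ∀ j, D / 2 ^ (Qb j).kc ≤ t) (a : R3)
    (hblk : ∀ j i, (P ((h.T a).H i) ∩ (h.M.Bk (fun _ => h.cl a) j).N).Nonempty →
      ∀ x ∈ P ((h.T a).H i), ∀ y ∈ P ((h.T a).H i), ‖x - y‖ ≤ D / 2 ^ (Qb j).kc) :
    ∀ i, ∀ x ∈ P ((h.T a).H i), ∀ y ∈ P ((h.T a).H i), ‖y - x‖ ≤ ρ₀ x := by
  have h0 := h.σ0
  intro i x hx y hy
  rw [norm_sub_rev]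
  refine Osc_400.diam_meshS (ρ₀ := ρ₀) h.M h.M_φ h.sc (0 + h.M.φ (h.cl a)) (h.adm a) (c := 1 / 2)
    le_rfl h.nn (fun y => ?_) (d := fun _ => t) (fun j i' hi' x' hx' y' hy' =>
      (hblk j i' hi' x' hx' y' hy').trans (hDk j)) (fun j x' hx' => ?_) i x hx y hy
  · rw [h.M_D0, h.D0_ρ]
    exact min_le_left _ _
  · have := h.rho_blk a j hx'
    linarith

/-- **`hosc`** -/
theorem hosc (h : MIn Om W ρ₀ Qb k0 σ) {f : R3 → R3} {w : R3 → ℝ} {D t : ℝ} (htσ : t ≤ σ / 8)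
    (hDk : ∀ j, D / 2 ^ (Qb j).kc ≤ t) (a : R3)
    (hblk : ∀ j i, (P ((h.T a).H i) ∩ (h.M.Bk (fun _ => h.cl a) j).N).Nonempty →
      ∀ x ∈ P ((h.T a).H i), ∀ y ∈ P ((h.T a).H i), ‖x - y‖ ≤ D / 2 ^ (Qb j).kc)
    (hf : ∀ x ∈ Om, ∀ y, ‖y - x‖ ≤ ρ₀ x → ‖f y - f x‖ ≤ w (f x)) :
    ∀ i, ∀ x ∈ P ((h.T a).H i), ∀ x' ∈ P ((h.T a).H i), ‖f x' - f x‖ ≤ w (f x) :=
  fun i x hx x' hx' => hf x ((h.T a).sub i hx) x' (h.diam_rho htσ hDk a hblk i x hx x' hx')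

/-- **`hdiam`**: the tiles which meet `W` -/
theorem hdiam (h : MIn Om W ρ₀ Qb k0 σ) {D β ρ t : ℝ} {nc : ℕ} (hD : 0 ≤ D) (a : R3)
    (hTG : ∀ i, ∃ κ', Scl h.M h.sc (0 + h.M.φ (h.cl a)) (h.adm a) i κ' ∧
      TG (h.Ts a) i β ρ D nc κ')
    (hDk : ∀ j, D / 2 ^ (Qb j).kc ≤ t) (hD0 : D / 2 ^ k0 ≤ t) :
    ∀ i, (P ((h.T a).H i) ∩ W).Nonempty → ∀ x ∈ P ((h.T a).H i), ∀ y ∈ P ((h.T a).H i),
      ‖y - x‖ ≤ t := by
  intro i hi x hx y hy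
  obtain ⟨κ', h1, h3, -⟩ := hTG i
  obtain ⟨-, h5⟩ := h.scl_le hi h1
  have hmono : ∀ {k k' : ℕ}, k ≤ k' → D / 2 ^ k' ≤ D / 2 ^ k := fun hkk =>
    div_le_div_of_nonneg_left hD (by positivity) (pow_le_pow_right₀ (by norm_num) hkk)
  refine (h3 y hy x hx).trans ?_
  rcases h5 with h5 | ⟨j, h5⟩
  · exact (hmono h5).trans hD0
  · exact (hmono h5).trans (hDk j)

/-- **`hdiam` from an `MFam`** -/
theorem _root_.Crest.Agent.R096.Cl_692.hdiam_tileG {ι : Type} {T : Tiling Om ι} {c : ι → R3}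
    {β ρ t : ℝ} {nc : ℕ}
    (hT : ∀ i, (P (T.H i) ∩ W).Nonempty →
      TileG T i (Gsm_432.H_ne T i) (c i) β ρ t nc) :
    ∀ i, (P (T.H i) ∩ W).Nonempty → ∀ x ∈ P (T.H i), ∀ y ∈ P (T.H i), ‖y - x‖ ≤ t :=
  fun i hi x hx y hy => (hT i hi).diam y hy x hx

end Crest.Agent.R096.Ca_855.MIn
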