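/-
helper622, row 96, COMPOSITE B, part 11: the constants `CB`, `CE`, `CT`: monotone, `1 ≤ CB`.
-/
import Crest.Agent.R096.Cob9_622

set_option autoImplicit false
set_option linter.unusedSectionVars false
set_option linter.style.longLine false

open scoped ENNReal NNReal

namespace Crest.Agent.R096.Cob_622

open Crest.Agent.R096.Sq_55
open Crest.Agent.R096.Sqt_143 (CT)

lemma qn3_lt {p : ℝ} (hp3 : p < 3) : qn 3 p < 1 := qn_lt (by exact_mod_cast hp3)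

lemma one_le_c3 {p : ℝ} (hp : 1 ≤ p) (hp3 : p < 3) : 1 ≤ c3 p := by
  have h1 := qn_pos 3 p
  have h2 := qn3_lt hp3
  have h3 : (1:ℝ) ≤ Kg 3 p := by
    unfold Kg
    have h4 : (1:ℝ) ≤ (16:ℝ)^p := Real.one_le_rpow (by norm_num) (by linarith)
    have h5 := kap_nonneg (n := 3)
    have h6 : (1:ℝ) ≤ kap 3 + 3^3 := by linarith
    calc (1:ℝ) = 1 * 1 := (one_mul _).symm
      _ ≤ _ := mul_le_mul h4 h6 zero_le_one (by positivity)
  unfold c3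
  rw [le_div_iff₀ (by linarith)]
  linarith

lemma one_le_mc {p : ℝ} (hp : 1 ≤ p) {m : ℝ≥0} (hm : 1 ≤ m) : 1 ≤ mc p m := by
  have h1 : (1:ℝ) ≤ m := by exact_mod_cast hm
  have h2 : (1:ℝ) ≤ (m:ℝ) * m := by nlinarith
  unfold mc
  have h3 : (1:ℝ) ≤ ((m:ℝ) * m)^p := Real.one_le_rpow h2 (by linarith)
  have h4 : (1:ℝ) ≤ ((m:ℝ) * m)^3 := one_le_pow₀ h2
  calc (1:ℝ) = 1 * 1 := (one_mul _).symm
    _ ≤ _ := mul_le_mul h3 h4 zero_le_one (by positivity)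

lemma one_le_T3 {p : ℝ} (hp : 1 ≤ p) (hp3 : p < 3) {m : ℝ≥0} (hm : 1 ≤ m) : 1 ≤ T3 p m := by
  have h1 : (1:ℝ) ≤ m := by exact_mod_cast hm
  have h2 := one_le_mc hp hm
  have h3 : 1 ≤ |c3 p| := (one_le_c3 hp hp3).trans (le_abs_self _)
  have h4 : (1:ℝ) ≤ 3 * (m:ℝ)^3 := by
    have := one_le_pow₀ h1 (n := 3)
    linarith
  unfold T3
  calc (1:ℝ) = 1 * 1 * 1 := by norm_num
    _ ≤ _ := mul_le_mul (mul_le_mul h2 h3 zero_le_one (by positivity)) h4 zero_le_one (by positivity)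

/-- the constant of the cells is at least one -/
lemma one_le_CB {p : ℝ} (hp : 1 ≤ p) (hp3 : p < 3) {K m : ℝ≥0} (hK : 1 ≤ K) (hm : 1 ≤ m) :
    1 ≤ CB p K m := by
  have hK' : (1:ℝ) ≤ K := by exact_mod_cast hK
  have h1 : (1:ℝ) ≤ (6:ℝ)^p := Real.one_le_rpow (by norm_num) (by linarith)
  have h2 : (1:ℝ) ≤ (9 * (K:ℝ))^p := Real.one_le_rpow (by linarith) (by linarith)
  have h3 := one_le_T3 hp hp3 hm
  have h4 := T2_nonneg p m
  unfold CB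
  have h5 : (1:ℝ) ≤ 3 * (9 * (K:ℝ))^p := by linarith
  have h6 : (1:ℝ) ≤ 9 * (T3 p m * (1 + T2 p m)) := by
    have : (1:ℝ) * 1 ≤ T3 p m * (1 + T2 p m) :=
      mul_le_mul h3 (by linarith) zero_le_one (by linarith)
    linarith
  calc (1:ℝ) = 1 * 1 * 1 := by norm_num
    _ ≤ _ := mul_le_mul (mul_le_mul h1 h5 zero_le_one (by positivity)) h6 zero_le_one (by positivity)

lemma T2_mono {p : ℝ} (hp : 0 ≤ p) {m m' : ℝ≥0} (h : m ≤ m') : T2 p m ≤ T2 p m' := by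
  have h' : (m:ℝ) ≤ m' := by exact_mod_cast h
  have h1 := mc_mono hp h
  have h2 := mc_nonneg p m'
  unfold T2
  gcongr

lemma T3_mono {p : ℝ} (hp : 0 ≤ p) {m m' : ℝ≥0} (h : m ≤ m') : T3 p m ≤ T3 p m' := by
  have h' : (m:ℝ) ≤ m' := by exact_mod_cast h
  have h1 := mc_mono hp h
  have h2 := mc_nonneg p m'
  unfold T3
  gcongr

lemma CB_mono {p : ℝ} (hp : 0 ≤ p) {K m m' : ℝ≥0} (h : m ≤ m') : CB p K m ≤ CB p K m' := by
  have h2 := T2_mono hp h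
  have h3 := T3_mono hp h
  have h4 := T2_nonneg p m
  have h5 := T3_nonneg p m'
  have h6 : 0 ≤ 1 + T2 p m := by linarith
  unfold CB
  gcongr

lemma CT_mono {p : ℝ} (hp3 : p < 3) {m m' : ℝ≥0} (h : m ≤ m') : CT p m ≤ CT p m' := by
  have h' : (m:ℝ) ≤ m' := by exact_mod_cast h
  have h1 : 0 < 1 - qn 3 p := by linarith [qn3_lt hp3]
  have h2 : 0 < 1 - qF p := by linarith [qF_lt p]
  unfold CT
  gcongr

lemma CT_nonneg {p : ℝ} (hp3 : p < 3) (m : ℝ≥0) : 0 ≤ CT p m := by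
  have h1 : 0 < 1 - qn 3 p := by linarith [qn3_lt hp3]
  have h2 : 0 < 1 - qF p := by linarith [qF_lt p]
  unfold CT
  positivity

lemma CE_mono {p : ℝ} (hp : 0 ≤ p) (hp3 : p < 3) {K m m' : ℝ≥0} (h : m ≤ m') :
    CE p K m ≤ CE p K m' := by
  have h' : (m:ℝ) ≤ m' := by exact_mod_cast h
  have h1 := CT_mono hp3 h
  have h2 := CT_nonneg hp3 m
  unfold CE
  gcongr

lemma CE_nonneg {p : ℝ} (hp3 : p < 3) (K m : ℝ≥0) : 0 ≤ CE p K m := by
  have h2 := CT_nonneg hp3 m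
  unfold CE
  positivity

end Crest.Agent.R096.Cob_622
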