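import Crest.Agent.R096.Sk4b_663

/-!
Row 96 (S0127), helper695.  **`BFs p` from "near-optimal on a set `K`, bounded factor off `K`"**
(final measure theory of every range of `p`).
-/

set_option autoImplicit false
set_option linter.unusedSectionVars false
set_option linter.style.longLine false

open MeasureTheory Set Filter Topology Metric
open scoped ENNReal Gradient NNReal

namespace Crest.Agent.R096.Br_695

open Crest.AnalysisR.VecCalc3 Crest.AnalysisR.Sobolev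
open Crest.Agent.R096.Str_696 (LocPL)
open Crest.Agent.R096.Sk_962 (SH Gr)
open Crest.Agent.R096.Sk4_663 (BFs Zd)

noncomputable section

/-- the energy density of the rows `G` -/
def En (p : ℝ) (G : Fin 3 → R3 → R3) (x : R3) : ℝ≥0∞ := ∑ j : Fin 3, ‖G j x‖ₑ ^ p

/-- **near-optimal on `K`, bounded factor off `K`**, and `K` fills almost all of `{det ≠ 0}`. -/
def BFk (p : ℝ) : Prop :=
  ∃ C : ℝ≥0, ∀ (Om La : Set R3) (f : R3 → R3) (G : Fin 3 → R3 → R3),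
    IsOpen Om → Bornology.IsBounded Om → IsConnected Om →
    IsOpen La → Bornology.IsBounded La → IsConnected La → SH p Om La f G →
    ∀ η : R3 → ℝ, ContinuousOn η Om → (∀ x ∈ Om, 0 < η x) →
    ∀ e : ℝ, 0 < e →
    ∃ (K : Set R3) (g : R3 → R3), IsHomeomorphOn g Om La ∧ LocPL g Om ∧
      (∀ x ∈ Om, ‖g x - f x‖ ≤ η x) ∧
      (∫⁻ x in K, ∑ j : Fin 3, ‖Gr g j x - G j x‖ₑ ^ p) ≤ ENNReal.ofReal e ∧
      (∫⁻ x in Om \ K, En p (Gr g) x) ≤ C * (∫⁻ x in Om \ K, (1 + En p G x)) + ENNReal.ofReal e ∧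
      (∫⁻ x in (Om \ Zd G) \ K, (1 + En p G x)) ≤ ENNReal.ofReal e

theorem enorm_sub_rpow_le {p : ℝ} (hp : 1 ≤ p) (a b : R3) :
    ‖a - b‖ₑ ^ p ≤ 2 ^ (p - 1) * (‖a‖ₑ ^ p + ‖b‖ₑ ^ p) := by
  have h1 : ‖a - b‖ₑ ≤ ‖a‖ₑ + ‖b‖ₑ := enorm_sub_le
  calc ‖a - b‖ₑ ^ p ≤ (‖a‖ₑ + ‖b‖ₑ) ^ p := ENNReal.rpow_le_rpow h1 (by linarith)
    _ ≤ 2 ^ (p - 1) * (‖a‖ₑ ^ p + ‖b‖ₑ ^ p) := ENNReal.rpow_add_le_mul_rpow_add_rpow _ _ hp

theorem bfs_of_bfk {p : ℝ} (hp : 1 ≤ p) (h : BFk p) : BFs p := by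
  classical
  have hp0 : 0 < p := by linarith
  obtain ⟨C, hC⟩ := h
  set c : ℝ≥0∞ := 2 ^ (p - 1) with hc
  have hctop : c ≠ ∞ := ENNReal.rpow_ne_top_of_nonneg (by linarith) (by norm_num)
  set c' : ℝ≥0 := c.toNNReal with hc'
  have hcc : (c' : ℝ≥0∞) = c := ENNReal.coe_toNNReal hctop
  refine ⟨c' * (C + 1), ?_⟩
  intro Om La f G hO hOb hOc hL hLb hLc hS η hη hη0 e he
  -- choose `e₁`
  set D : ℝ≥0 := 1 + c' * (C + 2) with hD
  obtain ⟨e₁, he₁, he₂⟩ : ∃ e₁ : ℝ, 0 < e₁ ∧ (D : ℝ≥0∞) * ENNReal.ofReal e₁ ≤ e := by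
    obtain ⟨r, hr0, hre⟩ : ∃ r : ℝ≥0, 0 < r ∧ (r : ℝ≥0∞) ≤ e := by
      rcases eq_or_ne e ∞ with h | h
      · exact ⟨1, one_pos, by rw [h]; exact le_top⟩
      · refine ⟨e.toNNReal, ENNReal.toNNReal_pos he.ne' h, by rw [ENNReal.coe_toNNReal h]⟩
    have hDp : 0 < D := by rw [hD]; positivity
    refine ⟨r / D, by positivity, ?_⟩
    refine le_trans (le_of_eq ?_) hre
    have h1 : ENNReal.ofReal ((r : ℝ) / D) = ((r / D : ℝ≥0) : ℝ≥0∞) := by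
      rw [← NNReal.coe_div, ENNReal.ofReal_coe_nnreal]
    rw [h1, ← ENNReal.coe_mul]
    congr 1
    field_simp
  obtain ⟨K, g, hg1, hg2, hg3, hg4, hg5, hg6⟩ :=
    hC Om La f G hO hOb hOc hL hLb hLc hS η hη hη0 e₁ he₁
  refine ⟨g, hg1, hg2, hg3, ?_⟩
  set S : R3 → ℝ≥0∞ := fun x => 1 + En p G x with hSdef
  set I₀ := ∫⁻ x in Om ∩ Zd G, S x with hI₀
  have hI : ∫⁻ x in Om \ K, S x ≤ I₀ + ENNReal.ofReal e₁ := by
    calc ∫⁻ x in Om \ K, S x ≤ ∫⁻ x in (Om ∩ Zd G) ∪ ((Om \ Zd G) \ K), S x := by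
          apply lintegral_mono_set
          rintro x ⟨hx, hxK⟩
          by_cases hz : x ∈ Zd G
          · exact Or.inl ⟨hx, hz⟩
          · exact Or.inr ⟨⟨hx, hz⟩, hxK⟩
      _ ≤ I₀ + ∫⁻ x in (Om \ Zd G) \ K, S x := lintegral_union_le _ _ _
      _ ≤ I₀ + ENNReal.ofReal e₁ := by gcongr
  have hmeas : AEMeasurable (fun x => En p G x) (volume.restrict (Om \ K)) := by
    have h1 : AEMeasurable (fun x => En p G x) (volume.restrict Om) := by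
      unfold En
      refine Finset.aemeasurable_fun_sum _ fun j _ => ?_
      exact ((hS.memG j).1.enorm).pow_const p
    exact h1.mono_measure (Measure.restrict_mono sdiff_subset le_rfl)
  have hoff : ∫⁻ x in Om \ K, ∑ j : Fin 3, ‖Gr g j x - G j x‖ₑ ^ p ≤
      c * (C * (∫⁻ x in Om \ K, S x) + ENNReal.ofReal e₁ + ∫⁻ x in Om \ K, S x) := by
    calc ∫⁻ x in Om \ K, ∑ j : Fin 3, ‖Gr g j x - G j x‖ₑ ^ p
        ≤ ∫⁻ x in Om \ K, c * (En p (Gr g) x + En p G x) := by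
          refine lintegral_mono fun x => ?_
          unfold En
          rw [← Finset.sum_add_distrib, Finset.mul_sum]
          exact Finset.sum_le_sum fun j _ => enorm_sub_rpow_le hp _ _
      _ = c * ∫⁻ x in Om \ K, (En p (Gr g) x + En p G x) := lintegral_const_mul' _ _ hctop
      _ = c * ((∫⁻ x in Om \ K, En p (Gr g) x) + ∫⁻ x in Om \ K, En p G x) := by
          rw [lintegral_add_right' _ hmeas]
      _ ≤ c * (C * (∫⁻ x in Om \ K, S x) + ENNReal.ofReal e₁ + ∫⁻ x in Om \ K, S x) := by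
          gcongr with x
          exact le_add_self
  calc ∫⁻ x in Om, ∑ j : Fin 3, ‖Gr g j x - G j x‖ₑ ^ p
      ≤ ∫⁻ x in K ∪ (Om \ K), ∑ j : Fin 3, ‖Gr g j x - G j x‖ₑ ^ p := by
        apply lintegral_mono_set
        intro x hx
        by_cases hxK : x ∈ K
        · exact Or.inl hxK
        · exact Or.inr ⟨hx, hxK⟩
    _ ≤ (∫⁻ x in K, ∑ j : Fin 3, ‖Gr g j x - G j x‖ₑ ^ p) +
        ∫⁻ x in Om \ K, ∑ j : Fin 3, ‖Gr g j x - G j x‖ₑ ^ p := lintegral_union_le _ _ _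
    _ ≤ ENNReal.ofReal e₁ +
        c * (C * (I₀ + ENNReal.ofReal e₁) + ENNReal.ofReal e₁ + (I₀ + ENNReal.ofReal e₁)) := by
        gcongr
        refine hoff.trans ?_
        gcongr
    _ = ((c' * (C + 1) : ℝ≥0) : ℝ≥0∞) * I₀ + (D : ℝ≥0∞) * ENNReal.ofReal e₁ := by
        rw [hD]
        push_cast
        rw [hcc]
        ring
    _ ≤ ((c' * (C + 1) : ℝ≥0) : ℝ≥0∞) * I₀ + e := by gcongr

end

end Crest.Agent.R096.Br_695
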