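import Crest.Agent.R096.Ea0_961
import Crest.Agent.R096.Br2_695
import Crest.Agent.R96.Intr24_538

/-!
Row 96 (S0127), helper753.  **The literal Prop `PreIN p`, `1 ≤ p ≤ 2`**: the joint of
(R1) + (R2) [selection of good cubes, 2SK, squeezing: everything before the foam machine] with
(R3) [foam, `EA0 p`, `BFk p`].  Everything in `R3 = EuclideanSpace ℝ (Fin 3)`.  Definitions only.

Order: `Bs`, `C`; data `Om La f G`, `ε`; `κ K K' C1`; `τ hh c1 c2 κw e Nn`; `θ0`; `θ1 η e1 δ`; `s₀`; `s`;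
good cubes; blocks; then the position `a`, the surviving cubes and `f₂`.
-/

set_option autoImplicit false
set_option linter.style.longLine false
set_option linter.unusedSectionVars false

open MeasureTheory Set Filter Topology Metric
open scoped ENNReal NNReal

namespace Crest.Agent.R096.Pin_753

open Crest.AnalysisR.VecCalc3 Crest.AnalysisR.Sobolev
open Crest.Agent.R096.Msh_715 Crest.Agent.R096.Mal_874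
open Crest.Agent.R096.Sk_962 (SH)
open Crest.Agent.R096.Br_695 (En)
open Crest.Agent.R96.Lu_538 (Gmat)
open Crest.Agent.R96.Intr_538 (cel par)
open Crest.Agent.R96.Coarse_538 (vt Cb)
open Crest.Agent.R96.En10_199 (P3)

noncomputable section

/-- the affine map of a good cube -/
def Bk (b : R3) (L : R3 →L[ℝ] R3) (z x : R3) : R3 := b + L (x - z)

/-- the translations of the block, radius `1 / (5 * 2 ^ k0)` in the frame -/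
def Tw (Q : CB R3 3) (k0 : ℕ) : Set R3 := {w | ‖Q.ψ w‖ ≤ 1 / (5 * 2 ^ k0)}

/-- the 1-cells of the tiling of the block, as pairs of end points -/
def Ed (Q : CB R3 3) (k0 : ℕ) (hk : Q.kc ≤ k0) : Set (R3 × R3) :=
  {e | ∃ x, (Q.T k0 hk).dim x = 1 ∧ (Q.T k0 hk).cc x = segment ℝ e.1 e.2 ∧ segment ℝ e.1 e.2 ⊆ Q.N}

/-- the layer at the wall of the block -/
def Ly (Q : CB R3 3) (k0 : ℕ) : Set R3 :=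
  {y | ∃ z ∈ frontier Q.N, ‖Q.ψ y - Q.ψ z‖ ≤ 40 / 2 ^ k0}

/-- **a core block in the good cube `(z0, s)`**: condition of the frame bounded by `κ`, frame in the finite
net `Nn`, position in the lattice `2^-k0 / d`, shell bounded by `Bs`, cells at the core between `c1 s` and `hh s`, wall scale between
`θ1 s` and `θ0 s` -/
structure BlkP (κ s τ hh c1 θ0 θ1 : ℝ) (Bs Nn : ℕ) (z0 : R3) (Q : CB R3 3) (k0 : ℕ) : Prop where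
  cnd : ∀ v, κ / 4 * ‖v‖ ≤ ‖Q.ψ v‖ ∧ ‖Q.ψ v‖ ≤ 4 * κ⁻¹ * ‖v‖
  net : ∃ (d : ℕ) (B : Fin 3 → Fin 3 → ℤ), 0 < d ∧ d ≤ Nn ∧ (∀ i j, |B i j| ≤ Nn) ∧
    Rt P3.symm Q.ψ B d ∧ ∀ m, ∃ c : ℤ, 2 ^ k0 * (d : ℝ) * Q.a' m = c
  hB : ∀ i, ∀ p ∈ Q.S.GG i, ∀ l, |p.1 l| ≤ Bs
  hR : ∀ i, i ≠ Q.S.core → ∀ v ∈ ZP (Q.S.GG i), ∀ w ∈ ZP (Q.S.GG i), ∀ l, |w l - v l| ≤ Bs
  cellL : c1 * s ≤ 1 / 2 ^ Q.kc
  cellU : 1 / 2 ^ Q.kc ≤ hh * s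
  lo : θ1 * s ≤ 1 / 2 ^ k0
  hi : 1 / 2 ^ k0 ≤ θ0 * s
  sub : Q.N ⊆ cel Cb z0 ((1 - τ) * s)

/-- **what is known about `f` near the core block** (1'), (2a), (2b) of (IN**), relative to the affine map
`x ↦ b + L (x - z)` of the good cube -/
structure InP (p : ℝ) (f : R3 → R3) (D : R3 → R3 →L[ℝ] R3) (C1 κw s : ℝ) (b : R3) (L : R3 →L[ℝ] R3)
    (z : R3) (er : ℝ≥0∞) (Q : CB R3 3) (k0 : ℕ) (hk : Q.kc ≤ k0) : Prop where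
  gam : ∀ x ∈ Q.Kc, (Q.T k0 hk).dim x = 1 → ∀ y ∈ (Q.T k0 hk).cc x, ∀ w ∈ Tw Q k0,
    ‖f (y + w) - Bk b L z (y + w)‖ ≤ κw * s
  tra : ∃ G : Set R3, volume (Tw Q k0 \ G) ≤ ENNReal.ofReal (1 / 256) * volume (Tw Q k0) ∧
    ∀ w ∈ G, w ∈ Tw Q k0 →
      (∀ e ∈ Ed Q k0 hk, segment ℝ e.1 e.2 ⊆ Q.Kc →
        ∫⁻ τ in Icc (0:ℝ) 1, ‖D (e.1 + w + τ • (e.2 - e.1)) (e.2 - e.1) - L (e.2 - e.1)‖ₑ ≤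
          ENNReal.ofReal (κw * ‖e.2 - e.1‖)) ∧
      ENNReal.ofReal (‖L‖ ^ p / |L.det|) *
        (∑' e : Ed Q k0 hk, ENNReal.ofReal (‖L (e.1.2 - e.1.1)‖ ^ (3 - p)) *
          (∫⁻ τ in Icc (0:ℝ) 1, ‖D (e.1.1 + w + τ • (e.1.2 - e.1.1)) (e.1.2 - e.1.1)‖ₑ ^ p)) ≤
        ENNReal.ofReal (C1 * ‖L‖ ^ p) * volume (Q.N \ Q.Kc) + er

/-- **everything before the foam machine**, `1 ≤ p ≤ 2`. -/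
def PreIN (p : ℝ) : Prop :=
  ∀ Bs : ℕ, ∃ C : ℝ≥0, ∀ (Om La : Set R3) (f : R3 → R3) (G : Fin 3 → R3 → R3),
    IsOpen Om → Bornology.IsBounded Om → IsConnected Om →
    IsOpen La → Bornology.IsBounded La → IsConnected La → SH p Om La f G →
  ∀ ε : ℝ, 0 < ε →
  ∃ κ : ℝ, 0 < κ ∧ κ ≤ 1 ∧ ∃ K ⊆ Om, IsCompact K ∧ ∃ K' ⊆ La, IsCompact K' ∧ ∃ C1 : ℝ, 1 ≤ C1 ∧
  ∀ (τ hh c1 c2 κw e : ℝ) (Nn : ℕ), 0 < τ → τ ≤ 1 / 4 → 0 < hh → 0 < c1 → 0 < c2 → 0 < κw → 0 < e →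
    C1 * hh ≤ min τ c2 →
  ∃ θ0 : ℝ, 0 < θ0 ∧ ∀ θ1 : ℝ, 0 < θ1 →
  ∀ η : R3 → ℝ, ContinuousOn η Om → (∀ x ∈ Om, 0 < η x) → ∀ e1 δ : ℝ, 0 < e1 → 0 < δ →
  ∃ s₀ : ℝ, 0 < s₀ ∧ ∀ s : ℝ, 0 < s → s < s₀ → ∀ a₀ : R3,
  ∃ (Q₀ : Finset (Fin 3 → ℤ)) (b : (Fin 3 → ℤ) → R3) (L : (Fin 3 → ℤ) → R3 →L[ℝ] R3),
    (∀ k ∈ Q₀, (∀ v, κ * ‖v‖ ≤ ‖L k v‖) ∧ ‖L k‖ ≤ κ⁻¹) ∧
    (∀ k ∈ Q₀, cel Cb (vt (2 * s) a₀ k) s ⊆ K) ∧ (∀ k ∈ Q₀, par Cb (L k) (b k) s ⊆ K') ∧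
    (∀ k ∈ Q₀, ∀ l ∈ Q₀, k ≠ l →
      Disjoint (par Cb (L k) (b k) ((1 - τ) * s)) (par Cb (L l) (b l) s)) ∧
    (∑ k ∈ Q₀, ∫⁻ x in cel Cb (vt (2 * s) a₀ k) s, ‖Gmat G x - L k‖ₑ ^ p) ≤ ENNReal.ofReal e1 ∧
    volume ((Om ∩ {x | (Gmat G x).det ≠ 0}) \ ⋃ k ∈ Q₀, cel Cb (vt (2 * s) a₀ k) s) ≤
      ENNReal.ofReal ε ∧
  ∀ (J : Type) [Finite J] (kk : J → Fin 3 → ℤ) (Qb : J → CB R3 3) (k0 : ℕ)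
    (hk : ∀ j, (Qb j).kc ≤ k0), (∀ j, kk j ∈ Q₀) →
    (∀ j, BlkP κ s τ hh c1 θ0 θ1 Bs Nn (vt (2 * s) a₀ (kk j)) (Qb j) k0) →
    (∀ i j, i ≠ j → ∀ x ∈ (Qb i).N, ∀ y ∈ (Qb j).N, c2 * s ≤ dist x y) →
  ∃ a : R3, ‖a‖ ≤ κw * s ∧ ∃ Q ⊆ Q₀, ((Q₀ \ Q).card : ℝ) * (2 * s) ^ 3 ≤ δ ∧
  ∃ (f₂ : R3 → R3) (G₂ : Fin 3 → R3 → R3) (er : J → ℝ≥0∞), SH p Om La f₂ G₂ ∧
    (∀ x ∈ Om, ‖f₂ x - f x‖ ≤ η x) ∧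
    (∀ k ∈ Q, ∀ x ∈ cel Cb (vt (2 * s) a₀ k) ((1 - τ) * s),
      ‖f₂ x - Bk (b k) (L k) (vt (2 * s) a₀ k) x‖ ≤ C1 * hh * s) ∧
    (∀ j, kk j ∈ Q → InP p f₂ (Gmat G₂) C1 κw s (b (kk j)) (L (kk j))
      (vt (2 * s) a₀ (kk j)) (er j) ((Qb j).tr a) k0 (hk j)) ∧
    (∑' j : {j // kk j ∈ Q}, er j) ≤ ENNReal.ofReal e ∧
    (∑' j : {j // kk j ∈ Q}, ∫⁻ x in Ly ((Qb j).tr a) k0, (1 + En p G₂ x)) ≤ ENNReal.ofReal e ∧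
    (∫⁻ x in Om \ ⋃ j ∈ {j | kk j ∈ Q}, ((Qb j).tr a).N, (1 + En p G₂ x)) ≤
      C * (∫⁻ x in Om \ ⋃ j ∈ {j | kk j ∈ Q}, ((Qb j).tr a).Kc, (1 + En p G x)) + ENNReal.ofReal e

end

end Crest.Agent.R096.Pin_753
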