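import Crest.Agent.R096.Cp7_465
import Crest.Agent.R096.Pin1_753

/-!
Row 96 (S0127), helper753.  Assembly of `PreIN p`, part 1: one format for the results of composite A
(`pr = True` for `p = 2`, `pr = False` for `p < 2`).
-/

set_option autoImplicit false
set_option linter.style.longLine false
set_option linter.unusedSectionVars false

open MeasureTheory Set Filter Topology Metric
open scoped ENNReal NNReal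

namespace Crest.Agent.R096.Pas_753

open Crest.AnalysisR.VecCalc3 Crest.AnalysisR.Sobolev
open Crest.Agent.R096.Msh_715 (Tiling P I)
open Crest.Agent.R096.Mal_874 (CB)
open Crest.Agent.R096.Sk_962 (SH)
open Crest.Agent.R096.Br_695 (En)
open Crest.Agent.R096.Sk2_855 (Mv sk1)
open Crest.Agent.R096.Cp_465
open Crest.Agent.R096.Pin_753
open Crest.Agent.R96.Lu_538 (Gmat)
open Crest.Agent.R96.Intr_538 (cel par)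
open Crest.Agent.R96.Coarse_538 (vt Cb)

noncomputable section

/-- **the result of composite A**, uniform in `p` (`pr` = "`p = 2`") -/
def ResU (pr : Prop) {ι : Type} (Om La : Set R3) (T : Tiling Om ι) (f : R3 → R3)
    (Q : Finset (Fin 3 → ℤ)) (zc bb : (Fin 3 → ℤ) → R3) (LL : (Fin 3 → ℤ) → R3 →L[ℝ] R3)
    (κ τ s d σ : ℝ) : Prop :=
  ∀ e > 0, ∀ ζ : R3 → ℝ, (∀ y ∈ La, 0 < ζ y) → (∀ y y', |ζ y - ζ y'| ≤ ‖y - y'‖ / 2) →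
    ∃ Φ : R3 ≃ₜ R3, Mv T Φ ∧
    (∀ k ∈ Q, ∀ y ∈ cel Cb (zc k) ((1 - 6 * τ) * s), ‖f (Φ y) - (bb k + LL k (y - zc k))‖ ≤ d + e) ∧
    (∀ i, ∀ y ∈ P (T.H i), ∀ r, (∀ y' ∈ P (T.H i), ‖f y' - f y‖ ≤ r) →
      ‖f (Φ y) - f y‖ ≤ r + d + e) ∧
    (∀ i, ∀ y ∈ P (T.H i), ∀ r, (∀ y' ∈ P (T.H i), ‖f y' - f y‖ ≤ r) →
      (∀ k ∈ Q, Disjoint (closedBall (f y) (2 * r + ζ (f y)))
        (par Cb (LL k) (bb k) ((1 - 4 * τ) * s))) → ‖f (Φ y) - f y‖ ≤ 4 * r + 4 * ζ (f y)) ∧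
    ∃ (m : {k // k ∈ Q} → ℕ) (y : ∀ k, Fin (m k) → R3) (ρ : ∀ k, Fin (m k) → ℝ),
      (∀ (k : {k // k ∈ Q}) l, y k l ∈ par Cb (LL k) (bb k) ((1 - 4 * τ) * s)) ∧
      (∀ k l, 0 < ρ k l) ∧ (∀ k, ∑ l, 2 * ρ k l ≤ σ) ∧ (pr → NearB T f Φ y ρ) ∧
      Sqz La (fun k : {k // k ∈ Q} => par Cb (LL k) (bb k) ((1 - 4 * τ) * s))
        (fun _ => κ * (τ * s)) (fun _ => σ) y ρ

theorem ResU.of_two {ι : Type} {Om La : Set R3} {T : Tiling Om ι} {f : R3 → R3}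
    {Q : Finset (Fin 3 → ℤ)} {zc bb : (Fin 3 → ℤ) → R3} {LL : (Fin 3 → ℤ) → R3 →L[ℝ] R3}
    {κ τ s d σ : ℝ} (H : ResA2F Om La T f Q zc bb LL κ τ s d σ) (pr : Prop) :
    ResU pr Om La T f Q zc bb LL κ τ s d σ := by
  intro e he ζ h1 h2
  obtain ⟨Φ, g1, g2, g3, g4, m, y, ρ, g5, g6, g7, g8, g9⟩ := H e he ζ h1 h2
  exact ⟨Φ, g1, g2, g3, g4, m, y, ρ, g5, g6, g7, fun _ => g8, g9⟩

/-- the trivial squeeze -/
theorem sqz_zero {La : Set R3} {K : Type*} (D : K → Set R3) (r σ : K → ℝ) (hσ : ∀ k, 0 ≤ σ k)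
    (y : ∀ _ : K, Fin 0 → R3) (ρ : ∀ _ : K, Fin 0 → ℝ) : Sqz La D r σ y ρ := by
  intro n
  refine ⟨Homeomorph.refl R3, ?_, fun y => Iff.rfl, fun y _ => rfl, fun k y hy => ⟨hy, ?_⟩,
    fun k l => l.elim0, fun _ _ _ => 0, fun _ _ => monotone_const, fun _ _ x y => ?_,
    fun _ _ _ => le_rfl, fun k _ _ => hσ k, fun q y _ a => ?_⟩
  · refine LipschitzWith.weaken (K := 1) ?_ ?_
    · exact LipschitzWith.id
    · rw [le_div_iff₀ (by norm_num)]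
      norm_num
  · have := hσ k
    simp only [Homeomorph.refl_apply, id, sub_self, norm_zero]
    linarith
  · simp
  · simp

/-- **`p < 2`** -/
theorem ResU.of_lt {ι : Type} {Om La : Set R3} {T : Tiling Om ι} {f : R3 → R3}
    {Q : Finset (Fin 3 → ℤ)} {zc bb : (Fin 3 → ℤ) → R3} {LL : (Fin 3 → ℤ) → R3 →L[ℝ] R3}
    {κ τ s d σ : ℝ} (hσ : 0 ≤ σ)
    (H : ∀ e > 0, ∀ ζ : R3 → ℝ, (∀ y ∈ La, 0 < ζ y) → (∀ y y', |ζ y - ζ y'| ≤ ‖y - y'‖ / 2) →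
      ∃ Φ : R3 ≃ₜ R3, Mv T Φ ∧
      (∀ k ∈ Q, ∀ y ∈ cel Cb (zc k) ((1 - 6 * τ) * s),
        ‖f (Φ y) - (bb k + LL k (y - zc k))‖ ≤ d + e) ∧
      (∀ i, ∀ y ∈ P (T.H i), ∀ r, (∀ y' ∈ P (T.H i), ‖f y' - f y‖ ≤ r) →
        ‖f (Φ y) - f y‖ ≤ r + d + e) ∧
      (∀ i, ∀ y ∈ P (T.H i), ∀ r, (∀ y' ∈ P (T.H i), ‖f y' - f y‖ ≤ r) →
        (∀ k ∈ Q, Disjoint (closedBall (f y) (2 * r + ζ (f y)))
          (par Cb (LL k) (bb k) ((1 - 4 * τ) * s))) → ‖f (Φ y) - f y‖ ≤ 4 * r + 4 * ζ (f y))) :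
    ResU False Om La T f Q zc bb LL κ τ s d σ := by
  intro e he ζ h1 h2
  obtain ⟨Φ, g1, g2, g3, g4⟩ := H e he ζ h1 h2
  exact ⟨Φ, g1, g2, g3, g4, fun _ => 0, fun _ l => l.elim0, fun _ l => l.elim0, fun _ l => l.elim0,
    fun _ l => l.elim0, fun _ => by simpa using hσ, fun h => h.elim, sqz_zero _ _ _ (fun _ => hσ) _ _⟩

/-- **what composite B uses**: `Φ`, the open set `U` and the squeezes `R` -/
theorem ResU.use {pr : Prop} {ι : Type} {Om La : Set R3} {T : Tiling Om ι} {f : R3 → R3}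
    {Q : Finset (Fin 3 → ℤ)} {zc bb : (Fin 3 → ℤ) → R3} {LL : (Fin 3 → ℤ) → R3 →L[ℝ] R3}
    {κ τ s d σ : ℝ} (hσ : 0 ≤ σ) (H : ResU pr Om La T f Q zc bb LL κ τ s d σ) {e : ℝ} (he : 0 < e)
    {ζ : R3 → ℝ} (hζ : ∀ y ∈ La, 0 < ζ y) (hζ' : ∀ y y', |ζ y - ζ y'| ≤ ‖y - y'‖ / 2) :
    ∃ (Φ : R3 ≃ₜ R3) (U : Set R3), Mv T Φ ∧ IsOpen U ∧
      (∀ k ∈ Q, ∀ y ∈ cel Cb (zc k) ((1 - 6 * τ) * s),
        ‖f (Φ y) - (bb k + LL k (y - zc k))‖ ≤ d + e) ∧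
      (∀ i, ∀ y ∈ P (T.H i), ∀ r, (∀ y' ∈ P (T.H i), ‖f y' - f y‖ ≤ r) →
        ‖f (Φ y) - f y‖ ≤ r + d + e) ∧
      (∀ i, ∀ y ∈ P (T.H i), ∀ r, (∀ y' ∈ P (T.H i), ‖f y' - f y‖ ≤ r) →
        (∀ k ∈ Q, Disjoint (closedBall (f y) (2 * r + ζ (f y)))
          (par Cb (LL k) (bb k) ((1 - 4 * τ) * s))) → ‖f (Φ y) - f y‖ ≤ 4 * r + 4 * ζ (f y)) ∧
      (pr → ∀ x ∈ Om, T.dim x = 2 → ∀ z ∈ T.cc x, (∀ᶠ w in 𝓝 z, Φ w = w) ∨ f (Φ z) ∈ U) ∧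
      ∀ θ : ℝ, 0 < θ → ∃ R : R3 ≃ₜ R3, LipschitzWith (3 / 2) R ∧ (∀ y, R y ∈ La ↔ y ∈ La) ∧
        (∀ y, ‖R y - y‖ ≤ 3 * σ) ∧
        (∀ y, (∀ k ∈ Q, y ∉ thickening (κ * (τ * s)) (par Cb (LL k) (bb k) ((1 - 4 * τ) * s))) →
          R y = y) ∧
        (∀ y ∈ U, ∀ ε > 0, ∀ᶠ z in 𝓝 y, ‖R z - R y‖ ≤ (θ + ε) * ‖z - y‖) ∧
        ∃ ψ : {k // k ∈ Q} → Fin 3 → ℝ → ℝ, (∀ q a, Monotone (ψ q a)) ∧
          (∀ q a x y, |ψ q a x - ψ q a y| ≤ |x - y|) ∧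
          (∀ q a x, 0 ≤ ψ q a x) ∧ (∀ q a x, ψ q a x ≤ σ) ∧
          ∀ q : {k // k ∈ Q}, ∀ y ∈ thickening (κ * (τ * s) / 4)
            (par Cb (LL q) (bb q) ((1 - 4 * τ) * s)), ∀ a, R y a = y a - ψ q a (y a) := by
  obtain ⟨Φ, g1, g2, g3, g4, m, y, ρ, g5, g6, g7, g8, g9⟩ := H e he ζ hζ hζ'
  refine ⟨Φ, ⋃ k, ⋃ l, ball (y k l) (ρ k l), g1, isOpen_iUnion fun k => isOpen_iUnion fun l =>
    isOpen_ball, g2, g3, g4, fun h x hx hd z hz => ?_, fun θ hθ => ?_⟩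
  · rcases g8 h x hx hd z hz with h1 | ⟨k, l, h1⟩
    · exact Or.inl h1
    · exact Or.inr (mem_iUnion₂.2 ⟨k, l, h1⟩)
  · obtain ⟨n, hn⟩ := exists_pow_lt_of_lt_one hθ (by norm_num : (1 / 2 : ℝ) < 1)
    obtain ⟨R, r1, r2, r3, r4, r5, r6⟩ := g9 n
    refine ⟨R, r1, r2, fun y => ?_, fun y hy => r3 y fun k => hy k k.2, fun y hy ε hε => ?_, r6⟩
    · by_cases h : ∃ k : {k // k ∈ Q}, y ∈ thickening (κ * (τ * s))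
          (par Cb (LL k) (bb k) ((1 - 4 * τ) * s))
      · obtain ⟨k, hk⟩ := h
        exact (r4 k y hk).2
      · rw [r3 y fun k hk => h ⟨k, hk⟩]
        simp only [sub_self, norm_zero]
        linarith
    · obtain ⟨k, l, h1⟩ := mem_iUnion₂.1 hy
      filter_upwards [r5 k l y h1] with z hz
      refine hz.trans ?_
      gcongr
      linarith

end

end Crest.Agent.R096.Pas_753
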