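/-
helper622, row 96, `OneP`, part 3: small things for the assembly: the squeeze `χ` of the source stays in
the tiles, the property `PrR` of the squeezes of the target, the errors `erT` and their sum.
-/
import Crest.Agent.R096.Onp2_622
import Crest.Agent.R096.Cob11_622
import Crest.Agent.R096.Pas1_753

set_option autoImplicit false
set_option linter.unusedSectionVars false
set_option linter.style.longLine false

open Set Metric Filter Topology MeasureTheory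
open scoped ENNReal NNReal

namespace Crest.Agent.R096.Onp_622

open Crest.Agent.R096.Ce_537 Crest.Agent.R096.Bd_416 Crest.Agent.R96.Hole_348
open Crest.AnalysisR.VecCalc3 Crest.AnalysisR.Sobolev Crest.Agent.R096.Sk_962
open Crest.Agent.R096.Msh_715 (P I Tiling)
open Crest.Agent.R096.Mal_874 (CB)
open Crest.Agent.R096.Sq_55
open Crest.Agent.R096.Efi_296
open Crest.Agent.R096.Cbs_296
open Crest.Agent.R096.Ca_855 (MIn deepT)
open Crest.Agent.R096.Cob_622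
open Crest.Agent.R096.Br_695 (En)
open Crest.Agent.R96.Lu_538 (Gmat)
open Crest.Agent.R96.Intr_538 (cel par)
open Crest.Agent.R96.Coarse_538 (vt Cb)
open Crest.Agent.R96.En10_199 (P3)

noncomputable section

/-! ### the squeeze of the source -/

/-- **`hχ` of 692's `out_c0`** -/
theorem hchi {Om : Set R3} {ι : Type*} {T : Tiling Om ι} {s : Finset ι} {pr : (Te T).Cell → Prop}
    {c : ι → E3} {R : ι → ℝ≥0} {ρ : E3 → ℝ≥0} {m : ι → ℝ≥0} {X : Sys s (reps (Te T) s pr)}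
    (h : SysOf (Te T) s pr c R ρ m X) (hpr : ∀ c : (Te T).Cell, pr c → ∀ k ∈ (Te T).at_ c.pt, k ∈ s)
    {p δ : ℝ} (hA : X.Adm p δ) (N₁ N₂ : ℕ) (x : R3) (hx : x ∈ Om) :
    ∃ i, x ∈ P (T.H i) ∧ toR (Sys.chi hA N₁ N₂) x ∈ P (T.H i) := by
  by_cases hk : ∃ k : s, x ∈ P (T.H k)
  · obtain ⟨k, hk⟩ := hk
    refine ⟨k, hk, ?_⟩
    have h1 : w2.symm x ∈ (X.C k).P := by
      rw [h.eP k, Ou_372.mem_P_Te, w2.apply_symm_apply]
      exact hk
    have h2 := (Sys.chi_P hA N₁ N₂ k (w2.symm x)).2 h1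
    rw [h.eP k, Ou_372.mem_P_Te] at h2
    exact h2
  · obtain ⟨i, hi⟩ := T.cov x hx
    refine ⟨i, hi, ?_⟩
    have h1 : w2.symm x ∉ ⋃ k, (X.C k).P := by
      intro h2
      obtain ⟨k, hk2⟩ := mem_iUnion.1 h2
      rw [h.eP k, Ou_372.mem_P_Te, w2.apply_symm_apply] at hk2
      exact hk ⟨k, hk2⟩
    have h2 : toR (Sys.chi hA N₁ N₂) x = x := by
      rw [toR_apply, Cob_622.chi_out (h.K_sub_P hpr) hA N₁ N₂ h1, w2.apply_symm_apply]
    rw [h2]
    exact hi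

/-! ### the squeezes of the target -/

/-- what is known about the squeezes `R` of the target (last clauses of 753's `ResU.use`) -/
def PrR (κ τ s σr : ℝ) (b : (Fin 3 → ℤ) → R3) (L : (Fin 3 → ℤ) → R3 →L[ℝ] R3)
    (Q : Finset (Fin 3 → ℤ)) (R : R3 ≃ₜ R3) : Prop :=
  (∀ y, ‖R y - y‖ ≤ 3 * σr) ∧
  (∀ y, (∀ k ∈ Q, y ∉ thickening (κ * (τ * s)) (par Cb (L k) (b k) ((1 - 4 * τ) * s))) →
    R y = y) ∧
  ∃ ψ : {k // k ∈ Q} → Fin 3 → ℝ → ℝ, (∀ q a, Monotone (ψ q a)) ∧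
    (∀ q a x y, |ψ q a x - ψ q a y| ≤ |x - y|) ∧
    (∀ q a x, 0 ≤ ψ q a x) ∧ (∀ q a x, ψ q a x ≤ σr) ∧
    ∀ q : {k // k ∈ Q}, ∀ y ∈ thickening (κ * (τ * s) / 4)
      (par Cb (L q) (b q) ((1 - 4 * τ) * s)), ∀ a, R y a = y a - ψ q a (y a)

/-! ### the errors of the blocks -/

section er

variable {Om W : Set R3} {ρ₀ : R3 → ℝ} {J : Type} [Finite J] {Qb : J → CB R3 3} {k0 : ℕ} {σ : ℝ}

/-- the tiles in the zone `Rl / 2 ^ k0` of the wall of block `j` -/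
def zoneT (h : MIn Om W ρ₀ Qb k0 σ) (a : R3) (Rl : ℝ) (j : J) : Set (h.ιT a) :=
  {t | ∃ x ∈ P ((h.T a).H t), ∃ z ∈ frontier ((Qb j).tr a).N,
    ‖(Qb j).ψ x - (Qb j).ψ z‖ ≤ Rl / 2 ^ k0}

open Classical in
/-- the tiles of `s` in the zone of the wall of block `j` -/
def zoneS (h : MIn Om W ρ₀ Qb k0 σ) (a : R3) (s : Finset (h.ιT a)) (Rl : ℝ) (j : J) : Finset s :=
  Finset.univ.filter fun k : s => (k : h.ιT a) ∈ zoneT h a Rl j

theorem mem_zoneS {h : MIn Om W ρ₀ Qb k0 σ} {a : R3} {s : Finset (h.ιT a)} {Rl : ℝ} {j : J}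
    {k : s} : k ∈ zoneS h a s Rl j ↔ (k : h.ιT a) ∈ zoneT h a Rl j := by
  classical
  unfold zoneS
  rw [Finset.mem_filter]
  exact ⟨fun h => h.2, fun h => ⟨Finset.mem_univ _, h⟩⟩

/-- **the error of block `j`** -/
def erT (h : MIn Om W ρ₀ Qb k0 σ) (a : R3) {s : Finset (h.ιT a)} (Jf : s → ℝ≥0∞) (Rl Cer : ℝ)
    (ε : ℝ≥0∞) (j : J) : ℝ≥0∞ :=
  ENNReal.ofReal Cer * ∑ k ∈ zoneS h a s Rl j, (Jf k + ε)

/-- the zones of different blocks have no common tile -/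
theorem zone_disj (h : MIn Om W ρ₀ Qb k0 σ) {a : R3} {κ Rl dm c2 s' : ℝ} (hκ : 0 < κ)
    (hb : ∀ j v, κ / 4 * ‖v‖ ≤ ‖(Qb j).ψ v‖)
    (hdm : ∀ j, ∀ t ∈ zoneT h a Rl j, ∀ x ∈ P ((h.T a).H t), ∀ y ∈ P ((h.T a).H t),
      ‖x - y‖ ≤ dm / 2 ^ k0)
    (sep : ∀ i j, i ≠ j → ∀ x ∈ (Qb i).N, ∀ y ∈ (Qb j).N, c2 * s' ≤ dist x y)
    (hnum : (dm + 8 * κ⁻¹ * Rl) * (1 / 2 ^ k0) < c2 * s') {i j : J} (hij : i ≠ j) {t : h.ιT a}
    (hi : t ∈ zoneT h a Rl i) : t ∉ zoneT h a Rl j := by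
  intro hj
  have hd := hdm i t hi
  obtain ⟨x, hx, z, hz, h1⟩ := hi
  obtain ⟨y, hy, w, hw, h2⟩ := hj
  have n1 : z - a ∈ (Qb i).N := ((Qb i).mem_N_tr a z).1 (((Qb i).tr a).frontier_sub hz)
  have n2 : w - a ∈ (Qb j).N := ((Qb j).mem_N_tr a w).1 (((Qb j).tr a).frontier_sub hw)
  have h5 := sep i j hij _ n1 _ n2
  rw [dist_sub_right] at h5
  have near : ∀ (l : J) (u v : R3), ‖(Qb l).ψ u - (Qb l).ψ v‖ ≤ Rl / 2 ^ k0 →
      dist u v ≤ 4 * κ⁻¹ * Rl * (1 / 2 ^ k0) := by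
    intro l u v huv
    have h6 := hb l (u - v)
    rw [map_sub] at h6
    rw [dist_eq_norm]
    have h7 : κ * ‖u - v‖ ≤ 4 * (Rl / 2 ^ k0) := by linarith
    have h8 : ‖u - v‖ ≤ (4 * (Rl / 2 ^ k0)) / κ := by rw [le_div_iff₀' hκ]; exact h7
    refine h8.trans (le_of_eq ?_)
    field_simp
  have h6 := near i x z h1
  have h7 := near j y w h2
  have h8 := hd x hx y hy
  rw [← dist_eq_norm] at h8
  have h9 : dist z w ≤ dist x z + dist x y + dist y w := by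
    have h10 := dist_triangle z x w
    have h11 := dist_triangle x y w
    rw [dist_comm z x] at h10
    linarith
  have e1 : dm / 2 ^ k0 = dm * (1 / 2 ^ k0) := by ring
  rw [e1] at h8
  nlinarith

/-- **the sum of the errors** -/
theorem sum_erT (h : MIn Om W ρ₀ Qb k0 σ) {a : R3} {s : Finset (h.ιT a)} {Jf cb : s → ℝ≥0∞}
    {Rl Cer e₀ : ℝ} {ε : ℝ≥0∞} {pJ : J → Prop}
    (hdis : ∀ i j, i ≠ j → ∀ t ∈ zoneT h a Rl i, t ∉ zoneT h a Rl j)
    (hcb : ∀ k, 1 ≤ cb k)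
    (hE : ∀ s₂ : Finset s, (∀ k ∈ s₂, ∃ j, pJ j ∧ (k : h.ιT a) ∈ zoneT h a Rl j) →
      ∑ k ∈ s₂, cb k * Jf k ≤ ENNReal.ofReal e₀) :
    (∑' j : {j // pJ j}, erT h a Jf Rl Cer ε (j : J)) ≤
      ENNReal.ofReal Cer * (ENNReal.ofReal e₀ + s.card * ε) := by
  classical
  have hfin := Fintype.ofFinite {j // pJ j}
  unfold erT
  rw [ENNReal.tsum_mul_left, tsum_fintype]
  refine mul_le_mul' le_rfl ?_
  rw [← Finset.sum_biUnion (s := (Finset.univ : Finset {j // pJ j}))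
    (t := fun j : {j // pJ j} => zoneS h a s Rl (j : J)) (f := fun k => Jf k + ε)]
  · set B := (Finset.univ : Finset {j // pJ j}).biUnion fun j => zoneS h a s Rl (j : J) with hB
    rw [Finset.sum_add_distrib, Finset.sum_const, nsmul_eq_mul]
    refine add_le_add ?_ ?_
    · refine le_trans (Finset.sum_le_sum fun k _ => ?_) (hE B fun k hk => ?_)
      · exact le_mul_of_one_le_left' (hcb k)
      · rw [hB, Finset.mem_biUnion] at hk
        obtain ⟨j, -, hj⟩ := hk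
        exact ⟨j, j.2, mem_zoneS.1 hj⟩
    · have h3 : B.card ≤ s.card := by
        have h4 : B.card ≤ (Finset.univ : Finset s).card := Finset.card_le_univ B
        rwa [Finset.card_univ, Fintype.card_coe] at h4
      have h5 : (B.card : ℝ≥0∞) ≤ s.card := by exact_mod_cast h3
      exact mul_le_mul' h5 le_rfl
  · intro i _ j _ hij
    rw [Function.onFun, Finset.disjoint_left]
    intro k hk hk'
    exact hdis i j (fun e => hij (Subtype.ext e)) _ (mem_zoneS.1 hk) (mem_zoneS.1 hk')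

end er

end

end Crest.Agent.R096.Onp_622
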