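import Crest.Agent.R096.Onp2_622
import Crest.Agent.R096.Ou2_372

/-!
Row 96 (S0127), helper372.  (OU), part 3: the two last clauses of `OutB` from `SetD` (622), `AdE` and `Els`
(538) and the clauses (out), (cells) of `cob_O1` (622), in the letters of `OneP`.
-/

set_option autoImplicit false
set_option linter.style.longLine false
set_option linter.unusedSectionVars false

open MeasureTheory Set Filter Topology Metric
open scoped ENNReal NNReal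

namespace Crest.Agent.R096.Ou_372

open Crest.AnalysisR.VecCalc3 Crest.AnalysisR.Sobolev
open Crest.Agent.R096.Msh_715 (Tiling P I)
open Crest.Agent.R096.Mal_874 (CB)
open Crest.Agent.R096.Br_695 (En)
open Crest.Agent.R096.Pin_753
open Crest.Agent.R96.Intr_538 (cel)
open Crest.Agent.R96.Coarse_538 (vt Cb mem_cel)
open Crest.Agent.R096.Sq_55 (E3 Sys Face FaceOf w2 lint_w2)
open Crest.Agent.R096.Cob_622 (EF)
open Crest.Agent.R096.Efi_296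
open Crest.Agent.R096.Cbs_296
open Crest.Agent.R096.Ca_855 (MIn deepT s1T s2T mem_s1T mem_s2T hs1T hsq1T hs2T hsq2T)
open Crest.Agent.R096.Onp_622 (SetD)
open Crest.Agent.R96.Eld_538 (AdE Els)
open Crest.Agent.R96.En10_199 (P3)

noncomputable section

variable {Om W : Set R3} {ρ₀ : R3 → ℝ} {J : Type} [Finite J] {Qb : J → CB R3 3} {k0 : ℕ}

/-- **the two last clauses of `OutB`** -/
theorem ouly_setD {p : ℝ} {s' c2 : ℝ} (h : MIn Om W ρ₀ Qb k0 (c2 * s')) {a : R3}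
    {kk : J → Fin 3 → ℤ} {Q Q₀ : Finset (Fin 3 → ℤ)} {K1 K3 : ℕ} {vU vI vN : ℝ≥0} {f : R3 → R3}
    {Φ : R3 ≃ₜ R3} {U K₀ : Set R3} {s : Finset (h.ιT a)} {pr : (Te (h.T a)).Cell → Prop}
    {c : h.ιT a → E3} {κt : h.ιT a → ℕ} {R u : h.ιT a → ℝ≥0}
    {X : Sys s (reps (Te (h.T a)) s pr)} {G G₂ : Fin 3 → R3 → R3} {mU mN Cu K : ℝ≥0}
    {Rl e₀ : ℝ} {ε : ℝ≥0∞} (hS : SetD p h a kk Q K1 K3 vU vI vN f Φ U K₀ s pr c κt R u X)
    {D : EF X Om (En p G) (EgS (Te (h.T a)) s) (FcS (Te (h.T a)) s pr)}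
    (hA : AdE p h G mU mN a s pr c R (ρS (Te (h.T a)) R) (mS (Te (h.T a)) s pr u) X D)
    (hE : Els p Om W ρ₀ J Qb k0 (c2 * s') h G {j | kk j ∈ Q} mU Cu mN Rl e₀ a)
    (hK : K ≤ 2) (hK1 : 4 ≤ K1) (hRl : 40 ≤ Rl) (hOm : MeasurableSet Om)
    (out : ∀ S : Set R3, MeasurableSet S → S ⊆ Om → (∀ x ∈ S, x ∉ w2 '' (⋃ k, (X.C k).P)) →
      ∫⁻ x in S, En p G₂ x ≤
        ENNReal.ofReal ((6:ℝ)^p * (3 * (9 * K)^p)) * (∫⁻ x in S, En p G x) + ε)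
    (cells : ∀ k, (p < 2 ∨ ∀ j, ¬ ((X.F j).V ∩ (X.C k).P).Nonempty) →
      ∫⁻ x in (X.C k).P, En p G₂ (w2 x) ≤ ENNReal.ofReal (Cob_622.CB p K (X.m k)) * D.J k + ε)
    {κ τ hh c1 θ0 θ1 e : ℝ} {Bs Nn : ℕ} {a₀ : R3} (hs : 0 < s') (hκ : 0 < κ) (hκ1 : κ ≤ 1)
    (hτ : τ ≤ 1 / 4) (hc1 : 0 < c1) (hc2 : 0 < c2) (he : 0 < e)
    (hkk : ∀ j, kk j ∈ Q₀) (hcel : ∀ k ∈ Q₀, cel Cb (vt (2 * s') a₀ k) s' ⊆ W)
    (hWO : W ⊆ Om) (hWK : W ⊆ K₀)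
    (hb : ∀ j, BlkP κ s' τ hh c1 θ0 θ1 Bs Nn (vt (2 * s') a₀ (kk j)) (Qb j) k0)
    (sep : ∀ i j, i ≠ j → ∀ x ∈ (Qb i).N, ∀ y ∈ (Qb j).N, c2 * s' ≤ dist x y)
    (h2 : 1 / 2 ^ k0 ≤ θ0 * s') (ha : ‖a‖ ≤ 2 / 2 ^ k0)
    (n1 : 320 * θ0 < κ * c2) (n2 : 40 * θ0 ≤ c1) (n3 : 162 * θ0 ≤ κ * τ)
    (n4 : ENNReal.ofReal (7680 * θ0 / c1) * volume Om ≤ ENNReal.ofReal (e / 3))
    (n5 : e₀ ≤ e / 3) (hε : ((s.card : ℝ≥0∞) + 1) * ε ≤ ENNReal.ofReal (e / 3)) :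
    (∑' j : {j // kk j ∈ Q}, ∫⁻ x in Ly ((Qb j).tr a) k0, (1 + En p G₂ x)) ≤ ENNReal.ofReal e ∧
    (∫⁻ x in Om \ ⋃ j ∈ {j | kk j ∈ Q}, ((Qb j).tr a).N, (1 + En p G₂ x)) ≤
      (Cout p K Cu : ℝ≥0∞) * (∫⁻ x in Om \ ⋃ j ∈ {j | kk j ∈ Q}, ((Qb j).tr a).Kc, (1 + En p G x)) +
        ENNReal.ofReal e := by
  classical
  have hθ0 : 0 < θ0 := by
    by_contra hcon
    have h3 : (0:ℝ) < 1 / 2 ^ k0 := by positivity
    have : θ0 * s' ≤ 0 := mul_nonpos_of_nonpos_of_nonneg (not_lt.1 hcon) hs.le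
    linarith
  have ha2 : ‖a‖ ≤ (2 * θ0) * s' := by
    have e1 : (2:ℝ) / 2 ^ k0 = 2 * (1 / 2 ^ k0) := by ring
    rw [e1] at ha
    nlinarith
  have ha8 : ‖a‖ ≤ c2 * s' / 8 := by
    refine ha2.trans ?_
    have h3 : κ * c2 ≤ c2 := by nlinarith
    have h4 : 16 * θ0 ≤ c2 := by nlinarith
    have h5 : 16 * θ0 * s' ≤ c2 * s' := mul_le_mul_of_nonneg_right h4 hs.le
    linarith
  have hnum : 2 * θ0 + 160 * κ⁻¹ * θ0 ≤ τ := by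
    have h3 : 162 * θ0 * κ⁻¹ ≤ τ := by
      rw [← div_eq_mul_inv, div_le_iff₀ hκ]
      linarith
    have h4 : 1 ≤ κ⁻¹ := (one_le_inv₀ hκ).2 hκ1
    nlinarith
  have hLy : ∀ j, Ly ((Qb j).tr a) k0 ⊆ W := fun j =>
    (ly_sub_cel hs hκ (by linarith) (fun v => ((hb j).cnd v).1) h2 ha2 hnum (hb j).sub).trans
      (hcel _ (hkk j))
  have hNO : ∀ j, (Qb j).N ⊆ Om := by
    intro j
    refine (hb j).sub.trans (Subset.trans ?_ ((hcel _ (hkk j)).trans hWO))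
    intro x hx
    have hτ1 : (0:ℝ) < 1 - τ := by linarith
    rw [mem_cel (mul_pos hτ1 hs)] at hx
    rw [mem_cel hs]
    have hτ0 : 0 < τ := by
      have : 0 < κ⁻¹ * θ0 := by positivity
      nlinarith
    intro i
    exact (hx i).trans (by nlinarith)
  have hpr : ∀ c : (Te (h.T a)).Cell, pr c →
      p < 2 ∨ ∀ k ∈ (Te (h.T a)).at_ c.pt, k ∈ deepT h a kk Q K1 := hS.pr_d
  have hcell : ∀ j, c1 * s' ≤ 1 / 2 ^ (Qb j).kc := fun j => (hb j).cellL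
  have hcnd : ∀ j, ∀ v, κ / 4 * ‖v‖ ≤ ‖(Qb j).ψ v‖ := fun j v => ((hb j).cnd v).1
  obtain ⟨i1, i2⟩ := hE s pr c R _ _ X D hA K hK
  have he₀ : ENNReal.ofReal e₀ ≤ ENNReal.ofReal (e / 3) := ENNReal.ofReal_le_ofReal n5
  have he32 : ENNReal.ofReal (e / 3) ≤ ENNReal.ofReal (e / 2) :=
    ENNReal.ofReal_le_ofReal (by linarith)
  refine ⟨?_, ?_⟩
  · refine ly_clause hS.sys D cells hs hκ hc1 hc2 n1 n2 h2 hcnd hcell sep hNO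
      (fun j _ => (hLy j).trans hWO) (s2T h a kk Q s)
      (fun k j hj hne => hs2T h hS.mem_s (fun j _ => (hLy j).trans hWK) k j hj hne)
      (hsq2T h ha8 hS.sys hK1 hs hκ n1 h2 hcnd sep hpr) he.le ?_ hε n4
    refine (i2 (s2T h a kk Q s) fun k hk => ?_).trans he₀
    obtain ⟨j, hj, x, hx1, z, hz, hxz⟩ := (mem_s2T h).1 hk
    refine ⟨j, hj, x, hx1, z, hz, le_trans (show ‖(Qb j).ψ x - (Qb j).ψ z‖ ≤ 40 / 2 ^ k0 from hxz) ?_⟩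
    exact div_le_div_of_nonneg_right hRl (by positivity)
  · refine ou_clause hS.sys D hOm out cells (s1T h a kk Q s) (hs1T h) (hsq1T h hS.sys hpr) he.le ?_
      (hε.trans he32)
    refine (i1 (s1T h a kk Q s) fun k hk j hj hsub => ?_).trans
      (add_le_add le_rfl (he₀.trans he32))
    exact (mem_s1T h).1 hk ⟨j, hj, hsub⟩

end

end Crest.Agent.R096.Ou_372
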