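/-
helper622, row 96, `OneP`, part 4: **`one_fix`** = `OutB` at one position, all numbers fixed, over the
shape data (`Shp2`), the energy list (`Els`) and the block estimates (`O1A`).
-/
import Crest.Agent.R096.Onp3_622
import Crest.Agent.R096.Ou3_372
import Crest.Agent.R096.Ca22_855
import Crest.Agent.R096.Cl1_692
import Crest.Agent.R096.Cbs5_296

set_option autoImplicit false
set_option linter.unusedSectionVars false
set_option linter.style.longLine false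
set_option maxHeartbeats 1000000

open Set Metric Filter Topology MeasureTheory
open scoped ENNReal NNReal

namespace Crest.Agent.R096.Onp_622

open Crest.Agent.R096.Ce_537 Crest.Agent.R096.Bd_416 Crest.Agent.R96.Hole_348
open Crest.AnalysisR.VecCalc3 Crest.AnalysisR.Sobolev Crest.Agent.R096.Sk_962
open Crest.Agent.R096.Msh_715 (P I Tiling)
open Crest.Agent.R096.Mal_874 (CB)
open Crest.Agent.R096.Sq_55
open Crest.Agent.R096.Sqt_143 (cu sg Edge OnC OnF CT)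
open Crest.Agent.R096.Efi_296
open Crest.Agent.R096.Cbs_296
open Crest.Agent.R096.Ca_855 (MIn deepT adE_set)
open Crest.Agent.R096.Dps_476 (deepJ)
open Crest.Agent.R096.Gsc_476 (sclT)
open Crest.Agent.R096.Cob_622
open Crest.Agent.R096.Br_695 (En)
open Crest.Agent.R96.Lu_538 (Gmat)
open Crest.Agent.R96.Intr_538 (cel par)
open Crest.Agent.R96.Coarse_538 (vt Cb seg)
open Crest.Agent.R096.Fce_793 (pt cc)
open Crest.Agent.R96.En10_199 (P3)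
open Crest.Agent.R96.Eld_538 (Cl1 AdE Els)
open Crest.Agent.R096.Sk2_855 (Mv)
open Crest.Agent.R096.Pas_753
open Crest.Agent.R096.Pin_753
open Crest.Agent.R096.Cl_692 (C1c)
open Crest.Agent.R096.Eta_812 (EtaOK)
open Crest.Agent.R096.Ou_372 (Cout exists_eps ouly_setD)

noncomputable section

variable {Om W : Set R3} {ρ₀ : R3 → ℝ} {J : Type} [Finite J] {Qb : J → CB R3 3} {k0 : ℕ} {σ : ℝ}

/-- a move is PL -/
theorem Ca_855_plOn {ι : Type*} {T : Tiling Om ι} {Φ : R3 ≃ₜ R3} (h : Mv T Φ) :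
    PLOn Φ univ ∧ PLOn Φ.symm univ :=
  ⟨Sk2_855.PLMap.plOn h.plh.1 _, Sk2_855.PLMap.plOn h.plh.2 _⟩

/-- a move maps `Om` onto `Om` -/
theorem mv_iff {ι : Type*} {T : Tiling Om ι} {Φ : R3 ≃ₜ R3} (h : Mv T Φ) (x : R3) :
    Φ x ∈ Om ↔ x ∈ Om := by
  refine ⟨fun hx => ?_, fun hx => h.mapsTo hx⟩
  have h1 := h.symm.mapsTo hx
  rwa [Φ.symm_apply_apply] at h1

/-- **the shape data at one position** (output of [SH]) -/
structure ShD (h : MIn Om W ρ₀ Qb k0 σ) (a : R3) (K3 : ℕ) (vU vI vN : ℝ≥0)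
    (B : h.ιT a → E3 ≃ᵃ[ℝ] E3) (κt : h.ιT a → ℕ) (R u : h.ιT a → ℝ≥0) : Prop where
  shp : ∀ t, Shp2 (Te (h.T a)) t (B t) (R t) (u t)
  κ1 : ∀ t, sclT h a t ≤ κt t
  κ2 : ∀ t, κt t ≤ sclT h a t + 1
  R_eq : ∀ t, R t = ((2:ℝ≥0) ^ κt t)⁻¹
  R2 : ∀ k l, (P ((h.T a).H k) ∩ P ((h.T a).H l)).Nonempty → R k ≤ u k * R l ∧ R l ≤ u k * R k
  u1 : ∀ t, 1 ≤ u t
  uU : ∀ t, Cl1 h 3 a t → u t ≤ vU
  uI : ∀ j, ∀ t ∈ deepJ h a j K3, u t ≤ vI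
  uN : ∀ t, u t ≤ vN

/-- **`SetD` from the shape data** -/
theorem exists_setD {p : ℝ} {h : MIn Om W ρ₀ Qb k0 σ} {a : R3} {kk : J → Fin 3 → ℤ}
    {Q : Finset (Fin 3 → ℤ)} (K1 : ℕ) {K3 : ℕ} {vU vI vN : ℝ≥0} {B : h.ιT a → E3 ≃ᵃ[ℝ] E3}
    {κt : h.ιT a → ℕ} {R u : h.ιT a → ℝ≥0} (H : ShD h a K3 vU vI vN B κt R u) {f : R3 → R3}
    {Φ : R3 ≃ₜ R3} {U : Set R3} (hMv : Mv (h.T a) Φ)
    (hface : ¬ p < 2 → ∀ x ∈ Om, (h.T a).dim x = 2 → ∀ z ∈ (h.T a).cc x,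
      (∀ᶠ w in 𝓝 z, Φ w = w) ∨ f (Φ z) ∈ U) {K₀ : Set R3} (hK : IsCompact K₀) (hKO : K₀ ⊆ Om) :
    ∃ (s : Finset (h.ιT a)) (pr : (Te (h.T a)).Cell → Prop) (c : h.ιT a → E3)
      (X : Sys s (reps (Te (h.T a)) s pr)),
      SetD p h a kk Q K1 K3 vU vI vN f Φ U K₀ s pr c κt R u X := by
  obtain ⟨s, h1, h2, -, c, X, h4, h5, h6⟩ := exists_set hMv hK hKO (p < 2) (deepT h a kk Q K1)
    hface B R u H.shp H.R2
  exact ⟨s, _, c, X, {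
    sys := h4
    edge := h5
    κ1 := H.κ1
    κ2 := H.κ2
    R_eq := H.R_eq
    R2 := H.R2
    u1 := H.u1
    uU := H.uU
    uI := H.uI
    uN := H.uN
    supp := h2
    mem_s := h1
    pr_s := fun c hc => prS_s hc
    pr_d := fun c hc => prS_deep hc
    pr_of := fun c _ h7 h8 => ⟨h7, h8⟩
    good := h6 }⟩

/-- the conclusion of (O1) for the blocks of `Q` -/
def ConclI (p C1 κw s : ℝ) (z b : (Fin 3 → ℤ) → R3) (L : (Fin 3 → ℤ) → R3 →L[ℝ] R3)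
    (kk : J → Fin 3 → ℤ) (Q : Finset (Fin 3 → ℤ)) (hk : ∀ j, (Qb j).kc ≤ k0)
    (h : MIn Om W ρ₀ Qb k0 σ) (a : R3) {s' : Finset (h.ιT a)} (Jf : s' → ℝ≥0∞) (Rl Cer : ℝ)
    (ε : ℝ≥0∞) (f₂ : R3 → R3) (G₂ : Fin 3 → R3 → R3) : Prop :=
  ∀ j, kk j ∈ Q → InP p f₂ (Gmat G₂) C1 κw s (b (kk j)) (L (kk j)) (z (kk j))
    (erT h a Jf Rl Cer ε j) ((Qb j).tr a) k0 (hk j)

/-- **(O1) at one position, literal**: for every `Φ` of composite A and every system `SetD` -/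
def O1A (p : ℝ) (La : Set R3) (f : R3 → R3) (G : Fin 3 → R3 → R3) (κ τ s σr dd C1 κw Rl Cer : ℝ)
    (z b : (Fin 3 → ℤ) → R3) (L : (Fin 3 → ℤ) → R3 →L[ℝ] R3) (kk : J → Fin 3 → ℤ)
    (Q : Finset (Fin 3 → ℤ)) (hk : ∀ j, (Qb j).kc ≤ k0) (h : MIn Om W ρ₀ Qb k0 σ) (a : R3)
    (K1 K3 : ℕ) (vU vI vN : ℝ≥0) {κe κf : Type} {x' v' : κe → R3} {e' : κf → Fin 2 → R3}
    {xx' : κf → R3} {Qf' : κf → Set (ℝ × ℝ)} (hQf : ∀ φ, IsCompact (Qf' φ))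
    (hG : ∀ i, GoodA Om (gF p G L i) x' v' e' xx' a) : Prop :=
  ∀ (Φ : R3 ≃ₜ R3) (U : Set R3), Mv (h.T a) Φ → IsOpen U →
    (∀ k ∈ Q, ∀ y ∈ cel Cb (z k) ((1 - 6 * τ) * s), ‖f (Φ y) - (b k + L k (y - z k))‖ ≤ dd) →
  ∀ (s' : Finset (h.ιT a)) (pr : (Te (h.T a)).Cell → Prop) (c : h.ιT a → E3) (κt : h.ιT a → ℕ)
    (R u : h.ιT a → ℝ≥0) (X : Sys s' (reps (Te (h.T a)) s' pr))
    (H : SetD p h a kk Q K1 K3 vU vI vN f Φ U W s' pr c κt R u X)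
    (me : EgS (Te (h.T a)) s' → κe) (mf : FcS (Te (h.T a)) s' pr → κf)
    (hme : ∀ c, w2 '' c.1.set = seg x' v' a (me c))
    (hmf : ∀ c, w2 '' c.1.set = pt (e' (mf c)) (a + xx' (mf c)) '' Qf' (mf c)),
    O1 (Lx := {k // k ∈ Q}) (LL := fun k => L k) La hQf hme hmf (hG none) (fun k => hG (some k))
      H.sys f Φ (3 / 2) (PrR κ τ s σr b L Q) (efS (hG none) hQf hme hmf X H.sys.rim H.sys.Z)
      (4 * κ⁻¹ / (5 * 2 ^ k0))
      (ConclI p C1 κw s z b L kk Q hk h a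
        (efS (hG none) hQf hme hmf X H.sys.rim H.sys.Z).J Rl Cer)

/-- **`OutB` at one position, all numbers fixed** -/
theorem one_fix {p : ℝ} (hp : 1 ≤ p) (hp2 : p ≤ 2) {La K' : Set R3} {f : R3 → R3}
    {G : Fin 3 → R3 → R3} (hOm : IsOpen Om) (hOmb : Bornology.IsBounded Om) (hf : SH p Om La f G)
    (hWO : W ⊆ Om) (hWc : IsCompact W)
    {κ D τ hh c1 c2 κw e C1 θ0 θ1 σ' η₁ Rl e₀ s d0 Cer dm : ℝ} {nc Bs Nn : ℕ}
    {mU Cu mN vU vI vN : ℝ≥0} {K1 K3 : ℕ} {η w : R3 → ℝ}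
    -- signs
    (hκ : 0 < κ) (hκ1 : κ ≤ 1) (hD : 1 ≤ D) (hτ : 0 < τ) (hτ4 : τ ≤ 1 / 4) (hhh : 0 < hh)
    (hc1 : 0 < c1) (hc2 : 0 < c2) (he : 0 < e) (hσ' : 0 < σ') (hs : 0 < s) (hCer : 0 ≤ Cer)
    (hdm : 0 ≤ dm)
    -- numbers
    (nσ : σ' ≤ 1) (nC1 : C1c κ D nc ≤ C1) (nτ : 24 * D * hh ≤ τ) (nc2 : 24 * D * hh ≤ c2)
    (nd0 : C1c κ D nc * hh * s ≤ d0) (nU : GG vU ≤ mU) (nN : GG vN ≤ mN) (nK : 4 ≤ K1)
    (nRl : 40 ≤ Rl) (n1 : 320 * θ0 < κ * c2) (n2 : 40 * θ0 ≤ c1) (n3 : 162 * θ0 ≤ κ * τ)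
    (n4 : ENNReal.ofReal (7680 * θ0 / c1) * volume Om ≤ ENNReal.ofReal (e / 3))
    (n5 : e₀ ≤ e / 3) (n6 : Cer * e₀ ≤ e / 2) (n7 : (dm + 8 * κ⁻¹ * Rl) * θ0 < c2)
    -- `η`, `w`
    (hw : ∀ y ∈ La, 0 < w y) (hw' : ∀ y y', |w y - w y'| ≤ ‖y - y'‖ / 2)
    (hη : EtaOK Om f η w K' d0) (hosc : ∀ x ∈ Om, ∀ y, ‖y - x‖ ≤ ρ₀ x → ‖f y - f x‖ ≤ w (f x))
    -- cubes
    {a₀ : R3} {Q₀ Q : Finset (Fin 3 → ℤ)} {b : (Fin 3 → ℤ) → R3} {L : (Fin 3 → ℤ) → R3 →L[ℝ] R3}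
    (hL : ∀ k ∈ Q₀, (∀ v, κ * ‖v‖ ≤ ‖L k v‖) ∧ ‖L k‖ ≤ κ⁻¹)
    (hcW : ∀ k ∈ Q₀, cel Cb (vt (2 * s) a₀ k) s ⊆ W)
    (hcK : ∀ k ∈ Q₀, par Cb (L k) (b k) s ⊆ K') (hQ : Q ⊆ Q₀)
    -- blocks
    {kk : J → Fin 3 → ℤ} (hk : ∀ j, (Qb j).kc ≤ k0) (hkk : ∀ j, kk j ∈ Q₀)
    (hb : ∀ j, BlkP κ s τ hh c1 θ0 θ1 Bs Nn (vt (2 * s) a₀ (kk j)) (Qb j) k0)
    (sep : ∀ i j, i ≠ j → ∀ x ∈ (Qb i).N, ∀ y ∈ (Qb j).N, c2 * s ≤ dist x y)
    (hθ0 : 1 / 2 ^ k0 ≤ θ0 * s)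
    -- mesh
    (h : MIn Om W ρ₀ Qb k0 (c2 * s)) (hTC : TileC κ Bs D nc) {κi : Type} {x v : κi → R3}
    {κf : Type} {xf : κf → R3} {ef : κf → Fin 2 → R3} {Pf : κf → Set (ℝ × ℝ)}
    {κe' κf' : Type} {x' v' : κe' → R3} {e' : κf' → Fin 2 → R3} {xx' : κf' → R3}
    {Qf' : κf' → Set (ℝ × ℝ)} (hA : AllC h x' v' e' xx' Qf') {a : R3} (ha : ‖a‖ ≤ 2 / 2 ^ k0)
    (hG : ∀ i, GoodA Om (gF p G L i) x' v' e' xx' a)
    (hP : Pos p Om La W f G (h.T a) x v xf ef Pf κ (τ / 12) (τ / 24) η₁ (D * hh * s) s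
      (3 * (nc * (nc * nc) + 2) * (κ⁻¹ * (D * hh * s))) (σ' * (D * hh * s)) (vt (2 * s) a₀) b L Q a)
    (hE : Els p Om W ρ₀ J Qb k0 (c2 * s) h G {j | kk j ∈ Q} mU Cu mN Rl e₀ a)
    {B : h.ιT a → E3 ≃ᵃ[ℝ] E3} {κt : h.ιT a → ℕ} {R u : h.ιT a → ℝ≥0}
    (hS : ShD h a K3 vU vI vN B κt R u)
    (hz : ∀ j, ∀ t ∈ zoneT h a Rl j, ∀ x ∈ P ((h.T a).H t), ∀ y ∈ P ((h.T a).H t),
      ‖x - y‖ ≤ dm / 2 ^ k0)
    (hO : O1A p La f G κ (τ / 12) s (σ' * (D * hh * s))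
      (3 * (nc * (nc * nc) + 2) * (κ⁻¹ * (D * hh * s)) + hh * s) C1 κw Rl Cer (vt (2 * s) a₀) b L kk
      Q hk h a K1 K3 vU vI vN hA.cpt hG) :
    OutB p (Cout p (3 / 2) Cu) Om La f G τ hh κw e C1 s η a₀ b L kk Qb k0 hk Q a := by
  classical
  have hvol : volume Om ≠ ∞ := (hOmb.measure_lt_top).ne
  have hp3 : p < 3 := by linarith
  have hD0 : 0 ≤ D := by linarith
  have ht0 : 0 < D * hh * s := by positivity
  have hσr : 0 ≤ σ' * (D * hh * s) := by positivity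
  have hhs : 0 < hh * s := by positivity
  -- `‖a‖ ≤ c2 s / 8`
  have hp0 : (0:ℝ) < 1 / 2 ^ k0 := by positivity
  have hθ0p : 0 < θ0 := by
    by_contra hcon
    have : θ0 * s ≤ 0 := mul_nonpos_of_nonpos_of_nonneg (not_lt.1 hcon) hs.le
    linarith
  have ha2 : ‖a‖ ≤ (2 * θ0) * s := by
    have e1 : (2:ℝ) / 2 ^ k0 = 2 * (1 / 2 ^ k0) := by ring
    rw [e1] at ha
    nlinarith
  have ha8 : ‖a‖ ≤ c2 * s / 8 := by
    refine ha2.trans ?_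
    have h3 : κ * c2 ≤ c2 := by nlinarith
    have h4 : 16 * θ0 ≤ c2 := by nlinarith
    have h5 : 16 * θ0 * s ≤ c2 * s := mul_le_mul_of_nonneg_right h4 hs.le
    linarith
  -- composite A
  obtain ⟨Φ, U, hMv, hU, g2, g3, g4, gU, hRθ⟩ := hP.res.use hσr hhs hw hw'
  -- the system
  have hface : ¬ p < 2 → ∀ x ∈ Om, (h.T a).dim x = 2 → ∀ z ∈ (h.T a).cc x,
      (∀ᶠ w in 𝓝 z, Φ w = w) ∨ f (Φ z) ∈ U := fun hp' => gU (le_antisymm hp2 (not_lt.1 hp'))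
  obtain ⟨s', pr, c, X, H⟩ := exists_setD (p := p) (kk := kk) (Q := Q) K1 hS hMv hface hWc hWO
  -- the maps
  obtain ⟨me, mf, hme, hmf⟩ := exists_maps (T := h.T a) (W := Om) (s := s') (pr := pr) (x := x')
    (v := v') (e := e') (xx := xx') (a := a) (Q := Qf')
    (fun y hy hd _ => hA.edge a ha8 y hy hd) (fun k _ => (h.T a).sub k)
    (fun c hc => by
      obtain ⟨-, g1, g5⟩ := image_set (h.T a) c
      exact hA.face a ha8 _ g1 (g5.trans hc.1.1))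
  have hG0 : GoodA Om (Crest.Agent.R096.Br_695.En p G) x' v' e' xx' a := hG none
  set DD := efS hG0 hA.cpt hme hmf X H.sys.rim H.sys.Z with hDD
  have hAd : AdE p h G mU mN a s' pr c R (ρS (Te (h.T a)) R) (mS (Te (h.T a)) s' pr u) X DD :=
    adE_set H hS.shp nU nN hA hG0 hme hmf
  have hO1 := hO Φ U hMv hU (fun k hk' y hy => by
    have := g2 k hk' y hy
    linarith) s' pr c κt R u X H me mf hme hmf
  -- the error
  set e3 : ℝ := min (e / 3) (e / (2 * (Cer + 1))) with he3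
  have hCer1 : 0 < Cer + 1 := by linarith
  have he30 : 0 < e3 := lt_min (by positivity) (by positivity)
  obtain ⟨ε₁, hε1, hε2, hε3⟩ := exists_eps s'.card he30
  obtain ⟨ε, hε, δ, hA', N₁, N₂, Rr, G₂, k1, k2, k3, k4, k5⟩ :=
    cob_O1 hp hp3 hOm hvol hf hA.cpt hme hmf (hG none) (Lx := {k // k ∈ Q}) (LL := fun k => L k)
      (fun k => hG (some k)) H.sys H.pr_s (hρ_set H.R2 pr) Φ
      (Ca_855_plOn hMv).1 (Ca_855_plOn hMv).2 (mv_iff hMv) H.supp (fun y hy hd => mv_id hMv hy hd)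
      (3 / 2) hU H.good
      (fun θ hθ => by
        obtain ⟨Rr, r1, r2, r3, r4, r5, r6⟩ := hRθ θ hθ
        exact ⟨Rr, 3 * (σ' * (D * hh * s)), r1, r2, r3, r5, r3, r4, r6⟩)
      DD (u := 4 * κ⁻¹ / (5 * 2 ^ k0)) (by positivity) hO1 hε1
  have hεc : ((s'.card : ℝ≥0∞) + 1) * ε ≤ ENNReal.ofReal e3 := (mul_le_mul' le_rfl hε).trans hε3
  -- the `C⁰` clauses
  have hbq : ∀ j, MIn.BQ κ Bs Nn (Qb j) k0 := fun j => MIn.bq_of_blkP (hb j)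
  obtain ⟨-, hT2⟩ := hTC h hbq a
  have hDk : ∀ j, D / 2 ^ (Qb j).kc ≤ D * hh * s := by
    intro j
    have h1 := (hb j).cellU
    calc D / 2 ^ (Qb j).kc = D * (1 / 2 ^ (Qb j).kc) := by ring
      _ ≤ D * (hh * s) := mul_le_mul_of_nonneg_left h1 hD0
      _ = D * hh * s := by ring
  have htσ : D * hh * s ≤ c2 * s / 8 := by
    have h1 : 24 * D * hh * s ≤ c2 * s := mul_le_mul_of_nonneg_right nc2 hs.le
    have h2 : 0 ≤ D * hh * s := ht0.le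
    linarith
  have hosc' := h.hosc (f := f) (w := w) htσ hDk a hT2 hosc
  obtain ⟨q1, q2⟩ := Cl_692.out_c0 (Om := Om) (W := W) (K' := K') (f := f) (h.T a) (Q := Q)
    (z := vt (2 * s) a₀) (b := b) (L := L) (κ := κ) (τ := τ) (s := s) (hh := hh) (D := D)
    (σ' := σ') (e := hh * s) (d0 := d0) (C1 := C1) (nc := nc) (η := η) (w := w) (Φ := Φ) (R := Rr)
    (χ := toR (Sys.chi hA' (N₁+1) (N₂+1))) hκ hτ hτ4 hs hhh hD0 nσ nτ
    (fun k hk' => hL k (hQ hk')) (fun k hk' => hcW k (hQ hk')) hWO (fun k hk' => hcK k (hQ hk'))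
    (fun i hi x hx y hy => hP.diam i hi y hy x hx) hosc' hη le_rfl nC1 nd0 g2 g3 g4 k1.1 k1.2.1
    (hchi H.sys H.pr_s hA' _ _)
  -- the last clauses
  have h32 : (3 / 2 : ℝ≥0) ≤ 2 := by
    rw [div_le_iff₀ (by norm_num)]; norm_num
  obtain ⟨q3, q4⟩ := ouly_setD h H hAd hE h32 nK nRl hOm.measurableSet k3 k4 hs hκ hκ1 hτ4 hc1 hc2
    he hkk hcW hWO subset_rfl hb sep hθ0 ha n1 n2 n3 n4 n5
    (hεc.trans (ENNReal.ofReal_le_ofReal (min_le_left _ _)))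
  -- the sum of the errors
  have hnum7 : (dm + 8 * κ⁻¹ * Rl) * (1 / 2 ^ k0) < c2 * s := by
    have h0 : 0 ≤ dm + 8 * κ⁻¹ * Rl := by positivity
    calc (dm + 8 * κ⁻¹ * Rl) * (1 / 2 ^ k0) ≤ (dm + 8 * κ⁻¹ * Rl) * (θ0 * s) :=
          mul_le_mul_of_nonneg_left hθ0 h0
      _ = (dm + 8 * κ⁻¹ * Rl) * θ0 * s := by ring
      _ < c2 * s := mul_lt_mul_of_pos_right n7 hs
  have q5 := sum_erT h (a := a) (s := s') (Jf := DD.J)
    (cb := fun k => ENNReal.ofReal (CB p (3 / 2) (X.m k))) (Rl := Rl) (Cer := Cer) (e₀ := e₀)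
    (ε := ε) (pJ := fun j => kk j ∈ Q)
    (fun i j hij t ht => zone_disj h hκ (fun j v => ((hb j).cnd v).1) hz sep hnum7 hij ht)
    (fun k => by
      rw [← ENNReal.ofReal_one]
      refine ENNReal.ofReal_le_ofReal (one_le_CB hp hp3 ?_ ?_)
      · rw [le_div_iff₀ (by norm_num)]; norm_num
      · rw [H.sys.em]; exact one_le_mS _)
    (fun s₂ hs₂ => (hE s' pr c R _ _ X DD hAd (3 / 2) h32).2 s₂ fun k hk' => by
      obtain ⟨j, hj, x, hx, z, hz', hxz⟩ := hs₂ k hk'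
      exact ⟨j, hj, x, hx, z, hz', hxz⟩)
  refine ⟨_, G₂, fun j => erT h a DD.J Rl Cer ε j, k2, q1, q2, k5, q5.trans ?_, q3, q4⟩
  calc ENNReal.ofReal Cer * (ENNReal.ofReal e₀ + s'.card * ε)
      = ENNReal.ofReal Cer * ENNReal.ofReal e₀ + ENNReal.ofReal Cer * (s'.card * ε) := mul_add _ _ _
    _ ≤ ENNReal.ofReal (e / 2) + ENNReal.ofReal (e / 2) := by
        refine add_le_add ?_ ?_
        · rw [← ENNReal.ofReal_mul hCer]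
          exact ENNReal.ofReal_le_ofReal n6
        · have h1 : (s'.card : ℝ≥0∞) * ε ≤ ENNReal.ofReal (e / (2 * (Cer + 1))) :=
            ((mul_le_mul' le_self_add le_rfl).trans hεc).trans
              (ENNReal.ofReal_le_ofReal (min_le_right _ _))
          refine (mul_le_mul' le_rfl h1).trans ?_
          rw [← ENNReal.ofReal_mul hCer]
          refine ENNReal.ofReal_le_ofReal ?_
          rw [← mul_div_assoc, div_le_div_iff₀ (by positivity) (by norm_num)]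
          nlinarith
    _ = ENNReal.ofReal e := by
        rw [← ENNReal.ofReal_add (by linarith) (by linarith), add_halves]

end

end Crest.Agent.R096.Onp_622
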