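import Crest.Agent.R096.Onf1_802
import Mathlib.Geometry.Euclidean.Volume.Measure

/-!
# Row 96 (helper628), leaf [ON2]: the area integral does not depend on the frame

`μHE[2]` = the Euclidean Hausdorff measure (area).
-/

set_option autoImplicit false
set_option linter.unusedSectionVars false

open Set MeasureTheory Measure Module
open scoped ENNReal

namespace Crest.Agent.R096.Onf_628

open Crest.AnalysisR.VecCalc3
open Crest.Agent.R096.Fce_793 (pt)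
open Crest.Agent.R096.Onf_802

/-- the plane with the Euclidean norm -/
abbrev Pl : Type := WithLp 2 (ℝ × ℝ)

theorem isometry_pt {e : Fin 2 → R3} (h : ON e) (x : R3) :
    Isometry fun u : Pl => pt e x (WithLp.ofLp u) := by
  refine Isometry.of_dist_eq fun u u' => ?_
  rw [dist_eq_norm, dist_eq_norm]
  have h1 := h.norm_pt x (WithLp.ofLp u) (WithLp.ofLp u')
  have h2 : ‖u - u'‖ ^ 2 = ((WithLp.ofLp u).1 - (WithLp.ofLp u').1) ^ 2 +
      ((WithLp.ofLp u).2 - (WithLp.ofLp u').2) ^ 2 := by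
    rw [WithLp.prod_norm_sq_eq_of_L2]
    simp [sq_abs]
  have h3 : ‖pt e x (WithLp.ofLp u) - pt e x (WithLp.ofLp u')‖ ^ 2 = ‖u - u'‖ ^ 2 := by
    rw [h1, h2]
  exact (sq_eq_sq₀ (norm_nonneg _) (norm_nonneg _)).1 h3

theorem finrank_pl : finrank ℝ Pl = 2 := by
  have h := (WithLp.linearEquiv 2 ℝ (ℝ × ℝ)).finrank_eq
  rw [h]
  simp

theorem area_pl : (μHE[2] : Measure Pl) = volume := by
  have h := InnerProductSpace.euclideanHausdorffMeasure_eq_volume (V := Pl)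
  rwa [finrank_pl] at h

/-- **AREA FORMULA for an orthonormal frame** -/
theorem lint_on {e : Fin 2 → R3} (h : ON e) (x : R3) (Q : Set (ℝ × ℝ)) (g : R3 → ℝ≥0∞) :
    ∫⁻ w in Q, g (pt e x w) = ∫⁻ y in pt e x '' Q, g y ∂μHE[2] := by
  have hf := isometry_pt h x
  set f : Pl → R3 := fun u => pt e x (WithLp.ofLp u) with hfd
  have hemb : MeasurableEmbedding f := hf.isClosedEmbedding.measurableEmbedding
  -- the plane
  have hp : MeasurePreserving (WithLp.toLp 2 : ℝ × ℝ → Pl) := WithLp.volume_preserving_toLp ℝ ℝ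
  have hpe : MeasurableEmbedding (WithLp.toLp 2 : ℝ × ℝ → Pl) :=
    (MeasurableEquiv.toLp 2 (ℝ × ℝ)).measurableEmbedding
  set S : Set Pl := WithLp.toLp 2 '' Q with hS
  have h1 : ∫⁻ w in Q, g (pt e x w) = ∫⁻ u in S, g (f u) := by
    rw [← hp.map_eq, hpe.restrict_map, hpe.lintegral_map, hS, preimage_image_eq _ hpe.injective]
  have h2 : pt e x '' Q = f '' S := by
    rw [hS, image_image]
  have h3 : (μHE[2] : Measure R3).restrict (f '' S) = (Measure.map f volume).restrict (f '' S) := by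
    rw [← area_pl, hf.map_euclideanHausdorffMeasure,
      Measure.restrict_restrict' hf.isClosedEmbedding.isClosed_range.measurableSet,
      inter_eq_left.2 (image_subset_range _ _)]
  rw [h1, h2, h3, hemb.restrict_map, hemb.lintegral_map, preimage_image_eq _ hemb.injective]

/-- **[ON2]** -/
theorem on2 {e e' : Fin 2 → R3} (h : ON e) (h' : ON e') {x x' : R3} {Q Q' : Set (ℝ × ℝ)}
    (hQ : pt e x '' Q = pt e' x' '' Q') (g : R3 → ℝ≥0∞) :
    ∫⁻ w in Q, g (pt e x w) = ∫⁻ w in Q', g (pt e' x' w) := by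
  rw [lint_on h, lint_on h', hQ]

/-- **AREA FORMULA, any frame** : one number `ar ≤ ‖e 0‖ ‖e 1‖` -/
theorem exists_ar {e : Fin 2 → R3} (he : LinearIndependent ℝ e) :
    ∃ ar : ℝ, 0 < ar ∧ ar ≤ ‖e 0‖ * ‖e 1‖ ∧ ∀ (x : R3) (Q : Set (ℝ × ℝ)) (g : R3 → ℝ≥0∞),
      ∫⁻ y in pt e x '' Q, g y ∂μHE[2] = ENNReal.ofReal ar * ∫⁻ w in Q, g (pt e x w) := by
  obtain ⟨e', h1, h2, ar, h3, h4, h5⟩ := exists_on he
  refine ⟨ar, h3, h4, fun x Q g => ?_⟩
  obtain ⟨Q', -, -, h6, h7⟩ := h5 x Q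
  rw [h6, ← lint_on ⟨h1 0, h1 1, h2⟩, h7]

/-- the area integral over a piece of a plane is at most `‖e 0‖ ‖e 1‖ ∫_Q` for every frame -/
theorem area_le {e : Fin 2 → R3} (he : LinearIndependent ℝ e) (x : R3) (Q : Set (ℝ × ℝ))
    (g : R3 → ℝ≥0∞) : ∫⁻ y in pt e x '' Q, g y ∂μHE[2] ≤
      ENNReal.ofReal (‖e 0‖ * ‖e 1‖) * ∫⁻ w in Q, g (pt e x w) := by
  obtain ⟨ar, -, h1, h2⟩ := exists_ar he
  rw [h2]
  gcongr

/-- **an integral in an orthonormal frame against any other frame of the same piece** -/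
theorem on_le {e e' : Fin 2 → R3} (h : ON e) (he : LinearIndependent ℝ e') {x x' : R3}
    {Q Q' : Set (ℝ × ℝ)} (hQ : pt e x '' Q = pt e' x' '' Q') (g : R3 → ℝ≥0∞) :
    ∫⁻ w in Q, g (pt e x w) ≤ ENNReal.ofReal (‖e' 0‖ * ‖e' 1‖) * ∫⁻ w in Q', g (pt e' x' w) := by
  rw [lint_on h, hQ]
  exact area_le he x' Q' g

/-- orthogonal frames: equality -/
theorem lint_orth {e : Fin 2 → R3} (h0 : e 0 ≠ 0) (h1 : e 1 ≠ 0) (h : inner ℝ (e 0) (e 1) = 0)
    (x : R3) (Q : Set (ℝ × ℝ)) (g : R3 → ℝ≥0∞) : ∫⁻ y in pt e x '' Q, g y ∂μHE[2] =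
      ENNReal.ofReal (‖e 0‖ * ‖e 1‖) * ∫⁻ w in Q, g (pt e x w) := by
  have n0 : 0 < ‖e 0‖ := norm_pos_iff.2 h0
  have n1 : 0 < ‖e 1‖ := norm_pos_iff.2 h1
  set e' : Fin 2 → R3 := ![‖e 0‖⁻¹ • e 0, ‖e 1‖⁻¹ • e 1] with he'
  have hon : ON e' := by
    refine ⟨?_, ?_, ?_⟩
    · simp [he', norm_smul, n0.ne']
    · simp [he', norm_smul, n1.ne']
    · simp [he', inner_smul_left, inner_smul_right, h]
  have hab : 0 < ‖e 0‖ * ‖e 1‖ := mul_pos n0 n1
  have key : ∀ w : ℝ × ℝ, pt e x w = pt e' x (Tri ‖e 0‖ 0 ‖e 1‖ w) := by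
    intro w
    rw [Tri_apply]
    simp [pt, he', smul_smul, mul_assoc, mul_comm, n0.ne', n1.ne']
  have h2 : pt e x '' Q = pt e' x '' (Tri ‖e 0‖ 0 ‖e 1‖ '' Q) := by
    rw [image_image]
    exact image_congr fun w _ => key w
  rw [h2, ← lint_on hon, lintegral_tri hab]
  simp only [key]

end Crest.Agent.R096.Onf_628
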