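import Crest.Agent.R096.Gsc5_476
import Crest.Agent.R096.Cbs4_296
import Crest.Agent.R096.Onf2_628
import Crest.Agent.R96.Eld1_538
import Crest.Agent.R96.Els2_538

/-!
# Row 96 (S0127), helper855: `AdE` (538's admissible energy data) for the system of `OneP`: 296's
`efS`, `ρS`, `mS` over the shape numbers `Shp2` of the tiles of `h.T a`.
-/

set_option autoImplicit false
set_option linter.unusedSectionVars false
set_option linter.style.longLine false

open Set Metric Topology Filter MeasureTheory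
open scoped ENNReal NNReal

namespace Crest.Agent.R096.Ca_855

open Crest.AnalysisR.VecCalc3
open Crest.Agent.R096.Msh_715 (Tiling P I I_sub_P)
open Crest.Agent.R096.Mal_874 (CB)
open Crest.Agent.R096.Br_695 (En)
open Crest.Agent.R096.Sq_55 (E3 Sys Face FaceOf w2 GG Shp Shp2 StarT starT_self PN1 muK cen mD mE)
open Crest.Agent.R096.Cob_622 (EF)
open Crest.Agent.R096.Efi_296 (Te reps mem_reps EgS FcS GoodA)
open Crest.Agent.R096.Cbs_296 (SysOf efS ρS mS)
open Crest.Agent.R096.Gsc_476 (sclT Bk_eq)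
open Crest.Agent.R96.En10_199 (P3)
open Crest.Agent.R96.Coarse_538 (seg)
open Crest.Agent.R096.Fce_793 (pt cc)
open Crest.Agent.R096.Onf_802 (ON)
open Crest.Agent.R096.Rmt_816 (Bj)
open Crest.Agent.R96.Eld_538 (Cl1 AdE)
open Crest.Agent.R096.Pas_753 (AllC)

noncomputable section

/-! ### sizes from the shape numbers -/

section shp

variable {Om : Set E3} {ι : Type*} {T : Tiling Om ι} {i : ι} {B : E3 ≃ᵃ[ℝ] E3} {R v : ℝ≥0}

theorem sq_le_GG (v : ℝ≥0) : v ^ 2 ≤ GG v := by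
  unfold GG
  calc v ^ 2 ≤ v ^ 2 + (1 + 6 * v ^ 3 + 4 * v ^ 9) := le_self_add
    _ = 1 + v ^ 2 + 6 * v ^ 3 + 4 * v ^ 9 := by ring

theorem le_GG (v : ℝ≥0) : v ≤ GG v := Cbs_296.le_GG v

/-- **a tile contains two points at distance `≥ R / v ^ 2`** -/
theorem shp_two (h : Shp T i B R v) : ∃ y ∈ P (T.H i), ∃ y' ∈ P (T.H i),
    (R : ℝ) ≤ v ^ 2 * ‖y - y'‖ := by
  have htg := h.tg
  have hv : (0:ℝ) < v := by exact_mod_cast h.v_pos
  have hR : (0:ℝ) < R := by exact_mod_cast h.pos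
  have hE : (v:ℝ)⁻¹ ≤ (mE (B '' P (T.H i)) : ℝ)⁻¹ :=
    inv_anti₀ (by exact_mod_cast htg.pos) (by exact_mod_cast h.mE_le)
  set z := cen (B '' P (T.H i)) with hz
  set e : E3 := fun _ => (v:ℝ)⁻¹ with he
  have hen : ‖e‖ = (v:ℝ)⁻¹ := by
    rw [he, pi_norm_const, Real.norm_of_nonneg (by positivity)]
  have hmem : ∀ w : E3, ‖w‖ ≤ (v:ℝ)⁻¹ → z + w ∈ B '' P (T.H i) := by
    intro w hw
    refine interior_subset (htg.inn ?_)
    rw [mem_closedBall, dist_eq_norm, add_sub_cancel_left]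
    exact hw.trans hE
  obtain ⟨y, hy, hy2⟩ := hmem e hen.le
  obtain ⟨y', hy', hy2'⟩ := hmem 0 (by rw [norm_zero]; positivity)
  refine ⟨y, hy, y', hy', ?_⟩
  have h1 := h.frm.lip.dist_le_mul y y'
  rw [hy2, hy2', dist_eq_norm, dist_eq_norm, add_zero, add_sub_cancel_left, hen] at h1
  push_cast at h1
  have h2 : (v:ℝ)⁻¹ * (v * R) ≤ v / R * ‖y - y'‖ * (v * R) :=
    mul_le_mul_of_nonneg_right h1 (by positivity)
  have e1 : (v:ℝ)⁻¹ * (v * R) = R := by field_simp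
  have e2 : (v:ℝ) / R * ‖y - y'‖ * (v * R) = v ^ 2 * ‖y - y'‖ := by field_simp
  rwa [e1, e2] at h2

/-- **the edges of a tile have length `≥ R / v ^ 2`** -/
theorem edge_lb (h : Shp2 T i B R v) {x : E3} (hx : x ∈ P (T.H i)) (hd : T.dim x = 1) {y w : E3}
    (hs : T.cc x = segment ℝ y (y + w)) : (R : ℝ) ≤ v ^ 2 * ‖w‖ := by
  have hxO : x ∈ Om := T.sub i hx
  obtain ⟨hR, hv⟩ := h.coe_pos
  obtain ⟨a', b', hne, e1, -, ha0, hb0, ha, hb⟩ := T.edge_eq hxO hd
  have haP : a' ∈ P (T.H i) := T.cc_sub_tile hx ha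
  have hcc : T.cc a' = {a'} := T.cc_eq_singleton (T.dim_eq_zero_iff.1 ha0)
  have hK : ((v ^ 2 / R : ℝ≥0) : ℝ) = v ^ 2 / R := by push_cast; ring
  have key : (R : ℝ) ≤ v ^ 2 * ‖b' - a'‖ := by
    rcases h.pn (a := a') (w := b' - a') hx hd (starT_self haP) (by rw [e1, add_sub_cancel])
      with h1 | h1
    · exfalso
      have h2 := h1 hb
      rw [hcc, mem_singleton_iff] at h2
      exact hne h2.symm
    · rw [hcc, hK] at h1
      by_contra hcon
      push Not at hcon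
      have hK0 : (0:ℝ) < v ^ 2 / R := by positivity
      have h3 : v ^ 2 / R * ‖b' - a'‖ < 1 := by
        rw [div_mul_eq_mul_div, div_lt_one hR]
        exact hcon
      have h4 : ‖b' - a'‖ ≤ (v ^ 2 / R : ℝ)⁻¹ := by
        rw [← one_div, le_div_iff₀ hK0, mul_comm]
        exact h3.le
      rcases h1 a' (mem_singleton _) 1 ⟨zero_le_one, le_rfl⟩ ‖b' - a'‖ h4 (by
        rw [one_smul, add_sub_cancel, norm_sub_rev]) with h5 | h5
      · exact absurd h5.1 (not_le.2 h3)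
      · have h6 := h5.2
        rw [add_sub_cancel, mem_singleton_iff] at h6
        exact hne h6.symm
  have hya := T.vertex_of_edge hxO hd hs ha ha0
  have hyb := T.vertex_of_edge hxO hd hs hb hb0
  have hn : ‖b' - a'‖ = ‖w‖ := by
    rcases hya with h1 | h1 <;> rcases hyb with h2 | h2
    · exact absurd (h1.trans h2.symm) hne
    · rw [h1, h2, add_sub_cancel_left]
    · rw [h1, h2, sub_add_cancel_left, norm_neg]
    · exact absurd (h1.trans h2.symm) hne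
  rwa [hn] at key

end shp

/-! ### in `R3` -/

section te

variable {Om : Set R3} {ι : Type*} {T : Tiling Om ι} {i : ι} {B : E3 ≃ᵃ[ℝ] E3} {R v : ℝ≥0}

theorem norm_w2s_le (x : R3) : ‖w2.symm x‖ ≤ ‖x‖ := by
  rw [pi_norm_le_iff_of_nonneg (norm_nonneg _)]
  intro i
  exact PiLp.norm_apply_le x i

theorem shp_twoR (h : Shp (Te T) i B R v) : ∃ y ∈ P (T.H i), ∃ y' ∈ P (T.H i),
    (R : ℝ) ≤ v ^ 2 * ‖y - y'‖ := by
  obtain ⟨y, hy, y', hy', h1⟩ := shp_two h
  refine ⟨w2 y, Cbs_296.mem_P_Te.1 hy, w2 y', Cbs_296.mem_P_Te.1 hy', h1.trans ?_⟩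
  have h2 : ‖y - y'‖ ≤ ‖w2 y - w2 y'‖ := norm_w2s_le (w2 y - w2 y')
  gcongr

theorem edge_lbR (h : Shp2 (Te T) i B R v) {x : R3} (hx : x ∈ P (T.H i)) (hd : T.dim x = 1)
    {y w : R3} (hs : T.cc x = segment ℝ y (y + w)) : (R : ℝ) ≤ v ^ 2 * ‖w‖ := by
  have h1 : w2.symm x ∈ P ((Te T).H i) := by
    rw [Cbs_296.mem_P_Te, w2.apply_symm_apply]; exact hx
  have h2 : (Te T).dim (w2.symm x) = 1 := by
    rw [Cbs_296.dim_Te, w2.apply_symm_apply]; exact hd
  have h3 : (Te T).cc (w2.symm x) = segment ℝ (w2.symm y) (w2.symm y + w2.symm w) := by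
    rw [Cbs_296.cc_Te, hs]
    have e := image_segment ℝ ((P3.symm : R3 ≃L[ℝ] E3).toLinearEquiv.toLinearMap.toAffineMap) y (y + w)
    have e2 : (w2.symm '' segment ℝ y (y + w) : Set E3) =
        ((P3.symm : R3 ≃L[ℝ] E3).toLinearEquiv.toLinearMap.toAffineMap) '' segment ℝ y (y + w) := rfl
    rw [e2, e]
    rfl
  refine (edge_lb h h1 h2 h3).trans ?_
  have := norm_w2s_le w
  gcongr

end te

/-! ### the far outer tiles and their neighbours -/

section far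

variable {Om W : Set R3} {ρ₀ : R3 → ℝ} {J : Type} [Finite J] {Qb : J → CB R3 3} {k0 : ℕ} {σ : ℝ}

theorem cross_frontier {X : Type*} [TopologicalSpace X] {S N : Set X} (hS : IsPreconnected S)
    (h1 : (S ∩ N).Nonempty) (h2 : ¬ S ⊆ N) : (S ∩ frontier N).Nonempty := by
  by_contra hcon
  rw [not_nonempty_iff_eq_empty] at hcon
  have hsub : S ⊆ interior N ∪ (closure N)ᶜ := by
    intro x hx
    by_cases hc : x ∈ closure N
    · left
      by_contra hi
      have : x ∈ S ∩ frontier N := ⟨hx, hc, hi⟩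
      rw [hcon] at this
      exact this
    · exact Or.inr hc
  obtain ⟨q, hq, hqN⟩ := h1
  have hqi : q ∈ interior N := by
    rcases hsub hq with h | h
    · exact h
    · exact absurd (subset_closure hqN) h
  have := hS.subset_left_of_subset_union isOpen_interior isClosed_closure.isOpen_compl
    (by
      rw [Set.disjoint_left]
      exact fun x hx hxc => hxc (subset_closure (interior_subset hx))) hsub ⟨q, hq, hqi⟩
  exact h2 (this.trans interior_subset)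

theorem Cl1.mono' {h : MIn Om W ρ₀ Qb k0 σ} {r r' : ℝ} (hr : r' ≤ r) {a : R3} {i : h.ιT a}
    (hi : Cl1 h r a i) : Cl1 h r' a i :=
  ⟨hi.1, fun j x hx z hz => lt_of_le_of_lt (by gcongr) (hi.2 j x hx z hz)⟩

/-- the neighbours of a far outer tile -/
theorem cl1_nbr {h : MIn Om W ρ₀ Qb k0 σ} {r : ℝ} (hr : 0 ≤ r) {a : R3} {i l : h.ιT a}
    (hi : Cl1 h r a i) (hil : (P ((h.T a).H i) ∩ P ((h.T a).H l)).Nonempty) :
    Cl1 h (r - 1) a l := by
  obtain ⟨q, hq1, hq2⟩ := hil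
  have hp0 : (0:ℝ) < 2 ^ k0 := by positivity
  have hout : ∀ j, ¬ P ((h.T a).H l) ⊆ (Bj h a j).N := by
    intro j hN
    obtain ⟨z, hz1, hz2⟩ := cross_frontier (Msh_715.convex_P ((h.T a).H i)).isPreconnected
      ⟨q, hq1, hN hq2⟩ (hi.1 j)
    have h1 := hi.2 j z hz1 z hz2
    rw [dist_self] at h1
    have : 0 ≤ r / 2 ^ k0 := by positivity
    linarith
  refine ⟨hout, fun j x hx z hz => ?_⟩
  have h1 := hi.2 j q hq1 z hz
  have h2 : dist (P3.symm q) (P3.symm x) ≤ 1 / 2 ^ k0 := by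
    rcases Gsc_476.outer_or h.M h.sc (0 + h.M.φ (h.cl a)) (h.adm a) l with ⟨p, hp, rfl⟩ | ⟨j', hj'⟩
    · have h3 : ‖P3.symm q - P3.symm x‖ ≤ 1 / 2 ^ sclT h a (Sum.inl ⟨Sum.inl p, hp⟩) :=
        Gsc_476.diam_out h.M h.sc (0 + h.M.φ (h.cl a)) (h.adm a) (h := hp) hq2 hx
      have h4 : k0 ≤ sclT h a (Sum.inl ⟨Sum.inl p, hp⟩) :=
        Gsc_476.scl_ge_out h.M h.sc (0 + h.M.φ (h.cl a)) (h.adm a) (h := hp) fun x => by
          show h.D0.ρ x ≤ 6 / 2 ^ k0
          rw [h.D0_ρ]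
          exact min_le_right _ _
      rw [dist_eq_norm]
      refine h3.trans ?_
      exact one_div_le_one_div_of_le hp0 (pow_le_pow_right₀ one_le_two h4)
    · exact absurd hj' (hout j')
  have h3 := dist_triangle (P3.symm q) (P3.symm x) (P3.symm z)
  have e : (r - 1) / 2 ^ k0 = r / 2 ^ k0 - 1 / 2 ^ k0 := by ring
  rw [e]
  linarith

end far

/-! ### `AdE` -/

section ade

variable {Om W : Set R3} {ρ₀ : R3 → ℝ} {J : Type} [Finite J] {Qb : J → CB R3 3} {k0 : ℕ} {σ : ℝ}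

/-- **the energy data of 296's system are admissible in the sense of 538**; `u` = the shape numbers:
`≤ vN` for all tiles, `≤ vU` for the outer tiles with distance more than `3 / 2 ^ k0` from the walls -/
theorem adE_of {p : ℝ} (h : MIn Om W ρ₀ Qb k0 σ) {G : Fin 3 → R3 → R3} {a : R3}
    {s : Finset (h.ιT a)} {pr : (Te (h.T a)).Cell → Prop} {c : h.ιT a → E3}
    {B : h.ιT a → E3 ≃ᵃ[ℝ] E3} {R u : h.ιT a → ℝ≥0}
    {X : Sys s (reps (Te (h.T a)) s pr)}
    (hX : SysOf (Te (h.T a)) s pr c R (ρS (Te (h.T a)) R) (mS (Te (h.T a)) s pr u) X)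
    (hS : ∀ i ∈ s, Shp2 (Te (h.T a)) i (B i) (R i) (u i))
    (hR : ∀ x ∈ reps (Te (h.T a)) s pr, ∀ k ∈ (Te (h.T a)).at_ x, ∀ l ∈ (Te (h.T a)).at_ x,
      R k ≤ u k * R l ∧ R l ≤ u k * R k)
    {vU vN : ℝ≥0} (hN : ∀ i ∈ s, u i ≤ vN) (hU : ∀ i ∈ s, Cl1 h 3 a i → u i ≤ vU)
    {κe κf : Type} {x' v' : κe → R3} {e' : κf → Fin 2 → R3} {xx' : κf → R3}
    {Qf' : κf → Set (ℝ × ℝ)} (hA : AllC h x' v' e' xx' Qf')
    (hG : GoodA Om (En p G) x' v' e' xx' a)
    {me : EgS (Te (h.T a)) s → κe} {mf : FcS (Te (h.T a)) s pr → κf}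
    (hme : ∀ c, w2 '' c.1.set = seg x' v' a (me c))
    (hmf : ∀ c, w2 '' c.1.set = pt (e' (mf c)) (a + xx' (mf c)) '' Qf' (mf c)) :
    AdE p h G (GG vU) (GG vN) a s pr c R (ρS (Te (h.T a)) R) (mS (Te (h.T a)) s pr u) X
      (efS hG hA.cpt hme hmf X hX.rim hX.Z) where
  sys := hX
  fc b := rfl
  rim x := rfl
  Ee b y w hb :=
    Crest.Agent.R96.Els_538.hEe_of (Om' := Om) (B0 := univ) (g := En p G) (x := x') (v := v') (a := a)
      (Ee := fun c => Cbs_296.eI Om (En p G) x' v' a univ (me c)) hme (fun c => rfl) b y w hb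
  Ef b e y Q he hQ hb := by
    have h1 : (efS hG hA.cpt hme hmf X hX.rim hX.Z).Ef b =
      Cbs_296.fI Om (En p G) e' xx' a Qf' univ (mf b) := rfl
    have h2 : ON (e' (mf b)) := hA.on (mf b)
    rw [h1]
    unfold Cbs_296.fI
    rw [h2.cc, preimage_univ, inter_univ]
    have e64 : ENNReal.ofReal (16 * 2 ^ 2) = 64 := by norm_num
    rw [e64]
    refine mul_le_mul' le_rfl ?_
    refine (lintegral_mono fun w => indicator_le_self _ _ _).trans (le_of_eq ?_)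
    exact Onf_628.on2 h2 he ((hmf b).symm.trans hb) (En p G)
  ρle x hx k hk hkx := (Cbs_296.hρ_of hR hx hkx).2
  mle k hk := Cbs_296.mS_le (hN k hk) fun l hl _ => hN l hl
  mleU k hk hc := Cbs_296.mS_le (hU k hk (Cl1.mono' (by norm_num) hc)) fun l hl hx => by
    obtain ⟨x, hx, hkx, hlx⟩ := hx
    refine hU l hl ?_
    have h4 : (4:ℝ) - 1 = 3 := by norm_num
    rw [← h4]
    refine cl1_nbr (by norm_num) hc ⟨w2 x, ?_, ?_⟩
    · exact Cbs_296.mem_P_Te.1 hkx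
    · exact Cbs_296.mem_P_Te.1 hlx
  Rd k hk := by
    obtain ⟨y, hy, y', hy', h1⟩ := shp_twoR (hS k hk).toShp
    refine ⟨y, hy, y', hy', h1.trans ?_⟩
    have h2 : (u k) ^ 2 ≤ GG vN := (sq_le_GG _).trans (Sq_55.GG_mono (hN k hk))
    have h3 : ((u k : ℝ)) ^ 2 ≤ GG vN := by exact_mod_cast h2
    gcongr
  RdU k hk hc := by
    obtain ⟨y, hy, y', hy', h1⟩ := shp_twoR (hS k hk).toShp
    refine ⟨y, hy, y', hy', h1.trans ?_⟩
    have h2 : (u k) ^ 2 ≤ GG vU :=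
      (sq_le_GG _).trans (Sq_55.GG_mono (hU k hk (Cl1.mono' (by norm_num) hc)))
    have h3 : ((u k : ℝ)) ^ 2 ≤ GG vU := by exact_mod_cast h2
    gcongr
  Re k hk x hx hd y w hs := by
    refine (edge_lbR (hS k hk) hx hd hs).trans ?_
    have h2 : (u k) ^ 2 ≤ GG vN := (sq_le_GG _).trans (Sq_55.GG_mono (hN k hk))
    have h3 : ((u k : ℝ)) ^ 2 ≤ GG vN := by exact_mod_cast h2
    gcongr

end ade

end

end Crest.Agent.R096.Ca_855
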