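import Crest.Agent.R096.Gsc3_476

/-!
# Row 96 (S0127), helper476: the tiles of `meshS` are good on three levels (622 #11859)

(a) outer tiles off the zones of the walls: universal data; (b) tiles of a block off its wall: data
with the bounds of the shell only; (c) all tiles.  One scale `κ` per tile, `scl t ≤ κ ≤ scl t + 1`.
-/

set_option autoImplicit false
set_option linter.unusedSectionVars false

open Set Metric Topology Filter

namespace Crest.Agent.R096.Gsc_476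

open Crest.AnalysisR.VecCalc3
open Crest.Agent.R096.Msh_715 Crest.Agent.R096.Msh_715.Tiling Crest.Agent.R096.Mal_874
open Crest.Agent.R096.Msh_810 Crest.Agent.R096.Cut_874 Crest.Agent.R096.Msb_432
open Crest.Agent.R096.Gsm_432 Crest.Agent.R096.Nbr_896
open Crest.Agent.R096.Ca_855
open Crest.Agent.R96.En10_199 (P3)

universe w

variable {n : ℕ}

section mesh

variable [NeZero n] {E : Type*} [NormedAddCommGroup E] [NormedSpace ℝ E]
variable {J : Type*} (M : MD E n J) {k : J → ℕ} (hk : M.Sc k) (a : Fin n → ℝ)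
  {v : J → E} (hv : M.Adm v)

/-- `t` is an outer tile off the zones of the walls -/
def Far (t : {t // t ∉ cores M hk a hv} ⊕ CIx M) : Prop :=
  (∀ j, ¬ P ((meshS M hk a hv).H t) ⊆ (M.Bk v j).N) ∧
  ∀ j, ∀ y ∈ frontier (M.Bk v j).N, ∃ x ∈ P ((meshS M hk a hv).H t),
    2 / 2 ^ k j < dist (M.φ x) (M.φ y)

/-- **(a)** outer tiles off the zones of the walls -/
theorem far_good (X : RD M) (RPx : RP X a v k) {t : {t // t ∉ cores M hk a hv} ⊕ CIx M}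
    (ht : Far M hk a hv t) :
    Good (meshS M hk a hv) t (chi M.φ a (scl M hk a hv t + 1)) (scl M hk a hv t + 1) (N0 n) 1 2 := by
  rcases outer_or M hk a hv t with ⟨p, hp, rfl⟩ | ⟨l, hl⟩
  · rcases M.outer_good hk a hv X RPx p with ⟨-, -, hg⟩ | ⟨j, hj, ⟨y, hy, h1⟩, -⟩
    · exact good_old M hk a hv _ hg fun c hc => absurd hc (outer_off M hk a hv p c)
    · exfalso
      obtain ⟨x, hx, h2⟩ := ht.2 j y hy
      exact absurd (h1 x hx) (not_le.2 h2)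
  · exact absurd hl (ht.1 l)

/-- the tile of a far tile is the whole cube -/
theorem far_cube (X : RD M) (RPx : RP X a v k) {p : M.OIx hk a hv} {hp}
    (ht : Far M hk a hv (Sum.inl ⟨Sum.inl p, hp⟩)) :
    P ((meshS M hk a hv).H (Sum.inl ⟨Sum.inl p, hp⟩)) = P ((M.ad hk a hv).T0.H p.1.par) := by
  rcases M.outer_good hk a hv X RPx p with ⟨h1, -, -⟩ | ⟨j, hj, ⟨y, hy, h1⟩, -⟩
  · exact h1
  · exfalso
    obtain ⟨x, hx, h2⟩ := ht.2 j y hy
    exact absurd (h1 x hx) (not_le.2 h2)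

/-- an inner tile near the box has scale `kc` -/
theorem scl_near {j : J} {i : M.IIx hk a hv j} {h}
    (hn : ∀ x ∈ P ((M.mesh hk a hv).H (Sum.inr ⟨j, i⟩)), (M.Bk v j).near 1 x) :
    scl M hk a hv (Sum.inl ⟨Sum.inr ⟨j, i⟩, h⟩) = (M.Q j).kc := by
  show iscl (M.Bk v j) (k j) (hk.kc j) i.1 = (M.Bk v j).kc
  obtain ⟨x, hx⟩ := (M.mesh hk a hv).ne (Sum.inr ⟨j, i⟩)
  have hx := I_sub_P _ hx
  have h1 := hn x hx
  have hx2 : x ∈ P (((M.Bk v j).T (k j) (hk.kc j)).H i.1) := hx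
  rcases hi1 : i.1 with τ | s
  · rw [hi1] at hx2
    exact (M.Bk v j).near_k (k j) (hk.kc j) (τ := τ.1) hx2 h1
  · rfl

/-- **(b)** the tiles of a block off its wall -/
theorem in_good_scl (X : RD M) (RPx : RP X a v k) {j : J} {t : {t // t ∉ cores M hk a hv} ⊕ CIx M}
    (hN : P ((meshS M hk a hv).H t) ⊆ (M.Bk v j).N)
    (hw : Disjoint (P ((meshS M hk a hv).H t)) (frontier (M.Bk v j).N)) :
    ∃ κ, (scl M hk a hv t ≤ κ ∧ κ ≤ scl M hk a hv t + 1) ∧ Good (meshS M hk a hv) t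
      (chi (M.Q j).ψ (M.Bk v j).a' κ) κ (NB n (X.B j)) 1 (max 2 (X.R j)) := by
  obtain ⟨x0, hx0⟩ := (meshS M hk a hv).ne t
  have hx0' := I_sub_P _ hx0
  rcases t with ⟨t, ht⟩ | c
  · rcases t with p | ⟨l, i⟩
    · exact (not_outer M hk a hv hN).elim
    · obtain rfl : l = j := same_block M (i.2 hx0') (hN hx0') a hk hv
      have hi : i ≠ M.core hk a hv l := by
        rintro rfl
        exact ht ⟨l, rfl⟩
      rcases M.inner_good hk a hv X RPx i hi with ⟨τ, hτ, -, hd, hg⟩ | ⟨hn, hg⟩ | ⟨-, hw', -⟩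
      · have e : scl M hk a hv (Sum.inl ⟨Sum.inr ⟨l, i⟩, ht⟩) = τ.1.1.1.k := by
          show iscl (M.Bk v l) (k l) (hk.kc l) i.1 = _
          rw [hτ]; rfl
        refine ⟨τ.1.1.1.k + 1, ⟨e.le.trans (Nat.le_succ _), Nat.succ_le_succ e.ge⟩,
          good_old M hk a hv _
            (good_mono hg (N0_sub_NB (X.B1 l)) (le_max_left _ _)) fun c hc => ?_⟩
        exfalso
        obtain rfl := inner_same M hk a hv hc
        obtain ⟨x, hx1, hx2⟩ := hc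
        exact Set.disjoint_left.1 hd hx2 (Kc_sub_bp _ (cubH_sub c hx1))
      · have e := scl_near M hk a hv (h := ht) hn
        refine ⟨(M.Q l).kc, ⟨e.le, e.ge.trans (Nat.le_succ _)⟩, good_old M hk a hv _
          (good_mono hg subset_rfl (le_max_right _ _)) fun c hc => ?_⟩
        obtain rfl := inner_same M hk a hv hc
        exact gf_cube one_pos (fr_self _ _ _ (N0_sub_NB (X.B1 _)) 1) le_rfl _
      · obtain ⟨y, hy1, hy2⟩ := hw'
        exact absurd hy2 (Set.disjoint_left.1 hw hy1)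
  · obtain ⟨l, z⟩ := c
    obtain rfl : l = j := same_block M (Kc_sub_N _ (cubH_sub (M := M) ⟨l, z⟩ hx0'))
        (hN hx0') a hk hv
    exact ⟨(M.Q l).kc, ⟨le_rfl, Nat.le_succ _⟩,
      good_mono (cube_goodS M hk a hv X ⟨l, z⟩) subset_rfl
        (le_trans (by norm_num) (le_max_left _ _))⟩

end mesh

/-- **the three levels**: one scale and one frame per tile -/
theorem good3 (E : Type) [NormedAddCommGroup E] [NormedSpace ℝ E] [FiniteDimensional ℝ E]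
    [NeZero n] {Ps : Set ((Fin n → Fin n → ℤ) × ℕ)} (hPs : Ps.Finite) (c0 R0 Lo : ℝ) {B0 : ℕ} :
    ∃ (Ls : Set (Finset (Fin n → ℝ) × ℕ)) (R L1 L2 : ℝ), Ls.Finite ∧ (∀ p ∈ Ls, 0 < p.2) ∧
      (∀ p ∈ Ls, ∀ ν ∈ p.1, ∀ m, ∃ c : ℤ, ν m = c / p.2) ∧ 0 < L1 ∧ 0 ≤ L2 ∧
      ∀ {J : Type w} (M : MD E n J) {k : J → ℕ} (hk : M.Sc k)
      (a : Fin n → ℝ) {v : J → E} (hv : M.Adm v) (X : RD M), RP X a v k →
      (∀ j, (X.A j, X.d j) ∈ Ps) → (∀ j, X.c j ≤ c0) → (∀ j, X.B j ≤ B0) → (∀ j, X.R j ≤ R0) →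
      (∀ v, ‖M.φ v‖ ≤ Lo * ‖v‖) → (∀ v, ‖v‖ ≤ Lo * ‖M.φ v‖) →
      ∀ t, ∃ (κ : ℕ) (ψ : E ≃L[ℝ] (Fin n → ℝ)) (a' : Fin n → ℝ),
        (scl M hk a hv t ≤ κ ∧ κ ≤ scl M hk a hv t + 1) ∧
        (∃ p ∈ Ls, Good (meshS M hk a hv) t (chi ψ a' κ) κ p.1 p.2 R) ∧
        (∀ v, ‖ψ v‖ ≤ L1 * ‖v‖) ∧ (∀ v, ‖v‖ ≤ L2 * ‖ψ v‖) ∧
        (∀ j, P ((meshS M hk a hv).H t) ⊆ (M.Bk v j).N →
          Disjoint (P ((meshS M hk a hv).H t)) (frontier (M.Bk v j).N) →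
          ψ = (M.Q j).ψ ∧ a' = (M.Bk v j).a' ∧
            Good (meshS M hk a hv) t (chi ψ a' κ) κ (NB n B0) 1 (max 2 R0)) ∧
        (Far M hk a hv t → ψ = M.φ ∧ a' = a ∧ κ = scl M hk a hv t + 1 ∧
          Good (meshS M hk a hv) t (chi ψ a' κ) κ (N0 n) 1 2) := by
  classical
  obtain ⟨Ls, R, L1, L2, h1, h2, h3, h4, h5, h⟩ := good_scl.{w} E hPs c0 R0 Lo (B0 := B0)
  set Ls' : Set (Finset (Fin n → ℝ) × ℕ) := Ls ∪ ({(N0 n, 1)} ∪ {(NB n B0, 1)}) with hLs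
  -- bounds for the frames of the blocks
  obtain ⟨a0, ha0⟩ := (hPs.image fun p : (Fin n → Fin n → ℤ) × ℕ =>
    ∑ m, ∑ l, |(p.1 m l : ℝ)|).bddAbove
  set K1 : ℝ := (|a0| + 1) * (|Lo| + 1) with hK1
  set K2 : ℝ := (|Lo| + 1) * (|c0| + 1) with hK2
  have hK10 : 0 < K1 := by positivity
  have hK20 : 0 ≤ K2 := by positivity
  refine ⟨Ls', max R (max 2 R0), max L1 K1, max L2 K2,
    h1.union ((finite_singleton _).union (finite_singleton _)), ?_, ?_,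
    lt_of_lt_of_le h4 (le_max_left _ _), h5.trans (le_max_left _ _),
    fun {J} M {k} hk a {v} hv X RPx hA hc hB hR hLo hLo' t => ?_⟩
  · rintro p (hp | rfl | rfl)
    · exact h2 p hp
    · exact one_pos
    · exact one_pos
  · rintro p (hp | rfl | rfl)
    · exact h3 p hp
    · exact N0_rat one_pos
    · exact NB_rat B0 one_pos
  have hLL : Lo ≤ |Lo| + 1 := (le_abs_self Lo).trans (by linarith)
  have hφ1 : ∀ v, ‖M.φ v‖ ≤ K1 * ‖v‖ := by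
    intro v
    have h1 := hLo v
    have h2 : Lo * ‖v‖ ≤ (|Lo| + 1) * ‖v‖ := mul_le_mul_of_nonneg_right hLL (norm_nonneg _)
    have h3 : 0 ≤ |a0| * ((|Lo| + 1) * ‖v‖) := by positivity
    rw [hK1]
    nlinarith
  have hφ2 : ∀ v, ‖v‖ ≤ K2 * ‖M.φ v‖ := by
    intro v
    have h1 := hLo' v
    have h2 : Lo * ‖M.φ v‖ ≤ (|Lo| + 1) * ‖M.φ v‖ :=
      mul_le_mul_of_nonneg_right hLL (norm_nonneg _)
    have h3 : 0 ≤ |c0| * ((|Lo| + 1) * ‖M.φ v‖) := by positivity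
    rw [hK2]
    nlinarith
  have hψ1 : ∀ j v, ‖(M.Q j).ψ v‖ ≤ K1 * ‖v‖ := by
    intro j v
    have h1 := norm_rat (X.dpos j) (X.rat j) v
    have h2 : ∑ m, ∑ l, |(X.A j m l : ℝ)| ≤ |a0| + 1 :=
      (ha0 (mem_image_of_mem _ (hA j))).trans ((le_abs_self a0).trans (by linarith))
    have h3 : ‖M.φ v‖ ≤ (|Lo| + 1) * ‖v‖ :=
      (hLo v).trans (mul_le_mul_of_nonneg_right hLL (norm_nonneg _))
    calc ‖(M.Q j).ψ v‖ ≤ (∑ m, ∑ l, |(X.A j m l : ℝ)|) * ‖M.φ v‖ := h1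
      _ ≤ (|a0| + 1) * ((|Lo| + 1) * ‖v‖) :=
        mul_le_mul h2 h3 (norm_nonneg _) (by positivity)
      _ = K1 * ‖v‖ := by rw [hK1]; ring
  have hψ2 : ∀ j v, ‖v‖ ≤ K2 * ‖(M.Q j).ψ v‖ := by
    intro j v
    have h1 := X.cn j v 0
    rw [map_zero, map_zero, dist_zero_right, dist_zero_right] at h1
    have h2 : X.c j ≤ |c0| + 1 := (hc j).trans ((le_abs_self c0).trans (by linarith))
    have h3 : ‖M.φ v‖ ≤ (|c0| + 1) * ‖(M.Q j).ψ v‖ :=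
      h1.trans (mul_le_mul_of_nonneg_right h2 (norm_nonneg _))
    calc ‖v‖ ≤ Lo * ‖M.φ v‖ := hLo' v
      _ ≤ (|Lo| + 1) * ‖M.φ v‖ := mul_le_mul_of_nonneg_right hLL (norm_nonneg _)
      _ ≤ (|Lo| + 1) * ((|c0| + 1) * ‖(M.Q j).ψ v‖) :=
        mul_le_mul_of_nonneg_left h3 (by positivity)
      _ = K2 * ‖(M.Q j).ψ v‖ := by rw [hK2]; ring
  have up1 : ∀ (f : E ≃L[ℝ] (Fin n → ℝ)) {c : ℝ}, c ≤ max L1 K1 → (∀ v, ‖f v‖ ≤ c * ‖v‖) →
      ∀ v, ‖f v‖ ≤ max L1 K1 * ‖v‖ := fun f c hc hf v =>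
    (hf v).trans (mul_le_mul_of_nonneg_right hc (norm_nonneg _))
  have up2 : ∀ (f : E ≃L[ℝ] (Fin n → ℝ)) {c : ℝ}, c ≤ max L2 K2 → (∀ v, ‖v‖ ≤ c * ‖f v‖) →
      ∀ v, ‖v‖ ≤ max L2 K2 * ‖f v‖ := fun f c hc hf v =>
    (hf v).trans (mul_le_mul_of_nonneg_right hc (norm_nonneg _))
  by_cases hF : Far M hk a hv t
  · have hg := far_good M hk a hv X RPx hF
    refine ⟨_, M.φ, a, ⟨Nat.le_succ _, le_rfl⟩, ⟨(N0 n, 1), Or.inr (Or.inl rfl),
      good_mono hg subset_rfl ((le_max_left _ _).trans (le_max_right _ _))⟩,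
      up1 _ (le_max_right _ _) hφ1, up2 _ (le_max_right _ _) hφ2,
      fun j hj _ => absurd hj (hF.1 j), fun _ => ⟨rfl, rfl, rfl, hg⟩⟩
  by_cases hI : ∃ j, P ((meshS M hk a hv).H t) ⊆ (M.Bk v j).N ∧
      Disjoint (P ((meshS M hk a hv).H t)) (frontier (M.Bk v j).N)
  · obtain ⟨j, hN, hw⟩ := hI
    obtain ⟨κ, hκ, hg⟩ := in_good_scl M hk a hv X RPx hN hw
    have hg' := good_mono hg (NB_mono (hB j)) (max_le_max le_rfl (hR j) : _ ≤ max 2 R0)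
    refine ⟨κ, (M.Q j).ψ, (M.Bk v j).a', hκ, ⟨(NB n B0, 1), Or.inr (Or.inr rfl),
      good_mono hg' subset_rfl (le_max_right _ _)⟩,
      up1 _ (le_max_right _ _) (hψ1 j), up2 _ (le_max_right _ _) (hψ2 j), ?_, fun h => absurd h hF⟩
    intro l hl _
    obtain ⟨x, hx⟩ := (meshS M hk a hv).ne t
    obtain rfl := same_block M (hN (I_sub_P _ hx)) (hl (I_sub_P _ hx)) a hk hv
    exact ⟨rfl, rfl, hg'⟩
  · obtain ⟨κ, ψ, a', p, hp, -, hκ, hg, hg1, hg2⟩ := h M hk a hv X RPx hA hc hB hR hLo hLo' t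
    exact ⟨κ, ψ, a', hκ, ⟨p, Or.inl hp, good_mono hg subset_rfl (le_max_left _ _)⟩,
      up1 _ (le_max_left _ _) hg1, up2 _ (le_max_left _ _) hg2,
      fun j hj hw => absurd ⟨j, hj, hw⟩ hI, fun h => absurd h hF⟩



end Crest.Agent.R096.Gsc_476
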