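import Crest.Agent.R096.Sq29_55

/-!
# R096 (row 96), SOBSQ, part 30 (helper55): `Shp2` and the length of the edges from a finite list
-/

set_option autoImplicit false
set_option linter.unusedSectionVars false

open Set Metric Filter Topology

namespace Crest.Agent.R096.Sq_55

open Crest.Agent.R096.Ce_537
open Crest.Agent.R096.Sqt_143 (map_line)
open Crest.Agent.R096.Msh_715 (P I Tiling I_sub_P isOpen_I isClosed_P convex_P)
open scoped NNReal

/-- the frame from real inequalities -/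
lemma Frm.of_norm {Λ R : ℝ≥0} {B : E3 ≃ᵃ[ℝ] E3} (h1 : ∀ v, ‖B.linear v‖ ≤ (Λ / R : ℝ≥0) * ‖v‖)
    (h2 : ∀ v, ‖v‖ ≤ (Λ * R : ℝ≥0) * ‖B.linear v‖) : Frm Λ R B where
  lip := LipschitzWith.of_dist_le_mul fun x y => by
    rw [dist_eq_norm, dist_eq_norm]
    have e : B x - B y = B.linear (x - y) := by
      have := B.toAffineMap.linearMap_vsub x y
      simpa using this.symm
    rw [e]; exact h1 _
  lip' := LipschitzWith.of_dist_le_mul fun x y => by
    rw [dist_eq_norm, dist_eq_norm]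
    obtain ⟨x, rfl⟩ := B.surjective x
    obtain ⟨y, rfl⟩ := B.surjective y
    rw [AffineEquiv.symm_apply_apply, AffineEquiv.symm_apply_apply]
    have e : B x - B y = B.linear (x - y) := by
      have := B.toAffineMap.linearMap_vsub x y
      simpa using this.symm
    rw [e]; exact h2 _

/-- **`Shp2` from a finite list of shapes** -/
theorem shp2_of_list {𝓕 : Set (Set E3)} (h𝓕 : 𝓕.Finite) : ∃ v₀ : ℝ≥0, ∀ v, v₀ ≤ v →
    ∀ {Om : Set E3} {ι : Type*} (T : Tiling Om ι) (i : ι) (B : E3 ≃ᵃ[ℝ] E3) (R : ℝ≥0), 0 < R →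
      Frm v R B → (∀ y, StarT T i y → B '' T.cc y ∈ 𝓕) → Shp2 T i B R v := by
  obtain ⟨v1, h1⟩ := exists_muK_le h𝓕
  obtain ⟨v2, h2⟩ := exists_muP_le h𝓕
  refine ⟨max v1 v2, fun v hv Om ι T i B R hR hB hst => ?_⟩
  exact {
    pos := hR
    frm := hB
    sh := fun x hx => h1 v ((le_max_left _ _).trans hv) _ (hst x (starT_self hx))
    st := fun y z hy hz => h2 v ((le_max_right _ _).trans hv) _ (hst y hy) _
      (hst z (starT_self hz)) }

/-- lower bound for the length of a segment of a finite list -/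
theorem seg_lower {𝓕 : Set (Set E3)} (h𝓕 : 𝓕.Finite) : ∃ l : ℝ, 0 < l ∧ ∀ a v : E3, v ≠ 0 →
    segment ℝ a (a + v) ∈ 𝓕 → l ≤ ‖v‖ := by
  induction 𝓕, h𝓕 using Set.Finite.induction_on with
  | empty => exact ⟨1, one_pos, fun a v _ h => h.elim⟩
  | @insert S 𝓖 _ _ ih =>
    obtain ⟨l, hl, h⟩ := ih
    by_cases hS : ∃ a v : E3, v ≠ 0 ∧ segment ℝ a (a + v) = S
    · obtain ⟨a0, v0, hv0, hs0⟩ := hS
      refine ⟨min l ‖v0‖, lt_min hl (norm_pos_iff.2 hv0), fun a v hv hav => ?_⟩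
      rcases mem_insert_iff.1 hav with h1 | h1
      · rcases segment_param (hs0.trans h1.symm) with ⟨-, e⟩ | ⟨-, e⟩
        · rw [e]; exact min_le_right _ _
        · rw [e, norm_neg]; exact min_le_right _ _
      · exact (min_le_left _ _).trans (h a v hv h1)
    · refine ⟨l, hl, fun a v hv hav => ?_⟩
      rcases mem_insert_iff.1 hav with h1 | h1
      · exact absurd ⟨a, v, hv, h1⟩ hS
      · exact h a v hv h1

/-- **all edges of the tiles of a finite list are long** -/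
theorem edge_lower {𝓕 : Set (Set E3)} (h𝓕 : 𝓕.Finite) : ∃ l : ℝ, 0 < l ∧
    ∀ {Om : Set E3} {ι : Type*} (T : Tiling Om ι) (x a v : E3) (B : E3 ≃ᵃ[ℝ] E3) (Λ R : ℝ≥0),
      0 < R → 0 < Λ → Frm Λ R B → x ∈ Om → T.dim x = 1 → T.cc x = segment ℝ a (a + v) →
      B '' T.cc x ∈ 𝓕 → l * R ≤ Λ * ‖v‖ := by
  obtain ⟨l, hl, h⟩ := seg_lower h𝓕
  refine ⟨l, hl, fun {Om ι} T x a v B Λ R hR hΛ hB hx hd hs hF => ?_⟩
  have hR' : (0:ℝ) < R := by exact_mod_cast hR
  have hv := (edge_end hx hd hs).1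
  rw [hs, image_seg] at hF
  have h1 := h _ _ (fun h0 => hv (by simpa using h0)) hF
  have h2 : ‖B.linear v‖ ≤ Λ / R * ‖v‖ := by
    have h3 := hB.lip.dist_le_mul (a + v) a
    have e : B (a + v) - B a = B.linear v := by
      have := map_line B.toAffineMap a v 1
      simp only [one_smul] at this
      rw [show B (a + v) = B a + B.linear v from this]
      abel
    rw [dist_eq_norm, dist_eq_norm, e, add_sub_cancel_left] at h3
    push_cast at h3
    exact h3
  have h3 : l ≤ Λ / R * ‖v‖ := h1.trans h2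
  rw [div_mul_eq_mul_div, le_div_iff₀ hR'] at h3
  exact h3

end Crest.Agent.R096.Sq_55
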