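import Crest.Agent.R096.Sts1_55
import Crest.Agent.R096.Sq30_55
import Crest.Agent.R096.Gsc4_476
import Crest.Agent.R096.Ca21_855
import Crest.Agent.R096.Dps1_476

/-!
# R096 (row 96), helper55: **`exists_shp_T`** = [SH] of 622 #12068: the shape numbers of all tiles of
`h.T a` in three levels (`Shp2`, frames, sizes `2 ^ (-κt)`, ratios of neighbours)
-/

set_option autoImplicit false
set_option linter.unusedSectionVars false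
set_option linter.style.longLine false

open Set Metric Topology Filter

namespace Crest.Agent.R096.Sts_55

open Crest.AnalysisR.VecCalc3
open Crest.Agent.R096.Msh_715 Crest.Agent.R096.Mal_874 Crest.Agent.R096.Cut_874
open Crest.Agent.R096.Msh_810 Crest.Agent.R096.Gsm_432 Crest.Agent.R096.Shp_432
open Crest.Agent.R096.Msb_432 (meshS)
open Crest.Agent.R096.Efi_296 (Te)
open Crest.Agent.R096.Sq_55 (E3 Frm Shp2 StarT shp2_of_list w2)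
open Crest.Agent.R96.En10_199 (P3)
open Crest.Agent.R096.Osc_400 (norm_P3_le)
open Crest.Agent.R096.Ca_855 (MIn norm_P3_symm_le cl1_nbr)
open Crest.Agent.R096.Gsc_476
open Crest.Agent.R096.Dps_476 (deepJ)
open Crest.Agent.R96.Eld_538 (Cl1)
open scoped NNReal

noncomputable section

/-- the frame of a tile of a tiling of a part of `R3`, for the transported tiling -/
def Bf (ψ : R3 ≃L[ℝ] (Fin 3 → ℝ)) (a' : Fin 3 → ℝ) (κ : ℕ) (x0 : R3) : E3 ≃ᵃ[ℝ] E3 :=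
  P3.toLinearEquiv.toAffineEquiv.trans
    ((chi ψ a' κ).trans (trz fun m => ⌊chi ψ a' κ x0 m⌋))

lemma Bf_apply (ψ : R3 ≃L[ℝ] (Fin 3 → ℝ)) (a' : Fin 3 → ℝ) (κ : ℕ) (x0 : R3) (y : E3) :
    Bf ψ a' κ x0 y = ((chi ψ a' κ).trans (trz fun m => ⌊chi ψ a' κ x0 m⌋)) (P3 y) := rfl

lemma norm_Bf (ψ : R3 ≃L[ℝ] (Fin 3 → ℝ)) (a' : Fin 3 → ℝ) (κ : ℕ) (x0 : R3) (v : E3) :
    ‖(Bf ψ a' κ x0).linear v‖ = 2 ^ κ * ‖ψ (P3 v)‖ := by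
  have h1 : (Bf ψ a' κ x0).linear v = Bf ψ a' κ x0 v - Bf ψ a' κ x0 0 := by
    have := lin_sub (Bf ψ a' κ x0) 0 v
    rw [sub_zero] at this
    exact this.symm
  have h2 : Bf ψ a' κ x0 v - Bf ψ a' κ x0 0 = (2:ℝ) ^ κ • ψ (P3 v) := by
    funext m
    rw [Pi.sub_apply, Bf_apply, Bf_apply, AffineEquiv.trans_apply, AffineEquiv.trans_apply,
      trz_apply, trz_apply, sub_sub_sub_cancel_right, chi_diff, map_zero, sub_zero,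
      Pi.smul_apply, smul_eq_mul]
  rw [h1, h2, norm_smul, Real.norm_of_nonneg (by positivity)]

lemma frm_Bf {ψ : R3 ≃L[ℝ] (Fin 3 → ℝ)} {a' : Fin 3 → ℝ} {κ : ℕ} {x0 : R3} {L1 L2 : ℝ}
    (hL1 : 0 ≤ L1) (h1 : ∀ v, ‖ψ v‖ ≤ L1 * ‖v‖) (h2 : ∀ v, ‖v‖ ≤ L2 * ‖ψ v‖) {v : ℝ≥0}
    (hv1 : 2 * L1 ≤ v) (hv2 : L2 ≤ v) : Frm v (((2:ℝ≥0) ^ κ)⁻¹) (Bf ψ a' κ x0) := by
  refine Frm.of_norm (fun w => ?_) (fun w => ?_)
  · rw [norm_Bf]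
    have h3 := norm_P3_le w
    have e : ((v / ((2:ℝ≥0) ^ κ)⁻¹ : ℝ≥0) : ℝ) = v * 2 ^ κ := by
      push_cast; rw [div_inv_eq_mul]
    rw [e]
    calc (2:ℝ) ^ κ * ‖ψ (P3 w)‖ ≤ 2 ^ κ * (L1 * ‖P3 w‖) := by gcongr; exact h1 _
      _ ≤ 2 ^ κ * (L1 * (2 * ‖w‖)) := by gcongr
      _ = (2 * L1) * (2 ^ κ * ‖w‖) := by ring
      _ ≤ v * (2 ^ κ * ‖w‖) := by gcongr
      _ = v * 2 ^ κ * ‖w‖ := by ring
  · rw [norm_Bf]
    have e : ((v * ((2:ℝ≥0) ^ κ)⁻¹ : ℝ≥0) : ℝ) * (2 ^ κ * ‖ψ (P3 w)‖) = v * ‖ψ (P3 w)‖ := by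
      push_cast
      rw [mul_assoc, ← mul_assoc (((2:ℝ) ^ κ)⁻¹), inv_mul_cancel₀ (by positivity), one_mul]
    rw [e]
    calc ‖w‖ = ‖P3.symm (P3 w)‖ := by rw [P3.symm_apply_apply]
      _ ≤ ‖P3 w‖ := norm_P3_symm_le _
      _ ≤ L2 * ‖ψ (P3 w)‖ := h2 _
      _ ≤ v * ‖ψ (P3 w)‖ := by gcongr

/-- cells of the transported tiling in the frame -/
lemma image_Te {OmR : Set R3} {ι : Type} (T : Tiling OmR ι) (ψ : R3 ≃L[ℝ] (Fin 3 → ℝ))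
    (a' : Fin 3 → ℝ) (κ : ℕ) (x0 : R3) (y : E3) :
    Bf ψ a' κ x0 '' (Te T).cc y =
      ((chi ψ a' κ).trans (trz fun m => ⌊chi ψ a' κ x0 m⌋)) '' T.cc (P3 y) := by
  have h1 : (Te T).cc y = P3.symm '' T.cc (P3 y) := by
    have := Ttr_622.cc_tr (P3.symm : R3 ≃L[ℝ] E3) T (P3 y)
    rw [P3.symm_apply_apply] at this
    exact this
  rw [h1, Set.image_image]
  refine Set.image_congr fun x _ => ?_
  rw [Bf_apply, P3.apply_symm_apply]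

/-- **one level** -/
lemma level {Ls : Set (Finset (Fin 3 → ℝ) × ℕ)} (hLs : Ls.Finite) (hpos : ∀ p ∈ Ls, 0 < p.2)
    (hrat : ∀ p ∈ Ls, ∀ ν ∈ p.1, ∀ m, ∃ c : ℤ, ν m = c / p.2) (R : ℝ) {L1 L2 : ℝ} (hL1 : 0 ≤ L1)
    (hL2 : 0 ≤ L2) :
    ∃ v₀ : ℝ≥0, 1 ≤ v₀ ∧ ∀ v, v₀ ≤ v → ∀ {OmR : Set R3} {ι : Type} (T : Tiling OmR ι) (κ : ι → ℕ)
      (ψ : ι → R3 ≃L[ℝ] (Fin 3 → ℝ)) (a' : ι → Fin 3 → ℝ) (x0 : ι → R3),
      (∀ t, x0 t ∈ I (T.H t)) → ∀ G : Set ι,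
      (∀ t ∈ G, ∃ p ∈ Ls, Good T t (chi (ψ t) (a' t) (κ t)) (κ t) p.1 p.2 R) →
      (∀ t ∈ G, ∀ v, ‖ψ t v‖ ≤ L1 * ‖v‖) → (∀ t ∈ G, ∀ v, ‖v‖ ≤ L2 * ‖ψ t v‖) → ∀ t,
      (∀ l, (P (T.H l) ∩ P (T.H t)).Nonempty → l ∈ G) →
      Shp2 (Te T) t (Bf (ψ t) (a' t) (κ t) (x0 t)) (((2:ℝ≥0) ^ κ t)⁻¹) v ∧
      ∀ l, (P (T.H l) ∩ P (T.H t)).Nonempty →
        ((2:ℝ≥0) ^ κ l)⁻¹ ≤ v * ((2:ℝ≥0) ^ κ t)⁻¹ ∧ ((2:ℝ≥0) ^ κ t)⁻¹ ≤ v * ((2:ℝ≥0) ^ κ l)⁻¹ := by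
  obtain ⟨K, 𝓕, hK, h𝓕, hst⟩ := star_list (n := 3) R3 hLs hpos hrat R hL1 hL2
  obtain ⟨v1, h1⟩ := shp2_of_list (𝓕 := 𝓕) h𝓕
  refine ⟨max 1 (max v1 (max (2 * L1).toNNReal (max L2.toNNReal K.toNNReal))), le_max_left _ _,
    fun v hv OmR ι T κ ψ a' x0 hx0 G hG hb1 hb2 t htG => ?_⟩
  obtain ⟨hsc, hsh⟩ := hst T κ ψ a' x0 hx0 G hG hb1 hb2
  have hvv := max_le_iff.1 ((max_le_iff.1 hv).2)
  have hvv2 := max_le_iff.1 hvv.2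
  have hvv3 := max_le_iff.1 hvv2.2
  have hc1 : 2 * L1 ≤ v := Real.toNNReal_le_iff_le_coe.1 hvv2.1
  have hc2 : L2 ≤ v := Real.toNNReal_le_iff_le_coe.1 hvv3.1
  have hc3 : K ≤ v := Real.toNNReal_le_iff_le_coe.1 hvv3.2
  have htt : t ∈ G := htG t (by
    have := I_sub_P _ (hx0 t)
    exact ⟨_, this, this⟩)
  have hpw : ∀ k l : ι, (2:ℝ) ^ κ l ≤ K * 2 ^ κ k →
      ((2:ℝ≥0) ^ κ k)⁻¹ ≤ v * ((2:ℝ≥0) ^ κ l)⁻¹ := by
    intro k l h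
    have h3 : (2:ℝ) ^ κ l ≤ v * 2 ^ κ k := h.trans (by gcongr)
    have h4 : (2:ℝ≥0) ^ κ l ≤ v * 2 ^ κ k := by exact_mod_cast h3
    rw [← div_eq_mul_inv, le_div_iff₀ (by positivity), inv_mul_le_iff₀ (by positivity), mul_comm]
    exact h4
  refine ⟨h1 v hvv.1 (Te T) t _ _ (by positivity) (frm_Bf hL1 (hb1 t htt) (hb2 t htt) hc1 hc2)
    fun y hy => ?_, fun l hl => ⟨?_, ?_⟩⟩
  · obtain ⟨l, hyl, w, hwl, hwt⟩ := hy
    rw [image_Te]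
    have hyl' : P3 y ∈ P (T.H l) := (Ttr_622.mem_P_tr (P3.symm : R3 ≃L[ℝ] E3) T).1 hyl
    have hwl' : P3 w ∈ P (T.H l) := (Ttr_622.mem_P_tr (P3.symm : R3 ≃L[ℝ] E3) T).1 hwl
    have hwt' : P3 w ∈ P (T.H t) := (Ttr_622.mem_P_tr (P3.symm : R3 ≃L[ℝ] E3) T).1 hwt
    exact hsh t htt l (htG l ⟨_, hwl', hwt'⟩) ⟨_, hwl', hwt'⟩ _ hyl'
  · exact hpw l t (hsc l (htG l hl) t htt (by rwa [Set.inter_comm]))
  · exact hpw t l (hsc t htt l (htG l hl) hl)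

lemma shp2_re {Om Om' : Set R3} (h : Om = Om') {ι : Type} {T : Tiling Om ι} {i : ι}
    {B : E3 ≃ᵃ[ℝ] E3} {R v : ℝ≥0} (hT : Shp2 (Te T) i B R v) :
    Shp2 (Te (reOm T h)) i B R v := by
  subst h
  exact hT

/-- **[SH] (622 #12068): three levels of shape numbers** -/
theorem exists_shp_T : ∃ vU : ℝ≥0, ∀ (κ : ℝ) (Bs : ℕ), 0 < κ → κ ≤ 1 → ∃ (vI : ℝ≥0) (K3 : ℕ),
    ∀ Nn : ℕ, ∃ vN : ℝ≥0, ∀ {Om W : Set R3} {ρ₀ : R3 → ℝ} {J : Type} [Finite J]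
      {Qb : J → CB R3 3} {k0 : ℕ} {σ : ℝ} (h : MIn Om W ρ₀ Qb k0 σ),
      (∀ j, MIn.BQ κ Bs Nn (Qb j) k0) → ∀ a : R3, ‖a‖ ≤ σ / 8 →
      ∃ (B : h.ιT a → E3 ≃ᵃ[ℝ] E3) (κt : h.ιT a → ℕ) (R u : h.ιT a → ℝ≥0),
        (∀ t, Shp2 (Te (h.T a)) t (B t) (R t) (u t)) ∧
        (∀ t, sclT h a t ≤ κt t) ∧ (∀ t, κt t ≤ sclT h a t + 1) ∧
        (∀ t, R t = ((2:ℝ≥0) ^ κt t)⁻¹) ∧
        (∀ k l, (P ((h.T a).H k) ∩ P ((h.T a).H l)).Nonempty →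
          R k ≤ u k * R l ∧ R l ≤ u k * R k) ∧
        (∀ t, 1 ≤ u t) ∧ (∀ t, Cl1 h 3 a t → u t ≤ vU) ∧
        (∀ j, ∀ t ∈ deepJ h a j K3, u t ≤ vI) ∧ ∀ t, u t ≤ vN := by
  classical
  obtain ⟨vU, hU1, hU⟩ := level (Ls := {(N0 3, 1)}) (finite_singleton _)
    (by rintro p rfl; exact one_pos) (by rintro p rfl; exact N0_rat one_pos) 2
    (L1 := 1) (L2 := 2) (by norm_num) (by norm_num)
  refine ⟨vU, fun κ Bs hκ hκ1 => ?_⟩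
  have hκi : 0 ≤ 4 * κ⁻¹ := by positivity
  obtain ⟨vI, hI1, hI⟩ := level (Ls := {(NB 3 (max 1 Bs), 1)}) (finite_singleton _)
    (by rintro p rfl; exact one_pos) (by rintro p rfl; exact NB_rat _ one_pos)
    (max 2 (max 1 (Bs:ℝ))) (L1 := 4 * κ⁻¹) (L2 := 4 * κ⁻¹) hκi hκi
  refine ⟨vI, 2, fun Nn => ?_⟩
  obtain ⟨Ls, R, L1, L2, g1, g2, g3, g4, g5, g6⟩ := good3 (n := 3) R3 (MIn.Ps_finite Nn)
    (4 * κ⁻¹) (max 1 (Bs:ℝ)) 2 (B0 := max 1 Bs)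
  obtain ⟨vN', hN1, hN⟩ := level g1 g2 g3 R g4.le g5
  refine ⟨max vN' (max vI vU), ?_⟩
  intro Om W ρ₀ J _ Qb k0 σ h hb a ha
  have hG := g6 h.M h.sc (0 + h.M.φ (h.cl a)) (h.adm a) (h.X hκ hκ1 hb)
    (h.rp hκ hκ1 hb a) (h.X_Ps hκ hκ1 hb) (fun _ => le_rfl) (fun _ => le_rfl) (fun _ => le_rfl)
    (fun v => by
      have h3 := norm_P3_symm_le v
      have h4 := norm_nonneg v
      show ‖P3.symm v‖ ≤ 2 * ‖v‖
      linarith)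
    (fun v => by
      have h3 := norm_P3_le (P3.symm v)
      rw [P3.apply_symm_apply] at h3
      exact h3)
  choose κt ψ a' hκt hGood hb1 hb2 hin hfar using hG
  have hx0 : ∀ t, ∃ x, x ∈ I ((h.Ts a).H t) := fun t => (h.Ts a).ne t
  choose x0 hx0 using hx0
  set GF : Set (h.ιT a) := {l | Far h.M h.sc (0 + h.M.φ (h.cl a)) (h.adm a) l} with hGF
  set GI : J → Set (h.ιT a) := fun j => {l | P ((h.Ts a).H l) ⊆ (h.M.Bk (fun _ => h.cl a) j).N ∧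
    Disjoint (P ((h.Ts a).H l)) (frontier (h.M.Bk (fun _ => h.cl a) j).N)} with hGI
  have hUlev := hU vU le_rfl (h.Ts a) κt ψ a' x0 hx0 GF
    (fun t ht => ⟨_, rfl, (hfar t ht).2.2.2⟩)
    (fun t ht v => by
      rw [(hfar t ht).1, one_mul]; exact norm_P3_symm_le v)
    (fun t ht v => by
      rw [(hfar t ht).1]
      have h3 := norm_P3_le (P3.symm v)
      rw [P3.apply_symm_apply] at h3
      exact h3)
  have hIlev := fun j => hI vI le_rfl (h.Ts a) κt ψ a' x0 hx0 (GI j)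
    (fun t ht => ⟨_, rfl, (hin t j ht.1 ht.2).2.2⟩)
    (fun t ht v => by
      rw [(hin t j ht.1 ht.2).1]; exact ((hb j).cnd v).2)
    (fun t ht v => by
      rw [(hin t j ht.1 ht.2).1]
      have h3 := ((hb j).cnd v).1
      have e : 4 * κ⁻¹ * (κ / 4 * ‖v‖) = ‖v‖ := by field_simp
      calc ‖v‖ = 4 * κ⁻¹ * (κ / 4 * ‖v‖) := e.symm
        _ ≤ 4 * κ⁻¹ * ‖(Qb j).ψ v‖ := by gcongr)
  have hNlev := hN (max vN' (max vI vU)) (le_max_left _ _) (h.Ts a) κt ψ a' x0 hx0 univ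
    (fun t _ => hGood t) (fun t _ => hb1 t) (fun t _ => hb2 t)
  set u : h.ιT a → ℝ≥0 := fun t =>
    if ∀ l, (P ((h.Ts a).H l) ∩ P ((h.Ts a).H t)).Nonempty → l ∈ GF then vU
    else if ∃ j, ∀ l, (P ((h.Ts a).H l) ∩ P ((h.Ts a).H t)).Nonempty → l ∈ GI j then vI
    else max vN' (max vI vU) with hu
  have key : ∀ t, Shp2 (Te (h.Ts a)) t (Bf (ψ t) (a' t) (κt t) (x0 t)) (((2:ℝ≥0) ^ κt t)⁻¹) (u t) ∧
      ∀ l, (P ((h.Ts a).H l) ∩ P ((h.Ts a).H t)).Nonempty →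
        ((2:ℝ≥0) ^ κt l)⁻¹ ≤ u t * ((2:ℝ≥0) ^ κt t)⁻¹ ∧
        ((2:ℝ≥0) ^ κt t)⁻¹ ≤ u t * ((2:ℝ≥0) ^ κt l)⁻¹ := by
    intro t
    by_cases h1 : ∀ l, (P ((h.Ts a).H l) ∩ P ((h.Ts a).H t)).Nonempty → l ∈ GF
    · have e : u t = vU := by simp only [hu]; rw [if_pos h1]
      rw [e]; exact hUlev t h1
    · by_cases h2 : ∃ j, ∀ l, (P ((h.Ts a).H l) ∩ P ((h.Ts a).H t)).Nonempty → l ∈ GI j
      · have e : u t = vI := by simp only [hu]; rw [if_neg h1, if_pos h2]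
        rw [e]
        obtain ⟨j, hj⟩ := h2
        exact hIlev j t hj
      · have e : u t = max vN' (max vI vU) := by simp only [hu]; rw [if_neg h1, if_neg h2]
        rw [e]; exact hNlev t fun l _ => mem_univ _
  refine ⟨fun t => Bf (ψ t) (a' t) (κt t) (x0 t), κt, fun t => ((2:ℝ≥0) ^ κt t)⁻¹, u,
    fun t => shp2_re h.dom (key t).1, fun t => (hκt t).1, fun t => (hκt t).2, fun t => rfl,
    fun k l hkl => ?_, fun t => ?_, fun t ht => ?_, fun j t ht => ?_, fun t => ?_⟩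
  · have := (key k).2 l (by rw [Set.inter_comm]; exact hkl)
    exact ⟨this.2, this.1⟩
  · simp only [hu]
    split_ifs
    · exact hU1
    · exact hI1
    · exact hU1.trans ((le_max_right _ _).trans (le_max_right _ _))
  · have h1 : ∀ l, (P ((h.Ts a).H l) ∩ P ((h.Ts a).H t)).Nonempty → l ∈ GF := by
      intro l hl
      have h2 : Cl1 h (3 - 1) a l := cl1_nbr (by norm_num) ht (by rw [Set.inter_comm]; exact hl)
      refine ⟨h2.1, fun j y hy => ?_⟩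
      obtain ⟨x, hx⟩ := (h.Ts a).ne l
      refine ⟨x, I_sub_P _ hx, ?_⟩
      have h3 := h2.2 j x (I_sub_P _ hx) y hy
      norm_num at h3
      exact h3
    have e : u t = vU := by simp only [hu]; rw [if_pos h1]
    exact e.le
  · have h2 : ∃ j, ∀ l, (P ((h.Ts a).H l) ∩ P ((h.Ts a).H t)).Nonempty → l ∈ GI j := by
      refine ⟨j, fun l hl => ?_⟩
      have h3 := star_offT h ha ht.1 ht.2 (by rw [Set.inter_comm]; exact hl)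
      have e := Bk_eq h ha j
      refine ⟨?_, ?_⟩
      · rw [e]; exact h3.1
      · rw [e]; exact h3.2.1
    by_cases h1 : ∀ l, (P ((h.Ts a).H l) ∩ P ((h.Ts a).H t)).Nonempty → l ∈ GF
    · exfalso
      have h4 := h1 t (by
        obtain ⟨x, hx⟩ := (h.Ts a).ne t
        exact ⟨x, I_sub_P _ hx, I_sub_P _ hx⟩)
      have h5 : ¬ P ((h.Ts a).H t) ⊆ (h.M.Bk (fun _ => h.cl a) j).N := h4.1 j
      rw [Bk_eq h ha j] at h5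
      exact h5 ht.1
    · have e : u t = vI := by simp only [hu]; rw [if_neg h1, if_pos h2]
      exact e.le
  · simp only [hu]
    split_ifs
    · exact (le_max_right _ _).trans (le_max_right _ _)
    · exact (le_max_left _ _).trans (le_max_right _ _)
    · exact le_rfl

end

end Crest.Agent.R096.Sts_55
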