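/-
helper622, row 96, `OneP`, part 5: the numbers.  `O1N p` = (O1) with the order of its constants;
**`oneP_of : O1N p → OneP p Els`**.
-/
import Crest.Agent.R096.Onp4_622
import Crest.Agent.R096.Sts2_55
import Crest.Agent.R096.Lnk2_726

set_option autoImplicit false
set_option linter.unusedSectionVars false
set_option linter.style.longLine false
set_option maxHeartbeats 1000000

open Set Metric Filter Topology MeasureTheory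
open scoped ENNReal NNReal

namespace Crest.Agent.R096.Onp_622

open Crest.AnalysisR.VecCalc3 Crest.AnalysisR.Sobolev Crest.Agent.R096.Sk_962
open Crest.Agent.R096.Msh_715 (P I Tiling)
open Crest.Agent.R096.Mal_874 (CB)
open Crest.Agent.R096.Sq_55 (E3 GG Shp2)
open Crest.Agent.R096.Efi_296
open Crest.Agent.R096.Cbs_296
open Crest.Agent.R096.Ca_855 (MIn deepT)
open Crest.Agent.R096.Dps_476 (deepJ)
open Crest.Agent.R96.Intr_538 (cel par)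
open Crest.Agent.R96.Coarse_538 (vt Cb seg Dt)
open Crest.Agent.R096.Fce_793 (pt cc)
open Crest.Agent.R96.En10_199 (P3)
open Crest.Agent.R96.Eld_538 (Cl1 AdE Els)
open Crest.Agent.R096.Pas_753
open Crest.Agent.R096.Pin_753
open Crest.Agent.R096.Cl_692 (C1c C1c_one)
open Crest.Agent.R096.Ou_372 (Cout)

noncomputable section

/-- **(O1) with the order of its constants** -/
def O1N (p : ℝ) : Prop :=
  ∀ (κ D : ℝ) (nc Bs : ℕ) (vI : ℝ≥0) (K3 : ℕ), 0 < κ → κ ≤ 1 → 1 ≤ D → 1 ≤ vI → 1 ≤ K3 →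
    TileC κ Bs D nc →
  ∃ C1a : ℝ, ∀ (C1 τ hh c1 c2 κw : ℝ) (Nn : ℕ) (vU vN : ℝ≥0), C1a ≤ C1 → 0 < τ → τ ≤ 1 / 4 →
    0 < hh → 0 < c1 → 0 < c2 → 0 < κw → C1 * hh ≤ min τ c2 →
  ∃ (K1 : ℕ) (r Cer : ℝ), 4 ≤ K1 ∧ 0 ≤ Cer ∧ ∀ Rl : ℝ, r ≤ Rl →
  ∃ θa : ℝ, 0 < θa ∧ ∀ θ0 θ1 : ℝ, 0 < θ0 → θ0 ≤ θa → 0 < θ1 →
  ∃ σa ηa : ℝ, 0 < σa ∧ 0 < ηa ∧ ∀ σ' η₁ : ℝ, 0 < σ' → σ' ≤ σa → 0 < η₁ → η₁ ≤ ηa →
  ∀ (Om La W : Set R3) (f : R3 → R3) (G : Fin 3 → R3 → R3), IsOpen Om → IsOpen La →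
    SH p Om La f G → W ⊆ Om → IsCompact W →
  ∀ (ρ₀ : R3 → ℝ) (s : ℝ) (a₀ : R3) (Q₀ : Finset (Fin 3 → ℤ)) (b : (Fin 3 → ℤ) → R3)
    (L : (Fin 3 → ℤ) → R3 →L[ℝ] R3), 0 < s →
    (∀ k ∈ Q₀, (∀ v, κ * ‖v‖ ≤ ‖L k v‖) ∧ ‖L k‖ ≤ κ⁻¹) →
    (∀ k ∈ Q₀, cel Cb (vt (2 * s) a₀ k) s ⊆ W) →
  ∀ (J : Type) [Finite J] (kk : J → Fin 3 → ℤ) (Qb : J → CB R3 3) (k0 : ℕ)
    (hk : ∀ j, (Qb j).kc ≤ k0), (∀ j, kk j ∈ Q₀) →
    (∀ j, BlkP κ s τ hh c1 θ0 θ1 Bs Nn (vt (2 * s) a₀ (kk j)) (Qb j) k0) →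
    (∀ i j, i ≠ j → ∀ x ∈ (Qb i).N, ∀ y ∈ (Qb j).N, c2 * s ≤ dist x y) →
    θ1 * s ≤ 1 / 2 ^ k0 → 1 / 2 ^ k0 ≤ θ0 * s →
  ∀ (h : MIn Om W ρ₀ Qb k0 (c2 * s)) {κi : Type} [Countable κi] (x v : κi → R3)
    {κf : Type} [Countable κf] (xf : κf → R3) (ef : κf → Fin 2 → R3) (Pf : κf → Set (ℝ × ℝ))
    {κe' κf' : Type} (x' v' : κe' → R3) (e' : κf' → Fin 2 → R3) (xx' : κf' → R3)
    (Qf' : κf' → Set (ℝ × ℝ)) (hA : AllC h x' v' e' xx' Qf') (a : R3), a ∈ Dt (1 / 2 ^ k0) →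
    ‖a‖ ≤ 2 / 2 ^ k0 →
  ∀ (hG : ∀ i, GoodA Om (gF p G L i) x' v' e' xx' a) (Q : Finset (Fin 3 → ℤ)), Q ⊆ Q₀ →
    Pos p Om La W f G (h.T a) x v xf ef Pf κ (τ / 12) (τ / 24) η₁ (D * hh * s) s
      (3 * (nc * (nc * nc) + 2) * (κ⁻¹ * (D * hh * s))) (σ' * (D * hh * s)) (vt (2 * s) a₀) b L Q a →
    O1A p La f G κ (τ / 12) s (σ' * (D * hh * s))
      (3 * (nc * (nc * nc) + 2) * (κ⁻¹ * (D * hh * s)) + hh * s) C1 κw Rl Cer (vt (2 * s) a₀) b L kk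
      Q hk h a K1 K3 vU vI vN hA.cpt hG

/-- [SH] in the form `ShD`, with `1 ≤ vI`, `1 ≤ K3` -/
theorem exists_shD : ∃ vU : ℝ≥0, ∀ (κ : ℝ) (Bs : ℕ), 0 < κ → κ ≤ 1 → ∃ (vI : ℝ≥0) (K3 : ℕ),
    1 ≤ vI ∧ 1 ≤ K3 ∧ ∀ Nn : ℕ, ∃ vN : ℝ≥0, ∀ {Om W : Set R3} {ρ₀ : R3 → ℝ} {J : Type} [Finite J]
      {Qb : J → CB R3 3} {k0 : ℕ} {σ : ℝ} (h : MIn Om W ρ₀ Qb k0 σ),
      (∀ j, MIn.BQ κ Bs Nn (Qb j) k0) → ∀ a : R3, ‖a‖ ≤ σ / 8 →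
      ∃ (B : h.ιT a → E3 ≃ᵃ[ℝ] E3) (κt : h.ιT a → ℕ) (R u : h.ιT a → ℝ≥0),
        ShD h a K3 vU vI vN B κt R u := by
  obtain ⟨vU, hU⟩ := Sts_55.exists_shp_T
  refine ⟨vU, fun κ Bs hκ hκ1 => ?_⟩
  obtain ⟨vI, K3, hI⟩ := hU κ Bs hκ hκ1
  refine ⟨max 1 vI, max 1 K3, le_max_left _ _, le_max_left _ _, fun Nn => ?_⟩
  obtain ⟨vN, hN⟩ := hI Nn
  refine ⟨vN, fun {Om W ρ₀ J} _ {Qb k0 σ} h hb a ha => ?_⟩
  obtain ⟨B, κt, R, u, h1, h2, h3, h4, h5, h6, h7, h8, h9⟩ := hN h hb a ha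
  refine ⟨B, κt, R, u, h1, h2, h3, h4, h5, h6, h7, fun j t ht => ?_, h9⟩
  refine (h8 j t ⟨ht.1, ?_⟩).trans (le_max_right _ _)
  exact (Nat.add_le_add_left (le_max_right _ _) _).trans ht.2

/-- **the numbers of `OneP`** -/
theorem oneP_of {p : ℝ} (hp : 1 ≤ p) (hp2 : p ≤ 2) (hO : O1N p) : OneP p Els := by
  obtain ⟨vU, hSH⟩ := exists_shD
  refine ⟨GG vU, fun Cu Bs => ⟨Cout p (3 / 2) Cu, ?_⟩⟩
  intro Om La f G hOm hOmb _ hLa _ _ hf κ D nc hκ hκ1 hD hTC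
  obtain ⟨vI, K3, hvI, hK3, hSH⟩ := hSH κ Bs hκ hκ1
  obtain ⟨C1a, hO⟩ := hO κ D nc Bs vI K3 hκ hκ1 hD hvI hK3 hTC
  have hD0 : 0 < D := by linarith
  have hc1c := C1c_one hκ hD0.le nc
  refine ⟨max (24 * D) (max (C1c κ D nc) C1a), ?_, le_max_left _ _, ?_⟩
  · exact hc1c.trans ((le_max_left _ _).trans (le_max_right _ _))
  set C1 : ℝ := max (24 * D) (max (C1c κ D nc) C1a) with hC1
  have hC1D : 24 * D ≤ C1 := le_max_left _ _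
  have hC1c : C1c κ D nc ≤ C1 := (le_max_left _ _).trans (le_max_right _ _)
  have hC1a : C1a ≤ C1 := (le_max_right _ _).trans (le_max_right _ _)
  intro τ hh c1 c2 κw e Nn hτ hτ4 hhh hc1 hc2 hκw he hCh
  have hCτ : C1 * hh ≤ τ := hCh.trans (min_le_left _ _)
  have hCc : C1 * hh ≤ c2 := hCh.trans (min_le_right _ _)
  have hDC : 24 * D * hh ≤ C1 * hh := mul_le_mul_of_nonneg_right hC1D hhh.le
  obtain ⟨vN, hSH⟩ := hSH Nn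
  obtain ⟨K1, r, Cer, hK1, hCer, hO⟩ := hO C1 τ hh c1 c2 κw Nn vU vN hC1a hτ hτ4 hhh hc1 hc2 hκw hCh
  have hCer1 : 0 < Cer + 1 := by linarith
  set Rl : ℝ := max 40 r with hRl
  have hRl40 : 40 ≤ Rl := le_max_left _ _
  obtain ⟨θa, hθa, hO⟩ := hO Rl (le_max_right _ _)
  obtain ⟨_, dm, hdm, hlnk⟩ := Lnk_726.lnk3 hκ Bs Rl
  set e₀ : ℝ := min (e / 3) (e / (2 * (Cer + 1))) with he₀
  have he₀0 : 0 < e₀ := lt_min (by positivity) (by positivity)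
  refine ⟨Rl, e₀, GG vN, by linarith, he₀0, ?_⟩
  set V : ℝ := (volume Om).toReal with hV
  have hV0 : 0 ≤ V := ENNReal.toReal_nonneg
  have hvol : volume Om ≠ ∞ := (hOmb.measure_lt_top).ne
  have hκi : 0 < κ⁻¹ := inv_pos.2 hκ
  set A7 : ℝ := dm + 8 * κ⁻¹ * Rl with hA7
  have hA70 : 0 ≤ A7 := by
    have : 0 ≤ Rl := by linarith
    positivity
  set θ0 : ℝ := min (min (κ * c2 / 321) (c1 / 40)) (min (κ * τ / 162)
    (min (e * c1 / (3 * 7680 * (V + 1))) (min (c2 / (A7 + 1)) θa))) with hθ0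
  have hθ00 : 0 < θ0 := by
    refine lt_min (lt_min ?_ ?_) (lt_min ?_ (lt_min ?_ (lt_min ?_ hθa))) <;> positivity
  have b1 : θ0 ≤ κ * c2 / 321 := (min_le_left _ _).trans (min_le_left _ _)
  have b2 : θ0 ≤ c1 / 40 := (min_le_left _ _).trans (min_le_right _ _)
  have b3 : θ0 ≤ κ * τ / 162 := (min_le_right _ _).trans (min_le_left _ _)
  have b4 : θ0 ≤ e * c1 / (3 * 7680 * (V + 1)) :=
    (min_le_right _ _).trans ((min_le_right _ _).trans (min_le_left _ _))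
  have b5 : θ0 ≤ c2 / (A7 + 1) := (min_le_right _ _).trans ((min_le_right _ _).trans
    ((min_le_right _ _).trans (min_le_left _ _)))
  have b6 : θ0 ≤ θa := (min_le_right _ _).trans ((min_le_right _ _).trans
    ((min_le_right _ _).trans (min_le_right _ _)))
  have hκc : 0 < κ * c2 := by positivity
  have n1 : 320 * θ0 < κ * c2 := by
    have : 321 * θ0 ≤ κ * c2 := by linarith
    linarith
  have n2 : 40 * θ0 ≤ c1 := by linarith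
  have n3 : 162 * θ0 ≤ κ * τ := by linarith
  have n7 : (dm + 8 * κ⁻¹ * Rl) * θ0 < c2 := by
    have h1 : A7 + 1 > 0 := by linarith
    rw [le_div_iff₀ h1] at b5
    have : A7 * θ0 < c2 := by nlinarith
    exact this
  have n4 : ENNReal.ofReal (7680 * θ0 / c1) * volume Om ≤ ENNReal.ofReal (e / 3) := by
    rw [← ENNReal.ofReal_toReal hvol, ← ENNReal.ofReal_mul (by positivity)]
    refine ENNReal.ofReal_le_ofReal ?_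
    rw [← hV]
    have h1 : 0 < 3 * 7680 * (V + 1) := by positivity
    rw [le_div_iff₀ h1] at b4
    rw [div_mul_eq_mul_div, div_le_div_iff₀ hc1 (by norm_num)]
    nlinarith
  refine ⟨θ0, hθ00, fun θ1 hθ1 => ?_⟩
  obtain ⟨σa, ηa, hσa, hηa, hO⟩ := hO θ0 θ1 hθ00 b6 hθ1
  set σ' : ℝ := min (min 1 σa) (κ * τ / (288 * D * hh)) with hσ'
  have hσ'0 : 0 < σ' := lt_min (lt_min one_pos hσa) (by positivity)
  have hσ'1 : σ' ≤ 1 := (min_le_left _ _).trans (min_le_left _ _)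
  have hσ'2 : σ' ≤ σa := (min_le_left _ _).trans (min_le_right _ _)
  refine ⟨σ', ηa, hσ'0, hηa, ?_, ?_⟩
  · have h1 : σ' ≤ κ * τ / (288 * D * hh) := min_le_right _ _
    rw [le_div_iff₀ (by positivity)] at h1
    linarith
  have hO := hO σ' ηa hσ'0 hσ'2 hηa le_rfl Om La
  intro W K' hWO hWc _ _ _ η w ρ₀ d0 _ _ hd0 hw hw' hη _ _ _ _ _ hosc
  have hCh0 : 0 < C1c κ D nc * hh := mul_pos (by linarith) hhh
  refine ⟨1, 1, d0 / (C1c κ D nc * hh), one_pos, one_pos, div_pos hd0 hCh0, ?_⟩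
  intro s hs hss a₀ Q₀ b L hL hcW hcK _ _ J _ kk Qb k0 hk hkk hb sep hθ1' hθ0' h κi _ x v κf _ xf ef
    Pf κe' κf' x' v' e' xx' Qf' hA a haD ha hG Q hQ _ hP hE
  have hbq : ∀ j, MIn.BQ κ Bs Nn (Qb j) k0 := fun j => MIn.bq_of_blkP (hb j)
  have ha8 : ‖a‖ ≤ c2 * s / 8 := by
    have e1 : (2:ℝ) / 2 ^ k0 = 2 * (1 / 2 ^ k0) := by ring
    rw [e1] at ha
    have h3 : κ * c2 ≤ c2 := by nlinarith
    have h4 : 16 * θ0 ≤ c2 := by linarith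
    have h5 : 16 * θ0 * s ≤ c2 * s := mul_le_mul_of_nonneg_right h4 hs.le
    linarith
  obtain ⟨B, κt, R, u, hShD⟩ := hSH h hbq a ha8
  have hO1 := hO W f G hOm hLa hf hWO hWc ρ₀ s a₀ Q₀ b L hs hL hcW J kk Qb k0 hk hkk hb sep hθ1'
    hθ0' h x v xf ef Pf x' v' e' xx' Qf' hA a haD ha hG Q hQ hP
  have hsm : 4 * κ⁻¹ * Rl / 2 ^ k0 < c2 * s := by
    have h1 : 4 * κ⁻¹ * Rl / 2 ^ k0 = 4 * κ⁻¹ * Rl * (1 / 2 ^ k0) := by ring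
    have h0 : 0 ≤ 4 * κ⁻¹ * Rl := by
      have : 0 ≤ Rl := by linarith
      positivity
    rw [h1]
    calc 4 * κ⁻¹ * Rl * (1 / 2 ^ k0) ≤ 4 * κ⁻¹ * Rl * (θ0 * s) :=
          mul_le_mul_of_nonneg_left hθ0' h0
      _ = (4 * κ⁻¹ * Rl * θ0) * s := by ring
      _ < c2 * s := by
          refine mul_lt_mul_of_pos_right ?_ hs
          have h2 : 0 ≤ dm * θ0 := by positivity
          have h3 : 0 ≤ 4 * κ⁻¹ * Rl * θ0 := mul_nonneg h0 hθ00.le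
          nlinarith
  have hz : ∀ j, ∀ t ∈ zoneT h a Rl j, ∀ x ∈ P ((h.T a).H t), ∀ y ∈ P ((h.T a).H t),
      ‖x - y‖ ≤ dm / 2 ^ k0 := fun j t ht => (hlnk h ha8 j (hbq j) hsm t ht).2
  refine one_fix hp hp2 hOm hOmb hf hWO hWc hκ hκ1 hD hτ hτ4 hhh hc1 hc2 he hσ'0 hs hCer hdm hσ'1
    hC1c (hDC.trans hCτ) (hDC.trans hCc) ?_ le_rfl le_rfl hK1 hRl40 n1 n2 n3 n4 (min_le_left _ _) ?_ n7
    hw hw' hη hosc hL hcW hcK hQ hk hkk hb sep hθ0' h hTC hA ha hG hP hE hShD hz hO1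
  · rw [lt_div_iff₀ hCh0] at hss
    nlinarith
  · have h1 : e₀ ≤ e / (2 * (Cer + 1)) := min_le_right _ _
    have h2 : Cer * e₀ ≤ Cer * (e / (2 * (Cer + 1))) := mul_le_mul_of_nonneg_left h1 hCer
    refine h2.trans ?_
    rw [← mul_div_assoc, div_le_div_iff₀ (by positivity) (by norm_num)]
    nlinarith

end

end Crest.Agent.R096.Onp_622
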