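import Crest.Agent.R096.Asq4_895
import Crest.Agent.R096.Onp5_622

/-!
# Row 96, S0127: `HOpen` (117) and `O1N p`, `1 ≤ p ≤ 2` (622) (helper895, assembly)
-/

set_option autoImplicit false
set_option linter.style.longLine false

namespace Crest.Agent.R096.Asq_895

open MeasureTheory Metric Set Filter Topology
open scoped ENNReal Gradient NNReal
open Crest.AnalysisR.VecCalc3 Crest.AnalysisR.Sobolev

/-- the last input of the side `p ≤ 2`: 622's `O1N` -/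
def O1A : Prop := ∀ p : ℝ, 1 ≤ p → p ≤ 2 → Onp_622.O1N p

theorem one_of_O1 (h : O1A) : ONE := fun p hp h2 => Onp_622.oneP_of hp h2 (h p hp h2)

/-- **S0127 from `HOpen` and `O1N`** -/
theorem s0127_H_O1 (hH : Dtf_117.HOpen) (hO : ∀ p : ℝ, 1 ≤ p → p ≤ 2 → Onp_622.O1N p)
    (Ω Λ : Set R3) (hΩo : IsOpen Ω) (hΩb : Bornology.IsBounded Ω) (hΩc : IsConnected Ω)
    (hΛo : IsOpen Λ) (hΛb : Bornology.IsBounded Λ) (hΛc : IsConnected Λ)
    (p : ℝ) (hp : 1 ≤ p) (f : R3 → R3) (hf : IsHomeomorphOn f Ω Λ)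
    (hfp : MemLp f (ENNReal.ofReal p) (volume.restrict Ω))
    (G : Fin 3 → R3 → R3) (hG : ∀ j : Fin 3, HasWeakGradOn Ω (fun x => f x j) (G j))
    (hGp : ∀ j : Fin 3, MemLp (G j) (ENNReal.ofReal p) (volume.restrict Ω))
    (ε : ℝ≥0∞) (hε : 0 < ε) :
    ∃ g : R3 → R3, IsSmoothDiffeoOn g Ω Λ ∧ MemLp g (ENNReal.ofReal p) (volume.restrict Ω) ∧
      (∀ j : Fin 3, MemLp (fun x => ∇ (fun y => g y j) x) (ENNReal.ofReal p) (volume.restrict Ω)) ∧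
      ∫⁻ x in Ω, (‖g x - f x‖ₑ ^ p + ∑ j : Fin 3, ‖∇ (fun y => g y j) x - G j x‖ₑ ^ p) < ε :=
  s0127_H_one hH (one_of_O1 hO) Ω Λ hΩo hΩb hΩc hΛo hΛb hΛc p hp f hf hfp G hG hGp ε hε

end Crest.Agent.R096.Asq_895
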