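import Crest.Agent.R096.Shp2_432
import Crest.Agent.R096.Msb7_432

/-!
# Row 96 (helper432): the pieces of the 1-cells of a block tiling in `meshS` are not short
-/

set_option autoImplicit false
set_option linter.unusedSectionVars false

open Set Metric Topology Filter

namespace Crest.Agent.R096.Shp_432

open Crest.Agent.R096.Msh_715 Crest.Agent.R096.Mal_874 Crest.Agent.R096.Cut_874
open Crest.Agent.R096.Msh_810 Crest.Agent.R096.Gsm_432 Crest.Agent.R096.Msb_432

universe w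

variable {n : ℕ}

section nbr

variable [NeZero n] {E : Type*} [NormedAddCommGroup E] [NormedSpace ℝ E]
variable {J : Type*} (M : MD E n J) {k : J → ℕ} (hk : M.Sc k) (a : Fin n → ℝ)
  {v : J → E} (hv : M.Adm v)

/-- a tile which touches the core is good at the scale of the core -/
theorem core_nbr_goodS (X : RD M) (RPx : RP X a v k) {j : J} (i : M.IIx hk a hv j)
    (hi : i ≠ M.core hk a hv j)
    (hK : (P ((M.mesh hk a hv).H (Sum.inr ⟨j, i⟩)) ∩ (M.Bk v j).Kc).Nonempty) :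
    Good (meshS M hk a hv) (Sum.inl ⟨Sum.inr ⟨j, i⟩, inr_not_core M hk a hv hi⟩)
      (chi (M.Q j).ψ (M.Bk v j).a' (M.Q j).kc) (M.Q j).kc (NB n (X.B j)) 1 (X.R j) := by
  obtain ⟨x, hx1, hx2⟩ := hK
  rcases M.inner_good hk a hv X RPx i hi with ⟨τ, hτ, -, hd, hg⟩ | ⟨-, hg⟩ | ⟨⟨τ, hτ, hτk⟩, hw, -⟩
  · exact absurd (Kc_sub_bp _ hx2) (Set.disjoint_left.1 hd hx1)
  · refine good_old M hk a hv _ hg fun c hc => ?_
    obtain rfl := inner_same M hk a hv hc
    exact gf_cube one_pos (fr_self _ _ _ (N0_sub_NB (X.B1 _)) 1) le_rfl _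
  · exfalso
    obtain ⟨y, hy1, hy2⟩ := hw
    have hx3 := bp_dist (M.Bk v j) (Kc_sub_bp _ hx2)
    rw [MD.mesh_inr, hτ] at hx1 hy1
    have h1 := dist_cube (((M.Bk v j).tile_T0 (k j) (hk.kc j)).1 hx1)
      (((M.Bk v j).tile_T0 (k j) (hk.kc j)).1 hy1)
    rw [hτk] at h1
    rw [(M.Bk v j).frontier_N] at hy2
    have h2 : infDist ((M.Bk v j).ψ x) (M.Bk v j).W ≤
        infDist ((M.Bk v j).ψ y) (M.Bk v j).W + dist ((M.Bk v j).ψ x) ((M.Bk v j).ψ y) :=
      infDist_le_infDist_add_dist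
    rw [infDist_zero_of_mem (show (M.Bk v j).ψ y ∈ (M.Bk v j).W from hy2), zero_add] at h2
    have h3 : (1 : ℝ) / 2 ^ k j ≤ 1 / 2 ^ (M.Bk v j).kc :=
      one_div_le_one_div_of_le (by positivity)
        (pow_le_pow_right₀ (by norm_num) (hk.kc j))
    have h4 : (0 : ℝ) < 1 / 2 ^ (M.Bk v j).kc := by positivity
    have h5 : (7 : ℝ) / 2 ^ (M.Bk v j).kc = 7 * (1 / 2 ^ (M.Bk v j).kc) := by ring
    rw [h5] at hx3
    linarith

end nbr

/-- a point with one tile only has full dimension -/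
theorem exists_other {E : Type*} [NormedAddCommGroup E] [NormedSpace ℝ E] [FiniteDimensional ℝ E]
    {Om : Set E} {ι : Type*} {T : Tiling Om ι} {x : E} (hx : x ∈ Om)
    (hd : T.dim x < Module.finrank ℝ E) (i : ι) : ∃ l ∈ T.at_ x, l ≠ i := by
  by_contra hcon
  push Not at hcon
  obtain ⟨l, hl⟩ := T.at_nonempty hx
  obtain rfl := hcon l hl
  have h1 : T.at_ x = {l} := by
    ext m
    exact ⟨fun hm => hcon m hm, fun hm => by rw [mem_singleton_iff.1 hm]; exact hl⟩
  obtain ⟨r, hr, hO, hb⟩ := T.exists_ball hx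
  have h2 : ball x r ⊆ P (T.H l) := by
    intro y hy
    obtain ⟨m, hm⟩ := T.cov y (hO hy)
    have h3 : m ∈ T.at_ x := hb y hy hm
    rw [h1, mem_singleton_iff] at h3
    exact h3 ▸ hm
  have h3 : x ∈ interior (P (T.H l)) := mem_interior.2 ⟨_, h2, isOpen_ball, mem_ball_self hr⟩
  rw [I_eq_interior] at h3
  have h4 : T.V x = ⊤ := (T.V_eq_top_iff hx).2 ⟨l, h3⟩
  have h5 : T.dim x = Module.finrank ℝ E := by
    unfold Tiling.dim
    rw [h4, finrank_top]
  omega

/-- **the pieces of a 1-cell of the block tiling, off the wall, are not short**; the constant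
depends only on `n, B0, R0` -/
theorem exists_piece_lb (n : ℕ) [NeZero n] (hn : 2 ≤ n) (B0 : ℕ) (R0 : ℝ) :
    ∃ lam : ℝ, 0 < lam ∧ lam ≤ 1 ∧ ∀ {E : Type} [NormedAddCommGroup E] [NormedSpace ℝ E]
      [FiniteDimensional ℝ E] {J : Type w} (M : MD E n J) {k : J → ℕ} (hk : M.Sc k)
      (a : Fin n → ℝ) {v : J → E} (hv : M.Adm v) (X : RD M), RP X a v k →
      ∀ j, X.B j ≤ B0 → X.R j ≤ R0 → ∀ {x e1 e2 : E},
      ((M.Q j).T (k j) (hk.kc j)).dim x = 1 →
      ((M.Q j).T (k j) (hk.kc j)).cc x = segment ℝ e1 e2 → segment ℝ e1 e2 ⊆ (M.Q j).N →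
      Disjoint (segment ℝ e1 e2) (frontier (M.Q j).N) →
      ∀ {y : E} {s t : ℝ}, 0 ≤ s → s < t → t ≤ 1 → (meshS M hk a hv).dim y = 1 →
        (meshS M hk a hv).cc y = segment ℝ (e1 + v j + s • (e2 - e1)) (e1 + v j + t • (e2 - e1)) →
        lam ≤ t - s := by
  have hLs : ({(NB n B0, 1)} : Set (Finset (Fin n → ℝ) × ℕ)).Finite := finite_singleton _
  have hpos : ∀ p ∈ ({(NB n B0, 1)} : Set (Finset (Fin n → ℝ) × ℕ)), 0 < p.2 := by
    rintro p rfl
    exact one_pos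
  have hrat : ∀ p ∈ ({(NB n B0, 1)} : Set (Finset (Fin n → ℝ) × ℕ)), ∀ ν ∈ p.1, ∀ m,
      ∃ c : ℤ, ν m = c / p.2 := by
    rintro p rfl
    exact NB_rat B0 one_pos
  obtain ⟨μ, hμ, hlen⟩ := len_goods.{0, w} hLs hpos hrat (max 1 R0)
  have hR1 : (0 : ℝ) < max 1 R0 := lt_of_lt_of_le one_pos (le_max_left _ _)
  refine ⟨min 1 (μ / max 1 R0), lt_min one_pos (by positivity), min_le_left _ _,
    fun {E} _ _ _ {J} M {k} hk a {v} hv X RPx j hB hR {x e1 e2} hd hcc hN hW {y s t} hs hst ht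
      hdy hccy => ?_⟩
  have hfin : Module.finrank ℝ E = n := by
    rw [(M.Q j).ψ.toLinearEquiv.finrank_eq, Module.finrank_fin_fun]
  -- the point at rest
  obtain ⟨τ, ⟨hτ0, hτ1⟩, hτ⟩ : ∃ τ ∈ Icc s t, y = e1 + v j + τ • (e2 - e1) := by
    have h1 := (meshS M hk a hv).self_mem_cc y
    rw [hccy, segment_eq_image'] at h1
    obtain ⟨r, ⟨hr0, hr1⟩, hr⟩ := h1
    refine ⟨s + r * (t - s), ⟨by nlinarith, by nlinarith⟩, ?_⟩
    rw [← hr]
    simp only [add_smul, mul_smul, sub_smul]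
    have : e1 + v j + t • (e2 - e1) - (e1 + v j + s • (e2 - e1)) =
        t • (e2 - e1) - s • (e2 - e1) := by abel
    rw [this, smul_sub]
    simp only [smul_sub, smul_smul]
    abel
  set y0 : E := e1 + τ • (e2 - e1) with hy0
  have hyy : y = y0 + v j := by rw [hτ, hy0]; abel
  have hy0s : y0 ∈ segment ℝ e1 e2 := by
    rw [segment_eq_image']
    exact ⟨τ, ⟨hs.trans hτ0, hτ1.trans ht⟩, rfl⟩
  have hy0N := hN hy0s
  set T := (M.Q j).T (k j) (hk.kc j) with hT
  have hOm : ∀ z, z ∈ (M.Q j).ψ ⁻¹' ((M.Q j).D (k j) (hk.kc j)).Om := mem_TsB_Om _ _ _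
  have hy0x : y0 ∈ T.cc x := by rw [hcc]; exact hy0s
  have hdy0 : T.dim y0 = 1 := by
    have h1 := T.dim_le hy0x
    have h2 := meshS_dim_Q M hk a hv hy0N
    rw [← hyy, hdy] at h2
    rw [hd] at h1
    exact le_antisymm h1 h2
  have hoc : y0 ∈ T.oc x := by
    by_contra hcon
    have := T.dim_lt hy0x hcon
    omega
  have hccy0 : T.cc y0 = segment ℝ e1 e2 := by rw [T.cc_eq_of_mem_oc (hOm x) hoc, hcc]
  have hint : y0 ∈ interior (M.Q j).N := by
    by_contra hcon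
    exact Set.disjoint_left.1 hW hy0s ⟨subset_closure hy0N, hcon⟩
  have hint' : y0 + v j ∈ interior (M.Bk v j).N := by
    have h1 : (Homeomorph.addRight (v j)) ⁻¹' (M.Bk v j).N = (M.Q j).N := by
      ext z
      show z + v j ∈ ((M.Q j).tr (v j)).N ↔ _
      rw [CB.mem_N_tr, add_sub_cancel_right]
    have h2 := (Homeomorph.addRight (v j)).preimage_interior (M.Bk v j).N
    rw [h1] at h2
    rw [← h2] at hint
    exact hint
  have he12 : e1 ≠ e2 := by
    rintro rfl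
    rw [segment_same] at hccy0
    have h1 := (T.edge_eq (hOm y0) hdy0)
    obtain ⟨p, q, hpq, h2, -, -, -, h5, h6⟩ := h1
    rw [hccy0, mem_singleton_iff] at h5 h6
    exact hpq (h5.trans h6.symm)
  have hne : e2 - e1 ≠ 0 := sub_ne_zero.2 he12.symm
  by_cases hK : y0 ∈ (M.Q j).Kc
  · -- a tile at the core
    refine (min_le_right _ _).trans ?_
    obtain ⟨l, hl, hlc⟩ := exists_other (T := T) (hOm y0) (by rw [hdy0, hfin]; omega)
      ((M.Q j).cix (k j) (hk.kc j))
    obtain ⟨i', hi', e⟩ := ((M.Q j).rg_tr (v j) (k j) (hk.kc j) y0).1 l hl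
    have hsub : P (((M.Bk v j).T (k j) (hk.kc j)).H i') ⊆ (M.Bk v j).N :=
      ((M.Bk v j).un_N (k j) (hk.kc j)).at_sub hint' hi'
    set i : M.IIx hk a hv j := ⟨i', hsub⟩ with hi
    have hic : i ≠ M.core hk a hv j := by
      intro h
      apply hlc
      refine P_inj (T := T) ?_
      rw [(M.Q j).P_core]
      have h1 : P (((M.Bk v j).T (k j) (hk.kc j)).H i') = (M.Bk v j).Kc := by
        have := M.P_core hk a hv j
        rw [← h] at this
        exact this
      have e' : ((M.Bk v j).T (k j) (hk.kc j)).H i' = trS (v j) (T.H l) := e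
      rw [e'] at h1
      ext z
      rw [← mem_P_trS (b := v j), h1]
      exact mem_Kc_tr' (M.Q j) (v j) z
    have hyP : y ∈ P ((M.mesh hk a hv).H (Sum.inr ⟨j, i⟩)) := by
      rw [hyy]; exact hi'
    have hyK : y ∈ (M.Bk v j).Kc := by
      rw [hyy]; exact (mem_Kc_tr' (M.Q j) (v j) y0).2 hK
    have hg0 := core_nbr_goodS M hk a hv X RPx i hic ⟨y, hyP, hyK⟩
    have hg := good_mono hg0 (NB_mono hB) (hR.trans (le_max_right _ _) : X.R j ≤ max 1 R0)
    have hne' : e1 + v j + s • (e2 - e1) ≠ e1 + v j + t • (e2 - e1) := by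
      intro h
      have h1 : (t - s) • (e2 - e1) = 0 := by
        rw [sub_smul, ← add_left_cancel h, sub_self]
      rcases smul_eq_zero.1 h1 with h2 | h2
      · linarith
      · exact hne h2
    have h1 := hlen (meshS M hk a hv) _ _ (M.Q j).kc (NB n B0, 1) rfl hg y hyP _ _ hccy hne'
    have h2 : e1 + v j + t • (e2 - e1) - (e1 + v j + s • (e2 - e1)) = (t - s) • (e2 - e1) := by
      rw [sub_smul]; abel
    rw [h2, chi_lin, map_smul, norm_smul, Real.norm_of_nonneg (by linarith)] at h1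
    -- the edge lies in the tile
    have hsz : ∀ m, |2 ^ (M.Q j).kc * (M.Q j).ψ (e2 - e1) m| ≤ max 1 R0 := by
      intro m
      have hmem : ∀ z ∈ segment ℝ e1 e2, z + v j ∈ P ((M.mesh hk a hv).H (Sum.inr ⟨j, i⟩)) := by
        intro z hz
        have h3 : z ∈ P (T.H l) := T.cc_sub_tile hl (by rw [hccy0]; exact hz)
        have e' : ((M.Bk v j).T (k j) (hk.kc j)).H i' = trS (v j) (T.H l) := e
        show z + v j ∈ P (((M.Bk v j).T (k j) (hk.kc j)).H i')
        rw [e']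
        exact mem_P_trS.2 h3
      have h3 := hg.sz (e1 + v j) (hmem _ (left_mem_segment _ _ _)) (e2 + v j)
        (hmem _ (right_mem_segment _ _ _)) m
      rw [chi_apply, chi_apply] at h3
      have e3 : 2 ^ (M.Q j).kc * (M.Q j).ψ (e2 - e1) m =
          2 ^ (M.Q j).kc * ((M.Q j).ψ (e2 + v j) m - (M.Bk v j).a' m) -
          2 ^ (M.Q j).kc * ((M.Q j).ψ (e1 + v j) m - (M.Bk v j).a' m) := by
        rw [map_sub, map_add, map_add, Pi.sub_apply, Pi.add_apply, Pi.add_apply]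
        ring
      rw [e3]
      exact h3
    have hnorm : 2 ^ (M.Q j).kc * ‖(M.Q j).ψ (e2 - e1)‖ ≤ max 1 R0 := by
      have hp2 : (0 : ℝ) < 2 ^ (M.Q j).kc := by positivity
      rw [mul_comm, ← le_div_iff₀ hp2, pi_norm_le_iff_of_nonneg (by positivity)]
      intro m
      rw [le_div_iff₀ hp2, Real.norm_eq_abs]
      have h3 := hsz m
      rwa [abs_mul, abs_of_pos hp2, mul_comm] at h3
    rw [div_le_iff₀ hR1]
    calc μ ≤ 2 ^ (M.Q j).kc * ((t - s) * ‖(M.Q j).ψ (e2 - e1)‖) := h1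
      _ = (t - s) * (2 ^ (M.Q j).kc * ‖(M.Q j).ψ (e2 - e1)‖) := by ring
      _ ≤ (t - s) * max 1 R0 := mul_le_mul_of_nonneg_left hnorm (by linarith)
  · -- off the core nothing is cut
    refine (min_le_left _ _).trans ?_
    have hnc : ∀ i ∈ T.at_ y0, i ∉ ({(M.Q j).cix (k j) (hk.kc j)} : Set _) := by
      rintro i hi rfl
      have h1 : y0 ∈ P (((M.Q j).T (k j) (hk.kc j)).H ((M.Q j).cix (k j) (hk.kc j))) := hi
      rw [(M.Q j).P_core] at h1
      exact hK h1
    have h1 : (TsB (M.Q j) (k j) (hk.kc j)).cc y0 = T.cc y0 := (patch_off hnc).1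
    have h2 : ∀ z, z + v j ∈ (meshS M hk a hv).cc (y0 + v j) ↔
        z ∈ (TsB (M.Q j) (k j) (hk.kc j)).cc y0 := fun z => (rgS_in M hk a hv hint').cc
    have h3 : (meshS M hk a hv).cc (y0 + v j) = (fun z => z + v j) '' segment ℝ e1 e2 := by
      ext z
      constructor
      · intro hz
        refine ⟨z - v j, ?_, sub_add_cancel _ _⟩
        rw [← hccy0, ← h1]
        exact (h2 _).1 (by rwa [sub_add_cancel])
      · rintro ⟨z, hz, rfl⟩
        exact (h2 _).2 (by rw [h1, hccy0]; exact hz)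
    rw [seg_tr, ← hyy, hccy] at h3
    rcases seg_eq h3 with ⟨h4, h5⟩ | ⟨h4, h5⟩
    · have h6 : s • (e2 - e1) = 0 := by
        have := h4
        nth_rw 2 [← add_zero (e1 + v j)] at this
        exact add_left_cancel this
      have h7 : s = 0 := (smul_eq_zero.1 h6).resolve_right hne
      have h8 : (t - 1) • (e2 - e1) = 0 := by
        rw [sub_smul, one_smul, add_left_cancel h5, sub_self]
      have h9 : t - 1 = 0 := (smul_eq_zero.1 h8).resolve_right hne
      linarith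
    · have h6 : t • (e2 - e1) = 0 := by
        have := h5
        nth_rw 2 [← add_zero (e1 + v j)] at this
        exact add_left_cancel this
      have h7 : t = 0 := (smul_eq_zero.1 h6).resolve_right hne
      linarith

/-- **(ED) with the number and the lengths of the pieces**, off the wall; the constant depends only
on `n, B0, R0` -/
theorem exists_ed_chain (n : ℕ) [NeZero n] (hn : 2 ≤ n) (B0 : ℕ) (R0 : ℝ) :
    ∃ lam : ℝ, 0 < lam ∧ lam ≤ 1 ∧ ∀ {E : Type} [NormedAddCommGroup E] [NormedSpace ℝ E]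
      [FiniteDimensional ℝ E] {J : Type w} (M : MD E n J) {k : J → ℕ} (hk : M.Sc k)
      (a : Fin n → ℝ) {v : J → E} (hv : M.Adm v) (X : RD M), RP X a v k →
      ∀ j, X.B j ≤ B0 → X.R j ≤ R0 → ∀ {x e1 e2 : E},
      ((M.Q j).T (k j) (hk.kc j)).dim x = 1 →
      ((M.Q j).T (k j) (hk.kc j)).cc x = segment ℝ e1 e2 → segment ℝ e1 e2 ⊆ (M.Q j).N →
      Disjoint (segment ℝ e1 e2) (frontier (M.Q j).N) →
      ∃ (m : ℕ) (t : ℕ → ℝ), 0 < m ∧ m * lam ≤ 1 ∧ t 0 = 0 ∧ t m = 1 ∧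
        (∀ i < m, t i + lam ≤ t (i + 1)) ∧
        (∀ i, i ≤ m → 0 ≤ t i ∧ t i ≤ 1 ∧
          (meshS M hk a hv).dim (e1 + v j + t i • (e2 - e1)) = 0) ∧
        (∀ i < m, ∃ y ∈ M.φ ⁻¹' M.D0.Om, (meshS M hk a hv).dim y = 1 ∧
          (meshS M hk a hv).cc y = segment ℝ (e1 + v j + t i • (e2 - e1))
            (e1 + v j + t (i + 1) • (e2 - e1))) ∧
        ∀ y ∈ ((M.Q j).T (k j) (hk.kc j)).cc x, (meshS M hk a hv).dim (y + v j) = 1 →
          ∃ i < m, (meshS M hk a hv).cc (y + v j) = segment ℝ (e1 + v j + t i • (e2 - e1))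
            (e1 + v j + t (i + 1) • (e2 - e1)) := by
  obtain ⟨lam, hlam, hlam1, h⟩ := exists_piece_lb.{w} n hn B0 R0
  refine ⟨lam, hlam, hlam1, fun {E} _ _ _ {J} M {k} hk a {v} hv X RPx j hB hR {x e1 e2} hd hcc hN
    hW => ?_⟩
  obtain ⟨m, t, h1, h2, h3, h4, h5, h6, h7⟩ := ed_chain M hk a hv hd hcc hN
  have hstep : ∀ i < m, t i + lam ≤ t (i + 1) := by
    intro i hi
    obtain ⟨y, -, hdy, hcy⟩ := h6 i hi
    have h8 := h M hk a hv X RPx j hB hR hd hcc hN hW (h5 i hi.le).1 (h4 i hi) (h5 (i + 1) hi).2.1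
      hdy hcy
    linarith
  have hsum : ∀ i ≤ m, i * lam ≤ t i := by
    intro i
    induction i with
    | zero => intro _; simp [h2]
    | succ i ih =>
      intro hi
      have h8 := ih (by omega)
      have h9 := hstep i (by omega)
      push_cast
      linarith
  exact ⟨m, t, h1, by simpa [h3] using hsum m le_rfl, h2, h3, hstep, h5, h6, h7⟩

end Crest.Agent.R096.Shp_432
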