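import Crest.Agent.R096.Ca16_855
import Crest.Agent.R096.Shp3_432

/-!
# Row 96 (helper432), [C4] of helper622's list: pieces of the edges of a block in the mesh `h.T a`
(helper855's mesh), tiles inside a block
-/

set_option autoImplicit false
set_option linter.unusedSectionVars false

open Set Metric MeasureTheory Filter
open scoped ENNReal Topology

namespace Crest.Agent.R096.Shp_432

open Crest.AnalysisR.VecCalc3 Crest.AnalysisR.Sobolev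
open Crest.Agent.R096.Msh_715
open Crest.Agent.R096.Mal_874 (MD CB RD RP reOm chi shpT NB trz)
open Crest.Agent.R096.Msb_432 (meshS Scl CIx)
open Crest.Agent.R096.Pin_753 (BlkP Ed)
open Crest.Agent.R096.Ttr_565 (mem_Ed_tr)
open Crest.Agent.R096.Ca_855
open Crest.Agent.R096.Ca_855.MIn (BQ)

/-- the wall of a translated block -/
theorem frontier_tr {Q : CB R3 3} {a : R3} {e : R3 × R3}
    (h : Disjoint (segment ℝ e.1 e.2) (frontier (Q.tr a).N)) :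
    Disjoint (segment ℝ (e.1 - a) (e.2 - a)) (frontier Q.N) := by
  rw [Set.disjoint_left] at h ⊢
  intro z hz hzf
  have h1 : z + a ∈ segment ℝ e.1 e.2 := by
    rw [segment_eq_image'] at hz ⊢
    obtain ⟨τ, hτ, rfl⟩ := hz
    refine ⟨τ, hτ, ?_⟩
    simp only
    rw [sub_sub_sub_cancel_right]
    abel
  refine h h1 ?_
  rw [CB.frontier_N_tr, add_sub_cancel_right]
  exact hzf

/-- **[C4] pieces**: an element `e` of `Ed` of a block at the position `a` which does not touch the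
wall is a chain of at most `1 / lam` edges of `h.T a`, each of length at least `lam ‖e‖`; `lam`
depends only on `Bs` -/
theorem exists_chain_T (Bs : ℕ) : ∃ lam : ℝ, 0 < lam ∧ lam ≤ 1 ∧
    ∀ {κ : ℝ}, 0 < κ → κ ≤ 1 → ∀ {Om W : Set R3} {ρ₀ : R3 → ℝ} {J : Type} [Finite J]
      {Qb : J → CB R3 3} {k0 Nn : ℕ} {σ : ℝ} (h : MIn Om W ρ₀ Qb k0 σ),
      (∀ j, BQ κ Bs Nn (Qb j) k0) → ∀ {a : R3}, ‖a‖ ≤ σ / 8 → ∀ (j : J) {e : R3 × R3},
      e ∈ Ed ((Qb j).tr a) k0 (h.hk j) →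
      Disjoint (segment ℝ e.1 e.2) (frontier ((Qb j).tr a).N) →
      ∃ (m : ℕ) (t : ℕ → ℝ), 0 < m ∧ m * lam ≤ 1 ∧ t 0 = 0 ∧ t m = 1 ∧
        (∀ i < m, t i + lam ≤ t (i + 1)) ∧
        (∀ i, i ≤ m → 0 ≤ t i ∧ t i ≤ 1 ∧ (h.T a).dim (e.1 + t i • (e.2 - e.1)) = 0) ∧
        (∀ i < m, ∃ y ∈ Om, (h.T a).dim y = 1 ∧
          (h.T a).cc y = segment ℝ (e.1 + t i • (e.2 - e.1)) (e.1 + t (i + 1) • (e.2 - e.1))) ∧
        ∀ y ∈ segment ℝ e.1 e.2, (h.T a).dim y = 1 →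
          ∃ i < m, (h.T a).cc y =
            segment ℝ (e.1 + t i • (e.2 - e.1)) (e.1 + t (i + 1) • (e.2 - e.1)) := by
  obtain ⟨lam, hlam, hlam1, H⟩ := exists_ed_chain.{0} 3 (by norm_num) (max 1 Bs) (max 1 (Bs:ℝ))
  refine ⟨lam, hlam, hlam1, ?_⟩
  intro κ hκ hκ1 Om W ρ₀ J _ Qb k0 Nn σ h hb a ha j e he hW
  rw [mem_Ed_tr] at he
  obtain ⟨x, hx1, hx2, hx3⟩ := he
  obtain ⟨m, t, h1, h2, h3, h4, h5, h6, h7, h8⟩ :=
    H h.M h.sc (0 + h.M.φ (h.cl a)) (h.adm a) (h.X hκ hκ1 hb) (h.rp hκ hκ1 hb a) j le_rfl le_rfl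
      hx1 hx2 hx3 (frontier_tr hW)
  have e0 := h.cl_eq ha
  have e1 : e.1 - a + h.cl a = e.1 := by rw [e0, sub_add_cancel]
  have e2 : e.2 - a - (e.1 - a) = e.2 - e.1 := by abel
  simp only [e1, e2] at h6 h7 h8
  refine ⟨m, t, h1, h2, h3, h4, h5, fun i hi => ?_, fun i hi => ?_, fun y hy hy1 => ?_⟩
  · obtain ⟨h9, h10, h11⟩ := h6 i hi
    exact ⟨h9, h10, (h.T_dim a _).trans h11⟩
  · obtain ⟨y, h9, h10, h11⟩ := h7 i hi
    exact ⟨y, h.mem_dom.1 h9, (h.T_dim a _).trans h10, (h.T_cc a _).trans h11⟩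
  · have h9 : y - a ∈ segment ℝ (e.1 - a) (e.2 - a) := by
      rw [segment_eq_image'] at hy ⊢
      obtain ⟨τ, hτ, rfl⟩ := hy
      refine ⟨τ, hτ, ?_⟩
      simp only
      rw [sub_sub_sub_cancel_right]
      abel
    have h10 : y - a ∈ ((h.M.Q j).T k0 (h.hk j)).cc x := by
      rw [← hx2] at h9
      exact h9
    have h11 : y - a + h.cl a = y := by rw [e0, sub_add_cancel]
    obtain ⟨i, hi, h12⟩ := h8 (y - a) h10 (by rw [h11]; exact (h.T_dim a y).symm.trans hy1)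
    rw [h11] at h12
    exact ⟨i, hi, (h.T_cc a _).trans h12⟩

/-- **[C4] tiles of `h.T a` inside a block, off the wall**: scale, size, shapes of the cells and
lengths of the edges, in the frame of the block; `μ` depends only on `Bs` -/
theorem exists_len_T (Bs : ℕ) : ∃ μ : ℝ, 0 < μ ∧
    ∀ {κ : ℝ}, 0 < κ → κ ≤ 1 → ∀ {Om W : Set R3} {ρ₀ : R3 → ℝ} {J : Type} [Finite J]
      {Qb : J → CB R3 3} {k0 Nn : ℕ} {σ : ℝ} (h : MIn Om W ρ₀ Qb k0 σ),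
      (∀ j, BQ κ Bs Nn (Qb j) k0) → ∀ {a : R3}, ‖a‖ ≤ σ / 8 → ∀ (j : J) (t : h.ιT a),
      P ((h.T a).H t) ⊆ ((Qb j).tr a).N → Disjoint (P ((h.T a).H t)) (frontier ((Qb j).tr a).N) →
      ∃ κ', (Qb j).kc ≤ κ' ∧ κ' ≤ k0 + 1 ∧
        (∃ z : Fin 3 → ℤ, ∀ x ∈ P ((h.T a).H t),
          ((chi (Qb j).ψ ((Qb j).tr a).a' κ').trans (trz z)) '' (h.T a).cc x ∈
            shpT (NB 3 (max 1 Bs)) 1 (max 2 (Bs:ℝ))) ∧
        (∀ x ∈ P ((h.T a).H t), ∀ y ∈ P ((h.T a).H t),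
          ‖(Qb j).ψ (y - x)‖ ≤ max 2 (Bs:ℝ) / 2 ^ κ') ∧
        ∀ x ∈ P ((h.T a).H t), ∀ e1 e2, (h.T a).cc x = segment ℝ e1 e2 → e1 ≠ e2 →
          μ / 2 ^ κ' ≤ ‖(Qb j).ψ (e2 - e1)‖ := by
  obtain ⟨μ, hμ, H⟩ := exists_len_in.{0} 3 (max 1 Bs) (max 1 (Bs:ℝ))
  refine ⟨μ, hμ, ?_⟩
  intro κ hκ hκ1 Om W ρ₀ J _ Qb k0 Nn σ h hb a ha j t hN hW
  have e0 := h.cl_eq ha
  have eN : h.M.Bk (fun _ => h.cl a) j = (Qb j).tr a := by
    show (Qb j).tr (h.cl a) = (Qb j).tr a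
    rw [e0]
  obtain ⟨κ', h1, h2, ⟨z, h3⟩, h4, h5⟩ :=
    H h.M h.sc (0 + h.M.φ (h.cl a)) (h.adm a) (h.X hκ hκ1 hb) (h.rp hκ hκ1 hb a) j le_rfl le_rfl
      t (by rw [eN]; exact hN) (by rw [eN]; exact hW)
  have em : max 2 (max 1 (Bs:ℝ)) = max 2 (Bs:ℝ) := by
    rw [← max_assoc]
    norm_num
  rw [em] at h3 h4
  refine ⟨κ', h1, h2, ⟨z, fun x hx => ?_⟩, h4, fun x hx e1 e2 he hne => ?_⟩
  · have h6 := h3 x hx
    rw [eN] at h6
    rw [h.T_cc a x]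
    exact h6
  · exact h5 x hx e1 e2 ((h.T_cc a x).symm.trans he) hne

/-- the tiles of `meshS` at an interior point of a block are in the block -/
theorem meshS_at_sub {n : ℕ} {E : Type*} [NormedAddCommGroup E] [NormedSpace ℝ E] [NeZero n]
    {J : Type*} (M : MD E n J) {k : J → ℕ} (hk : M.Sc k) (a : Fin n → ℝ) {v : J → E}
    (hv : M.Adm v) {j : J} {x : E} (hx : x ∈ interior (M.Bk v j).N)
    {t : {t // t ∉ Crest.Agent.R096.Msb_432.cores M hk a hv} ⊕ CIx M}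
    (ht : t ∈ (meshS M hk a hv).at_ x) :
    P ((meshS M hk a hv).H t) ⊆ (M.Bk v j).N := by
  rcases t with ⟨t, h0⟩ | ⟨l, z⟩
  · obtain ⟨i, rfl, hi⟩ := (M.at_in hk a hv hx).1 ht
    exact i.2
  · have h1 : x ∈ (M.Bk v l).Kc :=
      Crest.Agent.R096.Msb_432.cubH_sub (M := M) (v := v) ⟨l, z⟩ ht
    obtain rfl : l = j := by
      by_contra hne
      exact Set.disjoint_left.1 (Crest.Agent.R096.Msb_432.N_disj hk a hv hne)
        (Crest.Agent.R096.Msb_432.Kc_sub_N _ h1) (interior_subset hx)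
    exact (Crest.Agent.R096.Msb_432.cubH_sub (M := M) (v := v) ⟨l, z⟩).trans
      (Crest.Agent.R096.Msb_432.Kc_sub_N _)

/-- the tiles of `h.T a` at an interior point of a block are in the block -/
theorem T_at_sub {Om W : Set R3} {ρ₀ : R3 → ℝ} {J : Type} [Finite J] {Qb : J → CB R3 3} {k0 : ℕ}
    {σ : ℝ} (h : MIn Om W ρ₀ Qb k0 σ) {a : R3} (ha : ‖a‖ ≤ σ / 8) {j : J} {x : R3}
    (hx : x ∈ interior ((Qb j).tr a).N) {t : h.ιT a} (ht : t ∈ (h.T a).at_ x) :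
    P ((h.T a).H t) ⊆ ((Qb j).tr a).N := by
  have e0 := h.cl_eq ha
  have eN : h.M.Bk (fun _ => h.cl a) j = (Qb j).tr a := by
    show (Qb j).tr (h.cl a) = (Qb j).tr a
    rw [e0]
  rw [← eN] at hx ⊢
  exact meshS_at_sub h.M h.sc (0 + h.M.φ (h.cl a)) (h.adm a) hx ht

/-- the tiles at a point of an edge of a block which does not touch the wall are in the block -/
theorem T_at_sub_ed {Om W : Set R3} {ρ₀ : R3 → ℝ} {J : Type} [Finite J] {Qb : J → CB R3 3}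
    {k0 : ℕ} {σ : ℝ} (h : MIn Om W ρ₀ Qb k0 σ) {a : R3} (ha : ‖a‖ ≤ σ / 8) {j : J} {e : R3 × R3}
    (he : e ∈ Ed ((Qb j).tr a) k0 (h.hk j))
    (hW : Disjoint (segment ℝ e.1 e.2) (frontier ((Qb j).tr a).N)) {x : R3}
    (hx : x ∈ segment ℝ e.1 e.2) {t : h.ιT a} (ht : t ∈ (h.T a).at_ x) :
    P ((h.T a).H t) ⊆ ((Qb j).tr a).N := by
  refine T_at_sub h ha ?_ ht
  obtain ⟨y, hy1, hy2, hy3⟩ := he
  by_contra hcon
  exact Set.disjoint_left.1 hW hx ⟨subset_closure (hy3 hx), hcon⟩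

end Crest.Agent.R096.Shp_432
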