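import Crest.Agent.R096.Gam2_968
import Crest.Agent.R096.Gsc3_476
import Crest.Agent.R096.Shp4_432
import Crest.Agent.R096.Ttr1_565

/-!
Row 96 (S0127), helper968, leaf [C6], part 2: the geometric inputs of `gam_perf'` for helper855's
mesh `h.T a` and the block `(Qb j).tr a`: the tiles near the core.
-/

set_option autoImplicit false
set_option linter.unusedSectionVars false

open Set Metric Filter Topology MeasureTheory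

namespace Crest.Agent.R096.Gam_968

open Crest.AnalysisR.VecCalc3
open Crest.Agent.R096.Msh_715 (P I Tiling I_sub_P)
open Crest.Agent.R096.Mal_874
open Crest.Agent.R096.Msh_810 (K)
open Crest.Agent.R096.Msb_432 (meshS Kc_sub_bp Kc_sub_N)
open Crest.Agent.R096.Gsc_476
open Crest.Agent.R096.Shp_432 (T_at_sub)
open Crest.Agent.R096.Ca_855
open Crest.Agent.R096.Ca_855.MIn (BQ)
open Crest.Agent.R096.Sq_55 (E3 Sys Face Cell FaceOf w2 toR toR_apply GG)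
open Crest.Agent.R096.Sk2_855 (sk1 Mv)
open Crest.Agent.R096.Efi_296
open Crest.Agent.R096.Cbs_296
open Crest.Agent.R096.Pin_753
open Crest.Agent.R96.Coarse_538 (seg Cb PerfG mem_cel)
open Crest.Agent.R96.Intr_538 (cel)
open Crest.Agent.R96.Gdt_538 (MeshG)
open scoped ENNReal NNReal

section cb

variable {n : ℕ} [NeZero n] {E : Type*} [NormedAddCommGroup E] [NormedSpace ℝ E] (Q : CB E n)

lemma near_one {y y' : E} (hy : y ∈ Q.Kc) (h : ‖Q.ψ y' - Q.ψ y‖ ≤ 1 / 2 ^ Q.kc) :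
    Q.near 1 y' := by
  have h0 := Q.near_of_bp (Kc_sub_bp _ hy)
  have hp : (0:ℝ) < 2 ^ Q.kc := by positivity
  intro l
  have h1 := ps_dist (a := Q.a') (k := Q.kc) (x := Q.ψ y') (y := Q.ψ y) l
  rw [dist_eq_norm] at h1
  have h2 : (2:ℝ) ^ Q.kc * ‖Q.ψ y' - Q.ψ y‖ ≤ 1 := by
    rw [le_div_iff₀ hp] at h
    linarith
  have h3 := abs_le.1 (h1.trans h2)
  have h4 := h0 l
  constructor <;> linarith [h3.1, h3.2, h4.1, h4.2]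

lemma near_int {y : E} (hy : Q.near 1 y) : y ∈ interior Q.N := by
  have hN : y ∈ Q.N := by
    rw [Q.mem_N]
    intro l
    have h := hy l
    have hw := Q.w_real
    constructor <;> linarith [h.1, h.2]
  by_contra hcon
  exact not_near_wall Q hy ⟨subset_closure hN, hcon⟩

lemma Gc_sub_Kc {Q : CB R3 3} {k0 : ℕ} {hk : Q.kc ≤ k0} {y : R3} (hy : y ∈ Gc Q k0 hk) :
    y ∈ Q.Kc := by
  obtain ⟨x, hx, -, hy⟩ := hy
  rw [← Q.P_core k0 hk] at hx ⊢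
  exact (Q.T k0 hk).cc_sub_tile hx hy

end cb

/-- `g` is close to the affine map in the `u`-neighbourhood of the closed 1-cells at the core -/
def NearG (Q : CB R3 3) (k0 : ℕ) (hk : Q.kc ≤ k0) (u A : ℝ) (b : R3) (L : R3 →L[ℝ] R3) (z : R3)
    (g : R3 → R3) : Prop :=
  ∀ y0 ∈ Gc Q k0 hk, ∀ y : R3, ‖w2.symm y - w2.symm y0‖ ≤ u → ‖g y - Bk b L z y‖ ≤ A

/-- **the clause `gam` of `Pin_753.InP`** -/
theorem NearG.gam {Q : CB R3 3} {k0 : ℕ} {hk : Q.kc ≤ k0} {u A : ℝ} {b : R3} {L : R3 →L[ℝ] R3}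
    {z : R3} {g : R3 → R3} (hg : NearG Q k0 hk u A b L z g) {κ : ℝ} (hκ : 0 < κ)
    (hc : ∀ v, κ / 4 * ‖v‖ ≤ ‖Q.ψ v‖) (hu : 4 * κ⁻¹ / (5 * 2 ^ k0) ≤ u) {Rr : R3 → R3} {σr : ℝ}
    (hR : ∀ y, ‖Rr y - y‖ ≤ 3 * σr) {B : ℝ} (hB : 3 * σr + A ≤ B) :
    ∀ x ∈ Q.Kc, (Q.T k0 hk).dim x = 1 → ∀ y ∈ (Q.T k0 hk).cc x, ∀ w ∈ Tw Q k0,
      ‖Rr (g (y + w)) - Bk b L z (y + w)‖ ≤ B := by
  intro x hx hd y hy w hw
  have h1 := hg y ⟨x, hx, hd, hy⟩ (y + w) (by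
    rw [w2s_add, add_sub_cancel_left]
    exact (w2s_norm w).trans ((norm_Tw hκ hc hw).trans hu))
  calc ‖Rr (g (y + w)) - Bk b L z (y + w)‖
      = ‖(Rr (g (y + w)) - g (y + w)) + (g (y + w) - Bk b L z (y + w))‖ := by congr 1; abel
    _ ≤ 3 * σr + A := (norm_add_le _ _).trans (add_le_add (hR _) h1)
    _ ≤ B := hB

/-- the points of the segment of an M-edge in the core are in `Gc` -/
lemma seg_Gc {Q : CB R3 3} {k0 : ℕ} {hk : Q.kc ≤ k0} {e : R3 × R3} (he : e ∈ Ed Q k0 hk)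
    (hK : segment ℝ e.1 e.2 ⊆ Q.Kc) {y : R3} (hy : y ∈ segment ℝ e.1 e.2) : y ∈ Gc Q k0 hk := by
  obtain ⟨x, hd, hx, -⟩ := he
  refine ⟨x, hK ?_, hd, ?_⟩
  · rw [← hx]
    exact (Q.T k0 hk).self_mem_cc x
  · rw [hx]
    exact hy

/-- **the image of the tube of an edge of the core** is in the parallelepiped -/
theorem NearG.par {Q : CB R3 3} {k0 : ℕ} {hk : Q.kc ≤ k0} {u A : ℝ} {b : R3} {L : R3 →L[ℝ] R3}
    {z : R3} {g : R3 → R3} (hg : NearG Q k0 hk u A b L z g) (hu : 0 ≤ u) {r : ℝ} (hr : 0 < r)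
    {q : ℝ} (hq : A < q) {e : R3 × R3} (he : e ∈ Ed Q k0 hk) (hK : segment ℝ e.1 e.2 ⊆ Q.Kc)
    (hN : ∀ y ∈ Q.Kc, ∀ i, |y i - z i| + u ≤ r) {z' : E3}
    (hz : z' ∈ cthickening u (w2.symm '' segment ℝ e.1 e.2)) :
    g (w2 z') ∈ thickening q (Crest.Agent.R96.Intr_538.par Cb L b r) := by
  have hcp : IsCompact (w2.symm '' segment ℝ e.1 e.2) := by
    refine IsCompact.image ?_ w2.symm.continuous
    rw [segment_eq_image']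
    exact isCompact_Icc.image (by fun_prop)
  rw [hcp.cthickening_eq_biUnion_closedBall hu] at hz
  simp only [mem_iUnion, exists_prop] at hz
  obtain ⟨_, ⟨y0, hy0, rfl⟩, hz⟩ := hz
  rw [mem_closedBall, dist_eq_norm] at hz
  have h1 := hg y0 (seg_Gc he hK hy0) (w2 z') (by rwa [w2.symm_apply_apply])
  rw [mem_thickening_iff]
  refine ⟨Bk b L z (w2 z'), ?_, ?_⟩
  · have h2 : w2 z' ∈ cel Cb z r := by
      rw [mem_cel hr]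
      intro i
      have h3 : |w2 z' i - y0 i| ≤ u := (norm_le_pi_norm (z' - w2.symm y0) i).trans hz
      have h4 := hN y0 (hK hy0) i
      calc |w2 z' i - z i| = |(w2 z' i - y0 i) + (y0 i - z i)| := by congr 1; ring
        _ ≤ |w2 z' i - y0 i| + |y0 i - z i| := abs_add_le _ _
        _ ≤ r := by linarith
    obtain ⟨v, hv, hvz⟩ := h2
    refine ⟨v, hv, ?_⟩
    show b + r • L v = b + L (w2 z' - z)
    rw [← hvz]
    simp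
  · rw [dist_eq_norm]
    exact h1.trans_lt hq

section T

variable {Om W : Set R3} {ρ₀ : R3 → ℝ} {J : Type} {Qb : J → CB R3 3} {k0 : ℕ} {σ : ℝ}
  [Finite J] (h : MIn Om W ρ₀ Qb k0 σ) {a : R3}

/-- **the tiles near the core** lie in the block and have the scale of the core -/
theorem core_tile (ha : ‖a‖ ≤ σ / 8) {j : J} {y y' : R3} (hy : y ∈ ((Qb j).tr a).Kc)
    (hyy : ‖(Qb j).ψ y' - (Qb j).ψ y‖ ≤ 1 / 2 ^ (Qb j).kc) {t : h.ιT a}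
    (ht : y' ∈ P ((h.T a).H t)) :
    P ((h.T a).H t) ⊆ ((Qb j).tr a).N ∧ sclT h a t = (Qb j).kc := by
  have h1 : ((Qb j).tr a).near 1 y' := near_one _ hy hyy
  have hN : P ((h.T a).H t) ⊆ ((Qb j).tr a).N := T_at_sub h ha (near_int _ h1) ht
  refine ⟨hN, le_antisymm ?_ (sclT_mem h ha hN).1⟩
  have hN' := hN
  rw [← Bk_eq h ha j] at hN'
  have h2 := (scl_K h.M h.sc (0 + h.M.φ (h.cl a)) (h.adm a) hN' ht).1
  have h3 : (h.M.Bk (fun _ => h.cl a) j).near 1 y' := by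
    rw [Bk_eq h ha j]; exact h1
  have h4 := ((h.M.Bk (fun _ => h.cl a) j).near_K k0 (h.hk j) h3).self_of_nhds
  exact h2.trans (le_of_eq h4)

/-- the closed M-edges are in the 1-skeleton -/
theorem Gc_sk1 (ha : ‖a‖ ≤ σ / 8) {j : J} {y : R3} (hy : y ∈ Gc ((Qb j).tr a) k0 (h.hk j)) :
    y ∈ sk1 (h.T a) := by
  have hK := Gc_sub_Kc hy
  obtain ⟨x, hx, hd, hyx⟩ := hy
  have e0 := h.cl_eq ha
  rw [Crest.Agent.R096.Ttr_565.dim_tr'] at hd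
  rw [Crest.Agent.R096.Ttr_565.mem_cc_tr'] at hyx
  have hN : y - a ∈ (Qb j).N := by
    rw [← CB.mem_N_tr]
    exact Kc_sub_N _ hK
  obtain ⟨h1, h2⟩ := Crest.Agent.R096.Msb_432.ed_dim h.M h.sc (0 + h.M.φ (h.cl a)) (h.adm a)
    (j := j) (x := x - a) (y := y - a) hd.le hyx hN
  have e1 : y - a + h.cl a = y := by rw [e0, sub_add_cancel]
  rw [e1] at h1 h2
  exact ⟨h.mem_dom.1 h1, (h.T_dim a y).le.trans h2⟩

include h in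
/-- the block lies in the domain -/
lemma N_sub_Om (ha : ‖a‖ ≤ σ / 8) (j : J) : ((Qb j).tr a).N ⊆ Om := by
  intro y hy
  have h1 : y - a ∈ (Qb j).N := by
    rw [CB.N_tr] at hy
    exact hy
  have h2 := h.hW _ (h.hN j h1)
  have h3 := h.lip (y - a) y
  rw [sub_sub_cancel_left, norm_neg] at h3
  have h0 := h.σ0
  exact (h.pos y).1 (by linarith)

/-- the sup norm and the Euclidean norm -/
lemma norm_two {x y : R3} {c : ℝ} (hc : 0 ≤ c) (h : ∀ i, |x i - y i| ≤ c) : ‖x - y‖ ≤ 2 * c := by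
  have h1 := Crest.Agent.R096.Cob_622.w2_lip (w2.symm x) (w2.symm y)
  rw [w2.apply_symm_apply, w2.apply_symm_apply] at h1
  refine h1.trans ?_
  have h2 : ‖w2.symm x - w2.symm y‖ ≤ c := (pi_norm_le_iff_of_nonneg hc).2 fun i => h i
  linarith

lemma psi_near {κ : ℝ} {Q : CB R3 3} (hψ : ∀ v, ‖Q.ψ v‖ ≤ 4 * κ⁻¹ * ‖v‖) (hκ : 0 < κ) {m₀ u : ℝ}
    (hu : 0 ≤ u) (hku : 416 * κ⁻¹ * m₀^4 * u ≤ 1 / 2 ^ Q.kc) {y y' : R3}
    (h : ∀ i, |y' i - y i| ≤ 52 * m₀^4 * u) : ‖Q.ψ y' - Q.ψ y‖ ≤ 1 / 2 ^ Q.kc := by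
  rw [← map_sub]
  refine (hψ _).trans (le_trans ?_ hku)
  have h1 := norm_two (by positivity) h
  calc 4 * κ⁻¹ * ‖y' - y‖ ≤ 4 * κ⁻¹ * (2 * (52 * m₀^4 * u)) := by gcongr
    _ = _ := by ring

/-- **closeness to the affine map near the edges of the core**, in the mesh `h.T a` -/
theorem gam_T0 (ha : ‖a‖ ≤ σ / 8) {κ : ℝ} {Bs Nn : ℕ} (hκ : 0 < κ) (hκ1 : κ ≤ 1) {j : J}
    (hb : BQ κ Bs Nn (Qb j) k0) {s : Finset (h.ιT a)} {pr : (Te (h.T a)).Cell → Prop}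
    {c : h.ιT a → E3} {R : h.ιT a → ℝ≥0} {ρ : E3 → ℝ≥0} {m : h.ιT a → ℝ≥0}
    {X : Sys s (reps (Te (h.T a)) s pr)} (hX : SysOf (Te (h.T a)) s pr c R ρ m X)
    (hρ : ∀ x ∈ reps (Te (h.T a)) s pr, ∀ k ∈ (Te (h.T a)).at_ x, k ∈ s → R k ≤ m k * ρ x)
    {f : R3 → R3} (hf : ContinuousOn f Om) {Φ : R3 ≃ₜ R3} (hΦ : Mv (h.T a) Φ)
    {κe : Type*} {x v : κe → R3} {a1 : R3} {p τ₁ σ₀ η t sz : ℝ} {D : R3 → R3 →L[ℝ] R3}
    {b z : R3} {L : R3 →L[ℝ] R3} (hσ0 : 0 < σ₀) (hσ1 : σ₀ < 1) (hsz : 0 < sz)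
    (hP : PerfG x v p Om f D κ τ₁ σ₀ η t sz a1 z b L)
    (hnear : ∀ y ∈ T1s (h.T a) s, w2 y ∈ cel Cb z ((1 - σ₀) * sz) →
      ‖f (w2 y) - (b + L (w2 y - z))‖ ≤ η * t)
    (hs : ∀ k, P ((h.T a).H k) ⊆ ((Qb j).tr a).N → k ∈ s)
    (hpr : ∀ c : (Te (h.T a)).Cell, c.dim = 2 → (∀ k ∈ (Te (h.T a)).at_ c.pt,
      P ((h.T a).H k) ⊆ ((Qb j).tr a).N ∧ sclT h a k = (Qb j).kc) → pr c)
    {m₀ : ℝ} (hm₀ : 1 ≤ m₀)
    (hm : ∀ k, P ((h.T a).H k) ⊆ ((Qb j).tr a).N → sclT h a k = (Qb j).kc →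
      (m k : ℝ) ≤ m₀ ∧ 1 / 2 ^ ((Qb j).kc + 1) ≤ (R k : ℝ))
    {τ : ℝ} (hsub : (Qb j).N ⊆ cel Cb z ((1 - τ) * sz)) (hτ1 : τ < 1) {u : ℝ} (hu : 0 < u)
    (hku : 416 * κ⁻¹ * m₀^4 * u ≤ 1 / 2 ^ (Qb j).kc)
    (hau : ‖a‖ + 52 * m₀^4 * u ≤ (τ - σ₀) * sz) {e : ℝ} (he : 0 < e) :
    ∃ δ₀ : ℝ, 0 < δ₀ ∧ ∀ (p δ : ℝ) (hA : X.Adm p δ), δ < δ₀ → ∀ N₁ N₂ : ℕ,
      ∀ y0 ∈ Gc ((Qb j).tr a) k0 (h.hk j), ∀ x, ‖x - w2.symm y0‖ ≤ u →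
      ‖f (Φ (w2 (Sys.chi hA (N₁+1) (N₂+1) x))) - (b + L (w2 x - z))‖ ≤
        η * t + 100 * κ⁻¹ * m₀^4 * u + e := by
  have hr : 0 < (1 - σ₀) * sz := mul_pos (by linarith) hsz
  have hm4 : (1:ℝ) ≤ m₀^4 := one_le_pow₀ hm₀
  have hψ : ∀ v, ‖(Qb j).ψ v‖ ≤ 4 * κ⁻¹ * ‖v‖ := fun v => (hb.cnd v).2
  have hκi : 1 ≤ κ⁻¹ := (one_le_inv₀ hκ).2 hκ1
  have hp : (0:ℝ) < 2 ^ (Qb j).kc := by positivity
  have sup : ∀ x y : E3, ∀ r : ℝ, ‖x - y‖ ≤ r → ∀ i, |x i - y i| ≤ r := by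
    intro x y r hr i
    exact (norm_le_pi_norm (x - y) i).trans hr
  have memP : ∀ (k : h.ιT a) (x : E3), x ∈ P ((Te (h.T a)).H k) ↔ w2 x ∈ P ((h.T a).H k) := by
    intro k x
    rw [Ttr_622.mem_P_tr]
    exact Iff.rfl
  -- the tiles near the core
  have key : ∀ y0 ∈ Gc ((Qb j).tr a) k0 (h.hk j), ∀ y' : R3,
      (∀ i, |y' i - y0 i| ≤ 52 * m₀^4 * u) → ∀ k, y' ∈ P ((h.T a).H k) →
        P ((h.T a).H k) ⊆ ((Qb j).tr a).N ∧ sclT h a k = (Qb j).kc := by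
    intro y0 hy0 y' hy' k hk
    exact core_tile h ha (Gc_sub_Kc hy0) (psi_near hψ hκ hu.le hku hy') hk
  have h52 : u ≤ 52 * m₀^4 * u := by nlinarith
  have hsum : 26 * m₀^4 * (2 * u) = 52 * m₀^4 * u := by ring
  obtain ⟨δ₀, hδ₀, H⟩ := gam_sys hX (f := f) (Φ := Φ) (Om := Om)
    (hf.comp Φ.continuous.continuousOn hΦ.mapsTo) (fun y hy => hΦ.eq_on_sk1 hy) (b := b)
    (z := z) (L := L) (r := (1 - σ₀) * sz) (ε0 := η * t) (cel_sub_of_perf hσ0 hσ1 hsz hP)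
    hnear (E := w2.symm '' Gc ((Qb j).tr a) k0 (h.hk j))
    (by rintro _ ⟨y, hy, rfl⟩; rw [w2.apply_symm_apply]; exact Gc_sk1 h ha hy) hm₀ hu.le
    (u1 := 2 * u) (by linarith)
    (by
      rintro _ ⟨y, hy, rfl⟩ x hx
      have h1 : ∀ i, |(w2 x) i - y i| ≤ 52 * m₀^4 * u := fun i =>
        (sup _ _ _ hx i).trans h52
      have h2 : w2 x ∈ interior ((Qb j).tr a).N :=
        near_int _ (near_one ((Qb j).tr a) (Gc_sub_Kc hy) (psi_near hψ hκ hu.le hku h1))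
      obtain ⟨k, hk⟩ := (h.T a).cov (w2 x)
        (N_sub_Om h ha j (interior_subset h2))
      exact ⟨k, hs k (key y hy _ h1 k hk).1, (memP k x).2 hk⟩)
    (by
      rintro _ ⟨y, hy, rfl⟩ k hk x hx hxy
      have h1 : ∀ i, |(w2 x) i - y i| ≤ 52 * m₀^4 * u := fun i =>
        (sup _ _ _ hxy i).trans (by nlinarith)
      obtain ⟨h2, h3⟩ := key y hy _ h1 k ((memP k x).1 hx)
      obtain ⟨h4, h5⟩ := hm k h2 h3
      refine ⟨h4, le_trans ?_ h5⟩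
      rw [pow_succ (2:ℝ), ← div_div]
      have h6 : 416 * m₀^4 * u ≤ 416 * κ⁻¹ * m₀^4 * u := by
        have : 0 ≤ 416 * m₀^4 * u := by positivity
        nlinarith
      linarith)
    hρ
    (by
      rintro b' hb' y hy _ ⟨y0, hy0, rfl⟩
      by_contra hcon
      push Not at hcon
      rw [hsum] at hcon
      refine hb'.2 (hpr b' hb'.1.1 fun k hk => ?_)
      have h1 : y ∈ P ((Te (h.T a)).H k) := by
        rw [b'.set_eq] at hy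
        exact (Te (h.T a)).cc_sub_tile hk hy
      exact key y0 hy0 (w2 y) (fun i => sup _ _ _ hcon i) k ((memP k y).1 h1))
    (by
      rintro _ ⟨y0, hy0, rfl⟩ y hy
      rw [hsum] at hy
      rw [mem_cel hr]
      intro i
      have h1 : y0 - a ∈ cel Cb z ((1 - τ) * sz) := by
        refine hsub ?_
        rw [← CB.mem_N_tr]
        exact Kc_sub_N _ (Gc_sub_Kc hy0)
      rw [mem_cel (mul_pos (by linarith) hsz)] at h1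
      have h2 : |(y0 - a) i - z i| ≤ (1 - τ) * sz := h1 i
      have h3 : |a i| ≤ ‖a‖ := PiLp.norm_apply_le a i
      have h4 : |w2 y i - y0 i| ≤ 52 * m₀^4 * u := sup _ _ _ hy i
      calc |w2 y i - z i| = |(w2 y i - y0 i) + ((y0 - a) i - z i) + a i| := by
            congr 1
            rw [PiLp.sub_apply]
            ring
        _ ≤ |w2 y i - y0 i| + |(y0 - a) i - z i| + |a i| :=
            (abs_add_le _ _).trans (add_le_add_left (abs_add_le _ _) _)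
        _ ≤ (1 - σ₀) * sz := by linarith) he
  refine ⟨δ₀, hδ₀, fun p δ hA hδ N₁ N₂ y0 hy0 x hx => ?_⟩
  refine (H p δ hA hδ N₁ N₂ _ ⟨y0, hy0, rfl⟩ x hx).trans ?_
  have h1 : 2 * ‖L‖ * (25 * m₀^4 * (2 * u)) ≤ 100 * κ⁻¹ * m₀^4 * u := by
    have := hP.up
    calc 2 * ‖L‖ * (25 * m₀^4 * (2 * u)) ≤ 2 * κ⁻¹ * (25 * m₀^4 * (2 * u)) := by gcongr
      _ = _ := by ring
  linarith

/-- **`NearG` in the mesh `h.T a`** -/
theorem gam_T (ha : ‖a‖ ≤ σ / 8) {κ : ℝ} {Bs Nn : ℕ} (hκ : 0 < κ) (hκ1 : κ ≤ 1) {j : J}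
    (hb : BQ κ Bs Nn (Qb j) k0) {s : Finset (h.ιT a)} {pr : (Te (h.T a)).Cell → Prop}
    {c : h.ιT a → E3} {R : h.ιT a → ℝ≥0} {ρ : E3 → ℝ≥0} {m : h.ιT a → ℝ≥0}
    {X : Sys s (reps (Te (h.T a)) s pr)} (hX : SysOf (Te (h.T a)) s pr c R ρ m X)
    (hρ : ∀ x ∈ reps (Te (h.T a)) s pr, ∀ k ∈ (Te (h.T a)).at_ x, k ∈ s → R k ≤ m k * ρ x)
    {f : R3 → R3} (hf : ContinuousOn f Om) {Φ : R3 ≃ₜ R3} (hΦ : Mv (h.T a) Φ)
    {κe : Type*} {x v : κe → R3} {a1 : R3} {p τ₁ σ₀ η t sz : ℝ} {D : R3 → R3 →L[ℝ] R3}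
    {b z : R3} {L : R3 →L[ℝ] R3} (hσ0 : 0 < σ₀) (hσ1 : σ₀ < 1) (hsz : 0 < sz)
    (hP : PerfG x v p Om f D κ τ₁ σ₀ η t sz a1 z b L) {V : Set R3}
    (hM : MeshG (h.T a) x v a1 V) (hV : cel Cb z ((1 - σ₀) * sz) ⊆ V)
    (hs : ∀ k, P ((h.T a).H k) ⊆ ((Qb j).tr a).N → k ∈ s)
    (hpr : ∀ c : (Te (h.T a)).Cell, c.dim = 2 → (∀ k ∈ (Te (h.T a)).at_ c.pt,
      P ((h.T a).H k) ⊆ ((Qb j).tr a).N ∧ sclT h a k = (Qb j).kc) → pr c)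
    {m₀ : ℝ} (hm₀ : 1 ≤ m₀)
    (hm : ∀ k, P ((h.T a).H k) ⊆ ((Qb j).tr a).N → sclT h a k = (Qb j).kc →
      (m k : ℝ) ≤ m₀ ∧ 1 / 2 ^ ((Qb j).kc + 1) ≤ (R k : ℝ))
    {τ : ℝ} (hsub : (Qb j).N ⊆ cel Cb z ((1 - τ) * sz)) (hτ1 : τ < 1) {u : ℝ} (hu : 0 < u)
    (hku : 416 * κ⁻¹ * m₀^4 * u ≤ 1 / 2 ^ (Qb j).kc)
    (hau : ‖a‖ + 52 * m₀^4 * u ≤ (τ - σ₀) * sz) {e : ℝ} (he : 0 < e) :
    ∃ δ₀ : ℝ, 0 < δ₀ ∧ ∀ (p δ : ℝ) (hA : X.Adm p δ), δ < δ₀ → ∀ N₁ N₂ : ℕ,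
      NearG ((Qb j).tr a) k0 (h.hk j) u (η * t + 100 * κ⁻¹ * m₀^4 * u + e) b L z
        (fun y => f (Φ (toR (Sys.chi hA (N₁+1) (N₂+1)) y))) := by
  obtain ⟨δ₀, hδ₀, H⟩ := gam_T0 h ha hκ hκ1 hb hX hρ hf hΦ hσ0 hσ1 hsz hP
    (near_of_mesh hM hV hP) hs hpr hm₀ hm hsub hτ1 hu hku hau he
  refine ⟨δ₀, hδ₀, fun p δ hA hδ N₁ N₂ y0 hy0 y hy => ?_⟩
  have h1 := H p δ hA hδ N₁ N₂ y0 hy0 (w2.symm y) hy
  rw [w2.apply_symm_apply] at h1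
  show ‖f (Φ (toR (Sys.chi hA (N₁+1) (N₂+1)) y)) - (b + L (y - z))‖ ≤ _
  rw [toR_apply]
  exact h1

/-- the core is inside the good cube -/
lemma Kc_in {τ sz r u : ℝ} {z : R3} {j : J} (hsub : (Qb j).N ⊆ cel Cb z ((1 - τ) * sz))
    (hsz : 0 < (1 - τ) * sz) (hr : (1 - τ) * sz + ‖a‖ + u ≤ r) :
    ∀ y ∈ ((Qb j).tr a).Kc, ∀ i, |y i - z i| + u ≤ r := by
  intro y hy i
  have h1 : y - a ∈ cel Cb z ((1 - τ) * sz) := by
    refine hsub ?_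
    rw [← CB.mem_N_tr]
    exact Kc_sub_N _ hy
  rw [mem_cel hsz] at h1
  have h2 : |(y - a) i - z i| ≤ (1 - τ) * sz := h1 i
  have h3 : |a i| ≤ ‖a‖ := PiLp.norm_apply_le a i
  have h4 : |y i - z i| ≤ |(y - a) i - z i| + |a i| := by
    calc |y i - z i| = |((y - a) i - z i) + a i| := by
          congr 1
          rw [PiLp.sub_apply]
          ring
      _ ≤ _ := abs_add_le _ _
  linarith

end T

end Crest.Agent.R096.Gam_968
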