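import Crest.Agent.R096.Gsm6_432
import Crest.Agent.R096.Msh2_715

/-!
# Row 96 (helper432), shapes of the closed cells of good tiles: a finite list, and a lower bound for
the lengths of the 1-cells
-/

set_option autoImplicit false
set_option linter.unusedSectionVars false

open Set Metric Topology Filter

namespace Crest.Agent.R096.Shp_432

open Crest.Agent.R096.Msh_715 Crest.Agent.R096.Mal_874 Crest.Agent.R096.Cut_874
open Crest.Agent.R096.Msh_810 Crest.Agent.R096.Gsm_432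

universe u v

variable {n : ℕ}

/-! ### segments -/

section seg

variable {F : Type*} [NormedAddCommGroup F] [NormedSpace ℝ F]

theorem diam_segment (a b : F) : diam (segment ℝ a b) = dist a b := by
  rw [← convexHull_pair, convexHull_diam, diam_pair]

theorem image_seg {E : Type*} [NormedAddCommGroup E] [NormedSpace ℝ E] (B : E ≃ᵃ[ℝ] F) (p q : E) :
    B '' segment ℝ p q = segment ℝ (B p) (B q) := by
  have h := image_segment ℝ B.toAffineMap p q
  exact h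

theorem lin_sub {E : Type*} [NormedAddCommGroup E] [NormedSpace ℝ E] (B : E ≃ᵃ[ℝ] F) (p q : E) :
    B q - B p = B.linear (q - p) := by
  have h := B.toAffineMap.linearMap_vsub q p
  simp only [AffineEquiv.coe_toAffineMap, vsub_eq_sub, AffineEquiv.linear_toAffineMap,
    LinearEquiv.coe_coe] at h
  exact h.symm

/-- a lower bound for the positive diameters of a finite list -/
theorem exists_diam_lb {𝓕 : Set (Set F)} (h : 𝓕.Finite) :
    ∃ μ > 0, ∀ S ∈ 𝓕, 0 < diam S → μ ≤ diam S := by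
  have h1 : ∀ S : Set F, 0 < (if 0 < diam S then diam S else 1) := by
    intro S
    split_ifs with h2
    · exact h2
    · exact one_pos
  obtain ⟨μ, hμ, h3⟩ := exists_lb h h1
  refine ⟨μ, hμ, fun S hS h0 => ?_⟩
  have h4 := h3 S hS
  rwa [if_pos h0] at h4

/-- a lower bound for the lengths of the 1-cells whose shape is in a finite list -/
theorem exists_len_lb {𝓕 : Set (Set F)} (h : 𝓕.Finite) :
    ∃ μ > 0, ∀ {E : Type u} [NormedAddCommGroup E] [NormedSpace ℝ E] (B : E ≃ᵃ[ℝ] F) (C : Set E)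
      (p q : E), B '' C ∈ 𝓕 → C = segment ℝ p q → p ≠ q → μ ≤ ‖B.linear (q - p)‖ := by
  obtain ⟨μ, hμ, h1⟩ := exists_diam_lb h
  refine ⟨μ, hμ, fun {E} _ _ B C p q hC hseg hpq => ?_⟩
  have h2 : diam (B '' C) = ‖B.linear (q - p)‖ := by
    rw [hseg, image_seg, diam_segment, dist_comm, dist_eq_norm, lin_sub]
  rw [← h2]
  refine h1 _ hC ?_
  rw [h2, norm_pos_iff]
  intro h3
  have h4 : q - p = 0 := B.linear.map_eq_zero_iff.1 h3
  exact hpq (sub_eq_zero.1 h4).symm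

end seg

/-! ### good tiles -/

/-- the list of the shapes -/
def shL (Ls : Set (Finset (Fin n → ℝ) × ℕ)) (R : ℝ) : Set (Set (Fin n → ℝ)) :=
  ⋃ p ∈ Ls, shpT p.1 p.2 R

theorem shL_finite {Ls : Set (Finset (Fin n → ℝ) × ℕ)} (h : Ls.Finite) (R : ℝ) :
    (shL Ls R).Finite := h.biUnion fun p _ => shpT_finite p.1 p.2 R

/-- **the closed cells of a good tile are in the list** -/
theorem good_cell {E : Type u} [NormedAddCommGroup E] [NormedSpace ℝ E] {Om : Set E} {ι : Type v}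
    {T : Tiling Om ι} {t : ι} {χ : E ≃ᵃ[ℝ] (Fin n → ℝ)} {k : ℕ}
    {Ls : Set (Finset (Fin n → ℝ) × ℕ)} {p : Finset (Fin n → ℝ) × ℕ} {R : ℝ}
    (hp : p ∈ Ls) (hpos : 0 < p.2) (hrat : ∀ ν ∈ p.1, ∀ m, ∃ c : ℤ, ν m = c / p.2)
    (h : Good T t χ k p.1 p.2 R) :
    ∃ z : Fin n → ℤ, ∀ x ∈ P (T.H t), (χ.trans (trz z)) '' T.cc x ∈ shL Ls R := by
  obtain ⟨z, hz⟩ := h.sim hpos hrat
  refine ⟨z, fun x hx => mem_iUnion₂.2 ⟨p, hp, hz ⟨T.cc x, ⟨x, hx, rfl⟩, rfl⟩⟩⟩

/-- **the lengths of the 1-cells of a good tile, in its frame** -/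
theorem len_goods {Ls : Set (Finset (Fin n → ℝ) × ℕ)} (hLs : Ls.Finite) (hpos : ∀ p ∈ Ls, 0 < p.2)
    (hrat : ∀ p ∈ Ls, ∀ ν ∈ p.1, ∀ m, ∃ c : ℤ, ν m = c / p.2) (R : ℝ) :
    ∃ μ > 0, ∀ {E : Type u} [NormedAddCommGroup E] [NormedSpace ℝ E] {Om : Set E} {ι : Type v}
      (T : Tiling Om ι) (t : ι) (χ : E ≃ᵃ[ℝ] (Fin n → ℝ)) (k : ℕ), ∀ p ∈ Ls,
      Good T t χ k p.1 p.2 R → ∀ x ∈ P (T.H t), ∀ e1 e2, T.cc x = segment ℝ e1 e2 → e1 ≠ e2 →
        μ ≤ ‖χ.linear (e2 - e1)‖ := by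
  obtain ⟨μ, hμ, h1⟩ := exists_len_lb.{u} (shL_finite hLs R)
  refine ⟨μ, hμ, fun {E} _ _ {Om ι} T t χ k p hp hg x hx e1 e2 he hne => ?_⟩
  obtain ⟨z, hz⟩ := good_cell hp (hpos p hp) (hrat p hp) hg
  have h2 := h1 (χ.trans (trz z)) (T.cc x) e1 e2 (hz x hx) he hne
  have h3 : (χ.trans (trz z)).linear (e2 - e1) = χ.linear (e2 - e1) := by
    rw [← lin_sub, ← lin_sub, AffineEquiv.trans_apply, AffineEquiv.trans_apply, trz_apply,
      trz_apply]
    funext m
    simp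
  rwa [h3] at h2

/-- the same with the linear map of the frame -/
theorem chi_lin {E : Type*} [NormedAddCommGroup E] [NormedSpace ℝ E] (φ : E ≃L[ℝ] (Fin n → ℝ)) (a : Fin n → ℝ) (k : ℕ) (v : E) :
    ‖(chi φ a k).linear v‖ = 2 ^ k * ‖φ v‖ := by
  have h1 := lin_sub (chi φ a k) 0 v
  rw [sub_zero] at h1
  have h2 : chi φ a k v - chi φ a k 0 = (2 : ℝ) ^ k • φ v := by
    funext m
    rw [Pi.sub_apply, chi_apply, chi_apply, map_zero, Pi.smul_apply, smul_eq_mul, Pi.zero_apply]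
    ring
  rw [← h1, h2, norm_smul, Real.norm_of_nonneg (by positivity)]

end Crest.Agent.R096.Shp_432
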