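import Crest.Agent.R096.Msb8_432
import Crest.Agent.R096.Shp1_432

/-!
# Row 96 (helper432), shapes of the closed cells of the tiles of `meshS`: a finite list for all
tiles; lower bounds for the lengths of the 1-cells; inside a block (off the wall) the constants
depend only on the bounds of the shell
-/

set_option autoImplicit false
set_option linter.unusedSectionVars false

open Set Metric Topology Filter

namespace Crest.Agent.R096.Shp_432

open Crest.Agent.R096.Msh_715 Crest.Agent.R096.Mal_874 Crest.Agent.R096.Cut_874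
open Crest.Agent.R096.Msh_810 Crest.Agent.R096.Gsm_432 Crest.Agent.R096.Msb_432

universe w

variable {n : ℕ}

/-- **[SHP] the closed cells of all tiles of `meshS`**: in the frame of the tile (scale `κ`) they are
in a finite list, and the 1-cells have length at least `μ / 2 ^ κ` -/
theorem shp_meshS (E : Type) [NormedAddCommGroup E] [NormedSpace ℝ E] [FiniteDimensional ℝ E]
    [NeZero n] {Ps : Set ((Fin n → Fin n → ℤ) × ℕ)} (hPs : Ps.Finite) (c0 R0 Lo : ℝ) {B0 : ℕ} :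
    ∃ (𝓕 : Set (Set (Fin n → ℝ))) (μ L1 L2 : ℝ), 𝓕.Finite ∧ 0 < μ ∧ 0 < L1 ∧ 0 ≤ L2 ∧
      ∀ {J : Type w} (M : MD E n J) {k : J → ℕ} (hk : M.Sc k)
      (a : Fin n → ℝ) {v : J → E} (hv : M.Adm v) (X : RD M), RP X a v k →
      (∀ j, (X.A j, X.d j) ∈ Ps) → (∀ j, X.c j ≤ c0) → (∀ j, X.B j ≤ B0) → (∀ j, X.R j ≤ R0) →
      (∀ v, ‖M.φ v‖ ≤ Lo * ‖v‖) → (∀ v, ‖v‖ ≤ Lo * ‖M.φ v‖) →
      ∀ t, ∃ (κ : ℕ) (ψ : E ≃L[ℝ] (Fin n → ℝ)) (a' : Fin n → ℝ) (z : Fin n → ℤ),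
        Scl M hk a hv t κ ∧
        (∀ x ∈ P ((meshS M hk a hv).H t),
          ((chi ψ a' κ).trans (trz z)) '' (meshS M hk a hv).cc x ∈ 𝓕) ∧
        (∀ x ∈ P ((meshS M hk a hv).H t), ∀ e1 e2,
          (meshS M hk a hv).cc x = segment ℝ e1 e2 → e1 ≠ e2 →
            μ / 2 ^ κ ≤ ‖ψ (e2 - e1)‖ ∧ μ / L1 / 2 ^ κ ≤ ‖e2 - e1‖) ∧
        (∀ v, ‖ψ v‖ ≤ L1 * ‖v‖) ∧ ∀ v, ‖v‖ ≤ L2 * ‖ψ v‖ := by
  obtain ⟨Ls, R, L1, L2, hLs, hpos, hrat, hL1, hL2, h⟩ := good_meshS.{w} E hPs c0 R0 Lo (B0 := B0)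
  obtain ⟨μ, hμ, hlen⟩ := len_goods.{0, w} hLs hpos hrat R
  refine ⟨shL Ls R, μ, L1, L2, shL_finite hLs R, hμ, hL1, hL2,
    fun {J} M {k} hk a {v} hv X RPx hA hc hB hR hLo hLo' t => ?_⟩
  obtain ⟨κ, ψ, a', p, hp, hS, hg, h1, h2⟩ := h M hk a hv X RPx hA hc hB hR hLo hLo' t
  obtain ⟨z, hz⟩ := good_cell hp (hpos p hp) (hrat p hp) hg
  refine ⟨κ, ψ, a', z, hS, hz, fun x hx e1 e2 he hne => ?_, h1, h2⟩
  have h3 := hlen (meshS M hk a hv) t (chi ψ a' κ) κ p hp hg x hx e1 e2 he hne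
  rw [chi_lin] at h3
  have hp2 : (0 : ℝ) < 2 ^ κ := by positivity
  have h4 : μ / 2 ^ κ ≤ ‖ψ (e2 - e1)‖ := by
    rw [div_le_iff₀ hp2, mul_comm]
    exact h3
  refine ⟨h4, ?_⟩
  rw [div_div, mul_comm L1, ← div_div, div_le_iff₀ hL1, mul_comm]
  exact h4.trans (h1 _)

/-! ### inside a block -/

section block

variable [NeZero n] {E : Type*} [NormedAddCommGroup E] [NormedSpace ℝ E]
variable {J : Type*} (M : MD E n J) {k : J → ℕ} (hk : M.Sc k) (a : Fin n → ℝ)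
  {v : J → E} (hv : M.Adm v)

/-- a tile of `meshS` in a block, off the wall, is good in the frame of the block; the normals are
bounded by the shell only -/
theorem in_good (X : RD M) (RPx : RP X a v k) {j : J} {t : {t // t ∉ cores M hk a hv} ⊕ CIx M}
    (hN : P ((meshS M hk a hv).H t) ⊆ (M.Bk v j).N)
    (hw : Disjoint (P ((meshS M hk a hv).H t)) (frontier (M.Bk v j).N)) :
    ∃ κ, (M.Q j).kc ≤ κ ∧ κ ≤ k j + 1 ∧ Good (meshS M hk a hv) t
      (chi (M.Q j).ψ (M.Bk v j).a' κ) κ (NB n (X.B j)) 1 (max 2 (X.R j)) := by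
  obtain ⟨x0, hx0⟩ := (meshS M hk a hv).ne t
  have hx0' := I_sub_P _ hx0
  rcases t with ⟨t, ht⟩ | c
  · rcases t with p | ⟨l, i⟩
    · exact absurd (M.outer_touch hk a hv p hx0' (hN hx0')) (Set.disjoint_left.1 hw hx0')
    · obtain rfl : l = j := by
        by_contra hne
        exact Set.disjoint_left.1 (N_disj hk a hv hne) (i.2 hx0') (hN hx0')
      have hi : i ≠ M.core hk a hv l := by
        rintro rfl
        exact ht ⟨l, rfl⟩
      rcases M.inner_good hk a hv X RPx i hi with ⟨τ, hτ, -, hd, hg⟩ | ⟨-, hg⟩ | ⟨-, hw', -⟩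
      · refine ⟨τ.1.1.1.k + 1, ?_, ?_, good_old M hk a hv _
          (good_mono hg (N0_sub_NB (X.B1 l)) (le_max_left _ _)) fun c hc => ?_⟩
        · exact ((M.Bk v l).kc_le (k l) (hk.kc l) (τ := τ.1)).trans (Nat.le_succ _)
        · exact Nat.succ_le_succ ((M.Bk v l).le_k (k l) (hk.kc l) (τ := τ.1))
        · exfalso
          obtain rfl := inner_same M hk a hv hc
          obtain ⟨x, hx1, hx2⟩ := hc
          exact Set.disjoint_left.1 hd hx2 (Kc_sub_bp _ (cubH_sub c hx1))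
      · refine ⟨(M.Q l).kc, le_rfl, (hk.kc l).trans (Nat.le_succ _), good_old M hk a hv _
          (good_mono hg subset_rfl (le_max_right _ _)) fun c hc => ?_⟩
        obtain rfl := inner_same M hk a hv hc
        exact gf_cube one_pos (fr_self _ _ _ (N0_sub_NB (X.B1 _)) 1) le_rfl _
      · obtain ⟨y, hy1, hy2⟩ := hw'
        exact absurd hy2 (Set.disjoint_left.1 hw hy1)
  · obtain ⟨l, z⟩ := c
    obtain rfl : l = j := by
      by_contra hne
      exact Set.disjoint_left.1 (N_disj hk a hv hne) (Kc_sub_N _ (cubH_sub (M := M) ⟨l, z⟩ hx0'))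
        (hN hx0')
    exact ⟨(M.Q l).kc, le_rfl, (hk.kc l).trans (Nat.le_succ _),
      good_mono (cube_goodS M hk a hv X ⟨l, z⟩) subset_rfl
        (le_trans (by norm_num) (le_max_left _ _))⟩

/-- **[LEN] inside a block**: the constant `μ` depends only on the dimension and on the bounds
`B0, R0` of the shell (no net, no denominators) -/
theorem exists_len_in (n : ℕ) [NeZero n] (B0 : ℕ) (R0 : ℝ) :
    ∃ μ > 0, ∀ {E : Type} [NormedAddCommGroup E] [NormedSpace ℝ E] {J : Type w} (M : MD E n J)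
      {k : J → ℕ} (hk : M.Sc k) (a : Fin n → ℝ) {v : J → E} (hv : M.Adm v) (X : RD M),
      RP X a v k → ∀ j, X.B j ≤ B0 → X.R j ≤ R0 →
      ∀ t, P ((meshS M hk a hv).H t) ⊆ (M.Bk v j).N →
        Disjoint (P ((meshS M hk a hv).H t)) (frontier (M.Bk v j).N) →
        ∃ κ, (M.Q j).kc ≤ κ ∧ κ ≤ k j + 1 ∧
          (∃ z : Fin n → ℤ, ∀ x ∈ P ((meshS M hk a hv).H t),
            ((chi (M.Q j).ψ (M.Bk v j).a' κ).trans (trz z)) '' (meshS M hk a hv).cc x ∈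
              shpT (NB n B0) 1 (max 2 R0)) ∧
          (∀ x ∈ P ((meshS M hk a hv).H t), ∀ y ∈ P ((meshS M hk a hv).H t),
            ‖(M.Q j).ψ (y - x)‖ ≤ max 2 R0 / 2 ^ κ) ∧
          ∀ x ∈ P ((meshS M hk a hv).H t), ∀ e1 e2,
            (meshS M hk a hv).cc x = segment ℝ e1 e2 → e1 ≠ e2 →
              μ / 2 ^ κ ≤ ‖(M.Q j).ψ (e2 - e1)‖ := by
  have hLs : ({(NB n B0, 1)} : Set (Finset (Fin n → ℝ) × ℕ)).Finite := finite_singleton _
  have hpos : ∀ p ∈ ({(NB n B0, 1)} : Set (Finset (Fin n → ℝ) × ℕ)), 0 < p.2 := by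
    rintro p rfl
    exact one_pos
  have hrat : ∀ p ∈ ({(NB n B0, 1)} : Set (Finset (Fin n → ℝ) × ℕ)), ∀ ν ∈ p.1, ∀ m,
      ∃ c : ℤ, ν m = c / p.2 := by
    rintro p rfl
    exact NB_rat B0 one_pos
  obtain ⟨μ, hμ, hlen⟩ := len_goods.{0, w} hLs hpos hrat (max 2 R0)
  refine ⟨μ, hμ, fun {E} _ _ {J} M {k} hk a {v} hv X RPx j hB hR t hN hw => ?_⟩
  obtain ⟨κ, h1, h2, hg0⟩ := in_good M hk a hv X RPx hN hw
  have hg := good_mono hg0 (NB_mono hB) (max_le_max le_rfl hR)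
  have hp2 : (0 : ℝ) < 2 ^ κ := by positivity
  refine ⟨κ, h1, h2, ?_, ?_, ?_⟩
  · obtain ⟨z, hz⟩ := hg.sim one_pos (NB_rat B0 one_pos)
    exact ⟨z, fun x hx => hz ⟨_, ⟨x, hx, rfl⟩, rfl⟩⟩
  · intro x hx y hy
    have hR0 : (0 : ℝ) ≤ max 2 R0 := le_trans (by norm_num) (le_max_left _ _)
    rw [pi_norm_le_iff_of_nonneg (by positivity)]
    intro m
    have h3 := hg.sz x hx y hy m
    rw [chi_apply, chi_apply] at h3
    rw [le_div_iff₀ hp2, map_sub, Pi.sub_apply, Real.norm_eq_abs, ← abs_of_pos hp2, ← abs_mul]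
    have e : ((M.Q j).ψ y m - (M.Q j).ψ x m) * (2 : ℝ) ^ κ =
        2 ^ κ * ((M.Q j).ψ y m - (M.Bk v j).a' m) - 2 ^ κ * ((M.Q j).ψ x m - (M.Bk v j).a' m) := by
      ring
    rw [e]
    exact h3
  · intro x hx e1 e2 he hne
    have h3 := hlen (meshS M hk a hv) t _ κ (NB n B0, 1) rfl hg x hx e1 e2 he hne
    rw [chi_lin] at h3
    rw [div_le_iff₀ hp2, mul_comm]
    exact h3

end block

end Crest.Agent.R096.Shp_432
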