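import Crest.Agent.R096.Gsc1_476
import Crest.Agent.R096.Shp2_432
import Crest.Agent.R096.Ca16_855

/-!
# Row 96 (S0127), helper476: the true scale of the tiles, part 2: 432's `good_meshS`, `shp_meshS`
with `scl t ≤ κ ≤ scl t + 1`; the mesh `h.T a` of 855
-/

set_option autoImplicit false
set_option linter.unusedSectionVars false

open Set Metric Topology Filter

namespace Crest.Agent.R096.Gsc_476

open Crest.Agent.R096.Msh_715 Crest.Agent.R096.Msh_715.Tiling Crest.Agent.R096.Mal_874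
open Crest.Agent.R096.Msh_810 Crest.Agent.R096.Cut_874 Crest.Agent.R096.Msb_432
open Crest.Agent.R096.Gsm_432 Crest.Agent.R096.Nbr_896 Crest.Agent.R096.Shp_432

universe w

variable {n : ℕ}

section

variable [NeZero n] {E : Type*} [NormedAddCommGroup E] [NormedSpace ℝ E]
variable {J : Type*} (M : MD E n J) {k : J → ℕ} (hk : M.Sc k) (a : Fin n → ℝ)
  {v : J → E} (hv : M.Adm v)

/-- inner tiles, with the true scale -/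
theorem inner_goodK (X : RD M) (RPx : RP X a v k) {j : J} (i : M.IIx hk a hv j)
    (hi : i ≠ M.core hk a hv j) :
    (∃ τ, i.1 = Sum.inl τ ∧
      Good (meshS M hk a hv) (Sum.inl ⟨Sum.inr ⟨j, i⟩, inr_not_core M hk a hv hi⟩)
        (chi (M.Q j).ψ (M.Bk v j).a' (τ.1.1.1.k + 1)) (τ.1.1.1.k + 1) (N0 n) 1 2) ∨
    (scl M hk a hv (Sum.inl ⟨Sum.inr ⟨j, i⟩, inr_not_core M hk a hv hi⟩) = (M.Q j).kc ∧
    Good (meshS M hk a hv) (Sum.inl ⟨Sum.inr ⟨j, i⟩, inr_not_core M hk a hv hi⟩)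
      (chi (M.Q j).ψ (M.Bk v j).a' (M.Q j).kc) (M.Q j).kc (NB n (X.B j)) 1 (X.R j)) ∨
    ((∃ τ, i.1 = Sum.inl τ ∧ τ.1.1.1.k = k j) ∧
      Good (meshS M hk a hv) (Sum.inl ⟨Sum.inr ⟨j, i⟩, inr_not_core M hk a hv hi⟩)
        (chi M.φ a (k j)) (k j) (NR (X.A j) (X.d j)) (X.d j) (X.c j)) := by
  rcases M.inner_good hk a hv X RPx i hi with ⟨τ, hτ, -, hd, hg⟩ | ⟨hn, hg⟩ | ⟨⟨τ, hτ, hτk⟩, hw, hg⟩
  · refine Or.inl ⟨τ, hτ, good_old M hk a hv _ hg fun c hc => ?_⟩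
    exfalso
    obtain rfl := inner_same M hk a hv hc
    obtain ⟨x, hx1, hx2⟩ := hc
    exact Set.disjoint_left.1 hd hx2 (Kc_sub_bp _ (cubH_sub c hx1))
  · refine Or.inr (Or.inl ⟨?_, good_old M hk a hv _ hg fun c hc => ?_⟩)
    · show iscl (M.Bk v j) (k j) (hk.kc j) i.1 = (M.Bk v j).kc
      obtain ⟨x, hx⟩ := (M.mesh hk a hv).ne (Sum.inr ⟨j, i⟩)
      have hx := I_sub_P _ hx
      have h1 := hn x hx
      have hx2 : x ∈ P (((M.Bk v j).T (k j) (hk.kc j)).H i.1) := hx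
      rcases hi1 : i.1 with τ | s
      · rw [hi1] at hx2
        exact (M.Bk v j).near_k (k j) (hk.kc j) (τ := τ.1) hx2 h1
      · rfl
    · obtain rfl := inner_same M hk a hv hc
      exact gf_cube one_pos (fr_self _ _ _ (N0_sub_NB (X.B1 _)) 1) le_rfl _
  · refine Or.inr (Or.inr ⟨⟨τ, hτ, hτk⟩, good_old M hk a hv _ hg fun c hc => ?_⟩)
    exfalso
    obtain rfl := inner_same M hk a hv hc
    obtain ⟨x, hx1, hx2⟩ := hc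
    obtain ⟨y, hy1, hy2⟩ := hw
    have hx3 := bp_dist (M.Bk v c.1) (Kc_sub_bp _ (cubH_sub c hx1))
    rw [MD.mesh_inr, hτ] at hx2 hy1
    have h1 := dist_cube (((M.Bk v c.1).tile_T0 (k c.1) (hk.kc c.1)).1 hx2)
      (((M.Bk v c.1).tile_T0 (k c.1) (hk.kc c.1)).1 hy1)
    rw [hτk] at h1
    rw [(M.Bk v c.1).frontier_N] at hy2
    have h2 : infDist ((M.Bk v c.1).ψ x) (M.Bk v c.1).W ≤
        infDist ((M.Bk v c.1).ψ y) (M.Bk v c.1).W + dist ((M.Bk v c.1).ψ x) ((M.Bk v c.1).ψ y) :=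
      infDist_le_infDist_add_dist
    rw [infDist_zero_of_mem (show (M.Bk v c.1).ψ y ∈ (M.Bk v c.1).W from hy2), zero_add] at h2
    have h3 : (1 : ℝ) / 2 ^ k c.1 ≤ 1 / 2 ^ (M.Bk v c.1).kc :=
      one_div_le_one_div_of_le (by positivity)
        (pow_le_pow_right₀ (by norm_num) (hk.kc c.1))
    have h4 : (0 : ℝ) < 1 / 2 ^ (M.Bk v c.1).kc := by positivity
    have h5 : (7 : ℝ) / 2 ^ (M.Bk v c.1).kc = 7 * (1 / 2 ^ (M.Bk v c.1).kc) := by ring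
    rw [h5] at hx3
    linarith

end

/-- **every tile of `meshS` is good**, in a frame of bounded distortion, with data in a finite
list -/
theorem good_scl (E : Type) [NormedAddCommGroup E] [NormedSpace ℝ E] [FiniteDimensional ℝ E]
    [NeZero n] {Ps : Set ((Fin n → Fin n → ℤ) × ℕ)} (hPs : Ps.Finite) (c0 R0 Lo : ℝ) {B0 : ℕ} :
    ∃ (Ls : Set (Finset (Fin n → ℝ) × ℕ)) (R L1 L2 : ℝ), Ls.Finite ∧ (∀ p ∈ Ls, 0 < p.2) ∧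
      (∀ p ∈ Ls, ∀ ν ∈ p.1, ∀ m, ∃ c : ℤ, ν m = c / p.2) ∧ 0 < L1 ∧ 0 ≤ L2 ∧
      ∀ {J : Type w} (M : MD E n J) {k : J → ℕ} (hk : M.Sc k)
      (a : Fin n → ℝ) {v : J → E} (hv : M.Adm v) (X : RD M), RP X a v k →
      (∀ j, (X.A j, X.d j) ∈ Ps) → (∀ j, X.c j ≤ c0) → (∀ j, X.B j ≤ B0) → (∀ j, X.R j ≤ R0) →
      (∀ v, ‖M.φ v‖ ≤ Lo * ‖v‖) → (∀ v, ‖v‖ ≤ Lo * ‖M.φ v‖) →
      ∀ t, ∃ (κ : ℕ) (ψ : E ≃L[ℝ] (Fin n → ℝ)) (a' : Fin n → ℝ) (p : Finset (Fin n → ℝ) × ℕ),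
        p ∈ Ls ∧ Scl M hk a hv t κ ∧ (scl M hk a hv t ≤ κ ∧ κ ≤ scl M hk a hv t + 1) ∧
        Good (meshS M hk a hv) t (chi ψ a' κ) κ p.1 p.2 R ∧
        (∀ v, ‖ψ v‖ ≤ L1 * ‖v‖) ∧ ∀ v, ‖v‖ ≤ L2 * ‖ψ v‖ := by
  classical
  obtain ⟨a0, ha0⟩ := (hPs.image fun p : (Fin n → Fin n → ℤ) × ℕ =>
    ∑ m, ∑ l, |(p.1 m l : ℝ)|).bddAbove
  set L1 : ℝ := (|a0| + 1) * (|Lo| + 1) with hL1d
  set L2 : ℝ := (|Lo| + 1) * (|c0| + 1) with hL2d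
  have hL1 : 0 < L1 := by positivity
  have hL2 : 0 ≤ L2 := by positivity
  set Ls : Set (Finset (Fin n → ℝ) × ℕ) := {(N0 n, 1)} ∪ {(NB n B0, 1)} ∪
    (fun p : (Fin n → Fin n → ℤ) × ℕ => (NR p.1 p.2, p.2)) '' {p ∈ Ps | 0 < p.2} with hLs
  have hfin : Ls.Finite := ((finite_singleton _).union (finite_singleton _)).union
    ((hPs.subset (sep_subset _ _)).image _)
  have hpos : ∀ p ∈ Ls, 0 < p.2 := by
    rintro p ((rfl | rfl) | ⟨q, hq, rfl⟩)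
    · exact one_pos
    · exact one_pos
    · exact hq.2
  have hrat : ∀ p ∈ Ls, ∀ ν ∈ p.1, ∀ m, ∃ c : ℤ, ν m = c / p.2 := by
    rintro p ((rfl | rfl) | ⟨q, hq, rfl⟩)
    · exact N0_rat one_pos
    · exact NB_rat B0 one_pos
    · exact NR_rat q.1 hq.2
  refine ⟨Ls, max 2 (max R0 c0), L1, L2, hfin, hpos, hrat, hL1, hL2,
    fun {J} M {k} hk a {v} hv X RPx hA hc hB hR hLo hLo' => ?_⟩
  have hLL : Lo ≤ |Lo| + 1 := (le_abs_self Lo).trans (by linarith)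
  have hφ1 : ∀ v, ‖M.φ v‖ ≤ L1 * ‖v‖ := by
    intro v
    have h1 := hLo v
    have h2 : Lo * ‖v‖ ≤ (|Lo| + 1) * ‖v‖ := mul_le_mul_of_nonneg_right hLL (norm_nonneg _)
    have h3 : 0 ≤ |a0| * ((|Lo| + 1) * ‖v‖) := by positivity
    rw [hL1d]
    nlinarith
  have hφ2 : ∀ v, ‖v‖ ≤ L2 * ‖M.φ v‖ := by
    intro v
    have h1 := hLo' v
    have h2 : Lo * ‖M.φ v‖ ≤ (|Lo| + 1) * ‖M.φ v‖ :=
      mul_le_mul_of_nonneg_right hLL (norm_nonneg _)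
    have h3 : 0 ≤ |c0| * ((|Lo| + 1) * ‖M.φ v‖) := by positivity
    rw [hL2d]
    nlinarith
  have hψ1 : ∀ j v, ‖(M.Q j).ψ v‖ ≤ L1 * ‖v‖ := by
    intro j v
    have h1 := norm_rat (X.dpos j) (X.rat j) v
    have h2 : ∑ m, ∑ l, |(X.A j m l : ℝ)| ≤ |a0| + 1 :=
      (ha0 (mem_image_of_mem _ (hA j))).trans ((le_abs_self a0).trans (by linarith))
    have h3 : ‖M.φ v‖ ≤ (|Lo| + 1) * ‖v‖ :=
      (hLo v).trans (mul_le_mul_of_nonneg_right hLL (norm_nonneg _))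
    calc ‖(M.Q j).ψ v‖ ≤ (∑ m, ∑ l, |(X.A j m l : ℝ)|) * ‖M.φ v‖ := h1
      _ ≤ (|a0| + 1) * ((|Lo| + 1) * ‖v‖) :=
        mul_le_mul h2 h3 (norm_nonneg _) (by positivity)
      _ = L1 * ‖v‖ := by rw [hL1d]; ring
  have hψ2 : ∀ j v, ‖v‖ ≤ L2 * ‖(M.Q j).ψ v‖ := by
    intro j v
    have h1 := X.cn j v 0
    rw [map_zero, map_zero, dist_zero_right, dist_zero_right] at h1
    have h2 : X.c j ≤ |c0| + 1 := (hc j).trans ((le_abs_self c0).trans (by linarith))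
    have h3 : ‖M.φ v‖ ≤ (|c0| + 1) * ‖(M.Q j).ψ v‖ :=
      h1.trans (mul_le_mul_of_nonneg_right h2 (norm_nonneg _))
    calc ‖v‖ ≤ Lo * ‖M.φ v‖ := hLo' v
      _ ≤ (|Lo| + 1) * ‖M.φ v‖ := mul_le_mul_of_nonneg_right hLL (norm_nonneg _)
      _ ≤ (|Lo| + 1) * ((|c0| + 1) * ‖(M.Q j).ψ v‖) :=
        mul_le_mul_of_nonneg_left h3 (by positivity)
      _ = L2 * ‖(M.Q j).ψ v‖ := by rw [hL2d]; ring
  have m0 : (N0 n, 1) ∈ Ls := Or.inl (Or.inl rfl)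
  have mB : (NB n B0, 1) ∈ Ls := Or.inl (Or.inr rfl)
  have mR : ∀ j, (NR (X.A j) (X.d j), X.d j) ∈ Ls := fun j =>
    Or.inr ⟨_, ⟨hA j, X.dpos j⟩, rfl⟩
  have r1 : (1 : ℝ) ≤ max 2 (max R0 c0) := le_trans (by norm_num) (le_max_left _ _)
  have r2 : ∀ j, X.c j ≤ max 2 (max R0 c0) := fun j =>
    (hc j).trans ((le_max_right _ _).trans (le_max_right _ _))
  have r3 : ∀ j, X.R j ≤ max 2 (max R0 c0) := fun j =>
    (hR j).trans ((le_max_left _ _).trans (le_max_right _ _))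
  rintro (⟨t, ht⟩ | c)
  · rcases t with p | ⟨j, i⟩
    · rcases outer_goodS M hk a hv X RPx p with hg | ⟨j, hj, hg⟩
      · exact ⟨_, M.φ, a, _, m0, Or.inl rfl, ⟨Nat.le_succ _, le_rfl⟩,
          good_mono hg subset_rfl (le_max_left _ _), hφ1, hφ2⟩
      · exact ⟨_, M.φ, a, _, mR j, Or.inr ⟨j, rfl, hj⟩, ⟨hj.le, hj.ge.trans (Nat.le_succ _)⟩,
          good_mono hg subset_rfl (r2 j), hφ1, hφ2⟩
    · have hi : i ≠ M.core hk a hv j := by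
        rintro rfl
        exact ht ⟨j, rfl⟩
      rcases inner_goodK M hk a hv X RPx i hi with ⟨τ, hτ, hg⟩ | ⟨hs, hg⟩ | ⟨⟨τ, hτ, hτk⟩, hg⟩
      · have e : scl M hk a hv (Sum.inl ⟨Sum.inr ⟨j, i⟩, ht⟩) = τ.1.1.1.k := by
          show iscl (M.Bk v j) (k j) (hk.kc j) i.1 = _
          rw [hτ]; rfl
        refine ⟨_, _, _, _, m0, ⟨?_, ?_⟩, ⟨e.le.trans (Nat.le_succ _), Nat.succ_le_succ e.ge⟩, good_mono hg subset_rfl (le_max_left _ _), hψ1 j, hψ2 j⟩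
        · have := (M.Bk v j).kc_le (k j) (hk.kc j) (τ := τ.1)
          exact this.trans (Nat.le_succ _)
        · exact Nat.succ_le_succ ((M.Bk v j).le_k (k j) (hk.kc j) (τ := τ.1))
      · exact ⟨_, _, _, _, mB, ⟨le_rfl, (hk.kc j).trans (Nat.le_succ _)⟩,
          ⟨hs.le, hs.ge.trans (Nat.le_succ _)⟩,
          good_mono hg (NB_mono (hB j)) (r3 j), hψ1 j, hψ2 j⟩
      · have e : scl M hk a hv (Sum.inl ⟨Sum.inr ⟨j, i⟩, ht⟩) = k j := by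
          show iscl (M.Bk v j) (k j) (hk.kc j) i.1 = _
          rw [hτ]; exact hτk
        exact ⟨_, _, _, _, mR j, ⟨hk.kc j, Nat.le_succ _⟩,
          ⟨e.le, e.ge.trans (Nat.le_succ _)⟩,
          good_mono hg subset_rfl (r2 j), hφ1, hφ2⟩
  · exact ⟨_, _, _, _, mB, rfl, ⟨le_rfl, Nat.le_succ _⟩,
      good_mono (cube_goodS M hk a hv X c) (NB_mono (hB _)) r1, hψ1 _, hψ2 _⟩


/-- **[SHP] with the true scale** : 432's `shp_meshS` with `scl t ≤ κ ≤ scl t + 1` -/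
theorem shp_scl (E : Type) [NormedAddCommGroup E] [NormedSpace ℝ E] [FiniteDimensional ℝ E]
    [NeZero n] {Ps : Set ((Fin n → Fin n → ℤ) × ℕ)} (hPs : Ps.Finite) (c0 R0 Lo : ℝ) {B0 : ℕ} :
    ∃ (𝓕 : Set (Set (Fin n → ℝ))) (μ L1 L2 : ℝ), 𝓕.Finite ∧ 0 < μ ∧ 0 < L1 ∧ 0 ≤ L2 ∧
      ∀ {J : Type w} (M : MD E n J) {k : J → ℕ} (hk : M.Sc k)
      (a : Fin n → ℝ) {v : J → E} (hv : M.Adm v) (X : RD M), RP X a v k →
      (∀ j, (X.A j, X.d j) ∈ Ps) → (∀ j, X.c j ≤ c0) → (∀ j, X.B j ≤ B0) → (∀ j, X.R j ≤ R0) →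
      (∀ v, ‖M.φ v‖ ≤ Lo * ‖v‖) → (∀ v, ‖v‖ ≤ Lo * ‖M.φ v‖) →
      ∀ t, ∃ (κ : ℕ) (ψ : E ≃L[ℝ] (Fin n → ℝ)) (a' : Fin n → ℝ) (z : Fin n → ℤ),
        Scl M hk a hv t κ ∧ (scl M hk a hv t ≤ κ ∧ κ ≤ scl M hk a hv t + 1) ∧
        (∀ x ∈ P ((meshS M hk a hv).H t),
          ((chi ψ a' κ).trans (trz z)) '' (meshS M hk a hv).cc x ∈ 𝓕) ∧
        (∀ x ∈ P ((meshS M hk a hv).H t), ∀ e1 e2,
          (meshS M hk a hv).cc x = segment ℝ e1 e2 → e1 ≠ e2 →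
            μ / 2 ^ κ ≤ ‖ψ (e2 - e1)‖ ∧ μ / L1 / 2 ^ κ ≤ ‖e2 - e1‖) ∧
        (∀ v, ‖ψ v‖ ≤ L1 * ‖v‖) ∧ ∀ v, ‖v‖ ≤ L2 * ‖ψ v‖ := by
  obtain ⟨Ls, R, L1, L2, hLs, hpos, hrat, hL1, hL2, h⟩ := good_scl.{w} E hPs c0 R0 Lo (B0 := B0)
  obtain ⟨μ, hμ, hlen⟩ := len_goods.{0, w} hLs hpos hrat R
  refine ⟨shL Ls R, μ, L1, L2, shL_finite hLs R, hμ, hL1, hL2,
    fun {J} M {k} hk a {v} hv X RPx hA hc hB hR hLo hLo' t => ?_⟩
  obtain ⟨κ, ψ, a', p, hp, hS, hκ, hg, h1, h2⟩ := h M hk a hv X RPx hA hc hB hR hLo hLo' t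
  obtain ⟨z, hz⟩ := good_cell hp (hpos p hp) (hrat p hp) hg
  refine ⟨κ, ψ, a', z, hS, hκ, hz, fun x hx e1 e2 he hne => ?_, h1, h2⟩
  have h3 := hlen (meshS M hk a hv) t (chi ψ a' κ) κ p hp hg x hx e1 e2 he hne
  rw [chi_lin] at h3
  have hp2 : (0 : ℝ) < 2 ^ κ := by positivity
  have h4 : μ / 2 ^ κ ≤ ‖ψ (e2 - e1)‖ := by
    rw [div_le_iff₀ hp2, mul_comm]
    exact h3
  refine ⟨h4, ?_⟩
  rw [div_div, mul_comm L1, ← div_div, div_le_iff₀ hL1, mul_comm]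
  exact h4.trans (h1 _)

end Crest.Agent.R096.Gsc_476
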