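import Crest.Agent.R096.Gsm6_432

/-!
# Row 96 (helper432): separation of a closed cell of a tile from the tiles which do not meet it, with
uniform constants for the good tiles
-/

set_option autoImplicit false
set_option linter.unusedSectionVars false

open Set Metric Topology Filter
open scoped NNReal ENNReal

namespace Crest.Agent.R096.Shp_432

open Crest.Agent.R096.Msh_715 Crest.Agent.R096.Mal_874 Crest.Agent.R096.Cut_874
open Crest.Agent.R096.Msh_810 Crest.Agent.R096.Gsm_432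

universe u v

section pair

variable {F : Type*} [NormedAddCommGroup F] [NormedSpace ℝ F] [FiniteDimensional ℝ F]
variable {E : Type u} [NormedAddCommGroup E] [NormedSpace ℝ E] [FiniteDimensional ℝ E]
variable {Om : Set E} {ι : Type v} {T : Tiling Om ι} {i : ι} {B : E ≃ᵃ[ℝ] F}

/-- separation for a pair (tile, truncated tiles of its star) -/
def SP (K0 : Set F) (𝒯 : Set (Set F)) (γ : ℝ) : Prop :=
  (∀ a ∈ K0, ∀ b, b ∉ interior (⋃₀ 𝒯) → γ ≤ dist a b) ∧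
  ∀ u ∈ K0, ∀ Q ∈ 𝒯, Disjoint (fcell 𝒯 u) Q → ∀ a ∈ fcell 𝒯 u, ∀ b ∈ Q, γ ≤ dist a b

/-- **the closed cells of the tile `i` are at distance at least `γ` (in the frame `B`) from the tiles
which do not meet them** -/
def Sep (T : Tiling Om ι) (i : ι) (B : E ≃ᵃ[ℝ] F) (γ : ℝ) : Prop :=
  ∀ x ∈ P (T.H i), ∀ l, Disjoint (T.cc x) (P (T.H l)) → ∀ y ∈ T.cc x, ∀ z ∈ P (T.H l),
    γ ≤ dist (B y) (B z)

theorem SP.mono {K0 : Set F} {𝒯 : Set (Set F)} {γ γ' : ℝ} (h : SP K0 𝒯 γ) (hγ : γ' ≤ γ) :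
    SP K0 𝒯 γ' :=
  ⟨fun a ha b hb => hγ.trans (h.1 a ha b hb), fun u hu Q hQ hd a ha b hb =>
    hγ.trans (h.2 u hu Q hQ hd a ha b hb)⟩

theorem Sep.mono {γ γ' : ℝ} (h : Sep T i B γ) (hγ : γ' ≤ γ) : Sep T i B γ' :=
  fun x hx l hd y hy z hz => hγ.trans (h x hx l hd y hy z hz)

theorem fcell_tile {W : Set F} (hW : B '' P (T.H i) ⊆ interior W) {x : E} (hx : x ∈ P (T.H i)) :
    fcell (stT T i B W) (B x) = B '' T.cc x := by
  have h1 : T.at_ x ⊆ star T i := fun l hl => ⟨x, hl, hx⟩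
  rw [fcell_eq (hW (mem_image_of_mem _ hx)) (T.sub i hx) h1, inter_eq_left]
  exact (image_mono (T.cc_sub_tile hx)).trans (hW.trans interior_subset)

theorem pos_dist {X : Type*} [PseudoMetricSpace X] {s t : Set X} (hs : IsCompact s)
    (ht : IsClosed t) (hst : Disjoint s t) : ∃ r > 0, ∀ x ∈ s, ∀ y ∈ t, r ≤ dist x y := by
  obtain ⟨r, hr, h⟩ := exists_pos_forall_lt_edist hs ht hst
  refine ⟨r, hr, fun x hx y hy => ?_⟩
  have h1 := (h x hx y hy).le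
  rw [edist_dist] at h1
  have h2 : ENNReal.ofReal (r : ℝ) ≤ ENNReal.ofReal (dist x y) := by
    rwa [ENNReal.ofReal_coe_nnreal]
  exact (ENNReal.ofReal_le_ofReal_iff dist_nonneg).1 h2

/-- one pair -/
theorem exists_SP {W : Set F} (hWc : IsClosed W) (hW : B '' P (T.H i) ⊆ interior W) :
    ∃ γ > 0, SP (B '' P (T.H i)) (stT T i B W) γ := by
  have hcpt : IsCompact (B '' P (T.H i)) := (T.cpt i).image (continuous_aff B)
  have hsub : B '' P (T.H i) ⊆ interior (⋃₀ stT T i B W) := by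
    rw [sUnion_stT, interior_inter, ← image_interior_aff]
    exact subset_inter (image_mono (sub_interior_Ust i)) hW
  obtain ⟨γ1, hγ1, h1⟩ := pos_dist hcpt isOpen_interior.isClosed_compl
    (disjoint_compl_right_iff_subset.2 hsub)
  -- finitely many cells and tiles
  set 𝒞 : Set (Set F) := {C | ∃ u ∈ B '' P (T.H i), C = fcell (stT T i B W) u} with h𝒞
  have h𝒞f : 𝒞.Finite := by
    refine ((T.finite_cells (T.cpt i) (T.sub i)).image fun C => B '' C).subset ?_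
    rintro C ⟨_, ⟨x, hx, rfl⟩, rfl⟩
    exact ⟨T.cc x, ⟨⟨x, T.sub i hx, rfl⟩, x, T.self_mem_cc x, hx⟩, (fcell_tile hW hx).symm⟩
  have hprod := h𝒞f.prod (stT_finite i B W (T := T))
  have hb : ∀ p : Set F × Set F, ∃ γ > 0, p.1 ∈ 𝒞 → p.2 ∈ stT T i B W → Disjoint p.1 p.2 →
      ∀ a ∈ p.1, ∀ b ∈ p.2, γ ≤ dist a b := by
    rintro ⟨C, Q⟩
    by_cases h : C ∈ 𝒞 ∧ Q ∈ stT T i B W ∧ Disjoint C Q
    · obtain ⟨⟨_, ⟨x, hx, rfl⟩, hC⟩, ⟨j, hj, hQ⟩, hd⟩ := h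
      have hCc : IsCompact C := by
        rw [hC, fcell_tile hW hx]
        exact (T.isCompact_cc (T.sub i hx)).image (continuous_aff B)
      have hQc : IsClosed Q := by
        rw [hQ]
        exact ((T.cpt j).image (continuous_aff B)).isClosed.inter hWc
      obtain ⟨γ, hγ, h2⟩ := pos_dist hCc hQc hd
      exact ⟨γ, hγ, fun _ _ _ => h2⟩
    · exact ⟨1, one_pos, fun h2 h3 h4 => absurd ⟨h2, h3, h4⟩ h⟩
  choose g hg h2 using hb
  obtain ⟨γ2, hγ2, h3⟩ := exists_lb hprod hg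
  refine ⟨min γ1 γ2, lt_min hγ1 hγ2, fun a ha b hb => (min_le_left _ _).trans (h1 a ha b hb), ?_⟩
  intro u hu Q hQ hd a ha b hb
  have hC : fcell (stT T i B W) u ∈ 𝒞 := ⟨u, hu, rfl⟩
  exact (min_le_right _ _).trans ((h3 (fcell (stT T i B W) u, Q) ⟨hC, hQ⟩).trans
    (h2 (fcell (stT T i B W) u, Q) hC hQ hd a ha b hb))

theorem SP.sep {W : Set F} (hW : B '' P (T.H i) ⊆ interior W) {γ : ℝ}
    (h : SP (B '' P (T.H i)) (stT T i B W) γ) : Sep T i B γ := by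
  intro x hx l hd y hy z hz
  have hyP : y ∈ P (T.H i) := T.cc_sub_tile hx hy
  by_cases hb : B z ∈ interior (⋃₀ stT T i B W)
  · have h1 := hb
    rw [sUnion_stT, interior_inter, ← image_interior_aff] at h1
    have h2 : z ∈ interior (Ust T i) := (B.injective.mem_set_image).1 h1.1
    have h3 : l ∈ star T i := at_sub_star h2 hz
    have h4 := fcell_tile hW hx
    refine h.2 (B x) (mem_image_of_mem _ hx) (B '' P (T.H l) ∩ W) ⟨l, h3, rfl⟩ ?_ (B y) ?_ (B z)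
      ⟨mem_image_of_mem _ hz, interior_subset h1.2⟩
    · rw [h4, Set.disjoint_left]
      rintro _ ⟨w, hw, rfl⟩ ⟨hw2, -⟩
      exact Set.disjoint_left.1 hd hw ((B.injective.mem_set_image).1 hw2)
    · rw [h4]
      exact mem_image_of_mem _ hy
  · exact h.1 (B y) (mem_image_of_mem _ hyP) (B z) hb

variable (E)

/-- **uniform separation for a finite list of pairs** -/
theorem sepsim (W : Set F) (hWc : IsClosed W) {𝒮 : Set (Set F × Set (Set F))} (h𝒮 : 𝒮.Finite) :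
    ∃ γ > 0, ∀ {Om : Set E} {ι : Type v} (T : Tiling Om ι) (i : ι) (B : E ≃ᵃ[ℝ] F),
      B '' P (T.H i) ⊆ interior W → (B '' P (T.H i), stT T i B W) ∈ 𝒮 → Sep T i B γ := by
  have key : ∀ p : Set F × Set (Set F), ∃ γ > 0,
      ∀ {Om : Set E} {ι : Type v} (T : Tiling Om ι) (i : ι) (B : E ≃ᵃ[ℝ] F),
      B '' P (T.H i) ⊆ interior W → (B '' P (T.H i), stT T i B W) = p → SP p.1 p.2 γ := by
    intro p
    by_cases hr : ∃ (Om : Set E) (ι : Type v) (T : Tiling Om ι) (i : ι) (B : E ≃ᵃ[ℝ] F),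
        B '' P (T.H i) ⊆ interior W ∧ (B '' P (T.H i), stT T i B W) = p
    · obtain ⟨Om, ι, T, i, B, h1, rfl⟩ := hr
      obtain ⟨γ, hγ, h⟩ := exists_SP hWc h1
      exact ⟨γ, hγ, fun _ _ _ _ _ => h⟩
    · exact ⟨1, one_pos, fun T i B h1 h2 => absurd ⟨_, _, T, i, B, h1, h2⟩ hr⟩
  choose g hg h using key
  obtain ⟨γ0, hγ0, h1⟩ := exists_lb h𝒮 hg
  exact ⟨γ0, hγ0, fun T i B hW hp => ((h _ T i B hW rfl).mono (h1 _ hp)).sep hW⟩

end pair

/-! ### good tiles -/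

variable {n : ℕ}

/-- **separation for a tile with inequalities in good form** -/
theorem sep_tile (E : Type u) [NormedAddCommGroup E] [NormedSpace ℝ E] [FiniteDimensional ℝ E]
    (𝒩 : Finset (Fin n → ℝ)) {d : ℕ} (hd : 0 < d)
    (h𝒩 : ∀ ν ∈ 𝒩, ∀ m, ∃ c : ℤ, ν m = c / d) (R : ℝ) :
    ∃ γ > 0, ∀ {Om : Set E} {ι : Type v} (T : Tiling Om ι) (i : ι)
      (χ : E ≃ᵃ[ℝ] (Fin n → ℝ)) (k : ℕ), Good T i χ k 𝒩 d R → Sep T i χ γ := by
  have hr : (0 : ℝ) < |R| + 2 := by positivity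
  obtain ⟨γ, hγ, h⟩ := sepsim.{u, v} E (closedBall (0 : Fin n → ℝ) (|R| + 2)) isClosed_closedBall
    (((lst_finite 𝒩 d (|R| + 2))).prod (lst_finite 𝒩 d (|R| + 2)).finite_subsets)
  refine ⟨γ, hγ, fun {Om ι} T i χ k hg => ?_⟩
  have hs : (0 : ℝ) < 2 ^ k := by positivity
  obtain ⟨x0, hx0⟩ := T.ne i
  have hx0' := I_sub_P _ hx0
  set z : Fin n → ℤ := fun m => ⌊χ x0 m⌋ with hz
  have hW' : (χ.trans (tz z)) '' P (T.H i) ⊆ Metric.ball (0 : Fin n → ℝ) (|R| + 2) := by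
    rintro _ ⟨y, hy, rfl⟩
    rw [mem_ball_zero_iff, pi_norm_lt_iff hr]
    intro m
    rw [AffineEquiv.trans_apply, tz_apply, Real.norm_eq_abs, abs_lt]
    have h1 := Int.floor_le (χ x0 m)
    have h2 := Int.lt_floor_add_one (χ x0 m)
    have h3 := abs_le.1 (hg.sz x0 hx0' y hy m)
    have h4 := le_abs_self R
    constructor <;> simp only [hz] <;> linarith
  have hW : (χ.trans (tz z)) '' P (T.H i) ⊆ interior (closedBall (0 : Fin n → ℝ) (|R| + 2)) :=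
    hW'.trans ball_subset_interior_closedBall
  have hmem : ∀ l, (P (T.H l) ∩ P (T.H i)).Nonempty →
      (χ.trans (tz z)) '' P (T.H l) ∩ closedBall (0 : Fin n → ℝ) (|R| + 2) ∈
        lst 𝒩 d (|R| + 2) := by
    rintro l ⟨y, hy1, hy2⟩
    exact mem_lst hs hd h𝒩 hr.le (hg.gf l ⟨y, hy1, hy2⟩)
      ⟨y, hy1, ball_subset_closedBall (hW' (mem_image_of_mem _ hy2))⟩
  have h0 : Sep T i (χ.trans (tz z)) γ := by
    refine h T i (χ.trans (tz z)) hW ⟨?_, ?_⟩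
    · have h1 := hmem i ⟨x0, hx0', hx0'⟩
      rwa [inter_eq_left.2 (hW'.trans ball_subset_closedBall)] at h1
    · rintro Q ⟨j, hj, rfl⟩
      exact hmem j hj
  intro x hx l hdj y hy w hw
  have h1 := h0 x hx l hdj y hy w hw
  have e : (χ.trans (tz z)) y - (χ.trans (tz z)) w = χ y - χ w := by
    funext m
    rw [Pi.sub_apply, Pi.sub_apply, AffineEquiv.trans_apply, AffineEquiv.trans_apply, tz_apply,
      tz_apply]
    ring
  rwa [dist_eq_norm, e, ← dist_eq_norm] at h1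

/-- **separation for good tiles, finite list of lists** -/
theorem sep_goods (E : Type u) [NormedAddCommGroup E] [NormedSpace ℝ E] [FiniteDimensional ℝ E]
    {Ls : Set (Finset (Fin n → ℝ) × ℕ)} (hLs : Ls.Finite) (hpos : ∀ p ∈ Ls, 0 < p.2)
    (hrat : ∀ p ∈ Ls, ∀ ν ∈ p.1, ∀ m, ∃ c : ℤ, ν m = c / p.2) (R : ℝ) :
    ∃ γ > 0, ∀ {Om : Set E} {ι : Type v} (T : Tiling Om ι) (t : ι)
      (χ : E ≃ᵃ[ℝ] (Fin n → ℝ)) (k : ℕ), ∀ p ∈ Ls, Good T t χ k p.1 p.2 R → Sep T t χ γ := by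
  have key : ∀ p : Finset (Fin n → ℝ) × ℕ, ∃ γ > 0, p ∈ Ls →
      ∀ {Om : Set E} {ι : Type v} (T : Tiling Om ι) (t : ι)
      (χ : E ≃ᵃ[ℝ] (Fin n → ℝ)) (k : ℕ), Good T t χ k p.1 p.2 R → Sep T t χ γ := by
    intro p
    by_cases hp : p ∈ Ls
    · obtain ⟨γ, hγ, h⟩ := sep_tile.{u, v} E p.1 (hpos p hp) (hrat p hp) R
      exact ⟨γ, hγ, fun _ => h⟩
    · exact ⟨1, one_pos, fun h => absurd h hp⟩
  choose g hg h using key
  obtain ⟨γ0, hγ0, h1⟩ := exists_lb hLs hg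
  exact ⟨γ0, hγ0, fun T t χ k p hp hgd => (h p hp T t χ k hgd).mono (h1 _ hp)⟩

end Crest.Agent.R096.Shp_432
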