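import Crest.Agent.R096.Shp4_432
import Crest.Agent.R096.Shp5_432
import Crest.Agent.R096.Gsc2_476
import Crest.Agent.R096.Ncl1_476

/-!
# Row 96 (helper432): the geometry of one tile of a block of `h.T a` off the wall, at its true scale
(helper476's `scl`): size, lengths of the 1-cells, separation, number of the closed cells
-/

set_option autoImplicit false
set_option linter.unusedSectionVars false

open Set Metric MeasureTheory Filter
open scoped ENNReal Topology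

namespace Crest.Agent.R096.Shp_432

open Crest.AnalysisR.VecCalc3 Crest.AnalysisR.Sobolev
open Crest.Agent.R096.Msh_715 Crest.Agent.R096.Mal_874 Crest.Agent.R096.Cut_874
open Crest.Agent.R096.Msh_810 Crest.Agent.R096.Gsm_432 Crest.Agent.R096.Msb_432
open Crest.Agent.R096.Gsc_476
open Crest.Agent.R096.Ncl_476 (simL_cfg_ncard)

universe w

/-- **geometry of one tile** in the frame `ψ` at the scale `s` -/
structure GeoT {E : Type*} [NormedAddCommGroup E] [NormedSpace ℝ E] {n : ℕ} {Om : Set E}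
    {ι : Type*} (T : Tiling Om ι) (t : ι) (ψ : E ≃L[ℝ] (Fin n → ℝ)) (s : ℕ) (D μ γ : ℝ)
    (nE : ℕ) : Prop where
  /-- size -/
  sz : ∀ x ∈ P (T.H t), ∀ y ∈ P (T.H t), ‖ψ (y - x)‖ ≤ D / 2 ^ s
  /-- lengths of the 1-cells -/
  len : ∀ x ∈ P (T.H t), ∀ e1 e2, T.cc x = segment ℝ e1 e2 → e1 ≠ e2 →
    μ / 2 ^ s ≤ ‖ψ (e2 - e1)‖
  /-- a closed cell of the tile and a tile which does not meet it are separated -/
  sep : ∀ x ∈ P (T.H t), ∀ l, Disjoint (T.cc x) (P (T.H l)) → ∀ y ∈ T.cc x, ∀ z ∈ P (T.H l),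
    γ / 2 ^ s ≤ ‖ψ (z - y)‖
  cfin : (cfg T t).Finite
  card : (cfg T t).ncard ≤ nE

section block

variable {n : ℕ} [NeZero n] {E : Type*} [NormedAddCommGroup E] [NormedSpace ℝ E]
variable {J : Type*} (M : MD E n J) {k : J → ℕ} (hk : M.Sc k) (a : Fin n → ℝ)
  {v : J → E} (hv : M.Adm v)

/-- `in_good` with the true scale -/
theorem in_goodK (X : RD M) (RPx : RP X a v k) {j : J} {t : {t // t ∉ cores M hk a hv} ⊕ CIx M}
    (hN : P ((meshS M hk a hv).H t) ⊆ (M.Bk v j).N)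
    (hw : Disjoint (P ((meshS M hk a hv).H t)) (frontier (M.Bk v j).N)) :
    ∃ κ, scl M hk a hv t ≤ κ ∧ κ ≤ scl M hk a hv t + 1 ∧ Good (meshS M hk a hv) t
      (chi (M.Q j).ψ (M.Bk v j).a' κ) κ (NB n (X.B j)) 1 (max 2 (X.R j)) := by
  obtain ⟨x0, hx0⟩ := (meshS M hk a hv).ne t
  have hx0' := I_sub_P _ hx0
  rcases t with ⟨t, ht⟩ | c
  · rcases t with p | ⟨l, i⟩
    · exact absurd (M.outer_touch hk a hv p hx0' (hN hx0')) (Set.disjoint_left.1 hw hx0')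
    · obtain rfl : l = j := by
        by_contra hne
        exact Set.disjoint_left.1 (N_disj hk a hv hne) (i.2 hx0') (hN hx0')
      have hi : i ≠ M.core hk a hv l := by
        rintro rfl
        exact ht ⟨l, rfl⟩
      rcases M.inner_good hk a hv X RPx i hi with ⟨τ, hτ, -, hd, hg⟩ | ⟨hn, hg⟩ | ⟨-, hw', -⟩
      · have e : scl M hk a hv (Sum.inl ⟨Sum.inr ⟨l, i⟩, ht⟩) = τ.1.1.1.k := by
          show iscl (M.Bk v l) (k l) (hk.kc l) i.1 = _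
          rw [hτ]; rfl
        refine ⟨τ.1.1.1.k + 1, e.le.trans (Nat.le_succ _), Nat.succ_le_succ e.ge,
          good_old M hk a hv _
          (good_mono hg (N0_sub_NB (X.B1 l)) (le_max_left _ _)) fun c hc => ?_⟩
        exfalso
        obtain rfl := inner_same M hk a hv hc
        obtain ⟨x, hx1, hx2⟩ := hc
        exact Set.disjoint_left.1 hd hx2 (Kc_sub_bp _ (cubH_sub c hx1))
      · have e : scl M hk a hv (Sum.inl ⟨Sum.inr ⟨l, i⟩, ht⟩) = (M.Q l).kc := by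
          show iscl (M.Bk v l) (k l) (hk.kc l) i.1 = (M.Bk v l).kc
          obtain ⟨x, hx⟩ := (M.mesh hk a hv).ne (Sum.inr ⟨l, i⟩)
          have hx := I_sub_P _ hx
          have h1 := hn x hx
          have hx2 : x ∈ P (((M.Bk v l).T (k l) (hk.kc l)).H i.1) := hx
          rcases hi1 : i.1 with τ | s
          · rw [hi1] at hx2
            exact (M.Bk v l).near_k (k l) (hk.kc l) (τ := τ.1) hx2 h1
          · rfl
        refine ⟨(M.Q l).kc, e.le, e.ge.trans (Nat.le_succ _), good_old M hk a hv _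
          (good_mono hg subset_rfl (le_max_right _ _)) fun c hc => ?_⟩
        obtain rfl := inner_same M hk a hv hc
        exact gf_cube one_pos (fr_self _ _ _ (N0_sub_NB (X.B1 _)) 1) le_rfl _
      · obtain ⟨y, hy1, hy2⟩ := hw'
        exact absurd hy2 (Set.disjoint_left.1 hw hy1)
  · obtain ⟨l, z⟩ := c
    obtain rfl : l = j := by
      by_contra hne
      exact Set.disjoint_left.1 (N_disj hk a hv hne) (Kc_sub_N _ (cubH_sub (M := M) ⟨l, z⟩ hx0'))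
        (hN hx0')
    exact ⟨(M.Q l).kc, le_rfl, Nat.le_succ _,
      good_mono (cube_goodS M hk a hv X ⟨l, z⟩) subset_rfl
        (le_trans (by norm_num) (le_max_left _ _))⟩

/-- a good tile has the geometry `GeoT` -/
theorem geo_of_good [FiniteDimensional ℝ E] {Om : Set E} {ι : Type*} {T : Tiling Om ι} {t : ι}
    {ψ : E ≃L[ℝ] (Fin n → ℝ)} {a' : Fin n → ℝ} {κ s : ℕ} (h1 : s ≤ κ) (h2 : κ ≤ s + 1)
    {𝒩 : Finset (Fin n → ℝ)} {d : ℕ} {R : ℝ} (hR : 0 ≤ R) (hd : 0 < d)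
    (h𝒩 : ∀ ν ∈ 𝒩, ∀ m, ∃ c : ℤ, ν m = c / d)
    (hg : Good T t (chi ψ a' κ) κ 𝒩 d R) {μ γ : ℝ} (hμ : 0 ≤ μ) (hγ : 0 ≤ γ)
    (hlen : ∀ x ∈ P (T.H t), ∀ e1 e2, T.cc x = segment ℝ e1 e2 → e1 ≠ e2 →
      μ ≤ ‖(chi ψ a' κ).linear (e2 - e1)‖)
    (hsep : Sep T t (chi ψ a' κ) γ) :
    GeoT T t ψ s R (μ / 2) (γ / 2) (shpT 𝒩 d R).ncard := by
  have hp2 : (0 : ℝ) < 2 ^ κ := by positivity
  have hs1 : (2 : ℝ) ^ s ≤ 2 ^ κ := pow_le_pow_right₀ (by norm_num) h1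
  have hs2 : (2 : ℝ) ^ κ ≤ 2 * 2 ^ s := by
    rw [← pow_succ']
    exact pow_le_pow_right₀ (by norm_num) h2
  have hlow : ∀ {c x : ℝ}, 0 ≤ c → c ≤ 2 ^ κ * x → c / 2 / 2 ^ s ≤ x := by
    intro c x hc hcx
    have hx : 0 ≤ x := by
      by_contra hcon
      push Not at hcon
      nlinarith
    rw [div_div, div_le_iff₀ (by positivity)]
    nlinarith [mul_le_mul_of_nonneg_right hs2 hx]
  obtain ⟨z, hz⟩ := hg.sim hd h𝒩
  have hc := simL_cfg_ncard (h := hz)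
  refine ⟨?_, ?_, ?_, ?_, ?_⟩
  · intro x hx y hy
    rw [pi_norm_le_iff_of_nonneg (by positivity)]
    intro m
    have h3 := hg.sz x hx y hy m
    rw [chi_apply, chi_apply] at h3
    rw [le_div_iff₀ (by positivity), map_sub, Pi.sub_apply, Real.norm_eq_abs]
    have e : ((2 : ℝ) ^ κ * (ψ y m - a' m) - 2 ^ κ * (ψ x m - a' m)) =
        (ψ y m - ψ x m) * 2 ^ κ := by ring
    rw [e, abs_mul, abs_of_pos hp2] at h3
    exact (mul_le_mul_of_nonneg_left hs1 (abs_nonneg _)).trans h3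
  · intro x hx e1 e2 he hne
    have h3 := hlen x hx e1 e2 he hne
    rw [chi_lin] at h3
    exact hlow hμ h3
  · intro x hx l hl y hy w hw
    have h3 := hsep x hx l hl y hy w hw
    rw [dist_eq_norm, lin_sub, chi_lin] at h3
    have e : ψ (y - w) = -ψ (w - y) := by rw [← map_neg, neg_sub]
    rw [e, norm_neg] at h3
    exact hlow hγ h3
  · exact hc.1
  · exact hc.2

end block

/-- **the geometry of the tiles of `meshS` inside a block, off the wall**: constants of the shell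
only, true scale -/
theorem geo_in (E : Type) [NormedAddCommGroup E] [NormedSpace ℝ E] [FiniteDimensional ℝ E] (n : ℕ)
    [NeZero n] (B0 : ℕ) (R0 : ℝ) :
    ∃ (μ γ : ℝ) (nE : ℕ), 0 < μ ∧ 0 < γ ∧ ∀ {J : Type w} (M : MD E n J)
      {k : J → ℕ} (hk : M.Sc k) (a : Fin n → ℝ) {v : J → E} (hv : M.Adm v) (X : RD M),
      RP X a v k → ∀ j, X.B j ≤ B0 → X.R j ≤ R0 →
      ∀ t, P ((meshS M hk a hv).H t) ⊆ (M.Bk v j).N →
        Disjoint (P ((meshS M hk a hv).H t)) (frontier (M.Bk v j).N) →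
        GeoT (meshS M hk a hv) t (M.Q j).ψ (scl M hk a hv t) (max 2 R0) μ γ nE := by
  have hLs : ({(NB n B0, 1)} : Set (Finset (Fin n → ℝ) × ℕ)).Finite := finite_singleton _
  have hpos : ∀ p ∈ ({(NB n B0, 1)} : Set (Finset (Fin n → ℝ) × ℕ)), 0 < p.2 := by
    rintro p rfl
    exact one_pos
  have hrat : ∀ p ∈ ({(NB n B0, 1)} : Set (Finset (Fin n → ℝ) × ℕ)), ∀ ν ∈ p.1, ∀ m,
      ∃ c : ℤ, ν m = c / p.2 := by
    rintro p rfl
    exact NB_rat B0 one_pos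
  have hR0 : (0 : ℝ) ≤ max 2 R0 := le_trans (by norm_num) (le_max_left _ _)
  obtain ⟨μ, hμ, hlen⟩ := len_goods.{0, w} hLs hpos hrat (max 2 R0)
  obtain ⟨γ, hγ, hsep⟩ := sep_goods.{0, w} E hLs hpos hrat (max 2 R0)
  refine ⟨μ / 2, γ / 2, (shpT (NB n B0) 1 (max 2 R0)).ncard, half_pos hμ, half_pos hγ,
    fun {J} M {k} hk a {v} hv X RPx j hB hR t hN hw => ?_⟩
  obtain ⟨κ, h1, h2, hg0⟩ := in_goodK M hk a hv X RPx hN hw
  have hg := good_mono hg0 (NB_mono hB) (max_le_max le_rfl hR)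
  exact geo_of_good h1 h2 hR0 one_pos (NB_rat B0 one_pos) hg hμ.le hγ.le
    (hlen (meshS M hk a hv) t _ κ (NB n B0, 1) rfl hg)
    (hsep (meshS M hk a hv) t _ κ (NB n B0, 1) rfl hg)

/-! ### the mesh `h.T a` -/

theorem GeoT.re {E : Type*} [NormedAddCommGroup E] [NormedSpace ℝ E] [FiniteDimensional ℝ E]
    {n : ℕ} {Om Om' : Set E} (h : Om = Om') {ι : Type*} {T : Tiling Om ι} {t : ι}
    {ψ : E ≃L[ℝ] (Fin n → ℝ)} {s : ℕ} {D μ γ : ℝ} {nE : ℕ} (hT : GeoT T t ψ s D μ γ nE) :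
    GeoT (reOm T h) t ψ s D μ γ nE := by
  subst h
  exact hT

section

open Crest.Agent.R096.Ca_855
open Crest.Agent.R096.Ca_855.MIn (BQ)

variable {Om W : Set R3} {ρ₀ : R3 → ℝ} {J : Type} [Finite J] {Qb : J → CB R3 3} {k0 : ℕ} {σ : ℝ}

/-- the true scale of a tile of `h.T a` -/
noncomputable def scT (h : MIn Om W ρ₀ Qb k0 σ) (a : R3) (t : h.ιT a) : ℕ :=
  scl h.M h.sc (0 + h.M.φ (h.cl a)) (h.adm a) t

theorem Bk_cl (h : MIn Om W ρ₀ Qb k0 σ) {a : R3} (ha : ‖a‖ ≤ σ / 8) (j : J) :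
    h.M.Bk (fun _ => h.cl a) j = (Qb j).tr a := by
  show (Qb j).tr (h.cl a) = (Qb j).tr a
  rw [h.cl_eq ha]

/-- neighbours -/
theorem scT_nbr (h : MIn Om W ρ₀ Qb k0 σ) {a : R3} {t t' : h.ιT a}
    (ht : (P ((h.T a).H t) ∩ P ((h.T a).H t')).Nonempty) : scT h a t' ≤ scT h a t + 1 :=
  scl_nbr h.M h.sc (0 + h.M.φ (h.cl a)) (h.adm a) ht

theorem scT_nbr' (h : MIn Om W ρ₀ Qb k0 σ) {a : R3} {t t' : h.ιT a}
    (ht : (P ((h.T a).H t) ∩ P ((h.T a).H t')).Nonempty) : scT h a t ≤ scT h a t' + 1 :=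
  scT_nbr h (by rwa [inter_comm])

/-- a tile of scale `< k0` does not meet the walls -/
theorem T_off_wall (h : MIn Om W ρ₀ Qb k0 σ) {a : R3} (ha : ‖a‖ ≤ σ / 8) (j : J) {t : h.ιT a}
    (hs : scT h a t < k0) : Disjoint (P ((h.T a).H t)) (frontier ((Qb j).tr a).N) := by
  rw [← Bk_cl h ha j]
  exact off_wall h.M h.sc (0 + h.M.φ (h.cl a)) (h.adm a) (j := j) hs

/-- the neighbours of a tile of block `j` of scale `< k0` lie in the block -/
theorem T_nbr_in (h : MIn Om W ρ₀ Qb k0 σ) {a : R3} (ha : ‖a‖ ≤ σ / 8) {j : J} {t t' : h.ιT a}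
    (hN : P ((h.T a).H t) ⊆ ((Qb j).tr a).N) (hs : scT h a t < k0)
    (ht : (P ((h.T a).H t) ∩ P ((h.T a).H t')).Nonempty) :
    P ((h.T a).H t') ⊆ ((Qb j).tr a).N := by
  rw [← Bk_cl h ha j] at hN ⊢
  exact nbr_in h.M h.sc (0 + h.M.φ (h.cl a)) (h.adm a) hN hs ht

/-- scales of the tiles of a block -/
theorem scT_mem (h : MIn Om W ρ₀ Qb k0 σ) {a : R3} (ha : ‖a‖ ≤ σ / 8) {j : J} {t : h.ιT a}
    (hN : P ((h.T a).H t) ⊆ ((Qb j).tr a).N) : (Qb j).kc ≤ scT h a t ∧ scT h a t ≤ k0 := by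
  rw [← Bk_cl h ha j] at hN
  exact scl_mem h.M h.sc (0 + h.M.φ (h.cl a)) (h.adm a) hN

/-- **the geometry of the tiles of `h.T a` inside a block, off the wall**, at the true scale; the
constants depend only on `Bs` -/
theorem geo_T (Bs : ℕ) : ∃ (D μ γ : ℝ) (nE : ℕ), 0 < D ∧ 0 < μ ∧ 0 < γ ∧
    ∀ {κ : ℝ}, 0 < κ → κ ≤ 1 → ∀ {Om W : Set R3} {ρ₀ : R3 → ℝ} {J : Type} [Finite J]
      {Qb : J → CB R3 3} {k0 Nn : ℕ} {σ : ℝ} (h : MIn Om W ρ₀ Qb k0 σ),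
      (∀ j, BQ κ Bs Nn (Qb j) k0) → ∀ {a : R3}, ‖a‖ ≤ σ / 8 → ∀ (j : J) (t : h.ιT a),
      P ((h.T a).H t) ⊆ ((Qb j).tr a).N → Disjoint (P ((h.T a).H t)) (frontier ((Qb j).tr a).N) →
      GeoT (h.T a) t (Qb j).ψ (scT h a t) D μ γ nE := by
  obtain ⟨μ, γ, nE, hμ, hγ, H⟩ := geo_in.{0} R3 3 (max 1 Bs) (max 1 (Bs:ℝ))
  refine ⟨max 2 (max 1 (Bs:ℝ)), μ, γ, nE, lt_of_lt_of_le (by norm_num) (le_max_left _ _), hμ, hγ,
    ?_⟩
  intro κ hκ hκ1 Om W ρ₀ J _ Qb k0 Nn σ h hb a ha j t hN hW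
  rw [← Bk_cl h ha j] at hN hW
  exact GeoT.re h.dom (H h.M h.sc (0 + h.M.φ (h.cl a)) (h.adm a) (h.X hκ hκ1 hb)
    (h.rp hκ hκ1 hb a) j le_rfl le_rfl t hN hW)

end

end Crest.Agent.R096.Shp_432
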