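import Crest.Agent.R096.H2n5_821
import Crest.Agent.R096.Dps1_476
import Crest.Agent.R096.Shp6_432

/-!
Row 96 (S0127), `p ≤ 2`, COMPOSITE B, (O1)(D4) (helper821): **`nearE_T`**: the near-tube parameters of the
pieces of a long edge of a block, in 855's mesh `h.T a`.
-/

set_option autoImplicit false
set_option linter.style.longLine false
set_option linter.unusedSectionVars false

namespace Crest.Agent.R096.H2a_821

open MeasureTheory Set Filter Topology Metric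
open Crest.AnalysisR.VecCalc3
open Crest.Agent.R096.Msh_715 (P I Tiling)
open Crest.Agent.R096.Mal_874 (CB)
open Crest.Agent.R096.Sq_55 (E3 Sys w2 GG GG_mono)
open Crest.Agent.R096.Cob_622
open Crest.Agent.R096.Efi_296
open Crest.Agent.R096.Cbs_296
open Crest.Agent.R096.Sqt_143 (sg Edge DeepS)
open Crest.Agent.R096.Oi_961
open Crest.Agent.R096.Ca_855
open Crest.Agent.R096.Ca_855.MIn (BQ)
open Crest.Agent.R096.Gsc_476
open Crest.Agent.R096.Dps_476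
open Crest.Agent.R096.Shp_432 (geo_T T_off_wall)
open scoped ENNReal NNReal

noncomputable section

/-- **(D4) in `h.T a`**; `Dd` is the structural size of the tiles -/
theorem nearE_T (Bs : ℕ) : ∃ Dd : ℝ, 0 < Dd ∧ ∀ {κ : ℝ}, 0 < κ → κ ≤ 1 →
    ∀ {Om W : Set R3} {ρ₀ : R3 → ℝ} {J : Type} [Finite J]
      {Qb : J → CB R3 3} {k0 Nn : ℕ} {σ : ℝ} (h : MIn Om W ρ₀ Qb k0 σ),
      (∀ j, BQ κ Bs Nn (Qb j) k0) → ∀ {a : R3}, ‖a‖ ≤ σ / 8 → ∀ {j : J} {K1 K3 : ℕ}, 1 ≤ K3 →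
      K3 + 1 ≤ K1 →
    -- the system
    ∀ {s : Finset (h.ιT a)} {pr : (Te (h.T a)).Cell → Prop} {c : h.ιT a → E3}
      {R u : h.ιT a → ℝ≥0} {X : Sys s (reps (Te (h.T a)) s pr)},
      SysOf (Te (h.T a)) s pr c R (ρS (Te (h.T a)) R) (mS (Te (h.T a)) s pr u) X →
      (∀ (i : h.ιT a) (x a' v : E3) (w : ℝ≥0), i ∈ s → x ∈ P ((Te (h.T a)).H i) →
        (Te (h.T a)).dim x = 1 → (Te (h.T a)).cc x = segment ℝ a' (a' + v) → 1 ≤ w →
        (∀ k ∈ s, (P ((Te (h.T a)).H k) ∩ P ((Te (h.T a)).H i)).Nonempty →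
          u k ≤ w ∧ R k ≤ w * R i ∧ R i ≤ w * R k) →
        Edge X a' v (R i / (8 * w^9)) (8 * w^9 / R i) ⌊w⌋₊) →
    -- sizes and shape numbers
    ∀ {κt : h.ιT a → ℕ}, (∀ t, κt t ≤ sclT h a t + 1) → (∀ t, R t = ((2:ℝ≥0) ^ κt t)⁻¹) →
      (∀ k l, (P ((h.T a).H k) ∩ P ((h.T a).H l)).Nonempty → R k ≤ u k * R l ∧ R l ≤ u k * R k) →
    ∀ {vI : ℝ≥0}, 1 ≤ vI → (∀ t ∈ deepJ h a j K3, u t ≤ vI) →
    ∀ {uu : ℝ} {C : Set R3} {nb : ℕ},
      DeepS (h.T a) s pr R (mS (Te (h.T a)) s pr u) (ρS (Te (h.T a)) R) uu C (GG vI) nb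
        (deepJ h a j K1) →
    ∀ {cu : ℝ}, 0 ≤ cu → uu ≤ cu / 2 ^ k0 →
      16 * (vI:ℝ)^9 * (1 + 4 * ((GG vI : ℝ) * GG vI)) * cu ≤ 2 ^ K1 →
    ∀ {nw : ℕ}, (nb + nb * nb) * ⌊vI⌋₊ + 2 ≤ nw →
    ∀ {Cb : ℝ}, 8 * (vI:ℝ)^9 * (1 + 4 * ((GG vI : ℝ) * GG vI)) * (8 * Dd / κ) ≤ Cb →
    ∀ {e : R3 × R3} {m' : ℕ} {t : ℕ → ℝ},
      (∀ i < m', ∃ c : EgS (Te (h.T a)) s, c.1.set = pce e t i) →
      (∀ i < m', ∀ l, (P ((Te (h.T a)).H l) ∩ pce e t i).Nonempty → l ∈ deepJ h a j K1) →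
    NearE X (npS X (mS (Te (h.T a)) s pr u) uu nw Cb) nw Cb e m' t := by
  obtain ⟨Dd, μ, γ, nE, hDd, -, -, H⟩ := geo_T Bs
  refine ⟨Dd, hDd, ?_⟩
  intro κ hκ hκ1 Om W ρ₀ J _ Qb k0 Nn σ h hb a ha j K1 K3 hK3 hK1 s pr c R u X hX hEd κt hκt hR hR2
    vI hvI hu uu C nb hD cu hcu huu hsm nw hnw Cb hCb e m' t hcell hdeep
  have hmeet : ∀ {k i : h.ιT a}, (P ((Te (h.T a)).H k) ∩ P ((Te (h.T a)).H i)).Nonempty →
      (P ((h.T a).H k) ∩ P ((h.T a).H i)).Nonempty := by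
    rintro k i ⟨x, h1, h2⟩
    exact ⟨w2 x, mem_P_Te.1 h1, mem_P_Te.1 h2⟩
  have hRr : ∀ t, ((R t : ℝ≥0) : ℝ) = ((2:ℝ) ^ κt t)⁻¹ := by
    intro t; rw [hR]; push_cast; rfl
  have hvI0 : (0:ℝ) < vI := lt_of_lt_of_le one_pos (by exact_mod_cast hvI)
  refine nearE_deep hX hEd hD (Sq_55.one_le_GG vI) hvI ?_ ?_ (vR := 8 * Dd / κ) ?_ hnw hCb hcell
    hdeep
  · -- neighbours of deep tiles
    intro i hi k _ hki
    have hki' := hmeet hki
    have hik' : (P ((h.T a).H i) ∩ P ((h.T a).H k)).Nonempty := by rwa [inter_comm]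
    have h1 : i ∈ deepJ h a j (K3 + 1) := ⟨hi.1, by have := hi.2; omega⟩
    have h2 : k ∈ deepJ h a j K3 := nbr_deepJ h ha hK3 h1 hik'
    have h3 : i ∈ deepJ h a j K3 := ⟨hi.1, by have := hi.2; omega⟩
    obtain ⟨h4, h5⟩ := hR2 i k hik'
    exact ⟨hu k h2, h5.trans (by gcongr; exact hu i h3), h4.trans (by gcongr; exact hu i h3)⟩
  · -- the radius
    intro i hi
    rw [hRr]
    have hp : (0:ℝ) < 2 ^ κt i := by positivity
    have hp0 : (0:ℝ) < 2 ^ k0 := by positivity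
    have h3 : 2 ^ K1 * (2:ℝ) ^ κt i ≤ 2 * 2 ^ k0 := by
      rw [← pow_add, ← pow_succ']
      have := hi.2
      have := hκt i
      exact pow_le_pow_right₀ one_le_two (by omega)
    have h4 : (1 + 4 * ((GG vI : ℝ) * GG vI)) * uu ≤
        (1 + 4 * ((GG vI : ℝ) * GG vI)) * (cu / 2 ^ k0) := by gcongr
    refine h4.trans ?_
    have h5 := mul_le_mul_of_nonneg_right hsm hp.le
    rw [← one_div, div_div, le_div_iff₀ (by positivity), ← mul_div_assoc, div_mul_eq_mul_div,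
      div_le_one hp0]
    nlinarith
  · -- the sizes
    intro i hi y hy z hz
    have hlt : sclT h a i < k0 := by have := hi.2; omega
    have h1 := (H hκ hκ1 h hb ha j i hi.1 (T_off_wall h ha j hlt)).sz y hy z hz
    have h2 := ((hb j).cnd (z - y)).1
    have h3 : ((2:ℝ) ^ (sclT h a i))⁻¹ ≤ 2 * ((R i : ℝ≥0) : ℝ) := by
      rw [hRr]
      have h5 : (2:ℝ) ^ κt i ≤ 2 * 2 ^ sclT h a i := by
        rw [← pow_succ']
        exact pow_le_pow_right₀ one_le_two (hκt i)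
      rw [← one_div, ← one_div, mul_one_div, div_le_div_iff₀ (by positivity) (by positivity)]
      linarith
    have h4 : ‖(Qb j).ψ (z - y)‖ ≤ Dd * (2 * ((R i : ℝ≥0) : ℝ)) := by
      refine h1.trans ?_
      rw [div_eq_mul_inv]
      exact mul_le_mul_of_nonneg_left h3 hDd.le
    have h6 : κ / 4 * ‖z - y‖ ≤ Dd * (2 * ((R i : ℝ≥0) : ℝ)) := h2.trans h4
    have h7 : 8 * Dd / κ * ((R i : ℝ≥0) : ℝ) = (Dd * (2 * ((R i : ℝ≥0) : ℝ))) / (κ / 4) := by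
      field_simp; ring
    rw [h7, le_div_iff₀ (by positivity)]
    linarith

end

end Crest.Agent.R096.H2a_821
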