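import Crest.Agent.R096.Lnk2_726

/-!
Row 96 (S0127), helper726.  (D3) of 961's list: **the M-edges (segment in the core) are LONG**; an edge without
a point in the wall zone is LONG; the numbers.
-/

set_option autoImplicit false
set_option linter.unusedSectionVars false

open Set Metric Topology Filter

namespace Crest.Agent.R096.Lnk_726

open Crest.AnalysisR.VecCalc3 Crest.AnalysisR.Sobolev
open Crest.Agent.R096.Msh_715 Crest.Agent.R096.Mal_874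
open Crest.Agent.R096.Gsc_476 Crest.Agent.R096.Sht_726
open Crest.Agent.R096.Ca_855
open Crest.Agent.R096.Ca_855.MIn (BQ)
open Crest.Agent.R096.Pin_753 (Ed BlkP)
open Crest.Agent.R96.En10_199 (P3)
open Crest.Agent.R096.Sq_55 (w2)
open Crest.Agent.R096.She_227 (sE)

/-- the core is far from the wall -/
theorem not_NW_Kc {n : ℕ} [NeZero n] {E : Type*} [NormedAddCommGroup E] [NormedSpace ℝ E] (Q : CB E n)
    {k N : ℕ} (hk : Q.kc + N ≤ k) {y : E} (hy : y ∈ Q.Kc) : ¬ NW Q k N y := by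
  intro h
  have h1 := Q.near_infDist (y := y) (near_mono (by norm_num)
    (Q.near_of_bp (Crest.Agent.R096.Msb_432.Kc_sub_bp Q hy)))
  have h2 : (6 + 1) / 2 ^ Q.kc ≤ (6 : ℝ) * 2 ^ N / 2 ^ k := h1.trans h
  rw [div_le_div_iff₀ (by positivity) (by positivity)] at h2
  have h3 : (2 : ℝ) ^ Q.kc * 2 ^ N ≤ 2 ^ k := by
    rw [← pow_add]
    exact pow_le_pow_right₀ (by norm_num) hk
  have h4 : (0 : ℝ) < 2 ^ k := by positivity
  nlinarith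

/-- the sets of 961's list: the deep tiles of the block `j` -/
def DT {Om W : Set R3} {ρ₀ : R3 → ℝ} {J : Type} [Finite J] {Qb : J → CB R3 3} {k0 : ℕ} {σ : ℝ}
    (h : MIn Om W ρ₀ Qb k0 σ) (a : R3) (j : J) (K1 : ℕ) : Set (h.ιT a) :=
  {t | P ((h.T a).H t) ⊆ ((Qb j).tr a).N ∧ sclT h a t + K1 ≤ k0}

/-- **LONG edges**: all tiles at the zone of radius `cz / 2 ^ k0` are deep -/
def Lg {Om W : Set R3} {ρ₀ : R3 → ℝ} {J : Type} [Finite J] {Qb : J → CB R3 3} {k0 : ℕ} {σ : ℝ}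
    (h : MIn Om W ρ₀ Qb k0 σ) (a : R3) (j : J) (K1 : ℕ) (r : ℝ) (e : R3 × R3) : Prop :=
  ∀ t : h.ιT a, (P ((h.T a).H t) ∩ w2 '' cthickening r (sE e)).Nonempty → t ∈ DT h a j K1

/-- **an edge without a point in the wall zone is LONG** (`lnk1`), and the **M-edges are LONG** (D3) -/
theorem long_M {κ : ℝ} (hκ : 0 < κ) (K1 : ℕ) {cz : ℝ} (hcz : 0 ≤ cz) : ∃ N : ℕ,
    ∀ {Om W : Set R3} {ρ₀ : R3 → ℝ} {J : Type} [Finite J]
      {Qb : J → CB R3 3} {k0 Bs Nn : ℕ} {σ : ℝ} (h : MIn Om W ρ₀ Qb k0 σ) {a : R3}, ‖a‖ ≤ σ / 8 →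
      ∀ (j : J), BQ κ Bs Nn (Qb j) k0 → (Qb j).kc + K1 < k0 →
      ∀ {e : R3 × R3}, e ∈ Ed ((Qb j).tr a) k0 (h.hk j) →
      (¬ Lg h a j K1 (cz / 2 ^ k0) e → ∃ y ∈ segment ℝ e.1 e.2, NW ((Qb j).tr a) k0 N y) ∧
      ((Qb j).kc + N ≤ k0 → segment ℝ e.1 e.2 ⊆ ((Qb j).tr a).Kc →
        Lg h a j K1 (cz / 2 ^ k0) e) := by
  obtain ⟨N, hN⟩ := lnk1 hκ K1 hcz
  refine ⟨N, ?_⟩
  intro Om W ρ₀ J _ Qb k0 Bs Nn σ h a ha j hb hK e he
  have key : ¬ Lg h a j K1 (cz / 2 ^ k0) e → ∃ y ∈ segment ℝ e.1 e.2, NW ((Qb j).tr a) k0 N y := by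
    intro h1
    unfold Lg at h1
    push Not at h1
    obtain ⟨t, ht, htD⟩ := h1
    exact hN h ha j hb hK he t ht htD
  refine ⟨key, fun hkN hKc => ?_⟩
  by_contra hcon
  obtain ⟨y, hy, hNW⟩ := key hcon
  exact not_NW_Kc ((Qb j).tr a) hkN (hKc hy) hNW

/-- the numbers: the scale of the block against the outer scale -/
theorem kc_lt {κ s τ hh c1 θ0 θ1 : ℝ} {Bs Nn : ℕ} {z : R3} {Q : CB R3 3} {k0 : ℕ}
    (hb : BlkP κ s τ hh c1 θ0 θ1 Bs Nn z Q k0) (hs : 0 < s) {K : ℕ} (hθ : 2 ^ K * θ0 < c1) :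
    Q.kc + K < k0 := by
  have h1 := hb.cellL
  have h2 := hb.hi
  have h3 : (2 : ℝ) ^ K / 2 ^ k0 < 1 / 2 ^ Q.kc := by
    calc (2 : ℝ) ^ K / 2 ^ k0 = 2 ^ K * (1 / 2 ^ k0) := by ring
      _ ≤ 2 ^ K * (θ0 * s) := mul_le_mul_of_nonneg_left h2 (by positivity)
      _ = (2 ^ K * θ0) * s := by ring
      _ < c1 * s := mul_lt_mul_of_pos_right hθ hs
      _ ≤ _ := h1
  rw [div_lt_div_iff₀ (by positivity) (by positivity), one_mul, ← pow_add] at h3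
  have h4 := (pow_lt_pow_iff_right₀ (by norm_num : (1 : ℝ) < 2)).1 h3
  omega

/-- the radius of the zone -/
theorem zone_eq (κ M : ℝ) (k0 : ℕ) :
    25 * M ^ 4 * (4 * κ⁻¹ / (5 * 2 ^ k0)) = 20 * M ^ 4 * κ⁻¹ / 2 ^ k0 := by
  have : (0 : ℝ) < 2 ^ k0 := by positivity
  field_simp
  ring

end Crest.Agent.R096.Lnk_726
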