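import Crest.Agent.R096.H2n1_821
import Crest.Agent.R096.Cob8_622

/-!
Row 96 (S0127), `p ≤ 2`, COMPOSITE B, leaf [C3] of helper622 #11695 (helper821), part 2:
**`h2a_cob`: (h2a) of [L1] for one long edge from the conclusion (N) of `cob_main`**, with uniform bounds
for the numbers of the near tubes.
-/

set_option autoImplicit false
set_option linter.style.longLine false

namespace Crest.Agent.R096.H2a_821

open MeasureTheory Set Filter Topology Metric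
open Crest.AnalysisR.VecCalc3 Crest.AnalysisR.Sobolev
open Crest.Agent.R96.Lu_538
open Crest.Agent.R096.Sk_962 (SH)
open Crest.Agent.R096.Mal_874 (CB)
open Crest.Agent.R096.Pin_753
open Crest.Agent.R096.Sq_55
open Crest.Agent.R096.Fub_216
open Crest.Agent.R096.Cob_622
open Crest.Agent.R096.Sqt_143 (sg isCompact_sg CT)
open scoped ENNReal NNReal

noncomputable section

/-- the uniform bounds for the near tubes at one edge: the tube `r` belongs to the piece `[a, a + v']` of the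
edge and to the cell `k` -/
structure TubB {κX ιX : Type*} [Fintype κX] [Fintype ιX] (X : Sys κX ιX) {Om : Set R3}
    {G : Fin 3 → R3 → R3} {p : ℝ} {Φ : R3 → R3} {α β : Type*} [Fintype β]
    (T : TubN X Om G p Φ α β) (k : κX) (a v' : Fin 3 → ℝ) (L : R3 →L[ℝ] R3)
    (u M Cb CTM JJ : ℝ) (nw : ℕ) : Prop where
  k_eq : T.k = k
  sg_eq : sg T.a T.v = sg a v'
  v_eq : T.v = v' ∨ T.v = -v'
  L_eq : T.L = L
  u_eq : T.u = u
  nW_le : nW X T.a T.v T.n ≤ nw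
  b_le : T.b0 * (1 + 4 * (T.m * T.m)) * ‖T.v‖ ≤ Cb
  b_nn : 0 ≤ T.b0 * (1 + 4 * (T.m * T.m)) * ‖T.v‖
  m_le : (X.m k : ℝ) ≤ M
  CT_le : CT p (X.m k) ≤ CTM
  J_le : Jt T.D T.k (sg T.a T.v) T.u ≤ ENNReal.ofReal JJ

set_option maxHeartbeats 1000000 in
/-- **[C3]: (h2a) from the conclusion (N) of `cob_main`** -/
theorem h2a_cob {Q : CB R3 3} {k0 : ℕ} {p : ℝ} (hp : 1 ≤ p) {Om La : Set R3} (hOm : IsOpen Om)
    {g : R3 → R3} {G Gg G2 : Fin 3 → R3 → R3} {R : R3 → R3} (hg : SH p Om La g Gg)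
    (hRg : SH p Om La (fun x => R (g x)) G2) {ψ : Fin 3 → ℝ → ℝ} {σ : ℝ} (hσ : 0 ≤ σ)
    (hm : ∀ a, Monotone (ψ a)) (hL : ∀ a x y, |ψ a x - ψ a y| ≤ |x - y|)
    (h0 : ∀ a x, 0 ≤ ψ a x) (h1 : ∀ a x, ψ a x ≤ σ) {O : Set R3}
    (hR : ∀ y ∈ O, ∀ a, R y a = y a - ψ a (y a))
    {κ : ℝ} (hκ : 0 < κ) (cnd1 : ∀ v, κ / 4 * ‖v‖ ≤ ‖Q.ψ v‖)
    (cnd2 : ∀ v, ‖Q.ψ v‖ ≤ 4 * κ⁻¹ * ‖v‖) {x v : R3} (hv : v ≠ 0)
    (hT : cthickening (4 * κ⁻¹ / (5 * 2 ^ k0)) (sg (w2.symm x) (w2.symm v)) ⊆ w2 ⁻¹' Om)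
    (hO : ∀ z ∈ cthickening (4 * κ⁻¹ / (5 * 2 ^ k0)) (sg (w2.symm x) (w2.symm v)), g (w2 z) ∈ O)
    (L : R3 →L[ℝ] R3) (hLn : ‖L‖ ≤ κ⁻¹)
    -- the system and its near tubes
    {κX ιX : Type*} [Fintype κX] [Fintype ιX] {X : Sys κX ιX} {Φ : R3 → R3} {Υ₂ : Type*}
    {α₂ β₂ : Type*} [Fintype α₂] [Fintype β₂] (t2 : Υ₂ → TubN X Om G p Φ α₂ β₂) {ε : ℝ≥0∞}
    (hcob : ∀ i, ∫⁻ x in (X.C (t2 i).k).P ∩ cthickening (t2 i).u (sg (t2 i).a (t2 i).v),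
          ‖Gmat Gg (w2 x) (w2 (t2 i).v) - (t2 i).L (w2 (t2 i).v)‖ₑ ^ p ≤
        ENNReal.ofReal ((2 * (2113 * (X.m (t2 i).k : ℝ)^4 * ‖w2 (t2 i).v‖))^p) *
          (ENNReal.ofReal (CT p (X.m (t2 i).k)) *
            Jt (t2 i).D (t2 i).k (sg (t2 i).a (t2 i).v) (t2 i).u +
          ‖(t2 i).L‖ₑ ^ p * (nW X (t2 i).a (t2 i).v (t2 i).n *
            ENNReal.ofReal ((2 * ((1 + (t2 i).b0 * (1 + 4 * ((t2 i).m * (t2 i).m)) *
              ‖(t2 i).v‖) * (t2 i).u))^3))) + ε)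
    -- the pieces, the cells and the bounds
    {m : ℕ} {t : ℕ → ℝ} (ht0 : t 0 = 0) (htm : t m = 1) (ht : ∀ i < m, t i < t (i + 1))
    (s : ℕ → Finset κX)
    (hcov : ∀ i < m, cthickening (4 * κ⁻¹ / (5 * 2 ^ k0)) (sg (w2.symm x + t i • w2.symm v)
      ((t (i + 1) - t i) • w2.symm v)) ⊆ ⋃ k ∈ s i, (X.C k).P)
    {M Cb CTM CJ θ η₁ : ℝ} {np nc nw : ℕ} (_hM : 0 ≤ M) (hCb : 0 ≤ Cb) (hCT : 0 ≤ CTM)
    (hCJ : 0 ≤ CJ) (hη₁ : 0 ≤ η₁) (hmn : m ≤ np) (hs : ∀ i < m, (s i).card ≤ nc)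
    (hB : ∀ i < m, ∀ k ∈ s i, ∃ r : Υ₂, TubB X (t2 r) k (w2.symm x + t i • w2.symm v)
      ((t (i + 1) - t i) • w2.symm v) L (4 * κ⁻¹ / (5 * 2 ^ k0)) M Cb CTM
      (CJ * (4 * κ⁻¹ / (5 * 2 ^ k0)) ^ 2 * ‖v‖ * η₁ ^ p) nw)
    -- the numbers
    {κw : ℝ} {n : ℕ} {η : ℝ} (hη : 0 ≤ η) (hsm : 7 * (η * ‖v‖) + 3 * σ ≤ κw * ‖v‖ / (512 * n))
    (hθ : 1 / 2 ^ k0 ≤ θ * ‖v‖)
    (n1 : A1 p κ (4226 * M ^ 4) Cb np nc nw * θ ≤ η ^ p / 3)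
    (n2 : A2 p κ (4226 * M ^ 4) CTM CJ np nc * η₁ ^ p ≤ η ^ p / 3)
    (n3 : (ENNReal.ofReal (12800 * 4 ^ k0 / (κ ^ 4 * ‖v‖)) *
      ∑ i ∈ Finset.range m, ∑ _k ∈ s i, ENNReal.ofReal (((t (i + 1) - t i) ^ p)⁻¹)) * ε ≤
        ENNReal.ofReal ((η * ‖v‖) ^ p / 3)) :
    ∫⁻ w in Tw Q k0, ∫⁻ τ in Icc (0:ℝ) 1, ‖Gmat G2 (x + w + τ • v) v - L v‖ₑ ≤
      ENNReal.ofReal (κw * ‖v‖ / (512 * n)) * volume (Tw Q k0) := by
  have hp0 : 0 ≤ p := by linarith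
  have hv' : 0 < ‖v‖ := norm_pos_iff.2 hv
  set u : ℝ := 4 * κ⁻¹ / (5 * 2 ^ k0) with hu
  have hu0 : 0 ≤ u := by positivity
  have hK0 : (0:ℝ) ≤ 4226 * M ^ 4 := by positivity
  have hηp : 0 ≤ η₁ ^ p := Real.rpow_nonneg hη₁ p
  have hκp : 0 ≤ κ⁻¹ ^ p := Real.rpow_nonneg (inv_nonneg.2 hκ.le) p
  set JJ : ℝ≥0∞ := ENNReal.ofReal (CTM * (CJ * u ^ 2 * ‖v‖ * η₁ ^ p)) +
    ENNReal.ofReal (κ⁻¹ ^ p * (nw * (2 * ((1 + Cb) * u)) ^ 3)) with hJJ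
  refine h2a_of_N hp hOm hg hRg hσ hm hL h0 h1 hR hκ cnd1 cnd2 le_rfl hv hT hO L ht0 htm ht
    (PP := fun k => (X.C k).P) s hcov hK0 (fun _ _ => JJ) (fun _ _ => ε) ?_ hη hsm ?_
  · intro i hi k hk
    obtain ⟨r, b⟩ := hB i hi k hk
    have key := hcob r
    obtain ⟨b1, b2, b3, b4, b5, b6, b7, b8, b9, b10, b11⟩ := b
    generalize hJt : Jt (t2 r).D (t2 r).k (sg (t2 r).a (t2 r).v) (t2 r).u = JT at key b11
    have b4' : ∀ y, (t2 r).L y = L y := fun y => by rw [b4]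
    have b4'' : ‖(t2 r).L‖ₑ = ‖L‖ₑ := by rw [b4]
    simp only [b4', b4''] at key
    rw [b2, b1, b5] at key
    have e1 : ∀ z, ‖Gmat Gg (w2 z) (w2 ((t (i + 1) - t i) • w2.symm v)) -
        L (w2 ((t (i + 1) - t i) • w2.symm v))‖ₑ = ‖Gmat Gg (w2 z) (w2 (t2 r).v) -
          L (w2 (t2 r).v)‖ₑ := by
      intro z
      rcases b3 with h | h
      · rw [h]
      · have hneg : w2 (-((t (i + 1) - t i) • w2.symm v)) =
            -w2 ((t (i + 1) - t i) • w2.symm v) := rfl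
        rw [h, hneg, map_neg, map_neg, ← neg_sub', enorm_neg]
    have e2 : ‖w2 (t2 r).v‖ = ‖w2 ((t (i + 1) - t i) • w2.symm v)‖ := by
      rcases b3 with h | h
      · rw [h]
      · have hneg : w2 (-((t (i + 1) - t i) • w2.symm v)) =
            -w2 ((t (i + 1) - t i) • w2.symm v) := rfl
        rw [h, hneg, norm_neg]
    simp_rw [e1]
    refine key.trans ?_
    refine add_le_add ?_ le_rfl
    rw [e2]
    refine mul_le_mul' (ENNReal.ofReal_le_ofReal (Real.rpow_le_rpow (by positivity) ?_ hp0))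
      (add_le_add ?_ ?_)
    · have h4 : (X.m k : ℝ) ^ 4 ≤ M ^ 4 := pow_le_pow_left₀ (by positivity) b9 4
      have h5 := mul_le_mul_of_nonneg_right h4
        (norm_nonneg (w2 ((t (i + 1) - t i) • w2.symm v)))
      linarith
    · rw [ENNReal.ofReal_mul hCT]
      exact mul_le_mul' (ENNReal.ofReal_le_ofReal b10) b11
    · rw [ENNReal.ofReal_mul hκp]
      refine mul_le_mul' ?_ ?_
      · rw [← ENNReal.ofReal_rpow_of_nonneg (inv_nonneg.2 hκ.le) hp0]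
        refine ENNReal.rpow_le_rpow ?_ hp0
        rw [← ofReal_norm]
        exact ENNReal.ofReal_le_ofReal hLn
      · rw [ENNReal.ofReal_mul (Nat.cast_nonneg nw), ENNReal.ofReal_natCast]
        refine mul_le_mul' (by exact_mod_cast b6) (ENNReal.ofReal_le_ofReal ?_)
        refine pow_le_pow_left₀ (by positivity) ?_ 3
        gcongr
  · exact hnum_of hκ hK0 hCb hCT hCJ hv' hη hη₁ hθ n1 n2 hmn hs
      (J := fun _ _ => JJ) (fun i hi k hk => le_rfl) n3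

end

end Crest.Agent.R096.H2a_821
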