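import Crest.Agent.R096.Tmap1_212
import Crest.Agent.R096.Pin1_753
import Crest.Agent.R096.Er1_594

/-!
Row 96 (S0127), helper212.  **[TMAP]**, part 2: `Ed`, `Ly`, `Tw`, `Rt` of a core block `Q : CB E3 3`
(`Ea0_961`) against those of `mp P3 Q : CB R3 3` (`Pin_753`), with room for a small shift.
-/

set_option autoImplicit false
set_option linter.unusedSectionVars false
set_option linter.style.longLine false

open Set Filter Metric Topology MeasureTheory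
open scoped ENNReal NNReal

namespace Crest.Agent.R096.Tmap_212

open Crest.AnalysisR.VecCalc3
open Crest.Agent.R096.Msh_715 Crest.Agent.R096.Msh_810
open Crest.Agent.R096.Mal_874
open Crest.Agent.R096.SkC1_961 (E3)
open Crest.Agent.R96.En10_199 (P3)
open Crest.Agent.R096.Er_594 (vol_P3 norm_P3_le norm_le_P3 norm_le_P3_symm)

section
variable {n : ℕ} {E F : Type*} [NormedAddCommGroup E] [NormedSpace ℝ E]
  [NormedAddCommGroup F] [NormedSpace ℝ F] (e : E ≃L[ℝ] F) (Q : CB E n)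

theorem rt_mp {φ : E ≃L[ℝ] (Fin n → ℝ)} {B : Fin n → Fin n → ℤ} {d : ℕ} :
    Rt (e.symm.trans φ) (mp e Q).ψ B d ↔ Rt φ Q.ψ B d := by
  constructor
  · intro h y m
    have := h (e y) m
    simpa using this
  · intro h y m
    exact h (e.symm y) m

end

/-- `Rt` for `P3.symm` and for the identity -/
theorem rt_P3 (Q : CB E3 3) {B : Fin 3 → Fin 3 → ℤ} {d : ℕ} :
    Rt P3.symm (mp P3 Q).ψ B d ↔ Rt (ContinuousLinearEquiv.refl ℝ E3) Q.ψ B d := by
  constructor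
  · intro h y m
    have h1 := h (P3 y) m
    rw [mp_ψ, P3.symm_apply_apply] at h1
    exact h1
  · intro h y m
    exact h (P3.symm y) m

variable (Q : CB E3 3) (k0 : ℕ) (hk : Q.kc ≤ k0)

/-- the edges correspond -/
theorem mem_Ed {u v : R3} : (u, v) ∈ Pin_753.Ed (mp P3 Q) k0 hk ↔
    (P3.symm u, P3.symm v) ∈ Ea0_961.Ed Q k0 hk := by
  have hs : ∀ (a b : R3) (S : Set E3), segment ℝ a b = P3 '' S ↔
      segment ℝ (P3.symm a) (P3.symm b) = S := by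
    intro a b S
    have h1 : P3 '' segment ℝ (P3.symm a) (P3.symm b) = segment ℝ a b := by
      have := image_segment ℝ (P3 : E3 →ₗ[ℝ] R3).toAffineMap (P3.symm a) (P3.symm b)
      have e1 : ∀ x, (P3 : E3 →ₗ[ℝ] R3).toAffineMap x = P3 x := fun _ => rfl
      simp only [e1, P3.apply_symm_apply] at this
      exact this
    rw [← h1]
    exact ⟨fun h => P3.injective.image_injective h, fun h => by rw [h]⟩
  constructor
  · rintro ⟨x, hx, hcc, hsub⟩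
    refine ⟨P3.symm x, ?_, ?_, ?_⟩
    · rw [← T_dim' P3 Q k0 hk]
      exact hx
    · have h1 := T_cc P3 Q k0 hk (P3.symm x)
      rw [P3.apply_symm_apply] at h1
      have h2 : segment ℝ u v = P3 '' (Q.T k0 hk).cc (P3.symm x) := by
        rw [← h1]
        exact hcc.symm
      exact ((hs _ _ _).1 h2).symm
    · intro y hy
      have h1 : P3 y ∈ segment ℝ u v := by
        have h2 := (hs u v (segment ℝ (P3.symm u) (P3.symm v))).2 rfl
        rw [h2]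
        exact ⟨y, hy, rfl⟩
      have h3 := hsub h1
      rwa [mem_N_mp' P3 Q] at h3
  · rintro ⟨x, hx, hcc, hsub⟩
    refine ⟨P3 x, ?_, ?_, ?_⟩
    · rw [T_dim P3 Q k0 hk]
      exact hx
    · rw [T_cc P3 Q k0 hk]
      exact ((hs u v _).2 hcc.symm).symm
    · intro y hy
      rw [mem_N_mp]
      have h2 := (hs u v (segment ℝ (P3.symm u) (P3.symm v))).2 rfl
      rw [show segment ℝ (u, v).1 (u, v).2 = segment ℝ u v from rfl, h2] at hy
      obtain ⟨z, hz, rfl⟩ := hy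
      rw [P3.symm_apply_apply]
      exact hsub hz

/-- the edges correspond, as an equivalence -/
def edE : Ea0_961.Ed Q k0 hk ≃ Pin_753.Ed (mp P3 Q) k0 hk where
  toFun e := ⟨(P3 e.1.1, P3 e.1.2), by
    rw [mem_Ed, P3.symm_apply_apply, P3.symm_apply_apply]
    exact e.2⟩
  invFun e := ⟨(P3.symm e.1.1, P3.symm e.1.2), (mem_Ed Q k0 hk).1 e.2⟩
  left_inv e := by
    apply Subtype.ext
    change (P3.symm (P3 e.1.1), P3.symm (P3 e.1.2)) = e.1
    rw [P3.symm_apply_apply, P3.symm_apply_apply]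
  right_inv e := by
    apply Subtype.ext
    change (P3 (P3.symm e.1.1), P3 (P3.symm e.1.2)) = e.1
    rw [P3.apply_symm_apply, P3.apply_symm_apply]

@[simp] theorem edE_fst (e : Ea0_961.Ed Q k0 hk) : (edE Q k0 hk e).1.1 = P3 e.1.1 := rfl

@[simp] theorem edE_snd (e : Ea0_961.Ed Q k0 hk) : (edE Q k0 hk e).1.2 = P3 e.1.2 := rfl

theorem tsum_Ed (g : R3 × R3 → ℝ≥0∞) :
    ∑' e : Pin_753.Ed (mp P3 Q) k0 hk, g e.1 =
      ∑' e : Ea0_961.Ed Q k0 hk, g (P3 e.1.1, P3 e.1.2) :=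
  ((edE Q k0 hk).tsum_eq fun e => g e.1).symm

/-- the core in the two spaces -/
theorem seg_Kc {u v : E3} : segment ℝ (P3 u) (P3 v) ⊆ (mp P3 Q).Kc ↔ segment ℝ u v ⊆ Q.Kc := by
  have h1 : P3 '' segment ℝ u v = segment ℝ (P3 u) (P3 v) :=
    image_segment ℝ (P3 : E3 →ₗ[ℝ] R3).toAffineMap u v
  rw [← h1, image_subset_iff, pre_Kc_mp]

/-- **the translations**: a translation of `Ea0` plus a small shift is a translation of `Pin` -/
theorem tw_sub {w v : E3} (hw : w ∈ Ea0_961.Tw Q k0) (hv : ‖Q.ψ v‖ ≤ 1 / (10 * 2 ^ k0)) :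
    P3 (w + v) ∈ Pin_753.Tw (mp P3 Q) k0 := by
  change ‖(mp P3 Q).ψ (P3 (w + v))‖ ≤ 1 / (5 * 2 ^ k0)
  rw [mp_ψ, P3.symm_apply_apply, map_add]
  have h1 : ‖Q.ψ w‖ ≤ 1 / (10 * 2 ^ k0) := by
    rw [pi_norm_le_iff_of_nonneg (by positivity)]
    intro l
    have := hw l
    rw [Real.norm_eq_abs, abs_of_nonneg this.1]
    exact this.2
  have h2 : (1 : ℝ) / (5 * 2 ^ k0) = 1 / (10 * 2 ^ k0) + 1 / (10 * 2 ^ k0) := by
    field_simp
    norm_num
  rw [h2]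
  exact (norm_add_le _ _).trans (add_le_add h1 hv)

/-- **the layer** -/
theorem ly_sub {y v v' : E3} (hy : y ∈ Ea0_961.Ly (Q.tr v') k0) (hv : ‖Q.ψ (v' - v)‖ ≤ 20 / 2 ^ k0) :
    P3 y ∈ Pin_753.Ly ((mp P3 Q).tr (P3 v)) k0 := by
  obtain ⟨z, hz, h1⟩ := hy
  have hz' : z - v' ∈ frontier Q.N := (Q.frontier_N_tr v').1 hz
  refine ⟨P3 (z - v' + v), ?_, ?_⟩
  · rw [(mp P3 Q).frontier_N_tr (P3 v), ← map_sub, mem_frontier_mp', add_sub_cancel_right]
    exact hz'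
  · change ‖Q.ψ (P3.symm (P3 y)) - Q.ψ (P3.symm (P3 (z - v' + v)))‖ ≤ 40 / 2 ^ k0
    rw [P3.symm_apply_apply, P3.symm_apply_apply]
    have e1 : Q.ψ y - Q.ψ (z - v' + v) = (Q.ψ y - Q.ψ z) + Q.ψ (v' - v) := by
      simp only [map_add, map_sub]
      abel
    have h2 : (40 : ℝ) / 2 ^ k0 = 20 / 2 ^ k0 + 20 / 2 ^ k0 := by ring
    rw [e1, h2]
    exact (norm_add_le _ _).trans (add_le_add h1 hv)

/-- volume of a cube in the frame -/
theorem vol_cube (c : Fin 3 → ℝ) {r : ℝ} (hr : 0 ≤ r) :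
    volume {w : E3 | ∀ l, c l ≤ Q.ψ w l ∧ Q.ψ w l ≤ c l + r} =
      ENNReal.ofReal (|(Q.ψ.symm : (Fin 3 → ℝ) →L[ℝ] E3).det| * r ^ 3) := by
  have h1 : {w : E3 | ∀ l, c l ≤ Q.ψ w l ∧ Q.ψ w l ≤ c l + r} =
      (Q.ψ.symm : (Fin 3 → ℝ) →L[ℝ] E3) '' (Set.pi univ fun l => Icc (c l) (c l + r)) := by
    ext w
    constructor
    · intro hw
      exact ⟨Q.ψ w, fun l _ => hw l, Q.ψ.symm_apply_apply w⟩
    · rintro ⟨u, hu, rfl⟩ l
      have := hu l (mem_univ l)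
      change c l ≤ Q.ψ (Q.ψ.symm u) l ∧ Q.ψ (Q.ψ.symm u) l ≤ c l + r
      rw [Q.ψ.apply_symm_apply]
      exact this
  have h2 : (Set.pi univ fun l => Icc (c l) (c l + r)) = Icc c (fun l => c l + r) :=
    Set.pi_univ_Icc _ _
  rw [h1, h2, Measure.addHaar_image_continuousLinearMap, Real.volume_Icc_pi]
  have h3 : ∏ l : Fin 3, ENNReal.ofReal ((fun l => c l + r) l - c l) = ENNReal.ofReal (r ^ 3) := by
    simp only [add_sub_cancel_left, Finset.prod_const, Finset.card_univ, Fintype.card_fin]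
    rw [ENNReal.ofReal_pow hr]
  rw [h3, ENNReal.ofReal_mul (abs_nonneg _)]

/-- the volume of the translations of `Ea0` -/
theorem vol_Tw (k0 : ℕ) : volume (Ea0_961.Tw Q k0) =
    ENNReal.ofReal (|(Q.ψ.symm : (Fin 3 → ℝ) →L[ℝ] E3).det| * (1 / (10 * 2 ^ k0)) ^ 3) := by
  rw [← vol_cube Q 0 (by positivity : (0 : ℝ) ≤ 1 / (10 * 2 ^ k0))]
  congr 1
  ext w
  exact forall_congr' fun l => by simp

/-- the volume of the translations of `Pin` -/
theorem vol_TwP (k0 : ℕ) : volume (Pin_753.Tw (mp P3 Q) k0) =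
    ENNReal.ofReal (|(Q.ψ.symm : (Fin 3 → ℝ) →L[ℝ] E3).det| * (2 / (5 * 2 ^ k0)) ^ 3) := by
  rw [← vol_P3, ← vol_cube Q (fun _ => -(1 / (5 * 2 ^ k0)))
    (by positivity : (0 : ℝ) ≤ 2 / (5 * 2 ^ k0))]
  congr 1
  ext w
  change ‖Q.ψ (P3.symm (P3 w))‖ ≤ 1 / (5 * 2 ^ k0) ↔ _
  rw [P3.symm_apply_apply, pi_norm_le_iff_of_nonneg (by positivity)]
  refine forall_congr' fun l => ?_
  rw [Real.norm_eq_abs, abs_le]
  have e1 : -(1 / (5 * 2 ^ k0)) + 2 / (5 * 2 ^ k0) = 1 / (5 * (2 : ℝ) ^ k0) := by ring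
  rw [e1]

/-- `vol Tw (Pin) = 64 vol Tw (Ea0)` -/
theorem vol_Tw64 (k0 : ℕ) : volume (Pin_753.Tw (mp P3 Q) k0) = 64 * volume (Ea0_961.Tw Q k0) := by
  rw [vol_Tw, vol_TwP, show (64 : ℝ≥0∞) = ENNReal.ofReal 64 by norm_num,
    ← ENNReal.ofReal_mul (by norm_num)]
  congr 1
  ring

/-- **the bad translations**: 1/256 of `Pin` is 1/4 of `Ea0`, after a small shift -/
theorem tw_bad {G : Set R3} {v : E3} (hv : ‖Q.ψ v‖ ≤ 1 / (10 * 2 ^ k0))
    (hG : volume (Pin_753.Tw (mp P3 Q) k0 \ G) ≤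
      ENNReal.ofReal (1 / 256) * volume (Pin_753.Tw (mp P3 Q) k0)) :
    volume (Ea0_961.Tw Q k0 \ {w | P3 (w + v) ∈ G}) ≤
      ENNReal.ofReal (1 / 4) * volume (Ea0_961.Tw Q k0) := by
  have h1 : Ea0_961.Tw Q k0 \ {w | P3 (w + v) ∈ G} ⊆
      (fun w => w + v) ⁻¹' (P3 ⁻¹' (Pin_753.Tw (mp P3 Q) k0 \ G)) := by
    rintro w ⟨hw, hn⟩
    exact ⟨tw_sub Q k0 hw hv, hn⟩
  calc volume (Ea0_961.Tw Q k0 \ {w | P3 (w + v) ∈ G})
      ≤ volume ((fun w => w + v) ⁻¹' (P3 ⁻¹' (Pin_753.Tw (mp P3 Q) k0 \ G))) := measure_mono h1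
    _ = volume (Pin_753.Tw (mp P3 Q) k0 \ G) := by
        rw [measure_preimage_add_right, vol_P3]
    _ ≤ ENNReal.ofReal (1 / 256) * (64 * volume (Ea0_961.Tw Q k0)) := by
        rw [← vol_Tw64]
        exact hG
    _ = ENNReal.ofReal (1 / 4) * volume (Ea0_961.Tw Q k0) := by
        rw [← mul_assoc, show (64 : ℝ≥0∞) = ENNReal.ofReal 64 by norm_num,
          ← ENNReal.ofReal_mul (by norm_num)]
        norm_num

end Crest.Agent.R096.Tmap_212
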