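import Crest.Agent.R096.Ine3_222
import Crest.Agent.R096.Tmap2_212
import Crest.Agent.R096.Mal19_874
import Crest.Agent.R096.Skc1_565

/-!
Row 96 (S0127), helper726.  **[CNT]**: the sum of the cubes of the lengths of the 1-cells of the tiling of a
core block is at most a structural constant times the volume of the block without the core.
-/

set_option autoImplicit false
set_option linter.unusedSectionVars false

open MeasureTheory Set Filter Metric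
open scoped Topology ENNReal NNReal

namespace Crest.Agent.R096.Cnt_726

open Crest.Agent.R096.Msh_715 Crest.Agent.R096.Mal_874 Crest.Agent.R096.Ncl_476
open Crest.Agent.R096.Ine_222
open Crest.Agent.R096.SkC1_961 (E3)
open Crest.Agent.R96.Sg1_199 (sgm sgm_eq_segment)
open Crest.Agent.R096.Ls_222 (Edg ea ev eIn mem_eIn sgm_edg ev_ne)
open Crest.Agent.R096.EaX_766 (lin)

/-! ### tilings -/

section gen

variable {E : Type*} [NormedAddCommGroup E] [NormedSpace ℝ E] [FiniteDimensional ℝ E]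
  {Om : Set E} {ι : Type*}

/-- a point which is not in an open tile lies in another tile -/
theorem exists_other (T : Tiling Om ι) {x : E} (hx : x ∈ Om) (i : ι)
    (hd : T.dim x < Module.finrank ℝ E) : ∃ j ∈ T.at_ x, j ≠ i := by
  by_contra hcon
  push Not at hcon
  obtain ⟨r, hr, hrO, hsub⟩ := T.exists_ball hx
  have h1 : ball x r ⊆ P (T.H i) := by
    intro y hy
    obtain ⟨j, hj⟩ := T.cov y (hrO hy)
    have := hcon j (hsub y hy hj)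
    exact this ▸ hj
  have h2 : x ∈ I (T.H i) := by
    rw [← Nr_527.interior_P' (T.ne i)]
    exact mem_interior.2 ⟨ball x r, h1, isOpen_ball, mem_ball_self hr⟩
  have h3 := (T.V_eq_top_iff hx).2 ⟨i, h2⟩
  unfold Tiling.dim at hd
  rw [h3, finrank_top] at hd
  exact lt_irrefl _ hd

/-- the edge of a pair -/
theorem pair_edg {T : Tiling Om ι} {x p q : E} (hx : x ∈ Om) (hd : T.dim x = 1)
    (hcc : T.cc x = segment ℝ p q) (e : Edg T) (he : e.1 = T.cc x) :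
    (p = ea e ∧ q = ea e + ev e) ∨ (p = ea e + ev e ∧ q = ea e) := by
  have h1 : T.cc x = segment ℝ p (p + (q - p)) := by rw [hcc, add_sub_cancel]
  obtain ⟨hv, hp, hq, -⟩ := Skc_565.edge_ends hx hd h1
  rw [add_sub_cancel] at hq
  have h2 : T.cc x = segment ℝ (ea e) (ea e + ev e) := by
    rw [← he, ← sgm_edg e, sgm_eq_segment]
  obtain ⟨-, -, -, hoc⟩ := Skc_565.edge_ends hx hd h2
  have key : ∀ y, y ∈ T.cc x → T.dim y = 0 → y = ea e ∨ y = ea e + ev e := by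
    intro y hy h0
    rw [h2, ← insert_endpoints_openSegment, mem_insert_iff, mem_insert_iff] at hy
    rcases hy with h | h | h
    · exact Or.inl h
    · exact Or.inr h
    · exfalso
      have h3 := T.dim_eq_of_mem_oc hx (hoc ▸ h)
      omega
  have hpq : p ≠ q := fun h => hv (by rw [h, sub_self])
  rcases key p (hcc ▸ left_mem_segment ℝ p q) hp with h3 | h3 <;>
    rcases key q (hcc ▸ right_mem_segment ℝ p q) hq with h4 | h4
  · exact absurd (h3.trans h4.symm) hpq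
  · exact Or.inl ⟨h3, h4⟩
  · exact Or.inr ⟨h3, h4⟩
  · exact absurd (h3.trans h4.symm) hpq

end gen

/-! ### families of tiles -/

section fam

variable {Om : Set E3} {ι : Type*} {T : Tiling Om ι} {L : E3 →L[ℝ] E3} {𝒮 : Set (Set E3)}
  {O : Set ι} {s : ι → ℝ}

/-- the volumes of the tiles of a family -/
theorem sum_vol_le (T : Tiling Om ι) {O : Set ι} {N : Set E3} (hN : ∀ t ∈ O, I (T.H t) ⊆ N) :
    ∑' t : O, volume (P (T.H t.1)) ≤ volume N := by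
  rw [ENNReal.tsum_eq_iSup_sum]
  refine iSup_le fun F => ?_
  calc ∑ t ∈ F, volume (P (T.H t.1)) ≤ ∑ t ∈ F, volume (I (T.H t.1)) :=
        Finset.sum_le_sum fun t _ => vol_P_le (T.ne t.1)
    _ = volume (⋃ t ∈ F, I (T.H t.1)) := (measure_biUnion_finset
        (fun a _ b _ hab => T.dis a.1 b.1 fun h => hab (Subtype.ext h))
        fun t _ => (isOpen_I _).measurableSet).symm
    _ ≤ volume N := measure_mono (iUnion₂_subset fun t _ => hN t.1 t.2)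

/-- the edges of one tile -/
theorem count_one (h : Fam T L 𝒮 O s) {v : ℝ} (hv0 : 0 < v)
    (hv : ∀ S ∈ 𝒮, volume S ≠ 0 → ENNReal.ofReal v ≤ volume S) {t : ι} (ht : t ∈ O) :
    ∑ e ∈ eIn T t, ENNReal.ofReal (‖L (ev e)‖ ^ 3) ≤
      ((𝒮.ncard : ℕ) : ℝ≥0∞) * ENNReal.ofReal (Dsh 𝒮 ^ 3 / v) *
        (ENNReal.ofReal |L.det| * volume (P (T.H t))) := by
  have hs := h.pos t ht
  have hD := Dsh_nonneg 𝒮
  obtain ⟨B, hB, hS⟩ := h.fr t ht
  have hn : (eIn T t).card ≤ 𝒮.ncard := eIn_card_le h.fin hS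
  have h1 : ∀ e ∈ eIn T t, ENNReal.ofReal (‖L (ev e)‖ ^ 3) ≤
      ENNReal.ofReal (Dsh 𝒮 ^ 3 / v) * (ENNReal.ofReal |L.det| * volume (P (T.H t))) := by
    intro e he
    have h2 : ‖L (ev e)‖ ≤ s t * Dsh 𝒮 := by
      have h3 := h.size ht (mem_eIn.1 he (eb_mem e)) (mem_eIn.1 he (ea_mem e))
      rwa [add_sub_cancel_left] at h3
    calc ENNReal.ofReal (‖L (ev e)‖ ^ 3) ≤ ENNReal.ofReal ((s t * Dsh 𝒮) ^ 3) := by
          apply ENNReal.ofReal_le_ofReal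
          gcongr
      _ = ENNReal.ofReal (Dsh 𝒮 ^ 3 / v) * ENNReal.ofReal (s t ^ 3 * v) := by
          rw [← ENNReal.ofReal_mul (by positivity)]
          congr 1
          field_simp
      _ ≤ _ := mul_le_mul_right (h.vol_ge hv ht) _
  calc ∑ e ∈ eIn T t, ENNReal.ofReal (‖L (ev e)‖ ^ 3)
      ≤ ∑ _e ∈ eIn T t, ENNReal.ofReal (Dsh 𝒮 ^ 3 / v) *
        (ENNReal.ofReal |L.det| * volume (P (T.H t))) := Finset.sum_le_sum h1
    _ = ((eIn T t).card : ℝ≥0∞) * (ENNReal.ofReal (Dsh 𝒮 ^ 3 / v) *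
        (ENNReal.ofReal |L.det| * volume (P (T.H t)))) := by rw [Finset.sum_const, nsmul_eq_mul]
    _ ≤ ((𝒮.ncard : ℕ) : ℝ≥0∞) * (ENNReal.ofReal (Dsh 𝒮 ^ 3 / v) *
        (ENNReal.ofReal |L.det| * volume (P (T.H t)))) := by gcongr
    _ = _ := by rw [mul_assoc]

/-- **the edges of a family of tiles inside `N`** -/
theorem count_fam (h : Fam T L 𝒮 O s) {v : ℝ} (hv0 : 0 < v)
    (hv : ∀ S ∈ 𝒮, volume S ≠ 0 → ENNReal.ofReal v ≤ volume S) {N : Set E3}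
    (hN : ∀ t ∈ O, I (T.H t) ⊆ N) :
    ∑' e : {e : Edg T // ∃ t ∈ O, e ∈ eIn T t}, ENNReal.ofReal (‖L (ev e.1)‖ ^ 3) ≤
      ((𝒮.ncard : ℕ) : ℝ≥0∞) * ENNReal.ofReal (Dsh 𝒮 ^ 3 / v) *
        (ENNReal.ofReal |L.det| * volume N) := by
  classical
  set f : Edg T → ℝ≥0∞ := fun e => ENNReal.ofReal (‖L (ev e)‖ ^ 3) with hf
  have e1 : ∑' e : {e : Edg T // ∃ t ∈ O, e ∈ eIn T t}, f e.1 =
      ∑' e : Edg T, {e : Edg T | ∃ t ∈ O, e ∈ eIn T t}.indicator f e :=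
    tsum_subtype {e : Edg T | ∃ t ∈ O, e ∈ eIn T t} f
  have e2 : ∀ t : O, ∑ e ∈ eIn T t.1, f e = ∑' e : Edg T, if e ∈ eIn T t.1 then f e else 0 := by
    intro t
    rw [tsum_eq_sum (s := eIn T t.1) (fun e he => if_neg he)]
    exact Finset.sum_congr rfl fun e he => (if_pos he).symm
  calc ∑' e : {e : Edg T // ∃ t ∈ O, e ∈ eIn T t}, f e.1
      = ∑' e : Edg T, {e : Edg T | ∃ t ∈ O, e ∈ eIn T t}.indicator f e := e1
    _ ≤ ∑' e : Edg T, ∑' t : O, (if e ∈ eIn T t.1 then f e else 0) := by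
        refine ENNReal.tsum_le_tsum fun e => ?_
        by_cases hE : ∃ t ∈ O, e ∈ eIn T t
        · rw [indicator_of_mem (show e ∈ {e : Edg T | ∃ t ∈ O, e ∈ eIn T t} from hE)]
          obtain ⟨t, ht, he⟩ := hE
          refine le_trans (le_of_eq ?_) (ENNReal.le_tsum (⟨t, ht⟩ : O))
          rw [if_pos he]
        · rw [indicator_of_notMem (show e ∉ {e : Edg T | ∃ t ∈ O, e ∈ eIn T t} from hE)]
          exact zero_le
    _ = ∑' t : O, ∑ e ∈ eIn T t.1, f e := by rw [ENNReal.tsum_comm, tsum_congr e2]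
    _ ≤ ∑' t : O, ((𝒮.ncard : ℕ) : ℝ≥0∞) * ENNReal.ofReal (Dsh 𝒮 ^ 3 / v) *
        (ENNReal.ofReal |L.det| * volume (P (T.H t.1))) :=
        ENNReal.tsum_le_tsum fun t => count_one h hv0 hv t.2
    _ = ((𝒮.ncard : ℕ) : ℝ≥0∞) * ENNReal.ofReal (Dsh 𝒮 ^ 3 / v) *
        (ENNReal.ofReal |L.det| * ∑' t : O, volume (P (T.H t.1))) := by
        rw [ENNReal.tsum_mul_left, ENNReal.tsum_mul_left]
    _ ≤ _ := by
        gcongr
        exact sum_vol_le T hN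

theorem tsum_two {β : Type*} (F : β → ℝ≥0∞) : ∑' q : β × Bool, F q.1 = 2 * ∑' b, F b := by
  rw [ENNReal.tsum_prod (f := fun b (_ : Bool) => F b), ← ENNReal.tsum_mul_left]
  refine tsum_congr fun g => ?_
  rw [tsum_bool, two_mul]

/-- pairs of end points against edges -/
theorem count_pairs {Om : Set E3} {ι : Type*} {T : Tiling Om ι} {O : Set ι} (L : E3 →L[ℝ] E3)
    (W : Set (E3 × E3))
    (h : ∀ e ∈ W, ∃ g : {g : Edg T // ∃ t ∈ O, g ∈ eIn T t},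
      (e.1 = ea g.1 ∧ e.2 = ea g.1 + ev g.1) ∨ (e.1 = ea g.1 + ev g.1 ∧ e.2 = ea g.1)) :
    ∑' e : W, ENNReal.ofReal (‖L (e.1.2 - e.1.1)‖ ^ 3) ≤
      2 * ∑' g : {g : Edg T // ∃ t ∈ O, g ∈ eIn T t}, ENNReal.ofReal (‖L (ev g.1)‖ ^ 3) := by
  have hex : ∀ e : W, ∃ q : {g : Edg T // ∃ t ∈ O, g ∈ eIn T t} × Bool,
      e.1 = bif q.2 then (ea q.1.1, ea q.1.1 + ev q.1.1) else (ea q.1.1 + ev q.1.1, ea q.1.1) := by
    intro e
    obtain ⟨g, ⟨a1, a2⟩ | ⟨a1, a2⟩⟩ := h e.1 e.2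
    · exact ⟨(g, true), Prod.ext a1 a2⟩
    · exact ⟨(g, false), Prod.ext a1 a2⟩
  choose Ψ hΨ using hex
  have hinj : Function.Injective Ψ := by
    intro e e' hee
    apply Subtype.ext
    rw [hΨ e, hΨ e', hee]
  have h3 := ENNReal.tsum_comp_le_tsum_of_injective hinj
    (fun q : {g : Edg T // ∃ t ∈ O, g ∈ eIn T t} × Bool =>
      ENNReal.ofReal (‖L (ev q.1.1)‖ ^ 3))
  have h4 : ∀ e : W, ENNReal.ofReal (‖L (e.1.2 - e.1.1)‖ ^ 3) =
      ENNReal.ofReal (‖L (ev (Ψ e).1.1)‖ ^ 3) := by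
    intro e
    rw [hΨ e]
    generalize Ψ e = q
    obtain ⟨g, b⟩ := q
    cases b
    · change ENNReal.ofReal (‖L (ea g.1 - (ea g.1 + ev g.1))‖ ^ 3) = _
      rw [sub_add_cancel_left, map_neg, norm_neg]
    · change ENNReal.ofReal (‖L (ea g.1 + ev g.1 - ea g.1)‖ ^ 3) = _
      rw [add_sub_cancel_left]
  rw [tsum_congr h4]
  refine h3.trans (le_of_eq ?_)
  exact tsum_two fun g : {g : Edg T // ∃ t ∈ O, g ∈ eIn T t} => ENNReal.ofReal (‖L (ev g.1)‖ ^ 3)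

end fam

/-! ### core blocks -/

section blk

variable (Q : CB E3 3) (k : ℕ) (hk : Q.kc ≤ k)

/-- a 1-cell in the block lies in a tile of the block which is not the core -/
theorem exists_tile {x : E3} (hd : (Q.T k hk).dim x = 1) (hN : (Q.T k hk).cc x ⊆ Q.N) :
    ∃ t, P ((Q.T k hk).H t) ⊆ Q.N ∧ t ≠ Q.cix k hk ∧ t ∈ (Q.T k hk).at_ x := by
  have hOm : Q.ψ ⁻¹' (Q.D k hk).Om = univ := by rw [Q.D_Om, preimage_univ]
  have hx : x ∈ Q.ψ ⁻¹' (Q.D k hk).Om := by rw [hOm]; exact mem_univ _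
  obtain ⟨i, hi, hiN⟩ := Q.un_N k hk x (hN ((Q.T k hk).self_mem_cc x))
  by_cases hic : i = Q.cix k hk
  · have hint : x ∈ interior Q.N := by
      refine Q.bp_int (Q.P_inr_sub k hk Q.S.core ?_)
      rw [hic] at hi
      exact hi
    obtain ⟨j, hj, hjn⟩ := exists_other (Q.T k hk) hx (Q.cix k hk) (by rw [hd]; simp)
    exact ⟨j, (Q.un_N k hk).at_sub hint hj, hjn, hj⟩
  · exact ⟨i, hiN, hic, hi⟩

/-- the open tiles of the block are disjoint from the core -/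
theorem I_sub {t} (h1 : P ((Q.T k hk).H t) ⊆ Q.N) (h2 : t ≠ Q.cix k hk) :
    I ((Q.T k hk).H t) ⊆ Q.N \ Q.Kc := by
  intro x hx
  refine ⟨h1 (I_sub_P _ hx), fun hK => ?_⟩
  rw [← Q.P_core k hk] at hK
  exact Set.disjoint_left.1 (disjoint_P_I ((Q.T k hk).ne _) ((Q.T k hk).dis _ _ h2.symm)) hK hx

/-- **[CNT] in `E3`** -/
theorem count_E3 {Bs : ℕ} (hB1 : 1 ≤ Bs) : ∃ C : ℝ≥0, 0 < C ∧
    ∀ (Q : CB E3 3) (k : ℕ) (hk : Q.kc ≤ k) (A : E3 ≃ᵃ[ℝ] E3) (u : ℝ), 0 < u →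
      (∀ x : E3, A.linear x = u • Q.ψ x) → (∀ i, ∀ p ∈ Q.S.GG i, ∀ l, |p.1 l| ≤ Bs) →
      (∀ i, i ≠ Q.S.core → ∀ v ∈ ZP (Q.S.GG i), ∀ w ∈ ZP (Q.S.GG i), ∀ l, |w l - v l| ≤ Bs) →
      ∑' e : Ea0_961.Ed Q k hk, ENNReal.ofReal (‖lin A (e.1.2 - e.1.1)‖ ^ 3) ≤
        C * (ENNReal.ofReal |(lin A).det| * volume (Q.N \ Q.Kc)) := by
  obtain ⟨v, hv0, hv⟩ := exists_vol_lb (volume : Measure E3) (SL_finite Bs)
  obtain ⟨K, hKt, hK⟩ : ∃ K : ℝ≥0∞, K ≠ ∞ ∧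
      K = 2 * (((SL Bs).ncard : ℕ) : ℝ≥0∞) * ENNReal.ofReal (Dsh (SL Bs) ^ 3 / v) :=
    ⟨_, ENNReal.mul_ne_top (ENNReal.mul_ne_top (by norm_num)
      (ENNReal.natCast_ne_top _)) ENNReal.ofReal_ne_top, rfl⟩
  refine ⟨K.toNNReal + 1, by positivity, ?_⟩
  intro Q k hk A u hu hA hB hR
  have hF := (fam Q k hk hB1 hu hA hB hR).mono
    (O' := {t | P ((Q.T k hk).H t) ⊆ Q.N ∧ t ≠ Q.cix k hk}) (fun t ht => ht.2)
  have hcf := count_fam hF hv0 hv (N := Q.N \ Q.Kc) (fun t ht => I_sub Q k hk ht.1 ht.2)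
  have hOm : Q.ψ ⁻¹' (Q.D k hk).Om = univ := by rw [Q.D_Om, preimage_univ]
  have h5 := count_pairs (T := Q.T k hk) (O := {t | P ((Q.T k hk).H t) ⊆ Q.N ∧ t ≠ Q.cix k hk})
    (lin A) (Ea0_961.Ed Q k hk) (by
      rintro e ⟨x, hd, hcc, hN⟩
      have hx : x ∈ Q.ψ ⁻¹' (Q.D k hk).Om := by rw [hOm]; exact mem_univ _
      obtain ⟨t, h1, h2, h3⟩ := exists_tile Q k hk hd (hcc ▸ hN)
      exact ⟨⟨⟨(Q.T k hk).cc x, x, hx, hd, rfl⟩, t, ⟨h1, h2⟩,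
        mem_eIn.2 ((Q.T k hk).cc_sub_tile h3)⟩, pair_edg hx hd hcc _ rfl⟩)
  refine h5.trans ((mul_le_mul_right hcf _).trans ?_)
  have h6 : K ≤ ((K.toNNReal + 1 : ℝ≥0) : ℝ≥0∞) := by
    rw [ENNReal.coe_add, ENNReal.coe_toNNReal hKt]
    exact le_self_add
  refine le_trans (le_of_eq ?_) (mul_le_mul_left h6 _)
  rw [hK]
  ring

end blk

/-! ### in `R3` -/

section r3

open Crest.AnalysisR.VecCalc3
open Crest.Agent.R96.En10_199 (P3)
open Crest.Agent.R096.Tmap_212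
open Crest.Agent.R096.Er_594 (vol_P3 norm_P3_le norm_le_P3)

theorem exists_mp (Q : CB R3 3) : ∃ Q' : CB E3 3, mp P3 Q' = Q := by
  refine ⟨mp P3.symm Q, ?_⟩
  obtain ⟨ψ, a', kc, S, w, hkc, hw⟩ := Q
  unfold mp
  congr 1

/-- the determinant of a bounded linear map of `E3` -/
theorem abs_det_le (L : E3 →L[ℝ] E3) {K : ℝ} (hK : 0 ≤ K) (h : ∀ v, ‖L v‖ ≤ K * ‖v‖) :
    |L.det| ≤ K ^ 3 := by
  have h1 : L '' closedBall (0 : E3) 1 ⊆ closedBall (0 : E3) K := by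
    rintro _ ⟨x, hx, rfl⟩
    rw [mem_closedBall_zero_iff] at hx ⊢
    calc ‖L x‖ ≤ K * ‖x‖ := h x
      _ ≤ K * 1 := by gcongr
      _ = K := mul_one K
  have h2 := measure_mono (μ := volume) h1
  rw [Measure.addHaar_image_continuousLinearMap, Real.volume_pi_closedBall _ zero_le_one,
    Real.volume_pi_closedBall _ hK, ← ENNReal.ofReal_mul (abs_nonneg _),
    ENNReal.ofReal_le_ofReal_iff (by positivity)] at h2
  simp only [Fintype.card_fin] at h2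
  nlinarith [h2]

/-- **[CNT]: the edges of a core block** -/
theorem count3 (Bs : ℕ) {κ : ℝ} (hκ : 0 < κ) : ∃ C : ℝ≥0, 0 < C ∧
    ∀ (Q : CB R3 3) (k0 : ℕ) (hk : Q.kc ≤ k0),
      (∀ v, κ / 4 * ‖v‖ ≤ ‖Q.ψ v‖ ∧ ‖Q.ψ v‖ ≤ 4 * κ⁻¹ * ‖v‖) →
      (∀ i, ∀ p ∈ Q.S.GG i, ∀ l, |p.1 l| ≤ Bs) →
      (∀ i, i ≠ Q.S.core → ∀ v ∈ ZP (Q.S.GG i), ∀ w ∈ ZP (Q.S.GG i), ∀ l, |w l - v l| ≤ Bs) →
      ∑' e : Pin_753.Ed Q k0 hk, ENNReal.ofReal (‖e.1.2 - e.1.1‖ ^ 3) ≤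
        C * volume (Q.N \ Q.Kc) := by
  obtain ⟨C, hC0, hC⟩ := count_E3 (Bs := Bs + 1) (Nat.le_add_left 1 Bs)
  refine ⟨(4 / κ).toNNReal ^ 3 * C * (8 * κ⁻¹).toNNReal ^ 3, ?_, ?_⟩
  · have h1 : 0 < (4 / κ).toNNReal := Real.toNNReal_pos.2 (by positivity)
    have h2 : 0 < (8 * κ⁻¹).toNNReal := Real.toNNReal_pos.2 (by positivity)
    positivity
  intro Q k0 hk hc hB hR
  obtain ⟨Q', rfl⟩ := exists_mp Q
  set A : E3 ≃ᵃ[ℝ] E3 := Q'.ψ.toLinearEquiv.toAffineEquiv with hA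
  have hlin : ∀ x, lin A x = Q'.ψ x := fun x => rfl
  have hψ : ∀ x, (mp P3 Q').ψ (P3 x) = Q'.ψ x := by
    intro x
    rw [mp_ψ, P3.symm_apply_apply]
  have hcast : ((Bs : ℕ) : ℝ) ≤ ((Bs + 1 : ℕ) : ℝ) := by push_cast; linarith
  have h1 := hC Q' k0 hk A 1 one_pos (fun x => by rw [one_smul]; rfl)
    (fun i p hp l => (hB i p hp l).trans (by push_cast; linarith))
    (fun i hi v hv w hw l => (hR i hi v hv w hw l).trans hcast)
  have h2 : |(lin A).det| ≤ (8 * κ⁻¹) ^ 3 := by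
    refine abs_det_le _ (by positivity) fun v => ?_
    rw [hlin, ← hψ]
    refine (hc (P3 v)).2.trans ?_
    have := norm_P3_le v
    calc 4 * κ⁻¹ * ‖P3 v‖ ≤ 4 * κ⁻¹ * (2 * ‖v‖) := by gcongr
      _ = 8 * κ⁻¹ * ‖v‖ := by ring
  have h3 : volume (Q'.N \ Q'.Kc) = volume ((mp P3 Q').N \ (mp P3 Q').Kc) := by
    rw [← vol_P3 ((mp P3 Q').N \ (mp P3 Q').Kc)]
    congr 1
  rw [tsum_Ed Q' k0 hk fun e => ENNReal.ofReal (‖e.2 - e.1‖ ^ 3)]
  have h4 : ∀ e : Ea0_961.Ed Q' k0 hk, ENNReal.ofReal (‖P3 e.1.2 - P3 e.1.1‖ ^ 3) ≤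
      ENNReal.ofReal ((4 / κ) ^ 3) * ENNReal.ofReal (‖lin A (e.1.2 - e.1.1)‖ ^ 3) := by
    intro e
    rw [← ENNReal.ofReal_mul (by positivity), ← mul_pow]
    refine ENNReal.ofReal_le_ofReal (pow_le_pow_left₀ (norm_nonneg _) ?_ 3)
    rw [← map_sub, hlin, ← hψ, div_mul_eq_mul_div, le_div_iff₀ hκ]
    have := (hc (P3 (e.1.2 - e.1.1))).1
    linarith
  calc ∑' e : Ea0_961.Ed Q' k0 hk, ENNReal.ofReal (‖P3 e.1.2 - P3 e.1.1‖ ^ 3)
      ≤ ∑' e : Ea0_961.Ed Q' k0 hk, ENNReal.ofReal ((4 / κ) ^ 3) *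
        ENNReal.ofReal (‖lin A (e.1.2 - e.1.1)‖ ^ 3) := ENNReal.tsum_le_tsum h4
    _ = ENNReal.ofReal ((4 / κ) ^ 3) * ∑' e : Ea0_961.Ed Q' k0 hk,
        ENNReal.ofReal (‖lin A (e.1.2 - e.1.1)‖ ^ 3) := ENNReal.tsum_mul_left
    _ ≤ ENNReal.ofReal ((4 / κ) ^ 3) * (C * (ENNReal.ofReal |(lin A).det| *
        volume (Q'.N \ Q'.Kc))) := mul_le_mul_right h1 _
    _ ≤ ENNReal.ofReal ((4 / κ) ^ 3) * (C * (ENNReal.ofReal ((8 * κ⁻¹) ^ 3) *
        volume (Q'.N \ Q'.Kc))) := by gcongr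
    _ = _ := by
        rw [h3, ENNReal.ofReal_pow (by positivity), ENNReal.ofReal_pow (by positivity)]
        push_cast
        rw [ENNReal.ofReal, ENNReal.ofReal]
        ring

end r3

end Crest.Agent.R096.Cnt_726
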