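import Crest.Agent.R096.Hb1_82
import Crest.Agent.R096.Cnt1_726

/-!
Row 96 (S0127), helper82, COMPOSITE B, leaf [C5] of 622: **the inequality (2b)** (hypothesis `h2b` of
227's `tra_of_sum`) from the energies `En p G` of the LONG edges (numbers) and of the SHORT edges
(incidence form: tiles `Z e` of the edge `e`, every tile used by at most `m` edges). The count of the edges is
726's `count3`.
-/

set_option autoImplicit false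
set_option linter.unusedSectionVars false
set_option linter.style.longLine false

open Set Metric Filter Topology MeasureTheory
open scoped ENNReal NNReal

namespace Crest.Agent.R096.Hb_82

open Crest.AnalysisR.VecCalc3 Crest.AnalysisR.Sobolev
open Crest.Agent.R096.Msh_715 Crest.Agent.R096.Mal_874
open Crest.Agent.R096.Pin_753
open Crest.Agent.R096.Fub_216
open Crest.Agent.R096.Br_695 (En)
open Crest.Agent.R96.Lu_538 (Gmat gmatL norm_gmatL_le)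

noncomputable section

/-- the operator norm against the energy density -/
theorem gmat_le_En {p : ℝ} (hp : 0 < p) (hp2 : p ≤ 2) (G : Fin 3 → R3 → R3) (y : R3) :
    ‖Gmat G y‖ₑ ^ p ≤ En p G y := by
  have h1 : ‖Gmat G y‖ ≤ Real.sqrt (∑ j, ‖G j y‖ ^ 2) := norm_gmatL_le _
  have h2 : ‖Gmat G y‖ₑ ^ p ≤ (∑ j, ‖G j y‖ₑ ^ (2:ℝ)) ^ (p / 2) := by
    have e1 : (∑ j, ‖G j y‖ₑ ^ (2:ℝ)) = ENNReal.ofReal (∑ j, ‖G j y‖ ^ 2) := by
      rw [ENNReal.ofReal_sum_of_nonneg fun i _ => by positivity]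
      refine Finset.sum_congr rfl fun j _ => ?_
      rw [← ofReal_norm, ENNReal.ofReal_rpow_of_nonneg (norm_nonneg _) (by norm_num)]
      norm_num
    rw [e1, ENNReal.ofReal_rpow_of_nonneg (by positivity) (by positivity), ← ofReal_norm,
      ENNReal.ofReal_rpow_of_nonneg (norm_nonneg _) hp.le]
    refine ENNReal.ofReal_le_ofReal ?_
    calc ‖Gmat G y‖ ^ p ≤ (Real.sqrt (∑ j, ‖G j y‖ ^ 2)) ^ p :=
          Real.rpow_le_rpow (norm_nonneg _) h1 hp.le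
      _ = (∑ j, ‖G j y‖ ^ 2) ^ (p / 2) := by
          rw [Real.sqrt_eq_rpow, ← Real.rpow_mul (by positivity)]
          congr 1
          ring
  refine h2.trans ?_
  have key : ∀ a b : ℝ≥0∞, (a + b) ^ (p / 2) ≤ a ^ (p / 2) + b ^ (p / 2) := fun a b =>
    ENNReal.rpow_add_le_add_rpow a b (by positivity) (by linarith)
  have e2 : ∀ j, (‖G j y‖ₑ ^ (2:ℝ)) ^ (p / 2) = ‖G j y‖ₑ ^ p := fun j => by
    rw [← ENNReal.rpow_mul]
    congr 1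
    ring
  unfold En
  rw [Fin.sum_univ_three, Fin.sum_univ_three]
  calc (‖G 0 y‖ₑ ^ (2:ℝ) + ‖G 1 y‖ₑ ^ (2:ℝ) + ‖G 2 y‖ₑ ^ (2:ℝ)) ^ (p / 2)
      ≤ (‖G 0 y‖ₑ ^ (2:ℝ) + ‖G 1 y‖ₑ ^ (2:ℝ)) ^ (p / 2) + (‖G 2 y‖ₑ ^ (2:ℝ)) ^ (p / 2) := key _ _
    _ ≤ _ := by
        rw [← e2 0, ← e2 1, ← e2 2]
        exact add_le_add (key _ _) le_rfl

/-- **(2b), incidence form**: `c2` sees `Bs`, `κ` only -/
theorem h2b_inc (Bs : ℕ) {κ : ℝ} (hκ : 0 < κ) : ∃ c2 : ℝ≥0, 0 < c2 ∧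
    ∀ {p : ℝ}, 1 ≤ p → p ≤ 2 → ∀ (Q : CB R3 3) (k0 : ℕ) (hk : Q.kc ≤ k0),
    (∀ v, κ / 4 * ‖v‖ ≤ ‖Q.ψ v‖ ∧ ‖Q.ψ v‖ ≤ 4 * κ⁻¹ * ‖v‖) →
    (∀ i, ∀ p ∈ Q.S.GG i, ∀ l, |p.1 l| ≤ Bs) →
    (∀ i, i ≠ Q.S.core → ∀ v ∈ ZP (Q.S.GG i), ∀ w ∈ ZP (Q.S.GG i), ∀ l, |w l - v l| ≤ Bs) →
    ∀ (G : Fin 3 → R3 → R3) (L : R3 →L[ℝ] R3), (∀ v, κ * ‖v‖ ≤ ‖L v‖) → ‖L‖ ≤ κ⁻¹ →
    ∀ (S : R3 × R3 → Set R3), (∀ e ∈ Ed Q k0 hk, MeasurableSet (S e)) →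
    (∀ e ∈ Ed Q k0 hk, AEStronglyMeasurable (Gmat G) (volume.restrict (S e))) →
    (∀ e ∈ Ed Q k0 hk, ∀ w ∈ Tw Q k0, ∀ τ ∈ Icc (0:ℝ) 1, e.1 + w + τ • (e.2 - e.1) ∈ S e) →
    ∀ (Sh : Set (R3 × R3)) {c0 c1 C1 : ℝ}, 0 ≤ c1 →
    (∀ e ∈ Ed Q k0 hk, e ∉ Sh → ∫⁻ y in S e, En p G y ≤
      ENNReal.ofReal (c1 * ‖L‖ ^ p * ‖e.2 - e.1‖ / 4 ^ k0)) →
    (∀ e ∈ Ed Q k0 hk, e ∈ Sh → ‖e.2 - e.1‖ ≤ c0 / 2 ^ k0) →
    512 * Ct κ * c1 * c2 ≤ C1 →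
    ∀ {ι : Type*} (b : ι → ℝ≥0∞) (K : Finset ι) (Z : R3 × R3 → Finset ι) (m : ℕ) {er : ℝ≥0∞},
    (∀ e ∈ Ed Q k0 hk, e ∈ Sh → Z e ⊆ K) →
    (∀ e ∈ Ed Q k0 hk, e ∈ Sh → ∫⁻ y in S e, En p G y ≤ ∑ k ∈ Z e, b k) →
    (∀ k ∈ K, {e | e ∈ Ed Q k0 hk ∧ e ∈ Sh ∧ k ∈ Z e}.ncard ≤ m) →
    ENNReal.ofReal (512 * Ct κ * c0 ^ 2) * (m * ∑ k ∈ K, b k) ≤ er →
    ENNReal.ofReal (‖L‖ ^ p / |L.det|) *
        (∑' e : Ed Q k0 hk, ENNReal.ofReal (‖L (e.1.2 - e.1.1)‖ ^ (3 - p)) *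
          ∫⁻ w in Tw Q k0, ∫⁻ τ in Icc (0:ℝ) 1,
            ‖Gmat G (e.1.1 + w + τ • (e.1.2 - e.1.1)) (e.1.2 - e.1.1)‖ₑ ^ p) ≤
      ENNReal.ofReal (1 / 512) *
        (ENNReal.ofReal (C1 * ‖L‖ ^ p) * volume (Q.N \ Q.Kc) + er) * volume (Tw Q k0) := by
  obtain ⟨c2, hc2, hcnt⟩ := Cnt_726.count3 Bs hκ
  refine ⟨c2, hc2, ?_⟩
  intro p hp hp2 Q k0 hk cnd hB hR G L hL hL' S mS hG ht Sh c0 c1 C1 hc1 hlong hshort hC1 ι b K Z m er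
    hZ hE hm her
  have hp0 : 0 < p := by linarith
  have hfin := Tra_227.ed_finite Q k0 hk
  classical
  refine h2b_of hk hp (by linarith) hκ cnd hL hL' S mS hG ht Sh (c0 := c0) (c2 := c2) hc1 ?_ hshort
    (hcnt Q k0 hk cnd hB hR) hC1 ?_
  · intro e he heS
    exact (lintegral_mono fun y => gmat_le_En hp0 hp2 G y).trans (hlong e he heS)
  refine le_trans (mul_le_mul' le_rfl ?_) her
  -- the sum over the short edges
  set E := hfin.toFinset with hEdef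
  have h1 : ∑' e : Ed Q k0 hk, Sh.indicator (fun e => ∫⁻ y in S e, ‖Gmat G y‖ₑ ^ p) e.1 =
      ∑ e ∈ E, Sh.indicator (fun e => ∫⁻ y in S e, ‖Gmat G y‖ₑ ^ p) e := by
    have h2 : (Ed Q k0 hk) = (E : Set (R3 × R3)) := by rw [hEdef, hfin.coe_toFinset]
    rw [h2]
    exact E.tsum_subtype _
  rw [h1]
  calc ∑ e ∈ E, Sh.indicator (fun e => ∫⁻ y in S e, ‖Gmat G y‖ₑ ^ p) e
      ≤ ∑ e ∈ E, ∑ k ∈ K, (if e ∈ Sh ∧ k ∈ Z e then b k else 0) := by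
        refine Finset.sum_le_sum fun e he => ?_
        have he' : e ∈ Ed Q k0 hk := hfin.mem_toFinset.1 he
        by_cases hS : e ∈ Sh
        · rw [indicator_of_mem hS]
          refine ((lintegral_mono fun y => gmat_le_En hp0 hp2 G y).trans (hE e he' hS)).trans ?_
          rw [← Finset.sum_filter]
          refine Finset.sum_le_sum_of_subset fun k hk' => ?_
          exact Finset.mem_filter.2 ⟨hZ e he' hS hk', hS, hk'⟩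
        · rw [indicator_of_notMem hS]
          exact zero_le
    _ = ∑ k ∈ K, ∑ e ∈ E, (if e ∈ Sh ∧ k ∈ Z e then b k else 0) := Finset.sum_comm
    _ ≤ ∑ k ∈ K, m * b k := by
        refine Finset.sum_le_sum fun k hk' => ?_
        rw [← Finset.sum_filter, Finset.sum_const, nsmul_eq_mul]
        refine mul_le_mul' ?_ le_rfl
        have h3 : (E.filter fun e => e ∈ Sh ∧ k ∈ Z e).card ≤ m := by
          refine le_trans (le_of_eq ?_) (hm k hk')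
          rw [← Set.ncard_coe_finset]
          congr 1
          ext e
          simp [hEdef]
        exact_mod_cast h3
    _ = m * ∑ k ∈ K, b k := by rw [Finset.mul_sum]

end

end Crest.Agent.R096.Hb_82
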