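import Crest.Agent.R096.Sqt15_143

/-!
Row 96 (S0127), helper143.  COMPOSITE B, [C5] LONG: the hypothesis `hlong` of 82's `h2b_of` for one long edge,
from (E) of `cob_main` for the pairs (piece, tile).
-/

set_option autoImplicit false
set_option linter.unusedSectionVars false
set_option linter.style.longLine false

open Set Metric Filter Topology MeasureTheory
open scoped ENNReal NNReal

namespace Crest.Agent.R096.Sqt_143

open Crest.AnalysisR.VecCalc3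
open Crest.Agent.R096.Msh_715 (P I Tiling)
open Crest.Agent.R096.Sq_55 (E3 Sys w2)
open Crest.Agent.R096.Cob_622 (EF Jt CE)
open Crest.Agent.R096.Efi_296
open Crest.Agent.R096.Cbs_296
open Crest.Agent.R096.Slb_296
open Crest.Agent.R096.Fce_793 (pt)
open Crest.Agent.R096.H2a_821 (tube_pieces)
open Crest.Agent.R96.Coarse_538 (seg)
open Crest.Agent.R96.Lu_538 (Gmat)
open Crest.Agent.R096.Br_695 (En)

noncomputable section

/-- the operator norm and the energy density -/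
theorem Gn_le {p : ℝ} (hp1 : 1 ≤ p) (hp2 : p ≤ 2) (G : Fin 3 → R3 → R3) (x : R3) :
    ‖Gmat G x‖ₑ ^ p ≤ 3 * En p G x := by
  have hp0 : 0 ≤ p := by linarith
  have h0 : ‖Gmat G x‖ ≤ ∑ j : Fin 3, ‖G j x‖ := by
    refine ContinuousLinearMap.opNorm_le_bound _ (by positivity) fun v => ?_
    have h1 : ∀ j : Fin 3, ‖Gmat G x v j‖ ≤ ‖G j x‖ * ‖v‖ := by
      intro j
      rw [Crest.Agent.R96.Lu_538.Gmat_apply, Real.norm_eq_abs]
      exact abs_real_inner_le_norm _ _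
    have h2 : ‖Gmat G x v‖ ≤ ∑ j : Fin 3, ‖Gmat G x v j‖ := by
      rw [EuclideanSpace.norm_eq, Real.sqrt_le_iff]
      refine ⟨by positivity, ?_⟩
      simp only [Fin.sum_univ_three]
      have a0 := norm_nonneg (Gmat G x v 0)
      have a1 := norm_nonneg (Gmat G x v 1)
      have a2 := norm_nonneg (Gmat G x v 2)
      nlinarith [mul_nonneg a0 a1, mul_nonneg a0 a2, mul_nonneg a1 a2]
    rw [Finset.sum_mul]
    exact h2.trans (Finset.sum_le_sum fun j _ => h1 j)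
  have h3 : ‖Gmat G x‖ₑ ≤ ∑ j : Fin 3, ‖G j x‖ₑ := by
    rw [← ofReal_norm]
    refine (ENNReal.ofReal_le_ofReal h0).trans (le_of_eq ?_)
    rw [ENNReal.ofReal_sum_of_nonneg fun j _ => by positivity]
    exact Finset.sum_congr rfl fun j _ => ofReal_norm _
  calc ‖Gmat G x‖ₑ ^ p ≤ (∑ j : Fin 3, ‖G j x‖ₑ) ^ p := ENNReal.rpow_le_rpow h3 hp0
    _ ≤ ((Finset.univ : Finset (Fin 3)).card : ℝ≥0∞) ^ (p - 1) * ∑ j : Fin 3, ‖G j x‖ₑ ^ p :=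
      ENNReal.rpow_sum_le_const_mul_sum_rpow _ _ hp1
    _ ≤ 3 * ∑ j : Fin 3, ‖G j x‖ₑ ^ p := by
        refine mul_le_mul' ?_ le_rfl
        simp only [Finset.card_univ, Fintype.card_fin, Nat.cast_ofNat]
        calc (3:ℝ≥0∞) ^ (p - 1) ≤ 3 ^ (1:ℝ) :=
              ENNReal.rpow_le_rpow_of_exponent_le (by norm_num) (by linarith)
          _ = 3 := ENNReal.rpow_one _
    _ = _ := rfl

theorem int_w2' (g : R3 → ℝ≥0∞) (S : Set E3) :
    ∫⁻ y in w2 '' S, g y = ∫⁻ x in S, g (w2 x) := by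
  rw [Cob_622.int_w2]

/-- the tube of an edge in `R3` -/
def Tb3 (u : ℝ) (x v : R3) : Set R3 := w2 '' cthickening u (sg (w2.symm x) (w2.symm v))

/-- **the energy of the tube of one edge from its pieces** -/
theorem tube_of_pieces {p : ℝ} (hp1 : 1 ≤ p) (hp2 : p ≤ 2) {G2 : Fin 3 → R3 → R3}
    {u : ℝ} (hu : 0 ≤ u) {x v : R3}
    {m : ℕ} {t : ℕ → ℝ} (ht0 : t 0 = 0) (htm : t m = 1) (ht : ∀ i < m, t i < t (i + 1))
    {κX : Type*} {PP : κX → Set (Fin 3 → ℝ)} (s : ℕ → Finset κX)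
    (hcov : ∀ i < m, cthickening u (sg (w2.symm x + t i • w2.symm v)
      ((t (i + 1) - t i) • w2.symm v)) ⊆ ⋃ k ∈ s i, PP k)
    {N : ℕ} (hN : ∑ i ∈ Finset.range m, (s i).card ≤ N) {A : ℝ≥0∞}
    (E : ∀ i < m, ∀ k ∈ s i, ∫⁻ z in PP k ∩ cthickening u (sg (w2.symm x + t i • w2.symm v)
        ((t (i + 1) - t i) • w2.symm v)), En p G2 (w2 z) ≤ A) :
    ∫⁻ y in Tb3 u x v, ‖Gmat G2 y‖ₑ ^ p ≤ 3 * (N * A) := by
  unfold Tb3
  rw [int_w2']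
  refine (lintegral_mono fun z => Gn_le hp1 hp2 G2 (w2 z)).trans ?_
  rw [lintegral_const_mul' _ _ (by norm_num)]
  refine mul_le_mul' le_rfl ?_
  have hsub : cthickening u (sg (w2.symm x) (w2.symm v)) ⊆
      ⋃ q ∈ (Finset.range m).sigma s, (PP q.2 ∩
        cthickening u (sg (w2.symm x + t q.1 • w2.symm v)
          ((t (q.1 + 1) - t q.1) • w2.symm v))) := by
    intro z hz
    obtain ⟨i, hi, hzi⟩ := mem_iUnion₂.1 (tube_pieces ht0 htm ht hu hz)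
    obtain ⟨k, hk, hzk⟩ := mem_iUnion₂.1 (hcov i (Finset.mem_range.1 hi) hzi)
    exact mem_iUnion₂.2 ⟨⟨i, k⟩, Finset.mem_sigma.2 ⟨hi, hk⟩, hzk, hzi⟩
  refine (lintegral_mono_set hsub).trans ((lint_bU _ _ _).trans ?_)
  refine (Finset.sum_le_card_nsmul _ _ A fun q hq => ?_).trans ?_
  · have hq' := Finset.mem_sigma.1 hq
    exact E q.1 (Finset.mem_range.1 hq'.1) q.2 hq'.2
  · rw [nsmul_eq_mul, Finset.card_sigma]
    gcongr

variable {OmR : Set R3} {ι : Type*} {T : Tiling OmR ι} {Om : Set R3} {κe κf : Type*}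
  {x v : κe → R3} {e : κf → Fin 2 → R3} {xx : κf → R3} {a : R3} {Q : κf → Set (ℝ × ℝ)}
  {s : Finset ι} {pr : (Te T).Cell → Prop}
  {c : ι → E3} {R : ι → ℝ≥0} {ρ : E3 → ℝ≥0} {m : ι → ℝ≥0} {X : Sys s (reps (Te T) s pr)}

/-- the constant of the long edges -/
def c1L (κ p : ℝ) (K M : ℝ≥0) (n nE N : ℕ) (cV : ℝ) : ℝ :=
  2 * N * AE p K M n nE cV / κ ^ 2

/-- **82's `hlong` for one edge** `(y0, y0 + w0)` -/
theorem hlong_of {p : ℝ} (hp1 : 1 ≤ p) (hp2 : p ≤ 2) {G G2 : Fin 3 → R3 → R3} {L : R3 →L[ℝ] R3}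
    (h : SysOf (Te T) s pr c R ρ m X)
    (hG : GoodA Om (En p G) x v e xx a)
    (hQ : ∀ φ, IsCompact (Q φ))
    {me : EgS (Te T) s → κe} {mf : FcS (Te T) s pr → κf}
    (hme : ∀ c, w2 '' c.1.set = seg x v a (me c))
    (hmf : ∀ c, w2 '' c.1.set = pt (e (mf c)) (a + xx (mf c)) '' Q (mf c))
    {C : Set R3} {η' : ℝ}
    (hg : ∀ i, ∫⁻ σ in Ioc (0:ℝ) 1, C.indicator (fun y => ‖Gmat G y - L‖ₑ ^ p)
      (a + x i + σ • v i) ≤ ENNReal.ofReal η') (hη' : ENNReal.ofReal η' ≤ ‖L‖ₑ ^ p)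
    {κ : ℝ} (hκ : 0 < κ) {k0 : ℕ} {u : ℝ} (hu : u = 4 * κ⁻¹ / (5 * 2 ^ k0)) {y0 w0 : R3}
    {m' : ℕ} {t : ℕ → ℝ} (ht0 : t 0 = 0) (htm : t m' = 1) (ht : ∀ i < m', t i < t (i + 1))
    (S : ℕ → Finset s)
    (hcov : ∀ i < m', cthickening u (sg (w2.symm y0 + t i • w2.symm w0)
      ((t (i + 1) - t i) • w2.symm w0)) ⊆ ⋃ k ∈ S i, P ((Te T).H (k : ι)))
    {N : ℕ} (hN : ∑ i ∈ Finset.range m', (S i).card ≤ N)
    {n nE : ℕ} {V : ℝ} {B0 : ℕ → s → Set R3} (hB0 : ∀ i k, IsClosed (B0 i k))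
    (hZ : ∀ i < m', ∀ k ∈ S i, Zn T s pr R ρ m x v a me C n nE V k
      (sg (w2.symm y0 + t i • w2.symm w0) ((t (i + 1) - t i) • w2.symm w0)) u)
    {K M : ℝ≥0} (hM : ∀ i < m', ∀ k ∈ S i, m k = M) {cV : ℝ} (hcV : 0 ≤ cV)
    (hVc : V ≤ cV * ‖w0‖) {ε : ℝ≥0∞} (hε : ε ≤ ENNReal.ofReal (u^2 * ‖w0‖) * ‖L‖ₑ ^ p)
    (hE : ∀ i < m', ∀ k ∈ S i, ∫⁻ z in P ((Te T).H (k : ι)) ∩
        cthickening u (sg (w2.symm y0 + t i • w2.symm w0) ((t (i + 1) - t i) • w2.symm w0)),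
        En p G2 (w2 z) ≤
      ENNReal.ofReal (CE p K (X.m k)) * Jt (efLoc hG hQ hme hmf X h.rim h.Z (hB0 i k)) k
        (sg (w2.symm y0 + t i • w2.symm w0) ((t (i + 1) - t i) • w2.symm w0)) u + ε) :
    ∫⁻ y in Tb3 u y0 w0, ‖Gmat G2 y‖ₑ ^ p ≤
      ENNReal.ofReal (c1L κ p K M n nE N cV * ‖L‖ ^ p * ‖w0‖ / 4 ^ k0) := by
  have hu0 : 0 ≤ u := by rw [hu]; positivity
  have hp0 : 0 ≤ p := by linarith
  have hCE := CE_nonneg (p := p) (by linarith) K M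
  refine (tube_of_pieces hp1 hp2 hu0 ht0 htm ht S hcov hN
    (A := ENNReal.ofReal (AE p K M n nE cV * u^2 * ‖w0‖) * ‖L‖ₑ ^ p)
    fun i hi k hk => (hE i hi k hk).trans (energy_num hp1 hp2 h hG hQ hme hmf (hB0 i k)
      (hZ i hi k hk) hg hη' (hM i hi k hk) (norm_nonneg _) hcV hVc hε)).trans ?_
  have hAE : 0 ≤ AE p K M n nE cV := by unfold AE; positivity
  have e1 : ‖L‖ₑ ^ p = ENNReal.ofReal (‖L‖ ^ p) := by
    rw [← ofReal_norm, ENNReal.ofReal_rpow_of_nonneg (norm_nonneg _) hp0]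
  rw [e1, ← ENNReal.ofReal_natCast N, ← ENNReal.ofReal_ofNat 3,
    ← ENNReal.ofReal_mul (by positivity), ← ENNReal.ofReal_mul (by positivity),
    ← ENNReal.ofReal_mul (by positivity)]
  refine ENNReal.ofReal_le_ofReal ?_
  have e2 : (4:ℝ) ^ k0 = (2 ^ k0) ^ 2 := by rw [← pow_mul, mul_comm, pow_mul]; norm_num
  have e3 : u ^ 2 = 16 / (25 * κ ^ 2 * 4 ^ k0) := by
    rw [hu, e2]; field_simp; ring
  rw [e3]
  unfold c1L
  have h1 : 0 ≤ N * AE p K M n nE cV * ‖L‖ ^ p * ‖w0‖ / (κ ^ 2 * 4 ^ k0) := by positivity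
  calc 3 * (N * (AE p K M n nE cV * (16 / (25 * κ ^ 2 * 4 ^ k0)) * ‖w0‖ * ‖L‖ ^ p)) =
        48 / 25 * (N * AE p K M n nE cV * ‖L‖ ^ p * ‖w0‖ / (κ ^ 2 * 4 ^ k0)) := by
        field_simp; ring
    _ ≤ 2 * (N * AE p K M n nE cV * ‖L‖ ^ p * ‖w0‖ / (κ ^ 2 * 4 ^ k0)) := by
        gcongr; norm_num
    _ = _ := by field_simp

end

end Crest.Agent.R096.Sqt_143
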