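import Crest.Agent.R096.Cob10_622
import Crest.Agent.R096.Sqt16_143
import Crest.Agent.R096.H2n2_821
import Crest.Agent.R096.Hb2_82
import Crest.Agent.R096.She1_227

/-!
Row 96 (S0127), helper961, COMPOSITE B, (O1) `InP` of one block: **the interface** between the geometry of
the mesh (432, 476, 628, 55, 726), the numbers of (2a) (821) and of (2b) (143, 82, 227, 216) and the outputs of
622's `cob_T`.  Definitions only.
-/

set_option autoImplicit false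
set_option linter.unusedSectionVars false
set_option linter.style.longLine false

open Set Metric Filter Topology MeasureTheory
open scoped ENNReal NNReal

namespace Crest.Agent.R096.Oi_961

open Crest.AnalysisR.VecCalc3 Crest.AnalysisR.Sobolev
open Crest.Agent.R096.Msh_715 (P I Tiling)
open Crest.Agent.R096.Mal_874 (CB)
open Crest.Agent.R096.Sk_962 (SH)
open Crest.Agent.R096.Sq_55 (E3 Sys w2)
open Crest.Agent.R096.Sqt_143 (sg cu Zn CT)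
open Crest.Agent.R096.Cob_622
open Crest.Agent.R096.Efi_296
open Crest.Agent.R096.Cbs_296
open Crest.Agent.R096.Fce_793 (pt)
open Crest.Agent.R96.Coarse_538 (seg)
open Crest.Agent.R96.Lu_538 (Gmat)
open Crest.Agent.R096.Br_695 (En)
open Crest.Agent.R096.Pin_753

noncomputable section

/-- the piece number `i` of the edge `e`, in `E3` -/
def pce (e : R3 × R3) (t : ℕ → ℝ) (i : ℕ) : Set E3 :=
  sg (w2.symm e.1 + t i • w2.symm (e.2 - e.1)) ((t (i + 1) - t i) • w2.symm (e.2 - e.1))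

variable {OmR : Set R3} {ι : Type*} {T : Tiling OmR ι} {κe κf : Type*}
  {s : Finset ι} {pr : (Te T).Cell → Prop}

/-- **a long edge** `e = [e.1, e.2]`: `m'` pieces `t 0 = 0 < .. < t m' = 1` (closed 1-cells of the tiling), for
each piece the finite set `S i` of the tiles at the tube of radius `u`; all these tiles are large with respect to
`u` (`SmallR`), have the same shape number `m k = M`, lie in `C` with all their 1-cells (lengths
`≤ cV * ‖e‖`), and no unsqueezed 2-cell meets the zone (`Zn`). -/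
structure LongE (T : Tiling OmR ι) (s : Finset ι) (pr : (Te T).Cell → Prop) (R : ι → ℝ≥0)
    (ρ : E3 → ℝ≥0) (m : ι → ℝ≥0) (x v : κe → R3) (a : R3) (me : EgS (Te T) s → κe) (C : Set R3)
    (n nE np nc : ℕ) (lam cV : ℝ) (M : ℝ≥0) (u : ℝ) (e : R3 × R3) (m' : ℕ) (t : ℕ → ℝ)
    (S : ℕ → Finset s) : Prop where
  ne : e.2 - e.1 ≠ 0
  t0 : t 0 = 0
  tm : t m' = 1
  gap : ∀ i < m', t i + lam ≤ t (i + 1)
  num : m' ≤ np
  cell : ∀ i < m', ∃ c : EgS (Te T) s, c.1.set = pce e t i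
  card : ∀ i < m', (S i).card ≤ nc
  cov : ∀ i < m', cthickening u (pce e t i) ⊆ ⋃ k ∈ S i, P ((Te T).H (k : ι))
  sml : ∀ i < m', ∀ k ∈ S i, SmallR R m u (k : ι)
  zn : ∀ i < m', ∀ k ∈ S i,
    Zn T s pr R ρ m x v a me C n nE (cV * ‖e.2 - e.1‖) k (pce e t i) u
  em : ∀ i < m', ∀ k ∈ S i, m k ≤ M

/-- **the near tubes of a long edge**: every piece is one of the cells `Sn` of `cob_T`, with bounds for its
parameters `np` -/
structure NearE {m : ι → ℝ≥0} (X : Sys s (reps (Te T) s pr)) {u : ℝ}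
    {Sn : Set (EgS (Te T) s)} (npp : ∀ c : Sn, NP X m u c.1.1) (nw : ℕ) (Cb : ℝ) (e : R3 × R3)
    (m' : ℕ) (t : ℕ → ℝ) : Prop where
  cell : ∀ i < m', ∃ c : Sn, c.1.1.set = pce e t i ∧
    nW X (npp c).a0 (npp c).v0 (npp c).n ≤ nw ∧ 0 ≤ (npp c).b0 ∧
    (npp c).b0 * (1 + 4 * (((npp c).M : ℝ) * (npp c).M)) * ‖(npp c).v0‖ ≤ Cb

/-- the output (E1) of `cob_T` -/
def OutE1 {p : ℝ} {Om : Set R3} {G : Fin 3 → R3 → R3} {x v : κe → R3} {e : κf → Fin 2 → R3}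
    {xx : κf → R3} {a : R3} {Qf : κf → Set (ℝ × ℝ)} {c : ι → E3} {R : ι → ℝ≥0} {ρ : E3 → ℝ≥0}
    {m : ι → ℝ≥0} {X : Sys s (reps (Te T) s pr)} (h : SysOf (Te T) s pr c R ρ m X)
    (hG : GoodA Om (En p G) x v e xx a) (hQ : ∀ φ, IsCompact (Qf φ))
    {me : EgS (Te T) s → κe} {mf : FcS (Te T) s pr → κf}
    (hme : ∀ c, w2 '' c.1.set = seg x v a (me c))
    (hmf : ∀ c, w2 '' c.1.set = pt (e (mf c)) (a + xx (mf c)) '' Qf (mf c))
    (G₂ : Fin 3 → R3 → R3) (K : ℝ≥0) (u : ℝ) (ε : ℝ≥0∞) : Prop :=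
  ∀ (c : EgS (Te T) s) (k : s), SmallR R m u k →
    ∫⁻ x in P ((Te T).H k) ∩ cthickening u c.1.set, En p G₂ (w2 x) ≤
    ENNReal.ofReal (CE p K (m k)) *
      Jt (efLoc hG hQ hme hmf X h.rim h.Z (isClosed_Bz c.1.set (25 * (m k : ℝ)^4 * u)))
        k c.1.set u + ε

/-- the output (N) of `cob_T`, one linear map -/
def OutN {p : ℝ} {Om : Set R3} {G : Fin 3 → R3 → R3} {x v : κe → R3} {e : κf → Fin 2 → R3}
    {xx : κf → R3} {a : R3} {Qf : κf → Set (ℝ × ℝ)} {c : ι → E3} {R : ι → ℝ≥0} {ρ : E3 → ℝ≥0}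
    {m : ι → ℝ≥0} {X : Sys s (reps (Te T) s pr)} (h : SysOf (Te T) s pr c R ρ m X)
    {L : R3 →L[ℝ] R3} (hGL : GoodA Om (fun y => ‖Gmat G y - L‖ₑ ^ p) x v e xx a)
    (hQ : ∀ φ, IsCompact (Qf φ)) {me : EgS (Te T) s → κe} {mf : FcS (Te T) s pr → κf}
    (hme : ∀ c, w2 '' c.1.set = seg x v a (me c))
    (hmf : ∀ c, w2 '' c.1.set = pt (e (mf c)) (a + xx (mf c)) '' Qf (mf c))
    (Gg : Fin 3 → R3 → R3) (u : ℝ) {Sn : Set (EgS (Te T) s)} (np : ∀ c : Sn, NP X m u c.1.1)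
    (ε : ℝ≥0∞) : Prop :=
  ∀ (c : Sn) (k : s), SmallR R m u k → NoF T s pr m u c.1.1 k →
    ∫⁻ x in P ((Te T).H k) ∩ cthickening u c.1.1.set,
      ‖Gmat Gg (w2 x) (w2 (np c).v0) - L (w2 (np c).v0)‖ₑ ^ p ≤
    ENNReal.ofReal ((2 * (2113 * (m k : ℝ)^4 * ‖w2 (np c).v0‖))^p) *
      (ENNReal.ofReal (CT p (m k)) *
        Jt (efLoc hGL hQ hme hmf X h.rim h.Z
          (isClosed_Bz c.1.1.set (25 * (m k : ℝ)^4 * u))) k c.1.1.set u +
      ‖L‖ₑ ^ p * (nW X (np c).a0 (np c).v0 (np c).n *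
        ENNReal.ofReal ((2 * ((1 + (np c).b0 * (1 + 4 * (((np c).M : ℝ) * (np c).M)) *
          ‖(np c).v0‖) * u))^3))) + ε

/-- **the short edges**: lengths, energies on the sets `Tb3`, incidence -/
structure ShortE (p : ℝ) (G₂ : Fin 3 → R3 → R3) (Q : CB R3 3) (k0 : ℕ) (hk : Q.kc ≤ k0)
    (Sh : Set (R3 × R3)) (u c0 : ℝ) {ι : Type*} (b : ι → ℝ≥0∞) (K : Finset ι) (mS : ℕ) : Prop where
  len : ∀ e ∈ Ed Q k0 hk, e ∈ Sh → ‖e.2 - e.1‖ ≤ c0 / 2 ^ k0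
  en : ∃ Z : R3 × R3 → Finset ι, (∀ e ∈ Ed Q k0 hk, e ∈ Sh → Z e ⊆ K) ∧
    (∀ e ∈ Ed Q k0 hk, e ∈ Sh →
      ∫⁻ y in Sqt_143.Tb3 u e.1 (e.2 - e.1), En p G₂ y ≤ ∑ k ∈ Z e, b k) ∧
    ∀ k ∈ K, {e | e ∈ Ed Q k0 hk ∧ e ∈ Sh ∧ k ∈ Z e}.ncard ≤ mS

end

end Crest.Agent.R096.Oi_961
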