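import Crest.Agent.R096.She1_227
import Crest.Agent.R096.Cob10_622
import Crest.Agent.R096.Shp4_432

/-!
Row 96 (S0127), helper227, COMPOSITE B, [C5] of 622: **energies of the tubes of the SHORT edges, from the
outputs (cells), (E2) of 622's `cob_T`** (the input (SHORT) of 82's `h2b_inc`).
-/

set_option autoImplicit false
set_option linter.style.longLine false
set_option linter.unusedSectionVars false

open MeasureTheory Set Filter Topology Metric
open scoped ENNReal NNReal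

namespace Crest.Agent.R096.She_227

open Crest.AnalysisR.VecCalc3
open Crest.Agent.R096.Msh_715 (P I Tiling)
open Crest.Agent.R096.Sq_55 (E3 Sys Face Cell FaceOf w2 IsDp GG lint_w2)
open Crest.Agent.R096.Sqt_143 (sg)
open Crest.Agent.R096.Cob_622
open Crest.Agent.R096.Efi_296
open Crest.Agent.R096.Cbs_296
open Crest.Agent.R096.Br_695 (En)
open Crest.Agent.R96.En10_199 (P3)

noncomputable section

/-- the closed thickening of a finite union -/
theorem cthickening_iUnion_fin {α ι : Type*} [PseudoEMetricSpace α] [Finite ι] (u : ℝ)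
    (f : ι → Set α) : cthickening u (⋃ i, f i) = ⋃ i, cthickening u (f i) := by
  ext x
  simp only [mem_cthickening_iff, mem_iUnion, Metric.infEDist_iUnion]
  constructor
  · intro h
    rcases isEmpty_or_nonempty ι with h0 | h0
    · rw [iInf_of_empty] at h
      exact absurd h (by simp)
    · obtain ⟨i, hi⟩ := exists_eq_ciInf_of_finite (f := fun i => infEDist x (f i))
      exact ⟨i, hi.le.trans h⟩
  · rintro ⟨i, hi⟩
    exact (iInf_le _ i).trans hi

variable {Om : Set R3} {ι : Type*} {T : Tiling Om ι}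
  {s : Finset ι} {pr : (Te T).Cell → Prop} {R : ι → ℝ≥0} {m : ι → ℝ≥0}

open Classical in
/-- the tiles of `s` which meet `S` -/
def Zc (T : Tiling Om ι) (s : Finset ι) (S : Set R3) : Finset s :=
  Finset.univ.filter fun k => (P (T.H k) ∩ S).Nonempty

theorem mem_Zc {S : Set R3} {k : s} : k ∈ Zc T s S ↔ (P (T.H k) ∩ S).Nonempty := by
  classical
  unfold Zc
  rw [Finset.mem_filter]
  exact ⟨fun h => h.2, fun h => ⟨Finset.mem_univ _, h⟩⟩

/-- the integral over a set which is covered by the tiles of `s` -/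
theorem int_Zc {S : Set R3} (hO : S ⊆ Om) (hs : ∀ t, (P (T.H t) ∩ S).Nonempty → t ∈ s)
    (F : R3 → ℝ≥0∞) (b : s → ℝ≥0∞) (h : ∀ k ∈ Zc T s S, ∫⁻ x in P (T.H k) ∩ S, F x ≤ b k) :
    ∫⁻ x in S, F x ≤ ∑ k ∈ Zc T s S, b k := by
  classical
  have h1 : S ⊆ ⋃ k : {k // k ∈ Zc T s S}, P (T.H k.1) ∩ S := by
    intro x hx
    obtain ⟨t, ht⟩ := T.cov _ (hO hx)
    have hts := hs t ⟨x, ht, hx⟩
    exact mem_iUnion.2 ⟨⟨⟨t, hts⟩, mem_Zc.2 ⟨x, ht, hx⟩⟩, ht, hx⟩
  calc ∫⁻ x in S, F x ≤ ∫⁻ x in ⋃ k : {k // k ∈ Zc T s S}, P (T.H k.1) ∩ S, F x :=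
        lintegral_mono_set h1
    _ ≤ ∑' k : {k // k ∈ Zc T s S}, ∫⁻ x in P (T.H k.1) ∩ S, F x := lintegral_iUnion_le _ _
    _ = ∑ k : {k // k ∈ Zc T s S}, ∫⁻ x in P (T.H k.1) ∩ S, F x := tsum_fintype _
    _ ≤ ∑ k : {k // k ∈ Zc T s S}, b k.1 := Finset.sum_le_sum fun k _ => h k.1 k.2
    _ = ∑ k ∈ Zc T s S, b k := Finset.sum_coe_sort (Zc T s S) b

/-- **SHORT energies from (cells), (E2) of `cob_T`**: the set `S` is covered by `N` closed 1-cells if a
large tile meets its tube. -/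
theorem short_T {J : s → ℝ≥0∞} {u p : ℝ} {K : ℝ≥0} {ε : ℝ≥0∞} {g : R3 → ℝ≥0∞}
    (hcell : ∀ k : s, (p < 2 ∨ ∀ y ∈ reps (Te T) s pr, (k : ι) ∉ (Te T).at_ y) →
        ∫⁻ x in P (T.H k), g x ≤ ENNReal.ofReal (CB p K (m k)) * J k + ε)
    (hE : ∀ (c : EgS (Te T) s) (k : s), SmallR R m u k →
        ∫⁻ x in P ((Te T).H k) ∩ cthickening u c.1.set, g (w2 x) ≤
        ENNReal.ofReal (CE p K (m k)) * J k + ε)
    {S : Set E3} (hO : w2 '' cthickening u S ⊆ Om)
    (hs : ∀ t, (P (T.H t) ∩ w2 '' cthickening u S).Nonempty → t ∈ s)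
    (hsm : ∀ k : s, (P (T.H k) ∩ w2 '' cthickening u S).Nonempty → ¬ SmallR R m u k →
      p < 2 ∨ ∀ y ∈ reps (Te T) s pr, (k : ι) ∉ (Te T).at_ y)
    {N : ℕ} (hN : ∀ k : s, (P (T.H k) ∩ w2 '' cthickening u S).Nonempty → SmallR R m u k →
      ∃ c : Fin N → EgS (Te T) s, S ⊆ ⋃ i, (c i).1.set)
    {C : ℝ≥0∞} (hC : ∀ k : s, (P (T.H k) ∩ w2 '' cthickening u S).Nonempty →
      ENNReal.ofReal (CB p K (m k)) + N * ENNReal.ofReal (CE p K (m k)) ≤ C) :
    ∫⁻ y in w2 '' cthickening u S, g y ≤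
      ∑ k ∈ Zc T s (w2 '' cthickening u S), (C * J k + (N + 1) * ε) := by
  refine int_Zc hO hs g _ fun k hk => ?_
  have hk' := mem_Zc.1 hk
  by_cases hR : SmallR R m u k
  · obtain ⟨c, hc⟩ := hN k hk' hR
    have h1 : P (T.H k) ∩ w2 '' cthickening u S ⊆
        ⋃ i, w2 '' (P ((Te T).H k) ∩ cthickening u (c i).1.set) := by
      rintro _ ⟨hy, x, hx, rfl⟩
      have h2 : x ∈ ⋃ i, cthickening u (c i).1.set := by
        rw [← cthickening_iUnion_fin]
        exact cthickening_subset_of_subset u hc hx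
      obtain ⟨i, hi⟩ := mem_iUnion.1 h2
      refine mem_iUnion.2 ⟨i, mem_image_of_mem _ ⟨?_, hi⟩⟩
      rw [Te_P]
      exact hy
    calc ∫⁻ y in P (T.H k) ∩ w2 '' cthickening u S, g y
        ≤ ∫⁻ y in ⋃ i, w2 '' (P ((Te T).H k) ∩ cthickening u (c i).1.set), g y :=
          lintegral_mono_set h1
      _ ≤ ∑' i, ∫⁻ y in w2 '' (P ((Te T).H k) ∩ cthickening u (c i).1.set), g y :=
          lintegral_iUnion_le _ _
      _ = ∑ i, ∫⁻ y in w2 '' (P ((Te T).H k) ∩ cthickening u (c i).1.set), g y := tsum_fintype _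
      _ ≤ ∑ _i : Fin N, (ENNReal.ofReal (CE p K (m k)) * J k + ε) := by
          refine Finset.sum_le_sum fun i _ => ?_
          rw [← int_w2]
          exact hE (c i) k hR
      _ = N * ENNReal.ofReal (CE p K (m k)) * J k + N * ε := by
          rw [Finset.sum_const, Finset.card_univ, Fintype.card_fin, nsmul_eq_mul, mul_add,
            mul_assoc]
      _ ≤ C * J k + (N + 1) * ε := by
          refine add_le_add (mul_le_mul' (le_add_self.trans (hC k hk')) le_rfl) ?_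
          exact mul_le_mul' le_self_add le_rfl
  · refine (lintegral_mono_set inter_subset_left).trans ((hcell k (hsm k hk' hR)).trans ?_)
    refine add_le_add (mul_le_mul' (le_self_add.trans (hC k hk')) le_rfl) ?_
    calc ε = 1 * ε := (one_mul _).symm
      _ ≤ (N + 1) * ε := mul_le_mul' le_add_self le_rfl

/-! ### the edges of a block as chains of closed 1-cells -/

/-- a 1-cell of the tiling as an element of `EgS (Te T) s` -/
theorem exists_EgS {y : R3} (hy : y ∈ Om) (hd : T.dim y = 1) {t : ι} (ht : t ∈ s)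
    (hyt : y ∈ P (T.H t)) : ∃ c : EgS (Te T) s, c.1.set = w2 ⁻¹' (T.cc y) := by
  have h0 : w2.symm y ∈ (P3.symm : R3 ≃L[ℝ] E3).symm ⁻¹' Om := by
    show w2 (w2.symm y) ∈ Om
    rwa [w2.apply_symm_apply]
  have e1 : (Te T).cc (w2.symm y) = w2 ⁻¹' (T.cc y) := by
    ext z
    have h1 := Ttr_622.mem_cc_tr (T := T) (P3.symm : R3 ≃L[ℝ] E3) (x := w2.symm y) (y := z)
    have h2 : (P3.symm : R3 ≃L[ℝ] E3).symm (w2.symm y) = y := w2.apply_symm_apply y
    rw [h2] at h1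
    exact h1
  have h3 : (t : ι) ∈ (Te T).at_ (w2.symm y) := by
    show w2.symm y ∈ P ((Te T).H t)
    rw [Te_P, mem_preimage, w2.apply_symm_apply]
    exact hyt
  refine ⟨⟨(Te T).cl h0, ?_, t, ht, (Te T).cc_sub_tile h3⟩, e1⟩
  rw [(Te T).dim_cl h0, Te_dim, w2.apply_symm_apply, hd]

/-- a point of `[0,1]` lies in one of the pieces -/
theorem exists_piece {t : ℕ → ℝ} {n : ℕ} (h0 : t 0 = 0) (h1 : t n = 1) {τ : ℝ}
    (hτ : τ ∈ Icc (0:ℝ) 1) (hn : 0 < n) : ∃ i < n, t i ≤ τ ∧ τ ≤ t (i + 1) := by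
  classical
  by_contra hcon
  push Not at hcon
  have key : ∀ i, i < n → t i ≤ τ := by
    intro i
    induction i with
    | zero => exact fun _ => by rw [h0]; exact hτ.1
    | succ i ih => exact fun hi => (hcon i (by omega) (ih (by omega))).le
  obtain ⟨m, rfl⟩ : ∃ m, n = m + 1 := ⟨n - 1, by omega⟩
  have h2 := hcon m (by omega) (key m (by omega))
  rw [h1] at h2
  exact absurd hτ.2 (not_le.2 h2)

/-- the chain of closed 1-cells of an edge -/
theorem cover_chain {e : R3 × R3} {n : ℕ} {t : ℕ → ℝ} (hn : 0 < n) (h0 : t 0 = 0) (h1 : t n = 1)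
    (hc : ∀ i < n, ∃ y ∈ Om, T.dim y = 1 ∧
      T.cc y = segment ℝ (e.1 + t i • (e.2 - e.1)) (e.1 + t (i + 1) • (e.2 - e.1)))
    (hs : ∀ k, (P (T.H k) ∩ segment ℝ e.1 e.2).Nonempty → k ∈ s)
    (ht : ∀ i ≤ n, 0 ≤ t i ∧ t i ≤ 1) {N : ℕ} (hN : n ≤ N) :
    ∃ c : Fin N → EgS (Te T) s, sE e ⊆ ⋃ i, (c i).1.set := by
  classical
  have h2 : ∀ i < n, ∃ c : EgS (Te T) s, c.1.set =
      w2 ⁻¹' (segment ℝ (e.1 + t i • (e.2 - e.1)) (e.1 + t (i + 1) • (e.2 - e.1))) := by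
    intro i hi
    obtain ⟨y, hy, hd, hcc⟩ := hc i hi
    obtain ⟨k, hk⟩ := T.cov _ hy
    have hys : y ∈ segment ℝ e.1 e.2 := by
      have h3 := T.self_mem_cc y
      rw [hcc] at h3
      have h4 : ∀ j ≤ n, e.1 + t j • (e.2 - e.1) ∈ segment ℝ e.1 e.2 := by
        intro j hj
        rw [segment_eq_image']
        exact ⟨t j, ht j hj, rfl⟩
      exact (convex_segment _ _).segment_subset (h4 i hi.le) (h4 (i+1) hi) h3
    obtain ⟨c, hc'⟩ := exists_EgS (s := s) hy hd (hs k ⟨y, hk, hys⟩) hk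
    exact ⟨c, by rw [hc', hcc]⟩
  have : Nonempty (EgS (Te T) s) := ⟨(h2 0 hn).choose⟩
  choose! c hc' using h2
  refine ⟨fun i => if i.1 < n then c i.1 else c 0, fun y hy => ?_⟩
  rw [mem_sE, segment_eq_image'] at hy
  obtain ⟨τ, hτ, hy⟩ := hy
  obtain ⟨i, hi, h3, h4⟩ := exists_piece h0 h1 hτ hn
  refine mem_iUnion.2 ⟨⟨i, by omega⟩, ?_⟩
  simp only [hi, if_true]
  rw [hc' i hi, mem_preimage, ← hy]
  rcases eq_or_lt_of_le (h3.trans h4) with h5 | h5
  · have : τ = t i := le_antisymm (h5 ▸ h4) h3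
    rw [this]
    exact left_mem_segment ℝ _ _
  · rw [segment_eq_image']
    refine ⟨(τ - t i) / (t (i+1) - t i), ⟨div_nonneg (by linarith) (by linarith), ?_⟩, ?_⟩
    · rw [div_le_one (by linarith)]
      linarith
    · simp only
      rw [add_sub_add_left_eq_sub, ← sub_smul, smul_smul, div_mul_cancel₀ _ (by linarith), add_assoc,
        ← add_smul]
      congr 2
      ring

/-- **SHORT energies, one edge, in the form of `h2b_inc`** -/
theorem short_edge {J : s → ℝ≥0∞} {u p : ℝ} {K : ℝ≥0} {ε : ℝ≥0∞} {g : R3 → ℝ≥0∞}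
    (hcell : ∀ k : s, (p < 2 ∨ ∀ y ∈ reps (Te T) s pr, (k : ι) ∉ (Te T).at_ y) →
        ∫⁻ x in P (T.H k), g x ≤ ENNReal.ofReal (CB p K (m k)) * J k + ε)
    (hE : ∀ (c : EgS (Te T) s) (k : s), SmallR R m u k →
        ∫⁻ x in P ((Te T).H k) ∩ cthickening u c.1.set, g (w2 x) ≤
        ENNReal.ofReal (CE p K (m k)) * J k + ε)
    {e : R3 × R3} (hO : w2 '' cthickening u (sE e) ⊆ Om)
    (hs : ∀ t, (P (T.H t) ∩ w2 '' cthickening u (sE e)).Nonempty → t ∈ s)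
    (hsm : ∀ k : s, (P (T.H k) ∩ w2 '' cthickening u (sE e)).Nonempty → ¬ SmallR R m u k →
      p < 2 ∨ ∀ y ∈ reps (Te T) s pr, (k : ι) ∉ (Te T).at_ y)
    {N : ℕ} (hN : ∀ k : s, (P (T.H k) ∩ w2 '' cthickening u (sE e)).Nonempty → SmallR R m u k →
      ∃ (n : ℕ) (t : ℕ → ℝ), 0 < n ∧ n ≤ N ∧ t 0 = 0 ∧ t n = 1 ∧
        (∀ i ≤ n, 0 ≤ t i ∧ t i ≤ 1) ∧ ∀ i < n, ∃ y ∈ Om, T.dim y = 1 ∧
        T.cc y = segment ℝ (e.1 + t i • (e.2 - e.1)) (e.1 + t (i + 1) • (e.2 - e.1)))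
    {C : ℝ≥0∞} (hC : ∀ k : s, (P (T.H k) ∩ w2 '' cthickening u (sE e)).Nonempty →
      ENNReal.ofReal (CB p K (m k)) + N * ENNReal.ofReal (CE p K (m k)) ≤ C) :
    ∫⁻ y in w2 '' cthickening u (sE e), g y ≤
      ∑ k ∈ Zc T s (w2 '' cthickening u (sE e)), (C * J k + (N + 1) * ε) := by
  refine short_T hcell hE hO hs hsm (fun k hk hR => ?_) hC
  obtain ⟨n, t, h1, h2, h3, h4, h5, h6⟩ := hN k hk hR
  refine cover_chain h1 h3 h4 h6 (fun l hl => hs l ?_) h5 h2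
  obtain ⟨y, hy1, hy2⟩ := hl
  rw [← image_sE] at hy2
  exact ⟨y, hy1, image_mono (self_subset_cthickening _) hy2⟩

end

end Crest.Agent.R096.She_227
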