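import Crest.Agent.R096.Shp7_432
import Crest.Agent.R096.Gsc3_476
import Crest.Agent.R096.She2_227
import Crest.Agent.R096.Sqt17_143
import Crest.Agent.R096.Oi1_961

/-!
# Row 96 (helper432), COMPOSITE B, (D1): `LongE` for the edges of a block of `h.T a` all of whose
near tiles are deep
-/

set_option autoImplicit false
set_option linter.unusedSectionVars false

open Set Metric MeasureTheory Filter
open scoped ENNReal NNReal Topology

namespace Crest.Agent.R096.Shp_432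

open Crest.AnalysisR.VecCalc3 Crest.AnalysisR.Sobolev
open Crest.Agent.R096.Msh_715 (P I Tiling)
open Crest.Agent.R096.Mal_874 (CB)
open Crest.Agent.R096.Sq_55 (E3 Sys w2)
open Crest.Agent.R096.Sqt_143 (sg Zn DeepS)
open Crest.Agent.R096.Cob_622 (SmallR Te_P)
open Crest.Agent.R096.Efi_296
open Crest.Agent.R96.Coarse_538 (seg)
open Crest.Agent.R096.She_227 (sE isCompact_sE image_sE mem_sE exists_EgS)
open Crest.Agent.R096.Oi_961
open Crest.Agent.R96.En10_199 (P3)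
open Crest.Agent.R096.Ca_855
open Crest.Agent.R096.Ca_855.MIn (BQ)
open Crest.Agent.R096.Pin_753 (BlkP Ed)
open Crest.Agent.R096.Gsc_476 (sclT)

/-- the pieces of an edge -/
theorem pce_eq (e : R3 × R3) (t : ℕ → ℝ) (i : ℕ) :
    pce e t i = sE (e.1 + t i • (e.2 - e.1), e.1 + t (i + 1) • (e.2 - e.1)) := by
  have h1 : w2.symm (e.1 + t i • (e.2 - e.1)) = w2.symm e.1 + t i • w2.symm (e.2 - e.1) := by
    show P3.symm _ = P3.symm _ + t i • P3.symm _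
    rw [map_add, map_smul]
  have h2 : w2.symm (e.1 + t (i + 1) • (e.2 - e.1) - (e.1 + t i • (e.2 - e.1))) =
      (t (i + 1) - t i) • w2.symm (e.2 - e.1) := by
    show P3.symm _ = (t (i + 1) - t i) • P3.symm _
    rw [← map_smul]
    congr 1
    rw [sub_smul]
    abel
  show sg _ _ = sg _ _
  rw [h1, h2]

theorem image_pce (e : R3 × R3) (t : ℕ → ℝ) (i : ℕ) :
    w2 '' pce e t i = segment ℝ (e.1 + t i • (e.2 - e.1)) (e.1 + t (i + 1) • (e.2 - e.1)) := by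
  rw [pce_eq, image_sE]

theorem seg_piece {p q : R3} {τ τ' : ℝ} (h0 : 0 ≤ τ) (h1 : τ ≤ 1) (h2 : 0 ≤ τ') (h3 : τ' ≤ 1) :
    segment ℝ (p + τ • (q - p)) (p + τ' • (q - p)) ⊆ segment ℝ p q := by
  have h : ∀ {r : ℝ}, 0 ≤ r → r ≤ 1 → p + r • (q - p) ∈ segment ℝ p q := by
    intro r hr hr1
    rw [segment_eq_image']
    exact ⟨r, ⟨hr, hr1⟩, rfl⟩
  exact (convex_segment p q).segment_subset (h h0 h1) (h h2 h3)

theorem pce_sub {e : R3 × R3} {t : ℕ → ℝ} {i : ℕ} (h0 : 0 ≤ t i) (h1 : t i ≤ 1)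
    (h2 : 0 ≤ t (i + 1)) (h3 : t (i + 1) ≤ 1) : pce e t i ⊆ sE e := by
  intro y hy
  rw [mem_sE]
  refine seg_piece h0 h1 h2 h3 ?_
  rw [← image_pce]
  exact mem_image_of_mem _ hy

/-- a point of the tube of a piece -/
theorem cth_pce {e : R3 × R3} {t : ℕ → ℝ} {i : ℕ} {u : ℝ} (hu : 0 ≤ u) {z : E3}
    (hz : z ∈ cthickening u (pce e t i)) :
    ∃ y ∈ segment ℝ (e.1 + t i • (e.2 - e.1)) (e.1 + t (i + 1) • (e.2 - e.1)),
      ‖w2 z - y‖ ≤ 2 * u := by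
  have hc : IsCompact (pce e t i) := by rw [pce_eq]; exact isCompact_sE _
  rw [hc.cthickening_eq_biUnion_closedBall hu] at hz
  obtain ⟨y, hy, hzy⟩ := mem_iUnion₂.1 hz
  refine ⟨w2 y, by rw [← image_pce]; exact mem_image_of_mem _ hy, ?_⟩
  have h1 : dist (w2 z) (w2 y) ≤ 2 * dist z y := dist_P3_le z y
  rw [dist_eq_norm] at h1
  have h2 : dist z y ≤ u := mem_closedBall.1 hzy
  linarith

section

variable {Om W : Set R3} {ρ₀ : R3 → ℝ} {J : Type} [Finite J] {Qb : J → CB R3 3} {k0 : ℕ} {σ : ℝ}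

/-- a block of the mesh lies in `Om` -/
theorem N_tr_sub_Om (h : MIn Om W ρ₀ Qb k0 σ) {a : R3} (ha : ‖a‖ ≤ σ / 8) (j : J) :
    ((Qb j).tr a).N ⊆ Om := by
  intro y hy
  have h1 : y - a ∈ (Qb j).N := by
    rw [CB.N_tr] at hy
    exact hy
  have h2 := h.hW _ (h.hN j h1)
  have h3 := h.lip (y - a) y
  rw [sub_sub_cancel_left, norm_neg] at h3
  have h0 := h.σ0
  exact (h.pos y).1 (by linarith)

end

/-- **(D1)** `LongE` for an edge of a block all of whose near tiles are deep -/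
theorem longE_of_deep (Bs : ℕ) {κ : ℝ} (hκ : 0 < κ) (hκ1 : κ ≤ 1) :
    ∃ (np nc K0 : ℕ) (lam cV : ℝ), 0 < lam ∧ 0 < cV ∧ 2 ≤ K0 ∧
    ∀ {Om W : Set R3} {ρ₀ : R3 → ℝ} {J : Type} [Finite J]
      {Qb : J → CB R3 3} {k0 Nn : ℕ} {σ : ℝ} (h : MIn Om W ρ₀ Qb k0 σ),
      (∀ j, BQ κ Bs Nn (Qb j) k0) → ∀ {a : R3}, ‖a‖ ≤ σ / 8 → ∀ (j : J) {K1 : ℕ}, K0 ≤ K1 →
      ∀ {κe : Type*} {s : Finset (h.ιT a)} {pr : (Te (h.T a)).Cell → Prop}
        {R m : h.ιT a → ℝ≥0} {ρ : E3 → ℝ≥0} {x v : κe → R3} {b : R3}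
        {me : EgS (Te (h.T a)) s → κe}, (∀ c, w2 '' c.1.set = seg x v b (me c)) →
      ∀ {C : Set R3} {M : ℝ≥0} {nb : ℕ} {u : ℝ}, 1 ≤ M → u = 4 * κ⁻¹ / (5 * 2 ^ k0) →
      DeepS (h.T a) s pr R m ρ u C M nb
        {l | P ((h.T a).H l) ⊆ ((Qb j).tr a).N ∧ sclT h a l + K1 ≤ k0} →
      ∀ e ∈ Ed ((Qb j).tr a) k0 (h.hk j),
      (∀ l, (P ((Te (h.T a)).H l) ∩ cthickening (25 * (M : ℝ)^4 * u) (sE e)).Nonempty →
        P ((h.T a).H l) ⊆ ((Qb j).tr a).N ∧ sclT h a l + K1 ≤ k0) →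
      ∃ (m' : ℕ) (t : ℕ → ℝ) (S : ℕ → Finset s),
        LongE (h.T a) s pr R ρ m x v b me C nb (2 ^ nb) np nc lam cV M u e m' t S := by
  obtain ⟨lam, hlam, hlam1, HC⟩ := exists_chain_T Bs
  obtain ⟨nc, nE, D, μ, γ, V, hD, hμ, hγ, hV, HL⟩ := long_tile Bs hκ hκ1
  obtain ⟨K0, hK0, HL⟩ := HL (8 * κ⁻¹ / 5)
  obtain ⟨np, hnp⟩ := exists_nat_ge (1 / lam)
  refine ⟨np, nc, K0, lam, V, hlam, hV, hK0, ?_⟩
  intro Om W ρ₀ J _ Qb k0 Nn σ h hb a ha j K1 hK κe s pr R m ρ x v b me hme C M nb u hM hu hDp e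
    he hL
  classical
  have hu0 : 0 < u := by rw [hu]; positivity
  have hΛ : 2 * u = 8 * κ⁻¹ / 5 / 2 ^ k0 := by rw [hu]; field_simp; ring
  have hM' : (1:ℝ) ≤ M := by exact_mod_cast hM
  have h25 : u ≤ 25 * (M:ℝ)^4 * u := by
    have h1 : (1:ℝ) ≤ (M:ℝ)^4 := one_le_pow₀ hM'
    nlinarith
  have hNO := N_tr_sub_Om h ha j
  have hseg : segment ℝ e.1 e.2 ⊆ ((Qb j).tr a).N := by
    obtain ⟨_, _, _, h3⟩ := he
    exact h3
  have hat : ∀ y ∈ segment ℝ e.1 e.2, ∀ l, y ∈ P ((h.T a).H l) →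
      P ((h.T a).H l) ⊆ ((Qb j).tr a).N ∧ scT h a l + K1 ≤ k0 := by
    intro y hy l hl
    refine hL l ⟨w2.symm y, ?_, self_subset_cthickening _ ?_⟩
    · rw [Te_P, mem_preimage, w2.apply_symm_apply]
      exact hl
    · rw [mem_sE, w2.apply_symm_apply]
      exact hy
  have hdis : Disjoint (segment ℝ e.1 e.2) (frontier ((Qb j).tr a).N) := by
    rw [Set.disjoint_left]
    intro y hy hyf
    obtain ⟨l, hl⟩ := (h.T a).cov y (hNO (hseg hy))
    have h1 := (hat y hy l hl).2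
    exact Set.disjoint_left.1 (T_off_wall h ha j (t := l) (by omega)) hl hyf
  obtain ⟨m', t, h1, h2, h3, h4, h5, h6, h7, -⟩ := HC hκ hκ1 h hb ha j he hdis
  have hne : e.2 - e.1 ≠ 0 := by
    intro h0
    obtain ⟨y, -, hy1, hy2⟩ := h7 0 h1
    have h8 := (h.T a).self_mem_cc y
    rw [hy2, h0, smul_zero, smul_zero, add_zero, segment_same, mem_singleton_iff] at h8
    have h9 := (h6 0 (Nat.zero_le _)).2.2
    rw [h0, smul_zero, add_zero, ← h8, hy1] at h9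
    exact one_ne_zero h9
  have hlt : ∀ i < m', t i < t (i + 1) := fun i hi => by linarith [h5 i hi]
  have hpc : ∀ i < m', pce e t i ⊆ sE e := fun i hi =>
    pce_sub (h6 i hi.le).1 (h6 i hi.le).2.1 (h6 (i + 1) hi).1 (h6 (i + 1) hi).2.1
  -- the deep tile of a piece
  have hpiece : ∀ i < m', ∃ y ∈ Om, (h.T a).dim y = 1 ∧
      (h.T a).cc y = segment ℝ (e.1 + t i • (e.2 - e.1)) (e.1 + t (i + 1) • (e.2 - e.1)) ∧
      ∃ l₀, y ∈ P ((h.T a).H l₀) ∧ P ((h.T a).H l₀) ⊆ ((Qb j).tr a).N ∧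
        scT h a l₀ + K1 ≤ k0 := by
    intro i hi
    obtain ⟨y, hyO, hy1, hy2⟩ := h7 i hi
    obtain ⟨l₀, hl₀⟩ := (h.T a).cov y hyO
    have h8 : y ∈ segment ℝ e.1 e.2 := by
      refine seg_piece (h6 i hi.le).1 (h6 i hi.le).2.1 (h6 (i + 1) hi).1 (h6 (i + 1) hi).2.1 ?_
      rw [← hy2]
      exact (h.T a).self_mem_cc y
    exact ⟨y, hyO, hy1, hy2, l₀, hl₀, hat y h8 l₀ hl₀⟩
  -- tiles at the tube of a piece
  have hdeep : ∀ i < m', ∀ l, (P ((Te (h.T a)).H l) ∩ cthickening u (pce e t i)).Nonempty →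
      P ((h.T a).H l) ⊆ ((Qb j).tr a).N ∧ sclT h a l + K1 ≤ k0 := by
    rintro i hi l ⟨z, hz1, hz2⟩
    exact hL l ⟨z, hz1, cthickening_mono h25 _ (cthickening_subset_of_subset _ (hpc i hi) hz2)⟩
  have hNt : ∀ i < m', ∀ l, (P ((Te (h.T a)).H l) ∩ cthickening u (pce e t i)).Nonempty →
      l ∈ Nt (h.T a) (segment ℝ (e.1 + t i • (e.2 - e.1)) (e.1 + t (i + 1) • (e.2 - e.1)))
        (8 * κ⁻¹ / 5 / 2 ^ k0) := by
    rintro i hi l ⟨z, hz1, hz2⟩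
    obtain ⟨y, hy, hzy⟩ := cth_pce hu0.le hz2
    rw [hΛ] at hzy
    rw [Te_P] at hz1
    exact ⟨y, hy, w2 z, hz1, hzy⟩
  refine ⟨m', t, fun i => Finset.univ.filter fun k : s =>
    (P ((Te (h.T a)).H (k : h.ιT a)) ∩ cthickening u (pce e t i)).Nonempty, ?_⟩
  have hmem : ∀ i (k : s), k ∈ (Finset.univ.filter fun k : s =>
      (P ((Te (h.T a)).H (k : h.ιT a)) ∩ cthickening u (pce e t i)).Nonempty) ↔
      (P ((Te (h.T a)).H (k : h.ιT a)) ∩ cthickening u (pce e t i)).Nonempty := fun i k => by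
    rw [Finset.mem_filter]
    exact ⟨fun h => h.2, fun h => ⟨Finset.mem_univ _, h⟩⟩
  refine
    { ne := hne
      t0 := h3
      tm := h4
      gap := h5
      num := ?_
      cell := ?_
      card := ?_
      cov := ?_
      sml := ?_
      zn := ?_
      em := ?_ }
  · have h8 : (m' : ℝ) ≤ 1 / lam := by
      rw [le_div_iff₀ hlam]
      exact h2
    exact_mod_cast h8.trans hnp
  · intro i hi
    obtain ⟨y, hyO, hy1, hy2, l₀, hl₀, h8, h9⟩ := hpiece i hi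
    obtain ⟨c, hc⟩ := exists_EgS hyO hy1 (hDp.sub l₀ ⟨h8, h9⟩) hl₀
    refine ⟨c, ?_⟩
    rw [hc, hy2, ← image_pce, preimage_image_eq _ w2.injective]
  · intro i hi
    obtain ⟨y, hyO, hy1, hy2, l₀, hl₀, h8, h9⟩ := hpiece i hi
    obtain ⟨-, hf, hc, -, -⟩ := HL h hb ha j l₀ h8 (by omega) y hl₀
    rw [hy2] at hf hc
    refine le_trans ?_ hc
    rw [← Set.ncard_coe_finset, ← Set.ncard_image_of_injective _ Subtype.val_injective]
    refine Set.ncard_le_ncard ?_ hf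
    rintro _ ⟨k, hk, rfl⟩
    exact hNt i hi _ ((hmem i k).1 (Finset.mem_coe.1 hk))
  · intro i hi z hz
    obtain ⟨y, hyO, hy1, hy2, l₀, hl₀, h8, h9⟩ := hpiece i hi
    obtain ⟨-, -, -, hcov, -⟩ := HL h hb ha j l₀ h8 (by omega) y hl₀
    obtain ⟨y', hy', hzy⟩ := cth_pce hu0.le hz
    rw [hΛ] at hzy
    obtain ⟨l, -, hzl⟩ := hcov y' (by rw [hy2]; exact hy') (w2 z) hzy
    have hzl' : z ∈ P ((Te (h.T a)).H l) := by
      rw [Te_P]
      exact hzl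
    have h10 : (P ((Te (h.T a)).H l) ∩ cthickening u (pce e t i)).Nonempty := ⟨z, hzl', hz⟩
    have hls : l ∈ s := hDp.sub l (hdeep i hi l h10)
    exact mem_iUnion₂.2 ⟨⟨l, hls⟩, (hmem i ⟨l, hls⟩).2 h10, hzl'⟩
  · intro i hi k hk
    exact hDp.sm k (hdeep i hi k ((hmem i k).1 hk))
  · intro i hi k hk
    have hk' := (hmem i k).1 hk
    obtain ⟨y, hyO, hy1, hy2, l₀, hl₀, h8, h9⟩ := hpiece i hi
    obtain ⟨-, -, -, -, hlen⟩ := HL h hb ha j l₀ h8 (by omega) y hl₀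
    have h10 : e.1 + t i • (e.2 - e.1) ≠ e.1 + t (i + 1) • (e.2 - e.1) := by
      intro h0
      have h11 := smul_left_injective ℝ hne (add_left_cancel h0)
      exact (hlt i hi).ne h11
    obtain ⟨-, hdiam⟩ := hlen _ _ hy2 h10
    refine DeepS.zn hu0.le hDp hme (hdeep i hi k hk') (fun y₁ hy₁ z₁ hz₁ => ?_) fun l hl => ?_
    · refine (hdiam k (by rw [hy2]; exact hNt i hi k hk') y₁ hy₁ z₁ hz₁).trans ?_
      refine mul_le_mul_of_nonneg_left ?_ hV.le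
      have h12 : e.1 + t (i + 1) • (e.2 - e.1) - (e.1 + t i • (e.2 - e.1)) =
          (t (i + 1) - t i) • (e.2 - e.1) := by
        rw [sub_smul]
        abel
      rw [h12, norm_smul, Real.norm_eq_abs, abs_of_nonneg (by linarith [hlt i hi])]
      refine mul_le_of_le_one_left (norm_nonneg _) ?_
      linarith [(h6 (i + 1) hi).2.1, (h6 i hi.le).1]
    · obtain ⟨z, hz1, hz2⟩ := hl
      exact hL l ⟨z, hz1, cthickening_subset_of_subset _ (hpc i hi) hz2⟩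
  · intro i hi k hk
    exact hDp.hM k (hdeep i hi k ((hmem i k).1 hk))

end Crest.Agent.R096.Shp_432
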