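import Crest.Agent.R096.H2n6_821
import Crest.Agent.R096.Onp2_622
import Crest.Agent.R096.Shp8_432
import Crest.Agent.R096.Lnk3_726

/-!
Row 96 (S0127), `p ≤ 2`, COMPOSITE B, (O1) (helper821): **the long edges of a block over 622's `SetD`**: the
join of 476's `deepS_T`, 432's `longE_of_deep`, 726's `long_M` and `nearE_T`.
-/

set_option autoImplicit false
set_option linter.style.longLine false
set_option linter.unusedSectionVars false

namespace Crest.Agent.R096.Lgb_821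

open MeasureTheory Set Filter Topology Metric
open Crest.AnalysisR.VecCalc3
open Crest.Agent.R096.Msh_715 (P I Tiling)
open Crest.Agent.R096.Mal_874 (CB)
open Crest.Agent.R096.Sq_55 (E3 Sys w2 GG GG_mono)
open Crest.Agent.R096.Cob_622
open Crest.Agent.R096.Efi_296
open Crest.Agent.R096.Cbs_296
open Crest.Agent.R096.Sqt_143 (sg Edge DeepS)
open Crest.Agent.R096.Oi_961
open Crest.Agent.R096.Ca_855
open Crest.Agent.R096.Ca_855.MIn (BQ)
open Crest.Agent.R096.Gsc_476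
open Crest.Agent.R096.Dps_476
open Crest.Agent.R096.Lnk_726
open Crest.Agent.R096.Onp_622 (SetD)
open Crest.Agent.R096.H2a_821 (SnS npS nearE_T)
open Crest.Agent.R096.She_227 (sE)
open Crest.Agent.R096.Sht_726 (NW)
open Crest.Agent.R096.Pin_753 (Ed)
open Crest.Agent.R96.Coarse_538 (seg)
open scoped ENNReal NNReal

noncomputable section

/-- the radius of the zone of the long edges -/
def rz (κ : ℝ) (vI : ℝ≥0) (k0 : ℕ) : ℝ := 20 * (GG vI : ℝ) ^ 4 * κ⁻¹ / 2 ^ k0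

/-- the short edges of the block -/
def ShB {Om W : Set R3} {ρ₀ : R3 → ℝ} {J : Type} [Finite J] {Qb : J → CB R3 3} {k0 : ℕ} {σ : ℝ}
    (h : MIn Om W ρ₀ Qb k0 σ) (a : R3) (j : J) (κ : ℝ) (vI : ℝ≥0) (K1 : ℕ) : Set (R3 × R3) :=
  {e | ¬ Lg h a j K1 (rz κ vI k0) e}

theorem not_mem_ShB {Om W : Set R3} {ρ₀ : R3 → ℝ} {J : Type} [Finite J] {Qb : J → CB R3 3} {k0 : ℕ}
    {σ : ℝ} {h : MIn Om W ρ₀ Qb k0 σ} {a : R3} {j : J} {κ : ℝ} {vI : ℝ≥0} {K1 : ℕ} {e : R3 × R3}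
    (he : e ∉ ShB h a j κ vI K1) : Lg h a j K1 (rz κ vI k0) e := by
  by_contra hcon
  exact he hcon

/-- **the long edges of a block**: all the constants see `κ, Bs, nb, vI, K3` only, `K1` is any number `≥ K₀`,
`N` sees also `K1` -/
theorem long_blk (Bs : ℕ) {κ : ℝ} (hκ : 0 < κ) (hκ1 : κ ≤ 1) (nb : ℕ) (vI : ℝ≥0) (hvI : 1 ≤ vI)
    (K3 : ℕ) (hK3 : 1 ≤ K3) :
    ∃ (np nc nw K₀ : ℕ) (lam cV Cb : ℝ), 0 < lam ∧ 0 < cV ∧ 0 ≤ Cb ∧ K3 + 1 ≤ K₀ ∧ 4 ≤ K₀ ∧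
    ∀ K1, K₀ ≤ K1 → ∃ N : ℕ,
    ∀ {p : ℝ} {Om W : Set R3} {ρ₀ : R3 → ℝ} {J : Type} [Finite J]
      {Qb : J → CB R3 3} {k0 Nn : ℕ} {σ : ℝ} (h : MIn Om W ρ₀ Qb k0 σ),
      (∀ j, BQ κ Bs Nn (Qb j) k0) → ∀ {a : R3}, ‖a‖ ≤ σ / 8 →
    ∀ {kk : J → Fin 3 → ℤ} {Q : Finset (Fin 3 → ℤ)} {vU vN : ℝ≥0} {f : R3 → R3} {Φ : R3 ≃ₜ R3}
      {U K₀ : Set R3} {s : Finset (h.ιT a)} {pr : (Te (h.T a)).Cell → Prop} {c : h.ιT a → E3}
      {κt : h.ιT a → ℕ} {R u : h.ιT a → ℝ≥0} {X : Sys s (reps (Te (h.T a)) s pr)},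
      SetD p h a kk Q K1 K3 vU vI vN f Φ U K₀ s pr c κt R u X →
      (∀ t, {l | (P ((h.T a).H l) ∩ P ((h.T a).H t)).Nonempty}.ncard ≤ nb) →
    ∀ {κe : Type*} {x v : κe → R3} {b : R3} {me : EgS (Te (h.T a)) s → κe},
      (∀ c, w2 '' c.1.set = seg x v b (me c)) →
    ∀ (j : J), kk j ∈ Q → ((Qb j).tr a).N ⊆ K₀ → (Qb j).kc + K1 < k0 →
    ∀ {C : Set R3}, ((Qb j).tr a).N ⊆ C → ∀ {uu : ℝ}, uu = 4 * κ⁻¹ / (5 * 2 ^ k0) →
      DeepS (h.T a) s pr R (mS (Te (h.T a)) s pr u) (ρS (Te (h.T a)) R) uu C (GG vI) nb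
        (deepJ h a j K1) ∧
      (∀ e ∈ Ed ((Qb j).tr a) k0 (h.hk j), e ∉ ShB h a j κ vI K1 → ∃ m' t S,
        LongE (h.T a) s pr R (ρS (Te (h.T a)) R) (mS (Te (h.T a)) s pr u) x v b me C nb (2 ^ nb)
          np nc lam cV (GG vI) uu e m' t S ∧
        NearE X (npS X (mS (Te (h.T a)) s pr u) uu nw Cb) nw Cb e m' t) ∧
      (∀ e ∈ Ed ((Qb j).tr a) k0 (h.hk j), e ∈ ShB h a j κ vI K1 →
        ∃ y ∈ segment ℝ e.1 e.2, NW ((Qb j).tr a) k0 N y) ∧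
      ((Qb j).kc + N ≤ k0 → ∀ e ∈ Ed ((Qb j).tr a) k0 (h.hk j),
        segment ℝ e.1 e.2 ⊆ ((Qb j).tr a).Kc → e ∉ ShB h a j κ vI K1) := by
  obtain ⟨np, nc, KL, lam, cV, hlam, hcV, hKL, HL⟩ := Shp_432.longE_of_deep Bs hκ hκ1
  obtain ⟨Dd, hDd, HN⟩ := nearE_T Bs
  set M : ℝ≥0 := GG vI with hM
  have hM1 : 1 ≤ M := Sq_55.one_le_GG vI
  set cu : ℝ := 4 * κ⁻¹ / 5 with hcu
  have hcu0 : 0 ≤ cu := by positivity
  obtain ⟨K₁, hK₁, hK₁4, hK₁A⟩ := exists_K1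
    (max (80 * (M : ℝ) ^ 4 * cu) (16 * (vI:ℝ)^9 * (1 + 4 * ((M : ℝ) * M)) * cu)) K3
  refine ⟨np, nc, (nb + nb * nb) * ⌊vI⌋₊ + 2, max K₁ KL, lam, cV,
    8 * (vI:ℝ)^9 * (1 + 4 * ((M : ℝ) * M)) * (8 * Dd / κ), hlam, hcV, by positivity,
    hK₁.trans (le_max_left _ _), hK₁4.trans (le_max_left _ _), ?_⟩
  intro K1 hK1
  have hK1a : K₁ ≤ K1 := (le_max_left _ _).trans hK1
  have hK1L : KL ≤ K1 := (le_max_right _ _).trans hK1
  have hpow : (2:ℝ) ^ K₁ ≤ 2 ^ K1 := pow_le_pow_right₀ one_le_two hK1a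
  obtain ⟨N, HM⟩ := long_M hκ K1 (cz := 20 * (M : ℝ) ^ 4 * κ⁻¹) (by positivity)
  refine ⟨N, ?_⟩
  intro p Om W ρ₀ J _ Qb k0 Nn σ h hb a ha kk Q vU vN f Φ U K₀ s pr c κt R u X hS hnb κe x v b me
    hme j hj hNK hkc C hC uu huu
  have huc : uu ≤ cu / 2 ^ k0 := by
    rw [huu, hcu, div_div]
  have hD : DeepS (h.T a) s pr R (mS (Te (h.T a)) s pr u) (ρS (Te (h.T a)) R) uu C (GG vI) nb
      (deepJ h a j K1) :=
    deepS_T h ha hK3 (hK₁.trans hK1a) hS.mem_s hNK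
      (fun c hc h1 h2 => hS.pr_of c hc h1 (.inr fun k hk => deepJ_sub h hj (h2 hk)))
      hS.κ2 hS.R_eq hS.R2 (hS.uI j) hnb hC hcu0 huc
      ((le_max_left _ _).trans (hK₁A.trans hpow))
  have hzone : 25 * (M : ℝ) ^ 4 * uu = rz κ vI k0 := by
    rw [huu, zone_eq]; rfl
  have hcell : ∀ {e : R3 × R3}, Lg h a j K1 (rz κ vI k0) e → ∀ l,
      (P ((Te (h.T a)).H l) ∩ cthickening (25 * (M : ℝ)^4 * uu) (sE e)).Nonempty →
      l ∈ deepJ h a j K1 := by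
    intro e he l hl
    obtain ⟨y, hy1, hy2⟩ := hl
    refine he l ⟨w2 y, mem_P_Te.1 hy1, ?_⟩
    rw [← hzone]
    exact mem_image_of_mem _ hy2
  refine ⟨hD, fun e he hes => ?_, fun e he hes => ?_, fun hkN e he hKc hes => ?_⟩
  · have hLg := not_mem_ShB hes
    obtain ⟨m', t, S, hLE⟩ := HL h hb ha j hK1L hme hM1 huu hD e he (hcell hLg)
    refine ⟨m', t, S, hLE, ?_⟩
    refine HN hκ hκ1 h hb ha hK3 (hK₁.trans hK1a) hS.sys hS.edge hS.κ2 hS.R_eq hS.R2 hvI (hS.uI j)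
      hD hcu0 huc ((le_max_right _ _).trans (hK₁A.trans hpow)) le_rfl le_rfl hLE.cell ?_
    intro i hi l hl
    refine hcell hLg l (hl.mono (inter_subset_inter_right _ ?_))
    -- a piece lies in the edge
    have huu0 : 0 ≤ uu := by rw [huu]; positivity
    refine Subset.trans ?_ (self_subset_cthickening _)
    have hmono : ∀ i ≤ m', 0 ≤ t i := by
      intro i
      induction i with
      | zero => intro _; rw [hLE.t0]
      | succ i ih =>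
        intro hi'
        have h1 := hLE.gap i (by omega)
        have h2 := ih (by omega)
        linarith
    have hmono' : ∀ i ≤ m', ∀ i' ≤ i, t i' ≤ t i := by
      intro i
      induction i with
      | zero => intro _ i' hi'; rw [Nat.le_zero.1 hi']
      | succ i ih =>
        intro hi' i' hi2
        rcases Nat.lt_or_ge i' (i + 1) with h1 | h1
        · have h2 := hLE.gap i (by omega)
          have h3 := ih (by omega) i' (by omega)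
          linarith
        · rw [le_antisymm hi2 h1]
    have ht1 : t (i + 1) ≤ 1 := by
      have := hmono' m' le_rfl (i + 1) (by omega)
      rwa [hLE.tm] at this
    have hti := hmono i hi.le
    have hgap := hLE.gap i hi
    rintro y ⟨r, ⟨hr0, hr1⟩, rfl⟩
    refine ⟨t i + r * (t (i + 1) - t i), ⟨by nlinarith, by nlinarith⟩, ?_⟩
    show w2.symm e.1 + (t i + r * (t (i + 1) - t i)) • w2.symm (e.2 - e.1) =
      w2.symm e.1 + t i • w2.symm (e.2 - e.1) + r • ((t (i + 1) - t i) • w2.symm (e.2 - e.1))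
    rw [add_smul, smul_smul, add_assoc]
  · exact (HM h ha j (hb j) hkc he).1 hes
  · exact hes ((HM h ha j (hb j) hkc he).2 hkN hKc)

end

end Crest.Agent.R096.Lgb_821
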