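/-
helper622, row 96, COMPOSITE B, part 6: Fubini and Chebyshev over the translations of an edge.
-/
import Crest.Agent.R96.Sob2_199

set_option autoImplicit false
set_option linter.unusedSectionVars false

open Set Metric Filter Topology MeasureTheory
open scoped ENNReal NNReal

namespace Crest.Agent.R096.Cob_622

/-- the integral along the edge `a + [0,1] v`, translated by `w` -/
noncomputable def li (F : (Fin 3 → ℝ) → ℝ≥0∞) (a v w : Fin 3 → ℝ) : ℝ≥0∞ :=
  ∫⁻ τ in Icc (0:ℝ) 1, F (a + w + τ • v)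

theorem measurable_li {F : (Fin 3 → ℝ) → ℝ≥0∞} (hF : Measurable F) (a v : Fin 3 → ℝ) :
    Measurable (li F a v) := by
  unfold li
  apply Measurable.lintegral_prod_right
  exact hF.comp (by fun_prop)

theorem li_congr {F F' : (Fin 3 → ℝ) → ℝ≥0∞} {S W : Set (Fin 3 → ℝ)} {a v : Fin 3 → ℝ}
    (h : ∀ᵐ y, y ∈ S → F y = F' y) (ht : ∀ w ∈ W, ∀ τ ∈ Icc (0:ℝ) 1, a + w + τ • v ∈ S) :
    ∀ᵐ w, w ∈ W → li F a v w = li F' a v w := by
  have h1 : ∀ᵐ x : Fin 3 → ℝ, ∀ᵐ τ : ℝ, x + τ • v ∈ S → F (x + τ • v) = F' (x + τ • v) :=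
    Crest.Agent.R96.Sob2_199.ae_line_of_ae (μ := volume) h v
  have h2 : ∀ᵐ w : Fin 3 → ℝ, ∀ᵐ τ : ℝ, (a + w) + τ • v ∈ S →
      F ((a + w) + τ • v) = F' ((a + w) + τ • v) :=
    (measurePreserving_add_left volume a).quasiMeasurePreserving.ae h1
  filter_upwards [h2] with w hw hwW
  refine lintegral_congr_ae ?_
  rw [Filter.EventuallyEq, ae_restrict_iff' measurableSet_Icc]
  filter_upwards [hw] with τ h3 hτ
  exact h3 (ht w hwW τ hτ)

theorem aemeasurable_li {F : (Fin 3 → ℝ) → ℝ≥0∞} {S W : Set (Fin 3 → ℝ)} {a v : Fin 3 → ℝ}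
    (mS : MeasurableSet S) (mW : MeasurableSet W) (hF : AEMeasurable F (volume.restrict S))
    (ht : ∀ w ∈ W, ∀ τ ∈ Icc (0:ℝ) 1, a + w + τ • v ∈ S) :
    AEMeasurable (li F a v) (volume.restrict W) := by
  obtain ⟨F', h1, h2⟩ := hF
  rw [Filter.EventuallyEq, ae_restrict_iff' mS] at h2
  refine ⟨li F' a v, measurable_li h1 a v, ?_⟩
  rw [Filter.EventuallyEq, ae_restrict_iff' mW]
  exact li_congr h2 ht

/-- **Fubini for an edge** -/
theorem lint_li_le {F : (Fin 3 → ℝ) → ℝ≥0∞} {S W : Set (Fin 3 → ℝ)} {a v : Fin 3 → ℝ}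
    (mS : MeasurableSet S) (mW : MeasurableSet W) (hF : AEMeasurable F (volume.restrict S))
    (ht : ∀ w ∈ W, ∀ τ ∈ Icc (0:ℝ) 1, a + w + τ • v ∈ S) {c : ℝ≥0∞}
    (hc : ∀ y, volume (Icc (0:ℝ) 1 ∩ {τ | y - a - τ • v ∈ W}) ≤ c) :
    ∫⁻ w in W, li F a v w ≤ c * ∫⁻ y in S, F y := by
  obtain ⟨F', h1, h2⟩ := hF
  have h2' := h2
  rw [Filter.EventuallyEq, ae_restrict_iff' mS] at h2'
  have e1 : ∫⁻ w in W, li F a v w = ∫⁻ w in W, li F' a v w := by
    refine lintegral_congr_ae ?_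
    rw [Filter.EventuallyEq, ae_restrict_iff' mW]
    exact li_congr h2' ht
  rw [e1, lintegral_congr_ae h2]
  set F₁ := S.indicator F' with hF₁
  have m1 : Measurable F₁ := h1.indicator mS
  have mjoint : Measurable fun q : (Fin 3 → ℝ) × ℝ => a + q.1 + q.2 • v := by fun_prop
  have mW1 : Measurable (W.indicator (1 : (Fin 3 → ℝ) → ℝ≥0∞)) := measurable_one.indicator mW
  have e2 : ∫⁻ w in W, li F' a v w =
      ∫⁻ w, ∫⁻ τ in Icc (0:ℝ) 1, W.indicator 1 w * F₁ (a + w + τ • v) := by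
    rw [← lintegral_indicator mW]
    refine lintegral_congr fun w => ?_
    by_cases hw : w ∈ W
    · rw [indicator_of_mem hw, indicator_of_mem hw]
      refine setLIntegral_congr_fun measurableSet_Icc fun τ hτ => ?_
      simp only [Pi.one_apply, one_mul, hF₁, indicator_of_mem (ht w hw τ hτ)]
    · rw [indicator_of_notMem hw, indicator_of_notMem hw]
      simp
  rw [e2, lintegral_lintegral_swap]
  swap
  · exact ((mW1.comp measurable_fst).mul (m1.comp mjoint)).aemeasurable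
  have e3 : ∀ τ : ℝ, ∫⁻ w, W.indicator 1 w * F₁ (a + w + τ • v) =
      ∫⁻ y, W.indicator 1 (y - a - τ • v) * F₁ y := by
    intro τ
    rw [← lintegral_add_right_eq_self (fun y => W.indicator 1 (y - a - τ • v) * F₁ y) (a + τ • v)]
    refine lintegral_congr fun w => ?_
    have e4 : w + (a + τ • v) - a - τ • v = w := by abel
    have e5 : w + (a + τ • v) = a + w + τ • v := by abel
    rw [e4, e5]
  simp only [e3]
  rw [lintegral_lintegral_swap]
  swap
  · refine (Measurable.mul (mW1.comp ?_) (m1.comp measurable_snd)).aemeasurable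
    fun_prop
  have e6 : ∀ y, ∫⁻ τ in Icc (0:ℝ) 1, W.indicator 1 (y - a - τ • v) * F₁ y =
      volume (Icc (0:ℝ) 1 ∩ {τ | y - a - τ • v ∈ W}) * F₁ y := by
    intro y
    have m2 : MeasurableSet {τ : ℝ | y - a - τ • v ∈ W} := mW.preimage (by fun_prop)
    rw [lintegral_mul_const]
    swap
    · exact mW1.comp (by fun_prop)
    congr 1
    have e7 : (fun τ : ℝ => W.indicator (1 : (Fin 3 → ℝ) → ℝ≥0∞) (y - a - τ • v)) =
        {τ : ℝ | y - a - τ • v ∈ W}.indicator 1 := by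
      funext τ
      by_cases hτ : y - a - τ • v ∈ W
      · rw [indicator_of_mem hτ, indicator_of_mem (by exact hτ)]; rfl
      · rw [indicator_of_notMem hτ, indicator_of_notMem (by exact hτ)]
    rw [e7, lintegral_indicator_one m2, Measure.restrict_apply m2, inter_comm]
  simp only [e6]
  calc ∫⁻ y, volume (Icc (0:ℝ) 1 ∩ {τ | y - a - τ • v ∈ W}) * F₁ y
      ≤ ∫⁻ y, c * F₁ y := lintegral_mono fun y => mul_le_mul' (hc y) le_rfl
    _ = c * ∫⁻ y in S, F' y := by
        rw [lintegral_const_mul _ m1, hF₁, lintegral_indicator mS]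

/-- **Chebyshev** for finitely many conditions -/
theorem cheb {Ω : Type*} [MeasurableSpace Ω] {μ : Measure Ω} {W : Set Ω} (hW : μ W ≠ ∞)
    {κ : Type*} (s : Finset κ) (Φ : κ → Ω → ℝ≥0∞)
    (hm : ∀ k ∈ s, AEMeasurable (Φ k) (μ.restrict W)) (t : κ → ℝ≥0∞) (η : κ → ℝ≥0∞)
    (ht : ∀ k ∈ s, t k ≠ ∞)
    (h : ∀ k ∈ s, ∫⁻ w in W, Φ k w ∂μ ≤ η k * t k * μ W) (mW : MeasurableSet W) :
    μ (W \ {w | ∀ k ∈ s, Φ k w ≤ t k}) ≤ (∑ k ∈ s, η k) * μ W := by
  have h1 : W \ {w | ∀ k ∈ s, Φ k w ≤ t k} ⊆ ⋃ k ∈ s, (W ∩ {w | t k < Φ k w}) := by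
    rintro w ⟨hw, hw2⟩
    simp only [mem_ofPred_eq, not_forall, not_le] at hw2
    obtain ⟨k, hk, hlt⟩ := hw2
    exact mem_biUnion hk ⟨hw, hlt⟩
  refine (measure_mono h1).trans ((measure_biUnion_finset_le _ _).trans ?_)
  rw [Finset.sum_mul]
  refine Finset.sum_le_sum fun k hk => ?_
  have e1 : μ (W ∩ {w | t k < Φ k w}) = μ.restrict W {w | t k < Φ k w} := by
    rw [Measure.restrict_apply₀' mW.nullMeasurableSet, inter_comm]
  rw [e1]
  rcases eq_or_ne (t k) 0 with h0 | h0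
  · -- the function vanishes almost everywhere
    have h2 : ∫⁻ w in W, Φ k w ∂μ = 0 := by
      have := h k hk
      rw [h0] at this
      simpa using this
    rw [lintegral_eq_zero_iff' (hm k hk)] at h2
    have h3 : μ.restrict W {w | t k < Φ k w} = 0 := by
      rw [h0]
      refine measure_mono_null ?_ (ae_iff.1 h2)
      intro w hw
      simp only [mem_ofPred_eq] at hw ⊢
      exact hw.ne'
    rw [h3]; exact zero_le
  · have h2 := meas_ge_le_lintegral_div (hm k hk) h0 (ht k hk)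
    have h3 : μ.restrict W {w | t k < Φ k w} ≤ μ.restrict W {w | t k ≤ Φ k w} :=
      measure_mono fun w (hw : t k < Φ k w) => (show t k ≤ Φ k w from hw.le)
    refine h3.trans (h2.trans ?_)
    refine (ENNReal.div_le_div_right (h k hk) _).trans (le_of_eq ?_)
    rw [mul_comm (η k) (t k), mul_assoc, mul_div_assoc, ENNReal.mul_div_cancel h0 (ht k hk)]

end Crest.Agent.R096.Cob_622
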