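import Crest.Agent.R096.Pin1_753
import Crest.Agent.R096.Cob6_622

/-!
Row 96 (S0127), helper227, COMPOSITE B, leaf [L1] of 622 (#11433): **the clause `tra` of `InP`** from the
averages over the translations `Tw Q k0` (Chebyshev for the finitely many M-edges (2a) and for (2b)).
-/

set_option autoImplicit false
set_option linter.style.longLine false
set_option linter.unusedSectionVars false

open MeasureTheory Set Filter Topology Metric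
open scoped ENNReal NNReal

namespace Crest.Agent.R096.Tra_227

open Crest.AnalysisR.VecCalc3
open Crest.Agent.R096.Msh_715 Crest.Agent.R096.Mal_874
open Crest.Agent.R096.Pin_753

noncomputable section

section Gen

variable {E : Type*} [NormedAddCommGroup E] [NormedSpace ℝ E] [FiniteDimensional ℝ E]
  [MeasurableSpace E] [BorelSpace E] {μ : Measure E} [μ.IsAddHaarMeasure]

/-- the integral along the edge `a + [0,1] v`, translated by `w`, is measurable in `w` -/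
theorem measurable_line {F : E → ℝ≥0∞} (hF : Measurable F) (a v : E) :
    Measurable fun w => ∫⁻ τ in Icc (0:ℝ) 1, F (a + w + τ • v) := by
  apply Measurable.lintegral_prod_right
  exact hF.comp (by fun_prop)

theorem line_congr {F F' : E → ℝ≥0∞} {S W : Set E} {a v : E}
    (h : ∀ᵐ y ∂μ, y ∈ S → F y = F' y) (ht : ∀ w ∈ W, ∀ τ ∈ Icc (0:ℝ) 1, a + w + τ • v ∈ S) :
    ∀ᵐ w ∂μ, w ∈ W → ∫⁻ τ in Icc (0:ℝ) 1, F (a + w + τ • v) =
      ∫⁻ τ in Icc (0:ℝ) 1, F' (a + w + τ • v) := by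
  have h1 : ∀ᵐ x ∂μ, ∀ᵐ τ : ℝ, x + τ • v ∈ S → F (x + τ • v) = F' (x + τ • v) :=
    Crest.Agent.R96.Sob2_199.ae_line_of_ae (μ := μ) h v
  have h2 : ∀ᵐ w ∂μ, ∀ᵐ τ : ℝ, (a + w) + τ • v ∈ S →
      F ((a + w) + τ • v) = F' ((a + w) + τ • v) :=
    (measurePreserving_add_left μ a).quasiMeasurePreserving.ae h1
  filter_upwards [h2] with w hw hwW
  refine lintegral_congr_ae ?_
  rw [Filter.EventuallyEq, ae_restrict_iff' measurableSet_Icc]
  filter_upwards [hw] with τ h3 hτ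
  exact h3 (ht w hwW τ hτ)

theorem aemeasurable_line {F : E → ℝ≥0∞} {S W : Set E} {a v : E}
    (mS : MeasurableSet S) (mW : MeasurableSet W) (hF : AEMeasurable F (μ.restrict S))
    (ht : ∀ w ∈ W, ∀ τ ∈ Icc (0:ℝ) 1, a + w + τ • v ∈ S) :
    AEMeasurable (fun w => ∫⁻ τ in Icc (0:ℝ) 1, F (a + w + τ • v)) (μ.restrict W) := by
  obtain ⟨F', h1, h2⟩ := hF
  rw [Filter.EventuallyEq, ae_restrict_iff' mS] at h2
  refine ⟨fun w => ∫⁻ τ in Icc (0:ℝ) 1, F' (a + w + τ • v), measurable_line h1 a v, ?_⟩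
  rw [Filter.EventuallyEq, ae_restrict_iff' mW]
  exact line_congr h2 ht

/-- Chebyshev for one condition (the bound may be `0` or `∞`) -/
theorem cheb_one {W : Set E} (hW : μ W ≠ ∞) (mW : MeasurableSet W) {Φ : E → ℝ≥0∞}
    (hm : AEMeasurable Φ (μ.restrict W)) {t η : ℝ≥0∞} (h : ∫⁻ w in W, Φ w ∂μ ≤ η * t * μ W) :
    μ (W \ {w | Φ w ≤ t}) ≤ η * μ W := by
  rcases eq_or_ne t ∞ with ht | ht
  · have h1 : W \ {w | Φ w ≤ t} = ∅ := by
      ext w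
      simp [ht]
    rw [h1, measure_empty]
    exact zero_le
  · have h1 := Cob_622.cheb (μ := μ) hW (κ := Unit) Finset.univ (fun _ => Φ) (fun _ _ => hm)
      (fun _ => t) (fun _ => η) (fun _ _ => ht) (fun _ _ => h) mW
    simpa using h1

end Gen

/-- the translations form a compact set -/
theorem isCompact_Tw (Q : CB R3 3) (k0 : ℕ) : IsCompact (Tw Q k0) := by
  have h1 : Tw Q k0 = Q.ψ.toHomeomorph ⁻¹' closedBall 0 (1 / (5 * 2 ^ k0)) := by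
    ext w
    simp [Tw]
  rw [h1]
  exact Q.ψ.toHomeomorph.isCompact_preimage.2 (isCompact_closedBall _ _)

theorem measurableSet_Tw (Q : CB R3 3) (k0 : ℕ) : MeasurableSet (Tw Q k0) :=
  (isCompact_Tw Q k0).measurableSet

theorem volume_Tw_ne_top (Q : CB R3 3) (k0 : ℕ) : volume (Tw Q k0) ≠ ∞ :=
  (isCompact_Tw Q k0).measure_lt_top.ne

/-! ### the edges of the block -/

section Seg

variable {E : Type*} [AddCommGroup E] [Module ℝ E]

/-- the end points of a segment are determined by the segment -/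
theorem end_mem {a b a' b' : E} (h : segment ℝ a b = segment ℝ a' b') : a = a' ∨ a = b' := by
  rcases eq_or_ne a b with hab | hab
  · subst hab
    have h1 : a' ∈ segment ℝ a a := by rw [h]; exact left_mem_segment ℝ a' b'
    rw [segment_same, mem_singleton_iff] at h1
    exact Or.inl h1.symm
  · have h1 : a' ∈ segment ℝ a b := by rw [h]; exact left_mem_segment ℝ a' b'
    have h2 : b' ∈ segment ℝ a b := by rw [h]; exact right_mem_segment ℝ a' b'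
    have h3 : a ∈ segment ℝ a' b' := by rw [← h]; exact left_mem_segment ℝ a b
    rw [segment_eq_image'] at h1 h2 h3
    obtain ⟨s, ⟨hs0, hs1⟩, hs⟩ := h1
    obtain ⟨t, ⟨ht0, ht1⟩, ht⟩ := h2
    obtain ⟨r, ⟨hr0, hr1⟩, hr⟩ := h3
    dsimp only at hs ht hr
    have h4 : ((1 - r) * s + r * t) • (b - a) = 0 := by
      have h5 : a' + r • (b' - a') = a + ((1 - r) * s + r * t) • (b - a) := by
        rw [← hs, ← ht]
        module
      rw [h5] at hr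
      have h6 : a + ((1 - r) * s + r * t) • (b - a) = a + 0 := by rw [hr, add_zero]
      exact add_left_cancel h6
    have h7 : (1 - r) * s + r * t = 0 := by
      rcases smul_eq_zero.1 h4 with h | h
      · exact h
      · exact absurd (sub_eq_zero.1 h).symm hab
    have h8 : 0 ≤ (1 - r) * s := mul_nonneg (by linarith) hs0
    have h9 : 0 ≤ r * t := mul_nonneg hr0 ht0
    have h10 : (1 - r) * s = 0 := by linarith
    have h11 : r * t = 0 := by linarith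
    rcases mul_eq_zero.1 h10 with h | h
    · have hr1' : r = 1 := by linarith
      rw [hr1', one_mul] at h11
      right
      rw [← ht, h11, zero_smul, add_zero]
    · left
      rw [← hs, h, zero_smul, add_zero]

theorem finite_ends (c : Set E) : {e : E × E | segment ℝ e.1 e.2 = c}.Finite := by
  rcases Set.eq_empty_or_nonempty {e : E × E | segment ℝ e.1 e.2 = c} with h | ⟨e0, h0⟩
  · rw [h]; exact Set.finite_empty
  · refine (Set.Finite.prod (Set.toFinite {e0.1, e0.2}) (Set.toFinite {e0.1, e0.2})).subset ?_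
    rintro e (he : segment ℝ e.1 e.2 = c)
    have h0' : segment ℝ e0.1 e0.2 = c := h0
    have h1 : segment ℝ e.1 e.2 = segment ℝ e0.1 e0.2 := by rw [he, h0']
    have h2 : segment ℝ e.2 e.1 = segment ℝ e0.1 e0.2 := by rw [segment_symm, h1]
    exact ⟨by simpa using end_mem h1, by simpa using end_mem h2⟩

end Seg

/-- **the block has finitely many edges** -/
theorem ed_finite (Q : CB R3 3) (k0 : ℕ) (hk : Q.kc ≤ k0) : (Ed Q k0 hk).Finite := by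
  have hOm : ∀ x : R3, x ∈ Q.ψ ⁻¹' (Q.D k0 hk).Om := fun x => by
    rw [Q.D_Om k0 hk]; exact mem_univ _
  have h1 := (Q.T k0 hk).finite_cells Q.isCompact_N fun x _ => hOm x
  refine (h1.biUnion fun c _ => finite_ends c).subset ?_
  rintro e ⟨x, -, h2, h3⟩
  exact mem_biUnion (show (Q.T k0 hk).cc x ∈ {c : Set R3 | (∃ z ∈ Q.ψ ⁻¹' (Q.D k0 hk).Om,
    c = (Q.T k0 hk).cc z) ∧ (c ∩ Q.N).Nonempty} from ⟨⟨x, hOm x, rfl⟩, e.1, by
      rw [h2]; exact ⟨left_mem_segment ℝ _ _, h3 (left_mem_segment ℝ _ _)⟩⟩) h2.symm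

/-- the translated edges, from the thickening of the block -/
theorem sub_of_N {Om : Set R3} {Q : CB R3 3} {k0 : ℕ} {hk : Q.kc ≤ k0}
    (h : ∀ y ∈ Q.N, ∀ w ∈ Tw Q k0, y + w ∈ Om) :
    ∀ e ∈ Ed Q k0 hk, ∀ w ∈ Tw Q k0, ∀ τ ∈ Icc (0:ℝ) 1, e.1 + w + τ • (e.2 - e.1) ∈ Om := by
  rintro e ⟨x, -, -, h3⟩ w hw τ hτ
  have h4 : e.1 + τ • (e.2 - e.1) ∈ segment ℝ e.1 e.2 := by
    rw [segment_eq_image']
    exact ⟨τ, hτ, rfl⟩
  have h5 := h _ (h3 h4) w hw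
  have h6 : e.1 + w + τ • (e.2 - e.1) = e.1 + τ • (e.2 - e.1) + w := by abel
  rw [h6]
  exact h5

variable {p : ℝ} {Om : Set R3} {D : R3 → R3 →L[ℝ] R3} {C1 κw : ℝ} {L : R3 →L[ℝ] R3} {er : ℝ≥0∞}
  {Q : CB R3 3} {k0 : ℕ}

/-- measurability of the weighted sum over the edges -/
theorem aemeasurable_sum (hk : Q.kc ≤ k0) (mOm : MeasurableSet Om)
    (hD : AEStronglyMeasurable D (volume.restrict Om))
    (hsub : ∀ e ∈ Ed Q k0 hk, ∀ w ∈ Tw Q k0, ∀ τ ∈ Icc (0:ℝ) 1,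
      e.1 + w + τ • (e.2 - e.1) ∈ Om) (p : ℝ) (e : Ed Q k0 hk) :
    AEMeasurable (fun w => ∫⁻ τ in Icc (0:ℝ) 1,
      ‖D (e.1.1 + w + τ • (e.1.2 - e.1.1)) (e.1.2 - e.1.1)‖ₑ ^ p) (volume.restrict (Tw Q k0)) :=
  aemeasurable_line (F := fun y => ‖D y (e.1.2 - e.1.1)‖ₑ ^ p) mOm (measurableSet_Tw Q k0)
    ((hD.apply_continuousLinearMap _).enorm.pow_const p) (hsub e.1 e.2)

/-- **[L1] of 622 #11433**: the clause `tra` of `InP` from the averages over `Tw`. -/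
theorem tra_of (hk : Q.kc ≤ k0) (mOm : MeasurableSet Om)
    (hD : AEStronglyMeasurable D (volume.restrict Om))
    (hsub : ∀ e ∈ Ed Q k0 hk, ∀ w ∈ Tw Q k0, ∀ τ ∈ Icc (0:ℝ) 1,
      e.1 + w + τ • (e.2 - e.1) ∈ Om)
    {n : ℕ} (hn0 : 0 < n)
    (hn : {e | e ∈ Ed Q k0 hk ∧ segment ℝ e.1 e.2 ⊆ Q.Kc}.ncard ≤ n)
    (h2a : ∀ e ∈ Ed Q k0 hk, segment ℝ e.1 e.2 ⊆ Q.Kc →
      ∫⁻ w in Tw Q k0, ∫⁻ τ in Icc (0:ℝ) 1,
        ‖D (e.1 + w + τ • (e.2 - e.1)) (e.2 - e.1) - L (e.2 - e.1)‖ₑ ≤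
      ENNReal.ofReal (κw * ‖e.2 - e.1‖ / (512 * n)) * volume (Tw Q k0))
    (h2b : ∫⁻ w in Tw Q k0, ENNReal.ofReal (‖L‖ ^ p / |L.det|) *
        (∑' e : Ed Q k0 hk, ENNReal.ofReal (‖L (e.1.2 - e.1.1)‖ ^ (3 - p)) *
          (∫⁻ τ in Icc (0:ℝ) 1, ‖D (e.1.1 + w + τ • (e.1.2 - e.1.1)) (e.1.2 - e.1.1)‖ₑ ^ p)) ≤
      ENNReal.ofReal (1 / 512) *
        (ENNReal.ofReal (C1 * ‖L‖ ^ p) * volume (Q.N \ Q.Kc) + er) * volume (Tw Q k0)) :
    ∃ G : Set R3, volume (Tw Q k0 \ G) ≤ ENNReal.ofReal (1 / 256) * volume (Tw Q k0) ∧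
    ∀ w ∈ G, w ∈ Tw Q k0 →
      (∀ e ∈ Ed Q k0 hk, segment ℝ e.1 e.2 ⊆ Q.Kc →
        ∫⁻ τ in Icc (0:ℝ) 1, ‖D (e.1 + w + τ • (e.2 - e.1)) (e.2 - e.1) - L (e.2 - e.1)‖ₑ ≤
          ENNReal.ofReal (κw * ‖e.2 - e.1‖)) ∧
      ENNReal.ofReal (‖L‖ ^ p / |L.det|) *
        (∑' e : Ed Q k0 hk, ENNReal.ofReal (‖L (e.1.2 - e.1.1)‖ ^ (3 - p)) *
          (∫⁻ τ in Icc (0:ℝ) 1, ‖D (e.1.1 + w + τ • (e.1.2 - e.1.1)) (e.1.2 - e.1.1)‖ₑ ^ p)) ≤
        ENNReal.ofReal (C1 * ‖L‖ ^ p) * volume (Q.N \ Q.Kc) + er := by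
  classical
  have hfin := ed_finite Q k0 hk
  have mW := measurableSet_Tw Q k0
  have hW := volume_Tw_ne_top Q k0
  have hn0' : (0:ℝ) < n := by exact_mod_cast hn0
  set A : Set (R3 × R3) := {e | e ∈ Ed Q k0 hk ∧ segment ℝ e.1 e.2 ⊆ Q.Kc} with hA
  have hAf : A.Finite := hfin.subset fun e he => he.1
  set s := hAf.toFinset with hs
  have hcard : s.card ≤ n := by
    rw [hs, ← Set.ncard_eq_toFinset_card A hAf]
    exact hn
  set Φ : R3 × R3 → R3 → ℝ≥0∞ := fun e w => ∫⁻ τ in Icc (0:ℝ) 1,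
    ‖D (e.1 + w + τ • (e.2 - e.1)) (e.2 - e.1) - L (e.2 - e.1)‖ₑ with hΦ
  set G1 : Set R3 := {w | ∀ e ∈ s, Φ e w ≤ ENNReal.ofReal (κw * ‖e.2 - e.1‖)} with hG1
  have c1 : volume (Tw Q k0 \ G1) ≤ ENNReal.ofReal (1 / 512) * volume (Tw Q k0) := by
    refine (Cob_622.cheb hW s Φ (fun e he => ?_) (fun e => ENNReal.ofReal (κw * ‖e.2 - e.1‖))
      (fun _ => ENNReal.ofReal (1 / (512 * n))) (fun _ _ => ENNReal.ofReal_ne_top)
      (fun e he => ?_) mW).trans ?_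
    · have he' : e ∈ A := hAf.mem_toFinset.1 he
      refine aemeasurable_line (F := fun y => ‖D y (e.2 - e.1) - L (e.2 - e.1)‖ₑ) mOm mW ?_
        (hsub e he'.1)
      exact ((hD.apply_continuousLinearMap _).sub aestronglyMeasurable_const).enorm
    · have he' : e ∈ A := hAf.mem_toFinset.1 he
      refine (h2a e he'.1 he'.2).trans (le_of_eq ?_)
      congr 1
      rw [← ENNReal.ofReal_mul (by positivity)]
      congr 1
      field_simp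
    · rw [Finset.sum_const, nsmul_eq_mul]
      gcongr
      calc (s.card : ℝ≥0∞) * ENNReal.ofReal (1 / (512 * n))
          ≤ (n : ℝ≥0∞) * ENNReal.ofReal (1 / (512 * n)) := by gcongr
        _ = ENNReal.ofReal (1 / 512) := by
            rw [← ENNReal.ofReal_natCast n, ← ENNReal.ofReal_mul hn0'.le]
            congr 1
            field_simp
  set Ψ : R3 → ℝ≥0∞ := fun w => ENNReal.ofReal (‖L‖ ^ p / |L.det|) *
        (∑' e : Ed Q k0 hk, ENNReal.ofReal (‖L (e.1.2 - e.1.1)‖ ^ (3 - p)) *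
          (∫⁻ τ in Icc (0:ℝ) 1, ‖D (e.1.1 + w + τ • (e.1.2 - e.1.1)) (e.1.2 - e.1.1)‖ₑ ^ p))
    with hΨ
  set t := ENNReal.ofReal (C1 * ‖L‖ ^ p) * volume (Q.N \ Q.Kc) + er with ht
  have mΨ : AEMeasurable Ψ (volume.restrict (Tw Q k0)) := by
    have : Countable (Ed Q k0 hk) := hfin.countable.to_subtype
    refine AEMeasurable.const_mul (AEMeasurable.tsum fun e => ?_) _
    exact (aemeasurable_sum hk mOm hD hsub p e).const_mul _
  have c2 : volume (Tw Q k0 \ {w | Ψ w ≤ t}) ≤ ENNReal.ofReal (1 / 512) * volume (Tw Q k0) :=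
    cheb_one hW mW mΨ h2b
  refine ⟨G1 ∩ {w | Ψ w ≤ t}, ?_, fun w hw hwT => ⟨fun e he hes => ?_, hw.2⟩⟩
  · rw [Set.sdiff_inter]
    refine (measure_union_le _ _).trans ((add_le_add c1 c2).trans (le_of_eq ?_))
    rw [← add_mul, ← ENNReal.ofReal_add (by norm_num) (by norm_num)]
    norm_num
  · exact hw.1 e (hAf.mem_toFinset.2 ⟨he, hes⟩)

/-- the same with the sum over the edges outside of the average -/
theorem tra_of_sum (hk : Q.kc ≤ k0) (mOm : MeasurableSet Om)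
    (hD : AEStronglyMeasurable D (volume.restrict Om))
    (hsub : ∀ e ∈ Ed Q k0 hk, ∀ w ∈ Tw Q k0, ∀ τ ∈ Icc (0:ℝ) 1,
      e.1 + w + τ • (e.2 - e.1) ∈ Om)
    {n : ℕ} (hn0 : 0 < n)
    (hn : {e | e ∈ Ed Q k0 hk ∧ segment ℝ e.1 e.2 ⊆ Q.Kc}.ncard ≤ n)
    (h2a : ∀ e ∈ Ed Q k0 hk, segment ℝ e.1 e.2 ⊆ Q.Kc →
      ∫⁻ w in Tw Q k0, ∫⁻ τ in Icc (0:ℝ) 1,
        ‖D (e.1 + w + τ • (e.2 - e.1)) (e.2 - e.1) - L (e.2 - e.1)‖ₑ ≤
      ENNReal.ofReal (κw * ‖e.2 - e.1‖ / (512 * n)) * volume (Tw Q k0))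
    (h2b : ENNReal.ofReal (‖L‖ ^ p / |L.det|) *
        (∑' e : Ed Q k0 hk, ENNReal.ofReal (‖L (e.1.2 - e.1.1)‖ ^ (3 - p)) *
          ∫⁻ w in Tw Q k0, ∫⁻ τ in Icc (0:ℝ) 1,
            ‖D (e.1.1 + w + τ • (e.1.2 - e.1.1)) (e.1.2 - e.1.1)‖ₑ ^ p) ≤
      ENNReal.ofReal (1 / 512) *
        (ENNReal.ofReal (C1 * ‖L‖ ^ p) * volume (Q.N \ Q.Kc) + er) * volume (Tw Q k0)) :
    ∃ G : Set R3, volume (Tw Q k0 \ G) ≤ ENNReal.ofReal (1 / 256) * volume (Tw Q k0) ∧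
    ∀ w ∈ G, w ∈ Tw Q k0 →
      (∀ e ∈ Ed Q k0 hk, segment ℝ e.1 e.2 ⊆ Q.Kc →
        ∫⁻ τ in Icc (0:ℝ) 1, ‖D (e.1 + w + τ • (e.2 - e.1)) (e.2 - e.1) - L (e.2 - e.1)‖ₑ ≤
          ENNReal.ofReal (κw * ‖e.2 - e.1‖)) ∧
      ENNReal.ofReal (‖L‖ ^ p / |L.det|) *
        (∑' e : Ed Q k0 hk, ENNReal.ofReal (‖L (e.1.2 - e.1.1)‖ ^ (3 - p)) *
          (∫⁻ τ in Icc (0:ℝ) 1, ‖D (e.1.1 + w + τ • (e.1.2 - e.1.1)) (e.1.2 - e.1.1)‖ₑ ^ p)) ≤
        ENNReal.ofReal (C1 * ‖L‖ ^ p) * volume (Q.N \ Q.Kc) + er := by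
  refine tra_of hk mOm hD hsub hn0 hn h2a (le_trans (le_of_eq ?_) h2b)
  have hfin := ed_finite Q k0 hk
  have : Countable (Ed Q k0 hk) := hfin.countable.to_subtype
  have m1 := aemeasurable_sum (p := p) hk mOm hD hsub
  rw [lintegral_const_mul' _ _ ENNReal.ofReal_ne_top, lintegral_tsum fun e => (m1 e).const_mul _]
  congr 1
  refine tsum_congr fun e => ?_
  rw [lintegral_const_mul' _ _ ENNReal.ofReal_ne_top]

/-- the clause `tra` in the form of the structure `InP` -/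
theorem inP_of {f : R3 → R3} {s : ℝ} {b z : R3} (hk : Q.kc ≤ k0)
    (hgam : ∀ x ∈ Q.Kc, (Q.T k0 hk).dim x = 1 → ∀ y ∈ (Q.T k0 hk).cc x, ∀ w ∈ Tw Q k0,
      ‖f (y + w) - Bk b L z (y + w)‖ ≤ κw * s)
    (mOm : MeasurableSet Om)
    (hD : AEStronglyMeasurable D (volume.restrict Om))
    (hsub : ∀ e ∈ Ed Q k0 hk, ∀ w ∈ Tw Q k0, ∀ τ ∈ Icc (0:ℝ) 1,
      e.1 + w + τ • (e.2 - e.1) ∈ Om)
    {n : ℕ} (hn0 : 0 < n)
    (hn : {e | e ∈ Ed Q k0 hk ∧ segment ℝ e.1 e.2 ⊆ Q.Kc}.ncard ≤ n)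
    (h2a : ∀ e ∈ Ed Q k0 hk, segment ℝ e.1 e.2 ⊆ Q.Kc →
      ∫⁻ w in Tw Q k0, ∫⁻ τ in Icc (0:ℝ) 1,
        ‖D (e.1 + w + τ • (e.2 - e.1)) (e.2 - e.1) - L (e.2 - e.1)‖ₑ ≤
      ENNReal.ofReal (κw * ‖e.2 - e.1‖ / (512 * n)) * volume (Tw Q k0))
    (h2b : ENNReal.ofReal (‖L‖ ^ p / |L.det|) *
        (∑' e : Ed Q k0 hk, ENNReal.ofReal (‖L (e.1.2 - e.1.1)‖ ^ (3 - p)) *
          ∫⁻ w in Tw Q k0, ∫⁻ τ in Icc (0:ℝ) 1,
            ‖D (e.1.1 + w + τ • (e.1.2 - e.1.1)) (e.1.2 - e.1.1)‖ₑ ^ p) ≤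
      ENNReal.ofReal (1 / 512) *
        (ENNReal.ofReal (C1 * ‖L‖ ^ p) * volume (Q.N \ Q.Kc) + er) * volume (Tw Q k0)) :
    InP p f D C1 κw s b L z er Q k0 hk :=
  ⟨hgam, tra_of_sum hk mOm hD hsub hn0 hn h2a h2b⟩

end

end Crest.Agent.R096.Tra_227
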