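import Crest.Agent.R096.Ine3_222
import Crest.Agent.R096.Tmap2_212
import Crest.Agent.R096.Tra1_227

/-!
Row 96 (S0127), helper227, COMPOSITE B, leaf [N]: **the number of the M-edges of a core block** is bounded
by a constant which depends on `κ`, `c1`, `Bs` only (needed for `n` of `Tra_227.tra_of` before the data).
-/

set_option autoImplicit false
set_option linter.style.longLine false
set_option linter.unusedSectionVars false

open MeasureTheory Set Filter Topology Metric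
open scoped ENNReal NNReal

namespace Crest.Agent.R096.Nme_227

open Crest.AnalysisR.VecCalc3
open Crest.Agent.R096.Msh_715 Crest.Agent.R096.Mal_874 Crest.Agent.R096.Ncl_476
open Crest.Agent.R096.Ine_222
open Crest.Agent.R096.SkC1_961 (E3)
open Crest.Agent.R96.Sg1_199 (li sgm sgm_eq_segment)
open Crest.Agent.R096.Ls_222 (Edg ea ev eIn mem_eIn sgm_edg ev_ne)
open Crest.Agent.R096.EaX_766 (lin)
open Crest.Agent.R96.En10_199 (P3)
open Crest.Agent.R096.Tmap_212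

noncomputable section

section Til

variable {E : Type*} [NormedAddCommGroup E] [NormedSpace ℝ E] [FiniteDimensional ℝ E]
  {Om : Set E} {ι : Type*}

/-- a point which is not interior to a tile lies in two tiles -/
theorem exists_other (T : Tiling Om ι) {x : E} (hx : x ∈ Om) (hd : T.dim x < Module.finrank ℝ E)
    (i0 : ι) : ∃ t, t ≠ i0 ∧ x ∈ P (T.H t) := by
  by_contra hcon
  push Not at hcon
  obtain ⟨r, hr, hO, hb⟩ := T.exists_ball hx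
  have h1 : ball x r ⊆ P (T.H i0) := by
    intro y hy
    obtain ⟨i, hi⟩ := T.cov y (hO hy)
    have hix : x ∈ P (T.H i) := hb y hy hi
    have : i = i0 := by
      by_contra hne
      exact hcon i hne hix
    exact this ▸ hi
  have h2 : x ∈ interior (P (T.H i0)) := interior_maximal h1 isOpen_ball (mem_ball_self hr)
  rw [Nr_527.interior_P' (T.ne i0)] at h2
  have h3 : T.V x = ⊤ := (T.V_eq_top_iff hx).2 ⟨i0, h2⟩
  have h4 : T.dim x = Module.finrank ℝ E := by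
    unfold Tiling.dim
    rw [h3]
    exact finrank_top ℝ E
  omega

end Til

variable (Q : CB E3 3) (k : ℕ) (hk : Q.kc ≤ k)

theorem mem_Om (x : E3) : x ∈ Q.ψ ⁻¹' (Q.D k hk).Om := by
  rw [Q.D_Om k hk]; exact mem_univ _

/-- the tiles which meet the prism shell or the core have the core scale -/
theorem kap_eq {t : Ix Q k hk} (h : (P ((Q.T k hk).H t) ∩ Q.S.bp Q.ψ Q.a' Q.kc).Nonempty) :
    kap Q k hk t = Q.kc := by
  rcases t with τ | i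
  · exact kap_inl_meet Q k hk h
  · rfl

theorem sub_N {t : Ix Q k hk} (h : (P ((Q.T k hk).H t) ∩ Q.S.bp Q.ψ Q.a' Q.kc).Nonempty) :
    P ((Q.T k hk).H t) ⊆ Q.N := by
  rcases t with τ | i
  · obtain ⟨y, hy1, hy2⟩ := h
    intro x hx
    have h1 : Q.near (0 + 1) x := Q.near_tile k hk hy1 hx (Q.near_of_bp hy2)
    rw [Q.mem_N]
    intro l
    have h2 := h1 l
    have h3 := Q.w_real
    constructor <;> linarith [h2.1, h2.2]
  · exact (Q.P_inr_sub k hk i).trans Q.bp_sub_N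

/-- the core is a part of the enlarged box -/
theorem Kc_sub_bp (Q : CB E3 3) : Q.Kc ⊆ Q.S.bp Q.ψ Q.a' Q.kc := by
  rw [← Q.P_core Q.kc le_rfl]
  exact Q.P_inr_sub Q.kc le_rfl _

/-- **number of the edges in the core, in the frame** -/
theorem ncard_E3 (Bs : ℕ) (hB1 : 1 ≤ Bs) : ∃ C : ℝ, 0 < C ∧ ∀ (Q : CB E3 3) (k : ℕ) (hk : Q.kc ≤ k),
    (∀ i, ∀ p ∈ Q.S.GG i, ∀ l, |p.1 l| ≤ Bs) →
    (∀ i, i ≠ Q.S.core → ∀ v ∈ ZP (Q.S.GG i), ∀ w ∈ ZP (Q.S.GG i), ∀ l, |w l - v l| ≤ Bs) →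
    ∀ V : ℝ, 0 ≤ V → volume (Q.ψ '' Q.N) ≤ ENNReal.ofReal (V * (1 / 2 ^ Q.kc) ^ 3) →
    ({e | e ∈ Ea0_961.Ed Q k hk ∧ segment ℝ e.1 e.2 ⊆ Q.Kc}.ncard : ℝ) ≤ C * V := by
  classical
  obtain ⟨v, hv0, hv⟩ := exists_vol_lb (volume : Measure E3) (SL_finite Bs)
  refine ⟨4 * ((SL Bs).ncard + 1) / v, by positivity, ?_⟩
  intro Q k hk hB hR V hV0 hV
  set A : E3 ≃ᵃ[ℝ] E3 := Q.ψ.toLinearEquiv.toAffineEquiv with hA
  have hAψ : ∀ x : E3, A.linear x = (1:ℝ) • Q.ψ x := fun x => by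
    rw [one_smul]; rfl
  have hF := fam Q k hk hB1 one_pos hAψ hB hR
  set T := Q.T k hk with hT
  have hlin : lin A = (Q.ψ : E3 →L[ℝ] E3) := by
    ext x l; rfl
  -- tiles at the core
  set F0 : Set (Ix Q k hk) := {t | t ≠ Q.cix k hk ∧ (P (T.H t) ∩ Q.Kc).Nonempty} with hF0
  have hbp : ∀ t ∈ F0, (P (T.H t) ∩ Q.S.bp Q.ψ Q.a' Q.kc).Nonempty := fun t ht =>
    ht.2.mono (inter_subset_inter_right _ (Kc_sub_bp Q))
  have hfin : F0.Finite := by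
    have h1 := T.finite_tiles Q.isCompact_N fun x _ => mem_Om Q k hk x
    refine h1.subset fun t ht => ?_
    obtain ⟨y, hy1, hy2⟩ := ht.2
    exact ⟨y, hy1, Q.bp_sub_N (Kc_sub_bp Q hy2)⟩
  set F : Finset (Ix Q k hk) := hfin.toFinset with hFdef
  have hmemF : ∀ t, t ∈ F ↔ t ∈ F0 := fun t => hfin.mem_toFinset
  have hcardF : (F.card : ℝ) ≤ V / v := by
    have h1 : ∑ t ∈ F, ENNReal.ofReal ((1 / 2 ^ Q.kc) ^ 3 * v) ≤
        ENNReal.ofReal (V * (1 / 2 ^ Q.kc) ^ 3) := by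
      calc ∑ t ∈ F, ENNReal.ofReal ((1 / 2 ^ Q.kc) ^ 3 * v)
          ≤ ∑ t ∈ F, ENNReal.ofReal |(lin A).det| * volume (P (T.H t)) := by
            refine Finset.sum_le_sum fun t ht => ?_
            have h2 := (hmemF t).1 ht
            have h3 := hF.vol_ge hv (t := t) h2.1
            rw [kap_eq Q k hk (hbp t h2)] at h3
            exact h3
        _ = ENNReal.ofReal |(lin A).det| * ∑ t ∈ F, volume (P (T.H t)) := by rw [Finset.mul_sum]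
        _ ≤ ENNReal.ofReal |(lin A).det| * volume Q.N := by
            refine mul_le_mul_right ?_ _
            calc ∑ t ∈ F, volume (P (T.H t)) ≤ ∑ t ∈ F, volume (I (T.H t)) :=
                  Finset.sum_le_sum fun t _ => vol_P_le (T.ne t)
              _ = volume (⋃ t ∈ F, I (T.H t)) := (measure_biUnion_finset
                  (fun a _ b _ hab => T.dis a b hab) fun t _ => (isOpen_I _).measurableSet).symm
              _ ≤ volume Q.N := measure_mono (iUnion₂_subset fun t ht =>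
                  (I_sub_P _).trans (sub_N Q k hk (hbp t ((hmemF t).1 ht))))
        _ = volume (Q.ψ '' Q.N) := by
            rw [hlin, ← Measure.addHaar_image_continuousLinearMap]
            rfl
        _ ≤ _ := hV
    rw [Finset.sum_const, nsmul_eq_mul, ← ENNReal.ofReal_natCast, ← ENNReal.ofReal_mul
      (Nat.cast_nonneg _), ENNReal.ofReal_le_ofReal_iff (by positivity)] at h1
    rw [le_div_iff₀ hv0]
    have h5 : (0:ℝ) < (1 / 2 ^ Q.kc) ^ 3 := by positivity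
    refine le_of_mul_le_mul_left ?_ h5
    nlinarith [h1]
  -- the edges
  set S : Set (E3 × E3) := {e | e ∈ Ea0_961.Ed Q k hk ∧ segment ℝ e.1 e.2 ⊆ Q.Kc} with hS
  set Cs : Finset (Set E3) := F.biUnion fun t => (eIn T t).image fun e => e.1 with hCs
  have hCcard : (Cs.card : ℝ) ≤ V / v * (SL Bs).ncard := by
    have h1 : Cs.card ≤ F.card * (SL Bs).ncard := by
      refine Finset.card_biUnion_le_card_mul _ _ _ fun t ht => ?_
      refine Finset.card_image_le.trans ?_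
      obtain ⟨B, -, hBS⟩ := hF.fr t ((hmemF t).1 ht).1
      exact eIn_card_le hF.fin hBS
    calc (Cs.card : ℝ) ≤ F.card * (SL Bs).ncard := by exact_mod_cast h1
      _ ≤ _ := by gcongr
  have hsub : S ⊆ ⋃ c ∈ Cs, {e : E3 × E3 | segment ℝ e.1 e.2 = c} := by
    rintro e ⟨⟨x, hd, hcc, hN⟩, hK⟩
    have hxO := mem_Om Q k hk x
    have hxK : x ∈ Q.Kc := hK (hcc ▸ T.self_mem_cc x)
    obtain ⟨t, ht, hxt⟩ := exists_other T hxO (by
      have hd' : T.dim x = 1 := hd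
      rw [hd', Module.finrank_fin_fun]; norm_num) (Q.cix k hk)
    have htF : t ∈ F := (hmemF t).2 ⟨ht, x, hxt, hxK⟩
    refine mem_biUnion (x := T.cc x) ?_ hcc.symm
    rw [hCs, Finset.mem_coe, Finset.mem_biUnion]
    refine ⟨t, htF, ?_⟩
    have h9 : (⟨T.cc x, x, hxO, hd, rfl⟩ : Edg T) ∈ eIn T t := mem_eIn.2 (T.cc_sub_tile hxt)
    exact Finset.mem_image.2 ⟨_, h9, rfl⟩
  have h4 : ∀ c : Set E3, {e : E3 × E3 | segment ℝ e.1 e.2 = c}.ncard ≤ 4 := by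
    intro c
    rcases Set.eq_empty_or_nonempty {e : E3 × E3 | segment ℝ e.1 e.2 = c} with h | ⟨e0, h0⟩
    · rw [h]; simp
    · have h5 : {e : E3 × E3 | segment ℝ e.1 e.2 = c} ⊆
          (({e0.1, e0.2} : Finset E3) ×ˢ ({e0.1, e0.2} : Finset E3) : Finset (E3 × E3)) := by
        rintro e (he : segment ℝ e.1 e.2 = c)
        have h0' : segment ℝ e0.1 e0.2 = c := h0
        have h1 : segment ℝ e.1 e.2 = segment ℝ e0.1 e0.2 := by rw [he, h0']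
        have h2 : segment ℝ e.2 e.1 = segment ℝ e0.1 e0.2 := by rw [segment_symm, h1]
        rw [Finset.mem_coe, Finset.mem_product]
        exact ⟨by simpa using Tra_227.end_mem h1, by simpa using Tra_227.end_mem h2⟩
      refine (Set.ncard_le_ncard h5 (Finset.finite_toSet _)).trans ?_
      rw [Set.ncard_coe_finset, Finset.card_product]
      have h6 : ({e0.1, e0.2} : Finset E3).card ≤ 2 := Finset.card_le_two
      nlinarith [h6]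
  have h7 : S.ncard ≤ Cs.card * 4 := by
    refine (Set.ncard_le_ncard hsub ?_).trans ?_
    · exact Cs.finite_toSet.biUnion fun c _ => Tra_227.finite_ends c
    · refine (Finset.set_ncard_biUnion_le Cs _).trans ?_
      calc ∑ c ∈ Cs, {e : E3 × E3 | segment ℝ e.1 e.2 = c}.ncard ≤ ∑ c ∈ Cs, 4 :=
            Finset.sum_le_sum fun c _ => h4 c
        _ = _ := by rw [Finset.sum_const, smul_eq_mul]
  have h8 : (S.ncard : ℝ) ≤ Cs.card * 4 := by exact_mod_cast h7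
  calc (S.ncard : ℝ) ≤ Cs.card * 4 := h8
    _ ≤ (V / v * (SL Bs).ncard) * 4 := by gcongr
    _ ≤ (V / v * ((SL Bs).ncard + 1)) * 4 := by
        have : 0 ≤ V / v := by positivity
        gcongr
        linarith
    _ = _ := by ring

/-- **lower bound of the length of the edges, in the frame**: `c` depends on `Bs` only -/
theorem len_E3 (Bs : ℕ) (hB1 : 1 ≤ Bs) : ∃ c : ℝ, 0 < c ∧ ∀ (Q : CB E3 3) (k : ℕ) (hk : Q.kc ≤ k),
    (∀ i, ∀ p ∈ Q.S.GG i, ∀ l, |p.1 l| ≤ Bs) →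
    (∀ i, i ≠ Q.S.core → ∀ v ∈ ZP (Q.S.GG i), ∀ w ∈ ZP (Q.S.GG i), ∀ l, |w l - v l| ≤ Bs) →
    ∀ e ∈ Ea0_961.Ed Q k hk, ∃ t : Ix Q k hk, t ≠ Q.cix k hk ∧
      segment ℝ e.1 e.2 ⊆ P ((Q.T k hk).H t) ∧ c / 2 ^ kap Q k hk t ≤ ‖Q.ψ (e.2 - e.1)‖ := by
  obtain ⟨c, hc0, hc⟩ := exists_diam_lb (SL_finite Bs)
  refine ⟨c, hc0, ?_⟩
  rintro Q k hk hB hR e ⟨x, hd, hcc, hN⟩
  set A : E3 ≃ᵃ[ℝ] E3 := Q.ψ.toLinearEquiv.toAffineEquiv with hA
  have hAψ : ∀ x : E3, A.linear x = (1:ℝ) • Q.ψ x := fun x => by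
    rw [one_smul]; rfl
  have hF := fam Q k hk hB1 one_pos hAψ hB hR
  set T := Q.T k hk with hT
  have hlin : ∀ x : E3, lin A x = Q.ψ x := fun x => rfl
  have hxO := mem_Om Q k hk x
  obtain ⟨t, ht, hxt⟩ := exists_other T hxO (by
    have hd' : T.dim x = 1 := hd
    rw [hd', Module.finrank_fin_fun]; norm_num) (Q.cix k hk)
  refine ⟨t, ht, hcc ▸ T.cc_sub_tile hxt, ?_⟩
  set E : Edg T := ⟨T.cc x, x, hxO, hd, rfl⟩ with hE
  have h9 : E ∈ eIn T t := mem_eIn.2 (T.cc_sub_tile hxt)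
  have h10 := hF.edge_ge hc ht h9
  have h11 : segment ℝ (ea E) (ea E + ev E) = segment ℝ e.1 e.2 := by
    rw [← sgm_eq_segment, sgm_edg]
    exact hcc
  have h12 : ‖lin A (ev E)‖ = ‖Q.ψ (e.2 - e.1)‖ := by
    rw [hlin]
    have h13 : segment ℝ (ea E + ev E) (ea E) = segment ℝ e.1 e.2 := by
      rw [segment_symm, h11]
    have hne := ev_ne E
    rcases Tra_227.end_mem h11 with h | h
    · rcases Tra_227.end_mem h13 with h' | h'
      · exfalso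
        rw [← h] at h'
        exact hne (by simpa using h')
      · rw [← h, ← h', add_sub_cancel_left]
    · rcases Tra_227.end_mem h13 with h' | h'
      · have h14 : e.2 - e.1 = -(ev E) := by rw [← h, ← h']; abel
        rw [h14, map_neg, norm_neg]
      · exfalso
        rw [← h] at h'
        exact hne (by simpa using h')
  rw [h12] at h10
  refine le_trans (le_of_eq ?_) h10
  ring

/-- **length of the M-edges, in the frame** -/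
theorem len_M_E3 (Bs : ℕ) (hB1 : 1 ≤ Bs) : ∃ c : ℝ, 0 < c ∧ ∀ (Q : CB E3 3) (k : ℕ) (hk : Q.kc ≤ k),
    (∀ i, ∀ p ∈ Q.S.GG i, ∀ l, |p.1 l| ≤ Bs) →
    (∀ i, i ≠ Q.S.core → ∀ v ∈ ZP (Q.S.GG i), ∀ w ∈ ZP (Q.S.GG i), ∀ l, |w l - v l| ≤ Bs) →
    ∀ e ∈ Ea0_961.Ed Q k hk, (segment ℝ e.1 e.2 ∩ Q.S.bp Q.ψ Q.a' Q.kc).Nonempty →
      c / 2 ^ Q.kc ≤ ‖Q.ψ (e.2 - e.1)‖ := by
  obtain ⟨c, hc0, h⟩ := len_E3 Bs hB1
  refine ⟨c, hc0, fun Q k hk hB hR e he hK => ?_⟩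
  obtain ⟨t, -, h1, h2⟩ := h Q k hk hB hR e he
  rwa [kap_eq Q k hk (hK.mono (inter_subset_inter_left _ h1))] at h2

/-- the edges in the core in the two spaces -/
theorem ncard_mp (Q : CB E3 3) (k : ℕ) (hk : Q.kc ≤ k) :
    {e | e ∈ Pin_753.Ed (mp P3 Q) k hk ∧ segment ℝ e.1 e.2 ⊆ (mp P3 Q).Kc}.ncard =
      {e | e ∈ Ea0_961.Ed Q k hk ∧ segment ℝ e.1 e.2 ⊆ Q.Kc}.ncard := by
  have h1 : {e | e ∈ Pin_753.Ed (mp P3 Q) k hk ∧ segment ℝ e.1 e.2 ⊆ (mp P3 Q).Kc} =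
      (fun e : E3 × E3 => (P3 e.1, P3 e.2)) ''
        {e | e ∈ Ea0_961.Ed Q k hk ∧ segment ℝ e.1 e.2 ⊆ Q.Kc} := by
    ext ⟨u, v⟩
    constructor
    · rintro ⟨h2, h3⟩
      refine ⟨(P3.symm u, P3.symm v), ⟨(mem_Ed Q k hk).1 h2, ?_⟩, by simp⟩
      rw [← seg_Kc Q, P3.apply_symm_apply, P3.apply_symm_apply]
      exact h3
    · rintro ⟨⟨u', v'⟩, ⟨h2, h3⟩, h4⟩
      simp only [Prod.mk.injEq] at h4
      obtain ⟨rfl, rfl⟩ := h4
      refine ⟨(mem_Ed Q k hk).2 ?_, (seg_Kc Q).2 h3⟩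
      rw [P3.symm_apply_apply, P3.symm_apply_apply]
      exact h2
  rw [h1, Set.ncard_image_of_injective]
  rintro ⟨a, b⟩ ⟨a', b'⟩ h
  simp only [Prod.mk.injEq] at h
  rw [P3.injective h.1, P3.injective h.2]

/-- **[N]**: the number of the M-edges of a block of diameter `≤ 4 s` with cells `≥ c1 s` at the core -/
theorem ncard_of (κ c1 : ℝ) (hκ : 0 < κ) (hc1 : 0 < c1) (Bs : ℕ) :
    ∃ n : ℕ, 0 < n ∧ ∀ (Q : CB R3 3) (k : ℕ) (hk : Q.kc ≤ k) (s : ℝ), 0 < s →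
      (∀ v, ‖Q.ψ v‖ ≤ 4 * κ⁻¹ * ‖v‖) → c1 * s ≤ 1 / 2 ^ Q.kc →
      (∀ i, ∀ p ∈ Q.S.GG i, ∀ l, |p.1 l| ≤ Bs) →
      (∀ i, i ≠ Q.S.core → ∀ v ∈ ZP (Q.S.GG i), ∀ w ∈ ZP (Q.S.GG i), ∀ l, |w l - v l| ≤ Bs) →
      (∀ x ∈ Q.N, ∀ y ∈ Q.N, ‖x - y‖ ≤ 4 * s) →
      {e | e ∈ Pin_753.Ed Q k hk ∧ segment ℝ e.1 e.2 ⊆ Q.Kc}.ncard ≤ n := by
  obtain ⟨C, hC, h⟩ := ncard_E3 (Bs + 1) (by omega)
  set V : ℝ := (32 * κ⁻¹ / c1) ^ 3 with hV
  have hV0 : 0 ≤ V := by positivity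
  refine ⟨⌈C * V⌉₊ + 1, by omega, ?_⟩
  intro Q k hk s hs hψ hcell hB hR hN
  obtain ⟨Q', rfl⟩ : ∃ Q' : CB E3 3, Q = mp P3 Q' :=
    ⟨mp P3.symm Q, (mp_mp_symm P3.symm Q).symm⟩
  rw [ncard_mp Q' k hk]
  have h1 := h Q' k hk (fun i p hp l => (hB i p hp l).trans (by push_cast; linarith))
    (fun i hi v hv w hw l => (hR i hi v hv w hw l).trans (by push_cast; linarith)) V hV0 ?_
  · have h2 : C * V ≤ (⌈C * V⌉₊ : ℝ) := Nat.le_ceil _
    have h3 : ({e | e ∈ Ea0_961.Ed Q' k hk ∧ segment ℝ e.1 e.2 ⊆ Q'.Kc}.ncard : ℝ) ≤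
        ((⌈C * V⌉₊ : ℕ) : ℝ) := h1.trans h2
    have h4 : {e | e ∈ Ea0_961.Ed Q' k hk ∧ segment ℝ e.1 e.2 ⊆ Q'.Kc}.ncard ≤ ⌈C * V⌉₊ := by
      exact_mod_cast h3
    omega
  · rcases Q'.N.eq_empty_or_nonempty with he | ⟨y0, hy0⟩
    · rw [he, image_empty, measure_empty]; exact zero_le
    · have h2 : Q'.ψ '' Q'.N ⊆ closedBall (Q'.ψ y0) (16 * κ⁻¹ * s) := by
        rintro _ ⟨x, hx, rfl⟩
        rw [mem_closedBall, dist_eq_norm, ← map_sub]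
        have h3 := hN (P3 x) ((mem_N_mp' P3 Q').2 hx) (P3 y0) ((mem_N_mp' P3 Q').2 hy0)
        have h4 := hψ (P3 x - P3 y0)
        rw [← map_sub, mp_ψ, P3.symm_apply_apply] at h4
        rw [← map_sub] at h3
        calc ‖Q'.ψ (x - y0)‖ ≤ 4 * κ⁻¹ * ‖P3 (x - y0)‖ := h4
          _ ≤ 4 * κ⁻¹ * (4 * s) := by gcongr
          _ = _ := by ring
      refine (measure_mono h2).trans ?_
      rw [Real.volume_pi_closedBall _ (by positivity)]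
      refine ENNReal.ofReal_le_ofReal ?_
      simp only [Fintype.card_fin]
      have h5 : c1 * s ≤ 1 / 2 ^ Q'.kc := hcell
      calc (2 * (16 * κ⁻¹ * s)) ^ 3 = V * (c1 * s) ^ 3 := by
            rw [hV]; field_simp; ring
        _ ≤ V * (1 / 2 ^ Q'.kc) ^ 3 := by gcongr

/-- **length of the M-edges**, `R3`: `c` depends on `Bs` only -/
theorem len_M (Bs : ℕ) : ∃ c : ℝ, 0 < c ∧ ∀ (Q : CB R3 3) (k : ℕ) (hk : Q.kc ≤ k),
    (∀ i, ∀ p ∈ Q.S.GG i, ∀ l, |p.1 l| ≤ Bs) →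
    (∀ i, i ≠ Q.S.core → ∀ v ∈ ZP (Q.S.GG i), ∀ w ∈ ZP (Q.S.GG i), ∀ l, |w l - v l| ≤ Bs) →
    ∀ e ∈ Pin_753.Ed Q k hk, segment ℝ e.1 e.2 ⊆ Q.Kc → c / 2 ^ Q.kc ≤ ‖Q.ψ (e.2 - e.1)‖ := by
  obtain ⟨c, hc0, h⟩ := len_M_E3 (Bs + 1) (by omega)
  refine ⟨c, hc0, fun Q k hk hB hR e he hK => ?_⟩
  obtain ⟨Q', rfl⟩ : ∃ Q' : CB E3 3, Q = mp P3 Q' :=
    ⟨mp P3.symm Q, (mp_mp_symm P3.symm Q).symm⟩
  obtain ⟨u, v⟩ := e
  have h1 : (P3.symm u, P3.symm v) ∈ Ea0_961.Ed Q' k hk := (mem_Ed Q' k hk).1 he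
  have h2 : segment ℝ (P3.symm u) (P3.symm v) ⊆ Q'.Kc := by
    rw [← seg_Kc Q', P3.apply_symm_apply, P3.apply_symm_apply]
    exact hK
  have h3 := h Q' k hk (fun i p hp l => (hB i p hp l).trans (by push_cast; linarith))
    (fun i hi v hv w hw l => (hR i hi v hv w hw l).trans (by push_cast; linarith)) _ h1
    ⟨P3.symm u, left_mem_segment ℝ _ _, Kc_sub_bp Q' (h2 (left_mem_segment ℝ _ _))⟩
  rw [← map_sub] at h3
  exact h3

/-- the same for the translated blocks of `PreIN`: `c` depends on `Bs` only -/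
theorem len_M_tr (Bs : ℕ) : ∃ c : ℝ, 0 < c ∧ ∀ (κ c1 s τ hh θ0 θ1 : ℝ) (Nn : ℕ) (z0 : R3)
      (Q : CB R3 3) (k : ℕ) (hk : Q.kc ≤ k), 0 < κ → 0 < s → 0 < c1 →
      Pin_753.BlkP κ s τ hh c1 θ0 θ1 Bs Nn z0 Q k → ∀ a : R3,
      ∀ e ∈ Pin_753.Ed (Q.tr a) k hk, segment ℝ e.1 e.2 ⊆ (Q.tr a).Kc →
        c / 2 ^ Q.kc ≤ ‖Q.ψ (e.2 - e.1)‖ ∧ κ / 4 * (c * c1 * s) ≤ ‖e.2 - e.1‖ := by
  obtain ⟨c, hc0, h⟩ := len_M Bs
  refine ⟨c, hc0, fun κ c1 s τ hh θ0 θ1 Nn z0 Q k hk hκ hs hc1 hQ a e he hK => ?_⟩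
  have h1 : c / 2 ^ Q.kc ≤ ‖Q.ψ (e.2 - e.1)‖ := h (Q.tr a) k hk hQ.hB hQ.hR e he hK
  refine ⟨h1, ?_⟩
  have h2 := (hQ.cnd (e.2 - e.1)).2
  have h3 := hQ.cellL
  have h4 : c * (c1 * s) ≤ c / 2 ^ Q.kc := by
    rw [div_eq_mul_one_div]
    gcongr
  have h5 : c * (c1 * s) ≤ 4 * κ⁻¹ * ‖e.2 - e.1‖ := h4.trans (h1.trans h2)
  calc κ / 4 * (c * c1 * s) = κ / 4 * (c * (c1 * s)) := by ring
    _ ≤ κ / 4 * (4 * κ⁻¹ * ‖e.2 - e.1‖) := by gcongr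
    _ = ‖e.2 - e.1‖ := by field_simp

/-- **[N]** in the form of `PreIN`: the translated blocks -/
theorem ncard_M (κ c1 : ℝ) (hκ : 0 < κ) (hc1 : 0 < c1) (Bs : ℕ) :
    ∃ n : ℕ, 0 < n ∧ ∀ (s τ hh θ0 θ1 : ℝ) (Nn : ℕ) (z0 : R3) (Q : CB R3 3) (k : ℕ)
      (hk : Q.kc ≤ k), 0 < s → 0 ≤ τ → τ < 1 →
      Pin_753.BlkP κ s τ hh c1 θ0 θ1 Bs Nn z0 Q k → ∀ a : R3,
      {e | e ∈ Pin_753.Ed (Q.tr a) k hk ∧ segment ℝ e.1 e.2 ⊆ (Q.tr a).Kc}.ncard ≤ n := by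
  obtain ⟨n, hn0, h⟩ := ncard_of κ c1 hκ hc1 Bs
  refine ⟨n, hn0, fun s τ hh θ0 θ1 Nn z0 Q k hk hs hτ hτ1 hQ a => ?_⟩
  refine h (Q.tr a) k hk s hs (fun v => (hQ.cnd v).2) hQ.cellL hQ.hB hQ.hR ?_
  have hd : ∀ x ∈ Q.N, ∀ y ∈ Q.N, ‖x - y‖ ≤ 4 * s := by
    intro x hx y hy
    have h0 : 0 < (1 - τ) * s := mul_pos (by linarith) hs
    have h1 := (Crest.Agent.R96.Coarse_538.mem_cel h0).1 (hQ.sub hx)
    have h2 := (Crest.Agent.R96.Coarse_538.mem_cel h0).1 (hQ.sub hy)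
    have h3 : (1 - τ) * s ≤ s := by nlinarith
    have h4 : ∀ i, |(x - y) i| ≤ 2 * s := by
      intro i
      have e1 := abs_le.1 (h1 i)
      have e2 := abs_le.1 (h2 i)
      rw [PiLp.sub_apply, abs_le]
      constructor <;> linarith [e1.1, e1.2, e2.1, e2.2]
    have h5 : ‖x - y‖ ^ 2 ≤ (4 * s) ^ 2 := by
      rw [EuclideanSpace.norm_sq_eq, Fin.sum_univ_three]
      have e : ∀ i, ‖(x - y) i‖ ^ 2 ≤ (2 * s) ^ 2 := fun i => by
        rw [Real.norm_eq_abs]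
        exact pow_le_pow_left₀ (abs_nonneg _) (h4 i) 2
      nlinarith [e 0, e 1, e 2, sq_nonneg s]
    exact le_of_sq_le_sq h5 (by positivity)
  intro x hx y hy
  have e1 : x - a ∈ Q.N := (Q.mem_N_tr a x).1 hx
  have e2 : y - a ∈ Q.N := (Q.mem_N_tr a y).1 hy
  have := hd _ e1 _ e2
  rwa [sub_sub_sub_cancel_right] at this

end

end Crest.Agent.R096.Nme_227
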