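import Crest.Agent.R096.She3_227
import Crest.Agent.R096.Ca20_855

/-!
Row 96 (S0127), helper227, COMPOSITE B, (O1)(C): **`h2b_block`**: clause (2b) of `InP` for one block of 855's
mesh `h.T a`, from the LONG edges (line form) and the outputs (cells), (E2) of 622's `cob_T`
(82's `h2b_T` with the SHORT edges inserted).
-/

set_option autoImplicit false
set_option linter.style.longLine false
set_option linter.unusedSectionVars false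

open MeasureTheory Set Filter Topology Metric
open scoped ENNReal NNReal

namespace Crest.Agent.R096.She_227

open Crest.AnalysisR.VecCalc3 Crest.AnalysisR.Sobolev
open Crest.Agent.R096.Msh_715 (P I Tiling)
open Crest.Agent.R096.Mal_874 (CB)
open Crest.Agent.R096.Sk_962 (SH)
open Crest.Agent.R096.Sq_55 (E3 Sys w2)
open Crest.Agent.R096.Cob_622
open Crest.Agent.R096.Efi_296
open Crest.Agent.R096.Cbs_296
open Crest.Agent.R096.Br_695 (En)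
open Crest.Agent.R096.Pin_753 (Ed Tw)
open Crest.Agent.R096.Ca_855
open Crest.Agent.R096.Ca_855.MIn (BQ)
open Crest.Agent.R096.Gsc_476
open Crest.Agent.R96.Lu_538 (Gmat)

noncomputable section

/-- the hypothesis on the squeezed 2-cells, from 622's choice of `pr` -/
theorem hd_of {Om W : Set R3} {ρ₀ : R3 → ℝ} {J : Type} [Finite J] {Qb : J → CB R3 3} {k0 : ℕ}
    {σ : ℝ} (h : MIn Om W ρ₀ Qb k0 σ) {a : R3} {s : Finset (h.ιT a)}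
    {pr : (Te (h.T a)).Cell → Prop} {R m : h.ιT a → ℝ≥0} {u p : ℝ} {K₁ K1 : ℕ} (hK : K₁ ≤ K1)
    {kk : J → Fin 3 → ℤ} {Q : Finset (Fin 3 → ℤ)}
    (hpr : ∀ c : (Te (h.T a)).Cell, pr c →
      p < 2 ∨ ∀ k ∈ (Te (h.T a)).at_ c.pt, k ∈ deepT h a kk Q K1)
    (hsm : ∀ k ∈ deepT h a kk Q K1, SmallR R m u k) :
    ∀ k : s, (∃ y ∈ reps (Te (h.T a)) s pr, (k : h.ιT a) ∈ (Te (h.T a)).at_ y) → p < 2 ∨
      (SmallR R m u k ∧ (∃ l, P ((h.T a).H k) ⊆ ((Qb l).tr a).N) ∧ sclT h a k + K₁ ≤ k0) := by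
  rintro k ⟨y, hy, hk⟩
  obtain ⟨c, -, hc, rfl⟩ := mem_reps.1 hy
  rcases hpr c hc with h1 | h1
  · exact Or.inl h1
  · right
    have h2 := h1 _ hk
    obtain ⟨l, -, hl, hs⟩ := id h2
    exact ⟨hsm _ h2, ⟨l, hl⟩, by omega⟩

/-- **(2b) for one block of `h.T a`** -/
theorem h2b_block (Bs : ℕ) : ∃ N' : ℕ, ∀ {κ : ℝ}, 0 < κ → κ ≤ 1 → ∃ K₁ : ℕ, ∀ N : ℕ,
    ∃ (r : ℝ) (c2 : ℝ≥0) (Λ : ℝ) (mS : ℕ), 7 ≤ r ∧ 0 < c2 ∧ 0 < Λ ∧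
    ∀ {Om W : Set R3} {ρ₀ : R3 → ℝ} {J : Type} [Finite J] {Qb : J → CB R3 3} {k0 Nn : ℕ} {σ : ℝ}
      (h : MIn Om W ρ₀ Qb k0 σ), (∀ j, BQ κ Bs Nn (Qb j) k0) →
      4 * κ⁻¹ * (r / 2 ^ k0) < σ / 8 → ∀ {a : R3}, ‖a‖ ≤ σ / 8 → ∀ (j : J) {u : ℝ},
      u = 4 * κ⁻¹ / (5 * 2 ^ k0) →
      ∀ {p : ℝ}, 1 ≤ p → p ≤ 2 → ∀ {La : Set R3} {g : R3 → R3} {G₂ : Fin 3 → R3 → R3},
      SH p Om La g G₂ → ∀ (L : R3 →L[ℝ] R3), (∀ v, κ * ‖v‖ ≤ ‖L v‖) → ‖L‖ ≤ κ⁻¹ →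
      ∀ (Sh : Set (R3 × R3)), (∀ e ∈ Ed ((Qb j).tr a) k0 (h.hk j), e ∈ Sh →
        ∃ y ∈ segment ℝ e.1 e.2, Sht_726.NW ((Qb j).tr a) k0 N y) →
      ∀ {A C1 : ℝ}, 0 ≤ A →
      (∀ e ∈ Ed ((Qb j).tr a) k0 (h.hk j), e ∉ Sh →
        ∫⁻ w in Tw ((Qb j).tr a) k0, ∫⁻ τ in Icc (0:ℝ) 1,
        ‖Gmat G₂ (e.1 + w + τ • (e.2 - e.1)) (e.2 - e.1)‖ₑ ^ p ≤
          ENNReal.ofReal A * ‖L‖ₑ ^ p * ‖e.2 - e.1‖ₑ ^ p * volume (Tw ((Qb j).tr a) k0)) →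
      512 * κ⁻¹ ^ 6 * A * c2 ≤ C1 →
      ∀ {s : Finset (h.ιT a)} {pr : (Te (h.T a)).Cell → Prop} {R m : h.ιT a → ℝ≥0}
        {D : s → ℝ≥0∞} {K : ℝ≥0} {ε : ℝ≥0∞},
        (∀ k : s, (p < 2 ∨ ∀ y ∈ reps (Te (h.T a)) s pr, (k : h.ιT a) ∉ (Te (h.T a)).at_ y) →
          ∫⁻ x in P ((h.T a).H k), En p G₂ x ≤ ENNReal.ofReal (CB p K (m k)) * D k + ε) →
        (∀ (c : EgS (Te (h.T a)) s) (k : s), SmallR R m u k →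
          ∫⁻ x in P ((Te (h.T a)).H k) ∩ cthickening u c.1.set, En p G₂ (w2 x) ≤
          ENNReal.ofReal (CE p K (m k)) * D k + ε) →
        (∀ t, (∃ y ∈ P ((h.T a).H t), ∃ z ∈ ((Qb j).tr a).N, ‖y - z‖ ≤ 2 * u) → t ∈ s) →
        (∀ k : s, (∃ y ∈ reps (Te (h.T a)) s pr, (k : h.ιT a) ∈ (Te (h.T a)).at_ y) → p < 2 ∨
          (SmallR R m u k ∧ (∃ l, P ((h.T a).H k) ⊆ ((Qb l).tr a).N) ∧
            sclT h a k + K₁ ≤ k0)) →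
        ∀ {C : ℝ≥0∞}, (∀ k ∈ Kz h a j r s,
          ENNReal.ofReal (CB p K (m k)) + N' * ENNReal.ofReal (CE p K (m k)) ≤ C) →
        ∀ {er : ℝ≥0∞}, ENNReal.ofReal (512 * Hb_82.Ct κ * Λ ^ 2) *
          (mS * ∑ k ∈ Kz h a j r s, (C * D k + (N' + 1) * ε)) ≤ er →
      ENNReal.ofReal (‖L‖ ^ p / |L.det|) *
          (∑' e : Ed ((Qb j).tr a) k0 (h.hk j), ENNReal.ofReal (‖L (e.1.2 - e.1.1)‖ ^ (3 - p)) *
            ∫⁻ w in Tw ((Qb j).tr a) k0, ∫⁻ τ in Icc (0:ℝ) 1,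
              ‖Gmat G₂ (e.1.1 + w + τ • (e.1.2 - e.1.1)) (e.1.2 - e.1.1)‖ₑ ^ p) ≤
        ENNReal.ofReal (1 / 512) * (ENNReal.ofReal (C1 * ‖L‖ ^ p) *
          volume (((Qb j).tr a).N \ ((Qb j).tr a).Kc) + er) * volume (Tw ((Qb j).tr a) k0) := by
  obtain ⟨N', H1⟩ := exists_short Bs
  refine ⟨N', fun {κ} hκ hκ1 => ?_⟩
  obtain ⟨K₁, H2⟩ := H1 hκ hκ1
  refine ⟨K₁, fun N => ?_⟩
  obtain ⟨r, hr, H3⟩ := H2 N
  have hki : 0 < κ⁻¹ := inv_pos.2 hκ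
  obtain ⟨c2, Λ, mS, hc2, hΛ, H4⟩ := Hb_82.h2b_T Bs hκ N (dm := 4 * κ⁻¹ * max 1 (Bs:ℝ) * r)
    (by positivity)
  refine ⟨r, c2, Λ, mS, hr, hc2, hΛ, ?_⟩
  intro Om W ρ₀ J _ Qb k0 Nn σ h hb hsm a ha j u hu p hp hp2 La g G₂ hg L hL hL' Sh hSh A C1 hA
    hlong hC1 s pr R m D K ε hcell hE hs hd C hC er her
  obtain ⟨G1, G2, G3, G4⟩ := H3 h hb hsm ha j hu
  refine H4 hp hp2 ((Qb j).tr a) k0 (h.hk j) (hb j).cnd (hb j).hB (hb j).hR hg L hL hL' hu Sh hSh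
    (fun e he _ => G1 e he) hA hlong hC1 (fun k : s => P ((h.T a).H k))
    (fun k : s => C * D k + (N' + 1) * ε) (Kz h a j r s)
    (fun e => Zc (h.T a) s (w2 '' cthickening u (sE e))) ?_ ?_ ?_ her
  · intro e he heS k hk
    have h1 := mem_Zc.1 hk
    exact ⟨mem_Kz.2 (G2 e he (hSh e he heS) k h1), h1⟩
  · intro k hk
    exact G3 k (mem_Kz.1 hk)
  · intro e he heS
    exact G4 hcell hE hs hd hC e he (hSh e he heS)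

end

end Crest.Agent.R096.She_227
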