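import Crest.Agent.R096.Pas2_753

/-!
# Row 96 (helper812), p ≤ 2, composite B, [C7]: closeness of `f₂ = R ∘ f ∘ Φ ∘ χ` on the cells

`near_cel` : the clause `∀ k ∈ Q, ∀ x ∈ cel Cb (vt (2 * s) a₀ k) ((1 - τ) * s), ‖f₂ x - Bk ..‖ ≤ C1 * hh * s`
of `Pin_753.PreIN` from the first clause of `Pas_753.ResU` (with `τ'`), `‖R y - y‖ ≤ 3 σ` and
`‖χ x - x‖ ≤ t` on the cell.
-/

set_option autoImplicit false
set_option linter.unusedSectionVars false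
set_option linter.style.longLine false

open Set Filter Topology Metric

namespace Crest.Agent.R096.Eta_812

open Crest.AnalysisR.VecCalc3 Crest.AnalysisR.Sobolev
open Crest.Agent.R096.Msh_715 (Tiling P I)
open Crest.Agent.R096.Pin_753 (Bk)
open Crest.Agent.R96.Intr_538 (cel par)
open Crest.Agent.R96.Coarse_538 (vt Cb mem_cel)

/-- a point near a point of a cell is in a bigger cell -/
theorem cel_of_near {z x y : R3} {r r' t : ℝ} (hr : 0 < r) (hr' : 0 < r') (hx : x ∈ cel Cb z r)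
    (hxy : ‖y - x‖ ≤ t) (ht : r + t ≤ r') : y ∈ cel Cb z r' := by
  rw [mem_cel hr'] at *
  intro i
  have h1 := (mem_cel hr).1 hx i
  have h2 := PiLp.norm_apply_le (y - x) i
  rw [PiLp.sub_apply, Real.norm_eq_abs] at h2
  have h3 := abs_add_le (y i - x i) (x i - z i)
  have h4 : y i - x i + (x i - z i) = y i - z i := by ring
  rw [h4] at h3
  linarith

/-- **closeness on the cells** -/
theorem near_cel {Q : Set (Fin 3 → ℤ)} {zc bb : (Fin 3 → ℤ) → R3}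
    {LL : (Fin 3 → ℤ) → R3 →L[ℝ] R3} {κ τ τ' s d e σ t m : ℝ} {f Φ χ R : R3 → R3}
    (hs : 0 < s) (hτ1 : τ < 1)
    (g2 : ∀ k ∈ Q, ∀ y ∈ cel Cb (zc k) ((1 - 6 * τ') * s),
      ‖f (Φ y) - (bb k + LL k (y - zc k))‖ ≤ d + e)
    (hL : ∀ k ∈ Q, ‖LL k‖ ≤ κ⁻¹) (hR : ∀ y, ‖R y - y‖ ≤ 3 * σ)
    (hχ : ∀ k ∈ Q, ∀ x ∈ cel Cb (zc k) ((1 - τ) * s), ‖χ x - x‖ ≤ t)
    (ht0 : 0 ≤ t) (ht : t ≤ (τ - 6 * τ') * s) (hnum : d + e + 3 * σ + κ⁻¹ * t ≤ m) :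
    ∀ k ∈ Q, ∀ x ∈ cel Cb (zc k) ((1 - τ) * s),
      ‖R (f (Φ (χ x))) - Bk (bb k) (LL k) (zc k) x‖ ≤ m := by
  intro k hk x hx
  have h1 : 0 < (1 - τ) * s := mul_pos (sub_pos.2 hτ1) hs
  have h2 : (1 - τ) * s + t ≤ (1 - 6 * τ') * s := by linarith
  have h3 := cel_of_near h1 (by linarith) hx (hχ k hk x hx) h2
  have h4 := g2 k hk _ h3
  have h5 := hR (f (Φ (χ x)))
  have h6 : ‖LL k (χ x - x)‖ ≤ κ⁻¹ * t :=
    ((LL k).le_opNorm _).trans (mul_le_mul (hL k hk) (hχ k hk x hx) (norm_nonneg _)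
      ((norm_nonneg _).trans (hL k hk)))
  have e1 : R (f (Φ (χ x))) - Bk (bb k) (LL k) (zc k) x =
      (R (f (Φ (χ x))) - f (Φ (χ x))) + (f (Φ (χ x)) - (bb k + LL k (χ x - zc k))) +
        LL k (χ x - x) := by
    have e2 : LL k (χ x - x) = LL k (χ x - zc k) - LL k (x - zc k) := by
      rw [← map_sub]
      congr 1
      abel
    rw [e2]
    unfold Bk
    abel
  rw [e1]
  have h7 := norm_add₃_le (a := R (f (Φ (χ x))) - f (Φ (χ x)))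
    (b := f (Φ (χ x)) - (bb k + LL k (χ x - zc k))) (c := LL k (χ x - x))
  linarith

/-- the same on the tiles: `χ` keeps the tiles, the tiles which meet the cells have diameter `≤ t` -/
theorem near_cel_T {Om : Set R3} {ι : Type} (T : Tiling Om ι) {Q : Set (Fin 3 → ℤ)}
    {zc bb : (Fin 3 → ℤ) → R3}
    {LL : (Fin 3 → ℤ) → R3 →L[ℝ] R3} {κ τ τ' s d e σ t m : ℝ} {f Φ χ R : R3 → R3}
    (hs : 0 < s) (hτ1 : τ < 1)
    (g2 : ∀ k ∈ Q, ∀ y ∈ cel Cb (zc k) ((1 - 6 * τ') * s),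
      ‖f (Φ y) - (bb k + LL k (y - zc k))‖ ≤ d + e)
    (hL : ∀ k ∈ Q, ‖LL k‖ ≤ κ⁻¹) (hR : ∀ y, ‖R y - y‖ ≤ 3 * σ)
    (hQ : ∀ k ∈ Q, cel Cb (zc k) s ⊆ Om)
    (hχ : ∀ x ∈ Om, ∃ i, x ∈ P (T.H i) ∧ χ x ∈ P (T.H i))
    (hd : ∀ k ∈ Q, ∀ i, (P (T.H i) ∩ cel Cb (zc k) s).Nonempty →
      ∀ x ∈ P (T.H i), ∀ y ∈ P (T.H i), ‖y - x‖ ≤ t)
    (hτ : 0 ≤ τ) (ht0 : 0 ≤ t) (ht : t ≤ (τ - 6 * τ') * s)
    (hnum : d + e + 3 * σ + κ⁻¹ * t ≤ m) :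
    ∀ k ∈ Q, ∀ x ∈ cel Cb (zc k) ((1 - τ) * s),
      ‖R (f (Φ (χ x))) - Bk (bb k) (LL k) (zc k) x‖ ≤ m := by
  refine near_cel hs hτ1 g2 hL hR (fun k hk x hx => ?_) ht0 ht hnum
  have h1 : 0 < (1 - τ) * s := mul_pos (sub_pos.2 hτ1) hs
  have h2 : x ∈ cel Cb (zc k) s :=
    cel_of_near (y := x) h1 hs hx (t := 0) (by simp) (by nlinarith)
  obtain ⟨i, hi, hi'⟩ := hχ x (hQ k hk h2)
  exact hd k hk i ⟨x, hi, h2⟩ x hi _ hi'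

end Crest.Agent.R096.Eta_812
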