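import Crest.Agent.R096.Oi1_961
import Crest.Agent.R096.Onp1_622
import Crest.Agent.R096.Eta2_812

/-!
Row 96 (S0127), `p ≤ 2`, COMPOSITE B, (O1) (helper821): **the tubes of the edges of a translated block**:
they lie in the good cube (`tube_cel`), and `f ∘ Φ ∘ chi` maps them into the region of the coordinate form
of `Rr` (`tube_O`); `chi` keeps the tiles (`chi_tile`).
-/

set_option autoImplicit false
set_option linter.style.longLine false
set_option linter.unusedSectionVars false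

namespace Crest.Agent.R096.Tub_821

open MeasureTheory Set Filter Topology Metric
open Crest.AnalysisR.VecCalc3
open Crest.Agent.R096.Msh_715 (P I Tiling)
open Crest.Agent.R096.Mal_874 (CB)
open Crest.Agent.R096.Sq_55 (E3 Sys w2 toR)
open Crest.Agent.R096.Cob_622
open Crest.Agent.R096.Efi_296
open Crest.Agent.R096.Cbs_296
open Crest.Agent.R096.Pin_753
open Crest.Agent.R096.She_227 (sE isCompact_sE image_sE)
open Crest.Agent.R96.Intr_538 (cel par cel_mono)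
open Crest.Agent.R96.Coarse_538 (vt Cb mem_cel norm_coord_le)
open Crest.Agent.R096.Eta_812 (cel_of_near)
open scoped ENNReal NNReal

noncomputable section

/-- **`chi` keeps the tiles** (hypothesis `hχ` of 812 / 692) -/
theorem chi_tile {OmR : Set R3} {ι : Type*} {T : Tiling OmR ι} {s : Finset ι}
    {pr : (Te T).Cell → Prop} {c : ι → E3} {R : ι → ℝ≥0} {ρ : E3 → ℝ≥0} {m : ι → ℝ≥0}
    {X : Sys s (reps (Te T) s pr)} (h : SysOf (Te T) s pr c R ρ m X)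
    (hpr : ∀ c : (Te T).Cell, pr c → ∀ k ∈ (Te T).at_ c.pt, k ∈ s) {p δ : ℝ} (hA : X.Adm p δ)
    (N₁ N₂ : ℕ) {x : R3} (hx : x ∈ OmR) :
    ∃ i, x ∈ P (T.H i) ∧ toR (Sys.chi hA N₁ N₂) x ∈ P (T.H i) := by
  by_cases hk : ∃ k ∈ s, x ∈ P (T.H k)
  · obtain ⟨k, hks, hxk⟩ := hk
    refine ⟨k, hxk, ?_⟩
    have h1 : w2.symm x ∈ (X.C ⟨k, hks⟩).P := by
      rw [h.eP, Te_P, mem_preimage, w2.apply_symm_apply]
      exact hxk
    have h2 := (Sys.chi_P hA N₁ N₂ ⟨k, hks⟩ (w2.symm x)).2 h1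
    rw [h.eP, Te_P] at h2
    exact h2
  · obtain ⟨i, hi⟩ := T.cov x hx
    refine ⟨i, hi, ?_⟩
    have h1 : w2.symm x ∉ ⋃ k, (X.C k).P := by
      intro hcon
      obtain ⟨k, hkc⟩ := mem_iUnion.1 hcon
      rw [h.eP, Te_P, mem_preimage, w2.apply_symm_apply] at hkc
      exact hk ⟨k, k.2, hkc⟩
    have h2 := Cob_622.chi_out (h.K_sub_P hpr) hA N₁ N₂ h1
    have h3 : toR (Sys.chi hA N₁ N₂) x = x := by
      show w2 (Sys.chi hA N₁ N₂ (w2.symm x)) = x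
      rw [h2, w2.apply_symm_apply]
    rw [h3]
    exact hi

/-- the value of the affine map of a good cube at a point of the cube -/
theorem Bk_mem_par {z b x : R3} {L : R3 →L[ℝ] R3} {r : ℝ} (hx : x ∈ cel Cb z r) :
    b + L (x - z) ∈ par Cb L b r := by
  obtain ⟨v, hv, rfl⟩ := hx
  refine ⟨v, hv, ?_⟩
  show b + r • L v = b + L (z + r • v - z)
  rw [add_sub_cancel_left, map_smul]

/-- **the tubes of the edges of a translated block lie in the good cube** -/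
theorem tube_cel {Q : CB R3 3} {k0 : ℕ} {a z : R3} (hk : (Q.tr a).kc ≤ k0) {r A u : ℝ}
    (hr : 0 < r) (hN : Q.N ⊆ cel Cb z r) (hA0 : 0 ≤ A) (hA : ‖a‖ ≤ A) (hu : 0 ≤ u) {e : R3 × R3}
    (he : e ∈ Ed (Q.tr a) k0 hk) {y : E3} (hy : y ∈ cthickening u (sE e)) :
    w2 y ∈ cel Cb z (r + A + u) := by
  obtain ⟨y0, hy0, hyy⟩ := Sqt_143.inf_pt (isCompact_sE e) hy hu
  obtain ⟨x, -, -, hsub⟩ := he
  have h1 : w2 y0 ∈ (Q.tr a).N := hsub (by rw [← image_sE]; exact mem_image_of_mem _ hy0)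
  rw [CB.mem_N_tr] at h1
  have h2 := (mem_cel hr).1 (hN h1)
  rw [mem_cel (by linarith)]
  intro i
  have h3 := h2 i
  have h4 : |y i - y0 i| ≤ u := (norm_le_pi_norm (y - y0) i).trans hyy
  have h5 : |a i| ≤ A := (norm_coord_le a i).trans hA
  have e1 : (w2 y0 - a) i - z i = y0 i - a i - z i := rfl
  rw [e1] at h3
  have e2 : (w2 y) i - z i = (y i - y0 i) + (y0 i - a i - z i) + a i := by
    show y i - z i = _
    ring
  rw [e2]
  refine (abs_add_le _ _).trans ?_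
  have h6 := abs_add_le (y i - y0 i) (y0 i - a i - z i)
  linarith

/-- **the image of the tubes under `f ∘ Φ ∘ χ`** -/
theorem tube_O {Om W : Set R3} {ι : Type*} {T : Tiling Om ι} {f Φ χ : R3 → R3} {Q : CB R3 3}
    {k0 : ℕ} {a z b : R3} {L : R3 →L[ℝ] R3} (hk : (Q.tr a).kc ≤ k0)
    {s τ τ' κ A u t d : ℝ} (hs : 0 < s) (hτ : τ < 1) (hτ0 : 0 ≤ τ')
    (hN : Q.N ⊆ cel Cb z ((1 - τ) * s)) (hA0 : 0 ≤ A) (hA : ‖a‖ ≤ A) (hu : 0 ≤ u) (ht : 0 ≤ t)
    (hcW : cel Cb z s ⊆ W) (hWO : W ⊆ Om)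
    (hdiam : ∀ i, (P (T.H i) ∩ W).Nonempty → ∀ x ∈ P (T.H i), ∀ y ∈ P (T.H i), ‖y - x‖ ≤ t)
    (hχ : ∀ x ∈ Om, ∃ i, x ∈ P (T.H i) ∧ χ x ∈ P (T.H i))
    (hnum : A + u + t ≤ (τ - 6 * τ') * s)
    (g2 : ∀ y ∈ cel Cb z ((1 - 6 * τ') * s), ‖f (Φ y) - (b + L (y - z))‖ ≤ d)
    (hd : d < κ * (τ' * s) / 4)
    {e : R3 × R3} (he : e ∈ Ed (Q.tr a) k0 hk) {y : E3} (hy : y ∈ cthickening u (sE e)) :
    f (Φ (χ (w2 y))) ∈ thickening (κ * (τ' * s) / 4) (par Cb L b ((1 - 4 * τ') * s)) := by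
  have hr : 0 < (1 - τ) * s := mul_pos (by linarith) hs
  have h6 : (1 - τ) * s + A + u + t ≤ (1 - 6 * τ') * s := by nlinarith
  have hr6 : 0 < (1 - 6 * τ') * s := by linarith
  have h1 := tube_cel hk hr hN hA0 hA hu he hy
  have h2 : w2 y ∈ cel Cb z s := by
    rw [mem_cel hs]
    intro i
    have h3 := (mem_cel (by linarith)).1 h1 i
    nlinarith
  obtain ⟨i, hi, hi'⟩ := hχ (w2 y) (hWO (hcW h2))
  have h3 := hdiam i ⟨_, hi, hcW h2⟩ _ hi _ hi'
  have h4 : χ (w2 y) ∈ cel Cb z ((1 - 6 * τ') * s) :=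
    cel_of_near (by linarith) hr6 h1 h3 (by linarith)
  rw [mem_thickening_iff]
  refine ⟨b + L (χ (w2 y) - z), ?_, ?_⟩
  · have h5 : χ (w2 y) ∈ cel Cb z ((1 - 4 * τ') * s) := by
      rw [mem_cel (by nlinarith)]
      intro i
      have h7 := (mem_cel hr6).1 h4 i
      nlinarith
    exact Bk_mem_par h5
  · rw [dist_eq_norm]
    exact (g2 _ h4).trans_lt hd

end

end Crest.Agent.R096.Tub_821
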