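import Crest.Agent.R096.Oi3_961
import Crest.Agent.R096.Onp2_622
import Crest.Agent.R096.H2n6_821
import Crest.Agent.R096.Tub1_821
import Crest.Agent.R096.Shp8_432
import Crest.Agent.R096.Lnk3_726
import Crest.Agent.R096.She4_227
import Crest.Agent.R096.Sqt19_143
import Crest.Agent.R096.Nme1_227
import Crest.Agent.R096.Gam3_968
import Crest.Agent.R096.Lgb1_821
import Crest.Agent.R096.Cbs5_296
import Crest.Agent.R096.Onp4_622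

/-!
Row 96 (S0127), helper961, COMPOSITE B, (O1): `o1_of`, the block estimates `InP` of all blocks of `h.T a` from the
clauses of `cob_T`, in the format `Onp_622.O1`.
-/

set_option autoImplicit false
set_option linter.unusedSectionVars false
set_option linter.style.longLine false

open Set Metric Filter Topology MeasureTheory
open scoped ENNReal NNReal

namespace Crest.Agent.R096.Oi_961

open Crest.AnalysisR.VecCalc3 Crest.AnalysisR.Sobolev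
open Crest.Agent.R096.Msh_715 (P I Tiling)
open Crest.Agent.R096.Mal_874 (CB ZP)
open Crest.Agent.R096.Sk_962 (SH)
open Crest.Agent.R096.Sk2_855 (Mv)
open Crest.Agent.R096.Sq_55 (E3 Sys w2 toR GG GG_mono)
open Crest.Agent.R096.Sqt_143 (sg cu Zn CT AE DeepS)
open Crest.Agent.R096.Cob_622
open Crest.Agent.R096.Efi_296
open Crest.Agent.R096.Cbs_296
open Crest.Agent.R096.Fce_793 (pt)
open Crest.Agent.R096.H2a_821 (A1 A2 SnS npS npS_spec)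
open Crest.Agent.R096.She_227 (sE ShE Kz Zw exists_short mem_Kz)
open Crest.Agent.R096.Hb_82 (Ct)
open Crest.Agent.R096.Sht_726 (NW)
open Crest.Agent.R096.Ca_855 (MIn deepT)
open Crest.Agent.R096.Ca_855.MIn (BQ)
open Crest.Agent.R096.Dps_476 (deepJ)
open Crest.Agent.R096.Gsc_476 (sclT)
open Crest.Agent.R096.Onp_622 (SetD O1 CellsC E1C E2C NC O1A)
open Crest.Agent.R96.Coarse_538 (seg vt Cb PerfG)
open Crest.Agent.R96.Intr_538 (cel par)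
open Crest.Agent.R96.Gdt_538 (MeshG)
open Crest.Agent.R96.Lu_538 (Gmat)
open Crest.Agent.R096.Br_695 (En)
open Crest.Agent.R096.Pin_753
open Crest.Agent.R096.Pas_753 (Pos gF)

noncomputable section

section aux

theorem min_real {J : Type*} [Finite J] (d : J → ℝ) (hd : ∀ j, 0 < d j) :
    ∃ δ₀ : ℝ, 0 < δ₀ ∧ ∀ j, δ₀ ≤ d j := by
  rcases isEmpty_or_nonempty J with hJ | hJ
  · exact ⟨1, one_pos, fun j => (hJ.false j).elim⟩
  · obtain ⟨j, hj⟩ := Finite.exists_min d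
    exact ⟨d j, hd j, hj⟩

theorem min_enn {J : Type*} [Finite J] (d : J → ℝ≥0∞) (hd : ∀ j, d j ≠ 0) :
    ∃ δ₀ : ℝ≥0∞, δ₀ ≠ 0 ∧ ∀ j, δ₀ ≤ d j := by
  rcases isEmpty_or_nonempty J with hJ | hJ
  · exact ⟨1, one_ne_zero, fun j => (hJ.false j).elim⟩
  · obtain ⟨j, hj⟩ := Finite.exists_min d
    exact ⟨d j, hd j, hj⟩

/-- the first condition on `ε` -/
theorem exists_epsL {Q : CB R3 3} {k0 : ℕ} {hk : Q.kc ≤ k0} (Sh : Set (R3 × R3)) {p u : ℝ}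
    (hp : 0 ≤ p) (hu : 0 < u) {L : R3 →L[ℝ] R3} (hL : 0 < ‖L‖)
    (hne : ∀ e ∈ Ed Q k0 hk, e ∉ Sh → e.2 - e.1 ≠ 0) :
    ∃ ε : ℝ≥0∞, ε ≠ 0 ∧ ∀ ε' ≤ ε, ∀ e ∈ Ed Q k0 hk, e ∉ Sh →
      ε' ≤ ENNReal.ofReal (u^2 * ‖e.2 - e.1‖) * ‖L‖ₑ ^ p := by
  have hfin := Tra_227.ed_finite Q k0 hk
  have : Finite (Ed Q k0 hk) := hfin
  classical
  obtain ⟨ε, hε, h⟩ := min_enn (fun e : Ed Q k0 hk =>
    if (e : R3 × R3) ∈ Sh then 1 else ENNReal.ofReal (u^2 * ‖e.1.2 - e.1.1‖) * ‖L‖ₑ ^ p) (by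
      rintro ⟨e, he⟩
      dsimp only
      split_ifs with h
      · exact one_ne_zero
      · refine mul_ne_zero ?_ ?_
        · have := norm_pos_iff.2 (hne e he h)
          exact (ENNReal.ofReal_pos.2 (by positivity)).ne'
        · rw [← ofReal_norm_eq_enorm]
          exact (ENNReal.rpow_pos (ENNReal.ofReal_pos.2 hL) ENNReal.ofReal_ne_top).ne')
  refine ⟨ε, hε, fun ε' hε' e he heS => hε'.trans ((h ⟨e, he⟩).trans ?_)⟩
  rw [if_neg heS]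

/-- numbers -/
theorem num_T0 {c1 c2 τ κw κ M cu r θ0 : ℝ} {K1 N : ℕ} (hκ : 0 < κ) (hM : 0 < M) (hcu : 0 < cu)
    (hr : 0 < r) (hθ0 : 0 < θ0) (R2 : θ0 * (2 ^ (K1 + N + 1) + 416 * κ⁻¹ * M^4 * cu) ≤ c1)
    (R3 : θ0 * (64 * κ⁻¹ * r + 16) ≤ c2) (R4 : θ0 * (8 * (2 + 60 * M^4 * cu)) ≤ τ)
    (R5 : θ0 * (400 * κ⁻¹ * M^4 * cu) ≤ κw) :
    2 ^ K1 * θ0 < c1 ∧ 2 ^ N * θ0 < c1 ∧ 416 * κ⁻¹ * M^4 * cu * θ0 ≤ c1 ∧
      32 * κ⁻¹ * r * θ0 < c2 ∧ 16 * θ0 ≤ c2 ∧ (2 + 60 * M^4 * cu) * θ0 ≤ τ / 8 ∧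
      100 * κ⁻¹ * M^4 * cu * θ0 ≤ κw / 4 := by
  have hκ' : 0 < κ⁻¹ := inv_pos.2 hκ
  have h1 : (2:ℝ) ^ K1 ≤ 2 ^ (K1 + N) := pow_le_pow_right₀ one_le_two (by omega)
  have h1' : (2:ℝ) ^ N ≤ 2 ^ (K1 + N) := pow_le_pow_right₀ one_le_two (by omega)
  have h2 : (0:ℝ) < 2 ^ (K1 + N) * θ0 := by positivity
  have h3 : 0 < κ⁻¹ * M^4 * cu * θ0 := by positivity
  have h4 : 0 < κ⁻¹ * r * θ0 := by positivity
  have e2 : θ0 * (2 ^ (K1 + N + 1) + 416 * κ⁻¹ * M^4 * cu) =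
      2 * (2 ^ (K1 + N) * θ0) + 416 * (κ⁻¹ * M^4 * cu * θ0) := by rw [pow_succ]; ring
  rw [e2] at R2
  have e3 : θ0 * (64 * κ⁻¹ * r + 16) = 64 * (κ⁻¹ * r * θ0) + 16 * θ0 := by ring
  rw [e3] at R3
  have h5 : 2 ^ K1 * θ0 ≤ 2 ^ (K1 + N) * θ0 := by gcongr
  have h5' : 2 ^ N * θ0 ≤ 2 ^ (K1 + N) * θ0 := by gcongr
  refine ⟨by linarith, by linarith, by linarith, by linarith, by linarith, by linarith,
    by linarith⟩

end aux

/-- the error of the block in the form of 622's `erT` -/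
theorem er_le {Om W : Set R3} {ρ₀ : R3 → ℝ} {J : Type} [Finite J] {Qb : J → CB R3 3} {k0 : ℕ} {σ : ℝ}
    (h : MIn Om W ρ₀ Qb k0 σ) (a : R3) (j : J) {s : Finset (h.ιT a)} (Jf : s → ℝ≥0∞)
    {r Rl Cer : ℝ} (hr : r ≤ Rl) {A C C' ε : ℝ≥0∞} (h1 : A * C ≤ ENNReal.ofReal Cer)
    (h2 : A * C' ≤ ENNReal.ofReal Cer) :
    A * ∑ k ∈ Kz h a j r s, (C * Jf k + C' * ε) ≤ Onp_622.erT h a Jf Rl Cer ε j := by
  unfold Onp_622.erT
  rw [Finset.mul_sum, Finset.mul_sum]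
  refine (Finset.sum_le_sum fun k _ => ?_).trans (Finset.sum_le_sum_of_subset fun k hk => ?_)
  · rw [mul_add, mul_add, ← mul_assoc, ← mul_assoc]
    gcongr
  · rw [mem_Kz] at hk
    obtain ⟨y, hy, z, hz, h3⟩ := hk
    rw [Onp_622.mem_zoneS]
    refine ⟨y, hy, z, hz, h3.trans ?_⟩
    gcongr

set_option maxHeartbeats 4000000 in
/-- **(O1)**: the block estimates of all blocks of `h.T a` -/
theorem o1_of (Bs : ℕ) {κ : ℝ} (hκ : 0 < κ) (hκ1 : κ ≤ 1) {vI : ℝ≥0} (hvI : 1 ≤ vI) {K3 : ℕ}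
    (hK3 : 1 ≤ K3) (nb : ℕ) {p : ℝ} (hp1 : 1 ≤ p) (hp2 : p ≤ 2) :
    ∃ K₀ : ℕ, K3 + 1 ≤ K₀ ∧ 4 ≤ K₀ ∧ ∀ K1, K₀ ≤ K1 → ∃ r C₁ : ℝ, 7 ≤ r ∧
    ∀ vN : ℝ≥0, ∃ Cer₀ : ℝ, 0 ≤ Cer₀ ∧
    ∀ {D τ hh c1 c2 κw : ℝ}, 0 < D → 0 < τ → τ ≤ 1 / 4 → 0 < hh → 0 < c1 → 0 < c2 → 0 < κw →
      24 * D * hh ≤ τ →
    ∃ θ₀ σ₀ η₀ : ℝ, 0 < θ₀ ∧ 0 < σ₀ ∧ 0 < η₀ ∧
    ∀ {θ0 θ1 σ' η₁ s C1 Rl Cer dd : ℝ} {Nn : ℕ}, 0 < θ0 → θ0 ≤ θ₀ → 0 < σ' → σ' ≤ σ₀ → 0 < η₁ →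
      η₁ ≤ η₀ → 0 < s → C₁ ≤ C1 → r ≤ Rl → Cer₀ ≤ Cer → dd < κ * (τ / 12 * s) / 4 →
    ∀ {Om La W : Set R3} {f : R3 → R3} {G : Fin 3 → R3 → R3}, IsOpen Om → SH p Om La f G →
      W ⊆ Om →
    ∀ {ρ₀ : R3 → ℝ} {J : Type} [Finite J] {kk : J → Fin 3 → ℤ} {Qb : J → CB R3 3} {k0 : ℕ}
      (hk : ∀ j, (Qb j).kc ≤ k0)
      {a₀ : R3} {Q : Finset (Fin 3 → ℤ)} {b : (Fin 3 → ℤ) → R3} {L : (Fin 3 → ℤ) → R3 →L[ℝ] R3},
      (∀ j, BlkP κ s τ hh c1 θ0 θ1 Bs Nn (vt (2 * s) a₀ (kk j)) (Qb j) k0) →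
      1 / 2 ^ k0 ≤ θ0 * s →
      (∀ k ∈ Q, (∀ v, κ * ‖v‖ ≤ ‖L k v‖) ∧ ‖L k‖ ≤ κ⁻¹) →
      (∀ k ∈ Q, cel Cb (vt (2 * s) a₀ k) s ⊆ W) →
    ∀ (h : MIn Om W ρ₀ Qb k0 (c2 * s)) {a : R3}, ‖a‖ ≤ 2 / 2 ^ k0 →
      (∀ t, {l | (P ((h.T a).H l) ∩ P ((h.T a).H t)).Nonempty}.ncard ≤ nb) →
    -- the good position
    ∀ {κi : Type} {x v : κi → R3} {κf : Type} {xf : κf → R3} {ef : κf → Fin 2 → R3}
      {Pf : κf → Set (ℝ × ℝ)} {d σr : ℝ},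
      Pos p Om La W f G (h.T a) x v xf ef Pf κ (τ / 12) (τ / 24) η₁ (D * hh * s) s d σr
        (vt (2 * s) a₀) b L Q a →
    -- the families of all cells
    ∀ {κe' κf' : Type} {x' v' : κe' → R3} {e' : κf' → Fin 2 → R3} {xx' : κf' → R3}
      {Qf' : κf' → Set (ℝ × ℝ)} (hQf : ∀ φ, IsCompact (Qf' φ))
      (hG : ∀ i, GoodA Om (gF p G L i) x' v' e' xx' a) (vU : ℝ≥0),
      O1A p La f G κ (τ / 12) s (σ' * (D * hh * s)) dd C1 κw Rl Cer (vt (2 * s) a₀) b L kk Q hk h a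
        K1 K3 vU vI vN hQf hG := by
  obtain ⟨np, nc, nw, K₀, lam, cV, Cb', hlam, hcV, hCb', hK₀, hK₀4, hlong⟩ :=
    Lgb_821.long_blk Bs hκ hκ1 nb vI hvI K3 hK3
  obtain ⟨N', hsh⟩ := exists_short Bs
  obtain ⟨K₁, hsh⟩ := hsh hκ hκ1
  refine ⟨max K₀ K₁, by omega, by omega, fun K1 hK1 => ?_⟩
  obtain ⟨N, hlong⟩ := hlong K1 ((le_max_left _ _).trans hK1)
  obtain ⟨r, hr, hsh⟩ := hsh N
  obtain ⟨c2', Λ, mI, hc2', hΛ, hblk⟩ := inP_block Bs hκ N (dm := 4 * κ⁻¹ * max 1 (Bs:ℝ) * r)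
    (by positivity)
  refine ⟨r, 512 * κ⁻¹ ^ 6 * AL p (3 / 2) (GG vI) nb (2 ^ nb) np nc cV κ * c2', hr, fun vN => ?_⟩
  obtain ⟨Czn, hCzn⟩ : ∃ Czn : ℝ≥0∞, Czn = ENNReal.ofReal (CB p (3 / 2) (GG vN)) +
    N' * ENNReal.ofReal (CE p (3 / 2) (GG vN)) := ⟨_, rfl⟩
  have hCzt : Czn ≠ ∞ := by rw [hCzn]; finiteness
  obtain ⟨A₀, hA₀⟩ : ∃ A₀ : ℝ≥0∞, A₀ = ENNReal.ofReal (512 * Ct κ * Λ ^ 2) * mI := ⟨_, rfl⟩
  have hA₀t : A₀ ≠ ∞ := by rw [hA₀]; finiteness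
  refine ⟨max (A₀ * Czn).toReal (A₀ * (N' + 1)).toReal, by positivity, ?_⟩
  intro D τ hh c1 c2 κw hD hτ hτ4 hhh hc1 hc2 hκw hDh
  obtain ⟨nM, hnM, hnMc⟩ := Nme_227.ncard_M κ c1 hκ hc1 Bs
  obtain ⟨cl, hcl, hlen⟩ := Nme_227.len_M_tr Bs
  obtain ⟨η, hη, θ₁, hθ₁, η₂, hη₂, σ₂, hσ₂, hnum⟩ := H2a_821.exists_num2a (p := p) (κ := κ)
    (cV := cV) (Cb := Cb') (κw := κw) (c₀ := κ / 4 * (cl * c1)) (GG vI) nb (2 ^ nb) np nc nw
    (nM := nM) hp1 (by linarith) hκ hcV.le hCb' hκw (by positivity) hnM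
  have hM1 : (1:ℝ) ≤ GG vI := by exact_mod_cast Sq_55.one_le_GG vI
  have hM1' : (1 : ℝ≥0) ≤ GG vI := Sq_55.one_le_GG vI
  have hM0 : (0:ℝ) < GG vI := by linarith
  obtain ⟨cu, hcu⟩ : ∃ cu : ℝ, cu = 4 * κ⁻¹ / 5 := ⟨_, rfl⟩
  have hcu0 : 0 < cu := by rw [hcu]; positivity
  have hr0 : 0 < r := by linarith
  have hDh0 : 0 < D * hh := mul_pos hD hhh
  refine ⟨min θ₁ (min (c1 / (2 ^ (K1 + N + 1) + 416 * κ⁻¹ * (GG vI : ℝ)^4 * cu))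
    (min (c2 / (64 * κ⁻¹ * r + 16)) (min (τ / (8 * (2 + 60 * (GG vI : ℝ)^4 * cu)))
      (κw / (400 * κ⁻¹ * (GG vI : ℝ)^4 * cu))))),
    min (σ₂ / (D * hh)) (κw / (12 * (D * hh))), min η₂ (min κ (κw / (4 * (D * hh)))),
    by positivity, by positivity, by positivity, ?_⟩
  intro θ0 θ1 σ' η₁ s C1 Rl Cer dd Nn hθ0 hθ hσ' hσ hη₁ hη₁' hs hC1 hRl hCer hdd
  obtain ⟨T1, hθ⟩ := le_min_iff.1 hθ
  obtain ⟨T2, hθ⟩ := le_min_iff.1 hθ
  obtain ⟨T3, hθ⟩ := le_min_iff.1 hθ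
  obtain ⟨T4, T5⟩ := le_min_iff.1 hθ
  obtain ⟨S1, S2⟩ := le_min_iff.1 hσ
  obtain ⟨E1, hη₁'⟩ := le_min_iff.1 hη₁'
  obtain ⟨E2, E3⟩ := le_min_iff.1 hη₁'
  rw [le_div_iff₀ (by positivity)] at T2 T3 T4 T5 S1 S2 E3
  obtain ⟨T2a, T2b, T2c, T3a, T3b, T4a, T5a⟩ := num_T0 hκ hM0 hcu0 hr0 hθ0 T2 T3 T4 T5
  intro Om La W f G hOm hf hWO ρ₀ J _ kk Qb k0 hk a₀ Q b L hblkP hk0 hL hcW h a ha hnb κi x v κf xf ef
    Pf d σr hPos κe' κf' x' v' e' xx' Qf' hQf hG vU Φ U hMv hU hg2 s' pr c κt R u X H me mf hme hmf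
  obtain ⟨uu, huu⟩ : ∃ uu : ℝ, uu = 4 * κ⁻¹ / (5 * 2 ^ k0) := ⟨_, rfl⟩
  rw [← huu]
  have huc : uu = cu / 2 ^ k0 := by rw [huu, hcu]; field_simp
  have huu0 : 0 < uu := by rw [huc]; positivity
  have hus : uu ≤ cu * (θ0 * s) := by
    rw [huc, div_eq_mul_one_div]; gcongr
  have hBQ : ∀ j, BQ κ Bs Nn (Qb j) k0 := fun j => MIn.bq_of_blkP (hblkP j)
  have haθ : ‖a‖ ≤ 2 * (θ0 * s) := by
    have h1 : (2:ℝ) / 2 ^ k0 ≤ 2 * (θ0 * s) := by rw [div_eq_mul_one_div]; gcongr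
    exact ha.trans h1
  have ha8 : ‖a‖ ≤ c2 * s / 8 := by
    have h1 := mul_le_mul_of_nonneg_right T3b hs.le
    linarith only [haθ, h1]
  have hfc : ContinuousOn f Om := by
    obtain ⟨_, _, _, _, _, h5, _⟩ := hf.homeo
    exact h5
  have hM4 : (1:ℝ) ≤ (GG vI : ℝ)^4 := one_le_pow₀ hM1
  have hM4u : uu ≤ (GG vI : ℝ)^4 * uu := le_mul_of_one_le_left huu0.le hM4
  have hpos : 2 * (θ0 * s) + 60 * ((GG vI : ℝ)^4 * uu) ≤ τ * s / 8 := by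
    have h1 := mul_le_mul_of_nonneg_right T4a hs.le
    have h2 : (GG vI : ℝ)^4 * uu ≤ (GG vI : ℝ)^4 * (cu * (θ0 * s)) := by gcongr
    have h3 : (2 + 60 * (GG vI : ℝ)^4 * cu) * θ0 * s =
      2 * (θ0 * s) + 60 * ((GG vI : ℝ)^4 * (cu * (θ0 * s))) := by ring
    rw [h3] at h1
    linarith only [h1, h2]
  have hτs : 0 < τ * s := mul_pos hτ hs
  have hts : D * hh * s ≤ τ * s / 24 := by
    have h1 := mul_le_mul_of_nonneg_right hDh hs.le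
    linarith only [h1]
  have hτs4 : τ * s ≤ s / 4 := by
    have h1 := mul_le_mul_of_nonneg_right hτ4 hs.le
    linarith only [h1]
  have hmS : ∀ k, mS (Te (h.T a)) s' pr u k ≤ GG vN := fun k =>
    mS_le (H.uN k) fun l _ _ => H.uN l
  have hr1 : 0 < (1 - τ) * s := mul_pos (by linarith only [hτ4]) hs
  -- the position of the blocks
  have hNcA : ∀ j, kk j ∈ Q → ∀ y ∈ ((Qb j).tr a).N, ∀ y', ‖y' - y‖ ≤ 2 * uu →
      y' ∈ cel Cb (vt (2 * s) a₀ (kk j)) s := by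
    intro j hj y hy y' hyy
    rw [CB.mem_N_tr] at hy
    refine Eta_812.cel_of_near hr1 hs ((hblkP j).sub hy) (t := 2 * uu + ‖a‖) ?_ ?_
    · have e1 : y' - (y - a) = (y' - y) + a := by abel
      rw [e1]
      exact (norm_add_le _ _).trans (add_le_add hyy le_rfl)
    · have e1 : (1 - τ) * s = s - τ * s := by ring
      rw [e1]
      linarith only [hpos, haθ, hM4u, hτs, huu0]
  have hNCA : ∀ j, kk j ∈ Q → ((Qb j).tr a).N ⊆ cel Cb (vt (2 * s) a₀ (kk j)) s :=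
    fun j hj y hy => hNcA j hj y hy y (by rw [sub_self, norm_zero]; positivity)
  have hNWA : ∀ j, kk j ∈ Q → ((Qb j).tr a).N ⊆ W := fun j hj => (hNCA j hj).trans (hcW _ hj)
  have hsmall : ∀ k ∈ deepT h a kk Q K1, SmallR R (mS (Te (h.T a)) s' pr u) uu k := by
    rintro k ⟨j, hj, hk1, hk2⟩
    exact (hlong h hBQ ha8 H hnb hme j hj (hNWA j hj) (Lnk_726.kc_lt (hblkP j) hs T2a)
      (subset_univ _) huu).1.sm k ⟨hk1, hk2⟩
  have hkey : ∀ j, ∃ (δ₀ : ℝ) (ε₀ : ℝ≥0∞), 0 < δ₀ ∧ ε₀ ≠ 0 ∧ (kk j ∈ Q → ∀ ε ≤ ε₀, ∀ δ < δ₀,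
      ∀ (hA : X.Adm p δ) (N₁ N₂ : ℕ) (Rr : R3 ≃ₜ R3) (Gg G₂ : Fin 3 → R3 → R3),
      Onp_622.PrR κ (τ / 12) s (σ' * (D * hh * s)) b L Q Rr →
      SH p Om La (fun x => f (Φ (toR (Sys.chi hA (N₁+1) (N₂+1)) x))) Gg →
      SH p Om La (fun x => Rr (f (Φ (toR (Sys.chi hA (N₁+1) (N₂+1)) x)))) G₂ →
      CellsC (h.T a) s' pr (mS (Te (h.T a)) s' pr u)
        (efS (hG none) hQf hme hmf X H.sys.rim H.sys.Z) (3 / 2) ε G₂ →
      E1C hQf hme hmf (hG none) H.sys (3 / 2) uu ε G₂ →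
      E2C (h.T a) s' pr R (mS (Te (h.T a)) s' pr u)
        (efS (hG none) hQf hme hmf X H.sys.rim H.sys.Z) (3 / 2) uu ε G₂ →
      NC (Lx := {k // k ∈ Q}) (LL := fun k => L k) hQf hme hmf (fun k => hG (some k)) H.sys uu
        (npS X (mS (Te (h.T a)) s' pr u) uu nw Cb') ε Gg →
      InP p (fun x => Rr (f (Φ (toR (Sys.chi hA (N₁+1) (N₂+1)) x)))) (Gmat G₂) C1 κw s (b (kk j))
        (L (kk j)) (vt (2 * s) a₀ (kk j)) (Onp_622.erT h a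
          (efS (hG none) hQf hme hmf X H.sys.rim H.sys.Z).J Rl Cer ε j) ((Qb j).tr a) k0
          (h.hk j)) := by
    intro j
    by_cases hj : kk j ∈ Q
    swap
    · exact ⟨1, 1, one_pos, one_ne_zero, fun h => (hj h).elim⟩
    have hbj := hblkP j
    obtain ⟨hL1, hL2⟩ := hL _ hj
    have hcWj := hcW _ hj
    have hNc := hNcA j hj
    have hNC := hNCA j hj
    have hNW := hNWA j hj
    have hkc1 : (Qb j).kc + K1 < k0 := Lnk_726.kc_lt hbj hs T2a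
    have hkcN : (Qb j).kc + N < k0 := Lnk_726.kc_lt hbj hs T2b
    -- long edges
    obtain ⟨hdeep, hlongE, hSh, hMSh⟩ := hlong h hBQ ha8 H hnb hme j hj hNW hkc1 hNC huu
    have hMSh' := hMSh hkcN.le
    -- short edges
    obtain ⟨s1, s2, s3, s4⟩ := hsh h hBQ (by
      have h1 := mul_lt_mul_of_pos_right T3a hs
      have h2 : r / 2 ^ k0 ≤ r * (θ0 * s) := by rw [div_eq_mul_one_div]; gcongr
      have h3 : 4 * κ⁻¹ * (r / 2 ^ k0) ≤ 4 * κ⁻¹ * (r * (θ0 * s)) := by gcongr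
      have e1 : 32 * κ⁻¹ * r * θ0 * s = 8 * (4 * κ⁻¹ * (r * (θ0 * s))) := by ring
      rw [e1] at h1
      linarith only [h1, h3]) ha8 j huu
    -- the clause `gam`
    have hkc : 416 * κ⁻¹ * (GG vI : ℝ)^4 * uu ≤ 1 / 2 ^ (Qb j).kc := by
      have h1 := mul_le_mul_of_nonneg_right T2c hs.le
      have h2 : 416 * κ⁻¹ * (GG vI : ℝ)^4 * uu ≤ 416 * κ⁻¹ * (GG vI : ℝ)^4 * (cu * (θ0 * s)) := by
        gcongr
      have h3 := hbj.cellL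
      have e1 : 416 * κ⁻¹ * (GG vI : ℝ)^4 * cu * θ0 * s =
        416 * κ⁻¹ * (GG vI : ℝ)^4 * (cu * (θ0 * s)) := by ring
      rw [e1] at h1
      linarith only [h1, h2, h3]
    have hR0 : ∀ k, P ((h.T a).H k) ⊆ ((Qb j).tr a).N → sclT h a k = (Qb j).kc →
        k ∈ deepJ h a j K1 := fun k h1 h2 => ⟨h1, by omega⟩
    obtain ⟨δ₁, hδ₁, hgam⟩ := Gam_968.gam_T h ha8 hκ hκ1 (hBQ j) H.sys (hρ_set H.R2 pr) hfc hMv
      (σ₀ := τ / 24) (by positivity) (by linarith only [hτ4]) hs (hPos.perf _ hj) hPos.mesh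
      (by
        refine Subset.trans (fun y hy => ?_) hcWj
        refine Eta_812.cel_of_near (y := y) (t := 0) (mul_pos (by linarith only [hτ4]) hs) hs hy
          (by rw [sub_self, norm_zero]) ?_
        have e1 : (1 - τ / 24) * s = s - τ * s / 24 := by ring
        rw [e1]
        linarith only [hτs])
      (fun k hk => by
        obtain ⟨x, hx⟩ := (h.T a).ne k
        have hx := Msh_715.I_sub_P _ hx
        exact H.mem_s k ⟨x, hx, hNW (hk hx)⟩)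
      (fun c hc hcD => H.pr_of c hc (fun k hk => by
          obtain ⟨x, hx⟩ := (h.T a).ne k
          have hx := Msh_715.I_sub_P _ hx
          exact H.mem_s k ⟨x, hx, hNW ((hcD k hk).1 hx)⟩)
        (Or.inr fun k hk => ⟨j, hj, hR0 k (hcD k hk).1 (hcD k hk).2⟩))
      (m₀ := GG vI) hM1
      (fun k h1 h2 => ⟨by exact_mod_cast hdeep.hM k (hR0 k h1 h2), by
        rw [H.R_eq]
        push_cast
        rw [one_div]
        refine inv_anti₀ (by positivity) (pow_le_pow_right₀ one_le_two ?_)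
        have := H.κ2 k
        omega⟩)
      hbj.sub (by linarith only [hτ4]) huu0 hkc (by
        have e1 : (τ - τ / 24) * s = τ * s - τ * s / 24 := by ring
        rw [e1]
        linarith only [hpos, haθ, hM4u, hτs, huu0]) (e := κw * s / 4) (by positivity)
    -- the errors
    have hLn : κ ≤ ‖L (kk j)‖ := by
      obtain ⟨v, hv⟩ := exists_norm_eq R3 zero_le_one
      have h1 := hL1 v
      have h2 := (L (kk j)).le_opNorm v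
      rw [hv, mul_one] at h1 h2
      exact h1.trans h2
    obtain ⟨ε₁, hε₁, hE₁⟩ := exists_epsL (Q := (Qb j).tr a) (k0 := k0) (hk := h.hk j)
      (Lgb_821.ShB h a j κ vI K1) (p := p) (u := uu) (by linarith only [hp1]) huu0
      (L := L (kk j)) (hκ.trans_le hLn) (fun e he heS => by
        obtain ⟨m', t, S, hE, -⟩ := hlongE e he heS
        exact hE.ne)
    obtain ⟨ε₂, hε₂, -, hE₂⟩ := H2a_821.exists_eps2u (p := p) (κ := κ) (η := η)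
      (V₀ := κ / 4 * (cl * c1 * s)) (lam := lam) (by linarith only [hp1]) hκ hη (by positivity) hlam
      np nc k0
    refine ⟨δ₁, min ε₁ ε₂, hδ₁, ?_, fun _ ε hε δ hδ hA N₁ N₂ Rr Gg G₂ hPr hg1 hg3 hCe hE1 hE2 hN =>
      ?_⟩
    · rcases min_choice ε₁ ε₂ with h1 | h1 <;> rw [h1] <;> assumption
    obtain ⟨hRr, -, ψ, hψ1, hψ2, hψ3, hψ4, hψ5⟩ := hPr
    have hσr0 : 0 ≤ σ' * (D * hh * s) := by positivity
    have hσr1 : σ' * (D * hh * s) ≤ σ₂ * s := by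
      have h1 := mul_le_mul_of_nonneg_right S1 hs.le
      linarith only [h1]
    have hlongE' : ∀ e ∈ Ed ((Qb j).tr a) k0 (h.hk j), e ∉ Lgb_821.ShB h a j κ vI K1 → ∃ m' t S,
        LongE (h.T a) s' pr R (ρS (Te (h.T a)) R) (mS (Te (h.T a)) s' pr u) x' v' a me
          (cel Cb (vt (2 * s) a₀ (kk j)) s) nb (2 ^ nb) np nc lam cV (GG vI) uu e m' t S ∧
        (segment ℝ e.1 e.2 ⊆ ((Qb j).tr a).Kc →
          NearE X (npS X (mS (Te (h.T a)) s' pr u) uu nw Cb') nw Cb' e m' t) := fun e he heS => by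
      obtain ⟨m', t, S, h1, h2⟩ := hlongE e he heS
      exact ⟨m', t, S, h1, fun _ => h2⟩
    refine hblk hp1 hp2 ((Qb j).tr a) k0 (h.hk j) hbj.cnd hbj.hB hbj.hR hOm hg1 hg3 hL1 hL2 huu
      (ψ := ψ ⟨kk j, hj⟩) hσr0 (hψ1 _) (hψ2 _) (hψ3 _) (hψ4 _) (hψ5 ⟨kk j, hj⟩) ?_ ?_ ?_ H.sys
      (hG none) (hG (some (kk j))) hQf hme hmf (K := 3 / 2) (ε := ε) hE1
      (fun c k => hN c k ⟨kk j, hj⟩) hη₁.le (Sqt_143.hg_of_pos hPos hj hcWj hme) ?_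
      (Lgb_821.ShB h a j κ vI K1) hlam hcV.le hCb' hlongE' hMSh' ?_ hnM ?_ (θ := θ0 / (κ / 4 * (cl * c1)))
      (η := η) (V₀ := κ / 4 * (cl * c1 * s)) hη.le ?_ ?_ hSh hC1
      (fun k : s' => P ((h.T a).H (k : h.ιT a))) (fun k => Czn *
        (efS (hG none) hQf hme hmf X H.sys.rim H.sys.Z).J k + (N' + 1) * ε) (Kz h a j r s')
      (fun e => She_227.Zc (h.T a) s' (w2 '' cthickening uu (sE e))) ?_ ?_ ?_ ?_
    · -- `gam`
      refine (hgam p δ hA hδ N₁ N₂).gam hκ (fun v => (hbj.cnd v).1) huu.ge hRr ?_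
      have h1 : η₁ * (D * hh * s) ≤ κw * s / 4 := by
        have h1 := mul_le_mul_of_nonneg_right E3 hs.le
        linarith only [h1]
      have h2 : 3 * (σ' * (D * hh * s)) ≤ κw * s / 4 := by
        have h1 := mul_le_mul_of_nonneg_right S2 hs.le
        linarith only [h1]
      have h3 : 100 * κ⁻¹ * (GG vI : ℝ)^4 * uu ≤ κw * s / 4 := by
        have h1 := mul_le_mul_of_nonneg_right T5a hs.le
        have h2 : 100 * κ⁻¹ * (GG vI : ℝ)^4 * uu ≤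
          100 * κ⁻¹ * (GG vI : ℝ)^4 * (cu * (θ0 * s)) := by gcongr
        linarith only [h1, h2]
      linarith only [h1, h2, h3]
    · intro e he
      exact image_subset_iff.1 (s1 e he)
    · intro e he _ z hz
      obtain hg2' := hg2 _ hj
      refine Tub_821.tube_O (Om := Om) (W := W) (T := h.T a) (f := f) (Φ := Φ)
        (χ := toR (Sys.chi hA (N₁+1) (N₂+1))) (Q := Qb j) (a := a) (h.hk j) (A := 2 * (θ0 * s))
        (t := D * hh * s) hs (by linarith only [hτ4]) (by positivity) hbj.sub (by positivity) haθ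
        huu0.le (by positivity) hcWj hWO (fun i hi x hx y hy => hPos.diam i hi y hy x hx)
        (fun x hx => Tub_821.chi_tile H.sys H.pr_s hA _ _ hx) ?_ hg2' hdd he hz
      have e1 : (τ - 6 * (τ / 12)) * s = τ * s / 2 := by ring
      rw [e1]
      linarith only [hpos, hM4u, hτs, huu0, hts]
    · rw [← ofReal_norm, ENNReal.ofReal_rpow_of_nonneg (norm_nonneg _) (by linarith only [hp1])]
      refine ENNReal.ofReal_le_ofReal (Real.rpow_le_rpow hη₁.le (E2.trans hLn) ?_)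
      linarith only [hp1]
    · exact hE₁ ε (hε.trans (min_le_left _ _))
    · exact hnMc s τ hh θ0 θ1 Nn _ (Qb j) k0 (h.hk j) hs hτ.le (by linarith only [hτ4]) hbj a
    · intro e he heK
      obtain ⟨-, h1⟩ := hlen κ c1 s τ hh θ0 θ1 Nn _ (Qb j) k0 (h.hk j) hκ hs hc1 hbj a e he heK
      refine ⟨h1, ?_⟩
      obtain ⟨q1, q2, q3, q4⟩ := hnum s θ0 η₁ (σ' * (D * hh * s)) ‖e.2 - e.1‖ k0 hθ0.le T1 hη₁.le E1
        hσr1 (by rw [mul_assoc]; exact h1) hk0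
      exact ⟨q1, q2, q3, q4⟩
    · intro V hV m' t κX S h1 h2 h3
      exact hE₂ ε (hε.trans (min_le_right _ _)) V hV m' t S h1 h2 h3
    · intro e he heS k hk
      rw [She_227.mem_Zc] at hk
      exact ⟨mem_Kz.2 (s2 e he (hSh e he heS) k hk), hk⟩
    · intro k hk x hx y hy
      exact s3 k (mem_Kz.1 hk) x hx y hy
    · intro e he heS
      refine s4 (p := p) (K := 3 / 2) (g := En p G₂) hCe hE2 ?_ ?_ ?_ e he (hSh e he heS)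
      · rintro t ⟨y, hy, z, hz, hyz⟩
        exact H.mem_s t ⟨y, hy, hcWj (hNc z hz y hyz)⟩
      · exact She_227.hd_of h ((le_max_right _ _).trans hK1) H.pr_d hsmall
      · intro k _
        rw [hCzn]
        have h1 := CB_mono (p := p) (K := 3 / 2) (by linarith only [hp1]) (hmS k)
        have h2 := CE_mono (p := p) (K := 3 / 2) (by linarith only [hp1]) (by linarith only [hp2])
          (hmS k)
        gcongr
    · rw [← mul_assoc, ← hA₀]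
      refine er_le h a j _ hRl ?_ ?_
      · refine (ENNReal.ofReal_toReal (ENNReal.mul_ne_top hA₀t hCzt)).ge.trans
          (ENNReal.ofReal_le_ofReal ((le_max_left _ _).trans hCer))
      · refine (ENNReal.ofReal_toReal (ENNReal.mul_ne_top hA₀t (by finiteness))).ge.trans
          (ENNReal.ofReal_le_ofReal ((le_max_right _ _).trans hCer))
  choose δf εf hδf hεf hfin using hkey
  obtain ⟨δ₀, hδ₀, hδ₀'⟩ := min_real δf hδf
  obtain ⟨ε₀, hε₀, hε₀'⟩ := min_enn εf hεf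
  exact ⟨SnS X (mS (Te (h.T a)) s' pr u) uu nw Cb', npS X (mS (Te (h.T a)) s' pr u) uu nw Cb', δ₀,
    ε₀, hδ₀, hε₀, fun ε hε δ hδ hA N₁ N₂ Rr Gg G₂ hPr _ _ hg1 hg3 hCe hE1 hE2 hN j hj =>
    hfin j hj ε (hε.trans (hε₀' j)) δ (hδ.trans_le (hδ₀' j)) hA N₁ N₂ Rr Gg G₂ hPr hg1 hg3 hCe hE1
      hE2 hN⟩

end

end Crest.Agent.R096.Oi_961
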