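/-
helper622, row 96, `OneP`, part 6: `O1N p` from 961's `o1_of`; `OneP`, `PreIN`.
-/
import Crest.Agent.R096.Onp5_622
import Crest.Agent.R096.Oi4_961

set_option autoImplicit false
set_option linter.unusedSectionVars false
set_option linter.style.longLine false
set_option maxHeartbeats 1000000

open Set Metric Filter Topology MeasureTheory
open scoped ENNReal NNReal

namespace Crest.Agent.R096.Onp_622

open Crest.AnalysisR.VecCalc3 Crest.AnalysisR.Sobolev Crest.Agent.R096.Sk_962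
open Crest.Agent.R096.Msh_715 (P I Tiling)
open Crest.Agent.R096.Mal_874 (CB)
open Crest.Agent.R096.Efi_296
open Crest.Agent.R096.Ca_855 (MIn deepT)
open Crest.Agent.R96.Intr_538 (cel par)
open Crest.Agent.R96.Coarse_538 (vt Cb seg Dt)
open Crest.Agent.R96.Eld_538 (Cl1 AdE Els)
open Crest.Agent.R096.Pas_753
open Crest.Agent.R096.Pin_753

noncomputable section

/-- **`O1N p`** -/
theorem o1N {p : ℝ} (hp : 1 ≤ p) (hp2 : p ≤ 2) : O1N p := by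
  intro κ D nc Bs vI K3 hκ hκ1 hD hvI hK3 hTC
  obtain ⟨K₀, -, hK4, H⟩ := Oi_961.o1_of Bs hκ hκ1 hvI hK3 nc hp hp2
  obtain ⟨r, C₁, -, H⟩ := H K₀ le_rfl
  have hD0 : 0 < D := by linarith
  have hκi : 0 < κ⁻¹ := inv_pos.2 hκ
  set E : ℝ := 3 * (nc * (nc * nc) + 2) * (κ⁻¹ * D) + 1 with hE
  have hE0 : 0 < E := by positivity
  refine ⟨max C₁ (max (24 * D) (49 * κ⁻¹ * E)), ?_⟩
  intro C1 τ hh c1 c2 κw Nn vU vN hC1 hτ hτ4 hhh hc1 hc2 hκw hCh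
  have g1 : C₁ ≤ C1 := (le_max_left _ _).trans hC1
  have g2 : 24 * D ≤ C1 := ((le_max_left _ _).trans (le_max_right _ _)).trans hC1
  have g3 : 49 * κ⁻¹ * E ≤ C1 := ((le_max_right _ _).trans (le_max_right _ _)).trans hC1
  have hCτ : C1 * hh ≤ τ := hCh.trans (min_le_left _ _)
  obtain ⟨Cer, hCer, H⟩ := H vN
  refine ⟨K₀, r, Cer, hK4, hCer, fun Rl hRl => ?_⟩
  obtain ⟨θ₀, σ₀, η₀, hθ₀, hσ₀, hη₀, H⟩ := H hD0 hτ hτ4 hhh hc1 hc2 hκw
    ((mul_le_mul_of_nonneg_right g2 hhh.le).trans hCτ)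
  refine ⟨θ₀, hθ₀, fun θ0 θ1 ht0 ht1 _ => ⟨σ₀, η₀, hσ₀, hη₀, ?_⟩⟩
  intro σ' η₁ hσ' hσ'1 hη₁ hη₁1 Om La W f G hOm hLa hf hWO _ ρ₀ s a₀ Q₀ b L hs hL hcW J _ kk Qb k0 hk
    hkk hb sep hθ1' hθ0' h κi _ x v κf _ xf ef Pf κe' κf' x' v' e' xx' Qf' hA a _ ha hG Q hQ hP
  have hbq : ∀ j, MIn.BQ κ Bs Nn (Qb j) k0 := fun j => MIn.bq_of_blkP (hb j)
  have hdd : 3 * (nc * (nc * nc) + 2) * (κ⁻¹ * (D * hh * s)) + hh * s < κ * (τ / 12 * s) / 4 := by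
    have e1 : 3 * ((nc:ℝ) * (nc * nc) + 2) * (κ⁻¹ * (D * hh * s)) + hh * s = E * hh * s := by
      rw [hE]; ring
    have h1 : 49 * κ⁻¹ * E * hh ≤ τ := (mul_le_mul_of_nonneg_right g3 hhh.le).trans hCτ
    have h2 : 49 * (E * hh) ≤ κ * τ := by
      have h3 := mul_le_mul_of_nonneg_left h1 hκ.le
      have e2 : κ * (49 * κ⁻¹ * E * hh) = 49 * (E * hh) := by field_simp
      rwa [e2] at h3
    have h4 : 0 < E * hh := by positivity
    have h5 : 48 * (E * hh) < κ * τ := by linarith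
    rw [e1]
    have h6 := mul_lt_mul_of_pos_right h5 hs
    have e3 : κ * (τ / 12 * s) / 4 = κ * τ * s / 48 := by ring
    rw [e3, lt_div_iff₀ (by norm_num)]
    linarith
  exact H ht0 ht1 hσ' hσ'1 hη₁ hη₁1 hs g1 hRl le_rfl hdd hOm hf hWO hk hb hθ0'
    (fun k hk' => hL k (hQ hk')) (fun k hk' => hcW k (hQ hk')) h ha
    (fun t => ((hTC h hbq a).1 t).1) hP hA.cpt hG vU

/-- **`OneP p`** -/
theorem oneP {p : ℝ} (hp : 1 ≤ p) (hp2 : p ≤ 2) : OneP p Els := oneP_of hp hp2 (o1N hp hp2)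

end

end Crest.Agent.R096.Onp_622
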