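import Crest.Agent.R096.Tro3_147
import Crest.Agent.R096.Lbc1_334
import Crest.Agent.R096.Nmd3_698

/-!
# R096 (row 96), DOORS (helper147): `trOut_m`, machine instance

`trOut_m` : `TrOut` in the letters of 334's `leafBC_m`, `UT = {w ∈ Om | ∃ c, ga c (f w) ≤ ρ3 c + 8 d c}`;
radii: doors of the truthful part `ρ3 + 5 d`, joined part of the barriers `ρ3 + 7 d`; open: 778's
`ConnT` with `R`, `S` and 543's roots.
-/

set_option autoImplicit false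
set_option linter.unusedSectionVars false
set_option linter.unusedVariables false
set_option linter.style.longLine false

open Set Topology Filter Metric Module Relation
open scoped Classical

namespace Crest.Agent.R096.Tro_147

open Crest.Agent.R096.Msh_715 Crest.Agent.R096.Coh_184 Crest.Agent.R096.Lab_184
  Crest.Agent.R096.Main_4 Crest.Agent.R096.Agl5_543
  Crest.Agent.R096.Seq_213 Crest.Agent.R096.St_147 Crest.Agent.R096.Door_501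
  Crest.Agent.R096.Twr_438 Crest.Agent.R096.Exa_560
  Crest.Agent.R096.Ess3_95 Crest.Agent.R096.Ess4_95 Crest.Agent.R096.Ac_117 Crest.Agent.R096.Lm_117
  Crest.Agent.R096.Dfi_539 Crest.Agent.R096.Dfi_471 Crest.Agent.R096.Dfo_539
  Crest.Agent.R096.Sla_184 Crest.Agent.R096.Gm_298
  Crest.Agent.R096.Brk1_582 Crest.Agent.R096.Brk2_582 Crest.Agent.R096.Brk3_582
  Crest.Agent.R096.Brk5_582 Crest.Agent.R096.Bsp_628 Crest.Agent.R096.Init_543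
  Crest.Agent.R096.Lv3_471 Crest.Agent.R096.Lv4_471 Crest.Agent.R096.Slt_471
  Crest.Agent.R096.Dib_438 Crest.Agent.R096.Rop_441 Crest.Agent.R096.Frk_441
  Crest.Agent.R096.Dff_539 Crest.Agent.R096.Frs_662 Crest.Agent.R096.Qdl_662
  Crest.Agent.R096.Cg_501 Crest.Agent.R096.SecW_892 Crest.Agent.R096.Sgd_298
  Crest.Agent.R096.Dfg_539 Crest.Agent.R096.Nmd1_698 Crest.Agent.R096.Civ_662
  Crest.Agent.R096.Lbc_334 Crest.Agent.R096.Pbn_147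
open Crest.Agent.R096.Sgo_298 (RmA rout ActR)
open Crest.Agent.R096.Mbf_337 (KJ Tiny Cores Fine Words sb gau)
open Crest.Agent.R096.SkC1_961 (E3 FoamD Hom3)
open Crest.Agent.R096.Frn_337 (Ti)
open Crest.Agent.R096.Ess7_95 (KT)
open Crest.Agent.R096.Dia_316 (nbT)
open Crest.Agent.R096.Bgf_4 (Ext)

variable {δ κ0 R c0 : ℝ} {La Om : Set E3} {ι : Type} {Φ : FoamD δ κ0 R c0 La} {T : Tiling Om ι}
  {f g : E3 → E3} {κ1 κ2 μ : ℝ} {X : Set Φ.F} {J0 J V : Φ.F → Set ι}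
  {ct ct' : Φ.F → ι} {Aj : Φ.F → E3 ≃ᵃ[ℝ] E3} {lam : Φ.F → ℝ} {z : Φ.F → E3}
  {θ : Φ.F → E3 → E3} {φ : Φ.F → E3 → ℝ} {r₀ : Φ.F → ℝ} {ρ1 ρ2 ρ3 ρ4 d : Φ.F → ℝ}
  {L : Φ.F → Finset ℝ} [Nonempty (JJ Φ L)] {hG : GF Φ r₀ T f L} {bp : JJ Φ L → E3}
  {Mo : Type} {co : Mo → Ti X} {am : Mo → Φ.F} {Zm : Mo → Set Φ.F} [Nonempty (JJ Φ L ⊕ Mo)]
  {sB : GSt (meshC T fr3) (Sum.map (fun j : JJ Φ L => j.1) (id : Mo → Mo))}
  {r : JJ Φ L ⊕ Mo → E3} {Sf : JJ Φ L ⊕ Mo → Set E3} {nb : Ti X → Φ.F ⊕ Mo → Prop}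
  {hLa : IsOpen La} {hC : Cores Φ T f κ1 κ2 X J0 J V ct Aj lam z θ φ}
  {n : Ti X → ℕ} {hn : ∀ c, 0 < n c}
  {v0 v1 : ∀ c, Φ.F ⊕ Mo → VxK T (slC hLa hC n hn).K c} {u : Ti X → Φ.F ⊕ Mo → E3 → ℝ}
  {A B : Ti X → Φ.F ⊕ Mo → ℝ}
  {Lx : ∀ c, Φ.F ⊕ Mo → Lev T (frontier ((slC hLa hC n hn).K c)) (JJ Φ L ⊕ Mo)}
  {Tw : Twrs ((slC hLa hC n hn).sh fr3) (slC hLa hC n hn).n
    (outK (slC hLa hC n hn).hH (slC hLa hC n hn).dis sB r)} {l0' : E3 → JJ Φ L ⊕ Mo}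

/-- the set `UT` of record -/
def UTm (Φ : FoamD δ κ0 R c0 La) (Om : Set E3) (f : E3 → E3) (X : Set Φ.F) (ρ3 d : Φ.F → ℝ) :
    Set E3 :=
  {w | w ∈ Om ∧ ∃ c : Ti X, Ess5_95.ga Φ c.1 (f w) ≤ ρ3 c.1 + 8 * d c.1}

/-- `RmO` from the radii of record -/
theorem rmO_of (hRm : RmA Φ T f X J0 J V θ ρ1 ρ2 ρ3 ρ4 d) : RmO Φ T f X J0 V ρ1 ρ4 d where
  j0 := fun e he => (hRm e he).j0
  v := fun e he => (hRm e he).v
  osc := fun e he i hi hi0 x hx y hy => ((hRm e he).osc i hi hi0 x hx y hy).1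

/-- **`TrOut` FOR THE MACHINE** -/
theorem trOut_m (N : NumD δ κ0 R c0 κ2 μ κ1) (hκ2 : 0 < κ2)
    (hRm : RmA Φ T f X J0 J V θ ρ1 ρ2 ρ3 ρ4 d)
    {hI : InitR Φ T f g J0 ct' r₀}
    {hM : Mesh0 T (Pc Φ.F) (bc (F := Φ.F)) (RF Φ r₀) f (KorJ Φ J0) κ1} {h1 : κ1 < μ / 32}
    {h2 : κ1 < 1} {M : Φ.F → ℕ} (hW : Words Φ T f X ct Aj lam z M L)
    (hLm : ∀ c, ∀ t ∈ L c, μ ≤ t ∧ t ≤ 1 - μ) (hconn : ∀ j, (st0 hG bp).Conn j)
    (hext : Ext (st0 hG bp) sB)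
    (D : DIn (slC hLa hC n hn).hH sB r Sf nb v0 v1 u A B)
    (lo : LevOut (Kc := (slC hLa hC n hn).K) sB nb u A B Lx)
    (tt : TwOut (slC hLa hC n hn) fr3 sB r v0 v1 Lx Tw)
    (rec : BR hLa sB f X J θ co am Zm nb v0 v1 u A B μ κ1)
    (hga : ∀ w ∈ sB.P, ∀ m, sB.lab w = Sum.inr m →
      Ess5_95.ga Φ (co m).1 (f w) ≤ ρ3 (co m).1 + 15 * d (co m).1)
    -- 543's roots
    (hrE : ∀ j : JJ Φ L, ∃ q, r (Sum.inl j) ∈ P (T.H q) ∧ (∀ c ∉ X, q ∉ V c) ∧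
      ∀ (k : QK (Pc Φ.F)) (s : ℝ), j.1 ∈ k.B → κ1 < s →
        q ∉ Act0 T (Pc Φ.F) (bc (F := Φ.F)) (RF Φ r₀) f (KorJ Φ J0) s k)
    {hmf : ∀ a, {m | am m = a}.Finite} {j0 : Φ.F → JJ Φ L} {hj0 : ∀ a, (j0 a).1 = a}
    {hs : BSep (s2 (slC hLa hC n hn) fr3 Tw l0') am}
    {far : ∀ a, PN (fun j : JJ Φ L => j.1) am a → Set E3}
    {t : ∀ a, St ((slC hLa hC n hn).mn fr3) (pcol (fun j : JJ Φ L => j.1) am a)}
    {Ph : Φ.F → Finset E3} {s₃ : GSt ((slC hLa hC n hn).mn fr3) (fun j : JJ Φ L => j.1)}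
    (hfar : ∀ a, ∀ i : PN (fun j : JJ Φ L => j.1) am a, ∀ j, i.1 = Sum.inl j →
      r (Sum.inl j) ∈ far a i)
    (D3 : CutR (s2 (slC hLa hC n hn) fr3 Tw l0') hs hmf j0 hj0
      (fun _ => ActR (slC hLa hC n hn) (Rdc T f Xᶜ (rout ρ3 d))) far t Ph s₃)
    (posB : PosS (hH := (Lay_316.lay_sla hLa hC n hn).core) Φ T f (μ / 4) J0 (slC hLa hC n hn) s₃)
    -- 778's `ConnT`
    {RR : Φ.F → Set ((slC hLa hC n hn).Fn fr3)} {SS : Φ.F → Set E3}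
    (hRS : ∀ a, ConnT (ActR (slC hLa hC n hn) (Rdc T f Xᶜ (rout ρ3 d))) (far a)
      (prS (s2 (slC hLa hC n hn) fr3 Tw l0') hs hmf j0 hj0 a) (RR a) (SS a))
    (hRR : ∀ a, ∀ F ∈ RR a, ∃ p, Sum.inl p ∈ ((slC hLa hC n hn).mn fr3).side F ∧
      ∃ e ∉ X, ∃ y ∈ P (T.H p.tile), ρ3 e + 7 * d e ≤ Ess5_95.ga Φ e (f y) ∧
        Ess5_95.ga Φ e (f y) ≤ ρ4 e)
    (hSS : ∀ a m h, h ∈ (s2 (slC hLa hC n hn) fr3 Tw l0').P →
      (s2 (slC hLa hC n hn) fr3 Tw l0').lab h = Sum.inr m → am m = a →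
      (∀ e ∉ X, ρ3 e + 7 * d e ≤ Ess5_95.ga Φ e (f h)) → h ∈ SS a) :
    TrOut (hH := (Lay_316.lay_sla hLa hC n hn).core) (hdis := Sla.dis_KK)
      (qdT (fun p : T.RIdx (slC hLa hC n hn).HH => p.tile) (sla_sub (slC hLa hC n hn))
        (slC hLa hC n hn).KK hLa hI hM h1 h2) s₃ (fun j => r (Sum.inl j))
      {w | w ∈ Om ∧ ∃ c : Ti X, Ess5_95.ga Φ c.1 (f w) ≤ ρ3 c.1 + 8 * d c.1} := by
  obtain ⟨n1, n2, n3, n4, n5, -⟩ := N.base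
  have hd : ∀ e ∉ X, 0 < d e := fun e he => (hRm e he).d0
  have h12 : ∀ e ∉ X, ρ1 e + 16 * d e ≤ ρ3 e := fun e he =>
    (hRm e he).r12.trans (hRm e he).r23
  have hT : Tlr Φ T f J0 Xᶜ (fun e => ρ3 e + 5 * d e) d :=
    tlr_of_room hC (fun e he => (hRm e he).r1) (fun e he => (hRm e he).r4)
      (fun e he => (hRm e he).d0) (fun e he => (hRm e he).ray) (fun e he => (hRm e he).j0)
      (fun e he => (hRm e he).v)
      (fun e he i hi hi0 x hx y hy => ((hRm e he).osc i hi hi0 x hx y hy).1)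
      (fun e he => by have := hd e he; have := h12 e he; linarith)
      fun e he => by have := hd e he; have := (hRm e he).r34; linarith
  have key := trOut (S := slC hLa hC n hn) (hLa := hLa) (hR := hI) (hM := hM) (hε := h1)
    (hε1 := h2) (hG := hG) (bp := bp) (s := sB) (r := r) (Tw := Tw) (l0 := l0') (am := am)
    (tb := 7 * μ / 32) (σ' := μ / 4) (rt := fun e => ρ3 e + 5 * d e)
    (rS := fun e => ρ3 e + 7 * d e) (rU := fun e => ρ3 e + 8 * d e)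
    (lb := 3 * μ / 16 + Cn δ R * κ1)
    (Lay_316.lay_sla hLa hC n hn).core N.hδ N.hR n1.le hκ2 N.h12 n1.le hC hW (fun _ => rfl)
    (Sgo_298.part_ext hext) hconn hT ?_ N.strip.1 (by linarith) N.strip.2.2.2 N.chl_tb
    (fun j => (N.lv (hLm j.1 _ j.2.2)).1) posB (fun j => D.root (Sum.inl j)) ?_ (rmO_of hRm)
    (fun e he => by have := hd e he; have := h12 e he; show ρ1 e ≤ ρ3 e + 5 * d e; linarith)
    (fun e he => (hd e he).le)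
    (fun e he => by have := hd e he; show ρ3 e + 5 * d e + d e < ρ3 e + 7 * d e; linarith)
    (fun e he => by have := hd e he; have := (hRm e he).r34; show ρ3 e + 7 * d e ≤ ρ4 e; linarith)
    (fun e he => by show ρ3 e + 7 * d e + d e ≤ ρ3 e + 8 * d e; linarith) (by linarith)
    (fun m => posM_m N hRm D lo tt rec hga m) D3 D3.pbn hfar hRS hRR hSS
  · intro j k hk Y hbY hY w hw hl hwU hwI
    refine key j k hk Y hbY hY w hw hl (fun h => hwU ⟨?_, h⟩) hwI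
    have h3 := D3.mem.1 ⟨hw, hl⟩
    exact (pts3 (hKK := (Lay_316.lay_sla hLa hC n hn).core) (cutOut_of D3) hw).1
  · intro e he i hi
    obtain ⟨x, hx⟩ := T.ne i
    have hxP := I_sub_P _ hx
    have h3 := Sgo_298.ga_core hLa hI.hm hC hRm he (mem_biUnion (x := i) hi hxP)
    refine ⟨x, hxP, ?_⟩
    have h4 := hd e he
    show Ess5_95.ga Φ e (f x) ≤ ρ3 e + 5 * d e - d e
    linarith
  · intro j k hk
    obtain ⟨q, hq1, hq2, hq3⟩ := hrE j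
    refine ⟨q, hq1, ?_⟩
    rintro (hA | ⟨e, he, x, hx, hxr⟩)
    · exact hq3 k (7 * μ / 32) hk (by linarith) hA
    · refine hq2 e he ((hRm e he).v q ⟨x, hx, ?_⟩)
      have h3 : gau e.1 (Φ.B e).lo (f x) ≤ ρ3 e + 5 * d e := hxr
      have h4 := hd e he
      have h5 := (hRm e he).r34
      show gau e.1 (Φ.B e).lo (f x) ≤ ρ4 e
      linarith

end Crest.Agent.R096.Tro_147
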