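import Crest.Agent.R096.Civ3_662
import Crest.Agent.R096.Tro4_147

/-!
# R096 (row 96), DOORS (helper662): LEAF BC of the composition, part 4

`leafBC_all` : 334's `leafBC_m` with `TrOut` (147's `trOut_m`) and `VIn` (`vIn_m`) plugged; open:
`hConn` (778's `ConnT`), the labels of the barriers (`hG`, `hZ`; 422) and `hDich` (847).
-/

set_option autoImplicit false
set_option linter.unusedSectionVars false
set_option linter.unusedVariables false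
set_option linter.style.longLine false

open Set Topology Filter Metric Module Relation
open scoped Classical

namespace Crest.Agent.R096.Civ_662

open Crest.Agent.R096.Msh_715 Crest.Agent.R096.Coh_184 Crest.Agent.R096.Lab_184
  Crest.Agent.R096.Main_4 Crest.Agent.R096.Agl5_543
  Crest.Agent.R096.Seq_213 Crest.Agent.R096.St_147 Crest.Agent.R096.Door_501
  Crest.Agent.R096.Twr_438 Crest.Agent.R096.Exa_560
  Crest.Agent.R096.Ess3_95 Crest.Agent.R096.Ess4_95 Crest.Agent.R096.Ac_117 Crest.Agent.R096.Lm_117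
  Crest.Agent.R096.Dfi_539 Crest.Agent.R096.Dfi_471 Crest.Agent.R096.Dfo_539
  Crest.Agent.R096.Sla_184 Crest.Agent.R096.Gm_298
  Crest.Agent.R096.Brk1_582 Crest.Agent.R096.Brk2_582 Crest.Agent.R096.Brk3_582
  Crest.Agent.R096.Brk5_582 Crest.Agent.R096.Bsp_628 Crest.Agent.R096.Init_543
  Crest.Agent.R096.Lv3_471 Crest.Agent.R096.Lv4_471 Crest.Agent.R096.Slt_471
  Crest.Agent.R096.Dib_438 Crest.Agent.R096.Frk_441
  Crest.Agent.R096.Dff_539 Crest.Agent.R096.Frs_662 Crest.Agent.R096.Qdl_662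
  Crest.Agent.R096.Cg_501 Crest.Agent.R096.SecW_892 Crest.Agent.R096.Sgd_298
  Crest.Agent.R096.Dfg_539 Crest.Agent.R096.Nmd1_698 Crest.Agent.R096.Lbc_334
  Crest.Agent.R096.Gl_422 Crest.Agent.R096.Lmx_662 Crest.Agent.R096.Pbn_147
open Crest.Agent.R096.Gm_298 (ZK)
open Crest.Agent.R096.Sgo_298 (RmA rout ActR ga_core)
open Crest.Agent.R096.Bse_344 (BoxP RadV kor_s2)
open Crest.Agent.R096.Mbf_337 (KJ Tiny Cores Fine Words sb gau)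
open Crest.Agent.R096.SkC1_961 (E3 FoamD Hom3)
open Crest.Agent.R096.Frn_337 (Ti)
open Crest.Agent.R096.Ess7_95 (KT)
open Crest.Agent.R096.Ess5_95 (ga)
open Crest.Agent.R096.Dia_316 (nbT)
open Crest.Agent.R096.Bar_106 (Fs Fm Gm)
open Crest.Agent.R096.Bgf_4 (Ext)
open Crest.Agent.R096.Vin_527 (sdm vIn_mach)
open Crest.Agent.R096.Tro_147 (trOut_m)

variable {δ κ0 R c0 : ℝ} {La Om : Set E3} {ι : Type} {Φ : FoamD δ κ0 R c0 La} {T : Tiling Om ι}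
  {f g : E3 → E3} {κ1 κ2 μ : ℝ} {X : Set Φ.F} {J0 J V : Φ.F → Set ι}
  {ct ct' : Φ.F → ι} {Aj : Φ.F → E3 ≃ᵃ[ℝ] E3} {lam : Φ.F → ℝ} {z : Φ.F → E3}
  {θ : Φ.F → E3 → E3} {φ : Φ.F → E3 → ℝ} {r₀ : Φ.F → ℝ} {ρ1 ρ2 ρ3 ρ4 d : Φ.F → ℝ}
  {L : Φ.F → Finset ℝ} [Nonempty (JJ Φ L)] {hG : GF Φ r₀ T f L} {bp : JJ Φ L → E3}
  {Mo : Type} {co : Mo → Ti X} {am : Mo → Φ.F} {Zm : Mo → Set Φ.F} [Nonempty (JJ Φ L ⊕ Mo)]
  {sB : GSt (meshC T fr3) (Sum.map (fun j : JJ Φ L => j.1) (id : Mo → Mo))}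
  {r : JJ Φ L ⊕ Mo → E3} {Sf : JJ Φ L ⊕ Mo → Set E3} {nb : Ti X → Φ.F ⊕ Mo → Prop}
  {hLa : IsOpen La} {hC : Cores Φ T f κ1 κ2 X J0 J V ct Aj lam z θ φ}
  {n : Ti X → ℕ} {hn : ∀ c, 0 < n c}
  {v0 v1 : ∀ c, Φ.F ⊕ Mo → VxK T (slC hLa hC n hn).K c} {u : Ti X → Φ.F ⊕ Mo → E3 → ℝ}
  {A B : Ti X → Φ.F ⊕ Mo → ℝ}
  {Lx : ∀ c, Φ.F ⊕ Mo → Lev T (frontier ((slC hLa hC n hn).K c)) (JJ Φ L ⊕ Mo)}
  {Tw : Twrs ((slC hLa hC n hn).sh fr3) (slC hLa hC n hn).n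
    (outK (slC hLa hC n hn).hH (slC hLa hC n hn).dis sB r)} {l0' : E3 → JJ Φ L ⊕ Mo}

/-- **LEAF BC with `TrOut` and `VIn` plugged** -/
theorem leafBC_all [Nonempty (slC hLa hC n hn).T3.Cell] (N : NumD δ κ0 R c0 κ2 μ κ1)
    (hκ2 : 0 < κ2) (hF : Fine Φ T f κ1 J0) (hRm : RmA Φ T f X J0 J V θ ρ1 ρ2 ρ3 ρ4 d)
    {hI : InitR Φ T f g J0 ct' r₀}
    {hM : Mesh0 T (Pc Φ.F) (bc (F := Φ.F)) (RF Φ r₀) f (KorJ Φ J0) κ1} {h1 : κ1 < μ / 32}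
    {h2 : κ1 < 1} {M : Φ.F → ℕ} (hW : Words Φ T f X ct Aj lam z M L)
    (hnC : ∃ c, OutK (slC hLa hC n hn).T3 (slC hLa hC n hn).KK c)
    (hLn : ∀ a, (L a).Nonempty) (hLm : ∀ c, ∀ t ∈ L c, μ ≤ t ∧ t ≤ 1 - μ)
    (hconn : ∀ j, (st0 hG bp).Conn j) (hext : Ext (st0 hG bp) sB)
    (D : DIn (slC hLa hC n hn).hH sB r Sf nb v0 v1 u A B)
    (lo : LevOut (Kc := (slC hLa hC n hn).K) sB nb u A B Lx)
    (tt : TwOut (slC hLa hC n hn) fr3 sB r v0 v1 Lx Tw)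
    (mon : Mon (slC hLa hC n hn) fr3 Lx Tw)
    (rec : BR hLa sB f X J θ co am Zm nb v0 v1 u A B μ κ1)
    (hga : ∀ w ∈ sB.P, ∀ m, sB.lab w = Sum.inr m →
      ga Φ (co m).1 (f w) ≤ ρ3 (co m).1 + 15 * d (co m).1)
    (hinj : ∀ m m', co m = co m' → am m = am m' → Zm m = Zm m' → m = m')
    (hmf : ∀ a, {m | am m = a}.Finite)
    (hrE : ∀ j : JJ Φ L, ∃ q, r (Sum.inl j) ∈ P (T.H q) ∧ (∀ c ∉ X, q ∉ V c) ∧
      ∀ (k : QK (Pc Φ.F)) (s : ℝ), j.1 ∈ k.B → κ1 < s →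
        q ∉ Act0 T (Pc Φ.F) (bc (F := Φ.F)) (RF Φ r₀) f (KorJ Φ J0) s k)
    (hfin : ∀ F : C2 T, (sB.P ∩ F.On).Finite)
    (j0 : Φ.F → JJ Φ L) (hj0 : ∀ a, (j0 a).1 = a)
    -- 422: the labels of the barriers
    {lm : Mo → Lm_117.QK (belK (slC hLa hC n hn).T3 (slC hLa hC n hn).KK) → ZMod 2}
    (hGl : ∀ m, GLab (lmK fr3 (Lay_316.lay_sla hLa hC n hn).core (Sla.dis_KK (S := slC hLa hC n hn))
      hnC) (Gl_422.gp (s2 (slC hLa hC n hn) fr3 Tw l0') (Sum.inr m)) (lm m))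
    (hZ : ∀ m, ∀ v ∈ ZK (slC hLa hC n hn).T3 (slC hLa hC n hn).KK
      (Om ∩ f ⁻¹' {y | ga Φ (co m).1 y ≤ ρ4 (co m).1}), lm m v = 0)
    -- 778: the barrier points outside
    (hConn : ∀ (hs : BSep (s2 (slC hLa hC n hn) fr3 Tw l0') am)
      (far : ∀ a, PN (fun j : JJ Φ L => j.1) am a → Set E3),
      (∀ a, (prS (s2 (slC hLa hC n hn) fr3 Tw l0') hs hmf j0 hj0 a).Good
        (ActR (slC hLa hC n hn) (Rdc T f Xᶜ (rout ρ3 d))) (far a)) →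
      ∃ (RR : Φ.F → Set ((slC hLa hC n hn).Fn fr3)) (SS : Φ.F → Set E3),
        (∀ a, ConnT (ActR (slC hLa hC n hn) (Rdc T f Xᶜ (rout ρ3 d))) (far a)
          (prS (s2 (slC hLa hC n hn) fr3 Tw l0') hs hmf j0 hj0 a) (RR a) (SS a)) ∧
        (∀ a, ∀ F ∈ RR a, ∃ p, Sum.inl p ∈ ((slC hLa hC n hn).mn fr3).side F ∧
          ∃ e ∉ X, ∃ y ∈ P (T.H p.tile), ρ3 e + 7 * d e ≤ ga Φ e (f y) ∧
            ga Φ e (f y) ≤ ρ4 e) ∧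
        ∀ a m h, h ∈ (s2 (slC hLa hC n hn) fr3 Tw l0').P →
          (s2 (slC hLa hC n hn) fr3 Tw l0').lab h = Sum.inr m → am m = a →
          (∀ e ∉ X, ρ3 e + 7 * d e ≤ ga Φ e (f h)) → h ∈ SS a)
    -- 847
    (hDich : ∀ s₃ : GSt ((slC hLa hC n hn).mn fr3) (fun j : JJ Φ L => j.1),
      CutOut (s2 (slC hLa hC n hn) fr3 Tw l0') am
        (fun _ => ActR (slC hLa hC n hn) (Rdc T f Xᶜ (rout ρ3 d))) s₃ →
      Dich (hH := (Lay_316.lay_sla hLa hC n hn).core) (hdis := Sla.dis_KK)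
        (qdT (fun p : T.RIdx (slC hLa hC n hn).HH => p.tile) (sla_sub (slC hLa hC n hn))
          (slC hLa hC n hn).KK hLa hI hM h1 h2) s₃
        {w | w ∈ Om ∧ ∃ c : Ti X, ga Φ c.1 (f w) ≤ ρ3 c.1 + 8 * d c.1} am
        (sdm (lmK fr3 (Lay_316.lay_sla hLa hC n hn).core (Sla.dis_KK (S := slC hLa hC n hn)) hnC)
          (s2 (slC hLa hC n hn) fr3 Tw l0') lm)) :
    ∃ (s₃ : GSt ((slC hLa hC n hn).mn fr3) (fun j : JJ Φ L => j.1)) (far₃ : JJ Φ L → Set E3),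
      CutOut (s2 (slC hLa hC n hn) fr3 Tw l0') am
        (fun _ => ActR (slC hLa hC n hn) (Rdc T f Xᶜ (rout ρ3 d))) s₃ ∧
      s₃.Inv (qdT (fun p : T.RIdx (slC hLa hC n hn).HH => p.tile) (sla_sub (slC hLa hC n hn))
        (slC hLa hC n hn).KK hLa hI hM h1 h2) far₃ ∧
      PosS (hH := (Lay_316.lay_sla hLa hC n hn).core) Φ T f (μ / 4) J0 (slC hLa hC n hn) s₃ ∧
      (∀ (c : Ti X) (j : JJ Φ L),
        SkB_662.One s₃ {F | Sum.inr c ∈ ((slC hLa hC n hn).mn fr3).side F} j) ∧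
      ∀ (k : Init_543.QK (Pc Φ.F)) (c : Ti X), c.1 ∈ k.Z → ∀ j j' : JJ Φ L, j.1 ∈ k.B →
        j'.1 ∈ k.B → j.1 ≠ j'.1 →
        SkB_662.Two s₃ ((qdT (fun p : T.RIdx (slC hLa hC n hn).HH => p.tile)
          (sla_sub (slC hLa hC n hn)) (slC hLa hC n hn).KK hLa hI hM h1 h2).Act k)
          {Sum.inr c} j j' := by
  have hrV : ∀ j : JJ Φ L, ∃ q, r (Sum.inl j) ∈ P (T.H q) ∧ ∀ c ∉ X, q ∉ V c := fun j => by
    obtain ⟨q, g1, g2, -⟩ := hrE j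
    exact ⟨q, g1, g2⟩
  refine leafBC_m N hF hRm hnC hLn hLm hext D lo tt mon rec hga hinj hmf hrV hfin j0 hj0
    (UT := {w | w ∈ Om ∧ ∃ c : Ti X, ga Φ c.1 (f w) ≤ ρ3 c.1 + 8 * d c.1})
    (hUT_m hRm) (sd := sdm (lmK fr3 (Lay_316.lay_sla hLa hC n hn).core
      (Sla.dis_KK (S := slC hLa hC n hn)) hnC) (s2 (slC hLa hC n hn) fr3 Tw l0') lm) ?_
  intro hs far t Ph s₃ g1 g2 g3 DR hB
  obtain ⟨RR, SS, c1, c2, c3⟩ := hConn hs far g1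
  exact ⟨trOut_m N hκ2 hRm hW hLm hconn hext D lo tt rec hga hrE g2 DR hB c1 c2 c3,
    vIn_m N hRm hI hM hnC D lo tt rec hga hrV g2 DR hB _ hGl hZ, hDich s₃ (cutOut_of DR)⟩

end Crest.Agent.R096.Civ_662
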