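import Crest.Agent.R096.Bgf10_4

/-! # Row 96, DOORS, barriers (helper4), part 11: the state with all barriers -/

set_option autoImplicit false
set_option linter.unusedSectionVars false

open Set Filter Topology Metric MeasureTheory

namespace Crest.Agent.R096.Bgf_4

open Crest.Agent.R096.Msh_715 Crest.Agent.R096.Coh_184 Crest.Agent.R096.Bsp_628
  Crest.Agent.R096.Brk1_582 Crest.Agent.R096.Brk2_582 Crest.Agent.R096.Brk3_582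
  Crest.Agent.R096.Brk5_582 Crest.Agent.R096.Init_543 Crest.Agent.R096.Mbf_337
  Crest.Agent.R096.Main_4 Crest.Agent.R096.Lab_184
  Crest.Agent.R096.Seq_213 Crest.Agent.R096.Seq_213.GSt Crest.Agent.R096.Ginv_543
  Crest.Agent.R096.Agl5_543
  Crest.Agent.R96.Push_899 Crest.Agent.R096.Ess5_95 Crest.Agent.R096.Ess8_95
  Crest.Agent.R096.Ebr1_95 Crest.Agent.R096.Ebr4_95 Crest.Agent.R096.Bar_106
  Crest.Agent.R096.Exa_560 Crest.Agent.R096.Sphg_316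

open Crest.Agent.R096.SkC1_961 (E3 Hom3 IsPush FoamD)

variable {δ κ0 R c0 : ℝ} {La Om : Set E3} {ι : Type} {Φ : FoamD δ κ0 R c0 La}
  {T : Tiling Om ι} {f g : E3 → E3}
variable {X : Set Φ.F} {J0 J V : Φ.F → Set ι} {ct : Φ.F → ι} {A : Φ.F → E3 ≃ᵃ[ℝ] E3}
  {lam : Φ.F → ℝ} {z : Φ.F → E3} {θ : Φ.F → E3 → E3} {φ : Φ.F → E3 → ℝ} {κ1 κ2 : ℝ}
  {ρ1 ρ2 ρ3 ρ4 d : Φ.F → ℝ} {l0 mm ra : ℝ}

/-- the barrier function of the moat `m` at the tiny core `m.co` -/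
noncomputable abbrev lBM (Φ : FoamD δ κ0 R c0 La) (X : Set Φ.F) (ρ1 ρ3 d : Φ.F → ℝ)
    (sg l0 mm ra : ℝ) (m : BM Φ X) : E3 → ℝ :=
  lM Φ (fun m : BM Φ X => m.co) (fun m => rB ρ1 ρ3 d m.co) (fun m => hB ρ1 ρ3 d m.co)
    (fun m => hiB ρ1 ρ3 d sg m.co) (fun m => gmf Φ l0 mm ra m.am m.Zm) m

theorem cores_subJV (hC : Cores Φ T f κ1 κ2 X J0 J V ct A lam z θ φ) (c : Φ.F) : J c ⊆ V c := by
  by_cases hc : c ∈ X
  · obtain ⟨-, h1, h2⟩ := hC.one c hc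
    rw [h1, h2]
  · exact (hC.tiny c hc).sub

/-- a point all of whose tiles are near the tiny core `c`, with gauge above `ρ3`, is in no core -/
theorem out_core (hLa : IsOpen La) (H : Hm f g Om La)
    (hC : Cores Φ T f κ1 κ2 X J0 J V ct A lam z θ φ)
    (hRm : ∀ c ∉ X, Rm Φ T f c (J0 c) (J c) (V c) (θ c) (ρ1 c) (ρ2 c) (ρ3 c) (ρ4 c) (d c))
    {c : Φ.F} (hc : c ∉ X) {x : E3} (hx : ∀ i, x ∈ P (T.H i) → i ∈ V c)
    (hg : ρ3 c < ga Φ c (f x)) (c' : Φ.F) : x ∉ KJ T (J c') := by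
  intro hxK
  by_cases hcc : c' = c
  · subst hcc
    have hT := hC.tiny c' hc
    have hr := hRm c' hc
    have hG := ga_of_ray hLa hT.pt (by linarith [hr.r1, hr.r12, hr.r23, hr.r34, hr.d0]) hr.r4 hr.ray
    have hcl : IsClosed (KJ T (J c')) :=
      (hT.finV.subset hT.sub).isClosed_biUnion fun i _ => isClosed_P _
    have := K_loc H (Φ.bf.sub c'.1 c'.2) hG hr hT.sub hcl hT.inside hxK
    linarith
  · obtain ⟨i, hi, hxi⟩ := mem_iUnion₂.1 hxK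
    exact disjoint_left.1 (hC.disj c' c hcc) (cores_subJV hC c' hi) (hx i hxi)

section bars

variable {r₀ : Φ.F → ℝ} {L : Φ.F → Finset ℝ} [Nonempty (JJ Φ L)] {ct' : Φ.F → ι}

/-- **THE STATE WITH ALL BARRIERS** -/
theorem exists_bars (hLa : IsOpen La) (hδ : 0 < δ) (hR0 : 0 < R)
    (hC : Cores Φ T f κ1 κ2 X J0 J V ct A lam z θ φ) (hI : InitR Φ T f g J0 ct' r₀)
    (hG : GF Φ r₀ T f L)
    (hRm : ∀ c ∉ X, Rm Φ T f c (J0 c) (J c) (V c) (θ c) (ρ1 c) (ρ2 c) (ρ3 c) (ρ4 c) (d c))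
    {sg : ℝ} (hsg : 0 < sg) (hN : Nm l0 mm ra (1 + sg)) (hdl : ∀ c ∉ X, d c ≤ l0) (hdr : ∀ c ∉ X, d c ≤ ra)
    (hL : ∀ c, ∀ t ∈ L c, 0 < t ∧ t < 1) {bp : JJ Φ L → E3}
    (hbp : ∀ j : JJ Φ L, bp j ∈ Om ∧ T.dim (bp j) = 1 ∧ Φ.lev j.1 (f (bp j)) = j.2.1)
    (N : BM Φ X → Set ℝ) (hN0 : ∀ m, volume (N m) = 0) :
    ∃ (q₀ : BM Φ X → E3) (ε : BM Φ X → ℝ) (bm : BM Φ X → E3)
      (hGB : GFB Φ r₀ T f L (lBM Φ X ρ1 ρ3 d sg l0 mm ra) ε),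
      BarF Φ T f J0 J V θ (fun m : BM Φ X => m.co) (fun m => ρ1 m.co)
        (fun m => ρ2 m.co) (fun m => ρ3 m.co) (fun m => ρ4 m.co) (fun m => d m.co)
        (fun m => gmf Φ l0 mm ra m.am m.Zm) (fun m => rB ρ1 ρ3 d m.co)
        (fun m => hB ρ1 ρ3 d m.co) (fun _ => 1) (fun m => hiB ρ1 ρ3 d sg m.co)
        (fun m => max (d m.co / l0) (d m.co / ra)) q₀ (fun _ => 0) ∧
      (∀ m, ε m ∈ Ioo 1 (hiB ρ1 ρ3 d sg m.co)) ∧ (∀ m, ε m ∉ N m) ∧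
      BBase T f L (lBM Φ X ρ1 ρ3 d sg l0 mm ra) ε bp bm ∧
      Ext (st0 hG bp) (stB hGB bp bm) ∧ (∀ j, (stB hGB bp bm).H1 j) ∧
      (∀ j, (stB hGB bp bm).Conn j) ∧
      (∀ j, TrivF (ZMod 2) (SB Om Φ r₀ f L (lBM Φ X ρ1 ρ3 d sg l0 mm ra) ε j)) ∧
      (∀ m, bm m ∈ (stB hGB bp bm).P ∧ (stB hGB bp bm).lab (bm m) = Sum.inr m) ∧
      (∀ m, ρ3 m.co + 6 * d m.co ≤ ga Φ m.co (f (bm m)) ∧ ga Φ m.co (f (bm m)) ≤ ρ4 m.co) ∧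
      (∀ m c, bm m ∉ KJ T (J c)) ∧
      (∀ m, ∀ w ∈ (stB hGB bp bm).P, (stB hGB bp bm).lab w = Sum.inr m →
        w ∈ Om ∧ T.dim w = 1 ∧ lBM Φ X ρ1 ρ3 d sg l0 mm ra m (f w) = ε m ∧
        (∀ i, w ∈ P (T.H i) → i ∈ V m.co) ∧
        (rB ρ1 ρ3 d m.co - hB ρ1 ρ3 d m.co * ε m ≤ ga Φ m.co (f w) ∧
          ga Φ m.co (f w) ≤ rB ρ1 ρ3 d m.co + hB ρ1 ρ3 d m.co * ε m ∧
          gmf Φ l0 mm ra m.am m.Zm (Φ.Psi (f w)) ≤ ε m ∧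
          (ga Φ m.co (f w) = rB ρ1 ρ3 d m.co - hB ρ1 ρ3 d m.co * ε m ∨
            ga Φ m.co (f w) = rB ρ1 ρ3 d m.co + hB ρ1 ρ3 d m.co * ε m ∨
            gmf Φ l0 mm ra m.am m.Zm (Φ.Psi (f w)) = ε m))) ∧
      ∀ m, ∃ lm,
        FarL T (Om ∩ f ⁻¹' {y | ga Φ m.co y ≤ ρ4 m.co}) (gPts (stB hGB bp bm) (Sum.inr m)) lm ∧
        (∀ b, b + max (d m.co / l0) (d m.co / ra) < ε m →
          IsPreconnected {q | q ∈ frontier m.co.1.set ∧ gmf Φ l0 mm ra m.am m.Zm q ≤ b} →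
          0 ≤ b → ∀ v ∈ Om, T.dim v = 0 →
          rB ρ1 ρ3 d m.co - hB ρ1 ρ3 d m.co * ε m + 2 * d m.co ≤ ga Φ m.co (f v) →
          ga Φ m.co (f v) ≤ rB ρ1 ρ3 d m.co + hB ρ1 ρ3 d m.co * ε m - 2 * d m.co →
          gmf Φ l0 mm ra m.am m.Zm (Φ.Psi (f v)) ≤ b → lm v = 1) ∧
        ∀ b, ε m + max (d m.co / l0) (d m.co / ra) < b →
          IsPreconnected {q | q ∈ frontier m.co.1.set ∧ b ≤ gmf Φ l0 mm ra m.am m.Zm q} →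
          {q | q ∈ frontier m.co.1.set ∧ b ≤ gmf Φ l0 mm ra m.am m.Zm q}.Nonempty →
          ∀ v ∈ Om, T.dim v = 0 →
            (ga Φ m.co (f v) ≤ rB ρ1 ρ3 d m.co - hB ρ1 ρ3 d m.co * ε m - 2 * d m.co ∨
              rB ρ1 ρ3 d m.co + hB ρ1 ρ3 d m.co * ε m + 2 * d m.co ≤ ga Φ m.co (f v) ∨
              b ≤ gmf Φ l0 mm ra m.am m.Zm (Φ.Psi (f v))) → lm v = 0 := by
  have H := hI.hm
  obtain ⟨q₀, hB'⟩ := barF_BM (l0 := l0) (mm := mm) (ra := ra) hLa hδ hR0 H hC hRm hsg hN hdl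
    hdr
  have hcount : Countable (BM Φ X) := BM.countable hLa
  obtain ⟨ε, hε, hεN, hGB⟩ := hB'.exists_gfb hLa H hG N hN0
  obtain ⟨bm, hb, hga, hlab⟩ := hB'.exists_stB hLa H hI hGB hε hbp
  have hBD := hB'.bdata hLa
  have hbar := fun (m : BM Φ X) (w : E3) (hw : w ∈ (stB hGB bp bm).P)
    (hl : (stB hGB bp bm).lab w = Sum.inr m) => stB_bar hBD hε hGB hw hl
  have hroot := fun m => stB_root hLa hI hb hGB m
  refine ⟨q₀, ε, bm, hGB, hB', hε, hεN, hb, ext_stB hLa hI hb hGB, stB_H1 hLa hI hBD hε hL hGB,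
    stB_conn hLa hI hb hGB, trivF_SB hLa hI hBD hε hL, hroot, hga, fun m c => ?_,
    fun m w hw hl => ?_, fun m => ?_⟩
  · obtain ⟨h1, h2⟩ := hroot m
    have h3 := (hbar m _ h1 h2).2.2.2.2.2
    exact out_core hLa H hC hRm m.co_notMem h3
      (by linarith [(hga m).1, (hRm m.co m.co_notMem).d0]) c
  · obtain ⟨h1, h2, h3, -, -, h4⟩ := hbar m w hw hl
    exact ⟨h1, h2, h3, h4, hB'.pos (hε m).2 h3⟩
  · obtain ⟨lm, e1, e2, e3⟩ := hlab m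
    refine ⟨lm, e1, fun b hb1 hb2 hb3 => e2 b hb1 hb2 ((hB'.gq m).trans hb3), e3⟩

end bars

end Crest.Agent.R096.Bgf_4
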