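import Crest.Agent.R096.Bgf9_4
import Crest.Agent.R096.Ebr4_95
import Crest.Agent.R096.Bar4_106

/-! # Row 96, DOORS, barriers (helper4), part 10: the barrier data of all moats at the tiny cores -/

set_option autoImplicit false
set_option linter.unusedSectionVars false

open Set Filter Topology Metric MeasureTheory

namespace Crest.Agent.R096.Bgf_4

open Crest.Agent.R096.Msh_715 Crest.Agent.R096.Coh_184 Crest.Agent.R096.Bsp_628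
  Crest.Agent.R096.Brk1_582 Crest.Agent.R096.Brk2_582 Crest.Agent.R096.Brk3_582
  Crest.Agent.R096.Brk5_582 Crest.Agent.R096.Init_543 Crest.Agent.R096.Mbf_337
  Crest.Agent.R96.Push_899 Crest.Agent.R096.Ess5_95 Crest.Agent.R096.Ess8_95
  Crest.Agent.R096.Ebr1_95 Crest.Agent.R096.Ebr4_95 Crest.Agent.R096.Bar_106
  Crest.Agent.R096.Exa_560 Crest.Agent.R096.Sphg_316

open Crest.Agent.R096.SkC1_961 (E3 Hom3 IsPush FoamD)

variable {δ κ0 R c0 : ℝ} {La Om : Set E3} {ι : Type} {Φ : FoamD δ κ0 R c0 La}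
  {T : Tiling Om ι} {f g : E3 → E3}

section one

variable {c : Φ.F} {J0 J V : Set ι} {θ : E3 → E3} {φ : E3 → ℝ} {κ1 ρ1 ρ2 ρ3 ρ4 d : ℝ}

/-- the points of a tile near the core which is not near the hole go to the frontier -/
theorem psi_tile (hLa : IsOpen La) (H : Hm f g Om La) (hT : Tiny Φ T f κ1 c J0 J V θ φ)
    (hR : Rm Φ T f c J0 J V θ ρ1 ρ2 ρ3 ρ4 d) {q : ι} (hqV : q ∈ V) (hqJ : q ∉ J0) {y : E3}
    (hy : y ∈ P (T.H q)) : 0 < ga Φ c (f y) ∧ Φ.Psi (f y) ∈ frontier c.1.set := by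
  have hb : Bod (Φ.B c).lo (Pc Φ.F c) := Pse_316.bod_brick Φ c hT.pt
  have hgf : ga Φ c = Ng (Φ.B c).lo (Pc Φ.F c) := funext (Etg_163.gg_eq Φ c)
  have hG := ga_of_ray hLa hT.pt (by linarith [hR.r1, hR.r12, hR.r23, hR.r34, hR.d0]) hR.r4 hR.ray
  have hin := hT.inside y (mem_iUnion₂.2 ⟨q, hqV, hy⟩)
  have hfc : f y ∈ c.1.set := Bx.mem_set.2 fun k => ⟨(hin k).1.le, (hin k).2.le⟩
  have hne : f y ≠ (Φ.B c).lo := by
    intro he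
    obtain ⟨i, hi, x, hx, hfx⟩ := hT.mem
    have h1 : y = x := by
      rw [← H.gf y (T.sub q hy), ← H.gf x (T.sub i (I_sub_P _ hx)), he, hfx]
    have hqi : q ≠ i := fun h => hqJ (h ▸ hi)
    -- the interior of another tile
    have h2 := P_sub_closure_I (T.ne q) hy
    rw [h1, _root_.mem_closure_iff] at h2
    obtain ⟨z, hz1, hz2⟩ := h2 (I (T.H i)) (isOpen_I _) hx
    exact disjoint_left.1 (T.dis q i hqi) hz2 hz1
  have hpos : 0 < ga Φ c (f y) := by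
    rw [hgf]; exact hb.pos.2 hne
  exact ⟨hpos, Psi_frontier hLa hG hT.pt hfc hpos⟩

/-- **the oscillation of a function of the coordinates on the tiles near the core** -/
theorem osc_full (hLa : IsOpen La) (H : Hm f g Om La) (hT : Tiny Φ T f κ1 c J0 J V θ φ)
    (hR : Rm Φ T f c J0 J V θ ρ1 ρ2 ρ3 ρ4 d) {G : E3 → ℝ} {ω : ℝ}
    (hG : ∀ q ∈ frontier c.1.set, ∀ q' ∈ frontier c.1.set,
      (∀ e : Φ.F, |sb Φ q e - sb Φ q' e| ≤ d) → |G q - G q'| ≤ ω) :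
    ∀ q, ∀ x ∈ P (T.H q), ρ1 ≤ ga Φ c (f x) → ga Φ c (f x) ≤ ρ4 → ∀ y ∈ P (T.H q),
      |G (Φ.Psi (f x)) - G (Φ.Psi (f y))| ≤ ω := by
  intro q x hx h1 h4 y hy
  obtain ⟨hV, hJ⟩ := hR.tile hx h1 h4
  exact hG _ (psi_tile hLa H hT hR hV hJ hx).2 _ (psi_tile hLa H hT hR hV hJ hy).2
    (hR.tile_osc hx h1 h4 hy).2.2

theorem gmf_sub (hLa : IsOpen La) {a : Φ.F} {Z : Set Φ.F} {l0 mm ra : ℝ} (hl : 0 < l0)
    (hra : 0 < ra) : ∀ q ∈ frontier c.1.set, ∀ q' ∈ frontier c.1.set,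
      (∀ e : Φ.F, |sb Φ q e - sb Φ q' e| ≤ d) →
      |gmf Φ l0 mm ra a Z q - gmf Φ l0 mm ra a Z q'| ≤ max (d / l0) (d / ra) :=
  fun _ hq _ hq' h => Gm_sub_le hl hra (Dib_438.sb_mem hLa hq) (Dib_438.sb_mem hLa hq') h

theorem GM.mono {G : E3 → ℝ} {lo hi lo' hi' : ℝ} (h : GM Φ c G lo hi) (h1 : lo ≤ lo')
    (h2 : lo' < hi') (h3 : hi' ≤ hi) : GM Φ c G lo' hi' where
  lo0 := h.lo0.trans h1
  lt := h2
  lip := h.lip
  low := by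
    obtain ⟨q, hq, hq'⟩ := h.low
    exact ⟨q, hq, hq'.trans h1⟩
  high := by
    obtain ⟨q, hq, hq'⟩ := h.high
    exact ⟨q, hq, h3.trans hq'⟩
  eq := fun t ht => h.eq t ⟨h1.trans_lt ht.1, ht.2.trans_le h3⟩
  triv := fun t ht => h.triv t ⟨h1.trans_lt ht.1, ht.2.trans_le h3⟩

end one

section all

variable {X : Set Φ.F} {J0 J V : Φ.F → Set ι} {ct : Φ.F → ι} {A : Φ.F → E3 ≃ᵃ[ℝ] E3}
  {lam : Φ.F → ℝ} {z : Φ.F → E3} {θ : Φ.F → E3 → E3} {φ : Φ.F → E3 → ℝ} {κ1 κ2 : ℝ}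
  {ρ1 ρ2 ρ3 ρ4 d : Φ.F → ℝ} {l0 mm ra : ℝ}

/-- radius and half width of the barriers at the core `c` -/
noncomputable def rB (ρ1 ρ3 d : Φ.F → ℝ) (c : Φ.F) : ℝ := (ρ1 c + ρ3 c + 16 * d c) / 2
noncomputable def hB (ρ1 ρ3 d : Φ.F → ℝ) (c : Φ.F) : ℝ := (ρ3 c - ρ1 c + 8 * d c) / 2

theorem rB_sub (c : Φ.F) : rB ρ1 ρ3 d c - hB ρ1 ρ3 d c = ρ1 c + 4 * d c := by
  unfold rB hB; ring
theorem rB_add (c : Φ.F) : rB ρ1 ρ3 d c + hB ρ1 ρ3 d c = ρ3 c + 12 * d c := by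
  unfold rB hB; ring

/-- the upper end of the levels -/
noncomputable def hiB (ρ1 ρ3 d : Φ.F → ℝ) (sg : ℝ) (c : Φ.F) : ℝ :=
  1 + min (d c / hB ρ1 ρ3 d c) sg

theorem hiB_le (sg : ℝ) (c : Φ.F) : hiB ρ1 ρ3 d sg c ≤ 1 + sg := by
  unfold hiB; linarith [min_le_right (d c / hB ρ1 ρ3 d c) sg]

theorem one_lt_hiB {sg : ℝ} (hs : 0 < sg) {c : Φ.F} (hd : 0 < d c) (hh : 0 < hB ρ1 ρ3 d c) :
    1 < hiB ρ1 ρ3 d sg c := by
  unfold hiB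
  have := lt_min (div_pos hd hh) hs
  linarith

theorem hB_mul_hiB {sg : ℝ} {c : Φ.F} (hh : 0 < hB ρ1 ρ3 d c) :
    hB ρ1 ρ3 d c * hiB ρ1 ρ3 d sg c ≤ hB ρ1 ρ3 d c + d c := by
  unfold hiB
  have h1 : hB ρ1 ρ3 d c * min (d c / hB ρ1 ρ3 d c) sg ≤ hB ρ1 ρ3 d c * (d c / hB ρ1 ρ3 d c) :=
    mul_le_mul_of_nonneg_left (min_le_left _ _) hh.le
  rw [mul_div_cancel₀ _ hh.ne'] at h1
  rw [mul_add, mul_one]
  linarith

/-- **THE BARRIER DATA of all moats at the tiny cores** -/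
theorem barF_BM (hLa : IsOpen La) (hδ : 0 < δ) (hR0 : 0 < R) (H : Hm f g Om La)
    (hC : Cores Φ T f κ1 κ2 X J0 J V ct A lam z θ φ)
    (hRm : ∀ c ∉ X, Rm Φ T f c (J0 c) (J c) (V c) (θ c) (ρ1 c) (ρ2 c) (ρ3 c) (ρ4 c) (d c))
    {sg : ℝ} (hsg : 0 < sg) (hN : Nm l0 mm ra (1 + sg)) (hdl : ∀ c ∉ X, d c ≤ l0) (hdr : ∀ c ∉ X, d c ≤ ra) :
    ∃ q₀ : BM Φ X → E3, BarF Φ T f J0 J V θ (fun m : BM Φ X => m.co) (fun m => ρ1 m.co)
      (fun m => ρ2 m.co) (fun m => ρ3 m.co) (fun m => ρ4 m.co) (fun m => d m.co)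
      (fun m => gmf Φ l0 mm ra m.am m.Zm) (fun m => rB ρ1 ρ3 d m.co)
      (fun m => hB ρ1 ρ3 d m.co) (fun _ => 1) (fun m => hiB ρ1 ρ3 d sg m.co)
      (fun m => max (d m.co / l0) (d m.co / ra)) q₀ (fun _ => 0) := by
  have hGM : ∀ m : BM Φ X, GM Φ m.co (gmf Φ l0 mm ra m.am m.Zm) 0 (1 + sg) := fun m => by
    obtain ⟨p, q, hM⟩ := m.mo
    exact gm_moat hLa hδ hR0 hM hN
  choose q₀ hq1 hq2 using fun m => (hGM m).low
  have hh : ∀ m : BM Φ X, 12 * d m.co ≤ hB ρ1 ρ3 d m.co := fun m => by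
    have hr := hRm m.co m.co_notMem
    unfold hB
    linarith [hr.r12, hr.r23]
  have hd : ∀ m : BM Φ X, 0 < d m.co := fun m => (hRm m.co m.co_notMem).d0
  have hh0 : ∀ m : BM Φ X, 0 < hB ρ1 ρ3 d m.co := fun m => by linarith [hh m, hd m]
  have hhe : ∀ m : BM Φ X, hB ρ1 ρ3 d m.co * hiB ρ1 ρ3 d sg m.co ≤ hB ρ1 ρ3 d m.co + d m.co :=
    fun m => hB_mul_hiB (hh0 m)
  have hT := fun m : BM Φ X => hC.tiny m.co m.co_notMem
  refine ⟨q₀, ?_, ?_, ?_, ?_, ?_, ?_, ?_, ?_, ?_, ?_, ?_, ?_, ?_⟩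
  · exact fun m => (hT m).pt
  · exact fun m => hRm m.co m.co_notMem
  · intro m
    exact (hGM m).mono zero_le_one (one_lt_hiB hsg (hd m) (hh0 m)) (hiB_le sg m.co)
  · exact hh0
  · intro m
    show _ ≤ rB ρ1 ρ3 d m.co - hB ρ1 ρ3 d m.co * hiB ρ1 ρ3 d sg m.co
    have h1 := hhe m
    have := rB_sub (ρ1 := ρ1) (ρ3 := ρ3) (d := d) m.co
    linarith [hd m]
  · intro m
    show rB ρ1 ρ3 d m.co - hB ρ1 ρ3 d m.co * 1 ≤ _
    have := rB_sub (ρ1 := ρ1) (ρ3 := ρ3) (d := d) m.co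
    have hr := hRm m.co m.co_notMem
    linarith [hr.r12, hr.r23, hd m]
  · intro m
    show _ ≤ rB ρ1 ρ3 d m.co + hB ρ1 ρ3 d m.co * 1
    have := rB_add (ρ1 := ρ1) (ρ3 := ρ3) (d := d) m.co
    linarith [hd m]
  · intro m
    show rB ρ1 ρ3 d m.co + hB ρ1 ρ3 d m.co * hiB ρ1 ρ3 d sg m.co + 2 * d m.co ≤ _
    have h1 := hhe m
    have := rB_add (ρ1 := ρ1) (ρ3 := ρ3) (d := d) m.co
    have hr := hRm m.co m.co_notMem
    linarith [hr.r34, hd m]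
  · intro m
    exact osc_full hLa H (hT m) (hRm m.co m.co_notMem) (gmf_sub hLa hN.hl hN.hra)
  · exact hq1
  · exact hq2
  · intro m
    show 0 + max (d m.co / l0) (d m.co / ra) ≤ 1
    rw [zero_add]
    refine max_le ?_ ?_
    · rw [div_le_one hN.hl]; exact hdl _ m.co_notMem
    · rw [div_le_one hN.hra]; exact hdr _ m.co_notMem
  · exact fun m => (hT m).reg

end all

end Crest.Agent.R096.Bgf_4
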