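import Crest.Agent.R096.Bar4_106
import Crest.Agent.R096.Exa7_560
import Crest.Agent.R096.Init8_543

/-!
# R096 (row 96), DOORS (helper416): finitely many moats at a core and of a family; sheets exist
-/

set_option autoImplicit false
set_option linter.unusedSectionVars false

open Set Topology Filter

namespace Crest.Agent.R096.Bmf_416

open Crest.Agent.R096.Brk1_582 Crest.Agent.R096.Brk2_582 Crest.Agent.R096.Bsp_628
  Crest.Agent.R096.Brk3_582 Crest.Agent.R096.Brk5_582 Crest.Agent.R096.Init_543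
  Crest.Agent.R096.Bar_106
open Crest.Agent.R096.SkC1_961 (E3 FoamD)
open Crest.Agent.R096.Frn_337 (Ti)
open Crest.Agent.R096.Msh_715
open Crest.Agent.R096.Mbf_337 (Levels)

variable {δ κ0 R c0 : ℝ} {La Om : Set E3} {Φ : FoamD δ κ0 R c0 La} {X : Set Φ.F} {ι : Type}
  {T : Tiling Om ι} {f : E3 → E3}

/-- the cells of a moat touch each other -/
theorem touch (m : BM Φ X) {e e' : Φ.F} (he : e ∈ m.Zm ∨ e = m.am) (he' : e' ∈ m.Zm ∨ e' = m.am) :
    (Pc Φ.F e ∩ Pc Φ.F e').Nonempty := by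
  obtain ⟨p, q, h⟩ := m.mo
  obtain ⟨y, hy⟩ := h.fcp
  rw [mem_fc] at hy
  refine ⟨y, hy e ?_, hy e' ?_⟩
  · rcases he with h1 | h1
    · exact Or.inl h1
    · exact Or.inr (Or.inl h1)
  · rcases he' with h1 | h1
    · exact Or.inl h1
    · exact Or.inr (Or.inl h1)

theorem co_mem (m : BM Φ X) : m.co ∈ m.Zm := by
  obtain ⟨p, q, h⟩ := m.mo
  exact h.cZ

/-- a family of moats with all cells in a finite set is finite -/
theorem fin_of {S : Set (BM Φ X)} {A : Set Φ.F} (hA : A.Finite)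
    (h : ∀ m ∈ S, m.am ∈ A ∧ m.Zm ⊆ A) : S.Finite := by
  classical
  have h1 : (A ×ˢ (A ×ˢ {Z : Set Φ.F | Z ⊆ A})).Finite :=
    hA.prod (hA.prod hA.finite_subsets)
  refine Set.Finite.of_finite_image (f := fun m : BM Φ X => (m.co, m.am, m.Zm)) (h1.subset ?_) ?_
  · rintro _ ⟨m, hm, rfl⟩
    obtain ⟨h2, h3⟩ := h m hm
    exact ⟨h3 (co_mem m), h2, h3⟩
  · intro m _ m' _ he
    have h2 := Prod.mk.inj he
    have h3 := Prod.mk.inj h2.2
    exact BM.ext h2.1 h3.1 h3.2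

/-- **finitely many moats of a family** -/
theorem am_fin (hLa : IsOpen La) (a : Φ.F) : {m : BM Φ X | m.am = a}.Finite := by
  refine fin_of (Exa_560.finite_nbr hLa a) fun m hm => ?_
  have hm' : m.am = a := hm
  refine ⟨?_, fun e he => ?_⟩
  · have h := touch m (Or.inr rfl) (Or.inr rfl)
    show (Pc Φ.F a ∩ Pc Φ.F m.am).Nonempty
    rwa [hm'] at h ⊢
  · have h := touch m (Or.inr rfl) (Or.inl he)
    show (Pc Φ.F a ∩ Pc Φ.F e).Nonempty
    rwa [hm'] at h

/-- **finitely many moats at a core** -/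
theorem co_fin (hLa : IsOpen La) (c : Φ.F) : {m : BM Φ X | m.co = c}.Finite := by
  refine fin_of (Exa_560.finite_nbr hLa c) fun m hm => ?_
  have hm' : m.co = c := hm
  refine ⟨?_, fun e he => ?_⟩
  · have h := touch m (Or.inl (co_mem m)) (Or.inr rfl)
    show (Pc Φ.F c ∩ Pc Φ.F m.am).Nonempty
    rwa [hm'] at h
  · have h := touch m (Or.inl (co_mem m)) (Or.inl he)
    show (Pc Φ.F c ∩ Pc Φ.F e).Nonempty
    rwa [hm'] at h

/-- the core of a moat as an index -/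
def coT (m : BM Φ X) : Ti X := ⟨m.co, m.co_notMem⟩

theorem coT_fin (hLa : IsOpen La) (k : Ti X) : {m : BM Φ X | coT m = k}.Finite :=
  (co_fin hLa k.1).subset fun m hm => by
    have h : coT m = k := hm
    show m.co = k.1
    rw [← h]; rfl

/-- every family has a sheet -/
theorem L_nonempty {κp μ κ3 : ℝ} {Z : Φ.F → Set ℝ} {m0 κ : Φ.F → ℕ} {L : Φ.F → Finset ℝ}
    (hL : Levels Φ T f κp μ κ3 Z m0 κ L) (a : Φ.F) : (L a).Nonempty := by
  rw [Finset.nonempty_iff_ne_empty]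
  intro h
  have h1 := hL.many a
  rw [h] at h1
  have h2 := Bx.sz_pos (Φ.bf.pos a.1 a.2)
  simp at h1
  linarith

theorem exists_j0 {κp μ κ3 : ℝ} {Z : Φ.F → Set ℝ} {m0 κ : Φ.F → ℕ} {L : Φ.F → Finset ℝ}
    (hL : Levels Φ T f κp μ κ3 Z m0 κ L) : ∃ j0 : Φ.F → JJ Φ L, ∀ a, (j0 a).1 = a := by
  choose t ht using fun a => L_nonempty hL a
  exact ⟨fun a => ⟨a, t a, ht a⟩, fun a => rfl⟩

end Crest.Agent.R096.Bmf_416
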