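import Crest.Agent.R096.Dfn4_416
import Crest.Agent.R096.Bmf1_416
import Crest.Agent.R096.Bgf10_4

/-!
# R096 (row 96), DOORS_final (helper416), part 5: `BarS` for 4's combined state `stB`
-/

set_option autoImplicit false
set_option linter.unusedSectionVars false
set_option linter.unusedVariables false
set_option linter.style.longLine false

open Set Topology Filter Metric Module Relation
open scoped Classical

namespace Crest.Agent.R096.Dfn_416

open Crest.Agent.R096.Msh_715 Crest.Agent.R096.Coh_184 Crest.Agent.R096.Lab_184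
  Crest.Agent.R096.Main_4 Crest.Agent.R096.Agl5_543
  Crest.Agent.R096.Seq_213 Crest.Agent.R096.St_147 
  Crest.Agent.R096.Brk1_582 Crest.Agent.R096.Brk2_582 Crest.Agent.R096.Brk3_582
  Crest.Agent.R096.Brk5_582 Crest.Agent.R096.Bsp_628 Crest.Agent.R096.Init_543
  Crest.Agent.R096.Bgf_4 Crest.Agent.R096.Bar_106 Crest.Agent.R096.Bmf_416
open Crest.Agent.R096.Mbf_337 (KJ Tiny Cores Words)
open Crest.Agent.R096.SkC1_961 (E3 FoamD Hom3)
open Crest.Agent.R096.Frn_337 (Ti)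

variable {δ κ0 R c0 : ℝ} {La Om : Set E3} {ι : Type} {Φ : FoamD δ κ0 R c0 La} {T : Tiling Om ι}
  {f g : E3 → E3} {X : Set Φ.F} {J0 V : Φ.F → Set ι} {ct' : Φ.F → ι} {r₀ : Φ.F → ℝ}
  {L : Φ.F → Finset ℝ} [Nonempty (JJ Φ L)] {hG : GF Φ r₀ T f L} {bp : JJ Φ L → E3}

/-- **`BarS` FOR 4's STATE** (all moats `BM Φ X`) -/
theorem barS_stB (hLa : IsOpen La) (hR : InitR Φ T f g J0 ct' r₀) {ρ : BM Φ X → ℝ}
    {ℓ : BM Φ X → E3 → ℝ} {lo hi ε : BM Φ X → ℝ} {bm : BM Φ X → E3}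
    (hb : BBase T f L ℓ ε bp bm) (hB : BData Φ T f V (fun m : BM Φ X => m.co) ρ ℓ lo hi)
    (hε : ∀ m, ε m ∈ Ioo (lo m) (hi m)) (hGB : GFB Φ r₀ T f L ℓ ε) :
    BarS hG bp V coT (stB hGB bp bm) where
  ext := ext_stB hLa hR hb hGB
  tile := fun w hw m hl i hi => (stB_bar hB hε hGB hw hl).2.2.2.2.2 i hi
  fin := fun k => coT_fin hLa k

end Crest.Agent.R096.Dfn_416
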