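import Crest.Agent.R096.Ebr6_95
import Crest.Agent.R096.Bgf11_4

/-!
# Row 96, DOORS, barriers (helper95), part 7: the field `eg` for all barriers of `exists_bars`
-/

set_option autoImplicit false
set_option linter.unusedSectionVars false

open Set Topology Filter Metric Module
open scoped Classical

namespace Crest.Agent.R096.Ebr7_95

open Crest.Agent.R096.Msh_715 Crest.Agent.R096.Coh_184 Crest.Agent.R096.Bsp_628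
  Crest.Agent.R096.Brk1_582 Crest.Agent.R096.Brk2_582 Crest.Agent.R096.Brk3_582
  Crest.Agent.R096.Brk5_582 Crest.Agent.R096.Init_543 Crest.Agent.R096.Mbf_337
  Crest.Agent.R96.Push_899 Crest.Agent.R096.Ess1_95 Crest.Agent.R096.Ess4_95
  Crest.Agent.R096.Ess5_95 Crest.Agent.R096.Ess6_95 Crest.Agent.R096.Ess7_95
  Crest.Agent.R096.Lab_184 Crest.Agent.R096.Seq_213 Crest.Agent.R096.Seq_213.GSt
  Crest.Agent.R096.Main_4 Crest.Agent.R096.Exa_560 Crest.Agent.R096.Agl4_543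
  Crest.Agent.R096.Agl5_543 Crest.Agent.R096.Agl6_543 Crest.Agent.R096.Agl8_543
  Crest.Agent.R096.Ebr1_95 Crest.Agent.R096.Ebr2_95
  Crest.Agent.R096.Ebr3_95 Crest.Agent.R096.Ebr4_95 Crest.Agent.R096.Ebr5_95
  Crest.Agent.R096.Ebr6_95
  Crest.Agent.R096.Bar_106 Crest.Agent.R096.Bgf_4 Crest.Agent.R096.Dib_438

open Crest.Agent.R096.SkC1_961 (E3 Hom3 IsPush FoamD)

variable {δ κ0 R c0 : ℝ} {La Om : Set E3} {ι : Type} {Φ : FoamD δ κ0 R c0 La}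
  {T : Tiling Om ι} {f g : E3 → E3} {κ1 κ2 : ℝ} {X : Set Φ.F} {J0 J V : Φ.F → Set ι}
  {ct : Φ.F → ι} {A : Φ.F → E3 ≃ᵃ[ℝ] E3} {lam : Φ.F → ℝ} {z : Φ.F → E3}
  {θ : Φ.F → E3 → E3} {φ : Φ.F → E3 → ℝ} {ρ1 ρ2 ρ3 ρ4 d : Φ.F → ℝ}
  {r₀ : Φ.F → ℝ} {L : Φ.F → Finset ℝ} [Nonempty (JJ Φ L)]
  {bp : JJ Φ L → E3} {bm : BM Φ X → E3} {ε : BM Φ X → ℝ} {q₀ : BM Φ X → E3} {μ sg : ℝ}

theorem gmf_nonneg {l0 mm ra : ℝ} (hra : 0 < ra) {a : Φ.F} {Z : Set Φ.F} (q : E3) :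
    0 ≤ gmf Φ l0 mm ra a Z q :=
  le_max_of_le_right (div_nonneg (abs_nonneg _) hra.le)

/-- **the field `eg` of `DIn` for all barriers of `exists_bars`**, numbers of record -/
theorem eg_bars (hLa : IsOpen La) (hδ : 0 < δ) (hR : 0 < R) (H : Hm f g Om La)
    (hC : Cores Φ T f κ1 κ2 X J0 J V ct A lam z θ φ) (hκ1 : 0 ≤ κ1)
    (hμ : 0 < μ) (hμ1 : μ ≤ 1 / 2) (hκ : (2 * Cn δ R + 1) * κ1 ≤ μ ^ 2 / 512)
    (hd : ∀ c ∉ X, d c ≤ κ1) (hsg : sg ≤ μ / 16)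
    (hRm : ∀ c ∉ X, Rm Φ T f c (J0 c) (J c) (V c) (θ c) (ρ1 c) (ρ2 c) (ρ3 c) (ρ4 c) (d c))
    (hGB : GFB Φ r₀ T f L (lBM Φ X ρ1 ρ3 d sg (μ / 8) (1 / 2) (1 / 2 - 5 * μ / 16)) ε)
    (hB : BarF Φ T f J0 J V θ (fun m : BM Φ X => m.co) (fun m => ρ1 m.co)
      (fun m => ρ2 m.co) (fun m => ρ3 m.co) (fun m => ρ4 m.co) (fun m => d m.co)
      (fun m => gmf Φ (μ / 8) (1 / 2) (1 / 2 - 5 * μ / 16) m.am m.Zm) (fun m => rB ρ1 ρ3 d m.co)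
      (fun m => Bgf_4.hB ρ1 ρ3 d m.co) (fun _ => 1) (fun m => hiB ρ1 ρ3 d sg m.co)
      (fun m => max (d m.co / (μ / 8)) (d m.co / (1 / 2 - 5 * μ / 16))) q₀ (fun _ => 0))
    (hε : ∀ m, ε m ∈ Ioo 1 (hiB ρ1 ρ3 d sg m.co))
    (hb : BBase T f L (lBM Φ X ρ1 ρ3 d sg (μ / 8) (1 / 2) (1 / 2 - 5 * μ / 16)) ε bp bm)
    (hga : ∀ m : BM Φ X, ρ3 m.co + 6 * d m.co ≤ ga Φ m.co (f (bm m)) ∧
      ga Φ m.co (f (bm m)) ≤ ρ4 m.co)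
    (hlab : ∀ m : BM Φ X, ∃ lm,
        FarL T (Om ∩ f ⁻¹' {y | ga Φ m.co y ≤ ρ4 m.co}) (gPts (stB hGB bp bm) (Sum.inr m)) lm ∧
        (∀ b, b + max (d m.co / (μ / 8)) (d m.co / (1 / 2 - 5 * μ / 16)) < ε m →
          IsPreconnected {q | q ∈ frontier m.co.1.set ∧
            gmf Φ (μ / 8) (1 / 2) (1 / 2 - 5 * μ / 16) m.am m.Zm q ≤ b} →
          0 ≤ b → ∀ v ∈ Om, T.dim v = 0 →
          rB ρ1 ρ3 d m.co - Bgf_4.hB ρ1 ρ3 d m.co * ε m + 2 * d m.co ≤ ga Φ m.co (f v) →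
          ga Φ m.co (f v) ≤ rB ρ1 ρ3 d m.co + Bgf_4.hB ρ1 ρ3 d m.co * ε m - 2 * d m.co →
          gmf Φ (μ / 8) (1 / 2) (1 / 2 - 5 * μ / 16) m.am m.Zm (Φ.Psi (f v)) ≤ b → lm v = 1) ∧
        ∀ b, ε m + max (d m.co / (μ / 8)) (d m.co / (1 / 2 - 5 * μ / 16)) < b →
          IsPreconnected {q | q ∈ frontier m.co.1.set ∧
            b ≤ gmf Φ (μ / 8) (1 / 2) (1 / 2 - 5 * μ / 16) m.am m.Zm q} →
          {q | q ∈ frontier m.co.1.set ∧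
            b ≤ gmf Φ (μ / 8) (1 / 2) (1 / 2 - 5 * μ / 16) m.am m.Zm q}.Nonempty →
          ∀ v ∈ Om, T.dim v = 0 →
            (ga Φ m.co (f v) ≤ rB ρ1 ρ3 d m.co - Bgf_4.hB ρ1 ρ3 d m.co * ε m - 2 * d m.co ∨
              rB ρ1 ρ3 d m.co + Bgf_4.hB ρ1 ρ3 d m.co * ε m + 2 * d m.co ≤ ga Φ m.co (f v) ∨
              b ≤ gmf Φ (μ / 8) (1 / 2) (1 / 2 - 5 * μ / 16) m.am m.Zm (Φ.Psi (f v))) →
            lm v = 0)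
    (m : BM Φ X) (c : {c : Φ.F // c ∉ X}) (hm : m.co = c.1)
    {p q : Φ.F} (hM : Mo (Pc Φ.F) m.co m.am m.Zm p q) {v0 v1 : VxK T (KT T J X) c}
    (hv0 : ∀ e, |sb Φ (θ m.co v0.1) e - uu m.am m.Zm p q (1 / 2) 0 e| ≤
      (2 * Cn δ R + 1) * κ1)
    (hv1 : ∀ e, |sb Φ (θ m.co v1.1) e - uu m.am m.Zm p q (1 / 2) 1 e| ≤
      (2 * Cn δ R + 1) * κ1) :
    Nonempty (EG (stB hGB bp bm) (Sum.inr m)
      (SB Om Φ r₀ f L (lBM Φ X ρ1 ρ3 d sg (μ / 8) (1 / 2) (1 / 2 - 5 * μ / 16)) ε (Sum.inr m))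
      (KT T J X) c v0 v1 (bm m)) := by
  have hX := m.co_notMem
  have hr := hRm m.co hX
  have hd0 := hr.d0
  have hdκ := hd m.co hX
  have hra := RA_ge hμ1
  have hra0 : 0 < 1 / 2 - 5 * μ / 16 := by linarith
  have hh : 12 * d m.co ≤ Bgf_4.hB ρ1 ρ3 d m.co := by
    unfold Bgf_4.hB
    linarith [hr.r12, hr.r23]
  have hh0 : 0 < Bgf_4.hB ρ1 ρ3 d m.co := by linarith
  have e1 := rB_sub (ρ1 := ρ1) (ρ3 := ρ3) (d := d) m.co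
  have e2 := rB_add (ρ1 := ρ1) (ρ3 := ρ3) (d := d) m.co
  have e3 := hB_mul_hiB (sg := sg) hh0
  have e4 := hiB_le (ρ1 := ρ1) (ρ3 := ρ3) (d := d) sg m.co
  have hCn := Cn_nonneg hδ hR
  have hκκ : κ1 ≤ μ ^ 2 / 512 := le_trans (by nlinarith) hκ
  obtain ⟨lm, l1, l2, l3⟩ := hlab m
  refine eg_rec (Mo' := BM Φ X) (m := m) hLa hδ hR H hC c hB hGB hm (hε m) ?_ ?_ ?_ (hb.bar m)
    (hga m).1 hμ hμ1 hκ1 hκ hM rfl le_rfl ?_ ?_ ?_ hv0 hv1 (lm := lm) ?_ ?_ l3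
  · show rB ρ1 ρ3 d m.co - Bgf_4.hB ρ1 ρ3 d m.co * 1 ≤ ρ1 m.co + 5 * d m.co
    linarith
  · show ρ3 m.co + 10 * d m.co ≤ rB ρ1 ρ3 d m.co + Bgf_4.hB ρ1 ρ3 d m.co * 1
    linarith
  · show rB ρ1 ρ3 d m.co + Bgf_4.hB ρ1 ρ3 d m.co * hiB ρ1 ρ3 d sg m.co ≤ ρ3 m.co + 15 * d m.co
    linarith
  · show hiB ρ1 ρ3 d sg m.co ≤ 1 + μ / 16
    linarith
  · show max (d m.co / (μ / 8)) (d m.co / (1 / 2 - 5 * μ / 16)) ≤ μ / 64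
    refine max_le ?_ ?_
    · rw [div_le_iff₀ (by positivity)]
      have : μ / 64 * (μ / 8) = μ ^ 2 / 512 := by ring
      linarith
    · rw [div_le_iff₀ hra0]
      have h1 : μ / 64 * (μ / 8) = μ ^ 2 / 512 := by ring
      have h2 : μ / 64 * (μ / 8) ≤ μ / 64 * (1 / 2 - 5 * μ / 16) :=
        mul_le_mul_of_nonneg_left (L0_le_RA hμ1) (by positivity)
      linarith
  · show (0 : ℝ) ≤ 1 / 8
    norm_num
  · exact l1.lab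
  · exact fun b h1 h2 h3 => l2 b h1 h2 ((gmf_nonneg hra0 _).trans h3)

end Crest.Agent.R096.Ebr7_95
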