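import Crest.Agent.R096.Dib4_438
import Crest.Agent.R096.Bgf11_4
import Crest.Agent.R096.Ebr7_95
import Crest.Agent.R096.Dfn5_416
import Crest.Agent.R096.Dfg1_539
import Crest.Agent.R096.Dff2_539

/-! Row 96 (helper438), DOORS, part 5: **LEAF A** : the combined outer state with all barriers, its
input of the towers and the position record, from the data of INIT. -/

set_option autoImplicit false
set_option linter.unusedSectionVars false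
set_option linter.style.longLine false

open Set Topology Filter Metric Module MeasureTheory
open scoped Classical

namespace Crest.Agent.R096.Dib_438

open Crest.Agent.R096.Msh_715 Crest.Agent.R096.Coh_184 Crest.Agent.R096.Bsp_628
  Crest.Agent.R096.Brk1_582 Crest.Agent.R096.Brk2_582 Crest.Agent.R096.Brk3_582
  Crest.Agent.R096.Brk5_582 Crest.Agent.R096.Init_543 Crest.Agent.R096.Mbf_337
  Crest.Agent.R96.Push_899 Crest.Agent.R096.Ess4_95 Crest.Agent.R096.Ess5_95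
  Crest.Agent.R096.Lab_184 Crest.Agent.R096.Main_4 Crest.Agent.R096.Exa_560
  Crest.Agent.R096.Agl5_543 Crest.Agent.R096.Agl6_543
  Crest.Agent.R096.Seq_213 Crest.Agent.R096.St_147 Crest.Agent.R096.Door_501
  Crest.Agent.R096.Twr_438 Crest.Agent.R096.Bar_106 Crest.Agent.R096.Ebr4_95
  Crest.Agent.R096.Bgf_4
open Crest.Agent.R096.SkC1_961 (E3 Hom3 IsPush FoamD)
open Crest.Agent.R096.Ess3_95 (Car car_gmain)
open Crest.Agent.R096.Ess7_95 (KT Sh)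
open Crest.Agent.R096.Frn_337 (Ti)
open Crest.Agent.R096.Dia_316 (nbT)
open Crest.Agent.R096.Dfi_539 (DIn)
open Crest.Agent.R096.Dff_539 (vS fmB)
open Crest.Agent.R096.Dfg_539 (BRec)
open Crest.Agent.R096.Dfn_416 (BarS)
open Crest.Agent.R096.Bmf_416 (coT)

variable {δ κ0 R c0 : ℝ} {La Om : Set E3} {ι : Type} {Φ : FoamD δ κ0 R c0 La} {T : Tiling Om ι}
  {f g : E3 → E3} {κ1 κ2 μ : ℝ} {X : Set Φ.F} {J0 J V : Φ.F → Set ι}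
  {ct ct' : Φ.F → ι} {A : Φ.F → E3 ≃ᵃ[ℝ] E3} {lam : Φ.F → ℝ} {z : Φ.F → E3}
  {θ : Φ.F → E3 → E3} {φ : Φ.F → E3 → ℝ} {r₀ : Φ.F → ℝ}
  {L : Φ.F → Finset ℝ} [Nonempty (JJ Φ L)] {hG : GF Φ r₀ T f L} {bp : JJ Φ L → E3}

/-- **the numbers of record** of the barrier functions -/
noncomputable abbrev lRc (Φ : FoamD δ κ0 R c0 La) (X : Set Φ.F) (μ : ℝ) (ρ1 ρ3 d : Φ.F → ℝ) :
    BM Φ X → E3 → ℝ := lBM Φ X ρ1 ρ3 d (μ / 16) (μ / 8) (1 / 2) (1 / 2 - 5 * μ / 16)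

/-- **the geometric output about the barriers** (4's `exists_bars`, numbers of record) and the
vertices -/
structure BarOut (Φ : FoamD δ κ0 R c0 La) (T : Tiling Om ι) (f : E3 → E3) (κ1 μ : ℝ) (X : Set Φ.F)
    (J0 J V : Φ.F → Set ι) (θ : Φ.F → E3 → E3) {r₀ : Φ.F → ℝ} {L : Φ.F → Finset ℝ}
    [Nonempty (JJ Φ L)] (hG : GF Φ r₀ T f L) (bp : JJ Φ L → E3) (N : BM Φ X → Set ℝ)
    (ρ1 ρ2 ρ3 ρ4 d : Φ.F → ℝ) (q₀ : BM Φ X → E3) (ε : BM Φ X → ℝ) (bm : BM Φ X → E3)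
    (hGB : GFB Φ r₀ T f L (lRc Φ X μ ρ1 ρ3 d) ε)
    (v0B v1B : ∀ c, BM Φ X → VxK T (KT T J X) c) : Prop where
  rm : ∀ c ∉ X, d c ≤ κ1 ∧ Rm Φ T f c (J0 c) (J c) (V c) (θ c) (ρ1 c) (ρ2 c) (ρ3 c) (ρ4 c) (d c)
  barF : BarF Φ T f J0 J V θ (fun m : BM Φ X => m.co) (fun m => ρ1 m.co)
        (fun m => ρ2 m.co) (fun m => ρ3 m.co) (fun m => ρ4 m.co) (fun m => d m.co)
        (fun m => gmf Φ (μ / 8) (1 / 2) (1 / 2 - 5 * μ / 16) m.am m.Zm)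
        (fun m => rB ρ1 ρ3 d m.co)
        (fun m => Bgf_4.hB ρ1 ρ3 d m.co) (fun _ => 1) (fun m => hiB ρ1 ρ3 d (μ / 16) m.co)
        (fun m => max (d m.co / (μ / 8)) (d m.co / (1 / 2 - 5 * μ / 16))) q₀ (fun _ => 0)
  lv : ∀ m, ε m ∈ Ioo 1 (hiB ρ1 ρ3 d (μ / 16) m.co)
  new : ∀ m, ε m ∉ N m
  base : BBase T f L (lRc Φ X μ ρ1 ρ3 d) ε bp bm
  ext : Ext (st0 hG bp) (stB hGB bp bm)
  h1 : ∀ j, (stB hGB bp bm).H1 j
  conn : ∀ j, (stB hGB bp bm).Conn j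
  triv : ∀ j, TrivF (ZMod 2) (SB Om Φ r₀ f L (lRc Φ X μ ρ1 ρ3 d) ε j)
  root : ∀ m, bm m ∈ (stB hGB bp bm).P ∧ (stB hGB bp bm).lab (bm m) = Sum.inr m
  rga : ∀ m : BM Φ X, ρ3 m.co + 6 * d m.co ≤ ga Φ m.co (f (bm m)) ∧
    ga Φ m.co (f (bm m)) ≤ ρ4 m.co
  out : ∀ (m : BM Φ X) (c : Φ.F), bm m ∉ KJ T (J c)
  pos : ∀ m, ∀ w ∈ (stB hGB bp bm).P, (stB hGB bp bm).lab w = Sum.inr m →
    w ∈ Om ∧ T.dim w = 1 ∧ lRc Φ X μ ρ1 ρ3 d m (f w) = ε m ∧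
      (∀ i, w ∈ P (T.H i) → i ∈ V m.co) ∧
      (rB ρ1 ρ3 d m.co - Bgf_4.hB ρ1 ρ3 d m.co * ε m ≤ ga Φ m.co (f w) ∧
        ga Φ m.co (f w) ≤ rB ρ1 ρ3 d m.co + Bgf_4.hB ρ1 ρ3 d m.co * ε m ∧
        gmf Φ (μ / 8) (1 / 2) (1 / 2 - 5 * μ / 16) m.am m.Zm (Φ.Psi (f w)) ≤ ε m ∧
        (ga Φ m.co (f w) = rB ρ1 ρ3 d m.co - Bgf_4.hB ρ1 ρ3 d m.co * ε m ∨
          ga Φ m.co (f w) = rB ρ1 ρ3 d m.co + Bgf_4.hB ρ1 ρ3 d m.co * ε m ∨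
          gmf Φ (μ / 8) (1 / 2) (1 / 2 - 5 * μ / 16) m.am m.Zm (Φ.Psi (f w)) = ε m))
  /-- the gauge of a barrier point in the radii of `Rm` -/
  gau : ∀ m, ∀ w ∈ (stB hGB bp bm).P, (stB hGB bp bm).lab w = Sum.inr m →
    ρ1 m.co + 3 * d m.co ≤ ga Φ m.co (f w) ∧ ga Φ m.co (f w) ≤ ρ3 m.co + 13 * d m.co
  /-- levels of a barrier point -/
  lev : ∀ m, ∀ w ∈ (stB hGB bp bm).P, (stB hGB bp bm).lab w = Sum.inr m →
    (∀ e, 0 ≤ Φ.lev e (f w) ∧ Φ.lev e (f w) ≤ 1) ∧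
      Gm (μ / 8) (1 / 2) (1 / 2 - 5 * μ / 16) m.am m.Zm (fun e => Φ.lev e (f w)) ≤ 1 + μ / 16
  lab : ∀ m, ∃ lm,
        FarL T (Om ∩ f ⁻¹' {y | ga Φ m.co y ≤ ρ4 m.co}) (gPts (stB hGB bp bm) (Sum.inr m)) lm ∧
        (∀ b, b + max (d m.co / (μ / 8)) (d m.co / (1 / 2 - 5 * μ / 16)) < ε m →
          IsPreconnected {q | q ∈ frontier m.co.1.set ∧
            gmf Φ (μ / 8) (1 / 2) (1 / 2 - 5 * μ / 16) m.am m.Zm q ≤ b} →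
          0 ≤ b → ∀ v ∈ Om, T.dim v = 0 →
          rB ρ1 ρ3 d m.co - Bgf_4.hB ρ1 ρ3 d m.co * ε m + 2 * d m.co ≤ ga Φ m.co (f v) →
          ga Φ m.co (f v) ≤ rB ρ1 ρ3 d m.co + Bgf_4.hB ρ1 ρ3 d m.co * ε m - 2 * d m.co →
          gmf Φ (μ / 8) (1 / 2) (1 / 2 - 5 * μ / 16) m.am m.Zm (Φ.Psi (f v)) ≤ b → lm v = 1) ∧
        ∀ b, ε m + max (d m.co / (μ / 8)) (d m.co / (1 / 2 - 5 * μ / 16)) < b →
          IsPreconnected {q | q ∈ frontier m.co.1.set ∧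
            b ≤ gmf Φ (μ / 8) (1 / 2) (1 / 2 - 5 * μ / 16) m.am m.Zm q} →
          {q | q ∈ frontier m.co.1.set ∧
            b ≤ gmf Φ (μ / 8) (1 / 2) (1 / 2 - 5 * μ / 16) m.am m.Zm q}.Nonempty →
          ∀ v ∈ Om, T.dim v = 0 →
            (ga Φ m.co (f v) ≤ rB ρ1 ρ3 d m.co - Bgf_4.hB ρ1 ρ3 d m.co * ε m - 2 * d m.co ∨
              rB ρ1 ρ3 d m.co + Bgf_4.hB ρ1 ρ3 d m.co * ε m + 2 * d m.co ≤ ga Φ m.co (f v) ∨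
              b ≤ gmf Φ (μ / 8) (1 / 2) (1 / 2 - 5 * μ / 16) m.am m.Zm (Φ.Psi (f v))) →
            lm v = 0
  v0 : ∀ c m, coT m = c → ∀ e, |sb Φ (θ c.1 (v0B c m).1) e -
      uu m.am m.Zm (pp m) (qq m) (1 / 2) 0 e| ≤ (2 * Cn δ R + 1) * κ1
  v1 : ∀ c m, coT m = c → ∀ e, |sb Φ (θ c.1 (v1B c m).1) e -
      uu m.am m.Zm (pp m) (qq m) (1 / 2) 1 e| ≤ (2 * Cn δ R + 1) * κ1

/-- `nb` of the combined state -/
abbrev nbA (Φ : FoamD δ κ0 R c0 La) (X : Set Φ.F) (c : Ti X) : Φ.F ⊕ BM Φ X → Prop :=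
  Sum.elim (nbT Φ X c) (fun m : BM Φ X => coT m = c)

/-- level functions of the combined state -/
noncomputable abbrev uA (Φ : FoamD δ κ0 R c0 La) (hLa : IsOpen La) (X : Set Φ.F)
    (θ : Φ.F → E3 → E3) (c : Ti X) : Φ.F ⊕ BM Φ X → E3 → ℝ :=
  Sum.elim (fun a x => sb Φ (θ c.1 x) a) (uM Φ hLa BM.am BM.Zm θ c)

/-- lower ends of the windows -/
noncomputable abbrev AA (Φ : FoamD δ κ0 R c0 La) (X : Set Φ.F) (μ κ1 : ℝ) (_ : Ti X) :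
    Φ.F ⊕ BM Φ X → ℝ := Sum.elim (fun _ => 1 - μ + Cn δ R * κ1) (fun _ => 5 * μ / 32)

/-- upper ends of the windows -/
noncomputable abbrev BA (Φ : FoamD δ κ0 R c0 La) (X : Set Φ.F) (μ : ℝ) (_ : Ti X) :
    Φ.F ⊕ BM Φ X → ℝ := Sum.elim (fun _ => 1 - μ / 2) (fun _ => 3 * μ / 16)

/-- the sheets of the combined state -/
noncomputable abbrev SfA (Om : Set E3) (Φ : FoamD δ κ0 R c0 La) (X : Set Φ.F) (r₀ : Φ.F → ℝ)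
    (f : E3 → E3) (L : Φ.F → Finset ℝ) (μ : ℝ) (ρ1 ρ3 d : Φ.F → ℝ) (ε : BM Φ X → ℝ) :
    JJ Φ L ⊕ BM Φ X → Set E3 :=
  Sum.elim (fun j => Sh Om Φ r₀ f j)
    (fun m => SB Om Φ r₀ f L (lRc Φ X μ ρ1 ρ3 d) ε (Sum.inr m))

/-- **the barriers of the machine**, geometric part -/
theorem exists_barOut (hLa : IsOpen La) (hδ : 0 < δ) (hR : 0 < R) (hκ0 : 0 < κ1) (hμ : 0 < μ)
    (hμ1 : μ ≤ 1 / 2) (hκ : (2 * Cn δ R + 1) * κ1 ≤ μ ^ 2 / 512)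
    (hC : Cores Φ T f κ1 κ2 X J0 J V ct A lam z θ φ) (hI : InitR Φ T f g J0 ct' r₀)
    (hL : ∀ c, ∀ t ∈ L c, 0 < t ∧ t < 1)
    (hbp : ∀ j : JJ Φ L, bp j ∈ Om ∧ T.dim (bp j) = 1 ∧ Φ.lev j.1 (f (bp j)) = j.2.1)
    (N : BM Φ X → Set ℝ) (hN0 : ∀ m, volume (N m) = 0) :
    ∃ (ρ1 ρ2 ρ3 ρ4 d : Φ.F → ℝ) (q₀ : BM Φ X → E3) (ε : BM Φ X → ℝ) (bm : BM Φ X → E3)
      (hGB : GFB Φ r₀ T f L (lRc Φ X μ ρ1 ρ3 d) ε)
      (v0B v1B : ∀ c, BM Φ X → VxK T (KT T J X) c),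
      BarOut Φ T f κ1 μ X J0 J V θ hG bp N ρ1 ρ2 ρ3 ρ4 d q₀ ε bm hGB v0B v1B := by
  have hCn := Cn_nonneg hδ hR
  have hk : 0 ≤ Cn δ R * κ1 := mul_nonneg hCn hκ0.le
  have e1 : (2 * Cn δ R + 1) * κ1 = 2 * (Cn δ R * κ1) + κ1 := by ring
  have e2 : μ ^ 2 / 512 ≤ μ / 1024 := by nlinarith
  have hk1 : Cn δ R * κ1 < 1 := by linarith
  obtain ⟨ρ1, ρ2, ρ3, ρ4, d, hrm⟩ := Dia_316.exists_rms hC
  have hra : 0 < 1 / 2 - 5 * μ / 16 := by linarith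
  obtain ⟨q₀, ε, bm, hGB, hB, hε, hεN, hb, hext, hH1, hcn, htr, hroot, hga, hout, hpos, hlab⟩ :=
    exists_bars (hG := hG) (ρ1 := ρ1) (ρ2 := ρ2) (ρ3 := ρ3) (ρ4 := ρ4) (d := d) (l0 := μ / 8)
      (mm := 1 / 2) (ra := 1 / 2 - 5 * μ / 16) (sg := μ / 16) hLa hδ hR hC hI
      (fun c hc => (hrm c hc).2) (by positivity)
      (Ebr6_95.nm_rec' hμ hμ1 (by positivity) (by linarith))
      (fun c hc => by have := (hrm c hc).1; linarith)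
      (fun c hc => by have := (hrm c hc).1; linarith) hL hbp N hN0
  obtain ⟨v0, hv0⟩ := exists_vbm (x := (1 / 2, 0)) hLa hδ hR hk1 hC r0
  obtain ⟨v1, hv1⟩ := exists_vbm (x := (1 / 2, 1)) hLa hδ hR hk1 hC r1
  have hgau : ∀ m, ∀ w ∈ (stB hGB bp bm).P, (stB hGB bp bm).lab w = Sum.inr m →
      ρ1 m.co + 3 * d m.co ≤ ga Φ m.co (f w) ∧ ga Φ m.co (f w) ≤ ρ3 m.co + 13 * d m.co := by
    intro m w hw hl
    obtain ⟨-, -, -, -, g1, g2, -⟩ := hpos m w hw hl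
    have hr := (hrm m.co m.co_notMem).2
    have hh0 : 0 < Bgf_4.hB ρ1 ρ3 d m.co := by
      unfold Bgf_4.hB
      linarith [hr.r12, hr.r23, hr.d0]
    have e3 := rB_sub (ρ1 := ρ1) (ρ3 := ρ3) (d := d) m.co
    have e4 := rB_add (ρ1 := ρ1) (ρ3 := ρ3) (d := d) m.co
    have e5 := hB_mul_hiB (sg := μ / 16) hh0
    have e6 := mul_lt_mul_of_pos_left (hε m).2 hh0
    constructor <;> linarith
  refine ⟨ρ1, ρ2, ρ3, ρ4, d, q₀, ε, bm, hGB, v0, v1, hrm, hB, hε, hεN, hb, hext, hH1, hcn, htr,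
    hroot, hga, hout, hpos, hgau, fun m w hw hl => ?_, hlab, fun c m hm => hv0 c m hm,
    fun c m hm => hv1 c m hm⟩
  obtain ⟨g0, -, -, -, -, -, g3, -⟩ := hpos m w hw hl
  have hr := (hrm m.co m.co_notMem).2
  obtain ⟨g4, g5⟩ := hgau m w hw hl
  refine ⟨(lev_Icc hLa hI.hm (hC.tiny m.co m.co_notMem) hr g0 (by linarith [hr.d0])
    (by linarith [hr.d0, hr.r34])).2, ?_⟩
  have e5 := hiB_le (ρ1 := ρ1) (ρ3 := ρ3) (d := d) (μ / 16) m.co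
  exact g3.trans ((hε m).2.le.trans e5)

/-- the half record of the barriers -/
theorem BarOut.dinR {N : BM Φ X → Set ℝ} {ρ1 ρ2 ρ3 ρ4 d : Φ.F → ℝ} {q₀ : BM Φ X → E3}
    {ε : BM Φ X → ℝ} {bm : BM Φ X → E3} {hGB : GFB Φ r₀ T f L (lRc Φ X μ ρ1 ρ3 d) ε}
    {v0B v1B : ∀ c, BM Φ X → VxK T (KT T J X) c}
    (h : BarOut Φ T f κ1 μ X J0 J V θ hG bp N ρ1 ρ2 ρ3 ρ4 d q₀ ε bm hGB v0B v1B)
    (hLa : IsOpen La) (hδ : 0 < δ) (hR : 0 < R) (hκ0 : 0 < κ1) (hμ : 0 < μ)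
    (hμ1 : μ ≤ 1 / 2) (hκ : (2 * Cn δ R + 1) * κ1 ≤ μ ^ 2 / 512)
    (hC : Cores Φ T f κ1 κ2 X J0 J V ct A lam z θ φ) (hI : InitR Φ T f g J0 ct' r₀) :
    DInR (fun c => Dia_316.coreH_KT hC c) (stB hGB bp bm) bm
      (fun m => SB Om Φ r₀ f L (lRc Φ X μ ρ1 ρ3 d) ε (Sum.inr m)) (fun c m => coT m = c) v0B v1B
      (uM Φ hLa BM.am BM.Zm θ) (fun _ _ => 5 * μ / 32) (fun _ _ => 3 * μ / 16) := by
  have hCn := Cn_nonneg hδ hR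
  have hk : 0 ≤ Cn δ R * κ1 := mul_nonneg hCn hκ0.le
  have e1 : (2 * Cn δ R + 1) * κ1 = 2 * (Cn δ R * κ1) + κ1 := by ring
  have e2 : μ ^ 2 / 512 ≤ μ / 1024 := by nlinarith
  have e3 : μ / 8 * (1 + μ / 16) ≤ μ / 8 + μ / 256 := by nlinarith
  have e4 : (1 / 2 - 5 * μ / 16) * (1 + μ / 16) ≤ 1 / 2 - 5 * μ / 16 + μ / 32 := by nlinarith
  refine dinR_BM (l0 := μ / 8) (mm := 1 / 2) (ra := 1 / 2 - 5 * μ / 16) (hi' := 1 + μ / 16)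
    hLa hδ hR hκ0 hI.hm hC (Ebr6_95.nm_rec' hμ hμ1 (by positivity) (by linarith))
    (by linarith) (by linarith) (by linarith) (by linarith) (by linarith) (by linarith)
    (fun m => h.h1 _) (fun m => h.conn _) h.root h.out
    (fun m => car_gmain hGB (fun i => h.base.mem hLa hI i) (Sum.inr m) (h.triv _))
    (fun m x hx => hx.1) (fun m w hw hl => ?_) (fun c m hm => h.v0 c m hm)
    (fun c m hm => h.v1 c m hm) (fun c m hm => ?_)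
  · obtain ⟨g0, g1, -, g2, -, -, g3, -⟩ := h.pos m w hw hl
    exact ⟨g0, g1, g2, g3.trans ((h.lv m).2.le.trans (hiB_le (μ / 16) m.co))⟩
  · refine Ebr7_95.eg_bars hLa hδ hR hI.hm hC hκ0.le hμ hμ1 hκ (fun c hc => (h.rm c hc).1) le_rfl
      (fun c hc => (h.rm c hc).2) hGB h.barF h.lv h.base h.rga h.lab m c ?_ (mo_pq m) ?_ ?_
    · rw [← hm]; rfl
    · have := h.v0 c m hm
      rw [← hm] at this
      subst hm
      exact this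
    · have := h.v1 c m hm
      subst hm
      exact this

end Crest.Agent.R096.Dib_438
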