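import Crest.Agent.R096.Cns3_778
import Crest.Agent.R096.Wy2_664
import Crest.Agent.R096.Dib5_438
import Crest.Agent.R096.Tro4_147

/-!
# R096 (row 96), DOORS, CONN-T (helper778), part 4: the inputs of 147's `trOut_m`

* `connT_prS` : `ConnT` for a smaller connected part (the root need not be in it);
* `connT_m`, `hRR_m`, `hSS_m` : `hRS`, `hRR`, `hSS` of 147's `trOut_m` (threshold `ρ3 + 7 d`); the only
  input is (NE).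
-/

set_option autoImplicit false
set_option linter.unusedSectionVars false
set_option linter.unusedVariables false
set_option linter.style.longLine false

open Set Topology Filter Metric Module Relation
open scoped Classical

namespace Crest.Agent.R096.Cns_778

open Crest.Agent.R096.Msh_715 Crest.Agent.R096.Coh_184 Crest.Agent.R096.Lab_184
  Crest.Agent.R096.Main_4 Crest.Agent.R096.Agl5_543
  Crest.Agent.R096.Seq_213 Crest.Agent.R096.St_147 Crest.Agent.R096.Door_501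
  Crest.Agent.R096.Twr_438 Crest.Agent.R096.Exa_560
  Crest.Agent.R096.Ess3_95 Crest.Agent.R096.Ess4_95
  Crest.Agent.R096.Dfi_471 Crest.Agent.R096.Sla_184
  Crest.Agent.R096.Brk1_582 Crest.Agent.R096.Brk2_582 Crest.Agent.R096.Brk3_582
  Crest.Agent.R096.Brk5_582 Crest.Agent.R096.Bsp_628 Crest.Agent.R096.Init_543
  Crest.Agent.R096.Dib_438 Crest.Agent.R096.Rop_441
  Crest.Agent.R096.Frs_662 Crest.Agent.R096.Cg_501 Crest.Agent.R096.SecW_892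
  Crest.Agent.R096.Nmd1_698 Crest.Agent.R096.Pbn_147 Crest.Agent.R096.Bar_106
  Crest.Agent.R096.Ebr4_95 Crest.Agent.R096.Bgf_4 Crest.Agent.R096.Ess5_95
open Crest.Agent.R096.Sgo_298 (RmA rout ActR)
open Crest.Agent.R096.Mbf_337 (KJ Tiny Cores Fine Words sb gau)
open Crest.Agent.R096.SkC1_961 (E3 FoamD Hom3)
open Crest.Agent.R096.Frn_337 (Ti)
open Crest.Agent.R096.Ess7_95 (KT)
open Crest.Agent.R096.Bmf_416 (coT coT_fin)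
open Crest.Agent.R096.Sla_184.Sla (old Fn Out F0)

section small

variable {E : Type} [NormedAddCommGroup E] [NormedSpace ℝ E] [FiniteDimensional ℝ E]
variable {Om : Set E} {ι : Type} {T : Tiling Om ι} {κ : Type} {S : Sla T κ}
  {h3 : finrank ℝ E = 3} {J C Mo : Type} {fam : J → C} {am : Mo → C}
  {s : GSt (meshC T h3) (Sum.map fam (id : Mo → Mo))} {r : J ⊕ Mo → E}
  {Tw : Twrs (S.sh h3) S.n (outK S.hH S.dis s r)} {l0 : E → J ⊕ Mo}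
  {Sj Gm Gn : Mo → Set E} {a : C} {h w u x y : E}

theorem cl_mono {J' C' : Type} {fam' : J' → C'} {s' : GSt (meshC T h3) fam'} {j : J'}
    {G G' : Set E} (h : G' ⊆ G) : Cl s' j G' ⊆ Cl s' j G := by
  rintro u ⟨w, hw, h1, h2, h4⟩
  refine ⟨w, h hw, h1, h2, ?_⟩
  induction h4 with
  | refl => exact .refl
  | tail _ h5 ih =>
    obtain ⟨F, ⟨q, hq, hn⟩, hA, e⟩ := h5
    exact ih.tail ⟨F, ⟨q, hq, hn.mono (inter_subset_inter_right _ h)⟩, hA, e⟩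

/-- **the points of `m` in the smaller part are joined by chords on the faces of `RB a`** -/
theorem conn_sub (U : Upp S s r Sj Gm) (hc : ∀ m, IsPreconnected (Gn m))
    (hs : ∀ m, Gn m ⊆ Gm m) {m : Mo} (ha : am m = a) (hh : h ∈ (s2 S h3 Tw l0).P)
    (hl : (s2 S h3 Tw l0).lab h = Sum.inr m) (hG : h ∈ Gn m) {Y : Set E} (hY : h ∈ Y)
    (hcl : ∀ F ∈ RB S h3 am Gn a, ∀ y ∈ Y, (s2 S h3 Tw l0).At F y →
      (s2 S h3 Tw l0).lab y = Sum.inr m → (s2 S h3 Tw l0).mu F y ∈ Y) :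
    Cl s (Sum.inr m) (Gn m) ⊆ Y := by
  have : Nonempty (J ⊕ Mo) := ⟨Sum.inr m⟩
  have hcl0 : h ∈ Cl s (Sum.inr m) (Gn m) := by
    obtain ⟨q, hq⟩ := T.cov h (U.sub m (U.gs m (hs m hG)))
    have ho : S.Out h := Sla.out_of_tile (U.out m q ⟨h, hq, hs m hG⟩) hq
    obtain ⟨h1, h2⟩ := s2_out hh ho
    exact cl_of h1.1 (h2.symm.trans hl) hG
  refine cl_sub (U.car m) (hc m) ((hs m).trans (U.gs m)) hcl0 hY ?_
  rintro F w ⟨q, hqF, hqG⟩ hwY hwC hA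
  have hqK := U.out m q (hqG.mono (inter_subset_inter_right _ (hs m)))
  set F0 : S.F0 h3 := mkF0 F hqF hqK with hF0
  obtain ⟨g1, g2⟩ := U.mem_out (cl_mono (hs m) hwC)
  have hwF : w ∈ F0.1.On := hA.2
  obtain ⟨k1, k2, k4, k5⟩ := mu_out' (Tw := Tw) (l0 := l0) g1 hwF
  have h1 := hcl (old F0) ⟨m, ha, F0, rfl, q, hqF, hqG⟩ w hwY ⟨k1, k2⟩ (k4.trans g2)
  rw [k5] at h1
  exact h1

/-- **147's `ConnT` for the pair states of `s₂`**, for a smaller part -/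
theorem connT_sub (U : Upp S s r Sj Gm) (hc : ∀ m, IsPreconnected (Gn m))
    (hGn : ∀ m, Gn m ⊆ Gm m) {Act : C → Set (T.RIdx S.HH ⊕ κ)}
    {hs : BSep (s2 S h3 Tw l0) am} {hm : ∀ a, {m | am m = a}.Finite} {i0 : PN fam am a}
    {far : PN fam am a → Set E}
    (hy : ∀ m, am m = a → ∃ y ∈ s.P, s.lab y = Sum.inr m ∧ y ∈ Gn m ∧
      ¬ Dfo_539.Encl (s2 S h3 Tw l0) am Act m y) :
    ConnT (Act a) far (pr (s2 S h3 Tw l0) hs hm a i0) (RB S h3 am Gn a)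
      (SB am Gn (s2 S h3 Tw l0).lab a) := by
  rintro h ⟨m, ha, hl, hG⟩ hh Y hY hcl
  have hh' := (pr_hp.1 hh).1
  have e1 : Sum.elim fam am ((s2 S h3 Tw l0).lab h) = a := by rw [hl]; exact ha
  have key : ∀ y, y ∈ (s2 S h3 Tw l0).P → (s2 S h3 Tw l0).lab y = Sum.inr m →
      y ∈ (pr (s2 S h3 Tw l0) hs hm a i0).P ∧
      (pr (s2 S h3 Tw l0) hs hm a i0).lab y = (pr (s2 S h3 Tw l0) hs hm a i0).lab h := by
    intro y hy hly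
    have e2 : Sum.elim fam am ((s2 S h3 Tw l0).lab y) = a := by rw [hly]; exact ha
    refine ⟨mem_pr.2 ⟨hy, e2⟩, ?_⟩
    rw [pr_lab e1, pr_lab e2]
    exact Subtype.ext (hly.trans hl.symm)
  obtain ⟨y, y1, y2, y4, y5⟩ := hy m ha
  have h1 := conn_sub U hc hGn ha hh' hl hG hY (by
    intro F hF y hyY hA hly
    obtain ⟨g1, g2⟩ := key y hA.1 hly
    exact hcl F hF y hyY ⟨g1, hA.2⟩ g2) (cl_of y1 y2 y4)
  obtain ⟨h7, h8⟩ := U.mem_s2' (Tw := Tw) (l0 := l0) (cl_mono (hGn m) (cl_of y1 y2 y4))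
  obtain ⟨g1, g2⟩ := key y h7 h8
  exact ⟨y, h1, pr_hp.2 ⟨h7, m, ha, h8⟩, g2, fun he => y5 (encl_pr ha h8 he)⟩

end small

section mach

variable {δ κ0 R c0 : ℝ} {La Om : Set E3} {ι : Type} {Φ : FoamD δ κ0 R c0 La} {T : Tiling Om ι}
  {f g : E3 → E3} {κ1 κ2 μ : ℝ} {X : Set Φ.F} {J0 J V : Φ.F → Set ι}
  {ct ct' : Φ.F → ι} {Aj : Φ.F → E3 ≃ᵃ[ℝ] E3} {lam : Φ.F → ℝ} {z : Φ.F → E3}
  {θ : Φ.F → E3 → E3} {φ : Φ.F → E3 → ℝ} {r₀ : Φ.F → ℝ} {ρ1 ρ2 ρ3 ρ4 d : Φ.F → ℝ}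
  {L : Φ.F → Finset ℝ} [Nonempty (JJ Φ L)] {hG : GF Φ r₀ T f L} {bp : JJ Φ L → E3}
  {Nn : BM Φ X → Set ℝ} {q₀ : BM Φ X → E3} {ε : BM Φ X → ℝ} {bm : BM Φ X → E3}
  {hGB : GFB Φ r₀ T f L (lRc Φ X μ ρ1 ρ3 d) ε}
  {v0B v1B : ∀ c, BM Φ X → VxK T (KT T J X) c} {r : JJ Φ L → E3}
  {hLa : IsOpen La} {hC : Cores Φ T f κ1 κ2 X J0 J V ct Aj lam z θ φ}
  {n : Ti X → ℕ} {hn : ∀ c, 0 < n c}
  {Tw : Twrs ((slC hLa hC n hn).sh fr3) (slC hLa hC n hn).n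
    (outK (slC hLa hC n hn).hH (slC hLa hC n hn).dis (stB hGB bp bm) (Sum.elim r bm))}
  {l0' : E3 → JJ Φ L ⊕ BM Φ X}

/-- the part of the barrier of record above the gauge `ρ3 + 7 d` -/
abbrev GmT (Om : Set E3) (Φ : FoamD δ κ0 R c0 La) (f : E3 → E3) (X : Set Φ.F) (μ : ℝ)
    (ρ1 ρ3 d : Φ.F → ℝ) (ε : BM Φ X → ℝ) (m : BM Φ X) : Set E3 :=
  Gma Om Φ f (fun m : BM Φ X => m.co) (lRc Φ X μ ρ1 ρ3 d) ε (fun m => ρ3 m.co + 7 * d m.co) m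

theorem gmT_sub (hRm : RmA Φ T f X J0 J V θ ρ1 ρ2 ρ3 ρ4 d) (m : BM Φ X) :
    GmT Om Φ f X μ ρ1 ρ3 d ε m ⊆
      GmB Om Φ f X ρ1 ρ3 d (μ / 16) (μ / 8) (1 / 2) (1 / 2 - 5 * μ / 16) ε m := by
  rintro x ⟨h1, h2, h3⟩
  refine ⟨h1, h2, ?_⟩
  have hd := (hRm m.co m.co_notMem).d0
  have h4 : ρ3 m.co + 7 * d m.co ≤ ga Φ m.co (f x) := h3
  show ρ3 m.co + 6 * d m.co ≤ ga Φ m.co (f x)
  linarith

/-- a point of the name `m` above the gauge `ρ3 + 7 d` -/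
theorem mem_gmT (hLa : IsOpen La)
    (B : BarOut Φ T f κ1 μ X J0 J V θ hG bp Nn ρ1 ρ2 ρ3 ρ4 d q₀ ε bm hGB v0B v1B) {m : BM Φ X}
    {w : E3} (hw : w ∈ (stB hGB bp bm).P) (hl : (stB hGB bp bm).lab w = Sum.inr m)
    (hg : ρ3 m.co + 7 * d m.co ≤ ga Φ m.co (f w)) : w ∈ GmT Om Φ f X μ ρ1 ρ3 d ε m := by
  obtain ⟨h1, h2, h3, -⟩ := B.pos m w hw hl
  exact ⟨h1, h3, hg⟩

theorem rmA_of (B : BarOut Φ T f κ1 μ X J0 J V θ hG bp Nn ρ1 ρ2 ρ3 ρ4 d q₀ ε bm hGB v0B v1B) :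
    RmA Φ T f X J0 J V θ ρ1 ρ2 ρ3 ρ4 d := fun c hc => (B.rm c hc).2

theorem upp_m (hI : InitR Φ T f g J0 ct' r₀) (hμ : 0 < μ) (hLm : ∀ c, ∀ t ∈ L c, μ ≤ t ∧ t ≤ 1 - μ)
    (B : BarOut Φ T f κ1 μ X J0 J V θ hG bp Nn ρ1 ρ2 ρ3 ρ4 d q₀ ε bm hGB v0B v1B) :
    Upp (slC hLa hC n hn) (stB hGB bp bm) (Sum.elim r bm)
      (fun m => Bgf_4.SB Om Φ r₀ f L (lRc Φ X μ ρ1 ρ3 d) ε (Sum.inr m))
      (GmB Om Φ f X ρ1 ρ3 d (μ / 16) (μ / 8) (1 / 2) (1 / 2 - 5 * μ / 16) ε) :=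
  upp_stB hLa hC hI (rmA_of B) B.barF B.lv B.base
    (fun c t ht => ⟨hμ.trans_le (hLm c t ht).1, by linarith [(hLm c t ht).2]⟩)
    (fun m => (B.rga m).1) fun _ => rfl

/-- **`hRS` OF 147's `trOut_m`** from one point above `ρ3 + 7 d` which is not enclosed, for every
barrier -/
theorem connT_m1 (hμ : 0 < μ) {hI : InitR Φ T f g J0 ct' r₀}
    (hLm : ∀ c, ∀ t ∈ L c, μ ≤ t ∧ t ≤ 1 - μ)
    (B : BarOut Φ T f κ1 μ X J0 J V θ hG bp Nn ρ1 ρ2 ρ3 ρ4 d q₀ ε bm hGB v0B v1B)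
    {Act : Φ.F → Set (T.RIdx (slC hLa hC n hn).HH ⊕ Ti X)}
    (ne : ∀ m : BM Φ X, ∃ w ∈ (stB hGB bp bm).P, (stB hGB bp bm).lab w = Sum.inr m ∧
      ρ3 m.co + 7 * d m.co ≤ Ess5_95.ga Φ m.co (f w) ∧
      ¬ Dfo_539.Encl (s2 (slC hLa hC n hn) fr3 Tw l0') BM.am Act m w)
    {hmf : ∀ a : Φ.F, {m : BM Φ X | m.am = a}.Finite} {j0 : Φ.F → JJ Φ L}
    {hj0 : ∀ a, (j0 a).1 = a}
    {hs : BSep (s2 (slC hLa hC n hn) fr3 Tw l0') BM.am}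
    {far : ∀ a, PN (fun j : JJ Φ L => j.1) BM.am a → Set E3} (a : Φ.F) :
    ConnT (Act a) (far a)
      (prS (s2 (slC hLa hC n hn) fr3 Tw l0') hs hmf j0 hj0 a)
      (RB (slC hLa hC n hn) fr3 BM.am (GmT Om Φ f X μ ρ1 ρ3 d ε) a)
      (SB BM.am (GmT Om Φ f X μ ρ1 ρ3 d ε) (s2 (slC hLa hC n hn) fr3 Tw l0').lab a) := by
  have hRm := rmA_of B
  have U := upp_m (hLa := hLa) (hC := hC) (n := n) (hn := hn) (r := r) hI hμ hLm B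
  refine connT_sub (Act := Act) U (fun m => ?_) (fun m => gmT_sub hRm m) fun m hma => ?_
  · obtain ⟨c1, c2, c3, c4, c5, c6, c7⟩ := caps B.barF B.lv m
    exact gma_conn B.barF hLa hI.hm B.lv (m := m) (by linarith)
      (by show _ < ρ3 m.co + 7 * d m.co; linarith)
      (by show ρ3 m.co + 7 * d m.co ≤ _; linarith)
  · obtain ⟨w, h1, h2, h3, h4⟩ := ne m
    exact ⟨w, h1, h2, mem_gmT hLa B h1 h2 h3, h4⟩

/-- **`hRS` OF 147's `trOut_m`** from (NE) -/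
theorem connT_m (N : NumD δ κ0 R c0 κ2 μ κ1) {hI : InitR Φ T f g J0 ct' r₀}
    (hLm : ∀ c, ∀ t ∈ L c, μ ≤ t ∧ t ≤ 1 - μ)
    (B : BarOut Φ T f κ1 μ X J0 J V θ hG bp Nn ρ1 ρ2 ρ3 ρ4 d q₀ ε bm hGB v0B v1B)
    (ne : ∀ b ∈ (s2 (slC hLa hC n hn) fr3 Tw l0').P, ∀ m,
      (s2 (slC hLa hC n hn) fr3 Tw l0').lab b = Sum.inr m →
      (∃ p, (∀ k, ¬ P ((slC hLa hC n hn).T3.H p) ⊆ (slC hLa hC n hn).KK k) ∧
        b ∈ P ((slC hLa hC n hn).T3.H p) ∧ ∃ x ∈ P (T.H p.tile),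
          Φ.lev m.am (f x) ≤ 3 * μ / 8 ∨ 1 - 3 * μ / 8 ≤ Φ.lev m.am (f x)) →
      ¬ Dfo_539.Encl (s2 (slC hLa hC n hn) fr3 Tw l0') BM.am
        (fun _ => ActR (slC hLa hC n hn) (Rdc T f Xᶜ (rout ρ3 d))) m b)
    {hmf : ∀ a : Φ.F, {m : BM Φ X | m.am = a}.Finite} {j0 : Φ.F → JJ Φ L}
    {hj0 : ∀ a, (j0 a).1 = a}
    {hs : BSep (s2 (slC hLa hC n hn) fr3 Tw l0') BM.am}
    {far : ∀ a, PN (fun j : JJ Φ L => j.1) BM.am a → Set E3} (a : Φ.F) :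
    ConnT (ActR (slC hLa hC n hn) (Rdc T f Xᶜ (rout ρ3 d))) (far a)
      (prS (s2 (slC hLa hC n hn) fr3 Tw l0') hs hmf j0 hj0 a)
      (RB (slC hLa hC n hn) fr3 BM.am (GmT Om Φ f X μ ρ1 ρ3 d ε) a)
      (SB BM.am (GmT Om Φ f X μ ρ1 ρ3 d ε) (s2 (slC hLa hC n hn) fr3 Tw l0').lab a) := by
  obtain ⟨n1, n2, n3, n4, n5, n6⟩ := N.base
  have hRm := rmA_of B
  have U := upp_m (hLa := hLa) (hC := hC) (n := n) (hn := hn) (r := r) hI n4 hLm B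
  refine connT_sub (Act := fun _ => ActR (slC hLa hC n hn) (Rdc T f Xᶜ (rout ρ3 d))) U
    (fun m => ?_) (fun m => gmT_sub hRm m) fun m hma => ?_
  · obtain ⟨c1, c2, c3, c4, c5, c6, c7⟩ := caps B.barF B.lv m
    exact gma_conn B.barF hLa hI.hm B.lv (m := m) (by linarith)
      (by show _ < ρ3 m.co + 7 * d m.co; linarith)
      (by show ρ3 m.co + 7 * d m.co ≤ _; linarith)
  · obtain ⟨lm, hlm, LOW, HIGH⟩ := B.lab m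
    have hdm : d m.co ≤ μ ^ 2 / 512 := by
      have := (B.rm m.co m.co_notMem).1
      nlinarith
    obtain ⟨w, h1, h2, h3, h4, h5, h6, h7, q, hqV, hwq, x, hx, hxg, hxl, -⟩ :=
      Wy_664.exists_wall hLa N.hδ N.hR hI.hm N.hμ (by linarith) le_rfl B.barF hGB B.lv m hdm hlm
        LOW HIGH
    have hd := (hRm m.co m.co_notMem).d0
    have hwG : w ∈ GmT Om Φ f X μ ρ1 ρ3 d ε m := mem_gmT hLa B h1 h2 (by linarith)
    have hwG' := gmT_sub hRm m hwG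
    have hqK := U.out m q ⟨w, hwq, hwG'⟩
    obtain ⟨h8, h9⟩ := U.mem_s2' (Tw := Tw) (l0 := l0') (cl_of h1 h2 hwG')
    refine ⟨w, h1, h2, hwG, ne w h8 m h9 ⟨(slC hLa hC n hn).ot q hqK, ?_, ?_, x, ?_,
      Or.inl hxl⟩⟩
    · intro k hk
      refine hqK k ?_
      rw [← Sla.ot_P hqK]
      exact hk.trans Sla.KK_K
    · rw [Sla.ot_P hqK]; exact hwq
    · exact hx

/-- **`hRR` OF 147's `trOut_m`** -/
theorem hRR_m (hI : InitR Φ T f g J0 ct' r₀)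
    (B : BarOut Φ T f κ1 μ X J0 J V θ hG bp Nn ρ1 ρ2 ρ3 ρ4 d q₀ ε bm hGB v0B v1B) (a : Φ.F)
    (F : (slC hLa hC n hn).Fn fr3)
    (hF : F ∈ RB (slC hLa hC n hn) fr3 BM.am (GmT Om Φ f X μ ρ1 ρ3 d ε) a) :
    ∃ p, Sum.inl p ∈ ((slC hLa hC n hn).mn fr3).side F ∧
      ∃ e ∉ X, ∃ y ∈ P (T.H p.tile), ρ3 e + 7 * d e ≤ Ess5_95.ga Φ e (f y) ∧
        Ess5_95.ga Φ e (f y) ≤ ρ4 e := by
  obtain ⟨m, h1, F0, rfl, q, h3, y, hyq, hy⟩ := hF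
  have hRm := rmA_of B
  obtain ⟨c1, c2, c3, c4, c5, c6, c7⟩ := caps B.barF B.lv m
  have hqK : ∀ c, ¬ P (T.H q) ⊆ (slC hLa hC n hn).K c := fun c =>
    gmB_out hLa hI.hm hC hRm B.barF B.lv ⟨y, hyq, gmT_sub hRm m hy⟩ c.1
  refine ⟨(slC hLa hC n hn).ot q hqK, Sgo_298.side_old h3 hqK, m.co, m.co_notMem, y, hyq,
    hy.2.2, ?_⟩
  have h4 := (B.barF.pos (B.lv m).2 hy.2.1).2.1
  have h5 : ga Φ m.co (f y) ≤ rB ρ1 ρ3 d m.co + Bgf_4.hB ρ1 ρ3 d m.co * ε m := h4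
  linarith

/-- **`hSS` OF 147's `trOut_m`** -/
theorem hSS_m (hI : InitR Φ T f g J0 ct' r₀)
    (B : BarOut Φ T f κ1 μ X J0 J V θ hG bp Nn ρ1 ρ2 ρ3 ρ4 d q₀ ε bm hGB v0B v1B) (a : Φ.F)
    (m : BM Φ X) (h : E3) (hh : h ∈ (s2 (slC hLa hC n hn) fr3 Tw l0').P)
    (hl : (s2 (slC hLa hC n hn) fr3 Tw l0').lab h = Sum.inr m) (hma : m.am = a)
    (hg : ∀ e ∉ X, ρ3 e + 7 * d e ≤ Ess5_95.ga Φ e (f h)) :
    h ∈ SB BM.am (GmT Om Φ f X μ ρ1 ρ3 d ε) (s2 (slC hLa hC n hn) fr3 Tw l0').lab a := by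
  have hRm := rmA_of B
  have ho : (slC hLa hC n hn).Out h := by
    refine ⟨(s2_dim hh).1, fun c hc => ?_⟩
    have h1 : h ∈ KJ T (J c.1) := hc.1
    have h2 := Sgo_298.ga_core hLa hI.hm hC hRm c.2 h1
    have h3 := hg c.1 c.2
    have h4 := (hRm c.1 c.2).d0
    linarith
  obtain ⟨h1, h2⟩ := s2_out hh ho
  exact ⟨m, hma, hl, mem_gmT hLa B h1.1 (h2.symm.trans hl) (hg m.co m.co_notMem)⟩

/-- **`hConn` OF 662's `leafBC_all`** from one not enclosed point above `ρ3 + 7 d` for every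
barrier -/
theorem hConn_m (hμ : 0 < μ) {hI : InitR Φ T f g J0 ct' r₀}
    (hLm : ∀ c, ∀ t ∈ L c, μ ≤ t ∧ t ≤ 1 - μ)
    (B : BarOut Φ T f κ1 μ X J0 J V θ hG bp Nn ρ1 ρ2 ρ3 ρ4 d q₀ ε bm hGB v0B v1B)
    (ne : ∀ m : BM Φ X, ∃ w ∈ (stB hGB bp bm).P, (stB hGB bp bm).lab w = Sum.inr m ∧
      ρ3 m.co + 7 * d m.co ≤ Ess5_95.ga Φ m.co (f w) ∧
      ¬ Dfo_539.Encl (s2 (slC hLa hC n hn) fr3 Tw l0') BM.am
        (fun _ => ActR (slC hLa hC n hn) (Rdc T f Xᶜ (rout ρ3 d))) m w)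
    {hmf : ∀ a : Φ.F, {m : BM Φ X | m.am = a}.Finite} {j0 : Φ.F → JJ Φ L}
    {hj0 : ∀ a, (j0 a).1 = a}
    (hs : BSep (s2 (slC hLa hC n hn) fr3 Tw l0') BM.am)
    (far : ∀ a, PN (fun j : JJ Φ L => j.1) BM.am a → Set E3) :
    ∃ (RR : Φ.F → Set ((slC hLa hC n hn).Fn fr3)) (SS : Φ.F → Set E3),
      (∀ a, ConnT (ActR (slC hLa hC n hn) (Rdc T f Xᶜ (rout ρ3 d))) (far a)
        (prS (s2 (slC hLa hC n hn) fr3 Tw l0') hs hmf j0 hj0 a) (RR a) (SS a)) ∧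
      (∀ a, ∀ F ∈ RR a, ∃ p, Sum.inl p ∈ ((slC hLa hC n hn).mn fr3).side F ∧
        ∃ e ∉ X, ∃ y ∈ P (T.H p.tile), ρ3 e + 7 * d e ≤ Ess5_95.ga Φ e (f y) ∧
          Ess5_95.ga Φ e (f y) ≤ ρ4 e) ∧
      ∀ a m h, h ∈ (s2 (slC hLa hC n hn) fr3 Tw l0').P →
        (s2 (slC hLa hC n hn) fr3 Tw l0').lab h = Sum.inr m → m.am = a →
        (∀ e ∉ X, ρ3 e + 7 * d e ≤ Ess5_95.ga Φ e (f h)) → h ∈ SS a :=
  ⟨fun a => RB (slC hLa hC n hn) fr3 BM.am (GmT Om Φ f X μ ρ1 ρ3 d ε) a,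
    fun a => SB BM.am (GmT Om Φ f X μ ρ1 ρ3 d ε) (s2 (slC hLa hC n hn) fr3 Tw l0').lab a,
    fun a => connT_m1 (Act := fun _ => ActR (slC hLa hC n hn) (Rdc T f Xᶜ (rout ρ3 d))) hμ
      (hI := hI) hLm B ne a,
    fun a F hF => hRR_m hI B a F hF, fun a m h h1 h2 h3 h4 => hSS_m hI B a m h h1 h2 h3 h4⟩

end mach

end Crest.Agent.R096.Cns_778
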