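import Crest.Agent.R096.Lbc1_334
import Crest.Agent.R096.Dib6_438
import Crest.Agent.R096.Civ3_662

/-!
# R096 (row 96), DOORS (helper334): LEAF BC over the output of LEAF A

`leafBC_A` : 662's `leafBC` for the machine with 438's `exists_leafA` : everything is discharged but
`TrOut`, `VIn`, `Dich`.
-/

set_option autoImplicit false
set_option linter.unusedSectionVars false
set_option linter.unusedVariables false
set_option linter.style.longLine false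

open Set Topology Filter Metric Module Relation MeasureTheory
open scoped Classical

namespace Crest.Agent.R096.Lbc_334

open Crest.Agent.R096.Msh_715 Crest.Agent.R096.Coh_184 Crest.Agent.R096.Lab_184
  Crest.Agent.R096.Main_4 Crest.Agent.R096.Agl5_543
  Crest.Agent.R096.Seq_213 Crest.Agent.R096.St_147 Crest.Agent.R096.Door_501
  Crest.Agent.R096.Twr_438 Crest.Agent.R096.Exa_560
  Crest.Agent.R096.Ess3_95 Crest.Agent.R096.Ess4_95 Crest.Agent.R096.Ac_117 Crest.Agent.R096.Lm_117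
  Crest.Agent.R096.Dfi_539 Crest.Agent.R096.Dfi_471 Crest.Agent.R096.Dfo_539
  Crest.Agent.R096.Sla_184 Crest.Agent.R096.Gm_298
  Crest.Agent.R096.Brk1_582 Crest.Agent.R096.Brk2_582 Crest.Agent.R096.Brk3_582
  Crest.Agent.R096.Brk5_582 Crest.Agent.R096.Bsp_628 Crest.Agent.R096.Init_543
  Crest.Agent.R096.Lv3_471 Crest.Agent.R096.Lv4_471 Crest.Agent.R096.Slt_471
  Crest.Agent.R096.Dib_438 Crest.Agent.R096.Rop_441 Crest.Agent.R096.Frk_441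
  Crest.Agent.R096.Dff_539 Crest.Agent.R096.Frs_662 Crest.Agent.R096.Qdl_662
  Crest.Agent.R096.Cg_501 Crest.Agent.R096.SecW_892 Crest.Agent.R096.Sgd_298
  Crest.Agent.R096.Dfg_539 Crest.Agent.R096.Nmd1_698 Crest.Agent.R096.Civ_662
open Crest.Agent.R096.Sgo_298 (RmA rout ActR)
open Crest.Agent.R096.Mbf_337 (KJ Tiny Cores Fine sb gau Levels)
open Crest.Agent.R096.SkC1_961 (E3 FoamD Hom3)
open Crest.Agent.R096.Frn_337 (Ti)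
open Crest.Agent.R096.Ess7_95 (KT)
open Crest.Agent.R096.Dia_316 (nbT)
open Crest.Agent.R096.Bar_106 (Fs Fm Gm BM)
open Crest.Agent.R096.Bgf_4 (Ext stB GFB)
open Crest.Agent.R096.Dfn_416 (BarS)
open Crest.Agent.R096.Bmf_416 (coT)

variable {δ κ0 R c0 : ℝ} {La Om : Set E3} {ι : Type} {Φ : FoamD δ κ0 R c0 La} {T : Tiling Om ι}
  {f g : E3 → E3} {κ1 κ2 μ : ℝ} {X : Set Φ.F} {J0 J V : Φ.F → Set ι}
  {ct ct' : Φ.F → ι} {Aj : Φ.F → E3 ≃ᵃ[ℝ] E3} {lam : Φ.F → ℝ} {z : Φ.F → E3}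
  {θ : Φ.F → E3 → E3} {φ : Φ.F → E3 → ℝ} {r₀ : Φ.F → ℝ} {ρ1 ρ2 ρ3 ρ4 d : Φ.F → ℝ}
  {L : Φ.F → Finset ℝ} [Nonempty (JJ Φ L)] {hG : GF Φ r₀ T f L} {bp : JJ Φ L → E3}

/-- the exact tiles are in no zone -/
theorem ct_rdc (hC : Cores Φ T f κ1 κ2 X J0 J V ct Aj lam z θ φ)
    (hRm : RmA Φ T f X J0 J V θ ρ1 ρ2 ρ3 ρ4 d) :
    ∀ c ∈ X, ct c ∉ Rdc T f Xᶜ (rout ρ3 d) := by
  rintro c hc ⟨e, he, x, hx, hxe⟩
  have hr := hRm e he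
  have h1 : ct c ∈ V e := hr.v _ ⟨x, hx, le_trans hxe hr.r34⟩
  have h2 : ct c ∈ V c := by rw [(hC.one c hc).2.2]; rfl
  exact Set.disjoint_left.1 (hC.disj e c fun h => he (h ▸ hc)) h1 h2

/-- the exact cells are in no `Act` -/
theorem actX (hC : Cores Φ T f κ1 κ2 X J0 J V ct Aj lam z θ φ)
    (hRm : RmA Φ T f X J0 J V θ ρ1 ρ2 ρ3 ρ4 d) (S : Sla T (Ti X)) :
    ∀ (a : Φ.F), ∀ c ∈ X, ∀ h, Sum.inl (S.ot (ct c) h) ∉
      (fun _ : Φ.F => ActR S (Rdc T f Xᶜ (rout ρ3 d))) a := by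
  intro a c hc h hcon
  exact ct_rdc hC hRm c hc (Sgo_298.inl_ActR.1 hcon)

/-- the barrier points are in the zones -/
theorem rma_bo {N : BM Φ X → Set ℝ} {q₀ : BM Φ X → E3}
    {ε : BM Φ X → ℝ} {bm : BM Φ X → E3} {hGB : GFB Φ r₀ T f L (lRc Φ X μ ρ1 ρ3 d) ε}
    {v0B v1B : ∀ c, BM Φ X → VxK T (KT T J X) c}
    (h : BarOut Φ T f κ1 μ X J0 J V θ hG bp N ρ1 ρ2 ρ3 ρ4 d q₀ ε bm hGB v0B v1B) :
    RmA Φ T f X J0 J V θ ρ1 ρ2 ρ3 ρ4 d := fun c hc => (h.rm c hc).2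

theorem ga_bo {N : BM Φ X → Set ℝ} {q₀ : BM Φ X → E3}
    {ε : BM Φ X → ℝ} {bm : BM Φ X → E3} {hGB : GFB Φ r₀ T f L (lRc Φ X μ ρ1 ρ3 d) ε}
    {v0B v1B : ∀ c, BM Φ X → VxK T (KT T J X) c}
    (h : BarOut Φ T f κ1 μ X J0 J V θ hG bp N ρ1 ρ2 ρ3 ρ4 d q₀ ε bm hGB v0B v1B) :
    ∀ w ∈ (stB hGB bp bm).P, ∀ m, (stB hGB bp bm).lab w = Sum.inr m →
      Ess5_95.ga Φ (coT m).1 (f w) ≤ ρ3 (coT m).1 + 15 * d (coT m).1 := by
  intro w hw m hl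
  have h1 := (h.gau m w hw hl).2
  have h2 := (h.rm m.co m.co_notMem).2.d0
  show Ess5_95.ga Φ m.co (f w) ≤ ρ3 m.co + 15 * d m.co
  linarith

/-- **LEAF BC OVER LEAF A** : 662's `leafBC` for the machine of 438's `exists_leafA`; open: `H` -/
theorem leafBC_A (hLa : IsOpen La) {hC : Cores Φ T f κ1 κ2 X J0 J V ct Aj lam z θ φ}
    {n : Ti X → ℕ} {hn : ∀ c, 0 < n c} [Nonempty (slC hLa hC n hn).T3.Cell]
    (N : NumD δ κ0 R c0 κ2 μ κ1) (hF : Fine Φ T f κ1 J0)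
    {hI : InitR Φ T f g J0 ct' r₀}
    {hM : Mesh0 T (Pc Φ.F) (bc (F := Φ.F)) (RF Φ r₀) f (KorJ Φ J0) κ1} {h1 : κ1 < μ / 32}
    {h2 : κ1 < 1}
    (hnC : ∃ c, OutK (slC hLa hC n hn).T3 (slC hLa hC n hn).KK c)
    {κp κ3 : ℝ} {Z : Φ.F → Set ℝ} {m0 κ : Φ.F → ℕ} (hL : Levels Φ T f κp μ κ3 Z m0 κ L)
    -- LEAF A
    {N' : BM Φ X → Set ℝ} {q₀ : BM Φ X → E3} {ε : BM Φ X → ℝ} {bm : BM Φ X → E3}
    {hGB : GFB Φ r₀ T f L (lRc Φ X μ ρ1 ρ3 d) ε} {r : JJ Φ L → E3}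
    {v0 v1 : ∀ c, Φ.F → VxK T (KT T J X) c} {v0B v1B : ∀ c, BM Φ X → VxK T (KT T J X) c}
    (hr : ∀ j, (r j ∈ (st0 hG bp).P ∧ (st0 hG bp).lab (r j) = j) ∧
        ∃ q, r j ∈ P (T.H q) ∧ (∃ c, ∃ x ∈ P (T.H q), f x ∈ Lbp_438.Wl Φ c) ∧ ∀ c, q ∉ V c)
    (hB : BarOut Φ T f κ1 μ X J0 J V θ hG bp N' ρ1 ρ2 ρ3 ρ4 d q₀ ε bm hGB v0B v1B)
    (hS : BarS hG bp V coT (stB hGB bp bm))
    (D : DIn (fun c => Dia_316.coreH_KT hC c) (stB hGB bp bm) (Sum.elim r bm)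
        (SfA Om Φ X r₀ f L μ ρ1 ρ3 d ε) (nbA Φ X) (vS v0 v0B) (vS v1 v1B) (uA Φ hLa X θ)
        (AA Φ X μ κ1) (BA Φ X μ))
    (rec : BRec hLa (stB hGB bp bm) f X J θ coT BM.am BM.Zm (nbA Φ X) (vS v0 v0B) (vS v1 v1B)
        (uA Φ hLa X θ) (AA Φ X μ κ1) (BA Φ X μ) μ (Cn δ R * κ1) (μ / 8) (1 / 2)
        (1 / 2 - 5 * μ / 16) (1 + μ / 16) (5 * μ / 32) (3 * μ / 16))
    -- the towers
    {Lv : ∀ c, Φ.F ⊕ BM Φ X → Lev T (frontier ((slC hLa hC n hn).K c)) (JJ Φ L ⊕ BM Φ X)}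
    {Tw : Twrs ((slC hLa hC n hn).sh fr3) (slC hLa hC n hn).n
      (outK (slC hLa hC n hn).hH (slC hLa hC n hn).dis (stB hGB bp bm) (Sum.elim r bm))}
    {l0 : E3 → JJ Φ L ⊕ BM Φ X}
    (lo : LevOut (Kc := (slC hLa hC n hn).K) (stB hGB bp bm) (nbA Φ X) (uA Φ hLa X θ)
      (AA Φ X μ κ1) (BA Φ X μ) Lv)
    (tt : TwOut (slC hLa hC n hn) fr3 (stB hGB bp bm) (Sum.elim r bm) (vS v0 v0B) (vS v1 v1B)
      Lv Tw)
    (mon : Mon (slC hLa hC n hn) fr3 Lv Tw)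
    (j0 : Φ.F → JJ Φ L) (hj0 : ∀ a, (j0 a).1 = a)
    {sd : BM Φ X → E3 → Prop}
    (H : ∀ (hs : BSep (s2 (slC hLa hC n hn) fr3 Tw l0) BM.am)
      (hmf : ∀ a, {m : BM Φ X | m.am = a}.Finite)
      (far : ∀ a, PN (fun j : JJ Φ L => j.1) BM.am a → Set E3)
      (t : ∀ a, St ((slC hLa hC n hn).mn fr3) (pcol (fun j : JJ Φ L => j.1) BM.am a))
      (Ph : Φ.F → Finset E3) (s₃ : GSt ((slC hLa hC n hn).mn fr3) (fun j : JJ Φ L => j.1)),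
      (∀ a, (prS (s2 (slC hLa hC n hn) fr3 Tw l0) hs hmf j0 hj0 a).Good
        (ActR (slC hLa hC n hn) (Rdc T f Xᶜ (rout ρ3 d))) (far a)) →
      (∀ a, ∀ i : PN (fun j : JJ Φ L => j.1) BM.am a, ∀ j, i.1 = Sum.inl j → r j ∈ far a i) →
      (∀ a i F w, w ∈ far a i →
        (prS (s2 (slC hLa hC n hn) fr3 Tw l0) hs hmf j0 hj0 a).At F w →
        OKp (prS (s2 (slC hLa hC n hn) fr3 Tw l0) hs hmf j0 hj0 a)
          (ActR (slC hLa hC n hn) (Rdc T f Xᶜ (rout ρ3 d))) F w →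
          (s2 (slC hLa hC n hn) fr3 Tw l0).mu F w ∈ far a i) →
      CutR (s2 (slC hLa hC n hn) fr3 Tw l0) hs hmf j0 hj0
        (fun _ => ActR (slC hLa hC n hn) (Rdc T f Xᶜ (rout ρ3 d))) far t Ph s₃ →
      PosS (hH := (Lay_316.lay_sla hLa hC n hn).core) Φ T f (μ / 4) J0 (slC hLa hC n hn) s₃ →
      TrOut (hH := (Lay_316.lay_sla hLa hC n hn).core) (hdis := Sla.dis_KK)
        (qdT (fun p : T.RIdx (slC hLa hC n hn).HH => p.tile) (sla_sub (slC hLa hC n hn))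
          (slC hLa hC n hn).KK hLa hI hM h1 h2) s₃ r (UTm Om Φ f X ρ3 d) ∧
      VIn (hH := (Lay_316.lay_sla hLa hC n hn).core) (hdis := Sla.dis_KK)
        (qdT (fun p : T.RIdx (slC hLa hC n hn).HH => p.tile) (sla_sub (slC hLa hC n hn))
          (slC hLa hC n hn).KK hLa hI hM h1 h2) s₃ r BM.am sd ∧
      Dich (hH := (Lay_316.lay_sla hLa hC n hn).core) (hdis := Sla.dis_KK)
        (qdT (fun p : T.RIdx (slC hLa hC n hn).HH => p.tile) (sla_sub (slC hLa hC n hn))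
          (slC hLa hC n hn).KK hLa hI hM h1 h2) s₃ (UTm Om Φ f X ρ3 d) BM.am sd) :
    ∃ (s₃ : GSt ((slC hLa hC n hn).mn fr3) (fun j : JJ Φ L => j.1)) (far₃ : JJ Φ L → Set E3),
      CutOut (s2 (slC hLa hC n hn) fr3 Tw l0) BM.am
        (fun _ => ActR (slC hLa hC n hn) (Rdc T f Xᶜ (rout ρ3 d))) s₃ ∧
      s₃.Inv (qdT (fun p : T.RIdx (slC hLa hC n hn).HH => p.tile) (sla_sub (slC hLa hC n hn))
        (slC hLa hC n hn).KK hLa hI hM h1 h2) far₃ ∧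
      PosS (hH := (Lay_316.lay_sla hLa hC n hn).core) Φ T f (μ / 4) J0 (slC hLa hC n hn) s₃ ∧
      (∀ (c : Ti X) (j : JJ Φ L),
        SkB_662.One s₃ {F | Sum.inr c ∈ ((slC hLa hC n hn).mn fr3).side F} j) ∧
      ∀ (k : Init_543.QK (Pc Φ.F)) (c : Ti X), c.1 ∈ k.Z → ∀ j j' : JJ Φ L, j.1 ∈ k.B →
        j'.1 ∈ k.B → j.1 ≠ j'.1 →
        SkB_662.Two s₃ ((qdT (fun p : T.RIdx (slC hLa hC n hn).HH => p.tile)
          (sla_sub (slC hLa hC n hn)) (slC hLa hC n hn).KK hLa hI hM h1 h2).Act k)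
          {Sum.inr c} j j' := by
  have hm := hL.marg
  have hmf : ∀ a, {m : BM Φ X | m.am = a}.Finite := fun a => Bmf_416.am_fin hLa a
  refine leafBC_m (r := Sum.elim r bm) (l0' := l0) (sd := sd) (am := BM.am) (co := coT)
    N hF (rma_bo hB) (hI := hI) (hM := hM) (h1 := h1) (h2 := h2)
    hnC (fun a => Bmf_416.L_nonempty hL a) hm hB.ext D lo tt mon rec (ga_bo hB) ?_ hmf ?_
    (fun F => hS.finF hLa hI hC N.hμ hm F) j0 hj0 (UT := UTm Om Φ f X ρ3 d)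
    (hUT_m (rma_bo hB)) ?_
  · intro m m' e1 e2 e3
    exact BM.ext (congrArg Subtype.val e1) e2 e3
  · intro j
    obtain ⟨-, q, h3, -, h4⟩ := hr j
    exact ⟨q, h3, fun c _ => h4 c⟩
  · intro hs far t Ph s₃ k1 k2 k3 k4 k5
    exact H hs hmf far t Ph s₃ k1 k2 k3 k4 k5

end Crest.Agent.R096.Lbc_334
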