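import Crest.Agent.R096.Dfo1_539

/-!
# R096 (row 96), DOORS_final, part 3 (helper539): geometry of the state after CUT over `meshK`
-/

set_option autoImplicit false
set_option linter.unusedSectionVars false
set_option linter.style.longLine false

open Set Topology Filter Metric Module
open scoped Classical

namespace Crest.Agent.R096.Dfo_539

open Crest.Agent.R096.Msh_715 Crest.Agent.R096.Coh_184 Crest.Agent.R096.Lab_184
  Crest.Agent.R096.Main_4 Crest.Agent.R096.Agl5_543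
  Crest.Agent.R096.Seq_213 Crest.Agent.R096.St_147 Crest.Agent.R096.Door_501
  Crest.Agent.R096.Ac_117 Crest.Agent.R096.Lm_117 Crest.Agent.R096.Gm_298
  Crest.Agent.R096.Sla_184 Crest.Agent.R096.Dfi_539 Crest.Agent.R096.Dfi_471
open Crest.Agent.R096.St_147.St (Frozen)

section mesh

variable {E : Type} [NormedAddCommGroup E] [NormedSpace ℝ E] [FiniteDimensional ℝ E]
variable {Om : Set E} {ι κ : Type} {T : Tiling Om ι} {Kc : κ → Set E} {h3 : finrank ℝ E = 3}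
  {hH : ∀ c, CoreH T (Kc c)} {hdis : ∀ c c', c ≠ c' → Disjoint (Kc c) (Kc c')}

/-- a face of the merged mesh through a point of a 1-cell, with a given tile as a side -/
theorem exists_faceK {w : E} (hw : w ∈ Om) (hd : T.dim w = 1) {q : ι} (hq : w ∈ P (T.H q))
    (hqK : ∀ c, ¬ P (T.H q) ⊆ Kc c) : ∃ F, w ∈ (mK h3 hH hdis).On F ∧
      Sum.inl q ∈ (mK h3 hH hdis).side F ∧ F.1.set ⊆ P (T.H q) := by
  obtain ⟨F, hF, hqF⟩ := exists_face_out (h3 := h3) hw hd hq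
  have h1 : F.set ⊆ P (T.H q) := C2.sub_tile (h3 := h3) hqF
  have hne : Nonempty T.Cell := ⟨T.cl hw⟩
  refine ⟨⟨F, out_face h3 F ⟨q, hqK, h1⟩⟩, hF, ?_, h1⟩
  exact mem_map_iff.2 ⟨q, hqF, piK_inl.2 ⟨rfl, hqK⟩⟩

/-- two points with the same faces lie in the same tiles outside the cores -/
theorem same_tile {w h : E} (hw : w ∈ Om) (hd : T.dim w = 1)
    (hs : ∀ F, w ∈ (mK h3 hH hdis).On F ↔ h ∈ (mK h3 hH hdis).On F) {q : ι}
    (hq : w ∈ P (T.H q)) (hqK : ∀ c, ¬ P (T.H q) ⊆ Kc c) : h ∈ P (T.H q) := by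
  obtain ⟨F, h1, -, h2⟩ := exists_faceK (h3 := h3) (hH := hH) (hdis := hdis) hw hd hq hqK
  exact h2 ((hs F).1 h1).1

/-- a point on a face of the merged mesh is in no open core -/
theorem on_not_int {F : {F : C2 T // ¬ (((meshC T h3).side F).map (piK T Kc)).IsDiag}} {w : E}
    (hw : w ∈ (mK h3 hH hdis).On F) : w ∈ Om ∧ T.dim w = 1 ∧ ∀ c, w ∉ interior (Kc c) := by
  have h1 : w ∈ F.1.set := hw.1
  have hO : w ∈ Om := F.1.set_sub h1
  refine ⟨hO, hw.2, fun c hc => ?_⟩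
  refine F.2 ((map_isDiag_iff).2 ?_)
  have key : ∀ q ∈ F.1.side h3, piK T Kc q = Sum.inr c := fun q hq => (piK_inr hdis).2
    (T.sub_of_mem_interior (hH c).cpt.isClosed (hH c).cc (C2.sub_tile (h3 := h3) hq h1) hc)
  exact fun q hq q' hq' => (key q hq).trans (key q' hq').symm

end mesh

section s3

variable {E : Type} [NormedAddCommGroup E] [NormedSpace ℝ E] [FiniteDimensional ℝ E]
variable {Om : Set E} {ι κ : Type} {T : Tiling Om ι} {J C Mo : Type} {fam : J → C}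
  {h3 : finrank ℝ E = 3} {S : Sla T κ}
  {s0 : GSt (S.m0 h3) (Sum.map fam (id : Mo → Mo))} {Tw : Twrs (S.sh h3) S.n s0} {l0 : E → J ⊕ Mo}
  {am : Mo → C} {Act : C → Set (T.RIdx S.HH ⊕ κ)} {s3 : GSt (S.mn h3) fam}
  {hKK : ∀ c, CoreH S.T3 (S.KK c)}

/-- the points of `s₂` are on faces of the mesh, outside the open remaining cores -/
theorem s2_not_int {w : E} (hw : w ∈ (s2 S h3 Tw l0).P) (c : κ) : w ∉ interior (S.KK c) := by
  intro hc
  rw [Sla.mem_int_KK] at hc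
  rcases mem_s2.1 hw with h | ⟨c', a, j, u, h1, h2, h4, rfl⟩ | ⟨c', a, j, v, h1, h2, rfl⟩
  · obtain ⟨g1, g2⟩ := s_out h Tw
    exact g1.not_int c hc
  · obtain ⟨e, he⟩ := pat_onE h4
    exact (Sla.hp_onS e he h2).not_int c hc
  · exact (Sla.vc_inL (Sla.vx_bd v) h1).not_int c hc

/-- the tiles outside the remaining cores at a point of `s₂` -/
theorem s2_tile {w : E} (hw : w ∈ (s2 S h3 Tw l0).P) :
    ∃ q, w ∈ P (S.T3.H q) ∧ ∀ c, ¬ P (S.T3.H q) ⊆ S.KK c := by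
  obtain ⟨q, h1, h2⟩ := exists_tile_out (T := S.T3) (Kc := S.KK) S.dis_KK (s2_dim hw).1
    (fun c => s2_not_int hw c)
  exact ⟨q, h1, h2⟩

include hKK in
/-- **the points of the state after CUT** -/
theorem pts3 (D : Dfo_539.CutOut (s2 S h3 Tw l0) am Act s3) {w : E} (hw : w ∈ s3.P) :
    w ∈ Om ∧ S.T3.dim w = 1 ∧ ∀ c, w ∉ interior (S.KK c) := by
  by_cases h : w ∈ (s2 S h3 Tw l0).P
  · exact ⟨(s2_dim h).1, (s2_dim h).2, fun c => s2_not_int h c⟩
  · obtain ⟨b, h1, m, h2, h4, h5, -⟩ := D.new w hw h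
    obtain ⟨q, hq, hqK⟩ := s2_tile h1
    obtain ⟨F, hF, -, -⟩ := exists_faceK (h3 := h3) (hH := hKK) (hdis := S.dis_KK)
      (s2_dim h1).1 (s2_dim h1).2 hq hqK
    exact on_not_int (hH := hKK) (hdis := S.dis_KK) ((h5 F).2 hF)

include hKK in
/-- the points of the state after CUT in a tile: old points, or points next to a barrier point of
the same tile -/
theorem cases3 (D : Dfo_539.CutOut (s2 S h3 Tw l0) am Act s3) {w : E} (hw : w ∈ s3.P)
    {q : T.RIdx S.HH} (hq : w ∈ P (S.T3.H q)) (hqK : ∀ c, ¬ P (S.T3.H q) ⊆ S.KK c) :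
    (w ∈ (s2 S h3 Tw l0).P ∧ (s2 S h3 Tw l0).lab w = Sum.inl (s3.lab w)) ∨
    (w ∉ (s2 S h3 Tw l0).P ∧ ∃ b ∈ (s2 S h3 Tw l0).P, ∃ m, (s2 S h3 Tw l0).lab b = Sum.inr m ∧
      am m = fam (s3.lab w) ∧ b ∈ P (S.T3.H q) ∧ Encl (s2 S h3 Tw l0) am Act m b) := by
  by_cases h : w ∈ (s2 S h3 Tw l0).P
  · exact Or.inl ⟨h, D.old w hw h⟩
  · obtain ⟨b, h1, m, h2, h4, h5, h6⟩ := D.new w hw h
    have hw' := pts3 (hKK := hKK) D hw
    exact Or.inr ⟨h, b, h1, m, h2, h4, same_tile (h3 := h3) (hH := hKK) (hdis := S.dis_KK) hw'.1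
      hw'.2.1 h5 hq hqK, h6⟩

end s3

end Crest.Agent.R096.Dfo_539
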