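import Mathlib
import Crest.Agent.R096.Ebr4_95
import Crest.Agent.R096.Lv4_471

/-! Row 96 (helper847), DOORS, LAM (d) of 106 #11906: the tower of a moat does not move the vertices
near the axis.

* `axis_set` : `{Gm ∘ θ ≤ t}` on the frontier of a tiny core is compact and connected;
* `not_rgn_axis` : no vertex with `Gm (θ v) ≤ z0` is in a move of the tower of the barrier. -/

set_option autoImplicit false
set_option linter.unusedSectionVars false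
set_option linter.unusedVariables false
set_option linter.style.longLine false

open Set Module
open scoped Classical

namespace Crest.Agent.R096.Lam_847

open Crest.Agent.R096.Msh_715 Crest.Agent.R096.Agl5_543
  Crest.Agent.R096.Seq_213 Crest.Agent.R096.St_147 Crest.Agent.R096.Door_501
  Crest.Agent.R096.Twr_438 Crest.Agent.R096.Exa_560
  Crest.Agent.R096.Ess3_95 Crest.Agent.R096.Ce_537 Crest.Agent.R096.Rop_441
  Crest.Agent.R096.Bar_106 Crest.Agent.R096.Dib_438 Crest.Agent.R096.Rgl_527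
  Crest.Agent.R096.Lv3_471 Crest.Agent.R096.Dfi_471 Crest.Agent.R096.Slt_471
open Crest.Agent.R096.Brk1_582 Crest.Agent.R096.Brk2_582 Crest.Agent.R096.Brk3_582
  Crest.Agent.R096.Brk5_582 Crest.Agent.R096.Bsp_628 Crest.Agent.R096.Dfi_539
open Crest.Agent.R096.Mbf_337 (sb KJ Tiny)
open Crest.Agent.R096.SkC1_961 (E3 FoamD)
open Crest.Agent.R096.Ebr4_95 Crest.Agent.R096.Ebr3_95

variable {δ κ0 R c0 : ℝ} {La Om : Set E3} {ι : Type} {Φ : FoamD δ κ0 R c0 La} {T : Tiling Om ι}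
  {f : E3 → E3} {κ1 : ℝ}

section one

variable {c : Φ.F} {J0 J V : Set ι} {θ : E3 → E3} {φ : E3 → ℝ} {a p m : Φ.F} {Z : Set Φ.F}
  {l0 mm ra hi : ℝ}

/-- the boxes `{Gm ≤ t}` on the frontier of the brick -/
theorem gmf_le_eq (hLa : IsOpen La) (M : Mo (Pc Φ.F) c a Z p m) (h : Nm l0 mm ra hi) {t : ℝ}
    (ht : t ≤ hi) : {q | q ∈ frontier c.1.set ∧ gmf Φ l0 mm ra a Z q ≤ t} =
      gam (bc (F := Φ.F)) a Z p m '' {x | Nr l0 mm ra x ≤ t} := by
  ext q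
  constructor
  · rintro ⟨hq, hG⟩
    obtain ⟨x, hx, rfl⟩ := gmf_sur hLa M h hq (hG.trans ht)
    refine ⟨x, ?_, rfl⟩
    have g := gmf_gam (l0 := l0) (mm := mm) (ra := ra) hLa M (h.rct hx)
    show Nr l0 mm ra x ≤ t
    rw [← g]
    exact hG
  · rintro ⟨x, hx, rfl⟩
    have hx' : Nr l0 mm ra x ≤ t := hx
    have hr := h.rct (hx'.trans ht)
    exact ⟨gam_fr hLa M hr, (gmf_gam hLa M hr).trans_le hx'⟩

/-- **the axis region** of a moat on the frontier of a tiny core -/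
theorem axis_set (hLa : IsOpen La) (H : Tiny Φ T f κ1 c J0 J V θ φ) (M : Mo (Pc Φ.F) c a Z p m)
    (h : Nm l0 mm ra hi) {t : ℝ} (ht : t ≤ hi) :
    IsCompact {x | x ∈ frontier (KJ T J) ∧ gmf Φ l0 mm ra a Z (θ x) ≤ t} ∧
      IsPreconnected {x | x ∈ frontier (KJ T J) ∧ gmf Φ l0 mm ra a Z (θ x) ≤ t} := by
  obtain ⟨e, he, heq⟩ := pre_eq H
  have hN : {q | q ∈ frontier c.1.set ∧ gmf Φ l0 mm ra a Z q ≤ t} ⊆ frontier c.1.set :=
    fun q hq => hq.1
  have hset : {x | x ∈ frontier (KJ T J) ∧ gmf Φ l0 mm ra a Z (θ x) ≤ t} =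
      e.g '' {q | q ∈ frontier c.1.set ∧ gmf Φ l0 mm ra a Z q ≤ t} := by
    rw [← heq _ hN]
    ext x
    constructor
    · rintro ⟨hx, h⟩
      exact ⟨hx, th_mem H hx, h⟩
    · rintro ⟨hx, h⟩
      exact ⟨hx, h.2⟩
  have hcg : ContinuousOn (gam (bc (F := Φ.F)) a Z p m) {x | Nr l0 mm ra x ≤ t} := by
    refine (M.continuousOn_gam (foam Φ.bf hLa)).mono fun x hx => ?_
    have hx' : Nr l0 mm ra x ≤ t := hx
    exact h.rct (hx'.trans ht)
  rw [hset]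
  have hc : ContinuousOn e.g {q | q ∈ frontier c.1.set ∧ gmf Φ l0 mm ra a Z q ≤ t} :=
    e.pg.1.mono hN
  rw [gmf_le_eq hLa M h ht] at hc ⊢
  exact ⟨((isCompact_Nr h.hl h.hra t).image_of_continuousOn hcg).image_of_continuousOn hc,
    ((convex_Nr h.hl h.hra t).isPreconnected.image _ hcg).image _ hc⟩

/-- on the axis region `Fs = Fm` is small -/
theorem fs_axis (hLa : IsOpen La) (M : Mo (Pc Φ.F) c a Z p m) {N : Finset Φ.F} (hp : p ∈ N)
    (hm : m ∈ N) (h : Nm l0 mm ra hi) {t : ℝ} (ht : t ≤ hi) {q : E3}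
    (hq : q ∈ frontier c.1.set) (hG : gmf Φ l0 mm ra a Z q ≤ t) :
    Fs N a Z (sb Φ q) ≤ l0 * t := by
  have h1 : Fm a Z (sb Φ q) / l0 ≤ t := (le_max_left _ _).trans hG
  have h2 : |sb Φ q a - mm| / ra ≤ hi := (le_max_right _ _).trans (hG.trans ht)
  have h1' : Fm a Z (sb Φ q) / l0 ≤ hi := h1.trans ht
  rw [div_le_iff₀ h.hl] at h1 h1'
  rw [div_le_iff₀ h.hra] at h2
  have h4 := abs_le.1 h2
  have h5 := h.l1
  have h6 := h.m0
  have h7 := h.m1
  have e2 : hi * ra = ra * hi := mul_comm _ _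
  have e1 : hi * l0 = l0 * hi := mul_comm _ _
  rw [e2] at h4
  rw [e1] at h1'
  rw [fs_eq_fm hLa M hp hm hq (by linarith [h4.1]) (by linarith [h4.2]) (by linarith)]
  rw [mul_comm]
  exact h1

end one

section bar

variable {κ : Type} {cf : κ → Φ.F} {J0 J V : κ → Set ι} {θ : κ → E3 → E3} {φ : κ → E3 → ℝ}
variable {h3 : finrank ℝ E3 = 3} {hH : ∀ k, CoreH T (KJ T (J k))}
  {hdis : ∀ c c', c ≠ c' → Disjoint (KJ T (J c)) (KJ T (J c'))}
  {JJ C : Type} {fam : JJ → C} [Nonempty JJ] {a p m : Φ.F} {Z : Set Φ.F} {N : Finset Φ.F}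

/-- **LAM (d): the tower of the barrier does not move the vertices near the axis** -/
theorem not_rgn_axis (hLa : IsOpen La) (hδ : 0 < δ) (hR : 0 < R) (hκ1 : 0 < κ1)
    (hκ : Cn δ R * κ1 < 1)
    (H : ∀ k, Tiny Φ T f κ1 (cf k) (J0 k) (J k) (V k) (θ k) (φ k))
    {s : GSt (meshC T h3) fam} {r : JJ → E3} {nb : κ → C → Prop} {u : κ → C → E3 → ℝ}
    {A B : κ → C → ℝ} {L : ∀ k, C → Lev T (frontier (KJ T (J k))) JJ}
    (LO : LevOut s nb u A B L)
    {v0 v1 : ∀ k, C → VxK T (fun k => KJ T (J k)) k} {k : κ} {b' : C}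
    (hu : ∀ x, u k b' x = Fs N a Z (sb Φ (θ k x)))
    (M : Mo (Pc Φ.F) (cf k) a Z p m) (hp : p ∈ N) (hm : m ∈ N)
    {l0 mm ra hi : ℝ} (hN : Nm l0 mm ra hi) {z0 zb : ℝ} (hz : z0 ≤ hi)
    (hzA : l0 * z0 ≤ A k b')
    (hzb : z0 + max ((3 * Cn δ R + 1) * κ1 / l0) ((3 * Cn δ R + 1) * κ1 / ra) < zb)
    (hv0 : gmf Φ l0 mm ra a Z (θ k (v0 k b').1) ≤ z0)
    (htr : ∀ w ∈ s.P, fam (s.lab w) = b' → w ∈ frontier (KJ T (J k)) →
      (∀ e, 0 ≤ Φ.lev e (f w) ∧ Φ.lev e (f w) ≤ 1) ∧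
      zb ≤ Gm l0 mm ra a Z (fun e => Φ.lev e (f w)))
    {v : VxK T (fun k => KJ T (J k)) k} (hv : gmf Φ l0 mm ra a Z (θ k v.1) ≤ z0) (i : JJ) :
    ¬ Rgn (shellH h3 hH hdis k) (v0 k b') (v1 k b') (trc hH hdis s r k b')
      (exa h3 hH hdis (L k b')) i v := by
  have := finite_EdK hH k
  have := Fintype.ofFinite (EdK T (fun k => KJ T (J k)) k)
  have hC := Cn_nonneg hδ hR
  have hCκ : 0 ≤ Cn δ R * κ1 := mul_nonneg hC hκ1.le
  have hset := axis_set hLa (H k) M hN hz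
  have hosc : ∀ q : T.Cell, q.set ⊆ frontier (KJ T (J k)) → ∀ x ∈ q.set, ∀ y ∈ q.set, ∀ e,
      |sb Φ (θ k x) e - sb Φ (θ k y) e| ≤ (2 * Cn δ R + 1) * κ1 := by
    intro q hq x hx y hy e
    have hpq : q.pt ∈ q.set := q.opn_sub (T.self_mem_oc _)
    obtain ⟨F, hF, hpF⟩ := exists_face h3 hH (c := k) (hq hpq)
    have hsub : q.set ⊆ F.set := by
      rw [q.set_eq, F.set_eq]
      rw [F.set_eq] at hpF
      exact T.cc_sub_of_mem hpF
    exact tiny_osc hLa hδ hR hκ (H k) hF (hsub hx) (hsub hy) e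
  refine not_rgn_lo (h3 := h3) (hH := hH) (hdis := hdis) (c := k)
    (s := trc hH hdis s r k b') (fun w hw => (mem_trc.1 hw).2.2) hset.1 hset.2
    (fun x hx => hx.1) ?_ (v := v) ⟨(v0 k b').2.2, hv0⟩ ⟨v.2.2, hv⟩ ?_ i
  · rintro w hw q hq hwq ⟨x, hxq, hxf, hx⟩
    obtain ⟨k1, k2, k4⟩ := trc_P hw
    obtain ⟨hlev, hG⟩ := htr w k1 k4 k2
    have hθ := th_mem (H k) k2
    have hθx := th_mem (H k) hxf
    have hd : ∀ e, |Φ.lev e (f w) - sb Φ (θ k x) e| ≤ (3 * Cn δ R + 1) * κ1 := by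
      intro e
      have g1 := abs_le.1 (tiny_near hLa hδ hR hκ (H k) k2 e)
      have g2 := abs_le.1 (hosc q hq w hwq x hxq e)
      rw [abs_le]
      constructor <;> nlinarith [g1.1, g1.2, g2.1, g2.2]
    have g3 := (abs_le.1 (Gm_sub_le (a := a) (Z := Z) (m := mm) hN.hl hN.hra hlev
      (sb_mem hLa hθx) hd)).2
    have g4 : Gm l0 mm ra a Z (sb Φ (θ k x)) ≤ z0 := hx
    have g5 : zb ≤ Gm l0 mm ra a Z (fun e => Φ.lev e (f w)) := hG
    linarith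
  · intro w hw
    obtain ⟨g1, g2⟩ := exa_lab (Kc := fun k => KJ T (J k)) (h3 := h3) (hH := hH) (hdis := hdis)
      (c := k) (L k b') hw
    have g4 := LO.win k b' _ g1
    have e0 : (L k b').u (v0 k b').1 = u k b' (v0 k b').1 := by rw [LO.u]
    have e1 : (L k b').u v.1 = u k b' v.1 := by rw [LO.u]
    have f0 := fs_axis (N := N) hLa M hp hm hN hz (th_mem (H k) (v0 k b').2.2) hv0
    have f1 := fs_axis (N := N) hLa M hp hm hN hz (th_mem (H k) v.2.2) hv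
    rw [exa_lbl (Kc := fun k => KJ T (J k)) (h3 := h3) (hH := hH) (hdis := hdis) (c := k)
      (L k b') g1 (LO.conn k b' _ g1).1 hw rfl (v0 k b') v
      (not_lt.2 (by rw [e0, hu]; linarith [g4.1])),
      if_neg (not_lt.2 (by rw [e1, hu]; linarith [g4.1]))]

end bar

end Crest.Agent.R096.Lam_847
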