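import Crest.Agent.R096.Nmd1_698
import Crest.Agent.R096.Dia2_316
import Crest.Agent.R096.Bgf11_4
import Crest.Agent.R096.Bse2_344

/-!
# Row 96, DOORS: the numbers of record, part 2: the radii (helper698)

`ρ1 ρ2 ρ3 ρ4 d` = the numbers of the clause `room` of `Tiny` (95's `Rm`), `rB`, `hB`, `hiB` = 4's
numbers of the barriers with `sg = μ/16`.
`RadD`, **`exists_radD`**, the windows of the barriers, 344's `RadV`, levels `ε ∈ (1, hiB)`.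
-/

set_option autoImplicit false
set_option linter.unusedSectionVars false

open Set

namespace Crest.Agent.R096.Nmd2_698

open Crest.Agent.R096.Nmd1_698
open Crest.Agent.R096.Exa_560 (Cn Cn_nonneg)
open Crest.Agent.R096.Brk1_582 Crest.Agent.R096.Brk2_582 Crest.Agent.R096.Brk5_582
open Crest.Agent.R096.Bsp_628 Crest.Agent.R096.Msh_715
open Crest.Agent.R096.SkC1_961 (E3 Hom3 FoamD)
open Crest.Agent.R096.Mbf_337 (Cores Fine KJ sb gau)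
open Crest.Agent.R096.Ess5_95 (Rm ga)
open Crest.Agent.R096.Bgf_4 (rB hB hiB rB_sub rB_add hiB_le one_lt_hiB hB_mul_hiB)
open Crest.Agent.R096.Bse_344 (RadV)

variable {δ κ0 R c0 : ℝ} {La Om : Set E3} {ι : Type} {Φ : FoamD δ κ0 R c0 La}
  {T : Tiling Om ι} {f : E3 → E3} {κ1 κ2 : ℝ} {X : Set Φ.F} {J0 J V : Φ.F → Set ι}
  {ct : Φ.F → ι} {A : Φ.F → E3 ≃ᵃ[ℝ] E3} {lam : Φ.F → ℝ} {z : Φ.F → E3}
  {θ : Φ.F → E3 → E3} {φ : Φ.F → E3 → ℝ} {ρ1 ρ2 ρ3 ρ4 d : Φ.F → ℝ}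

/-- **the radii** at all tiny cores -/
structure RadD (Φ : FoamD δ κ0 R c0 La) (T : Tiling Om ι) (f : E3 → E3) (κ1 : ℝ) (X : Set Φ.F)
    (J0 J V : Φ.F → Set ι) (θ : Φ.F → E3 → E3) (ρ1 ρ2 ρ3 ρ4 d : Φ.F → ℝ) : Prop where
  rm : ∀ c ∉ X, Rm Φ T f c (J0 c) (J c) (V c) (θ c) (ρ1 c) (ρ2 c) (ρ3 c) (ρ4 c) (d c)
  dk : ∀ c ∉ X, d c ≤ κ1

/-- **the radii exist** -/
theorem exists_radD (hC : Cores Φ T f κ1 κ2 X J0 J V ct A lam z θ φ) :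
    ∃ ρ1 ρ2 ρ3 ρ4 d : Φ.F → ℝ, RadD Φ T f κ1 X J0 J V θ ρ1 ρ2 ρ3 ρ4 d := by
  obtain ⟨ρ1, ρ2, ρ3, ρ4, d, h⟩ := Dia_316.exists_rms hC
  exact ⟨ρ1, ρ2, ρ3, ρ4, d, fun c hc => (h c hc).2, fun c hc => (h c hc).1⟩

variable (h : RadD Φ T f κ1 X J0 J V θ ρ1 ρ2 ρ3 ρ4 d) {c : Φ.F} (hc : c ∉ X)
include h hc

/-- **the linear facts** on the radii -/
theorem RadD.base : 0 < d c ∧ d c ≤ κ1 ∧ 0 < ρ1 c ∧ ρ1 c + 16 * d c ≤ ρ2 c ∧ ρ2 c ≤ ρ3 c ∧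
    ρ3 c + 16 * d c ≤ ρ4 c ∧ ρ4 c < 1 :=
  ⟨(h.rm c hc).d0, h.dk c hc, (h.rm c hc).r1, (h.rm c hc).r12, (h.rm c hc).r23, (h.rm c hc).r34,
    (h.rm c hc).r4⟩

theorem RadD.hB0 : 0 < hB ρ1 ρ3 d c := by
  obtain ⟨n1, n2, n3, n4, n5, n6, n7⟩ := h.base hc
  unfold hB; linarith

/-- 95 `eg_moat` : `hrd` -/
theorem RadD.hrd : rB ρ1 ρ3 d c - hB ρ1 ρ3 d c * 1 ≤ ρ1 c + 5 * d c := by
  obtain ⟨n1, n2, n3, n4, n5, n6, n7⟩ := h.base hc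
  have h1 := rB_sub (ρ1 := ρ1) (ρ3 := ρ3) (d := d) c
  linarith

/-- 95 `eg_moat` : `hru` -/
theorem RadD.hru : ρ3 c + 10 * d c ≤ rB ρ1 ρ3 d c + hB ρ1 ρ3 d c * 1 := by
  obtain ⟨n1, n2, n3, n4, n5, n6, n7⟩ := h.base hc
  have h1 := rB_add (ρ1 := ρ1) (ρ3 := ρ3) (d := d) c
  linarith

/-- 95 `eg_moat` : `hru'` -/
theorem RadD.hru' (sg : ℝ) : rB ρ1 ρ3 d c + hB ρ1 ρ3 d c * hiB ρ1 ρ3 d sg c ≤ ρ3 c + 15 * d c := by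
  obtain ⟨n1, n2, n3, n4, n5, n6, n7⟩ := h.base hc
  have h1 := rB_add (ρ1 := ρ1) (ρ3 := ρ3) (d := d) c
  have h2 := hB_mul_hiB (sg := sg) (h.hB0 hc)
  linarith

/-- the outer end of a barrier of level `ε < hiB` -/
theorem RadD.top {sg ε : ℝ} (hε : ε ≤ hiB ρ1 ρ3 d sg c) :
    rB ρ1 ρ3 d c + hB ρ1 ρ3 d c * ε ≤ ρ3 c + 13 * d c := by
  have h1 := rB_add (ρ1 := ρ1) (ρ3 := ρ3) (d := d) c
  have h2 := hB_mul_hiB (sg := sg) (h.hB0 hc)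
  have h3 := mul_le_mul_of_nonneg_left hε (h.hB0 hc).le
  linarith

/-- the outer end of a barrier of level `1 ≤ ε` -/
theorem RadD.top' {ε : ℝ} (hε : 1 ≤ ε) : ρ3 c + 12 * d c ≤ rB ρ1 ρ3 d c + hB ρ1 ρ3 d c * ε := by
  have h1 := rB_add (ρ1 := ρ1) (ρ3 := ρ3) (d := d) c
  have h3 := mul_le_mul_of_nonneg_left hε (h.hB0 hc).le
  linarith

/-- the inner end of a barrier of level `ε < hiB` -/
theorem RadD.bot {sg ε : ℝ} (hε : ε ≤ hiB ρ1 ρ3 d sg c) :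
    ρ1 c + 3 * d c ≤ rB ρ1 ρ3 d c - hB ρ1 ρ3 d c * ε := by
  have h1 := rB_sub (ρ1 := ρ1) (ρ3 := ρ3) (d := d) c
  have h2 := hB_mul_hiB (sg := sg) (h.hB0 hc)
  have h3 := mul_le_mul_of_nonneg_left hε (h.hB0 hc).le
  linarith

/-- the inner end of a barrier of level `1 ≤ ε` -/
theorem RadD.bot' {ε : ℝ} (hε : 1 ≤ ε) : rB ρ1 ρ3 d c - hB ρ1 ρ3 d c * ε ≤ ρ1 c + 4 * d c := by
  have h1 := rB_sub (ρ1 := ρ1) (ρ3 := ρ3) (d := d) c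
  have h3 := mul_le_mul_of_nonneg_left hε (h.hB0 hc).le
  linarith

/-- the frontier of the core lies between the ends, with room `8 d` on both sides -/
theorem RadD.fr {x : E3} (hx : x ∈ frontier (KJ T (J c))) :
    ρ1 c + 16 * d c ≤ gau c.1 (Φ.B c).lo (f x) ∧ gau c.1 (Φ.B c).lo (f x) ≤ ρ3 c := by
  obtain ⟨n1, n2, n3, n4, n5, n6, n7⟩ := h.base hc
  have h1 := (h.rm c hc).fr x hx
  exact ⟨n4.trans h1.1, h1.2⟩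

omit hc in
/-- **344's `RadV`** for every radius `≤ ρ4` -/
theorem RadD.radV {ρ : Φ.F → ℝ} (hρ : ∀ c ∉ X, ρ c ≤ ρ4 c) : RadV Φ T f X V ρ where
  tile := fun c hc i hi => by
    obtain ⟨x, hx, h1⟩ := hi
    exact (h.rm c hc).v i ⟨x, hx, h1.trans (hρ c hc)⟩

omit h hc in
/-- the levels of record: `ε ∈ (1, hiB)`, `sg = μ/16` -/
theorem eps_le {μ ε : ℝ} {c : Φ.F} (hε : ε ∈ Ioo 1 (hiB ρ1 ρ3 d (μ / 16) c)) :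
    1 < ε ∧ ε ≤ 1 + μ / 16 ∧ ε ≤ hiB ρ1 ρ3 d (μ / 16) c :=
  ⟨hε.1, hε.2.le.trans (hiB_le _ _), hε.2.le⟩

end Crest.Agent.R096.Nmd2_698
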