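import Crest.Agent.R096.Sec5_892
import Crest.Agent.R096.Dinv3_106

/-!
# Row 96, DOORS-INV (helper106), part 4: the part of a sheet inside a barrier hangs at the door

`moat_door` : no closed double curve (after CUT), `X` closed under the chords of the sheet `i` on the
faces of the region `Rg` of the barrier `j`, all double points `(i,j)` on frozen faces (= on the giant)
have their chord in `X` ⟹ all points of `i` inside the barrier are in `X`.  No number of double
points is needed.
-/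

set_option autoImplicit false

namespace Crest.Agent.R096.Dinv_106

open Crest.Agent.R096.St_147 Crest.Agent.R096.Wk_689 Crest.Agent.R096.Sec_892

variable {ι Φ W I : Type} {M : MeshC ι Φ W} {col : I → Bool} {s : St M col} {Act : Set ι}

/-- **the points of the sheet `i` inside the barrier `j`** -/
theorem moat_door (A : s.Arcs Act) (hno : ∀ G : Set s.Dbl, A.Closed G → G = ∅) {i j : I}
    (hi : col i = true) (hj : col j = false) (hconn : s.Conn i) (lam : W → Prop)
    (hlam : ∀ F w, s.At F w → s.lab w = i →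
      (∀ x, s.At F x → s.lab x = j → ¬ M.Lace F w (s.mu F w) x (s.mu F x)) → lam w →
        lam (s.mu F w))
    (hout : ∃ v ∈ s.P, s.lab v = i ∧ ¬ lam v) (Rg : Set Φ)
    (hR1 : ∀ z ∈ DD2 s i j, ∀ q F, q ∈ M.side z.F → q ∈ M.side F → F ∈ Rg)
    (hR2 : ∀ F w, s.At F w → s.lab w = i → lam w → F ∈ Rg) (X : Set W)
    (hX : ∀ F w, F ∈ Rg → w ∈ X → s.At F w → s.lab w = i → s.mu F w ∈ X)
    (hdoor : ∀ z ∈ DD2 s i j, St.Frozen M Act z.F → z.e true ∈ X)
    {w : W} (hwP : w ∈ s.P) (hwi : s.lab w = i) (hwl : lam w) : w ∈ X := by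
  classical
  by_contra hcon
  -- the complement is closed
  have hXc : ∀ F w, F ∈ Rg → w ∈ Xᶜ → s.At F w → s.lab w = i → s.mu F w ∈ Xᶜ := by
    intro F v hF hv hA hvi h
    have h1 := hX F _ hF h (s.mu_mem hA.1 hA.2) (by rw [s.mu_lab hA.1 hA.2]; exact hvi)
    rw [s.mu_mu hA.1 hA.2] at h1
    exact hv h1
  -- the double points whose chord is not in `X`
  have hmeet : ∃ z ∈ DD2 s i j, z.e true ∈ Xᶜ := by
    by_contra hcon2
    push Not at hcon2
    obtain ⟨u, huP, hui, hul⟩ := hout
    have := hconn.2 {v | v ∈ Xᶜ ∧ lam v} ?_ w ⟨hcon, hwl⟩ hwP hwi u huP hui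
    · exact hul this.2
    · rintro F y ⟨hyY, hyl⟩ hyA hyi
      have hF := hR2 F y hyA hyi hyl
      refine ⟨hXc F y hF hyY hyA hyi, hlam F y hyA hyi ?_ hyl⟩
      intro x hxA hxj hl
      obtain ⟨z, hzF, hz1, hz2⟩ := Seq_213.exists_dbl s hyA hxA
        (by rw [hxj, hyi, hi, hj]; decide) hl
      rw [hyi, hi] at hz1
      rw [hxj, hj] at hz2
      have hzD : z ∈ DD2 s i j := by
        refine ⟨?_, ?_⟩
        · rw [hz1, Seq_213.lo_lab s hyA]; exact hyi
        · rw [hz2, Seq_213.lo_lab s hxA]; exact hxj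
      refine hcon2 z hzD ?_
      rw [hz1]
      rcases Seq_213.lo_cases s F y with e | e
      · rw [e]; exact hyY
      · rw [e]; exact hXc F y hF hyY hyA hyi
  have hZ : ArcClosed A {z | z ∈ DD2 s i j ∧ z.e true ∈ Xᶜ} := by
    rintro z ⟨hz, hzX⟩ q hq hqA
    have hz' := arc_DD2 A z hz q hq hqA
    refine ⟨hz', ?_⟩
    have h := A.same (z := z) true hqA hq
      (fun p => if s.lab (chd p).2 = i ∧ (chd p).2 ∈ Xᶜ then 1 else 0) ?_ ?_
    · have e1 : (s.lab (chd (Sum.inr z : s.Sub true)).2 = i ∧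
          (chd (Sum.inr z : s.Sub true)).2 ∈ Xᶜ) := ⟨hz.1, hzX⟩
      rw [if_pos e1] at h
      by_contra hne
      rw [if_neg (fun h' => hne h'.2)] at h
      exact one_ne_zero h
    · intro F F' v p p' hqF hqF' hp hp'
      have hFR := hR1 z hz q F hq hqF
      have hFR' := hR1 z hz q F' hq hqF'
      have key : ∀ F (p : s.Sub true), F ∈ Rg → p.End F v →
          ((s.lab (chd p).2 = i ∧ (chd p).2 ∈ Xᶜ) ↔ (s.lab v = i ∧ v ∈ Xᶜ)) := by
        intro F p hF hp
        have hA := hp.1
        rw [Cp_298.end_chd hp]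
        show (s.lab (s.lo F v) = i ∧ s.lo F v ∈ Xᶜ) ↔ _
        rw [Seq_213.lo_lab s hA]
        constructor
        · rintro ⟨h1, h2⟩
          refine ⟨h1, ?_⟩
          rcases Seq_213.lo_cases s F v with e | e
          · rw [e] at h2; exact h2
          · rw [e] at h2
            have h3 := hXc F _ hF h2 (s.mu_mem hA.1 hA.2) (by rw [s.mu_lab hA.1 hA.2]; exact h1)
            rw [s.mu_mu hA.1 hA.2] at h3
            exact h3
        · rintro ⟨h1, h2⟩
          refine ⟨h1, ?_⟩
          rcases Seq_213.lo_cases s F v with e | e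
          · rw [e]; exact h2
          · rw [e]; exact hXc F v hF h2 hA h1
      exact if_congr ((key F p hFR hp).trans (key F' p' hFR' hp').symm) rfl rfl
    · intro u p p' _ hb ha
      have e1 := below_chd hb
      have e2 : p' = Sum.inr u := ha
      have e3 : chd p' = (u.F, u.e true) := by rw [e2]; rfl
      show (if s.lab (chd p).2 = i ∧ (chd p).2 ∈ Xᶜ then (1 : ZMod 2) else 0) =
        (if s.lab (chd p').2 = i ∧ (chd p').2 ∈ Xᶜ then (1 : ZMod 2) else 0)
      rw [e1, e3]
  -- an arc closed nonempty set contains a frozen point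
  obtain ⟨z, hz, hzX⟩ := hmeet
  have hc : A.Closed {z | z ∈ DD2 s i j ∧ z.e true ∈ Xᶜ} := by
    intro y hy q hq
    have hqA : q ∈ Act := by
      by_contra h
      exact hy.2 (hdoor y hy.1 ⟨q, hq, h⟩)
    exact ⟨hqA, hZ y hy q hq hqA⟩
  have h1 : z ∈ {z | z ∈ DD2 s i j ∧ z.e true ∈ Xᶜ} := ⟨hz, hzX⟩
  rw [hno _ hc] at h1
  exact h1

end Crest.Agent.R096.Dinv_106
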