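import Crest.Agent.R096.Gl1_422
import Crest.Agent.R096.Dinv4_106

/-!
# Row 96 (S0127), DOORS (helper246): the side of a point with respect to a barrier

`L : LM M Q dim` (117), `Y` = the points of one barrier, `lam` a global label of `Y` (422's `GLab`).
The side of a point `w ∉ Y` is `L.ext Y lam w`.  A chord which is laced with no chord of the barrier
joins points of the same side: hypothesis `hlam` of 106's `moat_door`.
-/

set_option autoImplicit false
set_option linter.unusedSectionVars false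

namespace Crest.Agent.R096.Sdf_246

open Crest.Agent.R096.St_147 Crest.Agent.R096.Seq_213 Crest.Agent.R096.Lm_117
  Crest.Agent.R096.Ac_117 Crest.Agent.R096.Gl_422

variable {ι Φ W Q : Type} [PartialOrder Q] {dim : Q → ℕ} {M : MeshC ι Φ W} {L : LM M Q dim}

/-- the points of a matched set between the ends of a chord laced with no chord of the matching -/
theorem bet_zero {Y : Finset W} {F : Φ} {μ : W → W}
    (hμ : ∀ q ∈ Y, q ∈ M.On F → μ q ∈ Y ∧ μ q ∈ M.On F ∧ μ (μ q) = q ∧ μ q ≠ q) {w w' : W}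
    (hl : ∀ q ∈ Y, q ∈ M.On F → ¬ M.Lace F w w' q (μ q)) : bet M F Y w w' = 0 := by
  classical
  unfold bet
  have h1 : ∑ _q ∈ Y.filter (fun q => q ∈ M.On F ∧ M.Btw F w w' q), (1 : ZMod 2) = 0 := by
    refine Finset.sum_involution (fun q _ => μ q) (fun q hq => by decide)
      (fun q hq _ => ?_) (fun q hq => ?_) (fun q hq => ?_)
    · obtain ⟨a1, a2, -⟩ := Finset.mem_filter.1 hq
      exact (hμ q a1 a2).2.2.2
    · obtain ⟨a1, a2, a3⟩ := Finset.mem_filter.1 hq
      obtain ⟨b1, b2, -, -⟩ := hμ q a1 a2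
      have hl' : (M.Btw F w w' q ↔ M.Btw F w w' (μ q)) := by
        by_contra hcon
        exact hl q a1 a2 hcon
      exact Finset.mem_filter.2 ⟨b1, b2, hl'.1 a3⟩
    · obtain ⟨a1, a2, -⟩ := Finset.mem_filter.1 hq
      exact (hμ q a1 a2).2.2.1
  rw [Finset.sum_const, nsmul_eq_mul, mul_one] at h1
  convert h1

/-- a matched set is even on a face -/
theorem even_of {Y : Finset W} {F : Φ} {μ : W → W}
    (hμ : ∀ q ∈ Y, q ∈ M.On F → μ q ∈ Y ∧ μ q ∈ M.On F ∧ μ (μ q) = q ∧ μ q ≠ q) :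
    nW Y (M.On F) = 0 := by
  classical
  rw [nW_card]
  have h1 : ∑ _q ∈ Y.filter (fun q => q ∈ M.On F), (1 : ZMod 2) = 0 := by
    refine Finset.sum_involution (fun q _ => μ q) (fun q hq => by decide)
      (fun q hq _ => ?_) (fun q hq => ?_) (fun q hq => ?_)
    · obtain ⟨h1, h2⟩ := Finset.mem_filter.1 hq
      exact (hμ q h1 h2).2.2.2
    · obtain ⟨h1, h2⟩ := Finset.mem_filter.1 hq
      obtain ⟨b1, b2, -, -⟩ := hμ q h1 h2
      exact Finset.mem_filter.2 ⟨b1, b2⟩
    · obtain ⟨h1, h2⟩ := Finset.mem_filter.1 hq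
      exact (hμ q h1 h2).2.2.1
  rw [Finset.sum_const, nsmul_eq_mul, mul_one] at h1
  convert h1

/-- **the two ends of a chord laced with no chord of the barrier are on the same side** -/
theorem ext_chord {Y : Finset W} {lam : Q → ZMod 2} (h : GLab L Y lam) {F : Φ} {μ : W → W}
    (hμ : ∀ q ∈ Y, q ∈ M.On F → μ q ∈ Y ∧ μ q ∈ M.On F ∧ μ (μ q) = q ∧ μ q ≠ q) {w w' : W}
    (hw : w ∈ M.On F) (hw' : w' ∈ M.On F) (hwY : w ∉ Y) (hwY' : w' ∉ Y)
    (hl : ∀ q ∈ Y, q ∈ M.On F → ¬ M.Lace F w w' q (μ q)) : L.ext Y lam w = L.ext Y lam w' := by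
  have e := h.ext_add (even_of hμ) hw hw' hwY hwY'
  rw [bet_zero hμ hl] at e
  exact CharTwo.add_eq_zero.1 e

section St

variable {I : Type} {col : I → Bool}

open Classical in
/-- the points of the name `j` -/
noncomputable def sp (s : St M col) (j : I) : Finset W := s.P.filter fun w => s.lab w = j

theorem mem_sp {s : St M col} {j : I} {w : W} : w ∈ sp s j ↔ w ∈ s.P ∧ s.lab w = j := by
  classical
  unfold sp; rw [Finset.mem_filter]

theorem sp_mu (s : St M col) (j : I) (F : Φ) : ∀ q ∈ sp s j, q ∈ M.On F →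
    s.mu F q ∈ sp s j ∧ s.mu F q ∈ M.On F ∧ s.mu F (s.mu F q) = q ∧ s.mu F q ≠ q := by
  intro q hq hF
  obtain ⟨h1, h2⟩ := mem_sp.1 hq
  obtain ⟨h3, h4⟩ := s.mu_mem h1 hF
  exact ⟨mem_sp.2 ⟨h3, (s.mu_lab h1 hF).trans h2⟩, h4, s.mu_mu h1 hF, s.mu_ne h1 hF⟩

/-- **side of the barrier `j`** (1 = the side where the label is 1) -/
def Sd (L : LM M Q dim) (Y : Finset W) (lam : Q → ZMod 2) (w : W) : Prop := L.ext Y lam w = 1

/-- **`hlam` of 106's `moat_door`** from a global label of the barrier points; the state may be the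
state after the cut, `Y` = the points of the barrier (unchanged by the cut). -/
theorem hlam_of {s : St M col} {i j : I} (hij : i ≠ j) {Y : Finset W} {lam : Q → ZMod 2}
    (h : GLab L Y lam) (hY : ∀ w, w ∈ Y ↔ w ∈ s.P ∧ s.lab w = j) :
    ∀ F w, s.At F w → s.lab w = i →
      (∀ x, s.At F x → s.lab x = j → ¬ M.Lace F w (s.mu F w) x (s.mu F x)) → Sd L Y lam w →
        Sd L Y lam (s.mu F w) := by
  intro F w hA hwi hno hw
  have hY' : Y = sp s j := by
    ext w; rw [hY, mem_sp]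
  have hm := s.mu_mem hA.1 hA.2
  have hml := (s.mu_lab hA.1 hA.2).trans hwi
  have e := ext_chord (L := L) h (F := F) (μ := s.mu F) (by rw [hY']; exact sp_mu s j F)
    hA.2 hm.2 (fun h' => hij (hwi.symm.trans ((hY w).1 h').2))
    (fun h' => hij (hml.symm.trans ((hY _).1 h').2))
    (fun q hq hF => hno q ⟨((hY q).1 hq).1, hF⟩ ((hY q).1 hq).2)
  unfold Sd at hw ⊢
  rw [← e]; exact hw

theorem hlam_iff {s : St M col} {i j : I} (hij : i ≠ j) {Y : Finset W} {lam : Q → ZMod 2}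
    (h : GLab L Y lam) (hY : ∀ w, w ∈ Y ↔ w ∈ s.P ∧ s.lab w = j) {F : Φ} {w : W} (hA : s.At F w)
    (hwi : s.lab w = i)
    (hno : ∀ x, s.At F x → s.lab x = j → ¬ M.Lace F w (s.mu F w) x (s.mu F x)) :
    Sd L Y lam w ↔ Sd L Y lam (s.mu F w) := by
  have hY' : Y = sp s j := by
    ext w; rw [hY, mem_sp]
  have hm := s.mu_mem hA.1 hA.2
  have hml := (s.mu_lab hA.1 hA.2).trans hwi
  have e := ext_chord (L := L) h (F := F) (μ := s.mu F) (by rw [hY']; exact sp_mu s j F)
    hA.2 hm.2 (fun h' => hij (hwi.symm.trans ((hY w).1 h').2))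
    (fun h' => hij (hml.symm.trans ((hY _).1 h').2))
    (fun q hq hF => hno q ⟨((hY q).1 hq).1, hF⟩ ((hY q).1 hq).2)
  unfold Sd
  rw [e]

end St

section GSt

variable {J C : Type} {fam : J → C}

theorem gp_mu (s : GSt M fam) (j : J) (F : Φ) : ∀ q ∈ gp s j, q ∈ M.On F →
    s.mu F q ∈ gp s j ∧ s.mu F q ∈ M.On F ∧ s.mu F (s.mu F q) = q ∧ s.mu F q ≠ q := by
  intro q hq hF
  obtain ⟨h1, h2⟩ := mem_gp.1 hq
  obtain ⟨h3, h4⟩ := s.mu_mem h1 hF
  exact ⟨mem_gp.2 ⟨h3, (s.mu_lab h1 hF).trans h2⟩, h4, s.mu_mu h1 hF, s.mu_ne h1 hF⟩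

/-- the same in a state with many families -/
theorem side_chord {s : GSt M fam} {i j : J} (hij : i ≠ j) {lam : Q → ZMod 2}
    (h : GLab L (gp s j) lam) {F : Φ} {w : W} (hA : s.At F w) (hwi : s.lab w = i)
    (hno : ∀ x, s.At F x → s.lab x = j → ¬ M.Lace F w (s.mu F w) x (s.mu F x)) :
    L.ext (gp s j) lam w = L.ext (gp s j) lam (s.mu F w) := by
  have hm := s.mu_mem hA.1 hA.2
  have hml := (s.mu_lab hA.1 hA.2).trans hwi
  exact ext_chord h (gp_mu s j F) hA.2 hm.2
    (fun h' => hij (hwi.symm.trans (mem_gp.1 h').2))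
    (fun h' => hij (hml.symm.trans (mem_gp.1 h').2))
    (fun q hq hF => hno q ⟨(mem_gp.1 hq).1, hF⟩ (mem_gp.1 hq).2)

end GSt

/-- on a 1-cell with no point of `Y` before `w` the side is the label of the first end; if no point
of `Y` is on the 1-cell it is the label of both ends -/
theorem ext_of_free {Y : Finset W} {lam : Q → ZMod 2} {w : W}
    (hY : ∀ y ∈ Y, y ∉ L.On1 (L.ed w)) : L.ext Y lam w = lam (L.en (L.ed w) false) := by
  have h : L.toSk.pre Y w = 0 := by
    refine nW_empty fun y hy h => hY y hy ⟨h.1, h.2.1⟩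
  show lam (L.en (L.ed w) false) + L.toSk.pre Y w = _
  rw [h, add_zero]

end Crest.Agent.R096.Sdf_246
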