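import Crest.Agent.R096.Sde1_422
import Crest.Agent.R096.Sdf1_246
import Crest.Agent.R096.Dfi4_471

/-!
# R096 (row 96), DOORS, G4 (helper246), part 2: **columns and faces**

`hlam3`, `hsd3` : the side function of a barrier of `s` along the chords of another state `s₃` on the
same mesh (hypotheses `hlam`, `hsd` of 527's `v_in_cut`);
`side_end`      : the side of a point of a 1-cell without barrier points = the label of its end;
`side_vert`, `side_hor` : the side over a vertex / over an edge of the frontier of a core = the label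
of the vertex of the frontier;
`noCol_s2`, `noHor_s2`  : no points of `i` in the column over a vertex which is not in the regions /
over an edge without trace points and exact points.
-/

set_option autoImplicit false
set_option linter.unusedSectionVars false
set_option linter.unusedVariables false

open Set Module Relation
open scoped Classical

namespace Crest.Agent.R096.Sdf_246

open Crest.Agent.R096.Msh_715 Crest.Agent.R096.Sla_184 Crest.Agent.R096.Slp_316
  Crest.Agent.R096.Ce_537 Crest.Agent.R096.Exa_560 Crest.Agent.R096.Agl5_543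
  Crest.Agent.R096.Seq_213 Crest.Agent.R096.St_147 Crest.Agent.R096.Door_501
  Crest.Agent.R096.Gl_422 Crest.Agent.R096.Vrt_422 Crest.Agent.R096.Lmx_662
  Crest.Agent.R096.Lm_117 Crest.Agent.R096.Ac_117 Crest.Agent.R096.Cp_298
  Crest.Agent.R096.Ori_543 Crest.Agent.R096.Coh_184 Crest.Agent.R096.Gm_298
  Crest.Agent.R096.Flb_422 Crest.Agent.R096.Sid_422 Crest.Agent.R096.Sde_422
  Crest.Agent.R096.Twr_438 Crest.Agent.R096.Dfi_539 Crest.Agent.R096.Dfi_471
  Crest.Agent.R096.Ess3_95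
open Crest.Agent.R096.Sla_184.Sla (hf vf old tg F0 Fn Out OnS InL In)

/-! ### chords of another state -/

section gen

variable {ι Φ W Q : Type} [PartialOrder Q] {dim : Q → ℕ} {M : MeshC ι Φ W}
variable {J C J3 C3 : Type} {fam : J → C} {fam3 : J3 → C3} {L : LM M Q dim} {s : GSt M fam}
  {s3 : GSt M fam3} {i : J} {lam : Q → ZMod 2} {F : Φ} {w w' : W}

/-- **no chord of `i` separates two points of a face: the sides are equal** -/
theorem side_pair (h : GLab L (gp s i) lam) (hw : w ∈ M.On F) (hw' : w' ∈ M.On F)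
    (hl : w ∉ gp s i) (hl' : w' ∉ gp s i)
    (hno : ∀ q, s.At F q → s.lab q = i → ¬ M.Lace F w w' q (s.mu F q)) :
    side L s i lam w = side L s i lam w' := by
  have e := side_add h hw hw' hl hl'
  have h0 : sepF s i F w w' = ∅ := by
    rw [Finset.eq_empty_iff_forall_notMem]
    intro q hq
    obtain ⟨a1, a2, a3, a4⟩ := Finset.mem_filter.1 hq
    obtain ⟨a5, a6⟩ := mem_gp.1 a1
    exact hno q ⟨a5, a2⟩ a6 (fun hiff => a4 (hiff.1 a3))
  rw [h0, Finset.card_empty, Nat.cast_zero] at e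
  exact CharTwo.add_eq_zero.1 e

/-- **a face without points of `i` is on one side** -/
theorem side_face (h : GLab L (gp s i) lam) (hw : w ∈ M.On F) (hw' : w' ∈ M.On F)
    (hno : ∀ x, s.At F x → s.lab x ≠ i) : side L s i lam w = side L s i lam w' :=
  side_pair h hw hw' (fun h' => hno w ⟨(mem_gp.1 h').1, hw⟩ (mem_gp.1 h').2)
    (fun h' => hno w' ⟨(mem_gp.1 h').1, hw'⟩ (mem_gp.1 h').2)
    (fun q hq hqi => absurd hqi (hno q hq))

/-- **`hlam` of 527's `v_in_cut`** -/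
theorem hlam3 (h : GLab L (gp s i) lam) (hd : ∀ w ∈ s3.P, w ∈ s.P → s.lab w ≠ i) {j : J3} :
    ∀ F w, s3.At F w → s3.lab w = j →
      (∀ x, s.At F x → s.lab x = i → ¬ M.Lace F w (s3.mu F w) x (s.mu F x)) →
      side L s i lam w = 1 → side L s i lam (s3.mu F w) = 1 := by
  intro F w hw _ hno h1
  have h2 := s3.mu_mem hw.1 hw.2
  rw [← side_pair h hw.2 h2.2 (fun h' => hd w hw.1 (mem_gp.1 h').1 (mem_gp.1 h').2)
    (fun h' => hd _ h2.1 (mem_gp.1 h').1 (mem_gp.1 h').2) hno]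
  exact h1

/-- **`hsd` of 527's `v_in_cut`** -/
theorem hsd3 (h : GLab L (gp s i) lam) : ∀ F w w', s3.At F w → s3.At F w' →
    (∀ x, s.At F x → s.lab x ≠ i) → side L s i lam w = 1 → side L s i lam w' = 1 := by
  intro F w w' hw hw' hno h1
  rw [← side_face h hw.2 hw'.2 hno]
  exact h1

end gen

/-! ### the side of a point of a 1-cell without points of `i` -/

section ends

variable {E : Type} [NormedAddCommGroup E] [NormedSpace ℝ E] [FiniteDimensional ℝ E]
variable {Om : Set E} {ι : Type} {T : Tiling Om ι} {κ : Type} {Kc : κ → Set E} [Nonempty T.Cell]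
variable {h3 : finrank ℝ E = 3} {hH : ∀ c, CoreH T (Kc c)}
  {hdis : ∀ c c', c ≠ c' → Disjoint (Kc c) (Kc c')} {hne : ∃ c, OutK T Kc c}
  {J C : Type} {fam : J → C} {s : GSt (mK h3 hH hdis) fam} {i : J}
  {lam : QK (belK T Kc) → ZMod 2}

/-- a vertex of a 1-cell is one of its ends -/
theorem end_eq {x p : E} (hx : x ∈ Om) (hd : T.dim x = 1) (hp : p ∈ T.cc x)
    (hp0 : T.dim p = 0) : ∃ b : Bool, enC (edC T x) b = edC T p := by
  have he : (edC T x).dim = 1 := edC_dim ⟨hx, hd⟩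
  obtain ⟨q1, q2, q3⟩ := ep_spec he
  rw [edC_set hx] at q2
  have h1 := T.vertex_of_edge hx hd q2 hp hp0
  have key : ∀ b, enC (edC T x) b = edC T (epE (edC T x) b) := by
    intro b
    have hO := Crest.Agent.R096.Cm_117.cell_sub (edC T x) (q3 b).2
    unfold enC
    rw [dif_pos hO, ← edC_cl hO]
  rcases h1 with h1 | h1
  · exact ⟨false, by rw [key, ← h1]⟩
  · exact ⟨true, by rw [key, ← h1]⟩

/-- **the side of a point of a 1-cell without points of `i`** is the label of any end -/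
theorem side_end (h : GLab (lmK h3 hH hdis hne) (gp s i) lam) {w p : E}
    (hw : w ∈ (lmK h3 hH hdis hne).W1) (hp : p ∈ T.cc w) (hp0 : T.dim p = 0)
    (hno : ∀ q ∈ s.P, s.lab q = i → q ∉ T.oc w) (ho : OutK T Kc (edC T p)) :
    side (lmK h3 hH hdis hne) s i lam w = lam (oc (edC T p) ho) := by
  obtain ⟨hO, hd, hi⟩ := mem_W1K.1 hw
  have hKw : OutK T Kc (edC T w) := by
    obtain ⟨q, hq, h5⟩ := exists_tile_out hdis hO hi
    refine ⟨q, h5, ?_⟩
    rw [edC_set hO]
    exact T.cc_sub_tile hq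
  have hed : (lmK h3 hH hdis hne).ed w = oc (edC T w) hKw := by
    have h1 : w ∈ (lmK h3 hH hdis hne).On1 (oc (edC T w) hKw) := by
      rw [on_K hKw]
      exact ⟨⟨hO, hd⟩, rfl⟩
    exact h1.2
  have hfree : ∀ q ∈ gp s i, q ∉ (lmK h3 hH hdis hne).toSk.On1 ((lmK h3 hH hdis hne).ed w) := by
    intro q hq hq1
    obtain ⟨h1, h2⟩ := mem_gp.1 hq
    rw [hed, on_K hKw] at hq1
    obtain ⟨⟨h4, h5⟩, h6⟩ := hq1
    refine hno q h1 h2 (Slc_184.mem_oc_of_dim ?_ (hd.trans h5.symm).le)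
    rw [← edC_set hO, ← h6, edC_set h4]
    exact T.self_mem_cc q
  obtain ⟨e1, e2⟩ := side_first h hw hfree
  have e3 : ∀ b, side (lmK h3 hH hdis hne) s i lam w =
      lam ((lmK h3 hH hdis hne).en ((lmK h3 hH hdis hne).ed w) b) := by
    intro b
    cases b
    · exact e1
    · exact e2
  obtain ⟨b, hb⟩ := end_eq hO hd hp hp0
  obtain ⟨o1, e4⟩ := en_K (h3 := h3) (hH := hH) (hdis := hdis) (hne := hne) hKw
    (edC_dim ⟨hO, hd⟩) b
  rw [e3 b, hed, e4]
  congr 1
  congr 1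

end ends

/-! ### the columns of the sliced mesh -/

section sla

variable {E : Type} [NormedAddCommGroup E] [NormedSpace ℝ E] [FiniteDimensional ℝ E]
variable {Om : Set E} {ι : Type} {T : Tiling Om ι} {κ : Type} {S : Sla T κ} {c : κ}
variable {w x y v q : E} [Nonempty S.T3.Cell]
variable {h3 : finrank ℝ E = 3} {hH : ∀ c, CoreH S.T3 (S.KK c)} {hne : ∃ c, OutK S.T3 S.KK c}
  {C J : Type} {fam : J → C} {s : GSt (mK h3 hH Sla.dis_KK) fam} {i : J}
  {lam : QK (belK S.T3 S.KK) → ZMod 2} {j : ℕ}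

/-- the label is constant on the column over a vertex without points of `i` -/
theorem lam_col (h : GLab (lmK h3 hH Sla.dis_KK hne) (gp s i) lam) (hC : NoCol S s i c v)
    (hv : v ∈ frontier (S.K c)) (h0 : T.dim v = 0) (hj : j ≤ S.n c) :
    lam (oc (edC S.T3 (S.hc c v j)) (outK_hc (Sla.fr_Bd hv) hj)) =
      lam (oc (edC S.T3 v) (outK_foot hv h0)) :=
  np_path h (hC.path hv h0 hj)

/-- **the side over a vertex** -/
theorem side_vert (h : GLab (lmK h3 hH Sla.dis_KK hne) (gp s i) lam) (hC : NoCol S s i c v)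
    (hv : v ∈ frontier (S.K c)) (h0 : T.dim v = 0) (hO : w ∈ S.O c v) (hL : S.InL c j w) :
    side (lmK h3 hH Sla.dis_KK hne) s i lam w = lam (oc (edC S.T3 v) (outK_foot hv h0)) := by
  have hB := Sla.fr_Bd hv
  have hd : S.T3.dim w = 1 := by rw [hL.dim3, Sla.D_eq hB hO, D_vx hv h0]
  have hW : w ∈ (lmK h3 hH Sla.dis_KK hne).W1 := by
    refine mem_W1K.2 ⟨hL.mem, hd, fun c' hc' => ?_⟩
    exact InL.not_KK hL c' (interior_subset hc')
  have hj : j < S.n c := hL.2.1
  have hcc : S.hc c v j ∈ S.T3.cc w := by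
    refine (hL.cc).2 ⟨?_, ?_, ?_⟩
    · rw [Sla.C_eq hB hO]; exact Sla.O_C hB (Sla.hc_O hB j)
    · rw [(Sla.hc_onS hB hj.le).2.2]; exact S.t_le (Nat.le_succ j) hj
    · rw [(Sla.hc_onS hB hj.le).2.2]
  rw [side_end h hW hcc (hc_dim hB (D_vx hv h0) j) ?_ (outK_hc hB hj.le)]
  · exact lam_col h hC hv h0 hj.le
  · intro q hq hqi hqw
    obtain ⟨h1, h2, h4⟩ := (hL.oc).1 hqw
    refine hC j hj q hq hqi (Sla.O_trans hB hO h1) ⟨h1.1.1, hj, h2, h4⟩

/-- no point of `i` on the copy at level `j` of the cell of `w` -/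
def NoHor (S : Sla T κ) (s : GSt (mK h3 hH Sla.dis_KK) fam) (i : J) (c : κ) (j : ℕ) (w : E) :
    Prop :=
  ∀ q ∈ s.P, s.lab q = i → q ∈ S.O c w → ¬ S.OnS c j q

/-- **the side over an edge** -/
theorem side_hor (h : GLab (lmK h3 hH Sla.dis_KK hne) (gp s i) lam) (hC : NoCol S s i c v)
    (hv : v ∈ frontier (S.K c)) (h0 : T.dim v = 0) (hvw : v ∈ S.C c w) (hS : S.OnS c j w)
    (hd : S.T3.dim w = 1) (hN : NoHor S s i c j w) :
    side (lmK h3 hH Sla.dis_KK hne) s i lam w = lam (oc (edC S.T3 v) (outK_foot hv h0)) := by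
  have hB := Sla.fr_Bd hv
  have hj : j ≤ S.n c := hS.2.1
  have hW : w ∈ (lmK h3 hH Sla.dis_KK hne).W1 := mem_W1K.2 ⟨hS.mem, hd, fun c' hc' => hS.not_int c' (Sla.mem_int_KK.1 hc')⟩
  have hcc : S.hc c v j ∈ S.T3.cc w := by
    refine (hS.cc).2 ⟨?_, (Sla.hc_onS hB hj).2.2⟩
    exact Sla.C_sub hS.bd hB hvw (Sla.O_C hB (Sla.hc_O hB j))
  rw [side_end h hW hcc (hc_dim hB (D_vx hv h0) j) ?_ (outK_hc hB hj)]
  · exact lam_col h hC hv h0 hj
  · intro q hq hqi hqw
    obtain ⟨h1, h2⟩ := (hS.oc).1 hqw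
    exact hN q hq hqi h1 ⟨h1.1.1, hj, h2⟩

/-- **the side of a point outside the open cores** on a 1-cell without points of `i` -/
theorem side_out (h : GLab (lmK h3 hH Sla.dis_KK hne) (gp s i) lam)
    (hw : w ∈ (lmK h3 hH Sla.dis_KK hne).W1) (hOut : S.Out w) {p : E} (hp : p ∈ T.cc w)
    (hp0 : T.dim p = 0) (hno : ∀ q ∈ s.P, s.lab q = i → q ∉ T.oc w)
    (ho : OutK S.T3 S.KK (edC S.T3 p)) :
    side (lmK h3 hH Sla.dis_KK hne) s i lam w = lam (oc (edC S.T3 p) ho) := by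
  have hpO : S.Out p := ⟨T.cc_sub_Om hOut.1 hp, fun c hc => hOut.2 c (hc.up hOut.1 hp)⟩
  refine side_end h hw (by rw [hOut.cc]; exact hp) (by rw [hpO.dim]; exact hp0) ?_ ho
  intro q hq hqi hqw
  rw [hOut.oc] at hqw
  exact hno q hq hqi hqw

/-- **the side over a point `q` of the frontier of a core** -/
theorem side_over (h : GLab (lmK h3 hH Sla.dis_KK hne) (gp s i) lam)
    (hw : w ∈ (lmK h3 hH Sla.dis_KK hne).W1) (hin : S.In c w) (hq : q ∈ frontier (S.K c))
    (hO : w ∈ S.O c q) (hv : v ∈ frontier (S.K c)) (h0 : T.dim v = 0) (hvq : v ∈ T.cc q)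
    (hC : NoCol S s i c v) (hN : ∀ j, 0 < j → NoHor S s i c j w) :
    side (lmK h3 hH Sla.dis_KK hne) s i lam w = lam (oc (edC S.T3 v) (outK_foot hv h0)) := by
  obtain ⟨-, hd, hi⟩ := mem_W1K.1 hw
  have hB := Sla.fr_Bd hq
  have h1 : S.t c (S.n c) ≤ S.φ c w := by
    by_contra h1
    exact hi c (Sla.mem_int_KK.2 ⟨hin.1, not_le.1 h1⟩)
  rcases Sla.onS_or_inL hin.1 h1 with ⟨j, hj⟩ | ⟨j, hj⟩
  · have h0' : 0 < j := by
      rcases Nat.eq_zero_or_pos j with h' | h'
      · subst h'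
        exact absurd hj.fr hin.2
      · exact h'
    refine side_hor h hC hv h0 ?_ hj hd (hN j h0')
    rw [Sla.C_eq hB hO]
    have : v ∈ S.C c q ∩ frontier (S.K c) := by rw [Sla.C_fr hq]; exact hvq
    exact this.1
  · have h2 : T.dim q = 0 := by
      have h4 := hj.dim3
      rw [hd, Sla.D_eq hB hO, Sla.D_fr hq] at h4
      omega
    have h5 : v = q := by
      have h6 := T.cc_eq_singleton (T.dim_eq_zero_iff.1 h2)
      rw [h6] at hvq
      exact hvq
    subst h5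
    exact side_vert h hC hv h0 hO hj

end sla

/-! ### the state with layers -/

section s2

variable {E : Type} [NormedAddCommGroup E] [NormedSpace ℝ E] [FiniteDimensional ℝ E]
variable {Om : Set E} {ι : Type} {T : Tiling Om ι} {κ : Type} {S : Sla T κ}
  {h3 : finrank ℝ E = 3} {J C : Type} {fam : J → C} [Nonempty J]
  {s : GSt (meshC T h3) fam} {r : J → E} {Sf : J → Set E} {nb : κ → C → Prop}
  {v0 v1 : ∀ c, C → VxK T S.K c} {u : κ → C → E → ℝ} {A B : κ → C → ℝ}
  {L : ∀ c, C → Lev T (frontier (S.K c)) J}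
  {Tw : Twrs (S.sh h3) S.n (outK S.hH S.dis s r)} {l0 : E → J}
  {hH : ∀ c, CoreH S.T3 (S.KK c)} {c : κ} {i : J} {j : ℕ} {w x y : E}

/-- **(b)**: no point of `i` in the column over a vertex outside the regions -/
theorem noCol_s2 (D : DIn S.hH s r Sf nb v0 v1 u A B) (lo : LevOut s nb u A B L)
    (tt : TwOut S h3 s r v0 v1 L Tw) {v : S.Vx c}
    (hR : ¬ Rgn (S.sh h3 c) (v0 c (fam i)) (v1 c (fam i)) (trc S.hH S.dis s r c (fam i))
      (exa h3 S.hH S.dis (L c (fam i))) i v) :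
    NoCol (hH := hH) S (s2 S h3 Tw l0) i c v.1 := by
  intro l hl w hw hwi hO hL
  rcases (in2 D lo tt hw hL.bo.1).2 with ⟨j, q, h1, h2, h4, h5, -⟩ | ⟨j, v', h1, -, h4, h5⟩
  · obtain ⟨e, he⟩ := pat_onE h4
    exact hL.not_onS (h5 ▸ Sla.hp_onS e he h2)
  · have h6 : S.vc c v'.1 j ∈ S.O c v'.1 := Sla.vc_O (Sla.vx_bd v') j
    have h7 : v' = v := by
      refine Sla.vx_eq (S := S) (c := c) (v := v') (v' := v) ?_
      exact Sla.O_trans (Sla.vx_bd v') h6 (Sla.O_symm (Sla.vx_bd v) (h4 ▸ hO))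
    rw [hwi, h7] at h5
    exact hR h5

/-- **(c)**: no point of `i` on the copies of an edge without trace points and exact points -/
theorem noHor_s2 (D : DIn S.hH s r Sf nb v0 v1 u A B) (lo : LevOut s nb u A B L)
    (tt : TwOut S h3 s r v0 v1 L Tw) {q : E} (hq : q ∈ frontier (S.K c)) (hwq : w ∈ S.O c q)
    (htr : ∀ y ∈ T.oc q, y ∈ s.P → s.lab y ≠ i)
    (hex : ∀ y ∈ T.oc q, y ∈ (exa h3 S.hH S.dis (L c (fam i))).P →
      (exa h3 S.hH S.dis (L c (fam i))).lab y ≠ i) (h0 : 0 < j) :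
    NoHor (hH := hH) S (s2 S h3 Tw l0) i c j w := by
  intro z hz hzi hzO hzS
  have hB := Sla.fr_Bd hq
  rcases (in2 D lo tt hz (hzS.bo h0).1).2 with ⟨k, y, h1, h2, h4, h5, h6, h7, h8⟩ | ⟨k, v', h1, -, h4, -⟩
  · obtain ⟨e, he⟩ := pat_onE h4
    have hy : y ∈ T.oc q := by
      have g1 : y ∈ S.O c q := by
        have g2 : z ∈ S.O c y := by rw [h5]; exact Sla.hp_O' e he h2
        exact Sla.O_trans hB (Sla.O_trans hB hwq hzO) (Sla.O_symm (Sla.fr_Bd h6) g2)
      exact (Sla.O_fr hq h6).1 g1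
    rw [hzi] at h8
    rcases h8 with ⟨-, g1, g2⟩ | ⟨g1, g2⟩
    · exact htr y hy g1 g2.symm
    · exact hex y hy g1 g2.symm
  · have g1 := Sla.vc_inL (Sla.vx_bd v') h1
    rw [← h4] at g1
    exact g1.not_onS hzS

variable [Nonempty S.T3.Cell] {hne : ∃ c, OutK S.T3 S.KK c} {lam : QK (belK S.T3 S.KK) → ZMod 2}

/-- **the side over a point `q` of the frontier of a core, for `s₂`** = the label of a vertex of the
cell of `q` which is not in the regions, if the cell of `q` carries no trace point and no exact point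
of `i` -/
theorem side_over2 (D : DIn S.hH s r Sf nb v0 v1 u A B) (lo : LevOut s nb u A B L)
    (tt : TwOut S h3 s r v0 v1 L Tw)
    (h : GLab (lmK h3 hH Sla.dis_KK hne) (gp (s2 S h3 Tw l0) i) lam)
    (hw : w ∈ (lmK h3 hH Sla.dis_KK hne).W1) (hin : S.In c w) {q : E} (hq : q ∈ frontier (S.K c))
    (hO : w ∈ S.O c q) {v : S.Vx c} (hvq : v.1 ∈ T.cc q)
    (hR : ¬ Rgn (S.sh h3 c) (v0 c (fam i)) (v1 c (fam i)) (trc S.hH S.dis s r c (fam i))
      (exa h3 S.hH S.dis (L c (fam i))) i v)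
    (htr : ∀ y ∈ T.oc q, y ∈ s.P → s.lab y ≠ i)
    (hex : ∀ y ∈ T.oc q, y ∈ (exa h3 S.hH S.dis (L c (fam i))).P →
      (exa h3 S.hH S.dis (L c (fam i))).lab y ≠ i) :
    side (lmK h3 hH Sla.dis_KK hne) (s2 S h3 Tw l0) i lam w =
      lam (oc (edC S.T3 v.1) (outK_foot v.2.2 v.2.1)) :=
  side_over h hw hin hq hO v.2.2 v.2.1 hvq (noCol_s2 D lo tt hR)
    fun _ h0 => noHor_s2 D lo tt hq hO htr hex h0

end s2

end Crest.Agent.R096.Sdf_246
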