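import Crest.Agent.R096.Rop18_441
import Crest.Agent.R096.Sdf2_246
import Crest.Agent.R096.Rgl2_527

/-!
# Row 96 (S0127), DOORS, G4 (helper441): **THE SIDE FUNCTION OF A BARRIER OF `s₂`**

`not_rgn_v0`, `not_rgn_v1` : the moves of the towers do not touch the vertices `v0`, `v1`;
`sdm_s2`  : `exists_sdm` for the state `s₂` and one name `i` of a barrier at the core `k`.
-/

set_option autoImplicit false
set_option linter.unusedSectionVars false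
set_option linter.unusedVariables false

open Set Relation Module Filter Topology
open scoped Classical

namespace Crest.Agent.R096.Rop_441

open Crest.Agent.R096.Brk1_582 Crest.Agent.R096.Brk2_582 Crest.Agent.R096.Brk3_582
  Crest.Agent.R096.Brk5_582 Crest.Agent.R096.Bsp_628 Crest.Agent.R096.Init_543
  Crest.Agent.R096.Vb_965 Crest.Agent.R096.Msh_715 Crest.Agent.R096.St_147
  Crest.Agent.R096.Seq_213 Crest.Agent.R096.Lm_117 Crest.Agent.R096.Gl_422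
  Crest.Agent.R096.SkB_662 Crest.Agent.R096.Cpo_642
  Crest.Agent.R096.Ce_537 Crest.Agent.R096.Agl5_543
  Crest.Agent.R096.Cp_298 Crest.Agent.R096.Gm_298 Crest.Agent.R096.Ac_117
  Crest.Agent.R096.Sla_184 Crest.Agent.R096.Sla_184.Sla
  Crest.Agent.R096.Ess5_95 Crest.Agent.R096.Bgf_4 Crest.Agent.R096.Ebr1_95
  Crest.Agent.R096.Ebr4_95 Crest.Agent.R096.Bar_106 Crest.Agent.R96.Push_899
  Crest.Agent.R096.Lab_184 Crest.Agent.R096.Exa_560 Crest.Agent.R096.Sphg_316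
  Crest.Agent.R096.Agl6_543 Crest.Agent.R096.Coh_184 Crest.Agent.R096.Flb_422
  Crest.Agent.R096.Vrt_422 Crest.Agent.R096.Twr_438 Crest.Agent.R096.Dfi_539
  Crest.Agent.R096.Dfi_471 Crest.Agent.R096.Ess3_95 Crest.Agent.R096.Door_501
  Crest.Agent.R096.Qp_106
open Crest.Agent.R096.SkC1_961 (E3 Hom3 FoamD)
open Crest.Agent.R096.Mbf_337 (KJ sb)

section rgn

variable {E : Type} [NormedAddCommGroup E] [NormedSpace ℝ E] [FiniteDimensional ℝ E]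
variable {Om : Set E} {ι : Type} {T : Tiling Om ι} {J C : Type} {fam : J → C}
variable {κ : Type} {Kc : κ → Set E} {h3 : finrank ℝ E = 3} [Nonempty J]
variable {hH : ∀ c, CoreH T (Kc c)} {hdis : ∀ c c', c ≠ c' → Disjoint (Kc c) (Kc c')}
  {s : GSt (meshC T h3) fam} {r : J → E} {nb : κ → C → Prop} {u : κ → C → E → ℝ}
  {A B : κ → C → ℝ} {L : ∀ c, C → Lev T (frontier (Kc c)) J}

/-- **the moves do not touch `v0`** -/
theorem not_rgn_v0 (lo : LevOut s nb u A B L) {k : κ} {a : C} {v0 v1 : VxK T Kc k}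
    (h0 : u k a v0.1 ≤ A k a) (i : J) :
    ¬ Rgn (shellH h3 hH hdis k) v0 v1 (trc hH hdis s r k a) (exa h3 hH hdis (L k a)) i v0 := by
  have := Rgl_527.finite_EdK hH k
  have := Fintype.ofFinite (EdK T Kc k)
  have hz : ∀ w, lbl (shellH h3 hH hdis k).sphSh v0 (comp true (trc (h3 := h3) hH hdis s r k a) w) v0
      = 0 := fun w => Rgl_527.lbl_zero (h3 := h3) (hH := hH) (hdis := hdis) (c := k)
        (s := trc hH hdis s r k a) (fun w hw => (mem_trc.1 hw).2.2) v0 w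
  rintro (⟨w, hw, -, -, h⟩ | ⟨w, hw, w', hw', -, -, -, h⟩)
  · rw [hz w] at h
    exact zero_ne_one h
  · obtain ⟨g1, g2⟩ := exa_lab (h3 := h3) (hH := hH) (hdis := hdis) (c := k) (L k a) hw'
    have g4 := lo.win k a _ g1
    have e0 : (L k a).u v0.1 = u k a v0.1 := by rw [lo.u]
    have hn : ¬ (L k a).lv ((exa h3 hH hdis (L k a)).lab w') < (L k a).u v0.1 :=
      not_lt.2 (by rw [e0]; linarith [g4.1])
    rw [hz w, exa_lbl (h3 := h3) (hH := hH) (hdis := hdis) (c := k)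
      (L k a) g1 (lo.conn k a _ g1).1 hw' rfl v0 v0 hn, if_neg hn, add_zero] at h
    exact zero_ne_one h

/-- **the moves do not touch `v1`** -/
theorem not_rgn_v1 (lo : LevOut s nb u A B L) {k : κ} {a : C} {v0 v1 : VxK T Kc k}
    (h0 : u k a v0.1 ≤ A k a) (h1 : B k a ≤ u k a v1.1) (i : J) :
    ¬ Rgn (shellH h3 hH hdis k) v0 v1 (trc hH hdis s r k a) (exa h3 hH hdis (L k a)) i v1 := by
  have := Rgl_527.finite_EdK hH k
  have := Fintype.ofFinite (EdK T Kc k)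
  rintro (⟨w, hw, -, h2, h⟩ | ⟨w, hw, w', hw', -, -, h2, h⟩)
  · rw [h2] at h
    exact zero_ne_one h
  · obtain ⟨g1, g2⟩ := exa_lab (h3 := h3) (hH := hH) (hdis := hdis) (c := k) (L k a) hw'
    have g4 := lo.win k a _ g1
    have e0 : (L k a).u v0.1 = u k a v0.1 := by rw [lo.u]
    have e1 : (L k a).u v1.1 = u k a v1.1 := by rw [lo.u]
    rw [h2, exa_lbl (h3 := h3) (hH := hH) (hdis := hdis) (c := k)
      (L k a) g1 (lo.conn k a _ g1).1 hw' rfl v0 v1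
      (not_lt.2 (by rw [e0]; linarith [g4.1])),
      if_pos (by rw [e1]; linarith [g4.2])] at h
    exact absurd h (by decide)

end rgn

section s2

variable {δ κ0 R c0 : ℝ} {La Om : Set E3} {ι : Type} {Φ : FoamD δ κ0 R c0 La}
  {T : Tiling Om ι} {f g : E3 → E3} {κ1 κ2 : ℝ} {X : Set Φ.F} {J0 J V : Φ.F → Set ι}
  {ct : Φ.F → ι} {A' : Φ.F → E3 ≃ᵃ[ℝ] E3} {lam : Φ.F → ℝ} {z : Φ.F → E3} {θ : Φ.F → E3 → E3}
  {φ : Φ.F → E3 → ℝ} {κ : Type} {S : Sla T κ}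
  {c : Φ.F} {G : E3 → ℝ} {ρ1 ρ2 ρ3 ρ4 d lo' hi' ω : ℝ}
  {Jn Cn : Type} {fam : Jn → Cn} [Nonempty Jn]
  {s : GSt (meshC T fr3) fam} {rt : Jn → E3} {Sf : Jn → Set E3} {nb : κ → Cn → Prop}
  {v0 v1 : ∀ c, Cn → VxK T S.K c} {u : κ → Cn → E3 → ℝ} {A B : κ → Cn → ℝ}
  {L : ∀ c, Cn → Lev T (frontier (S.K c)) Jn}
  {Tw : Twrs (S.sh fr3) S.n (outK S.hH S.dis s rt)} {l0 : E3 → Jn}
  [Nonempty S.T3.Cell] {hH : ∀ c, CoreH S.T3 (S.KK c)} {hne : ∃ c, OutK S.T3 S.KK c}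

/-- **THE SIDE FUNCTION OF A BARRIER OF `s₂`** -/
theorem sdm_s2 (hLa : IsOpen La) (H : Hm f g Om La)
    (hC : Mbf_337.Cores Φ T f κ1 κ2 X J0 J V ct A' lam z θ φ) (hc : c ∉ X)
    (hZ : BZ Φ T f J0 J V θ c G ρ1 ρ2 ρ3 ρ4 d lo' hi' ω) (hK : TinyK X J S)
    (Xc : Cplx Om (QK (belK S.T3 S.KK)) (dimK (belK S.T3 S.KK) fun c => c.1.dim)
      (setK S.T3 S.KK))
    (D : DIn S.hH s rt Sf nb v0 v1 u A B) (lo : LevOut s nb u A B L)
    (tt : TwOut S fr3 s rt v0 v1 L Tw)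
    (hon : ∀ w ∈ (s2 S fr3 Tw l0).P, w ∈ (lmK fr3 hH dis_KK hne).W1) {i : Jn}
    (hfi : ∀ j, fam j = fam i → j = i) {k : κ} (hk : S.K k = KJ T (J c)) (hnb : nb k (fam i))
    (hnb' : ∀ k', nb k' (fam i) → k' = k) {a0 a1 τ : ℝ}
    (hp : ∀ w ∈ s.P, s.lab w = i → f w ∈ SB1 Φ c G a0 a1 τ) (h0' : ρ1 ≤ a0)
    (ha4 : a1 + d < ρ4)
    {b b' : ℝ} (hb0 : lo' < b) (hbτ : b + 3 * ω < τ) (hb1 : τ < b' - 3 * ω) (hb' : b' < hi')
    (hG0 : G (θ c (v0 k (fam i)).1) ≤ b + ω) (hG1 : b' - ω ≤ G (θ c (v1 k (fam i)).1))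
    {r r' : ℝ} (h1 : ρ1 ≤ r)
    (h2 : r < ρ2) (hrr : r ≤ r') (h4 : r' ≤ ρ4) (ha0 : a0 + d < r) (ha0' : a0 + d < ρ2)
    (ha1 : r' + d < a1) (ha1' : ρ3 + d < a1) :
    ∃ lm : QK (belK S.T3 S.KK) → ZMod 2,
      GLab (lmK fr3 hH dis_KK hne) (gp (s2 S fr3 Tw l0) i) lm ∧
      (∀ v ∈ ZK S.T3 S.KK (Om ∩ f ⁻¹' {y | ga Φ c y ≤ ρ4}), lm v = 0) ∧
      (∀ v, NearZ S (ZL Φ T f c (J c) (θ c) G b ω r r') v → lm v = 1) ∧
      ∀ v, NearZ S (ZH Φ T f c (J c) (θ c) G b' ω r ρ4) v → lm v = 0 := by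
  have hr := hZ.hr
  have hT := hC.tiny c hc
  have hG := bz_ga hLa H hC hc hZ
  have h40 : 0 < ρ4 := by linarith [hr.r1]
  obtain ⟨D1, D2, D3, D4⟩ := body_D T.op hLa H hT.pt h40 hG hr.r4
  have hcl := bz_cl hLa H hC hc hZ
  -- the supports
  have hs : ∀ w ∈ s.P, ∀ q, w ∈ P (T.H q) → P (T.H q) ⊆ interior
      ((fun a : Cn => if a = fam i then Om ∩ f ⁻¹' {y | ga Φ c y ≤ ρ4} else univ)
        (fam (s.lab w))) := by
    intro w hw q hq x hx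
    by_cases hl : fam (s.lab w) = fam i
    · simp only [hl, if_true]
      rw [D4]
      obtain ⟨-, e1, e2, -, -⟩ := hp w hw (hfi _ hl)
      have o1 := abs_le.1 (hr.tile_osc hq (by linarith) (by linarith [hr.d0]) hx).1
      exact ⟨T.sub q hx, by linarith [o1.1]⟩
    · simp only [hl, if_false, interior_univ]
      exact mem_univ _
  have hKs : ∀ k' a, nb k' a → S.K k' ⊆ interior
      ((fun a : Cn => if a = fam i then Om ∩ f ⁻¹' {y | ga Φ c y ≤ ρ4} else univ) a) := by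
    intro k' a hn x hx
    by_cases hl : a = fam i
    · subst hl
      simp only [if_true]
      rw [hnb' k' hn, hk] at hx
      rw [D4]
      have h5 := K_loc H ((foam4 Φ hLa).sub c) hG hr hT.sub hcl hT.inside hx
      exact ⟨(Exa_560.coreH_tiny hT).sub hx, by linarith [hr.r34, hr.d0]⟩
    · simp only [hl, if_false, interior_univ]
      exact mem_univ _
  have supp : ∀ w ∈ (s2 S fr3 Tw l0).P, (s2 S fr3 Tw l0).lab w = i → (∀ q, w ∈ P (S.T3.H q) →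
      P (S.T3.H q) ⊆ interior (Om ∩ f ⁻¹' {y | ga Φ c y ≤ ρ4})) ∧
      ∀ k, w ∈ S.KK k → S.KK k ⊆ interior (Om ∩ f ⁻¹' {y | ga Φ c y ≤ ρ4}) := by
    intro w hw hl
    obtain ⟨e1, e2⟩ := supp2 D lo tt hs hKs hw
    rw [hl] at e1 e2
    simp only [if_true] at e1 e2
    exact ⟨e1, fun k hk => KK_K.trans (e2 k (KK_K hk))⟩
  have hi : i ∈ (L k (fam i)).J0 := (lo.mem k (fam i) i).2 ⟨rfl, hnb⟩
  have hw := lo.win k (fam i) i hi
  have hu : (L k (fam i)).u = u k (fam i) := lo.u k (fam i)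
  refine exists_sdm (s₀ := s2 S fr3 Tw l0) hLa H hC hc hZ hK Xc hon
    (fun w hw hl p hpo hwp => ?_) supp hk (L k (fam i)) hi (exG_s2 lo tt hnb)
    (v0 k (fam i)).2.2 (v0 k (fam i)).2.1 (v1 k (fam i)).2.2 (v1 k (fam i)).2.1 ?_ ?_
    (Sdf_246.noCol_s2 D lo tt (v := v0 k (fam i))
      (not_rgn_v0 (h3 := fr3) lo (D.v0_lt k _ hnb) i))
    (Sdf_246.noCol_s2 D lo tt (v := v1 k (fam i))
      (not_rgn_v1 (h3 := fr3) lo (D.v0_lt k _ hnb) (D.v1_gt k _ hnb) i))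
    hb0 hbτ hb1 hb' hG0 hG1 h1 h2 hrr h4 ha0 ha0' ha1 ha1'
  · obtain ⟨g1, g2⟩ := out2_tile hw hpo hwp
    exact hp w g1 (g2 ▸ hl)
  · rw [hu]; exact (D.v0_lt k _ hnb).trans_lt hw.1
  · rw [hu]; exact hw.2.trans_le (D.v1_gt k _ hnb)

end s2

end Crest.Agent.R096.Rop_441
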