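import Mathlib
import Crest.Agent.R096.Frs1_662
import Crest.Agent.R096.Rtw1_847
import Crest.Agent.R096.Dinv2_106

/-! Row 96 (helper847), DOORS (C2 of board 2): the clause `only` of 106's `DoorInv` for any state over
`meshK T3 KK` with (B) (`posB` of 662's `FrontM`). -/

set_option autoImplicit false
set_option linter.unusedSectionVars false
set_option linter.unusedVariables false
set_option linter.style.longLine false

open Set Relation Module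

namespace Crest.Agent.R096.Only_847

open Crest.Agent.R096.Brk1_582 Crest.Agent.R096.Brk2_582 Crest.Agent.R096.Brk3_582
open Crest.Agent.R096.Brk5_582 Crest.Agent.R096.Bsp_628
open Crest.Agent.R096.St_147 Crest.Agent.R096.Seq_213 Crest.Agent.R096.Seq_213.GSt
open Crest.Agent.R096.Lm_117 Crest.Agent.R096.Ac_117 Crest.Agent.R096.Msh_715
open Crest.Agent.R096.Cp_298 Crest.Agent.R096.Gm_298 Crest.Agent.R096.Gl_422
open Crest.Agent.R096.SkB_662 Crest.Agent.R096.Cpo_642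
open Crest.Agent.R096.Agl5_543 Crest.Agent.R096.Ori_543 Crest.Agent.R096.Coh_184
open Crest.Agent.R096.Init_543 Crest.Agent.R096.Qdl_662
open Crest.Agent.R096.SkC1_961 (E3 Hom3 FoamD Cfg th)
open Crest.Agent.R096.Mbf_337 (KJ sb)
open Crest.Agent.R096.Frn_337
open Crest.Agent.R096.Leaf_965

variable {δ κ0 R c0 : ℝ} {La Om : Set E3} {ι : Type}
variable {Φ : FoamD δ κ0 R c0 La} {T : Tiling Om ι} {X : Set Φ.F} {J0 : Φ.F → Set ι}
  {ι3 : Type} {T3 : Tiling Om ι3} {KK : Ti X → Set E3}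
  {f g : E3 → E3} {ct' : Φ.F → ι} {r₀ : Φ.F → ℝ} {til : ι3 → ι} {ε s₁ s' : ℝ}
  {hsub : ∀ p, P (T3.H p) ⊆ P (T.H (til p))} {hLa : IsOpen La}
  {hR : InitR Φ T f g J0 ct' r₀}
  {hM : Mesh0 T (Pc Φ.F) (bc (F := Φ.F)) (RF Φ r₀) f (KorJ Φ J0) ε} {hε : ε < s₁} {hε1 : ε < 1}

/-- **only the two families of the quad have middle levels on its active cells** -/
theorem act_fam {k : QK (Pc Φ.F)} {p : ι3}
    (hp : Sum.inl p ∈ (qdT til hsub KK hLa hR hM hε hε1).Act k) {x : E3}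
    (hx : x ∈ P (T.H (til p))) {b : Φ.F} (h0 : Φ.lev b (f x) ≠ 0) (h1 : Φ.lev b (f x) ≠ 1) :
    b ∈ k.B := by
  have F := Ecm_446.foamΦ hLa Φ
  obtain ⟨q1, q2⟩ := actP k p hp (til p) (hsub p) x hx
  have hK : til p ∉ KorJ Φ J0 := (inl_act.1 hp).1.1
  have hva : ∀ a, va (Pc Φ.F) (bc (F := Φ.F)) (RF Φ r₀) f a x = Φ.lev a (f x) :=
    At_241.va_lev hLa hR hK hx
  by_contra hb
  have hbZ : b ∉ k.Z := fun h => h0 (q2 b h)
  obtain ⟨a, ha⟩ : k.B.Nonempty := by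
    rw [← ncard_pos (Set.finite_of_ncard_ne_zero (by rw [k.cB]; norm_num)), k.cB]; norm_num
  obtain ⟨a', haa, ha', hB⟩ := k.exists_other ha
  have haZ : a ∉ k.Z := fun h => disjoint_left.1 k.dis ha h
  have haZ' : a' ∉ k.Z := fun h => disjoint_left.1 k.dis ha' h
  obtain ⟨e, e', hee, he, he'⟩ := hM.wall _ hK x hx
  obtain ⟨-, -, r3⟩ := quad_at F haa k.cZ haZ haZ' he ⟨e', hee.symm, he'⟩
    (show va (Pc Φ.F) (bc (F := Φ.F)) (RF Φ r₀) f a x ∈ Ioo (0 : ℝ) 1 by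
      rw [hva]; exact q1 a ha)
    (show va (Pc Φ.F) (bc (F := Φ.F)) (RF Φ r₀) f a' x ∈ Ioo (0 : ℝ) 1 by
      rw [hva]; exact q1 a' ha') (fun e he => by
      show va (Pc Φ.F) (bc (F := Φ.F)) (RF Φ r₀) f e x < 1
      rw [hva, q2 e he]; exact one_pos)
  refine h1 ?_
  rw [← hva]
  exact r3 b (fun h => hb (h ▸ ha)) (fun h => hb (h ▸ ha')) hbZ

variable [Nonempty T3.Cell] {hH : ∀ k, CoreH T3 (KK k)}
  {hdis : ∀ k k', k ≠ k' → Disjoint (KK k) (KK k')}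
  {L : Φ.F → Finset ℝ} {s₀ : GSt (mK fr3 hH hdis) (fun j : JJ Φ L => j.1)}

/-- **`only`** (strong form: the face touches `Act k`) from (B) -/
theorem only_tch (hs0 : 0 < s')
    (posB : ∀ w ∈ s₀.P, ∀ i3, (∀ k', ¬ P (T3.H i3) ⊆ KK k') → w ∈ P (T3.H i3) →
      til i3 ∉ KorJ Φ J0 → ∃ x ∈ P (T.H (til i3)), Φ.lev (s₀.lab w).1 (f x) ∈ Icc s' (1 - s'))
    {k : QK (Pc Φ.F)} {F : {F : C2 T3 // ¬ (((meshC T3 fr3).side F).map (piK T3 KK)).IsDiag}}
    {w : E3} (hw : s₀.At F w)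
    (hT : ∃ q ∈ (mK fr3 hH hdis).side F, q ∈ (qdT til hsub KK hLa hR hM hε hε1).Act k) :
    (qdT til hsub KK hLa hR hM hε hε1).In k (s₀.lab w).1 := by
  obtain ⟨q, hq, hA⟩ := hT
  obtain ⟨p, hp, rfl⟩ := hA
  have hA' : Sum.inl p ∈ (qdT til hsub KK hLa hR hM hε hε1).Act k := inl_act.2 hp
  have hF : F.1.1.set ⊆ P (T3.H p) := (E1r_914.mem_side_K hp.2 F).1 hq
  have hwp : w ∈ P (T3.H p) := hF (F.1.on_sub_bd hw.2 |> F.1.bd_sub)
  obtain ⟨x, hx, h1⟩ := posB w hw.1 p hp.2 hwp hp.1.1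
  rw [qin]
  exact act_fam hA' hx (by have := h1.1; intro h; rw [h] at this; linarith)
    (by have := h1.2; intro h; rw [h] at this; linarith)

/-- **`only` of `DoorInv`** -/
theorem only_of_posB (hs0 : 0 < s')
    (posB : ∀ w ∈ s₀.P, ∀ i3, (∀ k', ¬ P (T3.H i3) ⊆ KK k') → w ∈ P (T3.H i3) →
      til i3 ∉ KorJ Φ J0 → ∃ x ∈ P (T.H (til i3)), Φ.lev (s₀.lab w).1 (f x) ∈ Icc s' (1 - s')) :
    ∀ {k F w}, s₀.At F w → Inner (mK fr3 hH hdis) ((qdT til hsub KK hLa hR hM hε hε1).Act k) F →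
      (qdT til hsub KK hLa hR hM hε hε1).In k (s₀.lab w).1 := by
  intro k F w hw hin
  obtain ⟨q, hq⟩ : ∃ q, q ∈ (mK fr3 hH hdis).side F := by
    induction (mK fr3 hH hdis).side F using Sym2.ind with
    | _ x y => exact ⟨x, Sym2.mem_mk_left _ _⟩
  exact only_tch hs0 posB hw ⟨q, hq, hin q hq⟩

end Crest.Agent.R096.Only_847
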