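import Crest.Agent.R096.Hdr2_334
import Crest.Agent.R096.Only1_847

/-!
# R096 (row 96), DOORS (helper662): LEAF BC of the composition, part 1

`exists_inv` : the invariant of the state after CUT over `meshK T3 KK` and the quads `qdT` from
(T1) `tr` outside (`UT` = points near the tiny cores), the odd doors at the giants (334), (B)
(847's `only`), the moats (`v_in`) and `dich`.
-/

set_option autoImplicit false
set_option linter.unusedSectionVars false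
set_option linter.unusedVariables false
set_option linter.style.longLine false

open Set Relation Module Topology Filter Metric

namespace Crest.Agent.R096.Civ_662

open Crest.Agent.R096.Brk1_582 Crest.Agent.R096.Brk2_582 Crest.Agent.R096.Brk3_582
open Crest.Agent.R096.Brk5_582 Crest.Agent.R096.Bsp_628
open Crest.Agent.R096.St_147 Crest.Agent.R096.Seq_213 Crest.Agent.R096.Seq_213.GSt
open Crest.Agent.R096.Lm_117 Crest.Agent.R096.Ac_117 Crest.Agent.R096.Msh_715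
open Crest.Agent.R096.Agl5_543 Crest.Agent.R096.Init_543 Crest.Agent.R096.At_241
open Crest.Agent.R096.SkC1_961 (E3 Hom3 FoamD)
open Crest.Agent.R096.Mbf_337 (KJ sb)
open Crest.Agent.R096.Frn_337 (Ti cti Lay)
open Crest.Agent.R096.SkB_662 Crest.Agent.R096.Sgd_298 Crest.Agent.R096.Qdl_662
  Crest.Agent.R096.Dinv_106 Crest.Agent.R096.Hdr_334

variable {δ κ0 R c0 : ℝ} {La Om : Set E3} {ι ι3 : Type} {Φ : FoamD δ κ0 R c0 La}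
  {T : Tiling Om ι} {T3 : Tiling Om ι3} {f g : E3 → E3} {X : Set Φ.F} {J0 : Φ.F → Set ι}
  {ct' : Φ.F → ι} {r₀ : Φ.F → ℝ} {KK : Ti X → Set E3} {til : ι3 → ι}
  {ε s₁ s' : ℝ} {Zo : Ti X → Set ι} [Nonempty T3.Cell]
  {hH : ∀ k, CoreH T3 (KK k)} {hdis : ∀ k k', k ≠ k' → Disjoint (KK k) (KK k')}
  {hsub : ∀ p, P (T3.H p) ⊆ P (T.H (til p))} {hLa : IsOpen La}
  {hR : InitR Φ T f g J0 ct' r₀}
  {hM : Mesh0 T (Pc Φ.F) (bc (F := Φ.F)) (RF Φ r₀) f (KorJ Φ J0) ε} {hε : ε < s₁} {hε1 : ε < 1}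
  {L : Φ.F → Finset ℝ} {s₃ : GSt (mK fr3 hH hdis) (fun j : JJ Φ L => j.1)}

/-- `w` lies on a giant -/
def OnG (hH : ∀ k, CoreH T3 (KK k)) (hdis : ∀ k k', k ≠ k' → Disjoint (KK k) (KK k'))
    (w : E3) : Prop :=
  ∃ (c : Ti X) (F : {F : C2 T3 // ¬ (((meshC T3 fr3).side F).map (piK T3 KK)).IsDiag}),
    Sum.inr c ∈ (mK fr3 hH hdis).side F ∧ w ∈ (mK fr3 hH hdis).On F

/-- **(T1) : `tr` outside** -/
def TrOut (Q : Quads (ι3 ⊕ Ti X) Φ.F (Init_543.QK (Pc Φ.F)))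
    (s₃ : GSt (mK fr3 hH hdis) (fun j : JJ Φ L => j.1)) (b : JJ Φ L → E3) (UT : Set E3) : Prop :=
  ∀ (j : JJ Φ L) k, Q.In k j.1 → ∀ Y : Set E3, b j ∈ Y → KCl s₃ Q j k Y → ∀ w ∈ s₃.P,
    s₃.lab w = j → w ∉ UT → ¬ Int (mK fr3 hH hdis) (Q.Act k) w → w ∈ Y

/-- **the moat points hang at the giants** -/
def VIn (Q : Quads (ι3 ⊕ Ti X) Φ.F (Init_543.QK (Pc Φ.F)))
    (s₃ : GSt (mK fr3 hH hdis) (fun j : JJ Φ L => j.1)) (b : JJ Φ L → E3) {Mo : Type}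
    (am : Mo → Φ.F) (sd : Mo → E3 → Prop) : Prop :=
  ∀ (j : JJ Φ L) (m : Mo) k, am m = j.1 → Q.In k j.1 → ∀ Y : Set E3, b j ∈ Y → KCl s₃ Q j k Y →
    (∀ w ∈ s₃.P, s₃.lab w = j → OnG hH hdis w → w ∈ Y) → ∀ w ∈ s₃.P, s₃.lab w = j → sd m w →
      w ∈ Y

/-- **`dich`** -/
def Dich (Q : Quads (ι3 ⊕ Ti X) Φ.F (Init_543.QK (Pc Φ.F)))
    (s₃ : GSt (mK fr3 hH hdis) (fun j : JJ Φ L => j.1)) (UT : Set E3) {Mo : Type}
    (am : Mo → Φ.F) (sd : Mo → E3 → Prop) : Prop :=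
  ∀ (j : JJ Φ L) k, Q.In k j.1 → ∀ w ∈ s₃.P, s₃.lab w = j → w ∈ UT → ¬ OnG hH hdis w →
    (∀ m, am m = j.1 → ¬ sd m w) →
      Int (mK fr3 hH hdis) (Q.Act k) w ∨
        ∀ F, w ∈ (mK fr3 hH hdis).On F → ¬ Inner (mK fr3 hH hdis) (Q.Act k) F

/-- **the giants** -/
theorem giants (hne : ∃ c, OutK T3 KK c) (hZ : Zon Φ T T3 f X J0 KK til Zo)
    (hs' : s₁ + ε ≤ s') (hL : ∀ a, (L a).Nonempty)
    (posB : ∀ w ∈ s₃.P, ∀ i3, (∀ k', ¬ P (T3.H i3) ⊆ KK k') → w ∈ P (T3.H i3) →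
      til i3 ∉ KorJ Φ J0 → ∃ x ∈ P (T.H (til i3)), Φ.lev (s₃.lab w).1 (f x) ∈ Icc s' (1 - s'))
    (hnear : ∀ (c : Ti X) F w, Sum.inr c ∈ (mK fr3 hH hdis).side F → s₃.At F w →
      c.1 ≠ (s₃.lab w).1 ∧ (Pc Φ.F c.1 ∩ Pc Φ.F (s₃.lab w).1).Nonempty)
    (hone : ∀ (c : Ti X) (j : JJ Φ L), One s₃ {F | Sum.inr c ∈ (mK fr3 hH hdis).side F} j)
    (htwo : ∀ (k : Init_543.QK (Pc Φ.F)) (c : Ti X), c.1 ∈ k.Z → ∀ j j' : JJ Φ L, j.1 ∈ k.B →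
      j'.1 ∈ k.B → j.1 ≠ j'.1 →
      Two s₃ ((qdT til hsub KK hLa hR hM hε hε1).Act k) {Sum.inr c} j j')
    {b : JJ Φ L → E3} {UT : Set E3}
    (hU : ∀ p, (∀ k, ¬ P (T3.H p) ⊆ KK k) → (∀ c, til p ∉ Zo c) → ∀ x ∈ P (T3.H p), x ∉ UT)
    (htr : TrOut (qdT til hsub KK hLa hR hM hε hε1) s₃ b UT) {j : JJ Φ L}
    {k : Init_543.QK (Pc Φ.F)} (hk : (qdT til hsub KK hLa hR hM hε hε1).In k j.1) {Y : Set E3}
    (hb : b j ∈ Y) (hY : KCl s₃ (qdT til hsub KK hLa hR hM hε hε1) j k Y) :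
    ∀ w ∈ s₃.P, s₃.lab w = j → OnG hH hdis w → w ∈ Y := by
  rintro w hw hl ⟨c, F, hF, hwF⟩
  refine giants_in hne hZ hs' hL (fun j' w hw hl p hp hwp hpK => ?_) hnear hone htwo hY ?_ c F w hF
    ⟨hw, hwF⟩ hl
  · obtain ⟨x, hx, h⟩ := posB w hw p hp hwp hpK
    exact ⟨x, hx, by rw [hl] at h; exact h⟩
  · rintro F' w' hA' hl' ⟨q, hq, h1, h2, h3⟩
    rcases q with p | c'
    swap
    · exact absurd rfl (h1 c')
    obtain ⟨hwp, hpK⟩ := side_tile hA'.2 hq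
    refine htr j k hk Y hb hY w' hA'.1 hl' (hU p hpK (fun c' hc' => h2 c' (inl_ZC.2 ⟨hpK, hc'⟩)) w'
      hwp) fun hI => ?_
    exact h3 (hI.2 F' hA'.2 _ hq)

/-- **THE INVARIANT OF THE STATE AFTER CUT** -/
theorem exists_inv (hne : ∃ c, OutK T3 KK c) (hZ : Zon Φ T T3 f X J0 KK til Zo) (hs0 : 0 < s')
    (hs' : s₁ + ε ≤ s') (hL : ∀ a, (L a).Nonempty) (h1 : ∀ j, s₃.H1 j)
    (hconn : ∀ j, s₃.Conn j)
    (posB : ∀ w ∈ s₃.P, ∀ i3, (∀ k', ¬ P (T3.H i3) ⊆ KK k') → w ∈ P (T3.H i3) →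
      til i3 ∉ KorJ Φ J0 → ∃ x ∈ P (T.H (til i3)), Φ.lev (s₃.lab w).1 (f x) ∈ Icc s' (1 - s'))
    (hnear : ∀ (c : Ti X) F w, Sum.inr c ∈ (mK fr3 hH hdis).side F → s₃.At F w →
      c.1 ≠ (s₃.lab w).1 ∧ (Pc Φ.F c.1 ∩ Pc Φ.F (s₃.lab w).1).Nonempty)
    (hone : ∀ (c : Ti X) (j : JJ Φ L), One s₃ {F | Sum.inr c ∈ (mK fr3 hH hdis).side F} j)
    (htwo : ∀ (k : Init_543.QK (Pc Φ.F)) (c : Ti X), c.1 ∈ k.Z → ∀ j j' : JJ Φ L, j.1 ∈ k.B →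
      j'.1 ∈ k.B → j.1 ≠ j'.1 →
      Two s₃ ((qdT til hsub KK hLa hR hM hε hε1).Act k) {Sum.inr c} j j')
    {b : JJ Φ L → E3} (hb : ∀ j, b j ∈ s₃.P ∧ s₃.lab (b j) = j) {UT : Set E3}
    (hU : ∀ p, (∀ k, ¬ P (T3.H p) ⊆ KK k) → (∀ c, til p ∉ Zo c) → ∀ x ∈ P (T3.H p), x ∉ UT)
    (htr : TrOut (qdT til hsub KK hLa hR hM hε hε1) s₃ b UT) {Mo : Type} {am : Mo → Φ.F}
    {sd : Mo → E3 → Prop} (hv : VIn (qdT til hsub KK hLa hR hM hε hε1) s₃ b am sd)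
    (hd : Dich (qdT til hsub KK hLa hR hM hε hε1) s₃ UT am sd) :
    ∃ far : JJ Φ L → Set E3, s₃.Inv (qdT til hsub KK hLa hR hM hε hε1) far ∧ ∀ j, b j ∈ far j := by
  have hg := fun (j : JJ Φ L) (k : Init_543.QK (Pc Φ.F))
    (hk : (qdT til hsub KK hLa hR hM hε hε1).In k j.1) (Y : Set E3) (hbY : b j ∈ Y)
    (hY : KCl s₃ (qdT til hsub KK hLa hR hM hε hε1) j k Y) =>
    giants hne hZ hs' hL posB hnear hone htwo hU htr hk hbY hY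
  have D : DoorInv s₃ (qdT til hsub KK hLa hR hM hε hε1) b (fun _ => {w | w ∈ UT ∧ ¬ OnG hH hdis w})
      (fun j => {m : Mo // am m = j.1}) (fun j m => {w | w ∈ s₃.P ∧ s₃.lab w = j ∧ sd m.1 w}) := {
    h1 := h1
    conn := hconn
    base := hb
    only := Only_847.only_of_posB hs0 posB
    tr := by
      intro j k hk Y hbY hY w hw hl hwU hI
      by_cases hG : OnG hH hdis w
      · exact hg j k hk Y hbY hY w hw hl hG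
      · exact htr j k hk Y hbY hY w hw hl (fun h => hwU ⟨h, hG⟩) hI
    v_in := by
      rintro j ⟨m, hm⟩ k hk Y hbY hY w ⟨hw, hl, hs⟩
      exact hv j m k hm hk Y hbY hY (hg j k hk Y hbY hY) w hw hl hs
    dich := by
      rintro j k hk w ⟨hwU, hwG⟩ hw hl hV
      exact hd j k hk w hw hl hwU hwG fun m hm hs => hV ⟨m, hm⟩ ⟨hw, hl, hs⟩ }
  exact D.exists_inv

end Crest.Agent.R096.Civ_662
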