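import Crest.Agent.R096.Vin1_527
import Crest.Agent.R096.Civ1_662
import Crest.Agent.R096.Sdf1_246
import Crest.Agent.R096.Lmx1_662

/-!
# Row 96, DOORS-INV (helper527), part 2: `VIn` of 662 for the state after CUT

* `arcs_K`    : arc pairings of every pair state over `meshK T3 KK`;
* `hlam_cut`  : the side of the barrier `m` is constant along the chords of the cut state which are
  laced with no chord of `m`;
* `hsd_cut`   : a face without points of `m` lies on one side;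
* `vIn_cut`   : 662's `VIn`.
-/

set_option autoImplicit false
set_option linter.unusedSectionVars false
set_option linter.unusedVariables false
set_option linter.style.longLine false

open Set Relation Module Topology Filter Metric

namespace Crest.Agent.R096.Vin_527

open Crest.Agent.R096.Brk1_582 Crest.Agent.R096.Brk2_582 Crest.Agent.R096.Brk3_582
open Crest.Agent.R096.Brk5_582 Crest.Agent.R096.Bsp_628
open Crest.Agent.R096.St_147 Crest.Agent.R096.Seq_213 Crest.Agent.R096.Seq_213.GSt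
open Crest.Agent.R096.Lm_117 Crest.Agent.R096.Ac_117 Crest.Agent.R096.Msh_715
open Crest.Agent.R096.Agl5_543 Crest.Agent.R096.Init_543 Crest.Agent.R096.At_241
open Crest.Agent.R096.SkC1_961 (E3 Hom3 FoamD)
open Crest.Agent.R096.Mbf_337 (KJ sb)
open Crest.Agent.R096.Frn_337 (Ti cti Lay)
open Crest.Agent.R096.SkB_662 Crest.Agent.R096.Sgd_298 Crest.Agent.R096.Qdl_662
  Crest.Agent.R096.Dinv_106 Crest.Agent.R096.Hdr_334 Crest.Agent.R096.Civ_662
  Crest.Agent.R096.Lmx_662 Crest.Agent.R096.Gl_422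
open Crest.Agent.R096.Sec_892 Crest.Agent.R096.SecW_892 Crest.Agent.R096.Cg_501

section arcs

variable {E : Type} [NormedAddCommGroup E] [NormedSpace ℝ E] [FiniteDimensional ℝ E]
variable {Om : Set E} {ι : Type} {T : Tiling Om ι} {κ : Type} {Kc : κ → Set E}
variable [Nonempty T.Cell]
variable {h3 : finrank ℝ E = 3} {hH : ∀ c, CoreH T (Kc c)}
  {hdis : ∀ c c', c ≠ c' → Disjoint (Kc c) (Kc c')}

/-- **arc pairings over `meshK`** -/
theorem arcs_K (hne : ∃ c, OutK T Kc c) {I : Type} {col : I → Bool}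
    (t : St (mK h3 hH hdis) col) (Act : Set (ι ⊕ κ)) : Nonempty (t.Arcs Act) := by
  classical
  obtain ⟨c0, hc0⟩ := hne
  obtain ⟨v, -, hv⟩ := (lmK h3 hH hdis ⟨c0, hc0⟩).base (oc c0 hc0)
  refine Sgd3_298.exists_arcs_st (lmK h3 hH hdis ⟨c0, hc0⟩) t Act
    (fun q => if OutI T Kc q then tcK T Kc q else v) ?_
  intro q _ F
  by_cases h : OutI T Kc q
  · rw [if_pos h]
    exact ⟨tcK_side h3 hH hdis ⟨c0, hc0⟩ q F, side_of_le h⟩
  · rw [if_neg h]
    constructor
    · intro hF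
      exfalso
      apply h
      rintro p rfl k hk
      have h1 : Sum.inl p ∈ ((meshC T h3).side F.1).map (piK T Kc) := hF
      rw [mem_map_iff] at h1
      obtain ⟨q', h2, h4⟩ := h1
      obtain ⟨rfl, h5⟩ := piK_inl.1 h4
      exact h5 k hk
    · intro hF
      exfalso
      have h2 := (lmK h3 hH hdis ⟨c0, hc0⟩).cf_dim F
      rcases eq_or_lt_of_le hF with h4 | h4
      · rw [h4, hv] at h2; omega
      · have h5 := (lmK h3 hH hdis ⟨c0, hc0⟩).dim_lt _ _ h4
        omega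

end arcs

section cut

variable {ι Φ W J C K Mo Q : Type} {M : MeshC ι Φ W} {fam : J → C} {am : Mo → C}
  [PartialOrder Q] {dim : Q → ℕ} {L : LM M Q dim}
variable {s : GSt M (Sum.map fam (id : Mo → Mo))} {hs : BSep s am}
  {hm : ∀ a, {m | am m = a}.Finite} {j0 : C → J} {hj0 : ∀ a, fam (j0 a) = a}
  {Act : C → Set ι} {far : ∀ a, PN fam am a → Set W} {t : ∀ a, St M (pcol fam am a)}
  {Ph : C → Finset W} {s₃ : GSt M fam}

/-- **the side of the barrier `m`** (1 = inside) -/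
def sdm (L : LM M Q dim) (s : GSt M (Sum.map fam (id : Mo → Mo))) (lam : Mo → Q → ZMod 2)
    (m : Mo) (w : W) : Prop := L.ext (gp s (Sum.inr m)) (lam m) w = 1

theorem not_gp (D : CutR s hs hm j0 hj0 Act far t Ph s₃) {w : W} (hw : w ∈ s₃.P) (m : Mo) :
    w ∉ gp s (Sum.inr m) := by
  intro h
  obtain ⟨h1, h2⟩ := mem_gp.1 h
  have h3 := D.old hw h1
  rw [h2] at h3
  cases h3

/-- `hlam` of `v_in_cut` -/
theorem hlam_cut (D : CutR s hs hm j0 hj0 Act far t Ph s₃) {lam : Mo → Q → ZMod 2} {m : Mo}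
    (hG : GLab L (gp s (Sum.inr m)) (lam m)) {F : Φ} {w : W} (hA : s₃.At F w)
    (hno : ∀ x, s.At F x → s.lab x = Sum.inr m → ¬ M.Lace F w (s₃.mu F w) x (s.mu F x)) :
    sdm L s lam m w ↔ sdm L s lam m (s₃.mu F w) := by
  have h1 := s₃.mu_mem hA.1 hA.2
  have e := Sdf_246.ext_chord hG (Sdf_246.gp_mu s (Sum.inr m) F) hA.2 h1.2 (not_gp D hA.1 m)
    (not_gp D h1.1 m) (fun q hq hF => hno q ⟨(mem_gp.1 hq).1, hF⟩ (mem_gp.1 hq).2)
  unfold sdm
  rw [e]

/-- `hsd` of `v_in_cut` -/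
theorem hsd_cut (D : CutR s hs hm j0 hj0 Act far t Ph s₃) {lam : Mo → Q → ZMod 2} {m : Mo}
    (hG : GLab L (gp s (Sum.inr m)) (lam m)) {F : Φ} {w w' : W} (hA : s₃.At F w)
    (hA' : s₃.At F w') (hno : ∀ x, s.At F x → s.lab x ≠ Sum.inr m) (h : sdm L s lam m w) :
    sdm L s lam m w' := by
  classical
  have e := hG.ext_add (gp_even s (Sum.inr m) F) hA.2 hA'.2 (not_gp D hA.1 m) (not_gp D hA'.1 m)
  have h0 : bet M F (gp s (Sum.inr m)) w w' = 0 := by
    unfold bet
    have h1 : (gp s (Sum.inr m)).filter (fun q => q ∈ M.On F ∧ M.Btw F w w' q) = ∅ := by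
      rw [Finset.filter_eq_empty_iff]
      rintro q hq ⟨h2, -⟩
      obtain ⟨h3, h4⟩ := mem_gp.1 hq
      exact hno q ⟨h3, h2⟩ h4
    convert Nat.cast_zero
    rw [Finset.card_eq_zero]
    convert h1
  rw [h0] at e
  have e2 := CharTwo.add_eq_zero.1 e
  unfold sdm at h ⊢
  rw [← e2]; exact h

end cut

section mach

variable {δ κ0 R c0 : ℝ} {La Om : Set E3} {ι ι3 : Type} {Φ : FoamD δ κ0 R c0 La}
  {T3 : Tiling Om ι3} {X : Set Φ.F} {KK : Ti X → Set E3} [Nonempty T3.Cell]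
  {hH : ∀ k, CoreH T3 (KK k)} {hdis : ∀ k k', k ≠ k' → Disjoint (KK k) (KK k')}
  {L : Φ.F → Finset ℝ} {Mo : Type} {am : Mo → Φ.F}
  {s : GSt (mK fr3 hH hdis) (Sum.map (fun j : JJ Φ L => j.1) (id : Mo → Mo))} {hs : BSep s am}
  {hm : ∀ a, {m | am m = a}.Finite} {j0 : Φ.F → JJ Φ L} {hj0 : ∀ a, (j0 a).1 = a}
  {Act : Φ.F → Set (ι3 ⊕ Ti X)} {far : ∀ a, PN (fun j : JJ Φ L => j.1) am a → Set E3}
  {t : ∀ a, St (mK fr3 hH hdis) (pcol (fun j : JJ Φ L => j.1) am a)}
  {Ph : Φ.F → Finset E3} {s₃ : GSt (mK fr3 hH hdis) (fun j : JJ Φ L => j.1)}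

/-- a face with a point has an ordinary side -/
theorem exists_ord {F : {F : C2 T3 // ¬ (((meshC T3 fr3).side F).map (piK T3 KK)).IsDiag}} {w : E3}
    (hw : w ∈ (mK fr3 hH hdis).On F) : ∃ p, Sum.inl p ∈ (mK fr3 hH hdis).side F := by
  have hd := F.2
  have hs : (mK fr3 hH hdis).side F = ((meshC T3 fr3).side F.1).map (piK T3 KK) := rfl
  rw [← hs] at hd
  have key : ∀ z, z = (mK fr3 hH hdis).side F → ∃ p, Sum.inl p ∈ z := by
    intro z
    induction z using Sym2.ind with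
    | _ x y =>
      intro hz
      have hx : x ∈ (mK fr3 hH hdis).side F := by rw [← hz]; exact Sym2.mem_mk_left _ _
      have hy : y ∈ (mK fr3 hH hdis).side F := by rw [← hz]; exact Sym2.mem_mk_right _ _
      rcases x with p | c
      · exact ⟨p, Sym2.mem_mk_left _ _⟩
      rcases y with p | c'
      · exact ⟨p, Sym2.mem_mk_right _ _⟩
      exfalso
      by_cases hcc : c = c'
      · apply hd
        rw [← hz, hcc]
        exact rfl
      · exact Set.disjoint_left.1 (hdis c c' hcc) (side_core hw hx) (side_core hw hy)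
  exact key _ rfl

/-- **662's `VIn` for the state after CUT** : `hroot` = every sheet has a point outside `m`,
`hsep` = no point of another family on an ordinary cell with a point of `m`, `hfr` = a frozen face with a
point of `m` lies on a giant -/
theorem vIn_cut (D : CutR s hs hm j0 hj0 Act far t Ph s₃) (hne : ∃ c, OutK T3 KK c)
    (Q : Quads (ι3 ⊕ Ti X) Φ.F (Init_543.QK (Pc Φ.F))) (b : JJ Φ L → E3) {Qd : Type}
    [PartialOrder Qd] {dim : Qd → ℕ} (Lm : LM (mK fr3 hH hdis) Qd dim)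
    {lam : Mo → Qd → ZMod 2} (hG : ∀ m, GLab Lm (gp s (Sum.inr m)) (lam m))
    (hroot : ∀ m i, ∃ v ∈ s₃.P, s₃.lab v = i ∧ ¬ sdm Lm s lam m v)
    (hsep : ∀ m p F F' h w, Sum.inl p ∈ (mK fr3 hH hdis).side F →
      Sum.inl p ∈ (mK fr3 hH hdis).side F' → s.At F h → s.lab h = Sum.inr m → s₃.At F' w →
      (s₃.lab w).1 = am m) (hact : ∀ a c, Sum.inr c ∉ Act a)
    (hfr : ∀ m F h, s.At F h → s.lab h = Sum.inr m → St.Frozen (mK fr3 hH hdis) (Act (am m)) F →
      ∃ c : Ti X, Sum.inr c ∈ (mK fr3 hH hdis).side F) :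
    VIn Q s₃ b am (sdm Lm s lam) := by
  intro j m k ham _ Y _ hY hgi
  refine v_in_cut D (arcs_K hne _ _) ham (sdm Lm s lam m) ?_ ?_ (hroot m) ?_ ?_ Y hY ?_
  · intro F w hA _ hno h
    exact (hlam_cut D (hG m) hA hno).1 h
  · intro F w w' hA hA' hno h
    exact hsd_cut D (hG m) hA hA' hno h
  · intro F h w hh hhl hw
    obtain ⟨p, hp⟩ := exists_ord hw.2
    exact (hsep m p F F h w hp hp hh hhl hw).trans ham
  · intro q hq F F' h w hqF hqF' hh hhl hw
    rcases q with p | c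
    · exact (hsep m p F F' h w hqF hqF' hh hhl hw).trans ham
    · exact absurd hq (hact _ c)
  · intro F w h hA hl hh hhl hF
    rw [← ham] at hF
    obtain ⟨c, hc⟩ := hfr m F h hh hhl hF
    exact hgi w hA.1 hl ⟨c, F, hc, hA.2⟩

end mach

end Crest.Agent.R096.Vin_527
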