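import Crest.Agent.R096.Sde3_422
import Crest.Agent.R096.Rop19_441
import Crest.Agent.R096.Lam1_847
import Crest.Agent.R096.Dib5_438
import Crest.Agent.R096.Nmd2_698
import Crest.Agent.R096.Vin2_527
import Crest.Agent.R096.Dfo2_539

/-!
# R096 (row 96), DOORS, G4 (helper422), part 4: **THE SIDE FUNCTIONS OF ALL BARRIERS, MACHINE**.

`exists_lmU` : labels `lm m` of all moats `m : BM Φ X` over `s2` (438's `BarOut`, 534's `Up`):
`GLab`, `0` on `ZK` of the body, `sdm` near the axis.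
-/

set_option autoImplicit false
set_option linter.unusedSectionVars false
set_option linter.unusedVariables false
set_option linter.style.longLine false

open Set Topology Filter Metric Module Relation
open scoped Classical

namespace Crest.Agent.R096.Sde_422

open Crest.Agent.R096.Msh_715 Crest.Agent.R096.Agl5_543 Crest.Agent.R096.St_147
  Crest.Agent.R096.Seq_213 Crest.Agent.R096.Door_501 Crest.Agent.R096.Sla_184
  Crest.Agent.R096.Twr_438 Crest.Agent.R096.Exa_560 Crest.Agent.R096.Ess3_95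
  Crest.Agent.R096.Ess4_95 Crest.Agent.R096.Dfi_539 Crest.Agent.R096.Dfi_471
  Crest.Agent.R096.Ac_117 Crest.Agent.R096.Lm_117 Crest.Agent.R096.Cp_298
  Crest.Agent.R096.Coh_184 Crest.Agent.R096.Gm_298 Crest.Agent.R096.Cpo_642
  Crest.Agent.R096.Gl_422 Crest.Agent.R096.Flb_422 Crest.Agent.R096.Sid_422
  Crest.Agent.R096.Vrt_422 Crest.Agent.R096.Dfo_539
open Crest.Agent.R096.Brk1_582 Crest.Agent.R096.Brk2_582 Crest.Agent.R096.Brk3_582
  Crest.Agent.R096.Brk5_582 Crest.Agent.R096.Bsp_628 Crest.Agent.R096.Init_543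
  Crest.Agent.R096.Bar_106 Crest.Agent.R096.Dib_438 Crest.Agent.R096.Lam_847
  Crest.Agent.R096.Ess5_95 Crest.Agent.R096.Bgf_4 Crest.Agent.R096.Ebr1_95
  Crest.Agent.R096.Ebr4_95 Crest.Agent.R096.Rop_441 Crest.Agent.R096.Nmd1_698
open Crest.Agent.R096.Mbf_337 (sb KJ Tiny gau Cores Fine)
open Crest.Agent.R096.SkC1_961 (E3 FoamD Hom3)
open Crest.Agent.R096.Frn_337 (Ti)
open Crest.Agent.R096.Frs_662 (slC)
open Crest.Agent.R096.Ess7_95 (KT Sh)
open Crest.Agent.R096.Dff_539 (vS)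
open Crest.Agent.R096.Bmf_416 (coT)
open Crest.Agent.R096.Vin_527 (sdm)

variable {δ κ0 R c0 : ℝ} {La Om : Set E3} {ι : Type} {Φ : FoamD δ κ0 R c0 La} {T : Tiling Om ι}
  {f g : E3 → E3} {κ1 κ2 μ : ℝ} {X : Set Φ.F} {J0 J V : Φ.F → Set ι}
  {ct ct' : Φ.F → ι} {A : Φ.F → E3 ≃ᵃ[ℝ] E3} {lam : Φ.F → ℝ} {z : Φ.F → E3}
  {θ : Φ.F → E3 → E3} {φ : Φ.F → E3 → ℝ} {r₀ : Φ.F → ℝ}
  {L : Φ.F → Finset ℝ} [Nonempty (JJ Φ L)] {hG : GF Φ r₀ T f L} {bp : JJ Φ L → E3}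
  {N' : BM Φ X → Set ℝ} {ρ1 ρ2 ρ3 ρ4 d : Φ.F → ℝ} {q₀ : BM Φ X → E3} {ε : BM Φ X → ℝ}
  {bm : BM Φ X → E3} {hGB : GFB Φ r₀ T f L (lRc Φ X μ ρ1 ρ3 d) ε}
  {v0F v1F : ∀ c, Φ.F → VxK T (KT T J X) c} {v0B v1B : ∀ c, BM Φ X → VxK T (KT T J X) c}
  {hLa : IsOpen La} {hC : Cores Φ T f κ1 κ2 X J0 J V ct A lam z θ φ}
  {n : Ti X → ℕ} {hn : ∀ c, 0 < n c} {r : JJ Φ L ⊕ BM Φ X → E3}
  {Sf : JJ Φ L ⊕ BM Φ X → Set E3}
  {Lv : ∀ c, Φ.F ⊕ BM Φ X → Lev T (frontier ((slC hLa hC n hn).K c)) (JJ Φ L ⊕ BM Φ X)}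
  {Tw : Twrs ((slC hLa hC n hn).sh fr3) (slC hLa hC n hn).n
    (outK (slC hLa hC n hn).hH (slC hLa hC n hn).dis (stB hGB bp bm) r)}
  {l0' : E3 → JJ Φ L ⊕ BM Φ X}

/-- the patch function of record -/
noncomputable abbrev gR (Φ : FoamD δ κ0 R c0 La) (X : Set Φ.F) (μ : ℝ) (m : BM Φ X) : E3 → ℝ :=
  gmf Φ (μ / 8) (1 / 2) (1 / 2 - 5 * μ / 16) m.am m.Zm

/-- `BZ` of record -/
theorem bz_rec (N : NumD δ κ0 R c0 κ2 μ κ1) (H : Hm f g Om La) (hLa : IsOpen La)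
    (hC : Cores Φ T f κ1 κ2 X J0 J V ct A lam z θ φ)
    (bar : BarOut Φ T f κ1 μ X J0 J V θ hG bp N' ρ1 ρ2 ρ3 ρ4 d q₀ ε bm hGB v0B v1B)
    (m : BM Φ X) : BZ Φ T f J0 J V θ m.co (gR Φ X μ m) (ρ1 m.co) (ρ2 m.co) (ρ3 m.co) (ρ4 m.co)
      (d m.co) 0 (1 + μ / 2) (μ / 1024) := by
  have hμ := N.hμ
  refine bz_mach hLa N.hδ N.hR H N.cn1 hC (fun c hc => (bar.rm c hc).2)
    (nm_rec hμ N.hμb (by linarith) le_rfl) m ?_ ?_
  · exact (N.om (bar.rm m.co m.co_notMem).1).trans (by linarith)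
  · exact N.om2 (by nlinarith [N.cn0, N.hκ])

/-- the foot `v0` is near the axis -/
theorem g_v0 (N : NumD δ κ0 R c0 κ2 μ κ1) (hLa : IsOpen La)
    (hC : Cores Φ T f κ1 κ2 X J0 J V ct A lam z θ φ)
    (bar : BarOut Φ T f κ1 μ X J0 J V θ hG bp N' ρ1 ρ2 ρ3 ρ4 d q₀ ε bm hGB v0B v1B)
    (m : BM Φ X) : gR Φ X μ m (θ m.co (v0B (coT m) m).1) ≤ μ / 1024 := by
  have hT := hC.tiny m.co m.co_notMem
  have h1 := gm_uu0 (l0 := μ / 8) (mm := 1 / 2) (ra := 1 / 2 - 5 * μ / 16) hLa (mo_pq m) N.l0 N.ra0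
    (th_mem hT (v0B (coT m) m).2.2) (bar.v0 (coT m) m rfl)
  rw [sub_self, abs_zero, zero_div, zero_add] at h1
  exact h1.trans (N.om2 (by nlinarith [N.cn0, N.hκ]))

/-- the foot `v1` is far from the axis -/
theorem g_v1 (N : NumD δ κ0 R c0 κ2 μ κ1) (hLa : IsOpen La)
    (hC : Cores Φ T f κ1 κ2 X J0 J V ct A lam z θ φ)
    (bar : BarOut Φ T f κ1 μ X J0 J V θ hG bp N' ρ1 ρ2 ρ3 ρ4 d q₀ ε bm hGB v0B v1B)
    (m : BM Φ X) : 2 ≤ gR Φ X μ m (θ m.co (v1B (coT m) m).1) := by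
  have hT := hC.tiny m.co m.co_notMem
  have hμ := N.hμ
  have h1 := gm_uu1 (l0 := μ / 8) (mm := 1 / 2) (ra := 1 / 2 - 5 * μ / 16) hLa (mo_pq m) N.l0 N.ra0
    (th_mem hT (v1B (coT m) m).2.2) (bar.v1 (coT m) m rfl)
  have h2 := N.om2 (r := (2 * Cn δ R + 1) * κ1) (by nlinarith [N.cn0, N.hκ])
  have h3 : (3 : ℝ) ≤ 1 / (μ / 8) := by
    rw [le_div_iff₀ N.l0]
    linarith [N.hμb]
  have h4 : gR Φ X μ m (θ m.co (v1B (coT m) m).1) =
      Gm (μ / 8) (1 / 2) (1 / 2 - 5 * μ / 16) m.am m.Zm (sb Φ (θ m.co (v1B (coT m) m).1)) := rfl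
  rw [h4]
  linarith [N.hμb]

/-- the exact points are not near the axis -/
theorem g_exact (N : NumD δ κ0 R c0 κ2 μ κ1) (hLa : IsOpen La) (m : BM Φ X) {q : E3}
    (hq : q ∈ frontier m.co.1.set)
    (h : 5 * μ / 32 < Fs (Nb Φ hLa m.co) m.am m.Zm (sb Φ q)) : 1 ≤ gR Φ X μ m q := by
  have hμ := N.hμ
  by_contra hcon
  push Not at hcon
  have h1 : Fm m.am m.Zm (sb Φ q) / (μ / 8) < 1 := (le_max_left _ _).trans_lt hcon
  have h2 : |sb Φ q m.am - 1 / 2| / (1 / 2 - 5 * μ / 16) < 1 := (le_max_right _ _).trans_lt hcon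
  rw [div_lt_one N.l0] at h1
  rw [div_lt_one N.ra0] at h2
  have h3 := abs_lt.1 h2
  rw [fs_eq_fm hLa (mo_pq m) (mo_p (mo_pq m)) (mo_m (mo_pq m)) hq (by linarith [h3.1])
    (by linarith [h3.2]) (by linarith [N.hμb])] at h
  linarith

section s2

variable (N : NumD δ κ0 R c0 κ2 μ κ1) (H : Hm f g Om La)
  (bar : BarOut Φ T f κ1 μ X J0 J V θ hG bp N' ρ1 ρ2 ρ3 ρ4 d q₀ ε bm hGB v0B v1B)
  (D : DIn (slC hLa hC n hn).hH (stB hGB bp bm) r Sf (nbA Φ X) (vS v0F v0B) (vS v1F v1B)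
    (uA Φ hLa X θ) (AA Φ X μ κ1) (BA Φ X μ))
  (lo : LevOut (Kc := (slC hLa hC n hn).K) (stB hGB bp bm) (nbA Φ X) (uA Φ hLa X θ)
    (AA Φ X μ κ1) (BA Φ X μ) Lv)
  (tt : TwOut (slC hLa hC n hn) fr3 (stB hGB bp bm) r (vS v0F v0B) (vS v1F v1B) Lv Tw)
include N H bar D lo tt

/-- the moved vertices are not near the axis -/
theorem g_rgn (m : BM Φ X) (v : (slC hLa hC n hn).Vx (coT m))
    (hv : Rgn ((slC hLa hC n hn).sh fr3 (coT m)) (vS v0F v0B (coT m) (Sum.inr m))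
      (vS v1F v1B (coT m) (Sum.inr m))
      (trc (slC hLa hC n hn).hH (slC hLa hC n hn).dis (stB hGB bp bm) r (coT m) (Sum.inr m))
      (exa fr3 (slC hLa hC n hn).hH (slC hLa hC n hn).dis (Lv (coT m) (Sum.inr m))) (Sum.inr m) v) :
    1 - μ / 64 ≤ gR Φ X μ m (θ m.co v.1) := by
  have hμ := N.hμ
  have hr := (bar.rm m.co m.co_notMem).2
  by_contra hno
  push Not at hno
  refine not_rgn_axis (κ := Ti X) (cf := fun k => k.1) (J0 := fun k => J0 k.1)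
    (J := fun k => J k.1) (V := fun k => V k.1) (θ := fun k => θ k.1) (φ := fun k => φ k.1)
    (h3 := fr3) (hH := (slC hLa hC n hn).hH) (hdis := (slC hLa hC n hn).dis) (k := coT m)
    (b' := Sum.inr m) (N := Nb Φ hLa m.co) (a := m.am) (Z := m.Zm) (p := pp m) (m := qq m)
    (z0 := 1 - μ / 64) (zb := 1) hLa N.hδ N.hR N.hκ N.cn1
    (fun k => hC.tiny k.1 k.2) lo (v0 := vS v0F v0B) (v1 := vS v1F v1B) (fun x => rfl) (mo_pq m)
    (mo_p (mo_pq m)) (mo_m (mo_pq m)) N.nm (by linarith)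
    (show μ / 8 * (1 - μ / 64) ≤ 5 * μ / 32 by nlinarith) ?_ ?_ ?_ (v := v) hno.le _ hv
  · have h1 := N.om2 (r := (3 * Cn δ R + 1) * κ1) (by nlinarith [N.cn0, N.hκ])
    linarith
  · exact (g_v0 N hLa hC bar m).trans (by linarith [N.hμb])
  · intro w hw hl hwf
    have hl' : (stB hGB bp bm).lab w = Sum.inr m := by
      rcases hj : (stB hGB bp bm).lab w with j | m'
      · rw [hj] at hl; cases hl
      · rw [hj] at hl
        exact congrArg Sum.inr (Sum.inr_injective hl)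
    have hε := bar.lv m
    obtain ⟨b1, b2, b3, b4⟩ := rad_bar (fun c hc => (bar.rm c hc).2) m hε
    obtain ⟨-, -, -, -, -, -, -, e4⟩ := bar.pos m w hw hl'
    obtain ⟨g1, g2⟩ := bar.lev m w hw hl'
    have hfr := hr.fr w hwf
    refine ⟨g1, ?_⟩
    rcases e4 with e4 | e4 | e4
    · linarith [hr.r12, hr.d0, hfr.1]
    · linarith [hr.d0, hfr.2]
    · exact hε.1.le.trans e4.ge

/-- **the labels of all barriers** -/
theorem exists_lmU [Nonempty (slC hLa hC n hn).T3.Cell]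
    (hnC : ∃ c, OutK (slC hLa hC n hn).T3 (slC hLa hC n hn).KK c) :
    ∃ lm : BM Φ X → Lm_117.QK (belK (slC hLa hC n hn).T3 (slC hLa hC n hn).KK) → ZMod 2,
      (∀ m, GLab (lmK fr3 (Lay_316.lay_sla hLa hC n hn).core (Sla.dis_KK (S := slC hLa hC n hn))
        hnC) (Gl_422.gp (s2 (slC hLa hC n hn) fr3 Tw l0') (Sum.inr m)) (lm m)) ∧
      (∀ m, ∀ v ∈ ZK (slC hLa hC n hn).T3 (slC hLa hC n hn).KK
        (Om ∩ f ⁻¹' {y | ga Φ (coT m).1 y ≤ ρ4 (coT m).1}), lm m v = 0) ∧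
      ∀ m, ∀ w ∈ (lmK fr3 (Lay_316.lay_sla hLa hC n hn).core
          (Sla.dis_KK (S := slC hLa hC n hn)) hnC).W1,
        ∀ p, (∀ c, ¬ P ((slC hLa hC n hn).T3.H p) ⊆ (slC hLa hC n hn).KK c) →
        w ∈ P ((slC hLa hC n hn).T3.H p) → ga Φ m.co (f w) ≤ ρ3 m.co + 8 * d m.co →
        gR Φ X μ m (Φ.Psi (f w)) ≤ 1 - μ / 16 →
        sdm (lmK fr3 (Lay_316.lay_sla hLa hC n hn).core (Sla.dis_KK (S := slC hLa hC n hn)) hnC)
          (s2 (slC hLa hC n hn) fr3 Tw l0') lm m w := by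
  have hμ := N.hμ
  have hμb := N.hμb
  have hK : TinyK X J (slC hLa hC n hn) := Frk_441.tinyK_of (fun k => rfl)
  have Xc := Frk_441.cplxS (S := slC hLa hC n hn) hC (fun k => rfl)
  have hon : ∀ w ∈ (s2 (slC hLa hC n hn) fr3 Tw l0').P,
      w ∈ (lmK fr3 (Lay_316.lay_sla hLa hC n hn).core (Sla.dis_KK (S := slC hLa hC n hn)) hnC).W1 :=
    fun w hw => mem_W1K.2 ⟨(s2_dim hw).1, (s2_dim hw).2, fun c => s2_not_int hw c⟩
  have key : ∀ m : BM Φ X, ∃ lm : Lm_117.QK (belK (slC hLa hC n hn).T3 (slC hLa hC n hn).KK) →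
      ZMod 2, GLab (lmK fr3 (Lay_316.lay_sla hLa hC n hn).core (Sla.dis_KK (S := slC hLa hC n hn))
        hnC) (Gl_422.gp (s2 (slC hLa hC n hn) fr3 Tw l0') (Sum.inr m)) lm ∧
      (∀ v ∈ ZK (slC hLa hC n hn).T3 (slC hLa hC n hn).KK
        (Om ∩ f ⁻¹' {y | ga Φ (coT m).1 y ≤ ρ4 (coT m).1}), lm v = 0) ∧
      ∀ w ∈ (lmK fr3 (Lay_316.lay_sla hLa hC n hn).core
          (Sla.dis_KK (S := slC hLa hC n hn)) hnC).W1,
        ∀ p, (∀ c, ¬ P ((slC hLa hC n hn).T3.H p) ⊆ (slC hLa hC n hn).KK c) →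
        w ∈ P ((slC hLa hC n hn).T3.H p) → ga Φ m.co (f w) ≤ ρ3 m.co + 8 * d m.co →
        gR Φ X μ m (Φ.Psi (f w)) ≤ 1 - μ / 16 →
        side (lmK fr3 (Lay_316.lay_sla hLa hC n hn).core (Sla.dis_KK (S := slC hLa hC n hn)) hnC)
          (s2 (slC hLa hC n hn) fr3 Tw l0') (Sum.inr m) lm w = 1 := by
    intro m
    have hc := m.co_notMem
    have hr := (bar.rm m.co hc).2
    have hd0 := hr.d0
    have hZ := bz_rec N H hLa hC bar m
    have hT := hC.tiny m.co hc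
    obtain ⟨b1, b2, b3, b4⟩ := rad_bar (fun c hc => (bar.rm c hc).2) m (bar.lv m)
    have hε1 : 1 < ε m := (bar.lv m).1
    have hε2 : ε m ≤ 1 + μ / 16 := (bar.lv m).2.le.trans (hiB_le _ _)
    have hp : ∀ w ∈ (stB hGB bp bm).P, (stB hGB bp bm).lab w = Sum.inr m →
        f w ∈ SB1 Φ m.co (gR Φ X μ m) (rB ρ1 ρ3 d m.co - Bgf_4.hB ρ1 ρ3 d m.co * ε m)
          (rB ρ1 ρ3 d m.co + Bgf_4.hB ρ1 ρ3 d m.co * ε m) (ε m) := fun w hw hl => by
      obtain ⟨-, -, -, -, e⟩ := bar.pos m w hw hl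
      exact sb1_of hLa hC (fun c hc => (bar.rm c hc).2) m (bar.lv m) e
    have hnb' : ∀ k', nbA Φ X k' (Sum.inr m) → k' = coT m := fun k' h => (show coT m = k' from h).symm
    obtain ⟨lm, h1, h2, h3, -⟩ := sdm_s2 (S := slC hLa hC n hn) (l0 := l0')
      (hH := (Lay_316.lay_sla hLa hC n hn).core) (hne := hnC) hLa H hC hc hZ hK Xc D lo tt hon
      (i := Sum.inr m) (fun j hj => by
        rcases j with j | m'
        · cases hj
        · exact congrArg Sum.inr (Sum.inr_injective hj))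
      (k := coT m) rfl rfl hnb' hp (by linarith) (by linarith [hr.r34])
      (b := 1 - μ / 32) (b' := 1 + μ / 4) (by linarith) (by linarith) (by linarith)
      (by linarith) ((g_v0 N hLa hC bar m).trans (by linarith))
      (le_trans (by linarith) (g_v1 N hLa hC bar m)) (r := ρ1 m.co + 6 * d m.co)
      (r' := ρ3 m.co + 10 * d m.co) (by linarith) (by linarith [hr.r12]) (by linarith [hr.r12, hr.r23])
      (by linarith [hr.r34]) (by linarith) (by linarith [hr.r12]) (by linarith) (by linarith)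
    refine ⟨lm, h1, h2, fun w hw p hout hwp hga hgm => ?_⟩
    refine side_low (S := slC hLa hC n hn) (l0 := l0')
      (hH := (Lay_316.lay_sla hLa hC n hn).core) (hne := hnC) hLa H hC hc hZ hK D lo tt
      (i := Sum.inr m) (k := coT m) rfl hnb' hp (by linarith [hr.r12]) (by linarith [hr.r34])
      (z1 := 1 - μ / 64) (by linarith) (fun x hx hx1 _ => ?_) (g_rgn N H bar D lo tt m)
      (b := 1 - μ / 32) (r := ρ1 m.co + 6 * d m.co) (r' := ρ3 m.co + 10 * d m.co) (by linarith)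
      (by linarith [hr.r12]) (by linarith [hr.r34]) h1 h3 (g0 := ρ3 m.co + 8 * d m.co)
      (zz := 1 - μ / 16) (by linarith) (by linarith) (by linarith) (by linarith) hw hout hwp
      ⟨w, Sla.P3_sub p hwp, ?_, hga, hgm⟩
    · have h5 := g_exact N hLa m (q := θ m.co x) (th_mem hT hx) hx1
      linarith
    · -- the gauge of a point of an ordinary cell
      have hwt : w ∈ P (T.H p.tile) := Sla.P3_sub p hwp
      rcases Sla.tile_or (slC hLa hC n hn) p.tile with ho | ⟨c', hc'⟩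
      · have h5 := ga_ge hLa H hC hc hZ (T.sub _ hwt)
          (notInt_tile (S := slC hLa hC n hn) hLa H hC hc hZ ⟨coT m, rfl⟩ ho hwt)
        linarith [hr.r12]
      · have hV : p.tile ∈ V m.co := hr.v p.tile ⟨w, hwt, by linarith [hr.r34]⟩
        have hJ' : p.tile ∈ J c'.1 := Slt_471.sub_KJ_iff.1 hc'
        have hcc : c'.1 = m.co := by
          by_contra hne
          exact Set.disjoint_left.1 (hC.disj c'.1 m.co hne)
            ((hC.tiny c'.1 c'.2).sub hJ') hV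
        obtain ⟨v, j, g1, g2, -, -, g5, -⟩ := Rop_441.exists_col (S := slC hLa hC n hn) hout hc'
          (q := edC (slC hLa hC n hn).T3 w) (by
            rw [edC_set (mem_W1K.1 hw).1]
            exact (slC hLa hC n hn).T3.cc_sub_tile hwp)
        have g1' : v ∈ frontier (KJ T (J m.co)) := by rw [← hcc]; exact g1
        have g6 := hr.fr v g1'
        have g7 := abs_le.1 (hr.tile_osc g5 (by linarith [hr.r12]) (by linarith [hr.r34]) hwt).1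
        linarith [g7.2, hr.r12]
  choose lm h1 h2 h3 using key
  exact ⟨lm, h1, h2, fun m w hw p hout hwp g1 g2 => h3 m w hw p hout hwp g1 g2⟩

end s2

end Crest.Agent.R096.Sde_422
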