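import Crest.Agent.R096.Dtf1_117
import Crest.Agent.R096.Civ4_662
import Crest.Agent.R096.Cns4_778
import Crest.Agent.R096.Sde4_422
import Crest.Agent.R096.Lbc2_334

/-!
# R096 (row 96), DOORS (helper895, assembly): **`HOpen` (117) from three closed Props**

* `Mach` : the record of everything 117's `HOpen` gives about the machine (one structure);
* `NewE` : 688's (S), the new points of the end zone; `sd' := sdm ∨ NewE`;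
* `NE1M` : 778's `NE1` (one not enclosed point of every barrier), closed literal over `Mach`;
* `NEWINM` : 688's NEWIN, closed literal over `Mach`;
* `DICHM` : 847's `Dich` for the labels of 422's `exists_lmU` and `sd'`, closed literal over `Mach`;
* **`hOpen_of : NE1M → NEWINM → DICHM → Dtf_117.HOpen`**.
-/

set_option autoImplicit false
set_option linter.unusedSectionVars false
set_option linter.unusedVariables false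
set_option linter.style.longLine false

open Set Topology Filter Metric Module Relation MeasureTheory
open scoped Classical

namespace Crest.Agent.R096.Hop_895

open Crest.Agent.R096.Msh_715 Crest.Agent.R096.Coh_184 Crest.Agent.R096.Lab_184
  Crest.Agent.R096.Main_4 Crest.Agent.R096.Agl5_543
  Crest.Agent.R096.Seq_213 Crest.Agent.R096.St_147 Crest.Agent.R096.Door_501
  Crest.Agent.R096.Twr_438 Crest.Agent.R096.Exa_560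
  Crest.Agent.R096.Ess3_95 Crest.Agent.R096.Ess4_95 Crest.Agent.R096.Ac_117 Crest.Agent.R096.Lm_117
  Crest.Agent.R096.Dfi_539 Crest.Agent.R096.Dfi_471 Crest.Agent.R096.Dfo_539
  Crest.Agent.R096.Sla_184 Crest.Agent.R096.Gm_298
  Crest.Agent.R096.Brk1_582 Crest.Agent.R096.Brk2_582 Crest.Agent.R096.Brk3_582
  Crest.Agent.R096.Brk5_582 Crest.Agent.R096.Bsp_628 Crest.Agent.R096.Init_543
  Crest.Agent.R096.Lv3_471 Crest.Agent.R096.Lv4_471 Crest.Agent.R096.Slt_471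
  Crest.Agent.R096.Dib_438 Crest.Agent.R096.Rop_441 Crest.Agent.R096.Frk_441
  Crest.Agent.R096.Dff_539 Crest.Agent.R096.Frs_662 Crest.Agent.R096.Qdl_662
  Crest.Agent.R096.Cg_501 Crest.Agent.R096.SecW_892 Crest.Agent.R096.Sgd_298
  Crest.Agent.R096.Dfg_539 Crest.Agent.R096.Nmd1_698 Crest.Agent.R096.Civ_662
  Crest.Agent.R096.Lbc_334 Crest.Agent.R096.Bar_106 Crest.Agent.R096.Bgf_4
open Crest.Agent.R096.Sgo_298 (RmA rout ActR)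
open Crest.Agent.R096.Mbf_337 (KJ Tiny Cores Fine sb gau Star Levels Words)
open Crest.Agent.R096.SkC1_961 (E3 FoamD Hom3)
open Crest.Agent.R096.Frn_337 (Ti)
open Crest.Agent.R096.Ess7_95 (KT Sh)
open Crest.Agent.R096.Dia_316 (nbT)
open Crest.Agent.R096.Dfn_416 (BarS)
open Crest.Agent.R096.Bmf_416 (coT coT_fin)
open Crest.Agent.R096.Vin_527 (sdm)
open Crest.Agent.R096.Sde_422 (gR)
open Crest.Agent.R096.Gl_422 (GLab)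
open Crest.Agent.R096.Gm_298 (ZK)

/-- **THE RECORD OF THE MACHINE** = all facts which 117's `HOpen` gives, in his words -/
structure Mach {δ κ0 R c0 : ℝ} (κ2 κ3 κp μ κ1 : ℝ) {Om La : Set E3} (f g : E3 → E3) (hLa : IsOpen La)
    (Φ : FoamD δ κ0 R c0 La) {ι : Type} (T : Tiling Om ι) (X : Set Φ.F) (J0 J V : Φ.F → Set ι)
    (ct : Φ.F → ι) (A : Φ.F → E3 ≃ᵃ[ℝ] E3) (lam : Φ.F → ℝ) (z : Φ.F → E3) (θ : Φ.F → E3 → E3)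
    (φ : Φ.F → E3 → ℝ) (M : Φ.F → ℕ) (hC : Cores Φ T f κ1 κ2 X J0 J V ct A lam z θ φ)
    (ct' : Φ.F → ι) (r₀ : Φ.F → ℝ) (hR : InitR Φ T f g J0 ct' r₀)
    (hM : Mesh0 T (Pc Φ.F) (bc (F := Φ.F)) (RF Φ r₀) f (KorJ Φ J0) κ1)
    (h1 : κ1 < μ / 32) (h2 : κ1 < 1) (L : Φ.F → Finset ℝ) [Nonempty (JJ Φ L)]
    (hG : GF Φ r₀ T f L) (D : Φ.F → Set E3) (bp : JJ Φ L → E3)
    (lam₀ : JJ Φ L → E3 → ZMod 2) (v₀ v₁ : Φ.F → E3)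
    (r : JJ Φ L → E3) (v0 v1 : ∀ c, Φ.F → VxK T (KT T J X) c)
    (ρ1 ρ2 ρ3 ρ4 d : Φ.F → ℝ) (q₀ : BM Φ X → E3) (ε : BM Φ X → ℝ) (bm : BM Φ X → E3)
    (hGB : GFB Φ r₀ T f L (lRc Φ X μ ρ1 ρ3 d) ε)
    (v0B v1B : ∀ c, BM Φ X → VxK T (KT T J X) c)
    (n : Ti X → ℕ) (hn : ∀ c, 0 < n c)
    (Lv : ∀ c, Φ.F ⊕ BM Φ X → Lev T (frontier ((slC hLa hC n hn).K c)) (JJ Φ L ⊕ BM Φ X))
    (Tw : Twrs ((slC hLa hC n hn).sh fr3) (slC hLa hC n hn).n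
      (outK (slC hLa hC n hn).hH (slC hLa hC n hn).dis (stB hGB bp bm) (Sum.elim r bm))) :
    Prop where
  k0 : 1 ≤ κ0
  R1 : 1 ≤ R
  c00 : 0 < c0
  k2 : 0 < κ2
  k3 : 8 ≤ κ3
  mup : μ ≤ κp
  kp : κp ≤ 1 / 64
  N : NumD δ κ0 R c0 κ2 μ κ1
  hOm : IsOpen Om
  hOb : Bornology.IsBounded Om
  hOc : IsConnected Om
  hLb : Bornology.IsBounded La
  hLc : IsConnected La
  hf : Hom3 f Om La
  star : Star Φ
  fine : Fine Φ T f κ1 J0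
  lev : ∀ c, ∀ t ∈ L c, μ ≤ t ∧ t ≤ 1 - μ
  ne : ∀ a, (L a).Nonempty
  words : Words Φ T f X ct A lam z M L
  init : InitS hLa hR hM h1 h2 hG D bp lam₀ v₀ v₁
  root : ∀ j, (r j ∈ (st0 hG bp).P ∧ (st0 hG bp).lab (r j) = j) ∧
        ∃ q, r j ∈ P (T.H q) ∧ (∃ c, ∃ x ∈ P (T.H q), f x ∈ Lbp_438.Wl Φ c) ∧ (∀ c, q ∉ V c) ∧
          ∀ (k : Init_543.QK (Pc Φ.F)) (s : ℝ), j.1 ∈ k.B → κ1 < s →
            q ∉ Act0 T (Pc Φ.F) (bc (F := Φ.F)) (RF Φ r₀) f (KorJ Φ J0) s k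
  v0l : ∀ (c : Ti X) a, nbT Φ X c a → sb Φ (θ c.1 (v0 c a).1) a ≤ (2 * Cn δ R + 1) * κ1
  v1l : ∀ (c : Ti X) a, nbT Φ X c a → 1 - (2 * Cn δ R + 1) * κ1 ≤ sb Φ (θ c.1 (v1 c a).1) a
  bar : BarOut Φ T f κ1 μ X J0 J V θ hG bp (fun _ => ∅) ρ1 ρ2 ρ3 ρ4 d q₀ ε bm hGB v0B v1B
  barS : BarS hG bp V coT (stB hGB bp bm)
  din : DIn (fun c => Dia_316.coreH_KT hC c) (stB hGB bp bm) (Sum.elim r bm)
        (SfA Om Φ X r₀ f L μ ρ1 ρ3 d ε) (nbA Φ X) (vS v0 v0B) (vS v1 v1B) (uA Φ hLa X θ)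
        (AA Φ X μ κ1) (BA Φ X μ)
  brec : BR hLa (stB hGB bp bm) f X J θ coT BM.am BM.Zm (nbA Φ X) (vS v0 v0B) (vS v1 v1B)
        (uA Φ hLa X θ) (AA Φ X μ κ1) (BA Φ X μ) μ κ1
  lo : LevOut (Kc := (slC hLa hC n hn).K) (stB hGB bp bm) (nbA Φ X) (uA Φ hLa X θ) (AA Φ X μ κ1)
        (BA Φ X μ) Lv
  tt : TwOut (slC hLa hC n hn) fr3 (stB hGB bp bm) (Sum.elim r bm) (vS v0 v0B) (vS v1 v1B) Lv Tw
  mon : Mon (slC hLa hC n hn) fr3 Lv Tw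
  monT : ∀ c a j, ∀ w ∈ (trc (slC hLa hC n hn).hH (slC hLa hC n hn).dis (stB hGB bp bm)
      (Sum.elim r bm) c a).P, w ∈ ((Tw.tw c a).pat (j + 1)).P → w ∈ ((Tw.tw c a).pat j).P
  ord : ∀ c, ∃ jm ≤ n c,
      (∀ a : Φ.F, ∀ j, jm ≤ j → (Tw.tw c (Sum.inl a)).pat j = (Tw.tw c (Sum.inl a)).pat (n c) ∧
        ((Tw.tw c (Sum.inl a)).mv j).Qv = ∅) ∧
      ∀ m : BM Φ X, (∀ j, j ≤ jm → (Tw.tw c (Sum.inr m)).pat j =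
          trc (slC hLa hC n hn).hH (slC hLa hC n hn).dis (stB hGB bp bm) (Sum.elim r bm) c
            (Sum.inr m)) ∧
        ∀ j, j < jm → ((Tw.tw c (Sum.inr m)).mv j).Qv = ∅

/-- **the new points of the end zone** of the family `a` (688's (S)): not in `s₂`, on a tile outside
the layers' cores which meets `{lev_a ≤ 3μ/8}` or `{1 - 3μ/8 ≤ lev_a}` -/
def NewE {δ κ0 R c0 : ℝ} {La Om : Set E3} {ι : Type} (Φ : FoamD δ κ0 R c0 La) {T : Tiling Om ι}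
    (f : E3 → E3) (μ : ℝ) {κ : Type} (S : Sla T κ) (P2 : Set E3) (a : Φ.F) (w : E3) : Prop :=
  w ∉ P2 ∧ ∃ p : T.RIdx S.HH, (∀ k, ¬ P (S.T3.H p) ⊆ S.KK k) ∧ w ∈ P (S.T3.H p) ∧
    ∃ x ∈ P (T.H p.tile), Φ.lev a (f x) ≤ 3 * μ / 8 ∨ 1 - 3 * μ / 8 ≤ Φ.lev a (f x)

/-- **778's `NE1`**: every barrier has a point above the gauge `ρ3 + 7 d` which is not enclosed -/
def NE1M : Prop :=
  ∀ (δ κ0 R c0 κ2 κ3 κp μ κ1 : ℝ) (Om La : Set E3) (f g : E3 → E3) (hLa : IsOpen La)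
    (Φ : FoamD δ κ0 R c0 La) (ι : Type) (T : Tiling Om ι) (X : Set Φ.F) (J0 J V : Φ.F → Set ι)
    (ct : Φ.F → ι) (A : Φ.F → E3 ≃ᵃ[ℝ] E3) (lam : Φ.F → ℝ) (z : Φ.F → E3) (θ : Φ.F → E3 → E3)
    (φ : Φ.F → E3 → ℝ) (M : Φ.F → ℕ) (hC : Cores Φ T f κ1 κ2 X J0 J V ct A lam z θ φ)
    (ct' : Φ.F → ι) (r₀ : Φ.F → ℝ) (hR : InitR Φ T f g J0 ct' r₀)
    (hM : Mesh0 T (Pc Φ.F) (bc (F := Φ.F)) (RF Φ r₀) f (KorJ Φ J0) κ1)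
    (h1 : κ1 < μ / 32) (h2 : κ1 < 1) (L : Φ.F → Finset ℝ) [Nonempty (JJ Φ L)]
    (hG : GF Φ r₀ T f L) (D : Φ.F → Set E3) (bp : JJ Φ L → E3)
    (lam₀ : JJ Φ L → E3 → ZMod 2) (v₀ v₁ : Φ.F → E3)
    (r : JJ Φ L → E3) (v0 v1 : ∀ c, Φ.F → VxK T (KT T J X) c)
    (ρ1 ρ2 ρ3 ρ4 d : Φ.F → ℝ) (q₀ : BM Φ X → E3) (ε : BM Φ X → ℝ) (bm : BM Φ X → E3)
    (hGB : GFB Φ r₀ T f L (lRc Φ X μ ρ1 ρ3 d) ε)
    (v0B v1B : ∀ c, BM Φ X → VxK T (KT T J X) c)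
    (n : Ti X → ℕ) (hn : ∀ c, 0 < n c)
    (Lv : ∀ c, Φ.F ⊕ BM Φ X → Lev T (frontier ((slC hLa hC n hn).K c)) (JJ Φ L ⊕ BM Φ X))
    (Tw : Twrs ((slC hLa hC n hn).sh fr3) (slC hLa hC n hn).n
      (outK (slC hLa hC n hn).hH (slC hLa hC n hn).dis (stB hGB bp bm) (Sum.elim r bm))),
    Mach κ2 κ3 κp μ κ1 f g hLa Φ T X J0 J V ct A lam z θ φ M hC ct' r₀ hR hM h1 h2 L hG D bp lam₀
      v₀ v₁ r v0 v1 ρ1 ρ2 ρ3 ρ4 d q₀ ε bm hGB v0B v1B n hn Lv Tw →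
  ∀ [Nonempty (slC hLa hC n hn).T3.Cell]
    (_ : ∃ c, OutK (slC hLa hC n hn).T3 (slC hLa hC n hn).KK c)
    (l0' : E3 → JJ Φ L ⊕ BM Φ X) (m : BM Φ X),
    ∃ w ∈ (stB hGB bp bm).P, (stB hGB bp bm).lab w = Sum.inr m ∧
      ρ3 m.co + 7 * d m.co ≤ Ess5_95.ga Φ m.co (f w) ∧
      ¬ Dfo_539.Encl (s2 (slC hLa hC n hn) fr3 Tw l0') BM.am
        (fun _ => ActR (slC hLa hC n hn) (Rdc T f Xᶜ (rout ρ3 d))) m w

/-- **688's NEWIN**: the new points of the end zone are in `Y` -/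
def NEWINM : Prop :=
  ∀ (δ κ0 R c0 κ2 κ3 κp μ κ1 : ℝ) (Om La : Set E3) (f g : E3 → E3) (hLa : IsOpen La)
    (Φ : FoamD δ κ0 R c0 La) (ι : Type) (T : Tiling Om ι) (X : Set Φ.F) (J0 J V : Φ.F → Set ι)
    (ct : Φ.F → ι) (A : Φ.F → E3 ≃ᵃ[ℝ] E3) (lam : Φ.F → ℝ) (z : Φ.F → E3) (θ : Φ.F → E3 → E3)
    (φ : Φ.F → E3 → ℝ) (M : Φ.F → ℕ) (hC : Cores Φ T f κ1 κ2 X J0 J V ct A lam z θ φ)
    (ct' : Φ.F → ι) (r₀ : Φ.F → ℝ) (hR : InitR Φ T f g J0 ct' r₀)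
    (hM : Mesh0 T (Pc Φ.F) (bc (F := Φ.F)) (RF Φ r₀) f (KorJ Φ J0) κ1)
    (h1 : κ1 < μ / 32) (h2 : κ1 < 1) (L : Φ.F → Finset ℝ) [Nonempty (JJ Φ L)]
    (hG : GF Φ r₀ T f L) (D : Φ.F → Set E3) (bp : JJ Φ L → E3)
    (lam₀ : JJ Φ L → E3 → ZMod 2) (v₀ v₁ : Φ.F → E3)
    (r : JJ Φ L → E3) (v0 v1 : ∀ c, Φ.F → VxK T (KT T J X) c)
    (ρ1 ρ2 ρ3 ρ4 d : Φ.F → ℝ) (q₀ : BM Φ X → E3) (ε : BM Φ X → ℝ) (bm : BM Φ X → E3)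
    (hGB : GFB Φ r₀ T f L (lRc Φ X μ ρ1 ρ3 d) ε)
    (v0B v1B : ∀ c, BM Φ X → VxK T (KT T J X) c)
    (n : Ti X → ℕ) (hn : ∀ c, 0 < n c)
    (Lv : ∀ c, Φ.F ⊕ BM Φ X → Lev T (frontier ((slC hLa hC n hn).K c)) (JJ Φ L ⊕ BM Φ X))
    (Tw : Twrs ((slC hLa hC n hn).sh fr3) (slC hLa hC n hn).n
      (outK (slC hLa hC n hn).hH (slC hLa hC n hn).dis (stB hGB bp bm) (Sum.elim r bm))),
    Mach κ2 κ3 κp μ κ1 f g hLa Φ T X J0 J V ct A lam z θ φ M hC ct' r₀ hR hM h1 h2 L hG D bp lam₀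
      v₀ v₁ r v0 v1 ρ1 ρ2 ρ3 ρ4 d q₀ ε bm hGB v0B v1B n hn Lv Tw →
  ∀ [Nonempty (slC hLa hC n hn).T3.Cell]
    (hnC : ∃ c, OutK (slC hLa hC n hn).T3 (slC hLa hC n hn).KK c)
    (l0' : E3 → JJ Φ L ⊕ BM Φ X) (hmf : ∀ a, {m : BM Φ X | m.am = a}.Finite)
    (j0 : Φ.F → JJ Φ L) (hj0 : ∀ a, (j0 a).1 = a),
    ∀ (hs : BSep (s2 (slC hLa hC n hn) fr3 Tw l0') BM.am)
      (far : ∀ a, PN (fun j : JJ Φ L => j.1) (BM.am (X := X)) a → Set E3)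
      (t : ∀ a, St ((slC hLa hC n hn).mn fr3) (pcol (fun j : JJ Φ L => j.1) (BM.am (X := X)) a))
      (Ph : Φ.F → Finset E3) (s₃ : GSt ((slC hLa hC n hn).mn fr3) (fun j : JJ Φ L => j.1)),
      (∀ a, (prS (s2 (slC hLa hC n hn) fr3 Tw l0') hs hmf j0 hj0 a).Good
        (ActR (slC hLa hC n hn) (Rdc T f Xᶜ (rout ρ3 d))) (far a)) →
      (∀ a, ∀ i : PN (fun j : JJ Φ L => j.1) BM.am a, ∀ j, i.1 = Sum.inl j →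
        (Sum.elim r bm) (Sum.inl j) ∈ far a i) →
      (∀ a i F w, w ∈ far a i →
        (prS (s2 (slC hLa hC n hn) fr3 Tw l0') hs hmf j0 hj0 a).At F w →
        OKp (prS (s2 (slC hLa hC n hn) fr3 Tw l0') hs hmf j0 hj0 a)
          (ActR (slC hLa hC n hn) (Rdc T f Xᶜ (rout ρ3 d))) F w →
          (s2 (slC hLa hC n hn) fr3 Tw l0').mu F w ∈ far a i) →
      CutR (s2 (slC hLa hC n hn) fr3 Tw l0') hs hmf j0 hj0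
        (fun _ => ActR (slC hLa hC n hn) (Rdc T f Xᶜ (rout ρ3 d))) far t Ph s₃ →
      PosS (hH := (Lay_316.lay_sla hLa hC n hn).core) Φ T f (μ / 4) J0 (slC hLa hC n hn) s₃ →
      ∀ (j : JJ Φ L) (m : BM Φ X) (k : Init_543.QK (Pc Φ.F)), m.am = j.1 →
        (qdT (fun p : T.RIdx (slC hLa hC n hn).HH => p.tile) (sla_sub (slC hLa hC n hn))
          (slC hLa hC n hn).KK hLa hR hM h1 h2).In k j.1 →
      ∀ Y : Set E3, (Sum.elim r bm) (Sum.inl j) ∈ Y →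
        Dinv_106.KCl s₃ (qdT (fun p : T.RIdx (slC hLa hC n hn).HH => p.tile) (sla_sub (slC hLa hC n hn))
          (slC hLa hC n hn).KK hLa hR hM h1 h2) j k Y →
        (∀ w ∈ s₃.P, s₃.lab w = j →
          OnG (Lay_316.lay_sla hLa hC n hn).core Sla.dis_KK w → w ∈ Y) →
        ∀ w ∈ s₃.P, s₃.lab w = j →
          NewE Φ f μ (slC hLa hC n hn) (s2 (slC hLa hC n hn) fr3 Tw l0').P m.am w → w ∈ Y

/-- **847's `Dich`** for 422's labels and 688's `sd'` -/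
def DICHM : Prop :=
  ∀ (δ κ0 R c0 κ2 κ3 κp μ κ1 : ℝ) (Om La : Set E3) (f g : E3 → E3) (hLa : IsOpen La)
    (Φ : FoamD δ κ0 R c0 La) (ι : Type) (T : Tiling Om ι) (X : Set Φ.F) (J0 J V : Φ.F → Set ι)
    (ct : Φ.F → ι) (A : Φ.F → E3 ≃ᵃ[ℝ] E3) (lam : Φ.F → ℝ) (z : Φ.F → E3) (θ : Φ.F → E3 → E3)
    (φ : Φ.F → E3 → ℝ) (M : Φ.F → ℕ) (hC : Cores Φ T f κ1 κ2 X J0 J V ct A lam z θ φ)
    (ct' : Φ.F → ι) (r₀ : Φ.F → ℝ) (hR : InitR Φ T f g J0 ct' r₀)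
    (hM : Mesh0 T (Pc Φ.F) (bc (F := Φ.F)) (RF Φ r₀) f (KorJ Φ J0) κ1)
    (h1 : κ1 < μ / 32) (h2 : κ1 < 1) (L : Φ.F → Finset ℝ) [Nonempty (JJ Φ L)]
    (hG : GF Φ r₀ T f L) (D : Φ.F → Set E3) (bp : JJ Φ L → E3)
    (lam₀ : JJ Φ L → E3 → ZMod 2) (v₀ v₁ : Φ.F → E3)
    (r : JJ Φ L → E3) (v0 v1 : ∀ c, Φ.F → VxK T (KT T J X) c)
    (ρ1 ρ2 ρ3 ρ4 d : Φ.F → ℝ) (q₀ : BM Φ X → E3) (ε : BM Φ X → ℝ) (bm : BM Φ X → E3)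
    (hGB : GFB Φ r₀ T f L (lRc Φ X μ ρ1 ρ3 d) ε)
    (v0B v1B : ∀ c, BM Φ X → VxK T (KT T J X) c)
    (n : Ti X → ℕ) (hn : ∀ c, 0 < n c)
    (Lv : ∀ c, Φ.F ⊕ BM Φ X → Lev T (frontier ((slC hLa hC n hn).K c)) (JJ Φ L ⊕ BM Φ X))
    (Tw : Twrs ((slC hLa hC n hn).sh fr3) (slC hLa hC n hn).n
      (outK (slC hLa hC n hn).hH (slC hLa hC n hn).dis (stB hGB bp bm) (Sum.elim r bm))),
    Mach κ2 κ3 κp μ κ1 f g hLa Φ T X J0 J V ct A lam z θ φ M hC ct' r₀ hR hM h1 h2 L hG D bp lam₀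
      v₀ v₁ r v0 v1 ρ1 ρ2 ρ3 ρ4 d q₀ ε bm hGB v0B v1B n hn Lv Tw →
  ∀ [Nonempty (slC hLa hC n hn).T3.Cell]
    (hnC : ∃ c, OutK (slC hLa hC n hn).T3 (slC hLa hC n hn).KK c)
    (l0' : E3 → JJ Φ L ⊕ BM Φ X) (hmf : ∀ a, {m : BM Φ X | m.am = a}.Finite)
    (j0 : Φ.F → JJ Φ L) (hj0 : ∀ a, (j0 a).1 = a)
    -- 422's labels
    (lm : BM Φ X → Lm_117.QK (belK (slC hLa hC n hn).T3 (slC hLa hC n hn).KK) → ZMod 2),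
    (∀ m, GLab (lmK fr3 (Lay_316.lay_sla hLa hC n hn).core (Sla.dis_KK (S := slC hLa hC n hn))
        hnC) (Gl_422.gp (s2 (slC hLa hC n hn) fr3 Tw l0') (Sum.inr m)) (lm m)) →
    (∀ m, ∀ v ∈ ZK (slC hLa hC n hn).T3 (slC hLa hC n hn).KK
        (Om ∩ f ⁻¹' {y | Ess5_95.ga Φ (coT m).1 y ≤ ρ4 (coT m).1}), lm m v = 0) →
    (∀ m, ∀ w ∈ (lmK fr3 (Lay_316.lay_sla hLa hC n hn).core
          (Sla.dis_KK (S := slC hLa hC n hn)) hnC).W1,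
        ∀ p, (∀ c, ¬ P ((slC hLa hC n hn).T3.H p) ⊆ (slC hLa hC n hn).KK c) →
        w ∈ P ((slC hLa hC n hn).T3.H p) → Ess5_95.ga Φ m.co (f w) ≤ ρ3 m.co + 8 * d m.co →
        gR Φ X μ m (Φ.Psi (f w)) ≤ 1 - μ / 16 →
        sdm (lmK fr3 (Lay_316.lay_sla hLa hC n hn).core (Sla.dis_KK (S := slC hLa hC n hn)) hnC)
          (s2 (slC hLa hC n hn) fr3 Tw l0') lm m w) →
    -- the cut
    ∀ (hs : BSep (s2 (slC hLa hC n hn) fr3 Tw l0') BM.am)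
      (far : ∀ a, PN (fun j : JJ Φ L => j.1) (BM.am (X := X)) a → Set E3)
      (t : ∀ a, St ((slC hLa hC n hn).mn fr3) (pcol (fun j : JJ Φ L => j.1) (BM.am (X := X)) a))
      (Ph : Φ.F → Finset E3) (s₃ : GSt ((slC hLa hC n hn).mn fr3) (fun j : JJ Φ L => j.1)),
      (∀ a, (prS (s2 (slC hLa hC n hn) fr3 Tw l0') hs hmf j0 hj0 a).Good
        (ActR (slC hLa hC n hn) (Rdc T f Xᶜ (rout ρ3 d))) (far a)) →
      (∀ a, ∀ i : PN (fun j : JJ Φ L => j.1) BM.am a, ∀ j, i.1 = Sum.inl j →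
        (Sum.elim r bm) (Sum.inl j) ∈ far a i) →
      (∀ a i F w, w ∈ far a i →
        (prS (s2 (slC hLa hC n hn) fr3 Tw l0') hs hmf j0 hj0 a).At F w →
        OKp (prS (s2 (slC hLa hC n hn) fr3 Tw l0') hs hmf j0 hj0 a)
          (ActR (slC hLa hC n hn) (Rdc T f Xᶜ (rout ρ3 d))) F w →
          (s2 (slC hLa hC n hn) fr3 Tw l0').mu F w ∈ far a i) →
      CutR (s2 (slC hLa hC n hn) fr3 Tw l0') hs hmf j0 hj0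
        (fun _ => ActR (slC hLa hC n hn) (Rdc T f Xᶜ (rout ρ3 d))) far t Ph s₃ →
      PosS (hH := (Lay_316.lay_sla hLa hC n hn).core) Φ T f (μ / 4) J0 (slC hLa hC n hn) s₃ →
      Dich (hH := (Lay_316.lay_sla hLa hC n hn).core) (hdis := Sla.dis_KK)
        (qdT (fun p : T.RIdx (slC hLa hC n hn).HH => p.tile) (sla_sub (slC hLa hC n hn))
          (slC hLa hC n hn).KK hLa hR hM h1 h2) s₃ (UTm Om Φ f X ρ3 d) BM.am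
        (fun m w => sdm (lmK fr3 (Lay_316.lay_sla hLa hC n hn).core
            (Sla.dis_KK (S := slC hLa hC n hn)) hnC) (s2 (slC hLa hC n hn) fr3 Tw l0') lm m w ∨
          NewE Φ f μ (slC hLa hC n hn) (s2 (slC hLa hC n hn) fr3 Tw l0').P m.am w)

/-- **117's `HOpen` FROM `NE1M`, `NEWINM`, `DICHM`** -/
theorem hOpen_of (HN : NE1M) (HW : NEWINM) (HD : DICHM) : Dtf_117.HOpen := by
  intro δ κ0 R c0 κ2 κ3 κp μ κ1 hκ0 hR1 hc0 hκ2 hκ3 hμp hκp N h1 h2 Om La f g hOm hOb hOc hLa hLb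
    hLc hf Φ ι T X J0 J V ct A lam z θ φ M hSt hC hF ct' r₀ hR hM L hm hne hW _ hG D bp lam₀ v₀ v₁
    hI r v0 v1 ρ1 ρ2 ρ3 ρ4 d q₀ ε bm hGB v0B v1B hr hv0 hv1 hB hBS hD rec n hn Lv Tw lo tt mon monT
    ord _ hnC l0' hmf j0 hj0
  have MM : Mach κ2 κ3 κp μ κ1 f g hLa Φ T X J0 J V ct A lam z θ φ M hC ct' r₀ hR hM h1 h2 L hG D
      bp lam₀ v₀ v₁ r v0 v1 ρ1 ρ2 ρ3 ρ4 d q₀ ε bm hGB v0B v1B n hn Lv Tw :=
    ⟨hκ0, hR1, hc0, hκ2, hκ3, hμp, hκp, N, hOm, hOb, hOc, hLb, hLc, hf, hSt, hF, hm, hne, hW, hI,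
      hr, hv0, hv1, hB, hBS, hD, rec, lo, tt, mon, monT, ord⟩
  have hRm := Lbc_334.rma_bo MM.bar
  have hga := Lbc_334.ga_bo MM.bar
  have hrE : ∀ j : JJ Φ L, ∃ q, (Sum.elim r bm) (Sum.inl j) ∈ P (T.H q) ∧ (∀ c ∉ X, q ∉ V c) ∧
      ∀ (k : Init_543.QK (Pc Φ.F)) (s : ℝ), j.1 ∈ k.B → κ1 < s →
        q ∉ Act0 T (Pc Φ.F) (bc (F := Φ.F)) (RF Φ r₀) f (KorJ Φ J0) s k := by
    intro j
    obtain ⟨-, q, g1, -, g2, g3⟩ := MM.root j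
    exact ⟨q, g1, fun c _ => g2 c, g3⟩
  have hrV : ∀ j : JJ Φ L, ∃ q, (Sum.elim r bm) (Sum.inl j) ∈ P (T.H q) ∧ ∀ c ∉ X, q ∉ V c :=
    fun j => by
      obtain ⟨q, g1, g2, -⟩ := hrE j
      exact ⟨q, g1, g2⟩
  have hconn : ∀ j, (st0 hG bp).Conn j := fun j =>
    st0_conn hLa hR (fun i => ⟨(MM.init.base i).1, (MM.init.base i).2.1, (MM.init.base i).2.2.1⟩) j
  obtain ⟨lm, l1, l2, l3⟩ := Sde_422.exists_lmU (l0' := l0') MM.N hR.hm MM.bar MM.din MM.lo MM.tt hnC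
  refine ⟨fun m w => sdm (lmK fr3 (Lay_316.lay_sla hLa hC n hn).core
      (Sla.dis_KK (S := slC hLa hC n hn)) hnC) (s2 (slC hLa hC n hn) fr3 Tw l0') lm m w ∨
    NewE Φ f μ (slC hLa hC n hn) (s2 (slC hLa hC n hn) fr3 Tw l0').P m.am w, ?_⟩
  intro hs far t Ph s₃ g1 g2 g3 DR pB
  obtain ⟨RR, SS, c1, c2, c3⟩ := Cns_778.hConn_m (hI := hR) (r := r) (hmf := hmf) (j0 := j0)
    (hj0 := hj0) MM.N.hμ MM.lev MM.bar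
    (fun m => HN δ κ0 R c0 κ2 κ3 κp μ κ1 Om La f g hLa Φ ι T X J0 J V ct A lam z θ φ M hC ct' r₀ hR
      hM h1 h2 L hG D bp lam₀ v₀ v₁ r v0 v1 ρ1 ρ2 ρ3 ρ4 d q₀ ε bm hGB v0B v1B n hn Lv Tw MM hnC
      l0' m) hs far
  have hv := vIn_m MM.N hRm hR hM hnC MM.din MM.lo MM.tt MM.brec hga hrV g2 DR pB
    (qdT (fun p : T.RIdx (slC hLa hC n hn).HH => p.tile) (sla_sub (slC hLa hC n hn))
          (slC hLa hC n hn).KK hLa hR hM h1 h2) l1 l2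
  refine ⟨Tro_147.trOut_m MM.N MM.k2 hRm MM.words MM.lev hconn MM.bar.ext MM.din MM.lo MM.tt MM.brec
      hga hrE g2 DR pB c1 c2 c3, ?_,
    HD δ κ0 R c0 κ2 κ3 κp μ κ1 Om La f g hLa Φ ι T X J0 J V ct A lam z θ φ M hC ct' r₀ hR
      hM h1 h2 L hG D bp lam₀ v₀ v₁ r v0 v1 ρ1 ρ2 ρ3 ρ4 d q₀ ε bm hGB v0B v1B n hn Lv Tw MM hnC
      l0' hmf j0 hj0 lm l1 l2 l3 hs far t Ph s₃ g1 g2 g3 DR pB⟩
  intro j m k hm hk Y hbY hY hgi w hw hl hs'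
  rcases hs' with hs' | hs'
  · exact hv j m k hm hk Y hbY hY hgi w hw hl hs'
  · exact HW δ κ0 R c0 κ2 κ3 κp μ κ1 Om La f g hLa Φ ι T X J0 J V ct A lam z θ φ M hC ct' r₀ hR
      hM h1 h2 L hG D bp lam₀ v₀ v₁ r v0 v1 ρ1 ρ2 ρ3 ρ4 d q₀ ε bm hGB v0B v1B n hn Lv Tw MM hnC
      l0' hmf j0 hj0 hs far t Ph s₃ g1 g2 g3 DR pB j m k hm hk Y hbY hY hgi w hw hl hs'

end Crest.Agent.R096.Hop_895
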