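import Crest.Agent.R096.Dcs1_522
import Crest.Agent.R096.Hop1_895

/-! Row 96 (helper522), DOORS: **895's `DICHM`**. -/

set_option autoImplicit false
set_option linter.unusedSectionVars false
set_option linter.unusedVariables false
set_option linter.style.longLine false

namespace Crest.Agent.R096.Dcs_522

/-- **`DICHM` IS PROVED** -/
theorem dichm : Hop_895.DICHM := by
  intro δ κ0 R c0 κ2 κ3 κp μ κ1 Om La f g hLa Φ ι T X J0 J V ct A lam z θ φ M hC ct' r₀ hR hM h1 h2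
    L _ hG D bp lam₀ v₀ v₁ r v0 v1 ρ1 ρ2 ρ3 ρ4 d q₀ ε bm hGB v0B v1B n hn Lv Tw MM _ hnC l0' hmf j0
    hj0 lm _ _ l3 hs far t Ph s₃ _ _ _ DR _
  exact dich_mS MM.N hR.hm MM.bar MM.din MM.lo MM.tt MM.brec hnC l3 (Dff_539.cutOut_of DR)

end Crest.Agent.R096.Dcs_522
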