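import Crest.Agent.R096.Wy1_664

/-!
# Row 96, DOORS (helper493): the transversal chart of the end wall (leaf G1 of 778)

`exists_chart` : the piece `gauge ∈ [s0, s1]`, `Psi ∈ gam (t0, [0, w1])` of the moat is an embedded
rectangle in `Om`.
-/

set_option autoImplicit false
set_option linter.unusedSectionVars false

open Set Topology Filter Metric Module
open scoped Classical

namespace Crest.Agent.R096.Chz_493

open Crest.Agent.R096.Msh_715 Crest.Agent.R096.Coh_184 Crest.Agent.R096.Bsp_628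
  Crest.Agent.R096.Brk1_582 Crest.Agent.R096.Brk2_582 Crest.Agent.R096.Brk3_582
  Crest.Agent.R096.Brk5_582 Crest.Agent.R096.Init_543 Crest.Agent.R096.Mbf_337
  Crest.Agent.R96.Push_899 Crest.Agent.R096.Ess1_95 Crest.Agent.R096.Ess4_95
  Crest.Agent.R096.Ess5_95 Crest.Agent.R096.Ess6_95 Crest.Agent.R096.Ess7_95
  Crest.Agent.R096.Lab_184 Crest.Agent.R096.Seq_213 Crest.Agent.R096.Seq_213.GSt
  Crest.Agent.R096.Main_4 Crest.Agent.R096.Exa_560 Crest.Agent.R096.Agl4_543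
  Crest.Agent.R096.Agl5_543 Crest.Agent.R096.Agl6_543 Crest.Agent.R096.Agl8_543
  Crest.Agent.R096.Ebr1_95 Crest.Agent.R096.Ebr2_95
  Crest.Agent.R096.Ebr3_95 Crest.Agent.R096.Ebr4_95 Crest.Agent.R096.Ebr5_95
  Crest.Agent.R096.Ebr6_95 Crest.Agent.R096.Bar_106
  Crest.Agent.R096.Bgf_4 Crest.Agent.R096.Dib_438 Crest.Agent.R096.Sphg_316

open Crest.Agent.R096.SkC1_961 (E3 Hom3 IsPush FoamD)

variable {δ κ0 R c0 : ℝ} {La Om : Set E3} {Φ : FoamD δ κ0 R c0 La} {f g : E3 → E3}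

/-- **G1** -/
theorem exists_chart_pol (hLa : IsOpen La) (H : Hm f g Om La) {c : Φ.F} {ρ : ℝ}
    {pl : ℝ × E3 → E3} (hPol : Pol Φ c ρ pl) (hcL : ∀ y, ga Φ c y ≤ ρ → y ∈ La)
    {a p q : Φ.F} {Z : Set Φ.F} (hM : Mo (Pc Φ.F) c a Z p q)
    {s0 s1 t0 w1 : ℝ} (hs0 : 0 < s0) (hs1 : s1 ≤ ρ) (ht0 : t0 ∈ Icc (0 : ℝ) 1) (hw1 : w1 ≤ 1) :
    ∃ Wz : ℝ × ℝ → E3, ContinuousOn Wz (Icc s0 s1 ×ˢ Icc 0 w1) ∧
      InjOn Wz (Icc s0 s1 ×ˢ Icc 0 w1) ∧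
      (∀ z ∈ Icc s0 s1 ×ˢ Icc 0 w1, Wz z ∈ Om ∧ ga Φ c (f (Wz z)) = z.1 ∧
        Φ.Psi (f (Wz z)) = gam (bc (F := Φ.F)) a Z p q (t0, z.2) ∧ Φ.lev a (f (Wz z)) = t0 ∧
        (∀ e, dv a Z (fun e => Φ.lev e (f (Wz z))) e =
          dv a Z (uu a Z p q t0 z.2) e) ∧
        ∀ l0 mm ra : ℝ, 0 < l0 → gmf Φ l0 mm ra a Z (Φ.Psi (f (Wz z))) =
          max (z.2 / l0) (|t0 - mm| / ra)) ∧
      IsCompact (Wz '' (Icc s0 s1 ×ˢ Icc 0 w1)) ∧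
      TrivF (ZMod 2) (Wz '' (Icc s0 s1 ×ˢ Icc 0 w1)) := by
  have FF := foam Φ.bf hLa
  have hRct : ∀ w ∈ Icc (0 : ℝ) w1, ((t0, w) : ℝ × ℝ) ∈ Rct := fun w hw =>
    ⟨ht0, ⟨by linarith [hw.1], by linarith [hw.2]⟩⟩
  have hfr : ∀ w ∈ Icc (0 : ℝ) w1, gam (bc (F := Φ.F)) a Z p q (t0, w) ∈ frontier c.1.set :=
    fun w hw => gam_fr hLa hM (hRct w hw)
  set D : Set (ℝ × ℝ) := Icc s0 s1 ×ˢ Icc 0 w1 with hD
  set Y : ℝ × ℝ → E3 := fun z => pl (z.1, gam (bc (F := Φ.F)) a Z p q (t0, z.2)) with hY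
  have hIoc : ∀ z ∈ D, z.1 ∈ Ioc 0 ρ := fun z hz =>
    ⟨lt_of_lt_of_le hs0 hz.1.1, hz.1.2.trans hs1⟩
  have hga : ∀ z ∈ D, ga Φ c (Y z) = z.1 := fun z hz =>
    hPol.gau z.1 (hIoc z hz) _ (hfr z.2 hz.2)
  have hpsi : ∀ z ∈ D, Φ.Psi (Y z) = gam (bc (F := Φ.F)) a Z p q (t0, z.2) := fun z hz =>
    hPol.psi z.1 (hIoc z hz) _ (hfr z.2 hz.2)
  have hYL : ∀ z ∈ D, Y z ∈ La := fun z hz => hcL _ (by rw [hga z hz]; exact (hIoc z hz).2)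
  have hYc : ContinuousOn Y D := by
    have h1 : ContinuousOn (fun z : ℝ × ℝ => gam (bc (F := Φ.F)) a Z p q (t0, z.2)) D := by
      refine (hM.continuousOn_gam FF).comp (Continuous.continuousOn (by fun_prop)) ?_
      intro z hz
      exact hRct z.2 hz.2
    refine hPol.cont.comp (continuous_fst.continuousOn.prodMk h1) ?_
    intro z hz
    exact ⟨mem_univ _, hfr z.2 hz.2⟩
  have hfW : ∀ z ∈ D, f (g (Y z)) = Y z := fun z hz => H.fg _ (hYL z hz)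
  have hWc : ContinuousOn (fun z => g (Y z)) D := H.gc.comp hYc hYL
  have hinj : InjOn (fun z => g (Y z)) D := by
    intro x hx y hy hxy
    have h1 : Y x = Y y := by
      have h2 : f (g (Y x)) = f (g (Y y)) := congrArg f hxy
      rwa [hfW x hx, hfW y hy] at h2
    have h3 : x.1 = y.1 := by rw [← hga x hx, ← hga y hy, h1]
    have h4 : gam (bc (F := Φ.F)) a Z p q (t0, x.2) = gam (bc (F := Φ.F)) a Z p q (t0, y.2) := by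
      rw [← hpsi x hx, ← hpsi y hy, h1]
    have h5 := hM.gam_injOn FF (hRct x.2 hx.2) (hRct y.2 hy.2) h4
    exact Prod.ext h3 (Prod.mk.inj h5).2
  have hDc : IsCompact D := isCompact_Icc.prod isCompact_Icc
  refine ⟨fun z => g (Y z), hWc, hinj, fun z hz => ?_, hDc.image_of_continuousOn hWc,
    trivF_convex hDc ((convex_Icc _ _).prod (convex_Icc _ _)) hWc hinj⟩
  have hlev : ∀ e, Φ.lev e (f (g (Y z))) = uu a Z p q t0 z.2 e := by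
    intro e
    show sc (Pc Φ.F) (bc (F := Φ.F)) (Φ.Psi (f (g (Y z)))) e = _
    rw [hfW z hz, hpsi z hz, hM.sc_gam FF (hRct z.2 hz.2)]
  refine ⟨H.gm (hYL z hz), ?_, ?_, ?_, fun e => ?_, fun l0 mm ra hl0 => ?_⟩
  · show ga Φ c (f (g (Y z))) = z.1
    rw [hfW z hz, hga z hz]
  · show Φ.Psi (f (g (Y z))) = _
    rw [hfW z hz, hpsi z hz]
  · show Φ.lev a (f (g (Y z))) = t0
    rw [hlev a, uu_a]
  · show dv a Z (fun e => Φ.lev e (f (g (Y z)))) e = _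
    rw [show (fun e => Φ.lev e (f (g (Y z)))) = uu a Z p q t0 z.2 from funext hlev]
  · show gmf Φ l0 mm ra a Z (Φ.Psi (f (g (Y z)))) = _
    rw [hfW z hz, hpsi z hz, gmf_gam hLa hM (hRct z.2 hz.2)]
    show max (|z.2| / l0) (|t0 - mm| / ra) = _
    rw [abs_of_nonneg hz.2.1]

variable {ι : Type} {T : Tiling Om ι} {J0 J V : Φ.F → Set ι} {θ : Φ.F → E3 → E3}
variable {Mo' : Type} {co : Mo' → Φ.F} {ρ1 ρ2 ρ3 ρ4 d : Mo' → ℝ} {G : Mo' → E3 → ℝ}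
  {rm h lo hi ω : Mo' → ℝ} {q₀ : Mo' → E3} {g0 : Mo' → ℝ}

/-- **G1 of 778 #12223** : the transversal chart over 4's `BarF` -/
theorem exists_chart (hLa : IsOpen La) (H : Hm f g Om La)
    (hB : BarF Φ T f J0 J V θ co ρ1 ρ2 ρ3 ρ4 d G rm h lo hi ω q₀ g0) (m : Mo')
    {a p q : Φ.F} {Z : Set Φ.F} (hM : Mo (Pc Φ.F) (co m) a Z p q)
    {s0 s1 t0 w1 : ℝ} (hs0 : 0 < s0) (hs1 : s1 ≤ ρ4 m) (ht0 : t0 ∈ Icc (0 : ℝ) 1)
    (hw1 : w1 ≤ 1) :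
    ∃ Wz : ℝ × ℝ → E3, ContinuousOn Wz (Icc s0 s1 ×ˢ Icc 0 w1) ∧
      InjOn Wz (Icc s0 s1 ×ˢ Icc 0 w1) ∧
      (∀ z ∈ Icc s0 s1 ×ˢ Icc 0 w1, Wz z ∈ Om ∧ ga Φ (co m) (f (Wz z)) = z.1 ∧
        Φ.Psi (f (Wz z)) = gam (bc (F := Φ.F)) a Z p q (t0, z.2) ∧ Φ.lev a (f (Wz z)) = t0 ∧
        (∀ e, dv a Z (fun e => Φ.lev e (f (Wz z))) e =
          dv a Z (uu a Z p q t0 z.2) e) ∧
        ∀ l0 mm ra : ℝ, 0 < l0 → gmf Φ l0 mm ra a Z (Φ.Psi (f (Wz z))) =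
          max (z.2 / l0) (|t0 - mm| / ra)) ∧
      IsCompact (Wz '' (Icc s0 s1 ×ˢ Icc 0 w1)) ∧
      TrivF (ZMod 2) (Wz '' (Icc s0 s1 ×ˢ Icc 0 w1)) := by
  have hr := hB.room m
  obtain ⟨pl, hPol⟩ := hB.pol hLa m
  have hcL : (co m).1.set ⊆ La := Φ.bf.sub (co m).1 (co m).2
  have hgc : ∀ y, ga Φ (co m) y ≤ ρ4 m → y ∈ La := by
    intro y hy
    have hb : Bod (Φ.B (co m)).lo (Pc Φ.F (co m)) := Pse_316.bod_brick Φ (co m) (hB.pt m)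
    have hgf : ga Φ (co m) = Ng (Φ.B (co m)).lo (Pc Φ.F (co m)) :=
      funext (Etg_163.gg_eq Φ (co m))
    exact hcL (hb.le_sub hr.r4.le (show y ∈ {y | Ng _ _ y ≤ ρ4 m} by rw [← hgf]; exact hy))
  exact exists_chart_pol hLa H hPol hgc hM hs0 hs1 ht0 hw1

end Crest.Agent.R096.Chz_493
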