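import Crest.Agent.R096.Ebr7_95

/-!
# Row 96, DOORS, barriers (helper95), part 8: connected parts of a barrier sheet

* `preconn_SB1_on`, `preconn_Gdn_on`, `preconn_Gup_on`, `preconn_wall_on` : the part of the sheet,
  of its lower / upper part, of its wall between two radii, over a part `B` of the frontier of the
  brick;
* `moat_le`, `moat_ge` : the parts `{lev a ≤ t0}`, `{t0 ≤ lev a}` of a moat (end wall + strips).
-/

set_option autoImplicit false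
set_option linter.unusedSectionVars false

open Set Topology Filter Metric Module
open scoped Classical

namespace Crest.Agent.R096.Ebr8_95

open Crest.Agent.R096.Msh_715 Crest.Agent.R096.Coh_184 Crest.Agent.R096.Bsp_628
  Crest.Agent.R096.Brk1_582 Crest.Agent.R096.Brk2_582 Crest.Agent.R096.Brk3_582
  Crest.Agent.R096.Brk5_582 Crest.Agent.R096.Init_543 Crest.Agent.R096.Mbf_337
  Crest.Agent.R096.Exa_560 Crest.Agent.R096.Ess5_95 Crest.Agent.R096.Ess6_95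
  Crest.Agent.R096.Ebr1_95 Crest.Agent.R096.Ebr3_95 Crest.Agent.R096.Ebr4_95
  Crest.Agent.R096.Bar_106 Crest.Agent.R096.Bgf_4 Crest.Agent.R096.Dib_438

open Crest.Agent.R096.SkC1_961 (E3 Hom3 IsPush FoamD)

section planar

variable {l0 m ra t t0 : ℝ} (hl : 0 < l0) (hra : 0 < ra)
include hl hra

theorem Nr_le_iff {x : ℝ × ℝ} : Nr l0 m ra x ≤ t ↔ |x.2| ≤ t * l0 ∧ |x.1 - m| ≤ t * ra := by
  show max (|x.2| / l0) (|x.1 - m| / ra) ≤ t ↔ _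
  rw [max_le_iff, div_le_iff₀ hl, div_le_iff₀ hra]

theorem Nr_eq_iff (ht : 0 ≤ t) {x : ℝ × ℝ} : Nr l0 m ra x = t ↔
    (|x.2| ≤ t * l0 ∧ |x.1 - m| ≤ t * ra) ∧ (|x.2| = t * l0 ∨ |x.1 - m| = t * ra) := by
  constructor
  · intro h
    refine ⟨(Nr_le_iff hl hra).1 h.le, ?_⟩
    rcases max_choice (|x.2| / l0) (|x.1 - m| / ra) with h1 | h1
    · left
      have h2 : |x.2| / l0 = t := by rw [← h1]; exact h
      rw [div_eq_iff hl.ne'] at h2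
      exact h2
    · right
      have h2 : |x.1 - m| / ra = t := by rw [← h1]; exact h
      rw [div_eq_iff hra.ne'] at h2
      exact h2
  · rintro ⟨h1, h2⟩
    refine le_antisymm ((Nr_le_iff hl hra).2 h1) ?_
    rcases h2 with h2 | h2
    · refine le_max_of_le_left ?_
      rw [h2, mul_div_cancel_right₀ _ hl.ne']
    · refine le_max_of_le_right ?_
      rw [h2, mul_div_cancel_right₀ _ hra.ne']

/-- end wall + strips -/
theorem preconn_Nr_eq_le (ht : 0 ≤ t) (h : m - t * ra ≤ t0) (h' : t0 < m + t * ra) :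
    IsPreconnected {x : ℝ × ℝ | Nr l0 m ra x = t ∧ x.1 ≤ t0} := by
  have htl : 0 ≤ t * l0 := mul_nonneg ht hl.le
  have htr : 0 ≤ t * ra := mul_nonneg ht hra.le
  have e : {x : ℝ × ℝ | Nr l0 m ra x = t ∧ x.1 ≤ t0} =
      (({m - t * ra} : Set ℝ) ×ˢ Icc (-(t * l0)) (t * l0)) ∪
      ((Icc (m - t * ra) t0 ×ˢ ({t * l0} : Set ℝ)) ∪
        (Icc (m - t * ra) t0 ×ˢ ({-(t * l0)} : Set ℝ))) := by
    ext ⟨x, y⟩
    constructor
    · rintro ⟨h1, h2⟩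
      obtain ⟨⟨h3, h4⟩, h5⟩ := (Nr_eq_iff hl hra ht).1 h1
      have h3' := abs_le.1 h3
      have h4' := abs_le.1 h4
      simp only [] at h2 h3' h4' h5
      rcases h5 with h5 | h5
      · right
        rcases abs_choice y with h6 | h6
        · left
          exact ⟨⟨by linarith [h4'.1], h2⟩, by
            show y = t * l0
            rw [← h5]; exact h6.symm⟩
        · right
          exact ⟨⟨by linarith [h4'.1], h2⟩, by
            show y = -(t * l0)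
            rw [← h5, h6, neg_neg]⟩
      · left
        refine ⟨?_, h3'⟩
        show x = m - t * ra
        rcases abs_choice (x - m) with h6 | h6
        · rw [h6] at h5
          linarith
        · rw [h6] at h5
          linarith
    · intro h1
      have key : ∀ {x y : ℝ}, |y| ≤ t * l0 → |x - m| ≤ t * ra → (|y| = t * l0 ∨ |x - m| = t * ra) →
          x ≤ t0 → (x, y) ∈ {x : ℝ × ℝ | Nr l0 m ra x = t ∧ x.1 ≤ t0} := fun a1 a2 a3 a4 =>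
        ⟨(Nr_eq_iff hl hra ht).2 ⟨⟨a1, a2⟩, a3⟩, a4⟩
      rcases h1 with ⟨h1, h2⟩ | ⟨h1, h2⟩ | ⟨h1, h2⟩
      · have h1' : x = m - t * ra := h1
        have h3 : |x - m| = t * ra := by
          rw [h1', show m - t * ra - m = -(t * ra) by ring, abs_neg, abs_of_nonneg htr]
        exact key (abs_le.2 h2) h3.le (Or.inr h3) (by rw [h1']; exact h)
      · have h2' : y = t * l0 := h2
        have h3 : |y| = t * l0 := by rw [h2', abs_of_nonneg htl]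
        exact key h3.le (abs_le.2 ⟨by linarith [h1.1], by linarith [h1.2]⟩) (Or.inl h3) h1.2
      · have h2' : y = -(t * l0) := h2
        have h3 : |y| = t * l0 := by rw [h2', abs_neg, abs_of_nonneg htl]
        exact key h3.le (abs_le.2 ⟨by linarith [h1.1], by linarith [h1.2]⟩) (Or.inl h3) h1.2
  rw [e]
  have c1 : IsPreconnected ((({m - t * ra} : Set ℝ) ×ˢ Icc (-(t * l0)) (t * l0))) :=
    isPreconnected_singleton.prod isPreconnected_Icc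
  have c2 : IsPreconnected (Icc (m - t * ra) t0 ×ˢ ({t * l0} : Set ℝ)) :=
    isPreconnected_Icc.prod isPreconnected_singleton
  have c3 : IsPreconnected (Icc (m - t * ra) t0 ×ˢ ({-(t * l0)} : Set ℝ)) :=
    isPreconnected_Icc.prod isPreconnected_singleton
  rw [← union_assoc]
  refine IsPreconnected.union (m - t * ra, -(t * l0)) (Or.inl ⟨rfl, ⟨le_rfl, by linarith⟩⟩)
    ⟨⟨le_rfl, h⟩, rfl⟩ ?_ c3
  exact IsPreconnected.union (m - t * ra, t * l0) ⟨rfl, ⟨by linarith, le_rfl⟩⟩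
    ⟨⟨le_rfl, h⟩, rfl⟩ c1 c2

theorem preconn_Nr_le_le : IsPreconnected {x : ℝ × ℝ | Nr l0 m ra x ≤ t ∧ x.1 ≤ t0} := by
  have h1 : Convex ℝ ({x : ℝ × ℝ | Nr l0 m ra x ≤ t} ∩ {x : ℝ × ℝ | x.1 ∈ Iic t0}) :=
    (convex_Nr hl hra t).inter
      ((convex_Iic t0).is_linear_preimage (LinearMap.fst ℝ ℝ ℝ).isLinear)
  exact h1.isPreconnected

omit hl hra in
theorem Nr_refl (x : ℝ × ℝ) : Nr l0 m ra (2 * m - x.1, x.2) = Nr l0 m ra x := by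
  unfold Nr
  simp only []
  rw [show 2 * m - x.1 - m = -(x.1 - m) by ring, abs_neg]

theorem preconn_Nr_eq_ge (ht : 0 ≤ t) (h : m - t * ra < t0) (h' : t0 ≤ m + t * ra) :
    IsPreconnected {x : ℝ × ℝ | Nr l0 m ra x = t ∧ t0 ≤ x.1} := by
  have h1 := (preconn_Nr_eq_le (m := m) (t0 := 2 * m - t0) hl hra ht (by linarith)
    (by linarith)).image (fun x : ℝ × ℝ => (2 * m - x.1, x.2)) (by fun_prop)
  have e : (fun x : ℝ × ℝ => (2 * m - x.1, x.2)) ''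
      {x : ℝ × ℝ | Nr l0 m ra x = t ∧ x.1 ≤ 2 * m - t0} =
      {x : ℝ × ℝ | Nr l0 m ra x = t ∧ t0 ≤ x.1} := by
    ext x
    constructor
    · rintro ⟨y, ⟨h2, h3⟩, rfl⟩
      exact ⟨by rw [Nr_refl]; exact h2, by show t0 ≤ 2 * m - y.1; linarith⟩
    · rintro ⟨h2, h3⟩
      refine ⟨(2 * m - x.1, x.2), ⟨by rw [Nr_refl]; exact h2, ?_⟩, ?_⟩
      · show 2 * m - x.1 ≤ 2 * m - t0
        linarith
      · ext
        · show 2 * m - (2 * m - x.1) = x.1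
          ring
        · rfl
  rwa [e] at h1

theorem preconn_Nr_le_ge : IsPreconnected {x : ℝ × ℝ | Nr l0 m ra x ≤ t ∧ t0 ≤ x.1} := by
  have h1 : Convex ℝ ({x : ℝ × ℝ | Nr l0 m ra x ≤ t} ∩ {x : ℝ × ℝ | x.1 ∈ Ici t0}) :=
    (convex_Nr hl hra t).inter
      ((convex_Ici t0).is_linear_preimage (LinearMap.fst ℝ ℝ ℝ).isLinear)
  exact h1.isPreconnected

end planar

variable {δ κ0 R c0 : ℝ} {La : Set E3} {Φ : FoamD δ κ0 R c0 La} {c : Φ.F} {ρ : ℝ}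
  {G : E3 → ℝ} {a0 a1 τ : ℝ} {B : Set E3}

section on

variable (hG : GA Φ c ρ) (hE : IsPreconnected {q | q ∈ frontier c.1.set ∧ G q = τ ∧ q ∈ B})
  (hL : IsPreconnected {q | q ∈ frontier c.1.set ∧ G q ≤ τ ∧ q ∈ B})
  (hn : {q | q ∈ frontier c.1.set ∧ G q = τ ∧ q ∈ B}.Nonempty)
include hG hE

/-- the wall over `B` between two radii -/
theorem preconn_wall_on {r r' : ℝ} (h0 : 0 < r) (h : r ≤ r') (h1 : r' ≤ ρ) :
    IsPreconnected {y | y ∈ c.1.set ∧ r ≤ ga Φ c y ∧ ga Φ c y ≤ r' ∧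
      Φ.Psi y ∈ {q | q ∈ frontier c.1.set ∧ G q = τ ∧ q ∈ B}} :=
  hG.shell _ (fun _ hq => hq.1) hE r r' h0 h h1

include hL hn

theorem preconn_Gdn_on (hLa : IsOpen La) (hpt : (Φ.B c).lo = (Φ.B c).hi) {r : ℝ} (h0 : 0 < a0)
    (h : a0 ≤ r) (h1 : r ≤ ρ) :
    IsPreconnected (Gdn Φ c G a0 r τ ∩ {y | Φ.Psi y ∈ B}) := by
  obtain ⟨q, hq, hqτ, hqB⟩ := hn
  obtain ⟨y, hy, hy1, hy2⟩ := hG.ex q hq a0 h0 (h.trans h1)
  have e : Gdn Φ c G a0 r τ ∩ {y | Φ.Psi y ∈ B} =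
      {y | y ∈ c.1.set ∧ a0 ≤ ga Φ c y ∧ ga Φ c y ≤ r ∧
        Φ.Psi y ∈ {q | q ∈ frontier c.1.set ∧ G q = τ ∧ q ∈ B}} ∪
      {y | y ∈ c.1.set ∧ a0 ≤ ga Φ c y ∧ ga Φ c y ≤ a0 ∧
        Φ.Psi y ∈ {q | q ∈ frontier c.1.set ∧ G q ≤ τ ∧ q ∈ B}} := by
    ext z
    constructor
    · rintro ⟨⟨g1, g2, g3, g4, g5⟩, g6⟩
      have g7 := Psi_frontier hLa hG hpt g1 (by linarith)
      rcases g5 with g5 | g5
      · exact Or.inr ⟨g1, g2, g5.le, g7, g4, g6⟩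
      · exact Or.inl ⟨g1, g2, g3, g7, g5, g6⟩
    · rintro (⟨g1, g2, g3, g4, g5, g6⟩ | ⟨g1, g2, g3, g4, g5, g6⟩)
      · exact ⟨⟨g1, g2, g3, g5.le, Or.inr g5⟩, g6⟩
      · exact ⟨⟨g1, g2, g3.trans h, g5, Or.inl (le_antisymm g3 g2)⟩, g6⟩
  rw [e]
  exact IsPreconnected.union y ⟨hy, hy1.ge, hy1.le.trans h, by rw [hy2]; exact ⟨hq, hqτ, hqB⟩⟩
    ⟨hy, hy1.ge, hy1.le, by rw [hy2]; exact ⟨hq, hqτ.le, hqB⟩⟩
    (hG.shell _ (fun _ hq => hq.1) hE a0 r h0 h h1)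
    (hG.shell _ (fun _ hq => hq.1) hL a0 a0 h0 le_rfl (h.trans h1))

theorem preconn_Gup_on (hLa : IsOpen La) (hpt : (Φ.B c).lo = (Φ.B c).hi) {r : ℝ} (h0 : 0 < r)
    (h : r ≤ a1) (h1 : a1 ≤ ρ) :
    IsPreconnected (Gup Φ c G r a1 τ ∩ {y | Φ.Psi y ∈ B}) := by
  obtain ⟨q, hq, hqτ, hqB⟩ := hn
  obtain ⟨y, hy, hy1, hy2⟩ := hG.ex q hq a1 (h0.trans_le h) h1
  have e : Gup Φ c G r a1 τ ∩ {y | Φ.Psi y ∈ B} =
      {y | y ∈ c.1.set ∧ r ≤ ga Φ c y ∧ ga Φ c y ≤ a1 ∧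
        Φ.Psi y ∈ {q | q ∈ frontier c.1.set ∧ G q = τ ∧ q ∈ B}} ∪
      {y | y ∈ c.1.set ∧ a1 ≤ ga Φ c y ∧ ga Φ c y ≤ a1 ∧
        Φ.Psi y ∈ {q | q ∈ frontier c.1.set ∧ G q ≤ τ ∧ q ∈ B}} := by
    ext z
    constructor
    · rintro ⟨⟨g1, g2, g3, g4, g5⟩, g6⟩
      have g7 := Psi_frontier hLa hG hpt g1 (by linarith)
      rcases g5 with g5 | g5
      · exact Or.inr ⟨g1, g5.ge, g3, g7, g4, g6⟩
      · exact Or.inl ⟨g1, g2, g3, g7, g5, g6⟩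
    · rintro (⟨g1, g2, g3, g4, g5, g6⟩ | ⟨g1, g2, g3, g4, g5, g6⟩)
      · exact ⟨⟨g1, g2, g3, g5.le, Or.inr g5⟩, g6⟩
      · exact ⟨⟨g1, h.trans g2, g3, g5, Or.inl (le_antisymm g3 g2)⟩, g6⟩
  rw [e]
  exact IsPreconnected.union y ⟨hy, h.trans hy1.ge, hy1.le, by rw [hy2]; exact ⟨hq, hqτ, hqB⟩⟩
    ⟨hy, hy1.ge, hy1.le, by rw [hy2]; exact ⟨hq, hqτ.le, hqB⟩⟩
    (hG.shell _ (fun _ hq => hq.1) hE r a1 h0 h h1)
    (hG.shell _ (fun _ hq => hq.1) hL a1 a1 (h0.trans_le h) le_rfl h1)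

/-- the part of the sheet over `B` is connected -/
theorem preconn_SB1_on (hLa : IsOpen La) (hpt : (Φ.B c).lo = (Φ.B c).hi) (h0 : 0 < a0)
    (h : a0 ≤ a1) (h1 : a1 ≤ ρ) :
    IsPreconnected (SB1 Φ c G a0 a1 τ ∩ {y | Φ.Psi y ∈ B}) := by
  have hdn := preconn_Gdn_on hG hE hL hn hLa hpt h0 h h1
  have hup := preconn_Gup_on hG hE hL hn hLa hpt h0 h h1
  obtain ⟨q, hq, hqτ, hqB⟩ := hn
  obtain ⟨y, hy, hy1, hy2⟩ := hG.ex q hq a0 h0 (h.trans h1)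
  have e : SB1 Φ c G a0 a1 τ ∩ {y | Φ.Psi y ∈ B} =
      (Gdn Φ c G a0 a1 τ ∩ {y | Φ.Psi y ∈ B}) ∪ (Gup Φ c G a0 a1 τ ∩ {y | Φ.Psi y ∈ B}) := by
    ext z
    constructor
    · rintro ⟨⟨g1, g2, g3, g4, g5⟩, g6⟩
      rcases g5 with g5 | g5 | g5
      · exact Or.inl ⟨⟨g1, g2, g3, g4, Or.inl g5⟩, g6⟩
      · exact Or.inr ⟨⟨g1, g2, g3, g4, Or.inl g5⟩, g6⟩
      · exact Or.inl ⟨⟨g1, g2, g3, g4, Or.inr g5⟩, g6⟩
    · rintro (⟨⟨g1, g2, g3, g4, g5⟩, g6⟩ | ⟨⟨g1, g2, g3, g4, g5⟩, g6⟩)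
      · exact ⟨⟨g1, g2, g3, g4, g5.elim Or.inl fun h => Or.inr (Or.inr h)⟩, g6⟩
      · exact ⟨⟨g1, g2, g3, g4, Or.inr g5⟩, g6⟩
  rw [e]
  refine IsPreconnected.union y ⟨⟨hy, hy1.ge, hy1.le.trans h, by rw [hy2]; exact hqτ.le,
      Or.inl hy1⟩, by show Φ.Psi y ∈ B; rw [hy2]; exact hqB⟩
    ⟨⟨hy, hy1.ge, hy1.le.trans h, by rw [hy2]; exact hqτ.le, Or.inr (by rw [hy2]; exact hqτ)⟩,
      by show Φ.Psi y ∈ B; rw [hy2]; exact hqB⟩ hdn hup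

end on

section moat

variable {a p m : Φ.F} {Z : Set Φ.F} {l0 mm ra hi t0 : ℝ}

/-- the parts of the sublevels and levels of a moat over a part of the chart -/
theorem moat_img (hLa : IsOpen La) (M : Mo (Pc Φ.F) c a Z p m) (h : Nm l0 mm ra hi)
    (D : ℝ → Prop) (Q : ℝ → Prop) (hQ : ∀ s, Q s → s ≤ hi) :
    {q | q ∈ frontier c.1.set ∧ Q (gmf Φ l0 mm ra a Z q) ∧ q ∈ {q | D (sb Φ q a)}} =
      gam (bc (F := Φ.F)) a Z p m '' {x | Q (Nr l0 mm ra x) ∧ D x.1} := by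
  have hco : ∀ x ∈ Rct, sb Φ (gam (bc (F := Φ.F)) a Z p m x) a = x.1 := by
    intro x hx
    have h1 := congrFun (M.sc_gam (foam Φ.bf hLa) hx) a
    rw [uu_a] at h1
    exact h1
  ext q
  constructor
  · rintro ⟨h1, h2, h3⟩
    obtain ⟨x, hx, rfl⟩ := gmf_sur hLa M h h1 (hQ _ h2)
    have hr := h.rct hx
    have h3' : D (sb Φ (gam (bc (F := Φ.F)) a Z p m x) a) := h3
    rw [gmf_gam hLa M hr] at h2
    rw [hco x hr] at h3'
    exact ⟨x, ⟨h2, h3'⟩, rfl⟩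
  · rintro ⟨x, ⟨h1, h2⟩, rfl⟩
    have hr := h.rct (hQ _ h1)
    refine ⟨gam_fr hLa M hr, by rw [gmf_gam hLa M hr]; exact h1, ?_⟩
    show D (sb Φ (gam (bc (F := Φ.F)) a Z p m x) a)
    rw [hco x hr]
    exact h2

theorem moat_img_pre (hLa : IsOpen La) (M : Mo (Pc Φ.F) c a Z p m) (h : Nm l0 mm ra hi)
    (D : ℝ → Prop) (Q : ℝ → Prop) (hQ : ∀ s, Q s → s ≤ hi)
    (hc : IsPreconnected {x | Q (Nr l0 mm ra x) ∧ D x.1}) :
    IsPreconnected {q | q ∈ frontier c.1.set ∧ Q (gmf Φ l0 mm ra a Z q) ∧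
      q ∈ {q | D (sb Φ q a)}} := by
  rw [moat_img hLa M h D Q hQ]
  exact hc.image _ ((M.continuousOn_gam (foam Φ.bf hLa)).mono fun x hx => h.rct (hQ _ hx.1))

/-- **the end wall `lev a ≤ t0` of a moat**: level, sublevel, point -/
theorem moat_le (hLa : IsOpen La) (M : Mo (Pc Φ.F) c a Z p m) (h : Nm l0 mm ra hi) (h0 : 0 ≤ τ)
    (hτ : τ ≤ hi) (h1 : mm - τ * ra ≤ t0) (h2 : t0 < mm + τ * ra) :
    IsPreconnected {q | q ∈ frontier c.1.set ∧ gmf Φ l0 mm ra a Z q = τ ∧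
      q ∈ {q | sb Φ q a ≤ t0}} ∧
    IsPreconnected {q | q ∈ frontier c.1.set ∧ gmf Φ l0 mm ra a Z q ≤ τ ∧
      q ∈ {q | sb Φ q a ≤ t0}} ∧
    {q | q ∈ frontier c.1.set ∧ gmf Φ l0 mm ra a Z q = τ ∧ q ∈ {q | sb Φ q a ≤ t0}}.Nonempty := by
  refine ⟨moat_img_pre hLa M h (fun s => s ≤ t0) (fun s => s = τ) (fun s hs => hs.le.trans hτ)
    (preconn_Nr_eq_le h.hl h.hra h0 h1 h2), moat_img_pre hLa M h (fun s => s ≤ t0)
    (fun s => s ≤ τ) (fun s hs => hs.trans hτ) (preconn_Nr_le_le h.hl h.hra), ?_⟩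
  have e := moat_img hLa M h (fun s => s ≤ t0) (fun s => s = τ) (fun s hs => hs.le.trans hτ)
  rw [e]
  refine Set.Nonempty.image _ ⟨(mm - τ * ra, 0), ?_, h1⟩
  refine (Nr_eq_iff h.hl h.hra h0).2 ⟨⟨?_, ?_⟩, Or.inr ?_⟩
  · show |(0 : ℝ)| ≤ τ * l0
    rw [abs_zero]; exact mul_nonneg h0 h.hl.le
  · show |mm - τ * ra - mm| ≤ τ * ra
    rw [show mm - τ * ra - mm = -(τ * ra) by ring, abs_neg, abs_of_nonneg (mul_nonneg h0 h.hra.le)]
  · show |mm - τ * ra - mm| = τ * ra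
    rw [show mm - τ * ra - mm = -(τ * ra) by ring, abs_neg, abs_of_nonneg (mul_nonneg h0 h.hra.le)]

/-- **the end wall `t0 ≤ lev a` of a moat** -/
theorem moat_ge (hLa : IsOpen La) (M : Mo (Pc Φ.F) c a Z p m) (h : Nm l0 mm ra hi) (h0 : 0 ≤ τ)
    (hτ : τ ≤ hi) (h1 : mm - τ * ra < t0) (h2 : t0 ≤ mm + τ * ra) :
    IsPreconnected {q | q ∈ frontier c.1.set ∧ gmf Φ l0 mm ra a Z q = τ ∧
      q ∈ {q | t0 ≤ sb Φ q a}} ∧
    IsPreconnected {q | q ∈ frontier c.1.set ∧ gmf Φ l0 mm ra a Z q ≤ τ ∧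
      q ∈ {q | t0 ≤ sb Φ q a}} ∧
    {q | q ∈ frontier c.1.set ∧ gmf Φ l0 mm ra a Z q = τ ∧ q ∈ {q | t0 ≤ sb Φ q a}}.Nonempty := by
  refine ⟨moat_img_pre hLa M h (fun s => t0 ≤ s) (fun s => s = τ) (fun s hs => hs.le.trans hτ)
    (preconn_Nr_eq_ge h.hl h.hra h0 h1 h2), moat_img_pre hLa M h (fun s => t0 ≤ s)
    (fun s => s ≤ τ) (fun s hs => hs.trans hτ) (preconn_Nr_le_ge h.hl h.hra), ?_⟩
  have e := moat_img hLa M h (fun s => t0 ≤ s) (fun s => s = τ) (fun s hs => hs.le.trans hτ)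
  rw [e]
  refine Set.Nonempty.image _ ⟨(mm + τ * ra, 0), ?_, h2⟩
  refine (Nr_eq_iff h.hl h.hra h0).2 ⟨⟨?_, ?_⟩, Or.inr ?_⟩
  · show |(0 : ℝ)| ≤ τ * l0
    rw [abs_zero]; exact mul_nonneg h0 h.hl.le
  · show |mm + τ * ra - mm| ≤ τ * ra
    rw [show mm + τ * ra - mm = τ * ra by ring, abs_of_nonneg (mul_nonneg h0 h.hra.le)]
  · show |mm + τ * ra - mm| = τ * ra
    rw [show mm + τ * ra - mm = τ * ra by ring, abs_of_nonneg (mul_nonneg h0 h.hra.le)]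

end moat

end Crest.Agent.R096.Ebr8_95
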