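import Crest.Agent.R096.Cns4_778
import Crest.Agent.R096.Ebr8_95

/-!
# Row 96, DOORS, NE1 (helper664): the top part of the end wall of a barrier (leaf G4 of 778)

* `gma_conn_on` : the part of the sheet of a barrier above the gauge `rr m`, with level `≤ t0` of the
  moat, is connected;
* `exists_Gn`   : the parts `Gn m` for all moats, with the literal of 778 (NE1).
-/

set_option autoImplicit false
set_option linter.unusedSectionVars false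
set_option linter.unusedVariables false
set_option linter.style.longLine false

open Set Filter Topology Metric MeasureTheory Module
open scoped Classical

namespace Crest.Agent.R096.Gt_664

open Crest.Agent.R096.Msh_715 Crest.Agent.R096.Coh_184 Crest.Agent.R096.Bsp_628
  Crest.Agent.R096.Brk1_582 Crest.Agent.R096.Brk2_582 Crest.Agent.R096.Brk3_582
  Crest.Agent.R096.Brk5_582 Crest.Agent.R096.Init_543 Crest.Agent.R096.Mbf_337
  Crest.Agent.R096.Main_4 Crest.Agent.R096.Lab_184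
  Crest.Agent.R096.Seq_213 Crest.Agent.R096.Seq_213.GSt Crest.Agent.R096.Ginv_543
  Crest.Agent.R096.Agl5_543
  Crest.Agent.R96.Push_899 Crest.Agent.R096.Ess5_95 Crest.Agent.R096.Ess8_95
  Crest.Agent.R096.Ebr1_95 Crest.Agent.R096.Ebr3_95 Crest.Agent.R096.Ebr4_95
  Crest.Agent.R096.Ebr8_95 Crest.Agent.R096.Bar_106
  Crest.Agent.R096.Exa_560 Crest.Agent.R096.Sphg_316 Crest.Agent.R096.Dib_438
  Crest.Agent.R096.Bgf_4 Crest.Agent.R096.Ess3_95 Crest.Agent.R096.Cns_778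
open Crest.Agent.R096.Frn_337 (Ti)
open Crest.Agent.R096.Ess7_95 (KT)

open Crest.Agent.R096.SkC1_961 (E3 Hom3 IsPush FoamD)

section gen

variable {δ κ0 R c0 : ℝ} {La Om : Set E3} {ι : Type} {Φ : FoamD δ κ0 R c0 La}
  {T : Tiling Om ι} {f g : E3 → E3}
  {J0 J V : Φ.F → Set ι} {θ : Φ.F → E3 → E3} {Mo' : Type} {co : Mo' → Φ.F}
  {ρ1 ρ2 ρ3 ρ4 d : Mo' → ℝ} {G : Mo' → E3 → ℝ} {rm h lo hi ω : Mo' → ℝ} {q₀ : Mo' → E3}
  {g0 ε rr : Mo' → ℝ}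

/-- **the part of the sheet of the barrier `m` above the gauge `rr m`, over the part `D` of the
frontier of the brick**, is connected -/
theorem gma_conn_on (hB : BarF Φ T f J0 J V θ co ρ1 ρ2 ρ3 ρ4 d G rm h lo hi ω q₀ g0)
    (hLa : IsOpen La) (H : Hm f g Om La) (hε : ∀ m, ε m ∈ Ioo (lo m) (hi m)) {m : Mo'}
    (h0 : 0 < rr m) (h1 : rm m - h m * ε m < rr m) (h2 : rr m ≤ rm m + h m * ε m)
    {D : Set E3}
    (hE : IsPreconnected {q | q ∈ frontier (co m).1.set ∧ G m q = ε m ∧ q ∈ D})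
    (hL : IsPreconnected {q | q ∈ frontier (co m).1.set ∧ G m q ≤ ε m ∧ q ∈ D})
    (hne : {q | q ∈ frontier (co m).1.set ∧ G m q = ε m ∧ q ∈ D}.Nonempty) :
    IsPreconnected {x | x ∈ Gma Om Φ f co (lM Φ co rm h hi G) ε rr m ∧ Φ.Psi (f x) ∈ D} := by
  obtain ⟨p, hP⟩ := hB.pol hLa m
  have hr := hB.room m
  have hG := hB.gm m
  have hh := hB.h0 m
  have hεm := hε m
  have hεhi : h m * ε m < h m * hi m := mul_lt_mul_of_pos_left hεm.2 hh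
  have hd := hr.d0
  have ha1 : rm m + h m * ε m ≤ ρ4 m := by linarith [hB.a1' m]
  have hε0 : 0 < ε m := lt_of_le_of_lt hG.lo0 hεm.1
  have hhε : 0 < h m * ε m := mul_pos hh hε0
  set a1 : ℝ := rm m + h m * ε m with ha1d
  set A : Set E3 := {q | q ∈ frontier (co m).1.set ∧ G m q = ε m ∧ q ∈ D} with hA
  set B : Set E3 := {q | q ∈ frontier (co m).1.set ∧ G m q ≤ ε m ∧ q ∈ D} with hBd
  have c1 := hP.prod_conn (A := A) (fun q hq => hq.1) hE h0 ha1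
  have c2 := hP.prod_conn (A := B) (fun q hq => hq.1) hL (h0.trans_le h2) ha1
  obtain ⟨q, hq, hqe, hqD⟩ := hne
  have hmem : a1 ∈ Ioc 0 (ρ4 m) := ⟨h0.trans_le h2, ha1⟩
  have e1 := hP.gau a1 hmem q hq
  have e2 := hP.psi a1 hmem q hq
  have m1 : p (a1, q) ∈ {y | (rr m ≤ ga Φ (co m) y ∧ ga Φ (co m) y ≤ a1) ∧ Φ.Psi y ∈ A} :=
    ⟨⟨by rw [e1]; exact h2, e1.le⟩, by rw [e2]; exact ⟨hq, hqe, hqD⟩⟩
  have m2 : p (a1, q) ∈ {y | (a1 ≤ ga Φ (co m) y ∧ ga Φ (co m) y ≤ a1) ∧ Φ.Psi y ∈ B} :=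
    ⟨⟨e1.ge, e1.le⟩, by rw [e2]; exact ⟨hq, hqe.le, hqD⟩⟩
  have c3 := c1.union (p (a1, q)) m1 m2 c2
  have hb : Bod (Φ.B (co m)).lo (Pc Φ.F (co m)) := Pse_316.bod_brick Φ (co m) (hB.pt m)
  have hgf : ga Φ (co m) = Ng (Φ.B (co m)).lo (Pc Φ.F (co m)) :=
    funext (Etg_163.gg_eq Φ (co m))
  have hDL : {y | ga Φ (co m) y ≤ ρ4 m} ⊆ La := by
    rw [hgf]
    exact (hb.le_sub hr.r4.le).trans (Φ.bf.sub (co m).1 (co m).2)
  have c4 := H.preconn_pre (D := _) (fun y hy => hDL (show ga Φ (co m) y ≤ ρ4 m by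
    rcases hy with hy | hy
    · exact hy.1.2.trans ha1
    · exact hy.1.2.trans ha1)) c3
  have e : {x | x ∈ Gma Om Φ f co (lM Φ co rm h hi G) ε rr m ∧ Φ.Psi (f x) ∈ D} = Om ∩ f ⁻¹'
      ({y | (rr m ≤ ga Φ (co m) y ∧ ga Φ (co m) y ≤ a1) ∧ Φ.Psi y ∈ A} ∪
        {y | (a1 ≤ ga Φ (co m) y ∧ ga Φ (co m) y ≤ a1) ∧ Φ.Psi y ∈ B}) := by
    ext x
    constructor
    · rintro ⟨⟨k1, k2, k3⟩, kD⟩
      obtain ⟨n1, n2, n3, n4⟩ := hB.pos hεm.2 k2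
      have hfr := (hP.inv (f x) (h0.trans_le k3) (n2.trans ha1)).1
      refine ⟨k1, ?_⟩
      rcases n4 with n | n | n
      · linarith
      · exact Or.inr ⟨⟨n.ge, n.le⟩, hfr, n3, kD⟩
      · exact Or.inl ⟨⟨k3, n2⟩, hfr, n, kD⟩
    · rintro ⟨k1, k2⟩
      have key : rr m ≤ ga Φ (co m) (f x) ∧ ga Φ (co m) (f x) ≤ a1 ∧ G m (Φ.Psi (f x)) ≤ ε m ∧
          (ga Φ (co m) (f x) = a1 ∨ G m (Φ.Psi (f x)) = ε m) ∧ Φ.Psi (f x) ∈ D := by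
        rcases k2 with ⟨⟨n1, n2⟩, n3⟩ | ⟨⟨n1, n2⟩, n3⟩
        · exact ⟨n1, n2, n3.2.1.le, Or.inr n3.2.1, n3.2.2⟩
        · exact ⟨h2.trans n1, n2, n3.2.1, Or.inl (le_antisymm n2 n1), n3.2.2⟩
      obtain ⟨n1, n2, n3, n4, n5⟩ := key
      refine ⟨⟨k1, (bl_eq_iff hεm.2).2 ?_, n1⟩, n5⟩
      have u1 : |ga Φ (co m) (f x) - rm m| / h m ≤ ε m := by
        rw [div_le_iff₀ hh, abs_le]
        constructor <;> linarith
      rcases n4 with n | n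
      · rw [n]
        have u2 : |a1 - rm m| / h m = ε m := by
          rw [ha1d, add_sub_cancel_left, abs_of_pos hhε, mul_div_cancel_left₀ _ hh.ne']
        rw [u2]
        exact max_eq_left n3
      · rw [n]
        exact max_eq_right u1
  rw [e]
  exact c4

end gen

section mach

variable {δ κ0 R c0 : ℝ} {La Om : Set E3} {ι : Type} {Φ : FoamD δ κ0 R c0 La} {T : Tiling Om ι}
  {f g : E3 → E3} {κ1 κ2 μ : ℝ} {X : Set Φ.F} {J0 J V : Φ.F → Set ι}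
  {θ : Φ.F → E3 → E3} {r₀ : Φ.F → ℝ} {ρ1 ρ2 ρ3 ρ4 d : Φ.F → ℝ}
  {L : Φ.F → Finset ℝ} [Nonempty (JJ Φ L)] {hG : GF Φ r₀ T f L} {bp : JJ Φ L → E3}
  {Nn : BM Φ X → Set ℝ} {q₀ : BM Φ X → E3} {ε : BM Φ X → ℝ} {bm : BM Φ X → E3}
  {hGB : GFB Φ r₀ T f L (lRc Φ X μ ρ1 ρ3 d) ε}
  {v0B v1B : ∀ c, BM Φ X → VxK T (KT T J X) c}

/-- **the parts `lev am ≤ 3 μ / 8 + 2 d` of the sheets above `ρ3 + 7 d`** -/
theorem exists_Gn (hμ : 0 < μ) (hμ1 : μ ≤ 1 / 64) (hκ1 : κ1 ≤ 1 / 16) (hLa : IsOpen La)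
    (H : Hm f g Om La)
    (B : BarOut Φ T f κ1 μ X J0 J V θ hG bp Nn ρ1 ρ2 ρ3 ρ4 d q₀ ε bm hGB v0B v1B) :
    ∃ Gn : BM Φ X → Set E3, (∀ m, IsPreconnected (Gn m)) ∧
      (∀ m, Gn m ⊆ GmT Om Φ f X μ ρ1 ρ3 d ε m) ∧
      (∀ m, ∀ x ∈ Gn m, Φ.lev m.am (f x) ≤ 3 * μ / 8 + 2 * d m.co) ∧
      ∀ m, ∀ w ∈ (stB hGB bp bm).P, (stB hGB bp bm).lab w = Sum.inr m →
        (∃ q, w ∈ P (T.H q) ∧ ∃ x ∈ P (T.H q), ga Φ m.co (f x) = ρ3 m.co + 9 * d m.co ∧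
          Φ.lev m.am (f x) ≤ 3 * μ / 8) → w ∈ Gn m := by
  refine ⟨fun m => {x | x ∈ GmT Om Φ f X μ ρ1 ρ3 d ε m ∧
    Φ.Psi (f x) ∈ {q | sb Φ q m.am ≤ 3 * μ / 8 + 2 * d m.co}}, fun m => ?_, fun m x hx => hx.1,
    fun m x hx => hx.2, ?_⟩
  · obtain ⟨c1, c2, c3, c4, c5, c6, c7⟩ := caps B.barF B.lv m
    obtain ⟨p, q, hM⟩ := m.mo
    have hd := (B.rm m.co m.co_notMem).1
    have hhi := hiB_le (ρ1 := ρ1) (ρ3 := ρ3) (d := d) (c := m.co) (μ / 16)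
    have hεm := B.lv m
    have hε1 : 1 < ε m := hεm.1
    have hε2 : ε m ≤ 1 + μ / 16 := hεm.2.le.trans hhi
    have hra : 0 < 1 / 2 - 5 * μ / 16 := by linarith
    have hra1 : (1 / 2 - 5 * μ / 16) * 1 ≤ (1 / 2 - 5 * μ / 16) * ε m :=
      mul_le_mul_of_nonneg_left hε1.le hra.le
    have hw := moat_le (τ := ε m) (t0 := 3 * μ / 8 + 2 * d m.co) hLa hM
      (Ebr6_95.nm_rec hμ (by linarith)) (by linarith) (by linarith)
      (by nlinarith) (by nlinarith)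
    exact gma_conn_on (m := m) B.barF hLa H B.lv (rr := fun m => ρ3 m.co + 7 * d m.co)
      (by show 0 < ρ3 m.co + 7 * d m.co; linarith)
      (by show _ < ρ3 m.co + 7 * d m.co; linarith)
      (by show ρ3 m.co + 7 * d m.co ≤ _; linarith) hw.1 hw.2.1 hw.2.2
  · rintro m w hw hl ⟨q, hwq, x, hxq, hxg, hxl⟩
    obtain ⟨c1, c2, c3, c4, c5, c6, c7⟩ := caps B.barF B.lv m
    obtain ⟨h1, h2, h3, -⟩ := B.pos m w hw hl
    have hr := (B.rm m.co m.co_notMem).2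
    have hosc := (B.barF.room m).tile_osc hxq (by
      show ρ1 m.co ≤ ga Φ m.co (f x)
      rw [hxg]; linarith) (by
      show ga Φ m.co (f x) ≤ ρ4 m.co
      rw [hxg]; linarith) hwq
    have o1 : |ga Φ m.co (f x) - ga Φ m.co (f w)| ≤ d m.co := hosc.1
    have o3 : |Φ.lev m.am (f x) - Φ.lev m.am (f w)| ≤ d m.co := hosc.2.2 m.am
    have o1' := abs_le.1 o1
    have o3' := abs_le.1 o3
    rw [hxg] at o1'
    refine ⟨⟨h1, h3, ?_⟩, ?_⟩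
    · show ρ3 m.co + 7 * d m.co ≤ ga Φ m.co (f w)
      linarith [o1'.2]
    · show Φ.lev m.am (f w) ≤ 3 * μ / 8 + 2 * d m.co
      linarith [o3'.1]

end mach

end Crest.Agent.R096.Gt_664
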