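import Crest.Agent.R096.Cns1_778
import Crest.Agent.R096.Pbn2_147
import Crest.Agent.R096.Sec13_892
import Crest.Agent.R096.Dfo1_539

/-!
# R096 (row 96), DOORS, CONN-T (helper778), part 2: `ConnT` for the state with layers

* `RB a` : faces with a side that meets the connected part `Gm m` of the sheet of a barrier `m` of `a`;
* `SB a` : points of a barrier `m` of `a` in `Gm m`;
* `conn_s2` : over the global state; `connT_pr` : 147's `ConnT` for the pair states.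
-/

set_option autoImplicit false
set_option linter.unusedSectionVars false
set_option linter.style.longLine false

open Set Module
open scoped Classical

namespace Crest.Agent.R096.Cns_778

open Crest.Agent.R096.Msh_715 Crest.Agent.R096.Agl5_543 Crest.Agent.R096.St_147
  Crest.Agent.R096.Seq_213 Crest.Agent.R096.Door_501 Crest.Agent.R096.Sla_184
  Crest.Agent.R096.Twr_438 Crest.Agent.R096.Ess3_95 Crest.Agent.R096.Dfi_471
  Crest.Agent.R096.Sec_892 Crest.Agent.R096.Cg_501 Crest.Agent.R096.Pbn_147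
open Crest.Agent.R096.Sla_184.Sla (hf vf old tg F0 Fn Out OnS InL In)

variable {E : Type} [NormedAddCommGroup E] [NormedSpace ℝ E] [FiniteDimensional ℝ E]
variable {Om : Set E} {ι : Type} {T : Tiling Om ι} {κ : Type} {S : Sla T κ}
  {h3 : finrank ℝ E = 3} {J C Mo : Type} {fam : J → C} {am : Mo → C}
  {s : GSt (meshC T h3) (Sum.map fam (id : Mo → Mo))} {r : J ⊕ Mo → E}
  {Tw : Twrs (S.sh h3) S.n (outK S.hH S.dis s r)} {l0 : E → J ⊕ Mo}
  {Sj Gm : Mo → Set E} {a : C} {h w u x y : E}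

/-- the faces -/
def RB (S : Sla T κ) (h3 : finrank ℝ E = 3) (am : Mo → C) (Gm : Mo → Set E) (a : C) :
    Set (S.Fn h3) :=
  {F | ∃ m, am m = a ∧ ∃ F0 : S.F0 h3, F = old F0 ∧
    ∃ q ∈ F0.1.side h3, (P (T.H q) ∩ Gm m).Nonempty}

/-- the barrier points -/
def SB (am : Mo → C) (Gm : Mo → Set E) (lab : E → J ⊕ Mo) (a : C) : Set E :=
  {h | ∃ m, am m = a ∧ lab h = Sum.inr m ∧ h ∈ Gm m}

/-- geometric input for the outer parts of the barriers -/
structure Upp (S : Sla T κ) (s : GSt (meshC T h3) (Sum.map fam (id : Mo → Mo)))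
    (r : J ⊕ Mo → E) (Sj Gm : Mo → Set E) : Prop where
  car : ∀ m, Car s (Sum.inr m) (Sj m)
  sub : ∀ m, Sj m ⊆ Om
  conn : ∀ m, IsPreconnected (Gm m)
  gs : ∀ m, Gm m ⊆ Sj m
  /-- tiles which meet `Gm m` are outside the cores -/
  out : ∀ m q, (P (T.H q) ∩ Gm m).Nonempty → ∀ c, ¬ P (T.H q) ⊆ S.K c
  root : ∀ m, r (Sum.inr m) ∈ s.P ∧ s.lab (r (Sum.inr m)) = Sum.inr m ∧ r (Sum.inr m) ∈ Gm m

namespace Upp

variable (U : Upp S s r Sj Gm)
include U

/-- every point of the class is in the outer state -/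
theorem mem_out {m : Mo} (hx : x ∈ Cl s (Sum.inr m) (Gm m)) :
    x ∈ (outK S.hH S.dis s r).P ∧ s.lab x = Sum.inr m := by
  obtain ⟨h1, h2, -⟩ := cl_mem ((U.gs m).trans (U.sub m)) hx
  obtain ⟨g1, g2, g4⟩ := U.root m
  exact ⟨cl_out (U.car m) (U.conn m) (U.gs m) (U.out m) (cl_of g1 g2 g4) hx h2 h1, h2⟩

theorem mem_s2' {m : Mo} (hx : x ∈ Cl s (Sum.inr m) (Gm m)) :
    x ∈ (s2 S h3 Tw l0).P ∧ (s2 S h3 Tw l0).lab x = Sum.inr m := by
  obtain ⟨h1, h2⟩ := U.mem_out hx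
  exact ⟨mem_old h1, (lab_old h1).trans h2⟩

/-- a point of `s₂` of the name `m` in `Gm m` is in the class -/
theorem mem_cl {m : Mo} (hh : h ∈ (s2 S h3 Tw l0).P) (hl : (s2 S h3 Tw l0).lab h = Sum.inr m)
    (hG : h ∈ Gm m) : h ∈ Cl s (Sum.inr m) (Gm m) := by
  obtain ⟨q, hq⟩ := T.cov h (U.sub m (U.gs m hG))
  have ho : S.Out h := Sla.out_of_tile (U.out m q ⟨h, hq, hG⟩) hq
  obtain ⟨h1, h2⟩ := s2_out hh ho
  exact cl_of h1.1 (h2.symm.trans hl) hG

/-- **the points of `m` in `Gm m` are joined by chords on the faces of `RB a`** -/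
theorem conn_s2 {m : Mo} (ha : am m = a) (hh : h ∈ (s2 S h3 Tw l0).P)
    (hl : (s2 S h3 Tw l0).lab h = Sum.inr m) (hG : h ∈ Gm m) {Y : Set E} (hY : h ∈ Y)
    (hcl : ∀ F ∈ RB S h3 am Gm a, ∀ y ∈ Y, (s2 S h3 Tw l0).At F y →
      (s2 S h3 Tw l0).lab y = Sum.inr m → (s2 S h3 Tw l0).mu F y ∈ Y) :
    Cl s (Sum.inr m) (Gm m) ⊆ Y := by
  have : Nonempty (J ⊕ Mo) := ⟨Sum.inr m⟩
  refine cl_sub (U.car m) (U.conn m) (U.gs m) (U.mem_cl hh hl hG) hY ?_
  rintro F w ⟨q, hqF, hqG⟩ hwY hwC hA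
  have hqK := U.out m q hqG
  set F0 : S.F0 h3 := mkF0 F hqF hqK with hF0
  obtain ⟨g1, g2⟩ := U.mem_out hwC
  have hwF : w ∈ F0.1.On := hA.2
  obtain ⟨k1, k2, k4, k5⟩ := mu_out' (Tw := Tw) (l0 := l0) g1 hwF
  have h1 := hcl (old F0) ⟨m, ha, F0, rfl, q, hqF, hqG⟩ w hwY ⟨k1, k2⟩ (k4.trans g2)
  rw [k5] at h1
  exact h1

/-- **ConnT over the global state** -/
theorem connT_s2 {Act : C → Set (T.RIdx S.HH ⊕ κ)} {m : Mo} (ha : am m = a)
    (hy : ∃ y ∈ s.P, s.lab y = Sum.inr m ∧ y ∈ Gm m ∧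
      ¬ Dfo_539.Encl (s2 S h3 Tw l0) am Act m y)
    (hh : h ∈ (s2 S h3 Tw l0).P) (hl : (s2 S h3 Tw l0).lab h = Sum.inr m) (hG : h ∈ Gm m)
    {Y : Set E} (hY : h ∈ Y)
    (hcl : ∀ F ∈ RB S h3 am Gm a, ∀ y ∈ Y, (s2 S h3 Tw l0).At F y →
      (s2 S h3 Tw l0).lab y = Sum.inr m → (s2 S h3 Tw l0).mu F y ∈ Y) :
    ∃ y ∈ Y, y ∈ (s2 S h3 Tw l0).P ∧ (s2 S h3 Tw l0).lab y = Sum.inr m ∧
      ¬ Dfo_539.Encl (s2 S h3 Tw l0) am Act m y := by
  obtain ⟨y, h1, h2, h4, h5⟩ := hy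
  have h6 := U.conn_s2 ha hh hl hG hY hcl (cl_of h1 h2 h4)
  obtain ⟨h7, h8⟩ := U.mem_s2' (Tw := Tw) (l0 := l0) (cl_of h1 h2 h4)
  exact ⟨y, h6, h7, h8, h5⟩

end Upp

/-! ### the pair states -/

section pair

variable {ι' Φ W : Type} {M : MeshC ι' Φ W} {t : GSt M (Sum.map fam (id : Mo → Mo))}
  {hs : BSep t am} {hm : ∀ a, {m | am m = a}.Finite} {i0 : PN fam am a}
  {Act : C → Set ι'} {far : PN fam am a → Set W}

/-- the condition `Encl` of the pair state in terms of the global state -/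
theorem encl_pr {m : Mo} {h : W} (ha : am m = a) (hl : t.lab h = Sum.inr m)
    (he : SecW_892.Encl (Act a) far (pr t hs hm a i0) h) : Dfo_539.Encl t am Act m h := by
  obtain ⟨X, h6, h7, h8, h9⟩ := he
  refine ⟨X, h6, ?_, ?_, ?_⟩
  · intro x hx
    obtain ⟨g1, g2⟩ := h7 x hx
    obtain ⟨g3, m', g4, g5⟩ := pr_hp.1 g1
    refine ⟨g3, ?_⟩
    have e1 : Sum.elim fam am (t.lab h) = a := by rw [hl]; exact ha
    have e2 := (pr_lab_iff (hs := hs) (hm := hm) (i0 := i0) (by rw [g5]; exact g4)).1 g2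
    have e3 := (pr_lab_iff (hs := hs) (hm := hm) (i0 := i0) e1).1 rfl
    rw [e2, ← e3, hl]
  · intro F x hx hA hno
    obtain ⟨g1, g2⟩ := h7 x hx
    have hA' : (pr t hs hm a i0).At F x := ⟨g1.1, hA.2⟩
    refine h8 F x hx hA' ?_
    intro z hF c he
    subst hF
    have hloc := lo_lab (pr t hs hm a i0) hA'
    cases c
    · have h13 := z.lace
      rw [he] at h13
      have h14 := (lace_lo_right (pr t hs hm a i0) hA' _ _).1 h13
      have h15 := lace_comm (pr t hs hm a i0) (z.at_ true) hA' (by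
        intro e
        have h16 := z.colr true
        have h17 := g1.2
        rw [← e, h16] at h17
        exact Bool.false_ne_true h17.symm) h14
      obtain ⟨h18, h19⟩ := pr_at.1 (z.at_ true)
      have h20 : (((pr t hs hm a i0).lab (z.e true)).1).isLeft = true := z.colr true
      rw [pr_lab h19] at h20
      have h21 : ∃ i, t.lab (z.e true) = Sum.inl i := by
        rcases hq : t.lab (z.e true) with i | m'
        · exact ⟨i, rfl⟩
        · have h22 : (t.lab (z.e true)).isLeft = true := h20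
          rw [hq] at h22
          exact absurd h22 (by simp)
      obtain ⟨i, hi⟩ := h21
      have hfi : fam i = am m := by
        rw [ha]
        have := h19
        rw [hi] at this
        exact this
      exact hno (z.e true) h18 ⟨i, hi, hfi⟩ h15
    · have h16 := z.colr true
      rw [he, hloc] at h16
      have h17 := g1.2
      rw [h16] at h17
      exact Bool.false_ne_true h17.symm
  · intro F x hx hA
    obtain ⟨g1, g2⟩ := h7 x hx
    rw [ha]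
    exact (h9 x hx).2 F ⟨g1.1, hA.2⟩

end pair

/-- **147's `ConnT` for the pair states of `s₂`** -/
theorem connT_pr (U : Upp S s r Sj Gm) {Act : C → Set (T.RIdx S.HH ⊕ κ)}
    {hs : BSep (s2 S h3 Tw l0) am} {hm : ∀ a, {m | am m = a}.Finite} {i0 : PN fam am a}
    {far : PN fam am a → Set E}
    (hy : ∀ m, am m = a → ∃ y ∈ s.P, s.lab y = Sum.inr m ∧ y ∈ Gm m ∧
      ¬ Dfo_539.Encl (s2 S h3 Tw l0) am Act m y) :
    ConnT (Act a) far (pr (s2 S h3 Tw l0) hs hm a i0) (RB S h3 am Gm a)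
      (SB am Gm (s2 S h3 Tw l0).lab a) := by
  rintro h ⟨m, ha, hl, hG⟩ hh Y hY hcl
  have hh' := (pr_hp.1 hh).1
  have e1 : Sum.elim fam am ((s2 S h3 Tw l0).lab h) = a := by rw [hl]; exact ha
  have key : ∀ y, y ∈ (s2 S h3 Tw l0).P → (s2 S h3 Tw l0).lab y = Sum.inr m →
      y ∈ (pr (s2 S h3 Tw l0) hs hm a i0).P ∧
      (pr (s2 S h3 Tw l0) hs hm a i0).lab y = (pr (s2 S h3 Tw l0) hs hm a i0).lab h := by
    intro y hy hly
    have e2 : Sum.elim fam am ((s2 S h3 Tw l0).lab y) = a := by rw [hly]; exact ha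
    refine ⟨mem_pr.2 ⟨hy, e2⟩, ?_⟩
    rw [pr_lab e1, pr_lab e2]
    exact Subtype.ext (hly.trans hl.symm)
  obtain ⟨y, h1, h2, h4, h5⟩ := U.connT_s2 (Act := Act) ha (hy m ha) hh' hl hG hY (by
    intro F hF y hyY hA hly
    obtain ⟨g1, g2⟩ := key y hA.1 hly
    exact hcl F hF y hyY ⟨g1, hA.2⟩ g2)
  obtain ⟨g1, g2⟩ := key y h2 h4
  refine ⟨y, h1, pr_hp.2 ⟨h2, m, ha, h4⟩, g2, fun he => h5 (encl_pr ha h4 he)⟩

end Crest.Agent.R096.Cns_778
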