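import Crest.Agent.R096.Nef2_778
import Crest.Agent.R096.Sgo2_298
import Crest.Agent.R096.Dfo1_539
import Crest.Agent.R096.Cns2_778

/-!
# R096 (row 96), DOORS, NE1 (helper778), part 3: enclosed sets

`nox_old`, `nox_vf` : no crossing on faces without points of the family;
`bot_frozen`        : the bottom points are on a frozen face;
`encl_core`         : the core for an enclosed set.
-/

set_option autoImplicit false
set_option linter.unusedSectionVars false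
set_option linter.unusedVariables false
set_option linter.style.longLine false

open Set Module
open scoped Classical

namespace Crest.Agent.R096.Nef_778

open Crest.Agent.R096.Msh_715 Crest.Agent.R096.Agl5_543 Crest.Agent.R096.St_147
  Crest.Agent.R096.Seq_213 Crest.Agent.R096.Door_501 Crest.Agent.R096.Sla_184
  Crest.Agent.R096.Twr_438 Crest.Agent.R096.Exa_560 Crest.Agent.R096.Ess3_95
  Crest.Agent.R096.Ess4_95 Crest.Agent.R096.Dfi_539 Crest.Agent.R096.Dfi_471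
  Crest.Agent.R096.Yl_471 Crest.Agent.R096.Ent_527 Crest.Agent.R096.Coh_184
  Crest.Agent.R096.Lab_184
open Crest.Agent.R096.Sla_184.Sla (hf vf old tg F0 Fn Out OnS InL In)
open Crest.Agent.R096.Cns_778 (nd_of mkF0)
open Crest.Agent.R096.Sgo_298 (ActR inr_ActR endsIn)

variable {E : Type} [NormedAddCommGroup E] [NormedSpace ℝ E] [FiniteDimensional ℝ E]
variable {Om : Set E} {ι : Type} {T : Tiling Om ι} {κ : Type} {S : Sla T κ}
  {h3 : finrank ℝ E = 3} {J C Mo : Type} {fam : J → C} {am : Mo → C} [Nonempty (J ⊕ Mo)]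
  {s : GSt (meshC T h3) (Sum.map fam (id : Mo → Mo))} {r : J ⊕ Mo → E}
  {Tw : Twrs (S.sh h3) S.n (outK S.hH S.dis s r)} {l0 : E → J ⊕ Mo}

/-- **no crossing on an outer face without points of the family** -/
theorem nox_old {a : C} {F0 : S.F0 h3}
    (h : ∀ y ∈ s.P, y ∈ F0.1.On → ∀ i, s.lab y = Sum.inl i → fam i ≠ a) (x : E) :
    Dfo_539.NoX (s2 S h3 Tw l0) a (old F0) x := by
  rintro y hy ⟨i, h1, h2⟩
  obtain ⟨g1, g2, g3, -, -⟩ := mu_out hy.1 hy.2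
  exact absurd h2 (h y g1 g2 i (g3.symm.trans h1))

/-- **no crossing on a vertical face without points of the family** -/
theorem nox_vf {a : C} {c : κ} {e : S.Ed c} {j : ℕ} (hj : j < S.n c)
    (h1 : ∀ j' ≤ S.n c, ∀ w ∈ ((Tw.tw c (Sum.inl a)).pat j').P, w ∉ e.1.opn)
    (h2 : ∀ b, (S.sh h3 c).en e b ∉ ((Tw.tw c (Sum.inl a)).mv j).Qv) (x : E) :
    Dfo_539.NoX (s2 S h3 Tw l0) a (vf h3 e j) x := by
  rintro y hy ⟨i, h4, h5⟩
  exfalso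
  obtain ⟨a', x0, g1, g2, g3, -⟩ := on_vf hj hy.1 hy.2
  have key : Sum.map fam (id : Mo → Mo) ((s2 S h3 Tw l0).lab y) = Sum.inl a := by
    rw [h4, ← h5]; rfl
  rcases x0 with u | u | v
  · have k1 : u ∈ ((Tw.tw c a').pat j).P := ((Tw.tw c a').mv j).top_mem_P'.1 g1
    have k2 : u ∈ e.1.opn := (S.sh h3 c).top_mem_vert.1 g2
    have k3 : (s2 S h3 Tw l0).lab y = ((Tw.tw c a').pat j).lab u := by
      rw [g3]; exact lab_hp hj.le k1
    rw [k3, Tw.labj k1] at key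
    subst key
    exact h1 j hj.le u k1 k2
  · have k1 : u ∈ ((Tw.tw c a').pat (j + 1)).P := Twrs.mem_B.1 (((Tw.tw c a').mv j).bot_mem_P'.1 g1)
    have k2 : u ∈ e.1.opn := (S.sh h3 c).bot_mem_vert.1 g2
    have k3 : (s2 S h3 Tw l0).lab y = ((Tw.tw c a').pat (j + 1)).lab u := by
      rw [g3]; exact lab_hp (show j + 1 ≤ S.n c by omega) k1
    rw [k3, Tw.labj k1] at key
    subst key
    exact h1 (j + 1) (by omega) u k1 k2
  · have k1 : v ∈ ((Tw.tw c a').mv j).Qv := ((Tw.tw c a').mv j).vert_mem_P'.1 g1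
    obtain ⟨b, hb⟩ := (S.sh h3 c).vert_mem_vert.1 g2
    have k3 : (s2 S h3 Tw l0).lab y = ((Tw.tw c a').mv j).i0 := by
      rw [g3]; exact lab_vp hj k1
    rw [k3, Tw.labv k1] at key
    subst key
    exact h2 b (by rw [hb]; exact k1)

variable {nb : κ → C ⊕ Mo → Prop}
  {v0 v1 : ∀ c, C ⊕ Mo → VxK T S.K c} {u : κ → C ⊕ Mo → E → ℝ} {A B : κ → C ⊕ Mo → ℝ}
  {L : ∀ c, C ⊕ Mo → Lev T (frontier (S.K c)) (J ⊕ Mo)}

/-- **the bottom points are on a frozen face** -/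
theorem bot_frozen (tt : TwOut S h3 s r v0 v1 L Tw) {c : κ} {a : C ⊕ Mo} {w : E} {R : Set ι}
    (hw : w ∈ ((Tw.tw c a).pat (S.n c)).P) :
    ∃ F, (s2 S h3 Tw l0).At F (S.hp c (S.n c) w) ∧ St.Frozen (S.mn h3) (ActR S R) F := by
  obtain ⟨e, he⟩ := pat_onE hw
  have hfr : w ∈ frontier (S.K c) := e.2.2 (e.1.opn_sub he)
  obtain ⟨F, hF, hwF⟩ := Msh_715.exists_face h3 S.hH hfr
  have h2 := (face_iff h3 (fun c => (S.hH c).core) (fun c => (S.hH c).sub)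
    (fun c => (S.hH c).cc) S.dis F c).1 hF
  let G : (S.sh h3 c).Fk := ⟨⟨F, h2.1⟩, h2.2⟩
  have hd : T.dim w = 1 := (T.dim_eq_of_mem_oc e.1.pt_mem he).trans e.2.1
  have hG : w ∈ (S.m0 h3).On G.1 := ⟨hwF, hd⟩
  refine ⟨hf G (S.n c), ⟨mem_hp le_rfl hw, (Sla.on_hf le_rfl).2 ⟨w, hG, rfl⟩⟩, Sum.inr c, ?_,
    inr_ActR⟩
  exact (kk_iff (Z := S.cols h3)).2 ⟨G, rfl⟩

/-- tiles without points of the family of the barrier -/
def FreeT (s : GSt (meshC T h3) (Sum.map fam (id : Mo → Mo))) (a : C) (q : ι) : Prop :=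
  ∀ F : C2 T, q ∈ F.side h3 → ∀ y ∈ s.P, y ∈ F.On → ∀ i, s.lab y = Sum.inl i → fam i ≠ a

/-- the layers over the tile carry no point of the family -/
def FreeL (Tw : Twrs (S.sh h3) S.n (outK S.hH S.dis s r)) (a : C) (q : ι) : Prop :=
  ∀ (k : κ) (e : S.Ed k), e.1.set ⊆ P (T.H q) → ∀ j, j < S.n k →
    (∀ j' ≤ S.n k, ∀ w ∈ ((Tw.tw k (Sum.inl a)).pat j').P, w ∉ e.1.opn) ∧
    ∀ b, (S.sh h3 k).en e b ∉ ((Tw.tw k (Sum.inl a)).mv j).Qv

/-- **the core for an enclosed set** `Y` of the barrier `m` -/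
theorem encl_core (tt : TwOut S h3 s r v0 v1 L Tw) {R : Set ι} {m : Mo} {Y : Set E}
    (hY1 : ∀ x ∈ Y, x ∈ (s2 S h3 Tw l0).P ∧ (s2 S h3 Tw l0).lab x = Sum.inr m)
    (hY2 : ∀ F x, x ∈ Y → (s2 S h3 Tw l0).At F x → Dfo_539.NoX (s2 S h3 Tw l0) (am m) F x →
      (s2 S h3 Tw l0).mu F x ∈ Y)
    (hY3 : ∀ F x, x ∈ Y → (s2 S h3 Tw l0).At F x → ¬ St.Frozen (S.mn h3) (ActR S R) F)
    {D : Set E} (hD : IsCompact D) (hDO : D ⊆ Om) (ht : TrivF (ZMod 2) D)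
    (hfT : ∀ q, (P (T.H q) ∩ D).Nonempty → FreeT s (am m) q)
    (hfL : ∀ q, (P (T.H q) ∩ D).Nonempty → FreeL Tw (am m) q)
    {K K' : Set E} (hKD : K ⊆ D) (hK : IsPreconnected K) (hKD' : K' ⊆ D) (hK' : IsPreconnected K')
    (h0 : ∀ q, (P (T.H q) ∩ K).Nonempty → (∀ c, ¬ P (T.H q) ⊆ S.K c) → ∀ w ∈ s.P,
      s.lab w = Sum.inr m → w ∉ P (T.H q))
    (h0' : ∀ q, (P (T.H q) ∩ K).Nonempty → ∀ c, P (T.H q) ⊆ S.K c → ∀ v : S.Vx c,
      v.1 ∈ P (T.H q) → ∀ j < S.n c, v ∉ ((Tw.tw c (Sum.inr m)).mv j).Qv)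
    (hout : ∀ q, (P (T.H q) ∩ K').Nonempty → ∀ c, ¬ P (T.H q) ⊆ S.K c)
    (hall : ∀ q, (P (T.H q) ∩ K').Nonempty → ∀ w ∈ s.P, s.lab w = Sum.inr m → w ∈ P (T.H q) →
      w ∈ (outK S.hH S.dis s r).P ∧ w ∈ Y)
    {lm : E → ZMod 2} (hlm : Main_4.IsLab T (gPts s (Sum.inr m)) lm)
    {x y : E} (hx : x ∈ K) (hx' : x ∈ K') (hy : y ∈ K) (hy' : y ∈ K') {v w : E}
    (hv : ∃ q, v ∈ P (T.H q) ∧ x ∈ P (T.H q)) (hw : ∃ q, w ∈ P (T.H q) ∧ y ∈ P (T.H q))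
    (hv0 : T.dim v = 0) (hw0 : T.dim w = 0) : lm v = lm w := by
  have hlab : ∀ w, w ∈ (outK S.hH S.dis s r).P → (outK S.hH S.dis s r).lab w = s.lab w :=
    fun w _ => rfl
  refine core (S := S) (h3 := h3) (s := outK S.hH S.dis s r) (Tw := Tw) (l0 := l0)
    (i := Sum.inr m) (a := Sum.inr m) (X := Y) hD hDO ht ?_ ?_ rfl ?_ hKD hK hKD' hK' ?_ h0' hout
    ?_ hx hx' hy hy' hv hw hv0 hw0
  · intro q hqD hqK F0 hq x hxY hxP hxl hxF
    refine hY2 (old F0) x hxY ⟨hxP, hxF⟩ (nox_old ?_ x)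
    exact hfT q hqD F0.1 hq
  · rintro c e ⟨q, heq, hqD⟩ j hj x hxY hxP hxl hxF
    obtain ⟨g1, g2⟩ := hfL q hqD c e heq j hj
    exact hY2 (vf h3 e j) x hxY ⟨hxP, hxF⟩ (nox_vf hj g1 g2 x)
  · intro c e _ w hw _ hwY
    obtain ⟨F, hF1, hF2⟩ := bot_frozen (l0 := l0) (R := R) tt hw
    exact hY3 F _ hwY hF1 hF2
  · intro q hqK hqo w _ hwP hwl hwq
    exact h0 q hqK hqo w hwP.1 hwl hwq
  · intro q hqK'
    refine exact_kap_iff.2 fun e he h1 a b hab => ?_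
    rw [isLab_iff.1 hlm e (T.sub q he) h1 a b hab]
    congr 2
    ext w
    constructor
    · rintro ⟨g1, g2⟩
      obtain ⟨k1, k2⟩ := mem_gPts.1 (Finset.mem_coe.1 g1)
      obtain ⟨k3, k4⟩ := hall q hqK' w k1 k2 (T.cc_sub_tile he g2)
      exact ⟨Finset.mem_coe.2 (mem_QX.2 ⟨k3, k2, k4⟩), g2⟩
    · rintro ⟨g1, g2⟩
      obtain ⟨k1, k2, k3⟩ := mem_QX.1 (Finset.mem_coe.1 g1)
      exact ⟨Finset.mem_coe.2 (mem_gPts.2 ⟨k1.1, k2⟩), g2⟩

end Crest.Agent.R096.Nef_778
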