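import Crest.Agent.R096.Sde4_422

/-!
# R096 (row 96), DOORS, NE1 (helper985): G2 of 778 #12223: **VERTICES WHICH ARE NEVER MOVED**.

`never_m` : the tower of the barrier `m` does not move the vertices `v` on the tiles which have a point
`x` with `gR (Psi (f x)) ≤ 1 - μ / 8` or `2 ≤ gR (Psi (f x))`.
-/

set_option autoImplicit false
set_option linter.unusedSectionVars false
set_option linter.unusedVariables false
set_option linter.style.longLine false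

open Set Topology Filter Metric Module Relation
open scoped Classical

namespace Crest.Agent.R096.Nvm1_985

open Crest.Agent.R096.Msh_715 Crest.Agent.R096.Agl5_543 Crest.Agent.R096.St_147
  Crest.Agent.R096.Seq_213 Crest.Agent.R096.Door_501 Crest.Agent.R096.Sla_184
  Crest.Agent.R096.Twr_438 Crest.Agent.R096.Exa_560 Crest.Agent.R096.Ess3_95
  Crest.Agent.R096.Ess4_95 Crest.Agent.R096.Dfi_539 Crest.Agent.R096.Dfi_471
  Crest.Agent.R096.Ac_117 Crest.Agent.R096.Lm_117 Crest.Agent.R096.Cp_298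
  Crest.Agent.R096.Coh_184 Crest.Agent.R096.Gm_298 Crest.Agent.R096.Cpo_642
  Crest.Agent.R096.Gl_422 Crest.Agent.R096.Flb_422 Crest.Agent.R096.Sid_422
  Crest.Agent.R096.Vrt_422 Crest.Agent.R096.Dfo_539
open Crest.Agent.R096.Brk1_582 Crest.Agent.R096.Brk2_582 Crest.Agent.R096.Brk3_582
  Crest.Agent.R096.Brk5_582 Crest.Agent.R096.Bsp_628 Crest.Agent.R096.Init_543
  Crest.Agent.R096.Bar_106 Crest.Agent.R096.Dib_438 Crest.Agent.R096.Lam_847
  Crest.Agent.R096.Ess5_95 Crest.Agent.R096.Bgf_4 Crest.Agent.R096.Ebr1_95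
  Crest.Agent.R096.Ebr4_95 Crest.Agent.R096.Rop_441 Crest.Agent.R096.Nmd1_698
  Crest.Agent.R096.Sde_422 Crest.Agent.R096.Rgl_527
open Crest.Agent.R096.Mbf_337 (sb KJ Tiny gau Cores Fine)
open Crest.Agent.R096.SkC1_961 (E3 FoamD Hom3)
open Crest.Agent.R096.Frn_337 (Ti)
open Crest.Agent.R096.Frs_662 (slC)
open Crest.Agent.R096.Ess7_95 (KT Sh)
open Crest.Agent.R096.Dff_539 (vS)
open Crest.Agent.R096.Bmf_416 (coT)
open Crest.Agent.R096.Vin_527 (sdm)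

variable {δ κ0 R c0 : ℝ} {La Om : Set E3} {ι : Type} {Φ : FoamD δ κ0 R c0 La} {T : Tiling Om ι}
  {f g : E3 → E3} {κ1 κ2 μ : ℝ} {X : Set Φ.F} {J0 J V : Φ.F → Set ι}
  {ct ct' : Φ.F → ι} {A : Φ.F → E3 ≃ᵃ[ℝ] E3} {lam : Φ.F → ℝ} {z : Φ.F → E3}
  {θ : Φ.F → E3 → E3} {φ : Φ.F → E3 → ℝ} {r₀ : Φ.F → ℝ}
  {L : Φ.F → Finset ℝ} [Nonempty (JJ Φ L)] {hG : GF Φ r₀ T f L} {bp : JJ Φ L → E3}
  {N' : BM Φ X → Set ℝ} {ρ1 ρ2 ρ3 ρ4 d : Φ.F → ℝ} {q₀ : BM Φ X → E3} {ε : BM Φ X → ℝ}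
  {bm : BM Φ X → E3} {hGB : GFB Φ r₀ T f L (lRc Φ X μ ρ1 ρ3 d) ε}
  {v0F v1F : ∀ c, Φ.F → VxK T (KT T J X) c} {v0B v1B : ∀ c, BM Φ X → VxK T (KT T J X) c}
  {hLa : IsOpen La} {hC : Cores Φ T f κ1 κ2 X J0 J V ct A lam z θ φ}
  {n : Ti X → ℕ} {hn : ∀ c, 0 < n c} {r : JJ Φ L ⊕ BM Φ X → E3}
  {Sf : JJ Φ L ⊕ BM Φ X → Set E3}
  {Lv : ∀ c, Φ.F ⊕ BM Φ X → Lev T (frontier ((slC hLa hC n hn).K c)) (JJ Φ L ⊕ BM Φ X)}
  {Tw : Twrs ((slC hLa hC n hn).sh fr3) (slC hLa hC n hn).n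
    (outK (slC hLa hC n hn).hH (slC hLa hC n hn).dis (stB hGB bp bm) r)}

/-- the part `{b ≤ G ∘ θ}` of the frontier of a tiny core is compact and connected -/
theorem ge_set (hLa : IsOpen La) {c : Φ.F} {J0 J V : Set ι} {θ : E3 → E3} {φ : E3 → ℝ}
    (H : Tiny Φ T f κ1 c J0 J V θ φ) {G : E3 → ℝ} {lo hi ρ : ℝ} {p : ℝ × E3 → E3}
    (hG : GM Φ c G lo hi) (hP : Pol Φ c ρ p) {t : ℝ} (ht : t ∈ Ioo lo hi) :
    IsCompact {x | x ∈ frontier (KJ T J) ∧ t ≤ G (θ x)} ∧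
      IsPreconnected {x | x ∈ frontier (KJ T J) ∧ t ≤ G (θ x)} := by
  obtain ⟨e, he, heq⟩ := pre_eq H
  have hN : {q | q ∈ frontier c.1.set ∧ t ≤ G q} ⊆ frontier c.1.set := fun q hq => hq.1
  have hset : {x | x ∈ frontier (KJ T J) ∧ t ≤ G (θ x)} =
      e.g '' {q | q ∈ frontier c.1.set ∧ t ≤ G q} := by
    rw [← heq _ hN]
    ext x
    constructor
    · rintro ⟨hx, h⟩
      exact ⟨hx, th_mem H hx, h⟩
    · rintro ⟨hx, h⟩
      exact ⟨hx, h.2⟩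
  have hcpt : IsCompact {q | q ∈ frontier c.1.set ∧ t ≤ G q} :=
    hP.frc.of_isClosed_subset
      (hG.cont.preimage_isClosed_of_isClosed hP.frc.isClosed isClosed_Ici) fun _ hq => hq.1
  rw [hset]
  have hc : ContinuousOn e.g {q | q ∈ frontier c.1.set ∧ t ≤ G q} := e.pg.1.mono hN
  exact ⟨hcpt.image_of_continuousOn hc, (hG.ge_conn hP ht).image _ hc⟩

section s2

variable (N : NumD δ κ0 R c0 κ2 μ κ1) (H : Hm f g Om La)
  (bar : BarOut Φ T f κ1 μ X J0 J V θ hG bp N' ρ1 ρ2 ρ3 ρ4 d q₀ ε bm hGB v0B v1B)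
  (D : DIn (slC hLa hC n hn).hH (stB hGB bp bm) r Sf (nbA Φ X) (vS v0F v0B) (vS v1F v1B)
    (uA Φ hLa X θ) (AA Φ X μ κ1) (BA Φ X μ))
  (lo : LevOut (Kc := (slC hLa hC n hn).K) (stB hGB bp bm) (nbA Φ X) (uA Φ hLa X θ)
    (AA Φ X μ κ1) (BA Φ X μ) Lv)
  (tt : TwOut (slC hLa hC n hn) fr3 (stB hGB bp bm) r (vS v0F v0B) (vS v1F v1B) Lv Tw)
include N H bar D lo tt

/-- **the moves do not touch the vertices far outside the box** -/
theorem not_rgn_far (m : BM Φ X) {v : (slC hLa hC n hn).Vx (coT m)}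
    (hv : 2 - μ / 4 ≤ gR Φ X μ m (θ m.co v.1)) (i : JJ Φ L ⊕ BM Φ X) :
    ¬ Rgn ((slC hLa hC n hn).sh fr3 (coT m)) (vS v0F v0B (coT m) (Sum.inr m))
      (vS v1F v1B (coT m) (Sum.inr m))
      (trc (slC hLa hC n hn).hH (slC hLa hC n hn).dis (stB hGB bp bm) r (coT m) (Sum.inr m))
      (exa fr3 (slC hLa hC n hn).hH (slC hLa hC n hn).dis (Lv (coT m) (Sum.inr m))) i v := by
  have hμ := N.hμ
  have hμb := N.hμb
  have hT := hC.tiny m.co m.co_notMem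
  have hZ := bz_rec N H hLa hC bar m
  obtain ⟨p, hP⟩ := bz_pol hLa H hC m.co_notMem hZ
  have hset := ge_set hLa hT hZ.gm hP (t := 1 + μ / 4) ⟨by linarith, by linarith⟩
  have := Rgl_527.finite_EdK (slC hLa hC n hn).hH (coT m)
  have := Fintype.ofFinite (EdK T (slC hLa hC n hn).K (coT m))
  have hosc : ∀ q : T.Cell, q.set ⊆ frontier (KJ T (J m.co)) → ∀ x ∈ q.set, ∀ y ∈ q.set, ∀ e,
      |sb Φ (θ m.co x) e - sb Φ (θ m.co y) e| ≤ (2 * Cn δ R + 1) * κ1 := by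
    intro q hq x hx y hy e
    have hpq : q.pt ∈ q.set := q.opn_sub (T.self_mem_oc _)
    obtain ⟨F, hF, hpF⟩ := exists_face fr3 (slC hLa hC n hn).hH (c := coT m) (hq hpq)
    have hsub : q.set ⊆ F.set := by
      rw [q.set_eq, F.set_eq]
      rw [F.set_eq] at hpF
      exact T.cc_sub_of_mem hpF
    exact tiny_osc hLa N.hδ N.hR N.cn1 hT hF (hsub hx) (hsub hy) e
  refine not_rgn_hi (h3 := fr3) (hH := (slC hLa hC n hn).hH) (hdis := (slC hLa hC n hn).dis)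
    (c := coT m) (fun w hw => (mem_trc.1 hw).2.2) hset.1 hset.2 (fun x hx => hx.1) ?_ (v := v)
    ⟨v1B (coT m) m |>.2.2, ?_⟩ ⟨v.2.2, ?_⟩ ?_ i
  · rintro w hw q hq hwq ⟨x, hxq, hxf, hx⟩
    obtain ⟨k1, k2, k4⟩ := trc_P hw
    have hl' : (stB hGB bp bm).lab w = Sum.inr m := by
      rcases hj : (stB hGB bp bm).lab w with j | m'
      · rw [hj] at k4; cases k4
      · rw [hj] at k4
        exact congrArg Sum.inr (Sum.inr_injective k4)
    obtain ⟨hlev, hGm⟩ := bar.lev m w k1 hl'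
    have hθx := th_mem hT hxf
    have hd : ∀ e, |Φ.lev e (f w) - sb Φ (θ m.co x) e| ≤ (3 * Cn δ R + 1) * κ1 := by
      intro e
      have g1 := abs_le.1 (tiny_near hLa N.hδ N.hR N.cn1 hT k2 e)
      have g2 := abs_le.1 (hosc q hq w hwq x hxq e)
      rw [abs_le]
      constructor <;> nlinarith [g1.1, g1.2, g2.1, g2.2]
    have g3 := (abs_le.1 (Gm_sub_le (a := m.am) (Z := m.Zm) (m := 1 / 2) N.l0 N.ra0 hlev
      (sb_mem hLa hθx) hd)).1
    have g4 : 1 + μ / 4 ≤ Gm (μ / 8) (1 / 2) (1 / 2 - 5 * μ / 16) m.am m.Zm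
      (sb Φ (θ m.co x)) := hx
    have g5 := N.om2 (r := (3 * Cn δ R + 1) * κ1) (by nlinarith [N.cn0, N.hκ])
    linarith
  · have h1 := g_v1 N hLa hC bar m
    show 1 + μ / 4 ≤ gR Φ X μ m (θ m.co (v1B (coT m) m).1)
    linarith
  · show 1 + μ / 4 ≤ gR Φ X μ m (θ m.co v.1)
    linarith
  · intro w hw
    obtain ⟨g1, g2⟩ := exa_lab (h3 := fr3) (hH := (slC hLa hC n hn).hH)
      (hdis := (slC hLa hC n hn).dis) (c := coT m) (Lv (coT m) (Sum.inr m)) hw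
    have g4 := lo.win (coT m) (Sum.inr m) _ g1
    have hnb : nbA Φ X (coT m) (Sum.inr m) := rfl
    have hfr : v.1 ∈ frontier (KJ T (J m.co)) := v.2.2
    have hθ := th_mem hT hfr
    have e1 : (Lv (coT m) (Sum.inr m)).u v.1 =
        Fs (Nb Φ hLa m.co) m.am m.Zm (sb Φ (θ m.co v.1)) := by rw [lo.u]; rfl
    have e0 : (Lv (coT m) (Sum.inr m)).u (v0B (coT m) m).1 ≤ AA Φ X μ κ1 (coT m) (Sum.inr m) := by
      rw [lo.u]
      exact D.v0_lt (coT m) _ hnb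
    have hF : 3 * μ / 16 < Fs (Nb Φ hLa m.co) m.am m.Zm (sb Φ (θ m.co v.1)) := by
      have h4 := Fm_le_Fs (a := m.am) (Z := m.Zm) (N := Nb Φ hLa m.co) (u := sb Φ (θ m.co v.1))
        (fun e he => dv_off hLa (mo_pq m) hθ fun h => he (mem_Nb.2 h)) (sb_mem hLa hθ)
      have h5 : 2 - μ / 4 ≤ max (Fm m.am m.Zm (sb Φ (θ m.co v.1)) / (μ / 8))
        (|sb Φ (θ m.co v.1) m.am - 1 / 2| / (1 / 2 - 5 * μ / 16)) := hv
      rcases le_max_iff.1 h5 with h5 | h5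
      · rw [le_div_iff₀ N.l0] at h5
        nlinarith
      · exfalso
        rw [le_div_iff₀ N.ra0] at h5
        have h6 := sb_mem hLa hθ m.am
        have h7 : |sb Φ (θ m.co v.1) m.am - 1 / 2| ≤ 1 / 2 := by
          rw [abs_le]; constructor <;> linarith [h6.1, h6.2]
        nlinarith
    have hB : (Lv (coT m) (Sum.inr m)).lv ((exa fr3 (slC hLa hC n hn).hH
        (slC hLa hC n hn).dis (Lv (coT m) (Sum.inr m))).lab w) < 3 * μ / 16 := g4.2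
    have h8 := exa_lbl (h3 := fr3) (hH := (slC hLa hC n hn).hH)
      (hdis := (slC hLa hC n hn).dis) (c := coT m)
      (Lv (coT m) (Sum.inr m)) g1 (lo.conn (coT m) _ _ g1).1 hw rfl (v0B (coT m) m) v
      (not_lt.2 (e0.trans g4.1.le))
    rw [if_pos (by rw [e1]; linarith)] at h8
    exact h8

/-- **G2 of 778 #12223: vertices which are never moved** -/
theorem never_m (m : BM Φ X) {q : ι} {x : E3} (hx : x ∈ P (T.H q))
    (h1 : ρ1 m.co ≤ ga Φ m.co (f x)) (h2 : ga Φ m.co (f x) ≤ ρ4 m.co)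
    (hg : gR Φ X μ m (Φ.Psi (f x)) ≤ 1 - μ / 8 ∨ 2 ≤ gR Φ X μ m (Φ.Psi (f x)))
    (k : Ti X) (v : (slC hLa hC n hn).Vx k) (hv : v.1 ∈ P (T.H q)) (j : ℕ) :
    v ∉ ((Tw.tw k (Sum.inr m)).mv j).Qv := by
  intro hQ
  have hμ := N.hμ
  have hμb := N.hμb
  have hk0 : nbA Φ X k (Sum.inr m) := qv_nb D tt hQ
  have hk : coT m = k := hk0
  subst hk
  have hrg := tt.rgn (coT m) (Sum.inr m) j v hQ
  have hZ := bz_rec N H hLa hC bar m
  have hfr : v.1 ∈ frontier (KJ T (J m.co)) := v.2.2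
  have o1 := abs_le.1 (hZ.osc q x hx h1 h2 v.1 hv)
  have o2 := abs_le.1 (hZ.near v.1 hfr)
  rcases hg with hg | hg
  · have hi : ((Tw.tw (coT m) (Sum.inr m)).mv j).i0 = Sum.inr m := by
      have key : ∀ w ∈ (trc (slC hLa hC n hn).hH (slC hLa hC n hn).dis (stB hGB bp bm) r (coT m)
          (Sum.inr m)).P, (trc (slC hLa hC n hn).hH (slC hLa hC n hn).dis (stB hGB bp bm) r (coT m)
          (Sum.inr m)).lab w = ((Tw.tw (coT m) (Sum.inr m)).mv j).i0 →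
          ((Tw.tw (coT m) (Sum.inr m)).mv j).i0 = Sum.inr m := by
        intro w hw hl
        obtain ⟨k1, k2, k4⟩ := trc_P hw
        rw [← hl]
        show (stB hGB bp bm).lab w = Sum.inr m
        rcases hj : (stB hGB bp bm).lab w with j | m'
        · rw [hj] at k4; cases k4
        · rw [hj] at k4
          exact congrArg Sum.inr (Sum.inr_injective k4)
      rcases hrg with ⟨w, hw, hl, -⟩ | ⟨w, hw, w', -, hl, -⟩
      · exact key w hw hl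
      · exact key w hw hl
    rw [hi] at hrg
    have h3 := g_rgn N H bar D lo tt m v hrg
    linarith [o1.1, o1.2, o2.1, o2.2]
  · exact not_rgn_far N H bar D lo tt m (v := v) (by linarith [o1.1, o1.2, o2.1, o2.2]) _ hrg

end s2

end Crest.Agent.R096.Nvm1_985
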