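import Crest.Agent.R096.Hop1_895
import Crest.Agent.R096.Nef3_778
import Crest.Agent.R096.Nvm1_985
import Crest.Agent.R096.Afr1_543
import Crest.Agent.R096.Gt1_664
import Crest.Agent.R096.Chz1_493

/-!
# Row 96, DOORS, NE1 (helper493): **`NE1M`** from 778's `encl_core`

The point of the end wall at the gauge `ρ3 + 9 d` (664's `exists_wall`) is not enclosed.
-/

set_option autoImplicit false
set_option linter.unusedSectionVars false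
set_option linter.unusedVariables false
set_option linter.style.longLine false

open Set Topology Filter Metric Module Relation MeasureTheory
open scoped Classical

namespace Crest.Agent.R096.Nem_493

open Crest.Agent.R096.Msh_715 Crest.Agent.R096.Coh_184 Crest.Agent.R096.Lab_184
  Crest.Agent.R096.Main_4 Crest.Agent.R096.Agl5_543
  Crest.Agent.R096.Seq_213 Crest.Agent.R096.St_147 Crest.Agent.R096.Door_501
  Crest.Agent.R096.Twr_438 Crest.Agent.R096.Exa_560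
  Crest.Agent.R096.Ess3_95 Crest.Agent.R096.Ess4_95 Crest.Agent.R096.Ac_117 Crest.Agent.R096.Lm_117
  Crest.Agent.R096.Dfi_539 Crest.Agent.R096.Dfi_471 Crest.Agent.R096.Dfo_539
  Crest.Agent.R096.Sla_184 Crest.Agent.R096.Gm_298
  Crest.Agent.R096.Brk1_582 Crest.Agent.R096.Brk2_582 Crest.Agent.R096.Brk3_582
  Crest.Agent.R096.Brk5_582 Crest.Agent.R096.Bsp_628 Crest.Agent.R096.Init_543
  Crest.Agent.R096.Lv3_471 Crest.Agent.R096.Lv4_471 Crest.Agent.R096.Slt_471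
  Crest.Agent.R096.Dib_438 Crest.Agent.R096.Rop_441 Crest.Agent.R096.Frk_441
  Crest.Agent.R096.Dff_539 Crest.Agent.R096.Frs_662 Crest.Agent.R096.Qdl_662
  Crest.Agent.R096.Cg_501 Crest.Agent.R096.SecW_892 Crest.Agent.R096.Sgd_298
  Crest.Agent.R096.Dfg_539 Crest.Agent.R096.Nmd1_698 Crest.Agent.R096.Civ_662
  Crest.Agent.R096.Lbc_334 Crest.Agent.R096.Bar_106 Crest.Agent.R096.Bgf_4
  Crest.Agent.R096.Ebr4_95 Crest.Agent.R096.Ess5_95 Crest.Agent.R096.Cns_778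
  Crest.Agent.R096.Nef_778
open Crest.Agent.R096.Sgo_298 (RmA rout ActR)
open Crest.Agent.R096.Mbf_337 (KJ Tiny Cores Fine sb gau Star Levels Words)
open Crest.Agent.R096.SkC1_961 (E3 FoamD Hom3)
open Crest.Agent.R096.Frn_337 (Ti)
open Crest.Agent.R096.Ess7_95 (KT Sh)
open Crest.Agent.R096.Dia_316 (nbT)
open Crest.Agent.R096.Dfn_416 (BarS)
open Crest.Agent.R096.Bmf_416 (coT coT_fin)
open Crest.Agent.R096.Sde_422 (gR bz_rec ga_ge)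

/-- a `U`-shaped path in the plane is connected -/
theorem preconn_U {s0 s1 w1 : ℝ} (hs : s0 ≤ s1) (hw : 0 ≤ w1) :
    IsPreconnected ((Icc s0 s1 ×ˢ {(0 : ℝ)}) ∪ (({s0} : Set ℝ) ×ˢ Icc 0 w1) ∪
      (Icc s0 s1 ×ˢ {w1})) := by
  have a1 : IsPreconnected (Icc s0 s1 ×ˢ {(0 : ℝ)}) :=
    isPreconnected_Icc.prod isPreconnected_singleton
  have a2 : IsPreconnected (({s0} : Set ℝ) ×ˢ Icc 0 w1) :=
    isPreconnected_singleton.prod isPreconnected_Icc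
  have a3 : IsPreconnected (Icc s0 s1 ×ˢ {w1}) :=
    isPreconnected_Icc.prod isPreconnected_singleton
  refine IsPreconnected.union (s0, w1) ?_ ?_ (IsPreconnected.union (s0, 0) ?_ ?_ a1 a2) a3
  · exact Or.inr ⟨rfl, ⟨hw, le_rfl⟩⟩
  · exact ⟨⟨le_rfl, hs⟩, rfl⟩
  · exact ⟨⟨le_rfl, hs⟩, rfl⟩
  · exact ⟨rfl, ⟨le_rfl, hw⟩⟩

theorem ne1M : Hop_895.NE1M := by
  intro δ κ0 R c0 κ2 κ3 κp μ κ1 Om La f g hLa Φ ι T X J0 J V ct A lam z θ φ M hC ct' r₀ hR hM h1 h2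
    L _ hG D bp lam₀ v₀ v₁ r v0 v1 ρ1 ρ2 ρ3 ρ4 d q₀ ε bm hGB v0B v1B n hn Lv Tw MM _ hnC l0' m
  have N := MM.N
  have bar := MM.bar
  have H := hR.hm
  have hμ := N.hμ
  have hμb := N.hμb
  have hRm : RmA Φ T f X J0 J V θ ρ1 ρ2 ρ3 ρ4 d := rmA_of bar
  have hr := hRm m.co m.co_notMem
  have hT := hC.tiny m.co m.co_notMem
  have hd0 := hr.d0
  obtain ⟨n1, n2, n3, n4, n5, n6⟩ := N.base
  have hdκ : d m.co ≤ κ1 := (bar.rm m.co m.co_notMem).1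
  obtain ⟨lm, hlm, LOW, HIGH⟩ := bar.lab m
  have hdm : d m.co ≤ μ ^ 2 / 512 := by nlinarith
  obtain ⟨w0, w1, w2, w3, w4, w5, w6, w7, qw, hqV, hwq, xw, hxw, hxg, hxl, -⟩ :=
    Wy_664.exists_wall hLa N.hδ N.hR H hμ (by linarith) le_rfl bar.barF hGB bar.lv m hdm hlm
      LOW HIGH
  by_contra hno
  push Not at hno
  obtain ⟨Y, hY0, hY1, hY2, hY3⟩ := hno w0 w1 w2 (by linarith)
  -- numbers
  have hZ := bz_rec N H hLa hC bar m
  have hε := bar.lv m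
  have hε1 : 1 < ε m := hε.1
  have hε2 : ε m ≤ 1 + μ / 16 := hε.2.le.trans (hiB_le _ _)
  have hh := bar.barF.h0 m
  have hhε : Bgf_4.hB ρ1 ρ3 d m.co * 1 ≤ Bgf_4.hB ρ1 ρ3 d m.co * ε m :=
    mul_le_mul_of_nonneg_left hε1.le hh.le
  have e1 := rB_sub (ρ1 := ρ1) (ρ3 := ρ3) (d := d) m.co
  have e2 := rB_add (ρ1 := ρ1) (ρ3 := ρ3) (d := d) m.co
  have hω := N.om hdκ
  have hra : 0 < 1 / 2 - 5 * μ / 16 := N.ra0
  obtain ⟨p, q, hMo⟩ := m.mo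
  -- the chart
  have hw1 : μ / 4 ≤ 1 := by linarith
  obtain ⟨Wz, c1, c2, c3, c4, c5⟩ := Chz_493.exists_chart hLa H bar.barF m hMo (s0 := ρ1 m.co)
    (s1 := ρ3 m.co + 9 * d m.co) (t0 := 3 * μ / 8) (w1 := μ / 4) hr.r1
    (by show ρ3 m.co + 9 * d m.co ≤ ρ4 m.co; linarith [hr.r34])
    ⟨by linarith, by linarith⟩ hw1
  set Rc : Set (ℝ × ℝ) := Icc (ρ1 m.co) (ρ3 m.co + 9 * d m.co) ×ˢ Icc (0 : ℝ) (μ / 4) with hRc
  have hs01 : ρ1 m.co ≤ ρ3 m.co + 9 * d m.co := by linarith [hr.r12, hr.r23]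
  have hga1 : ∀ z ∈ Rc, ρ1 m.co ≤ ga Φ m.co (f (Wz z)) ∧
      ga Φ m.co (f (Wz z)) ≤ ρ3 m.co + 9 * d m.co ∧ ga Φ m.co (f (Wz z)) ≤ ρ4 m.co := by
    intro z hz
    have h3 : ga Φ m.co (f (Wz z)) = z.1 := (c3 z hz).2.1
    rw [h3]
    exact ⟨hz.1.1, hz.1.2, by linarith [hz.1.2, hr.r34]⟩
  have hlev : ∀ z ∈ Rc, Φ.lev m.am (f (Wz z)) = 3 * μ / 8 := fun z hz => (c3 z hz).2.2.2.1
  have hgR : ∀ z ∈ Rc, gR Φ X μ m (Φ.Psi (f (Wz z))) =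
      max (z.2 / (μ / 8)) (|3 * μ / 8 - 1 / 2| / (1 / 2 - 5 * μ / 16)) := fun z hz =>
    (c3 z hz).2.2.2.2.2 _ _ _ N.l0
  have hA1 : |3 * μ / 8 - 1 / 2| / (1 / 2 - 5 * μ / 16) ≤ 1 - μ / 8 := by
    rw [abs_of_nonpos (by linarith), div_le_iff₀ hra]
    nlinarith
  have hA0 : 0 ≤ |3 * μ / 8 - 1 / 2| / (1 / 2 - 5 * μ / 16) := div_nonneg (abs_nonneg _) hra.le
  -- low and high
  have hlow : ∀ z ∈ Rc, z.2 = 0 → gR Φ X μ m (Φ.Psi (f (Wz z))) ≤ 1 - μ / 8 := by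
    intro z hz h0
    rw [hgR z hz, h0, zero_div]
    exact max_le (hA0.trans hA1) hA1
  have hhigh : ∀ z ∈ Rc, z.2 = μ / 4 → gR Φ X μ m (Φ.Psi (f (Wz z))) = 2 := by
    intro z hz h0
    rw [hgR z hz, h0]
    have h3 : μ / 4 / (μ / 8) = 2 := by
      rw [div_eq_iff (by linarith)]; ring
    rw [h3]
    exact max_eq_left (by linarith)
  -- tiles which meet the core of the barrier
  have hcore : ∀ q' x, x ∈ P (T.H q') → ga Φ m.co (f x) ≤ ρ4 m.co → ∀ c : Ti X,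
      P (T.H q') ⊆ (slC hLa hC n hn).K c → c.1 = m.co := by
    intro q' x hx hg c hc
    have hV : q' ∈ V m.co := hr.v q' ⟨x, hx, hg⟩
    have hJ' : q' ∈ J c.1 := Slt_471.sub_KJ_iff.1 hc
    by_contra hne
    exact Set.disjoint_left.1 (hC.disj c.1 m.co hne) ((hC.tiny c.1 c.2).sub hJ') hV
  have hDO : Wz '' Rc ⊆ Om := by
    rintro _ ⟨z, hz, rfl⟩
    exact (c3 z hz).1
  -- the three parts
  set Kp : Set (ℝ × ℝ) := (Icc (ρ1 m.co) (ρ3 m.co + 9 * d m.co) ×ˢ {(0 : ℝ)}) ∪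
    (({ρ1 m.co} : Set ℝ) ×ˢ Icc 0 (μ / 4)) ∪
      (Icc (ρ1 m.co) (ρ3 m.co + 9 * d m.co) ×ˢ {μ / 4}) with hKp
  have hKR : Kp ⊆ Rc := by
    rintro z ((⟨a1, a2⟩ | ⟨a1, a2⟩) | ⟨a1, a2⟩)
    · have a2' : z.2 = 0 := a2
      exact ⟨a1, by rw [a2']; exact ⟨le_rfl, by linarith⟩⟩
    · have a1' : z.1 = ρ1 m.co := a1
      exact ⟨by rw [a1']; exact ⟨le_rfl, hs01⟩, a2⟩
    · have a2' : z.2 = μ / 4 := a2
      exact ⟨a1, by rw [a2']; exact ⟨by linarith, le_rfl⟩⟩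
  set Tp : Set (ℝ × ℝ) := ({ρ3 m.co + 9 * d m.co} : Set ℝ) ×ˢ Icc (0 : ℝ) (μ / 4) with hTp
  have hTR : Tp ⊆ Rc := by
    rintro z ⟨a1, a2⟩
    have a1' : z.1 = ρ3 m.co + 9 * d m.co := a1
    exact ⟨by rw [a1']; exact ⟨hs01, le_rfl⟩, a2⟩
  have hcases : ∀ z ∈ Kp, z.2 = 0 ∨ z.1 = ρ1 m.co ∨ z.2 = μ / 4 := by
    rintro z ((⟨a1, a2⟩ | ⟨a1, a2⟩) | ⟨a1, a2⟩)
    · exact Or.inl a2
    · exact Or.inr (Or.inl a1)
    · exact Or.inr (Or.inr a2)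
  -- the barrier points on the tiles of the column
  have h0 : ∀ q', (P (T.H q') ∩ Wz '' Kp).Nonempty →
      (∀ c, ¬ P (T.H q') ⊆ (slC hLa hC n hn).K c) → ∀ w ∈ (stB hGB bp bm).P,
      (stB hGB bp bm).lab w = Sum.inr m → w ∉ P (T.H q') := by
    rintro q' ⟨x, hxq, z, hzK, rfl⟩ hqo w hw hl hwq
    have hz := hKR hzK
    obtain ⟨g1, g2, g3⟩ := hga1 z hz
    obtain ⟨-, -, -, -, b1, b2, b3, b4⟩ := bar.pos m w hw hl
    have o1 := abs_le.1 (hr.tile_osc hxq g1 g3 hwq).1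
    have o2 := abs_le.1 (bar.barF.osc m q' _ hxq g1 g3 w hwq)
    have o2a : gR Φ X μ m (Φ.Psi (f (Wz z))) - gR Φ X μ m (Φ.Psi (f w)) ≤ μ / 4096 :=
      o2.2.trans hω
    have o2b : -(μ / 4096) ≤ gR Φ X μ m (Φ.Psi (f (Wz z))) - gR Φ X μ m (Φ.Psi (f w)) :=
      le_trans (by linarith [hω]) o2.1
    have b3' : gR Φ X μ m (Φ.Psi (f w)) ≤ ε m := b3
    have hge : ∀ y ∈ P (T.H q'), ρ2 m.co ≤ ga Φ m.co (f y) := fun y hy =>
      ga_ge hLa H hC m.co_notMem hZ (T.sub _ hy)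
        (notInt_tile (S := slC hLa hC n hn) hLa H hC m.co_notMem hZ ⟨coT m, rfl⟩ hqo hy)
    have g4 := hge w hwq
    have g5 := hge _ hxq
    rcases hcases z hzK with h3 | h3 | h3
    · have h4 := hlow z hz h3
      rcases b4 with b4 | b4 | b4
      · linarith [hr.r12]
      · linarith
      · have b4' : gR Φ X μ m (Φ.Psi (f w)) = ε m := b4
        linarith
    · have h5 : ga Φ m.co (f (Wz z)) = z.1 := (c3 z hz).2.1
      rw [h5, h3] at g5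
      linarith [hr.r12]
    · have h4 := hhigh z hz h3
      linarith
  -- the moved vertices on the tiles of the column
  have h0' : ∀ q', (P (T.H q') ∩ Wz '' Kp).Nonempty → ∀ c, P (T.H q') ⊆ (slC hLa hC n hn).K c →
      ∀ v : (slC hLa hC n hn).Vx c, v.1 ∈ P (T.H q') → ∀ j < (slC hLa hC n hn).n c,
        v ∉ ((Tw.tw c (Sum.inr m)).mv j).Qv := by
    rintro q' ⟨x, hxq, z, hzK, rfl⟩ c hc v hv j hj
    have hz := hKR hzK
    obtain ⟨g1, g2, g3⟩ := hga1 z hz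
    rcases hcases z hzK with h3 | h3 | h3
    · exact Nvm1_985.never_m N H bar MM.din MM.lo MM.tt m hxq g1 g3 (Or.inl (hlow z hz h3)) c v hv j
    · intro hQ
      have hcm : c.1 = m.co := hcore q' _ hxq g3 c hc
      have hfr : v.1 ∈ frontier (KJ T (J m.co)) := by
        rw [← hcm]; exact v.2.2
      have g6 := hr.fr v.1 hfr
      have o1 := abs_le.1 (hr.tile_osc hxq g1 g3 hv).1
      have h5 : ga Φ m.co (f (Wz z)) = z.1 := (c3 z hz).2.1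
      rw [h5, h3] at o1
      linarith [hr.r12, g6.1, o1.1]
    · exact Nvm1_985.never_m N H bar MM.din MM.lo MM.tt m hxq g1 g3
        (Or.inr (hhigh z hz h3).ge) c v hv j
  -- the tiles of the top path are outside the cores
  have hout : ∀ q', (P (T.H q') ∩ Wz '' Tp).Nonempty →
      ∀ c, ¬ P (T.H q') ⊆ (slC hLa hC n hn).K c := by
    rintro q' ⟨x, hxq, z, hzT, rfl⟩ c hc
    have hz := hTR hzT
    obtain ⟨g1, g2, g3⟩ := hga1 z hz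
    have hcm : c.1 = m.co := hcore q' _ hxq g3 c hc
    have h3 : Wz z ∈ KJ T (J m.co) := by
      rw [← hcm]; exact hc hxq
    have h4 := Sgo_298.ga_core hLa H hC hRm m.co_notMem h3
    have h5 : ga Φ m.co (f (Wz z)) = z.1 := (c3 z hz).2.1
    have h6 : z.1 = ρ3 m.co + 9 * d m.co := hzT.1
    have h7 : ga Φ m.co (f (Wz z)) ≤ ρ3 m.co := h4
    rw [h5, h6] at h7
    linarith
  -- the family of the barrier is not there
  have hfT : ∀ q', (P (T.H q') ∩ Wz '' Rc).Nonempty → FreeT (stB hGB bp bm)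
      (fam := fun j : JJ Φ L => j.1) (BM.am m) q' := by
    rintro q' ⟨x, hxq, z, hz, rfl⟩ F hF y hy hyF i hl
    obtain ⟨g1, g2, g3⟩ := hga1 z hz
    exact Afr_543.afree_out N bar hR hLa MM.barS MM.lev hxq g1 g3 (hlev z hz).le F hF y hy hyF i hl
  have hfL : ∀ q', (P (T.H q') ∩ Wz '' Rc).Nonempty → FreeL Tw (BM.am m) q' := by
    rintro q' ⟨x, hxq, z, hz, rfl⟩ k e he j hj
    obtain ⟨g1, g2, g3⟩ := hga1 z hz
    exact Afr_543.afree_in N bar MM.din MM.lo MM.tt hR MM.barS MM.lev MM.v0l MM.v1l hxq g1 g3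
      (hlev z hz).le k e he j hj
  -- the top part
  obtain ⟨Gn, t1, t2, t3, t4⟩ := Gt_664.exists_Gn hμ hμb (by linarith) hLa H bar
  have U := upp_m (hLa := hLa) (hC := hC) (n := n) (hn := hn) (r := r) hR hμ MM.lev bar
  have hw0G : w0 ∈ Gn m := t4 m w0 w1 w2 ⟨qw, hwq, xw, hxw, hxg, hxl⟩
  have hsub := conn_sub (S := slC hLa hC n hn) (Tw := Tw) (l0 := l0') (am := BM.am) (a := BM.am m)
    U t1 (fun m => (t2 m).trans (gmT_sub hRm m)) (m := m) rfl (hY1 w0 hY0).1 (hY1 w0 hY0).2 hw0G hY0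
    (by
      rintro F ⟨m', hm', F0, rfl, q', hq', x, hxq, hxG⟩ y hyY hA hly
      refine hY2 (Sla.old F0) y hyY hA (nox_old ?_ y)
      intro u hu huF i hl
      rw [← hm']
      have hd' : d m'.co ≤ κ1 := (bar.rm m'.co m'.co_notMem).1
      have hr' := hRm m'.co m'.co_notMem
      obtain ⟨k1, k2, k3⟩ := t2 m' hxG
      obtain ⟨c1', c2', c3', c4', c5', c6', c7'⟩ := caps bar.barF bar.lv m'
      have k3' : ρ3 m'.co + 7 * d m'.co ≤ ga Φ m'.co (f x) := k3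
      have k4 : ga Φ m'.co (f x) ≤ rB ρ1 ρ3 d m'.co + Bgf_4.hB ρ1 ρ3 d m'.co * ε m' :=
        (bar.barF.pos (bar.lv m').2 k2).2.1
      exact Afr_543.afree_out' N bar hR hLa MM.barS MM.lev hxq (by linarith)
        (by linarith) (α := 3 * μ / 8 + 2 * d m'.co) (by linarith)
        (Or.inl (t3 m' x hxG)) F0.1 hq' hu huF hl)
  have hall : ∀ q', (P (T.H q') ∩ Wz '' Tp).Nonempty → ∀ w ∈ (stB hGB bp bm).P,
      (stB hGB bp bm).lab w = Sum.inr m → w ∈ P (T.H q') →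
      w ∈ (outK (slC hLa hC n hn).hH (slC hLa hC n hn).dis (stB hGB bp bm) (Sum.elim r bm)).P ∧
        w ∈ Y := by
    rintro q' ⟨x, hxq, z, hzT, rfl⟩ w hw hl hwq'
    have hz := hTR hzT
    have h5 : ga Φ m.co (f (Wz z)) = z.1 := (c3 z hz).2.1
    have h6 : z.1 = ρ3 m.co + 9 * d m.co := hzT.1
    have hwG : w ∈ Gn m := t4 m w hw hl ⟨q', hwq', _, hxq, h5.trans h6, (hlev z hz).le⟩
    have hcl := cl_of hw hl hwG
    exact ⟨(U.mem_out (cl_mono ((t2 m).trans (gmT_sub hRm m)) hcl)).1, hsub hcl⟩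
  -- the two ends
  have hx0 : ((ρ3 m.co + 9 * d m.co, 0) : ℝ × ℝ) ∈ Kp := Or.inl (Or.inl ⟨⟨hs01, le_rfl⟩, rfl⟩)
  have hy0 : ((ρ3 m.co + 9 * d m.co, μ / 4) : ℝ × ℝ) ∈ Kp := Or.inr ⟨⟨hs01, le_rfl⟩, rfl⟩
  have hx1 : ((ρ3 m.co + 9 * d m.co, 0) : ℝ × ℝ) ∈ Tp := ⟨rfl, ⟨le_rfl, by linarith⟩⟩
  have hy1 : ((ρ3 m.co + 9 * d m.co, μ / 4) : ℝ × ℝ) ∈ Tp := ⟨rfl, ⟨by linarith, le_rfl⟩⟩
  obtain ⟨qx, hqx⟩ := T.cov _ (hDO ⟨_, hTR hx1, rfl⟩)
  obtain ⟨qy, hqy⟩ := T.cov _ (hDO ⟨_, hTR hy1, rfl⟩)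
  obtain ⟨v, hv, hv0⟩ := exists_vertex_tile hqx
  obtain ⟨w, hw, hw0⟩ := exists_vertex_tile hqy
  have key := encl_core (S := slC hLa hC n hn) (s := stB hGB bp bm) (r := Sum.elim r bm) (Tw := Tw)
    (l0 := l0') (am := BM.am) (fam := fun j : JJ Φ L => j.1) (R := Rdc T f Xᶜ (rout ρ3 d)) (m := m)
    (Y := Y) (D := Wz '' Rc) (K := Wz '' Kp) (K' := Wz '' Tp) MM.tt hY1 hY2 hY3 c4 hDO c5 hfT hfL
    (image_mono hKR) ((preconn_U hs01 (by linarith)).image _ (c1.mono hKR)) (image_mono hTR)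
    ((isPreconnected_singleton.prod isPreconnected_Icc).image _ (c1.mono hTR)) h0 h0' hout hall
    hlm.lab ⟨_, hx0, rfl⟩ ⟨_, hx1, rfl⟩ ⟨_, hy0, rfl⟩ ⟨_, hy1, rfl⟩ ⟨qx, hv, hqx⟩ ⟨qy, hw, hqy⟩
    hv0 hw0
  -- the labels
  have hGM : GM Φ m.co (gR Φ X μ m) 0 (1 + μ / 2) :=
    gm_moat hLa N.hδ N.hR hMo (Ebr6_95.nm_rec hμ (by linarith))
  obtain ⟨pl, hPol⟩ := bar.barF.pol hLa m
  have hlv : lm v = 1 := by
    have hz := hTR hx1
    obtain ⟨g1, g2, g3⟩ := hga1 _ hz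
    have h5 : ga Φ m.co (f (Wz (ρ3 m.co + 9 * d m.co, 0))) = ρ3 m.co + 9 * d m.co := (c3 _ hz).2.1
    have o1 := abs_le.1 (hr.tile_osc hqx g1 g3 hv).1
    have o2 := abs_le.1 (bar.barF.osc m qx _ hqx g1 g3 v hv)
    have o2b : -(μ / 4096) ≤ gR Φ X μ m (Φ.Psi (f (Wz (ρ3 m.co + 9 * d m.co, 0)))) -
        gR Φ X μ m (Φ.Psi (f v)) := le_trans (by linarith [hω]) o2.1
    have h4 := hlow _ hz rfl
    rw [h5] at o1
    refine LOW (1 - μ / 16) (by linarith [hω]) (hGM.le_conn hPol ⟨by linarith, by linarith⟩)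
      (by linarith) v (T.sub qx hv) hv0 (by linarith [o1.1, o1.2, hr.r12, hr.r23])
      (by linarith [o1.1, o1.2]) ?_
    show gR Φ X μ m (Φ.Psi (f v)) ≤ 1 - μ / 16
    linarith
  have hlw : lm w = 0 := by
    have hz := hTR hy1
    obtain ⟨g1, g2, g3⟩ := hga1 _ hz
    have o2 := abs_le.1 (bar.barF.osc m qy _ hqy g1 g3 w hw)
    have o2a : gR Φ X μ m (Φ.Psi (f (Wz (ρ3 m.co + 9 * d m.co, μ / 4)))) -
        gR Φ X μ m (Φ.Psi (f w)) ≤ μ / 4096 := o2.2.trans hω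
    have h4 := hhigh _ hz rfl
    refine HIGH (1 + μ / 4) (by linarith [hω]) (hGM.ge_conn hPol ⟨by linarith, by linarith⟩) ?_ w
      (T.sub qy hw) hw0 (Or.inr (Or.inr ?_))
    · obtain ⟨q1, h5, h6⟩ := hGM.high
      exact ⟨q1, h5, le_trans (by linarith) h6⟩
    · show 1 + μ / 4 ≤ gR Φ X μ m (Φ.Psi (f w))
      linarith
  rw [hlv, hlw] at key
  exact one_ne_zero key

end Crest.Agent.R096.Nem_493
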