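import Crest.Agent.R096.At8_241
import Crest.Agent.R096.Init4_543

/-!
# R096 (row 96), ARR-INST part 10 (helper241): the instance of `QPos` for helper543's quads

`TQ` : the tiles of a mesh over the tiles of a tiling `T` (tiles of `T`, layered cells, giants);
`qpos_of` : `QPos` from 543's `key`;
`pts_of` : the clause `pts` of `QSt` from the positions of the points.
-/

set_option autoImplicit false
set_option linter.unusedSectionVars false
set_option linter.unusedVariables false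
set_option linter.style.longLine false

open Set Metric Topology Module

namespace Crest.Agent.R096.At_241

open Crest.Agent.R096.St_147 Crest.Agent.R096.Seq_213 Crest.Agent.R096.Lm_117
  Crest.Agent.R096.Init_543 Crest.Agent.R096.Coh_184 Crest.Agent.R096.Msh_715
open Crest.Agent.R096.Brk1_582 (Foam fc mem_fc)

/-- **the tiles of the mesh over the tiles of `T`**: `ord τ` = tile outside all cores, `tc τ` = its
3-cell, `tt τ` = the tile of `T` which contains it, `core c` = the tile of the core `c` -/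
structure TQ {ιM ι Φ W Q I : Type} {M : MeshC ιM Φ W} [PartialOrder Q] {dim : Q → ℕ}
    (L : LM M Q dim) (Kor : Set ι) (tc : ιM → Q) (ord : ιM → Prop) (tt : ιM → ι) (core : I → ιM) :
    Prop where
  dim3 : ∀ τ, ord τ → dim (tc τ) = 3
  side : ∀ τ, ord τ → ∀ F, (τ ∈ M.side F ↔ L.cf F ≤ tc τ)
  tc_inj : ∀ τ τ', ord τ → ord τ' → tc τ = tc τ' → τ = τ'
  top : ∀ q : Q, ∃ τ, ord τ ∧ q ≤ tc τ
  nord : ∀ c, ¬ ord (core c)
  inj : Function.Injective core
  kor : ∀ τ, ord τ → tt τ ∉ Kor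

variable {E V : Type} [NormedAddCommGroup E] [NormedSpace ℝ E] [FiniteDimensional ℝ E]
  [NormedAddCommGroup V] [NormedSpace ℝ V] [FiniteDimensional ℝ V]
variable {I ι : Type} {Om : Set E} {La : Set V} {P : I → Set V} {b : Set I → V}
  {R : V → V} {f : E → V} {g : V → E} {T : Tiling Om ι} {Kor : Set ι} {ε s : ℝ}
variable {ιM Φ W Q : Type} {M : MeshC ιM Φ W} [PartialOrder Q] {dim : Q → ℕ}
  {L : LM M Q dim} {tc : ιM → Q} {ord : ιM → Prop} {tt : ιM → ι} {core : I → ιM}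
  {xq : Q → E} {Qd : Quads ιM I (QK P)}

/-- the families of a quad -/
theorem qin_iff (hpr : ∀ k β, Qd.pr k β = k.pr β) {k : QK P} {a : I} : Qd.In k a ↔ a ∈ k.B := by
  rw [k.mem_B]
  exact ⟨fun ⟨β, h⟩ => ⟨β, by rw [← hpr]; exact h⟩, fun ⟨β, h⟩ => ⟨β, by rw [hpr]; exact h⟩⟩

theorem qin_eq (hpr : ∀ k β, Qd.pr k β = k.pr β) (k : QK P) : {a | Qd.In k a} = k.B := by
  ext a; exact qin_iff hpr

/-- **`QPos` from the position of the tiles** -/
theorem qpos_of (TQ₀ : TQ L Kor tc ord tt core) (H : Hm f g Om La) (F : Foam La P b 4)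
    (hR : Ret La P R) (hM : Mesh0 T P b R f Kor ε) (hε : ε < s) (hε1 : ε < 1)
    (hpr : ∀ k β, Qd.pr k β = k.pr β)
    (hact : ∀ k, ∀ τ ∈ Qd.Act k, ord τ ∧ tt τ ∈ Act0 T P b R f Kor s k)
    (hxq : ∀ τ, ord τ → xq (tc τ) ∈ Msh_715.P (T.H (tt τ))) :
    QPos L Qd P (fun q a => va P b R f a (xq q)) tc ord (fun k => k.Z) core where
  dim3 := TQ₀.dim3
  side := TQ₀.side
  tc_inj := TQ₀.tc_inj
  top := TQ₀.top
  nord := TQ₀.nord
  inj := TQ₀.inj
  cZ := fun k => k.cZ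
  act_ord := fun k τ hτ => (hact k τ hτ).1
  act_pos := fun k τ hτ a ha => by
    obtain ⟨h1, h2, x₀, h3, h4, h5⟩ := hact k τ hτ
    have h6 := (key H F hR hM hε hε1 h2 h3 (hxq τ h1) h4 h5).1 a ((qin_iff hpr).1 ha)
    constructor
    · linarith [h6.1]
    · linarith [h6.2]
  act_zero := fun k τ hτ a ha => by
    obtain ⟨h1, h2, x₀, h3, h4, h5⟩ := hact k τ hτ
    exact (key H F hR hM hε hε1 h2 h3 (hxq τ h1) h4 h5).2.1 a ha
  sq := fun B Z₀ hB hZ hd hne => ⟨⟨B, Z₀, hB, hZ, hd, hne⟩, qin_eq hpr _, rfl⟩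
  uniq := fun k k' hB hZ => by
    rw [qin_eq hpr, qin_eq hpr] at hB
    exact QK.ext hB hZ

/-- **the clause `pts`** : a tile over the quad with points of both families is active -/
theorem pts_of {J : Type} {fam : J → I} {s₀ : GSt M fam}
    (TQ₀ : TQ L Kor tc ord tt core) (hM : Mesh0 T P b R f Kor ε) {s' : ℝ} (hs' : s + ε ≤ s')
    (hpr : ∀ k β, Qd.pr k β = k.pr β)
    (hact' : ∀ k τ, ord τ → tt τ ∈ Act0 T P b R f Kor s k → τ ∈ Qd.Act k)
    (hxq : ∀ τ, ord τ → xq (tc τ) ∈ Msh_715.P (T.H (tt τ)))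
    (hpos : ∀ τ, ord τ → ∀ w, w ∈ s₀.P → w ∈ L.toSk.In (tc τ) →
      ∃ x ∈ Msh_715.P (T.H (tt τ)), va P b R f (fam (s₀.lab w)) x ∈ Icc s' (1 - s'))
    (k : QK P) (τ : ιM) (hτ : ord τ) (w w' : W) (hw : w ∈ s₀.P) (hwt : w ∈ L.toSk.In (tc τ))
    (hw' : w' ∈ s₀.P) (hwt' : w' ∈ L.toSk.In (tc τ)) (hf : fam (s₀.lab w) = Qd.pr k true)
    (hf' : fam (s₀.lab w') = Qd.pr k false)
    (hz : ∀ a ∈ k.Z, va P b R f a (xq (tc τ)) = 0) : τ ∈ Qd.Act k := by
  have hv : ∀ u, u ∈ s₀.P → u ∈ L.toSk.In (tc τ) →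
      va P b R f (fam (s₀.lab u)) (xq (tc τ)) ∈ Icc s (1 - s) := by
    intro u hu hut
    obtain ⟨x, hx, h1⟩ := hpos τ hτ u hu hut
    have h2 := abs_le.1 (hM.osc _ (TQ₀.kor τ hτ) _ (hxq τ hτ) _ hx (fam (s₀.lab u)))
    constructor
    · linarith [h1.1, h2.1, h2.2]
    · linarith [h1.2, h2.1, h2.2]
  refine hact' k τ hτ ⟨TQ₀.kor τ hτ, xq (tc τ), hxq τ hτ, fun a ha => ?_, hz⟩
  rw [k.mem_B] at ha
  obtain ⟨β, rfl⟩ := ha
  cases β with
  | true =>
    have := hv w hw hwt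
    rwa [hf, hpr] at this
  | false =>
    have := hv w' hw' hwt'
    rwa [hf', hpr] at this

end Crest.Agent.R096.At_241
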