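import Crest.Agent.R096.Shg5_334
import Crest.Agent.R096.Mrg7_715
import Crest.Agent.R096.Nr2_527

/-!
# R096 (row 96), ARR-SH (helper334), GIANT part 6: exact tiles and tiny cores, any index type

The mesh which carries the states is `mK T KK` (715's `meshK` over the tiny cores `KK`); the family of
all cores is `Kc : 𝒢 → Set E`, `tl : 𝒢 → ι ⊕ κ` gives the tile of `mK` (an exact tile of `T` or a
tiny core).  `Q'` is any index type with an isomorphism `vl` to the cells of `T` outside ALL cores.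
-/

set_option autoImplicit false
set_option linter.unusedSectionVars false

open Set Metric Topology Module

namespace Crest.Agent.R096.Shg_334

open Crest.Agent.R096.Ce_537 Crest.Agent.R096.Bd_416 Crest.Agent.R096.Shp_334
  Crest.Agent.R096.Seq_213 Crest.Agent.R096.St_147 Crest.Agent.R096.Lm_117

section iso

variable {E : Type*} [NormedAddCommGroup E] [NormedSpace ℝ E]

/-- change of the index type of a complex -/
theorem cplx_iso {Q Q' : Type*} [PartialOrder Q] [PartialOrder Q'] {Ω : Set E} {dim : Q → ℕ}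
    {K : Q → Set E} (X : Cplx Ω Q dim K) (e : Q' ≃o Q) {dim' : Q' → ℕ} {K' : Q' → Set E}
    (hd : ∀ q, dim' q = dim (e q)) (hK : ∀ q, K' q = K (e q)) : Cplx Ω Q' dim' K' := by
  have h1 : ∀ q, (⋃ j ∈ {j | j < q}, K' j) = ⋃ j ∈ {j | j < e q}, K j := by
    intro q
    ext x
    simp only [mem_iUnion, mem_ofPred_eq, exists_prop]
    constructor
    · rintro ⟨j, hj, hx⟩
      exact ⟨e j, e.lt_iff_lt.2 hj, by rw [← hK]; exact hx⟩
    · rintro ⟨j, hj, hx⟩
      refine ⟨e.symm j, ?_, ?_⟩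
      · rw [← e.lt_iff_lt, e.apply_symm_apply]; exact hj
      · rw [hK, e.apply_symm_apply]; exact hx
  have hopn : ∀ q x, Opn K' q x → Opn K (e q) x := by
    rintro q x ⟨h2, h3⟩
    refine ⟨by rw [← hK]; exact h2, fun j hj hx => ?_⟩
    refine h3 (e.symm j) ?_ ?_
    · rw [← e.lt_iff_lt, e.apply_symm_apply]; exact hj
    · rw [hK, e.apply_symm_apply]; exact hx
  exact
    { isBall := fun q => by rw [hd, hK, h1]; exact X.isBall (e q)
      mono := fun q q' h => by rw [hd, hd]; exact X.mono _ _ (e.lt_iff_lt.2 h)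
      disj := fun q q' x h h' => e.injective (X.disj _ _ x (hopn q x h) (hopn q' x h'))
      sub := fun q => by rw [hK]; exact X.sub _
      cover := fun x hx => by
        obtain ⟨q, hq⟩ := X.cover x hx
        exact ⟨e.symm q, by rw [hK, e.apply_symm_apply]; exact hq⟩
      lf := fun x hx => by
        obtain ⟨r, hr, hf⟩ := X.lf x hx
        refine ⟨r, hr, Set.Finite.of_finite_image (f := e) (hf.subset ?_) e.injective.injOn⟩
        rintro _ ⟨q, hq, rfl⟩
        have hq' : (K' q ∩ ball x r).Nonempty := hq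
        rw [hK] at hq'
        exact hq' }

end iso

section emb

open Crest.Agent.R096.Ac_117
open Crest.Agent.R096.Msh_715 Crest.Agent.R096.Lab_184 Crest.Agent.R096.Agl5_543
  Crest.Agent.R096.Pat5_543 Crest.Agent.R096.Coh_184

variable {E : Type} [NormedAddCommGroup E] [NormedSpace ℝ E] [FiniteDimensional ℝ E]
variable {Om : Set E} {ι : Type} {T : Tiling Om ι} {κ 𝒢 : Type} {KK : κ → Set E} {Kc : 𝒢 → Set E}
variable [Nonempty T.Cell]
variable {Q' : Type} [PartialOrder Q'] {dim' : Q' → ℕ} {vl : Q' → T.Cell}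

/-- `Q'` = the cells of `T` outside the cores -/
structure Emb (T : Tiling Om ι) (Kc : 𝒢 → Set E) (dim' : Q' → ℕ) (vl : Q' → T.Cell) : Prop where
  inj : Function.Injective vl
  le : ∀ q q', q ≤ q' ↔ vl q ≤ vl q'
  dim : ∀ q, dim' q = (vl q).dim
  out : ∀ q, OutK T Kc (vl q)
  sur : ∀ c, OutK T Kc c → ∃ q, vl q = c

/-- the trivial case -/
theorem emb_QO : Emb (Q' := QO T Kc) T Kc (fun c => c.1.dim) Subtype.val where
  inj := Subtype.val_injective
  le _ _ := Iff.rfl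
  dim _ := rfl
  out q := q.2
  sur c hc := ⟨⟨c, hc⟩, rfl⟩

lemma Emb.lt (V : Emb T Kc dim' vl) (q q' : Q') : q < q' ↔ vl q < vl q' := by
  rw [lt_iff_le_not_ge, lt_iff_le_not_ge, V.le, V.le]

/-- the isomorphism -/
noncomputable def Emb.iso (V : Emb T Kc dim' vl) : Q' ≃o QO T Kc where
  toEquiv := Equiv.ofBijective (fun q => (⟨vl q, V.out q⟩ : QO T Kc))
    ⟨fun q q' h => V.inj (congrArg Subtype.val h), fun c => by
      obtain ⟨q, hq⟩ := V.sur c.1 c.2
      exact ⟨q, Subtype.ext hq⟩⟩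
  map_rel_iff' := by
    intro q q'
    exact (V.le q q').symm

/-- **the complex outside all cores** -/
theorem Emb.cplx (V : Emb T Kc dim' vl) (hH : ∀ c, CoreH T (Kc c))
    (hdis : ∀ c c', c ≠ c' → Disjoint (Kc c) (Kc c')) :
    Cplx (Om \ ⋃ k, interior (Kc k)) Q' dim' (fun q => (vl q).set) :=
  cplx_iso (cplxO hH hdis) V.iso (fun q => V.dim q) (fun _ => rfl)

/-- the boundary cells -/
def Emb.bd (V : Emb T Kc dim' vl) : BdD Q' 𝒢 where
  bq k := {q | (vl q).set ⊆ frontier (Kc k)}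
  down _ p q h hq := (Tiling.Cell.le_def.1 ((V.le p q).1 h)).trans hq

lemma Emb.bd_union (V : Emb T Kc dim' vl) (hH : ∀ c, CoreH T (Kc c))
    (hdis : ∀ c c', c ≠ c' → Disjoint (Kc c) (Kc c')) (k : 𝒢) :
    (⋃ q ∈ V.bd.bq k, (vl q).set) = frontier (Kc k) := by
  rw [← biO hH hdis k]
  ext x
  simp only [mem_iUnion, exists_prop]
  constructor
  · rintro ⟨q, hq, hx⟩
    exact ⟨⟨vl q, V.out q⟩, hq, hx⟩
  · rintro ⟨c, hc, hx⟩
    obtain ⟨q, hq⟩ := V.sur c.1 c.2
    refine ⟨q, ?_, ?_⟩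
    · show (vl q).set ⊆ _
      rw [hq]; exact hc
    · rw [hq]; exact hx

/-- **the geometric input of the giant cells** -/
theorem Emb.gc (V : Emb T Kc dim' vl) (h3 : finrank ℝ E = 3) (hH : ∀ c, CoreH T (Kc c))
    (hdis : ∀ c c', c ≠ c' → Disjoint (Kc c) (Kc c'))
    (hball : ∀ k, IsBall 3 (Kc k) (frontier (Kc k))) :
    GC (Om \ ⋃ k, interior (Kc k)) Om dim' (fun q => (vl q).set) V.bd Kc where
  sub0 := (gcO h3 hH hdis hball).sub0
  sub := (gcO h3 hH hdis hball).sub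
  cov := (gcO h3 hH hdis hball).cov
  ball k := by
    rw [V.bd_union hH hdis k]
    exact hball k
  dim_lt k c hc := by
    have : (vl c).dim ≤ 2 := cell_le_two h3 hH hc
    rw [V.dim]
    omega
  inter k := by
    rw [V.bd_union hH hdis k]
    rintro x ⟨hx, -, hx'⟩
    rw [(hH k).core.closed.frontier_eq]
    exact ⟨hx, fun h => hx' (mem_iUnion.2 ⟨k, h⟩)⟩
  disj := (gcO h3 hH hdis hball).disj
  near := (gcO h3 hH hdis hball).near
  lf := (gcO h3 hH hdis hball).lf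

/-- every cell outside lies in a 3-cell outside -/
theorem Emb.top3 (V : Emb T Kc dim' vl) (h3 : finrank ℝ E = 3) (b : BdD Q' 𝒢) :
    Top3G b dim' := by
  intro c
  obtain ⟨i, h1, h2⟩ := V.out c
  obtain ⟨q, hq⟩ := V.sur (Lm_117.tcell T i) ⟨i, h1, (Lm_117.tcell_set i).le⟩
  refine Or.inl ⟨q, ?_, ?_⟩
  · rw [V.le, hq]
    show (vl c).set ⊆ (Lm_117.tcell T i).set
    rw [Lm_117.tcell_set]
    exact h2
  · rw [V.dim, hq]
    exact Lm_117.tcell_dim h3 i

/-! ### a tile as a core -/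

omit [FiniteDimensional ℝ E] [Nonempty T.Cell] in
lemma frontier_tile (T : Tiling Om ι) (i : ι) : frontier (P (T.H i)) = P (T.H i) \ I (T.H i) := by
  have h1 : IsClosed (P (T.H i)) := isClosed_P _
  rw [h1.frontier_eq, Nr_527.interior_P' (T.ne i)]

omit [Nonempty T.Cell] in
theorem isBall_tile (h3 : finrank ℝ E = 3) (T : Tiling Om ι) (i : ι) :
    IsBall 3 (P (T.H i)) (frontier (P (T.H i))) := by
  have h1 := isBall_P_top (T.H i) (T.cpt i) (T.ne i)
  rw [h3] at h1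
  rw [frontier_tile]
  exact h1

omit [Nonempty T.Cell] in
/-- **a tile is a core** -/
theorem coreH_tile (h3 : finrank ℝ E = 3) (T : Tiling Om ι) (i : ι) : CoreH T (P (T.H i)) :=
  CoreH.of_tiles (J := {i}) h3 (by simp) (isBall_tile h3 T i)

omit [Nonempty T.Cell] in
/-- a lower cell of a tile lies in its boundary -/
lemma cell_frontier (h3 : finrank ℝ E = 3) {c : T.Cell} (hc : c.dim ≤ 2) {i : ι}
    (h : c.set ⊆ P (T.H i)) : c.set ⊆ frontier (P (T.H i)) := by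
  have h1 : c.pt ∈ P (T.H i) := h (by rw [c.set_eq]; exact T.self_mem_cc _)
  have h2 : c.pt ∈ frontier (P (T.H i)) := by
    rw [frontier_tile]
    refine ⟨h1, fun hI => ?_⟩
    have h4 := (T.V_eq_top_iff c.pt_mem).2 ⟨i, hI⟩
    have h5 : c.dim = 3 := by
      show finrank ℝ (T.V c.pt) = 3
      rw [h4, finrank_top, h3]
    omega
  rw [c.set_eq]
  exact (coreH_tile h3 T i).cc _ h2

/-! ### all cores -/

/-- the cores: exact tiles of `T` and the tiny cores `KK` -/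
structure Cor2 (T : Tiling Om ι) (KK : κ → Set E) (Kc : 𝒢 → Set E) (tl : 𝒢 → ι ⊕ κ) : Prop where
  inj : Function.Injective tl
  sur : ∀ k, ∃ a, tl a = Sum.inr k
  kk : ∀ a k, tl a = Sum.inr k → Kc a = KK k
  ct : ∀ a i, tl a = Sum.inl i → Kc a = P (T.H i)
  dis : ∀ a a', a ≠ a' → Disjoint (Kc a) (Kc a')

section cor

variable {tl : 𝒢 → ι ⊕ κ}

omit [FiniteDimensional ℝ E] [Nonempty T.Cell] in
lemma Cor2.disK (R : Cor2 T KK Kc tl) : ∀ k k', k ≠ k' → Disjoint (KK k) (KK k') := by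
  intro k k' hne
  obtain ⟨a, ha⟩ := R.sur k
  obtain ⟨a', ha'⟩ := R.sur k'
  rw [← R.kk a k ha, ← R.kk a' k' ha']
  refine R.dis a a' fun h => hne ?_
  subst h
  rw [ha] at ha'
  exact Sum.inr_injective ha'

omit [Nonempty T.Cell] in
lemma Cor2.coreH (R : Cor2 T KK Kc tl) (h3 : finrank ℝ E = 3) (hH : ∀ k, CoreH T (KK k)) (a : 𝒢) :
    CoreH T (Kc a) := by
  rcases h : tl a with i | k
  · rw [R.ct a i h]; exact coreH_tile h3 T i
  · rw [R.kk a k h]; exact hH k

omit [Nonempty T.Cell] in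
lemma Cor2.ball (R : Cor2 T KK Kc tl) (h3 : finrank ℝ E = 3)
    (hb : ∀ k, IsBall 3 (KK k) (frontier (KK k))) (a : 𝒢) :
    IsBall 3 (Kc a) (frontier (Kc a)) := by
  rcases h : tl a with i | k
  · rw [R.ct a i h]; exact isBall_tile h3 T i
  · rw [R.kk a k h]; exact hb k

omit [FiniteDimensional ℝ E] [Nonempty T.Cell] in
lemma Cor2.out_inl (R : Cor2 T KK Kc tl) {a : 𝒢} {i : ι} (h : tl a = Sum.inl i) (k : κ) :
    ¬ P (T.H i) ⊆ KK k := by
  intro hk
  obtain ⟨a', ha'⟩ := R.sur k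
  have hne : a ≠ a' := by
    rintro rfl
    rw [h] at ha'
    cases ha'
  obtain ⟨z, hz⟩ := T.ne i
  have hz' := I_sub_P _ hz
  exact Set.disjoint_left.1 (R.dis a a' hne) (by rw [R.ct a i h]; exact hz')
    (by rw [R.kk a' k ha']; exact hk hz')

omit [FiniteDimensional ℝ E] [Nonempty T.Cell] in
lemma Cor2.outK (R : Cor2 T KK Kc tl) {c : T.Cell} (h : OutK T Kc c) : OutK T KK c := by
  obtain ⟨q, h1, h2⟩ := h
  refine ⟨q, fun k hk => ?_, h2⟩
  obtain ⟨a, ha⟩ := R.sur k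
  exact h1 a (by rw [R.kk a k ha]; exact hk)

omit [FiniteDimensional ℝ E] [Nonempty T.Cell] in
/-- two tiles -/
lemma tile_sub {i i' : ι} (h : P (T.H i) ⊆ P (T.H i')) : i = i' := by
  by_contra hne
  obtain ⟨z, hz⟩ := T.ne i
  exact Set.disjoint_left.1 (disjoint_P_I (T.ne i') (T.dis i' i (Ne.symm hne)))
    (h (I_sub_P _ hz)) hz

omit [FiniteDimensional ℝ E] [Nonempty T.Cell] in
/-- a tile outside the tiny cores is ordinary or exact -/
lemma Cor2.cases (R : Cor2 T KK Kc tl) {q : ι} (h : ∀ k, ¬ P (T.H q) ⊆ KK k) :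
    (∀ a, ¬ P (T.H q) ⊆ Kc a) ∨ ∃ a, tl a = Sum.inl q := by
  by_cases h1 : ∀ a, ¬ P (T.H q) ⊆ Kc a
  · exact Or.inl h1
  · push Not at h1
    obtain ⟨a, ha⟩ := h1
    right
    rcases h2 : tl a with i | k
    · rw [R.ct a i h2] at ha
      have := tile_sub ha
      subst this
      exact ⟨a, h2⟩
    · rw [R.kk a k h2] at ha
      exact absurd ha (h k)

/-- a lower cell of a tile outside the tiny cores lies in an ordinary tile -/
lemma Cor2.out_of (R : Cor2 T KK Kc tl) (h3 : finrank ℝ E = 3) (hH : ∀ k, CoreH T (KK k))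
    {c : T.Cell} (hc : c.dim ≤ 2) (h : OutK T KK c) : OutK T Kc c := by
  obtain ⟨q, h1, h2⟩ := h
  rcases R.cases h1 with h4 | ⟨a, ha⟩
  · exact ⟨q, h4, h2⟩
  · have h5 := cell_frontier h3 hc h2
    rw [← R.ct a q ha] at h5
    exact out_of_frontier (fun a => R.coreH h3 hH a) R.dis h5

variable (h3 : finrank ℝ E = 3) (hH : ∀ c, CoreH T (KK c))
  (hdis : ∀ c c', c ≠ c' → Disjoint (KK c) (KK c'))

include hH hdis in
lemma Cor2.face (R : Cor2 T KK Kc tl)
    (F : {F : C2 T // ¬ (((meshC T h3).side F).map (piK T KK)).IsDiag}) : OutK T Kc F.1.1 :=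
  R.out_of h3 hH (le_of_eq F.1.2) (face_out h3 hdis F)

/-- **the labelled mesh of the cells outside ALL cores, over the mesh `mK T KK`** -/
noncomputable def lmX (R : Cor2 T KK Kc tl) (hne : ∃ c, OutK T Kc c) :
    LM (mK h3 hH hdis) (QO T Kc) (fun c => c.1.dim) :=
  (lmT T h3).sub (OutK T Kc) outK_down hne (mK h3 hH hdis) Subtype.val Subtype.val_injective
    (fun _ => rfl) (fun _ => rfl) (fun F => R.face h3 hH hdis F)
    (fun F hF => ⟨⟨F, out_face h3 F (R.outK hF)⟩, rfl⟩)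

/-- 2-cells and 3-cells of `lmX` -/
theorem top3X (R : Cor2 T KK Kc tl) (hne : ∃ c, OutK T Kc c) :
    Lm_117.Top3 (lmX h3 hH hdis R hne) := by
  refine (top3T h3).sub _ _ _ _ _ _ _ _ _ _ ?_
  rintro c ⟨q0, h1, h2⟩ hc q hq
  obtain ⟨q1, hq1, hI⟩ := Lm_117.tile_of_dim h3 (c := c) hc
  have hqq : q1 = q0 := by
    have h4 : c.pt ∈ P (T.H q0) := h2 (set_ne c)
    have h5 := T.at_eq_singleton hI
    have h6 : q0 ∈ T.at_ c.pt := h4
    rw [h5] at h6
    exact h6.symm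
  subst hqq
  refine ⟨Sum.inl q1, fun F' => ?_⟩
  have h1' : ∀ k, ¬ P (T.H q1) ⊆ KK k := by
    intro k hk
    obtain ⟨a, ha⟩ := R.sur k
    exact h1 a (by rw [R.kk a k ha]; exact hk)
  have h7 : q1 ∈ (meshC T h3).side F'.1 ↔ q ∈ (meshC T h3).side F'.1 := by
    rw [hq]
    constructor
    · intro h
      show F'.1.set ⊆ c.set
      exact Cm_117.face_sub hq1 h
    · intro h
      exact Cm_117.face_side' hq1 h
  rw [← h7]
  show Sum.inl q1 ∈ ((meshC T h3).side F'.1).map (piK T KK) ↔ _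
  rw [mem_map_iff]
  constructor
  · rintro ⟨q', h8, h9⟩
    have := (piK_inl.1 h9).1
    rw [← this]; exact h8
  · intro h8
    exact ⟨q1, h8, piK_inl.2 ⟨rfl, h1'⟩⟩

/-- the sides of a face and the exact tiles -/
lemma inl_side {i : ι} (hi : ∀ k, ¬ P (T.H i) ⊆ KK k)
    (F : {F : C2 T // ¬ (((meshC T h3).side F).map (piK T KK)).IsDiag}) :
    Sum.inl i ∈ (mK h3 hH hdis).side F ↔ F.1.set ⊆ frontier (P (T.H i)) := by
  constructor
  · intro h
    exact cell_frontier h3 (c := F.1.1) (le_of_eq F.1.2)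
      (C2.sub_tile (h3 := h3) (side_out h3 hH hdis h).1)
  · intro h
    show Sum.inl i ∈ ((meshC T h3).side F.1).map (piK T KK)
    rw [mem_map_iff]
    refine ⟨i, ?_, piK_inl.2 ⟨rfl, hi⟩⟩
    show i ∈ F.1.side h3
    rw [C2.mem_side]
    exact (isClosed_P _).frontier_subset (h (set_ne F.1.1))

/-- **the giant tiles are the tiles of all cores** -/
lemma Cor2.side (R : Cor2 T KK Kc tl) (a : 𝒢)
    (F : {F : C2 T // ¬ (((meshC T h3).side F).map (piK T KK)).IsDiag}) :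
    tl a ∈ (mK h3 hH hdis).side F ↔ F.1.set ⊆ frontier (Kc a) := by
  rcases h : tl a with i | k
  · rw [R.ct a i h]
    exact inl_side h3 hH hdis (R.out_inl h) F
  · rw [R.kk a k h]
    exact giant_side h3 hH hdis k F

variable {J Fam : Type} {fam : J → Fam} {s : GSt (mK h3 hH hdis) fam}

/-- the ordinary tiles -/
def ordX (T : Tiling Om ι) (κ : Type) (Kc : 𝒢 → Set E) (q : ι ⊕ κ) : Prop :=
  ∃ i, q = Sum.inl i ∧ ∀ a, ¬ P (T.H i) ⊆ Kc a

/-- **the giant tiles** -/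
theorem Emb.gnt (V : Emb T Kc dim' vl) (R : Cor2 T KK Kc tl)
    (L : LM (mK h3 hH hdis) Q' dim') (hcf : ∀ F, vl (L.cf F) = F.1.1) {j : J}
    (one : ∀ a, One1 s j (tl a)) :
    Gnt s j dim' L.cf (ordX T κ Kc) V.bd tl where
  side a F := by
    rw [R.side h3 hH hdis a F]
    show (vl (L.cf F)).set ⊆ _ ↔ _
    rw [hcf]
    exact Iff.rfl
  cf_inj := L.cf_inj
  cell2 a f _ h2 := by
    have h4 : (vl f).dim = 2 := by rw [← V.dim]; exact h2
    have h5 := out_face h3 (⟨vl f, h4⟩ : C2 T) (R.outK (V.out f))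
    exact ⟨⟨⟨vl f, h4⟩, h5⟩, V.inj (hcf _)⟩
  dim2 := L.cf_dim
  dlt a c hc := by
    have : (vl c).dim ≤ 2 := cell_le_two h3 (fun a => R.coreH h3 hH a) hc
    rw [V.dim]
    omega
  edge a e he h1 := by
    have hc := R.coreH h3 hH a
    have h1' : (vl e).dim = 1 := by rw [← V.dim]; exact h1
    have h2 := T.two_faces h3 hc.core hc.sub hc.cc (he (set_ne (vl e))) h1'
    obtain ⟨F, hF1, hF2⟩ : {F : C2 T | (vl e).pt ∈ F.On ∧ F.set ⊆ frontier (Kc a)}.Nonempty := by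
      apply Set.nonempty_of_ncard_ne_zero
      rw [h2]; norm_num
    obtain ⟨f, hf⟩ := V.sur F.1 (out_of_frontier (fun a => R.coreH h3 hH a) R.dis hF2)
    have hfd : dim' f = 2 := by rw [V.dim, hf]; exact F.2
    refine ⟨f, ?_, hfd, lt_of_le_of_ne ?_ fun h => ?_⟩
    · show (vl f).set ⊆ _
      rw [hf]; exact hF2
    · rw [V.le, hf]
      show (vl e).set ⊆ F.set
      rw [(vl e).set_eq, F.set_eq]
      have h4 : (vl e).pt ∈ T.cc F.pt := by rw [← F.set_eq]; exact hF1.1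
      exact T.cc_sub_of_mem h4
    · rw [← h, h1] at hfd
      omega
  tl_inj a a' h := R.inj h
  nord := by
    rintro a ⟨i, hi, h⟩
    exact h a (by rw [R.ct a i hi])
  giant := by
    rintro (i | k) F hF hno
    · rcases R.cases (side_out h3 hH hdis hF).2 with h | ⟨a, ha⟩
      · exact absurd ⟨i, rfl, h⟩ hno
      · exact ⟨a, ha.symm⟩
    · obtain ⟨a, ha⟩ := R.sur k
      exact ⟨a, ha.symm⟩
  one := one

/-- the 3-cell of an ordinary tile -/
lemma Emb.exists_ci (V : Emb T Kc dim' vl) (hne : Nonempty Q') (q : ι ⊕ κ) :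
    ∃ c : Q', ∀ i, q = Sum.inl i → (∀ a, ¬ P (T.H i) ⊆ Kc a) → vl c = Lm_117.tcell T i := by
  by_cases h : ∃ i, q = Sum.inl i ∧ ∀ a, ¬ P (T.H i) ⊆ Kc a
  · obtain ⟨i, rfl, hi⟩ := h
    obtain ⟨c, hc⟩ := V.sur (Lm_117.tcell T i) ⟨i, hi, (Lm_117.tcell_set i).le⟩
    refine ⟨c, fun i' hi' _ => ?_⟩
    rw [← Sum.inl_injective hi']; exact hc
  · refine ⟨hne.some, fun i hi hi' => absurd ⟨i, hi, hi'⟩ h⟩

/-- **914's dictionary over the cells outside all cores** -/
noncomputable def Emb.dic (V : Emb T Kc dim' vl) (R : Cor2 T KK Kc tl)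
    (L : LM (mK h3 hH hdis) Q' dim') (hcf : ∀ F, vl (L.cf F) = F.1.1) (hne : Nonempty Q')
    (h : LF L s) (Lam : J → Q' → ZMod 2) (hLam : ∀ j c, L.toSk.XL (gP s j) (Lam j) c) (j : J)
    (hon : ∀ w ∈ s.P, s.lab w = j → w ∈ L.toSk.W1) :
    DicO (cmb h Lam hLam) s j L.cf (ordX T κ Kc) :=
  Shg2_914.cmbO h Lam hLam j hon
    (by
      intro c hc _
      have h4 : (vl c).dim = 2 := by rw [← V.dim]; exact hc
      have h5 := out_face h3 (⟨vl c, h4⟩ : C2 T) (R.outK (V.out c))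
      exact ⟨⟨⟨vl c, h4⟩, h5⟩, V.inj (hcf _)⟩)
    (ordX T κ Kc) (fun q => (V.exists_ci hne q).choose)
    (by
      rintro _ ⟨i, rfl, hi⟩
      rw [V.dim, (V.exists_ci hne (Sum.inl i : ι ⊕ κ)).choose_spec i rfl hi]
      exact Lm_117.tcell_dim h3 i)
    (by
      rintro _ ⟨i, rfl, hi⟩ F hF
      rw [V.lt, hcf, (V.exists_ci hne (Sum.inl i : ι ⊕ κ)).choose_spec i rfl hi]
      refine lt_of_le_of_ne ?_ fun h => ?_
      · show F.1.set ⊆ (Lm_117.tcell T i).set
        rw [Lm_117.tcell_set]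
        exact C2.sub_tile (h3 := h3) (side_out h3 hH hdis hF).1
      · have h1 := F.1.2
        rw [h, Lm_117.tcell_dim h3 i] at h1
        omega)

/-- **THE SHEETS OVER A TILING WITH EXACT TILES AND TINY CORES**, any index type `Q'` -/
theorem Emb.sheet (V : Emb T Kc dim' vl) (R : Cor2 T KK Kc tl)
    (L : LM (mK h3 hH hdis) Q' dim') (hcf : ∀ F, vl (L.cf F) = F.1.1) (hne : Nonempty Q')
    (hOm : IsOpen Om) (hball : ∀ k, IsBall 3 (KK k) (frontier (KK k)))
    (h : LF L s) (Lam : J → Q' → ZMod 2) (hLam : ∀ j c, L.toSk.XL (gP s j) (Lam j) c)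
    {g : Gd E J} {P' : ∀ q, (cmb h Lam hLam).I q → Set E} {c : ∀ q, (cmb h Lam hLam).I q → E → ℝ}
    (H : Inv (cmb h Lam hLam) (fun q : Q' => (vl q).set) univ g P' c) {j : J}
    (hB : Bls (cmb h Lam hLam) (fun q : Q' => (vl q).set) c j)
    (hon : ∀ w ∈ s.P, s.lab w = j → w ∈ L.toSk.W1)
    (one : ∀ a, One1 s j (tl a)) (h1 : s.H1 j) (hc : s.Conn j) :
    ∃ S : Set E, Nonempty (PLEquiv (sph 3) S) ∧ S ⊆ Om ∧
      ∀ z ∈ Om \ ⋃ k, interior (Kc k), (z ∈ S ↔ g.G j z = 1/2) :=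
  sheet_giant h3 hOm H (V.cplx (fun a => R.coreH h3 hH a) R.dis)
    (V.gc h3 (fun a => R.coreH h3 hH a) R.dis (fun a => R.ball h3 hball a)) hB (V.top3 h3 _)
    (V.dic h3 hH hdis R L hcf hne h Lam hLam j hon) (V.gnt h3 hH hdis R L hcf one) h1 hc

end cor

end emb

end Crest.Agent.R096.Shg_334
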