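import Crest.Agent.R096.At9_241
import Crest.Agent.R096.At10_241
import Crest.Agent.R096.Shg6_334
import Crest.Agent.R096.Cpo2_642
import Crest.Agent.R096.Gl12_422
import Crest.Agent.R096.Lms3_662
import Crest.Agent.R096.Mi2_117

/-!
# R096 (row 96), ARR-INST part 11 (helper241): the geometric half of `QPos` over the cells outside all
cores, `GeoIn` from helper117's `MGeo`

* `TG` : the geometry of the tiles of a labelled mesh; `QPos.of_tg`;
* `tg_of_emb` : `TG` over any index type which names the cells outside all cores (334's `Emb`,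
  `Cor2`);
* `embP` : 642's `celK` is such a type (337's `Lp`);
* `GeoIn.of_mgeo` : `GeoIn` from 117's `MGeo` and the `Inv`.
-/

set_option autoImplicit false
set_option linter.unusedSectionVars false
set_option linter.unusedVariables false
set_option linter.style.longLine false

open Set Metric Topology Module

namespace Crest.Agent.R096.At_241

open Crest.Agent.R096.Ce_537 Crest.Agent.R096.Bd_416 Crest.Agent.R096.Mg_441
open Crest.Agent.R096.St_147 Crest.Agent.R096.Seq_213 Crest.Agent.R096.Lm_117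
  Crest.Agent.R096.Cp_298 Crest.Agent.R096.SkB_662 Crest.Agent.R096.Ac_117
open Crest.Agent.R096.Brk1_582 (Foam fc)
open Crest.Agent.R096.Init_543 (QK)
open Crest.Agent.R096.On_441 (Lf xlf)

/-- **the geometry of the tiles** -/
structure TG {ιM Φ W Q I : Type} {M : MeshC ιM Φ W} [PartialOrder Q] {dim : Q → ℕ}
    (L : LM M Q dim) (tc : ιM → Q) (ord : ιM → Prop) (core : I → ιM) : Prop where
  dim3 : ∀ τ, ord τ → dim (tc τ) = 3
  side : ∀ τ, ord τ → ∀ F, (τ ∈ M.side F ↔ L.cf F ≤ tc τ)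
  tc_inj : ∀ τ τ', ord τ → ord τ' → tc τ = tc τ' → τ = τ'
  top : ∀ q : Q, ∃ τ, ord τ ∧ q ≤ tc τ
  nord : ∀ c, ¬ ord (core c)
  inj : Function.Injective core

section qpos

variable {ιM Φ W Q I : Type} {M : MeshC ιM Φ W} [PartialOrder Q] {dim : Q → ℕ}
  {L : LM M Q dim} {tc : ιM → Q} {ord : ιM → Prop} {core : I → ιM}
  {V : Type} [NormedAddCommGroup V] [NormedSpace ℝ V] {P : I → Set V}
  {Qd : Quads ιM I (QK P)} {y : Q → I → ℝ}

/-- **`QPos` for 543's quads** from the geometry and the values at the active tiles -/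
theorem QPos.of_tg (G : TG L tc ord core) (hin : ∀ k c, Qd.In k c ↔ c ∈ k.B)
    (act_ord : ∀ k, ∀ τ ∈ Qd.Act k, ord τ)
    (act_pos : ∀ k, ∀ τ ∈ Qd.Act k, ∀ a ∈ k.B, 0 < y (tc τ) a ∧ y (tc τ) a < 1)
    (act_zero : ∀ k, ∀ τ ∈ Qd.Act k, ∀ a ∈ k.Z, y (tc τ) a = 0) :
    QPos L Qd P y tc ord (fun k => k.Z) core where
  dim3 := G.dim3
  side := G.side
  tc_inj := G.tc_inj
  top := G.top
  nord := G.nord
  inj := G.inj
  cZ := fun k => k.cZ
  act_ord := act_ord
  act_pos := fun k τ hτ a ha => act_pos k τ hτ a ((hin k a).1 ha)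
  act_zero := act_zero
  sq := fun B Z₀ hB hZ hd hne => by
    refine ⟨⟨B, Z₀, hB, hZ, hd, hne⟩, ?_, rfl⟩
    ext a
    exact hin _ a
  uniq := fun k k' hB hZ => by
    have e : ∀ k : QK P, {a | Qd.In k a} = k.B := fun k => by ext a; exact hin k a
    rw [e, e] at hB
    exact QK.ext hB hZ

end qpos

section geo

variable {ι Φ W Q J Fam Kq : Type} {M : MeshC ι Φ W} [PartialOrder Q] {dim : Q → ℕ}
variable {E : Type*} [NormedAddCommGroup E] [NormedSpace ℝ E] [FiniteDimensional ℝ E]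
variable {E' : Type*} [NormedAddCommGroup E'] [NormedSpace ℝ E'] [FiniteDimensional ℝ E']
variable {L : LM M Q dim} {O : Ori M} {σ : Q → ZMod 2} {Rel : W → W → Prop} {V : Set W}
  {Qd : Quads ι Fam Kq} {κ : Fam → ℕ} {fam : J → Fam} {s₀ : GSt M fam} {far₀ : J → Set W}
  {G : Fam → Set W} {Z : Fam → Set Q} {lam₀ : J → Q → ZMod 2} {v₀ v₁ : Fam → Q}
  {hfin : ∀ a, {j | fam j = a}.Finite} {kap : Fam → ℕ} {s : GSt M (fam' fam (Rk κ kap))}
  {far : Nm' fam (Rk κ kap) → Set W} {β : W → W} {lam : Nm' fam (Rk κ kap) → Q → ZMod 2}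
variable {Pf : Fam → Set E} {y : Q → Fam → ℝ} {tc : ι → Q} {ord : ι → Prop} {Zk : Kq → Set Fam}
  {core : Fam → ι}

/-- **`GeoIn` from 117's facts** -/
theorem GeoIn.of_mgeo
    {h : StO L O σ Rel V Qd κ s₀ far₀ Z lam₀ v₀ v₁ hfin kap s far β lam}
    (Gq : QPos L Qd Pf y tc ord Zk core) {Ω0 : Set E'} {K : Q → Set E'}
    {g : Gd E' (Nm' fam (Rk κ kap))} {P : ∀ q, h.cmb.I q → Set E'}
    {cb : ∀ q, h.cmb.I q → E' → ℝ} (H : Inv h.cmb K univ g P cb) (Xc : Cplx Ω0 Q dim K)
    {R : Set Q} (hR : ∀ q ∈ R, dim q ≤ 2) (MG : Mi_117.MGeo h.lfs (Lf lam) (xlf h.lab.lab) K R cb) :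
    GeoIn h Ω0 K g P cb R (ek h.lfs) where
  inv := H
  cplx := Xc
  geo := MG.geo
  geoR := MG.geoR
  cmbG := MG.cmbG
  hk := fun _ _ _ => rfl
  GO := fun e _ hd => (MG.edge e hd).2
  B2 := hR
  sph := fun τ ⟨k, hk⟩ =>
    ⟨Lms_662.LM.sphM L τ (tc τ) (fun F hF => (Gq.side τ (Gq.act_ord k τ hk) F).1 hF)
      fun F hF => (Gq.side τ (Gq.act_ord k τ hk) F).2 hF⟩

end geo

section emb

open Crest.Agent.R096.Msh_715 Crest.Agent.R096.Lab_184 Crest.Agent.R096.Agl5_543
  Crest.Agent.R096.Pat5_543 Crest.Agent.R096.Coh_184 Crest.Agent.R096.Shg_334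
  Crest.Agent.R096.Cpo_642 Crest.Agent.R096.Gl_422

variable {E : Type} [NormedAddCommGroup E] [NormedSpace ℝ E] [FiniteDimensional ℝ E]
variable {Om : Set E} {ι : Type} {T : Tiling Om ι} {κ 𝒢 : Type} {KK : κ → Set E} {Kc : 𝒢 → Set E}
variable [Nonempty T.Cell] {tl : 𝒢 → ι ⊕ κ}
variable {Q' : Type} [PartialOrder Q'] {dim' : Q' → ℕ} {vl : Q' → T.Cell}
variable (h3 : finrank ℝ E = 3) (hH : ∀ c, CoreH T (KK c))
  (hdis : ∀ c c', c ≠ c' → Disjoint (KK c) (KK c'))

/-- the 3-cell of a tile outside all cores -/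
noncomputable def tcE (V : Emb T Kc dim' vl) (hne : Nonempty Q') (q : ι ⊕ κ) : Q' :=
  (V.exists_ci hne q).choose

theorem vl_tcE (V : Emb T Kc dim' vl) (hne : Nonempty Q') {i : ι}
    (hi : ∀ a, ¬ P (T.H i) ⊆ Kc a) : vl (tcE V hne (Sum.inl i : ι ⊕ κ)) = tcell T i :=
  (V.exists_ci hne (Sum.inl i : ι ⊕ κ)).choose_spec i rfl hi

/-- **the tiles over an index type which names the cells outside all cores** -/
theorem tg_of_emb (V : Emb T Kc dim' vl) (R : Cor2 T KK Kc tl)
    (L : LM (mK h3 hH hdis) Q' dim') (hcf : ∀ F, vl (L.cf F) = F.1.1) (hne : Nonempty Q') :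
    TG L (tcE V hne) (ordX T κ Kc) tl where
  dim3 := by
    rintro _ ⟨i, rfl, hi⟩
    rw [V.dim, vl_tcE V hne hi]
    exact tcell_dim h3 i
  side := by
    rintro _ ⟨i, rfl, hi⟩ F
    have hik : ∀ k, ¬ P (T.H i) ⊆ KK k := by
      intro k hk
      obtain ⟨a, ha⟩ := R.sur k
      exact hi a (by rw [R.kk a k ha]; exact hk)
    rw [inl_side h3 hH hdis hik F, V.le, hcf, vl_tcE V hne hi]
    constructor
    · intro h
      show F.1.set ⊆ (tcell T i).set
      rw [tcell_set]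
      exact h.trans (isClosed_P _).frontier_subset
    · intro h
      have h1 : F.1.set ⊆ (tcell T i).set := h
      rw [tcell_set] at h1
      exact cell_frontier h3 (c := F.1.1) (le_of_eq F.1.2) h1
  tc_inj := by
    rintro _ _ ⟨i, rfl, hi⟩ ⟨i', rfl, hi'⟩ h
    have h1 : tcell T i = tcell T i' := by
      rw [← vl_tcE V hne hi, ← vl_tcE V hne hi']
      exact congrArg vl h
    have h2 : P (T.H i) = P (T.H i') := by
      rw [← tcell_set, ← tcell_set, h1]
    rw [tile_sub h2.subset]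
  top := by
    intro q
    obtain ⟨i, h1, h2⟩ := V.out q
    refine ⟨Sum.inl i, ⟨i, rfl, h1⟩, ?_⟩
    rw [V.le, vl_tcE V hne h1]
    show (vl q).set ⊆ (tcell T i).set
    rw [tcell_set]
    exact h2
  nord := by
    rintro a ⟨i, hi, h⟩
    exact h a (by rw [R.ct a i hi])
  inj := R.inj

/-! ### 642's index type -/

section pK

variable {α : Type} {ti : α → ι}

/-- **642's index type names the cells outside all cores** -/
theorem embP (R : Cor2 T KK Kc tl) (h1 : ∀ a, ∃ c, tl c = Sum.inl (ti a))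
    (h2 : ∀ c i, tl c = Sum.inl i → ∃ a, ti a = i)
    (h3 : finrank ℝ E = 3) (hH : ∀ c, CoreH T (KK c)) :
    Emb T Kc (fun c : {c : QK (belK T KK) // pK T KK ti c} =>
      dimK (belK T KK) (fun c => c.1.dim) c.1) (celK T KK ti) where
  inj := celK_inj ti
  le := by
    intro q q'
    constructor
    · intro h
      rcases h.lt_or_eq with h' | h'
      · exact ((celK_lt ti q q').1 h').le
      · rw [h']
    · intro h
      rcases h.lt_or_eq with h' | h'
      · exact ((celK_lt ti q q').2 h').le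
      · rw [celK_inj ti h']
  dim := celK_dim ti
  out := by
    intro q
    obtain ⟨hO, hn⟩ := (celK_range ti (celK T KK ti q)).1 ⟨q, rfl⟩
    generalize celK T KK ti q = c at hO hn
    rcases Nat.lt_or_ge c.dim 3 with h | h
    · exact R.out_of h3 hH (by omega) hO
    · have hle : c.dim ≤ finrank ℝ E := T.dim_le_finrank c.pt
      obtain ⟨i, hi, hI⟩ := tile_of_dim h3 (c := c) (by omega)
      have hout : ∀ k, ¬ P (T.H i) ⊆ KK k := by
        obtain ⟨i0, a1, a2⟩ := hO
        rw [hi] at a2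
        rw [tile_sub a2]
        exact a1
      rcases R.cases hout with h4 | ⟨a, ha⟩
      · exact ⟨i, h4, hi.le⟩
      · obtain ⟨b, hb⟩ := h2 a i ha
        refine absurd ?_ (hn b)
        rw [hb]
        exact hi
  sur := by
    intro c hc
    refine (celK_range ti c).2 ⟨R.outK hc, fun a ha => ?_⟩
    obtain ⟨b, hb⟩ := h1 a
    obtain ⟨q, a1, a2⟩ := hc
    rw [ha] at a2
    have h5 := tile_sub a2
    refine a1 b ?_
    rw [← h5, R.ct b _ hb]

variable (hne : ∃ c, OutK T KK c) (hp : ∀ c d, c ≤ d → pK T KK ti d → pK T KK ti c)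
  (hpn : ∃ c, pK T KK ti c)
  (hp2 : ∀ c, dimK (belK T KK) (fun c => c.1.dim) c ≤ 2 → pK T KK ti c)

theorem cf_P (F : {F : C2 T // ¬ (((meshC T h3).side F).map (piK T KK)).IsDiag}) :
    celK T KK ti ((sb (lmK h3 hH hdis hne) (pK T KK ti) hp hpn hp2).cf F) = F.1.1 := rfl

end pK

end emb

end Crest.Agent.R096.At_241
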