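import Crest.Agent.R096.Bin9_181

/-!
# R096 (row 96), SQ-EXACT (147 #10127), part 2 (helper181): squeezing `E_κ` gives `E_κ'` with
`1 - κ' = (1 - κ) * (2 b')`, through sheets, pull back and merging
-/

set_option autoImplicit false
set_option linter.unusedSectionVars false

open Set Metric

namespace Crest.Agent.R096.Bin_181

open Crest.Agent.R096.Ce_537 Crest.Agent.R096.Bd_416 Crest.Agent.R096.Xp_537
open Crest.Agent.R096.Brk1_582 Crest.Agent.R096.Brk2_582 Crest.Agent.R096.Brk6_582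
open Crest.Agent.R096.Grd_714

/-! ### general facts on `EqAt` -/

section gen

variable {E : Type*} [NormedAddCommGroup E] [NormedSpace ℝ E] {κ J : Type*}

lemma EqAt.refl' (g : Gd E κ) (z : E) : EqAt g g z :=
  ⟨fun _ => rfl, fun _ => Iff.rfl, fun _ _ => rfl, fun _ _ _ _ => rfl⟩

lemma eqs_of_eqAt {g g' : Gd E κ} {Z : Set E} (h : ∀ z ∈ Z, EqAt g g' z) : g.Eqs g' Z :=
  ⟨fun a z hz => (h z hz).G a, fun a z hz => (h z hz).B a, fun a z hz hB => (h z hz).lev a hB,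
    fun a z hz hB s hs => (h z hz).tr a hB s hs⟩

lemma eqAt_of_eqs {g g' : Gd E κ} {Z : Set E} (h : g.Eqs g' Z) {z : E} (hz : z ∈ Z) :
    EqAt g g' z :=
  ⟨fun a => h.G a z hz, fun a => h.B a z hz, fun a hB => h.lev a z hz hB,
    fun a hB s hs => h.tr a z hz hB s hs⟩

/-- merging equal structures -/
lemma eqAt_merge {g g' : Gd E J} {φ : J → κ} {hf : ∀ a, {j | φ j = a}.Finite} {z : E}
    (h : EqAt g g' z) (dj : ∀ j j', j ≠ j' → φ j = φ j' → z ∈ g.B j → z ∉ g.B j') :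
    EqAt (g.merge φ hf) (g'.merge φ hf) z := by
  have dj' : ∀ j j', j ≠ j' → φ j = φ j' → z ∈ g'.B j → z ∉ g'.B j' := fun j j' hne hj hB hB' =>
    dj j j' hne hj ((h.B j).1 hB) ((h.B j').1 hB')
  have hG : ∀ a, (g'.merge φ hf).G a z = (g.merge φ hf).G a z := fun a =>
    Finset.sum_congr rfl fun j _ => h.G j
  refine ⟨hG, fun a => ?_, ?_, ?_⟩
  · constructor
    · rintro ⟨j, hj, hB⟩; exact ⟨j, hj, (h.B j).1 hB⟩
    · rintro ⟨j, hj, hB⟩; exact ⟨j, hj, (h.B j).2 hB⟩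
  · rintro a ⟨j, rfl, hB⟩
    rw [merge_lev dj' ((h.B j).2 hB), merge_lev dj hB, hG, h.G, h.lev j hB]
  · rintro a ⟨j, rfl, hB⟩ s hs
    rw [merge_tr dj' ((h.B j).2 hB), merge_tr dj hB]
    exact h.tr j hB s hs

variable {fa : J → κ} {lv : J → ℤ}

lemma eqAt_spl {g g' : Gd E κ} {z : E} (h : EqAt g g' z) :
    EqAt (spl g fa lv) (spl g' fa lv) z := by
  refine ⟨fun j => ?_, fun j => ?_, fun j hB => rfl, fun j hB s hs => ?_⟩
  · rw [spl_G, spl_G, h.G]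
  · rw [spl_B, spl_B]
    constructor
    · rintro ⟨h1, h2⟩
      have h3 := (h.B _).1 h1
      exact ⟨h3, by rw [← h.lev _ h3]; exact h2⟩
    · rintro ⟨h1, h2⟩
      exact ⟨(h.B _).2 h1, by rw [h.lev _ h1]; exact h2⟩
  · exact h.tr _ hB.1 s hs

lemma clcl (t : ℝ) : cl (cl t) = cl t := cl_of_mem (cl_mem t)

/-- splitting commutes with squeezing -/
lemma eqAt_spl_sq {g : Gd E κ} {Z : Set E} (h : g.Is Z) {z : E} (hz : z ∈ Z) {b : ℝ} :
    EqAt ((spl g fa lv).sq b) (spl (g.sq b) fa lv) z := by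
  have hBi : ∀ j, z ∈ (spl (g.sq b) fa lv).B j ↔ z ∈ ((spl g fa lv).sq b).B j := by
    intro j
    constructor
    · rintro ⟨⟨h1, h2⟩, h3⟩
      have h3' : g.lev (fa j) z = lv j := h3
      refine ⟨⟨h1, h3'⟩, ?_⟩
      show |1/2 + cl (g.G (fa j) z - lv j - 1/2) - 0 - 1/2| ≤ b
      rw [cl_of_mem (spl_on h hz ⟨h1, h3'⟩)]
      rw [h3'] at h2
      have e : 1/2 + (g.G (fa j) z - lv j - 1/2) - 0 - 1/2 = g.G (fa j) z - lv j - 1/2 := by ring
      rw [e]; exact h2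
    · rintro ⟨⟨h1, h3⟩, h2⟩
      have h2' : |1/2 + cl (g.G (fa j) z - lv j - 1/2) - 0 - 1/2| ≤ b := h2
      rw [cl_of_mem (spl_on h hz ⟨h1, h3⟩)] at h2'
      have e : 1/2 + (g.G (fa j) z - lv j - 1/2) - 0 - 1/2 = g.G (fa j) z - lv j - 1/2 := by ring
      rw [e] at h2'
      refine ⟨⟨h1, ?_⟩, h3⟩
      rw [h3]; exact h2'
  refine ⟨fun j => ?_, hBi, fun j _ => rfl, fun j _ s _ => rfl⟩
  show 1/2 + cl ((g.sq b).G (fa j) z - lv j - 1/2) = _
  by_cases hB : z ∈ (spl g fa lv).B j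
  · rw [Gd.sq_G_mem hB, Gd.sq_G_mem hB.1, hB.2, spl_G]
    have e1 := cl_of_mem (spl_on h hz hB)
    rw [e1]
    show _ = (0:ℝ) + 1/2 + cl ((1/2 + (g.G (fa j) z - lv j - 1/2) - 0 - 1/2) / (2 * b))
    have e2 : (lv j : ℝ) + 1/2 + cl ((g.G (fa j) z - lv j - 1/2) / (2 * b)) - lv j - 1/2
        = cl ((g.G (fa j) z - lv j - 1/2) / (2 * b)) := by ring
    rw [e2, clcl]
    have e3 : 1/2 + (g.G (fa j) z - lv j - 1/2) - 0 - 1/2 = g.G (fa j) z - lv j - 1/2 := by ring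
    rw [e3]; ring
  · rw [Gd.sq_G_notMem hB, spl_G]
    by_cases hB' : z ∈ g.B (fa j)
    · obtain ⟨k, hk⟩ := mem_Zs.1 (h.li _ z hz hB')
      have hne : k ≠ lv j := fun e => hB ⟨hB', by rw [hk, e]⟩
      have hab := h.ab _ z hz hB'
      rw [Gd.sq_G_mem hB', hk]
      rw [hk] at hab
      have h1 : (-1/2 : ℝ) ≤ g.G (fa j) z - k - 1/2 := hab.1
      have h2 : g.G (fa j) z - k - 1/2 ≤ 1/2 := hab.2
      have h3 := cl_mem ((g.G (fa j) z - k - 1/2) / (2 * b))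
      rcases lt_or_gt_of_ne hne with hlt | hlt
      · rw [cl_low' (m := k) (by linarith [h3.2]) hlt, cl_low' (m := k) (by linarith) hlt]
      · rw [cl_high' (m := k) (by linarith [h3.1]) hlt, cl_high' (m := k) (by linarith) hlt]
    · rw [Gd.sq_G_notMem hB']

variable {V : Type*} [NormedAddCommGroup V] [NormedSpace ℝ V]

lemma eqAt_pulg {g g' : Gd E κ} {f : V → E} {fi : E → V} {z : V} (h : EqAt g g' (f z)) :
    EqAt (pulg g f fi) (pulg g' f fi) z :=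
  ⟨fun a => h.G a, fun a => h.B a, fun a hB => h.lev a hB, fun a hB s hs => by
    show fi (g'.tr a (f z, s)) = fi (g.tr a (f z, s))
    rw [h.tr a hB s hs]⟩

lemma eqAt_pulg_sq {g : Gd E κ} {f : V → E} {fi : E → V} {z : V} {b : ℝ} :
    EqAt ((pulg g f fi).sq b) (pulg (g.sq b) f fi) z := by
  refine ⟨fun a => ?_, fun a => Iff.rfl, fun a _ => rfl, fun a _ s _ => rfl⟩
  by_cases hB : f z ∈ g.B a
  · rw [Gd.sq_G_mem (show z ∈ (pulg g f fi).B a from hB)]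
    show (g.sq b).G a (f z) = _
    rw [Gd.sq_G_mem hB]; rfl
  · rw [Gd.sq_G_notMem (show z ∉ (pulg g f fi).B a from hB)]
    show (g.sq b).G a (f z) = _
    rw [Gd.sq_G_notMem hB]; rfl

end gen

variable {E : Type*} [NormedAddCommGroup E] [NormedSpace ℝ E] {I : Type*}
variable {b : Set I → E} {P : I → Set E} {m : I → ℕ}

section foam

variable {La : Set E} [CompleteSpace E] (F : Foam La P b 4) (hQ : Quads P b)
  (hne : ∀ c, (P c).Nonempty) (hm : ∀ c, 0 < m c) (c : Cel P m)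

/-- the bands in level coordinates -/
lemma ek_B_clamp {κ : ℝ} (hκ : 0 < κ ∧ κ < 1) {q : Gx P m} {y : E}
    (hy : y ∈ (grid F hQ hne hm).cell (.gr q)) {a : I} :
    y ∈ (ek (grid F hQ hne hm) b κ c).B a ↔
      a ∈ q.free ∧ |co P b m y a - (q.lo a + 1/2)| ≤ (1 - κ) / 2 := by
  have hk : 0 < 1 - κ := by linarith [hκ.2]
  constructor
  · intro hB
    obtain ⟨k1, k2, k3⟩ := clampA F hQ hne hm hκ c hy hB
    refine ⟨k1, ?_⟩
    have e : co P b m y a - (q.lo a + 1/2) =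
        (1 - κ) * (co P b m (st (grid F hQ hne hm) κ y) a - (q.lo a + 1/2)) := by
      rw [k3]; ring
    rw [e, abs_mul, abs_of_pos hk]
    have h1 : |co P b m (st (grid F hQ hne hm) κ y) a - (q.lo a + 1/2)| ≤ 1/2 := by
      rw [abs_le]; constructor <;> linarith [k2.1, k2.2]
    have := mul_le_mul_of_nonneg_left h1 hk.le
    linarith
  · rintro ⟨ha, h⟩
    by_contra hB
    obtain ⟨k, k1, k2, k3, k4⟩ := clampB F hQ hne hm hκ c hy hB
    have h1 := Gx.hi_eq ha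
    obtain ⟨v1, v2⟩ := abs_lt.1 k4
    obtain ⟨u1, u2⟩ := abs_le.1 h
    have h2 : k = q.lo a ∨ k = q.lo a + 1 := by omega
    rcases h2 with h2 | h2
    · rw [h2] at v1 v2; linarith
    · rw [h2] at v1 v2; push_cast at v1 v2; linarith

/-- **the base point in level coordinates is a clamp** -/
theorem co_st {κ : ℝ} (hκ : 0 < κ ∧ κ < 1) {q : Gx P m} {y : E}
    (hy : y ∈ (grid F hQ hne hm).cell (.gr q)) {a : I} (ha : a ∈ q.free) :
    co P b m (st (grid F hQ hne hm) κ y) a =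
      q.lo a + 1/2 + cl ((co P b m y a - (q.lo a + 1/2)) / (1 - κ)) := by
  have hk : 0 < 1 - κ := by linarith [hκ.2]
  by_cases hB : y ∈ (ek (grid F hQ hne hm) b κ (.gr q)).B a
  · obtain ⟨k1, k2, k3⟩ := clampA F hQ hne hm hκ _ hy hB
    have e : co P b m y a - (q.lo a + 1/2) =
        (1 - κ) * (co P b m (st (grid F hQ hne hm) κ y) a - (q.lo a + 1/2)) := by
      rw [k3]; ring
    rw [e, mul_div_cancel_left₀ _ hk.ne', cl_of_mem]
    · ring
    · constructor <;> linarith [k2.1, k2.2]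
  · obtain ⟨k, k1, k2, k3, k4⟩ := clampB F hQ hne hm hκ _ hy hB
    have h1 := Gx.hi_eq ha
    obtain ⟨v1, v2⟩ := abs_lt.1 k4
    have h2 : k = q.lo a ∨ k = q.lo a + 1 := by omega
    rw [k3]
    rcases h2 with h2 | h2
    · rw [h2] at v1 v2 ⊢
      rw [cl_of_le]
      · ring
      · rw [div_le_iff₀ hk]; linarith
    · rw [h2] at v1 v2 ⊢
      push_cast at v1 v2 ⊢
      rw [cl_of_ge]
      · ring
      · rw [le_div_iff₀ hk]; linarith

lemma co_st_notfree {κ : ℝ} (hκ : 0 < κ ∧ κ < 1) {q : Gx P m} {y : E}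
    (hy : y ∈ (grid F hQ hne hm).cell (.gr q)) {a : I} (ha : a ∉ q.free) :
    co P b m (st (grid F hQ hne hm) κ y) a = q.hi a ∧ co P b m y a = q.hi a :=
  ⟨Gx.eq_of_mem ha (co_mem F hQ hm (st_mem (grid F hQ hne hm) hκ hy)),
    Gx.eq_of_mem ha (co_mem F hQ hm hy)⟩

/-- **SQ-EXACT** -/
theorem sq_exact {κ0 κ1 b' : ℝ} (h0 : 0 < κ0 ∧ κ0 < 1) (hb : 0 < b') (hb2 : b' < 1/2)
    (h1 : 1 - κ1 = (1 - κ0) * (2 * b')) {q : Gx P m} {y : E}
    (hy : y ∈ (grid F hQ hne hm).cell (.gr q)) :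
    EqAt ((ek (grid F hQ hne hm) b κ0 c).sq b') (ek (grid F hQ hne hm) b κ1 c) y := by
  have hk0 : 0 < 1 - κ0 := by linarith [h0.2]
  have hk1 : 0 < 1 - κ1 := by rw [h1]; positivity
  have h1' : (1 - κ0) * (2 * b') < 1 - κ0 := by nlinarith
  have hκ1 : 0 < κ1 ∧ κ1 < 1 := ⟨by linarith [h0.1], by linarith⟩
  have hlev : ∀ a, y ∈ (ek (grid F hQ hne hm) b κ0 c).B a →
      (ek (grid F hQ hne hm) b κ0 c).lev a y = q.lo a := by
    intro a hB
    show ((lo (mn c (sl (grid F hQ hne hm) κ0 y)) a : ℕ) : ℝ) = _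
    rw [(ek_lev F hQ hne hm h0 c hy hB).2]
  have hB : ∀ a, y ∈ (ek (grid F hQ hne hm) b κ1 c).B a ↔
      y ∈ ((ek (grid F hQ hne hm) b κ0 c).sq b').B a := by
    intro a
    rw [ek_B_clamp F hQ hne hm c hκ1 hy]
    constructor
    · rintro ⟨ha, h⟩
      have hB0 : y ∈ (ek (grid F hQ hne hm) b κ0 c).B a :=
        (ek_B_clamp F hQ hne hm c h0 hy).2 ⟨ha, by linarith⟩
      refine ⟨hB0, ?_⟩
      obtain ⟨k1, k2, k3⟩ := clampA F hQ hne hm h0 c hy hB0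
      rw [hlev a hB0]
      show |co P b m (st (grid F hQ hne hm) κ0 y) a - q.lo a - 1/2| ≤ b'
      have e : co P b m y a - (q.lo a + 1/2) =
          (1 - κ0) * (co P b m (st (grid F hQ hne hm) κ0 y) a - q.lo a - 1/2) := by
        rw [k3]; ring
      rw [e, abs_mul, abs_of_pos hk0, h1] at h
      have : (1 - κ0) * |co P b m (st (grid F hQ hne hm) κ0 y) a - q.lo a - 1/2| ≤
        (1 - κ0) * b' := by linarith
      exact le_of_mul_le_mul_left this hk0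
    · rintro ⟨hB0, h⟩
      obtain ⟨k1, k2, k3⟩ := clampA F hQ hne hm h0 c hy hB0
      rw [hlev a hB0] at h
      have h' : |co P b m (st (grid F hQ hne hm) κ0 y) a - q.lo a - 1/2| ≤ b' := h
      refine ⟨k1, ?_⟩
      have e : co P b m y a - (q.lo a + 1/2) =
          (1 - κ0) * (co P b m (st (grid F hQ hne hm) κ0 y) a - q.lo a - 1/2) := by
        rw [k3]; ring
      rw [e, abs_mul, abs_of_pos hk0, h1]
      have := mul_le_mul_of_nonneg_left h' hk0.le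
      linarith
  refine ⟨fun a => ?_, hB, fun a hBa => ?_, fun a hBa s hs => ?_⟩
  · by_cases hB0 : y ∈ (ek (grid F hQ hne hm) b κ0 c).B a
    · rw [Gd.sq_G_mem hB0, hlev a hB0]
      obtain ⟨k1, k2, k3⟩ := clampA F hQ hne hm h0 c hy hB0
      show co P b m (st (grid F hQ hne hm) κ1 y) a = _
      rw [co_st F hQ hne hm hκ1 hy k1]
      congr 2
      show _ = (co P b m (st (grid F hQ hne hm) κ0 y) a - q.lo a - 1/2) / (2 * b')
      rw [k3, h1]
      have hb0 : b' ≠ 0 := hb.ne'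
      field_simp
      ring
    · rw [Gd.sq_G_notMem hB0]
      have hB1 : y ∉ (ek (grid F hQ hne hm) b κ1 c).B a := fun h => hB0 ((hB a).1 h).1
      obtain ⟨k, -, -, k3, k4⟩ := clampB F hQ hne hm h0 c hy hB0
      obtain ⟨k', -, -, k3', k4'⟩ := clampB F hQ hne hm hκ1 c hy hB1
      show co P b m (st (grid F hQ hne hm) κ1 y) a = co P b m (st (grid F hQ hne hm) κ0 y) a
      rw [k3, k3']
      obtain ⟨v1, v2⟩ := abs_lt.1 k4
      obtain ⟨w1, w2⟩ := abs_lt.1 k4'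
      have u1 : (k : ℝ) < k' + 1 := by linarith [h0.2, hκ1.2]
      have u2 : (k' : ℝ) < k + 1 := by linarith [h0.2, hκ1.2]
      have u1' : k < k' + 1 := by exact_mod_cast u1
      have u2' : k' < k + 1 := by exact_mod_cast u2
      have : k' = k := by omega
      rw [this]
  · show ((lo (mn c (sl (grid F hQ hne hm) κ1 y)) a : ℕ) : ℝ) = _
    rw [(ek_lev F hQ hne hm hκ1 c hy ((hB a).2 hBa)).2]
    show _ = (ek (grid F hQ hne hm) b κ0 c).lev a y
    rw [hlev a hBa.1]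
  · have hs2 : 2 * b' * s ∈ I2 := by
      have h3 : |s| ≤ 1/2 := by rw [abs_le]; exact ⟨by linarith [hs.1], hs.2⟩
      have h4 : |2 * b' * s| ≤ 1/2 := by
        rw [abs_mul, abs_of_pos (by positivity : (0:ℝ) < 2 * b')]
        nlinarith [abs_nonneg s]
      obtain ⟨h5, h6⟩ := abs_le.1 h4
      exact ⟨by linarith, h6⟩
    have hB1 := (hB a).2 hBa
    show (ek (grid F hQ hne hm) b κ1 c).tr a (y, s) =
      (ek (grid F hQ hne hm) b κ0 c).tr a (y, 2 * b' * s)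
    have m1 := (tr_spec F hQ hne hm hκ1 c hy hB1 hs).1
    have m0 := (tr_spec F hQ hne hm h0 c hy hBa.1 hs2).1
    have e1 := co_tr F hQ hne hm hκ1 c hy hB1 hs
    have e0 := co_tr F hQ hne hm h0 c hy hBa.1 hs2
    have e2 : (q.lo a : ℝ) + 1/2 + (1 - κ1) * s = q.lo a + 1/2 + (1 - κ0) * (2 * b' * s) := by
      rw [h1]; ring
    rw [e2, ← e0] at e1
    rw [← Tq_co_of_mem F hQ hm m1, ← Tq_co_of_mem F hQ hm m0, e1]

/-- **SQ-EXACT, iterated** -/
theorem sqs_exact {κ0 : ℝ} (h0 : 0 < κ0 ∧ κ0 < 1) {β : ℕ → ℝ} (hβ : ∀ n, 0 < β n)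
    (hβ2 : ∀ n, β n < 1/2) (n : ℕ) {q : Gx P m} {y : E}
    (hy : y ∈ (grid F hQ hne hm).cell (.gr q)) :
    EqAt (sqs (ek (grid F hQ hne hm) b κ0 c) β n)
      (ek (grid F hQ hne hm) b (1 - (1 - κ0) * bet β n) c) y := by
  induction n with
  | zero =>
    rw [bet_zero, mul_one, sub_sub_cancel]
    exact EqAt.refl' _ _
  | succ n ih =>
    have h1 := bet_pos hβ n
    have h2 := bet_le hβ hβ2 n
    have hk0 : 0 < 1 - κ0 := by linarith [h0.2]
    have h3 : 0 < (1 - κ0) * bet β n := mul_pos hk0 h1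
    have h4 : (1 - κ0) * bet β n ≤ 1 - κ0 := mul_le_of_le_one_right hk0.le h2
    refine (EqAt.sq ih (hβ n) (hβ2 n)).trans ?_
    refine sq_exact F hQ hne hm c ⟨by linarith [h0.1], by linarith⟩ (hβ n) (hβ2 n) ?_ hy
    rw [bet_succ]; ring

end foam

section sheets

variable {V : Type*} [NormedAddCommGroup V] [NormedSpace ℝ V] {J : Type*}
variable {La : Set E} [CompleteSpace E] [FiniteDimensional ℝ E] (F : Foam La P b 4)
  (hQ : Quads P b) (hne : ∀ c, (P c).Nonempty) (hm : ∀ c, 0 < m c)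
variable (c : Cel P m) {fa : J → I} {lv : J → ℕ} {S : Set V} {T : Set E} (e : PLEquiv S T)

/-- **SQ-EXACT for the pulled back sheets** -/
theorem ekS_sq {κ0 κ1 b' : ℝ} (h0 : 0 < κ0 ∧ κ0 < 1) (hb : 0 < b') (hb2 : b' < 1/2)
    (h1 : 1 - κ1 = (1 - κ0) * (2 * b')) {q : Gx P m} {z : V}
    (hz : e.f z ∈ (grid F hQ hne hm).cell (.gr q)) :
    EqAt ((ekS (grid F hQ hne hm) b κ0 c fa lv e).sq b')
      (ekS (grid F hQ hne hm) b κ1 c fa lv e) z :=
  eqAt_pulg_sq.trans (eqAt_pulg ((eqAt_spl_sq (ek_is F hQ hne hm h0 c q) hz).trans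
    (eqAt_spl (sq_exact F hQ hne hm c h0 hb hb2 h1 hz))))

theorem sqs_ekS {κ0 : ℝ} (h0 : 0 < κ0 ∧ κ0 < 1) {β : ℕ → ℝ} (hβ : ∀ n, 0 < β n)
    (hβ2 : ∀ n, β n < 1/2) (n : ℕ) {q : Gx P m} {z : V}
    (hz : e.f z ∈ (grid F hQ hne hm).cell (.gr q)) :
    EqAt (sqs (ekS (grid F hQ hne hm) b κ0 c fa lv e) β n)
      (ekS (grid F hQ hne hm) b (1 - (1 - κ0) * bet β n) c fa lv e) z := by
  induction n with
  | zero =>
    rw [bet_zero, mul_one, sub_sub_cancel]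
    exact EqAt.refl' _ _
  | succ n ih =>
    have h1 := bet_pos hβ n
    have h2 := bet_le hβ hβ2 n
    have hk0 : 0 < 1 - κ0 := by linarith [h0.2]
    have h3 : 0 < (1 - κ0) * bet β n := mul_pos hk0 h1
    have h4 : (1 - κ0) * bet β n ≤ 1 - κ0 := mul_le_of_le_one_right hk0.le h2
    refine (EqAt.sq ih (hβ n) (hβ2 n)).trans ?_
    refine ekS_sq F hQ hne hm c e ⟨by linarith [h0.1], by linarith⟩ (hβ n) (hβ2 n) ?_ hz
    rw [bet_succ]; ring

/-- **the merged mesh structure on bd K_c is the exact core structure with the larger `κ`** -/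
theorem base_agree {κ0 : ℝ} (h0 : 0 < κ0 ∧ κ0 < 1) {β : ℕ → ℝ} (hβ : ∀ n, 0 < β n)
    (hβ2 : ∀ n, β n < 1/2) (n : ℕ) (hinj : ∀ j j', fa j = fa j' → lv j = lv j' → j = j')
    (hlt : ∀ j, lv j < m (fa j)) (hsur : ∀ a k, k < m a → ∃ j, fa j = a ∧ lv j = k)
    (hf : ∀ a, {j | fa j = a}.Finite) {A : Set V}
    (hmem : ∀ z ∈ A, ∃ q : Gx P m, e.f z ∈ (grid F hQ hne hm).cell (.gr q)) {g : Gd V J}
    (hg : ∀ z ∈ A, EqAt (sqs (ekS (grid F hQ hne hm) b κ0 c fa lv e) β n) g z) :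
    (gdT (Tq b m) (co P b m)
      (cG (grid F hQ hne hm) (1 - (1 - κ0) * bet β n) e.f)
      (ctop (grid F hQ hne hm) (1 - (1 - κ0) * bet β n) c e.f)
      (ctr (grid F hQ hne hm) (1 - (1 - κ0) * bet β n) e.f e.g)).Eqs (g.merge fa hf) A := by
  have h1 := bet_pos hβ n
  have h2 := bet_le hβ hβ2 n
  have hk0 : 0 < 1 - κ0 := by linarith [h0.2]
  have h3 : 0 < (1 - κ0) * bet β n := mul_pos hk0 h1
  have h4 : (1 - κ0) * bet β n ≤ 1 - κ0 := mul_le_of_le_one_right hk0.le h2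
  have hκf : 0 < 1 - (1 - κ0) * bet β n ∧ 1 - (1 - κ0) * bet β n < 1 :=
    ⟨by linarith [h0.1], by linarith⟩
  have e1 := merge_eqs' F hQ hne hm hκf c e hinj hlt hsur hf hmem
  refine eqs_of_eqAt fun z hz => (eqAt_of_eqs e1 hz).trans ?_
  obtain ⟨q, hq⟩ := hmem z hz
  refine eqAt_merge ((sqs_ekS F hQ hne hm c e h0 hβ hβ2 n hq).symm.trans (hg z hz)) ?_
  intro j j' hne' hfj hz1 hz2
  rw [ekS_B] at hz1 hz2
  apply hne'
  refine hinj j j' hfj ?_
  have h5 := hz1.2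
  rw [hfj, hz2.2] at h5
  exact_mod_cast h5.symm

end sheets

end Crest.Agent.R096.Bin_181
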