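import Crest.Agent.R096.Xr3_537
import Crest.Agent.R096.Bin10_181
import Crest.Agent.R096.Fin2_147
import Crest.Agent.R096.At4_241

/-!
# R096 (row 96), GIANTS-INST, part 2 (helper537)

* `coreF_zero`, `sl_zero_iff` : `sl κ y c = 0` iff `y` is in a proper face of `c`;
* `giant_R` : the clauses of `Fin_147.Giants` for a type R core from the squeezed exact structure;
* `giants_of` : `Fin_147.Giants` from the data of every core.
-/

set_option autoImplicit false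
set_option linter.unusedSectionVars false
set_option linter.unusedVariables false
set_option linter.deprecated false

open Set Filter Topology Metric

namespace Crest.Agent.R096.Gia_537

open Crest.Agent.R096.Ce_537 (PLOn PLEquiv cube sph IsBall Cplx)
open Crest.Agent.R096.Bd_416 Crest.Agent.R096.Mg_441
open Crest.Agent.R096.Brk1_582 Crest.Agent.R096.Brk2_582 Crest.Agent.R096.Brk6_582
open Crest.Agent.R096.Grd_714
open Crest.Agent.R096.Bin_181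
open Crest.Agent.R096.Xp_537 Crest.Agent.R096.Xr_537
open Crest.Agent.R096.Ar_241 (Tr0 TopC Exact)
open Crest.Agent.R096.Fin_147 (Giants)

section sl

variable {E : Type*} [NormedAddCommGroup E] [NormedSpace ℝ E] {Q : Type*} [PartialOrder Q]
  {Λ : Set E}

/-- the whole cell -/
lemma coreF_zero (C : CC Λ Q) {κ : ℝ} (hκ : 0 < κ ∧ κ < 1) (c : Q) : coreF C κ c 0 = C.cell c := by
  ext y
  constructor
  · exact fun h => h.1
  · intro h
    exact ⟨h, (sl_wt C hκ h).1 c⟩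

/-- **the boundary of a cell through the weights** -/
lemma sl_zero_iff (C : CC Λ Q) {κ : ℝ} (hκ : 0 < κ ∧ κ < 1) {c : Q} {y : E} (hy : y ∈ C.cell c) :
    sl C κ y c = 0 ↔ ∃ q < c, y ∈ C.cell q := by
  constructor
  · intro h
    obtain ⟨h1, h2, h3⟩ := st_spec C hκ hy
    obtain ⟨p, hp, hst⟩ := h1.exists_top
    refine ⟨p, lt_of_le_of_ne (h3 p hp) ?_, ?_⟩
    · rintro rfl
      exact (Finsupp.mem_support_iff.1 hp) h
    · rw [← h2]
      exact pk_mem C hκ h1 hst.le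
  · rintro ⟨q, hq, hyq⟩
    obtain ⟨-, -, h3⟩ := st_spec C hκ hyq
    by_contra hne
    exact absurd (h3 c (Finsupp.mem_support_iff.2 hne)) (not_le_of_gt hq)

end sl

/-- the boundary of a brick in the grid -/
def bdP {E : Type*} [NormedAddCommGroup E] [NormedSpace ℝ E] {I : Type*} {P : I → Set E}
    {m : I → ℕ} {La : Set E} (C : CC La (Cel P m)) (a : I) : Set E :=
  {y | ∃ q : Gx P m, q.hi a = 0 ∧ y ∈ C.cell (.gr q)}

section bdP

variable {E : Type*} [NormedAddCommGroup E] [NormedSpace ℝ E] {I : Type*} {P : I → Set E}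
    {m : I → ℕ} {La : Set E} (C : CC La (Cel P m)) (a : I)

lemma bdP_sub : bdP C a ⊆ C.cell (.top a) := by
  rintro y ⟨q, hq, hy⟩
  exact C.mono_le (Cel.gr_lt_top.2 hq).le hy

lemma sl_bdP {κ : ℝ} (hκ : 0 < κ ∧ κ < 1) {y : E} (hy : y ∈ C.cell (.top a)) :
    sl C κ y (.top a) = 0 ↔ y ∈ bdP C a := by
  rw [sl_zero_iff C hκ hy]
  constructor
  · rintro ⟨q, hq, hyq⟩
    cases q with
    | top d => exact absurd hq Cel.not_top_lt
    | gr q => exact ⟨q, Cel.gr_lt_top.1 hq, hyq⟩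
  · rintro ⟨q, hq, hyq⟩
    exact ⟨.gr q, Cel.gr_lt_top.2 hq, hyq⟩

end bdP

section mesh

variable {Q : Type} [PartialOrder Q] {dim : Q → ℕ} {J Fam : Type}
variable {E' : Type*} [NormedAddCommGroup E'] [NormedSpace ℝ E']
variable {Cc : Cmb Q dim J Fam} {K : Q → Set E'} {D : Set Q} {g : Gd E' J}
  {Pp : ∀ q, Cc.I q → Set E'} {c : ∀ q, Cc.I q → E' → ℝ}
variable {E : Type*} [NormedAddCommGroup E] [NormedSpace ℝ E] {Pf : Fam → Set E}
  {hfin : ∀ a, {j | Cc.fam j = a}.Finite}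

/-- finitely many columns meet a mesh cell -/
theorem cols_fin {La : Set E} {b : Set Fam → E} {N : ℕ} (F : Foam La Pf b N) (H : Inv Cc K D g Pp c)
    {q : Q} (hq : q ∈ D) {y : Fam → ℝ} (hy : Ex Cc Pf q y) :
    (cols (merge hfin g) (mm hfin) (K q)).Finite := by
  have h1 : {a | y a < 1}.Finite := F.K_finite hy.mem.1
  refine h1.subset ?_
  rintro a ⟨x, hx, hne⟩
  by_contra hcon
  apply hne
  have h2 : ¬ y a < 1 := hcon
  have h3 : y a = 1 := le_antisymm (hy.mem.1.1 a).2 (not_lt.1 h2)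
  have h4 := hy.one a h3
  obtain ⟨e1, e2⟩ := box_one H hfin hq hx h4.1 h4.2
  have hbx := G_mem_box H hfin hq hx a
  rw [e1, e2] at hbx
  exact le_antisymm hbx.2 hbx.1

/-- the two merged structures (416's `Gd.merge`, 441's `merge`) agree on the mesh -/
theorem merge_agree (H : Inv Cc K D g Pp c) {q : Q} (hq : q ∈ D) {z : E'} (hz : z ∈ K q) :
    EqAt (merge hfin g) (g.merge Cc.fam hfin) z := by
  classical
  have hd := inv_DB H hq
  refine ⟨fun a => rfl, fun a => Iff.rfl, ?_, fun a hB s hs => rfl⟩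
  rintro a ⟨j, rfl, hB⟩
  rw [Mg_441.merge_lev hfin hd hz hB,
    Bd_416.merge_lev (fun j j' hne hf h1 h2 => hd j j' hne hf z hz h1 h2) hB, H.lev0 hq j hz hB,
    add_zero]
  have hj : j ∈ sh hfin (Cc.fam j) := (mem_sh hfin).2 rfl
  have h1 := Finset.add_sum_erase (sh hfin (Cc.fam j)) (fun j' => g.G j' z) hj
  have h2 : (g.merge Cc.fam hfin).G (Cc.fam j) z = ∑ j' ∈ sh hfin (Cc.fam j), g.G j' z := rfl
  rw [h2, ← h1]
  ring

variable {La : Set E} {b : Set Fam → E} [CompleteSpace E] [FiniteDimensional ℝ E]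

/-- **type R core**: the clauses of `Giants` -/
theorem giant_R (F : Foam La Pf b 4) (hQ : Quads Pf b) (hne : ∀ c, (Pf c).Nonempty)
    (hm : ∀ a, 0 < mm hfin a) (q0 : Cel Pf (mm hfin))
    (X : GridOK (grid F hQ hne hm) (Tq b (mm hfin)) (co Pf b (mm hfin)))
    (H : Inv Cc K univ g Pp c) (ex : ∀ q, ∃ y, Ex Cc Pf q y) (hcl : ∀ q, IsClosed (K q))
    (a : Fam) {K0 X0 : Set E'} (hK0 : IsClosed K0) (hKX : ∀ q, K q ⊆ X0)
    (hcov : ∀ x ∈ K0 ∩ X0, ∃ q, x ∈ K q)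
    {κ0 : ℝ} (hκ0 : 0 < κ0 ∧ κ0 < 1) {lv : J → ℕ}
    (hinj : ∀ j j', Cc.fam j = Cc.fam j' → lv j = lv j' → j = j')
    (hlt : ∀ j, lv j < mm hfin (Cc.fam j))
    (hsur : ∀ a k, k < mm hfin a → ∃ j, Cc.fam j = a ∧ lv j = k)
    {β : ℕ → ℝ} (hb0 : ∀ n, 0 < β n) (hb2 : ∀ n, β n < 1/2) (n : ℕ)
    {κf : ℝ} (hκfd : κf = 1 - (1 - κ0) * bet β (n + 1))
    (Th : PLEquiv K0 (coreF (grid F hQ hne hm) κf (.top a) 0))
    (e : PLEquiv (K0 ∩ X0) (bdP (grid F hQ hne hm) a))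
    (he : ∀ z ∈ K0 ∩ X0, e.f z = Th.f z)
    (hei : ∀ y ∈ bdP (grid F hQ hne hm) a, e.g y = Th.g y) {g0 : Gd E' J}
    (h0 : ∀ z ∈ K0 ∩ X0, EqAt (ekS (grid F hQ hne hm) b κ0 (.top a) Cc.fam lv e) g0 z)
    (hg : ∀ z ∈ K0 ∩ X0, EqAt (sqs g0 β (n + 1)) g z) :
    (∀ x ∈ K0, x ∈ X0 ↔ sl (grid F hQ hne hm) κf (Th.f x) (.top a) = 0) ∧
    ∀ x ∈ K0, x ∈ X0 →
      gG (Tq b (mm hfin)) (merge hfin g) x = cG (grid F hQ hne hm) κf Th.f x ∧
      gtop hm q0 (merge hfin g) x = ctop (grid F hQ hne hm) κf (.top a) Th.f x ∧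
      ∀ t ∈ (grid F hQ hne hm).cell (gtop hm q0 (merge hfin g) x),
        gtr (co Pf b (mm hfin)) (merge hfin g) x t
          = ctr (grid F hQ hne hm) κf Th.f Th.g x t := by
  have hκf : 0 < κf ∧ κf < 1 := by
    rw [hκfd]; exact kf_pos hκ0 (bet_pos hb0 (n + 1)) (bet_le hb0 hb2 (n + 1))
  have hbd : ∀ x ∈ K0, x ∈ X0 ↔ sl (grid F hQ hne hm) κf (Th.f x) (.top a) = 0 := by
    intro x hx
    rw [sl_bdP _ a hκf (Th.mf hx).1]
    constructor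
    · intro h0
      rw [← he x ⟨hx, h0⟩]
      exact e.mf ⟨hx, h0⟩
    · intro h1
      have h2 := e.mg h1
      rw [hei _ h1, Th.li x hx] at h2
      exact h2.2
  refine ⟨hbd, fun x hx hx0 => ?_⟩
  obtain ⟨q, hq⟩ := hcov x ⟨hx, hx0⟩
  obtain ⟨y, hy⟩ := ex q
  have hIs := inv_merge_is H hfin (mem_univ q)
  refine bg_R F hQ hne hm q0 X hκ0 (.top a) hinj hlt hsur hfin hb0 hb2 n hκfd Th (g0 := g0)
    (g := g) (Z := K q) hK0 (hcl q) e (fun z hz hzK => ⟨hzK, hKX q hz⟩) he hei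
    (fun z hz hzK => (hbd z hzK).1 (hKX q hz)) (fun z hz hzK => ?_)
    (fun z hz hzK => h0 z ⟨hzK, hKX q hz⟩) (fun z hz hzK => hg z ⟨hzK, hKX q hz⟩)
    (fun κ β h1 h2 h3 h4 q y hy => sq_exact F hQ hne hm (.top a) ⟨h1, h2⟩ h3 h4 (by ring) hy)
    (fun z hz _ => merge_agree H (mem_univ q) hz) hIs (cols_fin F H (mem_univ q) hy)
    (fun z hz => On_441.G_memG2 H hfin hm (mem_univ q) hz hy) (fun q => q.free_fin F hm) hq hx
  have h1 : Th.f z ∈ bdP (grid F hQ hne hm) a := by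
    rw [← sl_bdP _ a hκf (Th.mf hzK).1]
    exact (hbd z hzK).1 (hKX q hz)
  obtain ⟨q', hq', h2⟩ := h1
  exact ⟨q', h2, fun w hw => ⟨q', hq', hw⟩⟩

/-- the data of one core; `M` = a property of the map of the core (metric clauses) -/
def CoreTh (C : CC La (Cel Pf (mm hfin))) (hm : ∀ a, 0 < mm hfin a) (q0 : Cel Pf (mm hfin))
    (T : (Fam → ℝ) → E) (co : E → Fam → ℝ) (g : Gd E' J) (X0 : Set E') (κ : ℝ) (K0 : Set E')
    (c : Cel Pf (mm hfin)) (M : (E' → E) → Prop) : Prop :=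
  ∃ Th : PLEquiv K0 (coreF C κ c 0), M (cG C κ Th.f) ∧
    (∀ x ∈ K0, x ∈ X0 ↔ sl C κ (Th.f x) c = 0) ∧
    ∀ x ∈ K0, x ∈ X0 →
      gG T (merge hfin g) x = cG C κ Th.f x ∧
      gtop hm q0 (merge hfin g) x = ctop C κ c Th.f x ∧
      ∀ t ∈ C.cell (gtop hm q0 (merge hfin g) x),
        gtr co (merge hfin g) x t = ctr C κ Th.f Th.g x t

/-- **`Fin_147.Giants` from the data of all cores** -/
theorem giants_of {C : CC La (Cel Pf (mm hfin))} {T : (Fam → ℝ) → E} {co : E → Fam → ℝ}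
    {hm : ∀ a, 0 < mm hfin a} {q0 : Cel Pf (mm hfin)} {X0 Ω : Set E'} {κ : Fam → ℝ}
    {Kt : Fam → Set E'} (hκ : ∀ a, 0 < κ a ∧ κ a < 1) (sub : ∀ a, Kt a ⊆ Ω)
    (cov : Ω ⊆ X0 ∪ ⋃ a, Kt a) (disj : ∀ a a', a ≠ a' → Disjoint (Kt a) (Kt a'))
    (lf : ∀ x ∈ Ω, ∃ U ∈ 𝓝 x, {a | (Kt a ∩ U).Nonempty}.Finite)
    {M : Fam → (E' → E) → Prop}
    (h : ∀ a, CoreTh C hm q0 T co g X0 (κ a) (Kt a) (.top a) (M a)) :
    ∃ Th : ∀ c : TopC (Cel Pf (mm hfin)), PLEquiv (Kt (tix c)) (coreF C (κ (tix c)) c.1 0),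
      Giants hfin hm q0 Ω X0 g C T co (fun c => κ (tix c)) (fun c => Kt (tix c)) Th ∧
      ∀ c, M (tix c) (cG C (κ (tix c)) (Th c).f) := by
  have h' : ∀ c : TopC (Cel Pf (mm hfin)),
      CoreTh C hm q0 T co g X0 (κ (tix c)) (Kt (tix c)) c.1 (M (tix c)) := fun c => by
    have h1 := h (tix c)
    rwa [← tix_spec c] at h1
  choose Th h0 h1 h2 using h'
  have hinj : ∀ c c' : TopC (Cel Pf (mm hfin)), tix c = tix c' → c = c' := fun c c' he => by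
    rw [← topc_tix c, ← topc_tix c', he]
  refine ⟨Th, ⟨fun c => hκ _, fun c => sub _, fun x hx => ?_, fun c c' hne => ?_, fun x hx => ?_,
    h1, fun c x hx hx0 => (h2 c x hx hx0).1, fun c x hx hx0 => (h2 c x hx hx0).2.1,
    fun c x hx hx0 => (h2 c x hx hx0).2.2⟩, h0⟩
  · rcases cov hx with h3 | h3
    · exact Or.inl h3
    · obtain ⟨a, ha⟩ := mem_iUnion.1 h3
      refine Or.inr (mem_iUnion.2 ⟨topc a, ?_⟩)
      show x ∈ Kt (tix (topc a))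
      rw [tix_topc]; exact ha
  · exact disj _ _ fun he => hne (hinj c c' he)
  · obtain ⟨U, hU, hf⟩ := lf x hx
    refine ⟨U, hU, Set.Finite.of_finite_image (f := tix) (hf.subset ?_)
      (fun c _ c' _ he => hinj c c' he)⟩
    rintro _ ⟨c, hc, rfl⟩
    exact hc

/-- **type R core as `CoreTh`** -/
theorem coreTh_R (F : Foam La Pf b 4) (hQ : Quads Pf b) (hne : ∀ c, (Pf c).Nonempty)
    (hm : ∀ a, 0 < mm hfin a) (q0 : Cel Pf (mm hfin))
    (X : GridOK (grid F hQ hne hm) (Tq b (mm hfin)) (co Pf b (mm hfin)))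
    (H : Inv Cc K univ g Pp c) (ex : ∀ q, ∃ y, Ex Cc Pf q y) (hcl : ∀ q, IsClosed (K q))
    (a : Fam) {K0 X0 : Set E'} (hK0 : IsClosed K0) (hKX : ∀ q, K q ⊆ X0)
    (hcov : ∀ x ∈ K0 ∩ X0, ∃ q, x ∈ K q)
    {κ0 : ℝ} (hκ0 : 0 < κ0 ∧ κ0 < 1) {lv : J → ℕ}
    (hinj : ∀ j j', Cc.fam j = Cc.fam j' → lv j = lv j' → j = j')
    (hlt : ∀ j, lv j < mm hfin (Cc.fam j))
    (hsur : ∀ a k, k < mm hfin a → ∃ j, Cc.fam j = a ∧ lv j = k)
    {β : ℕ → ℝ} (hb0 : ∀ n, 0 < β n) (hb2 : ∀ n, β n < 1/2) (n : ℕ)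
    {κf : ℝ} (hκfd : κf = 1 - (1 - κ0) * bet β (n + 1))
    (Th : PLEquiv K0 ((grid F hQ hne hm).cell (.top a)))
    (e : PLEquiv (K0 ∩ X0) (bdP (grid F hQ hne hm) a))
    (he : ∀ z ∈ K0 ∩ X0, e.f z = Th.f z)
    (hei : ∀ y ∈ bdP (grid F hQ hne hm) a, e.g y = Th.g y) {g0 : Gd E' J}
    (h0 : ∀ z ∈ K0 ∩ X0, EqAt (ekS (grid F hQ hne hm) b κ0 (.top a) Cc.fam lv e) g0 z)
    (hg : ∀ z ∈ K0 ∩ X0, EqAt (sqs g0 β (n + 1)) g z) {M : (E' → E) → Prop}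
    (hM : M (cG (grid F hQ hne hm) κf Th.f)) :
    CoreTh (grid F hQ hne hm) hm q0 (Tq b (mm hfin)) (co Pf b (mm hfin)) g X0 κf K0 (.top a) M := by
  have hκf : 0 < κf ∧ κf < 1 := by
    rw [hκfd]; exact kf_pos hκ0 (bet_pos hb0 (n + 1)) (bet_le hb0 hb2 (n + 1))
  have h1 := coreF_zero (grid F hQ hne hm) hκf (.top a)
  let Th' : PLEquiv K0 (coreF (grid F hQ hne hm) κf (.top a) 0) :=
    { f := Th.f, g := Th.g, pf := Th.pf, pg := by rw [h1]; exact Th.pg,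
      mf := by rw [h1]; exact Th.mf, mg := by rw [h1]; exact Th.mg,
      li := Th.li, ri := by rw [h1]; exact Th.ri }
  exact ⟨Th', hM, giant_R F hQ hne hm q0 X H ex hcl a hK0 hKX hcov hκ0 hinj hlt hsur hb0 hb2 n hκfd
    Th' e he hei h0 hg⟩

/-- **type D core as `CoreTh`** (241's `exists_Th_mesh`) -/
theorem coreTh_D {T : (Fam → ℝ) → E} {co : E → Fam → ℝ} {C : CC La (Cel Pf (mm hfin))}
    [FiniteDimensional ℝ E'] (hLa : IsOpen La) (hE3 : Module.finrank ℝ E = 3) (F : Foam La Pf b 4)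
    (hm : ∀ a, 0 < mm hfin a) (q0 : Cel Pf (mm hfin)) (OK : GridOK C T co)
    (H : Inv Cc K univ g Pp c) {ℓ : J → ℝ} (hO : Ord Cc ℓ)
    (hℓ : ∀ j j', j ≠ j' → Cc.fam j = Cc.fam j' → ℓ j ≠ ℓ j')
    {a : Fam} {K0 S X0 : Set E'} (hK0 : IsBall 3 K0 S) (hS0 : ∀ x ∈ K0, x ∈ X0 ↔ x ∈ S)
    {ι : Type} [Finite ι] (Ks : ι → Q) (hS : S = ⋃ i, K (Ks i)) (hcl : ∀ i, IsClosed (K (Ks i)))
    (hx : ∀ i, ∃ y, Ex Cc Pf (Ks i) y ∧ y a = 0)
    (circ : ∀ j, Cc.fam j ≠ a → (Pf (Cc.fam j) ∩ Pf a).Nonempty →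
      Nonempty (PLEquiv (sph 2) {x | x ∈ S ∧ g.G j x = 1/2}))
    (sq : ∀ q : Gx Pf (mm hfin), q.free.ncard = 2 → q.hi a = 0 →
      ∃ x, {z | z ∈ S ∧ gG T (merge hfin g) z = C.b (.gr q)} = {x})
    {κ : ℝ} (hκ : 0 < κ ∧ κ < 1) :
    CoreTh C hm q0 T co g X0 κ K0 (.top a) (fun _ => True) := by
  obtain ⟨Th, h1, h2⟩ := At_241.exists_Th_mesh hLa hE3 F hm H OK hO hℓ q0 hK0 Ks hS hcl hx circ sq
    hκ le_rfl zero_lt_one
  refine ⟨Th, trivial, fun x hxK => (hS0 x hxK).trans (h1 x hxK), fun x hxK hx0 => ?_⟩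
  obtain ⟨a1, a2, a3⟩ := h2 x ((hS0 x hxK).1 hx0)
  exact ⟨a1.symm, a2.symm, fun t ht => (a3 t ht).symm⟩

end mesh

end Crest.Agent.R096.Gia_537
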