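import Crest.Agent.R096.Oa2_527

/-!
# Row 96 (S0127), OUT-ASM, part 3 (helper527): `MachG ⟹ MachBF`

`MachG` = the same Prop as `Mbf_337.MachBF`, its conclusion being about the structure map `G`:
`Expl Om C G` (= `Trn.expl`), the adjacency input of `adj2` and the metric clauses `OutG`.
No tolerances, no `g`.
-/

set_option autoImplicit false
set_option linter.unusedSectionVars false
set_option linter.unusedVariables false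
set_option linter.style.longLine false

open Set Filter Topology Metric MeasureTheory
open scoped ENNReal

namespace Crest.Agent.R096.Oa_527

open Crest.Agent.R096.Brk1_582 Crest.Agent.R096.Brk3_582 Crest.Agent.R096.Brk5_582
open Crest.Agent.R096.Bsp_628
open Crest.Agent.R096.SkC1_961 (E3 Hom3 FoamD Cfg th NN)
open Crest.Agent.R096.Msh_715 Crest.Agent.R096.Nr_527
open Crest.Agent.R096.Xp_537 (CC Expl Trn)
open Crest.Agent.R096.Mbf_337 (KJ sb gau)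

variable {δ κ0 R c0 : ℝ} {La Om : Set E3} {ι : Type} {Φ : FoamD δ κ0 R c0 La} {T : Tiling Om ι}
  {f : E3 → E3} {κ1 κ1' κ2 : ℝ}

theorem exact_mono (h : κ1 ≤ κ1') {c : Φ.F} {i : ι} {A : E3 ≃ᵃ[ℝ] E3} {lam : ℝ} {z : E3}
    (hE : Mbf_337.Exact Φ T f κ1 κ2 c i A lam z) : Mbf_337.Exact Φ T f κ1' κ2 c i A lam z where
  lam0 := hE.lam0
  lam1 := hE.lam1
  box_in := hE.box_in
  hole := hE.hole
  ray := hE.ray
  tile := hE.tile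
  nbd x hx := ⟨(hE.nbd x hx).1, fun hi => ((hE.nbd x hx).2 hi).trans
    (mul_le_mul_of_nonneg_right h (mul_nonneg hE.lam0.le (Bx.sz_pos (Φ.bf.pos _ c.2)).le))⟩
  inside := hE.inside
  miss := hE.miss

theorem tiny_mono (h : κ1 ≤ κ1') {c : Φ.F} {J0 J V : Set ι} {θ : E3 → E3} {φ : E3 → ℝ}
    (hT : Mbf_337.Tiny Φ T f κ1 c J0 J V θ φ) : Mbf_337.Tiny Φ T f κ1' c J0 J V θ φ where
  pt := hT.pt
  finV := hT.finV
  sub0 := hT.sub0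
  sub := hT.sub
  ball := hT.ball
  mem := hT.mem
  inside := hT.inside
  room := by
    obtain ⟨ρ1, ρ2, ρ3, ρ4, d, h0, h1, h2⟩ := hT.room
    exact ⟨ρ1, ρ2, ρ3, ρ4, d, h0, h1.trans h, h2⟩
  bij := hT.bij
  aff := hT.aff
  lin := hT.lin
  tr := hT.tr
  st := hT.st
  reg := hT.reg
  slice := hT.slice

theorem cores_mono (h : κ1 ≤ κ1') {X : Set Φ.F} {J0 J V : Φ.F → Set ι}
    {ct : Φ.F → ι} {A : Φ.F → E3 ≃ᵃ[ℝ] E3} {lam : Φ.F → ℝ} {z : Φ.F → E3} {θ : Φ.F → E3 → E3}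
    {φ : Φ.F → E3 → ℝ} (hC : Mbf_337.Cores Φ T f κ1 κ2 X J0 J V ct A lam z θ φ) :
    Mbf_337.Cores Φ T f κ1' κ2 X J0 J V ct A lam z θ φ where
  disj := hC.disj
  one := hC.one
  exact_ c hc := exact_mono h (hC.exact_ c hc)
  tiny c hc := tiny_mono h (hC.tiny c hc)

theorem fine_mono (h : κ1 ≤ κ1') {J0 : Φ.F → Set ι} (hF : Mbf_337.Fine Φ T f κ1 J0) :
    Mbf_337.Fine Φ T f κ1' J0 where
  psi i hi x hx y hy c hc := (hF.psi i hi x hx y hy c hc).trans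
    (mul_le_mul_of_nonneg_right h (Bx.sz_pos (Φ.bf.pos _ c.2)).le)
  lev i hi x hx y hy c := (hF.lev i hi x hx y hy c).trans h

/-- the conclusion of the machine for the structure map -/
structure GOut (C0 : ℝ) (C : Set (Set E3) → ℝ) (e : ℝ)
    (Φ : FoamD δ κ0 R c0 La) (T : Tiling Om ι) (f : E3 → E3) (X : Set Φ.F) (J0 V : Φ.F → Set ι)
    (ct : Φ.F → ι) (A : Φ.F → E3 ≃ᵃ[ℝ] E3) (lam : Φ.F → ℝ) (κ : Φ.F → ℕ) (L : Φ.F → Finset ℝ)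
    (G : E3 → E3) : Prop where
  /-- `Trn.expl` -/
  expl : ∃ (Q : Type) (_ : PartialOrder Q) (𝒞 : CC La Q), Nonempty (Expl Om 𝒞 G)
  /-- in the core `c`: `G x` in the closed brick `c`; elsewhere `G x` in every brick which contains
  `Psi (f x0)`, for some `x0` of the same tile (441's `Ex`, 537 / 181's cells) -/
  adj : ∀ x ∈ Om, (∃ c : Φ.F, x ∈ KJ T (V c) ∧ G x ∈ Pc Φ.F c) ∨
    ∃ i, (∀ c, i ∉ J0 c) ∧ x ∈ P (T.H i) ∧ ∃ x0 ∈ P (T.H i), ∀ a : Φ.F,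
      Φ.Psi (f x0) ∈ Pc Φ.F a → G x ∈ Pc Φ.F a
  met : OutG C0 C e Φ T f X V ct A lam κ L G

/-- **the machine for the structure map** -/
def MachG : Prop :=
  ∀ δ κ0 R c0 κ2 κ3 : ℝ, 0 < δ → 1 ≤ κ0 → 1 ≤ R → 0 < c0 → 0 < κ2 → 8 ≤ κ3 →
  ∃ (C0 : ℝ) (C : Set (Set E3) → ℝ), 0 < C0 ∧ (∀ 𝒦, 0 < C 𝒦) ∧ ∀ e : ℝ, 0 < e →
  ∃ κp : ℝ, 0 < κp ∧ ∀ μ : ℝ, 0 < μ → μ ≤ κp → ∃ κ1 : ℝ, 0 < κ1 ∧
  ∀ (Om La : Set E3) (f : E3 → E3), IsOpen Om → Bornology.IsBounded Om → IsConnected Om →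
    IsOpen La → Bornology.IsBounded La → IsConnected La → Hom3 f Om La →
  ∀ (Φ : FoamD δ κ0 R c0 La) (ι : Type) (T : Tiling Om ι) (X : Set Φ.F) (J0 J V : Φ.F → Set ι)
    (ct : Φ.F → ι) (A : Φ.F → E3 ≃ᵃ[ℝ] E3) (lam : Φ.F → ℝ) (z : Φ.F → E3) (θ : Φ.F → E3 → E3)
    (φ : Φ.F → E3 → ℝ) (M : Φ.F → ℕ),
    Mbf_337.Star Φ → Mbf_337.Cores Φ T f κ1 κ2 X J0 J V ct A lam z θ φ →
    Mbf_337.Fine Φ T f κ1 J0 →
  ∃ (Z : Φ.F → Set ℝ) (m0 : Φ.F → ℕ), (∀ c, volume (Z c) = 0) ∧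
  ∀ (κ : Φ.F → ℕ) (L : Φ.F → Finset ℝ), Mbf_337.Levels Φ T f κp μ κ3 Z m0 κ L →
    Mbf_337.Words Φ T f X ct A lam z M L →
  ∃ G : E3 → E3, GOut C0 C e Φ T f X J0 V ct A lam κ L G

/-- **from the structure map to the homeomorphism** -/
theorem machBF_of (h : MachG) : Mbf_337.MachBF := by
  intro δ κ0 R c0 κ2 κ3 hδ hκ0 hR hc0 hκ2 hκ3
  obtain ⟨C0, Cs, hC0, hCs, h⟩ := h δ κ0 R c0 κ2 κ3 hδ hκ0 hR hc0 hκ2 hκ3
  refine ⟨max (C0 + 1) (2 + R), Cs, lt_max_of_lt_left (by linarith), hCs, fun e he => ?_⟩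
  obtain ⟨κp, hκp, h⟩ := h (max (e / 2) (e - 1)) (lt_max_of_lt_left (half_pos he))
  refine ⟨κp, hκp, fun μ hμ hμp => ?_⟩
  obtain ⟨κ1, hκ1, h⟩ := h μ hμ hμp
  obtain ⟨κs, hκs, hs⟩ := exists_small (κ0 := κ0) hδ (zero_lt_one.trans_le hR)
    (zero_le_one.trans hκ0) hκ2
  refine ⟨min κ1 κs, lt_min hκ1 hκs, ?_⟩
  intro Om La f hOm hOmb hOmc hLa hLab hLac hf Φ ι T X J0 J V ct A lam z θ φ M hst hcr hF
  obtain ⟨Z, m0, hZ, h⟩ := h Om La f hOm hOmb hOmc hLa hLab hLac hf Φ ι T X J0 J V ct A lam z θ φ M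
    hst (cores_mono (min_le_left _ _) hcr) (fine_mono (min_le_left _ _) hF)
  refine ⟨Z, m0, hZ, fun κ L hL hW tol htol => ?_⟩
  obtain ⟨G, ⟨Q, hQ, 𝒞, ⟨hE⟩⟩, hadj, hmet⟩ := h κ L hL hW
  have hs' : Small δ κ0 R (min κ1 κs) κ2 := hs _ (lt_min hκ1 hκs).le (min_le_right _ _)
  have hA : Adj Φ.F Om f G := adj2 hLa hf hs' hcr hF hadj
  refine out_of_cores hOm hLa hLac.nonempty hE hf hA hcr
    (max_lt (half_lt_self he) (by linarith)) ?_ (le_max_right _ _) hmet htol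
  refine le_trans ?_ (le_max_left _ _)
  have : e - 1 ≤ max (e / 2) (e - 1) := le_max_right _ _
  linarith

end Crest.Agent.R096.Oa_527
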