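import Crest.Agent.R096.Gia1_537
import Crest.Agent.R096.Gia2_537
import Crest.Agent.R096.Oa3_527
import Crest.Agent.R096.Grd8_714
import Crest.Agent.R096.Grd9_714
import Crest.Agent.R096.P2f_241

/-!
# R096 (row 96), GOUT-ASM (helper537)

`gout_of` : the conclusion `GOut` of `Oa_527.MachG` from the final data of the bottom half:
cores (`Mbf_337.Cores`, `Fine`), the mesh `Xc : Cplx (Om ∩ X0) Q dim K` with the band structure
`H : Inv Cc K univ g`, (K4) at `Psi (f x0)`, the charts of the cores (`CoreTh`), arcs, sheets and the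
two metric clauses (`lip` for `gG` on the tiles, `core` for `cG` on the exact cores).
-/

set_option autoImplicit false
set_option linter.unusedSectionVars false
set_option linter.unusedVariables false
set_option linter.deprecated false
set_option linter.style.longLine false

open Set Filter Topology Metric MeasureTheory Module
open scoped ENNReal

namespace Crest.Agent.R096.Gia_537

open Crest.Agent.R096.Ce_537 (PLOn PLEquiv cube sph IsBall Cplx)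
open Crest.Agent.R096.Bd_416 Crest.Agent.R096.Mg_441
open Crest.Agent.R096.Brk1_582 Crest.Agent.R096.Brk2_582 Crest.Agent.R096.Brk3_582
open Crest.Agent.R096.Brk5_582 Crest.Agent.R096.Brk6_582
open Crest.Agent.R096.Bsp_628
open Crest.Agent.R096.Grd_714
open Crest.Agent.R096.Xp_537
open Crest.Agent.R096.Ar_241 (Tr0 TopC Exact cod SheetData)
open Crest.Agent.R096.Ar_241.Tr0 (P2)
open Crest.Agent.R096.Shp_334 (OnMesh)
open Crest.Agent.R096.Fin_147 (Giants XM)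
open Crest.Agent.R096.SkC1_961 (E3 Hom3 FoamD Cfg th NN)
open Crest.Agent.R096.Msh_715
open Crest.Agent.R96.Push_899
open Crest.Agent.R096.Mbf_337 (KJ)
open Crest.Agent.R096.Nr_527
open Crest.Agent.R096.Oa_527 (GOut OutG)

variable {δ κ0 R c0 : ℝ} {La Om : Set E3} {ι : Type} {Φ : FoamD δ κ0 R c0 La}
  {T : Tiling Om ι} {f : E3 → E3} {κ1 κ2 : ℝ} {X : Set Φ.F} {J0 J V : Φ.F → Set ι} {ct : Φ.F → ι}
  {A : Φ.F → E3 ≃ᵃ[ℝ] E3} {lam : Φ.F → ℝ} {z : Φ.F → E3} {θ : Φ.F → E3 → E3} {φ : Φ.F → E3 → ℝ}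

theorem foam4 (Φ : FoamD δ κ0 R c0 La) (hLa : IsOpen La) : Foam La (Pc Φ.F) (bc (F := Φ.F)) 4 := by
  have := foam Φ.bf hLa
  simpa using this

theorem quads4 (Φ : FoamD δ κ0 R c0 La) : Quads (Pc Φ.F) (bc (F := Φ.F)) :=
  quads_box Φ.bf (by simp)

theorem ne4 (Φ : FoamD δ κ0 R c0 La) (c : Φ.F) : (Pc Φ.F c).Nonempty := by
  refine ⟨c.1.lo, Bx.mem_set.2 fun k => ⟨le_rfl, ?_⟩⟩
  have := Bx.side_pos (Φ.bf.pos _ c.2) k
  unfold Bx.side at this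
  linarith

section

variable {Q : Type} [PartialOrder Q] {dim : Q → ℕ} {Jf : Type} {Cc : Cmb Q dim Jf Φ.F}
  {K : Q → Set E3} {g : Gd E3 Jf} {Pp : ∀ q, Cc.I q → Set E3} {cc : ∀ q, Cc.I q → E3 → ℝ}
  {hfin : ∀ a, {j | Cc.fam j = a}.Finite}

/-- the grid of the final structure -/
noncomputable abbrev grd (Φ : FoamD δ κ0 R c0 La) (hLa : IsOpen La) {m : Φ.F → ℕ}
    (hm : ∀ a, 0 < m a) : CC La (Cel (Pc Φ.F) m) :=
  grid (foam4 Φ hLa) (quads4 Φ) (ne4 Φ) hm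

/-- the cores, indexed by the top cells of the grid -/
noncomputable abbrev KT (T : Tiling Om ι) (J : Φ.F → Set ι) (m : Φ.F → ℕ) :
    TopC (Cel (Pc Φ.F) m) → Set E3 := fun c => Kc T J (tix c)

/-- the parameters -/
noncomputable abbrev KK (κc : Φ.F → ℝ) (m : Φ.F → ℕ) : TopC (Cel (Pc Φ.F) m) → ℝ :=
  fun c => κc (tix c)

/-- **(K4) at `Psi (f x0)`** -/
def K4 (f : E3 → E3) (Φ : FoamD δ κ0 R c0 La) (T : Tiling Om ι) (J : Φ.F → Set ι)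
    (Cc : Cmb Q dim Jf Φ.F) (K : Q → Set E3) : Prop :=
  ∀ q, ∃ i, (∀ c, i ∉ J c) ∧ K q ⊆ P (T.H i) ∧ ∃ x0 ∈ P (T.H i),
    Ex Cc (Pc Φ.F) q (sc (Pc Φ.F) (bc (F := Φ.F)) (Φ.Psi (f x0)))

theorem K4.ex (h : K4 f Φ T J Cc K) (q : Q) : ∃ y, Ex Cc (Pc Φ.F) q y := by
  obtain ⟨i, -, -, x0, -, h1⟩ := h q
  exact ⟨_, h1⟩

/-- `Psi (f x0)` is in `La` for `x0` in a tile near no hole -/
theorem Psi_La (hLa : IsOpen La) (hf : Hom3 f Om La) (hκ1 : 0 ≤ κ1) (hκ : κ0 * κ1 < κ2)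
    (hC : Mbf_337.Cores Φ T f κ1 κ2 X J0 J V ct A lam z θ φ) {i : ι} (hi : ∀ c, i ∉ J0 c)
    {x0 : E3} (hx0 : x0 ∈ P (T.H i)) : Φ.Psi (f x0) ∈ La := by
  have hmap : f x0 ∈ La := by
    obtain ⟨fi, hm, -⟩ := hf
    exact hm (T.sub i hx0)
  have FF := foam Φ.bf hLa
  obtain ⟨d, hd⟩ := FF.cov _ hmap
  exact FF.sub d (Psi_mem Φ hLa hd (not_hole2 hf hκ1 hκ hC (hi d) hx0))

/-- the structure map on a mesh cell lies in every brick which contains `Psi (f x0)` -/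
theorem gG_adj (hLa : IsOpen La) (hf : Hom3 f Om La) (hκ1 : 0 ≤ κ1) (hκ : κ0 * κ1 < κ2)
    (hC : Mbf_337.Cores Φ T f κ1 κ2 X J0 J V ct A lam z θ φ) (h4 : K4 f Φ T J Cc K)
    (H : Inv Cc K univ g Pp cc) (hm : ∀ a, 0 < mm hfin a) {q : Q} {x : E3} (hx : x ∈ K q) :
    ∃ i, (∀ c, i ∉ J0 c) ∧ x ∈ P (T.H i) ∧ ∃ x0 ∈ P (T.H i), ∀ a : Φ.F,
      Φ.Psi (f x0) ∈ Pc Φ.F a → gG (Tq (bc (F := Φ.F)) (mm hfin)) (merge hfin g) x ∈ Pc Φ.F a := by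
  obtain ⟨i, hi, hKi, x0, hx0, hex⟩ := h4 q
  have hi0 : ∀ c, i ∉ J0 c := fun c h => hi c (J0_sub hC c h)
  refine ⟨i, hi0, hKi hx, x0, hx0, fun a ha => ?_⟩
  exact gG_mem (foam4 Φ hLa) H hfin hm (mem_univ q) hx
    (Psi_La hLa hf hκ1 hκ hC hi0 hx0) hex
    (fun v hv a hva => (Tq_mem_iff (foam4 Φ hLa) (quads4 Φ) hm hv).2 hva) ha

/-- **the clause `prop` of MACH-INST** -/
theorem prop_of (hLa : IsOpen La) (hf : Hom3 f Om La) (hs : Small δ κ0 R κ1 κ2)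
    (hC : Mbf_337.Cores Φ T f κ1 κ2 X J0 J V ct A lam z θ φ) (hF : Mbf_337.Fine Φ T f κ1 J0)
    (h4 : K4 f Φ T J Cc K) (H : Inv Cc K univ g Pp cc) (hm : ∀ a, 0 < mm hfin a)
    (hcov : ∀ x ∈ Om, x ∈ X0 (Φ := Φ) T J → ∃ q, x ∈ K q) {Y : Set E3} (hY : IsCompact Y)
    (hYL : Y ⊆ La) :
    ∃ B ⊆ Om, IsCompact B ∧ ∀ q, ∀ x ∈ K q,
      gG (Tq (bc (F := Φ.F)) (mm hfin)) (merge hfin g) x ∈ Y → x ∈ B := by
  classical
  -- a total map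
  have hch : ∀ x : E3, ∃ y : E3, ∀ c : Φ.F, x ∈ Kc T J c → y ∈ Pc Φ.F c := by
    intro x
    by_cases h : ∃ c : Φ.F, x ∈ Kc T J c
    · obtain ⟨c, hc⟩ := h
      obtain ⟨y, hy⟩ := ne4 Φ c
      refine ⟨y, fun c' hc' => ?_⟩
      by_cases he : c = c'
      · subst he; exact hy
      · exact absurd hc' (disjoint_left.1 (Kc_disj hLa hC he) hc)
    · exact ⟨0, fun c hc => absurd ⟨c, hc⟩ h⟩
  choose G0 hG0 using hch
  let G1 : E3 → E3 := fun x =>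
    if ∃ q, x ∈ K q then gG (Tq (bc (F := Φ.F)) (mm hfin)) (merge hfin g) x else G0 x
  have hA : Adj Φ.F Om f G1 := by
    refine adj2 hLa hf hs hC hF fun x hx => ?_
    by_cases h : ∃ q, x ∈ K q
    · obtain ⟨q, hq⟩ := h
      obtain ⟨i, h1, h2, x0, h3, h5⟩ := gG_adj hLa hf hs.k1 hs.c hC h4 H hm hq
      refine Or.inr ⟨i, h1, h2, x0, h3, fun a ha => ?_⟩
      show (if ∃ q, x ∈ K q then _ else _) ∈ _
      rw [if_pos ⟨q, hq⟩]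
      exact h5 a ha
    · rcases cov (Φ := Φ) (T := T) (J := J) hx with h1 | h1
      · exact absurd (hcov x hx h1) h
      · obtain ⟨c, hc⟩ := mem_iUnion.1 h1
        refine Or.inl ⟨c, KJ_mono (J_sub hC c) hc, ?_⟩
        show (if ∃ q, x ∈ K q then _ else _) ∈ _
        rw [if_neg h]
        exact hG0 x c hc
  obtain ⟨fi, f1, f2, f3, -, -, f6⟩ := hf
  obtain ⟨Z, hZ, hZL, hZf⟩ := hA.exists_compact Φ.bf hLa f1 hY hYL
  refine ⟨fi '' Z, ?_, hZ.image_of_continuousOn (f6.mono hZL), fun q x hx hxY => ?_⟩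
  · rintro _ ⟨w, hw, rfl⟩
    exact f2 (hZL hw)
  · have hxO : x ∈ Om := by
      obtain ⟨i, -, hKi, -⟩ := h4 q
      exact T.sub i (hKi hx)
    refine ⟨f x, hZf x hxO ?_, f3 x hxO⟩
    show (if ∃ q, x ∈ K q then _ else _) ∈ _
    rw [if_pos ⟨q, hx⟩]
    exact hxY

/-- the metric clause of an exact core for a map `F` on the core -/
def CoreM (C0 e : ℝ) (T : Tiling Om ι) (i : ι) (A : E3 ≃ᵃ[ℝ] E3) (lam : ℝ) (F : E3 → E3) : Prop :=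
  ∀ G : E3 → E3, EqOn G F (P (T.H i)) →
    (∀ x ∈ I (T.H i), ∀ᶠ y in 𝓝 x, ‖G y - G x‖ ≤ C0 * (1 / lam * ‖A y - A x‖)) ∧
    ∃ W : Set E3, volume (W ∩ P (T.H i)) ≤ ENNReal.ofReal e * volume (P (T.H i)) ∧
      ∀ x ∈ I (T.H i), x ∉ W → ∀ᶠ y in 𝓝 x,
        ‖(G y - G x) - (1 / lam) • (A y - A x)‖ ≤ e * (1 / lam * ‖A y - A x‖)

/-- **GOUT-ASM** -/
theorem gout_of [Nonempty Q] (hOm : IsOpen Om) (hLa : IsOpen La) (hf : Hom3 f Om La)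
    (hs : Small δ κ0 R κ1 κ2)
    (hC : Mbf_337.Cores Φ T f κ1 κ2 X J0 J V ct A lam z θ φ) (hF : Mbf_337.Fine Φ T f κ1 J0)
    -- the mesh and its structure
    (Xc : Cplx (Om ∩ X0 T J) Q dim K) (H : Inv Cc K univ g Pp cc) (h4 : K4 f Φ T J Cc K)
    (hm : ∀ a, 0 < mm hfin a) (q0 : Cel (Pc Φ.F) (mm hfin))
    -- the cores
    {κc : Φ.F → ℝ} (hκc : ∀ a, 0 < κc a ∧ κc a < 1) {C0 e : ℝ}
    (hTh : ∀ a, CoreTh (grd Φ hLa hm) hm q0 (Tq (bc (F := Φ.F)) (mm hfin))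
      (co (Pc Φ.F) (bc (F := Φ.F)) (mm hfin)) g (X0 T J) (κc a) (Kc T J a) (.top a)
      (fun F => a ∈ X → CoreM C0 e T (ct a) (A a) (lam a) F))
    -- arcs and sheets
    (arcs : ∀ (G : E3 → E3) (Xt : Tr0 Om (grd Φ hLa hm) G),
      OnMesh Xt K g (Tq (bc (F := Φ.F)) (mm hfin)) (XM Om K) →
      Nonempty (Exact Xt (KK κc (mm hfin)) (fun _ => 0) (KT T J (mm hfin)) (XM Om K)) →
      ∀ q, cod (grd Φ hLa hm) q = 1 →
      IsBall 1 (Xt.F q ∩ XM Om K) (Xt.F q ∩ XM Om K ∩ ⋃ c, KT T J (mm hfin) c))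
    (sheets : ∀ (G : E3 → E3) (Xt : Tr0 Om (grd Φ hLa hm) G),
      OnMesh Xt K g (Tq (bc (F := Φ.F)) (mm hfin)) (XM Om K) →
      Nonempty (Exact Xt (KK κc (mm hfin)) (fun _ => 0) (KT T J (mm hfin)) (XM Om K)) →
      ∀ q, cod (grd Φ hLa hm) q = 2 → SheetData Xt (KT T J (mm hfin)) (XM Om K) q)
    -- the metric clause on the tiles
    {Cs : Set (Set E3) → ℝ} {κ : Φ.F → ℕ} {L : Φ.F → Finset ℝ}
    (lip : ∀ i, (∀ c, i ∉ V c) → ∀ G : E3 → E3,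
      EqOn G (gG (Tq (bc (F := Φ.F)) (mm hfin)) (merge hfin g)) (P (T.H i)) →
      ∀ B : E3 ≃ᵃ[ℝ] E3, ∀ N : ℝ, 0 ≤ N → NN Φ T f κ L i ≤ ENNReal.ofReal N →
      ∀ x ∈ I (T.H i), ∀ᶠ y in 𝓝 x,
        ‖G y - G x‖ ≤ Cs ((fun K => B '' K) '' Cfg T i) * N * ‖B y - B x‖) :
    ∃ G : E3 → E3, GOut C0 Cs e Φ T f X J0 V ct A lam κ L G := by
  have hcov : ∀ x ∈ Om, x ∈ X0 (Φ := Φ) T J → ∃ q, x ∈ K q := fun x hx hx0 => Xc.cover x ⟨hx, hx0⟩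
  obtain ⟨Th, hGi, hM⟩ := giants_of (C := grd Φ hLa hm) (T := Tq (bc (F := Φ.F)) (mm hfin))
    (co := co (Pc Φ.F) (bc (F := Φ.F)) (mm hfin)) (X0 := X0 T J) (Ω := Om) (Kt := Kc T J) hκc
    (fun a => Kc_sub a) cov (fun a a' hne => Kc_disj hLa hC hne) (fun x hx => Kc_lf hC hx) hTh
  have hdim : ∀ q, (grd Φ hLa hm).dim q ≤ 3 := by
    intro q
    cases q with
    | top a => exact le_rfl
    | gr q =>
      have := q.free_card (foam4 Φ hLa) hm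
      exact this.trans (by norm_num)
  obtain ⟨G, Xt, hcont, hG, hGc⟩ := hGi.trn X0_closed Xc H (gridOK (foam4 Φ hLa) (quads4 Φ) (ne4 Φ) hm)
    h4.ex (fun r => prop_of hLa hf hs hC hF h4 H hm hcov
      ((grd Φ hLa hm).cpt r) ((grd Φ hLa hm).sub r))
    hLa hOm (by simp) (Ar_241.p2_of_finrank (by simp)) hdim
    (fun c x hx hx0 => bd_ball hLa hC hx hx0) arcs sheets
  have hcore : ∀ a, ∃ F : E3 → E3, (a ∈ X → CoreM C0 e T (ct a) (A a) (lam a) F) ∧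
      EqOn G F (Kc T J a) ∧ ∀ x ∈ Kc T J a, G x ∈ Pc Φ.F a := by
    intro a
    have e1 := hGc (topc a)
    have e2 := hM (topc a)
    have e3 : ∀ x ∈ Kc T J (tix (topc a : TopC (Cel (Pc Φ.F) (mm hfin)))),
        cG (grd Φ hLa hm) (κc (tix (topc a : TopC (Cel (Pc Φ.F) (mm hfin))))) (Th (topc a)).f x ∈
          (grd Φ hLa hm).cell (topc a : TopC (Cel (Pc Φ.F) (mm hfin))).1 := fun x hx =>
      st_mem (grd Φ hLa hm) (hκc _) ((Th (topc a)).mf hx).1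
    refine ⟨cG (grd Φ hLa hm) (κc (tix (topc a : TopC (Cel (Pc Φ.F) (mm hfin)))))
      (Th (topc a)).f, ?_⟩
    generalize cG (grd Φ hLa hm) (κc (tix (topc a : TopC (Cel (Pc Φ.F) (mm hfin)))))
      (Th (topc a)).f = F at e1 e2 e3 ⊢
    rw [tix_topc] at e1 e2 e3
    exact ⟨e2, e1, fun x hx => by rw [e1 x hx]; exact e3 x hx⟩
  have hmesh : ∀ x ∈ Om, x ∈ X0 (Φ := Φ) T J →
      G x = gG (Tq (bc (F := Φ.F)) (mm hfin)) (merge hfin g) x := fun x hx hx0 => by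
    obtain ⟨q, hq⟩ := hcov x hx hx0
    exact hG q x hq
  refine ⟨G, ⟨_, _, grd Φ hLa hm, ⟨Xt.expl⟩⟩, fun x hx => ?_, ⟨fun i hi => ?_, fun c hc => ?_⟩⟩
  · rcases cov (Φ := Φ) (T := T) (J := J) hx with h1 | h1
    · obtain ⟨q, hq⟩ := hcov x hx h1
      obtain ⟨i, a1, a2, x0, a3, a4⟩ := gG_adj hLa hf hs.k1 hs.c hC h4 H hm hq
      refine Or.inr ⟨i, a1, a2, x0, a3, fun a ha => ?_⟩
      rw [hG q x hq]
      exact a4 a ha
    · obtain ⟨c, hc⟩ := mem_iUnion.1 h1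
      obtain ⟨F, -, -, h2⟩ := hcore c
      exact Or.inl ⟨c, KJ_mono (J_sub hC c) hc, h2 x hc⟩
  · refine lip i hi G fun x hx => hmesh x (T.sub i hx) ?_
    exact tile_sub_X0 (fun c h => hi c (J_sub hC c h)) hx
  · obtain ⟨F, h1, h2, -⟩ := hcore c
    rw [Kc_exact hC hc] at h2
    exact h1 hc G h2

end

end Crest.Agent.R096.Gia_537
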