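import Crest.Agent.R096.At12_241
import Crest.Agent.R096.Fin4_147
import Crest.Agent.R096.Gia3_537

/-!
# R096 (row 96), ARR-INST part 13 (helper241): the literal hypothesis `arcs` of 147's `fin_gout`,
`fin_st`, `fin_stG`, and the squares on the boundary of a core

* `StO.exists_ord` : the order of the final sheets;
* **`arcs_lit`** : the literal `arcs`;
* **`sq_lit`** : one point of the fibre of a square on the frontier of a core.
-/

set_option autoImplicit false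
set_option linter.unusedSectionVars false
set_option linter.unusedVariables false
set_option linter.style.longLine false

open Set Metric Topology Module

namespace Crest.Agent.R096.At_241

open Crest.Agent.R096.Ce_537 Crest.Agent.R096.Bd_416 Crest.Agent.R096.Mg_441
  Crest.Agent.R096.Xp_537 Crest.Agent.R096.Grd_714
open Crest.Agent.R096.St_147 Crest.Agent.R096.Seq_213 Crest.Agent.R096.Lm_117
  Crest.Agent.R096.Cp_298 Crest.Agent.R096.SkB_662 Crest.Agent.R096.Ac_117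
open Crest.Agent.R096.Brk1_582 Crest.Agent.R096.Brk2_582 Crest.Agent.R096.Brk3_582
open Crest.Agent.R096.Brk5_582 Crest.Agent.R096.Bsp_628
open Crest.Agent.R096.Ar_241 (dirW cod Exact TopC Tr0 CoreData)
open Crest.Agent.R096.Shp_334 (half_merge exists_num OnMesh)
open Crest.Agent.R096.Fin_147 (XM Xout Ktc gr)
open Crest.Agent.R096.Gia_537 (foam4 quads4 ne4)
open Crest.Agent.R096.SkC1_961 (E3 Hom3 FoamD Cfg th NN)
open Crest.Agent.R096.Init_543 (fr3)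

section ord

variable {ι Φ W Q J Fam Kq : Type} {M : MeshC ι Φ W} [PartialOrder Q] {dim : Q → ℕ}
variable {L : LM M Q dim} {O : Ori M} {σ : Q → ZMod 2} {Rel : W → W → Prop} {V : Set W}
  {Qd : Quads ι Fam Kq} {κ : Fam → ℕ} {fam : J → Fam} {s₀ : GSt M fam} {far₀ : J → Set W}
  {Z : Fam → Set Q} {lam₀ : J → Q → ZMod 2} {v₀ v₁ : Fam → Q}
  {hfin : ∀ a, {j | fam j = a}.Finite} {kap : Fam → ℕ} {s : GSt M (fam' fam (Rk κ kap))}
  {far : Nm' fam (Rk κ kap) → Set W} {β : W → W} {lam : Nm' fam (Rk κ kap) → Q → ZMod 2}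

/-- **order of the final sheets** -/
theorem exists_ord (h : StO L O σ Rel V Qd κ s₀ far₀ Z lam₀ v₀ v₁ hfin kap s far β lam) :
    ∃ ℓ : Nm' fam (Rk κ kap) → ℝ, Ord h.cmb ℓ ∧
      ∀ j j', j ≠ j' → h.cmb.fam j = h.cmb.fam j' → ℓ j ≠ ℓ j' :=
  ⟨_, On_441.ordF h.lab h.lfs h.fin1, On_441.ordF_ne h.lab h.fin1⟩

end ord

section lit

variable {δ κ0 R c0 : ℝ} {La Om : Set E3} {Φ : FoamD δ κ0 R c0 La}
variable {ι Φc Q J Kq : Type} {M : MeshC ι Φc E3} [PartialOrder Q] {dim : Q → ℕ}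
variable {L : LM M Q dim} {O : Ori M} {σ : Q → ZMod 2} {Rel : E3 → E3 → Prop} {V : Set E3}
  {Qd : Quads ι Φ.F Kq} {κ : Φ.F → ℕ} {fam : J → Φ.F} {s₀ : GSt M fam} {far₀ : J → Set E3}
  {G : Φ.F → Set E3} {Z : Φ.F → Set Q} {lam₀ : J → Q → ZMod 2} {v₀ v₁ : Φ.F → Q}
  {hfin : ∀ a, {j | fam j = a}.Finite} {kap : Φ.F → ℕ} {s : GSt M (fam' fam (Rk κ kap))}
  {far : Nm' fam (Rk κ kap) → Set E3} {β : E3 → E3} {lam : Nm' fam (Rk κ kap) → Q → ZMod 2}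
variable {y : Q → Φ.F → ℝ} {tc : ι → Q} {ord : ι → Prop} {Zk : Kq → Set Φ.F}
  {core : Φ.F → ι} {D : Set Q}

/-- **the literal hypothesis `arcs`** -/
theorem arcs_lit (hLa : IsOpen La)
    (h : StO L O σ Rel V Qd κ s₀ far₀ Z lam₀ v₀ v₁ hfin kap s far β lam)
    (hi : StI L O σ Rel V Qd κ s₀ far₀ G Z lam₀ v₀ v₁)
    (hK : K4In L Qd s₀ Z v₀ (Pc Φ.F) D y) (hD : ∀ τ, ord τ → tc τ ∈ D)
    (Gq : QPos L Qd (Pc Φ.F) y tc ord Zk core) (Gs : QSt L Qd s₀ far₀ y tc ord Zk core)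
    {Kc : Φ.F → Set E3} {K : Q → Set E3} {Gf : Gd E3 (Nm' fam (Rk κ kap))}
    {P : ∀ q, h.cmb.I q → Set E3} {cb : ∀ q, h.cmb.I q → E3 → ℝ} {B : Set Q}
    {kk : ∀ q, h.cmb.I q → ℕ} (Gi : GeoIn h (Om ∩ Xout Kc) K Gf P cb B kk)
    {hf1 : ∀ a, {j | h.cmb.fam j = a}.Finite} (hm : ∀ a, 0 < mm hf1 a)
    (hne : ∀ c : Φ.F, (Pc Φ.F c).Nonempty)
    (hKt : ∀ c F', core c ∈ M.side F' → K (L.cf F') ⊆ Kc c) (κf : ℝ) :
    ∀ (G : E3 → E3) (Y : Tr0 Om (gr Φ hLa hne hm) G),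
      OnMesh Y K Gf (Tq (bc (F := Φ.F)) (mm hf1)) (XM Om K) →
      Nonempty (Exact Y (fun _ => κf) (fun _ => 0) (Ktc (hfin := hf1) (Pf := Pc Φ.F) Kc) (XM Om K)) →
      ∀ q, cod (gr Φ hLa hne hm) q = 1 →
      IsBall 1 (Y.F q ∩ XM Om K)
        (Y.F q ∩ XM Om K ∩ ⋃ c : TopC (Cel (Pc Φ.F) (mm hf1)), Ktc (hfin := hf1) (Pf := Pc Φ.F) Kc c) := by
  intro Gm Y hMs ⟨hX⟩ q hq
  obtain ⟨ℓ, hO, hℓ⟩ := exists_ord h
  have hΩ : Om ∩ Xout Kc = Om ∩ XM Om K := by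
    ext x
    constructor
    · intro hx
      obtain ⟨q, hq⟩ := Gi.cplx.cover x hx
      exact ⟨hx.1, Or.inr (mem_iUnion.2 ⟨q, hq⟩)⟩
    · rintro ⟨hx, hx' | hx'⟩
      · exact absurd hx hx'
      · obtain ⟨q, hq⟩ := mem_iUnion.1 hx'
        exact Gi.cplx.sub q hq
  exact arcs_sto h hi hK hD Gq Gs Gi (foam4 Φ hLa) hm hℓ hΩ
    (gridOK (foam4 Φ hLa) (quads4 Φ) hne hm) hO hLa fr3
    (Kt := Ktc (hfin := hf1) (Pf := Pc Φ.F) Kc) (fun c F' hc => by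
      show K (L.cf F') ⊆ Kc (Xp_537.tix (tpc c))
      have e : Xp_537.tix (tpc (P := Pc Φ.F) (m := mm hf1) c) = c := Xp_537.tix_topc c
      rw [e]
      exact hKt c F' hc) Y hMs hX q hq

end lit

end Crest.Agent.R096.At_241
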