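import Mathlib
import Crest.Agent.R096.Csub5_487

/-!
# R096 (row 96), helper487.  The constant of a tile does not see the squeezing numbers.

`Kn` (199) is monotone: larger for smaller `b`, for larger `ε` and `K₀`.  So for `1/4 ≤ b n` and
`ε ≤ 1/2` the constants `C𝒦 K₀ ε b m 𝒦` are bounded by `CU K₀ m 𝒦 := C𝒦 K₀ (1/2) (fun _ => 1/4) m 𝒦`
(337 #10480).
-/

set_option autoImplicit false
set_option linter.unusedSectionVars false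

open Set Metric Filter Topology Module

namespace Crest.Agent.R096.Csub_487

open Crest.Agent.R096.Ce_537 Crest.Agent.R096.Bd_416 Crest.Agent.R096.Msh_715
open Crest.Agent.R096.Lm_117 (QK Bel dimK OutK belK lmK)
open Crest.Agent.R96.Nu1_199 Crest.Agent.R96.Nu3_199 Crest.Agent.R96.Nu5_199
open Crest.Agent.R96.Nu6_199 Crest.Agent.R96.Nu7_199 Crest.Agent.R96.Nu8_199

open scoped Classical

noncomputable section

/-- **`Kn` is monotone** -/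
theorem Kn_mono {K₀ K₁ A ε ε' : ℝ} {b b' : ℕ → ℝ} (hK : 0 ≤ K₀) (hKK : K₀ ≤ K₁) (hA : 0 ≤ A)
    (hε : ε ≤ ε') (hε1 : ε' < 1) (hb : ∀ n, 0 < b' n) (hbb : ∀ n, b' n ≤ b n) :
    ∀ n, Kn K₀ A ε b n ≤ Kn K₁ A ε' b' n
  | 0 => hKK
  | n + 1 => by
    have ih := Kn_mono hK hKK hA hε hε1 hb hbb n
    have hb0 : ∀ n, 0 < b n := fun n => (hb n).trans_le (hbb n)
    have h0 : 0 ≤ Kn K₀ A ε b n := Kn_nonneg hK hb0 n
    have h1 : 0 < 2 * b' n := by have := hb n; linarith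
    have h2 : 2 * b' n ≤ 2 * b n := by have := hbb n; linarith
    rw [Kn_succ, Kn_succ]
    refine max_le_max ?_ (max_le_max ?_ ?_)
    · exact div_le_div₀ (h0.trans ih) ih h1 h2
    · exact div_le_div₀ hA le_rfl (by linarith) (by linarith)
    · refine mul_le_mul ?_ (max_le_max ih le_rfl) (le_max_of_le_left h0) ?_
      · exact div_le_div₀ (by positivity) le_rfl h1 h2
      · positivity

/-- the universal constant of a configuration -/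
def CU {E : Type*} [NormedAddCommGroup E] [NormedSpace ℝ E] [FiniteDimensional ℝ E]
    (K₀ : ℝ) (m : ℕ) (𝒦 : Set (Set E)) : ℝ := C𝒦 K₀ (1/2) (fun _ => 1/4) m 𝒦

section

variable {E : Type*} [NormedAddCommGroup E] [NormedSpace ℝ E] [FiniteDimensional ℝ E]

theorem C𝒦_mono {K₀ K₁ ε ε' : ℝ} {b b' : ℕ → ℝ} (hK : 0 ≤ K₀) (hKK : K₀ ≤ K₁)
    (hε : ε ≤ ε') (hε1 : ε' < 1) (hb : ∀ n, 0 < b' n) (hbb : ∀ n, b' n ≤ b n) (m : ℕ)
    (𝒦 : Set (Set E)) : C𝒦 K₀ ε b m 𝒦 ≤ C𝒦 K₁ ε' b' m 𝒦 := by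
  unfold C𝒦
  have h1 := Kn_mono (A := 1) hK hKK one_pos.le hε hε1 hb hbb (m + 1)
  have h2 := A𝒦_pos m 𝒦
  exact mul_le_mul_of_nonneg_right h1 (by positivity)

theorem CU_nonneg {K₀ : ℝ} (hK : 0 ≤ K₀) (m : ℕ) (𝒦 : Set (Set E)) : 0 ≤ CU K₀ m 𝒦 :=
  C𝒦_nonneg hK (fun _ => by norm_num) m 𝒦

theorem CU_mono {K₀ K₁ : ℝ} (hK : 0 ≤ K₀) (hKK : K₀ ≤ K₁) (m : ℕ) (𝒦 : Set (Set E)) :
    CU K₀ m 𝒦 ≤ CU K₁ m 𝒦 :=
  C𝒦_mono hK hKK le_rfl (by norm_num) (fun _ => by norm_num) (fun _ => le_rfl) m 𝒦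

/-- **the constants with `1/4 ≤ b`, `ε ≤ 1/2` are bounded by the universal one** -/
theorem C𝒦_le_CU {K₀ K₁ ε : ℝ} {b : ℕ → ℝ} (hK : 0 ≤ K₀) (hKK : K₀ ≤ K₁) (hε : ε ≤ 1/2)
    (hb : ∀ n, 1/4 ≤ b n) (m : ℕ) (𝒦 : Set (Set E)) : C𝒦 K₀ ε b m 𝒦 ≤ CU K₁ m 𝒦 :=
  C𝒦_mono hK hKK hε (by norm_num) (fun _ => by norm_num) hb m 𝒦

end

section Tile

variable {E : Type} [NormedAddCommGroup E] [NormedSpace ℝ E] [FiniteDimensional ℝ E]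
variable {Om : Set E} {ι κ : Type} {T : Tiling Om ι} {Kc : κ → Set E}
variable {J Fam : Type} {C : Cmb (QK (belK T Kc)) (dimK (belK T Kc) fun c => c.1.dim) J Fam}
  {R : Set (QK (belK T Kc))} {K₀ ε : ℝ} {b : ℕ → ℝ} {wt : J → ℝ} {δ : QK (belK T Kc) → ℝ}
  {g0 : Gd E J} {P0 : ∀ q, C.I q → Set E} {c0 : ∀ q, C.I q → E → ℝ} {Ω' : Set E}

/-- **THE FAMILIES OF AN ORDINARY TILE IN THE FRAME `B`**, universal constant, weighted number `N` -/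
theorem tile_fam_CU
    (X : Cplx Ω' (QK (belK T Kc)) (dimK (belK T Kc) fun c => c.1.dim) (Lm_117.setK T Kc))
    (h2 : 2 ≤ finrank ℝ E) (hw : ∀ j, 0 < wt j) (hb0 : ∀ n, 1/4 ≤ b n) (hε : ε ≤ 1/2)
    (hK : 0 ≤ K₀) {K₁ : ℝ} (hK1 : K₀ ≤ K₁) (hδ : ∀ q, 0 < δ q)
    (hδ2 : ∀ q, 0 < WE X C wt q → ∀ σ ≤ q, δ σ ≤ WE X C wt q)
    {i : ι} {q : {c : T.Cell // OutK T Kc c}} (hqi : q.1.set = P (T.H i))
    (hqd : q.1.dim = finrank ℝ E)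
    (hne : ∀ σ ≤ QK.c (belK T Kc) q, 2 ≤ dimK (belK T Kc) (fun c => c.1.dim) σ → ∀ x : C.I σ,
      ∃ e, ∃ h : e < σ, dimK (belK T Kc) (fun c => c.1.dim) e = 1 ∧ ∃ y : C.I e, C.up h y = x)
    {Spec : ∀ q : QK (belK T Kc), Lam (Lm_117.setK T Kc q) (C.I q) → Prop}
    {D' : Set (QK (belK T Kc))} {g : Gd E J} {P : ∀ q, C.I q → Set E}
    {c : ∀ q, C.I q → E → ℝ}
    (H : Inv C (Lm_117.setK T Kc) D' g P c) (hqD : QK.c (belK T Kc) q ∈ D')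
    (hT : Trk C (Lm_117.setK T Kc) R g0 P0 c0 b Spec (fun _ => FrA E) wt
      (LamS X C K₀ ε b wt δ) (finrank ℝ E + 1) (QK.c (belK T Kc) q) g
      (P (QK.c (belK T Kc) q)) (c (QK.c (belK T Kc) q)))
    {N : ℝ} (hN : WE X C wt (QK.c (belK T Kc) q) ≤ N)
    (S : Finset J) (hS : ∀ j ∈ S, ∀ j' ∈ S, C.fam j = C.fam j') (B : E ≃ᵃ[ℝ] E) {z : E}
    (hz : z ∈ q.1.set) :
    LB B (2 * CU K₁ (finrank ℝ E) (CfgB T i B) * N)
      (fun w => ∑ j ∈ S, wt j * g.G j w) q.1.set z := by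
  have hb0' : ∀ n, 0 < b n := fun n => by have := hb0 n; linarith
  refine (tile_fam_lmK X h2 hw hb0' hK hδ hδ2 hqi hqd hne H hqD hT S hS B hz).mono ?_
  have h1 := C𝒦_le_CU hK hK1 hε hb0 (finrank ℝ E) (CfgB T i B)
  have h3 := WE_nonneg (C := C) X hw (QK.c (belK T Kc) q)
  have h4 := CU_nonneg (hK.trans hK1) (finrank ℝ E) (CfgB T i B)
  exact mul_le_mul (by linarith) hN h3 (by linarith)

end Tile

end

end Crest.Agent.R096.Csub_487
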