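import Crest.Agent.R096.Ce2_537

/-!
# R096 (row 96), subcomplex of a complex (helper955; leaf (L1) of 199 #10196)

`p : I → Prop` down-closed as in 117's `LM.sub` / `LM.merge`.
-/

set_option autoImplicit false
set_option linter.unusedSectionVars false

open Set Metric

namespace Crest.Agent.R096.Lst2_955

open Crest.Agent.R096.Ce_537

variable {E : Type*} [NormedAddCommGroup E] [NormedSpace ℝ E]
variable {Ω : Set E} {I : Type*} [PartialOrder I] {dim : I → ℕ} {K : I → Set E}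
variable {p : I → Prop}

/-- open cells of a down-closed subset are the open cells of the complex -/
theorem opn_sub (hp : ∀ c d, c ≤ d → p d → p c) (i : {i // p i}) (x : E) :
    Opn (fun i : {i // p i} => K i.1) i x ↔ Opn K i.1 x := by
  constructor
  · rintro ⟨h1, h2⟩
    exact ⟨h1, fun j hj => h2 ⟨j, hp j i.1 hj.le i.2⟩ hj⟩
  · rintro ⟨h1, h2⟩
    exact ⟨h1, fun j hj => h2 j.1 hj⟩

/-- the boundary of a cell of a down-closed subset -/
theorem bd_sub (hp : ∀ c d, c ≤ d → p d → p c) (i : {i // p i}) :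
    (⋃ j ∈ {j : {i // p i} | j < i}, K j.1) = ⋃ j ∈ {j | j < i.1}, K j := by
  ext x
  simp only [mem_iUnion, exists_prop]
  constructor
  · rintro ⟨j, hj, hx⟩
    exact ⟨j.1, hj, hx⟩
  · rintro ⟨j, hj, hx⟩
    exact ⟨⟨j, hp j i.1 (le_of_lt hj) i.2⟩, hj, hx⟩

/-- **the subcomplex of a down-closed set of cells** -/
theorem cplx_sub' (X : Cplx Ω I dim K) (hp : ∀ c d, c ≤ d → p d → p c) {Ω' : Set E}
    (h1 : ∀ i, p i → K i ⊆ Ω') (h2 : ∀ x ∈ Ω', ∃ i, p i ∧ x ∈ K i) :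
    Cplx Ω' {i // p i} (fun i => dim i.1) (fun i => K i.1) where
  isBall i := by
    rw [bd_sub hp i]
    exact X.isBall i.1
  mono i j h := X.mono i.1 j.1 h
  disj i j x hi hj := Subtype.ext (X.disj i.1 j.1 x ((opn_sub hp i x).1 hi) ((opn_sub hp j x).1 hj))
  sub i := h1 i.1 i.2
  cover x hx := by
    obtain ⟨i, hi, hx⟩ := h2 x hx
    exact ⟨⟨i, hi⟩, hx⟩
  lf x hx := by
    obtain ⟨i, hi, hxi⟩ := h2 x hx
    obtain ⟨r, hr, hf⟩ := X.lf x (X.sub i hxi)
    exact ⟨r, hr, Set.Finite.preimage (f := fun i : {i // p i} => i.1)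
      Subtype.val_injective.injOn hf⟩

/-- the subcomplex covers the union of its cells -/
theorem cplx_sub (X : Cplx Ω I dim K) (hp : ∀ c d, c ≤ d → p d → p c) :
    Cplx (⋃ i : {i // p i}, K i.1) {i // p i} (fun i => dim i.1) (fun i => K i.1) :=
  cplx_sub' X hp (fun i hi => subset_iUnion (fun i : {i // p i} => K i.1) ⟨i, hi⟩)
    (fun x hx => by
      obtain ⟨i, hi⟩ := mem_iUnion.1 hx
      exact ⟨i.1, i.2, hi⟩)

/-- the same for a set of cells -/
theorem cplx_subset (X : Cplx Ω I dim K) {D : Set I} (hD : ∀ i ∈ D, ∀ j < i, j ∈ D) {Ω' : Set E}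
    (h1 : ∀ i ∈ D, K i ⊆ Ω') (h2 : ∀ x ∈ Ω', ∃ i ∈ D, x ∈ K i) :
    Cplx Ω' {i // i ∈ D} (fun i => dim i.1) (fun i => K i.1) :=
  cplx_sub' (p := fun i => i ∈ D) X (fun c d h hd => by
    rcases h.eq_or_lt with rfl | h
    · exact hd
    · exact hD d hd c h) h1 h2

end Crest.Agent.R096.Lst2_955
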