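import Crest.Agent.R96.Nu8_199
import Crest.Agent.R096.Lst2_955

/-!
# R096 (row 96), numbers of a tile of a tiling from which cells have been removed (helper955; leaf
(L1) of 199 #10196): `D` = down-closed set of cells of a `Tiling` (e.g. all cells not inside the
giant cores of 715's `meshK`).
-/

set_option autoImplicit false
set_option linter.unusedSectionVars false

open Set Metric Filter Topology

namespace Crest.Agent.R096.Lst3_955

open Crest.Agent.R096.Ce_537 Crest.Agent.R096.Bd_416 Crest.Agent.R096.Msh_715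
open Crest.Agent.R96.Nu3_199 Crest.Agent.R96.Nu5_199 Crest.Agent.R96.Nu6_199
open Crest.Agent.R96.Nu7_199 Crest.Agent.R96.Nu8_199
open Crest.Agent.R096.Lst2_955

open scoped Classical

noncomputable section

variable {E : Type} [NormedAddCommGroup E] [NormedSpace ℝ E] [FiniteDimensional ℝ E]
variable {Om : Set E} {ι : Type*} {T : Tiling Om ι} {p : T.Cell → Prop}

/-- the complex of the cells with `p` (`X` below) -/
theorem cplxD (hp : ∀ c d, c ≤ d → p d → p c) :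
    Cplx (⋃ c : {c : T.Cell // p c}, c.1.set) {c : T.Cell // p c} (fun c => c.1.dim)
      (fun c => c.1.set) :=
  cplx_sub T.cplx hp

variable {J Fam : Type} {C : Cmb {c : T.Cell // p c} (fun c => c.1.dim) J Fam} {R : Set {c : T.Cell // p c}}
  {K₀ ε : ℝ} {b : ℕ → ℝ} {wt : J → ℝ} {δ : {c : T.Cell // p c} → ℝ} {g0 : Gd E J}
  {P0 : ∀ q, C.I q → Set E} {c0 : ∀ q, C.I q → E → ℝ}

/-- **THE PIECES OF A TILE IN THE FRAME `B`** (cells with `p` only, e.g. `p := Outr L ci π`) -/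
theorem tile_piece_D {Om' : Set E}
    (X : Cplx Om' {c : T.Cell // p c} (fun c => c.1.dim) (fun c => c.1.set))
    (h2 : 2 ≤ Module.finrank ℝ E) (hw : ∀ j, 0 < wt j) (hb0 : ∀ n, 0 < b n)
    (hK : 0 ≤ K₀) (hδ : ∀ q, 0 < δ q)
    (hδ2 : ∀ q, 0 < WE X C wt q → ∀ σ ≤ q, δ σ ≤ WE X C wt q)
    {i : ι} {q : {c : T.Cell // p c}} (hqi : q.1.set = P (T.H i)) (hqd : q.1.dim = Module.finrank ℝ E)
    (hne : ∀ σ ≤ q, 2 ≤ σ.1.dim → ∀ x : C.I σ, ∃ e, ∃ h : e < σ, e.1.dim = 1 ∧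
      ∃ y : C.I e, C.up h y = x)
    {Spec : ∀ q : {c : T.Cell // p c}, Lam q.1.set (C.I q) → Prop} {g : Gd E J} {P : C.I q → Set E}
    {c : C.I q → E → ℝ}
    (hT : Trk C (fun c : {c : T.Cell // p c} => c.1.set) R g0 P0 c0 b Spec (fun _ => FrA E) wt
      (LamS X C K₀ ε b wt δ) (Module.finrank ℝ E + 1) q g P c)
    (B : E ≃ᵃ[ℝ] E) (x : C.I q) {z : E} (hz : z ∈ q.1.set) :
    LB B (2 * C𝒦 K₀ ε b (Module.finrank ℝ E) (CfgB T i B) * WE X C wt q / wt (C.col q x))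
      (c x) q.1.set z := by
  refine tile_piece (dim := fun c : {c : T.Cell // p c} => c.1.dim)
    (K := fun c : {c : T.Cell // p c} => c.1.set) X hw hb0 hK
    hδ hδ2 (by rw [hqd]; exact h2) hqd.le (finite_CfgB T i B) (fun σ hσ => ?_)
    (fun σ _ σ' _ h => Subtype.ext (Tiling.Cell.ext h)) hne hT x hz
  exact mem_image_of_mem _ (mem_Cfg (hqi ▸ Tiling.Cell.le_def.1 hσ))

/-- **THE FAMILIES OF A TILE IN THE FRAME `B`** (cells with `p` only, e.g. `p := Outr L ci π`) -/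
theorem tile_fam_D {Om' : Set E}
    (X : Cplx Om' {c : T.Cell // p c} (fun c => c.1.dim) (fun c => c.1.set))
    (h2 : 2 ≤ Module.finrank ℝ E) (hw : ∀ j, 0 < wt j) (hb0 : ∀ n, 0 < b n)
    (hK : 0 ≤ K₀) (hδ : ∀ q, 0 < δ q)
    (hδ2 : ∀ q, 0 < WE X C wt q → ∀ σ ≤ q, δ σ ≤ WE X C wt q)
    {i : ι} {q : {c : T.Cell // p c}} (hqi : q.1.set = P (T.H i)) (hqd : q.1.dim = Module.finrank ℝ E)
    (hne : ∀ σ ≤ q, 2 ≤ σ.1.dim → ∀ x : C.I σ, ∃ e, ∃ h : e < σ, e.1.dim = 1 ∧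
      ∃ y : C.I e, C.up h y = x)
    {Spec : ∀ q : {c : T.Cell // p c}, Lam q.1.set (C.I q) → Prop} {D' : Set {c : T.Cell // p c}}
    {g : Gd E J} {P : ∀ q, C.I q → Set E}
    {c : ∀ q, C.I q → E → ℝ}
    (H : Inv C (fun c : {c : T.Cell // p c} => c.1.set) D' g P c) (hqD : q ∈ D')
    (hT : Trk C (fun c : {c : T.Cell // p c} => c.1.set) R g0 P0 c0 b Spec (fun _ => FrA E) wt
      (LamS X C K₀ ε b wt δ) (Module.finrank ℝ E + 1) q g (P q) (c q))
    (S : Finset J) (hS : ∀ j ∈ S, ∀ j' ∈ S, C.fam j = C.fam j') (B : E ≃ᵃ[ℝ] E) {z : E}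
    (hz : z ∈ q.1.set) :
    LB B (2 * C𝒦 K₀ ε b (Module.finrank ℝ E) (CfgB T i B) * WE X C wt q)
      (fun w => ∑ j ∈ S, wt j * g.G j w) q.1.set z := by
  refine tile_fam (dim := fun c : {c : T.Cell // p c} => c.1.dim)
    (K := fun c : {c : T.Cell // p c} => c.1.set) X hw hb0 hK
    hδ hδ2 (by rw [hqd]; exact h2) hqd.le (finite_CfgB T i B) (fun σ hσ => ?_)
    (fun σ _ σ' _ h => Subtype.ext (Tiling.Cell.ext h)) hne H hqD hT S hS hz
  exact mem_image_of_mem _ (mem_Cfg (hqi ▸ Tiling.Cell.le_def.1 hσ))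

end

end Crest.Agent.R096.Lst3_955
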