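/-
helper955, row 96, NUMBERS with a LOCAL base constant (112 #10580 (A)), part 3: the tiles of a
tiling (199 Nu8), of a subcomplex (Lst3_955), of the complex with giant cells (487 Csub4, Csub5,
Csub6): constant `C𝒦 (K₀ q)`.
-/
import Mathlib
import Crest.Agent.R096.Nk2_955
import Crest.Agent.R096.Lst3_955
import Crest.Agent.R096.Csub6_487

set_option autoImplicit false
set_option linter.unusedSectionVars false

open Set Metric Filter Topology Module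

namespace Crest.Agent.R096.Nk_955

open Crest.Agent.R096.Ce_537 Crest.Agent.R096.Bd_416 Crest.Agent.R096.Msh_715
open Crest.Agent.R096.Lm_117 (QK Bel dimK OutK belK lmK)
open Crest.Agent.R96.Nu1_199 Crest.Agent.R96.Nu3_199 Crest.Agent.R96.Nu5_199
open Crest.Agent.R96.Nu6_199 Crest.Agent.R96.Nu7_199 Crest.Agent.R96.Nu8_199
open Crest.Agent.R096.Lst2_955 Crest.Agent.R096.Csub_487

open scoped Classical

noncomputable section

section tiling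

variable {E : Type} [NormedAddCommGroup E] [NormedSpace ℝ E] [FiniteDimensional ℝ E]
variable {Om : Set E} {ι : Type*} {T : Tiling Om ι}
variable {J Fam : Type} {C : Cmb T.Cell (fun c => c.dim) J Fam} {R : Set T.Cell}
  {K₀ : T.Cell → ℝ} {ε : ℝ}
  {b : ℕ → ℝ} {wt : J → ℝ} {δ : T.Cell → ℝ} {g0 : Gd E J} {P0 : ∀ q, C.I q → Set E}
  {c0 : ∀ q, C.I q → E → ℝ}

/-- **THE PIECES OF A TILE IN THE FRAME `B`**: constant `2 * C𝒦 (configuration in the frame B)`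
times the weighted number of points on the edges of the tile. -/
theorem tile_piece_kT (h2 : 2 ≤ Module.finrank ℝ E) (hw : ∀ j, 0 < wt j) (hb0 : ∀ n, 0 < b n)
    (hK : ∀ q, 0 ≤ K₀ q) (hδ : ∀ q, 0 < δ q)
    (hδ2 : ∀ q, 0 < WE T.cplx C wt q → ∀ σ ≤ q, δ σ ≤ WE T.cplx C wt q)
    {i : ι} {q : T.Cell} (hqi : q.set = P (T.H i)) (hqd : q.dim = Module.finrank ℝ E)
    (hne : ∀ σ ≤ q, 2 ≤ σ.dim → ∀ x : C.I σ, ∃ e, ∃ h : e < σ, e.dim = 1 ∧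
      ∃ y : C.I e, C.up h y = x)
    {Spec : ∀ q : T.Cell, Lam q.set (C.I q) → Prop} {g : Gd E J} {P : C.I q → Set E}
    {c : C.I q → E → ℝ}
    (hT : Trk C (fun c : T.Cell => c.set) R g0 P0 c0 b Spec (fun _ => FrA E) wt
      (LamSk T.cplx C K₀ ε b wt δ) (Module.finrank ℝ E + 1) q g P c)
    (B : E ≃ᵃ[ℝ] E) (x : C.I q) {z : E} (hz : z ∈ q.set) :
    LB B (2 * C𝒦 (K₀ q) ε b (Module.finrank ℝ E) (CfgB T i B) * WE T.cplx C wt q / wt (C.col q x))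
      (c x) q.set z := by
  refine tile_piece_k (dim := fun c : T.Cell => c.dim) (K := fun c : T.Cell => c.set) T.cplx hw hb0 hK
    hδ hδ2 (by rw [hqd]; exact h2) hqd.le (finite_CfgB T i B) (fun σ hσ => ?_)
    (fun σ _ σ' _ h => Tiling.Cell.ext h) hne hT x hz
  exact mem_image_of_mem _ (mem_Cfg (hqi ▸ Tiling.Cell.le_def.1 hσ))

/-- **THE FAMILIES OF A TILE IN THE FRAME `B`** -/
theorem tile_fam_kT (h2 : 2 ≤ Module.finrank ℝ E) (hw : ∀ j, 0 < wt j) (hb0 : ∀ n, 0 < b n)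
    (hK : ∀ q, 0 ≤ K₀ q) (hδ : ∀ q, 0 < δ q)
    (hδ2 : ∀ q, 0 < WE T.cplx C wt q → ∀ σ ≤ q, δ σ ≤ WE T.cplx C wt q)
    {i : ι} {q : T.Cell} (hqi : q.set = P (T.H i)) (hqd : q.dim = Module.finrank ℝ E)
    (hne : ∀ σ ≤ q, 2 ≤ σ.dim → ∀ x : C.I σ, ∃ e, ∃ h : e < σ, e.dim = 1 ∧
      ∃ y : C.I e, C.up h y = x)
    {Spec : ∀ q : T.Cell, Lam q.set (C.I q) → Prop} {D : Set T.Cell} {g : Gd E J}
    {P : ∀ q, C.I q → Set E} {c : ∀ q, C.I q → E → ℝ}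
    (H : Inv C (fun c : T.Cell => c.set) D g P c) (hqD : q ∈ D)
    (hT : Trk C (fun c : T.Cell => c.set) R g0 P0 c0 b Spec (fun _ => FrA E) wt
      (LamSk T.cplx C K₀ ε b wt δ) (Module.finrank ℝ E + 1) q g (P q) (c q))
    (S : Finset J) (hS : ∀ j ∈ S, ∀ j' ∈ S, C.fam j = C.fam j') (B : E ≃ᵃ[ℝ] E) {z : E}
    (hz : z ∈ q.set) :
    LB B (2 * C𝒦 (K₀ q) ε b (Module.finrank ℝ E) (CfgB T i B) * WE T.cplx C wt q)
      (fun w => ∑ j ∈ S, wt j * g.G j w) q.set z := by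
  refine tile_fam_k (dim := fun c : T.Cell => c.dim) (K := fun c : T.Cell => c.set) T.cplx hw hb0 hK
    hδ hδ2 (by rw [hqd]; exact h2) hqd.le (finite_CfgB T i B) (fun σ hσ => ?_)
    (fun σ _ σ' _ h => Tiling.Cell.ext h) hne H hqD hT S hS hz
  exact mem_image_of_mem _ (mem_Cfg (hqi ▸ Tiling.Cell.le_def.1 hσ))

end tiling

section sub

variable {E : Type} [NormedAddCommGroup E] [NormedSpace ℝ E] [FiniteDimensional ℝ E]
variable {Om : Set E} {ι : Type*} {T : Tiling Om ι} {p : T.Cell → Prop}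
variable {J Fam : Type} {C : Cmb {c : T.Cell // p c} (fun c => c.1.dim) J Fam} {R : Set {c : T.Cell // p c}}
  {K₀ : {c : T.Cell // p c} → ℝ} {ε : ℝ} {b : ℕ → ℝ} {wt : J → ℝ} {δ : {c : T.Cell // p c} → ℝ} {g0 : Gd E J}
  {P0 : ∀ q, C.I q → Set E} {c0 : ∀ q, C.I q → E → ℝ}

/-- **THE PIECES OF A TILE IN THE FRAME `B`** (cells with `p` only, e.g. `p := Outr L ci π`) -/
theorem tile_piece_kD {Om' : Set E}
    (X : Cplx Om' {c : T.Cell // p c} (fun c => c.1.dim) (fun c => c.1.set))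
    (h2 : 2 ≤ Module.finrank ℝ E) (hw : ∀ j, 0 < wt j) (hb0 : ∀ n, 0 < b n)
    (hK : ∀ q, 0 ≤ K₀ q) (hδ : ∀ q, 0 < δ q)
    (hδ2 : ∀ q, 0 < WE X C wt q → ∀ σ ≤ q, δ σ ≤ WE X C wt q)
    {i : ι} {q : {c : T.Cell // p c}} (hqi : q.1.set = P (T.H i)) (hqd : q.1.dim = Module.finrank ℝ E)
    (hne : ∀ σ ≤ q, 2 ≤ σ.1.dim → ∀ x : C.I σ, ∃ e, ∃ h : e < σ, e.1.dim = 1 ∧
      ∃ y : C.I e, C.up h y = x)
    {Spec : ∀ q : {c : T.Cell // p c}, Lam q.1.set (C.I q) → Prop} {g : Gd E J} {P : C.I q → Set E}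
    {c : C.I q → E → ℝ}
    (hT : Trk C (fun c : {c : T.Cell // p c} => c.1.set) R g0 P0 c0 b Spec (fun _ => FrA E) wt
      (LamSk X C K₀ ε b wt δ) (Module.finrank ℝ E + 1) q g P c)
    (B : E ≃ᵃ[ℝ] E) (x : C.I q) {z : E} (hz : z ∈ q.1.set) :
    LB B (2 * C𝒦 (K₀ q) ε b (Module.finrank ℝ E) (CfgB T i B) * WE X C wt q / wt (C.col q x))
      (c x) q.1.set z := by
  refine tile_piece_k (dim := fun c : {c : T.Cell // p c} => c.1.dim)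
    (K := fun c : {c : T.Cell // p c} => c.1.set) X hw hb0 hK
    hδ hδ2 (by rw [hqd]; exact h2) hqd.le (finite_CfgB T i B) (fun σ hσ => ?_)
    (fun σ _ σ' _ h => Subtype.ext (Tiling.Cell.ext h)) hne hT x hz
  exact mem_image_of_mem _ (mem_Cfg (hqi ▸ Tiling.Cell.le_def.1 hσ))

/-- **THE FAMILIES OF A TILE IN THE FRAME `B`** (cells with `p` only, e.g. `p := Outr L ci π`) -/
theorem tile_fam_kD {Om' : Set E}
    (X : Cplx Om' {c : T.Cell // p c} (fun c => c.1.dim) (fun c => c.1.set))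
    (h2 : 2 ≤ Module.finrank ℝ E) (hw : ∀ j, 0 < wt j) (hb0 : ∀ n, 0 < b n)
    (hK : ∀ q, 0 ≤ K₀ q) (hδ : ∀ q, 0 < δ q)
    (hδ2 : ∀ q, 0 < WE X C wt q → ∀ σ ≤ q, δ σ ≤ WE X C wt q)
    {i : ι} {q : {c : T.Cell // p c}} (hqi : q.1.set = P (T.H i)) (hqd : q.1.dim = Module.finrank ℝ E)
    (hne : ∀ σ ≤ q, 2 ≤ σ.1.dim → ∀ x : C.I σ, ∃ e, ∃ h : e < σ, e.1.dim = 1 ∧
      ∃ y : C.I e, C.up h y = x)
    {Spec : ∀ q : {c : T.Cell // p c}, Lam q.1.set (C.I q) → Prop} {D' : Set {c : T.Cell // p c}}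
    {g : Gd E J} {P : ∀ q, C.I q → Set E}
    {c : ∀ q, C.I q → E → ℝ}
    (H : Inv C (fun c : {c : T.Cell // p c} => c.1.set) D' g P c) (hqD : q ∈ D')
    (hT : Trk C (fun c : {c : T.Cell // p c} => c.1.set) R g0 P0 c0 b Spec (fun _ => FrA E) wt
      (LamSk X C K₀ ε b wt δ) (Module.finrank ℝ E + 1) q g (P q) (c q))
    (S : Finset J) (hS : ∀ j ∈ S, ∀ j' ∈ S, C.fam j = C.fam j') (B : E ≃ᵃ[ℝ] E) {z : E}
    (hz : z ∈ q.1.set) :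
    LB B (2 * C𝒦 (K₀ q) ε b (Module.finrank ℝ E) (CfgB T i B) * WE X C wt q)
      (fun w => ∑ j ∈ S, wt j * g.G j w) q.1.set z := by
  refine tile_fam_k (dim := fun c : {c : T.Cell // p c} => c.1.dim)
    (K := fun c : {c : T.Cell // p c} => c.1.set) X hw hb0 hK
    hδ hδ2 (by rw [hqd]; exact h2) hqd.le (finite_CfgB T i B) (fun σ hσ => ?_)
    (fun σ _ σ' _ h => Subtype.ext (Tiling.Cell.ext h)) hne H hqD hT S hS hz
  exact mem_image_of_mem _ (mem_Cfg (hqi ▸ Tiling.Cell.le_def.1 hσ))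

end sub

section giant

variable {E : Type} [NormedAddCommGroup E] [NormedSpace ℝ E] [FiniteDimensional ℝ E]
variable {Om Ω' : Set E} {ι κ : Type} {T : Tiling Om ι} {Kc : κ → Set E} {p : T.Cell → Prop}
variable {bl : Bel {c : T.Cell // p c} κ}
variable {J Fam : Type} {C : Cmb (QK bl) (dimK bl fun c => c.1.dim) J Fam} {R : Set (QK bl)}
  {K₀ : QK bl → ℝ} {ε : ℝ} {b : ℕ → ℝ} {wt : J → ℝ} {δ : QK bl → ℝ} {g0 : Gd E J}
  {P0 : ∀ q, C.I q → Set E} {c0 : ∀ q, C.I q → E → ℝ}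

/-- **THE PIECES OF AN ORDINARY TILE IN THE FRAME `B`** (complex with giant cells) -/
theorem tile_piece_kQK
    (X : Cplx Ω' (QK bl) (dimK bl fun c => c.1.dim) (setK bl (fun c => c.1.set) Kc))
    (h2 : 2 ≤ finrank ℝ E) (hw : ∀ j, 0 < wt j) (hb0 : ∀ n, 0 < b n)
    (hK : ∀ q, 0 ≤ K₀ q) (hδ : ∀ q, 0 < δ q)
    (hδ2 : ∀ q, 0 < WE X C wt q → ∀ σ ≤ q, δ σ ≤ WE X C wt q)
    {i : ι} {q : {c : T.Cell // p c}} (hqi : q.1.set = P (T.H i))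
    (hqd : q.1.dim = finrank ℝ E)
    (hne : ∀ σ ≤ QK.c bl q, 2 ≤ dimK bl (fun c => c.1.dim) σ → ∀ x : C.I σ,
      ∃ e, ∃ h : e < σ, dimK bl (fun c => c.1.dim) e = 1 ∧ ∃ y : C.I e, C.up h y = x)
    {Spec : ∀ q : QK bl, Lam (setK bl (fun c => c.1.set) Kc q) (C.I q) → Prop}
    {g : Gd E J} {P : C.I (QK.c bl q) → Set E} {c : C.I (QK.c bl q) → E → ℝ}
    (hT : Trk C (setK bl (fun c => c.1.set) Kc) R g0 P0 c0 b Spec (fun _ => FrA E) wt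
      (LamSk X C K₀ ε b wt δ) (finrank ℝ E + 1) (QK.c bl q) g P c)
    (B : E ≃ᵃ[ℝ] E) (x : C.I (QK.c bl q)) {z : E} (hz : z ∈ q.1.set) :
    LB B (2 * C𝒦 (K₀ (QK.c bl q)) ε b (finrank ℝ E) (CfgB T i B) * WE X C wt (QK.c bl q) /
      wt (C.col (QK.c bl q) x)) (c x) q.1.set z :=
  tile_piece_k (dim := dimK bl fun c => c.1.dim) (K := setK bl (fun c => c.1.set) Kc)
    (q := QK.c bl q) X hw hb0 hK hδ hδ2 (show 2 ≤ q.1.dim by rw [hqd]; exact h2) (show q.1.dim ≤ finrank ℝ E from hqd.le)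
    (finite_CfgB T i B) (fun _ hσ => cfg_QK hqi B hσ)
    (fun _ hσ _ hσ' h => inj_QK hσ hσ' h) hne hT x hz

/-- **THE FAMILIES OF AN ORDINARY TILE IN THE FRAME `B`** (complex with giant cells) -/
theorem tile_fam_kQK
    (X : Cplx Ω' (QK bl) (dimK bl fun c => c.1.dim) (setK bl (fun c => c.1.set) Kc))
    (h2 : 2 ≤ finrank ℝ E) (hw : ∀ j, 0 < wt j) (hb0 : ∀ n, 0 < b n)
    (hK : ∀ q, 0 ≤ K₀ q) (hδ : ∀ q, 0 < δ q)
    (hδ2 : ∀ q, 0 < WE X C wt q → ∀ σ ≤ q, δ σ ≤ WE X C wt q)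
    {i : ι} {q : {c : T.Cell // p c}} (hqi : q.1.set = P (T.H i))
    (hqd : q.1.dim = finrank ℝ E)
    (hne : ∀ σ ≤ QK.c bl q, 2 ≤ dimK bl (fun c => c.1.dim) σ → ∀ x : C.I σ,
      ∃ e, ∃ h : e < σ, dimK bl (fun c => c.1.dim) e = 1 ∧ ∃ y : C.I e, C.up h y = x)
    {Spec : ∀ q : QK bl, Lam (setK bl (fun c => c.1.set) Kc q) (C.I q) → Prop}
    {D' : Set (QK bl)} {g : Gd E J} {P : ∀ q, C.I q → Set E} {c : ∀ q, C.I q → E → ℝ}
    (H : Inv C (setK bl (fun c => c.1.set) Kc) D' g P c) (hqD : QK.c bl q ∈ D')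
    (hT : Trk C (setK bl (fun c => c.1.set) Kc) R g0 P0 c0 b Spec (fun _ => FrA E) wt
      (LamSk X C K₀ ε b wt δ) (finrank ℝ E + 1) (QK.c bl q) g (P (QK.c bl q)) (c (QK.c bl q)))
    (S : Finset J) (hS : ∀ j ∈ S, ∀ j' ∈ S, C.fam j = C.fam j') (B : E ≃ᵃ[ℝ] E) {z : E}
    (hz : z ∈ q.1.set) :
    LB B (2 * C𝒦 (K₀ (QK.c bl q)) ε b (finrank ℝ E) (CfgB T i B) * WE X C wt (QK.c bl q))
      (fun w => ∑ j ∈ S, wt j * g.G j w) q.1.set z :=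
  tile_fam_k (dim := dimK bl fun c => c.1.dim) (K := setK bl (fun c => c.1.set) Kc)
    (q := QK.c bl q) X hw hb0 hK hδ hδ2 (show 2 ≤ q.1.dim by rw [hqd]; exact h2) (show q.1.dim ≤ finrank ℝ E from hqd.le)
    (finite_CfgB T i B) (fun _ hσ => cfg_QK hqi B hσ)
    (fun _ hσ _ hσ' h => inj_QK hσ hσ' h) hne H hqD hT S hS hz

end giant

section lmk

variable {E : Type} [NormedAddCommGroup E] [NormedSpace ℝ E] [FiniteDimensional ℝ E]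
variable {Om : Set E} {ι κ : Type} {T : Tiling Om ι} {Kc : κ → Set E}
variable {J Fam : Type} {C : Cmb (QK (belK T Kc)) (dimK (belK T Kc) fun c => c.1.dim) J Fam}
  {R : Set (QK (belK T Kc))} {K₀ : QK (belK T Kc) → ℝ} {ε : ℝ} {b : ℕ → ℝ} {wt : J → ℝ}
  {δ : QK (belK T Kc) → ℝ}
  {g0 : Gd E J} {P0 : ∀ q, C.I q → Set E} {c0 : ∀ q, C.I q → E → ℝ} {Ω' : Set E}

/-- **THE PIECES OF AN ORDINARY TILE IN THE FRAME `B`**, index type of `lmK` -/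
theorem tile_piece_klmK
    (X : Cplx Ω' (QK (belK T Kc)) (dimK (belK T Kc) fun c => c.1.dim) (Lm_117.setK T Kc))
    (h2 : 2 ≤ finrank ℝ E) (hw : ∀ j, 0 < wt j) (hb0 : ∀ n, 0 < b n)
    (hK : ∀ q, 0 ≤ K₀ q) (hδ : ∀ q, 0 < δ q)
    (hδ2 : ∀ q, 0 < WE X C wt q → ∀ σ ≤ q, δ σ ≤ WE X C wt q)
    {i : ι} {q : {c : T.Cell // OutK T Kc c}} (hqi : q.1.set = P (T.H i))
    (hqd : q.1.dim = finrank ℝ E)
    (hne : ∀ σ ≤ QK.c (belK T Kc) q, 2 ≤ dimK (belK T Kc) (fun c => c.1.dim) σ → ∀ x : C.I σ,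
      ∃ e, ∃ h : e < σ, dimK (belK T Kc) (fun c => c.1.dim) e = 1 ∧ ∃ y : C.I e, C.up h y = x)
    {Spec : ∀ q : QK (belK T Kc), Lam (Lm_117.setK T Kc q) (C.I q) → Prop}
    {g : Gd E J} {P : C.I (QK.c (belK T Kc) q) → Set E}
    {c : C.I (QK.c (belK T Kc) q) → E → ℝ}
    (hT : Trk C (Lm_117.setK T Kc) R g0 P0 c0 b Spec (fun _ => FrA E) wt
      (LamSk X C K₀ ε b wt δ) (finrank ℝ E + 1) (QK.c (belK T Kc) q) g P c)
    (B : E ≃ᵃ[ℝ] E) (x : C.I (QK.c (belK T Kc) q)) {z : E} (hz : z ∈ q.1.set) :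
    LB B (2 * C𝒦 (K₀ (QK.c (belK T Kc) q)) ε b (finrank ℝ E) (CfgB T i B) * WE X C wt (QK.c (belK T Kc) q) /
      wt (C.col (QK.c (belK T Kc) q) x)) (c x) q.1.set z :=
  tile_piece_k (dim := dimK (belK T Kc) fun c => c.1.dim) (K := Lm_117.setK T Kc)
    (q := QK.c (belK T Kc) q) X hw hb0 hK hδ hδ2 (show 2 ≤ q.1.dim by rw [hqd]; exact h2)
    (show q.1.dim ≤ finrank ℝ E from hqd.le) (finite_CfgB T i B)
    (fun _ hσ => by
      have h := cfg_QK (Kc := Kc) hqi B hσ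
      rwa [setK_eq] at h)
    (fun σ hσ σ' hσ' h => inj_QK (Kc := Kc) hσ hσ' (by rw [setK_eq]; exact h)) hne hT x hz

/-- **THE FAMILIES OF AN ORDINARY TILE IN THE FRAME `B`**, index type of `lmK` -/
theorem tile_fam_klmK
    (X : Cplx Ω' (QK (belK T Kc)) (dimK (belK T Kc) fun c => c.1.dim) (Lm_117.setK T Kc))
    (h2 : 2 ≤ finrank ℝ E) (hw : ∀ j, 0 < wt j) (hb0 : ∀ n, 0 < b n)
    (hK : ∀ q, 0 ≤ K₀ q) (hδ : ∀ q, 0 < δ q)
    (hδ2 : ∀ q, 0 < WE X C wt q → ∀ σ ≤ q, δ σ ≤ WE X C wt q)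
    {i : ι} {q : {c : T.Cell // OutK T Kc c}} (hqi : q.1.set = P (T.H i))
    (hqd : q.1.dim = finrank ℝ E)
    (hne : ∀ σ ≤ QK.c (belK T Kc) q, 2 ≤ dimK (belK T Kc) (fun c => c.1.dim) σ → ∀ x : C.I σ,
      ∃ e, ∃ h : e < σ, dimK (belK T Kc) (fun c => c.1.dim) e = 1 ∧ ∃ y : C.I e, C.up h y = x)
    {Spec : ∀ q : QK (belK T Kc), Lam (Lm_117.setK T Kc q) (C.I q) → Prop}
    {D' : Set (QK (belK T Kc))} {g : Gd E J} {P : ∀ q, C.I q → Set E}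
    {c : ∀ q, C.I q → E → ℝ}
    (H : Inv C (Lm_117.setK T Kc) D' g P c) (hqD : QK.c (belK T Kc) q ∈ D')
    (hT : Trk C (Lm_117.setK T Kc) R g0 P0 c0 b Spec (fun _ => FrA E) wt
      (LamSk X C K₀ ε b wt δ) (finrank ℝ E + 1) (QK.c (belK T Kc) q) g
      (P (QK.c (belK T Kc) q)) (c (QK.c (belK T Kc) q)))
    (S : Finset J) (hS : ∀ j ∈ S, ∀ j' ∈ S, C.fam j = C.fam j') (B : E ≃ᵃ[ℝ] E) {z : E}
    (hz : z ∈ q.1.set) :
    LB B (2 * C𝒦 (K₀ (QK.c (belK T Kc) q)) ε b (finrank ℝ E) (CfgB T i B) * WE X C wt (QK.c (belK T Kc) q))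
      (fun w => ∑ j ∈ S, wt j * g.G j w) q.1.set z :=
  tile_fam_k (dim := dimK (belK T Kc) fun c => c.1.dim) (K := Lm_117.setK T Kc)
    (q := QK.c (belK T Kc) q) X hw hb0 hK hδ hδ2 (show 2 ≤ q.1.dim by rw [hqd]; exact h2)
    (show q.1.dim ≤ finrank ℝ E from hqd.le) (finite_CfgB T i B)
    (fun _ hσ => by
      have h := cfg_QK (Kc := Kc) hqi B hσ
      rwa [setK_eq] at h)
    (fun σ hσ σ' hσ' h => inj_QK (Kc := Kc) hσ hσ' (by rw [setK_eq]; exact h)) hne H hqD hT S hS hz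

/-- **THE FAMILIES OF AN ORDINARY TILE IN THE FRAME `B`**, universal constant, weighted number `N` -/
theorem tile_fam_kCU
    (X : Cplx Ω' (QK (belK T Kc)) (dimK (belK T Kc) fun c => c.1.dim) (Lm_117.setK T Kc))
    (h2 : 2 ≤ finrank ℝ E) (hw : ∀ j, 0 < wt j) (hb0 : ∀ n, 1/4 ≤ b n) (hε : ε ≤ 1/2)
    (hK : ∀ q, 0 ≤ K₀ q) (hδ : ∀ q, 0 < δ q)
    (hδ2 : ∀ q, 0 < WE X C wt q → ∀ σ ≤ q, δ σ ≤ WE X C wt q)
    {i : ι} {q : {c : T.Cell // OutK T Kc c}} (hqi : q.1.set = P (T.H i))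
    (hqd : q.1.dim = finrank ℝ E)
    (hne : ∀ σ ≤ QK.c (belK T Kc) q, 2 ≤ dimK (belK T Kc) (fun c => c.1.dim) σ → ∀ x : C.I σ,
      ∃ e, ∃ h : e < σ, dimK (belK T Kc) (fun c => c.1.dim) e = 1 ∧ ∃ y : C.I e, C.up h y = x)
    {Spec : ∀ q : QK (belK T Kc), Lam (Lm_117.setK T Kc q) (C.I q) → Prop}
    {D' : Set (QK (belK T Kc))} {g : Gd E J} {P : ∀ q, C.I q → Set E}
    {c : ∀ q, C.I q → E → ℝ}
    (H : Inv C (Lm_117.setK T Kc) D' g P c) (hqD : QK.c (belK T Kc) q ∈ D')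
    (hT : Trk C (Lm_117.setK T Kc) R g0 P0 c0 b Spec (fun _ => FrA E) wt
      (LamSk X C K₀ ε b wt δ) (finrank ℝ E + 1) (QK.c (belK T Kc) q) g
      (P (QK.c (belK T Kc) q)) (c (QK.c (belK T Kc) q)))
    {K₁ : ℝ} (hK1 : K₀ (QK.c (belK T Kc) q) ≤ K₁)
    {N : ℝ} (hN : WE X C wt (QK.c (belK T Kc) q) ≤ N)
    (S : Finset J) (hS : ∀ j ∈ S, ∀ j' ∈ S, C.fam j = C.fam j') (B : E ≃ᵃ[ℝ] E) {z : E}
    (hz : z ∈ q.1.set) :
    LB B (2 * CU K₁ (finrank ℝ E) (CfgB T i B) * N)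
      (fun w => ∑ j ∈ S, wt j * g.G j w) q.1.set z := by
  have hb0' : ∀ n, 0 < b n := fun n => by have := hb0 n; linarith
  refine (tile_fam_klmK X h2 hw hb0' hK hδ hδ2 hqi hqd hne H hqD hT S hS B hz).mono ?_
  have h1 := C𝒦_le_CU (hK _) hK1 hε hb0 (finrank ℝ E) (CfgB T i B)
  have h3 := WE_nonneg (C := C) X hw (QK.c (belK T Kc) q)
  have h4 := CU_nonneg ((hK _).trans hK1) (finrank ℝ E) (CfgB T i B)
  exact mul_le_mul (by linarith) hN h3 (by linarith)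

end lmk

end

end Crest.Agent.R096.Nk_955
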