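import Mathlib
import Crest.Agent.R096.Csub6_487
import Crest.Agent.R096.Nk3_955

/-!
# R096 (row 96), helper487.  Complexes over index types which name closed cells of a tiling.

* `CellIx T dim K cell` : `cell : Q → T.Cell` is an order embedding onto a down-closed set of cells,
  with the same dimensions and sets;
* `CellIx.cplx` : it is a complex of the union of its cells;
* `CellIx.conv`, `cpt`, `bd` (the hypotheses of `exists_e`, `exists_eA`), `tile_piece`, `tile_fam`,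
  `tile_famCU`;
* `pO`, `pK` : the closed cells outside all open cores (`S` = exact core tiles, `Kc` = cores which
  are unions of tiles); `cplx_outO`, `cplx_outK` (337 #10755 (b)).
-/

set_option autoImplicit false
set_option linter.unusedSectionVars false

open Set Metric Filter Topology Module

namespace Crest.Agent.R096.Csub_487

open Crest.Agent.R096.Ce_537 Crest.Agent.R096.Bd_416 Crest.Agent.R096.Msh_715
open Crest.Agent.R096.Lm_117 (QK Bel dimK OutK belK)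
open Crest.Agent.R96.Nu3_199 Crest.Agent.R96.Nu5_199 Crest.Agent.R96.Nu6_199
open Crest.Agent.R96.Nu7_199 Crest.Agent.R96.Nu8_199
open Crest.Agent.R096.Nk_955 (LamSk tile_piece_k tile_fam_k)

open scoped Classical

noncomputable section

variable {E : Type} [NormedAddCommGroup E] [NormedSpace ℝ E] [FiniteDimensional ℝ E]
variable {Om : Set E} {ι κ : Type} {T : Tiling Om ι} {Kc : κ → Set E}

/-- the index type `Q` names the closed cells of a down-closed set of cells of the tiling -/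
structure CellIx (T : Tiling Om ι) {Q : Type} [PartialOrder Q] (dim : Q → ℕ) (K : Q → Set E)
    (cell : Q → T.Cell) : Prop where
  le : ∀ σ τ, σ ≤ τ ↔ cell σ ≤ cell τ
  down : ∀ τ (c : T.Cell), c ≤ cell τ → ∃ σ, cell σ = c
  dim_eq : ∀ q, dim q = (cell q).dim
  set_eq : ∀ q, K q = (cell q).set

namespace CellIx

variable {Q : Type} [PartialOrder Q] {dim : Q → ℕ} {K : Q → Set E} {cell : Q → T.Cell}
  (h : CellIx T dim K cell)

include h

theorem inj : Function.Injective cell := fun σ τ e =>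
  le_antisymm ((h.le σ τ).2 e.le) ((h.le τ σ).2 e.ge)

theorem lt (σ τ : Q) : σ < τ ↔ cell σ < cell τ := by
  rw [lt_iff_le_not_ge, lt_iff_le_not_ge, h.le, h.le]

theorem K_inj {σ τ : Q} (e : K σ = K τ) : σ = τ :=
  h.inj (Tiling.Cell.ext (by rw [← h.set_eq, ← h.set_eq, e]))

theorem bdS_eq (τ : Q) : bdS K τ = bdS (fun c : T.Cell => c.set) (cell τ) := by
  ext x
  simp only [bdS, mem_iUnion, mem_ofPred_eq, exists_prop]
  constructor
  · rintro ⟨σ, hσ, hx⟩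
    exact ⟨cell σ, (h.lt _ _).1 hσ, by rw [← h.set_eq]; exact hx⟩
  · rintro ⟨c, hc, hx⟩
    obtain ⟨σ, rfl⟩ := h.down τ c hc.le
    exact ⟨σ, (h.lt _ _).2 hc, by rw [h.set_eq]; exact hx⟩

theorem conv (τ : Q) : Convex ℝ (K τ) := by rw [h.set_eq]; exact convex_cell _

theorem cpt (τ : Q) : IsCompact (K τ) := by rw [h.set_eq]; exact compact_cell _

theorem bd (τ : Q) : bdS K τ = K τ \ ri (K τ) := by
  rw [h.bdS_eq, h.set_eq]; exact bdS_cell _

/-- **the complex** -/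
theorem cplx {Ω' : Set E} (hΩ : Ω' = ⋃ q, K q) : Cplx Ω' Q dim K where
  isBall q := by
    have e : (⋃ j ∈ {j : Q | j < q}, K j) = bdS (fun c : T.Cell => c.set) (cell q) := h.bdS_eq q
    rw [e, h.dim_eq, h.set_eq]
    exact T.cplx.isBall (cell q)
  mono q j hj := by
    rw [h.dim_eq, h.dim_eq]
    exact T.cplx.mono _ _ ((h.lt _ _).1 hj)
  disj q j x h1 h2 := by
    have key : ∀ q, Opn K q x → Opn (fun c : T.Cell => c.set) (cell q) x := by
      rintro q ⟨hq1, hq2⟩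
      refine ⟨by show x ∈ (cell q).set; rw [← h.set_eq]; exact hq1, fun c hc hx => ?_⟩
      obtain ⟨σ, rfl⟩ := h.down q c hc.le
      exact hq2 σ ((h.lt _ _).2 hc) (by rw [h.set_eq]; exact hx)
    exact h.inj (T.cplx.disj _ _ x (key q h1) (key j h2))
  sub q := by rw [hΩ]; exact subset_iUnion K q
  cover x hx := by
    rw [hΩ] at hx
    exact mem_iUnion.1 hx
  lf x hx := by
    have hx' : x ∈ Om := by
      rw [hΩ] at hx
      obtain ⟨q, hq⟩ := mem_iUnion.1 hx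
      rw [h.set_eq] at hq
      exact T.cplx.sub _ hq
    obtain ⟨r, hr, hf⟩ := T.cplx.lf x hx'
    refine ⟨r, hr, Set.Finite.of_finite_image (f := cell) (hf.subset ?_) h.inj.injOn⟩
    rintro _ ⟨q, hq, rfl⟩
    show (((cell q).set) ∩ _).Nonempty
    rw [← h.set_eq]
    exact hq

theorem cfg {i : ι} {q : Q} (hqi : K q = P (T.H i)) (B : E ≃ᵃ[ℝ] E) {σ : Q} (hσ : σ ≤ q) :
    B '' K σ ∈ CfgB T i B := by
  refine mem_image_of_mem _ ?_
  rw [h.set_eq]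
  refine mem_Cfg ?_
  rw [← hqi, h.set_eq]
  exact Tiling.Cell.le_def.1 ((h.le _ _).1 hσ)

theorem dim_tile {i : ι} {q : Q} (hqi : K q = P (T.H i)) : dim q = finrank ℝ E := by
  rw [h.dim_eq]
  obtain ⟨c, hc, hd⟩ := exists_tile T i
  have : cell q = c := Tiling.Cell.ext (by rw [← h.set_eq, hqi, hc])
  rw [this, hd]

variable {J Fam : Type} {C : Cmb Q dim J Fam} {R : Set Q} {K₀ : Q → ℝ} {ε : ℝ} {b : ℕ → ℝ}
  {wt : J → ℝ} {δ : Q → ℝ} {g0 : Gd E J} {P0 : ∀ q, C.I q → Set E} {c0 : ∀ q, C.I q → E → ℝ}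
  {Ω' : Set E}

/-- **THE PIECES OF A TILE IN THE FRAME `B`** -/
theorem tile_piece (X : Cplx Ω' Q dim K) (h2 : 2 ≤ finrank ℝ E) (hw : ∀ j, 0 < wt j)
    (hb0 : ∀ n, 0 < b n) (hK : ∀ q, 0 ≤ K₀ q) (hδ : ∀ q, 0 < δ q)
    (hδ2 : ∀ q, 0 < WE X C wt q → ∀ σ ≤ q, δ σ ≤ WE X C wt q)
    {i : ι} {q : Q} (hqi : K q = P (T.H i))
    (hne : ∀ σ ≤ q, 2 ≤ dim σ → ∀ x : C.I σ, ∃ e, ∃ h : e < σ, dim e = 1 ∧
      ∃ y : C.I e, C.up h y = x)
    {Spec : ∀ q, Lam (K q) (C.I q) → Prop} {g : Gd E J} {P : C.I q → Set E} {c : C.I q → E → ℝ}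
    (hT : Trk C K R g0 P0 c0 b Spec (fun _ => FrA E) wt (LamSk X C K₀ ε b wt δ)
      (finrank ℝ E + 1) q g P c)
    (B : E ≃ᵃ[ℝ] E) (x : C.I q) {z : E} (hz : z ∈ K q) :
    LB B (2 * C𝒦 (K₀ q) ε b (finrank ℝ E) (CfgB T i B) * WE X C wt q / wt (C.col q x))
      (c x) (K q) z := by
  have hd := h.dim_tile hqi
  exact tile_piece_k X hw hb0 hK hδ hδ2 (by rw [hd]; exact h2) hd.le (finite_CfgB T i B)
    (fun σ hσ => h.cfg hqi B hσ) (fun σ _ σ' _ e => h.K_inj e) hne hT x hz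

/-- **THE FAMILIES OF A TILE IN THE FRAME `B`** -/
theorem tile_fam (X : Cplx Ω' Q dim K) (h2 : 2 ≤ finrank ℝ E) (hw : ∀ j, 0 < wt j)
    (hb0 : ∀ n, 0 < b n) (hK : ∀ q, 0 ≤ K₀ q) (hδ : ∀ q, 0 < δ q)
    (hδ2 : ∀ q, 0 < WE X C wt q → ∀ σ ≤ q, δ σ ≤ WE X C wt q)
    {i : ι} {q : Q} (hqi : K q = P (T.H i))
    (hne : ∀ σ ≤ q, 2 ≤ dim σ → ∀ x : C.I σ, ∃ e, ∃ h : e < σ, dim e = 1 ∧
      ∃ y : C.I e, C.up h y = x)
    {Spec : ∀ q, Lam (K q) (C.I q) → Prop} {D' : Set Q} {g : Gd E J} {P : ∀ q, C.I q → Set E}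
    {c : ∀ q, C.I q → E → ℝ} (H : Inv C K D' g P c) (hqD : q ∈ D')
    (hT : Trk C K R g0 P0 c0 b Spec (fun _ => FrA E) wt (LamSk X C K₀ ε b wt δ)
      (finrank ℝ E + 1) q g (P q) (c q))
    (S : Finset J) (hS : ∀ j ∈ S, ∀ j' ∈ S, C.fam j = C.fam j') (B : E ≃ᵃ[ℝ] E) {z : E}
    (hz : z ∈ K q) :
    LB B (2 * C𝒦 (K₀ q) ε b (finrank ℝ E) (CfgB T i B) * WE X C wt q)
      (fun w => ∑ j ∈ S, wt j * g.G j w) (K q) z := by
  have hd := h.dim_tile hqi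
  exact tile_fam_k X hw hb0 hK hδ hδ2 (by rw [hd]; exact h2) hd.le (finite_CfgB T i B)
    (fun σ hσ => h.cfg hqi B hσ) (fun σ _ σ' _ e => h.K_inj e) hne H hqD hT S hS hz

/-- **THE FAMILIES OF A TILE IN THE FRAME `B`**, universal constant, weighted number `N` -/
theorem tile_famCU (X : Cplx Ω' Q dim K) (h2 : 2 ≤ finrank ℝ E) (hw : ∀ j, 0 < wt j)
    (hb0 : ∀ n, 1/4 ≤ b n) (hε : ε ≤ 1/2) (hK : ∀ q, 0 ≤ K₀ q) (hδ : ∀ q, 0 < δ q)
    (hδ2 : ∀ q, 0 < WE X C wt q → ∀ σ ≤ q, δ σ ≤ WE X C wt q)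
    {i : ι} {q : Q} (hqi : K q = P (T.H i))
    (hne : ∀ σ ≤ q, 2 ≤ dim σ → ∀ x : C.I σ, ∃ e, ∃ h : e < σ, dim e = 1 ∧
      ∃ y : C.I e, C.up h y = x)
    {Spec : ∀ q, Lam (K q) (C.I q) → Prop} {D' : Set Q} {g : Gd E J} {P : ∀ q, C.I q → Set E}
    {c : ∀ q, C.I q → E → ℝ} (H : Inv C K D' g P c) (hqD : q ∈ D')
    (hT : Trk C K R g0 P0 c0 b Spec (fun _ => FrA E) wt (LamSk X C K₀ ε b wt δ)
      (finrank ℝ E + 1) q g (P q) (c q))
    {K₁ : ℝ} (hK1 : K₀ q ≤ K₁) {N : ℝ} (hN : WE X C wt q ≤ N)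
    (S : Finset J) (hS : ∀ j ∈ S, ∀ j' ∈ S, C.fam j = C.fam j') (B : E ≃ᵃ[ℝ] E) {z : E}
    (hz : z ∈ K q) :
    LB B (2 * CU K₁ (finrank ℝ E) (CfgB T i B) * N)
      (fun w => ∑ j ∈ S, wt j * g.G j w) (K q) z := by
  have hb0' : ∀ n, 0 < b n := fun n => by have := hb0 n; linarith
  refine (h.tile_fam X h2 hw hb0' hK hδ hδ2 hqi hne H hqD hT S hS B hz).mono ?_
  have h1 := C𝒦_le_CU (hK _) hK1 hε hb0 (finrank ℝ E) (CfgB T i B)
  have h3 := WE_nonneg (C := C) X hw q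
  have h4 := CU_nonneg ((hK _).trans hK1) (finrank ℝ E) (CfgB T i B)
  exact mul_le_mul (by linarith) hN h3 (by linarith)

/-- **the pieces, universal constant** -/
theorem tile_pieceCU (X : Cplx Ω' Q dim K) (h2 : 2 ≤ finrank ℝ E) (hw : ∀ j, 0 < wt j)
    (hb0 : ∀ n, 1/4 ≤ b n) (hε : ε ≤ 1/2) (hK : ∀ q, 0 ≤ K₀ q) (hδ : ∀ q, 0 < δ q)
    (hδ2 : ∀ q, 0 < WE X C wt q → ∀ σ ≤ q, δ σ ≤ WE X C wt q)
    {i : ι} {q : Q} (hqi : K q = P (T.H i))
    (hne : ∀ σ ≤ q, 2 ≤ dim σ → ∀ x : C.I σ, ∃ e, ∃ h : e < σ, dim e = 1 ∧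
      ∃ y : C.I e, C.up h y = x)
    {Spec : ∀ q, Lam (K q) (C.I q) → Prop} {g : Gd E J} {P : C.I q → Set E} {c : C.I q → E → ℝ}
    (hT : Trk C K R g0 P0 c0 b Spec (fun _ => FrA E) wt (LamSk X C K₀ ε b wt δ)
      (finrank ℝ E + 1) q g P c)
    {K₁ : ℝ} (hK1 : K₀ q ≤ K₁) {N : ℝ} (hN : WE X C wt q ≤ N)
    (B : E ≃ᵃ[ℝ] E) (x : C.I q) {z : E} (hz : z ∈ K q) :
    LB B (2 * CU K₁ (finrank ℝ E) (CfgB T i B) * N / wt (C.col q x)) (c x) (K q) z := by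
  have hb0' : ∀ n, 0 < b n := fun n => by have := hb0 n; linarith
  refine (h.tile_piece X h2 hw hb0' hK hδ hδ2 hqi hne hT B x hz).mono
    (div_le_div_of_nonneg_right ?_ (hw _).le)
  have h1 := C𝒦_le_CU (hK _) hK1 hε hb0 (finrank ℝ E) (CfgB T i B)
  have h3 := WE_nonneg (C := C) X hw q
  have h4 := CU_nonneg ((hK _).trans hK1) (finrank ℝ E) (CfgB T i B)
  exact mul_le_mul (by linarith) hN h3 (by linarith)

end CellIx

/-! ### instances -/

theorem cellIx_T : CellIx T (fun c : T.Cell => c.dim) (fun c : T.Cell => c.set) id where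
  le _ _ := Iff.rfl
  down _ c _ := ⟨c, rfl⟩
  dim_eq _ := rfl
  set_eq _ := rfl

/-- the cells with a property -/
theorem CellIx.sub {Q : Type} [PartialOrder Q] {dim : Q → ℕ} {K : Q → Set E} {cell : Q → T.Cell}
    (h : CellIx T dim K cell) {p : Q → Prop} (hp : ∀ c d, c ≤ d → p d → p c) :
    CellIx T (fun c : {c : Q // p c} => dim c.1) (fun c => K c.1) (fun c => cell c.1) where
  le σ τ := h.le σ.1 τ.1
  down τ c hc := by
    obtain ⟨σ, rfl⟩ := h.down τ.1 c hc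
    exact ⟨⟨σ, hp σ τ.1 ((h.le _ _).2 hc) τ.2⟩, rfl⟩
  dim_eq q := h.dim_eq q.1
  set_eq q := h.set_eq q.1

omit [FiniteDimensional ℝ E] in
theorem outK_down' (c d : T.Cell) (h : c ≤ d) (hd : OutK T Kc d) : OutK T Kc c := by
  obtain ⟨q, h1, h2⟩ := hd
  exact ⟨q, h1, (Tiling.Cell.le_def.1 h).trans h2⟩

/-- 117's cells outside the cores -/
theorem cellIx_O : CellIx T (fun c : {c : T.Cell // OutK T Kc c} => c.1.dim) (fun c => c.1.set)
    Subtype.val :=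
  cellIx_T.sub (p := OutK T Kc) outK_down'

/-- a predicate on the cells of `QK` which excludes the giants: a `CellIx` -/
theorem cellIx_K {p : QK (belK T Kc) → Prop} (hp : ∀ c d, c ≤ d → p d → p c)
    (hk : ∀ k, ¬ p (QK.k _ k)) :
    ∃ cell : {q : QK (belK T Kc) // p q} → T.Cell,
      CellIx T (fun q : {q : QK (belK T Kc) // p q} => dimK (belK T Kc) (fun c => c.1.dim) q.1)
        (fun q => Lm_117.setK T Kc q.1) cell ∧
      ∀ q (c : {c : T.Cell // OutK T Kc c}), q.1 = QK.c _ c → cell q = c.1 := by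
  have h1 : ∀ q : {q : QK (belK T Kc) // p q}, ∃ c : {c : T.Cell // OutK T Kc c},
      q.1 = QK.c _ c := by
    rintro ⟨q, hq⟩
    rcases QK.all q with ⟨c, rfl⟩ | ⟨k, rfl⟩
    · exact ⟨c, rfl⟩
    · exact absurd hq (hk k)
  choose f hf using h1
  have hff : ∀ (q : {q : QK (belK T Kc) // p q}) (c : {c : T.Cell // OutK T Kc c}),
      q.1 = QK.c _ c → f q = c := by
    intro q c hc
    have := (hf q).symm.trans hc
    exact Sum.inl_injective this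
  refine ⟨fun q => (f q).1, ⟨fun σ τ => ?_, fun τ c hc => ?_, fun q => ?_, fun q => ?_⟩,
    fun q c hc => by show (f q).1 = c.1; rw [hff q c hc]⟩
  · have e : σ ≤ τ ↔ σ.1 ≤ τ.1 := Iff.rfl
    rw [e, hf σ, hf τ, QK.cc_le]
    exact Iff.rfl
  · have h2 : (QK.c (belK T Kc) ⟨c, outK_down' c _ hc (f τ).2⟩) ≤ τ.1 := by
      rw [hf τ, QK.cc_le]; exact hc
    refine ⟨⟨_, hp _ _ h2 τ.2⟩, ?_⟩
    show (f _).1 = c
    rw [hff _ _ rfl]
  · show dimK (belK T Kc) (fun c => c.1.dim) q.1 = _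
    rw [hf q]; rfl
  · show Lm_117.setK T Kc q.1 = _
    rw [hf q]; rfl

end

end Crest.Agent.R096.Csub_487
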