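import Mathlib
import Crest.Agent.R096.Csub7_487
import Crest.Agent.R096.Gm4_298
import Crest.Agent.R096.Fin4_147

/-!
# R096 (row 96), helper487.  The complex of the closed cells outside all open cores
(337 #10755 (b)), for the index types of the state half:

* `{c : QK (belK T Kc) // NR T Kc R c}` (298's `lmR`): `cellIx_NR`, `cplx_NR`, `cplx_out`;
* `{c : T.Cell // OutK T Kc c}` (117's `lmO`, 334's `lmX`): `cellIx_O`, `cplx_O`.
-/

set_option autoImplicit false
set_option linter.unusedSectionVars false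

open Set Metric Filter Topology Module

namespace Crest.Agent.R096.Csub_487

open Crest.Agent.R096.Ce_537 Crest.Agent.R096.Bd_416 Crest.Agent.R096.Msh_715
open Crest.Agent.R096.Lm_117 (QK Bel dimK OutK belK lmK tcell tcell_set)
open Crest.Agent.R096.Gm_298 (NR nr_down nr_cases)
open Crest.Agent.R096.Fin_147 (Xout)

open scoped Classical

noncomputable section

variable {E : Type} [NormedAddCommGroup E] [NormedSpace ℝ E] [FiniteDimensional ℝ E]
variable {Om : Set E} {ι κ : Type} {T : Tiling Om ι} {Kc : κ → Set E}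

/-- a closed cell which meets the open tile is the closed tile -/
theorem cell_eq_tile {c : T.Cell} {i : ι} {y : E} (hy : y ∈ c.set) (hi : y ∈ I (T.H i)) :
    c.set = P (T.H i) := by
  rw [c.set_eq] at hy ⊢
  have h1 : T.V y = ⊤ := (T.V_eq_top_iff (T.sub i (I_sub_P _ hi))).2 ⟨i, hi⟩
  have h2 : T.V c.pt = ⊤ := top_le_iff.1 (h1 ▸ T.V_mono hy)
  obtain ⟨j, hj⟩ := (T.V_eq_top_iff c.pt_mem).1 h2
  rw [T.cc_eq_tile hj] at hy ⊢
  have h3 : j ∈ T.at_ y := hy
  rw [T.at_eq_singleton hi, mem_singleton_iff] at h3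
  rw [h3]

/-- a point whose closed cell is the closed tile lies in the open tile -/
theorem mem_I_of_cc {x : E} (hx : x ∈ Om) {i : ι} (h : T.cc x = P (T.H i)) : x ∈ I (T.H i) := by
  obtain ⟨z, hz⟩ := T.ne i
  have h1 : T.V z = ⊤ := (T.V_eq_top_iff (T.sub i (I_sub_P _ hz))).2 ⟨i, hz⟩
  have hzx : z ∈ T.cc x := by rw [h]; exact I_sub_P _ hz
  have h2 : T.V x = ⊤ := top_le_iff.1 (h1 ▸ T.V_mono hzx)
  obtain ⟨j, hj⟩ := (T.V_eq_top_iff hx).1 h2
  have h3 : j ∈ T.at_ z := T.at_sub_of_mem_cc hzx (I_sub_P _ hj)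
  rw [T.at_eq_singleton hz, mem_singleton_iff] at h3
  rwa [h3] at hj

/-- the region covered by the cells outside the cores (`lmO`) -/
theorem iUnion_O (hH : ∀ k, CoreH T (Kc k)) (hdis : ∀ k l, k ≠ l → Disjoint (Kc k) (Kc l)) :
    Om \ ⋃ k, interior (Kc k) = ⋃ c : {c : T.Cell // OutK T Kc c}, c.1.set := by
  have X := (cplx_DK (T := T) (Kc := Kc) (fun k => (hH k).core.closed) (fun k => (hH k).cc))
  ext x
  constructor
  · intro hx
    obtain ⟨q, hq⟩ := X.cover x hx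
    exact mem_iUnion.2 ⟨⟨q.1, (outK_iff hH hdis q.1).2 q.2⟩, hq⟩
  · intro hx
    obtain ⟨q, hq⟩ := mem_iUnion.1 hx
    exact X.sub ⟨q.1, (outK_iff hH hdis q.1).1 q.2⟩ hq

/-- **the complex over 117's `{c // OutK T Kc c}`** (all cores in `Kc`) -/
theorem cplx_O (hH : ∀ k, CoreH T (Kc k)) (hdis : ∀ k l, k ≠ l → Disjoint (Kc k) (Kc l)) :
    Cplx (Om \ ⋃ k, interior (Kc k)) {c : T.Cell // OutK T Kc c} (fun c => c.1.dim)
      (fun c => c.1.set) :=
  cellIx_O.cplx (iUnion_O hH hdis)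

/-- 298's index type names cells of the tiling -/
theorem cellIx_NR (h3 : finrank ℝ E = 3) (R : Set ι) :
    ∃ cell : {c : QK (belK T Kc) // NR T Kc R c} → T.Cell,
      CellIx T (fun c : {c : QK (belK T Kc) // NR T Kc R c} =>
          dimK (belK T Kc) (fun c => c.1.dim) c.1)
        (fun c => Lm_117.setK T Kc c.1) cell ∧
      ∀ q (c : {c : T.Cell // OutK T Kc c}), q.1 = QK.c _ c → cell q = c.1 :=
  cellIx_K (nr_down h3 R) fun _ h => h

/-- the region covered by the cells of 298's index type -/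
theorem iUnion_NR (hH : ∀ k, CoreH T (Kc k))
    (hdis : ∀ k l, k ≠ l → Disjoint (Kc k) (Kc l)) (R : Set ι) :
    Om \ ((⋃ k, interior (Kc k)) ∪ ⋃ i ∈ R, I (T.H i)) =
      ⋃ c : {c : QK (belK T Kc) // NR T Kc R c}, Lm_117.setK T Kc c.1 := by
  ext x
  constructor
  · rintro ⟨hx, hn⟩
    rw [mem_union, not_or] at hn
    have h1 : x ∈ Om \ ⋃ k, interior (Kc k) := ⟨hx, hn.1⟩
    rw [iUnion_O hH hdis] at h1
    obtain ⟨c, hc⟩ := mem_iUnion.1 h1
    have hle : T.cl hx ≤ c.1 := by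
      rw [Tiling.Cell.le_def, T.cl_set hx, c.1.set_eq]
      refine T.cc_sub_of_mem ?_
      rw [← c.1.set_eq]; exact hc
    refine mem_iUnion.2 ⟨⟨QK.c _ ⟨T.cl hx, outK_down' _ _ hle c.2⟩, fun i hi e => ?_⟩,
      T.self_mem_cc x⟩
    have h2 : T.cc x = P (T.H i) := by
      rw [← tcell_set (T := T) i, ← e]; rfl
    exact hn.2 (mem_iUnion₂.2 ⟨i, hi, mem_I_of_cc hx h2⟩)
  · intro hx
    obtain ⟨⟨q, hqR⟩, hq⟩ := mem_iUnion.1 hx
    obtain ⟨c, hc, hR⟩ : ∃ c : {c : T.Cell // OutK T Kc c}, q = QK.c _ c ∧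
        ∀ i ∈ R, c.1 ≠ tcell T i := by
      rcases QK.all q with ⟨c, rfl⟩ | ⟨k, rfl⟩
      · exact ⟨c, rfl, hqR⟩
      · exact hqR.elim
    have hq' : x ∈ c.1.set := by
      subst hc; exact hq
    have h1 : x ∈ Om \ ⋃ k, interior (Kc k) := by
      rw [iUnion_O hH hdis]; exact mem_iUnion.2 ⟨c, hq'⟩
    refine ⟨h1.1, fun h => ?_⟩
    rcases h with h | h
    · exact h1.2 h
    · obtain ⟨i, hi, hxi⟩ := mem_iUnion₂.1 h
      refine hR i hi (Tiling.Cell.ext ?_)
      rw [cell_eq_tile hq' hxi, tcell_set]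

/-- **the complex over 298's index type** -/
theorem cplx_NR (h3 : finrank ℝ E = 3) (hH : ∀ k, CoreH T (Kc k))
    (hdis : ∀ k l, k ≠ l → Disjoint (Kc k) (Kc l)) (R : Set ι) :
    Cplx (Om \ ((⋃ k, interior (Kc k)) ∪ ⋃ i ∈ R, I (T.H i))) {c : QK (belK T Kc) // NR T Kc R c}
      (fun c => dimK (belK T Kc) (fun c => c.1.dim) c.1) (fun c => Lm_117.setK T Kc c.1) := by
  obtain ⟨cell, h, -⟩ := cellIx_NR (T := T) (Kc := Kc) h3 R
  exact h.cplx (iUnion_NR hH hdis R)

/-- the interior of a closed tile is the open tile -/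
theorem interior_tile (i : ι) : interior (P (T.H i)) = I (T.H i) := by
  refine Set.Subset.antisymm (fun x hx => ?_) (interior_maximal (I_sub_P _) (isOpen_I _))
  have hxO : x ∈ Om := T.sub i (interior_subset hx)
  obtain ⟨z, hz⟩ := T.ne i
  intro k hk
  refine lt_of_le_of_ne (interior_subset hx k hk) fun e => ?_
  have hc : ContinuousAt (fun s : ℝ => x + s • (x - z)) 0 := by fun_prop
  have hev : ∀ᶠ s in 𝓝 (0 : ℝ), x + s • (x - z) ∈ interior (P (T.H i)) := by
    refine hc.eventually_mem (isOpen_interior.mem_nhds ?_)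
    simpa using hx
  obtain ⟨r, hr, hr'⟩ := Metric.eventually_nhds_iff.1 hev
  have h1 : x + (r / 2) • (x - z) ∈ P (T.H i) := interior_subset (hr' (by
    rw [Real.dist_eq, sub_zero, abs_of_pos (by positivity)]; linarith))
  have h2 := h1 k hk
  rw [map_add, map_smul, map_sub, e, smul_eq_mul] at h2
  have h3 := hz k hk
  have h4 : 0 < r / 2 * (k.2 - k.1 z) := mul_pos (by positivity) (by linarith)
  linarith

/-- **`cplx_out`** (337 #10755 (b)): the cores `Kall a` are the exact tiles `ct a` (`a ∈ X`) and the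
giants `Kc ⟨a, _⟩` (`a ∉ X`) -/
theorem cplx_out {Fam : Type} {X : Set Fam} {T : Tiling Om ι} {Kc : {a : Fam // a ∉ X} → Set E}
    (h3 : finrank ℝ E = 3)
    (hH : ∀ k, CoreH T (Kc k)) (hdis : ∀ k l, k ≠ l → Disjoint (Kc k) (Kc l)) (ct : Fam → ι)
    {Kall : Fam → Set E} (hX : ∀ a ∈ X, Kall a = P (T.H (ct a)))
    (hN : ∀ a (h : a ∉ X), Kall a = Kc ⟨a, h⟩) :
    Cplx (Om ∩ Xout Kall) {c : QK (belK T Kc) // NR T Kc (ct '' X) c}
      (fun c => dimK (belK T Kc) (fun c => c.1.dim) c.1) (fun c => Lm_117.setK T Kc c.1) := by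
  have e : Om ∩ Xout Kall =
      Om \ ((⋃ k, interior (Kc k)) ∪ ⋃ i ∈ ct '' X, I (T.H i)) := by
    ext x
    simp only [Xout, mem_inter_iff, mem_compl_iff, mem_iUnion, Set.mem_sdiff, mem_union, not_or,
      not_exists, mem_image]
    refine and_congr_right fun hx => ⟨fun h => ⟨fun k hk => ?_, ?_⟩, fun h a ha => ?_⟩
    · exact h k.1 (by rw [hN k.1 k.2]; exact hk)
    · rintro i ⟨a, ha, rfl⟩ hi
      exact h a (by rw [hX a ha, interior_tile]; exact hi)
    · by_cases haX : a ∈ X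
      · rw [hX a haX, interior_tile] at ha
        exact h.2 _ ⟨a, haX, rfl⟩ ha
      · rw [hN a haX] at ha
        exact h.1 _ ha
  rw [e]
  exact cplx_NR h3 hH hdis _

end

end Crest.Agent.R096.Csub_487
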