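import Mathlib
import Crest.Agent.R096.Csub8_487
import Crest.Agent.R096.Be7_416
import Crest.Agent.R096.Mi4_117

/-!
# R096 (row 96), helper487.  The numbers of a tile in the MIXED mesh (534 #11010 (f)).

* `CUe K ε m 𝒦` = the constant of a configuration for the numbers `K` (bound of `K₀ q`), `ε < 1`,
  `b ≥ 1/4`; `CU K m 𝒦 = CUe K (1/2) m 𝒦` by definition;
* `CellIx.tile_pieceD` (extra weights `δ ≤ d` below the tile), `CellIx.tile_pieceE`,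
  `CellIx.tile_famE`;
* `K0x R Kb KN` : `max KN Kb` on the cells which touch the given part, `KN` elsewhere;
* `LB_tile_mix` : the tile of the labelled mesh (`TrkX`, 117).
-/

set_option autoImplicit false
set_option linter.unusedSectionVars false

open Set Metric Filter Topology Module

namespace Crest.Agent.R096.Csub_487

open Crest.Agent.R096.Ce_537 Crest.Agent.R096.Bd_416 Crest.Agent.R096.Msh_715
open Crest.Agent.R096.Lm_117 (QK Bel dimK OutK belK)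
open Crest.Agent.R96.Nu3_199 Crest.Agent.R96.Nu5_199 Crest.Agent.R96.Nu6_199
open Crest.Agent.R96.Nu7_199 Crest.Agent.R96.Nu8_199
open Crest.Agent.R096.Nk_955 (LamSk tile_piece_k tile_fam_k lam_tile_k K0f K0f_nonneg K0f_mono
  K0f_le K0f_of_mem K0f_of_not)

open scoped Classical

noncomputable section

section Cst

variable {E : Type*} [NormedAddCommGroup E] [NormedSpace ℝ E] [FiniteDimensional ℝ E]

/-- the constant of a configuration for `K₀ q ≤ K`, the given `ε`, and `b ≥ 1/4` -/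
def CUe (K ε : ℝ) (m : ℕ) (𝒦 : Set (Set E)) : ℝ := C𝒦 K ε (fun _ => 1/4) m 𝒦

theorem CU_eq (K : ℝ) (m : ℕ) (𝒦 : Set (Set E)) : CU K m 𝒦 = CUe K (1/2) m 𝒦 := rfl

theorem CUe_nonneg {K ε : ℝ} (hK : 0 ≤ K) (m : ℕ) (𝒦 : Set (Set E)) : 0 ≤ CUe K ε m 𝒦 :=
  C𝒦_nonneg hK (fun _ => by norm_num) m 𝒦

theorem CUe_mono {K K' ε ε' : ℝ} (hK : 0 ≤ K) (hKK : K ≤ K') (hε : ε ≤ ε') (hε1 : ε' < 1)
    (m : ℕ) (𝒦 : Set (Set E)) : CUe K ε m 𝒦 ≤ CUe K' ε' m 𝒦 :=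
  C𝒦_mono hK hKK hε hε1 (fun _ => by norm_num) (fun _ => le_rfl) m 𝒦

theorem C𝒦_le_CUe {K₀ K₁ ε ε₁ : ℝ} {b : ℕ → ℝ} (hK : 0 ≤ K₀) (hKK : K₀ ≤ K₁) (hε : ε ≤ ε₁)
    (hε1 : ε₁ < 1) (hb : ∀ n, 1/4 ≤ b n) (m : ℕ) (𝒦 : Set (Set E)) :
    C𝒦 K₀ ε b m 𝒦 ≤ CUe K₁ ε₁ m 𝒦 :=
  C𝒦_mono hK hKK hε hε1 (fun _ => by norm_num) hb m 𝒦

end Cst

section K0

variable {Q : Type} [PartialOrder Q] {R : Set Q} {Kb KN : ℝ}

/-- `K₀` of the mixed mesh: `KN` everywhere, `max KN Kb` on the cells with a face in `R` -/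
def K0x (R : Set Q) (Kb KN : ℝ) (q : Q) : ℝ := max KN (K0f R Kb q)

theorem K0x_nonneg (h : 0 ≤ KN) (q : Q) : 0 ≤ K0x R Kb KN q := le_max_of_le_left h

theorem K0x_mono (h : 0 ≤ Kb) {σ τ : Q} (hσ : σ ≤ τ) : K0x R Kb KN σ ≤ K0x R Kb KN τ :=
  max_le_max le_rfl (K0f_mono h hσ)

theorem le_K0x (q : Q) : KN ≤ K0x R Kb KN q := le_max_left _ _

theorem le_K0x_of_mem {q : Q} (hq : q ∈ R) : Kb ≤ K0x R Kb KN q := by
  unfold K0x; rw [K0f_of_mem hq]; exact le_max_right _ _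

theorem K0x_le (h : 0 ≤ Kb) (q : Q) : K0x R Kb KN q ≤ max KN Kb := max_le_max le_rfl (K0f_le h q)

theorem K0x_of_not (h : 0 ≤ KN) {q : Q} (hq : ∀ σ ≤ q, σ ∉ R) : K0x R Kb KN q = KN := by
  unfold K0x; rw [K0f_of_not hq]; exact max_eq_left h

end K0

variable {E : Type} [NormedAddCommGroup E] [NormedSpace ℝ E] [FiniteDimensional ℝ E]
variable {Om : Set E} {ι κ : Type} {T : Tiling Om ι} {Kc : κ → Set E}

namespace CellIx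

variable {Q : Type} [PartialOrder Q] {dim : Q → ℕ} {K : Q → Set E} {cell : Q → T.Cell}
  (h : CellIx T dim K cell)

include h

variable {J Fam : Type} {C : Cmb Q dim J Fam} {R : Set Q} {K₀ : Q → ℝ} {ε : ℝ} {b : ℕ → ℝ}
  {wt : J → ℝ} {δ : Q → ℝ} {g0 : Gd E J} {P0 : ∀ q, C.I q → Set E} {c0 : ∀ q, C.I q → E → ℝ}
  {Ω' : Set E}

/-- **the pieces of a tile, extra weights**: `δ ≤ d` on the cells below the tile -/
theorem tile_pieceD (X : Cplx Ω' Q dim K) (h2 : 2 ≤ finrank ℝ E) (hw : ∀ j, 0 < wt j)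
    (hb0 : ∀ n, 1/4 ≤ b n) {ε₁ : ℝ} (hε : ε ≤ ε₁) (hε1 : ε₁ < 1) (hK : ∀ q, 0 ≤ K₀ q)
    (hδ : ∀ q, 0 < δ q) {i : ι} {q : Q} (hqi : K q = P (T.H i))
    {d : ℝ} (hd : ∀ σ ≤ q, δ σ ≤ d)
    (hne : ∀ σ ≤ q, 2 ≤ dim σ → ∀ x : C.I σ, ∃ e, ∃ h : e < σ, dim e = 1 ∧
      ∃ y : C.I e, C.up h y = x)
    {Spec : ∀ q, Lam (K q) (C.I q) → Prop} {g : Gd E J} {P : C.I q → Set E} {c : C.I q → E → ℝ}
    (hT : Trk C K R g0 P0 c0 b Spec (fun _ => FrA E) wt (LamSk X C K₀ ε b wt δ)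
      (finrank ℝ E + 1) q g P c)
    {K₁ : ℝ} (hK1 : K₀ q ≤ K₁) {N : ℝ} (hN : WE X C wt q + d ≤ N)
    (B : E ≃ᵃ[ℝ] E) (x : C.I q) {z : E} (hz : z ∈ K q) :
    LB B (CUe K₁ ε₁ (finrank ℝ E) (CfgB T i B) * N / wt (C.col q x)) (c x) (K q) z := by
  have hb0' : ∀ n, 0 < b n := fun n => by have := hb0 n; linarith
  have hd3 := h.dim_tile hqi
  have h1 := hT.ll B ⟨B, rfl⟩ x z hz
  refine h1.mono (div_le_div_of_nonneg_right ?_ (hw _).le)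
  have h3 := lam_tile_k (ε := ε) (K₀ := K₀) (b := b) X hw hb0' hK hδ (by rw [hd3]; exact h2)
    hd3.le (finite_CfgB T i B) (fun σ hσ => h.cfg hqi B hσ) (fun σ _ σ' _ e => h.K_inj e) hd hne
  refine h3.trans ?_
  have h4 := C𝒦_le_CUe (hK _) hK1 hε hε1 hb0 (finrank ℝ E) (CfgB T i B)
  have h5 := CUe_nonneg (ε := ε₁) ((hK _).trans hK1) (finrank ℝ E) (CfgB T i B)
  have h6 : 0 ≤ d := (hδ q).le.trans (hd q le_rfl)
  have h7 := WE_nonneg (C := C) X hw q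
  exact mul_le_mul h4 hN (add_nonneg h7 h6) h5

/-- **the pieces of a tile** -/
theorem tile_pieceE (X : Cplx Ω' Q dim K) (h2 : 2 ≤ finrank ℝ E) (hw : ∀ j, 0 < wt j)
    (hb0 : ∀ n, 1/4 ≤ b n) {ε₁ : ℝ} (hε : ε ≤ ε₁) (hε1 : ε₁ < 1) (hK : ∀ q, 0 ≤ K₀ q)
    (hδ : ∀ q, 0 < δ q) (hδ2 : ∀ q, 0 < WE X C wt q → ∀ σ ≤ q, δ σ ≤ WE X C wt q)
    {i : ι} {q : Q} (hqi : K q = P (T.H i))
    (hne : ∀ σ ≤ q, 2 ≤ dim σ → ∀ x : C.I σ, ∃ e, ∃ h : e < σ, dim e = 1 ∧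
      ∃ y : C.I e, C.up h y = x)
    {Spec : ∀ q, Lam (K q) (C.I q) → Prop} {g : Gd E J} {P : C.I q → Set E} {c : C.I q → E → ℝ}
    (hT : Trk C K R g0 P0 c0 b Spec (fun _ => FrA E) wt (LamSk X C K₀ ε b wt δ)
      (finrank ℝ E + 1) q g P c)
    {K₁ : ℝ} (hK1 : K₀ q ≤ K₁) {N : ℝ} (hN : WE X C wt q ≤ N)
    (B : E ≃ᵃ[ℝ] E) (x : C.I q) {z : E} (hz : z ∈ K q) :
    LB B (2 * CUe K₁ ε₁ (finrank ℝ E) (CfgB T i B) * N / wt (C.col q x)) (c x) (K q) z := by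
  have hb0' : ∀ n, 0 < b n := fun n => by have := hb0 n; linarith
  refine (h.tile_piece X h2 hw hb0' hK hδ hδ2 hqi hne hT B x hz).mono
    (div_le_div_of_nonneg_right ?_ (hw _).le)
  have h1 := C𝒦_le_CUe (hK _) hK1 hε hε1 hb0 (finrank ℝ E) (CfgB T i B)
  have h3 := WE_nonneg (C := C) X hw q
  have h4 := CUe_nonneg (ε := ε₁) ((hK _).trans hK1) (finrank ℝ E) (CfgB T i B)
  exact mul_le_mul (by linarith) hN h3 (by linarith)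

/-- **the families of a tile** -/
theorem tile_famE (X : Cplx Ω' Q dim K) (h2 : 2 ≤ finrank ℝ E) (hw : ∀ j, 0 < wt j)
    (hb0 : ∀ n, 1/4 ≤ b n) {ε₁ : ℝ} (hε : ε ≤ ε₁) (hε1 : ε₁ < 1) (hK : ∀ q, 0 ≤ K₀ q)
    (hδ : ∀ q, 0 < δ q) (hδ2 : ∀ q, 0 < WE X C wt q → ∀ σ ≤ q, δ σ ≤ WE X C wt q)
    {i : ι} {q : Q} (hqi : K q = P (T.H i))
    (hne : ∀ σ ≤ q, 2 ≤ dim σ → ∀ x : C.I σ, ∃ e, ∃ h : e < σ, dim e = 1 ∧
      ∃ y : C.I e, C.up h y = x)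
    {Spec : ∀ q, Lam (K q) (C.I q) → Prop} {D' : Set Q} {g : Gd E J} {P : ∀ q, C.I q → Set E}
    {c : ∀ q, C.I q → E → ℝ} (H : Inv C K D' g P c) (hqD : q ∈ D')
    (hT : Trk C K R g0 P0 c0 b Spec (fun _ => FrA E) wt (LamSk X C K₀ ε b wt δ)
      (finrank ℝ E + 1) q g (P q) (c q))
    {K₁ : ℝ} (hK1 : K₀ q ≤ K₁) {N : ℝ} (hN : WE X C wt q ≤ N)
    (S : Finset J) (hS : ∀ j ∈ S, ∀ j' ∈ S, C.fam j = C.fam j') (B : E ≃ᵃ[ℝ] E) {z : E}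
    (hz : z ∈ K q) :
    LB B (2 * CUe K₁ ε₁ (finrank ℝ E) (CfgB T i B) * N)
      (fun w => ∑ j ∈ S, wt j * g.G j w) (K q) z := by
  have hb0' : ∀ n, 0 < b n := fun n => by have := hb0 n; linarith
  refine (h.tile_fam X h2 hw hb0' hK hδ hδ2 hqi hne H hqD hT S hS B hz).mono ?_
  have h1 := C𝒦_le_CUe (hK _) hK1 hε hε1 hb0 (finrank ℝ E) (CfgB T i B)
  have h3 := WE_nonneg (C := C) X hw q
  have h4 := CUe_nonneg (ε := ε₁) ((hK _).trans hK1) (finrank ℝ E) (CfgB T i B)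
  exact mul_le_mul (by linarith) hN h3 (by linarith)

end CellIx

section lm

open Crest.Agent.R096.St_147 Crest.Agent.R096.Seq_213 Crest.Agent.R096.Lm_117
open Crest.Agent.R096.Cb_609 Crest.Agent.R096.Mi_117 Crest.Agent.R096.Be_416

variable {ι' Φ W Q Jn Fm : Type} {M : MeshC ι' Φ W} [PartialOrder Q] {dim : Q → ℕ}
variable {L : LM M Q dim} {fam : Jn → Fm} {s : GSt M fam}
variable {h : LF L s} {Lam : Jn → Q → ZMod 2} {hLam : ∀ j c, L.toSk.XL (gP s j) (Lam j) c}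
variable {K : Q → Set E} {Ω' : Set E} {R : Set Q} {g0 g : Gd E Jn}
  {P0 Pp : ∀ q, (cmb h Lam hLam).I q → Set E} {c0 c : ∀ q, (cmb h Lam hLam).I q → E → ℝ}
  {K₀ δ : Q → ℝ} {ε : ℝ} {b : ℕ → ℝ} {wt : Jn → ℝ}
  {SpecX : ∀ q, Bd_416.Lam (K q) ((cmb h Lam hLam).I q) → Prop}

/-- **THE PIECES OF A TILE IN THE MIXED LABELLED MESH** (534 #11010 (f)).  `T` = the tiling of the
cells of `Q`, `i` = a tile of `T`; `S` = the configuration in which the constant is read. -/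
theorem LB_tile_mix {cell : Q → T.Cell} (hc : CellIx T dim K cell) (h3 : finrank ℝ E = 3)
    (X : Cplx Ω' Q dim K) (hw : ∀ j, 0 < wt j) (hb0 : ∀ n, 1/4 ≤ b n) {ε₁ : ℝ} (hε : ε ≤ ε₁)
    (hε1 : ε₁ < 1) (hK : ∀ q, 0 ≤ K₀ q) (hδ : ∀ q, 0 < δ q)
    (hδ2 : ∀ q, 0 < WE X (cmb h Lam hLam) wt q → ∀ σ ≤ q, δ σ ≤ WE X (cmb h Lam hLam) wt q)
    {i : ι} {q : Q} (hqi : K q = P (T.H i))
    (hT : TrkX X R g0 P0 c0 SpecX K₀ δ ε b wt 4 g Pp c q) {K₁ : ℝ} (hK1 : K₀ q ≤ K₁)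
    (B : E ≃ᵃ[ℝ] E) {S : Set (Set E)} (hS : S = CfgB T i B) (x : (cmb h Lam hLam).I q) {z : E}
    (hz : z ∈ K q) :
    LB B (2 * CUe K₁ ε₁ 3 S * WE X (cmb h Lam hLam) wt q / wt ((cmb h Lam hLam).col q x))
      (c q x) (K q) z := by
  subst hS
  have h4 : TrkX X R g0 P0 c0 SpecX K₀ δ ε b wt (finrank ℝ E + 1) g Pp c q := by rw [h3]; exact hT
  have h5 := hc.tile_pieceE X (by omega) hw hb0 hε hε1 hK hδ hδ2 hqi
    (fun _ _ hσ y => cmb_ne h Lam hLam hσ y) h4 hK1 le_rfl B x hz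
  rwa [h3] at h5

/-- the same with extra weights `δ ≤ d` below the tile -/
theorem LB_tile_mixD {cell : Q → T.Cell} (hc : CellIx T dim K cell) (h3 : finrank ℝ E = 3)
    (X : Cplx Ω' Q dim K) (hw : ∀ j, 0 < wt j) (hb0 : ∀ n, 1/4 ≤ b n) {ε₁ : ℝ} (hε : ε ≤ ε₁)
    (hε1 : ε₁ < 1) (hK : ∀ q, 0 ≤ K₀ q) (hδ : ∀ q, 0 < δ q)
    {i : ι} {q : Q} (hqi : K q = P (T.H i)) {d : ℝ} (hd : ∀ σ ≤ q, δ σ ≤ d)
    (hT : TrkX X R g0 P0 c0 SpecX K₀ δ ε b wt 4 g Pp c q) {K₁ : ℝ} (hK1 : K₀ q ≤ K₁)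
    (B : E ≃ᵃ[ℝ] E) {S : Set (Set E)} (hS : S = CfgB T i B) (x : (cmb h Lam hLam).I q) {z : E}
    (hz : z ∈ K q) :
    LB B (CUe K₁ ε₁ 3 S * (WE X (cmb h Lam hLam) wt q + d) / wt ((cmb h Lam hLam).col q x))
      (c q x) (K q) z := by
  subst hS
  have h4 : TrkX X R g0 P0 c0 SpecX K₀ δ ε b wt (finrank ℝ E + 1) g Pp c q := by rw [h3]; exact hT
  have h5 := hc.tile_pieceD X (by omega) hw hb0 hε hε1 hK hδ hqi hd
    (fun _ _ hσ y => cmb_ne h Lam hLam hσ y) h4 hK1 le_rfl B x hz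
  rwa [h3] at h5

end lm

end

end Crest.Agent.R096.Csub_487
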