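import Crest.Agent.R096.Mi5_117
import Crest.Agent.R096.Csub9_487
import Crest.Agent.R096.Frn1_337
import Crest.Agent.R096.Nr5_527
import Crest.Agent.R096.Slt1_471

/-!
# R096 (row 96), bottom (helper117): the static inputs of 147's `fin_stG` from 337's `Lay` (Frn1_337)

over the labelled mesh `Lp` (the cells of `T3` outside all cores):
* `cellIx_p`, `onT_p` : the cells of `Lp` are cells of `T3` (`CellIx`, `OnT`);
* `ord_lay` : `hord` of `tile_clause` (an ordinary tile of `T` is a cell of `Lp`, `T3 = T` near it);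
* `cplx_p`, `kcs_*` : the complex of the cells outside all open cores and the cores `Kcs`;
* `tile_lay` : the literal clause `tile` of `fin_stG`.
-/

set_option autoImplicit false
set_option linter.unusedSectionVars false
set_option linter.unusedVariables false
set_option linter.style.longLine false

open Set Metric Filter Topology Module

namespace Crest.Agent.R096.Mi_117

open Crest.Agent.R096.St_147 Crest.Agent.R096.Seq_213 Crest.Agent.R096.Seq_213.GSt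
  Crest.Agent.R096.Bd_416 Crest.Agent.R096.Mg_441 Crest.Agent.R096.Lm_117
  Crest.Agent.R096.Cp_298 Crest.Agent.R096.Gl_422
  Crest.Agent.R096.On_441 Crest.Agent.R096.SkB_662 Crest.Agent.R096.Ce_537
  Crest.Agent.R096.Arc_778
open Crest.Agent.R096.Msh_715 Crest.Agent.R096.Ecm_446 Crest.Agent.R096.Csub_487
open Crest.Agent.R096.SkC1_961 (E3 FoamD th)
open Crest.Agent.R096.Fl_835 (wk)
open Crest.Agent.R96.Nu1_199 (Wd)
open Crest.Agent.R96.Nu7_199 (WE WE_nonneg)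
open Crest.Agent.R096.Nk_955 Crest.Agent.R096.Be_416
open Crest.Agent.R096.Cpo_642 Crest.Agent.R096.Frn_337 Crest.Agent.R096.Agl5_543
open Crest.Agent.R096.Ori_543
open Crest.Agent.R096.Init_543 (JJ fr3)
open Crest.Agent.R096.Mbf_337 (KJ)
open Crest.Agent.R096.Fin_147 (Xout)

section mesh

variable {E : Type} [NormedAddCommGroup E] [NormedSpace ℝ E] [FiniteDimensional ℝ E]
variable {Om : Set E} {ι κ : Type} {T : Tiling Om ι} {Kc : κ → Set E} {α : Type*} (tl : α → ι)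

/-- the cells outside all cores are cells of the tiling -/
theorem cellIx_pK : CellIx T (fun c : {c : QK (belK T Kc) // pK T Kc tl c} =>
      dimK (belK T Kc) (fun c => c.1.dim) c.1)
    (fun c => Lm_117.setK T Kc c.1) (celK T Kc tl) where
  le := by
    rintro ⟨a | a, ha⟩ ⟨b | b, hb⟩
    · exact QK.cc_le (b := belK T Kc) (c := a) (d := b)
    · exact hb.elim
    · exact ha.elim
    · exact ha.elim
  down := by
    intro τ c hc
    have : Nonempty T.Cell := ⟨c⟩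
    have h1 := (celK_range (T := T) (KK := Kc) tl (celK T Kc tl τ)).1 ⟨τ, rfl⟩
    exact (celK_range tl c).2 ⟨outK_down _ _ hc h1.1, notTile_down tl hc h1.2⟩
  dim_eq := fun q => celK_dim tl q
  set_eq := fun q => celK_set tl q

theorem celK_of {q : {c : QK (belK T Kc) // pK T Kc tl c}} {c : {c : T.Cell // OutK T Kc c}}
    (h : q.1 = QK.c _ c) : celK T Kc tl q = c.1 := by
  obtain ⟨a, ha⟩ := q
  subst h
  rfl

theorem tile_inj {i j : ι} (h : P (T.H i) = P (T.H j)) : i = j := by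
  by_contra hne
  obtain ⟨x, hx⟩ := T.ne i
  have h1 : x ∈ P (T.H j) := by rw [← h]; exact I_sub_P _ hx
  have h2 : j ∈ T.at_ x := h1
  rw [T.at_eq_singleton hx, mem_singleton_iff] at h2
  exact hne h2.symm

end mesh

/-! ### from `Lay` -/

section lay

variable {δ κ0 R0 c0 κ1 κ2 : ℝ} {La Om : Set E3} {ι : Type} {Φ : FoamD δ κ0 R0 c0 La}
  {T : Tiling Om ι} {X : Set Φ.F} {J0 Jt V : Φ.F → Set ι} {f : E3 → E3} {ct : Φ.F → ι}
  {A : Φ.F → E3 ≃ᵃ[ℝ] E3} {lam : Φ.F → ℝ} {z : Φ.F → E3} {θ : Φ.F → E3 → E3} {φ : Φ.F → E3 → ℝ}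
  {ι3 : Type} {T3 : Tiling Om ι3} {KK : Ti X → Set E3} {c3 : ι → ι3}

/-- a tile off all `V c` is in no core -/
theorem not_J (hC : Mbf_337.Cores Φ T f κ1 κ2 X J0 Jt V ct A lam z θ φ) {i : ι}
    (hi : ∀ c, i ∉ V c) (k : Ti X) : i ∉ Jt k.1 := fun h => hi k.1 ((hC.tiny k.1 k.2).sub h)

/-- the tile of an exact core is in no tiny core -/
theorem ct_not_J (hC : Mbf_337.Cores Φ T f κ1 κ2 X J0 Jt V ct A lam z θ φ) {a : Φ.F} (ha : a ∈ X)
    (k : Ti X) : ct a ∉ Jt k.1 := by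
  intro h
  have h1 : a ≠ k.1 := fun e => k.2 (e ▸ ha)
  refine Set.disjoint_left.1 (hC.disj a k.1 h1) ?_ ((hC.tiny k.1 k.2).sub h)
  rw [(hC.one a ha).2.2]; rfl

theorem Lay.keepX (hL : Lay Φ T X J0 Jt T3 KK c3)
    (hC : Mbf_337.Cores Φ T f κ1 κ2 X J0 Jt V ct A lam z θ φ) {a : Φ.F} (ha : a ∈ X) :
    P (T3.H (c3 (ct a))) = P (T.H (ct a)) := hL.keep _ (ct_not_J hC ha)

theorem ccJ (hL : Lay Φ T X J0 Jt T3 KK c3) {i : ι} (hi : ∀ k : Ti X, i ∉ Jt k.1) {x : E3}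
    (hx : x ∈ P (T.H i)) : T3.cc x = T.cc x ∧ T3.dim x = T.dim x :=
  hL.cc x (T.sub i hx) fun k => Nr_527.not_mem_interior_KJ (hi k) hx

/-- **a tile which is in no tiny core and is not an exact core is a cell of `Lp`** -/
theorem exists_p (hL : Lay Φ T X J0 Jt T3 KK c3)
    (hC : Mbf_337.Cores Φ T f κ1 κ2 X J0 Jt V ct A lam z θ φ) {i : ι}
    (hi : ∀ k : Ti X, i ∉ Jt k.1) (hX : ∀ a ∈ X, i ≠ ct a) :
    ∃ q : {c : QK (belK T3 KK) // pO T3 KK c3 ct c}, Lm_117.setK T3 KK q.1 = P (T3.H (c3 i)) := by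
  have h1 : ¬ ∃ k, P (T3.H (c3 i)) ⊆ KK k := by
    rintro ⟨k, hk⟩
    rw [hL.keep i hi] at hk
    exact hi k (Slt_471.sub_KJ_iff.1 (hk.trans (hL.sub k)))
  refine ⟨⟨QK.c _ ⟨tcell T3 (c3 i), out_tcell h1⟩, ?_⟩, tcell_set _⟩
  rintro ⟨a, ha⟩ h2
  have h3 : (tcell T3 (c3 i)).set = P (T3.H (c3 (ct a))) := h2
  rw [tcell_set, hL.keep i hi, Lay.keepX hL hC ha] at h3
  exact hX a ha (tile_inj h3)

/-- **`hord`** of `tile_clause` -/
theorem ord_lay (hL : Lay Φ T X J0 Jt T3 KK c3)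
    (hC : Mbf_337.Cores Φ T f κ1 κ2 X J0 Jt V ct A lam z θ φ) :
    ∀ i, (∀ c, i ∉ V c) → ∃ i3 : ι3, P (T3.H i3) = P (T.H i) ∧
      (∀ x ∈ P (T.H i), T3.cc x = T.cc x) ∧
      ∃ q : {c : QK (belK T3 KK) // pO T3 KK c3 ct c}, Lm_117.setK T3 KK q.1 = P (T3.H i3) := by
  intro i hi
  refine ⟨c3 i, hL.keep i (not_J hC hi), fun x hx => (ccJ hL (not_J hC hi) hx).1,
    exists_p hL hC (not_J hC hi) fun a ha e => hi a ?_⟩
  rw [(hC.one a ha).2.2, e]; rfl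

/-! ### the cores -/

theorem kcs_tiny {a : Φ.F} (ha : a ∉ X) : Kcs T KK ct a = KK ⟨a, ha⟩ := by
  unfold Kcs; rw [dif_pos ha]

theorem kcs_X {a : Φ.F} (ha : a ∈ X) : Kcs T KK ct a = P (T.H (ct a)) := by
  unfold Kcs; rw [dif_neg (not_not.2 ha)]

theorem kcs_closed (hL : Lay Φ T X J0 Jt T3 KK c3) (a : Φ.F) : IsClosed (Kcs T KK ct a) := by
  by_cases ha : a ∈ X
  · rw [kcs_X ha]; exact isClosed_P _
  · rw [kcs_tiny ha]; exact (hL.core _).cpt.isClosed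

theorem kcs_sub (hL : Lay Φ T X J0 Jt T3 KK c3)
    (hC : Mbf_337.Cores Φ T f κ1 κ2 X J0 Jt V ct A lam z θ φ) (a : Φ.F) :
    Kcs T KK ct a ⊆ KJ T (Jt a) := by
  by_cases ha : a ∈ X
  · rw [kcs_X ha, (hC.one a ha).2.1]
    exact Slt_471.sub_KJ_iff.2 rfl
  · rw [kcs_tiny ha]; exact hL.sub _

theorem kcs_alt (hL : Lay Φ T X J0 Jt T3 KK c3)
    (hC : Mbf_337.Cores Φ T f κ1 κ2 X J0 Jt V ct A lam z θ φ) (a : Φ.F) :
    (∃ k, Kcs T KK ct a = KK k) ∨ ∃ b, Kcs T KK ct a = P (T3.H (tlX X c3 ct b)) := by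
  by_cases ha : a ∈ X
  · exact Or.inr ⟨⟨a, ha⟩, by rw [kcs_X ha]; exact (Lay.keepX hL hC ha).symm⟩
  · exact Or.inl ⟨_, kcs_tiny ha⟩

/-- **the complex of the cells of `Lp`** -/
theorem cplx_p (hL : Lay Φ T X J0 Jt T3 KK c3)
    (hC : Mbf_337.Cores Φ T f κ1 κ2 X J0 Jt V ct A lam z θ φ) :
    Cplx (Om ∩ Xout (Kcs T KK ct)) {c : QK (belK T3 KK) // pO T3 KK c3 ct c}
      (fun c => dimK (belK T3 KK) (fun c => c.1.dim) c.1) (fun c => Lm_117.setK T3 KK c.1) :=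
  cplx_outK (tlX X c3 ct) hL.core hL.disj (kcs_alt hL hC)
    (fun k => ⟨k.1, kcs_tiny k.2⟩)
    (fun b => ⟨b.1, by rw [kcs_X b.2]; exact (Lay.keepX hL hC b.2).symm⟩)

/-! ### the labelled mesh `Lp` -/

variable [Nonempty T3.Cell] {hH : ∀ k, CoreH T3 (KK k)}
    {hdis : ∀ k k', k ≠ k' → Disjoint (KK k) (KK k')} {hne : ∃ c, OutK T3 KK c}

/-- **the cells of `Lp` are cells of `T3`** -/
theorem cellIx_p : CellIx T3 (fun c : {c : QK (belK T3 KK) // pO T3 KK c3 ct c} =>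
      dimK (belK T3 KK) (fun c => c.1.dim) c.1)
    (fun c => Lm_117.setK T3 KK c.1) (celK T3 KK (tlX X c3 ct)) := cellIx_pK _

theorem edP_eq {w : E3} (hw : w ∈ (Lp (T3 := T3) c3 ct hH hdis hne).W1) :
    celK T3 KK (tlX X c3 ct) ((Lp c3 ct hH hdis hne).ed w) = edC T3 w := by
  have h1 : w ∈ (lmK fr3 hH hdis hne).W1 := sb_W1.1 hw
  have h2 : ((Lp c3 ct hH hdis hne).ed w).1 = QK.c _ ((lmO fr3 hH hdis hne).ed w) := sb_ed h1
  rw [celK_of (tlX X c3 ct) h2]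
  exact Gm_298.edO_eq h1

/-- **the skeleton of `Lp` is made of cells of `T3`** -/
theorem onT_p : OnT T3 (Lp (T3 := T3) c3 ct hH hdis hne).toSk (celK T3 KK (tlX X c3 ct)) where
  w1 := fun w hw => by
    have h0 : w ∈ (lmK fr3 hH hdis hne).W1 := sb_W1.1 hw
    have h1 := Gm_298.mem_W1O.1 (show w ∈ (lmO fr3 hH hdis hne).W1 from h0)
    exact ⟨h1.1, h1.2.1⟩
  mono := fun p q h => (cellIx_p.le p q).1 h
  dim := fun q => (cellIx_p.dim_eq q).symm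
  ed := fun w hw => by
    have h0 : w ∈ (lmK fr3 hH hdis hne).W1 := sb_W1.1 hw
    have h1 := Gm_298.mem_W1O.1 (show w ∈ (lmO fr3 hH hdis hne).W1 from h0)
    show (celK T3 KK (tlX X c3 ct) ((Lp c3 ct hH hdis hne).ed w)).set = _
    rw [edP_eq hw, edC_set h1.1]
  down := fun q c hc => by
    obtain ⟨p, hp⟩ := (cellIx_p (T3 := T3) (KK := KK) (c3 := c3) (ct := ct)).down q c hc
    exact ⟨p, (cellIx_p.le p q).2 (hp ▸ hc), hp⟩

variable {f : E3 → E3} {L : Φ.F → Finset ℝ} {Qd : Quads (ι3 ⊕ Ti X) Φ.F (Init_543.QK (Brk3_582.Pc Φ.F))}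
    {s₀ : GSt (mK fr3 hH hdis) (fun j : JJ Φ L => j.1)} {far₀ : JJ Φ L → Set E3}
    {Gc : Φ.F → Set E3} {Zc : Φ.F → Set (QK (belK T3 KK))}
    {lam₀ : JJ Φ L → QK (belK T3 KK) → ZMod 2} {v₀ v₁ : Φ.F → QK (belK T3 KK)}

/-- `hlev` of `fin_stG` -/
theorem Front.hlev (h : Front T f J0 Jt V ct c3 hH hdis hne Qd s₀ far₀ Gc Zc lam₀ v₀ v₁) :
    ∀ i, (∀ c, i ∉ V c) → ∀ x ∈ s₀.P, x ∈ P (T.H i) → T.dim x ≤ 1 →
      Φ.lev (s₀.lab x).1 (f x) = (s₀.lab x).2.1 :=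
  fun i hi x hx hxi _ => h.lev x hx i (fun k => hi k.1) hxi

open scoped Classical in
/-- **the literal clause `tile` of `fin_stG`** over `Lp` -/
theorem tile_lay (hL : Lay Φ T X J0 Jt T3 KK c3)
    (hC : Mbf_337.Cores Φ T f κ1 κ2 X J0 Jt V ct A lam z θ φ)
    {κ : Φ.F → ℕ} {hfin : ∀ a, {j : JJ Φ L | j.1 = a}.Finite} {kap : Φ.F → ℕ}
    {s : GSt (mK fr3 hH hdis) (fam' (fun j : JJ Φ L => j.1) (Rk κ kap))}
    {far : Nm' (fun j : JJ Φ L => j.1) (Rk κ kap) → Set E3} {β : E3 → E3}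
    {lm : Nm' (fun j : JJ Φ L => j.1) (Rk κ kap) → {c : QK (belK T3 KK) // pO T3 KK c3 ct c} → ZMod 2}
    {O : Ori (mK fr3 hH hdis)} {τ : {c : QK (belK T3 KK) // pO T3 KK c3 ct c} → ZMod 2}
    {Rel : E3 → E3 → Prop} {Vc : Set E3} {Z : Φ.F → Set {c : QK (belK T3 KK) // pO T3 KK c3 ct c}}
    {l0 : JJ Φ L → {c : QK (belK T3 KK) // pO T3 KK c3 ct c} → ZMod 2}
    {w₀ w₁ : Φ.F → {c : QK (belK T3 KK) // pO T3 KK c3 ct c}}
    (h : StO (Lp c3 ct hH hdis hne) O τ Rel Vc Qd κ s₀ far₀ Z l0 w₀ w₁ hfin kap s far β lm)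
    {Ω' : Set E3} (Xc : Cplx Ω' {c : QK (belK T3 KK) // pO T3 KK c3 ct c}
      (fun c => dimK (belK T3 KK) (fun c => c.1.dim) c.1) (fun c => Lm_117.setK T3 KK c.1))
    {b : ℕ → ℝ} {ε Kb : ℝ} {δ' : {c : QK (belK T3 KK) // pO T3 KK c3 ct c} → ℝ}
    {R' : Set {c : QK (belK T3 KK) // pO T3 KK c3 ct c}}
    (hb4 : ∀ n, 1/4 ≤ b n) (hε : ε ≤ 1/2) (hKb : 0 ≤ Kb) (hδ : ∀ q, 0 < δ' q)
    (hδ2 : ∀ q, 0 < WE Xc h.cmb (wk κ kap (fun j : JJ Φ L => j.1)) q →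
      ∀ σ ≤ q, δ' σ ≤ WE Xc h.cmb (wk κ kap (fun j : JJ Φ L => j.1)) q)
    {g0 g : Gd E3 (Nm' (fun j : JJ Φ L => j.1) (Rk κ kap))} {Pp0 Pp : ∀ q, h.cmb.I q → Set E3}
    {cc0 cc : ∀ q, h.cmb.I q → E3 → ℝ}
    (hT : ∀ q, TrkL (h := h.lfs) (Lam := Lf lm) (hLam := xlf h.lab.lab) Xc R' g0 Pp0 cc0
      (K0f R' Kb) δ' ε b (wk κ kap (fun j : JJ Φ L => j.1)) g Pp cc q) :
    ∀ i, (∀ c, i ∉ V c) → ∃ q : {c : QK (belK T3 KK) // pO T3 KK c3 ct c},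
      Lm_117.setK T3 KK q.1 = P (T.H i) ∧
      (∀ e, e < q → dimK (belK T3 KK) (fun c => c.1.dim) e.1 = 1 →
        (Lp c3 ct hH hdis hne).toSk.On1 e ⊆ {y | y ∈ P (T.H i) ∧ T.dim y ≤ 1}) ∧
      ∀ (B : E3 ≃ᵃ[ℝ] E3) (x : h.cmb.I q), ∀ y ∈ Lm_117.setK T3 KK q.1,
        LB B (2 * CU Kb 3 ((fun K => B '' K) '' SkC1_961.Cfg T i) *
          WE Xc h.cmb (wk κ kap (fun j : JJ Φ L => j.1)) q /
            wk κ kap (fun j : JJ Φ L => j.1) (h.cmb.col q x)) (cc q x)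
          (Lm_117.setK T3 KK q.1) y :=
  tile_clause h Xc cellIx_p onT_p hb4 hε hKb hδ hδ2 hT (ord_lay hL hC)

end lay

end Crest.Agent.R096.Mi_117
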