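import Crest.Agent.R096.Fin4_147

/-!
Row 96 (S0127), helper534.  `fin_G` = 147's `fin_gout` with all values of the structure map in the
conclusion (no metric clauses): both `OutG` and `GNO` are read from it.
-/

set_option autoImplicit false
set_option linter.unusedSectionVars false
set_option linter.unusedVariables false
set_option linter.style.longLine false

open Set Filter Topology Metric Module MeasureTheory
open scoped ENNReal

namespace Crest.Agent.R096.Mno_534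

open Crest.Agent.R096.Ce_537 (PLOn PLEquiv cube sph IsBall Cplx)
open Crest.Agent.R096.Bd_416 Crest.Agent.R096.Grd_714 Crest.Agent.R096.Mg_441
open Crest.Agent.R096.Xp_537
open Crest.Agent.R096.Ar_241 (Tr0 TopC Exact cod SheetData)
open Crest.Agent.R096.Ar_241.Tr0 (P2)
open Crest.Agent.R096.Shp_334 (OnMesh)
open Crest.Agent.R096.Brk1_582 Crest.Agent.R096.Brk3_582 Crest.Agent.R096.Brk5_582
open Crest.Agent.R096.Bsp_628
open Crest.Agent.R096.SkC1_961 (E3 Hom3 FoamD Cfg th NN)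
open Crest.Agent.R096.Msh_715 Crest.Agent.R096.Nr_527 Crest.Agent.R096.Oa_527
open Crest.Agent.R096.Mbf_337 (KJ sb gau)
open Crest.Agent.R096.Fin_147

variable {δ κ0 R c0 : ℝ} {La Om : Set E3} {ι : Type} {Φ : FoamD δ κ0 R c0 La} {Tl : Tiling Om ι}
  {f : E3 → E3} {κ1 κ2 : ℝ} {X : Set Φ.F} {J0 J V : Φ.F → Set ι} {ct : Φ.F → ι}
  {A : Φ.F → E3 ≃ᵃ[ℝ] E3} {lam : Φ.F → ℝ} {z : Φ.F → E3} {θ : Φ.F → E3 → E3} {φ : Φ.F → E3 → ℝ}

/-- **the structure map with its values**: `Gm` on the cells `K q`, `Gc a` on the exact core `a` -/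
structure FinG (Φ : FoamD δ κ0 R c0 La) (T : Tiling Om ι) (f : E3 → E3) (J0 V : Φ.F → Set ι)
    (X : Set Φ.F) {Q : Type} (K : Q → Set E3) (Gm : E3 → E3) (Kc : Φ.F → Set E3)
    (Gc : Φ.F → E3 → E3) (G : E3 → E3) : Prop where
  expl : ∃ (Q : Type) (_ : PartialOrder Q) (𝒞 : CC La Q), Nonempty (Expl Om 𝒞 G)
  adj : ∀ x ∈ Om, (∃ c : Φ.F, x ∈ KJ T (V c) ∧ G x ∈ Pc Φ.F c) ∨
    ∃ i, (∀ c, i ∉ J0 c) ∧ x ∈ P (T.H i) ∧ ∃ x0 ∈ P (T.H i), ∀ a : Φ.F,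
      Φ.Psi (f x0) ∈ Pc Φ.F a → G x ∈ Pc Φ.F a
  cont : ContinuousOn G Om
  mesh : ∀ q, ∀ x ∈ K q, G x = Gm x
  core : ∀ a ∈ X, ∀ x ∈ Kc a, G x = Gc a x

/-- `fin_gout` of 147 without the metric clauses -/
theorem fin_G (hOm : IsOpen Om) (hLa : IsOpen La) (hf : Hom3 f Om La)
    (hs : Small δ κ0 R κ1 κ2)
    (hC : Mbf_337.Cores Φ Tl f κ1 κ2 X J0 J V ct A lam z θ φ) (hF : Mbf_337.Fine Φ Tl f κ1 J0)
    {Q : Type} [PartialOrder Q] [Nonempty Q] {dim : Q → ℕ} {Jc : Type}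
    {Cc : Cmb Q dim Jc Φ.F} {K : Q → Set E3} {g : Gd E3 Jc}
    {Pp : ∀ q, Cc.I q → Set E3} {cc : ∀ q, Cc.I q → E3 → ℝ}
    (H : Inv Cc K univ g Pp cc) {hfin : ∀ a, {j | Cc.fam j = a}.Finite}
    (hm : ∀ a, 0 < mm hfin a) (hex : MeshEx Φ Tl f J0 Cc K univ)
    (hne : ∀ c : Φ.F, (Pc Φ.F c).Nonempty)
    {Kc : Φ.F → Set E3} (Xc : Cplx (Om ∩ Xout Kc) Q dim K)
    (hKJ : ∀ a, Kc a ⊆ KJ Tl (J a)) (hKc : ∀ a, IsClosed (Kc a))
    (q0 : Cel (Pc Φ.F) (mm hfin)) {κf : ℝ} (hκf : 0 < κf ∧ κf < 1) (Rr : Φ.F → E3 → E3)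
    (chart : ∀ a, ∃ Th : PLEquiv (Kc a) (coreF (gr Φ hLa hne hm) κf (.top a) 0),
      (a ∈ X → ∀ x ∈ Kc a, Th.f x = Rr a (th (A a) (lam a) (z a) x)) ∧
      (∀ x ∈ Kc a, x ∈ frontier (Kc a) ↔ sl (gr Φ hLa hne hm) κf (Th.f x) (.top a) = 0) ∧
      ∀ x ∈ frontier (Kc a),
        gG (Tq (bc (F := Φ.F)) (mm hfin)) (merge hfin g) x = cG (gr Φ hLa hne hm) κf Th.f x ∧
        gtop hm q0 (merge hfin g) x = ctop (gr Φ hLa hne hm) κf (.top a) Th.f x ∧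
        ∀ t ∈ (gr Φ hLa hne hm).cell (gtop hm q0 (merge hfin g) x),
          gtr (co (Pc Φ.F) (bc (F := Φ.F)) (mm hfin)) (merge hfin g) x t =
            ctr (gr Φ hLa hne hm) κf Th.f Th.g x t)
    (arcs : ∀ (G : E3 → E3) (Y : Tr0 Om (gr Φ hLa hne hm) G),
      OnMesh Y K g (Tq (bc (F := Φ.F)) (mm hfin)) (XM Om K) →
      Nonempty (Exact Y (fun _ => κf) (fun _ => 0) (Ktc Kc) (XM Om K)) →
      ∀ q, cod (gr Φ hLa hne hm) q = 1 →
      IsBall 1 (Y.F q ∩ XM Om K) (Y.F q ∩ XM Om K ∩ ⋃ c : TopC (Cel (Pc Φ.F) (mm hfin)), Ktc Kc c))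
    (sheets : ∀ (G : E3 → E3) (Y : Tr0 Om (gr Φ hLa hne hm) G),
      OnMesh Y K g (Tq (bc (F := Φ.F)) (mm hfin)) (XM Om K) →
      Nonempty (Exact Y (fun _ => κf) (fun _ => 0) (Ktc Kc) (XM Om K)) →
      ∀ q, cod (gr Φ hLa hne hm) q = 2 →
        SheetData Y (Ktc Kc : TopC (Cel (Pc Φ.F) (mm hfin)) → Set E3) (XM Om K) q) :
    ∃ G : E3 → E3, FinG Φ Tl f J0 V X K (gG (Tq (bc (F := Φ.F)) (mm hfin)) (merge hfin g)) Kc
      (fun a x => st (gr Φ hLa hne hm) κf (Rr a (th (A a) (lam a) (z a) x))) G := by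
  have OK : GridOK (gr Φ hLa hne hm) (Tq (bc (F := Φ.F)) (mm hfin))
      (co (Pc Φ.F) (bc (F := Φ.F)) (mm hfin)) := gridOK _ _ hne hm
  choose Th hTh1 hTh2 hTh3 using chart
  have hKV : ∀ a, Kc a ⊆ KJ Tl (V a) := fun a x hx => by
    obtain ⟨i, hi, hxi⟩ := mem_KJ.1 (hKJ a hx)
    exact mem_KJ.2 ⟨i, J_sub hC a hi, hxi⟩
  have hKOm : ∀ a, Kc a ⊆ Om := fun a x hx => by
    obtain ⟨i, hi, hxi⟩ := mem_KJ.1 (hKJ a hx)
    exact Tl.sub i hxi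
  have hCh : Charts hfin hm q0 Om g (gr Φ hLa hne hm) (Tq (bc (F := Φ.F)) (mm hfin))
      (co (Pc Φ.F) (bc (F := Φ.F)) (mm hfin)) κf Kc Th :=
    { κpos := hκf
      sub := hKOm
      closed := hKc
      disj := fun a a' h => disjoint_cores hLa hC hKV h
      lf := fun x hx => lf_cores hC hKV hx
      bd := hTh2
      agG := fun a x hx => (hTh3 a x hx).1
      agT := fun a x hx => (hTh3 a x hx).2.1
      agt := fun a x hx => (hTh3 a x hx).2.2 }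
  have hG := hCh.giants
  have hT := hT_Tq (Φ := Φ) hLa hm
  have hprop := MeshEx.prop hLa hf hs hC hF hex H hfin hm hT (gr Φ hLa hne hm)
  have hE3 : finrank ℝ E3 = 3 := by simp
  have hX0 := isClosed_Xout Kc
  have htrn := hG.trn hX0 Xc H OK (fun q => hex.ex (mem_univ q)) hprop hLa hOm hE3
    (Ar_241.p2_of_finrank hE3) (fun q => grid_dim_le _ _ hne hm q)
    (fun c x hx hx0 ε hε => by
      have h1 := (hCh.mem_Xout hx).1 hx0
      rw [(hKc _).frontier_eq] at h1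
      by_contra hcon
      push Not at hcon
      exact h1.2 (mem_interior_iff_mem_nhds.2 (mem_nhds_iff.2 ⟨ε, hε, hcon⟩))) arcs sheets
  obtain ⟨G, E, hGc, hG1, hG2⟩ := htrn
  refine ⟨G, ⟨⟨_, _, _, ⟨E.expl⟩⟩, gadj hLa hf hs hC hex H hm hT
    (fun a => grid_cell_top _ _ hne hm a) (fun _ => hκf) (fun c => hKJ _) (fun x hx => ?_) hG1 hG2,
    hGc, hG1, fun a _ha x hx => ?_⟩⟩
  · by_cases h1 : x ∈ Xout Kc
    · left; exact Xc.cover x ⟨hx, h1⟩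
    · right
      unfold Xout at h1
      rw [mem_compl_iff, not_not] at h1
      obtain ⟨a, ha⟩ := mem_iUnion.1 h1
      refine ⟨topc a, ?_⟩
      show x ∈ Kc (tix (topc a))
      rw [tix_topc]; exact interior_subset ha
  · have h1 := hG2 (topc a) x (by
      show x ∈ Kc (tix (topc a))
      rw [tix_topc]; exact hx)
    rw [h1]
    show st (gr Φ hLa hne hm) κf ((Th (tix (topc a))).f x) = _
    rw [tix_topc, hTh1 a _ha x hx]

end Crest.Agent.R096.Mno_534
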