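import Crest.Agent.R096.Fin6_147
import Crest.Agent.R096.Mno4_534
import Crest.Agent.R096.Init11_543
import Crest.Agent.R096.Gia3_537

/-!
# R096 (row 96), bottom assembly, part 7 (helper147): the levels, and the values of the map

`fin_stG` : `fin_st` for the sheets `JJ Φ L` (543), block (2) from `Mbf_337.Levels`; the conclusion
has 534's `FinG` (values of `G` on the mesh) and `GOut` for the same map.
-/

set_option autoImplicit false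
set_option linter.unusedSectionVars false
set_option linter.unusedVariables false
set_option linter.style.longLine false

open Set Filter Topology Metric Module MeasureTheory
open scoped ENNReal

namespace Crest.Agent.R096.Fin_147

open Crest.Agent.R096.Ce_537 (PLOn PLEquiv cube sph IsBall Cplx)
open Crest.Agent.R096.Bd_416 Crest.Agent.R096.Grd_714 Crest.Agent.R096.Mg_441
open Crest.Agent.R096.Xp_537 Crest.Agent.R096.Bin_181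
open Crest.Agent.R096.Ar_241 (Tr0 TopC Exact cod SheetData)
open Crest.Agent.R096.Ar_241.Tr0 (P2)
open Crest.Agent.R096.Shp_334 (OnMesh)
open Crest.Agent.R096.Brk1_582 Crest.Agent.R096.Brk2_582 Crest.Agent.R096.Brk3_582
open Crest.Agent.R096.Brk5_582 Crest.Agent.R096.Brk6_582
open Crest.Agent.R096.Bsp_628
open Crest.Agent.R096.SkC1_961 (E3 Hom3 FoamD Cfg th NN)
open Crest.Agent.R096.Msh_715 Crest.Agent.R096.Nr_527 Crest.Agent.R096.Oa_527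
open Crest.Agent.R096.Mbf_337 (KJ sb gau)
open Crest.Agent.R096.St_147 Crest.Agent.R096.Seq_213 Crest.Agent.R096.Lm_117
  Crest.Agent.R096.Cp_298 Crest.Agent.R096.Gl_422 Crest.Agent.R096.SkB_662
open Crest.Agent.R096.Fl_835 (wk)
open Crest.Agent.R96.Nu7_199 (WE)
open Crest.Agent.R096.Mno_534 (FinG fin_G)
open Crest.Agent.R096.Init_543 (JJ)

variable {δ κ0 R c0 : ℝ} {La Om : Set E3} {ι : Type} {Φ : FoamD δ κ0 R c0 La} {Tl : Tiling Om ι}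
  {f : E3 → E3} {κ1 κ2 : ℝ} {X : Set Φ.F} {J0 Jt V : Φ.F → Set ι} {ct : Φ.F → ι}
  {A : Φ.F → E3 ≃ᵃ[ℝ] E3} {lam : Φ.F → ℝ} {z : Φ.F → E3} {θ : Φ.F → E3 → E3} {φ : Φ.F → E3 → ℝ}

/-- the family of a sheet -/
abbrev fmJ (Φ : FoamD δ κ0 R c0 La) (L : Φ.F → Finset ℝ) : JJ Φ L → Φ.F := fun j => j.1

section lv

variable {L : Φ.F → Finset ℝ}

lemma jj_inj (j j' : JJ Φ L) (h : fmJ Φ L j = fmJ Φ L j') (h' : j.2.1 = j'.2.1) : j = j' := by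
  obtain ⟨a, t, ht⟩ := j
  obtain ⟨a', t', ht'⟩ := j'
  obtain rfl : a = a' := h
  obtain rfl : t = t' := h'
  rfl

lemma jj_mem (j : JJ Φ L) : j.2.1 ∈ L (fmJ Φ L j) := j.2.2

/-- the sheets of a family are finitely many -/
lemma jj_finite (a : Φ.F) : {j | fmJ Φ L j = a}.Finite := by
  refine Set.Finite.of_finite_image (f := fun j : JJ Φ L => j.2.1) ((L a).finite_toSet.subset ?_)
    fun j hj j' hj' h => jj_inj j j' (hj.trans hj'.symm) h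
  rintro _ ⟨j, hj, rfl⟩
  rw [← (show fmJ Φ L j = a from hj)]
  exact j.2.2

/-- the number of the sheets of a family -/
lemma jj_card (hfin : ∀ a, {j | fmJ Φ L j = a}.Finite) (a : Φ.F) : mm hfin a = (L a).card := by
  classical
  have h1 : ((sh hfin a).image fun j : JJ Φ L => j.2.1) = L a := by
    ext t
    rw [Finset.mem_image]
    constructor
    · rintro ⟨j, hj, rfl⟩
      rw [mem_sh] at hj
      rw [← (show fmJ Φ L j = a from hj)]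
      exact j.2.2
    · intro ht
      exact ⟨⟨a, t, ht⟩, by rw [mem_sh], rfl⟩
  rw [← h1, Finset.card_image_of_injOn]
  · rfl
  · intro j hj j' hj' h
    rw [Finset.mem_coe, mem_sh] at hj hj'
    exact jj_inj j j' (hj.trans hj'.symm) h

end lv

section nums

variable {ι' Φc Q Kq : Type} {M : MeshC ι' Φc E3} [PartialOrder Q] {dim : Q → ℕ}
  {L : LM M Q dim} {O : Ori M} {τ : Q → ZMod 2} {Rel : E3 → E3 → Prop} {Vc : Set E3}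
  {Qd : Quads ι' Φ.F Kq} {κw : Φ.F → ℕ} {Lv : Φ.F → Finset ℝ}
  {s₀ : GSt M (fmJ Φ Lv)} {far₀ : JJ Φ Lv → Set E3}
  {Z : Φ.F → Set Q} {lam₀ : JJ Φ Lv → Q → ZMod 2} {v₀ v₁ : Φ.F → Q}
  {hfin : ∀ a, {j | fmJ Φ Lv j = a}.Finite} {kap : Φ.F → ℕ}
  {s : GSt M (fam' (fmJ Φ Lv) (Rk κw kap))}
  {far : Nm' (fmJ Φ Lv) (Rk κw kap) → Set E3} {β : E3 → E3}
  {lm : Nm' (fmJ Φ Lv) (Rk κw kap) → Q → ZMod 2}
  (h : StO L O τ Rel Vc Qd κw s₀ far₀ Z lam₀ v₀ v₁ hfin kap s far β lm)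

/-- the number of the final sheets of a family -/
lemma mm_final (hf1 : ∀ a, {j | h.cmb.fam j = a}.Finite) (a : Φ.F) :
    mm hf1 a = Rk κw kap a * (Lv a).card := by
  have h1 : mm hf1 a = mm h.fin1 a := rfl
  rw [h1, h.mm_eq, jj_card hfin]

/-- every brick has a level -/
lemma lv_pos {κp μ κ3 : ℝ} {Zx : Φ.F → Set ℝ} {m0 : Φ.F → ℕ}
    (hL : Mbf_337.Levels Φ Tl f κp μ κ3 Zx m0 κw Lv) (a : Φ.F) : 0 < (Lv a).card := by
  rcases Nat.eq_zero_or_pos (Lv a).card with h0 | h0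
  · exfalso
    have h1 := hL.many a
    rw [h0] at h1
    have h2 : 0 < a.1.sz := Bx.sz_pos (Φ.bf.pos _ a.2)
    simp at h1
    linarith
  · exact h0

/-- `hm` of `fin_st` -/
lemma mm_pos_final {κp μ κ3 : ℝ} {Zx : Φ.F → Set ℝ} {m0 : Φ.F → ℕ}
    (hL : Mbf_337.Levels Φ Tl f κp μ κ3 Zx m0 κw Lv)
    (hf1 : ∀ a, {j | h.cmb.fam j = a}.Finite) (a : Φ.F) : 0 < mm hf1 a := by
  rw [mm_final h hf1 a]
  exact Nat.mul_pos (Rk_pos κw kap a) (lv_pos hL a)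

/-- `hne` of `fin_st` -/
lemma ne_Pc (c : Φ.F) : (Pc Φ.F c).Nonempty := Gia_537.ne4 Φ c

end nums

set_option maxHeartbeats 1000000 in
/-- **[F3], [F7] -> [F10], with the values of the map** -/
theorem fin_stG (hOm : IsOpen Om) (hLa : IsOpen La) (hf : Hom3 f Om La)
    (hs : Small δ κ0 R κ1 κ2)
    (hC : Mbf_337.Cores Φ Tl f κ1 κ2 X J0 Jt V ct A lam z θ φ)
    (hF : Mbf_337.Fine Φ Tl f κ1 J0)
    -- the final state
    {ι' Φc Q Kq : Type} {M : MeshC ι' Φc E3} [PartialOrder Q] [Nonempty Q] {dim : Q → ℕ}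
    {L : LM M Q dim} {O : Ori M} {τ : Q → ZMod 2} {Rel : E3 → E3 → Prop} {Vc : Set E3}
    {Qd : Quads ι' Φ.F Kq} {κw : Φ.F → ℕ} {Lv : Φ.F → Finset ℝ}
    {s₀ : GSt M (fmJ Φ Lv)} {far₀ : JJ Φ Lv → Set E3}
    {Z : Φ.F → Set Q} {lam₀ : JJ Φ Lv → Q → ZMod 2} {v₀ v₁ : Φ.F → Q}
    {hfin : ∀ a, {j | fmJ Φ Lv j = a}.Finite} {kap : Φ.F → ℕ}
    {s : GSt M (fam' (fmJ Φ Lv) (Rk κw kap))}
    {far : Nm' (fmJ Φ Lv) (Rk κw kap) → Set E3} {β : E3 → E3}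
    {lm : Nm' (fmJ Φ Lv) (Rk κw kap) → Q → ZMod 2}
    (h : StO L O τ Rel Vc Qd κw s₀ far₀ Z lam₀ v₀ v₁ hfin kap s far β lm)
    (hrel : ∀ x w, Rel x w → (x ∈ L.W1 ∨ w ∈ L.W1) → x ∈ L.W1 ∧ w ∈ L.W1 ∧ L.ed x = L.ed w)
    -- the levels
    {κp μ κ3 : ℝ} {Zx : Φ.F → Set ℝ} {m0 : Φ.F → ℕ} (hR : 0 ≤ R) (h3 : 0 ≤ κ3)
    (hL : Mbf_337.Levels Φ Tl f κp μ κ3 Zx m0 κw Lv)
    (hlev : ∀ i, (∀ c, i ∉ V c) → ∀ x ∈ s₀.P, x ∈ P (Tl.H i) → Tl.dim x ≤ 1 →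
      Φ.lev (s₀.lab x).1 (f x) = (s₀.lab x).2.1)
    {hf1 : ∀ a, {j | h.cmb.fam j = a}.Finite} (hm : ∀ a, 0 < mm hf1 a)
    -- the mesh and its structure
    {K : Q → Set E3} {Gf : Gd E3 (Nm' (fmJ Φ Lv) (Rk κw kap))} {Pp : ∀ q, h.cmb.I q → Set E3}
    {cc : ∀ q, h.cmb.I q → E3 → ℝ} (H : Inv h.cmb K univ Gf Pp cc)
    (hex : MeshEx Φ Tl f J0 h.cmb K univ) (hne : ∀ c : Φ.F, (Pc Φ.F c).Nonempty)
    {Kc : Φ.F → Set E3} (Xc : Cplx (Om ∩ Xout Kc) Q dim K)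
    (hKJ : ∀ a, Kc a ⊆ KJ Tl (Jt a)) (hKc : ∀ a, IsClosed (Kc a))
    (hKX : ∀ a ∈ X, Kc a = P (Tl.H (ct a)))
    (q0 : Cel (Pc Φ.F) (mm hf1))
    -- the numbers on the tiles
    {Ck Cs : Set (Set E3) → ℝ} (hCk : ∀ 𝒦, 0 ≤ Ck 𝒦) (hCs : ∀ 𝒦, 2 * R * κ3 * Ck 𝒦 ≤ Cs 𝒦)
    (tile : ∀ i, (∀ c, i ∉ V c) → ∃ q, K q = P (Tl.H i) ∧
      (∀ e, e < q → dim e = 1 → L.toSk.On1 e ⊆ {y | y ∈ P (Tl.H i) ∧ Tl.dim y ≤ 1}) ∧
      ∀ (B : E3 ≃ᵃ[ℝ] E3) (x : h.cmb.I q), ∀ y ∈ K q,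
        LB B (Ck ((fun K => B '' K) '' Cfg Tl i) * WE Xc h.cmb (wk κw kap (fmJ Φ Lv)) q /
          wk κw kap (fmJ Φ Lv) (h.cmb.col q x)) (cc q x) (K q) y)
    -- the exact cores
    {κb : ℝ} (hκb : 0 < κb ∧ κb < 1) {bt : ℕ → ℝ} (hb0 : ∀ n, 0 < bt n) (hb2 : ∀ n, bt n < 1/2)
    (n : ℕ) {κf : ℝ} (hκf : κf = 1 - (1 - κb) * bet bt (n + 1))
    {lv : Nm' (fmJ Φ Lv) (Rk κw kap) → ℕ}
    (lv_inj : ∀ j j', h.cmb.fam j = h.cmb.fam j' → lv j = lv j' → j = j')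
    (lv_lt : ∀ j, lv j < mm hf1 (h.cmb.fam j))
    (lv_sur : ∀ a k, k < mm hf1 a → ∃ j, h.cmb.fam j = a ∧ lv j = k)
    {g0 : Gd E3 (Nm' (fmJ Φ Lv) (Rk κw kap))} (Rr : Φ.F → E3 → E3)
    (core : ∀ a ∈ X, ∃ (U : PLEquiv (Kc a) (Pc Φ.F a))
      (e : PLEquiv (frontier (Kc a)) (bdP (Pc Φ.F) (bc (F := Φ.F)) (mm hf1) a)),
      (∀ x ∈ Kc a, U.f x = Rr a (th (A a) (lam a) (z a) x)) ∧
      (∀ x ∈ Kc a, x ∈ frontier (Kc a) ↔
        U.f x ∈ bdP (Pc Φ.F) (bc (F := Φ.F)) (mm hf1) a) ∧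
      (∀ x ∈ frontier (Kc a), e.f x = U.f x) ∧
      (∀ y ∈ bdP (Pc Φ.F) (bc (F := Φ.F)) (mm hf1) a, e.g y = U.g y) ∧
      (∀ x ∈ frontier (Kc a),
        EqAt (ekS (gr Φ hLa hne hm) (bc (F := Φ.F)) κb (.top a) h.cmb.fam lv e) g0 x) ∧
      (∀ x ∈ frontier (Kc a), EqAt (sqs g0 bt (n + 1)) Gf x) ∧
      ∀ x ∈ frontier (Kc a), ∃ q, x ∈ K q ∧ K q ⊆ frontier (Kc a) ∧ IsClosed (K q))
    {C0 e S sg : ℝ} (hSC : S < C0)
    (hS : ∀ a ∈ X, ∀ y ∈ a.1.set, ∀ y' ∈ a.1.set,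
      ‖st (gr Φ hLa hne hm) κf (Rr a y) - st (gr Φ hLa hne hm) κf (Rr a y')‖ ≤ S * ‖y - y'‖)
    (hs0 : κf ≤ sg) (hs1 : sg < 1) (he1 : 3 * sg ≤ e) (he2 : κf / (1 - κf) < e)
    (hRr : ∀ a ∈ X, ∀ u ∈ interior a.1.set,
      Rr a ((1 - sg) • u + sg • (gr Φ hLa hne hm).b (.top a)) =
        (1 - sg) • u + sg • (gr Φ hLa hne hm).b (.top a))
    -- the tiny cores
    (tiny : ∀ a, a ∉ X → ∃ Th : PLEquiv (Kc a) (coreF (gr Φ hLa hne hm) κf (.top a) 0),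
      (∀ x ∈ Kc a, x ∈ frontier (Kc a) ↔ sl (gr Φ hLa hne hm) κf (Th.f x) (.top a) = 0) ∧
      ∀ x ∈ frontier (Kc a),
        gG (Tq (bc (F := Φ.F)) (mm hf1)) (merge hf1 Gf) x =
          cG (gr Φ hLa hne hm) κf Th.f x ∧
        gtop hm q0 (merge hf1 Gf) x = ctop (gr Φ hLa hne hm) κf (.top a) Th.f x ∧
        ∀ u ∈ (gr Φ hLa hne hm).cell (gtop hm q0 (merge hf1 Gf) x),
          gtr (co (Pc Φ.F) (bc (F := Φ.F)) (mm hf1)) (merge hf1 Gf) x u =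
            ctr (gr Φ hLa hne hm) κf Th.f Th.g x u)
    -- arcs and sheets
    (arcs : ∀ (G : E3 → E3) (Y : Tr0 Om (gr Φ hLa hne hm) G),
      OnMesh Y K Gf (Tq (bc (F := Φ.F)) (mm hf1)) (XM Om K) →
      Nonempty (Exact Y (fun _ => κf) (fun _ => 0) (Ktc (hfin := hf1) (Pf := Pc Φ.F) Kc) (XM Om K)) →
      ∀ q, cod (gr Φ hLa hne hm) q = 1 →
      IsBall 1 (Y.F q ∩ XM Om K)
        (Y.F q ∩ XM Om K ∩ ⋃ c : TopC (Cel (Pc Φ.F) (mm hf1)), Ktc (hfin := hf1) (Pf := Pc Φ.F) Kc c))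
    (sheets : ∀ (G : E3 → E3) (Y : Tr0 Om (gr Φ hLa hne hm) G),
      OnMesh Y K Gf (Tq (bc (F := Φ.F)) (mm hf1)) (XM Om K) →
      Nonempty (Exact Y (fun _ => κf) (fun _ => 0) (Ktc (hfin := hf1) (Pf := Pc Φ.F) Kc) (XM Om K)) →
      ∀ q, cod (gr Φ hLa hne hm) q = 2 →
        SheetData Y (Ktc (hfin := hf1) (Pf := Pc Φ.F) Kc) (XM Om K) q) :
    ∃ G : E3 → E3, FinG Φ Tl f J0 V X K (gG (Tq (bc (F := Φ.F)) (mm hf1)) (merge hf1 Gf)) Kc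
      (fun a x => st (gr Φ hLa hne hm) κf (Rr a (th (A a) (lam a) (z a) x))) G ∧
      GOut C0 Cs e Φ Tl f X J0 V ct A lam κw Lv G := by
  have hκf1 : 0 < κf ∧ κf < 1 := by
    rw [hκf]; exact Xr_537.kf_pos hκb (bet_pos hb0 (n + 1)) (bet_le hb0 hb2 (n + 1))
  obtain ⟨G, hG⟩ := fin_G hOm hLa hf hs hC hF H hm hex hne Xc hKJ hKc q0 hκf1 Rr (by
    intro a
    by_cases ha : a ∈ X
    · obtain ⟨U, e, hU1, hU2, he, hei, hb, hg, hmesh⟩ := core a ha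
      obtain ⟨Th, h1, h2, h3'⟩ := chart_R (foam Φ.bf hLa) (quads_box Φ.bf (by simp)) hne hm H q0
        lv_inj lv_lt lv_sur hκb hb0 hb2 n hκf (hKc a) U hU2 e he hei (fun x hx => by
          obtain ⟨q, k1, k2, k3⟩ := hmesh x hx
          exact ⟨q, k1, k2, k3, hex.ex (mem_univ q)⟩) hb hg
      exact ⟨Th, fun _ x hx => (h1 x hx).trans (hU1 x hx), h2, h3'⟩
    · obtain ⟨Th, h1, h2⟩ := tiny a ha
      exact ⟨Th, fun h' => absurd h' ha, h1, h2⟩) arcs sheets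
  refine ⟨G, hG, hG.expl, hG.adj, fun i hi B N hN hNN x hx => ?_, ?_⟩
  · obtain ⟨q, hq, hB, hLB⟩ := tile i hi
    obtain ⟨y0, hy0⟩ := hex.ex (mem_univ q)
    have key := Fl_835.outG_lip_st (T := Tl) (f := f) (i := i) (t := fun j : JJ Φ Lv => j.2.1)
      hLa hR h3 hL.many Xc h hrel (jj_inj) (jj_mem) (jj_card hfin) (hlev i hi) H (mem_univ q) hq
      hy0 hCk hLB hB (Gm := G) (fun y hy => hG.mesh q y (hq ▸ hy)) B N hN hNN x hx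
    filter_upwards [key] with y hy
    refine hy.trans ?_
    have := hCs ((fun K => B '' K) '' Cfg Tl i)
    gcongr
  · exact Cog_609.outG_core hC (gr Φ hLa hne hm) (q := fun a => .top a)
      (fun a _ => grid_cell_top _ _ hne hm a) hκf1
      (fun a ha x hx => hG.core a ha x (hKX a ha ▸ hx)) hSC hS hs0 hs1 he1 he2 hRr

end Crest.Agent.R096.Fin_147
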