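import Crest.Agent.R096.Shg7_334
import Crest.Agent.R096.Frn1_337
import Crest.Agent.R096.Fin7_147
import Crest.Agent.R096.Arc7_778

/-!
# R096 (row 96), ARR-SH (helper334), GIANT part 8: block (11) `sheets` of 147's `fin_st`, from 337's
seam `Front` and 662's final state `StO`

* `embP`, `cor2P` : 642's / 337's index type and the cores `Kcs`;
* `sto_l`  : the order function of `StO.ord` separates the sheets of a family;
* `Front.spheres`, `Front.sheets`.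
-/

set_option autoImplicit false
set_option linter.unusedSectionVars false
set_option linter.unusedVariables false

open Set Metric Topology Module

namespace Crest.Agent.R096.Shg_334

open Crest.Agent.R096.Ce_537 Crest.Agent.R096.Bd_416 Crest.Agent.R096.Shp_334
  Crest.Agent.R096.Seq_213 Crest.Agent.R096.St_147 Crest.Agent.R096.Lm_117
open Crest.Agent.R096.Msh_715 Crest.Agent.R096.Cpo_642

section emb

variable {E : Type} [NormedAddCommGroup E] [NormedSpace ℝ E] [FiniteDimensional ℝ E]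
variable {Om : Set E} {ι : Type} {T : Tiling Om ι} {κ 𝒢 : Type} {KK : κ → Set E} {Kc : 𝒢 → Set E}
variable [Nonempty T.Cell] {tl : 𝒢 → ι ⊕ κ}

/-- the cells outside all cores -/
lemma Cor2.out_iff (R : Cor2 T KK Kc tl) (h3 : finrank ℝ E = 3) (hH : ∀ c, CoreH T (KK c))
    (c : T.Cell) : OutK T Kc c ↔ OutK T KK c ∧ ∀ i, (∃ a, tl a = Sum.inl i) → c.set ≠ P (T.H i) := by
  constructor
  · intro hc
    refine ⟨R.outK hc, ?_⟩
    rintro i ⟨a, ha⟩ h4
    obtain ⟨q, h1, h2⟩ := hc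
    rw [h4] at h2
    have h5 := tile_sub h2
    subst h5
    exact h1 a (by rw [R.ct a i ha])
  · rintro ⟨hc, hn⟩
    rcases Nat.lt_or_ge c.dim 3 with h | h
    · exact R.out_of h3 hH (by omega) hc
    · have hle : c.dim ≤ finrank ℝ E := T.dim_le_finrank c.pt
      obtain ⟨i, hi, hI⟩ := Lm_117.tile_of_dim h3 (c := c) (by omega)
      have hout : ∀ k, ¬ P (T.H i) ⊆ KK k := by
        obtain ⟨i0, h1, h2⟩ := hc
        rw [hi] at h2
        rw [tile_sub h2]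
        exact h1
      rcases R.cases hout with h4 | ⟨a, ha⟩
      · exact ⟨i, h4, hi.le⟩
      · exact absurd hi (hn i ⟨a, ha⟩)

/-- **642's index type names the cells outside all cores** -/
theorem embP {α : Type*} (tS : α → ι) (R : Cor2 T KK Kc tl)
    (hR : ∀ i, (∃ a, tS a = i) ↔ ∃ a, tl a = Sum.inl i) (h3 : finrank ℝ E = 3)
    (hH : ∀ c, CoreH T (KK c)) :
    Emb T Kc (fun c : {c : QK (belK T KK) // pK T KK tS c} =>
      dimK (belK T KK) (fun c => c.1.dim) c.1) (celK T KK tS) where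
  inj := celK_inj tS
  le q q' := by
    have h1 : ∀ a b : {c : QK (belK T KK) // pK T KK tS c},
        a ≤ b ↔ celK T KK tS a ≤ celK T KK tS b := by
      intro a b
      rw [le_iff_lt_or_eq, le_iff_lt_or_eq, celK_lt tS, (celK_inj (T := T) (KK := KK) tS).eq_iff]
    exact h1 q q'
  dim := celK_dim tS
  out q := by
    have h1 := (celK_range (T := T) (KK := KK) tS (celK T KK tS q)).1 ⟨q, rfl⟩
    refine (R.out_iff h3 hH _).2 ⟨h1.1, fun i hi => ?_⟩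
    obtain ⟨a, rfl⟩ := (hR i).2 hi
    exact h1.2 a
  sur c hc := by
    obtain ⟨h1, h2⟩ := (R.out_iff h3 hH c).1 hc
    exact (celK_range tS c).2 ⟨h1, fun a => h2 _ ((hR _).1 ⟨a, rfl⟩)⟩

end emb

/-! ### the order function of the final state -/

section sto

open Crest.Agent.R096.Cp_298 Crest.Agent.R096.Gl_422 Crest.Agent.R096.SkB_662

variable {ι Φ W Q J C K : Type} {M : MeshC ι Φ W} [PartialOrder Q] {dim : Q → ℕ}
variable {L : LM M Q dim} {O : Ori M} {τ : Q → ZMod 2} {Rel : W → W → Prop} {V : Set W}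
  {Qd : Quads ι C K} {κ : C → ℕ} {fam : J → C} {s₀ : GSt M fam} {far₀ : J → Set W}
  {G : C → Set W} {Z : C → Set Q} {lam₀ : J → Q → ZMod 2} {v₀ v₁ : C → Q}
  {hfin : ∀ a, {j | fam j = a}.Finite} {kap : C → ℕ} {s : GSt M (fam' fam (Rk κ kap))}
  {far : Nm' fam (Rk κ kap) → Set W} {β : W → W} {lam : Nm' fam (Rk κ kap) → Q → ZMod 2}

/-- the order function of 662's `StO.ord` separates the sheets of a family -/
theorem sto_l (h : StO L O τ Rel V Qd κ s₀ far₀ Z lam₀ v₀ v₁ hfin kap s far β lam)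
    (y y' : Nm' fam (Rk κ kap)) (hne : y ≠ y') (hf : h.cmb.fam y = h.cmb.fam y') :
    -((Rk κ kap (fam y.1) * Gl_422.rk L s₀ lam₀ hfin y.1 + y.2 : ℕ) : ℝ) ≠
      -((Rk κ kap (fam y'.1) * Gl_422.rk L s₀ lam₀ hfin y'.1 + y'.2 : ℕ) : ℝ) := by
  intro e
  rw [← h.rk y, ← h.rk y', neg_inj, Nat.cast_inj] at e
  exact hne (h.lab.rk_inj _ hf e)

end sto

/-! ### the seam of 337 -/

section front

open Crest.Agent.R096.Brk1_582 Crest.Agent.R096.Brk2_582 Crest.Agent.R096.Brk3_582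
open Crest.Agent.R096.Brk5_582 Crest.Agent.R096.Bsp_628
open Crest.Agent.R096.Ac_117 Crest.Agent.R096.Frn_337
open Crest.Agent.R096.Cp_298 Crest.Agent.R096.Gm_298 Crest.Agent.R096.Gl_422
open Crest.Agent.R096.SkB_662
open Crest.Agent.R096.On_441 (Lf xlf)
open Crest.Agent.R096.Agl5_543 Crest.Agent.R096.Ori_543
open Crest.Agent.R096.Init_543 (JJ fr3)
open Crest.Agent.R096.SkC1_961 (E3 Hom3 FoamD Cfg th NN)
open Crest.Agent.R096.Mbf_337 (KJ sb)

variable {δ κ0 R c0 : ℝ} {La Om : Set E3} {ι : Type}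
variable {Φ : FoamD δ κ0 R c0 La} {T : Tiling Om ι} {X : Set Φ.F} {J0 Jt : Φ.F → Set ι}
  {ι3 : Type} {T3 : Tiling Om ι3} {KK : Ti X → Set E3} {c3 : ι → ι3}
variable {f : E3 → E3} {V : Φ.F → Set ι} {ct : Φ.F → ι}

lemma cti_of {c : Φ.F} (h : c ∈ X) : cti X c3 ct c = Sum.inl (c3 (ct c)) := by
  unfold cti
  rw [dif_neg (not_not.2 h)]

lemma cti_not {c : Φ.F} (h : c ∉ X) : cti X c3 ct c = Sum.inr ⟨c, h⟩ := by
  unfold cti
  rw [dif_pos h]

lemma kcs_of {c : Φ.F} (h : c ∈ X) : Kcs T KK ct c = P (T.H (ct c)) := by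
  unfold Kcs
  rw [dif_neg (not_not.2 h)]

lemma kcs_not {c : Φ.F} (h : c ∉ X) : Kcs T KK ct c = KK ⟨c, h⟩ := by
  unfold Kcs
  rw [dif_pos h]

lemma cti_inl {c : Φ.F} {i : ι3} (h : cti X c3 ct c = Sum.inl i) : c ∈ X ∧ c3 (ct c) = i := by
  by_cases ha : c ∈ X
  · rw [cti_of ha] at h
    exact ⟨ha, Sum.inl_injective h⟩
  · rw [cti_not ha] at h
    cases h

lemma cti_inr {c : Φ.F} {k : Ti X} (h : cti X c3 ct c = Sum.inr k) : k.1 = c := by
  by_cases ha : c ∈ X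
  · rw [cti_of ha] at h
    cases h
  · rw [cti_not ha] at h
    exact congrArg Subtype.val (Sum.inr_injective h).symm

/-- **the cores of the placement** -/
theorem cor2P (keep : ∀ c ∈ X, P (T3.H (c3 (ct c))) = P (T.H (ct c)))
    (hdisA : ∀ a a', a ≠ a' → Disjoint (Kcs T KK ct a) (Kcs T KK ct a')) :
    Cor2 T3 KK (Kcs T KK ct) (cti X c3 ct) where
  inj := by
    intro a a' h
    by_cases ha : a ∈ X
    · rw [cti_of ha] at h
      obtain ⟨ha', hct⟩ := cti_inl h.symm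
      by_contra hne
      obtain ⟨z, hz⟩ := T3.ne (c3 (ct a))
      have hz' := I_sub_P _ hz
      have hd := hdisA a a' hne
      rw [kcs_of ha, kcs_of ha', ← keep a ha, ← keep a' ha', hct] at hd
      exact Set.disjoint_left.1 hd hz' hz'
    · rw [cti_not ha] at h
      exact cti_inr h.symm
  sur k := ⟨k.1, cti_not k.2⟩
  kk a k h := by
    obtain ⟨b, hb⟩ := k
    have h1 : b = a := cti_inr h
    subst h1
    exact kcs_not hb
  ct a i h := by
    obtain ⟨ha, rfl⟩ := cti_inl h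
    rw [kcs_of ha, keep a ha]
  dis := hdisA

lemma mem_tlX (i : ι3) : (∃ a, Frn_337.tlX X c3 ct a = i) ↔ ∃ a, cti X c3 ct a = Sum.inl i := by
  constructor
  · rintro ⟨⟨a, ha⟩, rfl⟩
    exact ⟨a, cti_of ha⟩
  · rintro ⟨a, ha⟩
    obtain ⟨h1, h2⟩ := cti_inl ha
    exact ⟨⟨a, h1⟩, h2⟩

variable [Nonempty T3.Cell] {hH : ∀ k, CoreH T3 (KK k)}
    {hdis : ∀ k k', k ≠ k' → Disjoint (KK k) (KK k')} {hne : ∃ c, OutK T3 KK c}
    {L : Φ.F → Finset ℝ} {Qd : Quads (ι3 ⊕ Ti X) Φ.F (Init_543.QK (Pc Φ.F))}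
    {s₀ : GSt (mK fr3 hH hdis) (fun j : JJ Φ L => j.1)} {far₀ : JJ Φ L → Set E3}
    {Gc : Φ.F → Set E3} {Zc : Φ.F → Set (QK (belK T3 KK))}
    {lam₀ : JJ Φ L → QK (belK T3 KK) → ZMod 2} {v₀ v₁ : Φ.F → QK (belK T3 KK)}
    {κ : Φ.F → ℕ} {hfin : ∀ a, {j : JJ Φ L | j.1 = a}.Finite} {kap : Φ.F → ℕ}
    {s : GSt (mK fr3 hH hdis) (fam' (fun j : JJ Φ L => j.1) (Rk κ kap))}
    {far : Nm' (fun j : JJ Φ L => j.1) (Rk κ kap) → Set E3} {β : E3 → E3}
    {lam : Nm' (fun j : JJ Φ L => j.1) (Rk κ kap) →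
      {c : QK (belK T3 KK) // pO T3 KK c3 ct c} → ZMod 2}

/-- **THE SPHERES OF THE SHEETS OF THE FINAL STATE** -/
theorem front_spheres
    (h : Front T f J0 Jt V ct c3 hH hdis hne Qd s₀ far₀ Gc Zc lam₀ v₀ v₁)
    (ball : ∀ k, IsBall 3 (KK k) (frontier (KK k)))
    (keep : ∀ c ∈ X, P (T3.H (c3 (ct c))) = P (T.H (ct c)))
    (hdisA : ∀ a a', a ≠ a' → Disjoint (Kcs T KK ct a) (Kcs T KK ct a')) (hOm : IsOpen Om)
    (hO : StO (Lp c3 ct hH hdis hne) (oriK fr3 hH hdis) (fun c => tauK T3 KK c.1) (RelM T3)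
      (lmK fr3 hH hdis hne).W1 Qd κ s₀ far₀ (fun c => {v | v.1 ∈ Zc c})
      (fun j v => lam₀ j v.1) (fun c => sv (pO T3 KK c3 ct) (pO_ne hne) (v₀ c))
      (fun c => sv (pO T3 KK c3 ct) (pO_ne hne) (v₁ c)) hfin kap s far β lam)
    {Gf : Gd E3 (Nm' (fun j : JJ Φ L => j.1) (Rk κ kap))} {Pp : ∀ q, hO.cmb.I q → Set E3}
    {cc : ∀ q, hO.cmb.I q → E3 → ℝ}
    (H : Inv hO.cmb (fun q => setK T3 KK q.1) univ Gf Pp cc)
    (hB : ∀ j, Bls hO.cmb (fun q => setK T3 KK q.1) cc j)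
    (j : Nm' (fun j : JJ Φ L => j.1) (Rk κ kap)) :
    ∃ S : Set E3, Nonempty (PLEquiv (sph 3) S) ∧ S ⊆ Om ∧
      ∀ z ∈ Om \ ⋃ a, interior (Kcs T KK ct a), (z ∈ S ↔ Gf.G j z = 1/2) := by
  have R := cor2P (T := T) (KK := KK) (c3 := c3) (ct := ct) keep hdisA
  have V := embP (Frn_337.tlX X c3 ct) R mem_tlX fr3 hH
  obtain ⟨v, hv⟩ := pO_ne (c3 := c3) (ct := ct) hne
  refine V.sheetK fr3 hH hdis (celK_set _) R (Lp c3 ct hH hdis hne) (fun F => rfl) ⟨⟨v, hv⟩⟩ hOm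
    ball hO.lfs (Lf lam) (xlf hO.lab.lab) H (hB j) (fun w hw _ => ?_) (fun a => ?_) (hO.inv.h1 j)
    (hO.inv.conn j)
  · exact sb_W1.2 (hO.PV hw)
  · refine hO.one h.inv (D := {F | cti X c3 ct a ∈ (mK fr3 hH hdis).side F}) ?_ (h.one a j.1)
    intro F hF k hin
    exact h.actK k a (hin _ hF)

section fin

open Crest.Agent.R096.Mg_441 Crest.Agent.R096.Xp_537 Crest.Agent.R096.Grd_714
open Crest.Agent.R096.Ar_241 (cod Tr0 SheetData Exact TopC)
open Crest.Agent.R096.Fin_147 (Xout XM Ktc gr)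

/-- **BLOCK (11): the hypothesis `sheets` of 147's `fin_st` / `fin_stG`** -/
theorem front_sheets
    (h : Front T f J0 Jt V ct c3 hH hdis hne Qd s₀ far₀ Gc Zc lam₀ v₀ v₁)
    (ball : ∀ k, IsBall 3 (KK k) (frontier (KK k)))
    (keep : ∀ c ∈ X, P (T3.H (c3 (ct c))) = P (T.H (ct c)))
    (hdisA : ∀ a a', a ≠ a' → Disjoint (Kcs T KK ct a) (Kcs T KK ct a')) (hOm : IsOpen Om)
    (hO : StO (Lp c3 ct hH hdis hne) (oriK fr3 hH hdis) (fun c => tauK T3 KK c.1) (RelM T3)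
      (lmK fr3 hH hdis hne).W1 Qd κ s₀ far₀ (fun c => {v | v.1 ∈ Zc c})
      (fun j v => lam₀ j v.1) (fun c => sv (pO T3 KK c3 ct) (pO_ne hne) (v₀ c))
      (fun c => sv (pO T3 KK c3 ct) (pO_ne hne) (v₁ c)) hfin kap s far β lam)
    {Gf : Gd E3 (Nm' (fun j : JJ Φ L => j.1) (Rk κ kap))} {Pp : ∀ q, hO.cmb.I q → Set E3}
    {cc : ∀ q, hO.cmb.I q → E3 → ℝ}
    (H : Inv hO.cmb (fun q => setK T3 KK q.1) univ Gf Pp cc)
    (hB : ∀ j, Bls hO.cmb (fun q => setK T3 KK q.1) cc j)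
    (Xc : Cplx (Om ∩ Xout (Kcs T KK ct)) {c : QK (belK T3 KK) // pO T3 KK c3 ct c}
      (fun c => dimK (belK T3 KK) (fun c => c.1.dim) c.1) (fun q => setK T3 KK q.1))
    (hLa : IsOpen La) {hf1 : ∀ a, {j | hO.cmb.fam j = a}.Finite}
    (hm : ∀ a, 0 < Mg_441.mm hf1 a) (hnp : ∀ c : Φ.F, (Pc Φ.F c).Nonempty)
    {κf θf : TopC (Cel (Pc Φ.F) (Mg_441.mm hf1)) → ℝ} (G : E3 → E3)
    (Y : Tr0 Om (gr Φ hLa hnp hm) G)
    (hM : OnMesh Y (fun q : {c : QK (belK T3 KK) // pO T3 KK c3 ct c} => setK T3 KK q.1) Gf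
      (Tq (bc (F := Φ.F)) (Mg_441.mm hf1)) (XM Om (fun q : {c : QK (belK T3 KK) //
        pO T3 KK c3 ct c} => setK T3 KK q.1)))
    (hX : Nonempty (Exact Y κf θf (Ktc (hfin := hf1) (Pf := Pc Φ.F) (Kcs T KK ct))
      (XM Om (fun q : {c : QK (belK T3 KK) // pO T3 KK c3 ct c} => setK T3 KK q.1)))) :
    ∀ q, cod (gr Φ hLa hnp hm) q = 2 →
      SheetData Y (Ktc (hfin := hf1) (Pf := Pc Φ.F) (Kcs T KK ct))
        (XM Om (fun q : {c : QK (belK T3 KK) // pO T3 KK c3 ct c} => setK T3 KK q.1)) q :=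
  sheets_fin fr3 hLa H Xc (fun j => front_spheres h ball keep hdisA hOm hO H hB j) hO.ord
    (sto_l hO) (gridOK _ _ hnp hm) G Y hM hX

end fin

end front

end Crest.Agent.R096.Shg_334
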