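import Crest.Agent.R096.At13_241
import Crest.Agent.R096.Shg8_334
import Crest.Agent.R096.Mi6_117

/-!
# R096 (row 96), ARR-INST part 14 (helper241): `arcs` and `sq` over helper337's seam `Front`

* `front_qpos`, `front_qst` : 241's `QPos`, `QSt` over `Lp`;
* **`front_arcs`** : the literal hypothesis `arcs` of 147's `fin_st` / `fin_stG`;
* **`front_sq`** : one point of the fibre of a square on the boundary of a core.
-/

set_option autoImplicit false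
set_option linter.unusedSectionVars false
set_option linter.unusedVariables false
set_option linter.style.longLine false

open Set Metric Topology Module

namespace Crest.Agent.R096.At_241

open Crest.Agent.R096.Ce_537 Crest.Agent.R096.Bd_416 Crest.Agent.R096.Mg_441
  Crest.Agent.R096.Xp_537 Crest.Agent.R096.Grd_714
open Crest.Agent.R096.St_147 Crest.Agent.R096.Seq_213 Crest.Agent.R096.Lm_117
open Crest.Agent.R096.Msh_715 Crest.Agent.R096.Cpo_642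
open Crest.Agent.R096.Brk1_582 Crest.Agent.R096.Brk2_582 Crest.Agent.R096.Brk3_582
open Crest.Agent.R096.Brk5_582 Crest.Agent.R096.Bsp_628
open Crest.Agent.R096.Ac_117 Crest.Agent.R096.Frn_337
open Crest.Agent.R096.Cp_298 Crest.Agent.R096.Gm_298 Crest.Agent.R096.Gl_422
open Crest.Agent.R096.SkB_662 Crest.Agent.R096.Shg_334
open Crest.Agent.R096.On_441 (Lf xlf)
open Crest.Agent.R096.Agl5_543 Crest.Agent.R096.Ori_543
open Crest.Agent.R096.Init_543 (JJ fr3)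
open Crest.Agent.R096.SkC1_961 (E3 Hom3 FoamD Cfg th NN)
open Crest.Agent.R096.Mbf_337 (KJ sb)
open Crest.Agent.R096.Ar_241 (cod Tr0 SheetData Exact TopC)
open Crest.Agent.R096.Fin_147 (Xout XM Ktc gr)
open Crest.Agent.R096.Shp_334 (OnMesh)

variable {δ κ0 R c0 : ℝ} {La Om : Set E3} {ι : Type}
variable {Φ : FoamD δ κ0 R c0 La} {T : Tiling Om ι} {X : Set Φ.F} {J0 Jt : Φ.F → Set ι}
  {ι3 : Type} {T3 : Tiling Om ι3} {KK : Ti X → Set E3} {c3 : ι → ι3}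
variable {f : E3 → E3} {V : Φ.F → Set ι} {ct : Φ.F → ι}
variable [Nonempty T3.Cell] {hH : ∀ k, CoreH T3 (KK k)}
    {hdis : ∀ k k', k ≠ k' → Disjoint (KK k) (KK k')} {hne : ∃ c, OutK T3 KK c}
    {L : Φ.F → Finset ℝ} {Qd : Quads (ι3 ⊕ Ti X) Φ.F (Init_543.QK (Pc Φ.F))}
    {s₀ : GSt (mK fr3 hH hdis) (fun j : JJ Φ L => j.1)} {far₀ : JJ Φ L → Set E3}
    {Gc : Φ.F → Set E3} {Zc : Φ.F → Set (QK (belK T3 KK))}
    {lam₀ : JJ Φ L → QK (belK T3 KK) → ZMod 2} {v₀ v₁ : Φ.F → QK (belK T3 KK)}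
    {κ : Φ.F → ℕ} {hfin : ∀ a, {j : JJ Φ L | j.1 = a}.Finite} {kap : Φ.F → ℕ}
    {s : GSt (mK fr3 hH hdis) (fam' (fun j : JJ Φ L => j.1) (Rk κ kap))}
    {far : Nm' (fun j : JJ Φ L => j.1) (Rk κ kap) → Set E3} {β : E3 → E3}
    {lam : Nm' (fun j : JJ Φ L => j.1) (Rk κ kap) →
      {c : QK (belK T3 KK) // pO T3 KK c3 ct c} → ZMod 2}

/-- a point on the closure of a cell lies in it -/
theorem mem_setK_of_In {q : {c : QK (belK T3 KK) // pO T3 KK c3 ct c}} {w : E3}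
    (hw : w ∈ (Lp c3 ct hH hdis hne).toSk.In q) : w ∈ setK T3 KK q.1 := by
  obtain ⟨h1, h2⟩ := hw
  have hO := Mi_117.onT_p (T3 := T3) (KK := KK) (c3 := c3) (ct := ct) (hH := hH) (hdis := hdis)
    (hne := hne)
  have h3 := hO.mono _ _ h2
  have h4 := hO.ed w h1
  rw [celK_set (Frn_337.tlX X c3 ct) q]
  refine Tiling.Cell.le_def.1 h3 ?_
  rw [h4]
  exact T3.self_mem_cc w

/-- **the data of the squares over `Front`** -/
theorem front_quads
    (h : Front T f J0 Jt V ct c3 hH hdis hne Qd s₀ far₀ Gc Zc lam₀ v₀ v₁)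
    (actO : ∀ k i3, Sum.inl i3 ∈ Qd.Act k → ∀ k', ¬ P (T3.H i3) ⊆ KK k')
    (keep : ∀ c ∈ X, P (T3.H (c3 (ct c))) = P (T.H (ct c)))
    (hdisA : ∀ a a', a ≠ a' → Disjoint (Kcs T KK ct a) (Kcs T KK ct a')) :
    ∃ (y : {c : QK (belK T3 KK) // pO T3 KK c3 ct c} → Φ.F → ℝ)
      (tc : ι3 ⊕ Ti X → {c : QK (belK T3 KK) // pO T3 KK c3 ct c}) (ord : ι3 ⊕ Ti X → Prop),
      K4In (Lp c3 ct hH hdis hne) Qd s₀ (fun c => {v | v.1 ∈ Zc c})
        (fun c => sv (pO T3 KK c3 ct) (pO_ne hne) (v₀ c)) (Pc Φ.F) univ y ∧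
      QPos (Lp c3 ct hH hdis hne) Qd (Pc Φ.F) y tc ord (fun k => k.Z) (cti X c3 ct) ∧
      QSt (Lp c3 ct hH hdis hne) Qd s₀ far₀ y tc ord (fun k => k.Z) (cti X c3 ct) := by
  have R := cor2P (T := T) (KK := KK) (c3 := c3) (ct := ct) keep hdisA
  have V := Shg_334.embP (Frn_337.tlX X c3 ct) R mem_tlX fr3 hH
  obtain ⟨v, hv⟩ := pO_ne (c3 := c3) (ct := ct) hne
  have hne' : Nonempty {c : QK (belK T3 KK) // pO T3 KK c3 ct c} := ⟨⟨v, hv⟩⟩
  obtain ⟨iq, h1, h2⟩ := h.k4'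
  have h3 : ∀ q, (P (T.H (iq q))).Nonempty := fun q => (setK_ne q.2).mono (h1 q).2
  choose xq hxq using h3
  have hK := h2 xq hxq
  have G := tg_of_emb fr3 hH hdis V R (Lp c3 ct hH hdis hne) (fun F => rfl) hne'
  -- the set of the 3-cell of an ordinary tile
  have hset : ∀ i3, (∀ a, ¬ P (T3.H i3) ⊆ Kcs T KK ct a) →
      setK T3 KK (tcE (κ := Ti X) V hne' (Sum.inl i3)).1 = P (T3.H i3) := by
    intro i3 hi3
    rw [celK_set (Frn_337.tlX X c3 ct), vl_tcE V hne' hi3, tcell_set]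
  have hsub : ∀ i3, (∀ a, ¬ P (T3.H i3) ⊆ Kcs T KK ct a) →
      P (T3.H i3) ⊆ P (T.H (iq (tcE (κ := Ti X) V hne' (Sum.inl i3)))) := by
    intro i3 hi3
    have := (h1 (tcE (κ := Ti X) V hne' (Sum.inl i3))).2
    rwa [hset i3 hi3] at this
  have aord : ∀ k, ∀ τ ∈ Qd.Act k, ordX T3 (Ti X) (Kcs T KK ct) τ := by
    rintro k (i3 | k') hτ
    · refine ⟨i3, rfl, fun a ha => ?_⟩
      by_cases haX : a ∈ X
      · rw [kcs_of haX, ← keep a haX] at ha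
        have h4 := tile_sub ha
        refine h.actK k a ?_
        rw [cti_of haX, ← h4]
        exact hτ
      · rw [kcs_not haX] at ha
        exact actO k i3 hτ _ ha
    · refine absurd hτ ?_
      have h4 := h.actK k k'.1
      rwa [cti_not k'.2] at h4
  refine ⟨fun q => sb Φ (Φ.Psi (f (xq q))), tcE (κ := Ti X) V hne', ordX T3 (Ti X) (Kcs T KK ct), hK,
    QPos.of_tg G h.qin aord ?_ ?_, ⟨?_, ?_, ?_⟩⟩
  · intro k τ hτ a ha
    obtain ⟨i3, rfl, hi3⟩ := aord k τ hτ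
    exact (h.actP k i3 hτ _ (hsub i3 hi3) _ (hxq _)).1 a ha
  · intro k τ hτ a ha
    obtain ⟨i3, rfl, hi3⟩ := aord k τ hτ
    exact (h.actP k i3 hτ _ (hsub i3 hi3) _ (hxq _)).2 a ha
  · rintro k _ ⟨i3, rfl, hi3⟩ w w' hw hwt hw' hwt' hf hf' hz
    have hi3' : ∀ k', ¬ P (T3.H i3) ⊆ KK k' := by
      intro k' hk'
      refine hi3 k'.1 ?_
      rw [kcs_not k'.2]; exact hk'
    refine h.actI k i3 hi3' _ (h1 _).1 (hsub i3 hi3) _ (hxq _) (fun a ha => ?_) hz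
    obtain ⟨b, rfl⟩ := (h.qin k a).2 ha
    cases b with
    | true =>
      refine ⟨w, hw, hf, ?_⟩
      have := mem_setK_of_In hwt
      rwa [hset i3 hi3] at this
    | false =>
      refine ⟨w', hw', hf', ?_⟩
      have := mem_setK_of_In hwt'
      rwa [hset i3 hi3] at this
  · intro k c hc j j' hj hj'
    refine h.two k c hc j j' ((h.qin k _).1 ⟨true, hj.symm⟩) ((h.qin k _).1 ⟨false, hj'.symm⟩) ?_
    rw [hj, hj']
    exact Qd.ne k
  · intro k c0 c1 hk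
    have h4 := h.ni k
    have hk' : k.Z = {c0, c1} := hk
    rw [hk', Set.image_pair] at h4
    exact h4

section fin

variable (h : Front T f J0 Jt V ct c3 hH hdis hne Qd s₀ far₀ Gc Zc lam₀ v₀ v₁)
    (actO : ∀ k i3, Sum.inl i3 ∈ Qd.Act k → ∀ k', ¬ P (T3.H i3) ⊆ KK k')
    (keep : ∀ c ∈ X, P (T3.H (c3 (ct c))) = P (T.H (ct c)))
    (hdisA : ∀ a a', a ≠ a' → Disjoint (Kcs T KK ct a) (Kcs T KK ct a'))
    (hκ : ∀ m, {c | κ c ≤ m}.Finite)
    (hO : StO (Lp c3 ct hH hdis hne) (oriK fr3 hH hdis) (fun c => tauK T3 KK c.1) (RelM T3)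
      (lmK fr3 hH hdis hne).W1 Qd κ s₀ far₀ (fun c => {v | v.1 ∈ Zc c})
      (fun j v => lam₀ j v.1) (fun c => sv (pO T3 KK c3 ct) (pO_ne hne) (v₀ c))
      (fun c => sv (pO T3 KK c3 ct) (pO_ne hne) (v₁ c)) hfin kap s far β lam)
    {Gf : Gd E3 (Nm' (fun j : JJ Φ L => j.1) (Rk κ kap))} {Pp : ∀ q, hO.cmb.I q → Set E3}
    {cc : ∀ q, hO.cmb.I q → E3 → ℝ}
    (H : Inv hO.cmb (fun q => setK T3 KK q.1) univ Gf Pp cc)
    (Xc : Cplx (Om ∩ Xout (Kcs T KK ct)) {c : QK (belK T3 KK) // pO T3 KK c3 ct c}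
      (fun c => dimK (belK T3 KK) (fun c => c.1.dim) c.1) (fun q => setK T3 KK q.1))
    {Rb : Set {c : QK (belK T3 KK) // pO T3 KK c3 ct c}}
    (hR : ∀ q ∈ Rb, dimK (belK T3 KK) (fun c => c.1.dim) q.1 ≤ 2)
    (MG : Mi_117.MGeo hO.lfs (Lf lam) (xlf hO.lab.lab) (fun q => setK T3 KK q.1) Rb cc)
    (hLa : IsOpen La) {hf1 : ∀ a, {j | hO.cmb.fam j = a}.Finite}
    (hm : ∀ a, 0 < Mg_441.mm hf1 a) (hnp : ∀ c : Φ.F, (Pc Φ.F c).Nonempty)

include h actO keep hdisA hκ H Xc hR MG hLa hm hnp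

/-- **BLOCK (10): the literal hypothesis `arcs` of 147's `fin_st` / `fin_stG`** -/
theorem front_arcs (κf : ℝ) :
    ∀ (G : E3 → E3) (Y : Tr0 Om (gr Φ hLa hnp hm) G),
      OnMesh Y (fun q : {c : QK (belK T3 KK) // pO T3 KK c3 ct c} => setK T3 KK q.1) Gf
        (Tq (bc (F := Φ.F)) (Mg_441.mm hf1)) (XM Om (fun q : {c : QK (belK T3 KK) //
          pO T3 KK c3 ct c} => setK T3 KK q.1)) →
      Nonempty (Exact Y (fun _ => κf) (fun _ => 0)
        (Ktc (hfin := hf1) (Pf := Pc Φ.F) (Kcs T KK ct))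
        (XM Om (fun q : {c : QK (belK T3 KK) // pO T3 KK c3 ct c} => setK T3 KK q.1))) →
      ∀ q, cod (gr Φ hLa hnp hm) q = 1 →
      IsBall 1 (Y.F q ∩ XM Om (fun q : {c : QK (belK T3 KK) // pO T3 KK c3 ct c} => setK T3 KK q.1))
        (Y.F q ∩ XM Om (fun q : {c : QK (belK T3 KK) // pO T3 KK c3 ct c} => setK T3 KK q.1) ∩
          ⋃ c : TopC (Cel (Pc Φ.F) (Mg_441.mm hf1)),
            Ktc (hfin := hf1) (Pf := Pc Φ.F) (Kcs T KK ct) c) := by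
  obtain ⟨y, tc, ord, hK, Gq, Gs⟩ := front_quads h actO keep hdisA
  have R := cor2P (T := T) (KK := KK) (c3 := c3) (ct := ct) keep hdisA
  refine arcs_lit hLa hO (h.stI hκ) hK (fun _ _ => mem_univ _) Gq Gs
    (GeoIn.of_mgeo Gq H Xc hR MG) hm hnp (fun c F' hc => ?_) κf
  have h1 := (R.side fr3 hH hdis c F').1 hc
  exact h1.trans (R.coreH fr3 hH c).cpt.isClosed.frontier_subset

/-- **one point of the fibre of a square on the boundary of a core** -/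
theorem front_sq (c : Φ.F) (q : Gx (Pc Φ.F) (Mg_441.mm hf1)) (hq : q.free.ncard = 2)
    (hc : q.hi c = 0) :
    ∃ x, {z | z ∈ Sc (Lp c3 ct hH hdis hne) (cti X c3 ct) (fun q => setK T3 KK q.1) c ∧
      gG (Tq (bc (F := Φ.F)) (Mg_441.mm hf1)) (merge hf1 Gf) z =
        (gr Φ hLa hnp hm).b (.gr q)} = {x} := by
  obtain ⟨y, tc, ord, hK, Gq, Gs⟩ := front_quads h actO keep hdisA
  obtain ⟨ℓ, hOr, hℓ⟩ := exists_ord hO
  exact sq_sto hO (h.stI hκ) hK (fun _ _ => mem_univ _) Gq Gs (GeoIn.of_mgeo Gq H Xc hR MG)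
    (Gia_537.foam4 Φ hLa) hm hℓ (gridOK (Gia_537.foam4 Φ hLa) (Gia_537.quads4 Φ) hnp hm) hOr c q hq hc

end fin

end Crest.Agent.R096.At_241
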