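import Crest.Agent.R096.At12_241
import Crest.Agent.R096.Frn1_337

/-!
# R096 (row 96), DOORS_final (helper241): the quads over the layered tiling, the clauses `qin`, `actK`,
`actO`, `actP`, `actI` of 337's `Front`

`liftQ Qd T T3 KK` : a tile of `T3` outside the giants is active iff its tile of `T` is.
-/

set_option autoImplicit false
set_option linter.unusedSectionVars false
set_option linter.unusedVariables false
set_option linter.style.longLine false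

open Set Metric Topology Module

namespace Crest.Agent.R096.At_241

open Crest.Agent.R096.St_147 Crest.Agent.R096.Seq_213 Crest.Agent.R096.Lm_117
open Crest.Agent.R096.Msh_715

section gen

variable {E : Type} [NormedAddCommGroup E] [NormedSpace ℝ E] [FiniteDimensional ℝ E]
variable {Om : Set E} {ι ι3 κ C K : Type}

/-- **the quads lifted to a refinement with giants** -/
noncomputable def liftQ (Qd : Quads ι C K) (T : Tiling Om ι) (T3 : Tiling Om ι3)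
    (KK : κ → Set E) : Quads (ι3 ⊕ κ) C K where
  pr := Qd.pr
  ne := Qd.ne
  Act := fun k => {τ | ∃ i3, τ = Sum.inl i3 ∧ (∀ k', ¬ P (T3.H i3) ⊆ KK k') ∧
    ∃ i ∈ Qd.Act k, P (T3.H i3) ⊆ P (T.H i)}
  fin := fun k => by
    have h1 : (⋃ i ∈ Qd.Act k, {i3 : ι3 | P (T3.H i3) ⊆ P (T.H i)}).Finite := by
      refine (Qd.fin k).biUnion fun i _ => ?_
      refine (T3.finite_tiles (T.cpt i) (T.sub i)).subset ?_
      intro i3 hi3
      obtain ⟨z, hz⟩ := T3.ne i3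
      exact ⟨z, I_sub_P _ hz, hi3 (I_sub_P _ hz)⟩
    refine (h1.image Sum.inl).subset ?_
    rintro _ ⟨i3, rfl, -, i, hi, h2⟩
    exact ⟨i3, mem_biUnion hi h2, rfl⟩
  disj := fun k l hne => by
    rw [Set.disjoint_left]
    rintro _ ⟨i3, rfl, -, i, hi, h2⟩ ⟨i3', h3, -, i', hi', h4⟩
    obtain rfl := Sum.inl_injective h3
    obtain rfl := tile_unique h2 h4
    exact Set.disjoint_left.1 (Qd.disj k l hne) hi hi'
  finK := Qd.finK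

variable {Qd : Quads ι C K} {T : Tiling Om ι} {T3 : Tiling Om ι3} {KK : κ → Set E}

theorem mem_liftQ {k : K} {i3 : ι3} : Sum.inl i3 ∈ (liftQ Qd T T3 KK).Act k ↔
    (∀ k', ¬ P (T3.H i3) ⊆ KK k') ∧ ∃ i ∈ Qd.Act k, P (T3.H i3) ⊆ P (T.H i) := by
  constructor
  · rintro ⟨i3', h, h1, h2⟩
    obtain rfl := Sum.inl_injective h
    exact ⟨h1, h2⟩
  · rintro ⟨h1, h2⟩
    exact ⟨i3, rfl, h1, h2⟩

/-- for a tile inside the tile `i` -/
theorem mem_liftQ' {k : K} {i3 : ι3} {i : ι} (hi : P (T3.H i3) ⊆ P (T.H i)) :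
    Sum.inl i3 ∈ (liftQ Qd T T3 KK).Act k ↔ (∀ k', ¬ P (T3.H i3) ⊆ KK k') ∧ i ∈ Qd.Act k := by
  rw [mem_liftQ]
  refine and_congr_right fun _ => ⟨?_, fun h => ⟨i, h, hi⟩⟩
  rintro ⟨i', h1, h2⟩
  rwa [tile_unique hi h2]

theorem inr_liftQ {k : K} {k' : κ} : Sum.inr k' ∉ (liftQ Qd T T3 KK).Act k := by
  rintro ⟨i3, h, -⟩
  cases h

theorem in_liftQ {k : K} {c : C} : (liftQ Qd T T3 KK).In k c ↔ Qd.In k c := Iff.rfl

theorem pr_liftQ : (liftQ Qd T T3 KK).pr = Qd.pr := rfl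

end gen

section mach

open Crest.Agent.R096.Brk1_582 Crest.Agent.R096.Brk2_582 Crest.Agent.R096.Brk3_582
open Crest.Agent.R096.Brk5_582 Crest.Agent.R096.Bsp_628
open Crest.Agent.R096.Init_543 Crest.Agent.R096.Coh_184 Crest.Agent.R096.Frn_337
open Crest.Agent.R096.SkC1_961 (E3 Hom3 FoamD Cfg th NN)

variable {δ κ0 R c0 : ℝ} {La Om : Set E3} {ι ι3 : Type} {Φ : FoamD δ κ0 R c0 La}
  {T : Tiling Om ι} {T3 : Tiling Om ι3} {f g : E3 → E3} {J0 : Φ.F → Set ι} {ct' : Φ.F → ι}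
  {r₀ : Φ.F → ℝ} {X : Set Φ.F} {KK : Ti X → Set E3} {c3 : ι → ι3} {ct : Φ.F → ι}
  {ε s₁ : ℝ} (hLa : IsOpen La) (hR : InitR Φ T f g J0 ct' r₀)
  (hM : Mesh0 T (Pc Φ.F) (bc (F := Φ.F)) (RF Φ r₀) f (KorJ Φ J0) ε) (hε : ε < s₁) (hε1 : ε < 1)

/-- **the quads of the machine over the layered tiling** -/
noncomputable abbrev qd3 (T3 : Tiling Om ι3) (KK : Ti X → Set E3) :
    Quads (ι3 ⊕ Ti X) Φ.F (QK (Pc Φ.F)) := liftQ (qdF hLa hR hM hε hε1) T T3 KK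

/-- clause `qin` of `Front` -/
theorem qd3_qin : ∀ k c, (qd3 hLa hR hM hε hε1 T3 KK).In k c ↔ c ∈ k.B := fun _ _ =>
  qdF_in hLa hR hM hε hε1

/-- clause `actO` -/
theorem qd3_actO : ∀ k i3, Sum.inl i3 ∈ (qd3 hLa hR hM hε hε1 T3 KK).Act k →
    ∀ k', ¬ P (T3.H i3) ⊆ KK k' := fun _ _ h => (mem_liftQ.1 h).1

/-- clause `actK` -/
theorem qd3_actK (keep : ∀ c ∈ X, P (T3.H (c3 (ct c))) = P (T.H (ct c)))
    (hct : ∀ c ∈ X, ct c ∈ J0 c) : ∀ k c, cti X c3 ct c ∉ (qd3 hLa hR hM hε hε1 T3 KK).Act k := by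
  intro k c
  by_cases hc : c ∈ X
  · have e : cti X c3 ct c = Sum.inl (c3 (ct c)) := dif_neg (not_not.2 hc)
    rw [e]
    intro h
    have h1 := ((mem_liftQ' (keep c hc).subset).1 h).2
    exact h1.1 ⟨c, hct c hc⟩
  · have e : cti X c3 ct c = Sum.inr ⟨c, hc⟩ := dif_pos hc
    rw [e]
    exact inr_liftQ

/-- clause `actP` -/
theorem qd3_actP : ∀ k i3, Sum.inl i3 ∈ (qd3 hLa hR hM hε hε1 T3 KK).Act k → ∀ i,
    P (T3.H i3) ⊆ P (T.H i) → ∀ x ∈ P (T.H i),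
    (∀ a ∈ k.B, Φ.lev a (f x) ∈ Ioo (0:ℝ) 1) ∧ ∀ a ∈ k.Z, Φ.lev a (f x) = 0 :=
  actV_of hLa hR hM hε hε1 fun k i3 h => by
    obtain ⟨i, h1, h2⟩ := (mem_liftQ.1 h).2
    exact ⟨i, h2, h1⟩

/-- **(B)** : every point of the state on a cell outside the giants is near the middle of its family -/
def PosB (Φ : FoamD δ κ0 R c0 La) {L : Φ.F → Finset ℝ} {X : Set Φ.F} (T : Tiling Om ι) (T3 : Tiling Om ι3)
    (f : E3 → E3) (J0 : Φ.F → Set ι) (KK : Ti X → Set E3) (s' : ℝ) (P₀ : Set E3)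
    (lab : E3 → JJ Φ L) : Prop :=
  ∀ w ∈ P₀, ∀ i3, (∀ k', ¬ P (T3.H i3) ⊆ KK k') → w ∈ P (T3.H i3) → ∀ i, (∀ c, i ∉ J0 c) →
    P (T3.H i3) ⊆ P (T.H i) → ∃ x ∈ P (T.H i), Φ.lev (lab w).1 (f x) ∈ Icc s' (1 - s')

/-- clause `actI` -/
theorem qd3_actI {L : Φ.F → Finset ℝ} {P₀ : Set E3} {lab : E3 → JJ Φ L} {s' : ℝ}
    (hs' : s₁ + ε ≤ s') (hB : PosB Φ T T3 f J0 KK s' P₀ lab) :
    ∀ k i3, (∀ k', ¬ P (T3.H i3) ⊆ KK k') → ∀ i, (∀ c, i ∉ J0 c) →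
    P (T3.H i3) ⊆ P (T.H i) → ∀ x ∈ P (T.H i),
    (∀ a ∈ k.B, ∃ w ∈ P₀, (lab w).1 = a ∧ w ∈ P (T3.H i3)) →
    (∀ a ∈ k.Z, Φ.lev a (f x) = 0) → Sum.inl i3 ∈ (qd3 hLa hR hM hε hε1 T3 KK).Act k := by
  intro k i3 h1 i hiJ hi x hx h3 hz
  have hiK : i ∉ KorJ Φ J0 := fun ⟨c, hc⟩ => hiJ c hc
  refine (mem_liftQ' hi).2 ⟨h1, act_of_vals hM hs' hiK hx (fun a ha => ?_) fun a ha => ?_⟩
  · obtain ⟨w, hw, rfl, hwt⟩ := h3 a ha
    obtain ⟨x', hx', h4⟩ := hB w hw i3 h1 hwt i hiJ hi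
    refine ⟨x', hx', ?_⟩
    rw [va_lev hLa hR hiK hx']; exact h4
  · rw [va_lev hLa hR hiK hx]; exact hz a ha

end mach

end Crest.Agent.R096.At_241
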