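import Crest.Agent.R096.Ar9_241
import Crest.Agent.R096.Xq3_537

/-!
# R096 (row 96), ARR-INST part 1 (helper241): the codimension of the grid cells

`C : CC Λ (Cel P m)` with 537's `GridOK C T co`, `Λ` open in a 3-dimensional space:
`cod C (.top c) = 0`, `cod C (.gr q) = 3 - #free`.
-/

set_option autoImplicit false
set_option linter.unusedSectionVars false
set_option linter.unusedVariables false
set_option linter.deprecated false

open Set Metric Topology Module
open scoped Classical

namespace Crest.Agent.R096.At_241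

open Crest.Agent.R096.Xp_537
open Crest.Agent.R096.Ar_241
open Crest.Agent.R096.Grd_714

variable {E : Type*} [NormedAddCommGroup E] [NormedSpace ℝ E] [FiniteDimensional ℝ E]
  {I : Type*} {P : I → Set E} {m : I → ℕ} {Λ : Set E}
  {C : CC Λ (Cel P m)} {T : (I → ℝ) → E} {co : E → I → ℝ}

lemma top_max (c : I) : ∀ r : Cel P m, Cel.top c ≤ r → r = Cel.top c := by
  intro r hr
  by_contra hne
  exact Cel.not_top_lt (lt_of_le_of_ne hr (Ne.symm hne))

/-- the top cells of the grid -/
def tpc (c : I) : TopC (Cel P m) := ⟨.top c, top_max c⟩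

lemma gr_lt (q : Gx P m) : ∃ c, (Cel.gr q : Cel P m) < .top c := by
  obtain ⟨c, c', -, h, -⟩ := q.two
  exact ⟨c, Cel.gr_lt_top.2 h⟩

lemma topC_eq (c : TopC (Cel P m)) : ∃ a : I, c.1 = .top a := by
  obtain ⟨c, hc⟩ := c
  cases c with
  | top a => exact ⟨a, rfl⟩
  | gr q =>
    obtain ⟨a, ha⟩ := gr_lt q
    exact absurd (hc _ ha.le) ha.ne'

lemma cod_top (hΛ : IsOpen Λ) (c : I) : cod C (.top c) = 0 := cod_of_max C hΛ (top_max c)

lemma cod_gr_pos (hΛ : IsOpen Λ) (q : Gx P m) : 0 < cod C (.gr q) := by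
  obtain ⟨c, hc⟩ := gr_lt q
  have := cod_lt C hΛ hc
  omega

/-- lower the coordinates in `S` -/
noncomputable def low (q : Gx P m) (S : Set I) : Gx P m where
  lo := q.lo
  hi a := if a ∈ S then q.lo a else q.hi a
  le a := by split_ifs; exacts [le_rfl, q.le a]
  le1 a := by split_ifs; exacts [Nat.le_succ _, q.le1 a]
  him a := by split_ifs; exacts [(q.le a).trans (q.him a), q.him a]
  two := by
    obtain ⟨c, c', hne, h, h'⟩ := q.two
    refine ⟨c, c', hne, ?_, ?_⟩
    · split_ifs
      · have := q.le c; omega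
      · exact h
    · split_ifs
      · have := q.le c'; omega
      · exact h'
  face := q.face

lemma low_hi (q : Gx P m) (S : Set I) (a : I) :
    (low q S).hi a = if a ∈ S then q.lo a else q.hi a := rfl

lemma low_lo (q : Gx P m) (S : Set I) (a : I) : (low q S).lo a = q.lo a := rfl

lemma low_le (q : Gx P m) (S : Set I) : low q S ≤ q := fun c => by
  refine ⟨le_rfl, ?_⟩
  rw [low_hi]
  split_ifs
  · exact q.le c
  · exact le_rfl

lemma low_insert (q : Gx P m) {S : Set I} {a : I} (ha : a ∈ q.free) (haS : a ∉ S) :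
    low q (insert a S) < low q S := by
  refine lt_of_le_of_ne (fun c => ⟨le_rfl, ?_⟩) fun he => ?_
  · rw [low_hi, low_hi]
    by_cases h1 : c ∈ S
    · rw [if_pos h1, if_pos (mem_insert_of_mem _ h1)]
    · rw [if_neg h1]
      split_ifs
      · exact q.le c
      · exact le_rfl
  · have h1 := congrFun (congrArg Gx.hi he) a
    rw [low_hi, low_hi, if_pos (mem_insert _ _), if_neg haS] at h1
    have h3 : q.lo a < q.hi a := ha
    omega

lemma cod_low (hΛ : IsOpen Λ) (q : Gx P m) (S : Finset I) (hS : ↑S ⊆ q.free) :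
    cod C (.gr q) + S.card ≤ cod C (.gr (low q S)) := by
  induction S using Finset.induction_on with
  | empty =>
    have h1 : low q (∅ : Set I) = q := by
      refine le_antisymm (low_le q _) fun a => ⟨le_rfl, ?_⟩
      rw [low_hi, if_neg (notMem_empty a)]
    rw [Finset.coe_empty, h1, Finset.card_empty, add_zero]
  | @insert a S ha ih =>
    have h1 := ih (fun b hb => hS (Finset.mem_coe.2 (Finset.mem_insert_of_mem
      (Finset.mem_coe.1 hb))))
    have h2 : low q (insert a (S : Set I)) < low q S :=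
      low_insert q (hS (Finset.mem_coe.2 (Finset.mem_insert_self _ _))) (by simpa using ha)
    have h3 := cod_lt C hΛ (Cel.gr_lt_gr.2 h2)
    rw [Finset.card_insert_of_notMem ha, Finset.coe_insert]
    omega

lemma cod_le (q : Cel P m) : cod C q ≤ finrank ℝ E := Nat.sub_le _ _

/-- upper bound -/
lemma cod_gr_add (hΛ : IsOpen Λ) (q : Gx P m) :
    q.free.Finite ∧ cod C (.gr q) + q.free.ncard ≤ finrank ℝ E := by
  have key : ∀ S : Finset I, ↑S ⊆ q.free → cod C (.gr q) + S.card ≤ finrank ℝ E := fun S hS =>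
    (cod_low hΛ q S hS).trans (cod_le _)
  have hfin : q.free.Finite := by
    by_contra hinf
    obtain ⟨S, hS, hc⟩ := Set.Infinite.exists_subset_card_eq hinf (finrank ℝ E + 1)
    have := key S hS
    omega
  refine ⟨hfin, ?_⟩
  have h := key hfin.toFinset (by simp)
  rwa [← Set.ncard_eq_toFinset_card _ hfin] at h

lemma cell_single (X : GridOK C T co) (q : Gx P m) (h0 : q.free = ∅) {t : E}
    (ht : t ∈ C.cell (.gr q)) : t = C.b (.gr q) := by
  obtain ⟨h1, h2⟩ := X.co_mem q t ht
  obtain ⟨h3, h4⟩ := X.co_mem q _ (C.bmem (.gr q))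
  have : co t = co (C.b (.gr q)) := by
    funext a
    have ha : a ∉ q.free := by rw [h0]; exact notMem_empty a
    rw [Gx.eq_of_mem ha h1, Gx.eq_of_mem ha h3]
  rw [← h2, ← h4, this]

lemma cod_vertex (X : GridOK C T co) (q : Gx P m) (h0 : q.free = ∅) :
    cod C (.gr q) = finrank ℝ E := by
  have : dirW C (.gr q) = ⊥ := by
    unfold dirW
    rw [Submodule.span_eq_bot]
    rintro _ ⟨t, ht, rfl⟩
    rw [cell_single X q h0 ht]
    exact sub_self _
  unfold cod
  rw [this, finrank_bot, Nat.sub_zero]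

/-- edges are segments -/
lemma finrank_edge (X : GridOK C T co) (q : Gx P m) {a : I} (h0 : q.free = {a}) :
    finrank ℝ (dirW C (.gr q)) ≤ 1 := by
  have haf : a ∈ q.free := by rw [h0]; rfl
  have hlt : q.lo a < q.hi a := haf
  have hhi := Gx.hi_eq haf
  -- injectivity of the coordinate
  have hinj : ∀ t ∈ C.cell (.gr q), ∀ t' ∈ C.cell (.gr q), co t a = co t' a → t = t' := by
    intro t ht t' ht' he
    obtain ⟨h1, h2⟩ := X.co_mem q t ht
    obtain ⟨h3, h4⟩ := X.co_mem q t' ht'
    rw [← h2, ← h4]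
    congr 1
    funext c
    by_cases hc : c = a
    · rw [hc, he]
    · have hc' : c ∉ q.free := by rw [h0]; exact hc
      rw [Gx.eq_of_mem hc' h1, Gx.eq_of_mem hc' h3]
  -- the end points
  have hend : ∀ s : ℝ, (q.lo a : ℝ) ≤ s → s ≤ q.hi a → ∃ t ∈ C.cell (.gr q), co t a = s := by
    intro s hs1 hs2
    have hv : Function.update (fun c => (q.lo c : ℝ)) a s ∈ q.bx := by
      intro c
      by_cases hc : c = a
      · subst hc; rw [Function.update_self]; exact ⟨hs1, hs2⟩
      · rw [Function.update_of_ne hc]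
        exact ⟨le_rfl, by exact_mod_cast q.le c⟩
    obtain ⟨h1, h2⟩ := X.T_mem q _ hv
    exact ⟨_, h1, by rw [h2, Function.update_self]⟩
  obtain ⟨y1, hy1, e1⟩ := hend (q.lo a) le_rfl (by exact_mod_cast q.le a)
  obtain ⟨y2, hy2, e2⟩ := hend (q.hi a) (by exact_mod_cast q.le a) le_rfl
  have hconv := C.conv (.gr q)
  have hcont : ContinuousOn (fun t => co t a) (C.cell (.gr q)) := (X.plco q a).1
  -- every point lies on the line
  have hseg : ∀ t ∈ C.cell (.gr q), ∃ s : ℝ, t = y1 + s • (y2 - y1) := by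
    intro t ht
    obtain ⟨h1, h2⟩ := X.co_mem q t ht
    have hf : ContinuousOn (fun s : ℝ => co (y1 + s • (y2 - y1)) a) (Icc 0 1) := by
      refine hcont.comp (by fun_prop) ?_
      intro s hs
      have h3 := hconv hy1 hy2 (sub_nonneg.2 hs.2) hs.1 (by ring)
      convert h3 using 1
      module
    have himg := intermediate_value_Icc (zero_le_one' ℝ) hf
    simp only [zero_smul, add_zero, one_smul] at himg
    rw [show y1 + (y2 - y1) = y2 by abel, e1, e2] at himg
    obtain ⟨s, hs, he⟩ := himg (h1 a)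
    refine ⟨s, hinj t ht _ ?_ he.symm⟩
    have h3 := hconv hy1 hy2 (sub_nonneg.2 hs.2) hs.1 (by ring)
    convert h3 using 1
    module
  have hle : dirW C (.gr q) ≤ Submodule.span ℝ {y2 - y1} := by
    unfold dirW
    rw [Submodule.span_le]
    rintro _ ⟨t, ht, rfl⟩
    obtain ⟨s, hs⟩ := hseg t ht
    obtain ⟨s', hs'⟩ := hseg _ (C.bmem (.gr q))
    have : t - C.b (.gr q) = (s - s') • (y2 - y1) := by
      rw [hs']
      conv_lhs => rw [hs]
      module
    rw [SetLike.mem_coe]
    show t - C.b (.gr q) ∈ _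
    rw [this]
    exact Submodule.smul_mem _ _ (Submodule.mem_span_singleton_self _)
  refine (Submodule.finrank_mono hle).trans ((finrank_span_le_card _).trans ?_)
  simp

/-- **the codimension of the grid cells** -/
theorem cod_gr (X : GridOK C T co) (hΛ : IsOpen Λ) (hE : finrank ℝ E = 3) (q : Gx P m) :
    cod C (.gr q) + q.free.ncard = 3 := by
  obtain ⟨hfin, h1⟩ := cod_gr_add (C := C) hΛ q
  have h2 := cod_gr_pos (C := C) hΛ q
  rw [hE] at h1
  have h3 : q.free.ncard = 0 ∨ q.free.ncard = 1 ∨ q.free.ncard = 2 := by omega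
  rcases h3 with h | h | h
  · rw [h, cod_vertex X q ((Set.ncard_eq_zero hfin).1 h), hE]
  · obtain ⟨a, ha⟩ := Set.ncard_eq_one.1 h
    have h4 := finrank_edge X q ha
    have h5 : cod C (.gr q) = 3 - finrank ℝ (dirW C (.gr q)) := by rw [← hE]; rfl
    omega
  · omega

end Crest.Agent.R096.At_241
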