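import Crest.Agent.R096.Shp5_334
import Crest.Agent.R096.At1_241
import Crest.Agent.R096.As3_241

/-!
# R096 (row 96), ARR-INST part 2 (helper241): fibres in level coordinates, `EdgeData` of a tiny core

`OnS hfin Pf K g T G S`: on `S` the map is `T` of the merged levels.
* `OnS.fibre_iff` : `G z = b q` in terms of the sheets `{F_j = 1/2}` and of the other levels;
* `edgeData` : 'one circle of every sheet on `S = bd K_c`' gives `EdgeData` (input of ARR2).
-/

set_option autoImplicit false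
set_option linter.unusedSectionVars false
set_option linter.unusedVariables false
set_option linter.deprecated false

open Set Metric Topology Module
open scoped Classical

namespace Crest.Agent.R096.At_241

open Crest.Agent.R096.Ce_537 Crest.Agent.R096.Bd_416 Crest.Agent.R096.Mg_441
  Crest.Agent.R096.Xp_537 Crest.Agent.R096.Grd_714
open Crest.Agent.R096.Ar_241 (dirW cod)
open Crest.Agent.R096.As_241 (EdgeData below)
open Crest.Agent.R096.Shp_334 (half_merge exists_num)

variable {Q : Type} [PartialOrder Q] {dim : Q → ℕ} {J Fam : Type} {Cc : Cmb Q dim J Fam}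
variable {E' : Type*} [NormedAddCommGroup E'] [NormedSpace ℝ E']
variable {K : Q → Set E'} {g : Gd E' J} {P : ∀ q, Cc.I q → Set E'} {c : ∀ q, Cc.I q → E' → ℝ}
variable {E : Type*} [NormedAddCommGroup E] [NormedSpace ℝ E] [FiniteDimensional ℝ E]
  {Λ : Set E} {hfin : ∀ a, {j | Cc.fam j = a}.Finite} {Pf : Fam → Set E}
  {C : CC Λ (Cel Pf (Mg_441.mm hfin))} {T : (Fam → ℝ) → E} {co : E → Fam → ℝ} {G : E' → E}

/-- on `S` the map is the one of the merged mesh -/
structure OnS (hfin : ∀ a, {j | Cc.fam j = a}.Finite) (Pf : Fam → Set E) (K : Q → Set E')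
    (g : Gd E' J) (T : (Fam → ℝ) → E) (G : E' → E) (S : Set E') : Prop where
  cov : ∀ z ∈ S, ∃ p, z ∈ K p
  G_eq : ∀ z ∈ S, G z = gG T (merge hfin g) z
  box : ∀ z ∈ S, ∃ r : Gx Pf (Mg_441.mm hfin), r.free = {a | z ∈ (merge hfin g).B a} ∧
    (fun a => (merge hfin g).G a z) ∈ r.bx

/-- from 334's `OnMesh` -/
theorem OnS.of_onMesh {Ω X0 : Set E'} [FiniteDimensional ℝ E'] {X : Ar_241.Tr0 Ω C G}
    (h : Shp_334.OnMesh X K g T X0) : OnS hfin Pf K g T G (Ω ∩ X0) where
  cov := fun z hz => by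
    obtain ⟨p, hp, -⟩ := h.cov z hz.1 hz.2
    exact ⟨p, hp⟩
  G_eq := fun z hz => h.G_eq z hz.1 hz.2
  box := fun z hz => by
    obtain ⟨r, -, h1, h2⟩ := h.top_eq z hz.1 hz.2
    exact ⟨r, h1, h2⟩

/-- restriction -/
theorem OnS.mono {S S' : Set E'} (h : OnS hfin Pf K g T G S) (hS : S' ⊆ S) :
    OnS hfin Pf K g T G S' where
  cov := fun z hz => h.cov z (hS hz)
  G_eq := fun z hz => h.G_eq z (hS hz)
  box := fun z hz => h.box z (hS hz)

/-- from (K4) -/
theorem OnS.of_ex (H : Inv Cc K univ g P c) {S : Set E'}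
    (hx : ∀ z ∈ S, ∃ p y, z ∈ K p ∧ Ex Cc Pf p y) (hG : ∀ z ∈ S, G z = gG T (merge hfin g) z) :
    OnS hfin Pf K g T G S where
  cov := fun z hz => by
    obtain ⟨p, y, h1, -⟩ := hx z hz
    exact ⟨p, h1⟩
  G_eq := hG
  box := fun z hz => by
    obtain ⟨p, y, h1, h2⟩ := hx z hz
    obtain ⟨b, e1, e2, e3⟩ := exists_box H hfin (mem_univ p) h1 h2
    refine ⟨b, ?_, e3⟩
    ext a
    show b.lo a < b.hi a ↔ z ∈ (merge hfin g).B a
    rw [e1, e2]
    exact (band_iff_lt H hfin (mem_univ p) h1 a).symm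

variable {S : Set E'}

lemma OnS.co_eq (h : OnS hfin Pf K g T G S) (OK : GridOK C T co) {z : E'}
    (hz : z ∈ S) : co (G z) = fun a => (merge hfin g).G a z := by
  obtain ⟨r, -, hr⟩ := h.box z hz
  rw [h.G_eq z hz]
  exact (OK.T_mem r _ hr).2

lemma OnS.T_co (h : OnS hfin Pf K g T G S) (OK : GridOK C T co) {z : E'}
    (hz : z ∈ S) : T (co (G z)) = G z := by
  rw [h.co_eq OK hz, h.G_eq z hz]; rfl

/-- the centre in level coordinates -/
lemma GridOK_T_b (OK : GridOK C T co) (q : Gx Pf (Mg_441.mm hfin)) :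
    T (co (C.b (.gr q))) = C.b (.gr q) := (OK.co_mem q _ (C.bmem (.gr q))).2

/-- **the fibre of a grid cell in level coordinates** -/
theorem OnS.fibre (h : OnS hfin Pf K g T G S) (OK : GridOK C T co) {z : E'}
    (hz : z ∈ S) (q : Gx Pf (Mg_441.mm hfin)) :
    G z = C.b (.gr q) ↔ ∀ a, (merge hfin g).G a z = ((q.lo a : ℝ) + q.hi a) / 2 := by
  have h1 := h.co_eq OK hz
  constructor
  · intro he a
    rw [he] at h1
    rw [← congrFun h1 a, OK.co_b]
  · intro ha
    have h2 : co (G z) = co (C.b (.gr q)) := by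
      rw [h1]
      funext a
      rw [ha a, OK.co_b]
    rw [← h.T_co OK hz, h2, GridOK_T_b OK q]

/-- a free coordinate is at its middle level iff the sheet is at `1/2` -/
theorem OnS.half (h : OnS hfin Pf K g T G S) (H : Inv Cc K univ g P c) {ℓ : J → ℝ}
    (hO : Ord Cc ℓ) (hℓ : ∀ j j', j ≠ j' → Cc.fam j = Cc.fam j' → ℓ j ≠ ℓ j') {z : E'}
    (hz : z ∈ S) (j : J) :
    (merge hfin g).G (Cc.fam j) z = num hfin ℓ j + 1/2 ↔ g.G j z = 1/2 := by
  obtain ⟨p, hp⟩ := h.cov z hz
  exact half_merge H hfin hO hℓ (mem_univ p) hp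

/-- the sheet of a free coordinate -/
def IsSh (hfin : ∀ a, {j | Cc.fam j = a}.Finite) (ℓ : J → ℝ) (q : Gx Pf (Mg_441.mm hfin))
    (j : J) : Prop :=
  Cc.fam j ∈ q.free ∧ num hfin ℓ j = q.lo (Cc.fam j)

lemma mid_free (q : Gx Pf (Mg_441.mm hfin)) {a : Fam} (ha : a ∈ q.free) :
    ((q.lo a : ℝ) + q.hi a) / 2 = q.lo a + 1/2 := by
  rw [Gx.hi_eq ha]; push_cast; ring

lemma mid_off (q : Gx Pf (Mg_441.mm hfin)) {a : Fam} (ha : a ∉ q.free) :
    ((q.lo a : ℝ) + q.hi a) / 2 = q.hi a := by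
  rw [Gx.lo_eq ha]; ring

theorem OnS.half_mid (h : OnS hfin Pf K g T G S) (H : Inv Cc K univ g P c) {ℓ : J → ℝ}
    (hO : Ord Cc ℓ) (hℓ : ∀ j j', j ≠ j' → Cc.fam j = Cc.fam j' → ℓ j ≠ ℓ j') {z : E'}
    (hz : z ∈ S) {q : Gx Pf (Mg_441.mm hfin)} {j : J} (hj : IsSh hfin ℓ q j) :
    (merge hfin g).G (Cc.fam j) z = ((q.lo (Cc.fam j) : ℝ) + q.hi (Cc.fam j)) / 2 ↔
      g.G j z = 1/2 := by
  rw [mid_free q hj.1, ← hj.2]
  exact h.half H hO hℓ hz j

/-- every free coordinate has a sheet -/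
lemma exists_sh {ℓ : J → ℝ} (hℓ : ∀ j j', j ≠ j' → Cc.fam j = Cc.fam j' → ℓ j ≠ ℓ j')
    (q : Gx Pf (Mg_441.mm hfin)) {a : Fam} (ha : a ∈ q.free) :
    ∃ j, Cc.fam j = a ∧ IsSh hfin ℓ q j := by
  have hhi : q.hi a = q.lo a + 1 := Gx.hi_eq ha
  have hlt : q.lo a < Mg_441.mm hfin a := by have := q.him a; omega
  obtain ⟨j, hja, hjn⟩ := exists_num hfin hℓ a hlt
  exact ⟨j, hja, by rw [hja]; exact ha, by rw [hja]; exact hjn⟩

/-! ### the edges -/

variable {ℓ : J → ℝ}

/-- the level line of the edge `q` -/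
def Lne (co : E → Fam → ℝ) (q : Gx Pf (Mg_441.mm hfin)) (a : Fam) : Set E :=
  {t | co t a = (q.lo a : ℝ) + 1/2}

lemma edge_eq (OK : GridOK C T co) {q : Gx Pf (Mg_441.mm hfin)} {a : Fam}
    (ha : q.free = {a}) {t : E} (ht : t ∈ C.cell (.gr q)) (hL : t ∈ Lne co q a) :
    t = C.b (.gr q) := by
  have haf : a ∈ q.free := by rw [ha]; rfl
  obtain ⟨k1, k2⟩ := OK.co_mem q t ht
  obtain ⟨k3, k4⟩ := OK.co_mem q _ (C.bmem (.gr q))
  have : co t = co (C.b (.gr q)) := by
    funext b
    by_cases hb : b = a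
    · subst hb
      rw [OK.co_b, mid_free q haf]
      exact hL
    · have hbf : b ∉ q.free := by rw [ha]; exact hb
      rw [Gx.eq_of_mem hbf k1, Gx.eq_of_mem hbf k3]
  rw [← k2, ← k4, this]

lemma b_mem_Lne (OK : GridOK C T co) {q : Gx Pf (Mg_441.mm hfin)} {a : Fam}
    (ha : a ∈ q.free) : C.b (.gr q) ∈ Lne co q a := by
  show co _ a = _
  rw [OK.co_b, mid_free q ha]

/-- **a square cut by the level line of one of its edges is a half open segment** -/
theorem cut_square (OK : GridOK C T co) {q r : Gx Pf (Mg_441.mm hfin)} {a b : Fam}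
    (hqr : q ≤ r) (ha : q.free = {a}) (hr : r.free = {a, b}) (hab : b ≠ a) :
    IsPreconnected ((C.cell (.gr r) ∩ Lne co q a) \ {C.b (.gr q)}) ∧
      ((C.cell (.gr r) ∩ Lne co q a) \ {C.b (.gr q)}).Nonempty := by
  have haf : a ∈ q.free := by rw [ha]; rfl
  have hbf : b ∉ q.free := by rw [ha]; exact hab
  have hbr : b ∈ r.free := by rw [hr]; exact Or.inr rfl
  have har : a ∈ r.free := by rw [hr]; exact Or.inl rfl
  have hrb : r.hi b = r.lo b + 1 := Gx.hi_eq hbr
  have hra : r.hi a = r.lo a + 1 := Gx.hi_eq har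
  have hqa : q.hi a = q.lo a + 1 := Gx.hi_eq haf
  have hlo : r.lo a = q.lo a := by have := hqr a; omega
  -- the fixed coordinate of `q`
  have hqb : q.lo b = q.hi b := Gx.lo_eq hbf
  have hqb' : q.lo b = r.lo b ∨ q.lo b = r.hi b := by have := hqr b; omega
  -- the parametrisation
  set w : Fam → ℝ := fun d => ((q.lo d : ℝ) + q.hi d) / 2 with hw
  set V : ℝ → Fam → ℝ := fun s => Function.update w b s with hV
  have hoff : ∀ d, d ∉ r.free → (q.lo d = r.hi d ∧ q.hi d = r.hi d ∧ r.lo d = r.hi d) := by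
    intro d hd
    have h1 := hqr d
    have h2 := Gx.lo_eq hd
    have h3 := q.le d
    omega
  have hmem : ∀ s ∈ Icc (r.lo b : ℝ) (r.hi b), V s ∈ r.bx := by
    intro s hs d
    by_cases hd : d = b
    · subst hd
      rw [hV]; simp only [Function.update_self]; exact hs
    · rw [hV]; simp only [Function.update_of_ne hd]
      by_cases hda : d = a
      · subst hda
        rw [hw]; simp only
        rw [hqa, hlo, hra, hlo]
        push_cast
        constructor <;> linarith
      · obtain ⟨h1, h2, h3⟩ := hoff d (by rw [hr]; simp [hd, hda])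
        rw [hw]; simp only
        rw [h1, h2, h3]
        constructor <;> linarith
  have hVa : ∀ s, V s a = (q.lo a : ℝ) + 1/2 := by
    intro s
    rw [hV]; simp only [Function.update_of_ne (Ne.symm hab)]
    exact mid_free q haf
  -- the image
  have himg : (C.cell (.gr r) ∩ Lne co q a) \ {C.b (.gr q)} =
      (fun s => T (V s)) '' (Icc (r.lo b : ℝ) (r.hi b) \ {(q.lo b : ℝ)}) := by
    ext t
    constructor
    · rintro ⟨⟨ht, hL⟩, hne⟩
      obtain ⟨k1, k2⟩ := OK.co_mem r t ht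
      have hVt : V (co t b) = co t := by
        funext d
        by_cases hd : d = b
        · subst hd; rw [hV]; simp only [Function.update_self]
        · rw [hV]; simp only [Function.update_of_ne hd]
          by_cases hda : d = a
          · subst hda
            rw [hw]; simp only
            rw [mid_free q haf]
            exact hL.symm
          · have hdr : d ∉ r.free := by rw [hr]; simp [hd, hda]
            obtain ⟨h1, h2, h3⟩ := hoff d hdr
            rw [Gx.eq_of_mem hdr k1, hw]; simp only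
            rw [h1, h2]; ring
      refine ⟨co t b, ⟨k1 b, fun he => hne ?_⟩, by simp only [hVt]; exact k2⟩
      have he' : co t b = q.lo b := he
      rw [mem_singleton_iff]
      have h2 : co t = co (C.b (.gr q)) := by
        rw [← hVt, he']
        funext d
        rw [OK.co_b]
        by_cases hd : d = b
        · subst hd; rw [hV]; simp only [Function.update_self]
          rw [← hqb]; ring
        · rw [hV]; simp only [Function.update_of_ne hd, hw]
      rw [← k2, h2, GridOK_T_b OK q]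
    · rintro ⟨s, ⟨hs, hsne⟩, rfl⟩
      obtain ⟨k1, k2⟩ := OK.T_mem r _ (hmem s hs)
      refine ⟨⟨k1, ?_⟩, fun he => hsne ?_⟩
      · show co (T (V s)) a = _
        rw [k2]; exact hVa s
      · have he' : T (V s) = C.b (.gr q) := he
        have h3 : V s = co (C.b (.gr q)) := by rw [← k2, he']
        have h4 := congrFun h3 b
        rw [OK.co_b] at h4
        rw [mem_singleton_iff]
        have h5 : V s b = s := by rw [hV]; simp only [Function.update_self]
        rw [h5, ← hqb] at h4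
        rw [h4]; ring
  have hcont : ContinuousOn (fun s => T (V s)) (Icc (r.lo b : ℝ) (r.hi b)) := by
    refine (OK.comp (V := ℝ) r (h := V) (K := Icc (r.lo b : ℝ) (r.hi b)) ?_ hmem).1
    intro d
    by_cases hd : d = b
    · subst hd
      rw [hV]; simp only [Function.update_self]
      exact plOn_id _
    · rw [hV]; simp only [Function.update_of_ne hd]
      exact plOn_const _ _
  have hlt : (r.lo b : ℝ) < r.hi b := by rw [hrb]; push_cast; linarith
  have hpc : IsPreconnected (Icc (r.lo b : ℝ) (r.hi b) \ {(q.lo b : ℝ)}) ∧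
      (Icc (r.lo b : ℝ) (r.hi b) \ {(q.lo b : ℝ)}).Nonempty := by
    rcases hqb' with h | h
    · rw [h]
      have : Icc (r.lo b : ℝ) (r.hi b) \ {(r.lo b : ℝ)} = Ioc (r.lo b : ℝ) (r.hi b) := by
        ext s
        simp only [mem_diff, mem_Icc, mem_singleton_iff, mem_Ioc]
        constructor
        · rintro ⟨⟨h1, h2⟩, h3⟩; exact ⟨lt_of_le_of_ne h1 (Ne.symm h3), h2⟩
        · rintro ⟨h1, h2⟩; exact ⟨⟨h1.le, h2⟩, h1.ne'⟩
      rw [this]
      exact ⟨isPreconnected_Ioc, ⟨_, hlt, le_rfl⟩⟩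
    · rw [h]
      have : Icc (r.lo b : ℝ) (r.hi b) \ {(r.hi b : ℝ)} = Ico (r.lo b : ℝ) (r.hi b) := by
        ext s
        simp only [mem_diff, mem_Icc, mem_singleton_iff, mem_Ico]
        constructor
        · rintro ⟨⟨h1, h2⟩, h3⟩; exact ⟨h1, lt_of_le_of_ne h2 h3⟩
        · rintro ⟨h1, h2⟩; exact ⟨⟨h1, h2.le⟩, h2.ne⟩
      rw [this]
      exact ⟨isPreconnected_Ico, ⟨_, le_rfl, hlt⟩⟩
  rw [himg]
  exact ⟨hpc.1.image _ (hcont.mono diff_subset), hpc.2.image _⟩

/-- **the edges of a tiny core** -/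
theorem edgeData (hΛ : IsOpen Λ) (hE3 : finrank ℝ E = 3) (OK : GridOK C T co)
    (h : OnS hfin Pf K g T G S) (H : Inv Cc K univ g P c) (hO : Ord Cc ℓ)
    (hℓ : ∀ j j', j ≠ j' → Cc.fam j = Cc.fam j' → ℓ j ≠ ℓ j') {c0 : Fam}
    (circ : ∀ j, Cc.fam j ≠ c0 → (Pf (Cc.fam j) ∩ Pf c0).Nonempty →
      Nonempty (PLEquiv (sph 2) {x | x ∈ S ∧ g.G j x = 1/2}))
    (hm : ∀ a, 0 < Mg_441.mm hfin a)
    {q : {q : Cel Pf (Mg_441.mm hfin) // q < .top c0}} (hq : cod C q.1 = 2) :
    EdgeData C (.top c0) S G q := by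
  obtain ⟨q, hqc⟩ := q
  cases q with
  | top d => exact absurd hqc Cel.not_top_lt
  | gr q =>
  have hcod := cod_gr OK hΛ hE3 q
  have hq' : cod C (.gr q) = 2 := hq
  rw [hq'] at hcod
  have h1 : q.free.ncard = 1 := by omega
  obtain ⟨a, ha⟩ := Set.ncard_eq_one.1 h1
  have haf : a ∈ q.free := by rw [ha]; rfl
  obtain ⟨j, hja, hj⟩ := exists_sh (Pf := Pf) hℓ q haf
  have hc0 : q.hi c0 = 0 := Cel.gr_lt_top.1 hqc
  have hne : a ≠ c0 := by
    rintro rfl
    have : q.lo a < q.hi a := haf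
    omega
  have hint : (Pf a ∩ Pf c0).Nonempty := by
    obtain ⟨y, hy⟩ := q.face
    refine ⟨y, ?_, ?_⟩
    · refine Brk1_582.mem_fc.1 hy a ?_
      show q.lo a < Mg_441.mm hfin a
      have h2 := Gx.hi_eq haf
      have h3 := q.him a
      omega
    · refine Brk1_582.mem_fc.1 hy c0 ?_
      show q.lo c0 < Mg_441.mm hfin c0
      have h2 := q.le c0
      have h3 := hm c0
      omega
  refine ⟨Lne co q a, b_mem_Lne OK haf, fun t ht hL => edge_eq OK ha ht hL, ?_, ?_⟩
  · rintro ⟨r, hrc⟩ hqr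
    cases r with
    | top d => exact absurd hrc Cel.not_top_lt
    | gr r =>
    have hlt : q < r := Cel.gr_lt_gr.1 hqr
    have h2 := Gx.free_lt hlt
    have h3 := cod_gr OK hΛ hE3 r
    have h4 := cod_gr_pos (C := C) hΛ r
    have hrfin := (cod_gr_add (C := C) hΛ r).1
    have h5 : q.free.ncard < r.free.ncard := Set.ncard_lt_ncard h2 hrfin
    have h6 : r.free.ncard = 2 := by omega
    obtain ⟨b, hbr, hbq⟩ := exists_of_ssubset h2
    have hba : b ≠ a := fun e => hbq (by rw [e]; exact haf)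
    have hr : r.free = {a, b} := by
      symm
      refine Set.eq_of_subset_of_ncard_le ?_ ?_ hrfin
      · rintro d (rfl | hd)
        · exact h2.1 haf
        · rw [mem_singleton_iff.1 hd]; exact hbr
      · rw [h6, Set.ncard_pair (Ne.symm hba)]
    exact cut_square OK hlt.le ha hr hba
  · have h2 : {x | x ∈ S ∧ G x ∈ Lne co q a} = {x | x ∈ S ∧ g.G j x = 1/2} := by
      ext x
      simp only [mem_setOf_eq]
      refine and_congr_right fun hx => ?_
      show co (G x) a = _ ↔ _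
      rw [h.co_eq OK hx]
      have h3 := h.half H hO hℓ hx j
      rw [hj.2, hja] at h3
      exact h3
    rw [h2]
    exact circ j (by rw [hja]; exact hne) (by rw [hja]; exact hint)

end Crest.Agent.R096.At_241
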