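import Crest.Agent.R096.Cb3_609
import Crest.Agent.R332.FullTop

/-!
# R096 (row 96), CE3 ball calculus, part 4: uniqueness of balls
(helper609)

* `no_retraction`: no continuous retraction of the cube onto its boundary (Brouwer).
* `ball_eq_of_subset`: a `k`-ball contained in a `k`-ball with the same boundary is equal to it.
* `subset_of_frontier`: a compact set of a space of dimension `k` with frontier in the `k`-ball
  `B` lies in `B`; the interior of a `k`-ball in a `k`-dimensional space.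
-/

set_option autoImplicit false

open Set Metric

namespace Crest.Agent.R096.Cb_609

open Ce_537

theorem no_retraction (k : ℕ) (r : (Fin k → ℝ) → (Fin k → ℝ)) (hr : ContinuousOn r (cube k))
    (hm : MapsTo r (cube k) (sph k)) (hid : ∀ x ∈ sph k, r x = x) : False := by
  let L : EuclideanSpace ℝ (Fin k) ≃L[ℝ] (Fin k → ℝ) := EuclideanSpace.equiv (Fin k) ℝ
  let P : (Fin k → ℝ) → (Fin k → ℝ) := fun y => (max 1 ‖y‖)⁻¹ • y
  have hmax : ∀ y : Fin k → ℝ, 0 < max 1 ‖y‖ := fun y => lt_max_of_lt_left one_pos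
  have hPc : Continuous P := by
    have h1 : Continuous fun y : Fin k → ℝ => max 1 ‖y‖ := continuous_const.max continuous_norm
    exact (h1.inv₀ fun y => (hmax y).ne').smul continuous_id
  have hPm : ∀ y, P y ∈ cube k := by
    intro y
    rw [mem_closedBall, dist_zero_right, norm_smul, norm_inv, Real.norm_eq_abs,
      abs_of_pos (hmax y), inv_mul_le_iff₀ (hmax y), mul_one]
    exact le_max_right _ _
  let f : EuclideanSpace ℝ (Fin k) → EuclideanSpace ℝ (Fin k) := fun x => L.symm (r (P (L x)))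
  have hf : Continuous f :=
    L.symm.continuous.comp (hr.comp_continuous (hPc.comp L.continuous) fun x => hPm _)
  set C : ℝ := ‖(L.symm : (Fin k → ℝ) →L[ℝ] EuclideanSpace ℝ (Fin k))‖ with hC
  have hC0 : 0 ≤ C := norm_nonneg _
  obtain ⟨x, hx⟩ := R332.Full.exists_zero_of_inner_pos f hf (C + 1) (by linarith) (by
    intro x hx
    have h1 : ‖x‖ ≤ C * ‖L x‖ := by
      have h2 := (L.symm : (Fin k → ℝ) →L[ℝ] EuclideanSpace ℝ (Fin k)).le_opNorm (L x)
      have h3 : (L.symm : (Fin k → ℝ) →L[ℝ] EuclideanSpace ℝ (Fin k)) (L x) = x :=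
        L.symm_apply_apply x
      rwa [h3] at h2
    have h4 : 1 < ‖L x‖ := by
      by_contra hcon
      have h5 := mul_le_mul_of_nonneg_left (not_lt.1 hcon) hC0
      linarith
    have h6 : P (L x) = ‖L x‖⁻¹ • L x := by
      show (max 1 ‖L x‖)⁻¹ • L x = _
      rw [max_eq_right h4.le]
    have h7 : P (L x) ∈ sph k := by
      rw [h6, mem_sphere, dist_zero_right, norm_smul, norm_inv, norm_norm]
      exact inv_mul_cancel₀ (by linarith)
    have h8 : f x = ‖L x‖⁻¹ • x := by
      show L.symm (r (P (L x))) = _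
      rw [hid _ h7, h6, map_smul, L.symm_apply_apply]
    rw [h8, real_inner_smul_left, real_inner_self_eq_norm_sq]
    have h9 : 0 < ‖x‖ := by linarith
    have h10 : 0 < ‖L x‖ := by linarith
    positivity)
  have h1 : r (P (L x)) = 0 := by
    have : L.symm (r (P (L x))) = 0 := hx
    simpa using this
  have h2 := hm (hPm (L x))
  rw [h1, mem_sphere, dist_self] at h2
  exact zero_ne_one h2

/-- radial retraction of the punctured cube -/
theorem exists_radial {k : ℕ} {w : Fin k → ℝ} (hw : ‖w‖ < 1) :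
    ∃ ρ : (Fin k → ℝ) → (Fin k → ℝ), ContinuousOn ρ {w}ᶜ ∧ MapsTo ρ {w}ᶜ (sph k) ∧
      ∀ x ∈ sph k, ρ x = x := by
  set s : Set (Fin k → ℝ) := closedBall (-w) 1 with hs
  have hconv : Convex ℝ s := convex_closedBall _ _
  have h0 : s ∈ nhds (0 : Fin k → ℝ) := by
    refine Filter.mem_of_superset (ball_mem_nhds 0 (ε := 1 - ‖w‖) (by linarith)) ?_
    intro x hx
    rw [mem_ball, dist_zero_right] at hx
    rw [hs, mem_closedBall, dist_eq_norm, sub_neg_eq_add]
    exact (norm_add_le x w).trans (by linarith)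
  have hb : Bornology.IsVonNBounded ℝ s :=
    (NormedSpace.isVonNBounded_iff ℝ).2 isBounded_closedBall
  have hg : ∀ y : Fin k → ℝ, y ≠ 0 → 0 < gauge s y := fun y hy =>
    (gauge_pos (absorbent_nhds_zero h0) hb).2 hy
  have hg1 : ∀ x : Fin k → ℝ, gauge s (x - w) = 1 ↔ x ∈ sph k := by
    intro x
    rw [gauge_eq_one_iff_mem_frontier hconv h0, hs, frontier_closedBall _ one_ne_zero, mem_sphere,
      mem_sphere, dist_eq_norm, dist_zero_right, sub_neg_eq_add, sub_add_cancel]
  refine ⟨fun x => w + (gauge s (x - w))⁻¹ • (x - w), ?_, ?_, ?_⟩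
  · have h1 : Continuous fun x : Fin k → ℝ => gauge s (x - w) :=
      (continuous_gauge hconv h0).comp (continuous_id.sub continuous_const)
    refine continuousOn_const.add (ContinuousOn.smul (h1.continuousOn.inv₀ ?_)
      (continuousOn_id.sub continuousOn_const))
    intro x hx
    exact (hg _ (sub_ne_zero.2 hx)).ne'
  · intro x hx
    have hpos := hg _ (sub_ne_zero.2 (show x ≠ w from hx))
    rw [← hg1]
    show gauge s (w + (gauge s (x - w))⁻¹ • (x - w) - w) = 1
    rw [add_sub_cancel_left, gauge_smul_of_nonneg (inv_nonneg.2 hpos.le), smul_eq_mul]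
    exact inv_mul_cancel₀ hpos.ne'
  · intro x hx
    have := (hg1 x).2 hx
    show w + (gauge s (x - w))⁻¹ • (x - w) = x
    rw [this]; simp

section Unique

variable {E : Type*} [NormedAddCommGroup E] [NormedSpace ℝ E] {k : ℕ}

/-- **a `k`-ball contained in a `k`-ball with the same boundary is equal to it** -/
theorem ball_eq_of_subset {A A' Q : Set E} (h : IsBall k A Q) (h' : IsBall k A' Q)
    (hs : A ⊆ A') : A = A' := by
  apply Subset.antisymm hs
  intro z hz
  by_contra hzA
  obtain ⟨e, he⟩ := h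
  obtain ⟨e', he'⟩ := h'
  have hzQ : z ∉ Q := fun hq => hzA (by
    rw [← he] at hq
    obtain ⟨x, hx, rfl⟩ := hq
    exact e.mf (sph_subset_cube hx))
  have hw1 := e'.mg hz
  have hw2 : e'.g z ∉ sph k := by
    intro hw
    apply hzQ
    rw [← he']
    exact ⟨_, hw, e'.ri z hz⟩
  have hw : ‖e'.g z‖ < 1 := by
    rw [mem_closedBall, dist_zero_right] at hw1
    refine lt_of_le_of_ne hw1 fun h => hw2 ?_
    rw [mem_sphere, dist_zero_right]; exact h
  obtain ⟨ρ, h1, h2, h3⟩ := exists_radial hw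
  have hne : ∀ x ∈ cube k, e'.g (e.f x) ∈ ({e'.g z}ᶜ : Set (Fin k → ℝ)) := by
    intro x hx hcon
    apply hzA
    have h4 : e.f x = z := by
      rw [← e'.ri _ (hs (e.mf hx)), mem_singleton_iff.1 hcon, e'.ri z hz]
    rw [← h4]; exact e.mf hx
  have hgQ : ∀ y ∈ Q, e.g y ∈ sph k := by
    intro y hy
    rw [← he] at hy
    obtain ⟨x, hx, rfl⟩ := hy
    rw [e.li x (sph_subset_cube hx)]; exact hx
  have hfQ : ∀ x ∈ sph k, e'.f x ∈ Q := fun x hx => by rw [← he']; exact ⟨x, hx, rfl⟩
  refine no_retraction k (fun x => e.g (e'.f (ρ (e'.g (e.f x))))) ?_ ?_ ?_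
  · have c1 : ContinuousOn (fun x => e'.g (e.f x)) (cube k) :=
      e'.pg.1.comp e.pf.1 fun x hx => hs (e.mf hx)
    have c2 : ContinuousOn (fun x => ρ (e'.g (e.f x))) (cube k) := h1.comp c1 hne
    have c3 : ContinuousOn (fun x => e'.f (ρ (e'.g (e.f x)))) (cube k) :=
      e'.pf.1.comp c2 fun x hx => sph_subset_cube (h2 (hne x hx))
    refine e.pg.1.comp c3 fun x hx => ?_
    have h5 : e'.f (ρ (e'.g (e.f x))) ∈ Q := hfQ _ (h2 (hne x hx))
    rw [← he] at h5
    obtain ⟨y, hy, e5⟩ := h5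
    rw [← e5]; exact e.mf (sph_subset_cube hy)
  · intro x hx
    exact hgQ _ (hfQ _ (h2 (hne x hx)))
  · intro x hx
    have h5 : e.f x ∈ Q := by rw [← he]; exact ⟨x, hx, rfl⟩
    have h6 : e'.g (e.f x) ∈ sph k := by
      rw [← he'] at h5
      obtain ⟨y, hy, e5⟩ := h5
      rw [← e5, e'.li y (sph_subset_cube hy)]; exact hy
    show e.g (e'.f (ρ (e'.g (e.f x)))) = x
    rw [h3 _ h6, e'.ri _ (hs (e.mf (sph_subset_cube hx))), e.li x (sph_subset_cube hx)]

end Unique

end Crest.Agent.R096.Cb_609
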