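import Crest.Agent.R096.Dl5_609
import Crest.Agent.R096.Cb4_609

/-!
# R096 (row 96), CORE-INST, part 1 (helper609)

* `mem_coreF_iff`: the exact core `coreF C κ c θ` is the homothetic copy of the cell `c` with
  centre `b c` and ratio `1 - κ θ`; `coreF_bd`: the points with `sl y c = θ` come from the proper
  faces of `c`.
* `not_interior`: invariance of the boundary for sets which are star-shaped in the strict sense.
-/

set_option autoImplicit false
set_option linter.unusedSectionVars false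
set_option linter.unusedVariables false
set_option linter.deprecated false

open Set Metric Module Filter Topology
open scoped Classical

namespace Crest.Agent.R096.Dl_609

open Ce_537 Xp_537 Cb_609

section Core

variable {E : Type*} [NormedAddCommGroup E] [NormedSpace ℝ E]
variable {Q : Type*} [PartialOrder Q] {Λ : Set E} (C : CC Λ Q) {c : Q} {κ θ : ℝ}

/-- removing the mass `θ` at `c` -/
lemma wt_div {m : Q →₀ ℝ} (hm : Wt m) (h0 : 0 ≤ θ) (h1 : θ < 1) (hθ : θ ≤ m c) :
    Wt ((1 - θ)⁻¹ • (m - Finsupp.single c θ)) ∧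
      (1 - θ) • ((1 - θ)⁻¹ • (m - Finsupp.single c θ)) + Finsupp.single c θ = m ∧
      (∀ ρ ∈ ((1 - θ)⁻¹ • (m - Finsupp.single c θ)).support, ρ ∈ m.support) ∧
      (m c = θ → c ∉ ((1 - θ)⁻¹ • (m - Finsupp.single c θ)).support) := by
  have h1' : 0 < 1 - θ := by linarith
  set l : Q →₀ ℝ := (1 - θ)⁻¹ • (m - Finsupp.single c θ) with hl
  have hlc : l c = (1 - θ)⁻¹ * (m c - θ) := by simp [hl]
  have hlne : ∀ ρ, ρ ≠ c → l ρ = (1 - θ)⁻¹ * m ρ := fun ρ h => by
    simp [hl, Finsupp.single_eq_of_ne h]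
  have hsub : ∀ ρ ∈ l.support, ρ ∈ m.support := by
    intro ρ hρ
    by_cases h : ρ = c
    · subst h
      refine Finsupp.mem_support_iff.2 fun e => ?_
      apply Finsupp.mem_support_iff.1 hρ
      rw [hlc]
      have : θ = 0 := le_antisymm (by rw [e] at hθ; exact hθ) h0
      rw [e, this]; simp
    · refine Finsupp.mem_support_iff.2 fun e => ?_
      apply Finsupp.mem_support_iff.1 hρ
      rw [hlne ρ h, e, mul_zero]
  refine ⟨⟨fun ρ => ?_, ?_, fun ρ hρ σ hσ => hm.chain ρ (hsub ρ hρ) σ (hsub σ hσ)⟩, ?_, hsub, ?_⟩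
  · by_cases h : ρ = c
    · subst h; rw [hlc]
      exact mul_nonneg (inv_nonneg.2 h1'.le) (by linarith)
    · rw [hlne ρ h]
      exact mul_nonneg (inv_nonneg.2 h1'.le) (hm.nn ρ)
  · rw [← tot_eq, hl, map_smul, map_sub, tot_single, tot_wt hm, smul_eq_mul,
      inv_mul_cancel₀ h1'.ne']
  · rw [hl, smul_smul, mul_inv_cancel₀ h1'.ne', one_smul, sub_add_cancel]
  · intro e
    rw [Finsupp.mem_support_iff, not_not, hlc, e, sub_self, mul_zero]

/-- decomposition of a point of the core -/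
lemma coreF_dec (hκ : 0 < κ ∧ κ < 1) (h0 : 0 ≤ θ) (h1 : θ < 1) {y : E}
    (hy : y ∈ coreF C κ c θ) : ∃ y' ∈ C.cell c, y = (κ * θ) • C.b c + (1 - κ * θ) • y' ∧
      (sl C κ y c = θ → ∃ p < c, y' ∈ C.cell p) := by
  obtain ⟨hyc, hθ⟩ := hy
  obtain ⟨k1, k2, k3⟩ := st_spec C hκ hyc
  obtain ⟨d1, d2, d3, d4⟩ := wt_div k1.wt h0 h1 hθ
  set m := sl C κ y with hm
  set l : Q →₀ ℝ := (1 - θ)⁻¹ • (m - Finsupp.single c θ) with hl
  set t := st C κ y with ht
  clear_value t l
  have hkt : κ * θ < 1 := by nlinarith [hκ.1, hκ.2]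
  have hpos : 0 < 1 - κ * θ := by linarith
  have h1' : 0 < 1 - θ := by linarith
  have htc : t ∈ C.cell c := by
    obtain ⟨p, hp, -⟩ := k1.exists_top
    exact C.mono_le (k3 p hp) (k1.mem p hp)
  have hcomb : ∀ p : Q, t ∈ C.cell p → bs C.b l ∈ C.cell p →
      ((1 - κ) / (1 - κ * θ)) • t + (κ * (1 - θ) / (1 - κ * θ)) • bs C.b l ∈ C.cell p := by
    intro p h2 h3
    refine C.conv p h2 h3 (div_nonneg (by linarith [hκ.2]) hpos.le)
      (div_nonneg (mul_nonneg hκ.1.le h1'.le) hpos.le) ?_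
    rw [← add_div, div_eq_one_iff_eq hpos.ne']
    ring
  refine ⟨_, hcomb c htc (bs_mem C d1 fun ρ hρ => k3 ρ (d3 ρ hρ)), ?_, fun he => ?_⟩
  · rw [smul_add, smul_smul, smul_smul, mul_div_cancel₀ _ hpos.ne', mul_div_cancel₀ _ hpos.ne']
    have h4 : y = (1 - κ) • t + κ • bs C.b m := k2.symm
    rw [h4]
    have h5 : bs C.b m = (1 - θ) • bs C.b l + θ • C.b c := by
      conv_lhs => rw [← d2]
      exact bs_top' _ _ _ _
    rw [h5]
    module
  · obtain ⟨p, hp, hpm⟩ := d1.exists_max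
    have h2 : p < c := by
      refine lt_of_le_of_ne (k3 p (d3 p hp)) ?_
      rintro rfl
      exact d4 he hp
    exact ⟨p, h2, hcomb p (k1.mem p (d3 p hp)) (bs_mem C d1 hpm)⟩

/-- **the core is a homothetic copy of the cell** -/
theorem mem_coreF_iff (hκ : 0 < κ ∧ κ < 1) (h0 : 0 ≤ θ) (h1 : θ < 1) (y : E) :
    y ∈ coreF C κ c θ ↔ ∃ y' ∈ C.cell c, y = (κ * θ) • C.b c + (1 - κ * θ) • y' := by
  constructor
  · intro hy
    obtain ⟨y', h2, h3, -⟩ := coreF_dec C hκ h0 h1 hy
    exact ⟨y', h2, h3⟩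
  · rintro ⟨y', hy', rfl⟩
    have hkt : κ * θ < 1 := by nlinarith [hκ.1, hκ.2]
    have hkt0 : 0 ≤ κ * θ := mul_nonneg hκ.1.le h0
    have hpos : 0 < 1 - κ * θ := by linarith
    have hk : 0 < 1 - κ := by linarith [hκ.2]
    -- points of the inner copy
    have hin : ∀ t ∈ C.cell c, (1 - κ) • t + κ • C.b c ∈ coreF C κ c θ := by
      intro t ht
      have hst : State C (Finsupp.single c (1 : ℝ)) t := by
        have hw := Expl.wt_single c
        refine ⟨hw.nn, hw.sum, hw.chain, fun ρ hρ => ?_⟩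
        rw [Finsupp.support_single_ne_zero c one_ne_zero, Finset.mem_singleton] at hρ
        rw [hρ]; exact ht
      have hpk : pk C κ (Finsupp.single c (1 : ℝ)) t = (1 - κ) • t + κ • C.b c := by
        rw [pk, bs_single _ one_pos, one_smul]
      rw [← hpk]
      refine ⟨pk_mem C hκ hst fun ρ hρ => ?_, ?_⟩
      · rw [Finsupp.support_single_ne_zero c one_ne_zero, Finset.mem_singleton] at hρ
        exact hρ.le
      · rw [sl_pk C hκ hst]; simp [h1.le]
    have hgen : ∀ (p : Q) (y'' : E) (W : ℝ), p < c → y'' ∈ C.cell p → κ * θ ≤ W → W < 1 →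
        (1 - W) • y'' + W • C.b c ∈ coreF C κ c θ := by
      intro p y'' W hp hy'' hW hW1
      rcases le_or_gt κ W with h2 | h2
      · have h3 : (1 - W) • y'' + W • C.b c =
            (1 - κ) • (((1 - W) / (1 - κ)) • y'' + ((W - κ) / (1 - κ)) • C.b c) + κ • C.b c := by
          rw [smul_add, smul_smul, smul_smul, mul_div_cancel₀ _ hk.ne', mul_div_cancel₀ _ hk.ne']
          module
        rw [h3]
        apply hin
        refine C.conv c (C.mono hp hy'') (C.bmem c) (div_nonneg (by linarith) hk.le)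
          (div_nonneg (by linarith) hk.le) ?_
        rw [← add_div, div_eq_one_iff_eq hk.ne']
        ring
      · set θ' : ℝ := W / κ with hθ'
        have e1 : κ * θ' = W := by rw [hθ']; field_simp [hκ.1.ne']
        have h3 : θ ≤ θ' := by
          rw [hθ', le_div_iff₀ hκ.1]; linarith
        have h4 : θ' < 1 := by rw [hθ', div_lt_one hκ.1]; exact h2
        have hp1 : 0 < 1 - W := by linarith
        set κ' : ℝ := κ * (1 - θ') / (1 - W) with hκ'
        have e2 : (1 - W) * κ' = κ * (1 - θ') := by rw [hκ']; field_simp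
        have e3 : (1 - W) * (1 - κ') = 1 - κ := by rw [mul_sub, e2, mul_sub, e1]; ring
        have hk'0 : 0 < κ' := div_pos (mul_pos hκ.1 (by linarith)) hp1
        have hk'1 : κ' < 1 := by
          by_contra hcon
          have : (1 - W) * (1 - κ') ≤ 0 := mul_nonpos_of_nonneg_of_nonpos hp1.le (by linarith)
          linarith
        obtain ⟨k1, k2, k3⟩ := st_spec C ⟨hk'0, hk'1⟩ hy''
        set l' := sl C κ' y'' with hl'
        set t := st C κ' y'' with ht
        clear_value l' t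
        have htp : t ∈ C.cell p := by
          obtain ⟨r, hr, -⟩ := k1.exists_top
          exact C.mono_le (k3 r hr) (k1.mem r hr)
        have hl'c : ∀ ρ ∈ l'.support, ρ < c := fun ρ hρ => (k3 ρ hρ).trans_lt hp
        set l := (1 - θ') • l' + Finsupp.single c θ' with hl
        have hwt : Wt l := wt_top k1.wt (fun ρ hρ => (hl'c ρ hρ).le) (h0.trans h3) h4.le
        have hlc0 : l' c = 0 := Finsupp.notMem_support_iff.1 fun h => lt_irrefl _ (hl'c c h)
        have hlc : l c = θ' := by simp [hl, hlc0]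
        have hls : ∀ ρ ∈ l.support, ρ = c ∨ ρ ∈ l'.support := by
          intro ρ hρ
          by_contra hcon
          push Not at hcon
          apply Finsupp.mem_support_iff.1 hρ
          simp [hl, Finsupp.notMem_support_iff.1 hcon.2, Finsupp.single_eq_of_ne hcon.1]
        have hst : State C l t := by
          refine ⟨hwt.nn, hwt.sum, hwt.chain, fun ρ hρ => ?_⟩
          rcases hls ρ hρ with rfl | h5
          · exact C.mono hp htp
          · exact k1.mem ρ h5
        have hpk : pk C κ l t = (1 - W) • y'' + W • C.b c := by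
          rw [← k2, pk, pk, hl, bs_top']
          rw [smul_add ((1 - W)), smul_smul, smul_smul, e2, e3, smul_add, smul_smul, smul_smul,
            e1, add_assoc]
        rw [← hpk]
        refine ⟨pk_mem C hκ hst fun ρ hρ => ?_, by rw [sl_pk C hκ hst, hlc]; exact h3⟩
        rcases hls ρ hρ with rfl | h5
        · exact le_rfl
        · exact (hl'c ρ h5).le
    rcases C.rad c y' hy' with rfl | ⟨p, hp, y'', hy'', w, hw, rfl⟩
    · have : (κ * θ) • C.b c + (1 - κ * θ) • C.b c = (1 - κ) • C.b c + κ • C.b c := by module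
      rw [this]
      exact hin _ (C.bmem c)
    · have h2 : (κ * θ) • C.b c + (1 - κ * θ) • ((1 - w) • y'' + w • C.b c) =
          (1 - (1 - (1 - κ * θ) * (1 - w))) • y'' +
            (1 - (1 - κ * θ) * (1 - w)) • C.b c := by module
      rw [h2]
      refine hgen p y'' _ hp hy'' ?_ ?_
      · nlinarith [hw.1, hw.2, hpos]
      · have : 0 < (1 - κ * θ) * (1 - w) := mul_pos hpos (by linarith [hw.2])
        linarith

lemma isCompact_coreF (hκ : 0 < κ ∧ κ < 1) (h0 : 0 ≤ θ) (h1 : θ < 1) :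
    IsCompact (coreF C κ c θ) := by
  have h : coreF C κ c θ = (fun y' => (κ * θ) • C.b c + (1 - κ * θ) • y') '' C.cell c := by
    ext y
    rw [mem_coreF_iff C hκ h0 h1]
    constructor
    · rintro ⟨y', h2, h3⟩; exact ⟨y', h2, h3.symm⟩
    · rintro ⟨y', h2, h3⟩; exact ⟨y', h2, h3.symm⟩
  rw [h]
  exact (C.cpt c).image (continuous_const.add (continuous_const.smul continuous_id))

lemma b_mem_coreF (hκ : 0 < κ ∧ κ < 1) (h0 : 0 ≤ θ) (h1 : θ < 1) : C.b c ∈ coreF C κ c θ := by
  rw [mem_coreF_iff C hκ h0 h1]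
  exact ⟨C.b c, C.bmem c, by module⟩

/-- the core is star-shaped about `b c` -/
lemma coreF_star (hκ : 0 < κ ∧ κ < 1) (h0 : 0 ≤ θ) (h1 : θ < 1) {y : E}
    (hy : y ∈ coreF C κ c θ) {τ : ℝ} (hτ0 : 0 ≤ τ) (hτ1 : τ ≤ 1) :
    (1 - τ) • y + τ • C.b c ∈ coreF C κ c θ := by
  rw [mem_coreF_iff C hκ h0 h1] at hy ⊢
  obtain ⟨y', hy', rfl⟩ := hy
  refine ⟨(1 - τ) • y' + τ • C.b c, C.conv c hy' (C.bmem c) (by linarith) hτ0 (by ring), ?_⟩
  module

/-- strictly: a boundary point is not on the open ray from `b c` to a point of the core -/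
lemma coreF_strict (hκ : 0 < κ ∧ κ < 1) (h0 : 0 ≤ θ) (h1 : θ < 1) {y y0 : E}
    (hy : y ∈ coreF C κ c θ) (hy0 : y0 ∈ coreF C κ c θ) (hb : sl C κ y0 c = θ) {τ : ℝ}
    (hτ0 : 0 < τ) (hτ1 : τ ≤ 1) : (1 - τ) • y + τ • C.b c ≠ y0 := by
  have hkt : κ * θ < 1 := by nlinarith [hκ.1, hκ.2]
  obtain ⟨z, hz, hze, hzb⟩ := coreF_dec C hκ h0 h1 hy0
  obtain ⟨p, hp, hzp⟩ := hzb hb
  rw [mem_coreF_iff C hκ h0 h1] at hy
  obtain ⟨y', hy', rfl⟩ := hy
  intro he
  have h2 : (1 - τ) • ((κ * θ) • C.b c + (1 - κ * θ) • y') + τ • C.b c =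
      (κ * θ) • C.b c + (1 - κ * θ) • (τ • C.b c + (1 - τ) • y') := by module
  rw [h2, hze] at he
  have h3 := add_left_cancel he
  have h4 : τ • C.b c + (1 - τ) • y' = z :=
    smul_right_injective _ (by linarith : (1 - κ * θ) ≠ 0) h3
  refine opn_combo C (C.bmem c) (fun q hq => C.b_notMem hq) hy' hτ0 hτ1 hp ?_
  rw [h4]
  exact hzp

end Core

section Bd

variable {E E' : Type*} [NormedAddCommGroup E] [NormedSpace ℝ E]
  [NormedAddCommGroup E'] [NormedSpace ℝ E'] [FiniteDimensional ℝ E']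

/-- **invariance of the boundary** -/
theorem not_interior {A : Set E} {K : Set E'} (Th : PLEquiv K A) {o y0 : E} (ho : o ∈ A)
    (hy0 : y0 ∈ A) (hstar : ∀ y ∈ A, ∀ τ : ℝ, 0 ≤ τ → τ ≤ 1 → (1 - τ) • y + τ • o ∈ A)
    (hne : ∀ y ∈ A, ∀ τ : ℝ, 0 < τ → τ ≤ 1 → (1 - τ) • y + τ • o ≠ y0) :
    Th.g y0 ∉ interior K := by
  intro hint
  set m := finrank ℝ E' with hm
  let L : E' ≃L[ℝ] (Fin m → ℝ) :=
    ((finBasis ℝ E').equivFun : E' ≃ₗ[ℝ] (Fin m → ℝ)).toContinuousLinearEquiv
  set x := Th.g y0 with hx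
  obtain ⟨ε, hε, hball⟩ := Metric.isOpen_iff.1 isOpen_interior x hint
  obtain ⟨M, hM0, hM⟩ := L.symm.toContinuousLinearMap.bound
  have hMs : ∀ w, ‖L.symm w‖ ≤ M * ‖w‖ := hM
  set δ : ℝ := ε / (2 * M) with hδ
  have hδ0 : 0 < δ := by positivity
  have hz : ∀ w ∈ cube m, x + δ • L.symm w ∈ K := by
    intro w hw
    apply interior_subset
    apply hball
    rw [mem_ball_iff_norm, add_sub_cancel_left, norm_smul, Real.norm_eq_abs, abs_of_pos hδ0]
    have h1 : ‖w‖ ≤ 1 := by simpa using hw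
    have h2 : ‖L.symm w‖ ≤ M := (hMs w).trans (by nlinarith)
    calc δ * ‖L.symm w‖ ≤ δ * M := mul_le_mul_of_nonneg_left h2 hδ0.le
      _ = ε / 2 := by rw [hδ]; field_simp
      _ < ε := by linarith
  set F : (Fin m → ℝ) → E := fun u => Th.f (x + δ • L.symm u) with hF
  have hFc : ContinuousOn F (cube m) := by
    have h1 : ContinuousOn (fun u : Fin m → ℝ => x + δ • L.symm u) (cube m) :=
      (continuous_const.add (continuous_const.smul L.symm.continuous)).continuousOn
    exact Th.pf.1.comp h1 hz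
  obtain ⟨B, hB⟩ : ∃ B : ℝ, ∀ u ∈ cube m, ‖F u‖ ≤ B := by
    have h1 : IsCompact (F '' cube m) := (isCompact_closedBall (0 : Fin m → ℝ) 1).image_of_continuousOn hFc
    obtain ⟨B, hB⟩ := h1.isBounded.exists_norm_le
    exact ⟨B, fun u hu => hB _ ⟨u, hu, rfl⟩⟩
  have hu : ∀ w : Fin m → ℝ, ‖w‖⁻¹ • w ∈ cube m := by
    intro w
    rw [cube, mem_closedBall_zero_iff, norm_smul, norm_inv, norm_norm]
    by_cases h : ‖w‖ = 0
    · rw [h]; simp
    · rw [inv_mul_cancel₀ h]
  set Gw : (Fin m → ℝ) → E := fun w => ‖w‖ • F (‖w‖⁻¹ • w) with hGw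
  have hGc : Continuous Gw := by
    rw [continuous_iff_continuousAt]
    intro w
    by_cases h : w = 0
    · subst h
      have h0 : Gw 0 = 0 := by simp [hGw]
      rw [ContinuousAt, h0]
      refine squeeze_zero_norm (a := fun w => ‖w‖ * B) (fun w => ?_) ?_
      · rw [hGw]
        simp only [norm_smul, norm_norm]
        exact mul_le_mul_of_nonneg_left (hB _ (hu w)) (norm_nonneg _)
      · have : Tendsto (fun w : Fin m → ℝ => ‖w‖ * B) (𝓝 0) (𝓝 (‖(0 : Fin m → ℝ)‖ * B)) :=
          (continuous_norm.mul continuous_const).continuousAt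
        simpa using this
    · have hn : ‖w‖ ≠ 0 := norm_ne_zero_iff.2 h
      have h1 : ContinuousAt (fun w : Fin m → ℝ => ‖w‖⁻¹ • w) w :=
        (continuous_norm.continuousAt.inv₀ hn).smul continuousAt_id
      have h2 : ContinuousWithinAt F (cube m) (‖w‖⁻¹ • w) := hFc _ (hu w)
      have h3 : Tendsto (fun w : Fin m → ℝ => ‖w‖⁻¹ • w) (𝓝 w) (𝓝[cube m] (‖w‖⁻¹ • w)) :=
        tendsto_nhdsWithin_iff.2 ⟨h1, Eventually.of_forall hu⟩
      exact continuous_norm.continuousAt.smul (h2.tendsto.comp h3)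
  -- the inner point
  set I : (Fin m → ℝ) → E := fun w => ‖w‖ • F (‖w‖⁻¹ • w) + (1 - ‖w‖) • o with hI
  have hFA : ∀ u ∈ cube m, F u ∈ A := fun u hu => Th.mf (hz u hu)
  have hIe : ∀ w : Fin m → ℝ, I w = (1 - (1 - ‖w‖)) • F (‖w‖⁻¹ • w) + (1 - ‖w‖) • o := by
    intro w; rw [hI]; simp
  have hIA : ∀ w ∈ cube m, I w ∈ A := by
    intro w hw
    have h1 : ‖w‖ ≤ 1 := by simpa using hw
    rw [hIe]
    exact hstar _ (hFA _ (hu w)) _ (by linarith) (by linarith [norm_nonneg w])
  have hIc : Continuous I := hGc.add ((continuous_const.sub continuous_norm).smul continuous_const)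
  have hzx : ∀ w ∈ sph m, x + δ • L.symm w ≠ x := by
    intro w hw he
    have h1 : δ • L.symm w = 0 := by simpa using he
    have h2 : L.symm w = 0 := (smul_eq_zero.1 h1).resolve_left hδ0.ne'
    have h3 : w = 0 := by simpa using h2
    rw [h3, sph, mem_sphere_zero_iff_norm, norm_zero] at hw
    exact zero_ne_one hw
  have hIne : ∀ w ∈ cube m, I w ≠ y0 := by
    intro w hw he
    have h1 : ‖w‖ ≤ 1 := by simpa using hw
    rcases h1.lt_or_eq with h2 | h2
    · rw [hIe] at he
      exact hne _ (hFA _ (hu w)) _ (by linarith) (by linarith [norm_nonneg w]) he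
    · have h3 : I w = F w := by rw [hI]; simp [h2]
      rw [h3] at he
      have h4 : Th.g (F w) = x + δ • L.symm w := Th.li _ (hz w hw)
      rw [he] at h4
      exact hzx w (by rw [sph, mem_sphere_zero_iff_norm]; exact h2) h4.symm
  set φ : (Fin m → ℝ) → E' := fun w => Th.g (I w) with hφ
  have hφc : ContinuousOn φ (cube m) := Th.pg.1.comp hIc.continuousOn hIA
  have hφx : ∀ w ∈ cube m, φ w ≠ x := by
    intro w hw he
    apply hIne w hw
    rw [← Th.ri _ (hIA w hw), ← Th.ri _ hy0]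
    exact congrArg Th.f he
  have hLne : ∀ w ∈ cube m, ‖L (φ w - x)‖ ≠ 0 := by
    intro w hw h
    apply hφx w hw
    have : L (φ w - x) = 0 := norm_eq_zero.1 h
    exact sub_eq_zero.1 ((map_eq_zero_iff L L.injective).1 this)
  refine no_retraction m (fun w => ‖L (φ w - x)‖⁻¹ • L (φ w - x)) ?_ ?_ ?_
  · have h1 : ContinuousOn (fun w => L (φ w - x)) (cube m) :=
      L.continuous.comp_continuousOn (hφc.sub continuousOn_const)
    exact (h1.norm.inv₀ hLne).smul h1
  · intro w hw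
    rw [sph, mem_sphere_zero_iff_norm, norm_smul, norm_inv, norm_norm,
      inv_mul_cancel₀ (hLne w hw)]
  · intro w hw
    have hw' : ‖w‖ = 1 := by simpa [sph] using hw
    have hwc : w ∈ cube m := by rw [cube, mem_closedBall_zero_iff, hw']
    have h3 : I w = F w := by rw [hI]; simp [hw']
    have h4 : φ w = x + δ • L.symm w := by
      rw [hφ]; simp only [h3]
      exact Th.li _ (hz w hwc)
    show ‖L (φ w - x)‖⁻¹ • L (φ w - x) = w
    rw [h4, add_sub_cancel_left, map_smul, L.apply_symm_apply, norm_smul, hw', mul_one,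
      Real.norm_eq_abs, abs_of_pos hδ0, smul_smul, inv_mul_cancel₀ hδ0.ne', one_smul]

end Bd

end Crest.Agent.R096.Dl_609
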