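import Crest.Agent.R096.Ar9_241
import Crest.Agent.R096.Dl6_609

/-!
# R096 (row 96), helper609: the field `bd` of 241's `Exact` is automatic

`Exact.bd'` (invariance of the boundary, Dl6 `not_interior`) and `Exact.balls'`, `Exact.trn'`
(241's final theorems of Ar9 without the hypothesis `bd`).
-/

set_option autoImplicit false
set_option linter.unusedSectionVars false
set_option linter.unusedVariables false

open Set Metric Topology Module
open scoped Classical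

namespace Crest.Agent.R096.Ar_241

open Crest.Agent.R096.Xp_537
open Crest.Agent.R096.Ce_537 (PLOn PLEquiv cube sph IsBall)
open Crest.Agent.R096.Ar_241.Tr0 (P2)

variable {E : Type*} [NormedAddCommGroup E] [NormedSpace ℝ E] [FiniteDimensional ℝ E]
  {Q : Type*} [PartialOrder Q] {Λ : Set E}
  {E' : Type*} [NormedAddCommGroup E'] [NormedSpace ℝ E'] [FiniteDimensional ℝ E']
  {Ω : Set E'} {C : CC Λ Q} {G : E' → E}

namespace Exact

variable {X : Tr0 Ω C G} {κ θ : TopC Q → ℝ} {Kc : TopC Q → Set E'} {X0 : Set E'}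
  (h : Exact X κ θ Kc X0)
include h

/-- **the field `bd`**: a point of the boundary level of a core is not interior to the core -/
theorem bd' (c : TopC Q) (x : E') (hx : x ∈ Kc c) (hx0 : x ∈ X0) (ε : ℝ) (hε : 0 < ε) :
    ∃ z ∈ ball x ε, z ∉ Kc c := by
  by_contra hcon
  push Not at hcon
  have hb := (h.X0_iff c x hx).1 hx0
  have hxe : (h.Th c).g ((h.Th c).f x) = x := (h.Th c).li x hx
  refine Dl_609.not_interior (h.Th c)
    (Dl_609.b_mem_coreF C (h.κpos c) (h.θ0 c) (h.θ1 c)) ((h.Th c).mf hx)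
    (fun y hy τ h0 h1 => Dl_609.coreF_star C (h.κpos c) (h.θ0 c) (h.θ1 c) hy h0 h1)
    (fun y hy τ h0 h1 => Dl_609.coreF_strict C (h.κpos c) (h.θ0 c) (h.θ1 c) hy ((h.Th c).mf hx) hb
      h0 h1) ?_
  rw [hxe, mem_interior]
  exact ⟨ball x ε, fun z hz => hcon z hz, isOpen_ball, mem_ball_self hε⟩

/-- `Exact.balls` without `bd` -/
theorem balls' (hΛ : IsOpen Λ) (hΩ : IsOpen Ω) (hE : finrank ℝ E = 3) (hP : P2 E' 3)
    (hc : ∀ q, IsCompact (X.F q)) (X0closed : IsClosed X0) (cov : Ω ⊆ X0 ∪ ⋃ c, Kc c)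
    (arcs : ∀ q, cod C q = 1 → IsBall 1 (X.F q ∩ X0) (X.F q ∩ X0 ∩ ⋃ c, Kc c))
    (sheets : ∀ q, cod C q = 2 → SheetData X Kc X0 q) :
    ∀ q, IsBall (cod C q) (X.F q) (X.S q) :=
  h.balls hΛ hΩ hE hP hc X0closed cov (fun c x hx hx0 ε hε => h.bd' c x hx hx0 ε hε) arcs sheets

/-- `Exact.trn` without `bd` -/
noncomputable def trn' (hΛ : IsOpen Λ) (hΩ : IsOpen Ω) (hE : finrank ℝ E = 3) (hP : P2 E' 3)
    (hdim : ∀ q, C.dim q ≤ 3)
    (hc : ∀ q, IsCompact (X.F q)) (X0closed : IsClosed X0) (cov : Ω ⊆ X0 ∪ ⋃ c, Kc c)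
    (arcs : ∀ q, cod C q = 1 → IsBall 1 (X.F q ∩ X0) (X.F q ∩ X0 ∩ ⋃ c, Kc c))
    (sheets : ∀ q, cod C q = 2 → SheetData X Kc X0 q) : Trn Ω C G :=
  h.trn hΛ hΩ hE hP hdim hc X0closed cov (fun c x hx hx0 ε hε => h.bd' c x hx hx0 ε hε) arcs sheets

end Exact

end Crest.Agent.R096.Ar_241
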