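import Crest.Agent.R096.At2_241
import Crest.Agent.R096.Arc10_778
import Crest.Agent.R096.Dl8_609
import Crest.Agent.R096.Mg4_441

/-!
# R096 (row 96), ARR-INST part 3 (helper241): the squares of the grid

`Ovr q y` : the label vector `y` of a mesh cell lies over the open grid cell `q`.
* `over_val`, `ovr_of` : on a mesh cell with (K4) the other levels are those of `q` iff `Ovr q y`;
* `arcs_of` : 778's double arc is the truncated fibre of the square: the input `arcs` of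
  `Exact.balls' / trn'`;
* `sq_of` : one point of the fibre on the boundary of a tiny core: the input `sq` of ARR2.
-/

set_option autoImplicit false
set_option linter.unusedSectionVars false
set_option linter.unusedVariables false
set_option linter.deprecated false

open Set Metric Topology Module
open scoped Classical

namespace Crest.Agent.R096.At_241

open Crest.Agent.R096.Ce_537 Crest.Agent.R096.Bd_416 Crest.Agent.R096.Mg_441
  Crest.Agent.R096.Xp_537 Crest.Agent.R096.Grd_714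
open Crest.Agent.R096.Ar_241 (dirW cod Exact TopC Tr0 CoreData)
open Crest.Agent.R096.As_241 (EdgeData below)
open Crest.Agent.R096.Shp_334 (half_merge exists_num OnMesh)
open Crest.Agent.R096.Brk1_582 (Foam fc)
open Crest.Agent.R096.Arc_422 (Chn)
open Crest.Agent.R096.Arc_778 (SqD TileG EdgeG Zer Gam)

section quad

variable {Fam : Type} {E : Type*} [NormedAddCommGroup E] [NormedSpace ℝ E] [CompleteSpace E]
  {Λ : Set E} {Pf : Fam → Set E} {m : Fam → ℕ} {b : Set Fam → E}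

/-- the label vector `y` lies over the open grid cell `q` -/
def Ovr (q : Gx Pf m) (y : Fam → ℝ) : Prop :=
  (∀ a ∈ q.free, 0 < y a ∧ y a < 1) ∧ ∀ a, q.hi a = 0 → y a = 0

variable (F : Foam Λ Pf b 4)
include F

/-- a square has exactly two zero colours; all other colours are full -/
theorem sq_zero (hm : ∀ a, 0 < m a) {q : Gx Pf m} (hq : q.free.ncard = 2) :
    {a | q.hi a = 0}.ncard = 2 ∧ {a | q.hi a = 0}.Finite ∧
      ∀ a, a ∉ q.free → q.hi a ≠ 0 → q.hi a = m a := by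
  obtain ⟨c1, c2, hne, h1, h2⟩ := q.two
  have hLne : {a | q.lo a < m a}.Nonempty := ⟨c1, by
    have := q.le c1; have := hm c1; show q.lo c1 < m c1; omega⟩
  have hL := F.ncard_le_of_fc hLne q.face
  have hLf := F.finite_of_fc hLne q.face
  have hZL : {a | q.hi a = 0} ⊆ {a | q.lo a < m a} := by
    intro a ha
    have h3 : q.hi a = 0 := ha
    have := q.le a; have := hm a
    show q.lo a < m a; omega
  have hfL : q.free ⊆ {a | q.lo a < m a} := by
    intro a ha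
    have h3 : q.lo a < q.hi a := ha
    have := q.him a
    show q.lo a < m a; omega
  have hdis : Disjoint q.free {a | q.hi a = 0} := by
    rw [Set.disjoint_left]
    intro a ha h3
    have h4 : q.lo a < q.hi a := ha
    have h5 : q.hi a = 0 := h3
    omega
  have hZf := hLf.subset hZL
  have hff := hLf.subset hfL
  have hu := Set.ncard_union_eq hdis hff hZf
  have hsub : q.free ∪ {a | q.hi a = 0} ⊆ {a | q.lo a < m a} := union_subset hfL hZL
  have hle := Set.ncard_le_ncard hsub hLf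
  have h2Z : 2 ≤ {a | q.hi a = 0}.ncard := by
    rw [← Set.ncard_pair hne]
    refine Set.ncard_le_ncard ?_ hZf
    rintro a (rfl | ha)
    · exact h1
    · rw [mem_singleton_iff.1 ha]; exact h2
  have hZ2 : {a | q.hi a = 0}.ncard = 2 := by omega
  have heq : q.free ∪ {a | q.hi a = 0} = {a | q.lo a < m a} :=
    Set.eq_of_subset_of_ncard_le hsub (by omega) hLf
  refine ⟨hZ2, hZf, fun a ha h0 => ?_⟩
  have h3 : a ∉ {a | q.lo a < m a} := by
    rw [← heq]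
    rintro (h | h)
    · exact ha h
    · exact h0 h
  have h4 : ¬ q.lo a < m a := h3
  have h5 := q.le a
  have h6 := q.him a
  omega

/-- the same for the label vector -/
theorem y_zero {y : Fam → ℝ} (hy : y ∈ K2 Pf) {A : Set Fam} (hA : A.ncard = 2)
    (hf : ∀ a ∈ A, 0 < y a ∧ y a < 1) :
    {a | y a = 0}.ncard = 2 ∧ {a | y a = 0}.Finite ∧ ∀ a, a ∉ A → y a ≠ 0 → y a = 1 := by
  obtain ⟨⟨hyb, -, hyf⟩, c1, c2, hne, h1, h2⟩ := hy
  have hLne : {a | y a < 1}.Nonempty := ⟨c1, by show y c1 < 1; rw [h1]; norm_num⟩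
  have hL := F.ncard_le_of_fc hLne hyf
  have hLf := F.finite_of_fc hLne hyf
  have hZL : {a | y a = 0} ⊆ {a | y a < 1} := by
    intro a (ha : y a = 0)
    show y a < 1; rw [ha]; norm_num
  have hfL : A ⊆ {a | y a < 1} := fun a ha => (hf a ha).2
  have hdis : Disjoint A {a | y a = 0} := by
    rw [Set.disjoint_left]
    intro a ha (h3 : y a = 0)
    exact (hf a ha).1.ne' h3
  have hZf := hLf.subset hZL
  have hff := hLf.subset hfL
  have hu := Set.ncard_union_eq hdis hff hZf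
  have hsub : A ∪ {a | y a = 0} ⊆ {a | y a < 1} := union_subset hfL hZL
  have hle := Set.ncard_le_ncard hsub hLf
  have h2Z : 2 ≤ {a | y a = 0}.ncard := by
    rw [← Set.ncard_pair hne]
    refine Set.ncard_le_ncard ?_ hZf
    rintro a (rfl | ha)
    · exact h1
    · rw [mem_singleton_iff.1 ha]; exact h2
  have hZ2 : {a | y a = 0}.ncard = 2 := by omega
  have heq : A ∪ {a | y a = 0} = {a | y a < 1} :=
    Set.eq_of_subset_of_ncard_le hsub (by omega) hLf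
  refine ⟨hZ2, hZf, fun a ha h0 => ?_⟩
  have h3 : a ∉ {a | y a < 1} := by
    rw [← heq]
    rintro (h | h)
    · exact ha h
    · exact h0 h
  exact le_antisymm (hyb a).2 (not_lt.1 h3)

/-- the zero colours agree -/
theorem Ovr.zero_iff (hm : ∀ a, 0 < m a) {q : Gx Pf m} (hq : q.free.ncard = 2) {y : Fam → ℝ}
    (hy : y ∈ K2 Pf) (ho : Ovr q y) (a : Fam) : y a = 0 ↔ q.hi a = 0 := by
  obtain ⟨h1, h2, -⟩ := sq_zero F hm hq
  obtain ⟨h3, h4, -⟩ := y_zero F hy hq ho.1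
  have : {a | q.hi a = 0} = {a | y a = 0} :=
    Set.eq_of_subset_of_ncard_le (fun a ha => ho.2 a ha) (by rw [h1, h3]) h4
  refine ⟨fun h => ?_, ho.2 a⟩
  have h5 : a ∈ {a | y a = 0} := h
  rw [← this] at h5
  exact h5

theorem Ovr.one (hm : ∀ a, 0 < m a) {q : Gx Pf m} (hq : q.free.ncard = 2) {y : Fam → ℝ}
    (hy : y ∈ K2 Pf) (ho : Ovr q y) {a : Fam} (ha : a ∉ q.free) (h0 : q.hi a ≠ 0) :
    y a = 1 ∧ q.hi a = m a := by
  obtain ⟨-, -, h1⟩ := sq_zero F hm hq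
  obtain ⟨-, -, h2⟩ := y_zero F hy hq ho.1
  exact ⟨h2 a ha fun h => h0 ((ho.zero_iff F hm hq hy a).1 h), h1 a ha h0⟩

end quad

variable {Q : Type} [PartialOrder Q] {dim : Q → ℕ} {J Fam : Type} {Cc : Cmb Q dim J Fam}
variable {E' : Type*} [NormedAddCommGroup E'] [NormedSpace ℝ E']
variable {K : Q → Set E'} {g : Gd E' J} {P : ∀ q, Cc.I q → Set E'} {c : ∀ q, Cc.I q → E' → ℝ}
variable {E : Type*} [NormedAddCommGroup E] [NormedSpace ℝ E] [FiniteDimensional ℝ E]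
  {Λ : Set E} {hfin : ∀ a, {j | Cc.fam j = a}.Finite} {Pf : Fam → Set E} {b : Set Fam → E}
  {C : CC Λ (Cel Pf (Mg_441.mm hfin))} {T : (Fam → ℝ) → E} {co : E → Fam → ℝ} {G : E' → E}
  {S : Set E'} {ℓ : J → ℝ}

/-- **on a mesh cell over the open square the other levels are those of the square** -/
theorem over_val (F : Foam Λ Pf b 4) (hm : ∀ a, 0 < Mg_441.mm hfin a) (H : Inv Cc K univ g P c)
    {q : Gx Pf (Mg_441.mm hfin)} (hq : q.free.ncard = 2) {p : Q} {y : Fam → ℝ}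
    (hx : Ex Cc Pf p y) (ho : Ovr q y) {z : E'} (hz : z ∈ K p) {a : Fam} (ha : a ∉ q.free) :
    (merge hfin g).G a z = q.hi a := by
  have hbx := G_mem_box H hfin (mem_univ p) hz a
  by_cases h0 : q.hi a = 0
  · have hy := hx.zero a (ho.2 a h0)
    obtain ⟨e1, e2⟩ := box_zero H hfin (mem_univ p) hz hy.1 hy.2
    rw [e1, e2] at hbx
    rw [h0]
    exact le_antisymm hbx.2 hbx.1
  · obtain ⟨h1, h2⟩ := ho.one F hm hq hx.mem ha h0
    have hy := hx.one a h1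
    obtain ⟨e1, e2⟩ := box_one H hfin (mem_univ p) hz hy.1 hy.2
    rw [e1, e2] at hbx
    rw [h2]
    exact le_antisymm hbx.2 hbx.1

/-- a sheet at `1/2` has a piece in the cell -/
lemma piece_of_half (H : Inv Cc K univ g P c) {p : Q} {z : E'} (hz : z ∈ K p) {j : J}
    (hG : g.G j z = 1/2) : ∃ x : Cc.I p, Cc.col p x = j ∧ z ∈ Zer (K p) (c p) x := by
  obtain ⟨x, hx, h1⟩ := (Shp_334.half_iff H hz).1 hG
  exact ⟨x, hx, h1⟩

/-- **a point of the fibre in a cell with (K4): the cell lies over the open square** -/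
theorem ovr_of (F : Foam Λ Pf b 4) (hm : ∀ a, 0 < Mg_441.mm hfin a) (H : Inv Cc K univ g P c)
    {q : Gx Pf (Mg_441.mm hfin)} (hq : q.free.ncard = 2) {p : Q} {y : Fam → ℝ}
    (hx : Ex Cc Pf p y) {z : E'} (hz : z ∈ K p)
    (hG : ∀ a ∈ q.free, ∃ j, Cc.fam j = a ∧ g.G j z = 1/2)
    (hoff : ∀ a, a ∉ q.free → (merge hfin g).G a z = q.hi a) : Ovr q y := by
  have hf : ∀ a ∈ q.free, 0 < y a ∧ y a < 1 := by
    intro a ha
    obtain ⟨j, hja, hj⟩ := hG a ha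
    obtain ⟨x, hx1, -⟩ := piece_of_half H hz hj
    have hne0 : y a ≠ 0 := fun h => (hx.zero a h).1 x (by rw [hx1, hja])
    have hne1 : y a ≠ 1 := fun h => (hx.one a h).1 x (by rw [hx1, hja])
    have hb := hx.mem.1.1 a
    exact ⟨lt_of_le_of_ne hb.1 (Ne.symm hne0), lt_of_le_of_ne hb.2 hne1⟩
  refine ⟨hf, ?_⟩
  obtain ⟨h1, h2, -⟩ := sq_zero F hm hq
  obtain ⟨h3, h4, -⟩ := y_zero F hx.mem hq hf
  have hsub : {a | y a = 0} ⊆ {a | q.hi a = 0} := by
    intro a (ha : y a = 0)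
    have hna : a ∉ q.free := fun h => (hf a h).1.ne' ha
    have hy := hx.zero a ha
    obtain ⟨e1, e2⟩ := box_zero H hfin (mem_univ p) hz hy.1 hy.2
    have hbx := G_mem_box H hfin (mem_univ p) hz a
    rw [e1, e2] at hbx
    have h5 := hoff a hna
    have h6 : ((q.hi a : ℕ) : ℝ) = ((0 : ℕ) : ℝ) := by
      rw [← h5]; exact le_antisymm hbx.2 hbx.1
    exact_mod_cast h6
  have heq : {a | y a = 0} = {a | q.hi a = 0} :=
    Set.eq_of_subset_of_ncard_le hsub (by rw [h1, h3]) h2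
  intro a ha
  have : a ∈ {a | q.hi a = 0} := ha
  rw [← heq] at this
  exact this

/-- the two sheets of a square -/
structure SqSh (hfin : ∀ a, {j | Cc.fam j = a}.Finite) (ℓ : J → ℝ) (q : Gx Pf (Mg_441.mm hfin))
    (nm : Bool → J) : Prop where
  sh : ∀ β, IsSh hfin ℓ q (nm β)
  ne : Cc.fam (nm true) ≠ Cc.fam (nm false)
  free : q.free = {Cc.fam (nm true), Cc.fam (nm false)}

lemma SqSh.ncard {q : Gx Pf (Mg_441.mm hfin)} {nm : Bool → J} (h : SqSh hfin ℓ q nm) :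
    q.free.ncard = 2 := by
  rw [h.free, Set.ncard_pair h.ne]

/-- existence of the two sheets -/
theorem exists_sqSh (hℓ : ∀ j j', j ≠ j' → Cc.fam j = Cc.fam j' → ℓ j ≠ ℓ j')
    {q : Gx Pf (Mg_441.mm hfin)} (hq : q.free.ncard = 2) : ∃ nm : Bool → J, SqSh hfin ℓ q nm := by
  obtain ⟨a, a', hne, hf⟩ := Set.ncard_eq_two.1 hq
  obtain ⟨j, hj, h1⟩ := exists_sh (Pf := Pf) hℓ q (a := a) (by rw [hf]; exact Or.inl rfl)
  obtain ⟨j', hj', h1'⟩ := exists_sh (Pf := Pf) hℓ q (a := a') (by rw [hf]; exact Or.inr rfl)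
  refine ⟨fun β => if β then j else j', ⟨?_, ?_, ?_⟩⟩
  · intro β
    cases β
    · exact h1'
    · exact h1
  · show Cc.fam (if true = true then j else j') ≠ Cc.fam (if false = true then j else j')
    simp only [if_true, Bool.false_eq_true, if_false]
    rw [hj, hj']; exact hne
  · show q.free = {Cc.fam (if true = true then j else j'), Cc.fam (if false = true then j else j')}
    simp only [if_true, Bool.false_eq_true, if_false]
    rw [hj, hj', hf]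

/-- **the fibre of a square** -/
theorem OnS.sq_iff (h : OnS hfin Pf K g T G S) (OK : GridOK C T co) (H : Inv Cc K univ g P c)
    (hO : Ord Cc ℓ) (hℓ : ∀ j j', j ≠ j' → Cc.fam j = Cc.fam j' → ℓ j ≠ ℓ j')
    {q : Gx Pf (Mg_441.mm hfin)} {nm : Bool → J} (hs : SqSh hfin ℓ q nm) {z : E'} (hz : z ∈ S) :
    G z = C.b (.gr q) ↔ (∀ β, g.G (nm β) z = 1/2) ∧
      ∀ a, a ∉ q.free → (merge hfin g).G a z = q.hi a := by
  rw [h.fibre OK hz q]
  constructor
  · intro ha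
    refine ⟨fun β => (h.half_mid H hO hℓ hz (hs.sh β)).1 (ha _), fun a hna => ?_⟩
    rw [ha a, mid_off q hna]
  · rintro ⟨h1, h2⟩ a
    by_cases hna : a ∈ q.free
    · rw [hs.free] at hna
      rcases hna with rfl | hna
      · exact (h.half_mid H hO hℓ hz (hs.sh true)).2 (h1 true)
      · rw [mem_singleton_iff.1 hna]
        exact (h.half_mid H hO hℓ hz (hs.sh false)).2 (h1 false)
    · rw [h2 a hna, mid_off q hna]

lemma SqSh.half_all {q : Gx Pf (Mg_441.mm hfin)} {nm : Bool → J} (hs : SqSh hfin ℓ q nm) {z : E'}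
    (h : ∀ β, g.G (nm β) z = 1/2) : ∀ a ∈ q.free, ∃ j, Cc.fam j = a ∧ g.G j z = 1/2 := by
  intro a ha
  rw [hs.free] at ha
  rcases ha with rfl | ha
  · exact ⟨_, rfl, h true⟩
  · rw [mem_singleton_iff.1 ha]; exact ⟨_, rfl, h false⟩

/-- the active cells of the square `q`: they lie over the open square, and every cell of `X0` over
the open square which has pieces of both sheets is one of them -/
structure ActSq (Cc : Cmb Q dim J Fam) (Pf : Fam → Set E) (K : Q → Set E') {m : Fam → ℕ}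
    (q : Gx Pf m) (nm : Bool → J) (S : Set E') {ι : Type*} (Act : Set ι) (cell : ι → Q) :
    Prop where
  sub : ∀ τ ∈ Act, K (cell τ) ⊆ S
  ovr : ∀ τ ∈ Act, ∃ y, Ex Cc Pf (cell τ) y ∧ Ovr q y
  cov : ∀ z ∈ S, ∃ p y, z ∈ K p ∧ Ex Cc Pf p y ∧ (Ovr q y →
    (∀ β, ∃ x : Cc.I p, Cc.col p x = nm β) → ∃ τ ∈ Act, cell τ = p)

/-- **the fibre of a square on the mesh part = the double arcs of the two sheets in the active
cells** -/
theorem fibre_sq (F : Foam Λ Pf b 4) (hm : ∀ a, 0 < Mg_441.mm hfin a) (H : Inv Cc K univ g P c)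
    (h : OnS hfin Pf K g T G S) (OK : GridOK C T co)
    (hO : Ord Cc ℓ) (hℓ : ∀ j j', j ≠ j' → Cc.fam j = Cc.fam j' → ℓ j ≠ ℓ j')
    {q : Gx Pf (Mg_441.mm hfin)} {nm : Bool → J} (hs : SqSh hfin ℓ q nm) {ι : Type*}
    {Act : Set ι} {cell : ι → Q} (hA : ActSq Cc Pf K q nm S Act cell) :
    {z | z ∈ S ∧ G z = C.b (.gr q)} =
      {z | ∃ τ ∈ Act, z ∈ K (cell τ) ∧ ∀ β, g.G (nm β) z = 1/2} := by
  ext z
  constructor
  · rintro ⟨hz, hG⟩
    obtain ⟨h1, h2⟩ := (h.sq_iff OK H hO hℓ hs hz).1 hG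
    obtain ⟨p, y, hzp, hx, hp⟩ := hA.cov z hz
    have ho := ovr_of F hm H hs.ncard hx hzp (hs.half_all h1) h2
    obtain ⟨τ, hτ, rfl⟩ := hp ho fun β => by
      obtain ⟨x, hx, -⟩ := piece_of_half H hzp (h1 β)
      exact ⟨x, hx⟩
    exact ⟨τ, hτ, hzp, h1⟩
  · rintro ⟨τ, hτ, hz, h1⟩
    obtain ⟨y, hx, ho⟩ := hA.ovr τ hτ
    have hzS := hA.sub τ hτ hz
    exact ⟨hzS, (h.sq_iff OK H hO hℓ hs hzS).2 ⟨h1, fun a ha =>
      over_val F hm H hs.ncard hx ho hz ha⟩⟩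

section arcs

variable [FiniteDimensional ℝ E'] {Ω X0 : Set E'} {X : Tr0 Ω C G}
  {κ θ : TopC (Cel Pf (Mg_441.mm hfin)) → ℝ} {Kt : TopC (Cel Pf (Mg_441.mm hfin)) → Set E'}
  {Z ι : Type*} {Ch : Chn Z ι} {Act : Set ι} {cell : ι → Q} {nm : Bool → J}
  {rk : ∀ q, Cc.I (cell q) → ℕ} {F' : Z → Q} {a' : ∀ z, Bool → Cc.I (F' z)} {v : Z → E'}

/-- at most two points of the fibre of a square lie on the boundaries of the cores -/
theorem core_pts (hΛ : IsOpen Λ) (F : Foam Λ Pf b 4) (hm : ∀ a, 0 < Mg_441.mm hfin a)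
    (hX : Exact X κ θ Kt X0) {q : Gx Pf (Mg_441.mm hfin)} (hq : q.free.ncard = 2)
    (hcod : cod C (.gr q) = 1) {x y : E'} (hxy : x ≠ y)
    (hx : x ∈ X.F (.gr q) ∩ X0 ∩ ⋃ i, Kt i) (hy : y ∈ X.F (.gr q) ∩ X0 ∩ ⋃ i, Kt i) :
    X.F (.gr q) ∩ X0 ∩ ⋃ i, Kt i = {x, y} := by
  obtain ⟨hZ2, hZf, -⟩ := sq_zero F hm hq
  have hD : CoreData X Kt X0 0 (.gr q) := hX.coreData hΛ hcod
  obtain ⟨s, R, Qc, -, hs, hP⟩ := hD
  -- one point in every core
  have one : ∀ i, ∀ z ∈ X.F (.gr q) ∩ X0, z ∈ Kt i → ∀ z' ∈ X.F (.gr q) ∩ X0, z' ∈ Kt i →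
      z = z' := by
    intro i z hz hzi z' hz' hzi'
    have hi : i ∈ s := hs i ⟨z, hz.1, hzi⟩
    obtain ⟨r, hr, -⟩ := Glu_422.ball_zero (hP.pair i hi).ball₁
    have h1 : z ∈ X.F (.gr q) ∩ Kt i ∩ X0 := ⟨⟨hz.1, hzi⟩, hz.2⟩
    have h2 : z' ∈ X.F (.gr q) ∩ Kt i ∩ X0 := ⟨⟨hz'.1, hzi'⟩, hz'.2⟩
    have hr' : X.F (.gr q) ∩ Kt i ∩ X0 = {r} := hr
    rw [hr'] at h1 h2
    rw [mem_singleton_iff.1 h1, mem_singleton_iff.1 h2]
  -- the colour of a core
  have col : ∀ i, ∀ z ∈ X.F (.gr q), z ∈ Kt i → ∃ a, i = tpc a ∧ q.hi a = 0 := by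
    intro i z hz hzi
    have h1 := hX.le_of_meets ⟨z, hz, hzi⟩
    obtain ⟨a, ha⟩ := topC_eq i
    refine ⟨a, Subtype.ext ha, ?_⟩
    rw [ha] at h1
    exact h1
  obtain ⟨ix, hix⟩ := mem_iUnion.1 hx.2
  obtain ⟨iy, hiy⟩ := mem_iUnion.1 hy.2
  obtain ⟨ax, eax, hax⟩ := col ix x hx.1.1 hix
  obtain ⟨ay, eay, hay⟩ := col iy y hy.1.1 hiy
  have hne : ax ≠ ay := by
    intro e
    rw [e, ← eay] at eax
    rw [eax] at hix
    exact hxy (one iy x hx.1 hix y hy.1 hiy)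
  have hZ : {a | q.hi a = 0} = {ax, ay} := by
    symm
    refine Set.eq_of_subset_of_ncard_le ?_ (by rw [hZ2, Set.ncard_pair hne]) hZf
    rintro a (rfl | ha)
    · exact hax
    · rw [mem_singleton_iff.1 ha]; exact hay
  refine Subset.antisymm ?_ ?_
  · rintro z ⟨hz, hz2⟩
    obtain ⟨i, hi⟩ := mem_iUnion.1 hz2
    obtain ⟨a, ea, ha⟩ := col i z hz.1 hi
    have h1 : a ∈ {a | q.hi a = 0} := ha
    rw [hZ] at h1
    rcases h1 with h1 | h1
    · left
      rw [ea, h1, ← eax] at hi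
      exact one ix z hz hi x hx.1 hix
    · right
      rw [ea, mem_singleton_iff.1 h1, ← eay] at hi
      exact one iy z hz hi y hy.1 hiy
  · rintro z (rfl | hz)
    · exact hx
    · rw [mem_singleton_iff.1 hz]; exact hy

/-- **the truncated fibre of a square is an arc between two cores** (input `arcs` of
`Exact.balls' / trn'`) -/
theorem arcs_of (hΛ : IsOpen Λ) (F : Foam Λ Pf b 4) (hm : ∀ a, 0 < Mg_441.mm hfin a)
    (H : Inv Cc K univ g P c) {Ω0 : Set E'} (Xc : Cplx Ω0 Q dim K) (OK : GridOK C T co)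
    (hO : Ord Cc ℓ) (hℓ : ∀ j j', j ≠ j' → Cc.fam j = Cc.fam j' → ℓ j ≠ ℓ j')
    (hM : OnMesh X K g T X0) (hX : Exact X κ θ Kt X0) [Finite Z]
    (hEg : ∀ e, dim e = 1 → EdgeG (K e) (c e)) {q : Gx Pf (Mg_441.mm hfin)}
    (hcod : cod C (.gr q) = 1) (hs : SqSh hfin ℓ q nm)
    (hA : ActSq Cc Pf K q nm (Ω ∩ X0) Act cell)
    (hT : ∀ τ ∈ Act, TileG (K (cell τ)) (bdS K (cell τ)) (c (cell τ)) (rk τ))
    (D : SqD Cc K c Ch Act cell nm rk F' a' v)
    (he : v Ch.e ∈ ⋃ i, Kt i) (he' : v Ch.e' ∈ ⋃ i, Kt i) :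
    IsBall 1 (X.F (.gr q) ∩ X0) (X.F (.gr q) ∩ X0 ∩ ⋃ i, Kt i) := by
  have h1 := D.isBall H Xc hEg hT
  have h2 : X.F (.gr q) ∩ X0 = {z | ∃ τ ∈ Act, z ∈ K (cell τ) ∧ ∀ β, g.G (nm β) z = 1/2} := by
    rw [← fibre_sq F hm H (OnS.of_onMesh hM) OK hO hℓ hs hA]
    ext z
    constructor
    · rintro ⟨⟨h3, h4⟩, h5⟩
      exact ⟨⟨h3, h5⟩, h4⟩
    · rintro ⟨⟨h3, h5⟩, h4⟩
      exact ⟨⟨h3, h4⟩, h5⟩
  rw [← h2] at h1
  have h3 := h1.subset
  have hve : v Ch.e ∈ X.F (.gr q) ∩ X0 := h3 (Or.inl rfl)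
  have hve' : v Ch.e' ∈ X.F (.gr q) ∩ X0 := h3 (Or.inr rfl)
  have hne : v Ch.e ≠ v Ch.e' := fun e => Ch.ee (D.inj H Xc hEg e)
  rw [core_pts hΛ F hm hX hs.ncard hcod hne ⟨hve, he⟩ ⟨hve', he'⟩]
  exact h1

end arcs

section sq

variable [FiniteDimensional ℝ E'] {Ω X0 : Set E'} {Z ι : Type*} {Ch : Chn Z ι} {Act : Set ι}
  {cell : ι → Q} {nm : Bool → J}
  {rk : ∀ q, Cc.I (cell q) → ℕ} {F' : Z → Q} {a' : ∀ z, Bool → Cc.I (F' z)} {v : Z → E'}

/-- **one point of the fibre of a square on the boundary `S` of a tiny core** (input `sq` of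
ARR2): `e` is the only node of the chain on `S` -/
theorem sq_of (F : Foam Λ Pf b 4) (hm : ∀ a, 0 < Mg_441.mm hfin a)
    (H : Inv Cc K univ g P c) (Xc : Cplx Ω Q dim K) (OK : GridOK C T co)
    (hO : Ord Cc ℓ) (hℓ : ∀ j j', j ≠ j' → Cc.fam j = Cc.fam j' → ℓ j ≠ ℓ j')
    (h : OnS hfin Pf K g T G S) (hEg : ∀ e, dim e = 1 → EdgeG (K e) (c e))
    {q : Gx Pf (Mg_441.mm hfin)} (hs : SqSh hfin ℓ q nm)
    (ovr : ∀ τ ∈ Act, ∃ y, Ex Cc Pf (cell τ) y ∧ Ovr q y)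
    (D : SqD Cc K c Ch Act cell nm rk F' a' v)
    (cov : ∀ z ∈ S, ∃ f p y, dim f = 2 ∧ z ∈ K f ∧ K f ⊆ S ∧ f < p ∧ Ex Cc Pf p y ∧
      (Ovr q y → (∀ β, ∃ x : Cc.I p, Cc.col p x = nm β) → ∃ τ ∈ Act, cell τ = p))
    {e : Z} (heS : v e ∈ S) (hend : ∀ n, K (F' n) ⊆ S → n = e) (heA : (Ch.S e).Nonempty) :
    {z | z ∈ S ∧ G z = C.b (.gr q)} = {v e} := by
  ext z
  constructor
  · rintro ⟨hz, hG⟩
    obtain ⟨h1, h2⟩ := (h.sq_iff OK H hO hℓ hs hz).1 hG
    obtain ⟨f, p, y, hd, hzf, hfS, hfp, hx, hp⟩ := cov z hz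
    have hzp : z ∈ K p := Xc.subset hfp.le hzf
    have ho := ovr_of F hm H hs.ncard hx hzp (hs.half_all h1) h2
    obtain ⟨τ, hτ, rfl⟩ := hp ho fun β => by
      obtain ⟨x, hx, -⟩ := piece_of_half H hzp (h1 β)
      exact ⟨x, hx⟩
    -- the chords of `f` through `z`
    have hch : ∀ β, ∃ x : Cc.I f, Cc.col f x = nm β ∧ z ∈ Zer (K f) (c f) x := fun β =>
      piece_of_half H hzf (h1 β)
    choose α hα1 hα2 using hch
    obtain ⟨n, hn, hvn⟩ := D.sur τ hτ f hd hfp α hα1 z hα2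
    have hF := (D.node H Xc hEg (z := n) hd hα1 (fun β => by rw [hvn]; exact hα2 β)).1
    have hne : n = e := hend n (by rw [hF]; exact hfS)
    rw [mem_singleton_iff, ← hvn, hne]
  · intro hz
    rw [mem_singleton_iff] at hz
    subst hz
    obtain ⟨τ, hτ⟩ := heA
    have hτA := D.act hτ
    have hmem : ∀ β, v e ∈ Zer (K (F' e)) (c (F' e)) (a' e β) := D.mem e
    have hK : v e ∈ K (cell τ) := Xc.subset (D.lt hτ).le (hmem true).1
    have hhalf : ∀ β, g.G (nm β) (v e) = 1/2 := fun β =>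
      (Shp_334.half_iff H (hmem β).1).2 ⟨a' e β, D.col e β, hmem β⟩
    obtain ⟨y, hx, ho⟩ := ovr τ hτA
    exact ⟨heS, (h.sq_iff OK H hO hℓ hs heS).2 ⟨hhalf, fun a ha =>
      over_val F hm H hs.ncard hx ho hK ha⟩⟩

end sq

end Crest.Agent.R096.At_241
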