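import Crest.Agent.R096.Arc3_422
import Crest.Agent.R096.Seq2_213

/-!
# R096 (row 96), SQ-CHN (helper241), part 1: the chain of the double arcs of two sheets over ONE quad

The families of a quad may have other common quads; the nodes of the chain are the double points on
faces which touch the active cells `Act` of the quad.
-/

set_option autoImplicit false

namespace Crest.Agent.R096.At_241

open Crest.Agent.R096.St_147 Crest.Agent.R096.Seq_213
open Crest.Agent.R096.Arc_422 (Chn)

variable {ι Φ W I : Type} {M : MeshC ι Φ W} {col : I → Bool} {s : St M col} {Act : Set ι}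

/-- the double points of the sheets `nm true`, `nm false` on the faces which touch `Act` -/
abbrev NdT (s : St M col) (Act : Set ι) (nm : Bool → I) : Type :=
  {z : s.Dbl // (∀ x, s.lab (z.e x) = nm x) ∧ Tch M Act z.F}

/-- the sides of the face of `z` which are active -/
def sidT (s : St M col) (Act : Set ι) {nm : Bool → I} (z : NdT s Act nm) : Set ι :=
  {q | q ∈ M.side z.1.F ∧ q ∈ Act}

open Classical in
/-- the other end of the double arc -/
noncomputable def narcT (A : s.Arcs Act) {nm : Bool → I} (q : ι) (z : NdT s Act nm) :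
    NdT s Act nm :=
  if h : q ∈ M.side z.1.F ∧ q ∈ Act then
    ⟨A.arc q z.1, fun x => by rw [Sd1_161.lab_arc A x h.2 h.1]; exact z.2.1 x,
      ⟨q, A.mem h.2 h.1, h.2⟩⟩ else z

theorem narcT_val (A : s.Arcs Act) {nm : Bool → I} {q : ι} {z : NdT s Act nm}
    (h : q ∈ sidT s Act z) : (narcT A q z).1 = A.arc q z.1 := by
  unfold narcT
  rw [dif_pos (show q ∈ M.side z.1.F ∧ q ∈ Act from h)]

/-- **the chain of the double arcs of two sheets over one quad**: two end nodes with one active
side, all other nodes have two active sides -/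
noncomputable def stChnT (A : s.Arcs Act) (hno : ∀ G : Set s.Dbl, A.Closed G → G = ∅)
    (nm : Bool → I) (e e' : NdT s Act nm) (hee : e ≠ e')
    (he : ∃ q ∈ M.side e.1.F, q ∉ Act) (he' : ∃ q ∈ M.side e'.1.F, q ∉ Act)
    (hin : ∀ z : NdT s Act nm, z ≠ e → z ≠ e' → ∀ q ∈ M.side z.1.F, q ∈ Act) :
    Chn (NdT s Act nm) ι where
  S := sidT s Act
  arc := narcT A
  e := e
  e' := e'
  ne {q z} h h1 := by
    have h2 := congrArg Subtype.val h1
    rw [narcT_val A h] at h2
    exact A.ne h.2 h.1 h2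
  mem {q z} h := by
    refine ⟨?_, h.2⟩
    rw [narcT_val A h]
    exact A.mem h.2 h.1
  inv {q z} h := by
    have hm : q ∈ sidT s Act (narcT A q z) := by
      refine ⟨?_, h.2⟩
      rw [narcT_val A h]
      exact A.mem h.2 h.1
    apply Subtype.ext
    rw [narcT_val A hm, narcT_val A h]
    exact A.inv h.2 h.1
  one := by
    obtain ⟨q, hq, hqA⟩ := e.2.2
    obtain ⟨r, hr, hrA⟩ := he
    have hne : r ≠ q := fun h => hrA (h ▸ hqA)
    refine ⟨q, Set.ext fun t => ⟨fun ht => ?_, fun ht => ?_⟩⟩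
    · have h3 : M.side e.1.F = s(q, r) :=
        ((Sym2.mem_and_mem_iff hne.symm).1 ⟨hq, hr⟩)
      have h4 : t ∈ M.side e.1.F := ht.1
      rw [h3, Sym2.mem_iff] at h4
      rcases h4 with h4 | h4
      · exact h4
      · exact absurd (h4 ▸ ht.2) hrA
    · rw [Set.mem_singleton_iff] at ht
      rw [ht]; exact ⟨hq, hqA⟩
  one' := by
    obtain ⟨q, hq, hqA⟩ := e'.2.2
    obtain ⟨r, hr, hrA⟩ := he'
    have hne : r ≠ q := fun h => hrA (h ▸ hqA)
    refine ⟨q, Set.ext fun t => ⟨fun ht => ?_, fun ht => ?_⟩⟩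
    · have h3 : M.side e'.1.F = s(q, r) :=
        ((Sym2.mem_and_mem_iff hne.symm).1 ⟨hq, hr⟩)
      have h4 : t ∈ M.side e'.1.F := ht.1
      rw [h3, Sym2.mem_iff] at h4
      rcases h4 with h4 | h4
      · exact h4
      · exact absurd (h4 ▸ ht.2) hrA
    · rw [Set.mem_singleton_iff] at ht
      rw [ht]; exact ⟨hq, hqA⟩
  ee := hee
  two z h1 h2 := by
    obtain ⟨a, b, hab⟩ : ∃ a b, M.side z.1.F = s(a, b) := ⟨_, _, (Quot.out_eq _).symm⟩
    refine ⟨a, b, ?_, ?_⟩
    · rintro rfl
      exact M.side_nd z.1.F (by rw [hab]; rfl)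
    · ext q
      constructor
      · intro h
        have := h.1
        rw [hab, Sym2.mem_iff] at this
        exact this
      · intro h
        have h3 : q ∈ M.side z.1.F := by rw [hab, Sym2.mem_iff]; exact h
        exact ⟨h3, hin z h1 h2 q h3⟩
  no G hG := by
    have h1 := hno (Subtype.val '' G) (by
      rintro _ ⟨z, hz, rfl⟩ q hq
      obtain ⟨h1, h2, h3⟩ := hG z hz
      have hqA := hin z h1 h2 q hq
      refine ⟨hqA, narcT A q z, h3 q ⟨hq, hqA⟩, narcT_val A ⟨hq, hqA⟩⟩)
    exact Set.image_eq_empty.1 h1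

section rfls

variable (A : s.Arcs Act) (hno : ∀ G : Set s.Dbl, A.Closed G → G = ∅)
    (nm : Bool → I) (e e' : NdT s Act nm) (hee : e ≠ e')
    (he : ∃ q ∈ M.side e.1.F, q ∉ Act) (he' : ∃ q ∈ M.side e'.1.F, q ∉ Act)
    (hin : ∀ z : NdT s Act nm, z ≠ e → z ≠ e' → ∀ q ∈ M.side z.1.F, q ∈ Act)

theorem stChnT_S : (stChnT A hno nm e e' hee he he' hin).S = sidT s Act := rfl

theorem stChnT_e : (stChnT A hno nm e e' hee he he' hin).e = e := rfl

theorem stChnT_e' : (stChnT A hno nm e e' hee he he' hin).e' = e' := rfl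

theorem stChnT_arc {q : ι} {z : NdT s Act nm} (h : q ∈ (stChnT A hno nm e e' hee he he' hin).S z) :
    ((stChnT A hno nm e e' hee he he' hin).arc q z).1 = A.arc q z.1 := narcT_val A h

end rfls

end Crest.Agent.R096.At_241
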