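import Crest.Agent.R096.At6_241
import Crest.Agent.R096.Cp6_298

/-!
# R096 (row 96), SQ-CHN (helper241), part 3: (E2) for the initial state gives (E2) for the final state

* `Cr`, `OneCr` : exactly one crossing of two sheets on a set of faces;
* `OneCr.copy` : transport to the copies (298's `Cps`) on frozen faces;
* `OneCr.node` : exactly one node;
* `Ends.mk'`.
-/

set_option autoImplicit false
set_option linter.unusedSectionVars false

namespace Crest.Agent.R096.At_241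

open Crest.Agent.R096.St_147 Crest.Agent.R096.Seq_213 Crest.Agent.R096.Cp_298
open Crest.Agent.R096.Arc_422 (Chn)

variable {ι Φ W J J1 C K : Type} {M : MeshC ι Φ W} {fam : J → C} {fam1 : J1 → C}

/-- the chords of `w` and `v` on `F` cross; their names are `j`, `j'` -/
def Cr (s : GSt M fam) (F : Φ) (j j' : J) (w v : W) : Prop :=
  s.At F w ∧ s.At F v ∧ s.lab w = j ∧ s.lab v = j' ∧ M.Lace F w (s.mu F w) v (s.mu F v)

/-- **(E2)**: exactly one crossing of the sheets `j`, `j'` on the faces `Φ₀` -/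
def OneCr (s : GSt M fam) (Φ₀ : Set Φ) (j j' : J) : Prop :=
  ∃ F ∈ Φ₀, ∃ w v, Cr s F j j' w v ∧ ∀ F' ∈ Φ₀, ∀ w' v', Cr s F' j j' w' v' →
    F' = F ∧ (w' = w ∨ w' = s.mu F w) ∧ (v' = v ∨ v' = s.mu F v)

/-- a point on a face which is not inner to a quad is marked -/
theorem far_of_frozen {s : GSt M fam} {Q : Quads ι C K} {far : J → Set W} (hI : s.Inv Q far)
    {F : Φ} (hF : ∀ k, ¬ Inner M (Q.Act k) F) {w : W} (hw : s.At F w) : w ∈ far (s.lab w) := by
  rcases hI.loc hw.1 with h | ⟨k, -, h⟩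
  · exact h
  · exact absurd (h.2 F hw.2) (hF k)

theorem ok_of_frozen {s : GSt M fam} {Q : Quads ι C K} {F : Φ} (hF : ∀ k, ¬ Inner M (Q.Act k) F)
    (w : W) : s.OK Q F w := fun k _ h => absurd h (hF k)

section copy

variable {O : Ori M} {Q : Quads ι C K} {Rel : W → W → Prop} {s₀ : GSt M fam}
  {far₀ : J → Set W} {σ₀ : W → ZMod 2} {p : J1 → J} {m : J1 → ℕ} {s : GSt M fam1}
  {far : J1 → Set W} {β : W → W}

/-- the chord of a copy on a frozen face -/
theorem mu_copy (h : Cps O Q Rel s₀ far₀ σ₀ p m s far β) (h₀ : s₀.Inv Q far₀)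
    (hI : s.Inv Q far) {F : Φ} (hF : ∀ k, ¬ Inner M (Q.Act k) F) {x : W} (hx : s.At F x) :
    s₀.At F (β x) ∧ s₀.lab (β x) = p (s.lab x) ∧ β (s.mu F x) = s₀.mu F (β x) := by
  have h1 := far_of_frozen hI hF hx
  have h2 : s₀.At F (β x) := ⟨h.mem hx.1, (h.on F hx.1).1 hx.2⟩
  have h3 := h.far_mem h1
  have h4 : s₀.lab (β x) = p (s.lab x) := (h₀.far_mem h3).2
  have h5 : s₀.At F (s₀.mu F (β x)) := s₀.mu_mem h2.1 h2.2
  have h6 := far_of_frozen h₀ hF h5
  rw [s₀.mu_lab h2.1 h2.2, h4] at h6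
  exact ⟨h2, h4, (h.ok h1 h2 h6 (ok_of_frozen hF _)).1⟩

/-- positions of copies of different points -/
theorem pos_copy (h : Cps O Q Rel s₀ far₀ σ₀ p m s far β) {F : Φ} {x y : W} (hx : s.At F x)
    (hy : s.At F y) (hne : β x ≠ β y) :
    M.pos F x < M.pos F y ↔ M.pos F (β x) < M.pos F (β y) := by
  have h1 := (h.on F hx.1).1 hx.2
  have h2 := (h.on F hy.1).1 hy.2
  have hp : M.pos F (β x) ≠ M.pos F (β y) := fun e => hne (M.pos_inj F h1 h2 e)
  refine ⟨fun h3 => ?_, fun h3 => h.lt hx hy h3⟩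
  rcases lt_or_gt_of_ne hp with h4 | h4
  · exact h4
  · exact absurd (h.lt hy hx h4) (not_lt.2 h3.le)

/-- lacing of copies of chords of different families on a frozen face -/
theorem lace_copy (h : Cps O Q Rel s₀ far₀ σ₀ p m s far β) (h₀ : s₀.Inv Q far₀)
    (hI : s.Inv Q far) {F : Φ} (hF : ∀ k, ¬ Inner M (Q.Act k) F) {x y : W} (hx : s.At F x)
    (hy : s.At F y) (hne : p (s.lab x) ≠ p (s.lab y)) :
    M.Lace F x (s.mu F x) y (s.mu F y) ↔
      M.Lace F (β x) (s₀.mu F (β x)) (β y) (s₀.mu F (β y)) := by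
  obtain ⟨a1, a2, a3⟩ := mu_copy h h₀ hI hF hx
  obtain ⟨b1, b2, b3⟩ := mu_copy h h₀ hI hF hy
  have hx' : s.At F (s.mu F x) := s.mu_mem hx.1 hx.2
  have hy' : s.At F (s.mu F y) := s.mu_mem hy.1 hy.2
  have lx : s₀.lab (β (s.mu F x)) = p (s.lab x) := by
    rw [a3, s₀.mu_lab a1.1 a1.2, a2]
  have ly : s₀.lab (β (s.mu F y)) = p (s.lab y) := by
    rw [b3, s₀.mu_lab b1.1 b1.2, b2]
  have n1 : β x ≠ β y := fun e => hne (by rw [← a2, ← b2, e])
  have n2 : β x ≠ β (s.mu F y) := fun e => hne (by rw [← a2, ← ly, e])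
  have n3 : β (s.mu F x) ≠ β y := fun e => hne (by rw [← lx, ← b2, e])
  have n4 : β (s.mu F x) ≠ β (s.mu F y) := fun e => hne (by rw [← lx, ← ly, e])
  unfold MeshC.Lace MeshC.Btw
  rw [← a3, ← b3, pos_copy h hx hy n1, pos_copy h hy hx n1.symm, pos_copy h hx hy' n2,
    pos_copy h hy' hx n2.symm, pos_copy h hx' hy n3, pos_copy h hy hx' n3.symm,
    pos_copy h hx' hy' n4, pos_copy h hy' hx' n4.symm]

/-- **(E2) for the copies** -/
theorem OneCr.copy (h : Cps O Q Rel s₀ far₀ σ₀ p m s far β) (h₀ : s₀.Inv Q far₀)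
    (hI : s.Inv Q far) {Φ₀ : Set Φ} (hF : ∀ F ∈ Φ₀, ∀ k, ¬ Inner M (Q.Act k) F) {j j' : J1}
    (hne : p j ≠ p j') (h1 : OneCr s₀ Φ₀ (p j) (p j')) : OneCr s Φ₀ j j' := by
  obtain ⟨F, hF0, w, v, ⟨c1, c2, c3, c4, c5⟩, hu⟩ := h1
  have hf := hF F hF0
  have e1 := far_of_frozen h₀ hf c1
  have e2 := far_of_frozen h₀ hf c2
  rw [c3] at e1
  rw [c4] at e2
  obtain ⟨x, hx, rfl⟩ := h.far_ex e1
  obtain ⟨y, hy, rfl⟩ := h.far_ex e2
  obtain ⟨hxP, hxl⟩ := hI.far_mem hx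
  obtain ⟨hyP, hyl⟩ := hI.far_mem hy
  have hxA : s.At F x := ⟨hxP, (h.on F hxP).2 c1.2⟩
  have hyA : s.At F y := ⟨hyP, (h.on F hyP).2 c2.2⟩
  refine ⟨F, hF0, x, y, ⟨hxA, hyA, hxl, hyl, ?_⟩, ?_⟩
  · rw [lace_copy h h₀ hI hf hxA hyA (by rw [hxl, hyl]; exact hne)]
    exact c5
  · rintro F' hF' x' y' ⟨d1, d2, d3, d4, d5⟩
    have hf' := hF F' hF'
    obtain ⟨a1, a2, a3⟩ := mu_copy h h₀ hI hf' d1
    obtain ⟨b1, b2, b3⟩ := mu_copy h h₀ hI hf' d2
    rw [lace_copy h h₀ hI hf' d1 d2 (by rw [d3, d4]; exact hne)] at d5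
    obtain ⟨rfl, g1, g2⟩ := hu F' hF' (β x') (β y') ⟨a1, b1, by rw [a2, d3], by rw [b2, d4], d5⟩
    have key : ∀ {i : J1} {u u' : W}, s.At F' u → s.At F' u' → s.lab u = i → s.lab u' = i →
        (β u' = β u ∨ β u' = s₀.mu F' (β u)) → u' = u ∨ u' = s.mu F' u := by
      intro i u u' hu hu' hl hl' hb
      have f1 := far_of_frozen hI hf' hu
      have f2 := far_of_frozen hI hf' hu'
      rw [hl] at f1
      rw [hl'] at f2
      rcases hb with hb | hb
      · exact Or.inl (h.far_uniq f2 f1 hb)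
      · right
        have hum : s.At F' (s.mu F' u) := s.mu_mem hu.1 hu.2
        have f3 := far_of_frozen hI hf' hum
        rw [s.mu_lab hu.1 hu.2, hl] at f3
        rw [← (mu_copy h h₀ hI hf' hu).2.2] at hb
        exact h.far_uniq f2 f3 hb
    exact ⟨rfl, key hxA d1 hxl d3 g1, key hyA d2 hyl d4 g2⟩

end copy

section node

variable {s : GSt M fam} {Q : Quads ι C K} {k : K} {i0 : Q.Nm fam k} {nm : Bool → Q.Nm fam k}

/-- **exactly one node** -/
theorem OneCr.node {A0 : Set ι} (hnm : ∀ b, fam (nm b).1 = Q.pr k b)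
    (h : OneCr s {F | (∃ q ∈ M.side F, q ∈ A0) ∧ Tch M (Q.Act k) F} (nm true).1 (nm false).1) :
    ∃! z : NdT (s.res Q k i0) (Q.Act k) nm, ∃ q ∈ M.side z.1.F, q ∈ A0 := by
  obtain ⟨F, ⟨hA, hT⟩, w, v, ⟨c1, c2, c3, c4, c5⟩, hu⟩ := h
  have inw : Q.In k (fam (s.lab w)) := by rw [c3]; exact (nm true).2
  have inv' : Q.In k (fam (s.lab v)) := by rw [c4]; exact (nm false).2
  have hw : (s.res Q k i0).At F w := GSt.res_at.2 ⟨c1, inw⟩
  have hv : (s.res Q k i0).At F v := GSt.res_at.2 ⟨c2, inv'⟩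
  have lw : (s.res Q k i0).lab w = nm true := (GSt.res_lab_iff inw).2 c3
  have lv : (s.res Q k i0).lab v = nm false := (GSt.res_lab_iff inv').2 c4
  have cw : Q.cl fam k (nm true) = true := (Q.cl_iff fam k _ _).2 (hnm true)
  have cv : Q.cl fam k (nm false) = false := (Q.cl_iff fam k _ _).2 (hnm false)
  obtain ⟨z, z1, z2, z3⟩ := exists_dbl (s.res Q k i0) hw hv (by rw [lw, lv, cw, cv]; simp) c5
  rw [lw, cw] at z2
  rw [lv, cv] at z3
  have zl : ∀ x, (s.res Q k i0).lab (z.e x) = nm x := by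
    intro x
    cases x
    · rw [z3, lo_lab _ hv, lv]
    · rw [z2, lo_lab _ hw, lw]
  refine ⟨⟨z, zl, by rw [z1]; exact hT⟩, ?_, ?_⟩
  · show ∃ q ∈ M.side z.F, q ∈ A0
    rw [z1]; exact hA
  · rintro ⟨u, ul, uT⟩ huA
    have hat : ∀ x, s.At u.F (u.e x) ∧ Q.In k (fam (s.lab (u.e x))) := fun x => nd_at u x
    have hlab : ∀ x, s.lab (u.e x) = (nm x).1 := fun x => by
      have h1 := ul x
      exact (GSt.res_lab_iff (hat x).2).1 h1
    obtain ⟨g1, g2, g3⟩ := hu u.F ⟨huA, uT⟩ (u.e true) (u.e false)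
      ⟨(hat true).1, (hat false).1, hlab true, hlab false, u.lace⟩
    have key : ∀ {a b : W}, (s.res Q k i0).At F a → (b = a ∨ b = s.mu F a) →
        M.pos F b < M.pos F (s.mu F b) → b = (s.res Q k i0).lo F a := by
      intro a b ha hb hlt
      have hmu : s.mu F (s.mu F a) = a := (s.res Q k i0).mu_mu ha.1 ha.2
      unfold St.lo
      rcases hb with rfl | rfl
      · rw [if_pos (show M.pos F b ≤ M.pos F ((s.res Q k i0).mu F b) from hlt.le)]
      · rw [hmu] at hlt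
        rw [if_neg (show ¬ M.pos F a ≤ M.pos F ((s.res Q k i0).mu F a) from not_le.2 hlt)]
        rfl
    obtain ⟨uF, ue, uat, ulow, ucolr, ulace⟩ := u
    obtain ⟨zF, ze, zat, zlow, zcolr, zlace⟩ := z
    have hF : uF = F := g1
    have hF' : zF = F := z1
    subst hF
    subst hF'
    have he : ue = ze := by
      funext x
      cases x
      · exact (key hv g3 (ulow false)).trans z3.symm
      · exact (key hw g2 (ulow true)).trans z2.symm
    subst he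
    rfl

/-- **the ends of the chain** -/
theorem Ends.mk' {far : J → Set W} (hI : s.Inv Q far) {A0 A1 : Set ι}
    (hnm : ∀ b, fam (nm b).1 = Q.pr k b)
    (h0 : OneCr s {F | (∃ q ∈ M.side F, q ∈ A0) ∧ Tch M (Q.Act k) F} (nm true).1 (nm false).1)
    (h1 : OneCr s {F | (∃ q ∈ M.side F, q ∈ A1) ∧ Tch M (Q.Act k) F} (nm true).1 (nm false).1)
    (d0 : Disjoint A0 (Q.Act k)) (d1 : Disjoint A1 (Q.Act k)) (d : Disjoint A0 A1)
    (hN : ∀ F, Tch M (Q.Act k) F → ∀ w w', s.At F w → s.At F w' → w ∈ far (s.lab w) →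
      w' ∈ far (s.lab w') → Q.In k (fam (s.lab w)) → Q.In k (fam (s.lab w')) →
      fam (s.lab w) ≠ fam (s.lab w') → ∀ q ∈ M.side F, q ∈ Q.Act k ∨ q ∈ A0 ∪ A1) :
    Ends s Q k i0 nm A0 A1 where
  one0 := h0.node hnm
  one1 := h1.node hnm
  d0 := d0
  d1 := d1
  d := d
  fr := fun z q hq => frozen_core hI hN z hq

end node

end Crest.Agent.R096.At_241
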