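import Crest.Agent.R096.At3_241
import Crest.Agent.R096.SkB1b_662
import Crest.Agent.R096.SkB1d_662

/-!
# R096 (row 96), ARR-INST part 8 (helper241): the quads of the foam over the mesh and the squares of
the grid

* `QPos` : position of the mesh cells and of the active cells of the quads (no state);
* `QSt` : the initial state `s₀` over the quads, (E2) = `Two` and (N1) = `NI` of helper662;
* `QPos.exists_quad`, `exists_sqSh'` : the quad and the two sheets of a square;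
* `QSt.act_of`, **`QSt.actSq`** : the active cells of a square;
* **`QSt.ends`** : the two ends of the double curve.
-/

set_option autoImplicit false
set_option linter.unusedSectionVars false
set_option linter.unusedVariables false
set_option linter.style.longLine false

open Set Metric Topology Module
open scoped Classical

namespace Crest.Agent.R096.At_241

open Crest.Agent.R096.Ce_537 Crest.Agent.R096.Bd_416 Crest.Agent.R096.Mg_441
  Crest.Agent.R096.Xp_537 Crest.Agent.R096.Grd_714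
open Crest.Agent.R096.St_147 Crest.Agent.R096.Seq_213 Crest.Agent.R096.Lm_117
  Crest.Agent.R096.Cp_298 Crest.Agent.R096.SkB_662
open Crest.Agent.R096.Brk1_582 (Foam fc)

variable {ι Φ W Q J Fam Kq : Type} {M : MeshC ι Φ W} [PartialOrder Q] {dim : Q → ℕ}
variable {E : Type*} [NormedAddCommGroup E] [NormedSpace ℝ E]

/-- **position of the quads over the mesh**: `y q` = the position of the cell `q` in the foam,
`tc τ` = the 3-cell of the tile `τ` (`ord τ`: outside the cores), `core c` = the tile of the core `c`,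
`Zk k` = the two zero families of the quad `k`. -/
structure QPos (L : LM M Q dim) (Qd : Quads ι Fam Kq) (Pf : Fam → Set E) (y : Q → Fam → ℝ)
    (tc : ι → Q) (ord : ι → Prop) (Zk : Kq → Set Fam) (core : Fam → ι) : Prop where
  dim3 : ∀ τ, ord τ → dim (tc τ) = 3
  side : ∀ τ, ord τ → ∀ F, (τ ∈ M.side F ↔ L.cf F ≤ tc τ)
  tc_inj : ∀ τ τ', ord τ → ord τ' → tc τ = tc τ' → τ = τ'
  top : ∀ q : Q, ∃ τ, ord τ ∧ q ≤ tc τ
  nord : ∀ c, ¬ ord (core c)
  inj : Function.Injective core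
  cZ : ∀ k, (Zk k).ncard = 2
  act_ord : ∀ k, ∀ τ ∈ Qd.Act k, ord τ
  act_pos : ∀ k, ∀ τ ∈ Qd.Act k, ∀ a, Qd.In k a → 0 < y (tc τ) a ∧ y (tc τ) a < 1
  act_zero : ∀ k, ∀ τ ∈ Qd.Act k, ∀ a ∈ Zk k, y (tc τ) a = 0
  sq : ∀ B Z₀ : Set Fam, B.ncard = 2 → Z₀.ncard = 2 → Disjoint B Z₀ →
    (fc Pf (B ∪ Z₀)).Nonempty → ∃ k, {a | Qd.In k a} = B ∧ Zk k = Z₀
  uniq : ∀ k k', {a | Qd.In k a} = {a | Qd.In k' a} → Zk k = Zk k' → k = k'

/-- **the initial state over the quads** -/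
structure QSt (L : LM M Q dim) (Qd : Quads ι Fam Kq) {fam : J → Fam} (s₀ : GSt M fam)
    (far₀ : J → Set W) (y : Q → Fam → ℝ) (tc : ι → Q) (ord : ι → Prop) (Zk : Kq → Set Fam)
    (core : Fam → ι) : Prop where
  /-- an ordinary tile over the quad with points of both families is active -/
  pts : ∀ k τ, ord τ → ∀ w w', w ∈ s₀.P → w ∈ L.toSk.In (tc τ) → w' ∈ s₀.P →
    w' ∈ L.toSk.In (tc τ) → fam (s₀.lab w) = Qd.pr k true → fam (s₀.lab w') = Qd.pr k false →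
    (∀ a ∈ Zk k, y (tc τ) a = 0) → τ ∈ Qd.Act k
  /-- (E2) -/
  two : ∀ k, ∀ c ∈ Zk k, ∀ j j', fam j = Qd.pr k true → fam j' = Qd.pr k false →
    Two s₀ (Qd.Act k) {core c} j j'
  /-- (N1) -/
  ni : ∀ k c0 c1, Zk k = {c0, c1} → NI s₀ far₀ Qd k ({core c0} ∪ {core c1})

/-- the quad of a square -/
def SqK (Qd : Quads ι Fam Kq) (Zk : Kq → Set Fam) {Pf : Fam → Set E} {m : Fam → ℕ} (q : Gx Pf m)
    (k : Kq) : Prop :=
  {a | Qd.In k a} = q.free ∧ Zk k = {a | q.hi a = 0}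

theorem in_eq (Qd : Quads ι Fam Kq) (k : Kq) : {a | Qd.In k a} = {Qd.pr k true, Qd.pr k false} := by
  ext a
  constructor
  · rintro ⟨b, rfl⟩
    cases b
    · exact Or.inr rfl
    · exact Or.inl rfl
  · rintro (rfl | h)
    · exact ⟨true, rfl⟩
    · rw [mem_singleton_iff.1 h]; exact ⟨false, rfl⟩

theorem in_ncard (Qd : Quads ι Fam Kq) (k : Kq) : {a | Qd.In k a}.ncard = 2 := by
  rw [in_eq, Set.ncard_pair (Qd.ne k)]

section quad

variable {L : LM M Q dim} {Qd : Quads ι Fam Kq} {fam : J → Fam}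
  {Pf : Fam → Set E} {y : Q → Fam → ℝ} {tc : ι → Q} {ord : ι → Prop} {Zk : Kq → Set Fam}
  {core : Fam → ι} {Λ : Set E} {b : Set Fam → E} [FiniteDimensional ℝ E]

/-- **the quad of a square** -/
theorem QPos.exists_quad (G : QPos L Qd Pf y tc ord Zk core) (F : Foam Λ Pf b 4) {m : Fam → ℕ}
    (hm : ∀ a, 0 < m a) {q : Gx Pf m} (hq : q.free.ncard = 2) : ∃ k, SqK Qd Zk q k := by
  obtain ⟨h1, h2, h3⟩ := sq_zero F hm hq
  refine G.sq q.free {a | q.hi a = 0} hq h1 ?_ ?_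
  · rw [Set.disjoint_left]
    intro a ha h0
    have h4 : q.lo a < q.hi a := ha
    have h5 : q.hi a = 0 := h0
    omega
  · obtain ⟨z, hz⟩ := q.face
    refine ⟨z, Brk1_582.mem_fc.2 ?_⟩
    rintro a (ha | ha)
    · refine Brk1_582.mem_fc.1 hz a ?_
      have h4 : q.lo a < q.hi a := ha
      have := q.him a
      show q.lo a < m a
      omega
    · refine Brk1_582.mem_fc.1 hz a ?_
      have h4 : q.hi a = 0 := ha
      have := q.le a
      have := hm a
      show q.lo a < m a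
      omega

variable {Cc : Cmb Q dim J Fam} {hfin : ∀ a, {j | Cc.fam j = a}.Finite} {ℓ : J → ℝ}

/-- the two sheets of a square, in the order of the quad -/
theorem exists_sqSh' (hℓ : ∀ j j', j ≠ j' → Cc.fam j = Cc.fam j' → ℓ j ≠ ℓ j')
    {q : Gx Pf (Mg_441.mm hfin)} {k : Kq} (hk : SqK Qd Zk q k) :
    ∃ nm : Bool → J, SqSh hfin ℓ q nm ∧ ∀ β, Cc.fam (nm β) = Qd.pr k β := by
  have hf : q.free = {Qd.pr k true, Qd.pr k false} := by rw [← hk.1, in_eq]
  have h1 : ∀ β, Qd.pr k β ∈ q.free := by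
    intro β
    rw [← hk.1]
    exact ⟨β, rfl⟩
  have h2 : ∀ β, ∃ j, Cc.fam j = Qd.pr k β ∧ IsSh hfin ℓ q j := fun β =>
    exists_sh (Pf := Pf) hℓ q (h1 β)
  choose nm h3 h4 using h2
  refine ⟨nm, ⟨h4, ?_, ?_⟩, h3⟩
  · rw [h3, h3]; exact Qd.ne k
  · rw [h3, h3]; exact hf

end quad

section sto

variable {L : LM M Q dim} {O : Ori M} {σ : Q → ZMod 2} {Rel : W → W → Prop} {V : Set W}
  {Qd : Quads ι Fam Kq} {κ : Fam → ℕ} {fam : J → Fam} {s₀ : GSt M fam} {far₀ : J → Set W}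
  {G : Fam → Set W} {Z : Fam → Set Q} {lam₀ : J → Q → ZMod 2} {v₀ v₁ : Fam → Q}
  {hfin : ∀ a, {j | fam j = a}.Finite} {kap : Fam → ℕ} {s : GSt M (fam' fam (Rk κ kap))}
  {far : Nm' fam (Rk κ kap) → Set W} {β : W → W} {lam : Nm' fam (Rk κ kap) → Q → ZMod 2}
variable {Pf : Fam → Set E} {y : Q → Fam → ℝ} {tc : ι → Q} {ord : ι → Prop} {Zk : Kq → Set Fam}
  {core : Fam → ι} {Λ : Set E} {b : Set Fam → E} [FiniteDimensional ℝ E] {D : Set Q}

/-- a point of a 3-cell lies on a face of its tile -/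
theorem QPos.exists_face (Gq : QPos L Qd Pf y tc ord Zk core) (X3 : Top3 L) {τ : ι} (hτ : ord τ)
    {w : W} (hw : w ∈ L.toSk.In (tc τ)) : ∃ F, w ∈ M.On F ∧ τ ∈ M.side F := by
  have hd := L.ed_dim w hw.1
  have hlt : L.ed w < tc τ := by
    refine lt_of_le_of_ne hw.2 fun h => ?_
    rw [h, Gq.dim3 τ hτ] at hd
    omega
  obtain ⟨F, h1, h2⟩ := X3.mid _ (Gq.dim3 τ hτ) _ hd hlt
  exact ⟨F, (L.on_iff F w).2 ⟨hw.1, h1⟩, (Gq.side τ hτ F).2 h2⟩

/-- **the active tiles of a square**: an ordinary tile over the open square with final points of both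
sheets -/
theorem QSt.act_of (Gs : QSt L Qd s₀ far₀ y tc ord Zk core) (Gq : QPos L Qd Pf y tc ord Zk core)
    (h : StO L O σ Rel V Qd κ s₀ far₀ Z lam₀ v₀ v₁ hfin kap s far β lam)
    (hi : StI L O σ Rel V Qd κ s₀ far₀ G Z lam₀ v₀ v₁) (F : Foam Λ Pf b 4)
    {m : Fam → ℕ} (hm : ∀ a, 0 < m a) {q : Gx Pf m} (hq : q.free.ncard = 2) {k : Kq}
    (hk : SqK Qd Zk q k) {τ : ι} (hτ : ord τ) (hyK : y (tc τ) ∈ K2 Pf) (ho : Ovr q (y (tc τ)))
    {w : Bool → W} (hw : ∀ x, w x ∈ s.P ∧ w x ∈ L.toSk.In (tc τ))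
    (hf : ∀ x, fam' fam (Rk κ kap) (s.lab (w x)) = Qd.pr k x) : τ ∈ Qd.Act k := by
  obtain ⟨z1, z2, z3⟩ := y_zero F hyK hq ho.1
  have hz : {a | q.hi a = 0} = {a | y (tc τ) a = 0} :=
    Set.eq_of_subset_of_ncard_le (fun a ha => ho.2 a ha) (by rw [(sq_zero F hm hq).1, z1]) z2
  by_cases hfar : ∀ x, w x ∈ far (s.lab (w x))
  · -- both points are marked
    have hb : ∀ x, β (w x) ∈ s₀.P ∧ β (w x) ∈ L.toSk.In (tc τ) ∧
        fam (s₀.lab (β (w x))) = Qd.pr k x := by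
      intro x
      have hbP := h.cps.mem (hw x).1
      have hb1 : β (w x) ∈ L.W1 := hi.V1 (hi.PV hbP)
      have hbe := (hi.rel (w x) _ (h.cps.rel (hw x).1) hb1).2
      refine ⟨hbP, ⟨hb1, by rw [← hbe]; exact (hw x).2.2⟩, ?_⟩
      have h1 := (hi.inv.far_mem (h.cps.far_mem (hfar x))).2
      rw [h1, ← hf x]
    refine Gs.pts k τ hτ (β (w true)) (β (w false)) (hb true).1 (hb true).2.1 (hb false).1
      (hb false).2.1 (hb true).2.2 (hb false).2.2 fun a ha => ?_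
    have h1 : a ∈ {a | q.hi a = 0} := by rw [← hk.2]; exact ha
    exact ho.2 a h1
  · push Not at hfar
    obtain ⟨x, hx⟩ := hfar
    rcases h.inv.loc (hw x).1 with h1 | ⟨k', -, hint⟩
    · exact absurd h1 hx
    · obtain ⟨F', hF1, hF2⟩ := Gq.exists_face hi.top hτ (hw x).2
      have hτ' : τ ∈ Qd.Act k' := hint.2 F' hF1 τ hF2
      have hin : {a | Qd.In k' a} = {a | Qd.In k a} := by
        refine Set.eq_of_subset_of_ncard_le ?_ (by rw [in_ncard, in_ncard]) ?_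
        · intro a ha
          have h2 := Gq.act_pos k' τ hτ' a ha
          rw [hk.1]
          by_contra hna
          exact h2.2.ne (z3 a hna h2.1.ne')
        · rw [in_eq]; exact Set.toFinite _
      have hZ : Zk k' = Zk k := by
        rw [hk.2, hz]
        refine Set.eq_of_subset_of_ncard_le (fun a ha => Gq.act_zero k' τ hτ' a ha) ?_ z2
        rw [Gq.cZ, z1]
      rw [← Gq.uniq k' k hin hZ]
      exact hτ'

/-- a piece of the final combinatorics in a cell gives a point of the sheet in the cell -/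
theorem StO.exists_pt (h : StO L O σ Rel V Qd κ s₀ far₀ Z lam₀ v₀ v₁ hfin kap s far β lam)
    {p : Q} {x : h.cmb.I p} {j : Nm' fam (Rk κ kap)} (hx : h.cmb.col p x = j) :
    ∃ w, w ∈ s.P ∧ w ∈ L.toSk.In p ∧ s.lab w = j := by
  have h1 := rep_mem h.lfs (show Pc L s p from x)
  have h2 := pts_in h1
  refine ⟨_, h2.1, h2.2, ?_⟩
  rw [← pcol_pts h1]
  exact hx

variable {E' : Type*} [NormedAddCommGroup E'] [NormedSpace ℝ E'] {K : Q → Set E'}

/-- **the active cells of a square** -/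
theorem QSt.actSq (Gs : QSt L Qd s₀ far₀ y tc ord Zk core) (Gq : QPos L Qd Pf y tc ord Zk core)
    (h : StO L O σ Rel V Qd κ s₀ far₀ Z lam₀ v₀ v₁ hfin kap s far β lam)
    (hi : StI L O σ Rel V Qd κ s₀ far₀ G Z lam₀ v₀ v₁)
    (hK : K4In L Qd s₀ Z v₀ Pf D y) (hD : ∀ τ, ord τ → tc τ ∈ D)
    (F : Foam Λ Pf b 4) {m : Fam → ℕ} (hm : ∀ a, 0 < m a) {q : Gx Pf m}
    (hq : q.free.ncard = 2) {k : Kq} (hk : SqK Qd Zk q k)
    {nm : Bool → Nm' fam (Rk κ kap)} (hnm : ∀ x, fam (nm x).1 = Qd.pr k x)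
    {S : Set E'} (hS : ∀ p, K p ⊆ S) (hcov : ∀ z ∈ S, ∃ p, z ∈ K p)
    (hmono : ∀ p r, p ≤ r → K p ⊆ K r) :
    ActSq h.cmb Pf K q nm S (Qd.Act k) tc where
  sub := fun τ _ => hS _
  ovr := fun τ hτ => by
    refine ⟨y (tc τ), h.ex hi hK (hD τ (Gq.act_ord k τ hτ)), fun a ha => ?_, fun a ha => ?_⟩
    · have h1 : a ∈ {a | Qd.In k a} := by rw [hk.1]; exact ha
      exact Gq.act_pos k τ hτ a h1
    · have h1 : a ∈ Zk k := by rw [hk.2]; exact ha
      exact Gq.act_zero k τ hτ a h1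
  cov := fun z hz => by
    obtain ⟨p, hp⟩ := hcov z hz
    obtain ⟨τ, hτ, hle⟩ := Gq.top p
    refine ⟨tc τ, y (tc τ), hmono _ _ hle hp, h.ex hi hK (hD τ hτ), fun ho hx => ?_⟩
    choose x hx using hx
    have hpt := fun e => StO.exists_pt h (hx e)
    choose w w1 w2 w3 using hpt
    refine ⟨τ, Gs.act_of Gq h hi F hm hq hk hτ (hK.mem _ (hD τ hτ)) ho (w := w)
      (fun e => ⟨w1 e, w2 e⟩) (fun e => ?_), rfl⟩
    rw [w3 e]
    exact hnm e

/-- **the ends of the double curve over the quad `k`** -/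
theorem QSt.ends (Gs : QSt L Qd s₀ far₀ y tc ord Zk core) (Gq : QPos L Qd Pf y tc ord Zk core)
    (h : StO L O σ Rel V Qd κ s₀ far₀ Z lam₀ v₀ v₁ hfin kap s far β lam)
    (hi : StI L O σ Rel V Qd κ s₀ far₀ G Z lam₀ v₀ v₁) {k : Kq} {c0 c1 : Fam} (hc : c0 ≠ c1)
    (hZ : Zk k = {c0, c1}) (i0 : Qd.Nm (fam' fam (Rk κ kap)) k)
    (nm : Bool → Qd.Nm (fam' fam (Rk κ kap)) k) (hnm : ∀ x, fam (nm x).1.1 = Qd.pr k x) :
    Ends s Qd k i0 nm {core c0} {core c1} := by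
  have hnA : ∀ c k', core c ∉ Qd.Act k' := fun c k' hc => Gq.nord c (Gq.act_ord k' _ hc)
  refine StO.ends h hi.inv hnm ?_ ?_ ?_ (Gs.two k c0 (by rw [hZ]; exact Or.inl rfl) _ _ (hnm true)
    (hnm false)) (Gs.two k c1 (by rw [hZ]; exact Or.inr rfl) _ _ (hnm true) (hnm false))
    (Gs.ni k c0 c1 hZ)
  · intro k' q hq
    rw [mem_singleton_iff.1 hq]; exact hnA c0 k'
  · intro k' q hq
    rw [mem_singleton_iff.1 hq]; exact hnA c1 k'
  · rw [Set.disjoint_singleton_left, mem_singleton_iff]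
    exact fun e => hc (Gq.inj e)

end sto

end Crest.Agent.R096.At_241
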