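import Crest.Agent.R096.At8_241
import Crest.Agent.R096.Arc16_778

/-!
# R096 (row 96), ARR-INST part 9 (helper241): the squares of the grid over the final state `StO`

* `exists_wire` : the quad, the two sheets, the chain and its dictionary (778's `quad_sqd`) of a square;
* **`arcs_sto`** : the truncated fibre of a square is an arc between two cores (input `arcs` of
  `Exact.trn'`, 147's `fin_gout`, 537's `gout_of`);
* **`sq_sto`** : one point of the fibre on the boundary of a core (input `sq` of `exists_Th_mesh`,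
  537's `coreTh_D`).
-/

set_option autoImplicit false
set_option linter.unusedSectionVars false
set_option linter.unusedVariables false
set_option linter.style.longLine false

open Set Metric Topology Module
open scoped Classical

namespace Crest.Agent.R096.At_241

open Crest.Agent.R096.Ce_537 Crest.Agent.R096.Bd_416 Crest.Agent.R096.Mg_441
  Crest.Agent.R096.Xp_537 Crest.Agent.R096.Grd_714
open Crest.Agent.R096.St_147 Crest.Agent.R096.Seq_213 Crest.Agent.R096.Lm_117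
  Crest.Agent.R096.Cp_298 Crest.Agent.R096.SkB_662 Crest.Agent.R096.Ac_117
open Crest.Agent.R096.Brk1_582 (Foam fc)
open Crest.Agent.R096.Ar_241 (dirW cod Exact TopC Tr0 CoreData)
open Crest.Agent.R096.Shp_334 (half_merge exists_num OnMesh)
open Crest.Agent.R096.Arc_422 (Chn)
open Crest.Agent.R096.On_441 (Lf xlf)
open Crest.Agent.R096.Arc_778 (SqD TileG EdgeG EdgeO Zer Gam Geo GeoR CmbG quad_sqd edgeG)

variable {ι Φ W Q J Fam Kq : Type} {M : MeshC ι Φ W} [PartialOrder Q] {dim : Q → ℕ}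
variable {E : Type*} [NormedAddCommGroup E] [NormedSpace ℝ E] [FiniteDimensional ℝ E]
variable {E' : Type*} [NormedAddCommGroup E'] [NormedSpace ℝ E'] [FiniteDimensional ℝ E']
variable {L : LM M Q dim} {O : Ori M} {σ : Q → ZMod 2} {Rel : W → W → Prop} {V : Set W}
  {Qd : Quads ι Fam Kq} {κ : Fam → ℕ} {fam : J → Fam} {s₀ : GSt M fam} {far₀ : J → Set W}
  {G : Fam → Set W} {Z : Fam → Set Q} {lam₀ : J → Q → ZMod 2} {v₀ v₁ : Fam → Q}
  {hfin : ∀ a, {j | fam j = a}.Finite} {kap : Fam → ℕ} {s : GSt M (fam' fam (Rk κ kap))}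
  {far : Nm' fam (Rk κ kap) → Set W} {β : W → W} {lam : Nm' fam (Rk κ kap) → Q → ZMod 2}
variable {Pf : Fam → Set E} {y : Q → Fam → ℝ} {tc : ι → Q} {ord : ι → Prop} {Zk : Kq → Set Fam}
  {core : Fam → ι} {Λ : Set E} {b : Set Fam → E} {D : Set Q}

/-- every face lies in an ordinary tile -/
theorem QPos.exists_side (Gq : QPos L Qd Pf y tc ord Zk core) (F : Φ) :
    ∃ τ, ord τ ∧ τ ∈ M.side F ∧ L.cf F ≤ tc τ := by
  obtain ⟨τ, h1, h2⟩ := Gq.top (L.cf F)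
  exact ⟨τ, h1, (Gq.side τ h1 F).2 h2, h2⟩

/-- **the geometric input**: 416's recursion over the cells of the mesh (helper778's hypotheses) -/
structure GeoIn (h : StO L O σ Rel V Qd κ s₀ far₀ Z lam₀ v₀ v₁ hfin kap s far β lam)
    (Ω0 : Set E') (K : Q → Set E') (g : Gd E' (Nm' fam (Rk κ kap)))
    (P : ∀ q, h.cmb.I q → Set E') (cb : ∀ q, h.cmb.I q → E' → ℝ) (B : Set Q)
    (kk : ∀ q, h.cmb.I q → ℕ) : Prop where
  inv : Inv h.cmb K univ g P cb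
  cplx : Cplx Ω0 Q dim K
  geo : Geo h.cmb K cb B kk
  geoR : GeoR h.cmb K cb B
  cmbG : CmbG h.cmb B kk
  hk : ∀ e ∉ B, dim e = 1 → kk e = ek h.lfs e
  GO : ∀ e ∈ B, dim e = 1 → EdgeO (K e) (cb e) (ek h.lfs e)
  /-- the base consists of cells of dimension `≤ 2` (boundaries of the exact cores) -/
  B2 : ∀ q ∈ B, dim q ≤ 2
  sph : ∀ τ, (∃ k, τ ∈ Qd.Act k) → Nonempty (SphM M τ)

section wire

variable (h : StO L O σ Rel V Qd κ s₀ far₀ Z lam₀ v₀ v₁ hfin kap s far β lam)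
  (hi : StI L O σ Rel V Qd κ s₀ far₀ G Z lam₀ v₀ v₁)
  (hK : K4In L Qd s₀ Z v₀ Pf D y) (hD : ∀ τ, ord τ → tc τ ∈ D)
  (Gq : QPos L Qd Pf y tc ord Zk core) (Gs : QSt L Qd s₀ far₀ y tc ord Zk core)
  {Ω0 : Set E'} {K : Q → Set E'} {g : Gd E' (Nm' fam (Rk κ kap))}
  {P : ∀ q, h.cmb.I q → Set E'} {cb : ∀ q, h.cmb.I q → E' → ℝ} {B : Set Q}
  {kk : ∀ q, h.cmb.I q → ℕ} (Gi : GeoIn h Ω0 K g P cb B kk)
  (F : Foam Λ Pf b 4) {hfin1 : ∀ a, {j | h.cmb.fam j = a}.Finite}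
  (hm : ∀ a, 0 < Mg_441.mm hfin1 a) {ℓ : Nm' fam (Rk κ kap) → ℝ}
  (hℓ : ∀ j j', j ≠ j' → h.cmb.fam j = h.cmb.fam j' → ℓ j ≠ ℓ j')

include hi hK hD Gq Gs Gi F hm hℓ

/-- **the wire of a square** -/
theorem exists_wire {q : Gx Pf (Mg_441.mm hfin1)} (hq : q.free.ncard = 2) :
    ∃ (k : Kq) (i0 : Qd.Nm (fam' fam (Rk κ kap)) k) (nm : Bool → Qd.Nm (fam' fam (Rk κ kap)) k)
      (c0 c1 : Fam) (En : Ends s Qd k i0 nm {core c0} {core c1})
      (Cn : Chn (NdT (s.res Qd k i0) (Qd.Act k) nm) ι) (rk : ∀ c : Q, h.cmb.I c → ℕ)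
      (a' : ∀ z : NdT (s.res Qd k i0) (Qd.Act k) nm, Bool → h.cmb.I (L.cf z.1.F))
      (v : NdT (s.res Qd k i0) (Qd.Act k) nm → E'),
      SqK Qd Zk q k ∧ {a | q.hi a = 0} = {c0, c1} ∧ SqSh hfin1 ℓ q (fun b => (nm b).1) ∧
      (∀ x, fam (nm x).1.1 = Qd.pr k x) ∧ Cn.e = En.e ∧ Cn.e' = En.e' ∧
      (∀ τ ∈ Qd.Act k, TileG (K (tc τ)) (bdS K (tc τ)) (cb (tc τ)) (rk (tc τ))) ∧
      SqD h.cmb K cb Cn (Qd.Act k) tc (fun b => (nm b).1) (fun τ => rk (tc τ))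
        (fun z => L.cf z.1.F) a' v := by
  obtain ⟨k, hk⟩ := Gq.exists_quad F hm hq
  obtain ⟨nm0, hs, hpr⟩ := exists_sqSh' (Cc := h.cmb) (hfin := hfin1) hℓ hk
  have hpr' : ∀ x, fam (nm0 x).1 = Qd.pr k x := hpr
  let nm : Bool → Qd.Nm (fam' fam (Rk κ kap)) k := fun x => ⟨nm0 x, ⟨x, (hpr x).symm⟩⟩
  obtain ⟨c0, c1, hc, hZ⟩ := Set.ncard_eq_two.1 (sq_zero F hm hq).1
  have hZk : Zk k = {c0, c1} := by rw [hk.2, hZ]
  have En : Ends s Qd k (nm true) nm {core c0} {core c1} := Gs.ends Gq h hi hc hZk (nm true) nm hpr'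
  obtain ⟨rk, t1, t2⟩ := quad_sqd (Kq := Kq) (h := h.lfs) (Lam := Lf lam)
    (hLam := xlf h.lab.lab) (Gi.inv) Gi.cplx Gi.geo Gi.geoR Gi.cmbG Gi.hk Gi.GO hi.top.cf_sur
  have hAB : ∀ τ ∈ Qd.Act k, dim (tc τ) = 3 ∧ tc τ ∉ B := fun τ hτ => by
    have h3 := Gq.dim3 τ (Gq.act_ord k τ hτ)
    exact ⟨h3, fun hB => by have := Gi.B2 _ hB; omega⟩
  obtain ⟨v, v1, v2⟩ := t2 Qd k (nm true) tc (fun τ hτ F' => Gq.side τ (Gq.act_ord k τ hτ) F') hAB
    (fun τ hτ τ' hτ' he => Gq.tc_inj τ τ' (Gq.act_ord k τ hτ) (Gq.act_ord k τ' hτ') he)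
    (fun τ hτ => Gi.sph τ ⟨k, hτ⟩) (h.good k (nm true)).2
  obtain ⟨Cn, d1, d2, -, d4⟩ := v2 nm _ _ En
  exact ⟨k, nm true, nm, c0, c1, En, Cn, rk, _, _, hk, hZ, hs, hpr', d1, d2,
    fun τ hτ => t1 _ (hAB τ hτ).1 (hAB τ hτ).2, d4⟩

/-- **the truncated fibres of the squares are arcs between two cores** -/
theorem arcs_sto {Ω X0 : Set E'} (hΩ0 : Ω0 = Ω ∩ X0) {C : CC Λ (Cel Pf (Mg_441.mm hfin1))}
    {T : (Fam → ℝ) → E} {co : E → Fam → ℝ} (OK : GridOK C T co) (hO : Ord h.cmb ℓ)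
    (hΛ : IsOpen Λ) (hE3 : finrank ℝ E = 3) {Kt : TopC (Cel Pf (Mg_441.mm hfin1)) → Set E'}
    (hKt : ∀ c F', core c ∈ M.side F' → K (L.cf F') ⊆ Kt (tpc c))
    {κt θt : TopC (Cel Pf (Mg_441.mm hfin1)) → ℝ} {Gm : E' → E} (X : Tr0 Ω C Gm)
    (hM : OnMesh X K g T X0) (hX : Exact X κt θt Kt X0) (q : Cel Pf (Mg_441.mm hfin1))
    (hcod : cod C q = 1) : IsBall 1 (X.F q ∩ X0) (X.F q ∩ X0 ∩ ⋃ i, Kt i) := by
  subst hΩ0
  cases q with
  | top a => rw [cod_top hΛ a] at hcod; exact absurd hcod (by norm_num)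
  | gr q =>
    have hq : q.free.ncard = 2 := by
      have := cod_gr OK hΛ hE3 q
      omega
    obtain ⟨k, i0, nm, c0, c1, En, Cn, rk, a', v, hk, hZ, hs, hpr, e1, e2, hT, hSq⟩ :=
      exists_wire h hi hK hD Gq Gs Gi F hm hℓ hq
    have hA : ActSq h.cmb Pf K q (fun b => (nm b).1) (Ω ∩ X0) (Qd.Act k) tc :=
      Gs.actSq Gq h hi hK hD F hm hq hk hpr (fun p => Gi.cplx.sub p) Gi.cplx.cover
        (fun p r hpr => Gi.cplx.subset hpr)
    have hcore : ∀ c (z : NdT (s.res Qd k i0) (Qd.Act k) nm),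
        (∃ r ∈ M.side z.1.F, r ∈ ({core c} : Set ι)) → v z ∈ ⋃ i, Kt i := by
      rintro c z ⟨r, hr, hrc⟩
      rw [mem_singleton_iff] at hrc
      subst hrc
      exact mem_iUnion.2 ⟨tpc c, hKt c _ hr (hSq.mem z true).1⟩
    exact arcs_of hΛ F hm Gi.inv Gi.cplx OK hO hℓ hM hX
      (fun e he => edgeG Gi.geo Gi.geoR Gi.cmbG e he) hcod hs hA hT hSq
      (by rw [e1]; exact hcore c0 _ En.e_spec) (by rw [e2]; exact hcore c1 _ En.e'_spec)

/-- the faces of the core `c` -/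
def Sc (L : LM M Q dim) (core : Fam → ι) (K : Q → Set E') (c : Fam) : Set E' :=
  ⋃ F ∈ {F : Φ | core c ∈ M.side F}, K (L.cf F)

/-- **one point of the fibre of a square on the boundary of a core** -/
theorem sq_sto {C : CC Λ (Cel Pf (Mg_441.mm hfin1))}
    {T : (Fam → ℝ) → E} {co : E → Fam → ℝ} (OK : GridOK C T co) (hO : Ord h.cmb ℓ) (c : Fam)
    (q : Gx Pf (Mg_441.mm hfin1)) (hq : q.free.ncard = 2) (hc : q.hi c = 0) :
    ∃ x, {z | z ∈ Sc L core K c ∧ gG T (merge hfin1 g) z = C.b (.gr q)} = {x} := by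
  obtain ⟨k, i0, nm, c0, c1, En, Cn, rk, a', v, hk, hZ, hs, hpr, e1, e2, hT, hSq⟩ :=
    exists_wire h hi hK hD Gq Gs Gi F hm hℓ hq
  have hex : ∀ τ, ord τ → Ex h.cmb Pf (tc τ) (y (tc τ)) := fun τ hτ => h.ex hi hK (hD τ hτ)
  have hS : ∀ z ∈ Sc L core K c, ∃ F', core c ∈ M.side F' ∧ z ∈ K (L.cf F') := by
    intro z hz
    obtain ⟨F', hF', hz'⟩ := mem_iUnion₂.1 hz
    exact ⟨F', hF', hz'⟩
  have hOn : OnS hfin1 Pf K g T (gG T (merge hfin1 g)) (Sc L core K c) := by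
    refine OnS.of_ex Gi.inv (fun z hz => ?_) fun z _ => rfl
    obtain ⟨F', hF', hz'⟩ := hS z hz
    obtain ⟨τ, hτ, -, hle⟩ := Gq.exists_side F'
    exact ⟨tc τ, y (tc τ), Gi.cplx.subset hle hz', hex τ hτ⟩
  -- a face in `Sc` is a face of the core
  have hface : ∀ F', K (L.cf F') ⊆ Sc L core K c → core c ∈ M.side F' := by
    intro F' hsub
    obtain ⟨z, hz⟩ : ∃ z, Opn K (L.cf F') z := by
      obtain ⟨f, hf⟩ := Gi.cplx.isBall (L.cf F')
      have h0 : (0 : Fin (dim (L.cf F')) → ℝ) ∈ cube (dim (L.cf F')) := by simp [cube]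
      refine ⟨f.f 0, f.mf h0, fun j hj hx => ?_⟩
      have h1 : f.f 0 ∈ f.f '' sph (dim (L.cf F')) := by
        rw [hf]
        exact mem_biUnion (show j ∈ {j | j < L.cf F'} from hj) hx
      obtain ⟨w, hw, hwe⟩ := h1
      have h2 := f.injOn (sph_subset_cube hw) h0 hwe
      rw [h2] at hw
      simp [sph] at hw
    obtain ⟨F1, hF1, hz1⟩ := hS z (hsub hz.1)
    have hle := Gi.cplx.opn_le hz hz1
    have h3 : L.cf F' = L.cf F1 := eq_of_dim L.toSk hle (by rw [L.cf_dim, L.cf_dim])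
    rw [L.cf_inj _ _ h3]
    exact hF1
  have hcZ : c = c0 ∨ c = c1 := by
    have : c ∈ {a | q.hi a = 0} := hc
    rw [hZ] at this
    exact this
  -- the end node
  obtain ⟨e, he1, he2, he3⟩ : ∃ e : NdT (s.res Qd k i0) (Qd.Act k) nm,
      core c ∈ M.side e.1.F ∧ (∀ n : NdT (s.res Qd k i0) (Qd.Act k) nm,
        core c ∈ M.side n.1.F → n = e) ∧ (Cn.S e).Nonempty := by
    rcases hcZ with rfl | rfl
    · refine ⟨En.e, ?_, fun n hn => En.eq_e ⟨_, hn, rfl⟩, ?_⟩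
      · obtain ⟨r, hr, hr'⟩ := En.e_spec
        rw [mem_singleton_iff.1 hr'] at hr
        exact hr
      · obtain ⟨r, hr⟩ := Cn.one
        rw [← e1, hr]; exact ⟨r, rfl⟩
    · refine ⟨En.e', ?_, fun n hn => En.eq_e' ⟨_, hn, rfl⟩, ?_⟩
      · obtain ⟨r, hr, hr'⟩ := En.e'_spec
        rw [mem_singleton_iff.1 hr'] at hr
        exact hr
      · obtain ⟨r, hr⟩ := Cn.one'
        rw [← e2, hr]; exact ⟨r, rfl⟩
  refine ⟨v e, sq_of F hm Gi.inv Gi.cplx OK hO hℓ hOn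
    (fun e he => edgeG Gi.geo Gi.geoR Gi.cmbG e he) hs ?_ hSq ?_ ?_ ?_ he3⟩
  · intro τ hτ
    refine ⟨y (tc τ), hex τ (Gq.act_ord k τ hτ), fun a ha => ?_, fun a ha => ?_⟩
    · have h1 : a ∈ {a | Qd.In k a} := by rw [hk.1]; exact ha
      exact Gq.act_pos k τ hτ a h1
    · have h1 : a ∈ Zk k := by rw [hk.2]; exact ha
      exact Gq.act_zero k τ hτ a h1
  · intro z hz
    obtain ⟨F', hF', hz'⟩ := hS z hz
    obtain ⟨τ, hτ, -, hle⟩ := Gq.exists_side F'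
    refine ⟨L.cf F', tc τ, y (tc τ), L.cf_dim F', hz',
      fun w hw => mem_biUnion (show F' ∈ {F : Φ | core c ∈ M.side F} from hF') hw,
      lt_of_le_of_ne hle fun he => ?_, hex τ hτ, fun ho hx => ?_⟩
    · have h1 := L.cf_dim F'
      rw [he, Gq.dim3 τ hτ] at h1
      omega
    · choose x hx using hx
      have hpt := fun e => StO.exists_pt h (hx e)
      choose w w1 w2 w3 using hpt
      refine ⟨τ, Gs.act_of Gq h hi F hm hq hk hτ (hK.mem _ (hD τ hτ)) ho (w := w)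
        (fun e => ⟨w1 e, w2 e⟩) (fun e => ?_), rfl⟩
      rw [w3 e]
      exact hpr e
  · exact mem_biUnion (show e.1.F ∈ {F : Φ | core c ∈ M.side F} from he1) (hSq.mem e true).1
  · intro n hn
    exact he2 n (hface _ hn)

end wire

end Crest.Agent.R096.At_241
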