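import Crest.Agent.R096.Ax1_914

/-!
# Local structure of a two-sided cubical hypersurface (helper914, row 96, P2-AXIS, part 2)

`local_classes`: at the centre of a lattice cell `d`, the top dimensional cells round `d` fall
into exactly two classes when adjacent cells are joined through the absent codimension one cells.
-/

set_option autoImplicit false
set_option linter.unusedSectionVars false

namespace Crest.Agent.R096.Ax_914

open Set Metric Function

/-- locally the complement of `S` has exactly two components at `x` -/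
def TwoSidedAt {E : Type*} [PseudoMetricSpace E] (S : Set E) (x : E) : Prop :=
  ∀ ε > 0, ∃ U P N : Set E, IsOpen U ∧ IsOpen P ∧ IsOpen N ∧ x ∈ U ∧ U ⊆ ball x ε ∧
    IsPreconnected P ∧ IsPreconnected N ∧ Disjoint P N ∧ U \ S = P ∪ N ∧
    x ∈ closure P ∧ x ∈ closure N

/-! ### one-dimensional facts -/

theorem odd_eq {c d : ℤ} {y : ℝ} (h1 : ((c / 2 : ℤ) : ℝ) ≤ y) (h2 : y ≤ (((c + 1) / 2 : ℤ) : ℝ))
    (hd : d % 2 = 1) (h3 : |y - d / 2| < 1 / 2) : c = d := by
  obtain ⟨m, rfl⟩ : ∃ m, d = 2 * m + 1 := ⟨d / 2, by omega⟩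
  rw [abs_lt] at h3
  push_cast at h3
  have h4 : ((c / 2 : ℤ) : ℝ) < ((m + 1 : ℤ) : ℝ) := by push_cast; linarith [h3.2]
  have h5 : ((m : ℤ) : ℝ) < (((c + 1) / 2 : ℤ) : ℝ) := by linarith [h3.1]
  have h6 : c / 2 < m + 1 := by exact_mod_cast h4
  have h7 : m < (c + 1) / 2 := by exact_mod_cast h5
  omega

theorem pos_eq {c d : ℤ} {y : ℝ} (h1 : ((c / 2 : ℤ) : ℝ) ≤ y) (h2 : y ≤ (((c + 1) / 2 : ℤ) : ℝ))
    (hd : d % 2 = 0) (h3 : 0 < y - d / 2) (h4 : y - d / 2 < 1 / 2) : c = d + 1 := by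
  obtain ⟨m, rfl⟩ : ∃ m, d = 2 * m := ⟨d / 2, by omega⟩
  push_cast at h3 h4
  have h4 : ((c / 2 : ℤ) : ℝ) < ((m + 1 : ℤ) : ℝ) := by push_cast; linarith
  have h5 : ((m : ℤ) : ℝ) < (((c + 1) / 2 : ℤ) : ℝ) := by linarith
  have h6 : c / 2 < m + 1 := by exact_mod_cast h4
  have h7 : m < (c + 1) / 2 := by exact_mod_cast h5
  omega

theorem neg_eq {c d : ℤ} {y : ℝ} (h1 : ((c / 2 : ℤ) : ℝ) ≤ y) (h2 : y ≤ (((c + 1) / 2 : ℤ) : ℝ))
    (hd : d % 2 = 0) (h3 : y - d / 2 < 0) (h4 : -(1 / 2) < y - d / 2) : c = d - 1 := by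
  obtain ⟨m, rfl⟩ : ∃ m, d = 2 * m := ⟨d / 2, by omega⟩
  push_cast at h3 h4
  have h4 : ((c / 2 : ℤ) : ℝ) < ((m : ℤ) : ℝ) := by linarith
  have h5 : ((m - 1 : ℤ) : ℝ) < (((c + 1) / 2 : ℤ) : ℝ) := by push_cast at *; linarith
  have h6 : c / 2 < m := by exact_mod_cast h4
  have h7 : m - 1 < (c + 1) / 2 := by exact_mod_cast h5
  omega

theorem even_eq {c d : ℤ} {y : ℝ} (h1 : ((c / 2 : ℤ) : ℝ) ≤ y) (h2 : y ≤ (((c + 1) / 2 : ℤ) : ℝ))
    (hd : d % 2 = 0) (hc : c % 2 = 0) (h3 : |y - d / 2| < 1 / 2) : c = d := by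
  obtain ⟨m, rfl⟩ : ∃ m, d = 2 * m := ⟨d / 2, by omega⟩
  obtain ⟨n, rfl⟩ : ∃ n, c = 2 * n := ⟨c / 2, by omega⟩
  rw [show (2 * n / 2 : ℤ) = n by omega] at h1
  rw [show ((2 * n + 1) / 2 : ℤ) = n by omega] at h2
  rw [abs_lt] at h3
  push_cast at h3
  have h4 : ((n : ℤ) : ℝ) < ((m + 1 : ℤ) : ℝ) := by push_cast; linarith [h3.2]
  have h5 : ((m - 1 : ℤ) : ℝ) < ((n : ℤ) : ℝ) := by push_cast; linarith [h3.1]
  have h6 : n < m + 1 := by exact_mod_cast h4
  have h7 : m - 1 < n := by exact_mod_cast h5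
  omega

theorem mem_odd {d : ℤ} {y : ℝ} (hd : d % 2 = 1) (h3 : |y - d / 2| < 1 / 2) :
    ((d / 2 : ℤ) : ℝ) ≤ y ∧ y ≤ (((d + 1) / 2 : ℤ) : ℝ) := by
  obtain ⟨m, rfl⟩ : ∃ m, d = 2 * m + 1 := ⟨d / 2, by omega⟩
  rw [show ((2 * m + 1) / 2 : ℤ) = m by omega, show ((2 * m + 1 + 1) / 2 : ℤ) = m + 1 by omega]
  rw [abs_lt] at h3
  push_cast at *
  constructor <;> linarith [h3.1, h3.2]

theorem mem_pos {d : ℤ} {y : ℝ} (hd : d % 2 = 0) (h3 : 0 ≤ y - d / 2) (h4 : y - d / 2 < 1 / 2) :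
    (((d + 1) / 2 : ℤ) : ℝ) ≤ y ∧ y ≤ (((d + 1 + 1) / 2 : ℤ) : ℝ) := by
  obtain ⟨m, rfl⟩ : ∃ m, d = 2 * m := ⟨d / 2, by omega⟩
  rw [show ((2 * m + 1) / 2 : ℤ) = m by omega, show ((2 * m + 1 + 1) / 2 : ℤ) = m + 1 by omega]
  push_cast at *
  constructor <;> linarith

theorem mem_neg {d : ℤ} {y : ℝ} (hd : d % 2 = 0) (h3 : y - d / 2 ≤ 0) (h4 : -(1 / 2) < y - d / 2) :
    (((d - 1) / 2 : ℤ) : ℝ) ≤ y ∧ y ≤ (((d - 1 + 1) / 2 : ℤ) : ℝ) := by
  obtain ⟨m, rfl⟩ : ∃ m, d = 2 * m := ⟨d / 2, by omega⟩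
  rw [show ((2 * m - 1) / 2 : ℤ) = m - 1 by omega, show ((2 * m - 1 + 1) / 2 : ℤ) = m by omega]
  push_cast at *
  constructor <;> linarith

theorem mem_even {d : ℤ} {y : ℝ} (hd : d % 2 = 0) (h3 : y - d / 2 = 0) :
    ((d / 2 : ℤ) : ℝ) ≤ y ∧ y ≤ (((d + 1) / 2 : ℤ) : ℝ) := by
  obtain ⟨m, rfl⟩ : ∃ m, d = 2 * m := ⟨d / 2, by omega⟩
  rw [show (2 * m / 2 : ℤ) = m by omega, show ((2 * m + 1) / 2 : ℤ) = m by omega]
  push_cast at *
  constructor <;> linarith

/-! ### cofaces -/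

variable {ι : Type*}

/-- `c` is a coface of `d` -/
def Cof (d c : ι → ℤ) : Prop :=
  ∀ i, c i = d i ∨ (d i % 2 = 0 ∧ (c i = d i + 1 ∨ c i = d i - 1))

/-- top dimensional cells -/
def Top (g : ι → ℤ) : Prop := ∀ i, g i % 2 = 1

/-- codimension one cells with normal direction `i` -/
def Cod1 (s : ι → ℤ) (i : ι) : Prop := s i % 2 = 0 ∧ ∀ j, j ≠ i → s j % 2 = 1

/-- the centre of a cell -/
noncomputable def ctr (d : ι → ℤ) : ι → ℝ := fun i => (d i : ℝ) / 2

/-- the open orthant of the top cell `g` at `d` -/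
def orth (d g : ι → ℤ) : Set (ι → ℝ) :=
  {y | ∀ i, d i % 2 = 0 → 0 < ((g i - d i : ℤ) : ℝ) * (y i - ctr d i)}

/-- the closed orthant of the top cell `g` at `d` -/
def corth (d g : ι → ℤ) : Set (ι → ℝ) :=
  {y | ∀ i, d i % 2 = 0 → 0 ≤ ((g i - d i : ℤ) : ℝ) * (y i - ctr d i)}

/-- the open wedge round the codimension one cell `s` at `d` -/
def wed (d s : ι → ℤ) (i : ι) : Set (ι → ℝ) :=
  {y | ∀ j, j ≠ i → d j % 2 = 0 → 0 < ((s j - d j : ℤ) : ℝ) * (y j - ctr d j)}

theorem orth_subset_corth (d g : ι → ℤ) : orth d g ⊆ corth d g := fun _ hy i hi => (hy i hi).le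

theorem convex_aux (a b : ℝ) (i : ι) : Convex ℝ {y : ι → ℝ | 0 < a * (y i - b)} := by
  have : {y : ι → ℝ | 0 < a * (y i - b)} = {y : ι → ℝ | a * b < a * y i} := by
    ext y
    simp only [mem_ofPred_eq]
    constructor <;> intro h <;> nlinarith
  rw [this]
  exact convex_halfSpace_gt (f := fun y : ι → ℝ => a * y i)
    ⟨fun x y => by simp [mul_add], fun c x => by simp; ring⟩ _

theorem convex_orth (d g : ι → ℤ) : Convex ℝ (orth d g) := by
  have : orth d g = ⋂ i, ⋂ (_ : d i % 2 = 0),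
      {y : ι → ℝ | 0 < ((g i - d i : ℤ) : ℝ) * (y i - ctr d i)} := by
    ext y; simp [orth]
  rw [this]
  exact convex_iInter fun i => convex_iInter fun _ => convex_aux _ _ _

theorem convex_wed (d s : ι → ℤ) (i : ι) : Convex ℝ (wed d s i) := by
  have : wed d s i = ⋂ j, ⋂ (_ : j ≠ i), ⋂ (_ : d j % 2 = 0),
      {y : ι → ℝ | 0 < ((s j - d j : ℤ) : ℝ) * (y j - ctr d j)} := by
    ext y; simp [wed]
  rw [this]
  exact convex_iInter fun i => convex_iInter fun _ => convex_iInter fun _ => convex_aux _ _ _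

theorem isClosed_corth (d g : ι → ℤ) : IsClosed (corth d g) := by
  have : corth d g = ⋂ i, ⋂ (_ : d i % 2 = 0),
      {y : ι → ℝ | 0 ≤ ((g i - d i : ℤ) : ℝ) * (y i - ctr d i)} := by
    ext y; simp [corth]
  rw [this]
  refine isClosed_iInter fun i => isClosed_iInter fun _ => isClosed_le continuous_const ?_
  exact continuous_const.mul ((continuous_apply i).sub continuous_const)

theorem abs_of_ball [Fintype ι] {d : ι → ℤ} {y : ι → ℝ} (hy : y ∈ ball (ctr d) (1 / 2)) (i : ι) :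
    |y i - d i / 2| < 1 / 2 := by
  rw [mem_ball, dist_pi_lt_iff (by norm_num)] at hy
  have := hy i
  rwa [Real.dist_eq] at this

/-- inside the small ball, a cell containing a point of the open orthant or wedge agrees with
`s` in the corresponding coordinate -/
theorem coord_eq [Fintype ι] {d s c : ι → ℤ} (hs : Cof d s) {y : ι → ℝ} (hc : y ∈ cel c)
    (hy : y ∈ ball (ctr d) (1 / 2)) {j : ι} (hj : s j % 2 = 1)
    (h : d j % 2 = 0 → 0 < ((s j - d j : ℤ) : ℝ) * (y j - ctr d j)) : c j = s j := by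
  have h0 := abs_of_ball hy j
  rcases hs j with h1 | ⟨h1, h2 | h2⟩
  · rw [h1]
    exact odd_eq (hc j).1 (hc j).2 (by rw [← h1]; exact hj) h0
  · rw [h2]
    have h3 := h h1
    rw [h2] at h3
    simp only [add_sub_cancel_left, Int.cast_one, one_mul] at h3
    exact pos_eq (hc j).1 (hc j).2 h1 h3 (abs_lt.1 h0).2
  · rw [h2]
    have h3 := h h1
    rw [h2, show (d j - 1 - d j : ℤ) = -1 by ring] at h3
    simp only [Int.cast_neg, Int.cast_one, neg_mul, one_mul, Left.neg_pos_iff] at h3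
    exact neg_eq (hc j).1 (hc j).2 h1 h3 (abs_lt.1 h0).1

/-- points of the closed orthant near the centre lie in the cell -/
theorem coord_mem [Fintype ι] {d g : ι → ℤ} (hg : Cof d g) (hg2 : Top g) {y : ι → ℝ}
    (hy : y ∈ ball (ctr d) (1 / 2)) (h : y ∈ corth d g) (j : ι) :
    ((g j / 2 : ℤ) : ℝ) ≤ y j ∧ y j ≤ (((g j + 1) / 2 : ℤ) : ℝ) := by
  have h0 := abs_of_ball hy j
  rcases hg j with h1 | ⟨h1, h2 | h2⟩
  · rw [h1]
    exact mem_odd (by rw [← h1]; exact hg2 j) h0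
  · rw [h2]
    have h3 := h j h1
    rw [h2] at h3
    simp only [add_sub_cancel_left, Int.cast_one, one_mul] at h3
    exact mem_pos h1 h3 (abs_lt.1 h0).2
  · rw [h2]
    have h3 := h j h1
    rw [h2, show (d j - 1 - d j : ℤ) = -1 by ring] at h3
    simp only [Int.cast_neg, Int.cast_one, neg_mul, one_mul, Left.nonneg_neg_iff] at h3
    exact mem_neg h1 h3 (abs_lt.1 h0).1

variable {Q : Finset (ι → ℤ)}

theorem orth_disjoint [Fintype ι] (hQ : ∀ c ∈ Q, ∃ i, Cod1 c i) {d g : ι → ℤ} (hg : Cof d g)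
    (hg2 : Top g) {y : ι → ℝ} (hy : y ∈ ball (ctr d) (1 / 2)) (h : y ∈ orth d g) :
    y ∉ car Q := by
  intro hyQ
  obtain ⟨c, hc, hyc⟩ := mem_car.1 hyQ
  obtain ⟨i, hi, _⟩ := hQ c hc
  have := coord_eq hg hyc hy (hg2 i) (h i)
  rw [this, hg2 i] at hi
  exact absurd hi (by norm_num)

theorem Cod1.eq_of_cof {d s : ι → ℤ} {i : ι} (hs : Cod1 s i) (h : Cof d s) : s i = d i := by
  have := hs.1
  rcases h i with h1 | ⟨h1, h2 | h2⟩
  · exact h1
  · omega
  · omega

theorem wed_disjoint [Fintype ι] (hQ : ∀ c ∈ Q, ∃ i, Cod1 c i) {d s : ι → ℤ} {i : ι}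
    (hs : Cod1 s i) (hds : Cof d s) (hsQ : s ∉ Q)
    {y : ι → ℝ} (hy : y ∈ ball (ctr d) (1 / 2)) (h : y ∈ wed d s i) : y ∉ car Q := by
  intro hyQ
  obtain ⟨c, hc, hyc⟩ := mem_car.1 hyQ
  have h1 : ∀ j, j ≠ i → c j = s j := fun j hj => coord_eq hds hyc hy (hs.2 j hj) (h j hj)
  obtain ⟨k, hk, hk2⟩ := hQ c hc
  have hki : k = i := by
    by_contra hne
    rw [h1 k hne, hs.2 k hne] at hk
    exact absurd hk (by norm_num)
  subst hki
  have h2 : c k = s k := by
    rw [hs.eq_of_cof hds]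
    exact even_eq (hyc k).1 (hyc k).2 (by rw [← hs.eq_of_cof hds]; exact hs.1) hk
      (abs_of_ball hy k)
  apply hsQ
  have : c = s := by
    funext j
    by_cases hj : j = k
    · rw [hj]; exact h2
    · exact h1 j hj
  rwa [← this]

variable [DecidableEq ι]

/-- `φ` does not change across absent codimension one cells at `d` -/
def AbsConst (Q : Finset (ι → ℤ)) (d : ι → ℤ) (φ : (ι → ℤ) → Prop) : Prop :=
  ∀ s i, Cod1 s i → Cof d s → s ∉ Q → (φ (update s i (s i + 1)) ↔ φ (update s i (s i - 1)))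

theorem AbsConst.flip {d : ι → ℤ} {φ : (ι → ℤ) → Prop} (hφ : AbsConst Q d φ) {g : ι → ℤ}
    (hg : Cof d g) (hg2 : Top g) {i : ι} (hi : d i % 2 = 0) (hs : update g i (d i) ∉ Q) (a b : ℤ)
    (ha : a = d i + 1 ∨ a = d i - 1) (hb : b = d i + 1 ∨ b = d i - 1) :
    φ (update g i a) ↔ φ (update g i b) := by
  have h1 : Cod1 (update g i (d i)) i := by
    refine ⟨by simpa using hi, fun j hj => ?_⟩
    rw [update_of_ne hj]
    exact hg2 j
  have h2 : Cof d (update g i (d i)) := by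
    intro j
    by_cases hj : j = i
    · subst hj; left; simp
    · rw [update_of_ne hj]; exact hg j
  have h3 := hφ _ i h1 h2 hs
  simp only [update_self, update_idem] at h3
  rcases ha with rfl | rfl <;> rcases hb with rfl | rfl
  · rfl
  · exact h3
  · exact h3.symm
  · rfl

/-- lemma B: at a point outside `car Q` all the closed orthants have the same value -/
theorem AbsConst.eq_of_mem [Fintype ι] {d : ι → ℤ} {φ : (ι → ℤ) → Prop} (hφ : AbsConst Q d φ)
    {y : ι → ℝ} (hy : y ∈ ball (ctr d) (1 / 2)) (hyQ : y ∉ car Q) (n : ℕ) :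
    ∀ g g' : ι → ℤ, Cof d g → Top g → Cof d g' → Top g' → y ∈ corth d g → y ∈ corth d g' →
      (Finset.univ.filter fun i => g i ≠ g' i).card = n → (φ g ↔ φ g') := by
  induction n with
  | zero =>
    intro g g' _ _ _ _ _ _ h
    rw [Finset.card_eq_zero, Finset.filter_eq_empty_iff] at h
    have : g = g' := by
      funext i
      by_contra hne
      exact h (Finset.mem_univ i) hne
    rw [this]
  | succ n ih =>
    intro g g' hg hg2 hg' hg2' hyg hyg' h
    obtain ⟨i, hi⟩ : (Finset.univ.filter fun i => g i ≠ g' i).Nonempty := by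
      rw [← Finset.card_pos]; omega
    have hne : g i ≠ g' i := (Finset.mem_filter.1 hi).2
    have hdi : d i % 2 = 0 := by
      rcases hg i with h1 | ⟨h1, _⟩
      · rcases hg' i with h2 | ⟨h2, _⟩
        · exact absurd (h1.trans h2.symm) hne
        · exact h2
      · exact h1
    have hgi : g i = d i + 1 ∨ g i = d i - 1 := by
      rcases hg i with h1 | ⟨_, h1⟩
      · exfalso
        have := hg2 i
        omega
      · exact h1
    have hgi' : g' i = d i + 1 ∨ g' i = d i - 1 := by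
      rcases hg' i with h1 | ⟨_, h1⟩
      · exfalso
        have := hg2' i
        omega
      · exact h1
    have hyi : y i - ctr d i = 0 := by
      have h1 := hyg i hdi
      have h2 := hyg' i hdi
      rcases hgi with h3 | h3 <;> rcases hgi' with h4 | h4
      · exact absurd (h3.trans h4.symm) hne
      · rw [h3] at h1; rw [h4] at h2
        rw [show (d i + 1 - d i : ℤ) = 1 by ring] at h1
        rw [show (d i - 1 - d i : ℤ) = -1 by ring] at h2
        push_cast at h1 h2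
        linarith
      · rw [h3] at h1; rw [h4] at h2
        rw [show (d i - 1 - d i : ℤ) = -1 by ring] at h1
        rw [show (d i + 1 - d i : ℤ) = 1 by ring] at h2
        push_cast at h1 h2
        linarith
      · exact absurd (h3.trans h4.symm) hne
    -- the codimension one cell between is absent
    have hs : update g i (d i) ∉ Q := by
      intro hmem
      apply hyQ
      refine mem_car.2 ⟨_, hmem, fun j => ?_⟩
      by_cases hj : j = i
      · subst hj
        rw [update_self]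
        exact mem_even hdi hyi
      · rw [update_of_ne hj]
        exact coord_mem hg hg2 hy hyg j
    have h5 : φ g ↔ φ (update g i (g' i)) := by
      have := hφ.flip hg hg2 hdi hs (g i) (g' i) hgi hgi'
      rwa [update_eq_self] at this
    rw [h5]
    refine ih (update g i (g' i)) g' ?_ ?_ hg' hg2' ?_ hyg' ?_
    · intro j
      by_cases hj : j = i
      · subst hj; rw [update_self]; exact hg' j
      · rw [update_of_ne hj]; exact hg j
    · intro j
      by_cases hj : j = i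
      · subst hj; rw [update_self]; exact hg2' j
      · rw [update_of_ne hj]; exact hg2 j
    · intro j hj2
      by_cases hj : j = i
      · subst hj
        rw [hyi]; simp
      · rw [update_of_ne hj]; exact hyg j hj2
    · have h6 : (Finset.univ.filter fun j => update g i (g' i) j ≠ g' j) =
          (Finset.univ.filter fun i => g i ≠ g' i).erase i := by
        ext j
        simp only [Finset.mem_filter, Finset.mem_univ, true_and, Finset.mem_erase]
        by_cases hj : j = i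
        · subst hj; simp
        · rw [update_of_ne hj]; simp [hj]
      rw [h6, Finset.card_erase_of_mem hi, h]
      rfl

/-- every point lies in some closed orthant -/
theorem exists_corth (d : ι → ℤ) (y : ι → ℝ) :
    ∃ g, Cof d g ∧ Top g ∧ y ∈ corth d g := by
  refine ⟨fun i => if d i % 2 = 0 then (if ctr d i ≤ y i then d i + 1 else d i - 1) else d i,
    fun i => ?_, fun i => ?_, fun i hi => ?_⟩
  · by_cases h1 : d i % 2 = 0
    · by_cases h2 : ctr d i ≤ y i
      · simp [h1, h2]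
      · simp [h1, h2]
    · simp [h1]
  · by_cases h1 : d i % 2 = 0
    · by_cases h2 : ctr d i ≤ y i
      · simp only [h1, h2, if_true]; omega
      · simp only [h1, h2, if_true, if_false]; omega
    · simp only [h1, if_false]; omega
  · by_cases h2 : ctr d i ≤ y i
    · simp only [hi, h2, if_true]
      rw [show (d i + 1 - d i : ℤ) = 1 by ring]
      push_cast; linarith
    · simp only [hi, h2, if_true, if_false]
      rw [show (d i - 1 - d i : ℤ) = -1 by ring]
      push_cast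
      have := not_le.1 h2
      linarith

/-- every nonempty open subset meets some open orthant -/
theorem exists_orth [Fintype ι] (d : ι → ℤ) {O : Set (ι → ℝ)} (hO : IsOpen O) {y : ι → ℝ}
    (hy : y ∈ O) : ∃ g, Cof d g ∧ Top g ∧ (O ∩ orth d g).Nonempty := by
  obtain ⟨ε, hε, hb⟩ := Metric.isOpen_iff.1 hO y hy
  refine ⟨fun i => if d i % 2 = 0 then (if ctr d i ≤ y i then d i + 1 else d i - 1) else d i,
    fun i => ?_, fun i => ?_, fun i => if ctr d i ≤ y i then y i + ε / 2 else y i - ε / 2,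
    hb ?_, fun i hi => ?_⟩
  · by_cases h1 : d i % 2 = 0
    · by_cases h2 : ctr d i ≤ y i
      · simp [h1, h2]
      · simp [h1, h2]
    · simp [h1]
  · by_cases h1 : d i % 2 = 0
    · by_cases h2 : ctr d i ≤ y i
      · simp only [h1, h2, if_true]; omega
      · simp only [h1, h2, if_true, if_false]; omega
    · simp only [h1, if_false]; omega
  · rw [mem_ball, dist_pi_lt_iff hε]
    intro i
    rw [Real.dist_eq]
    by_cases h2 : ctr d i ≤ y i
    · simp only [h2, if_true, add_sub_cancel_left]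
      rw [abs_of_pos (by linarith)]; linarith
    · simp only [h2, if_false, sub_sub_cancel_left, abs_neg]
      rw [abs_of_pos (by linarith)]; linarith
  · by_cases h2 : ctr d i ≤ y i
    · simp only [hi, h2, if_true]
      rw [show (d i + 1 - d i : ℤ) = 1 by ring]
      push_cast; linarith
    · simp only [hi, h2, if_true, if_false]
      rw [show (d i - 1 - d i : ℤ) = -1 by ring]
      push_cast
      have := not_le.1 h2
      linarith

/-- an open orthant comes arbitrarily close to the centre -/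
theorem orth_near [Fintype ι] (d : ι → ℤ) {g : ι → ℤ} (hg : Cof d g) (hg2 : Top g) {δ : ℝ}
    (hδ : 0 < δ) : (ball (ctr d) δ ∩ orth d g).Nonempty := by
  refine ⟨fun i => ctr d i + ((g i - d i : ℤ) : ℝ) * (δ / 2), ?_, fun i hi => ?_⟩
  · rw [mem_ball, dist_pi_lt_iff hδ]
    intro i
    rw [Real.dist_eq, add_sub_cancel_left]
    rcases hg i with h1 | ⟨_, h1 | h1⟩
    · rw [h1]; simp; exact hδ
    · rw [h1, show (d i + 1 - d i : ℤ) = 1 by ring]
      push_cast
      rw [one_mul, abs_of_pos (by linarith)]; linarith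
    · rw [h1, show (d i - 1 - d i : ℤ) = -1 by ring]
      push_cast
      rw [neg_mul, one_mul, abs_neg, abs_of_pos (by linarith)]; linarith
  · rw [add_sub_cancel_left]
    rcases hg i with h1 | ⟨_, h1 | h1⟩
    · exfalso
      have := hg2 i
      omega
    · rw [h1, show (d i + 1 - d i : ℤ) = 1 by ring]
      push_cast
      linarith
    · rw [h1, show (d i - 1 - d i : ℤ) = -1 by ring]
      push_cast
      linarith

/-- **the local theorem** -/
theorem local_classes [Fintype ι] (hQ : ∀ c ∈ Q, ∃ i, Cod1 c i) {d : ι → ℤ}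
    (hx : TwoSidedAt (car Q) (ctr d)) : ∃ A : (ι → ℤ) → Prop,
      (∃ g, Cof d g ∧ Top g ∧ A g) ∧ (∃ g, Cof d g ∧ Top g ∧ ¬ A g) ∧ AbsConst Q d A ∧
      ∀ φ, AbsConst Q d φ → ∀ g g', Cof d g → Top g → Cof d g' → Top g' → (A g ↔ A g') →
        φ g → φ g' := by
  obtain ⟨U, P, N, hU, hP, hN, hxU, hUb, hPc, hNc, hPN, hUS, hxP, hxN⟩ :=
    hx (1 / 2) (by norm_num)
  obtain ⟨δ, hδ, hδU⟩ := Metric.isOpen_iff.1 hU _ hxU
  have hδb : ball (ctr d) δ ⊆ ball (ctr d) (1 / 2) := hδU.trans hUb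
  -- convex pieces missing `S` are in `P` or in `N`
  have key : ∀ C : Set (ι → ℝ), Convex ℝ C →
      (∀ y ∈ ball (ctr d) (1 / 2), y ∈ C → y ∉ car Q) →
      ball (ctr d) δ ∩ C ⊆ P ∨ ball (ctr d) δ ∩ C ⊆ N := by
    intro C hC hm
    refine ((convex_ball _ _).inter hC).isPreconnected.subset_or_subset hP hN hPN ?_
    rw [← hUS]
    exact fun y hy => ⟨hδU hy.1, hm y (hδb hy.1) hy.2⟩
  have keyO : ∀ g, Cof d g → Top g →
      ball (ctr d) δ ∩ orth d g ⊆ P ∨ ball (ctr d) δ ∩ orth d g ⊆ N := fun g hg hg2 =>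
    key _ (convex_orth d g) fun y hy hyo => orth_disjoint hQ hg hg2 hy hyo
  have hdis : ∀ g, Cof d g → Top g → ¬ (ball (ctr d) δ ∩ orth d g ⊆ P ∧
      ball (ctr d) δ ∩ orth d g ⊆ N) := by
    rintro g hg hg2 ⟨h1, h2⟩
    obtain ⟨y, hy⟩ := orth_near d hg hg2 hδ
    exact disjoint_left.1 hPN (h1 hy) (h2 hy)
  have hex : ∀ M : Set (ι → ℝ), IsOpen M → ctr d ∈ closure M →
      ∃ g, Cof d g ∧ Top g ∧ (M ∩ (ball (ctr d) δ ∩ orth d g)).Nonempty := by
    intro M hM hxM
    obtain ⟨y, hy1, hy2⟩ := mem_closure_iff.1 hxM (ball (ctr d) δ) isOpen_ball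
      (mem_ball_self hδ)
    obtain ⟨g, hg, hg2, z, hz, hz2⟩ := exists_orth d (isOpen_ball.inter hM) ⟨hy1, hy2⟩
    exact ⟨g, hg, hg2, z, hz.2, hz.1, hz2⟩
  refine ⟨fun g => ball (ctr d) δ ∩ orth d g ⊆ P, ?_, ?_, ?_, ?_⟩
  · obtain ⟨g, hg, hg2, z, hz, hz2⟩ := hex P hP hxP
    refine ⟨g, hg, hg2, ?_⟩
    rcases keyO g hg hg2 with h | h
    · exact h
    · exact (disjoint_left.1 hPN hz (h hz2)).elim
  · obtain ⟨g, hg, hg2, z, hz, hz2⟩ := hex N hN hxN
    refine ⟨g, hg, hg2, fun h => ?_⟩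
    exact disjoint_left.1 hPN (h hz2) hz
  · intro s i hs hds hsQ
    have hdi : d i % 2 = 0 := by rw [← hs.eq_of_cof hds]; exact hs.1
    have hcof : ∀ a : ℤ, (a = d i + 1 ∨ a = d i - 1) → Cof d (update s i a) := by
      intro a ha j
      by_cases hj : j = i
      · subst hj; rw [update_self]; exact Or.inr ⟨hdi, ha⟩
      · rw [update_of_ne hj]; exact hds j
    have htop : ∀ a : ℤ, (a = d i + 1 ∨ a = d i - 1) → Top (update s i a) := by
      intro a ha j
      by_cases hj : j = i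
      · subst hj; rw [update_self]; omega
      · rw [update_of_ne hj]; exact hs.2 j hj
    have hsub : ∀ a : ℤ, orth d (update s i a) ⊆ wed d s i := by
      intro a y hy j hj hj2
      have := hy j hj2
      rwa [update_of_ne hj] at this
    have hp : (s i + 1 = d i + 1 ∨ s i + 1 = d i - 1) := Or.inl (by rw [hs.eq_of_cof hds])
    have hm : (s i - 1 = d i + 1 ∨ s i - 1 = d i - 1) := Or.inr (by rw [hs.eq_of_cof hds])
    rcases key (wed d s i) (convex_wed d s i)
      (fun y hy hyw => wed_disjoint hQ hs hds hsQ hy hyw) with h | h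
    · exact ⟨fun _ => (inter_subset_inter_right _ (hsub _)).trans h,
        fun _ => (inter_subset_inter_right _ (hsub _)).trans h⟩
    · constructor
      · intro h1
        exact (hdis _ (hcof _ hp) (htop _ hp)
          ⟨h1, (inter_subset_inter_right _ (hsub _)).trans h⟩).elim
      · intro h1
        exact (hdis _ (hcof _ hm) (htop _ hm)
          ⟨h1, (inter_subset_inter_right _ (hsub _)).trans h⟩).elim
  · intro φ hφ g g' hg hg2 hg' hg2' hA hφg
    by_contra hφg'
    -- a connected set `M` containing both small orthants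
    obtain ⟨M, hM, hMB, hM1, hM2⟩ : ∃ M : Set (ι → ℝ), IsPreconnected M ∧
        (M ⊆ ball (ctr d) (1 / 2) \ car Q) ∧ ball (ctr d) δ ∩ orth d g ⊆ M ∧
        ball (ctr d) δ ∩ orth d g' ⊆ M := by
      have hPB : P ⊆ ball (ctr d) (1 / 2) \ car Q := fun y hy => by
        have : y ∈ U \ car Q := by rw [hUS]; exact Or.inl hy
        exact ⟨hUb this.1, this.2⟩
      have hNB : N ⊆ ball (ctr d) (1 / 2) \ car Q := fun y hy => by
        have : y ∈ U \ car Q := by rw [hUS]; exact Or.inr hy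
        exact ⟨hUb this.1, this.2⟩
      by_cases h1 : ball (ctr d) δ ∩ orth d g ⊆ P
      · exact ⟨P, hPc, hPB, h1, hA.1 h1⟩
      · have h2 : ¬ ball (ctr d) δ ∩ orth d g' ⊆ P := fun h => h1 (hA.2 h)
        exact ⟨N, hNc, hNB, (keyO g hg hg2).resolve_left h1, (keyO g' hg' hg2').resolve_left h2⟩
    have hfin : {h : ι → ℤ | Cof d h}.Finite := by
      refine (Set.Finite.pi (t := fun i => ({d i, d i + 1, d i - 1} : Set ℤ))
        fun i => by simp).subset fun h hh i _ => ?_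
      rcases hh i with h1 | ⟨_, h1 | h1⟩ <;> simp [h1]
    let t : Set (ι → ℝ) := ⋃ h ∈ {h : ι → ℤ | Cof d h ∧ Top h ∧ φ h}, corth d h
    let t' : Set (ι → ℝ) := ⋃ h ∈ {h : ι → ℤ | Cof d h ∧ Top h ∧ ¬ φ h}, corth d h
    have ht : IsClosed t := (hfin.subset fun h hh => hh.1).isClosed_biUnion
      fun h _ => isClosed_corth d h
    have ht' : IsClosed t' := (hfin.subset fun h hh => hh.1).isClosed_biUnion
      fun h _ => isClosed_corth d h
    have hcov : M ⊆ t ∪ t' := by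
      intro y _
      obtain ⟨h, h1, h2, h3⟩ := exists_corth d y
      by_cases h4 : φ h
      · exact Or.inl (mem_biUnion (show h ∈ {h : ι → ℤ | Cof d h ∧ Top h ∧ φ h} from
          ⟨h1, h2, h4⟩) h3)
      · exact Or.inr (mem_biUnion (show h ∈ {h : ι → ℤ | Cof d h ∧ Top h ∧ ¬ φ h} from
          ⟨h1, h2, h4⟩) h3)
    have hn1 : (M ∩ t).Nonempty := by
      obtain ⟨y, hy⟩ := orth_near d hg hg2 hδ
      exact ⟨y, hM1 hy, mem_biUnion (show g ∈ {h : ι → ℤ | Cof d h ∧ Top h ∧ φ h} from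
          ⟨hg, hg2, hφg⟩) (orth_subset_corth d g hy.2)⟩
    have hn2 : (M ∩ t').Nonempty := by
      obtain ⟨y, hy⟩ := orth_near d hg' hg2' hδ
      exact ⟨y, hM2 hy, mem_biUnion (show g' ∈ {h : ι → ℤ | Cof d h ∧ Top h ∧ ¬ φ h} from
          ⟨hg', hg2', hφg'⟩) (orth_subset_corth d g' hy.2)⟩
    obtain ⟨y, hyM, hyt, hyt'⟩ := isPreconnected_closed_iff.1 hM t t' ht ht' hcov hn1 hn2
    obtain ⟨h, ⟨h1, h2, h3⟩, h4⟩ := mem_iUnion₂.1 hyt
    obtain ⟨k, ⟨k1, k2, k3⟩, k4⟩ := mem_iUnion₂.1 hyt'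
    exact k3 ((hφ.eq_of_mem (hMB hyM).1 (hMB hyM).2 _ h k h1 h2 k1 k2 h4 k4 rfl).1 h3)

end Crest.Agent.R096.Ax_914
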