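import Crest.Agent.R096.Ax2_914

/-!
# Edges and vertices of a two-sided cubical surface (helper914, row 96, P2-AXIS, part 3)
-/

set_option autoImplicit false
set_option linter.unusedSectionVars false

namespace Crest.Agent.R096.Ax_914

open Set Metric Function

variable {ι : Type*} {Q : Finset (ι → ℤ)} [DecidableEq ι]

/-- codimension two cells with normal directions `i, j` -/
def Cod2 (d : ι → ℤ) (i j : ι) : Prop :=
  i ≠ j ∧ d i % 2 = 0 ∧ d j % 2 = 0 ∧ ∀ k, k ≠ i → k ≠ j → d k % 2 = 1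

theorem Cod2.symm {d : ι → ℤ} {i j : ι} (h : Cod2 d i j) : Cod2 d j i :=
  ⟨h.1.symm, h.2.2.1, h.2.1, fun k h1 h2 => h.2.2.2 k h2 h1⟩

/-- a coface of a codimension two cell -/
theorem Cod2.cof {d : ι → ℤ} {i j : ι} (h : Cod2 d i j) {x : ℤ} (hx : x = 1 ∨ x = -1) :
    Cod1 (update d i (d i + x)) j ∧ Cof d (update d i (d i + x)) := by
  obtain ⟨h1, h2, h3, h4⟩ := h
  refine ⟨⟨?_, fun k hk => ?_⟩, fun k => ?_⟩
  · rw [update_of_ne h1.symm]; exact h3
  · by_cases hki : k = i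
    · subst hki; rw [update_self]; omega
    · rw [update_of_ne hki]; exact h4 k hki hk
  · by_cases hki : k = i
    · subst hki; rw [update_self]
      right
      exact ⟨h2, by omega⟩
    · rw [update_of_ne hki]; exact Or.inl rfl

/-- the top cells round a codimension two cell -/
def quad (d : ι → ℤ) (i j : ι) (x y : ℤ) : ι → ℤ := update (update d i (d i + x)) j (d j + y)

theorem quad_symm {d : ι → ℤ} {i j : ι} (h : i ≠ j) (x y : ℤ) : quad d i j x y = quad d j i y x := by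
  unfold quad
  rw [update_comm h]

theorem Cod2.quad_top {d : ι → ℤ} {i j : ι} (h : Cod2 d i j) {x y : ℤ} (hx : x = 1 ∨ x = -1)
    (hy : y = 1 ∨ y = -1) : Cof d (quad d i j x y) ∧ Top (quad d i j x y) := by
  obtain ⟨h1, h2, h3, h4⟩ := h
  unfold quad
  constructor <;> intro k <;> by_cases hkj : k = j
  · subst hkj; rw [update_self]; right; exact ⟨h3, by omega⟩
  · rw [update_of_ne hkj]
    by_cases hki : k = i
    · subst hki; rw [update_self]; right; exact ⟨h2, by omega⟩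
    · rw [update_of_ne hki]; exact Or.inl rfl
  · subst hkj; rw [update_self]; omega
  · rw [update_of_ne hkj]
    by_cases hki : k = i
    · subst hki; rw [update_self]; omega
    · rw [update_of_ne hki]; exact h4 k hki hkj

theorem Cod2.eq_quad {d : ι → ℤ} {i j : ι} (h : Cod2 d i j) {g : ι → ℤ} (hg : Cof d g)
    (hg2 : Top g) : ∃ x y : ℤ, (x = 1 ∨ x = -1) ∧ (y = 1 ∨ y = -1) ∧ g = quad d i j x y := by
  obtain ⟨h1, h2, h3, h4⟩ := h
  refine ⟨g i - d i, g j - d j, ?_, ?_, ?_⟩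
  · have := hg2 i
    rcases hg i with h5 | ⟨_, h5 | h5⟩ <;> omega
  · have := hg2 j
    rcases hg j with h5 | ⟨_, h5 | h5⟩ <;> omega
  · funext k
    unfold quad
    by_cases hkj : k = j
    · subst hkj; rw [update_self]; ring
    · rw [update_of_ne hkj]
      by_cases hki : k = i
      · subst hki; rw [update_self]; ring
      · rw [update_of_ne hki]
        have := h4 k hki hkj
        rcases hg k with h5 | ⟨h6, _⟩
        · exact h5
        · omega

/-- codimension one cofaces of a codimension two cell -/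
theorem Cod2.eq_cof {d : ι → ℤ} {i j : ι} (h : Cod2 d i j) {s : ι → ℤ} {l : ι} (hs : Cod1 s l)
    (hds : Cof d s) : (l = j ∧ ∃ x : ℤ, (x = 1 ∨ x = -1) ∧ s = update d i (d i + x)) ∨
      (l = i ∧ ∃ x : ℤ, (x = 1 ∨ x = -1) ∧ s = update d j (d j + x)) := by
  have hl := hs.eq_of_cof hds
  have hle : d l % 2 = 0 := by rw [← hl]; exact hs.1
  have main : ∀ i j, Cod2 d i j → l = j → ∃ x : ℤ, (x = 1 ∨ x = -1) ∧ s = update d i (d i + x) := by
    rintro i j ⟨h1, h2, h3, h4⟩ rfl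
    refine ⟨s i - d i, ?_, ?_⟩
    · have := hs.2 i h1
      rcases hds i with h5 | ⟨_, h5 | h5⟩ <;> omega
    · funext k
      by_cases hki : k = i
      · subst hki; rw [update_self]; ring
      · rw [update_of_ne hki]
        by_cases hkl : k = l
        · subst hkl; exact hl
        · rcases hds k with h5 | ⟨h6, _⟩
          · exact h5
          · have := h4 k hki hkl
            omega
  by_cases hlj : l = j
  · exact Or.inl ⟨hlj, main i j h hlj⟩
  · by_cases hli : l = i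
    · exact Or.inr ⟨hli, main j i h.symm hli⟩
    · have := h.2.2.2 l hli hlj
      omega

/-- a cell of `Q` round `d` contains the centre of `d` -/
theorem ctr_mem {d s : ι → ℤ} (h : Cof d s) : ctr d ∈ cel s := by
  intro i
  unfold ctr
  rcases h i with h1 | ⟨h1, h2 | h2⟩
  · rw [h1]
    rcases Int.even_or_odd' (d i) with ⟨m, hm | hm⟩
    · exact mem_even (by omega) (sub_self _)
    · exact mem_odd (by omega) (by simp)
  · rw [h2]
    exact mem_pos h1 (by simp) (by simp)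
  · rw [h2]
    exact mem_neg h1 (by simp) (by simp)

theorem ctr_mem_car {d s : ι → ℤ} (h : Cof d s) (hs : s ∈ Q) : ctr d ∈ car Q :=
  mem_car.2 ⟨s, hs, ctr_mem h⟩

theorem edge_logic_bool (b1 b2 b3 b4 c1 c2 c3 c4 : Bool)
    (p1 : b1 = false → c1 = c2) (p2 : b2 = false → c3 = c4) (p3 : b3 = false → c1 = c3)
    (p4 : b4 = false → c2 = c4)
    (r1 : b1 = true → b3 = true → (c1 = !c2) ∧ (c1 = !c3) ∧ (c1 = !c4))
    (r2 : b1 = true → b4 = true → (c2 = !c1) ∧ (c2 = !c3) ∧ (c2 = !c4))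
    (r3 : b2 = true → b3 = true → (c3 = !c1) ∧ (c3 = !c2) ∧ (c3 = !c4))
    (r4 : b2 = true → b4 = true → (c4 = !c1) ∧ (c4 = !c2) ∧ (c4 = !c3))
    (h1 : (c1 || c2 || c3 || c4) = true) (h2 : (c1 && c2 && c3 && c4) = false) :
    ((!b1 && !b2 && !b3 && !b4) || (b1 && b2 && !b3 && !b4) || (!b1 && !b2 && b3 && b4) ||
    (b1 && !b2 && b3 && !b4) || (b1 && !b2 && !b3 && b4) || (!b1 && b2 && b3 && !b4) ||
    (!b1 && b2 && !b3 && b4)) = true := by
  cases b1 <;> cases b2 <;> cases b3 <;> cases b4 <;> simp at * <;>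
   cases c1 <;> cases c2 <;> cases c3 <;> cases c4 <;> simp at *

theorem edge_logic (b1 b2 b3 b4 c1 c2 c3 c4 : Prop)
    (p1 : ¬ b1 → (c1 ↔ c2)) (p2 : ¬ b2 → (c3 ↔ c4)) (p3 : ¬ b3 → (c1 ↔ c3))
    (p4 : ¬ b4 → (c2 ↔ c4))
    (r1 : b1 → b3 → (c1 ↔ ¬ c2) ∧ (c1 ↔ ¬ c3) ∧ (c1 ↔ ¬ c4))
    (r2 : b1 → b4 → (c2 ↔ ¬ c1) ∧ (c2 ↔ ¬ c3) ∧ (c2 ↔ ¬ c4))
    (r3 : b2 → b3 → (c3 ↔ ¬ c1) ∧ (c3 ↔ ¬ c2) ∧ (c3 ↔ ¬ c4))
    (r4 : b2 → b4 → (c4 ↔ ¬ c1) ∧ (c4 ↔ ¬ c2) ∧ (c4 ↔ ¬ c3))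
    (h1 : c1 ∨ c2 ∨ c3 ∨ c4) (h2 : ¬ (c1 ∧ c2 ∧ c3 ∧ c4)) :
    (¬ b1 ∧ ¬ b2 ∧ ¬ b3 ∧ ¬ b4) ∨ (b1 ∧ b2 ∧ ¬ b3 ∧ ¬ b4) ∨ (¬ b1 ∧ ¬ b2 ∧ b3 ∧ b4) ∨
    (b1 ∧ ¬ b2 ∧ b3 ∧ ¬ b4) ∨ (b1 ∧ ¬ b2 ∧ ¬ b3 ∧ b4) ∨ (¬ b1 ∧ b2 ∧ b3 ∧ ¬ b4) ∨
    (¬ b1 ∧ b2 ∧ ¬ b3 ∧ b4) := by
  classical
  have hn : ∀ a b : Prop, (decide a = !decide b) ↔ (a ↔ ¬ b) := by
    intro a b
    by_cases ha : a <;> by_cases hb : b <;> simp [ha, hb]
  have := edge_logic_bool (decide b1) (decide b2) (decide b3) (decide b4)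
    (decide c1) (decide c2) (decide c3) (decide c4)
    (by simpa only [decide_eq_false_iff_not, decide_eq_decide] using p1)
    (by simpa only [decide_eq_false_iff_not, decide_eq_decide] using p2)
    (by simpa only [decide_eq_false_iff_not, decide_eq_decide] using p3)
    (by simpa only [decide_eq_false_iff_not, decide_eq_decide] using p4)
    (by simpa only [decide_eq_true_iff, hn] using r1)
    (by simpa only [decide_eq_true_iff, hn] using r2)
    (by simpa only [decide_eq_true_iff, hn] using r3)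
    (by simpa only [decide_eq_true_iff, hn] using r4)
    (by simpa only [Bool.or_eq_true, decide_eq_true_iff, or_assoc] using h1)
    (by rw [← Bool.not_eq_true]; simpa only [Bool.and_eq_true, decide_eq_true_iff, and_assoc] using h2)
  simpa only [Bool.or_eq_true, Bool.and_eq_true, Bool.not_eq_true', decide_eq_true_iff,
    decide_eq_false_iff_not, or_assoc, and_assoc] using this

/-- **edges**: zero or two cofaces -/
theorem edge_two [Fintype ι] (hQ : ∀ c ∈ Q, ∃ i, Cod1 c i)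
    (hS : ∀ x ∈ car Q, TwoSidedAt (car Q) x) {d : ι → ℤ} {i j : ι} (hd : Cod2 d i j) :
    (update d i (d i + 1) ∉ Q ∧ update d i (d i + -1) ∉ Q ∧ update d j (d j + 1) ∉ Q ∧
      update d j (d j + -1) ∉ Q) ∨
    (update d i (d i + 1) ∈ Q ∧ update d i (d i + -1) ∈ Q ∧ update d j (d j + 1) ∉ Q ∧
      update d j (d j + -1) ∉ Q) ∨
    (update d i (d i + 1) ∉ Q ∧ update d i (d i + -1) ∉ Q ∧ update d j (d j + 1) ∈ Q ∧
      update d j (d j + -1) ∈ Q) ∨
    (update d i (d i + 1) ∈ Q ∧ update d i (d i + -1) ∉ Q ∧ update d j (d j + 1) ∈ Q ∧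
      update d j (d j + -1) ∉ Q) ∨
    (update d i (d i + 1) ∈ Q ∧ update d i (d i + -1) ∉ Q ∧ update d j (d j + 1) ∉ Q ∧
      update d j (d j + -1) ∈ Q) ∨
    (update d i (d i + 1) ∉ Q ∧ update d i (d i + -1) ∈ Q ∧ update d j (d j + 1) ∈ Q ∧
      update d j (d j + -1) ∉ Q) ∨
    (update d i (d i + 1) ∉ Q ∧ update d i (d i + -1) ∈ Q ∧ update d j (d j + 1) ∉ Q ∧
      update d j (d j + -1) ∈ Q) := by
  by_cases hx : ctr d ∈ car Q
  swap
  · left
    refine ⟨fun h => hx (ctr_mem_car (hd.cof (Or.inl rfl)).2 h),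
      fun h => hx (ctr_mem_car (hd.cof (Or.inr rfl)).2 h),
      fun h => hx (ctr_mem_car (hd.symm.cof (Or.inl rfl)).2 h),
      fun h => hx (ctr_mem_car (hd.symm.cof (Or.inr rfl)).2 h)⟩
  obtain ⟨A, ⟨g, hg, hg2, hgA⟩, ⟨k, hk, hk2, hkA⟩, hA, hφ⟩ := local_classes hQ (hS _ hx)
  have e1 : ∀ x y : ℤ, update (update d i (d i + x)) j (d j + y) = quad d i j x y := fun _ _ => rfl
  have e2 : ∀ x y : ℤ, update (update d j (d j + y)) i (d i + x) = quad d i j x y := fun x y => by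
    rw [quad_symm hd.1]; rfl
  -- the classes are constant across absent cells
  have a1 : ∀ (φ : (ι → ℤ) → Prop), AbsConst Q d φ → ∀ x : ℤ, (x = 1 ∨ x = -1) →
      update d i (d i + x) ∉ Q → (φ (quad d i j x 1) ↔ φ (quad d i j x (-1))) := by
    intro φ hφ x hx hm
    have := hφ _ j (hd.cof hx).1 (hd.cof hx).2 hm
    rw [update_of_ne hd.1.symm, e1, sub_eq_add_neg, e1] at this
    exact this
  have a2 : ∀ (φ : (ι → ℤ) → Prop), AbsConst Q d φ → ∀ y : ℤ, (y = 1 ∨ y = -1) →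
      update d j (d j + y) ∉ Q → (φ (quad d i j 1 y) ↔ φ (quad d i j (-1) y)) := by
    intro φ hφ y hy hm
    have := hφ _ i (hd.symm.cof hy).1 (hd.symm.cof hy).2 hm
    rw [update_of_ne hd.1, e2, sub_eq_add_neg, e2] at this
    exact this
  have a3 : ∀ (φ : (ι → ℤ) → Prop), (∀ x : ℤ, (x = 1 ∨ x = -1) →
      update d i (d i + x) ∉ Q → (φ (quad d i j x 1) ↔ φ (quad d i j x (-1)))) →
      (∀ y : ℤ, (y = 1 ∨ y = -1) →
      update d j (d j + y) ∉ Q → (φ (quad d i j 1 y) ↔ φ (quad d i j (-1) y))) →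
      AbsConst Q d φ := by
    intro φ h1 h2 s l hs hds hsQ
    rcases hd.eq_cof hs hds with ⟨rfl, x, hx, rfl⟩ | ⟨rfl, y, hy, rfl⟩
    · rw [update_of_ne hd.1.symm, e1, sub_eq_add_neg, e1]
      exact h1 x hx hsQ
    · rw [update_of_ne hd.1, e2, sub_eq_add_neg, e2]
      exact h2 y hy hsQ
  -- a top cell whose two walls are present is alone in its class
  have inj : ∀ x y x' y' : ℤ, quad d i j x y = quad d i j x' y' ↔ x = x' ∧ y = y' := by
    intro x y x' y'
    constructor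
    · intro h
      have h1 := congrFun h i
      have h2 := congrFun h j
      simp only [quad, update_self, update_of_ne hd.1] at h1 h2
      exact ⟨by omega, by omega⟩
    · rintro ⟨rfl, rfl⟩; rfl
  have alone : ∀ x y : ℤ, (x = 1 ∨ x = -1) → (y = 1 ∨ y = -1) → update d i (d i + x) ∈ Q →
      update d j (d j + y) ∈ Q → ∀ x' y' : ℤ, (x' = 1 ∨ x' = -1) → (y' = 1 ∨ y' = -1) →
      (A (quad d i j x y) ↔ A (quad d i j x' y')) → x' = x ∧ y' = y := by
    intro x y hx hy h1 h2 x' y' hx' hy' hA'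
    have hc : AbsConst Q d (fun g => g = quad d i j x y) := by
      refine a3 _ (fun u hu hm => ?_) (fun v hv hm => ?_)
      · simp only [inj]
        constructor
        · rintro ⟨rfl, _⟩; exact absurd h1 hm
        · rintro ⟨rfl, _⟩; exact absurd h1 hm
      · simp only [inj]
        constructor
        · rintro ⟨_, rfl⟩; exact absurd h2 hm
        · rintro ⟨_, rfl⟩; exact absurd h2 hm
    have := hφ _ hc _ _ (hd.quad_top hx hy).1 (hd.quad_top hx hy).2 (hd.quad_top hx' hy').1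
      (hd.quad_top hx' hy').2 hA' rfl
    exact (inj _ _ _ _).1 this
  obtain ⟨gx, gy, hgx, hgy, rfl⟩ := hd.eq_quad hg hg2
  obtain ⟨kx, ky, hkx, hky, rfl⟩ := hd.eq_quad hk hk2
  have alone' : ∀ x y : ℤ, (x = 1 ∨ x = -1) → (y = 1 ∨ y = -1) → update d i (d i + x) ∈ Q →
      update d j (d j + y) ∈ Q → ∀ x' y' : ℤ, (x' = 1 ∨ x' = -1) → (y' = 1 ∨ y' = -1) →
      ¬ (x' = x ∧ y' = y) → (A (quad d i j x y) ↔ ¬ A (quad d i j x' y')) := by
    intro x y hx hy h1 h2 x' y' hx' hy' hne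
    have := fun h => hne (alone x y hx hy h1 h2 x' y' hx' hy' h)
    constructor
    · intro a b
      exact this ⟨fun _ => b, fun _ => a⟩
    · intro a
      by_contra c
      exact this ⟨fun h => absurd h c, fun h => absurd h a⟩
  have o : (1 : ℤ) = 1 ∨ (1 : ℤ) = -1 := Or.inl rfl
  have m : (-1 : ℤ) = 1 ∨ (-1 : ℤ) = -1 := Or.inr rfl
  have p1 := a1 A hA 1 o
  have p2 := a1 A hA (-1) m
  have p3 := a2 A hA 1 o
  have p4 := a2 A hA (-1) m
  have r1 := fun h1 h2 => And.intro (alone' 1 1 o o h1 h2 1 (-1) o m (by norm_num))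
      (And.intro (alone' 1 1 o o h1 h2 (-1) 1 m o (by norm_num))
      (alone' 1 1 o o h1 h2 (-1) (-1) m m (by norm_num)))
  have r2 := fun h1 h2 => And.intro (alone' 1 (-1) o m h1 h2 1 1 o o (by norm_num))
      (And.intro (alone' 1 (-1) o m h1 h2 (-1) 1 m o (by norm_num))
      (alone' 1 (-1) o m h1 h2 (-1) (-1) m m (by norm_num)))
  have r3 := fun h1 h2 => And.intro (alone' (-1) 1 m o h1 h2 1 1 o o (by norm_num))
      (And.intro (alone' (-1) 1 m o h1 h2 1 (-1) o m (by norm_num))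
      (alone' (-1) 1 m o h1 h2 (-1) (-1) m m (by norm_num)))
  have r4 := fun h1 h2 => And.intro (alone' (-1) (-1) m m h1 h2 1 1 o o (by norm_num))
      (And.intro (alone' (-1) (-1) m m h1 h2 1 (-1) o m (by norm_num))
      (alone' (-1) (-1) m m h1 h2 (-1) 1 m o (by norm_num)))
  have q1 : A (quad d i j 1 1) ∨ A (quad d i j 1 (-1)) ∨ A (quad d i j (-1) 1) ∨
      A (quad d i j (-1) (-1)) := by
    rcases hgx with rfl | rfl <;> rcases hgy with rfl | rfl
    · exact Or.inl hgA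
    · exact Or.inr (Or.inl hgA)
    · exact Or.inr (Or.inr (Or.inl hgA))
    · exact Or.inr (Or.inr (Or.inr hgA))
  have q2 : ¬ (A (quad d i j 1 1) ∧ A (quad d i j 1 (-1)) ∧ A (quad d i j (-1) 1) ∧
      A (quad d i j (-1) (-1))) := by
    rintro ⟨u1, u2, u3, u4⟩
    rcases hkx with rfl | rfl <;> rcases hky with rfl | rfl
    · exact hkA u1
    · exact hkA u2
    · exact hkA u3
    · exact hkA u4
  clear alone' alone a1 a2 a3 e1 e2 hφ hA inj hg hg2 hk hk2 hgA hkA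
  generalize A (quad d i j 1 1) = c1 at *
  generalize A (quad d i j 1 (-1)) = c2 at *
  generalize A (quad d i j (-1) 1) = c3 at *
  generalize A (quad d i j (-1) (-1)) = c4 at *
  generalize (update d i (d i + 1) ∈ Q) = b1 at *
  generalize (update d i (d i + -1) ∈ Q) = b2 at *
  generalize (update d j (d j + 1) ∈ Q) = b3 at *
  generalize (update d j (d j + -1) ∈ Q) = b4 at *
  exact edge_logic b1 b2 b3 b4 c1 c2 c3 c4 p1 p2 p3 p4 r1 r2 r3 r4 q1 q2

end Crest.Agent.R096.Ax_914
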