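import Crest.Agent.R096.Ax3_914

/-!
# Vertices of a two-sided cubical surface (helper914, row 96, P2-AXIS, part 4)
-/

set_option autoImplicit false
set_option linter.unusedSectionVars false

namespace Crest.Agent.R096.Ax_914

open Set Metric Function

theorem two_zero : (2 : ZMod 2) = 0 := by decide

/-- the four cofaces of every half-axis at the vertex `(a, b, c)` sum up to zero -/
def ClosedAt (T : ℤ → ℤ → ℤ → ZMod 2) (a b c : ℤ) : Prop :=
  ∀ s : ℤ, (s = 1 ∨ s = -1) →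
    (T (a + s) (b + 1) c + T (a + s) (b - 1) c + T (a + s) b (c + 1) + T (a + s) b (c - 1) = 0 ∧
     T (a + 1) (b + s) c + T (a - 1) (b + s) c + T a (b + s) (c + 1) + T a (b + s) (c - 1) = 0 ∧
     T (a + 1) b (c + s) + T (a - 1) b (c + s) + T a (b + 1) (c + s) + T a (b - 1) (c + s) = 0)

/-- the potential on the cubes round the vertex `(a, b, c)` -/
def pot (T : ℤ → ℤ → ℤ → ZMod 2) (a b c x y z : ℤ) : ZMod 2 :=
  (if x = a + 1 then T a (b - 1) (c - 1) else 0) + (if y = b + 1 then T x b (c - 1) else 0) +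
    (if z = c + 1 then T x y c else 0)

theorem pot_x {T : ℤ → ℤ → ℤ → ZMod 2} {a b c : ℤ} (h : ClosedAt T a b c) {y z : ℤ}
    (hy : y = b + 1 ∨ y = b - 1) (hz : z = c + 1 ∨ z = c - 1) :
    T a y z = pot T a b c (a + 1) y z + pot T a b c (a - 1) y z := by
  have n1 : ¬ (a - 1 = a + 1) := by omega
  have n2 : ¬ (b - 1 = b + 1) := by omega
  have n3 : ¬ (c - 1 = c + 1) := by omega
  have hp := h 1 (Or.inl rfl)
  have hm := h (-1) (Or.inr rfl)
  simp only [← sub_eq_add_neg] at hm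
  obtain ⟨_, hp2, hp3⟩ := hp
  obtain ⟨_, hm2, hm3⟩ := hm
  unfold pot
  rcases hy with rfl | rfl <;> rcases hz with rfl | rfl <;>
    simp only [n1, n2, n3, if_true, if_false, add_zero, zero_add]
  · linear_combination (-1) * hm3 - hp2 + (T a (b + 1) (c + 1) + T a (b + 1) (c - 1)) * two_zero
  · linear_combination (-1) * hm3 + T a (b + 1) (c - 1) * two_zero
  · linear_combination (-1) * hm2 + T a (b - 1) (c + 1) * two_zero

theorem pot_y {T : ℤ → ℤ → ℤ → ZMod 2} {a b c : ℤ} (h : ClosedAt T a b c) {x z : ℤ}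
    (hx : x = a + 1 ∨ x = a - 1) (hz : z = c + 1 ∨ z = c - 1) :
    T x b z = pot T a b c x (b + 1) z + pot T a b c x (b - 1) z := by
  have n1 : ¬ (a - 1 = a + 1) := by omega
  have n2 : ¬ (b - 1 = b + 1) := by omega
  have n3 : ¬ (c - 1 = c + 1) := by omega
  have hp := (h 1 (Or.inl rfl)).1
  have hm := (h (-1) (Or.inr rfl)).1
  simp only [← sub_eq_add_neg] at hm
  unfold pot
  rcases hx with rfl | rfl <;> rcases hz with rfl | rfl <;>
    simp only [n1, n2, n3, if_true, if_false, add_zero, zero_add]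
  · linear_combination (-1) * hp + (T (a + 1) b (c + 1) - T a (b - 1) (c - 1)) * two_zero
  · linear_combination (- T a (b - 1) (c - 1)) * two_zero
  · linear_combination (-1) * hm + T (a - 1) b (c + 1) * two_zero

theorem pot_z {T : ℤ → ℤ → ℤ → ZMod 2} {a b c : ℤ} (x y : ℤ) :
    T x y c = pot T a b c x y (c + 1) + pot T a b c x y (c - 1) := by
  have n3 : ¬ (c - 1 = c + 1) := by omega
  unfold pot
  simp only [n3, if_true, if_false, add_zero]
  linear_combination (-((if x = a + 1 then T a (b - 1) (c - 1) else 0) +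
    (if y = b + 1 then T x b (c - 1) else 0))) * two_zero

theorem vec_eta (s : Fin 3 → ℤ) : ![s 0, s 1, s 2] = s := by
  funext i
  fin_cases i <;> rfl

theorem upd0 (s : Fin 3 → ℤ) (v : ℤ) : update s 0 v = ![v, s 1, s 2] := by
  funext i
  fin_cases i <;> rfl

theorem upd1 (s : Fin 3 → ℤ) (v : ℤ) : update s 1 v = ![s 0, v, s 2] := by
  funext i
  fin_cases i <;> rfl

theorem upd2 (s : Fin 3 → ℤ) (v : ℤ) : update s 2 v = ![s 0, s 1, v] := by
  funext i
  fin_cases i <;> rfl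

theorem Cod1.side {d s : Fin 3 → ℤ} {i : Fin 3} (hs : Cod1 s i) (hd : ∀ j, d j % 2 = 0)
    (h : Cof d s) {j : Fin 3} (hj : j ≠ i) : s j = d j + 1 ∨ s j = d j - 1 := by
  have h1 := hs.2 j hj
  have h2 := hd j
  rcases h j with h3 | ⟨_, h3⟩
  · omega
  · exact h3

/-- the value of a closed cochain on a square is the jump of its potential -/
theorem pot_jump {T : ℤ → ℤ → ℤ → ZMod 2} {d : Fin 3 → ℤ} (hd : ∀ j, d j % 2 = 0)
    (h : ClosedAt T (d 0) (d 1) (d 2)) {s : Fin 3 → ℤ} {i : Fin 3} (hs : Cod1 s i)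
    (hds : Cof d s) :
    T (s 0) (s 1) (s 2) =
      pot T (d 0) (d 1) (d 2) (update s i (s i + 1) 0) (update s i (s i + 1) 1)
        (update s i (s i + 1) 2) +
      pot T (d 0) (d 1) (d 2) (update s i (s i - 1) 0) (update s i (s i - 1) 1)
        (update s i (s i - 1) 2) := by
  have e := hs.eq_of_cof hds
  fin_cases i
  · simp only [Fin.zero_eta, upd0]
    have := pot_x h (hs.side hd hds (j := 1) (by decide)) (hs.side hd hds (j := 2) (by decide))
    simp only [Fin.zero_eta] at e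
    rw [e]
    exact this
  · simp only [Fin.mk_one, upd1]
    have := pot_y h (hs.side hd hds (j := 0) (by decide)) (hs.side hd hds (j := 2) (by decide))
    simp only [Fin.mk_one] at e
    rw [e]
    exact this
  · simp only [Fin.reduceFinMk, upd2]
    have := pot_z (T := T) (a := d 0) (b := d 1) (c := d 2) (s 0) (s 1)
    simp only [Fin.reduceFinMk] at e
    rw [e]
    exact this

theorem zmod2_cases (x : ZMod 2) : x = 0 ∨ x = 1 := by
  revert x; decide

/-- a closed cochain supported on `Q` is zero or the boundary of the class `A` -/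
theorem closed_dichotomy {Q : Finset (Fin 3 → ℤ)} {d : Fin 3 → ℤ} (hd : ∀ j, d j % 2 = 0)
    {A : (Fin 3 → ℤ) → Prop}
    (hφ : ∀ φ, AbsConst Q d φ → ∀ g g', Cof d g → Top g → Cof d g' → Top g' → (A g ↔ A g') →
        φ g → φ g') {T : ℤ → ℤ → ℤ → ZMod 2} (hTQ : ∀ s : Fin 3 → ℤ, T (s 0) (s 1) (s 2) ≠ 0 → s ∈ Q)
    (hT : ClosedAt T (d 0) (d 1) (d 2)) :
    (∀ s i, Cod1 s i → Cof d s → T (s 0) (s 1) (s 2) = 0) ∨
    (∀ s i, Cod1 s i → Cof d s → (T (s 0) (s 1) (s 2) = 1 ↔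
      ¬ (A (update s i (s i + 1)) ↔ A (update s i (s i - 1))))) := by
  classical
  let φ : (Fin 3 → ℤ) → ZMod 2 := fun g => pot T (d 0) (d 1) (d 2) (g 0) (g 1) (g 2)
  have hj : ∀ s i, Cod1 s i → Cof d s → T (s 0) (s 1) (s 2) =
      φ (update s i (s i + 1)) + φ (update s i (s i - 1)) := fun s i hs hds => pot_jump hd hT hs hds
  have hside : ∀ s i, Cod1 s i → Cof d s → ∀ a : ℤ, (a = s i + 1 ∨ a = s i - 1) →
      Cof d (update s i a) ∧ Top (update s i a) := by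
    intro s i hs hds a ha
    have e := hs.eq_of_cof hds
    constructor
    · intro j
      by_cases hji : j = i
      · subst hji; rw [update_self]; right; exact ⟨hd j, by omega⟩
      · rw [update_of_ne hji]; exact hds j
    · intro j
      by_cases hji : j = i
      · subst hji; rw [update_self]
        have := hs.1
        omega
      · rw [update_of_ne hji]; exact hs.2 j hji
  have hcl : ∀ g g', Cof d g → Top g → Cof d g' → Top g' → (A g ↔ A g') → φ g' = φ g := by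
    intro g g' hg hg2 hg' hg2' hA
    refine hφ (fun h => φ h = φ g) ?_ g g' hg hg2 hg' hg2' hA rfl
    intro s i hs hds hsQ
    have h1 : T (s 0) (s 1) (s 2) = 0 := by
      by_contra h; exact hsQ (hTQ s h)
    rw [hj s i hs hds] at h1
    have h2 : φ (update s i (s i + 1)) = φ (update s i (s i - 1)) := CharTwo.add_eq_zero.1 h1
    show φ (update s i (s i + 1)) = φ g ↔ φ (update s i (s i - 1)) = φ g
    rw [h2]
  by_cases hc : ∀ g g', Cof d g → Top g → Cof d g' → Top g' → φ g' = φ g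
  · left
    intro s i hs hds
    have h1 := hside s i hs hds _ (Or.inl rfl)
    have h2 := hside s i hs hds _ (Or.inr rfl)
    rw [hj s i hs hds, hc _ _ h2.1 h2.2 h1.1 h1.2]
    exact CharTwo.add_self_eq_zero _
  · right
    push Not at hc
    obtain ⟨g, g', hg, hg2, hg', hg2', hne⟩ := hc
    intro s i hs hds
    have h1 := hside s i hs hds _ (Or.inl rfl)
    have h2 := hside s i hs hds _ (Or.inr rfl)
    rw [hj s i hs hds]
    constructor
    · intro h3 hA
      rw [hcl _ _ h2.1 h2.2 h1.1 h1.2 hA.symm, CharTwo.add_self_eq_zero] at h3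
      exact absurd h3 (by decide)
    · intro hA
      have hgg : ¬ (A g ↔ A g') := fun h => hne (hcl _ _ hg hg2 hg' hg2' h)
      have h3 : φ (update s i (s i + 1)) ≠ φ (update s i (s i - 1)) := by
        intro h3
        apply hne
        by_cases a1 : A g <;> by_cases a2 : A g' <;> by_cases a3 : A (update s i (s i + 1)) <;>
          by_cases a4 : A (update s i (s i - 1)) <;>
          simp only [a1, a2, a3, a4, not_true_eq_false, iff_self, iff_true, iff_false,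
            not_false_eq_true] at hgg hA
        · rw [hcl _ _ h1.1 h1.2 hg hg2 (by simp [a1, a3]) ,
            hcl _ _ h2.1 h2.2 hg' hg2' (by simp [a2, a4]), h3]
        · rw [hcl _ _ h2.1 h2.2 hg hg2 (by simp [a1, a4]),
            hcl _ _ h1.1 h1.2 hg' hg2' (by simp [a2, a3]), h3]
        · rw [hcl _ _ h2.1 h2.2 hg hg2 (by simp [a1, a4]),
            hcl _ _ h1.1 h1.2 hg' hg2' (by simp [a2, a3]), h3]
        · rw [hcl _ _ h1.1 h1.2 hg hg2 (by simp [a1, a3]) ,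
            hcl _ _ h2.1 h2.2 hg' hg2' (by simp [a2, a4]), h3]
      rcases zmod2_cases (φ (update s i (s i + 1))) with h4 | h4 <;>
        rcases zmod2_cases (φ (update s i (s i - 1))) with h5 | h5
      · exact absurd (h4.trans h5.symm) h3
      · rw [h4, h5]; rfl
      · rw [h4, h5]; rfl
      · exact absurd (h4.trans h5.symm) h3

/-- the indicator of `Q` -/
noncomputable def ind (Q : Finset (Fin 3 → ℤ)) (x y z : ℤ) : ZMod 2 :=
  open Classical in if ![x, y, z] ∈ Q then 1 else 0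

theorem ind_eq_one {Q : Finset (Fin 3 → ℤ)} {x y z : ℤ} : ind Q x y z = 1 ↔ ![x, y, z] ∈ Q := by
  unfold ind
  split_ifs with h <;> simp [h]

theorem ind_eq_zero {Q : Finset (Fin 3 → ℤ)} {x y z : ℤ} : ind Q x y z = 0 ↔ ![x, y, z] ∉ Q := by
  unfold ind
  split_ifs with h <;> simp [h]

theorem ind_vec {Q : Finset (Fin 3 → ℤ)} (s : Fin 3 → ℤ) :
    ind Q (s 0) (s 1) (s 2) = 1 ↔ s ∈ Q := by rw [ind_eq_one, vec_eta]

theorem ind_vec_zero {Q : Finset (Fin 3 → ℤ)} (s : Fin 3 → ℤ) :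
    ind Q (s 0) (s 1) (s 2) = 0 ↔ s ∉ Q := by rw [ind_eq_zero, vec_eta]

/-- **edges**: the sum of the indicator over the four cofaces is zero, and not all four are in -/
theorem ind_edge {Q : Finset (Fin 3 → ℤ)} (hQ : ∀ c ∈ Q, ∃ i, Cod1 c i)
    (hS : ∀ x ∈ car Q, TwoSidedAt (car Q) x) {d : Fin 3 → ℤ} {i j : Fin 3} (hd : Cod2 d i j) :
    (∀ v : (Fin 3 → ℤ) → ZMod 2, (∀ s, v s = 1 ↔ s ∈ Q) →
      v (update d i (d i + 1)) + v (update d i (d i + -1)) +
      v (update d j (d j + 1)) + v (update d j (d j + -1)) = 0) ∧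
    ¬ (update d i (d i + 1) ∈ Q ∧ update d i (d i + -1) ∈ Q ∧
      update d j (d j + 1) ∈ Q ∧ update d j (d j + -1) ∈ Q) := by
  constructor
  · intro v hv
    have hv0 : ∀ s, s ∉ Q → v s = 0 := by
      intro s hs
      rcases zmod2_cases (v s) with h | h
      · exact h
      · exact absurd ((hv s).1 h) hs
    have hv1 : ∀ s, s ∈ Q → v s = 1 := fun s hs => (hv s).2 hs
    rcases edge_two hQ hS hd with ⟨h1, h2, h3, h4⟩ | ⟨h1, h2, h3, h4⟩ | ⟨h1, h2, h3, h4⟩ |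
      ⟨h1, h2, h3, h4⟩ | ⟨h1, h2, h3, h4⟩ | ⟨h1, h2, h3, h4⟩ | ⟨h1, h2, h3, h4⟩
    · rw [hv0 _ h1, hv0 _ h2, hv0 _ h3, hv0 _ h4]; rfl
    · rw [hv1 _ h1, hv1 _ h2, hv0 _ h3, hv0 _ h4]; rfl
    · rw [hv0 _ h1, hv0 _ h2, hv1 _ h3, hv1 _ h4]; rfl
    · rw [hv1 _ h1, hv0 _ h2, hv1 _ h3, hv0 _ h4]; rfl
    · rw [hv1 _ h1, hv0 _ h2, hv0 _ h3, hv1 _ h4]; rfl
    · rw [hv0 _ h1, hv1 _ h2, hv1 _ h3, hv0 _ h4]; rfl
    · rw [hv0 _ h1, hv1 _ h2, hv0 _ h3, hv1 _ h4]; rfl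
  · rintro ⟨h1, h2, h3, h4⟩
    rcases edge_two hQ hS hd with h | h | h | h | h | h | h
    · exact h.1 h1
    · exact h.2.2.1 h3
    · exact h.1 h1
    · exact h.2.1 h2
    · exact h.2.1 h2
    · exact h.1 h1
    · exact h.1 h1

/-- edge in direction `x` -/
theorem ind_edge_x {Q : Finset (Fin 3 → ℤ)} (hQ : ∀ c ∈ Q, ∃ i, Cod1 c i)
    (hS : ∀ x ∈ car Q, TwoSidedAt (car Q) x) {a b c : ℤ} (ha : a % 2 = 1) (hb : b % 2 = 0)
    (hc : c % 2 = 0) :
    ind Q a (b + 1) c + ind Q a (b - 1) c + ind Q a b (c + 1) + ind Q a b (c - 1) = 0 ∧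
    ¬ (![a, b + 1, c] ∈ Q ∧ ![a, b - 1, c] ∈ Q ∧ ![a, b, c + 1] ∈ Q ∧ ![a, b, c - 1] ∈ Q) := by
  have hd : Cod2 ![a, b, c] 1 2 := by
    refine ⟨by decide, hb, hc, fun k h1 h2 => ?_⟩
    fin_cases k
    · exact ha
    · exact absurd rfl h1
    · exact absurd rfl h2
  obtain ⟨h1, h2⟩ := ind_edge hQ hS hd
  have h1 := h1 (fun s => ind Q (s 0) (s 1) (s 2)) ind_vec
  simp only [upd1, upd2, ← sub_eq_add_neg] at h1 h2
  exact ⟨h1, h2⟩

/-- edge in direction `y` -/
theorem ind_edge_y {Q : Finset (Fin 3 → ℤ)} (hQ : ∀ c ∈ Q, ∃ i, Cod1 c i)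
    (hS : ∀ x ∈ car Q, TwoSidedAt (car Q) x) {a b c : ℤ} (ha : a % 2 = 0) (hb : b % 2 = 1)
    (hc : c % 2 = 0) :
    ind Q (a + 1) b c + ind Q (a - 1) b c + ind Q a b (c + 1) + ind Q a b (c - 1) = 0 ∧
    ¬ (![a + 1, b, c] ∈ Q ∧ ![a - 1, b, c] ∈ Q ∧ ![a, b, c + 1] ∈ Q ∧ ![a, b, c - 1] ∈ Q) := by
  have hd : Cod2 ![a, b, c] 0 2 := by
    refine ⟨by decide, ha, hc, fun k h1 h2 => ?_⟩
    fin_cases k
    · exact absurd rfl h1
    · exact hb
    · exact absurd rfl h2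
  obtain ⟨h1, h2⟩ := ind_edge hQ hS hd
  have h1 := h1 (fun s => ind Q (s 0) (s 1) (s 2)) ind_vec
  simp only [upd0, upd2, ← sub_eq_add_neg] at h1 h2
  exact ⟨h1, h2⟩

/-- edge in direction `z` -/
theorem ind_edge_z {Q : Finset (Fin 3 → ℤ)} (hQ : ∀ c ∈ Q, ∃ i, Cod1 c i)
    (hS : ∀ x ∈ car Q, TwoSidedAt (car Q) x) {a b c : ℤ} (ha : a % 2 = 0) (hb : b % 2 = 0)
    (hc : c % 2 = 1) :
    ind Q (a + 1) b c + ind Q (a - 1) b c + ind Q a (b + 1) c + ind Q a (b - 1) c = 0 ∧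
    ¬ (![a + 1, b, c] ∈ Q ∧ ![a - 1, b, c] ∈ Q ∧ ![a, b + 1, c] ∈ Q ∧ ![a, b - 1, c] ∈ Q) := by
  have hd : Cod2 ![a, b, c] 0 1 := by
    refine ⟨by decide, ha, hb, fun k h1 h2 => ?_⟩
    fin_cases k
    · exact absurd rfl h1
    · exact absurd rfl h2
    · exact hc
  obtain ⟨h1, h2⟩ := ind_edge hQ hS hd
  have h1 := h1 (fun s => ind Q (s 0) (s 1) (s 2)) ind_vec
  simp only [upd0, upd1, ← sub_eq_add_neg] at h1 h2
  exact ⟨h1, h2⟩

theorem ind_closedAt {Q : Finset (Fin 3 → ℤ)} (hQ : ∀ c ∈ Q, ∃ i, Cod1 c i)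
    (hS : ∀ x ∈ car Q, TwoSidedAt (car Q) x) {a b c : ℤ} (ha : a % 2 = 0) (hb : b % 2 = 0)
    (hc : c % 2 = 0) : ClosedAt (ind Q) a b c := by
  intro s hs
  refine ⟨(ind_edge_x hQ hS ?_ hb hc).1, (ind_edge_y hQ hS ha ?_ hc).1,
    (ind_edge_z hQ hS ha hb ?_).1⟩ <;> omega

/-- **(link)**: a closed subset of the squares at a vertex is empty or everything -/
theorem vertex_link {Q : Finset (Fin 3 → ℤ)} (hQ : ∀ c ∈ Q, ∃ i, Cod1 c i)
    (hS : ∀ x ∈ car Q, TwoSidedAt (car Q) x) {d : Fin 3 → ℤ} (hd : ∀ j, d j % 2 = 0)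
    {T : ℤ → ℤ → ℤ → ZMod 2} (hTQ : ∀ s : Fin 3 → ℤ, T (s 0) (s 1) (s 2) ≠ 0 → s ∈ Q)
    (hT : ClosedAt T (d 0) (d 1) (d 2)) :
    (∀ s i, Cod1 s i → Cof d s → T (s 0) (s 1) (s 2) = 0) ∨
    (∀ s i, Cod1 s i → Cof d s → T (s 0) (s 1) (s 2) = ind Q (s 0) (s 1) (s 2)) := by
  by_cases hx : ctr d ∈ car Q
  swap
  · left
    intro s i hs hds
    by_contra h
    exact hx (ctr_mem_car hds (hTQ s h))
  obtain ⟨A, _, _, _, hφ⟩ := local_classes hQ (hS _ hx)
  rcases closed_dichotomy hd hφ hTQ hT with h | h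
  · exact Or.inl h
  right
  intro s i hs hds
  rcases closed_dichotomy hd hφ (T := ind Q) (fun s hs => by
    by_contra h'; exact hs ((ind_vec_zero s).2 h')) (ind_closedAt hQ hS (hd 0) (hd 1) (hd 2))
    with h' | h'
  · -- impossible: a square of `Q` at `d`
    have h1 : T (s 0) (s 1) (s 2) = 0 := by
      by_contra h2
      exact (ind_vec_zero s).1 (h' s i hs hds) (hTQ s h2)
    rw [h1, h' s i hs hds]
  · have h1 := h s i hs hds
    have h2 := h' s i hs hds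
    rw [← h2] at h1
    rcases zmod2_cases (T (s 0) (s 1) (s 2)) with h3 | h3 <;>
      rcases zmod2_cases (ind Q (s 0) (s 1) (s 2)) with h4 | h4
    · rw [h3, h4]
    · rw [h3, h4] at h1; exact absurd (h1.2 rfl) (by decide)
    · rw [h3, h4] at h1; exact absurd (h1.1 rfl) (by decide)
    · rw [h3, h4]

end Crest.Agent.R096.Ax_914
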