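import Crest.Agent.R096.Ax4_914

/-!
# Connectedness and local potentials (helper914, row 96, P2-AXIS, part 5)
-/

set_option autoImplicit false
set_option linter.unusedSectionVars false

namespace Crest.Agent.R096.Ax_914

open Set Metric Function

/-! ### cells and their intersections -/

theorem isClosed_cel {ι : Type*} (c : ι → ℤ) : IsClosed (cel c) := by
  rw [cel_eq_Icc]; exact isClosed_Icc

theorem convex_cel {ι : Type*} (c : ι → ℤ) : Convex ℝ (cel c) := by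
  rw [cel_eq_Icc]; exact convex_Icc _ _

/-- the cell of the intersection -/
def meet {ι : Type*} (s t : ι → ℤ) : ι → ℤ :=
  fun i => if s i = t i then s i else 2 * max (s i / 2) (t i / 2)

theorem meet_comm {ι : Type*} (s t : ι → ℤ) : meet s t = meet t s := by
  funext i
  unfold meet
  by_cases h : s i = t i
  · rw [if_pos h, if_pos h.symm, h]
  · rw [if_neg h, if_neg (Ne.symm h), max_comm]

theorem le_of_both {a b : ℤ} {x : ℝ} (h1 : (a : ℝ) ≤ x) (h2 : x ≤ (b : ℝ)) : a ≤ b := by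
  exact_mod_cast h1.trans h2

theorem meet_cof {ι : Type*} {s t : ι → ℤ} {x : ι → ℝ} (hs : x ∈ cel s) (ht : x ∈ cel t) :
    Cof (meet s t) s := by
  intro i
  unfold meet
  by_cases h : s i = t i
  · rw [if_pos h]; exact Or.inl rfl
  · rw [if_neg h]
    have h1 := le_of_both (hs i).1 (hs i).2
    have h2 := le_of_both (ht i).1 (hs i).2
    rcases max_cases (s i / 2) (t i / 2) with ⟨h3, h4⟩ | ⟨h3, h4⟩ <;> rw [h3] <;> omega

/-- the lower vertex of a point -/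
noncomputable def vtx {ι : Type*} (x : ι → ℝ) : ι → ℤ := fun i => 2 * ⌊x i⌋

theorem vtx_even {ι : Type*} (x : ι → ℝ) (i : ι) : vtx x i % 2 = 0 := by
  unfold vtx; omega

theorem meet_eq_of_ne {ι : Type*} {s t : ι → ℤ} {x : ι → ℝ} (hs : x ∈ cel s) (ht : x ∈ cel t)
    {i : ι} (h : s i ≠ t i) : x i = ((max (s i / 2) (t i / 2) : ℤ) : ℝ) := by
  have h1 := hs i
  have h2 := ht i
  have h3 := le_of_both h1.1 h1.2
  have h4 := le_of_both h2.1 h1.2
  have h5 := le_of_both h1.1 h2.2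
  apply le_antisymm
  · rcases max_cases (s i / 2) (t i / 2) with ⟨h6, h7⟩ | ⟨h6, h7⟩ <;> rw [h6]
    · by_cases h8 : (s i + 1) / 2 ≤ s i / 2
      · exact h1.2.trans (by exact_mod_cast h8)
      · have : (t i + 1) / 2 ≤ s i / 2 := by omega
        exact h2.2.trans (by exact_mod_cast this)
    · by_cases h8 : (t i + 1) / 2 ≤ t i / 2
      · exact h2.2.trans (by exact_mod_cast h8)
      · have : (s i + 1) / 2 ≤ t i / 2 := by omega
        exact h1.2.trans (by exact_mod_cast this)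
  · rcases max_cases (s i / 2) (t i / 2) with ⟨h6, h7⟩ | ⟨h6, h7⟩ <;> rw [h6]
    · exact h1.1
    · exact h2.1

theorem vtx_cof_meet {ι : Type*} {s t : ι → ℤ} {x : ι → ℝ} (hs : x ∈ cel s) (ht : x ∈ cel t) :
    Cof (vtx x) (meet s t) := by
  intro i
  have hv : vtx x i = 2 * ⌊x i⌋ := rfl
  by_cases h : s i = t i
  · have hm : meet s t i = s i := by unfold meet; rw [if_pos h]
    rw [hm]
    have h1 : s i / 2 ≤ ⌊x i⌋ := Int.le_floor.2 (hs i).1
    have h2 : ⌊x i⌋ ≤ (s i + 1) / 2 := by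
      have : ((⌊x i⌋ : ℤ) : ℝ) ≤ (((s i + 1) / 2 : ℤ) : ℝ) := (Int.floor_le _).trans (hs i).2
      exact_mod_cast this
    omega
  · have hm : meet s t i = 2 * max (s i / 2) (t i / 2) := by unfold meet; rw [if_neg h]
    rw [hm, hv, meet_eq_of_ne hs ht h, Int.floor_intCast]
    exact Or.inl rfl

theorem Cof.trans' {ι : Type*} {a b c : ι → ℤ} (h1 : Cof a b) (h2 : Cof b c) : Cof a c := by
  intro i
  rcases h1 i with h3 | ⟨h3, h4⟩ <;> rcases h2 i with h5 | ⟨h5, h6⟩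
  · left; omega
  · right; exact ⟨by omega, by omega⟩
  · right; exact ⟨h3, by omega⟩
  · omega

theorem vtx_cof {ι : Type*} {s : ι → ℤ} {x : ι → ℝ} (hs : x ∈ cel s) : Cof (vtx x) s :=
  (vtx_cof_meet hs hs).trans' (meet_cof hs hs)

/-! ### connectedness -/

/-- **(conn)** -/
theorem conn_of {Q : Finset (Fin 3 → ℤ)} (hQ : ∀ c ∈ Q, ∃ i, Cod1 c i)
    (hS : ∀ x ∈ car Q, TwoSidedAt (car Q) x) (hcon : IsPreconnected (car Q))
    {T : ℤ → ℤ → ℤ → ZMod 2} (hTQ : ∀ s : Fin 3 → ℤ, T (s 0) (s 1) (s 2) ≠ 0 → s ∈ Q)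
    (hT : ∀ a b c, a % 2 = 0 → b % 2 = 0 → c % 2 = 0 → ClosedAt T a b c) :
    (∀ x y z, T x y z = 0) ∨ (∀ x y z, T x y z = ind Q x y z) := by
  classical
  by_contra hne
  push Not at hne
  obtain ⟨⟨x1, y1, z1, h1⟩, ⟨x2, y2, z2, h2⟩⟩ := hne
  have hT0 : ∀ s : Fin 3 → ℤ, s ∉ Q → T (s 0) (s 1) (s 2) = 0 := fun s hs => by
    by_contra h; exact hs (hTQ s h)
  have m1 : ![x1, y1, z1] ∈ Q := hTQ ![x1, y1, z1] h1
  have m2 : ![x2, y2, z2] ∈ Q ∧ T x2 y2 z2 = 0 := by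
    by_cases hm : ![x2, y2, z2] ∈ Q
    · refine ⟨hm, ?_⟩
      rw [ind_eq_one.2 hm] at h2
      exact (zmod2_cases _).resolve_right h2
    · rw [ind_eq_zero.2 hm] at h2
      exact absurd (hT0 _ hm) h2
  let K1 : Set (Fin 3 → ℝ) := ⋃ c ∈ {c | c ∈ Q ∧ T (c 0) (c 1) (c 2) ≠ 0}, cel c
  let K2 : Set (Fin 3 → ℝ) := ⋃ c ∈ {c | c ∈ Q ∧ T (c 0) (c 1) (c 2) = 0}, cel c
  have hK1 : IsClosed K1 := (Q.finite_toSet.subset fun c hc => hc.1).isClosed_biUnion
    fun c _ => isClosed_cel c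
  have hK2 : IsClosed K2 := (Q.finite_toSet.subset fun c hc => hc.1).isClosed_biUnion
    fun c _ => isClosed_cel c
  have hcov : car Q ⊆ K1 ∪ K2 := by
    intro x hx
    obtain ⟨c, hc, hxc⟩ := mem_car.1 hx
    by_cases h : T (c 0) (c 1) (c 2) = 0
    · exact Or.inr (mem_biUnion (show c ∈ {c | c ∈ Q ∧ T (c 0) (c 1) (c 2) = 0} from ⟨hc, h⟩) hxc)
    · exact Or.inl (mem_biUnion (show c ∈ {c | c ∈ Q ∧ T (c 0) (c 1) (c 2) ≠ 0} from ⟨hc, h⟩) hxc)
  have hin : ∀ c : Fin 3 → ℤ, (cel c).Nonempty := fun c => ⟨ctr c, ctr_mem fun i => Or.inl rfl⟩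
  have hn1 : (car Q ∩ K1).Nonempty := by
    obtain ⟨x, hx⟩ := hin ![x1, y1, z1]
    exact ⟨x, mem_car.2 ⟨_, m1, hx⟩, mem_biUnion
      (show ![x1, y1, z1] ∈ {c | c ∈ Q ∧ T (c 0) (c 1) (c 2) ≠ 0} from ⟨m1, h1⟩) hx⟩
  have hn2 : (car Q ∩ K2).Nonempty := by
    obtain ⟨x, hx⟩ := hin ![x2, y2, z2]
    exact ⟨x, mem_car.2 ⟨_, m2.1, hx⟩, mem_biUnion
      (show ![x2, y2, z2] ∈ {c | c ∈ Q ∧ T (c 0) (c 1) (c 2) = 0} from m2) hx⟩
  obtain ⟨x, _, hx1, hx2⟩ := isPreconnected_closed_iff.1 hcon K1 K2 hK1 hK2 hcov hn1 hn2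
  obtain ⟨s, ⟨hs, hs2⟩, hxs⟩ := mem_iUnion₂.1 hx1
  obtain ⟨t, ⟨ht, ht2⟩, hxt⟩ := mem_iUnion₂.1 hx2
  obtain ⟨i, hi⟩ := hQ s hs
  obtain ⟨j, hj⟩ := hQ t ht
  have hv : ∀ j, vtx x j % 2 = 0 := vtx_even x
  rcases vertex_link hQ hS hv hTQ (hT _ _ _ (hv 0) (hv 1) (hv 2)) with h | h
  · exact hs2 (h s i hi (vtx_cof hxs))
  · have := h t j hj (vtx_cof hxt)
    rw [ht2, (ind_vec t).2 ht] at this
    exact absurd this (by decide)

/-! ### local potentials -/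

/-- sum over the cofaces of an edge in direction `x` -/
def sx (T : ℤ → ℤ → ℤ → ZMod 2) (a b c : ℤ) : ZMod 2 :=
  T a (b + 1) c + T a (b - 1) c + T a b (c + 1) + T a b (c - 1)

/-- sum over the cofaces of an edge in direction `y` -/
def sy (T : ℤ → ℤ → ℤ → ZMod 2) (a b c : ℤ) : ZMod 2 :=
  T (a + 1) b c + T (a - 1) b c + T a b (c + 1) + T a b (c - 1)

/-- sum over the cofaces of an edge in direction `z` -/
def sz (T : ℤ → ℤ → ℤ → ZMod 2) (a b c : ℤ) : ZMod 2 :=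
  T (a + 1) b c + T (a - 1) b c + T a (b + 1) c + T a (b - 1) c

/-- restriction of a cochain to `Q` -/
noncomputable def rs (Q : Finset (Fin 3 → ℤ)) (p : ℤ → ℤ → ℤ → ZMod 2) : ℤ → ℤ → ℤ → ZMod 2 :=
  fun x y z => ind Q x y z * p x y z

/-- the boundary at the six half-axes -/
noncomputable def bdy (Q : Finset (Fin 3 → ℤ)) (a b c : ℤ) :
    (ℤ → ℤ → ℤ → ZMod 2) →ₗ[ZMod 2] (Fin 6 → ZMod 2) where
  toFun p := ![sx (rs Q p) (a + 1) b c, sx (rs Q p) (a - 1) b c, sy (rs Q p) a (b + 1) c,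
    sy (rs Q p) a (b - 1) c, sz (rs Q p) a b (c + 1), sz (rs Q p) a b (c - 1)]
  map_add' p q := by
    funext i
    fin_cases i
    · show sx (rs Q (p + q)) (a + 1) b c = sx (rs Q p) (a + 1) b c + sx (rs Q q) (a + 1) b c
      simp only [sx, rs, Pi.add_apply]; ring
    · show sx (rs Q (p + q)) (a - 1) b c = sx (rs Q p) (a - 1) b c + sx (rs Q q) (a - 1) b c
      simp only [sx, rs, Pi.add_apply]; ring
    · show sy (rs Q (p + q)) a (b + 1) c = sy (rs Q p) a (b + 1) c + sy (rs Q q) a (b + 1) c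
      simp only [sy, rs, Pi.add_apply]; ring
    · show sy (rs Q (p + q)) a (b - 1) c = sy (rs Q p) a (b - 1) c + sy (rs Q q) a (b - 1) c
      simp only [sy, rs, Pi.add_apply]; ring
    · show sz (rs Q (p + q)) a b (c + 1) = sz (rs Q p) a b (c + 1) + sz (rs Q q) a b (c + 1)
      simp only [sz, rs, Pi.add_apply]; ring
    · show sz (rs Q (p + q)) a b (c - 1) = sz (rs Q p) a b (c - 1) + sz (rs Q q) a b (c - 1)
      simp only [sz, rs, Pi.add_apply]; ring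
  map_smul' r p := by
    funext i
    fin_cases i
    · show sx (rs Q (r • p)) (a + 1) b c = r * sx (rs Q p) (a + 1) b c
      simp only [sx, rs, Pi.smul_apply, smul_eq_mul]; ring
    · show sx (rs Q (r • p)) (a - 1) b c = r * sx (rs Q p) (a - 1) b c
      simp only [sx, rs, Pi.smul_apply, smul_eq_mul]; ring
    · show sy (rs Q (r • p)) a (b + 1) c = r * sy (rs Q p) a (b + 1) c
      simp only [sy, rs, Pi.smul_apply, smul_eq_mul]; ring
    · show sy (rs Q (r • p)) a (b - 1) c = r * sy (rs Q p) a (b - 1) c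
      simp only [sy, rs, Pi.smul_apply, smul_eq_mul]; ring
    · show sz (rs Q (r • p)) a b (c + 1) = r * sz (rs Q p) a b (c + 1)
      simp only [sz, rs, Pi.smul_apply, smul_eq_mul]; ring
    · show sz (rs Q (r • p)) a b (c - 1) = r * sz (rs Q p) a b (c - 1)
      simp only [sz, rs, Pi.smul_apply, smul_eq_mul]; ring

theorem bdy_apply (Q : Finset (Fin 3 → ℤ)) (a b c : ℤ) (p : ℤ → ℤ → ℤ → ZMod 2) :
    bdy Q a b c p = ![sx (rs Q p) (a + 1) b c, sx (rs Q p) (a - 1) b c, sy (rs Q p) a (b + 1) c,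
    sy (rs Q p) a (b - 1) c, sz (rs Q p) a b (c + 1), sz (rs Q p) a b (c - 1)] := rfl

/-- one square -/
def one (a b c : ℤ) : ℤ → ℤ → ℤ → ZMod 2 := fun x y z => if x = a ∧ y = b ∧ z = c then 1 else 0

end Crest.Agent.R096.Ax_914
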