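import Crest.Agent.R096.Ax5_914

/-!
# Local potentials (helper914, row 96, P2-AXIS, part 6)
-/

set_option autoImplicit false
set_option linter.unusedSectionVars false
set_option linter.unusedSimpArgs false

namespace Crest.Agent.R096.Ax_914

open Set Metric Function

theorem ne_facts (a : ℤ) : ((a + 1 = a) = False) ∧ ((a - 1 = a) = False) ∧ ((a = a + 1) = False) ∧
    ((a = a - 1) = False) ∧ ((a + 1 = a - 1) = False) ∧ ((a - 1 = a + 1) = False) := by
  refine ⟨?_, ?_, ?_, ?_, ?_, ?_⟩ <;> · rw [eq_iff_iff, iff_false]; omega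

/-- **local potential**: an even set of half-axes is a boundary at the vertex -/
theorem exists_pot {Q : Finset (Fin 3 → ℤ)} (hQ : ∀ c ∈ Q, ∃ i, Cod1 c i)
    (hS : ∀ x ∈ car Q, TwoSidedAt (car Q) x) {a b c : ℤ} (ha : a % 2 = 0) (hb : b % 2 = 0)
    (hc : c % 2 = 0) {γ : ℤ → ℤ → ℤ → ZMod 2}
    (hx : ∀ s : ℤ, (s = 1 ∨ s = -1) → ind Q (a + s) (b + 1) c = 0 → ind Q (a + s) (b - 1) c = 0 →
      ind Q (a + s) b (c + 1) = 0 → ind Q (a + s) b (c - 1) = 0 → γ (a + s) b c = 0)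
    (hy : ∀ s : ℤ, (s = 1 ∨ s = -1) → ind Q (a + 1) (b + s) c = 0 → ind Q (a - 1) (b + s) c = 0 →
      ind Q a (b + s) (c + 1) = 0 → ind Q a (b + s) (c - 1) = 0 → γ a (b + s) c = 0)
    (hz : ∀ s : ℤ, (s = 1 ∨ s = -1) → ind Q (a + 1) b (c + s) = 0 → ind Q (a - 1) b (c + s) = 0 →
      ind Q a (b + 1) (c + s) = 0 → ind Q a (b - 1) (c + s) = 0 → γ a b (c + s) = 0)
    (hev : γ (a + 1) b c + γ (a - 1) b c + γ a (b + 1) c + γ a (b - 1) c +
      γ a b (c + 1) + γ a b (c - 1) = 0) :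
    ∃ p : ℤ → ℤ → ℤ → ZMod 2, (∀ x y z, ind Q x y z = 0 → p x y z = 0) ∧
      sx p (a + 1) b c = γ (a + 1) b c ∧ sx p (a - 1) b c = γ (a - 1) b c ∧
      sy p a (b + 1) c = γ a (b + 1) c ∧ sy p a (b - 1) c = γ a (b - 1) c ∧
      sz p a b (c + 1) = γ a b (c + 1) ∧ sz p a b (c - 1) = γ a b (c - 1) := by
  classical
  let gv : Fin 6 → ZMod 2 := ![γ (a + 1) b c, γ (a - 1) b c, γ a (b + 1) c, γ a (b - 1) c,
    γ a b (c + 1), γ a b (c - 1)]
  by_cases hr : gv ∈ LinearMap.range (bdy Q a b c)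
  · obtain ⟨p, hp⟩ := hr
    refine ⟨rs Q p, fun x y z h => by simp [rs, h], ?_⟩
    rw [bdy_apply] at hp
    exact ⟨congrFun hp 0, congrFun hp 1, congrFun hp 2, congrFun hp 3, congrFun hp 4,
      congrFun hp 5⟩
  exfalso
  obtain ⟨f, hf1, hf2⟩ := Submodule.exists_le_ker_of_notMem hr
  obtain ⟨F, hF⟩ : ∃ F : Fin 6 → ZMod 2, ∀ w : Fin 6 → ZMod 2,
      f w = w 0 * F 0 + w 1 * F 1 + w 2 * F 2 + w 3 * F 3 + w 4 * F 4 + w 5 * F 5 := by
    refine ⟨fun i => f fun j => if i = j then 1 else 0, fun w => ?_⟩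
    rw [LinearMap.pi_apply_eq_sum_univ f w, Fin.sum_univ_six]
    simp only [smul_eq_mul]
  have hR : ∀ p, sx (rs Q p) (a + 1) b c * F 0 + sx (rs Q p) (a - 1) b c * F 1 +
      sy (rs Q p) a (b + 1) c * F 2 + sy (rs Q p) a (b - 1) c * F 3 +
      sz (rs Q p) a b (c + 1) * F 4 + sz (rs Q p) a b (c - 1) * F 5 = 0 := by
    intro p
    have := hf2 ⟨p, rfl⟩
    rw [LinearMap.mem_ker, hF, bdy_apply] at this
    exact this
  clear hf2
  obtain ⟨a1, a2, a3, a4, a5, a6⟩ := ne_facts a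
  obtain ⟨b1, b2, b3, b4, b5, b6⟩ := ne_facts b
  obtain ⟨c1, c2, c3, c4, c5, c6⟩ := ne_facts c
  have r1 := hR (one (a + 1) (b + 1) c)
  have r2 := hR (one (a + 1) (b - 1) c)
  have r3 := hR (one (a - 1) (b + 1) c)
  have r4 := hR (one (a - 1) (b - 1) c)
  have r5 := hR (one (a + 1) b (c + 1))
  have r6 := hR (one (a + 1) b (c - 1))
  have r7 := hR (one (a - 1) b (c + 1))
  have r8 := hR (one (a - 1) b (c - 1))
  have r9 := hR (one a (b + 1) (c + 1))
  have r10 := hR (one a (b + 1) (c - 1))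
  have r11 := hR (one a (b - 1) (c + 1))
  have r12 := hR (one a (b - 1) (c - 1))
  simp only [sx, sy, sz, rs, one, a1, a2, a3, a4, a5, a6, b1, b2, b3, b4, b5, b6, c1, c2, c3, c4,
    c5, c6, and_true, true_and, and_false, false_and, if_true, if_false, mul_one, mul_zero,
    add_zero, zero_add, zero_mul, and_self] at r1 r2 r3 r4 r5 r6 r7 r8 r9 r10 r11 r12
  clear hR
  -- the closed cochain `T`
  let T : ℤ → ℤ → ℤ → ZMod 2 := fun x y z => ind Q x y z *
    (if x = a + 1 then F 0 else if x = a - 1 then F 1 else if y = b + 1 then F 2 else F 3)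
  have hTQ : ∀ s : Fin 3 → ℤ, T (s 0) (s 1) (s 2) ≠ 0 → s ∈ Q := by
    intro s hs
    by_contra h
    exact hs (by simp only [T]; rw [(ind_vec_zero s).2 h, zero_mul])
  have hI := ind_closedAt hQ hS ha hb hc
  have hIp := hI 1 (Or.inl rfl)
  have hIm := hI (-1) (Or.inr rfl)
  simp only [← sub_eq_add_neg] at hIm
  obtain ⟨p1, p2, p3⟩ := hIp
  obtain ⟨m1, m2, m3⟩ := hIm
  have hTc : ClosedAt T a b c := by
    intro s hs
    rcases hs with rfl | rfl
    · simp only [T, a1, a2, a3, a4, a5, a6, b1, b2, b3, b4, b5, b6, if_true, if_false]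
      refine ⟨?_, ?_, ?_⟩
      · linear_combination F 0 * p1
      · linear_combination r1 + r3 + F 2 * p2 - ind Q (a + 1) (b + 1) c * F 2 * two_zero -
          ind Q (a - 1) (b + 1) c * F 2 * two_zero
      · linear_combination r5 + r7 + r9 + r11 + F 4 * p3 - (ind Q (a + 1) b (c + 1) +
          ind Q (a - 1) b (c + 1) + ind Q a (b + 1) (c + 1) + ind Q a (b - 1) (c + 1)) *
          F 4 * two_zero
    · simp only [T, ← sub_eq_add_neg, a1, a2, a3, a4, a5, a6, b1, b2, b3, b4, b5, b6, if_true,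
        if_false]
      refine ⟨?_, ?_, ?_⟩
      · linear_combination F 1 * m1
      · linear_combination r2 + r4 + F 3 * m2 - ind Q (a + 1) (b - 1) c * F 3 * two_zero -
          ind Q (a - 1) (b - 1) c * F 3 * two_zero
      · linear_combination r6 + r8 + r10 + r12 + F 5 * m3 - (ind Q (a + 1) b (c - 1) +
          ind Q (a - 1) b (c - 1) + ind Q a (b + 1) (c - 1) + ind Q a (b - 1) (c - 1)) *
          F 5 * two_zero
  -- coefficient `k = 0` or `k = 1`
  obtain ⟨k, hk⟩ : ∃ k : ZMod 2, ∀ x y z : ℤ, (∃ i, Cod1 ![x, y, z] i) → Cof ![a, b, c] ![x, y, z] →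
      T x y z = ind Q x y z * k := by
    have hd : ∀ j, (![a, b, c] : Fin 3 → ℤ) j % 2 = 0 := by
      intro j; fin_cases j
      · exact ha
      · exact hb
      · exact hc
    rcases vertex_link hQ hS hd hTQ hTc with h | h
    · exact ⟨0, fun x y z ⟨i, hi⟩ h2 => by rw [mul_zero]; exact h ![x, y, z] i hi h2⟩
    · exact ⟨1, fun x y z ⟨i, hi⟩ h2 => by rw [mul_one]; exact h ![x, y, z] i hi h2⟩
  have cofm : ∀ x y z : ℤ, (x = a ∨ x = a + 1 ∨ x = a - 1) → (y = b ∨ y = b + 1 ∨ y = b - 1) →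
      (z = c ∨ z = c + 1 ∨ z = c - 1) → Cof ![a, b, c] ![x, y, z] := by
    intro x y z h1 h2 h3 i
    fin_cases i
    · rcases h1 with h | h
      · exact Or.inl h
      · exact Or.inr ⟨ha, h⟩
    · rcases h2 with h | h
      · exact Or.inl h
      · exact Or.inr ⟨hb, h⟩
    · rcases h3 with h | h
      · exact Or.inl h
      · exact Or.inr ⟨hc, h⟩
  have codx : ∀ x y z : ℤ, x % 2 = 0 → y % 2 = 1 → z % 2 = 1 → ∃ i, Cod1 ![x, y, z] i := by
    intro x y z h1 h2 h3
    refine ⟨0, h1, fun j hj => ?_⟩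
    fin_cases j
    · exact absurd rfl hj
    · exact h2
    · exact h3
  have cody : ∀ x y z : ℤ, x % 2 = 1 → y % 2 = 0 → z % 2 = 1 → ∃ i, Cod1 ![x, y, z] i := by
    intro x y z h1 h2 h3
    refine ⟨1, h2, fun j hj => ?_⟩
    fin_cases j
    · exact h1
    · exact absurd rfl hj
    · exact h3
  have codz : ∀ x y z : ℤ, x % 2 = 1 → y % 2 = 1 → z % 2 = 0 → ∃ i, Cod1 ![x, y, z] i := by
    intro x y z h1 h2 h3
    refine ⟨2, h3, fun j hj => ?_⟩
    fin_cases j
    · exact h1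
    · exact h2
    · exact absurd rfl hj
  have k1 := hk (a + 1) (b + 1) c (codz _ _ _ (by omega) (by omega) (by omega)) (cofm _ _ _ (by omega) (by omega) (by omega))
  have k2 := hk (a + 1) (b - 1) c (codz _ _ _ (by omega) (by omega) (by omega)) (cofm _ _ _ (by omega) (by omega) (by omega))
  have k3 := hk (a - 1) (b + 1) c (codz _ _ _ (by omega) (by omega) (by omega)) (cofm _ _ _ (by omega) (by omega) (by omega))
  have k4 := hk (a - 1) (b - 1) c (codz _ _ _ (by omega) (by omega) (by omega)) (cofm _ _ _ (by omega) (by omega) (by omega))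
  have k5 := hk (a + 1) b (c + 1) (cody _ _ _ (by omega) (by omega) (by omega)) (cofm _ _ _ (by omega) (by omega) (by omega))
  have k6 := hk (a + 1) b (c - 1) (cody _ _ _ (by omega) (by omega) (by omega)) (cofm _ _ _ (by omega) (by omega) (by omega))
  have k7 := hk (a - 1) b (c + 1) (cody _ _ _ (by omega) (by omega) (by omega)) (cofm _ _ _ (by omega) (by omega) (by omega))
  have k8 := hk (a - 1) b (c - 1) (cody _ _ _ (by omega) (by omega) (by omega)) (cofm _ _ _ (by omega) (by omega) (by omega))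
  have k9 := hk a (b + 1) (c + 1) (codx _ _ _ (by omega) (by omega) (by omega)) (cofm _ _ _ (by omega) (by omega) (by omega))
  have k10 := hk a (b + 1) (c - 1) (codx _ _ _ (by omega) (by omega) (by omega)) (cofm _ _ _ (by omega) (by omega) (by omega))
  have k11 := hk a (b - 1) (c + 1) (codx _ _ _ (by omega) (by omega) (by omega)) (cofm _ _ _ (by omega) (by omega) (by omega))
  have k12 := hk a (b - 1) (c - 1) (codx _ _ _ (by omega) (by omega) (by omega)) (cofm _ _ _ (by omega) (by omega) (by omega))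
  simp only [T, a1, a2, a3, a4, a5, a6, b1, b2, b3, b4, b5, b6, if_true, if_false] at k1 k2 k3 k4 k5 k6 k7 k8 k9 k10 k11 k12
  have hxp := hx 1 (Or.inl rfl)
  have hxm := hx (-1) (Or.inr rfl)
  have hyp := hy 1 (Or.inl rfl)
  have hym := hy (-1) (Or.inr rfl)
  have hzp := hz 1 (Or.inl rfl)
  have hzm := hz (-1) (Or.inr rfl)
  simp only [← sub_eq_add_neg] at hxm hym hzm
  -- at every half-axis `γ * F = γ * k`
  have ax : ∀ i1 i2 i3 i4 g G : ZMod 2, (i1 = 0 → i2 = 0 → i3 = 0 → i4 = 0 → g = 0) →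
      i1 * G = i1 * k → i2 * G = i2 * k → i3 * G = i3 * k → i4 * G = i4 * k → g * G = g * k := by
    intro i1 i2 i3 i4 g G h h1 h2 h3 h4
    rcases zmod2_cases i1 with e1 | e1
    · rcases zmod2_cases i2 with e2 | e2
      · rcases zmod2_cases i3 with e3 | e3
        · rcases zmod2_cases i4 with e4 | e4
          · rw [h e1 e2 e3 e4, zero_mul, zero_mul]
          · rw [e4, one_mul, one_mul] at h4; rw [h4]
        · rw [e3, one_mul, one_mul] at h3; rw [h3]
      · rw [e2, one_mul, one_mul] at h2; rw [h2]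
    · rw [e1, one_mul, one_mul] at h1; rw [h1]
  have n1 : γ (a + 1) b c * F 0 = γ (a + 1) b c * k := ax _ _ _ _ _ _ hxp k1 k2 k5 k6
  have n2 : γ (a - 1) b c * F 1 = γ (a - 1) b c * k := ax _ _ _ _ _ _ hxm k3 k4 k7 k8
  have n3 : γ a (b + 1) c * F 2 = γ a (b + 1) c * k := by
    refine ax _ _ _ _ _ _ hyp ?_ ?_ k9 k10
    · linear_combination k1 + r1 - ind Q (a + 1) (b + 1) c * F 0 * two_zero
    · linear_combination k3 + r3 - ind Q (a - 1) (b + 1) c * F 1 * two_zero
  have n4 : γ a (b - 1) c * F 3 = γ a (b - 1) c * k := by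
    refine ax _ _ _ _ _ _ hym ?_ ?_ k11 k12
    · linear_combination k2 + r2 - ind Q (a + 1) (b - 1) c * F 0 * two_zero
    · linear_combination k4 + r4 - ind Q (a - 1) (b - 1) c * F 1 * two_zero
  have n5 : γ a b (c + 1) * F 4 = γ a b (c + 1) * k := by
    refine ax _ _ _ _ _ _ hzp ?_ ?_ ?_ ?_
    · linear_combination k5 + r5 - ind Q (a + 1) b (c + 1) * F 0 * two_zero
    · linear_combination k7 + r7 - ind Q (a - 1) b (c + 1) * F 1 * two_zero
    · linear_combination k9 + r9 - ind Q a (b + 1) (c + 1) * F 2 * two_zero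
    · linear_combination k11 + r11 - ind Q a (b - 1) (c + 1) * F 3 * two_zero
  have n6 : γ a b (c - 1) * F 5 = γ a b (c - 1) * k := by
    refine ax _ _ _ _ _ _ hzm ?_ ?_ ?_ ?_
    · linear_combination k6 + r6 - ind Q (a + 1) b (c - 1) * F 0 * two_zero
    · linear_combination k8 + r8 - ind Q (a - 1) b (c - 1) * F 1 * two_zero
    · linear_combination k10 + r10 - ind Q a (b + 1) (c - 1) * F 2 * two_zero
    · linear_combination k12 + r12 - ind Q a (b - 1) (c - 1) * F 3 * two_zero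
  apply hf1
  rw [hF]
  show γ (a + 1) b c * F 0 + γ (a - 1) b c * F 1 + γ a (b + 1) c * F 2 + γ a (b - 1) c * F 3 +
    γ a b (c + 1) * F 4 + γ a b (c - 1) * F 5 = 0
  rw [n1, n2, n3, n4, n5, n6]
  linear_combination k * hev

end Crest.Agent.R096.Ax_914
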