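import Crest.Agent.R096.Coh1_184

/-! Row 96, P1-COH (helper184), part 2: spaces on which every locally constant cocycle is trivial:
compact convex sets, discs, the 2-sphere. -/

set_option autoImplicit false

open Set Topology Filter

namespace Crest.Agent.R096.Coh_184

variable {X : Type*} [TopologicalSpace X] {Z : Type*} [TopologicalSpace Z]

/-- every locally constant `A`-cocycle on a closed cover (indexed by `ι`) of `S` is trivial -/
def TrivAll (ι A : Type*) [AddCommGroup A] (S : Set X) : Prop :=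
  ∀ (C : ι → Set X) (d : ι → ι → X → A), Coc C d S → Triv C d S

variable {ι A : Type*} [AddCommGroup A]

theorem trivAll_convex [Finite ι] {n : ℕ} {S : Set (Fin n → ℝ)} (hS : IsCompact S)
    (hconv : Convex ℝ S) : TrivAll ι A S := fun _ _ h => h.triv_convex hS hconv

theorem TrivAll.union [Finite ι] {Y W : Set X} (hY : IsClosed Y) (hW : IsClosed W)
    (hcon : IsPreconnected (Y ∩ W)) (h1 : TrivAll ι A Y) (h2 : TrivAll ι A W) :
    TrivAll ι A (Y ∪ W) := fun C d h =>
  Triv.glue h.closed hY hW (fun _ hx => h.cov (Or.inl hx.1)) hcon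
    (h1 C d (h.mono subset_union_left)) (h2 C d (h.mono subset_union_right))

/-- transport to a retract: `g ∘ π = id` on `S` -/
theorem TrivAll.of_retract {K : Set Z} {S : Set X} (hK : TrivAll ι A K) (hKc : IsClosed K)
    {g : Z → X} {π : X → Z} (hg : ContinuousOn g K) (hgm : MapsTo g K S)
    (hπ : ContinuousOn π S) (hπm : MapsTo π S K) (hid : ∀ x ∈ S, g (π x) = x) :
    TrivAll ι A S := by
  intro C d h
  have hcoc : Coc (fun i => K ∩ g ⁻¹' (C i)) (fun i j y => d i j (g y)) K := by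
    refine ⟨fun i => hg.preimage_isClosed_of_isClosed hKc (h.closed i), ?_, ?_, ?_⟩
    · intro y hy
      obtain ⟨i, hi⟩ := mem_iUnion.1 (h.cov (hgm hy))
      exact mem_iUnion.2 ⟨i, hy, hi⟩
    · rintro i j y ⟨⟨⟨hy, h1⟩, ⟨_, h2⟩⟩, _⟩
      have a := h.lc i j (g y) ⟨⟨h1, h2⟩, hgm hy⟩
      have b : Tendsto g (𝓝[(K ∩ g ⁻¹' (C i)) ∩ (K ∩ g ⁻¹' (C j)) ∩ K] y)
          (𝓝[C i ∩ C j ∩ S] (g y)) := by
        apply tendsto_nhdsWithin_of_tendsto_nhds_of_eventually_within
        · exact (hg y hy).mono_left (nhdsWithin_mono _ fun z hz => hz.2)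
        · filter_upwards [self_mem_nhdsWithin] with z hz
          exact ⟨⟨hz.1.1.2, hz.1.2.2⟩, hgm hz.2⟩
      exact b.eventually a
    · rintro i j k y ⟨_, h1⟩ ⟨_, h2⟩ ⟨_, h3⟩ hy
      exact h.coc i j k (g y) h1 h2 h3 (hgm hy)
  obtain ⟨χ, hχ, hχd⟩ := hK _ _ hcoc
  refine ⟨fun i x => χ i (π x), ?_, ?_⟩
  · rintro i x ⟨h1, h2⟩
    have h1' : g (π x) ∈ C i := by rw [hid x h2]; exact h1
    have a := hχ i (π x) ⟨⟨hπm h2, h1'⟩, hπm h2⟩
    have b : Tendsto π (𝓝[C i ∩ S] x) (𝓝[(K ∩ g ⁻¹' (C i)) ∩ K] (π x)) := by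
      apply tendsto_nhdsWithin_of_tendsto_nhds_of_eventually_within
      · exact (hπ x h2).mono_left (nhdsWithin_mono _ fun z hz => hz.2)
      · filter_upwards [self_mem_nhdsWithin] with z hz
        refine ⟨⟨hπm hz.2, ?_⟩, hπm hz.2⟩
        show g (π z) ∈ C i
        rw [hid z hz.2]; exact hz.1
    exact b.eventually a
  · intro i j x hi hj hx
    have h1 : g (π x) ∈ C i := by rw [hid x hx]; exact hi
    have h2 : g (π x) ∈ C j := by rw [hid x hx]; exact hj
    have := hχd i j (π x) ⟨hπm hx, h1⟩ ⟨hπm hx, h2⟩ (hπm hx)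
    simp only [hid x hx] at this
    exact this

/-- transport by a homeomorphism of subtypes (only a retract is needed) -/
theorem TrivAll.of_subtype {K : Set Z} {S : Set X} (hK : TrivAll ι A K) (hKc : IsClosed K)
    (g : K → S) (π : S → K) (hg : Continuous g) (hπ : Continuous π) (hid : ∀ x, g (π x) = x) :
    TrivAll ι A S := by
  classical
  rcases S.eq_empty_or_nonempty with rfl | ⟨x0, hx0⟩
  · intro C d _
    exact Triv.empty
  let G : Z → X := fun y => if h : y ∈ K then (g ⟨y, h⟩ : X) else x0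
  let Pi1 : X → Z := fun x => if h : x ∈ S then (π ⟨x, h⟩ : Z) else (π ⟨x0, hx0⟩ : Z)
  have hG : ∀ y (h : y ∈ K), G y = g ⟨y, h⟩ := fun y h => dif_pos h
  have hPi : ∀ x (h : x ∈ S), Pi1 x = π ⟨x, h⟩ := fun x h => dif_pos h
  refine hK.of_retract (g := G) (π := Pi1) hKc ?_ ?_ ?_ ?_ ?_
  · rw [continuousOn_iff_continuous_domRestrict]
    refine (continuous_subtype_val.comp hg).congr fun y => ?_
    exact (hG y.1 y.2).symm
  · intro y hy
    rw [hG y hy]; exact (g ⟨y, hy⟩).2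
  · rw [continuousOn_iff_continuous_domRestrict]
    refine (continuous_subtype_val.comp hπ).congr fun y => ?_
    exact (hPi y.1 y.2).symm
  · intro y hy
    rw [hPi y hy]; exact (π ⟨y, hy⟩).2
  · intro x hx
    rw [hPi x hx, hG _ (π ⟨x, hx⟩).2]
    exact congrArg Subtype.val (hid ⟨x, hx⟩)

/-- the closed unit disc in `Fin 2 → ℝ` -/
def disc : Set (Fin 2 → ℝ) := {w | w 0 ^ 2 + w 1 ^ 2 ≤ 1}

theorem isClosed_disc : IsClosed disc := by
  unfold disc
  exact isClosed_le (by fun_prop) continuous_const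

theorem isCompact_disc : IsCompact disc := by
  refine Metric.isCompact_of_isClosed_isBounded isClosed_disc ?_
  refine (Metric.isBounded_closedBall (x := (0 : Fin 2 → ℝ)) (r := 1)).subset fun w hw => ?_
  rw [mem_closedBall_zero_iff, pi_norm_le_iff_of_nonneg zero_le_one]
  have hw' : w 0 ^ 2 + w 1 ^ 2 ≤ 1 := hw
  intro i
  rw [Real.norm_eq_abs, ← sq_le_one_iff_abs_le_one]
  fin_cases i
  · show w 0 ^ 2 ≤ 1
    nlinarith [sq_nonneg (w 1)]
  · show w 1 ^ 2 ≤ 1
    nlinarith [sq_nonneg (w 0)]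

theorem convex_disc : Convex ℝ disc := by
  intro x hx y hy a b ha hb hab
  have hx' : x 0 ^ 2 + x 1 ^ 2 ≤ 1 := hx
  have hy' : y 0 ^ 2 + y 1 ^ 2 ≤ 1 := hy
  show (a * x 0 + b * y 0) ^ 2 + (a * x 1 + b * y 1) ^ 2 ≤ 1
  have hb' : b = 1 - a := by linarith
  subst hb'
  nlinarith [mul_nonneg ha hb, sq_nonneg (x 0 - y 0), sq_nonneg (x 1 - y 1),
    mul_nonneg (mul_nonneg ha hb) (sq_nonneg (x 0 - y 0)),
    mul_nonneg (mul_nonneg ha hb) (sq_nonneg (x 1 - y 1)),
    mul_le_mul_of_nonneg_left hx' ha, mul_le_mul_of_nonneg_left hy' hb]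

/-- the unit sphere of `ℝ³` -/
abbrev Sph : Set (EuclideanSpace ℝ (Fin 3)) := Metric.sphere 0 1

theorem mem_Sph {v : EuclideanSpace ℝ (Fin 3)} : v ∈ Sph ↔ v 0 ^ 2 + v 1 ^ 2 + v 2 ^ 2 = 1 := by
  rw [mem_sphere_zero_iff_norm, EuclideanSpace.norm_eq, Real.sqrt_eq_one]
  simp [Fin.sum_univ_three]

theorem trivAll_hemi [Finite ι] (ε : ℝ) (hε : ε = 1 ∨ ε = -1) :
    TrivAll ι A (Sph ∩ {v | 0 ≤ ε * v 2}) := by
  have hε2 : ε * ε = 1 := by rcases hε with rfl | rfl <;> norm_num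
  refine (trivAll_convex isCompact_disc convex_disc).of_retract isClosed_disc
    (g := fun w => (WithLp.toLp 2 ![w 0, w 1, ε * Real.sqrt (1 - w 0 ^ 2 - w 1 ^ 2)] :
      EuclideanSpace ℝ (Fin 3)))
    (π := fun v => ![v 0, v 1]) ?_ ?_ ?_ ?_ ?_
  · apply Continuous.continuousOn
    refine (PiLp.continuous_toLp 2 _).comp ?_
    refine continuous_pi fun i => ?_
    fin_cases i
    · exact continuous_apply 0
    · exact continuous_apply 1
    · show Continuous fun w : Fin 2 → ℝ => ε * Real.sqrt (1 - w 0 ^ 2 - w 1 ^ 2)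
      fun_prop
  · intro w hw
    have hw' : w 0 ^ 2 + w 1 ^ 2 ≤ 1 := hw
    have hs : Real.sqrt (1 - w 0 ^ 2 - w 1 ^ 2) ^ 2 = 1 - w 0 ^ 2 - w 1 ^ 2 :=
      Real.sq_sqrt (by linarith)
    refine ⟨mem_Sph.2 ?_, ?_⟩
    · show w 0 ^ 2 + w 1 ^ 2 + (ε * Real.sqrt (1 - w 0 ^ 2 - w 1 ^ 2)) ^ 2 = 1
      rw [mul_pow, hs, sq ε, hε2]; ring
    · show 0 ≤ ε * (ε * Real.sqrt (1 - w 0 ^ 2 - w 1 ^ 2))
      rw [← mul_assoc, hε2, one_mul]; exact Real.sqrt_nonneg _
  · apply Continuous.continuousOn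
    refine continuous_pi fun i => ?_
    fin_cases i
    · show Continuous fun v : EuclideanSpace ℝ (Fin 3) => v 0
      fun_prop
    · show Continuous fun v : EuclideanSpace ℝ (Fin 3) => v 1
      fun_prop
  · rintro v ⟨hv, _⟩
    have := mem_Sph.1 hv
    show v 0 ^ 2 + v 1 ^ 2 ≤ 1
    nlinarith [sq_nonneg (v 2)]
  · rintro v ⟨hv, hv2⟩
    have h1 := mem_Sph.1 hv
    have hv2' : 0 ≤ ε * v 2 := hv2
    have h2 : ε * Real.sqrt (1 - v 0 ^ 2 - v 1 ^ 2) = v 2 := by
      have : 1 - v 0 ^ 2 - v 1 ^ 2 = (ε * v 2) ^ 2 := by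
        rw [mul_pow, sq ε, hε2]; linarith
      rw [this, Real.sqrt_sq hv2', ← mul_assoc, hε2, one_mul]
    ext i
    fin_cases i
    · rfl
    · rfl
    · exact h2

theorem isPreconnected_equator : IsPreconnected (Sph ∩ {v | v 2 = 0}) := by
  have : Sph ∩ {v | v 2 = 0} = (fun θ : ℝ => (WithLp.toLp 2 ![Real.cos θ, Real.sin θ, 0] :
      EuclideanSpace ℝ (Fin 3))) '' univ := by
    ext v
    constructor
    · rintro ⟨hv, hv2⟩
      have h1 := mem_Sph.1 hv
      have hv2' : v 2 = 0 := hv2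
      rw [hv2'] at h1
      have hz : ‖(⟨v 0, v 1⟩ : ℂ)‖ = 1 := by
        rw [Complex.norm_def, Real.sqrt_eq_one, Complex.normSq_mk]; nlinarith
      refine ⟨Complex.arg ⟨v 0, v 1⟩, trivial, ?_⟩
      have hne : (⟨v 0, v 1⟩ : ℂ) ≠ 0 := by
        intro h; rw [h] at hz; simp at hz
      ext i
      fin_cases i
      · show Real.cos _ = v 0
        rw [Complex.cos_arg hne, hz, div_one]
      · show Real.sin _ = v 1
        rw [Complex.sin_arg, hz, div_one]
      · exact hv2'.symm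
    · rintro ⟨θ, _, rfl⟩
      refine ⟨mem_Sph.2 ?_, rfl⟩
      show Real.cos θ ^ 2 + Real.sin θ ^ 2 + 0 ^ 2 = 1
      rw [Real.cos_sq_add_sin_sq]; norm_num
  rw [this]
  refine isPreconnected_univ.image _ (Continuous.continuousOn ?_)
  refine (PiLp.continuous_toLp 2 _).comp ?_
  refine continuous_pi fun i => ?_
  fin_cases i
  · exact Real.continuous_cos
  · exact Real.continuous_sin
  · exact continuous_const

theorem trivAll_sphere [Finite ι] : TrivAll ι A Sph := by
  have hcont : Continuous fun v : EuclideanSpace ℝ (Fin 3) => v 2 := by fun_prop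
  have hu : Sph = (Sph ∩ {v | 0 ≤ 1 * v 2}) ∪ (Sph ∩ {v | 0 ≤ (-1) * v 2}) := by
    ext v
    constructor
    · intro hv
      rcases le_total 0 (v 2) with h | h
      · left; exact ⟨hv, by simpa using h⟩
      · right; exact ⟨hv, by simpa using h⟩
    · rintro (h | h)
      · exact h.1
      · exact h.1
  rw [hu]
  refine TrivAll.union ?_ ?_ ?_ (trivAll_hemi 1 (Or.inl rfl)) (trivAll_hemi (-1) (Or.inr rfl))
  · exact Metric.isClosed_sphere.inter (isClosed_le continuous_const (by fun_prop))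
  · exact Metric.isClosed_sphere.inter (isClosed_le continuous_const (by fun_prop))
  · have : (Sph ∩ {v | 0 ≤ 1 * v 2}) ∩ (Sph ∩ {v | 0 ≤ (-1) * v 2}) = Sph ∩ {v | v 2 = 0} := by
      ext v
      simp only [mem_inter_iff, mem_ofPred_eq]
      constructor
      · rintro ⟨⟨h1, h2⟩, _, h3⟩
        exact ⟨h1, by linarith⟩
      · rintro ⟨h1, h2⟩
        refine ⟨⟨h1, ?_⟩, h1, ?_⟩ <;> rw [h2] <;> norm_num
    rw [this]
    exact isPreconnected_equator

/-- everything homeomorphic to the 2-sphere -/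
theorem TrivAll.of_homeo_sphere [Finite ι] {S : Set X} (e : Sph ≃ₜ S) : TrivAll ι A S :=
  trivAll_sphere.of_subtype Metric.isClosed_sphere e e.symm e.continuous e.symm.continuous
    e.apply_symm_apply

/-- the image of the 2-sphere under a map with a continuous inverse -/
theorem TrivAll.of_image {Z : Type*} [TopologicalSpace Z] {K : Set Z} (hK : TrivAll ι A K)
    (hKc : IsClosed K) {g : Z → X} {π : X → Z} (hg : ContinuousOn g K)
    (hπ : ContinuousOn π (g '' K)) (hinv : ∀ y ∈ K, π (g y) = y) : TrivAll ι A (g '' K) := by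
  refine hK.of_retract hKc hg (mapsTo_image g K) hπ ?_ ?_
  · rintro _ ⟨y, hy, rfl⟩
    rw [hinv y hy]; exact hy
  · rintro _ ⟨y, hy, rfl⟩
    rw [hinv y hy]

/-- compact `K`, injective continuous `g` -/
theorem TrivAll.of_image_compact {Z : Type*} [TopologicalSpace Z] [T2Space X] {K : Set Z}
    (hK : TrivAll ι A K) (hKc : IsCompact K) (hKcl : IsClosed K) {g : Z → X}
    (hg : ContinuousOn g K) (hinj : InjOn g K) : TrivAll ι A (g '' K) := by
  have _ : CompactSpace K := isCompact_iff_compactSpace.1 hKc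
  let g' : K → g '' K := fun y => ⟨g y.1, mem_image_of_mem g y.2⟩
  have hg' : Continuous g' := by
    refine Continuous.subtype_mk ?_ _
    exact continuousOn_iff_continuous_domRestrict.1 hg
  have hb : Function.Bijective g' := by
    constructor
    · intro y z h
      exact Subtype.ext (hinj y.2 z.2 (congrArg Subtype.val h))
    · rintro ⟨_, y, hy, rfl⟩
      exact ⟨⟨y, hy⟩, rfl⟩
  let e : K ≃ₜ g '' K := Continuous.homeoOfEquivCompactToT2 (f := Equiv.ofBijective g' hb) hg'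
  exact hK.of_subtype hKcl e e.symm e.continuous e.symm.continuous e.apply_symm_apply

end Crest.Agent.R096.Coh_184
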