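import Crest.Agent.R096.Ax6_914
import Crest.Agent.R096.Coh2_184

/-!
# Separation from trivial cocycles (helper914, row 96, P2-AXIS, part 7)
-/

set_option autoImplicit false
set_option linter.unusedSectionVars false
set_option linter.unusedSimpArgs false

namespace Crest.Agent.R096.Ax_914

open Set Metric Function Topology Filter Crest.Agent.R096.Coh_184

/-- sum over the four cofaces of a codimension two cell -/
def cosum {ι : Type*} [DecidableEq ι] (P : (ι → ℤ) → ZMod 2) (e : ι → ℤ) (i j : ι) : ZMod 2 :=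
  P (update e i (e i + 1)) + P (update e i (e i + -1)) + P (update e j (e j + 1)) +
    P (update e j (e j + -1))

theorem cosum_symm {ι : Type*} [DecidableEq ι] (P : (ι → ℤ) → ZMod 2) (e : ι → ℤ) (i j : ι) :
    cosum P e i j = cosum P e j i := by
  unfold cosum; ring

theorem four_logic {α : Type*} {P : α → ZMod 2} {Q : Finset α} (hP : ∀ s, s ∉ Q → P s = 0)
    {c1 c2 c3 c4 s t : α}
    (h : (c1 ∉ Q ∧ c2 ∉ Q ∧ c3 ∉ Q ∧ c4 ∉ Q) ∨ (c1 ∈ Q ∧ c2 ∈ Q ∧ c3 ∉ Q ∧ c4 ∉ Q) ∨
      (c1 ∉ Q ∧ c2 ∉ Q ∧ c3 ∈ Q ∧ c4 ∈ Q) ∨ (c1 ∈ Q ∧ c2 ∉ Q ∧ c3 ∈ Q ∧ c4 ∉ Q) ∨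
      (c1 ∈ Q ∧ c2 ∉ Q ∧ c3 ∉ Q ∧ c4 ∈ Q) ∨ (c1 ∉ Q ∧ c2 ∈ Q ∧ c3 ∈ Q ∧ c4 ∉ Q) ∨
      (c1 ∉ Q ∧ c2 ∈ Q ∧ c3 ∉ Q ∧ c4 ∈ Q))
    (hs : s = c1 ∨ s = c2 ∨ s = c3 ∨ s = c4) (ht : t = c1 ∨ t = c2 ∨ t = c3 ∨ t = c4)
    (hsQ : s ∈ Q) (htQ : t ∈ Q) (hst : s ≠ t) : P c1 + P c2 + P c3 + P c4 = P s + P t := by
  rcases h with ⟨h1, h2, h3, h4⟩ | ⟨h1, h2, h3, h4⟩ | ⟨h1, h2, h3, h4⟩ | ⟨h1, h2, h3, h4⟩ |
    ⟨h1, h2, h3, h4⟩ | ⟨h1, h2, h3, h4⟩ | ⟨h1, h2, h3, h4⟩
  · rcases hs with rfl | rfl | rfl | rfl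
    · exact absurd hsQ h1
    · exact absurd hsQ h2
    · exact absurd hsQ h3
    · exact absurd hsQ h4
  · rw [hP _ h3, hP _ h4]
    rcases hs with rfl | rfl | rfl | rfl
    · rcases ht with rfl | rfl | rfl | rfl
      · exact absurd rfl hst
      · ring
      · exact absurd htQ h3
      · exact absurd htQ h4
    · rcases ht with rfl | rfl | rfl | rfl
      · ring
      · exact absurd rfl hst
      · exact absurd htQ h3
      · exact absurd htQ h4
    · exact absurd hsQ h3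
    · exact absurd hsQ h4
  · rw [hP _ h1, hP _ h2]
    rcases hs with rfl | rfl | rfl | rfl
    · exact absurd hsQ h1
    · exact absurd hsQ h2
    · rcases ht with rfl | rfl | rfl | rfl
      · exact absurd htQ h1
      · exact absurd htQ h2
      · exact absurd rfl hst
      · ring
    · rcases ht with rfl | rfl | rfl | rfl
      · exact absurd htQ h1
      · exact absurd htQ h2
      · ring
      · exact absurd rfl hst
  · rw [hP _ h2, hP _ h4]
    rcases hs with rfl | rfl | rfl | rfl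
    · rcases ht with rfl | rfl | rfl | rfl
      · exact absurd rfl hst
      · exact absurd htQ h2
      · ring
      · exact absurd htQ h4
    · exact absurd hsQ h2
    · rcases ht with rfl | rfl | rfl | rfl
      · ring
      · exact absurd htQ h2
      · exact absurd rfl hst
      · exact absurd htQ h4
    · exact absurd hsQ h4
  · rw [hP _ h2, hP _ h3]
    rcases hs with rfl | rfl | rfl | rfl
    · rcases ht with rfl | rfl | rfl | rfl
      · exact absurd rfl hst
      · exact absurd htQ h2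
      · exact absurd htQ h3
      · ring
    · exact absurd hsQ h2
    · exact absurd hsQ h3
    · rcases ht with rfl | rfl | rfl | rfl
      · ring
      · exact absurd htQ h2
      · exact absurd htQ h3
      · exact absurd rfl hst
  · rw [hP _ h1, hP _ h4]
    rcases hs with rfl | rfl | rfl | rfl
    · exact absurd hsQ h1
    · rcases ht with rfl | rfl | rfl | rfl
      · exact absurd htQ h1
      · exact absurd rfl hst
      · ring
      · exact absurd htQ h4
    · rcases ht with rfl | rfl | rfl | rfl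
      · exact absurd htQ h1
      · ring
      · exact absurd rfl hst
      · exact absurd htQ h4
    · exact absurd hsQ h4
  · rw [hP _ h1, hP _ h3]
    rcases hs with rfl | rfl | rfl | rfl
    · exact absurd hsQ h1
    · rcases ht with rfl | rfl | rfl | rfl
      · exact absurd htQ h1
      · exact absurd rfl hst
      · exact absurd htQ h3
      · ring
    · exact absurd hsQ h3
    · rcases ht with rfl | rfl | rfl | rfl
      · exact absurd htQ h1
      · ring
      · exact absurd htQ h3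
      · exact absurd rfl hst

theorem Cod2.eq_four {ι : Type*} [DecidableEq ι] {e : ι → ℤ} {i j : ι} (h : Cod2 e i j)
    {s : ι → ℤ} {l : ι} (hs : Cod1 s l) (hes : Cof e s) :
    s = update e i (e i + 1) ∨ s = update e i (e i + -1) ∨ s = update e j (e j + 1) ∨
      s = update e j (e j + -1) := by
  rcases h.eq_cof hs hes with ⟨_, x, rfl | rfl, h1⟩ | ⟨_, x, rfl | rfl, h1⟩
  · exact Or.inl h1
  · exact Or.inr (Or.inl h1)
  · exact Or.inr (Or.inr (Or.inl h1))
  · exact Or.inr (Or.inr (Or.inr h1))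

section

variable {ι : Type*} [DecidableEq ι] [Fintype ι] {Q : Finset (ι → ℤ)}

theorem cosum_eq (hQ : ∀ c ∈ Q, ∃ i, Cod1 c i) (hS : ∀ x ∈ car Q, TwoSidedAt (car Q) x)
    {P : (ι → ℤ) → ZMod 2} (hP : ∀ s, s ∉ Q → P s = 0) {e : ι → ℤ} {i j : ι} (h : Cod2 e i j)
    {s t : ι → ℤ} (hs : s ∈ Q) (ht : t ∈ Q) (hst : s ≠ t) (hes : Cof e s) (het : Cof e t) :
    cosum P e i j = P s + P t := by
  obtain ⟨l, hl⟩ := hQ s hs
  obtain ⟨m, hm⟩ := hQ t ht
  exact four_logic hP (edge_two hQ hS h) (h.eq_four hl hes) (h.eq_four hm het) hs ht hst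

theorem edge_cases (hQ : ∀ c ∈ Q, ∃ i, Cod1 c i) (hS : ∀ x ∈ car Q, TwoSidedAt (car Q) x)
    {e : ι → ℤ} {i j : ι} (h : Cod2 e i j) :
    (∀ s ∈ Q, ¬ Cof e s) ∨ ∃ s ∈ Q, ∃ t ∈ Q, s ≠ t ∧ Cof e s ∧ Cof e t := by
  have d1 : update e i (e i + 1) ≠ update e i (e i + -1) := by
    intro hh
    have := congrFun hh i
    simp only [update_self] at this
    omega
  have d2 : update e j (e j + 1) ≠ update e j (e j + -1) := by
    intro hh
    have := congrFun hh j
    simp only [update_self] at this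
    omega
  have d3 : ∀ x y : ℤ, x ≠ 0 → update e i (e i + x) ≠ update e j (e j + y) := by
    intro x y hx hh
    have := congrFun hh i
    rw [update_self, update_of_ne h.1] at this
    omega
  have f1 := (h.cof (x := 1) (Or.inl rfl)).2
  have f2 := (h.cof (x := -1) (Or.inr rfl)).2
  have f3 := (h.symm.cof (x := 1) (Or.inl rfl)).2
  have f4 := (h.symm.cof (x := -1) (Or.inr rfl)).2
  rcases edge_two hQ hS h with ⟨h1, h2, h3, h4⟩ | ⟨h1, h2, h3, h4⟩ | ⟨h1, h2, h3, h4⟩ |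
    ⟨h1, h2, h3, h4⟩ | ⟨h1, h2, h3, h4⟩ | ⟨h1, h2, h3, h4⟩ | ⟨h1, h2, h3, h4⟩
  · left
    intro s hs hes
    obtain ⟨l, hl⟩ := hQ s hs
    rcases h.eq_four hl hes with rfl | rfl | rfl | rfl
    · exact h1 hs
    · exact h2 hs
    · exact h3 hs
    · exact h4 hs
  · exact Or.inr ⟨_, h1, _, h2, d1, f1, f2⟩
  · exact Or.inr ⟨_, h3, _, h4, d2, f3, f4⟩
  · exact Or.inr ⟨_, h1, _, h3, d3 _ _ (by norm_num), f1, f3⟩
  · exact Or.inr ⟨_, h1, _, h4, d3 _ _ (by norm_num), f1, f4⟩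
  · exact Or.inr ⟨_, h2, _, h3, d3 _ _ (by norm_num), f2, f3⟩
  · exact Or.inr ⟨_, h2, _, h4, d3 _ _ (by norm_num), f2, f4⟩

end

/-! ### dimension three -/

variable {Q : Finset (Fin 3 → ℤ)}

/-- local potentials in update form -/
theorem exists_pot' (hQ : ∀ c ∈ Q, ∃ i, Cod1 c i)
    (hS : ∀ x ∈ car Q, TwoSidedAt (car Q) x) {γ : ℤ → ℤ → ℤ → ZMod 2}
    (hsup : ∀ (e : Fin 3 → ℤ) (i j : Fin 3), Cod2 e i j → (∀ s ∈ Q, ¬ Cof e s) →
      γ (e 0) (e 1) (e 2) = 0)
    (hev : ∀ a b c : ℤ, a % 2 = 0 → b % 2 = 0 → c % 2 = 0 →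
      γ (a + 1) b c + γ (a - 1) b c + γ a (b + 1) c + γ a (b - 1) c +
      γ a b (c + 1) + γ a b (c - 1) = 0) (v : Fin 3 → ℤ) (hv : ∀ j, v j % 2 = 0) :
    ∃ p : (Fin 3 → ℤ) → ZMod 2, (∀ s, s ∉ Q → p s = 0) ∧
      ∀ e i j, Cod2 e i j → Cof v e → cosum p e i j = γ (e 0) (e 1) (e 2) := by
  have nocof : ∀ (e : Fin 3 → ℤ) (i j : Fin 3), Cod2 e i j →
      update e i (e i + 1) ∉ Q → update e i (e i + -1) ∉ Q → update e j (e j + 1) ∉ Q →
      update e j (e j + -1) ∉ Q → ∀ s ∈ Q, ¬ Cof e s := by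
    intro e i j h h1 h2 h3 h4 s hs hes
    obtain ⟨l, hl⟩ := hQ s hs
    rcases h.eq_four hl hes with rfl | rfl | rfl | rfl
    · exact h1 hs
    · exact h2 hs
    · exact h3 hs
    · exact h4 hs
  obtain ⟨p, hp, q1, q2, q3, q4, q5, q6⟩ := exists_pot hQ hS (hv 0) (hv 1) (hv 2) (γ := γ)
    (fun s hs h1 h2 h3 h4 => by
      rw [ind_eq_zero] at h1 h2 h3 h4
      have hc : Cod2 ![v 0 + s, v 1, v 2] 1 2 := by
        refine ⟨by decide, hv 1, hv 2, fun k k1 k2 => ?_⟩
        fin_cases k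
        · show (v 0 + s) % 2 = 1
          have := hv 0
          omega
        · exact absurd rfl k1
        · exact absurd rfl k2
      refine hsup ![v 0 + s, v 1, v 2] 1 2 hc (nocof _ _ _ hc ?_ ?_ ?_ ?_)
      · rw [upd1]; exact h1
      · rw [upd1]; exact h2
      · rw [upd2]; exact h3
      · rw [upd2]; exact h4)
    (fun s hs h1 h2 h3 h4 => by
      rw [ind_eq_zero] at h1 h2 h3 h4
      have hc : Cod2 ![v 0, v 1 + s, v 2] 0 2 := by
        refine ⟨by decide, hv 0, hv 2, fun k k1 k2 => ?_⟩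
        fin_cases k
        · exact absurd rfl k1
        · show (v 1 + s) % 2 = 1
          have := hv 1
          omega
        · exact absurd rfl k2
      refine hsup ![v 0, v 1 + s, v 2] 0 2 hc (nocof _ _ _ hc ?_ ?_ ?_ ?_)
      · rw [upd0]; exact h1
      · rw [upd0]; exact h2
      · rw [upd2]; exact h3
      · rw [upd2]; exact h4)
    (fun s hs h1 h2 h3 h4 => by
      rw [ind_eq_zero] at h1 h2 h3 h4
      have hc : Cod2 ![v 0, v 1, v 2 + s] 0 1 := by
        refine ⟨by decide, hv 0, hv 1, fun k k1 k2 => ?_⟩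
        fin_cases k
        · exact absurd rfl k1
        · exact absurd rfl k2
        · show (v 2 + s) % 2 = 1
          have := hv 2
          omega
      refine hsup ![v 0, v 1, v 2 + s] 0 1 hc (nocof _ _ _ hc ?_ ?_ ?_ ?_)
      · rw [upd0]; exact h1
      · rw [upd0]; exact h2
      · rw [upd1]; exact h3
      · rw [upd1]; exact h4) (hev _ _ _ (hv 0) (hv 1) (hv 2))
  refine ⟨fun s => p (s 0) (s 1) (s 2), fun s hs => hp _ _ _ ((ind_vec_zero s).2 hs), ?_⟩
  have ex : ∀ e : Fin 3 → ℤ, Cod2 e 1 2 → Cof v e →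
      cosum (fun s => p (s 0) (s 1) (s 2)) e 1 2 = γ (e 0) (e 1) (e 2) := by
    intro e he hve
    have e1 : e 1 = v 1 := by
      have := he.2.1
      have := hv 1
      rcases hve 1 with h | ⟨_, h⟩ <;> omega
    have e2 : e 2 = v 2 := by
      have := he.2.2.1
      have := hv 2
      rcases hve 2 with h | ⟨_, h⟩ <;> omega
    have e0 : e 0 = v 0 + 1 ∨ e 0 = v 0 - 1 := by
      have h1 := he.2.2.2 0 (by decide) (by decide)
      have := hv 0
      rcases hve 0 with h | ⟨_, h⟩ <;> omega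
    have : cosum (fun s => p (s 0) (s 1) (s 2)) e 1 2 = sx p (e 0) (e 1) (e 2) := by
      simp only [cosum, upd1, upd2, sx, sub_eq_add_neg]; rfl
    rw [this, e1, e2]
    rcases e0 with h | h <;> rw [h]
    · exact q1
    · exact q2
  have ey : ∀ e : Fin 3 → ℤ, Cod2 e 0 2 → Cof v e →
      cosum (fun s => p (s 0) (s 1) (s 2)) e 0 2 = γ (e 0) (e 1) (e 2) := by
    intro e he hve
    have e1 : e 0 = v 0 := by
      have := he.2.1
      have := hv 0
      rcases hve 0 with h | ⟨_, h⟩ <;> omega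
    have e2 : e 2 = v 2 := by
      have := he.2.2.1
      have := hv 2
      rcases hve 2 with h | ⟨_, h⟩ <;> omega
    have e0 : e 1 = v 1 + 1 ∨ e 1 = v 1 - 1 := by
      have h1 := he.2.2.2 1 (by decide) (by decide)
      have := hv 1
      rcases hve 1 with h | ⟨_, h⟩ <;> omega
    have : cosum (fun s => p (s 0) (s 1) (s 2)) e 0 2 = sy p (e 0) (e 1) (e 2) := by
      simp only [cosum, upd0, upd2, sy, sub_eq_add_neg]; rfl
    rw [this, e1, e2]
    rcases e0 with h | h <;> rw [h]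
    · exact q3
    · exact q4
  have ez : ∀ e : Fin 3 → ℤ, Cod2 e 0 1 → Cof v e →
      cosum (fun s => p (s 0) (s 1) (s 2)) e 0 1 = γ (e 0) (e 1) (e 2) := by
    intro e he hve
    have e1 : e 0 = v 0 := by
      have := he.2.1
      have := hv 0
      rcases hve 0 with h | ⟨_, h⟩ <;> omega
    have e2 : e 1 = v 1 := by
      have := he.2.2.1
      have := hv 1
      rcases hve 1 with h | ⟨_, h⟩ <;> omega
    have e0 : e 2 = v 2 + 1 ∨ e 2 = v 2 - 1 := by
      have h1 := he.2.2.2 2 (by decide) (by decide)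
      have := hv 2
      rcases hve 2 with h | ⟨_, h⟩ <;> omega
    have : cosum (fun s => p (s 0) (s 1) (s 2)) e 0 1 = sz p (e 0) (e 1) (e 2) := by
      simp only [cosum, upd0, upd1, sz, sub_eq_add_neg]; rfl
    rw [this, e1, e2]
    rcases e0 with h | h <;> rw [h]
    · exact q5
    · exact q6
  intro e i j he hve
  fin_cases i <;> fin_cases j
  · exact absurd rfl he.1
  · exact ez e he hve
  · exact ey e he hve
  · rw [cosum_symm]; exact ez e he.symm hve
  · exact absurd rfl he.1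
  · exact ex e he hve
  · rw [cosum_symm]; exact ey e he.symm hve
  · rw [cosum_symm]; exact ex e he.symm hve
  · exact absurd rfl he.1

theorem fin3_third : ∀ k a : Fin 3, a ≠ k → ∃ b : Fin 3, b ≠ k ∧ b ≠ a ∧
    ∀ c : Fin 3, c = k ∨ c = a ∨ c = b := by decide

theorem even_val {s : ℤ} {x : ℝ} (h : s % 2 = 0) (h1 : ((s / 2 : ℤ) : ℝ) ≤ x)
    (h2 : x ≤ (((s + 1) / 2 : ℤ) : ℝ)) : x = ((s / 2 : ℤ) : ℝ) := by
  have : (s + 1) / 2 = s / 2 := by omega
  rw [this] at h2
  exact le_antisymm h2 h1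

/-- two different squares meet in an edge or in at most a point -/
theorem meet_cod2 {s t : Fin 3 → ℤ} {a b : Fin 3} (hs : Cod1 s a) (ht : Cod1 t b) (hst : s ≠ t)
    {x : Fin 3 → ℝ} (hxs : x ∈ cel s) (hxt : x ∈ cel t) {k : Fin 3} (hk : meet s t k % 2 = 1) :
    ∃ i j, Cod2 (meet s t) i j := by
  have hne : ∀ i, s i ≠ t i → meet s t i % 2 = 0 := by
    intro i hi
    unfold meet
    rw [if_neg hi]; omega
  have heq : ∀ i, s i = t i → meet s t i = s i := by
    intro i hi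
    unfold meet
    rw [if_pos hi]
  have hsk : s k = t k := by
    by_contra h
    have := hne k h
    omega
  rw [heq k hsk] at hk
  have hak : a ≠ k := by rintro rfl; have := hs.1; omega
  have hbk : b ≠ k := by rintro rfl; have := ht.1; omega
  have hmk : meet s t k % 2 = 1 := by rw [heq k hsk]; exact hk
  by_cases hab : a = b
  · subst hab
    obtain ⟨c, hck, hca, hall⟩ := fin3_third k a hak
    have hsa : s a = t a := by
      have h1 := even_val hs.1 (hxs a).1 (hxs a).2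
      have h2 := even_val ht.1 (hxt a).1 (hxt a).2
      rw [h1] at h2
      have h3 : s a / 2 = t a / 2 := by exact_mod_cast h2
      have := hs.1
      have := ht.1
      omega
    have hsc : s c ≠ t c := by
      intro h
      apply hst
      funext i
      rcases hall i with rfl | rfl | rfl
      · exact hsk
      · exact hsa
      · exact h
    refine ⟨a, c, hca.symm, ?_, hne c hsc, fun i hi1 hi2 => ?_⟩
    · rw [heq a hsa]; exact hs.1
    · rcases hall i with rfl | rfl | rfl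
      · exact hmk
      · exact absurd rfl hi1
      · exact absurd rfl hi2
  · have h1 : s a ≠ t a := by
      have := hs.1
      have := ht.2 a hab
      omega
    have h2 : s b ≠ t b := by
      have := ht.1
      have := hs.2 b (Ne.symm hab)
      omega
    obtain ⟨c, hck, hca, hall⟩ := fin3_third k a hak
    have hbc : b = c := by
      rcases hall b with h | h | h
      · exact absurd h hbk
      · exact absurd h.symm hab
      · exact h
    refine ⟨a, b, hab, hne a h1, hne b h2, fun i hi1 hi2 => ?_⟩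
    rcases hall i with rfl | rfl | rfl
    · exact hmk
    · exact absurd rfl hi1
    · exact absurd hbc.symm hi2

theorem meet_point {s t : Fin 3 → ℤ} (he : ∀ k, meet s t k % 2 = 0) {x y : Fin 3 → ℝ}
    (hxs : x ∈ cel s) (hxt : x ∈ cel t) (hys : y ∈ cel s) (hyt : y ∈ cel t) : x = y := by
  funext i
  by_cases h : s i = t i
  · have h1 : s i % 2 = 0 := by
      have := he i
      unfold meet at this
      rwa [if_pos h] at this
    rw [even_val h1 (hxs i).1 (hxs i).2, even_val h1 (hys i).1 (hys i).2]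
  · rw [meet_eq_of_ne hxs hxt h, meet_eq_of_ne hys hyt h]

/-- **(sep)**: every even set of edges is a boundary -/
theorem sep_of (hQ : ∀ c ∈ Q, ∃ i, Cod1 c i)
    (hS : ∀ x ∈ car Q, TwoSidedAt (car Q) x) (htriv : ∀ n, TrivAll (Fin n) (ZMod 2) (car Q))
    {γ : ℤ → ℤ → ℤ → ZMod 2}
    (hsup : ∀ (e : Fin 3 → ℤ) (i j : Fin 3), Cod2 e i j → (∀ s ∈ Q, ¬ Cof e s) →
      γ (e 0) (e 1) (e 2) = 0)
    (hev : ∀ a b c : ℤ, a % 2 = 0 → b % 2 = 0 → c % 2 = 0 →
      γ (a + 1) b c + γ (a - 1) b c + γ a (b + 1) c + γ a (b - 1) c +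
      γ a b (c + 1) + γ a b (c - 1) = 0) :
    ∃ F : (Fin 3 → ℤ) → ZMod 2, (∀ s, s ∉ Q → F s = 0) ∧
      ∀ e i j, Cod2 e i j → cosum F e i j = γ (e 0) (e 1) (e 2) := by
  classical
  have hpot := fun v hv => exists_pot' hQ hS hsup hev v hv
  choose! p hp0 hp using hpot
  let P : (Fin 3 → ℝ) → (Fin 3 → ℤ) → ZMod 2 := fun x => p (vtx x)
  have hP0 : ∀ x s, s ∉ Q → P x s = 0 := fun x => hp0 (vtx x) (vtx_even x)
  have hP : ∀ x e i j, Cod2 e i j → Cof (vtx x) e → cosum (P x) e i j = γ (e 0) (e 1) (e 2) :=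
    fun x => hp (vtx x) (vtx_even x)
  let σ : Fin Q.card → (Fin 3 → ℤ) := fun k => ((Q.equivFin.symm k : Q) : Fin 3 → ℤ)
  have hσ : ∀ k, σ k ∈ Q := fun k => (Q.equivFin.symm k).2
  -- value on an edge
  have hedge : ∀ s ∈ Q, ∀ t ∈ Q, s ≠ t → ∀ x, x ∈ cel s → x ∈ cel t → ∀ i j,
      Cod2 (meet s t) i j → P x s - P x t = γ (meet s t 0) (meet s t 1) (meet s t 2) := by
    intro s hs t ht hst x hxs hxt i j hij
    have h1 := cosum_eq hQ hS (hP0 x) hij hs ht hst (meet_cof hxs hxt)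
      (by rw [meet_comm]; exact meet_cof hxt hxs)
    rw [hP x _ i j hij (vtx_cof_meet hxs hxt)] at h1
    rw [h1, CharTwo.sub_eq_add]
  have hconst : ∀ s ∈ Q, ∀ t ∈ Q, ∀ x y, x ∈ cel s → x ∈ cel t → y ∈ cel s → y ∈ cel t →
      P x s - P x t = P y s - P y t := by
    intro s hs t ht x y hxs hxt hys hyt
    by_cases hst : s = t
    · subst hst; rw [sub_self, sub_self]
    · obtain ⟨a, ha⟩ := hQ s hs
      obtain ⟨b, hb⟩ := hQ t ht
      by_cases hk : ∃ k, meet s t k % 2 = 1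
      · obtain ⟨k, hk⟩ := hk
        obtain ⟨i, j, hij⟩ := meet_cod2 ha hb hst hxs hxt hk
        rw [hedge s hs t ht hst x hxs hxt i j hij, hedge s hs t ht hst y hys hyt i j hij]
      · push Not at hk
        rw [meet_point (fun k => by have := hk k; omega) hxs hxt hys hyt]
  have hcoc : Coc (fun k => cel (σ k)) (fun k l x => P x (σ k) - P x (σ l)) (car Q) := by
    refine ⟨fun k => isClosed_cel _, ?_, ?_, ?_⟩
    · intro x hx
      obtain ⟨c, hc, hxc⟩ := mem_car.1 hx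
      refine mem_iUnion.2 ⟨Q.equivFin ⟨c, hc⟩, ?_⟩
      simpa [σ] using hxc
    · rintro k l x ⟨⟨h1, h2⟩, _⟩
      filter_upwards [self_mem_nhdsWithin] with y hy
      exact hconst _ (hσ k) _ (hσ l) y x hy.1.1 hy.1.2 h1 h2
    · intro i j k x _ _ _ _
      ring
  obtain ⟨χ, hχ, hχd⟩ := htriv _ _ _ hcoc
  have hsubS : ∀ k, cel (σ k) ⊆ car Q := fun k x hx => mem_car.2 ⟨_, hσ k, hx⟩
  have hχc : ∀ k, ∀ x ∈ cel (σ k), ∀ y ∈ cel (σ k), χ k x = χ k y := by
    intro k x hx y hy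
    have h1 : LC (χ k) (cel (σ k)) := by
      have := hχ k
      rwa [inter_eq_self_of_subset_left (hsubS k)] at this
    exact h1.eq_of_preconnected (convex_cel _).isPreconnected hx hy
  let F : (Fin 3 → ℤ) → ZMod 2 := fun s => if h : s ∈ Q then χ (Q.equivFin ⟨s, h⟩) (ctr s) else 0
  have hF : ∀ k x, x ∈ cel (σ k) → F (σ k) = χ k x := by
    intro k x hx
    simp only [F]
    rw [dif_pos (hσ k)]
    have : Q.equivFin ⟨σ k, hσ k⟩ = k := by simp [σ]
    rw [this]
    exact hχc k _ (ctr_mem fun i => Or.inl rfl) _ hx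
  have hF0 : ∀ s, s ∉ Q → F s = 0 := fun s hs => dif_neg hs
  refine ⟨F, hF0, ?_⟩
  intro e i j he
  rcases edge_cases hQ hS he with h | ⟨s, hs, t, ht, hst, hes, het⟩
  · rw [hsup e i j he h]
    unfold cosum
    rw [hF0 _ fun hh => h _ hh (he.cof (Or.inl rfl)).2,
      hF0 _ fun hh => h _ hh (he.cof (Or.inr rfl)).2,
      hF0 _ fun hh => h _ hh (he.symm.cof (Or.inl rfl)).2,
      hF0 _ fun hh => h _ hh (he.symm.cof (Or.inr rfl)).2]
    rfl
  · rw [cosum_eq hQ hS hF0 he hs ht hst hes het]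
    obtain ⟨k, rfl⟩ : ∃ k, σ k = s := ⟨Q.equivFin ⟨s, hs⟩, by simp [σ]⟩
    obtain ⟨l, rfl⟩ : ∃ l, σ l = t := ⟨Q.equivFin ⟨t, ht⟩, by simp [σ]⟩
    have m1 : ctr e ∈ cel (σ k) := ctr_mem hes
    have m2 : ctr e ∈ cel (σ l) := ctr_mem het
    rw [hF k _ m1, hF l _ m2, ← CharTwo.sub_eq_add]
    rw [hχd k l (ctr e) m1 m2 (hsubS k m1)]
    show P (ctr e) (σ k) - P (ctr e) (σ l) = _
    have h1 := cosum_eq hQ hS (hP0 (ctr e)) he hs ht hst hes het
    rw [hP (ctr e) e i j he (vtx_cof (ctr_mem fun i => Or.inl rfl))] at h1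
    rw [h1, CharTwo.sub_eq_add]

end Crest.Agent.R096.Ax_914
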