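import Mathlib
import Crest.Agent.R096.Lc2_451

/-!
# R096/Lc3_451 (helper451, row 96, P2-CUBE)

Plane homology: irreducibility of the boundary `c` of a connected hole-free set `W` of squares,
connectedness of `c`, even sets of vertices of `c` are boundaries in `c`, and the relative statement
for `W` modulo `c`.
-/

set_option autoImplicit false

namespace Crest.Agent.R096.Lc_451

/-- the edge between two neighbouring squares -/
def mid (s t : Pt) : Pt := ((s.1 + t.1) / 2, (s.2 + t.2) / 2)

theorem bd2_mid {s t : Pt} (hs : Sq s) (h : nb s t) :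
    Ed (mid s t) ∧ Sq t ∧ ∀ a, bd2 a (mid s t) = a s + a t := by
  obtain ⟨x, y⟩ := s
  obtain ⟨hx, hy⟩ := hs
  simp only at hx hy
  unfold nb at h
  simp only at h
  rcases h with rfl | rfl | rfl | rfl
  · have e1 : mid (x, y) (x + 2, y) = (x + 1, y) := by
      unfold mid; simp only; ext <;> simp only <;> omega
    rw [e1]
    refine ⟨Or.inl ⟨by simp only; omega, by simp only; omega⟩, ⟨by simp only; omega, hy⟩, fun a => ?_⟩
    unfold bd2
    simp only
    rw [if_pos (by omega), if_neg (by omega), add_zero, show x + 1 + 1 = x + 2 by ring,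
      show x + 1 - 1 = x by ring, add_comm]
  · have e1 : mid (x, y) (x - 2, y) = (x - 1, y) := by
      unfold mid; simp only; ext <;> simp only <;> omega
    rw [e1]
    refine ⟨Or.inl ⟨by simp only; omega, by simp only; omega⟩, ⟨by simp only; omega, hy⟩, fun a => ?_⟩
    unfold bd2
    simp only
    rw [if_pos (by omega), if_neg (by omega), add_zero, show x - 1 + 1 = x by ring,
      show x - 1 - 1 = x - 2 by ring]
  · have e1 : mid (x, y) (x, y + 2) = (x, y + 1) := by
      unfold mid; simp only; ext <;> simp only <;> omega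
    rw [e1]
    refine ⟨Or.inr ⟨by simp only; omega, by simp only; omega⟩, ⟨hx, by simp only; omega⟩, fun a => ?_⟩
    unfold bd2
    simp only
    rw [if_neg (by omega), if_pos (by omega), zero_add, show y + 1 + 1 = y + 2 by ring,
      show y + 1 - 1 = y by ring, add_comm]
  · have e1 : mid (x, y) (x, y - 2) = (x, y - 1) := by
      unfold mid; simp only; ext <;> simp only <;> omega
    rw [e1]
    refine ⟨Or.inr ⟨by simp only; omega, by simp only; omega⟩, ⟨hx, by simp only; omega⟩, fun a => ?_⟩
    unfold bd2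
    simp only
    rw [if_neg (by omega), if_pos (by omega), zero_add, show y - 1 + 1 = y by ring,
      show y - 1 - 1 = y - 2 by ring]

/-- the two sides of an edge -/
theorem sides {e : Pt} (he : Ed e) :
    ∃ s t, Sq s ∧ Sq t ∧ nb s t ∧ mid s t = e ∧ (∀ a, bd2 a e = a s + a t) := by
  obtain ⟨x, y⟩ := e
  rcases he with ⟨hx, hy⟩ | ⟨hx, hy⟩
  · simp only at hx hy
    have hs : Sq (x - 1, y) := ⟨by simp only; omega, hy⟩
    have hn : nb (x - 1, y) (x + 1, y) := Or.inl (by ext <;> simp only; ring)
    have hm : mid (x - 1, y) (x + 1, y) = (x, y) := by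
      unfold mid; simp only; ext <;> simp only <;> omega
    obtain ⟨_, h2, h3⟩ := bd2_mid hs hn
    rw [hm] at h3
    exact ⟨_, _, hs, h2, hn, hm, h3⟩
  · simp only at hx hy
    have hs : Sq (x, y - 1) := ⟨hx, by simp only; omega⟩
    have hn : nb (x, y - 1) (x, y + 1) := Or.inr (Or.inr (Or.inl (by ext <;> simp only; ring)))
    have hm : mid (x, y - 1) (x, y + 1) = (x, y) := by
      unfold mid; simp only; ext <;> simp only <;> omega
    obtain ⟨_, h2, h3⟩ := bd2_mid hs hn
    rw [hm] at h3
    exact ⟨_, _, hs, h2, hn, hm, h3⟩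

/-- indicator -/
def ind (W : Finset Pt) (p : Pt) : ZMod 2 := if p ∈ W then 1 else 0

theorem ind_mem {W : Finset Pt} {p : Pt} (h : p ∈ W) : ind W p = 1 := if_pos h
theorem ind_not {W : Finset Pt} {p : Pt} (h : p ∉ W) : ind W p = 0 := if_neg h

theorem ind_ne {W : Finset Pt} {p : Pt} (h : ind W p ≠ 0) : p ∈ W := by
  by_contra h'
  exact h (ind_not h')

theorem bd2_ed {a : Pt → ZMod 2} (ha : ∀ p, a p ≠ 0 → Sq p) {e : Pt} (h : bd2 a e ≠ 0) : Ed e := by
  obtain ⟨x, y⟩ := e
  unfold bd2 at h
  simp only at h
  by_cases hx : x % 2 = 0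
  · by_cases hy : y % 2 = 0
    · exfalso
      apply h
      have h0 : ∀ p : Pt, (p.1 % 2 = 0 ∨ p.2 % 2 = 0) → a p = 0 := by
        intro p hp
        by_contra h1
        have := ha p h1
        unfold Sq at this
        omega
      rw [if_pos hx, if_pos hy, h0 _ (Or.inr hy), h0 _ (Or.inr hy), h0 _ (Or.inl hx),
        h0 _ (Or.inl hx)]
      simp
    · exact Or.inl ⟨hx, by simp only; omega⟩
  · by_cases hy : y % 2 = 0
    · exact Or.inr ⟨by simp only; omega, hy⟩
    · exfalso
      apply h
      rw [if_neg hx, if_neg hy, add_zero]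

theorem bd2_finite {a : Pt → ZMod 2} (h : {p | a p ≠ 0}.Finite) : {p | bd2 a p ≠ 0}.Finite := by
  obtain ⟨N, hN0, hN⟩ := exists_Bd h
  apply Bd.finite (N := N + 1)
  intro p hp
  by_contra hcon
  apply hp
  have h0 : ∀ q : Pt, (N < |q.1| ∨ N < |q.2|) → a q = 0 := by
    intro q hq
    by_contra h1
    have := hN q h1
    omega
  have h1 : N + 1 < |p.1| ∨ N + 1 < |p.2| := by omega
  have h2 : |p.1| ≤ |p.1 + 1| + 1 := by
    have := abs_sub_abs_le_abs_sub p.1 (p.1 + 1)
    rw [show p.1 - (p.1 + 1) = -1 by ring] at this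
    simp only [abs_neg, abs_one] at this
    linarith
  have h3 : |p.1| ≤ |p.1 - 1| + 1 := by
    have := abs_sub_abs_le_abs_sub p.1 (p.1 - 1)
    rw [show p.1 - (p.1 - 1) = 1 by ring] at this
    simp only [abs_one] at this
    linarith
  have h4 : |p.2| ≤ |p.2 + 1| + 1 := by
    have := abs_sub_abs_le_abs_sub p.2 (p.2 + 1)
    rw [show p.2 - (p.2 + 1) = -1 by ring] at this
    simp only [abs_neg, abs_one] at this
    linarith
  have h5 : |p.2| ≤ |p.2 - 1| + 1 := by
    have := abs_sub_abs_le_abs_sub p.2 (p.2 - 1)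
    rw [show p.2 - (p.2 - 1) = 1 by ring] at this
    simp only [abs_one] at this
    linarith
  unfold bd2
  rw [h0 (p.1 + 1, p.2) (by simp only; omega), h0 (p.1 - 1, p.2) (by simp only; omega),
    h0 (p.1, p.2 + 1) (by simp only; omega), h0 (p.1, p.2 - 1) (by simp only; omega)]
  simp

theorem ind_finite (W : Finset Pt) : {p | ind W p ≠ 0}.Finite :=
  W.finite_toSet.subset (fun _ h => ind_ne h)

/-- **hole-free**: a finite chain of squares whose boundary misses the edges outside `W` lives in `W` -/
theorem zero_outside {W : Finset Pt} (hHF : HF W) {g : Pt → ZMod 2} (hfin : {p | g p ≠ 0}.Finite)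
    (hsq : ∀ p, g p ≠ 0 → Sq p)
    (h : ∀ s t, Sq s → s ∉ W → t ∉ W → nb s t → bd2 g (mid s t) = 0) (p : Pt) (hp : p ∉ W) :
    g p = 0 := by
  classical
  have hT := hHF (hfin.toFinset.filter (fun s => s ∉ W)) (by
    rw [Finset.disjoint_left]
    intro s hs hsW
    exact (Finset.mem_filter.1 hs).2 hsW) (by
    intro s hs t hst
    rw [Finset.mem_filter, Set.Finite.mem_toFinset] at hs
    by_cases htW : t ∈ W
    · exact Or.inr htW
    · left
      rw [Finset.mem_filter, Set.Finite.mem_toFinset]
      refine ⟨?_, htW⟩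
      have h1 := h s t (hsq s hs.1) hs.2 htW hst
      rw [(bd2_mid (hsq s hs.1) hst).2.2] at h1
      show g t ≠ 0
      rw [← zmod2_eq_of_add h1]
      exact hs.1)
  by_contra hne
  have : p ∈ hfin.toFinset.filter (fun s => s ∉ W) := by
    rw [Finset.mem_filter, Set.Finite.mem_toFinset]
    exact ⟨hne, hp⟩
  rw [hT] at this
  simp at this

/-- a chain of squares whose boundary misses the interior edges of `W` is constant on `W` -/
theorem const_inside {W : Finset Pt} (hcon : Con W) {g : Pt → ZMod 2}
    (h : ∀ s t, s ∈ W → t ∈ W → nb s t → g s + g t = 0) :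
    (∀ s ∈ W, g s = 0) ∨ (∀ s ∈ W, g s = 1) := by
  classical
  rcases hcon (W.filter (fun s => g s = 1)) (Finset.filter_subset _ _) (by
    intro s hs t ht hst
    rw [Finset.mem_filter] at hs ⊢
    refine ⟨ht, ?_⟩
    rw [← zmod2_eq_of_add (h s t hs.1 ht hst)]
    exact hs.2) with h' | h'
  · left
    intro s hs
    by_contra hne
    have : s ∈ W.filter (fun s => g s = 1) := Finset.mem_filter.2 ⟨hs, zmod2_ne_zero hne⟩
    rw [h'] at this
    simp at this
  · right
    intro s hs
    rw [← h'] at hs
    exact (Finset.mem_filter.1 hs).2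

/-- **PL2**: the boundary of a connected hole-free set of squares is irreducible -/
theorem irred {W : Finset Pt} (hW : ∀ s ∈ W, Sq s) (hcon : Con W) (hHF : HF W) {c2 : Pt → ZMod 2}
    (hle : ∀ e, c2 e ≠ 0 → bd2 (ind W) e ≠ 0) (hcl : ∀ v, Vx v → bd2 c2 v = 0) :
    (∀ e, c2 e = 0) ∨ (∀ e, c2 e = bd2 (ind W) e) := by
  have hWsq : ∀ p, ind W p ≠ 0 → Sq p := fun p hp => hW p (ind_ne hp)
  obtain ⟨g, hgf, hgs, hg⟩ := plane_H1 (γ := c2) ((bd2_finite (ind_finite W)).subset hle)
    (fun p hp => bd2_ed hWsq (hle p hp)) hcl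
  have h0 := zero_outside hHF hgf hgs (by
    intro s t hs hsW htW hst
    rw [hg]
    by_contra hne
    apply hle _ hne
    rw [(bd2_mid hs hst).2.2, ind_not hsW, ind_not htW, add_zero])
  have h1 := const_inside hcon (g := g) (by
    intro s t hs ht hst
    rw [← (bd2_mid (hW s hs) hst).2.2, hg]
    by_contra hne
    apply hle _ hne
    rw [(bd2_mid (hW s hs) hst).2.2, ind_mem hs, ind_mem ht, zmod2_self])
  rcases h1 with h1 | h1
  · left
    intro e
    rw [← hg]
    have : g = fun _ => 0 := by
      funext p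
      by_cases hp : p ∈ W
      · exact h1 p hp
      · exact h0 p hp
    rw [this]
    exact op2.zero e
  · right
    intro e
    rw [← hg]
    have : g = ind W := by
      funext p
      by_cases hp : p ∈ W
      · rw [h1 p hp, ind_mem hp]
      · rw [h0 p hp, ind_not hp]
    rw [this]

/-- the end points of an edge -/
theorem ends {e : Pt} (he : Ed e) : ∃ u v, Vx u ∧ Vx v ∧ u ≠ v ∧
    ∀ (b : Pt → ZMod 2) (w : Pt), Vx w → (∀ e', b e' ≠ 0 → e' = e) →
      bd2 b w = if w = u ∨ w = v then b e else 0 := by
  obtain ⟨x, y⟩ := e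
  rcases he with ⟨hx, hy⟩ | ⟨hx, hy⟩
  · simp only at hx hy
    refine ⟨(x, y - 1), (x, y + 1), ⟨hx, by simp only; omega⟩, ⟨hx, by simp only; omega⟩, ?_, ?_⟩
    · intro h
      have := congrArg Prod.snd h
      simp only at this
      omega
    · rintro b ⟨z, w⟩ ⟨hz, hw⟩ hb
      simp only at hz hw
      have h0 : ∀ q : Pt, q ≠ (x, y) → b q = 0 := by
        intro q hq
        by_contra h1
        exact hq (hb q h1)
      unfold bd2
      simp only
      rw [if_pos hz, if_pos hw, h0 (z + 1, w) (by
        intro h; have := congrArg Prod.fst h; simp only at this; omega), h0 (z - 1, w) (by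
        intro h; have := congrArg Prod.fst h; simp only at this; omega)]
      by_cases hc : (z, w) = (x, y - 1) ∨ (z, w) = (x, y + 1)
      · rw [if_pos hc]
        rcases hc with hc | hc
        · simp only [Prod.mk.injEq] at hc
          obtain ⟨rfl, rfl⟩ := hc
          rw [show y - 1 + 1 = y by ring, h0 (z, y - 1 - 1) (by
            intro h; have := congrArg Prod.snd h; simp only at this; omega)]
          ring
        · simp only [Prod.mk.injEq] at hc
          obtain ⟨rfl, rfl⟩ := hc
          rw [show y + 1 - 1 = y by ring, h0 (z, y + 1 + 1) (by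
            intro h; have := congrArg Prod.snd h; simp only at this; omega)]
          ring
      · rw [if_neg hc]
        push Not at hc
        rw [h0 (z, w + 1) (by
          intro h; apply hc.1; rw [Prod.ext_iff] at h ⊢; simp only at h ⊢; omega),
          h0 (z, w - 1) (by
          intro h; apply hc.2; rw [Prod.ext_iff] at h ⊢; simp only at h ⊢; omega)]
        ring
  · simp only at hx hy
    refine ⟨(x - 1, y), (x + 1, y), ⟨by simp only; omega, hy⟩, ⟨by simp only; omega, hy⟩, ?_, ?_⟩
    · intro h
      have := congrArg Prod.fst h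
      simp only at this
      omega
    · rintro b ⟨z, w⟩ ⟨hz, hw⟩ hb
      simp only at hz hw
      have h0 : ∀ q : Pt, q ≠ (x, y) → b q = 0 := by
        intro q hq
        by_contra h1
        exact hq (hb q h1)
      unfold bd2
      simp only
      rw [if_pos hz, if_pos hw, h0 (z, w + 1) (by
        intro h; have := congrArg Prod.snd h; simp only at this; omega), h0 (z, w - 1) (by
        intro h; have := congrArg Prod.snd h; simp only at this; omega)]
      by_cases hc : (z, w) = (x - 1, y) ∨ (z, w) = (x + 1, y)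
      · rw [if_pos hc]
        rcases hc with hc | hc
        · simp only [Prod.mk.injEq] at hc
          obtain ⟨rfl, rfl⟩ := hc
          rw [show x - 1 + 1 = x by ring, h0 (x - 1 - 1, w) (by
            intro h; have := congrArg Prod.fst h; simp only at this; omega)]
          ring
        · simp only [Prod.mk.injEq] at hc
          obtain ⟨rfl, rfl⟩ := hc
          rw [show x + 1 - 1 = x by ring, h0 (x + 1 + 1, w) (by
            intro h; have := congrArg Prod.fst h; simp only at this; omega)]
          ring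
      · rw [if_neg hc]
        push Not at hc
        rw [h0 (z + 1, w) (by
          intro h; apply hc.1; rw [Prod.ext_iff] at h ⊢; simp only at h ⊢; omega),
          h0 (z - 1, w) (by
          intro h; apply hc.2; rw [Prod.ext_iff] at h ⊢; simp only at h ⊢; omega)]
        ring

end Crest.Agent.R096.Lc_451
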