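import Mathlib
import Crest.Agent.R096.Lc3_451

/-!
# R096/Lc4_451 (helper451, row 96, P2-CUBE)

Plane homology, second part: connectedness of the boundary `c` of a connected hole-free set `W`,
pairing of an even set of vertices of `c`, and the relative statement (Step A).
-/

set_option autoImplicit false

namespace Crest.Agent.R096.Lc_451

theorem bd2_vx {a : Pt → ZMod 2} {v : Pt} (hv : Vx v) :
    bd2 a v = a (v.1 + 1, v.2) + a (v.1 - 1, v.2) + (a (v.1, v.2 + 1) + a (v.1, v.2 - 1)) := by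
  unfold bd2
  rw [if_pos hv.1, if_pos hv.2]

theorem bd2_eh {a : Pt → ZMod 2} {x y : ℤ} (hx : x % 2 = 1) (hy : y % 2 = 0) :
    bd2 a (x, y) = a (x, y + 1) + a (x, y - 1) := by
  unfold bd2
  rw [if_neg (by simp only; omega), if_pos hy, zero_add]

theorem bd2_ev {a : Pt → ZMod 2} {x y : ℤ} (hx : x % 2 = 0) (hy : y % 2 = 1) :
    bd2 a (x, y) = a (x + 1, y) + a (x - 1, y) := by
  unfold bd2
  rw [if_pos hx, if_neg (by simp only; omega), add_zero]

/-- `v` lies on the curve `c` -/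
def OnC (c : Pt → ZMod 2) (v : Pt) : Prop :=
  Vx v ∧ (c (v.1 + 1, v.2) ≠ 0 ∨ c (v.1 - 1, v.2) ≠ 0 ∨ c (v.1, v.2 + 1) ≠ 0 ∨ c (v.1, v.2 - 1) ≠ 0)

/-- boundary of boundary -/
theorem bd2_bd2 {a : Pt → ZMod 2} {v : Pt} (hv : Vx v) :
    bd2 (bd2 a) v = 0 := by
  obtain ⟨x, y⟩ := v
  obtain ⟨hx, hy⟩ := hv
  simp only at hx hy
  rw [bd2_vx ⟨hx, hy⟩]
  simp only
  rw [bd2_eh (by omega) hy, bd2_eh (by omega) hy, bd2_ev hx (by omega), bd2_ev hx (by omega)]
  have h1 := zmod2_self (a (x + 1, y + 1))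
  have h2 := zmod2_self (a (x + 1, y - 1))
  have h3 := zmod2_self (a (x - 1, y + 1))
  have h4 := zmod2_self (a (x - 1, y - 1))
  linear_combination h1 + h2 + h3 + h4

theorem conn_c {W : Finset Pt} (hW : ∀ s ∈ W, Sq s) (hcon : Con W) (hHF : HF W) {ω : Pt → ZMod 2}
    (h1 : ∀ x y, x % 2 = 1 → y % 2 = 0 → bd2 (ind W) (x, y) ≠ 0 → ω (x - 1, y) = ω (x + 1, y))
    (h2 : ∀ x y, x % 2 = 0 → y % 2 = 1 → bd2 (ind W) (x, y) ≠ 0 → ω (x, y - 1) = ω (x, y + 1)) :
    (∀ v, OnC (bd2 (ind W)) v → ω v = 0) ∨ (∀ v, OnC (bd2 (ind W)) v → ω v = 1) := by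
  set c := bd2 (ind W) with hc
  have hWsq : ∀ p, ind W p ≠ 0 → Sq p := fun p hp => hW p (ind_ne hp)
  let c2 : Pt → ZMod 2 := fun e => c e * ω (if e.1 % 2 = 0 then (e.1, e.2 - 1) else (e.1 - 1, e.2))
  have hr : ∀ v, Vx v → c2 (v.1 + 1, v.2) = c (v.1 + 1, v.2) * ω v ∧
      c2 (v.1 - 1, v.2) = c (v.1 - 1, v.2) * ω v ∧ c2 (v.1, v.2 + 1) = c (v.1, v.2 + 1) * ω v ∧
      c2 (v.1, v.2 - 1) = c (v.1, v.2 - 1) * ω v := by
    rintro ⟨x, y⟩ ⟨hx, hy⟩
    simp only at hx hy ⊢
    refine ⟨?_, ?_, ?_, ?_⟩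
    · simp only [c2]
      rw [if_neg (by omega), show x + 1 - 1 = x by ring]
    · simp only [c2]
      rw [if_neg (by omega)]
      by_cases h : c (x - 1, y) = 0
      · rw [h, zero_mul, zero_mul]
      · have := h1 (x - 1) y (by omega) hy h
        rw [show x - 1 + 1 = x by ring] at this
        rw [this]
    · simp only [c2]
      rw [if_pos hx, show y + 1 - 1 = y by ring]
    · simp only [c2]
      rw [if_pos hx]
      by_cases h : c (x, y - 1) = 0
      · rw [h, zero_mul, zero_mul]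
      · have := h2 x (y - 1) hx (by omega) h
        rw [show y - 1 + 1 = y by ring] at this
        rw [this]
  have key := irred hW hcon hHF (c2 := c2) (by
    intro e he hce
    apply he
    simp only [c2]
    rw [show c e = 0 from hce, zero_mul]) (by
    intro v hv
    have h0 : bd2 c v = 0 := bd2_bd2 hv
    rw [bd2_vx hv] at h0 ⊢
    obtain ⟨e1, e2, e3, e4⟩ := hr v hv
    rw [e1, e2, e3, e4]
    linear_combination (ω v) * h0)
  rcases key with h | h
  · left
    rintro v ⟨hv, hon⟩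
    obtain ⟨e1, e2, e3, e4⟩ := hr v hv
    rw [h] at e1 e2 e3 e4
    rcases hon with h' | h' | h' | h'
    · rw [zmod2_ne_zero h', one_mul] at e1; exact e1.symm
    · rw [zmod2_ne_zero h', one_mul] at e2; exact e2.symm
    · rw [zmod2_ne_zero h', one_mul] at e3; exact e3.symm
    · rw [zmod2_ne_zero h', one_mul] at e4; exact e4.symm
  · right
    rintro v ⟨hv, hon⟩
    obtain ⟨e1, e2, e3, e4⟩ := hr v hv
    rw [h] at e1 e2 e3 e4
    rcases hon with h' | h' | h' | h'
    · rw [← hc, zmod2_ne_zero h', one_mul] at e1; exact e1.symm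
    · rw [← hc, zmod2_ne_zero h', one_mul] at e2; exact e2.symm
    · rw [← hc, zmod2_ne_zero h', one_mul] at e3; exact e3.symm
    · rw [← hc, zmod2_ne_zero h', one_mul] at e4; exact e4.symm

/-- a single cell -/
def sgl (e p : Pt) : ZMod 2 := if p = e then 1 else 0

theorem sgl_self (e : Pt) : sgl e e = 1 := if_pos rfl
theorem sgl_ne {e p : Pt} (h : p ≠ e) : sgl e p = 0 := if_neg h

theorem bd2_sgl_h {x y : ℤ} (hx : x % 2 = 1) (hy : y % 2 = 0) {w : Pt} (hw : Vx w) :
    bd2 (sgl (x, y)) w = sgl (x - 1, y) w + sgl (x + 1, y) w := by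
  obtain ⟨a, b⟩ := w
  obtain ⟨ha, hb⟩ := hw
  simp only at ha hb
  rw [bd2_vx ⟨ha, hb⟩]
  unfold sgl
  simp only [Prod.mk.injEq]
  rw [if_neg (by omega : ¬ (a = x ∧ b + 1 = y)), if_neg (by omega : ¬ (a = x ∧ b - 1 = y))]
  by_cases h1 : a = x - 1 ∧ b = y
  · rw [if_pos (by omega : a + 1 = x ∧ b = y), if_neg (by omega : ¬ (a - 1 = x ∧ b = y)), if_pos h1,
      if_neg (by omega : ¬ (a = x + 1 ∧ b = y))]
    simp
  · rw [if_neg (by omega : ¬ (a + 1 = x ∧ b = y)), if_neg h1]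
    by_cases h2 : a = x + 1 ∧ b = y
    · rw [if_pos (by omega : (a - 1 = x ∧ b = y)), if_pos h2]
      simp
    · rw [if_neg (by omega : ¬ (a - 1 = x ∧ b = y)), if_neg h2]
      simp

theorem bd2_sgl_v {x y : ℤ} (hx : x % 2 = 0) (hy : y % 2 = 1) {w : Pt} (hw : Vx w) :
    bd2 (sgl (x, y)) w = sgl (x, y - 1) w + sgl (x, y + 1) w := by
  obtain ⟨a, b⟩ := w
  obtain ⟨ha, hb⟩ := hw
  simp only at ha hb
  rw [bd2_vx ⟨ha, hb⟩]
  unfold sgl
  simp only [Prod.mk.injEq]
  rw [if_neg (by omega : ¬ (a + 1 = x ∧ b = y)), if_neg (by omega : ¬ (a - 1 = x ∧ b = y))]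
  by_cases h1 : a = x ∧ b = y - 1
  · rw [if_pos (by omega : a = x ∧ b + 1 = y), if_neg (by omega : ¬ (a = x ∧ b - 1 = y)), if_pos h1,
      if_neg (by omega : ¬ (a = x ∧ b = y + 1))]
    simp
  · rw [if_neg (by omega : ¬ (a = x ∧ b + 1 = y)), if_neg h1]
    by_cases h2 : a = x ∧ b = y + 1
    · rw [if_pos (by omega : (a = x ∧ b - 1 = y)), if_pos h2]
      simp
    · rw [if_neg (by omega : ¬ (a = x ∧ b - 1 = y)), if_neg h2]
      simp

theorem bd2_add (a b : Pt → ZMod 2) (p : Pt) : bd2 (fun q => a q + b q) p = bd2 a p + bd2 b p :=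
  op2.add a b p

theorem bd2_zero (p : Pt) : bd2 (fun _ => 0) p = 0 := op2.zero p

/-- **path**: two vertices of `c` are joined by a chain of edges of `c` -/
theorem path_c {W : Finset Pt} (hW : ∀ s ∈ W, Sq s) (hcon : Con W) (hHF : HF W) {u u' : Pt}
    (hu : OnC (bd2 (ind W)) u) (hu' : OnC (bd2 (ind W)) u') :
    ∃ β : Pt → ZMod 2, (∀ e, β e ≠ 0 → bd2 (ind W) e ≠ 0) ∧
      ∀ w, Vx w → bd2 β w = sgl u w + sgl u' w := by
  classical
  set c := bd2 (ind W) with hc
  let R : Pt → Prop := fun v => ∃ β : Pt → ZMod 2, (∀ e, β e ≠ 0 → c e ≠ 0) ∧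
      ∀ w, Vx w → bd2 β w = sgl u w + sgl v w
  have hstep : ∀ (e v v' : Pt), c e ≠ 0 → (∀ w, Vx w → bd2 (sgl e) w = sgl v w + sgl v' w) →
      R v → R v' := by
    rintro e v v' hce hev ⟨β, hβ, hβ2⟩
    refine ⟨fun q => β q + sgl e q, ?_, ?_⟩
    · intro e' he'
      by_cases h : e' = e
      · rw [h]; exact hce
      · apply hβ
        intro h0
        apply he'
        show β e' + sgl e e' = 0
        rw [h0, sgl_ne h, add_zero]
    · intro w hw
      rw [bd2_add, hβ2 w hw, hev w hw]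
      have := zmod2_self (sgl v w)
      linear_combination this
  have hR : ∀ (e v v' : Pt), c e ≠ 0 → (∀ w, Vx w → bd2 (sgl e) w = sgl v w + sgl v' w) →
      (R v ↔ R v') := by
    intro e v v' hce hev
    exact ⟨hstep e v v' hce hev, hstep e v' v hce (fun w hw => by rw [hev w hw, add_comm])⟩
  have key := conn_c hW hcon hHF (ω := fun v => if R v then 1 else 0)
    (fun x y hx hy hxy => by
      have := hR (x, y) (x - 1, y) (x + 1, y) hxy (fun w hw => bd2_sgl_h hx hy hw)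
      simp only [this])
    (fun x y hx hy hxy => by
      have := hR (x, y) (x, y - 1) (x, y + 1) hxy (fun w hw => bd2_sgl_v hx hy hw)
      simp only [this])
  have hRu : R u := ⟨fun _ => 0, fun e h => absurd rfl h, fun w _ => by
    rw [bd2_zero, zmod2_self]⟩
  rcases key with h | h
  · have := h u hu
    simp only [if_pos hRu] at this
    exact absurd this (by decide)
  · have := h u' hu'
    by_contra hcon'
    have hn : ¬ R u' := hcon'
    simp only [if_neg hn] at this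
    exact absurd this (by decide)

theorem reduce_c {W : Finset Pt} (hW : ∀ s ∈ W, Sq s) (hcon : Con W) (hHF : HF W) (A : Finset Pt)
    (hA : ∀ a ∈ A, OnC (bd2 (ind W)) a) :
    ∃ β : Pt → ZMod 2, (∀ e, β e ≠ 0 → bd2 (ind W) e ≠ 0) ∧
      ((∀ w, Vx w → ind A w + bd2 β w = 0) ∨
        ∃ u, OnC (bd2 (ind W)) u ∧ ∀ w, Vx w → ind A w + bd2 β w = sgl u w) := by
  classical
  induction A using Finset.induction with
  | empty =>
    refine ⟨fun _ => 0, fun e h => absurd rfl h, Or.inl fun w _ => ?_⟩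
    rw [bd2_zero, ind_not (by simp), add_zero]
  | insert a A ha ih =>
    obtain ⟨β, hβ, h⟩ := ih (fun b hb => hA b (Finset.mem_insert_of_mem hb))
    have hins : ∀ w, ind (insert a A) w = ind A w + sgl a w := by
      intro w
      unfold ind sgl
      by_cases h1 : w = a
      · subst h1
        rw [if_pos (Finset.mem_insert_self _ _), if_neg ha, if_pos rfl, zero_add]
      · by_cases h2 : w ∈ A
        · rw [if_pos (Finset.mem_insert_of_mem h2), if_pos h2, if_neg h1, add_zero]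
        · rw [if_neg (by simp [h1, h2]), if_neg h2, if_neg h1, add_zero]
    have haC := hA a (Finset.mem_insert_self _ _)
    rcases h with h | ⟨u, hu, h⟩
    · refine ⟨β, hβ, Or.inr ⟨a, haC, fun w hw => ?_⟩⟩
      rw [hins]
      linear_combination h w hw
    · obtain ⟨β', hβ', h'⟩ := path_c hW hcon hHF hu haC
      refine ⟨fun q => β q + β' q, ?_, Or.inl fun w hw => ?_⟩
      · intro e he
        by_cases h1 : β e = 0
        · apply hβ'
          intro h2
          apply he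
          show β e + β' e = 0
          rw [h1, h2, add_zero]
        · exact hβ e h1
      · rw [bd2_add, h' w hw, hins]
        have h3 := h w hw
        have h4 := zmod2_self (sgl a w)
        have h5 := zmod2_self (sgl u w)
        linear_combination h3 + h4 + h5

/-- the total of a boundary vanishes -/
theorem tot {γ : Pt → ZMod 2} (hfin : {p | γ p ≠ 0}.Finite) :
    ∑ᶠ p : Pt, (if p.1 % 2 = 0 ∧ p.2 % 2 = 0 then bd2 γ p else 0) = 0 := by
  classical
  have hs : ∀ (φ : Pt ≃ Pt) (P : Pt → Prop) [DecidablePred P],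
      (Function.support (fun p => if P p then γ (φ p) else 0)).Finite := by
    intro φ P _
    refine (hfin.preimage (φ.injective.injOn)).subset ?_
    intro p hp
    simp only [Function.mem_support] at hp
    show γ (φ p) ≠ 0
    intro h0
    apply hp
    rw [h0]
    simp
  let X1 : Pt ≃ Pt := Equiv.prodCongr (Equiv.addRight (1 : ℤ)) (Equiv.refl ℤ)
  let X2 : Pt ≃ Pt := Equiv.prodCongr (Equiv.addRight (-1 : ℤ)) (Equiv.refl ℤ)
  let Y1 : Pt ≃ Pt := Equiv.prodCongr (Equiv.refl ℤ) (Equiv.addRight (1 : ℤ))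
  let Y2 : Pt ≃ Pt := Equiv.prodCongr (Equiv.refl ℤ) (Equiv.addRight (-1 : ℤ))
  have hdec : (fun p : Pt => if p.1 % 2 = 0 ∧ p.2 % 2 = 0 then bd2 γ p else 0) = fun p =>
      ((if p.1 % 2 = 0 ∧ p.2 % 2 = 0 then γ (X1 p) else 0) +
        (if p.1 % 2 = 0 ∧ p.2 % 2 = 0 then γ (X2 p) else 0)) +
      ((if p.1 % 2 = 0 ∧ p.2 % 2 = 0 then γ (Y1 p) else 0) +
        (if p.1 % 2 = 0 ∧ p.2 % 2 = 0 then γ (Y2 p) else 0)) := by
    funext p
    by_cases h : p.1 % 2 = 0 ∧ p.2 % 2 = 0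
    · simp only [if_pos h]
      rw [bd2_vx h]
      rfl
    · simp only [if_neg h, add_zero]
  rw [hdec, finsum_add_distrib, finsum_add_distrib (hs X1 _) (hs X2 _),
    finsum_add_distrib (hs Y1 _) (hs Y2 _)]
  · have e1 : ∑ᶠ p : Pt, (if p.1 % 2 = 0 ∧ p.2 % 2 = 0 then γ (X1 p) else 0)
        = ∑ᶠ p : Pt, (if p.1 % 2 = 1 ∧ p.2 % 2 = 0 then γ p else 0) := by
      rw [← finsum_comp_equiv X1 (f := fun p : Pt => if p.1 % 2 = 1 ∧ p.2 % 2 = 0 then γ p else 0)]
      apply finsum_congr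
      intro p
      have : (X1 p).1 = p.1 + 1 := rfl
      have h2 : (X1 p).2 = p.2 := rfl
      rw [this, h2]
      by_cases h : p.1 % 2 = 0 ∧ p.2 % 2 = 0
      · rw [if_pos h, if_pos (by omega)]
      · rw [if_neg h, if_neg (by omega)]
    have e2 : ∑ᶠ p : Pt, (if p.1 % 2 = 0 ∧ p.2 % 2 = 0 then γ (X2 p) else 0)
        = ∑ᶠ p : Pt, (if p.1 % 2 = 1 ∧ p.2 % 2 = 0 then γ p else 0) := by
      rw [← finsum_comp_equiv X2 (f := fun p : Pt => if p.1 % 2 = 1 ∧ p.2 % 2 = 0 then γ p else 0)]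
      apply finsum_congr
      intro p
      have : (X2 p).1 = p.1 + -1 := rfl
      have h2 : (X2 p).2 = p.2 := rfl
      rw [this, h2]
      by_cases h : p.1 % 2 = 0 ∧ p.2 % 2 = 0
      · rw [if_pos h, if_pos (by omega)]
      · rw [if_neg h, if_neg (by omega)]
    have e3 : ∑ᶠ p : Pt, (if p.1 % 2 = 0 ∧ p.2 % 2 = 0 then γ (Y1 p) else 0)
        = ∑ᶠ p : Pt, (if p.1 % 2 = 0 ∧ p.2 % 2 = 1 then γ p else 0) := by
      rw [← finsum_comp_equiv Y1 (f := fun p : Pt => if p.1 % 2 = 0 ∧ p.2 % 2 = 1 then γ p else 0)]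
      apply finsum_congr
      intro p
      have : (Y1 p).1 = p.1 := rfl
      have h2 : (Y1 p).2 = p.2 + 1 := rfl
      rw [this, h2]
      by_cases h : p.1 % 2 = 0 ∧ p.2 % 2 = 0
      · rw [if_pos h, if_pos (by omega)]
      · rw [if_neg h, if_neg (by omega)]
    have e4 : ∑ᶠ p : Pt, (if p.1 % 2 = 0 ∧ p.2 % 2 = 0 then γ (Y2 p) else 0)
        = ∑ᶠ p : Pt, (if p.1 % 2 = 0 ∧ p.2 % 2 = 1 then γ p else 0) := by
      rw [← finsum_comp_equiv Y2 (f := fun p : Pt => if p.1 % 2 = 0 ∧ p.2 % 2 = 1 then γ p else 0)]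
      apply finsum_congr
      intro p
      have : (Y2 p).1 = p.1 := rfl
      have h2 : (Y2 p).2 = p.2 + -1 := rfl
      rw [this, h2]
      by_cases h : p.1 % 2 = 0 ∧ p.2 % 2 = 0
      · rw [if_pos h, if_pos (by omega)]
      · rw [if_neg h, if_neg (by omega)]
    rw [e1, e2, e3, e4, zmod2_self, zmod2_self, add_zero]
  · refine ((hs X1 (fun p => p.1 % 2 = 0 ∧ p.2 % 2 = 0)).union
      (hs X2 (fun p => p.1 % 2 = 0 ∧ p.2 % 2 = 0))).subset ?_
    exact Function.support_add _ _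
  · refine ((hs Y1 (fun p => p.1 % 2 = 0 ∧ p.2 % 2 = 0)).union
      (hs Y2 (fun p => p.1 % 2 = 0 ∧ p.2 % 2 = 0))).subset ?_
    exact Function.support_add _ _

theorem no_single {γ : Pt → ZMod 2} (hfin : {p | γ p ≠ 0}.Finite)
    {u : Pt} (hu : Vx u) (h : ∀ w, Vx w → bd2 γ w = sgl u w) : False := by
  have h1 := tot hfin
  rw [finsum_eq_single _ u] at h1
  · have hu' : u.1 % 2 = 0 ∧ u.2 % 2 = 0 := hu
    rw [if_pos hu', h u hu, sgl_self] at h1
    exact absurd h1 (by decide)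
  · intro w hw
    split_ifs with h2
    · rw [h w h2, sgl_ne hw]
    · rfl

/-- interior edge of `W` -/
def IntE (W : Finset Pt) (e : Pt) : Prop := ∃ s ∈ W, ∃ t ∈ W, nb s t ∧ mid s t = e

theorem IntE_h {W : Finset Pt} (hW : ∀ s ∈ W, Sq s) {x y : ℤ} (hx : x % 2 = 1) (hy : y % 2 = 0) :
    IntE W (x, y) ↔ (x, y + 1) ∈ W ∧ (x, y - 1) ∈ W := by
  constructor
  · rintro ⟨⟨a, b⟩, hs, t, ht, hst, hm⟩
    have hsq := hW _ hs
    unfold Sq at hsq
    simp only at hsq
    unfold mid at hm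
    rcases hst with rfl | rfl | rfl | rfl
    · simp only [Prod.mk.injEq] at hm; omega
    · simp only [Prod.mk.injEq] at hm; omega
    · simp only [Prod.mk.injEq] at hm
      have e1 : (x, y + 1) = (a, b + 2) := by ext <;> simp only <;> omega
      have e2 : (x, y - 1) = (a, b) := by ext <;> simp only <;> omega
      rw [e1, e2]; exact ⟨ht, hs⟩
    · simp only [Prod.mk.injEq] at hm
      have e1 : (x, y + 1) = (a, b) := by ext <;> simp only <;> omega
      have e2 : (x, y - 1) = (a, b - 2) := by ext <;> simp only <;> omega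
      rw [e1, e2]; exact ⟨hs, ht⟩
  · rintro ⟨h1, h2⟩
    refine ⟨_, h2, _, h1, Or.inr (Or.inr (Or.inl (by ext <;> simp only; ring))), ?_⟩
    unfold mid
    ext <;> simp only <;> omega

theorem IntE_v {W : Finset Pt} (hW : ∀ s ∈ W, Sq s) {x y : ℤ} (hx : x % 2 = 0) (hy : y % 2 = 1) :
    IntE W (x, y) ↔ (x + 1, y) ∈ W ∧ (x - 1, y) ∈ W := by
  constructor
  · rintro ⟨⟨a, b⟩, hs, t, ht, hst, hm⟩
    have hsq := hW _ hs
    unfold Sq at hsq
    simp only at hsq
    unfold mid at hm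
    rcases hst with rfl | rfl | rfl | rfl
    · simp only [Prod.mk.injEq] at hm
      have e1 : (x + 1, y) = (a + 2, b) := by ext <;> simp only <;> omega
      have e2 : (x - 1, y) = (a, b) := by ext <;> simp only <;> omega
      rw [e1, e2]; exact ⟨ht, hs⟩
    · simp only [Prod.mk.injEq] at hm
      have e1 : (x + 1, y) = (a, b) := by ext <;> simp only <;> omega
      have e2 : (x - 1, y) = (a - 2, b) := by ext <;> simp only <;> omega
      rw [e1, e2]; exact ⟨hs, ht⟩
    · simp only [Prod.mk.injEq] at hm; omega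
    · simp only [Prod.mk.injEq] at hm; omega
  · rintro ⟨h1, h2⟩
    refine ⟨_, h2, _, h1, Or.inl (by ext <;> simp only; ring), ?_⟩
    unfold mid
    ext <;> simp only <;> omega

/-- if no edge of `c` ends at `v` then all or none of the four squares at `v` lie in `W` -/
theorem not_OnC {W : Finset Pt} {x y : ℤ} (hx : x % 2 = 0) (hy : y % 2 = 0)
    (h : ¬ OnC (bd2 (ind W)) (x, y)) :
    ((x + 1, y + 1) ∈ W ∧ (x + 1, y - 1) ∈ W ∧ (x - 1, y + 1) ∈ W ∧ (x - 1, y - 1) ∈ W) ∨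
    ((x + 1, y + 1) ∉ W ∧ (x + 1, y - 1) ∉ W ∧ (x - 1, y + 1) ∉ W ∧ (x - 1, y - 1) ∉ W) := by
  have hc : bd2 (ind W) (x + 1, y) = 0 ∧ bd2 (ind W) (x - 1, y) = 0 ∧ bd2 (ind W) (x, y + 1) = 0 ∧
      bd2 (ind W) (x, y - 1) = 0 := by
    unfold OnC at h
    simp only at h
    have h' : ¬ (bd2 (ind W) (x + 1, y) ≠ 0 ∨ bd2 (ind W) (x - 1, y) ≠ 0 ∨ bd2 (ind W) (x, y + 1) ≠ 0
      ∨ bd2 (ind W) (x, y - 1) ≠ 0) := fun hh => h ⟨⟨hx, hy⟩, hh⟩
    push Not at h'
    exact h'
  obtain ⟨h1, h2, h3, h4⟩ := hc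
  rw [bd2_eh (by omega) hy] at h1 h2
  rw [bd2_ev hx (by omega)] at h3 h4
  have g1 := zmod2_eq_of_add h1
  have g2 := zmod2_eq_of_add h2
  have g3 := zmod2_eq_of_add h3
  have g4 := zmod2_eq_of_add h4
  have hiff : ∀ s t : Pt, ind W s = ind W t → (s ∈ W ↔ t ∈ W) := by
    intro s t hst
    unfold ind at hst
    by_cases hs : s ∈ W
    · by_cases ht : t ∈ W
      · exact ⟨fun _ => ht, fun _ => hs⟩
      · rw [if_pos hs, if_neg ht] at hst
        exact absurd hst (by decide)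
    · by_cases ht : t ∈ W
      · rw [if_neg hs, if_pos ht] at hst
        exact absurd hst (by decide)
      · exact ⟨fun h => absurd h hs, fun h => absurd h ht⟩
  have k1 := hiff _ _ g1
  have k2 := hiff _ _ g2
  have k3 := hiff _ _ g3
  have k4 := hiff _ _ g4
  by_cases h0 : (x + 1, y + 1) ∈ W
  · left
    exact ⟨h0, k1.1 h0, k3.1 h0, k4.1 (k1.1 h0)⟩
  · right
    refine ⟨h0, fun h => h0 (k1.2 h), fun h => h0 (k3.2 h), fun h => h0 (k1.2 (k4.2 h))⟩

/-- **Step A**: a chain of edges without end point in the interior of `W` is, on the interior edges,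
the boundary of a chain of squares of `W` (`H₁(W, ∂W) = 0`). -/
theorem stepA {W : Finset Pt} (hW : ∀ s ∈ W, Sq s) (hcon : Con W) (hHF : HF W) {γ : Pt → ZMod 2}
    (hfin : {p | γ p ≠ 0}.Finite) (hE : ∀ p, γ p ≠ 0 → Ed p)
    (hV : ∀ x y, x % 2 = 0 → y % 2 = 0 → (x + 1, y + 1) ∈ W → (x + 1, y - 1) ∈ W →
      (x - 1, y + 1) ∈ W → (x - 1, y - 1) ∈ W → bd2 γ (x, y) = 0) :
    ∃ F : Pt → ZMod 2, (∀ p, F p ≠ 0 → p ∈ W) ∧
      ∀ s t, s ∈ W → t ∈ W → nb s t → F s + F t = γ (mid s t) := by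
  classical
  have hWsq : ∀ p, ind W p ≠ 0 → Sq p := fun p hp => hW p (ind_ne hp)
  let γD : Pt → ZMod 2 := fun e => if IntE W e then γ e else 0
  have hγD1 : ∀ e, IntE W e → γD e = γ e := fun e he => if_pos he
  have hγD0 : ∀ e, ¬ IntE W e → γD e = 0 := fun e he => if_neg he
  have hle : ∀ e, γD e ≠ 0 → γ e ≠ 0 := by
    intro e he h0
    apply he
    simp only [γD]
    rw [h0, ite_self]
  have hfinD : {p | γD p ≠ 0}.Finite := hfin.subset hle
  have hfinA : {v | Vx v ∧ bd2 γD v ≠ 0}.Finite := (bd2_finite hfinD).subset (fun v h => h.2)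
  have hA : ∀ v ∈ hfinA.toFinset, OnC (bd2 (ind W)) v := by
    rintro ⟨x, y⟩ hv
    rw [Set.Finite.mem_toFinset] at hv
    obtain ⟨⟨hx, hy⟩, hne⟩ := hv
    simp only at hx hy
    by_contra hcon'
    apply hne
    rcases not_OnC hx hy hcon' with ⟨h1, h2, h3, h4⟩ | ⟨h1, h2, h3, h4⟩
    · have h0 := hV x y hx hy h1 h2 h3 h4
      rw [bd2_vx ⟨hx, hy⟩] at h0 ⊢
      simp only at h0 ⊢
      rw [hγD1 _ ((IntE_h hW (by omega) hy).2 ⟨h1, h2⟩), hγD1 _ ((IntE_h hW (by omega) hy).2 ⟨h3, h4⟩),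
        hγD1 _ ((IntE_v hW hx (by omega)).2 ⟨h1, h3⟩), hγD1 _ ((IntE_v hW hx (by omega)).2 ⟨h2, h4⟩)]
      exact h0
    · rw [bd2_vx ⟨hx, hy⟩]
      simp only
      rw [hγD0 _ (fun h => h1 ((IntE_h hW (by omega) hy).1 h).1),
        hγD0 _ (fun h => h3 ((IntE_h hW (by omega) hy).1 h).1),
        hγD0 _ (fun h => h1 ((IntE_v hW hx (by omega)).1 h).1),
        hγD0 _ (fun h => h2 ((IntE_v hW hx (by omega)).1 h).1)]
      simp
  obtain ⟨β, hβ, hcase⟩ := reduce_c hW hcon hHF hfinA.toFinset hA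
  have hind : ∀ w, Vx w → ind hfinA.toFinset w = bd2 γD w := by
    intro w hw
    by_cases h : bd2 γD w = 0
    · rw [h, ind_not]
      rw [Set.Finite.mem_toFinset]
      exact fun h' => h'.2 h
    · rw [zmod2_ne_zero h, ind_mem]
      rw [Set.Finite.mem_toFinset]
      exact ⟨hw, h⟩
  have hsumfin : {p | (fun q => γD q + β q) p ≠ 0}.Finite := by
    refine (hfinD.union ((bd2_finite (ind_finite W)).subset hβ)).subset ?_
    intro p hp
    by_contra hcon'
    have h1 : γD p = 0 := by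
      by_contra h1
      exact hcon' (Or.inl h1)
    have h2 : β p = 0 := by
      by_contra h2
      exact hcon' (Or.inr h2)
    apply hp
    show γD p + β p = 0
    rw [h1, h2, add_zero]
  have hsumE : ∀ p, (fun q => γD q + β q) p ≠ 0 → Ed p := by
    intro p hp
    by_cases h : γD p = 0
    · by_cases h' : β p = 0
      · exfalso
        apply hp
        show γD p + β p = 0
        rw [h, h', add_zero]
      · exact bd2_ed hWsq (hβ p h')
    · exact hE p (hle p h)
  rcases hcase with h | ⟨u, hu, h⟩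
  · obtain ⟨g, hgf, hgs, hg⟩ := plane_H1 hsumfin hsumE (by
      intro v hv
      rw [bd2_add, ← hind v hv]
      exact h v hv)
    have hβ0 : ∀ s t, Sq s → nb s t → (s ∈ W ↔ t ∈ W) → β (mid s t) = 0 := by
      intro s t hs hst hiff
      by_contra hne
      apply hβ _ hne
      rw [(bd2_mid hs hst).2.2]
      by_cases h : s ∈ W
      · rw [ind_mem h, ind_mem (hiff.1 h), zmod2_self]
      · rw [ind_not h, ind_not (fun h' => h (hiff.2 h')), add_zero]
    have h0 := zero_outside hHF hgf hgs (by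
      intro s t hs hsW htW hst
      rw [hg]
      show γD (mid s t) + β (mid s t) = 0
      rw [hβ0 s t hs hst ⟨fun h => absurd h hsW, fun h => absurd h htW⟩, add_zero]
      apply hγD0
      rintro ⟨s', hs', t', ht', hst', hm⟩
      -- `mid` determines the sides: use the operator on the indicator of `s`
      have e1 := (bd2_mid (hW s' hs') hst').2.2 (sgl s)
      have e2 := (bd2_mid hs hst).2.2 (sgl s)
      have hts : t ≠ s := by
        rintro rfl
        rcases hst with h | h | h | h <;>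
        · have h1 := congrArg Prod.fst h
          have h2 := congrArg Prod.snd h
          simp only at h1 h2
          omega
      rw [hm, e2, sgl_self, sgl_ne hts, add_zero] at e1
      have n1 : s' ≠ s := fun h => hsW (h ▸ hs')
      have n2 : t' ≠ s := fun h => hsW (h ▸ ht')
      rw [sgl_ne n1, sgl_ne n2, add_zero] at e1
      exact absurd e1 (by decide))
    refine ⟨g, ?_, ?_⟩
    · intro p hp
      by_contra hcon'
      exact hp (h0 p hcon')
    · intro s t hs ht hst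
      rw [← (bd2_mid (hW s hs) hst).2.2, hg]
      show γD (mid s t) + β (mid s t) = _
      rw [hβ0 s t (hW s hs) hst ⟨fun _ => ht, fun _ => hs⟩, add_zero]
      exact hγD1 _ ⟨s, hs, t, ht, hst, rfl⟩
  · exfalso
    refine no_single hsumfin hu.1 (fun w hw => ?_)
    rw [bd2_add, ← hind w hw]
    exact h w hw

end Crest.Agent.R096.Lc_451
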