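import Mathlib
import Crest.Agent.R096.Lc4_451

/-!
# R096/Lc5_451 (helper451, row 96, P2-CUBE)

Cubical surfaces in `(ℤ × ℤ) × ℤ` (doubled coordinates): the structure `Surf`, the solid bounded by a
surface, and the two hypotheses of the planar region lemma.
-/

set_option autoImplicit false

namespace Crest.Agent.R096.Lc_451

/-- mod 2 boundary (sum over the cofaces) in dimension 3, doubled coordinates -/
def bd (A : Pt → ℤ → ZMod 2) (p : Pt) (z : ℤ) : ZMod 2 := ext op2 A p z

theorem bd_def (A : Pt → ℤ → ZMod 2) (p : Pt) (z : ℤ) :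
    bd A p z = bd2 (fun q => A q z) p + (if z % 2 = 0 then A p (z + 1) + A p (z - 1) else 0) := rfl

theorem bd_even {A : Pt → ℤ → ZMod 2} {p : Pt} {z : ℤ} (hz : z % 2 = 0) :
    bd A p z = bd2 (fun q => A q z) p + (A p (z + 1) + A p (z - 1)) := by
  rw [bd_def, if_pos hz]

theorem bd_odd {A : Pt → ℤ → ZMod 2} {p : Pt} {z : ℤ} (hz : z % 2 = 1) :
    bd A p z = bd2 (fun q => A q z) p := by
  rw [bd_def, if_neg (by omega), add_zero]

theorem bd_add (A B : Pt → ℤ → ZMod 2) (p : Pt) (z : ℤ) :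
    bd (fun q w => A q w + B q w) p z = bd A p z + bd B p z := by
  rw [bd_def, bd_def, bd_def, bd2_add]
  split_ifs <;> ring

/-- two-dimensional cells -/
def D2 (p : Pt) (z : ℤ) : Prop := (Sq p ∧ z % 2 = 0) ∨ (Ed p ∧ z % 2 = 1)
/-- edges -/
def D1 (p : Pt) (z : ℤ) : Prop := (Ed p ∧ z % 2 = 0) ∨ (Vx p ∧ z % 2 = 1)

/-- `(q, z')` is a coface of `(p, z)` -/
def Cf (p : Pt) (z : ℤ) (q : Pt) (z' : ℤ) : Prop :=
  (p.1 % 2 = 0 ∧ (q = (p.1 + 1, p.2) ∨ q = (p.1 - 1, p.2)) ∧ z' = z) ∨
  (p.2 % 2 = 0 ∧ (q = (p.1, p.2 + 1) ∨ q = (p.1, p.2 - 1)) ∧ z' = z) ∨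
  (z % 2 = 0 ∧ q = p ∧ (z' = z + 1 ∨ z' = z - 1))

/-- the box of radius one around the vertex `(v, z)` -/
def Nr (v : Pt) (z : ℤ) (p : Pt) (z' : ℤ) : Prop :=
  |p.1 - v.1| ≤ 1 ∧ |p.2 - v.2| ≤ 1 ∧ |z' - z| ≤ 1

/-- **cubical Sep-surface**: a finite nonempty closed connected surface made of lattice squares
(doubled coordinates, mod 2 chains), with `0` or `2` squares at every edge (`cl`, `m1`), connected links
(`m2`), and such that every even set of edges bounds. -/
structure Surf (S : Pt → ℤ → ZMod 2) : Prop where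
  fin : {q : Pt × ℤ | S q.1 q.2 ≠ 0}.Finite
  dim : ∀ p z, S p z ≠ 0 → D2 p z
  cl : ∀ p z, D1 p z → bd S p z = 0
  ne : ∃ p z, S p z ≠ 0
  m1 : ∀ p z, D1 p z → ∃ q z', Cf p z q z' ∧ S q z' = 0
  m2 : ∀ v z, Vx v → z % 2 = 0 → ∀ T : Pt → ℤ → ZMod 2, (∀ p z', T p z' ≠ 0 → S p z' ≠ 0) →
    (∀ p z', D1 p z' → Nr v z p z' → bd T p z' = 0) →
    (∀ p z', Nr v z p z' → T p z' = 0) ∨ (∀ p z', Nr v z p z' → T p z' = S p z')
  conn : ∀ T : Pt → ℤ → ZMod 2, (∀ p z, T p z ≠ 0 → S p z ≠ 0) →
    (∀ p z, D1 p z → bd T p z = 0) → (∀ p z, T p z = 0) ∨ (∀ p z, T p z = S p z)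
  sep : ∀ γ : Pt → ℤ → ZMod 2,
    (∀ p z, γ p z ≠ 0 → D1 p z ∧ ∃ q z', Cf p z q z' ∧ S q z' ≠ 0) →
    (∀ p z, Vx p → z % 2 = 0 → bd γ p z = 0) →
    ∃ F : Pt → ℤ → ZMod 2, (∀ p z, F p z ≠ 0 → S p z ≠ 0) ∧ ∀ p z, D1 p z → bd F p z = γ p z

/-- bounded support -/
def Bd3 (N : ℤ) (A : Pt → ℤ → ZMod 2) : Prop := ∀ p z, A p z ≠ 0 → |p.1| ≤ N ∧ |p.2| ≤ N ∧ |z| ≤ N

theorem exists_Bd3 {A : Pt → ℤ → ZMod 2} (h : {q : Pt × ℤ | A q.1 q.2 ≠ 0}.Finite) :
    ∃ N, 0 ≤ N ∧ Bd3 N A := by
  classical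
  refine ⟨∑ s ∈ h.toFinset, (|s.1.1| + |s.1.2| + |s.2|), Finset.sum_nonneg (fun i _ => by positivity), ?_⟩
  intro p z hp
  have h1 : |p.1| + |p.2| + |z| ≤ ∑ s ∈ h.toFinset, (|s.1.1| + |s.1.2| + |s.2|) :=
    Finset.single_le_sum (f := fun s : Pt × ℤ => |s.1.1| + |s.1.2| + |s.2|)
      (fun i _ => by positivity) (h.mem_toFinset.2 (show A (p, z).1 (p, z).2 ≠ 0 from hp))
  have h2 := abs_nonneg p.1
  have h3 := abs_nonneg p.2
  have h4 := abs_nonneg z
  refine ⟨?_, ?_, ?_⟩ <;> linarith

theorem Bd3.finite {N : ℤ} {A : Pt → ℤ → ZMod 2} (h : Bd3 N A) :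
    {q : Pt × ℤ | A q.1 q.2 ≠ 0}.Finite := by
  refine Set.Finite.subset (Finset.finite_toSet
    ((Finset.Icc (-N) N ×ˢ Finset.Icc (-N) N) ×ˢ Finset.Icc (-N) N)) ?_
  rintro ⟨p, z⟩ hp
  obtain ⟨h1, h2, h3⟩ := h p z hp
  rw [abs_le] at h1 h2 h3
  simp only [Finset.coe_product, Finset.coe_Icc, Set.mem_prod, Set.mem_Icc]
  exact ⟨⟨h1, h2⟩, h3⟩

theorem sec_finite {A : Pt → ℤ → ZMod 2} (h : {q : Pt × ℤ | A q.1 q.2 ≠ 0}.Finite) (z : ℤ) :
    {p : Pt | A p z ≠ 0}.Finite := by
  obtain ⟨N, _, hN⟩ := exists_Bd3 h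
  apply Bd.finite (N := N)
  intro p hp
  exact ⟨(hN p z hp).1, (hN p z hp).2.1⟩

theorem bd_dim {A : Pt → ℤ → ZMod 2} (hA : ∀ p z, A p z ≠ 0 → D2 p z) {p : Pt} {z : ℤ}
    (h : bd A p z ≠ 0) : D1 p z := by
  obtain ⟨x, y⟩ := p
  have h0 : ∀ (q : Pt) (w : ℤ), ¬ D2 q w → A q w = 0 := by
    intro q w hq
    by_contra h1
    exact hq (hA q w h1)
  by_contra hD
  apply h
  rw [bd_def]
  unfold bd2
  simp only
  have key : (x % 2 = 1 ∧ y % 2 = 1) ∨ (z % 2 = 1 ∧ ¬ (x % 2 = 0 ∧ y % 2 = 0)) ∨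
      (x % 2 = 0 ∧ y % 2 = 0 ∧ z % 2 = 0) := by
    unfold D1 Ed Vx at hD
    simp only at hD
    omega
  rcases key with ⟨hx, hy⟩ | ⟨hz, hxy⟩ | ⟨hx, hy, hz⟩
  · rw [if_neg (by omega), if_neg (by omega)]
    split_ifs with hz
    · rw [h0 (x, y) (z + 1) (by unfold D2 Sq Ed; simp only; omega),
        h0 (x, y) (z - 1) (by unfold D2 Sq Ed; simp only; omega)]
      simp
    · simp
  · rw [if_neg (by omega : ¬ z % 2 = 0)]
    by_cases hx : x % 2 = 0
    · rw [if_pos hx, if_neg (by omega), h0 (x + 1, y) z (by unfold D2 Sq Ed; simp only; omega),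
        h0 (x - 1, y) z (by unfold D2 Sq Ed; simp only; omega)]
      simp
    · rw [if_neg hx]
      by_cases hy : y % 2 = 0
      · rw [if_pos hy, h0 (x, y + 1) z (by unfold D2 Sq Ed; simp only; omega),
          h0 (x, y - 1) z (by unfold D2 Sq Ed; simp only; omega)]
        simp
      · rw [if_neg hy]
        simp
  · rw [if_pos hx, if_pos hy, if_pos hz, h0 (x + 1, y) z (by unfold D2 Sq Ed; simp only; omega),
      h0 (x - 1, y) z (by unfold D2 Sq Ed; simp only; omega),
      h0 (x, y + 1) z (by unfold D2 Sq Ed; simp only; omega),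
      h0 (x, y - 1) z (by unfold D2 Sq Ed; simp only; omega),
      h0 (x, y) (z + 1) (by unfold D2 Sq Ed; simp only; omega),
      h0 (x, y) (z - 1) (by unfold D2 Sq Ed; simp only; omega)]
    simp

theorem ext2_eq_bd (A : Pt → ℤ → ZMod 2) (p : Pt) (z : ℤ) : ext op2 A p z = bd A p z := rfl

/-- **filling**: a finite closed surface bounds a unique finite solid. -/
theorem exists_fill3 {S : Pt → ℤ → ZMod 2} (hfin : {q : Pt × ℤ | S q.1 q.2 ≠ 0}.Finite)
    (hdim : ∀ p z, S p z ≠ 0 → D2 p z) (hcl : ∀ p z, D1 p z → bd S p z = 0) :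
    ∃ X : Pt → ℤ → ZMod 2, {q : Pt × ℤ | X q.1 q.2 ≠ 0}.Finite ∧
      (∀ p z, X p z ≠ 0 → Sq p ∧ z % 2 = 1) ∧ ∀ p z, bd X p z = S p z := by
  obtain ⟨N, hN0, hN⟩ := exists_Bd3 hfin
  have hA : ∀ p : Pt, ∀ z < -(N + 1), S p z = 0 := by
    intro x z hz
    by_contra h1
    have := (hN _ _ h1).2.2
    rw [abs_le] at this
    omega
  have hcl' : ∀ p z, z % 2 = 0 → ext op2 S p z = 0 := by
    intro p z _
    rw [ext2_eq_bd]
    by_contra h
    exact h (hcl p z (bd_dim hdim h))
  have hXd : ∀ p z, prim (N + 1) S p z ≠ 0 → Sq p ∧ z % 2 = 1 := by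
    intro p z h
    refine ⟨?_, ?_⟩
    · by_contra hp
      apply h
      unfold prim
      split_ifs with h0
      · rfl
      · apply pre_eq_zero
        intro y
        split_ifs with hy
        · by_contra h1
          rcases hdim _ _ h1 with h2 | h2
          · exact hp h2.1
          · omega
        · rfl
    · by_contra hz
      apply h
      unfold prim
      rw [if_pos (by omega)]
  have hbig : ∀ (p : Pt) z, (N < |p.1| ∨ N < |p.2|) → prim (N + 1) S p z = 0 := by
    intro p z hp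
    apply prim_eq_zero_of
    intro y
    by_contra h1
    have := hN _ _ h1
    omega
  refine ⟨prim (N + 1) S, ?_, hXd, fun p z => ext_prim op2 hA hcl' p z⟩
  apply Bd3.finite (N := N + 1)
  intro p z hp
  refine ⟨?_, ?_, ?_⟩
  · by_contra h1
    exact hp (hbig p z (by omega))
  · by_contra h1
    exact hp (hbig p z (by omega))
  · by_contra h1
    apply hp
    rcases lt_abs.1 (not_le.1 h1) with h2 | h2
    · refine prim_top op2 hA hcl' ?_ (z := z) ?_ p
      · intro z hz hop p
        refine top2 (a := fun q => prim (N + 1) S q z) ?_ (fun p hp => (hXd p z hp).1)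
          (fun q _ => hop q) p
        apply Bd.finite (N := N)
        intro q hq
        constructor
        · by_contra h3
          exact hq (hbig q z (by omega))
        · by_contra h3
          exact hq (hbig q z (by omega))
      · intro q
        by_contra h3
        have := (hN _ _ h3).2.2
        rw [abs_le] at this
        omega
    · exact prim_neg (by omega)

/-- finite solid cycles vanish -/
theorem top3 {X : Pt → ℤ → ZMod 2} (hfin : {q : Pt × ℤ | X q.1 q.2 ≠ 0}.Finite)
    (hsq : ∀ p z, X p z ≠ 0 → Sq p ∧ z % 2 = 1) (h : ∀ p z, bd X p z = 0) (p : Pt) (z : ℤ) :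
    X p z = 0 := by
  obtain ⟨N, hN0, hN⟩ := exists_Bd3 hfin
  refine top_ext op2 (A := X) (fun p z hz => ?_) (fun p z _ => h p z) (z0 := N) (fun z hz => ?_) z
  · by_contra h1
    have := (hsq p z h1).2
    omega
  · by_contra h1
    have := (hN p z h1).2.2
    rw [abs_le] at this
    omega

/-- a layer of cubes -/
def layer (A : Finset Pt) (z : ℤ) (p : Pt) (z' : ℤ) : ZMod 2 := if z' = z ∧ p ∈ A then 1 else 0

theorem layer_ne {A : Finset Pt} {z : ℤ} {p : Pt} {z' : ℤ} (h : layer A z p z' ≠ 0) :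
    z' = z ∧ p ∈ A := by
  by_contra h'
  exact h (if_neg h')

theorem layer_eq (A : Finset Pt) (z : ℤ) : (fun q => layer A z q z) = ind A := by
  funext q
  unfold layer ind
  by_cases h : q ∈ A
  · rw [if_pos h, if_pos ⟨rfl, h⟩]
  · rw [if_neg h, if_neg (fun h' => h h'.2)]

theorem layer_other (A : Finset Pt) {z z' : ℤ} (h : z' ≠ z) : (fun q => layer A z q z') = fun _ => 0 := by
  funext q
  exact if_neg (fun h' => h h'.1)

theorem layer_finite (A : Finset Pt) (z : ℤ) : {q : Pt × ℤ | layer A z q.1 q.2 ≠ 0}.Finite := by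
  classical
  refine ((A ×ˢ {z}).finite_toSet).subset ?_
  rintro ⟨p, w⟩ hp
  obtain ⟨h1, h2⟩ := layer_ne hp
  simp only [Finset.coe_product, Finset.coe_singleton, Set.mem_prod, Set.mem_singleton_iff]
  exact ⟨h2, h1⟩

theorem sum_finite {A B : Pt → ℤ → ZMod 2} (hA : {q : Pt × ℤ | A q.1 q.2 ≠ 0}.Finite)
    (hB : {q : Pt × ℤ | B q.1 q.2 ≠ 0}.Finite) :
    {q : Pt × ℤ | (fun p z => A p z + B p z) q.1 q.2 ≠ 0}.Finite := by
  refine (hA.union hB).subset ?_
  intro q hq
  by_contra hcon'
  have h1 : A q.1 q.2 = 0 := by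
    by_contra h1
    exact hcon' (Or.inl h1)
  have h2 : B q.1 q.2 = 0 := by
    by_contra h2
    exact hcon' (Or.inr h2)
  apply hq
  show A q.1 q.2 + B q.1 q.2 = 0
  rw [h1, h2, add_zero]

theorem bd2_bd2' (B : Pt → ZMod 2) (p : Pt) : bd2 (bd2 B) p = 0 := by
  by_cases h1 : p.1 % 2 = 0
  · by_cases h2 : p.2 % 2 = 0
    · exact bd2_bd2 ⟨h1, h2⟩
    · obtain ⟨x, y⟩ := p
      simp only at h1 h2
      rw [bd2_ev h1 (by omega)]
      unfold bd2
      simp only
      rw [if_neg (by omega), if_neg (by omega), if_neg (by omega), if_neg (by omega)]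
      simp
  · by_cases h2 : p.2 % 2 = 0
    · obtain ⟨x, y⟩ := p
      simp only at h1 h2
      rw [bd2_eh (by omega) h2]
      unfold bd2
      simp only
      rw [if_neg (by omega), if_neg (by omega), if_neg (by omega), if_neg (by omega)]
      simp
    · rw [show bd2 (bd2 B) p = _ from rfl]
      unfold bd2
      rw [if_neg h1, if_neg h2, add_zero]

theorem bd_bd (A : Pt → ℤ → ZMod 2) (p : Pt) (z : ℤ) : bd (bd A) p z = 0 := by
  by_cases hz : z % 2 = 0
  · rw [bd_even hz, bd_odd (z := z + 1) (by omega), bd_odd (z := z - 1) (by omega)]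
    have e : (fun q => bd A q z) = fun q => bd2 (fun q => A q z) q + (A q (z + 1) + A q (z - 1)) := by
      funext q
      exact bd_even hz
    rw [e, bd2_add, bd2_add, bd2_bd2']
    have h1 := zmod2_self (bd2 (fun q => A q (z + 1)) p)
    have h2 := zmod2_self (bd2 (fun q => A q (z - 1)) p)
    linear_combination h1 + h2
  · rw [bd_odd (by omega)]
    have e : (fun q => bd A q z) = bd2 (fun q => A q z) := by
      funext q
      exact bd_odd (by omega)
    rw [e, bd2_bd2']

section solid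

variable {S X : Pt → ℤ → ZMod 2} (hS : Surf S) (hXf : {q : Pt × ℤ | X q.1 q.2 ≠ 0}.Finite)
  (hXd : ∀ p z, X p z ≠ 0 → Sq p ∧ z % 2 = 1) (hX : ∀ p z, bd X p z = S p z)

include hX in
/-- horizontal squares -/
theorem S_hor {s : Pt} (hs : Sq s) {z : ℤ} (hz : z % 2 = 0) : S s z = X s (z + 1) + X s (z - 1) := by
  rw [← hX, bd_even hz]
  unfold bd2
  rw [if_neg (by have := hs.1; omega), if_neg (by have := hs.2; omega)]
  ring

include hX in
/-- vertical squares -/
theorem S_ver {s t : Pt} (hs : Sq s) (hst : nb s t) {z : ℤ} (hz : z % 2 = 1) :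
    S (mid s t) z = X s z + X t z := by
  rw [← hX, bd_odd hz, (bd2_mid hs hst).2.2]

include hXd in
theorem X_even {p : Pt} {z : ℤ} (hz : z % 2 = 0) : X p z = 0 := by
  by_contra h
  have := (hXd p z h).2
  omega

include hXd in
theorem X_nsq {p : Pt} {z : ℤ} (hp : ¬ Sq p) : X p z = 0 := by
  by_contra h
  exact hp (hXd p z h).1

include hS hXd hX in
theorem hyp_m1 : ∀ (h : ℤ) (s t : Pt), nb s t → X s (h - 1) ≠ X s (h + 1) →
    X t (h - 1) ≠ X t (h + 1) → X s (h + 1) = X t (h + 1) := by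
  intro h s t hst hs ht
  by_contra hne
  have hh : h % 2 = 0 := by
    by_contra hh
    apply hs
    rw [X_even hXd (by omega), X_even hXd (by omega)]
  have hsq : Sq s := by
    by_contra hsq
    apply hs
    rw [X_nsq hXd hsq, X_nsq hXd hsq]
  obtain ⟨hed, htq, hb⟩ := bd2_mid hsq hst
  -- all four cofaces
  have e1 : S s h ≠ 0 := by
    rw [S_hor hX hsq hh]
    intro h0
    exact hs (zmod2_eq_of_add h0).symm
  have e2 : S t h ≠ 0 := by
    rw [S_hor hX htq hh]
    intro h0
    exact ht (zmod2_eq_of_add h0).symm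
  have e3 : S (mid s t) (h + 1) ≠ 0 := by
    rw [S_ver hX hsq hst (by omega)]
    intro h0
    exact hne (zmod2_eq_of_add h0)
  have e4 : S (mid s t) (h - 1) ≠ 0 := by
    rw [S_ver hX hsq hst (by omega)]
    intro h0
    have h1 := zmod2_eq_of_add h0
    rw [zmod2_ne hs, zmod2_ne ht] at h1
    exact hne (add_right_cancel h1)
  obtain ⟨q, z', hc, h0⟩ := hS.m1 (mid s t) h (Or.inl ⟨hed, hh⟩)
  -- the horizontal cofaces of the edge are `s`, `t`
  have hcof : ∀ a : Pt, bd2 (sgl a) (mid s t) = sgl a s + sgl a t := fun a => hb (sgl a)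
  have hq : q = mid s t ∨ ((q = s ∨ q = t) ∧ z' = h) := by
    rcases hc with ⟨hp, hq, hz⟩ | ⟨hp, hq, hz⟩ | ⟨hp, hq, hz⟩
    · right
      refine ⟨?_, hz⟩
      have hp2 : (mid s t).2 % 2 = 1 := by
        rcases hed with h | h
        · exact h.2
        · omega
      have h1 : bd2 (sgl q) (mid s t) = 1 := by
        unfold bd2
        rw [if_pos hp, if_neg (by omega), add_zero]
        rcases hq with rfl | rfl
        · rw [sgl_self, sgl_ne, add_zero]
          intro h; have := congrArg Prod.fst h; simp only at this; omega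
        · rw [sgl_self, sgl_ne, zero_add]
          intro h; have := congrArg Prod.fst h; simp only at this; omega
      rw [hcof] at h1
      by_contra hcon
      push Not at hcon
      rw [sgl_ne hcon.1.symm, sgl_ne hcon.2.symm, add_zero] at h1
      exact absurd h1 (by decide)
    · right
      refine ⟨?_, hz⟩
      have hp2 : (mid s t).1 % 2 = 1 := by
        rcases hed with h | h
        · omega
        · exact h.1
      have h1 : bd2 (sgl q) (mid s t) = 1 := by
        unfold bd2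
        rw [if_neg (by omega), if_pos hp, zero_add]
        rcases hq with rfl | rfl
        · rw [sgl_self, sgl_ne, add_zero]
          intro h; have := congrArg Prod.snd h; simp only at this; omega
        · rw [sgl_self, sgl_ne, zero_add]
          intro h; have := congrArg Prod.snd h; simp only at this; omega
      rw [hcof] at h1
      by_contra hcon
      push Not at hcon
      rw [sgl_ne hcon.1.symm, sgl_ne hcon.2.symm, add_zero] at h1
      exact absurd h1 (by decide)
    · exact Or.inl hq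
  rcases hq with hq | ⟨hq, hz⟩
  · -- vertical coface: its height is odd
    have hz' : z' = h + 1 ∨ z' = h - 1 := by
      rcases hc with ⟨hp, hq', hz⟩ | ⟨hp, hq', hz⟩ | ⟨_, _, hz⟩
      · exfalso
        rw [hq] at hq'
        rcases hq' with h5 | h5
        · have := congrArg Prod.fst h5; simp only at this; omega
        · have := congrArg Prod.fst h5; simp only at this; omega
      · exfalso
        rw [hq] at hq'
        rcases hq' with h5 | h5
        · have := congrArg Prod.snd h5; simp only at this; omega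
        · have := congrArg Prod.snd h5; simp only at this; omega
      · exact hz
    rw [hq] at h0
    rcases hz' with h6 | h6
    · rw [h6] at h0; exact e3 h0
    · rw [h6] at h0; exact e4 h0
  · rw [hz] at h0
    rcases hq with h5 | h5
    · rw [h5] at h0; exact e1 h0
    · rw [h5] at h0; exact e2 h0

include hS hXf hXd hX in
theorem hyp_c : ∀ (z : ℤ) (a : ZMod 2) (Q : Finset Pt), Q.Nonempty →
      (∀ s ∈ Q, X s z = a ∧ X s (z + 2) = a + 1 ∧ X s (z - 2) = a + 1) →
      (∀ s ∈ Q, ∀ t, t ∉ Q → nb s t → X t z = a + 1) →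
      a = 1 ∧ ∀ s z', X s z' = 1 ↔ (z' = z ∧ s ∈ Q) := by
  intro z a Q ⟨s0, hs0⟩ hQ1 hQ2
  have hz : z % 2 = 1 := by
    by_contra hz
    have h1 := (hQ1 s0 hs0).1
    have h2 := (hQ1 s0 hs0).2.1
    rw [X_even hXd (by omega)] at h1 h2
    rw [← h1] at h2
    exact absurd h2 (by decide)
  have hsq : ∀ s ∈ Q, Sq s := by
    intro s hs
    by_contra hsq
    have h1 := (hQ1 s hs).1
    have h2 := (hQ1 s hs).2.1
    rw [X_nsq hXd hsq] at h1 h2
    rw [← h1] at h2
    exact absurd h2 (by decide)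
  have haa : a + (a + 1) = 1 := by
    rw [← add_assoc, zmod2_self, zero_add]
  have hTle : ∀ p w, bd (layer Q z) p w ≠ 0 → S p w ≠ 0 := by
    intro p w hne
    by_cases hw : w % 2 = 0
    · rw [bd_even hw, layer_other Q (show w ≠ z by intro h; omega), bd2_zero, zero_add] at hne
      by_cases h1 : layer Q z p (w + 1) = 0
      · rw [h1, zero_add] at hne
        obtain ⟨h2, h3⟩ := layer_ne hne
        rw [S_hor hX (hsq p h3) hw, show w + 1 = z + 2 by omega, show w - 1 = z by omega,
          (hQ1 p h3).1, (hQ1 p h3).2.1, add_comm, haa]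
        decide
      · obtain ⟨h2, h3⟩ := layer_ne h1
        rw [S_hor hX (hsq p h3) hw, show w + 1 = z by omega, show w - 1 = z - 2 by omega,
          (hQ1 p h3).1, (hQ1 p h3).2.2, haa]
        decide
    · have hwz : w = z := by
        by_contra hwz
        rw [bd_odd (by omega), layer_other Q hwz, bd2_zero] at hne
        exact hne rfl
      subst hwz
      rw [bd_odd hz, layer_eq] at hne
      have hed := bd2_ed (fun p hp => hsq p (ind_ne hp)) hne
      obtain ⟨s, t, hs, ht, hst, hm, hb⟩ := sides hed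
      rw [hb] at hne
      rw [← hm, S_ver hX hs hst hz]
      by_cases h1 : s ∈ Q
      · have h2 : t ∉ Q := by
          intro h2
          rw [ind_mem h1, ind_mem h2] at hne
          exact hne (by decide)
        rw [(hQ1 s h1).1, hQ2 s h1 t h2 hst, haa]
        decide
      · have h2 : t ∈ Q := by
          by_contra h2
          rw [ind_not h1, ind_not h2] at hne
          exact hne (by decide)
        rw [(hQ1 t h2).1, hQ2 t h2 s h1 hst.symm, add_comm, haa]
        decide
  rcases hS.conn (bd (layer Q z)) hTle (fun p w _ => bd_bd _ p w) with h | h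
  · exfalso
    have h1 := h s0 (z + 1)
    rw [bd_even (by omega), layer_other Q (show z + 1 ≠ z by omega), bd2_zero, zero_add] at h1
    unfold layer at h1
    rw [if_neg (by omega), if_pos ⟨by omega, hs0⟩] at h1
    exact absurd h1 (by decide)
  · have hX' : ∀ p w, X p w + layer Q z p w = 0 := by
      intro p w
      refine top3 (X := fun p w => X p w + layer Q z p w) (sum_finite hXf (layer_finite Q z)) ?_ ?_ p w
      · intro p w hne
        by_cases h1 : X p w = 0
        · have h2 : layer Q z p w ≠ 0 := by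
            intro h2
            apply hne
            show X p w + layer Q z p w = 0
            rw [h1, h2, add_zero]
          obtain ⟨h3, h4⟩ := layer_ne h2
          exact ⟨hsq p h4, by omega⟩
        · exact hXd p w h1
      · intro p w
        rw [bd_add, hX, ← h, zmod2_self]
    have hXe : ∀ p w, X p w = layer Q z p w := fun p w => zmod2_eq_of_add (hX' p w)
    refine ⟨?_, ?_⟩
    · rw [← (hQ1 s0 hs0).1, hXe]
      exact if_pos ⟨rfl, hs0⟩
    · intro s z'
      rw [hXe]
      unfold layer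
      constructor
      · intro h
        by_contra h'
        rw [if_neg h'] at h
        exact absurd h (by decide)
      · intro h
        exact if_pos h

end solid

end Crest.Agent.R096.Lc_451
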