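import Crest.Agent.R096.Ax7_914
import Crest.Agent.R096.Lc5_451

/-!
# A two-sided cubical surface is a `Surf` (helper914, row 96, P2-AXIS, part 8)
-/

set_option autoImplicit false
set_option linter.unusedSectionVars false
set_option linter.unusedSimpArgs false

namespace Crest.Agent.R096.Ax_914

open Set Metric Function Topology Filter Crest.Agent.R096.Coh_184
open Crest.Agent.R096.Lc_451 (Pt bd bd2 bd_even bd_odd Vx Sq Ed D1 D2 Cf Nr Surf)

variable {Q : Finset (Fin 3 → ℤ)}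

/-- the mod 2 chain of `Q` in 451's format -/
noncomputable def chn (Q : Finset (Fin 3 → ℤ)) (p : Pt) (z : ℤ) : ZMod 2 := ind Q p.1 p.2 z

theorem chn_ne {p : Pt} {z : ℤ} : chn Q p z ≠ 0 ↔ ![p.1, p.2, z] ∈ Q := by
  unfold chn
  rw [Ne, ind_eq_zero, not_not]

theorem bd_x {T : Pt → ℤ → ZMod 2} {x y z : ℤ} (hx : x % 2 = 1) (hy : y % 2 = 0)
    (hz : z % 2 = 0) : bd T (x, y) z = sx (fun a b c => T (a, b) c) x y z := by
  rw [bd_even hz]
  simp only [bd2, hx, hy, if_true, sx]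
  norm_num
  ring

theorem bd_y {T : Pt → ℤ → ZMod 2} {x y z : ℤ} (hx : x % 2 = 0) (hy : y % 2 = 1)
    (hz : z % 2 = 0) : bd T (x, y) z = sy (fun a b c => T (a, b) c) x y z := by
  rw [bd_even hz]
  simp only [bd2, hx, hy, if_true, sy]
  norm_num
  ring

theorem bd_z {T : Pt → ℤ → ZMod 2} {x y z : ℤ} (hx : x % 2 = 0) (hy : y % 2 = 0)
    (hz : z % 2 = 1) : bd T (x, y) z = sz (fun a b c => T (a, b) c) x y z := by
  rw [bd_odd hz]
  simp only [bd2, hx, hy, if_true, sz]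
  ring

/-- edges in the three directions -/
theorem D1.cases {p : Pt} {z : ℤ} (h : D1 p z) :
    (p.1 % 2 = 1 ∧ p.2 % 2 = 0 ∧ z % 2 = 0) ∨ (p.1 % 2 = 0 ∧ p.2 % 2 = 1 ∧ z % 2 = 0) ∨
      (p.1 % 2 = 0 ∧ p.2 % 2 = 0 ∧ z % 2 = 1) := by
  rcases h with ⟨h1 | h1, h2⟩ | ⟨h1, h2⟩
  · exact Or.inr (Or.inl ⟨h1.1, h1.2, h2⟩)
  · exact Or.inl ⟨h1.1, h1.2, h2⟩
  · exact Or.inr (Or.inr ⟨h1.1, h1.2, h2⟩)

theorem Cod2.D1 {e : Fin 3 → ℤ} {i j : Fin 3} (h : Cod2 e i j) : D1 (e 0, e 1) (e 2) := by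
  obtain ⟨h1, h2, h3, h4⟩ := h
  unfold Lc_451.D1 Ed Vx
  fin_cases i <;> fin_cases j
  · exact absurd rfl h1
  · exact Or.inr ⟨⟨h2, h3⟩, h4 2 (by decide) (by decide)⟩
  · exact Or.inl ⟨Or.inl ⟨h2, h4 1 (by decide) (by decide)⟩, h3⟩
  · exact Or.inr ⟨⟨h3, h2⟩, h4 2 (by decide) (by decide)⟩
  · exact absurd rfl h1
  · exact Or.inl ⟨Or.inr ⟨h4 0 (by decide) (by decide), h2⟩, h3⟩
  · exact Or.inl ⟨Or.inl ⟨h3, h4 1 (by decide) (by decide)⟩, h2⟩
  · exact Or.inl ⟨Or.inr ⟨h4 0 (by decide) (by decide), h3⟩, h2⟩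
  · exact absurd rfl h1

theorem D2_of_cod1 {p : Pt} {z : ℤ} (h : ∃ i, Cod1 ![p.1, p.2, z] i) : D2 p z := by
  obtain ⟨i, h1, h2⟩ := h
  unfold Lc_451.D2 Sq Ed
  fin_cases i
  · exact Or.inr ⟨Or.inl ⟨h1, h2 1 (by decide)⟩, h2 2 (by decide)⟩
  · exact Or.inr ⟨Or.inr ⟨h2 0 (by decide), h1⟩, h2 2 (by decide)⟩
  · exact Or.inl ⟨⟨h2 0 (by decide), h2 1 (by decide)⟩, h1⟩

theorem nr_cof {v : Pt} {z : ℤ} (hv : Vx v) (hz : z % 2 = 0) {p : Pt} {z' : ℤ}
    (h : Nr v z p z') : Cof ![v.1, v.2, z] ![p.1, p.2, z'] := by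
  obtain ⟨h1, h2, h3⟩ := h
  rw [abs_le] at h1 h2 h3
  intro i
  fin_cases i
  · show p.1 = v.1 ∨ (v.1 % 2 = 0 ∧ (p.1 = v.1 + 1 ∨ p.1 = v.1 - 1))
    have := hv.1
    omega
  · show p.2 = v.2 ∨ (v.2 % 2 = 0 ∧ (p.2 = v.2 + 1 ∨ p.2 = v.2 - 1))
    have := hv.2
    omega
  · show z' = z ∨ (z % 2 = 0 ∧ (z' = z + 1 ∨ z' = z - 1))
    omega

/-- an edge coface of an edge is given by `Cf` -/
theorem cf_of_cof {e s : Fin 3 → ℤ} {i j l : Fin 3} (he : Cod2 e i j) (hs : Cod1 s l)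
    (hes : Cof e s) : Cf (e 0, e 1) (e 2) (s 0, s 1) (s 2) := by
  obtain ⟨h1, h2, h3, h4⟩ := he
  have key : ∀ m : Fin 3, e m % 2 = 0 → ∀ x : ℤ, (x = 1 ∨ x = -1) → s = update e m (e m + x) →
      Cf (e 0, e 1) (e 2) (s 0, s 1) (s 2) := by
    intro m hm x hx hsm
    unfold Lc_451.Cf
    fin_cases m
    · left
      subst hsm
      refine ⟨hm, ?_, rfl⟩
      rcases hx with rfl | rfl
      · exact Or.inl rfl
      · right; simp only [Fin.zero_eta, upd0]; rfl
    · right; left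
      subst hsm
      refine ⟨hm, ?_, rfl⟩
      rcases hx with rfl | rfl
      · exact Or.inl rfl
      · right; simp only [Fin.mk_one, upd1]; rfl
    · right; right
      subst hsm
      refine ⟨hm, rfl, ?_⟩
      rcases hx with rfl | rfl
      · exact Or.inl rfl
      · right; simp only [Fin.reduceFinMk, upd2]; rfl
  rcases Cod2.eq_cof ⟨h1, h2, h3, h4⟩ hs hes with ⟨_, x, hx, h⟩ | ⟨_, x, hx, h⟩
  · exact key i h2 x hx h
  · exact key j h3 x hx h

theorem vertex_bd {γ : Pt → ℤ → ZMod 2} {a b c : ℤ} (ha : a % 2 = 0) (hb : b % 2 = 0)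
    (hc : c % 2 = 0) : bd γ (a, b) c =
      γ (a + 1, b) c + γ (a - 1, b) c + γ (a, b + 1) c + γ (a, b - 1) c +
      γ (a, b) (c + 1) + γ (a, b) (c - 1) := by
  rw [bd_even hc]
  simp only [bd2, ha, hb, if_true]
  ring

/-- **AX2**: the chain of a connected two-sided cubical surface with trivial torsors is a
`Surf` in the sense of 451 -/
theorem surf_of (hQ : ∀ c ∈ Q, ∃ i, Cod1 c i) (hS : ∀ x ∈ car Q, TwoSidedAt (car Q) x)
    (hne : Q.Nonempty) (hcon : IsPreconnected (car Q))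
    (htriv : ∀ n, TrivAll (Fin n) (ZMod 2) (car Q)) : Surf (chn Q) := by
  classical
  have supp : ∀ T : Pt → ℤ → ZMod 2, (∀ p z, T p z ≠ 0 → chn Q p z ≠ 0) →
      ∀ s : Fin 3 → ℤ, (fun a b c => T (a, b) c) (s 0) (s 1) (s 2) ≠ 0 → s ∈ Q := by
    intro T hT s hs
    have := chn_ne.1 (hT _ _ hs)
    rwa [vec_eta] at this
  refine ⟨?_, ?_, ?_, ?_, ?_, ?_, ?_, ?_⟩
  · refine (Q.finite_toSet.image fun c : Fin 3 → ℤ => ((c 0, c 1), c 2)).subset ?_
    rintro ⟨⟨x, y⟩, z⟩ h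
    exact ⟨![x, y, z], chn_ne.1 h, rfl⟩
  · intro p z h
    exact D2_of_cod1 (hQ _ (chn_ne.1 h))
  · rintro ⟨x, y⟩ z h
    rcases D1.cases h with ⟨h1, h2, h3⟩ | ⟨h1, h2, h3⟩ | ⟨h1, h2, h3⟩
    · rw [bd_x h1 h2 h3]; exact (ind_edge_x hQ hS h1 h2 h3).1
    · rw [bd_y h1 h2 h3]; exact (ind_edge_y hQ hS h1 h2 h3).1
    · rw [bd_z h1 h2 h3]; exact (ind_edge_z hQ hS h1 h2 h3).1
  · obtain ⟨c, hc⟩ := hne
    refine ⟨(c 0, c 1), c 2, chn_ne.2 ?_⟩
    show ![c 0, c 1, c 2] ∈ Q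
    rwa [vec_eta]
  · rintro ⟨x, y⟩ z h
    rcases D1.cases h with ⟨h1, h2, h3⟩ | ⟨h1, h2, h3⟩ | ⟨h1, h2, h3⟩
    · have := (ind_edge_x hQ hS h1 h2 h3).2
      by_contra hcon
      push Not at hcon
      refine this ⟨?_, ?_, ?_, ?_⟩
      · exact chn_ne.1 (hcon (x, y + 1) z (Or.inr (Or.inl ⟨h2, Or.inl rfl, rfl⟩)))
      · exact chn_ne.1 (hcon (x, y - 1) z (Or.inr (Or.inl ⟨h2, Or.inr rfl, rfl⟩)))
      · exact chn_ne.1 (hcon (x, y) (z + 1) (Or.inr (Or.inr ⟨h3, rfl, Or.inl rfl⟩)))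
      · exact chn_ne.1 (hcon (x, y) (z - 1) (Or.inr (Or.inr ⟨h3, rfl, Or.inr rfl⟩)))
    · have := (ind_edge_y hQ hS h1 h2 h3).2
      by_contra hcon
      push Not at hcon
      refine this ⟨?_, ?_, ?_, ?_⟩
      · exact chn_ne.1 (hcon (x + 1, y) z (Or.inl ⟨h1, Or.inl rfl, rfl⟩))
      · exact chn_ne.1 (hcon (x - 1, y) z (Or.inl ⟨h1, Or.inr rfl, rfl⟩))
      · exact chn_ne.1 (hcon (x, y) (z + 1) (Or.inr (Or.inr ⟨h3, rfl, Or.inl rfl⟩)))
      · exact chn_ne.1 (hcon (x, y) (z - 1) (Or.inr (Or.inr ⟨h3, rfl, Or.inr rfl⟩)))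
    · have := (ind_edge_z hQ hS h1 h2 h3).2
      by_contra hcon
      push Not at hcon
      refine this ⟨?_, ?_, ?_, ?_⟩
      · exact chn_ne.1 (hcon (x + 1, y) z (Or.inl ⟨h1, Or.inl rfl, rfl⟩))
      · exact chn_ne.1 (hcon (x - 1, y) z (Or.inl ⟨h1, Or.inr rfl, rfl⟩))
      · exact chn_ne.1 (hcon (x, y + 1) z (Or.inr (Or.inl ⟨h2, Or.inl rfl, rfl⟩)))
      · exact chn_ne.1 (hcon (x, y - 1) z (Or.inr (Or.inl ⟨h2, Or.inr rfl, rfl⟩)))
  · rintro ⟨a, b⟩ c hv hc T hT hcl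
    have ha : a % 2 = 0 := hv.1
    have hb : b % 2 = 0 := hv.2
    have hclosed : ClosedAt (fun a b c => T (a, b) c) a b c := by
      intro s hs
      refine ⟨?_, ?_, ?_⟩
      · have h1 : (a + s) % 2 = 1 := by omega
        have := hcl (a + s, b) c (Or.inl ⟨Or.inr ⟨h1, hb⟩, hc⟩)
          ⟨by rcases hs with rfl | rfl <;> simp, by simp, by simp⟩
        rwa [bd_x h1 hb hc] at this
      · have h1 : (b + s) % 2 = 1 := by omega
        have := hcl (a, b + s) c (Or.inl ⟨Or.inl ⟨ha, h1⟩, hc⟩)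
          ⟨by simp, by rcases hs with rfl | rfl <;> simp, by simp⟩
        rwa [bd_y ha h1 hc] at this
      · have h1 : (c + s) % 2 = 1 := by omega
        have := hcl (a, b) (c + s) (Or.inr ⟨⟨ha, hb⟩, h1⟩)
          ⟨by simp, by simp, by rcases hs with rfl | rfl <;> simp⟩
        rwa [bd_z ha hb h1] at this
    have hd : ∀ j, (![a, b, c] : Fin 3 → ℤ) j % 2 = 0 := by
      intro j; fin_cases j
      · exact ha
      · exact hb
      · exact hc
    rcases vertex_link hQ hS hd (supp T hT) hclosed with h | h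
    · left
      intro p z' hn
      by_contra hne
      obtain ⟨i, hi⟩ := hQ _ (chn_ne.1 (hT _ _ hne))
      exact hne (h _ i hi (nr_cof hv hc hn))
    · right
      intro p z' hn
      by_cases hm : ![p.1, p.2, z'] ∈ Q
      · obtain ⟨i, hi⟩ := hQ _ hm
        exact h _ i hi (nr_cof hv hc hn)
      · have h1 : chn Q p z' = 0 := by
          by_contra h2; exact hm (chn_ne.1 h2)
        rw [h1]
        by_contra h2
        exact hT _ _ h2 h1
  · intro T hT hcl
    have hclosed : ∀ a b c : ℤ, a % 2 = 0 → b % 2 = 0 → c % 2 = 0 →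
        ClosedAt (fun a b c => T (a, b) c) a b c := by
      intro a b c ha hb hc s hs
      refine ⟨?_, ?_, ?_⟩
      · have h1 : (a + s) % 2 = 1 := by omega
        have := hcl (a + s, b) c (Or.inl ⟨Or.inr ⟨h1, hb⟩, hc⟩)
        rwa [bd_x h1 hb hc] at this
      · have h1 : (b + s) % 2 = 1 := by omega
        have := hcl (a, b + s) c (Or.inl ⟨Or.inl ⟨ha, h1⟩, hc⟩)
        rwa [bd_y ha h1 hc] at this
      · have h1 : (c + s) % 2 = 1 := by omega
        have := hcl (a, b) (c + s) (Or.inr ⟨⟨ha, hb⟩, h1⟩)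
        rwa [bd_z ha hb h1] at this
    rcases conn_of hQ hS hcon (supp T hT) hclosed with h | h
    · exact Or.inl fun p z => h p.1 p.2 z
    · exact Or.inr fun p z => h p.1 p.2 z
  · intro γ hγ hev
    obtain ⟨F, hF0, hF⟩ := sep_of hQ hS htriv (γ := fun a b c => γ (a, b) c)
      (fun e i j he h => by
        by_contra hne
        obtain ⟨_, q, z', hcf, hq⟩ := hγ _ _ hne
        refine h ![q.1, q.2, z'] (chn_ne.1 hq) ?_
        intro k
        rcases hcf with ⟨h1, h2, h3⟩ | ⟨h1, h2, h3⟩ | ⟨h1, h2, h3⟩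
        · fin_cases k
          · right
            refine ⟨h1, ?_⟩
            rcases h2 with h2 | h2
            · exact Or.inl (congrArg Prod.fst h2)
            · exact Or.inr (congrArg Prod.fst h2)
          · left
            rcases h2 with h2 | h2
            · exact congrArg Prod.snd h2
            · exact congrArg Prod.snd h2
          · exact Or.inl h3
        · fin_cases k
          · left
            rcases h2 with h2 | h2
            · exact congrArg Prod.fst h2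
            · exact congrArg Prod.fst h2
          · right
            refine ⟨h1, ?_⟩
            rcases h2 with h2 | h2
            · exact Or.inl (congrArg Prod.snd h2)
            · exact Or.inr (congrArg Prod.snd h2)
          · exact Or.inl h3
        · fin_cases k
          · exact Or.inl (congrArg Prod.fst h2)
          · exact Or.inl (congrArg Prod.snd h2)
          · exact Or.inr ⟨h1, h3⟩)
      (fun a b c ha hb hc => by
        have := hev (a, b) c ⟨ha, hb⟩ hc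
        rwa [vertex_bd ha hb hc] at this)
    refine ⟨fun p z => F ![p.1, p.2, z], fun p z h => ?_, ?_⟩
    · rw [chn_ne]
      by_contra hm
      exact h (hF0 _ hm)
    · rintro ⟨x, y⟩ z h
      rcases D1.cases h with ⟨h1, h2, h3⟩ | ⟨h1, h2, h3⟩ | ⟨h1, h2, h3⟩
      · rw [bd_x h1 h2 h3]
        have hc : Cod2 ![x, y, z] 1 2 := by
          refine ⟨by decide, h2, h3, fun k k1 k2 => ?_⟩
          fin_cases k
          · exact h1
          · exact absurd rfl k1
          · exact absurd rfl k2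
        have := hF _ _ _ hc
        simp only [cosum, upd1, upd2, ← sub_eq_add_neg] at this
        exact this
      · rw [bd_y h1 h2 h3]
        have hc : Cod2 ![x, y, z] 0 2 := by
          refine ⟨by decide, h1, h3, fun k k1 k2 => ?_⟩
          fin_cases k
          · exact absurd rfl k1
          · exact h2
          · exact absurd rfl k2
        have := hF _ _ _ hc
        simp only [cosum, upd0, upd2, ← sub_eq_add_neg] at this
        exact this
      · rw [bd_z h1 h2 h3]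
        have hc : Cod2 ![x, y, z] 0 1 := by
          refine ⟨by decide, h1, h2, fun k k1 k2 => ?_⟩
          fin_cases k
          · exact absurd rfl k1
          · exact absurd rfl k2
          · exact h3
        have := hF _ _ _ hc
        simp only [cosum, upd0, upd1, ← sub_eq_add_neg] at this
        exact this

end Crest.Agent.R096.Ax_914
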