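import Crest.Agent.R096.Ax8_914

/-!
# Finite unions of axis-parallel rectangles (helper914, row 96, P2-AXIS, part 9)

`TwoSidedAt` and `TrivAll` are invariant under homeomorphisms; `axis`: a connected two-sided finite
union of axis-parallel rectangles with trivial torsors becomes the carrier of a `Surf` (451) after an
increasing PL change of every coordinate.
-/

set_option autoImplicit false
set_option linter.unusedSectionVars false

namespace Crest.Agent.R096.Ax_914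

open Set Metric Function Topology Filter Crest.Agent.R096.Coh_184 Crest.Agent.R096.Pl
open Crest.Agent.R096.Lc_451 (Surf)

theorem TwoSidedAt.map {E F : Type*} [PseudoMetricSpace E] [PseudoMetricSpace F] (Φ : E ≃ₜ F)
    {S : Set E} {x : E} (h : TwoSidedAt S x) : TwoSidedAt (Φ '' S) (Φ x) := by
  intro ε hε
  have hcont : Φ ⁻¹' ball (Φ x) ε ∈ 𝓝 x := Φ.continuous.continuousAt (ball_mem_nhds _ hε)
  obtain ⟨δ, hδ, hb⟩ := Metric.mem_nhds_iff.1 hcont
  obtain ⟨U, P, N, hU, hP, hN, hxU, hUb, hPc, hNc, hPN, hUS, hxP, hxN⟩ := h δ hδ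
  refine ⟨Φ '' U, Φ '' P, Φ '' N, Φ.isOpenMap _ hU, Φ.isOpenMap _ hP, Φ.isOpenMap _ hN,
    mem_image_of_mem _ hxU, ?_, hPc.image _ Φ.continuous.continuousOn,
    hNc.image _ Φ.continuous.continuousOn, (disjoint_image_iff Φ.injective).2 hPN, ?_, ?_, ?_⟩
  · rintro _ ⟨y, hy, rfl⟩
    exact hb (hUb hy)
  · rw [← image_sdiff Φ.injective, hUS, image_union]
  · rw [← Φ.image_closure]; exact mem_image_of_mem _ hxP
  · rw [← Φ.image_closure]; exact mem_image_of_mem _ hxN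

theorem TwoSidedAt.map_iff {E F : Type*} [PseudoMetricSpace E] [PseudoMetricSpace F] (Φ : E ≃ₜ F)
    {S : Set E} {x : E} : TwoSidedAt (Φ '' S) (Φ x) ↔ TwoSidedAt S x := by
  refine ⟨fun h => ?_, TwoSidedAt.map Φ⟩
  have h1 := h.map Φ.symm
  have h2 : Φ.symm '' (Φ '' S) = S := by
    rw [image_image]; simp
  rwa [Φ.symm_apply_apply, h2] at h1

/-- `TwoSidedAt` only depends on the germ of `S` at `x` -/
theorem TwoSidedAt.congr {E : Type*} [PseudoMetricSpace E] {S T : Set E} {x : E}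
    (h : TwoSidedAt S x) {V : Set E} (hV : V ∈ 𝓝 x) (hST : S ∩ V = T ∩ V) : TwoSidedAt T x := by
  intro ε hε
  obtain ⟨δ, hδ, hb⟩ := Metric.mem_nhds_iff.1 hV
  obtain ⟨U, P, N, hU, hP, hN, hxU, hUb, hPc, hNc, hPN, hUS, hxP, hxN⟩ := h (min ε δ)
    (lt_min hε hδ)
  refine ⟨U, P, N, hU, hP, hN, hxU, hUb.trans (ball_subset_ball (min_le_left _ _)), hPc, hNc, hPN,
    ?_, hxP, hxN⟩
  have hUV : U ⊆ V := (hUb.trans (ball_subset_ball (min_le_right _ _))).trans hb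
  rw [← hUS]
  ext y
  constructor
  · rintro ⟨h1, h2⟩
    refine ⟨h1, fun h3 => h2 ?_⟩
    exact (hST.subset ⟨h3, hUV h1⟩ : y ∈ T ∩ V).1
  · rintro ⟨h1, h2⟩
    refine ⟨h1, fun h3 => h2 ?_⟩
    exact (hST.superset ⟨h3, hUV h1⟩ : y ∈ S ∩ V).1

theorem TrivAll.map {X Z : Type*} [TopologicalSpace X] [TopologicalSpace Z] {ι A : Type*}
    [AddCommGroup A] (Φ : X ≃ₜ Z) {S : Set X} (hS : IsClosed S) (h : TrivAll ι A S) :
    TrivAll ι A (Φ '' S) := by
  refine h.of_retract hS (g := Φ) (π := Φ.symm) Φ.continuous.continuousOn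
    (mapsTo_image _ _) Φ.symm.continuous.continuousOn ?_ ?_
  · rintro _ ⟨x, hx, rfl⟩
    rwa [Φ.symm_apply_apply]
  · intro x _
    exact Φ.apply_symm_apply x

/-- **P2-AXIS**: a connected two-sided finite union of axis-parallel rectangles of `ℝ³` with trivial
`ZMod 2`-torsors is, after an increasing PL change of every coordinate, the carrier of a cubical
Sep-surface -/
theorem axis {B : Finset ((Fin 3 → ℝ) × (Fin 3 → ℝ))} (hB : ∀ p ∈ B, p.1 ≤ p.2)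
    (hB1 : ∀ p ∈ B, ∃ i, p.1 i = p.2 i ∧ ∀ j, j ≠ i → p.1 j ≠ p.2 j)
    {S : Set (Fin 3 → ℝ)} (hSB : S = ⋃ p ∈ B, Icc p.1 p.2) (hS : ∀ x ∈ S, TwoSidedAt S x)
    (hcon : IsConnected S) (htriv : ∀ n, TrivAll (Fin n) (ZMod 2) S) :
    ∃ Φ : (Fin 3 → ℝ) ≃ₜ (Fin 3 → ℝ), Coordwise Φ ∧ ∃ Q : Finset (Fin 3 → ℤ),
      Φ '' S = car Q ∧ (∀ c ∈ Q, ∃ i, Cod1 c i) ∧ Surf (chn Q) := by
  obtain ⟨Φ, hΦ, Q, hQ1, hQ2⟩ := exists_cubical B hB
  rw [← hSB] at hQ1
  have hQ : ∀ c ∈ Q, ∃ i, Cod1 c i := by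
    intro c hc
    obtain ⟨p, hp, hcp⟩ := hQ2 c hc
    obtain ⟨i, hi, hi2⟩ := hB1 p hp
    refine ⟨i, (hcp i).2 hi, fun j hj => ?_⟩
    have := (not_congr (hcp j)).2 (hi2 j hj)
    omega
  have hclosed : IsClosed S := by
    rw [hSB]
    exact B.finite_toSet.isClosed_biUnion fun p _ => isClosed_Icc
  refine ⟨Φ, hΦ, Q, hQ1, hQ, surf_of hQ ?_ ?_ ?_ ?_⟩
  · intro x hx
    rw [← hQ1] at hx
    obtain ⟨y, hy, rfl⟩ := hx
    rw [← hQ1]
    exact (hS y hy).map Φ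
  · obtain ⟨x, hx⟩ := hcon.nonempty
    have : Φ x ∈ car Q := by rw [← hQ1]; exact mem_image_of_mem _ hx
    obtain ⟨c, hc, _⟩ := mem_car.1 this
    exact ⟨c, hc⟩
  · rw [← hQ1]
    exact hcon.isPreconnected.image _ Φ.continuous.continuousOn
  · intro n
    rw [← hQ1]
    exact TrivAll.map Φ hclosed (htriv n)

end Crest.Agent.R096.Ax_914
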