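import Mathlib

/-! Row 96, P1-COH (helper184), part 4: linear algebra of finite complexes over a field:
`H^1 = 0` iff `H_1 = 0` (relative to a subset of tiles), local to global. -/

set_option autoImplicit false

open Finset

namespace Crest.Agent.R096.Coh_184

variable {K : Type*} [Field K] {V E F ι : Type*} [Fintype V] [Fintype E] [Fintype F]

/-- separation of a vector from a subspace of `E → K` -/
theorem exists_separating (W : Submodule K (E → K)) {x : E → K} (hx : x ∉ W) :
    ∃ z : E → K, (∀ w ∈ W, ∑ e, z e * w e = 0) ∧ ∑ e, z e * x e ≠ 0 := by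
  classical
  obtain ⟨φ, h1, h2⟩ := Submodule.exists_le_ker_of_notMem hx
  have key : ∀ y : E → K, φ y = ∑ e, φ (Pi.single e 1) * y e := by
    intro y
    conv_lhs => rw [pi_eq_sum_univ' y]
    rw [map_sum]
    refine Finset.sum_congr rfl fun e _ => ?_
    rw [map_smul, smul_eq_mul, mul_comm]
  refine ⟨fun e => φ (Pi.single e 1), fun w hw => ?_, ?_⟩
  · rw [← key w]; exact h2 hw
  · rw [← key x]; exact h1

/-- the boundary of the coboundary pairing -/
theorem sum_mul_cob (b : E → V → K) (z : E → K) (ψ : V → K) :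
    ∑ e, z e * ∑ v, b e v * ψ v = ∑ v, (∑ e, z e * b e v) * ψ v := by
  simp only [Finset.mul_sum, Finset.sum_mul]
  rw [Finset.sum_comm]
  refine Finset.sum_congr rfl fun v _ => Finset.sum_congr rfl fun e _ => ?_
  ring

/-- a cochain on the edges `p` killing all cycles supported in `p` is exact on `p` -/
theorem exact_of_kills (b : E → V → K) (p : E → Prop) (κ : E → K)
    (h : ∀ z : E → K, (∀ e, ¬ p e → z e = 0) → (∀ v, ∑ e, z e * b e v = 0) →
      ∑ e, z e * κ e = 0) :
    ∃ ψ : V → K, ∀ e, p e → κ e = ∑ v, b e v * ψ v := by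
  classical
  let W : Submodule K (E → K) :=
    { carrier := {x | ∃ ψ : V → K, ∀ e, p e → x e = ∑ v, b e v * ψ v}
      zero_mem' := ⟨0, fun e _ => by simp⟩
      add_mem' := by
        rintro x y ⟨ψ, hψ⟩ ⟨φ, hφ⟩
        refine ⟨ψ + φ, fun e he => ?_⟩
        rw [Pi.add_apply, hψ e he, hφ e he, ← Finset.sum_add_distrib]
        exact Finset.sum_congr rfl fun v _ => by rw [Pi.add_apply]; ring
      smul_mem' := by
        rintro c x ⟨ψ, hψ⟩
        refine ⟨c • ψ, fun e he => ?_⟩
        rw [Pi.smul_apply, hψ e he, smul_eq_mul, Finset.mul_sum]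
        exact Finset.sum_congr rfl fun v _ => by rw [Pi.smul_apply, smul_eq_mul]; ring }
  by_contra hcon
  have hκ : κ ∉ W := hcon
  obtain ⟨z, hz, hzκ⟩ := exists_separating W hκ
  apply hzκ
  apply h z
  · intro e he
    have hmem : (Pi.single e 1 : E → K) ∈ W := by
      refine ⟨0, fun e' he' => ?_⟩
      have : e' ≠ e := fun h => he (h ▸ he')
      rw [Pi.single_eq_of_ne this]; simp
    have := hz _ hmem
    rw [Finset.sum_eq_single e] at this
    · simpa using this
    · intro e' _ he'; rw [Pi.single_eq_of_ne he']; simp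
    · intro h; exact (h (Finset.mem_univ _)).elim
  · intro v
    have hmem : (fun e => ∑ v', b e v' * (Pi.single v 1 : V → K) v') ∈ W := ⟨Pi.single v 1, fun _ _ => rfl⟩
    have h2 := hz _ hmem
    rw [sum_mul_cob] at h2
    rw [Finset.sum_eq_single v] at h2
    · simpa using h2
    · intro e' _ he'; rw [Pi.single_eq_of_ne he']; simp
    · intro h; exact (h (Finset.mem_univ _)).elim

/-- `H^1 = 0` on the sheet (tiles `s`, edges `p`) implies `H_1 = 0` -/
theorem homology_of_cohomology (a : F → E → K) (b : E → V → K) (s : F → Prop) (p : E → Prop)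
    (h : ∀ κ : E → K, (∀ f, s f → ∑ e, a f e * κ e = 0) →
      ∃ ψ : V → K, ∀ e, p e → κ e = ∑ v, b e v * ψ v)
    (z : E → K) (hzp : ∀ e, ¬ p e → z e = 0) (hz : ∀ v, ∑ e, z e * b e v = 0) :
    ∃ w : F → K, (∀ f, ¬ s f → w f = 0) ∧ ∀ e, z e = ∑ f, w f * a f e := by
  classical
  let W : Submodule K (E → K) :=
    { carrier := {x | ∃ w : F → K, (∀ f, ¬ s f → w f = 0) ∧ ∀ e, x e = ∑ f, w f * a f e}
      zero_mem' := ⟨0, fun _ _ => rfl, fun e => by simp⟩
      add_mem' := by
        rintro x y ⟨ψ, hψ0, hψ⟩ ⟨φ, hφ0, hφ⟩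
        refine ⟨ψ + φ, fun f hf => by rw [Pi.add_apply, hψ0 f hf, hφ0 f hf, add_zero],
          fun e => ?_⟩
        rw [Pi.add_apply, hψ e, hφ e, ← Finset.sum_add_distrib]
        exact Finset.sum_congr rfl fun v _ => by rw [Pi.add_apply]; ring
      smul_mem' := by
        rintro c x ⟨ψ, hψ0, hψ⟩
        refine ⟨c • ψ, fun f hf => by rw [Pi.smul_apply, hψ0 f hf, smul_zero], fun e => ?_⟩
        rw [Pi.smul_apply, hψ e, smul_eq_mul, Finset.mul_sum]
        exact Finset.sum_congr rfl fun v _ => by rw [Pi.smul_apply, smul_eq_mul]; ring }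
  by_contra hcon
  have hzW : z ∉ W := hcon
  obtain ⟨κ, hκ, hκz⟩ := exists_separating W hzW
  apply hκz
  obtain ⟨ψ, hψ⟩ := h κ (by
    intro f hf
    have hmem : (fun e => ∑ f', (Pi.single f 1 : F → K) f' * a f' e) ∈ W := by
      refine ⟨Pi.single f 1, fun f' hf' => ?_, fun _ => rfl⟩
      have : f' ≠ f := fun h => hf' (h ▸ hf)
      rw [Pi.single_eq_of_ne this]
    have h2 := hκ _ hmem
    have h3 : ∀ e, ∑ f', (Pi.single f 1 : F → K) f' * a f' e = a f e := by
      intro e
      rw [Finset.sum_eq_single f]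
      · simp
      · intro e' _ he'; rw [Pi.single_eq_of_ne he']; simp
      · intro h; exact (h (Finset.mem_univ _)).elim
    rw [← h2]
    exact Finset.sum_congr rfl fun e _ => by rw [h3 e, mul_comm])
  have h4 : ∑ e, κ e * z e = ∑ e, z e * ∑ v, b e v * ψ v := by
    refine Finset.sum_congr rfl fun e _ => ?_
    by_cases he : p e
    · rw [hψ e he, mul_comm]
    · rw [hzp e he, mul_zero, zero_mul]
  rw [h4, sum_mul_cob]
  exact Finset.sum_eq_zero fun v _ => by rw [hz v, zero_mul]

/-- `H_1 = 0` implies `H^1 = 0` -/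
theorem cohomology_of_homology (a : F → E → K) (b : E → V → K) (s : F → Prop) (p : E → Prop)
    (h : ∀ z : E → K, (∀ e, ¬ p e → z e = 0) → (∀ v, ∑ e, z e * b e v = 0) →
      ∃ w : F → K, (∀ f, ¬ s f → w f = 0) ∧ ∀ e, z e = ∑ f, w f * a f e)
    (κ : E → K) (hκ : ∀ f, s f → ∑ e, a f e * κ e = 0) :
    ∃ ψ : V → K, ∀ e, p e → κ e = ∑ v, b e v * ψ v := by
  refine exact_of_kills b p κ fun z hz1 hz2 => ?_
  obtain ⟨w, hw0, hw⟩ := h z hz1 hz2
  have h1 : ∑ e, z e * κ e = ∑ f, w f * ∑ e, a f e * κ e := by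
    simp only [hw, Finset.sum_mul, Finset.mul_sum]
    rw [Finset.sum_comm]
    exact Finset.sum_congr rfl fun v _ => Finset.sum_congr rfl fun e _ => by ring
  rw [h1]
  refine Finset.sum_eq_zero fun f _ => ?_
  by_cases hf : s f
  · rw [hκ f hf, mul_zero]
  · rw [hw0 f hf, zero_mul]

theorem cohomology_iff_homology (a : F → E → K) (b : E → V → K) (s : F → Prop) (p : E → Prop) :
    (∀ κ : E → K, (∀ f, s f → ∑ e, a f e * κ e = 0) →
      ∃ ψ : V → K, ∀ e, p e → κ e = ∑ v, b e v * ψ v) ↔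
    (∀ z : E → K, (∀ e, ¬ p e → z e = 0) → (∀ v, ∑ e, z e * b e v = 0) →
      ∃ w : F → K, (∀ f, ¬ s f → w f = 0) ∧ ∀ e, z e = ∑ f, w f * a f e) :=
  ⟨fun h => homology_of_cohomology a b s p h, fun h => cohomology_of_homology a b s p h⟩

/-- local to global: if every cochain killing all the `L i` kills `z`, then `z` is a sum of
elements of the `L i`. -/
theorem mem_iSup_of_kills [Finite ι] (L : ι → Submodule K (E → K)) (z : E → K)
    (h : ∀ κ : E → K, (∀ i, ∀ x ∈ L i, ∑ e, κ e * x e = 0) → ∑ e, κ e * z e = 0) :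
    z ∈ ⨆ i, L i := by
  by_contra hz
  obtain ⟨κ, hκ, hκz⟩ := exists_separating _ hz
  exact hκz (h κ fun i x hx => hκ x ((le_iSup L i) hx))

end Crest.Agent.R096.Coh_184
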