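import Crest.Agent.R096.St4_147
import Crest.Agent.R096.Coh4_184

/-!
# R096 / P3D-B: `H1 s i ↔ Sep s i` for every state (helper422)

`h1_of_sep` : torsor argument; `sep_of_h1` : Fredholm alternative twice.
-/

set_option autoImplicit false

namespace Crest.Agent.R096.B_422

open Crest.Agent.R096.St_147 Crest.Agent.R096.Coh_184

variable {ι Φ W I : Type} {M : MeshC ι Φ W} {col : I → Bool}

theorem At.mu {s : St M col} {F : Φ} {w : W} (h : s.At F w) : s.At F (s.mu F w) :=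
  s.mu_mem h.1 h.2

theorem h1_of_sep (s : St M col) (i : I) (h : s.Sep i) : s.H1 i := by
  classical
  intro κ hκ
  choose ψ hψ using hκ
  have hex := h (fun F w => ss (M.side F) (fun q => ψ q w)) ?_ ?_
  · obtain ⟨c, hc1, hc2⟩ := hex
    -- independence of the cell
    have hind : ∀ w, w ∈ s.P → s.lab w = i → ∀ F, w ∈ M.On F → ∀ q ∈ M.side F, ∀ F', w ∈ M.On F' →
        ∀ q' ∈ M.side F', ψ q' w + c q' w = ψ q w + c q w := by
      intro w hw hi F hF q hq F' hF' q' hq'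
      refine M.link w {p | ψ p w + c p w = ψ q w + c q w} ?_ F hF q hq rfl F' hF' q' hq'
      intro F hF q₁ h1 q₂ h2 h3
      change ψ q₂ w + c q₂ w = ψ q w + c q w
      change ψ q₁ w + c q₁ w = ψ q w + c q w at h3
      by_cases h12 : q₁ = q₂
      · rw [← h12]; exact h3
      have hs : M.side F = s(q₁, q₂) := (Sym2.mem_and_mem_iff h12).1 ⟨h1, h2⟩
      have h4 := hc2 F w q₁ q₂ hs ⟨hw, hF⟩ hi
      simp only [hs, ss_mk] at h4
      have h5 : ψ q₁ w + c q₁ w = ψ q₂ w + c q₂ w := by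
        apply eq_of_add2
        have : ψ q₁ w + c q₁ w + (ψ q₂ w + c q₂ w) = (ψ q₁ w + ψ q₂ w) + (c q₁ w + c q₂ w) := by
          ring
        rw [this, h4, add_self2]
      rw [← h5, h3]
    refine ⟨fun w => if hh : ∃ q F, w ∈ M.On F ∧ q ∈ M.side F then
      ψ hh.choose w + c hh.choose w else 0, ?_⟩
    intro F w hAt hi
    have hq := Sym2.out_fst_mem (M.side F)
    set q := (M.side F).out.1 with hqdef
    have hval : ∀ w, s.At F w → s.lab w = i → (if hh : ∃ q F, w ∈ M.On F ∧ q ∈ M.side F then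
      ψ hh.choose w + c hh.choose w else 0) = ψ q w + c q w := by
      intro w hw hi
      have hh : ∃ q F, w ∈ M.On F ∧ q ∈ M.side F := ⟨q, F, hw.2, hq⟩
      rw [dif_pos hh]
      obtain ⟨F', h1, h2⟩ := hh.choose_spec
      exact hind w hw.1 hi F hw.2 q hq F' h1 _ h2
    have hAt' := At.mu hAt
    have hi' : s.lab (s.mu F w) = i := by rw [s.mu_lab hAt.1 hAt.2, hi]
    beta_reduce
    rw [hval w hAt hi, hval _ hAt' hi', hψ q F w hq hAt hi, hc1 q F w hq hAt hi]
    have : ψ q w + c q w + (ψ q (s.mu F w) + c q w) = ψ q w + ψ q (s.mu F w) + (c q w + c q w) := by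
      ring
    rw [this, add_self2, add_zero]
  · intro F w hAt hi
    obtain ⟨a, b, hab⟩ : ∃ a b, M.side F = s(a, b) := ⟨_, _, (Quot.out_eq _).symm⟩
    simp only [hab, ss_mk]
    have h1 := hψ a F w (hab ▸ Sym2.mem_mk_left a b) hAt hi
    have h2 := hψ b F w (hab ▸ Sym2.mem_mk_right a b) hAt hi
    apply eq_of_add2
    have : ψ a (s.mu F w) + ψ b (s.mu F w) + (ψ a w + ψ b w) =
      (ψ a w + ψ a (s.mu F w)) + (ψ b w + ψ b (s.mu F w)) := by ring
    rw [this, ← h1, ← h2, add_self2]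
  · intro w hw hi
    exact sum_link M w (fun q _ => ψ q w) (fun _ _ _ _ _ _ _ => rfl)

/-! ### the converse -/

/-- chords of the sheet `i`, named by their lower end points -/
abbrev Ch (s : St M col) (i : I) : Type :=
  {p : Φ × W // s.At p.1 p.2 ∧ s.lab p.2 = i ∧ M.pos p.1 p.2 < M.pos p.1 (s.mu p.1 p.2)}

/-- points of the sheet -/
abbrev Pt (s : St M col) (i : I) : Type := {w : W // w ∈ s.P ∧ s.lab w = i}

instance (s : St M col) (i : I) : Finite (Pt s i) :=
  (s.P.finite_toSet.subset (fun _ h => h.1) : {w : W | w ∈ s.P ∧ s.lab w = i}.Finite)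

instance (s : St M col) (i : I) : Finite (Ch s i) := by
  classical
  have h : ({p : Φ × W | s.At p.1 p.2 ∧ s.lab p.2 = i ∧
      M.pos p.1 p.2 < M.pos p.1 (s.mu p.1 p.2)}).Finite := by
    refine (Set.Finite.biUnion s.P.finite_toSet (fun w _ => ((M.fin w).image (fun F => (F, w))))).subset ?_
    rintro ⟨F, w⟩ ⟨h1, -, -⟩
    exact Set.mem_biUnion (x := w) h1.1 ⟨F, h1.2, rfl⟩
  exact h

variable {s : St M col} {i : I}

theorem pos_ne {F : Φ} {w : W} (h : s.At F w) : M.pos F w ≠ M.pos F (s.mu F w) := by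
  intro he
  exact s.mu_ne h.1 h.2 (M.pos_inj F (At.mu h).2 h.2 he.symm)

open Classical in
/-- value of a function on chords at `(F, w)` -/
noncomputable def ext (f : Ch s i → ZMod 2) (F : Φ) (w : W) : ZMod 2 :=
  if h : s.At F w ∧ s.lab w = i ∧ M.pos F w < M.pos F (s.mu F w) then f ⟨(F, w), h⟩
  else if h : s.At F (s.mu F w) ∧ s.lab (s.mu F w) = i ∧
    M.pos F (s.mu F w) < M.pos F (s.mu F (s.mu F w)) ∧ s.At F w then
      f ⟨(F, s.mu F w), h.1, h.2.1, h.2.2.1⟩ else 0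

theorem ext_low (f : Ch s i → ZMod 2) {F : Φ} {w : W}
    (h : s.At F w ∧ s.lab w = i ∧ M.pos F w < M.pos F (s.mu F w)) :
    ext f F w = f ⟨(F, w), h⟩ := by
  unfold ext
  rw [dif_pos h]

theorem ext_up (f : Ch s i → ZMod 2) {F : Φ} {w : W} (h1 : s.At F w) (hi : s.lab w = i)
    (h2 : M.pos F (s.mu F w) < M.pos F w) :
    ext f F w = f ⟨(F, s.mu F w), At.mu h1, (by rw [s.mu_lab h1.1 h1.2, hi]),
      (by rw [s.mu_mu h1.1 h1.2]; exact h2)⟩ := by
  unfold ext
  rw [dif_neg (fun h => lt_asymm h.2.2 h2), dif_pos]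
  exact ⟨At.mu h1, (by rw [s.mu_lab h1.1 h1.2, hi]), (by rw [s.mu_mu h1.1 h1.2]; exact h2), h1⟩

theorem ext_mu (f : Ch s i → ZMod 2) {F : Φ} {w : W} (h1 : s.At F w) (hi : s.lab w = i) :
    ext f F (s.mu F w) = ext f F w := by
  have hi' : s.lab (s.mu F w) = i := by rw [s.mu_lab h1.1 h1.2, hi]
  rcases lt_or_gt_of_ne (pos_ne h1) with h | h
  · rw [ext_low f ⟨h1, hi, h⟩, ext_up f (At.mu h1) hi' (by rw [s.mu_mu h1.1 h1.2]; exact h)]
    congr 1
    apply Subtype.ext
    simp only [s.mu_mu h1.1 h1.2]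
  · rw [ext_up f h1 hi h, ext_low f ⟨At.mu h1, hi', by rw [s.mu_mu h1.1 h1.2]; exact h⟩]

open Classical in
/-- incidence of chords and points -/
noncomputable def inc (s : St M col) (i : I) (e : Ch s i) (v : Pt s i) : ZMod 2 :=
  (if e.1.2 = v.1 then 1 else 0) + (if s.mu e.1.1 e.1.2 = v.1 then 1 else 0)

theorem sum_inc_pt [Fintype (Pt s i)] (e : Ch s i) (Ψ : W → ZMod 2) :
    ∑ v : Pt s i, inc s i e v * Ψ v.1 = Ψ e.1.2 + Ψ (s.mu e.1.1 e.1.2) := by
  classical
  have h1 : s.mu e.1.1 e.1.2 ∈ s.P ∧ s.lab (s.mu e.1.1 e.1.2) = i :=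
    ⟨(At.mu e.2.1).1, by rw [s.mu_lab e.2.1.1 e.2.1.2]; exact e.2.2.1⟩
  simp only [inc, add_mul, Finset.sum_add_distrib]
  congr 1
  · rw [Finset.sum_eq_single (⟨e.1.2, e.2.1.1, e.2.2.1⟩ : Pt s i)]
    · simp
    · intro v _ hv
      rw [if_neg, zero_mul]
      intro h; exact hv (Subtype.ext h.symm)
    · intro h; exact (h (Finset.mem_univ _)).elim
  · rw [Finset.sum_eq_single (⟨_, h1⟩ : Pt s i)]
    · simp
    · intro v _ hv
      rw [if_neg, zero_mul]
      intro h; exact hv (Subtype.ext h.symm)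
    · intro h; exact (h (Finset.mem_univ _)).elim

theorem sum_inc_ch [Fintype (Ch s i)] (f : Ch s i → ZMod 2) (v : Pt s i) :
    ∑ e : Ch s i, f e * inc s i e v = ∑ F ∈ M.fs v.1, ext f F v.1 := by
  classical
  simp only [inc, mul_add, Finset.sum_add_distrib, mul_ite, mul_one, mul_zero]
  rw [← Finset.sum_filter, ← Finset.sum_filter]
  rw [← Finset.sum_filter_add_sum_filter_not (M.fs v.1)
    (fun F => M.pos F v.1 < M.pos F (s.mu F v.1))]
  congr 1
  · refine Finset.sum_bij (fun e _ => e.1.1) ?_ ?_ ?_ ?_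
    · intro e he
      rw [Finset.mem_filter] at he ⊢
      rw [MeshC.mem_fs, ← he.2]
      exact ⟨e.2.1.2, e.2.2.2⟩
    · intro e he e' he' h
      rw [Finset.mem_filter] at he he'
      apply Subtype.ext
      exact Prod.ext h (he.2.trans he'.2.symm)
    · intro F hF
      rw [Finset.mem_filter, MeshC.mem_fs] at hF
      exact ⟨⟨(F, v.1), ⟨v.2.1, hF.1⟩, v.2.2, hF.2⟩, by simp, rfl⟩
    · intro e he
      rw [Finset.mem_filter] at he
      obtain ⟨⟨F, w⟩, h⟩ := e
      have hw : w = v.1 := he.2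
      subst hw
      rw [ext_low f h]
  · refine Finset.sum_bij (fun e _ => e.1.1) ?_ ?_ ?_ ?_
    · intro e he
      rw [Finset.mem_filter] at he ⊢
      rw [MeshC.mem_fs, ← he.2]
      refine ⟨(At.mu e.2.1).2, ?_⟩
      rw [s.mu_mu e.2.1.1 e.2.1.2]
      exact not_lt.2 e.2.2.2.le
    · intro e he e' he' h
      rw [Finset.mem_filter] at he he'
      apply Subtype.ext
      refine Prod.ext h ?_
      have h1 := s.mu_mu e.2.1.1 e.2.1.2
      have h2 := s.mu_mu e'.2.1.1 e'.2.1.2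
      rw [he.2] at h1
      rw [he'.2] at h2
      rw [← h1, ← h2]
      change s.mu e.1.1 v.1 = s.mu e'.1.1 v.1
      rw [show e.1.1 = e'.1.1 from h]
    · intro F hF
      rw [Finset.mem_filter, MeshC.mem_fs] at hF
      have hA : s.At F v.1 := ⟨v.2.1, hF.1⟩
      have hlt : M.pos F (s.mu F v.1) < M.pos F v.1 :=
        lt_of_le_of_ne (not_lt.1 hF.2) (pos_ne hA).symm
      refine ⟨⟨(F, s.mu F v.1), At.mu hA, by rw [s.mu_lab hA.1 hA.2]; exact v.2.2, ?_⟩, ?_, rfl⟩
      · change M.pos F (s.mu F v.1) < M.pos F (s.mu F (s.mu F v.1))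
        rw [s.mu_mu hA.1 hA.2]; exact hlt
      · simp only [Finset.mem_filter, Finset.mem_univ, true_and]
        exact s.mu_mu hA.1 hA.2
    · intro e he
      rw [Finset.mem_filter] at he
      obtain ⟨⟨F, w⟩, h⟩ := e
      have hw : s.mu F w = v.1 := he.2
      change f ⟨(F, w), h⟩ = ext f F v.1
      rw [← hw, ext_mu f h.1 h.2.1, ext_low f h]

theorem ext_zero (f : Ch s i → ZMod 2) {F : Φ} (w : W) (h : ∀ e : Ch s i, e.1.1 = F → f e = 0) :
    ext f F w = 0 := by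
  unfold ext
  split_ifs with h1 h2
  · exact h _ rfl
  · exact h _ rfl
  · rfl

theorem ext_eq_of (f : Ch s i → ZMod 2) {q : ι} {w : W}
    (hq : ∀ e : Ch s i, q ∉ M.side e.1.1 → f e = 0)
    (h : ∑ F ∈ M.fs w, ext f F w = 0) {F F' : Φ} (hF : q ∈ M.side F) (hF' : q ∈ M.side F')
    (hwF : w ∈ M.On F) (hwF' : w ∈ M.On F') : ext f F w = ext f F' w := by
  classical
  by_cases hFF : F = F'
  · rw [hFF]
  have e : {F | q ∈ M.side F ∧ w ∈ M.On F} = ↑((M.fs w).filter (fun F => q ∈ M.side F)) := by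
    ext F
    simp only [Set.mem_ofPred_eq, Finset.coe_filter, MeshC.mem_fs]
    tauto
  have hd := M.deg q w
  rw [e, Set.ncard_coe_finset] at hd
  have h1 : F ∈ (M.fs w).filter (fun F => q ∈ M.side F) := by
    rw [Finset.mem_filter, MeshC.mem_fs]; exact ⟨hwF, hF⟩
  have h2 : F' ∈ (M.fs w).filter (fun F => q ∈ M.side F) := by
    rw [Finset.mem_filter, MeshC.mem_fs]; exact ⟨hwF', hF'⟩
  have hcard : ((M.fs w).filter (fun F => q ∈ M.side F)).card = 2 := by
    rcases hd with hd | hd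
    · rw [Finset.card_eq_zero.1 hd] at h1
      exact (Finset.notMem_empty _ h1).elim
    · exact hd
  have hpair : ({F, F'} : Finset Φ) = (M.fs w).filter (fun F => q ∈ M.side F) := by
    apply Finset.eq_of_subset_of_card_le
    · intro G hG
      rw [Finset.mem_insert, Finset.mem_singleton] at hG
      rcases hG with rfl | rfl
      · exact h1
      · exact h2
    · rw [hcard, Finset.card_pair hFF]
  rw [← Finset.sum_filter_add_sum_filter_not (M.fs w) (fun F => q ∈ M.side F), ← hpair,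
    Finset.sum_pair hFF, Finset.sum_eq_zero, add_zero] at h
  · exact eq_of_add2 h
  · intro G hG
    rw [Finset.mem_filter] at hG
    exact ext_zero f w (fun e he => hq e (he ▸ hG.2))

/-- a function on chords which is the boundary of a function on the tiles -/
def IsBd (f : Ch s i → ZMod 2) : Prop :=
  ∃ c : ι → W → ZMod 2,
    (∀ q F w, q ∈ M.side F → s.At F w → s.lab w = i → c q (s.mu F w) = c q w) ∧
    ∀ e : Ch s i, f e = ss (M.side e.1.1) (fun q => c q e.1.2)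

theorem isBd_of (f : Ch s i → ZMod 2) (q : ι) (hq : ∀ e : Ch s i, q ∉ M.side e.1.1 → f e = 0)
    (h : ∀ v : Pt s i, ∑ F ∈ M.fs v.1, ext f F v.1 = 0) : IsBd f := by
  classical
  let c : ι → W → ZMod 2 := fun q' w =>
    if hh : q' = q ∧ ∃ F, q ∈ M.side F ∧ s.At F w ∧ s.lab w = i then ext f hh.2.choose w else 0
  have hc : ∀ F w, q ∈ M.side F → s.At F w → s.lab w = i → c q w = ext f F w := by
    intro F w hF hA hi
    have hh : q = q ∧ ∃ F, q ∈ M.side F ∧ s.At F w ∧ s.lab w = i := ⟨rfl, F, hF, hA, hi⟩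
    have h2 := hh.2.choose_spec
    change (if hh : q = q ∧ ∃ F, q ∈ M.side F ∧ s.At F w ∧ s.lab w = i then
      ext f hh.2.choose w else 0) = _
    rw [dif_pos hh]
    exact ext_eq_of f hq (h ⟨w, hA.1, hi⟩) h2.1 hF h2.2.1.2 hA.2
  have hc0 : ∀ q' w, q' ≠ q → c q' w = 0 := by
    intro q' w hne
    exact dif_neg (fun hh => hne hh.1)
  refine ⟨c, ?_, ?_⟩
  · intro q' F w hF hA hi
    by_cases hqq : q' = q
    · subst hqq
      rw [hc F w hF hA hi, hc F _ hF (At.mu hA) (by rw [s.mu_lab hA.1 hA.2, hi]), ext_mu f hA hi]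
    · rw [hc0 _ _ hqq, hc0 _ _ hqq]
  · intro e
    by_cases hF : q ∈ M.side e.1.1
    · obtain ⟨b, hb⟩ := hF
      have hne : b ≠ q := by
        intro h
        have := M.side_nd e.1.1
        rw [hb, h] at this
        exact this rfl
      rw [hb, ss_mk, hc0 b _ hne, add_zero, hc e.1.1 e.1.2 ⟨b, hb⟩ e.2.1 e.2.2.1, ext_low f e.2]
    · rw [hq e hF]
      have h1 : ss (M.side e.1.1) (fun q' => c q' e.1.2) = ss (M.side e.1.1) (fun _ => 0) := by
        apply ss_congr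
        intro q' hq'
        exact hc0 _ _ (fun h => hF (h ▸ hq'))
      rw [h1]
      obtain ⟨a, b, hab⟩ : ∃ a b, M.side e.1.1 = s(a, b) := ⟨_, _, (Quot.out_eq _).symm⟩
      rw [hab, ss_mk, add_zero]

theorem local_pot [Fintype (Ch s i)] [Fintype (Pt s i)] (z : Ch s i → ZMod 2)
    (hz : ∀ f : Ch s i → ZMod 2, IsBd f → ∑ e, z e * f e = 0) (q : ι) :
    ∃ ψ : W → ZMod 2, ∀ F w, q ∈ M.side F → s.At F w → s.lab w = i →
      ext z F w = ψ w + ψ (s.mu F w) := by
  classical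
  obtain ⟨ψ, hψ⟩ := exact_of_kills (inc s i) (fun e => q ∈ M.side e.1.1) z (fun f h1 h2 => by
    have h3 : IsBd f := isBd_of f q h1 (fun v => by rw [← sum_inc_ch]; exact h2 v)
    rw [← hz f h3]
    exact Finset.sum_congr rfl fun e _ => mul_comm _ _)
  let Ψ : W → ZMod 2 := fun w => if h : w ∈ s.P ∧ s.lab w = i then ψ ⟨w, h⟩ else 0
  have hΨ : ∀ v : Pt s i, ψ v = Ψ v.1 := by
    intro v
    change ψ v = if h : v.1 ∈ s.P ∧ s.lab v.1 = i then ψ ⟨v.1, h⟩ else 0
    rw [dif_pos v.2]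
  have hlow : ∀ e : Ch s i, q ∈ M.side e.1.1 → z e = Ψ e.1.2 + Ψ (s.mu e.1.1 e.1.2) := by
    intro e he
    rw [hψ e he, ← sum_inc_pt]
    exact Finset.sum_congr rfl fun v _ => by rw [hΨ]
  refine ⟨Ψ, fun F w hF hA hi => ?_⟩
  rcases lt_or_gt_of_ne (pos_ne hA) with h | h
  · rw [ext_low z ⟨hA, hi, h⟩]
    exact hlow _ hF
  · rw [ext_up z hA hi h, hlow _ hF]
    change Ψ (s.mu F w) + Ψ (s.mu F (s.mu F w)) = _
    rw [s.mu_mu hA.1 hA.2, add_comm]

theorem sep_of_h1 (s : St M col) (i : I) (h : s.H1 i) : s.Sep i := by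
  classical
  intro θ hθ1 hθ2
  let _ : Fintype (Ch s i) := Fintype.ofFinite _
  let _ : Fintype (Pt s i) := Fintype.ofFinite _
  let x : Ch s i → ZMod 2 := fun e => θ e.1.1 e.1.2
  have hext : ∀ F w, s.At F w → s.lab w = i → ext x F w = θ F w := by
    intro F w hA hi
    rcases lt_or_gt_of_ne (pos_ne hA) with h | h
    · rw [ext_low x ⟨hA, hi, h⟩]
    · rw [ext_up x hA hi h]
      exact hθ1 F w hA hi
  let U : Submodule (ZMod 2) (Ch s i → ZMod 2) :=
    { carrier := {f | IsBd f}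
      zero_mem' := ⟨fun _ _ => 0, fun _ _ _ _ _ _ => rfl, fun e => by
        obtain ⟨a, b, hab⟩ : ∃ a b, M.side e.1.1 = s(a, b) := ⟨_, _, (Quot.out_eq _).symm⟩
        rw [hab, ss_mk, add_zero]; rfl⟩
      add_mem' := by
        rintro f g ⟨c, h1, h2⟩ ⟨d, h3, h4⟩
        refine ⟨fun q w => c q w + d q w, fun q F w hq hA hi => ?_, fun e => ?_⟩
        · beta_reduce
          rw [h1 q F w hq hA hi, h3 q F w hq hA hi]
        · rw [ss_add, Pi.add_apply, h2, h4]
      smul_mem' := by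
        rintro r f ⟨c, h1, h2⟩
        refine ⟨fun q w => r * c q w, fun q F w hq hA hi => ?_, fun e => ?_⟩
        · beta_reduce
          rw [h1 q F w hq hA hi]
        · rw [Pi.smul_apply, h2, smul_eq_mul]
          obtain ⟨a, b, hab⟩ : ∃ a b, M.side e.1.1 = s(a, b) := ⟨_, _, (Quot.out_eq _).symm⟩
          rw [hab, ss_mk, ss_mk, mul_add] }
  have hx : IsBd x := by
    by_contra hcon
    have hxU : x ∉ U := hcon
    obtain ⟨z, hz, hzx⟩ := exists_separating U hxU
    apply hzx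
    obtain ⟨Ψ, hΨ⟩ := h (ext z) (fun q => local_pot z (fun f hf => hz f hf) q)
    have h1 : ∀ e : Ch s i, z e * x e = x e * ∑ v : Pt s i, inc s i e v * Ψ v.1 := by
      intro e
      rw [sum_inc_pt, ← hΨ e.1.1 e.1.2 e.2.1 e.2.2.1, ext_low z e.2, mul_comm]
    rw [Finset.sum_congr rfl fun e _ => h1 e, sum_mul_cob (inc s i) x (fun v : Pt s i => Ψ v.1)]
    refine Finset.sum_eq_zero fun v _ => ?_
    rw [sum_inc_ch, Finset.sum_congr rfl (g := fun F => θ F v.1), hθ2 v.1 v.2.1 v.2.2, zero_mul]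
    intro F hF
    exact hext F v.1 ⟨v.2.1, MeshC.mem_fs.1 hF⟩ v.2.2
  obtain ⟨c, hc1, hc2⟩ := hx
  refine ⟨c, hc1, ?_⟩
  intro F w q q' hqq hA hi
  have hq : q ∈ M.side F := hqq ▸ Sym2.mem_mk_left q q'
  have hq' : q' ∈ M.side F := hqq ▸ Sym2.mem_mk_right q q'
  rcases lt_or_gt_of_ne (pos_ne hA) with h | h
  · have := hc2 ⟨(F, w), hA, hi, h⟩
    simp only [hqq, ss_mk] at this
    exact this
  · have hi' : s.lab (s.mu F w) = i := by rw [s.mu_lab hA.1 hA.2, hi]
    have := hc2 ⟨(F, s.mu F w), At.mu hA, hi', by rw [s.mu_mu hA.1 hA.2]; exact h⟩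
    simp only [hqq, ss_mk] at this
    rw [hc1 q F w hq hA hi, hc1 q' F w hq' hA hi] at this
    rw [← this]
    exact (hθ1 F w hA hi).symm


theorem h1_iff_sep (s : St M col) (i : I) : s.H1 i ↔ s.Sep i :=
  ⟨sep_of_h1 s i, h1_of_sep s i⟩

end Crest.Agent.R096.B_422
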