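import Crest.Agent.R096.Bar2_106
import Crest.Agent.R096.Exa6_560

/-! Row 96 (helper163), DOORS, barriers: **the level sets `{Fs = t}`, `0 < t < 1`, on the boundary
of a cell are connected** (direct paths in the coordinates; for a side of a facet one continuous
image of the relative boundary of the facet) -/

set_option autoImplicit false
set_option linter.unusedSectionVars false
set_option linter.style.haveILetI false

open Set Topology Filter

namespace Crest.Agent.R096.Bar2b_163

open Crest.Agent.R096.Brk1_582 Crest.Agent.R096.Brk2_582 Crest.Agent.R096.Etg_163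
open Crest.Agent.R096.Bar_106 Crest.Agent.R096.Bsp_628 Crest.Agent.R096.Brk3_582
open Crest.Agent.R096.Exc_965

/-- joined inside `S` -/
def Jn {X : Type*} [TopologicalSpace X] (S : Set X) (x y : X) : Prop :=
  ∃ B ⊆ S, x ∈ B ∧ y ∈ B ∧ IsPreconnected B

theorem Jn.symm {X : Type*} [TopologicalSpace X] {S : Set X} {x y : X} (h : Jn S x y) :
    Jn S y x := by
  obtain ⟨B, h1, h2, h3, h4⟩ := h
  exact ⟨B, h1, h3, h2, h4⟩

theorem Jn.trans {X : Type*} [TopologicalSpace X] {S : Set X} {x y z : X} (h : Jn S x y)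
    (h' : Jn S y z) : Jn S x z := by
  obtain ⟨B, h1, h2, h3, h4⟩ := h
  obtain ⟨B', h1', h2', h3', h4'⟩ := h'
  exact ⟨B ∪ B', union_subset h1 h1', Or.inl h2, Or.inr h3', h4.union y h3 h2' h4'⟩

theorem preconn_of_Jn {X : Type*} [TopologicalSpace X] {S : Set X} {x : X}
    (h : ∀ y ∈ S, Jn S y x) : IsPreconnected S := by
  refine isPreconnected_of_forall x fun y hy => ?_
  obtain ⟨B, h1, h2, h3, h4⟩ := h y hy
  exact ⟨B, h1, h3, h2, h4⟩

section foam

variable {E : Type*} [NormedAddCommGroup E] [NormedSpace ℝ E] [CompleteSpace E] {I : Type*}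
variable {La : Set E} {P : I → Set E} {b : Set I → E} {n : ℕ} {c a p m : I} {Z : Set I}
  {N : Finset I} {t : ℝ}

/-- the level set of `Fs` on the boundary of the cell `c` -/
def LS (P : I → Set E) (b : Set I → E) (N : Finset I) (c a : I) (Z : Set I) (t : ℝ) : Set E :=
  {q | (q ∈ P c ∧ ∃ d, d ≠ c ∧ q ∈ P d) ∧ Fs N a Z (sc P b q) = t}

theorem Fs_affine (u v : I → ℝ) (x : ℝ) :
    Fs N a Z (fun e => (1 - x) * u e + x * v e) = (1 - x) * Fs N a Z u + x * Fs N a Z v := by
  unfold Fs
  rw [Finset.mul_sum, Finset.mul_sum, ← Finset.sum_add_distrib]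
  refine Finset.sum_congr rfl fun e _ => ?_
  unfold dv
  split_ifs
  · ring
  · ring
  · ring

variable (F : Foam La P b n)
include F

theorem mem_LS {u : I → ℝ} (hu : u ∈ K P) {d : I} (hdc : d ≠ c) (huc : u c = 0) (hud : u d = 0)
    (hF : Fs N a Z u = t) : T b u ∈ LS P b N c a Z t := by
  have h1 := F.act_T hu
  refine ⟨⟨?_, d, hdc, ?_⟩, ?_⟩
  · have h2 : c ∈ act P (T b u) := by rw [h1]; exact huc
    exact h2
  · have h2 : d ∈ act P (T b u) := by rw [h1]; exact hud
    exact h2
  · rw [F.sc_T hu]; exact hF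

/-- segments in the coordinates -/
theorem seg {u v : I → ℝ} (hu : u ∈ K P) (hv : v ∈ K P) (hlt : ∀ e, v e < 1 → u e < 1) {d : I}
    (hdc : d ≠ c) (huc : u c = 0) (hvc : v c = 0) (hud : u d = 0) (hvd : v d = 0)
    (hus : Fs N a Z u = t) (hvs : Fs N a Z v = t) : Jn (LS P b N c a Z t) (T b u) (T b v) := by
  let w : ℝ → I → ℝ := fun x e => (1 - x) * u e + x * v e
  have hK : ∀ x ∈ Icc (0 : ℝ) 1, w x ∈ K P := by
    intro x hx
    refine ⟨fun e => ⟨?_, ?_⟩, ⟨c, ?_⟩, hu.2.2.mono (fc_anti ?_)⟩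
    · exact add_nonneg (mul_nonneg (by linarith [hx.2]) (hu.1 e).1) (mul_nonneg hx.1 (hv.1 e).1)
    · show (1 - x) * u e + x * v e ≤ 1
      nlinarith [mul_le_mul_of_nonneg_left (hu.1 e).2 (by linarith [hx.2] : 0 ≤ 1 - x),
        mul_le_mul_of_nonneg_left (hv.1 e).2 hx.1]
    · show (1 - x) * u c + x * v c = 0
      rw [huc, hvc]; ring
    · intro e he
      by_contra h
      have h1 : u e = 1 := le_antisymm (hu.1 e).2 (not_lt.1 h)
      have h2 : v e = 1 := le_antisymm (hv.1 e).2 (not_lt.1 fun h' => h (hlt e h'))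
      have he' : (1 - x) * u e + x * v e < 1 := he
      rw [h1, h2] at he'
      linarith
  refine ⟨(fun x => T b (w x)) '' Icc (0 : ℝ) 1, ?_, ⟨0, ⟨le_rfl, zero_le_one⟩, ?_⟩,
    ⟨1, ⟨zero_le_one, le_rfl⟩, ?_⟩, ?_⟩
  · rintro _ ⟨x, hx, rfl⟩
    refine mem_LS F (hK x hx) hdc ?_ ?_ ?_
    · show (1 - x) * u c + x * v c = 0
      rw [huc, hvc]; ring
    · show (1 - x) * u d + x * v d = 0
      rw [hud, hvd]; ring
    · show Fs N a Z (fun e => (1 - x) * u e + x * v e) = t
      rw [Fs_affine, hus, hvs]; ring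
  · show T b (w 0) = T b u
    congr 1
    funext e
    show (1 - 0) * u e + 0 * v e = u e
    ring
  · show T b (w 1) = T b v
    congr 1
    funext e
    show (1 - 1) * u e + 1 * v e = v e
    ring
  · refine isPreconnected_Icc.image _ ((continuousOn_T F).comp ?_ hK)
    have hc : Continuous w := by
      refine continuous_pi fun e => ?_
      show Continuous fun x => (1 - x) * u e + x * v e
      fun_prop
    exact hc.continuousOn

/-- all deviations are `≤ Fs` when `N` contains the cells touching `c` -/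
theorem dv_le_Fs (hN : ∀ e, (P e ∩ P c).Nonempty → e ∈ N) (hcZ : c ∈ Z)
    (hfc : (fc P Z).Nonempty) {u : I → ℝ} (hu : u ∈ K P)
    (huc : u c = 0) (e : I) : dv a Z u e ≤ Fs N a Z u := by
  refine (dv_le_Fm hu.1 e).trans (Fm_le_Fs ?_ hu.1)
  intro e he
  have h0 : u e = 1 := by
    by_contra h
    have h1 : u e < 1 := lt_of_le_of_ne (hu.1 e).2 h
    obtain ⟨x, hx⟩ := hu.2.2
    have h2 := mem_fc.1 hx e h1
    have h3 := mem_fc.1 hx c (show u c < 1 by rw [huc]; exact zero_lt_one)
    exact he (hN e ⟨x, h2, h3⟩)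
  have hZ : e ∉ Z := by
    intro heZ
    obtain ⟨x, hx⟩ := hfc
    exact he (hN e ⟨x, mem_fc.1 hx e heZ, mem_fc.1 hx c hcZ⟩)
  unfold dv
  split_ifs
  · rfl
  · rw [h0]; ring

/-- **level sets of `Fs`, moat at an edge** -/
theorem preconn_LS3 (M : Mo P c a Z p m) (hZ : Z = {c, p, m})
    (hN : ∀ e, (P e ∩ P c).Nonempty → e ∈ N) (ht0 : 0 < t) (ht1 : t < 1) :
    IsPreconnected (LS P b N c a Z t) := by
  classical
  have hca : c ≠ a := fun h' => M.aZ (h' ▸ M.cZ)
  have hfcZ : (fc P Z).Nonempty := M.fcp.mono (fc_anti fun e he => Or.inl he)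
  have hpZ : p ∈ Z := by rw [hZ]; simp
  have hmZ : m ∈ Z := by rw [hZ]; simp
  have hNZ : ∀ e ∈ Z, e ∈ N := by
    intro e he
    obtain ⟨x, hx⟩ := hfcZ
    exact hN e ⟨x, mem_fc.1 hx e he, mem_fc.1 hx c M.cZ⟩
  have hpN := hNZ p hpZ
  have hmN := hNZ m hmZ
  have htI : t ∈ Icc (-1 : ℝ) 1 := ⟨by linarith, ht1.le⟩
  have htI' : -t ∈ Icc (-1 : ℝ) 1 := ⟨by linarith, by linarith⟩
  have hFsp : ∀ s, Fs N a Z (uu a Z p m s t) = t := fun s => by
    rw [Fs_uu M.pa M.ma M.pm hpN hmN, abs_of_pos ht0]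
  have hFsm : ∀ s, Fs N a Z (uu a Z p m s (-t)) = t := fun s => by
    rw [Fs_uu M.pa M.ma M.pm hpN hmN, abs_neg, abs_of_pos ht0]
  -- values
  have vpp : ∀ s, uu a Z p m s t p = t := fun s => by
    unfold uu; rw [if_neg M.pa, if_pos hpZ, if_pos rfl, max_eq_left ht0.le]
  have vpm : ∀ s, uu a Z p m s t m = 0 := fun s => by
    unfold uu
    rw [if_neg M.ma, if_pos hmZ, if_neg M.pm.symm, if_pos rfl, max_eq_right (by linarith)]
  have vmp : ∀ s, uu a Z p m s (-t) p = 0 := fun s => by
    unfold uu; rw [if_neg M.pa, if_pos hpZ, if_pos rfl, max_eq_right (by linarith)]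
  have vmm : ∀ s, uu a Z p m s (-t) m = t := fun s => by
    unfold uu
    rw [if_neg M.ma, if_pos hmZ, if_neg M.pm.symm, if_pos rfl, neg_neg, max_eq_left ht0.le]
  have vout : ∀ s w, ∀ e, e ≠ a → e ∉ Z → uu a Z p m s w e = 1 := by
    intro s w e he heZ
    unfold uu
    rw [if_neg he, if_neg heZ, if_neg (by rintro rfl; exact heZ hpZ),
      if_neg (by rintro rfl; exact heZ hmZ), sub_zero]
  have h01 : (0 : ℝ) ∈ Icc (0 : ℝ) 1 := ⟨le_rfl, zero_le_one⟩
  refine preconn_of_Jn (x := T b (uu a Z p m 0 t)) ?_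
  -- the two ends
  have hend : Jn (LS P b N c a Z t) (T b (uu a Z p m 0 (-t))) (T b (uu a Z p m 0 t)) := by
    refine seg F (M.uu_mem h01 htI') (M.uu_mem h01 htI) ?_ hca.symm M.uu_c M.uu_c uu_a uu_a
      (hFsm 0) (hFsp 0)
    intro e he
    by_cases hea : e = a
    · rw [hea, uu_a]; exact zero_lt_one
    · by_cases heZ : e ∈ Z
      · rw [hZ] at heZ
        rcases heZ with h | h | h
        · rw [h, M.uu_c]; exact zero_lt_one
        · rw [h, vmp]; exact zero_lt_one
        · rw [show e = m from h, vmm]; exact ht1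
      · rw [vout 0 t e hea heZ] at he
        exact absurd he (lt_irrefl _)
  intro q hq
  obtain ⟨⟨hqc, d, hdc, hqd⟩, hqt⟩ := hq
  have hqL := F.sub c hqc
  have hK := F.sc_mem_K hqL
  set u := sc P b q with hu
  have hTu : T b u = q := F.T_sc hqL
  have huc : u c = 0 := (F.sc_eq_zero hqL).2 hqc
  have hud : u d = 0 := (F.sc_eq_zero hqL).2 hqd
  have hlt : ∀ e, dv a Z u e < 1 := fun e =>
    (dv_le_Fs F hN M.cZ hfcZ hK huc e).trans_lt (by rw [hqt]; exact ht1)
  have hp1 : u p < 1 := by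
    have := hlt p
    rwa [dv_in M.pa hpZ] at this
  have hm1 : u m < 1 := by
    have := hlt m
    rwa [dv_in M.ma hmZ] at this
  have hc1 : u c < 1 := by rw [huc]; exact zero_lt_one
  have hua : u a ∈ Icc (0 : ℝ) 1 := hK.1 a
  -- the set `{v < 1}` of the model points
  have hmod : ∀ w, ∀ e, uu a Z p m (u a) w e < 1 → u e < 1 := by
    intro w e he
    by_cases hea : e = a
    · rw [hea] at he ⊢; rwa [uu_a] at he
    · by_cases heZ : e ∈ Z
      · rw [hZ] at heZ
        rcases heZ with h | h | h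
        · rw [h]; exact hc1
        · rw [h]; exact hp1
        · rw [show e = m from h]; exact hm1
      · rw [vout _ _ e hea heZ] at he
        exact absurd he (lt_irrefl _)
  rw [← hTu]
  have hdZ : d = a ∨ d ∈ Z := by
    by_contra h
    push Not at h
    have := hlt d
    rw [dv_out h.1 h.2, hud] at this
    linarith
  -- moving along the sides
  have hside : ∀ w ∈ Icc (-1 : ℝ) 1, Fs N a Z (uu a Z p m 0 w) = t →
      Fs N a Z (uu a Z p m (u a) w) = t → ∀ g, g ≠ c → uu a Z p m 0 w g = 0 →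
      uu a Z p m (u a) w g = 0 →
      Jn (LS P b N c a Z t) (T b (uu a Z p m (u a) w)) (T b (uu a Z p m 0 w)) := by
    intro w hw h1 h2 g hg h3 h4
    refine (seg F (M.uu_mem h01 hw) (M.uu_mem hua hw) ?_ hg M.uu_c M.uu_c h3 h4 h1 h2).symm
    intro e he
    by_cases hea : e = a
    · rw [hea, uu_a]; exact zero_lt_one
    · unfold uu at he ⊢
      rw [if_neg hea] at he ⊢
      exact he
  rcases hdZ with hd | hd
  · -- `u a = 0`
    rw [hd] at hud
    have h1 := hmod t
    rw [hud] at h1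
    exact seg F hK (M.uu_mem h01 htI) h1 hca.symm huc M.uu_c hud uu_a hqt (hFsp 0)
  · rw [hZ] at hd
    rcases hd with h | h | h
    · exact absurd h hdc
    · -- `u p = 0`
      rw [h] at hud
      refine Jn.trans (seg F hK (M.uu_mem hua htI') (hmod _) M.pc huc M.uu_c hud (vmp _) hqt
        (hFsm _)) (Jn.trans ?_ hend)
      exact hside (-t) htI' (hFsm 0) (hFsm _) p M.pc (vmp 0) (vmp _)
    · -- `u m = 0`
      rw [show d = m from h] at hud
      refine Jn.trans (seg F hK (M.uu_mem hua htI) (hmod _) M.mc huc M.uu_c hud (vpm _) hqt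
        (hFsp _)) ?_
      exact hside t htI (hFsp 0) (hFsp _) m M.mc (vpm 0) (vpm _)

open Classical in
/-- the coordinates of the image of a point of the relative boundary of the facet `{c, d}` -/
noncomputable def psi (N : Finset I) (a : I) (Z : Set I) (d : I) (t : ℝ) (v : I → ℝ) (e : I) : ℝ :=
  if e = a then v a else if e ∈ Z then (if e = d then t * max 0 (1 - Fs N a Z v) else 0)
    else 1 - t * (1 - v e) / max (Fs N a Z v) 1

omit F [CompleteSpace E] in
theorem Fs_psi {d : I} {v : I → ℝ} (hdN : d ∈ N) (hda : d ≠ a) (hdZ : d ∈ Z)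
    (hv : ∀ e ∈ Z, v e = 0) : Fs N a Z (psi N a Z d t v) = t := by
  classical
  set Y := Fs N a Z v with hY
  have h1 : ∀ e ∈ N, dv a Z (psi N a Z d t v) e =
      (if e = d then t * max 0 (1 - Y) else 0) + t / max Y 1 * dv a Z v e := by
    intro e _
    unfold dv psi
    by_cases hea : e = a
    · rw [if_pos hea, if_pos hea, if_neg (by rw [hea]; exact hda.symm)]; ring
    · rw [if_neg hea, if_neg hea, if_neg hea]
      by_cases heZ : e ∈ Z
      · rw [if_pos heZ, if_pos heZ, if_pos heZ, hv e heZ, mul_zero, add_zero]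
      · rw [if_neg heZ, if_neg heZ, if_neg heZ, if_neg (by rintro rfl; exact heZ hdZ)]
        ring
  have h2 : Fs N a Z (psi N a Z d t v) = t * max 0 (1 - Y) + t / max Y 1 * Y := by
    unfold Fs
    rw [Finset.sum_congr rfl h1, Finset.sum_add_distrib, Finset.sum_ite_eq' N d, if_pos hdN,
      ← Finset.mul_sum]
    rfl
  rw [h2]
  rcases le_total Y 1 with h | h
  · rw [max_eq_right h, max_eq_right (by linarith)]; ring
  · rw [max_eq_left h, max_eq_left (by linarith)]
    field_simp
    ring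

/-- **level sets of `Fs`, moat over a side of a facet** -/
theorem preconn_LS2 (M : Mo P c a Z p m) {d : I} (hdc : d ≠ c) (hZ : Z = {c, d})
    (hN : ∀ e, (P e ∩ P c).Nonempty → e ∈ N)
    (hrel : IsPreconnected {y | y ∈ fc P Z ∧ act P y ≠ Z}) (ht0 : 0 < t) (ht1 : t < 1) :
    IsPreconnected (LS P b N c a Z t) := by
  classical
  have hca : c ≠ a := fun h' => M.aZ (h' ▸ M.cZ)
  have hdZ : d ∈ Z := by rw [hZ]; simp
  have hda : d ≠ a := fun h' => M.aZ (h' ▸ hdZ)
  have hfcZ : (fc P Z).Nonempty := M.fcp.mono (fc_anti fun e he => Or.inl he)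
  have hfca : (fc P (insert a Z)).Nonempty := M.fcp.mono (fc_anti (by
    rintro e (h | h)
    · exact Or.inr (Or.inl h)
    · exact Or.inl h))
  have hNZ : ∀ e ∈ Z, e ∈ N := by
    intro e he
    obtain ⟨x, hx⟩ := hfcZ
    exact hN e ⟨x, mem_fc.1 hx e he, mem_fc.1 hx c M.cZ⟩
  have hcN := hNZ c M.cZ
  have hdN := hNZ d hdZ
  -- the base point
  let v0 : I → ℝ := fun e => if e = d then t else if e = c ∨ e = a then 0 else 1
  have v0d : v0 d = t := if_pos rfl
  have v0c : v0 c = 0 := by show (if c = d then t else if c = c ∨ c = a then 0 else 1) = (0 : ℝ)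
                            rw [if_neg hdc.symm, if_pos (Or.inl rfl)]
  have v0a : v0 a = 0 := by show (if a = d then t else if a = c ∨ a = a then 0 else 1) = (0 : ℝ)
                            rw [if_neg hda.symm, if_pos (Or.inr rfl)]
  have v0o : ∀ e, e ≠ a → e ∉ Z → v0 e = 1 := by
    intro e hea heZ
    show (if e = d then t else if e = c ∨ e = a then 0 else 1) = (1 : ℝ)
    rw [if_neg (by rintro rfl; exact heZ hdZ), if_neg]
    rintro (h | h)
    · exact heZ (h ▸ M.cZ)
    · exact hea h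
  have v0K : v0 ∈ K P := by
    refine ⟨fun e => ?_, ⟨c, v0c⟩, hfca.mono (fc_anti ?_)⟩
    · show 0 ≤ (if e = d then t else if e = c ∨ e = a then 0 else 1) ∧
        (if e = d then t else if e = c ∨ e = a then 0 else 1) ≤ (1 : ℝ)
      split_ifs
      · exact ⟨ht0.le, ht1.le⟩
      · exact ⟨le_rfl, zero_le_one⟩
      · exact ⟨zero_le_one, le_rfl⟩
    · intro e he
      by_contra h
      have h1 : e ≠ a := fun h' => h (Or.inl h')
      have h2 : e ∉ Z := fun h' => h (Or.inr h')
      have he' : v0 e < 1 := he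
      rw [v0o e h1 h2] at he'
      exact lt_irrefl _ he'
  have v0F : Fs N a Z v0 = t := by
    have h1 : ∀ e ∈ N, dv a Z v0 e = if e = d then t else 0 := by
      intro e _
      by_cases hea : e = a
      · rw [hea, dv_self, if_neg hda.symm]
      · by_cases heZ : e ∈ Z
        · rw [dv_in hea heZ]
          rw [hZ] at heZ
          rcases heZ with h | h
          · rw [h, v0c, if_neg hdc.symm]
          · rw [show e = d from h, v0d, if_pos rfl]
        · rw [dv_out hea heZ, v0o e hea heZ, if_neg (by rintro rfl; exact heZ hdZ)]; ring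
    unfold Fs
    rw [Finset.sum_congr rfl h1, Finset.sum_ite_eq' N d, if_pos hdN]
  refine preconn_of_Jn (x := T b v0) ?_
  -- points with `u a = 0`
  have hA : ∀ u ∈ K P, u c = 0 → u a = 0 → Fs N a Z u = t →
      Jn (LS P b N c a Z t) (T b u) (T b v0) := by
    intro u hK huc hua hut
    have hd1 : u d < 1 := by
      have := dv_le_Fs (a := a) F hN M.cZ hfcZ hK huc d
      rw [dv_in hda hdZ, hut] at this
      exact this.trans_lt ht1
    refine seg F hK v0K ?_ hca.symm huc v0c hua v0a hut v0F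
    intro e he
    by_cases hea : e = a
    · rw [hea, hua]; exact zero_lt_one
    · by_cases heZ : e ∈ Z
      · rw [hZ] at heZ
        rcases heZ with h | h
        · rw [h, huc]; exact zero_lt_one
        · rw [show e = d from h]; exact hd1
      · rw [v0o e hea heZ] at he
        exact absurd he (lt_irrefl _)
  -- points with `u d = 0`, `u a < 1`
  have hB : ∀ u ∈ K P, u c = 0 → u d = 0 → u a < 1 → Fs N a Z u = t →
      Jn (LS P b N c a Z t) (T b u) (T b v0) := by
    intro u hK huc hud hua hut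
    let u' : I → ℝ := Function.update u a 0
    have hu'a : u' a = 0 := Function.update_self _ _ _
    have hu'e : ∀ e, e ≠ a → u' e = u e := fun e he => Function.update_of_ne he _ _
    have hu'K : u' ∈ K P := update_mem_K hK hua ⟨c, hca, huc⟩ le_rfl one_pos
    have hu'F : Fs N a Z u' = t := by
      rw [← hut]
      unfold Fs
      refine Finset.sum_congr rfl fun e _ => ?_
      unfold dv
      by_cases hea : e = a
      · rw [if_pos hea, if_pos hea]
      · rw [if_neg hea, if_neg hea, hu'e e hea]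
    refine Jn.trans (seg F hK hu'K ?_ hdc huc ((hu'e c hca).trans huc) hud
      ((hu'e d hda).trans hud) hut hu'F) (hA u' hu'K ((hu'e c hca).trans huc) hu'a hu'F)
    intro e he
    by_cases hea : e = a
    · rw [hea]; exact hua
    · rwa [hu'e e hea] at he
  -- the image of the relative boundary
  set RB := {y | y ∈ fc P Z ∧ act P y ≠ Z} with hRB
  have hRL : RB ⊆ La := fun y hy => F.sub c (mem_fc.1 hy.1 c M.cZ)
  have hRz : ∀ y ∈ RB, ∀ e ∈ Z, sc P b y e = 0 := fun y hy e he =>
    (F.sc_eq_zero (hRL hy)).2 (mem_fc.1 hy.1 e he)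
  have hFs0 : ∀ y ∈ La, 0 ≤ Fs N a Z (sc P b y) := fun y hy =>
    Finset.sum_nonneg fun e _ => (dv_mem (F.sc_mem_K hy).1 e).1
  have hpv : ∀ (v : I → ℝ), v ∈ K P → (∀ e ∈ Z, v e = 0) → 0 ≤ Fs N a Z v →
      psi N a Z d t v ∈ K P ∧ psi N a Z d t v c = 0 := by
    intro v hK hv0 hY
    set Y := Fs N a Z v with hYd
    have hc0 : psi N a Z d t v c = 0 := by
      unfold psi; rw [if_neg hca, if_pos M.cZ, if_neg hdc.symm]
    have hm1 : (1 : ℝ) ≤ max Y 1 := le_max_right _ _
    have hm0 : (0 : ℝ) < max Y 1 := lt_of_lt_of_le one_pos hm1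
    refine ⟨⟨fun e => ?_, ⟨c, hc0⟩, hK.2.2.mono (fc_anti ?_)⟩, hc0⟩
    · unfold psi
      rw [← hYd]
      split_ifs
      · exact hK.1 a
      · have h1 : (0 : ℝ) ≤ max 0 (1 - Y) := le_max_left _ _
        have h2 : max 0 (1 - Y) ≤ 1 := max_le zero_le_one (by linarith)
        exact ⟨mul_nonneg ht0.le h1, by nlinarith⟩
      · exact ⟨le_rfl, zero_le_one⟩
      · have h1 := hK.1 e
        have h2 : 0 ≤ t * (1 - v e) / max Y 1 :=
          div_nonneg (mul_nonneg ht0.le (by linarith [h1.2])) hm0.le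
        have h3 : t * (1 - v e) / max Y 1 ≤ 1 := by
          rw [div_le_one hm0]
          nlinarith [h1.1, h1.2]
        exact ⟨by linarith, by linarith⟩
    · intro e he
      have he' : psi N a Z d t v e < 1 := he
      show v e < 1
      by_cases hea : e = a
      · rw [hea]; unfold psi at he'; rwa [if_pos hea] at he'
      · by_cases heZ : e ∈ Z
        · rw [hv0 e heZ]; exact zero_lt_one
        · unfold psi at he'
          rw [if_neg hea, if_neg heZ] at he'
          by_contra h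
          have h1 : v e = 1 := le_antisymm (hK.1 e).2 (not_lt.1 h)
          rw [h1, sub_self, mul_zero, zero_div, sub_zero] at he'
          exact lt_irrefl _ he'
  have hmemS : ∀ y ∈ RB, T b (psi N a Z d t (sc P b y)) ∈ LS P b N c a Z t := by
    intro y hy
    have hyL := hRL hy
    have hK := F.sc_mem_K (b := b) hyL
    obtain ⟨h1, h2⟩ := hpv _ hK (hRz y hy) (hFs0 y hyL)
    have hFF := Fs_psi (t := t) hdN hda hdZ (hRz y hy)
    -- a third cell
    obtain ⟨g, hgZ, hg⟩ : ∃ g ∉ Z, y ∈ P g := by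
      by_contra hcon
      push Not at hcon
      refine hy.2 (Subset.antisymm ?_ fun e he => mem_fc.1 hy.1 e he)
      intro e he
      by_contra heZ
      exact hcon e heZ he
    have hg0 : sc P b y g = 0 := (F.sc_eq_zero hyL).2 hg
    by_cases hga : g = a
    · refine mem_LS F h1 (d := a) hca.symm h2 ?_ hFF
      unfold psi
      rw [if_pos rfl, ← hga, hg0]
    · refine mem_LS F h1 (d := d) hdc h2 ?_ hFF
      have h3 := dv_le_Fs (a := a) F hN M.cZ hfcZ hK (hRz y hy c M.cZ) g
      rw [dv_out hga hgZ, hg0, sub_zero] at h3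
      unfold psi
      rw [if_neg hda, if_pos hdZ, if_pos rfl, max_eq_left (by linarith), mul_zero]
  have hcont : ContinuousOn (fun y => T b (psi N a Z d t (sc P b y))) RB := by
    refine (continuousOn_T F).comp ?_ fun y hy =>
      (hpv _ (F.sc_mem_K (hRL hy)) (hRz y hy) (hFs0 y (hRL hy))).1
    have hs : ∀ e, ContinuousOn (fun y => sc P b y e) RB := fun e =>
      (continuousOn_sc_apply F e).mono hRL
    have hFc : ContinuousOn (fun y => Fs N a Z (sc P b y)) RB := by
      unfold Fs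
      refine continuousOn_finsetSum _ fun e _ => ?_
      unfold dv
      split_ifs
      · exact continuousOn_const
      · exact hs e
      · exact continuousOn_const.sub (hs e)
    refine continuousOn_pi.2 fun e => ?_
    unfold psi
    split_ifs
    · exact hs a
    · exact continuousOn_const.mul (continuousOn_const.sup (continuousOn_const.sub hFc))
    · exact continuousOn_const
    · refine continuousOn_const.sub ((continuousOn_const.mul (continuousOn_const.sub (hs e))).div
        (hFc.sup continuousOn_const) fun y _ => ?_)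
      exact (lt_of_lt_of_le one_pos (le_max_right _ _)).ne'
  -- the image is joined to the base point
  have hC : ∀ y ∈ RB, Jn (LS P b N c a Z t) (T b (psi N a Z d t (sc P b y))) (T b v0) := by
    intro y hy
    obtain ⟨x, hx⟩ := hfca
    have hxR : x ∈ RB := by
      refine ⟨fc_anti (subset_insert a Z) hx, fun h => M.aZ ?_⟩
      rw [← h]
      exact mem_fc.1 hx a (mem_insert a Z)
    have hxK := hpv _ (F.sc_mem_K (hRL hxR)) (hRz x hxR) (hFs0 x (hRL hxR))
    have hxa : psi N a Z d t (sc P b x) a = 0 := by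
      unfold psi
      rw [if_pos rfl]
      exact (F.sc_eq_zero (hRL hxR)).2 (mem_fc.1 hx a (mem_insert a Z))
    have h1 := hA _ hxK.1 hxK.2 hxa (Fs_psi hdN hda hdZ (hRz x hxR))
    refine Jn.trans ⟨(fun y => T b (psi N a Z d t (sc P b y))) '' RB, ?_, ⟨y, hy, rfl⟩,
      ⟨x, hxR, rfl⟩, hrel.image _ hcont⟩ h1
    rintro _ ⟨z, hz, rfl⟩
    exact hmemS z hz
  intro q hq
  obtain ⟨⟨hqc, g, hgc, hqg⟩, hqt⟩ := hq
  have hqL := F.sub c hqc
  have hK := F.sc_mem_K (b := b) hqL
  set u := sc P b q with hu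
  have hTu : T b u = q := F.T_sc hqL
  have huc : u c = 0 := (F.sc_eq_zero hqL).2 hqc
  have hug : u g = 0 := (F.sc_eq_zero hqL).2 hqg
  rw [← hTu]
  have hg : g = a ∨ g = d := by
    by_contra h
    push Not at h
    have h1 : g ∉ Z := by
      rw [hZ]
      rintro (h' | h')
      · exact hgc h'
      · exact h.2 h'
    have := dv_le_Fs (a := a) F hN M.cZ hfcZ hK huc g
    rw [dv_out h.1 h1, hug, hqt] at this
    linarith
  rcases hg with h | h
  · rw [h] at hug
    exact hA u hK huc hug hqt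
  rw [h] at hug
  rcases (hK.1 a).2.lt_or_eq with h1 | h1
  · exact hB u hK huc hug h1 hqt
  -- the last case
  have hNne : N.Nonempty := ⟨c, hcN⟩
  obtain ⟨g, hgN, hgmax⟩ := N.exists_max_image (fun e => dv a Z u e) hNne
  set μ := dv a Z u g with hμ
  have hμ0 : 0 < μ := by
    by_contra hcon
    have h2 : Fs N a Z u ≤ 0 := Finset.sum_nonpos fun e he => (hgmax e he).trans (not_lt.1 hcon)
    linarith
  have hμt : μ ≤ t := by
    rw [← hqt]
    exact dv_le_Fs (a := a) F hN M.cZ hfcZ hK huc g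
  have huZ : ∀ e ∈ Z, u e = 0 := by
    intro e he
    rw [hZ] at he
    rcases he with h' | h'
    · rw [h', huc]
    · rw [show e = d from h', hug]
  have hga : g ≠ a := by
    intro h'
    rw [h', dv_self] at hμ
    exact hμ0.ne' hμ
  have hgZ : g ∉ Z := by
    intro h'
    rw [dv_in hga h', huZ g h'] at hμ
    exact hμ0.ne' hμ
  have hμg : μ = 1 - u g := by rw [hμ, dv_out hga hgZ]
  -- outside `N` everything is `1`
  have hoff : ∀ e, e ∉ N → u e = 1 := by
    intro e he
    by_contra h'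
    have h2 : u e < 1 := lt_of_le_of_ne (hK.1 e).2 h'
    obtain ⟨x, hx⟩ := hK.2.2
    exact he (hN e ⟨x, mem_fc.1 hx e h2,
      mem_fc.1 hx c (show u c < 1 by rw [huc]; exact zero_lt_one)⟩)
  have hle : ∀ e, e ≠ a → e ∉ Z → 1 - u e ≤ μ := by
    intro e hea heZ
    by_cases he : e ∈ N
    · have h' : dv a Z u e ≤ μ := hgmax e he
      rwa [dv_out hea heZ] at h'
    · rw [hoff e he, sub_self]; exact hμ0.le
  let v : I → ℝ := fun e => if e ∈ Z then 0 else 1 - (1 - u e) / μ
  have hvZ : ∀ e ∈ Z, v e = 0 := fun e he => if_pos he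
  have hvo : ∀ e, e ∉ Z → v e = 1 - (1 - u e) / μ := fun e he => if_neg he
  have hva : v a = 1 := by rw [hvo a M.aZ, h1]; simp
  have hvg : v g = 0 := by
    rw [hvo g hgZ, ← hμg, div_self hμ0.ne', sub_self]
  have hvK : v ∈ K P := by
    refine ⟨fun e => ?_, ⟨c, hvZ c M.cZ⟩, hK.2.2.mono (fc_anti ?_)⟩
    · by_cases heZ : e ∈ Z
      · rw [hvZ e heZ]; exact ⟨le_rfl, zero_le_one⟩
      · by_cases hea : e = a
        · rw [hea, hva]; exact ⟨zero_le_one, le_rfl⟩
        · rw [hvo e heZ]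
          have h2 := hle e hea heZ
          have h3 := (hK.1 e).2
          have h4 : (1 - u e) / μ ≤ 1 := (div_le_one hμ0).2 h2
          have h5 : 0 ≤ (1 - u e) / μ := div_nonneg (by linarith) hμ0.le
          exact ⟨by linarith, by linarith⟩
    · intro e he
      have he' : v e < 1 := he
      show u e < 1
      by_cases heZ : e ∈ Z
      · rw [huZ e heZ]; exact zero_lt_one
      · rw [hvo e heZ] at he'
        by_contra h'
        have h3 : u e = 1 := le_antisymm (hK.1 e).2 (not_lt.1 h')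
        rw [h3, sub_self, zero_div, sub_zero] at he'
        exact lt_irrefl _ he'
  have hvF : Fs N a Z v = t / μ := by
    rw [← hqt]
    unfold Fs
    rw [Finset.sum_div]
    refine Finset.sum_congr rfl fun e _ => ?_
    by_cases hea : e = a
    · rw [hea, dv_self, dv_self, zero_div]
    · by_cases heZ : e ∈ Z
      · rw [dv_in hea heZ, dv_in hea heZ, hvZ e heZ, huZ e heZ, zero_div]
      · rw [dv_out hea heZ, dv_out hea heZ, hvo e heZ]; ring
  have hyR : T b v ∈ RB := by
    have h2 := F.act_T hvK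
    refine ⟨mem_fc.2 fun e he => ?_, fun h3 => hgZ ?_⟩
    · have h4 : e ∈ act P (T b v) := by rw [h2]; exact hvZ e he
      exact h4
    · rw [← h3, h2]; exact hvg
  have hfin := hC _ hyR
  rw [F.sc_T hvK] at hfin
  have hpsi : psi N a Z d t v = u := by
    have hY1 : (1 : ℝ) ≤ t / μ := (one_le_div hμ0).2 hμt
    funext e
    unfold psi
    rw [hvF]
    by_cases hea : e = a
    · rw [if_pos hea, hva, hea, h1]
    · rw [if_neg hea]
      by_cases heZ : e ∈ Z
      · rw [if_pos heZ, huZ e heZ, max_eq_left (by linarith), mul_zero, ite_self]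
      · rw [if_neg heZ, hvo e heZ, max_eq_left hY1]
        have := ht0.ne'
        have := hμ0.ne'
        field_simp
        ring
  rw [hpsi] at hfin
  exact hfin

omit F in
/-- a moat has `Z = {c, p, m}` or `Z = {c, d}` -/
theorem Mo_cases (FF : Foam La P b 4) (M : Mo P c a Z p m) :
    Z = {c, p, m} ∨ ∃ d, d ≠ c ∧ Z = {c, d} := by
  classical
  have hca : c ≠ a := fun h' => M.aZ (h' ▸ M.cZ)
  have hfcZ : (fc P Z).Nonempty := M.fcp.mono (fc_anti fun e he => Or.inl he)
  have key : ∀ x, x ≠ a → x ≠ c → (fc P {e | e ∈ Z ∨ e = a ∨ e = x}).Nonempty →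
      ∀ y z w, y ∈ Z → z ∈ Z → w ∈ Z ∨ w = x → y ≠ c → z ≠ c → w ≠ c → y ≠ z → y ≠ w → z ≠ w →
      y ≠ a → z ≠ a → w ≠ a → False := by
    intro x hxa hxc hx y z w hy hz hw hyc hzc hwc hyz hyw hzw hya hza hwa
    refine Bar_106.ncard5 FF hx (a₁ := y) (a₂ := z) (a₃ := w) (a₄ := a) (a₅ := c)
      (Or.inl hy) (Or.inl hz) ?_ (Or.inr (Or.inl rfl)) (Or.inl M.cZ) ?_
    · rcases hw with h | h
      · exact Or.inl h
      · exact Or.inr (Or.inr h)
    · simp only [List.nodup_cons, List.mem_cons, List.not_mem_nil, or_false, not_or,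
        not_false_eq_true, List.nodup_nil, and_true]
      exact ⟨⟨hyz, hyw, hya, hyc⟩, ⟨hzw, hza, hzc⟩, ⟨hwa, hwc⟩, hca.symm⟩
  have hZa : ∀ e ∈ Z, e ≠ a := fun e he h => M.aZ (h ▸ he)
  obtain ⟨d, hd, hdc, hdp⟩ := M.wp
  obtain ⟨d', hd', hdc', hdm'⟩ := M.wm
  by_cases hp : p ∈ Z
  · left
    -- every element of `Z` is `c`, `p` or `d`
    have h1 : ∀ e ∈ Z, e = c ∨ e = p ∨ e = d := by
      intro e he
      by_contra hcon
      push Not at hcon
      exact key p M.pa M.pc M.fcp p d e hp hd (Or.inl he) M.pc hdc hcon.1 hdp.symm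
        hcon.2.1.symm hcon.2.2.symm (hZa p hp) (hZa d hd) (hZa e he)
    have hm : m = d := by
      by_contra hmd
      exact key m M.ma M.mc M.fcm p d m hp hd (Or.inr rfl) M.pc hdc M.mc hdp.symm M.pm
        (Ne.symm hmd) (hZa p hp) (hZa d hd) M.ma
    ext e
    constructor
    · intro he
      rcases h1 e he with h | h | h
      · simp [h]
      · simp [h]
      · simp [h, hm]
    · rintro (h | h | h)
      · rw [h]; exact M.cZ
      · rw [h]; exact hp
      · rw [show e = m from h, hm]; exact hd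
  · right
    refine ⟨d, hdc, ?_⟩
    ext e
    constructor
    · intro he
      by_contra hcon
      have hec : e ≠ c := fun h => hcon (by rw [h]; simp)
      have hed : e ≠ d := fun h => hcon (by rw [h]; simp)
      exact key p M.pa M.pc M.fcp d e p hd he (Or.inr rfl) hdc hec M.pc hed.symm hdp
        (fun h => hp (h ▸ he)) (hZa d hd) (hZa e he) M.pa
    · rintro (h | h)
      · rw [h]; exact M.cZ
      · rw [show e = d from h]; exact hd

/-- the level set is compact -/
theorem isCompact_LS : IsCompact (LS P b N c a Z t) := by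
  have h1 := isCompact_frontier' F c
  have h2 : {q | q ∈ P c ∧ ∃ d, d ≠ c ∧ q ∈ P d} ⊆ La := fun q hq => F.sub c hq.1
  have h3 : LS P b N c a Z t = {q | q ∈ P c ∧ ∃ d, d ≠ c ∧ q ∈ P d} ∩
      (fun y => Fs N a Z (sc P b y)) ⁻¹' {t} := by
    ext q
    exact ⟨fun h => ⟨h.1, h.2⟩, fun h => ⟨h.1, h.2⟩⟩
  rw [h3]
  have hFc : ContinuousOn (fun y => Fs N a Z (sc P b y)) {q | q ∈ P c ∧ ∃ d, d ≠ c ∧ q ∈ P d} := by
    unfold Fs
    refine continuousOn_finsetSum _ fun e _ => ?_
    unfold dv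
    split_ifs
    · exact continuousOn_const
    · exact (continuousOn_sc_apply F e).mono h2
    · exact continuousOn_const.sub ((continuousOn_sc_apply F e).mono h2)
  exact h1.of_isClosed_subset (hFc.preimage_isClosed_of_isClosed h1.isClosed isClosed_singleton)
    inter_subset_left

/-- the level set is nonempty -/
theorem LS_nonempty (M : Mo P c a Z p m) (hp : p ∈ N) (hm : m ∈ N) (ht0 : 0 ≤ t) (ht1 : t ≤ 1) :
    (LS P b N c a Z t).Nonempty := by
  have hx : ((1 / 2 : ℝ), t) ∈ Rct := ⟨⟨by norm_num, by norm_num⟩, ⟨by simp only; linarith, ht1⟩⟩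
  have h1 := M.gam_mem F hx
  have h2 := M.sc_gam F hx
  refine ⟨_, h1, ?_⟩
  rw [h2, Fs_uu M.pa M.ma M.pm hp hm]
  exact abs_of_nonneg ht0

end foam

section box

variable {κ : Type*} [Fintype κ] [Nonempty κ] {La : Set (κ → ℝ)} {G : Set (Bx κ)} {δ κ0 : ℝ}

/-- **the level sets of `Fs` are connected** -/
theorem preconn_LS (BF : BoxFoam La G δ κ0) (hLa : IsOpen La) (h3 : Fintype.card κ = 3) {c a p m : G}
    {Z : Set G} (M : Mo (Pc G) c a Z p m) {N : Finset G}
    (hN : ∀ e, (Pc G e ∩ Pc G c).Nonempty → e ∈ N) {t : ℝ} (ht0 : 0 < t) (ht1 : t < 1) :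
    IsPreconnected (LS (Pc G) (bc (F := G)) N c a Z t) := by
  have FF : Foam La (Pc G) (bc (F := G)) 4 := by
    have := foam BF hLa
    rwa [h3] at this
  rcases Mo_cases FF M with hZ | ⟨d, hdc, hZ⟩
  · exact preconn_LS3 FF M hZ hN ht0 ht1
  · have hfcZ : (fc (Pc G) Z).Nonempty := M.fcp.mono (fc_anti fun e he => Or.inl he)
    have hfin : Z.Finite := by rw [hZ]; simp
    have h := isPreconnected_relbd BF hLa hfin ⟨c, M.cZ⟩ hfcZ (by
      rw [hZ, ncard_pair hdc.symm, h3])
    exact preconn_LS2 FF M hdc hZ hN h.1 ht0 ht1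

end box

section phi

open Crest.Agent.R096.SkC1_961 (E3 FoamD)
open Crest.Agent.R096.Mbf_337 (sb)

variable {δ κ0 R c0 : ℝ} {La : Set E3} {Φ : FoamD δ κ0 R c0 La} {c a p m : Φ.F} {Z : Set Φ.F}
  {N : Finset Φ.F} {t : ℝ}

/-- **`{Fs = t}` on `∂P_c`, `0 < t < 1`: connected, compact, not empty** (input of `fs_level`) -/
theorem fs_conn (hLa : IsOpen La) (M : Mo (Pc Φ.F) c a Z p m)
    (hN : ∀ e, (Pc Φ.F e ∩ Pc Φ.F c).Nonempty → e ∈ N) (ht0 : 0 < t) (ht1 : t < 1) :
    IsPreconnected {q | q ∈ frontier c.1.set ∧ Fs N a Z (sb Φ q) = t} ∧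
      IsCompact {q | q ∈ frontier c.1.set ∧ Fs N a Z (sb Φ q) = t} ∧
      {q | q ∈ frontier c.1.set ∧ Fs N a Z (sb Φ q) = t}.Nonempty := by
  have FF := foam Φ.bf hLa
  have h1 : {q | q ∈ frontier c.1.set ∧ Fs N a Z (sb Φ q) = t} =
      LS (Pc Φ.F) (bc (F := Φ.F)) N c a Z t := by
    rw [Exa_560.frontier_c Φ hLa c]; rfl
  have hmem : ∀ x, (fc (Pc Φ.F) {e | e ∈ Z ∨ e = a ∨ e = x}).Nonempty → x ∈ N := by
    rintro x ⟨y, hy⟩
    exact hN x ⟨y, mem_fc.1 hy x (Or.inr (Or.inr rfl)), mem_fc.1 hy c (Or.inl M.cZ)⟩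
  rw [h1]
  exact ⟨preconn_LS Φ.bf hLa (by simp) M hN ht0 ht1, isCompact_LS FF,
    LS_nonempty FF M (hmem p M.fcp) (hmem m M.fcm) ht0.le ht1.le⟩

end phi

end Crest.Agent.R096.Bar2b_163

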