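/-
helper731, row 96, leaf U7 BASIC, part 2: the indicatrix for absolutely continuous functions and
for Sobolev functions on generic segments; generic levels; equally spaced levels (Riemann sums of
the indicatrix converge in mean).
-/
import Mathlib
import Crest.Agent.R096.Bas1_731
import Crest.Agent.R96.Acl3_392

set_option autoImplicit false
set_option linter.unusedSectionVars false

open MeasureTheory Set Filter
open scoped ENNReal Topology

namespace Crest.Agent.R096.Bas_731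

open Crest.Agent.R96.Acl_392

noncomputable section

/-- increments given by an integral -/
theorem dom_of_integral {g h : ℝ → ℝ} {a b : ℝ} (hh : IntegrableOn h (Icc a b))
    (hg : ∀ x y, a ≤ x → x ≤ y → y ≤ b → g y - g x = ∫ τ in x..y, h τ) :
    Dom g (volume.withDensity fun τ => ‖h τ‖ₑ) a b := by
  intro x y hx hxy hy
  rw [hg x y hx hxy hy, withDensity_apply _ measurableSet_Ioc, intervalIntegral.integral_of_le hxy,
    ← Real.norm_eq_abs, ofReal_norm_eq_enorm]
  exact enorm_integral_le_lintegral_enorm _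

theorem ae_finite_ac {g h : ℝ → ℝ} {a b : ℝ} (hgc : ContinuousOn g (Icc a b))
    (hh : IntegrableOn h (Icc a b))
    (hg : ∀ x y, a ≤ x → x ≤ y → y ≤ b → g y - g x = ∫ τ in x..y, h τ) :
    ∀ᵐ y : ℝ, (Icc a b ∩ g ⁻¹' {y}).Finite := by
  apply ae_finite hgc (dom_of_integral hh hg)
  rw [withDensity_apply _ measurableSet_Ioc]
  exact (hh.mono_set Ioc_subset_Icc_self).2.ne

theorem lintegral_cnt_ac {g h : ℝ → ℝ} {a b : ℝ} (hgc : ContinuousOn g (Icc a b))
    (hh : IntegrableOn h (Icc a b))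
    (hg : ∀ x y, a ≤ x → x ≤ y → y ≤ b → g y - g x = ∫ τ in x..y, h τ) :
    ∫⁻ y, cnt g (Icc a b) y ≤ ∫⁻ τ in Ioc a b, ‖h τ‖ₑ := by
  have := lintegral_cnt_Icc_le hgc (dom_of_integral hh hg)
  rwa [withDensity_apply _ measurableSet_Ioc] at this

section Seg

variable {E : Type*} [NormedAddCommGroup E] [NormedSpace ℝ E]

theorem segIn_mono {Ω : Set E} {e x : E} {s t s' t' : ℝ} (hs : s ≤ s') (ht : t' ≤ t)
    (h : x ∈ segIn Ω e s t) : x ∈ segIn Ω e s' t' := fun τ hτ => h τ ⟨hs.trans hτ.1, hτ.2.trans ht⟩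

/-- the function `v` along the segment -/
def al (v : E → ℝ) (x e : E) (τ : ℝ) : ℝ := v (x + τ • e)

theorem continuousOn_al {Ω : Set E} {v : E → ℝ} (hv : ContinuousOn v Ω) {e x : E} {s t : ℝ}
    (h : x ∈ segIn Ω e s t) : ContinuousOn (al v x e) (Icc s t) := by
  unfold al
  apply hv.comp
  · exact (continuous_const.add (continuous_id.smul continuous_const)).continuousOn
  · exact fun τ hτ => h τ hτ

theorem al_increment {Ω : Set E} {v g : E → ℝ} {e x : E} {s t : ℝ} (h : ACLat Ω v g e x)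
    (hx : x ∈ segIn Ω e s t) :
    ∀ a b, s ≤ a → a ≤ b → b ≤ t → al v x e b - al v x e a = ∫ τ in a..b, g (x + τ • e) :=
  fun a b ha hab hb => (h a b hab (segIn_mono ha hb hx)).2

/-- the number of crossings of the segment with the level `y`, integrated over the levels -/
theorem lintegral_cnt_seg {Ω : Set E} {v g : E → ℝ} (hv : ContinuousOn v Ω) {e x : E} {s t : ℝ}
    (h : ACLat Ω v g e x) (hst : s ≤ t) (hx : x ∈ segIn Ω e s t) :
    ∫⁻ y, cnt (al v x e) (Icc s t) y ≤ ∫⁻ τ in Ioc s t, ‖g (x + τ • e)‖ₑ :=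
  lintegral_cnt_ac (continuousOn_al hv hx) (h s t hst hx).1 (al_increment h hx)

theorem ae_finite_seg {Ω : Set E} {v g : E → ℝ} (hv : ContinuousOn v Ω) {e x : E} {s t : ℝ}
    (h : ACLat Ω v g e x) (hst : s ≤ t) (hx : x ∈ segIn Ω e s t) :
    ∀ᵐ y : ℝ, (Icc s t ∩ al v x e ⁻¹' {y}).Finite :=
  ae_finite_ac (continuousOn_al hv hx) (h s t hst hx).1 (al_increment h hx)

/-- **generic levels**: for a.e. level, no point of a countable set is on it and countably many
segments meet it in finitely many points. -/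
theorem ae_level {Ω : Set E} {v : E → ℝ} (hv : ContinuousOn v Ω) {P : Set E} (hP : P.Countable)
    {ι : Type*} [Countable ι] {g : ι → E → ℝ} {c e : ι → E} {s t : ι → ℝ} (hst : ∀ i, s i ≤ t i)
    (h : ∀ i, c i ∈ segIn Ω (e i) (s i) (t i) → ACLat Ω v (g i) (e i) (c i)) :
    ∀ᵐ y : ℝ, (∀ p ∈ P, v p ≠ y) ∧
      ∀ i, c i ∈ segIn Ω (e i) (s i) (t i) → (Icc (s i) (t i) ∩ al v (c i) (e i) ⁻¹' {y}).Finite := by
  have h1 : ∀ᵐ y : ℝ, y ∉ v '' P := by
    have : (volume : Measure ℝ) (v '' P) = 0 := (hP.image v).measure_zero _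
    exact compl_mem_ae_iff.2 this
  have h2 : ∀ᵐ y : ℝ, ∀ i, c i ∈ segIn Ω (e i) (s i) (t i) →
      (Icc (s i) (t i) ∩ al v (c i) (e i) ⁻¹' {y}).Finite := by
    rw [ae_all_iff]
    intro i
    by_cases hi : c i ∈ segIn Ω (e i) (s i) (t i)
    · filter_upwards [ae_finite_seg hv (h i hi) (hst i) hi] with y hy _ using hy
    · exact Eventually.of_forall fun y hy => absurd hy hi
  filter_upwards [h1, h2] with y hy1 hy2
  exact ⟨fun p hp he => hy1 ⟨p, hp, he⟩, hy2⟩

end Seg

/-- a continuous function on a compact interval with finitely many zeros: the positivity set is a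
finite union of intervals (finitely many sign changes) -/
theorem finite_pos_components {g : ℝ → ℝ} {a b y : ℝ} (hg : ContinuousOn g (Icc a b))
    (hf : (Icc a b ∩ g ⁻¹' {y}).Finite) :
    ∃ F : Finset ℝ, (F : Set ℝ) ⊆ Icc a b ∧ ∀ I : Set ℝ, I ⊆ Icc a b → I.OrdConnected →
      Disjoint I (F : Set ℝ) → (∀ x ∈ I, y < g x) ∨ (∀ x ∈ I, g x < y) := by
  refine ⟨hf.toFinset, ?_, ?_⟩
  · intro x hx
    have := hf.mem_toFinset.1 hx
    exact this.1
  · intro I hI hoc hd
    have hne : ∀ x ∈ I, g x ≠ y := by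
      intro x hx he
      exact Set.disjoint_left.1 hd hx (hf.mem_toFinset.2 ⟨hI hx, he⟩)
    have hpre : IsPreconnected (g '' I) := hoc.isPreconnected.image g (hg.mono hI)
    by_contra hcon
    push Not at hcon
    obtain ⟨⟨x, hx, hxy⟩, ⟨x', hx', hxy'⟩⟩ := hcon
    have h1 : g x < y := lt_of_le_of_ne hxy (hne x hx)
    have h2 : y < g x' := lt_of_le_of_ne hxy' (hne x' hx').symm
    have h3 : y ∈ g '' I := hpre.ordConnected.out ⟨x, hx, rfl⟩ ⟨x', hx', rfl⟩ ⟨h1.le, h2.le⟩
    obtain ⟨z, hz, hzy⟩ := h3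
    exact hne z hz hzy

end

end Crest.Agent.R096.Bas_731
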