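/-
helper731, row 96, leaf U7 BASIC, part 3: equally spaced levels.  For finitely many integrable
counting functions `N i` and all large `m` there is an offset `θ` such that the levels
`(k + θ) / m` avoid a given null set and `∑ k, N i ((k + θ) / m) ≤ m (∫ N i + ε)`.
-/
import Mathlib
import Crest.Agent.R096.Bas2_731
import Crest.Agent.R96.Poi2_392

set_option autoImplicit false
set_option linter.unusedSectionVars false

open MeasureTheory Set Filter
open scoped ENNReal Topology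

namespace Crest.Agent.R096.Bas_731

noncomputable section

/-- the `k`-th level -/
def lev (m : ℕ) (θ : ℝ) (k : ℤ) : ℝ := (k + θ) / m

/-- the `k`-th cell of levels -/
def cell (m : ℕ) (k : ℤ) : Set ℝ := Ico ((k : ℝ) / m) ((k + 1 : ℝ) / m)

theorem lev_mem_cell {m : ℕ} (hm : 0 < m) {θ : ℝ} {k : ℤ} : lev m θ k ∈ cell m k ↔ θ ∈ Ico (0:ℝ) 1 := by
  have hm' : (0:ℝ) < m := by exact_mod_cast hm
  unfold lev cell
  rw [mem_Ico, mem_Ico, div_le_div_iff_of_pos_right hm', div_lt_div_iff_of_pos_right hm']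
  constructor
  · rintro ⟨h1, h2⟩; exact ⟨by linarith, by linarith⟩
  · rintro ⟨h1, h2⟩; exact ⟨by linarith, by linarith⟩

theorem map_lev {m : ℕ} (hm : 0 < m) (k : ℤ) :
    Measure.map (fun θ => lev m θ k) (volume : Measure ℝ) = (m : ℝ≥0∞) • volume := by
  have hm' : (0:ℝ) < m := by exact_mod_cast hm
  have h1 : (fun θ => lev m θ k) = (fun x => (k:ℝ) / m + x) ∘ fun θ => (m:ℝ)⁻¹ * θ := by
    funext θ
    simp only [lev, Function.comp_apply]
    ring
  rw [h1, ← Measure.map_map (by fun_prop) (by fun_prop),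
    Real.map_volume_mul_left (inv_ne_zero hm'.ne'), Measure.map_smul,
    (measurePreserving_add_left volume ((k:ℝ) / m)).map_eq]
  congr 1
  rw [inv_inv, abs_of_pos hm']
  exact ENNReal.ofReal_natCast m

theorem lintegral_lev {m : ℕ} (hm : 0 < m) (k : ℤ) {h : ℝ → ℝ≥0∞} (hh : Measurable h) :
    ∫⁻ θ in Ico (0:ℝ) 1, h (lev m θ k) = m * ∫⁻ x in cell m k, h x := by
  have hml : Measurable fun θ => lev m θ k := by unfold lev; fun_prop
  have hmc : MeasurableSet (cell m k) := measurableSet_Ico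
  calc ∫⁻ θ in Ico (0:ℝ) 1, h (lev m θ k)
      = ∫⁻ θ, (cell m k).indicator h (lev m θ k) := by
        rw [← lintegral_indicator measurableSet_Ico]
        apply lintegral_congr
        intro θ
        by_cases hθ : θ ∈ Ico (0:ℝ) 1
        · rw [indicator_of_mem hθ, indicator_of_mem ((lev_mem_cell hm).2 hθ)]
        · rw [indicator_of_notMem hθ, indicator_of_notMem (fun hc => hθ ((lev_mem_cell hm).1 hc))]
    _ = ∫⁻ x, (cell m k).indicator h x ∂(Measure.map (fun θ => lev m θ k) volume) := by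
        rw [lintegral_map (hh.indicator hmc) hml]
    _ = m * ∫⁻ x in cell m k, h x := by
        rw [map_lev hm k, lintegral_smul_measure, lintegral_indicator hmc, smul_eq_mul]

theorem volume_cell {m : ℕ} (hm : 0 < m) (k : ℤ) : volume (cell m k) = (m : ℝ≥0∞)⁻¹ := by
  have hm' : (0:ℝ) < m := by exact_mod_cast hm
  unfold cell
  rw [Real.volume_Ico]
  have : ((k:ℝ) + 1) / m - k / m = (m:ℝ)⁻¹ := by ring
  rw [this, ENNReal.ofReal_inv_of_pos hm', ENNReal.ofReal_natCast]

theorem cell_disj {m : ℕ} (hm : 0 < m) : Pairwise fun i j : ℤ => Disjoint (cell m i) (cell m j) := by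
  have hm' : (0:ℝ) < m := by exact_mod_cast hm
  have key : ∀ i j : ℤ, i < j → Disjoint (cell m i) (cell m j) := by
    intro i j hij
    rw [Set.disjoint_left]
    intro x hx hx'
    have h1 : ((i:ℝ) + 1) / m ≤ j / m := by
      apply div_le_div_of_nonneg_right _ hm'.le
      exact_mod_cast hij
    exact absurd (lt_of_lt_of_le hx.2 (h1.trans hx'.1)) (lt_irrefl _)
  intro i j hij
  rcases lt_or_gt_of_ne hij with h | h
  · exact key i j h
  · exact (key j i h).symm

theorem tsum_lintegral_cell {m : ℕ} (hm : 0 < m) (h : ℝ → ℝ≥0∞) :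
    ∑' k : ℤ, ∫⁻ x in cell m k, h x ≤ ∫⁻ x, h x := by
  have hc : ∀ k : ℤ, MeasurableSet (cell m k) := fun k => measurableSet_Ico
  rw [← lintegral_iUnion hc (cell_disj hm)]
  exact setLIntegral_le_lintegral _ _

theorem null_lev {m : ℕ} (hm : 0 < m) {Z : Set ℝ} (hZ : volume Z = 0) :
    volume {θ : ℝ | ∃ k : ℤ, lev m θ k ∈ Z} = 0 := by
  have h1 : {θ : ℝ | ∃ k : ℤ, lev m θ k ∈ Z} = ⋃ k : ℤ, (fun θ => lev m θ k) ⁻¹' Z := by
    ext θ; simp
  rw [h1, measure_iUnion_null_iff]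
  intro k
  have hml : Measurable fun θ => lev m θ k := by unfold lev; fun_prop
  have h2 : Measure.map (fun θ => lev m θ k) (volume : Measure ℝ) Z = 0 := by
    rw [map_lev hm k, Measure.smul_apply, hZ, smul_zero]
  exact nonpos_iff_eq_zero.1 ((Measure.le_map_apply hml.aemeasurable Z).trans h2.le)

/-- **equally spaced generic levels** -/
theorem exists_levels {ι : Type*} [Finite ι] {N : ι → ℝ → ℝ≥0∞} (hN : ∀ i, Measurable (N i))
    (hint : ∀ i, ∫⁻ y, N i y ≠ ∞) {ε : ℝ≥0∞} (hε : ε ≠ 0) :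
    ∃ m0 : ℕ, ∀ m : ℕ, m0 ≤ m → ∀ Z : Set ℝ, volume Z = 0 → ∃ θ ∈ Ico (0:ℝ) 1,
      (∀ k : ℤ, lev m θ k ∉ Z) ∧ ∀ i, ∑' k : ℤ, N i (lev m θ k) ≤ m * ((∫⁻ y, N i y) + ε) := by
  classical
  cases nonempty_fintype ι
  set G : ℝ → ι → ℝ := fun y i => (N i y).toReal with hG
  have hGm : Measurable G := measurable_pi_lambda _ fun i => (hN i).ennreal_toReal
  have hGi : ∀ i, Integrable (fun y => G y i) := fun i =>
    integrable_toReal_of_lintegral_ne_top (hN i).aemeasurable (hint i)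
  have hGint : Integrable G := Integrable.of_eval hGi
  have hGL : MemLp G (ENNReal.ofReal 1) volume := by
    rw [ENNReal.ofReal_one]; exact memLp_one_iff_integrable.2 hGint
  obtain ⟨r, hr, hcell⟩ := Crest.Agent.R96.Poi_392.cell_average le_rfl hGL hε ℤ
  obtain ⟨m1, hm1⟩ := exists_nat_gt (r⁻¹)
  refine ⟨m1 + 1, fun m hm Z hZ => ?_⟩
  have hm0 : 0 < m := by omega
  have hm' : (0:ℝ) < m := by exact_mod_cast hm0
  have hmr : (m:ℝ)⁻¹ ≤ r := by
    rw [inv_le_comm₀ hm' hr]
    have : (m1:ℝ) ≤ m := by exact_mod_cast (by omega : m1 ≤ m)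
    linarith
  have hmt : (m : ℝ≥0∞) ≠ ∞ := ENNReal.natCast_ne_top m
  have hmz : (m : ℝ≥0∞) ≠ 0 := by exact_mod_cast hm0.ne'
  have h1 := hcell (cell m) (fun k => measurableSet_Ico) (cell_disj hm0)
    (fun k => by rw [volume_cell hm0]; exact ENNReal.inv_ne_zero.2 hmt)
    (fun k => by rw [volume_cell hm0]; exact ENNReal.inv_ne_top.2 hmz)
    (by
      intro k x hx y hy
      refine le_trans ?_ hmr
      rw [Real.dist_eq, abs_sub_le_iff]
      have e1 : ((k:ℝ) + 1) / m - k / m = (m:ℝ)⁻¹ := by ring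
      have hx1 := hx.1; have hx2 := hx.2; have hy1 := hy.1; have hy2 := hy.2
      constructor <;> linarith)
  simp only [ENNReal.rpow_one] at h1
  set A : ℤ → ι → ℝ := fun k => ⨍ y in cell m k, G y with hA
  -- the error
  set Er : ℝ → ℝ≥0∞ := fun θ => ∑' k : ℤ, ‖G (lev m θ k) - A k‖ₑ with hEr
  have hml : ∀ k : ℤ, Measurable fun θ => lev m θ k := fun k => by unfold lev; fun_prop
  have hErm : Measurable Er := by
    apply Measurable.tsum
    intro k
    exact ((hGm.comp (hml k)).sub_const (A k)).enorm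
  have hErI : ∫⁻ θ in Ico (0:ℝ) 1, Er θ ≤ m * ε := by
    calc ∫⁻ θ in Ico (0:ℝ) 1, Er θ = ∑' k : ℤ, ∫⁻ θ in Ico (0:ℝ) 1, ‖G (lev m θ k) - A k‖ₑ := by
          rw [hEr, lintegral_tsum]
          intro k
          exact (((hGm.comp (hml k)).sub_const (A k)).enorm).aemeasurable
      _ = ∑' k : ℤ, m * ∫⁻ x in cell m k, ‖G x - A k‖ₑ := by
          congr 1; funext k
          exact lintegral_lev hm0 k (h := fun x => ‖G x - A k‖ₑ) (hGm.sub_const (A k)).enorm
      _ = m * ∑' k : ℤ, ∫⁻ x in cell m k, ‖G x - A k‖ₑ := ENNReal.tsum_mul_left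
      _ ≤ m * ε := by gcongr
  -- the null set
  set Z' : Set ℝ := Z ∪ ⋃ i, {y | N i y = ∞} with hZ'
  have hZ'0 : volume Z' = 0 := by
    rw [hZ', measure_union_null_iff]
    refine ⟨hZ, ?_⟩
    rw [measure_iUnion_null_iff]
    intro i
    have := ae_lt_top (hN i) (hint i)
    rw [ae_iff] at this
    simpa using this
  have hprob : IsProbabilityMeasure (volume.restrict (Ico (0:ℝ) 1)) :=
    ⟨by rw [Measure.restrict_apply_univ, Real.volume_Ico]; simp⟩
  obtain ⟨θ, hθN, hθE⟩ := exists_notMem_null_le_lintegral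
    (μ := volume.restrict (Ico (0:ℝ) 1)) (N := (Ico (0:ℝ) 1)ᶜ ∪ {θ : ℝ | ∃ k : ℤ, lev m θ k ∈ Z'})
    hErm.aemeasurable (by
      rw [measure_union_null_iff]
      refine ⟨?_, nonpos_iff_eq_zero.1 ((Measure.restrict_apply_le _ _).trans (null_lev hm0 hZ'0).le)⟩
      rw [Measure.restrict_apply measurableSet_Ico.compl]
      simp)
  rw [mem_union, not_or] at hθN
  have hθI : θ ∈ Ico (0:ℝ) 1 := not_not.1 hθN.1
  have hθZ : ∀ k : ℤ, lev m θ k ∉ Z' := fun k hk => hθN.2 ⟨k, hk⟩
  refine ⟨θ, hθI, fun k hk => hθZ k (Or.inl hk), fun i => ?_⟩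
  have hNk : ∀ k : ℤ, N i (lev m θ k) = ‖G (lev m θ k) i‖ₑ := by
    intro k
    have hne : N i (lev m θ k) ≠ ∞ := fun h => hθZ k (Or.inr (mem_iUnion.2 ⟨i, h⟩))
    simp only [hG]
    rw [Real.enorm_eq_ofReal ENNReal.toReal_nonneg, ENNReal.ofReal_toReal hne]
  have hAk : ∀ k : ℤ, ‖A k i‖ₑ ≤ m * ∫⁻ x in cell m k, N i x := by
    intro k
    have e1 : A k i = ⨍ y in cell m k, G y i := by
      simp only [hA, setAverage_eq, Pi.smul_apply]
      congr 1
      exact eval_integral (fun j => (hGi j).integrableOn) i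
    rw [e1, setAverage_eq, enorm_smul, measureReal_def, volume_cell hm0]
    have e2 : ‖((m : ℝ≥0∞)⁻¹.toReal)⁻¹‖ₑ = m := by
      rw [ENNReal.toReal_inv, inv_inv, ENNReal.toReal_natCast, Real.enorm_eq_ofReal hm'.le,
        ENNReal.ofReal_natCast]
    rw [e2]
    gcongr
    refine (enorm_integral_le_lintegral_enorm _).trans (lintegral_mono fun x => ?_)
    simp only [hG]
    rw [Real.enorm_eq_ofReal ENNReal.toReal_nonneg]
    exact ENNReal.ofReal_toReal_le
  calc ∑' k : ℤ, N i (lev m θ k) ≤ ∑' k : ℤ, ((m * ∫⁻ x in cell m k, N i x) + ‖G (lev m θ k) - A k‖ₑ) := by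
        apply ENNReal.tsum_le_tsum
        intro k
        rw [hNk k]
        have e1 : G (lev m θ k) i = A k i + (G (lev m θ k) - A k) i := by
          simp
        rw [e1]
        refine (enorm_add_le _ _).trans (add_le_add (hAk k) ?_)
        rw [← ofReal_norm, ← ofReal_norm]
        exact ENNReal.ofReal_le_ofReal (norm_le_pi_norm (G (lev m θ k) - A k) i)
    _ = (m * ∑' k : ℤ, ∫⁻ x in cell m k, N i x) + Er θ := by
        rw [ENNReal.tsum_add, ENNReal.tsum_mul_left]
    _ ≤ (m * ∫⁻ y, N i y) + m * ε := by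
        gcongr
        · exact tsum_lintegral_cell hm0 _
        · exact hθE.trans hErI
    _ = m * ((∫⁻ y, N i y) + ε) := by rw [mul_add]

section Seg

variable {E : Type*} [NormedAddCommGroup E] [NormedSpace ℝ E]

open Crest.Agent.R96.Acl_392

/-- **equally spaced generic levels for finitely many segments**: `V i` are open windows of levels;
the number of crossings of the `i`-th segment with the levels `(k+θ)/m` in the window `V i` is at
most `m (∫ over the levels of the window + ε)`, all crossings are finite in number and no point of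
the countable set `P` is on a level.  (`v i`, `g i` may be different functions.) -/
theorem exists_levels_seg {Ω : Set E} {ι : Type*} [Finite ι] {v g : ι → E → ℝ}
    (hv : ∀ i, ContinuousOn (v i) Ω) {c e : ι → E} {s t : ι → ℝ} (hst : ∀ i, s i ≤ t i)
    (hin : ∀ i, c i ∈ segIn Ω (e i) (s i) (t i)) (h : ∀ i, ACLat Ω (v i) (g i) (e i) (c i))
    {W : ι → Set ℝ} (hW : ∀ i, MeasurableSet (W i)) {ε : ℝ≥0∞} (hε : ε ≠ 0) :
    ∃ m0 : ℕ, ∀ m : ℕ, m0 ≤ m → ∀ Z : Set ℝ, volume Z = 0 → ∃ θ ∈ Ico (0:ℝ) 1,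
      (∀ k : ℤ, lev m θ k ∉ Z) ∧
      (∀ i, ∀ k : ℤ, (Icc (s i) (t i) ∩ al (v i) (c i) (e i) ⁻¹' {lev m θ k}).Finite) ∧
      ∀ i, ∑' k : ℤ, (W i).indicator (cnt (al (v i) (c i) (e i)) (Icc (s i) (t i))) (lev m θ k) ≤
        m * ((∫⁻ y in W i, cnt (al (v i) (c i) (e i)) (Icc (s i) (t i)) y) + ε) := by
  set N : ι → ℝ → ℝ≥0∞ := fun i => (W i).indicator (cnt (al (v i) (c i) (e i)) (Ioc (s i) (t i)))
    with hN
  have hcont : ∀ i, ContinuousOn (al (v i) (c i) (e i)) (Icc (s i) (t i)) := fun i =>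
    continuousOn_al (hv i) (hin i)
  have hm : ∀ i, Measurable (N i) := fun i =>
    (measurable_cnt (hcont i) (hst i)).indicator (hW i)
  have hcI : ∀ i, ∫⁻ y, cnt (al (v i) (c i) (e i)) (Icc (s i) (t i)) y ≠ ∞ := fun i =>
    ne_top_of_le_ne_top ((h i (s i) (t i) (hst i) (hin i)).1.mono_set Ioc_subset_Icc_self).2.ne
      (lintegral_cnt_seg (hv i) (h i) (hst i) (hin i))
  have hle : ∀ i y, N i y ≤ cnt (al (v i) (c i) (e i)) (Icc (s i) (t i)) y := by
    intro i y
    refine (indicator_le_self _ _ y).trans (cnt_mono Ioc_subset_Icc_self y)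
  have hint : ∀ i, ∫⁻ y, N i y ≠ ∞ := fun i =>
    ne_top_of_le_ne_top (hcI i) (lintegral_mono fun y => hle i y)
  obtain ⟨m0, hm0⟩ := exists_levels hm hint hε
  refine ⟨m0, fun m hmm Z hZ => ?_⟩
  -- enlarge the null set
  set Z1 : Set ℝ := Z ∪ ((⋃ i, {al (v i) (c i) (e i) (s i)}) ∪
    ⋃ i, {y | ¬ (Icc (s i) (t i) ∩ al (v i) (c i) (e i) ⁻¹' {y}).Finite}) with hZ1
  have hZ10 : volume Z1 = 0 := by
    rw [hZ1, measure_union_null_iff, measure_union_null_iff]
    refine ⟨hZ, ?_, ?_⟩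
    · exact (countable_iUnion fun i => countable_singleton _).measure_zero _
    · rw [measure_iUnion_null_iff]
      intro i
      exact ae_iff.1 (ae_finite_seg (hv i) (h i) (hst i) (hin i))
  obtain ⟨θ, hθ, hθZ, hθN⟩ := hm0 m hmm Z1 hZ10
  refine ⟨θ, hθ, fun k hk => hθZ k (Or.inl hk), ?_, ?_⟩
  · intro i k
    by_contra hc
    exact hθZ k (Or.inr (Or.inr (mem_iUnion.2 ⟨i, hc⟩)))
  · intro i
    have e1 : ∀ k : ℤ, (W i).indicator (cnt (al (v i) (c i) (e i)) (Icc (s i) (t i))) (lev m θ k) =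
        N i (lev m θ k) := by
      intro k
      simp only [hN]
      by_cases hk : lev m θ k ∈ W i
      · rw [indicator_of_mem hk, indicator_of_mem hk]
        apply le_antisymm
        · refine (cnt_Icc_le _ _ _ _).trans ?_
          rw [indicator_of_notMem, add_zero]
          intro hh
          exact hθZ k (Or.inr (Or.inl (mem_iUnion.2 ⟨i, hh⟩)))
        · exact cnt_mono Ioc_subset_Icc_self _
      · rw [indicator_of_notMem hk, indicator_of_notMem hk]
    have e2 : ∫⁻ y, N i y ≤ ∫⁻ y in W i, cnt (al (v i) (c i) (e i)) (Icc (s i) (t i)) y := by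
      rw [← lintegral_indicator (hW i)]
      apply lintegral_mono
      intro y
      exact indicator_le_indicator (cnt_mono Ioc_subset_Icc_self y)
    calc ∑' k : ℤ, (W i).indicator (cnt (al (v i) (c i) (e i)) (Icc (s i) (t i))) (lev m θ k)
        = ∑' k : ℤ, N i (lev m θ k) := by congr 1; funext k; exact e1 k
      _ ≤ m * ((∫⁻ y, N i y) + ε) := hθN i
      _ ≤ m * ((∫⁻ y in W i, cnt (al (v i) (c i) (e i)) (Icc (s i) (t i)) y) + ε) := by
          gcongr

end Seg

end

end Crest.Agent.R096.Bas_731
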