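import Crest.Agent.R096.Dup2_534
import Crest.Agent.R096.Dfg1_539
import Crest.Agent.R096.Sgo3_298

/-!
# Row 96, DOORS, barriers (helper4): the consumer forms over `BarsO`

* `BarsO.lev01`, `lev01_fr` : the coordinates are in `[0, 1]` at the points of the barriers / of the
  frontiers of the tiny cores;
* `BarsO.boxM` : 344's box (`box_s2.htr`); `radV`, `rad_fr` : the radii `ρ3 + 16 d`;
* `BarsO.trm` : 539's `BRec.trm`, 471's `reg_tiny.htr`; `BarsO.band` : 527's `reg_moat.htr`;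
* `BarsO.ndc` : 298's `hbar`; `ga15` : 298's `hga`.
-/

set_option autoImplicit false
set_option linter.unusedSectionVars false
set_option linter.unusedVariables false
set_option linter.style.longLine false

open Set Relation Module Topology Filter Metric MeasureTheory
open scoped Classical

namespace Crest.Agent.R096.Dup_534.BarsO

open Crest.Agent.R096.Brk1_582 Crest.Agent.R096.Brk2_582 Crest.Agent.R096.Brk3_582
open Crest.Agent.R096.Brk5_582 Crest.Agent.R096.Bsp_628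
open Crest.Agent.R096.St_147 Crest.Agent.R096.Seq_213 Crest.Agent.R096.Seq_213.GSt
open Crest.Agent.R096.Ac_117 Crest.Agent.R096.Msh_715
open Crest.Agent.R096.Main_4 Crest.Agent.R096.Lab_184 Crest.Agent.R096.Ginv_543 Crest.Agent.R096.Coh_184
open Crest.Agent.R096.Agl4_543 Crest.Agent.R096.Agl5_543 Crest.Agent.R096.Agl6_543
open Crest.Agent.R096.Init_543
open Crest.Agent.R96.Push_899
open Crest.Agent.R096.Ess5_95
open Crest.Agent.R096.Ess8_95 Crest.Agent.R096.Ebr1_95 Crest.Agent.R096.Ebr4_95 Crest.Agent.R096.Bar_106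
open Crest.Agent.R096.Exa_560 Crest.Agent.R096.Sphg_316
open Crest.Agent.R096.Bgf_4 Crest.Agent.R096.Dup_534
open Crest.Agent.R096.Bmf_416 (coT coT_fin am_fin co_fin)
open Crest.Agent.R096.SkC1_961 (E3 Hom3 FoamD IsPush)
open Crest.Agent.R096.Mbf_337 (Cores Fine KJ sb gau)
open Crest.Agent.R096.Frn_337 (Ti)
open Crest.Agent.R096.Bse_344 (BoxP RadV boxP_of_fm)
open Crest.Agent.R096.Sgo_298 (RmA)

variable {δ κ0 R c0 : ℝ} {La Om : Set E3} {ι : Type} {Φ : FoamD δ κ0 R c0 La} {T : Tiling Om ι}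
  {f g : E3 → E3}
variable {X : Set Φ.F} {J0 J V : Φ.F → Set ι} {ct ct' : Φ.F → ι} {A : Φ.F → E3 ≃ᵃ[ℝ] E3}
  {lam : Φ.F → ℝ} {z : Φ.F → E3} {θ : Φ.F → E3 → E3} {φ : Φ.F → E3 → ℝ} {κ1 κ2 : ℝ}
  {ρ1 ρ2 ρ3 ρ4 d : Φ.F → ℝ} {sg l0 mm ra : ℝ} {r₀ : Φ.F → ℝ}
  {L : Φ.F → Finset ℝ} [Nonempty (JJ Φ L)] {hG : GF Φ r₀ T f L} {bp : JJ Φ L → E3}
variable {q₀ : BM Φ X → E3} {ε : BM Φ X → ℝ} {bm : BM Φ X → E3}
  {hGB : GFB Φ r₀ T f L (lBM Φ X ρ1 ρ3 d sg l0 mm ra) ε}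

/-- the coordinates at a point of a tile near the core -/
theorem lev01_tile (hLa : IsOpen La) (H : Hm f g Om La) {c : Φ.F} {J0 J V : Set ι} {θ : E3 → E3}
    {φ : E3 → ℝ} {ρ1 ρ2 ρ3 ρ4 d : ℝ} (hT : Mbf_337.Tiny Φ T f κ1 c J0 J V θ φ)
    (hR : Rm Φ T f c J0 J V θ ρ1 ρ2 ρ3 ρ4 d) {w : E3} (hw : w ∈ Om)
    (h1 : ρ1 ≤ ga Φ c (f w)) (h4 : ga Φ c (f w) ≤ ρ4) (e : Φ.F) :
    0 ≤ Φ.lev e (f w) ∧ Φ.lev e (f w) ≤ 1 := by
  obtain ⟨i, hi⟩ := T.cov w hw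
  obtain ⟨hV, hJ⟩ := hR.tile hi h1 h4
  exact Dib_438.sb_mem hLa (psi_tile hLa H hT hR hV hJ hi).2 e

/-- the coordinates at the points of the frontier of a tiny core -/
theorem lev01_fr (B : BarsO X J0 J V θ κ1 ρ1 ρ2 ρ3 ρ4 d sg l0 mm ra hG bp q₀ ε bm hGB)
    (hLa : IsOpen La) (H : Hm f g Om La) (hC : Cores Φ T f κ1 κ2 X J0 J V ct A lam z θ φ)
    {c : Φ.F} (hc : c ∉ X) {w : E3} (hw : w ∈ frontier (KJ T (J c))) (e : Φ.F) :
    0 ≤ Φ.lev e (f w) ∧ Φ.lev e (f w) ≤ 1 := by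
  have hT := hC.tiny c hc
  have hr := B.rm c hc
  have hcl : IsClosed (KJ T (J c)) :=
    (hT.finV.subset hT.sub).isClosed_biUnion fun i _ => isClosed_P _
  have hwK : w ∈ KJ T (J c) := hcl.frontier_subset hw
  obtain ⟨i, hi, hwi⟩ := mem_iUnion₂.1 hwK
  obtain ⟨h1, h2⟩ := hr.fr w hw
  exact lev01_tile hLa H hT hr (T.sub i hwi) (by linarith [hr.r12, hr.d0])
    (by linarith [hr.r34, hr.d0]) e

section

variable (B : BarsO X J0 J V θ κ1 ρ1 ρ2 ρ3 ρ4 d sg l0 mm ra hG bp q₀ ε bm hGB)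
include B

/-- the coordinates at the points of the barriers -/
theorem lev01 (hLa : IsOpen La) (H : Hm f g Om La)
    (hC : Cores Φ T f κ1 κ2 X J0 J V ct A lam z θ φ) {m : BM Φ X} {w : E3}
    (hw : w ∈ (stB hGB bp bm).P) (hl : (stB hGB bp bm).lab w = Sum.inr m) (e : Φ.F) :
    0 ≤ Φ.lev e (f w) ∧ Φ.lev e (f w) ≤ 1 := by
  have hr := B.rmm m
  obtain ⟨h1, h2⟩ := B.ga_mem hw hl
  exact lev01_tile hLa H (hC.tiny _ m.co_notMem) hr (B.mem_Om hw hl).1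
    (by linarith [hr.d0]) (by linarith [hr.r34, hr.d0]) e

/-- **539's `BRec.trm`**, 471's `reg_tiny.htr` (with `hi := 1 + sg`) -/
theorem trm (hLa : IsOpen La) (H : Hm f g Om La)
    (hC : Cores Φ T f κ1 κ2 X J0 J V ct A lam z θ φ) {m : BM Φ X} {w : E3}
    (hw : w ∈ (stB hGB bp bm).P) (hl : (stB hGB bp bm).lab w = Sum.inr m) :
    (∀ e, 0 ≤ Φ.lev e (f w) ∧ Φ.lev e (f w) ≤ 1) ∧
      Gm l0 mm ra m.am m.Zm (fun e => Φ.lev e (f w)) ≤ 1 + sg :=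
  ⟨fun e => B.lev01 hLa H hC hw hl e, (B.gm_le hw hl).trans (B.eps_lt m).2.le⟩

/-- the own coordinate of the points of a barrier -/
theorem am_mem {m : BM Φ X} {w : E3} (hw : w ∈ (stB hGB bp bm).P)
    (hl : (stB hGB bp bm).lab w = Sum.inr m) :
    mm - ra * (1 + sg) ≤ Φ.lev m.am (f w) ∧ Φ.lev m.am (f w) ≤ mm + ra * (1 + sg) := by
  have h1 := abs_le.1 (B.am_le hw hl)
  have h2 : ra * ε m ≤ ra * (1 + sg) :=
    mul_le_mul_of_nonneg_left (B.eps_lt m).2.le B.nm.hra.le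
  constructor <;> linarith [h1.1, h1.2]

theorem Fm_le1 {m : BM Φ X} {w : E3} (hw : w ∈ (stB hGB bp bm).P)
    (hl : (stB hGB bp bm).lab w = Sum.inr m) :
    Fm m.am m.Zm (fun e => Φ.lev e (f w)) ≤ l0 * (1 + sg) :=
  (B.Fm_le hw hl).trans (mul_le_mul_of_nonneg_left (B.eps_lt m).2.le B.nm.hl.le)

/-- **471's `pos_tiny.hbr`** -/
theorem hbr {σ₁ : ℝ} (h1 : σ₁ ≤ mm - ra * (1 + sg)) (h2 : mm + ra * (1 + sg) ≤ 1 - σ₁) :
    ∀ w ∈ (stB hGB bp bm).P, ∀ m : BM Φ X, (stB hGB bp bm).lab w = Sum.inr m →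
      σ₁ ≤ Φ.lev m.am (f w) ∧ Φ.lev m.am (f w) ≤ 1 - σ₁ := by
  intro w hw m hl
  have h := B.am_mem hw hl
  exact ⟨h1.trans h.1, h.2.trans h2⟩

/-- **527's `reg_moat.htr`** -/
theorem band {m : BM Φ X} {w : E3} (hw : w ∈ (stB hGB bp bm).P)
    (hl : (stB hGB bp bm).lab w = Sum.inr m) :
    mm - ra * (1 + sg) ≤ Φ.lev m.am (f w) ∧ Φ.lev m.am (f w) ≤ mm + ra * (1 + sg) ∧
      Fm m.am m.Zm (fun e => Φ.lev e (f w)) ≤ l0 * (1 + sg) :=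
  ⟨(B.am_mem hw hl).1, (B.am_mem hw hl).2, B.Fm_le1 hw hl⟩

/-- **298's `good_m.hga`** -/
theorem hga : ∀ w ∈ (stB hGB bp bm).P, ∀ m : BM Φ X, (stB hGB bp bm).lab w = Sum.inr m →
    ga Φ (coT m).1 (f w) ≤ ρ3 (coT m).1 + 15 * d (coT m).1 := by
  intro w hw m hl
  have h := (B.ga_mem hw hl).2
  show ga Φ m.co (f w) ≤ ρ3 m.co + 15 * d m.co
  linarith [(B.dm m).1]

/-- **298's `good_s2.hbar`** -/
theorem hbar {m : BM Φ X} {w : E3} (hw : w ∈ (stB hGB bp bm).P)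
    (hl : (stB hGB bp bm).lab w = Sum.inr m) {q : ι} (hq : w ∈ P (T.H q)) :
    q ∈ Ndc T f J0 Xᶜ (Sgo_298.rout ρ3 d) d :=
  Sgo_298.ndc_of m.co_notMem hq (B.hga w hw m hl)

theorem rmA : RmA Φ T f X J0 J V θ ρ1 ρ2 ρ3 ρ4 d := B.rm

/-- **344's radii** -/
theorem radV : RadV Φ T f X V (Sgo_298.rout ρ3 d) where
  tile := fun c hc i ⟨x, hx, h⟩ => (B.rm c hc).v i ⟨x, hx, h.trans (B.rm c hc).r34⟩

theorem rad_fr {c : Φ.F} (hc : c ∉ X) {x : E3} (hx : x ∈ frontier (KJ T (J c))) :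
    gau c.1 (Φ.B c).lo (f x) ≤ Sgo_298.rout ρ3 d c := by
  have hr := B.rm c hc
  have h1 : gau c.1 (Φ.B c).lo (f x) ≤ ρ3 c := (hr.fr x hx).2
  unfold Sgo_298.rout
  linarith [hr.d0]

/-- **344's `box_s2.htr`** -/
theorem boxM (hLa : IsOpen La) (H : Hm f g Om La)
    (hC : Cores Φ T f κ1 κ2 X J0 J V ct A lam z θ φ) {l : ℝ} (hl0 : l0 * (1 + sg) ≤ l)
    {m : BM Φ X} {w : E3} (hw : w ∈ (stB hGB bp bm).P)
    (hl : (stB hGB bp bm).lab w = Sum.inr m) :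
    BoxP Φ f m.co m.am m.Zm (Sgo_298.rout ρ3 d m.co) l w := by
  refine boxP_of_fm ?_ (fun e => B.lev01 hLa H hC hw hl e) ((B.Fm_le1 hw hl).trans hl0)
  have h := (B.ga_mem hw hl).2
  show ga Φ m.co (f w) ≤ ρ3 m.co + 16 * d m.co
  linarith [(B.dm m).1]

end

end Crest.Agent.R096.Dup_534.BarsO
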