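import Crest.Agent.R096.Bcf1_4

/-!
# Row 96, DOORS, barriers (helper4): joint 6 for the machine

Over 539's `BRec` and 662's `slC`: 344's boxes of the barrier points of `s₂`, `BSep`, 334's `PosM`.
-/

set_option autoImplicit false
set_option linter.unusedSectionVars false
set_option linter.unusedVariables false
set_option linter.style.longLine false

open Set Topology Filter Metric Module Relation
open scoped Classical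

namespace Crest.Agent.R096.Bcf_4

open Crest.Agent.R096.Msh_715 Crest.Agent.R096.Coh_184 Crest.Agent.R096.Lab_184
  Crest.Agent.R096.Main_4 Crest.Agent.R096.Agl5_543
  Crest.Agent.R096.Seq_213 Crest.Agent.R096.St_147 Crest.Agent.R096.Door_501
  Crest.Agent.R096.Twr_438 Crest.Agent.R096.Exa_560
  Crest.Agent.R096.Ess3_95 Crest.Agent.R096.Ess4_95 Crest.Agent.R096.Ac_117 Crest.Agent.R096.Lm_117
  Crest.Agent.R096.Dfi_539 Crest.Agent.R096.Dfi_471 Crest.Agent.R096.Dfo_539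
  Crest.Agent.R096.Sla_184 Crest.Agent.R096.Gm_298
  Crest.Agent.R096.Brk1_582 Crest.Agent.R096.Brk2_582 Crest.Agent.R096.Brk3_582
  Crest.Agent.R096.Brk5_582 Crest.Agent.R096.Bsp_628 Crest.Agent.R096.Init_543
  Crest.Agent.R096.Lv3_471 Crest.Agent.R096.Lv4_471 Crest.Agent.R096.Slt_471
  Crest.Agent.R096.Dib_438 Crest.Agent.R096.Rop_441 Crest.Agent.R096.Frk_441
  Crest.Agent.R096.Dff_539 Crest.Agent.R096.Frs_662 Crest.Agent.R096.Dfg_539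
open Crest.Agent.R096.Mbf_337 (KJ Tiny Cores Fine sb gau)
open Crest.Agent.R096.SkC1_961 (E3 FoamD Hom3)
open Crest.Agent.R096.Frn_337 (Ti)
open Crest.Agent.R096.Ess7_95 (KT)
open Crest.Agent.R096.Dia_316 (nbT)
open Crest.Agent.R096.Bar_106 (Fs Fm Gm BM)
open Crest.Agent.R096.Bse_344 (BoxP RadV box_s2 bsep_s2 posM_s2)
open Crest.Agent.R096.Cg_501 (BSep)
open Crest.Agent.R096.Dup_534 Crest.Agent.R096.Bgf_4
open Crest.Agent.R096.Bmf_416 (coT)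

variable {δ κ0 R c0 : ℝ} {La Om : Set E3} {ι : Type} {Φ : FoamD δ κ0 R c0 La} {T : Tiling Om ι}
  {f g : E3 → E3} {κ1 κ2 μ : ℝ} {X : Set Φ.F} {J0 J V : Φ.F → Set ι}
  {ct ct' : Φ.F → ι} {Aj : Φ.F → E3 ≃ᵃ[ℝ] E3} {lam : Φ.F → ℝ} {z : Φ.F → E3}
  {θ : Φ.F → E3 → E3} {φ : Φ.F → E3 → ℝ} {r₀ : Φ.F → ℝ}
  {L : Φ.F → Finset ℝ} [Nonempty (JJ Φ L)] {Mo : Type}
variable {co : Mo → Ti X} {am : Mo → Φ.F} {Zm : Mo → Set Φ.F} [Nonempty (JJ Φ L ⊕ Mo)]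
  {sB : GSt (meshC T fr3) (Sum.map (fun j : JJ Φ L => j.1) (id : Mo → Mo))}
  {r : JJ Φ L ⊕ Mo → E3} {Sf : JJ Φ L ⊕ Mo → Set E3} {nb : Ti X → Φ.F ⊕ Mo → Prop}

/-- **the barrier does not move the vertices with `W1 ≤ Fs`** -/
theorem rgn_lt (hLa : IsOpen La) (hδ : 0 < δ) (hR0 : 0 < R) (hκ1 : 0 < κ1)
    (hC : Cores Φ T f κ1 κ2 X J0 J V ct Aj lam z θ φ)
    (n : Ti X → ℕ) (hn : ∀ c, 0 < n c)
    {v0 v1 : ∀ c, Φ.F ⊕ Mo → VxK T (slC hLa hC n hn).K c} {u : Ti X → Φ.F ⊕ Mo → E3 → ℝ}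
    {A B : Ti X → Φ.F ⊕ Mo → ℝ}
    {Lx : ∀ c, Φ.F ⊕ Mo → Lev T (frontier ((slC hLa hC n hn).K c)) (JJ Φ L ⊕ Mo)}
    (D : DIn (slC hLa hC n hn).hH sB r Sf nb v0 v1 u A B)
    (lo : LevOut (Kc := (slC hLa hC n hn).K) sB nb u A B Lx)
    {l0 mm ra h W0 W1 : ℝ}
    (rec : BRec hLa sB f X J θ co am Zm nb v0 v1 u A B μ (Cn δ R * κ1) l0 mm ra h W0 W1)
    {σ₁ : ℝ} (n4 : σ₁ ≤ mm - ra * h) (n5 : mm + ra * h ≤ 1 - σ₁)
    (n3 : (3 * Cn δ R + 1) * κ1 < σ₁)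
    (hl0 : 0 < l0) (hra : 0 < ra) (hh : 0 ≤ h) (hW : l0 * h + (3 * Cn δ R + 1) * κ1 < W1)
    (hW1 : W1 ≤ 1 - (2 * Cn δ R + 1) * κ1) {c : Ti X} {m : Mo} (hnm : nb c (Sum.inr m))
    {v : (slC hLa hC n hn).Vx c} {i : JJ Φ L ⊕ Mo}
    (hv : Rgn ((slC hLa hC n hn).sh fr3 c) (v0 c (Sum.inr m)) (v1 c (Sum.inr m))
        (trc (slC hLa hC n hn).hH (slC hLa hC n hn).dis sB r c (Sum.inr m))
        (exa fr3 (slC hLa hC n hn).hH (slC hLa hC n hn).dis (Lx c (Sum.inr m))) i v) :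
    Fs (Nb Φ hLa c.1) (am m) (Zm m) (sb Φ (θ c.1 v.1)) < W1 := by
  have hCn := Cn_nonneg hδ hR0
  have hCκ : 0 ≤ Cn δ R * κ1 := mul_nonneg hCn hκ1.le
  have hco := (rec.nbm c m).1 hnm
  obtain ⟨p, q, hM⟩ := rec.mo m
  rw [hco] at hM
  have hN : ∀ e, (Pc Φ.F c.1 ∩ Pc Φ.F e).Nonempty → e ∈ Nb Φ hLa c.1 := fun e he => mem_Nb.2 he
  have hW0 : 0 < W1 := by nlinarith [mul_nonneg hl0.le hh]
  by_contra hcon
  push Not at hcon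
  have hcc := (Bar_543.fs_ge_c hLa hM hN (t := W1) hW0 (by nlinarith)).1
  exact not_rgn_bar (κ := Ti X) (cf := Subtype.val) (J := fun c => J c.1)
    (J0 := fun c => J0 c.1) (V := fun c => V c.1) (θ := fun c => θ c.1)
    (φ := fun c => φ c.1) (k := c) (a := am m) (b' := Sum.inr m) hLa hδ hR0 hκ1 (by nlinarith)
    (fun c => hC.tiny c.1 c.2) lo (rec.um c m) hM (mem_N_p hM hN) (mem_N_m hM hN)
    (by rw [rec.Bm c m]; exact hcc) (D.v0_lt c (Sum.inr m) hnm) (D.v1_gt c (Sum.inr m) hnm) hl0 hra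
    (by rw [rec.Bm c m]; exact hW) (by rw [rec.Bm c m]; nlinarith) (by linarith) (by linarith)
    (fun w hw hl _ => rec.trm w hw m (by
      rcases hl' : sB.lab w with j | m'
      · rw [hl'] at hl; cases hl
      · rw [hl'] at hl
        have : m' = m := Sum.inr.inj hl
        rw [this])) (by rw [rec.Bm c m]; exact hcon) i hv

/-- **the barrier points of `s₂` are in their boxes** -/
theorem box_rec (hLa : IsOpen La) (hδ : 0 < δ) (hR0 : 0 < R) (hκ1 : 0 < κ1)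
    (hC : Cores Φ T f κ1 κ2 X J0 J V ct Aj lam z θ φ)
    (n : Ti X → ℕ) (hn : ∀ c, 0 < n c)
    {v0 v1 : ∀ c, Φ.F ⊕ Mo → VxK T (slC hLa hC n hn).K c} {u : Ti X → Φ.F ⊕ Mo → E3 → ℝ}
    {A B : Ti X → Φ.F ⊕ Mo → ℝ}
    {Lx : ∀ c, Φ.F ⊕ Mo → Lev T (frontier ((slC hLa hC n hn).K c)) (JJ Φ L ⊕ Mo)}
    {Tw : Twrs ((slC hLa hC n hn).sh fr3) (slC hLa hC n hn).n
      (outK (slC hLa hC n hn).hH (slC hLa hC n hn).dis sB r)} {l0' : E3 → JJ Φ L ⊕ Mo}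
    (D : DIn (slC hLa hC n hn).hH sB r Sf nb v0 v1 u A B)
    (lo : LevOut (Kc := (slC hLa hC n hn).K) sB nb u A B Lx)
    (tt : TwOut (slC hLa hC n hn) fr3 sB r v0 v1 Lx Tw)
    {l0 mm ra h W0 W1 : ℝ}
    (rec : BRec hLa sB f X J θ co am Zm nb v0 v1 u A B μ (Cn δ R * κ1) l0 mm ra h W0 W1)
    {σ₁ : ℝ} (n4 : σ₁ ≤ mm - ra * h) (n5 : mm + ra * h ≤ 1 - σ₁)
    (n3 : (3 * Cn δ R + 1) * κ1 < σ₁)
    (hl0 : 0 < l0) (hra : 0 < ra) (hh : 0 ≤ h) (hW : l0 * h + (3 * Cn δ R + 1) * κ1 < W1)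
    (hW1 : W1 ≤ 1 - (2 * Cn δ R + 1) * κ1) {ρ : Φ.F → ℝ} {l : ℝ} (hl : W1 + Cn δ R * κ1 ≤ l)
    (hρ : ∀ c ∉ X, ∀ x ∈ frontier (KJ T (J c)), gau c.1 (Φ.B c).lo (f x) ≤ ρ c)
    (hbx : ∀ w ∈ sB.P, ∀ m, sB.lab w = Sum.inr m →
      BoxP Φ f (co m).1 (am m) (Zm m) (ρ (co m).1) l w) :
    ∀ w ∈ (s2 (slC hLa hC n hn) fr3 Tw l0').P, ∀ m,
      (s2 (slC hLa hC n hn) fr3 Tw l0').lab w = Sum.inr m →
      ∀ p : T.RIdx (slC hLa hC n hn).HH,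
      (∀ k, ¬ P ((slC hLa hC n hn).T3.H p) ⊆ (slC hLa hC n hn).KK k) →
      w ∈ P ((slC hLa hC n hn).T3.H p) →
      ∃ x ∈ P (T.H p.tile), BoxP Φ f (co m).1 (am m) (Zm m) (ρ (co m).1) l x := by
  have hCn := Cn_nonneg hδ hR0
  have hCκ : 0 ≤ Cn δ R * κ1 := mul_nonneg hCn hκ1.le
  have hW0 : 0 < W1 := by nlinarith [mul_nonneg hl0.le hh]
  intro w hw m hwl p _ hp
  have hcm : ∀ c : Ti X, nb c (Sum.inr m) → c = co m := fun c hc => ((rec.nbm c m).1 hc).symm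
  refine box_s2 (n := n) (hn := hn) (hLa := hLa) (hC := hC) (co := fun m => (co m).1) (am := am)
    (Zm := Zm) (ρ := ρ) (l := l) (B := W1) hδ hR0
    (by nlinarith) D lo tt m (rec.mo m) (fun c hc => by rw [hcm c hc]) ?_
    (fun w hw hl => hbx w hw m hl) (N := Nb Φ hLa (co m).1) (fun e he => mem_Nb.2 he) ?_ ?_ ?_ hl hw
    hwl hp
  · exact fun c _ => hρ c.1 c.2
  · intro c hc
    funext x
    rw [rec.um c m x, hcm c hc]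
  · exact fun c _ => (rec.Bm c m).le
  · intro c hc v hv
    rw [rec.Bm c m]
    have := rgn_lt hLa hδ hR0 hκ1 hC n hn D lo rec n4 n5 n3 hl0 hra hh hW hW1 hc hv
    have h1 : Nb Φ hLa (co m).1 = Nb Φ hLa c.1 := by rw [hcm c hc]
    rw [h1]
    exact this.le

/-- **`BSep` and `PosM` for `s₂`** from the boxes -/
theorem sep_rec (hLa : IsOpen La) (hC : Cores Φ T f κ1 κ2 X J0 J V ct Aj lam z θ φ)
    (hF : Fine Φ T f κ1 J0) (n : Ti X → ℕ) (hn : ∀ c, 0 < n c)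
    {v0 v1 : ∀ c, Φ.F ⊕ Mo → VxK T (slC hLa hC n hn).K c} {u : Ti X → Φ.F ⊕ Mo → E3 → ℝ}
    {A B : Ti X → Φ.F ⊕ Mo → ℝ} {l0 mm ra h W0 W1 κ : ℝ}
    (rec : BRec hLa sB f X J θ co am Zm nb v0 v1 u A B μ κ l0 mm ra h W0 W1)
    {ρ : Φ.F → ℝ} {l : ℝ} (hl : 2 * (l + κ1) < 1) (hρ : RadV Φ T f X V ρ)
    (hinj : ∀ m m', co m = co m' → am m = am m' → Zm m = Zm m' → m = m')
    {s₂ : GSt ((slC hLa hC n hn).mn fr3) (Sum.map (fun j : JJ Φ L => j.1) (id : Mo → Mo))}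
    (hbox : ∀ w ∈ s₂.P, ∀ m, s₂.lab w = Sum.inr m → ∀ p : T.RIdx (slC hLa hC n hn).HH,
      (∀ k, ¬ P ((slC hLa hC n hn).T3.H p) ⊆ (slC hLa hC n hn).KK k) →
      w ∈ P ((slC hLa hC n hn).T3.H p) →
      ∃ x ∈ P (T.H p.tile), BoxP Φ f (co m).1 (am m) (Zm m) (ρ (co m).1) l x) :
    BSep s₂ am ∧ ∀ m, Hdr_334.PosM (hH := (Lay_316.lay_sla hLa hC n hn).core)
      (hdis := (Lay_316.lay_sla hLa hC n hn).disj) T f J0
      (fun p : T.RIdx (slC hLa hC n hn).HH => p.tile) s₂ (Sum.inr m) (am m) l := by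
  refine ⟨bsep_s2 (co := fun m => (co m).1) (am := am) (Zm := Zm) (fun m m' h => h) hF hρ hl
    (fun m => (co m).2) (fun m => ?_) (fun m m' h1 h2 h3 => hinj m m' (Subtype.ext h1) h2 h3) hbox,
    fun m => posM_s2 (co := fun m => (co m).1) (am := am) (Zm := Zm) (ρ := ρ) (m := m)
      (fun w hw hl p hp hwp => hbox w hw m hl p hp hwp)⟩
  obtain ⟨p, q, hM⟩ := rec.mo m
  exact hM.aZ

section inst

variable {ρ1 ρ2 ρ3 ρ4 d : Φ.F → ℝ} {sg l0 mm ra : ℝ} {hG : GF Φ r₀ T f L} {bp : JJ Φ L → E3}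
  {q₀ : BM Φ X → E3} {εB : BM Φ X → ℝ} {bm : BM Φ X → E3}
  {hGB : GFB Φ r₀ T f L (lBM Φ X ρ1 ρ3 d sg l0 mm ra) εB} [Nonempty (JJ Φ L ⊕ BM Φ X)]
  {r : JJ Φ L ⊕ BM Φ X → E3} {Sf : JJ Φ L ⊕ BM Φ X → Set E3} {nb : Ti X → Φ.F ⊕ BM Φ X → Prop}

/-- **JOINT 6 FOR THE MACHINE**: `BSep`, `PosM` and the boxes for `s₂` over the state of all
barriers. Numbers of record: `l := 3μ/16 + Cn κ1`, `σ₁ := 9μ/32` -/
theorem joint6 (B : BarsO X J0 J V θ κ1 ρ1 ρ2 ρ3 ρ4 d sg l0 mm ra hG bp q₀ εB bm hGB)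
    (hLa : IsOpen La) (hδ : 0 < δ) (hR0 : 0 < R) (hκ1 : 0 < κ1) (H : Hm f g Om La)
    (hC : Cores Φ T f κ1 κ2 X J0 J V ct Aj lam z θ φ) (hF : Fine Φ T f κ1 J0)
    (n : Ti X → ℕ) (hn : ∀ c, 0 < n c)
    {v0 v1 : ∀ c, Φ.F ⊕ BM Φ X → VxK T (slC hLa hC n hn).K c}
    {u : Ti X → Φ.F ⊕ BM Φ X → E3 → ℝ} {Al Bl : Ti X → Φ.F ⊕ BM Φ X → ℝ}
    {Lx : ∀ c, Φ.F ⊕ BM Φ X → Lev T (frontier ((slC hLa hC n hn).K c)) (JJ Φ L ⊕ BM Φ X)}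
    {Tw : Twrs ((slC hLa hC n hn).sh fr3) (slC hLa hC n hn).n
      (outK (slC hLa hC n hn).hH (slC hLa hC n hn).dis (stB hGB bp bm) r)}
    {l0' : E3 → JJ Φ L ⊕ BM Φ X}
    (D : DIn (slC hLa hC n hn).hH (stB hGB bp bm) r Sf nb v0 v1 u Al Bl)
    (lo : LevOut (Kc := (slC hLa hC n hn).K) (stB hGB bp bm) nb u Al Bl Lx)
    (tt : TwOut (slC hLa hC n hn) fr3 (stB hGB bp bm) r v0 v1 Lx Tw) {W0 W1 : ℝ}
    (rec : BRec hLa (stB hGB bp bm) f X J θ coT BM.am BM.Zm nb v0 v1 u Al Bl μ (Cn δ R * κ1)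
      l0 mm ra (1 + sg) W0 W1)
    {σ₁ : ℝ} (n4 : σ₁ ≤ mm - ra * (1 + sg)) (n5 : mm + ra * (1 + sg) ≤ 1 - σ₁)
    (n3 : (3 * Cn δ R + 1) * κ1 < σ₁) (hW : l0 * (1 + sg) + (3 * Cn δ R + 1) * κ1 < W1)
    (hW1 : W1 ≤ 1 - (2 * Cn δ R + 1) * κ1) {l : ℝ} (hl : W1 + Cn δ R * κ1 ≤ l)
    (hl2 : 2 * (l + κ1) < 1) :
    (∀ w ∈ (s2 (slC hLa hC n hn) fr3 Tw l0').P, ∀ m,
      (s2 (slC hLa hC n hn) fr3 Tw l0').lab w = Sum.inr m →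
      ∀ p : T.RIdx (slC hLa hC n hn).HH,
      (∀ k, ¬ P ((slC hLa hC n hn).T3.H p) ⊆ (slC hLa hC n hn).KK k) →
      w ∈ P ((slC hLa hC n hn).T3.H p) →
      ∃ x ∈ P (T.H p.tile), BoxP Φ f m.co m.am m.Zm (Sgo_298.rout ρ3 d m.co) l x) ∧
    BSep (s2 (slC hLa hC n hn) fr3 Tw l0') (BM.am : BM Φ X → Φ.F) ∧
    ∀ m : BM Φ X, Hdr_334.PosM (hH := (Lay_316.lay_sla hLa hC n hn).core)
      (hdis := (Lay_316.lay_sla hLa hC n hn).disj) T f J0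
      (fun p : T.RIdx (slC hLa hC n hn).HH => p.tile) (s2 (slC hLa hC n hn) fr3 Tw l0')
      (Sum.inr m) m.am l := by
  have hCn := Cn_nonneg hδ hR0
  have hCκ : 0 ≤ Cn δ R * κ1 := mul_nonneg hCn hκ1.le
  have hsg := B.sg0
  have hbx := box_rec (l0' := l0') hLa hδ hR0 hκ1 hC n hn D lo tt rec n4 n5 n3 B.nm.hl B.nm.hra
    (by linarith) hW hW1 hl (ρ := Sgo_298.rout ρ3 d) (fun c hc x hx => B.rad_fr hc hx)
    (fun w hw m hwl => B.boxM hLa H hC (by nlinarith) hw hwl)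
  exact ⟨hbx, sep_rec hLa hC hF n hn rec hl2 B.radV
    (fun m m' h1 h2 h3 => BM.ext (congrArg Subtype.val h1) h2 h3) hbx⟩

end inst

end Crest.Agent.R096.Bcf_4
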