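import Crest.Agent.R096.Bd11_416

/-!
# R096 (row 96), P4-MESH, part 5: the stage theorem (helper416)
-/

set_option autoImplicit false

open Set Metric

namespace Crest.Agent.R096.Bd_416

open Crest.Agent.R096.Ce_537

open scoped Classical

variable {Q : Type} [PartialOrder Q] {dim : Q → ℕ} {J Fam : Type}
variable {E : Type*} [NormedAddCommGroup E] [NormedSpace ℝ E]

variable {C : Cmb Q dim J Fam} {K : Q → Set E} {D N : Set Q} {g : Gd E J}
  {P : ∀ q, C.I q → Set E} {c : ∀ q, C.I q → E → ℝ} {b : ℝ} {Ω : Set E}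

/-- **a filling of a new cell** -/
structure NewCell (C : Cmb Q dim J Fam) (K : Q → Set E) (g : Gd E J)
    (c : ∀ q, C.I q → E → ℝ) (b : ℝ) (τ : Q) (M : Lam (K τ) (C.I τ)) : Prop where
  c_bd : ∀ x, ∀ z ∈ bdS K τ, M.c x z = Bd_416.cl (cbd C K c τ x z / (2 * b))
  B_bd : ∀ x, ∀ z ∈ bdS K τ, (z ∈ M.B x ↔ |cbd C K c τ x z| ≤ b)
  tr_bd : ∀ x, ∀ z ∈ bdS K τ, |cbd C K c τ x z| ≤ b → ∀ s ∈ I2,
    M.tr x (z, s) = g.tr (C.col τ x) (z, sg (C.eps τ x) * (2 * b * s))
  fd : ∀ x x', x ≠ x' → C.fam (C.col τ x) = C.fam (C.col τ x') → Disjoint (M.B x) (M.B x')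
  sd : ∀ x x', x ≠ x' → C.fam (C.col τ x) = C.fam (C.col τ x') →
    ∀ z ∈ M.B x, -2 * M.c x' z = sg (C.side τ x x')

lemma abs_sg (a : ZMod 2) : |sg a| = 1 := by
  rcases sg_or a with h5 | h5 <;> rw [h5] <;> norm_num

lemma usq_sg {b : ℝ} (h0 : 0 < b) (h2 : b < 1/2) (a : ZMod 2) (t : ℝ) :
    usq b (sg a * t) = sg a * usq b t := by
  rw [usq_mul h0 h2 (Or.inl (abs_sg a)), usq_sign h0 h2 (abs_sg a)]

lemma usq_nsg {b : ℝ} (h0 : 0 < b) (h2 : b < 1/2) (a : ZMod 2) (t : ℝ) :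
    usq b (- sg a * t) = - sg a * usq b t := by
  rw [neg_mul, usq_neg, usq_sg h0 h2, neg_mul]

/-- the colour data on a new cell -/
noncomputable def newGd (C : Cmb Q dim J Fam) {τ : Q} (M : Lam (K τ) (C.I τ)) : Gd E J :=
  M.gd (C.col τ) (fun x => sg (C.eps τ x)) (fun j => lab0 (C.Lab j τ))

lemma preconn_cell (X : Cplx Ω Q dim K) (τ : Q) : IsPreconnected (K τ) := by
  obtain ⟨e, -⟩ := X.isBall τ
  rw [← e.image_eq]
  exact (convex_closedBall (0 : Fin (dim τ) → ℝ) 1).isPreconnected.image _ e.pf.1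

namespace Inv

variable (H : Inv C K D g P c)
include H

/-- the squeezed level function -/
lemma sqG (h0 : 0 < b) (h2 : b < 1/2) {σ : Q} (hσ : σ ∈ D) (j : J) {z : E} (hz : z ∈ K σ) :
    (g.sq b).G j z = 1/2 + usq b (2 * (g.G j z - 1/2)) / 2 := by
  by_cases hB : z ∈ g.B j
  · rw [Gd.sq_G_mem hB, H.lev0 hσ j hz hB]
    unfold usq
    have : 2 * (g.G j z - 1/2) / (4 * b) = (g.G j z - 0 - 1/2) / (2 * b) := by
      rw [show (4:ℝ) * b = 2 * (2 * b) by ring, mul_div_mul_left _ _ two_ne_zero, sub_zero]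
    rw [this]; ring
  · rw [Gd.sq_G_notMem hB]
    have hi : g.G j z ∈ Zs := by
      by_contra hn; exact hB ((H.is σ hσ).nB j z hz hn)
    obtain ⟨n, hn⟩ := mem_Zs.1 hi
    have hG := H.G_mem hσ j hz
    rw [hn] at hG ⊢
    have h3 : (0 : ℤ) ≤ n := by exact_mod_cast hG.1
    have h4 : n ≤ 1 := by exact_mod_cast hG.2
    have h5 : |(2 * ((n:ℝ) - 1/2))| = 1 := by
      obtain rfl | rfl : n = 0 ∨ n = 1 := by omega
      · norm_num
      · norm_num
    rw [usq_sign h0 h2 h5]; ring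

/-- the product formula on the boundary of a new cell -/
lemma PF_bd (X : Cplx Ω Q dim K) {σ τ : Q} (h : σ < τ) (hτ : ∀ σ < τ, σ ∈ D) (j : J) {z : E}
    (hz : z ∈ K σ) : g.G j z = 1/2 - sg (C.Lab j τ) / 2 *
      ∏ x : C.I τ with C.col τ x = j, (-2 * cbd C K c τ x z) := by
  have h1 : ∏ x : C.I τ with C.col τ x = j, (-2 * cbd C K c τ x z)
      = sg (∑ x : C.I τ with C.col τ x = j, C.s h x) *
        ∏ y : C.I σ with C.col σ y = j, (-2 * c σ y z) := by
    rw [sg_sum, ← Finset.prod_fiberwise_of_maps_to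
      (s := Finset.univ.filter fun y : C.I σ => C.col σ y = j)
      (t := Finset.univ.filter fun x : C.I τ => C.col τ x = j) (g := C.up h),
      ← Finset.prod_mul_distrib]
    · refine Finset.prod_congr rfl fun x hx => ?_
      rw [Finset.mem_filter] at hx
      rw [cbd_eq H X h hτ x hz]
      congr 1
      refine Finset.prod_congr ?_ fun _ _ => rfl
      ext y
      simp only [Finset.mem_filter, Finset.mem_univ, true_and]
      constructor
      · rintro rfl; exact ⟨by rw [← C.col_up h y]; exact hx.2, rfl⟩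
      · exact fun h => h.2
    · intro y hy
      rw [Finset.mem_filter] at hy ⊢
      exact ⟨Finset.mem_univ _, by rw [C.col_up]; exact hy.2⟩
  rw [h1, H.PF σ (hτ _ h) j z hz, C.lab_eq h j, sg_add]
  ring

lemma oneOff_bd (X : Cplx Ω Q dim K) {τ : Q} (hτ : ∀ σ < τ, σ ∈ D) (j : J) {z : E}
    (hz : z ∈ bdS K τ) : OneOff (Finset.univ.filter fun x : C.I τ => C.col τ x = j)
      (fun x => -2 * cbd C K c τ x z) := by
  intro x hx x' hx' hne
  rw [Finset.mem_filter] at hx hx'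
  by_cases h1 : z ∈ Pbd C P τ x
  · right
    refine abs_of_half ((bdPcs H X τ hτ).half hz fun h2 => ?_)
    exact Set.disjoint_left.1 (bd_disj H X hτ hne (by rw [hx.2, hx'.2])) h1 h2
  · left; exact abs_of_half ((bdPcs H X τ hτ).half hz h1)

/-- `|c|` on the band of a piece is the same in all cells -/
lemma abs_cbd (X : Cplx Ω Q dim K) {σ τ : Q} (h : σ < τ) (hτ : ∀ σ < τ, σ ∈ D) (y : C.I σ)
    {z : E} (hz : z ∈ P σ y) : |cbd C K c τ (C.up h y) z| = |c σ y z| := by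
  have hσ := hτ _ h
  have hzK := H.PK σ hσ y hz
  have h1 := cbd_eq H X h hτ (C.up h y) hzK
  rw [prod_split_up h y] at h1
  have h2 : |∏ y' : C.I σ with (C.up h y' = C.up h y ∧ y' ≠ y), (-2 * c σ y' z)| = 1 := by
    refine abs_prod_eq fun y' hy' => ?_
    rw [Finset.mem_filter] at hy'
    refine abs_of_half (H.half hσ hzK fun hc => ?_)
    refine Set.disjoint_left.1 (H.fd σ hσ y y' (Ne.symm hy'.2.2) ?_) hz hc
    rw [← C.col_up h y, ← C.col_up h y', hy'.2.1]
  have h3 : |-2 * cbd C K c τ (C.up h y) z| = |-2 * c σ y z| := by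
    rw [h1, abs_mul, abs_mul, h2, mul_one]
    rcases sg_or (C.s h (C.up h y)) with h5 | h5 <;> rw [h5] <;> norm_num
  rw [abs_mul, abs_mul] at h3
  norm_num at h3
  exact h3

end Inv

section new

variable {τ : Q} {M : Lam (K τ) (C.I τ)}

lemma NewCell.dj (hN : NewCell C K g c b τ M) : M.Dj (C.col τ) :=
  fun x x' hne hcol => hN.fd x x' hne (by rw [hcol])

lemma newGd_is (hN : NewCell C K g c b τ M) : (newGd C M).Is (K τ) :=
  Lam.gd_is _ _ hN.dj fun x => sg_or _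

lemma exists_base_pt (H : Inv C K D g P c) (X : Cplx Ω Q dim K) (hτ : ∀ σ < τ, σ ∈ D)
    (hd : 1 ≤ dim τ) : ∃ o ∈ K (C.o τ), ∀ x : C.I τ, cbd C K c τ x o = -1/2 := by
  obtain ⟨o, ho⟩ := (X.isBall (C.o τ)).nonempty
  refine ⟨o, ho, fun x => ?_⟩
  have h1 := cbd_eq H X (C.o_lt τ hd) hτ x ho
  have := C.vert (C.o τ) (C.o_dim τ hd)
  rw [C.s_o τ hd, sg_zero, Finset.prod_eq_one (fun y _ => isEmptyElim y)] at h1
  linarith

variable (H : Inv C K D g P c) (X : Cplx Ω Q dim K) (hτ : ∀ σ < τ, σ ∈ D)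
  (h0 : 0 < b) (h2 : b < 1/2) (hN : NewCell C K g c b τ M)
include H X hτ h0 h2 hN

lemma newGd_PF (j : J) {z : E} (hz : z ∈ K τ) : (newGd C M).G j z
    = 1/2 - sg (C.Lab j τ) / 2 * ∏ x : C.I τ with C.col τ x = j, (-2 * M.c x z) := by
  by_cases hd : 1 ≤ dim τ
  swap
  · have hv := C.vert τ (by omega)
    have e1 : ∏ x : C.I τ with C.col τ x = j, (-2 * M.c x z) = 1 :=
      Finset.prod_eq_one fun x _ => isEmptyElim x
    have e2 : (newGd C M).G j z = (lab0 (C.Lab j τ) : ℝ) := by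
      show (lab0 (C.Lab j τ) : ℝ) + stp (C.col τ) (fun x => sg (C.eps τ x)) j
        (fun x => M.c x z) = _
      unfold stp
      rw [Finset.sum_eq_zero (fun x _ => isEmptyElim x), add_zero]
    rw [e1, e2, lab0_eq, mul_one]
  obtain ⟨o, ho, hoc⟩ := exists_base_pt H X hτ hd
  have hoS : o ∈ bdS K τ := mem_biUnion (show C.o τ ∈ {j | j < τ} from C.o_lt τ hd) ho
  refine PF_gd M (preconn_cell X τ) (C.col τ) (fun j => C.Lab j τ) (C.side τ) hN.dj
    (fun x x' hne hcol z hz => hN.sd x x' hne (by rw [hcol]) z hz)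
    (X.subset (C.o_lt τ hd).le ho) (fun x => ?_) j hz
  rw [hN.c_bd x o hoS, hoc x]
  exact cl_low h0 h2

lemma newGd_G_mem (j : J) {z : E} (hz : z ∈ K τ) : (newGd C M).G j z ∈ Icc (0:ℝ) 1 := by
  rw [newGd_PF H X hτ h0 h2 hN j hz]
  have h1 : |∏ x : C.I τ with C.col τ x = j, (-2 * M.c x z)| ≤ 1 :=
    abs_prod_le fun x _ => abs_two_le (M.cm x z hz)
  obtain ⟨h2, h3⟩ := abs_le.1 h1
  rcases sg_or (C.Lab j τ) with h | h <;> rw [h] <;> constructor <;> linarith

/-- on the boundary the new data are the squeezed old data -/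
lemma newGd_eqAt {z : E} (hz : z ∈ bdS K τ) : EqAt (g.sq b) (newGd C M) z := by
  obtain ⟨σ, h, hzK⟩ := exists_of_mem_bdS hz
  have hσ := hτ _ h
  have hzτ : z ∈ K τ := X.subset h.le hzK
  set p := bdPcs H X τ hτ with hp
  have key : ∀ x : C.I τ, z ∈ Pbd C P τ x →
      |g.G (C.col τ x) z - g.lev (C.col τ x) z - 1/2| = |cbd C K c τ x z| := by
    intro x hx
    have h1 : cbd C K c τ x z = sg (C.eps τ x) *
      (g.G (C.col τ x) z - g.lev (C.col τ x) z - 1/2) := p.cP x z hx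
    rw [h1, abs_mul]
    rcases sg_or (C.eps τ x) with h5 | h5 <;> rw [h5] <;> norm_num
  refine ⟨fun j => ?_, fun j => ?_, fun j hB => ?_, fun j hB s hs => ?_⟩
  · rw [newGd_PF H X hτ h0 h2 hN j hzτ, H.sqG h0 h2 hσ j hzK, H.PF_bd X h hτ j hzK]
    have h1 : ∏ x : C.I τ with C.col τ x = j, (-2 * M.c x z)
        = usq b (∏ x : C.I τ with C.col τ x = j, (-2 * cbd C K c τ x z)) := by
      rw [usq_prod h0 h2 (H.oneOff_bd X hτ j hz)]
      refine Finset.prod_congr rfl fun x _ => ?_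
      rw [hN.c_bd x z hz, neg_two_cl]
    rw [h1]
    set Pq := ∏ x : C.I τ with C.col τ x = j, (-2 * cbd C K c τ x z)
    have h3 : 2 * (1/2 - sg (C.Lab j τ) / 2 * Pq - 1/2) = - sg (C.Lab j τ) * Pq := by ring
    rw [h3, usq_nsg h0 h2]
    ring
  · constructor
    · rintro ⟨x, rfl, hx⟩
      have h1 := (hN.B_bd x z hz).1 hx
      have h3 : z ∈ Pbd C P τ x := p.cn x z hz (lt_of_le_of_lt h1 h2)
      exact ⟨p.PB x h3, by rw [key x h3]; exact h1⟩
    · rintro ⟨hB, hb⟩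
      obtain ⟨x, hx, hxP⟩ := p.cov j z hz hB
      have hx' : C.col τ x = j := hx
      subst hx'
      exact ⟨x, rfl, (hN.B_bd x z hz).2 (by rw [← key x hxP]; exact hb)⟩
  · obtain ⟨hB1, hb⟩ := hB
    obtain ⟨x, hx, hxP⟩ := p.cov j z hz hB1
    have hx' : C.col τ x = j := hx
    subst hx'
    have hxB := (hN.B_bd x z hz).2 (by rw [← key x hxP]; exact hb)
    rw [lev0_of (newGd_is hN) (fun z hz => newGd_G_mem H X hτ h0 h2 hN _ hz) hzτ
      ⟨x, rfl, hxB⟩]
    exact (H.lev0 hσ _ hzK hB1).symm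
  · obtain ⟨hB1, hb⟩ := hB
    obtain ⟨x, hx, hxP⟩ := p.cov j z hz hB1
    have hx' : C.col τ x = j := hx
    subst hx'
    have hc : |cbd C K c τ x z| ≤ b := by rw [← key x hxP]; exact hb
    have hxB := (hN.B_bd x z hz).2 hc
    show (M.gd (C.col τ) (fun x => sg (C.eps τ x)) (fun j => lab0 (C.Lab j τ))).tr _ (z, s) = _
    rw [hN.dj.tr _ _ rfl hxB, hN.tr_bd x z hz hc _ (sgn_mul_mem (sg_or _) hs)]
    show _ = g.tr (C.col τ x) (z, 2 * b * s)
    congr 2
    have := sg_sq (C.eps τ x)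
    calc sg (C.eps τ x) * (2 * b * (sg (C.eps τ x) * s))
        = (sg (C.eps τ x) * sg (C.eps τ x)) * (2 * b * s) := by ring
      _ = _ := by rw [this, one_mul]

end new

/-! ### the stage -/

/-- the new global data -/
noncomputable def stG (C : Cmb Q dim J Fam) (K : Q → Set E) (N : Set Q) (g : Gd E J) (b : ℝ)
    (M : ∀ τ, τ ∈ N → Lam (K τ) (C.I τ)) : Gd E J :=
  glueGd K N (g.sq b) (fun τ hτ => newGd C (M τ hτ))

/-- the new pieces -/
noncomputable def stP (C : Cmb Q dim J Fam) (K : Q → Set E) (N : Set Q)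
    (P : ∀ q, C.I q → Set E) (c : ∀ q, C.I q → E → ℝ) (b : ℝ)
    (M : ∀ τ, τ ∈ N → Lam (K τ) (C.I τ)) (q : Q) (x : C.I q) : Set E :=
  if h : q ∈ N then (M q h).B x else {z | z ∈ P q x ∧ |c q x z| ≤ b}

/-- the new band functions -/
noncomputable def stc (C : Cmb Q dim J Fam) (K : Q → Set E) (N : Set Q)
    (c : ∀ q, C.I q → E → ℝ) (b : ℝ) (M : ∀ τ, τ ∈ N → Lam (K τ) (C.I τ)) (q : Q) (x : C.I q)
    (z : E) : ℝ :=
  if h : q ∈ N then (M q h).c x z else Bd_416.cl (c q x z / (2 * b))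

section stage

variable {M : ∀ τ, τ ∈ N → Lam (K τ) (C.I τ)}

lemma stP_new {q : Q} (h : q ∈ N) (x : C.I q) : stP C K N P c b M q x = (M q h).B x := by
  simp [stP, h]

lemma stP_old {q : Q} (h : q ∉ N) (x : C.I q) :
    stP C K N P c b M q x = {z | z ∈ P q x ∧ |c q x z| ≤ b} := by
  simp [stP, h]

lemma stc_new {q : Q} (h : q ∈ N) (x : C.I q) (z : E) :
    stc C K N c b M q x z = (M q h).c x z := by
  simp [stc, h]

lemma stc_old {q : Q} (h : q ∉ N) (x : C.I q) (z : E) :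
    stc C K N c b M q x z = Bd_416.cl (c q x z / (2 * b)) := by
  simp [stc, h]

variable (H : Inv C K D g P c) (X : Cplx Ω Q dim K)
  (hD : ∀ q ∈ D, ∀ p < q, p ∈ D) (hDN : ∀ q ∈ N, q ∉ D) (hN : ∀ τ ∈ N, ∀ σ < τ, σ ∈ D)
  (h0 : 0 < b) (h2 : b < 1/2)
  (hM : ∀ τ (h : τ ∈ N), NewCell C K g c b τ (M τ h))
include H X hD hDN hN h0 h2 hM

omit h0 h2 hM hN H in
lemma st_old_eqAt {q : Q} (hq : q ∈ D) {z : E} (hz : z ∈ K q) :
    EqAt (g.sq b) (stG C K N g b M) z :=
  eqAt_glue (sel_old X hD hDN hq hz)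

lemma st_new_eqAt {τ : Q} (hτ : τ ∈ N) {z : E} (hz : z ∈ K τ) :
    EqAt (newGd C (M τ hτ)) (stG C K N g b M) z := by
  by_cases ho : Opn K τ z
  · exact eqAt_glue (sel_new X hτ ho)
  · have : ∃ σ, ∃ _ : σ < τ, z ∈ K σ := by
      unfold Opn at ho
      push Not at ho
      obtain ⟨σ, h, hzσ⟩ := ho hz
      exact ⟨σ, h, hzσ⟩
    obtain ⟨σ, h, hzσ⟩ := this
    have hzS : z ∈ bdS K τ := mem_biUnion (show σ ∈ {j | j < τ} from h) hzσ
    exact (newGd_eqAt H X (hN τ hτ) h0 h2 (hM τ hτ) hzS).symm.trans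
      (st_old_eqAt X hD hDN (hN τ hτ σ h) hzσ)

/-- **THE STAGE THEOREM** -/
theorem stage : Inv C K (D ∪ N) (stG C K N g b M) (stP C K N P c b M)
    (stc C K N c b M) := by
  have hDn : ∀ q ∈ D, q ∉ N := fun q hq hn => hDN q hn hq
  -- squeezed pieces and functions on an old cell
  have old_half : ∀ q ∈ D, ∀ x : C.I q, ∀ z ∈ P q x, |c q x z| ≤ b →
      |g.G (C.col q x) z - g.lev (C.col q x) z - 1/2| ≤ b := by
    intro q hq x z hz hb
    have h1 := H.cP hq hz
    rw [H.lev0 hq _ (H.PK q hq x hz) (H.PB q hq x hz), sub_zero]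
    rw [h1, abs_mul] at hb
    rcases sg_or (C.eps q x) with h5 | h5 <;> rw [h5] at hb <;> simpa using hb
  have r1' : ∀ {p q : Q} (h : p < q), p ∈ D → (∀ σ < q, σ ∈ D) → ∀ x : C.I q, ∀ z ∈ K p,
      (z ∈ Pbd C P q x ∧ |cbd C K c q x z| ≤ b) ↔
        ∃ y, C.up h y = x ∧ z ∈ stP C K N P c b M p y := by
    intro p q h hp hq x z hz
    rw [mem_Pbd H X h hq x hz]
    constructor
    · rintro ⟨⟨y, rfl, hy⟩, hb⟩
      refine ⟨y, rfl, ?_⟩
      rw [stP_old (hDn p hp)]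
      exact ⟨hy, by rw [← H.abs_cbd X h hq y hy]; exact hb⟩
    · rintro ⟨y, rfl, hy⟩
      rw [stP_old (hDn p hp)] at hy
      exact ⟨⟨y, rfl, hy.1⟩, by rw [H.abs_cbd X h hq y hy.1]; exact hy.2⟩
  have r2' : ∀ {p q : Q} (h : p < q), p ∈ D → (∀ σ < q, σ ∈ D) → ∀ x : C.I q, ∀ z ∈ K p,
      usq b (-2 * cbd C K c q x z) = sg (C.s h x) *
        ∏ y : C.I p with C.up h y = x, (-2 * stc C K N c b M p y z) := by
    intro p q h hp hq x z hz
    rw [cbd_eq H X h hq x hz, usq_sg h0 h2, usq_prod h0 h2 (H.oneOff_up h hp x hz)]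
    congr 1
    refine Finset.prod_congr rfl fun y _ => ?_
    rw [stc_old (hDn p hp), neg_two_cl]
  -- on old cells `c` and `P` agree with the boundary formulas
  have cold : ∀ {p q : Q} (_ : p < q), q ∈ D → ∀ x : C.I q, ∀ z ∈ K p,
      c q x z = cbd C K c q x z := by
    intro p q h hq x z hz
    have e1 := H.r2 h hq x z hz
    have e2 := cbd_eq H X h (hD q hq) x hz
    rw [← e2] at e1
    linarith
  have Pold : ∀ {p q : Q} (_ : p < q), q ∈ D → ∀ x : C.I q, ∀ z ∈ K p,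
      (z ∈ P q x ↔ z ∈ Pbd C P q x) := by
    intro p q h hq x z hz
    rw [H.r1 h hq x z hz, mem_Pbd H X h (hD q hq) x hz]
  have cls : ∀ q, IsClosed (K q) := fun q => X.isClosed q
  refine ⟨?_, ?_, ?_, ?_, ?_, ?_, ?_, ?_, ?_, ?_, ?_, ?_, ?_⟩
  · -- is
    rintro q (hq | hq)
    · exact ((H.is q hq).sq (cls q) h0 h2).congr
        (eqs_of_eqAt fun z hz => st_old_eqAt X hD hDN hq hz)
    · exact (newGd_is (hM q hq)).congr
        (eqs_of_eqAt fun z hz => st_new_eqAt H X hD hDN hN h0 h2 hM hq hz)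
  · -- PF
    rintro q (hq | hq) j z hz
    · rw [(st_old_eqAt X hD hDN hq hz).G j, H.sqG h0 h2 hq j hz, H.PF q hq j z hz]
      have h1 : ∏ x : C.I q with C.col q x = j, (-2 * stc C K N c b M q x z)
          = usq b (∏ x : C.I q with C.col q x = j, (-2 * c q x z)) := by
        rw [usq_prod h0 h2 (H.oneOff_col hq j hz)]
        refine Finset.prod_congr rfl fun x _ => ?_
        rw [stc_old (hDn q hq), neg_two_cl]
      rw [h1]
      set Pq := ∏ x : C.I q with C.col q x = j, (-2 * c q x z)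
      have h3 : 2 * (1/2 - sg (C.Lab j q) / 2 * Pq - 1/2) = - sg (C.Lab j q) * Pq := by ring
      rw [h3, usq_nsg h0 h2]
      ring
    · rw [(st_new_eqAt H X hD hDN hN h0 h2 hM hq hz).G j,
        newGd_PF H X (hN q hq) h0 h2 (hM q hq) j hz]
      congr 2
      exact Finset.prod_congr rfl fun x _ => by rw [stc_new hq]
  · -- closed
    rintro q (hq | hq) x
    · rw [stP_old (hDn q hq)]
      have hc : ContinuousOn (fun z => |c q x z|) (P q x) :=
        continuous_abs.comp_continuousOn ((H.pc q hq x).1.mono (H.PK q hq x))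
      exact hc.preimage_isClosed_of_isClosed (H.cl q hq x) (isClosed_Iic (a := b))
    · rw [stP_new hq]; exact (M q hq).Bc x
  · -- PK
    rintro q (hq | hq) x z hz
    · rw [stP_old (hDn q hq)] at hz; exact H.PK q hq x hz.1
    · rw [stP_new hq] at hz; exact (M q hq).BZ x hz
  · -- PB
    rintro q (hq | hq) x z hz
    · rw [stP_old (hDn q hq)] at hz
      rw [(st_old_eqAt X hD hDN hq (H.PK q hq x hz.1)).B]
      exact ⟨H.PB q hq x hz.1, old_half q hq x z hz.1 hz.2⟩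
    · rw [stP_new hq] at hz
      rw [(st_new_eqAt H X hD hDN hN h0 h2 hM hq ((M q hq).BZ x hz)).B]
      exact ⟨x, rfl, hz⟩
  · -- cov
    rintro q (hq | hq) j z hz hB
    · rw [(st_old_eqAt X hD hDN hq hz).B] at hB
      obtain ⟨x, hx, hxP⟩ := H.cov q hq j z hz hB.1
      refine ⟨x, hx, ?_⟩
      rw [stP_old (hDn q hq)]
      refine ⟨hxP, ?_⟩
      have h1 := H.cP hq hxP
      have h3 := hB.2
      rw [H.lev0 hq j hz hB.1, sub_zero] at h3
      rw [h1, abs_mul, hx]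
      rcases sg_or (C.eps q x) with h5 | h5 <;> rw [h5] <;> simpa using h3
    · rw [(st_new_eqAt H X hD hDN hN h0 h2 hM hq hz).B] at hB
      obtain ⟨x, hx, hxB⟩ := hB
      exact ⟨x, hx, by rw [stP_new hq]; exact hxB⟩
  · -- pc
    rintro q (hq | hq) x
    · exact (pl_cl (pl_div (H.pc q hq x) (2 * b))).congr fun z _ => stc_old (hDn q hq) x z
    · exact ((M q hq).pc x).congr fun z _ => stc_new hq x z
  · -- cm
    rintro q (hq | hq) x z hz
    · rw [stc_old (hDn q hq)]; exact cl_mem _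
    · rw [stc_new hq]; exact (M q hq).cm x z hz
  · -- cn
    rintro q (hq | hq) x z hz hc
    · rw [stc_old (hDn q hq)] at hc
      rw [stP_old (hDn q hq)]
      have h1 := (abs_cl_lt hc).2
      rw [abs_div, abs_of_pos (by linarith : (0:ℝ) < 2 * b), div_lt_iff₀ (by linarith)] at h1
      exact ⟨H.cn q hq x z hz (by linarith), by linarith⟩
    · rw [stc_new hq] at hc
      rw [stP_new hq]; exact (M q hq).Bm x z hz hc
  · -- fd
    rintro q (hq | hq) x x' hne hf
    · rw [stP_old (hDn q hq), stP_old (hDn q hq)]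
      refine Set.disjoint_left.2 fun z hz hz' => ?_
      exact Set.disjoint_left.1 (H.fd q hq x x' hne hf) hz.1 hz'.1
    · rw [stP_new hq, stP_new hq]; exact (hM q hq).fd x x' hne hf
  · -- sd
    rintro q (hq | hq) x x' hne hf z hz
    · rw [stP_old (hDn q hq)] at hz
      rw [stc_old (hDn q hq), neg_two_cl, H.sd q hq x x' hne hf z hz.1]
      exact usq_sign h0 h2 (by
        rcases sg_or (C.side q x x') with h5 | h5 <;> rw [h5] <;> norm_num)
    · rw [stP_new hq] at hz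
      rw [stc_new hq]; exact (hM q hq).sd x x' hne hf z hz
  · -- r1
    rintro p q h (hq | hq) x z hz
    · have hp := hD q hq p h
      rw [stP_old (hDn q hq), ← r1' h hp (hD q hq) x z hz]
      show z ∈ P q x ∧ |c q x z| ≤ b ↔ _
      rw [Pold h hq x z hz, cold h hq x z hz]
    · have hp := hN q hq p h
      have hzS : z ∈ bdS K q := mem_biUnion (show p ∈ {j | j < q} from h) hz
      rw [stP_new hq, ← r1' h hp (hN q hq) x z hz, (hM q hq).B_bd x z hzS]
      exact ⟨fun hb => ⟨(bdPcs H X q (hN q hq)).cn x z hzS (lt_of_le_of_lt hb h2), hb⟩,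
        fun hb => hb.2⟩
  · -- r2
    rintro p q h (hq | hq) x z hz
    · have hp := hD q hq p h
      rw [stc_old (hDn q hq), neg_two_cl, cold h hq x z hz]
      exact r2' h hp (hD q hq) x z hz
    · have hp := hN q hq p h
      have hzS : z ∈ bdS K q := mem_biUnion (show p ∈ {j | j < q} from h) hz
      rw [stc_new hq, (hM q hq).c_bd x z hzS, neg_two_cl]
      exact r2' h hp (hN q hq) x z hz

end stage

end Crest.Agent.R096.Bd_416
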