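import Crest.Agent.R096.Bd12_416

/-!
# R096 (row 96), P4-MESH, part 6: the cone rule gives new cells (helper416)
-/

set_option autoImplicit false

open Set Metric

namespace Crest.Agent.R096.Bd_416

open Crest.Agent.R096.Ce_537

open scoped Classical

variable {E : Type*} [NormedAddCommGroup E] [NormedSpace ℝ E]

/-! ### sides on the product piece -/

namespace Dep

variable {S : Set E} {ι : Type*} {L : Lam S ι} {K b : ℝ} {h ρ : ι → ℝ} (D : Dep L K b h ρ)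
include D

lemma A_out {i j : ι} (hO : ∀ ω ∈ S, L.c i ω = -1/2 ∨ L.c j ω = -1/2) {z : E × ℝ}
    (hz : z ∈ Bf L b h ρ i) : Af L h ρ j z = -1/2 := by
  have h1 : L.c j z.1 = -1/2 := by
    rcases hO _ hz.1.1 with e | e
    · have := D.c_gt hz; rw [e] at this; exact absurd this (lt_irrefl _)
    · exact e
  unfold Af
  rw [h1]; exact min_eq_left ramp_mem.1

lemma A_ins {i j : ι} (hr : ρ j < ρ i) (hI : ∀ ω ∈ S, -1/2 < L.c i ω → L.c j ω = 1/2)
    {z : E × ℝ} (hz : z ∈ Bf L b h ρ i) : Af L h ρ j z = 1/2 := by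
  have hne : i ≠ j := by rintro rfl; exact lt_irrefl _ hr
  have e1 := hI _ hz.1.1 (D.c_gt hz)
  have e2 := D.sep i j hne ⟨z.1, hz.1.1, D.c_gt hz, by rw [e1]; norm_num⟩
  rw [abs_of_pos (by linarith)] at e2
  have e3 := D.gt_of_B hz
  have e4 : ramp (h j) (ρ j) z.2 = 1/2 := ramp_high (D.h0 j) (by linarith)
  unfold Af; rw [e1, e4, min_self]

lemma A_ins' {i j : ι} (hr : ρ i < ρ j) (hI : ∀ ω ∈ S, -1/2 < L.c j ω → L.c i ω = 1/2)
    {z : E × ℝ} (hz : z ∈ Bf L b h ρ i) : Af L h ρ j z = -1/2 := by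
  have hne : i ≠ j := by rintro rfl; exact lt_irrefl _ hr
  by_cases h1 : -1/2 < L.c j z.1
  · have e1 := hI _ hz.1.1 h1
    have e2 := D.sep i j hne ⟨z.1, hz.1.1, D.c_gt hz, h1⟩
    rw [abs_of_neg (by linarith)] at e2
    have e3 : ramp (h i) (ρ i) z.2 < 1/2 := by
      have h3 := (D.A_mem hz).2
      unfold Af at h3
      rw [e1] at h3
      rcases min_choice (1/2) (ramp (h i) (ρ i) z.2) with h4 | h4
      · rw [h4] at h3; exact absurd D.cst.b2 (not_lt.2 h3)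
      · rw [h4] at h3; exact lt_of_le_of_lt h3 D.cst.b2
    have e4 := lt_of_ramp_lt (D.h0 i) e3
    have e5 : ramp (h j) (ρ j) z.2 = -1/2 := ramp_low (D.h0 j) (by linarith)
    unfold Af; rw [e5]; exact min_eq_right (L.cm j _ hz.1.1).1
  · have h3 : L.c j z.1 = -1/2 := le_antisymm (not_lt.1 h1) (L.cm j z.1 hz.1.1).1
    unfold Af; rw [h3]; exact min_eq_left ramp_mem.1

end Dep

/-! ### the same on the ball -/

section ball

variable {n : ℕ} {q dq : Set E} {I : Type*} (e : PLEquiv (cube n) q) (he : e.f '' sph n = dq)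
  {L : Lam dq I} {K b : ℝ} {h ρ : I → ℝ} (D : Dep L K b h ρ)

/-- on the band of `i` every function is given in the collar -/
lemma Dep.fillBall_of_B {i : I} {z : E} (hz : z ∈ (D.fillBall e he).B i) :
    ∃ y : (Fin n → ℝ) × ℝ, y ∈ Bf (L.pull (bdE e he) isClosed_sphere) b h ρ i ∧
      ∀ j, (D.fillBall e he).c j z
        = cl (Af (L.pull (bdE e he) isClosed_sphere) h ρ j y / (2 * b)) := by
  rw [D.fillBall_B, Dep.fill_B] at hz
  refine ⟨(collar n).f (e.g z), hz.2.2, fun j => ?_⟩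
  rw [D.fillBall_c, Dep.fill_c_ann _ _ hz.2.1]

lemma Dep.fillBall_out {i j : I} (hO : ∀ ω ∈ dq, L.c i ω = -1/2 ∨ L.c j ω = -1/2) {z : E}
    (hz : z ∈ (D.fillBall e he).B i) : (D.fillBall e he).c j z = -1/2 := by
  obtain ⟨y, hy, hc⟩ := D.fillBall_of_B e he hz
  rw [hc j, (D.pull e he).A_out (fun ω hω => hO _ ((bdE e he).mf hω)) hy]
  exact cl_low D.cst.b0 D.cst.b2

lemma Dep.fillBall_ins {i j : I} (hr : ρ j < ρ i)
    (hI : ∀ ω ∈ dq, -1/2 < L.c i ω → L.c j ω = 1/2) {z : E}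
    (hz : z ∈ (D.fillBall e he).B i) : (D.fillBall e he).c j z = 1/2 := by
  obtain ⟨y, hy, hc⟩ := D.fillBall_of_B e he hz
  rw [hc j, (D.pull e he).A_ins hr (fun ω hω => hI _ ((bdE e he).mf hω)) hy]
  exact cl_half D.cst.b0 D.cst.b2 (Or.inr rfl)

lemma Dep.fillBall_ins' {i j : I} (hr : ρ i < ρ j)
    (hI : ∀ ω ∈ dq, -1/2 < L.c j ω → L.c i ω = 1/2) {z : E}
    (hz : z ∈ (D.fillBall e he).B i) : (D.fillBall e he).c j z = -1/2 := by
  obtain ⟨y, hy, hc⟩ := D.fillBall_of_B e he hz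
  rw [hc j, (D.pull e he).A_ins' hr (fun ω hω => hI _ ((bdE e he).mf hω)) hy]
  exact cl_low D.cst.b0 D.cst.b2

lemma Dep.fillBall_empty {i : I} (hI : ∀ ω ∈ dq, L.c i ω = -1/2) {z : E}
    (hz : z ∈ (D.fillBall e he).B i) : False := by
  obtain ⟨y, hy, -⟩ := D.fillBall_of_B e he hz
  have h1 := (D.pull e he).c_gt hy
  have h2 : (L.pull (bdE e he) isClosed_sphere).c i y.1 = -1/2 := hI _ ((bdE e he).mf hy.1.1)
  rw [h2] at h1
  exact lt_irrefl _ h1

end ball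

/-! ### the cone rule -/

section rule

variable {Q : Type} [PartialOrder Q] {dim : Q → ℕ} {J Fam : Type}
variable {C : Cmb Q dim J Fam} {K : Q → Set E} {D : Set Q} {g : Gd E J}
  {P : ∀ q, C.I q → Set E} {c : ∀ q, C.I q → E → ℝ} {b : ℝ} {Ω : Set E}

lemma is_bd (H : Inv C K D g P c) (X : Cplx Ω Q dim K) {τ : Q} (hτ : ∀ σ < τ, σ ∈ D) :
    g.Is (bdS K τ) :=
  Gd.Is.biUnion (X.finite_below τ) (fun σ hσ => H.is σ (hτ σ hσ)) (fun σ _ => X.isClosed σ)

/-- the LAM-structure on the boundary of a new cell -/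
noncomputable def bdLam (H : Inv C K D g P c) (X : Cplx Ω Q dim K) (τ : Q)
    (hτ : ∀ σ < τ, σ ∈ D) : Lam (bdS K τ) (C.I τ) :=
  (bdPcs H X τ hτ).lam (is_bd H X hτ)

lemma preconn_bd (X : Cplx Ω Q dim K) {τ : Q} (hd : 2 ≤ dim τ) : IsPreconnected (bdS K τ) := by
  obtain ⟨e, he⟩ := X.isBall τ
  have he' : bdS K τ = e.f '' sph (dim τ) := he.symm
  rw [he']
  have h1 : 1 < Module.rank ℝ (Fin (dim τ) → ℝ) := by
    rw [rank_fin_fun]
    exact_mod_cast hd
  exact (isPreconnected_sphere h1 0 1).image _ (e.pf.1.mono sph_subset_cube)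

variable (H : Inv C K D g P c) (X : Cplx Ω Q dim K) {τ : Q} (hτ : ∀ σ < τ, σ ∈ D)

include H X hτ in
/-- the four relations between two pieces of one family -/
theorem bd_laminar (hd : 2 ≤ dim τ) {x x' : C.I τ} (hne : x ≠ x')
    (hf : C.fam (C.col τ x) = C.fam (C.col τ x')) :
    (C.side τ x x' = 0 ∧ C.side τ x' x = 0 ∧
      ∀ z ∈ bdS K τ, cbd C K c τ x z = -1/2 ∨ cbd C K c τ x' z = -1/2) ∨
    (C.side τ x x' = 1 ∧ C.side τ x' x = 0 ∧
      ∀ z ∈ bdS K τ, -1/2 < cbd C K c τ x z → cbd C K c τ x' z = 1/2) ∨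
    (C.side τ x x' = 0 ∧ C.side τ x' x = 1 ∧
      ∀ z ∈ bdS K τ, -1/2 < cbd C K c τ x' z → cbd C K c τ x z = 1/2) ∨
    (C.side τ x x' = 1 ∧ C.side τ x' x = 1 ∧
      ∀ z ∈ bdS K τ, cbd C K c τ x z = -1/2 ∧ cbd C K c τ x' z = -1/2) := by
  obtain ⟨o, ho, hoc⟩ := exists_base_pt H X hτ (by omega)
  have hoS : o ∈ bdS K τ :=
    mem_biUnion (show C.o τ ∈ {j | j < τ} from C.o_lt τ (by omega)) ho
  set p := bdPcs H X τ hτ with hp
  refine laminar (preconn_bd X hd) (p.pc x).1 (p.pc x').1 (p.cm x) (p.cm x') hoS (hoc x) (hoc x')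
    (fun z hz hc => ?_) (fun z hz hc => ?_)
  · have h1 := bd_sides H X hτ hne hf (p.cn x z hz hc)
    show cbd C K c τ x' z = _
    linarith
  · have h1 := bd_sides H X hτ (Ne.symm hne) hf.symm (p.cn x' z hz hc)
    show cbd C K c τ x z = _
    linarith

/-- **the cone rule is a filling rule** -/
theorem newCell_cone (hd : 2 ≤ dim τ) {n : ℕ} (e : PLEquiv (cube n) (K τ))
    (he : e.f '' sph n = bdS K τ) {κ : ℝ} {h ρ : C.I τ → ℝ}
    (Dp : Dep (bdLam H X τ hτ) κ b h ρ)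
    (ord : ∀ x x', x ≠ x' → C.fam (C.col τ x) = C.fam (C.col τ x') → C.side τ x x' = 1 →
      C.side τ x' x = 0 → (∃ z ∈ bdS K τ, cbd C K c τ x z ≠ -1/2) → ρ x' < ρ x) :
    NewCell C K g c b τ (Dp.fillBall e he) where
  c_bd x z hz := Dp.fillBall_c_bd e he x hz
  B_bd x z hz := Dp.fillBall_B_bd e he x hz
  tr_bd x z hz hc s hs := Dp.fillBall_tr_bd e he x hz hc hs
  fd := by
    have hl : LamDep (bdLam H X τ hτ) (fun x => C.fam (C.col τ x)) ρ := by
      intro i j hij hc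
      rcases bd_laminar H X hτ hd hij hc with h1 | h1 | h1 | h1
      · exact Or.inl h1.2.2
      · by_cases hn : ∃ z ∈ bdS K τ, cbd C K c τ i z ≠ -1/2
        · exact Or.inr (Or.inl ⟨ord i j hij hc h1.1 h1.2.1 hn, h1.2.2⟩)
        · push Not at hn
          exact Or.inl fun z hz => Or.inl (hn z hz)
      · by_cases hn : ∃ z ∈ bdS K τ, cbd C K c τ j z ≠ -1/2
        · exact Or.inr (Or.inr ⟨ord j i (Ne.symm hij) hc.symm h1.2.1 h1.1 hn, h1.2.2⟩)
        · push Not at hn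
          exact Or.inl fun z hz => Or.inr (hn z hz)
      · exact Or.inl fun z hz => Or.inl (h1.2.2 z hz).1
    intro x x' hne hf
    exact Dp.fillBall_dj e he hl x x' hne hf
  sd := by
    intro x x' hne hf z hz
    have emp : ¬ (∃ z ∈ bdS K τ, cbd C K c τ x z ≠ -1/2) → False := by
      intro hn
      push Not at hn
      exact Dp.fillBall_empty e he hn hz
    rcases bd_laminar H X hτ hd hne hf with h1 | h1 | h1 | h1
    · rw [Dp.fillBall_out e he h1.2.2 hz, h1.1, sg_zero]; norm_num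
    · by_cases hn : ∃ z ∈ bdS K τ, cbd C K c τ x z ≠ -1/2
      · rw [Dp.fillBall_ins e he (ord x x' hne hf h1.1 h1.2.1 hn) h1.2.2 hz, h1.1, sg_one]
        norm_num
      · exact (emp hn).elim
    · by_cases hn : ∃ z ∈ bdS K τ, cbd C K c τ x' z ≠ -1/2
      · rw [Dp.fillBall_ins' e he (ord x' x (Ne.symm hne) hf.symm h1.2.1 h1.1 hn) h1.2.2 hz,
          h1.1, sg_zero]
        norm_num
      · push Not at hn
        rw [Dp.fillBall_out e he (fun ω hω => Or.inr (hn ω hω)) hz, h1.1, sg_zero]; norm_num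
    · exact (Dp.fillBall_empty e he (fun ω hω => (h1.2.2 ω hω).1) hz).elim

/-- `Dep` from numbers only -/
theorem dep_of {τ : Q} (hτ : ∀ σ < τ, σ ∈ D) {κ : ℝ} {h ρ : C.I τ → ℝ} (hc : Cst κ b)
    (h0 : ∀ i, 0 < h i) (lo : ∀ i, 1/2 ≤ ρ i - h i/2) (hi : ∀ i, ρ i + h i/2 ≤ 1)
    (sep : ∀ i j, i ≠ j → (h i + h j) / 2 ≤ |ρ i - ρ j|) :
    Dep (bdLam H X τ hτ) κ b h ρ :=
  ⟨hc, h0, lo, hi, fun i j hij _ => sep i j hij⟩

end rule

end Crest.Agent.R096.Bd_416
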