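import Crest.Agent.R096.Bd15_416

/-!
# R096 (row 96), P4-MESH, part 9: merging the sheets of a family (helper416)

`g : Gd E J` (colours = sheets), `φ : J → κ` (families); `g.merge φ hf`: colours = families,
`G a = Σ_{φ j = a} G j`.
-/

set_option autoImplicit false

open Set Metric

namespace Crest.Agent.R096.Bd_416

open Crest.Agent.R096.Ce_537

open scoped Classical

set_option linter.unusedSectionVars false

variable {E : Type*} [NormedAddCommGroup E] [NormedSpace ℝ E] {J κ : Type*}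

/-- **merging the sheets of every family** -/
noncomputable def Gd.merge (g : Gd E J) (φ : J → κ) (hf : ∀ a, {j | φ j = a}.Finite) :
    Gd E κ where
  G a z := ∑ j ∈ (hf a).toFinset, g.G j z
  B a := {z | ∃ j, φ j = a ∧ z ∈ g.B j}
  lev a z := if h : ∃ j, φ j = a ∧ z ∈ g.B j then
      (∑ j ∈ (hf a).toFinset, g.G j z) - g.G h.choose z + g.lev h.choose z
    else 0
  tr a p := if h : ∃ j, φ j = a ∧ p.1 ∈ g.B j then g.tr h.choose p else p.1

section merge

variable {g : Gd E J} {φ : J → κ} {hf : ∀ a, {j | φ j = a}.Finite} {Z : Set E}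

omit [NormedAddCommGroup E] [NormedSpace ℝ E] in
lemma merge_choose {z : E}
    (dj : ∀ j j', j ≠ j' → φ j = φ j' → z ∈ g.B j → z ∉ g.B j') {j : J} (hB : z ∈ g.B j)
    (h : ∃ j', φ j' = φ j ∧ z ∈ g.B j') : h.choose = j := by
  by_contra hne
  exact dj _ _ hne h.choose_spec.1 h.choose_spec.2 hB

lemma merge_tr {z : E} (dj : ∀ j j', j ≠ j' → φ j = φ j' → z ∈ g.B j → z ∉ g.B j') {j : J}
    (hB : z ∈ g.B j) (s : ℝ) : (g.merge φ hf).tr (φ j) (z, s) = g.tr j (z, s) := by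
  have h : ∃ j', φ j' = φ j ∧ z ∈ g.B j' := ⟨j, rfl, hB⟩
  have : (g.merge φ hf).tr (φ j) (z, s) = g.tr h.choose (z, s) := by
    show (if h : ∃ j', φ j' = φ j ∧ z ∈ g.B j' then g.tr h.choose (z, s) else z) = _
    rw [dif_pos h]
  rw [this, merge_choose dj hB h]

lemma merge_lev {z : E} (dj : ∀ j j', j ≠ j' → φ j = φ j' → z ∈ g.B j → z ∉ g.B j') {j : J}
    (hB : z ∈ g.B j) : (g.merge φ hf).lev (φ j) z
      = (g.merge φ hf).G (φ j) z - g.G j z + g.lev j z := by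
  have h : ∃ j', φ j' = φ j ∧ z ∈ g.B j' := ⟨j, rfl, hB⟩
  have : (g.merge φ hf).lev (φ j) z
      = (g.merge φ hf).G (φ j) z - g.G h.choose z + g.lev h.choose z := by
    show (if h : ∃ j', φ j' = φ j ∧ z ∈ g.B j' then
      (∑ j' ∈ (hf (φ j)).toFinset, g.G j' z) - g.G h.choose z + g.lev h.choose z
      else 0) = _
    rw [dif_pos h]; rfl
  rw [this, merge_choose dj hB h]

/-- the others are not changed by the transport -/
lemma merge_G_tr (hI : g.Is Z) {z : E} (hz : z ∈ Z) {j : J} (hB : z ∈ g.B j) {s : ℝ}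
    (hs : s ∈ I2) (a : κ) : (g.merge φ hf).G a (g.tr j (z, s))
      = (g.merge φ hf).G a z + if φ j = a then g.lev j z + 1/2 + s - g.G j z else 0 := by
  show ∑ i ∈ (hf a).toFinset, g.G i (g.tr j (z, s)) = ∑ i ∈ (hf a).toFinset, g.G i z + _
  by_cases h : φ j = a
  · rw [if_pos h]
    have hj : j ∈ (hf a).toFinset := by rw [Set.Finite.mem_toFinset]; exact h
    rw [← Finset.add_sum_erase _ _ hj, ← Finset.add_sum_erase _ _ hj, hI.tG j z hz hB s hs]
    have : ∑ i ∈ (hf a).toFinset.erase j, g.G i (g.tr j (z, s))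
        = ∑ i ∈ (hf a).toFinset.erase j, g.G i z :=
      Finset.sum_congr rfl fun i hi =>
        hI.oG j i (Ne.symm (Finset.ne_of_mem_erase hi)) z hz hB s hs
    rw [this]; ring
  · rw [if_neg h, add_zero]
    refine Finset.sum_congr rfl fun i hi => ?_
    refine hI.oG j i ?_ z hz hB s hs
    rintro rfl
    exact h (by rw [Set.Finite.mem_toFinset] at hi; exact hi)

/-- **THE MERGED DATA ARE A BAND STRUCTURE** -/
theorem Gd.Is.merge (hI : g.Is Z)
    (dj : ∀ z ∈ Z, ∀ j j', j ≠ j' → φ j = φ j' → z ∈ g.B j → z ∉ g.B j') :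
    (g.merge φ hf).Is Z := by
  have trm : ∀ {z : E} (_ : z ∈ Z) {j : J} (_ : z ∈ g.B j) (s : ℝ),
      (g.merge φ hf).tr (φ j) (z, s) = g.tr j (z, s) := fun {z} hz {j} hB s =>
    merge_tr (dj z hz) hB s
  have levm : ∀ {z : E} (_ : z ∈ Z) {j : J} (_ : z ∈ g.B j), (g.merge φ hf).lev (φ j) z
      = (g.merge φ hf).G (φ j) z - g.G j z + g.lev j z := fun {z} hz {j} hB =>
    merge_lev (dj z hz) hB
  have tl' : ∀ {z : E} (_ : z ∈ Z) {j j' : J} (_ : z ∈ g.B j) (_ : z ∈ g.B j')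
      {s : ℝ} (_ : s ∈ I2),
      (g.merge φ hf).lev (φ j') (g.tr j (z, s)) = (g.merge φ hf).lev (φ j') z := by
    intro z hz j j' hB hB' s hs
    have hz2 := hI.tZ j z hz hB s hs
    have hB2 : g.tr j (z, s) ∈ g.B j' := by
      by_cases h : j = j'
      · subst h; exact hI.tB j z hz hB s hs
      · exact hI.oB j j' h z hz hB hB' s hs
    rw [levm hz2 hB2, levm hz hB', merge_G_tr hI hz hB hs]
    by_cases h : j = j'
    · subst h
      rw [if_pos rfl, hI.tG j z hz hB s hs, hI.tl j z hz hB s hs]; ring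
    · have hφ : φ j ≠ φ j' := fun e => dj z hz j j' h e hB hB'
      rw [if_neg hφ, hI.oG j j' h z hz hB s hs, hI.ol j j' h z hz hB hB' s hs]; ring
  refine ⟨fun a => ?_, fun a => ?_, fun a z hz hn => ?_, ?_, ?_, fun a => ?_, ?_, ?_, ?_, ?_, ?_,
    ?_, ?_, ?_, ?_, ?_⟩
  · exact pl_sum _ fun j _ => hI.pG j
  · have : Z ∩ (g.merge φ hf).B a = ⋃ j ∈ {j | φ j = a}, (Z ∩ g.B j) := by
      ext z
      simp only [mem_iUnion, mem_inter_iff, exists_prop]
      constructor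
      · rintro ⟨hz, j, hj, hB⟩; exact ⟨j, hj, hz, hB⟩
      · rintro ⟨j, hj, hz, hB⟩; exact ⟨hz, j, hj, hB⟩
    rw [this]
    exact (hf a).isClosed_biUnion fun j _ => hI.cB j
  · by_contra hc
    refine hn (AddSubgroup.sum_mem _ fun j hj => ?_)
    by_contra hn'
    exact hc ⟨j, by rw [Set.Finite.mem_toFinset] at hj; exact hj, hI.nB j z hz hn'⟩
  · rintro a z hz ⟨j, rfl, hB⟩
    rw [levm hz hB]
    have hj : j ∈ (hf (φ j)).toFinset := by rw [Set.Finite.mem_toFinset]; rfl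
    have h1 : (g.merge φ hf).G (φ j) z - g.G j z
        = ∑ i ∈ (hf (φ j)).toFinset.erase j, g.G i z := by
      show ∑ i ∈ (hf (φ j)).toFinset, g.G i z - _ = _
      rw [← Finset.add_sum_erase _ _ hj]; ring
    rw [h1]
    refine AddSubgroup.add_mem _ (AddSubgroup.sum_mem _ fun i hi => ?_) (hI.li j z hz hB)
    by_contra hn'
    have h2 := Finset.mem_of_mem_erase hi
    rw [Set.Finite.mem_toFinset] at h2
    have h3 : φ i = φ j := h2
    exact dj z hz j i (Ne.symm (Finset.ne_of_mem_erase hi)) h3.symm hB (hI.nB i z hz hn')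
  · rintro a z hz ⟨j, rfl, hB⟩
    rw [levm hz hB]
    have := hI.ab j z hz hB
    have e : (g.merge φ hf).G (φ j) z - ((g.merge φ hf).G (φ j) z - g.G j z + g.lev j z) - 1/2
        = g.G j z - g.lev j z - 1/2 := by ring
    rw [e]; exact this
  · have : (Z ∩ (g.merge φ hf).B a) ×ˢ I2 = ⋃ j ∈ {j | φ j = a}, ((Z ∩ g.B j) ×ˢ I2) := by
      ext ⟨z, s⟩
      simp only [mem_iUnion, mem_prod, mem_inter_iff, exists_prop]
      constructor
      · rintro ⟨⟨hz, j, hj, hB⟩, hs⟩; exact ⟨j, hj, ⟨hz, hB⟩, hs⟩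
      · rintro ⟨j, hj, ⟨hz, hB⟩, hs⟩; exact ⟨⟨hz, j, hj, hB⟩, hs⟩
    rw [this]
    refine plOn_biUnion _ (hf a) (fun j hj => ?_) fun j _ => (hI.cB j).prod isClosed_Icc
    refine (hI.pt j).congr ?_
    rintro ⟨z, s⟩ ⟨⟨hz, hB⟩, hs⟩
    have hj' : φ j = a := hj
    subst hj'
    exact trm hz hB s
  · rintro a z hz ⟨j, rfl, hB⟩ s hs
    rw [trm hz hB]; exact hI.tZ j z hz hB s hs
  · rintro a z hz ⟨j, rfl, hB⟩ s hs
    rw [trm hz hB]; exact ⟨j, rfl, hI.tB j z hz hB s hs⟩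
  · rintro a z hz ⟨j, rfl, hB⟩ s hs
    rw [trm hz hB]; exact tl' hz hB hB hs
  · rintro a z hz ⟨j, rfl, hB⟩ s hs
    rw [trm hz hB, merge_G_tr hI hz hB hs, if_pos rfl, levm hz hB]; ring
  · rintro a z hz ⟨j, rfl, hB⟩
    rw [trm hz hB, levm hz hB]
    have e : (g.merge φ hf).G (φ j) z - ((g.merge φ hf).G (φ j) z - g.G j z + g.lev j z) - 1/2
        = g.G j z - g.lev j z - 1/2 := by ring
    rw [e]; exact hI.ts j z hz hB
  · rintro a z hz ⟨j, rfl, hB⟩ s hs s' hs'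
    rw [trm hz hB, trm hz hB, trm (hI.tZ j z hz hB s hs) (hI.tB j z hz hB s hs)]
    exact hI.tt j z hz hB s hs s' hs'
  · rintro a a' haa z hz ⟨j, rfl, hB⟩ s hs
    rw [trm hz hB, merge_G_tr hI hz hB hs, if_neg haa, add_zero]
  · rintro a a' haa z hz ⟨j, rfl, hB⟩ ⟨j', rfl, hB'⟩ s hs
    rw [trm hz hB]
    exact ⟨j', rfl, hI.oB j j' (fun e => haa (by rw [e])) z hz hB hB' s hs⟩
  · rintro a a' haa z hz ⟨j, rfl, hB⟩ ⟨j', rfl, hB'⟩ s hs
    rw [trm hz hB]; exact tl' hz hB hB' hs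
  · rintro a a' haa z hz ⟨j, rfl, hB⟩ ⟨j', rfl, hB'⟩ s hs t ht
    have hne : j ≠ j' := fun e => haa (by rw [e])
    rw [trm hz hB', trm hz hB, trm (hI.tZ j' z hz hB' t ht)
      (hI.oB j' j (Ne.symm hne) z hz hB' hB t ht),
      trm (hI.tZ j z hz hB s hs) (hI.oB j j' hne z hz hB hB' s hs)]
    exact hI.oc j j' hne z hz hB hB' s hs t ht

end merge

/-! ### the mesh structure -/

section mesh

variable {Q : Type} [PartialOrder Q] {dim : Q → ℕ} {J Fam : Type}
variable {C : Cmb Q dim J Fam} {K : Q → Set E} {D : Set Q} {g : Gd E J}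
  {P : ∀ q, C.I q → Set E} {c : ∀ q, C.I q → E → ℝ} {b : ℝ} {Ω : Set E}

/-- bands of different sheets of one family are disjoint -/
lemma Inv.fam_disj (H : Inv C K D g P c) {q : Q} (hq : q ∈ D) {z : E} (hz : z ∈ K q)
    {j j' : J} (hne : j ≠ j') (hf : C.fam j = C.fam j') (hB : z ∈ g.B j) : z ∉ g.B j' := by
  intro hB'
  obtain ⟨x, hx, hxP⟩ := H.cov q hq j z hz hB
  obtain ⟨x', hx', hxP'⟩ := H.cov q hq j' z hz hB'
  refine Set.disjoint_left.1 (H.fd q hq x x' ?_ (by rw [hx, hx', hf])) hxP hxP'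
  rintro rfl
  exact hne (hx.symm.trans hx')

/-- **the family data are a band structure on every cell** -/
theorem Inv.merge_is (H : Inv C K D g P c) (hf : ∀ a, {j | C.fam j = a}.Finite) {q : Q}
    (hq : q ∈ D) : (g.merge C.fam hf).Is (K q) :=
  (H.is q hq).merge fun z hz j j' hne hj hB => H.fam_disj hq hz hne hj hB

/-- merging commutes with squeezing on the cells -/
theorem Inv.merge_sq (H : Inv C K D g P c) (hf : ∀ a, {j | C.fam j = a}.Finite) {q : Q}
    (hq : q ∈ D) {z : E} (hz : z ∈ K q) :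
    EqAt ((g.merge C.fam hf).sq b) ((g.sq b).merge C.fam hf) z := by
  have dj : ∀ j j', j ≠ j' → C.fam j = C.fam j' → z ∈ g.B j → z ∉ g.B j' :=
    fun j j' hne hj hB => H.fam_disj hq hz hne hj hB
  have dj' : ∀ j j', j ≠ j' → C.fam j = C.fam j' → z ∈ (g.sq b).B j → z ∉ (g.sq b).B j' :=
    fun j j' hne hj hB hB' => dj j j' hne hj hB.1 hB'.1
  have e0 : ∀ j : J, z ∈ g.B j →
      (g.merge C.fam hf).G (C.fam j) z - (g.merge C.fam hf).lev (C.fam j) z - 1/2
        = g.G j z - g.lev j z - 1/2 := by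
    intro j hB
    rw [merge_lev dj hB]; ring
  -- the others
  have sumsq : ∀ j : J, z ∈ g.B j → ((g.sq b).merge C.fam hf).G (C.fam j) z
      = (g.merge C.fam hf).G (C.fam j) z - g.G j z + (g.sq b).G j z := by
    intro j hB
    have hj : j ∈ (hf (C.fam j)).toFinset := by rw [Set.Finite.mem_toFinset]; rfl
    show ∑ i ∈ (hf (C.fam j)).toFinset, (g.sq b).G i z
      = ∑ i ∈ (hf (C.fam j)).toFinset, g.G i z - _ + _
    rw [← Finset.add_sum_erase _ _ hj, ← Finset.add_sum_erase _ _ hj]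
    have : ∑ i ∈ (hf (C.fam j)).toFinset.erase j, (g.sq b).G i z
        = ∑ i ∈ (hf (C.fam j)).toFinset.erase j, g.G i z := by
      refine Finset.sum_congr rfl fun i hi => ?_
      have h2 := Finset.mem_of_mem_erase hi
      rw [Set.Finite.mem_toFinset] at h2
      have h3 : C.fam i = C.fam j := h2
      exact Gd.sq_G_notMem (dj j i (Ne.symm (Finset.ne_of_mem_erase hi)) h3.symm hB)
    rw [this]; ring
  refine ⟨fun a => ?_, fun a => ?_, fun a hB => ?_, fun a hB s hs => ?_⟩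
  · by_cases h : z ∈ (g.merge C.fam hf).B a
    · obtain ⟨j, rfl, hB⟩ := h
      rw [Gd.sq_G_mem (show z ∈ (g.merge C.fam hf).B (C.fam j) from ⟨j, rfl, hB⟩), sumsq j hB,
        Gd.sq_G_mem hB, e0 j hB, merge_lev dj hB]
      ring
    · rw [Gd.sq_G_notMem h]
      refine Finset.sum_congr rfl fun i hi => ?_
      rw [Set.Finite.mem_toFinset] at hi
      exact Gd.sq_G_notMem fun hB => h ⟨i, hi, hB⟩
  · constructor
    · rintro ⟨j, rfl, hB⟩
      exact ⟨⟨j, rfl, hB.1⟩, by rw [e0 j hB.1]; exact hB.2⟩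
    · rintro ⟨⟨j, rfl, hB⟩, hb⟩
      exact ⟨j, rfl, hB, by rw [← e0 j hB]; exact hb⟩
  · obtain ⟨⟨j, rfl, hB⟩, hb⟩ := hB
    have hB2 : z ∈ (g.sq b).B j := ⟨hB, by rw [← e0 j hB]; exact hb⟩
    rw [merge_lev dj' hB2]
    show _ = (g.merge C.fam hf).lev (C.fam j) z
    rw [merge_lev dj hB, sumsq j hB]
    show _ - (g.sq b).G j z + g.lev j z = _
    ring
  · obtain ⟨⟨j, rfl, hB⟩, hb⟩ := hB
    have hB2 : z ∈ (g.sq b).B j := ⟨hB, by rw [← e0 j hB]; exact hb⟩
    rw [merge_tr dj' hB2]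
    show g.tr j (z, 2 * b * s) = (g.merge C.fam hf).tr (C.fam j) (z, 2 * b * s)
    rw [merge_tr dj hB]

end mesh

end Crest.Agent.R096.Bd_416
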