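import Crest.Agent.R096.Ce1_537

/-!
# R096 (row 96), P4-BAND, part 1: arithmetic of `PLOn`, the stretch maps, the PL collar of the cube
(helper416)
-/

set_option autoImplicit false

open Set Metric

namespace Crest.Agent.R096.Bd_416

open Crest.Agent.R096.Ce_537

section PLOn

variable {E F G : Type*} [NormedAddCommGroup E] [NormedSpace ℝ E]
  [NormedAddCommGroup F] [NormedSpace ℝ F] [NormedAddCommGroup G] [NormedSpace ℝ G]

/-- a continuous selection of finitely many `PLOn` maps is `PLOn` -/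
lemma pl_sel {ι : Type*} (s : Finset ι) {g : ι → E → F} {f : E → F} {K : Set E}
    (hc : ContinuousOn f K) (hg : ∀ i ∈ s, PLOn (g i) K) (hs : ∀ x ∈ K, ∃ i ∈ s, f x = g i x) :
    PLOn f K := by
  classical
  refine ⟨hc, ?_⟩
  choose! T hT using fun i (hi : i ∈ s) => (hg i hi).2
  refine ⟨s.biUnion T, fun x hx => ?_⟩
  obtain ⟨i, hi, e⟩ := hs x hx
  obtain ⟨a, ha, e'⟩ := hT i hi x hx
  exact ⟨a, Finset.mem_biUnion.2 ⟨i, hi, ha⟩, by rw [e, e']⟩

/-- `PLOn` composed with a continuous affine map -/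
lemma pl_affine {f : E → F} {K : Set E} (hf : PLOn f K) (a : F →ᵃ[ℝ] G)
    (ha : Continuous a) : PLOn (fun x => a (f x)) K := by
  classical
  obtain ⟨h1, S, h2⟩ := hf
  refine ⟨ha.comp_continuousOn h1, S.image (fun g => a.comp g), fun x hx => ?_⟩
  obtain ⟨g, hg, e⟩ := h2 x hx
  exact ⟨a.comp g, Finset.mem_image.2 ⟨g, hg, rfl⟩, by simp [e]⟩

lemma pl_pair {f : E → F} {g : E → G} {K : Set E} (hf : PLOn f K) (hg : PLOn g K) :
    PLOn (fun x => (f x, g x)) K := by
  classical
  obtain ⟨f1, S, f2⟩ := hf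
  obtain ⟨g1, T, g2⟩ := hg
  refine ⟨f1.prodMk g1, (S ×ˢ T).image (fun p => p.1.prod p.2), fun x hx => ?_⟩
  obtain ⟨a, ha, e⟩ := f2 x hx
  obtain ⟨b, hb, e'⟩ := g2 x hx
  exact ⟨a.prod b, Finset.mem_image.2 ⟨(a, b), Finset.mem_product.2 ⟨ha, hb⟩, rfl⟩, by
    simp [e, e']⟩

lemma pl_clm {f : E → F} {K : Set E} (hf : PLOn f K) (a : F →L[ℝ] G) :
    PLOn (fun x => a (f x)) K :=
  pl_affine hf a.toLinearMap.toAffineMap a.continuous

lemma pl_fst {f : E → F × G} {K : Set E} (hf : PLOn f K) : PLOn (fun x => (f x).1) K :=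
  pl_clm hf (ContinuousLinearMap.fst ℝ F G)

lemma pl_snd {f : E → F × G} {K : Set E} (hf : PLOn f K) : PLOn (fun x => (f x).2) K :=
  pl_clm hf (ContinuousLinearMap.snd ℝ F G)

lemma pl_add {f g : E → F} {K : Set E} (hf : PLOn f K) (hg : PLOn g K) :
    PLOn (fun x => f x + g x) K :=
  pl_clm (pl_pair hf hg) (ContinuousLinearMap.fst ℝ F F + ContinuousLinearMap.snd ℝ F F)

lemma pl_sub {f g : E → F} {K : Set E} (hf : PLOn f K) (hg : PLOn g K) :
    PLOn (fun x => f x - g x) K :=
  pl_clm (pl_pair hf hg) (ContinuousLinearMap.fst ℝ F F - ContinuousLinearMap.snd ℝ F F)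

lemma pl_smul {f : E → F} {K : Set E} (c : ℝ) (hf : PLOn f K) :
    PLOn (fun x => c • f x) K :=
  pl_clm hf (c • ContinuousLinearMap.id ℝ F)

lemma pl_mul {f : E → ℝ} {K : Set E} (c : ℝ) (hf : PLOn f K) :
    PLOn (fun x => c * f x) K := pl_smul c hf

lemma pl_neg {f : E → F} {K : Set E} (hf : PLOn f K) : PLOn (fun x => - f x) K := by
  simpa using pl_smul (-1) hf

lemma pl_add_const {f : E → F} {K : Set E} (hf : PLOn f K) (c : F) :
    PLOn (fun x => f x + c) K := pl_add hf (plOn_const c K)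

lemma pl_sub_const {f : E → F} {K : Set E} (hf : PLOn f K) (c : F) :
    PLOn (fun x => f x - c) K := pl_sub hf (plOn_const c K)

lemma pl_div {f : E → ℝ} {K : Set E} (hf : PLOn f K) (c : ℝ) :
    PLOn (fun x => f x / c) K := by
  simpa [div_eq_inv_mul] using pl_mul c⁻¹ hf

lemma pl_max {f g : E → ℝ} {K : Set E} (hf : PLOn f K) (hg : PLOn g K) :
    PLOn (fun x => max (f x) (g x)) K := by
  refine pl_sel (Finset.univ : Finset Bool) (g := fun b => if b then f else g)
    (continuous_max.comp_continuousOn (hf.1.prodMk hg.1)) ?_ ?_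
  · rintro (_ | _) _
    · simpa using hg
    · simpa using hf
  · intro x _
    rcases max_choice (f x) (g x) with h | h
    · exact ⟨true, Finset.mem_univ _, by simp [h]⟩
    · exact ⟨false, Finset.mem_univ _, by simp [h]⟩

lemma pl_min {f g : E → ℝ} {K : Set E} (hf : PLOn f K) (hg : PLOn g K) :
    PLOn (fun x => min (f x) (g x)) K := by
  refine pl_sel (Finset.univ : Finset Bool) (g := fun b => if b then f else g)
    (continuous_min.comp_continuousOn (hf.1.prodMk hg.1)) ?_ ?_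
  · rintro (_ | _) _
    · simpa using hg
    · simpa using hf
  · intro x _
    rcases min_choice (f x) (g x) with h | h
    · exact ⟨true, Finset.mem_univ _, by simp [h]⟩
    · exact ⟨false, Finset.mem_univ _, by simp [h]⟩

lemma pl_sum {ι : Type*} (s : Finset ι) {f : ι → E → F} {K : Set E}
    (h : ∀ i ∈ s, PLOn (f i) K) : PLOn (fun x => ∑ i ∈ s, f i x) K := by
  classical
  induction s using Finset.induction_on with
  | empty => simpa using plOn_const (0 : F) K
  | @insert a s ha ih =>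
    simp only [Finset.sum_insert ha]
    exact pl_add (h a (Finset.mem_insert_self _ _))
      (ih fun i hi => h i (Finset.mem_insert_of_mem hi))

lemma pl_pi {ι : Type*} [Fintype ι] {f : E → ι → ℝ} {K : Set E}
    (h : ∀ i, PLOn (fun x => f x i) K) : PLOn f K := by
  classical
  have : f = fun x => ∑ i, (ContinuousLinearMap.single ℝ (fun _ : ι => ℝ) i) (f x i) := by
    funext x
    simp only [ContinuousLinearMap.single_apply]
    exact (Finset.univ_sum_single (f x)).symm
  rw [this]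
  exact pl_sum _ fun i _ => pl_clm (h i) (ContinuousLinearMap.single ℝ (fun _ : ι => ℝ) i)

lemma pl_apply {ι : Type*} [Fintype ι] {f : E → ι → ℝ} {K : Set E} (h : PLOn f K) (i : ι) :
    PLOn (fun x => f x i) K :=
  pl_clm h (ContinuousLinearMap.proj (R := ℝ) (φ := fun _ : ι => ℝ) i)

/-- clamp to `[-1/2, 1/2]` -/
noncomputable def cl (t : ℝ) : ℝ := max (-1/2) (min t (1/2))

lemma pl_cl {f : E → ℝ} {K : Set E} (h : PLOn f K) : PLOn (fun x => cl (f x)) K :=
  pl_max (plOn_const _ K) (pl_min h (plOn_const _ K))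

end PLOn

section cl

lemma cl_mem (t : ℝ) : cl t ∈ Icc (-1/2 : ℝ) (1/2) :=
  ⟨le_max_left _ _, max_le (by norm_num) (min_le_right _ _)⟩

lemma cl_of_mem {t : ℝ} (h : t ∈ Icc (-1/2 : ℝ) (1/2)) : cl t = t := by
  rw [cl, min_eq_left h.2, max_eq_right h.1]

lemma cl_of_le {t : ℝ} (h : t ≤ -1/2) : cl t = -1/2 := by
  rw [cl, min_eq_left (by linarith), max_eq_left h]

lemma cl_of_ge {t : ℝ} (h : 1/2 ≤ t) : cl t = 1/2 := by
  rw [cl, min_eq_right h, max_eq_right (by norm_num)]

lemma cl_mono {s t : ℝ} (h : s ≤ t) : cl s ≤ cl t :=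
  max_le_max le_rfl (min_le_min h le_rfl)

lemma abs_cl_lt {t : ℝ} (h : |cl t| < 1/2) : t = cl t ∧ |t| < 1/2 := by
  rcases le_or_gt t (-1/2) with h1 | h1
  · rw [cl_of_le h1] at h; norm_num [abs_of_neg] at h
  rcases le_or_gt (1/2) t with h2 | h2
  · rw [cl_of_ge h2] at h; norm_num at h
  have : cl t = t := cl_of_mem ⟨h1.le, h2.le⟩
  rw [this] at h ⊢
  exact ⟨rfl, h⟩

end cl

/-! ### the stretch maps -/

section stretch

/-- `psi K b s` is a PL homeomorphism of the line carrying `s` to `-b` -/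
noncomputable def psi (K b s t : ℝ) : ℝ := min (K * (t - s) - b) t

/-- the inverse of `psi K b s` -/
noncomputable def chi (K b s u : ℝ) : ℝ := max (s + (u + b) / K) u

/-- stretch from level `s` to level `s'` -/
noncomputable def phi (K b s s' t : ℝ) : ℝ := chi K b s' (psi K b s t)

variable {K b : ℝ}

lemma chi_psi (hK : 0 < K) (s t : ℝ) : chi K b s (psi K b s t) = t := by
  unfold chi psi
  rcases le_total (K * (t - s) - b) t with h | h
  · rw [min_eq_left h]
    have : s + (K * (t - s) - b + b) / K = t := by field_simp; ring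
    rw [this, max_eq_left h]
  · rw [min_eq_right h]
    apply max_eq_right
    have : (t + b) / K ≤ t - s := by
      rw [div_le_iff₀ hK]; nlinarith
    linarith

lemma psi_chi (hK : 0 < K) (s u : ℝ) : psi K b s (chi K b s u) = u := by
  unfold chi psi
  rcases le_total (s + (u + b) / K) u with h | h
  · rw [max_eq_right h]
    apply min_eq_right
    have : (u + b) / K ≤ u - s := by linarith
    rw [div_le_iff₀ hK] at this
    nlinarith
  · rw [max_eq_left h]
    have : K * (s + (u + b) / K - s) - b = u := by field_simp; ring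
    rw [this, min_eq_left h]

lemma phi_self (hK : 0 < K) (s t : ℝ) : phi K b s s t = t := chi_psi hK s t

lemma phi_phi (hK : 0 < K) (s s' s'' t : ℝ) :
    phi K b s' s'' (phi K b s s' t) = phi K b s s'' t := by
  unfold phi
  rw [psi_chi hK]

lemma psi_mono (hK : 0 < K) (s : ℝ) : Monotone (psi K b s) := by
  intro t t' h
  exact min_le_min (by nlinarith) h

lemma chi_mono (hK : 0 < K) (s : ℝ) : Monotone (chi K b s) := by
  intro t t' h
  refine max_le_max ?_ h
  have : (t + b) / K ≤ (t' + b) / K := by gcongr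
  linarith

lemma phi_mono (hK : 0 < K) (s s' : ℝ) : Monotone (phi K b s s') :=
  (chi_mono hK s').comp (psi_mono hK s)

lemma psi_base {s : ℝ} (h : -b ≤ s) : psi K b s s = -b := by
  simp [psi, h]

lemma chi_base {s : ℝ} (h : -b ≤ s) : chi K b s (-b) = s := by
  simp [chi, h]

lemma phi_base {s s' : ℝ} (h : -b ≤ s) (h' : -b ≤ s') : phi K b s s' s = s' := by
  rw [phi, psi_base h, chi_base h']

/-- the standing condition on the constants -/
structure Cst (K b : ℝ) : Prop where
  b0 : 0 < b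
  b2 : b < 1/2
  hK : 0 < K
  hKb : (1/2 + b) ≤ K * (1/2 - b)

lemma Cst.mk' {b : ℝ} (h0 : 0 < b) (h2 : b < 1/2) : Cst ((1 + 2 * b) / (1 - 2 * b)) b := by
  have h : 0 < 1 - 2 * b := by linarith
  refine ⟨h0, h2, by positivity, ?_⟩
  have : (1 + 2 * b) / (1 - 2 * b) * (1/2 - b) = 1/2 + b := by field_simp
  rw [this]

lemma psi_top (hC : Cst K b) {s : ℝ} (h : s ≤ b) : psi K b s (1/2) = 1/2 := by
  apply min_eq_right
  have := hC.hKb
  have : K * (1/2 - b) ≤ K * (1/2 - s) := mul_le_mul_of_nonneg_left (by linarith) hC.hK.le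
  linarith

lemma chi_top (hC : Cst K b) {s : ℝ} (h : s ≤ b) : chi K b s (1/2) = 1/2 := by
  apply max_eq_right
  have h1 := hC.hKb
  have h2 : K * (1/2 - b) ≤ K * (1/2 - s) := mul_le_mul_of_nonneg_left (by linarith) hC.hK.le
  have : (1/2 + b) / K ≤ 1/2 - s := by
    rw [div_le_iff₀ hC.hK]; nlinarith
  linarith

lemma phi_top (hC : Cst K b) {s s' : ℝ} (h : s ≤ b) (h' : s' ≤ b) : phi K b s s' (1/2) = 1/2 := by
  rw [phi, psi_top hC h, chi_top hC h']

lemma phi_min (hK : 0 < K) (s s' t t' : ℝ) :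
    min (phi K b s s' t) (phi K b s s' t') = phi K b s s' (min t t') :=
  ((phi_mono hK s s').map_min).symm

lemma phi_mem (hC : Cst K b) {s s' t : ℝ} (hs : s ∈ Icc (-b) b) (hs' : s' ∈ Icc (-b) b)
    (ht : t ∈ Icc s (1/2)) : phi K b s s' t ∈ Icc s' (1/2) := by
  constructor
  · calc s' = phi K b s s' s := (phi_base hs.1 hs'.1).symm
      _ ≤ _ := phi_mono hC.hK s s' ht.1
  · calc phi K b s s' t ≤ phi K b s s' (1/2) := phi_mono hC.hK s s' ht.2
      _ = 1/2 := phi_top hC hs.2 hs'.2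

lemma phi_eq_half_iff (hC : Cst K b) {s s' t : ℝ} (hs : s ≤ b) (hs' : s' ≤ b) :
    phi K b s s' t = 1/2 ↔ t = 1/2 := by
  constructor
  · intro h
    have : phi K b s' s (phi K b s s' t) = phi K b s' s (1/2) := by rw [h]
    rwa [phi_phi hC.hK, phi_self hC.hK, phi_top hC hs' hs] at this
  · rintro rfl; exact phi_top hC hs hs'

variable {E : Type*} [NormedAddCommGroup E] [NormedSpace ℝ E]

lemma pl_psi {s t : E → ℝ} {Z : Set E} (K b : ℝ) (hs : PLOn s Z) (ht : PLOn t Z) :
    PLOn (fun x => psi K b (s x) (t x)) Z :=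
  pl_min (pl_sub_const (pl_mul K (pl_sub ht hs)) b) ht

lemma pl_chi {s t : E → ℝ} {Z : Set E} (K b : ℝ) (hs : PLOn s Z) (ht : PLOn t Z) :
    PLOn (fun x => chi K b (s x) (t x)) Z :=
  pl_max (pl_add hs (pl_div (pl_add_const ht b) K)) ht

lemma pl_phi {s s' t : E → ℝ} {Z : Set E} (K b : ℝ) (hs : PLOn s Z) (hs' : PLOn s' Z)
    (ht : PLOn t Z) : PLOn (fun x => phi K b (s x) (s' x) (t x)) Z :=
  pl_chi K b hs' (pl_psi K b hs ht)

end stretch

end Crest.Agent.R096.Bd_416
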