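import Crest.Agent.R096.Bd19_416
import Crest.Agent.R096.Cm3_117

/-!
# R096 (row 96), P4-MESH, part 13: the order of the crossing points of an edge for 117's `cmb`
(helper416)
-/

set_option autoImplicit false
set_option linter.unusedSectionVars false

open Set Topology Filter Metric Module

namespace Crest.Agent.R096.Bd_416

open Crest.Agent.R096.Msh_715 Crest.Agent.R096.Lab_184 Crest.Agent.R096.Agl5_543
  Crest.Agent.R096.Seq_213 Crest.Agent.R096.St_147 Crest.Agent.R096.Cm_117

variable {E : Type} [NormedAddCommGroup E] [NormedSpace ℝ E]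

/-! ### points of a segment -/

lemma mem_seg_iff {p q w w' : E} (hw : w ∈ segment ℝ p q) (hw' : w' ∈ segment ℝ p q) :
    w' ∈ segment ℝ p w ↔ dist p w' ≤ dist p w := by
  rw [segment_eq_image_lineMap] at hw hw'
  obtain ⟨t, ht, rfl⟩ := hw
  obtain ⟨t', ht', rfl⟩ := hw'
  by_cases hpq : p = q
  · subst hpq
    simp
  have hd : 0 < dist p q := dist_pos.2 hpq
  have d1 : ∀ r : ℝ, 0 ≤ r → dist p (AffineMap.lineMap p q r) = r * dist p q := by
    intro r hr
    rw [dist_left_lineMap, Real.norm_of_nonneg hr]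
  rw [d1 t ht.1, d1 t' ht'.1]
  constructor
  · intro h
    rw [segment_eq_image_lineMap] at h
    obtain ⟨r, hr, he⟩ := h
    have h1 : dist p (AffineMap.lineMap p (AffineMap.lineMap p q t) r) = r * (t * dist p q) := by
      rw [dist_left_lineMap, Real.norm_of_nonneg hr.1, d1 t ht.1]
    rw [he, d1 t' ht'.1] at h1
    rw [h1]
    have h2 : 0 ≤ t * dist p q := mul_nonneg ht.1 hd.le
    nlinarith [hr.2]
  · intro h
    have htt : t' ≤ t := le_of_mul_le_mul_right h hd
    rw [segment_eq_image_lineMap]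
    by_cases h0 : t = 0
    · have : t' = 0 := le_antisymm (h0 ▸ htt) ht'.1
      refine ⟨0, ⟨le_rfl, zero_le_one⟩, ?_⟩
      rw [this]; simp
    · have htp : 0 < t := lt_of_le_of_ne ht.1 (Ne.symm h0)
      refine ⟨t' / t, ⟨div_nonneg ht'.1 ht.1, (div_le_one htp).2 htt⟩, ?_⟩
      simp only [AffineMap.lineMap_apply, vsub_eq_sub, vadd_eq_add]
      rw [add_sub_cancel_right, smul_smul, div_mul_cancel₀ _ h0]

lemma eq_of_dist {p q w w' : E} (hw : w ∈ segment ℝ p q) (hw' : w' ∈ segment ℝ p q)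
    (h : dist p w = dist p w') : w = w' := by
  rw [segment_eq_image_lineMap] at hw hw'
  obtain ⟨t, ht, rfl⟩ := hw
  obtain ⟨t', ht', rfl⟩ := hw'
  by_cases hpq : p = q
  · subst hpq; simp
  have hd : 0 < dist p q := dist_pos.2 hpq
  rw [dist_left_lineMap, dist_left_lineMap, Real.norm_of_nonneg ht.1,
    Real.norm_of_nonneg ht'.1] at h
  rw [mul_right_cancel₀ hd.ne' h]

/-! ### the order numbers -/

variable {Om : Set E} {ι : Type} {T : Tiling Om ι}
variable [FiniteDimensional ℝ E] {h3 : finrank ℝ E = 3} {J C : Type} {fam : J → C}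
variable {s : GSt (meshC T h3) fam}

/-- order number of a crossing point of an edge, seen from the base vertex -/
noncomputable def ek (h : LF s) (c : T.Cell) (x : Pc s c) : ℕ :=
  Set.ncard {y : Pc s c | dist (bv c) (rep h y) < dist (bv c) (rep h x)}

lemma edge_seg (c : T.Cell) (hc : c.dim = 1) : ∃ q, c.set = segment ℝ (bv c) q := by
  obtain ⟨a, b, hab, e1, e2, ha0, hb0, ha, hb⟩ := T.edge_eq c.pt_mem hc
  have hm := bv_mem c
  rw [c.set_eq] at hm ⊢
  rcases T.vertex_of_edge c.pt_mem hc e1 hm (bv_dim c) with h | h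
  · exact ⟨b, by rw [h, e1]⟩
  · exact ⟨a, by rw [h, e1, segment_symm]⟩

lemma rep_in (h : LF s) (c : T.Cell) (x : Pc s c) : rep h x ∈ c.set := (mem_pts.1 (rep_mem h x)).1.2.1

lemma ek_lt (h : LF s) (c : T.Cell) {x x' : Pc s c}
    (hd : dist (bv c) (rep h x') < dist (bv c) (rep h x)) : ek h c x' < ek h c x := by
  have := h.pc c
  refine Set.ncard_lt_ncard ?_ (Set.toFinite _)
  refine ⟨fun y hy => lt_trans hy hd, fun hc => ?_⟩
  have h1 : dist (bv c) (rep h x') < dist (bv c) (rep h x') := hc hd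
  exact lt_irrefl _ h1

lemma rep_inj (h : LF s) (c : T.Cell) {x x' : Pc s c} (he : rep h x = rep h x') : x = x' :=
  pts_disj (rep_mem h x) (he ▸ rep_mem h x')

lemma ek_lt_iff (h : LF s) (c : T.Cell) (hc : c.dim = 1) {x x' : Pc s c} :
    ek h c x' < ek h c x ↔ dist (bv c) (rep h x') < dist (bv c) (rep h x) := by
  refine ⟨fun hk => ?_, ek_lt h c⟩
  by_contra hd
  rcases (not_lt.1 hd).lt_or_eq with h1 | h1
  · exact absurd (ek_lt h c h1) (not_lt.2 hk.le)
  · obtain ⟨q, hq⟩ := edge_seg c hc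
    have h2 := eq_of_dist (hq ▸ rep_in h c x) (hq ▸ rep_in h c x') h1
    rw [rep_inj h c h2] at hk
    exact lt_irrefl _ hk

/-- **the order numbers are injective** -/
theorem ek_inj (h : LF s) (c : T.Cell) (hc : c.dim = 1) : Function.Injective (ek h c) := by
  intro x x' he
  by_contra hne
  obtain ⟨q, hq⟩ := edge_seg c hc
  have h1 : dist (bv c) (rep h x) ≠ dist (bv c) (rep h x') := fun hd =>
    hne (rep_inj h c (eq_of_dist (hq ▸ rep_in h c x) (hq ▸ rep_in h c x') hd))
  rcases lt_or_gt_of_ne h1 with h2 | h2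
  · exact absurd he (ek_lt h c h2).ne
  · exact absurd he (ek_lt h c h2).ne'

/-- **sides on an edge = order** (for all pairs of crossing points) -/
theorem nl_edge (h : LF s) (c : T.Cell) (hc : c.dim = 1) {x x' : Pc s c} (hne : x ≠ x') :
    nl h c x' (rep h x) = if ek h c x' < ek h c x then 1 else 0 := by
  obtain ⟨q, hq⟩ := edge_seg c hc
  have hx : rep h x ∉ pts h c x' := fun hm => hne (pts_disj (rep_mem h x) hm)
  have h1 := nl_xl h c x' c.pt (by rw [c.set_eq]; exact T.self_mem_cc _) hc (rep h x)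
    (by rw [← c.set_eq]; exact rep_in h c x) (bv c) (by rw [← c.set_eq]; exact bv_mem c) hx
    (not_pts_of_dim (bv_dim c))
  rw [nl_bv, add_zero] at h1
  have h2 : pts h c x' = {rep h x'} := by
    ext u
    rw [Finset.mem_singleton]
    exact ⟨fun hu => pts_edge hc x' hu (rep_mem h x'), fun hu => hu ▸ rep_mem h x'⟩
  rw [h1]
  unfold nQ
  rw [h2, Finset.sum_singleton, segment_symm]
  have hwx : rep h x ∈ segment ℝ (bv c) q := hq ▸ rep_in h c x
  have hwx' : rep h x' ∈ segment ℝ (bv c) q := hq ▸ rep_in h c x'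
  rw [mem_seg_iff hwx hwx']
  have hne' : dist (bv c) (rep h x') ≠ dist (bv c) (rep h x) := fun hd =>
    hne (rep_inj h c (eq_of_dist hwx hwx' hd.symm))
  by_cases hlt : dist (bv c) (rep h x') < dist (bv c) (rep h x)
  · rw [if_pos hlt.le, if_pos ((ek_lt_iff h c hc).2 hlt)]
  · rw [if_neg fun hle => hlt (lt_of_le_of_ne hle hne'),
      if_neg fun hk => hlt ((ek_lt_iff h c hc).1 hk)]

section cmb

variable (h : LF s) (hon : ∀ w ∈ s.P, w ∈ Om ∧ T.dim w = 1) (Lam : J → E → ZMod 2)
    (hLam : ∀ j, ∀ e ∈ Om, T.dim e = 1 → ∀ a b, T.cc e = segment ℝ a b →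
      Lam j a + Lam j b = (((gPts s j : Set E) ∩ T.cc e).ncard : ZMod 2))

/-- the hypothesis `ord` of `mesh_cone` for `cmb` -/
theorem cmb_ord (c : T.Cell) (hc : c.dim = 1) (x x' : Pc s c) (hne : x ≠ x') :
    (ek h c x' < ek h c x → (cmb h hon Lam hLam).side c x x' = 1) ∧
      (ek h c x < ek h c x' → (cmb h hon Lam hLam).side c x x' = 0) := by
  have h1 : (cmb h hon Lam hLam).side c x x' = nl h c x' (rep h x) := rfl
  rw [h1, nl_edge h c hc hne]
  exact ⟨fun hk => if_pos hk, fun hk => if_neg (not_lt.2 hk.le)⟩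

end cmb

end Crest.Agent.R096.Bd_416
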