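import Crest.Agent.R096.Bd1_416

/-!
# R096 (row 96), P4-BAND, part 2: LAM-structures and the extension `S ⟶ S × [1/2,1]`
(helper416)
-/

set_option autoImplicit false

open Set Metric

namespace Crest.Agent.R096.Bd_416

open Crest.Agent.R096.Ce_537

/-- the parameter interval of a band -/
abbrev I2 : Set ℝ := Icc (-1/2) (1/2)

/-- A LAM-structure on `Z`: for every index a band function `c i` with values in `[-1/2,1/2]`,
the closed band `B i ⊇ {|c i| < 1/2}` and the transport `tr i (z, s)` = the point of the band on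
the same transversal as `z`, at level `s`. -/
structure Lam {E : Type*} [NormedAddCommGroup E] [NormedSpace ℝ E] (Z : Set E) (ι : Type*) where
  c : ι → E → ℝ
  B : ι → Set E
  tr : ι → E × ℝ → E
  pc : ∀ i, PLOn (c i) Z
  cm : ∀ i, ∀ z ∈ Z, c i z ∈ I2
  Bc : ∀ i, IsClosed (B i)
  BZ : ∀ i, B i ⊆ Z
  Bm : ∀ i, ∀ z ∈ Z, |c i z| < 1/2 → z ∈ B i
  pt : ∀ i, PLOn (tr i) (B i ×ˢ I2)
  trB : ∀ i, ∀ z ∈ B i, ∀ s ∈ I2, tr i (z, s) ∈ B i
  ctr : ∀ i, ∀ z ∈ B i, ∀ s ∈ I2, c i (tr i (z, s)) = s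
  tr_self : ∀ i, ∀ z ∈ B i, tr i (z, c i z) = z
  tr_tr : ∀ i, ∀ z ∈ B i, ∀ s ∈ I2, ∀ s' ∈ I2, tr i (tr i (z, s), s') = tr i (z, s')
  co : ∀ i j, i ≠ j → ∀ z ∈ B i, ∀ s ∈ I2, c j (tr i (z, s)) = c j z
  Bo : ∀ i j, i ≠ j → ∀ z ∈ B i, z ∈ B j → ∀ s ∈ I2, tr i (z, s) ∈ B j
  comm : ∀ i j, i ≠ j → ∀ z ∈ B i, z ∈ B j → ∀ s ∈ I2, ∀ t ∈ I2,
    tr i (tr j (z, t), s) = tr j (tr i (z, s), t)

namespace Lam

variable {E : Type*} [NormedAddCommGroup E] [NormedSpace ℝ E] {Z : Set E} {ι : Type*}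

lemma not_mem_tr (L : Lam Z ι) {i j : ι} (h : i ≠ j) {z : E} (hi : z ∈ L.B i) (hj : z ∉ L.B j)
    {s : ℝ} (hs : s ∈ I2) : L.tr i (z, s) ∉ L.B j := by
  intro hm
  have h1 := L.Bo i j h _ (L.trB i z hi s hs) hm (L.c i z) (L.cm i z (L.BZ i hi))
  rw [L.tr_tr i z hi s hs _ (L.cm i z (L.BZ i hi)), L.tr_self i z hi] at h1
  exact hj h1

end Lam

/-! ### ramps -/

/-- the ramp of depth `ρ` and width `h` -/
noncomputable def ramp (h ρ r : ℝ) : ℝ := cl ((r - ρ) / h)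

section ramp

variable {h ρ r : ℝ}

lemma ramp_mem : ramp h ρ r ∈ I2 := cl_mem _

lemma ramp_low (hh : 0 < h) (hr : r ≤ ρ - h/2) : ramp h ρ r = -1/2 := by
  apply cl_of_le
  rw [div_le_iff₀ hh]; linarith

lemma ramp_high (hh : 0 < h) (hr : ρ + h/2 ≤ r) : ramp h ρ r = 1/2 := by
  apply cl_of_ge
  rw [le_div_iff₀ hh]; linarith

lemma lt_of_ramp (hh : 0 < h) (hr : -1/2 < ramp h ρ r) : ρ - h/2 < r := by
  by_contra hc
  rw [ramp_low hh (not_lt.1 hc)] at hr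
  exact lt_irrefl _ hr

lemma lt_of_ramp_lt (hh : 0 < h) (hr : ramp h ρ r < 1/2) : r < ρ + h/2 := by
  by_contra hc
  rw [ramp_high hh (not_lt.1 hc)] at hr
  exact lt_irrefl _ hr

/-- moving along the ramp -/
lemma ramp_move (hh : 0 < h) (hr : -1/2 < ramp h ρ r) {w : ℝ} (hw : w ∈ I2)
    (hw' : ramp h ρ r = 1/2 → w = 1/2) :
    ramp h ρ (r + h * (w - ramp h ρ r)) = w := by
  by_cases h1 : ramp h ρ r = 1/2
  · rw [hw' h1, h1]; simpa using h1
  · have h2 : ramp h ρ r < 1/2 := lt_of_le_of_ne ramp_mem.2 h1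
    have h3 : ramp h ρ r = (r - ρ) / h := by
      have : |ramp h ρ r| < 1/2 := abs_lt.2 ⟨by linarith, h2⟩
      exact ((abs_cl_lt this).1).symm
    have h4 : (r + h * (w - ramp h ρ r) - ρ) / h = w := by
      rw [h3]; field_simp; ring
    rw [ramp, h4, cl_of_mem hw]

/-- a move inside one ramp does not change a disjoint ramp -/
lemma ramp_other {h' : ℝ} (hh : 0 < h) (hh' : 0 < h') (hr : -1/2 < ramp h ρ r) {w : ℝ}
    (hwl : -1/2 ≤ w) (hw : w ≤ 1/2)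
    (hw' : ramp h ρ r = 1/2 → w = 1/2) {ρ' : ℝ} (hd : (h + h') / 2 ≤ |ρ - ρ'|) :
    ramp h' ρ' (r + h * (w - ramp h ρ r)) = ramp h' ρ' r := by
  by_cases h1 : ramp h ρ r = 1/2
  · rw [hw' h1, h1]; simp
  · have h2 : ramp h ρ r < 1/2 := lt_of_le_of_ne ramp_mem.2 h1
    have h3 : ramp h ρ r = (r - ρ) / h := by
      have : |ramp h ρ r| < 1/2 := abs_lt.2 ⟨by linarith, h2⟩
      exact ((abs_cl_lt this).1).symm
    have h4 : r + h * (w - ramp h ρ r) = ρ + h * w := by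
      rw [h3]; field_simp; ring
    have h5 := lt_of_ramp hh hr
    have h6 := lt_of_ramp_lt hh h2
    rw [h4]
    rcases le_abs.1 hd with h7 | h7
    · have e1 : ramp h' ρ' (ρ + h * w) = 1/2 := ramp_high hh' (by nlinarith)
      have e2 : ramp h' ρ' r = 1/2 := ramp_high hh' (by linarith)
      rw [e1, e2]
    · have e1 : ramp h' ρ' (ρ + h * w) = -1/2 := ramp_low hh' (by nlinarith)
      have e2 : ramp h' ρ' r = -1/2 := ramp_low hh' (by linarith)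
      rw [e1, e2]

variable {E : Type*} [NormedAddCommGroup E] [NormedSpace ℝ E]

lemma pl_ramp (h ρ : ℝ) {f : E → ℝ} {Z : Set E} (hf : PLOn f Z) :
    PLOn (fun x => ramp h ρ (f x)) Z := pl_cl (pl_div (pl_sub_const hf ρ) h)

end ramp

/-! ### the extension to the product -/

section Prod

open scoped Classical
set_option linter.unusedSectionVars false

variable {E : Type*} [NormedAddCommGroup E] [NormedSpace ℝ E] {S : Set E} {ι : Type*}

/-- data and hypotheses of the extension -/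
structure Dep (L : Lam S ι) (K b : ℝ) (h ρ : ι → ℝ) : Prop where
  cst : Cst K b
  h0 : ∀ i, 0 < h i
  lo : ∀ i, 1/2 ≤ ρ i - h i/2
  hi : ∀ i, ρ i + h i/2 ≤ 1
  sep : ∀ i j, i ≠ j → (∃ ω ∈ S, -1/2 < L.c i ω ∧ -1/2 < L.c j ω) →
    (h i + h j) / 2 ≤ |ρ i - ρ j|

variable {L : Lam S ι} {K b : ℝ} {h ρ : ι → ℝ}

/-- the raw function `min (c, ramp)` -/
noncomputable def Af (L : Lam S ι) (h ρ : ι → ℝ) (i : ι) (z : E × ℝ) : ℝ :=
  min (L.c i z.1) (ramp (h i) (ρ i) z.2)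

/-- the transport on the product -/
noncomputable def Tf (L : Lam S ι) (K b : ℝ) (h ρ : ι → ℝ) (i : ι) (p : (E × ℝ) × ℝ) : E × ℝ :=
  (if p.1.1 ∈ L.B i then
      L.tr i (p.1.1, phi K b (Af L h ρ i p.1) (2 * b * p.2) (L.c i p.1.1))
    else p.1.1,
   p.1.2 + h i * (phi K b (Af L h ρ i p.1) (2 * b * p.2) (ramp (h i) (ρ i) p.1.2)
      - ramp (h i) (ρ i) p.1.2))

/-- the product piece -/
abbrev PS (S : Set E) : Set (E × ℝ) := S ×ˢ Icc (1/2 : ℝ) 1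

/-- the new band -/
def Bf (L : Lam S ι) (b : ℝ) (h ρ : ι → ℝ) (i : ι) : Set (E × ℝ) :=
  {z | z ∈ PS S ∧ |Af L h ρ i z| ≤ b}

lemma scale_mem (hC : Cst K b) {s : ℝ} (hs : s ∈ I2) : 2 * b * s ∈ Icc (-b) b := by
  have h1 := hC.b0
  constructor <;> nlinarith [hs.1, hs.2]

namespace Dep

variable (D : Dep L K b h ρ)
include D

lemma c_gt {i : ι} {z : E × ℝ} (hz : z ∈ Bf L b h ρ i) : -1/2 < L.c i z.1 := by
  have h1 := (abs_le.1 hz.2).1
  have h2 : Af L h ρ i z ≤ L.c i z.1 := min_le_left _ _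
  have h3 := D.cst.b2
  linarith

lemma w_gt {i : ι} {z : E × ℝ} (hz : z ∈ Bf L b h ρ i) : -1/2 < ramp (h i) (ρ i) z.2 := by
  have h1 := (abs_le.1 hz.2).1
  have h2 : Af L h ρ i z ≤ ramp (h i) (ρ i) z.2 := min_le_right _ _
  have h3 := D.cst.b2
  linarith

lemma c_half {i : ι} {z : E × ℝ} (hz : z ∈ Bf L b h ρ i) (hB : z.1 ∉ L.B i) :
    L.c i z.1 = 1/2 := by
  by_contra hc
  have h1 := D.c_gt hz
  have h2 := (L.cm i z.1 hz.1.1).2
  exact hB (L.Bm i z.1 hz.1.1 (abs_lt.2 ⟨by linarith, lt_of_le_of_ne h2 hc⟩))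

lemma A_mem {i : ι} {z : E × ℝ} (hz : z ∈ Bf L b h ρ i) : Af L h ρ i z ∈ Icc (-b) b :=
  abs_le.1 hz.2

lemma phi_c_mem {i : ι} {z : E × ℝ} (hz : z ∈ Bf L b h ρ i) {s : ℝ} (hs : s ∈ I2) :
    phi K b (Af L h ρ i z) (2 * b * s) (L.c i z.1) ∈ Icc (2 * b * s) (1/2) :=
  phi_mem D.cst (D.A_mem hz) (scale_mem D.cst hs)
    ⟨min_le_left _ _, (L.cm i z.1 hz.1.1).2⟩

lemma phi_w_mem {i : ι} {z : E × ℝ} (hz : z ∈ Bf L b h ρ i) {s : ℝ} (hs : s ∈ I2) :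
    phi K b (Af L h ρ i z) (2 * b * s) (ramp (h i) (ρ i) z.2) ∈ Icc (2 * b * s) (1/2) :=
  phi_mem D.cst (D.A_mem hz) (scale_mem D.cst hs) ⟨min_le_right _ _, ramp_mem.2⟩

lemma I2_of {s t : ℝ} (hs : s ∈ I2) (ht : t ∈ Icc (2 * b * s) (1/2)) : t ∈ I2 := by
  have h1 := (scale_mem D.cst hs).1
  have h2 := D.cst.b2
  exact ⟨by linarith [ht.1], ht.2⟩

lemma phi_w_half {i : ι} {z : E × ℝ} (hz : z ∈ Bf L b h ρ i) {s : ℝ} (hs : s ∈ I2)
    (hw : ramp (h i) (ρ i) z.2 = 1/2) :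
    phi K b (Af L h ρ i z) (2 * b * s) (ramp (h i) (ρ i) z.2) = 1/2 := by
  rw [hw]; exact phi_top D.cst (D.A_mem hz).2 (scale_mem D.cst hs).2

lemma ramp_T {i : ι} {z : E × ℝ} (hz : z ∈ Bf L b h ρ i) {s : ℝ} (hs : s ∈ I2) :
    ramp (h i) (ρ i) (Tf L K b h ρ i (z, s)).2
      = phi K b (Af L h ρ i z) (2 * b * s) (ramp (h i) (ρ i) z.2) :=
  ramp_move (D.h0 i) (D.w_gt hz) (D.I2_of hs (D.phi_w_mem hz hs)) (D.phi_w_half hz hs)

lemma c_T {i : ι} {z : E × ℝ} (hz : z ∈ Bf L b h ρ i) {s : ℝ} (hs : s ∈ I2) :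
    L.c i (Tf L K b h ρ i (z, s)).1
      = phi K b (Af L h ρ i z) (2 * b * s) (L.c i z.1) := by
  unfold Tf
  by_cases hB : z.1 ∈ L.B i
  · simp only [hB, if_true]
    exact L.ctr i _ hB _ (D.I2_of hs (D.phi_c_mem hz hs))
  · simp only [hB, if_false]
    rw [D.c_half hz hB, phi_top D.cst (D.A_mem hz).2 (scale_mem D.cst hs).2]

lemma T1_mem {i : ι} {z : E × ℝ} (hz : z ∈ Bf L b h ρ i) {s : ℝ} (hs : s ∈ I2) :
    (Tf L K b h ρ i (z, s)).1 ∈ S := by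
  unfold Tf
  by_cases hB : z.1 ∈ L.B i
  · simp only [hB, if_true]
    exact L.BZ i (L.trB i _ hB _ (D.I2_of hs (D.phi_c_mem hz hs)))
  · simp only [hB, if_false]; exact hz.1.1

lemma T1_B {i : ι} {z : E × ℝ} (hz : z ∈ Bf L b h ρ i) {s : ℝ} (hs : s ∈ I2) :
    (Tf L K b h ρ i (z, s)).1 ∈ L.B i ↔ z.1 ∈ L.B i := by
  unfold Tf
  by_cases hB : z.1 ∈ L.B i
  · simp only [hB, if_true, iff_true]
    exact L.trB i _ hB _ (D.I2_of hs (D.phi_c_mem hz hs))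
  · simp only [hB, if_false]

lemma T2_mem {i : ι} {z : E × ℝ} (hz : z ∈ Bf L b h ρ i) {s : ℝ} (hs : s ∈ I2) :
    (Tf L K b h ρ i (z, s)).2 ∈ Icc (1/2 : ℝ) 1 := by
  have e : (Tf L K b h ρ i (z, s)).2 = z.2 + h i * (phi K b (Af L h ρ i z) (2 * b * s)
    (ramp (h i) (ρ i) z.2) - ramp (h i) (ρ i) z.2) := rfl
  by_cases hw : ramp (h i) (ρ i) z.2 = 1/2
  · rw [e, D.phi_w_half hz hs hw, hw]; simpa using hz.1.2
  · have h1 := D.w_gt hz
    have h2 : ramp (h i) (ρ i) z.2 < 1/2 := lt_of_le_of_ne ramp_mem.2 hw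
    have h3 : ramp (h i) (ρ i) z.2 = (z.2 - ρ i) / h i := by
      have : |ramp (h i) (ρ i) z.2| < 1/2 := abs_lt.2 ⟨by linarith, h2⟩
      exact ((abs_cl_lt this).1).symm
    have h4 : (Tf L K b h ρ i (z, s)).2
        = ρ i + h i * phi K b (Af L h ρ i z) (2 * b * s) (ramp (h i) (ρ i) z.2) := by
      have h0 := D.h0 i
      rw [e]
      generalize phi K b (Af L h ρ i z) (2 * b * s) (ramp (h i) (ρ i) z.2) = w
      rw [h3]; field_simp; ring
    have h5 := D.I2_of hs (D.phi_w_mem hz hs)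
    rw [h4]
    have h6 := D.lo i
    have h7 := D.hi i
    have h8 := D.h0 i
    constructor <;> nlinarith [h5.1, h5.2]

lemma A_T {i : ι} {z : E × ℝ} (hz : z ∈ Bf L b h ρ i) {s : ℝ} (hs : s ∈ I2) :
    Af L h ρ i (Tf L K b h ρ i (z, s)) = 2 * b * s := by
  rw [Af, D.c_T hz hs, D.ramp_T hz hs, phi_min D.cst.hK]
  exact phi_base (D.A_mem hz).1 (scale_mem D.cst hs).1

lemma T_B {i : ι} {z : E × ℝ} (hz : z ∈ Bf L b h ρ i) {s : ℝ} (hs : s ∈ I2) :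
    Tf L K b h ρ i (z, s) ∈ Bf L b h ρ i :=
  ⟨⟨D.T1_mem hz hs, D.T2_mem hz hs⟩, by rw [D.A_T hz hs]; exact abs_le.2 (scale_mem D.cst hs)⟩

lemma T_T {i : ι} {z : E × ℝ} (hz : z ∈ Bf L b h ρ i) {s s' : ℝ} (hs : s ∈ I2) (hs' : s' ∈ I2) :
    Tf L K b h ρ i (Tf L K b h ρ i (z, s), s') = Tf L K b h ρ i (z, s') := by
  have e1 := D.A_T hz hs
  have e2 := D.c_T hz hs
  have e3 := D.ramp_T hz hs
  apply Prod.ext
  · show (if (Tf L K b h ρ i (z, s)).1 ∈ L.B i then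
      L.tr i ((Tf L K b h ρ i (z, s)).1, phi K b (Af L h ρ i (Tf L K b h ρ i (z, s)))
        (2 * b * s') (L.c i (Tf L K b h ρ i (z, s)).1))
      else (Tf L K b h ρ i (z, s)).1)
      = (if z.1 ∈ L.B i then L.tr i (z.1, phi K b (Af L h ρ i z) (2 * b * s') (L.c i z.1))
      else z.1)
    rw [e1, e2, phi_phi D.cst.hK]
    by_cases hB : z.1 ∈ L.B i
    · have hB' := (D.T1_B hz hs).2 hB
      rw [if_pos hB', if_pos hB]
      have e4 : (Tf L K b h ρ i (z, s)).1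
          = L.tr i (z.1, phi K b (Af L h ρ i z) (2 * b * s) (L.c i z.1)) := by
        show (if z.1 ∈ L.B i then _ else _) = _
        rw [if_pos hB]
      rw [e4]
      exact L.tr_tr i _ hB _ (D.I2_of hs (D.phi_c_mem hz hs)) _
        (D.I2_of hs' (D.phi_c_mem hz hs'))
    · have hB' : (Tf L K b h ρ i (z, s)).1 ∉ L.B i := fun hc => hB ((D.T1_B hz hs).1 hc)
      rw [if_neg hB', if_neg hB]
      show (if z.1 ∈ L.B i then _ else _) = _
      rw [if_neg hB]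
  · show (Tf L K b h ρ i (z, s)).2 + h i * (phi K b (Af L h ρ i (Tf L K b h ρ i (z, s)))
        (2 * b * s') (ramp (h i) (ρ i) (Tf L K b h ρ i (z, s)).2)
          - ramp (h i) (ρ i) (Tf L K b h ρ i (z, s)).2)
      = z.2 + h i * (phi K b (Af L h ρ i z) (2 * b * s') (ramp (h i) (ρ i) z.2) - ramp (h i) (ρ i) z.2)
    rw [e1, e3, phi_phi D.cst.hK]
    show z.2 + h i * (phi K b (Af L h ρ i z) (2 * b * s) (ramp (h i) (ρ i) z.2) - ramp (h i) (ρ i) z.2)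
      + _ = _
    ring

/-- the other function is not changed by the transport -/
lemma other {i j : ι} (hij : i ≠ j) {z : E × ℝ} (hz : z ∈ Bf L b h ρ i) {s : ℝ} (hs : s ∈ I2) :
    L.c j (Tf L K b h ρ i (z, s)).1 = L.c j z.1 ∧
    (-1/2 < L.c j z.1 → ramp (h j) (ρ j) (Tf L K b h ρ i (z, s)).2 = ramp (h j) (ρ j) z.2) := by
  constructor
  · unfold Tf
    by_cases hB : z.1 ∈ L.B i
    · simp only [hB, if_true]
      exact L.co i j hij _ hB _ (D.I2_of hs (D.phi_c_mem hz hs))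
    · simp only [hB, if_false]
  · intro hj
    have h1 := D.I2_of hs (D.phi_w_mem hz hs)
    exact ramp_other (D.h0 i) (D.h0 j) (D.w_gt hz) h1.1 h1.2 (D.phi_w_half hz hs)
      (D.sep i j hij ⟨z.1, hz.1.1, D.c_gt hz, hj⟩)

lemma A_other {i j : ι} (hij : i ≠ j) {z : E × ℝ} (hz : z ∈ Bf L b h ρ i) {s : ℝ}
    (hs : s ∈ I2) : Af L h ρ j (Tf L K b h ρ i (z, s)) = Af L h ρ j z := by
  obtain ⟨h1, h2⟩ := D.other hij hz hs
  unfold Af
  rw [h1]
  by_cases hj : -1/2 < L.c j z.1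
  · rw [h2 hj]
  · have h3 := (L.cm j z.1 hz.1.1).1
    have h4 : L.c j z.1 = -1/2 := le_antisymm (not_lt.1 hj) h3
    rw [h4, min_eq_left ramp_mem.1, min_eq_left ramp_mem.1]

lemma T_Bo {i j : ι} (hij : i ≠ j) {z : E × ℝ} (hz : z ∈ Bf L b h ρ i)
    (hz' : z ∈ Bf L b h ρ j) {s : ℝ} (hs : s ∈ I2) : Tf L K b h ρ i (z, s) ∈ Bf L b h ρ j :=
  ⟨(D.T_B hz hs).1, by rw [D.A_other hij hz hs]; exact hz'.2⟩

lemma T_comm {i j : ι} (hij : i ≠ j) {z : E × ℝ} (hz : z ∈ Bf L b h ρ i)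
    (hz' : z ∈ Bf L b h ρ j) {s t : ℝ} (hs : s ∈ I2) (ht : t ∈ I2) :
    Tf L K b h ρ i (Tf L K b h ρ j (z, t), s) = Tf L K b h ρ j (Tf L K b h ρ i (z, s), t) := by
  obtain ⟨a1, a2⟩ := D.other hij.symm hz' ht
  obtain ⟨b1, b2⟩ := D.other hij hz hs
  have a3 := a2 (D.c_gt hz)
  have b3 := b2 (D.c_gt hz')
  have a4 := D.A_other hij.symm hz' ht
  have b4 := D.A_other hij hz hs
  have hci := D.I2_of hs (D.phi_c_mem hz hs)
  have hcj := D.I2_of ht (D.phi_c_mem hz' ht)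
  apply Prod.ext
  · show (if (Tf L K b h ρ j (z, t)).1 ∈ L.B i then
      L.tr i ((Tf L K b h ρ j (z, t)).1, phi K b (Af L h ρ i (Tf L K b h ρ j (z, t)))
        (2 * b * s) (L.c i (Tf L K b h ρ j (z, t)).1))
      else (Tf L K b h ρ j (z, t)).1)
      = (if (Tf L K b h ρ i (z, s)).1 ∈ L.B j then
      L.tr j ((Tf L K b h ρ i (z, s)).1, phi K b (Af L h ρ j (Tf L K b h ρ i (z, s)))
        (2 * b * t) (L.c j (Tf L K b h ρ i (z, s)).1))
      else (Tf L K b h ρ i (z, s)).1)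
    rw [a1, a4, b1, b4]
    have ei : (Tf L K b h ρ i (z, s)).1 = (if z.1 ∈ L.B i then
      L.tr i (z.1, phi K b (Af L h ρ i z) (2 * b * s) (L.c i z.1)) else z.1) := rfl
    have ej : (Tf L K b h ρ j (z, t)).1 = (if z.1 ∈ L.B j then
      L.tr j (z.1, phi K b (Af L h ρ j z) (2 * b * t) (L.c j z.1)) else z.1) := rfl
    rw [ei, ej]
    by_cases hi : z.1 ∈ L.B i
    · by_cases hj : z.1 ∈ L.B j
      · rw [if_pos hi, if_pos hj, if_pos (L.Bo j i hij.symm _ hj hi _ hcj),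
          if_pos (L.Bo i j hij _ hi hj _ hci)]
        exact L.comm i j hij _ hi hj _ hci _ hcj
      · simp only [hi, hj, if_true, if_false, L.not_mem_tr hij hi hj hci]
    · by_cases hj : z.1 ∈ L.B j
      · simp only [hi, hj, if_true, if_false, L.not_mem_tr hij.symm hj hi hcj]
      · simp only [hi, hj, if_false]
  · show (Tf L K b h ρ j (z, t)).2 + h i * (phi K b (Af L h ρ i (Tf L K b h ρ j (z, t)))
        (2 * b * s) (ramp (h i) (ρ i) (Tf L K b h ρ j (z, t)).2)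
          - ramp (h i) (ρ i) (Tf L K b h ρ j (z, t)).2)
      = (Tf L K b h ρ i (z, s)).2 + h j * (phi K b (Af L h ρ j (Tf L K b h ρ i (z, s)))
        (2 * b * t) (ramp (h j) (ρ j) (Tf L K b h ρ i (z, s)).2)
          - ramp (h j) (ρ j) (Tf L K b h ρ i (z, s)).2)
    rw [a3, a4, b3, b4]
    show z.2 + h j * (phi K b (Af L h ρ j z) (2 * b * t) (ramp (h j) (ρ j) z.2) - ramp (h j) (ρ j) z.2) + _
      = z.2 + h i * (phi K b (Af L h ρ i z) (2 * b * s) (ramp (h i) (ρ i) z.2) - ramp (h i) (ρ i) z.2) + _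
    ring

lemma T_self {i : ι} {z : E × ℝ} (hz : z ∈ Bf L b h ρ i) :
    Tf L K b h ρ i (z, cl (Af L h ρ i z / (2 * b))) = z := by
  have hb := D.cst.b0
  have h1 := D.A_mem hz
  have h2 : Af L h ρ i z / (2 * b) ∈ I2 := by
    constructor
    · rw [le_div_iff₀ (by linarith)]; linarith [h1.1]
    · rw [div_le_iff₀ (by linarith)]; linarith [h1.2]
  have h3 : 2 * b * cl (Af L h ρ i z / (2 * b)) = Af L h ρ i z := by
    rw [cl_of_mem h2]; field_simp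
  apply Prod.ext
  · show (if z.1 ∈ L.B i then
      L.tr i (z.1, phi K b (Af L h ρ i z) (2 * b * cl (Af L h ρ i z / (2 * b))) (L.c i z.1))
      else z.1) = z.1
    rw [h3, phi_self D.cst.hK]
    split_ifs with hB
    · exact L.tr_self i _ hB
    · rfl
  · show z.2 + h i * (phi K b (Af L h ρ i z) (2 * b * cl (Af L h ρ i z / (2 * b)))
      (ramp (h i) (ρ i) z.2) - ramp (h i) (ρ i) z.2) = z.2
    rw [h3, phi_self D.cst.hK]; ring

lemma isClosed_PS (hS : IsClosed S) : IsClosed (PS S) := hS.prod isClosed_Icc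

omit D in
lemma pl_Af (L : Lam S ι) (h ρ : ι → ℝ) (i : ι) : PLOn (Af L h ρ i) (PS S) :=
  pl_min ((L.pc i).comp (pl_fst (plOn_id _)) (fun _ hz => hz.1))
    (pl_ramp (h i) (ρ i) (pl_snd (plOn_id _)))

omit D in
lemma isClosed_Bf (hS : IsClosed S) (L : Lam S ι) (b : ℝ) (h ρ : ι → ℝ) (i : ι) :
    IsClosed (Bf L b h ρ i) := by
  have h1 : ContinuousOn (fun z => |Af L h ρ i z|) (PS S) :=
    continuous_abs.comp_continuousOn (pl_Af L h ρ i).1
  exact h1.preimage_isClosed_of_isClosed (hS.prod isClosed_Icc) (isClosed_Iic (a := b))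

lemma pl_Tf (hS : IsClosed S) (i : ι) :
    PLOn (Tf L K b h ρ i) (Bf L b h ρ i ×ˢ I2) := by
  -- the arguments
  set W : Set ((E × ℝ) × ℝ) := Bf L b h ρ i ×ˢ I2 with hW
  have m1 : MapsTo (fun p : (E × ℝ) × ℝ => p.1) W (PS S) := fun p hp => hp.1.1
  have pA : PLOn (fun p : (E × ℝ) × ℝ => Af L h ρ i p.1) W :=
    (pl_Af L h ρ i).comp (pl_fst (plOn_id _)) m1
  have pz : PLOn (fun p : (E × ℝ) × ℝ => p.1.1) W := pl_fst (pl_fst (plOn_id _))
  have pr : PLOn (fun p : (E × ℝ) × ℝ => p.1.2) W := pl_snd (pl_fst (plOn_id _))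
  have ps : PLOn (fun p : (E × ℝ) × ℝ => 2 * b * p.2) W := pl_mul (2 * b) (pl_snd (plOn_id _))
  have pc : PLOn (fun p : (E × ℝ) × ℝ => L.c i p.1.1) W :=
    (L.pc i).comp pz (fun p hp => hp.1.1.1)
  have pw : PLOn (fun p : (E × ℝ) × ℝ => ramp (h i) (ρ i) p.1.2) W := pl_ramp (h i) (ρ i) pr
  refine pl_pair ?_ (pl_add pr (pl_mul (h i) (pl_sub (pl_phi K b pA ps pw) pw)))
  -- the first component
  set W1 : Set ((E × ℝ) × ℝ) := W ∩ (fun p => p.1.1) ⁻¹' (L.B i) with hW1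
  set W2 : Set ((E × ℝ) × ℝ) := W ∩ (fun p => p.1.1) ⁻¹' (S ∩ (L.c i) ⁻¹' {(1/2 : ℝ)}) with hW2
  have cW : IsClosed W := (isClosed_Bf hS L b h ρ i).prod isClosed_Icc
  have cc : Continuous (fun p : (E × ℝ) × ℝ => p.1.1) := continuous_fst.comp continuous_fst
  have cW1 : IsClosed W1 := cW.inter ((L.Bc i).preimage cc)
  have cW2 : IsClosed W2 :=
    cW.inter (((L.pc i).1.preimage_isClosed_of_isClosed hS isClosed_singleton).preimage cc)
  have hU : W ⊆ W1 ∪ W2 := by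
    intro p hp
    by_cases hB : p.1.1 ∈ L.B i
    · exact Or.inl ⟨hp, hB⟩
    · exact Or.inr ⟨hp, hp.1.1.1, D.c_half hp.1 hB⟩
  have p1 : PLOn (fun p : (E × ℝ) × ℝ => L.tr i (p.1.1, phi K b (Af L h ρ i p.1) (2 * b * p.2)
      (L.c i p.1.1))) W1 := by
    refine (L.pt i).comp (pl_pair (pz.mono inter_subset_left)
      ((pl_phi K b pA ps pc).mono inter_subset_left)) ?_
    intro p hp
    exact ⟨hp.2, D.I2_of hp.1.2 (D.phi_c_mem hp.1.1 hp.1.2)⟩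
  refine PLOn.mono (PLOn.union (L := W2) (p1.congr ?_) ((pz.mono inter_subset_left).congr ?_)
    cW1 cW2) hU
  · intro p hp
    have : p.1.1 ∈ L.B i := hp.2
    simp [this]
  · intro p hp
    have h1 : L.c i p.1.1 = 1/2 := hp.2.2
    by_cases hB : p.1.1 ∈ L.B i
    · have h2 := L.tr_self i _ hB
      rw [h1] at h2
      have h3 := phi_top D.cst (D.A_mem hp.1.1).2 (scale_mem D.cst hp.1.2).2
      simp only [hB, if_true]
      rw [h1, h3, h2]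
    · simp [hB]

/-- THE EXTENSION to the product piece -/
noncomputable def ext (hS : IsClosed S) : Lam (PS S) ι where
  c i z := cl (Af L h ρ i z / (2 * b))
  B := Bf L b h ρ
  tr := Tf L K b h ρ
  pc i := pl_cl (pl_div (pl_Af L h ρ i) _)
  cm i z _ := cl_mem _
  Bc i := isClosed_Bf hS L b h ρ i
  BZ i _ hz := hz.1
  Bm i z hz hc := by
    have hb := D.cst.b0
    have h1 := (abs_cl_lt hc).2
    rw [abs_div, abs_of_pos (by linarith : (0:ℝ) < 2 * b), div_lt_iff₀ (by linarith)] at h1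
    exact ⟨hz, by linarith⟩
  pt i := D.pl_Tf hS i
  trB i _ hz s hs := D.T_B hz hs
  ctr i z hz s hs := by
    have hb := D.cst.b0
    rw [D.A_T hz hs]
    have : 2 * b * s / (2 * b) = s := by field_simp
    rw [this, cl_of_mem hs]
  tr_self i z hz := D.T_self hz
  tr_tr i z hz s hs s' hs' := D.T_T hz hs hs'
  co i j hij z hz s hs := by rw [D.A_other hij hz hs]
  Bo i j hij z hz hz' s hs := D.T_Bo hij hz hz' hs
  comm i j hij z hz hz' s hs t ht := D.T_comm hij hz hz' hs ht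

/-! #### the restriction to `S × {1}` -/

lemma A_one (i : ι) {ω : E} (hω : ω ∈ S) : Af L h ρ i (ω, 1) = L.c i ω := by
  have h1 : ramp (h i) (ρ i) 1 = 1/2 := ramp_high (D.h0 i) (D.hi i)
  show min (L.c i ω) (ramp (h i) (ρ i) 1) = _
  rw [h1]; exact min_eq_left (L.cm i ω hω).2

lemma mem_Bf_one {i : ι} {ω : E} : (ω, (1:ℝ)) ∈ Bf L b h ρ i ↔ ω ∈ S ∧ |L.c i ω| ≤ b := by
  constructor
  · rintro ⟨h1, h2⟩
    rw [D.A_one i h1.1] at h2
    exact ⟨h1.1, h2⟩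
  · rintro ⟨h1, h2⟩
    refine ⟨⟨h1, by norm_num, le_rfl⟩, ?_⟩
    rw [D.A_one i h1]; exact h2

lemma B_of_le {i : ι} {ω : E} (hω : ω ∈ S) (h1 : |L.c i ω| ≤ b) : ω ∈ L.B i :=
  L.Bm i ω hω (lt_of_le_of_lt h1 D.cst.b2)

lemma T_one {i : ι} {ω : E} (hω : ω ∈ S) (hc : |L.c i ω| ≤ b) {s : ℝ} (hs : s ∈ I2) :
    Tf L K b h ρ i ((ω, 1), s) = (L.tr i (ω, 2 * b * s), 1) := by
  have h1 : ramp (h i) (ρ i) 1 = 1/2 := ramp_high (D.h0 i) (D.hi i)
  have h2 := D.A_one i hω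
  have h3 := abs_le.1 hc
  have h4 := scale_mem D.cst hs
  apply Prod.ext
  · show (if ω ∈ L.B i then L.tr i (ω, phi K b (Af L h ρ i (ω, 1)) (2 * b * s) (L.c i ω)) else ω)
      = _
    rw [if_pos (D.B_of_le hω hc), h2, phi_base h3.1 h4.1]
  · show (1:ℝ) + h i * (phi K b (Af L h ρ i (ω, 1)) (2 * b * s) (ramp (h i) (ρ i) 1)
      - ramp (h i) (ρ i) 1) = 1
    rw [h1, h2, phi_top D.cst h3.2 h4.2]; ring

/-- near the inner end all functions are `-1/2` -/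
lemma low {i : ι} {z : E × ℝ} (hz : z ∈ PS S) (h1 : z.2 ≤ ρ i - h i / 2) :
    Af L h ρ i z = -1/2 := by
  have h2 : ramp (h i) (ρ i) z.2 = -1/2 := ramp_low (D.h0 i) h1
  unfold Af
  rw [h2]; exact min_eq_right (L.cm i _ hz.1).1

lemma gt_of_B {i : ι} {z : E × ℝ} (hz : z ∈ Bf L b h ρ i) : ρ i - h i/2 < z.2 :=
  lt_of_ramp (D.h0 i) (D.w_gt hz)

/-- bands of laminar curves are disjoint -/
lemma disj {i j : ι} (h1 : (∀ ω ∈ S, L.c i ω = -1/2 ∨
      L.c j ω = -1/2) ∨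
      (ρ j < ρ i ∧ ∀ ω ∈ S, -1/2 < L.c i ω → L.c j ω = 1/2) ∨
      (ρ i < ρ j ∧ ∀ ω ∈ S, -1/2 < L.c j ω → L.c i ω = 1/2)) :
    Disjoint (Bf L b h ρ i) (Bf L b h ρ j) := by
  have key : ∀ i j, (ρ j < ρ i ∧ ∀ ω ∈ S, -1/2 < L.c i ω → L.c j ω = 1/2) →
      Disjoint (Bf L b h ρ i) (Bf L b h ρ j) := by
    intro i j ⟨hr, hI⟩
    refine Set.disjoint_left.2 fun z hz hz' => ?_
    have hne : i ≠ j := by rintro rfl; exact lt_irrefl _ hr
    have e1 := hI _ hz.1.1 (D.c_gt hz)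
    have e2 := D.sep i j hne ⟨z.1, hz.1.1, D.c_gt hz, D.c_gt hz'⟩
    rw [abs_of_pos (by linarith)] at e2
    have e3 := D.gt_of_B hz
    have e4 : ramp (h j) (ρ j) z.2 = 1/2 := ramp_high (D.h0 j) (by linarith)
    have e5 : Af L h ρ j z = 1/2 := by
      unfold Af; rw [e1, e4, min_self]
    have e6 := (D.A_mem hz').2
    rw [e5] at e6
    exact absurd D.cst.b2 (not_lt.2 e6)
  rcases h1 with h1 | h1 | h1
  · refine Set.disjoint_left.2 fun z hz hz' => ?_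
    rcases h1 _ hz.1.1 with e | e
    · have := D.c_gt hz; rw [e] at this; exact lt_irrefl _ this
    · have := D.c_gt hz'; rw [e] at this; exact lt_irrefl _ this
  · exact key i j h1
  · exact (key j i h1).symm

end Dep

end Prod

end Crest.Agent.R096.Bd_416
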