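import Crest.Agent.R096.Bd2_416

/-!
# R096 (row 96), P4-BAND, part 3: the PL collar of the cube, transport of LAM-structures,
the extension from the sphere to the cube (helper416)
-/

set_option autoImplicit false

open Set Metric

namespace Crest.Agent.R096.Bd_416

open Crest.Agent.R096.Ce_537

/-! ### the sup norm is PL -/

section norm

variable {n : ℕ}

lemma pl_norm (Z : Set (Fin n → ℝ)) : PLOn (fun x : Fin n → ℝ => ‖x‖) Z := by
  refine pl_sel (Finset.univ : Finset (Option (Fin n × Bool)))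
    (g := fun o x => match o with
      | none => 0
      | some (i, true) => x i
      | some (i, false) => - x i) continuous_norm.continuousOn ?_ ?_
  · rintro (_ | ⟨i, _ | _⟩) _
    · exact plOn_const _ _
    · exact pl_neg (pl_apply (plOn_id _) i)
    · exact pl_apply (plOn_id _) i
  · intro x _
    by_cases hx : x = 0
    · exact ⟨none, Finset.mem_univ _, by simp [hx]⟩
    · obtain ⟨i, hi⟩ := exists_coord hx
      rcases le_total 0 (x i) with h | h
      · exact ⟨some (i, true), Finset.mem_univ _, by rw [hi, abs_of_nonneg h]⟩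
      · exact ⟨some (i, false), Finset.mem_univ _, by rw [hi, abs_of_nonpos h]⟩

lemma abs_apply_le (x : Fin n → ℝ) (i : Fin n) : |x i| ≤ ‖x‖ := by
  simpa using norm_le_pi_norm x i

end norm

/-! ### the collar -/

section collar

/-- the coordinate map of the collar -/
noncomputable def cf (r x : ℝ) : ℝ := x + max 0 (x + 1 - 2 * r) - max 0 (-x + 1 - 2 * r)

/-- its inverse -/
noncomputable def cg (r u : ℝ) : ℝ := u - max 0 ((u + 1 - 2 * r) / 2) + max 0 ((-u + 1 - 2 * r) / 2)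

lemma cf_neg (r x : ℝ) : cf r (-x) = - cf r x := by
  unfold cf; rw [neg_neg]; ring

lemma cg_neg (r x : ℝ) : cg r (-x) = - cg r x := by
  unfold cg; rw [neg_neg]; ring

lemma cf_of_nonneg {r x : ℝ} (hr : 1/2 ≤ r) (hx : 0 ≤ x) : cf r x = x + max 0 (x + 1 - 2 * r) := by
  unfold cf
  rw [max_eq_left (show -x + 1 - 2 * r ≤ 0 by linarith)]; ring

lemma cg_of_nonneg {r x : ℝ} (hr : 1/2 ≤ r) (hx : 0 ≤ x) :
    cg r x = x - max 0 ((x + 1 - 2 * r) / 2) := by
  unfold cg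
  rw [max_eq_left (show (-x + 1 - 2 * r) / 2 ≤ 0 by linarith)]; ring

lemma cf_nonneg {r x : ℝ} (hr : 1/2 ≤ r) (hx : 0 ≤ x) : 0 ≤ cf r x := by
  rw [cf_of_nonneg hr hx]
  have := le_max_left 0 (x + 1 - 2 * r)
  linarith

lemma cg_nonneg {r x : ℝ} (hr : 1/2 ≤ r) (hx : 0 ≤ x) : 0 ≤ cg r x := by
  rw [cg_of_nonneg hr hx]
  rcases max_choice 0 ((x + 1 - 2 * r) / 2) with h | h <;> rw [h] <;> linarith

lemma cg_cf {r x : ℝ} (hr : 1/2 ≤ r) : cg r (cf r x) = x := by
  have key : ∀ x, 0 ≤ x → cg r (cf r x) = x := by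
    intro x hx
    rw [cg_of_nonneg hr (cf_nonneg hr hx), cf_of_nonneg hr hx]
    rcases le_total 0 (x + 1 - 2 * r) with h | h
    · rw [max_eq_right h, max_eq_right (by linarith)]; ring
    · rw [max_eq_left h, max_eq_left (by linarith)]; ring
  rcases le_total 0 x with h | h
  · exact key x h
  · have := key (-x) (by linarith)
    rw [cf_neg, cg_neg] at this
    linarith

lemma cf_cg {r x : ℝ} (hr : 1/2 ≤ r) : cf r (cg r x) = x := by
  have key : ∀ x, 0 ≤ x → cf r (cg r x) = x := by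
    intro x hx
    rw [cf_of_nonneg hr (cg_nonneg hr hx), cg_of_nonneg hr hx]
    rcases le_total 0 (x + 1 - 2 * r) with h | h
    · rw [max_eq_right (show (0:ℝ) ≤ (x + 1 - 2 * r) / 2 by linarith),
        max_eq_right (by linarith)]; ring
    · rw [max_eq_left (show (x + 1 - 2 * r) / 2 ≤ (0:ℝ) by linarith),
        max_eq_left (by linarith)]; ring
  rcases le_total 0 x with h | h
  · exact key x h
  · have := key (-x) (by linarith)
    rw [cg_neg, cf_neg] at this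
    linarith

lemma abs_cf (r x : ℝ) (hr : 1/2 ≤ r) : |cf r x| = cf r |x| := by
  rcases le_total 0 x with h | h
  · rw [abs_of_nonneg h, abs_of_nonneg (cf_nonneg hr h)]
  · rw [abs_of_nonpos h, cf_neg, abs_of_nonpos]
    have := cf_nonneg hr (neg_nonneg.2 h)
    rw [cf_neg] at this; linarith

lemma abs_cg (r x : ℝ) (hr : 1/2 ≤ r) : |cg r x| = cg r |x| := by
  rcases le_total 0 x with h | h
  · rw [abs_of_nonneg h, abs_of_nonneg (cg_nonneg hr h)]
  · rw [abs_of_nonpos h, cg_neg, abs_of_nonpos]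
    have := cg_nonneg hr (neg_nonneg.2 h)
    rw [cg_neg] at this; linarith

lemma cf_mono {r x y : ℝ} (hr : 1/2 ≤ r) (hx : 0 ≤ x) (h : x ≤ y) : cf r x ≤ cf r y := by
  rw [cf_of_nonneg hr hx, cf_of_nonneg hr (hx.trans h)]
  have := max_le_max (le_refl (0:ℝ)) (show x + 1 - 2 * r ≤ y + 1 - 2 * r by linarith)
  linarith

lemma cg_mono {r x y : ℝ} (hr : 1/2 ≤ r) (hx : 0 ≤ x) (h : x ≤ y) : cg r x ≤ cg r y := by
  rw [cg_of_nonneg hr hx, cg_of_nonneg hr (hx.trans h)]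
  rcases le_total 0 ((x + 1 - 2 * r)/2) with h1 | h1
  · rw [max_eq_right h1, max_eq_right (by linarith)]; linarith
  · rw [max_eq_left h1]
    rcases le_total 0 ((y + 1 - 2 * r)/2) with h2 | h2
    · rw [max_eq_right h2]; linarith
    · rw [max_eq_left h2]; linarith

lemma cf_top {r : ℝ} (hr : 1/2 ≤ r) (hr1 : r ≤ 1) : cf r r = 1 := by
  rw [cf_of_nonneg hr (by linarith), max_eq_right (by linarith)]; ring

lemma cg_top {r : ℝ} (hr : 1/2 ≤ r) (hr1 : r ≤ 1) : cg r 1 = r := by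
  rw [cg_of_nonneg hr (by norm_num), max_eq_right (by linarith)]; ring

lemma cf_one {x : ℝ} (hx : |x| ≤ 1) : cf 1 x = x := by
  obtain ⟨h1, h2⟩ := abs_le.1 hx
  unfold cf
  rw [max_eq_left (by linarith), max_eq_left (by linarith)]; ring

lemma cg_one {x : ℝ} (hx : |x| ≤ 1) : cg 1 x = x := by
  obtain ⟨h1, h2⟩ := abs_le.1 hx
  unfold cg
  rw [max_eq_left (by linarith), max_eq_left (by linarith)]; ring

variable {n : ℕ}

/-- the annulus `1/2 ≤ ‖x‖ ≤ 1` -/
def Ann (n : ℕ) : Set (Fin n → ℝ) := {x | 1/2 ≤ ‖x‖ ∧ ‖x‖ ≤ 1}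

lemma isClosed_Ann : IsClosed (Ann n) :=
  (isClosed_le continuous_const continuous_norm).inter
    (isClosed_le continuous_norm continuous_const)

lemma norm_cf {x : Fin n → ℝ} (hx : x ∈ Ann n) : ‖fun j => cf ‖x‖ (x j)‖ = 1 := by
  have hx0 : x ≠ 0 := by rintro rfl; have := hx.1; rw [norm_zero] at this; norm_num at this
  apply le_antisymm
  · rw [pi_norm_le_iff_of_nonneg zero_le_one]
    intro i
    rw [Real.norm_eq_abs, abs_cf _ _ hx.1, ← cf_top hx.1 hx.2]
    exact cf_mono hx.1 (abs_nonneg _) (abs_apply_le x i)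
  · obtain ⟨i, hi⟩ := exists_coord hx0
    calc (1:ℝ) = |cf ‖x‖ (x i)| := by rw [abs_cf _ _ hx.1, ← hi, cf_top hx.1 hx.2]
      _ ≤ _ := abs_apply_le (fun j => cf ‖x‖ (x j)) i

lemma norm_cg {ω : Fin n → ℝ} {r : ℝ} (hω : ω ∈ sph n) (hr : r ∈ Icc (1/2:ℝ) 1) :
    ‖fun j => cg r (ω j)‖ = r := by
  have h1 : ‖ω‖ = 1 := by simpa using hω
  have hx0 : ω ≠ 0 := by rintro rfl; rw [norm_zero] at h1; norm_num at h1
  apply le_antisymm
  · rw [pi_norm_le_iff_of_nonneg (by linarith [hr.1])]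
    intro i
    rw [Real.norm_eq_abs, abs_cg _ _ hr.1]
    calc cg r |ω i| ≤ cg r 1 := cg_mono hr.1 (abs_nonneg _) (by rw [← h1]; exact abs_apply_le ω i)
      _ = r := cg_top hr.1 hr.2
  · obtain ⟨i, hi⟩ := exists_coord hx0
    calc r = |cg r (ω i)| := by rw [abs_cg _ _ hr.1, ← hi, h1, cg_top hr.1 hr.2]
      _ ≤ _ := abs_apply_le (fun j => cg r (ω j)) i

variable {E : Type*} [NormedAddCommGroup E] [NormedSpace ℝ E]

lemma pl_cf {r x : E → ℝ} {Z : Set E} (hr : PLOn r Z) (hx : PLOn x Z) :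
    PLOn (fun z => cf (r z) (x z)) Z := by
  refine pl_sub (pl_add hx (pl_max (plOn_const _ _) ?_)) (pl_max (plOn_const _ _) ?_)
  · exact pl_sub (pl_add_const hx 1) (pl_mul 2 hr)
  · exact pl_sub (pl_add_const (pl_neg hx) 1) (pl_mul 2 hr)

lemma pl_cg {r x : E → ℝ} {Z : Set E} (hr : PLOn r Z) (hx : PLOn x Z) :
    PLOn (fun z => cg (r z) (x z)) Z := by
  refine pl_add (pl_sub hx (pl_max (plOn_const _ _) ?_)) (pl_max (plOn_const _ _) ?_)
  · exact pl_div (pl_sub (pl_add_const hx 1) (pl_mul 2 hr)) 2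
  · exact pl_div (pl_sub (pl_add_const (pl_neg hx) 1) (pl_mul 2 hr)) 2

/-- THE PL COLLAR OF THE CUBE -/
noncomputable def collar (n : ℕ) : PLEquiv (Ann n) (PS (sph n)) where
  f x := (fun j => cf ‖x‖ (x j), ‖x‖)
  g z := fun j => cg z.2 (z.1 j)
  pf := pl_pair (pl_pi fun i => pl_cf (pl_norm _) (pl_apply (plOn_id _) i)) (pl_norm _)
  pg := pl_pi fun i => pl_cg (pl_snd (plOn_id _)) (pl_apply (pl_fst (plOn_id _)) i)
  mf x hx := ⟨by simpa using norm_cf hx, hx.1, hx.2⟩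
  mg z hz := by
    have := norm_cg hz.1 hz.2
    exact ⟨by rw [this]; exact hz.2.1, by rw [this]; exact hz.2.2⟩
  li x hx := by
    funext j
    exact cg_cf hx.1
  ri z hz := by
    have := norm_cg hz.1 hz.2
    apply Prod.ext
    · funext j
      show cf ‖fun j => cg z.2 (z.1 j)‖ (cg z.2 (z.1 j)) = z.1 j
      rw [this]; exact cf_cg hz.2.1
    · exact this

lemma collar_f_sph {ω : Fin n → ℝ} (hω : ω ∈ sph n) : (collar n).f ω = (ω, 1) := by
  have h1 : ‖ω‖ = 1 := by simpa using hω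
  apply Prod.ext
  · funext j
    show cf ‖ω‖ (ω j) = ω j
    rw [h1]; exact cf_one (by rw [← h1]; exact abs_apply_le ω j)
  · exact h1

lemma collar_g_one {ω : Fin n → ℝ} (hω : ω ∈ sph n) : (collar n).g (ω, 1) = ω := by
  have h1 : ‖ω‖ = 1 := by simpa using hω
  funext j
  show cg 1 (ω j) = ω j
  exact cg_one (by rw [← h1]; exact abs_apply_le ω j)

lemma sph_subset_Ann : sph n ⊆ Ann n := by
  intro ω hω
  have h1 : ‖ω‖ = 1 := by simpa using hω
  exact ⟨by rw [h1]; norm_num, h1.le⟩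

end collar

/-! ### pull back and extension of LAM-structures -/

namespace Lam

variable {E F : Type*} [NormedAddCommGroup E] [NormedSpace ℝ E]
  [NormedAddCommGroup F] [NormedSpace ℝ F] {Z : Set E} {Z' : Set F} {ι : Type*}

/-- pull back along a PL equivalence -/
def pull (L : Lam Z' ι) (e : PLEquiv Z Z') (hZ : IsClosed Z) : Lam Z ι where
  c i x := L.c i (e.f x)
  B i := {x | x ∈ Z ∧ e.f x ∈ L.B i}
  tr i p := e.g (L.tr i (e.f p.1, p.2))
  pc i := (L.pc i).comp e.pf e.mf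
  cm i z hz := L.cm i _ (e.mf hz)
  Bc i := e.pf.1.preimage_isClosed_of_isClosed hZ (L.Bc i)
  BZ i z hz := hz.1
  Bm i z hz hc := ⟨hz, L.Bm i _ (e.mf hz) hc⟩
  pt i := by
    refine e.pg.comp ((L.pt i).comp (pl_pair (e.pf.comp (pl_fst (plOn_id _)) (fun p hp => hp.1.1))
      (pl_snd (plOn_id _))) (fun p hp => ⟨hp.1.2, hp.2⟩)) ?_
    intro p hp
    exact L.BZ i (L.trB i _ hp.1.2 _ hp.2)
  trB i z hz s hs := by
    have h1 := L.trB i _ hz.2 s hs
    have h2 := L.BZ i h1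
    exact ⟨e.mg h2, by rw [e.ri _ h2]; exact h1⟩
  ctr i z hz s hs := by
    rw [e.ri _ (L.BZ i (L.trB i _ hz.2 s hs))]
    exact L.ctr i _ hz.2 s hs
  tr_self i z hz := by
    show e.g (L.tr i (e.f z, L.c i (e.f z))) = z
    rw [L.tr_self i _ hz.2, e.li z hz.1]
  tr_tr i z hz s hs s' hs' := by
    show e.g (L.tr i (e.f (e.g (L.tr i (e.f z, s))), s')) = e.g (L.tr i (e.f z, s'))
    rw [e.ri _ (L.BZ i (L.trB i _ hz.2 s hs)), L.tr_tr i _ hz.2 s hs s' hs']
  co i j hij z hz s hs := by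
    rw [e.ri _ (L.BZ i (L.trB i _ hz.2 s hs))]
    exact L.co i j hij _ hz.2 s hs
  Bo i j hij z hz hz' s hs := by
    have h1 := L.Bo i j hij _ hz.2 hz'.2 s hs
    have h2 := L.BZ j h1
    exact ⟨e.mg h2, by rw [e.ri _ h2]; exact h1⟩
  comm i j hij z hz hz' s hs t ht := by
    show e.g (L.tr i (e.f (e.g (L.tr j (e.f z, t))), s))
      = e.g (L.tr j (e.f (e.g (L.tr i (e.f z, s))), t))
    rw [e.ri _ (L.BZ j (L.trB j _ hz'.2 t ht)), e.ri _ (L.BZ i (L.trB i _ hz.2 s hs)),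
      L.comm i j hij _ hz.2 hz'.2 s hs t ht]

open scoped Classical in
/-- extension by `-1/2` to a larger closed set -/
noncomputable def extend (L : Lam Z ι) {Y : Set E} (hZ : IsClosed Z) (hY : IsClosed Y)
    (h : ∀ i, ∀ z ∈ Z, z ∈ Y → L.c i z = -1/2) : Lam (Z ∪ Y) ι where
  c i x := if x ∈ Z then L.c i x else -1/2
  B := L.B
  tr := L.tr
  pc i := by
    refine PLOn.union ((L.pc i).congr fun x hx => ?_) ((plOn_const (-1/2 : ℝ) Y).congr
      fun x hx => ?_) hZ hY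
    · simp [hx]
    · by_cases hz : x ∈ Z
      · simp only [hz, if_true]; exact h i x hz hx
      · simp [hz]
  cm i z _ := by
    by_cases hz : z ∈ Z
    · simp only [hz, if_true]; exact L.cm i z hz
    · simp only [hz, if_false]; exact ⟨le_rfl, by norm_num⟩
  Bc := L.Bc
  BZ i z hz := Or.inl (L.BZ i hz)
  Bm i z _ hc := by
    by_cases hz : z ∈ Z
    · simp only [hz, if_true] at hc; exact L.Bm i z hz hc
    · simp only [hz, if_false] at hc; norm_num [abs_of_neg] at hc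
  pt := L.pt
  trB := L.trB
  ctr i z hz s hs := by
    simp only [L.BZ i (L.trB i z hz s hs), if_true]; exact L.ctr i z hz s hs
  tr_self i z hz := by
    simp only [L.BZ i hz, if_true]; exact L.tr_self i z hz
  tr_tr := L.tr_tr
  co i j hij z hz s hs := by
    simp only [L.BZ i (L.trB i z hz s hs), L.BZ i hz, if_true]; exact L.co i j hij z hz s hs
  Bo := L.Bo
  comm := L.comm

lemma extend_c_mem (L : Lam Z ι) {Y : Set E} (hZ : IsClosed Z) (hY : IsClosed Y)
    (h : ∀ i, ∀ z ∈ Z, z ∈ Y → L.c i z = -1/2) (i : ι) {z : E} (hz : z ∈ Z) :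
    (L.extend hZ hY h).c i z = L.c i z := by
  simp [extend, hz]

lemma extend_c_notMem (L : Lam Z ι) {Y : Set E} (hZ : IsClosed Z) (hY : IsClosed Y)
    (h : ∀ i, ∀ z ∈ Z, z ∈ Y → L.c i z = -1/2) (i : ι) {z : E} (hz : z ∉ Z) :
    (L.extend hZ hY h).c i z = -1/2 := by
  simp [extend, hz]

/-- change of the domain along an equality -/
def cast (L : Lam Z ι) {Y : Set E} (h : Z = Y) : Lam Y ι := h ▸ L

lemma cast_c (L : Lam Z ι) {Y : Set E} (h : Z = Y) : (L.cast h).c = L.c := by subst h; rfl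
lemma cast_B (L : Lam Z ι) {Y : Set E} (h : Z = Y) : (L.cast h).B = L.B := by subst h; rfl
lemma cast_tr (L : Lam Z ι) {Y : Set E} (h : Z = Y) : (L.cast h).tr = L.tr := by subst h; rfl

end Lam

/-! ### the extension from the sphere to the cube -/

section fill

variable {n : ℕ} {ι : Type*} {L : Lam (sph n) ι} {K b : ℝ} {h ρ : ι → ℝ}

lemma cl_low {b : ℝ} (h0 : 0 < b) (h2 : b < 1/2) : cl (-1/2 / (2 * b)) = -1/2 := by
  apply cl_of_le
  rw [div_le_iff₀ (by linarith)]; linarith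

lemma cube_eq : Ann n ∪ {x : Fin n → ℝ | ‖x‖ ≤ 1/2} = cube n := by
  ext x
  simp only [Ann, mem_union, mem_ofPred_eq, mem_closedBall_zero_iff]
  constructor
  · rintro (h | h)
    · exact h.2
    · linarith
  · intro h
    rcases le_total (1/2) ‖x‖ with h1 | h1
    · exact Or.inl ⟨h1, h⟩
    · exact Or.inr h1

/-- the LAM-structure on the annulus -/
noncomputable def Dep.ann (D : Dep L K b h ρ) : Lam (Ann n) ι :=
  (D.ext isClosed_sphere).pull (collar n) isClosed_Ann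

/-- THE EXTENSION OF A LAM-STRUCTURE FROM THE SPHERE TO THE CUBE -/
noncomputable def Dep.fill (D : Dep L K b h ρ) : Lam (cube n) ι :=
  (D.ann.extend isClosed_Ann (isClosed_le continuous_norm continuous_const) (by
    intro i z hz hz'
    show cl (Af L h ρ i ((collar n).f z) / (2 * b)) = -1/2
    rw [D.low ((collar n).mf hz) (show ‖z‖ ≤ ρ i - h i/2 from
      le_trans hz' (D.lo i))]
    exact cl_low D.cst.b0 D.cst.b2)).cast cube_eq

variable (D : Dep L K b h ρ)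

lemma Dep.fill_B (i : ι) : D.fill.B i = {x | x ∈ Ann n ∧ (collar n).f x ∈ Bf L b h ρ i} := by
  unfold Dep.fill
  rw [Lam.cast_B]
  rfl

lemma Dep.fill_tr (i : ι) (p : (Fin n → ℝ) × ℝ) :
    D.fill.tr i p = (collar n).g (Tf L K b h ρ i ((collar n).f p.1, p.2)) := by
  unfold Dep.fill
  rw [Lam.cast_tr]
  rfl

lemma Dep.fill_c_ann (i : ι) {x : Fin n → ℝ} (hx : x ∈ Ann n) :
    D.fill.c i x = cl (Af L h ρ i ((collar n).f x) / (2 * b)) := by
  unfold Dep.fill
  rw [Lam.cast_c, Lam.extend_c_mem _ _ _ _ _ hx]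
  rfl

lemma Dep.fill_c_low (i : ι) {x : Fin n → ℝ} (hx : ‖x‖ ≤ 1/2) : D.fill.c i x = -1/2 := by
  by_cases h1 : x ∈ Ann n
  · rw [D.fill_c_ann i h1, D.low ((collar n).mf h1) (show ‖x‖ ≤ ρ i - h i/2 from
      le_trans hx (D.lo i))]
    exact cl_low D.cst.b0 D.cst.b2
  · unfold Dep.fill
    rw [Lam.cast_c, Lam.extend_c_notMem _ _ _ _ _ h1]

/-! restriction to the sphere: the old structure squeezed by `2b` -/

lemma Dep.fill_c_sph (i : ι) {x : Fin n → ℝ} (hx : x ∈ sph n) :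
    D.fill.c i x = cl (L.c i x / (2 * b)) := by
  rw [D.fill_c_ann i (sph_subset_Ann hx), collar_f_sph hx, D.A_one i hx]

lemma Dep.fill_B_sph (i : ι) {x : Fin n → ℝ} (hx : x ∈ sph n) :
    x ∈ D.fill.B i ↔ |L.c i x| ≤ b := by
  rw [D.fill_B]
  show (x ∈ Ann n ∧ (collar n).f x ∈ Bf L b h ρ i) ↔ _
  rw [collar_f_sph hx, D.mem_Bf_one]
  exact ⟨fun h => h.2.2, fun h => ⟨sph_subset_Ann hx, hx, h⟩⟩

lemma Dep.fill_tr_sph (i : ι) {x : Fin n → ℝ} (hx : x ∈ sph n) (hc : |L.c i x| ≤ b) {s : ℝ}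
    (hs : s ∈ I2) : D.fill.tr i (x, s) = L.tr i (x, 2 * b * s) := by
  rw [D.fill_tr]
  show (collar n).g (Tf L K b h ρ i ((collar n).f x, s)) = _
  rw [collar_f_sph hx, D.T_one hx hc hs]
  apply collar_g_one
  have h1 := D.I2_of hs (show 2 * b * s ∈ Icc (2 * b * s) (1/2) from
    ⟨le_rfl, (scale_mem D.cst hs).2.trans D.cst.b2.le⟩)
  exact L.BZ i (L.trB i x (D.B_of_le hx hc) _ h1)

/-- same colour: the new bands are disjoint -/
lemma Dep.fill_disj {i j : ι} (h1 : (∀ ω ∈ sph n, L.c i ω = -1/2 ∨ L.c j ω = -1/2) ∨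
      (ρ j < ρ i ∧ ∀ ω ∈ sph n, -1/2 < L.c i ω → L.c j ω = 1/2) ∨
      (ρ i < ρ j ∧ ∀ ω ∈ sph n, -1/2 < L.c j ω → L.c i ω = 1/2)) :
    Disjoint (D.fill.B i) (D.fill.B j) := by
  rw [D.fill_B, D.fill_B]
  refine Set.disjoint_left.2 fun x hx hx' => ?_
  exact Set.disjoint_left.1 (D.disj h1) hx.2 hx'.2

end fill

end Crest.Agent.R096.Bd_416
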