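import Crest.Agent.R096.Bd4_416

/-!
# R096 (row 96), P4-BAND, part 5: sums of steps, from LAM to the colour level, the squeeze,
the extension theorem over balls (helper416)
-/

set_option autoImplicit false

open Set Metric

namespace Crest.Agent.R096.Bd_416

open Crest.Agent.R096.Ce_537

/-! ### sums of steps -/

section stp

variable {I κ : Type*} [Fintype I]

open scoped Classical in
/-- sum of the steps of colour `a` -/
noncomputable def stp (col : I → κ) (ε : I → ℝ) (a : κ) (f : I → ℝ) : ℝ :=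
  ∑ x, if col x = a then ε x * (f x + 1/2) else 0

variable {col : I → κ} {ε : I → ℝ} {a : κ} {f f' : I → ℝ}

lemma stp_congr (h : ∀ x, col x = a → f x = f' x) : stp col ε a f = stp col ε a f' := by
  classical
  unfold stp
  refine Finset.sum_congr rfl fun x _ => ?_
  by_cases hx : col x = a
  · simp only [hx, if_true]; rw [h x hx]
  · simp only [hx, if_false]

/-- two families that differ at one index -/
lemma stp_sub {x : I} (hx : col x = a) (h : ∀ y, y ≠ x → col y = a → f y = f' y) :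
    stp col ε a f - stp col ε a f' = ε x * (f x - f' x) := by
  classical
  unfold stp
  rw [← Finset.sum_sub_distrib, Finset.sum_eq_single x]
  · simp only [hx, if_true]; ring
  · intro y _ hy
    by_cases hya : col y = a
    · simp only [hya, if_true]; rw [h y hy hya]; ring
    · simp only [hya, if_false]; ring
  · intro h; exact absurd (Finset.mem_univ _) h

lemma stp_int (hε : ∀ x, ε x = 1 ∨ ε x = -1) (h : ∀ x, col x = a → f x = -1/2 ∨ f x = 1/2) :
    stp col ε a f ∈ Zs := by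
  classical
  unfold stp
  refine AddSubgroup.sum_mem _ fun x _ => ?_
  by_cases hx : col x = a
  · simp only [hx, if_true]
    rcases h x hx with h | h
    · rw [h]
      have : ε x * (-1/2 + 1/2) = 0 := by ring
      rw [this]; exact Zs.zero_mem
    · rw [h]
      have : ε x * (1/2 + 1/2) = ε x := by ring
      rw [this]; exact sgn_int (hε x)
  · simp only [hx, if_false]; exact Zs.zero_mem

/-- if all but one term are at `±1/2` -/
lemma stp_one (hε : ∀ x, ε x = 1 ∨ ε x = -1) {x : I} (hx : col x = a)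
    (h : ∀ y, y ≠ x → col y = a → f y = -1/2 ∨ f y = 1/2) :
    stp col ε a f - 1/2 - ε x * f x ∈ Zs := by
  classical
  have h1 : stp col ε a f - stp col ε a (Function.update f x (-1/2))
      = ε x * (f x - Function.update f x (-1/2) x) := by
    refine stp_sub hx fun y hy _ => ?_
    rw [Function.update_of_ne hy]
  rw [Function.update_self] at h1
  have h2 : stp col ε a (Function.update f x (-1/2)) ∈ Zs := by
    refine stp_int hε fun y hy => ?_
    by_cases hyx : y = x
    · subst hyx; rw [Function.update_self]; exact Or.inl rfl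
    · rw [Function.update_of_ne hyx]; exact h y hyx hy
  have h3 := Zs.add_mem h2 (sgn_half (hε x))
  have : stp col ε a f - 1/2 - ε x * f x
      = stp col ε a (Function.update f x (-1/2)) + (ε x / 2 - 1/2) := by linarith
  rw [this]; exact h3

variable {E : Type*} [NormedAddCommGroup E] [NormedSpace ℝ E]

lemma pl_stp {Z : Set E} {c : I → E → ℝ} (h : ∀ x, PLOn (c x) Z) :
    PLOn (fun z => stp col ε a (fun x => c x z)) Z := by
  classical
  unfold stp
  refine pl_sum _ fun x _ => ?_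
  by_cases hx : col x = a
  · simp only [hx, if_true]; exact pl_mul _ (pl_add_const (h x) _)
  · simp only [hx, if_false]; exact plOn_const _ _

end stp

variable {E : Type*} [NormedAddCommGroup E] [NormedSpace ℝ E] {κ : Type*}

/-! ### the level function is the sum of the steps -/

lemma Pcs.exists_base {g : Gd E κ} {S : Set E} {I : Type*} [Fintype I] (p : Pcs g S I)
    (h : g.Is S) (hS : IsPreconnected S) :
    ∃ g0 : κ → ℤ, ∀ a, ∀ z ∈ S, g.G a z = g0 a + stp p.col p.ε a (fun x => p.c x z) := by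
  have key : ∀ a, ∃ n : ℤ, ∀ z ∈ S, g.G a z = n + stp p.col p.ε a (fun x => p.c x z) := by
    intro a
    have hc : ContinuousOn (fun z => g.G a z - stp p.col p.ε a (fun x => p.c x z)) S :=
      (pl_sub (h.pG a) (pl_stp p.pc)).1
    have hv : ∀ z ∈ S, g.G a z - stp p.col p.ε a (fun x => p.c x z) ∈ Zs := by
      intro z hz
      by_cases hB : z ∈ g.B a
      · obtain ⟨x, hx, hxP⟩ := p.cov a z hz hB
        have h1 : stp p.col p.ε a (fun x => p.c x z) - 1/2 - p.ε x * p.c x z ∈ Zs := by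
          refine stp_one p.hε hx fun y hy hya => p.half hz ?_
          exact fun hc => p.col_ne hy hc hxP (hya.trans hx.symm)
        have h2 := p.cP x z hxP
        have h3 : p.ε x * p.c x z = g.G a z - g.lev a z - 1/2 := by
          rw [h2, sgn_sgn (p.hε x), hx]
        have h4 := h.li a z hz hB
        have h5 := Zs.sub_mem h4 h1
        have : g.G a z - stp p.col p.ε a (fun x => p.c x z)
            = g.lev a z - (stp p.col p.ε a (fun x => p.c x z) - 1/2 - p.ε x * p.c x z) := by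
          rw [h3]; ring
        rw [this]; exact h5
      · have h1 : g.G a z ∈ Zs := by
          by_contra hn; exact hB (h.nB a z hz hn)
        refine Zs.sub_mem h1 (stp_int p.hε fun x hx => p.half hz ?_)
        intro hc
        exact hB (hx ▸ p.PB x hc)
    rcases S.eq_empty_or_nonempty with rfl | ⟨z0, h0⟩
    · exact ⟨0, fun z hz => hz.elim⟩
    · obtain ⟨n, hn⟩ := mem_Zs.1 (hv z0 h0)
      refine ⟨n, fun z hz => ?_⟩
      have h1 := pre_int hS hc hv hz h0
      rw [hn] at h1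
      linarith
  choose g0 hg0 using key
  exact ⟨g0, hg0⟩

/-! ### from LAM to the colour level -/

section toGd

set_option linter.unusedSectionVars false

variable {Z : Set E} {I : Type*} [Fintype I]

open scoped Classical in
/-- the colour data of a LAM-structure -/
noncomputable def Lam.gd (L : Lam Z I) (col : I → κ) (ε : I → ℝ) (g0 : κ → ℤ) : Gd E κ where
  G a z := g0 a + stp col ε a (fun x => L.c x z)
  B a := {z | ∃ x, col x = a ∧ z ∈ L.B x}
  lev a z := if h : ∃ x, col x = a ∧ z ∈ L.B x then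
    g0 a + stp col ε a (fun x => L.c x z) - 1/2 - ε h.choose * L.c h.choose z else 0
  tr a q := if h : ∃ x, col x = a ∧ q.1 ∈ L.B x then L.tr h.choose (q.1, ε h.choose * q.2)
    else q.1

variable (L : Lam Z I) (col : I → κ) (ε : I → ℝ) (g0 : κ → ℤ)

lemma Lam.gd_G (a : κ) (z : E) :
    (L.gd col ε g0).G a z = g0 a + stp col ε a (fun x => L.c x z) := rfl

lemma Lam.mem_gd_B (a : κ) (z : E) :
    z ∈ (L.gd col ε g0).B a ↔ ∃ x, col x = a ∧ z ∈ L.B x := Iff.rfl

/-- the bands of one colour are disjoint -/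
def Lam.Dj (L : Lam Z I) (col : I → κ) : Prop :=
  ∀ x y, x ≠ y → col x = col y → Disjoint (L.B x) (L.B y)

variable {L col}

lemma Lam.Dj.uniq (hd : L.Dj col) {a : κ} {x y : I} (hx : col x = a) (hy : col y = a) {z : E}
    (h : z ∈ L.B x) (h' : z ∈ L.B y) : x = y := by
  by_contra hne
  exact Set.disjoint_left.1 (hd x y hne (hx.trans hy.symm)) h h'

lemma Lam.Dj.lev (hd : L.Dj col) {a : κ} {x : I} (hx : col x = a) {z : E} (h : z ∈ L.B x) :
    (L.gd col ε g0).lev a z = g0 a + stp col ε a (fun x => L.c x z) - 1/2 - ε x * L.c x z := by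
  classical
  have hex : ∃ x, col x = a ∧ z ∈ L.B x := ⟨x, hx, h⟩
  have he : hex.choose = x := hd.uniq hex.choose_spec.1 hx hex.choose_spec.2 h
  show (if h : ∃ x, col x = a ∧ z ∈ L.B x then _ else _) = _
  rw [dif_pos hex, he]

lemma Lam.Dj.tr (hd : L.Dj col) {a : κ} {x : I} (hx : col x = a) {z : E} (h : z ∈ L.B x)
    (s : ℝ) : (L.gd col ε g0).tr a (z, s) = L.tr x (z, ε x * s) := by
  classical
  have hex : ∃ x, col x = a ∧ z ∈ L.B x := ⟨x, hx, h⟩
  have he : hex.choose = x := hd.uniq hex.choose_spec.1 hx hex.choose_spec.2 h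
  show (if h : ∃ x, col x = a ∧ z ∈ L.B x then _ else _) = _
  rw [dif_pos hex, he]

lemma Lam.half (L : Lam Z I) {x : I} {z : E} (hz : z ∈ Z) (h : z ∉ L.B x) :
    L.c x z = -1/2 ∨ L.c x z = 1/2 :=
  half_of_I2 (L.cm x z hz) (fun hc => h (L.Bm x z hz hc))

lemma Lam.stp_tr (L : Lam Z I) (col : I → κ) (ε : I → ℝ) {x : I} {a : κ} (hx : col x = a)
    {z : E} (h : z ∈ L.B x) {s : ℝ} (hs : s ∈ I2) :
    stp col ε a (fun y => L.c y (L.tr x (z, s))) - stp col ε a (fun y => L.c y z)
      = ε x * (s - L.c x z) := by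
  rw [stp_sub (f := fun y => L.c y (L.tr x (z, s))) (f' := fun y => L.c y z) hx
    (fun y hy _ => L.co x y (Ne.symm hy) z h s hs), L.ctr x z h s hs]

lemma Lam.stp_tr' (L : Lam Z I) (col : I → κ) (ε : I → ℝ) {x : I} {a : κ} (hx : col x ≠ a)
    {z : E} (h : z ∈ L.B x) {s : ℝ} (hs : s ∈ I2) :
    stp col ε a (fun y => L.c y (L.tr x (z, s))) = stp col ε a (fun y => L.c y z) := by
  refine stp_congr fun y hy => L.co x y ?_ z h s hs
  rintro rfl; exact hx hy

/-- **the colour data of a LAM-structure is a band structure** -/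
theorem Lam.gd_is (hd : L.Dj col) (hε : ∀ x, ε x = 1 ∨ ε x = -1) : (L.gd col ε g0).Is Z where
  pG a := by
    refine (pl_add (plOn_const ((g0 a : ℤ) : ℝ) Z) (pl_stp (a := a) (col := col) (ε := ε) L.pc))
  cB a := by
    have : Z ∩ (L.gd col ε g0).B a = ⋃ x ∈ {x | col x = a}, L.B x := by
      ext z
      simp only [mem_inter_iff, Lam.mem_gd_B, mem_iUnion, exists_prop, mem_ofPred_eq]
      exact ⟨fun h => h.2, fun ⟨x, hx, h⟩ => ⟨L.BZ x h, x, hx, h⟩⟩
    rw [this]
    exact (Set.toFinite _).isClosed_biUnion (fun x _ => L.Bc x)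
  nB a z hz hn := by
    by_contra hB
    refine hn ?_
    refine Zs.add_mem (int_mem_Zs _) (stp_int hε fun x hx => L.half hz ?_)
    exact fun hc => hB ⟨x, hx, hc⟩
  li a z hz hB := by
    obtain ⟨x, hx, hxB⟩ := hB
    rw [hd.lev ε g0 hx hxB]
    have h1 : stp col ε a (fun x => L.c x z) - 1/2 - ε x * L.c x z ∈ Zs := by
      refine stp_one hε hx fun y hy hya => L.half hz ?_
      exact fun hc => hy (hd.uniq hya hx hc hxB)
    have := Zs.add_mem (int_mem_Zs (g0 a)) h1
    convert this using 1; ring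
  ab a z hz hB := by
    obtain ⟨x, hx, hxB⟩ := hB
    rw [hd.lev ε g0 hx hxB, L.gd_G]
    have := sgn_mul_mem (hε x) (L.cm x z hz)
    convert this using 1; ring
  pt a := by
    have : (Z ∩ (L.gd col ε g0).B a) ×ˢ I2 = ⋃ x ∈ {x | col x = a}, L.B x ×ˢ I2 := by
      ext ⟨z, s⟩
      simp only [mem_prod, mem_inter_iff, Lam.mem_gd_B, mem_iUnion, exists_prop, mem_ofPred_eq]
      constructor
      · rintro ⟨⟨_, x, hx, h⟩, hs⟩; exact ⟨x, hx, h, hs⟩
      · rintro ⟨x, hx, h, hs⟩; exact ⟨⟨L.BZ x h, x, hx, h⟩, hs⟩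
    rw [this]
    refine plOn_biUnion _ (Set.toFinite _) (fun x hx => ?_) (fun x _ => (L.Bc x).prod isClosed_Icc)
    have h1 : PLOn (fun q : E × ℝ => L.tr x (q.1, ε x * q.2)) (L.B x ×ˢ I2) :=
      (L.pt x).comp (pl_pair (pl_fst (plOn_id _)) (pl_mul (ε x) (pl_snd (plOn_id _))))
        (fun q hq => ⟨hq.1, sgn_mul_mem (hε x) hq.2⟩)
    exact h1.congr fun q hq => hd.tr ε g0 hx hq.1 q.2
  tZ a z hz hB s hs := by
    obtain ⟨x, hx, hxB⟩ := hB
    rw [hd.tr ε g0 hx hxB]
    exact L.BZ x (L.trB x z hxB _ (sgn_mul_mem (hε x) hs))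
  tB a z hz hB s hs := by
    obtain ⟨x, hx, hxB⟩ := hB
    rw [hd.tr ε g0 hx hxB]
    exact ⟨x, hx, L.trB x z hxB _ (sgn_mul_mem (hε x) hs)⟩
  tl a z hz hB s hs := by
    obtain ⟨x, hx, hxB⟩ := hB
    have hs' := sgn_mul_mem (hε x) hs
    have hxB' := L.trB x z hxB _ hs'
    rw [hd.tr ε g0 hx hxB, hd.lev ε g0 hx hxB, hd.lev ε g0 hx hxB', L.ctr x z hxB _ hs']
    have := L.stp_tr col ε hx hxB hs'
    rw [mul_sub] at this
    linarith
  tG a z hz hB s hs := by
    obtain ⟨x, hx, hxB⟩ := hB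
    have hs' := sgn_mul_mem (hε x) hs
    rw [hd.tr ε g0 hx hxB, hd.lev ε g0 hx hxB, L.gd_G]
    have := L.stp_tr col ε hx hxB hs'
    rw [mul_sub, sgn_sgn (hε x)] at this
    linarith
  ts a z hz hB := by
    obtain ⟨x, hx, hxB⟩ := hB
    rw [hd.tr ε g0 hx hxB, hd.lev ε g0 hx hxB, L.gd_G]
    have : (g0 a : ℝ) + stp col ε a (fun x => L.c x z)
      - (g0 a + stp col ε a (fun x => L.c x z) - 1/2 - ε x * L.c x z) - 1/2
      = ε x * L.c x z := by ring
    rw [this, sgn_sgn (hε x)]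
    exact L.tr_self x z hxB
  tt a z hz hB s hs s' hs' := by
    obtain ⟨x, hx, hxB⟩ := hB
    rw [hd.tr ε g0 hx hxB, hd.tr ε g0 hx (L.trB x z hxB _ (sgn_mul_mem (hε x) hs)),
      hd.tr ε g0 hx hxB]
    exact L.tr_tr x z hxB _ (sgn_mul_mem (hε x) hs) _ (sgn_mul_mem (hε x) hs')
  oG a b hab z hz hB s hs := by
    obtain ⟨x, hx, hxB⟩ := hB
    rw [hd.tr ε g0 hx hxB, L.gd_G, L.gd_G,
      L.stp_tr' col ε (hx.symm ▸ hab) hxB (sgn_mul_mem (hε x) hs)]
  oB a b hab z hz hB hb s hs := by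
    obtain ⟨x, hx, hxB⟩ := hB
    obtain ⟨y, hy, hyB⟩ := hb
    have hxy : x ≠ y := by rintro rfl; exact hab (hx.symm.trans hy)
    rw [hd.tr ε g0 hx hxB]
    exact ⟨y, hy, L.Bo x y hxy z hxB hyB _ (sgn_mul_mem (hε x) hs)⟩
  ol a b hab z hz hB hb s hs := by
    obtain ⟨x, hx, hxB⟩ := hB
    obtain ⟨y, hy, hyB⟩ := hb
    have hxy : x ≠ y := by rintro rfl; exact hab (hx.symm.trans hy)
    have hs' := sgn_mul_mem (hε x) hs
    rw [hd.tr ε g0 hx hxB, hd.lev ε g0 hy (L.Bo x y hxy z hxB hyB _ hs'), hd.lev ε g0 hy hyB,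
      L.stp_tr' col ε (hx.symm ▸ hab) hxB hs', L.co x y hxy z hxB _ hs']
  oc a b hab z hz hB hb s hs t ht := by
    obtain ⟨x, hx, hxB⟩ := hB
    obtain ⟨y, hy, hyB⟩ := hb
    have hxy : x ≠ y := by rintro rfl; exact hab (hx.symm.trans hy)
    have hs' := sgn_mul_mem (hε x) hs
    have ht' := sgn_mul_mem (hε y) ht
    rw [hd.tr ε g0 hx hxB, hd.tr ε g0 hy hyB,
      hd.tr ε g0 hx (L.Bo y x (Ne.symm hxy) z hyB hxB _ ht'),
      hd.tr ε g0 hy (L.Bo x y hxy z hxB hyB _ hs')]
    exact L.comm x y hxy z hxB hyB _ hs' _ ht'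

end toGd

end Crest.Agent.R096.Bd_416
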