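import Crest.Agent.R096.Bd5_416

/-!
# R096 (row 96), P4-BAND, part 6: the squeeze, the extension theorem over balls (helper416)
-/

set_option autoImplicit false

open Set Metric

namespace Crest.Agent.R096.Bd_416

open Crest.Agent.R096.Ce_537

variable {E : Type*} [NormedAddCommGroup E] [NormedSpace ℝ E] {κ : Type*}

/-! ### the pieces of the colour data of a LAM-structure -/

section pcs

variable {Z : Set E} {I : Type*} [Fintype I] {L : Lam Z I} {col : I → κ} {ε : I → ℝ}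

/-- the pieces of `L.gd` -/
noncomputable def Lam.pcs (L : Lam Z I) {col : I → κ} {ε : I → ℝ} (g0 : κ → ℤ) (hd : L.Dj col)
    (hε : ∀ x, ε x = 1 ∨ ε x = -1) : Pcs (L.gd col ε g0) Z I where
  col := col
  ε := ε
  P := L.B
  c := L.c
  hε := hε
  Pc := L.Bc
  PS := L.BZ
  PB x z hz := ⟨x, rfl, hz⟩
  cov a z _ hB := hB
  dis := hd
  pc := L.pc
  cm := L.cm
  cP x z hz := by
    rw [hd.lev ε g0 rfl hz, L.gd_G]
    have : (g0 (col x) : ℝ) + stp col ε (col x) (fun x => L.c x z)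
      - (g0 (col x) + stp col ε (col x) (fun x => L.c x z) - 1/2 - ε x * L.c x z) - 1/2
      = ε x * L.c x z := by ring
    rw [this, sgn_sgn (hε x)]
  cn := L.Bm

end pcs

/-! ### the squeeze -/

section sq

set_option linter.unusedSectionVars false

open scoped Classical in
/-- squeeze all bands by the factor `2b` -/
noncomputable def Gd.sq (g : Gd E κ) (b : ℝ) : Gd E κ where
  G a z := if z ∈ g.B a then g.lev a z + 1/2 + cl ((g.G a z - g.lev a z - 1/2) / (2 * b))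
    else g.G a z
  B a := {z | z ∈ g.B a ∧ |g.G a z - g.lev a z - 1/2| ≤ b}
  lev := g.lev
  tr a q := g.tr a (q.1, 2 * b * q.2)

variable {g : Gd E κ} {b : ℝ} {Z : Set E}

lemma Gd.sq_G_mem {a : κ} {z : E} (h : z ∈ g.B a) :
    (g.sq b).G a z = g.lev a z + 1/2 + cl ((g.G a z - g.lev a z - 1/2) / (2 * b)) := by
  simp [Gd.sq, h]

lemma Gd.sq_G_notMem {a : κ} {z : E} (h : z ∉ g.B a) : (g.sq b).G a z = g.G a z := by
  simp [Gd.sq, h]

lemma mem_scale (h0 : 0 < b) (h2 : b < 1/2) {s : ℝ} (hs : s ∈ I2) : 2 * b * s ∈ I2 := by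
  constructor <;> nlinarith [hs.1, hs.2]

lemma abs_scale (h0 : 0 < b) {s : ℝ} (hs : s ∈ I2) : |2 * b * s| ≤ b := by
  rw [abs_le]; constructor <;> nlinarith [hs.1, hs.2]

lemma div_mem (h0 : 0 < b) {t : ℝ} (ht : |t| ≤ b) : t / (2 * b) ∈ I2 := by
  obtain ⟨h1, h2⟩ := abs_le.1 ht
  constructor
  · rw [le_div_iff₀ (by linarith)]; linarith
  · rw [div_le_iff₀ (by linarith)]; linarith

lemma scale_div (h0 : 0 < b) (t : ℝ) : 2 * b * (t / (2 * b)) = t := by field_simp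

lemma div_scale (h0 : 0 < b) (t : ℝ) : 2 * b * t / (2 * b) = t := by field_simp

lemma cl_half {t : ℝ} (h0 : 0 < b) (h2 : b < 1/2) (h : t = -1/2 ∨ t = 1/2) :
    cl (t / (2 * b)) = t := by
  rcases h with rfl | rfl
  · exact cl_low h0 h2
  · apply cl_of_ge
    rw [le_div_iff₀ (by linarith)]; linarith

/-- a number of `I2` that differs from `± 1/2` by an integer -/
lemma half_of_int {t : ℝ} (h : t ∈ I2) (h' : t - 1/2 ∈ Zs) : t = -1/2 ∨ t = 1/2 := by
  obtain ⟨n, hn⟩ := mem_Zs.1 h'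
  have h1 : (-1 : ℝ) ≤ n := by rw [← hn]; linarith [h.1]
  have h2 : (n : ℝ) ≤ 0 := by rw [← hn]; linarith [h.2]
  have h3 : (-1 : ℤ) ≤ n := by exact_mod_cast h1
  have h4 : n ≤ 0 := by exact_mod_cast h2
  obtain rfl | rfl : n = -1 ∨ n = 0 := by omega
  · left; push_cast at hn; linarith
  · right; push_cast at hn; linarith

lemma half_int {t : ℝ} (h : t = -1/2 ∨ t = 1/2) : t - 1/2 ∈ Zs := by
  rcases h with rfl | rfl
  · exact ⟨-1, by norm_num⟩
  · exact ⟨0, by norm_num⟩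

/-- at an integer value the squeeze changes nothing -/
lemma Gd.Is.sq_G_int (h : g.Is Z) (h0 : 0 < b) (h2 : b < 1/2) {a : κ} {z : E} (hz : z ∈ Z)
    (hi : g.G a z ∈ Zs) : (g.sq b).G a z = g.G a z := by
  by_cases hB : z ∈ g.B a
  · rw [Gd.sq_G_mem hB]
    have h3 : g.G a z - g.lev a z - 1/2 = -1/2 ∨ g.G a z - g.lev a z - 1/2 = 1/2 := by
      refine half_of_int (h.ab a z hz hB) ?_
      have := Zs.sub_mem (Zs.sub_mem hi (h.li a z hz hB)) (int_mem_Zs 1)
      convert this using 1; push_cast; ring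
    rw [cl_half h0 h2 h3]; ring
  · exact Gd.sq_G_notMem hB

theorem Gd.Is.sq (h : g.Is Z) (hZ : IsClosed Z) (h0 : 0 < b) (h2 : b < 1/2) :
    (g.sq b).Is Z where
  pG a := by
    have c1 : IsClosed (Z ∩ (g.G a) ⁻¹' (Zs : Set ℝ)) :=
      (h.pG a).1.preimage_isClosed_of_isClosed hZ isClosed_Zs
    have hU : Z ⊆ (Z ∩ g.B a) ∪ (Z ∩ (g.G a) ⁻¹' (Zs : Set ℝ)) := by
      intro z hz
      by_cases hi : g.G a z ∈ Zs
      · exact Or.inr ⟨hz, hi⟩
      · exact Or.inl ⟨hz, h.nB a z hz hi⟩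
    refine PLOn.mono (PLOn.union ?_ ?_ (h.cB a) c1) hU
    · have h3 : PLOn (fun z => g.lev a z + 1/2 + cl ((g.G a z - g.lev a z - 1/2) / (2 * b)))
          (Z ∩ g.B a) :=
        pl_add (pl_add_const (h.plev a) _) (pl_cl (pl_div (pl_sub_const
          (pl_sub ((h.pG a).mono inter_subset_left) (h.plev a)) _) _))
      exact h3.congr fun z hz => Gd.sq_G_mem hz.2
    · exact ((h.pG a).mono inter_subset_left).congr fun z hz => h.sq_G_int h0 h2 hz.1 hz.2
  cB a := by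
    have h3 : ContinuousOn (fun z => |g.G a z - g.lev a z - 1/2|) (Z ∩ g.B a) :=
      continuous_abs.comp_continuousOn (pl_sub_const
        (pl_sub ((h.pG a).mono inter_subset_left) (h.plev a)) _).1
    have := h3.preimage_isClosed_of_isClosed (h.cB a) (isClosed_Iic (a := b))
    convert this using 1
    ext z
    exact ⟨fun hz => ⟨⟨hz.1, hz.2.1⟩, hz.2.2⟩, fun hz => ⟨hz.1.1, hz.1.2, hz.2⟩⟩
  nB a z hz hn := by
    have hB : z ∈ g.B a := by
      by_contra hB
      rw [Gd.sq_G_notMem hB] at hn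
      exact hB (h.nB a z hz hn)
    refine ⟨hB, ?_⟩
    by_contra hc
    refine hn ?_
    rw [Gd.sq_G_mem hB]
    have h3 : cl ((g.G a z - g.lev a z - 1/2) / (2 * b)) = -1/2 ∨
        cl ((g.G a z - g.lev a z - 1/2) / (2 * b)) = 1/2 := by
      rcases lt_abs.1 (not_le.1 hc) with h4 | h4
      · right
        apply cl_of_ge
        rw [le_div_iff₀ (by linarith)]; linarith
      · left
        apply cl_of_le
        rw [div_le_iff₀ (by linarith)]; linarith
    have h4 := Zs.add_mem (Zs.add_mem (h.li a z hz hB) (half_int h3)) (int_mem_Zs 1)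
    convert h4 using 1; push_cast; ring
  li a z hz hB := h.li a z hz hB.1
  ab a z hz hB := by
    rw [Gd.sq_G_mem hB.1]
    show _ - g.lev a z - 1/2 ∈ I2
    have := cl_mem ((g.G a z - g.lev a z - 1/2) / (2 * b))
    convert this using 1; ring
  pt a := by
    refine (h.pt a).comp (pl_pair (pl_fst (plOn_id _)) (pl_mul (2 * b) (pl_snd (plOn_id _)))) ?_
    intro q hq
    exact ⟨⟨hq.1.1, hq.1.2.1⟩, mem_scale h0 h2 hq.2⟩
  tZ a z hz hB s hs := h.tZ a z hz hB.1 _ (mem_scale h0 h2 hs)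
  tB a z hz hB s hs := by
    refine ⟨h.tB a z hz hB.1 _ (mem_scale h0 h2 hs), ?_⟩
    show |g.G a (g.tr a (z, 2 * b * s)) - g.lev a (g.tr a (z, 2 * b * s)) - 1/2| ≤ b
    rw [h.tG a z hz hB.1 _ (mem_scale h0 h2 hs), h.tl a z hz hB.1 _ (mem_scale h0 h2 hs)]
    have := abs_scale h0 hs
    convert this using 2; ring
  tl a z hz hB s hs := h.tl a z hz hB.1 _ (mem_scale h0 h2 hs)
  tG a z hz hB s hs := by
    have hs' := mem_scale h0 h2 hs
    show (g.sq b).G a (g.tr a (z, 2 * b * s)) = g.lev a z + 1/2 + s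
    rw [Gd.sq_G_mem (h.tB a z hz hB.1 _ hs'), h.tG a z hz hB.1 _ hs', h.tl a z hz hB.1 _ hs']
    have : (g.lev a z + 1/2 + 2 * b * s - g.lev a z - 1/2) / (2 * b) = s := by
      field_simp; ring
    rw [this, cl_of_mem hs]
  ts a z hz hB := by
    show g.tr a (z, 2 * b * ((g.sq b).G a z - g.lev a z - 1/2)) = z
    rw [Gd.sq_G_mem hB.1]
    have h3 : 2 * b * (g.lev a z + 1/2 + cl ((g.G a z - g.lev a z - 1/2) / (2 * b))
      - g.lev a z - 1/2) = g.G a z - g.lev a z - 1/2 := by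
      rw [cl_of_mem (div_mem h0 hB.2)]; field_simp; ring
    rw [h3]; exact h.ts a z hz hB.1
  tt a z hz hB s hs s' hs' :=
    h.tt a z hz hB.1 _ (mem_scale h0 h2 hs) _ (mem_scale h0 h2 hs')
  oG a c hac z hz hB s hs := by
    have hs' := mem_scale h0 h2 hs
    show (g.sq b).G c (g.tr a (z, 2 * b * s)) = (g.sq b).G c z
    by_cases hc : z ∈ g.B c
    · rw [Gd.sq_G_mem hc, Gd.sq_G_mem (h.oB a c hac z hz hB.1 hc _ hs'),
        h.oG a c hac z hz hB.1 _ hs', h.ol a c hac z hz hB.1 hc _ hs']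
    · rw [Gd.sq_G_notMem hc, Gd.sq_G_notMem (h.notMem_tr hz hB.1 hc hs'),
        h.oG a c hac z hz hB.1 _ hs']
  oB a c hac z hz hB hc s hs := by
    have hs' := mem_scale h0 h2 hs
    refine ⟨h.oB a c hac z hz hB.1 hc.1 _ hs', ?_⟩
    show |g.G c (g.tr a (z, 2 * b * s)) - g.lev c (g.tr a (z, 2 * b * s)) - 1/2| ≤ b
    rw [h.oG a c hac z hz hB.1 _ hs', h.ol a c hac z hz hB.1 hc.1 _ hs']
    exact hc.2
  ol a c hac z hz hB hc s hs := h.ol a c hac z hz hB.1 hc.1 _ (mem_scale h0 h2 hs)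
  oc a c hac z hz hB hc s hs t ht :=
    h.oc a c hac z hz hB.1 hc.1 _ (mem_scale h0 h2 hs) _ (mem_scale h0 h2 ht)

end sq

/-! ### extension over a ball -/

section ball

variable {n : ℕ} {q dq : Set E} {I : Type*}

/-- the chart of the boundary -/
noncomputable def bdE (e : PLEquiv (cube n) q) (he : e.f '' sph n = dq) : PLEquiv (sph n) dq :=
  e.restr sph_subset_cube (by rw [← he]; rintro _ ⟨x, hx, rfl⟩; exact e.mf (sph_subset_cube hx))
    (fun x hx => by rw [← he]; exact ⟨x, hx, rfl⟩)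
    (fun y hy => by
      rw [← he] at hy
      obtain ⟨x, hx, rfl⟩ := hy
      rw [e.li x (sph_subset_cube hx)]; exact hx)

variable (e : PLEquiv (cube n) q) (he : e.f '' sph n = dq) {L : Lam dq I} {K b : ℝ} {h ρ : I → ℝ}

lemma Dep.pull (D : Dep L K b h ρ) :
    Dep (L.pull (bdE e he) isClosed_sphere) K b h ρ where
  cst := D.cst
  h0 := D.h0
  lo := D.lo
  hi := D.hi
  sep i j hij := by
    rintro ⟨ω, hω, h1, h2⟩
    exact D.sep i j hij ⟨(bdE e he).f ω, (bdE e he).mf hω, h1, h2⟩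

/-- THE EXTENSION OF A LAM-STRUCTURE FROM THE BOUNDARY OF A BALL TO THE BALL -/
noncomputable def Dep.fillBall (D : Dep L K b h ρ) : Lam q I :=
  (D.pull e he).fill.pull e.symm (by
    rw [← e.image_eq]
    exact ((isCompact_closedBall (0 : Fin n → ℝ) 1).image_of_continuousOn e.pf.1).isClosed)

variable (D : Dep L K b h ρ)

include he in
lemma g_sph {z : E} (hz : z ∈ dq) : e.g z ∈ sph n ∧ e.f (e.g z) = z := by
  rw [← he] at hz
  obtain ⟨x, hx, rfl⟩ := hz
  rw [e.li x (sph_subset_cube hx)]; exact ⟨hx, rfl⟩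

include he in
lemma dq_subset : dq ⊆ q := by
  rw [← he]; rintro _ ⟨x, hx, rfl⟩; exact e.mf (sph_subset_cube hx)

lemma Dep.fillBall_c (i : I) (z : E) :
    (D.fillBall e he).c i z = (D.pull e he).fill.c i (e.g z) := rfl

lemma Dep.fillBall_B (i : I) (z : E) :
    z ∈ (D.fillBall e he).B i ↔ z ∈ q ∧ e.g z ∈ (D.pull e he).fill.B i := Iff.rfl

lemma Dep.fillBall_tr (i : I) (p : E × ℝ) :
    (D.fillBall e he).tr i p = e.f ((D.pull e he).fill.tr i (e.g p.1, p.2)) := rfl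

lemma Dep.fillBall_c_bd (i : I) {z : E} (hz : z ∈ dq) :
    (D.fillBall e he).c i z = cl (L.c i z / (2 * b)) := by
  obtain ⟨h1, h2⟩ := g_sph e he hz
  rw [D.fillBall_c, (D.pull e he).fill_c_sph i h1]
  show cl (L.c i (e.f (e.g z)) / (2 * b)) = _
  rw [h2]

lemma Dep.fillBall_B_bd (i : I) {z : E} (hz : z ∈ dq) :
    z ∈ (D.fillBall e he).B i ↔ |L.c i z| ≤ b := by
  obtain ⟨h1, h2⟩ := g_sph e he hz
  rw [D.fillBall_B, (D.pull e he).fill_B_sph i h1]
  show z ∈ q ∧ |L.c i (e.f (e.g z))| ≤ b ↔ _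
  rw [h2]
  exact ⟨fun h => h.2, fun h => ⟨dq_subset e he hz, h⟩⟩

lemma Dep.fillBall_tr_bd (i : I) {z : E} (hz : z ∈ dq) (hc : |L.c i z| ≤ b) {s : ℝ}
    (hs : s ∈ I2) : (D.fillBall e he).tr i (z, s) = L.tr i (z, 2 * b * s) := by
  obtain ⟨h1, h2⟩ := g_sph e he hz
  have hc' : |(L.pull (bdE e he) isClosed_sphere).c i (e.g z)| ≤ b := by
    show |L.c i (e.f (e.g z))| ≤ b
    rw [h2]; exact hc
  rw [D.fillBall_tr, (D.pull e he).fill_tr_sph i h1 hc' hs]
  show e.f (e.g (L.tr i (e.f (e.g z), 2 * b * s))) = _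
  rw [h2]
  apply e.ri
  exact dq_subset e he (L.BZ i (L.trB i z (D.B_of_le hz hc) _
    (mem_scale D.cst.b0 D.cst.b2 hs)))

/-- laminarity with depths -/
def LamDep (L : Lam dq I) (col : I → κ) (ρ : I → ℝ) : Prop :=
  ∀ i j, i ≠ j → col i = col j →
    (∀ ω ∈ dq, L.c i ω = -1/2 ∨ L.c j ω = -1/2) ∨
    (ρ j < ρ i ∧ ∀ ω ∈ dq, -1/2 < L.c i ω → L.c j ω = 1/2) ∨
    (ρ i < ρ j ∧ ∀ ω ∈ dq, -1/2 < L.c j ω → L.c i ω = 1/2)

lemma Dep.fillBall_dj {col : I → κ} (hl : LamDep L col ρ) : (D.fillBall e he).Dj col := by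
  intro i j hij hc
  have h1 : Disjoint ((D.pull e he).fill.B i) ((D.pull e he).fill.B j) := by
    refine (D.pull e he).fill_disj ?_
    rcases hl i j hij hc with h2 | h2 | h2
    · left; exact fun ω hω => h2 _ ((bdE e he).mf hω)
    · right; left; exact ⟨h2.1, fun ω hω => h2.2 _ ((bdE e he).mf hω)⟩
    · right; right; exact ⟨h2.1, fun ω hω => h2.2 _ ((bdE e he).mf hω)⟩
  refine Set.disjoint_left.2 fun z hz hz' => ?_
  exact Set.disjoint_left.1 h1 hz.2 hz'.2

/-! ### the extension at the colour level -/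

variable [Fintype I] {g : Gd E κ} {p : Pcs g dq I} {hI : g.Is dq}

/-- **THE STEP**: colour data on the ball -/
noncomputable def Dep.gd (D : Dep (p.lam hI) K b h ρ) (g0 : κ → ℤ) : Gd E κ :=
  (D.fillBall e he).gd p.col p.ε g0

theorem Dep.gd_is (D : Dep (p.lam hI) K b h ρ) (g0 : κ → ℤ) (hl : LamDep (p.lam hI) p.col ρ) :
    (D.gd e he g0).Is q :=
  Lam.gd_is p.ε g0 (D.fillBall_dj e he hl) p.hε

/-- on the boundary the new data are the old data squeezed by `2b` -/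
theorem Dep.gd_eqs (D : Dep (p.lam hI) K b h ρ) (g0 : κ → ℤ) (hl : LamDep (p.lam hI) p.col ρ)
    (hg : ∀ a, ∀ z ∈ dq, g.G a z = g0 a + stp p.col p.ε a (fun x => p.c x z)) :
    (g.sq b).Eqs (D.gd e he g0) dq := by
  have hb0 := D.cst.b0
  have hb2 := D.cst.b2
  have hdj := D.fillBall_dj e he hl
  have c' : ∀ x, ∀ z ∈ dq, (D.fillBall e he).c x z = cl (p.c x z / (2 * b)) :=
    fun x z hz => D.fillBall_c_bd e he x hz
  have B' : ∀ x, ∀ z ∈ dq, z ∈ (D.fillBall e he).B x ↔ |p.c x z| ≤ b :=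
    fun x z hz => D.fillBall_B_bd e he x hz
  have PB : ∀ x, ∀ z ∈ dq, |p.c x z| ≤ b → z ∈ p.P x := fun x z hz hc =>
    p.cn x z hz (lt_of_le_of_lt hc hb2)
  have key : ∀ a, ∀ z ∈ dq, (D.gd e he g0).G a z = (g.sq b).G a z := by
    intro a z hz
    show (g0 a : ℝ) + stp p.col p.ε a (fun x => (D.fillBall e he).c x z) = _
    by_cases hB : z ∈ g.B a
    · obtain ⟨x, hx, hxP⟩ := p.cov a z hz hB
      have h1 : stp p.col p.ε a (fun x => (D.fillBall e he).c x z)
          - stp p.col p.ε a (fun x => p.c x z)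
          = p.ε x * ((D.fillBall e he).c x z - p.c x z) := by
        refine stp_sub (f := fun x => (D.fillBall e he).c x z) (f' := fun x => p.c x z) hx
          fun y hy hya => ?_
        rw [c' y z hz]
        refine cl_half hb0 hb2 (p.half hz ?_)
        exact fun hc => p.col_ne hy hc hxP (hya.trans hx.symm)
      have h2 : p.ε x * p.c x z = g.G a z - g.lev a z - 1/2 := by
        rw [p.cP x z hxP, sgn_sgn (p.hε x), hx]
      rw [Gd.sq_G_mem hB, ← h2, mul_div_assoc, cl_sgn (p.hε x), ← c' x z hz]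
      have h3 := hg a z hz
      rw [mul_sub] at h1
      linarith
    · rw [Gd.sq_G_notMem hB, hg a z hz]
      congr 1
      refine stp_congr fun y hy => ?_
      rw [c' y z hz]
      refine cl_half hb0 hb2 (p.half hz ?_)
      exact fun hc => hB (hy ▸ p.PB y hc)
  have kB : ∀ a, ∀ z ∈ dq, ∀ x, p.col x = a → z ∈ p.P x →
      (|g.G a z - g.lev a z - 1/2| ≤ b ↔ |p.c x z| ≤ b) := by
    intro a z hz x hx hxP
    have h2 : p.ε x * p.c x z = g.G a z - g.lev a z - 1/2 := by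
      rw [p.cP x z hxP, sgn_sgn (p.hε x), hx]
    rw [← h2, abs_mul]
    rcases p.hε x with h | h <;> rw [h] <;> simp
  refine ⟨key, ?_, ?_, ?_⟩
  · intro a z hz
    constructor
    · rintro ⟨x, hx, hxB⟩
      have h1 := (B' x z hz).1 hxB
      have h2 := PB x z hz h1
      exact ⟨hx ▸ p.PB x h2, (kB a z hz x hx h2).2 h1⟩
    · rintro ⟨h1, h2⟩
      obtain ⟨x, hx, hxP⟩ := p.cov a z hz h1
      exact ⟨x, hx, (B' x z hz).2 ((kB a z hz x hx hxP).1 h2)⟩
  · rintro a z hz ⟨h1, h2⟩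
    obtain ⟨x, hx, hxP⟩ := p.cov a z hz h1
    have hxB := (B' x z hz).2 ((kB a z hz x hx hxP).1 h2)
    have h3 := key a z hz
    rw [Gd.sq_G_mem h1] at h3
    show ((D.fillBall e he).gd p.col p.ε g0).lev a z = g.lev a z
    rw [hdj.lev p.ε g0 hx hxB]
    have h4 : p.ε x * p.c x z = g.G a z - g.lev a z - 1/2 := by
      rw [p.cP x z hxP, sgn_sgn (p.hε x), hx]
    rw [← h4, mul_div_assoc, cl_sgn (p.hε x), ← c' x z hz] at h3
    have h5 : (D.gd e he g0).G a z = g0 a + stp p.col p.ε a (fun x => (D.fillBall e he).c x z) :=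
      rfl
    rw [h5] at h3
    linarith
  · rintro a z hz ⟨h1, h2⟩ s hs
    obtain ⟨x, hx, hxP⟩ := p.cov a z hz h1
    have hc := (kB a z hz x hx hxP).1 h2
    have hxB := (B' x z hz).2 hc
    show ((D.fillBall e he).gd p.col p.ε g0).tr a (z, s) = g.tr a (z, 2 * b * s)
    rw [hdj.tr p.ε g0 hx hxB, D.fillBall_tr_bd e he x hz hc (sgn_mul_mem (p.hε x) hs)]
    show g.tr (p.col x) (z, p.ε x * (2 * b * (p.ε x * s))) = _
    rw [hx]
    congr 2
    rcases p.hε x with h | h <;> rw [h] <;> ring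

end ball

end Crest.Agent.R096.Bd_416
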