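import Crest.Agent.R096.Bd6_416

/-!
# R096 (row 96), P4-BAND, part 7: product charts of bands and of intersections of two bands
(helper416)
-/

set_option autoImplicit false

open Set Metric

namespace Crest.Agent.R096.Bd_416

open Crest.Agent.R096.Ce_537

variable {E : Type*} [NormedAddCommGroup E] [NormedSpace ℝ E] {κ : Type*}
variable {g : Gd E κ} {Z : Set E}

/-- the core of a piece of a band -/
def Gd.core (g : Gd E κ) (a : κ) (P : Set E) : Set E := {z | z ∈ P ∧ g.G a z = g.lev a z + 1/2}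

lemma zero_mem_I2 : (0:ℝ) ∈ I2 := by constructor <;> norm_num

lemma Gd.Is.tr_core (h : g.Is Z) {a : κ} {P : Set E} (hP : P ⊆ Z) (hB : P ⊆ g.B a) {z : E}
    (hz : z ∈ g.core a P) : g.tr a (z, 0) = z := by
  have h1 := h.ts a z (hP hz.1) (hB hz.1)
  rw [hz.2] at h1
  have : g.lev a z + 1/2 - g.lev a z - 1/2 = 0 := by ring
  rwa [this] at h1

/-- **chart of a band**: `(m, s) ↦ tr a (m, s)` -/
noncomputable def Gd.Is.chart (h : g.Is Z) {a : κ} {P : Set E} (hP : P ⊆ Z) (hB : P ⊆ g.B a)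
    (hi : ∀ z ∈ P, ∀ s ∈ I2, g.tr a (z, s) ∈ P) : PLEquiv (g.core a P ×ˢ I2) P where
  f := g.tr a
  g z := (g.tr a (z, 0), g.G a z - g.lev a z - 1/2)
  pf := (h.pt a).mono (prod_mono (fun _ hz => ⟨hP hz.1, hB hz.1⟩) le_rfl)
  pg := by
    refine pl_pair ((h.pt a).comp (pl_pair (plOn_id _) (plOn_const (0:ℝ) _))
      (fun z hz => ⟨⟨hP hz, hB hz⟩, zero_mem_I2⟩)) ?_
    exact pl_sub_const (pl_sub ((h.pG a).mono hP) ((h.plev a).mono
      (fun z hz => ⟨hP hz, hB hz⟩))) _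
  mf p hp := hi _ hp.1.1 _ hp.2
  mg z hz := by
    refine ⟨⟨hi z hz 0 zero_mem_I2, ?_⟩, h.ab a z (hP hz) (hB hz)⟩
    show g.G a (g.tr a (z, 0)) = g.lev a (g.tr a (z, 0)) + 1/2
    rw [h.tG a z (hP hz) (hB hz) 0 zero_mem_I2, h.tl a z (hP hz) (hB hz) 0 zero_mem_I2]
    ring
  li p hp := by
    obtain ⟨z, s⟩ := p
    obtain ⟨hz, hs⟩ := hp
    have hz' := hz.1
    apply Prod.ext
    · show g.tr a (g.tr a (z, s), 0) = z
      rw [h.tt a z (hP hz') (hB hz') s hs 0 zero_mem_I2]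
      exact h.tr_core hP hB hz
    · show g.G a (g.tr a (z, s)) - g.lev a (g.tr a (z, s)) - 1/2 = s
      rw [h.tG a z (hP hz') (hB hz') s hs, h.tl a z (hP hz') (hB hz') s hs]
      ring
  ri z hz := by
    show g.tr a (g.tr a (z, 0), g.G a z - g.lev a z - 1/2) = z
    rw [h.tt a z (hP hz) (hB hz) 0 zero_mem_I2 _ (h.ab a z (hP hz) (hB hz))]
    exact h.ts a z (hP hz) (hB hz)

/-- in the chart the level function is the second coordinate -/
lemma Gd.Is.chart_G (h : g.Is Z) {a : κ} {z : E} (hz : z ∈ Z) (hB : z ∈ g.B a) {s : ℝ}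
    (hs : s ∈ I2) : g.G a (g.tr a (z, s)) = g.lev a z + 1/2 + s := h.tG a z hz hB s hs

/-- the core of a piece of the intersection of two bands -/
def Gd.core2 (g : Gd E κ) (a b : κ) (P : Set E) : Set E :=
  {z | z ∈ P ∧ g.G a z = g.lev a z + 1/2 ∧ g.G b z = g.lev b z + 1/2}

/-- **chart of the intersection of two bands**: `(m, (s, t)) ↦ tr a (tr b (m, t), s)` -/
noncomputable def Gd.Is.chart2 (h : g.Is Z) {a b : κ} (hab : a ≠ b) {P : Set E} (hP : P ⊆ Z)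
    (hA : P ⊆ g.B a) (hB : P ⊆ g.B b)
    (ha : ∀ z ∈ P, ∀ s ∈ I2, g.tr a (z, s) ∈ P) (hb : ∀ z ∈ P, ∀ s ∈ I2, g.tr b (z, s) ∈ P) :
    PLEquiv (g.core2 a b P ×ˢ (I2 ×ˢ I2)) P where
  f p := g.tr a (g.tr b (p.1, p.2.2), p.2.1)
  g z := (g.tr a (g.tr b (z, 0), 0), (g.G a z - g.lev a z - 1/2, g.G b z - g.lev b z - 1/2))
  pf := by
    refine (h.pt a).comp (pl_pair ((h.pt b).comp (pl_pair (pl_fst (plOn_id _))
      (pl_snd (pl_snd (plOn_id _)))) ?_) (pl_fst (pl_snd (plOn_id _)))) ?_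
    · intro p hp; exact ⟨⟨hP hp.1.1, hB hp.1.1⟩, hp.2.2⟩
    · intro p hp
      have := hb _ hp.1.1 _ hp.2.2
      exact ⟨⟨hP this, hA this⟩, hp.2.1⟩
  pg := by
    refine pl_pair ((h.pt a).comp (pl_pair ((h.pt b).comp (pl_pair (plOn_id _)
      (plOn_const (0:ℝ) _)) ?_) (plOn_const (0:ℝ) _)) ?_) (pl_pair ?_ ?_)
    · intro z hz; exact ⟨⟨hP hz, hB hz⟩, zero_mem_I2⟩
    · intro z hz
      have := hb _ hz _ zero_mem_I2
      exact ⟨⟨hP this, hA this⟩, zero_mem_I2⟩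
    · exact pl_sub_const (pl_sub ((h.pG a).mono hP) ((h.plev a).mono
        (fun z hz => ⟨hP hz, hA hz⟩))) _
    · exact pl_sub_const (pl_sub ((h.pG b).mono hP) ((h.plev b).mono
        (fun z hz => ⟨hP hz, hB hz⟩))) _
  mf p hp := ha _ (hb _ hp.1.1 _ hp.2.2) _ hp.2.1
  mg z hz := by
    have z1 := hb z hz 0 zero_mem_I2
    have z2 := ha _ z1 0 zero_mem_I2
    refine ⟨⟨z2, ?_, ?_⟩, h.ab a z (hP hz) (hA hz), h.ab b z (hP hz) (hB hz)⟩
    · show g.G a (g.tr a (g.tr b (z, 0), 0)) = g.lev a (g.tr a (g.tr b (z, 0), 0)) + 1/2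
      rw [h.tG a _ (hP z1) (hA z1) 0 zero_mem_I2, h.tl a _ (hP z1) (hA z1) 0 zero_mem_I2]
      ring
    · show g.G b (g.tr a (g.tr b (z, 0), 0)) = g.lev b (g.tr a (g.tr b (z, 0), 0)) + 1/2
      rw [h.oG a b hab _ (hP z1) (hA z1) 0 zero_mem_I2,
        h.ol a b hab _ (hP z1) (hA z1) (hB z1) 0 zero_mem_I2,
        h.tG b z (hP hz) (hB hz) 0 zero_mem_I2, h.tl b z (hP hz) (hB hz) 0 zero_mem_I2]
      ring
  li p hp := by
    obtain ⟨z, s, t⟩ := p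
    obtain ⟨hz, hs, ht⟩ := hp
    simp only at hs ht
    have hz' := hz.1
    have zt := hb z hz' t ht
    have zs := ha z hz' s hs
    have zts := ha _ zt s hs
    have hba := Ne.symm hab
    have ca := h.tr_core (a := a) hP hA ⟨hz', hz.2.1⟩
    have cb := h.tr_core (a := b) hP hB ⟨hz', hz.2.2⟩
    apply Prod.ext
    · show g.tr a (g.tr b (g.tr a (g.tr b (z, t), s), 0), 0) = z
      rw [h.oc b a hba _ (hP zt) (hB zt) (hA zt) 0 zero_mem_I2 s hs,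
        h.tt b z (hP hz') (hB hz') t ht 0 zero_mem_I2, cb,
        h.tt a z (hP hz') (hA hz') s hs 0 zero_mem_I2, ca]
    · apply Prod.ext
      · show g.G a (g.tr a (g.tr b (z, t), s)) - g.lev a (g.tr a (g.tr b (z, t), s)) - 1/2 = s
        rw [h.tG a _ (hP zt) (hA zt) s hs, h.tl a _ (hP zt) (hA zt) s hs]; ring
      · show g.G b (g.tr a (g.tr b (z, t), s)) - g.lev b (g.tr a (g.tr b (z, t), s)) - 1/2 = t
        rw [h.oG a b hab _ (hP zt) (hA zt) s hs, h.ol a b hab _ (hP zt) (hA zt) (hB zt) s hs,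
          h.tG b z (hP hz') (hB hz') t ht, h.tl b z (hP hz') (hB hz') t ht]
        ring
  ri z hz := by
    have hba := Ne.symm hab
    have z1 := hb z hz 0 zero_mem_I2
    have sa := h.ab a z (hP hz) (hA hz)
    have sb := h.ab b z (hP hz) (hB hz)
    show g.tr a (g.tr b (g.tr a (g.tr b (z, 0), 0), g.G b z - g.lev b z - 1/2),
      g.G a z - g.lev a z - 1/2) = z
    rw [h.oc b a hba _ (hP z1) (hB z1) (hA z1) _ sb 0 zero_mem_I2,
      h.tt b z (hP hz) (hB hz) 0 zero_mem_I2 _ sb, h.ts b z (hP hz) (hB hz),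
      h.tt a z (hP hz) (hA hz) 0 zero_mem_I2 _ sa]
    exact h.ts a z (hP hz) (hA hz)

lemma Gd.Is.chart2_G (h : g.Is Z) {a b : κ} (hab : a ≠ b) {P : Set E} (hP : P ⊆ Z)
    (hA : P ⊆ g.B a) (hB : P ⊆ g.B b) (hb : ∀ z ∈ P, ∀ s ∈ I2, g.tr b (z, s) ∈ P)
    {z : E} (hz : z ∈ P) {s t : ℝ} (hs : s ∈ I2) (ht : t ∈ I2) :
    g.G a (g.tr a (g.tr b (z, t), s)) = g.lev a z + 1/2 + s ∧
    g.G b (g.tr a (g.tr b (z, t), s)) = g.lev b z + 1/2 + t := by
  have zt := hb z hz t ht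
  constructor
  · rw [h.tG a _ (hP zt) (hA zt) s hs, h.ol b a (Ne.symm hab) z (hP hz) (hB hz) (hA hz) t ht]
  · rw [h.oG a b hab _ (hP zt) (hA zt) s hs, h.tG b z (hP hz) (hB hz) t ht]

end Crest.Agent.R096.Bd_416
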