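import Crest.Agent.R096.Bd7_416
import Crest.Agent.R096.Bd8_416

/-!
# R096 (row 96), P4-MESH, part 2: products of near signs, laminarity by connectedness (helper416)
-/

set_option autoImplicit false

open Set Metric

namespace Crest.Agent.R096.Bd_416

open Crest.Agent.R096.Ce_537

/-! ### products of numbers which are signs with at most one exception -/

section prod

variable {ι : Type*} {s : Finset ι} {f : ι → ℝ}

lemma sign_of_abs {t : ℝ} (h : |t| = 1) : t = 1 ∨ t = -1 := by
  rcases abs_eq (zero_le_one) |>.1 h with h | h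
  · exact Or.inl h
  · exact Or.inr h

lemma abs_prod_le (h : ∀ i ∈ s, |f i| ≤ 1) : |∏ i ∈ s, f i| ≤ 1 := by
  rw [Finset.abs_prod]
  exact Finset.prod_le_one (fun i _ => abs_nonneg _) h

lemma abs_prod_eq (h : ∀ i ∈ s, |f i| = 1) : |∏ i ∈ s, f i| = 1 := by
  rw [Finset.abs_prod]
  exact Finset.prod_eq_one h

/-- at most one factor is not a sign -/
def OneOff (s : Finset ι) (f : ι → ℝ) : Prop :=
  ∀ i ∈ s, ∀ j ∈ s, i ≠ j → |f i| = 1 ∨ |f j| = 1

lemma OneOff.mono {t : Finset ι} (h : OneOff s f) (ht : t ⊆ s) : OneOff t f :=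
  fun i hi j hj => h i (ht hi) j (ht hj)

lemma OneOff.insert_alt [DecidableEq ι] {a : ι} (ha : a ∉ s) (h : OneOff (insert a s) f) :
    |f a| = 1 ∨ |∏ i ∈ s, f i| = 1 := by
  by_cases h1 : |f a| = 1
  · exact Or.inl h1
  · right
    refine abs_prod_eq fun i hi => ?_
    have hne : a ≠ i := by rintro rfl; exact ha hi
    rcases h a (Finset.mem_insert_self _ _) i (Finset.mem_insert_of_mem hi) hne with h2 | h2
    · exact absurd h2 h1
    · exact h2

/-- the squeeze for `u = -2 c` -/
noncomputable def usq (b u : ℝ) : ℝ := 2 * cl (u / (4 * b))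

lemma usq_neg (b u : ℝ) : usq b (-u) = - usq b u := by
  unfold usq; rw [neg_div, cl_neg]; ring

lemma usq_sign {b : ℝ} (h0 : 0 < b) (h2 : b < 1/2) {u : ℝ} (h : |u| = 1) : usq b u = u := by
  have key : usq b 1 = 1 := by
    unfold usq
    rw [cl_of_ge]
    · norm_num
    · rw [le_div_iff₀ (by linarith)]; linarith
  rcases sign_of_abs h with rfl | rfl
  · exact key
  · rw [usq_neg, key]

lemma usq_mul {b : ℝ} (h0 : 0 < b) (h2 : b < 1/2) {u v : ℝ} (h : |u| = 1 ∨ |v| = 1) :
    usq b (u * v) = usq b u * usq b v := by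
  rcases h with h | h
  · rw [usq_sign h0 h2 h]
    rcases sign_of_abs h with rfl | rfl
    · simp
    · rw [neg_one_mul, neg_one_mul, usq_neg]
  · rw [usq_sign h0 h2 h]
    rcases sign_of_abs h with rfl | rfl
    · simp
    · rw [mul_neg_one, mul_neg_one, usq_neg]

lemma usq_prod {b : ℝ} (h0 : 0 < b) (h2 : b < 1/2) (h : OneOff s f) :
    usq b (∏ i ∈ s, f i) = ∏ i ∈ s, usq b (f i) := by
  classical
  induction s using Finset.induction_on with
  | empty => simpa using usq_sign h0 h2 (abs_one)
  | @insert a s ha ih =>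
    rw [Finset.prod_insert ha, Finset.prod_insert ha,
      usq_mul h0 h2 (OneOff.insert_alt ha h), ih (h.mono (Finset.subset_insert _ _))]

lemma neg_two_cl (b c : ℝ) : -2 * cl (c / (2 * b)) = usq b (-2 * c) := by
  unfold usq
  have : -2 * c / (4 * b) = - (c / (2 * b)) := by
    rw [show (4:ℝ) * b = 2 * (2 * b) by ring, show -2 * c = 2 * (-c) by ring,
      mul_div_mul_left _ _ two_ne_zero, neg_div]
  rw [this, cl_neg]; ring

variable {E : Type*} [NormedAddCommGroup E] [NormedSpace ℝ E]

lemma pl_mul_sign {f g : E → ℝ} {Z : Set E} (hf : PLOn f Z) (hg : PLOn g Z)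
    (h : ∀ z ∈ Z, |f z| = 1 ∨ |g z| = 1) : PLOn (fun z => f z * g z) Z := by
  refine pl_sel (Finset.univ : Finset (Bool × Bool))
    (g := fun p => match p with
      | (true, true) => f
      | (true, false) => fun z => - f z
      | (false, true) => g
      | (false, false) => fun z => - g z) (hf.1.mul hg.1) ?_ ?_
  · rintro ⟨_ | _, _ | _⟩ _
    · exact pl_neg hg
    · exact hg
    · exact pl_neg hf
    · exact hf
  · intro z hz
    rcases h z hz with h | h
    · rcases sign_of_abs h with h | h
      · exact ⟨(false, true), Finset.mem_univ _, by simp [h]⟩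
      · exact ⟨(false, false), Finset.mem_univ _, by simp [h]⟩
    · rcases sign_of_abs h with h | h
      · exact ⟨(true, true), Finset.mem_univ _, by simp [h]⟩
      · exact ⟨(true, false), Finset.mem_univ _, by simp [h]⟩

lemma pl_prod {f : ι → E → ℝ} {Z : Set E} (hf : ∀ i ∈ s, PLOn (f i) Z)
    (h : ∀ z ∈ Z, OneOff s (fun i => f i z)) : PLOn (fun z => ∏ i ∈ s, f i z) Z := by
  classical
  induction s using Finset.induction_on with
  | empty => simpa using plOn_const (1:ℝ) Z
  | @insert a s ha ih =>
    simp only [Finset.prod_insert ha]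
    refine pl_mul_sign (hf a (Finset.mem_insert_self _ _))
      (ih (fun i hi => hf i (Finset.mem_insert_of_mem hi))
        (fun z hz => (h z hz).mono (Finset.subset_insert _ _))) ?_
    intro z hz
    exact OneOff.insert_alt (f := fun i => f i z) ha (h z hz)

end prod

/-! ### laminarity by connectedness -/

section laminar

variable {X : Type*} [TopologicalSpace X] {S : Set X}

lemma pre_le (hS : IsPreconnected S) {u : X → ℝ} (hu : ContinuousOn u S)
    (h : ∀ z ∈ S, u z ≤ 0 ∨ 1 ≤ u z) {o : X} (ho : o ∈ S) (h0 : u o ≤ 0) :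
    ∀ z ∈ S, u z ≤ 0 := by
  refine pre_mem hS hu isClosed_Iic isClosed_Ici ?_ (fun z hz => h z hz) ho h0
  refine Set.disjoint_left.2 fun t ht ht' => ?_
  have h1 : t ≤ 0 := ht
  have h2 : (1:ℝ) ≤ t := ht'
  linarith

/-- **laminarity by connectedness** -/
theorem laminar (hS : IsPreconnected S) {c d : X → ℝ} (hc : ContinuousOn c S)
    (hd : ContinuousOn d S) (mc : ∀ z ∈ S, c z ∈ I2) (md : ∀ z ∈ S, d z ∈ I2)
    {o : X} (ho : o ∈ S) (hco : c o = -1/2) (hdo : d o = -1/2) {a a' : ZMod 2}
    (h1 : ∀ z ∈ S, |c z| < 1/2 → d z = - sg a / 2)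
    (h2 : ∀ z ∈ S, |d z| < 1/2 → c z = - sg a' / 2) :
    (a = 0 ∧ a' = 0 ∧ ∀ z ∈ S, c z = -1/2 ∨ d z = -1/2) ∨
    (a = 1 ∧ a' = 0 ∧ ∀ z ∈ S, -1/2 < c z → d z = 1/2) ∨
    (a = 0 ∧ a' = 1 ∧ ∀ z ∈ S, -1/2 < d z → c z = 1/2) ∨
    (a = 1 ∧ a' = 1 ∧ ∀ z ∈ S, c z = -1/2 ∧ d z = -1/2) := by
  have hf : ∀ z ∈ S, |c z| < 1/2 ∨ c z = -1/2 ∨ c z = 1/2 := fun z hz => by
    by_cases h : |c z| < 1/2
    · exact Or.inl h
    · exact Or.inr (half_of_I2 (mc z hz) h)
  have hg : ∀ z ∈ S, |d z| < 1/2 ∨ d z = -1/2 ∨ d z = 1/2 := fun z hz => by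
    by_cases h : |d z| < 1/2
    · exact Or.inl h
    · exact Or.inr (half_of_I2 (md z hz) h)
  rcases z2 a with rfl | rfl <;> rcases z2 a' with rfl | rfl
  · left
    refine ⟨rfl, rfl, ?_⟩
    rw [sg_zero] at h1 h2
    have key := pre_le hS (u := fun z => c z + d z) (hc.add hd) (fun z hz => by
      rcases hf z hz with e | e | e
      · left; rw [h1 z hz e]; linarith [(mc z hz).2]
      · left; rw [e]; linarith [(md z hz).2]
      · rcases hg z hz with e' | e' | e'
        · left; rw [h2 z hz e']; linarith [(md z hz).2]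
        · left; rw [e, e']; norm_num
        · right; rw [e, e']; norm_num) ho (by rw [hco, hdo]; norm_num)
    intro z hz
    rcases hf z hz with e | e | e
    · right; rw [h1 z hz e]
    · left; exact e
    · right
      have := key z hz
      rw [e] at this
      exact le_antisymm (by linarith) (md z hz).1
  · right; right; left
    refine ⟨rfl, rfl, ?_⟩
    rw [sg_zero] at h1
    rw [sg_one] at h2
    have key := pre_le hS (u := fun z => d z - c z) (hd.sub hc) (fun z hz => by
      rcases hf z hz with e | e | e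
      · left; rw [h1 z hz e]; linarith [(mc z hz).1]
      · rcases hg z hz with e' | e' | e'
        · left; rw [h2 z hz e']; linarith [(md z hz).2]
        · left; rw [e, e']; norm_num
        · right; rw [e, e']; norm_num
      · left; rw [e]; linarith [(md z hz).2]) ho (by rw [hco, hdo]; norm_num)
    intro z hz hlt
    rcases hg z hz with e | e | e
    · rw [h2 z hz e]; norm_num
    · rw [e] at hlt; exact absurd hlt (lt_irrefl _)
    · have := key z hz
      rw [e] at this
      exact le_antisymm (mc z hz).2 (by linarith)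
  · right; left
    refine ⟨rfl, rfl, ?_⟩
    rw [sg_one] at h1
    rw [sg_zero] at h2
    have key := pre_le hS (u := fun z => c z - d z) (hc.sub hd) (fun z hz => by
      rcases hg z hz with e | e | e
      · left; rw [h2 z hz e]; linarith [(md z hz).1]
      · rcases hf z hz with e' | e' | e'
        · left; rw [h1 z hz e']; linarith [(mc z hz).2]
        · left; rw [e, e']; norm_num
        · right; rw [e, e']; norm_num
      · left; rw [e]; linarith [(mc z hz).2]) ho (by rw [hco, hdo]; norm_num)
    intro z hz hlt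
    rcases hf z hz with e | e | e
    · rw [h1 z hz e]; norm_num
    · rw [e] at hlt; exact absurd hlt (lt_irrefl _)
    · have := key z hz
      rw [e] at this
      exact le_antisymm (md z hz).2 (by linarith)
  · right; right; right
    refine ⟨rfl, rfl, ?_⟩
    rw [sg_one] at h1 h2
    have key := pre_le hS (u := fun z => c z + d z + 1) ((hc.add hd).add continuousOn_const)
      (fun z hz => by
      rcases hf z hz with e | e | e
      · right; rw [h1 z hz e]; linarith [(mc z hz).1]
      · rcases hg z hz with e' | e' | e'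
        · right; rw [h2 z hz e']; linarith [(md z hz).1]
        · left; rw [e, e']; norm_num
        · right; rw [e, e']; norm_num
      · right; rw [e]; linarith [(md z hz).1]) ho (by rw [hco, hdo]; norm_num)
    intro z hz
    have := key z hz
    have h3 := (mc z hz).1
    have h4 := (md z hz).1
    constructor <;> linarith

end laminar

end Crest.Agent.R096.Bd_416
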