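import Crest.Agent.R096.Bsp7_628
import Crest.Agent.R96.Push4_899
import Crest.Agent.R96.En10_199

/-!
Row 96 (S0127), helper627.  BOXES, part 1: homothetic boxes in a brick, the two-stage push on their
boundary, norms in `R3` and `Fin 3 → ℝ`, the centres of a brick foam as holes of TOPH.
-/

set_option autoImplicit false
set_option linter.unusedSectionVars false
set_option linter.style.longLine false

open Set Filter Topology Metric

namespace Crest.Agent.R096.Bxs_627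

open Crest.Agent.R096.Bsp_628 Crest.Agent.R96.Push_899

noncomputable section

/-! ### homothetic boxes -/

section Hom

variable {ι : Type*} [Fintype ι] [Nonempty ι] [DecidableEq ι]

/-- the box `z + lam • Q` -/
def hb (Q : Box ι) (lam : ℝ) (hl : 0 ≤ lam) (z : ι → ℝ) : Box ι :=
  ⟨fun k => z k + lam * Q.lo k, fun k => z k + lam * Q.hi k, fun k => by
    have := mul_le_mul_of_nonneg_left (Q.le k) hl
    linarith⟩

omit [Fintype ι] [Nonempty ι] [DecidableEq ι] in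
@[simp] lemma hb_W (Q : Box ι) {lam : ℝ} (hl : 0 ≤ lam) (z : ι → ℝ) (i : ι) :
    (hb Q lam hl z).W i = lam * Q.W i := by
  simp only [Box.W, hb]; ring

/-- **`ray`**: on the boundary of the homothetic core box the two-stage push is the homothety. -/
theorem psi_ray {Q B : Box ι} {lam : ℝ} (hl : 0 < lam) {z : ι → ℝ}
    (hN : Nest (hb Q lam hl.le z) Q) (hI : Inner (hb Q lam hl.le z) B) {y : ι → ℝ}
    (hy : y ∈ (hb Q lam hl.le z).S)
    (hb' : ∃ k, y k = z k + lam * Q.lo k ∨ y k = z k + lam * Q.hi k) :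
    psi Q (hb Q lam hl.le z) B y = fun k => (y k - z k) / lam := by
  have hyI : y ∉ (hb Q lam hl.le z).I := by
    intro h
    obtain ⟨k, hk | hk⟩ := hb'
    · have h1 := (h k).1
      have h2 : (hb Q lam hl.le z).lo k = z k + lam * Q.lo k := rfl
      rw [h2, hk] at h1
      exact lt_irrefl _ h1
    · have h1 := (h k).2
      have h2 : (hb Q lam hl.le z).hi k = z k + lam * Q.hi k := rfl
      rw [h2, hk] at h1
      exact lt_irrefl _ h1
  have e1 : psh (hb Q lam hl.le z) B y = y :=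
    psh_eq_self hI.nest (tt_eq_one hI.nest hy hyI)
  have e2 : tt Q (hb Q lam hl.le z) y = 0 := le_antisymm ((tt_le_zero_iff hN y).2 hy)
    (not_lt.1 (mt (tt_lt_zero_iff hN y).1 hyI))
  rw [psi_in hy, e1]
  funext k
  unfold psh
  have hW : 0 < Q.W k := hN.Wpos k
  rw [e2, ww_eq, zero_mul, add_zero, hb_W, cl_zero]
  have h2 : (hb Q lam hl.le z).lo k = z k + lam * Q.lo k := rfl
  rw [h2]
  field_simp
  ring

end Hom

/-! ### norms -/

section Norms

open Crest.AnalysisR.VecCalc3 Crest.Agent.R96.En10_199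

lemma norm_P3_symm_le (u : R3) : ‖P3.symm u‖ ≤ ‖u‖ := by
  rw [pi_norm_le_iff_of_nonneg (norm_nonneg _)]
  intro i
  exact PiLp.norm_apply_le (p := 2) u i

lemma norm_P3_le (u : Fin 3 → ℝ) : ‖P3 u‖ ≤ 2 * ‖u‖ := by
  rw [EuclideanSpace.norm_eq]
  have h1 : ∑ i : Fin 3, ‖(P3 u) i‖ ^ 2 ≤ (2 * ‖u‖) ^ 2 := by
    calc ∑ i : Fin 3, ‖(P3 u) i‖ ^ 2 ≤ ∑ _i : Fin 3, ‖u‖ ^ 2 := by
          apply Finset.sum_le_sum
          intro i _
          rw [P3_apply]
          exact pow_le_pow_left₀ (norm_nonneg _) (norm_le_pi_norm u i) 2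
      _ = 3 * ‖u‖ ^ 2 := by simp
      _ ≤ (2 * ‖u‖) ^ 2 := by nlinarith [sq_nonneg ‖u‖]
  calc Real.sqrt (∑ i : Fin 3, ‖(P3 u) i‖ ^ 2) ≤ Real.sqrt ((2 * ‖u‖) ^ 2) := Real.sqrt_le_sqrt h1
    _ = 2 * ‖u‖ := Real.sqrt_sq (by positivity)

/-- transport of a map -/
def m3 (f : R3 → R3) (x : Fin 3 → ℝ) : Fin 3 → ℝ := P3.symm (f (P3 x))

/-- transport of an affine equivalence -/
def a3 (A : R3 ≃ᵃ[ℝ] R3) : (Fin 3 → ℝ) ≃ᵃ[ℝ] (Fin 3 → ℝ) :=
  (P3.toLinearEquiv.toAffineEquiv.trans A).trans P3.symm.toLinearEquiv.toAffineEquiv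

@[simp] lemma a3_apply (A : R3 ≃ᵃ[ℝ] R3) (x : Fin 3 → ℝ) : a3 A x = P3.symm (A (P3 x)) := rfl

/-- transport of the core clause of TOPH from Euclidean balls to cubes. -/
theorem core_transport {Om : Set R3} {f : R3 → R3} {A : R3 ≃ᵃ[ℝ] R3} {p : Fin 3 → ℝ} {r κ : ℝ}
    (h : ∀ x : R3, (x ∈ Om ∧ ‖f x - P3 p‖ ≤ r) ∨ ‖A x - P3 p‖ ≤ r → x ∈ Om ∧ ‖f x - A x‖ ≤ κ) :
    ∀ x : Fin 3 → ℝ, (x ∈ P3 ⁻¹' Om ∧ ‖m3 f x - p‖ ≤ r / 2) ∨ ‖a3 A x - p‖ ≤ r / 2 →
      x ∈ P3 ⁻¹' Om ∧ ‖m3 f x - a3 A x‖ ≤ κ := by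
  intro x hx
  have key : ∀ u : R3, ‖P3.symm u - p‖ ≤ r / 2 → ‖u - P3 p‖ ≤ r := by
    intro u hu
    have h1 := norm_P3_le (P3.symm u - p)
    rw [map_sub, ContinuousLinearEquiv.apply_symm_apply] at h1
    linarith
  have h2 := h (P3 x) (hx.imp (fun h3 => ⟨h3.1, key _ h3.2⟩) (fun h3 => key _ h3))
  refine ⟨h2.1, ?_⟩
  have h3 := norm_P3_symm_le (f (P3 x) - A (P3 x))
  rw [map_sub] at h3
  exact h3.trans h2.2

end Norms

/-! ### the centres of the bricks -/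

section Foam

variable {κ : Type*} [Fintype κ] [Nonempty κ]

/-- the centre of a brick -/
def ctr (Q : Bx κ) : κ → ℝ := fun k => (Q.lo k + Q.hi k) / 2

lemma ctr_mem {Q : Bx κ} (h : Q.Pos) : ctr Q ∈ Q.set := by
  rw [Bx.mem_set]
  intro i
  have := h i
  simp only [ctr]
  constructor <;> linarith

lemma ctr_lo (Q : Bx κ) (k : κ) : ctr Q k - Q.side k / 2 = Q.lo k := by
  simp only [ctr, Bx.side]; ring

lemma ctr_hi (Q : Bx κ) (k : κ) : ctr Q k + Q.side k / 2 = Q.hi k := by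
  simp only [ctr, Bx.side]; ring

/-- the centres of different bricks are far away from each other -/
theorem ctr_dist {La : Set (κ → ℝ)} {F : Set (Bx κ)} {δ κ0 : ℝ} (BF : BoxFoam La F δ κ0)
    (hκ : 0 < κ0) {c c' : Bx κ} (hc : c ∈ F) (hc' : c' ∈ F) (hne : c ≠ c') :
    (c.sz + c'.sz) / (2 * κ0) ≤ ‖ctr c - ctr c'‖ := by
  obtain ⟨k, hk⟩ := BF.inv.disj hc hc' (BF.pos c hc) (BF.pos c' hc') hne
  have h1 := norm_le_pi_norm (ctr c - ctr c') k
  rw [Pi.sub_apply, Real.norm_eq_abs] at h1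
  have h2 := BF.asp c hc k
  have h3 := BF.asp c' hc' k
  have h4 := ctr_lo c k
  have h5 := ctr_hi c k
  have h6 := ctr_lo c' k
  have h7 := ctr_hi c' k
  have h8 : (c.side k + c'.side k) / 2 ≤ |ctr c k - ctr c' k| := by
    rcases hk with hk | hk
    · rw [abs_sub_comm]
      exact le_trans (by linarith) (le_abs_self _)
    · exact le_trans (by linarith) (le_abs_self _)
  have h9 : (c.sz + c'.sz) / (2 * κ0) ≤ (c.side k + c'.side k) / 2 := by
    rw [div_le_div_iff₀ (by positivity) (by norm_num)]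
    nlinarith
  linarith

end Foam

section Foam3

open Crest.AnalysisR.VecCalc3 Crest.Agent.R96.En10_199

variable {La : Set (Fin 3 → ℝ)} {F : Set (Bx (Fin 3))} {δ κ0 : ℝ}

/-- radius of the hole of a brick -/
def rad (κ0 : ℝ) (Q : Bx (Fin 3)) : ℝ := Q.sz / (8 * κ0)

/-- the holes of TOPH: disjointness -/
theorem holes_disj (BF : BoxFoam La F δ κ0) (hκ : 0 < κ0) (c c' : F) (hne : c ≠ c') :
    2 * rad κ0 c.1 + 2 * rad κ0 c'.1 < ‖P3 (ctr c.1) - P3 (ctr c'.1)‖ := by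
  have h1 := ctr_dist BF hκ c.2 c'.2 (fun h => hne (Subtype.ext h))
  have h2 := norm_P3_symm_le (P3 (ctr c.1) - P3 (ctr c'.1))
  rw [map_sub, ContinuousLinearEquiv.symm_apply_apply, ContinuousLinearEquiv.symm_apply_apply] at h2
  have h3 := Bx.sz_pos (BF.pos _ c.2)
  have h4 := Bx.sz_pos (BF.pos _ c'.2)
  have h5 : 2 * rad κ0 c.1 + 2 * rad κ0 c'.1 = (c.1.sz + c'.1.sz) / (2 * κ0) / 2 := by
    unfold rad; field_simp; ring
  have h6 : 0 < (c.1.sz + c'.1.sz) / (2 * κ0) := by positivity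
  linarith

/-- the holes of TOPH: local finiteness -/
theorem holes_fin (BF : BoxFoam La F δ κ0) (hκ : 1 ≤ κ0) {q : R3} (hq : q ∈ P3.symm ⁻¹' La) :
    ∃ r : ℝ, 0 < r ∧ {c : F | (closedBall (P3 (ctr c.1)) (2 * rad κ0 c.1) ∩ ball q r).Nonempty}.Finite := by
  obtain ⟨r, hr, hf⟩ := BF.lf (P3.symm q) hq
  refine ⟨r, hr, ?_⟩
  refine Set.Finite.of_finite_image (f := Subtype.val) (hf.subset ?_) Subtype.val_injective.injOn
  rintro _ ⟨c, ⟨y, hy, hyq⟩, rfl⟩
  refine ⟨c.2, P3.symm y, ?_, ?_⟩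
  · rw [mem_closedBall, dist_eq_norm] at hy
    have h2 := norm_P3_symm_le (y - P3 (ctr c.1))
    rw [map_sub, ContinuousLinearEquiv.symm_apply_apply] at h2
    rw [Bx.mem_set]
    intro k
    have h3 := norm_le_pi_norm (P3.symm y - ctr c.1) k
    rw [Pi.sub_apply, Real.norm_eq_abs] at h3
    have h4 := BF.asp _ c.2 k
    have h5 : 2 * rad κ0 c.1 ≤ c.1.side k / 2 := by
      unfold rad
      rw [show 2 * (c.1.sz / (8 * κ0)) = c.1.sz / (4 * κ0) by field_simp; ring,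
        div_le_div_iff₀ (by positivity) (by norm_num)]
      have := Bx.sz_pos (BF.pos _ c.2)
      nlinarith
    have h6 := abs_le.1 (h3.trans (h2.trans (hy.trans h5)))
    have h7 := ctr_lo c.1 k
    have h8 := ctr_hi c.1 k
    constructor <;> linarith [h6.1, h6.2]
  · rw [mem_ball, dist_eq_norm] at hyq ⊢
    have h2 := norm_P3_symm_le (y - q)
    rw [map_sub] at h2
    linarith

end Foam3

end

end Crest.Agent.R096.Bxs_627
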