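import Crest.Agent.R096.Fbr4_628
import Crest.Agent.R096.Bxs1_627

/-!
Row 96 (S0127), helper313 (for R3, `p ≤ 2`).  **The unit `w` of 628's `BD` is dyadic**: `w = u 2^(-k)`
with the unit `u` of the foam (`Dy o u M`), so all exact cores can have one common unit.
-/

set_option autoImplicit false
set_option linter.unusedSectionVars false
set_option linter.style.longLine false

open Set

namespace Crest.Agent.R096.Bdy_313

open Crest.Agent.R096.Brk1_582 Crest.Agent.R096.Brk2_582 Crest.Agent.R096.Brk3_582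
  Crest.Agent.R096.Brk5_582 Crest.Agent.R096.Bsp_628 Crest.Agent.R096.Fbr_628
  Crest.Agent.R096.Grd_714 Crest.Agent.R096.Fni_447

variable {La : Set (Fin 3 → ℝ)} {F : Set (Bx (Fin 3))} {δ κ0 : ℝ}

/-- **FAN-INT, directions**, dyadic unit `w = u 2^(-k)` -/
theorem dir_int_dy (BF : BoxFoam La F δ κ0) (hLa : IsOpen La) {R : ℝ} (hR : 1 ≤ R)
    (hcmp : Cmp F R) {o : Fin 3 → ℝ} {u M : ℝ} (hu : 0 < u) (hM : 0 < M)
    (hdy : ∀ C ∈ F, Dy o u M C) (c : F) :
    ∃ k : ℤ, ∃ w > 0, w = u * (2 : ℝ) ^ (-k) ∧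
      (∃ z : Fin 3 → ℤ, ∀ i, bc (F := F) {c} i = o i + z i * w) ∧
      c.1.sz ≤ 2 * R * M * w ∧
      ∀ f : Flg (Pc F) c, ∃ D : Matrix (Fin 3) (Fin 3) ℤ, D.det ≠ 0 ∧
        (∀ i j, |(D i j : ℝ)| ≤ 2 * R * M) ∧ ∀ i j, dir (bc (F := F)) f j i = w * D i j := by
  classical
  obtain ⟨k, z, hs, hz, hst⟩ := Dy.star BF hR hcmp hu hM hdy c
  set W : ℝ := u * (2 : ℝ) ^ (-k) with hW
  have hW0 : 0 < W := by positivity
  have hg : ∀ c' : F, (Pc F c ∩ Pc F c').Nonempty → ∀ i, ∃ m n : ℤ,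
      c'.1.lo i = o i + ((z i : ℝ) + m) * W ∧ c'.1.hi i = o i + ((z i : ℝ) + n) * W := by
    intro c' hc' i
    obtain ⟨m, n, _, _, h1, h2⟩ := hst c' hc' i
    exact ⟨m, n, h1, h2⟩
  have hcc : (fc (Pc F) ({c} : Set F)).Nonempty :=
    ⟨c.1.lo, by
      rw [mem_fc]
      rintro x rfl
      exact Bx.mem_set.2 fun i => ⟨le_rfl, (BF.pos _ x.2 i).le⟩⟩
  have hW2 : W / 2 = u * (2 : ℝ) ^ (-(k + 1)) := by
    rw [hW, neg_add, zpow_add₀ (by norm_num : (2 : ℝ) ≠ 0)]
    norm_num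
    ring
  refine ⟨k + 1, W / 2, by positivity, hW2, ?_, ?_, ?_⟩
  · choose n hn using fun i => (bc_int BF hg (mem_singleton c) hcc i).1
    refine ⟨fun i => 2 * z i + n i, fun i => ?_⟩
    rw [hn i]
    push_cast
    ring
  · have : 2 * R * M * (W / 2) = R * M * W := by ring
    rw [this]
    exact hs
  · intro f
    have hd : ∀ j i, ∃ d : ℤ, dir (bc (F := F)) f j i = (W / 2) * d ∧
        |dir (bc (F := F)) f j i| ≤ c.1.sz / 2 := by
      intro j i
      obtain ⟨⟨n0, hn0⟩, -⟩ := bc_int BF hg (mem_singleton c) hcc i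
      have key : ∀ A : Set F, c ∈ A → (fc (Pc F) A).Nonempty →
          ∃ d : ℤ, bc A i - bc {c} i = (W / 2) * d ∧ |bc A i - bc {c} i| ≤ c.1.sz / 2 := by
        intro A hcA hA
        obtain ⟨⟨n, hn⟩, h2⟩ := bc_int BF hg hcA hA i
        refine ⟨n - n0, ?_, h2⟩
        rw [hn, hn0]
        push_cast
        ring
      fin_cases j
      · exact key {c, f.a1} (by simp) f.ne1
      · exact key {c, f.a1, f.a2} (by simp) f.ne2
      · exact key {c, f.a1, f.a2, f.a3} (by simp) f.ne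
    choose d hd1 hd2 using hd
    refine ⟨Matrix.of fun i j => d j i, ?_, ?_, ?_⟩
    · intro hdet
      have hFo := foam BF hLa
      have hli := li hFo f
      have h1 : LinearIndependent ℝ (fun j => (W / 2) • fun i => (d j i : ℝ)) := by
        have : (fun j => (W / 2) • fun i => (d j i : ℝ)) = dir (bc (F := F)) f := by
          funext j i
          simp only [Pi.smul_apply, smul_eq_mul]
          exact (hd1 j i).symm
        rw [this]
        exact hli
      have h2 : LinearIndependent ℝ (fun j => fun i => (d j i : ℝ)) := by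
        have h3 := h1.units_smul (fun _ => (Units.mk0 (W / 2) (by positivity))⁻¹)
        convert h3 using 1
        funext j i
        simp only [Pi.smul_apply', Pi.smul_apply, Units.smul_def, Units.val_inv_eq_inv_val,
          Units.val_mk0, smul_eq_mul]
        field_simp
      have h3 : IsUnit (Matrix.of fun j i => (d j i : ℝ)) :=
        Matrix.linearIndependent_rows_iff_isUnit.1 h2
      have h4 : (Matrix.of fun j i => (d j i : ℝ)).det ≠ 0 := by
        have := (Matrix.isUnit_iff_isUnit_det _).1 h3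
        exact this.ne_zero
      apply h4
      have h5 : (Matrix.of fun j i => (d j i : ℝ)) =
          ((Matrix.of fun i j => d j i).map (Int.castRingHom ℝ)).transpose := by
        ext j i
        simp
      rw [h5, Matrix.det_transpose]
      have h6 := (Int.castRingHom ℝ).map_det (Matrix.of fun i j => d j i)
      rw [hdet] at h6
      simpa using h6.symm
    · intro i j
      have h1 := hd2 j i
      rw [hd1 j i, abs_mul, abs_of_pos (by positivity : 0 < W / 2)] at h1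
      have h2 : W / 2 * |((d j i : ℤ) : ℝ)| ≤ W / 2 * (2 * R * M) := by
        refine h1.trans ?_
        have h3 : 0 ≤ R * M * W := by positivity
        nlinarith
      exact le_of_mul_le_mul_left h2 (by positivity)
    · intro i j
      exact hd1 j i


/-- **628's `exists_BD` with a dyadic unit.** -/
theorem exists_BD_dy (BF : BoxFoam La F δ κ0) (hLa : IsOpen La) {R : ℝ} (hR : 1 ≤ R)
    (hcmp : Cmp F R) {o : Fin 3 → ℝ} {u Md : ℝ} (hu : 0 < u) (hMd : 0 < Md)
    (hdy : ∀ C ∈ F, Dy o u Md C) {N : ℕ} (FF : Foam La (Pc F) (bc (F := F)) N) (hN : N ≤ 4)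
    (h3 : Module.finrank ℝ (Fin 3 → ℝ) = 3) (c : F) :
    ∃ D : BD FF h3 c o (2 * R * Md), (∃ k : ℤ, D.w = u * (2 : ℝ) ^ (-k)) ∧
      c.1.sz ≤ 2 * R * Md * D.w ∧ ∀ l, 2 * D.w ≤ c.1.side l := by
  obtain ⟨k, w, hw, hwk, ⟨z, hz⟩, hsz, hf⟩ := dir_int_dy BF hLa hR hcmp hu hMd hdy c
  have hf' : ∀ f : Flg (Pc F) c, ∃ D : Matrix (Fin 3) (Fin 3) ℤ, D.det ≠ 0 ∧
        (∀ i j, |(D i j : ℝ)| ≤ 2 * R * Md) ∧ (∀ i j, dir (bc (F := F)) f j i = w * D i j) ∧
        ∃ s > 0, ∃ ν : Fin 3 → Fin 3 → ℤ,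
          (∀ k i, |(ν k i : ℝ)| ≤ 2 * (2 * R * Md) ^ 2) ∧
          (∀ k x, s * cf FF h3 f k x = ∑ i, (ν k i : ℝ) * x i) := by
    intro f
    obtain ⟨D, h0, hB, hD⟩ := hf f
    obtain ⟨hpos, ν, hν, hcf⟩ := cf_int_of FF h3 f hw h0 hB hD
    exact ⟨D, h0, hB, hD, _, hpos, ν, hν, hcf⟩
  choose D hD0 hDB hD s hs0 ν hν hrep using hf'
  have hh : ∀ l, ∃ h : ℤ, hs c l = h * w := by
    intro l
    obtain ⟨f, -, hfl⟩ := exists_fct_flag FF h3 hN BF hLa (c := c) (l := l)
      (u := hs c l • (Pi.single l 1 : Fin 3 → ℝ)) (ε := 1) (by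
        intro j
        rw [Pi.smul_apply, smul_eq_mul]
        by_cases hj : j = l
        · subst hj
          rw [Pi.single_eq_same, mul_one, abs_of_pos (hs_pos BF c j)]
        · rw [Pi.single_eq_of_ne hj, mul_zero, abs_zero]
          exact (hs_pos BF c j).le) (Or.inl rfl) (by simp)
    refine ⟨D f l 0, ?_⟩
    have h1 := dir_coord FF hfl 0
    rw [hD, one_mul] at h1
    rw [← h1]; ring
  choose h hh using hh
  have hh0 : ∀ l, 0 < h l := by
    intro l
    have h1 := hs_pos BF c l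
    rw [hh l] at h1
    have : (0 : ℝ) < h l := pos_of_mul_pos_left h1 hw.le
    exact_mod_cast this
  refine ⟨⟨w, hw, z, hz, h, hh0, hh, fun f j l => ?_, s, hs0, ν, hrep, hν⟩, ⟨k, hwk⟩, hsz, ?_⟩
  · rw [hD, abs_mul, abs_of_pos hw, mul_comm]
    exact mul_le_mul_of_nonneg_right (hDB f l j) hw.le
  · intro l
    have e1 : hs c l = c.1.side l / 2 := rfl
    have e2 := hh l
    have e3 : (1 : ℝ) ≤ h l := by exact_mod_cast hh0 l
    rw [e1] at e2
    show 2 * w ≤ c.1.side l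
    nlinarith

end Crest.Agent.R096.Bdy_313
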