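import Crest.Agent.R096.Bin8_181
import Crest.Agent.R096.Arc7_778

/-!
# R096 (row 96), GEO-BASE, part 1 (helper416): coordinate segments of the grid are PL arcs; the zero
sets of the sheets of `E_κ` in level coordinates
-/

set_option autoImplicit false
set_option linter.unusedSectionVars false

open Set Metric

namespace Crest.Agent.R096.Be_416

open Crest.Agent.R096.Ce_537 Crest.Agent.R096.Bd_416 Crest.Agent.R096.Xp_537
open Crest.Agent.R096.Brk1_582 Crest.Agent.R096.Brk2_582 Crest.Agent.R096.Brk6_582
open Crest.Agent.R096.Grd_714 Crest.Agent.R096.Bin_181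

variable {E : Type*} [NormedAddCommGroup E] [NormedSpace ℝ E] {I : Type*}
variable {b : Set I → E} {P : I → Set E} {m : I → ℕ}

section foam

variable {La : Set E} [CompleteSpace E] [FiniteDimensional ℝ E] (F : Foam La P b 4) (hQ : Quads P b)
  (hne : ∀ c, (P c).Nonempty) (hm : ∀ c, 0 < m c)

/-- the affine chart of an interval -/
noncomputable def aff (s t : ℝ) (x : Fin 1 → ℝ) : ℝ := s + (x 0 + 1) / 2 * (t - s)

lemma aff_mem {s t : ℝ} (h : s ≤ t) {x : Fin 1 → ℝ} (hx : x ∈ cube 1) : aff s t x ∈ Icc s t := by
  have h1 : |x 0| ≤ 1 := by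
    have h2 : ‖x‖ ≤ 1 := by simpa [cube] using hx
    exact (norm_le_pi_norm x 0).trans h2
  obtain ⟨h2, h3⟩ := abs_le.1 h1
  unfold aff
  constructor <;> nlinarith

lemma aff_image {s t : ℝ} (h : s < t) : aff s t '' cube 1 = Icc s t := by
  apply Subset.antisymm
  · rintro _ ⟨x, hx, rfl⟩; exact aff_mem h.le hx
  · intro y hy
    have hts : 0 < t - s := by linarith
    refine ⟨fun _ => 2 * (y - s) / (t - s) - 1, ?_, ?_⟩
    · show (fun _ => 2 * (y - s) / (t - s) - 1 : Fin 1 → ℝ) ∈ closedBall 0 1
      rw [mem_closedBall_zero_iff, pi_norm_le_iff_of_nonneg zero_le_one]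
      intro _
      rw [Real.norm_eq_abs, abs_le]
      have h1 : 0 ≤ 2 * (y - s) / (t - s) := div_nonneg (by linarith [hy.1]) hts.le
      have h2 : 2 * (y - s) / (t - s) ≤ 2 := by rw [div_le_iff₀ hts]; linarith [hy.2]
      constructor <;> linarith
    · unfold aff; field_simp; ring

lemma aff_sph {s t : ℝ} : aff s t '' sph 1 = {s, t} := by
  ext y
  simp only [mem_image, mem_insert_iff, mem_singleton_iff]
  constructor
  · rintro ⟨x, hx, rfl⟩
    rcases (abs_eq zero_le_one).1 (mem_sph1.1 hx) with h | h
    · right; unfold aff; rw [h]; ring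
    · left; unfold aff; rw [h]; ring
  · rintro (rfl | rfl)
    · exact ⟨fun _ => -1, mem_sph1.2 (by simp), by unfold aff; ring⟩
    · exact ⟨fun _ => 1, mem_sph1.2 (by simp), by unfold aff; ring⟩

lemma aff_inj {s t : ℝ} (h : s < t) {x x' : Fin 1 → ℝ} (e : aff s t x = aff s t x') : x = x' := by
  funext k
  rw [Subsingleton.elim k 0]
  unfold aff at e
  have h1 : t - s ≠ 0 := by linarith [sub_pos.2 h]
  have h2 : (x 0 + 1) / 2 * (t - s) = (x' 0 + 1) / 2 * (t - s) := by linarith
  have h3 := mul_right_cancel₀ h1 h2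
  linarith

lemma pl_aff (s t : ℝ) (Z : Set (Fin 1 → ℝ)) : PLOn (aff s t) Z := by
  refine (pl_add_const (pl_mul ((t - s) / 2) (pl_add_const (pl_apply (plOn_id Z) 0) 1)) s).congr
    fun x _ => ?_
  unfold aff; ring

open Classical in
include F hQ hm in
/-- **coordinate segments are arcs** -/
theorem seg_ball {g : I → ℝ} {a c0 : I} (hc : c0 ≠ a) (h0 : g c0 = 0) {s t : ℝ} (hst : s < t)
    (hG : ∀ x ∈ Icc s t, Function.update g a x ∈ G2 P m) :
    IsBall 1 ((fun x => Tq b m (Function.update g a x)) '' Icc s t)
      {Tq b m (Function.update g a s), Tq b m (Function.update g a t)} := by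
  set φ : (Fin 1 → ℝ) → E := fun x => Tq b m (Function.update g a (aff s t x)) with hφ
  have hinj : InjOn φ (cube 1) := by
    intro x hx x' hx' e
    have h1 := Tq_injOn F hQ hm (hG _ (aff_mem hst.le hx)) (hG _ (aff_mem hst.le hx')) e
    have h2 := congrFun h1 a
    rw [Function.update_self, Function.update_self] at h2
    exact aff_inj hst h2
  have hpl : PLOn φ (cube 1) := by
    have hfin := finite_Gx_of_mem F hm (finite_singleton c0)
    have hcov : cube 1 = ⋃ q ∈ {q : Gx P m | ∃ c ∈ ({c0} : Set I), q.hi c = 0},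
        {x | x ∈ cube 1 ∧ Function.update g a (aff s t x) ∈ q.bx} := by
      ext x
      simp only [mem_iUnion]
      constructor
      · intro hx
        have h1 := hG _ (aff_mem hst.le hx)
        refine ⟨flb hm _ h1, ⟨c0, rfl, ?_⟩, hx, mem_flb hm h1⟩
        show ⌈Function.update g a (aff s t x) c0⌉₊ = 0
        rw [Function.update_of_ne hc, h0, Nat.ceil_zero]
      · rintro ⟨q, -, hx, -⟩; exact hx
    rw [hcov]
    have haff : Continuous (aff s t) := by unfold aff; fun_prop
    refine plOn_biUnion _ hfin (fun q _ => ?_) fun q _ => ?_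
    · refine plOn_Tq F hQ hm q (fun x hx => hx.2) fun c _ => ?_
      by_cases hca : c = a
      · subst hca
        simp only [Function.update_self]
        exact pl_aff s t _
      · simp only [Function.update_of_ne hca]
        exact plOn_const _ _
    · have h1 : {x | x ∈ cube 1 ∧ Function.update g a (aff s t x) ∈ q.bx} =
          cube 1 ∩ ⋂ c : I, {x | (q.lo c : ℝ) ≤ Function.update g a (aff s t x) c ∧
            Function.update g a (aff s t x) c ≤ q.hi c} := by
        ext x
        simp only [mem_inter_iff, mem_iInter]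
        exact Iff.rfl
      rw [h1]
      refine IsClosed.inter isClosed_closedBall (isClosed_iInter fun c => ?_)
      have h2 : Continuous fun x => Function.update g a (aff s t x) c := by
        by_cases hca : c = a
        · subst hca; simpa using haff
        · simp only [Function.update_of_ne hca]; exact continuous_const
      exact (isClosed_le continuous_const h2).inter (isClosed_le h2 continuous_const)
  have h1 := Cx_609.isBall_of_injOn hpl hinj
  have e1 : φ '' cube 1 = (fun x => Tq b m (Function.update g a x)) '' Icc s t := by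
    rw [← aff_image hst, image_image]
  have e2 : φ '' sph 1 = {Tq b m (Function.update g a s), Tq b m (Function.update g a t)} := by
    have : φ '' sph 1 = (fun x => Tq b m (Function.update g a x)) '' (aff s t '' sph 1) := by
      rw [image_image]
    rw [this, aff_sph, image_pair]
  rw [e1, e2] at h1
  exact h1

/-! ### the sign of a sheet -/

variable {κ : ℝ} (hκ : 0 < κ ∧ κ < 1) (c : Cel P m)

include hκ in
/-- **the sign of a sheet of `E_κ` in level coordinates** -/
theorem sign_st {q : Gx P m} {y : E} (hy : y ∈ (grid F hQ hne hm).cell (.gr q)) (a : I) (k : ℕ) :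
    SignType.sign (co P b m (st (grid F hQ hne hm) κ y) a - k - 1/2) =
      SignType.sign (co P b m y a - k - 1/2) := by
  set t := co P b m (st (grid F hQ hne hm) κ y) a with ht
  by_cases hB : y ∈ (ek (grid F hQ hne hm) b κ (.gr q)).B a
  · obtain ⟨-, ⟨k1, k2⟩, k3⟩ := clampA F hQ hne hm hκ (.gr q) hy hB
    rw [← ht] at k1 k2 k3
    rw [k3]
    have hk : 0 < 1 - κ := by linarith [hκ.2]
    rcases lt_trichotomy (q.lo a) k with h | h | h
    · have h1 : (q.lo a : ℝ) + 1 ≤ k := by exact_mod_cast h
      have e1 : t - k - 1/2 < 0 := by linarith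
      have e2 : (1 - κ) * t + κ * (q.lo a + 1/2) - k - 1/2 < 0 := by
        have := hκ.1
        nlinarith
      rw [sign_neg e1, sign_neg e2]
    · have e1 : (1 - κ) * t + κ * (q.lo a + 1/2) - k - 1/2 = (1 - κ) * (t - k - 1/2) := by
        rw [h]; ring
      rw [e1, sign_mul, sign_pos hk, one_mul]
    · have h1 : (k : ℝ) + 1 ≤ q.lo a := by exact_mod_cast h
      have e1 : 0 < t - k - 1/2 := by linarith
      have e2 : 0 < (1 - κ) * t + κ * (q.lo a + 1/2) - k - 1/2 := by
        have := hκ.1
        nlinarith
      rw [sign_pos e1, sign_pos e2]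
  · obtain ⟨i, -, -, k3, k4⟩ := clampB F hQ hne hm hκ (.gr q) hy hB
    rw [← ht] at k3
    rw [k3]
    obtain ⟨h1, h2⟩ := abs_lt.1 k4
    have := hκ.2
    rcases Nat.lt_or_ge k i with h | h
    · have h3 : (k : ℝ) + 1 ≤ i := by exact_mod_cast h
      rw [sign_pos (by linarith), sign_pos (by linarith)]
    · have h3 : (i : ℝ) ≤ k := by exact_mod_cast h
      rw [sign_neg (by linarith), sign_neg (by linarith)]

end foam

end Crest.Agent.R096.Be_416
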