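import Crest.Agent.R096.Be2_416

/-!
# R096 (row 96), BASE-ALL (helper416): the union of the bases of all exact cores
-/

set_option autoImplicit false
set_option linter.unusedSectionVars false

open Set Metric

namespace Crest.Agent.R096.Be_416

open Crest.Agent.R096.Ce_537 Crest.Agent.R096.Bd_416 Crest.Agent.R096.Arc_778

open scoped Classical

variable {V : Type*} [NormedAddCommGroup V] [NormedSpace ℝ V] {Q : Type} [PartialOrder Q]
  {dim : Q → ℕ} {J Fam : Type} {Cm : Cmb Q dim J Fam} {K : Q → Set V}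

section congr

variable {D : Set Q} {g g' : Gd V J} {P P' : ∀ q, Cm.I q → Set V} {c c' : ∀ q, Cm.I q → V → ℝ}

/-- `Inv` depends only on the values on the cells -/
theorem inv_congr (H : Inv Cm K D g P c) (hg : ∀ q ∈ D, ∀ z ∈ K q, EqAt g g' z)
    (hP : ∀ q ∈ D, P' q = P q) (hc : ∀ q ∈ D, c' q = c q) (hD : ∀ q ∈ D, ∀ p < q, p ∈ D) :
    Inv Cm K D g' P' c' where
  is q hq := (H.is q hq).congr (eqs_of_eqAt (hg q hq))
  PF q hq j z hz := by rw [(hg q hq z hz).G, H.PF q hq j z hz, hc q hq]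
  cl q hq x := by rw [hP q hq]; exact H.cl q hq x
  PK q hq x := by rw [hP q hq]; exact H.PK q hq x
  PB q hq x := by
    rw [hP q hq]
    intro z hz
    exact ((hg q hq z (H.PK q hq x hz)).B _).2 (H.PB q hq x hz)
  cov q hq j z hz hB := by
    rw [hP q hq]
    exact H.cov q hq j z hz (((hg q hq z hz).B j).1 hB)
  pc q hq x := by rw [hc q hq]; exact H.pc q hq x
  cm q hq x := by rw [hc q hq]; exact H.cm q hq x
  cn q hq x := by rw [hc q hq, hP q hq]; exact H.cn q hq x
  fd q hq := by rw [hP q hq]; exact H.fd q hq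
  sd q hq := by rw [hc q hq, hP q hq]; exact H.sd q hq
  r1 {p q} h hq x z hz := by
    rw [hP q hq, hP p (hD q hq p h)]; exact H.r1 h hq x z hz
  r2 {p q} h hq x z hz := by
    rw [hc q hq, hc p (hD q hq p h)]; exact H.r2 h hq x z hz

end congr

/-- the empty data -/
def dflt (V J : Type*) [NormedAddCommGroup V] [NormedSpace ℝ V] : Gd V J where
  G _ _ := 0
  B _ := ∅
  lev _ _ := 0
  tr _ p := p.1

section union

variable {Ic : Type*} (S : Ic → Set V) (D : Ic → Set Q) (g : Ic → Gd V J)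
  (P : Ic → ∀ q, Cm.I q → Set V) (c : Ic → ∀ q, Cm.I q → V → ℝ)

/-- the data used at a point -/
noncomputable def usel (z : V) : Gd V J :=
  if h : ∃ i, z ∈ S i then g h.choose else dflt V J

/-- the union of the data -/
noncomputable def ug : Gd V J where
  G a z := (usel S g z).G a z
  B a := {z | z ∈ (usel S g z).B a}
  lev a z := (usel S g z).lev a z
  tr a p := (usel S g p.1).tr a p

/-- the union of the bands -/
noncomputable def uP (q : Q) (x : Cm.I q) : Set V :=
  if h : ∃ i, q ∈ D i then P h.choose q x else ∅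

/-- the union of the functions -/
noncomputable def uc (q : Q) (x : Cm.I q) : V → ℝ :=
  if h : ∃ i, q ∈ D i then c h.choose q x else 0

variable {S D} (hS : ∀ i i', i ≠ i' → Disjoint (S i) (S i'))
include hS

lemma usel_eq {i : Ic} {z : V} (hz : z ∈ S i) : usel S g z = g i := by
  have h : ∃ i, z ∈ S i := ⟨i, hz⟩
  unfold usel
  rw [dif_pos h]
  congr 1
  by_contra hne
  exact Set.disjoint_left.1 (hS _ _ hne) h.choose_spec hz

lemma ug_eqAt {i : Ic} {z : V} (hz : z ∈ S i) : EqAt (g i) (ug S g) z := by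
  have h := usel_eq g hS hz
  refine ⟨fun a => ?_, fun a => ?_, fun a _ => ?_, fun a _ s _ => ?_⟩
  · show (usel S g z).G a z = _; rw [h]
  · show z ∈ (usel S g z).B a ↔ _; rw [h]
  · show (usel S g z).lev a z = _; rw [h]
  · show (usel S g z).tr a (z, s) = _; rw [h]

variable (hK : ∀ i, ∀ q ∈ D i, K q ⊆ S i) (hne : ∀ q, (K q).Nonempty)
include hK hne

lemma D_uniq {i i' : Ic} {q : Q} (h : q ∈ D i) (h' : q ∈ D i') : i = i' := by
  by_contra hn
  obtain ⟨z, hz⟩ := hne q
  exact Set.disjoint_left.1 (hS _ _ hn) (hK _ _ h hz) (hK _ _ h' hz)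

lemma uP_eq {i : Ic} {q : Q} (hq : q ∈ D i) : uP D P q = P i q := by
  funext x
  have h : ∃ i, q ∈ D i := ⟨i, hq⟩
  unfold uP
  rw [dif_pos h, D_uniq hS hK hne h.choose_spec hq]

lemma uc_eq {i : Ic} {q : Q} (hq : q ∈ D i) : uc D c q = c i q := by
  funext x
  have h : ∃ i, q ∈ D i := ⟨i, hq⟩
  unfold uc
  rw [dif_pos h, D_uniq hS hK hne h.choose_spec hq]

/-- **BASE-ALL**: `Inv` on the union -/
theorem inv_union (hD : ∀ i, ∀ q ∈ D i, ∀ p < q, p ∈ D i)
    (H : ∀ i, Inv Cm K (D i) (g i) (P i) (c i)) :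
    Inv Cm K (⋃ i, D i) (ug S g) (uP D P) (uc D c) := by
  have H' : ∀ i, Inv Cm K (D i) (ug S g) (uP D P) (uc D c) := fun i =>
    inv_congr (H i) (fun q hq z hz => ug_eqAt g hS (hK i q hq hz))
      (fun q hq => uP_eq P hS hK hne hq) (fun q hq => uc_eq c hS hK hne hq) (hD i)
  have m : ∀ {q : Q}, q ∈ ⋃ i, D i → ∃ i, q ∈ D i := fun h => mem_iUnion.1 h
  refine ⟨fun q hq => ?_, fun q hq => ?_, fun q hq => ?_, fun q hq => ?_, fun q hq => ?_,
    fun q hq => ?_, fun q hq => ?_, fun q hq => ?_, fun q hq => ?_, fun q hq => ?_,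
    fun q hq => ?_, fun {p q} h hq => ?_, fun {p q} h hq => ?_⟩ <;> obtain ⟨i, hi⟩ := m hq
  · exact (H' i).is q hi
  · exact (H' i).PF q hi
  · exact (H' i).cl q hi
  · exact (H' i).PK q hi
  · exact (H' i).PB q hi
  · exact (H' i).cov q hi
  · exact (H' i).pc q hi
  · exact (H' i).cm q hi
  · exact (H' i).cn q hi
  · exact (H' i).fd q hi
  · exact (H' i).sd q hi
  · exact (H' i).r1 h hi
  · exact (H' i).r2 h hi

/-- `GeoR` on the union -/
theorem geoR_union (H : ∀ i, GeoR Cm K (c i) (D i)) : GeoR Cm K (uc D c) (⋃ i, D i) where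
  edge q hq hd := by
    obtain ⟨i, hi⟩ := mem_iUnion.1 hq
    rw [uc_eq c hS hK hne hi]; exact (H i).edge q hi hd
  face q hq hd := by
    obtain ⟨i, hi⟩ := mem_iUnion.1 hq
    rw [uc_eq c hS hK hne hi]; exact (H i).face q hi hd
  cell q hq hd := by
    obtain ⟨i, hi⟩ := mem_iUnion.1 hq
    rw [uc_eq c hS hK hne hi]; exact (H i).cell q hi hd

omit hS hK hne in
lemma down_union (hD : ∀ i, ∀ q ∈ D i, ∀ p < q, p ∈ D i) :
    ∀ q ∈ ⋃ i, D i, ∀ p < q, p ∈ ⋃ i, D i := by
  intro q hq p hp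
  obtain ⟨i, hi⟩ := mem_iUnion.1 hq
  exact mem_iUnion.2 ⟨i, hD i q hi p hp⟩

end union

end Crest.Agent.R096.Be_416
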