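import Crest.Agent.R096.Chs1_879
import Crest.Agent.R96.Nu6_199

/-!
# R096 (row 96), P4-MESH (helper416): LB-BASE, part 1 (change of the frame by the diameter)

* `frame_diam` : for a convex compact `n`-cell `S` and affine maps `A`, `B` (`B` invertible),
  `dist (A y) (A z) ≤ diam (A '' S) * AAc n (B '' S) * dist (B y) (B z)` on `S`: chord through the
  centre of the chart.
* `LB_diam` : the same for `LB`.
* `base_num` : the numbers of the base in all frames from one frame in which the cells are small.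
-/

set_option autoImplicit false

open Set Metric Filter Topology

namespace Crest.Agent.R096.Be_416

open Crest.Agent.R096.Ce_537 Crest.Agent.R096.Bd_416 Crest.Agent.R096.Chs_879
open Crest.Agent.R96.Nu1_199 Crest.Agent.R96.Nu3_199 Crest.Agent.R96.Nu5_199
open Crest.Agent.R96.Nu6_199

set_option linter.unusedSectionVars false

variable {E : Type*} [NormedAddCommGroup E] [NormedSpace ℝ E] [FiniteDimensional ℝ E]
variable {F : Type*} [NormedAddCommGroup F] [NormedSpace ℝ F]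

/-- the inverse chart is globally Lipschitz in every frame -/
theorem chart_lip {n : ℕ} {S : Set E} (hconv : Convex ℝ S) {a : ℝ} (ha : 0 ≤ a)
    {g : E → (Fin n → ℝ)} (B : E ≃ᵃ[ℝ] E) (h : ∀ z ∈ S, MB B (fun x => x) a g S z) :
    ∀ y ∈ S, ∀ z ∈ S, dist (g y) (g z) ≤ a * dist (B y) (B z) := by
  have hBK : Convex ℝ (B '' S) := hconv.affine_image (B : E →ᵃ[ℝ] E)
  have h3 : ∀ u ∈ B '' S, ∀ᶠ v in 𝓝[B '' S] u,
      dist (g (B.symm v)) (g (B.symm u)) ≤ a * dist v u := by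
    rintro _ ⟨x, hx', rfl⟩
    rw [B.symm_apply_apply]
    have h4 : Tendsto B.symm (𝓝[B '' S] (B x)) (𝓝[S] x) := by
      refine tendsto_nhdsWithin_iff.2 ⟨?_, ?_⟩
      · have h5 := ((B.symm : E →ᵃ[ℝ] E).continuous_of_finiteDimensional.tendsto (B x)).mono_left
          (nhdsWithin_le_nhds (s := B '' S))
        have h6 : (B.symm : E →ᵃ[ℝ] E) (B x) = x := B.symm_apply_apply x
        rw [h6] at h5
        exact h5
      · filter_upwards [self_mem_nhdsWithin] with v hv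
        obtain ⟨y, hy, rfl⟩ := hv
        rw [B.symm_apply_apply]; exact hy
    filter_upwards [h4.eventually (h x hx')] with v hv
    have h7 : B (B.symm v) = v := B.apply_symm_apply v
    rw [h7] at hv
    exact hv
  intro y hy z hz
  have h8 := lip_of_local ha (f := fun v => g (B.symm v)) hBK h3 (B z)
    (mem_image_of_mem _ hz) (B y) (mem_image_of_mem _ hy)
  simp only [B.symm_apply_apply] at h8
  exact h8

lemma dist_map (A : E →ᵃ[ℝ] F) (p y z : E) {t : ℝ} (ht : 0 ≤ t) :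
    dist (A (p + t • (y - z))) (A p) = t * dist (A y) (A z) := by
  have h1 : A (p + t • (y - z)) - A p = t • (A y - A z) := by
    have e1 : A.linear (p + t • (y - z) - p) = A (p + t • (y - z)) - A p := A.linearMap_vsub _ _
    have e2 : A.linear (y - z) = A y - A z := A.linearMap_vsub _ _
    rw [← e1, ← e2, add_sub_cancel_left, map_smul]
  rw [dist_eq_norm, dist_eq_norm, h1, norm_smul, Real.norm_eq_abs, abs_of_nonneg ht]

/-- **CHANGE OF THE FRAME BY THE DIAMETER** -/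
theorem frame_diam {n : ℕ} {S : Set E} (h1 : Convex ℝ S) (h2 : IsCompact S) (h3 : S.Nonempty)
    (h4 : IsBall n S (S \ ri S)) (A : E →ᵃ[ℝ] F) (B : E ≃ᵃ[ℝ] E) {D : ℝ}
    (hD : ∀ y ∈ S, ∀ z ∈ S, dist (A y) (A z) ≤ D) :
    ∀ y ∈ S, ∀ z ∈ S, dist (A y) (A z) ≤ D * AAc n (B '' S) * dist (B y) (B z) := by
  intro y hy z hz
  rcases eq_or_ne y z with rfl | hne
  · simp
  obtain ⟨e, he, hB⟩ := AAc_spec h1 h2 h3 h4
  have ha := AAc_pos n (B '' S)
  set a := AAc n (B '' S)
  have hlip := chart_lip h1 ha.le B (hB B).2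
  have h0c : (0 : Fin n → ℝ) ∈ cube n := mem_closedBall_self zero_le_one
  set p := e.f 0 with hp
  have hpS : p ∈ S := e.mf h0c
  have hgp : e.g p = 0 := e.li 0 h0c
  have hpri : p ∈ ri S := by
    by_contra hcon
    have : p ∈ e.f '' sph n := by rw [he]; exact ⟨hpS, hcon⟩
    obtain ⟨v, hv, hvp⟩ := this
    have h5 : e.g (e.f v) = v := e.li v (sph_subset_cube hv)
    rw [hvp, hgp] at h5
    rw [← h5] at hv
    simp [sph] at hv
  obtain ⟨-, hri⟩ := hpri
  obtain ⟨t1, ht1, ht1S⟩ := hri z hz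
  have ht0 : 0 < t1 / (1 + t1) := by positivity
  have h0S : p + (t1 / (1 + t1)) • (y - z) ∈ S := by
    have h6 : (1 + t1) ≠ 0 := by positivity
    have h7 := h1 ht1S hy (a := 1 / (1 + t1)) (b := t1 / (1 + t1)) (by positivity) (by positivity)
      (by field_simp)
    convert h7 using 1
    have e1 : (1 / (1 + t1)) • (p + t1 • (p - z)) + (t1 / (1 + t1)) • y =
        (1 / (1 + t1) * (1 + t1)) • p + (t1 / (1 + t1)) • y - (1 / (1 + t1) * t1) • z := by
      simp only [smul_add, smul_sub, smul_smul, mul_add, add_smul, mul_one]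
      abel
    rw [e1, show (1 / (1 + t1) * (1 + t1)) = 1 by field_simp, one_smul,
      show (1 / (1 + t1) * t1) = t1 / (1 + t1) by ring, smul_sub]
    abel
  -- the last point of the ray
  obtain ⟨M, hM⟩ := h2.isBounded.subset_closedBall p
  have hd : 0 < ‖y - z‖ := norm_pos_iff.2 (sub_ne_zero.2 hne)
  have hcont : Continuous fun t : ℝ => p + t • (y - z) := by fun_prop
  have hTc : IsCompact (Icc (0:ℝ) (M / ‖y - z‖) ∩ (fun t : ℝ => p + t • (y - z)) ⁻¹' S) :=
    isCompact_Icc.inter_right (h2.isClosed.preimage hcont)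
  have hT : ∀ t : ℝ, 0 ≤ t → p + t • (y - z) ∈ S →
      t ∈ Icc (0:ℝ) (M / ‖y - z‖) ∩ (fun t : ℝ => p + t • (y - z)) ⁻¹' S := by
    intro t ht htS
    refine ⟨⟨ht, ?_⟩, htS⟩
    have h6 := hM htS
    rw [mem_closedBall, dist_eq_norm, add_sub_cancel_left, norm_smul, Real.norm_eq_abs,
      abs_of_nonneg ht] at h6
    rwa [le_div_iff₀ hd]
  obtain ⟨ts, hts, hmax⟩ := hTc.exists_isGreatest ⟨_, hT _ ht0.le h0S⟩
  have htsp : 0 < ts := lt_of_lt_of_le ht0 (hmax (hT _ ht0.le h0S))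
  have hqS : p + ts • (y - z) ∈ S := hts.2
  have hq : p + ts • (y - z) ∈ S \ ri S := by
    refine ⟨hqS, fun hcon => ?_⟩
    obtain ⟨s, hs, hsS⟩ := hcon.2 p hpS
    have e1 : p + ts • (y - z) + s • (p + ts • (y - z) - p) = p + (ts * (1 + s)) • (y - z) := by
      rw [add_sub_cancel_left, smul_smul, add_assoc, ← add_smul]
      congr 2; ring
    rw [e1] at hsS
    have h6 := hmax (hT _ (by positivity) hsS)
    nlinarith
  rw [← he] at hq
  obtain ⟨v, hv, hvq⟩ := hq
  have h5 : e.g (p + ts • (y - z)) = v := by rw [← hvq]; exact e.li v (sph_subset_cube hv)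
  have h6 := hlip _ hqS _ hpS
  rw [h5, hgp, dist_zero_right, show ‖v‖ = 1 by simpa [sph] using hv] at h6
  have h7 : dist (B (p + ts • (y - z))) (B p) = ts * dist (B y) (B z) :=
    dist_map (B : E →ᵃ[ℝ] E) p y z htsp.le
  have h8 : dist (A (p + ts • (y - z))) (A p) = ts * dist (A y) (A z) := dist_map A p y z htsp.le
  have h9 := hD _ hqS _ hpS
  rw [h8] at h9
  rw [h7] at h6
  have hD0 : 0 ≤ D := dist_nonneg.trans (hD _ hqS _ hpS)
  have hda : 0 ≤ dist (A y) (A z) := dist_nonneg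
  calc dist (A y) (A z) = dist (A y) (A z) * 1 := (mul_one _).symm
    _ ≤ dist (A y) (A z) * (a * (ts * dist (B y) (B z))) := mul_le_mul_of_nonneg_left h6 hda
    _ = (ts * dist (A y) (A z)) * (a * dist (B y) (B z)) := by ring
    _ ≤ D * (a * dist (B y) (B z)) :=
        mul_le_mul_of_nonneg_right h9 (mul_nonneg ha.le dist_nonneg)
    _ = _ := by ring

/-- the same for `LB` -/
theorem LB_diam {n : ℕ} {S : Set E} (h1 : Convex ℝ S) (h2 : IsCompact S) (h3 : S.Nonempty)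
    (h4 : IsBall n S (S \ ri S)) (A : E →ᵃ[ℝ] F) (B : E ≃ᵃ[ℝ] E) {D : ℝ}
    (hD : ∀ y ∈ S, ∀ z ∈ S, dist (A y) (A z) ≤ D) {z : E} (hz : z ∈ S) {L : ℝ} (hL : 0 ≤ L)
    {f : E → ℝ} (hf : LB A L f S z) : LB B (L * (D * AAc n (B '' S))) f S z := by
  filter_upwards [hf, self_mem_nhdsWithin] with y h6 hy
  refine h6.trans ?_
  rw [mul_assoc]
  exact mul_le_mul_of_nonneg_left (frame_diam h1 h2 h3 h4 A B hD y hy z hz) hL

variable {Q : Type} [PartialOrder Q] {dim : Q → ℕ} {J Fam : Type}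
variable {C : Cmb Q dim J Fam} {K : Q → Set E} {Ω : Set E}

/-- **THE NUMBERS OF THE BASE IN ALL FRAMES** from one frame in which the cell has diameter `≤ D` -/
theorem base_num {q : Q} (h1 : Convex ℝ (K q)) (h2 : IsCompact (K q)) (h3 : (K q).Nonempty)
    (h4 : IsBall (dim q) (K q) (K q \ ri (K q))) {wt : J → ℝ} (hw : ∀ j, 0 < wt j) {δq K₀ : ℝ}
    (hδ : 0 ≤ δq) {c0 : C.I q → E → ℝ} (A : E →ᵃ[ℝ] F) {L D : ℝ} (hL : 0 ≤ L)
    (hD : ∀ y ∈ K q, ∀ z ∈ K q, dist (A y) (A z) ≤ D) (hLD : L * D ≤ K₀)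
    (hA : ∀ x, ∀ z ∈ K q, LB A (L * (Wd C wt q + δq) / wt (C.col q x)) (c0 x) (K q) z)
    (B : E ≃ᵃ[ℝ] E) (x : C.I q) {z : E} (hz : z ∈ K q) :
    LB B (K₀ * (AAc (dim q) (B '' K q) * (Wd C wt q + δq)) / wt (C.col q x)) (c0 x) (K q) z := by
  have hwx := hw (C.col q x)
  have hW : 0 ≤ Wd C wt q + δq := by
    have := Wd_nonneg (C := C) hw q
    linarith
  have h5 := LB_diam h1 h2 h3 h4 A B hD hz (by positivity) (hA x z hz)
  refine h5.mono ?_
  rw [div_mul_eq_mul_div]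
  refine div_le_div_of_nonneg_right ?_ hwx.le
  have h6 : 0 ≤ AAc (dim q) (B '' K q) * (Wd C wt q + δq) := mul_nonneg (AAc_pos _ _).le hW
  calc L * (Wd C wt q + δq) * (D * AAc (dim q) (B '' K q))
      = (L * D) * (AAc (dim q) (B '' K q) * (Wd C wt q + δq)) := by ring
    _ ≤ K₀ * (AAc (dim q) (B '' K q) * (Wd C wt q + δq)) := mul_le_mul_of_nonneg_right hLD h6

end Crest.Agent.R096.Be_416
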