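import Crest.Agent.R096.Bin10_181

/-!
# R096 (row 96), GEO-BASE / LB-BASE, part 1 (helper181): the sheets of the base are functions of one
level coordinate
-/

set_option autoImplicit false
set_option linter.unusedSectionVars false

open Set Metric

namespace Crest.Agent.R096.Bin_181

open Crest.Agent.R096.Ce_537 Crest.Agent.R096.Bd_416 Crest.Agent.R096.Xp_537
open Crest.Agent.R096.Brk1_582 Crest.Agent.R096.Brk2_582 Crest.Agent.R096.Brk6_582
open Crest.Agent.R096.Grd_714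

variable {E : Type*} [NormedAddCommGroup E] [NormedSpace ℝ E] {I : Type*}
variable {b : Set I → E} {P : I → Set E} {m m' : I → ℕ}

/-! ### the function -/

/-- the band function of the level `k` -/
noncomputable def phi (κ : ℝ) (n : ℕ → ℝ) (M : ℕ) (k : ℕ) (x : ℝ) : ℝ :=
  cl ((nuR n M x - k - 1/2) / (1 - κ))

/-- its zero -/
noncomputable def xi (n : ℕ → ℝ) (M : ℕ) (k : ℕ) : ℝ := niR n M (k + 1/2)

section phi

variable {κ : ℝ} (hκ : 0 < κ ∧ κ < 1) {n : ℕ → ℝ} (hN : StrictMono n) (h0 : n 0 = 0) {M : ℕ}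
  (hM : 0 < M) {k : ℕ}
include hκ

lemma phi_low {x : ℝ} (h : nuR n M x ≤ k + κ/2) : phi κ n M k x = -1/2 := by
  have hk : 0 < 1 - κ := by linarith [hκ.2]
  exact cl_of_le (by rw [div_le_iff₀ hk]; linarith)

lemma phi_high {x : ℝ} (h : k + 1 - κ/2 ≤ nuR n M x) : phi κ n M k x = 1/2 := by
  have hk : 0 < 1 - κ := by linarith [hκ.2]
  exact cl_of_ge (by rw [le_div_iff₀ hk]; linarith)

lemma phi_neg {x : ℝ} (h : nuR n M x < k + 1/2) : phi κ n M k x < 0 := by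
  have hk : 0 < 1 - κ := by linarith [hκ.2]
  rcases le_total ((nuR n M x - k - 1/2) / (1 - κ)) (-1/2) with h1 | h1
  · rw [phi, cl_of_le h1]; norm_num
  · have h2 : (nuR n M x - k - 1/2) / (1 - κ) < 0 := div_neg_of_neg_of_pos (by linarith) hk
    rw [phi, cl_of_mem ⟨h1, by linarith⟩]; exact h2

lemma phi_pos {x : ℝ} (h : k + 1/2 < nuR n M x) : 0 < phi κ n M k x := by
  have hk : 0 < 1 - κ := by linarith [hκ.2]
  rcases le_total (1/2) ((nuR n M x - k - 1/2) / (1 - κ)) with h1 | h1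
  · rw [phi, cl_of_ge h1]; norm_num
  · have h2 : 0 < (nuR n M x - k - 1/2) / (1 - κ) := div_pos (by linarith) hk
    rw [phi, cl_of_mem ⟨by linarith, h1⟩]; exact h2

lemma phi_eq_zero_iff {x : ℝ} : phi κ n M k x = 0 ↔ nuR n M x = k + 1/2 := by
  constructor
  · intro h
    rcases lt_trichotomy (nuR n M x) (k + 1/2) with h1 | h1 | h1
    · exact absurd h (phi_neg hκ h1).ne
    · exact h1
    · exact absurd h (phi_pos hκ h1).ne'
  · intro h
    rw [phi, show nuR n M x - k - 1/2 = 0 by rw [h]; ring, zero_div, cl_of_mem]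
    constructor <;> norm_num

include hN h0 hM

/-- the zero in the window `[i, i+1]` -/
lemma xi_spec {i : ℕ} (hi : i < M) {Ni Ni1 : ℕ} (h1 : |n i - Ni| < κ/2)
    (h2 : |n (i+1) - Ni1| < κ/2) (hk1 : Ni ≤ k) (hk2 : k < Ni1) :
    (i : ℝ) < xi n M k ∧ xi n M k < i + 1 ∧ nuR n M (xi n M k) = k + 1/2 := by
  obtain ⟨a1, a2⟩ := abs_lt.1 h1
  obtain ⟨b1, b2⟩ := abs_lt.1 h2
  have c1 : (Ni : ℝ) ≤ k := by exact_mod_cast hk1
  have c2 : (k : ℝ) + 1 ≤ Ni1 := by exact_mod_cast hk2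
  have d1 : n i < k + 1/2 := by linarith [hκ.2]
  have d2 : (k : ℝ) + 1/2 < n (i+1) := by linarith [hκ.2]
  have h3 := nR_pos hN i
  have e := niR_eq hN h0 hi d1.le d2.le
  have e1 : 0 < ((k : ℝ) + 1/2 - n i) / (n (i+1) - n i) := div_pos (by linarith) h3
  have e2 : ((k : ℝ) + 1/2 - n i) / (n (i+1) - n i) < 1 := (div_lt_one h3).2 (by linarith)
  refine ⟨by unfold xi; rw [e]; linarith, by unfold xi; rw [e]; linarith, ?_⟩
  refine nuR_niR hN h0 hM ⟨by positivity, d2.le.trans (hN.monotone hi)⟩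

omit h0 hM hκ in
lemma nuR_strict (h0 : n 0 = 0) (hM : 0 < M) {x y : ℝ} (hx : x ∈ Icc (0:ℝ) M)
    (hy : y ∈ Icc (0:ℝ) M) (h : x < y) : nuR n M x < nuR n M y := by
  refine lt_of_le_of_ne (nuR_mono hN h.le) fun he => ?_
  have h1 := niR_nuR hN h0 hM hx
  rw [he, niR_nuR hN h0 hM hy] at h1
  exact h.ne' h1

/-- values on the window -/
lemma phi_spec {i : ℕ} (hi : i < M) {Ni Ni1 : ℕ} (h1 : |n i - Ni| < κ/2)
    (h2 : |n (i+1) - Ni1| < κ/2) (hk1 : Ni ≤ k) (hk2 : k < Ni1) :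
    phi κ n M k i = -1/2 ∧ phi κ n M k (i+1) = 1/2 ∧
      ∀ x ∈ Icc (0:ℝ) M, (phi κ n M k x = 0 ↔ x = xi n M k) ∧ (phi κ n M k x < 0 ↔ x < xi n M k) ∧
        (0 < phi κ n M k x ↔ xi n M k < x) := by
  obtain ⟨a1, a2⟩ := abs_lt.1 h1
  obtain ⟨b1, b2⟩ := abs_lt.1 h2
  have c1 : (Ni : ℝ) ≤ k := by exact_mod_cast hk1
  have c2 : (k : ℝ) + 1 ≤ Ni1 := by exact_mod_cast hk2
  have hx := xi_spec hκ hN h0 hM hi h1 h2 hk1 hk2
  have hi' : (i : ℝ) + 1 ≤ M := by exact_mod_cast hi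
  have hxI : xi n M k ∈ Icc (0:ℝ) M := ⟨by
    have : (0:ℝ) ≤ i := Nat.cast_nonneg i
    linarith [hx.1], by linarith [hx.2.1]⟩
  refine ⟨phi_low hκ ?_, phi_high hκ ?_, fun x hxx => ?_⟩
  · rw [nuR_nat hN h0 hi.le]; linarith
  · have := nuR_nat hN h0 (M := M) (i := i+1) hi
    push_cast at this
    rw [this]; linarith
  · have key : ∀ x ∈ Icc (0:ℝ) M, (x < xi n M k → phi κ n M k x < 0) ∧
        (xi n M k < x → 0 < phi κ n M k x) := fun x hx' =>
      ⟨fun h => phi_neg hκ (by rw [← hx.2.2]; exact nuR_strict hN h0 hM hx' hxI h),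
        fun h => phi_pos hκ (by rw [← hx.2.2]; exact nuR_strict hN h0 hM hxI hx' h)⟩
    have hz : phi κ n M k (xi n M k) = 0 := (phi_eq_zero_iff hκ).2 hx.2.2
    obtain ⟨k1, k2⟩ := key x hxx
    rcases lt_trichotomy x (xi n M k) with h | h | h
    · have := k1 h
      exact ⟨⟨fun e => absurd e this.ne, fun e => absurd e h.ne⟩, ⟨fun _ => h, fun _ => this⟩,
        ⟨fun e => absurd e this.not_gt, fun e => absurd e h.not_gt⟩⟩
    · subst h
      exact ⟨⟨fun _ => rfl, fun _ => hz⟩, ⟨fun e => absurd hz e.ne, fun e => absurd e (lt_irrefl _)⟩,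
        ⟨fun e => absurd hz e.ne', fun e => absurd e (lt_irrefl _)⟩⟩
    · have := k2 h
      exact ⟨⟨fun e => absurd e this.ne', fun e => absurd e h.ne'⟩,
        ⟨fun e => absurd e this.not_gt, fun e => absurd e h.not_gt⟩, ⟨fun _ => h, fun _ => this⟩⟩

omit hM in
/-- Lipschitz bound on the window -/
lemma phi_lip {i : ℕ} (hi : i < M) {x y : ℝ} (hx : x ∈ Icc (i:ℝ) (i+1))
    (hy : y ∈ Icc (i:ℝ) (i+1)) :
    |phi κ n M k x - phi κ n M k y| ≤ (n (i+1) - n i) / (1 - κ) * |x - y| := by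
  have hk : 0 < 1 - κ := by linarith [hκ.2]
  have h1 : |phi κ n M k x - phi κ n M k y| ≤
      |(nuR n M x - k - 1/2) / (1 - κ) - (nuR n M y - k - 1/2) / (1 - κ)| := by
    unfold phi cl
    refine (abs_max_sub_max_le_max _ _ _ _).trans ?_
    rw [sub_self, abs_zero, max_eq_right (abs_nonneg _)]
    refine (abs_min_sub_min_le_max _ _ _ _).trans ?_
    rw [sub_self, abs_zero, max_eq_left (abs_nonneg _)]
  refine h1.trans (le_of_eq ?_)
  rw [nuR_eq hN h0 hi hx.1 hx.2, nuR_eq hN h0 hi hy.1 hy.2, ← sub_div]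
  have e : n i + (n (i+1) - n i) * (x - i) - k - 1/2 - (n i + (n (i+1) - n i) * (y - i) - k - 1/2)
      = (n (i+1) - n i) * (x - y) := by ring
  rw [e, abs_div, abs_mul, abs_of_pos (nR_pos hN i), abs_of_pos hk]
  ring

end phi

section sheets

variable {V : Type*} [NormedAddCommGroup V] [NormedSpace ℝ V] {J : Type*}
variable {La : Set E} [CompleteSpace E] (F : Foam La P b 4)
  (hQ : Quads P b) (hne : ∀ c, (P c).Nonempty) (hm : ∀ c, 0 < m c)
variable {κ : ℝ} (hκ : 0 < κ ∧ κ < 1) (c : Cel P m) {fa : J → I} {lv : J → ℕ} {S : Set V}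
  {T : Set E} (e : PLEquiv S T)

include hκ in
/-- **the sheets are functions of one level coordinate** -/
theorem ekS_form {q : Gx P m} {z : V} (hz : e.f z ∈ (grid F hQ hne hm).cell (.gr q)) (j : J) :
    (ekS (grid F hQ hne hm) b κ c fa lv e).G j z =
      1/2 + cl ((co P b m (e.f z) (fa j) - lv j - 1/2) / (1 - κ)) := by
  have hk : 0 < 1 - κ := by linarith [hκ.2]
  rw [ekS_G]
  show 1/2 + cl (co P b m (st (grid F hQ hne hm) κ (e.f z)) (fa j) - lv j - 1/2) = _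
  have hbx := co_mem F hQ hm hz (fa j)
  by_cases ha : fa j ∈ q.free
  · have h1 : (q.hi (fa j) : ℝ) = q.lo (fa j) + 1 := by exact_mod_cast Gx.hi_eq ha
    rw [h1] at hbx
    rw [co_st F hQ hne hm hκ hz ha]
    set v := co P b m (e.f z) (fa j) with hv
    rcases lt_trichotomy (q.lo (fa j)) (lv j) with h | h | h
    · have h2 : (q.lo (fa j) : ℝ) + 1 ≤ lv j := by exact_mod_cast h
      have h3 := (cl_mem ((v - (q.lo (fa j) + 1/2)) / (1 - κ))).2
      rw [cl_of_le (by linarith), cl_of_le]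
      rw [div_le_iff₀ hk]; nlinarith [hκ.1]
    · have h2 : (q.lo (fa j) : ℝ) = lv j := by exact_mod_cast h
      rw [h2]
      have e1 : (lv j : ℝ) + 1/2 + cl ((v - (lv j + 1/2)) / (1 - κ)) - lv j - 1/2
          = cl ((v - (lv j + 1/2)) / (1 - κ)) := by ring
      rw [e1, clcl, sub_add_eq_sub_sub]
    · have h2 : (lv j : ℝ) + 1 ≤ q.lo (fa j) := by exact_mod_cast h
      have h3 := (cl_mem ((v - (q.lo (fa j) + 1/2)) / (1 - κ))).1
      rw [cl_of_ge (by linarith), cl_of_ge]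
      rw [le_div_iff₀ hk]; nlinarith [hκ.1]
  · obtain ⟨h1, h2⟩ := co_st_notfree F hQ hne hm hκ hz ha
    rw [h1, h2]
    rcases lt_or_ge (lv j) (q.hi (fa j)) with h | h
    · have h2 : (lv j : ℝ) + 1 ≤ q.hi (fa j) := by exact_mod_cast h
      rw [cl_of_ge (by linarith), cl_of_ge]
      rw [le_div_iff₀ hk]; nlinarith [hκ.1]
    · have h2 : (q.hi (fa j) : ℝ) ≤ lv j := by exact_mod_cast h
      rw [cl_of_le (by linarith), cl_of_le]
      rw [div_le_iff₀ hk]; nlinarith [hκ.1]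

end sheets

section mesh

variable {V : Type*} [NormedAddCommGroup V] [NormedSpace ℝ V] {J : Type*}
variable {n : I → ℕ → ℝ} (hN : ∀ a, StrictMono (n a)) (hN0 : ∀ a, n a 0 = 0)
  (hNm : ∀ a, n a (m' a) = m a)
variable {La : Set E} [CompleteSpace E] (F : Foam La P b 4)
  (hQ : Quads P b) (hne : ∀ c, (P c).Nonempty) (hm' : ∀ c, 0 < m' c) (hm : ∀ c, 0 < m c)
variable {κ : ℝ} (hκ : 0 < κ ∧ κ < 1) (c : Cel P m) {fa : J → I} {lv : J → ℕ} {S : Set V} {c0 : I}
  (th : PLEquiv S (bdP P b m' c0))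

include hκ in
/-- **the base in the level coordinates of the M-mesh** -/
theorem ekS_mesh {z : V} (hz : z ∈ S) (j : J) :
    (ekS (grid F hQ hne hm) b κ c fa lv (th.trans (rcR hN hN0 hNm F hQ hm' hm c0))).G j z =
      1/2 + phi κ (n (fa j)) (m' (fa j)) (lv j) (co P b m' (th.f z) (fa j)) := by
  have h1 : th.f z ∈ bdP P b m' c0 := th.mf hz
  have h2 : (th.trans (rcR hN hN0 hNm F hQ hm' hm c0)).f z ∈ bdP P b m c0 :=
    (th.trans (rcR hN hN0 hNm F hQ hm' hm c0)).mf hz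
  obtain ⟨q, -, hq⟩ := mem_bxS F hQ hne hm (L := fun _ => 0) (H := Hc m c0) h2
  rw [ekS_form F hQ hne hm hκ c _ hq j]
  obtain ⟨k1, k2, k3⟩ := co_bxS F hQ hm' h1
  have e1 : co P b m ((th.trans (rcR hN hN0 hNm F hQ hm' hm c0)).f z) =
      fun a => nuR (n a) (m' a) (co P b m' (th.f z) a) := by
    show co P b m (Tq b m fun a => nuR (n a) (m' a) (co P b m' (th.f z) a)) = _
    exact co_Tq F hQ hm (G2_nu (nuR_Nu hN hN0 hNm) hm' hm k1)
  rw [e1]
  rfl

end mesh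

end Crest.Agent.R096.Bin_181
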