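import Crest.Agent.R096.Fl1_835

/-!
# R096 (row 96), LB-BASE (helper835): diameter of the grid cells

`cell_diam` : grid cells of mesh `m` (all `m a ≥ M`) over the brick `c` have diameter `≤ 2 R² sz / M`.
-/

set_option autoImplicit false
set_option linter.unusedSectionVars false

open Set

namespace Crest.Agent.R096.Lbb_835

open Crest.Agent.R096.Brk1_582 Crest.Agent.R096.Brk2_582 Crest.Agent.R096.Brk6_582
open Crest.Agent.R096.Grd_714 Crest.Agent.R096.Bsp_628 Crest.Agent.R096.Brk3_582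
open Crest.Agent.R096.Brk5_582 Crest.Agent.R096.Fl_835

variable {κ : Type*} [Fintype κ] [Nonempty κ] {La : Set (κ → ℝ)} {F : Set (Bx κ)} {δ κ0 : ℝ}

/-- the free colours of a grid cell touch all its zero colours -/
theorem meet_of_free {E : Type*} [NormedAddCommGroup E] [NormedSpace ℝ E] {I : Type*}
    {P : I → Set E} {m : I → ℕ} (hm : ∀ a, 0 < m a) {q : Gx P m} {c a : I} (hc : q.hi c = 0)
    (ha : a ∈ q.free) : (P a ∩ P c).Nonempty := by
  obtain ⟨y, hy⟩ := q.face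
  have h1 : a ∈ {c | q.lo c < m c} := (q.free_sub ha).1
  have h2 : c ∈ {c | q.lo c < m c} := q.Z_sub hm hc
  exact ⟨y, mem_fc.1 hy a h1, mem_fc.1 hy c h2⟩

/-- **diameter of a grid cell over the brick `c`** -/
theorem cell_diam (BF : BoxFoam La F δ κ0) (hLa : IsOpen La) (h3 : Fintype.card κ = 3) {R : ℝ}
    (hR : 0 ≤ R) (hcmp : Cmp F R) {m : F → ℕ} {M : ℕ} (hM : 0 < M) (hm : ∀ a, M ≤ m a)
    {q : Gx (Pc F) m} {c : F} (hc : q.hi c = 0) {y y' : κ → ℝ}
    (hy : y ∈ Tq (bc (F := F)) m '' q.bx) (hy' : y' ∈ Tq (bc (F := F)) m '' q.bx) :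
    ‖y - y'‖ ≤ 2 * (R * (R * c.1.sz) / M) := by
  obtain ⟨g, hg, rfl⟩ := hy
  obtain ⟨g', hg', rfl⟩ := hy'
  have hm0 : ∀ a, 0 < m a := fun a => hM.trans_le (hm a)
  have p : (0 : ℝ) < M := by exact_mod_cast hM
  have hsz : ∀ a : F, 0 < a.1.sz := fun a => Bx.sz_pos (BF.pos _ a.2)
  refine Tq_lip_box BF hLa h3 hcmp hm0 hg hg' (by
    have := hsz c
    positivity) fun a ha => ?_
  have h1 : |g a - g' a| ≤ 1 := by
    have k1 := hg a
    have k2 := hg' a
    have k3 : q.hi a = q.lo a + 1 := Gx.hi_eq ha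
    rw [k3] at k1 k2
    push_cast at k1 k2
    rw [abs_le]
    constructor <;> linarith [k1.1, k1.2, k2.1, k2.2]
  have h2 : a.1.sz ≤ R * c.1.sz := hcmp a c (meet_of_free hm0 hc ha)
  have h4 : (M : ℝ) ≤ m a := by exact_mod_cast hm a
  have h5 : 0 ≤ R * a.1.sz := mul_nonneg hR (hsz a).le
  calc R * a.1.sz * |g a - g' a| ≤ R * a.1.sz * 1 := mul_le_mul_of_nonneg_left h1 h5
    _ = R * a.1.sz := mul_one _
    _ ≤ R * (R * c.1.sz) := mul_le_mul_of_nonneg_left h2 hR
    _ = R * (R * c.1.sz) / M * M := by field_simp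
    _ ≤ R * (R * c.1.sz) / M * m a :=
        mul_le_mul_of_nonneg_left h4 (by
          have := hsz c
          positivity)

end Crest.Agent.R096.Lbb_835
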