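import Crest.Agent.R096.Be4_416
import Crest.Agent.R096.Bin11_181
import Crest.Agent.R096.Lbb2_835
import Crest.Agent.R096.Cmh1_63

/-!
# R096 (row 96), P4-MESH (helper416): LB-BASE, part 2

* `wd_window` : number of the levels of a window times the weight ≤ weighted number of the pieces.
* `lb_base` : the Lipschitz numbers of the base in the frame of the exact map.
* `lb_base_box` : the same for a box foam and the constant mesh, in ALL frames, with a constant which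
  depends only on the constants of the foam.
-/

set_option autoImplicit false

open Set Metric Filter Topology

namespace Crest.Agent.R096.Be_416

open Crest.Agent.R096.Ce_537 Crest.Agent.R096.Bd_416 Crest.Agent.R096.Xp_537
open Crest.Agent.R096.Brk1_582 Crest.Agent.R096.Brk2_582 Crest.Agent.R096.Brk6_582
open Crest.Agent.R096.Grd_714 Crest.Agent.R096.Bin_181
open Crest.Agent.R96.Nu1_199 Crest.Agent.R96.Nu3_199 Crest.Agent.R96.Nu5_199

set_option linter.unusedSectionVars false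

section abs

variable {E : Type*} [NormedAddCommGroup E] [NormedSpace ℝ E] {I : Type*}
variable {b : Set I → E} {P : I → Set E} {m m' : I → ℕ}
variable {V : Type*} [NormedAddCommGroup V] [NormedSpace ℝ V] {Q : Type} [PartialOrder Q]
  {dim : Q → ℕ} {J Fam : Type} {Cm : Cmb Q dim J Fam}

/-- the levels of a window are pieces of the cell -/
theorem wd_window {q : Q} {fa : J → I} {lv : J → ℕ} {wt : J → ℝ} (hw : ∀ j, 0 < wt j)
    (hwf : ∀ j j', fa j = fa j' → wt j = wt j') {a : I} {lo hi : ℕ}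
    (ex : ∀ k, lo ≤ k → k < hi → ∃ x : Cm.I q, fa (Cm.col q x) = a ∧ lv (Cm.col q x) = k)
    (x0 : Cm.I q) (hx0 : fa (Cm.col q x0) = a) :
    ((hi - lo : ℕ) : ℝ) * wt (Cm.col q x0) ≤ Wd Cm wt q := by
  classical
  choose X hX1 hX2 using ex
  let f : {k // k ∈ Finset.Ico lo hi} → Cm.I q := fun k =>
    X k.1 (Finset.mem_Ico.1 k.2).1 (Finset.mem_Ico.1 k.2).2
  have hf : Function.Injective f := by
    intro k k' h
    have h1 : lv (Cm.col q (f k)) = k.1 := hX2 _ _ _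
    have h2 : lv (Cm.col q (f k')) = k'.1 := hX2 _ _ _
    rw [h] at h1
    exact Subtype.ext (h1.symm.trans h2)
  set T : Finset (Cm.I q) := (Finset.Ico lo hi).attach.image f with hT
  have hcard : T.card = hi - lo := by
    rw [hT, Finset.card_image_of_injective _ hf, Finset.card_attach, Nat.card_Ico]
  have h1 : ∑ x ∈ T, wt (Cm.col q x) = ((hi - lo : ℕ) : ℝ) * wt (Cm.col q x0) := by
    rw [← hcard, ← nsmul_eq_mul, ← Finset.sum_const]
    refine Finset.sum_congr rfl fun x hx => ?_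
    obtain ⟨k, -, rfl⟩ := Finset.mem_image.1 hx
    exact hwf _ _ (by rw [hX1, hx0])
  rw [← h1]
  exact Finset.sum_le_sum_of_subset_of_nonneg (Finset.subset_univ _) fun x _ _ => (hw _).le

variable {n : I → ℕ → ℝ} (hN : ∀ a, StrictMono (n a)) (hN0 : ∀ a, n a 0 = 0)
  (hNm : ∀ a, n a (m' a) = m a)
variable {La : Set E} [CompleteSpace E] [FiniteDimensional ℝ E] (F : Foam La P b 4)
  (hQ : Quads P b) (hne : ∀ c, (P c).Nonempty) (hm' : ∀ c, 0 < m' c) (hm : ∀ c, 0 < m c)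
variable {κ : ℝ} (hκ : 0 < κ ∧ κ < 1) (c : Cel P m) (fa : J → I) (lv : J → ℕ) {S : Set V} {c0 : I}
  (th : PLEquiv S (bdP P b m' c0)) (N : I → ℕ → ℕ) (hnN : ∀ a i, i ≤ m' a → |n a i - N a i| < κ / 2)

include hκ hnN in
/-- **THE NUMBERS OF THE BASE IN THE FRAME `A` OF THE EXACT MAP** -/
theorem lb_base {K : Q → Set V} (A : V →ᵃ[ℝ] E) (hA : ∀ z ∈ S, th.f z = A z) {q : Q}
    (gxq : Gx P m') (hK : K q = {z | z ∈ S ∧ th.f z ∈ Tq b m' '' gxq.bx})
    {wt : J → ℝ} (hw : ∀ j, 0 < wt j) (hwf : ∀ j j', fa j = fa j' → wt j = wt j')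
    (rng : ∀ x : Cm.I q, N (fa (Cm.col q x)) (gxq.lo (fa (Cm.col q x))) ≤ lv (Cm.col q x) ∧
      lv (Cm.col q x) < N (fa (Cm.col q x)) (gxq.hi (fa (Cm.col q x))))
    (ex : ∀ a k, N a (gxq.lo a) ≤ k → k < N a (gxq.hi a) →
      ∃ x : Cm.I q, fa (Cm.col q x) = a ∧ lv (Cm.col q x) = k)
    {L1 : ℝ}
    (hlip : ∀ y ∈ bdP P b m' c0, ∀ y' ∈ bdP P b m' c0, ∀ a,
      |co P b m' y a - co P b m' y' a| ≤ L1 * dist y y')
    {δq : ℝ} (hδ : 0 ≤ δq) (x : Cm.I q) {z : V} (hz : z ∈ K q) :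
    LB A (2 * L1 / (1 - κ) * (Wd Cm wt q + δq) / wt (Cm.col q x))
      (fun z => sg (Cm.Lab (Cm.col q x) q) *
        ((ekS (grid F hQ hne hm) b κ c fa lv (th.trans (rcR hN hN0 hNm F hQ hm' hm c0))).G
          (Cm.col q x) z - 1/2)) (K q) z := by
  set j := Cm.col q x with hj
  set a := fa j with ha
  have hk : 0 < 1 - κ := by linarith [hκ.2]
  obtain ⟨r1, r2⟩ := rng x
  have hfree : a ∈ gxq.free := by
    by_contra hcon
    have h1 := Gx.lo_eq hcon
    rw [← hj, ← ha, h1] at r1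
    rw [← hj, ← ha] at r2
    omega
  have hhi : gxq.hi a = gxq.lo a + 1 := Gx.hi_eq hfree
  have him : gxq.lo a < m' a := by
    have := gxq.him a
    omega
  have hSz : ∀ y ∈ K q, y ∈ S := fun y hy => by rw [hK] at hy; exact hy.1
  have hco : ∀ y ∈ K q, co P b m' (th.f y) a ∈ Icc (gxq.lo a : ℝ) (gxq.lo a + 1) := by
    intro y hy
    rw [hK] at hy
    have h1 := Grd_714.co_mem F hQ hm' hy.2 a
    rw [hhi] at h1
    push_cast at h1
    exact h1
  -- the slope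
  have hwin := wd_window (Cm := Cm) (q := q) hw hwf (ex a) x rfl
  have hslope : n a (gxq.lo a + 1) - n a (gxq.lo a) ≤
      2 * ((N a (gxq.hi a) - N a (gxq.lo a) : ℕ) : ℝ) := by
    have h1 := (abs_lt.1 (hnN a (gxq.lo a) him.le)).1
    have h2 := (abs_lt.1 (hnN a (gxq.lo a + 1) him)).2
    have h3 : N a (gxq.lo a) + 1 ≤ N a (gxq.hi a) := by
      rw [← hj, ← ha] at r1 r2; omega
    rw [Nat.cast_sub (by omega)]
    have h4 : (N a (gxq.lo a) : ℝ) + 1 ≤ N a (gxq.hi a) := by exact_mod_cast h3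
    rw [hhi] at h4 ⊢
    linarith [hκ.2]
  have hs0 : 0 < n a (gxq.lo a + 1) - n a (gxq.lo a) := sub_pos.2 (hN a (Nat.lt_succ_self _))
  have hwx := hw j
  have hW : 0 ≤ Wd Cm wt q := Wd_nonneg hw q
  have key : ∀ y ∈ K q, |sg (Cm.Lab j q) * ((ekS (grid F hQ hne hm) b κ c fa lv
      (th.trans (rcR hN hN0 hNm F hQ hm' hm c0))).G j y - 1/2) -
      sg (Cm.Lab j q) * ((ekS (grid F hQ hne hm) b κ c fa lv
      (th.trans (rcR hN hN0 hNm F hQ hm' hm c0))).G j z - 1/2)| ≤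
      2 * L1 / (1 - κ) * (Wd Cm wt q + δq) / wt j * dist (A y) (A z) := by
    intro y hy
    rw [ekS_mesh hN hN0 hNm F hQ hne hm' hm hκ c th (hSz y hy) j,
      ekS_mesh hN hN0 hNm F hQ hne hm' hm hκ c th (hSz z hz) j, ← mul_sub, abs_mul, abs_sg, one_mul]
    have e1 : (1/2 + phi κ (n a) (m' a) (lv j) (co P b m' (th.f y) a) - 1/2) -
        (1/2 + phi κ (n a) (m' a) (lv j) (co P b m' (th.f z) a) - 1/2) =
        phi κ (n a) (m' a) (lv j) (co P b m' (th.f y) a) -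
        phi κ (n a) (m' a) (lv j) (co P b m' (th.f z) a) := by ring
    rw [e1]
    have h1 := phi_lip (k := lv j) hκ (hN a) (hN0 a) him (hco y hy) (hco z hz)
    have h2 := hlip _ (th.mf (hSz y hy)) _ (th.mf (hSz z hz)) a
    rw [hA y (hSz y hy), hA z (hSz z hz)] at h2
    have h3 : (0 : ℝ) ≤ dist (A y) (A z) := dist_nonneg
    rw [hA y (hSz y hy), hA z (hSz z hz)] at h1 ⊢
    refine h1.trans ?_
    have h4 : (n a (gxq.lo a + 1) - n a (gxq.lo a)) * wt j ≤ 2 * (Wd Cm wt q + δq) := by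
      calc (n a (gxq.lo a + 1) - n a (gxq.lo a)) * wt j
          ≤ 2 * ((N a (gxq.hi a) - N a (gxq.lo a) : ℕ) : ℝ) * wt j :=
            mul_le_mul_of_nonneg_right hslope hwx.le
        _ = 2 * (((N a (gxq.hi a) - N a (gxq.lo a) : ℕ) : ℝ) * wt j) := by ring
        _ ≤ 2 * Wd Cm wt q := mul_le_mul_of_nonneg_left hwin (by norm_num)
        _ ≤ _ := by linarith
    have h5 : n a (gxq.lo a + 1) - n a (gxq.lo a) ≤ 2 * (Wd Cm wt q + δq) / wt j := by
      rwa [le_div_iff₀ hwx]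
    calc (n a (gxq.lo a + 1) - n a (gxq.lo a)) / (1 - κ) *
          |co P b m' (A y) a - co P b m' (A z) a|
        ≤ (2 * (Wd Cm wt q + δq) / wt j) / (1 - κ) * (L1 * dist (A y) (A z)) := by
          refine mul_le_mul (div_le_div_of_nonneg_right h5 hk.le) h2 (abs_nonneg _) ?_
          have : 0 ≤ Wd Cm wt q + δq := by linarith
          positivity
      _ = _ := by field_simp
  filter_upwards [self_mem_nhdsWithin] with y hy
  exact key y hy

end abs

/-! ### box foams -/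

section box

open Crest.Agent.R096.Bsp_628 Crest.Agent.R096.Brk3_582 Crest.Agent.R096.Brk5_582
  Crest.Agent.R096.Lbb_835

variable {κ' : Type*} [Fintype κ'] [Nonempty κ'] {La : Set (κ' → ℝ)} {Fm : Set (Bx κ')} {δ κ0 : ℝ}
variable {V : Type*} [NormedAddCommGroup V] [NormedSpace ℝ V] [FiniteDimensional ℝ V]
  {Q : Type} [PartialOrder Q] {dim : Q → ℕ} {J Fam : Type} {Cm : Cmb Q dim J Fam}
variable {m : Fm → ℕ} {n : Fm → ℕ → ℝ} (hN : ∀ a, StrictMono (n a)) (hN0 : ∀ a, n a 0 = 0)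
  {M : ℕ} (hM : 0 < M) (hNm : ∀ a, n a M = m a)
variable (F : Foam La (Pc Fm) (bc (F := Fm)) 4)
  (hQ : Quads (Pc Fm) (bc (F := Fm))) (hne : ∀ c, (Pc Fm c).Nonempty) (hm : ∀ c, 0 < m c)
variable {κ : ℝ} (hκ : 0 < κ ∧ κ < 1) (c : Cel (Pc Fm) m) (fa : J → Fm) (lv : J → ℕ) {S : Set V}
  {c0 : Fm} (th : PLEquiv S (bdP (Pc Fm) (bc (F := Fm)) (fun _ => M) c0)) (N : Fm → ℕ → ℕ)
  (hnN : ∀ a i, i ≤ M → |n a i - N a i| < κ / 2)

/-- **the constant of the base** (a function of the constants of the foam) -/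
noncomputable def Kbase (d : ℕ) (δ R κ : ℝ) : ℝ := 4 * (R * R) * Cs d δ R / (1 - κ)

omit [Nonempty κ'] in
theorem Kbase_nonneg {d : ℕ} {δ R κ : ℝ} (hδ : 0 < δ) (hR : 0 < R) (hκ : κ < 1) :
    0 ≤ Kbase d δ R κ := by
  have h1 := Cs_nonneg (n := d) hδ hR
  have h2 : 0 < 1 - κ := by linarith
  unfold Kbase
  positivity

include hκ hnN in
/-- **LB-BASE for box foams, in all frames.** -/
theorem lb_base_box (BF : BoxFoam La Fm δ κ0) (hLa : IsOpen La) (h3 : Fintype.card κ' = 3)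
    (hδ : 0 < δ) {R : ℝ} (hR : 0 < R) (hcmp : Cmp Fm R)
    {K : Q → Set V} (A : V →ᵃ[ℝ] (κ' → ℝ)) (hA : ∀ z ∈ S, th.f z = A z) {q : Q}
    (gxq : Gx (Pc Fm) (fun _ => M))
    (hK : K q = {z | z ∈ S ∧ th.f z ∈ Tq (bc (F := Fm)) (fun _ => M) '' gxq.bx})
    (h0 : gxq.hi c0 = 0)
    (h1 : Convex ℝ (K q)) (h2 : IsCompact (K q)) (hn : (K q).Nonempty)
    (h4 : IsBall (dim q) (K q) (K q \ ri (K q)))
    {wt : J → ℝ} (hw : ∀ j, 0 < wt j) (hwf : ∀ j j', fa j = fa j' → wt j = wt j')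
    (rng : ∀ x : Cm.I q, N (fa (Cm.col q x)) (gxq.lo (fa (Cm.col q x))) ≤ lv (Cm.col q x) ∧
      lv (Cm.col q x) < N (fa (Cm.col q x)) (gxq.hi (fa (Cm.col q x))))
    (ex : ∀ a k, N a (gxq.lo a) ≤ k → k < N a (gxq.hi a) →
      ∃ x : Cm.I q, fa (Cm.col q x) = a ∧ lv (Cm.col q x) = k)
    {δq : ℝ} (hδq : 0 ≤ δq) (B : V ≃ᵃ[ℝ] V) (x : Cm.I q) {z : V} (hz : z ∈ K q) :
    LB B (Kbase (Fintype.card κ') δ R κ * (AAc (dim q) (B '' K q) * (Wd Cm wt q + δq)) /
        wt (Cm.col q x))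
      (fun z => sg (Cm.Lab (Cm.col q x) q) *
        ((ekS (grid F hQ hne hm) (bc (F := Fm)) κ c fa lv
          (th.trans (rcR hN hN0 hNm F hQ (fun _ => hM) hm c0))).G
          (Cm.col q x) z - 1/2)) (K q) z := by
  have hM0 : (0 : ℝ) < M := by exact_mod_cast hM
  have hsz : 0 < c0.1.sz := Bx.sz_pos (BF.pos _ c0.2)
  have hCs : 0 ≤ Cs (Fintype.card κ') δ R := Cs_nonneg hδ hR
  have hk : 0 < 1 - κ := by linarith [hκ.2]
  set L1 : ℝ := M * (Cs (Fintype.card κ') δ R / c0.1.sz) with hL1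
  have hL10 : 0 ≤ L1 := by positivity
  have hlip : ∀ y ∈ bdP (Pc Fm) (bc (F := Fm)) (fun _ => M) c0,
      ∀ y' ∈ bdP (Pc Fm) (bc (F := Fm)) (fun _ => M) c0, ∀ a,
      |co (Pc Fm) (bc (F := Fm)) (fun _ => M) y a - co (Pc Fm) (bc (F := Fm)) (fun _ => M) y' a| ≤
        L1 * dist y y' := by
    intro y hy y' hy' a
    rw [bdP_eq F hQ (fun _ => hM)] at hy hy'
    obtain ⟨g1, c1, g2, g3⟩ := hy
    obtain ⟨g1', c1', g2', g3'⟩ := hy'
    rw [Cmh_63.co_const F hQ hM (F.sub _ g1) g2.symm g1 g3,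
      Cmh_63.co_const F hQ hM (F.sub _ g1') g2'.symm g1' g3', ← mul_sub, abs_mul, abs_of_pos hM0,
      dist_eq_norm, hL1, mul_assoc]
    exact mul_le_mul_of_nonneg_left (lip_cell BF hLa hδ hR hcmp c0 y g1 y' g1' a) hM0.le
  have hdiam : ∀ y ∈ K q, ∀ z ∈ K q, dist (A y) (A z) ≤ 2 * (R * (R * c0.1.sz) / M) := by
    intro y hy z hz
    rw [hK] at hy hz
    rw [← hA y hy.1, ← hA z hz.1, dist_eq_norm]
    exact cell_diam BF hLa h3 hR.le hcmp hM (fun _ => le_rfl) h0 hy.2 hz.2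
  refine base_num h1 h2 hn h4 hw hδq A (L := 2 * L1 / (1 - κ)) (by positivity) hdiam
    (le_of_eq ?_) (c0 := fun x z => sg (Cm.Lab (Cm.col q x) q) *
        ((ekS (grid F hQ hne hm) (bc (F := Fm)) κ c fa lv
          (th.trans (rcR hN hN0 hNm F hQ (fun _ => hM) hm c0))).G
          (Cm.col q x) z - 1/2)) (fun x z hz => ?_) B x hz
  · unfold Kbase
    rw [hL1]
    field_simp
    ring
  · exact lb_base hN hN0 hNm F hQ hne (fun _ => hM) hm hκ c fa lv th N hnN A hA gxq hK hw hwf rng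
      ex hlip hδq x hz

end box

end Crest.Agent.R096.Be_416
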