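import Crest.Agent.R096.Bin8_181

/-!
# R096 (row 96), BASE-INV, part 9 (helper181): the relabelling with real nodes, M-mesh
-/

set_option autoImplicit false
set_option linter.unusedSectionVars false

open Set Metric

namespace Crest.Agent.R096.Bin_181

open Crest.Agent.R096.Ce_537 Crest.Agent.R096.Bd_416 Crest.Agent.R096.Xp_537
open Crest.Agent.R096.Brk1_582 Crest.Agent.R096.Brk2_582 Crest.Agent.R096.Brk6_582
open Crest.Agent.R096.Grd_714

/-! ### piecewise linear functions with real nodes -/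

/-- the increasing PL function with `nuR n M i = n i` -/
noncomputable def nuR (n : ℕ → ℝ) (M : ℕ) (x : ℝ) : ℝ :=
  ∑ i ∈ Finset.range M, (n (i+1) - n i) * c01 (x - i)

/-- its inverse -/
noncomputable def niR (n : ℕ → ℝ) (M : ℕ) (y : ℝ) : ℝ :=
  ∑ i ∈ Finset.range M, c01 ((y - n i) / (n (i+1) - n i))

section nu

variable {n : ℕ → ℝ} (hN : StrictMono n) (h0 : n 0 = 0) {M : ℕ}
include hN

lemma nR_pos (i : ℕ) : 0 < n (i+1) - n i := by
  have := hN (Nat.lt_succ_self i)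
  linarith

lemma nuR_mono : Monotone (nuR n M) := by
  intro x y h
  refine Finset.sum_le_sum fun i _ => ?_
  exact mul_le_mul_of_nonneg_left (c01_mono (by linarith)) (nR_pos hN i).le

lemma niR_mono : Monotone (niR n M) := by
  intro x y h
  refine Finset.sum_le_sum fun i _ => c01_mono ?_
  exact div_le_div_of_nonneg_right (by linarith) (nR_pos hN i).le

include h0 in
lemma nuR_ge (k : ℕ) {x : ℝ} (h : (k:ℝ) ≤ x) : nuR n k x = n k := by
  induction k with
  | zero => simp [nuR, h0]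
  | succ k ih =>
    push_cast at h
    have e : nuR n (k+1) x = nuR n k x + (n (k+1) - n k) * c01 (x - k) :=
      Finset.sum_range_succ _ _
    rw [e, ih (by linarith), c01_of_ge (by linarith)]; ring

lemma nuR_le {k : ℕ} (hk : k ≤ M) {x : ℝ} (h : x ≤ k) : nuR n M x = nuR n k x := by
  induction M, hk using Nat.le_induction with
  | base => rfl
  | succ j hn ih =>
    have h1 : (k:ℝ) ≤ j := by exact_mod_cast hn
    have e : nuR n (j+1) x = nuR n j x + (n (j+1) - n j) * c01 (x - j) :=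
      Finset.sum_range_succ _ _
    rw [e, ih, c01_of_le (by linarith)]; ring

include h0 in
lemma niR_ge (k : ℕ) {y : ℝ} (h : n k ≤ y) : niR n k y = k := by
  induction k with
  | zero => simp [niR]
  | succ k ih =>
    have h1 := hN.monotone (Nat.le_succ k)
    have h2 := nR_pos hN k
    have e : niR n (k+1) y = niR n k y + c01 ((y - n k) / (n (k+1) - n k)) :=
      Finset.sum_range_succ _ _
    rw [e, ih (h1.trans h), c01_of_ge ((one_le_div h2).2 (by linarith))]; push_cast; ring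

lemma niR_le {k : ℕ} (hk : k ≤ M) {y : ℝ} (h : y ≤ n k) : niR n M y = niR n k y := by
  induction M, hk using Nat.le_induction with
  | base => rfl
  | succ j hn ih =>
    have h1 := hN.monotone hn
    have h2 := nR_pos hN j
    have e : niR n (j+1) y = niR n j y + c01 ((y - n j) / (n (j+1) - n j)) :=
      Finset.sum_range_succ _ _
    rw [e, ih, c01_of_le (div_nonpos_of_nonpos_of_nonneg (by linarith) h2.le)]; ring

include h0

lemma nuR_eq {i : ℕ} (hi : i < M) {x : ℝ} (h1 : (i:ℝ) ≤ x) (h2 : x ≤ i + 1) :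
    nuR n M x = n i + (n (i+1) - n i) * (x - i) := by
  rw [nuR_le hN (k := i+1) hi (by push_cast; exact h2)]
  have e : nuR n (i+1) x = nuR n i x + (n (i+1) - n i) * c01 (x - i) :=
    Finset.sum_range_succ _ _
  rw [e, nuR_ge hN h0 i h1, c01_of_mem (by linarith) (by linarith)]

lemma niR_eq {i : ℕ} (hi : i < M) {y : ℝ} (h1 : n i ≤ y) (h2 : y ≤ n (i+1)) :
    niR n M y = i + (y - n i) / (n (i+1) - n i) := by
  have h3 := nR_pos hN i
  rw [niR_le hN (k := i+1) hi h2]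
  have e : niR n (i+1) y = niR n i y + c01 ((y - n i) / (n (i+1) - n i)) :=
    Finset.sum_range_succ _ _
  rw [e, niR_ge hN h0 i h1, c01_of_mem (div_nonneg (by linarith) h3.le)
    ((div_le_one h3).2 (by linarith))]

lemma nuR_nat {i : ℕ} (hi : i ≤ M) : nuR n M i = n i := by
  rw [nuR_le hN hi le_rfl, nuR_ge hN h0 i le_rfl]

lemma niR_nat {i : ℕ} (hi : i ≤ M) : niR n M (n i) = i := by
  rw [niR_le hN hi le_rfl, niR_ge hN h0 i le_rfl]

lemma exists_intR {y : ℝ} (hy0 : 0 ≤ y) (hM : 0 < M) (hy : y ≤ n M) :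
    ∃ i < M, n i ≤ y ∧ y ≤ n (i+1) := by
  induction M with
  | zero => exact absurd hM (lt_irrefl _)
  | succ k ih =>
    by_cases h : y ≤ n k
    · rcases Nat.eq_zero_or_pos k with rfl | hn
      · exact ⟨0, hM, by rw [h0]; exact hy0, hy⟩
      · obtain ⟨i, hi, h1⟩ := ih hn h
        exact ⟨i, by omega, h1⟩
    · exact ⟨k, Nat.lt_succ_self k, (not_le.1 h).le, hy⟩

lemma niR_nuR (hM : 0 < M) {x : ℝ} (hx : x ∈ Icc (0:ℝ) M) : niR n M (nuR n M x) = x := by
  obtain ⟨i, hi, h1, h2⟩ := exists_int (N := id) strictMono_id rfl hx.1 hM hx.2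
  simp only [id] at h1 h2
  push_cast at h2
  have h3 := nR_pos hN i
  have h4 := nuR_eq hN h0 hi h1 h2
  have h5 : 0 ≤ (n (i+1) - n i) * (x - i) := mul_nonneg h3.le (by linarith)
  have h6 : (n (i+1) - n i) * (x - i) ≤ n (i+1) - n i :=
    mul_le_of_le_one_right h3.le (by linarith)
  rw [niR_eq hN h0 hi (by rw [h4]; linarith) (by rw [h4]; linarith), h4]
  field_simp
  ring

lemma nuR_niR (hM : 0 < M) {y : ℝ} (hy : y ∈ Icc (0:ℝ) (n M)) : nuR n M (niR n M y) = y := by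
  obtain ⟨i, hi, h1, h2⟩ := exists_intR hN h0 hy.1 hM hy.2
  have h3 := nR_pos hN i
  have h4 := niR_eq hN h0 hi h1 h2
  have h5 : 0 ≤ (y - n i) / (n (i+1) - n i) := div_nonneg (by linarith) h3.le
  have h6 : (y - n i) / (n (i+1) - n i) ≤ 1 := (div_le_one h3).2 (by linarith)
  rw [nuR_eq hN h0 hi (by rw [h4]; linarith) (by rw [h4]; linarith), h4]
  field_simp
  ring

end nu

lemma pl_nuR (n : ℕ → ℝ) (M : ℕ) (K : Set ℝ) : PLOn (nuR n M) K :=
  pl_sum _ fun i _ => pl_mul _ (pl_c01 (pl_sub_const (plOn_id _) (i:ℝ)))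

lemma pl_niR (n : ℕ → ℝ) (M : ℕ) (K : Set ℝ) : PLOn (niR n M) K :=
  pl_sum _ fun i _ => pl_c01 (pl_div (pl_sub_const (plOn_id _) (n i)) _)

variable {E : Type*} [NormedAddCommGroup E] [NormedSpace ℝ E] {I : Type*}
variable {b : Set I → E} {P : I → Set E} {m m' : I → ℕ}

section N

variable {n : I → ℕ → ℝ} (hN : ∀ a, StrictMono (n a)) (hN0 : ∀ a, n a 0 = 0)
  (hNm : ∀ a, n a (m' a) = m a)
include hN hN0 hNm

lemma nuR_Nu : Nu (fun a => nuR (n a) (m' a)) m' m where
  pl a := pl_nuR _ _ _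
  mem a x hx := by
    have e0 : nuR (n a) (m' a) 0 = 0 := by
      have := nuR_nat (hN a) (hN0 a) (Nat.zero_le (m' a))
      rw [hN0] at this; simpa using this
    have e1 : nuR (n a) (m' a) (m' a) = m a := by
      rw [nuR_nat (hN a) (hN0 a) le_rfl, hNm]
    constructor
    · rw [← e0]; exact nuR_mono (hN a) hx.1
    · rw [← e1]; exact nuR_mono (hN a) hx.2
  zero a := by
    have := nuR_nat (hN a) (hN0 a) (Nat.zero_le (m' a))
    rw [hN0] at this; simpa using this
  lt a x hx h := by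
    rcases hx.2.eq_or_lt with e | e
    · rw [e] at h
      have e1 : nuR (n a) (m' a) (m' a) = m a := by
        rw [nuR_nat (hN a) (hN0 a) le_rfl, hNm]
      simp only [e1] at h
      exact absurd h (lt_irrefl _)
    · exact e

lemma niR_Nu : Nu (fun a => niR (n a) (m' a)) m m' where
  pl a := pl_niR _ _ _
  mem a x hx := by
    have e0 : niR (n a) (m' a) 0 = 0 := by
      have := niR_nat (hN a) (hN0 a) (Nat.zero_le (m' a))
      rw [hN0] at this; simpa using this
    have e1 : niR (n a) (m' a) (m a) = m' a := by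
      rw [← hNm, niR_nat (hN a) (hN0 a) le_rfl]
    constructor
    · rw [← e0]; exact niR_mono (hN a) hx.1
    · rw [← e1]; exact niR_mono (hN a) hx.2
  zero a := by
    have := niR_nat (hN a) (hN0 a) (Nat.zero_le (m' a))
    rw [hN0] at this; simpa using this
  lt a x hx h := by
    rcases hx.2.eq_or_lt with e | e
    · rw [e] at h
      have e1 : niR (n a) (m' a) (m a) = m' a := by
        rw [← hNm, niR_nat (hN a) (hN0 a) le_rfl]
      simp only [e1] at h
      exact absurd h (lt_irrefl _)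
    · exact e

variable {La : Set E} [CompleteSpace E] (F : Foam La P b 4) (hQ : Quads P b)
  (hm' : ∀ c, 0 < m' c) (hm : ∀ c, 0 < m c)

/-- **`R_c` on the boundary of `P_c`, real nodes** -/
noncomputable def rcR (c0 : I) : PLEquiv (bdP P b m' c0) (bdP P b m c0) := by
  refine rcE F hQ hm' hm (nuR_Nu hN hN0 hNm) (niR_Nu hN hN0 hNm)
    (fun a x hx => niR_nuR (hN a) (hN0 a) (hm' a) hx)
    (fun a y hy => nuR_niR (hN a) (hN0 a) (hm' a) (by rw [hNm]; exact hy))
    (c0 := c0) (Hc_self _ _) (Hc_self _ _) ?_ ?_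
  · intro a x hx h1 h2
    have h3 := (nuR_Nu hN hN0 hNm).mem a x hx
    refine ⟨by simpa using h3.1, ?_⟩
    by_cases h : a = c0
    · subst h
      rw [Hc_self] at h2 ⊢
      have : x = 0 := le_antisymm (by simpa using h2) hx.1
      rw [this]
      have h4 : nuR (n a) (m' a) 0 = 0 := (nuR_Nu hN hN0 hNm).zero a
      rw [h4]; simp
    · rw [Hc_ne m h]; exact h3.2
  · intro a x hx h1 h2
    have h3 := (niR_Nu hN hN0 hNm).mem a x hx
    refine ⟨by simpa using h3.1, ?_⟩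
    by_cases h : a = c0
    · subst h
      rw [Hc_self] at h2 ⊢
      have : x = 0 := le_antisymm (by simpa using h2) hx.1
      rw [this]
      have h4 : niR (n a) (m' a) 0 = 0 := (niR_Nu hN hN0 hNm).zero a
      rw [h4]; simp
    · rw [Hc_ne m' h]; exact h3.2

lemma rcR_f (c0 : I) (y : E) : (rcR hN hN0 hNm F hQ hm' hm c0).f y =
    Tq b m (fun a => nuR (n a) (m' a) (co P b m' y a)) := rfl

lemma rcR_g (c0 : I) (y : E) : (rcR hN hN0 hNm F hQ hm' hm c0).g y =
    Tq b m' (fun a => niR (n a) (m' a) (co P b m y a)) := rfl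

/-- the M-cells go to real boxes -/
lemma rcR_image {c0 : I} {L H : I → ℕ} (hH : ∀ a, H a ≤ m' a) (hL : ∀ a, L a ≤ m' a) :
    (rcR hN hN0 hNm F hQ hm' hm c0).f '' bxS P b m' L H =
      bxR P b m (fun a => n a (L a)) (fun a => n a (H a)) := by
  apply Subset.antisymm
  · rintro _ ⟨y, hy, rfl⟩
    obtain ⟨h1, h2, h3⟩ := co_bxS F hQ hm' hy
    refine ⟨_, ⟨G2_nu (nuR_Nu hN hN0 hNm) hm' hm h1, fun a => ⟨?_, ?_⟩⟩, rfl⟩
    · show n a (L a) ≤ nuR (n a) (m' a) (co P b m' y a)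
      rw [← nuR_nat (hN a) (hN0 a) (hL a)]; exact nuR_mono (hN a) (h2 a).1
    · show nuR (n a) (m' a) (co P b m' y a) ≤ n a (H a)
      rw [← nuR_nat (hN a) (hN0 a) (hH a)]; exact nuR_mono (hN a) (h2 a).2
  · rintro _ ⟨g, ⟨hg, hb⟩, rfl⟩
    have hg' := G2_nu (niR_Nu hN hN0 hNm) hm hm' hg
    refine ⟨Tq b m' (fun a => niR (n a) (m' a) (g a)), ⟨_, ⟨hg', fun a => ⟨?_, ?_⟩⟩, rfl⟩, ?_⟩
    · show (L a : ℝ) ≤ niR (n a) (m' a) (g a)
      rw [← niR_nat (hN a) (hN0 a) (hL a)]; exact niR_mono (hN a) (hb a).1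
    · show niR (n a) (m' a) (g a) ≤ (H a : ℝ)
      rw [← niR_nat (hN a) (hN0 a) (hH a)]; exact niR_mono (hN a) (hb a).2
    · show Tq b m (fun a => nuR (n a) (m' a)
        (co P b m' (Tq b m' (fun a => niR (n a) (m' a) (g a))) a)) = _
      rw [co_Tq F hQ hm' hg']
      congr 1
      funext a
      exact nuR_niR (hN a) (hN0 a) (hm' a) (by rw [hNm]; exact G2_mem hm hg a)

end N

section inv

variable {V : Type*} [NormedAddCommGroup V] [NormedSpace ℝ V] {Q : Type} [PartialOrder Q]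
  {dim : Q → ℕ} {J Fam : Type} {Cm : Cmb Q dim J Fam} {K : Q → Set V} {D : Set Q}
variable {n : I → ℕ → ℝ} (hN : ∀ a, StrictMono (n a)) (hN0 : ∀ a, n a 0 = 0)
  (hNm : ∀ a, n a (m' a) = m a)
variable {La : Set E} [CompleteSpace E] [FiniteDimensional ℝ E] (F : Foam La P b 4)
  (hQ : Quads P b) (hne : ∀ c, (P c).Nonempty) (hm' : ∀ c, 0 < m' c) (hm : ∀ c, 0 < m c)
variable {κ : ℝ} (hκ : 0 < κ ∧ κ < 1) (c : Cel P m) (fa : J → I) (lv : J → ℕ) {S : Set V} {c0 : I}
  (th : PLEquiv S (bdP P b m' c0)) (N : I → ℕ → ℕ) (hnN : ∀ a i, i ≤ m' a → |n a i - N a i| < κ / 2)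

include hκ hnN in
/-- **BASE-INV for the M-mesh, real nodes**: `th_c : S → bd P_c`, M-cell `q` = `th_c⁻¹` of the cell
`gx q` of the grid `m'` -/
theorem inv_base_mesh_R (hinj : ∀ j j', fa j = fa j' → lv j = lv j' → j = j')
    (hD : ∀ q ∈ D, ∀ p < q, p ∈ D) (gx : Q → Gx P m')
    (gx_mono : ∀ {p q : Q}, p < q → q ∈ D → gx p ≤ gx q)
    (hK : ∀ q ∈ D, K q = {z | z ∈ S ∧ th.f z ∈ Tq b m' '' (gx q).bx})
    (hKc : ∀ q ∈ D, IsClosed (K q)) (h0 : ∀ q ∈ D, (gx q).hi c0 = 0)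
    (one : ∀ q ∈ D, ∀ x x' : Cm.I q, Cm.col q x = Cm.col q x' → x = x')
    (ex : ∀ q ∈ D, ∀ j, N (fa j) ((gx q).lo (fa j)) ≤ lv j →
      lv j < N (fa j) ((gx q).hi (fa j)) → ∃ x, Cm.col q x = j)
    (hfam : ∀ j j', Cm.fam j = Cm.fam j' → fa j = fa j')
    (lab1 : ∀ q ∈ D, ∀ j, (∀ x, Cm.col q x ≠ j) → lv j < N (fa j) ((gx q).lo (fa j)) →
      Cm.Lab j q = 1)
    (lab0' : ∀ q ∈ D, ∀ j, (∀ x, Cm.col q x ≠ j) → N (fa j) ((gx q).hi (fa j)) ≤ lv j →
      Cm.Lab j q = 0)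
    (sd : ∀ q ∈ D, ∀ x x', x ≠ x' → Cm.fam (Cm.col q x) = Cm.fam (Cm.col q x') →
      Cm.side q x x' = Cm.Lab (Cm.col q x') q +
        if lv (Cm.col q x') < lv (Cm.col q x) then 1 else 0) :
    Inv Cm K D (ekS (grid F hQ hne hm) b κ c fa lv (th.trans (rcR hN hN0 hNm F hQ hm' hm c0)))
      (fun q x => K q ∩ (ekS (grid F hQ hne hm) b κ c fa lv
        (th.trans (rcR hN hN0 hNm F hQ hm' hm c0))).B (Cm.col q x))
      (fun q x z => sg (Cm.Lab (Cm.col q x) q) *
        ((ekS (grid F hQ hne hm) b κ c fa lv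
          (th.trans (rcR hN hN0 hNm F hQ hm' hm c0))).G (Cm.col q x) z - 1/2)) := by
  refine inv_base_R F hQ hne hm hκ c fa lv _ hinj hD (fun {p q} h hq => ?_) hKc
    (fun q hq => by rw [hK q hq]; exact fun z hz => hz.1)
    (fun q a => n a ((gx q).lo a)) (fun q a => n a ((gx q).hi a))
    (fun q a => N a ((gx q).lo a)) (fun q a => N a ((gx q).hi a))
    (fun q hq a => hnN a _ (((gx q).le a).trans ((gx q).him a)))
    (fun q hq a => hnN a _ ((gx q).him a)) (fun q hq => ?_)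
    (fun q hq => ⟨c0, by show n c0 ((gx q).hi c0) = 0; rw [h0 q hq, hN0]⟩) one ex hfam lab1 lab0' sd
  · rw [hK q hq, hK p (hD q hq p h)]
    exact fun z hz => ⟨hz.1, image_mono (bx_mono (gx_mono h hq)) hz.2⟩
  · have h1 : th.f '' K q = Tq b m' '' (gx q).bx := by
      rw [hK q hq]
      apply Subset.antisymm
      · rintro _ ⟨z, hz, rfl⟩; exact hz.2
      · intro y hy
        have hy' : y ∈ bdP P b m' c0 := by
          rw [← bxS_gx hm'] at hy
          exact bxS_sub_bdP hm' (h0 q hq) hy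
        refine ⟨th.g y, ⟨th.mg hy', ?_⟩, th.ri y hy'⟩
        rw [th.ri y hy']; exact hy
    have h2 : (th.trans (rcR hN hN0 hNm F hQ hm' hm c0)).f '' K q =
        (rcR hN hN0 hNm F hQ hm' hm c0).f '' (th.f '' K q) := by
      rw [← image_comp]; rfl
    rw [h2, h1, ← bxS_gx hm']
    exact rcR_image hN hN0 hNm F hQ hm' hm (fun a => (gx q).him a)
      (fun a => ((gx q).le a).trans ((gx q).him a))

end inv

end Crest.Agent.R096.Bin_181
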