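import Crest.Agent.R096.Be2_416
import Crest.Agent.R096.Bin9_181

/-!
# R096 (row 96), BASE-DISC-1 (helper63, for helper446): 416's `BoxG` for the M-mesh of an exact core

`boxG_mesh_R` : the hypotheses of 181's `inv_base_mesh_R` (+ `dim2`, `dfree`, `hbd`, `rng`) give
416's `BoxG` with `e = th.trans (rcR ..)`, `L = n (lo)`, `H = n (hi)`, `rL = N (lo)`, `rH = N (hi)`.
-/

set_option autoImplicit false
set_option linter.unusedSectionVars false

open Set Metric

namespace Crest.Agent.R096.Bxg_63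

open Crest.Agent.R096.Ce_537 Crest.Agent.R096.Bd_416 Crest.Agent.R096.Xp_537
open Crest.Agent.R096.Brk1_582 Crest.Agent.R096.Brk2_582 Crest.Agent.R096.Brk6_582
open Crest.Agent.R096.Grd_714 Crest.Agent.R096.Bin_181 Crest.Agent.R096.Be_416

variable {E : Type*} [NormedAddCommGroup E] [NormedSpace ℝ E] {I : Type*}
variable {b : Set I → E} {P : I → Set E} {m m' : I → ℕ}
variable {V : Type*} [NormedAddCommGroup V] [NormedSpace ℝ V] [FiniteDimensional ℝ V] {Q : Type} [PartialOrder Q]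
  {dim : Q → ℕ} {J Fam : Type} {Cm : Cmb Q dim J Fam} {K : Q → Set V} {D : Set Q}
variable {n : I → ℕ → ℝ} (hN : ∀ a, StrictMono (n a)) (hN0 : ∀ a, n a 0 = 0)
  (hNm : ∀ a, n a (m' a) = m a)
variable {La : Set E} [CompleteSpace E] [FiniteDimensional ℝ E] (F : Foam La P b 4)
  (hQ : Quads P b) (hm' : ∀ c, 0 < m' c) (hm : ∀ c, 0 < m c)
variable {κ : ℝ} (fa : J → I) (lv : J → ℕ) {S : Set V} {c0 : I}
  (th : PLEquiv S (bdP P b m' c0)) (N : I → ℕ → ℕ) (hnN : ∀ a i, i ≤ m' a → |n a i - N a i| < κ / 2)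

section
include hN hN0

/-- values of `nuR` at equal arguments -/
lemma nuR_iff {a : I} (ha : 0 < m' a) {x : ℝ} (hx : x ∈ Icc (0 : ℝ) (m' a)) {i : ℕ} (hi : i ≤ m' a) :
    nuR (n a) (m' a) x = n a i ↔ x = i := by
  constructor
  · intro h
    have h1 := niR_nuR (hN a) (hN0 a) ha hx
    rw [h, niR_nat (hN a) (hN0 a) hi] at h1
    exact h1.symm
  · rintro rfl
    exact nuR_nat (hN a) (hN0 a) hi

include hNm in
/-- a real box between mesh values lies in the 2-skeleton -/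
lemma full_box (q : Gx P m') {g : I → ℝ} (hg : ∀ c, n c (q.lo c) ≤ g c ∧ g c ≤ n c (q.hi c)) :
    (fun c => niR (n c) (m' c) (g c)) ∈ q.bx ∧
      (fun c => nuR (n c) (m' c) (niR (n c) (m' c) (g c))) = g := by
  have hlo : ∀ c, q.lo c ≤ m' c := fun c => (q.le c).trans (q.him c)
  refine ⟨fun c => ⟨?_, ?_⟩, ?_⟩
  · show (q.lo c : ℝ) ≤ niR (n c) (m' c) (g c)
    rw [← niR_nat (hN c) (hN0 c) (hlo c)]
    exact niR_mono (hN c) (hg c).1
  · show niR (n c) (m' c) (g c) ≤ (q.hi c : ℝ)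
    rw [← niR_nat (hN c) (hN0 c) (q.him c)]
    exact niR_mono (hN c) (hg c).2
  · funext c
    rcases Nat.eq_zero_or_pos (m' c) with h0 | hc
    · have e1 : q.lo c = 0 := by have := hlo c; omega
      have e2 : q.hi c = 0 := by have := q.him c; omega
      have h := hg c
      rw [e1, e2, hN0] at h
      have h3 : g c = 0 := le_antisymm h.2 h.1
      rw [h3, h0]
      simp [nuR]
    · refine nuR_niR (hN c) (hN0 c) hc ⟨?_, ?_⟩
      · refine le_trans ?_ (hg c).1
        rw [← hN0 c]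
        exact (hN c).monotone (Nat.zero_le _)
      · exact (hg c).2.trans ((hN c).monotone (q.him c))

end

include hnN in
/-- **BASE-DISC-1: the M-mesh of an exact core gives 416's `BoxG`** -/
theorem boxG_mesh_R (hinj : ∀ j j', fa j = fa j' → lv j = lv j' → j = j')
    (hD : ∀ q ∈ D, ∀ p < q, p ∈ D) (gx : Q → Gx P m')
    (gx_mono : ∀ {p q : Q}, p < q → q ∈ D → gx p ≤ gx q)
    (hK : ∀ q ∈ D, K q = {z | z ∈ S ∧ th.f z ∈ Tq b m' '' (gx q).bx})
    (h0 : ∀ q ∈ D, (gx q).hi c0 = 0)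
    (dim2 : ∀ q ∈ D, dim q ≤ 2) (dfree : ∀ q ∈ D, dim q = (gx q).free.ncard)
    (hbd : ∀ q ∈ D, dim q = 2 → ∀ z ∈ K q, (z ∈ bdS K q ↔ ∃ a ∈ (gx q).free,
      co P b m' (th.f z) a = (gx q).lo a ∨ co P b m' (th.f z) a = (gx q).hi a))
    (rng : ∀ q ∈ D, ∀ x : Cm.I q, N (fa (Cm.col q x)) ((gx q).lo (fa (Cm.col q x))) ≤ lv (Cm.col q x) ∧
      lv (Cm.col q x) < N (fa (Cm.col q x)) ((gx q).hi (fa (Cm.col q x))))
    (one : ∀ q ∈ D, ∀ x x' : Cm.I q, Cm.col q x = Cm.col q x' → x = x') :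
    BoxG Cm K D P b m κ fa lv (th.trans (rcR hN hN0 hNm F hQ hm' hm c0))
      (fun q a => n a ((gx q).lo a)) (fun q a => n a ((gx q).hi a))
      (fun q a => N a ((gx q).lo a)) (fun q a => N a ((gx q).hi a)) := by
  have hlo : ∀ q : Gx P m', ∀ c, q.lo c ≤ m' c := fun q c => (q.le c).trans (q.him c)
  have hlt : ∀ (q : Gx P m') (a : I), n a (q.lo a) < n a (q.hi a) ↔ a ∈ q.free := by
    intro q a
    rw [(hN a).lt_iff_lt]
    exact Iff.rfl
  have heq : ∀ (q : Gx P m') (a : I), a ∉ q.free → n a (q.lo a) = n a (q.hi a) := by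
    intro q a ha
    rw [Gx.lo_eq ha]
  have hcobx : ∀ q ∈ D, ∀ z ∈ K q, co P b m' (th.f z) ∈ (gx q).bx := by
    intro q hq z hz
    rw [hK q hq] at hz
    exact co_mem F hQ hm' hz.2
  have hcof : ∀ q ∈ D, ∀ z ∈ K q, ∀ a,
      co P b m ((th.trans (rcR hN hN0 hNm F hQ hm' hm c0)).f z) a =
        nuR (n a) (m' a) (co P b m' (th.f z) a) := by
    intro q hq z hz a
    have hG : co P b m' (th.f z) ∈ G2 P m' := (gx q).bx_sub hm' (hcobx q hq z hz)
    have e : (th.trans (rcR hN hN0 hNm F hQ hm' hm c0)).f z =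
        Tq b m (fun a => nuR (n a) (m' a) (co P b m' (th.f z) a)) := rfl
    rw [e, co_Tq F hQ hm (G2_nu (nuR_Nu hN hN0 hNm) hm' hm hG)]
  refine
    { KS := fun q hq => by rw [hK q hq]; exact fun z hz => hz.1
      sub := fun {p q} h hq => ?_
      Ke := fun q hq => ?_
      full := fun q hq g hg => ?_
      le := fun q _ c => (hN c).monotone ((gx q).le c)
      zero := fun q hq => ⟨c0, by show n c0 ((gx q).hi c0) = 0; rw [h0 q hq, hN0]⟩
      aL := fun q _ a => hnN a _ (hlo (gx q) a)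
      aH := fun q _ a => hnN a _ ((gx q).him a)
      dim2 := dim2
      fr1 := fun q hq hd => ?_
      fr2 := fun q hq hd => ?_
      bd := fun q hq hd z hz => ?_
      rng := rng
      one := one
      inj := hinj }
  · -- sub
    rw [hK q hq, hK p (hD q hq p h)]
    exact fun z hz => ⟨hz.1, image_mono (bx_mono (gx_mono h hq)) hz.2⟩
  · -- Ke
    have h1 : th.f '' K q = Tq b m' '' (gx q).bx := by
      rw [hK q hq]
      apply Subset.antisymm
      · rintro _ ⟨z, hz, rfl⟩; exact hz.2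
      · intro y hy
        have hy' : y ∈ bdP P b m' c0 := by
          rw [← bxS_gx hm'] at hy
          exact bxS_sub_bdP hm' (h0 q hq) hy
        refine ⟨th.g y, ⟨th.mg hy', ?_⟩, th.ri y hy'⟩
        rw [th.ri y hy']; exact hy
    have h2 : (th.trans (rcR hN hN0 hNm F hQ hm' hm c0)).f '' K q =
        (rcR hN hN0 hNm F hQ hm' hm c0).f '' (th.f '' K q) := by
      rw [← image_comp]; rfl
    rw [h2, h1, ← bxS_gx hm']
    exact rcR_image hN hN0 hNm F hQ hm' hm (fun a => (gx q).him a)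
      (fun a => ((gx q).le a).trans ((gx q).him a))
  · -- full
    obtain ⟨h1, h2⟩ := full_box hN hN0 hNm (gx q) hg
    have h3 := G2_nu (nuR_Nu hN hN0 hNm) hm' hm ((gx q).bx_sub hm' h1)
    rw [h2] at h3
    exact h3
  · -- fr1
    rw [dfree q hq] at hd
    obtain ⟨a, ha⟩ := Set.ncard_eq_one.1 hd
    refine ⟨a, fun c hc => heq (gx q) c ?_⟩
    rw [ha]
    exact hc
  · -- fr2
    rw [dfree q hq] at hd
    obtain ⟨a, a', hne, ha⟩ := Set.ncard_eq_two.1 hd
    refine ⟨a, a', hne, (hlt (gx q) a).2 (by rw [ha]; simp), (hlt (gx q) a').2 (by rw [ha]; simp),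
      fun c hc hc' => heq (gx q) c ?_⟩
    rw [ha]
    simp [hc, hc']
  · -- bd
    rw [hbd q hq hd z hz]
    have hmem : ∀ a, co P b m' (th.f z) a ∈ Icc (0 : ℝ) (m' a) := fun a =>
      G2_mem hm' ((gx q).bx_sub hm' (hcobx q hq z hz)) a
    refine exists_congr fun a => ?_
    rw [hcof q hq z hz a, hlt (gx q) a, nuR_iff hN hN0 (hm' a) (hmem a) (hlo (gx q) a),
      nuR_iff hN hN0 (hm' a) (hmem a) ((gx q).him a)]

end Crest.Agent.R096.Bxg_63
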