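import Crest.Agent.R096.Be3_416
import Crest.Agent.R096.Be5_416
import Crest.Agent.R096.Bxg1_63
import Crest.Agent.R096.Arc15_778

/-!
# R096 (row 96), P4-MESH (helper416): BASE-INST

* `BaseC` : everything the mesh needs from the base on the cells `D`.
* `baseC_box` : the base of ONE type R core of a box foam (181 `inv_base_mesh_R`, 63 `boxG_mesh_R`,
  `BoxG.geoR`, `lb_base_box`).
* `base_all` : all cores together.
-/

set_option autoImplicit false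

open Set Metric Filter Topology

namespace Crest.Agent.R096.Be_416

open Crest.Agent.R096.Ce_537 Crest.Agent.R096.Bd_416 Crest.Agent.R096.Xp_537
open Crest.Agent.R096.Brk1_582 Crest.Agent.R096.Brk2_582 Crest.Agent.R096.Brk6_582
open Crest.Agent.R096.Grd_714 Crest.Agent.R096.Bin_181 Crest.Agent.R096.Arc_778
open Crest.Agent.R96.Nu1_199 Crest.Agent.R96.Nu3_199 Crest.Agent.R96.Nu5_199

set_option linter.unusedSectionVars false

variable {V : Type*} [NormedAddCommGroup V] [NormedSpace ℝ V] [FiniteDimensional ℝ V]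
  {Q : Type} [PartialOrder Q] {dim : Q → ℕ} {J Fam : Type} {Cm : Cmb Q dim J Fam}
  {K : Q → Set V}

/-- **the base** on the cells `D`, with the Lipschitz constant `K₀` (all frames) -/
structure BaseC (Cm : Cmb Q dim J Fam) (K : Q → Set V) (wt : J → ℝ) (K₀ : ℝ) (D : Set Q)
    (g : Gd V J) (P : ∀ q, Cm.I q → Set V) (c : ∀ q, Cm.I q → V → ℝ) : Prop where
  down : ∀ q ∈ D, ∀ p < q, p ∈ D
  inv : Inv Cm K D g P c
  geo : GeoR Cm K c D
  /-- all points of an edge belong to one family -/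
  fam1 : ∀ q ∈ D, dim q = 1 → ∀ x x' : Cm.I q, Cm.fam (Cm.col q x) = Cm.fam (Cm.col q x')
  num : ∀ q ∈ D, ∀ B : V ≃ᵃ[ℝ] V, ∀ δq : ℝ, 0 ≤ δq → ∀ x, ∀ z ∈ K q,
    LB B (K₀ * (AAc (dim q) (B '' K q) * (Wd Cm wt q + δq)) / wt (Cm.col q x)) (c q x) (K q) z

/-! ### one core of a box foam -/

section box

open Crest.Agent.R096.Bsp_628 Crest.Agent.R096.Brk3_582 Crest.Agent.R096.Brk5_582
  Crest.Agent.R096.Lbb_835 Crest.Agent.R096.Bxg_63

variable {κ' : Type*} [Fintype κ'] [Nonempty κ'] {La : Set (κ' → ℝ)} {Fm : Set (Bx κ')} {δ κ0 : ℝ}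
variable {D : Set Q}
variable {m : Fm → ℕ} {n : Fm → ℕ → ℝ} (hN : ∀ a, StrictMono (n a)) (hN0 : ∀ a, n a 0 = 0)
  {M : ℕ} (hM : 0 < M) (hNm : ∀ a, n a M = m a)
variable (F : Foam La (Pc Fm) (bc (F := Fm)) 4)
  (hQ : Quads (Pc Fm) (bc (F := Fm))) (hne : ∀ c, (Pc Fm c).Nonempty) (hm : ∀ c, 0 < m c)
variable {κ : ℝ} (hκ : 0 < κ ∧ κ < 1) (c : Cel (Pc Fm) m) (fa : J → Fm) (lv : J → ℕ) {S : Set V}
  {c0 : Fm} (th : PLEquiv S (bdP (Pc Fm) (bc (F := Fm)) (fun _ => M) c0)) (N : Fm → ℕ → ℕ)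
  (hnN : ∀ a i, i ≤ M → |n a i - N a i| < κ / 2)

include hκ hnN in
/-- **THE BASE OF ONE TYPE R CORE** -/
theorem baseC_box (BF : BoxFoam La Fm δ κ0) (hLa : IsOpen La) (h3 : Fintype.card κ' = 3)
    (hδ : 0 < δ) {R : ℝ} (hR : 0 < R) (hcmp : Cmp Fm R)
    (A : V →ᵃ[ℝ] (κ' → ℝ)) (hA : ∀ z ∈ S, th.f z = A z)
    (hinj : ∀ j j', fa j = fa j' → lv j = lv j' → j = j')
    (hD : ∀ q ∈ D, ∀ p < q, p ∈ D) (gx : Q → Gx (Pc Fm) (fun _ => M))
    (gx_mono : ∀ {p q : Q}, p < q → q ∈ D → gx p ≤ gx q)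
    (hK : ∀ q ∈ D, K q = {z | z ∈ S ∧ th.f z ∈ Tq (bc (F := Fm)) (fun _ => M) '' (gx q).bx})
    (hKc : ∀ q ∈ D, IsCompact (K q)) (hKv : ∀ q ∈ D, Convex ℝ (K q))
    (hKb : ∀ q ∈ D, IsBall (dim q) (K q) (K q \ ri (K q)))
    (h0 : ∀ q ∈ D, (gx q).hi c0 = 0)
    (dim2 : ∀ q ∈ D, dim q ≤ 2) (dfree : ∀ q ∈ D, dim q = (gx q).free.ncard)
    (hbd : ∀ q ∈ D, dim q = 2 → ∀ z ∈ K q, (z ∈ bdS K q ↔ ∃ a ∈ (gx q).free,
      co (Pc Fm) (bc (F := Fm)) (fun _ => M) (th.f z) a = (gx q).lo a ∨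
        co (Pc Fm) (bc (F := Fm)) (fun _ => M) (th.f z) a = (gx q).hi a))
    (rng : ∀ q ∈ D, ∀ x : Cm.I q, N (fa (Cm.col q x)) ((gx q).lo (fa (Cm.col q x))) ≤
      lv (Cm.col q x) ∧ lv (Cm.col q x) < N (fa (Cm.col q x)) ((gx q).hi (fa (Cm.col q x))))
    (one : ∀ q ∈ D, ∀ x x' : Cm.I q, Cm.col q x = Cm.col q x' → x = x')
    (ex : ∀ q ∈ D, ∀ j, N (fa j) ((gx q).lo (fa j)) ≤ lv j →
      lv j < N (fa j) ((gx q).hi (fa j)) → ∃ x, Cm.col q x = j)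
    (sur : ∀ a k, k < m a → ∃ j, fa j = a ∧ lv j = k) (hNM : ∀ a, N a M = m a)
    (hNmono : ∀ a, Monotone (N a))
    (hfam : ∀ j j', Cm.fam j = Cm.fam j' ↔ fa j = fa j')
    (lab1 : ∀ q ∈ D, ∀ j, (∀ x, Cm.col q x ≠ j) → lv j < N (fa j) ((gx q).lo (fa j)) →
      Cm.Lab j q = 1)
    (lab0' : ∀ q ∈ D, ∀ j, (∀ x, Cm.col q x ≠ j) → N (fa j) ((gx q).hi (fa j)) ≤ lv j →
      Cm.Lab j q = 0)
    (sd : ∀ q ∈ D, ∀ x x', x ≠ x' → Cm.fam (Cm.col q x) = Cm.fam (Cm.col q x') →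
      Cm.side q x x' = Cm.Lab (Cm.col q x') q +
        if lv (Cm.col q x') < lv (Cm.col q x) then 1 else 0)
    {wt : J → ℝ} (hw : ∀ j, 0 < wt j) (hwf : ∀ j j', fa j = fa j' → wt j = wt j') :
    BaseC Cm K wt (Kbase (Fintype.card κ') δ R κ) D
      (ekS (grid F hQ hne hm) (bc (F := Fm)) κ c fa lv
        (th.trans (rcR hN hN0 hNm F hQ (fun _ => hM) hm c0)))
      (fun q x => K q ∩ (ekS (grid F hQ hne hm) (bc (F := Fm)) κ c fa lv
        (th.trans (rcR hN hN0 hNm F hQ (fun _ => hM) hm c0))).B (Cm.col q x))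
      (fun q x z => sg (Cm.Lab (Cm.col q x) q) *
        ((ekS (grid F hQ hne hm) (bc (F := Fm)) κ c fa lv
          (th.trans (rcR hN hN0 hNm F hQ (fun _ => hM) hm c0))).G (Cm.col q x) z - 1/2)) where
  down := hD
  inv := inv_base_mesh_R hN hN0 hNm F hQ hne (fun _ => hM) hm hκ c fa lv th N hnN hinj hD gx
    gx_mono hK (fun q hq => (hKc q hq).isClosed) h0 one ex (fun j j' h => (hfam j j').1 h) lab1
    lab0' sd
  geo := (boxG_mesh_R hN hN0 hNm F hQ (fun _ => hM) hm fa lv th N hnN hinj hD gx gx_mono hK h0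
    dim2 dfree hbd rng one).geoR F hQ hne hm hκ c
  fam1 := fun q hq hd x x' => (hfam _ _).2
    ((boxG_mesh_R hN hN0 hNm F hQ (fun _ => hM) hm fa lv th N hnN hinj hD gx gx_mono hK h0
      dim2 dfree hbd rng one).fam1 hκ.2.le hq hd x x')
  num := fun q hq B δq hδq x z hz => by
    refine lb_base_box hN hN0 hM hNm F hQ hne hm hκ c fa lv th N hnN BF hLa h3 hδ hR hcmp A hA
      (gx q) (hK q hq) (h0 q hq) (hKv q hq) (hKc q hq) ⟨z, hz⟩ (hKb q hq) hw hwf (rng q hq)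
      (fun a k hk1 hk2 => ?_) hδq B x hz
    have hk3 : k < m a := by
      have h1 : N a ((gx q).hi a) ≤ N a M := hNmono a ((gx q).him a)
      rw [hNM] at h1
      omega
    obtain ⟨j, rfl, rfl⟩ := sur a k hk3
    obtain ⟨x', hx'⟩ := ex q hq j hk1 hk2
    exact ⟨x', by rw [hx'], by rw [hx']⟩

end box

/-! ### all cores -/

section all

variable {Ic : Type*} {S : Ic → Set V} {D : Ic → Set Q} {g : Ic → Gd V J}
  {P : Ic → ∀ q, Cm.I q → Set V} {c : Ic → ∀ q, Cm.I q → V → ℝ} {wt : J → ℝ} {K₀ : ℝ}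

/-- **BASE-ALL** -/
theorem base_all (hS : ∀ i i', i ≠ i' → Disjoint (S i) (S i')) (hK : ∀ i, ∀ q ∈ D i, K q ⊆ S i)
    (hne : ∀ q, (K q).Nonempty) (H : ∀ i, BaseC Cm K wt K₀ (D i) (g i) (P i) (c i)) :
    BaseC Cm K wt K₀ (⋃ i, D i) (ug S g) (uP D P) (uc D c) ∧
      ∀ i, ∀ q ∈ D i, ∀ z ∈ K q, EqAt (g i) (ug S g) z := by
  refine ⟨⟨down_union fun i => (H i).down,
    inv_union g P c hS hK hne (fun i => (H i).down) fun i => (H i).inv,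
    geoR_union c hS hK hne fun i => (H i).geo, fun q hq hd x x' => ?_,
    fun q hq B δq hδ x z hz => ?_⟩, fun i q hq z hz => ug_eqAt g hS (hK i q hq hz)⟩
  · obtain ⟨i, hi⟩ := mem_iUnion.1 hq
    exact (H i).fam1 q hi hd x x'
  · obtain ⟨i, hi⟩ := mem_iUnion.1 hq
    rw [uc_eq c hS hK hne hi]
    exact (H i).num q hi B δq hδ x z hz

end all

end Crest.Agent.R096.Be_416
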