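import Crest.Agent.R096.Be7_416
import Crest.Agent.R096.Ecm5_446

/-!
# R096 (row 96), P4-MESH (helper416): the base of one exact core from 446's `Disc` and 181's `MeshG`

`disc_baseC : Disc → MeshG → BaseC`.
-/

set_option autoImplicit false

open Set Metric Filter Topology

namespace Crest.Agent.R096.Be_416

open Crest.Agent.R096.Ce_537 Crest.Agent.R096.Bd_416 Crest.Agent.R096.Xp_537
open Crest.Agent.R096.Brk1_582 Crest.Agent.R096.Brk2_582 Crest.Agent.R096.Brk6_582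
open Crest.Agent.R096.Grd_714 Crest.Agent.R096.Bin_181 Crest.Agent.R096.Arc_778
open Crest.Agent.R096.Cin_181 Crest.Agent.R096.Ecm_446
open Crest.Agent.R096.Bsp_628 Crest.Agent.R096.Brk3_582 Crest.Agent.R096.Brk5_582
open Crest.Agent.R96.Nu1_199 Crest.Agent.R96.Nu3_199 Crest.Agent.R96.Nu5_199

set_option linter.unusedSectionVars false

variable {V : Type*} [NormedAddCommGroup V] [NormedSpace ℝ V] [FiniteDimensional ℝ V]
  {Q : Type} [PartialOrder Q] {dim : Q → ℕ} {J : Type}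
variable {κ' : Type} [Fintype κ'] [Nonempty κ'] {La : Set (κ' → ℝ)} {Fm : Set (Bx κ')} {δ κ0 : ℝ}
variable {Cm : Cmb Q dim J Fm} {K : Q → Set V} {D : Set Q}
variable {m : Fm → ℕ} {n : Fm → ℕ → ℝ} (hN : ∀ a, StrictMono (n a)) (hN0 : ∀ a, n a 0 = 0)
  {M : ℕ} (hM : 0 < M) (hNm : ∀ a, n a M = m a)
variable (F : Foam La (Pc Fm) (bc (F := Fm)) 4)
  (hQ : Quads (Pc Fm) (bc (F := Fm))) (hne : ∀ c, (Pc Fm c).Nonempty) (hm : ∀ c, 0 < m c)
variable {κ : ℝ} (hκ : 0 < κ ∧ κ < 1) (c : Cel (Pc Fm) m) {S : Set V}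
  {c0 : Fm} {th : PLEquiv S (bdP (Pc Fm) (bc (F := Fm)) (fun _ => M) c0)}
  {gx : Q → Gx (Pc Fm) (fun _ => M)} {N : Fm → ℕ → ℕ} {lv : J → ℕ}
  (hnN : ∀ a i, i ≤ M → |n a i - N a i| < κ / 2)

include hκ hnN in
/-- **THE BASE OF ONE EXACT CORE**: `Disc` (446) + `MeshG` (181) -/
theorem disc_baseC (X : Disc Cm D lv N (fun q => (gx q).lo) (fun q => (gx q).hi))
    (G : MeshG K D dim th gx)
    (BF : BoxFoam La Fm δ κ0) (hLa : IsOpen La) (h3 : Fintype.card κ' = 3)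
    (hδ : 0 < δ) {R : ℝ} (hR : 0 < R) (hcmp : Cmp Fm R)
    (A : V →ᵃ[ℝ] (κ' → ℝ)) (hA : ∀ z ∈ S, th.f z = A z)
    (hKc : ∀ q ∈ D, IsCompact (K q)) (hKv : ∀ q ∈ D, Convex ℝ (K q))
    (hKb : ∀ q ∈ D, IsBall (dim q) (K q) (K q \ ri (K q)))
    (sur : ∀ a k, k < m a → ∃ j, Cm.fam j = a ∧ lv j = k)
    (hNM : ∀ a, ∀ i ≤ M, N a i ≤ m a)
    {wt : J → ℝ} (hw : ∀ j, 0 < wt j) (hwf : ∀ j j', Cm.fam j = Cm.fam j' → wt j = wt j') :
    BaseC Cm K wt (Kbase (Fintype.card κ') δ R κ) D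
      (ekS (grid F hQ hne hm) (bc (F := Fm)) κ c Cm.fam lv
        (th.trans (rcR hN hN0 hNm F hQ (fun _ => hM) hm c0)))
      (fun q x => K q ∩ (ekS (grid F hQ hne hm) (bc (F := Fm)) κ c Cm.fam lv
        (th.trans (rcR hN hN0 hNm F hQ (fun _ => hM) hm c0))).B (Cm.col q x))
      (fun q x z => sg (Cm.Lab (Cm.col q x) q) *
        ((ekS (grid F hQ hne hm) (bc (F := Fm)) κ c Cm.fam lv
          (th.trans (rcR hN hN0 hNm F hQ (fun _ => hM) hm c0))).G (Cm.col q x) z - 1/2)) where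
  down := X.dn
  inv := X.inv hN hN0 hNm F hQ hne (fun _ => hM) hm hκ c hnN G fun q hq => (hKc q hq).isClosed
  geo := (X.boxG hN hN0 hNm F hQ (fun _ => hM) hm hnN G).geoR F hQ hne hm hκ c
  fam1 := fun q hq hd x x' =>
    (X.boxG hN hN0 hNm F hQ (fun _ => hM) hm hnN G).fam1 hκ.2.le hq hd x x'
  num := fun q hq B δq hδq x z hz =>
    lb_base_box hN hN0 hM hNm F hQ hne hm hκ c Cm.fam lv th N hnN BF hLa h3 hδ hR hcmp A hA
      (gx q) (G.K_eq q hq) (G.h0 q hq) (hKv q hq) (hKc q hq) ⟨z, hz⟩ (hKb q hq) hw hwf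
      (X.rng q hq) (X.ex' sur (fun q _ a => hNM a _ ((gx q).him a)) q hq) hδq B x hz

end Crest.Agent.R096.Be_416
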