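import Crest.Agent.R096.Be6_416

/-!
# R096 (row 96), P4-MESH (helper416): the base with a constant which does not depend on `κ`
-/

set_option autoImplicit false

open Set Metric Filter Topology

namespace Crest.Agent.R096.Be_416

open Crest.Agent.R096.Bd_416 Crest.Agent.R096.Xp_537 Crest.Agent.R096.Brk5_582
open Crest.Agent.R96.Nu1_199 Crest.Agent.R96.Nu3_199 Crest.Agent.R96.Nu5_199

section

variable {V : Type*} [NormedAddCommGroup V] [NormedSpace ℝ V] [FiniteDimensional ℝ V]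
  {Q : Type} [PartialOrder Q] {dim : Q → ℕ} {J Fam : Type} {Cm : Cmb Q dim J Fam}
  {K : Q → Set V}

theorem BaseC.mono {wt : J → ℝ} {K₀ K₁ : ℝ} {D : Set Q} {g : Gd V J}
    {P : ∀ q, Cm.I q → Set V} {c : ∀ q, Cm.I q → V → ℝ} (B : BaseC Cm K wt K₀ D g P c)
    (h : K₀ ≤ K₁) (hw : ∀ j, 0 < wt j) : BaseC Cm K wt K₁ D g P c where
  down := B.down
  inv := B.inv
  geo := B.geo
  fam1 := B.fam1
  num := fun q hq A δq hδ x z hz => by
    refine (B.num q hq A δq hδ x z hz).mono ?_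
    have h1 : 0 ≤ AAc (dim q) (A '' K q) := (AAc_pos _ _).le
    have h2 : 0 ≤ Wd Cm wt q := Wd_nonneg hw q
    have h3 := hw (Cm.col q x)
    gcongr

end

theorem Kbase_le {d : ℕ} {δ R κ : ℝ} (hδ : 0 < δ) (hR : 0 < R) (h1 : κ ≤ 1/2) :
    Kbase d δ R κ ≤ 8 * (R * R) * Cs d δ R := by
  have h2 := Cs_nonneg (n := d) hδ hR
  unfold Kbase
  rw [div_le_iff₀ (by linarith)]
  have h3 : 0 ≤ (R * R) * Cs d δ R := by positivity
  nlinarith

/-- **the base with the constant `K₁ = 8 R² Cs`** (fixed before `e`, `κb ≤ 1/2`) -/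
theorem BaseC.of_Kbase {V : Type*} [NormedAddCommGroup V] [NormedSpace ℝ V]
    [FiniteDimensional ℝ V] {Q : Type} [PartialOrder Q] {dim : Q → ℕ} {J Fam : Type}
    {Cm : Cmb Q dim J Fam} {K : Q → Set V} {wt : J → ℝ} {d : ℕ} {δ R κ : ℝ} {D : Set Q} {g : Gd V J}
    {P : ∀ q, Cm.I q → Set V} {c : ∀ q, Cm.I q → V → ℝ}
    (B : BaseC Cm K wt (Kbase d δ R κ) D g P c) (hδ : 0 < δ) (hR : 0 < R) (h1 : κ ≤ 1/2)
    (hw : ∀ j, 0 < wt j) : BaseC Cm K wt (8 * (R * R) * Cs d δ R) D g P c :=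
  B.mono (Kbase_le hδ hR h1) hw

end Crest.Agent.R096.Be_416
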