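import Mathlib

/-!
Row 96, P5 / C3-BEL: the Cauchy transform on `C_c^∞(ℂ)`.
-/

open Set Metric MeasureTheory Filter Topology
open scoped ContDiff NNReal Real

namespace Crest.Agent.R096.BelA_205

noncomputable section

/-- directional derivative -/
def dd (v : ℂ) (u : ℂ → ℂ) (z : ℂ) : ℂ := fderiv ℝ u z v

/-- `∂u` -/
def dz (u : ℂ → ℂ) (z : ℂ) : ℂ := (dd 1 u z - Complex.I * dd Complex.I u z) / 2

/-- `∂̄u` -/
def dzb (u : ℂ → ℂ) (z : ℂ) : ℂ := (dd 1 u z + Complex.I * dd Complex.I u z) / 2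

/-- test functions with support in the closed ball of radius `R` -/
structure Tst (R : ℝ) (u : ℂ → ℂ) : Prop where
  smooth : ContDiff ℝ ∞ u
  zero : ∀ z, R < ‖z‖ → u z = 0

/-- Cauchy–Pompeiu for compactly supported functions. -/
theorem pompeiu {φ : ℂ → ℂ} (h1 : ContDiff ℝ 1 φ) {R : ℝ} (hR : ∀ z, R < ‖z‖ → φ z = 0) :
    ∫ ζ : ℂ, ζ⁻¹ * (dd 1 φ ζ + Complex.I * dd Complex.I φ ζ) = - (2 * π) * φ 0 := by
  have hR0 : ∃ R' : ℝ, 0 < R' ∧ ∀ z, R' < ‖z‖ → φ z = 0 := by
    refine ⟨max R 1, by positivity, fun z hz => hR z (lt_of_le_of_lt (le_max_left _ _) hz)⟩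
  obtain ⟨R, hRpos, hR⟩ := hR0
  have hdz : ∀ z, R < ‖z‖ → fderiv ℝ φ z = 0 := by
    intro z hz
    have : φ =ᶠ[𝓝 z] fun _ => (0:ℂ) := by
      filter_upwards [(isOpen_lt continuous_const continuous_norm).mem_nhds hz] with y hy
      exact hR y hy
    rw [this.fderiv_eq]; simp
  have hfd : Continuous (fderiv ℝ φ) := h1.continuous_fderiv (by norm_num)
  have hdiff : Differentiable ℝ φ := h1.differentiable (by norm_num)
  set A : ℝ → ℝ → ℂ := fun r θ =>
    fderiv ℝ φ (r * (Real.cos θ + Real.sin θ * Complex.I)) (Real.cos θ + Real.sin θ * Complex.I)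
    with hA
  set B : ℝ → ℝ → ℂ := fun r θ =>
    fderiv ℝ φ (r * (Real.cos θ + Real.sin θ * Complex.I)) (-Real.sin θ + Real.cos θ * Complex.I)
    with hB
  have hAc : Continuous fun p : ℝ × ℝ => A p.1 p.2 := by
    simp only [hA]
    apply Continuous.clm_apply
    · exact hfd.comp (by fun_prop)
    · fun_prop
  have hBc : Continuous fun p : ℝ × ℝ => B p.1 p.2 := by
    simp only [hB]
    apply Continuous.clm_apply
    · exact hfd.comp (by fun_prop)
    · fun_prop
  have hnorm : ∀ r θ : ℝ, ‖(r : ℂ) * (Real.cos θ + Real.sin θ * Complex.I)‖ = |r| := by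
    intro r θ
    have := Complex.norm_polarCoord_symm (r, θ)
    simp
  have hAz : ∀ r θ : ℝ, R < r → A r θ = 0 := by
    intro r θ hr
    simp only [hA]
    rw [hdz _ (by rw [hnorm]; exact lt_of_lt_of_le hr (le_abs_self r))]; simp
  have hBz : ∀ r θ : ℝ, R < r → B r θ = 0 := by
    intro r θ hr
    simp only [hB]
    rw [hdz _ (by rw [hnorm]; exact lt_of_lt_of_le hr (le_abs_self r))]; simp
  -- integrability on the strip
  have hint : ∀ C : ℝ × ℝ → ℂ, Continuous C → (∀ r θ : ℝ, R < r → C (r, θ) = 0) →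
      IntegrableOn C (Ioi (0:ℝ) ×ˢ Ioo (-π) π) := by
    intro C hC hCz
    have h1 : IntegrableOn C (Icc 0 R ×ˢ Icc (-π) π) :=
      hC.continuousOn.integrableOn_compact (isCompact_Icc.prod isCompact_Icc)
    have h2 : IntegrableOn C (Ioi R ×ˢ Ioo (-π) π) := by
      have : EqOn C (fun _ => 0) (Ioi R ×ˢ Ioo (-π) π) := by
        rintro ⟨r, θ⟩ ⟨hr, _⟩
        exact hCz r θ hr
      exact (integrableOn_zero).congr_fun this.symm (measurableSet_Ioi.prod measurableSet_Ioo)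
    refine (h1.union h2).mono_set ?_
    rintro ⟨r, θ⟩ ⟨hr, hθ⟩
    rcases le_or_gt r R with h | h
    · left; exact ⟨⟨le_of_lt hr, h⟩, ⟨le_of_lt hθ.1, le_of_lt hθ.2⟩⟩
    · right; exact ⟨h, hθ⟩
  have hAint := hint (fun p => A p.1 p.2) hAc (fun r θ h => hAz r θ h)
  have hBint := hint (fun p => B p.1 p.2) hBc (fun r θ h => hBz r θ h)
  rw [← Complex.integral_comp_polarCoord_symm]
  have hkey : ∀ p ∈ polarCoord.target,
      p.1 • ((Complex.polarCoord.symm p)⁻¹ * (dd 1 φ (Complex.polarCoord.symm p) +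
        Complex.I * dd Complex.I φ (Complex.polarCoord.symm p)))
      = A p.1 p.2 + Complex.I * B p.1 p.2 := by
    rintro ⟨r, θ⟩ ⟨hr, hθ⟩
    simp only [Complex.polarCoord_symm_apply, hA, hB, dd]
    set L := fderiv ℝ φ (r * (Real.cos θ + Real.sin θ * Complex.I)) with hL
    have e1 : L ((Real.cos θ : ℂ) + Real.sin θ * Complex.I)
        = Real.cos θ * L 1 + Real.sin θ * L Complex.I := by
      have : ((Real.cos θ : ℂ) + Real.sin θ * Complex.I)
          = (Real.cos θ) • (1:ℂ) + (Real.sin θ) • Complex.I := by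
        simp [Complex.real_smul]
      rw [this, map_add, map_smul, map_smul, Complex.real_smul, Complex.real_smul]
    have e2 : L (-(Real.sin θ : ℂ) + Real.cos θ * Complex.I)
        = -Real.sin θ * L 1 + Real.cos θ * L Complex.I := by
      have : (-(Real.sin θ : ℂ) + Real.cos θ * Complex.I)
          = (-Real.sin θ) • (1:ℂ) + (Real.cos θ) • Complex.I := by
        simp [Complex.real_smul]
      rw [this, map_add, map_smul, map_smul, Complex.real_smul, Complex.real_smul]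
      simp
    rw [e1, e2]
    have hr' : (r:ℂ) ≠ 0 := by
      have : (0:ℝ) < r := hr
      exact_mod_cast this.ne'
    have hcs : ((Real.cos θ : ℂ) + Real.sin θ * Complex.I) * (Real.cos θ - Real.sin θ * Complex.I) = 1 := by
      have h := Real.cos_sq_add_sin_sq θ
      have h' : (Real.cos θ : ℂ) ^ 2 + (Real.sin θ : ℂ) ^ 2 = 1 := by exact_mod_cast h
      linear_combination h' - (Real.sin θ : ℂ)^2 * Complex.I_sq
    have hne : ((Real.cos θ : ℂ) + Real.sin θ * Complex.I) ≠ 0 := by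
      intro h0; rw [h0] at hcs; simp at hcs
    have hinv : ((Real.cos θ : ℂ) + Real.sin θ * Complex.I)⁻¹ = Real.cos θ - Real.sin θ * Complex.I := by
      field_simp
      linear_combination -hcs
    rw [mul_inv, hinv, Complex.real_smul]
    have hrr : (r:ℂ) * (r:ℂ)⁻¹ = 1 := mul_inv_cancel₀ hr'
    have : (r:ℂ) * ((r:ℂ)⁻¹ * ((Real.cos θ : ℂ) - Real.sin θ * Complex.I) * (L 1 + Complex.I * L Complex.I))
        = ((Real.cos θ : ℂ) - Real.sin θ * Complex.I) * (L 1 + Complex.I * L Complex.I) := by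
      rw [← mul_assoc, ← mul_assoc, hrr, one_mul]
    rw [this]
    linear_combination (-(Real.sin θ : ℂ) * L Complex.I) * Complex.I_sq
  rw [setIntegral_congr_fun (polarCoord.open_target.measurableSet) hkey]
  have ht : polarCoord.target = Ioi (0:ℝ) ×ˢ Ioo (-π) π := rfl
  rw [ht, integral_add hAint (hBint.const_mul _), integral_const_mul]
  -- first integral
  have hder : ∀ θ r : ℝ, HasDerivAt (fun r : ℝ => φ (r * (Real.cos θ + Real.sin θ * Complex.I)))
      (A r θ) r := by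
    intro θ r
    have h2 : HasDerivAt (fun r : ℝ => (r:ℂ) * (Real.cos θ + Real.sin θ * Complex.I))
        (Real.cos θ + Real.sin θ * Complex.I) r := by
      have := (Complex.ofRealCLM.hasDerivAt (x := r)).mul_const ((Real.cos θ : ℂ) + Real.sin θ * Complex.I)
      simpa using this
    exact (hdiff _).hasFDerivAt.comp_hasDerivAt r h2
  have hderB : ∀ r θ : ℝ, HasDerivAt (fun θ : ℝ => φ (r * (Real.cos θ + Real.sin θ * Complex.I)))
      (r * B r θ) θ := by
    intro r θ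
    have h2 : HasDerivAt (fun θ : ℝ => (r:ℂ) * (Real.cos θ + Real.sin θ * Complex.I))
        (r * (-Real.sin θ + Real.cos θ * Complex.I)) θ := by
      have hc : HasDerivAt (fun θ : ℝ => (Real.cos θ : ℂ)) ((-Real.sin θ : ℝ) : ℂ) θ :=
        (Real.hasDerivAt_cos θ).ofReal_comp
      have hs : HasDerivAt (fun θ : ℝ => (Real.sin θ : ℂ)) ((Real.cos θ : ℝ) : ℂ) θ :=
        (Real.hasDerivAt_sin θ).ofReal_comp
      have := (hc.add (hs.mul_const Complex.I)).const_mul (r:ℂ)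
      simpa using this
    have h3 := (hdiff _).hasFDerivAt.comp_hasDerivAt θ h2
    have h4 : (fderiv ℝ φ ((r:ℂ) * (Real.cos θ + Real.sin θ * Complex.I)))
        ((r:ℂ) * (-Real.sin θ + Real.cos θ * Complex.I)) = r * B r θ := by
      have h5 : (r:ℂ) * (-Real.sin θ + Real.cos θ * Complex.I)
          = r • ((-Real.sin θ : ℂ) + Real.cos θ * Complex.I) := by rw [Complex.real_smul]
      simp only [hB]
      rw [h5, map_smul, Complex.real_smul]
    rw [h4] at h3
    exact h3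
  have hI1 : ∫ p in Ioi (0:ℝ) ×ˢ Ioo (-π) π, A p.1 p.2 = - (2 * π) * φ 0 := by
    have hA' : Integrable (fun p : ℝ × ℝ => A p.1 p.2)
        ((volume.restrict (Ioi (0:ℝ))).prod (volume.restrict (Ioo (-π) π))) := by
      rw [Measure.prod_restrict]; exact hAint
    rw [Measure.volume_eq_prod, ← Measure.prod_restrict, integral_prod_symm _ hA']
    have h0 : ∀ θ : ℝ, ∫ r in Ioi (0:ℝ), A r θ = - φ 0 := by
      intro θ
      have hcont : Continuous fun r : ℝ => A r θ :=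
        hAc.comp (continuous_id.prodMk continuous_const)
      have hi : IntegrableOn (fun r : ℝ => A r θ) (Ioi (0:ℝ)) := by
        have h1 : IntegrableOn (fun r : ℝ => A r θ) (Icc 0 R) :=
          hcont.continuousOn.integrableOn_compact isCompact_Icc
        have h2 : IntegrableOn (fun r : ℝ => A r θ) (Ioi R) := by
          have : EqOn (fun r : ℝ => A r θ) (fun _ => 0) (Ioi R) := fun r hr => hAz r θ hr
          exact (integrableOn_zero).congr_fun this.symm measurableSet_Ioi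
        refine (h1.union h2).mono_set ?_
        intro r hr
        rcases le_or_gt r R with h | h
        · left; exact ⟨le_of_lt hr, h⟩
        · right; exact h
      have hlim : Tendsto (fun r : ℝ => φ (r * (Real.cos θ + Real.sin θ * Complex.I))) atTop
          (𝓝 0) := by
        apply tendsto_const_nhds.congr'
        filter_upwards [eventually_gt_atTop R] with r hr
        exact (hR _ (by rw [hnorm]; exact lt_of_lt_of_le hr (le_abs_self r))).symm
      have := integral_Ioi_of_hasDerivAt_of_tendsto' (a := (0:ℝ))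
        (fun r _ => hder θ r) hi hlim
      rw [this]; simp
    simp only [h0]
    rw [setIntegral_const, Measure.real, Real.volume_Ioo, ENNReal.toReal_ofReal (by linarith [Real.pi_pos])]
    rw [Complex.real_smul]; push_cast; ring
  have hI2 : ∫ p in Ioi (0:ℝ) ×ˢ Ioo (-π) π, B p.1 p.2 = 0 := by
    have hB' : Integrable (fun p : ℝ × ℝ => B p.1 p.2)
        ((volume.restrict (Ioi (0:ℝ))).prod (volume.restrict (Ioo (-π) π))) := by
      rw [Measure.prod_restrict]; exact hBint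
    rw [Measure.volume_eq_prod, ← Measure.prod_restrict, integral_prod _ hB']
    have h0 : ∀ r ∈ Ioi (0:ℝ), ∫ θ in Ioo (-π) π, B r θ = 0 := by
      intro r hr
      have hr' : (r:ℂ) ≠ 0 := by
        have : (0:ℝ) < r := hr
        exact_mod_cast this.ne'
      have hcont : Continuous fun θ : ℝ => B r θ :=
        hBc.comp (continuous_const.prodMk continuous_id)
      rw [← integral_Ioc_eq_integral_Ioo, ← intervalIntegral.integral_of_le (by linarith [Real.pi_pos])]
      have h3 := intervalIntegral.integral_eq_sub_of_hasDerivAt (a := -π) (b := π)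
        (fun θ _ => hderB r θ) ((continuous_const.mul hcont).intervalIntegrable _ _)
      rw [intervalIntegral.integral_const_mul] at h3
      simp only [Real.cos_pi, Real.sin_pi, Real.cos_neg, Real.sin_neg, neg_zero, sub_self] at h3
      exact (mul_eq_zero.1 h3).resolve_left hr'
    rw [setIntegral_congr_fun measurableSet_Ioi h0]; simp
  rw [hI1, hI2]; simp


/-! ### Test functions -/

theorem Tst.compact {R : ℝ} {u : ℂ → ℂ} (h : Tst R u) : HasCompactSupport u := by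
  apply HasCompactSupport.intro (isCompact_closedBall (0:ℂ) R)
  intro z hz
  apply h.zero
  simpa using hz

theorem Tst.mono {R R' : ℝ} {u : ℂ → ℂ} (h : Tst R u) (hR : R ≤ R') : Tst R' u :=
  ⟨h.smooth, fun z hz => h.zero z (lt_of_le_of_lt hR hz)⟩

theorem Tst.diff {R : ℝ} {u : ℂ → ℂ} (h : Tst R u) : Differentiable ℝ u :=
  h.smooth.differentiable (by simp)

theorem contDiff_dd {u : ℂ → ℂ} (h : ContDiff ℝ ∞ u) (v : ℂ) : ContDiff ℝ ∞ (dd v u) := by
  have : ContDiff ℝ ∞ (fderiv ℝ u) := h.fderiv_right (by simp)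
  exact this.clm_apply contDiff_const

theorem fderiv_zero_of {R : ℝ} {u : ℂ → ℂ} (h : ∀ z, R < ‖z‖ → u z = 0) {z : ℂ} (hz : R < ‖z‖) :
    fderiv ℝ u z = 0 := by
  have : u =ᶠ[𝓝 z] fun _ => (0:ℂ) := by
    filter_upwards [(isOpen_lt continuous_const continuous_norm).mem_nhds hz] with y hy
    exact h y hy
  rw [this.fderiv_eq]; simp

theorem Tst.dd {R : ℝ} {u : ℂ → ℂ} (h : Tst R u) (v : ℂ) : Tst R (dd v u) := by
  refine ⟨contDiff_dd h.smooth v, fun z hz => ?_⟩
  simp [BelA_205.dd, fderiv_zero_of h.zero hz]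

theorem Tst.dz {R : ℝ} {u : ℂ → ℂ} (h : Tst R u) : Tst R (dz u) := by
  refine ⟨?_, fun z hz => ?_⟩
  · unfold BelA_205.dz
    have h1 := contDiff_dd h.smooth 1
    have h2 := contDiff_dd h.smooth Complex.I
    exact (h1.sub (contDiff_const.mul h2)).div_const _
  · simp [BelA_205.dz, (h.dd 1).zero z hz, (h.dd Complex.I).zero z hz]

theorem Tst.dzb {R : ℝ} {u : ℂ → ℂ} (h : Tst R u) : Tst R (dzb u) := by
  refine ⟨?_, fun z hz => ?_⟩
  · unfold BelA_205.dzb
    have h1 := contDiff_dd h.smooth 1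
    have h2 := contDiff_dd h.smooth Complex.I
    exact (h1.add (contDiff_const.mul h2)).div_const _
  · simp [BelA_205.dzb, (h.dd 1).zero z hz, (h.dd Complex.I).zero z hz]

theorem Tst.mul {R : ℝ} {u w : ℂ → ℂ} (h : Tst R u) (hw : ContDiff ℝ ∞ w) :
    Tst R (fun z => u z * w z) :=
  ⟨h.smooth.mul hw, fun z hz => by simp [h.zero z hz]⟩

theorem Tst.add {R : ℝ} {u w : ℂ → ℂ} (h : Tst R u) (hw : Tst R w) :
    Tst R (fun z => u z + w z) :=
  ⟨h.smooth.add hw.smooth, fun z hz => by simp [h.zero z hz, hw.zero z hz]⟩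

theorem Tst.sub {R : ℝ} {u w : ℂ → ℂ} (h : Tst R u) (hw : Tst R w) :
    Tst R (fun z => u z - w z) :=
  ⟨h.smooth.sub hw.smooth, fun z hz => by simp [h.zero z hz, hw.zero z hz]⟩

theorem Tst.const_mul {R : ℝ} {u : ℂ → ℂ} (h : Tst R u) (c : ℂ) :
    Tst R (fun z => c * u z) :=
  ⟨contDiff_const.mul h.smooth, fun z hz => by simp [h.zero z hz]⟩

theorem Tst.cont {R : ℝ} {u : ℂ → ℂ} (h : Tst R u) : Continuous u := h.smooth.continuous

theorem Tst.integrable {R : ℝ} {u : ℂ → ℂ} (h : Tst R u) : Integrable u :=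
  h.cont.integrable_of_hasCompactSupport h.compact

/-! ### The kernel -/

/-- the Cauchy kernel `1/(π ζ)` -/
def ker (ζ : ℂ) : ℂ := (π : ℂ)⁻¹ * ζ⁻¹

theorem norm_ker (ζ : ℂ) : ‖ker ζ‖ = π⁻¹ * ‖ζ‖⁻¹ := by
  simp [ker, abs_of_pos Real.pi_pos]

theorem measurable_ker : Measurable ker := by
  unfold ker; fun_prop

theorem integrableOn_inv (r : ℝ) : IntegrableOn (fun ζ : ℂ => ‖ζ‖⁻¹) (ball 0 r) := by
  have h := (integrableOn_fun_norm_addHaar (volume : Measure ℂ) (f := fun y : ℝ => y⁻¹) (r := r)).2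
  apply h
  rw [Complex.finrank_real_complex]
  have h1 : IntegrableOn (fun _ : ℝ => (1:ℝ)) (Ioo 0 r) := by
    apply integrableOn_const
    · simp
    · simp
  refine h1.congr_fun ?_ measurableSet_Ioo
  intro y hy
  have : y ≠ 0 := hy.1.ne'
  simp [this]

theorem integrableOn_ker (r : ℝ) : IntegrableOn ker (ball 0 r) := by
  have h := (integrableOn_inv r).const_mul π⁻¹
  refine Integrable.mono h measurable_ker.aestronglyMeasurable ?_
  filter_upwards with ζ
  rw [norm_ker]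
  exact le_abs_self _

theorem locallyIntegrable_ker : LocallyIntegrable ker := by
  rw [locallyIntegrable_iff]
  intro K hK
  obtain ⟨r, hr⟩ := hK.isBounded.subset_ball 0
  exact (integrableOn_ker r).mono_set hr

/-- `∫_{|ζ|<r} |ker|` -/
def IK (r : ℝ) : ℝ := ∫ ζ in ball (0:ℂ) r, ‖ker ζ‖

theorem IK_nonneg (r : ℝ) : 0 ≤ IK r := integral_nonneg fun _ => norm_nonneg _

theorem IK_tendsto : Tendsto (fun n : ℕ => IK (1 / ((n:ℝ) + 1))) atTop (𝓝 0) := by
  have h := tendsto_setIntegral_of_antitone (μ := (volume : Measure ℂ))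
    (s := fun n : ℕ => ball (0:ℂ) (1 / ((n:ℝ) + 1))) (f := fun ζ => ‖ker ζ‖)
    (fun n => measurableSet_ball) (by
      intro m n hmn
      apply ball_subset_ball
      apply one_div_le_one_div_of_le (by positivity)
      have : (m:ℝ) ≤ n := by exact_mod_cast hmn
      linarith) ⟨0, (integrableOn_ker _).norm⟩
  have hI : (⋂ n : ℕ, ball (0:ℂ) (1 / ((n:ℝ) + 1))) = {0} := by
    ext z
    simp only [mem_iInter, mem_ball, dist_zero_right, mem_singleton_iff]
    constructor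
    · intro hz
      by_contra hne
      have hpos : 0 < ‖z‖ := norm_pos_iff.2 hne
      obtain ⟨n, hn⟩ := exists_nat_one_div_lt hpos
      exact absurd (hz n) (not_lt.2 hn.le)
    · rintro rfl n
      rw [norm_zero]; positivity
  rw [hI] at h
  simpa [IK] using h

/-- the Cauchy transform -/
def P (u : ℂ → ℂ) (z : ℂ) : ℂ := ∫ ζ, ker ζ * u (z - ζ)

theorem P_eq_conv (u : ℂ → ℂ) :
    P u = MeasureTheory.convolution ker u (ContinuousLinearMap.mul ℝ ℂ) volume := by
  ext z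
  rw [convolution_def]
  rfl

theorem P_swap (u : ℂ → ℂ) (z : ℂ) : P u z = ∫ ζ, ker (z - ζ) * u ζ := by
  unfold P
  rw [← integral_sub_left_eq_self (fun ζ => ker (z - ζ) * u ζ) volume z]
  simp

theorem exists_int {R : ℝ} {u : ℂ → ℂ} (h : Tst R u) (z : ℂ) :
    Integrable fun ζ => ker ζ * u (z - ζ) :=
  h.compact.convolutionExists_right (ContinuousLinearMap.mul ℝ ℂ) locallyIntegrable_ker h.cont z

theorem exists_int' {R : ℝ} {u : ℂ → ℂ} (h : Tst R u) (z : ℂ) :
    Integrable fun ζ => ker (z - ζ) * u ζ := by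
  have := (exists_int h z).comp_sub_left z
  simpa using this

theorem P_smooth {R : ℝ} {u : ℂ → ℂ} (h : Tst R u) : ContDiff ℝ ∞ (P u) := by
  rw [P_eq_conv]
  exact h.compact.contDiff_convolution_right _ locallyIntegrable_ker h.smooth

theorem dd_P {R : ℝ} {u : ℂ → ℂ} (h : Tst R u) (v : ℂ) : dd v (P u) = P (dd v u) := by
  ext z
  have h1 : ContDiff ℝ 1 u := h.smooth.of_le (by simp)
  have := h.compact.hasFDerivAt_convolution_right (ContinuousLinearMap.mul ℝ ℂ)
    locallyIntegrable_ker h1 z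
  rw [← P_eq_conv] at this
  unfold dd
  rw [this.fderiv, convolution_precompR_apply _ locallyIntegrable_ker (h.compact.fderiv ℝ)
    (h1.continuous_fderiv (by norm_num))]
  rw [P_eq_conv]

theorem P_add {R : ℝ} {u w : ℂ → ℂ} (h : Tst R u) (hw : Tst R w) (z : ℂ) :
    P (fun z => u z + w z) z = P u z + P w z := by
  unfold P
  rw [← integral_add (exists_int h z) (exists_int hw z)]
  congr 1; ext ζ; ring

theorem P_sub {R : ℝ} {u w : ℂ → ℂ} (h : Tst R u) (hw : Tst R w) (z : ℂ) :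
    P (fun z => u z - w z) z = P u z - P w z := by
  unfold P
  rw [← integral_sub (exists_int h z) (exists_int hw z)]
  congr 1; ext ζ; ring

theorem P_const_mul (c : ℂ) (u : ℂ → ℂ) (z : ℂ) :
    P (fun z => c * u z) z = c * P u z := by
  unfold P
  rw [← integral_const_mul]
  congr 1; ext ζ; ring

theorem dz_P {R : ℝ} {u : ℂ → ℂ} (h : Tst R u) : dz (P u) = P (dz u) := by
  ext z
  unfold dz
  rw [dd_P h, dd_P h]
  have h1 := h.dd 1
  have h2 := (h.dd Complex.I).const_mul Complex.I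
  have h3 : (fun z => (dd 1 u z - Complex.I * dd Complex.I u z) / 2)
      = fun z => (1/2 : ℂ) * (dd 1 u z - Complex.I * dd Complex.I u z) := by
    ext z; ring
  rw [h3, P_const_mul, P_sub h1 h2, P_const_mul]; ring

theorem dzb_P' {R : ℝ} {u : ℂ → ℂ} (h : Tst R u) : dzb (P u) = P (dzb u) := by
  ext z
  unfold dzb
  rw [dd_P h, dd_P h]
  have h1 := h.dd 1
  have h2 := (h.dd Complex.I).const_mul Complex.I
  have h3 : (fun z => (dd 1 u z + Complex.I * dd Complex.I u z) / 2)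
      = fun z => (1/2 : ℂ) * (dd 1 u z + Complex.I * dd Complex.I u z) := by
    ext z; ring
  rw [h3, P_const_mul, P_add h1 h2, P_const_mul]; ring

/-- `∂̄ P u = u` -/
theorem dzb_P {R : ℝ} {u : ℂ → ℂ} (h : Tst R u) : dzb (P u) = u := by
  rw [dzb_P' h]
  ext z
  have hφ : ContDiff ℝ 1 fun ζ => u (z - ζ) :=
    (h.smooth.of_le (by simp)).comp (contDiff_const.sub contDiff_id)
  have hz : ∀ ζ, R + ‖z‖ < ‖ζ‖ → u (z - ζ) = 0 := by
    intro ζ hζ
    apply h.zero
    have := norm_sub_norm_le ζ z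
    rw [norm_sub_rev] at this
    linarith
  have key := pompeiu hφ hz
  have hd : ∀ v ζ, dd v (fun ζ => u (z - ζ)) ζ = - dd v u (z - ζ) := by
    intro v ζ
    unfold dd
    have h1 : HasFDerivAt (fun ζ : ℂ => z - ζ) (-(ContinuousLinearMap.id ℝ ℂ)) ζ := by
      simpa using (hasFDerivAt_id (𝕜 := ℝ) ζ).const_sub z
    have h2 := (h.diff (z - ζ)).hasFDerivAt.comp ζ h1
    have h3 : (u ∘ fun ζ => z - ζ) = fun ζ => u (z - ζ) := rfl
    rw [h3] at h2
    rw [h2.fderiv]; simp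
  simp only [hd, sub_zero] at key
  unfold P
  have e : ∀ ζ, ker ζ * dzb u (z - ζ)
      = (-(2 * π : ℂ)⁻¹) * (ζ⁻¹ * (-dd 1 u (z - ζ) + Complex.I * -dd Complex.I u (z - ζ))) := by
    intro ζ
    have hp : (π : ℂ) ≠ 0 := by exact_mod_cast Real.pi_ne_zero
    unfold ker dzb
    field_simp
    ring
  simp_rw [e]
  rw [integral_const_mul, key]
  have hp : (π : ℂ) ≠ 0 := by exact_mod_cast Real.pi_ne_zero
  field_simp

/-- basic bound -/
theorem P_bound {R : ℝ} {u : ℂ → ℂ} (h : Tst R u) {M : ℝ} (hM : ∀ z, ‖u z‖ ≤ M) {r : ℝ}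
    (hr : 0 < r) (z : ℂ) : ‖P u z‖ ≤ IK r * M + (π * r)⁻¹ * ∫ ζ, ‖u ζ‖ := by
  have hM0 : 0 ≤ M := (norm_nonneg _).trans (hM 0)
  have hi1 : Integrable ((ball (0:ℂ) r).indicator fun ζ => ‖ker ζ‖ * M) := by
    rw [integrable_indicator_iff measurableSet_ball]
    exact ((integrableOn_ker r).norm).mul_const M
  have hi2 : Integrable fun ζ => (π * r)⁻¹ * ‖u (z - ζ)‖ :=
    ((h.integrable.comp_sub_left z).norm).const_mul _
  have hle : ∀ ζ, ‖ker ζ * u (z - ζ)‖
      ≤ (ball (0:ℂ) r).indicator (fun ζ => ‖ker ζ‖ * M) ζ + (π * r)⁻¹ * ‖u (z - ζ)‖ := by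
    intro ζ
    rw [norm_mul]
    by_cases hζ : ζ ∈ ball (0:ℂ) r
    · rw [indicator_of_mem hζ]
      have h1 : ‖ker ζ‖ * ‖u (z - ζ)‖ ≤ ‖ker ζ‖ * M :=
        mul_le_mul_of_nonneg_left (hM _) (norm_nonneg _)
      have h2 : 0 ≤ (π * r)⁻¹ * ‖u (z - ζ)‖ := by positivity
      linarith
    · rw [indicator_of_notMem hζ, zero_add]
      apply mul_le_mul_of_nonneg_right _ (norm_nonneg _)
      rw [norm_ker, mul_inv]
      apply mul_le_mul_of_nonneg_left _ (by positivity)
      have : r ≤ ‖ζ‖ := by simpa using hζ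
      exact inv_anti₀ hr this
  calc ‖P u z‖ ≤ ∫ ζ, ((ball (0:ℂ) r).indicator (fun ζ => ‖ker ζ‖ * M) ζ
        + (π * r)⁻¹ * ‖u (z - ζ)‖) :=
        norm_integral_le_of_norm_le (hi1.add hi2) (Eventually.of_forall hle)
    _ = IK r * M + (π * r)⁻¹ * ∫ ζ, ‖u ζ‖ := by
        rw [integral_add hi1 hi2, integral_indicator measurableSet_ball, integral_mul_const,
          integral_const_mul, integral_sub_left_eq_self (fun ζ => ‖u ζ‖) volume z]
        rfl

/-- `∫ |u| ≤ vol(B_R) sup |u|` -/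
theorem int_norm_le {R : ℝ} {u : ℂ → ℂ} (h : Tst R u) {M : ℝ} (hM : ∀ z, ‖u z‖ ≤ M) :
    ∫ ζ, ‖u ζ‖ ≤ (volume.real (closedBall (0:ℂ) R)) * M := by
  have h1 : ∫ ζ, ‖u ζ‖ = ∫ ζ in closedBall (0:ℂ) R, ‖u ζ‖ := by
    rw [setIntegral_eq_integral_of_forall_compl_eq_zero]
    intro ζ hζ
    rw [h.zero ζ (by simpa using hζ)]; simp
  rw [h1]
  have h2 : ∫ ζ in closedBall (0:ℂ) R, ‖u ζ‖ ≤ ∫ ζ in closedBall (0:ℂ) R, M := by
    apply setIntegral_mono h.integrable.norm.integrableOn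
    · exact integrableOn_const (measure_closedBall_lt_top.ne) (by simp)
    · exact hM
  refine h2.trans ?_
  rw [setIntegral_const]; simp

/-- constant of the sup bound -/
def CP (R : ℝ) : ℝ := IK 1 + π⁻¹ * volume.real (closedBall (0:ℂ) R)

theorem CP_nonneg (R : ℝ) : 0 ≤ CP R := by
  unfold CP
  have := IK_nonneg 1
  positivity

theorem P_sup {R : ℝ} {u : ℂ → ℂ} (h : Tst R u) {M : ℝ} (hM : ∀ z, ‖u z‖ ≤ M) (z : ℂ) :
    ‖P u z‖ ≤ CP R * M := by
  have h1 := P_bound h hM one_pos z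
  have h2 := int_norm_le h hM
  have h3 : (π * 1)⁻¹ * ∫ ζ, ‖u ζ‖ ≤ π⁻¹ * (volume.real (closedBall (0:ℂ) R) * M) := by
    rw [mul_one]; exact mul_le_mul_of_nonneg_left h2 (by positivity)
  calc ‖P u z‖ ≤ IK 1 * M + π⁻¹ * (volume.real (closedBall (0:ℂ) R) * M) := h1.trans (by linarith)
    _ = CP R * M := by unfold CP; ring

theorem P_decay {R : ℝ} {u : ℂ → ℂ} (h : Tst R u) (hR : 0 < R) {z : ℂ} (hz : 2 * R ≤ ‖z‖) :
    ‖P u z‖ ≤ 2 * π⁻¹ * (∫ ζ, ‖u ζ‖) * ‖z‖⁻¹ := by
  rw [P_swap]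
  have hzpos : 0 < ‖z‖ := by linarith
  have hle : ∀ ζ, ‖ker (z - ζ) * u ζ‖ ≤ (2 * π⁻¹ * ‖z‖⁻¹) * ‖u ζ‖ := by
    intro ζ
    rw [norm_mul]
    by_cases hζ : R < ‖ζ‖
    · rw [h.zero ζ hζ]; simp
    · apply mul_le_mul_of_nonneg_right _ (norm_nonneg _)
      rw [norm_ker]
      have h1 : ‖z‖ / 2 ≤ ‖z - ζ‖ := by
        have := norm_sub_norm_le z ζ
        push Not at hζ
        linarith
      have h2 : ‖z - ζ‖⁻¹ ≤ (‖z‖ / 2)⁻¹ := inv_anti₀ (by positivity) h1
      calc π⁻¹ * ‖z - ζ‖⁻¹ ≤ π⁻¹ * (‖z‖ / 2)⁻¹ := mul_le_mul_of_nonneg_left h2 (by positivity)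
        _ = 2 * π⁻¹ * ‖z‖⁻¹ := by field_simp
  calc ‖∫ ζ, ker (z - ζ) * u ζ‖ ≤ ∫ ζ, (2 * π⁻¹ * ‖z‖⁻¹) * ‖u ζ‖ :=
        norm_integral_le_of_norm_le (h.integrable.norm.const_mul _) (Eventually.of_forall hle)
    _ = _ := by rw [integral_const_mul]; ring

theorem P_decay2 {R : ℝ} {u : ℂ → ℂ} (h : Tst R u) (hR : 0 < R) (h0 : ∫ ζ, u ζ = 0) {z : ℂ}
    (hz : 2 * R ≤ ‖z‖) :
    ‖P u z‖ ≤ 2 * R * π⁻¹ * (∫ ζ, ‖u ζ‖) * (‖z‖⁻¹) ^ 2 := by
  rw [P_swap]
  have hzpos : 0 < ‖z‖ := by linarith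
  have h1 : ∫ ζ, ker (z - ζ) * u ζ = ∫ ζ, (ker (z - ζ) - ker z) * u ζ := by
    have : ∫ ζ, (ker (z - ζ) - ker z) * u ζ
        = (∫ ζ, ker (z - ζ) * u ζ) - ∫ ζ, ker z * u ζ := by
      rw [← integral_sub (exists_int' h z) (h.integrable.const_mul _)]
      congr 1; ext ζ; ring
    rw [this, integral_const_mul, h0]; simp
  rw [h1]
  have hle : ∀ ζ, ‖(ker (z - ζ) - ker z) * u ζ‖ ≤ (2 * R * π⁻¹ * (‖z‖⁻¹) ^ 2) * ‖u ζ‖ := by
    intro ζ
    rw [norm_mul]
    by_cases hζ : R < ‖ζ‖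
    · rw [h.zero ζ hζ]; simp
    · apply mul_le_mul_of_nonneg_right _ (norm_nonneg _)
      push Not at hζ
      have h1 : ‖z‖ / 2 ≤ ‖z - ζ‖ := by
        have := norm_sub_norm_le z ζ
        linarith
      have hz0 : z ≠ 0 := norm_pos_iff.1 hzpos
      have hzz : z - ζ ≠ 0 := norm_pos_iff.1 (by linarith)
      have e : ker (z - ζ) - ker z = (π:ℂ)⁻¹ * (ζ * (z - ζ)⁻¹ * z⁻¹) := by
        unfold ker
        have hp : (π : ℂ) ≠ 0 := by exact_mod_cast Real.pi_ne_zero
        field_simp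
        ring
      rw [e, norm_mul, norm_mul, norm_mul, norm_inv, norm_inv, norm_inv, Complex.norm_real,
        Real.norm_of_nonneg Real.pi_pos.le]
      have h2 : ‖z - ζ‖⁻¹ ≤ (‖z‖ / 2)⁻¹ := inv_anti₀ (by positivity) h1
      calc π⁻¹ * (‖ζ‖ * ‖z - ζ‖⁻¹ * ‖z‖⁻¹) ≤ π⁻¹ * (R * (‖z‖ / 2)⁻¹ * ‖z‖⁻¹) := by gcongr
        _ = 2 * R * π⁻¹ * (‖z‖⁻¹) ^ 2 := by field_simp
  calc ‖∫ ζ, (ker (z - ζ) - ker z) * u ζ‖ ≤ ∫ ζ, (2 * R * π⁻¹ * (‖z‖⁻¹) ^ 2) * ‖u ζ‖ :=
        norm_integral_le_of_norm_le (h.integrable.norm.const_mul _) (Eventually.of_forall hle)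
    _ = _ := by rw [integral_const_mul]; ring

theorem P_tendsto {R : ℝ} {u : ℂ → ℂ} (h : Tst R u) : Tendsto (P u) (cocompact ℂ) (𝓝 0) := by
  have h' : Tst (max R 1) u := h.mono (le_max_left _ _)
  have hpos : 0 < max R 1 := by positivity
  have h1 : Tendsto (fun z : ℂ => 2 * π⁻¹ * (∫ ζ, ‖u ζ‖) * ‖z‖⁻¹) (cocompact ℂ) (𝓝 0) := by
    have h2 : Tendsto (fun z : ℂ => ‖z‖⁻¹) (cocompact ℂ) (𝓝 0) :=
      tendsto_inv_atTop_zero.comp (tendsto_norm_cocompact_atTop)
    simpa using h2.const_mul (2 * π⁻¹ * (∫ ζ, ‖u ζ‖))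
  apply squeeze_zero_norm' _ h1
  filter_upwards [(tendsto_norm_cocompact_atTop (E := ℂ)).eventually (eventually_ge_atTop (2 * max R 1))]
    with z hz
  exact P_decay h' hpos hz

/-- Liouville. -/
theorem eq_zero_of_dzb {w : ℂ → ℂ} (hw : Differentiable ℝ w) (h0 : ∀ z, dzb w z = 0)
    (hl : Tendsto w (cocompact ℂ) (𝓝 0)) (z : ℂ) : w z = 0 := by
  have hd : Differentiable ℂ w := by
    intro z
    rw [differentiableAt_complex_iff_differentiableAt_real]
    refine ⟨hw z, ?_⟩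
    have := h0 z
    unfold dzb dd at this
    have h2 : fderiv ℝ w z 1 + Complex.I * fderiv ℝ w z Complex.I = 0 := by
      simpa using this
    rw [smul_eq_mul]
    linear_combination (-Complex.I) * h2 + (fderiv ℝ w z Complex.I) * Complex.I_sq
  exact hd.apply_eq_of_tendsto_cocompact z hl

/-- uniqueness -/
theorem eq_P {R : ℝ} {w u : ℂ → ℂ} (hw : Differentiable ℝ w) (hu : Tst R u)
    (h0 : ∀ z, dzb w z = u z) (hl : Tendsto w (cocompact ℂ) (𝓝 0)) (z : ℂ) : w z = P u z := by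
  have hP : Differentiable ℝ (P u) := (P_smooth hu).differentiable (by simp)
  have h1 : (fun z => w z - P u z) z = 0 := by
    apply eq_zero_of_dzb (w := fun z => w z - P u z) (hw.sub hP)
    · intro z
      have e : ∀ v, dd v (fun z => w z - P u z) z = dd v w z - dd v (P u) z := by
        intro v
        unfold dd
        rw [fderiv_fun_sub (hw z) (hP z)]; simp
      have h2 := h0 z
      have h3 := congrFun (dzb_P hu) z
      unfold dzb at h2 h3 ⊢
      rw [e, e]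
      linear_combination h2 - h3
    · simpa using hl.sub (P_tendsto hu)
  exact sub_eq_zero.1 h1

end

end Crest.Agent.R096.BelA_205
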