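import Crest.Agent.R096.BelA_205

/-!
Row 96, P5 / C3-BEL: the `L²` isometry `∫ |∂Pu|² = ∫ |u|²`.
-/

open Set Metric MeasureTheory Filter Topology
open scoped ContDiff NNReal Real ComplexConjugate
open Crest.Agent.R096.BelA_205

namespace Crest.Agent.R096.BelB_205

noncomputable section

/-- integrability of `C ‖z‖^{-3}` at infinity: a continuous function bounded by `C ‖z‖⁻¹ ^ 3`
outside a ball is integrable. -/
theorem integrable_of_decay {f : ℂ → ℂ} (hf : Continuous f) {C ρ : ℝ}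
    (h : ∀ z, ρ ≤ ‖z‖ → ‖f z‖ ≤ C * (‖z‖⁻¹) ^ 3) : Integrable f := by
  set r := max ρ 1 with hr
  have hr1 : 1 ≤ r := le_max_right _ _
  have h1 : IntegrableOn f (closedBall 0 r) :=
    hf.continuousOn.integrableOn_compact (isCompact_closedBall _ _)
  have h2 : IntegrableOn f (closedBall 0 r)ᶜ := by
    have hg : Integrable (fun z : ℂ => (8 * |C|) * (1 + ‖z‖) ^ (-(3:ℝ))) := by
      apply Integrable.const_mul
      apply integrable_one_add_norm
      rw [Complex.finrank_real_complex]; norm_num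
    refine Integrable.mono' hg.integrableOn hf.aestronglyMeasurable ?_
    filter_upwards [ae_restrict_mem measurableSet_closedBall.compl] with z hz
    have hz' : r < ‖z‖ := by simpa using hz
    have hzpos : 0 < ‖z‖ := by linarith
    have h3 := h z ((le_max_left _ _).trans hz'.le)
    have h4 : C * (‖z‖⁻¹) ^ 3 ≤ |C| * (‖z‖⁻¹) ^ 3 :=
      mul_le_mul_of_nonneg_right (le_abs_self C) (by positivity)
    have h5 : (‖z‖⁻¹) ^ 3 ≤ 8 * (1 + ‖z‖) ^ (-(3:ℝ)) := by
      rw [Real.rpow_neg (by positivity)]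
      have : (1 + ‖z‖) ^ (3:ℝ) = (1 + ‖z‖) ^ 3 := by
        exact_mod_cast Real.rpow_natCast (1 + ‖z‖) 3
      rw [this]
      have h6 : ‖z‖⁻¹ ≤ 2 * (1 + ‖z‖)⁻¹ := by
        rw [← div_eq_mul_inv, inv_eq_one_div, div_le_div_iff₀ hzpos (by positivity)]
        linarith
      calc (‖z‖⁻¹) ^ 3 ≤ (2 * (1 + ‖z‖)⁻¹) ^ 3 := by gcongr
        _ = 8 * ((1 + ‖z‖) ^ 3)⁻¹ := by rw [mul_pow, inv_pow]; norm_num
    calc ‖f z‖ ≤ |C| * (‖z‖⁻¹) ^ 3 := h3.trans h4
      _ ≤ |C| * (8 * (1 + ‖z‖) ^ (-(3:ℝ))) := mul_le_mul_of_nonneg_left h5 (abs_nonneg _)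
      _ = (8 * |C|) * (1 + ‖z‖) ^ (-(3:ℝ)) := by ring
  rw [← integrableOn_univ, ← union_compl_self (closedBall (0:ℂ) r)]
  exact h1.union h2

/-- the integral of a derivative of a test function vanishes -/
theorem int_dd {R : ℝ} {u : ℂ → ℂ} (h : Tst R u) (v : ℂ) : ∫ z, dd v u z = 0 := by
  have := integral_mul_fderiv_eq_neg_fderiv_mul_of_integrable (μ := (volume : Measure ℂ))
    (f := fun _ : ℂ => (1:ℂ)) (g := u) (v := v)
    (by simp) (by simp only [one_mul]; exact (h.dd v).integrable)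
    (by simp only [one_mul]; exact h.integrable)
    (fun x _ => differentiableAt_const _) (fun x _ => h.diff x)
  simpa [dd] using this

/-- decay of order `k` -/
def Dec (k : ℕ) (f : ℂ → ℂ) : Prop := ∃ C ρ : ℝ, 0 ≤ C ∧ ∀ z, ρ ≤ ‖z‖ → ‖f z‖ ≤ C * (‖z‖⁻¹) ^ k

theorem Dec.mul {j k : ℕ} {f g : ℂ → ℂ} (hf : Dec j f) (hg : Dec k g) :
    Dec (j + k) (fun z => f z * g z) := by
  obtain ⟨C, ρ, hC, h⟩ := hf
  obtain ⟨C', ρ', hC', h'⟩ := hg
  refine ⟨C * C', max ρ ρ', by positivity, fun z hz => ?_⟩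
  rw [norm_mul, pow_add]
  calc ‖f z‖ * ‖g z‖ ≤ (C * (‖z‖⁻¹) ^ j) * (C' * (‖z‖⁻¹) ^ k) :=
        mul_le_mul (h z ((le_max_left _ _).trans hz)) (h' z ((le_max_right _ _).trans hz))
          (norm_nonneg _) (by positivity)
    _ = _ := by ring

theorem Dec.mono {j k : ℕ} {f : ℂ → ℂ} (hf : Dec j f) (hk : k ≤ j) : Dec k f := by
  obtain ⟨C, ρ, hC, h⟩ := hf
  refine ⟨C, max ρ 1, hC, fun z hz => (h z ((le_max_left _ _).trans hz)).trans ?_⟩
  apply mul_le_mul_of_nonneg_left _ hC
  have h1 : 1 ≤ ‖z‖ := (le_max_right _ _).trans hz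
  have h2 : ‖z‖⁻¹ ≤ 1 := inv_le_one_of_one_le₀ h1
  exact pow_le_pow_of_le_one (by positivity) h2 hk

theorem Dec.conj {k : ℕ} {f : ℂ → ℂ} (hf : Dec k f) : Dec k (fun z => conj (f z)) := by
  obtain ⟨C, ρ, hC, h⟩ := hf
  exact ⟨C, ρ, hC, fun z hz => by simpa using h z hz⟩

theorem Dec.integrable {k : ℕ} {f : ℂ → ℂ} (hf : Dec k f) (hc : Continuous f) (hk : 3 ≤ k) :
    Integrable f := by
  obtain ⟨C, ρ, hC, h⟩ := hf.mono hk
  exact integrable_of_decay hc h

theorem dec_P {R : ℝ} {u : ℂ → ℂ} (h : Tst R u) : Dec 1 (P u) := by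
  have h' : Tst (max R 1) u := h.mono (le_max_left _ _)
  refine ⟨_, _, ?_, fun z hz => by simpa using P_decay h' (by positivity) hz⟩
  have : 0 ≤ ∫ ζ, ‖u ζ‖ := integral_nonneg fun _ => norm_nonneg _
  positivity

theorem dec_P2 {R : ℝ} {u : ℂ → ℂ} (h : Tst R u) (h0 : ∫ z, u z = 0) : Dec 2 (P u) := by
  have h' : Tst (max R 1) u := h.mono (le_max_left _ _)
  refine ⟨_, _, ?_, fun z hz => P_decay2 h' (by positivity) h0 hz⟩
  have : 0 ≤ ∫ ζ, ‖u ζ‖ := integral_nonneg fun _ => norm_nonneg _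
  positivity

theorem dec_dd_P {R : ℝ} {u : ℂ → ℂ} (h : Tst R u) (v : ℂ) : Dec 2 (dd v (P u)) := by
  rw [dd_P h]; exact dec_P2 (h.dd v) (int_dd h v)

theorem dec_dd_dd_P {R : ℝ} {u : ℂ → ℂ} (h : Tst R u) (v w : ℂ) :
    Dec 2 (dd v (dd w (P u))) := by
  rw [dd_P h]; exact dec_dd_P (h.dd w) v

theorem dd_comm {u : ℂ → ℂ} (h : ContDiff ℝ ∞ u) (v w : ℂ) (z : ℂ) :
    dd v (dd w u) z = dd w (dd v u) z := by
  have hs : IsSymmSndFDerivAt ℝ u z := by
    apply h.contDiffAt.isSymmSndFDerivAt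
    rw [minSmoothness_of_isRCLikeNormedField]
    exact ENat.LEInfty.out
  have hd : DifferentiableAt ℝ (fderiv ℝ u) z := by
    have : ContDiff ℝ ∞ (fderiv ℝ u) := h.fderiv_right (by simp)
    exact this.differentiable (by simp) z
  have e : ∀ v w : ℂ, dd v (dd w u) z = fderiv ℝ (fderiv ℝ u) z v w := by
    intro v w
    have h1 : dd w u = fun y => fderiv ℝ u y w := rfl
    unfold dd at *
    rw [fderiv_clm_apply hd (differentiableAt_const _)]
    simp
  rw [e, e]
  exact hs v w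

theorem dd_conj {u : ℂ → ℂ} (h : Differentiable ℝ u) (v z : ℂ) :
    fderiv ℝ (fun z => conj (u z)) z v = conj (dd v u z) := by
  have h1 : HasFDerivAt (fun z => conj (u z))
      ((Complex.conjCLE : ℂ →L[ℝ] ℂ).comp (fderiv ℝ u z)) z :=
    (Complex.conjCLE : ℂ →L[ℝ] ℂ).hasFDerivAt.comp z (h z).hasFDerivAt
  rw [h1.fderiv]; rfl

theorem ibp {R : ℝ} {u : ℂ → ℂ} (h : Tst R u) (v w : ℂ) :
    ∫ z, dd v (P u) z * conj (dd w (P u) z) = - ∫ z, dd w (dd v (P u)) z * conj (P u z) := by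
  have hs := P_smooth h
  have hd : Differentiable ℝ (P u) := hs.differentiable (by simp)
  have hs' := contDiff_dd hs v
  have hd' : Differentiable ℝ (dd v (P u)) := hs'.differentiable (by simp)
  have hc1 : Continuous fun z => conj (P u z) := Complex.continuous_conj.comp hs.continuous
  have := integral_mul_fderiv_eq_neg_fderiv_mul_of_integrable (μ := (volume : Measure ℂ))
    (f := dd v (P u)) (g := fun z => conj (P u z)) (v := w)
    (by
      exact ((dec_dd_dd_P h w v).mul (dec_P h).conj).integrable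
        ((contDiff_dd hs' w).continuous.mul hc1) (by norm_num))
    (by
      simp only [dd_conj hd]
      exact ((dec_dd_P h v).mul (dec_dd_P h w).conj).integrable
        (hs'.continuous.mul (Complex.continuous_conj.comp (contDiff_dd hs w).continuous))
        (by norm_num))
    (by
      exact ((dec_dd_P h v).mul (dec_P h).conj).integrable (hs'.continuous.mul hc1) (by norm_num))
    (fun x _ => hd' x) (fun x _ => (Complex.conjCLE : ℂ →L[ℝ] ℂ).differentiableAt.comp x (hd x))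
  simp only [dd_conj hd] at this
  exact this

theorem sq_diff (a b : ℂ) :
    ‖(a - Complex.I * b) / 2‖ ^ 2 = ‖(a + Complex.I * b) / 2‖ ^ 2 - (a * conj b).im := by
  simp only [norm_div, div_pow, ← Complex.normSq_eq_norm_sq]
  simp only [Complex.normSq_apply, Complex.sub_re, Complex.sub_im, Complex.add_re, Complex.add_im,
    Complex.mul_re, Complex.mul_im, Complex.I_re, Complex.I_im, Complex.conj_re, Complex.conj_im]
  norm_num
  ring

theorem sq_integrable {R : ℝ} {u : ℂ → ℂ} (h : Tst R u) : Integrable fun z => ‖u z‖ ^ 2 := by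
  apply Continuous.integrable_of_hasCompactSupport (h.cont.norm.pow 2)
  apply HasCompactSupport.intro (isCompact_closedBall (0:ℂ) R)
  intro z hz
  show ‖u z‖ ^ 2 = 0
  rw [h.zero z (by simpa using hz)]
  simp

/-- **The isometry.** -/
theorem isometry {R : ℝ} {u : ℂ → ℂ} (h : Tst R u) :
    ∫ z, ‖dz (P u) z‖ ^ 2 = ∫ z, ‖u z‖ ^ 2 := by
  have hs := P_smooth h
  have hx := contDiff_dd hs 1
  have hy := contDiff_dd hs Complex.I
  have hi : Integrable fun z => dd 1 (P u) z * conj (dd Complex.I (P u) z) :=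
    ((dec_dd_P h 1).mul (dec_dd_P h _).conj).integrable
        (hx.continuous.mul (Complex.continuous_conj.comp hy.continuous)) (by norm_num)
  have h1 : ∫ z, dd 1 (P u) z * conj (dd Complex.I (P u) z)
      = ∫ z, dd Complex.I (P u) z * conj (dd 1 (P u) z) := by
    rw [ibp h, ibp h]
    congr 2; ext z
    rw [dd_comm hs]
  have h2 : (∫ z, dd 1 (P u) z * conj (dd Complex.I (P u) z)).im = 0 := by
    have h3 : conj (∫ z, dd 1 (P u) z * conj (dd Complex.I (P u) z))
        = ∫ z, dd 1 (P u) z * conj (dd Complex.I (P u) z) := by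
      rw [← integral_conj]
      conv_rhs => rw [h1]
      congr 1; ext z
      rw [map_mul, Complex.conj_conj, mul_comm]
    exact Complex.conj_eq_iff_im.1 h3
  have h3 : ∫ z, (dd 1 (P u) z * conj (dd Complex.I (P u) z)).im = 0 := by
    have := (Complex.imCLM).integral_comp_comm hi
    simp only [Complex.imCLM_apply] at this
    rw [this, h2]
  have hu : ∀ z, u z = dzb (P u) z := fun z => (congrFun (dzb_P h) z).symm
  have e : ∀ z, ‖dz (P u) z‖ ^ 2
      = ‖u z‖ ^ 2 - (dd 1 (P u) z * conj (dd Complex.I (P u) z)).im := by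
    intro z
    have h5 := sq_diff (dd 1 (P u) z) (dd Complex.I (P u) z)
    rw [hu z]
    unfold dz dzb
    exact h5
  simp_rw [e]
  have hu2 : Integrable fun z => ‖u z‖ ^ 2 := sq_integrable h
  have hi' : Integrable fun z => (dd 1 (P u) z * conj (dd Complex.I (P u) z)).im :=
    Complex.imCLM.integrable_comp hi
  rw [integral_sub hu2 hi', h3, sub_zero]

theorem integrable_sq_P {R : ℝ} {u : ℂ → ℂ} (h : Tst R u) :
    Integrable fun z => ‖dz (P u) z‖ ^ 2 := by
  have hs := P_smooth h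
  have hx := contDiff_dd hs 1
  have hy := contDiff_dd hs Complex.I
  have hi : Integrable fun z => dd 1 (P u) z * conj (dd Complex.I (P u) z) :=
    ((dec_dd_P h 1).mul (dec_dd_P h _).conj).integrable
        (hx.continuous.mul (Complex.continuous_conj.comp hy.continuous)) (by norm_num)
  have hu2 : Integrable fun z => ‖u z‖ ^ 2 := sq_integrable h
  have hu : ∀ z, u z = dzb (P u) z := fun z => (congrFun (dzb_P h) z).symm
  have e : (fun z => ‖dz (P u) z‖ ^ 2)
      = fun z => ‖u z‖ ^ 2 - (dd 1 (P u) z * conj (dd Complex.I (P u) z)).im := by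
    ext z
    have h5 := sq_diff (dd 1 (P u) z) (dd Complex.I (P u) z)
    rw [hu z]
    unfold dz dzb
    exact h5
  rw [e]
  have hi' : Integrable fun z => (dd 1 (P u) z * conj (dd Complex.I (P u) z)).im :=
    Complex.imCLM.integrable_comp hi
  exact hu2.sub hi'

end

end Crest.Agent.R096.BelB_205
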